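import Crest.Agent.R116.SgO2_219

/-!
# R116 (K side, LEMMA SIG / D0), junction 3 (helper219): `Out` for a tangent in place of `ν`

`lam` = tangent of `ν` (record tangent) on the cone `Q.L y0 ρ0 0`.
* `mv`        : tangents along moving bases: Lipschitz, monotone, supermodular
* `Walls.cw`  : the walls of the cone, as `Walls` with constants `0`; `cw_PP`
* `Walls.PP`, `Walls.OO` : legal set without box, interior points of a plane
* **`ae_out_lam`** : `OutS` for every tangent of `lam` at a.e. interior point of a plane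
-/

set_option autoImplicit false
set_option linter.unusedSectionVars false
set_option linter.unusedVariables false

open Set Filter Topology Metric MeasureTheory
open scoped NNReal

namespace Crest.Agent.R116.SgO219

open Crest.Agent.R136
open Crest.Agent.R138
open Dg262 (X SupOn X_cont)
open Dg219 (Tn lf Cone Walls gset mem_gset OutS BUp bup_of_tan gC dhC nC ae_outS dirC exists_grpC
  DirS)
open Rc683 (exists_tan diagF)

variable {ι W κ : Type*} [Fintype ι] [DecidableEq ι] [Fintype W] [DecidableEq κ]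

/-! ### moving bases -/

section

variable {P L : Set (ι → ℝ)} {ν lam : (ι → ℝ) → ℝ} {x : ℕ → ι → ℝ} {h : ℕ → ℝ}

theorem tan_lim (hpos : ∀ l, 0 < h l) (ht : Ex926.IsTan P L ν x h lam) {c c' : ι → ℝ}
    (hc : c ∈ L) (hc' : c' ∈ L) :
    Tendsto (fun l => (ν (x l + h l • c) - ν (x l + h l • c')) / h l) atTop
      (𝓝 (lam c - lam c')) := by
  rw [Metric.tendsto_nhds]
  intro ε hε
  filter_upwards [ht ‖c‖ (ε / 3) (by positivity), ht ‖c'‖ (ε / 3) (by positivity)] with l h1 h2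
  have h3 := (h1 c hc le_rfl).2
  have h4 := (h2 c' hc' le_rfl).2
  have hh := hpos l
  rw [Real.dist_eq, abs_lt]
  rw [abs_le] at h3 h4
  have e : (ν (x l + h l • c) - ν (x l + h l • c')) / h l - (lam c - lam c') =
      ((ν (x l + h l • c) - ν (x l) - h l * lam c) -
        (ν (x l + h l • c') - ν (x l) - h l * lam c')) / h l := by
    field_simp; ring
  rw [e]
  have hd : ((ν (x l + h l • c) - ν (x l) - h l * lam c) -
        (ν (x l + h l • c') - ν (x l) - h l * lam c')) / h l ≤ (2 * (ε / 3)) := by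
    rw [div_le_iff₀ hh]; linarith [h3.2, h4.1]
  have hd' : -(2 * (ε / 3)) ≤ ((ν (x l + h l • c) - ν (x l) - h l * lam c) -
        (ν (x l + h l • c') - ν (x l) - h l * lam c')) / h l := by
    rw [le_div_iff₀ hh]; linarith [h3.1, h4.2]
  constructor <;> linarith

theorem tan_ev (ht : Ex926.IsTan P L ν x h lam) {c : ι → ℝ} (hc : c ∈ L) :
    ∀ᶠ l in atTop, x l + h l • c ∈ P := (ht ‖c‖ 1 one_pos).mono fun l hl => (hl c hc le_rfl).1

theorem tan_lip (hpos : ∀ l, 0 < h l) (ht : Ex926.IsTan P L ν x h lam) {K : ℝ}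
    (hν : ∀ p ∈ P, ∀ q ∈ P, |ν p - ν q| ≤ K * dist p q) :
    ∀ c ∈ L, ∀ c' ∈ L, |lam c - lam c'| ≤ K * dist c c' := by
  intro c hc c' hc'
  refine le_of_tendsto (tan_lim hpos ht hc hc').abs ?_
  filter_upwards [tan_ev ht hc, tan_ev ht hc'] with l m1 m2
  have h1 := hν _ m1 _ m2
  have hh := hpos l
  rw [abs_div, abs_of_pos hh, div_le_iff₀ hh]
  have e : dist (x l + h l • c) (x l + h l • c') = h l * dist c c' := by
    rw [dist_add_left, dist_smul₀, Real.norm_of_nonneg hh.le]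
  rw [e] at h1
  linarith

theorem tan_mono (hpos : ∀ l, 0 < h l) (ht : Ex926.IsTan P L ν x h lam)
    (hm : ∀ p ∈ P, ∀ q ∈ P, p ≤ q → 0 ≤ ν p - ν q ∧ ν p - ν q ≤ ∑ i, (q i - p i)) :
    ∀ c ∈ L, ∀ c' ∈ L, c ≤ c' → 0 ≤ lam c - lam c' ∧ lam c - lam c' ≤ ∑ i, (c' i - c i) := by
  intro c hc c' hc' hcc
  have h1 := tan_lim hpos ht hc hc'
  have key : ∀ᶠ l in atTop, 0 ≤ (ν (x l + h l • c) - ν (x l + h l • c')) / h l ∧
      (ν (x l + h l • c) - ν (x l + h l • c')) / h l ≤ ∑ i, (c' i - c i) := by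
    filter_upwards [tan_ev ht hc, tan_ev ht hc'] with l m1 m2
    have hh := hpos l
    have h2 := hm _ m1 _ m2 (fun i => by
      simp only [Pi.add_apply, Pi.smul_apply, smul_eq_mul]
      have := mul_le_mul_of_nonneg_left (hcc i) hh.le
      linarith)
    refine ⟨div_nonneg h2.1 hh.le, ?_⟩
    rw [div_le_iff₀ hh]
    refine h2.2.trans (le_of_eq ?_)
    rw [Finset.sum_mul]
    exact Finset.sum_congr rfl fun i _ => by
      simp only [Pi.add_apply, Pi.smul_apply, smul_eq_mul]; ring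
  exact ⟨ge_of_tendsto h1 (key.mono fun _ h => h.1), le_of_tendsto h1 (key.mono fun _ h => h.2)⟩

theorem smul_inf' (y c c' : ι → ℝ) {t : ℝ} (ht : 0 < t) :
    (y + t • c) ⊓ (y + t • c') = y + t • (c ⊓ c') := by
  funext i
  simp only [Pi.inf_apply, Pi.add_apply, Pi.smul_apply, smul_eq_mul]
  rcases le_total (c i) (c' i) with h | h
  · rw [inf_eq_left.2 h, inf_eq_left.2 (by nlinarith)]
  · rw [inf_eq_right.2 h, inf_eq_right.2 (by nlinarith)]

theorem smul_sup' (y c c' : ι → ℝ) {t : ℝ} (ht : 0 < t) :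
    (y + t • c) ⊔ (y + t • c') = y + t • (c ⊔ c') := by
  funext i
  simp only [Pi.sup_apply, Pi.add_apply, Pi.smul_apply, smul_eq_mul]
  rcases le_total (c i) (c' i) with h | h
  · rw [sup_eq_right.2 h, sup_eq_right.2 (by nlinarith)]
  · rw [sup_eq_left.2 h, sup_eq_left.2 (by nlinarith)]

theorem tan_smod (hpos : ∀ l, 0 < h l) (ht : Ex926.IsTan P L ν x h lam) (hs : SupOn ν P) :
    SupOn lam L := by
  intro c hc c' hc' h1 h2
  have k1 := (tan_lim hpos ht hc h2).sub (tan_lim hpos ht h1 hc')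
  have key : ∀ᶠ l in atTop, (ν (x l + h l • c) - ν (x l + h l • (c ⊔ c'))) / h l -
      (ν (x l + h l • (c ⊓ c')) - ν (x l + h l • c')) / h l ≤ 0 := by
    filter_upwards [tan_ev ht hc, tan_ev ht hc', tan_ev ht h1, tan_ev ht h2] with l m1 m2 m3 m4
    have hh := hpos l
    have h3 := hs _ m1 _ m2 (by rw [smul_inf' _ _ _ hh]; exact m3)
      (by rw [smul_sup' _ _ _ hh]; exact m4)
    rw [smul_inf' _ _ _ hh, smul_sup' _ _ _ hh] at h3
    rw [← sub_div, div_le_iff₀ hh, zero_mul]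
    linarith
  have := le_of_tendsto k1 key
  linarith

end

/-! ### the walls of a cone -/

open Classical in
/-- the walls which are active along the line `y0 + ℝ ρ0`, with constants `0` -/
noncomputable def cw (Q : Walls ι W) (y0 a b : ι → ℝ) : Walls ι {w : W // Q.Act y0 a b w} where
  hd := fun w => Q.hd w.1
  co := fun w => Q.co w.1
  cst := fun _ => 0
  rk := Q.rk
  low := fun w s h => Q.low w.1 s h

/-- legal set without box -/
def PP (Q : Walls ι W) : Set (ι → ℝ) := {p | ∀ w, p (Q.hd w) ≤ Q.rhs w p + Q.cst w}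

/-- interior points of a plane, no box -/
def OO (Q : Walls ι W) (x0 a b : ι → ℝ) : Set (ℝ × ℝ) :=
  {z | ∀ w, Q.Act x0 a b w ∨ X x0 a b z (Q.hd w) < Q.rhs w (X x0 a b z) + Q.cst w}

theorem cw_rhs (Q : Walls ι W) (y0 a b : ι → ℝ) (w : {w : W // Q.Act y0 a b w}) (c : ι → ℝ) :
    (cw Q y0 a b).rhs w c = Q.rhs w.1 c := rfl

/-- the legal set of the cone walls is the cone -/
theorem cw_PP (Q : Walls ι W) (y0 a b : ι → ℝ) : PP (cw Q y0 a b) = Q.L y0 a b := by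
  ext p
  constructor
  · intro h w hw
    have := h ⟨w, hw⟩
    change p (Q.hd w) ≤ Q.rhs w p + 0 at this
    linarith
  · intro h w
    have := h w.1 w.2
    change p (Q.hd w.1) ≤ Q.rhs w.1 p + 0
    linarith

/-! ### decoupling for a function on `PP Q` -/

theorem isOpen_OO (Q : Walls ι W) (x0 a b : ι → ℝ) : IsOpen (OO Q x0 a b) := by
  have e : OO Q x0 a b = ⋂ w, {z | Q.Act x0 a b w ∨
      X x0 a b z (Q.hd w) < Q.rhs w (X x0 a b z) + Q.cst w} := by
    ext z; simp [OO]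
  rw [e]
  refine isOpen_iInter_of_finite fun w => ?_
  by_cases h1 : Q.Act x0 a b w
  · simp [h1]
  · simp only [h1, false_or]
    exact isOpen_lt ((continuous_apply _).comp (X_cont x0 a b))
      (((Q.rhs_cont w).comp (X_cont x0 a b)).add continuous_const)

/-- **OUT FOR A TANGENT**: `g` = any Lipschitz, monotone, supermodular function on the legal set of
`Q` (no box), e.g. the record tangent on `Q := cw Q0 y0 ρ0 0` -/
theorem ae_out_lam (Q : Walls ι W) {x0 a b : ι → ℝ} {g : (ι → ℝ) → ℝ} {K : ℝ} (hK : 0 ≤ K)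
    (hν : ∀ p ∈ PP Q, ∀ q ∈ PP Q, |g p - g q| ≤ K * dist p q)
    (hm : ∀ p ∈ PP Q, ∀ q ∈ PP Q, p ≤ q → 0 ≤ g p - g q ∧ g p - g q ≤ ∑ i, (q i - p i))
    (hs : SupOn g (PP Q)) (ha : ∀ i, 0 ≤ a i) (hF : Q.Full x0 a b) :
    ∀ᵐ z : ℝ × ℝ, z ∈ OO Q x0 a b → ∃ D : ℝ × ℝ →L[ℝ] ℝ,
      HasFDerivAt (fun z => g (X x0 a b z)) D z ∧
      ∀ (h : ℕ → ℝ), (∀ l, 0 < h l) → Tendsto h atTop (𝓝 0) → ∀ lam : (ι → ℝ) → ℝ,
        Ex926.IsTan (PP Q) (Q.L x0 a b) g (fun _ => X x0 a b z) h lam →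
        ∃ (φ : ℕ → (ι → ℝ) → ℝ) (r : ℕ → ℝ),
          OutS (gC a b) (Q.L x0 a b) (dhC a b) (nC a b) lam (D (1, 0), D (0, 1)) φ r := by
  obtain ⟨wv, hG⟩ := exists_grpC (b := b) ha
  have hPP : ∀ R : ℝ, Q.P (fun _ => -R) (fun _ => R) ⊆ PP Q := fun R p hp => hp.2
  have h1 : ∀ᵐ z : ℝ × ℝ, ∀ R : ℕ, z ∈ Q.O (fun _ => -(R:ℝ)) (fun _ => (R:ℝ)) x0 a b →
      ∃ D : ℝ × ℝ →L[ℝ] ℝ, HasFDerivAt (fun z => g (X x0 a b z)) D z ∧
      ∀ (h : ℕ → ℝ) (lam : (ι → ℝ) → ℝ),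
        BUp (Q.P (fun _ => -(R:ℝ)) (fun _ => (R:ℝ))) (Q.L x0 a b) g (X x0 a b z) h lam →
        ∃ (φ : ℕ → (ι → ℝ) → ℝ) (r : ℕ → ℝ),
          OutS (gC a b) (Q.L x0 a b) (dhC a b) (nC a b) lam (D (1, 0), D (0, 1)) φ r :=
    ae_all_iff.2 fun R => ae_outS Q hK (fun p hp q hq => hν p (hPP R hp) q (hPP R hq))
      (fun p hp q hq => hm p (hPP R hp) q (hPP R hq))
      (fun p hp q hq h1 h2 => hs p (hPP R hp) q (hPP R hq) (hPP R h1) (hPP R h2))
      hG hF (fun _ _ => Iff.rfl) dirC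
  filter_upwards [h1] with z hz hzO
  obtain ⟨R, hR⟩ := exists_nat_gt ‖X x0 a b z‖
  have hbox : ∀ k, -(R:ℝ) < X x0 a b z k ∧ X x0 a b z k < R := fun k => by
    have h2 := norm_le_pi_norm (X x0 a b z) k
    rw [Real.norm_eq_abs] at h2
    exact abs_lt.1 (h2.trans_lt hR)
  obtain ⟨D, hD, H⟩ := hz R ⟨hbox, hzO⟩
  refine ⟨D, hD, fun h hpos h0 lam ht => H h lam ⟨hpos, h0, fun c hc => ?_, fun c hc => ?_⟩⟩
  · -- eventually inside the box
    have h2 := tan_ev ht hc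
    have h3 : Tendsto (fun l => X x0 a b z + h l • c) atTop (𝓝 (X x0 a b z)) := by
      have := (h0.smul_const c).const_add (X x0 a b z)
      simpa using this
    have h4 : ∀ᶠ l in atTop, ‖X x0 a b z + h l • c‖ < R :=
      (h3.norm).eventually_lt_const hR
    filter_upwards [h2, h4] with l m1 m2
    refine ⟨fun k => ?_, m1⟩
    have h5 := norm_le_pi_norm (X x0 a b z + h l • c) k
    rw [Real.norm_eq_abs] at h5
    have h6 := abs_lt.1 (h5.trans_lt m2)
    exact ⟨h6.1.le, h6.2.le⟩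
  · exact (bup_of_tan hpos h0 ht).lim c hc

/-- tangents of `g` exist at interior points of the plane -/
theorem exists_tan_OO (Q : Walls ι W) {x0 a b : ι → ℝ} {J : Type*} [Finite J]
    {g : J → (ι → ℝ) → ℝ} {K : ℝ} (hK : 0 ≤ K)
    (hν : ∀ j, ∀ p ∈ PP Q, ∀ q ∈ PP Q, |g j p - g j q| ≤ K * ‖p - q‖) {z : ℝ × ℝ}
    (hz : z ∈ OO Q x0 a b) {h : ℕ → ℝ} (hpos : ∀ l, 0 < h l) (h0 : Tendsto h atTop (𝓝 0)) :
    ∃ φ : ℕ → ℕ, StrictMono φ ∧ ∃ lam : J → (ι → ℝ) → ℝ,
      ∀ j, Ex926.IsTan (PP Q) (Q.L x0 a b) (g j) (fun _ => X x0 a b z) (fun l => h (φ l))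
        (lam j) := by
  obtain ⟨R, hR⟩ := exists_nat_gt ‖X x0 a b z‖
  have hbox : ∀ k, -(R:ℝ) < X x0 a b z k ∧ X x0 a b z k < R := fun k => by
    have h2 := norm_le_pi_norm (X x0 a b z) k
    rw [Real.norm_eq_abs] at h2
    exact abs_lt.1 (h2.trans_lt hR)
  have hzO : z ∈ Q.O (fun _ => -(R:ℝ)) (fun _ => (R:ℝ)) x0 a b := ⟨hbox, hz⟩
  refine exists_tan (J := J) (P := fun _ => PP Q) (D := fun _ => Q.L x0 a b)
    (fun _ => Walls.isClosed_L) hK hν (x := fun _ => X x0 a b z) hpos (fun _ C => ?_)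
    (fun _ => (Walls.cone (Q := Q)).zero)
  obtain ⟨ε, hε, H⟩ := Walls.legal hzO C
  filter_upwards [h0.eventually_lt_const hε] with l hl c hc hcC
  exact (H z (by rw [dist_self]; exact hε) (h l) (hpos l) hl c hc hcC).2

end Crest.Agent.R116.SgO219
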