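import Crest.Agent.R116.SgL2_337
import Crest.Agent.R116.SgO3_219

/-!
# R116 (K side), Lemma SIG: the geometry of the plane `Σ` over the record tangent (helper635)

Walls `Q = mw monL`; plane `xS lam0 + v aS + t bS = SL θa θb lam0 v t` (337), slot `1` (`D`) frozen.

* `PP_eq`, `L_eq`, `mem_LMd`, `mem_bx`, `OO_of`, `full`, `aS_nonneg`
* groups `gC aS bS`: `0` = slots `1 2 3 4 7 8 10`; `kz, kX, kN, kF`
* `gset_sum` (generic), `gset_sum0`, `gset_sum1`, `gset_sum2` (`σ = 0, 1, 2`)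
* `T4` : positions `(C, P, E, B)`, `Pos`, `pos_path`, `pos_mem`, `T4_ind`
-/

set_option autoImplicit false
set_option linter.unusedVariables false

open Set Filter Topology

namespace Crest.Agent.R116.Sg635

open Crest.Agent.R136
open Crest.Agent.R136.Net191
open Dg262 (X)
open Dg219 (Walls mw gset mem_gset gC dhC nC gC_zero gC_eq)
open SgO219 (PP OO LT)
open ChL222 (monL mfL)
open PL504 (eL eL_wall)
open Sg337 (bx9 coneL mem_coneL natB SL frz uC uP uCP eL_bx9)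
open Sg388 (ind)

/-! ### the plane -/

/-- base of the plane: slot `1` frozen at the level `lam0` -/
def xS (lam0 : ℝ) : Fin 12 → ℝ := bx9 0 lam0 0 0 0 0 0 0 0
/-- slopes in the height `v` -/
def aS : Fin 12 → ℝ := bx9 1 0 0 0 1 0 1 0 1
/-- slopes in the record height `t` -/
def bS (θa θb : ℝ) : Fin 12 → ℝ :=
  bx9 0 0 (2 * θa - θb) (-θa) (-θa) (θa - θb) (-(2 * θa)) (-θb) (-θb)

theorem X_eq (θa θb lam0 : ℝ) (z : ℝ × ℝ) :
    X (xS lam0) aS (bS θa θb) z = SL θa θb lam0 z.1 z.2 := by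
  funext k
  fin_cases k <;> simp [X, xS, aS, bS, SL, frz, bx9] <;> ring

theorem aS_nonneg (k : Fin 12) : 0 ≤ aS k := by
  fin_cases k <;> simp [aS, bx9]

theorem full (θa θb lam0 : ℝ) : (mw monL).Full (xS lam0) aS (bS θa θb) := Dg219.mw_full _ _ _ _

/-! ### walls -/

theorem PP_eq : PP (mw monL) = coneL := by
  ext p
  constructor
  · intro h k e he
    have := h ⟨k, e, he⟩
    simpa [mw, Walls.rhs] using this
  · intro h w
    have := h w.1 w.2.1 w.2.2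
    simpa [mw, Walls.rhs] using this

/-- the cone of the walls without slot `1` -/
def LMd : Set (Fin 12 → ℝ) :=
  {p | ∀ k, ∀ e ∈ monL.mon k, e 1 = 0 → p k ≤ ∑ s, (e s : ℝ) * p s}

theorem no_one {e : Fin 12 → ℕ} (he : e ∈ monL.mon 1) : False := by
  change e ∈ mfL 1 at he
  simp [mfL] at he

theorem ne_one {k : Fin 12} {e : Fin 12 → ℕ} (he : e ∈ monL.mon k) : k ≠ 1 := by
  rintro rfl
  exact no_one he

/-- a sum without slot `1` does not see slot `1` -/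
theorem sum_congr' {e : Fin 12 → ℕ} (h1 : e 1 = 0) {p q : Fin 12 → ℝ} (h : ∀ i, i ≠ 1 → p i = q i) :
    ∑ s, (e s : ℝ) * p s = ∑ s, (e s : ℝ) * q s := by
  refine Finset.sum_congr rfl fun s _ => ?_
  by_cases hs : s = 1
  · rw [hs, h1]; simp
  · rw [h s hs]

theorem eq_of_nat {v c p : ℝ} {x : Fin 12 → ℝ} (hx : ∀ i, i ≠ 1 → x i = eL v c p i) {k : Fin 12}
    {e : Fin 12 → ℕ} (he : e ∈ monL.mon k) (h1 : e 1 = 0) : x k = ∑ s, (e s : ℝ) * x s := by
  rw [hx k (ne_one he), sum_congr' h1 hx, eL_wall v c p k he]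

theorem aS_nat (i : Fin 12) (hi : i ≠ 1) : aS i = eL 1 0 0 i := by
  fin_cases i <;> simp [aS, bx9, eL] at hi ⊢

theorem bS_nat (θa θb : ℝ) (i : Fin 12) (hi : i ≠ 1) : bS θa θb i = eL 0 (-θa) (-θb) i := by
  fin_cases i <;> simp [bS, bx9, eL] at hi ⊢ <;> ring

theorem xS_nat (lam0 : ℝ) (i : Fin 12) (hi : i ≠ 1) : xS lam0 i = eL 0 0 0 i := by
  fin_cases i <;> simp [xS, bx9, eL] at hi ⊢

theorem act_iff {θa θb lam0 : ℝ} (h0 : lam0 ≠ 0) (w : Σ k : Fin 12, {e // e ∈ monL.mon k}) :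
    (mw monL).Act (xS lam0) aS (bS θa θb) w ↔ w.2.1 1 = 0 := by
  obtain ⟨k, e, he⟩ := w
  constructor
  · rintro ⟨h1, -, -⟩
    change xS lam0 k = ∑ s, (e s : ℝ) * xS lam0 s + 0 at h1
    have h2 : ∑ s, (e s : ℝ) * xS lam0 s = e 1 * lam0 := by
      simp [Fin.sum_univ_succ, xS, bx9]
    have h3 : xS lam0 k = 0 := by
      rw [xS_nat lam0 k (ne_one he)]
      fin_cases k <;> simp [eL]
    rw [h2, h3, add_zero] at h1
    have : (e 1 : ℝ) = 0 := by
      rcases mul_eq_zero.1 h1.symm with h | h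
      · exact h
      · exact absurd h h0
    exact_mod_cast this
  · intro h1
    change e 1 = 0 at h1
    refine ⟨?_, ?_, ?_⟩
    · change xS lam0 k = ∑ s, (e s : ℝ) * xS lam0 s + 0
      rw [add_zero]; exact eq_of_nat (xS_nat lam0) he h1
    · exact eq_of_nat aS_nat he h1
    · exact eq_of_nat (bS_nat θa θb) he h1

/-- **the cone of the plane** -/
theorem L_eq {θa θb lam0 : ℝ} (h0 : lam0 ≠ 0) :
    (mw monL).L (xS lam0) aS (bS θa θb) = LMd := by
  ext p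
  constructor
  · intro h k e he h1
    exact h ⟨k, e, he⟩ ((act_iff h0 ⟨k, e, he⟩).2 h1)
  · intro h w hw
    exact h w.1 w.2.1 w.2.2 ((act_iff h0 w).1 hw)

theorem coneL_sub : coneL ⊆ LMd := fun p h k e he _ => h k e he

/-- `LMd` explicitly -/
theorem mem_LMd {p : Fin 12 → ℝ} : p ∈ LMd ↔
    p 5 ≤ p 0 + p 3 ∧ p 6 ≤ p 0 + p 4 ∧ p 7 ≤ p 2 + p 3 ∧ p 8 ≤ p 2 + p 4 ∧ p 9 ≤ p 3 + p 5 ∧
    p 9 ≤ p 4 + p 6 ∧ p 10 ≤ p 3 + p 7 ∧ p 10 ≤ p 4 + p 8 ∧ p 11 ≤ p 0 + p 10 ∧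
    p 11 ≤ p 5 + p 7 ∧ p 11 ≤ p 6 + p 8 ∧ p 11 ≤ p 2 + p 9 := by
  have hs : ∀ e : Fin 12 → ℕ, ∑ s, (e s : ℝ) * p s = e 0 * p 0 + e 1 * p 1 + e 2 * p 2 +
      e 3 * p 3 + e 4 * p 4 + e 5 * p 5 + e 6 * p 6 + e 7 * p 7 + e 8 * p 8 + e 9 * p 9 +
      e 10 * p 10 + e 11 * p 11 := by
    intro e
    simp [Fin.sum_univ_succ]
    ring
  constructor
  · intro w
    change ∀ k, ∀ e ∈ monL.mon k, e 1 = 0 → p k ≤ ∑ s, (e s : ℝ) * p s at w
    simp only [hs] at w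
    refine ⟨?_, ?_, ?_, ?_, ?_, ?_, ?_, ?_, ?_, ?_, ?_, ?_⟩
    · simpa using w 5 ![1, 0, 0, 1, 0, 0, 0, 0, 0, 0, 0, 0] (by decide) (by simp)
    · simpa using w 6 ![1, 0, 0, 0, 1, 0, 0, 0, 0, 0, 0, 0] (by decide) (by simp)
    · simpa using w 7 ![0, 0, 1, 1, 0, 0, 0, 0, 0, 0, 0, 0] (by decide) (by simp)
    · simpa using w 8 ![0, 0, 1, 0, 1, 0, 0, 0, 0, 0, 0, 0] (by decide) (by simp)
    · simpa using w 9 ![0, 0, 0, 1, 0, 1, 0, 0, 0, 0, 0, 0] (by decide) (by simp)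
    · simpa using w 9 ![0, 0, 0, 0, 1, 0, 1, 0, 0, 0, 0, 0] (by decide) (by simp)
    · simpa using w 10 ![0, 0, 0, 1, 0, 0, 0, 1, 0, 0, 0, 0] (by decide) (by simp)
    · simpa using w 10 ![0, 0, 0, 0, 1, 0, 0, 0, 1, 0, 0, 0] (by decide) (by simp)
    · simpa using w 11 ![1, 0, 0, 0, 0, 0, 0, 0, 0, 0, 1, 0] (by decide) (by simp)
    · simpa using w 11 ![0, 0, 0, 0, 0, 1, 0, 1, 0, 0, 0, 0] (by decide) (by simp)
    · simpa using w 11 ![0, 0, 0, 0, 0, 0, 1, 0, 1, 0, 0, 0] (by decide) (by simp)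
    · simpa using w 11 ![0, 0, 1, 0, 0, 0, 0, 0, 0, 1, 0, 0] (by decide) (by simp)
  · rintro ⟨w1, w2, w3, w4, w5, w6, w7, w8, w9, w10, w11, w12⟩ k e he h1
    -- raise slot `1`
    set T : ℝ := |p 0| + |p 2| + |p 5| + |p 6| + |p 7| + |p 8| + |p 9| + |p 10| with hT
    have hq : Function.update p 1 T ∈ coneL := by
      rw [mem_coneL]
      have u : ∀ i : Fin 12, i ≠ 1 → Function.update p 1 T i = p i := fun i hi =>
        Function.update_of_ne hi _ _
      have u1 : Function.update p 1 T 1 = T := Function.update_self _ _ _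
      rw [u1, u 0 (by decide), u 2 (by decide), u 3 (by decide), u 4 (by decide),
        u 5 (by decide), u 6 (by decide), u 7 (by decide), u 8 (by decide), u 9 (by decide),
        u 10 (by decide), u 11 (by decide)]
      have b0 := abs_le.1 (le_refl |p 0|)
      have b2 := abs_le.1 (le_refl |p 2|)
      have b5 := abs_le.1 (le_refl |p 5|)
      have b6 := abs_le.1 (le_refl |p 6|)
      have b7 := abs_le.1 (le_refl |p 7|)
      have b8 := abs_le.1 (le_refl |p 8|)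
      have b9 := abs_le.1 (le_refl |p 9|)
      have b10 := abs_le.1 (le_refl |p 10|)
      have n0 := abs_nonneg (p 0)
      have n2 := abs_nonneg (p 2)
      have n5 := abs_nonneg (p 5)
      have n6 := abs_nonneg (p 6)
      have n7 := abs_nonneg (p 7)
      have n8 := abs_nonneg (p 8)
      have n9 := abs_nonneg (p 9)
      have n10 := abs_nonneg (p 10)
      refine ⟨?_, w1, w2, w3, ?_, w4, ?_, w5, w6, w7, w8, ?_, w9, w10, w11, w12⟩ <;>
        linarith [b0.1, b0.2, b2.1, b2.2, b5.1, b5.2, b6.1, b6.2, b7.1, b7.2, b8.1, b8.2, b9.1,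
          b9.2, b10.1, b10.2]
    have h2 := hq k e he
    rw [Function.update_of_ne (ne_one he)] at h2
    rwa [sum_congr' h1 (p := Function.update p 1 T) (q := p) fun i hi =>
      Function.update_of_ne hi _ _] at h2

/-- boxes of the diagonal form -/
theorem mem_bx {z D E C X B N P F : ℝ} : bx9 z D E C X B N P F ∈ LMd ↔
    X ≤ z + C ∧ B ≤ E + C ∧ N ≤ C + X ∧ P ≤ C + B ∧ F ≤ z + P ∧ F ≤ X + B ∧ F ≤ E + N := by
  rw [mem_LMd]
  change (X ≤ z + C ∧ X ≤ z + C ∧ B ≤ E + C ∧ B ≤ E + C ∧ N ≤ C + X ∧ N ≤ C + X ∧ P ≤ C + B ∧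
    P ≤ C + B ∧ F ≤ z + P ∧ F ≤ X + B ∧ F ≤ X + B ∧ F ≤ E + N) ↔ _
  tauto

/-- **interior points of the plane** -/
theorem OO_of {θa θb lam0 : ℝ} (h0 : lam0 ≠ 0) {z : ℝ × ℝ}
    (hz : (2 * θa - θb) * z.2 - z.1 < lam0) : z ∈ OO (mw monL) (xS lam0) aS (bS θa θb) := by
  intro w
  by_cases h1 : w.2.1 1 = 0
  · exact Or.inl ((act_iff h0 w).2 h1)
  · right
    obtain ⟨k, e, he⟩ := w
    change e 1 ≠ 0 at h1
    rw [X_eq]
    change SL θa θb lam0 z.1 z.2 k < ∑ s, (e s : ℝ) * SL θa θb lam0 z.1 z.2 s + 0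
    rw [add_zero]
    set c : ℝ := -(θa * z.2) with hc
    set p : ℝ := -(θb * z.2) with hp
    have hS : SL θa θb lam0 z.1 z.2 = natB z.1 c p + (lam0 - (p - 2 * c - z.1)) •
        (Pi.single 1 1 : Fin 12 → ℝ) := by
      unfold SL
      rw [Sg337.frz_single]
    have hk : SL θa θb lam0 z.1 z.2 k = natB z.1 c p k := by
      rw [hS, Pi.add_apply, Pi.smul_apply, Pi.single_eq_of_ne (ne_one he)]
      simp
    have hsum : ∑ s, (e s : ℝ) * SL θa θb lam0 z.1 z.2 s =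
        natB z.1 c p k + (e 1 : ℝ) * (lam0 - (p - 2 * c - z.1)) := by
      rw [hS, ← eL_bx9, ← eL_wall z.1 c p k he]
      simp only [Pi.add_apply, Pi.smul_apply, smul_eq_mul, mul_add, Finset.sum_add_distrib]
      congr 1
      rw [Finset.sum_eq_single (1 : Fin 12)]
      · simp
      · intro i _ hi
        rw [Pi.single_eq_of_ne hi]; ring
      · simp
    rw [hk, hsum]
    have h2 : (0:ℝ) < e 1 := by
      have : 0 < e 1 := Nat.pos_of_ne_zero h1
      exact_mod_cast this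
    have h3 : 0 < lam0 - (p - 2 * c - z.1) := by rw [hc, hp]; linarith
    have := mul_pos h2 h3
    linarith

/-! ### groups -/

section grp

variable (θa θb : ℝ)

/-- group of `z` -/
noncomputable def kz : ℕ := gC aS (bS θa θb) 0
/-- group of `X` -/
noncomputable def kX : ℕ := gC aS (bS θa θb) 5
/-- group of `N` -/
noncomputable def kN : ℕ := gC aS (bS θa θb) 9
/-- group of `F` -/
noncomputable def kF : ℕ := gC aS (bS θa θb) 11

variable {θa θb}

theorem g_zero {i : Fin 12} : gC aS (bS θa θb) i = 0 ↔ i ∈ ({1, 2, 3, 4, 7, 8, 10} : Finset (Fin 12)) := by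
  rw [gC_zero]
  fin_cases i <;> simp [aS, bx9]

theorem g6 : gC aS (bS θa θb) 6 = kX θa θb := by
  unfold kX
  rw [gC_eq (by simp [aS, bx9]) (by simp [aS, bx9])]
  simp [aS, bS, bx9]

theorem kz_ne : kz θa θb ≠ 0 := by
  unfold kz; rw [Ne, g_zero]; decide
theorem kX_ne : kX θa θb ≠ 0 := by
  unfold kX; rw [Ne, g_zero]; decide
theorem kN_ne : kN θa θb ≠ 0 := by
  unfold kN; rw [Ne, g_zero]; decide
theorem kF_ne : kF θa θb ≠ 0 := by
  unfold kF; rw [Ne, g_zero]; decide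

theorem kz_kX : kz θa θb = kX θa θb ↔ θa = 0 := by
  unfold kz kX
  rw [gC_eq (by simp [aS, bx9]) (by simp [aS, bx9])]
  simp only [aS, bS, bx9]
  simp
theorem kz_kN : kz θa θb = kN θa θb ↔ θa = 0 := by
  unfold kz kN
  rw [gC_eq (by simp [aS, bx9]) (by simp [aS, bx9])]
  simp only [aS, bS, bx9]
  simp
theorem kz_kF : kz θa θb = kF θa θb ↔ θb = 0 := by
  unfold kz kF
  rw [gC_eq (by simp [aS, bx9]) (by simp [aS, bx9])]
  simp only [aS, bS, bx9]
  simp
theorem kX_kN : kX θa θb = kN θa θb ↔ θa = 0 := by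
  unfold kX kN
  rw [gC_eq (by simp [aS, bx9]) (by simp [aS, bx9])]
  simp only [aS, bS, bx9]
  simp
  constructor <;> intro h <;> linarith
theorem kX_kF : kX θa θb = kF θa θb ↔ θb = θa := by
  unfold kX kF
  rw [gC_eq (by simp [aS, bx9]) (by simp [aS, bx9])]
  simp only [aS, bS, bx9]
  simp
  constructor <;> intro h <;> linarith
theorem kN_kF : kN θa θb = kF θa θb ↔ θb = 2 * θa := by
  unfold kN kF
  rw [gC_eq (by simp [aS, bx9]) (by simp [aS, bx9])]
  simp only [aS, bS, bx9]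
  simp
  constructor <;> intro h <;> linarith

theorem gset_eq : gset (gC aS (bS θa θb)) = {0, kz θa θb, kX θa θb, kN θa θb, kF θa θb} := by
  ext k
  simp only [Finset.mem_insert, Finset.mem_singleton]
  constructor
  · intro h
    obtain ⟨i, -, rfl⟩ := Finset.mem_image.1 h
    by_cases hi : gC aS (bS θa θb) i = 0
    · exact Or.inl hi
    · rw [g_zero] at hi
      fin_cases i <;> simp at hi ⊢
      · right; left; rfl
      · right; right; left; rfl
      · right; right; left; exact g6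
      · right; right; right; left; rfl
      · right; right; right; right; rfl
  · rintro (rfl | rfl | rfl | rfl | rfl)
    · have : gC aS (bS θa θb) 1 = 0 := g_zero.2 (by decide)
      rw [← this]; exact mem_gset 1
    · exact mem_gset 0
    · exact mem_gset 5
    · exact mem_gset 9
    · exact mem_gset 11

/-- generic `σ` -/
theorem gset_sum (ha : θa ≠ 0) (h0 : θb ≠ 0) (h1 : θb ≠ θa) (h2 : θb ≠ 2 * θa) (F : ℕ → ℝ) :
    ∑ k ∈ gset (gC aS (bS θa θb)), F k =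
      F 0 + F (kz θa θb) + F (kX θa θb) + F (kN θa θb) + F (kF θa θb) := by
  have a1 : kz θa θb ≠ kX θa θb := fun h => ha (kz_kX.1 h)
  have a2 : kz θa θb ≠ kN θa θb := fun h => ha (kz_kN.1 h)
  have a3 : kz θa θb ≠ kF θa θb := fun h => h0 (kz_kF.1 h)
  have a4 : kX θa θb ≠ kN θa θb := fun h => ha (kX_kN.1 h)
  have a5 : kX θa θb ≠ kF θa θb := fun h => h1 (kX_kF.1 h)
  have a6 : kN θa θb ≠ kF θa θb := fun h => h2 (kN_kF.1 h)
  have b1 := (kz_ne (θa := θa) (θb := θb)).symm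
  have b2 := (kX_ne (θa := θa) (θb := θb)).symm
  have b3 := (kN_ne (θa := θa) (θb := θb)).symm
  have b4 := (kF_ne (θa := θa) (θb := θb)).symm
  rw [gset_eq, Finset.sum_insert (by simp [b1, b2, b3, b4]),
    Finset.sum_insert (by simp [a1, a2, a3]), Finset.sum_insert (by simp [a4, a5]),
    Finset.sum_pair a6]
  ring

/-- `σ = 0` : `F ∥ z` -/
theorem gset_sum0 (ha : θa ≠ 0) (h0 : θb = 0) (F : ℕ → ℝ) :
    kF θa θb = kz θa θb ∧ ∑ k ∈ gset (gC aS (bS θa θb)), F k =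
      F 0 + F (kz θa θb) + F (kX θa θb) + F (kN θa θb) := by
  have e : kF θa θb = kz θa θb := (kz_kF.2 h0).symm
  refine ⟨e, ?_⟩
  have a1 : kz θa θb ≠ kX θa θb := fun h => ha (kz_kX.1 h)
  have a2 : kz θa θb ≠ kN θa θb := fun h => ha (kz_kN.1 h)
  have a4 : kX θa θb ≠ kN θa θb := fun h => ha (kX_kN.1 h)
  have b1 := (kz_ne (θa := θa) (θb := θb)).symm
  have b2 := (kX_ne (θa := θa) (θb := θb)).symm
  have b3 := (kN_ne (θa := θa) (θb := θb)).symm
  have hset : gset (gC aS (bS θa θb)) = {0, kz θa θb, kX θa θb, kN θa θb} := by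
    rw [gset_eq, e]
    generalize kz θa θb = A; generalize kX θa θb = B; generalize kN θa θb = C
    ext k; simp only [Finset.mem_insert, Finset.mem_singleton]
    constructor
    · rintro (h | h | h | h | h) <;> simp [h]
    · rintro (h | h | h | h) <;> simp [h]
  rw [hset, Finset.sum_insert (by simp [b1, b2, b3]),
    Finset.sum_insert (by simp [a1, a2]), Finset.sum_pair a4]
  ring

/-- `σ = 1` : `F ∥ X` -/
theorem gset_sum1 (ha : θa ≠ 0) (h1 : θb = θa) (F : ℕ → ℝ) :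
    kF θa θb = kX θa θb ∧ ∑ k ∈ gset (gC aS (bS θa θb)), F k =
      F 0 + F (kz θa θb) + F (kX θa θb) + F (kN θa θb) := by
  have e : kF θa θb = kX θa θb := (kX_kF.2 h1).symm
  refine ⟨e, ?_⟩
  have a1 : kz θa θb ≠ kX θa θb := fun h => ha (kz_kX.1 h)
  have a2 : kz θa θb ≠ kN θa θb := fun h => ha (kz_kN.1 h)
  have a4 : kX θa θb ≠ kN θa θb := fun h => ha (kX_kN.1 h)
  have b1 := (kz_ne (θa := θa) (θb := θb)).symm
  have b2 := (kX_ne (θa := θa) (θb := θb)).symm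
  have b3 := (kN_ne (θa := θa) (θb := θb)).symm
  have hset : gset (gC aS (bS θa θb)) = {0, kz θa θb, kX θa θb, kN θa θb} := by
    rw [gset_eq, e]
    generalize kz θa θb = A; generalize kX θa θb = B; generalize kN θa θb = C
    ext k; simp only [Finset.mem_insert, Finset.mem_singleton]
    constructor
    · rintro (h | h | h | h | h) <;> simp [h]
    · rintro (h | h | h | h) <;> simp [h]
  rw [hset, Finset.sum_insert (by simp [b1, b2, b3]),
    Finset.sum_insert (by simp [a1, a2]), Finset.sum_pair a4]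
  ring

/-- `σ = 2` : `F ∥ N` -/
theorem gset_sum2 (ha : θa ≠ 0) (h2 : θb = 2 * θa) (F : ℕ → ℝ) :
    kF θa θb = kN θa θb ∧ ∑ k ∈ gset (gC aS (bS θa θb)), F k =
      F 0 + F (kz θa θb) + F (kX θa θb) + F (kN θa θb) := by
  have e : kF θa θb = kN θa θb := (kN_kF.2 h2).symm
  refine ⟨e, ?_⟩
  have a1 : kz θa θb ≠ kX θa θb := fun h => ha (kz_kX.1 h)
  have a2 : kz θa θb ≠ kN θa θb := fun h => ha (kz_kN.1 h)
  have a4 : kX θa θb ≠ kN θa θb := fun h => ha (kX_kN.1 h)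
  have b1 := (kz_ne (θa := θa) (θb := θb)).symm
  have b2 := (kX_ne (θa := θa) (θb := θb)).symm
  have b3 := (kN_ne (θa := θa) (θb := θb)).symm
  have hset : gset (gC aS (bS θa θb)) = {0, kz θa θb, kX θa θb, kN θa θb} := by
    rw [gset_eq, e]
    generalize kz θa θb = A; generalize kX θa θb = B; generalize kN θa θb = C
    ext k; simp only [Finset.mem_insert, Finset.mem_singleton]
    constructor
    · rintro (h | h | h | h | h) <;> simp [h]
    · rintro (h | h | h | h) <;> simp [h]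
  rw [hset, Finset.sum_insert (by simp [b1, b2, b3]),
    Finset.sum_insert (by simp [a1, a2]), Finset.sum_pair a4]
  ring

/-- slopes of the single slots -/
theorem dh_single : dhC aS (bS θa θb) 0 = 1 ∧ dhC aS (bS θa θb) 5 = 1 ∧
    dhC aS (bS θa θb) 6 = 1 ∧ dhC aS (bS θa θb) 9 = 1 ∧ dhC aS (bS θa θb) 11 = 1 := by
  refine ⟨?_, ?_, ?_, ?_, ?_⟩ <;> simp [dhC, aS, bx9]

theorem dh_zero {i : Fin 12} (hi : i ∈ ({1, 2, 3, 4, 7, 8, 10} : Finset (Fin 12))) :
    dhC aS (bS θa θb) i = bS θa θb i := by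
  have : aS i = 0 := gC_zero.1 ((g_zero (θa := θa) (θb := θb)).2 hi)
  simp [dhC, this]

/-- first coordinate of the directions -/
theorem nC_single {i : Fin 12} (hi : aS i ≠ 0) : (nC aS (bS θa θb) (gC aS (bS θa θb) i)).1 = 1 := by
  rw [Dg219.nC_of hi]

theorem nC_zero' : (nC aS (bS θa θb) 0).1 = 0 := by
  rw [Dg219.nC_zero]

/-- the slots of a group, generic `σ` -/
theorem grp_slots (ha : θa ≠ 0) (h0 : θb ≠ 0) (h1 : θb ≠ θa) (h2 : θb ≠ 2 * θa) (i : Fin 12) :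
    (gC aS (bS θa θb) i = kz θa θb ↔ i = 0) ∧
    (gC aS (bS θa θb) i = kX θa θb ↔ i = 5 ∨ i = 6) ∧
    (gC aS (bS θa θb) i = kN θa θb ↔ i = 9) ∧ (gC aS (bS θa θb) i = kF θa θb ↔ i = 11) := by
  have a1 : kz θa θb ≠ kX θa θb := fun h => ha (kz_kX.1 h)
  have a2 : kz θa θb ≠ kN θa θb := fun h => ha (kz_kN.1 h)
  have a3 : kz θa θb ≠ kF θa θb := fun h => h0 (kz_kF.1 h)
  have a4 : kX θa θb ≠ kN θa θb := fun h => ha (kX_kN.1 h)
  have a5 : kX θa θb ≠ kF θa θb := fun h => h1 (kX_kF.1 h)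
  have a6 : kN θa θb ≠ kF θa θb := fun h => h2 (kN_kF.1 h)
  have b1 := (kz_ne (θa := θa) (θb := θb)).symm
  have b2 := (kX_ne (θa := θa) (θb := θb)).symm
  have b3 := (kN_ne (θa := θa) (θb := θb)).symm
  have b4 := (kF_ne (θa := θa) (θb := θb)).symm
  by_cases hi : i ∈ ({1, 2, 3, 4, 7, 8, 10} : Finset (Fin 12))
  · have hg : gC aS (bS θa θb) i = 0 := g_zero.2 hi
    rw [hg]
    fin_cases i <;> simp at hi ⊢ <;> exact ⟨b1, b2, b3, b4⟩
  · have e0 : gC aS (bS θa θb) 0 = kz θa θb := rfl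
    have e5 : gC aS (bS θa θb) 5 = kX θa θb := rfl
    have e9 : gC aS (bS θa θb) 9 = kN θa θb := rfl
    have e11 : gC aS (bS θa θb) 11 = kF θa θb := rfl
    fin_cases i <;> simp at hi ⊢
    · simp [e0, a1, a2, a3]
    · simp [e5, a1.symm, a4, a5]
    · simp [g6, a1.symm, a4, a5]
    · simp [e9, a2.symm, a4.symm, a6]
    · simp [e11, a3.symm, a5.symm, a6.symm]

end grp

/-! ### positions -/

/-- moves of a position: `(C, P, E, B)` -/
def T4l : (Fin 4 → ℝ) →ₗ[ℝ] (Fin 12 → ℝ) where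
  toFun := fun v => bx9 0 0 (v 2) (v 0) 0 (v 3) 0 (v 1) 0
  map_add' := fun v w => by
    funext k; fin_cases k <;> simp [bx9]
  map_smul' := fun c v => by
    funext k; fin_cases k <;> simp [bx9]

/-- moves of a position: `(C, P, E, B)` -/
noncomputable def T4 : (Fin 4 → ℝ) →L[ℝ] (Fin 12 → ℝ) := LinearMap.toContinuousLinearMap T4l

theorem T4_apply (v : Fin 4 → ℝ) : T4 v = bx9 0 0 (v 2) (v 0) 0 (v 3) 0 (v 1) 0 := rfl

theorem T4_nonneg (i : Fin 4) (l : Fin 12) : 0 ≤ T4 (Pi.single i 1) l := by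
  rw [T4_apply]
  fin_cases i <;> fin_cases l <;> simp [bx9]

theorem T4_C (y : ℝ) : T4 (ind {0} y) = y • uC := by
  rw [T4_apply]; funext k
  fin_cases k <;> simp [bx9, uC, ind]

theorem T4_CP (y : ℝ) : T4 (ind {0, 1} y) = y • uCP := by
  rw [T4_apply]; funext k
  fin_cases k <;> simp [bx9, uCP, ind]

theorem T4_P (y : ℝ) : T4 (ind {1, 2, 3} y) = y • uP := by
  rw [T4_apply]; funext k
  fin_cases k <;> simp [bx9, uP, ind]

/-- open cone of positions -/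
def Pos : Set (Fin 4 → ℝ) := {v | (∀ i, 0 < v i) ∧ v 3 < v 2 + v 0 ∧ v 1 < v 0 + v 3}

theorem pos_open : IsOpen Pos := by
  have e : Pos = (⋂ i, {v : Fin 4 → ℝ | 0 < v i}) ∩ ({v | v 3 < v 2 + v 0} ∩
      {v | v 1 < v 0 + v 3}) := by
    ext v; simp [Pos]
  rw [e]
  refine IsOpen.inter (isOpen_iInter_of_finite fun i => ?_) (IsOpen.inter ?_ ?_)
  · exact isOpen_lt continuous_const (continuous_apply i)
  · exact isOpen_lt (continuous_apply 3) ((continuous_apply 2).add (continuous_apply 0))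
  · exact isOpen_lt (continuous_apply 1) ((continuous_apply 0).add (continuous_apply 3))

theorem pos_path {S : Finset (Fin 4)} (hS : S = {0} ∨ S = {0, 1} ∨ S = {1, 2, 3}) {ε t : ℝ}
    (hε : 0 < ε) (ht : 0 ≤ t) : ε • (fun _ => (1:ℝ)) + ind S t ∈ Pos := by
  rcases hS with rfl | rfl | rfl <;>
  · refine ⟨fun i => ?_, ?_, ?_⟩
    · fin_cases i <;> simp [ind] <;> linarith
    · simp [ind]; linarith
    · simp [ind]; linarith

/-- background `(z, X, N, F)` -/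
def bg (z X N F : ℝ) : Fin 12 → ℝ := bx9 z 0 0 0 X 0 N 0 F

theorem bg_add (z X N F : ℝ) (v : Fin 4 → ℝ) :
    bg z X N F + T4 v = bx9 z 0 (v 2) (v 0) X (v 3) N (v 1) F := by
  rw [T4_apply]; funext k
  fin_cases k <;> simp [bg, bx9]

theorem bg_mem {z X N F : ℝ} {v : Fin 4 → ℝ} (hv : v ∈ Pos) :
    bg z X N F + T4 v ∈ LMd ↔ X ≤ z + v 0 ∧ N ≤ v 0 + X ∧ F ≤ z + v 1 ∧ F ≤ X + v 3 ∧
      F ≤ v 2 + N := by
  rw [bg_add, mem_bx]
  constructor
  · rintro ⟨h1, h2, h3, h4, h5, h6, h7⟩; exact ⟨h1, h3, h5, h6, h7⟩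
  · rintro ⟨h1, h3, h5, h6, h7⟩; exact ⟨h1, hv.2.1.le, h3, hv.2.2.le, h5, h6, h7⟩

theorem pos_mem {v : Fin 4 → ℝ} (hv : v ∈ Pos) : T4 v ∈ LMd := by
  have h := (bg_mem (z := 0) (X := 0) (N := 0) (F := 0) hv).2
    ⟨by linarith [hv.1 0], by linarith [hv.1 0], by linarith [hv.1 1], by linarith [hv.1 3],
      by linarith [hv.1 2]⟩
  have e : bg 0 0 0 0 = 0 := by funext k; fin_cases k <;> simp [bg, bx9]
  rwa [e, zero_add] at h

/-! ### tight walls along the base sequences -/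

/-- natural in all slots but slot `1` -/
def Nat1 (x : Fin 12 → ℝ) : Prop := ∃ v c p : ℝ, ∀ i, i ≠ 1 → x i = eL v c p i

theorem SL_nat1 (θa θb lam0 v t : ℝ) : Nat1 (SL θa θb lam0 v t) := by
  refine ⟨v, -(θa * t), -(θb * t), fun i hi => ?_⟩
  unfold SL
  fin_cases i <;> simp [frz, bx9, eL] at hi ⊢

theorem Nat1.add {x y : Fin 12 → ℝ} (hx : Nat1 x) (hy : Nat1 y) (h : ℝ) : Nat1 (x + h • y) := by
  obtain ⟨v, c, p, h1⟩ := hx
  obtain ⟨v', c', p', h2⟩ := hy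
  refine ⟨v + h * v', c + h * c', p + h * p', fun i hi => ?_⟩
  rw [Pi.add_apply, Pi.smul_apply, smul_eq_mul, h1 i hi, h2 i hi]
  fin_cases i <;> simp [eL] <;> ring

/-- all walls without slot `1` are tight -/
theorem Nat1.wall {x : Fin 12 → ℝ} (hx : Nat1 x) : x 5 = x 0 + x 3 ∧ x 6 = x 0 + x 4 ∧
    x 7 = x 2 + x 3 ∧ x 8 = x 2 + x 4 ∧ x 9 = x 3 + x 5 ∧ x 9 = x 4 + x 6 ∧ x 10 = x 3 + x 7 ∧
    x 10 = x 4 + x 8 ∧ x 11 = x 0 + x 10 ∧ x 11 = x 5 + x 7 ∧ x 11 = x 6 + x 8 ∧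
    x 11 = x 2 + x 9 ∧ x 3 = x 4 ∧ x 5 = x 6 ∧ x 7 = x 8 := by
  obtain ⟨v, c, p, h⟩ := hx
  rw [h 0 (by decide), h 2 (by decide), h 3 (by decide), h 4 (by decide), h 5 (by decide),
    h 6 (by decide), h 7 (by decide), h 8 (by decide), h 9 (by decide), h 10 (by decide),
    h 11 (by decide)]
  simp only [eL]
  refine ⟨?_, ?_, ?_, ?_, ?_, ?_, ?_, ?_, ?_, ?_, ?_, ?_, ?_, ?_, ?_⟩ <;> simp <;> ring

end Crest.Agent.R116.Sg635
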