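import Crest.Agent.R116.SgO3_219

/-!
# R116 (K side, LEMMA SIG / D0): the choice of the point `z0` (helper388)

* `tan_incr`, `tan_low`, `tan_up`, `tan_lowS` : linear inequalities pass to tangents
* **`exists_z0`** : on an open set `Ω` of interior points of the plane which contains the
  neighbourhood of a segment along which `g j0` falls by at most `q * v`: a point `z` in a co-null
  set, tangents of all `g j`, the splitting, `∑_{k ≠ 0} r k ≤ q + δ`, transfer of all linear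
  inequalities, and the diagonal (tangents of `f j` along moving bases)
-/

set_option autoImplicit false
set_option linter.unusedSectionVars false
set_option linter.unusedVariables false

open Set Filter Topology Metric MeasureTheory
open scoped NNReal

namespace Crest.Agent.R116.SgZ388

open Crest.Agent.R136
open Crest.Agent.R138
open Dg262 (X SupOn X_cont)
open Dg219 (Tn lf Cone Walls gset mem_gset OutS BUp bup_of_tan gC dhC nC dirC gC_zero nC_zero nC_of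
  X_lip)
open Rc683 (exists_tan diagF)
open SgO219 (PP OO tan_lim tan_ev ae_out_lam exists_tan_OO isOpen_OO)
open Sg388 (exists_rate_on)

variable {ι W : Type*} [Fintype ι] [DecidableEq ι] [Fintype W]

/-! ### linear inequalities pass to tangents -/

section

variable {P L : Set (ι → ℝ)} {ν lam : (ι → ℝ) → ℝ} {x : ℕ → ι → ℝ} {h : ℕ → ℝ}

/-- lower bound of an increment at all small scales -/
theorem tan_incr_ge (hpos : ∀ l, 0 < h l) (h0 : Tendsto h atTop (𝓝 0))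
    (ht : Ex926.IsTan P L ν x h lam) {c c' : ι → ℝ} (hc : c ∈ L) (hc' : c' ∈ L) {A t0 : ℝ}
    (ht0 : 0 < t0)
    (H : ∀ᶠ l in atTop, h l ≤ t0 → A * h l ≤ ν (x l + h l • c) - ν (x l + h l • c')) :
    A ≤ lam c - lam c' := by
  refine ge_of_tendsto (tan_lim hpos ht hc hc') ?_
  filter_upwards [H, h0.eventually_lt_const ht0] with l h1 h2
  rw [le_div_iff₀ (hpos l)]
  exact h1 h2.le

/-- upper bound of an increment at all small scales -/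
theorem tan_incr_le (hpos : ∀ l, 0 < h l) (h0 : Tendsto h atTop (𝓝 0))
    (ht : Ex926.IsTan P L ν x h lam) {c c' : ι → ℝ} (hc : c ∈ L) (hc' : c' ∈ L) {A t0 : ℝ}
    (ht0 : 0 < t0)
    (H : ∀ᶠ l in atTop, h l ≤ t0 → ν (x l + h l • c) - ν (x l + h l • c') ≤ A * h l) :
    lam c - lam c' ≤ A := by
  refine le_of_tendsto (tan_lim hpos ht hc hc') ?_
  filter_upwards [H, h0.eventually_lt_const ht0] with l h1 h2
  rw [div_le_iff₀ (hpos l)]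
  exact h1 h2.le

/-- linear lower bounds of increments pass -/
theorem tan_low (hpos : ∀ l, 0 < h l) (ht : Ex926.IsTan P L ν x h lam)
    (ℓ : (ι → ℝ) →ₗ[ℝ] ℝ) (H : ∀ p ∈ P, ∀ q ∈ P, p ≤ q → ℓ (q - p) ≤ ν p - ν q) :
    ∀ c ∈ L, ∀ c' ∈ L, c ≤ c' → ℓ (c' - c) ≤ lam c - lam c' := by
  intro c hc c' hc' hcc
  refine ge_of_tendsto (tan_lim hpos ht hc hc') ?_
  filter_upwards [tan_ev ht hc, tan_ev ht hc'] with l m1 m2
  have hh := hpos l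
  rw [le_div_iff₀ hh]
  have h1 := H _ m1 _ m2 (fun i => by
    simp only [Pi.add_apply, Pi.smul_apply, smul_eq_mul]
    have := mul_le_mul_of_nonneg_left (hcc i) hh.le
    linarith)
  have e : x l + h l • c' - (x l + h l • c) = h l • (c' - c) := by rw [smul_sub]; abel
  rw [e, map_smul, smul_eq_mul] at h1
  linarith

/-- linear upper bounds of increments pass -/
theorem tan_up (hpos : ∀ l, 0 < h l) (ht : Ex926.IsTan P L ν x h lam)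
    (ℓ : (ι → ℝ) →ₗ[ℝ] ℝ) (H : ∀ p ∈ P, ∀ q ∈ P, p ≤ q → ν p - ν q ≤ ℓ (q - p)) :
    ∀ c ∈ L, ∀ c' ∈ L, c ≤ c' → lam c - lam c' ≤ ℓ (c' - c) := by
  intro c hc c' hc' hcc
  refine le_of_tendsto (tan_lim hpos ht hc hc') ?_
  filter_upwards [tan_ev ht hc, tan_ev ht hc'] with l m1 m2
  have hh := hpos l
  rw [div_le_iff₀ hh]
  have h1 := H _ m1 _ m2 (fun i => by
    simp only [Pi.add_apply, Pi.smul_apply, smul_eq_mul]
    have := mul_le_mul_of_nonneg_left (hcc i) hh.le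
    linarith)
  have e : x l + h l • c' - (x l + h l • c) = h l • (c' - c) := by rw [smul_sub]; abel
  rw [e, map_smul, smul_eq_mul] at h1
  linarith

/-- own bound in one slot -/
theorem tan_lowS (hpos : ∀ l, 0 < h l) (ht : Ex926.IsTan P L ν x h lam) (i0 : ι) (σ : ℝ)
    (H : ∀ p ∈ P, ∀ q ∈ P, p ≤ q → σ * (q i0 - p i0) ≤ ν p - ν q) :
    ∀ c ∈ L, ∀ c' ∈ L, c ≤ c' → σ * (c' i0 - c i0) ≤ lam c - lam c' := by
  have h1 := tan_low hpos ht (σ • (LinearMap.proj i0 : (ι → ℝ) →ₗ[ℝ] ℝ)) (fun p hp q hq hpq => by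
    have := H p hp q hq hpq
    simpa using this)
  intro c hc c' hc' hcc
  have := h1 c hc c' hc' hcc
  simpa using this

/-- value at `0` -/
theorem tan_zero (hpos : ∀ l, 0 < h l) (ht : Ex926.IsTan P L ν x h lam)
    (h0L : (0 : ι → ℝ) ∈ L) : lam 0 = 0 := by
  refine le_antisymm ?_ ?_
  · refine le_of_forall_pos_le_add fun ε hε => ?_
    obtain ⟨l, hl⟩ := (ht 0 ε hε).exists
    have h1 := (hl 0 h0L (by simp)).2
    have hh := hpos l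
    rw [smul_zero, add_zero, sub_self, zero_sub, abs_neg, abs_mul, abs_of_pos hh] at h1
    have h2 : |lam 0| ≤ ε := by nlinarith
    linarith [le_abs_self (lam 0)]
  · refine le_of_forall_pos_le_add fun ε hε => ?_
    obtain ⟨l, hl⟩ := (ht 0 ε hε).exists
    have h1 := (hl 0 h0L (by simp)).2
    have hh := hpos l
    rw [smul_zero, add_zero, sub_self, zero_sub, abs_neg, abs_mul, abs_of_pos hh] at h1
    have h2 : |lam 0| ≤ ε := by nlinarith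
    linarith [neg_abs_le (lam 0)]

end

/-! ### the plane -/

section

variable {Q : Walls ι W} {x0 a b : ι → ℝ}

theorem X_mem_PP {z : ℝ × ℝ} (hz : z ∈ OO Q x0 a b) : X x0 a b z ∈ PP Q := by
  intro w
  rcases hz w with h | h
  · obtain ⟨h1, h2, h3⟩ := h
    have e : Q.rhs w (X x0 a b z) = Q.rhs w x0 + Q.rhs w a * z.1 + Q.rhs w b * z.2 := by
      unfold Walls.rhs X
      rw [Finset.sum_mul, Finset.sum_mul, ← Finset.sum_add_distrib, ← Finset.sum_add_distrib]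
      exact Finset.sum_congr rfl fun s _ => by ring
    rw [e]
    change x0 (Q.hd w) + a (Q.hd w) * z.1 + b (Q.hd w) * z.2 ≤ _
    rw [h1, h2, h3]
    linarith
  · exact h.le

/-- sum of the rates of the groups which contain a slot with `a i ≠ 0` -/
theorem sum_rates {lam : (ι → ℝ) → ℝ} {A : ℝ × ℝ} {φ : ℕ → (ι → ℝ) → ℝ} {r : ℕ → ℝ}
    {L : Set (ι → ℝ)} (H : OutS (gC a b) L (dhC a b) (nC a b) lam A φ r) :
    ∑ k ∈ (gset (gC a b)).erase 0, r k = -A.1 := by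
  classical
  have h1 := H.total (1, 0)
  have h2 : ∀ k ∈ gset (gC a b), r k * lf (nC a b k) (1, 0) = if k = 0 then 0 else r k := by
    intro k hk
    obtain ⟨i, -, hi⟩ := Finset.mem_image.1 hk
    subst hi
    by_cases h : a i = 0
    · rw [gC_zero.2 h, nC_zero]
      simp [lf]
    · have h3 : gC a b i ≠ 0 := fun h' => h (gC_zero.1 h')
      rw [nC_of h, if_neg h3]
      simp [lf]
  rw [Finset.sum_congr rfl h2] at h1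
  have h3 : ∑ k ∈ gset (gC a b), (if k = 0 then 0 else r k) =
      ∑ k ∈ (gset (gC a b)).erase 0, r k := by
    rw [← Finset.filter_ne', Finset.sum_filter]
    exact Finset.sum_congr rfl fun k _ => by by_cases h : k = 0 <;> simp [h]
  rw [h3] at h1
  have h4 : lf A (1, 0) = A.1 := by simp [lf]
  linarith

/-- the second total -/
theorem sum_rates' {lam : (ι → ℝ) → ℝ} {A : ℝ × ℝ} {φ : ℕ → (ι → ℝ) → ℝ} {r : ℕ → ℝ}
    {L : Set (ι → ℝ)} (H : OutS (gC a b) L (dhC a b) (nC a b) lam A φ r) :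
    ∑ k ∈ gset (gC a b), r k * (nC a b k).2 = -A.2 := by
  have h1 := H.total (0, 1)
  have h4 : lf A (0, 1) = A.2 := by simp [lf]
  have h2 : ∑ k ∈ gset (gC a b), r k * lf (nC a b k) (0, 1) =
      ∑ k ∈ gset (gC a b), r k * (nC a b k).2 :=
    Finset.sum_congr rfl fun k _ => by simp [lf]
  rw [h2] at h1
  linarith

end

/-! ### the package at a generic point of a plane -/

/-- tangents of all `g j` at the point `z` of the plane and the splitting of the tangent of `g j0` -/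
structure Pack (Q : Walls ι W) (x0 a b : ι → ℝ) {J : Type*} (g : J → (ι → ℝ) → ℝ) (j0 : J)
    (h : ℕ → ℝ) (z : ℝ × ℝ) (θ : ℕ → ℕ) (lam : J → (ι → ℝ) → ℝ) (D : ℝ × ℝ →L[ℝ] ℝ)
    (φ : ℕ → (ι → ℝ) → ℝ) (r : ℕ → ℝ) : Prop where
  pos : ∀ l, 0 < h (θ l)
  lim : Tendsto (fun l => h (θ l)) atTop (𝓝 0)
  mem : z ∈ OO Q x0 a b
  mono : StrictMono θ
  der : HasFDerivAt (fun z => g j0 (X x0 a b z)) D z
  tan : ∀ j, Ex926.IsTan (PP Q) (Q.L x0 a b) (g j) (fun _ => X x0 a b z) (fun l => h (θ l))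
    (lam j)
  out : OutS (gC a b) (Q.L x0 a b) (dhC a b) (nC a b) (lam j0) (D (1, 0), D (0, 1)) φ r

section

variable {Q : Walls ι W} {x0 a b : ι → ℝ} {J : Type*} {g : J → (ι → ℝ) → ℝ} {j0 : J}
  {h : ℕ → ℝ} {z : ℝ × ℝ} {θ : ℕ → ℕ} {lam : J → (ι → ℝ) → ℝ} {D : ℝ × ℝ →L[ℝ] ℝ}
  {φ : ℕ → (ι → ℝ) → ℝ} {r : ℕ → ℝ}

namespace Pack

theorem zero (H : Pack Q x0 a b g j0 h z θ lam D φ r) (j : J) : lam j 0 = 0 :=
  tan_zero H.pos (H.tan j) (Walls.cone (Q := Q)).zero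

/-- `∑_{k ≠ 0} r k` -/
theorem sum (H : Pack Q x0 a b g j0 h z θ lam D φ r) :
    ∑ k ∈ (gset (gC a b)).erase 0, r k = -D (1, 0) := sum_rates H.out

theorem sum' (H : Pack Q x0 a b g j0 h z θ lam D φ r) :
    ∑ k ∈ gset (gC a b), r k * (nC a b k).2 = -D (0, 1) := sum_rates' H.out

theorem lip (H : Pack Q x0 a b g j0 h z θ lam D φ r) {K : ℝ} {j : J}
    (hν : ∀ p ∈ PP Q, ∀ q ∈ PP Q, |g j p - g j q| ≤ K * ‖p - q‖) :
    ∀ c ∈ Q.L x0 a b, ∀ c' ∈ Q.L x0 a b, |lam j c - lam j c'| ≤ K * ‖c - c'‖ := by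
  have h1 := SgO219.tan_lip H.pos (H.tan j) (K := K) fun p hp q hq => by
    rw [dist_eq_norm]; exact hν p hp q hq
  intro c hc c' hc'
  have := h1 c hc c' hc'
  rwa [dist_eq_norm] at this

theorem mono' (H : Pack Q x0 a b g j0 h z θ lam D φ r) {j : J}
    (hm : ∀ p ∈ PP Q, ∀ q ∈ PP Q, p ≤ q →
      0 ≤ g j p - g j q ∧ g j p - g j q ≤ ∑ i, (q i - p i)) :
    ∀ c ∈ Q.L x0 a b, ∀ c' ∈ Q.L x0 a b, c ≤ c' →
      0 ≤ lam j c - lam j c' ∧ lam j c - lam j c' ≤ ∑ i, (c' i - c i) :=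
  SgO219.tan_mono H.pos (H.tan j) hm

theorem smod (H : Pack Q x0 a b g j0 h z θ lam D φ r) {j : J} (hs : SupOn (g j) (PP Q)) :
    SupOn (lam j) (Q.L x0 a b) := SgO219.tan_smod H.pos (H.tan j) hs

/-- increments between two offsets at all small scales, only at the point `z` -/
theorem incr_at (H : Pack Q x0 a b g j0 h z θ lam D φ r) (j : J) {e e' : ι → ℝ}
    (he : e ∈ Q.L x0 a b) (he' : e' ∈ Q.L x0 a b) {A y0 : ℝ} (hy0 : 0 < y0)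
    (hI : ∀ y ∈ Ioc 0 y0, A * y ≤ g j (X x0 a b z + y • e) - g j (X x0 a b z + y • e')) :
    A ≤ lam j e - lam j e' :=
  tan_incr_ge H.pos H.lim (H.tan j) he he' hy0 (Eventually.of_forall fun l hl =>
    hI _ ⟨H.pos l, hl⟩)

theorem incr_le_at (H : Pack Q x0 a b g j0 h z θ lam D φ r) (j : J) {e e' : ι → ℝ}
    (he : e ∈ Q.L x0 a b) (he' : e' ∈ Q.L x0 a b) {A y0 : ℝ} (hy0 : 0 < y0)
    (hI : ∀ y ∈ Ioc 0 y0, g j (X x0 a b z + y • e) - g j (X x0 a b z + y • e') ≤ A * y) :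
    lam j e - lam j e' ≤ A :=
  tan_incr_le H.pos H.lim (H.tan j) he he' hy0 (Eventually.of_forall fun l hl =>
    hI _ ⟨H.pos l, hl⟩)

/-- increments between two offsets, every scale -/
theorem incr2 (H : Pack Q x0 a b g j0 h z θ lam D φ r) {Ω : Set (ℝ × ℝ)} (hz : z ∈ Ω) (j : J)
    {e e' : ι → ℝ} (he : e ∈ Q.L x0 a b) (he' : e' ∈ Q.L x0 a b) {qi y0 : ℝ} (hy0 : 0 < y0)
    (hI : ∀ z ∈ Ω, ∀ y ∈ Ioc 0 y0, qi * y ≤
      g j (X x0 a b z + y • e) - g j (X x0 a b z + y • e')) :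
    ∀ y, 0 < y → qi * y ≤ lam j (y • e) - lam j (y • e') := by
  intro y hy
  refine H.incr_at j ((Walls.cone (Q := Q)).smul e he y hy.le)
    ((Walls.cone (Q := Q)).smul e' he' y hy.le) (y0 := y0 / y) (div_pos hy0 hy) fun t ht => ?_
  have h1 := hI z hz (t * y) ⟨mul_pos ht.1 hy, (le_div_iff₀ hy).1 ht.2⟩
  rw [smul_smul, smul_smul]
  linarith

/-- plain increments, every scale -/
theorem incr (H : Pack Q x0 a b g j0 h z θ lam D φ r) {Ω : Set (ℝ × ℝ)} (hz : z ∈ Ω) (j : J)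
    {e : ι → ℝ} (he : e ∈ Q.L x0 a b) {qi y0 : ℝ} (hy0 : 0 < y0)
    (hI : ∀ z ∈ Ω, ∀ y ∈ Ioc 0 y0, qi * y ≤ g j (X x0 a b z) - g j (X x0 a b z + y • e)) :
    ∀ y, 0 < y → qi * y ≤ -lam j (y • e) := by
  intro y hy
  have h1 := H.incr2 hz j (e := 0) (Walls.cone (Q := Q)).zero he hy0 (fun z hz y hy => by
    rw [smul_zero, add_zero]; exact hI z hz y hy) y hy
  rw [smul_zero, H.zero j] at h1
  linarith

/-- linear lower bounds of all increments -/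
theorem low (H : Pack Q x0 a b g j0 h z θ lam D φ r) (j : J) (ℓ : (ι → ℝ) →ₗ[ℝ] ℝ)
    (hl : ∀ p ∈ PP Q, ∀ q ∈ PP Q, p ≤ q → ℓ (q - p) ≤ g j p - g j q) :
    ∀ c ∈ Q.L x0 a b, ∀ c' ∈ Q.L x0 a b, c ≤ c' → ℓ (c' - c) ≤ lam j c - lam j c' :=
  tan_low H.pos (H.tan j) ℓ hl

/-- linear upper bounds of all increments -/
theorem up (H : Pack Q x0 a b g j0 h z θ lam D φ r) (j : J) (ℓ : (ι → ℝ) →ₗ[ℝ] ℝ)
    (hl : ∀ p ∈ PP Q, ∀ q ∈ PP Q, p ≤ q → g j p - g j q ≤ ℓ (q - p)) :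
    ∀ c ∈ Q.L x0 a b, ∀ c' ∈ Q.L x0 a b, c ≤ c' → lam j c - lam j c' ≤ ℓ (c' - c) :=
  tan_up H.pos (H.tan j) ℓ hl

/-- own bound in one slot -/
theorem lowS (H : Pack Q x0 a b g j0 h z θ lam D φ r) (j : J) (i0 : ι) (σ : ℝ)
    (hl : ∀ p ∈ PP Q, ∀ q ∈ PP Q, p ≤ q → σ * (q i0 - p i0) ≤ g j p - g j q) :
    ∀ c ∈ Q.L x0 a b, ∀ c' ∈ Q.L x0 a b, c ≤ c' → σ * (c' i0 - c i0) ≤ lam j c - lam j c' :=
  tan_lowS H.pos (H.tan j) i0 σ hl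

/-- **the diagonal**: tangents of `f j` along moving bases -/
theorem diag [Finite J] (H : Pack Q x0 a b g j0 h z θ lam D φ r) {P : Set (ι → ℝ)}
    {f : J → (ι → ℝ) → ℝ} {x : ℕ → ι → ℝ} {hh : ℕ → ℝ} (hpos : ∀ l, 0 < hh l)
    (ht : ∀ j, Ex926.IsTan P (PP Q) (f j) x hh (g j)) {Pr : ℕ → ℕ → Prop}
    (hPr : ∀ m, ∀ᶠ l in atTop, Pr m l) :
    ∃ ψ : ℕ → ℕ, StrictMono ψ ∧ (∀ m, Pr m (ψ m)) ∧ ∀ j,
      Ex926.IsTan P (Q.L x0 a b) (f j) (fun m => x (ψ m) + hh (ψ m) • X x0 a b z)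
        (fun m => hh (ψ m) * h (θ m)) (lam j) :=
  diagF (J := J) (P := fun _ => P) (L := fun _ => PP Q)
    (L' := fun _ => Q.L x0 a b) hpos ht (fun _ => X_mem_PP H.mem) H.pos H.tan hPr

end Pack

/-- **the package exists at almost every interior point of the plane** -/
theorem ae_pack (Q : Walls ι W) {x0 a b : ι → ℝ} {J : Type*} [Finite J]
    {g : J → (ι → ℝ) → ℝ} {j0 : J} {K : ℝ} (hK : 0 ≤ K)
    (hν : ∀ j, ∀ p ∈ PP Q, ∀ q ∈ PP Q, |g j p - g j q| ≤ K * ‖p - q‖)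
    (hm : ∀ p ∈ PP Q, ∀ q ∈ PP Q, p ≤ q →
      0 ≤ g j0 p - g j0 q ∧ g j0 p - g j0 q ≤ ∑ i, (q i - p i))
    (hs : SupOn (g j0) (PP Q)) (ha : ∀ i, 0 ≤ a i) (hF : Q.Full x0 a b) :
    ∀ᵐ z : ℝ × ℝ, z ∈ OO Q x0 a b → ∀ h : ℕ → ℝ, (∀ l, 0 < h l) → Tendsto h atTop (𝓝 0) →
      ∃ (θ : ℕ → ℕ) (lam : J → (ι → ℝ) → ℝ) (D : ℝ × ℝ →L[ℝ] ℝ) (φ : ℕ → (ι → ℝ) → ℝ)
        (r : ℕ → ℝ), Pack Q x0 a b g j0 h z θ lam D φ r := by
  have hae := ae_out_lam Q hK (fun p hp q hq => by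
    rw [dist_eq_norm]; exact hν j0 p hp q hq) hm hs ha hF
  filter_upwards [hae] with z hz hzO h hpos h0
  obtain ⟨D, hD, hout⟩ := hz hzO
  obtain ⟨θ, hθ, lam, hlam⟩ := exists_tan_OO Q (g := g) hK hν hzO hpos h0
  have hθ0 : Tendsto (fun l => h (θ l)) atTop (𝓝 0) := h0.comp hθ.tendsto_atTop
  obtain ⟨φ, r, hO⟩ := hout (fun l => h (θ l)) (fun l => hpos _) hθ0 (lam j0) (hlam j0)
  exact ⟨θ, lam, D, φ, r, fun l => hpos _, hθ0, hzO, hθ, hD, hlam, hO⟩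

/-- the composed function is Lipschitz on the interior points of the plane -/
theorem lip_plane {f : (ι → ℝ) → ℝ} {K : ℝ} (hK : 0 ≤ K)
    (hν : ∀ p ∈ PP Q, ∀ q ∈ PP Q, |f p - f q| ≤ K * ‖p - q‖) {Ω : Set (ℝ × ℝ)}
    (hΩ : Ω ⊆ OO Q x0 a b) :
    ∃ K' : ℝ≥0, LipschitzOnWith K' (fun z => f (X x0 a b z)) Ω := by
  obtain ⟨K', hK'⟩ : ∃ K' : ℝ≥0, (K' : ℝ) = K := ⟨⟨K, hK⟩, rfl⟩
  refine ⟨K' * (‖a‖₊ + ‖b‖₊), LipschitzOnWith.of_dist_le_mul fun z hz z' hz' => ?_⟩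
  have h1 := hν _ (X_mem_PP (hΩ hz)) _ (X_mem_PP (hΩ hz'))
  rw [← dist_eq_norm] at h1
  have h2 := (X_lip x0 a b).dist_le_mul z z'
  rw [Real.dist_eq]
  refine h1.trans ?_
  rw [NNReal.coe_mul, hK', mul_assoc]
  exact mul_le_mul_of_nonneg_left h2 hK

/-- **choice of the point, any direction `d`** -/
theorem exists_pack_dir (Q : Walls ι W) {x0 a b : ι → ℝ} {J : Type*} [Finite J]
    {g : J → (ι → ℝ) → ℝ} {j0 : J} {K : ℝ} (hK : 0 ≤ K)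
    (hν : ∀ j, ∀ p ∈ PP Q, ∀ q ∈ PP Q, |g j p - g j q| ≤ K * ‖p - q‖)
    (hm : ∀ p ∈ PP Q, ∀ q ∈ PP Q, p ≤ q →
      0 ≤ g j0 p - g j0 q ∧ g j0 p - g j0 q ≤ ∑ i, (q i - p i))
    (hs : SupOn (g j0) (PP Q)) (ha : ∀ i, 0 ≤ a i) (hF : Q.Full x0 a b)
    {Ω : Set (ℝ × ℝ)} (hΩ : Ω ⊆ OO Q x0 a b) {z1 d : ℝ × ℝ} {v η q : ℝ}
    (hv : 0 < v) (hη : 0 < η) (hseg : ∀ u ∈ Icc (0:ℝ) v, Metric.ball (z1 + u • d) η ⊆ Ω)
    (hq : g j0 (X x0 a b z1) - g j0 (X x0 a b (z1 + v • d)) ≤ q * v) {δ : ℝ} (hδ : 0 < δ)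
    {N : Set (ℝ × ℝ)} (hN : ∀ᵐ z, z ∈ N) {h : ℕ → ℝ} (hpos : ∀ l, 0 < h l)
    (h0 : Tendsto h atTop (𝓝 0)) :
    ∃ z ∈ N, z ∈ Ω ∧ (∃ u ∈ Ioo (0:ℝ) v, ‖z - (z1 + u • d)‖ < η) ∧
      ∃ (θ : ℕ → ℕ) (lam : J → (ι → ℝ) → ℝ) (D : ℝ × ℝ →L[ℝ] ℝ) (φ : ℕ → (ι → ℝ) → ℝ)
        (r : ℕ → ℝ), Pack Q x0 a b g j0 h z θ lam D φ r ∧ -D d ≤ q + δ := by
  have hae := ae_pack Q (j0 := j0) hK hν hm hs ha hF
  obtain ⟨K', hlip⟩ := lip_plane hK (hν j0) hΩ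
  obtain ⟨z, ⟨hzN, hzG⟩, hzΩ, hu, hzd, hzq⟩ := exists_rate_on
    (μ := (volume : Measure (ℝ × ℝ))) hlip (p := z1) (v := d) (y := v) (a := -q) (δ := δ)
    (η := η) hv hη hseg (by linarith) hδ (N := N ∩ {z | z ∈ OO Q x0 a b → ∀ h : ℕ → ℝ,
      (∀ l, 0 < h l) → Tendsto h atTop (𝓝 0) →
      ∃ (θ : ℕ → ℕ) (lam : J → (ι → ℝ) → ℝ) (D : ℝ × ℝ →L[ℝ] ℝ) (φ : ℕ → (ι → ℝ) → ℝ)
        (r : ℕ → ℝ), Pack Q x0 a b g j0 h z θ lam D φ r})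
    (by filter_upwards [hN, hae] with z h1 h2 using ⟨h1, h2⟩)
  obtain ⟨θ, lam, D, φ, r, H⟩ := hzG (hΩ hzΩ) h hpos h0
  refine ⟨z, hzN, hzΩ, hu, θ, lam, D, φ, r, H, ?_⟩
  rw [H.der.fderiv] at hzq
  linarith

/-- **choice of the point over a set `V` of positive measure of first coordinates** (direction
`(0, 1)`) -/
theorem exists_pack_fib (Q : Walls ι W) {x0 a b : ι → ℝ} {J : Type*} [Finite J]
    {g : J → (ι → ℝ) → ℝ} {j0 : J} {K : ℝ} (hK : 0 ≤ K)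
    (hν : ∀ j, ∀ p ∈ PP Q, ∀ q ∈ PP Q, |g j p - g j q| ≤ K * ‖p - q‖)
    (hm : ∀ p ∈ PP Q, ∀ q ∈ PP Q, p ≤ q →
      0 ≤ g j0 p - g j0 q ∧ g j0 p - g j0 q ≤ ∑ i, (q i - p i))
    (hs : SupOn (g j0) (PP Q)) (ha : ∀ i, 0 ≤ a i) (hF : Q.Full x0 a b)
    {Ω : Set (ℝ × ℝ)} (hΩo : IsOpen Ω) (hΩ : Ω ⊆ OO Q x0 a b) {V : Set ℝ} (hV : volume V ≠ 0)
    {y0 y q : ℝ} (hy : y0 < y) (hseg : ∀ v ∈ V, ∀ t ∈ Icc y0 y, (v, t) ∈ Ω)
    (hq : ∀ v ∈ V, g j0 (X x0 a b (v, y)) - g j0 (X x0 a b (v, y0)) ≤ q * (y - y0))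
    {δ : ℝ} (hδ : 0 < δ) {N : Set (ℝ × ℝ)} (hN : ∀ᵐ z, z ∈ N) {h : ℕ → ℝ} (hpos : ∀ l, 0 < h l)
    (h0 : Tendsto h atTop (𝓝 0)) :
    ∃ v ∈ V, ∃ t ∈ Ioo y0 y, (v, t) ∈ N ∧
      ∃ (θ : ℕ → ℕ) (lam : J → (ι → ℝ) → ℝ) (D : ℝ × ℝ →L[ℝ] ℝ) (φ : ℕ → (ι → ℝ) → ℝ)
        (r : ℕ → ℝ), Pack Q x0 a b g j0 h (v, t) θ lam D φ r ∧ D (0, 1) ≤ q + δ := by
  have hae := ae_pack Q (j0 := j0) hK hν hm hs ha hF
  obtain ⟨K', hlip⟩ := lip_plane hK (hν j0) hΩ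
  obtain ⟨v, hv, t, ht, ⟨hN1, hG⟩, hd, hle⟩ := Sg388.exists_pt_fib hΩo hlip hV hy hseg hq hδ
    (N := N ∩ {z | z ∈ OO Q x0 a b → ∀ h : ℕ → ℝ,
      (∀ l, 0 < h l) → Tendsto h atTop (𝓝 0) →
      ∃ (θ : ℕ → ℕ) (lam : J → (ι → ℝ) → ℝ) (D : ℝ × ℝ →L[ℝ] ℝ) (φ : ℕ → (ι → ℝ) → ℝ)
        (r : ℕ → ℝ), Pack Q x0 a b g j0 h z θ lam D φ r})
    (by filter_upwards [hN, hae] with z h1 h2 using ⟨h1, h2⟩)
  obtain ⟨θ, lam, D, φ, r, H⟩ := hG (hΩ (hseg v hv t (Ioo_subset_Icc_self ht))) h hpos h0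
  refine ⟨v, hv, t, ht, hN1, θ, lam, D, φ, r, H, ?_⟩
  rw [H.der.fderiv] at hle
  exact hle

end

/-- **CHOICE OF `z0`** -/
theorem exists_z0 (Q : Walls ι W) {x0 a b : ι → ℝ} {J : Type*} [Finite J]
    {g : J → (ι → ℝ) → ℝ} {j0 : J} {K : ℝ} (hK : 0 ≤ K)
    (hν : ∀ j, ∀ p ∈ PP Q, ∀ q ∈ PP Q, |g j p - g j q| ≤ K * ‖p - q‖)
    (hm : ∀ p ∈ PP Q, ∀ q ∈ PP Q, p ≤ q →
      0 ≤ g j0 p - g j0 q ∧ g j0 p - g j0 q ≤ ∑ i, (q i - p i))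
    (hs : SupOn (g j0) (PP Q)) (ha : ∀ i, 0 ≤ a i) (hF : Q.Full x0 a b)
    {Ω : Set (ℝ × ℝ)} (hΩo : IsOpen Ω) (hΩ : Ω ⊆ OO Q x0 a b) {z1 : ℝ × ℝ} {v η q : ℝ}
    (hv : 0 < v) (hη : 0 < η) (hseg : ∀ u ∈ Icc (0:ℝ) v, Metric.ball (z1 + (u, 0)) η ⊆ Ω)
    (hq : g j0 (X x0 a b z1) - g j0 (X x0 a b (z1 + (v, 0))) ≤ q * v) {δ : ℝ} (hδ : 0 < δ)
    {N : Set (ℝ × ℝ)} (hN : ∀ᵐ z, z ∈ N) {h : ℕ → ℝ} (hpos : ∀ l, 0 < h l)
    (h0 : Tendsto h atTop (𝓝 0)) :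
    ∃ z ∈ N, z ∈ Ω ∧ (∃ u ∈ Ioo (0:ℝ) v, ‖z - (z1 + (u, 0))‖ < η) ∧
      ∃ (θ : ℕ → ℕ) (lam : J → (ι → ℝ) → ℝ) (D : ℝ × ℝ →L[ℝ] ℝ) (φ : ℕ → (ι → ℝ) → ℝ)
        (r : ℕ → ℝ), StrictMono θ ∧
        HasFDerivAt (fun z => g j0 (X x0 a b z)) D z ∧
        (∀ j, Ex926.IsTan (PP Q) (Q.L x0 a b) (g j) (fun _ => X x0 a b z) (fun l => h (θ l))
          (lam j)) ∧
        OutS (gC a b) (Q.L x0 a b) (dhC a b) (nC a b) (lam j0) (D (1, 0), D (0, 1)) φ r ∧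
        ∑ k ∈ (gset (gC a b)).erase 0, r k ≤ q + δ ∧
        (∀ j, lam j 0 = 0) ∧
        -- plain increment inequalities
        (∀ j, ∀ e ∈ Q.L x0 a b, ∀ e' ∈ Q.L x0 a b, ∀ qi y0 : ℝ, 0 < y0 →
          (∀ z ∈ Ω, ∀ y ∈ Ioc 0 y0, qi * y ≤
            g j (X x0 a b z + y • e) - g j (X x0 a b z + y • e')) →
          ∀ y, 0 < y → qi * y ≤ lam j (y • e) - lam j (y • e')) ∧
        (∀ j, ∀ e ∈ Q.L x0 a b, ∀ qi y0 : ℝ, 0 < y0 →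
          (∀ z ∈ Ω, ∀ y ∈ Ioc 0 y0, qi * y ≤ g j (X x0 a b z) - g j (X x0 a b z + y • e)) →
          ∀ y, 0 < y → qi * y ≤ -lam j (y • e)) ∧
        -- linear bounds of all increments
        (∀ j, ∀ ℓ : (ι → ℝ) →ₗ[ℝ] ℝ, (∀ p ∈ PP Q, ∀ q ∈ PP Q, p ≤ q → ℓ (q - p) ≤ g j p - g j q) →
          ∀ c ∈ Q.L x0 a b, ∀ c' ∈ Q.L x0 a b, c ≤ c' → ℓ (c' - c) ≤ lam j c - lam j c') ∧
        (∀ j, ∀ (i0 : ι) (σ : ℝ),
          (∀ p ∈ PP Q, ∀ q ∈ PP Q, p ≤ q → σ * (q i0 - p i0) ≤ g j p - g j q) →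
          ∀ c ∈ Q.L x0 a b, ∀ c' ∈ Q.L x0 a b, c ≤ c' → σ * (c' i0 - c i0) ≤
            lam j c - lam j c') ∧
        -- the diagonal
        (∀ {P : Set (ι → ℝ)} {f : J → (ι → ℝ) → ℝ} {x : ℕ → ι → ℝ} {hh : ℕ → ℝ},
          (∀ l, 0 < hh l) → (∀ j, Ex926.IsTan P (PP Q) (f j) x hh (g j)) →
          ∀ {Pr : ℕ → ℕ → Prop}, (∀ m, ∀ᶠ l in atTop, Pr m l) →
          ∃ ψ : ℕ → ℕ, StrictMono ψ ∧ (∀ m, Pr m (ψ m)) ∧ ∀ j,
            Ex926.IsTan P (Q.L x0 a b) (f j) (fun m => x (ψ m) + hh (ψ m) • X x0 a b z)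
              (fun m => hh (ψ m) * h (θ m)) (lam j)) := by
  have e0 : ∀ u : ℝ, z1 + u • ((1, 0) : ℝ × ℝ) = z1 + (u, 0) := fun u => by
    congr 1; ext <;> simp
  obtain ⟨z, hzN, hzΩ, ⟨u, hu, hzu⟩, θ, lam, D, φ, r, H, hle⟩ := exists_pack_dir Q (j0 := j0) hK hν
    hm hs ha hF hΩ (z1 := z1) (d := (1, 0)) (q := q) hv hη (fun u hu => by
      rw [e0]; exact hseg u hu) (by rw [e0]; exact hq) hδ hN hpos h0
  rw [e0] at hzu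
  refine ⟨z, hzN, hzΩ, ⟨u, hu, hzu⟩, θ, lam, D, φ, r, H.mono, H.der, H.tan, H.out, ?_, H.zero,
    fun j e he e' he' qi y0 hy0 hI => H.incr2 hzΩ j he he' hy0 hI,
    fun j e he qi y0 hy0 hI => H.incr hzΩ j he hy0 hI, fun j ℓ hl => H.low j ℓ hl,
    fun j i0 σ hl => H.lowS j i0 σ hl, fun hp hf _ hPr => H.diag hp hf hPr⟩
  rw [H.sum]
  exact hle

end Crest.Agent.R116.SgZ388
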