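import Crest.Agent.R116.SgI1_337
import Crest.Agent.R116.Sg3a_635
import Crest.Agent.R116.SgZ_388

/-!
# R116, K-TEXT II-c, the ISOTROPIC record (helper337), part 2: geometry of the plane

Walls `mw monL`; plane `xI l + v aS + t bI θ = SI θ l v t` (337), flag slots frozen.

* `X_eqI`, `actI_iff`, `mem_LI`, `OOI`
* groups: `0` = `{1,2,3,4,7,8,10}`, `kz`, `kX = {5,6,11}`, `kN`; `gsetI_sum`
* positions `T5` : `(α, β, γ, κ)` with `C = (α+γ, β+γ)`, `X = (β+κ, α+κ)`
-/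

set_option autoImplicit false
set_option linter.unusedVariables false

open Set Filter Topology

namespace Crest.Agent.R116.SgI337

open Crest.Agent.R136
open Crest.Agent.R136.Net191
open Dg262 (X)
open Dg219 (Walls mw gset mem_gset gC dhC nC gC_zero gC_eq)
open SgO219 (PP OO LT)
open ChL222 (monL mfL)
open PL504 (eL eL_wall)
open Sg337 (bx9 coneL mem_coneL natB uC eL_bx9 SI)
open Sg635 (PP_eq no_one ne_one aS aS_nonneg)

/-! ### the plane -/

/-- base of the plane -/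
def xI (l : ℝ) : Fin 12 → ℝ := bx9 0 (3 * l) (2 * l) 0 0 l 0 0 0
/-- slopes in the record height -/
def bI (θ : ℝ) : Fin 12 → ℝ := bx9 0 0 0 (-θ) (-θ) 0 (-(2 * θ)) (-θ) (-θ)

theorem X_eqI (θ l : ℝ) (z : ℝ × ℝ) : X (xI l) aS (bI θ) z = SI θ l z.1 z.2 := by
  funext k
  fin_cases k <;> simp [X, xI, aS, bI, SI, bx9] <;> ring

theorem fullI (θ l : ℝ) : (mw monL).Full (xI l) aS (bI θ) := Dg219.mw_full _ _ _ _

/-! ### walls -/

/-- no flag slots -/
def nf (e : Fin 12 → ℕ) : Prop := e 1 = 0 ∧ e 2 = 0 ∧ e 7 = 0 ∧ e 8 = 0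

theorem nf_slot {k : Fin 12} {e : Fin 12 → ℕ} (he : e ∈ monL.mon k) (h : nf e) :
    k ≠ 1 ∧ k ≠ 2 ∧ k ≠ 7 ∧ k ≠ 8 := by
  obtain ⟨h1, h2, h7, h8⟩ := h
  refine ⟨ne_one he, ?_, ?_, ?_⟩
  · rintro rfl
    change e ∈ mfL 2 at he
    simp [mfL] at he
    subst he
    simp at h1
  · rintro rfl
    change e ∈ mfL 7 at he
    simp [mfL] at he
    rcases he with rfl | rfl
    · simp at h2
    · simp at h1
  · rintro rfl
    change e ∈ mfL 8 at he
    simp [mfL] at he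
    rcases he with rfl | rfl
    · simp at h2
    · simp at h1

/-- slots which are not flags -/
def NF (i : Fin 12) : Prop := i ≠ 1 ∧ i ≠ 2 ∧ i ≠ 7 ∧ i ≠ 8

theorem sum_nf {e : Fin 12 → ℕ} (h : nf e) {p q : Fin 12 → ℝ} (hpq : ∀ i, NF i → p i = q i) :
    ∑ s, (e s : ℝ) * p s = ∑ s, (e s : ℝ) * q s := by
  obtain ⟨h1, h2, h7, h8⟩ := h
  refine Finset.sum_congr rfl fun s _ => ?_
  by_cases hs : NF s
  · rw [hpq s hs]
  · have : (e s : ℝ) = 0 := by
      unfold NF at hs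
      by_cases a1 : s = 1
      · rw [a1, h1]; simp
      by_cases a2 : s = 2
      · rw [a2, h2]; simp
      by_cases a7 : s = 7
      · rw [a7, h7]; simp
      by_cases a8 : s = 8
      · rw [a8, h8]; simp
      exact absurd ⟨a1, a2, a7, a8⟩ hs
    rw [this, zero_mul, zero_mul]

theorem eq_nf {v c p : ℝ} {x : Fin 12 → ℝ} (hx : ∀ i, NF i → x i = eL v c p i) {k : Fin 12}
    {e : Fin 12 → ℕ} (he : e ∈ monL.mon k) (h : nf e) : x k = ∑ s, (e s : ℝ) * x s := by
  rw [hx k (nf_slot he h), sum_nf h hx, eL_wall v c p k he]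

theorem aS_natI (i : Fin 12) (hi : NF i) : aS i = eL 1 0 0 i := by
  obtain ⟨h1, h2, h7, h8⟩ := hi
  fin_cases i <;> simp [aS, bx9, eL] at h1 h2 h7 h8 ⊢

theorem bI_natI (θ : ℝ) (i : Fin 12) (hi : NF i) : bI θ i = eL 0 (-θ) (-θ) i := by
  obtain ⟨h1, h2, h7, h8⟩ := hi
  fin_cases i <;> simp [bI, bx9, eL] at h1 h2 h7 h8 ⊢

theorem xI_natI (l : ℝ) (i : Fin 12) (hi : NF i) : xI l i = eL 0 0 0 i := by
  obtain ⟨h1, h2, h7, h8⟩ := hi
  fin_cases i <;> simp [xI, bx9, eL] at h1 h2 h7 h8 ⊢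

theorem actI_iff {θ l : ℝ} (hl : 0 < l) (w : Σ k : Fin 12, {e // e ∈ monL.mon k}) :
    (mw monL).Act (xI l) aS (bI θ) w ↔ nf w.2.1 := by
  obtain ⟨k, e, he⟩ := w
  constructor
  · rintro ⟨h1, -, -⟩
    change xI l k = ∑ s, (e s : ℝ) * xI l s + 0 at h1
    change nf e
    have h2 : ∑ s, (e s : ℝ) * xI l s = l * (3 * e 1 + 2 * e 2 + e 7 + e 8) := by
      simp [Fin.sum_univ_succ, xI, bx9]; ring
    rw [h2, add_zero] at h1
    have key : ∀ n1 n2 n7 n8 : ℕ, l * (3 * (n1:ℝ) + 2 * (n2:ℝ) + n7 + n8) = 0 →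
        n1 = 0 ∧ n2 = 0 ∧ n7 = 0 ∧ n8 = 0 := by
      intro n1 n2 n7 n8 h
      have h3 : (3 * (n1:ℝ) + 2 * (n2:ℝ) + n7 + n8) = 0 := by
        rcases mul_eq_zero.1 h with h | h
        · exact absurd h hl.ne'
        · exact h
      have h4 : 3 * n1 + 2 * n2 + n7 + n8 = 0 := by exact_mod_cast h3
      omega
    have h0 : (k = 2 ∨ k = 7 ∨ k = 8) ∨ xI l k = 0 := by
      have := ne_one he
      fin_cases k <;> simp [xI, bx9] at this ⊢
    rcases h0 with (rfl | rfl | rfl) | h0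
    · exfalso
      change e ∈ mfL 2 at he
      simp [mfL] at he
      subst he
      simp [xI, bx9] at h1
      linarith
    · exfalso
      change e ∈ mfL 7 at he
      simp [mfL] at he
      rcases he with rfl | rfl <;> simp [xI, bx9] at h1 <;> linarith
    · exfalso
      change e ∈ mfL 8 at he
      simp [mfL] at he
      rcases he with rfl | rfl <;> simp [xI, bx9] at h1 <;> linarith
    · rw [h0] at h1
      exact key _ _ _ _ h1.symm
  · intro h
    change nf e at h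
    refine ⟨?_, ?_, ?_⟩
    · change xI l k = ∑ s, (e s : ℝ) * xI l s + 0
      rw [add_zero]; exact eq_nf (xI_natI l) he h
    · exact eq_nf aS_natI he h
    · exact eq_nf (bI_natI θ) he h

theorem sum12 (e : Fin 12 → ℕ) (p : Fin 12 → ℝ) : ∑ s, (e s : ℝ) * p s =
    e 0 * p 0 + e 1 * p 1 + e 2 * p 2 + e 3 * p 3 + e 4 * p 4 + e 5 * p 5 + e 6 * p 6 +
      e 7 * p 7 + e 8 * p 8 + e 9 * p 9 + e 10 * p 10 + e 11 * p 11 := by
  simp [Fin.sum_univ_succ]
  ring

/-- **the cone of the plane** -/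
theorem mem_LI {θ l : ℝ} (hl : 0 < l) {p : Fin 12 → ℝ} :
    p ∈ (mw monL).L (xI l) aS (bI θ) ↔
      p 5 ≤ p 0 + p 3 ∧ p 6 ≤ p 0 + p 4 ∧ p 9 ≤ p 3 + p 5 ∧ p 9 ≤ p 4 + p 6 ∧
        p 11 ≤ p 0 + p 10 := by
  have hw : p ∈ (mw monL).L (xI l) aS (bI θ) ↔
      ∀ k, ∀ e ∈ monL.mon k, nf e → p k ≤ ∑ s, (e s : ℝ) * p s := by
    constructor
    · intro h k e he h1
      exact h ⟨k, e, he⟩ ((actI_iff hl ⟨k, e, he⟩).2 h1)
    · intro h w hw
      exact h w.1 w.2.1 w.2.2 ((actI_iff hl w).1 hw)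
  rw [hw]
  simp only [sum12]
  constructor
  · intro w
    refine ⟨?_, ?_, ?_, ?_, ?_⟩
    · simpa using w 5 ![1, 0, 0, 1, 0, 0, 0, 0, 0, 0, 0, 0] (by decide) (by simp [nf])
    · simpa using w 6 ![1, 0, 0, 0, 1, 0, 0, 0, 0, 0, 0, 0] (by decide) (by simp [nf])
    · simpa using w 9 ![0, 0, 0, 1, 0, 1, 0, 0, 0, 0, 0, 0] (by decide) (by simp [nf])
    · simpa using w 9 ![0, 0, 0, 0, 1, 0, 1, 0, 0, 0, 0, 0] (by decide) (by simp [nf])
    · simpa using w 11 ![1, 0, 0, 0, 0, 0, 0, 0, 0, 0, 1, 0] (by decide) (by simp [nf])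
  · rintro ⟨w1, w2, w3, w4, w5⟩ k e he h1
    change e ∈ mfL k at he
    fin_cases k <;> simp [mfL] at he
    all_goals (first
      | (subst he; first | (simp [nf] at h1; done) | (simp; linarith))
      | (rcases he with rfl | rfl <;>
          first | (simp [nf] at h1; done) | (simp; linarith))
      | (rcases he with rfl | rfl | rfl | rfl <;>
          first | (simp [nf] at h1; done) | (simp; linarith))
      | (rcases he with rfl | rfl | rfl | rfl | rfl | rfl | rfl <;>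
          first | (simp [nf] at h1; done) | (simp; linarith))
      | (rcases he with rfl | rfl | rfl | rfl | rfl | rfl | rfl | rfl | rfl | rfl | rfl | rfl |
          rfl <;>
          first | (simp [nf] at h1; done) | (simp; linarith)))

set_option maxHeartbeats 2000000 in
/-- **interior points of the plane** -/
theorem OOI {θ l : ℝ} (hl : 0 < l) {z : ℝ × ℝ} (hv : |z.1| ≤ l / 4) (ht : |θ * z.2| ≤ l / 4) :
    z ∈ OO (mw monL) (xI l) aS (bI θ) := by
  intro w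
  by_cases h1 : nf w.2.1
  · exact Or.inl ((actI_iff hl w).2 h1)
  · right
    obtain ⟨k, e, he⟩ := w
    change ¬ nf e at h1
    rw [X_eqI]
    change SI θ l z.1 z.2 k < ∑ s, (e s : ℝ) * SI θ l z.1 z.2 s + 0
    rw [add_zero, sum12]
    set C : ℝ := -(θ * z.2) with hC
    have hC' : |C| ≤ l / 4 := by rw [hC, abs_neg]; exact ht
    obtain ⟨a1, a2⟩ := abs_le.1 hv
    obtain ⟨a3, a4⟩ := abs_le.1 hC'
    have e0 : SI θ l z.1 z.2 0 = z.1 := rfl
    have e1 : SI θ l z.1 z.2 1 = 3 * l := rfl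
    have e2 : SI θ l z.1 z.2 2 = 2 * l := rfl
    have e3 : SI θ l z.1 z.2 3 = C := rfl
    have e4 : SI θ l z.1 z.2 4 = C := rfl
    have e5 : SI θ l z.1 z.2 5 = z.1 + C := rfl
    have e6 : SI θ l z.1 z.2 6 = z.1 + C := rfl
    have e7 : SI θ l z.1 z.2 7 = l := rfl
    have e8 : SI θ l z.1 z.2 8 = l := rfl
    have e9 : SI θ l z.1 z.2 9 = z.1 + 2 * C := rfl
    have e10 : SI θ l z.1 z.2 10 = C := rfl
    have e11 : SI θ l z.1 z.2 11 = z.1 + C := rfl
    rw [e0, e1, e2, e3, e4, e5, e6, e7, e8, e9, e10, e11]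
    change e ∈ mfL k at he
    fin_cases k <;> simp [mfL] at he
    all_goals (first
      | (subst he; first | (exfalso; apply h1; simp [nf]; done) | (simp [e2, e5, e6]; linarith))
      | (rcases he with rfl | rfl <;>
          first | (exfalso; apply h1; simp [nf]; done) | (simp [e7, e8]; linarith))
      | (rcases he with rfl | rfl | rfl | rfl <;>
          first | (exfalso; apply h1; simp [nf]; done) | (simp [e9]; linarith))
      | (rcases he with rfl | rfl | rfl | rfl | rfl | rfl | rfl <;>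
          first | (exfalso; apply h1; simp [nf]; done) | (simp [e10]; linarith))
      | (rcases he with rfl | rfl | rfl | rfl | rfl | rfl | rfl | rfl | rfl | rfl | rfl | rfl |
          rfl <;>
          first | (exfalso; apply h1; simp [nf]; done) | (simp [e11]; linarith)))

/-! ### groups -/

section grp

variable (θ : ℝ)

/-- group of `z` -/
noncomputable def kz : ℕ := gC aS (bI θ) 0
/-- group of `X` -/
noncomputable def kX : ℕ := gC aS (bI θ) 5
/-- group of `N` -/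
noncomputable def kN : ℕ := gC aS (bI θ) 9

variable {θ}

theorem gI_zero {i : Fin 12} :
    gC aS (bI θ) i = 0 ↔ i ∈ ({1, 2, 3, 4, 7, 8, 10} : Finset (Fin 12)) := by
  rw [gC_zero]
  fin_cases i <;> simp [aS, bx9]

theorem gI6 : gC aS (bI θ) 6 = kX θ := by
  unfold kX
  rw [gC_eq (by simp [aS, bx9]) (by simp [aS, bx9])]
  simp [aS, bI, bx9]

theorem gI11 : gC aS (bI θ) 11 = kX θ := by
  unfold kX
  rw [gC_eq (by simp [aS, bx9]) (by simp [aS, bx9])]
  simp [aS, bI, bx9]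

theorem kz_ne : kz θ ≠ 0 := by
  unfold kz; rw [Ne, gI_zero]; decide
theorem kX_ne : kX θ ≠ 0 := by
  unfold kX; rw [Ne, gI_zero]; decide
theorem kN_ne : kN θ ≠ 0 := by
  unfold kN; rw [Ne, gI_zero]; decide

theorem kz_kX (h : θ ≠ 0) : kz θ ≠ kX θ := by
  unfold kz kX
  rw [Ne, gC_eq (by simp [aS, bx9]) (by simp [aS, bx9])]
  simp only [aS, bI, bx9]
  simp [h]

theorem kz_kN (h : θ ≠ 0) : kz θ ≠ kN θ := by
  unfold kz kN
  rw [Ne, gC_eq (by simp [aS, bx9]) (by simp [aS, bx9])]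
  simp only [aS, bI, bx9]
  simp [h]

theorem kX_kN (h : θ ≠ 0) : kX θ ≠ kN θ := by
  unfold kX kN
  rw [Ne, gC_eq (by simp [aS, bx9]) (by simp [aS, bx9])]
  simp only [aS, bI, bx9]
  simp
  intro h1
  exact h (by linarith)

theorem gsetI_eq : gset (gC aS (bI θ)) = {0, kz θ, kX θ, kN θ} := by
  ext k
  simp only [Finset.mem_insert, Finset.mem_singleton]
  constructor
  · intro h
    obtain ⟨i, -, rfl⟩ := Finset.mem_image.1 h
    by_cases hi : gC aS (bI θ) i = 0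
    · exact Or.inl hi
    · rw [gI_zero] at hi
      fin_cases i <;> simp at hi ⊢
      · right; left; rfl
      · right; right; left; rfl
      · right; right; left; exact gI6
      · right; right; right; rfl
      · right; right; left; exact gI11
  · rintro (rfl | rfl | rfl | rfl)
    · have : gC aS (bI θ) 1 = 0 := gI_zero.2 (by decide)
      rw [← this]; exact mem_gset 1
    · exact mem_gset 0
    · exact mem_gset 5
    · exact mem_gset 9

theorem gsetI_sum (h : θ ≠ 0) (F : ℕ → ℝ) :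
    ∑ k ∈ gset (gC aS (bI θ)), F k = F 0 + F (kz θ) + F (kX θ) + F (kN θ) := by
  have b1 := (kz_ne (θ := θ)).symm
  have b2 := (kX_ne (θ := θ)).symm
  have b3 := (kN_ne (θ := θ)).symm
  rw [gsetI_eq, Finset.sum_insert (by simp [b1, b2, b3]),
    Finset.sum_insert (by simp [kz_kX h, kz_kN h]), Finset.sum_pair (kX_kN h)]
  ring

theorem gsetI_sum' (h : θ ≠ 0) (F : ℕ → ℝ) :
    ∑ k ∈ (gset (gC aS (bI θ))).erase 0, F k = F (kz θ) + F (kX θ) + F (kN θ) := by
  have h0 : (0:ℕ) ∈ gset (gC aS (bI θ)) := by rw [gsetI_eq]; simp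
  have h1 := Finset.add_sum_erase _ F h0
  rw [gsetI_sum h] at h1
  linarith

/-- the slots of a group -/
theorem grpI_slots (h : θ ≠ 0) (i : Fin 12) :
    (gC aS (bI θ) i = kz θ ↔ i = 0) ∧
    (gC aS (bI θ) i = kX θ ↔ i = 5 ∨ i = 6 ∨ i = 11) ∧
    (gC aS (bI θ) i = kN θ ↔ i = 9) := by
  have a1 := kz_kX h
  have a2 := kz_kN h
  have a4 := kX_kN h
  have b1 := (kz_ne (θ := θ)).symm
  have b2 := (kX_ne (θ := θ)).symm
  have b3 := (kN_ne (θ := θ)).symm
  by_cases hi : i ∈ ({1, 2, 3, 4, 7, 8, 10} : Finset (Fin 12))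
  · have hg : gC aS (bI θ) i = 0 := gI_zero.2 hi
    rw [hg]
    fin_cases i <;> simp at hi ⊢ <;> exact ⟨b1, b2, b3⟩
  · have e0 : gC aS (bI θ) 0 = kz θ := rfl
    have e5 : gC aS (bI θ) 5 = kX θ := rfl
    have e9 : gC aS (bI θ) 9 = kN θ := rfl
    fin_cases i <;> simp at hi ⊢
    · simp [e0, a1, a2]
    · simp [e5, a1.symm, a4]
    · simp [gI6, a1.symm, a4]
    · simp [e9, a2.symm, a4.symm]
    · simp [gI11, a1.symm, a4]

theorem dhI_X : dhC aS (bI θ) 0 = 1 ∧ dhC aS (bI θ) 5 = 1 ∧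
    dhC aS (bI θ) 6 = 1 ∧ dhC aS (bI θ) 9 = 1 ∧ dhC aS (bI θ) 11 = 1 := by
  refine ⟨?_, ?_, ?_, ?_, ?_⟩ <;> simp [dhC, aS, bx9]

end grp

end Crest.Agent.R116.SgI337
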