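import Crest.Agent.R116.Nar9_192
import Crest.Agent.R116.SgZ_388
import Crest.Agent.R116.Sg3a_635
import Crest.Agent.R116.SgI2_337

/-!
# R116, (A1) of the rows (helper79), part 1: conversions and stages

* `out_split`     : additivity of a tangent with `OutS` over disjoint groups
* `frz_ev`        : equality of two values of the first tangent ⊢ freeze of the stages of the diagonal
* **`nsTc_thin`**  : thin context, bases `rL v0 + H1 m • SL z`, units `H m` ⊢ 192's `NsTc` of the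
  pair `(sC, 10)`, rate `gam q`
-/

set_option autoImplicit false
set_option linter.unusedVariables false
set_option linter.unusedSectionVars false

open Finset Filter Topology

namespace Crest.Agent.R116.A1T79

open Crest.Agent.R138.Defs (E2)
open Crest.Agent.R138.Ex926 (Base U IsTan)
open Crest.Agent.R136
open Crest.Agent.R136.MkA627
open Crest.Agent.R136.Net191
open Crest.Agent.R136.Qg926
open Crest.Agent.R136.Lq196
open Crest.Agent.R136.NSt107 (NsW)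
open Crest.Agent.R116.LZg725
open Crest.Agent.R116.ChL222
open Crest.Agent.R116.PL504 (βL eL rL oL Shift nb DN)
open Crest.Agent.R116.Gd222 (TSet sN PDL DT vb gam)
open Crest.Agent.R116.KI439 (LRay)
open Crest.Agent.R116.Tw468
open Crest.Agent.R116.CtxB468
open Crest.Agent.R116.Nar192 (StgM NsTc tC hax_of)
open Crest.Agent.R116.Nar863 (NsT)
open Crest.Agent.R116.WinU954 (WinU)
open Crest.Agent.R116.Sg337 (bx9 coneL natB SL)
open Dg219 (OutS gset)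

/-! ### groups -/

/-- additivity over disjoint groups -/
theorem out_split {grp : Fin 12 → ℕ} {L : Set (Fin 12 → ℝ)} {dh : Fin 12 → ℝ} {n : ℕ → ℝ × ℝ}
    {lam : (Fin 12 → ℝ) → ℝ} {A : ℝ × ℝ} {φ : ℕ → (Fin 12 → ℝ) → ℝ} {r : ℕ → ℝ}
    (H : OutS grp L dh n lam A φ r) (T : Set ℕ) {c c1 c2 : Fin 12 → ℝ} (hc : c ∈ L) (h1 : c1 ∈ L)
    (h2 : c2 ∈ L) (e1 : ∀ i, grp i ∈ T → c i = c1 i ∧ c2 i = 0)
    (e2 : ∀ i, grp i ∉ T → c i = c2 i ∧ c1 i = 0) : lam c = lam c1 + lam c2 := by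
  classical
  rw [H.sum c hc, H.sum c1 h1, H.sum c2 h2, ← Finset.sum_add_distrib]
  refine Finset.sum_congr rfl fun k _ => ?_
  by_cases hk : k ∈ T
  · rw [H.loc k c c1 fun i hi => (e1 i (by rw [hi]; exact hk)).1,
      H.zero k c2 fun i hi => (e1 i (by rw [hi]; exact hk)).2, add_zero]
  · rw [H.loc k c c2 fun i hi => (e2 i (by rw [hi]; exact hk)).1,
      H.zero k c1 fun i hi => (e2 i (by rw [hi]; exact hk)).2, zero_add]

/-! ### freeze -/

/-- equality of two values of a tangent ⊢ the difference of the values of `ν` is small -/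
theorem frz_ev {P L : Set (Fin 12 → ℝ)} {ν g : (Fin 12 → ℝ) → ℝ} {x0 : Fin 12 → ℝ} {hh : ℕ → ℝ}
    (hpos : ∀ l, 0 < hh l) (ht : IsTan P L ν (fun _ => x0) hh g) {c c' : Fin 12 → ℝ} (hc : c ∈ L)
    (hc' : c' ∈ L) (he : g c = g c') {ε : ℝ} (hε : 0 < ε) :
    ∀ᶠ l in (atTop : Filter ℕ), ν (x0 + hh l • c) - ν (x0 + hh l • c') ≤ ε * hh l := by
  have h1 := SgO219.tan_lim hpos ht hc hc'
  rw [he, sub_self] at h1
  filter_upwards [h1.eventually_lt_const hε] with l hl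
  rw [div_lt_iff₀ (hpos l)] at hl
  exact hl.le

section ctx

variable {G : Geo TSet (Fin 2)} {L : ℕ → ℕ → LRay} {r : ℕ → ℝ} {g s : ℝ} {θ q : Fin 2 → ℝ}
    {Rg : ℝ} {B : Base}
    {I : ℕ → Finset (ℕ × ℝ)} {lev : ℕ → ℚ → ℕ} {A : ℕ → ℝ}
    {f : ℕ → ℚ → ℕ → ℤ → ℕ} {b : ℕ → ℚ → ℕ → TSet} {vm : ℕ → ℚ → ℝ} {w : Fin 2 → ℕ → ℚ → ℝ}
    {fr : ℕ → ℚ → ℕ × ℝ → LInc} {fl : ℕ → ℕ × ℝ → LInc} {sc : Fin 12 → ℕ → ℝ}
    {w0 sa sb δ R : ℝ} {I0 I' : ℕ → Finset (ℕ × ℝ)} {ν own : (Fin 12 → ℝ) → ℝ} {c₀ : ℝ}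

/-- slots of the base box -/
theorem base_slots (θa θb w0 sa sb v0 lam0 z1 z2 h : ℝ) :
    let X := rL θa θb w0 sa sb v0 + h • SL θa θb lam0 z1 z2
    let v := v0 + h * z2
    X 0 = w0 + (v0 + h * z1) ∧
    X 1 = (θb * (1 - v0) + sb) - 2 * (θa * (1 - v0) + sa) - (w0 + v0) + h * lam0 ∧
    X 2 = (sb + θb * (1 - v)) - 2 * (sa + θa * (1 - v)) ∧ X 3 = sa + θa * (1 - v) ∧
    X 4 = sa + θa * (1 - v) ∧ X 5 = w0 + (v0 + h * z1) + (sa + θa * (1 - v)) ∧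
    X 6 = w0 + (v0 + h * z1) + (sa + θa * (1 - v)) ∧
    X 7 = (sb + θb * (1 - v)) - (sa + θa * (1 - v)) ∧
    X 8 = (sb + θb * (1 - v)) - (sa + θa * (1 - v)) ∧
    X 9 = w0 + (v0 + h * z1) + 2 * (sa + θa * (1 - v)) ∧ X 10 = sb + θb * (1 - v) ∧
    X 11 = w0 + (v0 + h * z1) + (sb + θb * (1 - v)) := by
  intro X v
  have x3 : X 3 = sa + θa * (1 - v) := by
    show (θa * (1 - v0) + sa) + h * (-(θa * z2)) = sa + θa * (1 - (v0 + h * z2))
    ring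
  have x5 : X 5 = w0 + (v0 + h * z1) + (sa + θa * (1 - v)) := by
    show ((w0 + v0) + (θa * (1 - v0) + sa)) + h * (z1 + -(θa * z2)) =
      w0 + (v0 + h * z1) + (sa + θa * (1 - (v0 + h * z2)))
    ring
  have x7 : X 7 = (sb + θb * (1 - v)) - (sa + θa * (1 - v)) := by
    show ((θb * (1 - v0) + sb) - (θa * (1 - v0) + sa)) + h * (-(θb * z2) - -(θa * z2)) =
      (sb + θb * (1 - (v0 + h * z2))) - (sa + θa * (1 - (v0 + h * z2)))
    ring
  refine ⟨?_, rfl, ?_, x3, x3, x5, x5, x7, x7, ?_, ?_, ?_⟩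
  · show (w0 + v0) + h * z1 = w0 + (v0 + h * z1)
    ring
  · show ((θb * (1 - v0) + sb) - 2 * (θa * (1 - v0) + sa)) + h * (-(θb * z2) - 2 * (-(θa * z2))) =
      (sb + θb * (1 - (v0 + h * z2))) - 2 * (sa + θa * (1 - (v0 + h * z2)))
    ring
  · show ((w0 + v0) + 2 * (θa * (1 - v0) + sa)) + h * (z1 + 2 * -(θa * z2)) =
      w0 + (v0 + h * z1) + 2 * (sa + θa * (1 - (v0 + h * z2)))
    ring
  · show (θb * (1 - v0) + sb) + h * (-(θb * z2)) = sb + θb * (1 - (v0 + h * z2))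
    ring
  · show ((w0 + v0) + (θb * (1 - v0) + sb)) + h * (z1 + -(θb * z2)) =
      w0 + (v0 + h * z1) + (sb + θb * (1 - (v0 + h * z2)))
    ring

/-- the record box above the base box -/
theorem rec_above (θa θb w0 sa sb v0 z2 h : ℝ) : rL θa θb w0 sa sb (v0 + h * z2) =
    rL θa θb w0 sa sb v0 + h • natB z2 (-(θa * z2)) (-(θb * z2)) := by
  rw [PL504.rL_nb, PL504.rL_nb, ← Sg337.eL_bx9, ← PL504.eL_smul, ← PL504.nb_add]
  congr 1 <;> ring

/-- supremum of the base box and the record box -/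
theorem base_sup {θa θb w0 sa sb v0 lam0 z1 z2 h : ℝ} (hh : 0 < h) (hz : z1 ≤ z2)
    (hl : (2 * θa - θb) * z2 - z1 ≤ lam0) :
    (rL θa θb w0 sa sb v0 + h • SL θa θb lam0 z1 z2) ⊔ rL θa θb w0 sa sb (v0 + h * z2) =
      rL θa θb w0 sa sb v0 + h • SL θa θb lam0 z2 z2 := by
  rw [rec_above, SgO219.smul_sup' _ _ _ hh]
  congr 2
  unfold SL Sg337.frz natB
  rw [Sg337.bx9_sup]
  congr 1
  · exact max_eq_right hz
  · exact max_eq_left (by linarith)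
  · exact max_self _
  · exact max_self _
  · exact max_eq_right (by linarith)
  · exact max_self _
  · exact max_eq_right (by linarith)
  · exact max_self _
  · exact max_eq_right (by linarith)

/-- **no heavy strips along the bases of the plane `Σ`**, thin case -/
theorem nsTc_thin
    (hC : CtxT G L r g s θ q Rg B I lev A f b vm w fr fl sc w0 sa sb δ R I0 I' ν own c₀)
    (hq0 : 0 < q 0) (hq1 : 0 < q 1) {sC : Fin 12} (hsC : sC = 3 ∨ sC = 4)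
    (hax : ∀ᶠ n in (U : Filter ℕ), ∀ x ∈ I n,
      ‖vb (fl n x)‖ ≤ 16 * |(fl n x).b1 * (tC sC).2 - (fl n x).b2 * (tC sC).1|)
    {v0 : ℝ} (hv0 : 0 < v0) (hv1 : v0 < 1) (hθ0 : 0 < θ 0) (hRa : θ 0 < Rg) (hRb : |θ 1| < Rg)
    {lam0 z1 z2 : ℝ} (hz : z1 ≤ z2)
    (hlz : (2 * θ 0 - θ 1) * z2 - z1 ≤ lam0) {H1 H : ℕ → ℝ} (hH1 : ∀ m, 0 < H1 m)
    (hH1l : Tendsto H1 atTop (𝓝 0)) (hH : ∀ m, 0 < H m) (hHl : Tendsto H atTop (𝓝 0))
    (hX : ∀ᶠ m in (atTop : Filter ℕ),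
      rL (θ 0) (θ 1) w0 sa sb v0 + H1 m • SL (θ 0) (θ 1) lam0 z1 z2 ∈ Leg monL R)
    (hF : ∀ ε : ℝ, 0 < ε → ∀ᶠ m in (atTop : Filter ℕ),
      ν (rL (θ 0) (θ 1) w0 sa sb v0 + H1 m • natB z2 (-(θ 0 * z2)) (-(θ 1 * z2))) -
        ν (rL (θ 0) (θ 1) w0 sa sb v0 + H1 m • SL (θ 0) (θ 1) lam0 z2 z2) ≤ ε * H m)
    {R0 : ℝ} (hR0 : 0 < R0) :
    NsTc B I0 I' (PL504.coN B lev w w0 sa sb fl) 2 ν
      (fun m => rL (θ 0) (θ 1) w0 sa sb v0 + H1 m • SL (θ 0) (θ 1) lam0 z1 z2) H sC 10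
      (gam q) R0 := by
  have sh := hC.sh
  set vv : ℕ → ℝ := fun m => v0 + H1 m * z2 with hvv
  have hvl : Tendsto vv atTop (𝓝 v0) := by
    have := (hH1l.mul_const z2).const_add v0
    simpa using this
  have ha0 : 0 < θ 0 * (1 - v0) := mul_pos hθ0 (by linarith)
  set t0 : ℝ := min (min δ (θ 0 * (1 - v0) / 2)) (min (Rg - θ 0) (Rg - |θ 1|)) with ht0
  have ht0p : 0 < t0 :=
    lt_min (lt_min sh.d0 (by linarith)) (lt_min (by linarith) (by linarith))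
  have ht1 : t0 ≤ δ := (min_le_left _ _).trans (min_le_left _ _)
  have ht2 : t0 ≤ θ 0 * (1 - v0) / 2 := (min_le_left _ _).trans (min_le_right _ _)
  have ht3 : t0 ≤ Rg - θ 0 := (min_le_right _ _).trans (min_le_left _ _)
  have ht4 : t0 ≤ Rg - |θ 1| := (min_le_right _ _).trans (min_le_right _ _)
  have hta : Tendsto (fun m => θ 0 * (1 - vv m)) atTop (𝓝 (θ 0 * (1 - v0))) :=
    (hvl.const_sub 1).const_mul _
  have hz1 : Tendsto (fun m => v0 + H1 m * z1) atTop (𝓝 v0) := by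
    have := (hH1l.mul_const z1).const_add v0
    simpa using this
  have hvr : ∀ᶠ m in (atTop : Filter ℕ), 0 ≤ vv m ∧ vv m ≤ 1 := by
    filter_upwards [hvl.eventually_const_lt hv0, hvl.eventually_lt_const hv1] with m h1 h2
    exact ⟨h1.le, h2.le⟩
  refine hC.nsTc hq0 hq1 hsC hax (rc := fun m => rL (θ 0) (θ 1) w0 sa sb (vv m)) hH hHl ht0p ?_
    (hC.frz_rec (v := vv) hvr ?_) hR0
  · filter_upwards [hX, hvr, hta.eventually_const_lt (u := θ 0 * (1 - v0) / 2) (by linarith),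
      hz1.eventually_const_lt hv0] with m m1 m2 m3 m4
    obtain ⟨x0, x1, x2, x3, x4, x5, x6, x7, x8, x9, x10, x11⟩ :=
      base_slots (θ 0) (θ 1) w0 sa sb v0 lam0 z1 z2 (H1 m)
    have hvm : vv m = v0 + H1 m * z2 := rfl
    rw [← hvm] at x2 x3 x4 x5 x6 x7 x8 x9 x10 x11
    have hp : 0 < θ 0 * (1 - vv m) := by linarith
    set X := rL (θ 0) (θ 1) w0 sa sb v0 + H1 m • SL (θ 0) (θ 1) lam0 z1 z2 with hXd
    refine ⟨vv m, θ 0 * (1 - vv m), θ 1 * (1 - vv m), StgM.of_rec sh ht0p ht1 (by linarith)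
      (by linarith) hθ0.le m2.1 m2.2 (by linarith) m1 hsC ?_ x10 ?_ ?_ ?_ ?_ ?_ ?_ ?_ x2.ge x7.ge
      x8.ge⟩
    · rcases hsC with rfl | rfl
      · exact x3
      · exact x4
    · rw [x0]; linarith
    · rw [x3]; linarith
    · rw [x4]; linarith
    · rw [x5]; linarith
    · rw [x6]; linarith
    · rw [x9]; linarith
    · rw [x1, hvm]
      have h1 : (2 * θ 0 - θ 1) * z2 - z2 ≤ lam0 := by linarith
      have h2 := mul_le_mul_of_nonneg_left h1 (hH1 m).le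
      nlinarith
  · intro ε hε
    filter_upwards [hF ε hε] with m m1
    show ν (rL (θ 0) (θ 1) w0 sa sb (v0 + H1 m * z2)) - ν (_ ⊔ rL (θ 0) (θ 1) w0 sa sb (v0 + H1 m * z2)) ≤ _
    rw [base_sup (hH1 m) hz hlz, rec_above]
    exact m1

end ctx

end Crest.Agent.R116.A1T79
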