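import Crest.Agent.R116.A1a_79

/-!
# R116, (A1) of the rows (helper79), part 2: letters of a tangent with `OutS`

* `out_diff`, `out_zero`, `out_frost` : generic conversions
-/

set_option autoImplicit false
set_option linter.unusedVariables false
set_option linter.unusedSectionVars false

open Finset Filter Topology

namespace Crest.Agent.R116.A1T79

open Crest.Agent.R138.Ex926 (Base U IsTan)
open Crest.Agent.R136
open Crest.Agent.R136.Net191
open Crest.Agent.R136.Qg926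
open Crest.Agent.R136.Lq196
open Crest.Agent.R136.NSt107 (NsW)
open Crest.Agent.R116.ChL222
open Crest.Agent.R116.PL504 (βL eL rL oL Shift nb DN)
open Crest.Agent.R116.Nar863 (NsT isoT a1_iso)
open Crest.Agent.R116.WinU954 (WinU top_leg lin_leg single_leg lev_leg)
open Crest.Agent.R116.Sg337 (bx9 coneL natB SL SI)
open Crest.Agent.R116.SgI337 (xI bI mem_LI grpI_slots dhI_X)
open Crest.Agent.R116.Sg635 (aS)
open Dg219 (OutS gset Walls mw gC dhC nC)

section out

variable {grp : Fin 12 → ℕ} {L : Set (Fin 12 → ℝ)} {dh : Fin 12 → ℝ} {n : ℕ → ℝ × ℝ}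
    {lam : (Fin 12 → ℝ) → ℝ} {A : ℝ × ℝ} {φ : ℕ → (Fin 12 → ℝ) → ℝ} {r : ℕ → ℝ}

/-- difference of two boxes which differ in one group -/
theorem out_diff (H : OutS grp L dh n lam A φ r) (k : ℕ) {c c' : Fin 12 → ℝ} (hc : c ∈ L)
    (hc' : c' ∈ L) (h : ∀ i, grp i ≠ k → c i = c' i) : lam c - lam c' = φ k c - φ k c' := by
  classical
  rw [H.sum c hc, H.sum c' hc', ← Finset.sum_sub_distrib]
  refine Finset.sum_eq_single k (fun k' _ hk' => ?_) (fun hk => ?_)
  · rw [H.loc k' c c' fun i hi => h i (by rw [hi]; exact hk'), sub_self]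
  · rw [H.loc k c c' fun i hi => absurd (by rw [← hi]; exact Dg219.mem_gset i) hk, sub_self]

theorem out_zero (H : OutS grp L dh n lam A φ r) (h0 : (0 : Fin 12 → ℝ) ∈ L) : lam 0 = 0 := by
  rw [H.sum 0 h0]
  exact Finset.sum_eq_zero fun k _ => H.zero k 0 fun _ _ => rfl

theorem single_bx9 (y : ℝ) : (Pi.single 0 y : Fin 12 → ℝ) = bx9 y 0 0 0 0 0 0 0 0 := by
  funext k
  fin_cases k <;> simp [bx9]

theorem bx9_zero : bx9 0 0 0 0 0 0 0 0 0 = (0 : Fin 12 → ℝ) := by
  funext k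
  fin_cases k <;> simp [bx9]

/-- frost of the windows -/
theorem out_frost (H : OutS grp L dh n lam A φ r) (h0 : (0 : Fin 12 → ℝ) ∈ L) {σ : ℝ}
    (hown : ∀ y : ℝ, 0 < y → σ * y ≤ -lam (bx9 y 0 0 0 0 0 0 0 0)) {t : ℝ} :
    ∀ y : ℝ, 0 ≤ y → y ≤ t → lam (bx9 y 0 0 0 0 0 0 0 0) ≤ -(σ * y) := by
  intro y hy _
  rcases hy.lt_or_eq with h | h
  · linarith [hown y h]
  · rw [← h, bx9_zero, out_zero H h0]
    simp

end out

end Crest.Agent.R116.A1T79
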