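import Crest.Agent.R116.RowU2_194

/-!
# R116, row U (helper194), part 3: geometry of the base boxes of `SigP`

* `Nat1` form, tight walls without slot `1` (`hx`), slack walls with slot `1` (`hxD`)
* position relative to the record boxes, legality
-/

set_option autoImplicit false
set_option linter.unusedVariables false

open Set Filter Topology MeasureTheory
open scoped NNReal

namespace Crest.Agent.R116.RowU194

open Crest.Agent.R138.Ex926 (Base U IsTan)
open Crest.Agent.R136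
open Crest.Agent.R136.Net191
open Crest.Agent.R136.Lq196
open Crest.Agent.R116.ChL222
open Crest.Agent.R116.PL504 (βL eL rL Shift)
open Crest.Agent.R116.Sg337 (coneL ProfL DL natB natB_smul bx9 uC uP uCP SL frz frz_single)
open Dg262 (X SupOn)
open Dg219 (Walls mw gset mem_gset OutS gC dhC nC gC_zero gC_eq)
open Sg635 (xS aS bS X_eq PP_eq L_eq LMd mem_bx SL_nat1 Nat1 no_one ne_one sum_congr' coneL_sub
  eq_of_nat)
open SgF665 (wl wl_add wl_smul)

theorem e1_ne {i : Fin 12} (hi : i ≠ 1) : e1 i = 0 := Pi.single_eq_of_ne hi 1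
theorem e1_self : e1 1 = 1 := Pi.single_eq_same 1 1

section geo

variable {w0 sa sb θa θb v0 lam0 : ℝ} {z : ℝ × ℝ} {u : ℕ → ℝ}

/-- the base box is natural over `(v, a, b)` in all slots but `1`; in slot `1` there is a gap -/
theorem xB_eq (m : ℕ) : xB θa θb w0 sa sb v0 lam0 z u m =
    PL504.nb w0 sa sb (v0 + u m * z.1) (θa * (1 - v0) - θa * (u m * z.2))
      (θb * (1 - v0) - θb * (u m * z.2)) +
      (u m * (lam0 - ((2 * θa - θb) * z.2 - z.1))) • e1 := by
  unfold xB SL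
  rw [frz_single, smul_add, smul_smul, ← add_assoc]
  congr 1
  · rw [PL504.rL_nb, Sg337.nb_natB, Sg337.nb_natB]
    funext k
    fin_cases k <;> simp [natB, bx9] <;> ring
  · congr 1
    ring

theorem xB_nat (m : ℕ) (i : Fin 12) (hi : i ≠ 1) : xB θa θb w0 sa sb v0 lam0 z u m i =
    eL (w0 + (v0 + u m * z.1)) (θa * (1 - v0) - θa * (u m * z.2) + sa)
      (θb * (1 - v0) - θb * (u m * z.2) + sb) i := by
  rw [xB_eq, Pi.add_apply, Pi.smul_apply, e1_ne hi, smul_zero, add_zero,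
    Sg337.nb_natB, ← Sg337.eL_bx9]
  congr 1 <;> ring

theorem xB_1 (m : ℕ) : xB θa θb w0 sa sb v0 lam0 z u m 1 =
    eL (w0 + (v0 + u m * z.1)) (θa * (1 - v0) - θa * (u m * z.2) + sa)
      (θb * (1 - v0) - θb * (u m * z.2) + sb) 1 +
      u m * (lam0 - ((2 * θa - θb) * z.2 - z.1)) := by
  rw [xB_eq, Pi.add_apply, Pi.smul_apply, e1_self, smul_eq_mul, mul_one,
    Sg337.nb_natB, ← Sg337.eL_bx9]
  congr 1
  congr 1 <;> ring

/-- walls without slot `1` are tight -/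
theorem xB_wall (m : ℕ) (k : Fin 12) (e : Fin 12 → ℕ) (he : e ∈ monL.mon k) (h1 : e 1 = 0) :
    xB θa θb w0 sa sb v0 lam0 z u m k = wl e (xB θa θb w0 sa sb v0 lam0 z u m) :=
  eq_of_nat (fun i hi => xB_nat m i hi) he h1

/-- walls with slot `1` have the gap `u m * (..)` -/
theorem xB_wall1 (m : ℕ) (k : Fin 12) (e : Fin 12 → ℕ) (he : e ∈ monL.mon k) :
    wl e (xB θa θb w0 sa sb v0 lam0 z u m) = xB θa θb w0 sa sb v0 lam0 z u m k +
      (e 1 : ℝ) * (u m * (lam0 - ((2 * θa - θb) * z.2 - z.1))) := by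
  set v : ℝ := w0 + (v0 + u m * z.1) with hv
  set a : ℝ := θa * (1 - v0) - θa * (u m * z.2) + sa with ha
  set b : ℝ := θb * (1 - v0) - θb * (u m * z.2) + sb with hb
  have h1 : xB θa θb w0 sa sb v0 lam0 z u m = eL v a b +
      (u m * (lam0 - ((2 * θa - θb) * z.2 - z.1))) • e1 := by
    funext i
    by_cases hi : i = 1
    · subst hi
      rw [xB_1, Pi.add_apply, Pi.smul_apply, e1_self, smul_eq_mul, mul_one]
    · rw [xB_nat m i hi, Pi.add_apply, Pi.smul_apply, e1_ne hi, smul_zero, add_zero]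
  have h2 : wl e (eL v a b) = eL v a b k := PL504.eL_wall v a b k he
  have h3 : wl e e1 = e 1 := by
    unfold wl
    rw [Finset.sum_eq_single (1 : Fin 12)]
    · simp
    · intro i _ hi
      rw [e1_ne hi]; ring
    · simp
  rw [xB_nat m k (ne_one he), ← hv, ← ha, ← hb]
  rw [h1, wl_add, wl_smul, h2, h3]
  ring

theorem xB_slack {k : ℕ → ℝ} (upos : ∀ m, 0 < u m) (kpos : ∀ m, 0 < k m)
    (k0 : Tendsto k atTop (𝓝 0)) (sl : (2 * θa - θb) * z.2 - z.1 < lam0) (i : Fin 12)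
    (e : Fin 12 → ℕ) (he : e ∈ monL.mon i) (h1 : e 1 ≠ 0) (K : ℝ) :
    ∀ᶠ m in atTop, xB θa θb w0 sa sb v0 lam0 z u m i + K * (u m * k m) ≤
      wl e (xB θa θb w0 sa sb v0 lam0 z u m) := by
  set G : ℝ := lam0 - ((2 * θa - θb) * z.2 - z.1) with hG
  have hG0 : 0 < G := by rw [hG]; linarith
  have e1 : 0 < G / (|K| + 1) := by positivity
  filter_upwards [k0.eventually_lt_const e1] with m hm
  rw [xB_wall1 m i e he]
  have hu := upos m
  have hk := kpos m
  rw [lt_div_iff₀ (by positivity)] at hm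
  have h2 : (1:ℝ) ≤ e 1 := by
    have : 1 ≤ e 1 := Nat.one_le_iff_ne_zero.2 h1
    exact_mod_cast this
  have h3 : K * k m ≤ G := by
    have := mul_le_mul_of_nonneg_right (le_abs_self K) hk.le
    nlinarith
  have h4 : u m * (K * k m) ≤ u m * G := mul_le_mul_of_nonneg_left h3 hu.le
  have h5 : u m * G ≤ (e 1 : ℝ) * (u m * G) := by
    have : 0 < u m * G := mul_pos hu hG0
    nlinarith
  have e3 : K * (u m * k m) = u m * (K * k m) := by ring
  rw [e3]
  linarith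

end geo

section sig

variable {J : Type*} {R w0 sa sb θa θb s c q0 q1 δ : ℝ} {f : J → (Fin 12 → ℝ) → ℝ} {j0 : J}
    {v0 lam0 : ℝ} {z : ℝ × ℝ} {u k : ℕ → ℝ} {lam : J → (Fin 12 → ℝ) → ℝ} {A : ℝ × ℝ}
    {φ : ℕ → (Fin 12 → ℝ) → ℝ} {r : ℕ → ℝ}

theorem SigP.hpos (H : SigP R w0 sa sb θa θb s c q0 q1 δ f j0 v0 lam0 z u k lam A φ r) (l : ℕ) :
    0 < u l * k l := mul_pos (H.upos l) (H.kpos l)

theorem SigP.h0 (H : SigP R w0 sa sb θa θb s c q0 q1 δ f j0 v0 lam0 z u k lam A φ r) :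
    Tendsto (fun l => u l * k l) atTop (𝓝 0) := by simpa using H.u0.mul H.k0

theorem SigP.hl0 (H : SigP R w0 sa sb θa θb s c q0 q1 δ f j0 v0 lam0 z u k lam A φ r) :
    lam0 ≠ 0 := H.l0.ne'

theorem SigP.hx (H : SigP R w0 sa sb θa θb s c q0 q1 δ f j0 v0 lam0 z u k lam A φ r) :
    ∀ l, ∀ i, ∀ e ∈ monL.mon i, e 1 = 0 → xB θa θb w0 sa sb v0 lam0 z u l i =
      wl e (xB θa θb w0 sa sb v0 lam0 z u l) := fun l i e he h1 => xB_wall l i e he h1

theorem SigP.hxD (H : SigP R w0 sa sb θa θb s c q0 q1 δ f j0 v0 lam0 z u k lam A φ r) :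
    ∀ i, ∀ e ∈ monL.mon i, e 1 ≠ 0 → ∀ K : ℝ, ∀ᶠ l in atTop,
      xB θa θb w0 sa sb v0 lam0 z u l i + K * (u l * k l) ≤
        wl e (xB θa θb w0 sa sb v0 lam0 z u l) := fun i e he h1 K =>
  xB_slack H.upos H.kpos H.k0 H.sl i e he h1 K

end sig

end Crest.Agent.R116.RowU194
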