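import Crest.Agent.R116.A1b_79
import Crest.Agent.R116.RowU3_194

/-!
# R116, (A1) of the rows (helper79), part 3: letters of `SigP` for 863's `a1_thin`

`σ = 1` (`θb = θa`): groups `{0}`, `{5, 6, 11}`, `{9}`, `{1, 2, 3, 4, 7, 8, 10}`.
-/

set_option autoImplicit false
set_option linter.unusedVariables false
set_option linter.unusedSectionVars false

open Finset Filter Topology

namespace Crest.Agent.R116.A1T79

open Crest.Agent.R138.Ex926 (Base U IsTan)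
open Crest.Agent.R136
open Crest.Agent.R136.Net191
open Crest.Agent.R136.Lq196
open Crest.Agent.R116.LZg725
open Crest.Agent.R116.ChL222
open Crest.Agent.R116.PL504 (βL eL rL oL Shift nb DN)
open Crest.Agent.R116.Gd222 (TSet sN PDL DT vb gam)
open Crest.Agent.R116.KI439 (LRay)
open Crest.Agent.R116.Tw468
open Crest.Agent.R116.CtxB468
open Crest.Agent.R116.Nar192 (StgM NsTc tC hax_of)
open Crest.Agent.R116.Sg337 (bx9 coneL natB SL)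
open Crest.Agent.R116.WinG954 (monD topD leg_LMd)
open Crest.Agent.R116.RowU194 (SigP xB)
open Crest.Agent.R136.MkA627
open Sg635 (aS bS xS LMd mem_LMd mem_bx L_eq g_zero g6 kz_ne kX_ne kz_kX kz_kN kz_kF kX_kN kX_kF)
open Dg219 (OutS gset Walls mw gC dhC nC)

section grp

variable {θa θb : ℝ}

theorem sig_kz (ha : θa ≠ 0) (hb : θb ≠ 0) (i : Fin 12) :
    gC aS (bS θa θb) i = Sg635.kz θa θb ↔ i = 0 := by
  constructor
  · intro h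
    by_cases hi : i ∈ ({1, 2, 3, 4, 7, 8, 10} : Finset (Fin 12))
    · rw [g_zero.2 hi] at h
      exact absurd h.symm kz_ne
    · fin_cases i <;> simp at hi ⊢
      · exact ha (kz_kX.1 h.symm)
      · exact ha (kz_kX.1 (g6.symm.trans h).symm)
      · exact ha (kz_kN.1 h.symm)
      · exact hb (kz_kF.1 h.symm)
  · rintro rfl; rfl

theorem sig_kX (ha : θa ≠ 0) (hb : θb = θa) (i : Fin 12) :
    gC aS (bS θa θb) i = Sg635.kX θa θb ↔ i = 5 ∨ i = 6 ∨ i = 11 := by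
  constructor
  · intro h
    by_cases hi : i ∈ ({1, 2, 3, 4, 7, 8, 10} : Finset (Fin 12))
    · rw [g_zero.2 hi] at h
      exact absurd h.symm kX_ne
    · fin_cases i <;> simp at hi ⊢
      · exact ha (kz_kX.1 h)
      · exact ha (kX_kN.1 h.symm)
  · rintro (rfl | rfl | rfl)
    · rfl
    · exact g6
    · exact (kX_kF.2 hb).symm

end grp

section out

variable {θa θb lam0 s : ℝ} {lam : (Fin 12 → ℝ) → ℝ} {A : ℝ × ℝ} {φ : ℕ → (Fin 12 → ℝ) → ℝ}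
    {r : ℕ → ℝ}

theorem f0 {t : ℝ} (i : Fin 12) (hi : i ≠ 0) :
    bx9 t 0 t t t t t t t i = bx9 0 0 t t t t t t t i ∧ bx9 t 0 0 0 0 0 0 0 0 i = 0 := by
  fin_cases i
  · exact absurd rfl hi
  all_goals simp [bx9]

theorem f00 {t : ℝ} : bx9 t 0 t t t t t t t 0 = bx9 t 0 0 0 0 0 0 0 0 0 ∧
    bx9 0 0 t t t t t t t 0 = 0 := by
  simp [bx9]

theorem e0 {t : ℝ} (i : Fin 12) (hi : i ≠ 0) :
    bx9 t 0 t 0 0 0 0 0 0 i = bx9 0 0 t 0 0 0 0 0 0 i ∧ bx9 t 0 0 0 0 0 0 0 0 i = 0 := by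
  fin_cases i
  · exact absurd rfl hi
  all_goals simp [bx9]

theorem e00 {t : ℝ} : bx9 t 0 t 0 0 0 0 0 0 0 = bx9 t 0 0 0 0 0 0 0 0 0 ∧
    bx9 0 0 t 0 0 0 0 0 0 0 = 0 := by
  simp [bx9]

theorem x0 {t x c : ℝ} (i : Fin 12) (hi : ¬ (i = 5 ∨ i = 6 ∨ i = 11)) :
    bx9 t 0 t c 0 0 0 c 0 i = bx9 t 0 t c x 0 0 c x i := by
  rw [not_or, not_or] at hi
  obtain ⟨h5, h6, h11⟩ := hi
  fin_cases i
  · simp [bx9]
  · simp [bx9]
  · simp [bx9]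
  · simp [bx9]
  · simp [bx9]
  · exact absurd rfl h5
  · exact absurd rfl h6
  · simp [bx9]
  · simp [bx9]
  · simp [bx9]
  · simp [bx9]
  · exact absurd rfl h11

theorem x1 {t x c c' : ℝ} (i : Fin 12) (hi : i = 5 ∨ i = 6 ∨ i = 11) :
    bx9 t 0 t c x 0 0 c x i = bx9 t 0 t c' x 0 0 c' x i := by
  rcases hi with rfl | rfl | rfl <;> simp [bx9]

/-- density of the windows with `D` frozen -/
theorem thin_dens (ha : θa ≠ 0) (hb : θb ≠ 0)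
    (H : OutS (gC aS (bS θa θb)) LMd (dhC aS (bS θa θb)) (nC aS (bS θa θb)) lam A φ r) {t : ℝ}
    (ht : 0 ≤ t) :
    lam (bx9 t 0 t t t t t t t) = lam (bx9 t 0 0 0 0 0 0 0 0) + lam (bx9 0 0 t t t t t t t) := by
  refine out_split H {Sg635.kz θa θb} ?_ ?_ ?_ (fun i hi => ?_) (fun i hi => ?_)
  · rw [mem_bx]; refine ⟨?_, ?_, ?_, ?_, ?_, ?_, ?_⟩ <;> linarith
  · rw [mem_bx]; refine ⟨?_, ?_, ?_, ?_, ?_, ?_, ?_⟩ <;> linarith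
  · rw [mem_bx]; refine ⟨?_, ?_, ?_, ?_, ?_, ?_, ?_⟩ <;> linarith
  · rw [Set.mem_singleton_iff, sig_kz ha hb] at hi
    rw [hi]
    exact f00
  · rw [Set.mem_singleton_iff, sig_kz ha hb] at hi
    exact f0 i hi

/-- the slot `E` costs nothing at fine height -/
theorem thin_zero (ha : θa ≠ 0) (hb : θb ≠ 0)
    (H : OutS (gC aS (bS θa θb)) LMd (dhC aS (bS θa θb)) (nC aS (bS θa θb)) lam A φ r) {t : ℝ}
    (ht : 0 < t) (h0 : lam (bx9 0 0 t 0 0 0 0 0 0) = 0) :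
    lam (bx9 t 0 0 0 0 0 0 0 0) = lam (bx9 t 0 t 0 0 0 0 0 0) := by
  have h1 : lam (bx9 t 0 t 0 0 0 0 0 0) = lam (bx9 t 0 0 0 0 0 0 0 0) +
      lam (bx9 0 0 t 0 0 0 0 0 0) := by
    refine out_split H {Sg635.kz θa θb} ?_ ?_ ?_ (fun i hi => ?_) (fun i hi => ?_)
    · rw [mem_bx]; refine ⟨?_, ?_, ?_, ?_, ?_, ?_, ?_⟩ <;> linarith
    · rw [mem_bx]; refine ⟨?_, ?_, ?_, ?_, ?_, ?_, ?_⟩ <;> linarith
    · rw [mem_bx]; refine ⟨?_, ?_, ?_, ?_, ?_, ?_, ?_⟩ <;> linarith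
    · rw [Set.mem_singleton_iff, sig_kz ha hb] at hi
      rw [hi]
      exact e00
    · rw [Set.mem_singleton_iff, sig_kz ha hb] at hi
      exact e0 i hi
  rw [h1, h0, add_zero]

theorem thin_mem {t x c : ℝ} (ht : 0 < t) (hx : 0 ≤ x) (hxt : x ≤ t) (hc : 0 ≤ c) :
    bx9 t 0 t c x 0 0 c x ∈ LMd := by
  rw [mem_bx]; refine ⟨?_, ?_, ?_, ?_, ?_, ?_, ?_⟩ <;> linarith

/-- decoupling of `C, P` from `X, F` -/
theorem thin_prod (ha : θa ≠ 0) (hb : θb = θa)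
    (H : OutS (gC aS (bS θa θb)) LMd (dhC aS (bS θa θb)) (nC aS (bS θa θb)) lam A φ r) {t x c : ℝ}
    (ht : 0 < t) (hx : 0 < x) (hxt : x ≤ t) (hc : 0 < c) :
    lam (bx9 t 0 t 0 0 0 0 0 0) - lam (bx9 t 0 t c 0 0 0 c 0) ≤
      lam (bx9 t 0 t 0 x 0 0 0 x) - lam (bx9 t 0 t c x 0 0 c x) := by
  have hX := sig_kX (θa := θa) (θb := θb) ha hb
  have e1 : lam (bx9 t 0 t 0 0 0 0 0 0) - lam (bx9 t 0 t 0 x 0 0 0 x) =
      φ (Sg635.kX θa θb) (bx9 t 0 t 0 0 0 0 0 0) - φ (Sg635.kX θa θb) (bx9 t 0 t 0 x 0 0 0 x) :=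
    out_diff H (Sg635.kX θa θb) (thin_mem ht le_rfl ht.le le_rfl) (thin_mem ht hx.le hxt le_rfl)
      fun i hi => x0 i (by rwa [Ne, hX] at hi)
  have e2 : lam (bx9 t 0 t c 0 0 0 c 0) - lam (bx9 t 0 t c x 0 0 c x) =
      φ (Sg635.kX θa θb) (bx9 t 0 t c 0 0 0 c 0) - φ (Sg635.kX θa θb) (bx9 t 0 t c x 0 0 c x) :=
    out_diff H (Sg635.kX θa θb) (thin_mem ht le_rfl ht.le hc.le) (thin_mem ht hx.le hxt hc.le)
      fun i hi => x0 i (by rwa [Ne, hX] at hi)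
  have e3 : φ (Sg635.kX θa θb) (bx9 t 0 t 0 0 0 0 0 0) =
      φ (Sg635.kX θa θb) (bx9 t 0 t c 0 0 0 c 0) :=
    H.loc _ _ _ fun i hi => x1 i (by rwa [hX] at hi)
  have e4 : φ (Sg635.kX θa θb) (bx9 t 0 t 0 x 0 0 0 x) =
      φ (Sg635.kX θa θb) (bx9 t 0 t c x 0 0 c x) :=
    H.loc _ _ _ fun i hi => x1 i (by rwa [hX] at hi)
  linarith

end out

section ctx

variable {G : Geo TSet (Fin 2)} {L : ℕ → ℕ → KI439.LRay} {rr : ℕ → ℝ} {g s : ℝ} {θ q : Fin 2 → ℝ}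
    {Rg : ℝ} {B : Base}
    {I : ℕ → Finset (ℕ × ℝ)} {lev : ℕ → ℚ → ℕ} {A0 : ℕ → ℝ}
    {f0 : ℕ → ℚ → ℕ → ℤ → ℕ} {b : ℕ → ℚ → ℕ → TSet} {vm : ℕ → ℚ → ℝ} {w : Fin 2 → ℕ → ℚ → ℝ}
    {fr : ℕ → ℚ → ℕ × ℝ → LInc} {fl : ℕ → ℕ × ℝ → LInc} {sc : Fin 12 → ℕ → ℝ}
    {w0 sa sb δ R : ℝ} {I0 I' : ℕ → Finset (ℕ × ℝ)} {ν own : (Fin 12 → ℝ) → ℝ} {c₀ : ℝ}
    {J : Type*} {c q0 q1 δ' : ℝ} {f : J → (Fin 12 → ℝ) → ℝ} {j0 : J}
    {v0 lam0 : ℝ} {z : ℝ × ℝ} {u k : ℕ → ℝ} {lam : J → (Fin 12 → ℝ) → ℝ} {A : ℝ × ℝ}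
    {φ : ℕ → (Fin 12 → ℝ) → ℝ} {r : ℕ → ℝ}

/-- **no heavy (curved) strips along the bases of `SigP`** -/
theorem nsTc_sig
    (hC : CtxT G L rr g s θ q Rg B I lev A0 f0 b vm w fr fl sc w0 sa sb δ R I0 I' ν own c₀)
    (hq0 : 0 < q 0) (hq1 : 0 < q 1) {sC : Fin 12} (hsC : sC = 3 ∨ sC = 4)
    (hax : ∀ᶠ n in (U : Filter ℕ), ∀ x ∈ I n,
      ‖vb (fl n x)‖ ≤ 16 * |(fl n x).b1 * (tC sC).2 - (fl n x).b2 * (tC sC).1|)
    (hθ0 : 0 < θ 0) (hRa : θ 0 < Rg) (hRb : |θ 1| < Rg)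
    (H : SigP R w0 sa sb (θ 0) (θ 1) s c q0 q1 δ' f j0 v0 lam0 z u k lam A φ r) (hf : f j0 = ν)
    {R0 : ℝ} (hR0 : 0 < R0) :
    NsTc B I0 I' (PL504.coN B lev w w0 sa sb fl) 2 ν (xB (θ 0) (θ 1) w0 sa sb v0 lam0 z u)
      (fun m => u m * k m) sC 10 (gam q) R0 := by
  have h0L : (0 : Fin 12 → ℝ) ∈ (mw monL).L (xS lam0) aS (bS (θ 0) (θ 1)) :=
    (Walls.cone (Q := mw monL)).zero
  refine nsTc_thin hC hq0 hq1 hsC hax H.v00 H.v01 hθ0 hRa hRb H.lt.le H.sl.le H.upos H.u0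
    (fun m => H.hpos m) H.h0 ?_ ?_ hR0
  · filter_upwards [SgO219.tan_ev (H.tan j0) h0L] with m hm
    rwa [smul_zero, add_zero] at hm
  · have := H.fz
    rw [hf] at this
    exact this

end ctx

end Crest.Agent.R116.A1T79
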