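import Crest.Agent.R116.LZg2_725

/-!
# R116, (Z4), part 3: members of the class `SS` (isotropic light box ∩ conformal slab) (helper725)

`InK c sg T R p0 p`: `p` in the isotropic light box of direction `c`, aperture `sg`, thickness `T R`,
length `R`.  `Adm M c sg T R p0 φ`: the conformal function `φ` is admissible for this box:
`disc φ = 1`, `|∂_y φ| T ≤ M sg` on the time interval, `|ld φ c p0| ≤ M sg`, `|φ(p0)| ≤ M sg R`.
`RayIn c sg T R p0 φ w (C, a, k)`: the ray lies in the box and in the slab `|φ| ≤ w`.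
-/

set_option autoImplicit false
set_option linter.unusedSectionVars false

namespace Crest.Agent.R116.LZg725

variable {E : Type*} [NormedAddCommGroup E] [InnerProductSpace ℝ E]

/-- isotropic light box. -/
def InK (c : E) (sg T R : ℝ) (x0 : E) (y0 s0 : ℝ) (x : E) (y s : ℝ) : Prop :=
  |s - s0| ≤ R ∧ ‖(x - x0) + (s - s0) • c‖ ≤ sg * R ∧ |nrm c x y s - nrm c x0 y0 s0| ≤ T * R

/-- isotropic light boxes go to isotropic light boxes. -/
theorem inK_zoom (C0 : E) {th : ℝ} (hth : 0 < th) (c : E) (sg T R : ℝ) (x0 : E) (y0 s0 : ℝ)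
    (x : E) (y s : ℝ) :
    InK (zC C0 th c) (sg / th) (T / th ^ 2) (th ^ 2 * R) (zx C0 th x0 s0) (zy C0 x0 y0 s0)
      (th ^ 2 * s0) (zx C0 th x s) (zy C0 x y s) (th ^ 2 * s) ↔
      InK c sg T R x0 y0 s0 x y s := by
  have hne := hth.ne'
  unfold InK
  rw [nrm_zoom C0 hne, nrm_zoom C0 hne]
  have e0 : |th ^ 2 * s - th ^ 2 * s0| = th ^ 2 * |s - s0| := by
    rw [← mul_sub, abs_mul, abs_of_pos (pow_pos hth 2)]
  have e1 : zx C0 th x s - zx C0 th x0 s0 + (th ^ 2 * s - th ^ 2 * s0) • zC C0 th c =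
      th • ((x - x0) + (s - s0) • c) := by
    unfold zx zC
    rw [smul_smul, show (th ^ 2 * s - th ^ 2 * s0) * th⁻¹ = th * (s - s0) by field_simp]
    module
  have e2 : T / th ^ 2 * (th ^ 2 * R) = T * R := by field_simp
  have e4 : sg / th * (th ^ 2 * R) = th * (sg * R) := by field_simp
  rw [e0, e1, e2, e4, norm_smul, Real.norm_of_nonneg hth.le, mul_le_mul_iff_right₀ (pow_pos hth 2),
    mul_le_mul_iff_right₀ hth]

/-- the rays of the aperture which meet the box stay in the threefold box. -/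
theorem inK_ray {c : E} {sg T R : ℝ} {x0 : E} {y0 s0 : ℝ} {C a : E} {k : ℝ} {s1 : ℝ}
    (h1 : InK c sg T R x0 y0 s0 (rx C a s1) (ry C k s1) s1)
    (hC : ‖C - c‖ ≤ sg) (hT : sg ^ 2 ≤ T) {s : ℝ} (hs : |s - s0| ≤ R) :
    InK c (3 * sg) (3 * T) R x0 y0 s0 (rx C a s) (ry C k s) s := by
  obtain ⟨h2, h3, h4⟩ := h1
  have hR : 0 ≤ R := (abs_nonneg _).trans hs
  have hss : |s - s1| ≤ 2 * R := by
    have e : s - s1 = (s - s0) - (s1 - s0) := by ring
    rw [e]
    refine (abs_sub _ _).trans ?_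
    linarith
  refine ⟨hs, ?_, ?_⟩
  · have e : rx C a s - x0 + (s - s0) • c =
        (rx C a s1 - x0 + (s1 - s0) • c) - (s - s1) • (C - c) := by
      unfold rx; module
    rw [e]
    refine (norm_sub_le _ _).trans ?_
    rw [norm_smul, Real.norm_eq_abs]
    have h6 := mul_le_mul hss hC (norm_nonneg _) ((abs_nonneg _).trans hss)
    linarith
  · have e1 := nrm_ray' c C a k s
    have e2 := nrm_ray' c C a k s1
    have e : nrm c (rx C a s) (ry C k s) s - nrm c x0 y0 s0 =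
        (nrm c (rx C a s1) (ry C k s1) s1 - nrm c x0 y0 s0) + (s - s1) * (‖C - c‖ ^ 2 / 2) := by
      rw [e1, e2]; ring
    rw [e]
    refine (abs_add_le _ _).trans ?_
    rw [abs_mul, abs_of_nonneg (a := ‖C - c‖ ^ 2 / 2) (by positivity)]
    have h7 : ‖C - c‖ ^ 2 ≤ sg ^ 2 := pow_le_pow_left₀ (norm_nonneg _) hC 2
    have h6 : |s - s1| * (‖C - c‖ ^ 2 / 2) ≤ 2 * R * T :=
      mul_le_mul hss (by nlinarith [sq_nonneg sg]) (by positivity) ((abs_nonneg _).trans hss)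
    linarith

/-- change of the direction of the box. -/
theorem inK_dir {c c' : E} {sg T R : ℝ} {x0 : E} {y0 s0 : ℝ} {x : E} {y s : ℝ}
    (h : InK c sg T R x0 y0 s0 x y s) (hc : ‖c' - c‖ ≤ sg) (hT : sg ^ 2 ≤ T) :
    InK c' (2 * sg) (3 * T) R x0 y0 s0 x y s := by
  obtain ⟨h1, h2, h3⟩ := h
  have hR : 0 ≤ R := (abs_nonneg _).trans h1
  have hsg : 0 ≤ sg := (norm_nonneg _).trans hc
  refine ⟨h1, ?_, ?_⟩
  · have e : x - x0 + (s - s0) • c' = (x - x0 + (s - s0) • c) + (s - s0) • (c' - c) := by module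
    rw [e]
    refine (norm_add_le _ _).trans ?_
    rw [norm_smul, Real.norm_eq_abs]
    have h6 := mul_le_mul h1 hc (norm_nonneg _) hR
    linarith
  · have e1 := nrm_sub c c' x y s
    have e2 := nrm_sub c c' x0 y0 s0
    have e : nrm c' x y s - nrm c' x0 y0 s0 = (nrm c x y s - nrm c x0 y0 s0) +
        (inner ℝ (c' - c) (x - x0 + (s - s0) • c) + (s - s0) * ‖c' - c‖ ^ 2 / 2) := by
      have e3 : x - x0 + (s - s0) • c = (x + s • c) - (x0 + s0 • c) := by module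
      rw [e3, inner_sub_right]
      linarith
    rw [e]
    refine (abs_add_le _ _).trans ?_
    have h4 : |inner ℝ (c' - c) (x - x0 + (s - s0) • c)| ≤ sg * (sg * R) :=
      (abs_real_inner_le_norm _ _).trans (mul_le_mul hc h2 (norm_nonneg _) hsg)
    have h5 : |(s - s0) * ‖c' - c‖ ^ 2 / 2| ≤ R * sg ^ 2 / 2 := by
      rw [abs_div, abs_mul, abs_of_nonneg (sq_nonneg ‖c' - c‖), abs_of_pos (two_pos : (0:ℝ) < 2)]
      have := mul_le_mul h1 (pow_le_pow_left₀ (norm_nonneg _) hc 2) (sq_nonneg _) hR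
      linarith
    have h6 := (abs_add_le (inner ℝ (c' - c) (x - x0 + (s - s0) • c))
      ((s - s0) * ‖c' - c‖ ^ 2 / 2))
    have h7 : sg * (sg * R) ≤ T * R := by
      have := mul_le_mul_of_nonneg_right hT hR
      nlinarith
    have h8 : R * sg ^ 2 / 2 ≤ T * R := by
      have := mul_le_mul_of_nonneg_right hT hR
      nlinarith [mul_nonneg hR (sq_nonneg sg)]
    linarith

/-- admissible conformal functions of a light box. -/
structure Adm (M : ℝ) (c : E) (sg T R : ℝ) (x0 : E) (y0 s0 : ℝ) (p : Cf E) : Prop where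
  disc : p.disc = 1
  ny : ∀ s, |s - s0| ≤ R → |p.ny s| * T ≤ M * sg
  ld : |p.ld c x0 y0 s0| ≤ M * sg
  ev : |p.ev x0 y0 s0| ≤ M * sg * R

/-- the ray `(C, a, k)` lies in the light box and in the slab `|φ| ≤ w`. -/
def RayIn (c : E) (sg T R : ℝ) (x0 : E) (y0 s0 : ℝ) (p : Cf E) (w : ℝ) (C a : E) (k : ℝ) : Prop :=
  ‖C - c‖ ≤ sg ∧ ∀ s, |s - s0| ≤ R →
    InK c sg T R x0 y0 s0 (rx C a s) (ry C k s) s ∧ |p.ev (rx C a s) (ry C k s) s| ≤ w

/-- bound of the quadratic coefficient from the bound of `∂_y φ`. -/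
theorem d_le_of_ny {p : Cf E} {K R s0 T : ℝ} (hR : 0 ≤ R) (hT : 0 ≤ T)
    (h : ∀ s, |s - s0| ≤ R → |p.ny s| * T ≤ K) : 2 * |p.d| * (T * R) ≤ K := by
  have h1 := h (s0 + R) (by rw [add_sub_cancel_left, abs_of_nonneg hR])
  have h2 := h (s0 - R) (by rw [sub_sub_cancel_left, abs_neg, abs_of_nonneg hR])
  have e : p.ny (s0 - R) - p.ny (s0 + R) = 4 * p.d * R := by unfold Cf.ny; ring
  have h3 : |4 * p.d * R| ≤ |p.ny (s0 - R)| + |p.ny (s0 + R)| := by
    rw [← e]; exact abs_sub _ _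
  rw [abs_mul, abs_mul, abs_of_nonneg hR, abs_of_pos (by norm_num : (0:ℝ) < 4)] at h3
  have h4 := mul_le_mul_of_nonneg_right h3 hT
  nlinarith

/-- `a T ≤ M sg`, `b ≤ m sg`, `sg² ≤ T` give `a b ≤ M m`. -/
theorem prod_le {a b M m sg T : ℝ} (hsg : 0 < sg) (hT : sg ^ 2 ≤ T) (ha0 : 0 ≤ a) (hM : 0 ≤ M)
    (hm : 0 ≤ m) (ha : a * T ≤ M * sg) (hb : b ≤ m * sg) : a * b ≤ M * m := by
  have hT0 : 0 < T := lt_of_lt_of_le (pow_pos hsg 2) hT
  have h1 : a * b * T ≤ M * m * T := by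
    calc a * b * T ≤ a * (m * sg) * T := by
          have := mul_le_mul_of_nonneg_left hb ha0
          exact mul_le_mul_of_nonneg_right this hT0.le
      _ = (a * T) * (m * sg) := by ring
      _ ≤ (M * sg) * (m * sg) := mul_le_mul_of_nonneg_right ha (by positivity)
      _ = M * m * sg ^ 2 := by ring
      _ ≤ M * m * T := mul_le_mul_of_nonneg_left hT (by positivity)
  exact le_of_mul_le_mul_right h1 hT0

theorem ny_sg_le {a M sg T : ℝ} (hsg : 0 < sg) (hT : sg ^ 2 ≤ T) (ha0 : 0 ≤ a) (hM : 0 ≤ M)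
    (ha : a * T ≤ M * sg) : a * sg ≤ M := by
  have := prod_le (b := sg) (m := 1) hsg hT ha0 hM (by norm_num) ha (by linarith)
  linarith

section adm

variable {M : ℝ} {c : E} {sg T R : ℝ} {x0 : E} {y0 s0 : ℝ} {p : Cf E}

theorem Adm.d_le (h : Adm M c sg T R x0 y0 s0 p) (hR : 0 ≤ R) (hT : 0 ≤ T) :
    2 * |p.d| * (T * R) ≤ M * sg := d_le_of_ny hR hT h.ny

/-- **the lateral gradient on points of small derivative and small value**. -/
theorem gr_sq_near {m : ℝ} (hR : 0 < R) (hsg : 0 < sg) (hT : sg ^ 2 ≤ T) (hM : 0 ≤ M) (hm : 0 ≤ m)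
    (hdisc : p.disc = 1) {C x : E} {y s : ℝ} (hny : |p.ny s| * T ≤ M * sg)
    (hd : 2 * |p.d| * (T * R) ≤ M * sg) (hld : |p.ld C x y s| ≤ m * sg)
    (hev : |p.ev x y s| ≤ m * sg * R) : |‖p.gr C x s‖ ^ 2 - 1| ≤ 4 * (M * m) := by
  have h1 : |p.ny s| * |p.ld C x y s| ≤ M * m :=
    prod_le hsg hT (abs_nonneg _) hM hm hny hld
  have h2 : (2 * |p.d| * R) * (|p.ev x y s| / R) ≤ M * m :=
    prod_le hsg hT (by positivity) hM hm (by linarith) (by
      rw [div_le_iff₀ hR]; exact hev)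
  have h3 : (2 * |p.d| * R) * (|p.ev x y s| / R) = 2 * |p.d| * |p.ev x y s| := by
    field_simp
  rw [h3] at h2
  rw [Cf.norm_gr_sq p C x y s, hdisc]
  have e : 1 + 2 * p.ny s * p.ld C x y s + 4 * p.d * p.ev x y s - 1 =
      2 * (p.ny s * p.ld C x y s) + 4 * (p.d * p.ev x y s) := by ring
  rw [e]
  refine (abs_add_le _ _).trans ?_
  rw [abs_mul, abs_mul, abs_mul, abs_mul, abs_of_pos (by norm_num : (0:ℝ) < 2),
    abs_of_pos (by norm_num : (0:ℝ) < 4)]
  nlinarith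

theorem norm_le_of_sq_near {v : E} {K : ℝ} (hK : 0 ≤ K) (h : |‖v‖ ^ 2 - 1| ≤ 4 * K) :
    ‖v‖ ≤ 1 + 2 * K := by
  have h1 := (abs_le.1 h).2
  nlinarith [norm_nonneg v, sq_nonneg (‖v‖ - 1 - 2 * K)]

theorem Adm.gr_le (h : Adm M c sg T R x0 y0 s0 p) (hR : 0 < R) (hsg : 0 < sg) (hT : sg ^ 2 ≤ T)
    (hM : 1 ≤ M) : ‖p.gr c x0 s0‖ ≤ 1 + 2 * M := by
  have hM0 : 0 ≤ M := zero_le_one.trans hM
  have hT0 : 0 ≤ T := (sq_nonneg sg).trans hT
  have h1 := gr_sq_near (m := M) hR hsg hT hM0 hM0 h.disc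
    (h.ny s0 (by rw [sub_self, abs_zero]; exact hR.le)) (h.d_le hR.le hT0) h.ld h.ev
  have h2 := (abs_le.1 h1).2
  have h3 : ‖p.gr c x0 s0‖ ^ 2 ≤ (1 + 2 * M) ^ 2 := by nlinarith
  exact (sq_le_sq₀ (norm_nonneg _) (by linarith)).1 h3

/-- **the class is invariant under the zooms** (normalised: `φ ↦ th⁻¹ · pull φ`). -/
theorem adm_zoom (C0 : E) {th : ℝ} (hth : 0 < th) (q : Cf E) :
    Adm M (zC C0 th c) (sg / th) (T / th ^ 2) (th ^ 2 * R) (zx C0 th x0 s0) (zy C0 x0 y0 s0)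
      (th ^ 2 * s0) q ↔ Adm M c sg T R x0 y0 s0 (Cf.smul th⁻¹ (Cf.pull C0 th q)) := by
  have hne := hth.ne'
  have hd : (Cf.smul th⁻¹ (Cf.pull C0 th q)).disc = q.disc := by
    rw [Cf.disc_smul, Cf.disc_pull]; field_simp
  have hny : ∀ s, (Cf.smul th⁻¹ (Cf.pull C0 th q)).ny s = th⁻¹ * q.ny (th ^ 2 * s) := by
    intro s; rw [Cf.ny_smul, Cf.ny_pull]
  have hld : (Cf.smul th⁻¹ (Cf.pull C0 th q)).ld c x0 y0 s0 =
      th * q.ld (zC C0 th c) (zx C0 th x0 s0) (zy C0 x0 y0 s0) (th ^ 2 * s0) := by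
    rw [Cf.ld_smul, Cf.ld_pull C0 hne]; field_simp
  have hev : (Cf.smul th⁻¹ (Cf.pull C0 th q)).ev x0 y0 s0 =
      th⁻¹ * q.ev (zx C0 th x0 s0) (zy C0 x0 y0 s0) (th ^ 2 * s0) := by
    rw [Cf.ev_smul, Cf.ev_pull]
  have hti : (0:ℝ) < th⁻¹ := inv_pos.2 hth
  constructor
  · intro h
    refine ⟨by rw [hd]; exact h.disc, fun s hs => ?_, ?_, ?_⟩
    · have h1 := h.ny (th ^ 2 * s) (by
        rw [← mul_sub, abs_mul, abs_of_pos (pow_pos hth 2)]
        exact mul_le_mul_of_nonneg_left hs (sq_nonneg _))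
      rw [hny, abs_mul, abs_of_pos hti]
      have h2 := mul_le_mul_of_nonneg_left h1 hth.le
      have e1 : th * (|q.ny (th ^ 2 * s)| * (T / th ^ 2)) = th⁻¹ * |q.ny (th ^ 2 * s)| * T := by
        field_simp
      have e2 : th * (M * (sg / th)) = M * sg := by field_simp
      rwa [e1, e2] at h2
    · rw [hld, abs_mul, abs_of_pos hth]
      have h2 := mul_le_mul_of_nonneg_left h.ld hth.le
      have e2 : th * (M * (sg / th)) = M * sg := by field_simp
      rwa [e2] at h2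
    · rw [hev, abs_mul, abs_of_pos hti]
      have h2 := mul_le_mul_of_nonneg_left h.ev hti.le
      have e2 : th⁻¹ * (M * (sg / th) * (th ^ 2 * R)) = M * sg * R := by field_simp
      rwa [e2] at h2
  · intro h
    refine ⟨by rw [← hd]; exact h.disc, fun s hs => ?_, ?_, ?_⟩
    · have h1 := h.ny (s / th ^ 2) (by
        have e : s / th ^ 2 - s0 = (s - th ^ 2 * s0) / th ^ 2 := by field_simp
        rw [e, abs_div, abs_of_pos (pow_pos hth 2), div_le_iff₀ (pow_pos hth 2)]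
        linarith)
      rw [hny, abs_mul, abs_of_pos hti] at h1
      have e0 : th ^ 2 * (s / th ^ 2) = s := by field_simp
      rw [e0] at h1
      have h2 := mul_le_mul_of_nonneg_left h1 hti.le
      have e1 : th⁻¹ * (th⁻¹ * |q.ny s| * T) = |q.ny s| * (T / th ^ 2) := by
        field_simp
      have e2 : th⁻¹ * (M * sg) = M * (sg / th) := by field_simp
      rwa [e1, e2] at h2
    · have h1 := h.ld
      rw [hld, abs_mul, abs_of_pos hth] at h1
      have h2 := mul_le_mul_of_nonneg_left h1 hti.le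
      rw [← mul_assoc, inv_mul_cancel₀ hne, one_mul] at h2
      refine h2.trans (le_of_eq ?_)
      field_simp
    · have h1 := h.ev
      rw [hev, abs_mul, abs_of_pos hti] at h1
      have h2 := mul_le_mul_of_nonneg_left h1 hth.le
      rw [← mul_assoc, mul_inv_cancel₀ hne, one_mul] at h2
      refine h2.trans (le_of_eq ?_)
      field_simp

/-- **slabs go to slabs, rays of a member go to rays of the zoomed member**. -/
theorem rayIn_zoom (C0 : E) {th : ℝ} (hth : 0 < th) (q : Cf E) {w : ℝ} {C a : E} {k : ℝ} :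
    RayIn (zC C0 th c) (sg / th) (T / th ^ 2) (th ^ 2 * R) (zx C0 th x0 s0) (zy C0 x0 y0 s0)
      (th ^ 2 * s0) q (th * w) (zC C0 th C) (th • a) (k + inner ℝ C0 a) ↔
    RayIn c sg T R x0 y0 s0 (Cf.smul th⁻¹ (Cf.pull C0 th q)) w C a k := by
  have hne := hth.ne'
  have hti : (0:ℝ) < th⁻¹ := inv_pos.2 hth
  have hC : ‖zC C0 th C - zC C0 th c‖ ≤ sg / th ↔ ‖C - c‖ ≤ sg := by
    have e : zC C0 th C - zC C0 th c = th⁻¹ • (C - c) := by unfold zC; module
    rw [e, norm_smul, Real.norm_of_nonneg hti.le, div_eq_inv_mul, mul_le_mul_iff_right₀ hti]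
  have key : ∀ s, (InK (zC C0 th c) (sg / th) (T / th ^ 2) (th ^ 2 * R) (zx C0 th x0 s0)
      (zy C0 x0 y0 s0) (th ^ 2 * s0) (rx (zC C0 th C) (th • a) (th ^ 2 * s))
      (ry (zC C0 th C) (k + inner ℝ C0 a) (th ^ 2 * s)) (th ^ 2 * s) ∧
      |q.ev (rx (zC C0 th C) (th • a) (th ^ 2 * s))
        (ry (zC C0 th C) (k + inner ℝ C0 a) (th ^ 2 * s)) (th ^ 2 * s)| ≤ th * w) ↔
      (InK c sg T R x0 y0 s0 (rx C a s) (ry C k s) s ∧
      |(Cf.smul th⁻¹ (Cf.pull C0 th q)).ev (rx C a s) (ry C k s) s| ≤ w) := by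
    intro s
    rw [← zx_ray C0 hne, ← zy_ray C0 hne, inK_zoom C0 hth, Cf.ev_smul, Cf.ev_pull, abs_mul,
      abs_of_pos hti]
    refine and_congr_right fun _ => ?_
    constructor
    · intro h
      have h2 := mul_le_mul_of_nonneg_left h hti.le
      rwa [← mul_assoc, inv_mul_cancel₀ hne, one_mul] at h2
    · intro h
      have h2 := mul_le_mul_of_nonneg_left h hth.le
      rwa [← mul_assoc, mul_inv_cancel₀ hne, one_mul] at h2
  unfold RayIn
  rw [hC]
  refine and_congr_right fun _ => ⟨fun h s hs => (key s).1 (h (th ^ 2 * s) ?_), fun h s hs => ?_⟩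
  · rw [← mul_sub, abs_mul, abs_of_pos (pow_pos hth 2)]
    exact mul_le_mul_of_nonneg_left hs (sq_nonneg _)
  · have h1 := (key (s / th ^ 2)).2 (h (s / th ^ 2) (by
        have e : s / th ^ 2 - s0 = (s - th ^ 2 * s0) / th ^ 2 := by field_simp
        rw [e, abs_div, abs_of_pos (pow_pos hth 2), div_le_iff₀ (pow_pos hth 2)]
        linarith))
    have e0 : th ^ 2 * (s / th ^ 2) = s := by field_simp
    rwa [e0] at h1

end adm

end Crest.Agent.R116.LZg725
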