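import Crest.Agent.R116.CDef_480
import Crest.Agent.R116.LZg3_725

/-!
# R116, (Z4), part 4: the class `SS` over `E3 × ℝ` (helper725)

`Mem` = member of the class `SS` = isotropic light box (direction `c`, aperture `sg`, thickness
`T R`, `T = max (sg²) (B/R)`, length `R`, centre `(X0, s0)`) cut by the conformal slab
`|φ| ≤ s1 R`.  `Mem.Ok M B m`: `0 < s1 ≤ sg`, `0 < R`, `disc φ = 1`, `|∂_y φ| T ≤ M sg` on the time
interval, `|L_{p0}(c)| ≤ M sg`, `|φ(p0)| ≤ M sg R`.  Always use `cost`, never the true volume.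
Rays: `(C, a, k)`: position `pt (a - s C) (k + s |C|²/2)` at time `s` (480's sign).
-/

set_option autoImplicit false

open MeasureTheory

namespace Crest.Agent.R116.LZg725

open Crest.Agent.R138.Defs (E2)
open Crest.Agent.R116.CDef480 (E3 lat pt vel)

/-- value of a conformal function at a space-time point. -/
noncomputable def Cf.val (p : Cf E2) (q : E3 × ℝ) : ℝ := p.ev (lat q.1) (q.1 2) q.2

/-- position of the ray `(C, a, k)` at time `s`. -/
noncomputable def rpos (r : E2 × E2 × ℝ) (s : ℝ) : E3 :=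
  pt (rx r.1 r.2.1 s) (ry r.1 r.2.2 s)

/-- member of the class `SS`: data. -/
structure Mem where
  c : E2
  sg : ℝ
  s1 : ℝ
  R : ℝ
  X0 : E3
  s0 : ℝ
  phi : Cf E2

namespace Mem

/-- thickness parameter. -/
noncomputable def T (B : ℝ) (m : Mem) : ℝ := max (m.sg ^ 2) (B / m.R)

/-- the light box. -/
def box (B : ℝ) (m : Mem) : Set (E3 × ℝ) :=
  {q | InK m.c m.sg (m.T B) m.R (lat m.X0) (m.X0 2) m.s0 (lat q.1) (q.1 2) q.2}

/-- the member as a subset of space-time. -/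
def set (B : ℝ) (m : Mem) : Set (E3 × ℝ) := {q | q ∈ m.box B ∧ |m.phi.val q| ≤ m.s1 * m.R}

/-- the rays of the member. -/
def rays (B : ℝ) (m : Mem) : Set (E2 × E2 × ℝ) :=
  {r | ‖r.1 - m.c‖ ≤ m.sg ∧ ∀ s, |s - m.s0| ≤ m.R → (rpos r s, s) ∈ m.set B}

/-- the conditions on a member. -/
structure Ok (M B : ℝ) (m : Mem) : Prop where
  hR : 0 < m.R
  hs1 : 0 < m.s1
  hsg : m.s1 ≤ m.sg
  adm : Adm M m.c m.sg (m.T B) m.R (lat m.X0) (m.X0 2) m.s0 m.phi

/-- cost in space-time (the volume up to constants). -/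
noncomputable def cost (B : ℝ) (m : Mem) : ℝ := m.s1 * m.sg * m.T B * m.R ^ 4

/-- cost of a section at fixed time: `(s1 R) (sg R) (T R)`. -/
noncomputable def scost (B : ℝ) (m : Mem) : ℝ := m.s1 * m.sg * m.T B * m.R ^ 3

end Mem

/-! ### bridge to `CDef480` -/

theorem nrm_eq (C : E2) (X : E3) (s : ℝ) : CDef480.nrm C X s = nrm C (lat X) (X 2) s := rfl

@[simp] theorem lat_rpos (r : E2 × E2 × ℝ) (s : ℝ) : lat (rpos r s) = rx r.1 r.2.1 s := by
  unfold rpos; rw [CDef480.lat_pt]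

@[simp] theorem rpos_two (r : E2 × E2 × ℝ) (s : ℝ) : rpos r s 2 = ry r.1 r.2.2 s := rfl

/-- the ray in the form `X - s • vel C`. -/
theorem rpos_eq (r : E2 × E2 × ℝ) (s : ℝ) : rpos r s = pt r.2.1 r.2.2 - s • vel r.1 := by
  unfold rpos rx ry vel
  have h : pt (r.2.1 - s • r.1) (r.2.2 + s * ‖r.1‖ ^ 2 / 2) =
      pt (r.2.1 + (-s) • r.1) (r.2.2 + (-s) * (-‖r.1‖ ^ 2 / 2)) := by
    congr 1
    · rw [neg_smul, sub_eq_add_neg]
    · ring
  rw [h, CDef480.pt_add, CDef480.pt_smul, neg_smul, sub_eq_add_neg]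

theorem Mem.mem_rays {B : ℝ} {m : Mem} {r : E2 × E2 × ℝ} :
    r ∈ m.rays B ↔ RayIn m.c m.sg (m.T B) m.R (lat m.X0) (m.X0 2) m.s0 m.phi (m.s1 * m.R)
      r.1 r.2.1 r.2.2 := by
  unfold Mem.rays Mem.set Mem.box RayIn Cf.val
  simp only [Set.mem_ofPred_eq, lat_rpos, rpos_two]

theorem Mem.Ok.sg_pos {M B : ℝ} {m : Mem} (h : m.Ok M B) : 0 < m.sg := h.hs1.trans_le h.hsg

theorem Mem.sq_le_T (B : ℝ) (m : Mem) : m.sg ^ 2 ≤ m.T B := le_max_left _ _

theorem Mem.Ok.T_pos {M B : ℝ} {m : Mem} (h : m.Ok M B) : 0 < m.T B :=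
  lt_of_lt_of_le (pow_pos h.sg_pos 2) (m.sq_le_T B)

theorem Mem.Ok.cost_pos {M B : ℝ} {m : Mem} (h : m.Ok M B) : 0 < m.cost B := by
  have := h.T_pos; have := h.hR; have := h.hs1; have := h.sg_pos
  unfold Mem.cost; positivity

theorem Mem.Ok.scost_pos {M B : ℝ} {m : Mem} (h : m.Ok M B) : 0 < m.scost B := by
  have := h.T_pos; have := h.hR; have := h.hs1; have := h.sg_pos
  unfold Mem.scost; positivity

/-! ### the zoom on members -/

/-- the zoom on space-time. -/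
noncomputable def zX (C0 : E2) (th : ℝ) (q : E3 × ℝ) : E3 × ℝ :=
  (pt (zx C0 th (lat q.1) q.2) (zy C0 (lat q.1) (q.1 2) q.2), th ^ 2 * q.2)

/-- the zoom on rays. -/
noncomputable def zR (C0 : E2) (th : ℝ) (r : E2 × E2 × ℝ) : E2 × E2 × ℝ :=
  (zC C0 th r.1, th • r.2.1, r.2.2 + inner ℝ C0 r.2.1)

/-- the zoomed member. -/
noncomputable def Mem.zoom (C0 : E2) (th : ℝ) (m : Mem) : Mem where
  c := zC C0 th m.c
  sg := m.sg / th
  s1 := m.s1 / th
  R := th ^ 2 * m.R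
  X0 := (zX C0 th (m.X0, m.s0)).1
  s0 := th ^ 2 * m.s0
  phi := Cf.smul th (Cf.push C0 th m.phi)

theorem zX_rpos (C0 : E2) {th : ℝ} (hth : th ≠ 0) (r : E2 × E2 × ℝ) (s : ℝ) :
    zX C0 th (rpos r s, s) = (rpos (zR C0 th r) (th ^ 2 * s), th ^ 2 * s) := by
  unfold zX zR
  simp only [lat_rpos, rpos_two]
  rw [zx_ray C0 hth, zy_ray C0 hth]
  rfl

theorem Cf.val_zoom (C0 : E2) {th : ℝ} (hth : th ≠ 0) (p : Cf E2) (q : E3 × ℝ) :
    (Cf.smul th (Cf.push C0 th p)).val (zX C0 th q) = th * p.val q := by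
  unfold Cf.val zX
  simp only [CDef480.lat_pt, CDef480.pt_two]
  rw [Cf.ev_smul, Cf.ev_push C0 hth]

theorem Mem.zoom_T (B : ℝ) (C0 : E2) {th : ℝ} (hth : 0 < th) (m : Mem) :
    (m.zoom C0 th).T B = m.T B / th ^ 2 := by
  unfold Mem.T Mem.zoom
  simp only []
  have h2 : (0:ℝ) < th ^ 2 := pow_pos hth 2
  rw [← max_div_div_right h2.le, div_pow]
  congr 1
  rcases eq_or_ne m.R 0 with h | h
  · rw [h]; simp
  · field_simp

theorem Mem.zoom_box (B : ℝ) (C0 : E2) {th : ℝ} (hth : 0 < th) (m : Mem) (q : E3 × ℝ) :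
    zX C0 th q ∈ (m.zoom C0 th).box B ↔ q ∈ m.box B := by
  unfold Mem.box
  rw [Set.mem_ofPred_eq, Set.mem_ofPred_eq, Mem.zoom_T B C0 hth m]
  unfold Mem.zoom zX
  simp only [CDef480.lat_pt, CDef480.pt_two]
  exact inK_zoom C0 hth m.c m.sg (m.T B) m.R _ _ _ _ _ _

theorem Mem.zoom_set (B : ℝ) (C0 : E2) {th : ℝ} (hth : 0 < th) (m : Mem) (q : E3 × ℝ) :
    zX C0 th q ∈ (m.zoom C0 th).set B ↔ q ∈ m.set B := by
  unfold Mem.set
  rw [Set.mem_ofPred_eq, Set.mem_ofPred_eq, Mem.zoom_box B C0 hth m]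
  refine and_congr_right fun _ => ?_
  have h1 : (m.zoom C0 th).phi.val (zX C0 th q) = th * m.phi.val q :=
    Cf.val_zoom C0 hth.ne' m.phi q
  rw [h1, abs_mul, abs_of_pos hth]
  have e : (m.zoom C0 th).s1 * (m.zoom C0 th).R = th * (m.s1 * m.R) := by
    unfold Mem.zoom; simp only []; field_simp
  rw [e, mul_le_mul_iff_right₀ hth]

theorem Mem.zoom_rays (B : ℝ) (C0 : E2) {th : ℝ} (hth : 0 < th) (m : Mem) (r : E2 × E2 × ℝ) :
    zR C0 th r ∈ (m.zoom C0 th).rays B ↔ r ∈ m.rays B := by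
  have hti : (0:ℝ) < th⁻¹ := inv_pos.2 hth
  have hC : ‖(zR C0 th r).1 - (m.zoom C0 th).c‖ ≤ (m.zoom C0 th).sg ↔ ‖r.1 - m.c‖ ≤ m.sg := by
    have e : (zR C0 th r).1 - (m.zoom C0 th).c = th⁻¹ • (r.1 - m.c) := by
      unfold zR Mem.zoom zC; simp only []; module
    rw [e, norm_smul, Real.norm_of_nonneg hti.le]
    unfold Mem.zoom
    simp only []
    rw [div_eq_inv_mul, mul_le_mul_iff_right₀ hti]
  unfold Mem.rays
  rw [Set.mem_ofPred_eq, Set.mem_ofPred_eq, hC]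
  refine and_congr_right fun _ => ⟨fun h s hs => ?_, fun h s hs => ?_⟩
  · have h1 := h (th ^ 2 * s) (by
      change |th ^ 2 * s - th ^ 2 * m.s0| ≤ th ^ 2 * m.R
      rw [← mul_sub, abs_mul, abs_of_pos (pow_pos hth 2)]
      exact mul_le_mul_of_nonneg_left hs (sq_nonneg _))
    rwa [← zX_rpos C0 hth.ne', Mem.zoom_set B C0 hth m] at h1
  · have hs' : |s - th ^ 2 * m.s0| ≤ th ^ 2 * m.R := hs
    have h1 := h (s / th ^ 2) (by
      have e : s / th ^ 2 - m.s0 = (s - th ^ 2 * m.s0) / th ^ 2 := by field_simp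
      rw [e, abs_div, abs_of_pos (pow_pos hth 2), div_le_iff₀ (pow_pos hth 2)]
      linarith)
    rw [← Mem.zoom_set B C0 hth m, zX_rpos C0 hth.ne'] at h1
    have e0 : th ^ 2 * (s / th ^ 2) = s := by field_simp
    rwa [e0] at h1

theorem Mem.zoom_ok {M B : ℝ} (C0 : E2) {th : ℝ} (hth : 0 < th) {m : Mem} (h : m.Ok M B) :
    (m.zoom C0 th).Ok M B := by
  refine ⟨mul_pos (pow_pos hth 2) h.hR, div_pos h.hs1 hth,
    div_le_div_of_nonneg_right h.hsg hth.le, ?_⟩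
  rw [Mem.zoom_T B C0 hth m]
  unfold Mem.zoom zX
  simp only [CDef480.lat_pt, CDef480.pt_two]
  rw [adm_zoom C0 hth]
  have hne := hth.ne'
  have e : Cf.smul th⁻¹ (Cf.pull C0 th (Cf.smul th (Cf.push C0 th m.phi))) = m.phi := by
    unfold Cf.smul Cf.pull Cf.push Cf.pull
    ext1
    · simp only []
      field_simp
    · simp only [norm_neg, norm_smul, inner_neg_right, real_inner_smul_right, inner_add_left,
        inner_neg_left, real_inner_smul_left, smul_add, real_inner_self_eq_norm_sq, norm_inv,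
        Real.norm_eq_abs, abs_of_pos hth]
      field_simp
      ring
    · simp only [smul_add, smul_smul, smul_neg]
      have e1 : th⁻¹ * (th * (th * th⁻¹)) = 1 := by field_simp
      have e2 : th⁻¹ * (th * (th * (m.phi.g * th⁻¹))) = m.phi.g := by field_simp
      have e3 : th⁻¹ * (th * m.phi.g) = m.phi.g := by field_simp
      rw [e1, e2, e3, one_smul]
      abel
    · simp only []
      field_simp
    · simp only []
      field_simp
  rw [e]
  exact h.adm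

theorem Mem.zoom_cost (B : ℝ) (C0 : E2) {th : ℝ} (hth : 0 < th) (m : Mem) :
    (m.zoom C0 th).cost B = th ^ 4 * m.cost B := by
  unfold Mem.cost
  rw [Mem.zoom_T B C0 hth m]
  unfold Mem.zoom
  simp only []
  field_simp

theorem Mem.zoom_scost (B : ℝ) (C0 : E2) {th : ℝ} (hth : 0 < th) (m : Mem) :
    (m.zoom C0 th).scost B = th ^ 2 * m.scost B := by
  unfold Mem.scost
  rw [Mem.zoom_T B C0 hth m]
  unfold Mem.zoom
  simp only []
  field_simp

end Crest.Agent.R116.LZg725
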