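import Crest.Agent.R116.ChL1_222
import Crest.Agent.R116.LZg4_725

/-!
# R116, GEO-D of the light-ray chart (helper222), part 1: from chart boxes to members of `SS`

* `Cf.mk0` : the conformal function with given frame coefficients which vanishes on a ray.
* `cfL i`  : the same for the flag of the incidence `i`; `cfL_ev` : value along the ray of `j` =
  `F + (s - z_i) P` (slots 11 and 10 of `coL i j`).
* `box_memL` : the ray of `j` lies in the member `memL i ..` if the slots `C, X, N, P, F` are small.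
-/

set_option autoImplicit false

namespace Crest.Agent.R116.Gd222

open Crest.Agent.R138.Defs (E2)
open Crest.Agent.R116.CDef480 (E3 lat pt)
open Crest.Agent.R116.LZg725
open Crest.Agent.R116.ChL222

/-! ### the conformal function with given frame coefficients -/

section frame

variable {E : Type*} [NormedAddCommGroup E] [InnerProductSpace ℝ E]

/-- the conformal function which vanishes on the ray of direction `c` through `(x0, y0, s0)` and has
lateral gradient `b`, null derivative `et` and quadratic coefficient `d` there. -/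
noncomputable def mk0 (c x0 : E) (y0 s0 : ℝ) (b : E) (et d : ℝ) : Cf E where
  g := et + 2 * d * s0
  d := d
  be := b - (2 * d) • x0 + et • c
  a1 := 2 * d * y0 + inner ℝ (b + et • c) c - et * ‖c‖ ^ 2 / 2
  a0 := -((2 * d * y0 + inner ℝ (b + et • c) c - et * ‖c‖ ^ 2 / 2) * s0 +
    inner ℝ (b - (2 * d) • x0 + et • c) x0 + (et + 2 * d * s0) * y0 +
    d * (‖x0‖ ^ 2 - 2 * s0 * y0))

variable (c x0 : E) (y0 s0 : ℝ) (b : E) (et d : ℝ)

theorem mk0_ny (s : ℝ) : (mk0 c x0 y0 s0 b et d).ny s = et - 2 * d * (s - s0) := by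
  unfold mk0 Cf.ny; simp only []; ring

theorem mk0_gr : (mk0 c x0 y0 s0 b et d).gr c x0 s0 = b := by
  unfold Cf.gr
  rw [mk0_ny]
  unfold mk0
  simp only []
  rw [sub_self, mul_zero, sub_zero]
  abel

theorem mk0_ld : (mk0 c x0 y0 s0 b et d).ld c x0 y0 s0 = 0 := by
  unfold Cf.ld
  rw [mk0_ny]
  unfold mk0
  simp only []
  rw [sub_self, mul_zero, sub_zero, show b - (2 * d) • x0 + et • c + (2 * d) • x0 = b + et • c by abel]
  ring

theorem mk0_ev0 : (mk0 c x0 y0 s0 b et d).ev x0 y0 s0 = 0 := by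
  unfold Cf.ev mk0
  simp only []
  ring

theorem mk0_disc : (mk0 c x0 y0 s0 b et d).disc = ‖b‖ ^ 2 := by
  have h := Cf.norm_gr_sq (mk0 c x0 y0 s0 b et d) c x0 y0 s0
  rw [mk0_gr, mk0_ld, mk0_ev0] at h
  linarith

theorem mk0_ev (x : E) (y s : ℝ) : (mk0 c x0 y0 s0 b et d).ev x y s =
    inner ℝ b ((x - x0) + (s - s0) • c) + et * (nrm c x y s - nrm c x0 y0 s0) +
      d * (‖(x - x0) + (s - s0) • c‖ ^ 2 - 2 * (s - s0) * (nrm c x y s - nrm c x0 y0 s0)) := by
  rw [Cf.ev_expand _ c x0 y0 s0, mk0_gr, mk0_ld, mk0_ev0, mk0_ny]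
  have : (mk0 c x0 y0 s0 b et d).d = d := rfl
  rw [this]
  ring

end frame

/-! ### the flag of an incidence -/

/-- velocity -/
noncomputable def vc (i : LInc) : E2 := !₂[i.c1, i.c2]
/-- lateral position at height `s` -/
noncomputable def vx (i : LInc) (s : ℝ) : E2 := !₂[i.p1 s, i.p2 s]
/-- lateral gradient of the flag -/
noncomputable def vb (i : LInc) : E2 := !₂[i.b1, i.b2]

/-- the ray of an incidence, in 725's sign -/
noncomputable def rayL (i : LInc) : E2 × E2 × ℝ := (-vc i, vx i 0, i.h)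

/-- the flag as a conformal function which vanishes on the ray -/
noncomputable def cfL (i : LInc) : Cf E2 := mk0 (-vc i) (vx i i.z) (i.ph i.z) i.z (vb i) i.et i.d

theorem inner2 (x y : E2) : inner ℝ x y = x 0 * y 0 + x 1 * y 1 := by
  rw [PiLp.inner_apply, Fin.sum_univ_two]
  simp [mul_comm]

theorem normsq2 (x : E2) : ‖x‖ ^ 2 = x 0 ^ 2 + x 1 ^ 2 := by
  rw [← real_inner_self_eq_norm_sq, inner2]; ring

theorem norm_le2 (x : E2) {a b : ℝ} (h0 : |x 0| ≤ a) (h1 : |x 1| ≤ b) : ‖x‖ ≤ a + b := by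
  have ha : 0 ≤ a := (abs_nonneg _).trans h0
  have hb : 0 ≤ b := (abs_nonneg _).trans h1
  refine abs_le_of_sq_le_sq' ?_ (by linarith) |>.2
  rw [normsq2]
  have e0 : x 0 ^ 2 ≤ a ^ 2 := sq_le_sq' (by linarith [(abs_le.1 h0).1]) (abs_le.1 h0).2
  have e1 : x 1 ^ 2 ≤ b ^ 2 := sq_le_sq' (by linarith [(abs_le.1 h1).1]) (abs_le.1 h1).2
  nlinarith

theorem vx_zero_add (i : LInc) (s : ℝ) : vx i s = vx i 0 + s • vc i := by
  ext k
  fin_cases k <;> simp [vx, vc, LInc.p1, LInc.p2]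

theorem rx_rayL (i : LInc) (s : ℝ) : rx (rayL i).1 (rayL i).2.1 s = vx i s := by
  unfold rx rayL
  rw [vx_zero_add i s]
  simp

theorem ry_rayL (i : LInc) (s : ℝ) : ry (rayL i).1 (rayL i).2.2 s = i.ph s := by
  unfold ry rayL LInc.ph
  simp only [norm_neg]
  rw [normsq2]
  simp only [vc, PiLp.toLp_apply, Matrix.cons_val_zero, Matrix.cons_val_one]
  ring

/-- lateral displacement of `j` seen from `i` -/
theorem w_eq (i j : LInc) (s : ℝ) :
    (vx j s - vx i i.z) + (s - i.z) • (-vc i) =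
      !₂[coL i j 5 + (s - i.z) * coL i j 3, coL i j 6 + (s - i.z) * coL i j 4] := by
  ext k
  fin_cases k
  · simp [vx, vc, coL, LInc.p1]; ring
  · simp [vx, vc, coL, LInc.p2]; ring

/-- null displacement of `j` seen from `i` -/
theorem N_eq (i j : LInc) (s : ℝ) :
    nrm (-vc i) (vx j s) (j.ph s) s - nrm (-vc i) (vx i i.z) (i.ph i.z) i.z =
      coL i j 9 + (s - i.z) * ((coL i j 3 ^ 2 + coL i j 4 ^ 2) / 2) := by
  unfold nrm
  rw [norm_neg, normsq2, inner_neg_left, inner_neg_left, inner2, inner2]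
  simp [vx, vc, coL, nuL, LInc.p1, LInc.p2, LInc.ph]
  ring

/-- **the flag of `i` along the ray of `j`** -/
theorem cfL_ev (i j : LInc) (s : ℝ) :
    (cfL i).ev (vx j s) (j.ph s) s = coL i j 11 + (s - i.z) * coL i j 10 := by
  unfold cfL
  rw [mk0_ev, N_eq, w_eq, normsq2, inner2]
  simp [vb, coL]
  ring

theorem coL_self (i : LInc) (k : Fin 12) : coL i i k = 0 := by
  fin_cases k <;> simp [coL, nuL]

theorem cfL_ev_self (i : LInc) (s : ℝ) : (cfL i).ev (vx i s) (i.ph s) s = 0 := by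
  rw [cfL_ev, coL_self, coL_self]; ring

theorem cfL_ny (i : LInc) (s : ℝ) : (cfL i).ny s = i.et - 2 * i.d * (s - i.z) := mk0_ny ..

theorem cfL_disc (i : LInc) : (cfL i).disc = ‖vb i‖ ^ 2 := mk0_disc ..

theorem cfL_ld (i : LInc) (s : ℝ) : (cfL i).ld (-vc i) (vx i s) (i.ph s) s = 0 := by
  have h := Cf.ld_move (cfL i) (-vc i) (vx i i.z) (vx i s) (i.ph i.z) (i.ph s) i.z s
  rw [N_eq i i s, coL_self, coL_self, coL_self] at h
  rw [h]
  have h2 : (cfL i).ld (-vc i) (vx i i.z) (i.ph i.z) i.z = 0 := mk0_ld ..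
  rw [h2]; ring

/-! ### the member around an incidence -/

/-- the member of aperture `sg`, slab width `s1`, over `[s0 - R, s0 + R]` around the ray of `i`,
with the flag of `i` (normalised to `disc = 1`). -/
noncomputable def memL (i : LInc) (s0 R sg s1 : ℝ) : Mem where
  c := -vc i
  sg := sg
  s1 := s1
  R := R
  X0 := pt (vx i s0) (i.ph s0)
  s0 := s0
  phi := Cf.smul ‖vb i‖⁻¹ (cfL i)

theorem memL_ok {i : LInc} {s0 R sg s1 M B : ℝ} (hR : 0 < R) (hs1 : 0 < s1) (hsg : s1 ≤ sg)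
    (hb : 0 < ‖vb i‖) (hM : 0 ≤ M)
    (hny : ∀ s, |s - s0| ≤ R →
      |i.et - 2 * i.d * (s - i.z)| * max (sg ^ 2) (B / R) ≤ M * sg * ‖vb i‖) :
    (memL i s0 R sg s1).Ok M B := by
  have hlat : lat (memL i s0 R sg s1).X0 = vx i s0 := by
    unfold memL; exact CDef480.lat_pt _ _
  have h2 : (memL i s0 R sg s1).X0 2 = i.ph s0 := by
    unfold memL; simp
  have hsg0 : 0 < sg := hs1.trans_le hsg
  refine ⟨hR, hs1, hsg, ?_⟩
  rw [hlat, h2]
  refine ⟨?_, ?_, ?_, ?_⟩
  · show (Cf.smul ‖vb i‖⁻¹ (cfL i)).disc = 1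
    rw [Cf.disc_smul, cfL_disc]
    field_simp
  · intro s hs
    show |(Cf.smul ‖vb i‖⁻¹ (cfL i)).ny s| * max (sg ^ 2) (B / R) ≤ M * sg
    rw [Cf.ny_smul, cfL_ny, abs_mul, abs_of_pos (inv_pos.2 hb), mul_assoc, inv_mul_le_iff₀ hb]
    calc _ ≤ _ := hny s hs
      _ = _ := by ring
  · show |(Cf.smul ‖vb i‖⁻¹ (cfL i)).ld (-vc i) (vx i s0) (i.ph s0) s0| ≤ M * sg
    rw [Cf.ld_smul, cfL_ld, mul_zero, abs_zero]
    positivity
  · show |(Cf.smul ‖vb i‖⁻¹ (cfL i)).ev (vx i s0) (i.ph s0) s0| ≤ M * sg * R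
    rw [Cf.ev_smul, cfL_ev_self, mul_zero, abs_zero]
    positivity

/-- **a chart box lies in a member.** -/
theorem box_memL {i j : LInc} {s0 R sg s1 B : ℝ} {kC kX kN kP kF D : ℝ}
    (hb : 0 < ‖vb i‖) (hR : 0 ≤ R) (hz : |s0 - i.z| ≤ D)
    (h3 : |coL i j 3| ≤ kC) (h4 : |coL i j 4| ≤ kC) (h5 : |coL i j 5| ≤ kX)
    (h6 : |coL i j 6| ≤ kX) (h9 : |coL i j 9| ≤ kN) (h10 : |coL i j 10| ≤ kP)
    (h11 : |coL i j 11| ≤ kF)
    (hC : 2 * kC ≤ sg) (hX : 2 * kX + (R + D) * (2 * kC) ≤ sg * R)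
    (hN : kN + (R + D) * kC ^ 2 ≤ max (sg ^ 2) (B / R) * R)
    (hF : kF + (R + D) * kP ≤ s1 * R * ‖vb i‖) :
    rayL j ∈ (memL i s0 R sg s1).rays B := by
  have hkC : 0 ≤ kC := (abs_nonneg _).trans h3
  have hkP : 0 ≤ kP := (abs_nonneg _).trans h10
  rw [Mem.mem_rays]
  have hlat : lat (memL i s0 R sg s1).X0 = vx i s0 := by
    unfold memL; exact CDef480.lat_pt _ _
  have h2 : (memL i s0 R sg s1).X0 2 = i.ph s0 := by
    unfold memL; simp
  rw [hlat, h2]
  show RayIn (-vc i) sg (max (sg ^ 2) (B / R)) R (vx i s0) (i.ph s0) s0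
    (Cf.smul ‖vb i‖⁻¹ (cfL i)) (s1 * R) (rayL j).1 (rayL j).2.1 (rayL j).2.2
  have hsz : ∀ s, |s - s0| ≤ R → |s - i.z| ≤ R + D := by
    intro s hs
    have e : s - i.z = (s - s0) + (s0 - i.z) := by ring
    rw [e]
    exact (abs_add_le _ _).trans (add_le_add hs hz)
  refine ⟨?_, fun s hs => ?_⟩
  · have e : (rayL j).1 - -vc i = -(!₂[coL i j 3, coL i j 4] : E2) := by
      ext k
      fin_cases k <;> simp [rayL, vc, coL] <;> ring
    rw [e, norm_neg]
    refine (norm_le2 _ (a := kC) (b := kC) (by simpa using h3) (by simpa using h4)).trans ?_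
    linarith
  · rw [rx_rayL, ry_rayL]
    have hD : |s - i.z| ≤ R + D := hsz s hs
    refine ⟨⟨hs, ?_, ?_⟩, ?_⟩
    · have e : vx j s - vx i s0 + (s - s0) • (-vc i) =
          (vx j s - vx i i.z) + (s - i.z) • (-vc i) := by
        rw [vx_zero_add i s0, vx_zero_add i i.z]
        module
      rw [e, w_eq]
      have k1 : ∀ a b : ℝ, |a| ≤ kX → |b| ≤ kC → |a + (s - i.z) * b| ≤ kX + (R + D) * kC := by
        intro a b ha hb'
        refine (abs_add_le _ _).trans (add_le_add ha ?_)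
        rw [abs_mul]
        exact mul_le_mul hD hb' (abs_nonneg _) ((abs_nonneg _).trans hD)
      refine (norm_le2 _ (a := kX + (R + D) * kC) (b := kX + (R + D) * kC)
        (by simpa using k1 _ _ h5 h3) (by simpa using k1 _ _ h6 h4)).trans ?_
      linarith
    · have e : nrm (-vc i) (vx j s) (j.ph s) s - nrm (-vc i) (vx i s0) (i.ph s0) s0 =
          nrm (-vc i) (vx j s) (j.ph s) s - nrm (-vc i) (vx i i.z) (i.ph i.z) i.z := by
        have h := N_eq i i s0
        rw [coL_self, coL_self, coL_self] at h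
        linarith
      rw [e, N_eq]
      have k2 : (coL i j 3 ^ 2 + coL i j 4 ^ 2) / 2 ≤ kC ^ 2 := by
        have a1 : coL i j 3 ^ 2 ≤ kC ^ 2 := sq_le_sq' (by linarith [(abs_le.1 h3).1]) (abs_le.1 h3).2
        have a2 : coL i j 4 ^ 2 ≤ kC ^ 2 := sq_le_sq' (by linarith [(abs_le.1 h4).1]) (abs_le.1 h4).2
        linarith
      refine (abs_add_le _ _).trans (le_trans (add_le_add h9 ?_) hN)
      rw [abs_mul, abs_of_nonneg (a := (coL i j 3 ^ 2 + coL i j 4 ^ 2) / 2) (by positivity)]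
      exact mul_le_mul hD k2 (by positivity) ((abs_nonneg _).trans hD)
    · rw [Cf.ev_smul, cfL_ev, abs_mul, abs_of_pos (inv_pos.2 hb), inv_mul_le_iff₀ hb]
      refine (abs_add_le _ _).trans (le_trans (add_le_add h11 ?_) (le_trans hF (le_of_eq ?_)))
      · rw [abs_mul]
        exact mul_le_mul hD h10 (abs_nonneg _) ((abs_nonneg _).trans hD)
      · ring

end Crest.Agent.R116.Gd222
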