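import Crest.Agent.R116.Bm3_903
import Crest.Agent.R116.Gd1_222

/-!
# R116, K side (helper903), part 4: `toL` and the incidences of the chart as primary objects

`rayL_toL`, `toL_rayL` : `LInc` = (ray, height, frame data of a flag); every incidence `i` is
`toL (rayL i) i.z (cfL i)`.  `slots_toL` : the flag slots of `i` relative to a conformal function
`q` read on the ray of `i` at the height of `i`.  `FlI q i eB eE eD` : the flag of `i` is close to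
`q`.  `mem_boxI_base`, `mem_boxI_unit` : `mem_box` for incidences.
-/

set_option autoImplicit false

namespace Crest.Agent.R116.Bm903

open Crest.Agent.R138.Defs (E2)
open Crest.Agent.R116.CDef480 (E3 lat pt normsq2 inner2)
open Crest.Agent.R116.LZg725
open Crest.Agent.R116.ChL222
open Crest.Agent.R116.Gd222 (rayL cfL vc vx vb mk0 memL)

theorem rayL_toL (r : E2 × E2 × ℝ) (z : ℝ) (p : Cf E2) : rayL (toL r z p) = r := by
  obtain ⟨C, a, k⟩ := r
  unfold rayL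
  refine Prod.ext ?_ (Prod.ext ?_ rfl)
  · ext l
    fin_cases l <;> simp [vc, toL]
  · ext l
    fin_cases l <;> simp [vx, LInc.p1, LInc.p2, toL]

/-- the incidence with the given ray, height and frame data. -/
theorem grr_cfL (i : LInc) : grr (cfL i) (rayL i) = vb i := by
  have h := grr_eq (cfL i) (rayL i) i.z
  rw [Gd222.rx_rayL] at h
  rw [← h]
  exact Gd222.mk0_gr ..

theorem evr_cfL (i : LInc) (s : ℝ) : evr (cfL i) (rayL i) s = 0 := by
  unfold evr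
  rw [Gd222.rx_rayL, Gd222.ry_rayL]
  exact Gd222.cfL_ev_self i s

theorem slr_cfL (i : LInc) : slr (cfL i) (rayL i) = 0 := by
  have h := evr_move (cfL i) (rayL i) 0 1
  rw [evr_cfL, evr_cfL] at h
  linarith

theorem ny_cfL (i : LInc) : (cfL i).ny i.z = i.et := by
  rw [Gd222.cfL_ny]; ring

/-- **every incidence is of the form `toL`**. -/
theorem toL_rayL (i : LInc) : toL (rayL i) i.z (cfL i) = i := by
  have h1 := grr_cfL i
  have h2 := ny_cfL i
  obtain ⟨c1, c2, x1, x2, h, z, b1, b2, et, d⟩ := i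
  unfold toL
  rw [h1, h2]
  simp [rayL, vc, vx, vb, LInc.p1, LInc.p2, cfL, mk0]

/-- the flag of `i` is close to the conformal function `q`, slot by slot (this is
`coL (toL (rayL i) i.z q) i` at the slots `7, 8, 2, 1`). -/
structure FlI (q : Cf E2) (i : LInc) (eB eE eD : ℝ) : Prop where
  b1 : |i.b1 - grr q (rayL i) 0| ≤ eB
  b2 : |i.b2 - grr q (rayL i) 1| ≤ eB
  et : |i.et - q.ny i.z| ≤ eE
  d : |i.d - q.d| ≤ eD

/-- the flag slots relative to a function read on the ray of `i` at the height of `i`. -/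
theorem slots_toL (i : LInc) (q : Cf E2) :
    coL (toL (rayL i) i.z q) i 0 = 0 ∧
    coL (toL (rayL i) i.z q) i 1 = i.d - q.d ∧
    coL (toL (rayL i) i.z q) i 2 = i.et - q.ny i.z ∧
    coL (toL (rayL i) i.z q) i 3 = 0 ∧ coL (toL (rayL i) i.z q) i 4 = 0 ∧
    coL (toL (rayL i) i.z q) i 5 = 0 ∧ coL (toL (rayL i) i.z q) i 6 = 0 ∧
    coL (toL (rayL i) i.z q) i 7 = i.b1 - grr q (rayL i) 0 ∧
    coL (toL (rayL i) i.z q) i 8 = i.b2 - grr q (rayL i) 1 ∧
    coL (toL (rayL i) i.z q) i 9 = 0 ∧ coL (toL (rayL i) i.z q) i 10 = 0 ∧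
    coL (toL (rayL i) i.z q) i 11 = 0 := by
  obtain ⟨h3, h4, h5, h6, h9, h10, h11⟩ := coL_own' (rayL i) i.z i.z q (cfL i)
  have h0 := co0 (rayL i) (rayL i) i.z i.z q (cfL i)
  have h1 := co1 (rayL i) (rayL i) i.z i.z q (cfL i)
  have h2 := co2 (rayL i) (rayL i) i.z i.z q (cfL i)
  have h7 := co7 (rayL i) (rayL i) i.z i.z q (cfL i)
  have h8 := co8 (rayL i) (rayL i) i.z i.z q (cfL i)
  rw [dif_d] at h1
  rw [dif_ny, ny_cfL] at h2
  rw [dif_grr, grr_cfL, PiLp.sub_apply] at h7 h8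
  rw [toL_rayL] at h0 h1 h2 h3 h4 h5 h6 h7 h8 h9 h10 h11
  have hd : (cfL i).d = i.d := rfl
  have hb1 : vb i 0 = i.b1 := rfl
  have hb2 : vb i 1 = i.b2 := rfl
  rw [hd] at h1
  rw [hb1] at h7
  rw [hb2] at h8
  exact ⟨by rw [h0]; ring, h1, h2, h3, h4, h5, h6, h7, h8, h9, h10, h11⟩

theorem flI_of_slots {q : Cf E2} {i : LInc} {eB eE eD : ℝ}
    (h1 : |coL (toL (rayL i) i.z q) i 1| ≤ eD) (h2 : |coL (toL (rayL i) i.z q) i 2| ≤ eE)
    (h7 : |coL (toL (rayL i) i.z q) i 7| ≤ eB) (h8 : |coL (toL (rayL i) i.z q) i 8| ≤ eB) :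
    FlI q i eB eE eD := by
  obtain ⟨-, e1, e2, -, -, -, -, e7, e8, -⟩ := slots_toL i q
  rw [e1] at h1
  rw [e2] at h2
  rw [e7] at h7
  rw [e8] at h8
  exact ⟨h7, h8, h2, h1⟩

theorem FlI.flN {q : Cf E2} {i : LInc} {eB eE eD : ℝ} (h : FlI q i eB eE eD) :
    FlN q (cfL i) (rayL i) i.z (2 * eB) eE eD := by
  refine ⟨?_, ?_, ?_⟩
  · rw [dif_grr, grr_cfL]
    refine norm_le_of (a := eB) (b := eB) ?_ ?_ (by linarith)
    · rw [PiLp.sub_apply]; exact h.b1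
    · rw [PiLp.sub_apply]; exact h.b2
  · rw [dif_ny, ny_cfL]; exact h.et
  · rw [dif_d]; exact h.d

theorem FlN.flI {q : Cf E2} {i : LInc} {eB eE eD : ℝ}
    (h : FlN q (cfL i) (rayL i) i.z eB eE eD) : FlI q i eB eE eD := by
  obtain ⟨h1, h2, h3⟩ := h
  rw [dif_grr, grr_cfL] at h1
  rw [dif_ny, ny_cfL] at h2
  rw [dif_d] at h3
  refine ⟨?_, ?_, h2, h3⟩
  · have := (abs0_le _).trans h1
    rwa [PiLp.sub_apply] at this
  · have := (abs1_le _).trans h1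
    rwa [PiLp.sub_apply] at this

/-- two rays of one member: the slots `z, C, X, N` of two incidences, any flags. -/
theorem mem_boxI_base {B : ℝ} {m : Mem} {i j : LInc} (hi : rayL i ∈ m.rays B)
    (hj : rayL j ∈ m.rays B) (hz : |i.z - m.s0| ≤ m.R) (hz' : |j.z - m.s0| ≤ m.R) :
    |coL i j 0| ≤ 2 * m.R ∧ |coL i j 3| ≤ 2 * m.sg ∧ |coL i j 4| ≤ 2 * m.sg ∧
    |coL i j 5| ≤ 2 * (m.sg * m.R) ∧ |coL i j 6| ≤ 2 * (m.sg * m.R) ∧
    |coL i j 9| ≤ 2 * (m.T B * m.R) + 2 * (m.sg ^ 2 * m.R) := by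
  have hV := two_slope hi hj
  have hW := two_lat hi hj hz
  have hN := two_nur hi hj hz
  have h0 := co0 (rayL i) (rayL j) i.z j.z (cfL i) (cfL j)
  have h3 := co3 (rayL i) (rayL j) i.z j.z (cfL i) (cfL j)
  have h4 := co4 (rayL i) (rayL j) i.z j.z (cfL i) (cfL j)
  have h5 := co5 (rayL i) (rayL j) i.z j.z (cfL i) (cfL j)
  have h6 := co6 (rayL i) (rayL j) i.z j.z (cfL i) (cfL j)
  have h9 := co9 (rayL i) (rayL j) i.z j.z (cfL i) (cfL j)
  rw [toL_rayL, toL_rayL] at h0 h3 h4 h5 h6 h9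
  rw [h0, h3, h4, h5, h6, h9, abs_neg, abs_neg]
  refine ⟨?_, (abs0_le _).trans hV, (abs1_le _).trans hV, (abs0_le _).trans hW,
    (abs1_le _).trans hW, hN⟩
  have e : j.z - i.z = (j.z - m.s0) - (i.z - m.s0) := by ring
  rw [e]
  refine (abs_sub _ _).trans ?_
  linarith

/-- **two incidences of one member, in units of the member**. -/
theorem mem_boxI_unit {B : ℝ} {m : Mem} {i j : LInc} (hR : 0 < m.R) (hs1 : 0 < m.s1)
    (hsg : 0 < m.sg) {K : ℝ} (hK : 1 ≤ K) (hT : m.T B ≤ K * m.sg ^ 2)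
    (hi : rayL i ∈ m.rays B) (hj : rayL j ∈ m.rays B)
    (hz : |i.z - m.s0| ≤ m.R) (hz' : |j.z - m.s0| ≤ m.R) {κ : ℝ} (hκ : 0 ≤ κ)
    (hp : FlI m.phi i (κ * (m.s1 / m.sg)) (κ * (m.s1 / m.sg ^ 2))
      (κ * (m.s1 / (m.sg ^ 2 * m.R))))
    (hp' : FlI m.phi j (κ * (m.s1 / m.sg)) (κ * (m.s1 / m.sg ^ 2))
      (κ * (m.s1 / (m.sg ^ 2 * m.R)))) (k : Fin 12) :
    |coL i j k| ≤ K * (4 + 40 * κ) * un m.sg m.s1 m.R k := by
  have m1 : κ * (m.s1 / m.sg ^ 2) ≤ 2 * κ * (m.s1 / m.sg ^ 2) := by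
    have : 0 ≤ κ * (m.s1 / m.sg ^ 2) := by positivity
    linarith
  have m2 : κ * (m.s1 / (m.sg ^ 2 * m.R)) ≤ 2 * κ * (m.s1 / (m.sg ^ 2 * m.R)) := by
    have : 0 ≤ κ * (m.s1 / (m.sg ^ 2 * m.R)) := by positivity
    linarith
  have h1 := hp.flN.mono (eB' := 2 * κ * (m.s1 / m.sg)) (by linarith) m1 m2
  have h2 := hp'.flN.mono (eB' := 2 * κ * (m.s1 / m.sg)) (by linarith) m1 m2
  have h := mem_box_unit hR hs1 hsg hK hT hi hj hz hz' (κ := 2 * κ) (by linarith) h1 h2 k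
  rw [toL_rayL, toL_rayL] at h
  refine h.trans (le_of_eq ?_)
  ring

end Crest.Agent.R116.Bm903
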