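import Crest.Agent.R116.KF2_439
import Crest.Agent.R138.Ps2s_627

/-!
# R116 (K side), K7: the axis of the flags (helper126)

`axis` (KF-AX of 439): after passing to a dense part one fixed component of the gradient of the top
mark is at least `6/10` on the ray of every incidence. `axis_at` : the same at any rational level.
-/

set_option autoImplicit false
set_option linter.unusedVariables false

open Finset Filter Topology

namespace Crest.Agent.R116.KFx126

open Crest.Agent.R138.Defs (E2)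
open Crest.Agent.R138.Ex926
open Crest.Agent.R138.Dp76
open Crest.Agent.R138.Mk163 (zc zl rho alive own Negl)
open Crest.Agent.R136.MkA627
open Crest.Agent.R116.CDef480 (E3 lat pt normsq2 inner2)
open Crest.Agent.R116.LZg725
open Crest.Agent.R116.ChL222
open Crest.Agent.R116.Bm903
open Crest.Agent.R116.KI439
open Crest.Agent.R116.KF439

/-- one component of the gradient is large. -/
theorem comp_large {m : Mem} {r : LRay} (h : m.Ok kM0 0) (hr : r ∈ m.rays 0) :
    6 / 10 ≤ |grr m.phi r 0| ∨ 6 / 10 ≤ |grr m.phi r 1| := by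
  have h1 := (abs_le.1 (gr_sq h hr)).1
  have h2 : kM0 = 1 / 100 := rfl
  rw [h2, normsq2] at h1
  by_contra hc
  push Not at hc
  have e0 := sq_abs (grr m.phi r 0)
  have e1 := sq_abs (grr m.phi r 1)
  have f0 := abs_nonneg (grr m.phi r 0)
  have f1 := abs_nonneg (grr m.phi r 1)
  nlinarith [hc.1, hc.2]

section

variable {r : ℕ → ℝ} {L : ℕ → ℕ → LRay} {B : Base} {I : ℕ → Finset (ℕ × ℝ)}
    {G : Geo SL (Fin 2)} {lev : ℕ → ℚ → ℕ} {A : ℕ → ℝ} {c Λ : ℝ → ℝ} {τ : Fin 2 → ℝ → ℝ}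
    {f : ℕ → ℚ → ℕ → ℤ → ℕ} {b : ℕ → ℚ → ℕ → SL} {vm : ℕ → ℚ → ℝ} {w : Fin 2 → ℕ → ℚ → ℝ}

open Classical in
/-- a finite cover of the incidences by two properties: one of them holds on a dense part. -/
theorem dense_or {P Q : ℕ → ℕ × ℝ → Prop}
    (h : ∀ᶠ n in (U : Filter ℕ), ∀ x ∈ I n, P n x ∨ Q n x) :
    (∃ J : ℕ → Finset (ℕ × ℝ), Dense B J I ∧ ∀ n, ∀ x ∈ J n, P n x) ∨
    (∃ J : ℕ → Finset (ℕ × ℝ), Dense B J I ∧ ∀ n, ∀ x ∈ J n, Q n x) := by
  have h1 : ∀ᶠ n in (U : Filter ℕ),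
      ((I n).card : ℝ) ≤ 2 * (((I n).filter (P n)).card : ℝ) ∨
      ((I n).card : ℝ) ≤ 2 * (((I n).filter (Q n)).card : ℝ) := by
    filter_upwards [h] with n hn
    have h2 : I n ⊆ (I n).filter (P n) ∪ (I n).filter (Q n) := by
      intro x hx
      rw [Finset.mem_union, Finset.mem_filter, Finset.mem_filter]
      rcases hn x hx with h3 | h3
      · exact Or.inl ⟨hx, h3⟩
      · exact Or.inr ⟨hx, h3⟩
    have h3 : ((I n).card : ℝ) ≤ ((I n).filter (P n)).card + ((I n).filter (Q n)).card := by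
      exact_mod_cast (Finset.card_le_card h2).trans (Finset.card_union_le _ _)
    by_contra hc
    push Not at hc
    linarith [hc.1, hc.2]
  rcases Ultrafilter.eventually_or.1 h1 with h2 | h2
  · exact Or.inl ⟨fun n => (I n).filter (P n), Crest.Agent.R138.Ps627.dense_of_half
      (h2.mono fun n hn => ⟨Finset.filter_subset _ _, hn⟩),
      fun n x hx => (Finset.mem_filter.1 hx).2⟩
  · exact Or.inr ⟨fun n => (I n).filter (Q n), Crest.Agent.R138.Ps627.dense_of_half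
      (h2.mono fun n hn => ⟨Finset.filter_subset _ _, hn⟩),
      fun n x hx => (Finset.mem_filter.1 hx).2⟩

/-- the axis of the flags of one level. -/
theorem axis_at (h : MkA B I G lev A c Λ τ f b vm w) (hG : IsL G L r) {v : ℚ} (h0 : 0 ≤ v)
    (h1 : v ≤ 1) : ∃ (a : Fin 2) (J : ℕ → Finset (ℕ × ℝ)), Dense B J I ∧
      ∀ n, ∀ x ∈ J n, 6 / 10 ≤ |grr (mkL lev f b n v x).phi (L n x.1) a| := by
  have h2 : ∀ᶠ n in (U : Filter ℕ), ∀ x ∈ I n,
      6 / 10 ≤ |grr (mkL lev f b n v x).phi (L n x.1) 0| ∨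
      6 / 10 ≤ |grr (mkL lev f b n v x).phi (L n x.1) 1| := by
    filter_upwards [mark_L h hG h0 h1] with n hn x hx
    exact comp_large (hn x hx).ok (hn x hx).ray
  rcases dense_or (B := B) h2 with ⟨J, hJ, hx⟩ | ⟨J, hJ, hx⟩
  · exact ⟨0, J, hJ, hx⟩
  · exact ⟨1, J, hJ, hx⟩

/-- **KF-AX**. -/
theorem axis (h : MkA B I G lev A c Λ τ f b vm w) (hG : IsL G L r) :
    ∃ (a : Fin 2) (J : ℕ → Finset (ℕ × ℝ)), Dense B J I ∧
      ∀ᶠ n in (U : Filter ℕ), ∀ x ∈ J n, 6 / 10 ≤ |grr (mkL lev f b n 1 x).phi (L n x.1) a| := by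
  obtain ⟨a, J, hJ, hx⟩ := axis_at h hG (v := 1) zero_le_one le_rfl
  exact ⟨a, J, hJ, Filter.Eventually.of_forall hx⟩

end

end Crest.Agent.R116.KFx126
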