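import Crest.Agent.R116.KF6_439
import Crest.Agent.R116.KFx_126
import Crest.Agent.R116.Bm4_903

/-!
# R116 (K side), K7 FLAG-L, part 7 (helper439): results

* `flF`, `frF` : flat flags; `close_flat`, `tsys_thick`, `inv_flat`.
* `FlagD` : what the consumers use of the flags; `flagD_thin`, `flagD_flat`.
* **`thin_sys`** : `MkA` (linear) + `IsL` + `TiltL` + `Thin` ⊢ `TSys` with composite flags.
* **`thick_sys`** : `MkA` (linear) + `IsL` + `Thick` ⊢ `TSys` with flat flags.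
-/

set_option autoImplicit false
set_option linter.unusedVariables false

open Finset Filter Topology

namespace Crest.Agent.R116.KF439

open Crest.Agent.R138.Defs (E2)
open Crest.Agent.R138.Ex926
open Crest.Agent.R138.Dp76
open Crest.Agent.R138.Ps926 (dpow_small)
open Crest.Agent.R138.Mk163 (zc zl rho alive own Negl)
open Crest.Agent.R138.MkRef627 (lc kc mem_alive)
open Crest.Agent.R136.MkA627
open Crest.Agent.R136.Net191 (Mons Chart)
open Crest.Agent.R136.TD627 (TDist TSys InvT NearE WallE)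
open Crest.Agent.R116.LZg725
open Crest.Agent.R116.ChL222
open Crest.Agent.R116.Bm903
open Crest.Agent.R116.KI439
open Crest.Agent.R116.PL504
open Crest.Agent.R116.Gd222 (rayL vb)

/-! ### flat flags -/

/-- the lateral coordinate `a` -/
noncomputable def flatc (a : Fin 2) : Cf E2 := ⟨0, 0, EuclideanSpace.single a 1, 0, 0⟩

theorem flatc_grr (a : Fin 2) (r : LRay) : grr (flatc a) r = EuclideanSpace.single a 1 := by
  unfold grr Cf.gr Cf.ny flatc
  simp

theorem flatc_ny (a : Fin 2) (z : ℝ) : (flatc a).ny z = 0 := by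
  unfold Cf.ny flatc
  simp

theorem flatc_d (a : Fin 2) : (flatc a).d = 0 := rfl

/-- flat flags of the incidences -/
noncomputable def flF (a : Fin 2) (L : ℕ → ℕ → LRay) (n : ℕ) (x : ℕ × ℝ) : LInc :=
  toL (L n x.1) x.2 (flatc a)

/-- flat flags of the marks -/
noncomputable def frF (lev : ℕ → ℚ → ℕ) (f : ℕ → ℚ → ℕ → ℤ → ℕ) (b : ℕ → ℚ → ℕ → SL) (a : Fin 2)
    (n : ℕ) (v : ℚ) (x : ℕ × ℝ) : LInc :=
  toL (bray (mkL lev f b n v x)) (mkL lev f b n v x).s0 (flatc a)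

theorem frF_kc (lev : ℕ → ℚ → ℕ) (f : ℕ → ℚ → ℕ → ℤ → ℕ) (b : ℕ → ℚ → ℕ → SL) (a : Fin 2)
    (n : ℕ) (v : ℚ) (x y : ℕ × ℝ) (h : kc (lev n v) (f n v) y = kc (lev n v) (f n v) x) :
    frF lev f b a n v y = frF lev f b a n v x := by
  have : f n v y.1 (zc (lev n v) y.2) = f n v x.1 (zc (lev n v) x.2) := (Prod.mk.inj h).1
  unfold frF mkL
  rw [this]

theorem gr_le_two {m : Mem} {r : LRay} (h : m.Ok kM0 0) (hr : r ∈ m.rays 0) :
    ‖grr m.phi r‖ ≤ 11 / 10 := by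
  have h1 := (abs_le.1 (gr_sq h hr)).2
  have h2 : kM0 = 1 / 100 := rfl
  rw [h2] at h1
  nlinarith [norm_nonneg (grr m.phi r)]

/-- the flat function is as good as the function of a round member -/
theorem flN_flat {m : Mem} {r : LRay} {z κ : ℝ} (h : m.Ok kM0 0) (hr : r ∈ m.rays 0)
    (hz : |z - m.s0| ≤ m.R) (a : Fin 2) (hκ : 3 * m.sg ≤ κ * m.s1) :
    FlN m.phi (flatc a) r z (κ * (m.s1 / m.sg)) (κ * (m.s1 / m.sg ^ 2))
      (κ * (m.s1 / (m.sg ^ 2 * m.R))) := by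
  have hsg := sg_pos h
  have hR := h.hR
  have hM : kM0 = 1 / 100 := rfl
  have h1 := gr_le_two h hr
  have h2 := ny_le h hz
  have h3 := d_le h
  rw [hM] at h2 h3
  refine ⟨?_, ?_, ?_⟩
  · rw [dif_grr, flatc_grr, ← mul_div_assoc, le_div_iff₀ hsg]
    have h4 : ‖EuclideanSpace.single a (1 : ℝ) - grr m.phi r‖ ≤ 3 := by
      refine (norm_sub_le _ _).trans ?_
      rw [PiLp.norm_single, norm_one]
      linarith
    exact (mul_le_mul_of_nonneg_right h4 hsg.le).trans hκ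
  · rw [dif_ny, flatc_ny, zero_sub, abs_neg, ← mul_div_assoc, le_div_iff₀ (by positivity)]
    nlinarith
  · rw [dif_d, flatc_d, zero_sub, abs_neg, ← mul_div_assoc, le_div_iff₀ (by positivity)]
    have e : |m.phi.d| * (m.sg ^ 2 * m.R) = (|m.phi.d| * (m.sg * m.R)) * m.sg := by ring
    rw [e]
    nlinarith

section flat

variable {r : ℕ → ℝ} {L : ℕ → ℕ → LRay} {B : Base} {I J : ℕ → Finset (ℕ × ℝ)}
    {G : Geo SL (Fin 2)} {lev : ℕ → ℚ → ℕ} {A : ℕ → ℝ} {g s : ℝ} {θ : Fin 2 → ℝ}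
    {f : ℕ → ℚ → ℕ → ℤ → ℕ} {b : ℕ → ℚ → ℕ → SL} {vm : ℕ → ℚ → ℝ} {w : Fin 2 → ℕ → ℚ → ℝ}
    {a : Fin 2}

theorem close_flat (h : MkA B J G lev A (fun v => g * v) (fun v => s * v)
    (fun j v => θ j * (1 - v)) f b vm w) (hG : IsL G L r) (hT : Thick B w) (a : Fin 2)
    (k : Fin 12) (v : ℚ) (h0 : 0 ≤ v) (h1 : v ≤ 1) (ε : ℝ) (hε : 0 < ε) :
    ∀ᶠ n in (U : Filter ℕ), ∀ x ∈ J n,
      |coL (flF a L n x) (frF lev f b a n v x) k| ≤ prN lev w k n v * B.d n ^ (-ε) := by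
  filter_upwards [mark_L h hG h0 h1, ev_prN_pos h h0 h1, hT (ε / 2) (by positivity) v h0 h1,
    dpow_small B (show 0 < ε / 2 by positivity) (ε := 1 / 64) (by norm_num)] with n a1 a2 a3 a4 x hx
  have m1 := a1 x hx
  set m := mkL lev f b n v x with hm
  have hok := m1.ok
  have hsg := sg_pos hok
  have hR := hok.hR
  have hp := dpow_pos B n (ε / 2)
  have hq := dpow_pos B n (-(ε / 2))
  have epq : B.d n ^ (-(ε / 2)) * B.d n ^ (ε / 2) = 1 := by
    rw [← dpow_add, neg_add_cancel, Real.rpow_zero]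
  have hthick : m.sg ≤ B.d n ^ (-(ε / 2)) * m.s1 := by
    rw [← m1.wide, ← m1.thin] at a3
    have h5 : B.d n ^ (ε / 2) * m.sg ≤ m.s1 := by
      have : (B.d n ^ (ε / 2) * m.sg) * m.R ≤ m.s1 * m.R := by linarith
      exact le_of_mul_le_mul_right this hR
    calc m.sg = (B.d n ^ (-(ε / 2)) * B.d n ^ (ε / 2)) * m.sg := by rw [epq, one_mul]
      _ = B.d n ^ (-(ε / 2)) * (B.d n ^ (ε / 2) * m.sg) := by ring
      _ ≤ _ := mul_le_mul_of_nonneg_left h5 hq.le
  have hκ : 3 * m.sg ≤ (3 * B.d n ^ (-(ε / 2))) * m.s1 := by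
    have := mul_le_mul_of_nonneg_left hthick (show (0 : ℝ) ≤ 3 by norm_num)
    linarith
  have hT1 : m.T 0 ≤ 1 * m.sg ^ 2 := by rw [T0, one_mul]
  have key := mem_box_unit (m := m) (B := 0) hR hok.hs1 hsg le_rfl hT1 m1.ray (bray_mem m1.ray)
    m1.z (self_s0 hok) (κ := 3 * B.d n ^ (-(ε / 2))) (by positivity)
    (flN_flat hok m1.ray m1.z a hκ) (flN_flat hok (bray_mem m1.ray) (self_s0 hok) a hκ) k
  show |coL (toL (L n x.1) x.2 (flatc a)) (toL (bray m) m.s0 (flatc a)) k| ≤ _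
  refine key.trans ?_
  rw [un_eq]
  have e3 : w 0 n v / rho (lev n v) = m.sg := by
    rw [← m1.wide, ← m1.R]; field_simp
  have e4 : w 1 n v / rho (lev n v) = m.s1 := by
    rw [← m1.thin, ← m1.R]; field_simp
  have e5 : uL m.R m.sg m.s1 k = prN lev w k n v := by
    unfold prN; rw [e3, e4, ← m1.R]
  rw [e5]
  have h64 : 64 ≤ B.d n ^ (-(ε / 2)) := by
    rw [Real.rpow_neg (B.pos n).le, le_inv_comm₀ (by norm_num) hp]
    linarith
  have e6 : B.d n ^ (-ε) = B.d n ^ (-(ε / 2)) * B.d n ^ (-(ε / 2)) := by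
    rw [← dpow_add]; congr 1; ring
  rw [e6]
  have h7 : 1 * (4 + 20 * (3 * B.d n ^ (-(ε / 2)))) ≤ B.d n ^ (-(ε / 2)) * B.d n ^ (-(ε / 2)) := by
    nlinarith
  calc 1 * (4 + 20 * (3 * B.d n ^ (-(ε / 2)))) * prN lev w k n v
      ≤ (B.d n ^ (-(ε / 2)) * B.d n ^ (-(ε / 2))) * prN lev w k n v :=
        mul_le_mul_of_nonneg_right h7 (a2 k).le
    _ = _ := by ring

/-- **`TSys` with flat flags** -/
theorem tsys_flat (h : MkA B J G lev A (fun v => g * v) (fun v => s * v)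
    (fun j v => θ j * (1 - v)) f b vm w) (hG : IsL G L r) (hT : Thick B w) (a : Fin 2) :
    TSys PL G g s θ (βL (θ 0) (θ 1)) B J lev A f b vm w (frF lev f b a) (prN lev w)
      (flF a L) (scN lev w) :=
  tsys_mk h (fun n v x y hxy => frF_kc lev f b a n v x y hxy) fun k v h0 h1 ε hε =>
    close_flat h hG hT a k v h0 h1 ε hε

/-- all slots but the height are constant along the lines -/
theorem inv_flat (k : Fin 12) (hk : k ≠ 0) (sc : ℕ → ℝ) (hsc : ∀ n, 0 < sc n) :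
    InvT PL B J k (flF a L) sc := by
  intro M
  refine Eventually.of_forall fun n x hx y hy hxy => ?_
  have key : coL (flF a L n x) (flF a L n y) k = 0 := by
    unfold flF
    rw [hxy, ← comp_self, ← comp_self]
    exact comp_line hk (fun _ => rfl) (fun _ => ⟨rfl, rfl⟩) fun _ => rfl
  rw [PL_d, key, abs_zero]
  exact mul_nonneg (hsc n).le (dpow_pos B n _).le

end flat

/-! ### what the consumers use of the flags -/

/-- ray, height, size of the flags of the incidences, the flags of the marks are functions of the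
marked class. -/
structure FlagD (I : ℕ → Finset (ℕ × ℝ)) (L : ℕ → ℕ → LRay) (lev : ℕ → ℚ → ℕ)
    (f : ℕ → ℚ → ℕ → ℤ → ℕ) (fr : ℕ → ℚ → ℕ × ℝ → LInc) (fl : ℕ → ℕ × ℝ → LInc) : Prop where
  ray : ∀ n x, rayL (fl n x) = L n x.1
  z : ∀ n x, (fl n x).z = x.2
  kc : ∀ n v x y, kc (lev n v) (f n v) y = kc (lev n v) (f n v) x → fr n v y = fr n v x
  vb : ∀ᶠ n in (U : Filter ℕ), ∀ x ∈ I n, 1 / 2 ≤ ‖vb (fl n x)‖

/-- size and position of the flags of the marks -/
def FrB (I : ℕ → Finset (ℕ × ℝ)) (lev : ℕ → ℚ → ℕ) (w : Fin 2 → ℕ → ℚ → ℝ)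
    (fr : ℕ → ℚ → ℕ × ℝ → LInc) : Prop :=
  ∀ v : ℚ, 0 ≤ v → v ≤ 1 → ∀ᶠ n in (U : Filter ℕ), ∀ x ∈ I n,
    |(fr n v x).et| * (w 0 n v / rho (lev n v)) ≤ 1 / 100 ∧ |(fr n v x).d| * w 0 n v ≤ 1 / 200 ∧
      |(fr n v x).z - x.2| ≤ rho (lev n v)

theorem comp_rayL (r : LRay) (z : ℝ) (pB pE pD : Cf E2) : rayL (comp r z pB pE pD) = r := by
  have h := rayL_toL r z pB
  exact h

theorem le_norm2 (x : E2) (a : Fin 2) : |x a| ≤ ‖x‖ := by
  fin_cases a
  · exact abs0_le _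
  · exact abs1_le _

section results

variable {r : ℕ → ℝ} {L : ℕ → ℕ → LRay} {B : Base} {I J : ℕ → Finset (ℕ × ℝ)}
    {G : Geo SL (Fin 2)} {lev : ℕ → ℚ → ℕ} {A : ℕ → ℝ} {g s : ℝ} {θ : Fin 2 → ℝ} {c Λ : ℝ → ℝ}
    {τ : Fin 2 → ℝ → ℝ}
    {f : ℕ → ℚ → ℕ → ℤ → ℕ} {b : ℕ → ℚ → ℕ → SL} {vm : ℕ → ℚ → ℝ} {w : Fin 2 → ℕ → ℚ → ℝ}

/-- **`FrB` of the marks** (also in every window: `frL` of the window maps is `frL` at `mm n v`) -/
theorem frB_L (h : MkA B J G lev A c Λ τ f b vm w) (hG : IsL G L r) (a : Fin 2) :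
    FrB J lev w (frL lev f b a) := by
  intro v h0 h1
  filter_upwards [mark_L h hG h0 h1] with n hn x hx
  have m1 := hn x hx
  have hok := m1.ok
  have hR := hok.hR
  have hM : kM0 = 1 / 100 := rfl
  set m := mkL lev f b n v x with hm
  have hσ : Sg (nsg a m.phi (bray m)) := nsg_sg _ _ _
  have e1 : (frL lev f b a n v x).et = (sm (nsg a m.phi (bray m)) m.phi).ny m.s0 := rfl
  have e2 : (frL lev f b a n v x).d = (sm (nsg a m.phi (bray m)) m.phi).d := rfl
  have e3 : (frL lev f b a n v x).z = m.s0 := rfl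
  have e4 : w 0 n v / rho (lev n v) = m.sg := by
    rw [← m1.wide, ← m1.R]; field_simp
  rw [e1, e2, e3, e4, sm_ny, sm_d, abs_mul, abs_mul, hσ.abs, one_mul, one_mul, ← m1.wide, ← m1.R]
  have h3 := ny_le hok (self_s0 hok)
  have h4 := d_le hok
  rw [hM] at h3 h4
  refine ⟨h3, by linarith, ?_⟩
  rw [abs_sub_comm]
  exact m1.z

/-- `FrB` of the flat flags -/
theorem frB_F (h : MkA B J G lev A c Λ τ f b vm w) (hG : IsL G L r) (a : Fin 2) :
    FrB J lev w (frF lev f b a) := by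
  intro v h0 h1
  filter_upwards [mark_L h hG h0 h1] with n hn x hx
  have m1 := hn x hx
  have e1 : (frF lev f b a n v x).et = (flatc a).ny (mkL lev f b n v x).s0 := rfl
  have e2 : (frF lev f b a n v x).d = (flatc a).d := rfl
  have e3 : (frF lev f b a n v x).z = (mkL lev f b n v x).s0 := rfl
  rw [e1, e2, e3, flatc_ny, flatc_d, abs_zero, zero_mul, zero_mul]
  refine ⟨by norm_num, by norm_num, ?_⟩
  rw [abs_sub_comm, ← m1.R]
  exact m1.z

/-- **size of the null slot and of the quadratic slot at level `1`** of the flags of the incidences,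
from `TSys` -/
theorem he_T {fr : ℕ → ℚ → ℕ × ℝ → LInc} {fl : ℕ → ℕ × ℝ → LInc} {sc : Fin 12 → ℕ → ℝ}
    {β : Fin 12 → ℝ} (h : TSys PL G g s θ β B J lev A f b vm w fr (prN lev w) fl sc)
    (hG : IsL G L r) (hb : FrB J lev w fr) {ε : ℝ} (hε : 0 < ε) :
    ∀ᶠ n in (U : Filter ℕ), ∀ x ∈ J n,
      |(fl n x).et| * (w 0 n 1 / rho (lev n 1)) ≤ B.d n ^ (-ε) ∧
      |(fl n x).d| * w 0 n 1 ≤ B.d n ^ (-ε) := by
  filter_upwards [h.close 2 1 zero_le_one le_rfl (ε / 3) (by positivity),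
    h.close 1 1 zero_le_one le_rfl (ε / 3) (by positivity), hb 1 zero_le_one le_rfl,
    h.close 0 1 zero_le_one le_rfl (ε / 3) (by positivity),
    mark_L h.mka hG zero_le_one le_rfl, dpow_small B (show 0 < ε / 3 by positivity) (ε := 1 / 100)
      (by norm_num)] with n a2 a1 a3 a0 a4 a5 x hx
  have m1 := a4 x hx
  obtain ⟨l1, l2, l3⟩ := m1.le
  obtain ⟨b1, b2, b3⟩ := a3 x hx
  have c2 := a2 x hx
  have c1 := a1 x hx
  have c0 := a0 x hx
  rw [PL_d] at c2 c1 c0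
  have hW : 0 < w 0 n 1 := l1.trans_le l2
  have hρ := rho_pos' (lev n 1)
  have hq := dpow_pos B n (-(ε / 3))
  have hp := dpow_pos B n (ε / 3)
  have h100 : 100 ≤ B.d n ^ (-(ε / 3)) := by
    rw [Real.rpow_neg (B.pos n).le, le_inv_comm₀ (by norm_num) hp]
    linarith
  have esq : B.d n ^ (-ε) = B.d n ^ (-(ε / 3)) * B.d n ^ (-(ε / 3)) * B.d n ^ (-(ε / 3)) := by
    rw [← dpow_add, ← dpow_add]; congr 1; ring
  set D := B.d n ^ (-(ε / 3)) with hD
  have e2 : coL (fl n x) (fr n 1 x) 2 = (fr n 1 x).et - (fl n x).et +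
      2 * (fl n x).d * ((fr n 1 x).z - (fl n x).z) := rfl
  have e1 : coL (fl n x) (fr n 1 x) 1 = (fr n 1 x).d - (fl n x).d := rfl
  have e0 : coL (fl n x) (fr n 1 x) 0 = (fr n 1 x).z - (fl n x).z := rfl
  have p2 : prN lev w 2 n 1 = w 1 n 1 / rho (lev n 1) / (w 0 n 1 / rho (lev n 1)) ^ 2 := rfl
  have p1 : prN lev w 1 n 1 = w 1 n 1 / rho (lev n 1) /
      ((w 0 n 1 / rho (lev n 1)) ^ 2 * rho (lev n 1)) := rfl
  have p0 : prN lev w 0 n 1 = rho (lev n 1) := rfl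
  rw [e2, p2] at c2
  rw [e1, p1] at c1
  rw [e0, p0] at c0
  set W := w 0 n 1 with hWd
  set T := w 1 n 1 with hTd
  set ρ := rho (lev n 1) with hρd
  -- the quadratic slot
  have k1 : |(fl n x).d| * W ≤ 1 / 200 + D := by
    have h1 : |(fl n x).d| ≤ |(fr n 1 x).d| + |(fr n 1 x).d - (fl n x).d| := by
      have := abs_sub_abs_le_abs_sub (fl n x).d (fr n 1 x).d
      rw [abs_sub_comm] at this
      linarith
    have h2 : |(fr n 1 x).d - (fl n x).d| * W ≤ D := by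
      calc |(fr n 1 x).d - (fl n x).d| * W ≤ (T / ρ / ((W / ρ) ^ 2 * ρ) * D) * W :=
            mul_le_mul_of_nonneg_right c1 hW.le
        _ = (T / W) * D := by field_simp
        _ ≤ 1 * D := mul_le_mul_of_nonneg_right ((div_le_one hW).2 l2) hq.le
        _ = D := one_mul _
    have h3 := mul_le_mul_of_nonneg_right h1 hW.le
    rw [add_mul] at h3
    linarith
  have k2 : |(fl n x).et| * (W / ρ) ≤ 1 / 100 + D + 2 * ((1 / 200 + D) * D) := by
    have h1 : |(fl n x).et| ≤ |(fr n 1 x).et| + |(fr n 1 x).et - (fl n x).et +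
        2 * (fl n x).d * ((fr n 1 x).z - (fl n x).z)| +
          2 * (|(fl n x).d| * |(fr n 1 x).z - (fl n x).z|) := by
      have h2 : (fl n x).et = (fr n 1 x).et - ((fr n 1 x).et - (fl n x).et +
        2 * (fl n x).d * ((fr n 1 x).z - (fl n x).z)) +
          2 * ((fl n x).d * ((fr n 1 x).z - (fl n x).z)) := by ring
      have h3 := abs_add_le ((fr n 1 x).et - ((fr n 1 x).et - (fl n x).et +
        2 * (fl n x).d * ((fr n 1 x).z - (fl n x).z)))
          (2 * ((fl n x).d * ((fr n 1 x).z - (fl n x).z)))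
      have h4 := abs_sub (fr n 1 x).et ((fr n 1 x).et - (fl n x).et +
        2 * (fl n x).d * ((fr n 1 x).z - (fl n x).z))
      rw [← h2, abs_mul 2, abs_two, abs_mul] at h3
      linarith
    have h5 : |(fr n 1 x).et - (fl n x).et +
        2 * (fl n x).d * ((fr n 1 x).z - (fl n x).z)| * (W / ρ) ≤ D := by
      calc _ ≤ (T / ρ / (W / ρ) ^ 2 * D) * (W / ρ) :=
            mul_le_mul_of_nonneg_right c2 (div_pos hW hρ).le
        _ = (T / W) * D := by field_simp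
        _ ≤ 1 * D := mul_le_mul_of_nonneg_right ((div_le_one hW).2 l2) hq.le
        _ = D := one_mul _
    have h6 : (|(fl n x).d| * |(fr n 1 x).z - (fl n x).z|) * (W / ρ) ≤ (1 / 200 + D) * D := by
      calc (|(fl n x).d| * |(fr n 1 x).z - (fl n x).z|) * (W / ρ)
          = (|(fl n x).d| * W) * (|(fr n 1 x).z - (fl n x).z| / ρ) := by field_simp
        _ ≤ (1 / 200 + D) * D := by
            refine mul_le_mul k1 ?_ (by positivity) (by positivity)
            rw [div_le_iff₀ hρ]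
            linarith
    have h7 := mul_le_mul_of_nonneg_right h1 (div_pos hW hρ).le
    rw [add_mul, add_mul] at h7
    have e7 : 2 * (|(fl n x).d| * |(fr n 1 x).z - (fl n x).z|) * (W / ρ) =
        2 * ((|(fl n x).d| * |(fr n 1 x).z - (fl n x).z|) * (W / ρ)) := by ring
    rw [e7] at h7
    linarith
  rw [esq]
  have q1 : 100 * D ≤ D * D := mul_le_mul_of_nonneg_right h100 hq.le
  have q2 : 100 * (D * D) ≤ D * D * D := by
    have := mul_le_mul_of_nonneg_left h100 (mul_nonneg hq.le hq.le)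
    linarith
  constructor
  · refine k2.trans ?_
    linarith
  · refine k1.trans ?_
    linarith

/-- axis of the composite flags -/
theorem vb_thin {a : Fin 2} {θ : Fin 2 → ℝ}
    (hl : ∀ v : ℚ, 0 ≤ v → v ≤ 1 → ∀ᶠ n in (U : Filter ℕ), ∀ x ∈ J n,
      59 / 100 ≤ |grr (mkL lev f b n v x).phi (L n x.1) a|) :
    ∀ᶠ n in (U : Filter ℕ), ∀ x ∈ J n, 1 / 2 ≤ ‖vb (flT lev f b a θ L n x)‖ := by
  obtain ⟨l0, l1⟩ := lvl_mem (βL (θ 0) (θ 1) 7)
  filter_upwards [hl _ l0 l1] with n hn x hx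
  have h1 := hn x hx
  have e1 : vb (flT lev f b a θ L n x) =
      grr (psi lev f b a n (lvl (βL (θ 0) (θ 1) 7)) x) (L n x.1) := by
    ext i
    fin_cases i <;> rfl
  rw [e1]
  refine le_trans ?_ (le_norm2 _ a)
  unfold psi psm
  have hσ : Sg (nsg a (mkL lev f b n (lvl (βL (θ 0) (θ 1) 7)) x).phi
    (bray (mkL lev f b n (lvl (βL (θ 0) (θ 1) 7)) x))) := nsg_sg _ _ _
  rw [sm_grr, PiLp.smul_apply, smul_eq_mul, abs_mul, hσ.abs, one_mul]
  linarith

theorem βL_zero (θa θb : ℝ) : βL θa θb 0 = 1 := rfl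

/-- the tilt passes to dense parts -/
theorem TiltL.dense {C : ℝ} (h : TiltL B I L lev f b w C) (hd : Dense B J I) :
    TiltL B J L lev f b w C := fun u v h0 huv h1 ε hε =>
  Crest.Agent.R138.Mk163.Negl.dense (h u v h0 huv h1 ε hε) hd

/-- **RESULT, thin marks**: flags of all slots, from the tilt. -/
theorem thin_sys (h : MkA B I G lev A (fun v => g * v) (fun v => s * v)
    (fun j v => θ j * (1 - v)) f b vm w) (hG : IsL G L r) {C : ℝ}
    (hT : TiltL B I L lev f b w C) (hThin : Thin B w) :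
    ∃ (a : Fin 2) (J : ℕ → Finset (ℕ × ℝ)), Dense B J I ∧
      TSys PL G g s θ (βL (θ 0) (θ 1)) B J lev A f b vm w (frL lev f b a) (prN lev w)
        (flT lev f b a θ L) (scN lev w) ∧
      FlagD J L lev f (frL lev f b a) (flT lev f b a θ L) ∧
      ∀ k, InvT PL B J k (flT lev f b a θ L) (scN lev w k) ∨ 0 < βL (θ 0) (θ 1) k := by
  obtain ⟨a, J1, hJ1, hax⟩ := Crest.Agent.R116.KFx126.axis h hG
  obtain ⟨J2, h2s, h2d, -, hM2⟩ := h.refine' hJ1
  obtain ⟨J3, h3s, h3d, hlarge, htilt⟩ := tilt_norm hM2 hG (hT.dense (h2d.trans hJ1)) hThin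
    (a := a) (hax.mono fun n hn x hx => hn x (h2s n hx))
  obtain ⟨J4, h4s, h4d, -, hM4⟩ := hM2.refine' h3d
  have hE : EndClose J4 B L lev f b w θ a := endClose hM4 (C := C) fun u v h0 huv h1 ε hε =>
    (htilt u v h0 huv h1 ε hε).mono fun n hn x hx => hn x (h4s n hx)
  refine ⟨a, J4, h4d.trans (h3d.trans (h2d.trans hJ1)), tsys_thin hM4 hG hE,
    ⟨fun n x => comp_rayL _ _ _ _ _, fun n x => rfl, fun n v x y hxy => frL_kc lev f b a n v x y hxy,
      vb_thin fun v h0 h1 => (hlarge v h0 h1).mono fun n hn x hx => hn x (h4s n hx)⟩, fun k => ?_⟩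
  by_cases hk : 0 < βL (θ 0) (θ 1) k
  · exact Or.inr hk
  · refine Or.inl (inv_thin hM4 k ?_ (fun _ => not_lt.1 hk) _ fun n => spN_pos lev w 0 k n)
    rintro rfl
    exact hk (by rw [βL_zero]; exact one_pos)

/-- **RESULT, round marks**: flat flags. -/
theorem thick_sys (h : MkA B I G lev A (fun v => g * v) (fun v => s * v)
    (fun j v => θ j * (1 - v)) f b vm w) (hG : IsL G L r) (hT : Thick B w) (a : Fin 2) :
    TSys PL G g s θ (βL (θ 0) (θ 1)) B I lev A f b vm w (frF lev f b a) (prN lev w)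
        (flF a L) (scN lev w) ∧
      FlagD I L lev f (frF lev f b a) (flF a L) ∧
      (∀ n x, (flF a L n x).et = 0 ∧ (flF a L n x).d = 0) ∧
      (∀ k, k ≠ 0 → InvT PL B I k (flF a L) (scN lev w k)) ∧
      ∀ k, InvT PL B I k (flF a L) (scN lev w k) ∨ 0 < βL (θ 0) (θ 1) k := by
  have hinv : ∀ k, k ≠ 0 → InvT PL B I k (flF a L) (scN lev w k) := fun k hk =>
    inv_flat k hk _ fun n => spN_pos lev w 0 k n
  refine ⟨tsys_flat h hG hT a, ⟨fun n x => rayL_toL _ _ _, fun n x => rfl,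
    fun n v x y hxy => frF_kc lev f b a n v x y hxy, Eventually.of_forall fun n x hx => ?_⟩,
    fun n x => ⟨flatc_ny a x.2, flatc_d a⟩, hinv, fun k => ?_⟩
  · have e1 : vb (flF a L n x) = grr (flatc a) (L n x.1) := by
      ext i
      fin_cases i <;> rfl
    rw [e1, flatc_grr]
    refine le_trans ?_ (le_norm2 _ a)
    simp
    norm_num
  · by_cases hk : k = 0
    · subst hk
      exact Or.inr (by rw [βL_zero]; exact one_pos)
    · exact Or.inl (hinv k hk)

end results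

end Crest.Agent.R116.KF439
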