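import Crest.Agent.R116.Tw3_468

/-!
# R116, K10 (helper468), part 4: one window of the light-ray chart

* `he_of` : the slot `E` of the flags is `≤ d^(-ε) / σ0` (closeness to the marks of level `1`).
* `frL_fact` : the flags of the marks of level `1`.
* **`LWin`** : one window: 627's `TSys` in 504's units, 222's `LData` (`ϑ = 0`), `s1 ≤ sg`.
* **`LWin.preQ`** : the literal `PreQ` of 196, `N0 n = A n * vm n 0 * d^(-(1-s))`, `PD = PDL`,
  `D = DT`, `E u = D (r u)`.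
-/

set_option autoImplicit false
set_option linter.unusedVariables false

open Finset Filter Topology

namespace Crest.Agent.R116.Tw468

open Crest.Agent.R138.Ex926 (Base U)
open Crest.Agent.R138.Mk163 (zc zl rho alive own)
open Crest.Agent.R138.MkRef627 (lc kc mem_alive)
open Crest.Agent.R138.Dp76 (dpow_pos dpow_add dpow_le)
open Crest.Agent.R138.ArgM163 (log_dpow)
open Crest.Agent.R136.MkA627
open Crest.Agent.R136.Net191
open Crest.Agent.R136.TD627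
open Crest.Agent.R136.Lq196
open Crest.Agent.R136.PqG464 (ev_const)
open Crest.Agent.R116.LZg725
open Crest.Agent.R116.ChL222
open Crest.Agent.R116.PL504 (ev_len ev_ang ps ps_pos ps_eq prN βL eL rL oL Shift uL preL_of eL_legal
  eL_le)
open Crest.Agent.R116.Gd222 (TSet AdmR LData sN sN_pos vb rayL PDL DT gD_T DT_rL own_thin dflat
  LData_of)
open Crest.Agent.R116.KI439
open Crest.Agent.R116.KF439 (IsL ValL Thin Thick PL PL_d frL frL_kc flM psm mark_L MkFact mkL)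

/-! ### the slot `E` of the flags -/

section he

variable {B : Base} {I : ℕ → Finset (ℕ × ℝ)} {G : Geo TSet (Fin 2)} {lev : ℕ → ℚ → ℕ}
    {A : ℕ → ℝ} {g s : ℝ} {θ : Fin 2 → ℝ} {β : Fin 12 → ℝ} {f : ℕ → ℚ → ℕ → ℤ → ℕ}
    {b : ℕ → ℚ → ℕ → TSet} {vm : ℕ → ℚ → ℝ} {w : Fin 2 → ℕ → ℚ → ℝ}
    {fr : ℕ → ℚ → ℕ × ℝ → LInc} {fl : ℕ → ℕ × ℝ → LInc} {sc : Fin 12 → ℕ → ℝ}

/-- **the slots `E` (and `D`) of the flags from the closeness to the marks of level `1`.** -/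
theorem he_of (h : TSys PL G g s θ β B I lev A f b vm w fr (fun k n v => prN lev w k n v) fl sc)
    (hz : ∀ n x, (fl n x).z = x.2)
    (hs1 : ∀ᶠ n in (U : Filter ℕ), sN lev w 1 n ≤ sN lev w 0 n)
    (hfr : ∀ᶠ n in (U : Filter ℕ), ∀ x ∈ I n, |(fr n 1 x).et| * sN lev w 0 n ≤ 1 ∧
      |(fr n 1 x).d| * (sN lev w 0 n * rho (lev n 1)) ≤ 1 ∧ |(fr n 1 x).z - x.2| ≤ rho (lev n 1))
    {ε : ℝ} (hε : 0 < ε) :
    ∀ᶠ n in (U : Filter ℕ), ∀ x ∈ I n, |(fl n x).et| * sN lev w 0 n ≤ B.d n ^ (-ε) := by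
  have hε2 : 0 < ε / 2 := half_pos hε
  filter_upwards [h.close 1 1 zero_le_one le_rfl _ hε2, h.close 2 1 zero_le_one le_rfl _ hε2, hs1,
    hfr, ev_const B (c := 6) (by norm_num) hε2, h.mka.wpos 0 1 zero_le_one le_rfl,
    h.mka.wpos 1 1 zero_le_one le_rfl] with n c1 c2 s10 hf h6 p0 p1 x hx
  obtain ⟨f1, f2, f3⟩ := hf x hx
  have g1 := c1 x hx
  have g2 := c2 x hx
  rw [PL_d] at g1 g2
  have e1 : coL (fl n x) (fr n 1 x) 1 = (fr n 1 x).d - (fl n x).d := rfl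
  have e2 : coL (fl n x) (fr n 1 x) 2 =
      (fr n 1 x).et - (fl n x).et + 2 * (fl n x).d * ((fr n 1 x).z - (fl n x).z) := rfl
  rw [e1] at g1
  rw [e2, hz] at g2
  have r1 := rho_pos3 (lev n 1)
  have hs0 := sN_pos lev w 0 n
  have hs1' := sN_pos lev w 1 n
  have dp := fun a => dpow_pos B n a
  have q1 : prN lev w 1 n 1 = sN lev w 1 n / (sN lev w 0 n ^ 2 * rho (lev n 1)) := by
    unfold sN
    rw [ps_eq (div_pos p0 r1), ps_eq (div_pos p1 r1)]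
    rfl
  have q2 : prN lev w 2 n 1 = sN lev w 1 n / sN lev w 0 n ^ 2 := by
    unfold sN
    rw [ps_eq (div_pos p0 r1), ps_eq (div_pos p1 r1)]
    rfl
  rw [q1] at g1
  rw [q2] at g2
  set σ := sN lev w 0 n with hσ
  set σ1 := sN lev w 1 n with hσ1
  set ρ := rho (lev n 1) with hρ
  set P := B.d n ^ (-(ε / 2)) with hP
  have hP1 : 1 ≤ P := Real.one_le_rpow_of_pos_of_le_one_of_nonpos (B.pos n) (B.lt n).le (by linarith)
  have hq : σ1 / σ ≤ 1 := by rw [div_le_one hs0]; exact s10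
  have hPp : 0 < P := dp _
  -- `|d| σ ρ ≤ 2 P`
  have d1 : |(fl n x).d| * (σ * ρ) ≤ 2 * P := by
    have a1 : |(fl n x).d| ≤ |(fr n 1 x).d| + |(fr n 1 x).d - (fl n x).d| := by
      have := abs_sub_abs_le_abs_sub (fl n x).d (fr n 1 x).d
      rw [abs_sub_comm] at this
      linarith
    have a2 : |(fr n 1 x).d - (fl n x).d| * (σ * ρ) ≤ P := by
      have := mul_le_mul_of_nonneg_right g1 (mul_pos hs0 r1).le
      refine this.trans ?_
      have e : σ1 / (σ ^ 2 * ρ) * P * (σ * ρ) = (σ1 / σ) * P := by field_simp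
      rw [e]
      exact mul_le_of_le_one_left hPp.le hq
    have a3 := mul_le_mul_of_nonneg_right a1 (mul_pos hs0 r1).le
    rw [add_mul] at a3
    linarith
  -- the slot `E`
  have e3 : (fl n x).et = (fr n 1 x).et + 2 * (fl n x).d * ((fr n 1 x).z - x.2) -
      ((fr n 1 x).et - (fl n x).et + 2 * (fl n x).d * ((fr n 1 x).z - x.2)) := by ring
  have a4 : |(fl n x).et| ≤ |(fr n 1 x).et| + 2 * |(fl n x).d| * ρ + σ1 / σ ^ 2 * P := by
    rw [e3]
    refine (abs_sub _ _).trans ?_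
    refine add_le_add ((abs_add_le _ _).trans (add_le_add le_rfl ?_)) ?_
    · rw [abs_mul, abs_mul, abs_two]
      exact mul_le_mul_of_nonneg_left f3 (by positivity)
    · exact g2
  have a5 : σ1 / σ ^ 2 * P * σ ≤ P := by
    have e : σ1 / σ ^ 2 * P * σ = (σ1 / σ) * P := by field_simp
    rw [e]
    exact mul_le_of_le_one_left hPp.le hq
  have a6 := mul_le_mul_of_nonneg_right a4 hs0.le
  have a7 : |(fl n x).et| * σ ≤ 6 * P := by
    have e : (|(fr n 1 x).et| + 2 * |(fl n x).d| * ρ + σ1 / σ ^ 2 * P) * σ =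
      |(fr n 1 x).et| * σ + 2 * (|(fl n x).d| * (σ * ρ)) + σ1 / σ ^ 2 * P * σ := by ring
    rw [e] at a6
    linarith
  refine a7.trans ?_
  have e4 : B.d n ^ (-ε) = B.d n ^ (-(ε / 2)) * B.d n ^ (-(ε / 2)) := by
    rw [← dpow_add]; congr 1; ring
  have e5 : B.d n ^ (ε / 2) * B.d n ^ (-(ε / 2)) = 1 := by
    rw [← dpow_add, add_neg_cancel, Real.rpow_zero]
  rw [e4, ← hP]
  have h7 : 6 ≤ P := by
    have := mul_le_mul_of_nonneg_right h6 hPp.le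
    rw [mul_assoc, hP, e5, mul_one, one_mul] at this
    exact this
  exact mul_le_mul_of_nonneg_right h7 hPp.le

end he

/-! ### flags of the marks of level `1` -/

section fr

variable {r : ℕ → ℝ} {L : ℕ → ℕ → LRay} {B : Base} {I : ℕ → Finset (ℕ × ℝ)}
    {G : Geo TSet (Fin 2)} {lev : ℕ → ℚ → ℕ} {A : ℕ → ℝ} {c Λ : ℝ → ℝ} {τ : Fin 2 → ℝ → ℝ}
    {f : ℕ → ℚ → ℕ → ℤ → ℕ} {b : ℕ → ℚ → ℕ → TSet} {vm : ℕ → ℚ → ℝ} {w : Fin 2 → ℕ → ℚ → ℝ}

/-- relative widths of the marks of level `1` -/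
theorem sN_fact (h : MkA B I G lev A c Λ τ f b vm w) (hG : IsL G L r) :
    ∀ᶠ n in (U : Filter ℕ), sN lev w 1 n ≤ sN lev w 0 n ∧ sN lev w 0 n ≤ 1 := by
  filter_upwards [mark_L h hG zero_le_one le_rfl, h.ne, h.wpos 0 1 zero_le_one le_rfl,
    h.wpos 1 1 zero_le_one le_rfl] with n a1 a2 p0 p1
  obtain ⟨x, hx⟩ := a2
  obtain ⟨-, b2, b3⟩ := (a1 x hx).le
  have r1 := rho_pos3 (lev n 1)
  unfold sN
  rw [ps_eq (div_pos p0 r1), ps_eq (div_pos p1 r1)]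
  exact ⟨div_le_div_of_nonneg_right b2 r1.le, by rw [div_le_one r1]; exact b3⟩

/-- the flag of the mark of level `1` -/
theorem frL_fact (ax : Fin 2) (h : MkA B I G lev A c Λ τ f b vm w) (hG : IsL G L r) :
    ∀ᶠ n in (U : Filter ℕ), ∀ x ∈ I n, |(frL lev f b ax n 1 x).et| * sN lev w 0 n ≤ 1 ∧
      |(frL lev f b ax n 1 x).d| * (sN lev w 0 n * rho (lev n 1)) ≤ 1 ∧
      |(frL lev f b ax n 1 x).z - x.2| ≤ rho (lev n 1) := by
  filter_upwards [mark_L h hG zero_le_one le_rfl, h.wpos 0 1 zero_le_one le_rfl]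
    with n a1 p0 x hx
  have hm := a1 x hx
  have hok := hm.ok
  have r1 := rho_pos3 (lev n 1)
  set m := mkL lev f b n 1 x with hmd
  have es : sN lev w 0 n = m.sg := by
    unfold sN
    rw [ps_eq (div_pos p0 r1), ← hm.wide, ← hm.R]
    have := hok.hR
    field_simp
  have hsg : KF439.Sg (KF439.nsg ax m.phi (KF439.bray m)) := KF439.nsg_sg _ _ _
  have e1 : (frL lev f b ax n 1 x).et = KF439.nsg ax m.phi (KF439.bray m) * m.phi.ny m.s0 := by
    show (psm ax m).ny m.s0 = _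
    unfold psm
    rw [KF439.sm_ny]
  have e2 : (frL lev f b ax n 1 x).d = KF439.nsg ax m.phi (KF439.bray m) * m.phi.d := rfl
  have e3 : (frL lev f b ax n 1 x).z = m.s0 := rfl
  have kM : kM0 ≤ 1 := by unfold kM0; norm_num
  refine ⟨?_, ?_, ?_⟩
  · rw [e1, abs_mul, hsg.abs, one_mul, es]
    exact (KF439.ny_le hok (KF439.self_s0 hok)).trans kM
  · rw [e2, abs_mul, hsg.abs, one_mul, es, ← hm.R]
    have h1 := KF439.d_le hok
    have h2 : 0 ≤ |m.phi.d| * (m.sg * m.R) := by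
      have := KF439.sg_pos hok
      have := hok.hR
      positivity
    nlinarith
  · rw [e3, abs_sub_comm, ← hm.R]
    exact hm.z

end fr

/-! ### one window -/

section win

/-- **one window of the light-ray chart** -/
structure LWin (G : Geo TSet (Fin 2)) (L : ℕ → ℕ → LRay) (r : ℕ → ℝ) (g s : ℝ)
    (θ q : Fin 2 → ℝ) (Rg : ℝ) (B : Base) (I : ℕ → Finset (ℕ × ℝ)) (lev : ℕ → ℚ → ℕ) (A : ℕ → ℝ)
    (f : ℕ → ℚ → ℕ → ℤ → ℕ) (b : ℕ → ℚ → ℕ → TSet) (vm : ℕ → ℚ → ℝ) (w : Fin 2 → ℕ → ℚ → ℝ)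
    (fr : ℕ → ℚ → ℕ × ℝ → LInc) (fl : ℕ → ℕ × ℝ → LInc) (sc : Fin 12 → ℕ → ℝ) : Prop where
  sys : TSys PL G g s θ (βL (θ 0) (θ 1)) B I lev A f b vm w fr (fun k n v => prN lev w k n v) fl sc
  hfr : ∀ n v x y, kc (lev n v) (f n v) y = kc (lev n v) (f n v) x → fr n v y = fr n v x
  isL : IsL G L r
  val : ValL G q
  hz : ∀ n x, (fl n x).z = x.2
  ray : ∀ n x, rayL (fl n x) = L n x.1
  /-- 222's interface, no wall (`ϑ = 0`) -/
  dat : LData B I G lev fl (sN lev w) q (2 * kD) 1 Rg 0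
  s10 : ∀ᶠ n in (U : Filter ℕ), sN lev w 1 n ≤ sN lev w 0 n

/-- relative thinness of the marks of level `1`: `s1 ≤ sg d^k0` -/
def HK (B : Base) (lev : ℕ → ℚ → ℕ) (w : Fin 2 → ℕ → ℚ → ℝ) (k0 : ℝ) : Prop :=
  ∀ ε : ℝ, 0 < ε → ∀ᶠ n in (U : Filter ℕ), sN lev w 1 n ≤ sN lev w 0 n * B.d n ^ (k0 - ε)

variable {G : Geo TSet (Fin 2)} {L : ℕ → ℕ → LRay} {r : ℕ → ℝ} {g s : ℝ} {θ q : Fin 2 → ℝ}
    {Rg : ℝ} {B : Base} {I : ℕ → Finset (ℕ × ℝ)} {lev : ℕ → ℚ → ℕ} {A : ℕ → ℝ}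
    {f : ℕ → ℚ → ℕ → ℤ → ℕ} {b : ℕ → ℚ → ℕ → TSet} {vm : ℕ → ℚ → ℝ} {w : Fin 2 → ℕ → ℚ → ℝ}
    {fr : ℕ → ℚ → ℕ × ℝ → LInc} {fl : ℕ → ℕ × ℝ → LInc} {sc : Fin 12 → ℕ → ℝ}

theorem LWin.hk0 (h : LWin G L r g s θ q Rg B I lev A f b vm w fr fl sc) : HK B lev w 0 := by
  intro ε hε
  filter_upwards [h.s10] with n hn
  have h1 : (1 : ℝ) ≤ B.d n ^ (0 - ε) :=
    Real.one_le_rpow_of_pos_of_le_one_of_nonpos (B.pos n) (B.lt n).le (by linarith)
  have h2 := mul_le_mul_of_nonneg_left h1 (sN_pos lev w 0 n).le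
  linarith

theorem hk_thin {c Λ : ℝ → ℝ} {τ : Fin 2 → ℝ → ℝ} (h : MkA B I G lev A c Λ τ f b vm w)
    (ht : Thin B w) (k0 : ℝ) : HK B lev w k0 := by
  intro ε hε
  filter_upwards [ht (k0 - ε) 1 zero_le_one le_rfl, h.wpos 0 1 zero_le_one le_rfl,
    h.wpos 1 1 zero_le_one le_rfl] with n a1 p0 p1
  have r1 := rho_pos3 (lev n 1)
  unfold sN
  rw [ps_eq (div_pos p0 r1), ps_eq (div_pos p1 r1), div_le_iff₀ r1]
  have e : w 0 n 1 / rho (lev n 1) * B.d n ^ (k0 - ε) * rho (lev n 1) =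
    B.d n ^ (k0 - ε) * w 0 n 1 := by field_simp
  rw [e]
  exact a1

/-- the values of the test sets -/
theorem val_of (hG : IsL G L r) (hv : ValL G q) (n i : ℕ) (J : ℤ) (t : TSet) :
    G.val n i J t = valW q (rho i) fun k => G.wid k t := by
  have e : G.val n i J t = Gd222.valL q i t.1 := by
    rw [hv, Gd222.valL_eq]
    rfl
  rw [e]
  unfold Gd222.valL valW
  simp only [hG.wid]

/-- the points of the D-max hypothesis -/
theorem PDL_ne {θa θb w0 sa sb δ R Rg k0 : ℝ} (sh : Shift θa θb w0 sa sb δ R) (hRg : 0 < Rg)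
    (hk0 : 0 ≤ k0) : (PDL w0 sa sb Rg 0 k0 R).Nonempty := by
  obtain ⟨t, ht0, ht1, ht2⟩ : ∃ t : ℝ, 0 < t ∧ t < Rg ∧ t ≤ 1 :=
    ⟨min 1 Rg / 2, by positivity, by
      have := min_le_right 1 Rg
      have : 0 < min 1 Rg := lt_min one_pos hRg
      linarith, by
      have := min_le_left 1 Rg
      linarith⟩
  have hz := sh.z
  have hc := sh.c1
  have hD := sh.D1
  have hR := sh.R1
  have hδ := sh.d0
  refine ⟨eL (w0 + (1 - t)) (sa + t) (sb + t), ⟨eL_legal (by linarith) (by linarith)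
    (by linarith), fun k => eL_le (by linarith) (by linarith) (by linarith) (by linarith) k⟩,
    ?_⟩
  have e0 : eL (w0 + (1 - t)) (sa + t) (sb + t) 0 = w0 + (1 - t) := rfl
  have e3 : eL (w0 + (1 - t)) (sa + t) (sb + t) 3 = sa + t := rfl
  have e4 : eL (w0 + (1 - t)) (sa + t) (sb + t) 4 = sa + t := rfl
  have e5 : eL (w0 + (1 - t)) (sa + t) (sb + t) 5 = w0 + (1 - t) + (sa + t) := rfl
  have e6 : eL (w0 + (1 - t)) (sa + t) (sb + t) 6 = w0 + (1 - t) + (sa + t) := rfl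
  have e9 : eL (w0 + (1 - t)) (sa + t) (sb + t) 9 = w0 + (1 - t) + 2 * (sa + t) := rfl
  have e10 : eL (w0 + (1 - t)) (sa + t) (sb + t) 10 = sb + t := rfl
  have e11 : eL (w0 + (1 - t)) (sa + t) (sb + t) 11 = w0 + (1 - t) + (sb + t) := rfl
  rw [e0, e3, e4, e5, e6, e9, e10, e11]
  refine ⟨by linarith, by linarith, by linarith, by linarith, by linarith, ?_, by linarith,
    le_rfl, le_rfl, le_rfl, le_rfl, le_rfl⟩
  rw [abs_of_pos (by linarith)]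
  linarith

/-- the exponent of the number of incidences is the D-max exponent on the record path -/
theorem EL_eq (g s : ℝ) (q θ : Fin 2 → ℝ) (w0 sa sb v : ℝ) :
    EL θ g s q v = DT g s q θ w0 sa sb (rL (θ 0) (θ 1) w0 sa sb v) := by
  rw [DT_rL]
  rfl

/-- **the input of L15 for one window of the light-ray chart.** -/
theorem LWin.preQ (h : LWin G L r g s θ q Rg B I lev A f b vm w fr fl sc) (hRg : 0 < Rg)
    {k0 : ℝ} (hk0 : 0 ≤ k0) (hk : HK B lev w k0) {w0 sa sb δ R : ℝ}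
    (sh : Shift (θ 0) (θ 1) w0 sa sb δ R) {Vis Td : Fin 12 → Prop}
    (hinv : ∀ k, ¬ Vis k → InvT PL B I k fl (sc k))
    (htd : ∀ k, Td k → Vis k ∧ 0 < βL (θ 0) (θ 1) k ∧ ∃ C0 : ℝ, βL (θ 0) (θ 1) k ≤ C0 ∧
      RotT PL B I lev k fl (sc k) C0 (fun u => βL (θ 0) (θ 1) k * u)) :
    PreQ B I G lev A g s (fun j v => θ j * (1 - v)) f b vm w
      (Crest.Agent.R116.PL504.coN B lev w w0 sa sb fl) monL 2 R 0 w0
      (fun n => A n * vm n 0 * B.d n ^ (-(1 - s))) (PDL w0 sa sb Rg 0 k0 R)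
      (DT g s q θ w0 sa sb) (rL (θ 0) (θ 1) w0 sa sb) (oL (θ 0) (θ 1) w0 sa sb R Vis)
      (EL θ g s q) Td := by
  refine preL_of (fun k n a b => PL_d k n a b) sh h.sys (fun _ _ _ => rfl) (fun n x => h.hz n x)
    h.hfr hinv htd (N0_L h.sys.mka) (PDL_ne sh hRg hk0) (fun p hp => hp.1) ?_ ?_ ?_
  · exact gD_T h.sys.mka h.dat h.isL.wid hk w0 sa sb R
  · refine ⟨|(g - (1 - s)) - (3 - (3 + q 0) * θ 0 - (1 + q 1) * θ 1)|, fun u v _ huv _ => ?_⟩
    have e : EL θ g s q v - EL θ g s q u =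
        ((g - (1 - s)) - (3 - (3 + q 0) * θ 0 - (1 + q 1) * θ 1)) * (v - u) := by
      unfold EL; ring
    rw [e, abs_mul, abs_of_nonneg (by linarith : 0 ≤ v - u)]
  · intro u h0 h1
    exact gH_L h.sys.mka (fun n i J t _ => val_of h.isL h.val n i J t) u h0 h1

end win

end Crest.Agent.R116.Tw468
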