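import Crest.Agent.R116.Bd1_369
import Crest.Agent.R116.Tw4_468
import Crest.Agent.R116.KF7_439

/-!
# R116, [B-DIM] of K-TEXT II-c (helper369), part 2: `FlagN` for 439's flags, in every window

* `gr_sq_sharp` : `||grad|² - 1| sg ≤ 4 M s1` on the rays of a member.
* **`flagN_of`** : `TSys` over the flags `frL` of the marks gives `FlagN B I fl (sN lev w)`.
-/

set_option autoImplicit false
set_option linter.unusedVariables false

open Finset Filter Topology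

namespace Crest.Agent.R116.Bd369

open Crest.Agent.R138.Ex926 (Base U)
open Crest.Agent.R138.Mk163 (zc zl rho alive own)
open Crest.Agent.R138.MkRef627 (lc kc mem_alive)
open Crest.Agent.R138.Dp76 (dpow_pos dpow_add dpow_le)
open Crest.Agent.R136.MkA627
open Crest.Agent.R136.Net191
open Crest.Agent.R136.TD627
open Crest.Agent.R136.PqG464 (ev_const)
open Crest.Agent.R138.Defs (E2)
open Crest.Agent.R116.LZg725
open Crest.Agent.R116.Bm903
open Crest.Agent.R116.ChL222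
open Crest.Agent.R116.PL504 (ps ps_pos ps_eq prN βL eL uL)
open Crest.Agent.R116.Gd222 (TSet AdmR LData sN sN_pos vb rayL)
open Crest.Agent.R116.KI439
open Crest.Agent.R116.KF439 (IsL ValL Thin Thick PL PL_d frL frL_kc flM psm mark_L MkFact mkL)
open Crest.Agent.R116.Xd954
open Crest.Agent.R116.Tw468

/-- the gradient has length `1` up to `4 M s1 / sg` on the rays. -/
theorem gr_sq_sharp {M : ℝ} {m : Mem} {r : LRay} (h : m.Ok M 0) (hr : r ∈ m.rays 0) :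
    |‖grr m.phi r‖ ^ 2 - 1| * m.sg ≤ 4 * M * m.s1 := by
  have h0 := KF439.self_s0 h
  have hs := KF439.sg_pos h
  have hR := h.hR
  have e := Cf.norm_gr_sq m.phi r.1 (rx r.1 r.2.1 m.s0) (ry r.1 r.2.2 m.s0) m.s0
  rw [grr_eq, slr_eq, h.adm.disc] at e
  have e2 : ‖grr m.phi r‖ ^ 2 - 1 = 2 * m.phi.ny m.s0 * slr m.phi r +
      4 * m.phi.d * evr m.phi r m.s0 := by
    rw [e]; unfold evr; ring
  rw [e2]
  have h1 := KF439.ny_le h h0
  have h2 := KF439.d_le h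
  have h3 := ray_slr h.hR hr
  have h4 := ray_val hr h0
  have hM := KF439.M_nonneg h
  have a1 : |2 * m.phi.ny m.s0 * slr m.phi r| * m.sg ≤ 2 * M * m.s1 := by
    rw [abs_mul, abs_mul, abs_two]
    have : (|m.phi.ny m.s0| * m.sg) * |slr m.phi r| ≤ M * m.s1 :=
      mul_le_mul h1 h3 (abs_nonneg _) hM
    linarith
  have a2 : |4 * m.phi.d * evr m.phi r m.s0| * m.sg ≤ 2 * M * m.s1 := by
    rw [abs_mul, abs_mul, abs_of_pos (by norm_num : (0:ℝ) < 4)]
    have : (4 * |m.phi.d| * m.sg) * |evr m.phi r m.s0| ≤ (4 * |m.phi.d| * m.sg) * (m.s1 * m.R) :=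
      mul_le_mul_of_nonneg_left h4 (by positivity)
    have h5 : (2 * |m.phi.d| * (m.sg * m.R)) * (2 * m.s1) ≤ M * (2 * m.s1) :=
      mul_le_mul_of_nonneg_right h2 (by have := h.hs1; positivity)
    linarith
  calc |2 * m.phi.ny m.s0 * slr m.phi r + 4 * m.phi.d * evr m.phi r m.s0| * m.sg
      ≤ (|2 * m.phi.ny m.s0 * slr m.phi r| + |4 * m.phi.d * evr m.phi r m.s0|) * m.sg :=
        mul_le_mul_of_nonneg_right (abs_add_le _ _) hs.le
    _ ≤ 4 * M * m.s1 := by rw [add_mul]; linarith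

theorem vb_toL (r : LRay) (z : ℝ) (p : Cf E2) : vb (toL r z p) = grr p r := by
  ext i
  fin_cases i <;> rfl

theorem vb_flM_sq (ax : Fin 2) (m : Mem) :
    ‖vb (flM ax m)‖ ^ 2 = ‖grr m.phi (KF439.bray m)‖ ^ 2 := by
  have hσ : KF439.Sg (KF439.nsg ax m.phi (KF439.bray m)) := KF439.nsg_sg _ _ _
  unfold flM psm
  rw [vb_toL, KF439.sm_grr, norm_smul, Real.norm_eq_abs, hσ.abs, one_mul]

/-- the Klein form, from the side of the second flag -/
theorem bb_sq_eq (i j : LInc) :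
    bb i 0 ^ 2 + bb i 1 ^ 2 - 1 = (bb j 0 ^ 2 + bb j 1 ^ 2 - 1) -
      2 * (bb j 0 * coL i j 7 + bb j 1 * coL i j 8) +
      (coL i j 7 ^ 2 + coL i j 8 ^ 2) - 2 * (i.et * coL i j 10) - 4 * (i.d * coL i j 11) := by
  have key := bb_sq_sub i j
  have b0 := coL_B i j 0
  have b1 := coL_B i j 1
  have c0 : cs 0 = 3 := rfl
  have c1 : cs 1 = 4 := rfl
  have x0 : xs 0 = 5 := rfl
  have x1 : xs 1 = 6 := rfl
  have s0 : bs 0 = 7 := rfl
  have s1 : bs 1 = 8 := rfl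
  rw [c0, x0, s0] at b0
  rw [c1, x1, s1] at b1
  have e0 : bb i 0 + i.et * coL i j 3 + 2 * i.d * coL i j 5 = bb j 0 - coL i j 7 := by linarith
  have e1 : bb i 1 + i.et * coL i j 4 + 2 * i.d * coL i j 6 = bb j 1 - coL i j 8 := by linarith
  rw [e0, e1] at key
  linarith

theorem two_of {u v : ℝ} (h : u ^ 2 + v ^ 2 ≤ 4) : |u| ≤ 2 := by
  rw [abs_le]; constructor <;> nlinarith [sq_nonneg v]

/-- the slot `D` -/
theorem d_real {σ σ1 ρ P dj d : ℝ} (hσ : 0 < σ) (hρ : 0 < ρ) (hP1 : 1 ≤ P)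
    (hq : σ1 ≤ σ) (f2 : |dj| * (σ * ρ) ≤ 1) (g1 : |dj - d| ≤ σ1 / (σ ^ 2 * ρ) * P) :
    |d| * (σ * ρ) ≤ 2 * P := by
  have hPp : 0 < P := by linarith
  have hq' : σ1 / σ ≤ 1 := by rw [div_le_one hσ]; exact hq
  have a1 : |d| ≤ |dj| + |dj - d| := by
    have := abs_sub_abs_le_abs_sub d dj
    rw [abs_sub_comm] at this
    linarith
  have a2 : |dj - d| * (σ * ρ) ≤ P := by
    refine (mul_le_mul_of_nonneg_right g1 (mul_pos hσ hρ).le).trans ?_
    have e : σ1 / (σ ^ 2 * ρ) * P * (σ * ρ) = (σ1 / σ) * P := by field_simp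
    rw [e]
    exact (mul_le_mul_of_nonneg_right hq' hPp.le).trans (one_mul P).le
  have a3 := mul_le_mul_of_nonneg_right a1 (mul_pos hσ hρ).le
  rw [add_mul] at a3
  linarith

/-- the sum of the error terms -/
theorem core_real {σ σ1 ρ P N b0 b1 c7 c8 c10 c11 et d : ℝ} (hσ : 0 < σ) (hσ1 : 0 < σ1)
    (hρ : 0 < ρ) (hP : 30 ≤ P) (hq : σ1 ≤ σ) (hN : |N| * σ ≤ σ1) (hb0 : |b0| ≤ 2)
    (hb1 : |b1| ≤ 2) (g7 : |c7| ≤ σ1 / σ * P) (g8 : |c8| ≤ σ1 / σ * P) (g10 : |c10| ≤ σ1 * P)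
    (g11 : |c11| ≤ ρ * σ1 * P) (he : |et| * σ ≤ P) (hd : |d| * (σ * ρ) ≤ 2 * P) :
    |N - 2 * (b0 * c7 + b1 * c8) + (c7 ^ 2 + c8 ^ 2) - 2 * (et * c10) - 4 * (d * c11)| * σ ≤
      σ1 * (P * P * P * P) := by
  have hPp : 0 < P := by linarith
  have hq' : σ1 / σ ≤ 1 := by rw [div_le_one hσ]; exact hq
  have lin : ∀ {u c : ℝ}, |u| ≤ 2 → |c| ≤ σ1 / σ * P → |u * c| * σ ≤ 2 * (σ1 * P) := by
    intro u c hu hc
    rw [abs_mul]
    have h1 : |u| * |c| ≤ 2 * (σ1 / σ * P) := mul_le_mul hu hc (abs_nonneg _) (by norm_num)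
    refine (mul_le_mul_of_nonneg_right h1 hσ.le).trans (le_of_eq ?_)
    field_simp
  have sq' : ∀ {c : ℝ}, |c| ≤ σ1 / σ * P → c ^ 2 * σ ≤ σ1 * (P * P) := by
    intro c hc
    have h1 : c ^ 2 ≤ (σ1 / σ * P) * (σ1 / σ * P) := by
      rw [← sq_abs, sq]
      exact mul_le_mul hc hc (abs_nonneg _) ((abs_nonneg _).trans hc)
    refine (mul_le_mul_of_nonneg_right h1 hσ.le).trans ?_
    have e : (σ1 / σ * P) * (σ1 / σ * P) * σ = (σ1 / σ) * (σ1 * (P * P)) := by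
      field_simp
    rw [e]
    exact (mul_le_mul_of_nonneg_right hq' (by positivity)).trans (one_mul _).le
  have u7 := lin hb0 g7
  have u8 := lin hb1 g8
  have v7 := sq' g7
  have v8 := sq' g8
  have v10 : |et * c10| * σ ≤ σ1 * (P * P) := by
    rw [abs_mul]
    calc |et| * |c10| * σ = (|et| * σ) * |c10| := by ring
      _ ≤ P * (σ1 * P) := mul_le_mul he g10 (abs_nonneg _) hPp.le
      _ = σ1 * (P * P) := by ring
  have v11 : |d * c11| * σ ≤ 2 * (σ1 * (P * P)) := by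
    rw [abs_mul]
    have h1 : |d| * |c11| ≤ |d| * (ρ * σ1 * P) := mul_le_mul_of_nonneg_left g11 (abs_nonneg _)
    calc |d| * |c11| * σ ≤ |d| * (ρ * σ1 * P) * σ := mul_le_mul_of_nonneg_right h1 hσ.le
      _ = (|d| * (σ * ρ)) * (σ1 * P) := by ring
      _ ≤ (2 * P) * (σ1 * P) := mul_le_mul_of_nonneg_right hd (by positivity)
      _ = 2 * (σ1 * (P * P)) := by ring
  have tri : |N - 2 * (b0 * c7 + b1 * c8) + (c7 ^ 2 + c8 ^ 2) - 2 * (et * c10) -
      4 * (d * c11)| ≤ |N| + 2 * (|b0 * c7| + |b1 * c8|) + (c7 ^ 2 + c8 ^ 2) +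
        2 * |et * c10| + 4 * |d * c11| := by
    have w0 := abs_le.1 (le_refl |N|)
    have w1 := abs_le.1 (le_refl |b0 * c7|)
    have w2 := abs_le.1 (le_refl |b1 * c8|)
    have w3 := abs_le.1 (le_refl |et * c10|)
    have w4 := abs_le.1 (le_refl |d * c11|)
    have w5 := sq_nonneg c7
    have w6 := sq_nonneg c8
    rw [abs_le]
    constructor <;> linarith [w0.1, w0.2, w1.1, w1.2, w2.1, w2.2, w3.1, w3.2, w4.1, w4.2]
  refine (mul_le_mul_of_nonneg_right tri hσ.le).trans ?_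
  have ex : (|N| + 2 * (|b0 * c7| + |b1 * c8|) + (c7 ^ 2 + c8 ^ 2) + 2 * |et * c10| +
      4 * |d * c11|) * σ = |N| * σ + 2 * (|b0 * c7| * σ + |b1 * c8| * σ) +
      (c7 ^ 2 * σ + c8 ^ 2 * σ) + 2 * (|et * c10| * σ) + 4 * (|d * c11| * σ) := by ring
  rw [ex]
  have hPP : P ≤ P * P := by nlinarith
  have hPP1 : 1 ≤ P * P := by nlinarith
  have z1 : σ1 * 1 ≤ σ1 * (P * P) := mul_le_mul_of_nonneg_left hPP1 hσ1.le
  have z2 : σ1 * P ≤ σ1 * (P * P) := mul_le_mul_of_nonneg_left hPP hσ1.le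
  have z3 : σ1 * (30 * (P * P)) ≤ σ1 * (P * P * P * P) := by
    refine mul_le_mul_of_nonneg_left ?_ hσ1.le
    have h1 : 30 ≤ P * P := by nlinarith
    calc 30 * (P * P) ≤ (P * P) * (P * P) := mul_le_mul_of_nonneg_right h1 (by positivity)
      _ = P * P * P * P := by ring
  have z0 : 0 < σ1 * (P * P) := by positivity
  linarith

section flags

variable {r : ℕ → ℝ} {B : Base} {I : ℕ → Finset (ℕ × ℝ)} {G : Geo TSet (Fin 2)}
    {L : ℕ → ℕ → LRay} {lev : ℕ → ℚ → ℕ}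
    {A : ℕ → ℝ} {g s : ℝ} {θ : Fin 2 → ℝ} {β : Fin 12 → ℝ} {f : ℕ → ℚ → ℕ → ℤ → ℕ}
    {b : ℕ → ℚ → ℕ → TSet} {vm : ℕ → ℚ → ℝ} {w : Fin 2 → ℕ → ℚ → ℝ}
    {fl : ℕ → ℕ × ℝ → LInc} {sc : Fin 12 → ℕ → ℝ}

/-- **the gradients of the flags have length `1` up to `d^(-ε) σ₁ / σ₀`** -/
theorem flagN_of (a : Fin 2)
    (h : TSys PL G g s θ β B I lev A f b vm w (frL lev f b a) (fun k n v => prN lev w k n v) fl sc)
    (hG : IsL G L r) (hz : ∀ n x, (fl n x).z = x.2) : FlagN B I fl (sN lev w) := by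
  have hsf := sN_fact h.mka hG
  intro ε hε
  have hε4 : 0 < ε / 4 := by positivity
  filter_upwards [h.close 1 1 zero_le_one le_rfl _ hε4, h.close 7 1 zero_le_one le_rfl _ hε4,
    h.close 8 1 zero_le_one le_rfl _ hε4, h.close 10 1 zero_le_one le_rfl _ hε4,
    h.close 11 1 zero_le_one le_rfl _ hε4, hsf, frL_fact a h.mka hG,
    he_of h hz (hsf.mono fun n hn => hn.1) (frL_fact a h.mka hG) hε4,
    ev_const B (c := 30) (by norm_num) hε4, h.mka.wpos 0 1 zero_le_one le_rfl,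
    h.mka.wpos 1 1 zero_le_one le_rfl, mark_L h.mka hG zero_le_one le_rfl]
    with n c1 c7 c8 c10 c11 hs hf he h30 p0 p1 hmk x hx
  have g1 := c1 x hx
  have g7 := c7 x hx
  have g8 := c8 x hx
  have g10 := c10 x hx
  have g11 := c11 x hx
  rw [PL_d] at g1 g7 g8 g10 g11
  obtain ⟨f1, f2, f3⟩ := hf x hx
  have hex := he x hx
  obtain ⟨s10, s01⟩ := hs
  have r1 := rho_pos3 (lev n 1)
  have hs0 := sN_pos lev w 0 n
  have hs1' := sN_pos lev w 1 n
  have dp := fun a => dpow_pos B n a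
  have q1 : prN lev w 1 n 1 = sN lev w 1 n / (sN lev w 0 n ^ 2 * rho (lev n 1)) := by
    unfold sN
    rw [ps_eq (div_pos p0 r1), ps_eq (div_pos p1 r1)]
    rfl
  have q7 : prN lev w 7 n 1 = sN lev w 1 n / sN lev w 0 n := by
    unfold sN
    rw [ps_eq (div_pos p0 r1), ps_eq (div_pos p1 r1)]
    rfl
  have q8 : prN lev w 8 n 1 = sN lev w 1 n / sN lev w 0 n := q7
  have q10 : prN lev w 10 n 1 = sN lev w 1 n := by
    unfold sN
    rw [ps_eq (div_pos p1 r1)]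
    rfl
  have q11 : prN lev w 11 n 1 = rho (lev n 1) * sN lev w 1 n := by
    unfold sN
    rw [ps_eq (div_pos p1 r1)]
    rfl
  rw [q1] at g1
  rw [q7] at g7
  rw [q8] at g8
  rw [q10] at g10
  rw [q11] at g11
  -- the mark
  have hm := hmk x hx
  have hok := hm.ok
  set m := mkL lev f b n 1 x with hmd
  have es : sN lev w 0 n = m.sg := by
    unfold sN
    rw [ps_eq (div_pos p0 r1), ← hm.wide, ← hm.R]
    have := hok.hR
    field_simp
  have es1 : sN lev w 1 n = m.s1 := by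
    unfold sN
    rw [ps_eq (div_pos p1 r1), ← hm.thin, ← hm.R]
    have := hok.hR
    field_simp
  have ej : bb (frL lev f b a n 1 x) 0 ^ 2 + bb (frL lev f b a n 1 x) 1 ^ 2 =
      ‖grr m.phi (KF439.bray m)‖ ^ 2 := by
    rw [bb_sq]
    exact vb_flM_sq a m
  have hbr : KF439.bray m ∈ m.rays 0 := KF439.bray_mem hm.ray
  have t0 : |bb (frL lev f b a n 1 x) 0 ^ 2 + bb (frL lev f b a n 1 x) 1 ^ 2 - 1| * sN lev w 0 n ≤
      sN lev w 1 n := by
    rw [ej, es, es1]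
    have := gr_sq_sharp hok hbr
    have hM : kM0 = 1 / 100 := rfl
    rw [hM] at this
    have := hok.hs1
    linarith
  have hbb : bb (frL lev f b a n 1 x) 0 ^ 2 + bb (frL lev f b a n 1 x) 1 ^ 2 ≤ 4 := by
    rw [ej]
    have := (abs_le.1 (KF439.gr_sq hok hbr)).2
    have hM : kM0 = 1 / 100 := rfl
    rw [hM] at this
    linarith
  have hb0 : |bb (frL lev f b a n 1 x) 0| ≤ 2 := two_of hbb
  have hb1 : |bb (frL lev f b a n 1 x) 1| ≤ 2 := two_of (by rw [add_comm]; exact hbb)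
  have hP30 : 30 ≤ B.d n ^ (-(ε / 4)) := by
    rw [Real.rpow_neg (B.pos n).le, le_inv_comm₀ (by norm_num) (dp _)]
    linarith
  have hPε : B.d n ^ (-ε) = B.d n ^ (-(ε / 4)) * B.d n ^ (-(ε / 4)) * B.d n ^ (-(ε / 4)) *
      B.d n ^ (-(ε / 4)) := by
    rw [← dpow_add, ← dpow_add, ← dpow_add]; congr 1; ring
  have e1 : coL (fl n x) (frL lev f b a n 1 x) 1 = (frL lev f b a n 1 x).d - (fl n x).d := rfl
  rw [e1] at g1
  have d1 := d_real hs0 r1 (by linarith) s10 f2 g1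
  rw [bb_sq_eq (fl n x) (frL lev f b a n 1 x), hPε]
  exact core_real hs0 hs1' r1 hP30 s10 t0 hb0 hb1 g7 g8 g10 g11 hex d1

/-- flat flags -/
theorem flagN_flat (a : Fin 2) (L : ℕ → ℕ → LRay) (B : Base) (I : ℕ → Finset (ℕ × ℝ))
    (lev : ℕ → ℚ → ℕ) (w : Fin 2 → ℕ → ℚ → ℝ) :
    FlagN B I (KF439.flF a L) (sN lev w) := by
  intro ε hε
  refine Eventually.of_forall fun n x _ => ?_
  have e1 : vb (KF439.flF a L n x) = grr (KF439.flatc a) (L n x.1) := by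
    unfold KF439.flF
    rw [vb_toL]
  have e2 : bb (KF439.flF a L n x) 0 ^ 2 + bb (KF439.flF a L n x) 1 ^ 2 - 1 = 0 := by
    rw [bb_sq, e1, KF439.flatc_grr, PiLp.norm_single, norm_one]
    norm_num
  rw [e2, abs_zero, zero_mul]
  exact mul_nonneg (sN_pos lev w 1 n).le (dpow_pos B n _).le

end flags

end Crest.Agent.R116.Bd369
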