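import Crest.Agent.R116.Kr10_710

/-!
# R116, K side: one slice at any legal base point (helper710)

* `compU u` = `comp` in the units `u`; `LawU B G S u x` : composition at one height in the units
  `u n`; `ThinU` : the dead direction `b n` of the pairs `{3,4}`, `{5,6}`, `{7,8}`.
* `SlU` : all bounds of one slice; `exists_SlU`; slot formulas `SlU.d1 .. d11`, `SlU.ab2`, `SlU.ab3`
  (absorbed products).
* `mkV` : `SlabV` from a one-slice statement.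
-/

set_option autoImplicit false
set_option linter.unusedVariables false
set_option linter.unusedSectionVars false

open Filter Topology Finset

namespace Crest.Agent.R116.Kr710

open Crest.Agent.R138.Ex926 (Base U)
open Crest.Agent.R138.Fal658 Crest.Agent.R136.Gf356
open Crest.Agent.R116.EvL504 (comp SL Sides)

/-- `comp` in the units `u` -/
noncomputable def compU (u a c : Fin 12 → ℝ) (s : Fin 12) : ℝ :=
  comp (fun j => u j * a j) (fun j => u j * c j) s / u s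

/-- **composition at one height in the units `u n`**, precision `x` -/
structure LawU (B : Base) (G : ℕ → RCfg (Fin 12)) (S : Finset (Fin 12)) (u : ℕ → Fin 12 → ℝ)
    (x : ℝ) : Prop where
  S0 : (0 : Fin 12) ∈ S
  SSL : S ⊆ SL
  sd : ∀ᶠ n in (U : Filter ℕ), Sides (u n)
  u4 : ∀ᶠ n in (U : Filter ℕ), u n 4 = u n 3
  u6 : ∀ᶠ n in (U : Filter ℕ), u n 6 = u n 5
  u8 : ∀ᶠ n in (U : Filter ℕ), u n 8 = u n 7
  relS : ∀ᶠ n in (U : Filter ℕ), ∀ k i l, ∀ s ∈ S, (G n).rel k i l s = 0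
  bd : ∀ ε : ℝ, 0 < ε → ∀ᶠ n in (U : Filter ℕ), ∀ k i l, (i, k) ∈ (G n).I → (l, k) ∈ (G n).I →
    ∀ s, |(G n).rel k i l s| ≤ B.d n ^ (-ε)
  coc : ∀ ε : ℝ, 0 < ε → ∀ᶠ n in (U : Filter ℕ), ∀ k i j l, (i, k) ∈ (G n).I →
    (j, k) ∈ (G n).I → (l, k) ∈ (G n).I → ∀ s, s ∉ S →
    |(G n).rel k i l s - compU (u n) ((G n).rel k i j) ((G n).rel k j l) s| ≤ B.d n ^ (x - ε)

/-- the direction `b n` is dead for the pairs `{3,4}`, `{5,6}`, `{7,8}` -/
structure ThinU (B : Base) (G : ℕ → RCfg (Fin 12)) (b : ℕ → Fin 2 → ℝ) (x : ℝ) : Prop where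
  one : ∀ᶠ n in (U : Filter ℕ), b n 0 ^ 2 + b n 1 ^ 2 = 1
  tc : ∀ ε : ℝ, 0 < ε → ∀ᶠ n in (U : Filter ℕ), ∀ k i l, (i, k) ∈ (G n).I → (l, k) ∈ (G n).I →
    |b n 0 * (G n).rel k i l 3 + b n 1 * (G n).rel k i l 4| ≤ B.d n ^ (x - ε)
  tx : ∀ ε : ℝ, 0 < ε → ∀ᶠ n in (U : Filter ℕ), ∀ k i l, (i, k) ∈ (G n).I → (l, k) ∈ (G n).I →
    |b n 0 * (G n).rel k i l 5 + b n 1 * (G n).rel k i l 6| ≤ B.d n ^ (x - ε)
  tb : ∀ ε : ℝ, 0 < ε → ∀ᶠ n in (U : Filter ℕ), ∀ k i l, (i, k) ∈ (G n).I → (l, k) ∈ (G n).I →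
    |b n 0 * (G n).rel k i l 7 + b n 1 * (G n).rel k i l 8| ≤ B.d n ^ (x - ε)

/-- component along the live direction -/
def tt (b : Fin 2 → ℝ) (i j : Fin 12) (a : Fin 12 → ℝ) : ℝ := -b 1 * a i + b 0 * a j

/-- component along the dead direction -/
def bb (b : Fin 2 → ℝ) (i j : Fin 12) (a : Fin 12 → ℝ) : ℝ := b 0 * a i + b 1 * a j

theorem tt_bb {b : Fin 2 → ℝ} (hb : b 0 ^ 2 + b 1 ^ 2 = 1) (i j k l : Fin 12)
    (a c : Fin 12 → ℝ) : a i * c k + a j * c l = tt b i j a * tt b k l c + bb b i j a * bb b k l c := by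
  have : tt b i j a * tt b k l c + bb b i j a * bb b k l c =
      (b 0 ^ 2 + b 1 ^ 2) * (a i * c k + a j * c l) := by
    unfold tt bb; ring
  rw [this, hb, one_mul]

/-- all bounds of one slice: `β = ρ^(-K ε)`, `r = ρ^y`; `a = rel i0 l`, `w = rel i0 l'`,
`c = rel l l'` -/
structure SlU (S : Finset (Fin 12)) (p : Fin 12 → ℝ) (ρ r β : ℝ) (u : Fin 12 → ℝ) (b : Fin 2 → ℝ)
    (a w c : Fin 12 → ℝ) : Prop where
  r0 : 0 < r
  r1 : r ≤ 1
  β8 : 8 ≤ β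
  S0 : (0 : Fin 12) ∈ S
  SSL : S ⊆ SL
  sd : Sides u
  u4 : u 4 = u 3
  u6 : u 6 = u 5
  u8 : u 8 = u 7
  b1 : b 0 ^ 2 + b 1 ^ 2 = 1
  aS : ∀ s ∈ S, a s = 0
  wS : ∀ s ∈ S, w s = 0
  cS : ∀ s ∈ S, c s = 0
  ab : ∀ s, |a s| ≤ ρ ^ p s * β
  cb : ∀ s, |c s| ≤ ρ ^ p s * β
  a1 : ∀ s, |a s| ≤ β
  w1 : ∀ s, |w s| ≤ β
  c1 : ∀ s, |c s| ≤ β
  e : ∀ s, s ∉ S → |w s - compU u a c s| ≤ r * β
  t3 : |bb b 3 4 c| ≤ r * β
  t5 : |bb b 5 6 c| ≤ r * β
  t7 : |bb b 7 8 c| ≤ r * β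

theorem exists_SlU {B : Base} {G : ℕ → RCfg (Fin 12)} {Leg : Set (Fin 12 → ℝ)}
    {ν : (Fin 12 → ℝ) → ℝ} {D : ℝ} (H : RUnif B G Leg ν D) {S : Finset (Fin 12)}
    {u : ℕ → Fin 12 → ℝ} {b : ℕ → Fin 2 → ℝ} {x : ℝ} (L : LawU B G S u x) (T : ThinU B G b x)
    {i0 k0 : ℕ → ℕ} (h0 : ∀ᶠ n in (U : Filter ℕ), (i0 n, k0 n) ∈ (G n).I) {pS : Fin 12 → ℝ}
    (lS : pS ∈ Leg) {y : ℝ} (hy : 0 < y) (hyx : y ≤ x) {C0 : ℝ} (hC0 : 0 < C0) :
    ∃ K : ℝ, 1 ≤ K ∧ ∀ ε : ℝ, 0 < ε → ∀ᶠ n in (U : Filter ℕ),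
      8 ≤ B.d n ^ (-ε) ∧
      ∀ l ∈ (G n).box pS (C0 * ε) (i0 n) (k0 n), ∀ l' ∈ (G n).box pS (C0 * ε) (i0 n) (k0 n),
      SlU S pS (B.d n) (B.d n ^ y) (B.d n ^ (-(K * ε))) (u n) (b n) ((G n).rel (k0 n) (i0 n) l)
        ((G n).rel (k0 n) (i0 n) l') ((G n).rel (k0 n) l l') := by
  have hD := H.D1
  have hD0 : 0 < D := by linarith
  have hDC : 0 < D ^ 2 * C0 := by positivity
  refine ⟨D ^ 2 * C0 + C0 + 1, by linarith, fun ε hε => ?_⟩
  set K : ℝ := D ^ 2 * C0 + C0 + 1 with hK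
  filter_upwards [h0, near_pairs H h0 lS hC0 hε, L.bd ε hε, L.coc ε hε, ev_const_le B hε 8,
    L.sd, L.u4, L.u6, L.u8, L.relS, T.one, T.tc ε hε, T.tx ε hε, T.tb ε hε]
    with n g0 g1 g2 g3 g8 k1 k2 k3 k4 k5 k6 k7 k8 k9
  refine ⟨g8, fun l hl l' hl' => ?_⟩
  obtain ⟨a1, a2⟩ := RCfg.mem_box.1 hl
  obtain ⟨b1, b2⟩ := RCfg.mem_box.1 hl'
  have I1 := H.memSlice.1 a1
  have I2 := H.memSlice.1 b1
  have e1 : B.d n ^ (-ε) ≤ B.d n ^ (-(K * ε)) := by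
    have : -ε = -(1 * ε) := by ring
    rw [this]; exact anN B n hε (by rw [hK]; linarith)
  have e2 : ∀ (s : Fin 12) (K' : ℝ), K' ≤ K →
      B.d n ^ (pS s - K' * ε) ≤ B.d n ^ pS s * B.d n ^ (-(K * ε)) := by
    intro s K' hK'
    rw [← rpow_add']
    exact rpow_anti B n (by have := mE hε hK'; linarith)
  have e3 : B.d n ^ (x - ε) ≤ B.d n ^ y * B.d n ^ (-(K * ε)) := by
    rw [← rpow_add']
    refine rpow_anti B n ?_
    have : 1 * ε ≤ K * ε := mE hε (by rw [hK]; linarith)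
    linarith
  refine ⟨rpos B n _, ?_, g8.trans e1, L.S0, L.SSL, k1, k2, k3, k4, k6,
    fun s hs => k5 _ _ _ s hs, fun s hs => k5 _ _ _ s hs, fun s hs => k5 _ _ _ s hs, ?_, ?_, ?_,
    ?_, ?_, ?_, ?_, ?_, ?_⟩
  · calc B.d n ^ y ≤ B.d n ^ (0 : ℝ) := rpow_anti B n hy.le
      _ = 1 := Real.rpow_zero _
  · intro s
    have := a2 s
    rw [H.base n] at this
    exact this.trans (e2 s C0 (by rw [hK]; linarith))
  · intro s
    have := g1 l hl l' hl' s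
    rw [H.base n] at this
    exact this.trans (e2 s (D ^ 2 * C0) (by rw [hK]; linarith))
  · intro s; exact (g2 _ _ _ g0 I1 s).trans e1
  · intro s; exact (g2 _ _ _ g0 I2 s).trans e1
  · intro s; exact (g2 _ _ _ I1 I2 s).trans e1
  · intro s hs
    exact (g3 _ _ _ _ g0 I1 I2 s hs).trans e3
  · exact (k7 _ _ _ I1 I2).trans e3
  · exact (k8 _ _ _ I1 I2).trans e3
  · exact (k9 _ _ _ I1 I2).trans e3

/-- the product `i · j → s` is absorbed (one slice) -/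
def Ab1 (S : Finset (Fin 12)) (p : Fin 12 → ℝ) (y r : ℝ) (u : Fin 12 → ℝ) (i j s : Fin 12) :
    Prop := i ∈ S ∨ y ≤ p i + p j ∨ u i * u j ≤ r * u s

/-- the product `i · j → s` is absorbed: `i` is a level slot, or the boxes are fine, or the wall is
slack -/
def Abv (B : Base) (S : Finset (Fin 12)) (p : Fin 12 → ℝ) (y : ℝ) (u : ℕ → Fin 12 → ℝ)
    (i j s : Fin 12) : Prop :=
  i ∈ S ∨ y ≤ p i + p j ∨ ∀ᶠ n in (U : Filter ℕ), u n i * u n j ≤ B.d n ^ y * u n s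

theorem Abv.ev {B : Base} {S : Finset (Fin 12)} {p : Fin 12 → ℝ} {y : ℝ} {u : ℕ → Fin 12 → ℝ}
    {i j s : Fin 12} (h : Abv B S p y u i j s) :
    ∀ᶠ n in (U : Filter ℕ), Ab1 S p y (B.d n ^ y) (u n) i j s := by
  rcases h with h | h | h
  · exact Eventually.of_forall fun n => Or.inl h
  · exact Eventually.of_forall fun n => Or.inr (Or.inl h)
  · filter_upwards [h] with n hn
    exact Or.inr (Or.inr hn)

namespace SlU

variable {S : Finset (Fin 12)} {p : Fin 12 → ℝ} {ρ r β y : ℝ} {u : Fin 12 → ℝ} {b : Fin 2 → ℝ}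
  {a w c : Fin 12 → ℝ}

theorem β0 (h : SlU S p ρ r β u b a w c) : 0 ≤ β := by linarith [h.β8]

/-- a product is absorbed -/
theorem ab2 (h : SlU S p ρ r β u b a w c) (hρ : 0 < ρ) (hρ1 : ρ ≤ 1) (hr : r = ρ ^ y)
    {i j s : Fin 12} (hij : Ab1 S p y r u i j s) (hw : u i * u j ≤ u s) :
    |u i * u j / u s * (a i * c j)| ≤ r * β ^ 2 := by
  have hβ := h.β0
  have hr0 := h.r0
  have us := h.sd.pos s
  have ui := h.sd.pos i
  have uj := h.sd.pos j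
  have q0 : 0 ≤ u i * u j / u s := by positivity
  have q1 : u i * u j / u s ≤ 1 := by rw [div_le_one us]; exact hw
  rw [abs_mul, abs_of_nonneg q0, abs_mul]
  rcases hij with hi | hij | hs
  · rw [h.aS i hi, abs_zero, zero_mul, mul_zero]
    positivity
  · have e1 : |a i| * |c j| ≤ r * β ^ 2 := by
      calc |a i| * |c j| ≤ (ρ ^ p i * β) * (ρ ^ p j * β) :=
            mul_le_mul (h.ab i) (h.cb j) (abs_nonneg _) (by positivity)
        _ = ρ ^ (p i + p j) * β ^ 2 := by rw [Real.rpow_add hρ]; ring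
        _ ≤ r * β ^ 2 := by
            rw [hr]
            exact mul_le_mul_of_nonneg_right (Real.rpow_le_rpow_of_exponent_ge hρ hρ1 hij)
              (by positivity)
    calc u i * u j / u s * (|a i| * |c j|) ≤ 1 * (r * β ^ 2) :=
          mul_le_mul q1 e1 (by positivity) zero_le_one
      _ = _ := one_mul _
  · have e1 : |a i| * |c j| ≤ β ^ 2 := by
      rw [pow_two]
      exact mul_le_mul (h.a1 i) (h.c1 j) (abs_nonneg _) hβ
    have e2 : u i * u j / u s ≤ r := by rw [div_le_iff₀ us]; exact hs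
    exact mul_le_mul e2 e1 (by positivity) hr0.le

/-- a triple product is absorbed -/
theorem ab3 (h : SlU S p ρ r β u b a w c) (hρ : 0 < ρ) (hρ1 : ρ ≤ 1) (hr : r = ρ ^ y)
    {i j m k s : Fin 12} (hij : Ab1 S p y r u i j m) (hw : u i * u j ≤ u m)
    (hw' : u m * u k ≤ u s) :
    |u i * u j * u k / u s * (a i * (c j * c k))| ≤ r * β ^ 3 := by
  have hβ := h.β0
  have us := h.sd.pos s
  have um := h.sd.pos m
  have uk := h.sd.pos k
  have e : u i * u j * u k / u s * (a i * (c j * c k)) =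
      (u i * u j / u m * (a i * c j)) * (u m * u k / u s * c k) := by
    field_simp
  have q0 : 0 ≤ u m * u k / u s := by positivity
  have q1 : u m * u k / u s ≤ 1 := by rw [div_le_one us]; exact hw'
  have e1 : |u m * u k / u s * c k| ≤ β := by
    rw [abs_mul, abs_of_nonneg q0]
    calc u m * u k / u s * |c k| ≤ 1 * β :=
          mul_le_mul q1 (h.c1 k) (abs_nonneg _) zero_le_one
      _ = β := one_mul _
  rw [e, abs_mul]
  have hr0 := h.r0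
  calc |u i * u j / u m * (a i * c j)| * |u m * u k / u s * c k| ≤ (r * β ^ 2) * β :=
        mul_le_mul (h.ab2 hρ hρ1 hr hij hw) e1 (abs_nonneg _) (by positivity)
    _ = r * β ^ 3 := by ring

theorem az (h : SlU S p ρ r β u b a w c) : a 0 = 0 := h.aS 0 h.S0

theorem cz (h : SlU S p ρ r β u b a w c) : c 0 = 0 := h.cS 0 h.S0

theorem nS (h : SlU S p ρ r β u b a w c) {s : Fin 12} (hs : s ∉ SL) : s ∉ S :=
  fun h' => hs (h.SSL h')

/-- slot `1` -/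
theorem d1 (h : SlU S p ρ r β u b a w c) : |c 1 - (w 1 - a 1)| ≤ r * β := by
  have hr := h.r0
  have hβ := h.β0
  have u1 := (h.sd.pos 1).ne'
  by_cases hs : (1 : Fin 12) ∈ S
  · rw [h.aS 1 hs, h.wS 1 hs, h.cS 1 hs]
    norm_num
    positivity
  · have := h.e 1 hs
    have e : compU u a c 1 = a 1 + c 1 := by
      show (u 1 * a 1 + u 1 * c 1) / u 1 = _
      field_simp
    rw [e, abs_sub_comm] at this
    have e2 : c 1 - (w 1 - a 1) = a 1 + c 1 - w 1 := by ring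
    rw [e2]; exact this

/-- slot `2` -/
theorem d2 (h : SlU S p ρ r β u b a w c) : |c 2 - (w 2 - a 2)| ≤ r * β := by
  have hr := h.r0
  have hβ := h.β0
  have u1 := (h.sd.pos 2).ne'
  by_cases hs : (2 : Fin 12) ∈ S
  · rw [h.aS 2 hs, h.wS 2 hs, h.cS 2 hs]
    norm_num
    positivity
  · have := h.e 2 hs
    have e : compU u a c 2 = a 2 + c 2 := by
      show (u 2 * a 2 + u 2 * c 2 - 2 * (u 1 * a 1 * (u 0 * c 0))) / u 2 = _
      rw [h.cz]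
      field_simp
      ring
    rw [e, abs_sub_comm] at this
    have e2 : c 2 - (w 2 - a 2) = a 2 + c 2 - w 2 := by ring
    rw [e2]; exact this

/-- slots `3, 4` -/
theorem d3 (h : SlU S p ρ r β u b a w c) : |c 3 - (w 3 - a 3)| ≤ r * β := by
  have u1 := (h.sd.pos 3).ne'
  have := h.e 3 (h.nS (by decide))
  have e : compU u a c 3 = a 3 + c 3 := by
    show (u 3 * a 3 + u 3 * c 3) / u 3 = _
    field_simp
  rw [e, abs_sub_comm] at this
  have e2 : c 3 - (w 3 - a 3) = a 3 + c 3 - w 3 := by ring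
  rw [e2]; exact this

theorem d4 (h : SlU S p ρ r β u b a w c) : |c 4 - (w 4 - a 4)| ≤ r * β := by
  have u1 := (h.sd.pos 4).ne'
  have := h.e 4 (h.nS (by decide))
  have e : compU u a c 4 = a 4 + c 4 := by
    show (u 4 * a 4 + u 4 * c 4) / u 4 = _
    field_simp
  rw [e, abs_sub_comm] at this
  have e2 : c 4 - (w 4 - a 4) = a 4 + c 4 - w 4 := by ring
  rw [e2]; exact this

/-- slots `5, 6` -/
theorem d5 (h : SlU S p ρ r β u b a w c) : |c 5 - (w 5 - a 5)| ≤ r * β := by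
  have u1 := (h.sd.pos 5).ne'
  have := h.e 5 (h.nS (by decide))
  have e : compU u a c 5 = a 5 + c 5 := by
    show (u 5 * a 5 + u 5 * c 5 - u 0 * a 0 * (u 3 * c 3)) / u 5 = _
    rw [h.az]
    field_simp
    ring
  rw [e, abs_sub_comm] at this
  have e2 : c 5 - (w 5 - a 5) = a 5 + c 5 - w 5 := by ring
  rw [e2]; exact this

theorem d6 (h : SlU S p ρ r β u b a w c) : |c 6 - (w 6 - a 6)| ≤ r * β := by
  have u1 := (h.sd.pos 6).ne'
  have := h.e 6 (h.nS (by decide))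
  have e : compU u a c 6 = a 6 + c 6 := by
    show (u 6 * a 6 + u 6 * c 6 - u 0 * a 0 * (u 4 * c 4)) / u 6 = _
    rw [h.az]
    field_simp
    ring
  rw [e, abs_sub_comm] at this
  have e2 : c 6 - (w 6 - a 6) = a 6 + c 6 - w 6 := by ring
  rw [e2]; exact this

/-- slot `7` -/
theorem d7 (h : SlU S p ρ r β u b a w c) (h7 : (7 : Fin 12) ∉ S) :
    |c 7 - (w 7 - a 7 - u 2 * u 3 / u 7 * (a 2 * c 3) - 2 * (u 1 * u 5 / u 7 * (a 1 * c 5)))| ≤
      r * β := by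
  have u1 := (h.sd.pos 7).ne'
  have := h.e 7 h7
  have e : compU u a c 7 = a 7 + c 7 + u 2 * u 3 / u 7 * (a 2 * c 3) +
      2 * (u 1 * u 5 / u 7 * (a 1 * c 5)) := by
    show (u 7 * a 7 + u 7 * c 7 + u 2 * a 2 * (u 3 * c 3) + 2 * (u 1 * a 1 * (u 5 * c 5))) / u 7 = _
    field_simp
  rw [e, abs_sub_comm] at this
  refine le_trans (le_of_eq ?_) this
  congr 1; ring

theorem d8 (h : SlU S p ρ r β u b a w c) (h8 : (8 : Fin 12) ∉ S) :
    |c 8 - (w 8 - a 8 - u 2 * u 4 / u 8 * (a 2 * c 4) - 2 * (u 1 * u 6 / u 8 * (a 1 * c 6)))| ≤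
      r * β := by
  have u1 := (h.sd.pos 8).ne'
  have := h.e 8 h8
  have e : compU u a c 8 = a 8 + c 8 + u 2 * u 4 / u 8 * (a 2 * c 4) +
      2 * (u 1 * u 6 / u 8 * (a 1 * c 6)) := by
    show (u 8 * a 8 + u 8 * c 8 + u 2 * a 2 * (u 4 * c 4) + 2 * (u 1 * a 1 * (u 6 * c 6))) / u 8 = _
    field_simp
  rw [e, abs_sub_comm] at this
  refine le_trans (le_of_eq ?_) this
  congr 1; ring

/-- slot `9` -/
theorem d9 (h : SlU S p ρ r β u b a w c) :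
    |c 9 - (w 9 - a 9 - u 3 * u 5 / u 9 * (a 3 * c 5) - u 4 * u 6 / u 9 * (a 4 * c 6))| ≤
      r * β := by
  have u1 := (h.sd.pos 9).ne'
  have := h.e 9 (h.nS (by decide))
  have e : compU u a c 9 = a 9 + c 9 + u 3 * u 5 / u 9 * (a 3 * c 5) +
      u 4 * u 6 / u 9 * (a 4 * c 6) := by
    show (u 9 * a 9 + u 9 * c 9 - u 0 * a 0 * (((u 3 * c 3) ^ 2 + (u 4 * c 4) ^ 2) / 2) +
      u 3 * a 3 * (u 5 * c 5 - u 0 * a 0 * (u 3 * c 3)) +
      u 4 * a 4 * (u 6 * c 6 - u 0 * a 0 * (u 4 * c 4))) / u 9 = _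
    rw [h.az]
    field_simp
    ring
  rw [e, abs_sub_comm] at this
  refine le_trans (le_of_eq ?_) this
  congr 1; ring

/-- slot `10` -/
theorem d10 (h : SlU S p ρ r β u b a w c) :
    |c 10 - (w 10 - a 10 + u 7 * u 3 / u 10 * (a 7 * c 3) + u 8 * u 4 / u 10 * (a 8 * c 4) +
      (u 2 * u 3 * u 3 / u 10 * (a 2 * (c 3 * c 3)) +
        u 2 * u 4 * u 4 / u 10 * (a 2 * (c 4 * c 4))) / 2 +
      2 * (u 1 * u 5 * u 3 / u 10 * (a 1 * (c 5 * c 3)) +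
        u 1 * u 6 * u 4 / u 10 * (a 1 * (c 6 * c 4)) - u 1 * u 9 / u 10 * (a 1 * c 9)))| ≤
      r * β := by
  have u1 := (h.sd.pos 10).ne'
  have := h.e 10 (h.nS (by decide))
  have e : compU u a c 10 = a 10 + c 10 - (u 7 * u 3 / u 10 * (a 7 * c 3) +
      u 8 * u 4 / u 10 * (a 8 * c 4) +
      (u 2 * u 3 * u 3 / u 10 * (a 2 * (c 3 * c 3)) +
        u 2 * u 4 * u 4 / u 10 * (a 2 * (c 4 * c 4))) / 2 +
      2 * (u 1 * u 5 * u 3 / u 10 * (a 1 * (c 5 * c 3)) +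
        u 1 * u 6 * u 4 / u 10 * (a 1 * (c 6 * c 4)) - u 1 * u 9 / u 10 * (a 1 * c 9))) := by
    show (u 10 * a 10 + u 10 * c 10 - u 7 * a 7 * (u 3 * c 3) - u 8 * a 8 * (u 4 * c 4) -
      u 2 * a 2 * (((u 3 * c 3) ^ 2 + (u 4 * c 4) ^ 2) / 2) -
      2 * (u 1 * a 1 * (u 5 * c 5 * (u 3 * c 3) + u 6 * c 6 * (u 4 * c 4) - u 9 * c 9))) / u 10 = _
    field_simp
    ring
  rw [e, abs_sub_comm] at this
  refine le_trans (le_of_eq ?_) this
  congr 1; ring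

/-- slot `11` -/
theorem d11 (h : SlU S p ρ r β u b a w c) :
    |c 11 - (w 11 - a 11 + u 7 * u 5 / u 11 * (a 7 * c 5) + u 8 * u 6 / u 11 * (a 8 * c 6) +
      u 2 * u 9 / u 11 * (a 2 * c 9) + (u 1 * u 5 * u 5 / u 11 * (a 1 * (c 5 * c 5)) +
        u 1 * u 6 * u 6 / u 11 * (a 1 * (c 6 * c 6))))| ≤ r * β := by
  have u1 := (h.sd.pos 11).ne'
  have := h.e 11 (h.nS (by decide))
  have e : compU u a c 11 = a 11 + c 11 - (u 7 * u 5 / u 11 * (a 7 * c 5) +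
      u 8 * u 6 / u 11 * (a 8 * c 6) +
      u 2 * u 9 / u 11 * (a 2 * c 9) + (u 1 * u 5 * u 5 / u 11 * (a 1 * (c 5 * c 5)) +
        u 1 * u 6 * u 6 / u 11 * (a 1 * (c 6 * c 6)))) := by
    show (u 11 * a 11 + u 11 * c 11 - u 0 * a 0 * (u 10 * c 10) -
      u 7 * a 7 * (u 5 * c 5 - u 0 * a 0 * (u 3 * c 3)) -
      u 8 * a 8 * (u 6 * c 6 - u 0 * a 0 * (u 4 * c 4)) -
      u 2 * a 2 * (u 9 * c 9 - u 0 * a 0 * (((u 3 * c 3) ^ 2 + (u 4 * c 4) ^ 2) / 2)) -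
      u 1 * a 1 * ((u 5 * c 5) ^ 2 + (u 6 * c 6) ^ 2 - 2 * (u 0 * a 0 *
        (u 5 * c 5 * (u 3 * c 3) + u 6 * c 6 * (u 4 * c 4) - u 9 * c 9)))) / u 11 = _
    rw [h.az]
    field_simp
    ring
  rw [e, abs_sub_comm] at this
  refine le_trans (le_of_eq ?_) this
  congr 1; ring

/-! ### components -/

theorem b0 (h : SlU S p ρ r β u b a w c) : |b 0| ≤ 1 := by
  rw [← sq_le_one_iff_abs_le_one]; nlinarith [sq_nonneg (b 1), h.b1]

theorem b1' (h : SlU S p ρ r β u b a w c) : |b 1| ≤ 1 := by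
  rw [← sq_le_one_iff_abs_le_one]; nlinarith [sq_nonneg (b 0), h.b1]

theorem tt_le (h : SlU S p ρ r β u b a w c) {i j : Fin 12} {v : Fin 12 → ℝ} {M : ℝ}
    (hi : |v i| ≤ M) (hj : |v j| ≤ M) : |tt b i j v| ≤ 2 * M := by
  unfold tt
  refine (abs_add_le _ _).trans ?_
  rw [abs_mul, abs_mul, abs_neg]
  have := mul_le_mul h.b1' hi (abs_nonneg _) zero_le_one
  have := mul_le_mul h.b0 hj (abs_nonneg _) zero_le_one
  linarith

theorem bb_le (h : SlU S p ρ r β u b a w c) {i j : Fin 12} {v : Fin 12 → ℝ} {M : ℝ}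
    (hi : |v i| ≤ M) (hj : |v j| ≤ M) : |bb b i j v| ≤ 2 * M := by
  unfold bb
  refine (abs_add_le _ _).trans ?_
  rw [abs_mul, abs_mul]
  have := mul_le_mul h.b0 hi (abs_nonneg _) zero_le_one
  have := mul_le_mul h.b1' hj (abs_nonneg _) zero_le_one
  linarith

/-- the live component of `c` is the difference -/
theorem tt_sub (h : SlU S p ρ r β u b a w c) {i j : Fin 12} {M : ℝ}
    (hi : |c i - (w i - a i)| ≤ M) (hj : |c j - (w j - a j)| ≤ M) :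
    |tt b i j c - (tt b i j w - tt b i j a)| ≤ 2 * M := by
  have e : tt b i j c - (tt b i j w - tt b i j a) =
      -b 1 * (c i - (w i - a i)) + b 0 * (c j - (w j - a j)) := by
    unfold tt; ring
  rw [e]
  refine (abs_add_le _ _).trans ?_
  rw [abs_mul, abs_mul, abs_neg]
  have := mul_le_mul h.b1' hi (abs_nonneg _) zero_le_one
  have := mul_le_mul h.b0 hj (abs_nonneg _) zero_le_one
  linarith

/-- the product of two pairs -/
theorem pair (h : SlU S p ρ r β u b a w c) (i j k l : Fin 12) {D : ℝ}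
    (hb : |bb b k l c| ≤ r * β) (hD : |tt b k l c - D| ≤ 2 * (r * β)) :
    |(a i * c k + a j * c l) - tt b i j a * D| ≤ r * β ^ 3 := by
  have hβ := h.β8
  have hr := h.r0
  have e : (a i * c k + a j * c l) - tt b i j a * D =
      tt b i j a * (tt b k l c - D) + bb b i j a * bb b k l c := by
    rw [tt_bb h.b1]; ring
  rw [e]
  refine (abs_add_le _ _).trans ?_
  rw [abs_mul, abs_mul]
  have e1 := h.tt_le (h.a1 i) (h.a1 j)
  have e2 := h.bb_le (h.a1 i) (h.a1 j)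
  have e3 := mul_le_mul e1 hD (abs_nonneg _) (by positivity)
  have e4 := mul_le_mul e2 hb (abs_nonneg _) (by positivity)
  have e5 : 2 * β * (2 * (r * β)) + 2 * β * (r * β) = 6 * (r * β ^ 2) := by ring
  have e6 : 6 * (r * β ^ 2) ≤ r * β ^ 3 := by
    have : 0 ≤ r * β ^ 2 := by positivity
    nlinarith
  linarith

/-- **the live components of the flags**, products with `G`, `D` absorbed -/
theorem d78 (h : SlU S p ρ r β u b a w c) (hρ : 0 < ρ) (hρ1 : ρ ≤ 1) (hr : r = ρ ^ y)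
    (h7 : (7 : Fin 12) ∉ S) (h8 : (8 : Fin 12) ∉ S)
    (A1 : Ab1 S p y r u 1 5 7) (A2 : Ab1 S p y r u 1 6 8) (A3 : Ab1 S p y r u 2 3 7)
    (A4 : Ab1 S p y r u 2 4 8) : |tt b 7 8 c - (tt b 7 8 w - tt b 7 8 a)| ≤ r * β ^ 3 := by
  have hβ := h.β8
  have hr0 := h.r0
  have k1 := h.ab2 hρ hρ1 hr A1 h.sd.w7'
  have k2 := h.ab2 hρ hρ1 hr A2 h.sd.w8'
  have k3 := h.ab2 hρ hρ1 hr A3 h.sd.w7
  have k4 := h.ab2 hρ hρ1 hr A4 h.sd.w8
  have g1 := h.d7 h7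
  have g2 := h.d8 h8
  have f1 : r * β ≤ r * β ^ 2 := by
    have : 0 ≤ r * β := by positivity
    nlinarith
  have m1 : |c 7 - (w 7 - a 7)| ≤ 4 * (r * β ^ 2) := by
    rw [abs_le] at g1 k1 k3 ⊢
    constructor <;> linarith [g1.1, g1.2, k1.1, k1.2, k3.1, k3.2]
  have m2 : |c 8 - (w 8 - a 8)| ≤ 4 * (r * β ^ 2) := by
    rw [abs_le] at g2 k2 k4 ⊢
    constructor <;> linarith [g2.1, g2.2, k2.1, k2.2, k4.1, k4.2]
  refine (h.tt_sub m1 m2).trans ?_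
  have : 0 ≤ r * β ^ 2 := by positivity
  nlinarith

end SlU

/-- **`SlabV` from a one-slice statement** -/
theorem mkV {B : Base} {G : ℕ → RCfg (Fin 12)} {Leg : Set (Fin 12 → ℝ)}
    {ν : (Fin 12 → ℝ) → ℝ} {D : ℝ} (H : RUnif B G Leg ν D) {S : Finset (Fin 12)}
    {u : ℕ → Fin 12 → ℝ} {b : ℕ → Fin 2 → ℝ} {x : ℝ} (L : LawU B G S u x) (T : ThinU B G b x)
    {i0 k0 : ℕ → ℕ} (h0 : ∀ᶠ n in (U : Filter ℕ), (i0 n, k0 n) ∈ (G n).I) {pS : Fin 12 → ℝ}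
    (lS : pS ∈ Leg) {y : ℝ} (hy : 0 < y) (hyx : y ≤ x)
    {JC JX JH : Finset (Fin 12)} (dis : ∀ j ∈ JX, j ∉ JC) (hC : ∀ j ∈ JH, j ∉ JC)
    (hX : ∀ j ∈ JH, j ∉ JX) (zC : ∀ j ∈ JC, pS j = 0) (zX : ∀ j ∈ JX, pS j = 0)
    (zH : ∀ j ∈ JH, pS j = 0) (fc fx fh : (Fin 2 → ℝ) → (Fin 12 → ℝ) → ℝ)
    (P : ℕ → Prop) (hP : ∀ᶠ n in (U : Filter ℕ), P n) {m : ℕ} (hm : 0 < m)
    (key : ∀ (n : ℕ) (β : ℝ) (a w c : Fin 12 → ℝ), P n →
      SlU S pS (B.d n) (B.d n ^ y) β (u n) (b n) a w c →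
      |fc (b n) a| ≤ β ^ m ∧ |fx (b n) a| ≤ β ^ m ∧
      Cmp JC c (fc (b n) w - fc (b n) a) (B.d n ^ y) (β ^ m) ∧
      Cmp JX c (fx (b n) w - fx (b n) a) (B.d n ^ y) (β ^ m) ∧
      Cmp JH c ((fh (b n) w - fh (b n) a) - fc (b n) a * (fx (b n) w - fx (b n) a)) (B.d n ^ y)
        (β ^ m)) :
    SlabV B G i0 k0 pS JC JX JH (fun n l => fc (b n) ((G n).rel (k0 n) (i0 n) l))
      (fun n l => fx (b n) ((G n).rel (k0 n) (i0 n) l))
      (fun n l => fh (b n) ((G n).rel (k0 n) (i0 n) l)) y where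
  dis := dis
  hC := hC
  hX := hX
  zC := zC
  zX := zX
  zH := zH
  co := by
    intro C0 hC0
    obtain ⟨K, hK, h1⟩ := exists_SlU H L T h0 lS hy hyx hC0
    have hm' : (0 : ℝ) < m := Nat.cast_pos.2 hm
    refine ⟨m * K, by positivity, fun ε hε => ?_⟩
    filter_upwards [h1 ε hε, hP] with n hn hPn l hl
    have e : (B.d n ^ (-(K * ε))) ^ m = B.d n ^ (-(m * K * ε)) := by
      rw [← Real.rpow_natCast, ← Real.rpow_mul (B.pos n).le]
      congr 1; ring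
    have k0 := key n _ _ _ _ hPn (hn.2 l hl l hl)
    rw [e] at k0
    refine ⟨k0.1, k0.2.1, fun l' hl' => ?_⟩
    have k1 := key n _ _ _ _ hPn (hn.2 l hl l' hl')
    rw [e] at k1
    exact k1.2.2

end Crest.Agent.R116.Kr710
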