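import Crest.Agent.R116.WinG_954
import Crest.Agent.R116.Bd2_369
import Crest.Agent.R116.Kr11_710

/-!
# R116, K-TEXT II-c (helper954): the dead direction of a window (`ThinU` of helper710)

* `FlagD` : the flag data (`FlagE`, 369's `FlagN`, length `≥ 1/2` of the lateral gradient).
* `Pos` : base points near a natural box in the slots `≥ 3`, equal pairs.
* `thinU_of` : `ThinU W.B' (W.cfg E) (tau (inc n (W.s₀ n))) x`, `thin2_of` the slots `3..6` only.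
-/

set_option autoImplicit false
set_option linter.unusedVariables false
set_option linter.unusedSectionVars false

open Filter Topology

namespace Crest.Agent.R116.ThinD954

open Finset
open Crest.Agent.R138.Ex926
open Crest.Agent.R136.Net191 Crest.Agent.R136.Qg926 Crest.Agent.R136.Gf356
open Crest.Agent.R116.ChL222 Crest.Agent.R116.PL504 Crest.Agent.R116.EvL504
open Crest.Agent.R116.WinG954 Crest.Agent.R116.Xd954 Crest.Agent.R116.Bd369
open Crest.Agent.R116.Kr710 (ThinU)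

/-- the flag data of the incidences `I` -/
structure FlagD (B : Base) (I : ℕ → Finset (ℕ × ℝ)) (lev : ℕ → ℚ → ℕ)
    (inc : ℕ → ℕ × ℝ → LInc) (σ : Fin 2 → ℕ → ℝ) (k0 ϑ : ℝ) : Prop where
  fe : FlagE B I lev inc σ k0 ϑ
  fn : FlagN B I inc σ
  ge : ∀ᶠ n in (U : Filter ℕ), ∀ x ∈ I n, 1 / 4 ≤ Xd954.bb (inc n x) 0 ^ 2 + Xd954.bb (inc n x) 1 ^ 2

theorem FlagD.mono {B : Base} {I I' : ℕ → Finset (ℕ × ℝ)} {lev : ℕ → ℚ → ℕ}
    {inc : ℕ → ℕ × ℝ → LInc} {σ : Fin 2 → ℕ → ℝ} {k0 ϑ : ℝ} (h : FlagD B I lev inc σ k0 ϑ)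
    (hs : ∀ n, I' n ⊆ I n) : FlagD B I' lev inc σ k0 ϑ where
  fe :=
    { σp := h.fe.σp
      he := fun ε hε => (h.fe.he ε hε).mono fun n hn x hx => hn x (hs n hx)
      hd := fun ε hε => (h.fe.hd ε hε).mono fun n hn x hx => hn x (hs n hx)
      hk := h.fe.hk }
  fn := fun ε hε => (h.fn ε hε).mono fun n hn x hx => hn x (hs n hx)
  ge := h.ge.mono fun n hn x hx => hn x (hs n hx)

/-- base points with equal pairs, near the natural box `(v, t, y)` in the slots `≥ 3` -/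
structure Pos (X : ℕ → Fin 12 → ℝ) (w0 sa sb v t y δ : ℝ) : Prop where
  near : ∀ᶠ n in (U : Filter ℕ), ∀ k, 3 ≤ k → |X n k - PL504.nb w0 sa sb v t y k| ≤ δ / 2
  e3 : ∀ᶠ n in (U : Filter ℕ), X n 3 = X n 4
  e5 : ∀ᶠ n in (U : Filter ℕ), X n 5 = X n 6
  e7 : ∀ᶠ n in (U : Filter ℕ), X n 7 = X n 8

/-- base points which converge to a natural box -/
theorem Pos.of_tendsto {X : ℕ → Fin 12 → ℝ} {w0 sa sb v t y δ : ℝ} (hδ : 0 < δ)
    (h : ∀ k, 3 ≤ k → Tendsto (fun n => X n k) U (𝓝 (PL504.nb w0 sa sb v t y k)))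
    (e3 : ∀ᶠ n in (U : Filter ℕ), X n 3 = X n 4) (e5 : ∀ᶠ n in (U : Filter ℕ), X n 5 = X n 6)
    (e7 : ∀ᶠ n in (U : Filter ℕ), X n 7 = X n 8) : Pos X w0 sa sb v t y δ where
  near := by
    rw [eventually_all]
    intro k
    by_cases hk : 3 ≤ k
    · have h1 := (h k hk).eventually (Metric.closedBall_mem_nhds _ (half_pos hδ))
      filter_upwards [h1] with n hn _
      rw [Real.dist_eq] at hn
      exact hn
    · exact Eventually.of_forall fun n h3 => absurd h3 hk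
  e3 := e3
  e5 := e5
  e7 := e7

variable {W : Wnd 12 (fun _ => ℕ × ℝ)} {I : ℕ → Finset (ℕ × ℝ)} {lev : ℕ → ℚ → ℕ}
    {inc : ℕ → ℕ × ℝ → LInc} {σ : Fin 2 → ℕ → ℝ} {k0 ϑ w0 sa sb v t y δ K tp : ℝ}
    {E : ∀ n, Finset (ℕ × ℝ)}

/-- unit vector along the lateral gradient of the flag of the base incidence -/
noncomputable def dir (W : Wnd 12 (fun _ => ℕ × ℝ)) (inc : ℕ → ℕ × ℝ → LInc) (n : ℕ) (s : Fin 2) :
    ℝ := tau (inc n (W.s₀ n)) s

/-- **the dead direction of the pairs `{3,4}`, `{5,6}`** -/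
theorem thin2_of (h : WL W K tp) (hr : ∀ᶠ n in (U : Filter ℕ), Reg W E n)
    (hco : W.co = Gd222.coN W.B lev inc σ w0 sa sb)
    (hI : ∀ᶠ n in (U : Filter ℕ), W.Cl n ⊆ I n) (hF : FlagE W.B I lev inc σ k0 ϑ)
    (hb : ∀ᶠ n in (U : Filter ℕ), ∀ x ∈ I n,
      1 / 4 ≤ Xd954.bb (inc n x) 0 ^ 2 + Xd954.bb (inc n x) 1 ^ 2)
    (hm : Mrg k0 ϑ v t y δ)
    (hX : ∀ᶠ n in (U : Filter ℕ), ∀ k, 3 ≤ k → |W.X n k - PL504.nb w0 sa sb v t y k| ≤ δ / 2)
    (e3 : ∀ᶠ n in (U : Filter ℕ), W.X n 3 = W.X n 4)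
    (e5 : ∀ᶠ n in (U : Filter ℕ), W.X n 5 = W.X n 6) (hw : Tendsto W.w U (𝓝 0)) (x : ℝ) :
    (∀ᶠ n in (U : Filter ℕ), dir W inc n 0 ^ 2 + dir W inc n 1 ^ 2 = 1) ∧
    ∀ᶠ n in (U : Filter ℕ), ∀ k i l, (i, k) ∈ (W.cfg E n).I → (l, k) ∈ (W.cfg E n).I →
      |dir W inc n 0 * (W.cfg E n).rel k i l 3 + dir W inc n 1 * (W.cfg E n).rel k i l 4| ≤
        W.B'.d n ^ x ∧
      |dir W inc n 0 * (W.cfg E n).rel k i l 5 + dir W inc n 1 * (W.cfg E n).rel k i l 6| ≤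
        W.B'.d n ^ x := by
  constructor
  · filter_upwards [h.ok.ev_good, hI, hb] with n g hIn hbn
    exact tau_sq (by linarith [hbn _ (hIn g.s0)])
  · have k3 : W.kap 3 = W.kap 4 := by rw [h.kap, h.kap]; rfl
    have k5 : W.kap 5 = W.kap 6 := by rw [h.kap, h.kap]; rfl
    filter_upwards [hr, dim_window h.ok hco hI hF hb hm hX e3 e5 k3 k5 hw x] with n r hd k i l hi hl
    have h1 := hd _ (r.spec hi).1 _ (r.spec hl).1
    rw [r.rel_of (h.notS (s := 3) (by decide)), r.rel_of (h.notS (s := 4) (by decide)),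
      r.rel_of (h.notS (s := 5) (by decide)), r.rel_of (h.notS (s := 6) (by decide))]
    exact h1

/-- **the dead direction of the pairs `{3,4}`, `{5,6}`, `{7,8}`** = 710's `ThinU` -/
theorem thinU_of (h : WL W K tp) (hr : ∀ᶠ n in (U : Filter ℕ), Reg W E n)
    (hS7 : (7 : Fin 12) ∉ W.S) (hS8 : (8 : Fin 12) ∉ W.S)
    (hco : W.co = Gd222.coN W.B lev inc σ w0 sa sb)
    (hI : ∀ᶠ n in (U : Filter ℕ), W.Cl n ⊆ I n) (hF : FlagD W.B I lev inc σ k0 ϑ)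
    (hm : Mrg k0 ϑ v t y δ) (hty : 3 * δ ≤ t - y) (hX : Pos W.X w0 sa sb v t y δ)
    (hw : Tendsto W.w U (𝓝 0)) (x : ℝ) : ThinU W.B' (W.cfg E) (dir W inc) x := by
  obtain ⟨a1, a2⟩ := thin2_of h hr hco hI hF.fe hF.ge hm hX.near hX.e3 hX.e5 hw x
  have k7 : W.kap 7 = W.kap 8 := by rw [h.kap, h.kap]; rfl
  have hle : ∀ ε : ℝ, 0 < ε → ∀ n, W.B'.d n ^ x ≤ W.B'.d n ^ (x - ε) := fun ε hε n =>
    Real.rpow_le_rpow_of_exponent_ge (W.B'.pos n) (W.B'.lt n).le (by linarith)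
  refine ⟨a1, fun ε hε => ?_, fun ε hε => ?_, fun ε hε => ?_⟩
  · filter_upwards [a2] with n hn k i l hi hl
    exact (hn k i l hi hl).1.trans (hle ε hε n)
  · filter_upwards [a2] with n hn k i l hi hl
    exact (hn k i l hi hl).2.trans (hle ε hε n)
  · filter_upwards [hr, dimB_window h.ok hco hI hF.fe hF.fn hF.ge hm hty hX.near hX.e7 k7 hw x]
      with n r hd k i l hi hl
    have h1 := hd _ (r.spec hi).1 _ (r.spec hl).1
    rw [r.rel_of hS7, r.rel_of hS8]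
    exact h1.trans (hle ε hε n)

section

variable {B : Base} {J : ℕ → Finset (ℕ × ℝ)}
    {co : ∀ n : ℕ, ℕ × ℝ → ℕ × ℝ → Fin 12 → ℝ} {C : ℝ} {D : Set (Fin 12 → ℝ)}
    {ν lam : (Fin 12 → ℝ) → ℝ} {X : ℕ → Fin 12 → ℝ} {h : ℕ → ℝ} {k' : ℕ → ℕ} {T : ℝ}
    {Mw : Mons 12} {top : Fin 12 → ℝ}

/-- **`ThinU` for the windows of `exists_winD` / `exists_winM`**: the coordinates are `coN`, the
class lies in `J`, the base points converge to a natural box in the slots `≥ 3`. -/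
theorem _root_.Crest.Agent.R116.WinG954.WinG.thin
    (w : WinG W B I J co C D ν lam X h k' T Mw top)
    (hco : co = Gd222.coN B lev inc σ w0 sa sb) (hh : Tendsto h atTop (𝓝 0))
    (hk : Tendsto k' U atTop) (hr : ∀ᶠ n in (U : Filter ℕ), Reg W E n)
    (hJ : ∀ᶠ n in (U : Filter ℕ), W.Cl n ⊆ J n) (hF : FlagD B J lev inc σ k0 ϑ)
    (hm : Mrg k0 ϑ v t y δ) (hty : 3 * δ ≤ t - y)
    (hX : ∀ s, 3 ≤ s → Tendsto (fun l => X l s) atTop (𝓝 (PL504.nb w0 sa sb v t y s)))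
    (e3 : ∀ᶠ l in atTop, X l 3 = X l 4) (e5 : ∀ᶠ l in atTop, X l 5 = X l 6)
    (e7 : ∀ᶠ l in atTop, X l 7 = X l 8) (x : ℝ) :
    ThinU W.B' (W.cfg E) (dir W inc) x := by
  have hB := w.hB
  refine thinU_of (I := J) (w0 := w0) (sa := sa) (sb := sb) w.wl hr (by rw [w.hS]; decide)
    (by rw [w.hS]; decide) (by rw [w.hco, w.hB, hco]) hJ (by rw [w.hB]; exact hF) hm hty
    (Pos.of_tendsto hm.pos (fun s hs => w.X_tendsto (hX s hs) hk) ?_ ?_ ?_)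
    (w.w_tendsto hh hk) x
  · exact w.ev_of (P := fun c _ => c 3 = c 4) e3 hk
  · exact w.ev_of (P := fun c _ => c 5 = c 6) e5 hk
  · exact w.ev_of (P := fun c _ => c 7 = c 8) e7 hk

end

end Crest.Agent.R116.ThinD954
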