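import Crest.Agent.R116.A1c_79
import Crest.Agent.R116.ThinD_954

/-!
# R116, (A1) of the rows (helper79), part 4: the dead direction in the windows

* **`dim_pair`** : `C_b = κ C_a`, `X_b = κ X_a` up to `d'^T`, `|κ| ≤ 4`
* `dim_sig`      : the same in the windows at the bases of `SigP`
-/

set_option autoImplicit false
set_option linter.unusedVariables false
set_option linter.unusedSectionVars false

open Finset Filter Topology

namespace Crest.Agent.R116.A1T79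

open Crest.Agent.R138.Ex926 (Base U IsTan)
open Crest.Agent.R136
open Crest.Agent.R136.MkA627
open Crest.Agent.R136.Net191
open Crest.Agent.R136.Qg926
open Crest.Agent.R136.Lq196
open Crest.Agent.R116.LZg725
open Crest.Agent.R116.ChL222
open Crest.Agent.R116.PL504 (βL eL rL oL Shift nb DN)
open Crest.Agent.R116.Gd222 (TSet sN PDL DT vb gam)
open Crest.Agent.R116.KI439 (LRay)
open Crest.Agent.R116.Tw468
open Crest.Agent.R116.CtxB468
open Crest.Agent.R116.Nar192 (StgM NsTc tC hax_of)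
open Crest.Agent.R116.Sg337 (bx9 coneL natB SL)
open Crest.Agent.R116.WinG954 (monD topD legalD_iff WinG)
open Crest.Agent.R116.RowU194 (SigP xB)
open Crest.Agent.R116.Xd954 (bb cs xs FlagX FlagE Mrg tau dim_window exists_mrg)

/-- **the dead direction**: one `κ` for both pairs -/
theorem dim_pair {W : Wnd 12 (fun _ => ℕ × ℝ)} {I : ℕ → Finset (ℕ × ℝ)} {lev : ℕ → ℚ → ℕ}
    {inc : ℕ → ℕ × ℝ → LInc} {σ : Fin 2 → ℕ → ℝ} {k0 ϑ w0 sa sb v t y δ : ℝ} {a b : Fin 2}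
    (ok : W.Ok) (hco : W.co = Gd222.coN W.B lev inc σ w0 sa sb)
    (hI : ∀ᶠ n in (U : Filter ℕ), W.Cl n ⊆ I n) (hF : FlagX W.B I lev inc σ k0 ϑ a b)
    (hm : Mrg k0 ϑ v t y δ)
    (hX : ∀ᶠ n in (U : Filter ℕ), ∀ k, 3 ≤ k → |W.X n k - PL504.nb w0 sa sb v t y k| ≤ δ / 2)
    (hX3 : ∀ᶠ n in (U : Filter ℕ), W.X n 3 = W.X n 4)
    (hX5 : ∀ᶠ n in (U : Filter ℕ), W.X n 5 = W.X n 6)
    (hk3 : W.kap 3 = W.kap 4) (hk5 : W.kap 5 = W.kap 6) (hw : Tendsto W.w U (𝓝 0)) (T : ℝ) :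
    ∀ᶠ n in (U : Filter ℕ), ∃ κ : ℝ, |κ| ≤ 4 ∧ ∀ x ∈ W.Cl n, ∀ y ∈ W.Cl n,
      |W.crd n x y (cs b) - κ * W.crd n x y (cs a)| ≤ W.B'.d n ^ T ∧
      |W.crd n x y (xs b) - κ * W.crd n x y (xs a)| ≤ W.B'.d n ^ T := by
  have hb : ∀ᶠ n in (U : Filter ℕ), ∀ x ∈ I n,
      1 / 4 ≤ bb (inc n x) 0 ^ 2 + bb (inc n x) 1 ^ 2 := by
    filter_upwards [hF.big] with n hn x hx
    have h1 := hn x hx
    have h2 : (1 / 4 : ℝ) ≤ bb (inc n x) b ^ 2 := by
      rw [← sq_abs]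
      nlinarith
    fin_cases b
    · have := sq_nonneg (bb (inc n x) 1)
      have h3 : (1 / 4 : ℝ) ≤ bb (inc n x) 0 ^ 2 := h2
      linarith
    · have := sq_nonneg (bb (inc n x) 0)
      have h3 : (1 / 4 : ℝ) ≤ bb (inc n x) 1 ^ 2 := h2
      linarith
  filter_upwards [dim_window ok hco hI hF.toFlagE hb hm hX hX3 hX5 hk3 hk5 hw (T + 1), ok.ev_good,
    hI, hF.bd, hF.big, W.B'.ev_rpow_small (η := 1) (c := 1 / 5) one_pos (by norm_num)] with
    n hn g hIn hbd hbig h5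
  have hs0 := hIn g.s0
  set l := inc n (W.s₀ n) with hl
  have ha2 : |bb l a| ≤ 2 := hbd _ hs0
  have hb2 : 1 / 2 ≤ |bb l b| := hbig _ hs0
  have hb0 : bb l b ≠ 0 := by
    intro h
    rw [h, abs_zero] at hb2
    linarith
  have hbp : 0 < |bb l b| := by linarith
  have e01 : bb l 0 ^ 2 + bb l 1 ^ 2 = bb l a ^ 2 + bb l b ^ 2 := by
    have hab := hF.ab
    fin_cases a <;> fin_cases b
    · exact absurd rfl hab
    · rfl
    · show bb l 0 ^ 2 + bb l 1 ^ 2 = bb l 1 ^ 2 + bb l 0 ^ 2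
      ring
    · exact absurd rfl hab
  set N := Real.sqrt (bb l 0 ^ 2 + bb l 1 ^ 2) with hN
  have hN1 : 0 < bb l 0 ^ 2 + bb l 1 ^ 2 := by
    rw [e01]
    have : 0 < bb l b ^ 2 := by positivity
    have := sq_nonneg (bb l a)
    linarith
  have hN0 : 0 < N := Real.sqrt_pos.2 hN1
  have hN2 : N ≤ 5 * |bb l b| := by
    rw [hN]
    refine Real.sqrt_le_iff.2 ⟨by positivity, ?_⟩
    rw [e01]
    have h1 : bb l a ^ 2 ≤ 4 := by
      rw [← sq_abs]
      nlinarith [abs_nonneg (bb l a)]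
    have h2 : bb l b ^ 2 = |bb l b| ^ 2 := (sq_abs _).symm
    rw [h2]
    nlinarith
  have dp := Real.rpow_pos_of_pos (W.B'.pos n) T
  have hT : W.B'.d n ^ (T + 1) ≤ 1 / 5 * W.B'.d n ^ T := by
    rw [Real.rpow_add (W.B'.pos n)]
    have := mul_le_mul_of_nonneg_left h5 dp.le
    linarith
  refine ⟨-(bb l a / bb l b), ?_, fun x hx y hy => ?_⟩
  · rw [abs_neg, abs_div, div_le_iff₀ hbp]
    linarith
  · have key : ∀ {u1 u2 : ℝ}, |bb l a / N * u1 + bb l b / N * u2| ≤ W.B'.d n ^ (T + 1) →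
        |u2 - -(bb l a / bb l b) * u1| ≤ W.B'.d n ^ T := by
      intro u1 u2 h
      have e : u2 - -(bb l a / bb l b) * u1 = (bb l a / N * u1 + bb l b / N * u2) *
          (N / bb l b) := by
        have := hN0.ne'
        field_simp
        ring
      rw [e, abs_mul]
      have h3 : |N / bb l b| ≤ 5 := by
        rw [abs_div, abs_of_pos hN0, div_le_iff₀ hbp]
        exact hN2
      calc _ ≤ (1 / 5 * W.B'.d n ^ T) * 5 :=
            mul_le_mul (h.trans hT) h3 (abs_nonneg _) (by positivity)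
        _ = W.B'.d n ^ T := by ring
    obtain ⟨h1, h2⟩ := hn x hx y hy
    have hab := hF.ab
    constructor
    · apply key
      refine le_trans (le_of_eq ?_) h1
      congr 1
      fin_cases a <;> fin_cases b
      · exact absurd rfl hab
      · rfl
      · show bb l 1 / N * W.crd n x y 4 + bb l 0 / N * W.crd n x y 3 =
          bb l 0 / N * W.crd n x y 3 + bb l 1 / N * W.crd n x y 4
        ring
      · exact absurd rfl hab
    · apply key
      refine le_trans (le_of_eq ?_) h2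
      congr 1
      fin_cases a <;> fin_cases b
      · exact absurd rfl hab
      · rfl
      · show bb l 1 / N * W.crd n x y 6 + bb l 0 / N * W.crd n x y 5 =
          bb l 0 / N * W.crd n x y 5 + bb l 1 / N * W.crd n x y 6
        ring
      · exact absurd rfl hab

section ctx

variable {G : Geo TSet (Fin 2)} {L : ℕ → ℕ → KI439.LRay} {rr : ℕ → ℝ} {g s : ℝ} {θ q : Fin 2 → ℝ}
    {Rg : ℝ} {B : Base}
    {I : ℕ → Finset (ℕ × ℝ)} {lev : ℕ → ℚ → ℕ} {A0 : ℕ → ℝ}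
    {f0 : ℕ → ℚ → ℕ → ℤ → ℕ} {b0 : ℕ → ℚ → ℕ → TSet} {vm : ℕ → ℚ → ℝ} {w : Fin 2 → ℕ → ℚ → ℝ}
    {fr : ℕ → ℚ → ℕ × ℝ → LInc} {fl : ℕ → ℕ × ℝ → LInc} {sc : Fin 12 → ℕ → ℝ}
    {w0 sa sb δ R : ℝ} {I0 I' : ℕ → Finset (ℕ × ℝ)} {ν own : (Fin 12 → ℝ) → ℝ} {c₀ : ℝ}
    {J : Type*} {c q0 q1 δ' : ℝ} {f : J → (Fin 12 → ℝ) → ℝ} {j0 : J}
    {v0 lam0 : ℝ} {z : ℝ × ℝ} {u k : ℕ → ℝ} {lam : J → (Fin 12 → ℝ) → ℝ} {A : ℝ × ℝ}
    {φ : ℕ → (Fin 12 → ℝ) → ℝ} {r : ℕ → ℝ}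

/-- the bases converge to the record box -/
theorem xB_tendsto {θa θb w0 sa sb v0 lam0 : ℝ} {z : ℝ × ℝ} {u : ℕ → ℝ}
    (hu : Tendsto u atTop (𝓝 0)) (i : Fin 12) :
    Tendsto (fun m => xB θa θb w0 sa sb v0 lam0 z u m i) atTop
      (𝓝 (rL θa θb w0 sa sb v0 i)) := by
  have := (hu.mul_const (SL θa θb lam0 z.1 z.2 i)).const_add (rL θa θb w0 sa sb v0 i)
  rw [zero_mul, add_zero] at this
  exact this

/-- **the dead direction in the windows at the bases of `SigP`** -/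
theorem dim_sig
    (hC : CtxT G L rr g s θ q Rg B I lev A0 f0 b0 vm w fr fl sc w0 sa sb δ R I0 I' ν own c₀)
    (hθ0 : 0 < θ 0)
    (H : SigP R w0 sa sb (θ 0) (θ 1) s c q0 q1 δ' f j0 v0 lam0 z u k lam A φ r)
    {a b : Fin 2} (hF : ∀ κ0 : ℝ, FlagX B I lev fl (sN lev w) κ0 0 a b)
    {D : Set (Fin 12 → ℝ)} {lam' : (Fin 12 → ℝ) → ℝ} {tw : ℝ} {Mw : Mons 12}
    {top : Fin 12 → ℝ} {k' : ℕ → ℕ} (hk' : Tendsto k' U atTop)
    {W : Wnd 12 (fun _ => ℕ × ℝ)}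
    (hW : WinG W B I0 I' (PL504.coN B lev w w0 sa sb fl) 2 D ν lam'
      (xB (θ 0) (θ 1) w0 sa sb v0 lam0 z u) (fun m => u m * k m) k' tw Mw top) (T : ℝ) :
    ∀ᶠ n in (U : Filter ℕ), ∃ κ : ℝ, |κ| ≤ 4 ∧ ∀ x ∈ W.Cl n, ∀ y ∈ W.Cl n,
      |W.crd n x y (cs b) - κ * W.crd n x y (cs a)| ≤ W.B'.d n ^ T ∧
      |W.crd n x y (xs b) - κ * W.crd n x y (xs a)| ≤ W.B'.d n ^ T := by
  have hv1 := H.v01
  have h1v : 0 < 1 - v0 := by linarith
  obtain ⟨δ1, hm⟩ := exists_mrg (k0 := θ 0 * (1 - v0) - θ 1 * (1 - v0) + 1) (ϑ := 0) (v := v0)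
    (t := θ 0 * (1 - v0)) (y := θ 1 * (1 - v0)) (mul_pos hθ0 h1v) (by linarith)
    (by have := mul_pos hθ0 h1v; linarith [H.v00])
  have hB := hW.hB
  refine dim_pair (I := I) (lev := lev) (inc := fl) (σ := sN lev w) (w0 := w0) (sa := sa)
    (sb := sb) hW.wl.ok (by rw [hW.hco, hW.hB]; rfl)
    ?_ (by rw [hB]; exact hF _) hm ?_ ?_ ?_ (by rw [hW.hkap]; rfl) (by rw [hW.hkap]; rfl)
    (hW.w_tendsto H.h0 hk') T
  · filter_upwards [hW.wl.ok.cls.csub] with n hn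
    rw [hW.hJ] at hn
    exact hn.trans ((hC.ext.sub n).trans (hC.sub0 n))
  · exact (ThinD954.Pos.of_tendsto (X := W.X) (w0 := w0) (sa := sa) (sb := sb) (v := v0)
      (t := θ 0 * (1 - v0)) (y := θ 1 * (1 - v0)) hm.pos (fun i _ => by
        rw [← PL504.rL_nb]
        exact hW.X_tendsto (xB_tendsto H.u0 i) hk')
      (hW.ev_of (P := fun c _ => c 3 = c 4) (Eventually.of_forall fun m => by
        obtain ⟨-, -, -, x3, x4, -⟩ :=
          base_slots (θ 0) (θ 1) w0 sa sb v0 lam0 z.1 z.2 (u m)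
        exact x3.trans x4.symm) hk')
      (hW.ev_of (P := fun c _ => c 5 = c 6) (Eventually.of_forall fun m => by
        obtain ⟨-, -, -, -, -, x5, x6, -⟩ :=
          base_slots (θ 0) (θ 1) w0 sa sb v0 lam0 z.1 z.2 (u m)
        exact x5.trans x6.symm) hk')
      (hW.ev_of (P := fun c _ => c 7 = c 8) (Eventually.of_forall fun m => by
        obtain ⟨-, -, -, -, -, -, -, x7, x8, -⟩ :=
          base_slots (θ 0) (θ 1) w0 sa sb v0 lam0 z.1 z.2 (u m)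
        exact x7.trans x8.symm) hk')).near
  · exact hW.ev_of (P := fun c _ => c 3 = c 4) (Eventually.of_forall fun m => by
        obtain ⟨-, -, -, x3, x4, -⟩ :=
          base_slots (θ 0) (θ 1) w0 sa sb v0 lam0 z.1 z.2 (u m)
        exact x3.trans x4.symm) hk'
  · exact hW.ev_of (P := fun c _ => c 5 = c 6) (Eventually.of_forall fun m => by
        obtain ⟨-, -, -, -, -, x5, x6, -⟩ :=
          base_slots (θ 0) (θ 1) w0 sa sb v0 lam0 z.1 z.2 (u m)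
        exact x5.trans x6.symm) hk'

end ctx

end Crest.Agent.R116.A1T79
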