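import Crest.Agent.R116.Ckm1_538

/-!
# R116 (S0155), wave side: coefficient densities on the cone (helper538), port of `R138/Ad_480`

`Den n c A v U S M X t` = density around the point `(X, t)` of the selected packets `S m`, `m ∈ M`:
directions `m` with velocity `v m` and frame `A m` (the plate `{‖A m z‖ ≤ 1}`), energies `U m`.
Cone instance: `frc th kp C z = (th lat z, kp nrm C z 0)`, `Acc`.
-/

set_option autoImplicit false

open MeasureTheory
open scoped ENNReal

namespace Crest.Agent.R116.Cad538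

open Crest.Agent.R138.Defs (E2)
open Crest.Agent.R138.Wpk685 (cen caps)
open Crest.Agent.R116.CDef480 Crest.Agent.R116.Ckm538

/-! ### slow weights -/

section weight

variable {E F : Type*} [NormedAddCommGroup E] [NormedSpace ℝ E] [NormedAddCommGroup F]
  [NormedSpace ℝ F]

/-- polynomial weight of the plate `{‖A z‖ ≤ 1}`. -/
noncomputable def wt (A : E →L[ℝ] F) (n : ℕ) (z : E) : ℝ := ((1 + ‖A z‖) ^ n)⁻¹

theorem wt_pos (A : E →L[ℝ] F) (n : ℕ) (z : E) : 0 < wt A n z := by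
  unfold wt; positivity

theorem wt_le_one (A : E →L[ℝ] F) (n : ℕ) (z : E) : wt A n z ≤ 1 := by
  unfold wt
  have : 0 ≤ ‖A z‖ := norm_nonneg _
  exact inv_le_one_of_one_le₀ (one_le_pow₀ (by linarith))

theorem wt_cont (A : E →L[ℝ] F) (n : ℕ) : Continuous (wt A n) := by
  unfold wt
  refine Continuous.inv₀ (by fun_prop) fun v => ?_
  positivity

theorem wt_anti (A : E →L[ℝ] F) {n n' : ℕ} (h : n ≤ n') (z : E) : wt A n' z ≤ wt A n z := by
  unfold wt
  have : 0 ≤ ‖A z‖ := norm_nonneg _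
  exact inv_anti₀ (by positivity) (pow_le_pow_right₀ (by linarith) h)

/-- slowly varying with the same power. -/
theorem wt_shift (A : E →L[ℝ] F) {δ : ℝ} (hδ : 0 ≤ δ) (n : ℕ) {z z' : E}
    (h : ‖A (z' - z)‖ ≤ δ) : wt A n z ≤ (1 + δ) ^ n * wt A n z' := by
  unfold wt
  have h1 : 0 ≤ ‖A z‖ := norm_nonneg _
  have h2 : 0 ≤ ‖A z'‖ := norm_nonneg _
  rw [← div_eq_mul_inv, inv_eq_one_div, div_le_div_iff₀ (by positivity) (by positivity), one_mul,
    ← mul_pow]
  refine pow_le_pow_left₀ (by positivity) ?_ n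
  have h3 : ‖A z'‖ ≤ ‖A (z' - z)‖ + ‖A z‖ := by
    have := norm_add_le (A (z' - z)) (A z)
    rwa [← map_add, sub_add_cancel] at this
  nlinarith [mul_nonneg hδ h1]

theorem wt_ball (A : E →L[ℝ] F) {X : ℝ} (hX : 0 ≤ X) (n : ℕ) {z : E} (h : ‖A z‖ ≤ X) :
    1 ≤ (1 + X) ^ n * wt A n z := by
  have h1 := wt_shift A hX n (z := (0 : E)) (z' := z) (by simpa using h)
  have h2 : wt A n (0 : E) = 1 := by unfold wt; simp
  rwa [h2] at h1

/-- comparison of two frames. -/
theorem wt_frame {F' : Type*} [NormedAddCommGroup F'] [NormedSpace ℝ F'] (A : E →L[ℝ] F)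
    (A' : E →L[ℝ] F') {K : ℝ} (hK : 1 ≤ K) (n : ℕ) {z : E} (h : ‖A z‖ ≤ K * ‖A' z‖) :
    wt A' n z ≤ K ^ n * wt A n z := by
  unfold wt
  have h1 : 0 ≤ ‖A z‖ := norm_nonneg _
  have h2 : 0 ≤ ‖A' z‖ := norm_nonneg _
  rw [← div_eq_mul_inv, inv_eq_one_div, div_le_div_iff₀ (by positivity) (by positivity), one_mul,
    ← mul_pow]
  exact pow_le_pow_left₀ (by positivity) (by nlinarith) n

/-- sharp cut-off plus tail. -/
theorem wt_split (A : E →L[ℝ] F) {Y : ℝ} (hY : 0 < Y) {n n1 : ℕ} (hn : n1 ≤ n) (z : E) :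
    wt A n z ≤ (if ‖A z‖ ≤ Y then 1 else 0) + (Y ^ (n - n1))⁻¹ * wt A n1 z := by
  have h1 := wt_le_one A n z
  have h2 := wt_pos A n1 z
  split_ifs with h
  · have : 0 ≤ (Y ^ (n - n1))⁻¹ * wt A n1 z := by positivity
    linarith
  · rw [zero_add]
    unfold wt
    rw [← mul_inv]
    have hv : 0 ≤ ‖A z‖ := norm_nonneg _
    refine inv_anti₀ (by positivity) ?_
    have e : (1 + ‖A z‖) ^ n = (1 + ‖A z‖) ^ (n - n1) * (1 + ‖A z‖) ^ n1 := by
      rw [← pow_add, Nat.sub_add_cancel hn]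
    rw [e]
    refine mul_le_mul_of_nonneg_right (pow_le_pow_left₀ hY.le ?_ _) (by positivity)
    linarith [not_le.1 h]

end weight

/-! ### densities -/

section den

variable {E F : Type*} [NormedAddCommGroup E] [NormedSpace ℝ E] [NormedAddCommGroup F]
  [NormedSpace ℝ F] [MeasurableSpace E]

/-- density of the selected packets with directions in `M` around the point `(X, t)`. -/
noncomputable def Den {κ : Type*} (μ : Measure E) (n : ℕ) (c : ℝ) (A : κ → E →L[ℝ] F) (v : κ → E)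
    (U : κ → E → ℝ≥0∞) (S : κ → Set E) (M : Finset κ) (X : E) (t : ℝ) : ℝ≥0∞ :=
  ENNReal.ofReal c * ∑ m ∈ M, ∫⁻ y in S m,
    ENNReal.ofReal (wt (A m) n (y - X - t • v m)) * U m y ∂μ

variable {κ : Type*} {μ : Measure E} {n : ℕ} {c : ℝ} {A : κ → E →L[ℝ] F} {v : κ → E}
  {U : κ → E → ℝ≥0∞} {S S' : κ → Set E} {M M' : Finset κ}

theorem Den_mono (hM : M ⊆ M') (hS : ∀ m ∈ M, S m ⊆ S' m) (X : E) (t : ℝ) :
    Den μ n c A v U S M X t ≤ Den μ n c A v U S' M' X t := by
  unfold Den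
  refine mul_le_mul' le_rfl ((Finset.sum_le_sum fun m hm => ?_).trans
    (Finset.sum_le_sum_of_subset hM))
  exact lintegral_mono_set (hS m hm)

theorem Den_anti {n' : ℕ} (h : n ≤ n') (X : E) (t : ℝ) :
    Den μ n' c A v U S M X t ≤ Den μ n c A v U S M X t := by
  unfold Den
  refine mul_le_mul' le_rfl (Finset.sum_le_sum fun m _ => ?_)
  exact lintegral_mono fun y => mul_le_mul' (ENNReal.ofReal_le_ofReal (wt_anti _ h _)) le_rfl

/-- slowly varying and transport, same power `n`. -/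
theorem Den_shift {δ : ℝ} (hδ : 0 ≤ δ) {X X' : E} {t t' : ℝ}
    (hd : ∀ m ∈ M, ‖A m ((X' + t' • v m) - (X + t • v m))‖ ≤ δ) :
    Den μ n c A v U S M X t ≤ ENNReal.ofReal ((1 + δ) ^ n) * Den μ n c A v U S M X' t' := by
  unfold Den
  rw [mul_left_comm]
  refine mul_le_mul' le_rfl ?_
  rw [Finset.mul_sum]
  refine Finset.sum_le_sum fun m hm => ?_
  rw [← lintegral_const_mul' _ _ ENNReal.ofReal_ne_top]
  refine lintegral_mono fun y => ?_
  rw [← mul_assoc, ← ENNReal.ofReal_mul (by positivity)]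
  refine mul_le_mul' (ENNReal.ofReal_le_ofReal (wt_shift (A m) hδ n ?_)) le_rfl
  have e : y - X' - t' • v m - (y - X - t • v m) = -((X' + t' • v m) - (X + t • v m)) := by
    abel
  rw [e, map_neg, norm_neg]
  exact hd m hm

/-- change of frames. -/
theorem Den_frame {F' : Type*} [NormedAddCommGroup F'] [NormedSpace ℝ F'] {A' : κ → E →L[ℝ] F'}
    {K : ℝ} (hK : 1 ≤ K) (h : ∀ m ∈ M, ∀ z, ‖A m z‖ ≤ K * ‖A' m z‖) (X : E) (t : ℝ) :
    Den μ n c A' v U S M X t ≤ ENNReal.ofReal (K ^ n) * Den μ n c A v U S M X t := by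
  unfold Den
  rw [mul_left_comm]
  refine mul_le_mul' le_rfl ?_
  rw [Finset.mul_sum]
  refine Finset.sum_le_sum fun m hm => ?_
  rw [← lintegral_const_mul' _ _ ENNReal.ofReal_ne_top]
  refine lintegral_mono fun y => ?_
  rw [← mul_assoc, ← ENNReal.ofReal_mul (by positivity)]
  exact mul_le_mul' (ENNReal.ofReal_le_ofReal (wt_frame (A m) (A' m) hK n (h m hm _))) le_rfl

theorem Den_le (X : E) (t : ℝ) :
    Den μ n c A v U S M X t ≤ ENNReal.ofReal c * ∑ m ∈ M, ∫⁻ y in S m, U m y ∂μ := by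
  unfold Den
  refine mul_le_mul' le_rfl (Finset.sum_le_sum fun m _ => ?_)
  refine lintegral_mono fun y => ?_
  calc ENNReal.ofReal (wt (A m) n (y - X - t • v m)) * U m y ≤ 1 * U m y := by
        refine mul_le_mul' ?_ le_rfl
        rw [← ENNReal.ofReal_one]
        exact ENNReal.ofReal_le_ofReal (wt_le_one _ _ _)
    _ = _ := one_mul _

/-- the packets which pass through the plate of size `Y` around the point are counted. -/
theorem le_Den {Y : ℝ} (hY : 0 ≤ Y) {T : κ → Set E} {X : E} {t : ℝ}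
    (hT : ∀ m ∈ M, ∀ y ∈ T m, ‖A m (y - X - t • v m)‖ ≤ Y) (hTm : ∀ m ∈ M, MeasurableSet (T m))
    (hSm : ∀ m ∈ M, MeasurableSet (S m)) :
    ENNReal.ofReal c * ∑ m ∈ M, ∫⁻ y in S m ∩ T m, U m y ∂μ ≤
      ENNReal.ofReal ((1 + Y) ^ n) * Den μ n c A v U S M X t := by
  unfold Den
  rw [mul_left_comm]
  refine mul_le_mul' le_rfl ?_
  rw [Finset.mul_sum]
  refine Finset.sum_le_sum fun m hm => ?_
  rw [← lintegral_const_mul' _ _ ENNReal.ofReal_ne_top]
  refine (setLIntegral_mono' ((hSm m hm).inter (hTm m hm)) fun y hy => ?_).trans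
    (lintegral_mono_set Set.inter_subset_left)
  rw [← mul_assoc, ← ENNReal.ofReal_mul (by positivity)]
  calc U m y = 1 * U m y := (one_mul _).symm
    _ ≤ _ := by
        refine mul_le_mul' ?_ le_rfl
        rw [← ENNReal.ofReal_one]
        exact ENNReal.ofReal_le_ofReal (wt_ball (A m) hY n (hT m hm y hy.2))

open Classical in
/-- sum of densities of families of directions with overlap `K`. -/
theorem sum_Den_le {β : Type*} (T : Finset β) (N : β → Finset κ) {K : ℕ}
    (hN : ∀ b ∈ T, N b ⊆ M) (hK : ∀ m ∈ M, (T.filter (fun b => m ∈ N b)).card ≤ K) (X : E)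
    (t : ℝ) : ∑ b ∈ T, Den μ n c A v U S (N b) X t ≤ K * Den μ n c A v U S M X t := by
  unfold Den
  rw [← Finset.mul_sum, mul_left_comm]
  refine mul_le_mul' le_rfl ?_
  set a : κ → ℝ≥0∞ := fun m => ∫⁻ y in S m,
    ENNReal.ofReal (wt (A m) n (y - X - t • v m)) * U m y ∂μ with ha
  have h1 : ∑ b ∈ T, ∑ m ∈ N b, a m = ∑ m ∈ M, ∑ b ∈ T.filter (fun b => m ∈ N b), a m := by
    refine Finset.sum_comm' fun b m => ?_
    simp only [Finset.mem_filter]
    constructor
    · rintro ⟨hb, hm⟩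
      exact ⟨⟨hb, hm⟩, hN b hb hm⟩
    · rintro ⟨⟨hb, hm⟩, _⟩
      exact ⟨hb, hm⟩
  rw [h1, Finset.mul_sum]
  refine Finset.sum_le_sum fun m hm => ?_
  rw [Finset.sum_const, nsmul_eq_mul]
  exact mul_le_mul' (by exact_mod_cast hK m hm) le_rfl

/-! ### measurability, split -/

variable [BorelSpace E] [SecondCountableTopology E]

theorem wt_meas (A : E →L[ℝ] F) (n : ℕ) (w : E) :
    Measurable fun p : E × E => ENNReal.ofReal (wt A n (p.2 - p.1 - w)) := by
  refine ENNReal.measurable_ofReal.comp ?_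
  exact ((wt_cont A n).comp (by fun_prop)).measurable

theorem wt_meas3 (A : E →L[ℝ] F) (n : ℕ) (w : E) :
    Measurable fun p : (E × ℝ) × E => ENNReal.ofReal (wt A n (p.2 - p.1.1 - p.1.2 • w)) := by
  refine ENNReal.measurable_ofReal.comp ?_
  exact ((wt_cont A n).comp (by fun_prop)).measurable

theorem Den_meas [SFinite μ] (hU : ∀ m ∈ M, Measurable (U m)) (t : ℝ) :
    Measurable fun X => Den μ n c A v U S M X t := by
  unfold Den
  refine Measurable.const_mul (Finset.measurable_fun_sum _ fun m hm => ?_) _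
  exact Measurable.lintegral_prod_right' (ν := μ.restrict (S m))
    (f := fun p : E × E => ENNReal.ofReal (wt (A m) n (p.2 - p.1 - t • v m)) * U m p.2)
    ((wt_meas (A m) n _).mul ((hU m hm).comp measurable_snd))

theorem Den_meas2 [SFinite μ] (hU : ∀ m ∈ M, Measurable (U m)) :
    Measurable fun p : E × ℝ => Den μ n c A v U S M p.1 p.2 := by
  unfold Den
  refine Measurable.const_mul (Finset.measurable_fun_sum _ fun m hm => ?_) _
  exact Measurable.lintegral_prod_right' (ν := μ.restrict (S m))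
    (f := fun p : (E × ℝ) × E => ENNReal.ofReal (wt (A m) n (p.2 - p.1.1 - p.1.2 • v m)) *
      U m p.2)
    ((wt_meas3 (A m) n _).mul ((hU m hm).comp measurable_snd))

/-- sharp cut-off. -/
noncomputable def Shd {κ : Type*} (μ : Measure E) (Y c : ℝ) (A : κ → E →L[ℝ] F) (v : κ → E)
    (U : κ → E → ℝ≥0∞) (S : κ → Set E) (M : Finset κ) (X : E) (t : ℝ) : ℝ≥0∞ :=
  ENNReal.ofReal c * ∑ m ∈ M, ∫⁻ y in S m ∩ {y | ‖A m (y - X - t • v m)‖ ≤ Y}, U m y ∂μ

omit [SecondCountableTopology E] in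
theorem Den_split {n1 : ℕ} (hn : n1 ≤ n) {Y : ℝ} (hY : 0 < Y) (hU : ∀ m ∈ M, Measurable (U m))
    (X : E) (t : ℝ) :
    Den μ n c A v U S M X t ≤ Shd μ Y c A v U S M X t +
      ENNReal.ofReal ((Y ^ (n - n1))⁻¹) * Den μ n1 c A v U S M X t := by
  unfold Den Shd
  rw [mul_left_comm, ← mul_add]
  refine mul_le_mul' le_rfl ?_
  rw [Finset.mul_sum, ← Finset.sum_add_distrib]
  refine Finset.sum_le_sum fun m hm => ?_
  set B : Set E := {y | ‖A m (y - X - t • v m)‖ ≤ Y} with hB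
  have hb : MeasurableSet B := by
    have : IsClosed B := by
      refine isClosed_le ?_ continuous_const
      fun_prop
    exact this.measurableSet
  have h1 : ∀ y, ENNReal.ofReal (wt (A m) n (y - X - t • v m)) * U m y ≤
      B.indicator (U m) y + ENNReal.ofReal ((Y ^ (n - n1))⁻¹) *
        (ENNReal.ofReal (wt (A m) n1 (y - X - t • v m)) * U m y) := by
    intro y
    have h2 := wt_split (A m) hY hn (y - X - t • v m)
    have h3 : B.indicator (U m) y =
        ENNReal.ofReal (if ‖A m (y - X - t • v m)‖ ≤ Y then 1 else 0) * U m y := by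
      by_cases hy : ‖A m (y - X - t • v m)‖ ≤ Y
      · rw [Set.indicator_of_mem (show y ∈ B from hy), if_pos hy, ENNReal.ofReal_one, one_mul]
      · rw [Set.indicator_of_notMem (show y ∉ B from hy), if_neg hy, ENNReal.ofReal_zero, zero_mul]
    rw [h3, ← mul_assoc, ← ENNReal.ofReal_mul (by positivity), ← add_mul,
      ← ENNReal.ofReal_add (by split_ifs <;> norm_num)
        (by have := wt_pos (A m) n1 (y - X - t • v m); positivity)]
    exact mul_le_mul' (ENNReal.ofReal_le_ofReal h2) le_rfl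
  refine (lintegral_mono h1).trans ?_
  have hm' : Measurable fun y => B.indicator (U m) y := (hU m hm).indicator hb
  rw [lintegral_add_left hm', lintegral_const_mul' _ _ ENNReal.ofReal_ne_top,
    setLIntegral_indicator hb, Set.inter_comm]

end den

/-! ### total mass -/

section mass

/-- the mass of the weight on `ℝ³`. -/
noncomputable def W0 : ℝ≥0∞ := ∫⁻ x : E3, ENNReal.ofReal (((1 + ‖x‖) ^ 4)⁻¹)

theorem W0_lt : W0 < ⊤ := by
  have h := finite_integral_one_add_norm (E := E3) (μ := volume) (r := 4) (by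
    rw [finrank_euclideanSpace_fin]; norm_num)
  refine lt_of_le_of_lt (le_of_eq ?_) h
  unfold W0
  congr 1
  funext x
  rw [Real.rpow_neg (by positivity)]
  norm_cast

theorem lint_wt (A : E3 →L[ℝ] E3) (hA : LinearMap.det (A : E3 →ₗ[ℝ] E3) ≠ 0) (a : E3) :
    ∫⁻ x, ENNReal.ofReal (wt A 4 (a - x)) =
      ENNReal.ofReal (|(LinearMap.det (A : E3 →ₗ[ℝ] E3))⁻¹|) * W0 := by
  rw [lintegral_sub_left_eq_self (fun x => ENNReal.ofReal (wt A 4 x)) a]
  have h1 := Measure.map_linearMap_addHaar_eq_smul_addHaar (volume : Measure E3) hA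
  have h2 : ∫⁻ x, ENNReal.ofReal (((1 + ‖x‖) ^ 4)⁻¹) ∂(Measure.map (A : E3 →ₗ[ℝ] E3) volume) =
      ∫⁻ x, ENNReal.ofReal (wt A 4 x) := by
    have hAm : Measurable (⇑(A : E3 →ₗ[ℝ] E3)) := A.continuous.measurable
    rw [lintegral_map ?_ hAm]
    · rfl
    · refine ENNReal.measurable_ofReal.comp (Continuous.measurable ?_)
      refine Continuous.inv₀ (by fun_prop) fun v => ?_
      positivity
  rw [← h2, h1, lintegral_smul_measure, smul_eq_mul]
  rfl

theorem lint_Den {κ : Type*} {c : ℝ} {A : κ → E3 →L[ℝ] E3} {v : κ → E3} {U : κ → E3 → ℝ≥0∞}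
    {S : κ → Set E3} {M : Finset κ} (hc : 0 < c)
    (hA : ∀ m ∈ M, LinearMap.det (A m : E3 →ₗ[ℝ] E3) = c) (hU : ∀ m ∈ M, Measurable (U m))
    (t : ℝ) :
    ∫⁻ X, Den volume 4 c A v U S M X t = W0 * ∑ m ∈ M, ∫⁻ y in S m, U m y := by
  unfold Den
  have hm : ∀ m ∈ M, Measurable fun p : E3 × E3 =>
      ENNReal.ofReal (wt (A m) 4 (p.2 - p.1 - t • v m)) * U m p.2 :=
    fun m hm => (wt_meas (A m) 4 _).mul ((hU m hm).comp measurable_snd)
  rw [lintegral_const_mul' _ _ ENNReal.ofReal_ne_top, lintegral_finsetSum']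
  · have e : ∀ m ∈ M, ∫⁻ X, ∫⁻ y in S m,
        ENNReal.ofReal (wt (A m) 4 (y - X - t • v m)) * U m y =
        ENNReal.ofReal c⁻¹ * (W0 * ∫⁻ y in S m, U m y) := by
      intro m hmM
      rw [lintegral_lintegral_swap (hm m hmM).aemeasurable, ← mul_assoc,
        ← lintegral_const_mul _ (hU m hmM)]
      refine lintegral_congr fun y => ?_
      have h3 : Measurable fun X => ENNReal.ofReal (wt (A m) 4 (y - X - t • v m)) := by
        refine ENNReal.measurable_ofReal.comp ?_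
        exact ((wt_cont (A m) 4).comp (by fun_prop)).measurable
      rw [lintegral_mul_const _ h3]
      congr 1
      have h4 : ∀ X, wt (A m) 4 (y - X - t • v m) = wt (A m) 4 ((y - t • v m) - X) := by
        intro X
        congr 1
        abel
      simp_rw [h4]
      rw [lint_wt (A m) (by rw [hA m hmM]; exact hc.ne') (y - t • v m), hA m hmM,
        abs_of_pos (inv_pos.2 hc)]
    rw [Finset.sum_congr rfl e, ← Finset.mul_sum, ← Finset.mul_sum, ← mul_assoc,
      ← ENNReal.ofReal_mul hc.le, mul_inv_cancel₀ hc.ne', ENNReal.ofReal_one, one_mul]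
  · intro m hmM
    exact (Measurable.lintegral_prod_right' (ν := volume.restrict (S m))
      (f := fun p : E3 × E3 => ENNReal.ofReal (wt (A m) 4 (p.2 - p.1 - t • v m)) *
      U m p.2) (hm m hmM)).aemeasurable

end mass

/-! ### the frame of the cone -/

/-- the frame of the plates `1/th × 1/th × 1/kp` of normal `C`, as a linear map. -/
noncomputable def frl (th kp : ℝ) (C : E2) : E3 →ₗ[ℝ] E3 where
  toFun z := pt (th • lat z) (kp * nrm C z 0)
  map_add' z z' := by
    rw [lat_add, nrm_add0, smul_add, mul_add, pt_add]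
  map_smul' r z := by
    rw [lat_smul, nrm_smul0, RingHom.id_apply, ← pt_smul]
    congr 1
    · rw [smul_comm]
    · ring

/-- the frame of the plates `1/th × 1/th × 1/kp` of normal `C`. -/
noncomputable def frc (th kp : ℝ) (C : E2) : E3 →L[ℝ] E3 := LinearMap.toContinuousLinearMap
  (frl th kp C)

theorem frc_apply (th kp : ℝ) (C : E2) (z : E3) : frc th kp C z = pt (th • lat z)
    (kp * nrm C z 0) := rfl

theorem lat_frc (th kp : ℝ) (C : E2) (z : E3) : lat (frc th kp C z) = th • lat z := by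
  rw [frc_apply, lat_pt]

theorem two_frc (th kp : ℝ) (C : E2) (z : E3) : frc th kp C z 2 = kp * nrm C z 0 := by
  rw [frc_apply, pt_two]

theorem norm_frc_sq (th kp : ℝ) (C : E2) (z : E3) :
    ‖frc th kp C z‖ ^ 2 = (th * ‖lat z‖) ^ 2 + (kp * nrm C z 0) ^ 2 := by
  rw [normsq3, lat_frc, two_frc, norm_smul, mul_pow, mul_pow, mul_pow, Real.norm_eq_abs, sq_abs]

theorem norm_frc_le {th kp : ℝ} (hth : 0 ≤ th) (hkp : 0 ≤ kp) (C : E2) (z : E3) :
    ‖frc th kp C z‖ ≤ th * ‖lat z‖ + kp * |nrm C z 0| := by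
  refine (norm3_le _).trans (le_of_eq ?_)
  rw [lat_frc, two_frc, norm_smul, Real.norm_eq_abs, abs_of_nonneg hth, abs_mul,
    abs_of_nonneg hkp]

theorem lat_le_frc {th kp : ℝ} (hth : 0 ≤ th) (C : E2) (z : E3) :
    th * ‖lat z‖ ≤ ‖frc th kp C z‖ := by
  have h := lat_norm_le (frc th kp C z)
  rwa [lat_frc, norm_smul, Real.norm_eq_abs, abs_of_nonneg hth] at h

theorem nrm_le_frc {th kp : ℝ} (hkp : 0 ≤ kp) (C : E2) (z : E3) :
    kp * |nrm C z 0| ≤ ‖frc th kp C z‖ := by
  have h := two_norm_le (frc th kp C z)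
  rwa [two_frc, abs_mul, abs_of_nonneg hkp] at h

theorem det_frc (th kp : ℝ) (C : E2) :
    LinearMap.det (frc th kp C : E3 →ₗ[ℝ] E3) = th ^ 2 * kp := by
  have h0 : (frc th kp C : E3 →ₗ[ℝ] E3) = frl th kp C := rfl
  rw [h0, ← LinearMap.det_toMatrix (EuclideanSpace.basisFun (Fin 3) ℝ).toBasis,
    Matrix.det_fin_three]
  simp only [LinearMap.toMatrix_apply, OrthonormalBasis.coe_toBasis,
    OrthonormalBasis.coe_toBasis_repr_apply, EuclideanSpace.basisFun_repr,
    EuclideanSpace.basisFun_apply]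
  have hfr : ∀ z : E3, ∀ i, (frl th kp C z) i = (pt (th • lat z) (kp * nrm C z 0)) i :=
    fun _ _ => rfl
  simp only [hfr, pt_zero, pt_one, pt_two, PiLp.smul_apply, lat_zero, lat_one, smul_eq_mul,
    nrm_zero, inner2, PiLp.single_apply]
  simp
  left
  ring

/-- comparison of the frames of two normals. -/
theorem frc_le_frc {th kp : ℝ} (hth : 0 ≤ th) (hkp : 0 ≤ kp) {C C' : E2} {K : ℝ} (hK : 0 ≤ K)
    (h : kp * ‖C' - C‖ ≤ K * th) (z : E3) :
    ‖frc th kp C' z‖ ≤ (2 + K) * ‖frc th kp C z‖ := by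
  have e : nrm C' z 0 = nrm C z 0 + inner ℝ (C' - C) (lat z) := by
    rw [nrm_zero, nrm_zero, inner_sub_left]; ring
  have h1 : |nrm C' z 0| ≤ |nrm C z 0| + ‖C' - C‖ * ‖lat z‖ := by
    rw [e]
    exact (abs_add_le _ _).trans (add_le_add le_rfl (abs_real_inner_le_norm _ _))
  have h2 := lat_le_frc (kp := kp) hth C z
  have h3 := nrm_le_frc (th := th) hkp C z
  have h4 := norm_frc_le hth hkp C' z
  have h5 : kp * |nrm C' z 0| ≤ kp * |nrm C z 0| + K * (th * ‖lat z‖) := by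
    calc kp * |nrm C' z 0| ≤ kp * (|nrm C z 0| + ‖C' - C‖ * ‖lat z‖) :=
          mul_le_mul_of_nonneg_left h1 hkp
      _ = kp * |nrm C z 0| + (kp * ‖C' - C‖) * ‖lat z‖ := by ring
      _ ≤ kp * |nrm C z 0| + (K * th) * ‖lat z‖ :=
          add_le_add le_rfl (mul_le_mul_of_nonneg_right h (norm_nonneg _))
      _ = _ := by ring
  have h6 : K * (th * ‖lat z‖) ≤ K * ‖frc th kp C z‖ := mul_le_mul_of_nonneg_left h2 hK
  linarith

/-- cone density: packets of level `ρ` (caps `m ∈ M` of size `ρ`, selection `S m`), plates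
`1/th × 1/th × 1/kp`. -/
noncomputable def Acc (n : ℕ) (th kp ρ : ℝ) (g : E3 → ℂ) (S : ℤ × ℤ → Set E3)
    (M : Finset (ℤ × ℤ)) (X : E3) (t : ℝ) : ℝ≥0∞ :=
  Den volume n (th ^ 2 * kp) (fun m => frc th kp (cen ρ m)) (fun m => vel (cen ρ m))
    (fun m y => ‖umc ρ g m y‖ₑ ^ 2) S M X t

end Crest.Agent.R116.Cad538
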