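import Crest.Agent.R116.WDefC_188
import Crest.Agent.R116.Cad1_538

/-!
# R116 (S0155), wave side: `A1k` of the skeleton, part 1 (helper229)

Translations, integrability of states, linearity of `umc`, measurability and subadditivity of the
plate averages `apl`, size of the plates.
-/

set_option autoImplicit false

open MeasureTheory FourierTransform
open scoped ContDiff ENNReal

namespace Crest.Agent.R116.A1k229

open Crest.Agent.R138.Defs (E2 ee)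
open Crest.Agent.R138.Wpk685 (cen caps cap win norm_ee ee_add norm_win_le)
open Crest.Agent.R116.CDef480 Crest.Agent.R116.WC188 Crest.Agent.R116.Ckm538

/-! ### translations -/

theorem trc_trc (w z : E3 × ℝ) (g : E3 → ℂ) : trc z (trc w g) = trc (w + z) g := by
  funext ζ
  unfold trc
  rw [mul_assoc, ← ee_add]
  congr 2
  rw [Prod.fst_add, Prod.snd_add, inner_add_left]
  ring

theorem norm_trc (z : E3 × ℝ) (g : E3 → ℂ) (ζ : E3) : ‖trc z g ζ‖ = ‖g ζ‖ := by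
  unfold trc
  rw [norm_mul, norm_ee, mul_one]

theorem measurable_trc (z : E3 × ℝ) {g : E3 → ℂ} (hg : Measurable g) : Measurable (trc z g) := by
  refine hg.mul (continuous_ee'.measurable.comp ?_)
  exact (measurable_const.inner measurable_id).add (measurable_hc.const_mul _)

theorem Enc_trc (z : E3 × ℝ) (g : E3 → ℂ) : Enc (trc z g) = Enc g := by
  unfold Enc
  simp_rw [norm_trc]

/-! ### integrability -/

/-- measurable, bounded, supported in `1/a ≤ η ≤ a`, `|slp| ≤ b`. -/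
structure Nice (a b : ℝ) (g : E3 → ℂ) : Prop where
  meas : Measurable g
  bdd : ∃ L : ℝ, ∀ ζ, ‖g ζ‖ ≤ L
  supp : ∀ ζ, g ζ ≠ 0 → a⁻¹ ≤ ζ 2 ∧ ζ 2 ≤ a ∧ ‖slp ζ‖ ≤ b

theorem Nice.norm {a b : ℝ} {g : E3 → ℂ} (ha : 0 < a) (hg : Nice a b g) {ζ : E3} (h : g ζ ≠ 0) :
    ‖ζ‖ ≤ a * b + a := by
  obtain ⟨h1, h2, h3⟩ := hg.supp ζ h
  have h0 : 0 < ζ 2 := lt_of_lt_of_le (inv_pos.2 ha) h1
  have hb : 0 ≤ b := (norm_nonneg _).trans h3
  have e : ζ = pt (lat ζ) (ζ 2) := (pt_lat ζ).symm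
  have h4 : ‖ζ‖ ^ 2 ≤ (a * b + a) ^ 2 := by
    rw [normsq3]
    have h5 : ‖lat ζ‖ ≤ a * b := by
      rw [lat_slp h0.ne', norm_smul, Real.norm_eq_abs, abs_of_pos h0]
      exact mul_le_mul h2 h3 (norm_nonneg _) ha.le
    have h6 : ‖lat ζ‖ ^ 2 ≤ (a * b) ^ 2 := pow_le_pow_left₀ (norm_nonneg _) h5 2
    have h7 : ζ 2 ^ 2 ≤ a ^ 2 := pow_le_pow_left₀ h0.le h2 2
    nlinarith [mul_nonneg (mul_nonneg ha.le hb) ha.le]
  exact le_of_sq_le_sq h4 (by positivity)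
where
  le_of_sq_le_sq {x y : ℝ} (h : x ^ 2 ≤ y ^ 2) (hy : 0 ≤ y) : x ≤ y := by
    by_contra hc
    push Not at hc
    nlinarith

theorem Nice.int {a b : ℝ} {g : E3 → ℂ} (ha : 0 < a) (hg : Nice a b g) : Integrable g := by
  obtain ⟨L, hL⟩ := hg.bdd
  have h1 : Integrable (fun ζ => (Metric.closedBall (0 : E3) (a * b + a)).indicator g ζ) := by
    refine IntegrableOn.integrable_indicator ?_ Metric.isClosed_closedBall.measurableSet
    refine Measure.integrableOn_of_bounded (M := L) ?_ hg.meas.aestronglyMeasurable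
      (Filter.Eventually.of_forall hL)
    exact (measure_closedBall_lt_top).ne
  refine h1.congr (Filter.Eventually.of_forall fun ζ => ?_)
  by_cases hz : ζ ∈ Metric.closedBall (0 : E3) (a * b + a)
  · simp only [Set.indicator_of_mem hz]
  · simp only [Set.indicator_of_notMem hz]
    by_contra hc
    exact hz (by
      rw [mem_closedBall_zero_iff]
      exact hg.norm ha (Ne.symm hc))

theorem Nice.trc {a b : ℝ} {g : E3 → ℂ} (hg : Nice a b g) (z : E3 × ℝ) : Nice a b (trc z g) := by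
  refine ⟨measurable_trc z hg.meas, ?_, fun ζ h => hg.supp ζ ?_⟩
  · obtain ⟨L, hL⟩ := hg.bdd
    exact ⟨L, fun ζ => by rw [norm_trc]; exact hL ζ⟩
  · intro hc
    exact h (by unfold CDef480.trc; rw [hc, zero_mul])

theorem nice_of_St {M κ q a b M0 : ℝ} {C0 : E2} {σ : ℝ} {g : E3 → ℂ} {R D : ℝ}
    (h : St M κ q a b M0 C0 σ g R D) : Nice a b g :=
  ⟨h.meas, h.bdd, fun ζ hζ => ⟨(h.supp ζ hζ).1, (h.supp ζ hζ).2.1, (h.supp ζ hζ).2.2.1⟩⟩

/-! ### caps -/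

theorem measurable_capc (ρ : ℝ) (m : ℤ × ℤ) : Measurable (capc ρ m) := by
  unfold capc
  have h : Continuous (cap win (cen ρ m) ρ) :=
    (Crest.Agent.R138.Wpk685.contDiff_cap Crest.Agent.R138.Wpk685.win_contDiff _ _).continuous
  exact h.measurable.comp measurable_slp

theorem norm_capc_le (ρ : ℝ) (m : ℤ × ℤ) (ζ : E3) : ‖capc ρ m ζ‖ ≤ 1 := norm_win_le _

theorem capc_int {ρ : ℝ} {m : ℤ × ℤ} {g : E3 → ℂ} (hg : Integrable g) :
    Integrable fun ζ => capc ρ m ζ * g ζ :=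
  hg.bdd_mul (c := 1) (measurable_capc ρ m).aestronglyMeasurable
    (Filter.Eventually.of_forall fun ζ => norm_capc_le ρ m ζ)

theorem umc_cont {ρ : ℝ} {g : E3 → ℂ} (hg : Integrable g) (m : ℤ × ℤ) :
    Continuous (umc ρ g m) :=
  Crest.Agent.R138.Wf448.fourierInv_continuous (capc_int hg)

/-- linearity. -/
theorem umc_sum {ρ : ℝ} {κ : Type*} (s : Finset κ) {G : κ → E3 → ℂ}
    (hG : ∀ k ∈ s, Integrable (G k)) (m : ℤ × ℤ) (Y : E3) :
    umc ρ (fun ζ => ∑ k ∈ s, G k ζ) m Y = ∑ k ∈ s, umc ρ (G k) m Y := by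
  unfold umc
  have e : (fun ζ => capc ρ m ζ * ∑ k ∈ s, G k ζ) = fun ζ => ∑ k ∈ s, capc ρ m ζ * G k ζ := by
    funext ζ
    rw [Finset.mul_sum]
  rw [e, Real.fourierInv_eq]
  simp_rw [Real.fourierInv_eq, Finset.smul_sum]
  rw [integral_finsetSum]
  intro k hk
  have := (Real.fourierIntegral_convergent_iff (μ := volume) (f := fun ζ => capc ρ m ζ * G k ζ)
    (-Y)).2 (capc_int (hG k hk))
  simpa using this

/-! ### plates -/

theorem plt_meas (w t : ℝ) (C : E2) : MeasurableSet {p : (E3 × ℝ) × E3 |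
    p.2 ∈ plt w t C p.1.1 p.1.2} := by
  have hc1 : Continuous fun p : (E3 × ℝ) × E3 => ‖lat p.2 - (lat p.1.1 + p.1.2 • C)‖ := by
    have h1 : Continuous lat := latL.continuous
    fun_prop
  have hc2 : Continuous fun p : (E3 × ℝ) × E3 => |nrm C p.2 0 - nrm C p.1.1 p.1.2| := by
    have h1 : Continuous lat := latL.continuous
    unfold nrm
    fun_prop
  have e : {p : (E3 × ℝ) × E3 | p.2 ∈ plt w t C p.1.1 p.1.2} =
      {p | ‖lat p.2 - (lat p.1.1 + p.1.2 • C)‖ ≤ w} ∩ {p | |nrm C p.2 0 - nrm C p.1.1 p.1.2| ≤ t} :=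
    rfl
  rw [e]
  exact (isClosed_le hc1 continuous_const).measurableSet.inter
    (isClosed_le hc2 continuous_const).measurableSet

theorem plt_meas' (w t : ℝ) (C : E2) (X : E3) (s : ℝ) : MeasurableSet (plt w t C X s) := by
  have h := plt_meas w t C
  exact (measurable_prodMk_left (x := (X, s))) h

/-- plate integrals are measurable. -/
theorem meas_plt {w t : ℝ} {C : E2} {F : E3 → ℝ≥0∞} (hF : Measurable F) :
    Measurable fun p : E3 × ℝ => ∫⁻ Y in plt w t C p.1 p.2, F Y := by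
  have e : (fun p : E3 × ℝ => ∫⁻ Y in plt w t C p.1 p.2, F Y) =
      fun p => ∫⁻ Y, ({q : (E3 × ℝ) × E3 | q.2 ∈ plt w t C q.1.1 q.1.2}.indicator
        (fun q => F q.2)) (p, Y) := by
    funext p
    rw [← lintegral_indicator (plt_meas' w t C p.1 p.2)]
    rfl
  rw [e]
  refine Measurable.lintegral_prod_right' (f := fun q => ({q : (E3 × ℝ) × E3 |
    q.2 ∈ plt w t C q.1.1 q.1.2}.indicator (fun q => F q.2)) q) ?_
  exact (hF.comp measurable_snd).indicator (plt_meas w t C)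

theorem umc_meas {ρ : ℝ} {g : E3 → ℂ} (hg : Integrable g) (m : ℤ × ℤ) :
    Measurable fun Y => ‖umc ρ g m Y‖ₑ ^ 2 :=
  ((umc_cont hg m).enorm.measurable).pow_const 2

theorem apl_meas {r : ℝ} {g : E3 → ℂ} (hg : Integrable g) : Measurable (apl r g) := by
  unfold apl
  refine Measurable.const_mul (Finset.measurable_fun_sum _ fun m _ => ?_) _
  exact meas_plt (umc_meas hg m)

theorem enorm_sum_sq {κ : Type*} (s : Finset κ) (u : κ → ℂ) :
    ‖∑ k ∈ s, u k‖ₑ ^ 2 ≤ (s.card : ℝ≥0∞) * ∑ k ∈ s, ‖u k‖ₑ ^ 2 := by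
  have h1 : ‖∑ k ∈ s, u k‖ ^ 2 ≤ (s.card : ℝ) * ∑ k ∈ s, ‖u k‖ ^ 2 := by
    calc ‖∑ k ∈ s, u k‖ ^ 2 ≤ (∑ k ∈ s, ‖u k‖) ^ 2 :=
          pow_le_pow_left₀ (norm_nonneg _) (norm_sum_le _ _) 2
      _ ≤ _ := sq_sum_le_card_mul_sum_sq
  have e : ∀ z : ℂ, ‖z‖ₑ ^ 2 = ENNReal.ofReal (‖z‖ ^ 2) := fun z => by
    rw [ENNReal.ofReal_pow (norm_nonneg _), ofReal_norm]
  simp only [e]
  rw [← ENNReal.ofReal_sum_of_nonneg fun i _ => by positivity, ← ENNReal.ofReal_natCast,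
    ← ENNReal.ofReal_mul (by positivity)]
  exact ENNReal.ofReal_le_ofReal h1

/-- subadditivity of the plate averages. -/
theorem apl_sum {r : ℝ} {κ : Type*} (s : Finset κ) {G : κ → E3 → ℂ}
    (hG : ∀ k ∈ s, Integrable (G k)) (p : E3 × ℝ) :
    apl r (fun ζ => ∑ k ∈ s, G k ζ) p ≤ (s.card : ℝ≥0∞) * ∑ k ∈ s, apl r (G k) p := by
  unfold apl
  rw [← Finset.mul_sum, mul_left_comm]
  refine mul_le_mul' le_rfl ?_
  rw [Finset.sum_comm, Finset.mul_sum]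
  refine Finset.sum_le_sum fun m _ => ?_
  calc ∫⁻ Y in plt (r ^ (1 / 2 : ℝ)) 1 (cen (r ^ (-(1 / 2) : ℝ)) m) p.1 p.2,
        ‖umc (r ^ (-(1 / 2) : ℝ)) (fun ζ => ∑ k ∈ s, G k ζ) m Y‖ₑ ^ 2
      ≤ ∫⁻ Y in plt (r ^ (1 / 2 : ℝ)) 1 (cen (r ^ (-(1 / 2) : ℝ)) m) p.1 p.2,
        (s.card : ℝ≥0∞) * ∑ k ∈ s, ‖umc (r ^ (-(1 / 2) : ℝ)) (G k) m Y‖ₑ ^ 2 := by
        refine lintegral_mono fun Y => ?_
        simp only [umc_sum s hG]
        exact enorm_sum_sq s _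
    _ = _ := by
        rw [lintegral_const_mul' _ _ (ENNReal.natCast_ne_top _), lintegral_finsetSum' _
          fun k hk => (umc_meas (hG k hk) m).aemeasurable]

/-- powers `3/2` of finite sums. -/
theorem rpow_sum {κ : Type*} (s : Finset κ) (f : κ → ℝ≥0∞) :
    (∑ k ∈ s, f k) ^ (3 / 2 : ℝ) ≤ (s.card : ℝ≥0∞) ^ (3 / 2 : ℝ) * ∑ k ∈ s, f k ^ (3 / 2 : ℝ) := by
  rcases s.eq_empty_or_nonempty with rfl | hs
  · simp
  · obtain ⟨k0, hk0, hmax⟩ := Finset.exists_max_image s f hs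
    have h1 : ∑ k ∈ s, f k ≤ (s.card : ℝ≥0∞) * f k0 := by
      refine (Finset.sum_le_sum fun k hk => hmax k hk).trans (le_of_eq ?_)
      rw [Finset.sum_const, nsmul_eq_mul]
    calc (∑ k ∈ s, f k) ^ (3 / 2 : ℝ) ≤ ((s.card : ℝ≥0∞) * f k0) ^ (3 / 2 : ℝ) :=
          ENNReal.rpow_le_rpow h1 (by norm_num)
      _ = (s.card : ℝ≥0∞) ^ (3 / 2 : ℝ) * f k0 ^ (3 / 2 : ℝ) :=
          ENNReal.mul_rpow_of_nonneg _ _ (by norm_num)
      _ ≤ _ := by
          gcongr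
          exact Finset.single_le_sum (f := fun k => f k ^ (3 / 2 : ℝ)) (fun _ _ => zero_le) hk0

end Crest.Agent.R116.A1k229
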