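import Crest.Agent.R116.A1k1_229

/-!
# R116 (S0155), wave side: `A1k` of the skeleton, part 2 (helper229)

Size of the plates, number of caps, nets of frames (cardinality, maximal separated subsets),
re-indexing of finite families of plates, the tiny term.
-/

set_option autoImplicit false

open MeasureTheory FourierTransform
open scoped ContDiff ENNReal

namespace Crest.Agent.R116.A1k229

open Crest.Agent.R138.Defs (E2 ee)
open Crest.Agent.R138.Wpk685 (cen caps cap win)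
open Crest.Agent.R116.CDef480 Crest.Agent.R116.WC188 Crest.Agent.R116.Ckm538

/-! ### caps -/

theorem caps_coord {ρ : ℝ} (hρ : 0 < ρ) (hρ1 : ρ ≤ 1) {z : ℤ}
    (hz : z ∈ Finset.Icc (-⌈2 / ρ⌉ - 1) (⌈2 / ρ⌉ + 1)) : |ρ * z| ≤ 4 := by
  obtain ⟨hz1, hz2⟩ := Finset.mem_Icc.1 hz
  have h3 : (⌈2 / ρ⌉ : ℝ) < 2 / ρ + 1 := Int.ceil_lt_add_one _
  have h4 : (z : ℝ) ≤ ⌈2 / ρ⌉ + 1 := by exact_mod_cast hz2
  have h5 : (-⌈2 / ρ⌉ - 1 : ℝ) ≤ z := by exact_mod_cast hz1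
  have h6 : ρ * (2 / ρ) = 2 := by field_simp
  rw [abs_le]
  constructor <;> nlinarith

theorem caps_norm {ρ : ℝ} (hρ : 0 < ρ) (hρ1 : ρ ≤ 1) {m : ℤ × ℤ} (hm : m ∈ caps ρ) :
    ‖cen ρ m‖ ≤ 6 := by
  have hm' := Finset.mem_product.1 hm
  have h3 := caps_coord hρ hρ1 hm'.1
  have h4 := caps_coord hρ hρ1 hm'.2
  have h5 : ‖cen ρ m‖ ^ 2 ≤ 6 ^ 2 := by
    rw [normsq2]
    have e0 : cen ρ m 0 = ρ * m.1 := rfl
    have e1 : cen ρ m 1 = ρ * m.2 := rfl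
    rw [e0, e1]
    have a0 := abs_le.1 h3
    have a1 := abs_le.1 h4
    nlinarith [a0.1, a0.2, a1.1, a1.2, sq_nonneg (ρ * (m.1 : ℝ)), sq_nonneg (ρ * (m.2 : ℝ))]
  nlinarith [norm_nonneg (cen ρ m)]

theorem card_caps_le {ρ : ℝ} (hρ : 0 < ρ) (hρ1 : ρ ≤ 1) : ((caps ρ).card : ℝ) ≤ 81 * (ρ ^ 2)⁻¹ := by
  have h3 : (⌈2 / ρ⌉ : ℝ) < 2 / ρ + 1 := Int.ceil_lt_add_one _
  have h0 : (0 : ℤ) ≤ ⌈2 / ρ⌉ := Int.ceil_nonneg (by positivity)
  have e : (caps ρ).card = (2 * ⌈2 / ρ⌉ + 3).toNat * (2 * ⌈2 / ρ⌉ + 3).toNat := by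
    unfold caps
    rw [Finset.card_product, Int.card_Icc]
    congr 1 <;> congr 1 <;> ring
  have h1 : (((2 * ⌈2 / ρ⌉ + 3).toNat : ℕ) : ℝ) ≤ 9 * ρ⁻¹ := by
    have h2 : (((2 * ⌈2 / ρ⌉ + 3).toNat : ℕ) : ℝ) = 2 * ⌈2 / ρ⌉ + 3 := by
      have : (((2 * ⌈2 / ρ⌉ + 3).toNat : ℕ) : ℤ) = 2 * ⌈2 / ρ⌉ + 3 := Int.toNat_of_nonneg (by omega)
      exact_mod_cast this
    rw [h2]
    have h4 : 1 ≤ ρ⁻¹ := (one_le_inv₀ hρ).2 hρ1
    have h5 : 2 / ρ = 2 * ρ⁻¹ := by ring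
    rw [h5] at h3
    rw [h5]
    linarith
  rw [e, Nat.cast_mul]
  calc (((2 * ⌈2 / ρ⌉ + 3).toNat : ℕ) : ℝ) * (((2 * ⌈2 / ρ⌉ + 3).toNat : ℕ) : ℝ)
      ≤ (9 * ρ⁻¹) * (9 * ρ⁻¹) := by gcongr
    _ = 81 * (ρ ^ 2)⁻¹ := by rw [mul_mul_mul_comm, ← sq ρ⁻¹, inv_pow]; norm_num

/-! ### size of the plates -/

theorem plt_norm {A r w : ℝ} (hA : 1 ≤ A) (hr : 1 ≤ r) (hw : w ≤ r) {C : E2} (hC : ‖C‖ ≤ 6)
    {p : E3 × ℝ} (hp : p ∈ cylc (A * r)) {Y : E3} (hY : Y ∈ plt w 1 C p.1 p.2) :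
    ‖Y‖ ≤ 100 * A * r := by
  obtain ⟨hp1, hp2⟩ := hp
  obtain ⟨h1, h2⟩ := hY
  have hAr : r ≤ A * r := by nlinarith
  have hX1 := lat_norm_le p.1
  have hX2 := two_norm_le p.1
  have hs : ‖p.2 • C‖ ≤ 6 * (A * r) := by
    rw [norm_smul, Real.norm_eq_abs]
    nlinarith [abs_nonneg p.2, norm_nonneg C]
  have h3 : ‖lat Y‖ ≤ 8 * (A * r) := by
    calc ‖lat Y‖ = ‖(lat Y - (lat p.1 + p.2 • C)) + (lat p.1 + p.2 • C)‖ := by rw [sub_add_cancel]
      _ ≤ ‖lat Y - (lat p.1 + p.2 • C)‖ + (‖lat p.1‖ + ‖p.2 • C‖) :=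
          (norm_add_le _ _).trans (add_le_add le_rfl (norm_add_le _ _))
      _ ≤ 8 * (A * r) := by linarith
  have h4 : |inner ℝ C (lat p.1)| ≤ 6 * (A * r) := by
    refine (abs_real_inner_le_norm _ _).trans ?_
    nlinarith [norm_nonneg C, norm_nonneg (lat p.1)]
  have h5 : |inner ℝ C (lat Y)| ≤ 6 * (8 * (A * r)) := by
    refine (abs_real_inner_le_norm _ _).trans ?_
    nlinarith [norm_nonneg C, norm_nonneg (lat Y)]
  have h6 : |p.2 * ‖C‖ ^ 2 / 2| ≤ 18 * (A * r) := by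
    rw [abs_div, abs_mul, abs_of_nonneg (sq_nonneg ‖C‖), abs_of_pos (by norm_num : (0:ℝ) < 2)]
    have : ‖C‖ ^ 2 ≤ 36 := by nlinarith [norm_nonneg C]
    have h7 : |p.2| * ‖C‖ ^ 2 ≤ (A * r) * 36 := mul_le_mul hp2 this (sq_nonneg _) (by positivity)
    linarith
  unfold nrm at h2
  have hY2 : |Y 2| ≤ 80 * (A * r) := by
    have e0 : Y 2 + inner ℝ C (lat Y) + 0 * ‖C‖ ^ 2 / 2 = Y 2 + inner ℝ C (lat Y) := by ring
    rw [e0] at h2
    obtain ⟨a1, a2⟩ := abs_le.1 h2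
    obtain ⟨b1, b2⟩ := abs_le.1 h4
    obtain ⟨c1, c2⟩ := abs_le.1 h5
    obtain ⟨d1, d2⟩ := abs_le.1 h6
    obtain ⟨f1, f2⟩ := abs_le.1 (hX2.trans hp1)
    rw [abs_le]
    constructor <;> linarith
  have h8 := norm3_le Y
  nlinarith

/-! ### nets -/

open Classical in
theorem net_card {r R : ℝ} (hr : 1 ≤ r) (hR : r ≤ R) {Z : Finset (E3 × ℝ)} (hZ : Net r R Z) :
    (Z.card : ℝ) ≤ (11 * R) ^ 4 := by
  have hr0 : 0 < r := by linarith
  have hR0 : 0 < R := by linarith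
  set N : ℤ := ⌈2 * R⌉ + 1 with hN
  set φ : E3 × ℝ → (ℤ × ℤ) × (ℤ × ℤ) := fun z =>
    ((⌊2 * z.1 0 / r⌋, ⌊2 * z.1 1 / r⌋), (⌊2 * z.1 2 / r⌋, ⌊2 * z.2 / r⌋)) with hφ
  have hfl : ∀ x y : ℝ, ⌊2 * x / r⌋ = ⌊2 * y / r⌋ → |x - y| < r / 2 := by
    intro x y h
    have h1 := Int.abs_sub_lt_one_of_floor_eq_floor h
    have e : 2 * x / r - 2 * y / r = (2 / r) * (x - y) := by ring
    rw [e, abs_mul, abs_of_pos (by positivity : (0:ℝ) < 2 / r)] at h1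
    have h2 : (2 / r) * (r / 2) = 1 := by field_simp
    nlinarith [abs_nonneg (x - y), (by positivity : (0:ℝ) < 2 / r)]
  have hinj : Set.InjOn φ Z := by
    intro z hz z' hz' h
    simp only [hφ, Prod.mk.injEq] at h
    obtain ⟨⟨h0, h1⟩, h2, h3⟩ := h
    rcases hZ.sep z hz z' hz' with h4 | h4 | h4
    · exact h4
    · exfalso
      have a0 := hfl _ _ h0
      have a1 := hfl _ _ h1
      have a2 := hfl _ _ h2
      have h5 : ‖z.1 - z'.1‖ ^ 2 < r ^ 2 := by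
        rw [normsq3, normsq2]
        simp only [lat_zero, lat_one, PiLp.sub_apply]
        have b0 := sq_lt_sq' (by linarith [(abs_lt.1 a0).1]) (abs_lt.1 a0).2
        have b1 := sq_lt_sq' (by linarith [(abs_lt.1 a1).1]) (abs_lt.1 a1).2
        have b2 := sq_lt_sq' (by linarith [(abs_lt.1 a2).1]) (abs_lt.1 a2).2
        nlinarith
      nlinarith [norm_nonneg (z.1 - z'.1)]
    · exfalso
      have := hfl _ _ h3
      linarith
  have hmem : ∀ z ∈ Z, φ z ∈ (Finset.Icc (-N) N ×ˢ Finset.Icc (-N) N) ×ˢ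
      (Finset.Icc (-N) N ×ˢ Finset.Icc (-N) N) := by
    intro z hz
    obtain ⟨h1, h2⟩ := hZ.mem z hz
    have key : ∀ x : ℝ, |x| ≤ R → ⌊2 * x / r⌋ ∈ Finset.Icc (-N) N := by
      intro x hx
      obtain ⟨hx1, hx2⟩ := abs_le.1 hx
      have h3 : 2 * x / r ≤ 2 * R := by
        rw [div_le_iff₀ hr0]; nlinarith
      have h4 : -(2 * R) ≤ 2 * x / r := by
        rw [le_div_iff₀ hr0]; nlinarith
      have h5 := Int.floor_le (2 * x / r)
      have h6 := Int.lt_floor_add_one (2 * x / r)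
      have h7 := Int.le_ceil (2 * R)
      rw [Finset.mem_Icc, hN]
      constructor
      · have : (-(⌈2 * R⌉ + 1 : ℤ) : ℝ) ≤ ⌊2 * x / r⌋ := by push_cast; linarith
        exact_mod_cast this
      · have : ((⌊2 * x / r⌋ : ℤ) : ℝ) ≤ (⌈2 * R⌉ + 1 : ℤ) := by push_cast; linarith
        exact_mod_cast this
    have hc : ∀ i, |z.1 i| ≤ R := fun i => by
      have := PiLp.norm_apply_le z.1 i
      rw [Real.norm_eq_abs] at this
      exact this.trans h1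
    exact Finset.mk_mem_product (Finset.mk_mem_product (key _ (hc 0)) (key _ (hc 1)))
      (Finset.mk_mem_product (key _ (hc 2)) (key _ h2))
  have h1 := Finset.card_le_card_of_injOn φ hmem hinj
  have h2 : ((Finset.Icc (-N) N).card : ℝ) ≤ 11 * R := by
    rw [Int.card_Icc]
    have h0 : (0:ℤ) ≤ ⌈2 * R⌉ := Int.ceil_nonneg (by positivity)
    have e : (((N + 1 - -N).toNat : ℕ) : ℤ) = 2 * N + 1 := by
      rw [Int.toNat_of_nonneg (by omega)]; ring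
    have e2 : (((N + 1 - -N).toNat : ℕ) : ℝ) = 2 * N + 1 := by exact_mod_cast e
    have h3 := Int.ceil_lt_add_one (2 * R)
    rw [e2, hN]
    push_cast
    linarith
  calc (Z.card : ℝ) ≤ (((Finset.Icc (-N) N ×ˢ Finset.Icc (-N) N) ×ˢ
      (Finset.Icc (-N) N ×ˢ Finset.Icc (-N) N)).card : ℝ) := by exact_mod_cast h1
    _ = ((Finset.Icc (-N) N).card : ℝ) ^ 4 := by
        rw [Finset.card_product, Finset.card_product]
        push_cast
        ring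
    _ ≤ _ := by gcongr

/-- near frames. -/
def Nr1 (r : ℝ) (z w : E3 × ℝ) : Prop := ‖z.1 - w.1‖ < r ∧ |z.2 - w.2| < r

open Classical in
/-- maximal separated subsets. -/
theorem exists_sub (r : ℝ) (hr : 0 < r) (Z : Finset (E3 × ℝ)) : ∃ W ⊆ Z,
    (∀ w ∈ W, ∀ w' ∈ W, w = w' ∨ r ≤ ‖w.1 - w'.1‖ ∨ r ≤ |w.2 - w'.2|) ∧
    ∀ z ∈ Z, ∃ w ∈ W, Nr1 r z w := by
  set F : Finset (Finset (E3 × ℝ)) := Z.powerset.filter fun W =>
    ∀ w ∈ W, ∀ w' ∈ W, w = w' ∨ r ≤ ‖w.1 - w'.1‖ ∨ r ≤ |w.2 - w'.2| with hF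
  have hne : F.Nonempty := ⟨∅, by simp [hF]⟩
  obtain ⟨W, hW, hmax⟩ := Finset.exists_max_image F Finset.card hne
  obtain ⟨hW1, hW2⟩ := Finset.mem_filter.1 hW
  refine ⟨W, Finset.mem_powerset.1 hW1, hW2, fun z hz => ?_⟩
  by_contra hc
  push Not at hc
  have hfar : ∀ w ∈ W, r ≤ ‖z.1 - w.1‖ ∨ r ≤ |z.2 - w.2| := by
    intro w hw
    have := hc w hw
    unfold Nr1 at this
    by_contra h
    push Not at h
    exact this h
  have hzW : z ∉ W := fun h => by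
    have := hfar z h
    simp at this
    linarith
  have hins : insert z W ∈ F := by
    refine Finset.mem_filter.2 ⟨Finset.mem_powerset.2 (Finset.insert_subset hz
      (Finset.mem_powerset.1 hW1)), ?_⟩
    intro w hw w' hw'
    rcases Finset.mem_insert.1 hw with h1 | h1
    · rcases Finset.mem_insert.1 hw' with h2 | h2
      · exact Or.inl (h1.trans h2.symm)
      · rw [h1]
        exact Or.inr (hfar w' h2)
    · rcases Finset.mem_insert.1 hw' with h2 | h2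
      · rw [h2]
        right
        rcases hfar w h1 with h | h
        · left; rwa [norm_sub_rev]
        · right; rwa [abs_sub_comm]
      · exact hW2 w h1 w' h2
  have h1 := hmax _ hins
  rw [Finset.card_insert_of_notMem hzW] at h1
  omega

/-! ### re-indexing -/

theorem reindex {α β : Type*} [Inhabited α] (T : Finset α) (F : α → β) :
    ∃ (I : Finset ℕ) (τ : ℕ → α), (∀ i ∈ I, τ i ∈ T) ∧ Set.InjOn τ I ∧
      ∀ Φ : β → ℝ≥0∞, ∑ i ∈ I, Φ (F (τ i)) = ∑ t ∈ T, Φ (F t) := by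
  classical
  set e := T.equivFin with he
  set τ : ℕ → α := fun i => if h : i < T.card then (e.symm ⟨i, h⟩ : α) else default with hτ
  have h1 : ∀ i ∈ Finset.range T.card, τ i ∈ T := by
    intro i hi
    have := Finset.mem_range.1 hi
    simp only [hτ, this, dif_pos]
    exact (e.symm ⟨i, this⟩).2
  have hinj : Set.InjOn τ (Finset.range T.card) := by
    intro i hi j hj h
    have hi' := Finset.mem_range.1 (Finset.mem_coe.1 hi)
    have hj' := Finset.mem_range.1 (Finset.mem_coe.1 hj)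
    simp only [hτ, hi', hj', dif_pos] at h
    have h2 := e.symm.injective (Subtype.ext h)
    exact congrArg Fin.val h2
  refine ⟨Finset.range T.card, τ, h1, hinj, fun Φ => ?_⟩
  refine Finset.sum_bij (fun i _ => τ i) h1 (fun i hi j hj h => hinj hi hj h) ?_ fun _ _ => rfl
  intro t ht
  refine ⟨(e ⟨t, ht⟩ : ℕ), Finset.mem_range.2 (e ⟨t, ht⟩).2, ?_⟩
  simp only [hτ, (e ⟨t, ht⟩).2, dif_pos]
  simp

end Crest.Agent.R116.A1k229
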