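import Crest.Agent.R116.A1k2_229

/-!
# R116 (S0155), wave side: `A1k` of the skeleton, part 3 (helper229)

`A1k_of_DECc : DECc M q → A1k M q`: re-rooting of the plate functional on a maximal separated net of
frames of level `r1`, decomposition of `g` at every frame, combination of the plate systems.
-/

set_option autoImplicit false

open MeasureTheory FourierTransform
open scoped ContDiff ENNReal

namespace Crest.Agent.R116.A1k229

open Crest.Agent.R138.Defs (E2 ee)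
open Crest.Agent.R138.Wpk685 (cen caps cap win)
open Crest.Agent.R116.CDef480 Crest.Agent.R116.WC188 Crest.Agent.R116.Ckm538

/-! ### monotonicity -/

theorem St_mono {M κ q a b b' M0 : ℝ} {C0 : E2} {σ : ℝ} {g : E3 → ℂ} {R D : ℝ} (hb : b ≤ b')
    (h : St M κ q a b M0 C0 σ g R D) : St M κ q a b' M0 C0 σ g R D :=
  { h with
    supp := fun ζ hζ => ⟨(h.supp ζ hζ).1, (h.supp ζ hζ).2.1, (h.supp ζ hζ).2.2.1.trans hb,
      (h.supp ζ hζ).2.2.2⟩ }

theorem pbx_mono {κ A A' r s1 s2 : ℝ} (hA : A ≤ A') (hr : 0 ≤ r) (h1 : 0 ≤ s1)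
    (h2 : 0 ≤ s2) (c : E2) (X0 : E3) (f : Crest.Agent.R116.LZg725.Cf E2) (m : ℤ × ℤ) :
    pbx κ A r s1 s2 c X0 f m ⊆ pbx κ A' r s1 s2 c X0 f m := by
  have hT : 0 ≤ TT κ s2 r := (sq_nonneg s2).trans (le_max_left _ _)
  rintro X ⟨g1, g2, g3, g4, g5⟩
  refine ⟨g1.trans ?_, g2.trans ?_, g3.trans ?_, g4.trans ?_, g5.trans ?_⟩ <;> gcongr

theorem cylc_mono {R R' : ℝ} (h : R ≤ R') : cylc R ⊆ cylc R' :=
  fun _ hp => ⟨hp.1.trans h, hp.2.trans h⟩

/-! ### slices -/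

theorem slc_selc {η0 κ ρ : ℝ} (hκ : 0 < κ) (g : E3 → ℂ) (S : ℤ × ℤ → Set E3) :
    Slc η0 (2 * κ) (selc η0 κ ρ g S) := by
  intro ζ hζ
  by_contra hc
  push Not at hc
  apply hζ
  unfold selc
  refine Finset.sum_eq_zero fun m _ => ?_
  have h0 : etw η0 κ ζ = 0 := by
    unfold etw
    have h1 : (2 : ℝ) ≤ dist ((ζ 2 - η0) / κ) 0 := by
      rw [dist_zero_right, Real.norm_eq_abs, abs_div, abs_of_pos hκ, le_div_iff₀ hκ]
      exact hc.le
    rw [ContDiffBump.zero_of_le_dist _ h1]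
    simp
  unfold piecec
  rw [h0]
  ring

/-! ### tiny terms -/

theorem apl_tiny {r A E : ℝ} (hr : 1 ≤ r) (hA : 1 ≤ A) (hE : 0 ≤ E) {h : E3 → ℂ}
    (hs : ∀ m, ∀ y : E3, ‖y‖ ≤ 100 * A * r → ‖umc (r ^ (-(1/2) : ℝ)) h m y‖ ≤ E)
    {p : E3 × ℝ} (hp : p ∈ cylc (A * r)) :
    apl r h p ≤ ENNReal.ofReal (81 * (100 * A * r) ^ 3 * E ^ 2) *
      volume (Metric.ball (0 : E3) 1) := by
  have hr0 : 0 < r := by linarith
  set ρ : ℝ := r ^ (-(1/2) : ℝ) with hρd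
  have hρ : 0 < ρ := Real.rpow_pos_of_pos hr0 _
  have hρ1 : ρ ≤ 1 := Real.rpow_le_one_of_one_le_of_nonpos hr (by norm_num)
  have hρ2 : ρ ^ 2 = r⁻¹ := by
    rw [hρd, ← Real.rpow_natCast, ← Real.rpow_mul hr0.le]
    norm_num
    exact Real.rpow_neg_one r
  have hw : r ^ (1/2 : ℝ) ≤ r := by
    calc r ^ (1/2 : ℝ) ≤ r ^ (1 : ℝ) := Real.rpow_le_rpow_of_exponent_le hr (by norm_num)
      _ = r := Real.rpow_one r
  set B : ℝ≥0∞ := ENNReal.ofReal ((100 * A * r) ^ 3) * volume (Metric.ball (0 : E3) 1) with hB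
  have hvol : volume (Metric.closedBall (0 : E3) (100 * A * r)) = B := by
    rw [Measure.addHaar_closedBall _ _ (by positivity), hB]
    congr 3
    simp
  have h1 : ∀ m ∈ caps ρ, ∫⁻ Y in plt (r ^ (1/2 : ℝ)) 1 (cen ρ m) p.1 p.2, ‖umc ρ h m Y‖ₑ ^ 2 ≤
      ENNReal.ofReal (E ^ 2) * B := by
    intro m hm
    have hsub : plt (r ^ (1/2 : ℝ)) 1 (cen ρ m) p.1 p.2 ⊆
        Metric.closedBall (0 : E3) (100 * A * r) := by
      intro Y hY
      rw [mem_closedBall_zero_iff]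
      exact plt_norm hA hr hw (caps_norm hρ hρ1 hm) hp hY
    calc ∫⁻ Y in plt (r ^ (1/2 : ℝ)) 1 (cen ρ m) p.1 p.2, ‖umc ρ h m Y‖ₑ ^ 2
        ≤ ∫⁻ Y in Metric.closedBall (0 : E3) (100 * A * r), ‖umc ρ h m Y‖ₑ ^ 2 :=
          lintegral_mono_set hsub
      _ ≤ ∫⁻ Y in Metric.closedBall (0 : E3) (100 * A * r), ENNReal.ofReal (E ^ 2) := by
          refine setLIntegral_mono' Metric.isClosed_closedBall.measurableSet fun Y hY => ?_
          rw [mem_closedBall_zero_iff] at hY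
          rw [ENNReal.ofReal_pow hE]
          gcongr
          rw [← ofReal_norm]
          exact ENNReal.ofReal_le_ofReal (hs m Y hY)
      _ = ENNReal.ofReal (E ^ 2) * B := by
          rw [setLIntegral_const, hvol]
  unfold apl
  calc ENNReal.ofReal r⁻¹ * ∑ m ∈ caps ρ, ∫⁻ Y in plt (r ^ (1/2 : ℝ)) 1 (cen ρ m) p.1 p.2,
        ‖umc ρ h m Y‖ₑ ^ 2
      ≤ ENNReal.ofReal r⁻¹ * ∑ m ∈ caps ρ, ENNReal.ofReal (E ^ 2) * B := by
        gcongr with m hm
        exact h1 m hm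
    _ = ENNReal.ofReal r⁻¹ * (((caps ρ).card : ℝ≥0∞) * (ENNReal.ofReal (E ^ 2) * B)) := by
        rw [Finset.sum_const, nsmul_eq_mul]
    _ ≤ ENNReal.ofReal r⁻¹ * (ENNReal.ofReal (81 * r) * (ENNReal.ofReal (E ^ 2) * B)) := by
        gcongr
        rw [← ENNReal.ofReal_natCast]
        refine ENNReal.ofReal_le_ofReal ?_
        have := card_caps_le hρ hρ1
        rwa [hρ2, inv_inv] at this
    _ = _ := by
        rw [hB, ← mul_assoc, ← mul_assoc, ← mul_assoc, ← ENNReal.ofReal_mul (by positivity),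
          ← ENNReal.ofReal_mul (by positivity), ← ENNReal.ofReal_mul (by positivity)]
        congr 2
        field_simp

theorem vol_cylc_le {R : ℝ} (hR : 0 ≤ R) :
    volume (cylc R) ≤ ENNReal.ofReal (2 * R ^ 4) * volume (Metric.ball (0 : E3) 1) := by
  have hsub : cylc R ⊆ Metric.closedBall (0 : E3) R ×ˢ Set.Icc (-R) R := by
    rintro p ⟨h1, h2⟩
    exact ⟨by rwa [mem_closedBall_zero_iff], abs_le.1 h2⟩
  refine (measure_mono hsub).trans (le_of_eq ?_)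
  rw [Measure.volume_eq_prod, Measure.prod_prod, Measure.addHaar_closedBall _ _ hR,
    Real.volume_Icc]
  have e : Module.finrank ℝ E3 = 3 := by simp
  rw [e, mul_right_comm, ← ENNReal.ofReal_mul (by positivity)]
  congr 2
  ring

theorem int_tiny {r A E : ℝ} (hr : 1 ≤ r) (hA : 1 ≤ A) (hE : 0 ≤ E) {h : E3 → ℂ}
    (hs : ∀ m, ∀ y : E3, ‖y‖ ≤ 100 * A * r → ‖umc (r ^ (-(1/2) : ℝ)) h m y‖ ≤ E) :
    ∫⁻ p in cylc (A * r), (apl r h p) ^ (3 / 2 : ℝ) ≤
      (ENNReal.ofReal (81 * (100 * A * r) ^ 3 * E ^ 2) *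
        volume (Metric.ball (0 : E3) 1)) ^ (3 / 2 : ℝ) *
      (ENNReal.ofReal (2 * (A * r) ^ 4) * volume (Metric.ball (0 : E3) 1)) := by
  have hm : MeasurableSet (cylc (A * r)) := by
    have e : cylc (A * r) = Metric.closedBall (0 : E3) (A * r) ×ˢ Set.Icc (-(A * r)) (A * r) := by
      ext p
      simp only [cylc, Set.mem_ofPred_eq, Set.mem_prod, mem_closedBall_zero_iff, Set.mem_Icc,
        ← abs_le]
    rw [e]
    exact Metric.isClosed_closedBall.measurableSet.prod measurableSet_Icc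
  calc ∫⁻ p in cylc (A * r), (apl r h p) ^ (3 / 2 : ℝ)
      ≤ ∫⁻ p in cylc (A * r), (ENNReal.ofReal (81 * (100 * A * r) ^ 3 * E ^ 2) *
        volume (Metric.ball (0 : E3) 1)) ^ (3 / 2 : ℝ) := by
        refine setLIntegral_mono' hm fun p hp => ?_
        exact ENNReal.rpow_le_rpow (apl_tiny hr hA hE hs hp) (by norm_num)
    _ ≤ _ := by
        rw [setLIntegral_const]
        gcongr
        exact vol_cylc_le (by positivity)

/-! ### combination of plate systems -/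

theorem combine {M κ A A' r s1 s2 R : ℝ} (hA : A ≤ A') (hr : 0 ≤ r) (h1 : 0 ≤ s1)
    (h2 : 0 ≤ s2) (g : E3 → ℂ) (W : Finset (E3 × ℝ))
    (hsep : ∀ w ∈ W, ∀ w' ∈ W, w = w' ∨ r ≤ ‖w.1 - w'.1‖ ∨ r ≤ |w.2 - w'.2|)
    (I : E3 × ℝ → Finset ℕ) (P : E3 × ℝ → ℕ → Plate)
    (hP : ∀ w ∈ W, Plates M κ A r s1 s2 R (I w) (P w) ∧ ∀ i ∈ I w, (P w i).z = w) :
    ∑ w ∈ W, val κ g r s1 s2 (I w) (P w) ≤ SIG M κ A' r s1 s2 g R := by
  classical
  obtain ⟨J, τ, hτ, hinj, hsum⟩ := reindex (W.sigma I)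
    (fun t : (_ : E3 × ℝ) × ℕ => P t.1 t.2)
  have e : ∑ w ∈ W, val κ g r s1 s2 (I w) (P w) =
      val κ g r s1 s2 J (fun i => P (τ i).1 (τ i).2) := by
    unfold val
    rw [hsum (fun p : Plate => ENNReal.ofReal ((r * scost κ s1 s2 r) ^ (-(1/2) : ℝ)) *
      (ENNReal.ofReal r * enc (r ^ (-(1/2) : ℝ)) (trc p.z g) p.S) ^ (3 / 2 : ℝ)),
      Finset.sum_sigma]
  rw [e]
  have hτ' : ∀ i ∈ J, (τ i).1 ∈ W ∧ (τ i).2 ∈ I (τ i).1 := fun i hi => by
    have := hτ i hi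
    rwa [Finset.mem_sigma] at this
  have hz : ∀ i ∈ J, (P (τ i).1 (τ i).2).z = (τ i).1 := fun i hi =>
    (hP _ (hτ' i hi).1).2 _ (hτ' i hi).2
  refine le_iSup₂_of_le J (fun i => P (τ i).1 (τ i).2) (le_iSup_of_le ?_ le_rfl)
  constructor
  · intro i hi
    exact (hP _ (hτ' i hi).1).1.mem _ (hτ' i hi).2
  · intro i hi j hj
    rw [hz i hi, hz j hj]
    exact hsep _ (hτ' i hi).1 _ (hτ' j hj).1
  · intro i hi
    refine ((hP _ (hτ' i hi).1).1.X0 _ (hτ' i hi).2).trans ?_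
    gcongr
  · intro i hi
    exact ((hP _ (hτ' i hi).1).1.c _ (hτ' i hi).2).trans hA
  · intro i hi
    exact (hP _ (hτ' i hi).1).1.adm _ (hτ' i hi).2
  · intro i hi
    exact (hP _ (hτ' i hi).1).1.meas _ (hτ' i hi).2
  · intro i hi m
    exact ((hP _ (hτ' i hi).1).1.box _ (hτ' i hi).2 m).trans (pbx_mono hA hr h1 h2 _ _ _ _)
  · intro i hi j hj hne hzz m
    rw [hz i hi, hz j hj] at hzz
    have h4 : (τ i).2 ≠ (τ j).2 := by
      intro hc
      apply hne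
      refine hinj hi hj ?_
      exact Sigma.ext hzz (heq_of_eq hc)
    have h5 : (τ j).2 ∈ I (τ i).1 := by rw [hzz]; exact (hτ' j hj).2
    have h6 := (hP _ (hτ' i hi).1).1.disj _ (hτ' i hi).2 _ h5 h4
      ((hP _ (hτ' i hi).1).2 _ (hτ' i hi).2 |>.trans ((hP _ (hτ' i hi).1).2 _ h5).symm) m
    show Disjoint ((P (τ i).1 (τ i).2).S m) ((P (τ j).1 (τ j).2).S m)
    rw [← hzz]
    exact h6

/-! ### the near frames -/

open Classical in
/-- the frames near `w`, seen from `w`. -/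
theorem group {r r1 A A' : ℝ} (hr : 0 ≤ r) (hA : A ≤ A') {G : E3 → ℂ} {w : E3 × ℝ}
    (Z : Finset (E3 × ℝ))
    (hsep : ∀ z ∈ Z, ∀ z' ∈ Z, z = z' ∨ r ≤ ‖z.1 - z'.1‖ ∨ r ≤ |z.2 - z'.2|)
    (hnear : ∀ z ∈ Z, Nr1 r1 z w) :
    ∑ z ∈ Z, ∫⁻ p in cylc (A * r), (apl r (trc (z - w) G) p) ^ (3 / 2 : ℝ) ≤ NP A' r G r1 := by
  have hnet : Net r r1 (Z.image (fun z => z - w)) := by
    constructor
    · intro z' hz'
      obtain ⟨z, hz, rfl⟩ := Finset.mem_image.1 hz'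
      have := hnear z hz
      exact ⟨this.1.le, this.2.le⟩
    · intro z1 hz1 z2 hz2
      obtain ⟨y1, hy1, rfl⟩ := Finset.mem_image.1 hz1
      obtain ⟨y2, hy2, rfl⟩ := Finset.mem_image.1 hz2
      rcases hsep y1 hy1 y2 hy2 with h | h | h
      · left; rw [h]
      · right; left
        have : (y1 - w).1 - (y2 - w).1 = y1.1 - y2.1 := by
          rw [Prod.fst_sub, Prod.fst_sub]; abel
        rwa [this]
      · right; right
        have : (y1 - w).2 - (y2 - w).2 = y1.2 - y2.2 := by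
          rw [Prod.snd_sub, Prod.snd_sub]; abel
        rwa [this]
  unfold NP
  refine le_trans ?_ (le_iSup₂_of_le _ hnet le_rfl)
  rw [Finset.sum_image (fun _ _ _ _ h => sub_left_injective h)]
  refine Finset.sum_le_sum fun z _ => lintegral_mono_set (cylc_mono ?_)
  gcongr

/-! ### pointwise decomposition -/

theorem apl_dec {r : ℝ} {a b a' b' : ℝ} (ha : 0 < a) (ha' : 0 < a') {g : E3 → ℂ} {w z : E3 × ℝ}
    (Λ : Finset ℕ) {G : ℕ → E3 → ℂ} {rest : E3 → ℂ} (hG : ∀ k ∈ Λ, Nice a b (G k))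
    (hrest : Nice a' b' rest) (hsum : ∀ ζ, trc w g ζ = ∑ k ∈ Λ, G k ζ + rest ζ) (p : E3 × ℝ) :
    (apl r (trc z g) p) ^ (3 / 2 : ℝ) ≤ ((Λ.card + 1 : ℕ) : ℝ≥0∞) ^ 3 *
      (∑ k ∈ Λ, (apl r (trc (z - w) (G k)) p) ^ (3 / 2 : ℝ) +
        (apl r (trc (z - w) rest) p) ^ (3 / 2 : ℝ)) := by
  classical
  set H : Option ℕ → E3 → ℂ := fun o => trc (z - w) (o.elim rest G) with hH
  have e1 : trc z g = fun ζ => ∑ o ∈ Finset.insertNone Λ, H o ζ := by
    funext ζ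
    have e0 : trc z g = trc (z - w) (trc w g) := by
      rw [trc_trc, add_sub_cancel]
    rw [e0, Finset.sum_insertNone]
    simp only [hH, Option.elim]
    unfold trc at hsum ⊢
    rw [hsum, add_mul, Finset.sum_mul, add_comm]
  have hI : ∀ o ∈ Finset.insertNone Λ, Integrable (H o) := by
    intro o ho
    rcases o with _ | k
    · exact (hrest.trc _).int ha'
    · have hk : k ∈ Λ := by simpa using ho
      exact ((hG k hk).trc _).int ha
  have hc : (Finset.insertNone Λ).card = Λ.card + 1 := Finset.card_insertNone Λ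
  rw [e1]
  calc (apl r (fun ζ => ∑ o ∈ Finset.insertNone Λ, H o ζ) p) ^ (3 / 2 : ℝ)
      ≤ (((Λ.card + 1 : ℕ) : ℝ≥0∞) * ∑ o ∈ Finset.insertNone Λ, apl r (H o) p) ^ (3 / 2 : ℝ) := by
        refine ENNReal.rpow_le_rpow ?_ (by norm_num)
        have := apl_sum (r := r) (Finset.insertNone Λ) hI p
        rwa [hc] at this
    _ = ((Λ.card + 1 : ℕ) : ℝ≥0∞) ^ (3 / 2 : ℝ) *
        (∑ o ∈ Finset.insertNone Λ, apl r (H o) p) ^ (3 / 2 : ℝ) :=
        ENNReal.mul_rpow_of_nonneg _ _ (by norm_num)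
    _ ≤ ((Λ.card + 1 : ℕ) : ℝ≥0∞) ^ (3 / 2 : ℝ) * (((Λ.card + 1 : ℕ) : ℝ≥0∞) ^ (3 / 2 : ℝ) *
        ∑ o ∈ Finset.insertNone Λ, apl r (H o) p ^ (3 / 2 : ℝ)) := by
        gcongr
        have := rpow_sum (Finset.insertNone Λ) (fun o => apl r (H o) p)
        rwa [hc] at this
    _ = _ := by
        rw [← mul_assoc, ← ENNReal.rpow_add_of_nonneg _ _ (by norm_num) (by norm_num),
          Finset.sum_insertNone]
        have e3 : (3 / 2 + 3 / 2 : ℝ) = ((3 : ℕ) : ℝ) := by norm_num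
        rw [e3, ENNReal.rpow_natCast, add_comm (∑ k ∈ Λ, _)]
        rfl

theorem int_dec {r A : ℝ} {a b a' b' : ℝ} (ha : 0 < a) (ha' : 0 < a') {g : E3 → ℂ}
    {w z : E3 × ℝ} (Λ : Finset ℕ) {G : ℕ → E3 → ℂ} {rest : E3 → ℂ} (hG : ∀ k ∈ Λ, Nice a b (G k))
    (hrest : Nice a' b' rest) (hsum : ∀ ζ, trc w g ζ = ∑ k ∈ Λ, G k ζ + rest ζ) :
    ∫⁻ p in cylc (A * r), (apl r (trc z g) p) ^ (3 / 2 : ℝ) ≤
      ((Λ.card + 1 : ℕ) : ℝ≥0∞) ^ 3 *
      ((∑ k ∈ Λ, ∫⁻ p in cylc (A * r), (apl r (trc (z - w) (G k)) p) ^ (3 / 2 : ℝ)) +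
        ∫⁻ p in cylc (A * r), (apl r (trc (z - w) rest) p) ^ (3 / 2 : ℝ)) := by
  have hm : ∀ k ∈ Λ, Measurable fun p => (apl r (trc (z - w) (G k)) p) ^ (3 / 2 : ℝ) :=
    fun k hk => (apl_meas (((hG k hk).trc _).int ha)).pow_const _
  calc ∫⁻ p in cylc (A * r), (apl r (trc z g) p) ^ (3 / 2 : ℝ)
      ≤ ∫⁻ p in cylc (A * r), ((Λ.card + 1 : ℕ) : ℝ≥0∞) ^ 3 *
      (∑ k ∈ Λ, (apl r (trc (z - w) (G k)) p) ^ (3 / 2 : ℝ) +
        (apl r (trc (z - w) rest) p) ^ (3 / 2 : ℝ)) :=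
        lintegral_mono fun p => apl_dec ha ha' Λ hG hrest hsum p
    _ = _ := by
        rw [lintegral_const_mul' _ _ (by finiteness),
          lintegral_add_left (Finset.measurable_fun_sum _ hm), lintegral_finsetSum _ hm]

/-! ### numerical bookkeeping of the rest -/

theorem tiny_num {A C1 V0 R r E D q ε M0 : ℝ} {K : ℕ} (hA : 1 ≤ A) (hV : 0 ≤ V0)
    (hR : 1 ≤ R) (hr0 : 1 ≤ r) (hr : r ≤ R) (hE0 : 0 ≤ E) (hE : E ≤ R ^ M0 * D)
    (hK : ε + 12 + M0 / 2 + q ≤ K) :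
    (81 * (100 * A * r) ^ 3 * (C1 * R ^ (-(K : ℝ)) * Real.sqrt E) ^ 2 * V0) ^ (3 / 2 : ℝ) *
      (2 * (A * r) ^ 4 * V0) * (11 * R) ^ 4 * R ^ ε ≤
      ((81 * (100 * A) ^ 3 * C1 ^ 2 * V0) ^ (3 / 2 : ℝ) * (2 * A ^ 4 * V0) * 11 ^ 4) *
        (R ^ (-q) * (R * E * Real.sqrt D)) := by
  have hR0 : 0 < R := by linarith
  have e1 : (C1 * R ^ (-(K : ℝ)) * Real.sqrt E) ^ 2 = C1 ^ 2 * (R ^ (-(K : ℝ))) ^ 2 * E := by
    rw [mul_pow, mul_pow, Real.sq_sqrt hE0]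
  have h1 : 81 * (100 * A * r) ^ 3 * (C1 * R ^ (-(K : ℝ)) * Real.sqrt E) ^ 2 * V0 ≤
      (81 * (100 * A) ^ 3 * C1 ^ 2 * V0) * (R ^ (3 - 2 * (K : ℝ)) * E) := by
    rw [e1]
    have e2 : R ^ (3 - 2 * (K : ℝ)) = R ^ 3 * (R ^ (-(K : ℝ))) ^ 2 := by
      rw [← Real.rpow_natCast (R ^ (-(K : ℝ))) 2, ← Real.rpow_mul hR0.le, ← Real.rpow_natCast R 3,
        ← Real.rpow_add hR0]
      congr 1
      push_cast
      ring
    rw [e2]
    calc 81 * (100 * A * r) ^ 3 * (C1 ^ 2 * (R ^ (-(K : ℝ))) ^ 2 * E) * V0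
        ≤ 81 * (100 * A * R) ^ 3 * (C1 ^ 2 * (R ^ (-(K : ℝ))) ^ 2 * E) * V0 := by gcongr
      _ = _ := by ring
  have h2 : (81 * (100 * A * r) ^ 3 * (C1 * R ^ (-(K : ℝ)) * Real.sqrt E) ^ 2 * V0) ^ (3 / 2 : ℝ) ≤
      (81 * (100 * A) ^ 3 * C1 ^ 2 * V0) ^ (3 / 2 : ℝ) *
        (R ^ ((3 - 2 * (K : ℝ)) * (3 / 2)) * (E * (R ^ (M0 / 2) * Real.sqrt D))) := by
    refine (Real.rpow_le_rpow (by positivity) h1 (by norm_num)).trans ?_
    rw [Real.mul_rpow (by positivity) (by positivity), Real.mul_rpow (by positivity) hE0,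
      ← Real.rpow_mul hR0.le]
    gcongr
    have e3 : E ^ (3 / 2 : ℝ) = E * Real.sqrt E := by
      rw [Real.sqrt_eq_rpow]
      rcases hE0.eq_or_lt with h0 | h0
      · rw [← h0, Real.zero_rpow (by norm_num)]; ring
      · nth_rewrite 2 [← Real.rpow_one E]
        rw [← Real.rpow_add h0]
        norm_num
    rw [e3]
    gcongr
    calc Real.sqrt E ≤ Real.sqrt (R ^ M0 * D) := Real.sqrt_le_sqrt hE
      _ = Real.sqrt (R ^ M0) * Real.sqrt D := Real.sqrt_mul (by positivity) _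
      _ = R ^ (M0 / 2) * Real.sqrt D := by
          congr 1
          rw [Real.sqrt_eq_rpow, ← Real.rpow_mul hR0.le]
          congr 1
          ring
  calc (81 * (100 * A * r) ^ 3 * (C1 * R ^ (-(K : ℝ)) * Real.sqrt E) ^ 2 * V0) ^ (3 / 2 : ℝ) *
        (2 * (A * r) ^ 4 * V0) * (11 * R) ^ 4 * R ^ ε
      ≤ ((81 * (100 * A) ^ 3 * C1 ^ 2 * V0) ^ (3 / 2 : ℝ) *
        (R ^ ((3 - 2 * (K : ℝ)) * (3 / 2)) * (E * (R ^ (M0 / 2) * Real.sqrt D)))) *
        (2 * (A * R) ^ 4 * V0) * (11 * R) ^ 4 * R ^ ε := by gcongr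
    _ = ((81 * (100 * A) ^ 3 * C1 ^ 2 * V0) ^ (3 / 2 : ℝ) * (2 * A ^ 4 * V0) * 11 ^ 4) *
        ((R ^ ((3 - 2 * (K : ℝ)) * (3 / 2)) * R ^ (M0 / 2) * R ^ 4 * R ^ 4 * R ^ ε) *
          (E * Real.sqrt D)) := by ring
    _ ≤ ((81 * (100 * A) ^ 3 * C1 ^ 2 * V0) ^ (3 / 2 : ℝ) * (2 * A ^ 4 * V0) * 11 ^ 4) *
        ((R ^ (-q) * R) * (E * Real.sqrt D)) := by
        refine mul_le_mul_of_nonneg_left (mul_le_mul_of_nonneg_right ?_ (by positivity))
          (by positivity)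
        rw [← Real.rpow_natCast R 4, ← Real.rpow_add hR0, ← Real.rpow_add hR0,
          ← Real.rpow_add hR0, ← Real.rpow_add hR0]
        have e5 : R ^ (-q) * R = R ^ (-q + 1) := by
          rw [Real.rpow_add hR0, Real.rpow_one]
        rw [e5]
        refine Real.rpow_le_rpow_of_exponent_le hR ?_
        have hK0 : (0 : ℝ) ≤ K := Nat.cast_nonneg K
        push_cast
        linarith
    _ = _ := by ring

/-! ### the theorem -/

instance : Nonempty Plate := ⟨⟨0, 0, 0, ⟨0, 0, 0, 0, 0⟩, fun _ => ∅⟩⟩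

set_option maxHeartbeats 1600000 in
/-- **A1k from DECc.** -/
theorem A1k_of_DECc {M q : ℝ} (hdec : DECc M q) : A1k M q := by
  classical
  intro a b A ε M0 ha hb hb2 hA hε
  set K : ℕ := ⌈ε + 12 + M0 / 2 + q⌉₊ with hKd
  have hK : ε + 12 + M0 / 2 + q ≤ K := Nat.le_ceil _
  obtain ⟨A', Cn, R0, hA', hCn, hR0, hdec⟩ := hdec a b (100 * A) (ε / 4) M0 ha hb hb2
    (by linarith) (by positivity) K
  set V : ℝ := (volume (Metric.ball (0 : E3) 1)).toReal with hV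
  have hVe : volume (Metric.ball (0 : E3) 1) = ENNReal.ofReal V :=
    (ENNReal.ofReal_toReal Metric.isBounded_ball.measure_lt_top.ne).symm
  have hV0 : 0 ≤ V := ENNReal.toReal_nonneg
  set Ct : ℝ := (81 * (100 * A) ^ 3 * Cn ^ 2 * V) ^ (3 / 2 : ℝ) * (2 * A ^ 4 * V) * 11 ^ 4 with hCt
  have hCt0 : 0 ≤ Ct := by positivity
  refine ⟨max A A', (Cn + 1) ^ 5 + (Cn + 1) ^ 3 * Ct, max R0 ((36 / (2 - b) ^ 2) ^ 2),
    hA.trans (le_max_left _ _), by positivity, hR0.trans (le_max_left _ _), ?_⟩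
  intro κ η0 C0 σ g R D hκ hκ1 hR hκR hSs r r1 hr hrr1 hr1R hr1 Q hQ hch
  have hRR0 : R0 ≤ R := (le_max_left _ _).trans hR
  have hR1 : 1 ≤ R := hR0.trans hRR0
  have hRpos : 0 < R := by linarith
  have hr1pos : 0 < r1 := by linarith
  have hr0 : 0 < r := by linarith
  obtain ⟨Λ, s, cl, hcard, hSd, -, hD⟩ := hdec R r1 κ hRR0 hr1 hr1R hκ hκ1 hκR 1 le_rfl
  -- support of the children
  have hb3 : b + 3 * r1 ^ (-(1/2) : ℝ) ≤ (b + 2) / 2 := by
    have h2b : 0 < 2 - b := by linarith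
    have h1 : 6 / (2 - b) ≤ r1 ^ (1/2 : ℝ) := by
      have h2 : (36 / (2 - b) ^ 2) ^ 2 ≤ R := (le_max_right _ _).trans hR
      have h3 : 36 / (2 - b) ^ 2 ≤ R ^ (1/2 : ℝ) := by
        rw [← Real.sqrt_eq_rpow]
        exact Real.le_sqrt_of_sq_le h2
      rw [← Real.sqrt_eq_rpow]
      refine Real.le_sqrt_of_sq_le (le_trans (le_of_eq ?_) (h3.trans hr1))
      rw [div_pow]
      norm_num
    have h4 : r1 ^ (-(1/2) : ℝ) = (r1 ^ (1/2 : ℝ))⁻¹ := Real.rpow_neg hr1pos.le _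
    have h5 : (r1 ^ (1/2 : ℝ))⁻¹ ≤ (6 / (2 - b))⁻¹ := inv_anti₀ (by positivity) h1
    have h6 : (6 / (2 - b))⁻¹ = (2 - b) / 6 := by rw [inv_div]
    rw [h4]
    rw [h6] at h5
    linarith
  -- the number of terms
  have hn1 : ((Λ.card + 1 : ℕ) : ℝ≥0∞) ≤ ENNReal.ofReal ((Cn + 1) * R ^ (ε / 4)) := by
    rw [← ENNReal.ofReal_natCast]
    refine ENNReal.ofReal_le_ofReal ?_
    push_cast
    have h1 : 1 ≤ R ^ (ε / 4) := Real.one_le_rpow hR1 (by positivity)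
    have h2 : (Λ.card : ℝ) ≤ Cn * R ^ (ε / 4) := by simpa using hcard
    linarith
  set N1 : ℝ≥0∞ := ((Λ.card + 1 : ℕ) : ℝ≥0∞) with hN1
  set N2 : ℝ≥0∞ := ENNReal.ofReal ((Cn + 1) * R ^ (ε / 4)) with hN2
  -- it suffices to bound every net
  set RestB : ℝ≥0∞ := ENNReal.ofReal ((Cn + 1) ^ 3 * Ct * R ^ (-q) * SS g R D) with hRB
  have main : ∀ Z : Finset (E3 × ℝ), Net r R Z →
      ∑ z ∈ Z, ∫⁻ p in cylc (A * r), (apl r (trc z g) p) ^ (3 / 2 : ℝ) ≤
      N1 ^ 3 * (∑ k ∈ Λ, ENNReal.ofReal Q * (ENNReal.ofReal Cn *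
        (ENNReal.ofReal ((s k).2 ^ (-q / 2)) * SIG M κ (max A A') r1 (s k).1 (s k).2 g R))) +
      RestB := by
    intro Z hZ
    obtain ⟨W, hWZ, hWsep, hWnear⟩ := exists_sub r1 hr1pos Z
    have hWR : ∀ w ∈ W, w ∈ cylc R := fun w hw => hZ.mem w (hWZ hw)
    choose! G D' rest I P hout using fun (w : E3 × ℝ) (hw : w ∈ W) =>
      hD η0 C0 σ g D hSs w (hWR w hw) (fun _ _ _ => 0) (fun _ _ => measurable_const)
        (fun _ _ _ => Nat.one_pos)
    choose! wz hwz hwn using hWnear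
    have hnG : ∀ w ∈ W, ∀ k ∈ Λ, Nice (2 * a) (b + 3 * r1 ^ (-(1/2) : ℝ)) (G w k) :=
      fun w hw k hk => nice_of_St ((hout w hw).st k hk)
    have hnR : ∀ w ∈ W, Nice (2 * a) 2 (rest w) := fun w hw =>
      ⟨(hout w hw).rmeas, (hout w hw).rbdd, (hout w hw).rsupp⟩
    -- the rest
    have hrest : ∀ z ∈ Z, ∫⁻ p in cylc (A * r), (apl r (trc (z - wz z) (rest (wz z))) p) ^
        (3 / 2 : ℝ) ≤ ENNReal.ofReal ((81 * (100 * A * r) ^ 3 *
          (Cn * R ^ (-(K : ℝ)) * Real.sqrt (Enc g)) ^ 2 * V) ^ (3 / 2 : ℝ) *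
          (2 * (A * r) ^ 4 * V)) := by
      intro z hz
      have hE : 0 ≤ Cn * R ^ (-(K : ℝ)) * Real.sqrt (Enc g) := by positivity
      refine (int_tiny hr hA hE ?_).trans (le_of_eq ?_)
      · intro m y hy
        have h1 := (hout (wz z) (hwz z hz)).small r hr hrr1 (z - wz z) ?_ m y ?_
        · simpa using h1
        · have h2 := hwn z hz
          refine ⟨h2.1.le.trans ?_, h2.2.le.trans ?_⟩ <;> nlinarith
        · refine hy.trans ?_
          gcongr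
      · rw [hVe, ← ENNReal.ofReal_mul (by positivity), ← ENNReal.ofReal_mul (by positivity),
          ENNReal.ofReal_rpow_of_nonneg (by positivity) (by norm_num),
          ← ENNReal.ofReal_mul (by positivity)]
    have step1 : ∀ z ∈ Z, ∫⁻ p in cylc (A * r), (apl r (trc z g) p) ^ (3 / 2 : ℝ) ≤
        N1 ^ 3 * ((∑ k ∈ Λ, ∫⁻ p in cylc (A * r), (apl r (trc (z - wz z) (G (wz z) k)) p) ^
          (3 / 2 : ℝ)) + ∫⁻ p in cylc (A * r), (apl r (trc (z - wz z) (rest (wz z))) p) ^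
            (3 / 2 : ℝ)) := by
      intro z hz
      exact int_dec (by linarith) (by linarith) Λ (hnG _ (hwz z hz)) (hnR _ (hwz z hz))
        (hout _ (hwz z hz)).sum
    have step2 : ∑ z ∈ Z, ∑ k ∈ Λ, ∫⁻ p in cylc (A * r),
        (apl r (trc (z - wz z) (G (wz z) k)) p) ^ (3 / 2 : ℝ) ≤
        ∑ k ∈ Λ, ENNReal.ofReal Q * (ENNReal.ofReal Cn *
        (ENNReal.ofReal ((s k).2 ^ (-q / 2)) *
          SIG M κ (max A A') r1 (s k).1 (s k).2 g R)) := by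
      rw [Finset.sum_comm]
      refine Finset.sum_le_sum fun k hk => ?_
      have hs := hSd k hk
      have hs1 : 0 ≤ (s k).1 := (Real.rpow_nonneg hr1pos.le _).trans hs.lo
      have hs2 : 0 ≤ (s k).2 := hs1.trans hs.le
      rw [← Finset.sum_fiberwise_of_maps_to hwz]
      have h3 : ∀ w ∈ W, ∑ z ∈ Z with wz z = w, ∫⁻ p in cylc (A * r),
          (apl r (trc (z - wz z) (G (wz z) k)) p) ^ (3 / 2 : ℝ) ≤
          ENNReal.ofReal Q * (ENNReal.ofReal Cn * (ENNReal.ofReal ((s k).2 ^ (-q / 2)) *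
            val κ g r1 (s k).1 (s k).2 (I w k) (P w k))) := by
        intro w hw
        have e1 : ∑ z ∈ Z with wz z = w, ∫⁻ p in cylc (A * r),
          (apl r (trc (z - wz z) (G (wz z) k)) p) ^ (3 / 2 : ℝ) =
          ∑ z ∈ Z with wz z = w, ∫⁻ p in cylc (A * r),
          (apl r (trc (z - w) (G w k)) p) ^ (3 / 2 : ℝ) := by
          refine Finset.sum_congr rfl fun z hz => ?_
          rw [(Finset.mem_filter.1 hz).2]
        rw [e1]
        have h4 := group (r1 := r1) hr0.le (le_max_left A A') (G := G w k) (w := w)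
          (Z.filter fun z => wz z = w)
          (fun z hz z' hz' => hZ.sep z (Finset.mem_filter.1 hz).1 z' (Finset.mem_filter.1 hz').1)
          (fun z hz => by
            have h5 := Finset.mem_filter.1 hz
            have h6 := hwn z h5.1
            rwa [h5.2] at h6)
        refine h4.trans ?_
        have h7 := hch (G w k) (D' w k) (St_mono hb3 ((hout w hw).st k hk)) (by
          rw [(hout w hw).eq k hk]
          exact slc_selc hκ _ _)
        refine h7.trans ?_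
        rw [ENNReal.ofReal_mul hQ]
        gcongr
        have h8 := (hout w hw).ss k hk
        simpa using h8
      refine (Finset.sum_le_sum h3).trans ?_
      rw [← Finset.mul_sum, ← Finset.mul_sum, ← Finset.mul_sum]
      gcongr
      exact combine (le_max_right A A') hr1pos.le hs1 hs2 g W hWsep (fun w => I w k)
        (fun w => P w k) (fun w hw => (hout w hw).pl k hk)
    have step3 : N1 ^ 3 * ∑ z ∈ Z, ∫⁻ p in cylc (A * r),
        (apl r (trc (z - wz z) (rest (wz z))) p) ^ (3 / 2 : ℝ) ≤ RestB := by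
      have hcZ := net_card hr (hrr1.trans hr1R) hZ
      set T : ℝ := (81 * (100 * A * r) ^ 3 *
          (Cn * R ^ (-(K : ℝ)) * Real.sqrt (Enc g)) ^ 2 * V) ^ (3 / 2 : ℝ) *
          (2 * (A * r) ^ 4 * V) with hT
      have hT0 : 0 ≤ T := by positivity
      have hE0 : 0 ≤ Enc g := integral_nonneg fun ζ => by positivity
      have h1 : ∑ z ∈ Z, ∫⁻ p in cylc (A * r),
        (apl r (trc (z - wz z) (rest (wz z))) p) ^ (3 / 2 : ℝ) ≤
          ENNReal.ofReal ((11 * R) ^ 4 * T) := by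
        calc ∑ z ∈ Z, ∫⁻ p in cylc (A * r),
              (apl r (trc (z - wz z) (rest (wz z))) p) ^ (3 / 2 : ℝ)
            ≤ ∑ z ∈ Z, ENNReal.ofReal T := Finset.sum_le_sum hrest
          _ = ENNReal.ofReal (Z.card * T) := by
              rw [Finset.sum_const, nsmul_eq_mul, ENNReal.ofReal_mul (Nat.cast_nonneg _),
                ENNReal.ofReal_natCast]
          _ ≤ _ := ENNReal.ofReal_le_ofReal (by gcongr)
      have h2 : N1 ^ 3 ≤ ENNReal.ofReal ((Cn + 1) ^ 3 * R ^ ε) := by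
        calc N1 ^ 3 ≤ N2 ^ 3 := by gcongr
          _ = ENNReal.ofReal (((Cn + 1) * R ^ (ε / 4)) ^ 3) :=
              (ENNReal.ofReal_pow (by positivity) _).symm
          _ ≤ _ := by
              refine ENNReal.ofReal_le_ofReal ?_
              rw [mul_pow, ← Real.rpow_natCast (R ^ (ε / 4)) 3, ← Real.rpow_mul hRpos.le]
              gcongr
              push_cast
              linarith
      refine (mul_le_mul' h2 h1).trans ?_
      rw [← ENNReal.ofReal_mul (by positivity), hRB]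
      refine ENNReal.ofReal_le_ofReal ?_
      have h3 := tiny_num (C1 := Cn) (V0 := V) (q := q) hA hV0 hR1 hr
        (hrr1.trans hr1R) hE0 hSs.nd hK
      unfold SS
      calc (Cn + 1) ^ 3 * R ^ ε * ((11 * R) ^ 4 * T)
          = (Cn + 1) ^ 3 * (T * (11 * R) ^ 4 * R ^ ε) := by ring
        _ ≤ (Cn + 1) ^ 3 * (Ct * (R ^ (-q) * (R * Enc g * Real.sqrt D))) := by
            gcongr
        _ = _ := by ring
    calc ∑ z ∈ Z, ∫⁻ p in cylc (A * r), (apl r (trc z g) p) ^ (3 / 2 : ℝ)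
        ≤ ∑ z ∈ Z, N1 ^ 3 * ((∑ k ∈ Λ, ∫⁻ p in cylc (A * r),
          (apl r (trc (z - wz z) (G (wz z) k)) p) ^ (3 / 2 : ℝ)) +
          ∫⁻ p in cylc (A * r), (apl r (trc (z - wz z) (rest (wz z))) p) ^ (3 / 2 : ℝ)) :=
          Finset.sum_le_sum step1
      _ = N1 ^ 3 * (∑ z ∈ Z, ∑ k ∈ Λ, ∫⁻ p in cylc (A * r),
          (apl r (trc (z - wz z) (G (wz z) k)) p) ^ (3 / 2 : ℝ)) +
          N1 ^ 3 * ∑ z ∈ Z, ∫⁻ p in cylc (A * r),
            (apl r (trc (z - wz z) (rest (wz z))) p) ^ (3 / 2 : ℝ) := by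
          rw [← Finset.mul_sum, Finset.sum_add_distrib, mul_add]
      _ ≤ _ := by gcongr
  -- choice of the label
  have hfin : ∃ s1 s2, Sd r1 s1 s2 ∧ N1 ^ 3 * (∑ k ∈ Λ, ENNReal.ofReal Q * (ENNReal.ofReal Cn *
        (ENNReal.ofReal ((s k).2 ^ (-q / 2)) * SIG M κ (max A A') r1 (s k).1 (s k).2 g R))) ≤
      ENNReal.ofReal (((Cn + 1) ^ 5 + (Cn + 1) ^ 3 * Ct) * R ^ ε * Q) *
        (ENNReal.ofReal (s2 ^ (-q / 2)) * SIG M κ (max A A') r1 s1 s2 g R) := by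
    rcases Λ.eq_empty_or_nonempty with h0 | h0
    · refine ⟨1, 1, ⟨?_, le_rfl, le_rfl⟩, ?_⟩
      · exact Real.rpow_le_one_of_one_le_of_nonpos (hr.trans hrr1) (by norm_num)
      · simp [h0]
    · obtain ⟨k0, hk0, hmax⟩ := Finset.exists_max_image Λ (fun k =>
        ENNReal.ofReal ((s k).2 ^ (-q / 2)) * SIG M κ (max A A') r1 (s k).1 (s k).2 g R) h0
      refine ⟨(s k0).1, (s k0).2, hSd k0 hk0, ?_⟩
      set X : ℝ≥0∞ := ENNReal.ofReal ((s k0).2 ^ (-q / 2)) *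
        SIG M κ (max A A') r1 (s k0).1 (s k0).2 g R with hX
      calc N1 ^ 3 * (∑ k ∈ Λ, ENNReal.ofReal Q * (ENNReal.ofReal Cn *
            (ENNReal.ofReal ((s k).2 ^ (-q / 2)) * SIG M κ (max A A') r1 (s k).1 (s k).2 g R)))
          ≤ N1 ^ 3 * (∑ k ∈ Λ, ENNReal.ofReal Q * (ENNReal.ofReal Cn * X)) := by
            gcongr with k hk
            exact hmax k hk
        _ = N1 ^ 3 * (Λ.card * (ENNReal.ofReal Q * (ENNReal.ofReal Cn * X))) := by
            rw [Finset.sum_const, nsmul_eq_mul]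
        _ ≤ N2 ^ 3 * (N2 * (ENNReal.ofReal Q * (ENNReal.ofReal Cn * X))) := by
            gcongr
            refine le_trans ?_ hn1
            rw [hN1]
            push_cast
            exact le_self_add
        _ = N2 ^ 4 * ENNReal.ofReal Q * ENNReal.ofReal Cn * X := by ring
        _ ≤ _ := by
            rw [hN2, ← ENNReal.ofReal_pow (by positivity), ← ENNReal.ofReal_mul (by positivity),
              ← ENNReal.ofReal_mul (by positivity)]
            refine mul_le_mul' (ENNReal.ofReal_le_ofReal ?_) le_rfl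
            have e4 : ((Cn + 1) * R ^ (ε / 4)) ^ 4 = (Cn + 1) ^ 4 * R ^ ε := by
              rw [mul_pow, ← Real.rpow_natCast (R ^ (ε / 4)) 4, ← Real.rpow_mul hRpos.le]
              congr 2
              push_cast
              ring
            rw [e4]
            have e5 : (Cn + 1) ^ 4 * Cn ≤ (Cn + 1) ^ 5 + (Cn + 1) ^ 3 * Ct := by
              have : (Cn + 1) ^ 4 * Cn ≤ (Cn + 1) ^ 4 * (Cn + 1) := by gcongr; linarith
              have h7 : 0 ≤ (Cn + 1) ^ 3 * Ct := by positivity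
              nlinarith
            calc (Cn + 1) ^ 4 * R ^ ε * Q * Cn = ((Cn + 1) ^ 4 * Cn) * (R ^ ε * Q) := by ring
              _ ≤ ((Cn + 1) ^ 5 + (Cn + 1) ^ 3 * Ct) * (R ^ ε * Q) := by gcongr
              _ = _ := by ring
  obtain ⟨s1, s2, hs, hmain⟩ := hfin
  refine ⟨s1, s2, hs, ?_⟩
  unfold NP
  refine iSup₂_le fun Z hZ => (main Z hZ).trans (add_le_add hmain ?_)
  rw [hRB]
  refine ENNReal.ofReal_le_ofReal ?_
  have hS0 : 0 ≤ SS g R D := by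
    unfold SS
    have hE0 : 0 ≤ Enc g := integral_nonneg fun ζ => by positivity
    positivity
  have : (Cn + 1) ^ 3 * Ct ≤ (Cn + 1) ^ 5 + (Cn + 1) ^ 3 * Ct :=
    le_add_of_nonneg_left (by positivity)
  gcongr

end Crest.Agent.R116.A1k229
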