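import Crest.Agent.R116.Xd2_954

/-!
# R116, K-TEXT II-c, Lemma SIG (helper194, doc 2383): from the record to the plane `Σ` (helper337)

Part 1: boxes with equal pairs of components (`bx9`), natural boxes with the slot `D` frozen (`bxD`),
legality; the three inequalities at the record and their transfer to coarser heights, for an
abstract profile (`Prof9`).
-/

set_option autoImplicit false

open Finset

namespace Crest.Agent.R116.Sg337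

open Crest.Agent.R136.Net191
open Crest.Agent.R116.ChL222
open Crest.Agent.R116.PL504 (nb)
open Crest.Agent.R116.Xd954 (cs xs)

/-- box with equal pairs of components -/
def bx9 (z D E C X B N P F : ℝ) : Fin 12 → ℝ := ![z, D, E, C, C, X, X, B, B, N, P, F]

theorem leg9 {R z D E C X B N P F : ℝ}
    (h0 : 0 ≤ z ∧ 0 ≤ D ∧ 0 ≤ E ∧ 0 ≤ C ∧ 0 ≤ X ∧ 0 ≤ B ∧ 0 ≤ N ∧ 0 ≤ P ∧ 0 ≤ F)
    (h1 : E ≤ z + D ∧ X ≤ z + C ∧ B ≤ E + C ∧ B ≤ D + X ∧ N ≤ C + X ∧ P ≤ C + B ∧ P ≤ D + N ∧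
      F ≤ z + P ∧ F ≤ X + B ∧ F ≤ E + N)
    (h2 : z ≤ R ∧ D ≤ R ∧ E ≤ R ∧ C ≤ R ∧ X ≤ R ∧ B ≤ R ∧ N ≤ R ∧ P ≤ R ∧ F ≤ R) :
    bx9 z D E C X B N P F ∈ Leg monL R := by
  obtain ⟨a1, a2, a3, a4, a5, a6, a7, a8, a9⟩ := h0
  obtain ⟨b1, b2, b3, b4, b5, b6, b7, b8, b9, b10⟩ := h1
  obtain ⟨c1, c2, c3, c4, c5, c6, c7, c8, c9⟩ := h2
  refine ⟨legalL_iff.2 ⟨fun k => ?_, b1, b2, b2, b3, b4, b3, b4, b5, b5, b6, b6, b7, b8, b9, b9,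
    b10⟩, fun k => ?_⟩
  · fin_cases k <;> assumption
  · fin_cases k <;> assumption

theorem bx9_le {z D E C X B N P F z' D' E' C' X' B' N' P' F' : ℝ} (h0 : z ≤ z') (h1 : D ≤ D')
    (h2 : E ≤ E') (h3 : C ≤ C') (h4 : X ≤ X') (h5 : B ≤ B') (h6 : N ≤ N') (h7 : P ≤ P')
    (h8 : F ≤ F') : bx9 z D E C X B N P F ≤ bx9 z' D' E' C' X' B' N' P' F' := by
  intro k
  fin_cases k <;> assumption

theorem bx9_near {c z D E C X B N P F z' D' E' C' X' B' N' P' F' : ℝ} (h0 : |z - z'| ≤ c)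
    (h1 : |D - D'| ≤ c) (h2 : |E - E'| ≤ c) (h3 : |C - C'| ≤ c) (h4 : |X - X'| ≤ c)
    (h5 : |B - B'| ≤ c) (h6 : |N - N'| ≤ c) (h7 : |P - P'| ≤ c) (h8 : |F - F'| ≤ c) :
    ∀ k, |bx9 z D E C X B N P F k - bx9 z' D' E' C' X' B' N' P' F' k| ≤ c := by
  intro k
  fin_cases k <;> assumption

theorem bx9_inf (z D E C X B N P F z' D' E' C' X' B' N' P' F' : ℝ) :
    bx9 z D E C X B N P F ⊓ bx9 z' D' E' C' X' B' N' P' F' =
      bx9 (min z z') (min D D') (min E E') (min C C') (min X X') (min B B') (min N N') (min P P')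
        (min F F') := by
  funext k
  fin_cases k <;> rfl

theorem bx9_sup (z D E C X B N P F z' D' E' C' X' B' N' P' F' : ℝ) :
    bx9 z D E C X B N P F ⊔ bx9 z' D' E' C' X' B' N' P' F' =
      bx9 (max z z') (max D D') (max E E') (max C C') (max X X') (max B B') (max N N') (max P P')
        (max F F') := by
  funext k
  fin_cases k <;> rfl

/-- sum over the ten slots -/
theorem bx9_sum {a b : Fin 2} (hab : a ≠ b) (z D E C X B N P F z' D' E' C' X' B' N' P' F' : ℝ) :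
    ∑ k ∈ ({cs b, xs b} : Finset (Fin 12))ᶜ,
      (bx9 z' D' E' C' X' B' N' P' F' k - bx9 z D E C X B N P F k) =
      (z' - z) + (D' - D) + (E' - E) + (C' - C) + (X' - X) + 2 * (B' - B) + (N' - N) +
        (P' - P) + (F' - F) := by
  have h1 : ∑ k ∈ ({cs b, xs b} : Finset (Fin 12)),
      (bx9 z' D' E' C' X' B' N' P' F' k - bx9 z D E C X B N P F k) = (C' - C) + (X' - X) := by
    rw [Finset.sum_pair (Crest.Agent.R116.Xd954.cs_ne_xs b b)]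
    fin_cases b <;> rfl
  have h2 := Finset.sum_add_sum_compl ({cs b, xs b} : Finset (Fin 12))
    (fun k => bx9 z' D' E' C' X' B' N' P' F' k - bx9 z D E C X B N P F k)
  have h3 : ∑ k, (bx9 z' D' E' C' X' B' N' P' F' k - bx9 z D E C X B N P F k) =
      (z' - z) + (D' - D) + (E' - E) + 2 * (C' - C) + 2 * (X' - X) + 2 * (B' - B) + (N' - N) +
        (P' - P) + (F' - F) := by
    simp [Fin.sum_univ_succ, bx9]
    ring
  linarith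

/-- the natural box is a `bx9` -/
theorem nb_bx9 (w0 sa sb v a b : ℝ) : nb w0 sa sb v a b =
    bx9 (w0 + v) ((sb + b) - 2 * (sa + a) - (w0 + v)) ((sb + b) - 2 * (sa + a)) (sa + a)
      ((w0 + v) + (sa + a)) ((sb + b) - (sa + a)) ((w0 + v) + 2 * (sa + a)) (sb + b)
      ((w0 + v) + (sb + b)) := by
  funext k
  fin_cases k <;> rfl

/-- natural box in absolute exponents -/
def natB (z C P : ℝ) : Fin 12 → ℝ :=
  bx9 z (P - 2 * C - z) (P - 2 * C) C (z + C) (P - C) (z + 2 * C) P (z + P)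

theorem nb_natB (w0 sa sb v a b : ℝ) : nb w0 sa sb v a b = natB (w0 + v) (sa + a) (sb + b) :=
  nb_bx9 w0 sa sb v a b

/-- natural box with the slot `D` frozen at the level `lam` -/
def frz (lam z C P : ℝ) : Fin 12 → ℝ :=
  bx9 z lam (P - 2 * C) C (z + C) (P - C) (z + 2 * C) P (z + P)

/-- `frz` refined by `y` in the slots `C` -/
def fC (lam z C P y : ℝ) : Fin 12 → ℝ :=
  bx9 z lam (P - 2 * C) (C + y) (z + C) (P - C) (z + 2 * C) P (z + P)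

/-- `frz` refined by `y` in the slots `E, B, P` -/
def fP (lam z C P y : ℝ) : Fin 12 → ℝ :=
  bx9 z lam (P - 2 * C + y) C (z + C) (P - C + y) (z + 2 * C) (P + y) (z + P)

/-- `frz` refined by `y` in the slots `C, P` -/
def fCP (lam z C P y : ℝ) : Fin 12 → ℝ :=
  bx9 z lam (P - 2 * C) (C + y) (z + C) (P - C) (z + 2 * C) (P + y) (z + P)

/-- what is used of the profile near the box `c` -/
structure Prof9 (R w0 s δ : ℝ) (a b : Fin 2) (c : Fin 12 → ℝ) (ν : (Fin 12 → ℝ) → ℝ) : Prop where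
  ab : a ≠ b
  anti : ∀ p ∈ Leg monL R, ∀ q ∈ Leg monL R, p ≤ q → ν q ≤ ν p
  sm : ∀ p ∈ Leg monL R, ∀ q ∈ Leg monL R, p ⊓ q ∈ Leg monL R → ν p + ν q ≤ ν (p ⊔ q) + ν (p ⊓ q)
  own : ∀ p ∈ Leg monL R, ∀ q ∈ Leg monL R, p ≤ q → w0 ≤ p 0 → q 0 ≤ w0 + 1 →
    (1 - s) * (q 0 - p 0) ≤ ν p - ν q
  cost : ∀ p ∈ Leg monL R, ∀ q ∈ Leg monL R, p ≤ q → (∀ k, |p k - c k| ≤ δ) →
    (∀ k, |q k - c k| ≤ δ) → (q (cs b) ≤ p (cs b) ∨ q (cs b) ≤ q (cs a)) →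
    (q (xs b) ≤ p (xs b) ∨ q (xs b) ≤ q (xs a)) →
    ν p - ν q ≤ ∑ k ∈ ({cs b, xs b} : Finset (Fin 12))ᶜ, (q k - p k)

/-- the centre `(z0, C0, P0)` has the margin `30 m` -/
structure Ctr (R w0 δ m z0 C0 P0 : ℝ) : Prop where
  m0 : 0 < m
  dm : 30 * m ≤ δ
  mz : 30 * m ≤ z0
  mw : w0 + 30 * m ≤ z0
  mw1 : z0 + 30 * m ≤ w0 + 1
  mC : 30 * m ≤ C0
  mD : 30 * m ≤ P0 - 2 * C0 - z0
  mR : z0 + P0 + 30 * m ≤ R

/-- points near the centre -/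
structure Nr (m z0 C0 P0 z C P : ℝ) : Prop where
  z1 : z0 - 3 * m ≤ z
  z2 : z ≤ z0 + 3 * m
  C1 : C0 - 3 * m ≤ C
  C2 : C ≤ C0 + 3 * m
  P1 : P0 - 3 * m ≤ P
  P2 : P ≤ P0 + 3 * m

section core

variable {R w0 s δ m z0 C0 P0 lam z C P y : ℝ} {a b : Fin 2} {ν : (Fin 12 → ℝ) → ℝ}

theorem natB_leg (h : Ctr R w0 δ m z0 C0 P0) (n : Nr m z0 C0 P0 z C P) :
    natB z C P ∈ Leg monL R := by
  obtain ⟨h1, h2, h3, h4, h5, h6, h7, h8⟩ := h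
  obtain ⟨n1, n2, n3, n4, n5, n6⟩ := n
  refine leg9 ⟨?_, ?_, ?_, ?_, ?_, ?_, ?_, ?_, ?_⟩ ⟨?_, ?_, ?_, ?_, ?_, ?_, ?_, ?_, ?_, ?_⟩
    ⟨?_, ?_, ?_, ?_, ?_, ?_, ?_, ?_, ?_⟩ <;> linarith

/-- perturbed natural box with frozen `D` -/
def pB (lam z C P y1 y2 y3 y4 y5 y6 y7 y8 : ℝ) : Fin 12 → ℝ :=
  bx9 (z + y1) lam (P - 2 * C + y2) (C + y3) (z + C + y4) (P - C + y5) (z + 2 * C + y6) (P + y7)
    (z + P + y8)

/-- conditions on the perturbation -/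
structure Pt (m y1 y2 y3 y4 y5 y6 y7 y8 : ℝ) : Prop where
  l : -m ≤ y1 ∧ 0 ≤ y2 ∧ 0 ≤ y3 ∧ 0 ≤ y4 ∧ 0 ≤ y5 ∧ 0 ≤ y6 ∧ 0 ≤ y7 ∧ 0 ≤ y8
  u : y1 ≤ m ∧ y2 ≤ m ∧ y3 ≤ m ∧ y4 ≤ m ∧ y5 ≤ m ∧ y6 ≤ 2 * m ∧ y7 ≤ m ∧ y8 ≤ m
  X : y4 ≤ y1 + y3
  B : y5 ≤ y2 + y3
  N : y6 ≤ y3 + y4
  P : y7 ≤ y3 + y5
  F : y8 ≤ y1 + y7 ∧ y8 ≤ y4 + y5 ∧ y8 ≤ y2 + y6

theorem pB_leg (h : Ctr R w0 δ m z0 C0 P0) (n : Nr m z0 C0 P0 z C P)
    (l1 : P0 - 2 * C0 - z0 + 20 * m ≤ lam) (l2 : lam ≤ P0 - 2 * C0 - z0 + 25 * m)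
    {y1 y2 y3 y4 y5 y6 y7 y8 : ℝ} (t : Pt m y1 y2 y3 y4 y5 y6 y7 y8) :
    pB lam z C P y1 y2 y3 y4 y5 y6 y7 y8 ∈ Leg monL R := by
  obtain ⟨h1, h2, h3, h4, h5, h6, h7, h8⟩ := h
  obtain ⟨n1, n2, n3, n4, n5, n6⟩ := n
  obtain ⟨⟨i1, i2, i3, i4, i5, i6, i7, i8⟩, ⟨j1, j2, j3, j4, j5, j6, j7, j8⟩, hX, hB, hN, hP,
    hF1, hF2, hF3⟩ := t
  refine leg9 ⟨?_, ?_, ?_, ?_, ?_, ?_, ?_, ?_, ?_⟩ ⟨?_, ?_, ?_, ?_, ?_, ?_, ?_, ?_, ?_, ?_⟩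
    ⟨?_, ?_, ?_, ?_, ?_, ?_, ?_, ?_, ?_⟩ <;> linarith

theorem pB_near (h : Ctr R w0 δ m z0 C0 P0) (n : Nr m z0 C0 P0 z C P)
    (l1 : P0 - 2 * C0 - z0 + 20 * m ≤ lam) (l2 : lam ≤ P0 - 2 * C0 - z0 + 25 * m)
    {y1 y2 y3 y4 y5 y6 y7 y8 : ℝ} (t : Pt m y1 y2 y3 y4 y5 y6 y7 y8) :
    ∀ k, |pB lam z C P y1 y2 y3 y4 y5 y6 y7 y8 k - natB z0 C0 P0 k| ≤ δ := by
  obtain ⟨h1, h2, h3, h4, h5, h6, h7, h8⟩ := h
  obtain ⟨n1, n2, n3, n4, n5, n6⟩ := n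
  obtain ⟨⟨i1, i2, i3, i4, i5, i6, i7, i8⟩, ⟨j1, j2, j3, j4, j5, j6, j7, j8⟩, hX, hB, hN, hP,
    hF1, hF2, hF3⟩ := t
  refine bx9_near ?_ ?_ ?_ ?_ ?_ ?_ ?_ ?_ ?_ <;> rw [abs_le] <;> constructor <;> linarith

/-- cost of a refinement between perturbed natural boxes over the same point -/
theorem pB_cost (H : Prof9 R w0 s δ a b (natB z0 C0 P0) ν) (h : Ctr R w0 δ m z0 C0 P0)
    (n : Nr m z0 C0 P0 z C P)
    (l1 : P0 - 2 * C0 - z0 + 20 * m ≤ lam) (l2 : lam ≤ P0 - 2 * C0 - z0 + 25 * m)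
    {y1 y2 y3 y4 y5 y6 y7 y8 x1 x2 x3 x4 x5 x6 x7 x8 : ℝ} (t : Pt m y1 y2 y3 y4 y5 y6 y7 y8)
    (t' : Pt m x1 x2 x3 x4 x5 x6 x7 x8)
    (hl : y1 ≤ x1 ∧ y2 ≤ x2 ∧ y3 ≤ x3 ∧ y4 ≤ x4 ∧ y5 ≤ x5 ∧ y6 ≤ x6 ∧ y7 ≤ x7 ∧ y8 ≤ x8) :
    ν (pB lam z C P y1 y2 y3 y4 y5 y6 y7 y8) - ν (pB lam z C P x1 x2 x3 x4 x5 x6 x7 x8) ≤
      (x1 - y1) + (x2 - y2) + (x3 - y3) + (x4 - y4) + 2 * (x5 - y5) + (x6 - y6) + (x7 - y7) +
        (x8 - y8) := by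
  obtain ⟨i1, i2, i3, i4, i5, i6, i7, i8⟩ := hl
  have hab := H.ab
  refine (H.cost _ (pB_leg h n l1 l2 t) _ (pB_leg h n l1 l2 t') ?_ (pB_near h n l1 l2 t)
    (pB_near h n l1 l2 t') (Or.inr ?_) (Or.inr ?_)).trans (le_of_eq ?_)
  · exact bx9_le (by linarith) le_rfl (by linarith) (by linarith) (by linarith) (by linarith)
      (by linarith) (by linarith) (by linarith)
  · fin_cases a <;> fin_cases b <;> exact le_rfl
  · fin_cases a <;> fin_cases b <;> exact le_rfl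
  · unfold pB
    rw [bx9_sum hab]
    ring

theorem natB_le_pB (hl : P - 2 * C - z ≤ lam) {z' C' P' y1 y2 y3 y4 y5 y6 y7 y8 : ℝ}
    (hl' : P' - 2 * C' - z' ≤ lam) (h1 : z' ≤ z + y1) (h2 : P' - 2 * C' ≤ P - 2 * C + y2)
    (h3 : C' ≤ C + y3) (h4 : z' + C' ≤ z + C + y4) (h5 : P' - C' ≤ P - C + y5)
    (h6 : z' + 2 * C' ≤ z + 2 * C + y6) (h7 : P' ≤ P + y7) (h8 : z' + P' ≤ z + P + y8) :
    natB z' C' P' ≤ pB lam z C P y1 y2 y3 y4 y5 y6 y7 y8 :=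
  bx9_le h1 hl' h2 h3 h4 h5 h6 h7 h8

theorem frz_eq : frz lam z C P = pB lam z C P 0 0 0 0 0 0 0 0 := by
  unfold frz pB; simp only [add_zero]

theorem fC_eq : fC lam z C P y = pB lam z C P 0 0 y 0 0 0 0 0 := by
  unfold fC pB; simp only [add_zero]

theorem fP_eq : fP lam z C P y = pB lam z C P 0 y 0 0 y 0 y 0 := by
  unfold fP pB; simp only [add_zero]

theorem fCP_eq : fCP lam z C P y = pB lam z C P 0 0 y 0 0 0 y 0 := by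
  unfold fCP pB; simp only [add_zero]

theorem pt0 (hm : 0 ≤ m) : Pt m 0 0 0 0 0 0 0 0 := by
  constructor <;> (try refine ⟨?_, ?_, ?_, ?_, ?_, ?_, ?_, ?_⟩) <;> (try refine ⟨?_, ?_, ?_⟩) <;>
    linarith

theorem ptC (hm : 0 ≤ m) (y0 : 0 ≤ y) (ym : y ≤ m) : Pt m 0 0 y 0 0 0 0 0 := by
  constructor <;> (try refine ⟨?_, ?_, ?_, ?_, ?_, ?_, ?_, ?_⟩) <;> (try refine ⟨?_, ?_, ?_⟩) <;>
    linarith

theorem ptP (hm : 0 ≤ m) (y0 : 0 ≤ y) (ym : y ≤ m) : Pt m 0 y 0 0 y 0 y 0 := by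
  constructor <;> (try refine ⟨?_, ?_, ?_, ?_, ?_, ?_, ?_, ?_⟩) <;> (try refine ⟨?_, ?_, ?_⟩) <;>
    linarith

theorem ptCP (hm : 0 ≤ m) (y0 : 0 ≤ y) (ym : y ≤ m) : Pt m 0 0 y 0 0 0 y 0 := by
  constructor <;> (try refine ⟨?_, ?_, ?_, ?_, ?_, ?_, ?_, ?_⟩) <;> (try refine ⟨?_, ?_, ?_⟩) <;>
    linarith

/-- the exponent of the D-max count in absolute exponents -/
def Dm (g s q0 q1 z C P : ℝ) : ℝ := (g - (1 - s)) * z - (3 * z + (3 + q0) * C + (1 + q1) * P)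

variable {g q0 q1 K : ℝ}

/-- **(iii)** at the record: the slots `C` cost at least `q0 y` -/
theorem rec_C (H : Prof9 R w0 s δ a b (natB z0 C0 P0) ν) (h : Ctr R w0 δ m z0 C0 P0)
    (n : Nr m z0 C0 P0 z C P) (n' : Nr m z0 C0 P0 z (C + y) P)
    (l1 : P0 - 2 * C0 - z0 + 20 * m ≤ lam) (l2 : lam ≤ P0 - 2 * C0 - z0 + 25 * m)
    (y0 : 0 ≤ y) (ym : 2 * y ≤ m) (hrec : K + Dm g s q0 q1 z C P ≤ ν (frz lam z C P))
    (hD : ν (natB z (C + y) P) ≤ K + Dm g s q0 q1 z (C + y) P) :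
    q0 * y ≤ ν (frz lam z C P) - ν (fC lam z C P y) := by
  have hm := h.m0.le
  have t2 : Pt m 0 0 y y 0 (2 * y) 0 0 := by
    constructor <;> (try refine ⟨?_, ?_, ?_, ?_, ?_, ?_, ?_, ?_⟩) <;>
      (try refine ⟨?_, ?_, ?_⟩) <;> linarith
  have hc := pB_cost H h n l1 l2 (ptC hm y0 (by linarith)) t2
    ⟨le_rfl, le_rfl, le_rfl, y0, le_rfl, by linarith, le_rfl, le_rfl⟩
  have hl : natB z (C + y) P ≤ pB lam z C P 0 0 y y 0 (2 * y) 0 0 := by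
    obtain ⟨n1, n2, n3, n4, n5, n6⟩ := n
    refine natB_le_pB ?_ ?_ ?_ ?_ ?_ ?_ ?_ ?_ ?_ ?_ <;> linarith
  have ha := H.anti _ (natB_leg h n') _ (pB_leg h n l1 l2 t2) hl
  rw [fC_eq]
  unfold Dm at hrec hD
  nlinarith

/-- **(ii)** at the record: the slots `E, B, P` cost at least `q1 y` -/
theorem rec_P (H : Prof9 R w0 s δ a b (natB z0 C0 P0) ν) (h : Ctr R w0 δ m z0 C0 P0)
    (n : Nr m z0 C0 P0 z C P) (n' : Nr m z0 C0 P0 z C (P + y))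
    (l1 : P0 - 2 * C0 - z0 + 20 * m ≤ lam) (l2 : lam ≤ P0 - 2 * C0 - z0 + 25 * m)
    (y0 : 0 ≤ y) (ym : 2 * y ≤ m) (hrec : K + Dm g s q0 q1 z C P ≤ ν (frz lam z C P))
    (hD : ν (natB z C (P + y)) ≤ K + Dm g s q0 q1 z C (P + y)) :
    q1 * y ≤ ν (frz lam z C P) - ν (fP lam z C P y) := by
  have hm := h.m0.le
  have t2 : Pt m 0 y 0 0 y 0 y y := by
    constructor <;> (try refine ⟨?_, ?_, ?_, ?_, ?_, ?_, ?_, ?_⟩) <;>
      (try refine ⟨?_, ?_, ?_⟩) <;> linarith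
  have hc := pB_cost H h n l1 l2 (ptP hm y0 (by linarith)) t2
    ⟨le_rfl, le_rfl, le_rfl, le_rfl, le_rfl, le_rfl, le_rfl, y0⟩
  have hl : natB z C (P + y) ≤ pB lam z C P 0 y 0 0 y 0 y y := by
    obtain ⟨n1, n2, n3, n4, n5, n6⟩ := n
    refine natB_le_pB ?_ ?_ ?_ ?_ ?_ ?_ ?_ ?_ ?_ ?_ <;> linarith
  have ha := H.anti _ (natB_leg h n') _ (pB_leg h n l1 l2 t2) hl
  rw [fP_eq]
  unfold Dm at hrec hD
  nlinarith

/-- **(iv)** at the record: the slots `C, P` cost at least `(g + q0 + q1) y` -/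
theorem rec_CP (H : Prof9 R w0 s δ a b (natB z0 C0 P0) ν) (h : Ctr R w0 δ m z0 C0 P0)
    (n : Nr m z0 C0 P0 z C P) (n' : Nr m z0 C0 P0 (z - y) (C + y) (P + y))
    (l1 : P0 - 2 * C0 - z0 + 20 * m ≤ lam) (l2 : lam ≤ P0 - 2 * C0 - z0 + 25 * m)
    (y0 : 0 ≤ y) (ym : 2 * y ≤ m) (hrec : K + Dm g s q0 q1 z C P ≤ ν (frz lam z C P))
    (hD : ν (natB (z - y) (C + y) (P + y)) ≤ K + Dm g s q0 q1 (z - y) (C + y) (P + y)) :
    (g + q0 + q1) * y ≤ ν (frz lam z C P) - ν (fCP lam z C P y) := by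
  have hm := h.m0.le
  have t1 : Pt m (-y) 0 y 0 0 0 y 0 := by
    constructor <;> (try refine ⟨?_, ?_, ?_, ?_, ?_, ?_, ?_, ?_⟩) <;>
      (try refine ⟨?_, ?_, ?_⟩) <;> linarith
  have t2 : Pt m (-y) 0 y 0 0 y y 0 := by
    constructor <;> (try refine ⟨?_, ?_, ?_, ?_, ?_, ?_, ?_, ?_⟩) <;>
      (try refine ⟨?_, ?_, ?_⟩) <;> linarith
  have t3 : Pt m 0 0 y 0 0 0 y 0 := ptCP hm y0 (by linarith)
  have hc := pB_cost H h n l1 l2 t1 t2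
    ⟨le_rfl, le_rfl, le_rfl, le_rfl, le_rfl, y0, le_rfl, le_rfl⟩
  have hl : natB (z - y) (C + y) (P + y) ≤ pB lam z C P (-y) 0 y 0 0 y y 0 := by
    obtain ⟨n1, n2, n3, n4, n5, n6⟩ := n
    refine natB_le_pB ?_ ?_ ?_ ?_ ?_ ?_ ?_ ?_ ?_ ?_ <;> linarith
  have ha := H.anti _ (natB_leg h n') _ (pB_leg h n l1 l2 t2) hl
  have ho := H.own _ (pB_leg h n l1 l2 t1) _ (pB_leg h n l1 l2 t3)
    (bx9_le (by linarith) le_rfl le_rfl le_rfl le_rfl le_rfl le_rfl le_rfl le_rfl)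
    (show w0 ≤ z + -y by linarith [h.mw, n.z1]) (show z + 0 ≤ w0 + 1 by linarith [h.mw1, n.z2])
  have e1 : pB lam z C P 0 0 y 0 0 0 y 0 0 - pB lam z C P (-y) 0 y 0 0 0 y 0 0 = y := by
    show (z + 0) - (z + -y) = y
    ring
  rw [e1] at ho
  rw [fCP_eq]
  unfold Dm at hrec hD
  nlinarith

/-! ### transfer to coarser heights -/

/-- increments over the frozen natural boxes grow when the height is coarser -/
theorem coarse (H : Prof9 R w0 s δ a b (natB z0 C0 P0) ν) (h : Ctr R w0 δ m z0 C0 P0) {z' : ℝ}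
    (n : Nr m z0 C0 P0 z C P) (n' : Nr m z0 C0 P0 z' C P) (hz : z' ≤ z)
    (l1 : P0 - 2 * C0 - z0 + 20 * m ≤ lam) (l2 : lam ≤ P0 - 2 * C0 - z0 + 25 * m)
    {y2 y3 y5 y7 : ℝ} (t : Pt m 0 y2 y3 0 y5 0 y7 0) :
    ν (frz lam z C P) - ν (pB lam z C P 0 y2 y3 0 y5 0 y7 0) ≤
      ν (frz lam z' C P) - ν (pB lam z' C P 0 y2 y3 0 y5 0 y7 0) := by
  have hm := h.m0.le
  obtain ⟨-, i2, i3, -, i5, -, i7, -⟩ := t.l
  have e1 : frz lam z C P ⊓ pB lam z' C P 0 y2 y3 0 y5 0 y7 0 = frz lam z' C P := by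
    unfold frz pB
    rw [bx9_inf, min_eq_right (by linarith), min_self, min_eq_left (by linarith),
      min_eq_left (by linarith), min_eq_right (by linarith), min_eq_left (by linarith),
      min_eq_right (by linarith), min_eq_left (by linarith), min_eq_right (by linarith)]
    simp only [add_zero]
  have e2 : frz lam z C P ⊔ pB lam z' C P 0 y2 y3 0 y5 0 y7 0 =
      pB lam z C P 0 y2 y3 0 y5 0 y7 0 := by
    unfold frz pB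
    rw [bx9_sup, max_eq_left (by linarith), max_self, max_eq_right (by linarith),
      max_eq_right (by linarith), max_eq_left (by linarith), max_eq_right (by linarith),
      max_eq_left (by linarith), max_eq_right (by linarith), max_eq_left (by linarith)]
    simp only [add_zero]
  have g1 : frz lam z C P ∈ Leg monL R := by rw [frz_eq]; exact pB_leg h n l1 l2 (pt0 hm)
  have g2 : frz lam z' C P ∈ Leg monL R := by rw [frz_eq]; exact pB_leg h n' l1 l2 (pt0 hm)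
  have h1 := H.sm _ g1 _ (pB_leg h n' l1 l2 t) (by rw [e1]; exact g2)
  rw [e1, e2] at h1
  linarith

end core

end Crest.Agent.R116.Sg337
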