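import Crest.Agent.R116.WinU_954
import Crest.Agent.R116.SgR1_337

/-!
# R116, K-TEXT II-c (helper954): windows of the light chart, general monomials and tops

* `filM`, `monD` : monomials kept (`monD` : those without the slot `D`), `legalD_iff`, `LMd`.
* `StG Mw top t` : static conditions; `stG_live`, `stG_fro`.
* `WinG` : the window with kept monomials `Mw` and tops `top`; `exists_winG`, `exists_winG1`.
* `exists_winD` / `exists_winM` : slot `D` frozen / live, the tangent is linear on boxes `bx9`.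
-/

set_option autoImplicit false
set_option linter.unusedVariables false
set_option linter.unusedSectionVars false

open Filter Topology

namespace Crest.Agent.R116.WinG954

open Finset
open Crest.Agent.R138.Ex926
open Crest.Agent.R136.Net191 Crest.Agent.R136.Qg926 Crest.Agent.R136.Gf356
open Crest.Agent.R116.ChL222 Crest.Agent.R116.PL504 Crest.Agent.R116.EvL504
open Crest.Agent.R116.WinU954 Crest.Agent.R116.Sg337

/-! ### kept monomials -/

/-- the monomials of `monL` which satisfy `P` -/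
def filM (P : (Fin 12 → ℕ) → Prop) [DecidablePred P] : Mons 12 where
  mon := fun k => (monL.mon k).filter P
  low := fun k e he s hs => monL.low k e (Finset.mem_filter.1 he).1 s hs
  ne := fun k e he => monL.ne k e (Finset.mem_filter.1 he).1

theorem filM_sub (P : (Fin 12 → ℕ) → Prop) [DecidablePred P] (k : Fin 12) :
    (filM P).mon k ⊆ monL.mon k := Finset.filter_subset _ _

/-- the monomials without the slot `D` -/
def monD : Mons 12 := filM fun e => e 1 = 0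

theorem mem_monD {k : Fin 12} {e : Fin 12 → ℕ} : e ∈ monD.mon k ↔ e ∈ monL.mon k ∧ e 1 = 0 :=
  Finset.mem_filter

/-- the cone of all walls -/
def LM : Set (Fin 12 → ℝ) := {p | ∀ k, ∀ e ∈ monL.mon k, p k ≤ ∑ s, (e s : ℝ) * p s}

/-- the cone of the walls without the slot `D` -/
def LMd : Set (Fin 12 → ℝ) :=
  {p | ∀ k, ∀ e ∈ monL.mon k, e 1 = 0 → p k ≤ ∑ s, (e s : ℝ) * p s}

theorem LM_sub : LM ⊆ LMd := fun p hp k e he _ => hp k e he

theorem leg_LM (t : ℝ) : Leg monL t ⊆ LM := fun p hp k e he => hp.1.wall k e he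

theorem leg_LMd (t : ℝ) : Leg monD t ⊆ LMd := fun p hp k e he h1 =>
  hp.1.wall k e (mem_monD.2 ⟨he, h1⟩)

theorem sum12 (e : Fin 12 → ℕ) (p : Fin 12 → ℝ) : ∑ s, (e s : ℝ) * p s =
    e 0 * p 0 + e 1 * p 1 + e 2 * p 2 + e 3 * p 3 + e 4 * p 4 + e 5 * p 5 + e 6 * p 6 +
      e 7 * p 7 + e 8 * p 8 + e 9 * p 9 + e 10 * p 10 + e 11 * p 11 := by
  simp [Fin.sum_univ_succ]
  ring

/-- the walls without the slot `D`, explicitly -/
theorem legalD_iff {p : Fin 12 → ℝ} : Legal monD p ↔ (∀ k, 0 ≤ p k) ∧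
    p 5 ≤ p 0 + p 3 ∧
    p 6 ≤ p 0 + p 4 ∧
    p 7 ≤ p 2 + p 3 ∧
    p 8 ≤ p 2 + p 4 ∧
    p 9 ≤ p 3 + p 5 ∧
    p 9 ≤ p 4 + p 6 ∧
    p 10 ≤ p 3 + p 7 ∧
    p 10 ≤ p 4 + p 8 ∧
    p 11 ≤ p 0 + p 10 ∧
    p 11 ≤ p 5 + p 7 ∧
    p 11 ≤ p 6 + p 8 ∧
    p 11 ≤ p 2 + p 9 := by
  constructor
  · intro h
    have w := fun k e (he : e ∈ monL.mon k) (h1 : e 1 = 0) => h.wall k e (mem_monD.2 ⟨he, h1⟩)
    simp only [sum12] at w
    refine ⟨h.nonneg, ?_, ?_, ?_, ?_, ?_, ?_, ?_, ?_, ?_, ?_, ?_, ?_⟩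
    · simpa using w 5 ![1, 0, 0, 1, 0, 0, 0, 0, 0, 0, 0, 0] (by decide) rfl
    · simpa using w 6 ![1, 0, 0, 0, 1, 0, 0, 0, 0, 0, 0, 0] (by decide) rfl
    · simpa using w 7 ![0, 0, 1, 1, 0, 0, 0, 0, 0, 0, 0, 0] (by decide) rfl
    · simpa using w 8 ![0, 0, 1, 0, 1, 0, 0, 0, 0, 0, 0, 0] (by decide) rfl
    · simpa using w 9 ![0, 0, 0, 1, 0, 1, 0, 0, 0, 0, 0, 0] (by decide) rfl
    · simpa using w 9 ![0, 0, 0, 0, 1, 0, 1, 0, 0, 0, 0, 0] (by decide) rfl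
    · simpa using w 10 ![0, 0, 0, 1, 0, 0, 0, 1, 0, 0, 0, 0] (by decide) rfl
    · simpa using w 10 ![0, 0, 0, 0, 1, 0, 0, 0, 1, 0, 0, 0] (by decide) rfl
    · simpa using w 11 ![1, 0, 0, 0, 0, 0, 0, 0, 0, 0, 1, 0] (by decide) rfl
    · simpa using w 11 ![0, 0, 0, 0, 0, 1, 0, 1, 0, 0, 0, 0] (by decide) rfl
    · simpa using w 11 ![0, 0, 0, 0, 0, 0, 1, 0, 1, 0, 0, 0] (by decide) rfl
    · simpa using w 11 ![0, 0, 1, 0, 0, 0, 0, 0, 0, 1, 0, 0] (by decide) rfl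
  · rintro ⟨h0, w1, w2, w3, w5, w7, w8, w9, w10, w12, w13, w14, w15⟩
    refine ⟨h0, fun k e he => ?_⟩
    rw [sum12]
    obtain ⟨he, h1⟩ := mem_monD.1 he
    have g0 := h0 0
    have g1 := h0 1
    have g2 := h0 2
    have g3 := h0 3
    have g4 := h0 4
    change e ∈ mfL k at he
    fin_cases k <;> simp [mfL] at he
    · subst he; simp at h1
    · subst he; simp; linarith
    · subst he; simp; linarith
    · rcases he with rfl | rfl
      · simp; linarith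
      · simp at h1
    · rcases he with rfl | rfl
      · simp; linarith
      · simp at h1
    · rcases he with rfl | rfl | rfl | rfl <;> simp <;> linarith
    · rcases he with rfl | rfl | rfl | rfl | rfl | rfl | rfl
      · simp; linarith
      · simp; linarith
      · simp; linarith
      · simp; linarith
      · simp at h1
      · simp at h1
      · simp at h1
    · rcases he with rfl | rfl | rfl | rfl | rfl | rfl | rfl | rfl | rfl | rfl | rfl | rfl | rfl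
      · simp; linarith
      · simp; linarith
      · simp; linarith
      · simp; linarith
      · simp; linarith
      · simp; linarith
      · simp; linarith
      · simp; linarith
      · simp at h1
      · simp at h1
      · simp at h1
      · simp at h1
      · simp at h1

/-! ### static data -/

/-- static conditions on kept monomials and tops -/
structure StG (Mw : Mons 12) (top : Fin 12 → ℝ) (t : ℝ) : Prop where
  sub : ∀ k, Mw.mon k ⊆ monL.mon k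
  t0 : top 0 = t
  le : ∀ s, top s ≤ t
  L : ∀ s, s ∉ SL → top s = t
  lin : cut {0} top 0 ∈ Leg Mw t

namespace StG

variable {Mw : Mons 12} {top : Fin 12 → ℝ} {t : ℝ}

theorem mon0 (h : StG Mw top t) : Mw.mon 0 = ∅ := Finset.subset_empty.1 (h.sub 0)

theorem top_leg (h : StG Mw top t) (ht : 0 ≤ t) : top ∈ Leg Mw t := by
  have hle : cut {0} top 0 ≤ top := by
    intro s
    by_cases hs : s = 0
    · subst hs
      rw [cut_zero, h.t0]
      exact ht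
    · rw [cut_ne _ _ hs]
  refine ⟨⟨fun k => (h.lin.1.nonneg k).trans (hle k), fun k e he => ?_⟩, h.le⟩
  by_cases hk : k = 0
  · subst hk
    rw [h.mon0] at he
    simp at he
  · have h1 := h.lin.1.wall k e he
    rw [cut_ne _ _ hk] at h1
    exact h1.trans (Finset.sum_le_sum fun s _ =>
      mul_le_mul_of_nonneg_left (hle s) (Nat.cast_nonneg _))

/-- only the height slot -/
theorem single_leg (h : StG Mw top t) {y : ℝ} (hy : 0 ≤ y) (hyt : y ≤ t) :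
    (Pi.single 0 y : Fin 12 → ℝ) ∈ Leg Mw t := by
  have h0 : ∀ s : Fin 12, 0 ≤ (Pi.single 0 y : Fin 12 → ℝ) s := by
    intro s
    by_cases hs : s = 0
    · subst hs; simpa using hy
    · simp [hs]
  refine ⟨⟨h0, fun k e he => ?_⟩, fun s => ?_⟩
  · by_cases hk : k = 0
    · subst hk
      rw [h.mon0] at he
      simp at he
    · have h1 : (Pi.single 0 y : Fin 12 → ℝ) k = 0 := by simp [hk]
      rw [h1]
      exact Finset.sum_nonneg fun s _ => mul_nonneg (Nat.cast_nonneg _) (h0 s)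
  · by_cases hs : s = 0
    · subst hs; simpa using hyt
    · have h1 : (Pi.single 0 y : Fin 12 → ℝ) s = 0 := by simp [hs]
      rw [h1]
      exact hy.trans hyt

theorem cut0_top (h : StG Mw top t) : cut {0} 0 top = Pi.single 0 t := by
  funext s
  by_cases hs : s = 0
  · subst hs
    rw [cut_zero, h.t0]
    simp
  · rw [cut_ne _ _ hs]
    simp [hs]

theorem zero_mem (h : StG Mw top t) (ht : 0 ≤ t) : (0 : Fin 12 → ℝ) ∈ Leg Mw t := by
  have := h.single_leg (y := 0) le_rfl ht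
  rwa [Pi.single_zero] at this

end StG

/-- level slot `z`, kept monomials `Mw`, tops `top` -/
noncomputable def stG (Mw : Mons 12) (top : Fin 12 → ℝ) (K t : ℝ) : WSt 12 where
  S := {0}
  kz := 0
  top := top
  kap := fun s => K ^ wtL s
  Mw := Mw
  R' := t

theorem stG_ok {Mw : Mons 12} {top : Fin 12 → ℝ} {K t : ℝ} (h : StG Mw top t) (hK : 0 < K)
    (ht : 0 ≤ t) {D : Set (Fin 12 → ℝ)} (hD : Leg Mw t ⊆ D) : (stG Mw top K t).Ok monL D where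
  R0 := ht
  leg := hD
  top_leg := h.top_leg ht
  lin_leg := h.lin
  lev_leg := by
    show cut {0} 0 top ∈ Leg Mw t
    rw [h.cut0_top]
    exact h.single_leg ht le_rfl
  kzS := by simp [stG]
  kz0 := WinU954.mon0
  kzw := h.mon0
  kap := fun s => pow_pos hK _

/-- everything live -/
theorem stG_live {t : ℝ} (ht : 0 ≤ t) : StG monL (fun _ => t) t where
  sub := fun k => Finset.Subset.refl _
  t0 := rfl
  le := fun s => le_rfl
  L := fun s _ => rfl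
  lin := lin_leg ht

/-- tops with the slot `D` unresolved -/
noncomputable def topD (t : ℝ) : Fin 12 → ℝ := fun s => if s = 1 then 0 else t

theorem topD_one (t : ℝ) : topD t 1 = 0 := if_pos rfl

theorem topD_ne (t : ℝ) {s : Fin 12} (hs : s ≠ 1) : topD t s = t := if_neg hs

theorem topD_eq (t : ℝ) : topD t = bx9 t 0 t t t t t t t := by
  funext s
  fin_cases s <;> rfl

/-- the slot `D` frozen -/
theorem stG_fro {t : ℝ} (ht : 0 ≤ t) : StG monD (topD t) t where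
  sub := filM_sub _
  t0 := topD_ne t (by decide)
  le := fun s => by
    unfold topD
    split_ifs <;> linarith
  L := fun s hs => topD_ne t (by rintro rfl; exact hs (by decide))
  lin := by
    have e0 : cut {0} (topD t) 0 0 = 0 := cut_zero _ _
    have e : ∀ s : Fin 12, s ≠ 0 → s ≠ 1 → cut {0} (topD t) 0 s = t := fun s hs h1 => by
      rw [cut_ne _ _ hs, topD_ne t h1]
    have e1 : cut {0} (topD t) 0 1 = 0 := by rw [cut_ne _ _ (by decide), topD_one]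
    refine ⟨legalD_iff.2 ⟨fun s => ?_, ?_⟩, fun s => ?_⟩
    · by_cases hs : s = 0
      · subst hs; rw [e0]
      · by_cases h1 : s = 1
        · subst h1; rw [e1]
        · rw [e s hs h1]; exact ht
    · rw [e0, e 2 (by decide) (by decide), e 3 (by decide) (by decide),
        e 4 (by decide) (by decide), e 5 (by decide) (by decide), e 6 (by decide) (by decide),
        e 7 (by decide) (by decide), e 8 (by decide) (by decide), e 9 (by decide) (by decide),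
        e 10 (by decide) (by decide), e 11 (by decide) (by decide)]
      refine ⟨?_, ?_, ?_, ?_, ?_, ?_, ?_, ?_, ?_, ?_, ?_, ?_⟩ <;> linarith
    · by_cases hs : s = 0
      · subst hs; rw [e0]; exact ht
      · by_cases h1 : s = 1
        · subst h1; rw [e1]; exact ht
        · rw [e s hs h1]

/-! ### windows -/

variable {ι : ℕ → Type*} [∀ n, DecidableEq (ι n)]

/-- **the window** with the static data `stG Mw top (cK0 monL C) t` at the base points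
`x (k' n)` -/
structure WinG (W : Wnd 12 ι) (B : Base) (I J : ∀ n, Finset (ι n))
    (co : ∀ n, ι n → ι n → Fin 12 → ℝ) (C : ℝ) (D : Set (Fin 12 → ℝ)) (ν lam : (Fin 12 → ℝ) → ℝ)
    (x : ℕ → Fin 12 → ℝ) (h : ℕ → ℝ) (k' : ℕ → ℕ) (t : ℝ) (Mw : Mons 12) (top : Fin 12 → ℝ) :
    Prop where
  wl : WL W (cK0 monL C) t
  hB : W.B = B
  hI : W.I = I
  hJ : W.J = J
  hco : W.co = co
  hM : W.M = monL
  hC : W.C = C
  hX : W.X = fun n => x (k' n)
  hw : W.w = fun n => h (k' n)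
  hD : W.D = D
  hlam : W.lam = lam
  hS : W.S = {0}
  hkz : W.kz = 0
  htop : W.top = top
  hkap : W.kap = fun s => cK0 monL C ^ wtL s
  hMw : W.Mw = Mw
  hR' : W.R' = t
  hT : W.T = fun n => B.d n ^ (-(ν (x (k' n))))
  base : ∀ n, W.B'.d n = B.d n ^ h (k' n)
  baseL : ∀ n, W.B'.L n = h (k' n) * B.L n

theorem _root_.Crest.Agent.R116.WinU954.WinU.toG {W : Wnd 12 ι} {B : Base}
    {I J : ∀ n, Finset (ι n)}
    {co : ∀ n, ι n → ι n → Fin 12 → ℝ} {C : ℝ} {D : Set (Fin 12 → ℝ)}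
    {ν lam : (Fin 12 → ℝ) → ℝ} {x : ℕ → Fin 12 → ℝ} {h : ℕ → ℝ} {k' : ℕ → ℕ} {t : ℝ}
    (w : WinU W B I J co C D ν lam x h k' t) :
    WinG W B I J co C D ν lam x h k' t monL (fun _ => t) :=
  ⟨w.wl, w.hB, w.hI, w.hJ, w.hco, w.hM, w.hC, w.hX, w.hw, w.hD, w.hlam, w.hS, w.hkz, w.htop,
    w.hkap, w.hMw, w.hR', w.hT, w.base, w.baseL⟩

/-- **windows and models from a tangent at any moving base point**, general static data. -/
theorem exists_winG {B : Base} {I J : ∀ n, Finset (ι n)} {co : ∀ n, ι n → ι n → Fin 12 → ℝ}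
    {C R : ℝ} {ν : (Fin 12 → ℝ) → ℝ} (hN : NProf B I J co monL C R ν) (hcoc : ∀ n, Coc (co n))
    {x : ℕ → Fin 12 → ℝ} {h : ℕ → ℝ} (hpos : ∀ l, 0 < h l) {D : Set (Fin 12 → ℝ)}
    {lam : (Fin 12 → ℝ) → ℝ} (htan : IsTan (Leg monL R) D ν x h lam) {t : ℝ} (ht : 0 < t)
    {Mw : Mons 12} {top : Fin 12 → ℝ} (hst : StG Mw top t)
    (hD : Leg Mw t ⊆ D) {σ : ℝ} (hσ0 : 0 ≤ σ) (hσ1 : σ ≤ 1)
    (dens : lam top ≤ lam (cut {0} top 0) + lam (Pi.single 0 t))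
    (frost : ∀ y, 0 ≤ y → y ≤ t → lam (Pi.single 0 y) ≤ -(σ * y))
    (s : ℕ → ℕ → ℝ) (hs : ∀ i, B.Sub (s i)) (i₀ : ∀ n, ι n) :
    ∃ k : ℕ → ℕ, Tendsto k U atTop ∧ ∀ k' : ℕ → ℕ, Tendsto k' U atTop →
      (∀ᶠ n in (U : Filter ℕ), k' n ≤ k n) → ∃ W : Wnd 12 ι,
        WinG W B I J co C D ν lam x h k' t Mw top ∧ (∀ i, W.B'.Sub (s i)) ∧
        ∀ (E : ∀ n, Finset (ι n)) (Mu : ℕ → ℝ), Wnd.EOk W E Mu →
          ∀ (ex : ℕ → ∀ n, ι n → ℕ) (g₀ : ℕ → ℝ), Tendsto g₀ U atTop →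
          ∃ (E' : ∀ n, Finset (ι n)) (g : ℕ → ℝ), Wnd.Pruned W E E' g ex ∧
            (∀ᶠ n in (U : Filter ℕ), g n ≤ g₀ n) ∧ (∀ᶠ n in (U : Filter ℕ), Reg W E' n) ∧
            RModel W.B' (W.cfg E') σ t W.legW W.nu W.Dc := by
  have hC0 := (hN.chart 0).C0
  have hK1 : 1 ≤ cK0 monL C := cK0_one hC0
  have hok := stG_ok (K := cK0 monL C) hst (by linarith) ht.le hD
  have h0 : (0 : Fin 12 → ℝ) ∈ D := hD (hst.zero_mem ht.le)
  have hden : (stG Mw top (cK0 monL C) t).Dens lam σ t :=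
    { dens := by
        show lam top ≤ lam (cut {0} top 0) + lam (cut {0} 0 top)
        rw [hst.cut0_top]
        exact dens
      σ0 := hσ0
      σ1 := hσ1
      hR := by
        show t ≤ top 0
        rw [hst.t0]
      frost := frost }
  obtain ⟨k, hk, hk2⟩ := exists_rmodel hN hpos h0 htan hok hden s hs i₀
  refine ⟨k, hk, fun k' hk' hle => ?_⟩
  obtain ⟨W, a1, a2, a3, a4, a5, a6, a7, a8, a9, a10, a11, a12, a13, a14, a15, a16, a17, a18, a19,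
    a20, a21, a22⟩ := hk2 k' hk' hle
  have hK0 : W.K0 = cK0 monL C := by unfold Wnd.K0; rw [a6, a7]
  refine ⟨W, ?_, a21, ?_⟩
  · exact
      { wl :=
          { ok := a1
            hM := a6
            coc := by rw [a5]; exact hcoc
            hK := hK0.le
            kap := fun s => by rw [a15]; rfl
            hS := by
              rw [a12]
              show ({0} : Finset (Fin 12)) ⊆ SL
              decide
            kz := a13
            topS := fun s hs => by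
              rw [a12] at hs
              have hs0 : s = 0 := by simpa [stG] using hs
              rw [a14, hs0]
              show t ≤ top 0
              rw [hst.t0]
            topL := fun s hs => by
              rw [a14]
              show t ≤ top s
              rw [hst.L s hs] }
        hB := a2, hI := a3, hJ := a4, hco := a5, hM := a6, hC := a7, hX := a8, hw := a9,
        hD := a10, hlam := a11, hS := a12, hkz := a13, htop := a14, hkap := a15, hMw := a16,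
        hR' := a17, hT := a18, base := a19, baseL := a20 }
  · intro E Mu hE ex g₀ hg₀
    obtain ⟨E', g, b1, b2, b3⟩ := a22 E Mu hE ex g₀ hg₀
    exact ⟨E', g, b1, b2, ev_reg_of a1 hE b1, b3⟩

namespace WinG

variable {W : Wnd 12 ι} {B : Base} {I J : ∀ n, Finset (ι n)}
    {co : ∀ n, ι n → ι n → Fin 12 → ℝ} {C : ℝ} {D : Set (Fin 12 → ℝ)}
    {ν lam : (Fin 12 → ℝ) → ℝ} {x : ℕ → Fin 12 → ℝ} {h : ℕ → ℝ} {k' : ℕ → ℕ} {t : ℝ}
    {Mw : Mons 12} {top : Fin 12 → ℝ}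

theorem mem_legW (w : WinG W B I J co C D ν lam x h k' t Mw top) {p : Fin 12 → ℝ} :
    p ∈ W.legW ↔ cut {0} p top ∈ Leg Mw t ∧ ∀ s, s ≠ 0 → p s ≤ top s := by
  show cut W.S p W.top ∈ Leg W.Mw W.R' ∧ (∀ s, s ∉ W.S → p s ≤ W.top s) ↔ _
  rw [w.hS, w.htop, w.hMw, w.hR']
  simp only [Finset.mem_singleton]

theorem cut_mem (w : WinG W B I J co C D ν lam x h k' t Mw top) {p : Fin 12 → ℝ}
    (hp : p ∈ W.legW) : cut {0} p top ∈ Leg Mw t := (w.mem_legW.1 hp).1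

theorem nu_eq (w : WinG W B I J co C D ν lam x h k' t Mw top) (p : Fin 12 → ℝ) :
    W.nu p = lam (cut {0} p top) - lam top := by
  show W.lam (cut W.S p W.top) - W.lam W.top = _
  rw [w.hlam, w.hS, w.htop]

/-- the scales tend to `0` -/
theorem w_tendsto (w : WinG W B I J co C D ν lam x h k' t Mw top) (hh : Tendsto h atTop (𝓝 0))
    (hk : Tendsto k' U atTop) : Tendsto W.w U (𝓝 0) := by
  rw [w.hw]
  exact hh.comp hk

/-- the base points of a window along a convergent sequence -/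
theorem X_tendsto (w : WinG W B I J co C D ν lam x h k' t Mw top) {s : Fin 12} {X0 : ℝ}
    (hx : Tendsto (fun l => x l s) atTop (𝓝 X0)) (hk : Tendsto k' U atTop) :
    Tendsto (fun n => W.X n s) U (𝓝 X0) := by
  rw [w.hX]
  exact hx.comp hk

/-- a property of all base points -/
theorem X_of (w : WinG W B I J co C D ν lam x h k' t Mw top) {P : (Fin 12 → ℝ) → Prop}
    (hx : ∀ l, P (x l)) (n : ℕ) : P (W.X n) := by
  rw [w.hX]
  exact hx _

/-- an eventual property of the base points and the scales -/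
theorem ev_of (w : WinG W B I J co C D ν lam x h k' t Mw top)
    {P : (Fin 12 → ℝ) → ℝ → Prop} (hx : ∀ᶠ l in atTop, P (x l) (h l)) (hk : Tendsto k' U atTop) :
    ∀ᶠ n in (U : Filter ℕ), P (W.X n) (W.w n) := by
  rw [w.hX, w.hw]
  exact hk.eventually hx

end WinG

/-- **one window, one model** (all incidences of the class, pruned), general static data. -/
theorem exists_winG1 {B : Base} {I J : ∀ n, Finset (ι n)} {co : ∀ n, ι n → ι n → Fin 12 → ℝ}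
    {C R : ℝ} {ν : (Fin 12 → ℝ) → ℝ} (hN : NProf B I J co monL C R ν) (hcoc : ∀ n, Coc (co n))
    {x : ℕ → Fin 12 → ℝ} {h : ℕ → ℝ} (hpos : ∀ l, 0 < h l) (hh : Tendsto h atTop (𝓝 0))
    {D : Set (Fin 12 → ℝ)}
    {lam : (Fin 12 → ℝ) → ℝ} (htan : IsTan (Leg monL R) D ν x h lam) {t : ℝ} (ht : 0 < t)
    {Mw : Mons 12} {top : Fin 12 → ℝ} (hst : StG Mw top t)
    (hD : Leg Mw t ⊆ D) {σ : ℝ} (hσ0 : 0 ≤ σ) (hσ1 : σ ≤ 1)
    (dens : lam top ≤ lam (cut {0} top 0) + lam (Pi.single 0 t))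
    (frost : ∀ y, 0 ≤ y → y ≤ t → lam (Pi.single 0 y) ≤ -(σ * y))
    (s : ℕ → ℕ → ℝ) (hs : ∀ i, B.Sub (s i)) (i₀ : ∀ n, ι n) :
    ∃ (k : ℕ → ℕ) (W : Wnd 12 ι) (E : ∀ n, Finset (ι n)), Tendsto k U atTop ∧
      WinG W B I J co C D ν lam x h k t Mw top ∧ Tendsto W.w U (𝓝 0) ∧ (∀ i, W.B'.Sub (s i)) ∧
      (∀ᶠ n in (U : Filter ℕ), W.Cl n ⊆ J n) ∧
      (∀ᶠ n in (U : Filter ℕ), E n ⊆ W.Cl n) ∧ (∀ᶠ n in (U : Filter ℕ), Reg W E n) ∧
      RModel W.B' (W.cfg E) σ t W.legW W.nu W.Dc := by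
  obtain ⟨k, hk, h2⟩ := exists_winG hN hcoc hpos htan ht hst hD hσ0 hσ1 dens frost s hs i₀
  obtain ⟨W, w, b1, b2⟩ := h2 k hk (Eventually.of_forall fun n => le_rfl)
  obtain ⟨E, g, c1, c2, c3, c4⟩ := b2 W.Cl _ w.wl.ok.eok_class (fun _ _ _ => 0) (fun n => (n : ℝ))
    (tendsto_natCast_atTop_atTop.mono_left U_le_atTop)
  refine ⟨k, W, E, hk, w, w.w_tendsto hh hk, b1, ?_, Eventually.of_forall c1.sub, c3, c4⟩
  filter_upwards [w.wl.ok.cls.csub] with n hn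
  rwa [w.hJ] at hn

/-! ### tangents which are linear on boxes `bx9` -/

/-- the tops in the frozen case -/
theorem cut_topD (t : ℝ) (z D E C X B N P F : ℝ) :
    cut {0} (bx9 z D E C X B N P F) (topD t) = bx9 t D E C X B N P F := by
  funext s
  by_cases hs : s = 0
  · subst hs
    rw [cut_zero, topD_ne t (by decide)]
    rfl
  · rw [cut_ne _ _ hs]
    fin_cases s <;> first | rfl | exact absurd rfl hs

/-- the tops in the live case -/
theorem cut_top (t : ℝ) (z D E C X B N P F : ℝ) :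
    cut {0} (bx9 z D E C X B N P F) (fun _ => t) = bx9 t D E C X B N P F := by
  funext s
  by_cases hs : s = 0
  · subst hs
    rw [cut_zero]
    rfl
  · rw [cut_ne _ _ hs]
    fin_cases s <;> first | rfl | exact absurd rfl hs

theorem single_eq (y : ℝ) : (Pi.single 0 y : Fin 12 → ℝ) = bx9 y 0 0 0 0 0 0 0 0 := by
  funext s
  fin_cases s <;> rfl

theorem topD_cut0 (t : ℝ) : cut {0} (topD t) 0 = bx9 0 0 t t t t t t t := by
  funext s
  by_cases hs : s = 0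
  · subst hs
    rw [cut_zero]
    rfl
  · rw [cut_ne _ _ hs]
    fin_cases s <;> first | rfl | exact absurd rfl hs

theorem const_eq (t : ℝ) : (fun _ => t : Fin 12 → ℝ) = bx9 t t t t t t t t t := by
  funext s
  fin_cases s <;> rfl

theorem const_cut0 (t : ℝ) : cut {0} (fun _ => t : Fin 12 → ℝ) 0 = bx9 0 t t t t t t t t := by
  funext s
  by_cases hs : s = 0
  · subst hs
    rw [cut_zero]
    rfl
  · rw [cut_ne _ _ hs]
    fin_cases s <;> first | rfl | exact absurd rfl hs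

/-- legal boxes `bx9`, slot `D` frozen -/
theorem bx9_legD {t z D E C X B N P F : ℝ} : bx9 z D E C X B N P F ∈ Leg monD t ↔
    (0 ≤ z ∧ 0 ≤ D ∧ 0 ≤ E ∧ 0 ≤ C ∧ 0 ≤ X ∧ 0 ≤ B ∧ 0 ≤ N ∧ 0 ≤ P ∧ 0 ≤ F) ∧
    (X ≤ z + C ∧ B ≤ E + C ∧ N ≤ C + X ∧ P ≤ C + B ∧ F ≤ z + P ∧ F ≤ X + B ∧ F ≤ E + N) ∧
    (z ≤ t ∧ D ≤ t ∧ E ≤ t ∧ C ≤ t ∧ X ≤ t ∧ B ≤ t ∧ N ≤ t ∧ P ≤ t ∧ F ≤ t) := by
  constructor
  · rintro ⟨h1, h2⟩
    obtain ⟨n, w1, w2, w3, w4, w5, w6, w7, w8, w9, w10, w11, w12⟩ := legalD_iff.1 h1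
    exact ⟨⟨n 0, n 1, n 2, n 3, n 5, n 7, n 9, n 10, n 11⟩, ⟨w1, w3, w5, w7, w9, w10, w12⟩,
      ⟨h2 0, h2 1, h2 2, h2 3, h2 5, h2 7, h2 9, h2 10, h2 11⟩⟩
  · rintro ⟨⟨a1, a2, a3, a4, a5, a6, a7, a8, a9⟩, ⟨b1, b2, b3, b4, b5, b6, b7⟩,
      ⟨c1, c2, c3, c4, c5, c6, c7, c8, c9⟩⟩
    refine ⟨legalD_iff.2 ⟨fun k => ?_, b1, b1, b2, b2, b3, b3, b4, b4, b5, b6, b6, b7⟩,
      fun k => ?_⟩
    · fin_cases k <;> assumption
    · fin_cases k <;> assumption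

/-- legal boxes `bx9`, everything live -/
theorem bx9_leg {t z D E C X B N P F : ℝ} : bx9 z D E C X B N P F ∈ Leg monL t ↔
    (0 ≤ z ∧ 0 ≤ D ∧ 0 ≤ E ∧ 0 ≤ C ∧ 0 ≤ X ∧ 0 ≤ B ∧ 0 ≤ N ∧ 0 ≤ P ∧ 0 ≤ F) ∧
    (E ≤ z + D ∧ X ≤ z + C ∧ B ≤ E + C ∧ B ≤ D + X ∧ N ≤ C + X ∧ P ≤ C + B ∧ P ≤ D + N ∧
      F ≤ z + P ∧ F ≤ X + B ∧ F ≤ E + N) ∧
    (z ≤ t ∧ D ≤ t ∧ E ≤ t ∧ C ≤ t ∧ X ≤ t ∧ B ≤ t ∧ N ≤ t ∧ P ≤ t ∧ F ≤ t) := by
  constructor
  · rintro ⟨h1, h2⟩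
    obtain ⟨n, w0, w1, w2, w3, w4, w5, w6, w7, w8, w9, w10, w11, w12, w13, w14, w15⟩ :=
      legalL_iff.1 h1
    exact ⟨⟨n 0, n 1, n 2, n 3, n 5, n 7, n 9, n 10, n 11⟩,
      ⟨w0, w1, w3, w4, w7, w9, w11, w12, w13, w15⟩,
      ⟨h2 0, h2 1, h2 2, h2 3, h2 5, h2 7, h2 9, h2 10, h2 11⟩⟩
  · rintro ⟨a, b, c⟩
    exact leg9 a b c

section

variable {W : Wnd 12 ι} {B₀ : Base} {I J : ∀ n, Finset (ι n)}
    {co : ∀ n, ι n → ι n → Fin 12 → ℝ} {C₀ : ℝ} {D₀ : Set (Fin 12 → ℝ)}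
    {ν lam : (Fin 12 → ℝ) → ℝ} {x : ℕ → Fin 12 → ℝ} {h : ℕ → ℝ} {k' : ℕ → ℕ} {t : ℝ}

/-- **legal boxes of the model**, slot `D` frozen (the slot `z` is free) -/
theorem WinG.memD (w : WinG W B₀ I J co C₀ D₀ ν lam x h k' t monD (topD t)) (ht : 0 ≤ t)
    {z D E C X B N P F : ℝ} : bx9 z D E C X B N P F ∈ W.legW ↔ D = 0 ∧
      (0 ≤ E ∧ 0 ≤ C ∧ 0 ≤ X ∧ 0 ≤ B ∧ 0 ≤ N ∧ 0 ≤ P ∧ 0 ≤ F) ∧
      (B ≤ E + C ∧ N ≤ C + X ∧ P ≤ C + B ∧ F ≤ X + B ∧ F ≤ E + N) ∧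
      (E ≤ t ∧ C ≤ t ∧ X ≤ t ∧ B ≤ t ∧ N ≤ t ∧ P ≤ t ∧ F ≤ t) := by
  rw [w.mem_legW, cut_topD, bx9_legD]
  constructor
  · rintro ⟨⟨⟨a1, a2, a3, a4, a5, a6, a7, a8, a9⟩, ⟨b1, b2, b3, b4, b5, b6, b7⟩,
      ⟨c1, c2, c3, c4, c5, c6, c7, c8, c9⟩⟩, hs⟩
    have h1 := hs 1 (by decide)
    rw [topD_one] at h1
    have h2 : D ≤ 0 := h1
    exact ⟨le_antisymm h2 a2, ⟨a3, a4, a5, a6, a7, a8, a9⟩, ⟨b2, b3, b4, b6, b7⟩,
      ⟨c3, c4, c5, c6, c7, c8, c9⟩⟩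
  · rintro ⟨rfl, ⟨a3, a4, a5, a6, a7, a8, a9⟩, ⟨b2, b3, b4, b6, b7⟩,
      ⟨c3, c4, c5, c6, c7, c8, c9⟩⟩
    refine ⟨⟨⟨ht, le_rfl, a3, a4, a5, a6, a7, a8, a9⟩,
      ⟨by linarith, b2, b3, b4, by linarith, b6, b7⟩,
      ⟨le_rfl, ht, c3, c4, c5, c6, c7, c8, c9⟩⟩, fun s hs => ?_⟩
    by_cases h1 : s = 1
    · subst h1
      rw [topD_one]
      exact le_rfl
    · rw [topD_ne t h1]
      fin_cases s <;> first | assumption | exact absurd rfl hs

/-- **legal boxes of the model**, everything live (the slot `z` is free) -/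
theorem WinG.memL (w : WinG W B₀ I J co C₀ D₀ ν lam x h k' t monL (fun _ => t)) (ht : 0 ≤ t)
    {z D E C X B N P F : ℝ} : bx9 z D E C X B N P F ∈ W.legW ↔
      (0 ≤ D ∧ 0 ≤ E ∧ 0 ≤ C ∧ 0 ≤ X ∧ 0 ≤ B ∧ 0 ≤ N ∧ 0 ≤ P ∧ 0 ≤ F) ∧
      (B ≤ E + C ∧ B ≤ D + X ∧ N ≤ C + X ∧ P ≤ C + B ∧ P ≤ D + N ∧ F ≤ X + B ∧ F ≤ E + N) ∧
      (D ≤ t ∧ E ≤ t ∧ C ≤ t ∧ X ≤ t ∧ B ≤ t ∧ N ≤ t ∧ P ≤ t ∧ F ≤ t) := by
  rw [w.mem_legW, cut_top, bx9_leg]
  constructor
  · rintro ⟨⟨⟨a1, a2, a3, a4, a5, a6, a7, a8, a9⟩, ⟨b0, b1, b2, b2', b3, b4, b4', b5, b6, b7⟩,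
      ⟨c1, c2, c3, c4, c5, c6, c7, c8, c9⟩⟩, hs⟩
    exact ⟨⟨a2, a3, a4, a5, a6, a7, a8, a9⟩, ⟨b2, b2', b3, b4, b4', b6, b7⟩,
      ⟨c2, c3, c4, c5, c6, c7, c8, c9⟩⟩
  · rintro ⟨⟨a2, a3, a4, a5, a6, a7, a8, a9⟩, ⟨b2, b2', b3, b4, b4', b6, b7⟩,
      ⟨c2, c3, c4, c5, c6, c7, c8, c9⟩⟩
    refine ⟨⟨⟨ht, a2, a3, a4, a5, a6, a7, a8, a9⟩,
      ⟨by linarith, by linarith, b2, b2', b3, b4, b4', by linarith, b6, b7⟩,
      ⟨le_rfl, c2, c3, c4, c5, c6, c7, c8, c9⟩⟩, fun s hs => ?_⟩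
    fin_cases s <;> first | assumption | exact absurd rfl hs

end

/-- the linear function of the facts, slot `D` frozen -/
def LinD (lam : (Fin 12 → ℝ) → ℝ) (rz rX rH rF gC gP gE gB : ℝ) : Prop :=
  ∀ z C P E B X H F : ℝ, bx9 z 0 E C X B H P F ∈ LMd → lam (bx9 z 0 E C X B H P F) =
    -(rz * z + rX * X + rH * H + rF * F + gC * C + gP * P + gE * E + gB * B)

/-- the linear function of the facts, slot `D` live -/
def LinM (lam : (Fin 12 → ℝ) → ℝ) (rz rX rH rF gC gP gE gB gD : ℝ) : Prop :=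
  ∀ z D C P E B X H F : ℝ, bx9 z D E C X B H P F ∈ LM → lam (bx9 z D E C X B H P F) =
    -(rz * z + rX * X + rH * H + rF * F + gC * C + gP * P + gE * E + gB * B + gD * D)

/-- **[II3a], slot `D` frozen**: one window, one model. -/
theorem exists_winD {B : Base} {I J : ∀ n, Finset (ι n)} {co : ∀ n, ι n → ι n → Fin 12 → ℝ}
    {C R : ℝ} {ν : (Fin 12 → ℝ) → ℝ} (hN : NProf B I J co monL C R ν) (hcoc : ∀ n, Coc (co n))
    {x : ℕ → Fin 12 → ℝ} {h : ℕ → ℝ} (hpos : ∀ l, 0 < h l) (hh : Tendsto h atTop (𝓝 0))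
    {D : Set (Fin 12 → ℝ)}
    {lam : (Fin 12 → ℝ) → ℝ} (htan : IsTan (Leg monL R) D ν x h lam) (hD : LMd ⊆ D)
    {rz rX rH rF gC gP gE gB : ℝ} (hlin : LinD lam rz rX rH rF gC gP gE gB)
    {σ : ℝ} (hσ0 : 0 ≤ σ) (hσ1 : σ ≤ 1) (hrz : σ ≤ rz) {t : ℝ} (ht : 0 < t)
    (s : ℕ → ℕ → ℝ) (hs : ∀ i, B.Sub (s i)) (i₀ : ∀ n, ι n) :
    ∃ (k : ℕ → ℕ) (W : Wnd 12 ι) (E : ∀ n, Finset (ι n)), Tendsto k U atTop ∧
      WinG W B I J co C D ν lam x h k t monD (topD t) ∧ Tendsto W.w U (𝓝 0) ∧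
      (∀ i, W.B'.Sub (s i)) ∧ (∀ᶠ n in (U : Filter ℕ), W.Cl n ⊆ J n) ∧
      (∀ᶠ n in (U : Filter ℕ), E n ⊆ W.Cl n) ∧ (∀ᶠ n in (U : Filter ℕ), Reg W E n) ∧
      RModel W.B' (W.cfg E) σ t W.legW W.nu W.Dc ∧
      ∀ z E C X B N P F : ℝ, bx9 z 0 E C X B N P F ∈ W.legW → W.nu (bx9 z 0 E C X B N P F) =
        rX * (t - X) + rH * (t - N) + rF * (t - F) + gC * (t - C) + gP * (t - P) +
          gE * (t - E) + gB * (t - B) := by
  have hsg := stG_fro ht.le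
  have l1 : ∀ y, 0 ≤ y → y ≤ t → lam (Pi.single 0 y) = -(rz * y) := by
    intro y h1 h2
    have hm := leg_LMd t (hsg.single_leg h1 h2)
    rw [single_eq] at hm ⊢
    rw [hlin _ _ _ _ _ _ _ _ hm]
    ring
  have l2 : lam (topD t) = -(rz * t + rX * t + rH * t + rF * t + gC * t + gP * t + gE * t +
      gB * t) := by
    have hm := leg_LMd t (hsg.top_leg ht.le)
    rw [topD_eq] at hm ⊢
    exact hlin _ _ _ _ _ _ _ _ hm
  have l3 : lam (cut {0} (topD t) 0) = -(rz * 0 + rX * t + rH * t + rF * t + gC * t + gP * t +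
      gE * t + gB * t) := by
    have hm := leg_LMd t hsg.lin
    rw [topD_cut0] at hm ⊢
    exact hlin _ _ _ _ _ _ _ _ hm
  obtain ⟨k, W, E, a1, w, a3, a4, a5, a6, a7, a8⟩ := exists_winG1 hN hcoc hpos hh htan ht hsg
    ((leg_LMd t).trans hD) hσ0 hσ1 (by rw [l1 t ht.le le_rfl, l2, l3]; linarith)
    (fun y h1 h2 => by
      rw [l1 y h1 h2]
      have := mul_le_mul_of_nonneg_right hrz h1
      linarith) s hs i₀
  refine ⟨k, W, E, a1, w, a3, a4, a5, a6, a7, a8, fun z E C X B N P F hp => ?_⟩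
  have hm := leg_LMd t (w.cut_mem hp)
  rw [w.nu_eq, l2]
  rw [cut_topD] at hm ⊢
  rw [hlin _ _ _ _ _ _ _ _ hm]
  ring

/-- **[II3a], everything live**: one window, one model. -/
theorem exists_winM {B : Base} {I J : ∀ n, Finset (ι n)} {co : ∀ n, ι n → ι n → Fin 12 → ℝ}
    {C R : ℝ} {ν : (Fin 12 → ℝ) → ℝ} (hN : NProf B I J co monL C R ν) (hcoc : ∀ n, Coc (co n))
    {x : ℕ → Fin 12 → ℝ} {h : ℕ → ℝ} (hpos : ∀ l, 0 < h l) (hh : Tendsto h atTop (𝓝 0))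
    {D : Set (Fin 12 → ℝ)}
    {lam : (Fin 12 → ℝ) → ℝ} (htan : IsTan (Leg monL R) D ν x h lam) (hD : LM ⊆ D)
    {rz rX rH rF gC gP gE gB gD : ℝ} (hlin : LinM lam rz rX rH rF gC gP gE gB gD)
    {σ : ℝ} (hσ0 : 0 ≤ σ) (hσ1 : σ ≤ 1) (hrz : σ ≤ rz) {t : ℝ} (ht : 0 < t)
    (s : ℕ → ℕ → ℝ) (hs : ∀ i, B.Sub (s i)) (i₀ : ∀ n, ι n) :
    ∃ (k : ℕ → ℕ) (W : Wnd 12 ι) (E : ∀ n, Finset (ι n)), Tendsto k U atTop ∧
      WinG W B I J co C D ν lam x h k t monL (fun _ => t) ∧ Tendsto W.w U (𝓝 0) ∧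
      (∀ i, W.B'.Sub (s i)) ∧ (∀ᶠ n in (U : Filter ℕ), W.Cl n ⊆ J n) ∧
      (∀ᶠ n in (U : Filter ℕ), E n ⊆ W.Cl n) ∧ (∀ᶠ n in (U : Filter ℕ), Reg W E n) ∧
      RModel W.B' (W.cfg E) σ t W.legW W.nu W.Dc ∧
      ∀ z D E C X B N P F : ℝ, bx9 z D E C X B N P F ∈ W.legW →
        W.nu (bx9 z D E C X B N P F) =
        rX * (t - X) + rH * (t - N) + rF * (t - F) + gC * (t - C) + gP * (t - P) +
          gE * (t - E) + gB * (t - B) + gD * (t - D) := by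
  have hsg := stG_live ht.le
  have l1 : ∀ y, 0 ≤ y → y ≤ t → lam (Pi.single 0 y) = -(rz * y) := by
    intro y h1 h2
    have hm := leg_LM t (hsg.single_leg h1 h2)
    rw [single_eq] at hm ⊢
    rw [hlin _ _ _ _ _ _ _ _ _ hm]
    ring
  have l2 : lam (fun _ => t) = -(rz * t + rX * t + rH * t + rF * t + gC * t + gP * t + gE * t +
      gB * t + gD * t) := by
    have hm := leg_LM t (hsg.top_leg ht.le)
    rw [const_eq] at hm ⊢
    exact hlin _ _ _ _ _ _ _ _ _ hm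
  have l3 : lam (cut {0} (fun _ => t) 0) = -(rz * 0 + rX * t + rH * t + rF * t + gC * t +
      gP * t + gE * t + gB * t + gD * t) := by
    have hm := leg_LM t hsg.lin
    rw [const_cut0] at hm ⊢
    exact hlin _ _ _ _ _ _ _ _ _ hm
  obtain ⟨k, W, E, a1, w, a3, a4, a5, a6, a7, a8⟩ := exists_winG1 hN hcoc hpos hh htan ht hsg
    ((leg_LM t).trans hD) hσ0 hσ1 (by rw [l1 t ht.le le_rfl, l2, l3]; linarith)
    (fun y h1 h2 => by
      rw [l1 y h1 h2]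
      have := mul_le_mul_of_nonneg_right hrz h1
      linarith) s hs i₀
  refine ⟨k, W, E, a1, w, a3, a4, a5, a6, a7, a8, fun z D E C X B N P F hp => ?_⟩
  have hm := leg_LM t (w.cut_mem hp)
  rw [w.nu_eq, l2]
  rw [cut_top] at hm ⊢
  rw [hlin _ _ _ _ _ _ _ _ _ hm]
  ring

end Crest.Agent.R116.WinG954
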