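import Crest.Agent.R116.Nar3g_863
import Crest.Agent.R116.WinG_954

/-!
# R116, [NARROW] (helper863), part 8: (A1) of the thin case from a tangent, slot `D` frozen

* `WinD` : a property of all the windows along the tangent at slow base points;
* `slackD_of` : the walls with `D` are slack in the windows;
* **`a1_thin`**.
-/

set_option autoImplicit false
set_option linter.unusedVariables false
set_option linter.unusedSectionVars false

open Filter Topology Finset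

namespace Crest.Agent.R116.Nar863

open Crest.Agent.R138.Ex926
open Crest.Agent.R136.Net191 Crest.Agent.R136.Qg926 Crest.Agent.R136.Gf356
open Crest.Agent.R136.NSt107
open Crest.Agent.R116.ChL222 Crest.Agent.R116.PL504 Crest.Agent.R116.EvL504
open Crest.Agent.R116.WinU954 Crest.Agent.R116.WinG954 Crest.Agent.R116.Sg337

variable {ι : ℕ → Type*} [∀ n, DecidableEq (ι n)]

/-- a property of all the windows (slot `D` frozen) along a tangent, at slow base points -/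
def WinD (P : Wnd 12 ι → Prop) (B : Base) (I J : ∀ n, Finset (ι n))
    (co : ∀ n, ι n → ι n → Fin 12 → ℝ) (C : ℝ) (D : Set (Fin 12 → ℝ)) (ν lam : (Fin 12 → ℝ) → ℝ)
    (X : ℕ → Fin 12 → ℝ) (h : ℕ → ℝ) (t : ℝ) : Prop :=
  ∃ k : ℕ → ℕ, Tendsto k U atTop ∧ ∀ k' : ℕ → ℕ, Tendsto k' U atTop →
    (∀ᶠ n in (U : Filter ℕ), k' n ≤ k n) → ∀ W : Wnd 12 ι,
      WinG W B I J co C D ν lam X h k' t monD (topD t) → P W

theorem thinB_eq (e c x : ℝ) : thinB e c x = bx9 0 0 e c x 0 0 c x := by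
  funext s
  fin_cases s <;> rfl

section win

variable {W : Wnd 12 ι} {B : Base} {I J : ∀ n, Finset (ι n)}
    {co : ∀ n, ι n → ι n → Fin 12 → ℝ} {C : ℝ} {D : Set (Fin 12 → ℝ)}
    {ν lam : (Fin 12 → ℝ) → ℝ} {X : ℕ → Fin 12 → ℝ} {h : ℕ → ℝ} {k' : ℕ → ℕ} {t : ℝ}

theorem thinB_mem (w : WinG W B I J co C D ν lam X h k' t monD (topD t)) (ht : 0 ≤ t) {c y : ℝ}
    (hc : 0 ≤ c) (hct : c ≤ t) (hy : 0 ≤ y) (hyt : y ≤ t) : thinB t c y ∈ W.legW := by
  rw [thinB_eq, w.memD ht]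
  refine ⟨rfl, ⟨ht, hc, hy, le_rfl, le_rfl, hc, hy⟩, ⟨?_, ?_, ?_, ?_, ?_⟩,
    ⟨le_rfl, hct, hyt, ht, ht, hct, hyt⟩⟩ <;> linarith

/-- the unit of a slot -/
theorem side_eqG (w : WinG W B I J co C D ν lam X h k' t monD (topD t)) (n : ℕ) (s : Fin 12) :
    side W n s = cK0 monL C ^ wtL s * B.d n ^ X (k' n) s := by
  unfold side
  rw [w.hkap, w.hB, w.hX]

theorem side_mulG (w : WinG W B I J co C D ν lam X h k' t monD (topD t)) (n : ℕ)
    {a b c : Fin 12} (hw : wtL a + wtL b = wtL c) (hX : X (k' n) c = X (k' n) a + X (k' n) b) :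
    side W n a * side W n b = side W n c := by
  rw [side_eqG w, side_eqG w, side_eqG w, hX, Real.rpow_add (B.pos n), ← hw, pow_add]
  ring

/-- **the walls with `D` are slack in the windows** -/
theorem slackD_of (w : WinG W B I J co C D ν lam X h k' t monD (topD t))
    (hK : 0 < cK0 monL C) (hk : Tendsto k' U atTop)
    (slD : ∀ k, ∀ e ∈ monL.mon k, e 1 ≠ 0 →
      ∀ᶠ l in atTop, X l k + t * h l ≤ ∑ s, (e s : ℝ) * X l s) :
    ∀ᶠ n in (U : Filter ℕ), SlackD W n (W.B'.d n ^ t) := by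
  have m1 := hk.eventually (slD 2 ![1, 1, 0, 0, 0, 0, 0, 0, 0, 0, 0, 0] (by decide) (by decide))
  have m2 := hk.eventually (slD 10 ![0, 1, 0, 1, 0, 1, 0, 0, 0, 0, 0, 0] (by decide) (by decide))
  have m3 := hk.eventually (slD 10 ![0, 1, 0, 0, 1, 0, 1, 0, 0, 0, 0, 0] (by decide) (by decide))
  have m4 := hk.eventually (slD 10 ![0, 1, 0, 0, 0, 0, 0, 0, 0, 1, 0, 0] (by decide) (by decide))
  have m5 := hk.eventually (slD 11 ![0, 1, 0, 0, 0, 2, 0, 0, 0, 0, 0, 0] (by decide) (by decide))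
  have m6 := hk.eventually (slD 11 ![0, 1, 0, 0, 0, 0, 2, 0, 0, 0, 0, 0] (by decide) (by decide))
  filter_upwards [m1, m2, m3, m4, m5, m6] with n a1 a2 a3 a4 a5 a6
  rw [sum12] at a1 a2 a3 a4 a5 a6
  simp only [Matrix.cons_val, Nat.cast_zero, Nat.cast_one, Nat.cast_ofNat, zero_mul, one_mul,
    add_zero, zero_add] at a1 a2 a3 a4 a5 a6
  set x := X (k' n) with hx
  set K := cK0 monL C with hKd
  have hδ : W.B'.d n ^ t = B.d n ^ (t * h (k' n)) := by
    rw [w.base, ← Real.rpow_mul (B.pos n).le, mul_comm]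
  have hd := B.pos n
  have d2 : ∀ {a b c : Fin 12}, wtL a + wtL b = wtL c → x c + t * h (k' n) ≤ x a + x b →
      side W n a * side W n b ≤ W.B'.d n ^ t * side W n c := by
    intro a b c hw hle
    rw [side_eqG w, side_eqG w, side_eqG w, hδ, ← hx]
    have e1 : K ^ wtL a * B.d n ^ x a * (K ^ wtL b * B.d n ^ x b) =
        K ^ wtL c * B.d n ^ (x a + x b) := by
      rw [← hw, pow_add, Real.rpow_add hd]; ring
    have e2 : B.d n ^ (t * h (k' n)) * (K ^ wtL c * B.d n ^ x c) =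
        K ^ wtL c * B.d n ^ (x c + t * h (k' n)) := by
      rw [Real.rpow_add hd]; ring
    rw [e1, e2]
    exact mul_le_mul_of_nonneg_left
      (Real.rpow_le_rpow_of_exponent_ge hd (B.lt n).le hle) (pow_nonneg hK.le _)
  have d3 : ∀ {a b b' c : Fin 12}, wtL a + wtL b + wtL b' = wtL c →
      x c + t * h (k' n) ≤ x a + x b + x b' →
      side W n a * (side W n b * side W n b') ≤ W.B'.d n ^ t * side W n c := by
    intro a b b' c hw hle
    rw [side_eqG w, side_eqG w, side_eqG w, side_eqG w, hδ, ← hx]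
    have e1 : K ^ wtL a * B.d n ^ x a * (K ^ wtL b * B.d n ^ x b * (K ^ wtL b' * B.d n ^ x b')) =
        K ^ wtL c * B.d n ^ (x a + x b + x b') := by
      rw [← hw, pow_add, pow_add, Real.rpow_add hd, Real.rpow_add hd]; ring
    have e2 : B.d n ^ (t * h (k' n)) * (K ^ wtL c * B.d n ^ x c) =
        K ^ wtL c * B.d n ^ (x c + t * h (k' n)) := by
      rw [Real.rpow_add hd]; ring
    rw [e1, e2]
    exact mul_le_mul_of_nonneg_left
      (Real.rpow_le_rpow_of_exponent_ge hd (B.lt n).le hle) (pow_nonneg hK.le _)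
  exact
    { z := d2 rfl (by linarith)
      c3 := d3 rfl (by linarith)
      c4 := d3 rfl (by linarith)
      nn := d2 rfl (by linarith)
      x5 := d3 rfl (by linarith)
      x6 := d3 rfl (by linarith) }

end win

theorem thinB_le {e c c' x x' : ℝ} (hc : c ≤ c') (hx : x ≤ x') (s : Fin 12) :
    thinB e c x s ≤ thinB e c' x' s := by
  fin_cases s <;> simp [thinB, hc, hx]

theorem thinB_max {e c x : ℝ} (hc : 0 ≤ c) (hx : 0 ≤ x) (s : Fin 12) :
    thinB e c x s ≤ max (thinB e c 0 s) (thinB e 0 x s) := by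
  fin_cases s <;> simp [thinB, hc, hx]

open Classical in
/-- **(A1), thin case, in a window** (slot `D` frozen) -/
theorem a1_thinW {W : Wnd 12 ι} {B : Base} {I J : ∀ n, Finset (ι n)}
    {co : ∀ n, ι n → ι n → Fin 12 → ℝ} {C : ℝ} {D : Set (Fin 12 → ℝ)}
    {ν lam : (Fin 12 → ℝ) → ℝ} {X : ℕ → Fin 12 → ℝ} {h : ℕ → ℝ} {k' : ℕ → ℕ} {t : ℝ}
    (w : WinG W B I J co C D ν lam X h k' t monD (topD t)) (ht : 0 < t)
    {E' : ∀ n, Finset (ι n)} {g : ℕ → ℝ}
    {ex : ℕ → ∀ n, ι n → ℕ} (hP : Wnd.Pruned W (rich W) E' g ex) {σ : ℝ}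
    (H : RModel W.B' (W.cfg E') σ t W.legW W.nu W.Dc)
    (hr : ∀ᶠ n in (U : Filter ℕ), Reg W E' n)
    (dens : lam (topD t) ≤ lam (cut {0} (topD t) 0) + lam (Pi.single 0 t))
    (n5 : ∀ n, side W n 0 * side W n 3 = side W n 5)
    (n6 : ∀ n, side W n 0 * side W n 4 = side W n 6)
    (n11 : ∀ n, side W n 0 * side W n 10 = side W n 11)
    (hsl : ∀ᶠ n in (U : Filter ℕ), SlackD W n (W.B'.d n ^ t))
    {ca xa cb xb : Fin 12} (hax : Axis ca xa cb xb) (hdim : DimC W ca xa cb xb t)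
    {q : ℝ} (hq : 0 < q) (hns : NsW W ca 10 q t) {x : ℝ} (hx : 0 < x) (hxt : x ≤ t)
    (zero : W.nu 0 ≤ W.nu (thinB t 0 0))
    (hprod : ∀ c, 0 < c → c ≤ t → W.nu (thinB t 0 0) - W.nu (thinB t c 0) ≤
      W.nu (thinB t 0 x) - W.nu (thinB t c x)) :
    2 * σ * x ≤ W.nu (thinB t 0 0) - W.nu (thinB t 0 x) := by
  have hdens : W.lam W.top ≤ W.lam (cut W.S W.top 0) + W.lam (cut W.S 0 W.top) := by
    rw [w.hlam, w.htop, w.hS, (stG_fro ht.le).cut0_top]
    exact dens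
  have hca : ca = 3 ∨ ca = 4 := by
    rcases hax with ⟨a, -⟩ | ⟨a, -⟩
    · exact Or.inl a
    · exact Or.inr a
  have hcaS : ca ∉ SL := by rcases hca with rfl | rfl <;> decide
  have hN : NoStr W.B' (W.cfg E') (thinB t 0 0) ca 10 W.nu q t :=
    noStr_of w.wl hP hdens hcaS (by decide) hq.le hns zero
  obtain ⟨i0, hi0⟩ : ∃ i0 : ℕ → ℕ × ℕ, ∀ n, i0 n ∈ (W.cfg E' n).I :=
    ⟨fun n => (H.nonempty n).choose, fun n => (H.nonempty n).choose_spec⟩
  have hS2 : (2 : Fin 12) ∉ W.S := by rw [w.hS]; decide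
  have ht2 : t ≤ W.top 2 := by rw [w.htop, topD_ne t (by decide)]
  refine a1_abs H (fun n => (i0 n).1) (fun n => (i0 n).2)
    (Eventually.of_forall fun n => hi0 n) (p0 := thinB t 0 0) (r := thinB t 0 x)
    (pC := fun c => thinB t c 0) (pFC := fun c => thinB t c x) (cA := ca) (cB := 10) (R0 := t)
    (Ca := 2) ?_ two_pos hN (addP_thin w.wl H.base hr hS2 hsl hca) hq ht hx hxt
    (posD_thin w.wl H hr hS2 ht2 hsl hax hdim n5 n6 n11 hi0 hx hxt ht)
  exact
    { l0 := thinB_mem w ht.le le_rfl ht.le le_rfl ht.le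
      lF := thinB_mem w ht.le le_rfl ht.le hx.le hxt
      le := thinB_le le_rfl hx.le
      lC := fun c hc hct => thinB_mem w ht.le hc.le hct le_rfl ht.le
      lFC := fun c hc hct => thinB_mem w ht.le hc.le hct hx.le hxt
      leC := fun c hc _ => thinB_le hc.le le_rfl
      cA := fun c _ _ => by rcases hca with rfl | rfl <;> exact le_rfl
      cB := fun c _ _ => le_rfl
      mx := fun c hc _ => thinB_max hc.le hx.le
      prod := hprod }

/-- two slow sequences -/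
theorem min_slow {k1 k2 : ℕ → ℕ} (h1 : Tendsto k1 U atTop) (h2 : Tendsto k2 U atTop) :
    Tendsto (fun n => min (k1 n) (k2 n)) U atTop := by
  rw [tendsto_atTop] at h1 h2 ⊢
  intro b
  filter_upwards [h1 b, h2 b] with n a b
  exact le_min a b

open Classical in
/-- **(A1), thin case, from a tangent at a moving base point** (slot `D` frozen) -/
theorem a1_thin {B : Base} {I J : ∀ n, Finset (ι n)} {co : ∀ n, ι n → ι n → Fin 12 → ℝ}
    {C R : ℝ} {ν : (Fin 12 → ℝ) → ℝ} (hN : NProf B I J co monL C R ν) (hcoc : ∀ n, Coc (co n))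
    {X : ℕ → Fin 12 → ℝ} {h : ℕ → ℝ} (hpos : ∀ l, 0 < h l) {D : Set (Fin 12 → ℝ)}
    {lam : (Fin 12 → ℝ) → ℝ} (htan : IsTan (Leg monL R) D ν X h lam) {t : ℝ} (ht : 0 < t)
    (hD : Leg monD t ⊆ D) {σ : ℝ} (hσ0 : 0 ≤ σ) (hσ1 : σ ≤ 1)
    (dens : lam (bx9 t 0 t t t t t t t) ≤ lam (bx9 0 0 t t t t t t t) +
      lam (bx9 t 0 0 0 0 0 0 0 0))
    (frost : ∀ y, 0 ≤ y → y ≤ t → lam (bx9 y 0 0 0 0 0 0 0 0) ≤ -(σ * y)) (i₀ : ∀ n, ι n)
    (n5 : ∀ l, X l 5 = X l 0 + X l 3) (n6 : ∀ l, X l 6 = X l 0 + X l 4)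
    (n11 : ∀ l, X l 11 = X l 0 + X l 10)
    (slD : ∀ k, ∀ e ∈ monL.mon k, e 1 ≠ 0 →
      ∀ᶠ l in atTop, X l k + t * h l ≤ ∑ s, (e s : ℝ) * X l s)
    {ca xa cb xb : Fin 12} (hax : Axis ca xa cb xb)
    (hdim : WinD (fun W => DimC W ca xa cb xb t) B I J co C D ν lam X h t)
    {q : ℝ} (hq : 0 < q) (hns : WinD (fun W => NsW W ca 10 q t) B I J co C D ν lam X h t)
    {x : ℝ} (hx : 0 < x) (hxt : x ≤ t)
    (zero : lam (bx9 t 0 0 0 0 0 0 0 0) ≤ lam (bx9 t 0 t 0 0 0 0 0 0))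
    (prod : ∀ c, 0 < c → c ≤ t →
      lam (bx9 t 0 t 0 0 0 0 0 0) - lam (bx9 t 0 t c 0 0 0 c 0) ≤
        lam (bx9 t 0 t 0 x 0 0 0 x) - lam (bx9 t 0 t c x 0 0 c x)) :
    2 * σ * x ≤ lam (bx9 t 0 t 0 0 0 0 0 0) - lam (bx9 t 0 t 0 x 0 0 0 x) := by
  have hC0 := (hN.chart 0).C0
  have hK : 0 < cK0 monL C := by linarith [cK0_one (M := monL) hC0]
  have dens' : lam (topD t) ≤ lam (cut {0} (topD t) 0) + lam (Pi.single 0 t) := by
    rw [topD_cut0, single_eq, topD_eq]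
    exact dens
  have frost' : ∀ y, 0 ≤ y → y ≤ t → lam (Pi.single 0 y) ≤ -(σ * y) := by
    intro y h1 h2
    rw [single_eq]
    exact frost y h1 h2
  obtain ⟨k1, hk1, h1⟩ := exists_winG hN hcoc hpos htan ht (stG_fro ht.le) hD hσ0 hσ1 dens' frost'
    (fun _ _ => 1) (fun _ => Base.Sub.const one_pos) i₀
  obtain ⟨k2, hk2, h2⟩ := hns
  obtain ⟨k3, hk3, h3⟩ := hdim
  have hk := min_slow hk1 (min_slow hk2 hk3)
  obtain ⟨W, w, -, a3⟩ := h1 _ hk (Eventually.of_forall fun n => min_le_left _ _)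
  obtain ⟨E', g, b1, -, b3, b4⟩ := a3 (rich W) (fun _ => 1) (eok_rich w.wl.ok) (fun _ _ _ => 0)
    (fun n => (n : ℝ)) (tendsto_natCast_atTop_atTop.mono_left U_le_atTop)
  have c2 := h2 _ hk (Eventually.of_forall fun n => (min_le_right _ _).trans (min_le_left _ _)) W w
  have c3 := h3 _ hk (Eventually.of_forall fun n => (min_le_right _ _).trans (min_le_right _ _)) W w
  have e0 : cut {0} (0 : Fin 12 → ℝ) (topD t) = bx9 t 0 0 0 0 0 0 0 0 := by
    rw [(stG_fro ht.le).cut0_top, single_eq]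
  have key := a1_thinW w ht b1 b4 b3 dens'
    (fun n => side_mulG w n (a := 0) (b := 3) (c := 5) rfl (n5 _))
    (fun n => side_mulG w n (a := 0) (b := 4) (c := 6) rfl (n6 _))
    (fun n => side_mulG w n (a := 0) (b := 10) (c := 11) rfl (n11 _))
    (slackD_of w hK hk slD) hax c3 hq c2 hx hxt
    (by
      rw [w.nu_eq, w.nu_eq, thinB_eq, cut_topD, e0]
      linarith)
    (by
      intro c hc hct
      rw [w.nu_eq, w.nu_eq, w.nu_eq, w.nu_eq, thinB_eq, thinB_eq, thinB_eq, thinB_eq, cut_topD,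
        cut_topD, cut_topD, cut_topD]
      linarith [prod c hc hct])
  rw [w.nu_eq, w.nu_eq, thinB_eq, thinB_eq, cut_topD, cut_topD] at key
  linarith

end Crest.Agent.R116.Nar863
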