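import Crest.Agent.R116.PL2_504

/-!
# R116, [II0] + [II1] of K-TEXT II-c (helper504): natural boxes, D-max value, own facts

Everything from `Lq196.ExtQ` over `monL`, as statements on real variables.

* `nb w0 sa sb v a b = eL (w0 + v) (sa + a) (sb + b)` : natural box of height `v`, velocity `a`,
  slope `b`; `nb_add` (affine), `nb_wall` (ALL walls are equalities), `nb_leg` (legality).
* `DN g s q0 q1 θa θb v a b` : the D-max exponent, `fN` : the D-max value; `fN_le`, `fN_rec`,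
  `fN_le_of` (points finer than a natural box).
* `own_inc` : own increments; `own_tied` : a tied slot beyond the record costs.
-/

set_option autoImplicit false
set_option linter.unusedVariables false

open Finset Filter Topology

namespace Crest.Agent.R116.PL504

open Crest.Agent.R138.Ex926 (Base U QProf)
open Crest.Agent.R136.Net191
open Crest.Agent.R136.Lq196
open Crest.Agent.R116.ChL222

/-! ### natural boxes -/

/-- natural box of height `v`, velocity `a`, slope of the slab `b` (relative to the shifts) -/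
def nb (w0 sa sb v a b : ℝ) : Fin 12 → ℝ := eL (w0 + v) (sa + a) (sb + b)

variable {w0 sa sb v a b : ℝ}

theorem nb_z : nb w0 sa sb v a b 0 = w0 + v := rfl
theorem nb_D : nb w0 sa sb v a b 1 = (sb + b) - 2 * (sa + a) - (w0 + v) := rfl
theorem nb_E : nb w0 sa sb v a b 2 = (sb + b) - 2 * (sa + a) := rfl
theorem nb_C1 : nb w0 sa sb v a b 3 = sa + a := rfl
theorem nb_C2 : nb w0 sa sb v a b 4 = sa + a := rfl
theorem nb_X1 : nb w0 sa sb v a b 5 = (w0 + v) + (sa + a) := rfl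
theorem nb_X2 : nb w0 sa sb v a b 6 = (w0 + v) + (sa + a) := rfl
theorem nb_B1 : nb w0 sa sb v a b 7 = (sb + b) - (sa + a) := rfl
theorem nb_B2 : nb w0 sa sb v a b 8 = (sb + b) - (sa + a) := rfl
theorem nb_N : nb w0 sa sb v a b 9 = (w0 + v) + 2 * (sa + a) := rfl
theorem nb_P : nb w0 sa sb v a b 10 = sb + b := rfl
theorem nb_F : nb w0 sa sb v a b 11 = (w0 + v) + (sb + b) := rfl

/-- the natural boxes are an affine family -/
theorem nb_add (w0 sa sb v a b v' a' b' : ℝ) :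
    nb w0 sa sb (v + v') (a + a') (b + b') = nb w0 sa sb v a b + eL v' a' b' := by
  funext k
  rw [Pi.add_apply]
  fin_cases k <;> simp [nb, eL] <;> ring

theorem eL_smul (t v a b : ℝ) : eL (t * v) (t * a) (t * b) = t • eL v a b := by
  funext k
  rw [Pi.smul_apply, smul_eq_mul]
  fin_cases k <;> simp [eL] <;> ring

theorem eL_add (v a b v' a' b' : ℝ) : eL (v + v') (a + a') (b + b') = eL v a b + eL v' a' b' := by
  funext k
  rw [Pi.add_apply]
  fin_cases k <;> simp [eL] <;> ring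

/-- the record path is the natural box of `(v, θa (1 - v), θb (1 - v))` -/
theorem rL_nb (θa θb w0 sa sb v : ℝ) :
    rL θa θb w0 sa sb v = nb w0 sa sb v (θa * (1 - v)) (θb * (1 - v)) := by
  unfold rL nb
  rw [add_comm (θa * (1 - v)) sa, add_comm (θb * (1 - v)) sb]

/-- **all walls are active on the natural boxes** -/
theorem eL_wall (z c p : ℝ) (k : Fin 12) {e : Fin 12 → ℕ} (he : e ∈ monL.mon k) :
    ∑ s, (e s : ℝ) * eL z c p s = eL z c p k := by
  have hs : ∀ e : Fin 12 → ℕ, ∑ s, (e s : ℝ) * eL z c p s =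
      e 0 * z + e 1 * (p - 2 * c - z) + e 2 * (p - 2 * c) + e 3 * c + e 4 * c +
      e 5 * (z + c) + e 6 * (z + c) + e 7 * (p - c) + e 8 * (p - c) + e 9 * (z + 2 * c) +
      e 10 * p + e 11 * (z + p) := by
    intro e
    simp [Fin.sum_univ_succ, eL]
    ring
  rw [hs]
  change e ∈ mfL k at he
  fin_cases k <;> simp [mfL] at he
  · subst he; simp [eL]
  · subst he; simp [eL]
  · subst he; simp [eL]
  · rcases he with rfl | rfl <;> simp [eL] <;> ring
  · rcases he with rfl | rfl <;> simp [eL] <;> ring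
  · rcases he with rfl | rfl | rfl | rfl <;> simp [eL] <;> ring
  · rcases he with rfl | rfl | rfl | rfl | rfl | rfl | rfl <;> simp [eL] <;> ring
  · rcases he with rfl | rfl | rfl | rfl | rfl | rfl | rfl | rfl | rfl | rfl | rfl | rfl | rfl <;>
      simp [eL] <;> ring

theorem nb_wall (w0 sa sb v a b : ℝ) (k : Fin 12) {e : Fin 12 → ℕ} (he : e ∈ monL.mon k) :
    ∑ s, (e s : ℝ) * nb w0 sa sb v a b s = nb w0 sa sb v a b k := eL_wall _ _ _ k he

/-- legal natural boxes -/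
theorem nb_leg {R : ℝ} : nb w0 sa sb v a b ∈ Leg monL R ↔
    0 ≤ w0 + v ∧ 0 ≤ sa + a ∧ 0 ≤ (sb + b) - 2 * (sa + a) - (w0 + v) ∧
      (w0 + v) + (sb + b) ≤ R := by
  constructor
  · intro h
    exact ⟨h.1.nonneg 0, h.1.nonneg 3, h.1.nonneg 1, h.2 11⟩
  · rintro ⟨h1, h2, h3, h4⟩
    exact ⟨eL_legal h1 h2 h3, fun k => eL_le h1 h2 h3 h4 k⟩

/-- near the record the natural boxes are legal, with a uniform margin -/
theorem Shift.nb_near {θa θb δ R : ℝ} (h : Shift θa θb w0 sa sb δ R) {v : ℝ} (hv0 : 0 ≤ v)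
    (hv1 : v ≤ 1) {x y z : ℝ} (h1 : |x| ≤ δ / 8) (h2 : |y| ≤ δ / 8) (h3 : |z| ≤ δ / 8)
    (hR : (w0 + (v + x)) + (sb + (θb * (1 - v) + z)) ≤ R) :
    nb w0 sa sb (v + x) (θa * (1 - v) + y) (θb * (1 - v) + z) ∈ Leg monL R := by
  have hd := h.d0
  have b1 := h.bz hv0
  have b2 := h.bc hv0 hv1
  have b3 := h.bD hv0 hv1
  rw [abs_le] at h1 h2 h3
  refine nb_leg.2 ⟨?_, ?_, ?_, hR⟩ <;> linarith [h1.1, h1.2, h2.1, h2.2, h3.1, h3.2]

/-! ### the D-max exponent and the D-max value -/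

/-- exponent of the D-max count of the natural box `(v, a, b)`, relative to the record box of
level `0` -/
def DN (g s q0 q1 θa θb v a b : ℝ) : ℝ :=
  (g - (1 - s)) * v - (3 * v + (3 + q0) * (a - θa) + (1 + q1) * (b - θb))

/-- its value on the record -/
theorem DN_rec (g s q0 q1 θa θb v : ℝ) : DN g s q0 q1 θa θb v (θa * (1 - v)) (θb * (1 - v)) =
    (g - (1 - s)) * v - (3 - (3 + q0) * θa - (1 + q1) * θb) * v := by
  unfold DN
  ring

/-- the D-max value: `≤ 0` on the admissible natural boxes, `= 0` on the record -/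
def fN (ν : (Fin 12 → ℝ) → ℝ) (c₀ w0 sa sb g s q0 q1 θa θb v a b : ℝ) : ℝ :=
  ν (nb w0 sa sb v a b) - c₀ - DN g s q0 q1 θa θb v a b

section ext

variable {B : Base} {I0 I : ℕ → Finset (ℕ × ℝ)} {co : ∀ n : ℕ, ℕ × ℝ → ℕ × ℝ → Fin 12 → ℝ}
  {C R s g q0 q1 θa θb c₀ : ℝ} {PD : Set (Fin 12 → ℝ)} {D : (Fin 12 → ℝ) → ℝ}
  {o : ℝ → Fin 12 → ℝ} {E : ℝ → ℝ} {T : Fin 12 → Prop} {ν own : (Fin 12 → ℝ) → ℝ}

/-- D-max on natural boxes -/
theorem fN_le (h : ExtQ B I0 I co monL C R 0 w0 s PD D (rL θa θb w0 sa sb) o E T ν own c₀)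
    (hD : ∀ v a b : ℝ, D (nb w0 sa sb v a b) = DN g s q0 q1 θa θb v a b) {v a b : ℝ}
    (hp : nb w0 sa sb v a b ∈ PD) : fN ν c₀ w0 sa sb g s q0 q1 θa θb v a b ≤ 0 := by
  have h1 := h.dmax _ hp
  rw [hD] at h1
  unfold fN
  linarith

/-- D-max on boxes which are finer than a natural box in every slot -/
theorem fN_le_of (h : ExtQ B I0 I co monL C R 0 w0 s PD D (rL θa θb w0 sa sb) o E T ν own c₀)
    (hD : ∀ v a b : ℝ, D (nb w0 sa sb v a b) = DN g s q0 q1 θa θb v a b) {v a b : ℝ}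
    (hp : nb w0 sa sb v a b ∈ PD) (hpl : nb w0 sa sb v a b ∈ Leg monL R) {q : Fin 12 → ℝ}
    (hq : q ∈ Leg monL R) (hle : nb w0 sa sb v a b ≤ q) :
    ν q ≤ c₀ + DN g s q0 q1 θa θb v a b := by
  have h1 := h.dmax _ hp
  rw [hD] at h1
  have h2 := (h.lip _ hpl _ hq hle).1
  linarith

/-- the record has full density -/
theorem fN_rec (h : ExtQ B I0 I co monL C R 0 w0 s PD D (rL θa θb w0 sa sb) o E T ν own c₀)
    (hE : ∀ v : ℝ, 0 ≤ v → v ≤ 1 → E v = DN g s q0 q1 θa θb v (θa * (1 - v)) (θb * (1 - v)))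
    {v : ℝ} (hv0 : 0 ≤ v) (hv1 : v ≤ 1) :
    0 ≤ fN ν c₀ w0 sa sb g s q0 q1 θa θb v (θa * (1 - v)) (θb * (1 - v)) := by
  have h1 := h.record v hv0 hv1
  rw [rL_nb, hE v hv0 hv1] at h1
  unfold fN
  linarith

/-- equality on the record -/
theorem fN_eq (h : ExtQ B I0 I co monL C R 0 w0 s PD D (rL θa θb w0 sa sb) o E T ν own c₀)
    (hD : ∀ v a b : ℝ, D (nb w0 sa sb v a b) = DN g s q0 q1 θa θb v a b)
    (hE : ∀ v : ℝ, 0 ≤ v → v ≤ 1 → E v = DN g s q0 q1 θa θb v (θa * (1 - v)) (θb * (1 - v)))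
    {v : ℝ} (hv0 : 0 ≤ v) (hv1 : v ≤ 1)
    (hp : nb w0 sa sb v (θa * (1 - v)) (θb * (1 - v)) ∈ PD) :
    fN ν c₀ w0 sa sb g s q0 q1 θa θb v (θa * (1 - v)) (θb * (1 - v)) = 0 :=
  le_antisymm (fN_le h hD hp) (fN_rec h hE hv0 hv1)

variable {m : ℕ} {M : Mons m} {kz : Fin m} {co' : ∀ n : ℕ, ℕ × ℝ → ℕ × ℝ → Fin m → ℝ}
  {PD' : Set (Fin m → ℝ)} {D' : (Fin m → ℝ) → ℝ} {r' o' : ℝ → Fin m → ℝ} {T' : Fin m → Prop}
  {ν' own' : (Fin m → ℝ) → ℝ}

/-- **own increments** (any chart): from a box not finer than the own exponents to a finer box of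
height `v'` -/
theorem own_inc (h : ExtQ B I0 I co' M C R kz w0 s PD' D' r' o' E T' ν' own' c₀)
    {p q : Fin m → ℝ} (hp : p ∈ Leg M R) (hq : q ∈ Leg M R) (hpq : p ≤ q) {v v' : ℝ}
    (hv0 : 0 ≤ v) (hv1 : v ≤ 1) (hv0' : 0 ≤ v') (hv1' : v' ≤ 1) (hpz : p kz = w0 + v)
    (hqz : q kz = w0 + v') (hpo : ∀ k, p k ≤ o' v k) : (1 - s) * (v' - v) ≤ ν' p - ν' q := by
  have h1 := h.own_le p hp q hq hpq
  have h2 := h.own_rot p hp v hv0 hv1 hpz hpo
  have h3 := h.own_up q hq v' hv0' hv1' hqz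
  have : (1 - s) * (v' - v) = (1 - s) * (1 - v) - (1 - s) * (1 - v') := by ring
  linarith

/-- **own increments between two scales**: the box `p` of height `v` is covered by the own box of
level `u ≥ v` -/
theorem own_inc' (h : ExtQ B I0 I co' M C R kz w0 s PD' D' r' o' E T' ν' own' c₀)
    {p q p' : Fin m → ℝ} (hp : p ∈ Leg M R) (hq : q ∈ Leg M R) (hp' : p' ∈ Leg M R)
    (hpq : p ≤ q) (hpp : p ≤ p') {u v' : ℝ} (hu0 : 0 ≤ u) (hu1 : u ≤ 1) (hv0' : 0 ≤ v')
    (hv1' : v' ≤ 1) (hpz : p' kz = w0 + u) (hqz : q kz = w0 + v') (hpo : ∀ k, p' k ≤ o' u k)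
    (hanti : own' p' ≤ own' p) : (1 - s) * (v' - u) ≤ ν' p - ν' q := by
  have h1 := h.own_le p hp q hq hpq
  have h2 := h.own_rot p' hp' u hu0 hu1 hpz hpo
  have h3 := h.own_up q hq v' hv0' hv1' hqz
  have : (1 - s) * (v' - u) = (1 - s) * (1 - u) - (1 - s) * (1 - v') := by ring
  linarith

/-- **a tied slot beyond the record costs** -/
theorem own_tied (h : ExtQ B I0 I co' M C R kz w0 s PD' D' r' o' E T' ν' own' c₀)
    {p q : Fin m → ℝ} (hp : p ∈ Leg M R) (hq : q ∈ Leg M R) (hpq : p ≤ q) {v : ℝ}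
    (hv0 : 0 ≤ v) (hv1 : v < 1) (hpz : p kz = w0 + v) (hqz : q kz = w0 + v)
    (hpo : ∀ k, p k ≤ o' v k) {k : Fin m} (hT : T' k) (hk : o' v k < q k) : ν' q < ν' p := by
  have h1 := h.own_le p hp q hq hpq
  have h2 := h.own_rot p hp v hv0 hv1.le hpz hpo
  have h3 := h.own_tw q hq v hv0 hv1 hqz ⟨k, hT, hk⟩
  linarith

/-- the own profile is antitone (it is a profile of a quasi-nested family) -/
theorem own_anti_le (h : ExtQ B I0 I co' M C R kz w0 s PD' D' r' o' E T' ν' own' c₀)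
    {p q : Fin m → ℝ} (hp : p ∈ Leg M R) (hq : q ∈ Leg M R) (hpq : p ≤ q) :
    own' p - own' q ≤ ∑ k, (q k - p k) :=
  (h.own_le p hp q hq hpq).trans (h.lip p hp q hq hpq).2

end ext

/-- natural boxes against the own exponents: height and visible slots -/
theorem nb_le_oL {θa θb w0 sa sb R : ℝ} {Vis : Fin 12 → Prop} {u v a b : ℝ}
    (hl : nb w0 sa sb u a b ∈ Leg monL R) (hz : u ≤ v)
    (hV : ∀ k, Vis k → nb w0 sa sb u a b k ≤ rL θa θb w0 sa sb v k) (k : Fin 12) :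
    nb w0 sa sb u a b k ≤ oL θa θb w0 sa sb R Vis v k := by
  unfold oL
  split_ifs with h1
  · rcases h1 with rfl | h1
    · rw [nb_z, rL_zero_slot]; linarith
    · exact hV k h1
  · exact hl.2 k

end Crest.Agent.R116.PL504
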