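import Crest.Agent.R116.PL1_504

/-!
# R116, EVL (helper504), part 1: composition law of the light-ray chart, evolution of fat lines

* `comp a c` : the coordinates of `(i, l)` from those of `(i, j)` and `(j, l)`;
  `Coc c` : `c i l = comp (c i j) (c j l)`; instances `Coc.coL`, `Coc.unit` (any units `uL`).
* level slots `z, D, E, B` = `{0, 1, 2, 7, 8}`; line slots `C, X, N, P, F`.
* `evoL a c` : evolution: line slots of `(x', y')` from the own motion `a = (x', x)` and `c = (x, y)`.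
* `comp_lip` : `comp` is Lipschitz on the unit box; `evo4` : evolution of fat lines;
  `same_height` : the slots at one height (`C, X, P, F` additive, `N` Heisenberg);
  `motion4` : own motions of two lines between the same two heights.
-/

set_option autoImplicit false
set_option linter.unusedVariables false

namespace Crest.Agent.R116.EvL504

open Crest.Agent.R116.ChL222 Crest.Agent.R116.PL504

/-- composition law of the chart -/
noncomputable def comp (a c : Fin 12 → ℝ) : Fin 12 → ℝ :=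
  ![a 0 + c 0,
    a 1 + c 1,
    a 2 + c 2 - 2 * (a 1 * c 0),
    a 3 + c 3,
    a 4 + c 4,
    a 5 + c 5 - a 0 * c 3,
    a 6 + c 6 - a 0 * c 4,
    a 7 + c 7 + a 2 * c 3 + 2 * (a 1 * c 5),
    a 8 + c 8 + a 2 * c 4 + 2 * (a 1 * c 6),
    a 9 + c 9 - a 0 * ((c 3 ^ 2 + c 4 ^ 2) / 2) + a 3 * (c 5 - a 0 * c 3) + a 4 * (c 6 - a 0 * c 4),
    a 10 + c 10 - a 7 * c 3 - a 8 * c 4 - a 2 * ((c 3 ^ 2 + c 4 ^ 2) / 2) -
      2 * (a 1 * (c 5 * c 3 + c 6 * c 4 - c 9)),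
    a 11 + c 11 - a 0 * c 10 - a 7 * (c 5 - a 0 * c 3) - a 8 * (c 6 - a 0 * c 4) -
      a 2 * (c 9 - a 0 * ((c 3 ^ 2 + c 4 ^ 2) / 2)) -
      a 1 * (c 5 ^ 2 + c 6 ^ 2 - 2 * (a 0 * (c 5 * c 3 + c 6 * c 4 - c 9)))]

/-- the cocycle law of the light-ray chart -/
structure Coc {ι : Type*} (c : ι → ι → Fin 12 → ℝ) : Prop where
  self : ∀ i k, c i i k = 0
  add : ∀ i j l, c i l = comp (c i j) (c j l)

theorem Coc.coL {ι : Type*} (f : ι → LInc) : Coc (fun i j => coL (f i) (f j)) where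
  self := by
    intro i k
    fin_cases k <;> simp [ChL222.coL, nuL]
  add := by
    intro i j l
    obtain ⟨h0, h1, h2, h3, h4, h5, h6, h7, h8, h9, h10, h11⟩ := coL_add (f i) (f j) (f l)
    funext k
    fin_cases k
    · exact h0
    · exact h1
    · exact h2
    · exact h3
    · exact h4
    · exact h5
    · exact h6
    · exact h7
    · exact h8
    · exact h9
    · exact h10
    · exact h11

/-- **the law holds in all units** -/
theorem comp_unit {lz lc lp : ℝ} (hz : lz ≠ 0) (hc : lc ≠ 0) (a c : Fin 12 → ℝ) :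
    comp (fun k => uL lz lc lp k * a k) (fun k => uL lz lc lp k * c k) =
      fun k => uL lz lc lp k * comp a c k := by
  have u0 : uL lz lc lp 0 = lz := rfl
  have u1 : uL lz lc lp 1 = lp / (lc ^ 2 * lz) := rfl
  have u2 : uL lz lc lp 2 = lp / lc ^ 2 := rfl
  have u3 : uL lz lc lp 3 = lc := rfl
  have u4 : uL lz lc lp 4 = lc := rfl
  have u5 : uL lz lc lp 5 = lz * lc := rfl
  have u6 : uL lz lc lp 6 = lz * lc := rfl
  have u7 : uL lz lc lp 7 = lp / lc := rfl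
  have u8 : uL lz lc lp 8 = lp / lc := rfl
  have u9 : uL lz lc lp 9 = lz * lc ^ 2 := rfl
  have u10 : uL lz lc lp 10 = lp := rfl
  have u11 : uL lz lc lp 11 = lz * lp := rfl
  funext k
  fin_cases k <;> simp only [comp, Fin.isValue, Fin.reduceFinMk, Fin.zero_eta, Fin.mk_one,
    Matrix.cons_val, u0, u1, u2, u3, u4, u5, u6, u7, u8, u9, u10, u11] <;> field_simp <;> ring

theorem Coc.unit {ι : Type*} {c : ι → ι → Fin 12 → ℝ} (h : Coc c) {lz lc : ℝ} (lp : ℝ)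
    (hz : lz ≠ 0) (hc : lc ≠ 0) : Coc (fun i j k => uL lz lc lp k * c i j k) where
  self := fun i k => by rw [h.self, mul_zero]
  add := fun i j l => by
    rw [comp_unit hz hc, ← h.add]

/-! ### level slots and line slots -/

/-- the level slots `z, D, E, B` -/
def SL : Finset (Fin 12) := {0, 1, 2, 7, 8}

/-- the level part -/
def Lv (a : Fin 12 → ℝ) : Fin 12 → ℝ := fun k => if k ∈ SL then a k else 0

/-- the line part -/
def Ln (a : Fin 12 → ℝ) : Fin 12 → ℝ := fun k => if k ∈ SL then 0 else a k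

/-- **the evolution**: line slots after the own motion `a` (from the new height back to the old) -/
noncomputable def evoL (a c : Fin 12 → ℝ) : Fin 12 → ℝ := comp (Lv a) (Ln c)

theorem evoL_3 (a c : Fin 12 → ℝ) : evoL a c 3 = c 3 := by
  simp [evoL, comp, Lv, Ln, SL]

theorem evoL_4 (a c : Fin 12 → ℝ) : evoL a c 4 = c 4 := by
  simp [evoL, comp, Lv, Ln, SL]

theorem evoL_5 (a c : Fin 12 → ℝ) : evoL a c 5 = c 5 - a 0 * c 3 := by
  simp [evoL, comp, Lv, Ln, SL]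

theorem evoL_6 (a c : Fin 12 → ℝ) : evoL a c 6 = c 6 - a 0 * c 4 := by
  simp [evoL, comp, Lv, Ln, SL]

theorem evoL_9 (a c : Fin 12 → ℝ) : evoL a c 9 = c 9 - a 0 * ((c 3 ^ 2 + c 4 ^ 2) / 2) := by
  simp [evoL, comp, Lv, Ln, SL]

theorem evoL_10 (a c : Fin 12 → ℝ) : evoL a c 10 = c 10 - a 7 * c 3 - a 8 * c 4 -
    a 2 * ((c 3 ^ 2 + c 4 ^ 2) / 2) - 2 * (a 1 * (c 5 * c 3 + c 6 * c 4 - c 9)) := by
  simp [evoL, comp, Lv, Ln, SL]

theorem evoL_11 (a c : Fin 12 → ℝ) : evoL a c 11 = c 11 - a 0 * c 10 -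
    a 7 * (c 5 - a 0 * c 3) - a 8 * (c 6 - a 0 * c 4) -
    a 2 * (c 9 - a 0 * ((c 3 ^ 2 + c 4 ^ 2) / 2)) -
    a 1 * (c 5 ^ 2 + c 6 ^ 2 - 2 * (a 0 * (c 5 * c 3 + c 6 * c 4 - c 9))) := by
  simp [evoL, comp, Lv, Ln, SL]

/-- a level motion on the right does not change the line slots -/
theorem comp_Lv (a c : Fin 12 → ℝ) {k : Fin 12} (hk : k ∉ SL) : comp a (Lv c) k = a k := by
  fin_cases k <;> simp [SL] at hk <;> simp [comp, Lv, SL]

/-! ### Lipschitz bounds on the unit box -/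

theorem lip2 {a b a' b' r s : ℝ} (hb : |b| ≤ 1) (ha' : |a'| ≤ 1) (h1 : |a - a'| ≤ r)
    (h2 : |b - b'| ≤ s) : |a * b - a' * b'| ≤ r + s := by
  have e : a * b - a' * b' = (a - a') * b + a' * (b - b') := by ring
  rw [e]
  refine (abs_add_le _ _).trans ?_
  rw [abs_mul, abs_mul]
  have hr : 0 ≤ r := (abs_nonneg _).trans h1
  have hs : 0 ≤ s := (abs_nonneg _).trans h2
  have t1 : |a - a'| * |b| ≤ r * 1 := mul_le_mul h1 hb (abs_nonneg _) hr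
  have t2 : |a'| * |b - b'| ≤ 1 * s := mul_le_mul ha' h2 (abs_nonneg _) zero_le_one
  linarith

theorem bd2 {a b : ℝ} (ha : |a| ≤ 1) (hb : |b| ≤ 1) : |a * b| ≤ 1 := by
  rw [abs_mul]
  exact mul_le_one₀ ha (abs_nonneg _) hb

/-- **`comp` is Lipschitz on the unit box** -/
theorem comp_lip {a a' c c' : Fin 12 → ℝ} {r : ℝ} (ha : ∀ k, |a k| ≤ 1) (ha' : ∀ k, |a' k| ≤ 1)
    (hc : ∀ k, |c k| ≤ 1) (hc' : ∀ k, |c' k| ≤ 1) (h1 : ∀ k, |a k - a' k| ≤ r)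
    (h2 : ∀ k, |c k - c' k| ≤ r) (k : Fin 12) : |comp a c k - comp a' c' k| ≤ 48 * r := by
  have hr : 0 ≤ r := (abs_nonneg _).trans (h1 0)
  -- products of two and three coordinates
  have m2 : ∀ i j, |a i * c j - a' i * c' j| ≤ 2 * r := fun i j =>
    (lip2 (hc j) (ha' i) (h1 i) (h2 j)).trans (by linarith)
  have cc : ∀ i j, |c i * c j - c' i * c' j| ≤ 2 * r := fun i j =>
    (lip2 (hc j) (hc' i) (h2 i) (h2 j)).trans (by linarith)
  have aa : ∀ i j, |a i * a j - a' i * a' j| ≤ 2 * r := fun i j =>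
    (lip2 (ha j) (ha' i) (h1 i) (h1 j)).trans (by linarith)
  have acc : ∀ i j l, |a i * (c j * c l) - a' i * (c' j * c' l)| ≤ 3 * r := fun i j l =>
    (lip2 (bd2 (hc j) (hc l)) (ha' i) (h1 i) (cc j l)).trans (by linarith)
  have aac : ∀ i j l, |(a i * a j) * c l - (a' i * a' j) * c' l| ≤ 3 * r := fun i j l =>
    (lip2 (hc l) (bd2 (ha' i) (ha' j)) (aa i j) (h2 l)).trans (by linarith)
  have aacc : ∀ i j l m, |(a i * a j) * (c l * c m) - (a' i * a' j) * (c' l * c' m)| ≤ 4 * r :=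
    fun i j l m => (lip2 (bd2 (hc l) (hc m)) (bd2 (ha' i) (ha' j)) (aa i j) (cc l m)).trans
      (by linarith)
  fin_cases k
  · show |(a 0 + c 0) - (a' 0 + c' 0)| ≤ 48 * r
    have t1 := abs_le.1 (h1 0)
    have t2 := abs_le.1 (h2 0)
    rw [abs_le]; constructor <;> linarith
  · show |(a 1 + c 1) - (a' 1 + c' 1)| ≤ 48 * r
    have t1 := abs_le.1 (h1 1)
    have t2 := abs_le.1 (h2 1)
    rw [abs_le]; constructor <;> linarith
  · show |(a 2 + c 2 - 2 * (a 1 * c 0)) - (a' 2 + c' 2 - 2 * (a' 1 * c' 0))| ≤ 48 * r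
    have t1 := abs_le.1 (h1 2)
    have t2 := abs_le.1 (h2 2)
    have t3 := abs_le.1 (m2 1 0)
    rw [abs_le]; constructor <;> linarith
  · show |(a 3 + c 3) - (a' 3 + c' 3)| ≤ 48 * r
    have t1 := abs_le.1 (h1 3)
    have t2 := abs_le.1 (h2 3)
    rw [abs_le]; constructor <;> linarith
  · show |(a 4 + c 4) - (a' 4 + c' 4)| ≤ 48 * r
    have t1 := abs_le.1 (h1 4)
    have t2 := abs_le.1 (h2 4)
    rw [abs_le]; constructor <;> linarith
  · show |(a 5 + c 5 - a 0 * c 3) - (a' 5 + c' 5 - a' 0 * c' 3)| ≤ 48 * r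
    have t1 := abs_le.1 (h1 5)
    have t2 := abs_le.1 (h2 5)
    have t3 := abs_le.1 (m2 0 3)
    rw [abs_le]; constructor <;> linarith
  · show |(a 6 + c 6 - a 0 * c 4) - (a' 6 + c' 6 - a' 0 * c' 4)| ≤ 48 * r
    have t1 := abs_le.1 (h1 6)
    have t2 := abs_le.1 (h2 6)
    have t3 := abs_le.1 (m2 0 4)
    rw [abs_le]; constructor <;> linarith
  · show |(a 7 + c 7 + a 2 * c 3 + 2 * (a 1 * c 5)) -
      (a' 7 + c' 7 + a' 2 * c' 3 + 2 * (a' 1 * c' 5))| ≤ 48 * r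
    have t1 := abs_le.1 (h1 7)
    have t2 := abs_le.1 (h2 7)
    have t3 := abs_le.1 (m2 2 3)
    have t4 := abs_le.1 (m2 1 5)
    rw [abs_le]; constructor <;> linarith
  · show |(a 8 + c 8 + a 2 * c 4 + 2 * (a 1 * c 6)) -
      (a' 8 + c' 8 + a' 2 * c' 4 + 2 * (a' 1 * c' 6))| ≤ 48 * r
    have t1 := abs_le.1 (h1 8)
    have t2 := abs_le.1 (h2 8)
    have t3 := abs_le.1 (m2 2 4)
    have t4 := abs_le.1 (m2 1 6)
    rw [abs_le]; constructor <;> linarith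
  · show |(a 9 + c 9 - a 0 * ((c 3 ^ 2 + c 4 ^ 2) / 2) + a 3 * (c 5 - a 0 * c 3) +
        a 4 * (c 6 - a 0 * c 4)) -
      (a' 9 + c' 9 - a' 0 * ((c' 3 ^ 2 + c' 4 ^ 2) / 2) + a' 3 * (c' 5 - a' 0 * c' 3) +
        a' 4 * (c' 6 - a' 0 * c' 4))| ≤ 48 * r
    have t1 := abs_le.1 (h1 9)
    have t2 := abs_le.1 (h2 9)
    have t3 := abs_le.1 (acc 0 3 3)
    have t4 := abs_le.1 (acc 0 4 4)
    have t5 := abs_le.1 (m2 3 5)
    have t6 := abs_le.1 (m2 4 6)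
    have t7 := abs_le.1 (aac 3 0 3)
    have t8 := abs_le.1 (aac 4 0 4)
    rw [abs_le]; constructor <;> nlinarith
  · show |(a 10 + c 10 - a 7 * c 3 - a 8 * c 4 - a 2 * ((c 3 ^ 2 + c 4 ^ 2) / 2) -
        2 * (a 1 * (c 5 * c 3 + c 6 * c 4 - c 9))) -
      (a' 10 + c' 10 - a' 7 * c' 3 - a' 8 * c' 4 - a' 2 * ((c' 3 ^ 2 + c' 4 ^ 2) / 2) -
        2 * (a' 1 * (c' 5 * c' 3 + c' 6 * c' 4 - c' 9)))| ≤ 48 * r
    have t1 := abs_le.1 (h1 10)
    have t2 := abs_le.1 (h2 10)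
    have t3 := abs_le.1 (m2 7 3)
    have t4 := abs_le.1 (m2 8 4)
    have t5 := abs_le.1 (acc 2 3 3)
    have t6 := abs_le.1 (acc 2 4 4)
    have t7 := abs_le.1 (acc 1 5 3)
    have t8 := abs_le.1 (acc 1 6 4)
    have t9 := abs_le.1 (m2 1 9)
    rw [abs_le]; constructor <;> nlinarith
  · show |(a 11 + c 11 - a 0 * c 10 - a 7 * (c 5 - a 0 * c 3) - a 8 * (c 6 - a 0 * c 4) -
        a 2 * (c 9 - a 0 * ((c 3 ^ 2 + c 4 ^ 2) / 2)) -
        a 1 * (c 5 ^ 2 + c 6 ^ 2 - 2 * (a 0 * (c 5 * c 3 + c 6 * c 4 - c 9)))) -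
      (a' 11 + c' 11 - a' 0 * c' 10 - a' 7 * (c' 5 - a' 0 * c' 3) - a' 8 * (c' 6 - a' 0 * c' 4) -
        a' 2 * (c' 9 - a' 0 * ((c' 3 ^ 2 + c' 4 ^ 2) / 2)) -
        a' 1 * (c' 5 ^ 2 + c' 6 ^ 2 - 2 * (a' 0 * (c' 5 * c' 3 + c' 6 * c' 4 - c' 9))))| ≤ 48 * r
    have t1 := abs_le.1 (h1 11)
    have t2 := abs_le.1 (h2 11)
    have t3 := abs_le.1 (m2 0 10)
    have t4 := abs_le.1 (m2 7 5)
    have t5 := abs_le.1 (aac 7 0 3)
    have t6 := abs_le.1 (m2 8 6)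
    have t7 := abs_le.1 (aac 8 0 4)
    have t8 := abs_le.1 (m2 2 9)
    have t9 := abs_le.1 (aacc 2 0 3 3)
    have t10 := abs_le.1 (aacc 2 0 4 4)
    have t11 := abs_le.1 (acc 1 5 5)
    have t12 := abs_le.1 (acc 1 6 6)
    have t13 := abs_le.1 (aacc 1 0 5 3)
    have t14 := abs_le.1 (aacc 1 0 6 4)
    have t15 := abs_le.1 (aac 1 0 9)
    have e : (a 11 + c 11 - a 0 * c 10 - a 7 * (c 5 - a 0 * c 3) - a 8 * (c 6 - a 0 * c 4) -
        a 2 * (c 9 - a 0 * ((c 3 ^ 2 + c 4 ^ 2) / 2)) -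
        a 1 * (c 5 ^ 2 + c 6 ^ 2 - 2 * (a 0 * (c 5 * c 3 + c 6 * c 4 - c 9)))) -
      (a' 11 + c' 11 - a' 0 * c' 10 - a' 7 * (c' 5 - a' 0 * c' 3) - a' 8 * (c' 6 - a' 0 * c' 4) -
        a' 2 * (c' 9 - a' 0 * ((c' 3 ^ 2 + c' 4 ^ 2) / 2)) -
        a' 1 * (c' 5 ^ 2 + c' 6 ^ 2 - 2 * (a' 0 * (c' 5 * c' 3 + c' 6 * c' 4 - c' 9)))) =
      (a 11 - a' 11) + (c 11 - c' 11) - (a 0 * c 10 - a' 0 * c' 10) - (a 7 * c 5 - a' 7 * c' 5) +
        ((a 7 * a 0) * c 3 - (a' 7 * a' 0) * c' 3) - (a 8 * c 6 - a' 8 * c' 6) +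
        ((a 8 * a 0) * c 4 - (a' 8 * a' 0) * c' 4) - (a 2 * c 9 - a' 2 * c' 9) +
        1 / 2 * ((a 2 * a 0) * (c 3 * c 3) - (a' 2 * a' 0) * (c' 3 * c' 3)) +
        1 / 2 * ((a 2 * a 0) * (c 4 * c 4) - (a' 2 * a' 0) * (c' 4 * c' 4)) -
        (a 1 * (c 5 * c 5) - a' 1 * (c' 5 * c' 5)) - (a 1 * (c 6 * c 6) - a' 1 * (c' 6 * c' 6)) +
        2 * ((a 1 * a 0) * (c 5 * c 3) - (a' 1 * a' 0) * (c' 5 * c' 3)) +
        2 * ((a 1 * a 0) * (c 6 * c 4) - (a' 1 * a' 0) * (c' 6 * c' 4)) -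
        2 * ((a 1 * a 0) * c 9 - (a' 1 * a' 0) * c' 9) := by ring
    rw [e, abs_le]
    obtain ⟨l1, r1⟩ := t1
    obtain ⟨l2, r2⟩ := t2
    obtain ⟨l3, r3⟩ := t3
    obtain ⟨l4, r4⟩ := t4
    obtain ⟨l5, r5⟩ := t5
    obtain ⟨l6, r6⟩ := t6
    obtain ⟨l7, r7⟩ := t7
    obtain ⟨l8, r8⟩ := t8
    obtain ⟨l9, r9⟩ := t9
    obtain ⟨l10, r10⟩ := t10
    obtain ⟨l11, r11⟩ := t11
    obtain ⟨l12, r12⟩ := t12
    obtain ⟨l13, r13⟩ := t13
    obtain ⟨l14, r14⟩ := t14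
    obtain ⟨l15, r15⟩ := t15
    constructor <;> linarith

theorem abs_Lv_le {a : Fin 12 → ℝ} (ha : ∀ k, |a k| ≤ 1) (k : Fin 12) : |Lv a k| ≤ 1 := by
  unfold Lv
  split_ifs
  · exact ha k
  · simp

theorem abs_Ln_le {a : Fin 12 → ℝ} (ha : ∀ k, |a k| ≤ 1) (k : Fin 12) : |Ln a k| ≤ 1 := by
  unfold Ln
  split_ifs
  · simp
  · exact ha k

theorem abs_sub_Lv {a : Fin 12 → ℝ} {r : ℝ} (hr : 0 ≤ r) (h : ∀ k, k ∉ SL → |a k| ≤ r)
    (k : Fin 12) : |a k - Lv a k| ≤ r := by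
  unfold Lv
  split_ifs with hk
  · simpa using hr
  · simpa using h k hk

theorem abs_sub_Ln {a : Fin 12 → ℝ} {r : ℝ} (hr : 0 ≤ r) (h : ∀ k, k ∈ SL → |a k| ≤ r)
    (k : Fin 12) : |a k - Ln a k| ≤ r := by
  unfold Ln
  split_ifs with hk
  · simpa using h k hk
  · simpa using hr

section four

variable {ι : Type*} {c : ι → ι → Fin 12 → ℝ}

/-- **evolution of fat lines.**  `x, x'` on one fat line, `y, y'` on another one, `x, y` at one height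
label.  Error `96 r`, `r` = resolution. -/
theorem Coc.evo4 (h : Coc c) {x x' y y' : ι} {r : ℝ} (hr : 0 ≤ r)
    (h1 : ∀ k, |c x' x k| ≤ 1) (h2 : ∀ k, |c x y k| ≤ 1) (h3 : ∀ k, |c x' y k| ≤ 1)
    (h4 : ∀ k, |c y y' k| ≤ 1)
    (f1 : ∀ k, k ∉ SL → |c x' x k| ≤ r) (f2 : ∀ k, k ∉ SL → |c y y' k| ≤ r)
    (g1 : ∀ k, k ∈ SL → |c x y k| ≤ r) {k : Fin 12} (hk : k ∉ SL) :
    |c x' y' k - evoL (c x' x) (c x y) k| ≤ 96 * r := by
  have s1 := comp_lip (k := k) h1 (abs_Lv_le h1) h2 (abs_Ln_le h2) (abs_sub_Lv hr f1)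
    (abs_sub_Ln hr g1)
  have s2 := comp_lip (k := k) (a := c x' y) (a' := c x' y) h3 h3 h4 (abs_Lv_le h4)
    (fun j => by simpa using hr) (abs_sub_Lv hr f2)
  rw [← h.add x' x y] at s1
  rw [← h.add x' y y', comp_Lv _ _ hk] at s2
  have e : c x' y' k - evoL (c x' x) (c x y) k =
      (c x' y' k - c x' y k) + (c x' y k - comp (Lv (c x' x)) (Ln (c x y)) k) := by
    unfold evoL; ring
  rw [e]
  refine (abs_add_le _ _).trans ?_
  linarith

/-- **one height**: `C, X, P, F` are additive, `N` has the Heisenberg term. -/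
theorem Coc.same_height (h : Coc c) {x y w : ι} {r : ℝ} (hr : 0 ≤ r)
    (h1 : ∀ k, |c x y k| ≤ 1) (h2 : ∀ k, |c y w k| ≤ 1)
    (g1 : ∀ k, k ∈ SL → |c x y k| ≤ r) (g2 : ∀ k, k ∈ SL → |c y w k| ≤ r) :
    (c x w 3 = c x y 3 + c y w 3) ∧ (c x w 4 = c x y 4 + c y w 4) ∧
    |c x w 5 - (c x y 5 + c y w 5)| ≤ 48 * r ∧ |c x w 6 - (c x y 6 + c y w 6)| ≤ 48 * r ∧
    |c x w 9 - (c x y 9 + c y w 9 + c x y 3 * c y w 5 + c x y 4 * c y w 6)| ≤ 48 * r ∧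
    |c x w 10 - (c x y 10 + c y w 10)| ≤ 48 * r ∧ |c x w 11 - (c x y 11 + c y w 11)| ≤ 48 * r := by
  have key : ∀ k, |c x w k - comp (Ln (c x y)) (Ln (c y w)) k| ≤ 48 * r := fun k => by
    have := comp_lip (k := k) h1 (abs_Ln_le h1) h2 (abs_Ln_le h2) (abs_sub_Ln hr g1)
      (abs_sub_Ln hr g2)
    rwa [← h.add x y w] at this
  have a := h.add x y w
  refine ⟨?_, ?_, ?_, ?_, ?_, ?_, ?_⟩
  · rw [a]; rfl
  · rw [a]; rfl
  · have := key 5
    simpa [comp, Ln, SL] using this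
  · have := key 6
    simpa [comp, Ln, SL] using this
  · have := key 9
    simpa [comp, Ln, SL] using this
  · have := key 10
    simpa [comp, Ln, SL] using this
  · have := key 11
    simpa [comp, Ln, SL] using this

/-- **own motions of two lines between the same two heights** (static transport of the flags). -/
theorem Coc.motion4 (h : Coc c) {x x' y y' : ι} {r : ℝ} (hr : 0 ≤ r)
    (h1 : ∀ k, |c x' x k| ≤ 1) (h2 : ∀ k, |c x y k| ≤ 1) (h3 : ∀ k, |c x' y' k| ≤ 1)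
    (h4 : ∀ k, |c y' y k| ≤ 1)
    (f1 : ∀ k, k ∉ SL → |c x' x k| ≤ r) (f2 : ∀ k, k ∉ SL → |c y' y k| ≤ r)
    (g1 : ∀ k, k ∈ SL → |c x y k| ≤ r) (g2 : ∀ k, k ∈ SL → |c x' y' k| ≤ r) :
    |c y' y 0 - c x' x 0| ≤ 96 * r ∧ |c y' y 1 - c x' x 1| ≤ 96 * r ∧
    |c y' y 2 - c x' x 2| ≤ 96 * r ∧
    |c y' y 7 - (c x' x 7 + c x' x 2 * c x y 3 + 2 * (c x' x 1 * c x y 5))| ≤ 96 * r ∧
    |c y' y 8 - (c x' x 8 + c x' x 2 * c x y 4 + 2 * (c x' x 1 * c x y 6))| ≤ 96 * r := by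
  have s1 : ∀ k, |c x' y k - comp (Lv (c x' x)) (Ln (c x y)) k| ≤ 48 * r := fun k => by
    have := comp_lip (k := k) h1 (abs_Lv_le h1) h2 (abs_Ln_le h2) (abs_sub_Lv hr f1)
      (abs_sub_Ln hr g1)
    rwa [← h.add x' x y] at this
  have s2 : ∀ k, |c x' y k - comp (Ln (c x' y')) (Lv (c y' y)) k| ≤ 48 * r := fun k => by
    have := comp_lip (k := k) h3 (abs_Ln_le h3) h4 (abs_Lv_le h4) (abs_sub_Ln hr g2)
      (abs_sub_Lv hr f2)
    rwa [← h.add x' y' y] at this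
  have s3 : ∀ k, |comp (Ln (c x' y')) (Lv (c y' y)) k - comp (Lv (c x' x)) (Ln (c x y)) k| ≤
      96 * r := fun k => by
    have e : comp (Ln (c x' y')) (Lv (c y' y)) k - comp (Lv (c x' x)) (Ln (c x y)) k =
        -(c x' y k - comp (Ln (c x' y')) (Lv (c y' y)) k) +
          (c x' y k - comp (Lv (c x' x)) (Ln (c x y)) k) := by ring
    rw [e]
    refine (abs_add_le _ _).trans ?_
    rw [abs_neg]
    linarith [s1 k, s2 k]
  refine ⟨?_, ?_, ?_, ?_, ?_⟩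
  · simpa [comp, Ln, Lv, SL] using s3 0
  · simpa [comp, Ln, Lv, SL] using s3 1
  · simpa [comp, Ln, Lv, SL] using s3 2
  · simpa [comp, Ln, Lv, SL] using s3 7
  · simpa [comp, Ln, Lv, SL] using s3 8

/-- the own motion in the opposite direction -/
theorem Coc.own_inv (h : Coc c) {x x' : ι} {r : ℝ} (hr : 0 ≤ r)
    (h1 : ∀ k, |c x' x k| ≤ 1) (h2 : ∀ k, |c x x' k| ≤ 1)
    (f1 : ∀ k, k ∉ SL → |c x' x k| ≤ r) (f2 : ∀ k, k ∉ SL → |c x x' k| ≤ r) :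
    c x' x 0 = - c x x' 0 ∧ c x' x 1 = - c x x' 1 ∧
    c x' x 2 = - c x x' 2 + 2 * (c x' x 1 * c x x' 0) ∧
    |c x' x 7 + c x x' 7| ≤ 48 * r ∧ |c x' x 8 + c x x' 8| ≤ 48 * r := by
  have a := h.add x' x x'
  have s1 : ∀ k, |0 - comp (Lv (c x' x)) (Lv (c x x')) k| ≤ 48 * r := fun k => by
    have := comp_lip (k := k) h1 (abs_Lv_le h1) h2 (abs_Lv_le h2) (abs_sub_Lv hr f1)
      (abs_sub_Lv hr f2)
    rwa [← h.add x' x x', h.self] at this
  have a0 : c x' x' 0 = c x' x 0 + c x x' 0 := by rw [a]; rfl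
  have a1 : c x' x' 1 = c x' x 1 + c x x' 1 := by rw [a]; rfl
  have a2 : c x' x' 2 = c x' x 2 + c x x' 2 - 2 * (c x' x 1 * c x x' 0) := by rw [a]; rfl
  rw [h.self] at a0 a1 a2
  refine ⟨by linarith, by linarith, by linarith, ?_, ?_⟩
  · have := s1 7
    rw [zero_sub, abs_neg] at this
    simpa [comp, Lv, SL] using this
  · have := s1 8
    rw [zero_sub, abs_neg] at this
    simpa [comp, Lv, SL] using this

end four

end Crest.Agent.R116.EvL504
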