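import Crest.Agent.R116.Gd5_222

/-!
# R116, GEO-D of the light-ray chart (helper222), part 6: strong D-max (flag slots absent)

* `Vf k` : the slot `k` is not a flag slot (`D, E, B₁, B₂` = 1, 2, 7, 8).
* `NearS` : nearness in the slots `z, C, X, N, P, F` only.
* **`gDS_T`** : the D-max count for `NearS` (504's `coN`, 468's `N0`), for every `p ∈ PDS`
  (no legality, the flag slots of `p` do not enter).
-/

set_option autoImplicit false

open Finset Filter Topology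

namespace Crest.Agent.R116.Gd222

open Crest.Agent.R138.Defs (E2)
open Crest.Agent.R138.Ex926 (Base U QProf)
open Crest.Agent.R138.Mk163 (zc zl rho alive)
open Crest.Agent.R138
open Crest.Agent.R136.MkA627
open Crest.Agent.R136.Net191
open Crest.Agent.R136.PqG464
open Crest.Agent.R116.LZg725
open Crest.Agent.R116.ChL222
open Crest.Agent.R116.PL504 (uL eL)

/-- the slots which are not flag slots -/
def Vf (k : Fin 12) : Prop := k ≠ 1 ∧ k ≠ 2 ∧ k ≠ 7 ∧ k ≠ 8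

instance : DecidablePred Vf := fun k => by unfold Vf; infer_instance

/-- near in the slots `z, C, X, N, P, F` -/
def NearS {ι : Type*} (co : ι → ι → Fin 12 → ℝ) (d : ℝ) (p : Fin 12 → ℝ) (K : ℝ) (i j : ι) : Prop :=
  ∀ k, Vf k → |co i j k| ≤ K * d ^ p k

theorem NearS.of_near {ι : Type*} {co : ι → ι → Fin 12 → ℝ} {d : ℝ} {p : Fin 12 → ℝ} {K : ℝ}
    {i j : ι} (h : Near co d p K i j) : NearS co d p K i j := fun k _ => h k

/-- monotone: only the visible slots of `p` matter -/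
theorem NearS.anti {ι : Type*} {co : ι → ι → Fin 12 → ℝ} {d : ℝ} (hd : 0 < d) (hd1 : d ≤ 1)
    {p p' : Fin 12 → ℝ} {K : ℝ} (hK : 0 ≤ K) {i j : ι} (h : NearS co d p K i j)
    (hp : ∀ k, Vf k → p' k ≤ p k) : NearS co d p' K i j := fun k hk =>
  (h k hk).trans (mul_le_mul_of_nonneg_left
    (Real.rpow_le_rpow_of_exponent_ge hd hd1 (hp k hk)) hK)

section box

variable {B : Base} {I : ℕ → Finset (ℕ × ℝ)} {G : Geo TSet (Fin 2)} {lev : ℕ → ℚ → ℕ}
    {A : ℕ → ℝ} {g s : ℝ} {τ : Fin 2 → ℝ → ℝ} {f : ℕ → ℚ → ℕ → ℤ → ℕ} {b : ℕ → ℚ → ℕ → TSet}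
    {vm : ℕ → ℚ → ℝ} {w : Fin 2 → ℕ → ℚ → ℝ}
    {inc : ℕ → ℕ × ℝ → LInc} {σ : Fin 2 → ℕ → ℝ} {q : Fin 2 → ℝ} {M0 c0 Rg θ : ℝ}

/-- the coordinates with the flag slots removed -/
noncomputable def coZ (B : Base) (lev : ℕ → ℚ → ℕ) (inc : ℕ → ℕ × ℝ → LInc)
    (σ : Fin 2 → ℕ → ℝ) (w0 sa sb : ℝ) (n : ℕ) (x y : ℕ × ℝ) (k : Fin 12) : ℝ :=
  if Vf k then coN B lev inc σ w0 sa sb n x y k else 0

theorem nearS_of_Z {lev : ℕ → ℚ → ℕ} {w0 sa sb K : ℝ} {n : ℕ} {p : Fin 12 → ℝ} {x y : ℕ × ℝ}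
    (h : Near (coZ B lev inc σ w0 sa sb n) (B.d n) p K x y) :
    NearS (coN B lev inc σ w0 sa sb n) (B.d n) p K x y := by
  intro k hk
  have := h k
  unfold coZ at this
  rwa [if_pos hk] at this

theorem near_Z {lev : ℕ → ℚ → ℕ} {w0 sa sb K : ℝ} (hK : 0 ≤ K) {n : ℕ} {p : Fin 12 → ℝ}
    {x y : ℕ × ℝ} (h : NearS (coN B lev inc σ w0 sa sb n) (B.d n) p K x y) :
    Near (coZ B lev inc σ w0 sa sb n) (B.d n) p K x y := by
  intro k
  unfold coZ
  split_ifs with hk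
  · exact h k hk
  · rw [abs_zero]
    exact mul_nonneg hK (Real.rpow_nonneg (B.pos n).le _)

/-- **the slots of a pair near in the visible slots** -/
theorem near_slotsS (B : Base) {lev : ℕ → ℚ → ℕ} {inc : ℕ → ℕ × ℝ → LInc} {σ : Fin 2 → ℕ → ℝ}
    (hσ : ∀ j n, 0 < σ j n) {w0 sa sb v t y K : ℝ} {p : Fin 12 → ℝ} (hK : 0 ≤ K)
    (p0 : p 0 = w0 + v) (p3 : sa + t ≤ p 3) (p4 : sa + t ≤ p 4) (p5 : w0 + v + (sa + t) ≤ p 5)
    (p6 : w0 + v + (sa + t) ≤ p 6) (p9 : w0 + v + 2 * (sa + t) ≤ p 9) (p10 : sb + y ≤ p 10)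
    (p11 : w0 + v + (sb + y) ≤ p 11) {n : ℕ} {x z : ℕ × ℝ}
    (hn : NearS (coN B lev inc σ w0 sa sb n) (B.d n) p K x z) {R C C' : ℝ}
    (hR : rho (lev n 0) * B.d n ^ v ≤ R) (hC : σ 0 n * B.d n ^ t ≤ C)
    (hC' : σ 1 n * B.d n ^ y ≤ C') :
    |coL (inc n x) (inc n z) 0| ≤ K * (rho (lev n 0) * B.d n ^ v) ∧
    |coL (inc n x) (inc n z) 3| ≤ K * C ∧ |coL (inc n x) (inc n z) 4| ≤ K * C ∧
    |coL (inc n x) (inc n z) 5| ≤ K * (C * R) ∧ |coL (inc n x) (inc n z) 6| ≤ K * (C * R) ∧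
    |coL (inc n x) (inc n z) 9| ≤ K * (C ^ 2 * R) ∧ |coL (inc n x) (inc n z) 10| ≤ K * C' ∧
    |coL (inc n x) (inc n z) 11| ≤ K * (C' * R) := by
  have r0 := rho_pos (lev n 0)
  have s0 := hσ 0 n
  have s1 := hσ 1 n
  have dp := fun a => Dp76.dpow_pos B n a
  have hd1 : ∀ {a b : ℝ}, a ≤ b → B.d n ^ b ≤ B.d n ^ a := fun h => Dp76.dpow_le B n h
  have e2 : (2 : ℝ) ^ lev n 0 = (rho (lev n 0))⁻¹ := pow2_eq _
  set lz : ℝ := 2 ^ lev n 0 * B.d n ^ w0 with hlz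
  set lc : ℝ := B.d n ^ sa / σ 0 n with hlc
  set lp : ℝ := B.d n ^ sb / σ 1 n with hlp
  have hlz0 : 0 < lz := mul_pos (by positivity) (dp _)
  have hlc0 : 0 < lc := div_pos (dp _) s0
  have hlp0 : 0 < lp := div_pos (dp _) s1
  have hR0 : 0 ≤ R := le_trans (mul_nonneg r0.le (dp _).le) hR
  have hc0 : 0 < σ 0 n * B.d n ^ t := mul_pos s0 (dp _)
  have hc1 : 0 < σ 1 n * B.d n ^ y := mul_pos s1 (dp _)
  have hr : 0 < rho (lev n 0) * B.d n ^ v := mul_pos r0 (dp _)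
  -- monotone in the slot
  have key : ∀ (k : Fin 12) {u X a Y Z : ℝ}, Vf k → coN B lev inc σ w0 sa sb n x z k = u * X →
      0 < u → a ≤ p k → B.d n ^ a = u * Y → Y ≤ Z → |X| ≤ K * Z := by
    intro k u X a Y Z h0 h1 h2 h3 h4 h5
    have h6 := hn k h0
    rw [h1] at h6
    have h7 : |u * X| ≤ K * B.d n ^ a := h6.trans (mul_le_mul_of_nonneg_left (hd1 h3) hK)
    exact (slot_le h2 h7 h4).trans (mul_le_mul_of_nonneg_left h5 hK)
  have E3 : B.d n ^ (sa + t) = lc * (σ 0 n * B.d n ^ t) := by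
    rw [hlc, Dp76.dpow_add]; field_simp
  have E0 : B.d n ^ (w0 + v) = lz * (rho (lev n 0) * B.d n ^ v) := by
    rw [hlz, e2, Dp76.dpow_add]; field_simp
  have E10 : B.d n ^ (sb + y) = lp * (σ 1 n * B.d n ^ y) := by
    rw [hlp, Dp76.dpow_add]; field_simp
  have E5 : B.d n ^ (w0 + v + (sa + t)) =
      (lz * lc) * ((σ 0 n * B.d n ^ t) * (rho (lev n 0) * B.d n ^ v)) := by
    rw [Dp76.dpow_add B n (w0 + v), E0, E3]; ring
  have E11 : B.d n ^ (w0 + v + (sb + y)) =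
      (lz * lp) * ((σ 1 n * B.d n ^ y) * (rho (lev n 0) * B.d n ^ v)) := by
    rw [Dp76.dpow_add B n (w0 + v), E0, E10]; ring
  have E9 : B.d n ^ (w0 + v + 2 * (sa + t)) =
      (lz * lc ^ 2) * ((σ 0 n * B.d n ^ t) ^ 2 * (rho (lev n 0) * B.d n ^ v)) := by
    rw [show w0 + v + 2 * (sa + t) = (w0 + v) + (sa + t) + (sa + t) by ring, Dp76.dpow_add,
      Dp76.dpow_add B n (w0 + v), E0, E3]
    ring
  refine ⟨key 0 (by decide) rfl hlz0 p0.ge E0 le_rfl, key 3 (by decide) rfl hlc0 p3 E3 hC, key 4 (by decide) rfl hlc0 p4 E3 hC,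
    key 5 (by decide) rfl (mul_pos hlz0 hlc0) p5 E5 (mul_le_mul hC hR hr.le (hc0.le.trans hC)),
    key 6 (by decide) rfl (mul_pos hlz0 hlc0) p6 E5 (mul_le_mul hC hR hr.le (hc0.le.trans hC)),
    key 9 (by decide) rfl (mul_pos hlz0 (pow_pos hlc0 2)) p9 E9
      (mul_le_mul (pow_le_pow_left₀ hc0.le hC 2) hR hr.le (by positivity)),
    key 10 (by decide) rfl hlp0 p10 E10 hC',
    key 11 (by decide) rfl (mul_pos hlz0 hlp0) p11 E11 (mul_le_mul hC' hR hr.le (hc1.le.trans hC'))⟩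

/-- **GEO-D for the light chart, flag slots absent.** -/
theorem boxIn_S (hM : MkA B I G lev A (fun v => g * v) (fun v => s * v) τ f b vm w)
    (h : LData B I G lev inc σ q M0 c0 Rg θ) {v t y : ℝ} (hv0 : 0 ≤ v) (hv1 : v ≤ 1)
    (ht : 0 < t) (hvt : θ < v + t) (hRt : t < Rg) (hRy : |y| < Rg)
    (hty : ∀ ε : ℝ, 0 < ε → ∀ᶠ n in (U : Filter ℕ),
      σ 1 n * B.d n ^ y ≤ σ 0 n * B.d n ^ (t - ε))
    {w0 sa sb : ℝ} {p : Fin 12 → ℝ}
    (p0 : p 0 = w0 + v) (p3 : sa + t ≤ p 3) (p4 : sa + t ≤ p 4) (p5 : w0 + v + (sa + t) ≤ p 5)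
    (p6 : w0 + v + (sa + t) ≤ p 6) (p9 : w0 + v + 2 * (sa + t) ≤ p 9) (p10 : sb + y ≤ p 10)
    (p11 : w0 + v + (sb + y) ≤ p 11) :
    BoxIn B I G lev (coZ B lev inc σ w0 sa sb) 0 w0 (VL σ q lev) p (FL q v t y) := by
  intro K hK ε hε
  have hKp : 0 < K := by linarith
  have hq0 := h.qp 0
  have hq1 := h.qp 1
  obtain ⟨η, hη, hη1, hη2, hη3, hη4, hη5⟩ : ∃ η : ℝ, 0 < η ∧ (9 + q 0) * η ≤ ε / 2 ∧
      η ≤ t / 8 ∧ η ≤ (v + t - θ) / 8 ∧ η ≤ (Rg - t) / 8 ∧ η ≤ (Rg - |y|) / 8 := by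
    have h1 : 0 < ε / 2 / (9 + q 0) := by positivity
    have h2 : 0 < (v + t - θ) / 8 := by linarith
    have h3 : 0 < (Rg - t) / 8 := by linarith
    have h4 : 0 < (Rg - |y|) / 8 := by linarith
    refine ⟨min (min (min (ε / 2 / (9 + q 0)) (t / 8)) ((v + t - θ) / 8))
      (min ((Rg - t) / 8) ((Rg - |y|) / 8)), ?_, ?_, ?_, ?_, ?_, ?_⟩
    · exact lt_min (lt_min (lt_min h1 (by linarith)) h2) (lt_min h3 h4)
    · have h5 : min (min (min (ε / 2 / (9 + q 0)) (t / 8)) ((v + t - θ) / 8))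
          (min ((Rg - t) / 8) ((Rg - |y|) / 8)) ≤ ε / 2 / (9 + q 0) :=
        (min_le_left _ _).trans ((min_le_left _ _).trans (min_le_left _ _))
      rw [le_div_iff₀ (by linarith)] at h5
      linarith
    · exact (min_le_left _ _).trans ((min_le_left _ _).trans (min_le_right _ _))
    · exact (min_le_left _ _).trans (min_le_right _ _)
    · exact (min_le_right _ _).trans (min_le_left _ _)
    · exact (min_le_right _ _).trans (min_le_right _ _)
  have hηε : η ≤ ε := by nlinarith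
  obtain ⟨u, hu0, hu1, huη, hor, hlo, hup, hcell⟩ := level_ex hM hv0 hv1 hη
  have ekz : p 0 - w0 = v := by rw [p0]; ring
  refine ⟨u, hu0, hu1, by rw [ekz]; linarith, by rw [ekz]; exact hor, ?_⟩
  -- constants
  have h16 : 0 < 16 * K := by linarith
  -- the eventual facts
  have E1 := hty η hη
  have E2 := h.hb
  have E3 := h.he η hη
  have E4 := h.hd η hη
  have E5 := h.hσ η hη
  have E6 := h.hW η hη
  have E7 := h.adm u hu0 hu1
  have E8 := hcell K hK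
  -- small quantities
  have F1 : ∀ᶠ n in (U : Filter ℕ), (16 * K) * B.d n ^ (t - 2 * η) ≤ min (M0 / 4) c0 * B.d n ^ (0 : ℝ) :=
    ev_pow B h16 (lt_min (by linarith [h.Mp]) h.cp) (by linarith)
  have F2 : ∀ᶠ n in (U : Filter ℕ), (16 * K) * B.d n ^ (v + t - θ - 4 * η) ≤
      min (M0 / 24) 1 * B.d n ^ (0 : ℝ) :=
    ev_pow B h16 (lt_min (by linarith [h.Mp]) one_pos) (by linarith)
  have F3 : ∀ᶠ n in (U : Filter ℕ), (16 * K) * B.d n ^ (t - η) ≤ 1 * B.d n ^ (-Rg) :=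
    ev_pow B h16 one_pos (by linarith)
  have F4 : ∀ᶠ n in (U : Filter ℕ), (16 * K) * B.d n ^ y ≤ 1 * B.d n ^ (-Rg) :=
    ev_pow B h16 one_pos (by linarith [neg_abs_le y])
  have F5 : ∀ᶠ n in (U : Filter ℕ), (16 * K) ^ (4 + q 0 + q 1) * B.d n ^ (ε / 2) ≤ 1 :=
    ev_const B (Real.rpow_pos_of_pos h16 _) (by linarith)
  filter_upwards [E1, E2, E3, E4, E5, E6, E7, E8, F1, F2, F3, F4, F5, hlo, hup]
    with n e1 e2 e3 e4 e5 e6 e7 e8 f1 f2 f3 f4 f5 glo gup x hx J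
  rw [Real.rpow_zero, mul_one] at f1 f2
  rw [one_mul] at f3 f4
  have dp := fun a => Dp76.dpow_pos B n a
  have s0 := h.σp 0 n
  have s1 := h.σp 1 n
  have r0 := rho_pos (lev n 0)
  set ρ := rho (lev n u) with hρ
  have ru : 0 < ρ := rho_pos _
  set c : ℝ := σ 0 n * B.d n ^ (t - η) with hc
  set c' : ℝ := σ 1 n * B.d n ^ y with hc'
  have hc0 : 0 < c := mul_pos s0 (dp _)
  have hc0' : 0 < c' := mul_pos s1 (dp _)
  have hcc : c' ≤ c := e1
  have hct : σ 0 n * B.d n ^ t ≤ c :=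
    mul_le_mul_of_nonneg_left (Dp76.dpow_le B n (by linarith)) s0.le
  -- widths
  set x0 : ℝ := 8 * K * (c * ρ) with hx0
  set x1 : ℝ := 8 * K * (c' * ρ) with hx1
  have hx0p : 0 < x0 := by positivity
  have hx1p : 0 < x1 := by positivity
  have hx10 : x1 ≤ x0 := by
    rw [hx0, hx1]
    exact mul_le_mul_of_nonneg_left (mul_le_mul_of_nonneg_right hcc ru.le) (by linarith)
  -- c ρ is small
  have hcρ : 16 * K * (c * ρ) ≤ min (M0 / 24) 1 := by
    refine le_trans ?_ f2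
    refine mul_le_mul_of_nonneg_left ?_ h16.le
    calc c * ρ ≤ c * (rho (lev n 0) * B.d n ^ (v - 2 * η)) := mul_le_mul_of_nonneg_left gup hc0.le
      _ = (σ 0 n * rho (lev n 0)) * (B.d n ^ (t - η) * B.d n ^ (v - 2 * η)) := by rw [hc]; ring
      _ ≤ B.d n ^ (-θ - η) * (B.d n ^ (t - η) * B.d n ^ (v - 2 * η)) :=
          mul_le_mul_of_nonneg_right e6 (mul_pos (dp _) (dp _)).le
      _ = B.d n ^ (v + t - θ - 4 * η) := by
          rw [← Dp76.dpow_add, ← Dp76.dpow_add]; congr 1; ring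
  have hx01 : x0 ≤ 1 := by
    have := hcρ.trans (min_le_right _ _)
    have h2 : 0 < c * ρ := by positivity
    rw [hx0]; nlinarith
  have hx11 : x1 ≤ 1 := hx10.trans hx01
  set a : Fin 2 → ℕ := ![dyx x0, dyx x1] with ha
  have ha0 : a 0 = dyx x0 := rfl
  have ha1 : a 1 = dyx x1 := rfl
  set sg : ℝ := (1 / 2 : ℝ) ^ a 0 / ρ with hsg
  set t1 : ℝ := (1 / 2 : ℝ) ^ a 1 / ρ with ht1
  have hsglo : 8 * K * c ≤ sg := by
    rw [hsg, le_div_iff₀ ru, ha0]
    have := dyx_le hx0p hx01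
    rw [hx0] at this ⊢
    linarith
  have ht1lo : 8 * K * c' ≤ t1 := by
    rw [ht1, le_div_iff₀ ru, ha1]
    have := dyx_le hx1p hx11
    rw [hx1] at this ⊢
    linarith
  have hsgup : sg ≤ 16 * K * c := by
    rw [hsg, div_le_iff₀ ru, ha0]
    have := dyx_ge hx0p
    rw [hx0] at this ⊢
    linarith
  have ht1up : t1 ≤ 16 * K * c' := by
    rw [ht1, div_le_iff₀ ru, ha1]
    have := dyx_ge hx1p
    rw [hx1] at this ⊢
    linarith
  have ht1p : 0 < t1 := by positivity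
  have hts : t1 ≤ sg := by
    rw [hsg, ht1]
    refine div_le_div_of_nonneg_right ?_ ru.le
    rw [ha0, ha1]
    exact pow_le_pow_of_le_one (by norm_num) (by norm_num) (dyx_anti hx1p hx10)
  have hsgs : 16 * K * c ≤ 16 * K * (B.d n ^ (t - 2 * η)) := by
    refine mul_le_mul_of_nonneg_left ?_ h16.le
    calc c ≤ B.d n ^ (-η) * B.d n ^ (t - η) := mul_le_mul_of_nonneg_right e5 (dp _).le
      _ = B.d n ^ (t - 2 * η) := by rw [← Dp76.dpow_add]; congr 1; ring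
  have hsgc : sg ≤ c0 := hsgup.trans (hsgs.trans (f1.trans (min_le_right _ _)))
  have etie0 : sg * ρ = (1 / 2 : ℝ) ^ a 0 := by rw [hsg]; field_simp
  have etie1 : t1 * ρ = (1 / 2 : ℝ) ^ a 1 := by rw [ht1]; field_simp
  -- range
  have rg1 : B.d n ^ Rg * σ 0 n ≤ sg := by
    refine le_trans ?_ hsglo
    have : B.d n ^ Rg ≤ B.d n ^ (t - η) := Dp76.dpow_le B n (by linarith)
    calc B.d n ^ Rg * σ 0 n ≤ B.d n ^ (t - η) * σ 0 n := mul_le_mul_of_nonneg_right this s0.le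
      _ = 1 * c := by rw [hc]; ring
      _ ≤ 8 * K * c := mul_le_mul_of_nonneg_right (by linarith) hc0.le
  have rg2 : sg ≤ B.d n ^ (-Rg) * σ 0 n := by
    refine hsgup.trans ?_
    calc 16 * K * c = (16 * K * B.d n ^ (t - η)) * σ 0 n := by rw [hc]; ring
      _ ≤ B.d n ^ (-Rg) * σ 0 n := mul_le_mul_of_nonneg_right f3 s0.le
  have rg3 : B.d n ^ Rg * σ 1 n ≤ t1 := by
    refine le_trans ?_ ht1lo
    have : B.d n ^ Rg ≤ B.d n ^ y := Dp76.dpow_le B n (by linarith [le_abs_self y])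
    calc B.d n ^ Rg * σ 1 n ≤ B.d n ^ y * σ 1 n := mul_le_mul_of_nonneg_right this s1.le
      _ = 1 * c' := by rw [hc']; ring
      _ ≤ 8 * K * c' := mul_le_mul_of_nonneg_right (by linarith) hc0'.le
  have rg4 : t1 ≤ B.d n ^ (-Rg) * σ 1 n := by
    refine ht1up.trans ?_
    calc 16 * K * c' = (16 * K * B.d n ^ y) * σ 1 n := by rw [hc']; ring
      _ ≤ B.d n ^ (-Rg) * σ 1 n := mul_le_mul_of_nonneg_right f4 s1.le
  -- value
  have hval : ∀ m : Mem, G.val n (lev n u) J (a, m) ≤ VL σ q lev n * B.d n ^ (FL q v t y - ε) := by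
    intro m
    rw [h.val]
    have hA0 : (1 / 2 : ℝ) ^ a 0 ≤ (16 * K) * (c * ρ) := by
      rw [ha0]; have := dyx_ge hx0p; rw [hx0] at this ⊢; linarith
    have hA1 : (1 / 2 : ℝ) ^ a 1 ≤ (16 * K) * (c' * ρ) := by
      rw [ha1]; have := dyx_ge hx1p; rw [hx1] at this ⊢; linarith
    refine (valL_le h.qp h16 hc0 hc0' hA0 hA1).trans ?_
    have g1 : rho (lev n u) ^ 3 ≤ rho (lev n 0) ^ 3 * B.d n ^ (3 * v - 6 * η) := by
      have h1 := pow_le_pow_left₀ ru.le gup 3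
      rw [mul_pow] at h1
      refine h1.trans (le_of_eq ?_)
      congr 1
      rw [← Real.rpow_natCast (B.d n ^ (v - 2 * η)), ← Real.rpow_mul (B.pos n).le]
      congr 1; push_cast; ring
    have g2 : c ^ (3 + q 0) = σ 0 n ^ (3 + q 0) * B.d n ^ ((t - η) * (3 + q 0)) := by
      rw [hc, Real.mul_rpow s0.le (dp _).le, ← Real.rpow_mul (B.pos n).le]
    have g3 : c' ^ (1 + q 1) = σ 1 n ^ (1 + q 1) * B.d n ^ (y * (1 + q 1)) := by
      rw [hc', Real.mul_rpow s1.le (dp _).le, ← Real.rpow_mul (B.pos n).le]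
    have hS0 : 0 < σ 0 n ^ (3 + q 0) := Real.rpow_pos_of_pos s0 _
    have hS1 : 0 < σ 1 n ^ (1 + q 1) := Real.rpow_pos_of_pos s1 _
    have g4 : c ^ (3 + q 0) * c' ^ (1 + q 1) * rho (lev n u) ^ 3 ≤
        VL σ q lev n * B.d n ^ (FL q v t y - ε / 2) := by
      calc c ^ (3 + q 0) * c' ^ (1 + q 1) * rho (lev n u) ^ 3
          ≤ c ^ (3 + q 0) * c' ^ (1 + q 1) * (rho (lev n 0) ^ 3 * B.d n ^ (3 * v - 6 * η)) := by
            refine mul_le_mul_of_nonneg_left g1 ?_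
            exact mul_nonneg (Real.rpow_nonneg hc0.le _) (Real.rpow_nonneg hc0'.le _)
        _ = VL σ q lev n * B.d n ^ ((t - η) * (3 + q 0) + y * (1 + q 1) + (3 * v - 6 * η)) := by
            rw [g2, g3, Dp76.dpow_add, Dp76.dpow_add]
            unfold VL
            ring
        _ ≤ VL σ q lev n * B.d n ^ (FL q v t y - ε / 2) := by
            refine mul_le_mul_of_nonneg_left (Dp76.dpow_le B n ?_) ?_
            · unfold FL
              nlinarith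
            · unfold VL
              positivity
    have hVL : 0 < VL σ q lev n := by unfold VL; positivity
    calc (16 * K) ^ (4 + q 0 + q 1) * (c ^ (3 + q 0) * c' ^ (1 + q 1) * rho (lev n u) ^ 3)
        ≤ (16 * K) ^ (4 + q 0 + q 1) * (VL σ q lev n * B.d n ^ (FL q v t y - ε / 2)) :=
          mul_le_mul_of_nonneg_left g4 (Real.rpow_nonneg h16.le _)
      _ = ((16 * K) ^ (4 + q 0 + q 1) * B.d n ^ (ε / 2)) *
            (VL σ q lev n * B.d n ^ (FL q v t y - ε)) := by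
          rw [show FL q v t y - ε / 2 = ε / 2 + (FL q v t y - ε) by ring, Dp76.dpow_add]
          ring
      _ ≤ 1 * (VL σ q lev n * B.d n ^ (FL q v t y - ε)) :=
          mul_le_mul_of_nonneg_right f5 (mul_pos hVL (dp _)).le
      _ = _ := one_mul _
  by_cases hJ : zc (lev n u) x.2 ∈ Finset.Icc (J - 1) (J + 1)
  · have hz : |((J : ℝ) + 1 / 2) * ρ - (inc n x).z| ≤ 2 * ρ := by
      rw [h.hz n x hx]; exact zc_far hJ
    refine ⟨(a, memL (inc n x) (((J : ℝ) + 1 / 2) * ρ) ρ sg t1), ?_, hval _, ?_⟩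
    · refine e7 J a _ (box_ok ru ht1p hts (e2 x hx) h.Mp.le hz ?_ ?_) rfl rfl hsgc etie0 etie1 rg1
        rg2 rg3 rg4
      · calc |(inc n x).et| * sg ≤ |(inc n x).et| * (16 * K * c) :=
              mul_le_mul_of_nonneg_left hsgup (abs_nonneg _)
          _ = (|(inc n x).et| * σ 0 n) * (16 * K * B.d n ^ (t - η)) := by rw [hc]; ring
          _ ≤ B.d n ^ (-η) * (16 * K * B.d n ^ (t - η)) :=
              mul_le_mul_of_nonneg_right (e3 x hx) (mul_pos h16 (dp _)).le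
          _ = 16 * K * B.d n ^ (t - 2 * η) := by
              rw [show t - 2 * η = -η + (t - η) by ring, Dp76.dpow_add]; ring
          _ ≤ M0 / 4 := f1.trans (min_le_left _ _)
      · calc |(inc n x).d| * ρ * sg ≤ |(inc n x).d| * ρ * (16 * K * c) :=
              mul_le_mul_of_nonneg_left hsgup (mul_nonneg (abs_nonneg _) ru.le)
          _ ≤ |(inc n x).d| * (rho (lev n 0) * B.d n ^ (v - 2 * η)) * (16 * K * c) := by
              refine mul_le_mul_of_nonneg_right ?_ (by positivity)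
              exact mul_le_mul_of_nonneg_left gup (abs_nonneg _)
          _ = (|(inc n x).d| * (σ 0 n * rho (lev n 0))) *
                (16 * K * (B.d n ^ (t - η) * B.d n ^ (v - 2 * η))) := by rw [hc]; ring
          _ ≤ B.d n ^ (-θ - η) * (16 * K * (B.d n ^ (t - η) * B.d n ^ (v - 2 * η))) := by
              refine mul_le_mul_of_nonneg_right (e4 x hx) ?_
              exact mul_nonneg h16.le (mul_pos (dp _) (dp _)).le
          _ = 16 * K * B.d n ^ (v + t - θ - 4 * η) := by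
              rw [show v + t - θ - 4 * η = (-θ - η) + ((t - η) + (v - 2 * η)) by ring,
                Dp76.dpow_add, Dp76.dpow_add]
              ring
          _ ≤ M0 / 24 := f2.trans (min_le_left _ _)
    · intro z hz' hnear _
      have hs := near_slotsS B h.σp hKp.le p0 p3 p4 p5 p6 p9 p10 p11
        (nearS_of_Z hnear) glo hct
        (le_refl (σ 1 n * B.d n ^ y))
      obtain ⟨_, k3, k4, k5, k6, k9, k10, k11⟩ := hs
      exact h.mem n z hz' _ _ _ _ (box_geo ru hc0 hc0' hK (e2 x hx) hz k3 k4 k5 k6 k9 k10 k11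
        hsglo ht1lo)
  · refine ⟨(a, memL (lin (inc n x)) (((J : ℝ) + 1 / 2) * ρ) ρ sg t1), ?_, hval _, ?_⟩
    · exact e7 J a _ (lin_ok ru ht1p hts (e2 x hx) h.Mp.le) rfl rfl hsgc etie0 etie1 rg1
        rg2 rg3 rg4
    · intro z hz' hnear hzJ
      have hs := near_slotsS B h.σp hKp.le p0 p3 p4 p5 p6 p9 p10 p11
        (nearS_of_Z hnear) glo hct
        (le_refl (σ 1 n * B.d n ^ y))
      refine absurd (e8 x hx z hz' ?_ J hzJ) hJ
      have h0 := hs.1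
      have ez : coL (inc n x) (inc n z) 0 = z.2 - x.2 := by
        show (inc n z).z - (inc n x).z = _
        rw [h.hz n x hx, h.hz n z hz']
      rwa [ez] at h0

/-- the boxes of the strong D-max hypothesis (no legality, no flag slots) -/
def PDS (w0 sa sb Rg θ k0 : ℝ) : Set (Fin 12 → ℝ) :=
  {p | w0 ≤ p 0 ∧ p 0 ≤ w0 + 1 ∧ sa < p 3 ∧ θ < (p 0 - w0) + (p 3 - sa) ∧
    p 3 - sa < Rg ∧ |p 10 - sb| < Rg ∧ p 3 - sa ≤ (p 10 - sb) + k0 ∧ p 3 ≤ p 4 ∧ p 0 + p 3 ≤ p 5 ∧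
    p 0 + p 3 ≤ p 6 ∧ p 0 + 2 * p 3 ≤ p 9 ∧ p 0 + p 10 ≤ p 11}

theorem PDL_sub (w0 sa sb Rg θ k0 R : ℝ) :
    PDL w0 sa sb Rg θ k0 R ⊆ PDS w0 sa sb Rg θ k0 := fun _ hp => hp.2

open Classical in
/-- **strong D-max** -/
theorem gDS_L (hM : MkA B I G lev A (fun v => g * v) (fun v => s * v) τ f b vm w)
    (h : LData B I G lev inc σ q M0 c0 Rg θ) {k0 : ℝ}
    (hk : ∀ ε : ℝ, 0 < ε → ∀ᶠ n in (U : Filter ℕ), σ 1 n ≤ σ 0 n * B.d n ^ (k0 - ε))
    (w0 sa sb : ℝ) :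
    ∀ p ∈ PDS w0 sa sb Rg θ k0, ∀ K : ℝ, 1 ≤ K → ∀ ε : ℝ, 0 < ε →
      ∀ᶠ n in (U : Filter ℕ), ∀ x ∈ I n,
      (((I n).filter fun y => NearS (coN B lev inc σ w0 sa sb n) (B.d n) p K x y).card : ℝ) ≤
        (A n * VL σ q lev n * B.d n ^ (-(1 - s))) * B.d n ^ (-(DL g s q w0 sa sb p + ε)) := by
  intro p hp K hK ε hε
  obtain ⟨h1, h2, h3, h4, h5, h6, h7, h8, h9, h10, h11, h12⟩ := hp
  have key := gD_of hM (co := coZ B lev inc σ w0 sa sb) (kz := 0) (w0 := w0)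
    (fun n x hx y hy => by
      show (if Vf 0 then coN B lev inc σ w0 sa sb n x y 0 else 0) = _
      rw [if_pos (by decide)]
      exact coN_zero h w0 sa sb n x hx y hy)
    (V := VL σ q lev) (by
      filter_upwards with n
      have s0 := h.σp 0 n
      have s1 := h.σp 1 n
      have r0 := Gd222.rho_pos (lev n 0)
      unfold VL
      positivity)
    (p := p) (F := FL q (p 0 - w0) (p 3 - sa) (p 10 - sb))
    (boxIn_S hM h (v := p 0 - w0) (t := p 3 - sa) (y := p 10 - sb) (by linarith)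
      (by linarith) (by linarith) h4 h5 h6 (by
        intro ε hε
        filter_upwards [hk ε hε] with n hn
        have s0 := h.σp 0 n
        calc σ 1 n * B.d n ^ (p 10 - sb)
            ≤ (σ 0 n * B.d n ^ (k0 - ε)) * B.d n ^ (p 10 - sb) :=
              mul_le_mul_of_nonneg_right hn (Dp76.dpow_pos B n _).le
          _ = σ 0 n * B.d n ^ (k0 - ε + (p 10 - sb)) := by rw [Dp76.dpow_add]; ring
          _ ≤ σ 0 n * B.d n ^ (p 3 - sa - ε) :=
              mul_le_mul_of_nonneg_left (Dp76.dpow_le B n (by linarith)) s0.le)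
      (by ring) (by linarith) (by linarith) (by linarith)
      (by linarith) (by linarith) (by linarith) (by linarith))
    (D := DL g s q w0 sa sb p) (by unfold DL; rw [max_eq_left (by linarith)]) K hK ε hε
  filter_upwards [key] with n hn x hx
  refine le_trans ?_ (hn x hx)
  refine Nat.cast_le.2 (Finset.card_le_card fun y hy => ?_)
  rw [mem_filter] at hy ⊢
  exact ⟨hy.1, near_Z (by linarith) hy.2⟩

end box

section mk

variable {B : Base} {I : ℕ → Finset (ℕ × ℝ)} {G : Geo TSet (Fin 2)} {lev : ℕ → ℚ → ℕ}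
    {A : ℕ → ℝ} {g s : ℝ} {θ : Fin 2 → ℝ} {f : ℕ → ℚ → ℕ → ℤ → ℕ} {b : ℕ → ℚ → ℕ → TSet}
    {vm : ℕ → ℚ → ℝ} {w : Fin 2 → ℕ → ℚ → ℝ} {q : Fin 2 → ℝ}
    {fl : ℕ → ℕ × ℝ → LInc} {M0 c0 Rg ϑ : ℝ}

open Classical in
/-- **strong D-max in 504's and 468's literals** -/
theorem gDS_T (hM : MkA B I G lev A (fun v => g * v) (fun v => s * v) (fun j v => θ j * (1 - v))
    f b vm w) (h : LData B I G lev fl (sN lev w) q M0 c0 Rg ϑ)
    (hwid : ∀ j (t : TSet), G.wid j t = (1 / 2 : ℝ) ^ t.1 j) {k0 : ℝ}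
    (hk : ∀ ε : ℝ, 0 < ε → ∀ᶠ n in (U : Filter ℕ),
      sN lev w 1 n ≤ sN lev w 0 n * B.d n ^ (k0 - ε)) (w0 sa sb : ℝ) :
    ∀ p ∈ PDS w0 sa sb Rg ϑ k0, ∀ K : ℝ, 1 ≤ K → ∀ ε : ℝ, 0 < ε →
      ∀ᶠ n in (U : Filter ℕ), ∀ x ∈ I n,
      (((I n).filter fun y => NearS (PL504.coN B lev w w0 sa sb fl n) (B.d n) p K x y).card : ℝ) ≤
        (A n * vm n 0 * B.d n ^ (-(1 - s))) * B.d n ^ (-(DT g s q θ w0 sa sb p + ε)) := by
  intro p hp K hK ε hε
  filter_upwards [gDS_L hM h hk w0 sa sb p hp K hK (ε / 2) (by linarith),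
    VL_le hM h.qp h.val hwid (show 0 < ε / 2 by linarith)] with n h1 h2 x hx
  have h3 := h1 x hx
  rw [coN_eq] at h3
  refine h3.trans ?_
  have hA := (hM.Apos n).le
  have dp := fun a => Dp76.dpow_pos B n a
  calc (A n * VL (sN lev w) q lev n * B.d n ^ (-(1 - s))) *
        B.d n ^ (-(DL g s q w0 sa sb p + ε / 2))
      ≤ (A n * (vm n 0 * B.d n ^ (-((3 + q 0) * θ 0 + (1 + q 1) * θ 1) - ε / 2)) *
          B.d n ^ (-(1 - s))) * B.d n ^ (-(DL g s q w0 sa sb p + ε / 2)) := by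
        refine mul_le_mul_of_nonneg_right (mul_le_mul_of_nonneg_right ?_ (dp _).le) (dp _).le
        exact mul_le_mul_of_nonneg_left h2 hA
    _ = (A n * vm n 0 * B.d n ^ (-(1 - s))) * B.d n ^ (-(DT g s q θ w0 sa sb p + ε)) := by
        rw [DT_eq, show -(DL g s q w0 sa sb p + ((3 + q 0) * θ 0 + (1 + q 1) * θ 1) + ε) =
          (-((3 + q 0) * θ 0 + (1 + q 1) * θ 1) - ε / 2) + -(DL g s q w0 sa sb p + ε / 2) by ring,
          Dp76.dpow_add B n (-((3 + q 0) * θ 0 + (1 + q 1) * θ 1) - ε / 2)]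
        ring

end mk

end Crest.Agent.R116.Gd222
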