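import Crest.Agent.R136.PqG_464
import Crest.Agent.R136.GR1_650
import Crest.Agent.R116.ChL1_222

/-!
# R116, PRE-L (helper504), part 1: units, exponents and record path of the light-ray chart

`uL lz lc lp` : inverse units of the twelve slots of 222's `coL` from the three independent ones
(height, velocity, slope of the slab); all monomials of `monL` are homogeneous, so every change of
these units is exact.  `eL z c p` : the corresponding exponents.  `rL` : the record path.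
-/

set_option autoImplicit false
set_option linter.unusedVariables false

open Finset Filter Topology

namespace Crest.Agent.R116.PL504

open Crest.Agent.R136.Net191
open Crest.Agent.R136.PqG464 (Grd chart_scl chart_gr)
open Crest.Agent.R116.ChL222

/-! ### grading -/

/-- weights: `z 1, D 1, E 2, C 1, X 2, B 3, N 3, P 4, F 5` -/
def wtL : Fin 12 → ℕ := ![1, 1, 2, 1, 1, 2, 2, 3, 3, 3, 4, 5]

theorem grdL : Grd monL wtL := by
  unfold Grd
  decide

/-! ### units -/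

/-- inverse units of the slots -/
noncomputable def uL (lz lc lp : ℝ) : Fin 12 → ℝ :=
  ![lz, lp / (lc ^ 2 * lz), lp / lc ^ 2, lc, lc, lz * lc, lz * lc, lp / lc, lp / lc, lz * lc ^ 2,
    lp, lz * lp]

theorem uL_pos {lz lc lp : ℝ} (hz : 0 < lz) (hc : 0 < lc) (hp : 0 < lp) (k : Fin 12) :
    0 < uL lz lc lp k := by
  fin_cases k <;> simp only [uL] <;> simp <;> positivity

/-- **exactness of the units** -/
theorem uL_mon {lz lc lp : ℝ} (hz : 0 < lz) (hc : 0 < lc) (hp : 0 < lp) (k : Fin 12)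
    {e : Fin 12 → ℕ} (he : e ∈ monL.mon k) : ∏ s, uL lz lc lp s ^ e s = uL lz lc lp k := by
  have hp' : ∀ e : Fin 12 → ℕ, ∏ s, uL lz lc lp s ^ e s =
      lz ^ e 0 * (lp / (lc ^ 2 * lz)) ^ e 1 * (lp / lc ^ 2) ^ e 2 * lc ^ e 3 * lc ^ e 4 *
      (lz * lc) ^ e 5 * (lz * lc) ^ e 6 * (lp / lc) ^ e 7 * (lp / lc) ^ e 8 * (lz * lc ^ 2) ^ e 9 *
      lp ^ e 10 * (lz * lp) ^ e 11 := by
    intro e
    simp [Fin.prod_univ_succ, uL]
    ring
  rw [hp']
  have hz' := hz.ne'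
  have hc' := hc.ne'
  have hpn := hp.ne'
  change e ∈ mfL k at he
  fin_cases k <;> simp [mfL] at he
  · subst he; simp [uL]; field_simp
  · subst he; simp [uL]
  · subst he; simp [uL]
  · rcases he with rfl | rfl <;> simp [uL] <;> field_simp
  · rcases he with rfl | rfl <;> simp [uL] <;> field_simp
  · rcases he with rfl | rfl | rfl | rfl <;> simp [uL] <;> ring
  · rcases he with rfl | rfl | rfl | rfl | rfl | rfl | rfl <;> simp [uL] <;> field_simp
  · rcases he with rfl | rfl | rfl | rfl | rfl | rfl | rfl | rfl | rfl | rfl | rfl | rfl | rfl <;>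
      simp [uL] <;> field_simp

/-- **the normalised light-ray chart** -/
theorem chartL_u {ι : Type*} (I : Finset ι) (f : ι → LInc) {lz lc lp : ℝ} (hz : 0 < lz)
    (hc : 0 < lc) (hp : 0 < lp) :
    Chart I (fun i j k => uL lz lc lp k * coL (f i) (f j) k) monL 2 :=
  chart_scl (chartL I f) (uL_pos hz hc hp) fun k _ he => (uL_mon hz hc hp k he).symm.le

/-! ### exponents -/

/-- exponents of the slots from those of the height, the velocity and the slope of the slab -/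
def eL (z c p : ℝ) : Fin 12 → ℝ :=
  ![z, p - 2 * c - z, p - 2 * c, c, c, z + c, z + c, p - c, p - c, z + 2 * c, p, z + p]

theorem uL_rpow {x : ℝ} (hx : 0 < x) (z c p : ℝ) (k : Fin 12) :
    uL (x ^ z) (x ^ c) (x ^ p) k = x ^ eL z c p k := by
  have h2 : (x ^ c) ^ 2 = x ^ (2 * c) := by
    rw [← Real.rpow_natCast, ← Real.rpow_mul hx.le]; congr 1; push_cast; ring
  fin_cases k <;> simp only [uL, eL] <;> simp <;>
    simp only [h2, ← Real.rpow_add hx, ← Real.rpow_sub hx] <;> (congr 1; ring)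

theorem eL_legal {z c p : ℝ} (hz : 0 ≤ z) (hc : 0 ≤ c) (hD : 0 ≤ p - 2 * c - z) :
    Legal monL (eL z c p) := by
  rw [legalL_iff]
  refine ⟨fun k => ?_, ?_⟩
  · fin_cases k <;> simp [eL] <;> linarith
  · have e0 : eL z c p 0 = z := rfl
    have e1 : eL z c p 1 = p - 2 * c - z := rfl
    have e2 : eL z c p 2 = p - 2 * c := rfl
    have e3 : eL z c p 3 = c := rfl
    have e4 : eL z c p 4 = c := rfl
    have e5 : eL z c p 5 = z + c := rfl
    have e6 : eL z c p 6 = z + c := rfl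
    have e7 : eL z c p 7 = p - c := rfl
    have e8 : eL z c p 8 = p - c := rfl
    have e9 : eL z c p 9 = z + 2 * c := rfl
    have e10 : eL z c p 10 = p := rfl
    have e11 : eL z c p 11 = z + p := rfl
    rw [e0, e1, e2, e3, e4, e5, e6, e7, e8, e9, e10, e11]
    refine ⟨?_, ?_, ?_, ?_, ?_, ?_, ?_, ?_, ?_, ?_, ?_, ?_, ?_, ?_, ?_, ?_⟩ <;> linarith

/-- the smallest exponents are those of `z`, `C` and `D` -/
theorem eL_ge {z c p δ : ℝ} (hδ : 0 ≤ δ) (hz : δ ≤ z) (hc : δ ≤ c) (hD : δ ≤ p - 2 * c - z)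
    (k : Fin 12) : δ ≤ eL z c p k := by
  fin_cases k <;> simp [eL] <;> linarith

/-- the largest exponent is the one of `F` -/
theorem eL_le {z c p R : ℝ} (hz : 0 ≤ z) (hc : 0 ≤ c) (hD : 0 ≤ p - 2 * c - z) (hR : z + p ≤ R)
    (k : Fin 12) : eL z c p k ≤ R := by
  fin_cases k <;> simp [eL] <;> linarith

theorem eL_sub_le {z c p z' c' p' d : ℝ} (hd : |z' - z| ≤ d) (hc : |c' - c| ≤ d)
    (hp : |p' - p| ≤ d) (k : Fin 12) : |eL z' c' p' k - eL z c p k| ≤ 4 * d := by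
  rw [abs_le] at hd hc hp ⊢
  obtain ⟨h1, h2⟩ := hd
  obtain ⟨h3, h4⟩ := hc
  obtain ⟨h5, h6⟩ := hp
  fin_cases k <;> simp [eL] <;> constructor <;> linarith

/-! ### the record path -/

/-- the record path: height `w0 + v`, velocity `θa (1 - v) + sa`, slope `θb (1 - v) + sb` -/
def rL (θa θb w0 sa sb v : ℝ) : Fin 12 → ℝ :=
  eL (w0 + v) (θa * (1 - v) + sa) (θb * (1 - v) + sb)

/-- admissible shifts of the units -/
structure Shift (θa θb w0 sa sb δ R : ℝ) : Prop where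
  d0 : 0 < δ
  z : δ ≤ w0
  c0 : δ ≤ θa + sa
  c1 : δ ≤ sa
  D0 : δ ≤ θb + sb - 2 * (θa + sa) - w0
  D1 : δ ≤ sb - 2 * sa - (w0 + 1)
  R0 : w0 + (θb + sb) ≤ R
  R1 : w0 + 1 + sb ≤ R

theorem aff_le {a b v x : ℝ} (hv0 : 0 ≤ v) (hv1 : v ≤ 1) (ha : x ≤ a) (hb : x ≤ b) :
    x ≤ a * (1 - v) + b * v := by
  nlinarith [mul_nonneg (sub_nonneg.2 ha) (sub_nonneg.2 hv1), mul_nonneg (sub_nonneg.2 hb) hv0]

theorem le_aff {a b v x : ℝ} (hv0 : 0 ≤ v) (hv1 : v ≤ 1) (ha : a ≤ x) (hb : b ≤ x) :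
    a * (1 - v) + b * v ≤ x := by
  nlinarith [mul_nonneg (sub_nonneg.2 ha) (sub_nonneg.2 hv1), mul_nonneg (sub_nonneg.2 hb) hv0]

namespace Shift

variable {θa θb w0 sa sb δ R : ℝ} (h : Shift θa θb w0 sa sb δ R)

include h

theorem bz {v : ℝ} (hv0 : 0 ≤ v) : δ ≤ w0 + v := by linarith [h.z]

theorem bc {v : ℝ} (hv0 : 0 ≤ v) (hv1 : v ≤ 1) : δ ≤ θa * (1 - v) + sa := by
  have := aff_le hv0 hv1 h.c0 h.c1
  linarith

theorem bD {v : ℝ} (hv0 : 0 ≤ v) (hv1 : v ≤ 1) :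
    δ ≤ (θb * (1 - v) + sb) - 2 * (θa * (1 - v) + sa) - (w0 + v) := by
  have := aff_le hv0 hv1 h.D0 h.D1
  linarith

theorem bR {v : ℝ} (hv0 : 0 ≤ v) (hv1 : v ≤ 1) : (w0 + v) + (θb * (1 - v) + sb) ≤ R := by
  have := le_aff hv0 hv1 h.R0 h.R1
  linarith

/-- the record path is legal -/
theorem rL_leg {v : ℝ} (hv0 : 0 ≤ v) (hv1 : v ≤ 1) : rL θa θb w0 sa sb v ∈ Leg monL R :=
  ⟨eL_legal (h.d0.le.trans (h.bz hv0)) (h.d0.le.trans (h.bc hv0 hv1))
      (h.d0.le.trans (h.bD hv0 hv1)),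
    fun k => eL_le (h.d0.le.trans (h.bz hv0)) (h.d0.le.trans (h.bc hv0 hv1))
      (h.d0.le.trans (h.bD hv0 hv1)) (h.bR hv0 hv1) k⟩

theorem rL_pos {v : ℝ} (hv0 : 0 ≤ v) (hv1 : v ≤ 1) (k : Fin 12) : δ ≤ rL θa θb w0 sa sb v k :=
  eL_ge h.d0.le (h.bz hv0) (h.bc hv0 hv1) (h.bD hv0 hv1) k

theorem R_pos : δ ≤ R := by
  have h1 := h.bz le_rfl
  have h2 := h.rL_pos (v := 0) le_rfl zero_le_one 10
  have h3 := (h.rL_leg (v := 0) le_rfl zero_le_one).2 10
  exact h2.trans h3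

theorem w0R : w0 + 1 ≤ R := by
  have h1 := h.bD zero_le_one le_rfl
  have h2 := h.bc zero_le_one le_rfl
  have h3 := h.bz (v := 1) zero_le_one
  have h4 := h.bR zero_le_one le_rfl
  linarith [h.d0]

end Shift

theorem rL_zero_slot (θa θb w0 sa sb v : ℝ) : rL θa θb w0 sa sb v 0 = w0 + v := rfl

theorem rL_lip (θa θb w0 sa sb : ℝ) {u v : ℝ} (huv : u ≤ v) (k : Fin 12) :
    |rL θa θb w0 sa sb v k - rL θa θb w0 sa sb u k| ≤ 4 * (1 + |θa| + |θb|) * (v - u) := by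
  have h0 : 0 ≤ v - u := by linarith
  rw [mul_assoc]
  refine eL_sub_le ?_ ?_ ?_ k
  · have e : w0 + v - (w0 + u) = v - u := by ring
    rw [e, abs_of_nonneg h0]
    nlinarith [abs_nonneg θa, abs_nonneg θb]
  · have e : θa * (1 - v) + sa - (θa * (1 - u) + sa) = -(θa * (v - u)) := by ring
    rw [e, abs_neg, abs_mul, abs_of_nonneg h0]
    nlinarith [abs_nonneg θa, abs_nonneg θb]
  · have e : θb * (1 - v) + sb - (θb * (1 - u) + sb) = -(θb * (v - u)) := by ring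
    rw [e, abs_neg, abs_mul, abs_of_nonneg h0]
    nlinarith [abs_nonneg θa, abs_nonneg θb]

/-- shifts exist for all slopes -/
theorem exists_shift (θa θb : ℝ) : ∃ w0 sa sb δ R : ℝ, Shift θa θb w0 sa sb δ R := by
  refine ⟨1, 1 + |θa|, |θb| + 2 * (|θa| + (1 + |θa|)) + 3, 1,
    1 + |θb| + (|θb| + 2 * (|θa| + (1 + |θa|)) + 3) + 1, ?_⟩
  have h1 := abs_nonneg θa
  have h2 := abs_nonneg θb
  have h3 := neg_abs_le θa
  have h4 := neg_abs_le θb
  have h5 := le_abs_self θa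
  have h6 := le_abs_self θb
  constructor <;> linarith

end Crest.Agent.R116.PL504
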