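import Crest.Agent.R136.PqG3_464
import Crest.Agent.R116.PL1_504

/-!
# R116, PRE-L (helper504), part 2: `TSys` (627) on the twelve slots of the light-ray chart ⊢ `PreQ` (196)

* `cN` : inverse units of the slots (level `1` widths, level `0` length, enlarged by powers of `d`);
  `coN` : normalised chart of the composite flags `fl n x : LInc`; `prN` : precisions of the marks
  (monomials of the widths).  `cN_pr` : `cN * prN = d^(rL u k ± ε)`.
* `gR_T` : two incidences of one marked class of level `u` are close in all slots (chart free).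
* `preL_of` : the literal `PreQ` of L15; inputs left: D-max (`gD`), size of the classes (`gH`),
  status of the slots.
-/

set_option autoImplicit false
set_option linter.unusedVariables false

open Finset Filter Topology

namespace Crest.Agent.R116.PL504

open Crest.Agent.R138.Ex926 (Base U)
open Crest.Agent.R138.Mk163 (zc zl rho alive own)
open Crest.Agent.R138.MkRef627 (lc kc)
open Crest.Agent.R138.Dp76 (dpow_pos dpow_add dpow_le)
open Crest.Agent.R136.MkA627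
open Crest.Agent.R136.Net191
open Crest.Agent.R136.TD627
open Crest.Agent.R136.Lq196
open Crest.Agent.R116.ChL222

/-! ### estimates of the units -/

theorem uL_mul (a b c a' b' c' : ℝ) (k : Fin 12) :
    uL (a * a') (b * b') (c * c') k = uL a b c k * uL a' b' c' k := by
  fin_cases k <;> simp [uL] <;> ring

theorem exp_of {x y a b : ℝ} (hx : 0 < x) (hx1 : x < 1) (hy : 0 < y) (h1 : x ^ b ≤ y)
    (h2 : y ≤ x ^ a) : ∃ z : ℝ, y = x ^ z ∧ a ≤ z ∧ z ≤ b := by
  refine ⟨Real.logb x y, (Real.rpow_logb hx hx1.ne hy).symm, ?_, ?_⟩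
  · rw [← Real.rpow_logb hx hx1.ne hy] at h2
    exact (Real.rpow_le_rpow_left_iff_of_base_lt_one hx hx1).1 h2
  · rw [← Real.rpow_logb hx hx1.ne hy] at h1
    exact (Real.rpow_le_rpow_left_iff_of_base_lt_one hx hx1).1 h1

theorem uL_near {x lz ll lp z c p t : ℝ} (hx : 0 < x) (hx1 : x < 1)
    (hz0 : 0 < lz) (hc0 : 0 < ll) (hp0 : 0 < lp)
    (hz : x ^ (z + t) ≤ lz ∧ lz ≤ x ^ (z - t)) (hc : x ^ (c + t) ≤ ll ∧ ll ≤ x ^ (c - t))
    (hp : x ^ (p + t) ≤ lp ∧ lp ≤ x ^ (p - t)) (k : Fin 12) :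
    x ^ (eL z c p k + 4 * t) ≤ uL lz ll lp k ∧ uL lz ll lp k ≤ x ^ (eL z c p k - 4 * t) := by
  obtain ⟨z', rfl, z1, z2⟩ := exp_of hx hx1 hz0 hz.1 hz.2
  obtain ⟨c', rfl, c1, c2⟩ := exp_of hx hx1 hc0 hc.1 hc.2
  obtain ⟨p', rfl, p1, p2⟩ := exp_of hx hx1 hp0 hp.1 hp.2
  rw [uL_rpow hx]
  have h := eL_sub_le (z := z) (c := c) (p := p) (z' := z') (c' := c') (p' := p') (d := t)
    (abs_le.2 ⟨by linarith, by linarith⟩) (abs_le.2 ⟨by linarith, by linarith⟩)
    (abs_le.2 ⟨by linarith, by linarith⟩) k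
  rw [abs_le] at h
  constructor
  · exact Real.rpow_le_rpow_of_exponent_ge hx hx1.le (by linarith)
  · exact Real.rpow_le_rpow_of_exponent_ge hx hx1.le (by linarith)

/-- rates of the slots: precision of level `v` = precision of level `0` times `d^(βL v)` -/
def βL (θa θb : ℝ) : Fin 12 → ℝ := eL 1 (-θa) (-θb)

theorem rL_lin (θa θb w0 sa sb u : ℝ) (k : Fin 12) :
    rL θa θb w0 sa sb u k = rL θa θb w0 sa sb 0 k + βL θa θb k * u := by
  fin_cases k <;> simp [rL, βL, eL] <;> ring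

/-! ### units and precisions of a sequence -/

/-- positive part, `1` instead of `0` -/
noncomputable def ps (x : ℝ) : ℝ := if 0 < x then x else 1

theorem ps_pos (x : ℝ) : 0 < ps x := by
  unfold ps
  split_ifs with h
  · exact h
  · exact one_pos

theorem ps_eq {x : ℝ} (h : 0 < x) : ps x = x := if_pos h

section seq

variable (B : Base) (lev : ℕ → ℚ → ℕ) (w : Fin 2 → ℕ → ℚ → ℝ) (w0 sa sb : ℝ)

/-- inverse units of the slots -/
noncomputable def cN (n : ℕ) : Fin 12 → ℝ :=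
  uL ((2 : ℝ) ^ lev n 0 * B.d n ^ w0) (B.d n ^ sa / ps (w 0 n 1 / rho (lev n 1)))
    (B.d n ^ sb / ps (w 1 n 1 / rho (lev n 1)))

theorem cN_pos (n : ℕ) (k : Fin 12) : 0 < cN B lev w w0 sa sb n k :=
  uL_pos (mul_pos (by positivity) (dpow_pos B n _)) (div_pos (dpow_pos B n _) (ps_pos _))
    (div_pos (dpow_pos B n _) (ps_pos _)) k

/-- the normalised chart of the composite flags -/
noncomputable def coN (fl : ℕ → ℕ × ℝ → LInc) (n : ℕ) (x y : ℕ × ℝ) (k : Fin 12) : ℝ :=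
  cN B lev w w0 sa sb n k * coL (fl n x) (fl n y) k

/-- precisions of the marks -/
noncomputable def prN (lev : ℕ → ℚ → ℕ) (w : Fin 2 → ℕ → ℚ → ℝ) (k : Fin 12) (n : ℕ) (v : ℚ) : ℝ :=
  uL (rho (lev n v)) (w 0 n v / rho (lev n v)) (w 1 n v / rho (lev n v)) k

theorem chartN (fl : ℕ → ℕ × ℝ → LInc) (n : ℕ) (I : Finset (ℕ × ℝ)) :
    Chart I (coN B lev w w0 sa sb fl n) monL 2 :=
  chartL_u I (fl n) (mul_pos (by positivity) (dpow_pos B n _)) (div_pos (dpow_pos B n _) (ps_pos _))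
    (div_pos (dpow_pos B n _) (ps_pos _))

end seq

theorem rho_pos (i : ℕ) : 0 < rho i := by unfold rho; positivity

/-- two-sided estimate from a limit of logarithms -/
theorem of_lim {B : Base} {X : ℕ → ℝ} {T : ℝ} (hX : ∀ᶠ n in (U : Filter ℕ), 0 < X n)
    (h : Tendsto (fun n => Real.log (X n) / B.L n) U (𝓝 T)) {t : ℝ} (ht : 0 < t) :
    ∀ᶠ n in (U : Filter ℕ), B.d n ^ (-T + t) ≤ X n ∧ X n ≤ B.d n ^ (-T - t) := by
  have h1 := h.eventually_const_lt (show T - t < T by linarith)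
  have h2 := h.eventually_lt_const (show T < T + t by linarith)
  filter_upwards [hX, h1, h2] with n h0 a b
  have hL := B.L_pos n
  rw [lt_div_iff₀ hL] at a
  rw [div_lt_iff₀ hL] at b
  constructor
  · rw [← Real.log_le_log_iff (dpow_pos B n _) h0, Crest.Agent.R138.ArgM163.log_dpow]
    nlinarith
  · rw [← Real.log_le_log_iff h0 (dpow_pos B n _), Crest.Agent.R138.ArgM163.log_dpow]
    nlinarith

section mk

variable {σ : Type*} {B : Base} {I : ℕ → Finset (ℕ × ℝ)} {G : Geo σ (Fin 2)} {lev : ℕ → ℚ → ℕ}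
    {A : ℕ → ℝ} {g s : ℝ} {θ : Fin 2 → ℝ} {f : ℕ → ℚ → ℕ → ℤ → ℕ} {b : ℕ → ℚ → ℕ → σ}
    {vm : ℕ → ℚ → ℝ} {w : Fin 2 → ℕ → ℚ → ℝ}

/-- length of the cells of level `u` in the unit of level `0` -/
theorem ev_len (h : MkA B I G lev A (fun v => g * v) (fun v => s * v) (fun j v => θ j * (1 - v))
    f b vm w) {u : ℚ} (h0 : 0 ≤ u) (h1 : u ≤ 1) {t : ℝ} (ht : 0 < t) :
    ∀ᶠ n in (U : Filter ℕ), B.d n ^ ((u : ℝ) + t) ≤ (2 : ℝ) ^ lev n 0 * rho (lev n u) ∧
      (2 : ℝ) ^ lev n 0 * rho (lev n u) ≤ B.d n ^ ((u : ℝ) - t) := by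
  have h3 : Tendsto (fun n => Real.log ((2 : ℝ) ^ lev n 0 * rho (lev n u)) / B.L n) U
      (𝓝 (-(u : ℝ))) := by
    have h4 := (h.lev_lim 0 u le_rfl h0 h1).neg
    have e0 : -((u : ℝ) - ((0 : ℚ) : ℝ)) = -(u : ℝ) := by push_cast; ring
    rw [e0] at h4
    refine h4.congr fun n => ?_
    have e : Real.log (rho (lev n u)) = -((lev n u : ℝ) * Real.log 2) := by
      unfold rho
      rw [one_div, Real.log_inv, Real.log_pow]
    rw [Real.log_mul (by positivity) (rho_pos _).ne', e, Real.log_pow]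
    ring
  have h4 := of_lim (Eventually.of_forall fun n => mul_pos (by positivity) (rho_pos _)) h3 ht
  filter_upwards [h4] with n hn
  rwa [neg_neg] at hn

/-- ratio of the angular widths of level `u` and level `1` -/
theorem ev_ang (h : MkA B I G lev A (fun v => g * v) (fun v => s * v) (fun j v => θ j * (1 - v))
    f b vm w) (j : Fin 2) {u : ℚ} (h0 : 0 ≤ u) (h1 : u ≤ 1) {t : ℝ} (ht : 0 < t) :
    ∀ᶠ n in (U : Filter ℕ),
      B.d n ^ (θ j * (1 - u) + t) ≤ (w j n u / rho (lev n u)) / ps (w j n 1 / rho (lev n 1)) ∧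
      (w j n u / rho (lev n u)) / ps (w j n 1 / rho (lev n 1)) ≤ B.d n ^ (θ j * (1 - u) - t) := by
  have hv := h.wpos j u h0 h1
  have hv1 := h.wpos j 1 zero_le_one le_rfl
  have h2 : Tendsto (fun n => Real.log ((w j n u / rho (lev n u)) / (w j n 1 / rho (lev n 1))) /
      B.L n) U (𝓝 (-(θ j * (1 - (u : ℝ))))) := by
    refine (h.tau j u h0 h1).neg.congr' ?_
    filter_upwards [hv, hv1] with n a b
    have p := rho_pos (lev n u)
    have q := rho_pos (lev n 1)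
    have e1 : (w j n u / rho (lev n u)) / (w j n 1 / rho (lev n 1)) =
        ((rho (lev n u) / w j n u) / (rho (lev n 1) / w j n 1))⁻¹ := by field_simp
    rw [e1, Real.log_inv]
    ring
  have h3 := of_lim (by
    filter_upwards [hv, hv1] with n a b
    have p := rho_pos (lev n u)
    have q := rho_pos (lev n 1)
    positivity) h2 ht
  filter_upwards [h3, hv1] with n hn b
  rw [neg_neg] at hn
  rw [ps_eq (div_pos b (rho_pos _))]
  exact hn

/-- **units against precisions** -/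
theorem cN_pr (h : MkA B I G lev A (fun v => g * v) (fun v => s * v) (fun j v => θ j * (1 - v))
    f b vm w) (w0 sa sb : ℝ) {u : ℚ} (h0 : 0 ≤ u) (h1 : u ≤ 1) {ε : ℝ} (hε : 0 < ε) :
    ∀ᶠ n in (U : Filter ℕ), ∀ k,
      B.d n ^ (rL (θ 0) (θ 1) w0 sa sb u k + ε) ≤ cN B lev w w0 sa sb n k * prN lev w k n u ∧
      cN B lev w w0 sa sb n k * prN lev w k n u ≤ B.d n ^ (rL (θ 0) (θ 1) w0 sa sb u k - ε) := by
  have ht : 0 < ε / 4 := by positivity
  filter_upwards [ev_len h h0 h1 ht, ev_ang h 0 h0 h1 ht, ev_ang h 1 h0 h1 ht, h.wpos 0 u h0 h1,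
    h.wpos 1 u h0 h1] with n a0 a1 a2 p0 p1 k
  have hr := rho_pos (lev n u)
  unfold cN prN
  rw [← uL_mul]
  have e4 : 4 * (ε / 4) = ε := by ring
  have key := uL_near (x := B.d n) (z := w0 + u) (c := θ 0 * (1 - u) + sa)
    (p := θ 1 * (1 - u) + sb) (t := ε / 4)
    (lz := (2 : ℝ) ^ lev n 0 * B.d n ^ w0 * rho (lev n u))
    (ll := B.d n ^ sa / ps (w 0 n 1 / rho (lev n 1)) * (w 0 n u / rho (lev n u)))
    (lp := B.d n ^ sb / ps (w 1 n 1 / rho (lev n 1)) * (w 1 n u / rho (lev n u)))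
    (B.pos n) (B.lt n)
    (mul_pos (mul_pos (by positivity) (dpow_pos B n _)) hr)
    (mul_pos (div_pos (dpow_pos B n _) (ps_pos _)) (div_pos p0 hr))
    (mul_pos (div_pos (dpow_pos B n _) (ps_pos _)) (div_pos p1 hr)) ?_ ?_ ?_ k
  · rw [e4] at key
    exact key
  · have e1 : (2 : ℝ) ^ lev n 0 * B.d n ^ w0 * rho (lev n u) =
        B.d n ^ w0 * ((2 : ℝ) ^ lev n 0 * rho (lev n u)) := by ring
    rw [e1, add_assoc, dpow_add B n w0, add_sub_assoc, dpow_add B n w0]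
    exact ⟨mul_le_mul_of_nonneg_left a0.1 (dpow_pos B n _).le,
      mul_le_mul_of_nonneg_left a0.2 (dpow_pos B n _).le⟩
  · have e1 : B.d n ^ sa / ps (w 0 n 1 / rho (lev n 1)) * (w 0 n u / rho (lev n u)) =
        B.d n ^ sa * ((w 0 n u / rho (lev n u)) / ps (w 0 n 1 / rho (lev n 1))) := by ring
    have e2 : θ 0 * (1 - (u : ℝ)) + sa + ε / 4 = sa + (θ 0 * (1 - u) + ε / 4) := by ring
    have e3 : θ 0 * (1 - (u : ℝ)) + sa - ε / 4 = sa + (θ 0 * (1 - u) - ε / 4) := by ring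
    rw [e1, e2, e3, dpow_add B n sa, dpow_add B n sa]
    exact ⟨mul_le_mul_of_nonneg_left a1.1 (dpow_pos B n _).le,
      mul_le_mul_of_nonneg_left a1.2 (dpow_pos B n _).le⟩
  · have e1 : B.d n ^ sb / ps (w 1 n 1 / rho (lev n 1)) * (w 1 n u / rho (lev n u)) =
        B.d n ^ sb * ((w 1 n u / rho (lev n u)) / ps (w 1 n 1 / rho (lev n 1))) := by ring
    have e2 : θ 1 * (1 - (u : ℝ)) + sb + ε / 4 = sb + (θ 1 * (1 - u) + ε / 4) := by ring
    have e3 : θ 1 * (1 - (u : ℝ)) + sb - ε / 4 = sb + (θ 1 * (1 - u) - ε / 4) := by ring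
    rw [e1, e2, e3, dpow_add B n sb, dpow_add B n sb]
    exact ⟨mul_le_mul_of_nonneg_left a2.1 (dpow_pos B n _).le,
      mul_le_mul_of_nonneg_left a2.2 (dpow_pos B n _).le⟩

end mk

/-! ### record closeness, chart free -/

section gR

variable {σ κ φ : Type*} {m : ℕ} {P : TDist φ m} {G : Geo σ κ} {g s : ℝ} {θ : κ → ℝ}
    {β : Fin m → ℝ} {B : Base} {I : ℕ → Finset (ℕ × ℝ)} {lev : ℕ → ℚ → ℕ} {A : ℕ → ℝ}
    {f : ℕ → ℚ → ℕ → ℤ → ℕ} {b : ℕ → ℚ → ℕ → σ} {vm : ℕ → ℚ → ℝ} {w : κ → ℕ → ℚ → ℝ}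
    {fr : ℕ → ℚ → ℕ × ℝ → φ} {pr : Fin m → ℕ → ℚ → ℝ} {fl : ℕ → ℕ × ℝ → φ} {sc : Fin m → ℕ → ℝ}

/-- **flags of one marked class of level `u` agree in every slot** -/
theorem gR_T (h : TSys P G g s θ β B I lev A f b vm w fr pr fl sc)
    (hfr : ∀ n v x y, kc (lev n v) (f n v) y = kc (lev n v) (f n v) x → fr n v y = fr n v x)
    (j : Fin m) {u : ℚ} (h0 : 0 ≤ u) (h1 : u ≤ 1) {ε : ℝ} (hε : 0 < ε) :
    ∀ᶠ n in (U : Filter ℕ), ∀ x ∈ I n, ∀ y ∈ I n,
      kc (lev n u) (f n u) y = kc (lev n u) (f n u) x →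
        P.d j n (fl n x) (fl n y) ≤ sc j n * B.d n ^ (β j * u - ε) := by
  set S : ℕ → (ℕ × ℝ) × (ℕ × ℝ) → Prop := fun n p =>
    p.1 ∈ I n ∧ p.2 ∈ I n ∧ kc (lev n u) (f n u) p.2 = kc (lev n u) (f n u) p.1 with hS
  have hw := h.wall h0 h1
  have hn := h.near h0 h1
  have hn' := hn.symm hw h.scpos
  have c1 : NearE P B sc (fun t => β t * u) S (fun n p => fl n p.1) (fun n p => fr n u p.1) :=
    fun j ε hε => by
      filter_upwards [hn j ε hε] with n a1 p hp using a1 p.1 hp.1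
  have c3 : NearE P B sc (fun t => β t * u) S (fun n p => fr n u p.1) (fun n p => fl n p.2) :=
    fun j ε hε => by
      filter_upwards [hn' j ε hε] with n a1 p hp
      have := a1 p.2 hp.2.1
      rwa [hfr n u p.1 p.2 hp.2.2] at this
  have c4 := c1.trans hw h.scpos c3
  filter_upwards [c4 j ε hε] with n a1 x hx y hy hxy
  exact a1 (x, y) ⟨hx, hy, hxy⟩

end gR

/-! ### the literal `PreQ` -/

section pre

variable {σ : Type*} {P : TDist LInc 12} {B : Base} {I : ℕ → Finset (ℕ × ℝ)} {G : Geo σ (Fin 2)}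
    {lev : ℕ → ℚ → ℕ} {A : ℕ → ℝ} {g s : ℝ} {θ : Fin 2 → ℝ} {f : ℕ → ℚ → ℕ → ℤ → ℕ}
    {b : ℕ → ℚ → ℕ → σ} {vm : ℕ → ℚ → ℝ} {w : Fin 2 → ℕ → ℚ → ℝ}
    {fr : ℕ → ℚ → ℕ × ℝ → LInc} {pr : Fin 12 → ℕ → ℚ → ℝ} {fl : ℕ → ℕ × ℝ → LInc}
    {sc : Fin 12 → ℕ → ℝ}

/-- units against scales -/
theorem cN_sc (h : TSys P G g s θ (βL (θ 0) (θ 1)) B I lev A f b vm w fr pr fl sc)
    (hpr : ∀ k n v, pr k n v = prN lev w k n v) (w0 sa sb : ℝ) (k : Fin 12) {ε : ℝ} (hε : 0 < ε) :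
    ∀ᶠ n in (U : Filter ℕ),
      B.d n ^ (rL (θ 0) (θ 1) w0 sa sb 0 k + ε) ≤ cN B lev w w0 sa sb n k * sc k n ∧
      cN B lev w w0 sa sb n k * sc k n ≤ B.d n ^ (rL (θ 0) (θ 1) w0 sa sb 0 k - ε) := by
  filter_upwards [cN_pr h.mka w0 sa sb le_rfl zero_le_one (half_pos hε),
    h.pr_le k le_rfl zero_le_one (half_pos hε)] with n a1 a2
  have hc := cN_pos B lev w w0 sa sb n k
  have a3 := a1 k
  rw [hpr] at a2
  rw [Rat.cast_zero] at a2 a3
  have b1 : cN B lev w w0 sa sb n k * prN lev w k n 0 ≤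
      (cN B lev w w0 sa sb n k * sc k n) * B.d n ^ (-(ε / 2)) := by
    rw [mul_assoc]
    refine mul_le_mul_of_nonneg_left (a2.1.trans (le_of_eq ?_)) hc.le
    congr 2; ring
  have b2 : (cN B lev w w0 sa sb n k * sc k n) * B.d n ^ (ε / 2) ≤
      cN B lev w w0 sa sb n k * prN lev w k n 0 := by
    rw [mul_assoc]
    refine mul_le_mul_of_nonneg_left (le_trans (le_of_eq ?_) a2.2) hc.le
    congr 2; ring
  have p1 := dpow_pos B n (ε / 2)
  have p2 := dpow_pos B n (-(ε / 2))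
  have p12 : B.d n ^ (-(ε / 2)) * B.d n ^ (ε / 2) = 1 := by
    rw [← dpow_add, neg_add_cancel, Real.rpow_zero]
  constructor
  · have c1 := mul_le_mul_of_nonneg_right (a3.1.trans b1) p1.le
    rw [mul_assoc, p12, mul_one, ← dpow_add] at c1
    refine le_trans (le_of_eq ?_) c1
    congr 1; ring
  · have c1 := mul_le_mul_of_nonneg_right (b2.trans a3.2) p2.le
    rw [mul_assoc, mul_comm (B.d n ^ (ε / 2)), p12, mul_one, ← dpow_add] at c1
    refine c1.trans (le_of_eq ?_)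
    congr 1; ring

open Classical in
/-- own exponents: height, visible slots as the record, the others `R` -/
noncomputable def oL (θa θb w0 sa sb R : ℝ) (Vis : Fin 12 → Prop) (v : ℝ) : Fin 12 → ℝ := fun k =>
  if k = 0 ∨ Vis k then rL θa θb w0 sa sb v k else R

theorem oL_pos {θa θb w0 sa sb δ R : ℝ} (h : Shift θa θb w0 sa sb δ R) (Vis : Fin 12 → Prop)
    {v : ℝ} (h0 : 0 ≤ v) (h1 : v ≤ 1) (k : Fin 12) : δ ≤ oL θa θb w0 sa sb R Vis v k := by
  unfold oL
  split_ifs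
  · exact h.rL_pos h0 h1 k
  · exact h.R_pos

theorem oL_lip (θa θb w0 sa sb R : ℝ) (Vis : Fin 12 → Prop) {u v : ℝ} (huv : u ≤ v) (k : Fin 12) :
    |oL θa θb w0 sa sb R Vis v k - oL θa θb w0 sa sb R Vis u k| ≤
      4 * (1 + |θa| + |θb|) * (v - u) := by
  unfold oL
  split_ifs
  · exact rL_lip θa θb w0 sa sb huv k
  · rw [sub_self, abs_zero]
    have h1 := abs_nonneg θa
    have h2 := abs_nonneg θb
    have h3 : 0 ≤ v - u := by linarith
    positivity

/-- two heights of one cell -/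
theorem zc_eq_sub {i : ℕ} {z z' : ℝ} (h : zc i z' = zc i z) : |z' - z| ≤ rho i := by
  unfold zc at h
  have h1 := Int.floor_le ((2 : ℝ) ^ i * z)
  have h2 := Int.lt_floor_add_one ((2 : ℝ) ^ i * z)
  have h3 := Int.floor_le ((2 : ℝ) ^ i * z')
  have h4 := Int.lt_floor_add_one ((2 : ℝ) ^ i * z')
  rw [h] at h3 h4
  have h5 : |(2 : ℝ) ^ i * (z' - z)| ≤ 1 := by
    rw [abs_le]; constructor <;> nlinarith
  have hp : (0 : ℝ) < 2 ^ i := by positivity
  rw [abs_mul, abs_of_pos hp] at h5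
  unfold rho
  rw [le_div_iff₀ hp]
  linarith

open Classical in
/-- **the input of L15 for the light-ray chart.** -/
theorem preL_of {P : TDist LInc 12} (hP : ∀ k n a b, P.d k n a b = |coL a b k|)
    {δ R w0 sa sb : ℝ} (sh : Shift (θ 0) (θ 1) w0 sa sb δ R)
    (h : TSys P G g s θ (βL (θ 0) (θ 1)) B I lev A f b vm w fr pr fl sc)
    (hpr : ∀ k n v, pr k n v = prN lev w k n v) (hfl : ∀ n x, (fl n x).z = x.2)
    (hfr : ∀ n v x y, kc (lev n v) (f n v) y = kc (lev n v) (f n v) x → fr n v y = fr n v x)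
    {Vis Td : Fin 12 → Prop} (hinv : ∀ k, ¬ Vis k → InvT P B I k fl (sc k))
    (htd : ∀ k, Td k → Vis k ∧ 0 < βL (θ 0) (θ 1) k ∧ ∃ C0 : ℝ, βL (θ 0) (θ 1) k ≤ C0 ∧
      RotT P B I lev k fl (sc k) C0 (fun u => βL (θ 0) (θ 1) k * u))
    {N0 : ℕ → ℝ} (hN0 : ∀ᶠ n in (U : Filter ℕ), 0 < N0 n) {PD : Set (Fin 12 → ℝ)}
    (hPD : PD.Nonempty) (hPDl : PD ⊆ Leg monL R) {D : (Fin 12 → ℝ) → ℝ}
    (gD : ∀ p ∈ PD, ∀ K : ℝ, 1 ≤ K → ∀ ε : ℝ, 0 < ε → ∀ᶠ n in (U : Filter ℕ), ∀ x ∈ I n,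
      (((I n).filter fun y => Near (coN B lev w w0 sa sb fl n) (B.d n) p K x y).card : ℝ) ≤
        N0 n * B.d n ^ (-(D p + ε)))
    {E : ℝ → ℝ} (hE : ∃ Cr : ℝ, ∀ u v : ℝ, 0 ≤ u → u ≤ v → v ≤ 1 → |E v - E u| ≤ Cr * (v - u))
    (gH : ∀ u : ℚ, 0 ≤ u → u ≤ 1 → Tendsto (fun n => Real.log
      (ampA B A (fun v => g * v) n u * vm n u * B.d n ^ (-((1 - s) * (1 - u))) / N0 n) / B.L n) U
        (𝓝 (E u))) :
    PreQ B I G lev A g s (fun j v => θ j * (1 - v)) f b vm w (coN B lev w w0 sa sb fl) monL 2 R 0 w0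
      N0 PD D (rL (θ 0) (θ 1) w0 sa sb) (oL (θ 0) (θ 1) w0 sa sb R Vis) E Td := by
  have hco : ∀ k n x y, |coN B lev w w0 sa sb fl n x y k| =
      cN B lev w w0 sa sb n k * P.d k n (fl n x) (fl n y) := by
    intro k n x y
    unfold coN
    rw [abs_mul, abs_of_pos (cN_pos B lev w w0 sa sb n k), hP]
  obtain ⟨CE, hCE⟩ := hE
  refine
    { mka := h.mka
      chart := fun n => chartN B lev w w0 sa sb fl n (I n)
      zco := ?_
      w00 := sh.d0.trans_le sh.z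
      w0R := sh.w0R
      N0pos := hN0
      PDne := hPD
      PDleg := hPDl
      gD := gD
      rleg := fun v h0 h1 => sh.rL_leg h0 h1
      rpos := ⟨δ, sh.d0, fun v h0 h1 k => ⟨sh.rL_pos h0 h1 k, oL_pos sh Vis h0 h1 k⟩⟩
      rlip := ?_
      gR := ?_
      gH := gH
      oz := ?_
      own_near := ?_
      tw := ?_ }
  · intro n x hx y hy
    show cN B lev w w0 sa sb n 0 * coL (fl n x) (fl n y) 0 = _
    have e1 : cN B lev w w0 sa sb n 0 = (2 : ℝ) ^ lev n 0 * B.d n ^ w0 := rfl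
    have e2 : coL (fl n x) (fl n y) 0 = (fl n y).z - (fl n x).z := rfl
    rw [e1, e2, hfl, hfl]
    ring
  · refine ⟨4 * (1 + |θ 0| + |θ 1|) + |CE|, fun u v h0 huv h1 => ?_⟩
    have hvu : 0 ≤ v - u := by linarith
    have hC : 0 ≤ 4 * (1 + |θ 0| + |θ 1|) := by positivity
    have hle : 4 * (1 + |θ 0| + |θ 1|) * (v - u) ≤ (4 * (1 + |θ 0| + |θ 1|) + |CE|) * (v - u) :=
      mul_le_mul_of_nonneg_right (by linarith [abs_nonneg CE]) hvu
    refine ⟨fun k => ⟨(rL_lip _ _ _ _ _ huv k).trans hle, (oL_lip _ _ _ _ _ _ Vis huv k).trans hle⟩,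
      (hCE u v h0 huv h1).trans (mul_le_mul_of_nonneg_right ?_ hvu)⟩
    linarith [le_abs_self CE]
  · intro u h0 h1 ε hε
    have hall : ∀ k : Fin 12, ∀ᶠ n in (U : Filter ℕ), ∀ x ∈ I n, ∀ y ∈ I n,
        kc (lev n u) (f n u) y = kc (lev n u) (f n u) x →
        |coN B lev w w0 sa sb fl n x y k| ≤ B.d n ^ (rL (θ 0) (θ 1) w0 sa sb u k - ε) := by
      intro k
      filter_upwards [gR_T h hfr k h0 h1 (half_pos hε), cN_sc h hpr w0 sa sb k (half_pos hε)]
        with n a1 a2 x hx y hy hxy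
      rw [hco]
      calc cN B lev w w0 sa sb n k * P.d k n (fl n x) (fl n y)
          ≤ cN B lev w w0 sa sb n k * (sc k n * B.d n ^ (βL (θ 0) (θ 1) k * u - ε / 2)) :=
            mul_le_mul_of_nonneg_left (a1 x hx y hy hxy) (cN_pos B lev w w0 sa sb n k).le
        _ = (cN B lev w w0 sa sb n k * sc k n) * B.d n ^ (βL (θ 0) (θ 1) k * u - ε / 2) := by ring
        _ ≤ B.d n ^ (rL (θ 0) (θ 1) w0 sa sb 0 k - ε / 2) *
              B.d n ^ (βL (θ 0) (θ 1) k * u - ε / 2) :=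
            mul_le_mul_of_nonneg_right a2.2 (dpow_pos B n _).le
        _ = _ := by
            rw [← dpow_add, rL_lin (θ 0) (θ 1) w0 sa sb u k]
            congr 1; ring
    have hall' := Filter.eventually_all.2 hall
    filter_upwards [hall'] with n hn x hx y hy hxy k
    exact hn k x hx y hy hxy
  · intro v h0 h1
    unfold oL
    rw [if_pos (Or.inl rfl)]
    exact rL_zero_slot _ _ _ _ _ _
  · intro u h0 h1 ε hε
    have hall : ∀ k : Fin 12, ∀ᶠ n in (U : Filter ℕ), ∀ x ∈ I n, ∀ y ∈ I n,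
        lc (lev n u) y = lc (lev n u) x →
        |coN B lev w w0 sa sb fl n x y k| ≤
          B.d n ^ (oL (θ 0) (θ 1) w0 sa sb R Vis u k - ε) := by
      intro k
      by_cases hk0 : k = 0
      · subst hk0
        have e0 : oL (θ 0) (θ 1) w0 sa sb R Vis (u : ℝ) 0 = w0 + u := by
          unfold oL; rw [if_pos (Or.inl rfl)]; exact rL_zero_slot _ _ _ _ _ _
        rw [e0]
        filter_upwards [ev_len h.mka h0 h1 hε] with n a1 x hx y hy hxy
        simp only [lc, Prod.mk.injEq] at hxy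
        have e1 : coN B lev w w0 sa sb fl n x y 0 =
            B.d n ^ w0 * ((2 : ℝ) ^ lev n 0 * (y.2 - x.2)) := by
          show cN B lev w w0 sa sb n 0 * coL (fl n x) (fl n y) 0 = _
          have e1 : cN B lev w w0 sa sb n 0 = (2 : ℝ) ^ lev n 0 * B.d n ^ w0 := rfl
          have e2 : coL (fl n x) (fl n y) 0 = (fl n y).z - (fl n x).z := rfl
          rw [e1, e2, hfl, hfl]
          ring
        rw [e1, abs_mul, abs_of_pos (dpow_pos B n _), abs_mul,
          abs_of_pos (by positivity : (0 : ℝ) < 2 ^ lev n 0)]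
        have e2 : w0 + (u : ℝ) - ε = w0 + ((u : ℝ) - ε) := by ring
        rw [e2, dpow_add]
        refine mul_le_mul_of_nonneg_left ?_ (dpow_pos B n _).le
        exact (mul_le_mul_of_nonneg_left (zc_eq_sub hxy.2) (by positivity)).trans a1.2
      · by_cases hv : Vis k
        · have e0 : oL (θ 0) (θ 1) w0 sa sb R Vis (u : ℝ) k - ε =
              rL (θ 0) (θ 1) w0 sa sb 0 k + βL (θ 0) (θ 1) k * u - ε := by
            unfold oL; rw [if_pos (Or.inr hv), rL_lin]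
          rw [e0]
          refine Crest.Agent.R136.PqG464.own_near_vis h
            (cu := fun n => cN B lev w w0 sa sb n k)
            (Eventually.of_forall fun n => (cN_pos B lev w w0 sa sb n k).le) ?_
            (Eventually.of_forall fun n x hx y hy _ => (hco k n x y).le) u h0 h1 ε hε
          intro ε' hε'
          filter_upwards [cN_sc h hpr w0 sa sb k hε'] with n hn using hn.2
        · have e0 : oL (θ 0) (θ 1) w0 sa sb R Vis (u : ℝ) k = R := by
            unfold oL; rw [if_neg (by tauto)]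
          rw [e0]
          refine Crest.Agent.R136.PqG464.own_near_inv (hinv k hv)
            (cu := fun n => cN B lev w w0 sa sb n k) (h0 := rL (θ 0) (θ 1) w0 sa sb 0 k)
            (Eventually.of_forall fun n => (cN_pos B lev w w0 sa sb n k).le) ?_
            (Eventually.of_forall fun n x hx y hy _ => (hco k n x y).le) (R - ε) u
          intro ε' hε'
          filter_upwards [cN_sc h hpr w0 sa sb k hε'] with n hn using hn.2
    have hall' := Filter.eventually_all.2 hall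
    filter_upwards [hall'] with n hn x hx y hy hxy k
    exact hn k x hx y hy hxy
  · intro k hk u h0 h1 ρ hρ
    obtain ⟨hv, hβ, C0, hC0, hR⟩ := htd k hk
    have e0 : oL (θ 0) (θ 1) w0 sa sb R Vis (u : ℝ) k =
        rL (θ 0) (θ 1) w0 sa sb 0 k + βL (θ 0) (θ 1) k * u := by
      unfold oL; rw [if_pos (Or.inr hv), rL_lin]
    rw [e0] at hρ
    refine Crest.Agent.R136.PqG464.tw_slot h.mka hR hβ hC0
      (cu := fun n => cN B lev w w0 sa sb n k) (h0 := rL (θ 0) (θ 1) w0 sa sb 0 k)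
      (Eventually.of_forall fun n => cN_pos B lev w w0 sa sb n k) ?_
      (Eventually.of_forall fun n x hx y hy _ => (hco k n x y).ge) u h0 h1 ρ hρ
    intro ε' hε'
    filter_upwards [cN_sc h hpr w0 sa sb k hε'] with n hn using hn.1

end pre

end Crest.Agent.R116.PL504
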