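import Crest.Agent.R116.Sd1_369
import Crest.Agent.R136.Lq6_196
import Crest.Agent.R116.Gd6_222
import Crest.Agent.R116.PL2_504
import Crest.Agent.R116.EvL1_504

/-!
# R116 (S0155), K side, STRONG D-MAX (helper369), part 2: the sample and the light chart

* `sd_gen` : from `ExtQ` + `CombQ` (both from 196's `l15Qc`) and the count of the points near `x` in
  the slots `V` only: `ν p + ν q - ν (p ⊔ q) ≤ c₀ + t` for all legal `p, q`, `q ≤ p` on `V`.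
* `comp_vf` : the composition of the light chart in the slots `z, C, X, N, P, F` only uses the flags of
  the first pair.
* `sd_light` : the instance for 504's `coN`, with the hypothesis = 222's `gDS_T`.
-/

set_option autoImplicit false
set_option linter.unusedVariables false
set_option linter.unusedSectionVars false

open Finset Filter Topology

namespace Crest.Agent.R116.Sd369

open Crest.Agent.R138.Ex926
open Crest.Agent.R138.Mk163 (zc zl rho alive)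
open Crest.Agent.R138.MkRef627 (lc kc)
open Crest.Agent.R138.Dp76 (dpow_pos dpow_add dpow_le)
open Crest.Agent.R136.MkA627
open Crest.Agent.R136.Net191
open Crest.Agent.R136.Lq196

section gen

variable {m : ℕ} {B : Base} {I0 I' : ℕ → Finset (ℕ × ℝ)}
    {co : ∀ n : ℕ, ℕ × ℝ → ℕ × ℝ → Fin m → ℝ} {M : Mons m} {C R : ℝ} {kz : Fin m} {w0 s : ℝ}
    {PD : Set (Fin m → ℝ)} {D : (Fin m → ℝ) → ℝ} {r o : ℝ → Fin m → ℝ} {E : ℝ → ℝ}
    {T : Fin m → Prop} {ν own : (Fin m → ℝ) → ℝ} {c₀ : ℝ} {lev : ℕ → ℚ → ℕ} {N0 : ℕ → ℝ}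

set_option maxHeartbeats 1000000 in
open Classical in
/-- **strong D-max on the sample, any chart** -/
theorem sd_gen (hx : ExtQ B I0 I' co M C R kz w0 s PD D r o E T ν own c₀) (hR : 0 ≤ R)
    (hc : CombQ B I0 I' lev co M C R N0 c₀) (V : Fin m → Prop) {p q : Fin m → ℝ}
    (hp : p ∈ Leg M R) (hq : q ∈ Leg M R) (hpq : ∀ k, V k → q k ≤ p k)
    (hcomp : ∀ K : ℝ, 1 ≤ K → ∃ K' : ℝ, 1 ≤ K' ∧ ∀ n, ∀ i ∈ I0 n, ∀ j ∈ I0 n, ∀ l ∈ I0 n,
      Near (co n) (B.d n) q K i j → (∀ k, V k → |co n j l k| ≤ K * B.d n ^ q k) →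
        ∀ k, V k → |co n i l k| ≤ K' * B.d n ^ q k) {t : ℝ}
    (hcount : ∀ K : ℝ, 1 ≤ K → ∀ ε : ℝ, 0 < ε → ∀ᶠ n in (U : Filter ℕ), ∀ x ∈ I0 n,
      (((I0 n).filter fun y => ∀ k, V k → |co n x y k| ≤ K * B.d n ^ q k).card : ℝ) ≤
        N0 n * B.d n ^ (-(t + ε))) :
    ν p + ν q - ν (p ⊔ q) ≤ c₀ + t := by
  have hC : 0 ≤ C := (hx.chart 0).C0
  have hK0 : 1 ≤ cK0 M C := cK0_one hC
  have hT1 : cK0 M C ≤ triC M C (cK0 M C) := triC_ge hC hK0
  have hT : 1 ≤ triC M C (cK0 M C) := hK0.trans hT1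
  obtain ⟨K', hK', hK2⟩ := hcomp _ hT
  have hsub := hx.sub
  have hJ : QJoin B I' (nlab B I0 co M C) (Leg M R) :=
    (net_QJoin hx.chart (fun p hp => hp.1)).mono (Eventually.of_forall hsub) Set.Subset.rfl
  refine sd_core hx.prof hJ hx.ne hp hq (Leg.sup hp hq) fun ε hε => ?_
  obtain ⟨K, hKa, hKb, -⟩ := hc
  have hε3 : 0 < ε / 3 := by positivity
  filter_upwards [hKa _ hε3, hKb, hcount K' hK' _ hε3, B.ev_const_log (Real.log 16) hε3]
    with n a1 a2 a3 a4 i hi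
  obtain ⟨k0, k1, -⟩ := a1
  have hKn : (0:ℝ) < K n := by exact_mod_cast k0
  have hd := B.pos n
  have hd1 := (B.lt n).le
  have hiI := hsub n hi
  have b1 := a2 (two (I' n) (nlab B I0 co M C n q) (nlab B I0 co M C n p) i)
    (filter_subset _ _)
    ((I0 n).filter fun y => ∀ k, V k → |co n i y k| ≤ K' * B.d n ^ q k) (filter_subset _ _)
    (fun x hxx y hy hxy _ => by
      obtain ⟨x1, j, j1, j2, j3⟩ := mem_two.1 hxx
      rw [mem_filter]
      refine ⟨hy, ?_⟩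
      have hjI := hsub n j1
      have hxI := hsub n x1
      -- i ~ j at q
      have e1 := near_of_nlab hx.chart hq.1 hiI hjI j2.symm
      -- j ~ x at p
      have e2 := near_of_nlab hx.chart hp.1 hjI hxI j3.symm
      -- x ~ y at the top
      have e3 := near_of_nlab hx.chart (top_Leg M hR).1 hxI hy hxy.symm
      have e4 := e3.anti hd hd1 (by linarith) (p := p) hp.2
      have e5 := (hx.chart n).tri hp.1 hd hd1 hK0 hjI hxI hy e2 e4
      refine hK2 n i hiI j hjI y hy (e1.mono hd hT1) fun k hk => ?_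
      refine (e5 k).trans (mul_le_mul_of_nonneg_left ?_ (by linarith))
      exact Real.rpow_le_rpow_of_exponent_ge hd hd1 (hpq k hk))
  have b2 : (K n : ℝ) * ((two (I' n) (nlab B I0 co M C n q) (nlab B I0 co M C n p) i).card : ℝ) ≤
      16 * (((I0 n).filter fun y => ∀ k, V k → |co n i y k| ≤ K' * B.d n ^ q k).card : ℝ) := by
    exact_mod_cast b1
  have b3 := a3 i hiI
  have h16 : (16 : ℝ) ≤ B.d n ^ (-(ε / 3)) := by
    rw [← B.exp_eq, ← Real.log_le_iff_le_exp (by norm_num)]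
    exact a4
  have dp := fun a => dpow_pos B n a
  have b4 : (K n : ℝ) * ((two (I' n) (nlab B I0 co M C n q) (nlab B I0 co M C n p) i).card : ℝ) ≤
      K n * B.d n ^ (-(c₀ + t + ε)) := by
    calc _ ≤ 16 * (((I0 n).filter fun y => ∀ k, V k → |co n i y k| ≤
          K' * B.d n ^ q k).card : ℝ) := b2
      _ ≤ B.d n ^ (-(ε / 3)) * (N0 n * B.d n ^ (-(t + ε / 3))) :=
          mul_le_mul h16 b3 (Nat.cast_nonneg _) (dp _).le
      _ ≤ B.d n ^ (-(ε / 3)) * ((K n * B.d n ^ (-(c₀ + ε / 3))) * B.d n ^ (-(t + ε / 3))) :=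
          mul_le_mul_of_nonneg_left (mul_le_mul_of_nonneg_right k1 (dp _).le) (dp _).le
      _ = K n * (B.d n ^ (-(ε / 3)) * B.d n ^ (-(c₀ + ε / 3)) * B.d n ^ (-(t + ε / 3))) := by ring
      _ = K n * B.d n ^ (-(c₀ + t + ε)) := by
          rw [← dpow_add, ← dpow_add]
          congr 2
          ring
  exact le_of_mul_le_mul_left b4 hKn

end gen

/-! ### the light chart -/

section light

open Crest.Agent.R116.ChL222
open Crest.Agent.R116.PL504 (uL cN coN)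
open Crest.Agent.R116.EvL504
open Crest.Agent.R116.LZg725
open Crest.Agent.R116.Gd222 (Vf NearS TSet)

variable {d K : ℝ}

theorem mo1 (hd : 0 < d) (hd1 : d ≤ 1) (hK : 1 ≤ K) {x α γ : ℝ} (hx : |x| ≤ K * d ^ α)
    (h : γ ≤ α) : |x| ≤ K ^ 4 * d ^ γ := by
  refine hx.trans (mul_le_mul ?_ (Real.rpow_le_rpow_of_exponent_ge hd hd1 h)
    (Real.rpow_nonneg hd.le _) (by positivity))
  calc K = K ^ 1 := (pow_one K).symm
    _ ≤ K ^ 4 := pow_le_pow_right₀ hK (by norm_num)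

theorem mo2 (hd : 0 < d) (hd1 : d ≤ 1) (hK : 1 ≤ K) {x y α β γ : ℝ} (hx : |x| ≤ K * d ^ α)
    (hy : |y| ≤ K * d ^ β) (h : γ ≤ α + β) : |x * y| ≤ K ^ 4 * d ^ γ := by
  rw [abs_mul]
  calc |x| * |y| ≤ (K * d ^ α) * (K * d ^ β) :=
        mul_le_mul hx hy (abs_nonneg _) ((abs_nonneg _).trans hx)
    _ = K ^ 2 * d ^ (α + β) := by rw [Real.rpow_add hd]; ring
    _ ≤ K ^ 4 * d ^ γ := mul_le_mul (pow_le_pow_right₀ hK (by norm_num))
        (Real.rpow_le_rpow_of_exponent_ge hd hd1 h) (Real.rpow_nonneg hd.le _) (by positivity)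

theorem mo3 (hd : 0 < d) (hd1 : d ≤ 1) (hK : 1 ≤ K) {x y z α β δ γ : ℝ} (hx : |x| ≤ K * d ^ α)
    (hy : |y| ≤ K * d ^ β) (hz : |z| ≤ K * d ^ δ) (h : γ ≤ α + β + δ) :
    |x * (y * z)| ≤ K ^ 4 * d ^ γ := by
  rw [abs_mul, abs_mul]
  calc |x| * (|y| * |z|) ≤ (K * d ^ α) * ((K * d ^ β) * (K * d ^ δ)) :=
        mul_le_mul hx (mul_le_mul hy hz (abs_nonneg _) ((abs_nonneg _).trans hy)) (by positivity)
          ((abs_nonneg _).trans hx)
    _ = K ^ 3 * d ^ (α + β + δ) := by rw [Real.rpow_add hd, Real.rpow_add hd]; ring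
    _ ≤ K ^ 4 * d ^ γ := mul_le_mul (pow_le_pow_right₀ hK (by norm_num))
        (Real.rpow_le_rpow_of_exponent_ge hd hd1 h) (Real.rpow_nonneg hd.le _) (by positivity)

theorem mo4 (hd : 0 < d) (hd1 : d ≤ 1) (hK : 1 ≤ K) {w x y z α β δ ζ γ : ℝ}
    (hw : |w| ≤ K * d ^ ζ) (hx : |x| ≤ K * d ^ α)
    (hy : |y| ≤ K * d ^ β) (hz : |z| ≤ K * d ^ δ) (h : γ ≤ ζ + (α + (β + δ))) :
    |w * (x * (y * z))| ≤ K ^ 4 * d ^ γ := by
  rw [abs_mul, abs_mul, abs_mul]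
  calc |w| * (|x| * (|y| * |z|)) ≤ (K * d ^ ζ) * ((K * d ^ α) * ((K * d ^ β) * (K * d ^ δ))) :=
        mul_le_mul hw (mul_le_mul hx (mul_le_mul hy hz (abs_nonneg _) ((abs_nonneg _).trans hy))
          (by positivity) ((abs_nonneg _).trans hx)) (by positivity) ((abs_nonneg _).trans hw)
    _ = K ^ 4 * d ^ (ζ + (α + (β + δ))) := by
        rw [Real.rpow_add hd, Real.rpow_add hd, Real.rpow_add hd]; ring
    _ ≤ K ^ 4 * d ^ γ := mul_le_mul_of_nonneg_left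
        (Real.rpow_le_rpow_of_exponent_ge hd hd1 h) (by positivity)

set_option maxHeartbeats 1000000 in
/-- **the composition law in the visible slots uses only the flags of the first pair** -/
theorem comp_vf (hd : 0 < d) (hd1 : d ≤ 1) (hK : 1 ≤ K) {q : Fin 12 → ℝ} (hq : Legal monL q)
    {a c : Fin 12 → ℝ} (ha : ∀ k, |a k| ≤ K * d ^ q k) (hc : ∀ k, Vf k → |c k| ≤ K * d ^ q k) :
    ∀ k, Vf k → |comp a c k| ≤ 20 * K ^ 4 * d ^ q k := by
  obtain ⟨hn, w2, w5, w6, w7, w7', w8, w8', w9, w9', w10, w10', w10'', w11, w11', w11'', w11'''⟩ :=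
    legalL_iff.1 hq
  have c0 := hc 0 (by decide)
  have c3 := hc 3 (by decide)
  have c4 := hc 4 (by decide)
  have c5 := hc 5 (by decide)
  have c6 := hc 6 (by decide)
  have c9 := hc 9 (by decide)
  have c10 := hc 10 (by decide)
  have c11 := hc 11 (by decide)
  have hP : ∀ k, 0 ≤ K ^ 4 * d ^ q k := fun k => by positivity
  intro k hk
  have M1 := fun {x α γ : ℝ} (hx : |x| ≤ K * d ^ α) (h : γ ≤ α) => abs_le.1 (mo1 hd hd1 hK hx h)
  have M2 := fun {x y α β γ : ℝ} (hx : |x| ≤ K * d ^ α) (hy : |y| ≤ K * d ^ β)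
    (h : γ ≤ α + β) => abs_le.1 (mo2 hd hd1 hK hx hy h)
  have M3 := fun {x y z α β δ γ : ℝ} (hx : |x| ≤ K * d ^ α) (hy : |y| ≤ K * d ^ β)
    (hz : |z| ≤ K * d ^ δ) (h : γ ≤ α + β + δ) => abs_le.1 (mo3 hd hd1 hK hx hy hz h)
  have M4 := fun {w x y z α β δ ζ γ : ℝ} (hw : |w| ≤ K * d ^ ζ) (hx : |x| ≤ K * d ^ α)
    (hy : |y| ≤ K * d ^ β) (hz : |z| ≤ K * d ^ δ) (h : γ ≤ ζ + (α + (β + δ))) =>
    abs_le.1 (mo4 hd hd1 hK hw hx hy hz h)
  fin_cases k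
  · have e : comp a c 0 = a 0 + c 0 := rfl
    show |comp a c 0| ≤ 20 * K ^ 4 * d ^ q 0
    rw [e, mul_assoc]
    have t1 := M1 (ha 0) le_rfl
    have t2 := M1 c0 le_rfl
    have := hP 0
    rw [abs_le]; constructor <;> linarith [t1.1, t1.2, t2.1, t2.2]
  · exact absurd rfl hk.1
  · exact absurd rfl hk.2.1
  · have e : comp a c 3 = a 3 + c 3 := rfl
    show |comp a c 3| ≤ 20 * K ^ 4 * d ^ q 3
    rw [e, mul_assoc]
    have t1 := M1 (ha 3) le_rfl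
    have t2 := M1 c3 le_rfl
    have := hP 3
    rw [abs_le]; constructor <;> linarith [t1.1, t1.2, t2.1, t2.2]
  · have e : comp a c 4 = a 4 + c 4 := rfl
    show |comp a c 4| ≤ 20 * K ^ 4 * d ^ q 4
    rw [e, mul_assoc]
    have t1 := M1 (ha 4) le_rfl
    have t2 := M1 c4 le_rfl
    have := hP 4
    rw [abs_le]; constructor <;> linarith [t1.1, t1.2, t2.1, t2.2]
  · have e : comp a c 5 = a 5 + c 5 - a 0 * c 3 := rfl
    show |comp a c 5| ≤ 20 * K ^ 4 * d ^ q 5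
    rw [e, mul_assoc]
    have t1 := M1 (ha 5) le_rfl
    have t2 := M1 c5 le_rfl
    have t3 := M2 (ha 0) c3 w5
    have := hP 5
    rw [abs_le]; constructor <;> linarith [t1.1, t1.2, t2.1, t2.2, t3.1, t3.2]
  · have e : comp a c 6 = a 6 + c 6 - a 0 * c 4 := rfl
    show |comp a c 6| ≤ 20 * K ^ 4 * d ^ q 6
    rw [e, mul_assoc]
    have t1 := M1 (ha 6) le_rfl
    have t2 := M1 c6 le_rfl
    have t3 := M2 (ha 0) c4 w6
    have := hP 6
    rw [abs_le]; constructor <;> linarith [t1.1, t1.2, t2.1, t2.2, t3.1, t3.2]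
  · exact absurd rfl hk.2.2.1
  · exact absurd rfl hk.2.2.2
  · have e : comp a c 9 = a 9 + c 9 - 1 / 2 * (a 0 * (c 3 * c 3)) - 1 / 2 * (a 0 * (c 4 * c 4)) +
        a 3 * c 5 - a 3 * (a 0 * c 3) + a 4 * c 6 - a 4 * (a 0 * c 4) := by
      show a 9 + c 9 - a 0 * ((c 3 ^ 2 + c 4 ^ 2) / 2) + a 3 * (c 5 - a 0 * c 3) +
        a 4 * (c 6 - a 0 * c 4) = _
      ring
    show |comp a c 9| ≤ 20 * K ^ 4 * d ^ q 9
    rw [e, mul_assoc]
    have t1 := M1 (ha 9) le_rfl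
    have t2 := M1 c9 le_rfl
    have t3 := M3 (γ := q 9) (ha 0) c3 c3 (by linarith)
    have t4 := M3 (γ := q 9) (ha 0) c4 c4 (by linarith)
    have t5 := M2 (γ := q 9) (ha 3) c5 (by linarith)
    have t6 := M3 (γ := q 9) (ha 3) (ha 0) c3 (by linarith)
    have t7 := M2 (γ := q 9) (ha 4) c6 (by linarith)
    have t8 := M3 (γ := q 9) (ha 4) (ha 0) c4 (by linarith)
    have := hP 9
    rw [abs_le]
    constructor <;> linarith [t1.1, t1.2, t2.1, t2.2, t3.1, t3.2, t4.1, t4.2, t5.1, t5.2, t6.1,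
      t6.2, t7.1, t7.2, t8.1, t8.2]
  · have e : comp a c 10 = a 10 + c 10 - a 7 * c 3 - a 8 * c 4 - 1 / 2 * (a 2 * (c 3 * c 3)) -
        1 / 2 * (a 2 * (c 4 * c 4)) - 2 * (a 1 * (c 5 * c 3)) - 2 * (a 1 * (c 6 * c 4)) +
        2 * (a 1 * c 9) := by
      show a 10 + c 10 - a 7 * c 3 - a 8 * c 4 - a 2 * ((c 3 ^ 2 + c 4 ^ 2) / 2) -
        2 * (a 1 * (c 5 * c 3 + c 6 * c 4 - c 9)) = _
      ring
    show |comp a c 10| ≤ 20 * K ^ 4 * d ^ q 10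
    rw [e, mul_assoc]
    have t1 := M1 (ha 10) le_rfl
    have t2 := M1 c10 le_rfl
    have t3 := M2 (γ := q 10) (ha 7) c3 (by linarith)
    have t4 := M2 (γ := q 10) (ha 8) c4 (by linarith)
    have t5 := M3 (γ := q 10) (ha 2) c3 c3 (by linarith)
    have t6 := M3 (γ := q 10) (ha 2) c4 c4 (by linarith)
    have t7 := M3 (γ := q 10) (ha 1) c5 c3 (by linarith)
    have t8 := M3 (γ := q 10) (ha 1) c6 c4 (by linarith)
    have t9 := M2 (γ := q 10) (ha 1) c9 (by linarith)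
    have := hP 10
    rw [abs_le]
    constructor <;> linarith [t1.1, t1.2, t2.1, t2.2, t3.1, t3.2, t4.1, t4.2, t5.1, t5.2, t6.1,
      t6.2, t7.1, t7.2, t8.1, t8.2, t9.1, t9.2]
  · have e : comp a c 11 = a 11 + c 11 - a 0 * c 10 - a 7 * c 5 + a 7 * (a 0 * c 3) - a 8 * c 6 +
        a 8 * (a 0 * c 4) - a 2 * c 9 + 1 / 2 * (a 2 * (a 0 * (c 3 * c 3))) +
        1 / 2 * (a 2 * (a 0 * (c 4 * c 4))) - a 1 * (c 5 * c 5) - a 1 * (c 6 * c 6) +
        2 * (a 1 * (a 0 * (c 5 * c 3))) + 2 * (a 1 * (a 0 * (c 6 * c 4))) -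
        2 * (a 1 * (a 0 * c 9)) := by
      show a 11 + c 11 - a 0 * c 10 - a 7 * (c 5 - a 0 * c 3) - a 8 * (c 6 - a 0 * c 4) -
        a 2 * (c 9 - a 0 * ((c 3 ^ 2 + c 4 ^ 2) / 2)) -
        a 1 * (c 5 ^ 2 + c 6 ^ 2 - 2 * (a 0 * (c 5 * c 3 + c 6 * c 4 - c 9))) = _
      ring
    show |comp a c 11| ≤ 20 * K ^ 4 * d ^ q 11
    rw [e, mul_assoc]
    have t1 := M1 (ha 11) le_rfl
    have t2 := M1 c11 le_rfl
    have t3 := M2 (γ := q 11) (ha 0) c10 (by linarith)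
    have t4 := M2 (γ := q 11) (ha 7) c5 (by linarith)
    have t5 := M3 (γ := q 11) (ha 7) (ha 0) c3 (by linarith)
    have t6 := M2 (γ := q 11) (ha 8) c6 (by linarith)
    have t7 := M3 (γ := q 11) (ha 8) (ha 0) c4 (by linarith)
    have t8 := M2 (γ := q 11) (ha 2) c9 (by linarith)
    have t9 := M4 (γ := q 11) (ha 2) (ha 0) c3 c3 (by linarith)
    have t10 := M4 (γ := q 11) (ha 2) (ha 0) c4 c4 (by linarith)
    have t11 := M3 (γ := q 11) (ha 1) c5 c5 (by linarith)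
    have t12 := M3 (γ := q 11) (ha 1) c6 c6 (by linarith)
    have t13 := M4 (γ := q 11) (ha 1) (ha 0) c5 c3 (by linarith)
    have t14 := M4 (γ := q 11) (ha 1) (ha 0) c6 c4 (by linarith)
    have t15 := M3 (γ := q 11) (ha 1) (ha 0) c9 (by linarith)
    have := hP 11
    rw [abs_le]
    constructor <;> linarith [t1.1, t1.2, t2.1, t2.2, t3.1, t3.2, t4.1, t4.2, t5.1, t5.2, t6.1,
      t6.2, t7.1, t7.2, t8.1, t8.2, t9.1, t9.2, t10.1, t10.2, t11.1, t11.2, t12.1, t12.2, t13.1,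
      t13.2, t14.1, t14.2, t15.1, t15.2]

/-- 504's normalised chart satisfies the composition law -/
theorem coc_N (B : Base) (lev : ℕ → ℚ → ℕ) (w : Fin 2 → ℕ → ℚ → ℝ) (w0 sa sb : ℝ)
    (fl : ℕ → ℕ × ℝ → LInc) (n : ℕ) : Coc (coN B lev w w0 sa sb fl n) := by
  have h1 : (2:ℝ) ^ lev n 0 * B.d n ^ w0 ≠ 0 := (mul_pos (by positivity) (dpow_pos B n _)).ne'
  have h2 : B.d n ^ sa / PL504.ps (w 0 n 1 / rho (lev n 1)) ≠ 0 :=
    (div_pos (dpow_pos B n _) (PL504.ps_pos _)).ne'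
  exact (Coc.coL (fl n)).unit _ h1 h2

variable {B : Base} {I0 I' : ℕ → Finset (ℕ × ℝ)} {lev : ℕ → ℚ → ℕ} {w : Fin 2 → ℕ → ℚ → ℝ}
    {w0 sa sb : ℝ} {fl : ℕ → ℕ × ℝ → LInc} {C R w0' s s' : ℝ} {kz : Fin 12}
    {PD : Set (Fin 12 → ℝ)} {D : (Fin 12 → ℝ) → ℝ} {r o : ℝ → Fin 12 → ℝ} {E : ℝ → ℝ}
    {T : Fin 12 → Prop} {ν own : (Fin 12 → ℝ) → ℝ} {c₀ : ℝ} {N0 : ℕ → ℝ}

open Classical in
/-- **STRONG D-MAX of the light chart** (120's (SD), 878's geometric D-max) : `hcount` = 222's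
`gDS_T`. -/
theorem sd_light
    (hx : ExtQ B I0 I' (coN B lev w w0 sa sb fl) monL C R kz w0' s PD D r o E T ν own c₀)
    (hR : 0 ≤ R) (hc : CombQ B I0 I' lev (coN B lev w w0 sa sb fl) monL C R N0 c₀)
    {p q : Fin 12 → ℝ} (hp : p ∈ Leg monL R) (hq : q ∈ Leg monL R) (hpq : ∀ k, Vf k → q k ≤ p k)
    {t : ℝ} (hcount : ∀ K : ℝ, 1 ≤ K → ∀ ε : ℝ, 0 < ε → ∀ᶠ n in (U : Filter ℕ), ∀ x ∈ I0 n,
      (((I0 n).filter fun y => NearS (coN B lev w w0 sa sb fl n) (B.d n) q K x y).card : ℝ) ≤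
        N0 n * B.d n ^ (-(t + ε))) :
    ν p + ν q - ν (p ⊔ q) ≤ c₀ + t := by
  refine sd_gen hx hR hc Vf hp hq hpq (fun K hK => ⟨20 * K ^ 4, ?_, ?_⟩) fun K hK ε hε => ?_
  · have : (1:ℝ) ≤ K ^ 4 := one_le_pow₀ hK
    linarith
  · intro n i _ j _ l _ h1 h2 k hk
    rw [(coc_N B lev w w0 sa sb fl n).add i j l]
    exact comp_vf (B.pos n) (B.lt n).le hK hq.1 h1 h2 k hk
  · filter_upwards [hcount K hK ε hε] with n hn x hxn
    convert hn x hxn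
    rfl

/-- **STRONG D-MAX of the light chart**, all inputs plugged: `hM`, `h`, `hwid`, `hk` are the
hypotheses of 222's `gDS_T` (on the family `I` of the window), `hx`, `hc` = 196's `l15Qc`. -/
theorem sd_T {I : ℕ → Finset (ℕ × ℝ)} {G : Geo TSet (Fin 2)} {A : ℕ → ℝ} {g : ℝ} {θ : Fin 2 → ℝ}
    {f : ℕ → ℚ → ℕ → ℤ → ℕ} {b : ℕ → ℚ → ℕ → TSet} {vm : ℕ → ℚ → ℝ} {qv : Fin 2 → ℝ}
    {M0 c0 Rg ϑ : ℝ}
    (hM : MkA B I G lev A (fun v => g * v) (fun v => s * v) (fun j v => θ j * (1 - v)) f b vm w)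
    (h : Gd222.LData B I G lev fl (Gd222.sN lev w) qv M0 c0 Rg ϑ)
    (hwid : ∀ j (t : TSet), G.wid j t = (1 / 2 : ℝ) ^ t.1 j) {k0 : ℝ}
    (hk : ∀ ε : ℝ, 0 < ε → ∀ᶠ n in (U : Filter ℕ),
      Gd222.sN lev w 1 n ≤ Gd222.sN lev w 0 n * B.d n ^ (k0 - ε))
    (hsub : ∀ n, I0 n ⊆ I n)
    (hx : ExtQ B I0 I' (coN B lev w w0 sa sb fl) monL C R kz w0' s' PD D r o E T ν own c₀)
    (hR : 0 ≤ R) (hc : CombQ B I0 I' lev (coN B lev w w0 sa sb fl) monL C R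
      (fun n => A n * vm n 0 * B.d n ^ (-(1 - s))) c₀)
    {p q : Fin 12 → ℝ} (hp : p ∈ Leg monL R) (hq : q ∈ Leg monL R)
    (hqD : q ∈ Gd222.PDS w0 sa sb Rg ϑ k0) (hpq : ∀ k, Vf k → q k ≤ p k) :
    ν p + ν q - ν (p ⊔ q) ≤ c₀ + Gd222.DT g s qv θ w0 sa sb q := by
  classical
  refine sd_light hx hR hc hp hq hpq fun K hK ε hε => ?_
  filter_upwards [Gd222.gDS_T hM h hwid hk w0 sa sb q hqD K hK ε hε] with n hn x hxn
  refine le_trans (Nat.cast_le.2 (Finset.card_le_card ?_)) (hn x (hsub n hxn))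
  exact Finset.filter_subset_filter _ (hsub n)

end light

end Crest.Agent.R116.Sd369
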