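import Crest.Agent.R116.Xd3_954
import Crest.Agent.R136.Qg2_926

/-!
# R116, [X-DIM] of K-TEXT II-c (helper954), part 4: one dimension in the window of 926

`dim_window` : in a window whose base points are near a natural box with margins (flags `D`, `E`
and the height may be anything), the velocity and the position components along the direction of the
flag of `s₀` are smaller than every power of `ρ = B'.d n`.
-/

set_option autoImplicit false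
set_option linter.unusedVariables false

open Finset Filter Topology

namespace Crest.Agent.R116.Xd954

open Crest.Agent.R138.Ex926
open Crest.Agent.R138
open Crest.Agent.R136.Net191
open Crest.Agent.R136.Qg926
open Crest.Agent.R116.ChL222

/-- direction of the flag -/
noncomputable def tau (l : LInc) (s : Fin 2) : ℝ := bb l s / Real.sqrt (bb l 0 ^ 2 + bb l 1 ^ 2)

theorem tau_sq {l : LInc} (h : 0 < bb l 0 ^ 2 + bb l 1 ^ 2) : tau l 0 ^ 2 + tau l 1 ^ 2 = 1 := by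
  unfold tau
  rw [div_pow, div_pow, Real.sq_sqrt h.le]
  field_simp

theorem tau_comb {l : LInc} (h : 1 / 4 ≤ bb l 0 ^ 2 + bb l 1 ^ 2) (u v : ℝ) :
    |tau l 0 * u + tau l 1 * v| ≤ 2 * |bb l 0 * u + bb l 1 * v| := by
  have h1 : 1 / 2 ≤ Real.sqrt (bb l 0 ^ 2 + bb l 1 ^ 2) := by
    refine Real.le_sqrt_of_sq_le ?_
    norm_num
    linarith
  have h0 : 0 < Real.sqrt (bb l 0 ^ 2 + bb l 1 ^ 2) := by linarith
  have e : tau l 0 * u + tau l 1 * v =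
      (bb l 0 * u + bb l 1 * v) / Real.sqrt (bb l 0 ^ 2 + bb l 1 ^ 2) := by
    unfold tau; field_simp
  rw [e, abs_div, abs_of_pos h0, div_le_iff₀ h0]
  have := abs_nonneg (bb l 0 * u + bb l 1 * v)
  nlinarith

section win

variable {W : Wnd 12 (fun _ => ℕ × ℝ)} {I : ℕ → Finset (ℕ × ℝ)} {lev : ℕ → ℚ → ℕ}
    {inc : ℕ → ℕ × ℝ → LInc} {σ : Fin 2 → ℕ → ℝ} {k0 ϑ w0 sa sb v t y δ : ℝ}

/-- **one dimension in the window** -/
theorem dim_window (ok : W.Ok) (hco : W.co = Gd222.coN W.B lev inc σ w0 sa sb)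
    (hI : ∀ᶠ n in (U : Filter ℕ), W.Cl n ⊆ I n) (hF : FlagE W.B I lev inc σ k0 ϑ)
    (hb : ∀ᶠ n in (U : Filter ℕ), ∀ x ∈ I n, 1 / 4 ≤ bb (inc n x) 0 ^ 2 + bb (inc n x) 1 ^ 2)
    (hm : Mrg k0 ϑ v t y δ)
    (hX : ∀ᶠ n in (U : Filter ℕ), ∀ k, 3 ≤ k → |W.X n k - PL504.nb w0 sa sb v t y k| ≤ δ / 2)
    (hX3 : ∀ᶠ n in (U : Filter ℕ), W.X n 3 = W.X n 4)
    (hX5 : ∀ᶠ n in (U : Filter ℕ), W.X n 5 = W.X n 6)
    (hk3 : W.kap 3 = W.kap 4) (hk5 : W.kap 5 = W.kap 6) (hw : Tendsto W.w U (𝓝 0)) (K : ℝ) :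
    ∀ᶠ n in (U : Filter ℕ), ∀ i ∈ W.Cl n, ∀ j ∈ W.Cl n,
      |tau (inc n (W.s₀ n)) 0 * W.crd n i j 3 + tau (inc n (W.s₀ n)) 1 * W.crd n i j 4| ≤
        W.B'.d n ^ K ∧
      |tau (inc n (W.s₀ n)) 0 * W.crd n i j 5 + tau (inc n (W.s₀ n)) 1 * W.crd n i j 6| ≤
        W.B'.d n ^ K := by
  have hδ := hm.pos
  have hδ2 : 0 < δ / 2 := by positivity
  have hK1 := ok.K0_one
  have hK0 : 0 ≤ W.K0 := by linarith
  have hwK : ∀ᶠ n in (U : Filter ℕ), W.w n * K < δ / 2 := by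
    have h1 : Tendsto (fun n => W.w n * K) U (𝓝 (0 * K)) := hw.mul_const K
    rw [zero_mul] at h1
    exact h1.eventually_lt_const hδ2
  -- the constants
  have key : ∀ s : Fin 12, ∀ᶠ n in (U : Filter ℕ),
      2 * (1 + 2 * W.K0) / W.kap s ≤ W.B.d n ^ (-(δ / 2)) := by
    intro s
    have hpos : 0 < 2 * (1 + 2 * W.K0) / W.kap s := div_pos (by positivity) (ok.kap s)
    filter_upwards [W.B.ev_const_log (Real.log (2 * (1 + 2 * W.K0) / W.kap s)) hδ2] with n hn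
    rw [← W.B.exp_eq, ← Real.log_le_iff_le_exp hpos]
    exact hn
  filter_upwards [ok.ev_good, hI, hb, hX, hX3, hX5, hwK, key 3, key 5,
    hF.dim_nat' w0 sa sb hm hK1] with n g hIn hbn hXn h34 h56 hwn k3 k5 hd i hi j hj
  have hD := W.B.pos n
  have hD1 := (W.B.lt n).le
  have hs0 := g.s0
  have near : ∀ i ∈ W.Cl n, ∀ j ∈ W.Cl n,
      Near (Gd222.coN W.B lev inc σ w0 sa sb n) (W.B.d n) (W.X n) W.K0 i j := by
    intro i hi j hj k
    have h1 := ok.near0 g hi hj k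
    rw [Pi.zero_apply, Real.rpow_zero, mul_one] at h1
    rw [← hco]
    exact h1
  have nij := near i hi j hj
  obtain ⟨a1, a2, -⟩ := hd (W.X n) hXn i (hIn hi) j nij
  obtain ⟨-, -, a3⟩ := hd (W.X n) hXn (W.s₀ n) (hIn hs0) i (near _ hs0 _ hi)
  have hbs := hbn _ (hIn hs0)
  have hpw : W.B.d n ^ (δ / 2) ≤ W.B'.d n ^ K := by
    rw [ok.cls.base n, ← Real.rpow_mul hD.le]
    exact Real.rpow_le_rpow_of_exponent_ge hD hD1 hwn.le
  -- one pair of slots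
  have fin : ∀ (s s' : Fin 12) (c : ℝ), W.X n s = c → W.X n s' = c → W.kap s = W.kap s' →
      2 * (1 + 2 * W.K0) / W.kap s ≤ W.B.d n ^ (-(δ / 2)) →
      |bb (inc n i) 0 * Gd222.coN W.B lev inc σ w0 sa sb n i j s +
        bb (inc n i) 1 * Gd222.coN W.B lev inc σ w0 sa sb n i j s'| ≤ W.B.d n ^ (c + δ) →
      |tau (inc n (W.s₀ n)) 0 * W.crd n i j s + tau (inc n (W.s₀ n)) 1 * W.crd n i j s'| ≤
        W.B'.d n ^ K := by
    intro s s' c hs hs' hkk hk ha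
    refine le_trans (tau_comb hbs _ _) ?_
    have hks := ok.kap s
    have hdc : 0 < W.B.d n ^ c := Real.rpow_pos_of_pos hD c
    have e1 : W.crd n i j s = Gd222.coN W.B lev inc σ w0 sa sb n i j s / (W.kap s * W.B.d n ^ c) := by
      unfold Wnd.crd; rw [hco, hs]
    have e2 : W.crd n i j s' =
        Gd222.coN W.B lev inc σ w0 sa sb n i j s' / (W.kap s * W.B.d n ^ c) := by
      unfold Wnd.crd; rw [hco, hs', hkk]
    have b1 := nij s
    have b2 := nij s'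
    rw [hs] at b1
    rw [hs'] at b2
    set u := Gd222.coN W.B lev inc σ w0 sa sb n i j s
    set u' := Gd222.coN W.B lev inc σ w0 sa sb n i j s'
    have e3 : bb (inc n (W.s₀ n)) 0 * u + bb (inc n (W.s₀ n)) 1 * u' =
        (bb (inc n i) 0 * u + bb (inc n i) 1 * u') -
          (bb (inc n i) 0 - bb (inc n (W.s₀ n)) 0) * u -
          (bb (inc n i) 1 - bb (inc n (W.s₀ n)) 1) * u' := by ring
    have h2δ : W.B.d n ^ (2 * δ) ≤ W.B.d n ^ δ :=
      Real.rpow_le_rpow_of_exponent_ge hD hD1 (by linarith)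
    have c1 : |(bb (inc n i) 0 - bb (inc n (W.s₀ n)) 0) * u| ≤
        W.B.d n ^ δ * (W.K0 * W.B.d n ^ c) := by
      rw [abs_mul]
      exact mul_le_mul ((a3 0).trans h2δ) b1 (abs_nonneg _) (Real.rpow_nonneg hD.le _)
    have c2 : |(bb (inc n i) 1 - bb (inc n (W.s₀ n)) 1) * u'| ≤
        W.B.d n ^ δ * (W.K0 * W.B.d n ^ c) := by
      rw [abs_mul]
      exact mul_le_mul ((a3 1).trans h2δ) b2 (abs_nonneg _) (Real.rpow_nonneg hD.le _)
    have c3 : |bb (inc n (W.s₀ n)) 0 * u + bb (inc n (W.s₀ n)) 1 * u'| ≤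
        (1 + 2 * W.K0) * (W.B.d n ^ δ * W.B.d n ^ c) := by
      rw [e3]
      have d1 := abs_sub ((bb (inc n i) 0 * u + bb (inc n i) 1 * u') -
          (bb (inc n i) 0 - bb (inc n (W.s₀ n)) 0) * u)
          ((bb (inc n i) 1 - bb (inc n (W.s₀ n)) 1) * u')
      have d2 := abs_sub (bb (inc n i) 0 * u + bb (inc n i) 1 * u')
          ((bb (inc n i) 0 - bb (inc n (W.s₀ n)) 0) * u)
      rw [Real.rpow_add hD] at ha
      nlinarith
    have e4 : bb (inc n (W.s₀ n)) 0 * W.crd n i j s + bb (inc n (W.s₀ n)) 1 * W.crd n i j s' =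
        (bb (inc n (W.s₀ n)) 0 * u + bb (inc n (W.s₀ n)) 1 * u') / (W.kap s * W.B.d n ^ c) := by
      rw [e1, e2]; ring
    rw [e4, abs_div, abs_of_pos (mul_pos hks hdc)]
    have e5 : 2 * (|bb (inc n (W.s₀ n)) 0 * u + bb (inc n (W.s₀ n)) 1 * u'| /
        (W.kap s * W.B.d n ^ c)) ≤ 2 * (1 + 2 * W.K0) / W.kap s * W.B.d n ^ δ := by
      rw [← mul_div_assoc, div_le_iff₀ (mul_pos hks hdc)]
      have e6 : 2 * (1 + 2 * W.K0) / W.kap s * W.B.d n ^ δ * (W.kap s * W.B.d n ^ c) =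
          2 * ((1 + 2 * W.K0) * (W.B.d n ^ δ * W.B.d n ^ c)) := by
        field_simp
      rw [e6]
      linarith
    refine e5.trans ?_
    calc 2 * (1 + 2 * W.K0) / W.kap s * W.B.d n ^ δ
        ≤ W.B.d n ^ (-(δ / 2)) * W.B.d n ^ δ :=
          mul_le_mul_of_nonneg_right hk (Real.rpow_nonneg hD.le _)
      _ = W.B.d n ^ (δ / 2) := by rw [← Real.rpow_add hD]; congr 1; ring
      _ ≤ _ := hpw
  exact ⟨fin 3 4 _ rfl h34.symm hk3 k3 (a1 0), fin 5 6 _ rfl h56.symm hk5 k5 (a2 0)⟩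

end win

/-! ### the inputs from 222's `LData` -/

theorem bb_sq (l : LInc) : bb l 0 ^ 2 + bb l 1 ^ 2 = ‖Gd222.vb l‖ ^ 2 := by
  unfold Gd222.vb
  rw [EuclideanSpace.norm_eq, Real.sq_sqrt (by positivity)]
  simp [bb, Fin.sum_univ_two]

section ldata

variable {B : Base} {I I1 : ℕ → Finset (ℕ × ℝ)} {G : Crest.Agent.R136.MkA627.Geo Gd222.TSet (Fin 2)}
    {lev : ℕ → ℚ → ℕ} {inc : ℕ → ℕ × ℝ → LInc} {σ : Fin 2 → ℕ → ℝ} {q : Fin 2 → ℝ}
    {M0 c0 Rg ϑ k0 : ℝ}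

theorem FlagE.of_LData (h : Gd222.LData B I1 G lev inc σ q M0 c0 Rg ϑ) (hsub : ∀ n, I n ⊆ I1 n)
    (hk : ∀ ε : ℝ, 0 < ε → ∀ᶠ n in (U : Filter ℕ), σ 1 n ≤ σ 0 n * B.d n ^ (k0 - ε)) :
    FlagE B I lev inc σ k0 ϑ where
  σp := h.σp
  he := fun ε hε => (h.he ε hε).mono fun n hn x hx => hn x (hsub n hx)
  hd := fun ε hε => (h.hd ε hε).mono fun n hn x hx => hn x (hsub n hx)
  hk := hk

theorem bb_ge_of_LData (h : Gd222.LData B I1 G lev inc σ q M0 c0 Rg ϑ)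
    (hsub : ∀ n, I n ⊆ I1 n) :
    ∀ᶠ n in (U : Filter ℕ), ∀ x ∈ I n, 1 / 4 ≤ bb (inc n x) 0 ^ 2 + bb (inc n x) 1 ^ 2 := by
  filter_upwards [h.hb] with n hn x hx
  have h1 := hn x (hsub n hx)
  rw [bb_sq]
  nlinarith

theorem FlagX.of (h : FlagE B I lev inc σ k0 ϑ) {a b : Fin 2} (hab : a ≠ b)
    (hbd : ∀ᶠ n in (U : Filter ℕ), ∀ x ∈ I n, |bb (inc n x) a| ≤ 2)
    (hbig : ∀ᶠ n in (U : Filter ℕ), ∀ x ∈ I n, 1 / 2 ≤ |bb (inc n x) b|) :
    FlagX B I lev inc σ k0 ϑ a b where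
  toFlagE := h
  ab := hab
  bd := hbd
  big := hbig

end ldata

end Crest.Agent.R116.Xd954
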