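import Crest.Agent.R116.Tw5_468
import Crest.Agent.R136.Lq6_196
import Crest.Agent.R116.Sd2_369
import Crest.Agent.R116.Xd4_954
import Crest.Agent.R116.PL3_504

/-!
# R116, top of II-c (helper468): the context of the rows

ONE application of 196's `l15Qc` to `OutT.preQ` / `OutR.preQ`; no `∃` inside the structures.

* **`CtxT G L r g s θ q Rg B I lev A f b vm w fr fl sc w0 sa sb R I0 I' ν own c₀`** : thin case.
  Fields `out` (K10), `Rg0`, `sh` (`∃ δ, Shift`), `sub0`, `pre`, `ext`, `comb`.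
* **`CtxR G L r g s θ q Rg a B I lev A f b vm w w0 sa sb R I0 I' ν own c₀`** : round case.
* **`OutT.ctx`**, **`OutR.ctx`** : `∃ I0 I' ν own c₀, Ctx`, for every shift.
* `CtxT.sd` (strong D-max, every `κ0`), `CtxT.dmax`, **`CtxT.extK`** (`ExtQ` with `PDL` of every
  `κ0`), `CtxT.fE`, **`CtxT.fX`** (954's `FlagE`, `FlagX`, every `κ0`, family `I'` or `I0`), `hD`,
  `hE`, `nb_PD` (natural boxes near the record are D-max boxes), `oz`, `oR`.

## which walls are visible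

Slots: `0 z | 1 D | 2 E | 3,4 C | 5,6 X | 7,8 B | 9 N | 10 P | 11 F`; exponents `βL (θ 0) (θ 1)`:
`β_z = 1`, `β_D = 2 θ 0 - θ 1 - 1`, `β_E = 2 θ 0 - θ 1`, `β_B = θ 0 - θ 1`.
`Vis k = ¬ InvT PL B I k fl (sc k)` : slot `k` is not constant along the lines (height `0` always
counts as visible in `oL`).  Walls = 222's `monL`: `0,1,3,4 : ∅`, `2 : z·D`, `5 : z·C1`, `6 : z·C2`,
`7 : E·C1, D·X1`, `8 : E·C2, D·X2`, ...
* `3,4,5,6,9,10,11` are EXACTLY `0` along a line (`ray_zero`), so invisible (`inv_ray`).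
* hence the third alternative of `OutT.cls` (product of visible slots) is impossible for `B` (both
  walls contain `C` or `X`) and for `D` (no wall); for `E` it says `D` visible (`E = z·D`; always
  `β_E = 1 + β_D`), and then `D` is tied.
* `OutT.clsD` : `D` InvT or tied;  `OutT.clsB` (`7`, `8`) : InvT or tied;
  `OutT.clsE` : InvT, or tied, or `D` tied.  `TieT k` contains `0 < β_k`.
* signs: `OutT.invB` (`θ 0 ≤ θ 1`), `OutT.invD` (`2 θ 0 ≤ θ 1 + 1`), `OutT.invE` (`2 θ 0 ≤ θ 1`);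
  **`CtxT.noVis`** : `B1, B2, E, D` InvT ⟹ `oL .. v k = R` for all `k ≠ 0` (hypothesis `ho` of
  337's `sig_all`).
-/

set_option autoImplicit false
set_option linter.unusedVariables false

open Finset Filter Topology

namespace Crest.Agent.R116.CtxB468

open Crest.Agent.R138.Defs (E2)
open Crest.Agent.R138.Ex926 (Base U)
open Crest.Agent.R136.MkA627
open Crest.Agent.R136.Net191
open Crest.Agent.R136.TD627
open Crest.Agent.R136.Lq196
open Crest.Agent.R116.LZg725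
open Crest.Agent.R116.ChL222
open Crest.Agent.R116.PL504 (βL eL rL oL Shift nb DN)
open Crest.Agent.R116.Gd222 (TSet sN PDL DT vb)
open Crest.Agent.R116.KI439
open Crest.Agent.R116.KF439 (PL Thin frF flF scN)
open Crest.Agent.R116.Rn899 (TwP)
open Crest.Agent.R116.Tw468

/-- `N0` : number of incidences of the unit box -/
noncomputable def N0T (B : Base) (s : ℝ) (A : ℕ → ℝ) (vm : ℕ → ℚ → ℝ) (n : ℕ) : ℝ :=
  A n * vm n 0 * B.d n ^ (-(1 - s))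

/-- slot not constant along the lines -/
def VisT (B : Base) (I : ℕ → Finset (ℕ × ℝ)) (fl : ℕ → ℕ × ℝ → LInc) (sc : Fin 12 → ℕ → ℝ)
    (k : Fin 12) : Prop := ¬ InvT PL B I k fl (sc k)

/-- tied slot -/
def TdT (θ : Fin 2 → ℝ) (B : Base) (I : ℕ → Finset (ℕ × ℝ)) (lev : ℕ → ℚ → ℕ)
    (fl : ℕ → ℕ × ℝ → LInc) (sc : Fin 12 → ℕ → ℝ) (k : Fin 12) : Prop :=
  ¬ InvT PL B I k fl (sc k) ∧ 0 < βL (θ 0) (θ 1) k ∧
    RotT PL B I lev k fl (sc k) (βL (θ 0) (θ 1) k) (fun u => βL (θ 0) (θ 1) k * u)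

/-- **context of the rows, thin case.** -/
structure CtxT (G : Geo TSet (Fin 2)) (L : ℕ → ℕ → LRay) (r : ℕ → ℝ) (g s : ℝ)
    (θ q : Fin 2 → ℝ) (Rg : ℝ) (B : Base) (I : ℕ → Finset (ℕ × ℝ)) (lev : ℕ → ℚ → ℕ) (A : ℕ → ℝ)
    (f : ℕ → ℚ → ℕ → ℤ → ℕ) (b : ℕ → ℚ → ℕ → TSet) (vm : ℕ → ℚ → ℝ) (w : Fin 2 → ℕ → ℚ → ℝ)
    (fr : ℕ → ℚ → ℕ × ℝ → LInc) (fl : ℕ → ℕ × ℝ → LInc) (sc : Fin 12 → ℕ → ℝ)
    (w0 sa sb δ R : ℝ) (I0 I' : ℕ → Finset (ℕ × ℝ)) (ν own : (Fin 12 → ℝ) → ℝ) (c₀ : ℝ) :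
    Prop where
  out : OutT G L r g s θ q Rg B I lev A f b vm w fr fl sc
  Rg0 : 0 < Rg
  sh : Shift (θ 0) (θ 1) w0 sa sb δ R
  sub0 : ∀ n, I0 n ⊆ I n
  pre : PreQ B I0 G lev A g s (fun j v => θ j * (1 - v)) f b vm w
    (PL504.coN B lev w w0 sa sb fl) monL 2 R 0 w0 (N0T B s A vm) (PDL w0 sa sb Rg 0 0 R)
    (DT g s q θ w0 sa sb) (rL (θ 0) (θ 1) w0 sa sb)
    (oL (θ 0) (θ 1) w0 sa sb R (VisT B I fl sc)) (EL θ g s q) (TdT θ B I lev fl sc)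
  ext : ExtQ B I0 I' (PL504.coN B lev w w0 sa sb fl) monL 2 R 0 w0 s (PDL w0 sa sb Rg 0 0 R)
    (DT g s q θ w0 sa sb) (rL (θ 0) (θ 1) w0 sa sb)
    (oL (θ 0) (θ 1) w0 sa sb R (VisT B I fl sc)) (EL θ g s q) (TdT θ B I lev fl sc) ν own c₀
  comb : CombQ B I0 I' lev (PL504.coN B lev w w0 sa sb fl) monL 2 R (N0T B s A vm) c₀

/-- **context of the rows, round case.** -/
structure CtxR (G : Geo TSet (Fin 2)) (L : ℕ → ℕ → LRay) (r : ℕ → ℝ) (g s : ℝ)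
    (θ q : Fin 2 → ℝ) (Rg : ℝ) (a : Fin 2) (B : Base) (I : ℕ → Finset (ℕ × ℝ)) (lev : ℕ → ℚ → ℕ)
    (A : ℕ → ℝ) (f : ℕ → ℚ → ℕ → ℤ → ℕ) (b : ℕ → ℚ → ℕ → TSet) (vm : ℕ → ℚ → ℝ)
    (w : Fin 2 → ℕ → ℚ → ℝ)
    (w0 sa sb δ R : ℝ) (I0 I' : ℕ → Finset (ℕ × ℝ)) (ν own : (Fin 12 → ℝ) → ℝ) (c₀ : ℝ) :
    Prop where
  out : OutR G L r g s θ q Rg a B I lev A f b vm w
  Rg0 : 0 < Rg
  sh : Shift (θ 0) (θ 1) w0 sa sb δ R
  sub0 : ∀ n, I0 n ⊆ I n
  pre : PreQ B I0 G lev A g s (fun j v => θ j * (1 - v)) f b vm w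
    (PL504.coN B lev w w0 sa sb (flF a L)) monL 2 R 0 w0 (N0T B s A vm) (PDL w0 sa sb Rg 0 0 R)
    (DT g s q θ w0 sa sb) (rL (θ 0) (θ 1) w0 sa sb)
    (oL (θ 0) (θ 1) w0 sa sb R fun k => k = 0) (EL θ g s q) (fun _ => False)
  ext : ExtQ B I0 I' (PL504.coN B lev w w0 sa sb (flF a L)) monL 2 R 0 w0 s
    (PDL w0 sa sb Rg 0 0 R) (DT g s q θ w0 sa sb) (rL (θ 0) (θ 1) w0 sa sb)
    (oL (θ 0) (θ 1) w0 sa sb R fun k => k = 0) (EL θ g s q) (fun _ => False) ν own c₀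
  comb : CombQ B I0 I' lev (PL504.coN B lev w w0 sa sb (flF a L)) monL 2 R (N0T B s A vm) c₀

section ctx

variable {G : Geo TSet (Fin 2)} {L : ℕ → ℕ → LRay} {r : ℕ → ℝ} {g s : ℝ} {θ q : Fin 2 → ℝ}
    {Rg : ℝ} {a : Fin 2} {B : Base}
    {I : ℕ → Finset (ℕ × ℝ)} {lev : ℕ → ℚ → ℕ} {A : ℕ → ℝ}
    {f : ℕ → ℚ → ℕ → ℤ → ℕ} {b : ℕ → ℚ → ℕ → TSet} {vm : ℕ → ℚ → ℝ} {w : Fin 2 → ℕ → ℚ → ℝ}
    {fr : ℕ → ℚ → ℕ × ℝ → LInc} {fl : ℕ → ℕ × ℝ → LInc} {sc : Fin 12 → ℕ → ℝ}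
    {w0 sa sb δ R : ℝ} {I0 I' : ℕ → Finset (ℕ × ℝ)} {ν own : (Fin 12 → ℝ) → ℝ} {c₀ : ℝ}

/-! ### producers -/

/-- **K10 ⊢ context, thin case** -/
theorem _root_.Crest.Agent.R116.Tw468.OutT.ctx
    (h : OutT G L r g s θ q Rg B I lev A f b vm w fr fl sc) (hRg : 0 < Rg)
    (sh : Shift (θ 0) (θ 1) w0 sa sb δ R) :
    ∃ (I0 I' : ℕ → Finset (ℕ × ℝ)) (ν own : (Fin 12 → ℝ) → ℝ) (c₀ : ℝ),
      CtxT G L r g s θ q Rg B I lev A f b vm w fr fl sc w0 sa sb δ R I0 I' ν own c₀ := by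
  obtain ⟨I0, I', ν, own, c₀, h1, h2, h3, h4⟩ := l15Qc (h.preQ hRg le_rfl sh)
  exact ⟨I0, I', ν, own, c₀, h, hRg, sh, h1, h2, h3, h4⟩

/-- **K10 ⊢ context, round case** -/
theorem _root_.Crest.Agent.R116.Tw468.OutR.ctx
    (h : OutR G L r g s θ q Rg a B I lev A f b vm w) (hRg : 0 < Rg)
    (sh : Shift (θ 0) (θ 1) w0 sa sb δ R) :
    ∃ (I0 I' : ℕ → Finset (ℕ × ℝ)) (ν own : (Fin 12 → ℝ) → ℝ) (c₀ : ℝ),
      CtxR G L r g s θ q Rg a B I lev A f b vm w w0 sa sb δ R I0 I' ν own c₀ := by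
  obtain ⟨I0, I', ν, own, c₀, h1, h2, h3, h4⟩ := l15Qc (h.preQ hRg sh)
  exact ⟨I0, I', ν, own, c₀, h, hRg, sh, h1, h2, h3, h4⟩

/-! ### elementary -/

/-- another set of D-max boxes -/
theorem ext_mono {m : ℕ} {co : ∀ n : ℕ, ℕ × ℝ → ℕ × ℝ → Fin m → ℝ} {M : Mons m} {C R w0 s : ℝ}
    {kz : Fin m} {PD PD' : Set (Fin m → ℝ)} {D : (Fin m → ℝ) → ℝ} {r o : ℝ → Fin m → ℝ}
    {E : ℝ → ℝ} {T : Fin m → Prop} {ν own : (Fin m → ℝ) → ℝ} {c₀ : ℝ}
    (h : ExtQ B I0 I' co M C R kz w0 s PD D r o E T ν own c₀)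
    (hd : ∀ p ∈ PD', ν p ≤ c₀ + D p) :
    ExtQ B I0 I' co M C R kz w0 s PD' D r o E T ν own c₀ :=
  { h with dmax := hd }

theorem bb_vb (l : LInc) (c : Fin 2) : Xd954.bb l c = vb l c := by
  fin_cases c <;> rfl

theorem DT_nb (v t y : ℝ) :
    DT g s q θ w0 sa sb (nb w0 sa sb v t y) = DN g s (q 0) (q 1) (θ 0) (θ 1) v t y := by
  unfold DT DN
  have e0 : nb w0 sa sb v t y 0 = w0 + v := rfl
  have e3 : nb w0 sa sb v t y 3 = sa + t := rfl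
  have e10 : nb w0 sa sb v t y 10 = sb + y := rfl
  rw [e0, e3, e10]
  ring

theorem EL_DN (v : ℝ) : EL θ g s q v =
    DN g s (q 0) (q 1) (θ 0) (θ 1) v (θ 0 * (1 - v)) (θ 1 * (1 - v)) := by
  rw [PL504.DN_rec]
  rfl

/-- height of the own exponents -/
theorem oz (Vis : Fin 12 → Prop) (v : ℝ) :
    oL (θ 0) (θ 1) w0 sa sb R Vis v 0 = w0 + v := by
  unfold oL
  rw [if_pos (Or.inl rfl)]
  rfl

/-- own exponents of an invisible slot -/
theorem oR {Vis : Fin 12 → Prop} {k : Fin 12} (hk : k ≠ 0) (hv : ¬ Vis k) (v : ℝ) :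
    oL (θ 0) (θ 1) w0 sa sb R Vis v k = R := by
  unfold oL
  rw [if_neg]
  rintro (h | h)
  · exact hk h
  · exact hv h

/-- own exponents of a visible slot -/
theorem oV {Vis : Fin 12 → Prop} {k : Fin 12} (hv : Vis k) (v : ℝ) :
    oL (θ 0) (θ 1) w0 sa sb R Vis v k = rL (θ 0) (θ 1) w0 sa sb v k := by
  unfold oL
  rw [if_pos (Or.inr hv)]

/-- natural boxes which are D-max boxes -/
theorem nb_PD {k0 v t y : ℝ} (hl : nb w0 sa sb v t y ∈ Leg monL R) (hv0 : 0 ≤ v) (hv1 : v ≤ 1)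
    (ht : 0 < t) (htR : t < Rg) (hy : |y| < Rg) (hk : t ≤ y + k0) :
    nb w0 sa sb v t y ∈ PDL w0 sa sb Rg 0 k0 R := by
  have e0 : nb w0 sa sb v t y 0 = w0 + v := rfl
  have e3 : nb w0 sa sb v t y 3 = sa + t := rfl
  have e4 : nb w0 sa sb v t y 4 = sa + t := rfl
  have e5 : nb w0 sa sb v t y 5 = (w0 + v) + (sa + t) := rfl
  have e6 : nb w0 sa sb v t y 6 = (w0 + v) + (sa + t) := rfl
  have e9 : nb w0 sa sb v t y 9 = (w0 + v) + 2 * (sa + t) := rfl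
  have e10 : nb w0 sa sb v t y 10 = sb + y := rfl
  have e11 : nb w0 sa sb v t y 11 = (w0 + v) + (sb + y) := rfl
  refine ⟨hl, ?_⟩
  rw [e0, e3, e4, e5, e6, e9, e10, e11]
  refine ⟨by linarith, by linarith, by linarith, by linarith, by linarith, ?_, by linarith,
    le_rfl, le_rfl, le_rfl, le_rfl, le_rfl⟩
  rwa [show sb + y - sb = y by ring]

/-! ### thin case -/

theorem CtxT.mka (h : CtxT G L r g s θ q Rg B I lev A f b vm w fr fl sc w0 sa sb δ R I0 I' ν own c₀) :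
    MkA B I0 G lev A (fun v => g * v) (fun v => s * v) (fun j v => θ j * (1 - v)) f b vm w :=
  h.pre.mka

theorem CtxT.sub' (h : CtxT G L r g s θ q Rg B I lev A f b vm w fr fl sc w0 sa sb δ R I0 I' ν own c₀)
    (n : ℕ) : I' n ⊆ I n := (h.ext.sub n).trans (h.sub0 n)

/-- **strong D-max** (369), every `κ0` -/
theorem CtxT.sd (h : CtxT G L r g s θ q Rg B I lev A f b vm w fr fl sc w0 sa sb δ R I0 I' ν own c₀)
    (κ0 : ℝ) {p p' : Fin 12 → ℝ} (hp : p ∈ Leg monL R) (hp' : p' ∈ Leg monL R)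
    (hD : p' ∈ Gd222.PDS w0 sa sb Rg 0 κ0) (hpp : ∀ k, Gd222.Vf k → p' k ≤ p k) :
    ν p + ν p' - ν (p ⊔ p') ≤ c₀ + DT g s q θ w0 sa sb p' := by
  have hR : 0 ≤ R := by
    have h1 := hp.1.nonneg 0
    have h2 := hp.2 0
    linarith
  exact Sd369.sd_T h.out.win.sys.mka h.out.win.dat h.out.win.isL.wid
    (hk_thin h.out.win.sys.mka h.out.thin κ0) h.sub0 h.ext hR h.comb hp hp' hD hpp

/-- **D-max**, every `κ0` -/
theorem CtxT.dmax (h : CtxT G L r g s θ q Rg B I lev A f b vm w fr fl sc w0 sa sb δ R I0 I' ν own c₀)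
    (κ0 : ℝ) : ∀ p ∈ PDL w0 sa sb Rg 0 κ0 R, ν p ≤ c₀ + DT g s q θ w0 sa sb p := by
  intro p hp
  have h1 := h.sd κ0 hp.1 hp.1 (Gd222.PDL_sub _ _ _ _ _ _ _ hp) (fun k _ => le_rfl)
  rw [sup_idem] at h1
  linarith

/-- **`ExtQ` with the D-max boxes of every `κ0`** -/
theorem CtxT.extK (h : CtxT G L r g s θ q Rg B I lev A f b vm w fr fl sc w0 sa sb δ R I0 I' ν own c₀)
    (κ0 : ℝ) :
    ExtQ B I0 I' (PL504.coN B lev w w0 sa sb fl) monL 2 R 0 w0 s (PDL w0 sa sb Rg 0 κ0 R)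
      (DT g s q θ w0 sa sb) (rL (θ 0) (θ 1) w0 sa sb)
      (oL (θ 0) (θ 1) w0 sa sb R (VisT B I fl sc)) (EL θ g s q) (TdT θ B I lev fl sc) ν own c₀ :=
  ext_mono h.ext (h.dmax κ0)

/-- 954's `FlagE` on every part of the family, every `κ0` -/
theorem CtxT.fE (h : CtxT G L r g s θ q Rg B I lev A f b vm w fr fl sc w0 sa sb δ R I0 I' ν own c₀)
    {J : ℕ → Finset (ℕ × ℝ)} (hJ : ∀ n, J n ⊆ I n) (κ0 : ℝ) :
    Xd954.FlagE B J lev fl (sN lev w) κ0 0 :=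
  Xd954.FlagE.of_LData h.out.win.dat hJ (hk_thin h.out.win.sys.mka h.out.thin κ0)

/-- 369's `FlagN` on every part of the family -/
theorem CtxT.fN (h : CtxT G L r g s θ q Rg B I lev A f b vm w fr fl sc w0 sa sb δ R I0 I' ν own c₀)
    {J : ℕ → Finset (ℕ × ℝ)} (hJ : ∀ n, J n ⊆ I n) : Bd369.FlagN B J fl (sN lev w) :=
  fun ε hε => (h.out.nrm ε hε).mono fun n hn x hx => hn x (hJ n hx)

/-- 710's `nrz` (margin `θ 1 - θ 0`) on every part of the family -/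
theorem CtxT.nz (h : CtxT G L r g s θ q Rg B I lev A f b vm w fr fl sc w0 sa sb δ R I0 I' ν own c₀)
    {J : ℕ → Finset (ℕ × ℝ)} (hJ : ∀ n, J n ⊆ I n) (h0 : 0 ≤ θ 0) :
    ∀ ε : ℝ, 0 < ε → ∀ᶠ n in (U : Filter ℕ), ∀ x ∈ J n,
      |Xd954.bb (fl n x) 0 ^ 2 + Xd954.bb (fl n x) 1 ^ 2 - 1| * sN lev w 0 n ≤
        sN lev w 1 n * B.d n ^ (θ 1 - θ 0 - ε) :=
  fun ε hε => (h.out.nrz h0 ε hε).mono fun n hn x hx => hn x (hJ n hx)

/-- the gradients of the flags have length `1`, on every part of the family -/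
theorem CtxT.n1 (h : CtxT G L r g s θ q Rg B I lev A f b vm w fr fl sc w0 sa sb δ R I0 I' ν own c₀)
    {J : ℕ → Finset (ℕ × ℝ)} (hJ : ∀ n, J n ⊆ I n) :
    ∀ᶠ n in (U : Filter ℕ), ∀ x ∈ J n,
      Xd954.bb (fl n x) 0 ^ 2 + Xd954.bb (fl n x) 1 ^ 2 = 1 :=
  h.out.nr1.mono fun n hn x hx => hn x (hJ n hx)

/-- **954's `FlagX`** on every part of the family, every `κ0`; one pair of axes -/
theorem CtxT.fX (h : CtxT G L r g s θ q Rg B I lev A f b vm w fr fl sc w0 sa sb δ R I0 I' ν own c₀) :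
    ∃ a b : Fin 2, ∀ J : ℕ → Finset (ℕ × ℝ), (∀ n, J n ⊆ I n) → ∀ κ0 : ℝ,
      Xd954.FlagX B J lev fl (sN lev w) κ0 0 a b := by
  obtain ⟨b, hb⟩ := h.out.ax
  have hab : 1 - b ≠ b := by fin_cases b <;> decide
  refine ⟨1 - b, b, fun J hJ κ0 => Xd954.FlagX.of (h.fE hJ κ0) hab ?_ ?_⟩
  · filter_upwards [hb] with n hn x hx
    rw [bb_vb]
    exact (hn x (hJ n hx)).2 _
  · filter_upwards [hb] with n hn x hx
    rw [bb_vb]
    exact (hn x (hJ n hx)).1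

/-! ### visibility, thin case -/

theorem monL_two_one {e : Fin 12 → ℕ} (he : e ∈ monL.mon 2) : e 1 ≠ 0 := by
  change e ∈ mfL 2 at he
  simp [mfL] at he
  subst he
  simp

theorem coL_ray {i j : LInc} (h : Gd222.rayL i = Gd222.rayL j) {k : Fin 12}
    (hk : k ∈ ({3, 4, 5, 6, 9, 10, 11} : Finset (Fin 12))) : coL i j k = 0 := by
  have e := Prod.mk.inj h
  have e1 : Gd222.vc i = Gd222.vc j := by
    have := e.1
    exact neg_injective this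
  have e2 := (Prod.mk.inj e.2).1
  have e3 := (Prod.mk.inj e.2).2
  have c1 : i.c1 = j.c1 := by
    have := congrArg (fun v : E2 => v 0) e1
    exact this
  have c2 : i.c2 = j.c2 := by
    have := congrArg (fun v : E2 => v 1) e1
    exact this
  have x1 : i.x1 = j.x1 := by
    have : i.p1 0 = j.p1 0 := congrArg (fun v : E2 => v 0) e2
    simpa [LInc.p1] using this
  have x2 : i.x2 = j.x2 := by
    have : i.p2 0 = j.p2 0 := congrArg (fun v : E2 => v 1) e2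
    simpa [LInc.p2] using this
  have p1 : ∀ s, j.p1 s = i.p1 s := fun s => by unfold LInc.p1; rw [x1, c1]
  have p2 : ∀ s, j.p2 s = i.p2 s := fun s => by unfold LInc.p2; rw [x2, c2]
  have ph : ∀ s, j.ph s = i.ph s := fun s => by unfold LInc.ph; rw [e3, c1, c2]
  have nu : nuL i j i.z = 0 := by unfold nuL; rw [p1, p2, ph]; ring
  unfold coL
  simp only [Finset.mem_insert, Finset.mem_singleton] at hk
  rcases hk with rfl | rfl | rfl | rfl | rfl | rfl | rfl <;>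
    simp [p1, p2, nu, c1, c2]

theorem _root_.Crest.Agent.R116.Tw468.OutT.ray_zero
    (h : OutT G L r g s θ q Rg B I lev A f b vm w fr fl sc) {k : Fin 12}
    (hk : k ∈ ({3, 4, 5, 6, 9, 10, 11} : Finset (Fin 12))) {n : ℕ} {x y : ℕ × ℝ}
    (hxy : y.1 = x.1) : coL (fl n x) (fl n y) k = 0 :=
  coL_ray (by rw [h.win.ray, h.win.ray, hxy]) hk

/-- the ray slots are constant along the lines -/
theorem _root_.Crest.Agent.R116.Tw468.OutT.inv_ray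
    (h : OutT G L r g s θ q Rg B I lev A f b vm w fr fl sc) {k : Fin 12}
    (hk : k ∈ ({3, 4, 5, 6, 9, 10, 11} : Finset (Fin 12))) : InvT PL B I k fl (sc k) := by
  intro M
  refine Eventually.of_forall fun n x _ y _ hxy => ?_
  rw [KF439.PL_d, h.ray_zero hk hxy, abs_zero]
  exact mul_nonneg (h.win.sys.scpos k n).le (Crest.Agent.R138.Dp76.dpow_pos B n M).le

/-- tied slot with its strips -/
def TieT (θ : Fin 2 → ℝ) (B : Base) (I : ℕ → Finset (ℕ × ℝ)) (lev : ℕ → ℚ → ℕ)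
    (fl : ℕ → ℕ × ℝ → LInc) (sc : Fin 12 → ℕ → ℝ) (k : Fin 12) : Prop :=
  ¬ InvT PL B I k fl (sc k) ∧ 0 < βL (θ 0) (θ 1) k ∧
    RotT PL B I lev k fl (sc k) (βL (θ 0) (θ 1) k) (fun u => βL (θ 0) (θ 1) k * u) ∧
    TwP PL B I lev k fl (sc k) (βL (θ 0) (θ 1) k)

theorem TieT.td {k : Fin 12} (h : TieT θ B I lev fl sc k) : TdT θ B I lev fl sc k :=
  ⟨h.1, h.2.1, h.2.2.1⟩

theorem TieT.vis {k : Fin 12} (h : TieT θ B I lev fl sc k) : VisT B I fl sc k := h.1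

/-- `D` is constant along the lines, or tied -/
theorem _root_.Crest.Agent.R116.Tw468.OutT.clsD
    (h : OutT G L r g s θ q Rg B I lev A f b vm w fr fl sc) :
    InvT PL B I 1 fl (sc 1) ∨ TieT θ B I lev fl sc 1 := by
  by_cases hi : InvT PL B I 1 fl (sc 1)
  · exact Or.inl hi
  rcases h.cls 1 with h1 | ⟨h1, h2, h3⟩ | ⟨h1, e, he, -⟩
  · exact Or.inl h1
  · exact Or.inr ⟨hi, h1, h2, h3⟩
  · change e ∈ (∅ : Finset (Fin 12 → ℕ)) at he
    simp at he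

/-- `B1`, `B2` : constant along the lines, or tied -/
theorem _root_.Crest.Agent.R116.Tw468.OutT.clsB
    (h : OutT G L r g s θ q Rg B I lev A f b vm w fr fl sc) {k : Fin 12} (hk : k = 7 ∨ k = 8) :
    InvT PL B I k fl (sc k) ∨ TieT θ B I lev fl sc k := by
  by_cases hi : InvT PL B I k fl (sc k)
  · exact Or.inl hi
  rcases h.cls k with h1 | ⟨h1, h2, h3⟩ | ⟨h1, e, he, -, h4⟩
  · exact Or.inl h1
  · exact Or.inr ⟨hi, h1, h2, h3⟩
  · exfalso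
    have hv : ∀ t : Fin 12, t ∈ ({3, 4, 5, 6, 9, 10, 11} : Finset (Fin 12)) → e t = 0 := by
      intro t ht
      by_contra hne
      exact h4 t hne (h.inv_ray ht)
    have h3 := hv 3 (by decide)
    have h4 := hv 4 (by decide)
    have h5 := hv 5 (by decide)
    have h6 := hv 6 (by decide)
    change e ∈ mfL k at he
    rcases hk with rfl | rfl
    · simp [mfL] at he
      rcases he with rfl | rfl
      · simp at h3
      · simp at h5
    · simp [mfL] at he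
      rcases he with rfl | rfl
      · simp at h4
      · simp at h6

/-- `E` : constant along the lines, or tied, or `D` is tied -/
theorem _root_.Crest.Agent.R116.Tw468.OutT.clsE
    (h : OutT G L r g s θ q Rg B I lev A f b vm w fr fl sc) :
    InvT PL B I 2 fl (sc 2) ∨ TieT θ B I lev fl sc 2 ∨ TieT θ B I lev fl sc 1 := by
  by_cases hi : InvT PL B I 2 fl (sc 2)
  · exact Or.inl hi
  rcases h.cls 2 with h1 | ⟨h1, h2, h3⟩ | ⟨h1, e, he, -, h4⟩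
  · exact Or.inl h1
  · exact Or.inr (Or.inl ⟨hi, h1, h2, h3⟩)
  · rcases h.clsD with h5 | h5
    · exact absurd h5 (h4 1 (monL_two_one he))
    · exact Or.inr (Or.inr h5)

theorem _root_.Crest.Agent.R116.Tw468.OutT.invB
    (h : OutT G L r g s θ q Rg B I lev A f b vm w fr fl sc) (hθ : θ 0 ≤ θ 1) {k : Fin 12}
    (hk : k = 7 ∨ k = 8) : InvT PL B I k fl (sc k) := by
  rcases h.clsB hk with h1 | h1
  · exact h1
  · have h2 := h1.2.1
    exfalso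
    have e : βL (θ 0) (θ 1) k = -(θ 1) - -(θ 0) := by rcases hk with rfl | rfl <;> rfl
    rw [e] at h2
    linarith

theorem _root_.Crest.Agent.R116.Tw468.OutT.invD
    (h : OutT G L r g s θ q Rg B I lev A f b vm w fr fl sc) (hθ : 2 * θ 0 ≤ θ 1 + 1) :
    InvT PL B I 1 fl (sc 1) := by
  rcases h.clsD with h1 | h1
  · exact h1
  · have h2 := h1.2.1
    exfalso
    have e : βL (θ 0) (θ 1) 1 = -(θ 1) - 2 * -(θ 0) - 1 := rfl
    rw [e] at h2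
    linarith

theorem _root_.Crest.Agent.R116.Tw468.OutT.invE
    (h : OutT G L r g s θ q Rg B I lev A f b vm w fr fl sc) (hθ : 2 * θ 0 ≤ θ 1) :
    InvT PL B I 2 fl (sc 2) := by
  rcases h.clsE with h1 | h1 | h1
  · exact h1
  · have h2 := h1.2.1
    exfalso
    have e : βL (θ 0) (θ 1) 2 = -(θ 1) - 2 * -(θ 0) := rfl
    rw [e] at h2
    linarith
  · have h2 := h1.2.1
    exfalso
    have e : βL (θ 0) (θ 1) 1 = -(θ 1) - 2 * -(θ 0) - 1 := rfl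
    rw [e] at h2
    linarith

/-- nothing visible ⟹ all own exponents (except the height) are `R` -/
theorem CtxT.noVis
    (h : CtxT G L r g s θ q Rg B I lev A f b vm w fr fl sc w0 sa sb δ R I0 I' ν own c₀)
    (hv : ∀ k : Fin 12, k = 1 ∨ k = 2 ∨ k = 7 ∨ k = 8 → InvT PL B I k fl (sc k)) (v : ℝ)
    (k : Fin 12) (hk : k ≠ 0) : oL (θ 0) (θ 1) w0 sa sb R (VisT B I fl sc) v k = R := by
  refine oR hk (not_not.2 ?_) v
  by_cases h1 : k = 1 ∨ k = 2 ∨ k = 7 ∨ k = 8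
  · exact hv k h1
  · refine h.out.inv_ray ?_
    revert hk h1
    revert k
    decide

/-! ### round case -/

theorem CtxR.mka (h : CtxR G L r g s θ q Rg a B I lev A f b vm w w0 sa sb δ R I0 I' ν own c₀) :
    MkA B I0 G lev A (fun v => g * v) (fun v => s * v) (fun j v => θ j * (1 - v)) f b vm w :=
  h.pre.mka

theorem CtxR.sub' (h : CtxR G L r g s θ q Rg a B I lev A f b vm w w0 sa sb δ R I0 I' ν own c₀)
    (n : ℕ) : I' n ⊆ I n := (h.ext.sub n).trans (h.sub0 n)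

/-- **strong D-max** (369), round case (`κ0 = 0`) -/
theorem CtxR.sd (h : CtxR G L r g s θ q Rg a B I lev A f b vm w w0 sa sb δ R I0 I' ν own c₀)
    {p p' : Fin 12 → ℝ} (hp : p ∈ Leg monL R) (hp' : p' ∈ Leg monL R)
    (hD : p' ∈ Gd222.PDS w0 sa sb Rg 0 0) (hpp : ∀ k, Gd222.Vf k → p' k ≤ p k) :
    ν p + ν p' - ν (p ⊔ p') ≤ c₀ + DT g s q θ w0 sa sb p' := by
  have hR : 0 ≤ R := by
    have h1 := hp.1.nonneg 0
    have h2 := hp.2 0
    linarith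
  exact Sd369.sd_T h.out.win.sys.mka h.out.win.dat h.out.win.isL.wid
    h.out.win.hk0 h.sub0 h.ext hR h.comb hp hp' hD hpp

end ctx

end Crest.Agent.R116.CtxB468
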