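import Crest.Agent.R116.Kr13_710

/-!
# R116, K side (helper388): the facts `H1`, `S2`, `S3` without the dead direction of the flags

At `θb = θa` the slots `7, 8` are two-dimensional, so 710's `ThinU` is not available. `H1`, `S2`, `S3`
do not need it: read them on base boxes with `B` fine.

* `ThinC` : the direction `b n` is dead for the pairs `{3,4}`, `{5,6}` only.
* `exists_SlUc`, `mkVc`, `H1_linC`, `S2_linC`, `S3_linC` : 710's statements, `y ≤ B0`.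
-/

set_option autoImplicit false
set_option linter.unusedVariables false
set_option linter.unusedSectionVars false

open Filter Topology Finset

namespace Crest.Agent.R116.Kc388

open Crest.Agent.R138.Ex926 (Base U)
open Crest.Agent.R138.Fal658 Crest.Agent.R136.Gf356
open Crest.Agent.R116.EvL504 (comp SL Sides)
open Crest.Agent.R116.Sg337 (bx9)
open Crest.Agent.R116.Kr710

/-- the direction `b n` is dead for the pairs `{3,4}`, `{5,6}` -/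
structure ThinC (B : Base) (G : ℕ → RCfg (Fin 12)) (b : ℕ → Fin 2 → ℝ) (x : ℝ) : Prop where
  one : ∀ᶠ n in (U : Filter ℕ), b n 0 ^ 2 + b n 1 ^ 2 = 1
  tc : ∀ ε : ℝ, 0 < ε → ∀ᶠ n in (U : Filter ℕ), ∀ k i l, (i, k) ∈ (G n).I → (l, k) ∈ (G n).I →
    |b n 0 * (G n).rel k i l 3 + b n 1 * (G n).rel k i l 4| ≤ B.d n ^ (x - ε)
  tx : ∀ ε : ℝ, 0 < ε → ∀ᶠ n in (U : Filter ℕ), ∀ k i l, (i, k) ∈ (G n).I → (l, k) ∈ (G n).I →
    |b n 0 * (G n).rel k i l 5 + b n 1 * (G n).rel k i l 6| ≤ B.d n ^ (x - ε)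

theorem ThinC.of {B : Base} {G : ℕ → RCfg (Fin 12)} {b : ℕ → Fin 2 → ℝ} {x : ℝ}
    (T : ThinU B G b x) : ThinC B G b x := ⟨T.one, T.tc, T.tx⟩

theorem exists_SlUc {B : Base} {G : ℕ → RCfg (Fin 12)} {Leg : Set (Fin 12 → ℝ)}
    {ν : (Fin 12 → ℝ) → ℝ} {D : ℝ} (H : RUnif B G Leg ν D) {S : Finset (Fin 12)}
    {u : ℕ → Fin 12 → ℝ} {b : ℕ → Fin 2 → ℝ} {x : ℝ} (L : LawU B G S u x) (T : ThinC B G b x)
    {i0 k0 : ℕ → ℕ} (h0 : ∀ᶠ n in (U : Filter ℕ), (i0 n, k0 n) ∈ (G n).I) {pS : Fin 12 → ℝ}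
    (lS : pS ∈ Leg) {y : ℝ} (hy : 0 < y) (hyx : y ≤ x) (p7 : y ≤ pS 7) (p8 : y ≤ pS 8)
    {C0 : ℝ} (hC0 : 0 < C0) :
    ∃ K : ℝ, 1 ≤ K ∧ ∀ ε : ℝ, 0 < ε → ∀ᶠ n in (U : Filter ℕ),
      8 ≤ B.d n ^ (-ε) ∧
      ∀ l ∈ (G n).box pS (C0 * ε) (i0 n) (k0 n), ∀ l' ∈ (G n).box pS (C0 * ε) (i0 n) (k0 n),
      SlU S pS (B.d n) (B.d n ^ y) (B.d n ^ (-(K * ε))) (u n) (b n) ((G n).rel (k0 n) (i0 n) l)
        ((G n).rel (k0 n) (i0 n) l') ((G n).rel (k0 n) l l') := by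
  have hD := H.D1
  have hD0 : 0 < D := by linarith
  have hDC : 0 < D ^ 2 * C0 := by positivity
  refine ⟨D ^ 2 * C0 + C0 + 1, by linarith, fun ε hε => ?_⟩
  set K : ℝ := D ^ 2 * C0 + C0 + 1 with hK
  filter_upwards [h0, near_pairs H h0 lS hC0 hε, L.bd ε hε, L.coc ε hε, ev_const_le B hε 8,
    L.sd, L.u4, L.u6, L.u8, L.relS, T.one, T.tc ε hε, T.tx ε hε]
    with n g0 g1 g2 g3 g8 k1 k2 k3 k4 k5 k6 k7 k8
  refine ⟨g8, fun l hl l' hl' => ?_⟩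
  obtain ⟨a1, a2⟩ := RCfg.mem_box.1 hl
  obtain ⟨b1, b2⟩ := RCfg.mem_box.1 hl'
  have I1 := H.memSlice.1 a1
  have I2 := H.memSlice.1 b1
  have e1 : B.d n ^ (-ε) ≤ B.d n ^ (-(K * ε)) := by
    have : -ε = -(1 * ε) := by ring
    rw [this]; exact anN B n hε (by rw [hK]; linarith)
  have e2 : ∀ (s : Fin 12) (K' : ℝ), K' ≤ K →
      B.d n ^ (pS s - K' * ε) ≤ B.d n ^ pS s * B.d n ^ (-(K * ε)) := by
    intro s K' hK'
    rw [← rpow_add']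
    exact rpow_anti B n (by have := mE hε hK'; linarith)
  have e3 : B.d n ^ (x - ε) ≤ B.d n ^ y * B.d n ^ (-(K * ε)) := by
    rw [← rpow_add']
    refine rpow_anti B n ?_
    have : 1 * ε ≤ K * ε := mE hε (by rw [hK]; linarith)
    linarith
  refine ⟨rpos B n _, ?_, g8.trans e1, L.S0, L.SSL, k1, k2, k3, k4, k6,
    fun s hs => k5 _ _ _ s hs, fun s hs => k5 _ _ _ s hs, fun s hs => k5 _ _ _ s hs, ?_, ?_, ?_,
    ?_, ?_, ?_, ?_, ?_, ?_⟩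
  · calc B.d n ^ y ≤ B.d n ^ (0 : ℝ) := rpow_anti B n hy.le
      _ = 1 := Real.rpow_zero _
  · intro s
    have := a2 s
    rw [H.base n] at this
    exact this.trans (e2 s C0 (by rw [hK]; linarith))
  · intro s
    have := g1 l hl l' hl' s
    rw [H.base n] at this
    exact this.trans (e2 s (D ^ 2 * C0) (by rw [hK]; linarith))
  · intro s; exact (g2 _ _ _ g0 I1 s).trans e1
  · intro s; exact (g2 _ _ _ g0 I2 s).trans e1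
  · intro s; exact (g2 _ _ _ I1 I2 s).trans e1
  · intro s hs
    exact (g3 _ _ _ _ g0 I1 I2 s hs).trans e3
  · exact (k7 _ _ _ I1 I2).trans e3
  · exact (k8 _ _ _ I1 I2).trans e3
  · have hpos := B.pos n
    have q : ∀ s : Fin 12, y ≤ pS s → |(G n).rel (k0 n) l l' s| ≤
        B.d n ^ (y - D ^ 2 * C0 * ε) := by
      intro s hs
      have := g1 l hl l' hl' s
      rw [H.base n] at this
      exact this.trans (rpow_anti B n (by linarith))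
    have q7 := q 7 p7
    have q8 := q 8 p8
    have b0 : |b n 0| ≤ 1 := by
      rw [abs_le_one_iff_mul_self_le_one]; nlinarith [sq_nonneg (b n 1)]
    have b1 : |b n 1| ≤ 1 := by
      rw [abs_le_one_iff_mul_self_le_one]; nlinarith [sq_nonneg (b n 0)]
    have e4 : B.d n ^ (y - D ^ 2 * C0 * ε) = B.d n ^ y * B.d n ^ (-(D ^ 2 * C0 * ε)) := by
      rw [← rpow_add']; congr 1
    have e5 : 8 * B.d n ^ (-(D ^ 2 * C0 * ε)) ≤ B.d n ^ (-(K * ε)) := by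
      calc 8 * B.d n ^ (-(D ^ 2 * C0 * ε)) ≤ B.d n ^ (-ε) * B.d n ^ (-(D ^ 2 * C0 * ε)) :=
            mul_le_mul_of_nonneg_right g8 (rpos B n _).le
        _ = B.d n ^ (-ε + -(D ^ 2 * C0 * ε)) := (rpow_add' B n _ _).symm
        _ ≤ _ := rpow_anti B n (by
          have : 0 < C0 * ε := by positivity
          rw [hK]; nlinarith)
    have e6 := mul_le_mul_of_nonneg_left e5 (rpos B n y).le
    have hp0 : 0 ≤ B.d n ^ y * B.d n ^ (-(D ^ 2 * C0 * ε)) := by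
      have := rpos B n y; have := rpos B n (-(D ^ 2 * C0 * ε)); positivity
    show |b n 0 * (G n).rel (k0 n) l l' 7 + b n 1 * (G n).rel (k0 n) l l' 8| ≤ _
    refine (abs_add_le _ _).trans ?_
    rw [abs_mul, abs_mul]
    have m7 := mul_le_mul b0 q7 (abs_nonneg _) zero_le_one
    have m8 := mul_le_mul b1 q8 (abs_nonneg _) zero_le_one
    rw [e4] at m7 m8
    linarith

/-- **`SlabV` from a one-slice statement**, flags fine -/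
theorem mkVc {B : Base} {G : ℕ → RCfg (Fin 12)} {Leg : Set (Fin 12 → ℝ)}
    {ν : (Fin 12 → ℝ) → ℝ} {D : ℝ} (H : RUnif B G Leg ν D) {S : Finset (Fin 12)}
    {u : ℕ → Fin 12 → ℝ} {b : ℕ → Fin 2 → ℝ} {x : ℝ} (L : LawU B G S u x) (T : ThinC B G b x)
    {i0 k0 : ℕ → ℕ} (h0 : ∀ᶠ n in (U : Filter ℕ), (i0 n, k0 n) ∈ (G n).I) {pS : Fin 12 → ℝ}
    (lS : pS ∈ Leg) {y : ℝ} (hy : 0 < y) (hyx : y ≤ x) (p7 : y ≤ pS 7) (p8 : y ≤ pS 8)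
    {JC JX JH : Finset (Fin 12)} (dis : ∀ j ∈ JX, j ∉ JC) (hC : ∀ j ∈ JH, j ∉ JC)
    (hX : ∀ j ∈ JH, j ∉ JX) (zC : ∀ j ∈ JC, pS j = 0) (zX : ∀ j ∈ JX, pS j = 0)
    (zH : ∀ j ∈ JH, pS j = 0) (fc fx fh : (Fin 2 → ℝ) → (Fin 12 → ℝ) → ℝ)
    (P : ℕ → Prop) (hP : ∀ᶠ n in (U : Filter ℕ), P n) {m : ℕ} (hm : 0 < m)
    (key : ∀ (n : ℕ) (β : ℝ) (a w c : Fin 12 → ℝ), P n →
      SlU S pS (B.d n) (B.d n ^ y) β (u n) (b n) a w c →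
      |fc (b n) a| ≤ β ^ m ∧ |fx (b n) a| ≤ β ^ m ∧
      Cmp JC c (fc (b n) w - fc (b n) a) (B.d n ^ y) (β ^ m) ∧
      Cmp JX c (fx (b n) w - fx (b n) a) (B.d n ^ y) (β ^ m) ∧
      Cmp JH c ((fh (b n) w - fh (b n) a) - fc (b n) a * (fx (b n) w - fx (b n) a)) (B.d n ^ y)
        (β ^ m)) :
    SlabV B G i0 k0 pS JC JX JH (fun n l => fc (b n) ((G n).rel (k0 n) (i0 n) l))
      (fun n l => fx (b n) ((G n).rel (k0 n) (i0 n) l))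
      (fun n l => fh (b n) ((G n).rel (k0 n) (i0 n) l)) y where
  dis := dis
  hC := hC
  hX := hX
  zC := zC
  zX := zX
  zH := zH
  co := by
    intro C0 hC0
    obtain ⟨K, hK, h1⟩ := exists_SlUc H L T h0 lS hy hyx p7 p8 hC0
    have hm' : (0 : ℝ) < m := Nat.cast_pos.2 hm
    refine ⟨m * K, by positivity, fun ε hε => ?_⟩
    filter_upwards [h1 ε hε, hP] with n hn hPn l hl
    have e : (B.d n ^ (-(K * ε))) ^ m = B.d n ^ (-(m * K * ε)) := by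
      rw [← Real.rpow_natCast, ← Real.rpow_mul (B.pos n).le]
      congr 1; ring
    have k0 := key n _ _ _ _ hPn (hn.2 l hl l hl)
    rw [e] at k0
    refine ⟨k0.1, k0.2.1, fun l' hl' => ?_⟩
    have k1 := key n _ _ _ _ hPn (hn.2 l hl l' hl')
    rw [e] at k1
    exact k1.2.2

section

variable {B : Base} {G : ℕ → RCfg (Fin 12)} {Leg : Set (Fin 12 → ℝ)}
  {ν : (Fin 12 → ℝ) → ℝ} {D : ℝ} {S : Finset (Fin 12)} {u : ℕ → Fin 12 → ℝ}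
  {b : ℕ → Fin 2 → ℝ} {x y : ℝ}

/-- **(H1)**, flags fine -/
theorem H1_linC (H : RUnif B G Leg ν D) (L : LawU B G S u x) (T : ThinC B G b x) (hy : 0 < y)
    (hyx : y ≤ x) (t : ∀ᶠ n in (U : Filter ℕ), u n 3 * u n 5 = u n 9) {d e B0 P0 F0 : ℝ}
    (hB7 : y ≤ B0)
    {A gC rX rH : ℝ} (hX : 0 ≤ rX)
    (hL : ∀ C X N : ℝ, 0 ≤ C → C ≤ y → 0 ≤ X → X ≤ y → 0 ≤ N → N ≤ y → N ≤ C + X →
      bx9 0 d e C X B0 N P0 F0 ∈ Leg ∧
      ν (bx9 0 d e C X B0 N P0 F0) = A - (gC * C + rX * X + rH * N)) :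
    (0 < gC → rX ≤ rH) ∧ (1 - rX < gC → 1 ≤ rH) := by
  obtain ⟨i0, k0, h0⟩ := exists_pin H
  have eG : ∀ t1 t2 t3 : ℝ, EG (bx9 0 d e 0 0 B0 0 P0 F0) {3, 4} {5, 6} {9} t1 t2 t3 =
      bx9 0 d e t1 t2 B0 t3 P0 F0 := by
    intro t1 t2 t3
    funext j
    fin_cases j <;> simp [EG, bx9]
  have lS : bx9 0 d e 0 0 B0 0 P0 F0 ∈ Leg :=
    (hL 0 0 0 le_rfl hy.le le_rfl hy.le le_rfl hy.le (by simp)).1
  have SV := mkVc H L T h0 lS hy hyx hB7 hB7 (JC := {3, 4}) (JX := {5, 6}) (JH := {9}) (by decide)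
    (by decide) (by decide) (zero2 rfl rfl) (zero2 rfl rfl) (zero1 rfl)
    (fun b a => tt b 3 4 a) (fun b a => tt b 5 6 a) (fun b a => a 9)
    (fun n => u n 3 * u n 5 = u n 9) t (m := 6) (by norm_num)
    (fun n β a w c hP h => h.key_h1 hP)
  refine SV.lin (A := A) H h0 hy hX fun t1 t2 t3 a1 a2 a3 a4 a5 a6 a7 => ?_
  rw [eG]
  exact hL t1 t2 t3 a1 a2 a3 a4 a5 a6 a7

/-- **S2**, flags fine -/
theorem S2_linC (H : RUnif B G Leg ν D) (L : LawU B G S u x) (T : ThinC B G b x) (hy : 0 < y)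
    (hyx : y ≤ x) (t : ∀ᶠ n in (U : Filter ℕ), u n 2 * u n 9 = u n 11) {d C0 X0 B0 P0 : ℝ}
    (hd : 0 ≤ d) (hC : 0 ≤ C0) (hB : 0 ≤ B0) (hB7 : y ≤ B0) (hX0 : y ≤ X0)
    {A gE rH rF : ℝ} (hH : 0 ≤ rH)
    (hL : ∀ E N F : ℝ, 0 ≤ E → E ≤ y → 0 ≤ N → N ≤ y → 0 ≤ F → F ≤ y → F ≤ E + N →
      bx9 0 d E C0 X0 B0 N P0 F ∈ Leg ∧
      ν (bx9 0 d E C0 X0 B0 N P0 F) = A - (gE * E + rH * N + rF * F)) :
    (0 < gE → rH ≤ rF) ∧ (1 - rH < gE → 1 ≤ rF) := by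
  obtain ⟨i0, k0, h0⟩ := exists_pin H
  have eG : ∀ t1 t2 t3 : ℝ, EG (bx9 0 d 0 C0 X0 B0 0 P0 0) {2} {9} {11} t1 t2 t3 =
      bx9 0 d t1 C0 X0 B0 t2 P0 t3 := by
    intro t1 t2 t3
    funext j
    fin_cases j <;> simp [EG, bx9]
  have lS : bx9 0 d 0 C0 X0 B0 0 P0 0 ∈ Leg :=
    (hL 0 0 0 le_rfl hy.le le_rfl hy.le le_rfl hy.le (by simp)).1
  set p := bx9 0 d 0 C0 X0 B0 0 P0 0 with hp
  have ex : ∀ i j k : Fin 12, y ≤ p i + p j → ∀ᶠ n in (U : Filter ℕ),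
      Ab1 S p y (B.d n ^ y) (u n) i j k := fun i j k hk =>
    Eventually.of_forall fun n => Or.inr (Or.inl hk)
  have p1 : p 1 = d := rfl
  have p3 : p 3 = C0 := rfl
  have p4 : p 4 = C0 := rfl
  have p5 : p 5 = X0 := rfl
  have p6 : p 6 = X0 := rfl
  have p7 : p 7 = B0 := rfl
  have p8 : p 8 = B0 := rfl
  have SV := mkVc H L T h0 lS hy hyx hB7 hB7 (JC := {2}) (JX := {9}) (JH := {11}) (by decide)
    (by decide) (by decide) (zero1 rfl) (zero1 rfl) (zero1 rfl)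
    (fun b a => -a 2) (fun b a => a 9) (fun b a => a 11)
    (fun n => u n 2 * u n 9 = u n 11 ∧ Ab1 S p y (B.d n ^ y) (u n) 1 5 7 ∧
      Ab1 S p y (B.d n ^ y) (u n) 1 6 8 ∧ Ab1 S p y (B.d n ^ y) (u n) 3 5 9 ∧
      Ab1 S p y (B.d n ^ y) (u n) 4 6 9 ∧ Ab1 S p y (B.d n ^ y) (u n) 7 5 11 ∧
      Ab1 S p y (B.d n ^ y) (u n) 8 6 11)
    (by filter_upwards [t, ex 1 5 7 (by rw [p1, p5]; linarith), ex 1 6 8 (by rw [p1, p6]; linarith),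
          ex 3 5 9 (by rw [p3, p5]; linarith), ex 4 6 9 (by rw [p4, p6]; linarith),
          ex 7 5 11 (by rw [p7, p5]; linarith), ex 8 6 11 (by rw [p8, p6]; linarith)]
          with n a1 a2 a3 a4 a5 a6 a7
        exact ⟨a1, a2, a3, a4, a5, a6, a7⟩) (m := 6) (by norm_num)
    (fun n β a w c hP h => h.key_s2 (B.pos n) (B.lt n).le rfl hP.1 hP.2.1 hP.2.2.1
      hP.2.2.2.1 hP.2.2.2.2.1 hP.2.2.2.2.2.1 hP.2.2.2.2.2.2)
  refine SV.lin (A := A) H h0 hy hH fun t1 t2 t3 a1 a2 a3 a4 a5 a6 a7 => ?_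
  rw [eG]
  exact hL t1 t2 t3 a1 a2 a3 a4 a5 a6 a7

/-- **S3**, flags fine -/
theorem S3_linC (H : RUnif B G Leg ν D) (L : LawU B G S u x) (T : ThinC B G b x) (hy : 0 < y)
    (hyx : y ≤ x) (t : ∀ᶠ n in (U : Filter ℕ), u n 1 * u n 9 = u n 10) {e C0 X0 B0 F0 : ℝ}
    (hB7 : y ≤ B0) (hC : 0 ≤ C0) (hX0 : y ≤ X0) (hB : y ≤ B0 + C0) (he : 2 ∈ S ∨ y ≤ e + C0)
    {A gD rH gP : ℝ} (hH : 0 ≤ rH)
    (hL : ∀ D1 N P : ℝ, 0 ≤ D1 → D1 ≤ y → 0 ≤ N → N ≤ y → 0 ≤ P → P ≤ y → P ≤ D1 + N →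
      bx9 0 D1 e C0 X0 B0 N P F0 ∈ Leg ∧
      ν (bx9 0 D1 e C0 X0 B0 N P F0) = A - (gD * D1 + rH * N + gP * P)) :
    (0 < gD → rH ≤ gP) ∧ (1 - rH < gD → 1 ≤ gP) := by
  obtain ⟨i0, k0, h0⟩ := exists_pin H
  have eG : ∀ t1 t2 t3 : ℝ, EG (bx9 0 0 e C0 X0 B0 0 0 F0) {1} {9} {10} t1 t2 t3 =
      bx9 0 t1 e C0 X0 B0 t2 t3 F0 := by
    intro t1 t2 t3
    funext j
    fin_cases j <;> simp [EG, bx9]
  have lS : bx9 0 0 e C0 X0 B0 0 0 F0 ∈ Leg :=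
    (hL 0 0 0 le_rfl hy.le le_rfl hy.le le_rfl hy.le (by simp)).1
  set p := bx9 0 0 e C0 X0 B0 0 0 F0 with hp
  have ex : ∀ i j k : Fin 12, y ≤ p i + p j → ∀ᶠ n in (U : Filter ℕ),
      Ab1 S p y (B.d n ^ y) (u n) i j k := fun i j k hk =>
    Eventually.of_forall fun n => Or.inr (Or.inl hk)
  have p1 : p 1 = 0 := rfl
  have p3 : p 3 = C0 := rfl
  have p4 : p 4 = C0 := rfl
  have p5 : p 5 = X0 := rfl
  have p6 : p 6 = X0 := rfl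
  have p7 : p 7 = B0 := rfl
  have p8 : p 8 = B0 := rfl
  have A3 : Abv B S p y u 2 3 7 := he.imp id fun h => Or.inl h
  have A4 : Abv B S p y u 2 4 8 := he.imp id fun h => Or.inl h
  have SV := mkVc H L T h0 lS hy hyx hB7 hB7 (JC := {1}) (JX := {9}) (JH := {10}) (by decide)
    (by decide) (by decide) (zero1 rfl) (zero1 rfl) (zero1 rfl)
    (fun b a => 2 * a 1) (fun b a => a 9) (fun b a => a 10)
    (fun n => u n 1 * u n 9 = u n 10 ∧ Ab1 S p y (B.d n ^ y) (u n) 1 5 7 ∧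
      Ab1 S p y (B.d n ^ y) (u n) 1 6 8 ∧ Ab1 S p y (B.d n ^ y) (u n) 3 5 9 ∧
      Ab1 S p y (B.d n ^ y) (u n) 4 6 9 ∧ Ab1 S p y (B.d n ^ y) (u n) 7 3 10 ∧
      Ab1 S p y (B.d n ^ y) (u n) 8 4 10 ∧ Ab1 S p y (B.d n ^ y) (u n) 2 3 7 ∧
      Ab1 S p y (B.d n ^ y) (u n) 2 4 8)
    (by filter_upwards [t, ex 1 5 7 (by rw [p1, p5]; linarith), ex 1 6 8 (by rw [p1, p6]; linarith),
          ex 3 5 9 (by rw [p3, p5]; linarith), ex 4 6 9 (by rw [p4, p6]; linarith),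
          ex 7 3 10 (by rw [p7, p3]; linarith), ex 8 4 10 (by rw [p8, p4]; linarith),
          A3.ev, A4.ev] with n a1 a2 a3 a4 a5 a6 a7 a8 a9
        exact ⟨a1, a2, a3, a4, a5, a6, a7, a8, a9⟩) (m := 6) (by norm_num)
    (fun n β a w c hP h => h.key_s3 (B.pos n) (B.lt n).le rfl hP.1 hP.2.1 hP.2.2.1
      hP.2.2.2.1 hP.2.2.2.2.1 hP.2.2.2.2.2.1 hP.2.2.2.2.2.2.1 hP.2.2.2.2.2.2.2.1
      hP.2.2.2.2.2.2.2.2)
  refine SV.lin (A := A) H h0 hy hH fun t1 t2 t3 a1 a2 a3 a4 a5 a6 a7 => ?_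
  rw [eG]
  exact hL t1 t2 t3 a1 a2 a3 a4 a5 a6 a7

end

end Crest.Agent.R116.Kc388
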