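import Crest.Agent.R116.SgF_665

/-!
# R116 (K side, LEMMA SIG), literals: the facts which do not use the flag slots `7, 8` (helper388)

* `LinFacts4` : `K1`, `H1`, `K2`, `S2` of 665's `LinFacts` (all that `θb = θa` needs)
* `LinFacts.to4`
-/

set_option autoImplicit false
set_option linter.unusedVariables false

open Set Filter Topology

namespace Crest.Agent.R116.LF388

open Crest.Agent.R116.SgF665

/-- **four facts of LEMMA SIG** (no dead direction of the flags), `Bs` = the base sequences -/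
structure LinFacts4 {J : Type*} (P : Set (Fin 12 → ℝ)) (f : J → (Fin 12 → ℝ) → ℝ) (j0 : J)
    (Bs : (ℕ → Fin 12 → ℝ) → (ℕ → ℝ) → Prop) (s : ℝ) : Prop where
  K1 : ∀ X h rz rX rH rF gC gP gE gB, Bs X h → LinTan P f j0 X h rz rX rH rF gC gP gE gB →
    (∀ n, X n 5 = X n 0 + X n 3) → (∀ n, X n 6 = X n 0 + X n 4) →
    (0 < gC → 1 - s ≤ rX) ∧ (s < gC → 1 ≤ rX)
  H1 : ∀ X h rz rX rH rF gC gP gE gB, Bs X h → LinTan P f j0 X h rz rX rH rF gC gP gE gB →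
    (∀ n, X n 9 = X n 3 + X n 5) → (∀ n, X n 9 = X n 4 + X n 6) → 0 < gC → rX ≤ rH
  K2 : ∀ X h rz rX rH rF gC gP gE gB, Bs X h → LinTan P f j0 X h rz rX rH rF gC gP gE gB →
    (∀ n, X n 11 = X n 0 + X n 10) → (0 < gP → 1 - s ≤ rF) ∧ (s < gP → 1 ≤ rF)
  S2 : ∀ X h rz rX rH rF gC gP gE gB, Bs X h → LinTan P f j0 X h rz rX rH rF gC gP gE gB →
    (∀ n, X n 11 = X n 2 + X n 9) → 0 < gE → rH ≤ rF

theorem LinFacts4.of {J : Type*} {P : Set (Fin 12 → ℝ)} {f : J → (Fin 12 → ℝ) → ℝ} {j0 : J}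
    {Bs : (ℕ → Fin 12 → ℝ) → (ℕ → ℝ) → Prop} {s : ℝ} (H : LinFacts P f j0 Bs s) :
    LinFacts4 P f j0 Bs s := ⟨H.K1, H.H1, H.K2, H.S2⟩

end Crest.Agent.R116.LF388
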