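import Crest.Agent.R116.ThinD_954

/-!
# R116, K side (helper710): the dead direction of the flag slots `7, 8` in every case

369's / 954's `dim_B`, `dimB_window`, `thinU_of`, `WinG.thin` with a margin `ζ`:

* `FlagZ B I inc σ ζ` : `||b|² - 1| σ₀ ≤ σ₁ d^(ζ - ε)` (`ζ = 0` : 369's `FlagN`).
* `dim_Bz`, `dimBz_window`, `thinUz_of`, `winG_thin` : margin `3 δ ≤ ζ + t - y`.
-/

set_option autoImplicit false
set_option linter.unusedVariables false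
set_option linter.unusedSectionVars false

open Finset Filter Topology

namespace Crest.Agent.R116.Kz710

open Crest.Agent.R138.Ex926
open Crest.Agent.R138
open Crest.Agent.R136.Net191
open Crest.Agent.R136.Qg926
open Crest.Agent.R136.Gf356
open Crest.Agent.R116.ChL222
open Crest.Agent.R116.Xd954
open Crest.Agent.R116.Bd369
open Crest.Agent.R116.EvL504
open Crest.Agent.R116.WinG954
open Crest.Agent.R116.ThinD954
open Crest.Agent.R116.Kr710 (ThinU)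

/-- the lateral gradients of the flags have length almost `1`, margin `ζ` -/
def FlagZ (B : Base) (I : ℕ → Finset (ℕ × ℝ)) (inc : ℕ → ℕ × ℝ → LInc) (σ : Fin 2 → ℕ → ℝ)
    (ζ : ℝ) : Prop := ∀ ε : ℝ, 0 < ε → ∀ᶠ n in (U : Filter ℕ), ∀ x ∈ I n,
  |Xd954.bb (inc n x) 0 ^ 2 + Xd954.bb (inc n x) 1 ^ 2 - 1| * σ 0 n ≤ σ 1 n * B.d n ^ (ζ - ε)

theorem FlagZ.of_N {B : Base} {I : ℕ → Finset (ℕ × ℝ)} {inc : ℕ → ℕ × ℝ → LInc}
    {σ : Fin 2 → ℕ → ℝ} (h : FlagN B I inc σ) : FlagZ B I inc σ 0 := fun ε hε => by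
  filter_upwards [h ε hε] with n hn x hx
  rw [zero_sub]
  exact hn x hx

/-- the flag data of the incidences `I`, margin `ζ` -/
structure FlagDz (B : Base) (I : ℕ → Finset (ℕ × ℝ)) (lev : ℕ → ℚ → ℕ)
    (inc : ℕ → ℕ × ℝ → LInc) (σ : Fin 2 → ℕ → ℝ) (k0 ϑ ζ : ℝ) : Prop where
  fe : FlagE B I lev inc σ k0 ϑ
  fn : FlagZ B I inc σ ζ
  ge : ∀ᶠ n in (U : Filter ℕ), ∀ x ∈ I n,
    1 / 4 ≤ Xd954.bb (inc n x) 0 ^ 2 + Xd954.bb (inc n x) 1 ^ 2

theorem FlagDz.of_D {B : Base} {I : ℕ → Finset (ℕ × ℝ)} {lev : ℕ → ℚ → ℕ}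
    {inc : ℕ → ℕ × ℝ → LInc} {σ : Fin 2 → ℕ → ℝ} {k0 ϑ : ℝ} (h : FlagD B I lev inc σ k0 ϑ) :
    FlagDz B I lev inc σ k0 ϑ 0 := ⟨h.fe, FlagZ.of_N h.fn, h.ge⟩

theorem FlagDz.mono {B : Base} {I I' : ℕ → Finset (ℕ × ℝ)} {lev : ℕ → ℚ → ℕ}
    {inc : ℕ → ℕ × ℝ → LInc} {σ : Fin 2 → ℕ → ℝ} {k0 ϑ ζ : ℝ}
    (h : FlagDz B I lev inc σ k0 ϑ ζ) (hs : ∀ n, I' n ⊆ I n) :
    FlagDz B I' lev inc σ k0 ϑ ζ where
  fe :=
    { σp := h.fe.σp
      he := fun ε hε => (h.fe.he ε hε).mono fun n hn x hx => hn x (hs n hx)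
      hd := fun ε hε => (h.fe.hd ε hε).mono fun n hn x hx => hn x (hs n hx)
      hk := h.fe.hk }
  fn := fun ε hε => (h.fn ε hε).mono fun n hn x hx => hn x (hs n hx)
  ge := h.ge.mono fun n hn x hx => hn x (hs n hx)

section dim

variable {B : Base} {I : ℕ → Finset (ℕ × ℝ)} {lev : ℕ → ℚ → ℕ} {inc : ℕ → ℕ × ℝ → LInc}
    {σ : Fin 2 → ℕ → ℝ} {k0 ϑ : ℝ}

/-- **the slots `7, 8` are one-dimensional** near the natural box `(v, t, y)`, `t > y` -/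
theorem dim_Bz (h : FlagE B I lev inc σ k0 ϑ) {ζ : ℝ} (hN : FlagZ B I inc σ ζ) (w0 sa sb : ℝ)
    {v t y δ : ℝ} (hm : Mrg k0 ϑ v t y δ) (hty : 3 * δ ≤ ζ + t - y) {K : ℝ} (hK : 1 ≤ K) :
    ∀ᶠ n in (U : Filter ℕ), ∀ p : Fin 12 → ℝ,
      (∀ k, 3 ≤ k → |p k - PL504.nb w0 sa sb v t y k| ≤ δ / 2) → ∀ x ∈ I n, ∀ z ∈ I n,
      Near (Gd222.coN B lev inc σ w0 sa sb n) (B.d n) p K x z →
      ∀ s, |bb (inc n x) 0 * Gd222.coN B lev inc σ w0 sa sb n x z 7 +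
        bb (inc n x) 1 * Gd222.coN B lev inc σ w0 sa sb n x z 8| ≤ B.d n ^ (p (bs s) + δ) := by
  have hδ := hm.pos
  have hδ2 : 0 < δ / 2 := by positivity
  have hδ4 : 0 < δ / 2 / 2 := by positivity
  filter_upwards [h.scal w0 sa sb hδ4, hN _ hδ4, ev_fin B (show 0 < 20 * K ^ 2 by positivity) hδ2]
    with n h3 hNn hfin p hp x hx z hz hn s
  have hD := B.pos n
  have hD1 := (B.lt n).le
  have hK0 : 0 ≤ K := by linarith
  have hKK : K ≤ K ^ 2 := by nlinarith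
  have hK1 : 1 ≤ K ^ 2 := by nlinarith
  have s0 := h.σp 0 n
  have s1 := h.σp 1 n
  have dp := fun a => Dp76.dpow_pos B n a
  obtain ⟨er, h3'⟩ := h3
  obtain ⟨ee, ef⟩ := h3' x hx
  have nx := hNn x hx
  have nz := hNn z hz
  set D := B.d n with hDd
  set lz : ℝ := 2 ^ lev n 0 * D ^ w0 with hlz
  set lc : ℝ := D ^ sa / σ 0 n with hlc
  set lp : ℝ := D ^ sb / σ 1 n with hlp
  have hlz0 : 0 < lz := mul_pos (by positivity) (dp _)
  have hlc0 : 0 < lc := div_pos (dp _) s0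
  have hlp0 : 0 < lp := div_pos (dp _) s1
  set c := Gd222.coN B lev inc σ w0 sa sb n x z with hc
  have t1 := B_le (inc n x) (inc n z) hlz0 hlc0 hlp0 (c := c) (fun k => rfl)
  set Δ := (bb (inc n z) 0 ^ 2 + bb (inc n z) 1 ^ 2) -
    (bb (inc n x) 0 ^ 2 + bb (inc n x) 1 ^ 2) with hΔ
  have hcn : ∀ k, |c k| ≤ K * D ^ p k := hn
  have n0 : ∀ k, 0 ≤ |c k| := fun k => abs_nonneg _
  have q : ∀ k, 3 ≤ k → PL504.nb w0 sa sb v t y k - δ / 2 ≤ p k ∧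
      p k ≤ PL504.nb w0 sa sb v t y k + δ / 2 :=
    fun k hk => by have := abs_le.1 (hp k hk); constructor <;> linarith [this.1, this.2]
  have m1 := hm.mt
  have m2 := hm.mkk
  have m3 := hm.mv
  have c3 := q 3 (by decide)
  have c4 := q 4 (by decide)
  have c5 := q 5 (by decide)
  have c6 := q 6 (by decide)
  have c7 := q 7 (by decide)
  have c8 := q 8 (by decide)
  have c10 := q 10 (by decide)
  have c11 := q 11 (by decide)
  have v3 : PL504.nb w0 sa sb v t y 3 = sa + t := rfl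
  have v4 : PL504.nb w0 sa sb v t y 4 = sa + t := rfl
  have v5 : PL504.nb w0 sa sb v t y 5 = (w0 + v) + (sa + t) := rfl
  have v6 : PL504.nb w0 sa sb v t y 6 = (w0 + v) + (sa + t) := rfl
  have v7 : PL504.nb w0 sa sb v t y 7 = (sb + y) - (sa + t) := rfl
  have v8 : PL504.nb w0 sa sb v t y 8 = (sb + y) - (sa + t) := rfl
  have v10 : PL504.nb w0 sa sb v t y 10 = sb + y := rfl
  have v11 : PL504.nb w0 sa sb v t y 11 = (w0 + v) + (sb + y) := rfl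
  rw [v3] at c3
  rw [v4] at c4
  rw [v5] at c5
  rw [v6] at c6
  rw [v7] at c7
  rw [v8] at c8
  rw [v10] at c10
  rw [v11] at c11
  have cc : p (bs s) ≤ (sb + y) - (sa + t) + δ / 2 := by
    fin_cases s
    · exact c7.2
    · exact c8.2
  set r : ℝ := p (bs s) + δ + δ / 2 with hr
  have hrS : r ≤ (sb + y) - (sa + t) + 2 * δ := by rw [hr]; linarith
  -- the length of the gradients
  have u0 : (lp / lc) * |Δ| ≤ 2 * D ^ (r - δ / 2 / 2) := by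
    have hd : |Δ| * σ 0 n ≤ 2 * (σ 1 n * D ^ (ζ - δ / 2 / 2)) := by
      have e : Δ = (bb (inc n z) 0 ^ 2 + bb (inc n z) 1 ^ 2 - 1) -
          (bb (inc n x) 0 ^ 2 + bb (inc n x) 1 ^ 2 - 1) := by rw [hΔ]; ring
      have := mul_le_mul_of_nonneg_right (abs_sub (bb (inc n z) 0 ^ 2 + bb (inc n z) 1 ^ 2 - 1)
          (bb (inc n x) 0 ^ 2 + bb (inc n x) 1 ^ 2 - 1)) s0.le
      rw [← e] at this
      linarith
    have e : (lp / lc) * |Δ| = D ^ sb / D ^ sa / σ 1 n * (|Δ| * σ 0 n) := by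
      rw [hlp, hlc]
      have := (dp sa).ne'
      field_simp
    rw [e]
    have h1 : 0 < D ^ sb / D ^ sa / σ 1 n := div_pos (div_pos (dp _) (dp _)) s1
    refine (mul_le_mul_of_nonneg_left hd h1.le).trans ?_
    have e2 : D ^ sb / D ^ sa / σ 1 n * (2 * (σ 1 n * D ^ (ζ - δ / 2 / 2))) =
        2 * D ^ (sb - sa + (ζ - δ / 2 / 2)) := by
      rw [Real.rpow_add hD (sb - sa), Real.rpow_sub hD sb sa]
      field_simp
    rw [e2]
    exact mul_le_mul_of_nonneg_left (Real.rpow_le_rpow_of_exponent_ge hD hD1 (by linarith))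
      two_pos.le
  have key : |bb (inc n x) 0 * c 7 + bb (inc n x) 1 * c 8| ≤
      20 * K ^ 2 * D ^ (r - δ / 2 / 2) := by
    refine t1.trans ?_
    have u1 : lc / lp * |c 7| ^ 2 ≤ K ^ 2 * D ^ (r - δ / 2 / 2) :=
      ex_mul hD hD1 er (by positivity) (ex_sq hD (n0 _) (hcn _)) (by positivity) (by linarith)
    have u2 : lc / lp * |c 8| ^ 2 ≤ K ^ 2 * D ^ (r - δ / 2 / 2) :=
      ex_mul hD hD1 er (by positivity) (ex_sq hD (n0 _) (hcn _)) (by positivity) (by linarith)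
    have u3 : |(inc n x).et| / lc * |c 10| ≤ K * D ^ (r - δ / 2 / 2) :=
      ex_mul hD hD1 ee (n0 _) (hcn _) hK0 (by linarith)
    have u4 : |(inc n x).et| / lc * (|c 3| * |c 7|) ≤ K ^ 2 * D ^ (r - δ / 2 / 2) :=
      ex_mul hD hD1 ee (by positivity) (ex_pr hD (n0 _) (hcn _) (n0 _) (hcn _)) (by positivity)
        (by linarith)
    have u5 : |(inc n x).et| / lc * (|c 4| * |c 8|) ≤ K ^ 2 * D ^ (r - δ / 2 / 2) :=
      ex_mul hD hD1 ee (by positivity) (ex_pr hD (n0 _) (hcn _) (n0 _) (hcn _)) (by positivity)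
        (by linarith)
    have u6 : |(inc n x).d| / (lz * lc) * |c 11| ≤ K * D ^ (r - δ / 2 / 2) :=
      ex_mul hD hD1 ef (n0 _) (hcn _) hK0 (by linarith)
    have u7 : |(inc n x).d| / (lz * lc) * (|c 5| * |c 7|) ≤ K ^ 2 * D ^ (r - δ / 2 / 2) :=
      ex_mul hD hD1 ef (by positivity) (ex_pr hD (n0 _) (hcn _) (n0 _) (hcn _)) (by positivity)
        (by linarith)
    have u8 : |(inc n x).d| / (lz * lc) * (|c 6| * |c 8|) ≤ K ^ 2 * D ^ (r - δ / 2 / 2) :=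
      ex_mul hD hD1 ef (by positivity) (ex_pr hD (n0 _) (hcn _) (n0 _) (hcn _)) (by positivity)
        (by linarith)
    have hKD : K * D ^ (r - δ / 2 / 2) ≤ K ^ 2 * D ^ (r - δ / 2 / 2) :=
      mul_le_mul_of_nonneg_right hKK (dp _).le
    have hKD1 : 1 * D ^ (r - δ / 2 / 2) ≤ K ^ 2 * D ^ (r - δ / 2 / 2) :=
      mul_le_mul_of_nonneg_right hK1 (dp _).le
    have hKp : 0 ≤ K ^ 2 * D ^ (r - δ / 2 / 2) := by positivity
    linarith
  have := hfin r _ key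
  rwa [show r - δ / 2 = p (bs s) + δ by rw [hr]; ring] at this

end dim

section win

variable {W : Wnd 12 (fun _ => ℕ × ℝ)} {I : ℕ → Finset (ℕ × ℝ)} {lev : ℕ → ℚ → ℕ}
    {inc : ℕ → ℕ × ℝ → LInc} {σ : Fin 2 → ℕ → ℝ} {k0 ϑ w0 sa sb v t y δ : ℝ}

/-- **[B-DIM] in the window** : the component of the slots `7, 8` along the flag of `s₀` is smaller
than every power of `ρ`, for all pairs of the class (own pairs included) -/
theorem dimBz_window (ok : W.Ok) (hco : W.co = Gd222.coN W.B lev inc σ w0 sa sb)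
    (hI : ∀ᶠ n in (U : Filter ℕ), W.Cl n ⊆ I n) (hF : FlagE W.B I lev inc σ k0 ϑ)
    {ζ : ℝ} (hN : FlagZ W.B I inc σ ζ)
    (hb : ∀ᶠ n in (U : Filter ℕ), ∀ x ∈ I n, 1 / 4 ≤ bb (inc n x) 0 ^ 2 + bb (inc n x) 1 ^ 2)
    (hm : Mrg k0 ϑ v t y δ) (hty : 3 * δ ≤ ζ + t - y)
    (hX : ∀ᶠ n in (U : Filter ℕ), ∀ k, 3 ≤ k → |W.X n k - PL504.nb w0 sa sb v t y k| ≤ δ / 2)
    (hX7 : ∀ᶠ n in (U : Filter ℕ), W.X n 7 = W.X n 8)
    (hk7 : W.kap 7 = W.kap 8) (hw : Tendsto W.w U (𝓝 0)) (K : ℝ) :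
    ∀ᶠ n in (U : Filter ℕ), ∀ i ∈ W.Cl n, ∀ j ∈ W.Cl n,
      |tau (inc n (W.s₀ n)) 0 * W.crd n i j 7 + tau (inc n (W.s₀ n)) 1 * W.crd n i j 8| ≤
        W.B'.d n ^ K := by
  have hδ := hm.pos
  have hδ2 : 0 < δ / 2 := by positivity
  have hK1 := ok.K0_one
  have hK0 : 0 ≤ W.K0 := by linarith
  have hwK : ∀ᶠ n in (U : Filter ℕ), W.w n * K < δ / 2 := by
    have h1 : Tendsto (fun n => W.w n * K) U (𝓝 (0 * K)) := hw.mul_const K
    rw [zero_mul] at h1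
    exact h1.eventually_lt_const hδ2
  have key : ∀ᶠ n in (U : Filter ℕ),
      2 * (1 + 2 * W.K0) / W.kap 7 ≤ W.B.d n ^ (-(δ / 2)) := by
    have hpos : 0 < 2 * (1 + 2 * W.K0) / W.kap 7 := div_pos (by positivity) (ok.kap _)
    filter_upwards [W.B.ev_const_log (Real.log (2 * (1 + 2 * W.K0) / W.kap 7)) hδ2] with n hn
    rw [← W.B.exp_eq, ← Real.log_le_iff_le_exp hpos]
    exact hn
  filter_upwards [ok.ev_good, hI, hb, hX, hX7, hwK, key,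
    hF.dim_nat' w0 sa sb hm hK1, dim_Bz hF hN w0 sa sb hm hty hK1]
    with n g hIn hbn hXn h78 hwn hk hd hB i hi j hj
  have hD := W.B.pos n
  have hD1 := (W.B.lt n).le
  have hs0 := g.s0
  have near : ∀ i ∈ W.Cl n, ∀ j ∈ W.Cl n,
      Near (Gd222.coN W.B lev inc σ w0 sa sb n) (W.B.d n) (W.X n) W.K0 i j := by
    intro i hi j hj k
    have h1 := ok.near0 g hi hj k
    rw [Pi.zero_apply, Real.rpow_zero, mul_one] at h1
    rw [← hco]
    exact h1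
  have nij := near i hi j hj
  have ha := hB (W.X n) hXn i (hIn hi) j (hIn hj) nij 0
  obtain ⟨-, -, a3⟩ := hd (W.X n) hXn (W.s₀ n) (hIn hs0) i (near _ hs0 _ hi)
  have hbs := hbn _ (hIn hs0)
  have hpw : W.B.d n ^ (δ / 2) ≤ W.B'.d n ^ K := by
    rw [ok.cls.base n, ← Real.rpow_mul hD.le]
    exact Real.rpow_le_rpow_of_exponent_ge hD hD1 hwn.le
  refine le_trans (tau_comb hbs _ _) ?_
  have b07 : W.X n (bs 0) = W.X n 7 := rfl
  rw [b07] at ha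
  set c := W.X n 7 with hcdef
  have hks := ok.kap 7
  have hdc : 0 < W.B.d n ^ c := Real.rpow_pos_of_pos hD c
  have e1 : W.crd n i j 7 = Gd222.coN W.B lev inc σ w0 sa sb n i j 7 / (W.kap 7 * W.B.d n ^ c) := by
    unfold Wnd.crd; rw [hco]
  have e2 : W.crd n i j 8 =
      Gd222.coN W.B lev inc σ w0 sa sb n i j 8 / (W.kap 7 * W.B.d n ^ c) := by
    unfold Wnd.crd; rw [hco, ← h78, ← hk7]
  have b1 := nij 7
  have b2 := nij 8
  rw [← h78] at b2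
  rw [← hcdef] at b1
  set u := Gd222.coN W.B lev inc σ w0 sa sb n i j 7
  set u' := Gd222.coN W.B lev inc σ w0 sa sb n i j 8
  have e3 : bb (inc n (W.s₀ n)) 0 * u + bb (inc n (W.s₀ n)) 1 * u' =
      (bb (inc n i) 0 * u + bb (inc n i) 1 * u') -
        (bb (inc n i) 0 - bb (inc n (W.s₀ n)) 0) * u -
        (bb (inc n i) 1 - bb (inc n (W.s₀ n)) 1) * u' := by ring
  have h2δ : W.B.d n ^ (2 * δ) ≤ W.B.d n ^ δ :=
    Real.rpow_le_rpow_of_exponent_ge hD hD1 (by linarith)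
  have c1 : |(bb (inc n i) 0 - bb (inc n (W.s₀ n)) 0) * u| ≤
      W.B.d n ^ δ * (W.K0 * W.B.d n ^ c) := by
    rw [abs_mul]
    exact mul_le_mul ((a3 0).trans h2δ) b1 (abs_nonneg _) (Real.rpow_nonneg hD.le _)
  have c2 : |(bb (inc n i) 1 - bb (inc n (W.s₀ n)) 1) * u'| ≤
      W.B.d n ^ δ * (W.K0 * W.B.d n ^ c) := by
    rw [abs_mul]
    exact mul_le_mul ((a3 1).trans h2δ) b2 (abs_nonneg _) (Real.rpow_nonneg hD.le _)
  have c3 : |bb (inc n (W.s₀ n)) 0 * u + bb (inc n (W.s₀ n)) 1 * u'| ≤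
      (1 + 2 * W.K0) * (W.B.d n ^ δ * W.B.d n ^ c) := by
    rw [e3]
    have d1 := abs_sub ((bb (inc n i) 0 * u + bb (inc n i) 1 * u') -
        (bb (inc n i) 0 - bb (inc n (W.s₀ n)) 0) * u)
        ((bb (inc n i) 1 - bb (inc n (W.s₀ n)) 1) * u')
    have d2 := abs_sub (bb (inc n i) 0 * u + bb (inc n i) 1 * u')
        ((bb (inc n i) 0 - bb (inc n (W.s₀ n)) 0) * u)
    rw [Real.rpow_add hD] at ha
    nlinarith
  have e4 : bb (inc n (W.s₀ n)) 0 * W.crd n i j 7 + bb (inc n (W.s₀ n)) 1 * W.crd n i j 8 =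
      (bb (inc n (W.s₀ n)) 0 * u + bb (inc n (W.s₀ n)) 1 * u') / (W.kap 7 * W.B.d n ^ c) := by
    rw [e1, e2]; ring
  rw [e4, abs_div, abs_of_pos (mul_pos hks hdc)]
  have e5 : 2 * (|bb (inc n (W.s₀ n)) 0 * u + bb (inc n (W.s₀ n)) 1 * u'| /
      (W.kap 7 * W.B.d n ^ c)) ≤ 2 * (1 + 2 * W.K0) / W.kap 7 * W.B.d n ^ δ := by
    rw [← mul_div_assoc, div_le_iff₀ (mul_pos hks hdc)]
    have e6 : 2 * (1 + 2 * W.K0) / W.kap 7 * W.B.d n ^ δ * (W.kap 7 * W.B.d n ^ c) =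
        2 * ((1 + 2 * W.K0) * (W.B.d n ^ δ * W.B.d n ^ c)) := by
      field_simp
    rw [e6]
    linarith
  refine e5.trans ?_
  calc 2 * (1 + 2 * W.K0) / W.kap 7 * W.B.d n ^ δ
      ≤ W.B.d n ^ (-(δ / 2)) * W.B.d n ^ δ :=
        mul_le_mul_of_nonneg_right hk (Real.rpow_nonneg hD.le _)
    _ = W.B.d n ^ (δ / 2) := by rw [← Real.rpow_add hD]; congr 1; ring
    _ ≤ _ := hpw

end win

section thin

variable {W : Wnd 12 (fun _ => ℕ × ℝ)} {I : ℕ → Finset (ℕ × ℝ)} {lev : ℕ → ℚ → ℕ}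
    {inc : ℕ → ℕ × ℝ → LInc} {σ : Fin 2 → ℕ → ℝ} {k0 ϑ w0 sa sb v t y δ K tp : ℝ}
    {E : ∀ n, Finset (ℕ × ℝ)}

/-- **the dead direction of the pairs `{3,4}`, `{5,6}`, `{7,8}`** = 710's `ThinU` -/
theorem thinUz_of (h : WL W K tp) (hr : ∀ᶠ n in (U : Filter ℕ), Reg W E n)
    (hS7 : (7 : Fin 12) ∉ W.S) (hS8 : (8 : Fin 12) ∉ W.S)
    (hco : W.co = Gd222.coN W.B lev inc σ w0 sa sb)
    (hI : ∀ᶠ n in (U : Filter ℕ), W.Cl n ⊆ I n) {ζ : ℝ} (hF : FlagDz W.B I lev inc σ k0 ϑ ζ)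
    (hm : Mrg k0 ϑ v t y δ) (hty : 3 * δ ≤ ζ + t - y) (hX : Pos W.X w0 sa sb v t y δ)
    (hw : Tendsto W.w U (𝓝 0)) (x : ℝ) : ThinU W.B' (W.cfg E) (dir W inc) x := by
  obtain ⟨a1, a2⟩ := thin2_of h hr hco hI hF.fe hF.ge hm hX.near hX.e3 hX.e5 hw x
  have k7 : W.kap 7 = W.kap 8 := by rw [h.kap, h.kap]; rfl
  have hle : ∀ ε : ℝ, 0 < ε → ∀ n, W.B'.d n ^ x ≤ W.B'.d n ^ (x - ε) := fun ε hε n =>
    Real.rpow_le_rpow_of_exponent_ge (W.B'.pos n) (W.B'.lt n).le (by linarith)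
  refine ⟨a1, fun ε hε => ?_, fun ε hε => ?_, fun ε hε => ?_⟩
  · filter_upwards [a2] with n hn k i l hi hl
    exact (hn k i l hi hl).1.trans (hle ε hε n)
  · filter_upwards [a2] with n hn k i l hi hl
    exact (hn k i l hi hl).2.trans (hle ε hε n)
  · filter_upwards [hr, dimBz_window h.ok hco hI hF.fe hF.fn hF.ge hm hty hX.near hX.e7 k7 hw x]
      with n r hd k i l hi hl
    have h1 := hd _ (r.spec hi).1 _ (r.spec hl).1
    rw [r.rel_of hS7, r.rel_of hS8]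
    exact h1.trans (hle ε hε n)

section

variable {B : Base} {J : ℕ → Finset (ℕ × ℝ)}
    {co : ∀ n : ℕ, ℕ × ℝ → ℕ × ℝ → Fin 12 → ℝ} {C : ℝ} {D : Set (Fin 12 → ℝ)}
    {ν lam : (Fin 12 → ℝ) → ℝ} {X : ℕ → Fin 12 → ℝ} {h : ℕ → ℝ} {k' : ℕ → ℕ} {T : ℝ}
    {Mw : Mons 12} {top : Fin 12 → ℝ}

/-- **`ThinU` for the windows of `exists_winD` / `exists_winM`**: the coordinates are `coN`, the
class lies in `J`, the base points converge to a natural box in the slots `≥ 3`. -/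
theorem winG_thin
    (w : WinG W B I J co C D ν lam X h k' T Mw top)
    (hco : co = Gd222.coN B lev inc σ w0 sa sb) (hh : Tendsto h atTop (𝓝 0))
    (hk : Tendsto k' U atTop) (hr : ∀ᶠ n in (U : Filter ℕ), Reg W E n)
    (hJ : ∀ᶠ n in (U : Filter ℕ), W.Cl n ⊆ J n) {ζ : ℝ} (hF : FlagDz B J lev inc σ k0 ϑ ζ)
    (hm : Mrg k0 ϑ v t y δ) (hty : 3 * δ ≤ ζ + t - y)
    (hX : ∀ s, 3 ≤ s → Tendsto (fun l => X l s) atTop (𝓝 (PL504.nb w0 sa sb v t y s)))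
    (e3 : ∀ᶠ l in atTop, X l 3 = X l 4) (e5 : ∀ᶠ l in atTop, X l 5 = X l 6)
    (e7 : ∀ᶠ l in atTop, X l 7 = X l 8) (x : ℝ) :
    ThinU W.B' (W.cfg E) (dir W inc) x := by
  have hB := w.hB
  refine thinUz_of (I := J) (w0 := w0) (sa := sa) (sb := sb) w.wl hr (by rw [w.hS]; decide)
    (by rw [w.hS]; decide) (by rw [w.hco, w.hB, hco]) hJ (by rw [w.hB]; exact hF) hm hty
    (Pos.of_tendsto hm.pos (fun s hs => w.X_tendsto (hX s hs) hk) ?_ ?_ ?_)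
    (w.w_tendsto hh hk) x
  · exact w.ev_of (P := fun c _ => c 3 = c 4) e3 hk
  · exact w.ev_of (P := fun c _ => c 5 = c 6) e5 hk
  · exact w.ev_of (P := fun c _ => c 7 = c 8) e7 hk

end

end thin

end Crest.Agent.R116.Kz710
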