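import Crest.Agent.R116.Kg2_330
import Crest.Agent.R116.Kr14_710
import Crest.Agent.R116.Kg4_388
import Crest.Agent.R116.CtxB_468

/-!
# R116 (helper710): the dead direction of all the windows of the context

* `exists_mrgz` : margins.
* `CtxT.flagDz` : flag data from the context and `FlagZ`.
* `CtxT.thinW` : **`ThinU` in every window** at a base sequence with limit a natural box in the slots
  `≥ 3`; `CtxT.thinB`, `CtxT.thinM` : 330's `ThinB`, `ThinM`.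
* `CtxT.thinWC` : 388's `ThinC` (slots `3..6`), no condition on `y`.
-/

set_option autoImplicit false
set_option linter.unusedVariables false
set_option linter.unusedSectionVars false

open Finset Filter Topology

namespace Crest.Agent.R116.Kt710

open Crest.Agent.R138.Ex926 (Base U IsTan)
open Crest.Agent.R136.MkA627
open Crest.Agent.R136.Net191 Crest.Agent.R136.Qg926 Crest.Agent.R136.Gf356
open Crest.Agent.R136.TD627
open Crest.Agent.R116.LZg725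
open Crest.Agent.R116.ChL222
open Crest.Agent.R116.EvL504
open Crest.Agent.R116.Gd222 (TSet sN)
open Crest.Agent.R116.KI439
open Crest.Agent.R116.Tw468
open Crest.Agent.R116.CtxB468
open Crest.Agent.R116.WinG954
open Crest.Agent.R116.ThinD954
open Crest.Agent.R116.Kz710
open Crest.Agent.R116.Kr710 (ThinU)
open Crest.Agent.R116.Kc388 (ThinC)
open Crest.Agent.R116.Kg330 (ThinB ThinM)

/-- margins of a natural box, with the margin `ζ` -/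
theorem exists_mrgz {ζ v t y : ℝ} (ht : 0 < t) (hv : 0 < v + t) (hy : y < ζ + t) :
    ∃ κ0 δ : ℝ, Xd954.Mrg κ0 0 v t y δ ∧ 3 * δ ≤ ζ + t - y := by
  obtain ⟨δ, hδ⟩ := Xd954.exists_mrg (k0 := t - y + 1) (ϑ := 0) (v := v) (t := t) (y := y) ht
    (by linarith) hv
  have hp := hδ.pos
  have hq : 0 < (ζ + t - y) / 3 := by linarith
  refine ⟨t - y + 1, min δ ((ζ + t - y) / 3), ⟨lt_min hp hq, ?_, ?_, ?_⟩, ?_⟩
  · exact le_trans (by linarith [min_le_left δ ((ζ + t - y) / 3)]) hδ.mt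
  · exact le_trans (by linarith [min_le_left δ ((ζ + t - y) / 3)]) hδ.mkk
  · exact le_trans (by linarith [min_le_left δ ((ζ + t - y) / 3)]) hδ.mv
  · linarith [min_le_right δ ((ζ + t - y) / 3)]

section

variable {W : Wnd 12 (fun _ => ℕ × ℝ)} {I : ℕ → Finset (ℕ × ℝ)} {lev : ℕ → ℚ → ℕ}
    {inc : ℕ → ℕ × ℝ → LInc} {σ : Fin 2 → ℕ → ℝ} {k0 ϑ w0 sa sb v t y δ K tp : ℝ}
    {E : ∀ n, Finset (ℕ × ℝ)}
variable {B : Base} {J : ℕ → Finset (ℕ × ℝ)}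
    {co : ∀ n : ℕ, ℕ × ℝ → ℕ × ℝ → Fin 12 → ℝ} {C : ℝ} {D : Set (Fin 12 → ℝ)}
    {ν lam : (Fin 12 → ℝ) → ℝ} {X : ℕ → Fin 12 → ℝ} {h : ℕ → ℝ} {k' : ℕ → ℕ} {T : ℝ}
    {Mw : Mons 12} {top : Fin 12 → ℝ}

/-- **`ThinC` for every window**: 954's `WinG.thin` without the slots `7, 8` -/
theorem winG_thinC
    (w : WinG W B I J co C D ν lam X h k' T Mw top)
    (hco : co = Gd222.coN B lev inc σ w0 sa sb) (hh : Tendsto h atTop (𝓝 0))
    (hk : Tendsto k' U atTop) (hr : ∀ᶠ n in (U : Filter ℕ), Reg W E n)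
    (hJ : ∀ᶠ n in (U : Filter ℕ), W.Cl n ⊆ J n) (hF : Xd954.FlagE B J lev inc σ k0 ϑ)
    (hb : ∀ᶠ n in (U : Filter ℕ), ∀ x ∈ J n,
      1 / 4 ≤ Xd954.bb (inc n x) 0 ^ 2 + Xd954.bb (inc n x) 1 ^ 2)
    (hm : Xd954.Mrg k0 ϑ v t y δ)
    (hX : ∀ s, 3 ≤ s → Tendsto (fun l => X l s) atTop (𝓝 (PL504.nb w0 sa sb v t y s)))
    (e3 : ∀ᶠ l in atTop, X l 3 = X l 4) (e5 : ∀ᶠ l in atTop, X l 5 = X l 6) (x : ℝ) :
    ThinC W.B' (W.cfg E) (dir W inc) x := by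
  have hB := w.hB
  have hδ2 : 0 < δ / 2 := by have := hm.pos; linarith
  have near : ∀ᶠ n in (U : Filter ℕ), ∀ k, 3 ≤ k →
      |W.X n k - PL504.nb w0 sa sb v t y k| ≤ δ / 2 := by
    rw [eventually_all]
    intro k
    by_cases hk3 : 3 ≤ k
    · have h1 := (w.X_tendsto (hX k hk3) hk).eventually (Metric.closedBall_mem_nhds _ hδ2)
      filter_upwards [h1] with n hn _
      rw [Real.dist_eq] at hn
      exact hn
    · exact Eventually.of_forall fun n h3 => absurd h3 hk3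
  obtain ⟨a1, a2⟩ := thin2_of (I := J) (w0 := w0) (sa := sa) (sb := sb) (K := cK0 monL C) (tp := T)
    w.wl hr (by rw [w.hco, w.hB, hco]) hJ (by rw [w.hB]; exact hF) hb hm near
    (w.ev_of (P := fun c _ => c 3 = c 4) e3 hk) (w.ev_of (P := fun c _ => c 5 = c 6) e5 hk)
    (w.w_tendsto hh hk) x
  have hle : ∀ ε : ℝ, 0 < ε → ∀ n, W.B'.d n ^ x ≤ W.B'.d n ^ (x - ε) := fun ε hε n =>
    Real.rpow_le_rpow_of_exponent_ge (W.B'.pos n) (W.B'.lt n).le (by linarith)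
  refine ⟨a1, fun ε hε => ?_, fun ε hε => ?_⟩
  · filter_upwards [a2] with n hn k i l hi hl
    exact (hn k i l hi hl).1.trans (hle ε hε n)
  · filter_upwards [a2] with n hn k i l hi hl
    exact (hn k i l hi hl).2.trans (hle ε hε n)

end

section ctx

variable {G : Geo TSet (Fin 2)} {L : ℕ → ℕ → LRay} {r : ℕ → ℝ} {g s : ℝ} {θ q : Fin 2 → ℝ}
    {Rg : ℝ} {B : Base}
    {I : ℕ → Finset (ℕ × ℝ)} {lev : ℕ → ℚ → ℕ} {A : ℕ → ℝ}
    {f : ℕ → ℚ → ℕ → ℤ → ℕ} {b : ℕ → ℚ → ℕ → TSet} {vm : ℕ → ℚ → ℝ} {w : Fin 2 → ℕ → ℚ → ℝ}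
    {fr : ℕ → ℚ → ℕ × ℝ → LInc} {fl : ℕ → ℕ × ℝ → LInc} {sc : Fin 12 → ℕ → ℝ}
    {w0 sa sb δ R : ℝ} {I0 I' : ℕ → Finset (ℕ × ℝ)} {ν own : (Fin 12 → ℝ) → ℝ} {c₀ : ℝ}

/-- the lateral gradients are not short -/
theorem ctx_ge (h : CtxT G L r g s θ q Rg B I lev A f b vm w fr fl sc w0 sa sb δ R I0 I' ν own c₀)
    {J : ℕ → Finset (ℕ × ℝ)} (hJ : ∀ n, J n ⊆ I n) :
    ∀ᶠ n in (U : Filter ℕ), ∀ x ∈ J n,
      1 / 4 ≤ Xd954.bb (fl n x) 0 ^ 2 + Xd954.bb (fl n x) 1 ^ 2 := by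
  filter_upwards [h.out.win.dat.hb] with n hn x hx
  rw [Xd954.bb_sq]
  have h1 := hn x (hJ n hx)
  nlinarith

/-- flag data of the context -/
theorem flagDz (h : CtxT G L r g s θ q Rg B I lev A f b vm w fr fl sc w0 sa sb δ R I0 I' ν own c₀)
    {J : ℕ → Finset (ℕ × ℝ)} (hJ : ∀ n, J n ⊆ I n) {ζ : ℝ} (hz : FlagZ B I fl (sN lev w) ζ)
    (κ0 : ℝ) : FlagDz B J lev fl (sN lev w) κ0 0 ζ where
  fe := h.fE hJ κ0
  fn := fun ε hε => (hz ε hε).mono fun n hn x hx => hn x (hJ n hx)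
  ge := ctx_ge h hJ

variable {D : Set (Fin 12 → ℝ)} {lam : (Fin 12 → ℝ) → ℝ} {X : ℕ → Fin 12 → ℝ} {hh : ℕ → ℝ}
    {C : ℝ} {k' : ℕ → ℕ} {T : ℝ} {Mw : Mons 12} {top : Fin 12 → ℝ}
    {W : Wnd 12 (fun _ => ℕ × ℝ)} {E : ∀ n, Finset (ℕ × ℝ)} {v t y ζ : ℝ}

/-- **the dead direction in every window of the context** -/
theorem thinW (h : CtxT G L r g s θ q Rg B I lev A f b vm w fr fl sc w0 sa sb δ R I0 I' ν own c₀)
    (hz : FlagZ B I fl (sN lev w) ζ) (ht : 0 < t) (hv : 0 < v + t) (hy : y < ζ + t)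
    (hX : ∀ s, 3 ≤ s → Tendsto (fun l => X l s) atTop (𝓝 (PL504.nb w0 sa sb v t y s)))
    (e4 : ∀ᶠ l in atTop, X l 4 = X l 3) (e6 : ∀ᶠ l in atTop, X l 6 = X l 5)
    (e8 : ∀ᶠ l in atTop, X l 8 = X l 7) (hk : Tendsto k' U atTop) (hh0 : Tendsto hh atTop (𝓝 0))
    (win : WinG W B I0 I' (PL504.coN B lev w w0 sa sb fl) C D ν lam X hh k' T Mw top)
    (hr : ∀ᶠ n in (U : Filter ℕ), Reg W E n) (hJ : ∀ᶠ n in (U : Filter ℕ), W.Cl n ⊆ I' n) (x : ℝ) :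
    ThinU W.B' (W.cfg E) (dir W fl) x := by
  obtain ⟨κ0, δ', hm, hd⟩ := exists_mrgz ht hv hy
  exact winG_thin win (Gd222.coN_eq B lev w w0 sa sb fl).symm hh0 hk hr hJ
    (flagDz h (fun n => h.sub' n) hz κ0) hm hd hX (e4.mono fun l hl => hl.symm)
    (e6.mono fun l hl => hl.symm) (e8.mono fun l hl => hl.symm) x

/-- **the dead direction of the slots `3..6` in every window of the context** -/
theorem thinWC (h : CtxT G L r g s θ q Rg B I lev A f b vm w fr fl sc w0 sa sb δ R I0 I' ν own c₀)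
    (ht : 0 < t) (hv : 0 < v + t)
    (hX : ∀ s, 3 ≤ s → Tendsto (fun l => X l s) atTop (𝓝 (PL504.nb w0 sa sb v t y s)))
    (e4 : ∀ᶠ l in atTop, X l 4 = X l 3) (e6 : ∀ᶠ l in atTop, X l 6 = X l 5)
    (hk : Tendsto k' U atTop) (hh0 : Tendsto hh atTop (𝓝 0))
    (win : WinG W B I0 I' (PL504.coN B lev w w0 sa sb fl) C D ν lam X hh k' T Mw top)
    (hr : ∀ᶠ n in (U : Filter ℕ), Reg W E n) (hJ : ∀ᶠ n in (U : Filter ℕ), W.Cl n ⊆ I' n) (x : ℝ) :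
    ThinC W.B' (W.cfg E) (dir W fl) x := by
  obtain ⟨κ0, δ', hm, -⟩ := exists_mrgz (ζ := y - t + 1) ht hv (by linarith)
  exact winG_thinC win (Gd222.coN_eq B lev w w0 sa sb fl).symm hh0 hk hr hJ
    (h.fE (fun n => h.sub' n) κ0) (ctx_ge h fun n => h.sub' n) hm hX
    (e4.mono fun l hl => hl.symm) (e6.mono fun l hl => hl.symm) x

/-- **330's `ThinB`** (slot `D` frozen) -/
theorem thinB (h : CtxT G L r g s θ q Rg B I lev A f b vm w fr fl sc w0 sa sb δ R I0 I' ν own c₀)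
    (hz : FlagZ B I fl (sN lev w) ζ) (ht : 0 < t) (hv : 0 < v + t) (hy : y < ζ + t)
    (hX : ∀ s, 3 ≤ s → Tendsto (fun l => X l s) atTop (𝓝 (PL504.nb w0 sa sb v t y s)))
    (e4 : ∀ᶠ l in atTop, X l 4 = X l 3) (e6 : ∀ᶠ l in atTop, X l 6 = X l 5)
    (e8 : ∀ᶠ l in atTop, X l 8 = X l 7) :
    ThinB B I0 I' (PL504.coN B lev w w0 sa sb fl) C ν X hh :=
  fun D lam k' T W E hk hh0 win hr hJ =>
    ⟨_, thinW h hz ht hv hy hX e4 e6 e8 hk hh0 win hr hJ T⟩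

/-- **330's `ThinM`** (slot `D` live) -/
theorem thinM (h : CtxT G L r g s θ q Rg B I lev A f b vm w fr fl sc w0 sa sb δ R I0 I' ν own c₀)
    (hz : FlagZ B I fl (sN lev w) ζ) (ht : 0 < t) (hv : 0 < v + t) (hy : y < ζ + t)
    (hX : ∀ s, 3 ≤ s → Tendsto (fun l => X l s) atTop (𝓝 (PL504.nb w0 sa sb v t y s)))
    (e4 : ∀ᶠ l in atTop, X l 4 = X l 3) (e6 : ∀ᶠ l in atTop, X l 6 = X l 5)
    (e8 : ∀ᶠ l in atTop, X l 8 = X l 7) :
    ThinM B I0 I' (PL504.coN B lev w w0 sa sb fl) C ν X hh :=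
  fun D lam k' T W E hk hh0 win hr hJ =>
    ⟨_, thinW h hz ht hv hy hX e4 e6 e8 hk hh0 win hr hJ T⟩

/-- **388's `ThinBC`** (slot `D` frozen, slots `3..6` only), no condition on `y` -/
theorem thinBC (h : CtxT G L r g s θ q Rg B I lev A f b vm w fr fl sc w0 sa sb δ R I0 I' ν own c₀)
    (ht : 0 < t) (hv : 0 < v + t)
    (hX : ∀ s, 3 ≤ s → Tendsto (fun l => X l s) atTop (𝓝 (PL504.nb w0 sa sb v t y s)))
    (e4 : ∀ᶠ l in atTop, X l 4 = X l 3) (e6 : ∀ᶠ l in atTop, X l 6 = X l 5) :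
    Kc388.ThinBC B I0 I' (PL504.coN B lev w w0 sa sb fl) C ν X hh :=
  fun D lam k' T W E hk hh0 win hr hJ =>
    ⟨_, thinWC h ht hv hX e4 e6 hk hh0 win hr hJ T⟩

/-- `ζ = θ 1 - θ 0`, from the marks of level `0` -/
theorem flagZ1 (h : CtxT G L r g s θ q Rg B I lev A f b vm w fr fl sc w0 sa sb δ R I0 I' ν own c₀)
    (h0 : 0 ≤ θ 0) : FlagZ B I fl (sN lev w) (θ 1 - θ 0) :=
  h.nz (fun _ => Finset.Subset.refl _) h0

/-- `ζ = 0` -/
theorem flagZ0 (h : CtxT G L r g s θ q Rg B I lev A f b vm w fr fl sc w0 sa sb δ R I0 I' ν own c₀) :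
    FlagZ B I fl (sN lev w) 0 := FlagZ.of_N (h.fN fun _ => Finset.Subset.refl _)

end ctx

end Crest.Agent.R116.Kt710
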