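import Crest.Agent.R116.EvL4_504

/-!
# R116, EVL (helper504), part 5: natural base points, the slot `D` natural or frozen

`X n = eL z c p`, or `X n = update (eL z c p) 1 q` with `γ = d ^ (q - (p - 2 c - z))` small
(the slot `D` frozen).  `sc g v` multiplies the slot `1` by `g`; `g = 1`: natural, `g = 0`: frozen.

* `FrX W g tp n` : the units at `n`; `FrX.of_nat`, `FrX.of_fro`;
* `FrX.compW`, `FrX.evoW` : the laws of the window are `comp`, `evoS` of `sc g ·` up to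
  `48 ρ^tp`, `52 ρ^tp`;
* `Reg.cocF`, `Reg.evoF`, `Reg.evoSLF`, `Reg.fourF` : the laws of `W.cfg E n` in this form.
-/

set_option autoImplicit false
set_option linter.unusedVariables false
set_option linter.unusedSectionVars false

open Filter

namespace Crest.Agent.R116.EvL504

open Crest.Agent.R138.Ex926 (Base U)
open Crest.Agent.R136.Net191 Crest.Agent.R136.Qg926 Crest.Agent.R136.Gf356
open Crest.Agent.R116.ChL222 Crest.Agent.R116.PL504

variable {ι : ℕ → Type*} [∀ n, DecidableEq (ι n)]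

/-- multiply the slot `D` -/
def sc (g : ℝ) (v : Fin 12 → ℝ) : Fin 12 → ℝ := fun k => if k = 1 then g * v k else v k

theorem sc_one (v : Fin 12 → ℝ) : sc 1 v = v := by
  funext k; unfold sc; split_ifs <;> simp

theorem sc_of_ne {g : ℝ} {v : Fin 12 → ℝ} {k : Fin 12} (hk : k ≠ 1) : sc g v k = v k := if_neg hk

theorem sc_D (g : ℝ) (v : Fin 12 → ℝ) : sc g v 1 = g * v 1 := if_pos rfl

theorem LvS_sc (S : Finset (Fin 12)) (g : ℝ) (v : Fin 12 → ℝ) :
    LvS S (sc g v) = sc g (LvS S v) := by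
  funext k
  by_cases h1 : k ∈ S <;> by_cases h2 : k = 1 <;> simp [LvS, sc, h1, h2]

theorem LnS_sc (S : Finset (Fin 12)) (g : ℝ) (v : Fin 12 → ℝ) :
    LnS S (sc g v) = sc g (LnS S v) := by
  funext k
  by_cases h1 : k ∈ S <;> by_cases h2 : k = 1 <;> simp [LnS, sc, h1, h2]

theorem abs_sc_le {g : ℝ} (h0 : 0 ≤ g) (h1 : g ≤ 1) {v : Fin 12 → ℝ} (hv : ∀ k, |v k| ≤ 1)
    (k : Fin 12) : |sc g v k| ≤ 1 := by
  unfold sc
  split_ifs
  · rw [abs_mul, abs_of_nonneg h0]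
    exact mul_le_one₀ h1 (abs_nonneg _) (hv k)
  · exact hv k

theorem abs_sc_sub_le {g g' : ℝ} {v : Fin 12 → ℝ} (hv : ∀ k, |v k| ≤ 1)
    (k : Fin 12) : |sc g v k - sc g' v k| ≤ |g - g'| := by
  unfold sc
  split_ifs
  · rw [← sub_mul, abs_mul]
    exact mul_le_of_le_one_right (abs_nonneg _) (hv k)
  · simp

/-! ### natural sides -/

/-- units of a natural plane -/
noncomputable def natD (K x z c p : ℝ) (s : Fin 12) : ℝ := K ^ wtL s * x ^ eL z c p s

theorem natD_pos {K x : ℝ} (hK : 0 < K) (hx : 0 < x) (z c p : ℝ) (s : Fin 12) :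
    0 < natD K x z c p s := mul_pos (pow_pos hK _) (Real.rpow_pos_of_pos hx _)

theorem natD_inv {K x : ℝ} (hK : 0 < K) (hx : 0 < x) (z c p : ℝ) (s : Fin 12) :
    (natD K x z c p s)⁻¹ = uL ((K * x ^ z)⁻¹) ((K * x ^ c)⁻¹) ((K ^ 4 * x ^ p)⁻¹) s := by
  have hK' := hK.ne'
  have pz := Real.rpow_pos_of_pos hx z
  have pc := Real.rpow_pos_of_pos hx c
  have pp := Real.rpow_pos_of_pos hx p
  have nz := pz.ne'
  have nc := pc.ne'
  have np := pp.ne'
  unfold natD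
  rw [← uL_rpow hx]
  fin_cases s <;> simp [uL, wtL] <;> field_simp

/-- on natural sides the law is `comp` -/
theorem comp_natD {K x : ℝ} (hK : 0 < K) (hx : 0 < x) (z c p : ℝ) (a b : Fin 12 → ℝ) :
    comp (fun j => natD K x z c p j * a j) (fun j => natD K x z c p j * b j) =
      fun s => natD K x z c p s * comp a b s := by
  have pz := Real.rpow_pos_of_pos hx z
  have pc := Real.rpow_pos_of_pos hx c
  have key := comp_unit (lz := (K * x ^ z)⁻¹) (lc := (K * x ^ c)⁻¹)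
    (lp := (K ^ 4 * x ^ p)⁻¹) (by positivity) (by positivity)
    (fun j => natD K x z c p j * a j) (fun j => natD K x z c p j * b j)
  have e : ∀ v : Fin 12 → ℝ, (fun k => uL ((K * x ^ z)⁻¹) ((K * x ^ c)⁻¹)
      ((K ^ 4 * x ^ p)⁻¹) k * (natD K x z c p k * v k)) = v := by
    intro v
    funext k
    rw [← natD_inv hK hx]
    have := (natD_pos hK hx z c p k).ne'
    field_simp
  rw [e a, e b] at key
  funext s
  rw [key]
  show _ = natD K x z c p s * (uL ((K * x ^ z)⁻¹) ((K * x ^ c)⁻¹) ((K ^ 4 * x ^ p)⁻¹) s * _)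
  rw [← natD_inv hK hx]
  have := (natD_pos hK hx z c p s).ne'
  field_simp

/-- on natural sides the evolution is `evoS` -/
theorem evoS_natD {K x : ℝ} (hK : 0 < K) (hx : 0 < x) (z c p : ℝ) (S : Finset (Fin 12))
    (a b : Fin 12 → ℝ) :
    evoS S (fun j => natD K x z c p j * a j) (fun j => natD K x z c p j * b j) =
      fun s => natD K x z c p s * evoS S a b s := by
  unfold evoS
  rw [LvS_smul, LnS_smul, comp_natD hK hx]
  have e : hgt (-(natD K x z c p 0 * a 0)) = fun j => natD K x z c p j * hgt (-(a 0)) j := by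
    funext j
    unfold hgt
    split_ifs with hj
    · subst hj; ring
    · simp
  rw [e, comp_natD hK hx]

/-! ### the slot `D` natural or frozen -/

/-- the units at `n`: natural, the slot `D` multiplied by `γ`, `γ = g` up to `ρ^tp` -/
def FrX (W : Wnd 12 ι) (K g tp : ℝ) (n : ℕ) : Prop :=
  ∃ z c p γ : ℝ, 0 < γ ∧ γ ≤ 1 ∧ |γ - g| ≤ W.B'.d n ^ tp ∧
    side W n = sc γ (natD K (W.B.d n) z c p)

theorem sc_mul (γ : ℝ) (D a : Fin 12 → ℝ) :
    (fun j => sc γ D j * a j) = fun j => D j * sc γ a j := by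
  funext j
  unfold sc
  split_ifs <;> ring

theorem comp_one (a b : Fin 12 → ℝ) : comp a b 1 = a 1 + b 1 := rfl

theorem evoS_one (S : Finset (Fin 12)) (a b : Fin 12 → ℝ) :
    evoS S a b 1 = LvS S a 1 + LnS S b 1 := by
  unfold evoS
  rw [comp_one, comp_one]
  simp [hgt]

theorem evoS_apply (S : Finset (Fin 12)) (a b : Fin 12 → ℝ) {s : Fin 12} (hs : s ≠ 0) :
    evoS S a b s = comp (LvS S a) (LnS S b) s +
      if s = 2 then 2 * ((LvS S a 1 + LnS S b 1) * a 0) else 0 := by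
  unfold evoS
  rw [comp_hgt _ _ hs, comp_one]
  split_ifs <;> ring

theorem abs_LvS_one {S : Finset (Fin 12)} {a : Fin 12 → ℝ} (ha : ∀ k, |a k| ≤ 1) (k : Fin 12) :
    |LvS S a k| ≤ 1 := by
  unfold LvS
  split_ifs
  · exact ha k
  · simp

theorem abs_LnS_one {S : Finset (Fin 12)} {a : Fin 12 → ℝ} (ha : ∀ k, |a k| ≤ 1) (k : Fin 12) :
    |LnS S a k| ≤ 1 := by
  unfold LnS
  split_ifs
  · simp
  · exact ha k

/-- `comp` depends continuously on the factor of the slot `D` -/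
theorem comp_sc_lip {g g' : ℝ} (h0 : 0 ≤ g) (h1 : g ≤ 1) (h0' : 0 ≤ g') (h1' : g' ≤ 1)
    {a b : Fin 12 → ℝ} (ha : ∀ k, |a k| ≤ 1) (hb : ∀ k, |b k| ≤ 1) (s : Fin 12) :
    |comp (sc g a) (sc g b) s - comp (sc g' a) (sc g' b) s| ≤ 48 * |g - g'| :=
  comp_lip (abs_sc_le h0 h1 ha) (abs_sc_le h0' h1' ha) (abs_sc_le h0 h1 hb)
    (abs_sc_le h0' h1' hb) (abs_sc_sub_le ha) (abs_sc_sub_le hb) s

/-- `evoS` depends continuously on the factor of the slot `D` -/
theorem evoS_sc_lip (S : Finset (Fin 12)) {g g' : ℝ} (h0 : 0 ≤ g) (h1 : g ≤ 1) (h0' : 0 ≤ g')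
    (h1' : g' ≤ 1) {a b : Fin 12 → ℝ} (ha : ∀ k, |a k| ≤ 1) (hb : ∀ k, |b k| ≤ 1) {s : Fin 12}
    (hs : s ≠ 0) :
    |evoS S (sc g a) (sc g b) s - evoS S (sc g' a) (sc g' b) s| ≤ 52 * |g - g'| := by
  rw [evoS_apply S _ _ hs, evoS_apply S _ _ hs, LvS_sc, LnS_sc, LvS_sc, LnS_sc]
  have t1 := comp_sc_lip h0 h1 h0' h1' (abs_LvS_one (S := S) ha) (abs_LnS_one (S := S) hb) s
  rw [sc_D, sc_D, sc_D, sc_D, sc_of_ne (v := a) (k := 0) (by decide),
    sc_of_ne (v := a) (k := 0) (by decide)]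
  have hA : |LvS S a 1 + LnS S b 1| ≤ 2 := (abs_add_le _ _).trans (by
    have := abs_LvS_one (S := S) ha 1
    have := abs_LnS_one (S := S) hb 1
    linarith)
  have h3 : |(g - g') * (LvS S a 1 + LnS S b 1) * a 0| ≤ |g - g'| * 2 := by
    rw [abs_mul, abs_mul]
    have := mul_le_mul hA (ha 0) (abs_nonneg _) (by norm_num : (0 : ℝ) ≤ 2)
    have := mul_le_mul_of_nonneg_left this (abs_nonneg (g - g'))
    linarith
  split_ifs with h2
  · have e : (comp (sc g (LvS S a)) (sc g (LnS S b)) s +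
        2 * ((g * LvS S a 1 + g * LnS S b 1) * a 0)) -
        (comp (sc g' (LvS S a)) (sc g' (LnS S b)) s +
          2 * ((g' * LvS S a 1 + g' * LnS S b 1) * a 0)) =
        (comp (sc g (LvS S a)) (sc g (LnS S b)) s - comp (sc g' (LvS S a)) (sc g' (LnS S b)) s) +
          2 * ((g - g') * (LvS S a 1 + LnS S b 1) * a 0) := by ring
    rw [e]
    refine (abs_add_le _ _).trans ?_
    rw [abs_mul, abs_two]
    linarith
  · rw [add_zero, add_zero]
    linarith [abs_nonneg (g - g')]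

namespace FrX

variable {W : Wnd 12 ι} {K g tp : ℝ} {n : ℕ}

/-- a natural base point -/
theorem of_nat (h : WL W K tp) {z c p : ℝ} (hX : W.X n = eL z c p) : FrX W K 1 tp n := by
  refine ⟨z, c, p, 1, one_pos, le_rfl, ?_, ?_⟩
  · rw [sub_self, abs_zero]; exact h.r0 n
  · rw [sc_one]
    funext s
    unfold side natD
    rw [h.kap, hX]

/-- a natural base point, the slot `D` frozen -/
theorem of_fro (h : WL W K tp) {z c p q : ℝ} (hX : W.X n = Function.update (eL z c p) 1 q)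
    (hq : p - 2 * c - z ≤ q) (hγ : W.B.d n ^ (q - (p - 2 * c - z)) ≤ W.B'.d n ^ tp) :
    FrX W K 0 tp n := by
  have hd := W.B.pos n
  refine ⟨z, c, p, W.B.d n ^ (q - (p - 2 * c - z)), Real.rpow_pos_of_pos hd _,
    Real.rpow_le_one hd.le (W.B.lt n).le (by linarith), ?_, ?_⟩
  · rw [sub_zero, abs_of_pos (Real.rpow_pos_of_pos hd _)]
    exact hγ
  · funext s
    unfold side natD sc
    rw [h.kap, hX]
    split_ifs with hs
    · subst hs
      rw [Function.update_self]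
      show _ = W.B.d n ^ (q - (p - 2 * c - z)) * (K ^ wtL 1 * W.B.d n ^ (p - 2 * c - z))
      rw [mul_left_comm, ← Real.rpow_add hd]
      congr 2; ring
    · rw [Function.update_of_ne hs]

/-- **the law of the window**, `s ≠ 1` -/
theorem compW (f : FrX W K g tp n) (h : WL W K tp) (g0 : 0 ≤ g) (g1 : g ≤ 1)
    {a b : Fin 12 → ℝ} (ha : ∀ k, |a k| ≤ 1) (hb : ∀ k, |b k| ≤ 1) {s : Fin 12} (hs : s ≠ 1) :
    |EvL504.compW W n a b s - comp (sc g a) (sc g b) s| ≤ 48 * W.B'.d n ^ tp := by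
  obtain ⟨z, c, p, γ, γ0, γ1, hγ, e⟩ := f
  have hK : (0 : ℝ) < K := by linarith [h.K1]
  have e1 : EvL504.compW W n a b s = comp (sc γ a) (sc γ b) s := by
    unfold EvL504.compW
    rw [e, sc_mul, sc_mul, comp_natD hK (W.B.pos n), sc_of_ne hs]
    exact mul_div_cancel_left₀ _ (natD_pos hK (W.B.pos n) z c p s).ne'
  rw [e1]
  exact (comp_sc_lip γ0.le γ1 g0 g1 ha hb s).trans (by linarith)

/-- **the law of the window**, `s = 1` -/
theorem compW_D (h : WL W K tp) (a b : Fin 12 → ℝ) : EvL504.compW W n a b 1 = a 1 + b 1 := by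
  unfold EvL504.compW
  rw [comp_one, ← mul_add]
  exact mul_div_cancel_left₀ _ (h.side_pos' n 1).ne'

/-- **the evolution of the window**, `s ≠ 0, 1` -/
theorem evoW (f : FrX W K g tp n) (h : WL W K tp) (g0 : 0 ≤ g) (g1 : g ≤ 1)
    {a b : Fin 12 → ℝ} (ha : ∀ k, |a k| ≤ 1) (hb : ∀ k, |b k| ≤ 1) {s : Fin 12} (h0 : s ≠ 0)
    (hs : s ≠ 1) :
    |EvL504.evoW W n a b s - evoS W.S (sc g a) (sc g b) s| ≤ 52 * W.B'.d n ^ tp := by
  obtain ⟨z, c, p, γ, γ0, γ1, hγ, e⟩ := f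
  have hK : (0 : ℝ) < K := by linarith [h.K1]
  have e1 : EvL504.evoW W n a b s = evoS W.S (sc γ a) (sc γ b) s := by
    unfold EvL504.evoW
    rw [e, sc_mul, sc_mul, evoS_natD hK (W.B.pos n), sc_of_ne hs]
    exact mul_div_cancel_left₀ _ (natD_pos hK (W.B.pos n) z c p s).ne'
  rw [e1]
  exact (evoS_sc_lip W.S γ0.le γ1 g0 g1 ha hb h0).trans (by linarith)

/-- **the evolution of the window**, `s = 1` -/
theorem evoW_D (h : WL W K tp) (a b : Fin 12 → ℝ) :
    EvL504.evoW W n a b 1 = LvS W.S a 1 + LnS W.S b 1 := by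
  unfold EvL504.evoW
  rw [evoS_one, LvS_smul, LnS_smul, ← mul_add]
  exact mul_div_cancel_left₀ _ (h.side_pos' n 1).ne'

end FrX

/-! ### the laws of `W.cfg E n` -/

namespace Reg

variable {W : Wnd 12 ι} {E : ∀ n, Finset (ι n)} {n : ℕ} (r : Reg W E n)
  {K g tp : ℝ} (h : WL W K tp)

include r h

/-- **composition at one height** -/
theorem cocF (f : FrX W K g tp n) (g0 : 0 ≤ g) (g1 : g ≤ 1) {k i j l : ℕ}
    (hi : (i, k) ∈ (W.cfg E n).I) (hj : (j, k) ∈ (W.cfg E n).I) (hl : (l, k) ∈ (W.cfg E n).I)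
    {s : Fin 12} (hs : s ∉ W.S) (h1 : s ≠ 1) :
    |(W.cfg E n).rel k i l s -
      comp (sc g ((W.cfg E n).rel k i j)) (sc g ((W.cfg E n).rel k j l)) s| ≤
      96 * W.B'.d n ^ tp := by
  have t1 := r.coc h hi hj hl hs
  have t2 := f.compW h g0 g1 (r.rel_le h hi hj) (r.rel_le h hj hl) h1
  rw [abs_le] at t1 t2 ⊢
  constructor <;> linarith [t1.1, t1.2, t2.1, t2.2]

/-- composition at one height, the slot `D` -/
theorem cocF_D {k i j l : ℕ}
    (hi : (i, k) ∈ (W.cfg E n).I) (hj : (j, k) ∈ (W.cfg E n).I) (hl : (l, k) ∈ (W.cfg E n).I)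
    (hs : (1 : Fin 12) ∉ W.S) :
    |(W.cfg E n).rel k i l 1 - ((W.cfg E n).rel k i j 1 + (W.cfg E n).rel k j l 1)| ≤
      48 * W.B'.d n ^ tp := by
  have t1 := r.coc h hi hj hl hs
  rwa [FrX.compW_D h] at t1

/-- **evolution**, slots `C, X, N, P, F` -/
theorem evoSLF (f : FrX W K g tp n) (g0 : 0 ≤ g) (g1 : g ≤ 1) {k k' i l : ℕ}
    (hi : (i, k) ∈ (W.cfg E n).I) (hl : (l, k) ∈ (W.cfg E n).I)
    (hi' : (i, k') ∈ (W.cfg E n).I) (hl' : (l, k') ∈ (W.cfg E n).I) {s : Fin 12} (hs : s ∉ SL) :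
    |(W.cfg E n).rel k' i l s - comp (sc g (LvS SL (own W n i k' k)))
      (sc g (LnS SL ((W.cfg E n).rel k i l))) s| ≤ 144 * W.B'.d n ^ tp := by
  have t1 := r.evoSL h hi hl hi' hl' hs
  have h1 : s ≠ 1 := by rintro rfl; exact hs (by decide)
  have t2 := f.compW h g0 g1 (abs_LvS_one (S := SL) (r.own_le h hi hi'))
    (abs_LnS_one (S := SL) (r.rel_le h hi hl)) h1
  rw [abs_le] at t1 t2 ⊢
  constructor <;> linarith [t1.1, t1.2, t2.1, t2.2]

/-- **evolution**, flags resolved -/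
theorem evoF (f : FrX W K g tp n) (g0 : 0 ≤ g) (g1 : g ≤ 1) (hres : ∀ s, tp ≤ W.top s)
    {k k' i l : ℕ} (hi : (i, k) ∈ (W.cfg E n).I)
    (hl : (l, k) ∈ (W.cfg E n).I) (hi' : (i, k') ∈ (W.cfg E n).I) (hl' : (l, k') ∈ (W.cfg E n).I)
    {s : Fin 12} (hs : s ∉ W.S) (h1 : s ≠ 1) :
    |(W.cfg E n).rel k' i l s -
      evoS W.S (sc g (own W n i k' k)) (sc g ((W.cfg E n).rel k i l)) s| ≤
      252 * W.B'.d n ^ tp := by
  have t1 := r.evo h hres hi hl hi' hl' hs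
  have h0 : s ≠ 0 := by rintro rfl; exact hs h.z0
  have t2 := f.evoW h g0 g1 (r.own_le h hi hi') (r.rel_le h hi hl) h0 h1
  rw [abs_le] at t1 t2 ⊢
  constructor <;> linarith [t1.1, t1.2, t2.1, t2.2]

/-- evolution, the slot `D` -/
theorem evoF_D (hres : ∀ s, tp ≤ W.top s)
    {k k' i l : ℕ} (hi : (i, k) ∈ (W.cfg E n).I)
    (hl : (l, k) ∈ (W.cfg E n).I) (hi' : (i, k') ∈ (W.cfg E n).I) (hl' : (l, k') ∈ (W.cfg E n).I)
    (hs : (1 : Fin 12) ∉ W.S) :
    |(W.cfg E n).rel k' i l 1 - (W.cfg E n).rel k i l 1| ≤ 200 * W.B'.d n ^ tp := by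
  have t1 := r.evo h hres hi hl hi' hl' hs
  rw [FrX.evoW_D h] at t1
  have e1 : LvS W.S (own W n i k' k) 1 = 0 := if_neg hs
  have e2 : LnS W.S ((W.cfg E n).rel k i l) 1 = (W.cfg E n).rel k i l 1 := if_neg hs
  rwa [e1, e2, zero_add] at t1

/-- **own motions of two lines between the same two heights**, flags resolved -/
theorem fourF (f : FrX W K g tp n) (g0 : 0 ≤ g) (g1 : g ≤ 1) (hres : ∀ s, tp ≤ W.top s)
    {k k' i l : ℕ} (hi : (i, k) ∈ (W.cfg E n).I)
    (hl : (l, k) ∈ (W.cfg E n).I) (hi' : (i, k') ∈ (W.cfg E n).I) (hl' : (l, k') ∈ (W.cfg E n).I)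
    {s : Fin 12} (h1 : s ≠ 1) :
    |comp (sc g ((W.cfg E n).rel k' i l)) (sc g (LvS W.S (own W n l k' k))) s -
      comp (sc g (LvS W.S (own W n i k' k))) (sc g ((W.cfg E n).rel k i l)) s| ≤
      192 * W.B'.d n ^ tp := by
  have t1 := r.own_four h hres hi hl hi' hl' s
  have t2 := f.compW h g0 g1 (r.rel_le h hi' hl') (abs_LvS_one (S := W.S) (r.own_le h hl hl')) h1
  have t3 := f.compW h g0 g1 (abs_LvS_one (S := W.S) (r.own_le h hi hi')) (r.rel_le h hi hl) h1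
  rw [abs_le] at t1 t2 t3 ⊢
  constructor <;> linarith [t1.1, t1.2, t2.1, t2.2, t3.1, t3.2]

end Reg

end Crest.Agent.R116.EvL504
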