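import Crest.Agent.R116.Kr9_710
import Crest.Agent.R116.EvL5_504

/-!
# R116, EVL (helper504), part 6: 710's `LLaw` for the configurations of 926

* `llaw` : natural base points, flags resolved: `LLaw W.B' (W.cfg E) W.S (ownL W) tp`;
* `RCfg.drop j` (forget the slot `j`), `RUnif.drop`, `RModel.drop`, `Thin.drop`;
* `llaw_drop` : base points with the slot `D` frozen: `LLaw` of `(W.cfg E n).drop 1` with level
  slots `insert 1 S` (the slot `D` is absent from all laws);
* `LLaw.mono`, `LLaw.grow`.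
-/

set_option autoImplicit false
set_option linter.unusedVariables false
set_option linter.unusedSectionVars false

open Filter Topology Finset

namespace Crest.Agent.R116.EvL504

open Crest.Agent.R138.Ex926 (Base U)
open Crest.Agent.R136.Net191 Crest.Agent.R136.Qg926 Crest.Agent.R136.Gf356
open Crest.Agent.R116.ChL222 Crest.Agent.R116.PL504
open Crest.Agent.R116.Kr710 (LLaw Thin)

/-! ### forget a slot -/

section drop

variable {κ : Type} [DecidableEq κ]

/-- forget the slot `j` -/
def drop (j : κ) (G : RCfg κ) : RCfg κ where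
  ρ := G.ρ
  L := G.L
  Z := G.Z
  I := G.I
  z := G.z
  rel k i l s := if s = j then 0 else G.rel k i l s

theorem drop_rel_of_ne {j s : κ} (G : RCfg κ) (k i l : ℕ) (h : s ≠ j) :
    (drop j G).rel k i l s = G.rel k i l s := if_neg h

theorem drop_rel_self (j : κ) (G : RCfg κ) (k i l : ℕ) : (drop j G).rel k i l j = 0 := if_pos rfl

theorem drop_loose {j : κ} {G : RCfg κ} {p : κ → ℝ} {ε : ℝ} {k i l : ℕ} (hρ : 0 < G.ρ)
    (hb : |G.rel k i l j| ≤ G.ρ ^ (-ε)) :
    (drop j G).loose p ε k i l ↔ G.loose (Function.update p j 0) ε k i l := by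
  constructor
  · intro h s
    by_cases hs : s = j
    · subst hs
      rw [Function.update_self, zero_sub]
      exact hb
    · have := h s
      rw [drop_rel_of_ne G k i l hs] at this
      rw [Function.update_of_ne hs]
      exact this
  · intro h s
    by_cases hs : s = j
    · subst hs
      rw [drop_rel_self, abs_zero]
      exact (Real.rpow_pos_of_pos hρ _).le
    · have := h s
      rw [Function.update_of_ne hs] at this
      rw [drop_rel_of_ne G k i l hs]
      exact this

variable {B : Base} {G : ℕ → RCfg κ} {Leg : Set (κ → ℝ)} {ν : (κ → ℝ) → ℝ} {D : ℝ}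

/-- **uniform counts, one slot forgotten** -/
theorem _root_.Crest.Agent.R136.Gf356.RUnif.drop (H : RUnif B G Leg ν D) {j : κ}
    (hb : ∀ ε : ℝ, 0 < ε → ∀ᶠ n in (U : Filter ℕ), ∀ k i l, (i, k) ∈ (G n).I →
      (l, k) ∈ (G n).I → |(G n).rel k i l j| ≤ B.d n ^ (-ε)) {Leg' : Set (κ → ℝ)}
    (hL : ∀ p ∈ Leg', Function.update p j 0 ∈ Leg) :
    RUnif B (fun n => EvL504.drop j (G n)) Leg' (fun p => ν (Function.update p j 0)) D where
  D1 := H.D1
  base := H.base
  sub := H.sub
  nonempty := H.nonempty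
  refl := by
    intro n k i hi s
    show (if s = j then (0 : ℝ) else _) = 0
    split_ifs
    · rfl
    · exact H.refl n k i hi s
  symm := by
    intro p hp ε hε
    have hD : 0 < D * ε := mul_pos (by linarith [H.D1]) hε
    filter_upwards [H.symm _ (hL p hp) ε hε, hb ε hε, hb _ hD] with n h1 h2 h3
    intro k i l hi hl h
    have hρ : 0 < (G n).ρ := by rw [H.base n]; exact B.pos n
    rw [drop_loose hρ (by rw [H.base n]; exact h2 k i l hi hl)] at h
    rw [drop_loose hρ (by rw [H.base n]; exact h3 k l i hl hi)]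
    exact h1 k i l hi hl h
  tri := by
    intro p hp ε hε
    have hD : 0 < D * ε := mul_pos (by linarith [H.D1]) hε
    filter_upwards [H.tri _ (hL p hp) ε hε, hb ε hε, hb _ hD] with n h1 h2 h3
    intro k i l m hi hl hm h h'
    have hρ : 0 < (G n).ρ := by rw [H.base n]; exact B.pos n
    rw [drop_loose hρ (by rw [H.base n]; exact h2 k i l hi hl)] at h
    rw [drop_loose hρ (by rw [H.base n]; exact h2 k l m hl hm)] at h'
    rw [drop_loose hρ (by rw [H.base n]; exact h3 k i m hi hm)]
    exact h1 k i l m hi hl hm h h'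
  low := by
    intro p hp ε hε
    filter_upwards [H.low _ (hL p hp) ε hε, hb ε hε] with n h1 h2
    intro i k hi
    have hρ : 0 < (G n).ρ := by rw [H.base n]; exact B.pos n
    refine (h1 i k hi).trans (Nat.cast_le.2 (Finset.card_le_card fun l hl => ?_))
    obtain ⟨a, b⟩ := RCfg.mem_box.1 hl
    have hlI : (l, k) ∈ (G n).I := (RCfg.mem_slice.1 a).2
    exact RCfg.mem_box.2 ⟨RCfg.mem_slice.2 (RCfg.mem_slice.1 a),
      (drop_loose hρ (by rw [H.base n]; exact h2 k i l hi hlI)).2 b⟩
  up := by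
    intro p hp ε hε
    filter_upwards [H.up _ (hL p hp) ε hε, hb ε hε] with n h1 h2
    intro i k hi
    have hρ : 0 < (G n).ρ := by rw [H.base n]; exact B.pos n
    refine (Nat.cast_le.2 (Finset.card_le_card fun l hl => ?_)).trans (h1 i k hi)
    obtain ⟨a, b⟩ := RCfg.mem_box.1 hl
    have hlI : (l, k) ∈ (G n).I := (RCfg.mem_slice.1 a).2
    exact RCfg.mem_box.2 ⟨RCfg.mem_slice.2 (RCfg.mem_slice.1 a),
      (drop_loose hρ (by rw [H.base n]; exact h2 k i l hi hlI)).1 b⟩

/-- **models, one slot forgotten** -/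
theorem _root_.Crest.Agent.R136.Gf356.RModel.drop {σ R : ℝ} (H : RModel B G σ R Leg ν D) {j : κ}
    (hb : ∀ ε : ℝ, 0 < ε → ∀ᶠ n in (U : Filter ℕ), ∀ k i l, (i, k) ∈ (G n).I →
      (l, k) ∈ (G n).I → |(G n).rel k i l j| ≤ B.d n ^ (-ε)) {Leg' : Set (κ → ℝ)}
    (hL : ∀ p ∈ Leg', Function.update p j 0 ∈ Leg) :
    RModel B (fun n => EvL504.drop j (G n)) σ R Leg' (fun p => ν (Function.update p j 0)) D where
  toRUnif := H.toRUnif.drop hb hL
  σ_nonneg := H.σ_nonneg
  σ_le := H.σ_le
  line := H.line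
  slice := H.slice
  frost := H.frost

end drop

/-! ### 710's `LLaw` -/

theorem sc_zero_of {v : Fin 12 → ℝ} (h : v 1 = 0) (g : ℝ) : sc g v = v := by
  funext k
  unfold sc
  split_ifs with hk
  · rw [hk, h, mul_zero]
  · rfl

theorem drop_rel_sc (G : RCfg (Fin 12)) (k i l : ℕ) : (drop 1 G).rel k i l = sc 0 (G.rel k i l) := by
  funext s
  unfold sc
  show (if s = 1 then (0 : ℝ) else _) = _
  split_ifs <;> simp

/-- lower precision -/
theorem _root_.Crest.Agent.R116.Kr710.LLaw.mono {B : Base} {G : ℕ → RCfg (Fin 12)}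
    {S : Finset (Fin 12)} {own : ℕ → ℕ → ℕ → ℕ → Fin 12 → ℝ} {x y : ℝ} (L : LLaw B G S own x)
    (hy : y ≤ x) : LLaw B G S own y := by
  have up : ∀ n (ε : ℝ), B.d n ^ (x - ε) ≤ B.d n ^ (y - ε) := fun n ε =>
    Real.rpow_le_rpow_of_exponent_ge (B.pos n) (B.lt n).le (by linarith)
  refine ⟨L.S0, L.SSL, L.relS, L.bd, ?_, L.ownbd, ?_, ?_⟩
  · intro ε hε
    filter_upwards [L.coc ε hε] with n h
    intro k i j l hi hj hl s hs
    exact (h k i j l hi hj hl s hs).trans (up n ε)
  · intro ε hε
    filter_upwards [L.own0 ε hε] with n h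
    intro i k0 k hi hi'
    exact (h i k0 k hi hi').trans (up n ε)
  · intro ε hε
    filter_upwards [L.evo ε hε] with n h
    intro k0 k i l hi hl hi' hl' s hs
    exact (h k0 k i l hi hl hi' hl' s hs).trans (up n ε)

theorem _root_.Crest.Agent.R116.Kr710.Thin.mono {B : Base} {G : ℕ → RCfg (Fin 12)}
    {S : Finset (Fin 12)} {α : ℕ → ℝ} {x y : ℝ} (L : Thin B G S α x)
    (hy : y ≤ x) : Thin B G S α y := by
  have up : ∀ n (ε : ℝ), B.d n ^ (x - ε) ≤ B.d n ^ (y - ε) := fun n ε =>
    Real.rpow_le_rpow_of_exponent_ge (B.pos n) (B.lt n).le (by linarith)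
  refine ⟨L.bd, ?_, ?_, ?_⟩
  · intro ε hε
    filter_upwards [L.tc ε hε] with n h
    intro k i l hi hl
    exact (h k i l hi hl).trans (up n ε)
  · intro ε hε
    filter_upwards [L.tx ε hε] with n h
    intro k i l hi hl
    exact (h k i l hi hl).trans (up n ε)
  · intro ε hε
    filter_upwards [L.tb ε hε] with n h
    intro k i l hi hl
    exact (h k i l hi hl).trans (up n ε)

theorem _root_.Crest.Agent.R116.Kr710.Thin.drop {B : Base} {G : ℕ → RCfg (Fin 12)}
    {S : Finset (Fin 12)} {α : ℕ → ℝ} {x : ℝ} (L : Thin B G S α x) :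
    Thin B (fun n => EvL504.drop 1 (G n)) (insert 1 S) α x where
  bd := L.bd
  tc := L.tc
  tx := L.tx
  tb := L.tb

variable {ι : ℕ → Type*} [∀ n, DecidableEq (ι n)] {W : Wnd 12 ι} {K tp : ℝ}

/-- own motions in the order of `LLaw` : `ownL W n i k0 k` = motion of the line `i` from the height
`k` back to the height `k0` -/
noncomputable def ownL (W : Wnd 12 ι) (n i k0 k : ℕ) : Fin 12 → ℝ := own W n i k k0

/-- ... the slot `D` forgotten -/
noncomputable def ownL0 (W : Wnd 12 ι) (n i k0 k : ℕ) : Fin 12 → ℝ := sc 0 (own W n i k k0)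

theorem cfg_rel_S (E : ∀ n, Finset (ι n)) (n k i l : ℕ) {s : Fin 12} (hs : s ∈ W.S) :
    (W.cfg E n).rel k i l s = 0 := by
  unfold Wnd.cfg
  split_ifs
  · exact if_pos hs
  · rfl

/-- a constant times `ρ^tp` -/
theorem ev_up (W : Wnd 12 ι) (C : ℝ) (tp : ℝ) {ε : ℝ} (hε : 0 < ε) :
    ∀ᶠ n in (U : Filter ℕ), C * W.B'.d n ^ tp ≤ W.B'.d n ^ (tp - ε) := by
  filter_upwards [Crest.Agent.R136.Gf356.ev_const_le W.B' hε C] with n h
  have e : W.B'.d n ^ (tp - ε) = W.B'.d n ^ (-ε) * W.B'.d n ^ tp := by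
    rw [← Real.rpow_add (W.B'.pos n)]; congr 1; ring
  rw [e]
  exact mul_le_mul_of_nonneg_right h (Real.rpow_nonneg (W.B'.pos n).le _)

/-- **`LLaw` at natural base points**, flags resolved -/
theorem llaw (h : WL W K tp) (hres : ∀ s, tp ≤ W.top s) {E : ∀ n, Finset (ι n)}
    (hE : ∀ᶠ n in (U : Filter ℕ), Reg W E n) (hX : ∀ᶠ n in (U : Filter ℕ), FrX W K 1 tp n) :
    LLaw W.B' (W.cfg E) W.S (ownL W) tp where
  S0 := h.z0
  SSL := h.hS
  relS := fun n k i l s hs => cfg_rel_S E n k i l hs
  bd := by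
    intro ε hε
    filter_upwards [hE] with n r
    intro k i l hi hl s
    exact (r.rel_le h hi hl s).trans
      (Real.one_le_rpow_of_pos_of_le_one_of_nonpos (W.B'.pos n) (W.B'.lt n).le (by linarith))
  coc := by
    intro ε hε
    filter_upwards [hE, hX, ev_up W 96 tp hε] with n r f hu
    intro k i j l hi hj hl s hs
    by_cases h1 : s = 1
    · subst h1
      refine (r.cocF_D h hi hj hl hs).trans (le_trans ?_ hu)
      have := h.r0 n
      linarith
    · have := r.cocF h f zero_le_one le_rfl hi hj hl hs h1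
      rw [sc_one, sc_one] at this
      exact this.trans hu
  ownbd := by
    intro ε hε
    filter_upwards [hE] with n r
    intro i k0 k hi hi' s
    exact (r.own_le h hi hi' s).trans
      (Real.one_le_rpow_of_pos_of_le_one_of_nonpos (W.B'.pos n) (W.B'.lt n).le (by linarith))
  own0 := by
    intro ε hε
    filter_upwards [hE, ev_up W 2 tp hε] with n r hu
    intro i k0 k hi hi'
    have := r.own_z h hi hi'
    refine le_trans (le_of_eq ?_) (this.trans hu)
    congr 1
    show own W n i k k0 0 + _ = _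
    ring
  evo := by
    intro ε hε
    filter_upwards [hE, hX, ev_up W 252 tp hε] with n r f hu
    intro k0 k i l hi hl hi' hl' s hs
    by_cases h1 : s = 1
    · subst h1
      have e : evoS W.S (ownL W n i k0 k) ((W.cfg E n).rel k0 i l) 1 =
          (W.cfg E n).rel k0 i l 1 := by
        rw [evoS_one]
        have e1 : LvS W.S (ownL W n i k0 k) 1 = 0 := if_neg hs
        have e2 : LnS W.S ((W.cfg E n).rel k0 i l) 1 = (W.cfg E n).rel k0 i l 1 := if_neg hs
        rw [e1, e2, zero_add]
      rw [e]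
      refine (r.evoF_D h hres hi hl hi' hl' hs).trans (le_trans ?_ hu)
      have := h.r0 n
      linarith
    · have := r.evoF h f zero_le_one le_rfl hres hi hl hi' hl' hs h1
      rw [sc_one, sc_one] at this
      exact this.trans hu

theorem evoS_insert (S : Finset (Fin 12)) {a c : Fin 12 → ℝ} (ha : a 1 = 0) (hc : c 1 = 0) :
    evoS (insert 1 S) a c = evoS S a c := by
  have e1 : LvS (insert 1 S) a = LvS S a := by
    funext k
    by_cases hk : k = 1
    · subst hk; simp [LvS, ha]
    · simp [LvS, hk]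
  have e2 : LnS (insert 1 S) c = LnS S c := by
    funext k
    by_cases hk : k = 1
    · subst hk; simp [LnS, hc]
    · simp [LnS, hk]
  unfold evoS
  rw [e1, e2]

/-- **`LLaw` at base points with frozen slot `D`** : the slot `D` is forgotten -/
theorem llaw_drop (h : WL W K tp) (hres : ∀ s, tp ≤ W.top s) {E : ∀ n, Finset (ι n)}
    (hE : ∀ᶠ n in (U : Filter ℕ), Reg W E n) (hX : ∀ᶠ n in (U : Filter ℕ), FrX W K 0 tp n) :
    LLaw W.B' (fun n => drop 1 (W.cfg E n)) (insert 1 W.S) (ownL0 W) tp where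
  S0 := Finset.mem_insert_of_mem h.z0
  SSL := Finset.insert_subset (by decide) h.hS
  relS := by
    intro n k i l s hs
    rcases Finset.mem_insert.1 hs with rfl | hs
    · exact drop_rel_self _ _ _ _ _
    · show (if s = 1 then (0 : ℝ) else _) = 0
      split_ifs
      · rfl
      · exact cfg_rel_S E n k i l hs
  bd := by
    intro ε hε
    filter_upwards [hE] with n r
    intro k i l hi hl s
    have t : (1 : ℝ) ≤ W.B'.d n ^ (-ε) :=
      Real.one_le_rpow_of_pos_of_le_one_of_nonpos (W.B'.pos n) (W.B'.lt n).le (by linarith)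
    show |(if s = 1 then (0 : ℝ) else _)| ≤ _
    split_ifs
    · rw [abs_zero]; linarith
    · exact (r.rel_le h hi hl s).trans t
  coc := by
    intro ε hε
    filter_upwards [hE, hX, ev_up W 96 tp hε] with n r f hu
    intro k i j l hi hj hl s hs
    rw [Finset.mem_insert, not_or] at hs
    rw [drop_rel_of_ne _ _ _ _ hs.1, drop_rel_sc, drop_rel_sc]
    exact (r.cocF h f le_rfl zero_le_one hi hj hl hs.2 hs.1).trans hu
  ownbd := by
    intro ε hε
    filter_upwards [hE] with n r
    intro i k0 k hi hi' s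
    exact (abs_sc_le le_rfl zero_le_one (r.own_le h hi hi') s).trans
      (Real.one_le_rpow_of_pos_of_le_one_of_nonpos (W.B'.pos n) (W.B'.lt n).le (by linarith))
  own0 := by
    intro ε hε
    filter_upwards [hE, ev_up W 2 tp hε] with n r hu
    intro i k0 k hi hi'
    have := r.own_z h hi hi'
    refine le_trans (le_of_eq ?_) (this.trans hu)
    congr 1
    have e : ownL0 W n i k0 k 0 = own W n i k k0 0 := sc_of_ne (by decide)
    rw [e]
    show own W n i k k0 0 + ((W.cfg E n).z k - (W.cfg E n).z k0) = _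
    ring
  evo := by
    intro ε hε
    filter_upwards [hE, hX, ev_up W 252 tp hε] with n r f hu
    intro k0 k i l hi hl hi' hl' s hs
    rw [Finset.mem_insert, not_or] at hs
    rw [drop_rel_of_ne _ _ _ _ hs.1, drop_rel_sc, evoS_insert W.S
      (a := ownL0 W n i k0 k) (by show sc 0 (own W n i k k0) 1 = 0; rw [sc_D, zero_mul])
      (by rw [sc_D, zero_mul])]
    exact (r.evoF h f le_rfl zero_le_one hres hi hl hi' hl' hs.2 hs.1).trans hu

end Crest.Agent.R116.EvL504
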