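import Crest.Agent.R116.Kr9_710
import Crest.Agent.R136.Gr2_356

/-!
# R116, K side: two-height facts (helper389)

In a linear window the velocity is read off the position at two heights:
* `two_height` : transfer principle of `RModel` for pairs of heights at distance `≥ ρ^ε`;
* `LLaw.m1` : `C` by `X` (`m ≤ 1 - x`);  `LLaw.m2` : `P` by `F` (`r ≤ 1 - n`), `C, X, H` fine;
  `LLaw.m3` : `D` by `G` (`d ≤ u`), slots `1, 2` not level slots.
All are statements `ν p - ν p' ≤ ν pT - ν p` for explicit boxes.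
-/

set_option autoImplicit false
set_option linter.unusedVariables false
set_option linter.unusedSectionVars false

open Filter Topology Finset

namespace Crest.Agent.R116.Tp389

open Crest.Agent.R138.Ex926 (Base U)
open Crest.Agent.R138.Fal658 Crest.Agent.R136.Gf356 Crest.Agent.R116.Kr710
open Crest.Agent.R116.EvL504 (comp evoS SL LvS LnS hgt)

section abstract

variable {κ : Type} {B : Base} {G : ℕ → RCfg κ} {Leg : Set (κ → ℝ)} {ν : (κ → ℝ) → ℝ}
  {σ R D : ℝ}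

/-- few pairs of heights of a line are close -/
theorem few_bad (H : RModel B G σ R Leg ν D) (hσ : 0 < σ) {x : ℝ} (hx : 0 < x) (hxR : x ≤ R) :
    ∀ᶠ n in (U : Filter ℕ), ∀ i ∈ (G n).L, ∀ T ⊆ ((G n).hts i) ×ˢ ((G n).hts i),
      (∀ q ∈ T, |(G n).z q.2 - (G n).z q.1| ≤ B.d n ^ x) →
      2 * (T.card : ℝ) ≤ (((G n).hts i).card : ℝ) ^ 2 := by
  classical
  have hσx : 0 < σ * x := mul_pos hσ hx
  have he : 0 < σ * x / 4 := by linarith
  filter_upwards [H.line _ he, H.frost x hx.le hxR _ he, ev_const_le B he 2]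
    with n h1 h2 h3 i hi T hT hTb
  have hpow : ∀ t : ℝ, 0 < B.d n ^ t := fun t => rpos B n t
  have hsub : T ⊆ ((G n).hts i).biUnion fun k =>
      (((G n).hbox x k).image fun k' => (k, k')) := by
    intro q hq
    obtain ⟨a1, a2⟩ := Finset.mem_product.1 (hT hq)
    refine Finset.mem_biUnion.2 ⟨q.1, a1, Finset.mem_image.2 ⟨q.2, ?_, rfl⟩⟩
    unfold RCfg.hbox
    refine Finset.mem_filter.2 ⟨(RCfg.mem_hts.1 a2).1, ?_⟩
    rw [H.base n]
    exact hTb q hq
  have hc : (T.card : ℝ) ≤ (((G n).hts i).card : ℝ) *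
      (B.d n ^ (σ * x - σ * x / 4) * ((G n).Z.card : ℝ)) := by
    have e1 : T.card ≤ ∑ k ∈ (G n).hts i, ((G n).hbox x k).card := by
      refine (Finset.card_le_card hsub).trans (Finset.card_biUnion_le.trans ?_)
      exact Finset.sum_le_sum fun k _ => Finset.card_image_le
    have e2 : (T.card : ℝ) ≤ ∑ k ∈ (G n).hts i, (((G n).hbox x k).card : ℝ) := by
      exact_mod_cast e1
    refine e2.trans ?_
    rw [← nsmul_eq_mul, ← Finset.sum_const]
    refine Finset.sum_le_sum fun k hk => ?_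
    exact h2 k (RCfg.mem_hts.1 hk).1
  have hZ : ((G n).Z.card : ℝ) ≤ B.d n ^ (-(σ * x / 4)) * (((G n).hts i).card : ℝ) := by
    have := h1 i hi
    have e3 : B.d n ^ (-(σ * x / 4)) * B.d n ^ (σ * x / 4) = 1 := by
      rw [← rpow_add', neg_add_cancel, Real.rpow_zero]
    calc ((G n).Z.card : ℝ) = B.d n ^ (-(σ * x / 4)) *
          (B.d n ^ (σ * x / 4) * ((G n).Z.card : ℝ)) := by rw [← mul_assoc, e3, one_mul]
      _ ≤ _ := mul_le_mul_of_nonneg_left this (hpow _).le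
  have hh : (0 : ℝ) ≤ (((G n).hts i).card : ℝ) := Nat.cast_nonneg _
  have h4 : B.d n ^ (σ * x - σ * x / 4) * B.d n ^ (-(σ * x / 4)) ≤ 1 / 2 := by
    rw [← rpow_add']
    have e4 : B.d n ^ (σ * x - σ * x / 4 + -(σ * x / 4)) * B.d n ^ (-(σ * x / 4)) ≤ 1 := by
      rw [← rpow_add', ← Real.rpow_zero (B.d n)]
      exact rpow_anti B n (by linarith)
    have := hpow (σ * x - σ * x / 4 + -(σ * x / 4))
    nlinarith
  calc 2 * (T.card : ℝ) ≤ 2 * ((((G n).hts i).card : ℝ) *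
        (B.d n ^ (σ * x - σ * x / 4) * ((G n).Z.card : ℝ))) := by linarith
    _ ≤ 2 * ((((G n).hts i).card : ℝ) * (B.d n ^ (σ * x - σ * x / 4) *
        (B.d n ^ (-(σ * x / 4)) * (((G n).hts i).card : ℝ)))) := by
        have := mul_le_mul_of_nonneg_left hZ (hpow (σ * x - σ * x / 4)).le
        have := mul_le_mul_of_nonneg_left this hh
        linarith
    _ = 2 * (B.d n ^ (σ * x - σ * x / 4) * B.d n ^ (-(σ * x / 4))) *
        (((G n).hts i).card : ℝ) ^ 2 := by ring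
    _ ≤ 2 * (1 / 2) * (((G n).hts i).card : ℝ) ^ 2 := by
        refine mul_le_mul_of_nonneg_right (by linarith) (by positivity)
    _ = _ := by ring

/-- **two heights** at distance `≥ ρ^ε` -/
theorem two_height (H : RModel B G σ R Leg ν D) (hσ : 0 < σ) (hR : 0 < R) (p p' pT r : κ → ℝ)
    (hp : p ∈ Leg) (hp' : p' ∈ Leg) (hpT : pT ∈ Leg) (hr : r ∈ Leg) (hTr : ∀ j, pT j ≤ r j)
    (hgeo : ∀ C0 : ℝ, 0 < C0 → ∃ C1 : ℝ, 0 < C1 ∧ ∀ C2 : ℝ, 0 < C2 → ∃ C3 : ℝ, 0 < C3 ∧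
      ∀ ε : ℝ, 0 < ε → ∀ᶠ n in (U : Filter ℕ), ∀ k ∈ (G n).Z, ∀ k' ∈ (G n).Z,
      B.d n ^ ε ≤ |(G n).z k' - (G n).z k| →
      ∀ i i', (i, k) ∈ (G n).I → (i, k') ∈ (G n).I → (i', k) ∈ (G n).I →
      (i', k') ∈ (G n).I → (G n).loose p (C0 * ε) k i i' →
      (G n).loose pT (C1 * ε) k' i i' ∧
      ((G n).loose r (C2 * ε) k' i i' → (G n).loose p' (C3 * ε) k i i')) :
    ν p - ν p' ≤ ν pT - ν r := by
  refine transfer_R H p p' pT r hp hp' hpT hr hTr
    (fun n ε k k' => |(G n).z k' - (G n).z k| ≤ B.d n ^ (min ε R)) ?_ ?_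
  · intro ε hε
    exact few_bad H hσ (lt_min hε hR) (min_le_right _ _)
  · intro C0 hC0
    obtain ⟨C1, hC1, h1⟩ := hgeo C0 hC0
    refine ⟨C1, hC1, fun C2 hC2 => ?_⟩
    obtain ⟨C3, hC3, h3⟩ := h1 C2 hC2
    refine ⟨C3, hC3, fun ε hε => ?_⟩
    filter_upwards [h3 ε hε] with n hn k hk k' hk' hb
    refine hn k hk k' hk' ?_
    have hb' : B.d n ^ (min ε R) < |(G n).z k' - (G n).z k| := not_le.1 hb
    exact (rpow_anti B n (min_le_left _ _)).trans hb'.le

end abstract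

/-! ### the evolution in the slots used -/

section evo

variable {S : Finset (Fin 12)} (h0 : (0 : Fin 12) ∈ S) (hS : S ⊆ SL) (a c : Fin 12 → ℝ)

include hS

theorem nS {s : Fin 12} (hs : s ∉ SL) : s ∉ S := fun h => hs (hS h)

theorem evo3 : evoS S a c 3 = c 3 := by
  have h3 : (3 : Fin 12) ∉ S := nS hS (by decide)
  simp [evoS, comp, LvS, LnS, hgt, h3]

theorem evo4 : evoS S a c 4 = c 4 := by
  have h3 : (4 : Fin 12) ∉ S := nS hS (by decide)
  simp [evoS, comp, LvS, LnS, hgt, h3]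

include h0

theorem evo5 : evoS S a c 5 = c 5 - a 0 * c 3 := by
  have h3 : (3 : Fin 12) ∉ S := nS hS (by decide)
  have h5 : (5 : Fin 12) ∉ S := nS hS (by decide)
  simp [evoS, comp, LvS, LnS, hgt, h3, h5, h0]

theorem evo6 : evoS S a c 6 = c 6 - a 0 * c 4 := by
  have h3 : (4 : Fin 12) ∉ S := nS hS (by decide)
  have h5 : (6 : Fin 12) ∉ S := nS hS (by decide)
  simp [evoS, comp, LvS, LnS, hgt, h3, h5, h0]

theorem evo9 : evoS S a c 9 = c 9 - a 0 * ((c 3 ^ 2 + c 4 ^ 2) / 2) := by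
  have h3 : (3 : Fin 12) ∉ S := nS hS (by decide)
  have h4 : (4 : Fin 12) ∉ S := nS hS (by decide)
  have h5 : (5 : Fin 12) ∉ S := nS hS (by decide)
  have h6 : (6 : Fin 12) ∉ S := nS hS (by decide)
  have h9 : (9 : Fin 12) ∉ S := nS hS (by decide)
  simp [evoS, comp, LvS, LnS, hgt, h3, h4, h5, h6, h9, h0]

theorem evo11 : evoS S a c 11 = c 11 - a 0 * c 10 - LvS S a 7 * (c 5 - a 0 * c 3) -
    LvS S a 8 * (c 6 - a 0 * c 4) - LvS S a 2 * (c 9 - a 0 * ((c 3 ^ 2 + c 4 ^ 2) / 2)) -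
    LvS S a 1 * (c 5 ^ 2 + c 6 ^ 2 - 2 * (a 0 * (c 5 * c 3 + c 6 * c 4 - c 9))) := by
  have h3 : (3 : Fin 12) ∉ S := nS hS (by decide)
  have h4 : (4 : Fin 12) ∉ S := nS hS (by decide)
  have h5 : (5 : Fin 12) ∉ S := nS hS (by decide)
  have h6 : (6 : Fin 12) ∉ S := nS hS (by decide)
  have h9 : (9 : Fin 12) ∉ S := nS hS (by decide)
  have h10 : (10 : Fin 12) ∉ S := nS hS (by decide)
  have h11 : (11 : Fin 12) ∉ S := nS hS (by decide)
  simp [evoS, comp, LvS, LnS, hgt, h3, h4, h5, h6, h9, h10, h11, h0]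

theorem evo2 (h1 : (1 : Fin 12) ∉ S) (h2 : (2 : Fin 12) ∉ S) :
    evoS S a c 2 = c 2 + 2 * (a 0 * c 1) := by
  simp [evoS, comp, LvS, LnS, hgt, h1, h2, h0]
  ring

end evo

/-! ### the facts -/

/-- the velocity from the position at two heights -/
theorem solve {B : Base} {n : ℕ} {ε y x K C0 C2 C4 A A' V a0 dz : ℝ} (hε : 0 < ε)
    (h8 : 8 ≤ B.d n ^ (-ε)) (hyx : y ≤ x) (hK : 3 ≤ K) (hC0 : C0 ≤ K) (hC2 : C2 ≤ K)
    (hC4 : C4 ≤ K) (hA : |A| ≤ B.d n ^ (y - C0 * ε)) (hA' : |A'| ≤ B.d n ^ (y - C2 * ε))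
    (he : |A' - (A - a0 * V)| ≤ B.d n ^ (y - C4 * ε)) (hV : |V| ≤ B.d n ^ (-(2 * ε)))
    (ha : |a0 + dz| ≤ B.d n ^ (x - ε)) (hdz : B.d n ^ ε ≤ |dz|) :
    |V| ≤ B.d n ^ (y - (K + 2) * ε) := by
  have hpow : ∀ t : ℝ, 0 < B.d n ^ t := fun t => rpos B n t
  have e1 : |dz * V| ≤ 4 * B.d n ^ (y - K * ε) := by
    have b1 : |A| ≤ B.d n ^ (y - K * ε) := hA.trans (anK B n hε hC0)
    have b2 : |A'| ≤ B.d n ^ (y - K * ε) := hA'.trans (anK B n hε hC2)
    have b3 : |A' - (A - a0 * V)| ≤ B.d n ^ (y - K * ε) := he.trans (anK B n hε hC4)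
    have b4 : |(a0 + dz) * V| ≤ B.d n ^ (y - K * ε) := by
      rw [abs_mul]
      calc |a0 + dz| * |V| ≤ B.d n ^ (x - ε) * B.d n ^ (-(2 * ε)) :=
            mul_le_mul ha hV (abs_nonneg _) (hpow _).le
        _ = B.d n ^ (x - 3 * ε) := by rw [← rpow_add']; congr 1; ring
        _ ≤ _ := rpow_anti B n (by
            have := mE hε hK
            linarith)
    have q2 : dz * V = (a0 + dz) * V - ((A' - (A - a0 * V)) + A - A') := by ring
    rw [q2]
    have c1 := abs_le.1 b1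
    have c2 := abs_le.1 b2
    have c3 := abs_le.1 b3
    have c4 := abs_le.1 b4
    rw [abs_le]
    constructor <;> linarith
  have e2 : 4 * B.d n ^ (y - K * ε) ≤ B.d n ^ (y - (K + 1) * ε) := by
    have : B.d n ^ (y - (K + 1) * ε) = B.d n ^ (-ε) * B.d n ^ (y - K * ε) := by
      rw [← rpow_add']; congr 1; ring
    rw [this]
    exact mul_le_mul_of_nonneg_right (by linarith) (hpow _).le
  have e3 : B.d n ^ ε * |V| ≤ B.d n ^ (y - (K + 1) * ε) := by
    calc B.d n ^ ε * |V| ≤ |dz| * |V| := mul_le_mul_of_nonneg_right hdz (abs_nonneg _)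
      _ = |dz * V| := (abs_mul _ _).symm
      _ ≤ _ := e1.trans e2
  calc |V| = B.d n ^ (-ε) * (B.d n ^ ε * |V|) := by
        rw [← mul_assoc, ← rpow_add', neg_add_cancel, Real.rpow_zero, one_mul]
    _ ≤ B.d n ^ (-ε) * B.d n ^ (y - (K + 1) * ε) := mul_le_mul_of_nonneg_left e3 (hpow _).le
    _ = _ := by rw [← rpow_add']; congr 1; ring

section facts

variable {B : Base} {G : ℕ → RCfg (Fin 12)} {Leg : Set (Fin 12 → ℝ)} {ν : (Fin 12 → ℝ) → ℝ}
  {σ R D : ℝ} {S : Finset (Fin 12)} {own : ℕ → ℕ → ℕ → ℕ → Fin 12 → ℝ} {x y : ℝ}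

/-- everything at two heights -/
theorem ev_pair (H : RModel B G σ R Leg ν D) (L : LLaw B G S own x) {ε : ℝ} (hε : 0 < ε) :
    ∀ᶠ n in (U : Filter ℕ), 8 ≤ B.d n ^ (-ε) ∧ ∀ k k' i l, (i, k) ∈ (G n).I → (l, k) ∈ (G n).I →
      (i, k') ∈ (G n).I → (l, k') ∈ (G n).I →
      (∀ s, |(G n).rel k i l s| ≤ B.d n ^ (-ε)) ∧ (∀ s, |(G n).rel k' i l s| ≤ B.d n ^ (-ε)) ∧
      (∀ s, |own n i k k' s| ≤ B.d n ^ (-ε)) ∧
      |own n i k k' 0 + ((G n).z k' - (G n).z k)| ≤ B.d n ^ (x - ε) ∧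
      ∀ s, s ∉ S → |(G n).rel k' i l s - evoS S (own n i k k') ((G n).rel k i l) s| ≤
        B.d n ^ (x - ε) := by
  filter_upwards [ev_const_le B hε 8, L.bd ε hε, L.ownbd ε hε, L.own0 ε hε, L.evo ε hε]
    with n g8 g1 g2 g3 g4
  exact ⟨g8, fun k k' i l a b c d => ⟨g1 k i l a b, g1 k' i l c d, g2 i k k' a c, g3 i k k' a c,
    g4 k k' i l a b c d⟩⟩

/-- a slot is loose because it is bounded -/
theorem loose0 {n : ℕ} (H : RModel B G σ R Leg ν D) {ε C v t : ℝ} (hε : 0 < ε) (hC : 1 ≤ C)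
    (ht : t ≤ 0) (hv : |v| ≤ B.d n ^ (-ε)) : |v| ≤ (G n).ρ ^ (t - C * ε) := by
  rw [H.base n]
  refine hv.trans (rpow_anti B n ?_)
  have := mE hε hC
  linarith

/-- a slot of a looser box -/
theorem looseP {n : ℕ} (H : RModel B G σ R Leg ν D) {ε C C' v t t' : ℝ} (hε : 0 < ε)
    (hC : C ≤ C') (ht : t' ≤ t) (hv : |v| ≤ (G n).ρ ^ (t - C * ε)) :
    |v| ≤ (G n).ρ ^ (t' - C' * ε) := by
  rw [H.base n] at hv ⊢
  refine hv.trans (rpow_anti B n ?_)
  have := mE hε hC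
  linarith

/-- **(M1)** `C` is read off `X` at two heights -/
theorem m1 (H : RModel B G σ R Leg ν D) (hσ : 0 < σ) (hR : 0 < R) (L : LLaw B G S own x)
    (hy : 0 ≤ y) (hyx : y ≤ x) {p p' pT r : Fin 12 → ℝ} (hp : p ∈ Leg) (hp' : p' ∈ Leg)
    (hpT : pT ∈ Leg) (hr : r ∈ Leg) (hTr : ∀ j, pT j ≤ r j) (hT0 : ∀ j, pT j ≤ 0)
    (p5 : y ≤ p 5) (p6 : y ≤ p 6) (r5 : y ≤ r 5) (r6 : y ≤ r 6)
    (q : ∀ j, p' j ≤ 0 ∨ p' j ≤ p j ∨ ((j = 3 ∨ j = 4) ∧ p' j ≤ y)) :
    ν p - ν p' ≤ ν pT - ν r := by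
  refine two_height H hσ hR p p' pT r hp hp' hpT hr hTr ?_
  intro C0 hC0
  refine ⟨1, one_pos, fun C2 hC2 => ⟨C0 + C2 + 5, by linarith, fun ε hε => ?_⟩⟩
  filter_upwards [ev_pair H L hε] with n hn k hk k' hk' hdz i l a b c d hlo
  obtain ⟨h8, hn⟩ := hn
  obtain ⟨g1, g2, g3, g4, g5⟩ := hn k k' i l a c b d
  refine ⟨fun j => ?_, fun hlo' j => ?_⟩
  · exact loose0 H hε le_rfl (hT0 j) (g2 j)
  · have hK : 3 ≤ C0 + C2 + 3 := by linarith
    have key : ∀ s t : Fin 12, y ≤ p t → y ≤ r t →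
        |(G n).rel k' i l t - ((G n).rel k i l t - own n i k k' 0 * (G n).rel k i l s)| ≤
          B.d n ^ (x - ε) → |(G n).rel k i l s| ≤ B.d n ^ (y - (C0 + C2 + 5) * ε) := by
      intro s t pt rt he
      have b1 : |(G n).rel k i l t| ≤ B.d n ^ (y - C0 * ε) := by
        have := hlo t
        rw [H.base n] at this
        exact this.trans (rpow_anti B n (by linarith))
      have b2 : |(G n).rel k' i l t| ≤ B.d n ^ (y - C2 * ε) := by
        have := hlo' t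
        rw [H.base n] at this
        exact this.trans (rpow_anti B n (by linarith))
      have b3 : |(G n).rel k' i l t - ((G n).rel k i l t - own n i k k' 0 * (G n).rel k i l s)| ≤
          B.d n ^ (y - 1 * ε) := he.trans (rpow_anti B n (by linarith))
      have b4 : |(G n).rel k i l s| ≤ B.d n ^ (-(2 * ε)) :=
        (g1 s).trans (rpow_anti B n (by linarith))
      have := solve hε h8 hyx hK (by linarith) (by linarith) (by linarith) b1 b2 b3 b4 g4 hdz
      refine this.trans (le_of_eq ?_)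
      congr 1
      ring
    rcases q j with h | h | ⟨h, h'⟩
    · exact loose0 H hε (by linarith) h (g1 j)
    · exact looseP H hε (by linarith) h (hlo j)
    · rw [H.base n]
      rcases h with rfl | rfl
      · have e := g5 5 (nS L.SSL (by decide))
        rw [evo5 L.S0 L.SSL] at e
        exact (key 3 5 p5 r5 e).trans (rpow_anti B n (by linarith))
      · have e := g5 6 (nS L.SSL (by decide))
        rw [evo6 L.S0 L.SSL] at e
        exact (key 4 6 p6 r6 e).trans (rpow_anti B n (by linarith))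

/-- **(M3)** `D` is read off `G` (slot `2`) at two heights -/
theorem m3 (H : RModel B G σ R Leg ν D) (hσ : 0 < σ) (hR : 0 < R) (L : LLaw B G S own x)
    (hS1 : (1 : Fin 12) ∉ S) (hS2 : (2 : Fin 12) ∉ S)
    (hy : 0 ≤ y) (hyx : y ≤ x) {p p' pT r : Fin 12 → ℝ} (hp : p ∈ Leg) (hp' : p' ∈ Leg)
    (hpT : pT ∈ Leg) (hr : r ∈ Leg) (hTr : ∀ j, pT j ≤ r j) (hT0 : ∀ j, pT j ≤ 0)
    (p2 : y ≤ p 2) (r2 : y ≤ r 2)
    (q : ∀ j, p' j ≤ 0 ∨ p' j ≤ p j ∨ (j = 1 ∧ p' j ≤ y)) :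
    ν p - ν p' ≤ ν pT - ν r := by
  refine two_height H hσ hR p p' pT r hp hp' hpT hr hTr ?_
  intro C0 hC0
  refine ⟨1, one_pos, fun C2 hC2 => ⟨C0 + C2 + 5, by linarith, fun ε hε => ?_⟩⟩
  filter_upwards [ev_pair H L hε] with n hn k hk k' hk' hdz i l a b c d hlo
  obtain ⟨h8, hn⟩ := hn
  obtain ⟨g1, g2, g3, g4, g5⟩ := hn k k' i l a c b d
  refine ⟨fun j => ?_, fun hlo' j => ?_⟩
  · exact loose0 H hε le_rfl (hT0 j) (g2 j)
  · have hK : 3 ≤ C0 + C2 + 3 := by linarith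
    rcases q j with h | h | ⟨rfl, h'⟩
    · exact loose0 H hε (by linarith) h (g1 j)
    · exact looseP H hε (by linarith) h (hlo j)
    · rw [H.base n]
      have e := g5 2 hS2
      rw [evo2 L.S0 L.SSL _ _ hS1 hS2] at e
      have b1 : |(G n).rel k i l 2| ≤ B.d n ^ (y - C0 * ε) := by
        have := hlo 2
        rw [H.base n] at this
        exact this.trans (rpow_anti B n (by linarith))
      have b2 : |(G n).rel k' i l 2| ≤ B.d n ^ (y - C2 * ε) := by
        have := hlo' 2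
        rw [H.base n] at this
        exact this.trans (rpow_anti B n (by linarith))
      have b3 : |(G n).rel k' i l 2 - ((G n).rel k i l 2 -
          own n i k k' 0 * (-(2 * (G n).rel k i l 1)))| ≤ B.d n ^ (y - 1 * ε) := by
        have e1 : (G n).rel k' i l 2 - ((G n).rel k i l 2 -
          own n i k k' 0 * (-(2 * (G n).rel k i l 1))) = (G n).rel k' i l 2 -
            ((G n).rel k i l 2 + 2 * (own n i k k' 0 * (G n).rel k i l 1)) := by ring
        rw [e1]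
        exact e.trans (rpow_anti B n (by linarith))
      have b4 : |-(2 * (G n).rel k i l 1)| ≤ B.d n ^ (-(2 * ε)) := by
        rw [abs_neg, abs_mul, abs_of_pos (two_pos : (0 : ℝ) < 2)]
        have e2 : B.d n ^ (-(2 * ε)) = B.d n ^ (-ε) * B.d n ^ (-ε) := by
          rw [← rpow_add']; congr 1; ring
        rw [e2]
        exact mul_le_mul (by linarith) (g1 1) (abs_nonneg _) (rpos B n _).le
      have := solve hε h8 hyx hK (by linarith) (by linarith) (by linarith) b1 b2 b3 b4 g4 hdz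
      rw [abs_neg, abs_mul, abs_of_pos (two_pos : (0 : ℝ) < 2)] at this
      have h1 : |(G n).rel k i l 1| ≤ B.d n ^ (y - (C0 + C2 + 3 + 2) * ε) := by
        have := abs_nonneg ((G n).rel k i l 1)
        linarith
      exact h1.trans (rpow_anti B n (by linarith))

/-- **(M2)** `P` is read off `F` at two heights; `C, X, H` fine -/
theorem m2 (H : RModel B G σ R Leg ν D) (hσ : 0 < σ) (hR : 0 < R) (L : LLaw B G S own x)
    (hy : 0 ≤ y) (hyx : y ≤ x) {p p' pT r : Fin 12 → ℝ} (hp : p ∈ Leg) (hp' : p' ∈ Leg)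
    (hpT : pT ∈ Leg) (hr : r ∈ Leg) (hTr : ∀ j, pT j ≤ r j)
    (hT0 : ∀ j, pT j ≤ 0 ∨ ((j = 3 ∨ j = 4 ∨ j = 5 ∨ j = 6 ∨ j = 9) ∧ pT j ≤ y))
    (p3 : y ≤ p 3) (p4 : y ≤ p 4) (p5 : y ≤ p 5) (p6 : y ≤ p 6) (p9 : y ≤ p 9)
    (p11 : y ≤ p 11) (r11 : y ≤ r 11)
    (q : ∀ j, p' j ≤ 0 ∨ p' j ≤ p j ∨ (j = 10 ∧ p' j ≤ y)) :
    ν p - ν p' ≤ ν pT - ν r := by
  refine two_height H hσ hR p p' pT r hp hp' hpT hr hTr ?_
  intro C0 hC0
  refine ⟨C0 + 5, by linarith, fun C2 hC2 => ⟨C0 + C2 + 13, by linarith, fun ε hε => ?_⟩⟩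
  filter_upwards [ev_pair H L hε] with n hn k hk k' hk' hdz i l a b c d hlo
  obtain ⟨h8, hn⟩ := hn
  obtain ⟨g1, g2, g3, g4, g5⟩ := hn k k' i l a c b d
  have hpow : ∀ t : ℝ, 0 < B.d n ^ t := fun t => rpos B n t
  have h0C : 0 < C0 * ε := by positivity
  -- the fine slots at `k`
  have f : ∀ s : Fin 12, y ≤ p s → |(G n).rel k i l s| ≤ B.d n ^ (y - C0 * ε) := by
    intro s hs
    have := hlo s
    rw [H.base n] at this
    exact this.trans (rpow_anti B n (by linarith))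
  -- products
  have pr : ∀ {K u v : ℝ}, |u| ≤ B.d n ^ (-ε) → |v| ≤ B.d n ^ (y - K * ε) →
      |u * v| ≤ B.d n ^ (y - (K + 1) * ε) := by
    intro K u v hu hv
    rw [abs_mul]
    calc |u| * |v| ≤ B.d n ^ (-ε) * B.d n ^ (y - K * ε) :=
          mul_le_mul hu hv (abs_nonneg _) (hpow _).le
      _ = _ := by rw [← rpow_add']; congr 1; ring
  have up : ∀ {K K' v : ℝ}, K ≤ K' → |v| ≤ B.d n ^ (y - K * ε) → |v| ≤ B.d n ^ (y - K' * ε) :=
    fun hK hv => hv.trans (anK B n hε hK)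
  have ad : ∀ {K u v : ℝ}, |u| ≤ B.d n ^ (y - K * ε) → |v| ≤ B.d n ^ (y - K * ε) →
      |u + v| ≤ B.d n ^ (y - (K + 1) * ε) := fun hu hv =>
    (abs_add_le _ _).trans (pwK2 B hε h8 hu hv le_rfl le_rfl)
  have sb : ∀ {K u v : ℝ}, |u| ≤ B.d n ^ (y - K * ε) → |v| ≤ B.d n ^ (y - K * ε) →
      |u - v| ≤ B.d n ^ (y - (K + 1) * ε) := by
    intro K u v hu hv
    rw [sub_eq_add_neg]
    exact ad hu (by rwa [abs_neg])
  have err : ∀ s, s ∉ S → |(G n).rel k' i l s - evoS S (own n i k k') ((G n).rel k i l) s| ≤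
      B.d n ^ (y - 1 * ε) := fun s hs => (g5 s hs).trans (rpow_anti B n (by linarith))
  have lv : ∀ s, |LvS S (own n i k k') s| ≤ B.d n ^ (-ε) := by
    intro s
    unfold LvS
    split_ifs
    · exact g3 s
    · simpa using (hpow _).le
  -- constants
  have f' : ∀ {s : Fin 12}, y ≤ p s → |(G n).rel k i l s| ≤ B.d n ^ (y - (C0 + 1) * ε) :=
    fun hs => up (by linarith) (f _ hs)
  set c := (G n).rel k i l with hc
  set A0 := own n i k k' 0 with hA0
  have hA : |A0| ≤ B.d n ^ (-ε) := g3 0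
  have c53 : |c 5 - A0 * c 3| ≤ B.d n ^ (y - (C0 + 2) * ε) :=
    (sb (f' p5) (pr hA (f 3 p3))).trans (anK B n hε (by linarith))
  have c64 : |c 6 - A0 * c 4| ≤ B.d n ^ (y - (C0 + 2) * ε) :=
    (sb (f' p6) (pr hA (f 4 p4))).trans (anK B n hε (by linarith))
  have c34 : |(c 3 ^ 2 + c 4 ^ 2) / 2| ≤ B.d n ^ (y - (C0 + 2) * ε) := by
    have a3 := ad (pr (g1 3) (f 3 p3)) (pr (g1 4) (f 4 p4))
    have e : (c 3 ^ 2 + c 4 ^ 2) / 2 = (c 3 * c 3 + c 4 * c 4) / 2 := by ring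
    rw [e, abs_div, abs_of_pos (two_pos : (0 : ℝ) < 2)]
    have a4 := abs_nonneg (c 3 * c 3 + c 4 * c 4)
    have a5 : B.d n ^ (y - (C0 + 1 + 1) * ε) = B.d n ^ (y - (C0 + 2) * ε) := by
      congr 1; ring
    rw [a5] at a3
    linarith
  have c9 : |c 9 - A0 * ((c 3 ^ 2 + c 4 ^ 2) / 2)| ≤ B.d n ^ (y - (C0 + 4) * ε) :=
    (sb (up (by linarith) (f 9 p9)) (pr hA c34)).trans (anK B n hε (by linarith))
  have cq : |c 5 ^ 2 + c 6 ^ 2 - 2 * (A0 * (c 5 * c 3 + c 6 * c 4 - c 9))| ≤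
      B.d n ^ (y - (C0 + 6) * ε) := by
    have a1 : |c 5 ^ 2 + c 6 ^ 2| ≤ B.d n ^ (y - (C0 + 5) * ε) := by
      have := ad (pr (g1 5) (f 5 p5)) (pr (g1 6) (f 6 p6))
      rw [show c 5 ^ 2 + c 6 ^ 2 = c 5 * c 5 + c 6 * c 6 by ring]
      exact this.trans (anK B n hε (by linarith))
    have a2 : |c 5 * c 3 + c 6 * c 4 - c 9| ≤ B.d n ^ (y - (C0 + 3) * ε) :=
      (sb (ad (pr (g1 5) (f 3 p3)) (pr (g1 6) (f 4 p4))) (up (by linarith) (f 9 p9))).trans
        (anK B n hε (by linarith))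
    have a3 : |A0 * (c 5 * c 3 + c 6 * c 4 - c 9)| ≤ B.d n ^ (y - (C0 + 4) * ε) :=
      (pr hA a2).trans (anK B n hε (by linarith))
    have a4 : |2 * (A0 * (c 5 * c 3 + c 6 * c 4 - c 9))| ≤ B.d n ^ (y - (C0 + 5) * ε) := by
      have := ad a3 a3
      rw [two_mul]
      exact this.trans (anK B n hε (by linarith))
    exact (sb a1 a4).trans (anK B n hε (by linarith))
  have main : |(G n).rel k' i l 11 - (c 11 - A0 * c 10)| ≤ B.d n ^ (y - (C0 + 11) * ε) := by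
    have e := err 11 (nS L.SSL (by decide))
    rw [evo11 L.S0 L.SSL] at e
    have t7 : |LvS S (own n i k k') 7 * (c 5 - A0 * c 3)| ≤ B.d n ^ (y - (C0 + 7) * ε) :=
      (pr (lv 7) c53).trans (anK B n hε (by linarith))
    have t8 : |LvS S (own n i k k') 8 * (c 6 - A0 * c 4)| ≤ B.d n ^ (y - (C0 + 7) * ε) :=
      (pr (lv 8) c64).trans (anK B n hε (by linarith))
    have t2 : |LvS S (own n i k k') 2 * (c 9 - A0 * ((c 3 ^ 2 + c 4 ^ 2) / 2))| ≤
        B.d n ^ (y - (C0 + 7) * ε) := (pr (lv 2) c9).trans (anK B n hε (by linarith))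
    have t1 : |LvS S (own n i k k') 1 * (c 5 ^ 2 + c 6 ^ 2 -
        2 * (A0 * (c 5 * c 3 + c 6 * c 4 - c 9)))| ≤ B.d n ^ (y - (C0 + 7) * ε) :=
      (pr (lv 1) cq).trans (anK B n hε (by linarith))
    have t0 := e.trans (anK B n hε (show (1 : ℝ) ≤ C0 + 7 by linarith))
    have s1 := ad t7 t8
    have s2 := ad t2 t1
    have s3 := ad s1 s2
    have s4 := sb t0 (by exact t0)
    have s5 := sb (K := C0 + 7 + 1 + 1) (t0.trans (anK B n hε (by linarith))) s3
    have id1 : (G n).rel k' i l 11 - (c 11 - A0 * c 10) =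
        ((G n).rel k' i l 11 - (c 11 - own n i k k' 0 * c 10 -
          LvS S (own n i k k') 7 * (c 5 - own n i k k' 0 * c 3) -
          LvS S (own n i k k') 8 * (c 6 - own n i k k' 0 * c 4) -
          LvS S (own n i k k') 2 * (c 9 - own n i k k' 0 * ((c 3 ^ 2 + c 4 ^ 2) / 2)) -
          LvS S (own n i k k') 1 * (c 5 ^ 2 + c 6 ^ 2 -
            2 * (own n i k k' 0 * (c 5 * c 3 + c 6 * c 4 - c 9))))) -
        (LvS S (own n i k k') 7 * (c 5 - A0 * c 3) + LvS S (own n i k k') 8 * (c 6 - A0 * c 4) +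
          (LvS S (own n i k k') 2 * (c 9 - A0 * ((c 3 ^ 2 + c 4 ^ 2) / 2)) +
            LvS S (own n i k k') 1 * (c 5 ^ 2 + c 6 ^ 2 -
              2 * (A0 * (c 5 * c 3 + c 6 * c 4 - c 9))))) := by
      rw [hA0]; ring
    rw [id1]
    exact s5.trans (anK B n hε (by linarith))
  refine ⟨fun j => ?_, fun hlo' j => ?_⟩
  · rcases hT0 j with h | ⟨h, h'⟩
    · exact loose0 H hε (by linarith) h (g2 j)
    · rw [H.base n]
      have fin : |(G n).rel k' i l j| ≤ B.d n ^ (y - (C0 + 5) * ε) := by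
        rcases h with rfl | rfl | rfl | rfl | rfl
        · have e := err 3 (nS L.SSL (by decide))
          rw [evo3 L.SSL] at e
          have := ad (e.trans (anK B n hε (show (1 : ℝ) ≤ C0 + 1 by linarith))) (f' p3)
          rw [show (G n).rel k' i l 3 = ((G n).rel k' i l 3 - c 3) + c 3 by ring]
          exact this.trans (anK B n hε (by linarith))
        · have e := err 4 (nS L.SSL (by decide))
          rw [evo4 L.SSL] at e
          have := ad (e.trans (anK B n hε (show (1 : ℝ) ≤ C0 + 1 by linarith))) (f' p4)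
          rw [show (G n).rel k' i l 4 = ((G n).rel k' i l 4 - c 4) + c 4 by ring]
          exact this.trans (anK B n hε (by linarith))
        · have e := err 5 (nS L.SSL (by decide))
          rw [evo5 L.S0 L.SSL] at e
          have := ad (e.trans (anK B n hε (show (1 : ℝ) ≤ C0 + 2 by linarith))) c53
          rw [show (G n).rel k' i l 5 = ((G n).rel k' i l 5 - (c 5 - A0 * c 3)) +
            (c 5 - A0 * c 3) by ring]
          exact this.trans (anK B n hε (by linarith))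
        · have e := err 6 (nS L.SSL (by decide))
          rw [evo6 L.S0 L.SSL] at e
          have := ad (e.trans (anK B n hε (show (1 : ℝ) ≤ C0 + 2 by linarith))) c64
          rw [show (G n).rel k' i l 6 = ((G n).rel k' i l 6 - (c 6 - A0 * c 4)) +
            (c 6 - A0 * c 4) by ring]
          exact this.trans (anK B n hε (by linarith))
        · have e := err 9 (nS L.SSL (by decide))
          rw [evo9 L.S0 L.SSL] at e
          have := ad (e.trans (anK B n hε (show (1 : ℝ) ≤ C0 + 4 by linarith))) c9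
          rw [show (G n).rel k' i l 9 = ((G n).rel k' i l 9 -
            (c 9 - A0 * ((c 3 ^ 2 + c 4 ^ 2) / 2))) +
            (c 9 - A0 * ((c 3 ^ 2 + c 4 ^ 2) / 2)) by ring]
          exact this.trans (anK B n hε (by linarith))
      exact fin.trans (rpow_anti B n (by linarith))
  · rcases q j with h | h | ⟨rfl, h'⟩
    · exact loose0 H hε (by linarith) h (g1 j)
    · exact looseP H hε (by linarith) h (hlo j)
    · rw [H.base n]
      have b2 : |(G n).rel k' i l 11| ≤ B.d n ^ (y - C2 * ε) := by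
        have := hlo' 11
        rw [H.base n] at this
        exact this.trans (rpow_anti B n (by linarith))
      have b4 : |c 10| ≤ B.d n ^ (-(2 * ε)) := (g1 10).trans (rpow_anti B n (by linarith))
      have := solve hε h8 hyx (show (3 : ℝ) ≤ C0 + C2 + 11 by linarith) (by linarith)
        (by linarith) (by linarith) (f 11 p11) b2 main b4 g4 hdz
      exact this.trans (rpow_anti B n (by
        have e : (C0 + C2 + 11 + 2) * ε = (C0 + C2 + 13) * ε := by ring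
        linarith))

end facts

end Crest.Agent.R116.Tp389
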