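import Crest.Agent.R116.WinG_954
import Crest.Agent.R116.Tp1_389
import Crest.Agent.R116.EvL6_504

/-!
# R116, K side: the two-height facts for a linear tangent at a (moving) natural base (helper171)

`one_pin_tan` : `gC ≤ rX`, `gP ≤ rF`, `gD ≤ gE` (slot `D` live);
`one_pin_tanD` : `gC ≤ rX`, `gP ≤ rF` (slot `D` frozen).
-/

set_option autoImplicit false
set_option linter.unusedVariables false
set_option linter.unusedSectionVars false

open Filter Topology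

namespace Crest.Agent.R116.Op171

open Finset
open Crest.Agent.R138.Ex926
open Crest.Agent.R136.Net191 Crest.Agent.R136.Qg926 Crest.Agent.R136.Gf356
open Crest.Agent.R116.ChL222 Crest.Agent.R116.PL504 Crest.Agent.R116.EvL504
open Crest.Agent.R116.WinU954 Crest.Agent.R116.Sg337 Crest.Agent.R116.WinG954

variable {ι : ℕ → Type*} [∀ n, DecidableEq (ι n)]

/-- **the two-height facts at a natural base**, slot `D` live -/
theorem one_pin_tan {B : Base} {I J : ∀ n, Finset (ι n)} {co : ∀ n, ι n → ι n → Fin 12 → ℝ}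
    {C R : ℝ} {ν : (Fin 12 → ℝ) → ℝ} (hN : NProf B I J co monL C R ν) (hcoc : ∀ n, Coc (co n))
    {x : ℕ → Fin 12 → ℝ} {h : ℕ → ℝ} (hpos : ∀ l, 0 < h l) (hh : Tendsto h atTop (𝓝 0))
    {D : Set (Fin 12 → ℝ)}
    {lam : (Fin 12 → ℝ) → ℝ} (htan : IsTan (Leg monL R) D ν x h lam) (hD : LM ⊆ D)
    {rz rX rH rF gC gP gE gB gD : ℝ} (hlin : LinM lam rz rX rH rF gC gP gE gB gD)
    {σ : ℝ} (hσ : 0 < σ) (hrz : σ ≤ rz) (hx : ∀ l, ∃ z c p : ℝ, x l = eL z c p)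
    (i₀ : ∀ n, ι n) : gC ≤ rX ∧ gP ≤ rF ∧ gD ≤ gE := by
  set σ' : ℝ := min σ 1 with hσ'
  have hσ0 : 0 < σ' := lt_min hσ one_pos
  obtain ⟨k, W, E, a1, w, a3, a4, a5, a6, a7, H, a9⟩ := exists_winM hN hcoc hpos hh htan hD hlin
    hσ0.le (min_le_right _ _) ((min_le_left _ _).trans hrz) (t := 1) one_pos
    (fun _ _ => 1) (fun _ => Base.Sub.const one_pos) i₀
  have hfr : ∀ᶠ n in (U : Filter ℕ), FrX W (cK0 monL C) 1 1 n := by
    refine Eventually.of_forall fun n => ?_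
    obtain ⟨z, c, p, e⟩ := hx (k n)
    refine FrX.of_nat w.wl (z := z) (c := c) (p := p) ?_
    rw [w.hX]
    exact e
  have L := llaw w.wl (fun s => by rw [w.htop]) a7 hfr
  have hS1 : (1 : Fin 12) ∉ W.S := by rw [w.hS]; decide
  have hS2 : (2 : Fin 12) ∉ W.S := by rw [w.hS]; decide
  have mem : ∀ {z D E C X B N P F : ℝ}, 
      (0 ≤ D ∧ 0 ≤ E ∧ 0 ≤ C ∧ 0 ≤ X ∧ 0 ≤ B ∧ 0 ≤ N ∧ 0 ≤ P ∧ 0 ≤ F) →
      (B ≤ E + C ∧ B ≤ D + X ∧ N ≤ C + X ∧ P ≤ C + B ∧ P ≤ D + N ∧ F ≤ X + B ∧ F ≤ E + N) →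
      (D ≤ 1 ∧ E ≤ 1 ∧ C ≤ 1 ∧ X ≤ 1 ∧ B ≤ 1 ∧ N ≤ 1 ∧ P ≤ 1 ∧ F ≤ 1) →
      bx9 z D E C X B N P F ∈ W.legW := fun h1 h2 h3 => (w.memL zero_le_one).2 ⟨h1, h2, h3⟩
  have m0 : bx9 0 0 0 0 0 0 0 0 0 ∈ W.legW := mem (by norm_num) (by norm_num) (by norm_num)
  refine ⟨?_, ?_, ?_⟩
  · -- `C` by `X`
    have mp : bx9 0 0 0 0 1 0 0 0 0 ∈ W.legW := mem (by norm_num) (by norm_num) (by norm_num)
    have mp' : bx9 0 0 0 1 1 0 0 0 0 ∈ W.legW := mem (by norm_num) (by norm_num) (by norm_num)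
    have key := Tp389.m1 H hσ0 one_pos L (y := 1) zero_le_one le_rfl
      (p := bx9 0 0 0 0 1 0 0 0 0) (p' := bx9 0 0 0 1 1 0 0 0 0) (pT := bx9 0 0 0 0 0 0 0 0 0)
      (r := bx9 0 0 0 0 1 0 0 0 0) mp mp' m0 mp
      (fun j => by fin_cases j <;> simp [bx9]) (fun j => by fin_cases j <;> simp [bx9])
      (by simp [bx9]) (by simp [bx9]) (by simp [bx9]) (by simp [bx9])
      (fun j => by fin_cases j <;> simp [bx9])
    rw [a9 _ _ _ _ _ _ _ _ _ mp, a9 _ _ _ _ _ _ _ _ _ mp', a9 _ _ _ _ _ _ _ _ _ m0] at key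
    linarith
  · -- `P` by `F`
    have mT : bx9 0 0 0 1 1 0 1 0 0 ∈ W.legW := mem (by norm_num) (by norm_num) (by norm_num)
    have mp : bx9 0 0 0 1 1 0 1 0 1 ∈ W.legW := mem (by norm_num) (by norm_num) (by norm_num)
    have mp' : bx9 0 0 0 1 1 0 1 1 1 ∈ W.legW := mem (by norm_num) (by norm_num) (by norm_num)
    have key := Tp389.m2 H hσ0 one_pos L (y := 1) zero_le_one le_rfl
      (p := bx9 0 0 0 1 1 0 1 0 1) (p' := bx9 0 0 0 1 1 0 1 1 1) (pT := bx9 0 0 0 1 1 0 1 0 0)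
      (r := bx9 0 0 0 1 1 0 1 0 1) mp mp' mT mp
      (fun j => by fin_cases j <;> simp [bx9]) (fun j => by fin_cases j <;> simp [bx9])
      (by simp [bx9]) (by simp [bx9]) (by simp [bx9]) (by simp [bx9]) (by simp [bx9])
      (by simp [bx9]) (by simp [bx9])
      (fun j => by fin_cases j <;> simp [bx9])
    rw [a9 _ _ _ _ _ _ _ _ _ mp, a9 _ _ _ _ _ _ _ _ _ mp', a9 _ _ _ _ _ _ _ _ _ mT] at key
    linarith
  · -- `D` by `E`
    have mp : bx9 0 0 1 0 0 0 0 0 0 ∈ W.legW := mem (by norm_num) (by norm_num) (by norm_num)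
    have mp' : bx9 0 1 1 0 0 0 0 0 0 ∈ W.legW := mem (by norm_num) (by norm_num) (by norm_num)
    have key := Tp389.m3 H hσ0 one_pos L hS1 hS2 (y := 1) zero_le_one le_rfl
      (p := bx9 0 0 1 0 0 0 0 0 0) (p' := bx9 0 1 1 0 0 0 0 0 0) (pT := bx9 0 0 0 0 0 0 0 0 0)
      (r := bx9 0 0 1 0 0 0 0 0 0) mp mp' m0 mp
      (fun j => by fin_cases j <;> simp [bx9]) (fun j => by fin_cases j <;> simp [bx9])
      (by simp [bx9]) (by simp [bx9])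
      (fun j => by fin_cases j <;> simp [bx9])
    rw [a9 _ _ _ _ _ _ _ _ _ mp, a9 _ _ _ _ _ _ _ _ _ mp', a9 _ _ _ _ _ _ _ _ _ m0] at key
    linarith

end Crest.Agent.R116.Op171
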