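import Crest.Agent.R116.Ap2_954
import Crest.Agent.R116.Op3_171
import Crest.Agent.R116.Sd2_369

/-!
# R116, K side: the binder `Pins` of Ap2_954 from helper171's `one_pin_tan` (helper954)

* `pins_ext` : `ExtQ` of the light chart with `Coc` comparison factors, `s < 1`.
* `pins_T`, `pins_R`; **`aprioriT`, `aprioriR`** : no open binder.
-/

set_option autoImplicit false
set_option linter.unusedVariables false
set_option linter.unusedSectionVars false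

open Filter Topology

namespace Crest.Agent.R116.Ap954

open Finset
open Crest.Agent.R138.Defs (E2)
open Crest.Agent.R138.Ex926 (Base U IsTan)
open Crest.Agent.R136.MkA627
open Crest.Agent.R136.Net191 Crest.Agent.R136.Lq196
open Crest.Agent.R116.LZg725
open Crest.Agent.R116.ChL222 Crest.Agent.R116.PL504 Crest.Agent.R116.EvL504
open Crest.Agent.R116.Gd222 (TSet sN PDL DT vb)
open Crest.Agent.R116.KI439
open Crest.Agent.R116.KF439 (PL Thin frF flF scN)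
open Crest.Agent.R116.Tw468 Crest.Agent.R116.CtxB468

theorem pins_ext {B : Base} {I0 I' : ℕ → Finset (ℕ × ℝ)}
    {co : ∀ n : ℕ, ℕ × ℝ → ℕ × ℝ → Fin 12 → ℝ} {C R w0 s : ℝ} {kz : Fin 12}
    {PD : Set (Fin 12 → ℝ)} {DM : (Fin 12 → ℝ) → ℝ} {r o : ℝ → Fin 12 → ℝ} {E : ℝ → ℝ}
    {T : Fin 12 → Prop} {ν own : (Fin 12 → ℝ) → ℝ} {c₀ : ℝ} (hR : 0 ≤ R) (hs : s < 1)
    (h : ExtQ B I0 I' co monL C R kz w0 s PD DM r o E T ν own c₀) (hcoc : ∀ n, Coc (co n)) :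
    Pins R w0 s ν := by
  intro zz cc pp hint h1 h2 hh D lam hpos hh0 htan hD rz rX rH rF gC gP gE gB gD hlin hrz
  exact Op171.one_pin_tan (WinU954.nprof_of_ext hR h) hcoc hpos hh0 htan hD hlin
    (σ := 1 - s) (by linarith) hrz (fun l => ⟨zz, cc, pp, rfl⟩) (fun _ => ((0 : ℕ), (0 : ℝ)))

section ctx

variable {G : Geo TSet (Fin 2)} {L : ℕ → ℕ → LRay} {r : ℕ → ℝ} {g s : ℝ} {θ q : Fin 2 → ℝ}
    {Rg : ℝ} {a : Fin 2} {B : Base}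
    {I : ℕ → Finset (ℕ × ℝ)} {lev : ℕ → ℚ → ℕ} {A : ℕ → ℝ}
    {f : ℕ → ℚ → ℕ → ℤ → ℕ} {b : ℕ → ℚ → ℕ → TSet} {vm : ℕ → ℚ → ℝ} {w : Fin 2 → ℕ → ℚ → ℝ}
    {fr : ℕ → ℚ → ℕ × ℝ → LInc} {fl : ℕ → ℕ × ℝ → LInc} {sc : Fin 12 → ℕ → ℝ}
    {w0 sa sb δ R : ℝ} {I0 I' : ℕ → Finset (ℕ × ℝ)} {ν own : (Fin 12 → ℝ) → ℝ} {c₀ : ℝ}

theorem pins_T
    (h : CtxT G L r g s θ q Rg B I lev A f b vm w fr fl sc w0 sa sb δ R I0 I' ν own c₀)
    (hs : s < 1) : Pins R w0 s ν :=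
  pins_ext (h.sh.d0.le.trans h.sh.R_pos) hs (h.extK (|θ 0| + |θ 1|))
    (fun n => Sd369.coc_N B lev w w0 sa sb fl n)

theorem pins_R
    (h : CtxR G L r g s θ q Rg a B I lev A f b vm w w0 sa sb δ R I0 I' ν own c₀)
    (hs : s < 1) : Pins R w0 s ν :=
  pins_ext (h.sh.d0.le.trans h.sh.R_pos) hs h.ext
    (fun n => Sd369.coc_N B lev w w0 sa sb _ n)

/-- **a priori bound, thin case, nothing visible, no open binder** -/
theorem aprioriT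
    (h : CtxT G L r g s θ q Rg B I lev A f b vm w fr fl sc w0 sa sb δ R I0 I' ν own c₀)
    (ho : ∀ (v : ℝ) (k : Fin 12), k ≠ 0 → oL (θ 0) (θ 1) w0 sa sb R (VisT B I fl sc) v k = R)
    (hθ : 0 < θ 0) (h0R : θ 0 ≤ Rg) (h1R : |θ 1| ≤ Rg) (hq0 : 0 ≤ q 0) (hq1 : 0 ≤ q 1)
    (hs : s < 1) : g + (q 0 + q 1) / 2 ≤ 1 :=
  apriori_T h ho hθ h0R h1R hq0 hq1 (pins_T h hs)

/-- **a priori bound, round case, no open binder** -/
theorem aprioriR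
    (h : CtxR G L r g s θ q Rg a B I lev A f b vm w w0 sa sb δ R I0 I' ν own c₀)
    (hθ : 0 < θ 0) (hθ1 : θ 0 ≤ θ 1) (h0R : θ 0 ≤ Rg) (h1R : |θ 1| ≤ Rg) (hq0 : 0 ≤ q 0)
    (hq1 : 0 ≤ q 1) (hs : s < 1) : g + (q 0 + q 1) / 2 ≤ 1 :=
  apriori_R h hθ hθ1 h0R h1R hq0 hq1 (pins_R h hs)

end ctx

end Crest.Agent.R116.Ap954
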