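import Crest.Agent.R116.RowU6_188
import Crest.Agent.R116.Ap3_954

/-!
# R116, row U (helper188), part 7: binder 1 (pins) discharged by 954 / 171

* `pinsB : PinsB`; **`rowU_of2 : D0B η → SigB η → RowU η`**
-/

set_option autoImplicit false
set_option linter.unusedVariables false

namespace Crest.Agent.R116.RowU188

open Crest.Agent.R116.KTop387 (RowU)

theorem pinsB : PinsB := fun h hs => Ap954.pins_T h hs

/-- **the row U from the two remaining binders** -/
theorem rowU_of2 {η : ℝ} (hD : D0B η) (hS : SigB η) : RowU η := rowU_of pinsB hD hS

end Crest.Agent.R116.RowU188
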