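import Crest.Agent.R116.Rcx2_363

/-!
# R116 (K side, TIES), the producer, part 3 (helper363)

* `first_tan`  : tangents of `ν`, `own` at the record point `v0`, on the cone of all walls;
* `Out8`, `Out9` : the complete output;  **`recx8`** (`D` frozen), **`recx9`** (`D` live);
* `strict_ctx` : a context with room above.
-/

set_option autoImplicit false
set_option linter.unusedVariables false

open Set Filter Topology MeasureTheory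

namespace Crest.Agent.R116.Rcx363

open Crest.Agent.R138.Ex926 (Base U IsTan)
open Crest.Agent.R136
open Crest.Agent.R136.MkA627
open Crest.Agent.R136.TD627
open Crest.Agent.R136.Net191
open Crest.Agent.R136.Lq196
open Crest.Agent.R116.ChL222
open Crest.Agent.R116.PL504 (nb rL DN eL βL oL Shift)
open Crest.Agent.R116.Xd954 (cs xs FlagX Mrg)
open Crest.Agent.R116.Sg337 (coneL DL natB eL_bx9)
open Crest.Agent.R116.Gd222 (TSet sN PDL DT)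
open Crest.Agent.R116.KI439
open Crest.Agent.R116.KF439 (PL)
open Crest.Agent.R116.Tw468 (OutT)
open Crest.Agent.R116.CtxB468
open Crest.Agent.R116.RbM219
open Crest.Agent.R116.RbK219 (SOk RS)
open Crest.Agent.R116.SgO219 (PP tan_lim tan_ev)
open Dg262 (SupOn)
open Dg219 (mw)
open Sl741 (slice xt rs)

/-- the pair `(ν, own)` -/
def fo (ν own : (Fin 12 → ℝ) → ℝ) : Fin 2 → (Fin 12 → ℝ) → ℝ := ![ν, own]

section ctx

variable {G : Geo TSet (Fin 2)} {L : ℕ → ℕ → LRay} {r : ℕ → ℝ} {g s : ℝ} {θ q : Fin 2 → ℝ}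
    {Rg : ℝ} {B : Base} {I : ℕ → Finset (ℕ × ℝ)} {lev : ℕ → ℚ → ℕ} {A : ℕ → ℝ}
    {f : ℕ → ℚ → ℕ → ℤ → ℕ} {b : ℕ → ℚ → ℕ → TSet} {vm : ℕ → ℚ → ℝ} {w : Fin 2 → ℕ → ℚ → ℝ}
    {fr : ℕ → ℚ → ℕ × ℝ → LInc} {fl : ℕ → ℕ × ℝ → LInc} {sc : Fin 12 → ℕ → ℝ}
    {w0 sa sb δ R : ℝ} {I0 I' : ℕ → Finset (ℕ × ℝ)} {ν own : (Fin 12 → ℝ) → ℝ} {c₀ : ℝ}

/-- **a context with room above** -/
theorem strict_ctx
    (h : CtxT G L r g s θ q Rg B I lev A f b vm w fr fl sc w0 sa sb δ R I0 I' ν own c₀) :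
    ∃ (w0 sa sb δ R : ℝ) (I0 I' : ℕ → Finset (ℕ × ℝ)) (ν own : (Fin 12 → ℝ) → ℝ) (c₀ : ℝ),
      CtxT G L r g s θ q Rg B I lev A f b vm w fr fl sc w0 sa sb δ R I0 I' ν own c₀ ∧
        w0 + (θ 1 + sb) < R ∧ w0 + 1 + sb < R := by
  have sh := h.sh
  have sh' : Shift (θ 0) (θ 1) w0 sa sb δ (R + 1) :=
    ⟨sh.d0, sh.z, sh.c0, sh.c1, sh.D0, sh.D1, by linarith [sh.R0], by linarith [sh.R1]⟩
  obtain ⟨I0, I', ν, own, c₀, C⟩ := h.out.ctx h.Rg0 sh'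
  exact ⟨w0, sa, sb, δ, R + 1, I0, I', ν, own, c₀, C, by linarith [sh.R0], by linarith [sh.R1]⟩

theorem own_mono
    (h : CtxT G L r g s θ q Rg B I lev A f b vm w fr fl sc w0 sa sb δ R I0 I' ν own c₀) :
    ∀ p ∈ Leg monL R, ∀ q ∈ Leg monL R, p ≤ q →
      0 ≤ own p - own q ∧ own p - own q ≤ ∑ k, (q k - p k) := by
  intro p hp q hq hpq
  refine ⟨?_, (h.ext.own_le p hp q hq hpq).trans (h.ext.lip p hp q hq hpq).2⟩
  have := own_anti h.ext.oprof h.ext.ne hq hp hpq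
  linarith

theorem fo_lip
    (h : CtxT G L r g s θ q Rg B I lev A f b vm w fr fl sc w0 sa sb δ R I0 I' ν own c₀) (j : Fin 2) :
    ∀ p ∈ Leg monL R, ∀ q ∈ Leg monL R, |fo ν own j p - fo ν own j q| ≤ (12:ℝ) * dist p q := by
  have hs : ∀ p ∈ Leg monL R, ∀ q ∈ Leg monL R, p ⊔ q ∈ Leg monL R := fun p hp q hq => Leg.sup hp hq
  fin_cases j
  · exact lip_of_mono (m := 12) hs h.ext.lip
  · exact lip_of_mono (m := 12) hs (own_mono h)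

/-- **tangents at the record point** -/
theorem first_tan
    (h : CtxT G L r g s θ q Rg B I lev A f b vm w fr fl sc w0 sa sb δ R I0 I' ν own c₀)
    (hR0 : w0 + (θ 1 + sb) < R) (hR1 : w0 + 1 + sb < R) {v0 : ℝ} (hv0 : 0 ≤ v0) (hv1 : v0 ≤ 1)
    {hh : ℕ → ℝ} (hpos : ∀ l, 0 < hh l) (hh0 : Tendsto hh atTop (𝓝 0)) :
    ∃ φ : ℕ → ℕ, StrictMono φ ∧ ∃ g1 : Fin 2 → (Fin 12 → ℝ) → ℝ, ∀ j,
      IsTan (Leg monL R) coneL (fo ν own j) (fun _ => rL (θ 0) (θ 1) w0 sa sb v0)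
        (fun l => hh (φ l)) (g1 j) := by
  obtain ⟨ρ, hρ, hleg⟩ := leg_near h.sh hR0 hR1 hv0 hv1
  have h1 := Rc683.exists_tan (J := Fin 2) (P := fun _ => Leg monL R) (D := fun _ => coneL)
    (fun _ => isClosed_coneL) (ν := fo ν own) (K := 12) (by norm_num)
    (fun j p hp q hq => by rw [← dist_eq_norm]; exact fo_lip h j p hp q hq)
    (x := fun _ => rL (θ 0) (θ 1) w0 sa sb v0) hpos (fun j C => by
      have h2 : Tendsto (fun l => hh l * |C|) atTop (𝓝 0) := by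
        have := hh0.mul_const |C|
        simpa using this
      filter_upwards [h2.eventually_lt_const hρ] with l hl c hc hcC
      refine hleg _ ?_ fun k => ?_
      · rw [coneL_PP] at hc ⊢
        intro w
        have h3 := hc w
        have h4 := mul_le_mul_of_nonneg_left h3 (hpos l).le
        simp only [Pi.smul_apply, smul_eq_mul]
        refine h4.trans (le_of_eq ?_)
        have e0 : (mw monL).cst w = 0 := rfl
        rw [e0, add_zero, add_zero]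
        show hh l * ∑ s, _ = ∑ s, _
        rw [Finset.mul_sum]
        exact Finset.sum_congr rfl fun s _ => by
          simp only [Pi.smul_apply, smul_eq_mul]; ring
      · rw [Pi.smul_apply, smul_eq_mul, abs_mul, abs_of_pos (hpos l)]
        have h5 := norm_le_pi_norm c k
        rw [Real.norm_eq_abs] at h5
        have h6 : |c k| ≤ |C| := h5.trans (hcC.trans (le_abs_self C))
        exact (mul_le_mul_of_nonneg_left h6 (hpos l).le).trans hl.le)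
    (fun _ => zero_coneL)
  exact h1

/-- the first tangent of `ν` : `Prf`, D-max, record -/
theorem first_prf
    (h : CtxT G L r g s θ q Rg B I lev A f b vm w fr fl sc w0 sa sb δ R I0 I' ν own c₀)
    (hR0 : w0 + (θ 1 + sb) < R) (hR1 : w0 + 1 + sb < R) (hθ : 0 < θ 0)
    (hRg : θ 0 + |θ 1| < Rg) {a b' : Fin 2}
    (hX : ∀ κ0 : ℝ, FlagX B I' lev fl (sN lev w) κ0 0 a b')
    {v0 : ℝ} (hv0 : 0 < v0) (hv1 : v0 < 1) {hh : ℕ → ℝ} (hpos : ∀ l, 0 < hh l)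
    (hh0 : Tendsto hh atTop (𝓝 0)) {g1 : (Fin 12 → ℝ) → ℝ}
    (ht : IsTan (Leg monL R) coneL ν (fun _ => rL (θ 0) (θ 1) w0 sa sb v0) hh g1) :
    Prf coneL s a b' (VisT B I fl sc) (βL (θ 0) (θ 1)) g1 ∧
      (∀ v x y : ℝ, g1 (natB v x y) ≤ DL g s (q 0) (q 1) v x y) ∧
      ∀ t : ℝ, g1 (natB t (-(θ 0 * t)) (-(θ 1 * t))) =
        DL g s (q 0) (q 1) t (-(θ 0 * t)) (-(θ 1 * t)) := by
  have h1v : 0 < 1 - v0 := by linarith
  have hθt : 0 < θ 0 * (1 - v0) := mul_pos hθ h1v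
  set κ0 : ℝ := θ 0 + |θ 1| + 1 with hκ0
  have h1 : |θ 1 * (1 - v0)| ≤ |θ 1| := by
    rw [abs_mul, abs_of_pos h1v]
    nlinarith [abs_nonneg (θ 1)]
  have h1' := abs_le.1 h1
  have h2 : θ 0 * (1 - v0) ≤ θ 0 := by nlinarith
  refine ⟨?_, ?_⟩
  · refine prf_of (h.extK κ0) (hX κ0) (fun v _ _ => oz _ v) (fun v _ _ k hk hv => ?_)
      (fun v _ _ k hv => ?_) hv0 hv1 hθt (by linarith [h1'.1]) (by linarith) hpos hh0 ht
    · exact (oR hk hv v).ge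
    · rw [oV hv v]
  · obtain ⟨ρ, hρ, hleg⟩ := leg_near h.sh hR0 hR1 hv0.le hv1.le
    set κ : ℝ := min (min (ρ / 4) (min v0 (1 - v0))) (min (θ 0 * (1 - v0) / 2)
      (min ((Rg - θ 0 - |θ 1|) / 2) (1 / 4))) with hκ
    have hRg' : 0 < Rg - θ 0 - |θ 1| := by linarith
    have hκp : 0 < κ := by
      refine lt_min (lt_min (by linarith) (lt_min hv0 h1v)) (lt_min (by linarith)
        (lt_min (by linarith) (by norm_num)))
    have b1 : κ ≤ ρ / 4 := (min_le_left _ _).trans (min_le_left _ _)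
    have b2 : κ ≤ v0 := (min_le_left _ _).trans ((min_le_right _ _).trans (min_le_left _ _))
    have b3 : κ ≤ 1 - v0 := (min_le_left _ _).trans ((min_le_right _ _).trans (min_le_right _ _))
    have b4 : κ ≤ θ 0 * (1 - v0) / 2 := (min_le_right _ _).trans (min_le_left _ _)
    have b5 : κ ≤ (Rg - θ 0 - |θ 1|) / 2 :=
      (min_le_right _ _).trans ((min_le_right _ _).trans (min_le_left _ _))
    have b6 : κ ≤ 1 / 4 := (min_le_right _ _).trans ((min_le_right _ _).trans (min_le_right _ _))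
    have hE : ExtQ B I0 I' (Gd222.coN B lev fl (sN lev w) w0 sa sb) monL 2 R 0 w0 s
        (PDL w0 sa sb Rg 0 κ0 R) (DT g s q θ w0 sa sb) (rL (θ 0) (θ 1) w0 sa sb)
        (oL (θ 0) (θ 1) w0 sa sb R (VisT B I fl sc)) (Tw468.EL θ g s q) (TdT θ B I lev fl sc)
        ν own c₀ := h.extK κ0
    refine Sg337.dmaxL_of hE (DT_nb) (fun v _ _ => EL_DN v) hv0 hv1 hκp
      (fun v a b n1 n2 n3 => ?_) hpos hh0 ht
    have m1 := abs_le.1 n1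
    have m2 := abs_le.1 n2
    have m3 := abs_le.1 n3
    refine nb_PD ?_ (by linarith [m1.1]) (by linarith [m1.2]) (by linarith [m2.1]) ?_ ?_ ?_
    · have e : nb w0 sa sb v a b = rL (θ 0) (θ 1) w0 sa sb v0 +
          eL (v - v0) (a - θ 0 * (1 - v0)) (b - θ 1 * (1 - v0)) := by
        rw [PL504.rL_nb, ← PL504.nb_add]
        congr 1 <;> ring
      rw [e]
      refine hleg _ (by rw [eL_bx9]; exact natB_mem _ _ _) fun k => ?_
      rw [abs_le]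
      fin_cases k <;> simp [eL] <;> constructor <;> linarith [m1.1, m1.2, m2.1, m2.2, m3.1, m3.2]
    · linarith [m2.2]
    · rw [abs_lt]
      constructor <;> linarith [m3.1, m3.2, h1'.1, h1'.2, abs_nonneg (θ 1)]
    · linarith [m2.2, m3.1, h1'.1, h1'.2]

/-- **output, `D` frozen** -/
structure Out8 (R s : ℝ) (a b : Fin 2) (Vis : Fin 12 → Prop) (θa θb g qa qb t : ℝ) {T : Type*}
    (B : T → Fin 8 → ℝ) (sg : T → ℝ) (x0 : Fin 12 → ℝ) (f : Fin 2 → (Fin 12 → ℝ) → ℝ)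
    (x : ℕ → Fin 12 → ℝ) (hh : ℕ → ℝ) (lam : Fin 2 → (Fin 12 → ℝ) → ℝ) : Prop where
  pos : ∀ m, 0 < hh m
  lim : Tendsto hh atTop (𝓝 0)
  base : ∃ (H y : ℕ → ℝ) (ξ : ℝ), (∀ m, 0 < H m) ∧ Tendsto H atTop (𝓝 0) ∧
    Tendsto y atTop (𝓝 ξ) ∧ ξ * (2 * θa - θb - 1) < t ∧
    ∀ m, x m = x0 + H m • (y8 t + y m • r8 θa θb)
  xlim : Tendsto x atTop (𝓝 x0)
  tan : ∀ j, IsTan (Leg monL R) (L8 θa θb t) (f j) x hh (lam j)
  lip : ∀ j, ∀ p ∈ L8 θa θb t, ∀ q ∈ L8 θa θb t, |lam j p - lam j q| ≤ (12:ℝ) * dist p q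
  zero : ∀ j, lam j 0 = 0
  surf : ∀ i, ∃ c0 : ℝ, 0 < c0 ∧ (srf8 θa θb t (B i) (sg i)).LW (Q8 t) c0 ⊆
      (Q8 t).L (rs kp (y8 t)) (rs kp (r8 θa θb)) 0 ∧
    Rec8 θa θb t (B i) (sg i) c0 (lam 0) ∧ ∃ ρ, Rates8 θa θb t (B i) (sg i) c0 (lam 0) ρ
  rx : Rx (L8 θa θb t) (ntD 0) s a b Vis θa θb g qa qb (lam 0)
  dmaxD : ∀ z v c p : ℝ, lam 0 (ntD z v c p) ≤ DL g s qa qb v c p
  recD : ∀ z τ : ℝ, lam 0 (ntD z τ (-(θa * τ)) (-(θb * τ))) =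
    DL g s qa qb τ (-(θa * τ)) (-(θb * τ))

/-- **output, `D` live** -/
structure Out9 (R s : ℝ) (a b : Fin 2) (Vis : Fin 12 → Prop) (θa θb g qa qb : ℝ) {T : Type*}
    (B : T → Fin 9 → ℝ) (sg : T → ℝ) (x0 : Fin 12 → ℝ) (f : Fin 2 → (Fin 12 → ℝ) → ℝ)
    (x : ℕ → Fin 12 → ℝ) (hh : ℕ → ℝ) (lam : Fin 2 → (Fin 12 → ℝ) → ℝ) : Prop where
  pos : ∀ m, 0 < hh m
  lim : Tendsto hh atTop (𝓝 0)
  base : ∃ (H y : ℕ → ℝ) (ξ : ℝ), (∀ m, 0 < H m) ∧ Tendsto H atTop (𝓝 0) ∧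
    Tendsto y atTop (𝓝 ξ) ∧ ∀ m, x m = x0 + H m • (y m • r9 θa θb)
  xlim : Tendsto x atTop (𝓝 x0)
  tan : ∀ j, IsTan (Leg monL R) coneL (f j) x hh (lam j)
  lip : ∀ j, ∀ p ∈ coneL, ∀ q ∈ coneL, |lam j p - lam j q| ≤ (12:ℝ) * dist p q
  zero : ∀ j, lam j 0 = 0
  surf : ∀ i, ∃ c0 : ℝ, 0 < c0 ∧ (srf9 θa θb (B i) (sg i)).LW (mw monL) c0 ⊆ PP (mw monL) ∧
    Rec9 θa θb (B i) (sg i) c0 (lam 0) ∧ ∃ ρ, Rates9 θa θb (B i) (sg i) c0 (lam 0) ρ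
  rx : Rx coneL eL s a b Vis θa θb g qa qb (lam 0)

theorem base_lim {x0 u v : Fin 12 → ℝ} {H y : ℕ → ℝ} {ξ : ℝ} (hH : Tendsto H atTop (𝓝 0))
    (hy : Tendsto y atTop (𝓝 ξ)) : Tendsto (fun m => x0 + H m • (u + y m • v)) atTop (𝓝 x0) := by
  have h1 : Tendsto (fun m => x0 + H m • (u + y m • v)) atTop (𝓝 (x0 + (0:ℝ) • (u + ξ • v))) :=
    (hH.smul ((hy.smul_const v).const_add u)).const_add x0
  rwa [zero_smul, add_zero] at h1

/-- **THE PRODUCER, `D` frozen at the level `t`** -/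
theorem recx8
    (h : CtxT G L r g s θ q Rg B I lev A f b vm w fr fl sc w0 sa sb δ R I0 I' ν own c₀)
    (hR0 : w0 + (θ 1 + sb) < R) (hR1 : w0 + 1 + sb < R) (hθ : 0 < θ 0)
    (hRg : θ 0 + |θ 1| < Rg) {a b' : Fin 2}
    (hX : ∀ κ0 : ℝ, FlagX B I' lev fl (sN lev w) κ0 0 a b')
    {v0 : ℝ} (hv0 : 0 < v0) (hv1 : v0 < 1) (hD : DDead R ν (θ 0) (θ 1) w0 sa sb v0)
    (hV1 : InvT PL B I 1 fl (sc 1)) {t : ℝ} (ht0 : 0 < t) {T : Type*} [Countable T]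
    {Bs : T → Fin 8 → ℝ} {sg : T → ℝ}
    (hS : ∀ i, SOk (nat8 1 (-(θ 0)) (-(θ 1))) (Bs i) (sg i)) (hB : ∀ i, Leg8 (Bs i)) :
    ∃ x hh lam, Out8 R s a b' (VisT B I fl sc) (θ 0) (θ 1) g (q 0) (q 1) t Bs sg
      (rL (θ 0) (θ 1) w0 sa sb v0) (fo ν own) x hh lam := by
  set hh : ℕ → ℝ := fun l => 1 / ((l : ℝ) + 1) with hhh
  have hpos : ∀ l, 0 < hh l := fun l => by rw [hhh]; positivity
  have hh0 : Tendsto hh atTop (𝓝 0) := tendsto_one_div_add_atTop_nhds_zero_nat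
  obtain ⟨φ, hφ, g1, hg1⟩ := first_tan h hR0 hR1 hv0.le hv1.le hpos hh0
  have hpos' : ∀ l, 0 < hh (φ l) := fun l => hpos _
  have hh0' : Tendsto (fun l => hh (φ l)) atTop (𝓝 0) := hh0.comp hφ.tendsto_atTop
  obtain ⟨hP, hDm, hRc⟩ := first_prf h hR0 hR1 hθ hRg hX hv0 hv1 hpos' hh0' (g1 := g1 0) (hg1 0)
  have hfz := hD _ _ hpos' hh0' (hg1 0)
  have hg1' : ∀ j, IsTan (Leg monL R) (PP (mw monL)) (fo ν own j)
      (fun _ => rL (θ 0) (θ 1) w0 sa sb v0) (fun l => hh (φ l)) (g1 j) := fun j => by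
    rw [← coneL_PP]; exact hg1 j
  have hlip1 : ∀ j, ∀ p ∈ PP (mw monL), ∀ q ∈ PP (mw monL), |g1 j p - g1 j q| ≤ (12:ℝ) * dist p q :=
    fun j => SgO219.tan_lip hpos' (hg1' j) (fo_lip h j)
  have hae := ae_rates8 hpos' hg1' (j0 := (0 : Fin 2)) (K := 12) (by norm_num) hlip1
    (by rw [← coneL_PP]; exact hP.anti) (by rw [← coneL_PP]; exact hP.sm) ht0 hS hB
  -- a point
  have hex : ∃ ξ : ℝ, ξ * (2 * θ 0 - θ 1 - 1) < t ∧ (ξ * (2 * θ 0 - θ 1 - 1) < t →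
      ∃ c0 : T → ℝ, (∀ s, 0 < c0 s) ∧
      (∀ s, (srf8 (θ 0) (θ 1) t (Bs s) (sg s)).LW (Q8 t) (c0 s) ⊆
        (Q8 t).L (rs kp (y8 t)) (rs kp (r8 (θ 0) (θ 1))) 0) ∧
      ∀ k : ℕ → ℝ, (∀ l, 0 < k l) → Tendsto k atTop (𝓝 0) →
      ∃ (y k' : ℕ → ℝ) (ψ : ℕ → ℕ) (lam : Fin 2 → (Fin 12 → ℝ) → ℝ), Tendsto y atTop (𝓝 ξ) ∧
        (∀ m, 0 < k' m) ∧ Tendsto k' atTop (𝓝 0) ∧ StrictMono ψ ∧
        (∀ j, IsTan (PP (mw monL)) (L8 (θ 0) (θ 1) t) (g1 j)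
          (fun m => y8 t + y m • r8 (θ 0) (θ 1)) k' (lam j)) ∧
        (∀ j, IsTan (Leg monL R) (L8 (θ 0) (θ 1) t) (fo ν own j)
          (fun m => rL (θ 0) (θ 1) w0 sa sb v0 + hh (φ (ψ m)) • (y8 t + y m • r8 (θ 0) (θ 1)))
          (fun m => hh (φ (ψ m)) * k' m) (lam j)) ∧
        ∀ s, Rec8 (θ 0) (θ 1) t (Bs s) (sg s) (c0 s) (lam 0) ∧
          ∃ ρ, Rates8 (θ 0) (θ 1) t (Bs s) (sg s) (c0 s) (lam 0) ρ) := by
    have hop : IsOpen {ξ : ℝ | ξ * (2 * θ 0 - θ 1 - 1) < t} :=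
      isOpen_lt (continuous_id.mul continuous_const) continuous_const
    have hne : (0:ℝ) ∈ {ξ : ℝ | ξ * (2 * θ 0 - θ 1 - 1) < t} := by simpa using ht0
    have hpm : 0 < volume {ξ : ℝ | ξ * (2 * θ 0 - θ 1 - 1) < t} :=
      hop.measure_pos volume ⟨0, hne⟩
    by_contra hcon
    have h0 : volume {ξ : ℝ | ξ * (2 * θ 0 - θ 1 - 1) < t} ≤ 0 := by
      rw [ae_iff] at hae
      refine (measure_mono fun ξ hξ => ?_).trans hae.le
      intro h2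
      exact hcon ⟨ξ, hξ, h2⟩
    exact absurd h0 (not_le.2 hpm)
  obtain ⟨ξ, hξ, H⟩ := hex
  obtain ⟨c0, hc0, hsub, H⟩ := H hξ
  obtain ⟨y, k', ψ, lam, hy, hk', hk0, hψ, hT, hTP, hR⟩ := H hh hpos hh0
  obtain ⟨hrx, hdD, hrD⟩ := rx8 hP hDm hRc hfz (fun hv => hv hV1) ht0 hξ hy hk' hk0 (hT 0)
  have hHt : Tendsto (fun m => hh (φ (ψ m))) atTop (𝓝 0) := hh0'.comp hψ.tendsto_atTop
  refine ⟨_, _, lam, ⟨fun m => mul_pos (hpos' _) (hk' m), ?_, ⟨_, y, ξ, fun m => hpos' (ψ m), hHt, hy,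
    hξ, fun m => rfl⟩, base_lim hHt hy, hTP, ?_, ?_, fun i => ⟨c0 i, hc0 i, hsub i, hR i⟩, hrx, hdD,
    hrD⟩⟩
  · have := hHt.mul hk0
    simpa using this
  · exact fun j => SgO219.tan_lip hk' (hT j) (hlip1 j)
  · intro j
    have h0L : (0 : Fin 12 → ℝ) ∈ L8 (θ 0) (θ 1) t := by
      have h := ntD_mem (θa := θ 0) (θb := θ 1) ht0.ne' 0 0 0 0
      have e : ntD 0 0 0 0 = 0 := by
        funext i
        unfold ntD
        by_cases hi : i = 1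
        · subst hi; simp
        · rw [Function.update_of_ne hi]
          fin_cases i <;> simp [eL]
      rwa [e] at h
    exact Sg337.tan_zero hk' (hT j) h0L

/-- **THE PRODUCER, `D` live** -/
theorem recx9
    (h : CtxT G L r g s θ q Rg B I lev A f b vm w fr fl sc w0 sa sb δ R I0 I' ν own c₀)
    (hR0 : w0 + (θ 1 + sb) < R) (hR1 : w0 + 1 + sb < R) (hθ : 0 < θ 0)
    (hRg : θ 0 + |θ 1| < Rg) {a b' : Fin 2}
    (hX : ∀ κ0 : ℝ, FlagX B I' lev fl (sN lev w) κ0 0 a b')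
    {v0 : ℝ} (hv0 : 0 < v0) (hv1 : v0 < 1) {T : Type*} [Countable T]
    {Bs : T → Fin 9 → ℝ} {sg : T → ℝ}
    (hS : ∀ i, SOk (nat9 1 (-(θ 0)) (-(θ 1))) (Bs i) (sg i)) (hB : ∀ i, Leg9 (Bs i)) :
    ∃ x hh lam, Out9 R s a b' (VisT B I fl sc) (θ 0) (θ 1) g (q 0) (q 1) Bs sg
      (rL (θ 0) (θ 1) w0 sa sb v0) (fo ν own) x hh lam := by
  set hh : ℕ → ℝ := fun l => 1 / ((l : ℝ) + 1) with hhh
  have hpos : ∀ l, 0 < hh l := fun l => by rw [hhh]; positivity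
  have hh0 : Tendsto hh atTop (𝓝 0) := tendsto_one_div_add_atTop_nhds_zero_nat
  obtain ⟨φ, hφ, g1, hg1⟩ := first_tan h hR0 hR1 hv0.le hv1.le hpos hh0
  have hpos' : ∀ l, 0 < hh (φ l) := fun l => hpos _
  have hh0' : Tendsto (fun l => hh (φ l)) atTop (𝓝 0) := hh0.comp hφ.tendsto_atTop
  obtain ⟨hP, hDm, hRc⟩ := first_prf h hR0 hR1 hθ hRg hX hv0 hv1 hpos' hh0' (g1 := g1 0) (hg1 0)
  have hg1' : ∀ j, IsTan (Leg monL R) (PP (mw monL)) (fo ν own j)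
      (fun _ => rL (θ 0) (θ 1) w0 sa sb v0) (fun l => hh (φ l)) (g1 j) := fun j => by
    rw [← coneL_PP]; exact hg1 j
  have hlip1 : ∀ j, ∀ p ∈ PP (mw monL), ∀ q ∈ PP (mw monL), |g1 j p - g1 j q| ≤ (12:ℝ) * dist p q :=
    fun j => SgO219.tan_lip hpos' (hg1' j) (fo_lip h j)
  have hae := ae_rates9 hpos' hg1' (j0 := (0 : Fin 2)) (K := 12) (by norm_num) hlip1
    (by rw [← coneL_PP]; exact hP.anti) (by rw [← coneL_PP]; exact hP.sm) hS hB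
  obtain ⟨ξ, c0, hc0, hsub, H⟩ := hae.exists
  obtain ⟨y, k', ψ, lam, hy, hk', hk0, hψ, hT, hTP, hR⟩ := H hh hpos hh0
  have hrx := rx9 hP hDm hRc hk' hk0 (hT 0)
  have hHt : Tendsto (fun m => hh (φ (ψ m))) atTop (𝓝 0) := hh0'.comp hψ.tendsto_atTop
  refine ⟨fun m => rL (θ 0) (θ 1) w0 sa sb v0 + hh (φ (ψ m)) • (y m • r9 (θ 0) (θ 1)),
    fun m => hh (φ (ψ m)) * k' m, lam, ⟨fun m => mul_pos (hpos' _) (hk' m), ?_,
    ⟨_, y, ξ, fun m => hpos' (ψ m), hHt, hy, fun m => rfl⟩, ?_, ?_, ?_, ?_,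
    fun i => ⟨c0 i, hc0 i, hsub i, hR i⟩, hrx⟩⟩
  · have := hHt.mul hk0
    simpa using this
  · have := base_lim (x0 := rL (θ 0) (θ 1) w0 sa sb v0) (u := 0) (v := r9 (θ 0) (θ 1)) hHt hy
    simpa using this
  · intro j
    rw [coneL_PP]; exact hTP j
  · intro j
    rw [coneL_PP]; exact SgO219.tan_lip hk' (hT j) (hlip1 j)
  · intro j
    refine Sg337.tan_zero hk' (hT j) ?_
    rw [← coneL_PP]; exact zero_coneL

end ctx

end Crest.Agent.R116.Rcx363
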