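import Crest.Agent.R116.RowU2_194
import Crest.Agent.R116.Rcx3_363

/-!
# R116, row U (helper188), part 3: the record tangent from the context

* **`exists_rec`** : `CtxT`, no visible slot, micro form of D0 ⊢ 194's `RecT` (for `fo ν own`)
-/

set_option autoImplicit false
set_option linter.unusedVariables false

open Set Filter Topology MeasureTheory

namespace Crest.Agent.R116.RowU188

open Crest.Agent.R138.Ex926 (Base U IsTan)
open Crest.Agent.R136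
open Crest.Agent.R136.MkA627
open Crest.Agent.R136.TD627
open Crest.Agent.R136.Net191
open Crest.Agent.R136.Lq196
open Crest.Agent.R116.ChL222
open Crest.Agent.R116.PL504 (nb rL DN eL βL oL Shift)
open Crest.Agent.R116.Xd954 (cs xs FlagX Mrg)
open Crest.Agent.R116.Sg337 (coneL DL natB eL_bx9)
open Crest.Agent.R116.Gd222 (TSet sN PDL DT)
open Crest.Agent.R116.KI439
open Crest.Agent.R116.KF439 (PL)
open Crest.Agent.R116.Tw468 (OutT)
open Crest.Agent.R116.CtxB468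
open Crest.Agent.R116.Rcx363 (fo fo_lip leg_near natB_mem)
open Crest.Agent.R116.RowU194 (RecT e1 exists_rec_ext)

section ctx

variable {G : Geo TSet (Fin 2)} {L : ℕ → ℕ → LRay} {r : ℕ → ℝ} {c s : ℝ} {θ q : Fin 2 → ℝ}
    {Rg : ℝ} {B : Base} {I : ℕ → Finset (ℕ × ℝ)} {lev : ℕ → ℚ → ℕ} {A : ℕ → ℝ}
    {f : ℕ → ℚ → ℕ → ℤ → ℕ} {b : ℕ → ℚ → ℕ → TSet} {vm : ℕ → ℚ → ℝ} {w : Fin 2 → ℕ → ℚ → ℝ}
    {fr : ℕ → ℚ → ℕ × ℝ → LInc} {fl : ℕ → ℕ × ℝ → LInc} {sc : Fin 12 → ℕ → ℝ}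
    {w0 sa sb δ R : ℝ} {I0 I' : ℕ → Finset (ℕ × ℝ)} {ν own : (Fin 12 → ℝ) → ℝ} {c₀ : ℝ}

/-- natural boxes near a record point are D-max boxes -/
theorem near_PD
    (h : CtxT G L r c s θ q Rg B I lev A f b vm w fr fl sc w0 sa sb δ R I0 I' ν own c₀)
    (hR0 : w0 + (θ 1 + sb) < R) (hR1 : w0 + 1 + sb < R) (hθ : 0 < θ 0)
    (hRg : θ 0 + |θ 1| < Rg) {v0 : ℝ} (hv0 : 0 < v0) (hv1 : v0 < 1) :
    ∃ κ : ℝ, 0 < κ ∧ ∀ v a b : ℝ, |v - v0| ≤ κ → |a - θ 0 * (1 - v0)| ≤ κ →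
      |b - θ 1 * (1 - v0)| ≤ κ →
      nb w0 sa sb v a b ∈ PDL w0 sa sb Rg 0 (θ 0 + |θ 1| + 1) R := by
  have h1v : 0 < 1 - v0 := by linarith
  have hθt : 0 < θ 0 * (1 - v0) := mul_pos hθ h1v
  have h1 : |θ 1 * (1 - v0)| ≤ |θ 1| := by
    rw [abs_mul, abs_of_pos h1v]
    nlinarith [abs_nonneg (θ 1)]
  have h1' := abs_le.1 h1
  have h2 : θ 0 * (1 - v0) ≤ θ 0 := by nlinarith
  obtain ⟨ρ, hρ, hleg⟩ := leg_near h.sh hR0 hR1 hv0.le hv1.le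
  have hRg' : 0 < Rg - θ 0 - |θ 1| := by linarith
  refine ⟨min (min (ρ / 4) (min v0 (1 - v0))) (min (θ 0 * (1 - v0) / 2)
      (min ((Rg - θ 0 - |θ 1|) / 2) (1 / 4))), ?_, ?_⟩
  · refine lt_min (lt_min (by linarith) (lt_min hv0 h1v)) (lt_min (by linarith)
        (lt_min (by linarith) (by norm_num)))
  intro v a b n1 n2 n3
  set κ : ℝ := min (min (ρ / 4) (min v0 (1 - v0))) (min (θ 0 * (1 - v0) / 2)
      (min ((Rg - θ 0 - |θ 1|) / 2) (1 / 4))) with hκ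
  have b1 : κ ≤ ρ / 4 := (min_le_left _ _).trans (min_le_left _ _)
  have b2 : κ ≤ v0 := (min_le_left _ _).trans ((min_le_right _ _).trans (min_le_left _ _))
  have b3 : κ ≤ 1 - v0 := (min_le_left _ _).trans ((min_le_right _ _).trans (min_le_right _ _))
  have b4 : κ ≤ θ 0 * (1 - v0) / 2 := (min_le_right _ _).trans (min_le_left _ _)
  have b5 : κ ≤ (Rg - θ 0 - |θ 1|) / 2 :=
    (min_le_right _ _).trans ((min_le_right _ _).trans (min_le_left _ _))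
  have b6 : κ ≤ 1 / 4 := (min_le_right _ _).trans ((min_le_right _ _).trans (min_le_right _ _))
  have m1 := abs_le.1 n1
  have m2 := abs_le.1 n2
  have m3 := abs_le.1 n3
  refine nb_PD ?_ (by linarith [m1.1]) (by linarith [m1.2]) (by linarith [m2.1]) ?_ ?_ ?_
  · have e : nb w0 sa sb v a b = rL (θ 0) (θ 1) w0 sa sb v0 +
        eL (v - v0) (a - θ 0 * (1 - v0)) (b - θ 1 * (1 - v0)) := by
      rw [PL504.rL_nb, ← PL504.nb_add]
      congr 1 <;> ring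
    rw [e]
    refine hleg _ (by rw [eL_bx9]; exact natB_mem _ _ _) fun k => ?_
    rw [abs_le]
    fin_cases k <;> simp [eL] <;> constructor <;> linarith [m1.1, m1.2, m2.1, m2.2, m3.1, m3.2]
  · linarith [m2.2]
  · rw [abs_lt]
    constructor <;> linarith [m3.1, m3.2, h1'.1, h1'.2, abs_nonneg (θ 1)]
  · linarith [m2.2, m3.1, h1'.1, h1'.2]

/-- **THE RECORD TANGENT** -/
theorem exists_rec
    (h : CtxT G L r c s θ q Rg B I lev A f b vm w fr fl sc w0 sa sb δ R I0 I' ν own c₀)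
    (hR0 : w0 + (θ 1 + sb) < R) (hR1 : w0 + 1 + sb < R) (hθ : 0 < θ 0)
    (hRg : θ 0 + |θ 1| < Rg) {a b' : Fin 2}
    (hX : ∀ κ0 : ℝ, FlagX B I' lev fl (sN lev w) κ0 0 a b')
    (hinv : ∀ k : Fin 12, k = 1 ∨ k = 2 ∨ k = 7 ∨ k = 8 → InvT PL B I k fl (sc k))
    (hmic : ∀ᵐ v : ℝ, v ∈ Ioo (0:ℝ) 1 → Tendsto (fun y : ℝ =>
      (ν (rL (θ 0) (θ 1) w0 sa sb v) - ν (rL (θ 0) (θ 1) w0 sa sb v + y • e1)) / y) (𝓝[>] 0) (𝓝 0))
    {N : Set ℝ} (hN : ∀ᵐ v : ℝ, v ∈ N) :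
    ∃ v0 ∈ N, ∃ (hh : ℕ → ℝ) (gg : Fin 2 → (Fin 12 → ℝ) → ℝ),
      RecT R w0 sa sb (θ 0) (θ 1) s c (q 0) (q 1) a b' (fo ν own) (0 : Fin 2) v0 hh gg := by
  set κ0 : ℝ := θ 0 + |θ 1| + 1 with hκ0
  have hE : ExtQ B I0 I' (Gd222.coN B lev fl (sN lev w) w0 sa sb) monL 2 R 0 w0 s
      (PDL w0 sa sb Rg 0 κ0 R) (DT c s q θ w0 sa sb) (rL (θ 0) (θ 1) w0 sa sb)
      (oL (θ 0) (θ 1) w0 sa sb R (VisT B I fl sc)) (Tw468.EL θ c s q) (TdT θ B I lev fl sc)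
      ν own c₀ := h.extK κ0
  have habs := neg_abs_le (θ 1)
  refine exists_rec_ext hE (hX κ0) h.sh (fun v _ _ k hk => (h.noVis hinv v k hk).ge)
    (fun v _ _ => oz _ v) DT_nb (fun v _ _ => EL_DN v) (fun v hv0 hv1 => ?_)
    (fun v _ hv1 => mul_pos hθ (by linarith)) (fun v hv0 hv1 => ?_) (fun v hv0 hv1 => ?_)
    (fun v hv0 hv1 => near_PD h hR0 hR1 hθ hRg hv0 hv1) hmic (j0 := (0 : Fin 2)) rfl
    (fun j p hp q hq => by rw [← dist_eq_norm]; exact fo_lip h j p hp q hq) hN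
  · rcases le_total (w0 + 1 + sb) (w0 + (θ 1 + sb)) with h1 | h1
    · have := mul_nonneg hv0 (sub_nonneg.2 h1)
      linarith
    · have := mul_nonneg (sub_nonneg.2 hv1) (sub_nonneg.2 h1)
      linarith
  · have h1v : 0 < 1 - v := by linarith
    have h1 : |θ 1 * (1 - v)| ≤ |θ 1| := by
      rw [abs_mul, abs_of_pos h1v]
      nlinarith [abs_nonneg (θ 1)]
    have h1' := abs_le.1 h1
    have h2 : θ 0 * (1 - v) ≤ θ 0 := by nlinarith
    rw [hκ0]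
    linarith [h1'.1]
  · have := mul_pos hθ (show 0 < 1 - v by linarith)
    linarith

end ctx

end Crest.Agent.R116.RowU188
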