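import Crest.Agent.R116.RowU4_194
import Crest.Agent.R116.RowU3_188
import Crest.Agent.R116.Kg4_388

/-!
# R116, row U (helper388): the base sequences of LEMMA SIG over the context

* `Bs0.lim`, `Bs0.e4/e6/e8`, `Bs0.hpos`, `Bs0.h0` : geometry of 194's base sequences `Bs0`
* `own_bs` : the own rate `1 - s` at every base near the record (no visible slot)
* **`bsF_sig`**, **`bsC_sig`** : `Bs0` ⊢ 330's `BsF`, resp. `BsC` (dead direction = binder)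
-/

set_option autoImplicit false
set_option linter.unusedVariables false

open Set Filter Topology

namespace Crest.Agent.R116.RowU388

open Crest.Agent.R138.Ex926 (Base U IsTan)
open Crest.Agent.R136
open Crest.Agent.R136.MkA627
open Crest.Agent.R136.TD627
open Crest.Agent.R136.Net191
open Crest.Agent.R136.Lq196
open Crest.Agent.R116.ChL222
open Crest.Agent.R116.PL504 (nb rL DN eL βL oL Shift)
open Crest.Agent.R116.Sg337 (bx9)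
open Crest.Agent.R116.Gd222 (TSet sN PDL DT)
open Crest.Agent.R116.KI439
open Crest.Agent.R116.KF439 (PL)
open Crest.Agent.R116.Tw468 (OutT)
open Crest.Agent.R116.CtxB468
open Crest.Agent.R116.Rcx363 (fo)
open Crest.Agent.R116.RowU194 (RecT e1 SigP xB xB_nat Bs0)
open Sg635 (LMd mem_bx)
open SgF665 (LM0 wl LinFacts bx9_mem)
open Crest.Agent.R136.Qg926 (NProf)
open Kg330 (BsF ThinB linFacts)
open Kc388 (BsC ThinBC linFacts4)
open LF388 (LinFacts4)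

section geo

variable {J : Type*} {R w0 sa sb θa θb s c q0 q1 δ : ℝ} {f : J → (Fin 12 → ℝ) → ℝ} {j0 : J}
    {v0 lam0 : ℝ} {z : ℝ × ℝ} {u k : ℕ → ℝ} {lam : J → (Fin 12 → ℝ) → ℝ} {A : ℝ × ℝ}
    {φ : ℕ → (Fin 12 → ℝ) → ℝ} {r : ℕ → ℝ} {X : ℕ → Fin 12 → ℝ} {h : ℕ → ℝ}

/-- the base sequences converge to the record box -/
theorem Bs0_lim (u0 : Tendsto u atTop (𝓝 0)) (k0 : Tendsto k atTop (𝓝 0))
    (H : Bs0 θa θb w0 sa sb v0 lam0 z u k X h) :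
    Tendsto X atTop (𝓝 (rL θa θb w0 sa sb v0)) := by
  obtain ⟨c0, -, -, -, -, ψ, θ, hψ, hθ, rfl, -⟩ := H
  have h1 : Tendsto (fun m => u (ψ m)) atTop (𝓝 0) := u0.comp hψ.tendsto_atTop
  have h2 : Tendsto (fun m => k (ψ m)) atTop (𝓝 0) := k0.comp hψ.tendsto_atTop
  have h3 := ((h1.smul_const (Sg337.SL θa θb lam0 z.1 z.2)).const_add
    (rL θa θb w0 sa sb v0)).add ((h1.mul h2).smul_const c0)
  simp only [zero_smul, add_zero, mul_zero] at h3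
  exact h3

theorem Bs0_pairs (H : Bs0 θa θb w0 sa sb v0 lam0 z u k X h) (l : ℕ) :
    X l 4 = X l 3 ∧ X l 6 = X l 5 ∧ X l 8 = X l 7 := by
  obtain ⟨c0, -, h3, h5, h7, ψ, θ, -, -, rfl, -⟩ := H
  have n := fun (i : Fin 12) (hi : i ≠ 1) =>
    xB_nat (w0 := w0) (sa := sa) (sb := sb) (θa := θa) (θb := θb) (v0 := v0) (lam0 := lam0)
      (z := z) (u := u) (ψ l) i hi
  refine ⟨?_, ?_, ?_⟩
  · simp only [Pi.add_apply, Pi.smul_apply, smul_eq_mul]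
    rw [n 4 (by decide), n 3 (by decide), h3]; rfl
  · simp only [Pi.add_apply, Pi.smul_apply, smul_eq_mul]
    rw [n 6 (by decide), n 5 (by decide), h5]; rfl
  · simp only [Pi.add_apply, Pi.smul_apply, smul_eq_mul]
    rw [n 8 (by decide), n 7 (by decide), h7]; rfl

theorem Bs0_pos (up : ∀ m, 0 < u m) (kp : ∀ m, 0 < k m)
    (H : Bs0 θa θb w0 sa sb v0 lam0 z u k X h) (l : ℕ) : 0 < h l := by
  obtain ⟨c0, -, -, -, -, ψ, θ, -, -, -, rfl⟩ := H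
  have := up (ψ l)
  have := kp (ψ l)
  positivity

theorem Bs0_h0 (u0 : Tendsto u atTop (𝓝 0)) (k0 : Tendsto k atTop (𝓝 0))
    (H : Bs0 θa θb w0 sa sb v0 lam0 z u k X h) : Tendsto h atTop (𝓝 0) := by
  obtain ⟨c0, -, -, -, -, ψ, θ, hψ, hθ, -, rfl⟩ := H
  have h1 : Tendsto (fun m => u (ψ m)) atTop (𝓝 0) := u0.comp hψ.tendsto_atTop
  have h2 : Tendsto (fun m => k (ψ m)) atTop (𝓝 0) := k0.comp hψ.tendsto_atTop
  have h3 : Tendsto (fun m => 1 / ((θ m : ℝ) + 1)) atTop (𝓝 0) :=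
    tendsto_one_div_add_atTop_nhds_zero_nat.comp hθ.tendsto_atTop
  simpa using (h1.mul h2).mul h3

end geo

section ctx

variable {G : Geo TSet (Fin 2)} {L : ℕ → ℕ → LRay} {r : ℕ → ℝ} {c s : ℝ} {θ q : Fin 2 → ℝ}
    {Rg : ℝ} {B : Base} {I : ℕ → Finset (ℕ × ℝ)} {lev : ℕ → ℚ → ℕ} {A : ℕ → ℝ}
    {f : ℕ → ℚ → ℕ → ℤ → ℕ} {b : ℕ → ℚ → ℕ → TSet} {vm : ℕ → ℚ → ℝ} {w : Fin 2 → ℕ → ℚ → ℝ}
    {fr : ℕ → ℚ → ℕ × ℝ → LInc} {fl : ℕ → ℕ × ℝ → LInc} {sc : Fin 12 → ℕ → ℝ}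
    {w0 sa sb δ R : ℝ} {I0 I' : ℕ → Finset (ℕ × ℝ)} {ν own : (Fin 12 → ℝ) → ℝ} {c₀ : ℝ}
    {v0 : ℝ} {X : ℕ → Fin 12 → ℝ} {h : ℕ → ℝ}

/-- **own rate at every base near the record**, no visible slot -/
theorem own_bs
    (H : CtxT G L r c s θ q Rg B I lev A f b vm w fr fl sc w0 sa sb δ R I0 I' ν own c₀)
    (hinv : ∀ k : Fin 12, k = 1 ∨ k = 2 ∨ k = 7 ∨ k = 8 → InvT PL B I k fl (sc k))
    (hv0 : 0 < v0) (hv1 : v0 < 1) (hX : Tendsto X atTop (𝓝 (rL (θ 0) (θ 1) w0 sa sb v0)))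
    (hpos : ∀ l, 0 < h l) (h0 : Tendsto h atTop (𝓝 0)) {D : Set (Fin 12 → ℝ)}
    {g : (Fin 12 → ℝ) → ℝ} (hD : LM0 ⊆ D) (ht : IsTan (Leg monL R) D ν X h g) {y : ℝ}
    (hy : 0 < y) : (1 - s) * y ≤ -(g (bx9 y 0 0 0 0 0 0 0 0)) := by
  have hm0 : (0 : Fin 12 → ℝ) ∈ LM0 := by
    intro k e _ _
    simp [wl]
  have hmy : bx9 y 0 0 0 0 0 0 0 0 ∈ LM0 := bx9_mem.2 (by
    refine ⟨?_, ?_, ?_, ?_, ?_, ?_, ?_⟩ <;> linarith)
  have h1 := SgO219.tan_lim hpos ht (hD hm0) (hD hmy)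
  rw [Sg337.tan_zero hpos ht (hD hm0), zero_sub] at h1
  have hX0 : Tendsto (fun l => X l 0 - w0) atTop (𝓝 v0) := by
    have h2 := (tendsto_pi_nhds.1 hX 0).sub_const w0
    rw [PL504.rL_zero_slot] at h2
    simpa using h2
  have hX1 : Tendsto (fun l => X l 0 - w0 + h l * y) atTop (𝓝 v0) := by
    simpa using hX0.add (h0.mul_const y)
  refine ge_of_tendsto h1 ?_
  filter_upwards [SgO219.tan_ev ht (hD hm0), SgO219.tan_ev ht (hD hmy),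
    hX0.eventually (Ioo_mem_nhds hv0 hv1), hX1.eventually (Ioo_mem_nhds hv0 hv1)]
    with l m1 m2 n1 n2
  have hl := hpos l
  rw [smul_zero, add_zero] at m1 ⊢
  have hs0 : bx9 y 0 0 0 0 0 0 0 0 0 = y := rfl
  have hnn : ∀ k : Fin 12, 0 ≤ bx9 y 0 0 0 0 0 0 0 0 k := fun k => by
    fin_cases k <;> simp [bx9, hy.le]
  have h2 := PL504.own_inc H.ext m1 m2 (fun k => by
      simp only [Pi.add_apply, Pi.smul_apply, smul_eq_mul]
      have := mul_nonneg hl.le (hnn k)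
      linarith) (v := X l 0 - w0) (v' := X l 0 - w0 + h l * y) n1.1.le n1.2.le n2.1.le n2.2.le
    (by ring)
    (by simp only [Pi.add_apply, Pi.smul_apply, smul_eq_mul, hs0]; ring)
    (fun k => by
      by_cases hk : k = 0
      · rw [hk]
        refine le_of_eq ?_
        have : oL (θ 0) (θ 1) w0 sa sb R (VisT B I fl sc) (X l 0 - w0) 0 = w0 + (X l 0 - w0) :=
          oz _ _
        rw [this]; ring
      · exact (m1.2 k).trans (H.noVis hinv _ k hk).ge)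
  rw [le_div_iff₀ hl]
  nlinarith

variable {lam0 : ℝ} {z : ℝ × ℝ} {u k : ℕ → ℝ} {q0 q1 δ' : ℝ} {J : Type*}
    {ff : J → (Fin 12 → ℝ) → ℝ} {j0 : J}
    {lam : J → (Fin 12 → ℝ) → ℝ} {A' : ℝ × ℝ} {φ : ℕ → (Fin 12 → ℝ) → ℝ} {rr : ℕ → ℝ}

/-- **`Bs0` ⊢ 330's `BsF`** -/
theorem bsF_sig
    (H : CtxT G L r c s θ q Rg B I lev A f b vm w fr fl sc w0 sa sb δ R I0 I' ν own c₀)
    (hinv : ∀ k : Fin 12, k = 1 ∨ k = 2 ∨ k = 7 ∨ k = 8 → InvT PL B I k fl (sc k))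
    (S : SigP R w0 sa sb (θ 0) (θ 1) s c q0 q1 δ' ff j0 v0 lam0 z u k lam A' φ rr)
    (hth : ∀ (X : ℕ → Fin 12 → ℝ) (h : ℕ → ℝ),
      Tendsto X atTop (𝓝 (rL (θ 0) (θ 1) w0 sa sb v0)) →
      (∀ l, X l 4 = X l 3) → (∀ l, X l 6 = X l 5) → (∀ l, X l 8 = X l 7) →
      ThinB B I0 I' (PL504.coN B lev w w0 sa sb fl) 2 ν X h)
    (hB : Bs0 (θ 0) (θ 1) w0 sa sb v0 lam0 z u k X h) :
    BsF B I0 I' (PL504.coN B lev w w0 sa sb fl) 2 R ν s X h where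
  e4 := Eventually.of_forall fun l => (Bs0_pairs hB l).1
  e6 := Eventually.of_forall fun l => (Bs0_pairs hB l).2.1
  e8 := Eventually.of_forall fun l => (Bs0_pairs hB l).2.2
  own := fun D g hD ht y hy => own_bs H hinv S.v00 S.v01 (Bs0_lim S.u0 S.k0 hB)
    (Bs0_pos S.upos S.kpos hB) (Bs0_h0 S.u0 S.k0 hB) hD ht hy
  thin := hth X h (Bs0_lim S.u0 S.k0 hB) (fun l => (Bs0_pairs hB l).1)
    (fun l => (Bs0_pairs hB l).2.1) (fun l => (Bs0_pairs hB l).2.2)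

/-- **`Bs0` ⊢ `BsC`** -/
theorem bsC_sig
    (H : CtxT G L r c s θ q Rg B I lev A f b vm w fr fl sc w0 sa sb δ R I0 I' ν own c₀)
    (hinv : ∀ k : Fin 12, k = 1 ∨ k = 2 ∨ k = 7 ∨ k = 8 → InvT PL B I k fl (sc k))
    (S : SigP R w0 sa sb (θ 0) (θ 1) s c q0 q1 δ' ff j0 v0 lam0 z u k lam A' φ rr)
    (hth : ∀ (X : ℕ → Fin 12 → ℝ) (h : ℕ → ℝ),
      Tendsto X atTop (𝓝 (rL (θ 0) (θ 1) w0 sa sb v0)) →
      (∀ l, X l 4 = X l 3) → (∀ l, X l 6 = X l 5) → (∀ l, X l 8 = X l 7) →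
      ThinBC B I0 I' (PL504.coN B lev w w0 sa sb fl) 2 ν X h)
    (hB : Bs0 (θ 0) (θ 1) w0 sa sb v0 lam0 z u k X h) :
    BsC B I0 I' (PL504.coN B lev w w0 sa sb fl) 2 R ν s X h where
  e4 := Eventually.of_forall fun l => (Bs0_pairs hB l).1
  e6 := Eventually.of_forall fun l => (Bs0_pairs hB l).2.1
  e8 := Eventually.of_forall fun l => (Bs0_pairs hB l).2.2
  own := fun D g hD ht y hy => own_bs H hinv S.v00 S.v01 (Bs0_lim S.u0 S.k0 hB)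
    (Bs0_pos S.upos S.kpos hB) (Bs0_h0 S.u0 S.k0 hB) hD ht hy
  thin := hth X h (Bs0_lim S.u0 S.k0 hB) (fun l => (Bs0_pairs hB l).1)
    (fun l => (Bs0_pairs hB l).2.1) (fun l => (Bs0_pairs hB l).2.2)

/-- the profile of the context -/
theorem nprof_T
    (H : CtxT G L r c s θ q Rg B I lev A f b vm w fr fl sc w0 sa sb δ R I0 I' ν own c₀)
    : NProf B I0 I' (PL504.coN B lev w w0 sa sb fl) monL 2 R ν := by
  have h1 := H.sh
  exact WinU954.nprof_of_ext (by linarith [h1.d0, h1.z, h1.c1, h1.D1, h1.R1]) H.ext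

/-- **the facts of LEMMA SIG over the context**, `θb ≠ θa` (dead direction = binder `hth`) -/
theorem linFacts_sig'
    (H : CtxT G L r c s θ q Rg B I lev A f b vm w fr fl sc w0 sa sb δ R I0 I' ν own c₀)
    (hinv : ∀ k : Fin 12, k = 1 ∨ k = 2 ∨ k = 7 ∨ k = 8 → InvT PL B I k fl (sc k))
    (hs0 : 0 ≤ s) (hs1 : s ≤ 1)
    (S : SigP R w0 sa sb (θ 0) (θ 1) s c q0 q1 δ' ff j0 v0 lam0 z u k lam A' φ rr)
    (hf : ff j0 = ν)
    (hth : ∀ (X : ℕ → Fin 12 → ℝ) (h : ℕ → ℝ),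
      Tendsto X atTop (𝓝 (rL (θ 0) (θ 1) w0 sa sb v0)) →
      (∀ l, X l 4 = X l 3) → (∀ l, X l 6 = X l 5) → (∀ l, X l 8 = X l 7) →
      ThinB B I0 I' (PL504.coN B lev w w0 sa sb fl) 2 ν X h) :
    LinFacts (Leg monL R) ff j0 (Bs0 (θ 0) (θ 1) w0 sa sb v0 lam0 z u k) s :=
  linFacts (nprof_T H) (fun n => Sd369.coc_N B lev w w0 sa sb fl n) hs0 hs1 hf
    (fun X h hB => bsF_sig H hinv S hth hB)

/-- **the four facts of LEMMA SIG over the context**, every `θ` -/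
theorem linFacts4_sig'
    (H : CtxT G L r c s θ q Rg B I lev A f b vm w fr fl sc w0 sa sb δ R I0 I' ν own c₀)
    (hinv : ∀ k : Fin 12, k = 1 ∨ k = 2 ∨ k = 7 ∨ k = 8 → InvT PL B I k fl (sc k))
    (hs0 : 0 ≤ s) (hs1 : s ≤ 1)
    (S : SigP R w0 sa sb (θ 0) (θ 1) s c q0 q1 δ' ff j0 v0 lam0 z u k lam A' φ rr)
    (hf : ff j0 = ν)
    (hth : ∀ (X : ℕ → Fin 12 → ℝ) (h : ℕ → ℝ),
      Tendsto X atTop (𝓝 (rL (θ 0) (θ 1) w0 sa sb v0)) →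
      (∀ l, X l 4 = X l 3) → (∀ l, X l 6 = X l 5) → (∀ l, X l 8 = X l 7) →
      ThinBC B I0 I' (PL504.coN B lev w w0 sa sb fl) 2 ν X h) :
    LinFacts4 (Leg monL R) ff j0 (Bs0 (θ 0) (θ 1) w0 sa sb v0 lam0 z u k) s :=
  linFacts4 (nprof_T H) (fun n => Sd369.coc_N B lev w w0 sa sb fl n) hs0 hs1 hf
    (fun X h hB => bsC_sig H hinv S hth hB)

end ctx

end Crest.Agent.R116.RowU388
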