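import Crest.Agent.R136.CD3_366

/-!
# R116, K-TEXT II-c, SIG2 (`σ = 2`, helper905), Sc4: curved strips over relative models (helper708)

* `NoStrC` : no heavy CURVED strips `b0 cA + b1 (cB + g cA²)`, `|g| ≤ ρ^(-ε)`, in the boxes `p0`.
* `noStrC_fan` : from the class to the fans (366 / 795).
* `strips_glob` : with global coordinates of the lines: the strips of
  `V l = P l + e C l² / 2 + b C l` around any centre.
-/

set_option autoImplicit false
set_option linter.unusedVariables false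
set_option linter.unusedSectionVars false

open Filter Topology Finset

namespace Crest.Agent.R116.Sc708

open Crest.Agent.R138.Ex926 (Base U)
open Crest.Agent.R136.Gf356
open Crest.Agent.R136.CD366

variable {κ : Type} {B : Base} {G : ℕ → RCfg κ} {Leg : Set (κ → ℝ)} {ν : (κ → ℝ) → ℝ}
  {σ R D : ℝ}

/-- additivity of the two slots up to `ρ^t`, first pair in `p0`, second pair in `pC` (= 795's
`C3a795.AddT`, definitionally) -/
def AddT (B : Base) (G : ℕ → RCfg κ) (p0 pC : κ → ℝ) (cA cB : κ) (Ca t : ℝ) : Prop :=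
  ∀ ε : ℝ, 0 < ε → ∀ᶠ n in (U : Filter ℕ), ∀ k i l m, (i, k) ∈ (G n).I → (l, k) ∈ (G n).I →
    (m, k) ∈ (G n).I → (G n).loose p0 ε k i l → (G n).loose pC ε k l m →
    |(G n).rel k i m cA - ((G n).rel k i l cA + (G n).rel k l m cA)| ≤ B.d n ^ (t - Ca * ε) ∧
    |(G n).rel k i m cB - ((G n).rel k i l cB + (G n).rel k l m cB)| ≤ B.d n ^ (t - Ca * ε)

theorem unit_le {b : Fin 2 → ℝ} (h : b 0 ^ 2 + b 1 ^ 2 = 1) : |b 0| ≤ 1 ∧ |b 1| ≤ 1 := by
  constructor
  · rw [← sq_le_one_iff_abs_le_one]; nlinarith [sq_nonneg (b 1)]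
  · rw [← sq_le_one_iff_abs_le_one]; nlinarith [sq_nonneg (b 0)]

open Classical in
/-- **no heavy curved strips** of the pair of slots `(cA, cB)` in the boxes `p0`, rate `q` -/
def NoStrC (B : Base) (G : ℕ → RCfg κ) (p0 : κ → ℝ) (cA cB : κ) (ν : (κ → ℝ) → ℝ) (q R0 : ℝ) :
    Prop :=
  ∃ K : ℝ, 0 ≤ K ∧ ∀ t : ℝ, 0 < t → t ≤ R0 → ∀ ε : ℝ, 0 < ε → ∀ᶠ n in (U : Filter ℕ),
    ∀ i k, (i, k) ∈ (G n).I → ∀ (b : Fin 2 → ℝ) (g : ℝ), b 0 ^ 2 + b 1 ^ 2 = 1 →
    |g| ≤ B.d n ^ (-ε) →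
    ((((G n).box p0 ε i k).filter fun l =>
      |b 0 * (G n).rel k i l cA + b 1 * ((G n).rel k i l cB + g * (G n).rel k i l cA ^ 2)| ≤
        B.d n ^ (t - ε)).card : ℝ) ≤
      B.d n ^ (-(ν p0) + q * t - K * ε)

/-- perturbation of the curved functional -/
theorem curv_err {b0 b1 g a a' c c' e M : ℝ} (h0 : |b0| ≤ 1) (h1 : |b1| ≤ 1) (hM : 1 ≤ M)
    (hg : |g| ≤ M) (ha : |a| ≤ M) (hda : |a' - a| ≤ e) (hdc : |c' - c| ≤ e) (he : e ≤ M) :
    |(b0 * a' + b1 * (c' + g * a' ^ 2)) - (b0 * a + b1 * (c + g * a ^ 2))| ≤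
      (2 + 3 * M ^ 2) * e := by
  have he0 : 0 ≤ e := (abs_nonneg _).trans hda
  have e1 : (b0 * a' + b1 * (c' + g * a' ^ 2)) - (b0 * a + b1 * (c + g * a ^ 2)) =
      b0 * (a' - a) + b1 * ((c' - c) + g * ((a' - a) * (a' - a) + 2 * a * (a' - a))) := by ring
  rw [e1]
  have f1 : |b0 * (a' - a)| ≤ e := by
    rw [abs_mul]
    calc |b0| * |a' - a| ≤ 1 * e := mul_le_mul h0 hda (abs_nonneg _) zero_le_one
      _ = e := one_mul _
  have f2 : |(a' - a) * (a' - a) + 2 * a * (a' - a)| ≤ 3 * M * e := by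
    have g1 : |(a' - a) * (a' - a)| ≤ M * e := by
      rw [abs_mul]; exact mul_le_mul (hda.trans he) hda (abs_nonneg _) (by linarith)
    have g2 : |2 * a * (a' - a)| ≤ 2 * M * e := by
      rw [abs_mul, abs_mul, abs_two]
      exact mul_le_mul (mul_le_mul_of_nonneg_left ha zero_le_two) hda (abs_nonneg _)
        (by linarith)
    calc _ ≤ |(a' - a) * (a' - a)| + |2 * a * (a' - a)| := abs_add_le _ _
      _ ≤ M * e + 2 * M * e := add_le_add g1 g2
      _ = _ := by ring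
  have f3 : |g * ((a' - a) * (a' - a) + 2 * a * (a' - a))| ≤ M * (3 * M * e) := by
    rw [abs_mul]; exact mul_le_mul hg f2 (abs_nonneg _) (by linarith)
  have f4 : |b1 * ((c' - c) + g * ((a' - a) * (a' - a) + 2 * a * (a' - a)))| ≤
      e + M * (3 * M * e) := by
    rw [abs_mul]
    calc |b1| * _ ≤ 1 * (e + M * (3 * M * e)) :=
          mul_le_mul h1 ((abs_add_le _ _).trans (add_le_add hdc f3)) (abs_nonneg _) zero_le_one
      _ = _ := one_mul _
  calc _ ≤ |b0 * (a' - a)| + |b1 * ((c' - c) + g * ((a' - a) * (a' - a) + 2 * a * (a' - a)))| :=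
        abs_add_le _ _
    _ ≤ e + (e + M * (3 * M * e)) := add_le_add f1 f4
    _ = _ := by ring

open Classical in
set_option maxHeartbeats 1600000 in
/-- **class strips ⊢ fan strips**, curved -/
theorem noStrC_fan (H : RUnif B G Leg ν D) {p0 pF : κ → ℝ} {pC pFC : ℝ → κ → ℝ} {cA cB : κ}
    {q R0 R1 Ca : ℝ}
    (h0 : p0 ∈ Leg) (hF : pF ∈ Leg) (hC : ∀ t, 0 < t → t ≤ R1 → pC t ∈ Leg)
    (hFC : ∀ t, 0 < t → t ≤ R1 → pFC t ∈ Leg)
    (h0C : ∀ t, 0 < t → t ≤ R1 → ∀ s, p0 s ≤ pC t s) (h0F : ∀ s, p0 s ≤ pF s)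
    (hcA : ∀ t, 0 < t → t ≤ R1 → t ≤ pC t cA) (hcB : ∀ t, 0 < t → t ≤ R1 → t ≤ pC t cB)
    (hFA : 0 ≤ pF cA)
    (hmax : ∀ t, 0 < t → t ≤ R1 → ∀ s, pFC t s ≤ max (pC t s) (pF s)) (hCa : 0 < Ca)
    (hN : NoStrC B G p0 cA cB ν q R0) (hRR : R1 ≤ R0)
    (hadd : ∀ t, 0 < t → t ≤ R1 → AddT B G p0 (pC t) cA cB Ca t)
    (hprod : ∀ t, 0 < t → t ≤ R1 → ν p0 - ν (pC t) ≤ ν pF - ν (pFC t)) :
    NoStrC B G pF cA cB ν q R1 := by
  have hD := H.D1
  have hD0 : 0 < D := by linarith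
  obtain ⟨K, hK, hN⟩ := hN
  set C : ℝ := D ^ 2 + 3 * Ca * D + Ca + 12 with hCdef
  have hC0 : 0 < C := by positivity
  refine ⟨K * C + D * (D ^ 5 + D ^ 2) + 1, by positivity, fun t ht0 htR ε hε => ?_⟩
  have hCε : 0 < C * ε := by positivity
  have hDε : 0 < D * ε := by positivity
  filter_upwards [hN t ht0 (htR.trans hRR) (C * ε) hCε, H.exists_lab (pC t) (hC t ht0 htR) hε,
    hadd t ht0 htR (D * ε) hDε, H.tri p0 h0 (D * ε) hDε, box_pair H pF hF hε,
    H.up (pFC t) (hFC t ht0 htR) ((D ^ 5 + D ^ 2) * ε) (by positivity),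
    ev_const_le B hε 11, ev_const_le B hε 2] with n hNn hlab haddn htri hpair hup h5 h2 i k hik b g hb hg
  have hpow : ∀ t : ℝ, 0 < B.d n ^ t := fun t => rpos B n t
  have hpow1 : ∀ t : ℝ, t ≤ 0 → 1 ≤ B.d n ^ t := fun t ht =>
    Real.one_le_rpow_of_pos_of_le_one_of_nonpos (B.pos n) (B.lt n).le ht
  set S := ((G n).box pF ε i k).filter fun l =>
    |b 0 * (G n).rel k i l cA + b 1 * ((G n).rel k i l cB + g * (G n).rel k i l cA ^ 2)| ≤
      B.d n ^ (t - ε) with hS
  set P := ((G n).box p0 (C * ε) i k).filter fun l =>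
    |b 0 * (G n).rel k i l cA + b 1 * ((G n).rel k i l cB + g * (G n).rel k i l cA ^ 2)| ≤
      B.d n ^ (t - C * ε) with hP
  have hSI : ∀ l ∈ S, (l, k) ∈ (G n).I ∧ (G n).loose pF ε k i l ∧
      |b 0 * (G n).rel k i l cA + b 1 * ((G n).rel k i l cB + g * (G n).rel k i l cA ^ 2)| ≤
        B.d n ^ (t - ε) := by
    intro l hl
    rw [hS, mem_filter, RCfg.mem_box] at hl
    exact ⟨H.memSlice.1 hl.1.1, hl.1.2, hl.2⟩
  obtain ⟨hb0, hb1⟩ := unit_le hb
  have hεD : ε ≤ D * ε := by nlinarith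
  have hCaD : 0 ≤ Ca * D * ε := by positivity
  set E : ℝ := t - (Ca * D + 1) * ε with hE
  set M : ℝ := B.d n ^ (-((Ca * D + 2) * ε)) with hM
  have hM1 : 1 ≤ M := hpow1 _ (by nlinarith)
  have hMε : B.d n ^ (-ε) ≤ M := rpow_anti B n (by nlinarith)
  -- the target exponent
  have hWP : ∀ l ∈ S, (G n).box (pC t) ε l k ⊆ P := by
    intro l hl m hm
    obtain ⟨hlI, hl1, hl2⟩ := hSI l hl
    obtain ⟨hm1, hm2⟩ := RCfg.mem_box.1 hm
    have hmI := H.memSlice.1 hm1
    have a1 : (G n).loose p0 (D * ε) k i l := H.loose_mono h0F hεD hl1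
    have a2 : (G n).loose p0 (D * ε) k l m := H.loose_mono (h0C t ht0 htR) hεD hm2
    have a2' : (G n).loose (pC t) (D * ε) k l m := H.loose_mono (fun _ => le_rfl) hεD hm2
    have a3 := htri k i l m hik hlI hmI a1 a2
    obtain ⟨a4, a5⟩ := haddn k i l m hik hlI hmI a1 a2'
    rw [hP, mem_filter, RCfg.mem_box]
    refine ⟨⟨hm1, H.loose_mono (fun _ => le_rfl) ?_ a3⟩, ?_⟩
    · have e1 : D * (D * ε) = D ^ 2 * ε := by ring
      rw [e1, hCdef]
      have : 0 ≤ (3 * Ca * D + Ca + 12) * ε := by positivity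
      nlinarith
    · have cA' := hm2 cA
      have cB' := hm2 cB
      rw [H.base n] at cA' cB'
      set e := B.d n ^ E with he
      have he0 : 0 < e := hpow _
      have k1 : B.d n ^ (pC t cA - ε) ≤ e := rpow_anti B n (by
        have := hcA t ht0 htR
        rw [hE]; nlinarith)
      have k2 : B.d n ^ (pC t cB - ε) ≤ e := rpow_anti B n (by
        have := hcB t ht0 htR
        rw [hE]; nlinarith)
      have k3 : B.d n ^ (t - Ca * (D * ε)) ≤ e := rpow_anti B n (by rw [hE]; nlinarith)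
      have k4 : B.d n ^ (t - ε) ≤ e := rpow_anti B n (by rw [hE]; nlinarith)
      have hle : 2 * e ≤ M := by
        have g1 : e ≤ B.d n ^ (-((Ca * D + 1) * ε)) := rpow_anti B n (by rw [hE]; linarith)
        have g2 : M = B.d n ^ (-ε) * B.d n ^ (-((Ca * D + 1) * ε)) := by
          rw [hM, ← rpow_add']; congr 1; ring
        rw [g2]
        exact mul_le_mul h2 g1 he0.le (hpow _).le
      have hal : |(G n).rel k i l cA| ≤ M := by
        have := hl1 cA
        rw [H.base n] at this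
        exact this.trans ((rpow_anti B n (by linarith)).trans hMε)
      have hda : |(G n).rel k i m cA - (G n).rel k i l cA| ≤ 2 * e := by
        have e1 : (G n).rel k i m cA - (G n).rel k i l cA =
            ((G n).rel k i m cA - ((G n).rel k i l cA + (G n).rel k l m cA)) +
            (G n).rel k l m cA := by ring
        rw [e1]
        refine (abs_add_le _ _).trans ?_
        linarith [a4.trans k3, cA'.trans k1]
      have hdc : |(G n).rel k i m cB - (G n).rel k i l cB| ≤ 2 * e := by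
        have e1 : (G n).rel k i m cB - (G n).rel k i l cB =
            ((G n).rel k i m cB - ((G n).rel k i l cB + (G n).rel k l m cB)) +
            (G n).rel k l m cB := by ring
        rw [e1]
        refine (abs_add_le _ _).trans ?_
        linarith [a5.trans k3, cB'.trans k2]
      have hcv := curv_err (b0 := b 0) (b1 := b 1) (g := g) hb0 hb1 hM1 (hg.trans hMε) hal hda
        hdc hle
      have m1 : |b 0 * (G n).rel k i m cA + b 1 * ((G n).rel k i m cB +
          g * (G n).rel k i m cA ^ 2)| ≤ 11 * (M ^ 2 * e) := by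
        have hMM : 1 ≤ M ^ 2 := one_le_pow₀ hM1
        have e2 := abs_add_le ((b 0 * (G n).rel k i m cA + b 1 * ((G n).rel k i m cB +
          g * (G n).rel k i m cA ^ 2)) - (b 0 * (G n).rel k i l cA + b 1 * ((G n).rel k i l cB +
          g * (G n).rel k i l cA ^ 2))) (b 0 * (G n).rel k i l cA + b 1 * ((G n).rel k i l cB +
          g * (G n).rel k i l cA ^ 2))
        rw [sub_add_cancel] at e2
        have e3 : e ≤ M ^ 2 * e := le_mul_of_one_le_left he0.le hMM
        nlinarith [hl2.trans k4]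
      have hMe : M ^ 2 * e = B.d n ^ (E - 2 * ((Ca * D + 2) * ε)) := by
        rw [hM, he, ← Real.rpow_natCast, ← Real.rpow_mul (B.pos n).le, ← rpow_add']
        congr 1; push_cast; ring
      rw [hMe] at m1
      refine m1.trans (absorb B ?_)
      refine h5.trans (rpow_anti B n ?_)
      rw [hCdef, hE]
      have : 0 ≤ (D ^ 2 + Ca + 2) * ε := by positivity
      nlinarith
  have hSsl : S ⊆ (G n).slice k := fun l hl => H.memSlice.2 (hSI l hl).1
  obtain ⟨lab, hlab1, hlab2⟩ := hlab k S hSsl P hWP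
  have hPc := hNn i k hik b g hb (hg.trans (rpow_anti B n (by
    have : ε ≤ C * ε := by
      rw [hCdef]
      have : 0 ≤ (D ^ 2 + 3 * Ca * D + Ca + 11) * ε := by positivity
      nlinarith
    linarith)))
  -- fibres of the labels
  have hfib : ∀ c ∈ S.image lab, ((S.filter fun l => lab l = c).card : ℝ) ≤
      B.d n ^ (-ν (pFC t) - D * ((D ^ 5 + D ^ 2) * ε)) := by
    intro c hc
    obtain ⟨l0, hl0, rfl⟩ := mem_image.1 hc
    refine le_trans ?_ (hup l0 k (hSI l0 hl0).1)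
    refine mod_cast card_le_card ?_
    intro l hl
    rw [mem_filter] at hl
    obtain ⟨hlS, hll⟩ := hl
    refine RCfg.mem_box.2 ⟨hSsl hlS, ?_⟩
    have a1 := hlab1 l0 hl0 l hlS hll.symm
    have a2 : (G n).loose pF (D ^ 2 * ε) k l0 l := hpair k i l0 l hik
      (RCfg.mem_box.2 ⟨hSsl hl0, (hSI l0 hl0).2.1⟩) (RCfg.mem_box.2 ⟨hSsl hlS, (hSI l hlS).2.1⟩)
    intro s
    have hms := hmax t ht0 htR s
    have hp5 : 0 ≤ D ^ 5 * ε := by positivity
    have hp2 : 0 ≤ D ^ 2 * ε := by positivity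
    have hsum : (D ^ 5 + D ^ 2) * ε = D ^ 5 * ε + D ^ 2 * ε := by ring
    have b2 := a2 s
    have b1 := a1 s
    rw [H.base n] at b1 b2 ⊢
    rcases le_total (pC t s) (pF s) with h | h
    · rw [max_eq_right h] at hms
      exact b2.trans (rpow_anti B n (by linarith))
    · rw [max_eq_left h] at hms
      exact b1.trans (rpow_anti B n (by linarith))
  have hcount : (S.card : ℝ) ≤ ((S.image lab).card : ℝ) *
      B.d n ^ (-ν (pFC t) - D * ((D ^ 5 + D ^ 2) * ε)) := by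
    have e1 : (S.card : ℝ) = ∑ c ∈ S.image lab, ((S.filter fun l => lab l = c).card : ℝ) := by
      have := card_eq_sum_card_image lab S
      exact_mod_cast this
    rw [e1, ← nsmul_eq_mul, ← sum_const]
    exact sum_le_sum hfib
  have hpr := hprod t ht0 htR
  calc (S.card : ℝ) ≤ ((S.image lab).card : ℝ) *
        B.d n ^ (-ν (pFC t) - D * ((D ^ 5 + D ^ 2) * ε)) := hcount
    _ ≤ ((P.card : ℝ) * B.d n ^ (ν (pC t) - ε)) *
          B.d n ^ (-ν (pFC t) - D * ((D ^ 5 + D ^ 2) * ε)) :=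
        mul_le_mul_of_nonneg_right hlab2 (hpow _).le
    _ ≤ (B.d n ^ (-(ν p0) + q * t - K * (C * ε)) * B.d n ^ (ν (pC t) - ε)) *
          B.d n ^ (-ν (pFC t) - D * ((D ^ 5 + D ^ 2) * ε)) := by
        refine mul_le_mul_of_nonneg_right ?_ (hpow _).le
        exact mul_le_mul_of_nonneg_right hPc (hpow _).le
    _ = B.d n ^ (-(ν p0) + ν (pC t) - ν (pFC t) + q * t -
          (K * C + D * (D ^ 5 + D ^ 2) + 1) * ε) := by
        rw [← rpow_add', ← rpow_add']; congr 1; ring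
    _ ≤ _ := rpow_anti B n (by linarith)

open Classical in
set_option maxHeartbeats 1600000 in
/-- **curved strips in global coordinates**: `C`, `P` of the lines, flags `Bf`, `Ef` of the frames;
any curvature `e`, tilt `b` of size `≤ ρ^(-ε)`, any centre `u`. -/
theorem strips_glob (H : RUnif B G Leg ν D) {pA : κ → ℝ} {cA cB : κ} {q R1 x Cl : ℝ}
    (hA : pA ∈ Leg) (hA0 : 0 ≤ pA cA) (hx : R1 ≤ x) (hCl : 0 ≤ Cl)
    (hN : NoStrC B G pA cA cB ν q R1)
    (Cg Pg Bf Ef : ℕ → ℕ → ℝ)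
    (hbd : ∀ ε : ℝ, 0 < ε → ∀ᶠ n in (U : Filter ℕ), ∀ i k, (i, k) ∈ (G n).I →
      |Cg n i| ≤ B.d n ^ (-ε) ∧ |Bf n i| ≤ B.d n ^ (-ε) ∧ |Ef n i| ≤ B.d n ^ (-ε))
    (hlaw : ∀ ε : ℝ, 0 < ε → ∀ᶠ n in (U : Filter ℕ), ∀ i k l, (i, k) ∈ (G n).I →
      (l, k) ∈ (G n).I →
      |(G n).rel k i l cA - (Cg n l - Cg n i)| ≤ B.d n ^ (x - Cl * ε) ∧
      |(G n).rel k i l cB - ((Pg n l - Pg n i) + Bf n i * (Cg n l - Cg n i) +
        Ef n i * (Cg n l - Cg n i) ^ 2)| ≤ B.d n ^ (x - Cl * ε)) :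
    ∃ K : ℝ, 0 ≤ K ∧ ∀ r : ℝ, 0 < r → r ≤ R1 → ∀ ε : ℝ, 0 < ε → ∀ᶠ n in (U : Filter ℕ),
      ∀ i k, (i, k) ∈ (G n).I → ∀ e b u : ℝ, |e| ≤ B.d n ^ (-ε) → |b| ≤ B.d n ^ (-ε) →
      ((((G n).box pA ε i k).filter fun l =>
        |Pg n l + e * Cg n l ^ 2 / 2 + b * Cg n l - u| ≤ B.d n ^ r).card : ℝ) ≤
        B.d n ^ (-(ν pA) + q * r - K * ε) := by
  have hD := H.D1
  have hD0 : 0 < D := by linarith
  obtain ⟨K, hK, hN⟩ := hN
  set C : ℝ := D ^ 2 + 2 * Cl + 20 with hCdef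
  have hC0 : 0 < C := by positivity
  refine ⟨K * C, by positivity, fun r hr0 hrR ε hε => ?_⟩
  have hCε : 0 < C * ε := by positivity
  filter_upwards [hN r hr0 hrR (C * ε) hCε, hbd ε hε, hlaw ε hε, box_pair H pA hA hε,
    ev_const_le B hε 2, ev_const_le B hε 16] with n hNn hbdn hlawn hpair h4 h30 i k hik e b u he hb
  have hpow : ∀ t : ℝ, 0 < B.d n ^ t := fun t => rpos B n t
  have hpow1 : ∀ t : ℝ, t ≤ 0 → 1 ≤ B.d n ^ t := fun t ht =>
    Real.one_le_rpow_of_pos_of_le_one_of_nonpos (B.pos n) (B.lt n).le ht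
  set S := ((G n).box pA ε i k).filter fun l =>
    |Pg n l + e * Cg n l ^ 2 / 2 + b * Cg n l - u| ≤ B.d n ^ r with hS
  rcases S.eq_empty_or_nonempty with hSe | ⟨j, hj⟩
  · rw [hSe]; simpa using (hpow _).le
  have hSm : ∀ l ∈ S, (l, k) ∈ (G n).I ∧ l ∈ (G n).box pA ε i k ∧
      |Pg n l + e * Cg n l ^ 2 / 2 + b * Cg n l - u| ≤ B.d n ^ r := by
    intro l hl
    rw [hS, mem_filter] at hl
    exact ⟨H.memSlice.1 (RCfg.mem_box.1 hl.1).1, hl.1, hl.2⟩
  obtain ⟨hjI, hjb, hju⟩ := hSm j hj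
  obtain ⟨hCj, hBj, hEj⟩ := hbdn j k hjI
  set M : ℝ := B.d n ^ (-ε) with hM
  have hM1 : 1 ≤ M := hpow1 _ (by linarith)
  set β : ℝ := e * Cg n j + b - Bf n j with hβ
  set γ : ℝ := e / 2 - Ef n j with hγ
  set N : ℝ := √(1 + β ^ 2) with hNdef
  have hN1 : 1 ≤ N := by
    rw [hNdef, Real.one_le_sqrt]
    nlinarith [sq_nonneg β]
  have hN0 : 0 < N := by linarith
  have hNN : N ^ 2 = 1 + β ^ 2 := Real.sq_sqrt (by positivity)
  have hMM : M ≤ M ^ 2 := by nlinarith
  have hM2 : 0 ≤ M ^ 2 := sq_nonneg M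
  have hβM : |β| ≤ 3 * M ^ 2 := by
    have g1 : |e * Cg n j| ≤ M * M := by
      rw [abs_mul]; exact mul_le_mul he hCj (abs_nonneg _) (by linarith)
    have g2 := abs_sub (e * Cg n j + b) (Bf n j)
    have g3 := abs_add_le (e * Cg n j) b
    nlinarith
  have hγM : |γ| ≤ 2 * M := by
    have g2 := abs_sub (e / 2) (Ef n j)
    have g3 : |e / 2| ≤ M := by
      rw [abs_div, abs_two]
      have : |e| / 2 ≤ |e| := by linarith [abs_nonneg e]
      linarith
    linarith
  have hMp : ∀ m : ℕ, M ^ m = B.d n ^ (-(m * ε)) := by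
    intro m
    rw [hM, ← Real.rpow_natCast, ← Real.rpow_mul (B.pos n).le]
    congr 1; ring
  -- the target
  have key : S ⊆ ((G n).box pA (C * ε) j k).filter fun l =>
      |(![β / N, 1 / N] : Fin 2 → ℝ) 0 * (G n).rel k j l cA +
        (![β / N, 1 / N] : Fin 2 → ℝ) 1 * ((G n).rel k j l cB + γ * (G n).rel k j l cA ^ 2)| ≤
        B.d n ^ (r - C * ε) := by
    intro l hl
    obtain ⟨hlI, hlb, hlu⟩ := hSm l hl
    obtain ⟨w1, w2⟩ := hlawn j k l hjI hlI
    obtain ⟨hCl', -, -⟩ := hbdn l k hlI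
    have a2 : (G n).loose pA (D ^ 2 * ε) k j l := hpair k i j l hik hjb hlb
    rw [mem_filter, RCfg.mem_box]
    refine ⟨⟨H.memSlice.2 hlI, H.loose_mono (fun _ => le_rfl) ?_ a2⟩, ?_⟩
    · rw [hCdef]
      have : 0 ≤ (2 * Cl + 20) * ε := by positivity
      nlinarith
    · set a := (G n).rel k j l cA with ha
      set c := (G n).rel k j l cB with hc
      set dC := Cg n l - Cg n j with hdC
      set dP := Pg n l - Pg n j with hdP
      set e1 := B.d n ^ (x - Cl * ε) with he1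
      set E1 := B.d n ^ (r - Cl * ε) with hE1
      have he1' : e1 ≤ E1 := rpow_anti B n (by linarith)
      have hr1 : B.d n ^ r ≤ E1 := rpow_anti B n (by
        have : 0 ≤ Cl * ε := by positivity
        linarith)
      have hE10 : 0 < E1 := hpow _
      have hdCM : |dC| ≤ 2 * M := (abs_sub _ _).trans (by linarith)
      have hsum : β * dC + γ * dC ^ 2 + dP + Bf n j * dC + Ef n j * dC ^ 2 =
          (Pg n l + e * Cg n l ^ 2 / 2 + b * Cg n l - u) -
          (Pg n j + e * Cg n j ^ 2 / 2 + b * Cg n j - u) := by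
        rw [hβ, hγ, hdC, hdP]; ring
      have hlin : |β * dC + γ * dC ^ 2 + (dP + Bf n j * dC + Ef n j * dC ^ 2)| ≤ 2 * E1 := by
        have : β * dC + γ * dC ^ 2 + (dP + Bf n j * dC + Ef n j * dC ^ 2) =
          β * dC + γ * dC ^ 2 + dP + Bf n j * dC + Ef n j * dC ^ 2 := by ring
        rw [this, hsum]
        refine (abs_sub _ _).trans ?_
        linarith
      have w1' := w1.trans he1'
      have w2' := w2.trans he1'
      -- replace dC by a, the rest by c
      set T := B.d n ^ (-(Cl * ε)) with hT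
      have hT1 : 1 ≤ T := hpow1 _ (by
        have : 0 ≤ Cl * ε := by positivity
        linarith)
      have hET : E1 ≤ T := rpow_anti B n (by linarith)
      have hfin : |β * a + (c + γ * a ^ 2)| ≤ 16 * (M ^ 2 * (T * E1)) := by
        have q1 : |β * (a - dC)| ≤ 3 * M ^ 2 * E1 := by
          rw [abs_mul]; exact mul_le_mul hβM w1' (abs_nonneg _) (by positivity)
        have q2 : |γ * ((a - dC) * (a - dC + 2 * dC))| ≤ 2 * M * (E1 * (E1 + 4 * M)) := by
          rw [abs_mul, abs_mul]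
          refine mul_le_mul hγM (mul_le_mul w1' ?_ (abs_nonneg _) hE10.le) (by positivity)
            (by linarith)
          refine (abs_add_le _ _).trans ?_
          rw [abs_mul, abs_two]
          linarith
        have q3 : β * a + (c + γ * a ^ 2) =
            (β * dC + γ * dC ^ 2 + (dP + Bf n j * dC + Ef n j * dC ^ 2)) + β * (a - dC) +
            γ * ((a - dC) * (a - dC + 2 * dC)) +
            (c - (dP + Bf n j * dC + Ef n j * dC ^ 2)) := by ring
        have q4 : |β * a + (c + γ * a ^ 2)| ≤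
            2 * E1 + 3 * M ^ 2 * E1 + 2 * M * (E1 * (E1 + 4 * M)) + E1 := by
          rw [q3]
          refine (abs_add_le _ _).trans (add_le_add ((abs_add_le _ _).trans (add_le_add
            ((abs_add_le _ _).trans (add_le_add hlin q1)) q2)) w2')
        refine q4.trans ?_
        have s1 : 0 ≤ M ^ 2 * E1 := by positivity
        have s2 : M * (E1 * E1) ≤ M ^ 2 * (T * E1) := by
          have : E1 * E1 ≤ T * E1 := mul_le_mul_of_nonneg_right hET hE10.le
          exact mul_le_mul hMM this (by positivity) hM2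
        have s3 : M ^ 2 * E1 ≤ M ^ 2 * (T * E1) :=
          mul_le_mul_of_nonneg_left (le_mul_of_one_le_left hE10.le hT1) hM2
        have s4 : E1 ≤ M ^ 2 * E1 := le_mul_of_one_le_left hE10.le (by nlinarith)
        nlinarith
      have hgoal : |(![β / N, 1 / N] : Fin 2 → ℝ) 0 * a +
          (![β / N, 1 / N] : Fin 2 → ℝ) 1 * (c + γ * a ^ 2)| ≤ |β * a + (c + γ * a ^ 2)| := by
        have : (![β / N, 1 / N] : Fin 2 → ℝ) 0 * a +
          (![β / N, 1 / N] : Fin 2 → ℝ) 1 * (c + γ * a ^ 2) = (β * a + (c + γ * a ^ 2)) / N := by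
          simp; field_simp
        rw [this, abs_div, abs_of_pos hN0]
        exact div_le_self (abs_nonneg _) hN1
      refine hgoal.trans (hfin.trans ?_)
      have hpw : M ^ 2 * (T * E1) = B.d n ^ (r - (2 * Cl + 2) * ε) := by
        rw [hMp, hT, hE1, ← rpow_add', ← rpow_add']
        congr 1; push_cast; ring
      rw [hpw]
      refine absorb B (h30.trans (rpow_anti B n ?_))
      rw [hCdef]
      have : 0 ≤ (D ^ 2 + 17) * ε := by positivity
      nlinarith
  refine le_trans (Nat.cast_le.2 (card_le_card key)) ?_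
  refine (hNn j k hjI ![β / N, 1 / N] γ ?_ ?_).trans (le_of_eq ?_)
  · simp only [Matrix.cons_val_zero, Matrix.cons_val_one]
    rw [div_pow, div_pow, ← add_div, hNN]
    have : (1 + β ^ 2) ≠ 0 := by positivity
    field_simp
    ring
  · refine hγM.trans ?_
    have e2 : B.d n ^ (-ε) * M = B.d n ^ (-(2 * ε)) := by
      rw [hM, ← rpow_add']; congr 1; ring
    calc 2 * M ≤ B.d n ^ (-ε) * M := mul_le_mul_of_nonneg_right h4 (by linarith)
      _ = _ := e2
      _ ≤ _ := rpow_anti B n (by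
        rw [hCdef]
        have : 0 ≤ (D ^ 2 + 2 * Cl + 18) * ε := by positivity
        nlinarith)
  · congr 1; ring

end Crest.Agent.R116.Sc708
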