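import Crest.Agent.R116.Sc1_905
import Crest.Agent.R116.Sc4a_708

/-!
# R116, SIG2 (`σ = 2`, helper905), Sc2a: the class and cell counts of the finite core (helper858)

The hypotheses `H2`, `H3`, `H5`, `H6` of `Sc905.core` at the scale `w = ρ^(x - ε)`, from the counts
of a model (`RUnif` / `RModel`) and the dictionary `Dic` between boxes and global coordinates.
-/

set_option autoImplicit false
set_option linter.unusedVariables false
set_option linter.unusedSectionVars false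

open Filter Topology Finset

namespace Crest.Agent.R116.Sc858a

open Crest.Agent.R138.Ex926 (Base U)
open Crest.Agent.R136.Gf356
open Crest.Agent.R136.CD366
open Crest.Agent.R116.Sc905 (Dat cells_card floor_diff)
open Crest.Agent.R116.Sc708 (NoStrC)

variable {κ : Type} {B : Base} {G : ℕ → RCfg κ} {Leg : Set (κ → ℝ)} {ν : (κ → ℝ) → ℝ}
  {σ R D : ℝ}

/-- **dictionary**: boxes `pA` (positions) and `pC` (classes) against global coordinates -/
structure Dic (B : Base) (G : ℕ → RCfg κ) (Dt : ℕ → Dat) (pA pC : κ → ℝ) (x c : ℝ) : Prop where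
  c1 : 1 ≤ c
  a : ∀ ε : ℝ, 0 < ε → ∀ᶠ n in (U : Filter ℕ), ∀ k i l, (i, k) ∈ (G n).I → (l, k) ∈ (G n).I →
    (G n).loose pA ε k i l → (Dt n).near (B.d n ^ (x - c * ε)) k i l
  b : ∀ ε : ℝ, 0 < ε → ∀ᶠ n in (U : Filter ℕ), ∀ k i l, (i, k) ∈ (G n).I → (l, k) ∈ (G n).I →
    (Dt n).near (B.d n ^ (x - ε)) k i l → (G n).loose pA (c * ε) k i l
  a' : ∀ ε : ℝ, 0 < ε → ∀ᶠ n in (U : Filter ℕ), ∀ k i l, (i, k) ∈ (G n).I → (l, k) ∈ (G n).I →
    (G n).loose pC ε k i l → |(Dt n).C l - (Dt n).C i| ≤ B.d n ^ (x - c * ε) ∧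
      |(Dt n).Bf l - (Dt n).Bf i| ≤ B.d n ^ (x - c * ε)
  b' : ∀ ε : ℝ, 0 < ε → ∀ᶠ n in (U : Filter ℕ), ∀ k i l, (i, k) ∈ (G n).I → (l, k) ∈ (G n).I →
    |(Dt n).C l - (Dt n).C i| ≤ B.d n ^ (x - ε) → |(Dt n).Bf l - (Dt n).Bf i| ≤ B.d n ^ (x - ε) →
      (G n).loose pC (c * ε) k i l

/-! ### finite lemmas -/

/-- representatives of the classes -/
theorem exists_reps {γ : Type*} [DecidableEq γ] (F : Finset ℕ) (f : ℕ → γ) :
    ∃ S ⊆ F, (∀ t ∈ S, ∀ t' ∈ S, f t = f t' → t = t') ∧ S.card = (F.image f).card := by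
  classical
  have h : ∀ y ∈ F.image f, ∃ t ∈ F, f t = y := fun y hy => mem_image.1 hy
  choose! g hg1 hg2 using h
  refine ⟨(F.image f).image g, ?_, ?_, ?_⟩
  · intro t ht
    obtain ⟨y, hy, rfl⟩ := mem_image.1 ht
    exact hg1 y hy
  · intro t ht t' ht' he
    obtain ⟨y, hy, rfl⟩ := mem_image.1 ht
    obtain ⟨y', hy', rfl⟩ := mem_image.1 ht'
    rw [hg2 y hy, hg2 y' hy'] at he
    rw [he]
  · refine card_image_of_injOn ?_
    intro y hy y' hy' he
    have := congrArg f he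
    rwa [hg2 y (mem_coe.1 hy), hg2 y' (mem_coe.1 hy')] at this

/-- a set with small fibres has many values -/
theorem many_values {γ : Type*} [DecidableEq γ] (F : Finset ℕ) (f : ℕ → γ) {a : ℝ}
    (h : ∀ t ∈ F, ((F.filter fun t' => f t' = f t).card : ℝ) ≤ a) :
    (F.card : ℝ) ≤ ((F.image f).card : ℝ) * a := by
  have e1 : (F.card : ℝ) = ∑ y ∈ F.image f, ((F.filter fun t' => f t' = y).card : ℝ) := by
    exact_mod_cast card_eq_sum_card_image f F
  rw [e1, ← nsmul_eq_mul, ← sum_const]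
  refine sum_le_sum fun y hy => ?_
  obtain ⟨t, ht, rfl⟩ := mem_image.1 hy
  exact h t ht

theorem floor_near {w K y1 y2 : ℝ} (hw : 0 < w) (h : |y1 - y2| ≤ K * w) :
    |((⌊y1 / w⌋ : ℤ) : ℝ) - ((⌊y2 / w⌋ : ℤ) : ℝ)| ≤ K + 1 := by
  refine (floor_diff _ _).trans ?_
  rw [← sub_div, abs_div, abs_of_pos hw]
  have : |y1 - y2| / w ≤ K := by rw [div_le_iff₀ hw]; exact h
  linarith

theorem near_floor {w y1 y2 : ℝ} (hw : 0 < w) (h : ⌊y1 / w⌋ = ⌊y2 / w⌋) : |y1 - y2| ≤ w := by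
  have f1 := Int.floor_le (y1 / w)
  have f2 := Int.lt_floor_add_one (y1 / w)
  have f3 := Int.floor_le (y2 / w)
  have f4 := Int.lt_floor_add_one (y2 / w)
  rw [h] at f1 f2
  have g : |y1 / w - y2 / w| ≤ 1 := by rw [abs_le]; constructor <;> linarith
  rw [← sub_div, abs_div, abs_of_pos hw, div_le_iff₀ hw, one_mul] at g
  exact g

/-- number of classes of a close set -/
theorem cls_card (Dt : Dat) {w K : ℝ} (hw : 0 < w) (hK : 0 ≤ K) (F : Finset ℕ) (i : ℕ)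
    (h : ∀ l ∈ F, |Dt.C l - Dt.C i| ≤ K * w ∧ |Dt.Bf l - Dt.Bf i| ≤ K * w) :
    ((F.image (Dt.cc w)).card : ℝ) ≤ (2 * (K + 1) + 1) ^ 3 := by
  have hinj : Function.Injective (fun p : ℤ × ℤ => (p.1, p.2, (0 : ℤ))) := by
    intro p q hpq
    simp only [Prod.mk.injEq] at hpq
    exact Prod.ext hpq.1 hpq.2.1
  have e1 : (F.image (Dt.cc w)).card =
      ((F.image (Dt.cc w)).image (fun p : ℤ × ℤ => (p.1, p.2, (0 : ℤ)))).card :=
    (card_image_of_injective _ hinj).symm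
  rw [e1]
  refine cells_card _ (⌊Dt.C i / w⌋, ⌊Dt.Bf i / w⌋, 0) (by linarith) ?_
  intro q hq
  obtain ⟨p, hp, rfl⟩ := mem_image.1 hq
  obtain ⟨l, hl, rfl⟩ := mem_image.1 hp
  obtain ⟨h1, h2⟩ := h l hl
  refine ⟨floor_near hw h1, floor_near hw h2, ?_⟩
  simp only [sub_self, abs_zero]
  linarith

theorem cc_near (Dt : Dat) {w : ℝ} (hw : 0 < w) {l l' : ℕ} (h : Dt.cc w l = Dt.cc w l') :
    |Dt.C l - Dt.C l'| ≤ w ∧ |Dt.Bf l - Dt.Bf l'| ≤ w := by
  unfold Dat.cc at h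
  simp only [Prod.mk.injEq] at h
  exact ⟨near_floor hw h.1, near_floor hw h.2⟩

theorem cell_near (Dt : Dat) {w : ℝ} (hw : 0 < w) {k l l' : ℕ}
    (h : Dt.cell w k l' = Dt.cell w k l) : Dt.near w k l l' := by
  unfold Dat.cell at h
  simp only [Prod.mk.injEq] at h
  exact ⟨near_floor hw h.1, near_floor hw h.2.1, near_floor hw h.2.2⟩

/-! ### heights -/

open Classical in
/-- a part of a set of lines is alive at one height -/
theorem exists_height (M : RModel B G σ R Leg ν D) {ε : ℝ} (hε : 0 < ε) :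
    ∀ᶠ n in (U : Filter ℕ), ∀ S : Finset ℕ, S ⊆ (G n).L → ∃ k ∈ (G n).Z,
      B.d n ^ ε * (S.card : ℝ) ≤ ((S.filter fun l => (l, k) ∈ (G n).I).card : ℝ) := by
  filter_upwards [M.line ε hε] with n hn S hS
  obtain ⟨⟨i0, k0⟩, h0⟩ := M.nonempty n
  have hZ : (G n).Z.Nonempty := ⟨k0, M.toRUnif.memZ h0⟩
  have e0 : ∑ k ∈ (G n).Z, (S.filter fun l => (l, k) ∈ (G n).I).card =
      ∑ l ∈ S, ((G n).hts l).card :=
    Finset.sum_card_bipartiteAbove_eq_sum_card_bipartiteBelow (s := (G n).Z) (t := S)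
      (fun k l => (l, k) ∈ (G n).I)
  have e1 : ∑ k ∈ (G n).Z, ((S.filter fun l => (l, k) ∈ (G n).I).card : ℝ) =
      ∑ l ∈ S, (((G n).hts l).card : ℝ) := by exact_mod_cast e0
  have e2 : ∑ k ∈ (G n).Z, (B.d n ^ ε * (S.card : ℝ)) ≤
      ∑ k ∈ (G n).Z, ((S.filter fun l => (l, k) ∈ (G n).I).card : ℝ) := by
    rw [e1, sum_const, nsmul_eq_mul]
    calc _ = ∑ l ∈ S, (B.d n ^ ε * ((G n).Z.card : ℝ)) := by
          rw [sum_const, nsmul_eq_mul]; ring
      _ ≤ _ := sum_le_sum fun l hl => hn l (hS hl)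
  exact Finset.exists_le_of_sum_le hZ e2

/-! ### the counts -/

section counts

variable {Dt : ℕ → Dat} {pA pC : κ → ℝ} {x c : ℝ}

/-- classes present in a set of lines of one slice -/
theorem cls_up (H : RUnif B G Leg ν D) (hDc : Dic B G Dt pA pC x c) (hC : pC ∈ Leg) {ε : ℝ}
    (hε : 0 < ε) :
    ∀ᶠ n in (U : Filter ℕ), ∀ k, ∀ T ⊆ (G n).slice k,
      (∀ t ∈ T, ∀ t' ∈ T, (Dt n).cc (B.d n ^ (x - ε)) t = (Dt n).cc (B.d n ^ (x - ε)) t' → t = t') →
      ∀ W : Finset ℕ, (∀ t ∈ T, (G n).box pC ε t k ⊆ W) →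
      (T.card : ℝ) ≤ (W.card : ℝ) * B.d n ^ (ν pC - 3 * c * D ^ 5 * ε) := by
  classical
  have hD := H.D1
  have hD5 : 1 ≤ D ^ 5 := one_le_pow₀ hD
  have hc := hDc.c1
  have hcD : 1 ≤ c * D ^ 5 := by nlinarith
  filter_upwards [H.exists_lab pC hC hε, hDc.a' (D ^ 5 * ε) (by positivity),
    ev_const_le B hε 125] with n hlab ha h125 k T hT hinj W hW
  have hpow : ∀ t : ℝ, 0 < B.d n ^ t := fun t => rpos B n t
  obtain ⟨lab, l1, l2⟩ := hlab k T hT W hW
  set w := B.d n ^ (x - ε) with hw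
  set K0 : ℝ := B.d n ^ (-((c * D ^ 5 - 1) * ε)) with hK0
  have hK01 : 1 ≤ K0 := by
    refine Real.one_le_rpow_of_pos_of_le_one_of_nonpos (B.pos n) (B.lt n).le ?_
    have : 0 ≤ (c * D ^ 5 - 1) * ε := mul_nonneg (by linarith) hε.le
    linarith
  have hfib : ∀ t ∈ T, ((T.filter fun t' => lab t' = lab t).card : ℝ) ≤ (5 * K0) ^ 3 := by
    intro t ht
    set F := T.filter fun t' => lab t' = lab t with hF
    have e1 : F.card = (F.image ((Dt n).cc w)).card := by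
      rw [card_image_of_injOn]
      intro s hs s' hs' he
      exact hinj s (mem_filter.1 (mem_coe.1 hs)).1 s' (mem_filter.1 (mem_coe.1 hs')).1 he
    rw [e1]
    refine (cls_card (Dt n) (hpow _) (by linarith : (0 : ℝ) ≤ K0) F t ?_).trans ?_
    · intro l hl
      obtain ⟨h1, h2⟩ := mem_filter.1 hl
      have h3 := ha k t l (H.memSlice.1 (hT ht)) (H.memSlice.1 (hT h1)) (l1 t ht l h1 h2.symm)
      have e2 : B.d n ^ (x - c * (D ^ 5 * ε)) = K0 * w := by
        rw [hK0, hw, ← rpow_add']; congr 1; ring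
      rw [e2] at h3
      exact h3
    · gcongr
      linarith
  have h1 := many_values T lab hfib
  have h2 : (5 * K0) ^ 3 ≤ B.d n ^ (-ε) * B.d n ^ (-(3 * (c * D ^ 5 - 1) * ε)) := by
    have e3 : K0 ^ 3 = B.d n ^ (-(3 * (c * D ^ 5 - 1) * ε)) := by
      rw [hK0, ← Real.rpow_natCast, ← Real.rpow_mul (B.pos n).le]; congr 1; push_cast; ring
    have e4 : (5 * K0) ^ 3 = 125 * K0 ^ 3 := by ring
    rw [e4, e3]
    exact mul_le_mul_of_nonneg_right h125 (hpow _).le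
  calc (T.card : ℝ) ≤ ((T.image lab).card : ℝ) * (5 * K0) ^ 3 := h1
    _ ≤ ((W.card : ℝ) * B.d n ^ (ν pC - ε)) *
          (B.d n ^ (-ε) * B.d n ^ (-(3 * (c * D ^ 5 - 1) * ε))) := by
        refine mul_le_mul l2 h2 (by positivity) ?_
        exact mul_nonneg (Nat.cast_nonneg _) (hpow _).le
    _ = (W.card : ℝ) * B.d n ^ (ν pC - 3 * c * D ^ 5 * ε + ε) := by
        rw [mul_assoc, ← rpow_add', ← rpow_add']; congr 2; ring
    _ ≤ _ := by
        refine mul_le_mul_of_nonneg_left (rpow_anti B n (by linarith)) (Nat.cast_nonneg _)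

/-- number of all classes, upper bound -/
theorem cls_all_up (M : RModel B G σ R Leg ν D) (hDc : Dic B G Dt pA pC x c) {p0 : κ → ℝ}
    (h0 : p0 ∈ Leg) (hC : pC ∈ Leg)
    (hall : ∀ ε : ℝ, 0 < ε → ∀ᶠ n in (U : Filter ℕ), ∀ k i l, (i, k) ∈ (G n).I →
      (l, k) ∈ (G n).I → (G n).loose p0 ε k i l) {ε : ℝ} (hε : 0 < ε) :
    ∀ᶠ n in (U : Filter ℕ), (((G n).L.image ((Dt n).cc (B.d n ^ (x - ε)))).card : ℝ) ≤
      B.d n ^ (-(ν p0 - ν pC) - (1 + D + 3 * c * D ^ 5) * ε) := by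
  classical
  have H := M.toRUnif
  filter_upwards [cls_up H hDc hC hε, exists_height M hε, H.up p0 h0 ε hε, hall ε hε] with
    n hup hht hup0 hal
  have hpow : ∀ t : ℝ, 0 < B.d n ^ t := fun t => rpos B n t
  obtain ⟨S, hSL, hinj, hcard⟩ := exists_reps (G n).L ((Dt n).cc (B.d n ^ (x - ε)))
  rw [← hcard]
  obtain ⟨k, hk, hkS⟩ := hht S hSL
  set T := S.filter fun l => (l, k) ∈ (G n).I with hT
  have hTs : T ⊆ (G n).slice k := fun l hl => H.memSlice.2 (mem_filter.1 hl).2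
  have h1 := hup k T hTs (fun t ht t' ht' => hinj t (mem_filter.1 ht).1 t' (mem_filter.1 ht').1)
    ((G n).slice k) (fun t _ => RCfg.box_subset_slice)
  rcases T.eq_empty_or_nonempty with hTe | ⟨t0, ht0⟩
  · rw [hTe, card_empty, Nat.cast_zero] at hkS
    have : (S.card : ℝ) ≤ 0 := by
      by_contra hcon
      push Not at hcon
      have := mul_pos (hpow ε) hcon
      linarith
    exact this.trans (hpow _).le
  have h2 : (((G n).slice k).card : ℝ) ≤ B.d n ^ (-ν p0 - D * ε) := by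
    have ht0I := (mem_filter.1 ht0).2
    refine le_trans ?_ (hup0 t0 k ht0I)
    refine Nat.cast_le.2 (card_le_card ?_)
    intro l hl
    exact RCfg.mem_box.2 ⟨hl, hal k t0 l ht0I (H.memSlice.1 hl)⟩
  have h3 : B.d n ^ ε * (S.card : ℝ) ≤ B.d n ^ (-ν p0 - D * ε) *
      B.d n ^ (ν pC - 3 * c * D ^ 5 * ε) :=
    hkS.trans (h1.trans (mul_le_mul_of_nonneg_right h2 (hpow _).le))
  have h4 : (S.card : ℝ) = B.d n ^ (-ε) * (B.d n ^ ε * (S.card : ℝ)) := by
    rw [← mul_assoc, ← rpow_add', neg_add_cancel, Real.rpow_zero, one_mul]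
  rw [h4]
  calc _ ≤ B.d n ^ (-ε) * (B.d n ^ (-ν p0 - D * ε) * B.d n ^ (ν pC - 3 * c * D ^ 5 * ε)) :=
        mul_le_mul_of_nonneg_left h3 (hpow _).le
    _ = _ := by rw [← rpow_add', ← rpow_add']; congr 1; ring

/-- number of all classes, lower bound -/
theorem cls_all_low (H : RUnif B G Leg ν D) (hDc : Dic B G Dt pA pC x c) {p0 : κ → ℝ}
    (h0 : p0 ∈ Leg) (hC : pC ∈ Leg) {ε : ℝ} (hε : 0 < ε) :
    ∀ᶠ n in (U : Filter ℕ), B.d n ^ (-(ν p0 - ν pC) + (1 + D * c) * ε) ≤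
      (((G n).L.image ((Dt n).cc (B.d n ^ (x - ε)))).card : ℝ) := by
  classical
  have hc := hDc.c1
  filter_upwards [H.low p0 h0 ε hε, hDc.b' ε hε, H.up pC hC (c * ε) (by positivity)] with
    n hlow hb hup
  have hpow : ∀ t : ℝ, 0 < B.d n ^ t := fun t => rpos B n t
  obtain ⟨⟨i, k⟩, hik⟩ := H.nonempty n
  have hl := hlow i k hik
  set F := (G n).slice k with hF
  have h1 : ((G n).box p0 ε i k).card ≤ F.card := card_le_card RCfg.box_subset_slice
  have h1' : (((G n).box p0 ε i k).card : ℝ) ≤ F.card := by exact_mod_cast h1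
  have h2 := many_values F ((Dt n).cc (B.d n ^ (x - ε))) (a := B.d n ^ (-ν pC - D * (c * ε)))
    (by
      intro t ht
      have htI := H.memSlice.1 ht
      refine le_trans ?_ (hup t k htI)
      refine Nat.cast_le.2 (card_le_card ?_)
      intro l hl
      obtain ⟨m1, m2⟩ := mem_filter.1 hl
      obtain ⟨n1, n2⟩ := cc_near (Dt n) (hpow _) m2
      exact RCfg.mem_box.2 ⟨m1, hb k t l htI (H.memSlice.1 m1) n1 n2⟩)
  have h3 : ((F.image ((Dt n).cc (B.d n ^ (x - ε)))).card : ℝ) ≤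
      (((G n).L.image ((Dt n).cc (B.d n ^ (x - ε)))).card : ℝ) := by
    refine Nat.cast_le.2 (card_le_card (image_subset_image ?_))
    intro l hl
    exact H.memL (H.memSlice.1 hl)
  have h4 : B.d n ^ (-ν p0 + ε) ≤
      (((G n).L.image ((Dt n).cc (B.d n ^ (x - ε)))).card : ℝ) * B.d n ^ (-ν pC - D * (c * ε)) :=
    hl.trans (h1'.trans (h2.trans (mul_le_mul_of_nonneg_right h3 (hpow _).le)))
  have h5 : B.d n ^ (-(ν p0 - ν pC) + (1 + D * c) * ε) =
      B.d n ^ (-ν p0 + ε) * B.d n ^ (ν pC + D * (c * ε)) := by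
    rw [← rpow_add']; congr 1; ring
  have h6 : B.d n ^ (-ν pC - D * (c * ε)) * B.d n ^ (ν pC + D * (c * ε)) = 1 := by
    rw [← rpow_add']
    have : -ν pC - D * (c * ε) + (ν pC + D * (c * ε)) = 0 := by ring
    rw [this, Real.rpow_zero]
  rw [h5]
  calc _ ≤ ((((G n).L.image ((Dt n).cc (B.d n ^ (x - ε)))).card : ℝ) *
        B.d n ^ (-ν pC - D * (c * ε))) * B.d n ^ (ν pC + D * (c * ε)) :=
        mul_le_mul_of_nonneg_right h4 (hpow _).le
    _ = _ := by rw [mul_assoc, h6, mul_one]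

open Classical in
/-- **H5** -/
theorem h5 (H : RUnif B G Leg ν D) (hDc : Dic B G Dt pA pC x c) (hA : pA ∈ Leg) {ε : ℝ}
    (hε : 0 < ε) :
    ∀ᶠ n in (U : Filter ℕ), ∀ k l, (l, k) ∈ (G n).I → B.d n ^ (-ν pA + ε) ≤
      (((G n).L.filter fun l' => (l', k) ∈ (G n).I ∧
        (Dt n).near (B.d n ^ (x - ε)) k l l').card : ℝ) := by
  have hc := hDc.c1
  have hc0 : 0 < c := by linarith
  have he : ε / c ≤ ε := div_le_self hε.le hc
  filter_upwards [H.low pA hA (ε / c) (by positivity), hDc.a (ε / c) (by positivity)] with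
    n hlow ha k l hl
  refine (rpow_anti B n (by linarith)).trans ((hlow l k hl).trans ?_)
  refine Nat.cast_le.2 (card_le_card ?_)
  intro m hm
  obtain ⟨m1, m2⟩ := RCfg.mem_box.1 hm
  have hmI := H.memSlice.1 m1
  have := ha k l m hl hmI m2
  have e1 : c * (ε / c) = ε := by field_simp
  rw [e1] at this
  exact mem_filter.2 ⟨H.memL hmI, hmI, this⟩

open Classical in
/-- **H3** -/
theorem h3 (M : RModel B G σ R Leg ν D) (hDc : Dic B G Dt pA pC x c) {p0 : κ → ℝ}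
    (h0 : p0 ∈ Leg) (hA : pA ∈ Leg) {ε : ℝ} (hε : 0 < ε) :
    ∀ᶠ n in (U : Filter ℕ), ∀ k ∈ (G n).Z, B.d n ^ (-(ν p0 - ν pA) + (1 + D * c) * ε) ≤
      ((((G n).L.filter fun l => (l, k) ∈ (G n).I).image
        ((Dt n).cell (B.d n ^ (x - ε)) k)).card : ℝ) := by
  have H := M.toRUnif
  have hc := hDc.c1
  filter_upwards [H.low p0 h0 ε hε, hDc.b ε hε, H.up pA hA (c * ε) (by positivity),
    M.slice ε hε] with n hlow hb hup hsl k hk
  have hpow : ∀ t : ℝ, 0 < B.d n ^ t := fun t => rpos B n t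
  -- the slice is nonempty
  obtain ⟨⟨i0, k0⟩, hik0⟩ := H.nonempty n
  have hL : (0 : ℝ) < (G n).L.card := by
    exact_mod_cast card_pos.2 ⟨i0, H.memL hik0⟩
  have hs : (0 : ℝ) < ((G n).slice k).card := lt_of_lt_of_le (mul_pos (hpow ε) hL) (hsl k hk)
  obtain ⟨i, hi⟩ := card_pos.1 (by exact_mod_cast hs : 0 < ((G n).slice k).card)
  have hik := H.memSlice.1 hi
  have hl := hlow i k hik
  have eF : (G n).L.filter (fun l => (l, k) ∈ (G n).I) = (G n).slice k := rfl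
  rw [eF]
  set F := (G n).slice k with hF
  have h1 : (((G n).box p0 ε i k).card : ℝ) ≤ F.card := by
    exact_mod_cast card_le_card RCfg.box_subset_slice
  have h2 := many_values F ((Dt n).cell (B.d n ^ (x - ε)) k) (a := B.d n ^ (-ν pA - D * (c * ε)))
    (by
      intro t ht
      have htI := H.memSlice.1 ht
      refine le_trans ?_ (hup t k htI)
      refine Nat.cast_le.2 (card_le_card ?_)
      intro l hl
      obtain ⟨m1, m2⟩ := mem_filter.1 hl
      exact RCfg.mem_box.2 ⟨m1, hb k t l htI (H.memSlice.1 m1) (cell_near (Dt n) (hpow _) m2)⟩)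
  have h4 : B.d n ^ (-ν p0 + ε) ≤ ((F.image ((Dt n).cell (B.d n ^ (x - ε)) k)).card : ℝ) *
      B.d n ^ (-ν pA - D * (c * ε)) := hl.trans (h1.trans h2)
  have h5 : B.d n ^ (-(ν p0 - ν pA) + (1 + D * c) * ε) =
      B.d n ^ (-ν p0 + ε) * B.d n ^ (ν pA + D * (c * ε)) := by
    rw [← rpow_add']; congr 1; ring
  have h6 : B.d n ^ (-ν pA - D * (c * ε)) * B.d n ^ (ν pA + D * (c * ε)) = 1 := by
    rw [← rpow_add']
    have : -ν pA - D * (c * ε) + (ν pA + D * (c * ε)) = 0 := by ring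
    rw [this, Real.rpow_zero]
  rw [h5]
  calc _ ≤ (((F.image ((Dt n).cell (B.d n ^ (x - ε)) k)).card : ℝ) *
        B.d n ^ (-ν pA - D * (c * ε))) * B.d n ^ (ν pA + D * (c * ε)) :=
        mul_le_mul_of_nonneg_right h4 (hpow _).le
    _ = _ := by rw [mul_assoc, h6, mul_one]

open Classical in
/-- **H2** -/
theorem h2 (M : RModel B G σ R Leg ν D) (hDc : Dic B G Dt pA pC x c) {p0 pF : κ → ℝ}
    (h0 : p0 ∈ Leg) (hA : pA ∈ Leg) (hC : pC ∈ Leg) (hF : pF ∈ Leg)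
    (hmax : ∀ s, pF s ≤ max (pA s) (pC s))
    (hall : ∀ ε : ℝ, 0 < ε → ∀ᶠ n in (U : Filter ℕ), ∀ k i l, (i, k) ∈ (G n).I →
      (l, k) ∈ (G n).I → (G n).loose p0 ε k i l)
    (hplat : ν p0 - ν pC ≤ ν pA - ν pF) {ε : ℝ} (hε : 0 < ε) :
    ∀ᶠ n in (U : Filter ℕ), ∀ k l, (l, k) ∈ (G n).I →
      B.d n ^ ((2 + D + 3 * c * D ^ 5 + D * (D ^ 2 + c)) * ε) *
        (((G n).L.image ((Dt n).cc (B.d n ^ (x - ε)))).card : ℝ) ≤
      ((((G n).L.filter fun l' => (l', k) ∈ (G n).I ∧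
        (Dt n).near (B.d n ^ (x - ε)) k l l').image ((Dt n).cc (B.d n ^ (x - ε)))).card : ℝ) := by
  have H := M.toRUnif
  have hD := H.D1
  have hc := hDc.c1
  have hc0 : 0 < c := by linarith
  have he : ε / c ≤ ε := div_le_self hε.le hc
  have hD2 : 0 ≤ D ^ 2 * ε := by positivity
  filter_upwards [cls_all_up M hDc h0 hC hall hε, H.low pA hA (ε / c) (by positivity),
    hDc.a (ε / c) (by positivity), hDc.b' ε hε, box_pair H pA hA (ε := ε / c) (by positivity),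
    H.up pF hF ((D ^ 2 + c) * ε) (by positivity)] with n hN hlow ha hb hpair hup k l hl
  have hpow : ∀ t : ℝ, 0 < B.d n ^ t := fun t => rpos B n t
  set F := (G n).box pA (ε / c) l k with hFdef
  have hFs : ∀ m ∈ F, (m, k) ∈ (G n).I := fun m hm => H.memSlice.1 (RCfg.mem_box.1 hm).1
  have hsub : F ⊆ (G n).L.filter fun l' => (l', k) ∈ (G n).I ∧
      (Dt n).near (B.d n ^ (x - ε)) k l l' := by
    intro m hm
    obtain ⟨m1, m2⟩ := RCfg.mem_box.1 hm
    have hmI := H.memSlice.1 m1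
    have := ha k l m hl hmI m2
    have e1 : c * (ε / c) = ε := by field_simp
    rw [e1] at this
    exact mem_filter.2 ⟨H.memL hmI, hmI, this⟩
  have h2 := many_values F ((Dt n).cc (B.d n ^ (x - ε)))
    (a := B.d n ^ (-ν pF - D * ((D ^ 2 + c) * ε))) (by
      intro t ht
      have htI := hFs t ht
      refine le_trans ?_ (hup t k htI)
      refine Nat.cast_le.2 (card_le_card ?_)
      intro m hm
      obtain ⟨m1, m2⟩ := mem_filter.1 hm
      obtain ⟨n1, n2⟩ := cc_near (Dt n) (hpow _) m2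
      have hmI := hFs m m1
      have b1 := hb k t m htI hmI n1 n2
      have b2 := hpair k l t m hl ht m1
      refine RCfg.mem_box.2 ⟨H.memSlice.2 hmI, ?_⟩
      intro s
      have c1 := b1 s
      have c2 := b2 s
      rw [H.base n] at c1 c2 ⊢
      have hms := hmax s
      have hcε : 0 ≤ c * ε := by positivity
      have hD2' : D ^ 2 * (ε / c) ≤ D ^ 2 * ε := mul_le_mul_of_nonneg_left he (by positivity)
      have e3 : (D ^ 2 + c) * ε = D ^ 2 * ε + c * ε := by ring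
      rcases le_total (pA s) (pC s) with h | h
      · rw [max_eq_right h] at hms
        exact c1.trans (rpow_anti B n (by linarith))
      · rw [max_eq_left h] at hms
        exact c2.trans (rpow_anti B n (by linarith)))
  have h3 : ((F.image ((Dt n).cc (B.d n ^ (x - ε)))).card : ℝ) ≤
      ((((G n).L.filter fun l' => (l', k) ∈ (G n).I ∧
        (Dt n).near (B.d n ^ (x - ε)) k l l').image ((Dt n).cc (B.d n ^ (x - ε)))).card : ℝ) :=
    Nat.cast_le.2 (card_le_card (image_subset_image hsub))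
  refine le_trans ?_ h3
  have h4 : B.d n ^ (-ν pA + ε / c) ≤ ((F.image ((Dt n).cc (B.d n ^ (x - ε)))).card : ℝ) *
      B.d n ^ (-ν pF - D * ((D ^ 2 + c) * ε)) := (hlow l k hl).trans h2
  have h6 : B.d n ^ (-ν pF - D * ((D ^ 2 + c) * ε)) * B.d n ^ (ν pF + D * ((D ^ 2 + c) * ε)) = 1 := by
    rw [← rpow_add']
    have : -ν pF - D * ((D ^ 2 + c) * ε) + (ν pF + D * ((D ^ 2 + c) * ε)) = 0 := by ring
    rw [this, Real.rpow_zero]
  calc _ ≤ B.d n ^ ((2 + D + 3 * c * D ^ 5 + D * (D ^ 2 + c)) * ε) *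
        B.d n ^ (-(ν p0 - ν pC) - (1 + D + 3 * c * D ^ 5) * ε) :=
        mul_le_mul_of_nonneg_left hN (hpow _).le
    _ = B.d n ^ (-(ν p0 - ν pC) + (1 + D * (D ^ 2 + c)) * ε) := by
        rw [← rpow_add']; congr 1; ring
    _ ≤ B.d n ^ (-ν pA + ε / c + (ν pF + D * ((D ^ 2 + c) * ε))) := rpow_anti B n (by
        have : (1 + D * (D ^ 2 + c)) * ε = ε + D * ((D ^ 2 + c) * ε) := by ring
        linarith)
    _ = B.d n ^ (-ν pA + ε / c) * B.d n ^ (ν pF + D * ((D ^ 2 + c) * ε)) := rpow_add' B n _ _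
    _ ≤ (((F.image ((Dt n).cc (B.d n ^ (x - ε)))).card : ℝ) *
      B.d n ^ (-ν pF - D * ((D ^ 2 + c) * ε))) * B.d n ^ (ν pF + D * ((D ^ 2 + c) * ε)) :=
        mul_le_mul_of_nonneg_right h4 (hpow _).le
    _ = _ := by rw [mul_assoc, h6, mul_one]

open Classical in
/-- **H6** -/
theorem h6 (M : RModel B G σ R Leg ν D) (hDc : Dic B G Dt pA pC x c) (hx : 0 < x)
    {p0 : κ → ℝ} (h0 : p0 ∈ Leg) (hC : pC ∈ Leg)
    (hall : ∀ ε : ℝ, 0 < ε → ∀ᶠ n in (U : Filter ℕ), ∀ k i l, (i, k) ∈ (G n).I →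
      (l, k) ∈ (G n).I → (G n).loose p0 ε k i l)
    {cA cB : κ} {q R1 : ℝ} (hq : 0 < q) (hR1 : 0 < R1) (hN : NoStrC B G p0 cA cB ν q R1)
    (hcA : ∀ ε : ℝ, 0 < ε → ∀ᶠ n in (U : Filter ℕ), ∀ k i l, (i, k) ∈ (G n).I →
      (l, k) ∈ (G n).I →
      |(G n).rel k i l cA - ((Dt n).C l - (Dt n).C i)| ≤ B.d n ^ (x - ε))
    {Kl : ℝ} (hKl : 0 ≤ Kl) :
    ∃ K6 : ℝ, 0 < K6 ∧ ∃ ε0 : ℝ, 0 < ε0 ∧ ∀ ε : ℝ, 0 < ε → ε ≤ ε0 →
      ∀ᶠ n in (U : Filter ℕ), ∀ l0 ∈ (G n).L,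
        ((((G n).L.filter fun l => |(Dt n).C l - (Dt n).C l0| ≤ B.d n ^ (K6 * ε)).image
          ((Dt n).cc (B.d n ^ (x - ε)))).card : ℝ) ≤
        B.d n ^ (Kl * ε) / 2 * (((G n).L.image ((Dt n).cc (B.d n ^ (x - ε)))).card : ℝ) := by
  have H := M.toRUnif
  have hD := H.D1
  have hc := hDc.c1
  have hc0 : 0 < c := by linarith
  obtain ⟨KN, hKN, hN⟩ := hN
  set C1 : ℝ := 3 * c * D ^ 5 with hC1
  have hC10 : 0 < C1 := by positivity
  set K6 : ℝ := (KN + C1 + 3 + Kl + D * c) / q with hK6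
  have hK60 : 0 < K6 := by positivity
  have hqK : q * K6 = KN + C1 + 3 + Kl + D * c := by rw [hK6]; field_simp
  refine ⟨K6, hK60, min (x / (c + K6)) (R1 / K6), lt_min (by positivity) (by positivity), ?_⟩
  intro ε hε hε0
  have hx1 : (c + K6) * ε ≤ x := by
    have := hε0.trans (min_le_left _ _)
    rw [le_div_iff₀ (by positivity)] at this
    linarith
  have hR2 : K6 * ε ≤ R1 := by
    have := hε0.trans (min_le_right _ _)
    rw [le_div_iff₀ (by positivity)] at this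
    linarith
  filter_upwards [cls_all_low H hDc h0 hC hε, cls_up H hDc hC hε, exists_height M hε,
    hall ε hε, hN (K6 * ε) (by positivity) hR2 ε hε, hcA ε hε, hDc.a' ε hε,
    ev_const_le B hε 4] with n hlow hup hht hal hst hrel ha h4 l0 hl0
  have hpow : ∀ t : ℝ, 0 < B.d n ^ t := fun t => rpos B n t
  obtain ⟨S, hSL, hinj, hcard⟩ := exists_reps ((G n).L.filter fun l =>
    |(Dt n).C l - (Dt n).C l0| ≤ B.d n ^ (K6 * ε)) ((Dt n).cc (B.d n ^ (x - ε)))
  rw [← hcard]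
  set η := B.d n ^ (K6 * ε) with hη
  have hη0 : 0 < η := hpow _
  obtain ⟨k, hk, hkS⟩ := hht S (fun l hl => (mem_filter.1 (hSL hl)).1)
  set T := S.filter fun l => (l, k) ∈ (G n).I with hT
  have hTs : T ⊆ (G n).slice k := fun l hl => H.memSlice.2 (mem_filter.1 hl).2
  have hR : 0 ≤ B.d n ^ (Kl * ε) / 2 *
      (((G n).L.image ((Dt n).cc (B.d n ^ (x - ε)))).card : ℝ) := by
    have := (hpow (Kl * ε)).le
    positivity
  rcases T.eq_empty_or_nonempty with hTe | ⟨i, hi⟩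
  · rw [hTe, card_empty, Nat.cast_zero] at hkS
    have : (S.card : ℝ) ≤ 0 := by
      by_contra hcon
      push Not at hcon
      have := mul_pos (hpow ε) hcon
      linarith
    exact this.trans hR
  have hiI := (mem_filter.1 hi).2
  have hiC := (mem_filter.1 (hSL (mem_filter.1 hi).1)).2
  set W := ((G n).box p0 ε i k).filter fun l =>
      |(![1, 0] : Fin 2 → ℝ) 0 * (G n).rel k i l cA +
        (![1, 0] : Fin 2 → ℝ) 1 * ((G n).rel k i l cB + 0 * (G n).rel k i l cA ^ 2)| ≤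
        B.d n ^ (K6 * ε - ε) with hW
  have hWc := hst i k hiI ![1, 0] 0 (by simp) (by rw [abs_zero]; exact (hpow _).le)
  have hWP : ∀ t ∈ T, (G n).box pC ε t k ⊆ W := by
    intro t ht m hm
    obtain ⟨m1, m2⟩ := RCfg.mem_box.1 hm
    have hmI := H.memSlice.1 m1
    have htI := (mem_filter.1 ht).2
    have htC := (mem_filter.1 (hSL (mem_filter.1 ht).1)).2
    obtain ⟨c1, -⟩ := ha k t m htI hmI m2
    have c2 := hrel k i m hiI hmI
    rw [hW, mem_filter]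
    refine ⟨RCfg.mem_box.2 ⟨m1, hal k i m hiI hmI⟩, ?_⟩
    have e1 : (![1, 0] : Fin 2 → ℝ) 0 * (G n).rel k i m cA +
        (![1, 0] : Fin 2 → ℝ) 1 * ((G n).rel k i m cB + 0 * (G n).rel k i m cA ^ 2) =
        (G n).rel k i m cA := by simp
    rw [e1]
    have d1 : B.d n ^ (x - c * ε) ≤ η := rpow_anti B n (by linarith)
    have d2 : B.d n ^ (x - ε) ≤ η := rpow_anti B n (by nlinarith)
    have e2 : (G n).rel k i m cA = ((G n).rel k i m cA - ((Dt n).C m - (Dt n).C i)) +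
        ((Dt n).C m - (Dt n).C t) + (((Dt n).C t - (Dt n).C l0) - ((Dt n).C i - (Dt n).C l0)) := by
      ring
    have e3 : |(G n).rel k i m cA| ≤ 4 * η := by
      rw [e2]
      have f1 := abs_add_le (((G n).rel k i m cA - ((Dt n).C m - (Dt n).C i)) +
        ((Dt n).C m - (Dt n).C t)) (((Dt n).C t - (Dt n).C l0) - ((Dt n).C i - (Dt n).C l0))
      have f2 := abs_add_le ((G n).rel k i m cA - ((Dt n).C m - (Dt n).C i))
        ((Dt n).C m - (Dt n).C t)
      have f3 := abs_sub ((Dt n).C t - (Dt n).C l0) ((Dt n).C i - (Dt n).C l0)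
      linarith
    refine e3.trans ?_
    have e4 : B.d n ^ (K6 * ε - ε) = B.d n ^ (-ε) * η := by
      rw [hη, ← rpow_add']; congr 1; ring
    rw [e4]
    exact mul_le_mul_of_nonneg_right h4 hη0.le
  have h1 := hup k T hTs (fun t ht t' ht' => hinj t (mem_filter.1 ht).1 t' (mem_filter.1 ht').1)
    W hWP
  have h2 : B.d n ^ ε * (S.card : ℝ) ≤ B.d n ^ (-(ν p0) + q * (K6 * ε) - KN * ε) *
      B.d n ^ (ν pC - C1 * ε) :=
    hkS.trans (h1.trans (mul_le_mul_of_nonneg_right hWc (hpow _).le))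
  have h3 : (S.card : ℝ) = B.d n ^ (-ε) * (B.d n ^ ε * (S.card : ℝ)) := by
    rw [← mul_assoc, ← rpow_add', neg_add_cancel, Real.rpow_zero, one_mul]
  rw [h3]
  calc _ ≤ B.d n ^ (-ε) * (B.d n ^ (-(ν p0) + q * (K6 * ε) - KN * ε) *
        B.d n ^ (ν pC - C1 * ε)) := mul_le_mul_of_nonneg_left h2 (hpow _).le
    _ = B.d n ^ (Kl * ε) * (B.d n ^ ε * B.d n ^ (-(ν p0 - ν pC) + (1 + D * c) * ε)) := by
        rw [← rpow_add', ← rpow_add', ← rpow_add', ← rpow_add']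
        congr 1
        have : q * (K6 * ε) = (KN + C1 + 3 + Kl + D * c) * ε := by rw [← mul_assoc, hqK]
        rw [this]; ring
    _ ≤ B.d n ^ (Kl * ε) * (1 / 2 *
        (((G n).L.image ((Dt n).cc (B.d n ^ (x - ε)))).card : ℝ)) := by
        refine mul_le_mul_of_nonneg_left ?_ (hpow _).le
        refine mul_le_mul ?_ hlow (hpow _).le (by norm_num)
        have g1 : B.d n ^ ε * B.d n ^ (-ε) = 1 := by
          rw [← rpow_add', add_neg_cancel, Real.rpow_zero]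
        have g2 := mul_le_mul_of_nonneg_left h4 (hpow ε).le
        rw [g1] at g2
        linarith [hpow ε]
    _ = _ := by ring

end counts

end Crest.Agent.R116.Sc858a
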