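import Crest.Agent.R116.EvL6_504

/-!
# R116, SIG2 (sigma = 2), part Sc3 (helper299): global coordinates of the fat lines

`GC` : the fat lines of a window with the slot `D` frozen have global coordinates
`AX, AH, AF, C, P, Bf` (functions of the line) and `Ef` (function of the incidence, of the line when
the slot `2` is resolved); the relative coordinates of two lines alive at one height are given by
them.  `exists_gc` : existence, from `WL`, `Reg`, `FrX` (`g = 0`) and the relative form of `Thin`.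

The identities are computed in the ring of bounded functions modulo small ones (`bdR`, `smI`).
-/

set_option autoImplicit false
set_option linter.unusedVariables false
set_option linter.unusedSectionVars false

open Filter Topology Finset

namespace Crest.Agent.R116.Sc299

open Crest.Agent.R138.Ex926 (Base U)
open Crest.Agent.R136.Net191 Crest.Agent.R136.Qg926 Crest.Agent.R136.Gf356
open Crest.Agent.R116.ChL222 Crest.Agent.R116.PL504 Crest.Agent.R116.EvL504
open Crest.Agent.R116.Kr710 (LLaw Thin)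

/-! ### bounded functions modulo small ones -/

/-- a height and two lines, one `n` -/
abbrev Ix := ℕ × ℕ × ℕ × ℕ

section ring

variable (B : Base) (G : ℕ → RCfg (Fin 12))

/-- small: `ρ^(x - ε)` on pairs of lines alive at one height; arguments `(n, k, i, l)` -/
def Sm (x : ℝ) (f : Ix → ℝ) : Prop :=
  ∀ ε : ℝ, 0 < ε → ∀ᶠ n in (U : Filter ℕ), ∀ k i l, (i, k) ∈ (G n).I → (l, k) ∈ (G n).I →
    |f (n, k, i, l)| ≤ B.d n ^ (x - ε)

variable {B G}

theorem Sm.add {x : ℝ} {f g : Ix → ℝ} (hf : Sm B G x f) (hg : Sm B G x g) :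
    Sm B G x (f + g) := by
  intro ε hε
  filter_upwards [hf (ε / 2) (by positivity), hg (ε / 2) (by positivity),
    Crest.Agent.R136.Gf356.ev_const_le B (half_pos hε) 2] with n h1 h2 h3
  intro k i l hi hl
  have a1 := h1 k i l hi hl
  have a2 := h2 k i l hi hl
  have hp := Real.rpow_pos_of_pos (B.pos n) (x - ε / 2)
  have e : B.d n ^ (x - ε) = B.d n ^ (-(ε / 2)) * B.d n ^ (x - ε / 2) := by
    rw [← Real.rpow_add (B.pos n)]; congr 1; ring
  calc |(f + g) (n, k, i, l)| ≤ |f (n, k, i, l)| + |g (n, k, i, l)| := abs_add_le _ _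
    _ ≤ 2 * B.d n ^ (x - ε / 2) := by linarith
    _ ≤ B.d n ^ (-(ε / 2)) * B.d n ^ (x - ε / 2) := mul_le_mul_of_nonneg_right h3 hp.le
    _ = _ := e.symm

theorem Sm.mul {x y : ℝ} {f g : Ix → ℝ} (hf : Sm B G x f) (hg : Sm B G y g) :
    Sm B G (x + y) (f * g) := by
  intro ε hε
  filter_upwards [hf (ε / 2) (by positivity), hg (ε / 2) (by positivity)] with n h1 h2
  intro k i l hi hl
  have a1 := h1 k i l hi hl
  have a2 := h2 k i l hi hl
  have hp := Real.rpow_pos_of_pos (B.pos n) (x - ε / 2)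
  calc |(f * g) (n, k, i, l)| = |f (n, k, i, l)| * |g (n, k, i, l)| := abs_mul _ _
    _ ≤ B.d n ^ (x - ε / 2) * B.d n ^ (y - ε / 2) :=
        mul_le_mul a1 a2 (abs_nonneg _) hp.le
    _ = _ := by rw [← Real.rpow_add (B.pos n)]; congr 1; ring

theorem Sm.neg {x : ℝ} {f : Ix → ℝ} (hf : Sm B G x f) : Sm B G x (-f) := by
  intro ε hε
  filter_upwards [hf ε hε] with n h1
  intro k i l hi hl
  have := h1 k i l hi hl
  rwa [← abs_neg] at this

theorem Sm.zero {x : ℝ} : Sm B G x 0 := by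
  intro ε hε
  refine Eventually.of_forall fun n k i l hi hl => ?_
  show |(0 : ℝ)| ≤ _
  rw [abs_zero]
  exact (Real.rpow_pos_of_pos (B.pos n) _).le

theorem Sm.one : Sm B G 0 1 := by
  intro ε hε
  filter_upwards [Crest.Agent.R136.Gf356.ev_const_le B hε 1] with n h1
  intro k i l hi hl
  show |(1 : ℝ)| ≤ _
  rw [abs_one, zero_sub]
  exact h1

variable (B G)

/-- the ring of bounded functions -/
def bdR : Subring (Ix → ℝ) where
  carrier := {f | Sm B G 0 f}
  mul_mem' := by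
    intro f g hf hg
    have := Sm.mul hf hg
    rw [add_zero] at this
    exact this
  one_mem' := Sm.one
  add_mem' := Sm.add
  zero_mem' := Sm.zero
  neg_mem' := Sm.neg

/-- the ideal of small functions -/
def smI (x : ℝ) : Ideal (bdR B G) where
  carrier := {f | Sm B G x f.1}
  add_mem' := Sm.add
  zero_mem' := Sm.zero
  smul_mem' := by
    intro c f hf
    have h1 : Sm B G 0 c.1 := c.2
    have h2 : Sm B G x f.1 := hf
    have := h1.mul h2
    rw [zero_add] at this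
    show Sm B G x ((c • f : bdR B G) : Ix → ℝ)
    rw [smul_eq_mul, Subring.coe_mul]
    exact this

variable {B G}

/-- a bounded function as an element of the ring -/
def mkB (f : Ix → ℝ) (h : Sm B G 0 f) : bdR B G := ⟨f, h⟩

theorem mk_eq {x : ℝ} {f g : bdR B G} :
    Ideal.Quotient.mk (smI B G x) f = Ideal.Quotient.mk (smI B G x) g ↔
      Sm B G x (fun p => f.1 p - g.1 p) :=
  Ideal.Quotient.eq

end ring

/-! ### the laws -/

/-- **global coordinates of the fat lines** -/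
structure GC (B : Base) (G : ℕ → RCfg (Fin 12)) (al : ℕ → ℝ)
    (AX AH AF C P Bf : ℕ → ℕ → ℝ) (Ef : ℕ → ℕ → ℕ → ℝ) (x : ℝ) : Prop where
  al0 : ∀ ε : ℝ, 0 < ε → ∀ᶠ n in (U : Filter ℕ), |al n| ≤ B.d n ^ (-ε)
  bd : ∀ ε : ℝ, 0 < ε → ∀ᶠ n in (U : Filter ℕ), ∀ k i, (i, k) ∈ (G n).I →
    |(G n).z k| ≤ B.d n ^ (-ε) ∧ |AX n i| ≤ B.d n ^ (-ε) ∧ |AH n i| ≤ B.d n ^ (-ε) ∧
    |AF n i| ≤ B.d n ^ (-ε) ∧ |C n i| ≤ B.d n ^ (-ε) ∧ |P n i| ≤ B.d n ^ (-ε) ∧
    |Bf n i| ≤ B.d n ^ (-ε) ∧ |Ef n k i| ≤ B.d n ^ (-ε)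
  r2 : ∀ ε : ℝ, 0 < ε → ∀ᶠ n in (U : Filter ℕ), ∀ k i l, (i, k) ∈ (G n).I → (l, k) ∈ (G n).I →
    |(G n).rel k i l 2 - (Ef n k l - Ef n k i)| ≤ B.d n ^ (x - ε)
  r3 : ∀ ε : ℝ, 0 < ε → ∀ᶠ n in (U : Filter ℕ), ∀ k i l, (i, k) ∈ (G n).I → (l, k) ∈ (G n).I →
    |(G n).rel k i l 3 - (C n l - C n i)| ≤ B.d n ^ (x - ε)
  r5 : ∀ ε : ℝ, 0 < ε → ∀ᶠ n in (U : Filter ℕ), ∀ k i l, (i, k) ∈ (G n).I → (l, k) ∈ (G n).I →
    |(G n).rel k i l 5 - ((AX n l + (G n).z k * C n l) - (AX n i + (G n).z k * C n i))| ≤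
      B.d n ^ (x - ε)
  r9 : ∀ ε : ℝ, 0 < ε → ∀ᶠ n in (U : Filter ℕ), ∀ k i l, (i, k) ∈ (G n).I → (l, k) ∈ (G n).I →
    |(G n).rel k i l 9 - (1 + al n ^ 2) *
      (((AH n l + (G n).z k * C n l ^ 2 / 2) - (AH n i + (G n).z k * C n i ^ 2 / 2)) -
        C n i * ((AX n l + (G n).z k * C n l) - (AX n i + (G n).z k * C n i)))| ≤ B.d n ^ (x - ε)
  r7 : ∀ ε : ℝ, 0 < ε → ∀ᶠ n in (U : Filter ℕ), ∀ k i l, (i, k) ∈ (G n).I → (l, k) ∈ (G n).I →
    |((G n).rel k i l 7 + al n * (G n).rel k i l 8) -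
      (Bf n l - Bf n i - (1 + al n ^ 2) * Ef n k i * (C n l - C n i))| ≤ B.d n ^ (x - ε)
  r10 : ∀ ε : ℝ, 0 < ε → ∀ᶠ n in (U : Filter ℕ), ∀ k i l, (i, k) ∈ (G n).I → (l, k) ∈ (G n).I →
    |(G n).rel k i l 10 - (P n l - P n i + Bf n i * (C n l - C n i) +
      (1 + al n ^ 2) * Ef n k i * (C n l - C n i) ^ 2 / 2)| ≤ B.d n ^ (x - ε)
  r11 : ∀ ε : ℝ, 0 < ε → ∀ᶠ n in (U : Filter ℕ), ∀ k i l, (i, k) ∈ (G n).I → (l, k) ∈ (G n).I →
    |(G n).rel k i l 11 - (((AF n l + (G n).z k * P n l) - (AF n i + (G n).z k * P n i)) +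
      Bf n i * ((AX n l + (G n).z k * C n l) - (AX n i + (G n).z k * C n i)) +
      (1 + al n ^ 2) * Ef n k i *
        (((AH n l + (G n).z k * C n l ^ 2 / 2) - (AH n i + (G n).z k * C n i ^ 2 / 2)) -
          C n i * ((AX n l + (G n).z k * C n l) - (AX n i + (G n).z k * C n i))))| ≤
      B.d n ^ (x - ε)

/-! ### construction -/

variable {ι : ℕ → Type*} [∀ n, DecidableEq (ι n)] {W : Wnd 12 ι} {K tp : ℝ}

open Classical in
/-- a chosen incidence of the class on the fat line `l` -/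
noncomputable def lrep (W : Wnd 12 ι) (n l : ℕ) : ι n :=
  if h : ∃ i ∈ W.Cl n, W.lc n i = l then h.choose else W.s₀ n

theorem lrep_spec {n : ℕ} {i : ι n} (hi : i ∈ W.Cl n) :
    lrep W n (W.lc n i) ∈ W.Cl n ∧ W.lc n (lrep W n (W.lc n i)) = W.lc n i := by
  have h : ∃ j ∈ W.Cl n, W.lc n j = W.lc n i := ⟨i, hi, rfl⟩
  unfold lrep
  rw [dif_pos h]
  exact h.choose_spec

theorem lrep_reg {E : ∀ n, Finset (ι n)} {n : ℕ} (r : Reg W E n) {l k : ℕ}
    (hI : (l, k) ∈ (W.cfg E n).I) : lrep W n l ∈ W.Cl n ∧ W.lc n (lrep W n l) = l := by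
  obtain ⟨a1, a2, a3⟩ := r.spec hI
  have := lrep_spec a1
  rwa [a2] at this

/-- the law with `D` frozen -/
noncomputable def cp (a c : Fin 12 → ℝ) : Fin 12 → ℝ := comp (EvL504.sc 0 a) (EvL504.sc 0 c)

section cp

variable (a c : Fin 12 → ℝ)

theorem cp2 : cp a c 2 = a 2 + c 2 := by
  unfold cp; simp [comp, EvL504.sc]

theorem cp3 : cp a c 3 = a 3 + c 3 := by
  unfold cp; simp [comp, EvL504.sc]

theorem cp4 : cp a c 4 = a 4 + c 4 := by
  unfold cp; simp [comp, EvL504.sc]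

theorem cp5 : cp a c 5 = a 5 + c 5 - a 0 * c 3 := by
  unfold cp; simp [comp, EvL504.sc]

theorem cp6 : cp a c 6 = a 6 + c 6 - a 0 * c 4 := by
  unfold cp; simp [comp, EvL504.sc]

theorem cp7 : cp a c 7 = a 7 + c 7 + a 2 * c 3 := by
  unfold cp; simp [comp, EvL504.sc]

theorem cp8 : cp a c 8 = a 8 + c 8 + a 2 * c 4 := by
  unfold cp; simp [comp, EvL504.sc]

theorem cp9 : cp a c 9 = a 9 + c 9 - a 0 * ((c 3 ^ 2 + c 4 ^ 2) / 2) +
    a 3 * (c 5 - a 0 * c 3) + a 4 * (c 6 - a 0 * c 4) := by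
  unfold cp; simp [comp, EvL504.sc]

theorem cp10 : cp a c 10 = a 10 + c 10 - a 7 * c 3 - a 8 * c 4 -
    a 2 * ((c 3 ^ 2 + c 4 ^ 2) / 2) := by
  unfold cp; simp [comp, EvL504.sc]

theorem cp11 : cp a c 11 = a 11 + c 11 - a 0 * c 10 - a 7 * (c 5 - a 0 * c 3) -
    a 8 * (c 6 - a 0 * c 4) - a 2 * (c 9 - a 0 * ((c 3 ^ 2 + c 4 ^ 2) / 2)) := by
  unfold cp; simp [comp, EvL504.sc]

end cp


/-- slots `≥ 2` of an incidence and of another one on the same line agree -/
theorem cp_line {a m : Fin 12 → ℝ} {r : ℝ} (hr : 0 ≤ r) (ha : ∀ k, |a k| ≤ 1)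
    (hm : ∀ k, |m k| ≤ 1) {s : Fin 12} (hs : s = 2 ∧ |m 2| ≤ r ∨ 3 ≤ s)
    (h3 : ∀ k, 3 ≤ k → |m k| ≤ r) : |cp a m s - a s| ≤ 48 * r := by
  set m' : Fin 12 → ℝ := fun k => if 3 ≤ k ∨ k = s then 0 else m k with hm'
  have b1 : ∀ k, |m' k| ≤ 1 := by
    intro k
    rw [hm']
    dsimp only
    split_ifs
    · simp
    · exact hm k
  have b2 : ∀ k, |m k - m' k| ≤ r := by
    intro k
    rw [hm']
    dsimp only
    split_ifs with hk
    · rw [sub_zero]
      rcases hk with hk | hk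
      · exact h3 k hk
      · rcases hs with ⟨h1, h2⟩ | hs
        · rw [hk, h1]; exact h2
        · exact h3 k (hk ▸ hs)
    · rw [sub_self, abs_zero]; exact hr
  have key := comp_lip (a := EvL504.sc 0 a) (a' := EvL504.sc 0 a) (c := EvL504.sc 0 m)
    (c' := EvL504.sc 0 m') (r := r)
    (abs_sc_le le_rfl zero_le_one ha) (abs_sc_le le_rfl zero_le_one ha)
    (abs_sc_le le_rfl zero_le_one hm) (abs_sc_le le_rfl zero_le_one b1)
    (fun k => by rw [sub_self, abs_zero]; exact hr)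
    (fun k => by
      unfold EvL504.sc
      split_ifs
      · simpa using hr
      · exact b2 k) s
  have e : comp (EvL504.sc 0 a) (EvL504.sc 0 m') s = a s := by
    have hz : ∀ k, 3 ≤ k → m' k = 0 := fun k hk => by
      rw [hm']; dsimp only; rw [if_pos (Or.inl hk)]
    have z3 := hz 3 (by decide)
    have z4 := hz 4 (by decide)
    have z5 := hz 5 (by decide)
    have z6 := hz 6 (by decide)
    have z7 := hz 7 (by decide)
    have z8 := hz 8 (by decide)
    have z9 := hz 9 (by decide)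
    have z10 := hz 10 (by decide)
    have z11 := hz 11 (by decide)
    have zs : m' s = 0 := by rw [hm']; dsimp only; rw [if_pos (Or.inr rfl)]
    show cp a m' s = a s
    have h2 : 2 ≤ s := by
      rcases hs with ⟨h1, -⟩ | hs
      · rw [h1]
      · exact le_trans (by decide) hs
    clear_value m'
    fin_cases s
    · exact absurd h2 (by decide)
    · exact absurd h2 (by decide)
    · show cp a m' 2 = a 2
      rw [cp2]
      have : m' 2 = 0 := zs
      rw [this, add_zero]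
    · show cp a m' 3 = a 3
      rw [cp3, z3, add_zero]
    · show cp a m' 4 = a 4
      rw [cp4, z4, add_zero]
    · show cp a m' 5 = a 5
      rw [cp5, z5, z3]; ring
    · show cp a m' 6 = a 6
      rw [cp6, z6, z4]; ring
    · show cp a m' 7 = a 7
      rw [cp7, z7, z3]; ring
    · show cp a m' 8 = a 8
      rw [cp8, z8, z4]; ring
    · show cp a m' 9 = a 9
      rw [cp9, z9, z3, z4, z5, z6]; ring
    · show cp a m' 10 = a 10
      rw [cp10, z10, z3, z4]; ring
    · show cp a m' 11 = a 11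
      rw [cp11, z11, z10, z9, z3, z4, z5, z6]; ring
  rw [e] at key
  exact key

/-! ### algebra -/

section algebra

variable {R : Type*} [CommRing R] {a w A V c : Fin 12 → R} {z al ki h2 : R}

theorem alg3 (hk : ki * (1 + al * al) = 1) (w3 : w 3 = a 3 + c 3) (w4 : w 4 = a 4 + c 4)
    (c4 : c 4 = al * c 3) :
    ki * (w 3 + al * w 4) - ki * (a 3 + al * a 4) = c 3 := by
  rw [w3, w4, c4]
  linear_combination c 3 * hk

theorem alg5 (hk : ki * (1 + al * al) = 1) (w3 : w 3 = a 3 + c 3) (w4 : w 4 = a 4 + c 4)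
    (w5 : w 5 = a 5 + c 5 - z * c 3) (w6 : w 6 = a 6 + c 6 - z * c 4)
    (c4 : c 4 = al * c 3) (c6 : c 6 = al * c 5) :
    (ki * (w 5 + al * w 6) + z * (ki * (w 3 + al * w 4))) -
      (ki * (a 5 + al * a 6) + z * (ki * (a 3 + al * a 4))) = c 5 := by
  rw [w3, w4, w5, w6, c6, c4]
  linear_combination c 5 * hk

theorem alg9 (hk : ki * (1 + al * al) = 1) (hh : h2 + h2 = 1) (w3 : w 3 = a 3 + c 3)
    (w4 : w 4 = a 4 + c 4)
    (w5 : w 5 = a 5 + c 5 - z * c 3) (w6 : w 6 = a 6 + c 6 - z * c 4)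
    (w9 : w 9 = a 9 + c 9 - z * ((c 3 * c 3 + c 4 * c 4) * h2) + a 3 * (c 5 - z * c 3) +
      a 4 * (c 6 - z * c 4)) (c4 : c 4 = al * c 3) (c6 : c 6 = al * c 5) {ci cl : R}
    (hci : ci = ki * (a 3 + al * a 4)) (hcl : cl = ci + c 3) :
    (1 + al * al) * (((ki * w 9 + z * (cl * cl) * h2) - (ki * a 9 + z * (ci * ci) * h2)) -
      ci * c 5) = c 9 := by
  have e1 : (1 + al * al) * ci = a 3 + al * a 4 := by
    rw [hci]; linear_combination (a 3 + al * a 4) * hk
  rw [hcl, w9, c6, c4]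
  linear_combination (a 9 + c 9 - z * ((c 3 * c 3 + al * c 3 * (al * c 3)) * h2) +
    a 3 * (c 5 - z * c 3) + a 4 * (al * c 5 - z * (al * c 3)) - a 9) * hk +
    (z * c 3 * (h2 + h2) - c 5) * e1 + (z * c 3 * (a 3 + al * a 4)) * hh

theorem alg7 (w7 : w 7 = a 7 + c 7 + a 2 * c 3) (w8 : w 8 = a 8 + c 8 + a 2 * c 4)
    (c4 : c 4 = al * c 3) :
    (w 7 + al * w 8) - (a 7 + al * a 8) - (1 + al * al) * a 2 * c 3 = c 7 + al * c 8 := by
  rw [w7, w8, c4]; ring

theorem alg10 (w10 : w 10 = a 10 + c 10 - a 7 * c 3 - a 8 * c 4 -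
    a 2 * ((c 3 * c 3 + c 4 * c 4) * h2)) (c4 : c 4 = al * c 3) :
    w 10 - a 10 + (a 7 + al * a 8) * c 3 + (1 + al * al) * a 2 * (c 3 * c 3) * h2 = c 10 := by
  rw [w10, c4]; ring

theorem alg11 (w10 : w 10 = a 10 + c 10 - a 7 * c 3 - a 8 * c 4 -
    a 2 * ((c 3 * c 3 + c 4 * c 4) * h2))
    (w11 : w 11 = a 11 + c 11 - z * c 10 - a 7 * (c 5 - z * c 3) - a 8 * (c 6 - z * c 4) -
      a 2 * (c 9 - z * ((c 3 * c 3 + c 4 * c 4) * h2))) (c6 : c 6 = al * c 5) {H : R}
    (hH : (1 + al * al) * H = c 9) :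
    ((w 11 + z * w 10) - (a 11 + z * a 10)) + (a 7 + al * a 8) * c 5 +
      (1 + al * al) * a 2 * H = c 11 := by
  have e : (1 + al * al) * a 2 * H = a 2 * c 9 := by rw [← hH]; ring
  rw [e, w10, w11, c6]; ring

end algebra

/-! ### the theorem -/

section main

/-- the coordinates of the fat line `l` from the base incidence -/
noncomputable def gv (W : Wnd 12 ι) (s : Fin 12) (n l : ℕ) : ℝ :=
  W.crd n (W.s₀ n) (lrep W n l) s

/-- the inverse of `1 + al ^ 2` -/
noncomputable def ki (al : ℕ → ℝ) (n : ℕ) : ℝ := (1 + al n * al n)⁻¹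

/-- position, at the height of the base incidence -/
noncomputable def gAX (W : Wnd 12 ι) (al : ℕ → ℝ) (n l : ℕ) : ℝ :=
  ki al n * (gv W 5 n l + al n * gv W 6 n l)

/-- velocity -/
noncomputable def gC (W : Wnd 12 ι) (al : ℕ → ℝ) (n l : ℕ) : ℝ :=
  ki al n * (gv W 3 n l + al n * gv W 4 n l)

/-- depth -/
noncomputable def gAH (W : Wnd 12 ι) (al : ℕ → ℝ) (n l : ℕ) : ℝ := ki al n * gv W 9 n l

/-- first flag -/
noncomputable def gB (W : Wnd 12 ι) (al : ℕ → ℝ) (n l : ℕ) : ℝ := gv W 7 n l + al n * gv W 8 n l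

/-- curvature flag of an incidence -/
noncomputable def gE (W : Wnd 12 ι) (n k l : ℕ) : ℝ := W.crd n (W.s₀ n) (W.rep n l k) 2

variable {E : ∀ n, Finset (ι n)} {x : ℝ}

theorem sm_of (hx : x ≤ tp) {f : Ix → ℝ} {c : ℝ} (h : ∀ᶠ n in (U : Filter ℕ), ∀ k i l,
    (i, k) ∈ (W.cfg E n).I → (l, k) ∈ (W.cfg E n).I → |f (n, k, i, l)| ≤ c * W.B'.d n ^ tp) :
    Sm W.B' (W.cfg E) x f := by
  intro ε hε
  filter_upwards [h, ev_up W c tp hε] with n h1 h2
  intro k i l hi hl
  exact (h1 k i l hi hl).trans (h2.trans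
    (Real.rpow_le_rpow_of_exponent_ge (W.B'.pos n) (W.B'.lt n).le (by linarith)))

theorem bd_of {f : Ix → ℝ} (h : ∀ᶠ n in (U : Filter ℕ), ∀ k i l,
    (i, k) ∈ (W.cfg E n).I → (l, k) ∈ (W.cfg E n).I → |f (n, k, i, l)| ≤ 1) :
    Sm W.B' (W.cfg E) 0 f := by
  intro ε hε
  filter_upwards [h] with n h1
  intro k i l hi hl
  rw [zero_sub]
  exact (h1 k i l hi hl).trans
    (Real.one_le_rpow_of_pos_of_le_one_of_nonpos (W.B'.pos n) (W.B'.lt n).le (by linarith))

theorem one_le_kap (t : ℝ) : 1 ≤ 1 + t * t := by nlinarith [mul_self_nonneg t]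

theorem ki_le (al : ℕ → ℝ) (n : ℕ) : |ki al n| ≤ 1 := by
  have h := one_le_kap (al n)
  unfold ki
  rw [abs_of_nonneg (by positivity)]
  exact inv_le_one_of_one_le₀ h

theorem ki_mul (al : ℕ → ℝ) (n : ℕ) : ki al n * (1 + al n * al n) = 1 := by
  have h := one_le_kap (al n)
  unfold ki
  exact inv_mul_cancel₀ (by linarith)

/-- slots `≥ 3` of an incidence are those of its fat line -/
theorem line_close (h : WL W K tp) (h7 : (7 : Fin 12) ∉ W.S)
    (h8 : (8 : Fin 12) ∉ W.S) (t7 : tp ≤ W.top 7) (t8 : tp ≤ W.top 8) {n : ℕ} (r : Reg W E n)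
    (f : FrX W K 0 tp n) {k l : ℕ} (hI : (l, k) ∈ (W.cfg E n).I) {s : Fin 12}
    (hs : s = 2 ∧ (2 : Fin 12) ∉ W.S ∧ tp ≤ W.top 2 ∨ 3 ≤ s) :
    |W.crd n (W.s₀ n) (W.rep n l k) s - gv W s n l| ≤ 96 * W.B'.d n ^ tp := by
  obtain ⟨a1, a2, a3⟩ := r.spec hI
  obtain ⟨b1, b2⟩ := lrep_reg r hI
  have s1 : s ≠ 1 := by
    rintro rfl
    rcases hs with ⟨h1, -⟩ | h1
    · exact absurd h1 (by decide)
    · exact absurd h1 (by decide)
  have e := h.crd_add (W.s₀ n) (lrep W n l) (W.rep n l k) s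
  have t1 := f.compW h le_rfl zero_le_one (h.crd_le r.good r.good.s0 b1)
    (h.crd_le r.good b1 a1) s1
  rw [← e] at t1
  have lc : W.lc n (lrep W n l) = W.lc n (W.rep n l k) := b2.trans a2.symm
  have hm : ∀ k', 3 ≤ k' → |W.crd n (lrep W n l) (W.rep n l k) k'| ≤ W.B'.d n ^ tp := by
    intro k' hk'
    by_cases hSL : k' ∈ SL
    · have : k' = 7 ∨ k' = 8 := by
        revert hk' hSL; revert k'; decide
      rcases this with rfl | rfl
      · exact h.crd_l r.good b1 a1 lc h7 t7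
      · exact h.crd_l r.good b1 a1 lc h8 t8
    · exact h.crd_l r.good b1 a1 lc (h.notS hSL) (h.topL _ hSL)
  have t2 := cp_line (s := s) (h.r0 n) (h.crd_le r.good r.good.s0 b1) (h.crd_le r.good b1 a1)
    (by
      rcases hs with ⟨h1, h2, h3⟩ | h1
      · exact Or.inl ⟨h1, h.crd_l r.good b1 a1 lc h2 h3⟩
      · exact Or.inr h1) hm
  have t1' : |W.crd n (W.s₀ n) (W.rep n l k) s -
      cp (W.crd n (W.s₀ n) (lrep W n l)) (W.crd n (lrep W n l) (W.rep n l k)) s| ≤
      48 * W.B'.d n ^ tp := t1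
  show |W.crd n (W.s₀ n) (W.rep n l k) s - W.crd n (W.s₀ n) (lrep W n l) s| ≤ _
  rw [abs_le] at t1' t2 ⊢
  constructor <;> linarith [t1'.1, t1'.2, t2.1, t2.2]

/-- **global coordinates**: `D` frozen, `B, C, X, N, P, F` resolved along the fat lines, the slot
`2` free -/
theorem gc_of (h : WL W K tp) (h2 : (2 : Fin 12) ∉ W.S) (h7 : (7 : Fin 12) ∉ W.S)
    (h8 : (8 : Fin 12) ∉ W.S) (t7 : tp ≤ W.top 7) (t8 : tp ≤ W.top 8)
    (hE : ∀ᶠ n in (U : Filter ℕ), Reg W E n) (hX : ∀ᶠ n in (U : Filter ℕ), FrX W K 0 tp n)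
    (hx : x ≤ tp) {al : ℕ → ℝ}
    (hal : ∀ ε : ℝ, 0 < ε → ∀ᶠ n in (U : Filter ℕ), |al n| ≤ W.B'.d n ^ (-ε))
    (tc : ∀ ε : ℝ, 0 < ε → ∀ᶠ n in (U : Filter ℕ), ∀ k i l, (i, k) ∈ (W.cfg E n).I →
      (l, k) ∈ (W.cfg E n).I →
      |(W.cfg E n).rel k i l 4 - al n * (W.cfg E n).rel k i l 3| ≤ W.B'.d n ^ (x - ε))
    (tx : ∀ ε : ℝ, 0 < ε → ∀ᶠ n in (U : Filter ℕ), ∀ k i l, (i, k) ∈ (W.cfg E n).I →
      (l, k) ∈ (W.cfg E n).I →
      |(W.cfg E n).rel k i l 6 - al n * (W.cfg E n).rel k i l 5| ≤ W.B'.d n ^ (x - ε)) :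
    GC W.B' (W.cfg E) al (gAX W al) (gAH W al) (gv W 11) (gC W al) (gv W 10) (gB W al) (gE W) x := by
  -- the elements
  have ba : ∀ s : Fin 12, Sm W.B' (W.cfg E) 0
      (fun p : Ix => W.crd p.1 (W.s₀ p.1) (W.rep p.1 p.2.2.1 p.2.1) s) := fun s => bd_of (by
    filter_upwards [hE] with n r
    intro k i l hi hl
    exact h.crd_le r.good r.good.s0 (r.spec hi).1 s)
  have bw : ∀ s : Fin 12, Sm W.B' (W.cfg E) 0
      (fun p : Ix => W.crd p.1 (W.s₀ p.1) (W.rep p.1 p.2.2.2 p.2.1) s) := fun s => bd_of (by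
    filter_upwards [hE] with n r
    intro k i l hi hl
    exact h.crd_le r.good r.good.s0 (r.spec hl).1 s)
  have bA : ∀ s : Fin 12, Sm W.B' (W.cfg E) 0
      (fun p : Ix => gv W s p.1 p.2.2.1) := fun s => bd_of (by
    filter_upwards [hE] with n r
    intro k i l hi hl
    exact h.crd_le r.good r.good.s0 (lrep_reg r hi).1 s)
  have bV : ∀ s : Fin 12, Sm W.B' (W.cfg E) 0
      (fun p : Ix => gv W s p.1 p.2.2.2) := fun s => bd_of (by
    filter_upwards [hE] with n r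
    intro k i l hi hl
    exact h.crd_le r.good r.good.s0 (lrep_reg r hl).1 s)
  have bc : ∀ s : Fin 12, Sm W.B' (W.cfg E) 0
      (fun p : Ix => W.crd p.1 (W.rep p.1 p.2.2.1 p.2.1) (W.rep p.1 p.2.2.2 p.2.1) s) :=
    fun s => bd_of (by
    filter_upwards [hE] with n r
    intro k i l hi hl
    exact h.crd_le r.good (r.spec hi).1 (r.spec hl).1 s)
  have bz : Sm W.B' (W.cfg E) 0 (fun p : Ix => (W.cfg E p.1).z p.2.1) := bd_of (by
    filter_upwards [hE] with n r
    intro k i l hi hl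
    show |(W.cfg E n).z k| ≤ 1
    rw [r.z_eq]
    exact h.crd_le r.good r.good.s0 (r.zspec ⟨i, hi⟩).1 _)
  have bal : Sm W.B' (W.cfg E) 0 (fun p : Ix => al p.1) := by
    intro ε hε
    filter_upwards [hal ε hε] with n h1
    intro k i l hi hl
    rw [zero_sub]
    exact h1
  have bk : Sm W.B' (W.cfg E) 0 (fun p : Ix => ki al p.1) :=
    bd_of (Eventually.of_forall fun n k i l _ _ => ki_le al n)
  have bh : Sm W.B' (W.cfg E) 0 (fun p : Ix => (1 / 2 : ℝ)) :=
    bd_of (Eventually.of_forall fun n k i l _ _ => by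
      show |(1 / 2 : ℝ)| ≤ 1
      rw [abs_of_pos (by norm_num)]; norm_num)
  set ea : Fin 12 → bdR W.B' (W.cfg E) := fun s => mkB _ (ba s) with hea
  set ew : Fin 12 → bdR W.B' (W.cfg E) := fun s => mkB _ (bw s) with hew
  set eA : Fin 12 → bdR W.B' (W.cfg E) := fun s => mkB _ (bA s) with heA
  set eV : Fin 12 → bdR W.B' (W.cfg E) := fun s => mkB _ (bV s) with heV
  set ec : Fin 12 → bdR W.B' (W.cfg E) := fun s => mkB _ (bc s) with hec
  set ez : bdR W.B' (W.cfg E) := mkB _ bz with hez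
  set el : bdR W.B' (W.cfg E) := mkB _ bal with hel
  set ek : bdR W.B' (W.cfg E) := mkB _ bk with hek
  set eh : bdR W.B' (W.cfg E) := mkB _ bh with heh
  set q := Ideal.Quotient.mk (smI W.B' (W.cfg E) x) with hq
  -- relations
  have law : ∀ (s : Fin 12), s ≠ 1 → ∀ g : bdR W.B' (W.cfg E),
      (∀ p : Ix, g.1 p = cp (fun j => (ea j).1 p) (fun j => (ec j).1 p) s) → q (ew s) = q g := by
    intro s hs g hg
    refine mk_eq.2 (sm_of hx (c := 48) ?_)
    filter_upwards [hE, hX] with n r f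
    intro k i l hi hl
    have hi' := (r.spec hi).1
    have hl' := (r.spec hl).1
    have t1 := f.compW h le_rfl zero_le_one (h.crd_le r.good r.good.s0 hi')
      (h.crd_le r.good hi' hl') hs
    rw [← h.crd_add] at t1
    show |(ew s).1 (n, k, i, l) - g.1 (n, k, i, l)| ≤ _
    rw [hg]
    exact t1
  have hz : q (ea 0) = q ez := by
    refine mk_eq.2 (sm_of hx (c := 1) ?_)
    filter_upwards [hE] with n r
    intro k i l hi hl
    obtain ⟨a1, a2, a3⟩ := r.spec hi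
    obtain ⟨b1, b3⟩ := r.zspec ⟨i, hi⟩
    have e1 := h.crd_z_add (W.s₀ n) (W.zrep n k) (W.rep n i k)
    show |W.crd n (W.s₀ n) (W.rep n i k) 0 - (W.cfg E n).z k| ≤ _
    rw [r.z_eq, h.kz, e1, add_sub_cancel_left, one_mul]
    exact h.crd_z r.good b1 a1 (b3.trans a3.symm) h.z0
  have hA : ∀ s : Fin 12, 3 ≤ s → q (ea s) = q (eA s) := by
    intro s hs
    refine mk_eq.2 (sm_of hx (c := 96) ?_)
    filter_upwards [hE, hX] with n r f
    intro k i l hi hl
    exact line_close h h7 h8 t7 t8 r f hi (Or.inr hs)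
  have hV : ∀ s : Fin 12, 3 ≤ s → q (ew s) = q (eV s) := by
    intro s hs
    refine mk_eq.2 (sm_of hx (c := 96) ?_)
    filter_upwards [hE, hX] with n r f
    intro k i l hi hl
    exact line_close h h7 h8 t7 t8 r f hl (Or.inr hs)
  have n3 : (3 : Fin 12) ∉ W.S := h.notS (by decide)
  have n4 : (4 : Fin 12) ∉ W.S := h.notS (by decide)
  have n5 : (5 : Fin 12) ∉ W.S := h.notS (by decide)
  have n6 : (6 : Fin 12) ∉ W.S := h.notS (by decide)
  have c4 : q (ec 4) = q el * q (ec 3) := by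
    rw [← map_mul]
    refine mk_eq.2 fun ε hε => ?_
    filter_upwards [hE, tc ε hε] with n r h1
    intro k i l hi hl
    have := h1 k i l hi hl
    rw [r.rel_of n3, r.rel_of n4] at this
    exact this
  have c6 : q (ec 6) = q el * q (ec 5) := by
    rw [← map_mul]
    refine mk_eq.2 fun ε hε => ?_
    filter_upwards [hE, tx ε hε] with n r h1
    intro k i l hi hl
    have := h1 k i l hi hl
    rw [r.rel_of n5, r.rel_of n6] at this
    exact this
  have hk : q ek * (1 + q el * q el) = 1 := by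
    have e : ek * (1 + el * el) = 1 := by
      apply Subtype.ext
      funext p
      exact ki_mul al p.1
    rw [← map_one q, ← map_mul, ← map_add, ← map_mul, e]
  have hh : q eh + q eh = 1 := by
    have e : eh + eh = 1 := by
      apply Subtype.ext
      funext p
      show (1 / 2 : ℝ) + 1 / 2 = 1
      norm_num
    rw [← map_one q, ← map_add, e]
  have w2 : q (ew 2) = q (ea 2) + q (ec 2) := by
    rw [law 2 (by decide) (ea 2 + ec 2) fun p =>
      (cp2 (fun j => (ea j).1 p) (fun j => (ec j).1 p)).symm, map_add]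
  have w3 : q (ew 3) = q (ea 3) + q (ec 3) := by
    rw [law 3 (by decide) (ea 3 + ec 3) fun p =>
      (cp3 (fun j => (ea j).1 p) (fun j => (ec j).1 p)).symm, map_add]
  have w4 : q (ew 4) = q (ea 4) + q (ec 4) := by
    rw [law 4 (by decide) (ea 4 + ec 4) fun p =>
      (cp4 (fun j => (ea j).1 p) (fun j => (ec j).1 p)).symm, map_add]
  have w5 : q (ew 5) = q (ea 5) + q (ec 5) - q ez * q (ec 3) := by
    rw [law 5 (by decide) (ea 5 + ec 5 - ea 0 * ec 3) fun p =>
      (cp5 (fun j => (ea j).1 p) (fun j => (ec j).1 p)).symm, map_sub, map_add,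
      map_mul, hz]
  have w6 : q (ew 6) = q (ea 6) + q (ec 6) - q ez * q (ec 4) := by
    rw [law 6 (by decide) (ea 6 + ec 6 - ea 0 * ec 4) fun p =>
      (cp6 (fun j => (ea j).1 p) (fun j => (ec j).1 p)).symm, map_sub, map_add,
      map_mul, hz]
  have w7 : q (ew 7) = q (ea 7) + q (ec 7) + q (ea 2) * q (ec 3) := by
    rw [law 7 (by decide) (ea 7 + ec 7 + ea 2 * ec 3) fun p =>
      (cp7 (fun j => (ea j).1 p) (fun j => (ec j).1 p)).symm, map_add, map_add,
      map_mul]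
  have w8 : q (ew 8) = q (ea 8) + q (ec 8) + q (ea 2) * q (ec 4) := by
    rw [law 8 (by decide) (ea 8 + ec 8 + ea 2 * ec 4) fun p =>
      (cp8 (fun j => (ea j).1 p) (fun j => (ec j).1 p)).symm, map_add, map_add,
      map_mul]
  have hq2 : ∀ p : Ix, eh.1 p = 1 / 2 := fun p => rfl
  have w9 : q (ew 9) = q (ea 9) + q (ec 9) -
      q ez * ((q (ec 3) * q (ec 3) + q (ec 4) * q (ec 4)) * q eh) +
      q (ea 3) * (q (ec 5) - q ez * q (ec 3)) + q (ea 4) * (q (ec 6) - q ez * q (ec 4)) := by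
    rw [law 9 (by decide) (ea 9 + ec 9 - ea 0 * ((ec 3 * ec 3 + ec 4 * ec 4) * eh) +
      ea 3 * (ec 5 - ea 0 * ec 3) + ea 4 * (ec 6 - ea 0 * ec 4)) fun p => ?_]
    · simp only [map_add, map_sub, map_mul, hz]
    · rw [cp9]
      show (ea 9).1 p + (ec 9).1 p - (ea 0).1 p * (((ec 3).1 p * (ec 3).1 p +
        (ec 4).1 p * (ec 4).1 p) * (1 / 2)) + (ea 3).1 p * ((ec 5).1 p - (ea 0).1 p * (ec 3).1 p) +
        (ea 4).1 p * ((ec 6).1 p - (ea 0).1 p * (ec 4).1 p) = _
      ring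
  have w10 : q (ew 10) = q (ea 10) + q (ec 10) - q (ea 7) * q (ec 3) - q (ea 8) * q (ec 4) -
      q (ea 2) * ((q (ec 3) * q (ec 3) + q (ec 4) * q (ec 4)) * q eh) := by
    rw [law 10 (by decide) (ea 10 + ec 10 - ea 7 * ec 3 - ea 8 * ec 4 -
      ea 2 * ((ec 3 * ec 3 + ec 4 * ec 4) * eh)) fun p => ?_]
    · simp only [map_add, map_sub, map_mul]
    · rw [cp10]
      show (ea 10).1 p + (ec 10).1 p - (ea 7).1 p * (ec 3).1 p - (ea 8).1 p * (ec 4).1 p -
        (ea 2).1 p * (((ec 3).1 p * (ec 3).1 p + (ec 4).1 p * (ec 4).1 p) * (1 / 2)) = _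
      ring
  have w11 : q (ew 11) = q (ea 11) + q (ec 11) - q ez * q (ec 10) -
      q (ea 7) * (q (ec 5) - q ez * q (ec 3)) - q (ea 8) * (q (ec 6) - q ez * q (ec 4)) -
      q (ea 2) * (q (ec 9) -
        q ez * ((q (ec 3) * q (ec 3) + q (ec 4) * q (ec 4)) * q eh)) := by
    rw [law 11 (by decide) (ea 11 + ec 11 - ea 0 * ec 10 - ea 7 * (ec 5 - ea 0 * ec 3) -
      ea 8 * (ec 6 - ea 0 * ec 4) - ea 2 * (ec 9 -
        ea 0 * ((ec 3 * ec 3 + ec 4 * ec 4) * eh))) fun p => ?_]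
    · simp only [map_add, map_sub, map_mul, hz]
    · rw [cp11]
      show (ea 11).1 p + (ec 11).1 p - (ea 0).1 p * (ec 10).1 p -
        (ea 7).1 p * ((ec 5).1 p - (ea 0).1 p * (ec 3).1 p) -
        (ea 8).1 p * ((ec 6).1 p - (ea 0).1 p * (ec 4).1 p) -
        (ea 2).1 p * ((ec 9).1 p - (ea 0).1 p *
          (((ec 3).1 p * (ec 3).1 p + (ec 4).1 p * (ec 4).1 p) * (1 / 2))) = _
      ring
  -- conclusions
  set Ci : bdR W.B' (W.cfg E) := ek * (eA 3 + el * eA 4) with hCi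
  set Cl : bdR W.B' (W.cfg E) := ek * (eV 3 + el * eV 4) with hCl
  set Xi : bdR W.B' (W.cfg E) := ek * (eA 5 + el * eA 6) + ez * Ci with hXi
  set Xl : bdR W.B' (W.cfg E) := ek * (eV 5 + el * eV 6) + ez * Cl with hXl
  set Hi : bdR W.B' (W.cfg E) := ek * eA 9 + ez * (Ci * Ci) * eh with hHi
  set Hl : bdR W.B' (W.cfg E) := ek * eV 9 + ez * (Cl * Cl) * eh with hHl
  have qCi : q Ci = q ek * (q (ea 3) + q el * q (ea 4)) := by
    rw [hCi, map_mul, map_add, map_mul, hA 3 (by decide), hA 4 (by decide)]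
  have qCl : q Cl = q ek * (q (ew 3) + q el * q (ew 4)) := by
    rw [hCl, map_mul, map_add, map_mul, hV 3 (by decide), hV 4 (by decide)]
  have s3 : q (ec 3) = q (Cl - Ci) := by
    rw [map_sub, qCi, qCl]
    exact (alg3 (a := fun s => q (ea s)) (w := fun s => q (ew s)) (c := fun s => q (ec s))
      hk w3 w4 c4).symm
  have s3' : q Cl = q Ci + q (ec 3) := by rw [s3, map_sub]; ring
  have qXi : q Xi = q ek * (q (ea 5) + q el * q (ea 6)) + q ez * q Ci := by
    rw [hA 5 (by decide), hA 6 (by decide), hXi]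
    simp only [map_add, map_mul]
  have qXl : q Xl = q ek * (q (ew 5) + q el * q (ew 6)) + q ez * q Cl := by
    rw [hV 5 (by decide), hV 6 (by decide), hXl]
    simp only [map_add, map_mul]
  have s5 : q (ec 5) = q (Xl - Xi) := by
    rw [map_sub, qXi, qXl, qCi, qCl]
    exact (alg5 (a := fun s => q (ea s)) (w := fun s => q (ew s)) (c := fun s => q (ec s))
      hk w3 w4 w5 w6 c4 c6).symm
  have qHi : q Hi = q ek * q (ea 9) + q ez * (q Ci * q Ci) * q eh := by
    rw [hA 9 (by decide), hHi]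
    simp only [map_add, map_mul]
  have qHl : q Hl = q ek * q (ew 9) + q ez * (q Cl * q Cl) * q eh := by
    rw [hV 9 (by decide), hHl]
    simp only [map_add, map_mul]
  have s9 : (1 + q el * q el) * (q Hl - q Hi - q Ci * q (ec 5)) = q (ec 9) := by
    rw [qHl, qHi]
    exact alg9 (a := fun s => q (ea s)) (w := fun s => q (ew s)) (c := fun s => q (ec s))
      hk hh w3 w4 w5 w6 w9 c4 c6 qCi s3'
  have f9 : q (ec 9) = q ((1 + el * el) * (Hl - Hi - Ci * (Xl - Xi))) := by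
    rw [map_mul, map_sub q (Hl - Hi), map_mul q Ci, ← s5, map_sub, map_add, map_mul, map_one]
    exact s9.symm
  have f7 : q (ec 7 + el * ec 8) = q ((eV 7 + el * eV 8) - (eA 7 + el * eA 8) -
      (1 + el * el) * ea 2 * (Cl - Ci)) := by
    rw [map_sub, map_mul q _ (Cl - Ci), ← s3]
    simp only [map_add, map_sub, map_mul, map_one]
    rw [← hV 7 (by decide), ← hV 8 (by decide), ← hA 7 (by decide), ← hA 8 (by decide)]
    exact (alg7 (a := fun s => q (ea s)) (w := fun s => q (ew s)) (c := fun s => q (ec s))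
      w7 w8 c4).symm
  have f10 : q (ec 10) = q (eV 10 - eA 10 + (eA 7 + el * eA 8) * (Cl - Ci) +
      (1 + el * el) * ea 2 * ((Cl - Ci) * (Cl - Ci)) * eh) := by
    rw [map_add, map_add, map_mul q _ (Cl - Ci), map_mul q _ eh, map_mul q _ ((Cl - Ci) * _),
      map_mul q (Cl - Ci), ← s3]
    simp only [map_add, map_sub, map_mul, map_one]
    rw [← hV 10 (by decide), ← hA 7 (by decide), ← hA 8 (by decide), ← hA 10 (by decide)]
    exact (alg10 (a := fun s => q (ea s)) (w := fun s => q (ew s)) (c := fun s => q (ec s))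
      w10 c4).symm
  have f11 : q (ec 11) = q (((eV 11 + ez * eV 10) - (eA 11 + ez * eA 10)) +
      (eA 7 + el * eA 8) * (Xl - Xi) +
      (1 + el * el) * ea 2 * (Hl - Hi - Ci * (Xl - Xi))) := by
    rw [map_add, map_add, map_mul q _ (Xl - Xi), map_mul q _ (Hl - Hi - _),
      map_sub q (Hl - Hi), map_mul q Ci, ← s5]
    simp only [map_add, map_sub, map_mul, map_one]
    rw [← hV 10 (by decide), ← hV 11 (by decide), ← hA 7 (by decide), ← hA 8 (by decide),
      ← hA 10 (by decide), ← hA 11 (by decide)]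
    exact (alg11 (a := fun s => q (ea s)) (w := fun s => q (ew s)) (c := fun s => q (ec s))
      w10 w11 c6 s9).symm
  refine ⟨hal, ?_, ?_, ?_, ?_, ?_, ?_, ?_, ?_⟩
  · intro ε hε
    filter_upwards [bz ε hε, (ek * (eA 5 + el * eA 6)).2 ε hε, (ek * eA 9).2 ε hε,
      bA 11 ε hε, Ci.2 ε hε, bA 10 ε hε, (eA 7 + el * eA 8).2 ε hε, ba 2 ε hε] with
      n h0 h1 h2 h3 h4 h5 h6 h7
    intro k i hi
    have e := zero_sub ε
    rw [← e]
    exact ⟨h0 k i i hi hi, h1 k i i hi hi, h2 k i i hi hi, h3 k i i hi hi, h4 k i i hi hi,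
      h5 k i i hi hi, h6 k i i hi hi, h7 k i i hi hi⟩
  · intro ε hε
    have w2' : q (ec 2) = q (ew 2 - ea 2) := by rw [map_sub, w2]; ring
    filter_upwards [hE, mk_eq.1 w2' ε hε] with n r h1
    intro k i l hi hl
    rw [r.rel_of h2]
    exact h1 k i l hi hl
  · intro ε hε
    filter_upwards [hE, mk_eq.1 s3 ε hε] with n r h1
    intro k i l hi hl
    rw [r.rel_of n3]
    exact h1 k i l hi hl
  · intro ε hε
    filter_upwards [hE, mk_eq.1 s5 ε hε] with n r h1
    intro k i l hi hl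
    rw [r.rel_of n5]
    exact h1 k i l hi hl
  · intro ε hε
    filter_upwards [hE, mk_eq.1 f9 ε hε] with n r h1
    intro k i l hi hl
    refine le_trans (le_of_eq ?_) (h1 k i l hi hl)
    rw [r.rel_of (h.notS (by decide))]
    congr 1
    show _ = W.crd n (W.rep n i k) (W.rep n l k) 9 - (1 + al n * al n) *
      ((gAH W al n l + (W.cfg E n).z k * (gC W al n l * gC W al n l) * (1 / 2)) -
        (gAH W al n i + (W.cfg E n).z k * (gC W al n i * gC W al n i) * (1 / 2)) -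
        gC W al n i * ((gAX W al n l + (W.cfg E n).z k * gC W al n l) -
          (gAX W al n i + (W.cfg E n).z k * gC W al n i)))
    ring
  · intro ε hε
    filter_upwards [hE, mk_eq.1 f7 ε hε] with n r h1
    intro k i l hi hl
    refine le_trans (le_of_eq ?_) (h1 k i l hi hl)
    rw [r.rel_of h7, r.rel_of h8]
    congr 1
    show _ = (W.crd n (W.rep n i k) (W.rep n l k) 7 +
      al n * W.crd n (W.rep n i k) (W.rep n l k) 8) -
      (gB W al n l - gB W al n i - (1 + al n * al n) * gE W n k i *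
        (gC W al n l - gC W al n i))
    ring
  · intro ε hε
    filter_upwards [hE, mk_eq.1 f10 ε hε] with n r h1
    intro k i l hi hl
    refine le_trans (le_of_eq ?_) (h1 k i l hi hl)
    rw [r.rel_of (h.notS (by decide))]
    congr 1
    show _ = W.crd n (W.rep n i k) (W.rep n l k) 10 -
      (gv W 10 n l - gv W 10 n i + gB W al n i * (gC W al n l - gC W al n i) +
        (1 + al n * al n) * gE W n k i * ((gC W al n l - gC W al n i) *
          (gC W al n l - gC W al n i)) * (1 / 2))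
    ring
  · intro ε hε
    filter_upwards [hE, mk_eq.1 f11 ε hε] with n r h1
    intro k i l hi hl
    refine le_trans (le_of_eq ?_) (h1 k i l hi hl)
    rw [r.rel_of (h.notS (by decide))]
    congr 1
    show _ = W.crd n (W.rep n i k) (W.rep n l k) 11 -
      (((gv W 11 n l + (W.cfg E n).z k * gv W 10 n l) -
        (gv W 11 n i + (W.cfg E n).z k * gv W 10 n i)) +
        gB W al n i * ((gAX W al n l + (W.cfg E n).z k * gC W al n l) -
          (gAX W al n i + (W.cfg E n).z k * gC W al n i)) +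
        (1 + al n * al n) * gE W n k i *
        ((gAH W al n l + (W.cfg E n).z k * (gC W al n l * gC W al n l) * (1 / 2)) -
        (gAH W al n i + (W.cfg E n).z k * (gC W al n i * gC W al n i) * (1 / 2)) -
        gC W al n i * ((gAX W al n l + (W.cfg E n).z k * gC W al n l) -
          (gAX W al n i + (W.cfg E n).z k * gC W al n i))))
    ring

/-- the curvature flag is a function of the fat line when the slot `2` is resolved -/
theorem gE_line (h : WL W K tp) (h2 : (2 : Fin 12) ∉ W.S) (h7 : (7 : Fin 12) ∉ W.S)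
    (h8 : (8 : Fin 12) ∉ W.S) (t2 : tp ≤ W.top 2) (t7 : tp ≤ W.top 7) (t8 : tp ≤ W.top 8)
    (hE : ∀ᶠ n in (U : Filter ℕ), Reg W E n) (hX : ∀ᶠ n in (U : Filter ℕ), FrX W K 0 tp n)
    (hx : x ≤ tp) {ε : ℝ} (hε : 0 < ε) : ∀ᶠ n in (U : Filter ℕ), ∀ k l,
      (l, k) ∈ (W.cfg E n).I → |gE W n k l - gv W 2 n l| ≤ W.B'.d n ^ (x - ε) := by
  filter_upwards [hE, hX, ev_up W 96 tp hε] with n r f hu
  intro k l hI
  exact (line_close h h7 h8 t7 t8 r f hI (Or.inl ⟨rfl, h2, t2⟩)).trans (hu.trans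
    (Real.rpow_le_rpow_of_exponent_ge (W.B'.pos n) (W.B'.lt n).le (by linarith)))

end main

namespace GC

variable {B : Base} {G : ℕ → RCfg (Fin 12)} {al : ℕ → ℝ}
  {AX AH AF C P Bf : ℕ → ℕ → ℝ} {Ef : ℕ → ℕ → ℕ → ℝ} {x : ℝ}

/-- lower precision -/
theorem mono (g : GC B G al AX AH AF C P Bf Ef x) {y : ℝ} (hy : y ≤ x) :
    GC B G al AX AH AF C P Bf Ef y := by
  have up : ∀ n (ε : ℝ), B.d n ^ (x - ε) ≤ B.d n ^ (y - ε) := fun n ε =>
    Real.rpow_le_rpow_of_exponent_ge (B.pos n) (B.lt n).le (by linarith)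
  refine ⟨g.al0, g.bd, ?_, ?_, ?_, ?_, ?_, ?_, ?_⟩
  · intro ε hε
    filter_upwards [g.r2 ε hε] with n h k i l hi hl using (h k i l hi hl).trans (up n ε)
  · intro ε hε
    filter_upwards [g.r3 ε hε] with n h k i l hi hl using (h k i l hi hl).trans (up n ε)
  · intro ε hε
    filter_upwards [g.r5 ε hε] with n h k i l hi hl using (h k i l hi hl).trans (up n ε)
  · intro ε hε
    filter_upwards [g.r9 ε hε] with n h k i l hi hl using (h k i l hi hl).trans (up n ε)
  · intro ε hε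
    filter_upwards [g.r7 ε hε] with n h k i l hi hl using (h k i l hi hl).trans (up n ε)
  · intro ε hε
    filter_upwards [g.r10 ε hε] with n h k i l hi hl using (h k i l hi hl).trans (up n ε)
  · intro ε hε
    filter_upwards [g.r11 ε hε] with n h k i l hi hl using (h k i l hi hl).trans (up n ε)

/-- the slot `D` forgotten -/
theorem drop (g : GC B G al AX AH AF C P Bf Ef x) :
    GC B (fun n => EvL504.drop 1 (G n)) al AX AH AF C P Bf Ef x :=
  ⟨g.al0, g.bd, g.r2, g.r3, g.r5, g.r9, g.r7, g.r10, g.r11⟩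

end GC

end Crest.Agent.R116.Sc299
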