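import Crest.Agent.R116.Sc1_905
import Crest.Agent.R116.Sc3_299

/-!
# R116, K-TEXT II-c, SIG2 (`σ = 2`, helper905), Sc2b: the labels of one class (helper748)

* `h4` : hypothesis `H4` of `Sc905.core`: the lines of one class `(C, B : x)` alive at one height
  have at most `ρ^(-(ν pC - ν pH) - K ε)` labels (their cells of `H - C_j X`, `F + B_j X`).
-/

set_option autoImplicit false
set_option linter.unusedVariables false
set_option linter.unusedSectionVars false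

open Filter Topology Finset

namespace Crest.Agent.R116.Sc748

open Crest.Agent.R138.Ex926 (Base U)
open Crest.Agent.R136.Gf356
open Crest.Agent.R116.Sc905 (Dat floor_diff)
open Crest.Agent.R116.Sc299 (GC)

/-- the global coordinates as data of the finite inequality -/
noncomputable def dat (G : ℕ → RCfg (Fin 12)) (AX AH AF C P Bf : ℕ → ℕ → ℝ) (n : ℕ) : Dat :=
  ⟨AX n, AH n, AF n, C n, P n, Bf n, (G n).z⟩

/-! ### finite part -/

/-- number of cells in a box of the plane -/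
theorem cells2_card (T : Finset (ℤ × ℤ)) (q0 : ℤ × ℤ) {K : ℝ} (hK : 0 ≤ K)
    (h : ∀ q ∈ T, |((q.1 : ℤ) : ℝ) - q0.1| ≤ K ∧ |((q.2 : ℤ) : ℝ) - q0.2| ≤ K) :
    (T.card : ℝ) ≤ (2 * K + 1) ^ 2 := by
  set N : ℤ := ⌊K⌋ with hN
  have hN0 : 0 ≤ N := Int.floor_nonneg.2 hK
  have hNK : (N : ℝ) ≤ K := Int.floor_le K
  have hin : ∀ a b : ℤ, |(a : ℝ) - b| ≤ K → a ∈ Finset.Icc (b - N) (b + N) := by
    intro a b hab
    have h1 : |a - b| ≤ N := by
      rw [hN, Int.le_floor]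
      push_cast
      exact hab
    obtain ⟨h2, h3⟩ := abs_le.1 h1
    rw [Finset.mem_Icc]
    constructor <;> omega
  have hsub : T ⊆ (Finset.Icc (q0.1 - N) (q0.1 + N)) ×ˢ
      (Finset.Icc (q0.2 - N) (q0.2 + N)) := by
    intro q hq
    obtain ⟨h1, h2⟩ := h q hq
    rw [mem_product]
    exact ⟨hin _ _ h1, hin _ _ h2⟩
  have hc := card_le_card hsub
  rw [card_product] at hc
  have hI : ∀ b : ℤ, ((Finset.Icc (b - N) (b + N)).card : ℝ) = 2 * (N : ℝ) + 1 := by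
    intro b
    rw [Int.card_Icc]
    have e1 : b + N + 1 - (b - N) = 2 * N + 1 := by ring
    rw [e1]
    have e2 : ((2 * N + 1).toNat : ℤ) = 2 * N + 1 := Int.toNat_of_nonneg (by omega)
    have e3 : (((2 * N + 1).toNat : ℤ) : ℝ) = ((2 * N + 1 : ℤ) : ℝ) := by rw [e2]
    rw [Int.cast_natCast] at e3
    rw [e3]
    push_cast
    ring
  have hc' : (T.card : ℝ) ≤ (2 * (N : ℝ) + 1) * (2 * (N : ℝ) + 1) := by
    have := (Nat.cast_le (α := ℝ)).2 hc
    rw [Nat.cast_mul, hI, hI] at this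
    exact this
  have hN0' : (0 : ℝ) ≤ N := by exact_mod_cast hN0
  have h3 : (2 * (N : ℝ) + 1) ^ 2 ≤ (2 * K + 1) ^ 2 := by gcongr
  calc (T.card : ℝ) ≤ _ := hc'
    _ = (2 * (N : ℝ) + 1) ^ 2 := by ring
    _ ≤ _ := h3

/-- number of labels of a set of lines on which two functions vary by at most `V` -/
theorem labels_card (T : Finset ℕ) (f g : ℕ → ℝ) {w V : ℝ} (hw : 0 < w) (hV : 0 ≤ V)
    (h : ∀ l ∈ T, ∀ l' ∈ T, |f l - f l'| ≤ V ∧ |g l - g l'| ≤ V) :
    (((T.image fun l => (⌊f l / w⌋, ⌊g l / w⌋)).card : ℕ) : ℝ) ≤ (2 * (V / w) + 3) ^ 2 := by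
  rcases T.eq_empty_or_nonempty with rfl | ⟨l0, hl0⟩
  · rw [image_empty, card_empty, Nat.cast_zero]; positivity
  have key := cells2_card (T.image fun l => (⌊f l / w⌋, ⌊g l / w⌋))
    (⌊f l0 / w⌋, ⌊g l0 / w⌋) (K := V / w + 1) (by positivity) (by
      intro q hq
      obtain ⟨l, hl, rfl⟩ := mem_image.1 hq
      obtain ⟨h1, h2⟩ := h l hl l0 hl0
      have e : ∀ a b : ℝ, |a - b| ≤ V → |((⌊a / w⌋ : ℤ) : ℝ) - ((⌊b / w⌋ : ℤ) : ℝ)| ≤
          V / w + 1 := by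
        intro a b hab
        refine (floor_diff _ _).trans ?_
        rw [← sub_div, abs_div, abs_of_pos hw]
        have := div_le_div_of_nonneg_right hab hw.le
        linarith
      exact ⟨e _ _ h1, e _ _ h2⟩)
  calc _ ≤ (2 * (V / w + 1) + 1) ^ 2 := key
    _ = _ := by ring

/-! ### the count -/

variable {B : Base} {G : ℕ → RCfg (Fin 12)} {Leg : Set (Fin 12 → ℝ)} {ν : (Fin 12 → ℝ) → ℝ}
  {D : ℝ} {al : ℕ → ℝ} {AX AH AF C P Bf : ℕ → ℕ → ℝ} {Ef : ℕ → ℕ → ℕ → ℝ} {x : ℝ}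

set_option maxHeartbeats 1000000 in
open Classical in
/-- **`H4` of `Sc905.core`** -/
theorem h4 (H : RUnif B G Leg ν D) (hG : GC B G al AX AH AF C P Bf Ef x) {pC pH : Fin 12 → ℝ}
    (hpC : pC ∈ Leg) (hpH : pH ∈ Leg) (hCH : ∀ j, pC j ≤ pH j) (h9 : x ≤ pH 9)
    (h11 : x ≤ pH 11) {c : ℝ} (hc : 0 ≤ c)
    (hcls : ∀ ε : ℝ, 0 < ε → ∀ᶠ n in (U : Filter ℕ), ∀ k i l, (i, k) ∈ (G n).I →
      (l, k) ∈ (G n).I → |C n l - C n i| ≤ B.d n ^ (x - ε) → |Bf n l - Bf n i| ≤ B.d n ^ (x - ε) →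
      (G n).loose pC (c * ε) k i l) :
    ∃ K : ℝ, 0 ≤ K ∧ ∀ ε : ℝ, 0 < ε → ∀ᶠ n in (U : Filter ℕ), ∀ k ∈ (G n).Z, ∀ j ∈ (G n).L,
      (((((G n).L.filter fun l => (l, k) ∈ (G n).I ∧
        (dat G AX AH AF C P Bf n).cc (B.d n ^ (x - ε)) l =
          (dat G AX AH AF C P Bf n).cc (B.d n ^ (x - ε)) j).image fun l =>
        (⌊((dat G AX AH AF C P Bf n).H k l -
            (dat G AX AH AF C P Bf n).C j * (dat G AX AH AF C P Bf n).X k l) /
              B.d n ^ (x - ε)⌋,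
          ⌊((dat G AX AH AF C P Bf n).F k l +
            (dat G AX AH AF C P Bf n).Bf j * (dat G AX AH AF C P Bf n).X k l) /
              B.d n ^ (x - ε)⌋)).card : ℕ) : ℝ) ≤ B.d n ^ (-(ν pC - ν pH) - K * ε) := by
  have hD := H.D1
  have hD0 : 0 < D := by linarith
  set c1 : ℝ := c + 1 with hc1
  set K1 : ℝ := D ^ 5 * c1 + 10 with hK1
  have hK10 : 0 ≤ K1 := by positivity
  refine ⟨(D ^ 2 + 1) * c1 + 2 * K1 + 2, by positivity, fun ε hε => ?_⟩
  have hc1ε : 0 < c1 * ε := by positivity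
  filter_upwards [H.exists_lab_loose pC pH hpC hpH hCH hc1ε, hcls ε hε, hG.al0 ε hε,
    hG.bd ε hε, hG.r9 ε hε, hG.r11 ε hε, ev_const_le B hε 100] with n hlab hcl hal hbd hr9 hr11 h100
  intro k hk j hj
  have hpow : ∀ t : ℝ, 0 < B.d n ^ t := fun t => rpos B n t
  set β : ℝ := B.d n ^ (-ε) with hβ
  set δ : ℝ := B.d n ^ (x - ε) with hδ
  have hβ1 : 1 ≤ β := by linarith
  have hβ0 : 0 < β := by linarith
  have hδ0 : 0 < δ := hpow _
  set dt := dat G AX AH AF C P Bf n with hdt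
  set T := (G n).L.filter fun l => (l, k) ∈ (G n).I ∧ dt.cc δ l = dt.cc δ j with hT
  have hTm : ∀ l ∈ T, (l, k) ∈ (G n).I ∧ dt.cc δ l = dt.cc δ j := fun l hl =>
    (mem_filter.1 hl).2
  have hTs : T ⊆ (G n).slice k := fun l hl => H.memSlice.2 (hTm l hl).1
  -- closeness in one class
  have hcc : ∀ l l', dt.cc δ l = dt.cc δ l' → |C n l - C n l'| ≤ δ ∧ |Bf n l - Bf n l'| ≤ δ := by
    intro l l' h
    have h' : (⌊C n l / δ⌋, ⌊Bf n l / δ⌋) = (⌊C n l' / δ⌋, ⌊Bf n l' / δ⌋) := h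
    rw [Prod.mk.injEq] at h'
    have e : ∀ a b : ℝ, ⌊a / δ⌋ = ⌊b / δ⌋ → |a - b| ≤ δ := by
      intro a b hab
      have e1 := Int.abs_sub_lt_one_of_floor_eq_floor hab
      rw [← sub_div, abs_div, abs_of_pos hδ0, div_lt_one hδ0] at e1
      exact e1.le
    exact ⟨e _ _ h'.1, e _ _ h'.2⟩
  have hTl : ∀ i ∈ T, ∀ i' ∈ T, (G n).loose pC (c1 * ε) k i i' := by
    intro i hi i' hi'
    obtain ⟨i1, i2⟩ := hTm i hi
    obtain ⟨i3, i4⟩ := hTm i' hi'
    obtain ⟨a1, a2⟩ := hcc i' i (i4.trans i2.symm)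
    refine H.loose_mono (fun _ => le_rfl) ?_ (hcl k i i' i1 i3 a1 a2)
    exact mul_le_mul_of_nonneg_right (by linarith) hε.le
  obtain ⟨lab, hlab1, hlab2⟩ := hlab k T hTs hTl
  set η : ℝ := B.d n ^ (x - D ^ 5 * (c1 * ε)) with hη
  have hη0 : 0 < η := hpow _
  set V : ℝ := 8 * β ^ 4 * (η + δ) with hV
  have hV0 : 0 ≤ V := by positivity
  -- variation on one label
  have hvar : ∀ l ∈ T, ∀ l' ∈ T, lab l = lab l' →
      |(dt.H k l - dt.C j * dt.X k l) - (dt.H k l' - dt.C j * dt.X k l')| ≤ V ∧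
      |(dt.F k l + dt.Bf j * dt.X k l) - (dt.F k l' + dt.Bf j * dt.X k l')| ≤ V := by
    intro l hl l' hl' heq
    obtain ⟨i1, i2⟩ := hTm l hl
    obtain ⟨i3, i4⟩ := hTm l' hl'
    have hlo := hlab1 l hl l' hl' heq
    have b9 : |(G n).rel k l l' 9| ≤ η := by
      refine (hlo 9).trans ?_
      rw [H.base n]
      exact rpow_anti B n (by linarith)
    have b11 : |(G n).rel k l l' 11| ≤ η := by
      refine (hlo 11).trans ?_
      rw [H.base n]
      exact rpow_anti B n (by linarith)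
    obtain ⟨z0, x1, x2, x3, x4, x5, x6, x7⟩ := hbd k l i1
    obtain ⟨-, y1, y2, y3, y4, y5, y6, y7⟩ := hbd k l' i3
    have g9 := hr9 k l l' i1 i3
    have g11 := hr11 k l l' i1 i3
    obtain ⟨cj1, cj2⟩ := hcc l j i2
    -- names
    set ΔX : ℝ := dt.X k l' - dt.X k l with hΔX
    set ΔH : ℝ := dt.H k l' - dt.H k l with hΔH
    set ΔF : ℝ := dt.F k l' - dt.F k l with hΔF
    have eX : (AX n l' + (G n).z k * C n l') - (AX n l + (G n).z k * C n l) = ΔX := rfl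
    have eH : (AH n l' + (G n).z k * C n l' ^ 2 / 2) - (AH n l + (G n).z k * C n l ^ 2 / 2) =
        ΔH := by
      show _ = (AH n l' + (G n).z k * (C n l' ^ 2 / 2)) - (AH n l + (G n).z k * (C n l ^ 2 / 2))
      ring
    have eF : (AF n l' + (G n).z k * P n l') - (AF n l + (G n).z k * P n l) = ΔF := rfl
    rw [eX, eH] at g9
    rw [eX, eH, eF] at g11
    have hXb : |ΔX| ≤ 4 * β ^ 2 := by
      rw [← eX]
      have u1 : |(G n).z k * C n l'| ≤ β * β := by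
        rw [abs_mul]; exact mul_le_mul z0 y4 (abs_nonneg _) hβ0.le
      have u2 : |(G n).z k * C n l| ≤ β * β := by
        rw [abs_mul]; exact mul_le_mul z0 x4 (abs_nonneg _) hβ0.le
      have u3 := abs_sub (AX n l' + (G n).z k * C n l') (AX n l + (G n).z k * C n l)
      have u4 := abs_add_le (AX n l') ((G n).z k * C n l')
      have u5 := abs_add_le (AX n l) ((G n).z k * C n l)
      nlinarith
    set κ : ℝ := 1 + al n ^ 2 with hκ
    have hκ1 : 1 ≤ κ := by rw [hκ]; nlinarith [sq_nonneg (al n)]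
    have hκ2 : κ ≤ 2 * β ^ 2 := by
      have : al n ^ 2 ≤ β ^ 2 := by
        rw [← sq_abs]; exact pow_le_pow_left₀ (abs_nonneg _) hal 2
      have h1 : 1 ≤ β ^ 2 := one_le_pow₀ hβ1
      rw [hκ]; linarith
    set Q : ℝ := ΔH - C n l * ΔX with hQ
    have hκQ : |κ * Q| ≤ η + δ := by
      have := abs_sub_abs_le_abs_sub (κ * Q) ((G n).rel k l l' 9)
      rw [abs_sub_comm] at this
      linarith
    have hQb : |Q| ≤ η + δ := by
      refine le_trans ?_ hκQ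
      rw [abs_mul, abs_of_pos (by linarith : 0 < κ)]
      exact le_mul_of_one_le_left (abs_nonneg _) hκ1
    have hβ2 : 1 ≤ β ^ 2 := one_le_pow₀ hβ1
    have hβ24 : β ^ 2 ≤ β ^ 4 := pow_le_pow_right₀ hβ1 (by norm_num)
    have hβ4 : 1 ≤ β ^ 4 := one_le_pow₀ hβ1
    have hηδ : 0 ≤ η + δ := by positivity
    have hβ14 : β ≤ β ^ 4 := by
      calc β = β ^ 1 := (pow_one _).symm
        _ ≤ β ^ 4 := pow_le_pow_right₀ hβ1 (by norm_num)
    constructor
    · have e1 : (dt.H k l - dt.C j * dt.X k l) - (dt.H k l' - dt.C j * dt.X k l') =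
          -(Q + (C n l - C n j) * ΔX) := by
        show _ = -((ΔH - C n l * ΔX) + (C n l - C n j) * ΔX)
        rw [hΔH, hΔX]
        show (dt.H k l - C n j * dt.X k l) - (dt.H k l' - C n j * dt.X k l') = _
        ring
      rw [e1, abs_neg]
      have u1 : |(C n l - C n j) * ΔX| ≤ δ * (4 * β ^ 2) := by
        rw [abs_mul]; exact mul_le_mul cj1 hXb (abs_nonneg _) hδ0.le
      calc |Q + (C n l - C n j) * ΔX| ≤ (η + δ) + δ * (4 * β ^ 2) :=
            (abs_add_le _ _).trans (add_le_add hQb u1)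
        _ ≤ 8 * β ^ 4 * (η + δ) := by
            have v1 : δ * (4 * β ^ 2) ≤ 4 * (β ^ 4 * (η + δ)) := by
              have w1 : δ * β ^ 2 ≤ (η + δ) * β ^ 4 :=
                mul_le_mul (by linarith) hβ24 (by positivity) hηδ
              linarith
            have v2 : η + δ ≤ β ^ 4 * (η + δ) := le_mul_of_one_le_left hηδ hβ4
            linarith
    · have e1 : (dt.F k l + dt.Bf j * dt.X k l) - (dt.F k l' + dt.Bf j * dt.X k l') =
          -((ΔF + Bf n l * ΔX) + (Bf n j - Bf n l) * ΔX) := by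
        rw [hΔF, hΔX]
        show (dt.F k l + Bf n j * dt.X k l) - (dt.F k l' + Bf n j * dt.X k l') = _
        ring
      rw [e1, abs_neg]
      have u1 : |(Bf n j - Bf n l) * ΔX| ≤ δ * (4 * β ^ 2) := by
        rw [abs_mul, abs_sub_comm (Bf n j)]
        exact mul_le_mul cj2 hXb (abs_nonneg _) hδ0.le
      have u2 : |κ * Ef n k l * Q| ≤ β * (η + δ) := by
        have : κ * Ef n k l * Q = Ef n k l * (κ * Q) := by ring
        rw [this, abs_mul]
        exact mul_le_mul x7 hκQ (abs_nonneg _) hβ0.le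
      have u3 : |ΔF + Bf n l * ΔX| ≤ (η + δ) + β * (η + δ) := by
        have v1 : |ΔF + Bf n l * ΔX + κ * Ef n k l * Q| ≤ η + δ := by
          have := abs_sub_abs_le_abs_sub (ΔF + Bf n l * ΔX + κ * Ef n k l * Q)
            ((G n).rel k l l' 11)
          rw [abs_sub_comm] at this
          linarith
        have v2 : ΔF + Bf n l * ΔX = (ΔF + Bf n l * ΔX + κ * Ef n k l * Q) -
            κ * Ef n k l * Q := by ring
        rw [v2]
        exact (abs_sub _ _).trans (add_le_add v1 u2)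
      calc |(ΔF + Bf n l * ΔX) + (Bf n j - Bf n l) * ΔX| ≤
            ((η + δ) + β * (η + δ)) + δ * (4 * β ^ 2) :=
            (abs_add_le _ _).trans (add_le_add u3 u1)
        _ ≤ 8 * β ^ 4 * (η + δ) := by
            have v1 : δ * (4 * β ^ 2) ≤ 4 * (β ^ 4 * (η + δ)) := by
              have w1 : δ * β ^ 2 ≤ (η + δ) * β ^ 4 :=
                mul_le_mul (by linarith) hβ24 (by positivity) hηδ
              linarith
            have v2 : η + δ ≤ β ^ 4 * (η + δ) := le_mul_of_one_le_left hηδ hβ4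
            have v3 : β * (η + δ) ≤ β ^ 4 * (η + δ) :=
              mul_le_mul_of_nonneg_right hβ14 hηδ
            linarith
  -- the number of labels
  have hfib : ∀ a ∈ T.image lab, (((((T.filter fun l => lab l = a).image fun l =>
      (⌊(dt.H k l - dt.C j * dt.X k l) / δ⌋, ⌊(dt.F k l + dt.Bf j * dt.X k l) / δ⌋)).card : ℕ)) : ℝ)
      ≤ (2 * (V / δ) + 3) ^ 2 := by
    intro a ha
    refine labels_card _ _ _ hδ0 hV0 fun l hl l' hl' => ?_
    obtain ⟨l1, l2⟩ := mem_filter.1 hl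
    obtain ⟨l3, l4⟩ := mem_filter.1 hl'
    exact hvar l l1 l' l3 (l2.trans l4.symm)
  have hcov : (T.image fun l =>
      (⌊(dt.H k l - dt.C j * dt.X k l) / δ⌋, ⌊(dt.F k l + dt.Bf j * dt.X k l) / δ⌋)) ⊆
      (T.image lab).biUnion fun a => (T.filter fun l => lab l = a).image fun l =>
        (⌊(dt.H k l - dt.C j * dt.X k l) / δ⌋, ⌊(dt.F k l + dt.Bf j * dt.X k l) / δ⌋) := by
    intro v hv
    obtain ⟨l, hl, rfl⟩ := mem_image.1 hv
    rw [mem_biUnion]
    exact ⟨lab l, mem_image_of_mem _ hl, mem_image.2 ⟨l, mem_filter.2 ⟨hl, rfl⟩, rfl⟩⟩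
  have hcnt : ((((T.image fun l =>
      (⌊(dt.H k l - dt.C j * dt.X k l) / δ⌋, ⌊(dt.F k l + dt.Bf j * dt.X k l) / δ⌋)).card : ℕ)) : ℝ)
      ≤ ((T.image lab).card : ℝ) * (2 * (V / δ) + 3) ^ 2 := by
    calc _ ≤ ((((T.image lab).biUnion fun a => (T.filter fun l => lab l = a).image fun l =>
        (⌊(dt.H k l - dt.C j * dt.X k l) / δ⌋,
          ⌊(dt.F k l + dt.Bf j * dt.X k l) / δ⌋)).card : ℕ) : ℝ) := by
          exact_mod_cast card_le_card hcov
      _ ≤ ∑ a ∈ T.image lab, (((((T.filter fun l => lab l = a).image fun l =>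
        (⌊(dt.H k l - dt.C j * dt.X k l) / δ⌋,
          ⌊(dt.F k l + dt.Bf j * dt.X k l) / δ⌋)).card : ℕ)) : ℝ) := by
          exact_mod_cast card_biUnion_le
      _ ≤ ∑ a ∈ T.image lab, (2 * (V / δ) + 3) ^ 2 := sum_le_sum hfib
      _ = _ := by rw [sum_const, nsmul_eq_mul]
  refine hcnt.trans ?_
  -- `V / δ ≤ ρ^(-K1 ε) / 16`
  have hVδ : 2 * (V / δ) + 3 ≤ B.d n ^ (-(K1 + 1) * ε) := by
    have e1 : V / δ = 8 * β ^ 4 * (B.d n ^ (-(D ^ 5 * c1 - 1) * ε) + 1) := by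
      rw [hV, hη, hδ, mul_div_assoc, add_div, div_self (hpow _).ne', ← Real.rpow_sub (B.pos n)]
      congr 3
      ring_nf
    have e2 : β ^ 4 = B.d n ^ (-(4 * ε)) := by
      rw [hβ, ← Real.rpow_natCast, ← Real.rpow_mul (B.pos n).le]
      congr 1; push_cast; ring
    have e3 : B.d n ^ (-(D ^ 5 * c1 - 1) * ε) ≤ B.d n ^ (-(D ^ 5 * c1) * ε) :=
      rpow_anti B n (by nlinarith)
    have e4 : (1 : ℝ) ≤ B.d n ^ (-(D ^ 5 * c1) * ε) := by
      apply Real.one_le_rpow_of_pos_of_le_one_of_nonpos (B.pos n) (B.lt n).le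
      have : 0 ≤ D ^ 5 * c1 * ε := by positivity
      linarith
    have e5 : B.d n ^ (-(4 * ε)) * B.d n ^ (-(D ^ 5 * c1) * ε) =
        B.d n ^ (-(D ^ 5 * c1 + 4) * ε) := by
      rw [← rpow_add']; congr 1; ring
    have e6 : B.d n ^ (-(K1 + 1) * ε) = B.d n ^ (-(7 * ε)) * B.d n ^ (-(D ^ 5 * c1 + 4) * ε) := by
      rw [← rpow_add']; congr 1; rw [hK1]; ring
    have e7 : (100 : ℝ) ≤ B.d n ^ (-(7 * ε)) :=
      h100.trans (rpow_anti B n (by linarith))
    have e8 : (1 : ℝ) ≤ B.d n ^ (-(D ^ 5 * c1 + 4) * ε) := by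
      apply Real.one_le_rpow_of_pos_of_le_one_of_nonpos (B.pos n) (B.lt n).le
      have : 0 ≤ (D ^ 5 * c1 + 4) * ε := by positivity
      linarith
    have e9 : V / δ ≤ 16 * B.d n ^ (-(D ^ 5 * c1 + 4) * ε) := by
      rw [e1, e2, ← e5]
      have := hpow (-(4 * ε))
      nlinarith
    rw [e6]
    nlinarith
  have hVδ0 : 0 ≤ 2 * (V / δ) + 3 := by positivity
  calc ((T.image lab).card : ℝ) * (2 * (V / δ) + 3) ^ 2
      ≤ B.d n ^ (-(ν pC - ν pH) - (D ^ 2 + 1) * (c1 * ε)) * (B.d n ^ (-(K1 + 1) * ε)) ^ 2 :=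
        mul_le_mul hlab2 (pow_le_pow_left₀ hVδ0 hVδ 2) (by positivity) (hpow _).le
    _ = B.d n ^ (-(ν pC - ν pH) - ((D ^ 2 + 1) * c1 + 2 * K1 + 2) * ε) := by
        rw [sq (B.d n ^ (-(K1 + 1) * ε)), ← rpow_add', ← rpow_add']
        congr 1
        ring

end Crest.Agent.R116.Sc748
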