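import Crest.Agent.R116.Sc1_905
import Crest.Agent.R116.Sc3_299

/-!
# R116, SIG2 (sigma = 2), part Sc6 (helper299): from relative coordinates to 905's `Dat`

`GN G D al Ef β δ` : the laws of `GC` and the thinness at one `n` (`β = ρ^(-ε)`, `δ = ρ^(x-ε)`),
`ev_gn` : eventually true.  Finite comparison lemmas for two lines alive at one height:
`near_rel`, `rel_near`, `class_rel`, `rel_class`, `label_rel`, `vel_rel`.
-/

set_option autoImplicit false
set_option linter.unusedVariables false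
set_option linter.unusedSectionVars false

open Filter Topology Finset

namespace Crest.Agent.R116.Sc299

open Crest.Agent.R138.Ex926 (Base U)
open Crest.Agent.R136.Gf356
open Crest.Agent.R116.Kr710 (LLaw Thin)
open Crest.Agent.R116.Sc905 (Dat)

/-- the laws at one `n` -/
structure GN (G : RCfg (Fin 12)) (D : Dat) (al : ℝ) (Ef : ℕ → ℕ → ℝ) (β δ : ℝ) : Prop where
  b8 : 8 ≤ β
  d0 : 0 ≤ δ
  φz : D.φ = G.z
  al0 : |al| ≤ β
  bz : ∀ k i, (i, k) ∈ G.I → |D.φ k| ≤ β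
  bAX : ∀ k i, (i, k) ∈ G.I → |D.AX i| ≤ β
  bAH : ∀ k i, (i, k) ∈ G.I → |D.AH i| ≤ β
  bAF : ∀ k i, (i, k) ∈ G.I → |D.AF i| ≤ β
  bC : ∀ k i, (i, k) ∈ G.I → |D.C i| ≤ β
  bP : ∀ k i, (i, k) ∈ G.I → |D.P i| ≤ β
  bB : ∀ k i, (i, k) ∈ G.I → |D.Bf i| ≤ β
  bE : ∀ k i, (i, k) ∈ G.I → |Ef k i| ≤ β
  r2 : ∀ k i l, (i, k) ∈ G.I → (l, k) ∈ G.I → |G.rel k i l 2 - (Ef k l - Ef k i)| ≤ δ
  r3 : ∀ k i l, (i, k) ∈ G.I → (l, k) ∈ G.I → |G.rel k i l 3 - (D.C l - D.C i)| ≤ δ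
  r5 : ∀ k i l, (i, k) ∈ G.I → (l, k) ∈ G.I → |G.rel k i l 5 - (D.X k l - D.X k i)| ≤ δ
  r9 : ∀ k i l, (i, k) ∈ G.I → (l, k) ∈ G.I →
    |G.rel k i l 9 - (1 + al ^ 2) *
      ((D.H k l - D.H k i) - D.C i * (D.X k l - D.X k i))| ≤ δ
  r7 : ∀ k i l, (i, k) ∈ G.I → (l, k) ∈ G.I →
    |(G.rel k i l 7 + al * G.rel k i l 8) -
      (D.Bf l - D.Bf i - (1 + al ^ 2) * Ef k i * (D.C l - D.C i))| ≤ δ
  r10 : ∀ k i l, (i, k) ∈ G.I → (l, k) ∈ G.I →
    |G.rel k i l 10 - (D.P l - D.P i + D.Bf i * (D.C l - D.C i) +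
      (1 + al ^ 2) * Ef k i * (D.C l - D.C i) ^ 2 / 2)| ≤ δ
  r11 : ∀ k i l, (i, k) ∈ G.I → (l, k) ∈ G.I →
    |G.rel k i l 11 - ((D.F k l - D.F k i) + D.Bf i * (D.X k l - D.X k i) +
      (1 + al ^ 2) * Ef k i * ((D.H k l - D.H k i) - D.C i * (D.X k l - D.X k i)))| ≤ δ
  t4 : ∀ k i l, (i, k) ∈ G.I → (l, k) ∈ G.I → |G.rel k i l 4 - al * G.rel k i l 3| ≤ δ
  t6 : ∀ k i l, (i, k) ∈ G.I → (l, k) ∈ G.I → |G.rel k i l 6 - al * G.rel k i l 5| ≤ δ
  t8 : ∀ k i l, (i, k) ∈ G.I → (l, k) ∈ G.I → |G.rel k i l 8 - al * G.rel k i l 7| ≤ δ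

/-- the data of 905 at one `n` -/
def dat (G : ℕ → RCfg (Fin 12)) (AX AH AF C P Bf : ℕ → ℕ → ℝ) (n : ℕ) : Dat where
  AX := AX n
  AH := AH n
  AF := AF n
  C := C n
  P := P n
  Bf := Bf n
  φ := (G n).z

/-- **eventually** -/
theorem ev_gn {B : Base} {G : ℕ → RCfg (Fin 12)} {S : Finset (Fin 12)} {al : ℕ → ℝ}
    {AX AH AF C P Bf : ℕ → ℕ → ℝ} {Ef : ℕ → ℕ → ℕ → ℝ} {x : ℝ}
    (g : GC B G al AX AH AF C P Bf Ef x) (T : Thin B G S al x) {ε : ℝ} (hε : 0 < ε) :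
    ∀ᶠ n in (U : Filter ℕ), GN (G n) (dat G AX AH AF C P Bf n) (al n) (Ef n) (B.d n ^ (-ε))
      (B.d n ^ (x - ε)) := by
  filter_upwards [Crest.Agent.R136.Gf356.ev_const_le B hε 8, g.al0 ε hε, g.bd ε hε, g.r2 ε hε,
    g.r3 ε hε, g.r5 ε hε, g.r9 ε hε, g.r7 ε hε, g.r10 ε hε, g.r11 ε hε, T.tc ε hε, T.tx ε hε,
    T.tb ε hε] with n h8 hal hbd h2 h3 h5 h9 h7 h10 h11 t4 t6 t8
  have hH : ∀ k l, (dat G AX AH AF C P Bf n).H k l = AH n l + (G n).z k * C n l ^ 2 / 2 := by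
    intro k l
    show AH n l + (G n).z k * (C n l ^ 2 / 2) = _
    ring
  refine ⟨h8, (Real.rpow_pos_of_pos (B.pos n) _).le, rfl, hal, fun k i hi => (hbd k i hi).1,
    fun k i hi => (hbd k i hi).2.1, fun k i hi => (hbd k i hi).2.2.1,
    fun k i hi => (hbd k i hi).2.2.2.1, fun k i hi => (hbd k i hi).2.2.2.2.1,
    fun k i hi => (hbd k i hi).2.2.2.2.2.1, fun k i hi => (hbd k i hi).2.2.2.2.2.2.1,
    fun k i hi => (hbd k i hi).2.2.2.2.2.2.2, h2, h3, h5, ?_, h7, h10, ?_, t4, t6, t8⟩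
  · intro k i l hi hl
    rw [hH, hH]
    exact h9 k i l hi hl
  · intro k i l hi hl
    rw [hH, hH]
    exact h11 k i l hi hl

/-! ### finite lemmas -/

theorem abs_mul_le' {a b A B : ℝ} (ha : |a| ≤ A) (hb : |b| ≤ B) : |a * b| ≤ A * B := by
  rw [abs_mul]
  exact mul_le_mul ha hb (abs_nonneg _) ((abs_nonneg _).trans ha)

theorem of_sub {u v A δ : ℝ} (h : |u - v| ≤ δ) (hv : |v| ≤ A) : |u| ≤ A + δ := by
  have e : u = (u - v) + v := by ring
  rw [e]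
  exact (abs_add_le _ _).trans (by linarith)

theorem kap_pos (al : ℝ) : 1 ≤ 1 + al ^ 2 := by nlinarith [sq_nonneg al]

theorem kap_le {al β : ℝ} (h : |al| ≤ β) : |1 + al ^ 2| ≤ 1 + β ^ 2 := by
  rw [abs_of_nonneg (by positivity)]
  have : al ^ 2 ≤ β ^ 2 := by
    rw [← sq_abs al]
    exact pow_le_pow_left₀ (abs_nonneg _) h 2
  linarith

/-- powers of `β` -/
theorem pow_mono' {β : ℝ} (h : 8 ≤ β) {m n : ℕ} (hmn : m ≤ n) : β ^ m ≤ β ^ n :=
  pow_le_pow_right₀ (by linarith) hmn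

namespace GN

variable {G : RCfg (Fin 12)} {D : Dat} {al : ℝ} {Ef : ℕ → ℕ → ℝ} {β δ : ℝ}
  (g : GN G D al Ef β δ)

include g

theorem β0 : 0 < β := by linarith [g.b8]

theorem β1 : 1 ≤ β := by linarith [g.b8]

/-- `near ⟹ rel` -/
theorem near_rel {k i l : ℕ} (hi : (i, k) ∈ G.I) (hl : (l, k) ∈ G.I) {w : ℝ} (hw : 0 ≤ w)
    (hn : D.near w k i l) : |G.rel k i l 5| ≤ β ^ 6 * (w + δ) ∧ |G.rel k i l 6| ≤ β ^ 6 * (w + δ) ∧
      |G.rel k i l 9| ≤ β ^ 6 * (w + δ) ∧ |G.rel k i l 11| ≤ β ^ 6 * (w + δ) := by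
  obtain ⟨hX, hH, hF⟩ := hn
  have b8 := g.b8
  have b0 := g.β0
  have d0 := g.d0
  have p1 : (1 : ℝ) ≤ β ^ 6 := one_le_pow₀ g.β1
  have c5 := of_sub (g.r5 k i l hi hl) hX
  have h5 : |G.rel k i l 5| ≤ β ^ 6 * (w + δ) := by
    refine c5.trans ?_
    nlinarith
  have c6 := of_sub (g.t6 k i l hi hl) (abs_mul_le' g.al0 c5)
  have hU : |(D.H k l - D.H k i) - D.C i * (D.X k l - D.X k i)| ≤ w + β * w :=
    (abs_sub _ _).trans (add_le_add hH (abs_mul_le' (g.bC k i hi) hX))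
  have hKU := abs_mul_le' (kap_le g.al0) hU
  have c9 := of_sub (g.r9 k i l hi hl) hKU
  have e1 : (1 + al ^ 2) * Ef k i * ((D.H k l - D.H k i) - D.C i * (D.X k l - D.X k i)) =
      Ef k i * ((1 + al ^ 2) * ((D.H k l - D.H k i) - D.C i * (D.X k l - D.X k i))) := by ring
  have hEU : |(1 + al ^ 2) * Ef k i * ((D.H k l - D.H k i) - D.C i * (D.X k l - D.X k i))| ≤
      β * ((1 + β ^ 2) * (w + β * w)) := by
    rw [e1]
    exact abs_mul_le' (g.bE k i hi) hKU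
  have hR : |(D.F k l - D.F k i) + D.Bf i * (D.X k l - D.X k i) +
      (1 + al ^ 2) * Ef k i * ((D.H k l - D.H k i) - D.C i * (D.X k l - D.X k i))| ≤
      (w + β * w) + β * ((1 + β ^ 2) * (w + β * w)) := by
    refine (abs_add_le _ _).trans (add_le_add ?_ hEU)
    exact (abs_add_le _ _).trans (add_le_add hF (abs_mul_le' (g.bB k i hi) hX))
  have c11 := of_sub (g.r11 k i l hi hl) hR
  have q2 : (1 + β ^ 2) ≤ 2 * β ^ 2 := by nlinarith
  have q1 : w + β * w ≤ 2 * β * w := by nlinarith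
  have q3 : (1 + β ^ 2) * (w + β * w) ≤ 4 * β ^ 3 * w := by
    calc (1 + β ^ 2) * (w + β * w) ≤ (2 * β ^ 2) * (2 * β * w) :=
          mul_le_mul q2 q1 (by positivity) (by positivity)
      _ = _ := by ring
  have q6 : 4 * β ^ 3 ≤ β ^ 4 := by
    have : β ^ 4 = β * β ^ 3 := by ring
    rw [this]
    have := pow_pos b0 3
    nlinarith
  have q7 : β ^ 4 * β ≤ β ^ 6 := by
    have : β ^ 4 * β = β ^ 5 := by ring
    rw [this]; exact pow_mono' b8 (by norm_num)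
  refine ⟨h5, ?_, ?_, ?_⟩
  · refine c6.trans ?_
    have : β * (w + δ) + δ ≤ 2 * β * (w + δ) := by nlinarith
    refine this.trans (mul_le_mul_of_nonneg_right ?_ (by linarith))
    calc 2 * β ≤ β ^ 2 := by nlinarith
      _ ≤ β ^ 6 := pow_mono' b8 (by norm_num)
  · refine c9.trans ?_
    calc (1 + β ^ 2) * (w + β * w) + δ ≤ β ^ 4 * w + δ := by nlinarith
      _ ≤ β ^ 6 * w + β ^ 6 * δ := by
          have : β ^ 4 ≤ β ^ 6 := pow_mono' b8 (by norm_num)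
          nlinarith
      _ = _ := by ring
  · refine c11.trans ?_
    have s1 : β * ((1 + β ^ 2) * (w + β * w)) ≤ β * (4 * β ^ 3 * w) :=
      mul_le_mul_of_nonneg_left q3 b0.le
    have s2 : 2 * β * w + β * (4 * β ^ 3 * w) ≤ β ^ 6 * w := by
      have : 2 * β + 4 * β ^ 4 ≤ β ^ 6 := by
        have t1 : β ^ 5 ≤ β ^ 6 := pow_mono' b8 (by norm_num)
        have t2 : β ^ 5 = β * β ^ 4 := by ring
        have t3 : β ≤ β ^ 4 := by
          calc β = β ^ 1 := (pow_one β).symm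
            _ ≤ β ^ 4 := pow_mono' b8 (by norm_num)
        have t4 := pow_pos b0 4
        nlinarith
      calc 2 * β * w + β * (4 * β ^ 3 * w) = (2 * β + 4 * β ^ 4) * w := by ring
        _ ≤ β ^ 6 * w := mul_le_mul_of_nonneg_right this hw
    have s3 : δ ≤ β ^ 6 * δ := le_mul_of_one_le_left d0 p1
    rw [mul_add (β ^ 6)]
    linarith

/-- `rel ⟹ near` -/
theorem rel_near {k i l : ℕ} (hi : (i, k) ∈ G.I) (hl : (l, k) ∈ G.I) {w : ℝ} (hw : 0 ≤ w)
    (h5 : |G.rel k i l 5| ≤ w) (h9 : |G.rel k i l 9| ≤ w) (h11 : |G.rel k i l 11| ≤ w) :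
    D.near (β ^ 6 * (w + δ)) k i l := by
  have b8 := g.b8
  have b0 := g.β0
  have d0 := g.d0
  have p1 : (1 : ℝ) ≤ β ^ 6 := one_le_pow₀ g.β1
  have hX : |D.X k l - D.X k i| ≤ w + δ := by
    have := g.r5 k i l hi hl
    rw [abs_sub_comm] at this
    exact of_sub this h5
  have hKU : |(1 + al ^ 2) * ((D.H k l - D.H k i) - D.C i * (D.X k l - D.X k i))| ≤ w + δ := by
    have := g.r9 k i l hi hl
    rw [abs_sub_comm] at this
    exact of_sub this h9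
  have hU : |(D.H k l - D.H k i) - D.C i * (D.X k l - D.X k i)| ≤ w + δ := by
    refine le_trans ?_ hKU
    rw [abs_mul]
    have h1 : 1 ≤ |1 + al ^ 2| := by
      rw [abs_of_nonneg (by positivity)]
      exact kap_pos al
    nlinarith [abs_nonneg ((D.H k l - D.H k i) - D.C i * (D.X k l - D.X k i))]
  have hH : |D.H k l - D.H k i| ≤ (w + δ) + β * (w + δ) := by
    have e : D.H k l - D.H k i = ((D.H k l - D.H k i) - D.C i * (D.X k l - D.X k i)) +
        D.C i * (D.X k l - D.X k i) := by ring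
    rw [e]
    exact (abs_add_le _ _).trans (add_le_add hU (abs_mul_le' (g.bC k i hi) hX))
  have hR : |(D.F k l - D.F k i) + D.Bf i * (D.X k l - D.X k i) +
      (1 + al ^ 2) * Ef k i * ((D.H k l - D.H k i) - D.C i * (D.X k l - D.X k i))| ≤ w + δ := by
    have := g.r11 k i l hi hl
    rw [abs_sub_comm] at this
    exact of_sub this h11
  have hF : |D.F k l - D.F k i| ≤ (w + δ) + β * (w + δ) + β * (w + δ) := by
    have e : D.F k l - D.F k i = ((D.F k l - D.F k i) + D.Bf i * (D.X k l - D.X k i) +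
      (1 + al ^ 2) * Ef k i * ((D.H k l - D.H k i) - D.C i * (D.X k l - D.X k i))) -
      D.Bf i * (D.X k l - D.X k i) -
      Ef k i * ((1 + al ^ 2) * ((D.H k l - D.H k i) - D.C i * (D.X k l - D.X k i))) := by ring
    rw [e]
    refine (abs_sub _ _).trans (add_le_add ((abs_sub _ _).trans (add_le_add hR
      (abs_mul_le' (g.bB k i hi) hX))) (abs_mul_le' (g.bE k i hi) hKU))
  have hs : 1 + β + β ≤ β ^ 6 := by
    calc 1 + β + β ≤ β ^ 2 := by nlinarith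
      _ ≤ β ^ 6 := pow_mono' b8 (by norm_num)
  have h0 : 0 ≤ w + δ := by linarith
  have key := mul_le_mul_of_nonneg_right hs h0
  refine ⟨?_, ?_, ?_⟩
  · refine hX.trans ?_
    nlinarith
  · refine hH.trans ?_
    nlinarith
  · refine hF.trans ?_
    nlinarith

/-- classes `⟹ rel` -/
theorem class_rel {k i l : ℕ} (hi : (i, k) ∈ G.I) (hl : (l, k) ∈ G.I) {w : ℝ} (hw : 0 ≤ w)
    (hC : |D.C l - D.C i| ≤ w) (hB : |D.Bf l - D.Bf i| ≤ w) :
    |G.rel k i l 3| ≤ β ^ 6 * (w + δ) ∧ |G.rel k i l 4| ≤ β ^ 6 * (w + δ) ∧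
      |G.rel k i l 7| ≤ β ^ 6 * (w + δ) ∧ |G.rel k i l 8| ≤ β ^ 6 * (w + δ) := by
  have b8 := g.b8
  have b0 := g.β0
  have d0 := g.d0
  have p1 : (1 : ℝ) ≤ β ^ 6 := one_le_pow₀ g.β1
  have c3 := of_sub (g.r3 k i l hi hl) hC
  have c4 := of_sub (g.t4 k i l hi hl) (abs_mul_le' g.al0 c3)
  have hE : |(1 + al ^ 2) * Ef k i * (D.C l - D.C i)| ≤ (1 + β ^ 2) * β * w :=
    abs_mul_le' (abs_mul_le' (kap_le g.al0) (g.bE k i hi)) hC
  have hR : |D.Bf l - D.Bf i - (1 + al ^ 2) * Ef k i * (D.C l - D.C i)| ≤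
      w + (1 + β ^ 2) * β * w := (abs_sub _ _).trans (add_le_add hB hE)
  have hS := of_sub (g.r7 k i l hi hl) hR
  -- `(1 + al²) rel 7 = (rel 7 + al rel 8) - al (rel 8 - al rel 7)`
  have h7' : |(1 + al ^ 2) * G.rel k i l 7| ≤ (w + (1 + β ^ 2) * β * w + δ) + β * δ := by
    have e : (1 + al ^ 2) * G.rel k i l 7 = (G.rel k i l 7 + al * G.rel k i l 8) -
      al * (G.rel k i l 8 - al * G.rel k i l 7) := by ring
    rw [e]
    exact (abs_sub _ _).trans (add_le_add hS (abs_mul_le' g.al0 (g.t8 k i l hi hl)))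
  have h7 : |G.rel k i l 7| ≤ (w + (1 + β ^ 2) * β * w + δ) + β * δ := by
    refine le_trans ?_ h7'
    rw [abs_mul]
    have h1 : 1 ≤ |1 + al ^ 2| := by
      rw [abs_of_nonneg (by positivity)]
      exact kap_pos al
    nlinarith [abs_nonneg (G.rel k i l 7)]
  have c8 := of_sub (g.t8 k i l hi hl) (abs_mul_le' g.al0 h7)
  have q2 : (1 + β ^ 2) ≤ 2 * β ^ 2 := by nlinarith
  have q3 : w + (1 + β ^ 2) * β * w ≤ β ^ 4 * w := by
    have : 1 + (1 + β ^ 2) * β ≤ β ^ 4 := by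
      have t1 : (1 + β ^ 2) * β ≤ 2 * β ^ 3 := by nlinarith
      have t2 : β ^ 4 = β * β ^ 3 := by ring
      have t3 : 1 ≤ β ^ 3 := one_le_pow₀ g.β1
      nlinarith
    nlinarith
  have h7b : |G.rel k i l 7| ≤ β ^ 4 * (w + δ) := by
    refine h7.trans ?_
    have : δ + β * δ ≤ β ^ 4 * δ := by
      have : 1 + β ≤ β ^ 4 := by
        calc 1 + β ≤ β ^ 2 := by nlinarith
          _ ≤ β ^ 4 := pow_mono' b8 (by norm_num)
      nlinarith
    nlinarith
  have h0 : 0 ≤ w + δ := by linarith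
  refine ⟨?_, ?_, ?_, ?_⟩
  · refine c3.trans ?_
    nlinarith
  · refine c4.trans ?_
    have : β * (w + δ) + δ ≤ 2 * β * (w + δ) := by nlinarith
    refine this.trans (mul_le_mul_of_nonneg_right ?_ h0)
    calc 2 * β ≤ β ^ 2 := by nlinarith
      _ ≤ β ^ 6 := pow_mono' b8 (by norm_num)
  · refine h7b.trans (mul_le_mul_of_nonneg_right (pow_mono' b8 (by norm_num)) h0)
  · refine c8.trans ?_
    have t1 : β * (w + (1 + β ^ 2) * β * w + δ + β * δ) ≤ β * (β ^ 4 * (w + δ)) := by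
      refine mul_le_mul_of_nonneg_left ?_ b0.le
      have : δ + β * δ ≤ β ^ 4 * δ := by
        have : 1 + β ≤ β ^ 4 := by
          calc 1 + β ≤ β ^ 2 := by nlinarith
            _ ≤ β ^ 4 := pow_mono' b8 (by norm_num)
        nlinarith
      nlinarith
    have t2 : β * (β ^ 4 * (w + δ)) + δ ≤ β ^ 6 * (w + δ) := by
      have : β ^ 5 + 1 ≤ β ^ 6 := by
        have e : β ^ 6 = β * β ^ 5 := by ring
        have : 1 ≤ β ^ 5 := one_le_pow₀ g.β1
        nlinarith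
      nlinarith
    linarith

/-- `rel ⟹` classes -/
theorem rel_class {k i l : ℕ} (hi : (i, k) ∈ G.I) (hl : (l, k) ∈ G.I) {w : ℝ} (hw : 0 ≤ w)
    (h3 : |G.rel k i l 3| ≤ w) (h7 : |G.rel k i l 7| ≤ w) (h8 : |G.rel k i l 8| ≤ w) :
    |D.C l - D.C i| ≤ β ^ 6 * (w + δ) ∧ |D.Bf l - D.Bf i| ≤ β ^ 6 * (w + δ) := by
  have b8 := g.b8
  have b0 := g.β0
  have d0 := g.d0
  have p1 : (1 : ℝ) ≤ β ^ 6 := one_le_pow₀ g.β1
  have hC : |D.C l - D.C i| ≤ w + δ := by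
    have := g.r3 k i l hi hl
    rw [abs_sub_comm] at this
    exact of_sub this h3
  have hE : |(1 + al ^ 2) * Ef k i * (D.C l - D.C i)| ≤ (1 + β ^ 2) * β * (w + δ) :=
    abs_mul_le' (abs_mul_le' (kap_le g.al0) (g.bE k i hi)) hC
  have hS : |G.rel k i l 7 + al * G.rel k i l 8| ≤ w + β * w :=
    (abs_add_le _ _).trans (add_le_add h7 (abs_mul_le' g.al0 h8))
  have hR : |D.Bf l - D.Bf i - (1 + al ^ 2) * Ef k i * (D.C l - D.C i)| ≤ (w + β * w) + δ := by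
    have := g.r7 k i l hi hl
    rw [abs_sub_comm] at this
    exact of_sub this hS
  have hB : |D.Bf l - D.Bf i| ≤ ((w + β * w) + δ) + (1 + β ^ 2) * β * (w + δ) := by
    have e : D.Bf l - D.Bf i = (D.Bf l - D.Bf i - (1 + al ^ 2) * Ef k i * (D.C l - D.C i)) +
        (1 + al ^ 2) * Ef k i * (D.C l - D.C i) := by ring
    rw [e]
    exact (abs_add_le _ _).trans (add_le_add hR hE)
  have h0 : 0 ≤ w + δ := by linarith
  refine ⟨?_, hB.trans ?_⟩
  · refine hC.trans ?_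
    nlinarith
  · have q : 1 + β + (1 + β ^ 2) * β ≤ β ^ 6 := by
      have t1 : 1 + β + (1 + β ^ 2) * β ≤ 3 * β ^ 3 := by
        have : 1 ≤ β := g.β1
        nlinarith [pow_pos b0 2, pow_pos b0 3, mul_pos b0 b0]
      have t2 : 3 * β ^ 3 ≤ β ^ 4 := by
        have : β ^ 4 = β * β ^ 3 := by ring
        have := pow_pos b0 3
        nlinarith
      exact (t1.trans t2).trans (pow_mono' b8 (by norm_num))
    have s := mul_le_mul_of_nonneg_right q h0
    nlinarith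

/-- size of `X` -/
theorem X_le {k i : ℕ} (hi : (i, k) ∈ G.I) : |D.X k i| ≤ 2 * β ^ 2 := by
  have b8 := g.b8
  have h1 := abs_mul_le' (g.bz k i hi) (g.bC k i hi)
  have h2 := g.bAX k i hi
  show |D.AX i + D.φ k * D.C i| ≤ _
  refine (abs_add_le _ _).trans ?_
  nlinarith

theorem dX_le {k i l : ℕ} (hi : (i, k) ∈ G.I) (hl : (l, k) ∈ G.I) :
    |D.X k l - D.X k i| ≤ 4 * β ^ 2 := by
  have h1 := g.X_le hi
  have h2 := g.X_le hl
  exact (abs_sub _ _).trans (by linarith)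

/-- equal labels of one class `⟹ rel`: slots `9, 11` -/
theorem label_rel {k l l' : ℕ} (hl : (l, k) ∈ G.I) (hl' : (l', k) ∈ G.I) {w Cj Bj : ℝ}
    (hw : 0 ≤ w) (hC : |D.C l - Cj| ≤ w) (hB : |D.Bf l - Bj| ≤ w)
    (hU : |(D.H k l' - Cj * D.X k l') - (D.H k l - Cj * D.X k l)| ≤ w)
    (hV : |(D.F k l' + Bj * D.X k l') - (D.F k l + Bj * D.X k l)| ≤ w) :
    |G.rel k l l' 9| ≤ β ^ 8 * (w + δ) ∧ |G.rel k l l' 11| ≤ β ^ 8 * (w + δ) := by
  have b8 := g.b8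
  have b0 := g.β0
  have d0 := g.d0
  have hX := g.dX_le hl hl'
  have p1 : (1 : ℝ) ≤ β ^ 8 := one_le_pow₀ g.β1
  have hb2 : (64 : ℝ) ≤ β ^ 2 := by nlinarith
  have hU' : |(D.H k l' - D.H k l) - D.C l * (D.X k l' - D.X k l)| ≤ w + w * (4 * β ^ 2) := by
    have e : (D.H k l' - D.H k l) - D.C l * (D.X k l' - D.X k l) =
        ((D.H k l' - Cj * D.X k l') - (D.H k l - Cj * D.X k l)) -
          (D.C l - Cj) * (D.X k l' - D.X k l) := by ring
    rw [e]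
    exact (abs_sub _ _).trans (add_le_add hU (abs_mul_le' hC hX))
  have hKU := abs_mul_le' (kap_le g.al0) hU'
  have c9 := of_sub (g.r9 k l l' hl hl') hKU
  have hEU : |(1 + al ^ 2) * Ef k l * ((D.H k l' - D.H k l) - D.C l * (D.X k l' - D.X k l))| ≤
      β * ((1 + β ^ 2) * (w + w * (4 * β ^ 2))) := by
    have e1 : (1 + al ^ 2) * Ef k l * ((D.H k l' - D.H k l) - D.C l * (D.X k l' - D.X k l)) =
      Ef k l * ((1 + al ^ 2) * ((D.H k l' - D.H k l) - D.C l * (D.X k l' - D.X k l))) := by ring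
    rw [e1]
    exact abs_mul_le' (g.bE k l hl) hKU
  have hFB : |(D.F k l' - D.F k l) + D.Bf l * (D.X k l' - D.X k l)| ≤ w + w * (4 * β ^ 2) := by
    have e : (D.F k l' - D.F k l) + D.Bf l * (D.X k l' - D.X k l) =
        ((D.F k l' + Bj * D.X k l') - (D.F k l + Bj * D.X k l)) +
          (D.Bf l - Bj) * (D.X k l' - D.X k l) := by ring
    rw [e]
    exact (abs_add_le _ _).trans (add_le_add hV (abs_mul_le' hB hX))
  have c11 := of_sub (g.r11 k l l' hl hl') ((abs_add_le _ _).trans (add_le_add hFB hEU))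
  have q1 : w + w * (4 * β ^ 2) ≤ 5 * β ^ 2 * w := by nlinarith
  have q2 : (1 + β ^ 2) ≤ 2 * β ^ 2 := by nlinarith
  have q3 : (1 + β ^ 2) * (w + w * (4 * β ^ 2)) ≤ 10 * β ^ 4 * w := by
    calc (1 + β ^ 2) * (w + w * (4 * β ^ 2)) ≤ (2 * β ^ 2) * (5 * β ^ 2 * w) :=
          mul_le_mul q2 q1 (by positivity) (by positivity)
      _ = _ := by ring
  have q4 : 10 * β ^ 4 ≤ β ^ 6 := by
    have : β ^ 6 = β ^ 2 * β ^ 4 := by ring
    rw [this]
    have := pow_pos b0 4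
    nlinarith
  have s3 : δ ≤ β ^ 8 * δ := le_mul_of_one_le_left d0 p1
  have q5 : 10 * β ^ 4 * w ≤ β ^ 6 * w := mul_le_mul_of_nonneg_right q4 hw
  have q6 : β ^ 6 * w ≤ β ^ 8 * w := mul_le_mul_of_nonneg_right (pow_mono' b8 (by norm_num)) hw
  rw [mul_add (β ^ 8)]
  refine ⟨?_, ?_⟩
  · linarith
  · have s1 : β * ((1 + β ^ 2) * (w + w * (4 * β ^ 2))) ≤ β * (β ^ 6 * w) :=
      mul_le_mul_of_nonneg_left (q3.trans q5) b0.le
    have s2 : 5 * β ^ 2 * w + β * (β ^ 6 * w) ≤ β ^ 8 * w := by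
      have : 5 * β ^ 2 + β ^ 7 ≤ β ^ 8 := by
        have t1 : β ^ 2 ≤ β ^ 7 := pow_mono' b8 (by norm_num)
        have t2 : β ^ 8 = β * β ^ 7 := by ring
        have t3 := pow_pos b0 7
        nlinarith
      calc 5 * β ^ 2 * w + β * (β ^ 6 * w) = (5 * β ^ 2 + β ^ 7) * w := by ring
        _ ≤ β ^ 8 * w := mul_le_mul_of_nonneg_right this hw
    linarith

/-- small `rel 9, 11` in one class `⟹` the labels are near -/
theorem rel_label {k l l' : ℕ} (hl : (l, k) ∈ G.I) (hl' : (l', k) ∈ G.I) {w Cj Bj : ℝ}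
    (hw : 0 ≤ w) (hC : |D.C l - Cj| ≤ w) (hB : |D.Bf l - Bj| ≤ w)
    (h9 : |G.rel k l l' 9| ≤ w) (h11 : |G.rel k l l' 11| ≤ w) :
    |(D.H k l' - Cj * D.X k l') - (D.H k l - Cj * D.X k l)| ≤ β ^ 4 * (w + δ) ∧
      |(D.F k l' + Bj * D.X k l') - (D.F k l + Bj * D.X k l)| ≤ β ^ 4 * (w + δ) := by
  have b8 := g.b8
  have b0 := g.β0
  have d0 := g.d0
  have hX := g.dX_le hl hl'
  have hb2 : (64 : ℝ) ≤ β ^ 2 := by nlinarith
  have hKU : |(1 + al ^ 2) * ((D.H k l' - D.H k l) - D.C l * (D.X k l' - D.X k l))| ≤ w + δ := by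
    have := g.r9 k l l' hl hl'
    rw [abs_sub_comm] at this
    exact of_sub this h9
  have hU : |(D.H k l' - D.H k l) - D.C l * (D.X k l' - D.X k l)| ≤ w + δ := by
    refine le_trans ?_ hKU
    rw [abs_mul]
    have h1 : 1 ≤ |1 + al ^ 2| := by
      rw [abs_of_nonneg (by positivity)]
      exact kap_pos al
    nlinarith [abs_nonneg ((D.H k l' - D.H k l) - D.C l * (D.X k l' - D.X k l))]
  have hR : |(D.F k l' - D.F k l) + D.Bf l * (D.X k l' - D.X k l) +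
      (1 + al ^ 2) * Ef k l * ((D.H k l' - D.H k l) - D.C l * (D.X k l' - D.X k l))| ≤ w + δ := by
    have := g.r11 k l l' hl hl'
    rw [abs_sub_comm] at this
    exact of_sub this h11
  have hq : w * (4 * β ^ 2) + (1 + β) * (w + δ) ≤ β ^ 4 * (w + δ) := by
    have t1 : 4 * β ^ 2 + (1 + β) ≤ β ^ 4 := by
      have : β ^ 4 = β ^ 2 * β ^ 2 := by ring
      nlinarith
    have h0 : 0 ≤ w + δ := by linarith
    have t2 := mul_le_mul_of_nonneg_right t1 h0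
    have t3 : w * (4 * β ^ 2) ≤ 4 * β ^ 2 * (w + δ) := by
      have := mul_nonneg (by positivity : (0 : ℝ) ≤ 4 * β ^ 2) d0
      nlinarith
    nlinarith
  constructor
  · have e : (D.H k l' - Cj * D.X k l') - (D.H k l - Cj * D.X k l) =
        ((D.H k l' - D.H k l) - D.C l * (D.X k l' - D.X k l)) +
          (D.C l - Cj) * (D.X k l' - D.X k l) := by ring
    rw [e]
    refine (abs_add_le _ _).trans ((add_le_add hU (abs_mul_le' hC hX)).trans ?_)
    have : 0 ≤ β * (w + δ) := by positivity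
    nlinarith
  · have e : (D.F k l' + Bj * D.X k l') - (D.F k l + Bj * D.X k l) =
        ((D.F k l' - D.F k l) + D.Bf l * (D.X k l' - D.X k l) +
      (1 + al ^ 2) * Ef k l * ((D.H k l' - D.H k l) - D.C l * (D.X k l' - D.X k l))) -
      Ef k l * ((1 + al ^ 2) * ((D.H k l' - D.H k l) - D.C l * (D.X k l' - D.X k l))) -
          (D.Bf l - Bj) * (D.X k l' - D.X k l) := by ring
    rw [e]
    refine (abs_sub _ _).trans ((add_le_add ((abs_sub _ _).trans (add_le_add hR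
      (abs_mul_le' (g.bE k l hl) hKU))) (abs_mul_le' hB hX)).trans ?_)
    nlinarith

end GN

/-! ### the dictionary -/

/-- `x` on the slots of `J`, `0` elsewhere -/
def pJ (J : Finset (Fin 12)) (x : ℝ) : Fin 12 → ℝ := fun j => if j ∈ J then x else 0

/-- class slots -/
def JC : Finset (Fin 12) := {3, 4, 7, 8}

/-- cell slots -/
def JA : Finset (Fin 12) := {5, 6, 9, 11}

/-- class and label slots -/
def JH : Finset (Fin 12) := {3, 4, 7, 8, 9, 11}

/-- all -/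
def JF : Finset (Fin 12) := {3, 4, 5, 6, 7, 8, 9, 11}

/-- **dictionary** (858's `Dic`), one `n`, constant `c = 9`; `e` real `≥ 0` -/
structure Dic (B : Base) (G : ℕ → RCfg (Fin 12)) (D : ℕ → Dat) (x ε : ℝ) (n : ℕ) : Prop where
  φz : (D n).φ = (G n).z
  bC : ∀ k i, (i, k) ∈ (G n).I → |(D n).C i| ≤ B.d n ^ (-ε)
  bB : ∀ k i, (i, k) ∈ (G n).I → |(D n).Bf i| ≤ B.d n ^ (-ε)
  bP : ∀ k i, (i, k) ∈ (G n).I → |(D n).P i| ≤ B.d n ^ (-ε)
  near_of : ∀ k i l, (i, k) ∈ (G n).I → (l, k) ∈ (G n).I → ∀ e : ℝ, 0 ≤ e →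
    (G n).loose (pJ JA x) e k i l → (D n).near (B.d n ^ (x - 9 * (e + ε))) k i l
  of_near : ∀ k i l, (i, k) ∈ (G n).I → (l, k) ∈ (G n).I → ∀ e : ℝ, 0 ≤ e →
    (D n).near (B.d n ^ (x - e)) k i l → (G n).loose (pJ JA x) (9 * (e + ε)) k i l
  cls_of : ∀ k i l, (i, k) ∈ (G n).I → (l, k) ∈ (G n).I → ∀ e : ℝ, 0 ≤ e →
    (G n).loose (pJ JC x) e k i l → |(D n).C l - (D n).C i| ≤ B.d n ^ (x - 9 * (e + ε)) ∧
      |(D n).Bf l - (D n).Bf i| ≤ B.d n ^ (x - 9 * (e + ε))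
  of_cls : ∀ k i l, (i, k) ∈ (G n).I → (l, k) ∈ (G n).I → ∀ e : ℝ, 0 ≤ e →
    |(D n).C l - (D n).C i| ≤ B.d n ^ (x - e) → |(D n).Bf l - (D n).Bf i| ≤ B.d n ^ (x - e) →
      (G n).loose (pJ JC x) (9 * (e + ε)) k i l
  of_both : ∀ k i l, (i, k) ∈ (G n).I → (l, k) ∈ (G n).I → ∀ e : ℝ, 0 ≤ e →
    |(D n).C l - (D n).C i| ≤ B.d n ^ (x - e) → |(D n).Bf l - (D n).Bf i| ≤ B.d n ^ (x - e) →
    (D n).near (B.d n ^ (x - e)) k i l → (G n).loose (pJ JF x) (9 * (e + ε)) k i l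
  /-- equal class, near labels -/
  of_lab : ∀ k l l', (l, k) ∈ (G n).I → (l', k) ∈ (G n).I → ∀ e Cj Bj : ℝ, 0 ≤ e →
    |(D n).C l - Cj| ≤ B.d n ^ (x - e) → |(D n).Bf l - Bj| ≤ B.d n ^ (x - e) →
    |(D n).C l' - (D n).C l| ≤ B.d n ^ (x - e) → |(D n).Bf l' - (D n).Bf l| ≤ B.d n ^ (x - e) →
    |((D n).H k l' - Cj * (D n).X k l') - ((D n).H k l - Cj * (D n).X k l)| ≤ B.d n ^ (x - e) →
    |((D n).F k l' + Bj * (D n).X k l') - ((D n).F k l + Bj * (D n).X k l)| ≤ B.d n ^ (x - e) →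
      (G n).loose (pJ JH x) (9 * (e + ε)) k l l'
  lab_of : ∀ k l l', (l, k) ∈ (G n).I → (l', k) ∈ (G n).I → ∀ e Cj Bj : ℝ, 0 ≤ e →
    |(D n).C l - Cj| ≤ B.d n ^ (x - e) → |(D n).Bf l - Bj| ≤ B.d n ^ (x - e) →
    (G n).loose (pJ JH x) e k l l' →
    |((D n).H k l' - Cj * (D n).X k l') - ((D n).H k l - Cj * (D n).X k l)| ≤
      B.d n ^ (x - 9 * (e + ε)) ∧
    |((D n).F k l' + Bj * (D n).X k l') - ((D n).F k l + Bj * (D n).X k l)| ≤
      B.d n ^ (x - 9 * (e + ε))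

theorem pJ_in {J : Finset (Fin 12)} {j : Fin 12} (h : j ∈ J) (x : ℝ) : pJ J x j = x := if_pos h

theorem pJ_out {J : Finset (Fin 12)} {j : Fin 12} (h : j ∉ J) (x : ℝ) : pJ J x j = 0 := if_neg h

/-- `β^m (w + δ)` as a power -/
theorem pw_le (B : Base) (n : ℕ) {x e t : ℝ} (he : 0 ≤ e) (ht : 0 ≤ t)
    (h2 : (8 : ℝ) ≤ B.d n ^ (-t)) {m : ℕ} (hm : m ≤ 8) {ε : ℝ} (hε : ε = 2 * t) :
    (B.d n ^ (-t)) ^ m * (B.d n ^ (x - e) + B.d n ^ (x - t)) ≤ B.d n ^ (x - 9 * (e + ε)) := by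
  have hd := B.pos n
  have hd1 := (B.lt n).le
  have hp : ∀ s : ℝ, 0 < B.d n ^ s := fun s => Real.rpow_pos_of_pos hd s
  have a1 : B.d n ^ (x - e) ≤ B.d n ^ (x - e - t) :=
    Real.rpow_le_rpow_of_exponent_ge hd hd1 (by linarith)
  have a2 : B.d n ^ (x - t) ≤ B.d n ^ (x - e - t) :=
    Real.rpow_le_rpow_of_exponent_ge hd hd1 (by linarith)
  have a3 : B.d n ^ (x - e) + B.d n ^ (x - t) ≤ B.d n ^ (-t) * B.d n ^ (x - e - t) := by
    have := hp (x - e - t)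
    nlinarith
  have a4 : (B.d n ^ (-t)) ^ m ≤ (B.d n ^ (-t)) ^ 8 := pow_le_pow_right₀ (by linarith) hm
  have e8 : (B.d n ^ (-t)) ^ 8 = B.d n ^ (-(8 * t)) := by
    rw [← Real.rpow_natCast, ← Real.rpow_mul hd.le]; congr 1; push_cast; ring
  calc (B.d n ^ (-t)) ^ m * (B.d n ^ (x - e) + B.d n ^ (x - t))
      ≤ (B.d n ^ (-t)) ^ 8 * (B.d n ^ (-t) * B.d n ^ (x - e - t)) :=
        mul_le_mul a4 a3 (by have := hp (x - e); have := hp (x - t); positivity)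
          (by have := hp (-t); positivity)
    _ = B.d n ^ (x - (e + 10 * t)) := by
        rw [e8, ← Real.rpow_add hd, ← Real.rpow_add hd]; congr 1; ring
    _ ≤ B.d n ^ (x - 9 * (e + ε)) :=
        Real.rpow_le_rpow_of_exponent_ge hd hd1 (by rw [hε]; linarith)

/-- **the dictionary from global coordinates** -/
theorem ev_dic {B : Base} {G : ℕ → RCfg (Fin 12)} (hb : ∀ n, (G n).ρ = B.d n)
    {S : Finset (Fin 12)} {al : ℕ → ℝ}
    {AX AH AF C P Bf : ℕ → ℕ → ℝ} {Ef : ℕ → ℕ → ℕ → ℝ} {x : ℝ}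
    (g : GC B G al AX AH AF C P Bf Ef x) (T : Thin B G S al x)
    (hall : ∀ ε : ℝ, 0 < ε → ∀ᶠ n in (U : Filter ℕ), ∀ k i l, (i, k) ∈ (G n).I →
      (l, k) ∈ (G n).I → (G n).loose 0 ε k i l) {ε : ℝ} (hε : 0 < ε) :
    ∀ᶠ n in (U : Filter ℕ), Dic B G (dat G AX AH AF C P Bf) x ε n := by
  have ht : 0 < ε / 2 := by positivity
  filter_upwards [ev_gn g T ht, hall (ε / 2) ht] with n h ha
  have hd := B.pos n
  have hd1 := (B.lt n).le
  have hb8 := h.b8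
  have mono : ∀ {s t : ℝ}, t ≤ s → B.d n ^ s ≤ B.d n ^ t := fun hst =>
    Real.rpow_le_rpow_of_exponent_ge hd hd1 hst
  have hp : ∀ s : ℝ, 0 ≤ B.d n ^ s := fun s => (Real.rpow_pos_of_pos hd s).le
  have key : ∀ {e : ℝ} {m : ℕ}, 0 ≤ e → m ≤ 8 →
      (B.d n ^ (-(ε / 2))) ^ m * (B.d n ^ (x - e) + B.d n ^ (x - ε / 2)) ≤
        B.d n ^ (x - 9 * (e + ε)) := fun he hm =>
    pw_le B n he ht.le hb8 hm (by ring)
  -- other slots
  have hoth : ∀ k i l, (i, k) ∈ (G n).I → (l, k) ∈ (G n).I → ∀ e : ℝ, 0 ≤ e → ∀ j,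
      |(G n).rel k i l j| ≤ B.d n ^ (0 - 9 * (e + ε)) := by
    intro k i l hi hl e he j
    have := ha k i l hi hl j
    rw [hb n] at this
    exact this.trans (mono (by
      show (0 : ℝ) - 9 * (e + ε) ≤ 0 - ε / 2
      linarith))
  refine ⟨rfl, fun k i hi => (h.bC k i hi).trans (mono (by linarith)),
    fun k i hi => (h.bB k i hi).trans (mono (by linarith)),
    fun k i hi => (h.bP k i hi).trans (mono (by linarith)), ?_, ?_, ?_, ?_, ?_, ?_, ?_⟩
  · -- near_of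
    intro k i l hi hl e he hlo
    have h5 := hlo 5
    have h9 := hlo 9
    have h11 := hlo 11
    rw [pJ_in (by decide), hb n] at h5 h9 h11
    obtain ⟨n1, n2, n3⟩ := h.rel_near hi hl (hp _) h5 h9 h11
    have kk := key (e := e) (m := 6) he (by norm_num)
    exact ⟨n1.trans kk, n2.trans kk, n3.trans kk⟩
  · -- of_near
    intro k i l hi hl e he hn j
    obtain ⟨c5, c6, c9, c11⟩ := h.near_rel hi hl (hp _) hn
    have kk := key (e := e) (m := 6) he (by norm_num)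
    rw [hb n]
    by_cases hj : j ∈ JA
    · rw [pJ_in hj]
      have : j = 5 ∨ j = 6 ∨ j = 9 ∨ j = 11 := by revert hj; revert j; decide
      rcases this with rfl | rfl | rfl | rfl
      · exact c5.trans kk
      · exact c6.trans kk
      · exact c9.trans kk
      · exact c11.trans kk
    · rw [pJ_out hj]
      exact hoth k i l hi hl e he j
  · -- cls_of
    intro k i l hi hl e he hlo
    have h3 := hlo 3
    have h7 := hlo 7
    have h8 := hlo 8
    rw [pJ_in (by decide), hb n] at h3 h7 h8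
    obtain ⟨n1, n2⟩ := h.rel_class hi hl (hp _) h3 h7 h8
    have kk := key (e := e) (m := 6) he (by norm_num)
    exact ⟨n1.trans kk, n2.trans kk⟩
  · -- of_cls
    intro k i l hi hl e he hC hB j
    obtain ⟨c3, c4, c7, c8⟩ := h.class_rel hi hl (hp _) hC hB
    have kk := key (e := e) (m := 6) he (by norm_num)
    rw [hb n]
    by_cases hj : j ∈ JC
    · rw [pJ_in hj]
      have : j = 3 ∨ j = 4 ∨ j = 7 ∨ j = 8 := by revert hj; revert j; decide
      rcases this with rfl | rfl | rfl | rfl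
      · exact c3.trans kk
      · exact c4.trans kk
      · exact c7.trans kk
      · exact c8.trans kk
    · rw [pJ_out hj]
      exact hoth k i l hi hl e he j
  · -- of_both
    intro k i l hi hl e he hC hB hn j
    obtain ⟨c3, c4, c7, c8⟩ := h.class_rel hi hl (hp _) hC hB
    obtain ⟨c5, c6, c9, c11⟩ := h.near_rel hi hl (hp _) hn
    have kk := key (e := e) (m := 6) he (by norm_num)
    rw [hb n]
    by_cases hj : j ∈ JF
    · rw [pJ_in hj]
      have : j = 3 ∨ j = 4 ∨ j = 5 ∨ j = 6 ∨ j = 7 ∨ j = 8 ∨ j = 9 ∨ j = 11 := by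
        revert hj; revert j; decide
      rcases this with rfl | rfl | rfl | rfl | rfl | rfl | rfl | rfl
      · exact c3.trans kk
      · exact c4.trans kk
      · exact c5.trans kk
      · exact c6.trans kk
      · exact c7.trans kk
      · exact c8.trans kk
      · exact c9.trans kk
      · exact c11.trans kk
    · rw [pJ_out hj]
      exact hoth k i l hi hl e he j
  · -- of_lab
    intro k l l' hl hl' e Cj Bj he hC hB hC' hB' hU hV j
    obtain ⟨c3, c4, c7, c8⟩ := h.class_rel hl hl' (hp _) hC' hB'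
    obtain ⟨c9, c11⟩ := h.label_rel hl hl' (hp _) hC hB hU hV
    have kk := key (e := e) (m := 6) he (by norm_num)
    have kk8 := key (e := e) (m := 8) he le_rfl
    rw [hb n]
    by_cases hj : j ∈ JH
    · rw [pJ_in hj]
      have : j = 3 ∨ j = 4 ∨ j = 7 ∨ j = 8 ∨ j = 9 ∨ j = 11 := by
        revert hj; revert j; decide
      rcases this with rfl | rfl | rfl | rfl | rfl | rfl
      · exact c3.trans kk
      · exact c4.trans kk
      · exact c7.trans kk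
      · exact c8.trans kk
      · exact c9.trans kk8
      · exact c11.trans kk8
    · rw [pJ_out hj]
      exact hoth k l l' hl hl' e he j
  · -- lab_of
    intro k l l' hl hl' e Cj Bj he hC hB hlo
    have h9 := hlo 9
    have h11 := hlo 11
    rw [pJ_in (by decide), hb n] at h9 h11
    obtain ⟨n1, n2⟩ := h.rel_label hl hl' (hp _) hC hB h9 h11
    have kk := key (e := e) (m := 4) he (by norm_num)
    exact ⟨n1.trans kk, n2.trans kk⟩

end Crest.Agent.R116.Sc299
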