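import Crest.Agent.R116.Sc2_905
import Crest.Agent.R116.Sc2a_858
import Crest.Agent.R116.Sc2b_748
import Crest.Agent.R116.Sc6_299

/-!
# R116, D4 at sigma = 2 (`SIG2`) over a relative model (helper905)

`strips_inc` : 708's `strips_glob` with a curvature flag which depends on the incidence.
`sig2_model` : `σ x ≤ 2 (ν pC - ν pH) - (ν 0 - ν pA)`.
-/

set_option autoImplicit false
set_option linter.unusedVariables false
set_option linter.unusedSectionVars false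

open Filter Topology Finset

namespace Crest.Agent.R116.Sc905

open Crest.Agent.R138.Ex926 (Base U)
open Crest.Agent.R136.Gf356
open Crest.Agent.R136.CD366
open Crest.Agent.R116.Sc708 (NoStrC)
open Crest.Agent.R116.Sc299 (GC pJ JC JA JH JF)

section inc

variable {κ : Type} {B : Base} {G : ℕ → RCfg κ} {Leg : Set (κ → ℝ)} {ν : (κ → ℝ) → ℝ}
  {σ R D : ℝ}

open Classical in
set_option maxHeartbeats 1600000 in
/-- **curved strips in global coordinates** (708's `strips_glob`, flag `Ef` of the incidence): `C`, `P` of the lines, flags `Bf`, `Ef` of the frames;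
any curvature `e`, tilt `b` of size `≤ ρ^(-ε)`, any centre `u`. -/
theorem strips_inc (H : RUnif B G Leg ν D) {pA : κ → ℝ} {cA cB : κ} {q R1 x Cl : ℝ}
    (hA : pA ∈ Leg) (hA0 : 0 ≤ pA cA) (hx : R1 ≤ x) (hCl : 0 ≤ Cl)
    (hN : NoStrC B G pA cA cB ν q R1)
    (Cg Pg Bf : ℕ → ℕ → ℝ) (Ef : ℕ → ℕ → ℕ → ℝ)
    (hbd : ∀ ε : ℝ, 0 < ε → ∀ᶠ n in (U : Filter ℕ), ∀ i k, (i, k) ∈ (G n).I →
      |Cg n i| ≤ B.d n ^ (-ε) ∧ |Bf n i| ≤ B.d n ^ (-ε) ∧ |Ef n k i| ≤ B.d n ^ (-ε))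
    (hlaw : ∀ ε : ℝ, 0 < ε → ∀ᶠ n in (U : Filter ℕ), ∀ i k l, (i, k) ∈ (G n).I →
      (l, k) ∈ (G n).I →
      |(G n).rel k i l cA - (Cg n l - Cg n i)| ≤ B.d n ^ (x - Cl * ε) ∧
      |(G n).rel k i l cB - ((Pg n l - Pg n i) + Bf n i * (Cg n l - Cg n i) +
        Ef n k i * (Cg n l - Cg n i) ^ 2)| ≤ B.d n ^ (x - Cl * ε)) :
    ∃ K : ℝ, 0 ≤ K ∧ ∀ r : ℝ, 0 < r → r ≤ R1 → ∀ ε : ℝ, 0 < ε → ∀ᶠ n in (U : Filter ℕ),
      ∀ i k, (i, k) ∈ (G n).I → ∀ e b u : ℝ, |e| ≤ B.d n ^ (-ε) → |b| ≤ B.d n ^ (-ε) →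
      ((((G n).box pA ε i k).filter fun l =>
        |Pg n l + e * Cg n l ^ 2 / 2 + b * Cg n l - u| ≤ B.d n ^ r).card : ℝ) ≤
        B.d n ^ (-(ν pA) + q * r - K * ε) := by
  have hD := H.D1
  have hD0 : 0 < D := by linarith
  obtain ⟨K, hK, hN⟩ := hN
  set C : ℝ := D ^ 2 + 2 * Cl + 20 with hCdef
  have hC0 : 0 < C := by positivity
  refine ⟨K * C, by positivity, fun r hr0 hrR ε hε => ?_⟩
  have hCε : 0 < C * ε := by positivity
  filter_upwards [hN r hr0 hrR (C * ε) hCε, hbd ε hε, hlaw ε hε, box_pair H pA hA hε,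
    ev_const_le B hε 2, ev_const_le B hε 16] with n hNn hbdn hlawn hpair h4 h30 i k hik e b u he hb
  have hpow : ∀ t : ℝ, 0 < B.d n ^ t := fun t => rpos B n t
  have hpow1 : ∀ t : ℝ, t ≤ 0 → 1 ≤ B.d n ^ t := fun t ht =>
    Real.one_le_rpow_of_pos_of_le_one_of_nonpos (B.pos n) (B.lt n).le ht
  set S := ((G n).box pA ε i k).filter fun l =>
    |Pg n l + e * Cg n l ^ 2 / 2 + b * Cg n l - u| ≤ B.d n ^ r with hS
  rcases S.eq_empty_or_nonempty with hSe | ⟨j, hj⟩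
  · rw [hSe]; simpa using (hpow _).le
  have hSm : ∀ l ∈ S, (l, k) ∈ (G n).I ∧ l ∈ (G n).box pA ε i k ∧
      |Pg n l + e * Cg n l ^ 2 / 2 + b * Cg n l - u| ≤ B.d n ^ r := by
    intro l hl
    rw [hS, mem_filter] at hl
    exact ⟨H.memSlice.1 (RCfg.mem_box.1 hl.1).1, hl.1, hl.2⟩
  obtain ⟨hjI, hjb, hju⟩ := hSm j hj
  obtain ⟨hCj, hBj, hEj⟩ := hbdn j k hjI
  set M : ℝ := B.d n ^ (-ε) with hM
  have hM1 : 1 ≤ M := hpow1 _ (by linarith)
  set β : ℝ := e * Cg n j + b - Bf n j with hβ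
  set γ : ℝ := e / 2 - Ef n k j with hγ
  set N : ℝ := √(1 + β ^ 2) with hNdef
  have hN1 : 1 ≤ N := by
    rw [hNdef, Real.one_le_sqrt]
    nlinarith [sq_nonneg β]
  have hN0 : 0 < N := by linarith
  have hNN : N ^ 2 = 1 + β ^ 2 := Real.sq_sqrt (by positivity)
  have hMM : M ≤ M ^ 2 := by nlinarith
  have hM2 : 0 ≤ M ^ 2 := sq_nonneg M
  have hβM : |β| ≤ 3 * M ^ 2 := by
    have g1 : |e * Cg n j| ≤ M * M := by
      rw [abs_mul]; exact mul_le_mul he hCj (abs_nonneg _) (by linarith)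
    have g2 := abs_sub (e * Cg n j + b) (Bf n j)
    have g3 := abs_add_le (e * Cg n j) b
    nlinarith
  have hγM : |γ| ≤ 2 * M := by
    have g2 := abs_sub (e / 2) (Ef n k j)
    have g3 : |e / 2| ≤ M := by
      rw [abs_div, abs_two]
      have : |e| / 2 ≤ |e| := by linarith [abs_nonneg e]
      linarith
    linarith
  have hMp : ∀ m : ℕ, M ^ m = B.d n ^ (-(m * ε)) := by
    intro m
    rw [hM, ← Real.rpow_natCast, ← Real.rpow_mul (B.pos n).le]
    congr 1; ring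
  -- the target
  have key : S ⊆ ((G n).box pA (C * ε) j k).filter fun l =>
      |(![β / N, 1 / N] : Fin 2 → ℝ) 0 * (G n).rel k j l cA +
        (![β / N, 1 / N] : Fin 2 → ℝ) 1 * ((G n).rel k j l cB + γ * (G n).rel k j l cA ^ 2)| ≤
        B.d n ^ (r - C * ε) := by
    intro l hl
    obtain ⟨hlI, hlb, hlu⟩ := hSm l hl
    obtain ⟨w1, w2⟩ := hlawn j k l hjI hlI
    obtain ⟨hCl', -, -⟩ := hbdn l k hlI
    have a2 : (G n).loose pA (D ^ 2 * ε) k j l := hpair k i j l hik hjb hlb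
    rw [mem_filter, RCfg.mem_box]
    refine ⟨⟨H.memSlice.2 hlI, H.loose_mono (fun _ => le_rfl) ?_ a2⟩, ?_⟩
    · rw [hCdef]
      have : 0 ≤ (2 * Cl + 20) * ε := by positivity
      nlinarith
    · set a := (G n).rel k j l cA with ha
      set c := (G n).rel k j l cB with hc
      set dC := Cg n l - Cg n j with hdC
      set dP := Pg n l - Pg n j with hdP
      set e1 := B.d n ^ (x - Cl * ε) with he1
      set E1 := B.d n ^ (r - Cl * ε) with hE1
      have he1' : e1 ≤ E1 := rpow_anti B n (by linarith)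
      have hr1 : B.d n ^ r ≤ E1 := rpow_anti B n (by
        have : 0 ≤ Cl * ε := by positivity
        linarith)
      have hE10 : 0 < E1 := hpow _
      have hdCM : |dC| ≤ 2 * M := (abs_sub _ _).trans (by linarith)
      have hsum : β * dC + γ * dC ^ 2 + dP + Bf n j * dC + Ef n k j * dC ^ 2 =
          (Pg n l + e * Cg n l ^ 2 / 2 + b * Cg n l - u) -
          (Pg n j + e * Cg n j ^ 2 / 2 + b * Cg n j - u) := by
        rw [hβ, hγ, hdC, hdP]; ring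
      have hlin : |β * dC + γ * dC ^ 2 + (dP + Bf n j * dC + Ef n k j * dC ^ 2)| ≤ 2 * E1 := by
        have : β * dC + γ * dC ^ 2 + (dP + Bf n j * dC + Ef n k j * dC ^ 2) =
          β * dC + γ * dC ^ 2 + dP + Bf n j * dC + Ef n k j * dC ^ 2 := by ring
        rw [this, hsum]
        refine (abs_sub _ _).trans ?_
        linarith
      have w1' := w1.trans he1'
      have w2' := w2.trans he1'
      -- replace dC by a, the rest by c
      set T := B.d n ^ (-(Cl * ε)) with hT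
      have hT1 : 1 ≤ T := hpow1 _ (by
        have : 0 ≤ Cl * ε := by positivity
        linarith)
      have hET : E1 ≤ T := rpow_anti B n (by linarith)
      have hfin : |β * a + (c + γ * a ^ 2)| ≤ 16 * (M ^ 2 * (T * E1)) := by
        have q1 : |β * (a - dC)| ≤ 3 * M ^ 2 * E1 := by
          rw [abs_mul]; exact mul_le_mul hβM w1' (abs_nonneg _) (by positivity)
        have q2 : |γ * ((a - dC) * (a - dC + 2 * dC))| ≤ 2 * M * (E1 * (E1 + 4 * M)) := by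
          rw [abs_mul, abs_mul]
          refine mul_le_mul hγM (mul_le_mul w1' ?_ (abs_nonneg _) hE10.le) (by positivity)
            (by linarith)
          refine (abs_add_le _ _).trans ?_
          rw [abs_mul, abs_two]
          linarith
        have q3 : β * a + (c + γ * a ^ 2) =
            (β * dC + γ * dC ^ 2 + (dP + Bf n j * dC + Ef n k j * dC ^ 2)) + β * (a - dC) +
            γ * ((a - dC) * (a - dC + 2 * dC)) +
            (c - (dP + Bf n j * dC + Ef n k j * dC ^ 2)) := by ring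
        have q4 : |β * a + (c + γ * a ^ 2)| ≤
            2 * E1 + 3 * M ^ 2 * E1 + 2 * M * (E1 * (E1 + 4 * M)) + E1 := by
          rw [q3]
          refine (abs_add_le _ _).trans (add_le_add ((abs_add_le _ _).trans (add_le_add
            ((abs_add_le _ _).trans (add_le_add hlin q1)) q2)) w2')
        refine q4.trans ?_
        have s1 : 0 ≤ M ^ 2 * E1 := by positivity
        have s2 : M * (E1 * E1) ≤ M ^ 2 * (T * E1) := by
          have : E1 * E1 ≤ T * E1 := mul_le_mul_of_nonneg_right hET hE10.le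
          exact mul_le_mul hMM this (by positivity) hM2
        have s3 : M ^ 2 * E1 ≤ M ^ 2 * (T * E1) :=
          mul_le_mul_of_nonneg_left (le_mul_of_one_le_left hE10.le hT1) hM2
        have s4 : E1 ≤ M ^ 2 * E1 := le_mul_of_one_le_left hE10.le (by nlinarith)
        nlinarith
      have hgoal : |(![β / N, 1 / N] : Fin 2 → ℝ) 0 * a +
          (![β / N, 1 / N] : Fin 2 → ℝ) 1 * (c + γ * a ^ 2)| ≤ |β * a + (c + γ * a ^ 2)| := by
        have : (![β / N, 1 / N] : Fin 2 → ℝ) 0 * a +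
          (![β / N, 1 / N] : Fin 2 → ℝ) 1 * (c + γ * a ^ 2) = (β * a + (c + γ * a ^ 2)) / N := by
          simp; field_simp
        rw [this, abs_div, abs_of_pos hN0]
        exact div_le_self (abs_nonneg _) hN1
      refine hgoal.trans (hfin.trans ?_)
      have hpw : M ^ 2 * (T * E1) = B.d n ^ (r - (2 * Cl + 2) * ε) := by
        rw [hMp, hT, hE1, ← rpow_add', ← rpow_add']
        congr 1; push_cast; ring
      rw [hpw]
      refine absorb B (h30.trans (rpow_anti B n ?_))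
      rw [hCdef]
      have : 0 ≤ (D ^ 2 + 17) * ε := by positivity
      nlinarith
  refine le_trans (Nat.cast_le.2 (card_le_card key)) ?_
  refine (hNn j k hjI ![β / N, 1 / N] γ ?_ ?_).trans (le_of_eq ?_)
  · simp only [Matrix.cons_val_zero, Matrix.cons_val_one]
    rw [div_pow, div_pow, ← add_div, hNN]
    have : (1 + β ^ 2) ≠ 0 := by positivity
    field_simp
    ring
  · refine hγM.trans ?_
    have e2 : B.d n ^ (-ε) * M = B.d n ^ (-(2 * ε)) := by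
      rw [hM, ← rpow_add']; congr 1; ring
    calc 2 * M ≤ B.d n ^ (-ε) * M := mul_le_mul_of_nonneg_right h4 (by linarith)
      _ = _ := e2
      _ ≤ _ := rpow_anti B n (by
        rw [hCdef]
        have : 0 ≤ (D ^ 2 + 2 * Cl + 18) * ε := by positivity
        nlinarith)
  · congr 1; ring


end inc

variable {B : Base} {G : ℕ → RCfg (Fin 12)} {Leg : Set (Fin 12 → ℝ)} {ν : (Fin 12 → ℝ) → ℝ}
  {σ R D : ℝ}

/-- 858's dictionary from 299's -/
theorem dic858 {S : Finset (Fin 12)} {al : ℕ → ℝ} {AX AH AF C P Bf : ℕ → ℕ → ℝ}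
    {Ef : ℕ → ℕ → ℕ → ℝ} {x : ℝ} (hb : ∀ n, (G n).ρ = B.d n)
    (g : GC B G al AX AH AF C P Bf Ef x) (T : Kr710.Thin B G S al x)
    (hall : ∀ ε : ℝ, 0 < ε → ∀ᶠ n in (U : Filter ℕ), ∀ k i l, (i, k) ∈ (G n).I →
      (l, k) ∈ (G n).I → (G n).loose 0 ε k i l) :
    Sc858a.Dic B G (Sc299.dat G AX AH AF C P Bf) (pJ JA x) (pJ JC x) x 18 where
  c1 := by norm_num
  a := by
    intro ε hε
    filter_upwards [Sc299.ev_dic hb g T hall hε] with n h k i l hi hl hlo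
    have := h.near_of k i l hi hl ε hε.le hlo
    have e1 : 9 * (ε + ε) = 18 * ε := by ring
    rwa [e1] at this
  b := by
    intro ε hε
    filter_upwards [Sc299.ev_dic hb g T hall hε] with n h k i l hi hl hlo
    have := h.of_near k i l hi hl ε hε.le hlo
    have e1 : 9 * (ε + ε) = 18 * ε := by ring
    rwa [e1] at this
  a' := by
    intro ε hε
    filter_upwards [Sc299.ev_dic hb g T hall hε] with n h k i l hi hl hlo
    have := h.cls_of k i l hi hl ε hε.le hlo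
    have e1 : 9 * (ε + ε) = 18 * ε := by ring
    rwa [e1] at this
  b' := by
    intro ε hε
    filter_upwards [Sc299.ev_dic hb g T hall hε] with n h k i l hi hl h1 h2
    have := h.of_cls k i l hi hl ε hε.le h1 h2
    have e1 : 9 * (ε + ε) = 18 * ε := by ring
    rwa [e1] at this

open Classical in
/-- the strips from `NoStrC` -/
theorem strips_gc (H : RUnif B G Leg ν D) {al : ℕ → ℝ}
    {AX AH AF C P Bf : ℕ → ℕ → ℝ}
    {Ef : ℕ → ℕ → ℕ → ℝ} {x : ℝ} (g : GC B G al AX AH AF C P Bf Ef x)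
    (lA : pJ JA x ∈ Leg) {q R1 : ℝ} (hR1 : R1 ≤ x)
    (hN : NoStrC B G (pJ JA x) 3 10 ν q R1) :
    ∃ K : ℝ, 0 ≤ K ∧ ∀ r : ℝ, 0 < r → r ≤ R1 → ∀ ε : ℝ, 0 < ε →
      ∀ᶠ n in (U : Filter ℕ), ∀ i k, (i, k) ∈ (G n).I → ∀ e b u : ℝ, |e| ≤ B.d n ^ (-ε) →
      |b| ≤ B.d n ^ (-ε) →
      ((((G n).box (pJ JA x) ε i k).filter fun l =>
        |P n l + e * C n l ^ 2 / 2 + b * C n l - u| ≤ B.d n ^ r).card : ℝ) ≤
        B.d n ^ (-(ν (pJ JA x)) + q * r - K * ε) :=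
  strips_inc H (pA := pJ JA x) (cA := 3) (cB := 10) (q := q) (R1 := R1)
    (x := x) (Cl := 1) lA (by rw [Sc299.pJ_out (by decide)]) hR1 zero_le_one hN C P Bf
    (fun n k i => (1 + al n ^ 2) * Ef n k i / 2)
    (by
      intro ε hε
      filter_upwards [g.bd (ε / 4) (by positivity), g.al0 (ε / 4) (by positivity),
        ev_const_le B (show (0 : ℝ) < ε / 4 by positivity) 2] with n hbd hal h2
      intro i k hik
      obtain ⟨-, -, -, -, hC, -, hB, hE⟩ := hbd k i hik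
      have hm : B.d n ^ (-(ε / 4)) ≤ B.d n ^ (-ε) := rpow_anti B n (by linarith)
      refine ⟨hC.trans hm, hB.trans hm, ?_⟩
      set t : ℝ := B.d n ^ (-(ε / 4)) with ht
      have ht0 : 0 < t := rpos B n _
      have h1 : al n ^ 2 ≤ t ^ 2 := by
        rw [← sq_abs (al n)]; exact pow_le_pow_left₀ (abs_nonneg _) hal 2
      have h3 : |(1 + al n ^ 2) * Ef n k i / 2| ≤ (1 + t ^ 2) * t / 2 := by
        rw [abs_div, abs_mul, abs_two, abs_of_pos (by positivity : 0 < 1 + al n ^ 2)]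
        have : (1 + al n ^ 2) * |Ef n k i| ≤ (1 + t ^ 2) * t :=
          mul_le_mul (by linarith) hE (abs_nonneg _) (by positivity)
        linarith
      have h4 : (1 + t ^ 2) * t / 2 ≤ t ^ 4 := by
        have a1 : t ≤ t ^ 4 := by nlinarith [pow_pos ht0 2, pow_pos ht0 3]
        have a2 : t ^ 3 ≤ t ^ 4 := by nlinarith [pow_pos ht0 3]
        nlinarith
      have h5 : t ^ 4 = B.d n ^ (-ε) := by
        rw [ht, ← Real.rpow_natCast, ← Real.rpow_mul (B.pos n).le]; congr 1; push_cast; ring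
      exact h3.trans (h4.trans h5.le))
    (by
      intro ε hε
      filter_upwards [g.r3 ε hε, g.r10 ε hε] with n h3 h10 i k l hi hl
      rw [one_mul]
      refine ⟨h3 k i l hi hl, ?_⟩
      have := h10 k i l hi hl
      have e1 : P n l - P n i + Bf n i * (C n l - C n i) +
          (1 + al n ^ 2) * Ef n k i / 2 * (C n l - C n i) ^ 2 =
          P n l - P n i + Bf n i * (C n l - C n i) +
          (1 + al n ^ 2) * Ef n k i * (C n l - C n i) ^ 2 / 2 := by ring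
      rw [e1]
      exact this)

open Classical in
/-- **`H7` of `core`** -/
theorem h7_of (H : RUnif B G Leg ν D) {AX AH AF C P Bf : ℕ → ℕ → ℝ} {x c : ℝ}
    (hDc : Sc858a.Dic B G (Sc299.dat G AX AH AF C P Bf) (pJ JA x) (pJ JC x) x c) {q R1 : ℝ}
    (hs : ∃ K : ℝ, 0 ≤ K ∧ ∀ r : ℝ, 0 < r → r ≤ R1 → ∀ ε : ℝ, 0 < ε →
      ∀ᶠ n in (U : Filter ℕ), ∀ i k, (i, k) ∈ (G n).I → ∀ e b u : ℝ, |e| ≤ B.d n ^ (-ε) →
      |b| ≤ B.d n ^ (-ε) →
      ((((G n).box (pJ JA x) ε i k).filter fun l =>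
        |P n l + e * C n l ^ 2 / 2 + b * C n l - u| ≤ B.d n ^ r).card : ℝ) ≤
        B.d n ^ (-(ν (pJ JA x)) + q * r - K * ε)) :
    ∃ K : ℝ, 0 ≤ K ∧ ∀ r : ℝ, 0 < r → r ≤ R1 → ∀ ε : ℝ, 0 < ε →
      ∀ᶠ n in (U : Filter ℕ), ∀ e b : ℝ, |e| ≤ B.d n ^ (-ε) → |b| ≤ B.d n ^ (-ε) →
      ∀ k ∈ (G n).Z, ∀ l0 ∈ (G n).L, (l0, k) ∈ (G n).I → ∀ l1 ∈ (G n).L, (l1, k) ∈ (G n).I →
      (((G n).L.filter fun l => ((l, k) ∈ (G n).I ∧
        (Sc299.dat G AX AH AF C P Bf n).near (B.d n ^ (x - ε)) k l0 l) ∧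
        |(Sc299.dat G AX AH AF C P Bf n).V e b l - (Sc299.dat G AX AH AF C P Bf n).V e b l1| ≤
          B.d n ^ r).card : ℝ) ≤
      B.d n ^ (-ν (pJ JA x) + q * r - K * ε) := by
  obtain ⟨K, hK, hs⟩ := hs
  have hc := hDc.c1
  refine ⟨K * c, by positivity, fun r hr0 hr ε hε => ?_⟩
  filter_upwards [hs r hr0 hr (c * ε) (by positivity), hDc.b ε hε] with n hsn hbn
  intro e b he hb k hk l0 hl0 hl0k l1 hl1 hl1k
  have hmono : B.d n ^ (-ε) ≤ B.d n ^ (-(c * ε)) := rpow_anti B n (by nlinarith)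
  have f0 := hsn l0 k hl0k e b (P n l1 + e * C n l1 ^ 2 / 2 + b * C n l1) (he.trans hmono)
    (hb.trans hmono)
  have e0 : -ν (pJ JA x) + q * r - K * (c * ε) = -ν (pJ JA x) + q * r - K * c * ε := by ring
  rw [e0] at f0
  refine le_trans (Nat.cast_le.2 (card_le_card ?_)) f0
  intro l hl
  obtain ⟨a1, ⟨a2, a3⟩, a4⟩ := mem_filter.1 hl
  refine mem_filter.2 ⟨RCfg.mem_box.2 ⟨H.memSlice.2 a2, hbn k l0 l hl0k a2 a3⟩, ?_⟩
  have e1 : P n l + e * C n l ^ 2 / 2 + b * C n l - (P n l1 + e * C n l1 ^ 2 / 2 + b * C n l1) =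
      (Sc299.dat G AX AH AF C P Bf n).V e b l - (Sc299.dat G AX AH AF C P Bf n).V e b l1 := by
    show _ = (P n l + e * (C n l ^ 2 / 2) + b * C n l) -
      (P n l1 + e * (C n l1 ^ 2 / 2) + b * C n l1)
    ring
  rw [e1]
  exact a4

open Classical in
/-- **SIG2 over a relative model**, strips as a hypothesis -/
theorem sig2_strips (M : RModel B G σ R Leg ν D) {S : Finset (Fin 12)} {al : ℕ → ℝ}
    {AX AH AF C P Bf : ℕ → ℕ → ℝ} {Ef : ℕ → ℕ → ℕ → ℝ} {x : ℝ}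
    (g : GC B G al AX AH AF C P Bf Ef x) (T : Kr710.Thin B G S al x)
    (hall : ∀ ε : ℝ, 0 < ε → ∀ᶠ n in (U : Filter ℕ), ∀ k i l, (i, k) ∈ (G n).I →
      (l, k) ∈ (G n).I → (G n).loose 0 ε k i l)
    (hx : 0 < x) (hxR : x ≤ R) (l0 : (0 : Fin 12 → ℝ) ∈ Leg) (lC : pJ JC x ∈ Leg)
    (lA : pJ JA x ∈ Leg) (lH : pJ JH x ∈ Leg) (lF : pJ JF x ∈ Leg)
    (hplat : ν 0 - ν (pJ JC x) ≤ ν (pJ JA x) - ν (pJ JF x))
    {q0 q R0 R1 : ℝ} (hq0 : 0 < q0) (hR0 : 0 < R0) (hN0 : NoStrC B G 0 3 10 ν q0 R0)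
    (hq : 0 < q) (hR1 : 0 < R1)
    (hs : ∃ K : ℝ, 0 ≤ K ∧ ∀ r : ℝ, 0 < r → r ≤ R1 → ∀ ε : ℝ, 0 < ε →
      ∀ᶠ n in (U : Filter ℕ), ∀ i k, (i, k) ∈ (G n).I → ∀ e b u : ℝ, |e| ≤ B.d n ^ (-ε) →
      |b| ≤ B.d n ^ (-ε) →
      ((((G n).box (pJ JA x) ε i k).filter fun l =>
        |P n l + e * C n l ^ 2 / 2 + b * C n l - u| ≤ B.d n ^ r).card : ℝ) ≤
        B.d n ^ (-(ν (pJ JA x)) + q * r - K * ε)) :
    σ * x ≤ 2 * (ν (pJ JC x) - ν (pJ JH x)) - (ν 0 - ν (pJ JA x)) := by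
  have H := M.toRUnif
  have hDc := dic858 H.base g T hall
  have hne : ∀ n, (G n).L.Nonempty := by
    intro n
    obtain ⟨⟨i, k⟩, hik⟩ := H.nonempty n
    exact ⟨i, H.memL hik⟩
  have hZne : ∀ n, (G n).Z.Nonempty := by
    intro n
    obtain ⟨⟨i, k⟩, hik⟩ := H.nonempty n
    exact ⟨k, H.memZ hik⟩
  refine sig2_glue (G := G) (B := B) (Sc299.dat G AX AH AF C P Bf) (R1 := R1) (q7 := q)
    (n0 := ν 0) (nA := ν (pJ JA x)) (nM := ν (pJ JC x) - ν (pJ JH x)) M.σ_nonneg hx hR1 hq hne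
    hZne (fun n k => rfl) ?_ ?_ ?_ ?_ ?_ ?_ ?_ ?_ ?_
  · -- bounds
    intro ε hε
    filter_upwards [g.bd ε hε, M.line 1 one_pos] with n hbd hline l hl
    have hZ0 : (0 : ℝ) < (G n).Z.card := by exact_mod_cast (hZne n).card_pos
    have h1 : (0 : ℝ) < ((G n).hts l).card :=
      lt_of_lt_of_le (mul_pos (rpos B n 1) hZ0) (hline l hl)
    obtain ⟨k, hk⟩ := card_pos.1 (by exact_mod_cast h1 : 0 < ((G n).hts l).card)
    have hlk : (l, k) ∈ (G n).I := (RCfg.mem_hts.1 hk).2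
    obtain ⟨-, -, -, -, hC, -, hB, -⟩ := hbd k l hlk
    exact ⟨hC, hB⟩
  · -- number of lines
    refine ⟨D + 1, by have := H.D1; positivity, fun ε hε => ?_⟩
    filter_upwards [hall ε hε, M.slice ε hε, H.up 0 l0 ε hε] with n ha hsl hup
    obtain ⟨⟨i, k⟩, hik⟩ := H.nonempty n
    have h1 := hsl k (H.memZ hik)
    have h2 : (((G n).slice k).card : ℝ) ≤ (((G n).box 0 ε i k).card : ℝ) := by
      refine Nat.cast_le.2 (card_le_card ?_)
      intro l hl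
      exact RCfg.mem_box.2 ⟨hl, ha k i l hik (H.memSlice.1 hl)⟩
    have h3 := (h1.trans h2).trans (hup i k hik)
    have hp : 0 < B.d n ^ (-ε) := rpos B n _
    have h4 := mul_le_mul_of_nonneg_left h3 hp.le
    have e1 : B.d n ^ (-ε) * (B.d n ^ ε * ((G n).L.card : ℝ)) = ((G n).L.card : ℝ) := by
      rw [← mul_assoc, ← rpow_add', neg_add_cancel, Real.rpow_zero, one_mul]
    rw [e1, ← rpow_add'] at h4
    refine h4.trans (le_of_eq ?_)
    congr 1; ring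
  · -- H2
    have hD := H.D1
    have hmax : ∀ s, pJ JF x s ≤ max (pJ JA x s) (pJ JC x s) := by
      intro s
      by_cases hA : s ∈ JA
      · rw [Sc299.pJ_in hA]
        by_cases hs : s ∈ JF
        · rw [Sc299.pJ_in hs]; exact le_max_left _ _
        · rw [Sc299.pJ_out hs]; exact hx.le.trans (le_max_left _ _)
      · by_cases hC : s ∈ JC
        · rw [Sc299.pJ_in hC]
          by_cases hs : s ∈ JF
          · rw [Sc299.pJ_in hs]; exact le_max_right _ _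
          · rw [Sc299.pJ_out hs]; exact hx.le.trans (le_max_right _ _)
        · have hs : s ∉ JF := by revert hA hC; revert s; decide
          rw [Sc299.pJ_out hs, Sc299.pJ_out hA]
          exact le_max_left _ _
    refine ⟨2 + D + 3 * 18 * D ^ 5 + D * (D ^ 2 + 18), by positivity, fun ε hε => ?_⟩
    filter_upwards [Sc858a.h2 M hDc l0 lA lC lF hmax hall hplat hε] with n hn k hk l hl hlk
    exact hn k l hlk
  · -- H3
    refine ⟨1 + D * 18, by have := H.D1; positivity, fun ε hε => ?_⟩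
    filter_upwards [Sc858a.h3 M hDc l0 lA hε] with n hn k hk
    have := hn k hk
    have e1 : B.d n ^ ((1 + D * 18) * ε) * B.d n ^ (-(ν 0 - ν (pJ JA x))) =
        B.d n ^ (-(ν 0 - ν (pJ JA x)) + (1 + D * 18) * ε) := by
      rw [← rpow_add']; congr 1; ring
    rw [e1]
    exact this
  · -- H4
    obtain ⟨K, hK, hh⟩ := Sc748.h4 H g lC lH (fun j => by
        by_cases hj : j ∈ JC
        · have hj' : j ∈ JH := by revert hj; revert j; decide
          rw [Sc299.pJ_in hj, Sc299.pJ_in hj']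
        · rw [Sc299.pJ_out hj]
          by_cases hj' : j ∈ JH
          · rw [Sc299.pJ_in hj']; exact hx.le
          · rw [Sc299.pJ_out hj']) (by rw [Sc299.pJ_in (by decide)])
      (by rw [Sc299.pJ_in (by decide)]) (c := 18) (by norm_num) hDc.b'
    refine ⟨K, hK, fun ε hε => ?_⟩
    filter_upwards [hh ε hε] with n hn k hk j hj
    have ed : Sc748.dat G AX AH AF C P Bf n = Sc299.dat G AX AH AF C P Bf n := rfl
    rw [ed] at hn
    exact hn k hk j hj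
  · -- H5
    refine ⟨1, zero_le_one, fun ε hε => ?_⟩
    filter_upwards [Sc858a.h5 H hDc lA hε] with n hn k hk l hl hlk
    rw [one_mul]
    exact hn k l hlk
  · -- H6
    intro Kl hKl
    obtain ⟨K6, hK6, ε0, hε0, hh⟩ := Sc858a.h6 M hDc hx l0 lC hall hq0 hR0 hN0 g.r3 hKl
    refine ⟨K6, hK6, ε0, hε0, fun ε hε hεε => ?_⟩
    filter_upwards [hh ε hε hεε.le] with n hn l0 hl0
    exact hn l0 hl0
  · -- H7
    exact h7_of H hDc hs
  · -- H8
    intro y hy0 hy ε hε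
    filter_upwards [M.frost y hy0 (hy.trans hxR) ε hε] with n hn k hk
    have := hn k hk
    unfold RCfg.hbox at this
    rw [H.base n] at this
    exact this

/-- **SIG2 over a relative model** -/
theorem sig2_model (M : RModel B G σ R Leg ν D) {S : Finset (Fin 12)} {al : ℕ → ℝ}
    {AX AH AF C P Bf : ℕ → ℕ → ℝ} {Ef : ℕ → ℕ → ℕ → ℝ} {x : ℝ}
    (g : GC B G al AX AH AF C P Bf Ef x) (T : Kr710.Thin B G S al x)
    (hall : ∀ ε : ℝ, 0 < ε → ∀ᶠ n in (U : Filter ℕ), ∀ k i l, (i, k) ∈ (G n).I →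
      (l, k) ∈ (G n).I → (G n).loose 0 ε k i l)
    (hx : 0 < x) (hxR : x ≤ R) (l0 : (0 : Fin 12 → ℝ) ∈ Leg) (lC : pJ JC x ∈ Leg)
    (lA : pJ JA x ∈ Leg) (lH : pJ JH x ∈ Leg) (lF : pJ JF x ∈ Leg)
    (hplat : ν 0 - ν (pJ JC x) ≤ ν (pJ JA x) - ν (pJ JF x))
    {q0 q R0 R1 : ℝ} (hq0 : 0 < q0) (hR0 : 0 < R0) (hN0 : NoStrC B G 0 3 10 ν q0 R0)
    (hq : 0 < q) (hR1 : 0 < R1) (hR1x : R1 ≤ x) (hNA : NoStrC B G (pJ JA x) 3 10 ν q R1) :
    σ * x ≤ 2 * (ν (pJ JC x) - ν (pJ JH x)) - (ν 0 - ν (pJ JA x)) :=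
  sig2_strips M g T hall hx hxR l0 lC lA lH lF hplat hq0 hR0 hN0 hq hR1
    (strips_gc M.toRUnif g lA hR1x hNA)

open Classical in
/-- 803's `Sig2M` -/
theorem sig2M : ∀ (B : Base) (G : ℕ → RCfg (Fin 12)) (σ R : ℝ) (Leg : Set (Fin 12 → ℝ))
    (ν : (Fin 12 → ℝ) → ℝ) (D : ℝ) (al : ℕ → ℝ) (AX AH AF C P Bf : ℕ → ℕ → ℝ)
    (Ef : ℕ → ℕ → ℕ → ℝ) (S : Finset (Fin 12)) (x q R1 : ℝ), RModel B G σ R Leg ν D →
    GC B G al AX AH AF C P Bf Ef x → Kr710.Thin B G S al x →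
    (∀ ε : ℝ, 0 < ε → ∀ᶠ n in (U : Filter ℕ), ∀ k i l, (i, k) ∈ (G n).I → (l, k) ∈ (G n).I →
      (G n).loose 0 ε k i l) → 0 < x → x ≤ R → (0 : Fin 12 → ℝ) ∈ Leg → pJ JC x ∈ Leg →
    pJ JA x ∈ Leg → pJ JH x ∈ Leg → pJ JF x ∈ Leg →
    ν 0 - ν (pJ JC x) ≤ ν (pJ JA x) - ν (pJ JF x) → 0 < q → 0 < R1 → R1 ≤ x →
    Sc708.NoStrC B G 0 3 10 ν q R1 →
    (∃ K : ℝ, 0 ≤ K ∧ ∀ r : ℝ, 0 < r → r ≤ R1 → ∀ ε : ℝ, 0 < ε → ∀ᶠ n in (U : Filter ℕ),
      ∀ i k, (i, k) ∈ (G n).I → ∀ e b u : ℝ, |e| ≤ B.d n ^ (-ε) → |b| ≤ B.d n ^ (-ε) →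
      ((((G n).box (pJ JA x) ε i k).filter fun l =>
        |P n l + e * C n l ^ 2 / 2 + b * C n l - u| ≤ B.d n ^ r).card : ℝ) ≤
        B.d n ^ (-(ν (pJ JA x)) + q * r - K * ε)) →
    σ * x ≤ 2 * (ν (pJ JC x) - ν (pJ JH x)) - (ν 0 - ν (pJ JA x)) := by
  intro B G σ R Leg ν D al AX AH AF C P Bf Ef S x q R1 M g T hall hx hxR l0 lC lA lH lF hplat hq
    hR1 hR1x hN0 hs
  exact sig2_strips M g T hall hx hxR l0 lC lA lH lF hplat hq hR1 hN0 hq hR1 hs

end Crest.Agent.R116.Sc905
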