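import Crest.Agent.R116.Sc5c_748
import Crest.Agent.R116.Sc8_905

/-!
# R116, K-TEXT II-c, SIG2 (`σ = 2`), Sc5e: final form (helper748)

`Sc5c` with 905's `sig2M` plugged in: no binder.
-/

set_option autoImplicit false
set_option linter.unusedVariables false

open Set Filter Topology

namespace Crest.Agent.R116.Sc5c748

open Crest.Agent.R138.Ex926 (Base U IsTan)
open Crest.Agent.R136
open Crest.Agent.R136.Net191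
open Crest.Agent.R136.Lq196
open Crest.Agent.R136.MkA627
open Crest.Agent.R116.LZg725
open Crest.Agent.R116.ChL222
open Crest.Agent.R116.Sg337 (bx9)
open Crest.Agent.R116.Gd222
open Crest.Agent.R116.KI439
open Crest.Agent.R116.Tw468
open Crest.Agent.R116.CtxB468
open Crest.Agent.R116.RowU194 (SigP)
open Sg635 (kX kN)

/-- 803's `Sig2M` -/
theorem hM : Sc5803.Sig2M := Sc905.sig2M

section ctx

variable {G : Geo TSet (Fin 2)} {L : ℕ → ℕ → LRay} {r : ℕ → ℝ} {g s : ℝ} {θ q : Fin 2 → ℝ}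
    {Rg : ℝ} {B : Base} {I : ℕ → Finset (ℕ × ℝ)} {lev : ℕ → ℚ → ℕ} {A : ℕ → ℝ}
    {f : ℕ → ℚ → ℕ → ℤ → ℕ} {b : ℕ → ℚ → ℕ → TSet} {vm : ℕ → ℚ → ℝ} {w : Fin 2 → ℕ → ℚ → ℝ}
    {fr : ℕ → ℚ → ℕ × ℝ → LInc} {fl : ℕ → ℕ × ℝ → LInc} {sc : Fin 12 → ℕ → ℝ}
    {w0 sa sb δ R : ℝ} {I0 I' : ℕ → Finset (ℕ × ℝ)} {ν own : (Fin 12 → ℝ) → ℝ} {c₀ : ℝ}
    {J : Type*} {c δ' : ℝ} {F : J → (Fin 12 → ℝ) → ℝ} {j0 : J} {v0 lam0 : ℝ} {z : ℝ × ℝ}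
    {u k : ℕ → ℝ} {lam : J → (Fin 12 → ℝ) → ℝ} {A' : ℝ × ℝ} {φ : ℕ → (Fin 12 → ℝ) → ℝ}
    {rr : ℕ → ℝ}

/-- **SIG2 over `CtxT` + `SigP`, no binder** (194's literal) -/
theorem sig2_tF
    (h : CtxT G L r g s θ q Rg B I lev A f b vm w fr fl sc w0 sa sb δ R I0 I' ν own c₀)
    (hq0 : 0 < q 0) (hq1 : 0 < q 1)
    (H : SigP R w0 sa sb (θ 0) (θ 1) s c (q 0) (q 1) δ' F j0 v0 lam0 z u k lam A' φ rr)
    (hf : F j0 = ν)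
    (hθ : 0 < θ 0) (h2 : θ 1 = 2 * θ 0) (hRa : θ 0 < Rg) (hRb : |θ 1| < Rg) :
    ∃ t : ℝ, 0 < t ∧ (1 - s) * t ≤
      2 * (lam j0 (bx9 t 0 0 t 0 t 0 0 0) - lam j0 (bx9 t 0 0 t 0 t t 0 t)) -
        (lam j0 (bx9 t 0 0 0 0 0 0 0 0) - lam j0 (bx9 t 0 0 0 t 0 t 0 t)) :=
  sig2_t hM h hq0 hq1 H hf hθ h2 hRa hRb

/-- **SIG2, rates, no binder** -/
theorem sig2_fieldF
    (h : CtxT G L r g s θ q Rg B I lev A f b vm w fr fl sc w0 sa sb δ R I0 I' ν own c₀)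
    (hq0 : 0 < q 0) (hq1 : 0 < q 1)
    (H : SigP R w0 sa sb (θ 0) (θ 1) s c (q 0) (q 1) δ' F j0 v0 lam0 z u k lam A' φ rr)
    (hf : F j0 = ν)
    (hθ : 0 < θ 0) (h2 : θ 1 = 2 * θ 0) (hRa : θ 0 < Rg) (hRb : |θ 1| < Rg) :
    1 - s ≤ rr (kN (θ 0) (θ 1)) - rr (kX (θ 0) (θ 1)) :=
  sig2_field hM h hq0 hq1 H hf hθ h2 hRa hRb

end ctx

end Crest.Agent.R116.Sc5c748
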