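import Crest.Agent.R116.Sg3c_890

/-!
# R116 (K side, LEMMA SIG), `σ = 0` (helper890; docs 2383, 439's positions)

* `Out.facts0` : the facts at a position, `σ = 0`
* **`sig0_core`** : `PosF` + own + increments ⊢ `False` at `θb = 0`
* **`sig0_false`** : the same over `LinFacts` (665), binders of 332's `sig1_false` (own in the
  form `ownG`)
-/

set_option autoImplicit false
set_option linter.unusedVariables false

open Set Filter Topology MeasureTheory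

namespace Crest.Agent.R116.SgP890

open Crest.Agent.R136
open Crest.Agent.R138
open Crest.Agent.R136.Net191
open Crest.Agent.R116.ChL222
open Dg219 (Walls mw gset mem_gset gC dhC nC gC_zero gC_eq OutS)
open SgO219 (RateP exists_posn_y psi_lip rateP_of_diff seg_ge ae_line exists_line)
open Sg337 (bx9 uC uP uCP)
open Sg388 (ind)
open Sg635
open SgF665 (LM0 wl LinTan LinFacts)

section

variable {θa θb : ℝ} {lam : (Fin 12 → ℝ) → ℝ} {A : ℝ × ℝ} {φ : ℕ → (Fin 12 → ℝ) → ℝ} {r : ℕ → ℝ}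

/-- the facts at a position, `σ = 0` -/
theorem Out.facts0 (H : Out θa θb lam A φ r) (ha : θa ≠ 0) (h0 : θb = 0) {s : ℝ}
    (hP : PosF lam s)
    (hown : ∀ p ∈ LMd, ∀ q ∈ LMd, p ≤ q → (1 - s) * (q 0 - p 0) ≤ lam p - lam q)
    {v : Fin 4 → ℝ} (hv : v ∈ Pos) {G : Fin 4 → ℝ} (hG : RateP (φ 0) (0 + T4 v) T4 G)
    (hd : ∀ᵐ ζ : ℝ, DifferentiableAt ℝ (fun u => φ (kz θa θb) (Tz u)) ![ζ, ζ + v 1])
    {δ : ℝ} (hδ : 0 < δ) :
    ∃ rz rF : ℝ, 1 - s ≤ rz ∧ rz + rF ≤ r (kz θa θb) + δ ∧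
      (0 < G 0 → 1 - s ≤ r (kX θa θb)) ∧ (s < G 0 → 1 ≤ r (kX θa θb)) ∧
      (0 < G 0 → r (kX θa θb) ≤ r (kN θa θb)) ∧
      (0 < G 1 → 1 - s ≤ rF) ∧ (s < G 1 → 1 ≤ rF) ∧
      (0 < G 3 → r (kX θa θb) ≤ rF) ∧ (0 < G 2 → r (kN θa θb) ≤ rF) := by
  obtain ⟨ζ, hζ, hr⟩ := exists_line (H.lipz ha h0) hδ (fun u => H.ratez ha h0 u) hd
  set G2 : Fin 2 → ℝ :=
    fun i => -fderiv ℝ (fun u => φ (kz θa θb) (Tz u)) ![ζ, ζ + v 1] (Pi.single i 1) with hG2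
  have hbase : ∀ X N : ℝ, bg ζ X N (ζ + v 1) + T4 v ∈ LMd →
      RateBx lam (bg ζ X N (ζ + v 1) + T4 v) (G2 0) (r (kX θa θb)) (r (kN θa θb)) (G2 1)
        (G 0) (G 1) (G 2) (G 3) := by
    intro X N hc0
    refine H.rateBx0 ha h0 hc0 (H.rate0_bg hG _ _ _ _) ?_
    refine rateP_of_diff (Q := mw monL) (x0 := xS 1) (a := aS) (b := bS θa θb) (lam := lam)
      (A := A) (r := r) (grp := gC aS (bS θa θb)) (dh := dhC aS (bS θa θb))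
      (n := nC aS (bS θa θb)) (by rw [L_eq one_ne_zero]; exact H) (kz θa θb) hζ fun i hi => ?_
    rcases (slots0 ha h0 i).1.1 hi with rfl | rfl
    · rw [(pv _ _ _ _ v).1, (Tzv _).1]; rfl
    · rw [(pv _ _ _ _ v).2.2.2.2, (Tzv _).2]; rfl
  obtain ⟨hv0, hv1, hv2⟩ := hv
  have hv : v ∈ Pos := ⟨hv0, hv1, hv2⟩
  have p0 := hv0 0
  have p1 := hv0 1
  have p2 := hv0 2
  have p3 := hv0 3
  -- the corner
  have m1 : bg ζ (ζ + v 0) (v 0 + (ζ + v 0)) (ζ + v 1) + T4 v ∈ LMd :=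
    (bg_mem hv).2 ⟨le_rfl, le_rfl, le_rfl, by linarith, by linarith⟩
  have m2 : bg ζ (ζ + v 1 - v 3) (v 0 + (ζ + v 1 - v 3)) (ζ + v 1) + T4 v ∈ LMd :=
    (bg_mem hv).2 ⟨by linarith, le_rfl, le_rfl, by linarith, by linarith⟩
  have m3 : bg ζ (ζ + v 0) (ζ + v 1 - v 2) (ζ + v 1) + T4 v ∈ LMd :=
    (bg_mem hv).2 ⟨le_rfl, by linarith, le_rfl, by linarith, by linarith⟩
  have K1 := hP.K1 v hv _ _ _ _ m1 _ _ _ _ _ _ _ _ (hbase _ _ m1) rfl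
  have H1 := hP.H1 v hv _ _ _ _ m1 _ _ _ _ _ _ _ _ (hbase _ _ m1) rfl
  have K2 := hP.K2 v hv _ _ _ _ m1 _ _ _ _ _ _ _ _ (hbase _ _ m1) rfl
  have S1 := hP.S1 v hv _ _ _ _ m2 _ _ _ _ _ _ _ _ (hbase _ _ m2) (by ring)
  have S2 := hP.S2 v hv _ _ _ _ m3 _ _ _ _ _ _ _ _ (hbase _ _ m3) (by ring)
  exact ⟨G2 0, G2 1, H.own_rate ha h0 hown hζ, hr, K1.1, K1.2, H1, K2.1, K2.2, S1, S2⟩

/-- **`σ = 0`** -/
theorem sig0_core (H : Out θa θb lam A φ r) (ha : θa ≠ 0) (h0 : θb = 0) {s c q0 q1 δ : ℝ}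
    (hP : PosF lam s)
    (hown : ∀ p ∈ LMd, ∀ q ∈ LMd, p ≤ q → (1 - s) * (q 0 - p 0) ≤ lam p - lam q)
    (hs : 0 ≤ s) (hc : 2 * s < c) (hq0 : 0 < q0) (hq1 : 0 < q1) (hδ : δ ≤ (c - 2 * s) / 2)
    (hsum : ∑ k ∈ (gset (gC aS (bS θa θb))).erase 0, r k ≤ 4 - s - c + δ)
    (iC : ∀ y : ℝ, 0 < y → q0 * y ≤ -lam (y • uC))
    (iCP : ∀ y : ℝ, 0 < y → (c + q0 + q1) * y ≤ -lam (y • uCP))
    (iP : ∀ y : ℝ, 0 < y → q1 * y ≤ -lam (y • uP)) : False := by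
  -- the sum of the rates
  have hS : r (kz θa θb) + r (kX θa θb) + r (kN θa θb) ≤ 4 - s - c + δ := by
    have h1 := (gset_sum0 (θa := θa) (θb := θb) ha h0 r).2
    have m0 : (0:ℕ) ∈ gset (gC aS (bS θa θb)) := by rw [gset_eq]; simp
    rw [← Finset.add_sum_erase _ _ m0] at h1
    linarith
  have hN := ae_line (H.lipz ha h0) (d := 4) 1
  have e1 : 0 < (c - 2 * s) / 4 := by linarith
  -- position `C`
  obtain ⟨v1, hN1, hv1, -, G1, g1, b1, f1⟩ := H.pos4 (S := {0}) (Or.inl rfl) pos_open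
    (Subset.refl _) (fun ε hε t ht => pos_path (Or.inl rfl) hε ht) one_pos
    (H.incr0 (Or.inl rfl) one_pos (by rw [T4_C]; exact iC 1 one_pos)) (half_pos hq0) one_pos hN
  rw [Finset.sum_singleton] at b1
  obtain ⟨rz1, rF1, -, -, k1, -, h1, -, -, -, -⟩ := H.facts0 ha h0 hP hown hv1 f1 hN1 e1
  have x1 := k1 (by linarith)
  have x2 := h1 (by linarith)
  -- position `C + P`
  obtain ⟨v2, hN2, hv2, -, G2, g2, b2, f2⟩ := H.pos4 (S := {0, 1}) (Or.inr (Or.inl rfl)) pos_open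
    (Subset.refl _) (fun ε hε t ht => pos_path (Or.inr (Or.inl rfl)) hε ht) one_pos
    (H.incr0 (Or.inr (Or.inl rfl)) one_pos (by rw [T4_CP]; exact iCP 1 one_pos))
    (add_pos hq0 hq1) one_pos hN
  rw [Finset.sum_pair (by decide)] at b2
  obtain ⟨rz2, rF2, o2, t2, k2, k2', h2, l2, l2', -, -⟩ :=
    H.facts0 ha h0 hP hown hv2 f2 hN2 e1
  rcases lt_or_ge s (G2 1) with c1 | c1
  · have := l2' c1
    linarith
  have c2 : s < G2 0 := by linarith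
  have x3 := k2' c2
  have x4 := h2 (by linarith)
  -- position `P + E + B`
  obtain ⟨v3, hN3, hv3, -, G3, g3, b3, f3⟩ := H.pos4 (S := {1, 2, 3}) (Or.inr (Or.inr rfl))
    pos_open (Subset.refl _) (fun ε hε t ht => pos_path (Or.inr (Or.inr rfl)) hε ht) one_pos
    (H.incr0 (Or.inr (Or.inr rfl)) one_pos (by rw [T4_P]; exact iP 1 one_pos))
    (half_pos hq1) one_pos hN
  rw [Finset.sum_insert (by decide), Finset.sum_pair (by decide)] at b3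
  obtain ⟨rz3, rF3, o3, t3, -, -, -, l3, -, s1, s2⟩ := H.facts0 ha h0 hP hown hv3 f3 hN3 e1
  have hF : 1 - s ≤ rF3 := by
    rcases lt_or_ge 0 (G3 1) with d1 | d1
    · exact l3 d1
    rcases lt_or_ge 0 (G3 3) with d2 | d2
    · linarith [s1 d2]
    · linarith [s2 (by linarith)]
  linarith

end

/-- **`σ = 0` over the facts** -/
theorem sig0_false {P : Set (Fin 12 → ℝ)} {θa θb lam0 : ℝ} {A : ℝ × ℝ}
    {φ : ℕ → (Fin 12 → ℝ) → ℝ} {r : ℕ → ℝ} {J : Type*} [Finite J]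
    {f lam : J → (Fin 12 → ℝ) → ℝ} {j0 : J} {x : ℕ → Fin 12 → ℝ} {h : ℕ → ℝ} {K : ℝ}
    {sc : ℕ → ℝ} {Bs : (ℕ → Fin 12 → ℝ) → (ℕ → ℝ) → Prop} {s : ℝ}
    (hK : 0 ≤ K) (hpos : ∀ l, 0 < h l) (h0 : Tendsto h atTop (𝓝 0))
    (hl0 : lam0 ≠ 0) (ha : θa ≠ 0) (hσ : θb = 0)
    (hx : ∀ l, ∀ k, ∀ e ∈ monL.mon k, e 1 = 0 → x l k = wl e (x l))
    (hxD : ∀ k, ∀ e ∈ monL.mon k, e 1 ≠ 0 → ∀ K : ℝ, ∀ᶠ l in atTop,
      x l k + K * h l ≤ wl e (x l))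
    (ht : ∀ j, Ex926.IsTan P ((mw monL).L (xS lam0) aS (bS θa θb)) (f j) x h (lam j))
    (hlip : ∀ j, ∀ p ∈ (mw monL).L (xS lam0) aS (bS θa θb),
      ∀ q ∈ (mw monL).L (xS lam0) aS (bS θa θb), |lam j p - lam j q| ≤ K * ‖p - q‖)
    (H : OutS (gC aS (bS θa θb)) ((mw monL).L (xS lam0) aS (bS θa θb)) (dhC aS (bS θa θb))
      (nC aS (bS θa θb)) (lam j0) A φ r)
    (spos : ∀ m, 0 < sc m) (s0 : Tendsto sc atTop (𝓝 0))
    (hBs : ∀ c0 ∈ LMd, c0 3 = c0 4 → c0 5 = c0 6 → c0 7 = c0 8 → ∀ ψ θ : ℕ → ℕ,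
      StrictMono ψ → StrictMono θ →
      Bs (fun m => x (ψ m) + h (ψ m) • c0) (fun m => h (ψ m) * sc (θ m)))
    (HL : LinFacts P f j0 Bs s)
    {c q0 q1 δ : ℝ} (hs : 0 ≤ s) (hc : 2 * s < c) (hq0 : 0 < q0) (hq1 : 0 < q1)
    (hδ : δ ≤ (c - 2 * s) / 2)
    (hsum : ∑ k ∈ (gset (gC aS (bS θa θb))).erase 0, r k ≤ 4 - s - c + δ)
    (hown : ∀ p ∈ (mw monL).L (xS lam0) aS (bS θa θb),
      ∀ q ∈ (mw monL).L (xS lam0) aS (bS θa θb), p ≤ q →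
      (1 - s) * (q 0 - p 0) ≤ lam j0 p - lam j0 q)
    (iC : ∀ y : ℝ, 0 < y → q0 * y ≤ -lam j0 (y • uC))
    (iP : ∀ y : ℝ, 0 < y → q1 * y ≤ -lam j0 (y • uP))
    (iCP : ∀ y : ℝ, 0 < y → (c + q0 + q1) * y ≤ -lam j0 (y • uCP)) : False := by
  have hP := posF_of hl0 hK hpos h0 hx hxD ht hlip H spos s0 hBs HL
  have H' : Out θa θb (lam j0) A φ r := by
    rw [L_eq hl0] at H
    exact H
  rw [L_eq hl0] at hown
  exact sig0_core H' ha hσ hP hown hs hc hq0 hq1 hδ hsum iC iCP iP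

end Crest.Agent.R116.SgP890
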