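import Crest.Agent.R116.Sg3c_890

/-!
# R116 (K side, LEMMA SIG), `σ = 2` (helper890; docs 2383, 439's positions, 905's SIG2)

* `Out.facts2` : the facts at a position, `σ = 2`
* **`sig2_core`** : `PosF` + own + increments + SIG2 ⊢ `False` at `θb = 2 θa`
* **`sig2_false`** : the same over `LinFacts` (665)
-/

set_option autoImplicit false
set_option linter.unusedVariables false

open Set Filter Topology MeasureTheory

namespace Crest.Agent.R116.SgP890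

open Crest.Agent.R136
open Crest.Agent.R138
open Crest.Agent.R136.Net191
open Crest.Agent.R116.ChL222
open Dg219 (Walls mw gset mem_gset gC dhC nC gC_zero gC_eq OutS)
open SgO219 (RateP exists_posn_y psi_lip rateP_of_diff seg_ge ae_line exists_line)
open Sg337 (bx9 uC uP uCP)
open Sg388 (ind)
open Sg635
open SgF665 (LM0 wl LinTan LinFacts)

section

variable {θa θb : ℝ} {lam : (Fin 12 → ℝ) → ℝ} {A : ℝ × ℝ} {φ : ℕ → (Fin 12 → ℝ) → ℝ} {r : ℕ → ℝ}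

/-- rates at a position over a differentiability point of the pair `(N, F)`, `σ = 2` -/
theorem Out.base2 (H : Out θa θb lam A φ r) (ha : θa ≠ 0) (h2 : θb = 2 * θa) {v : Fin 4 → ℝ}
    {G : Fin 4 → ℝ} (hG : RateP (φ 0) (0 + T4 v) T4 G) {u : Fin 2 → ℝ}
    (hu : DifferentiableAt ℝ (fun u => φ (kN θa θb) (Tn u)) u) {z X : ℝ}
    (hc0 : bg z X (u 0) (u 1) + T4 v ∈ LMd) :
    RateBx lam (bg z X (u 0) (u 1) + T4 v) (r (kz θa θb)) (r (kX θa θb))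
      (-fderiv ℝ (fun u => φ (kN θa θb) (Tn u)) u (Pi.single 0 1))
      (-fderiv ℝ (fun u => φ (kN θa θb) (Tn u)) u (Pi.single 1 1))
      (G 0) (G 1) (G 2) (G 3) := by
  refine H.rateBx2 ha h2 hc0 (H.rate0_bg hG _ _ _ _)
    (G2 := fun i => -fderiv ℝ (fun u => φ (kN θa θb) (Tn u)) u (Pi.single i 1)) ?_
  refine rateP_of_diff (Q := mw monL) (x0 := xS 1) (a := aS) (b := bS θa θb) (lam := lam)
    (A := A) (r := r) (grp := gC aS (bS θa θb)) (dh := dhC aS (bS θa θb))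
    (n := nC aS (bS θa θb)) (by rw [L_eq one_ne_zero]; exact H) (kN θa θb) hu fun i hi => ?_
  rcases (slots2 ha h2 i).2.2.1 hi with rfl | rfl
  · rw [(pv _ _ _ _ v).2.2.2.1, (Tnv _).1]
  · rw [(pv _ _ _ _ v).2.2.2.2, (Tnv _).2]

/-- **`F`-rate `≥ 1` at all base points with `f - v 2 < η < f + T`** -/
theorem Out.factF2 (H : Out θa θb lam A φ r) (ha : θa ≠ 0) (h2 : θb = 2 * θa) {s : ℝ}
    (hP : PosF lam s) {v : Fin 4 → ℝ} (hv : v ∈ Pos) {G : Fin 4 → ℝ}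
    (hG : RateP (φ 0) (0 + T4 v) T4 G) (hs : s < G 1) {u : Fin 2 → ℝ}
    (hu : DifferentiableAt ℝ (fun u => φ (kN θa θb) (Tn u)) u)
    (h3 : u 1 - v 2 ≤ u 0) (h4 : u 0 ≤ u 1 + (2 * v 0 - v 1)) :
    1 ≤ -fderiv ℝ (fun u => φ (kN θa θb) (Tn u)) u (Pi.single 1 1) := by
  obtain ⟨hv0, hv1, hv2⟩ := hv
  have hv : v ∈ Pos := ⟨hv0, hv1, hv2⟩
  have m1 : bg (u 1 - v 1) (u 1 - v 1 + v 0) (u 0) (u 1) + T4 v ∈ LMd :=
    (bg_mem hv).2 ⟨le_rfl, by linarith, by linarith, by linarith, by linarith⟩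
  exact (hP.K2 v hv _ _ _ _ m1 _ _ _ _ _ _ _ _ (H.base2 ha h2 hG hu m1) (by ring)).2 hs

/-- **`H`-rate `≥ X`-rate at all base points with `f < η - v 0`** -/
theorem Out.factH2 (H : Out θa θb lam A φ r) (ha : θa ≠ 0) (h2 : θb = 2 * θa) {s : ℝ}
    (hP : PosF lam s) {v : Fin 4 → ℝ} (hv : v ∈ Pos) {G : Fin 4 → ℝ}
    (hG : RateP (φ 0) (0 + T4 v) T4 G) (hs : 0 < G 0) {u : Fin 2 → ℝ}
    (hu : DifferentiableAt ℝ (fun u => φ (kN θa θb) (Tn u)) u)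
    (h3 : u 1 ≤ u 0 - v 0) :
    r (kX θa θb) ≤ -fderiv ℝ (fun u => φ (kN θa θb) (Tn u)) u (Pi.single 0 1) := by
  obtain ⟨hv0, hv1, hv2⟩ := hv
  have hv : v ∈ Pos := ⟨hv0, hv1, hv2⟩
  have p0 := hv0 0
  have p1 := hv0 1
  have p2 := hv0 2
  have p3 := hv0 3
  have a0 := le_abs_self (u 0)
  have a1 := le_abs_self (u 1)
  have b0 := abs_nonneg (u 0)
  have b1 := abs_nonneg (u 1)
  have m1 : bg (|u 0| + |u 1|) (u 0 - v 0) (u 0) (u 1) + T4 v ∈ LMd :=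
    (bg_mem hv).2 ⟨by linarith, by linarith, by linarith, by linarith, by linarith⟩
  exact hP.H1 v hv _ _ _ _ m1 _ _ _ _ _ _ _ _ (H.base2 ha h2 hG hu m1) (by ring) hs

/-- **`X`-rate** -/
theorem Out.factX2 (H : Out θa θb lam A φ r) (ha : θa ≠ 0) (h2 : θb = 2 * θa) {s : ℝ}
    (hP : PosF lam s) {v : Fin 4 → ℝ} (hv : v ∈ Pos) {G : Fin 4 → ℝ}
    (hG : RateP (φ 0) (0 + T4 v) T4 G) :
    (0 < G 0 → 1 - s ≤ r (kX θa θb)) ∧ (s < G 0 → 1 ≤ r (kX θa θb)) := by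
  obtain ⟨hv0, hv1, hv2⟩ := hv
  have hv : v ∈ Pos := ⟨hv0, hv1, hv2⟩
  have p0 := hv0 0
  have p1 := hv0 1
  have p2 := hv0 2
  have p3 := hv0 3
  -- a differentiability point with `u 1 < u 0`
  have hd : ∀ᵐ u : Fin 2 → ℝ, DifferentiableAt ℝ (fun u => φ (kN θa θb) (Tn u)) u :=
    (H.lipn ha h2).ae_differentiableAt
  have hden : Dense {u : Fin 2 → ℝ | DifferentiableAt ℝ (fun u => φ (kN θa θb) (Tn u)) u} :=
    Measure.dense_of_ae hd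
  obtain ⟨u, hu1, hu⟩ := hden.inter_open_nonempty {u : Fin 2 → ℝ | u 1 < u 0}
    (isOpen_lt (continuous_apply 1) (continuous_apply 0)) ⟨![1, 0], by simp⟩
  have hu1' : u 1 < u 0 := hu1
  have a0 := le_abs_self (u 0)
  have a1 := le_abs_self (u 1)
  have b0 := abs_nonneg (u 0)
  have b1 := abs_nonneg (u 1)
  have m1 : bg (|u 0| + |u 1|) (|u 0| + |u 1| + v 0) (u 0) (u 1) + T4 v ∈ LMd :=
    (bg_mem hv).2 ⟨by linarith, by linarith, by linarith, by linarith, by linarith⟩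
  exact hP.K1 v hv _ _ _ _ m1 _ _ _ _ _ _ _ _ (H.base2 ha h2 hG hu m1) rfl

/-- own rate of `z`, `σ = 2` -/
theorem Out.own2 (H : Out θa θb lam A φ r) (ha : θa ≠ 0) (h2 : θb = 2 * θa) {s : ℝ}
    (hown : ∀ y : ℝ, 0 < y → (1 - s) * y ≤ -lam (bx9 y 0 0 0 0 0 0 0 0)) :
    1 - s ≤ r (kz θa θb) := by
  obtain ⟨d0, d5, d6, d9, d11⟩ := dh_single (θa := θa) (θb := θb)
  have m1 : bx9 1 0 0 0 0 0 0 0 0 ∈ LMd := by
    rw [mem_bx]; norm_num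
  have h1 := hown 1 one_pos
  have h0 : lam 0 = 0 := by
    rw [H.sum 0 zero_mem]
    exact Finset.sum_eq_zero fun k _ => H.zero k 0 fun i _ => rfl
  have h3 := H.lam_diff (k := kz θa θb) (by rw [gset_eq]; simp) m1 zero_mem (fun i hi => by
    have hi' : i ≠ 0 := fun h => hi ((slots2 ha h2 i).1.2 h)
    revert hi'
    fin_cases i <;> simp [bx9])
  have h4 := H.rate (kz θa θb) _ m1 1 (fun i hi => by
    rw [(slots2 ha h2 i).1.1 hi, d0, (cv _ _ _ _ _ _ _ _ _).1]; ring)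
  have h5 : φ (kz θa θb) 0 = 0 := H.zero _ _ fun i _ => rfl
  rw [h0, h4, h5] at h3
  linarith

/-- step of the group `X`, `σ = 2` -/
theorem Out.stepX2 (H : Out θa θb lam A φ r) (ha : θa ≠ 0) (h2 : θb = 2 * θa)
    {z C B N F a b : ℝ} (h1 : bx9 z 0 0 C a B N 0 F ∈ LMd) (h3 : bx9 z 0 0 C b B N 0 F ∈ LMd) :
    lam (bx9 z 0 0 C a B N 0 F) - lam (bx9 z 0 0 C b B N 0 F) = r (kX θa θb) * (b - a) := by
  obtain ⟨d0, d5, d6, d9, d11⟩ := dh_single (θa := θa) (θb := θb)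
  rw [H.lam_diff (k := kX θa θb) (by rw [gset_eq]; simp) h1 h3 (fun i hi => by
    have hi' : i ≠ 5 ∧ i ≠ 6 := ⟨fun h => hi ((slots2 ha h2 i).2.1.2 (Or.inl h)),
      fun h => hi ((slots2 ha h2 i).2.1.2 (Or.inr h))⟩
    revert hi'
    fin_cases i <;> simp [bx9]),
    H.rate (kX θa θb) _ h1 a (fun i hi => by
      rcases (slots2 ha h2 i).2.1.1 hi with rfl | rfl
      · rw [d5, mul_one, (cv _ _ _ _ _ _ _ _ _).2.1]
      · rw [d6, mul_one, (cv _ _ _ _ _ _ _ _ _).2.2.1]),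
    H.rate (kX θa θb) _ h3 b (fun i hi => by
      rcases (slots2 ha h2 i).2.1.1 hi with rfl | rfl
      · rw [d5, mul_one, (cv _ _ _ _ _ _ _ _ _).2.1]
      · rw [d6, mul_one, (cv _ _ _ _ _ _ _ _ _).2.2.1])]
  ring

/-- step of the group `{N, F}`, `σ = 2` -/
theorem Out.stepN2 (H : Out θa θb lam A φ r) (ha : θa ≠ 0) (h2 : θb = 2 * θa)
    {z C X B a b : ℝ} (h1 : bx9 z 0 0 C X B a 0 a ∈ LMd) (h3 : bx9 z 0 0 C X B b 0 b ∈ LMd) :
    lam (bx9 z 0 0 C X B a 0 a) - lam (bx9 z 0 0 C X B b 0 b) = r (kN θa θb) * (b - a) := by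
  obtain ⟨d0, d5, d6, d9, d11⟩ := dh_single (θa := θa) (θb := θb)
  rw [H.lam_diff (k := kN θa θb) (by rw [gset_eq]; simp) h1 h3 (fun i hi => by
    have hi' : i ≠ 9 ∧ i ≠ 11 := ⟨fun h => hi ((slots2 ha h2 i).2.2.2 (Or.inl h)),
      fun h => hi ((slots2 ha h2 i).2.2.2 (Or.inr h))⟩
    revert hi'
    fin_cases i <;> simp [bx9]),
    H.rate (kN θa θb) _ h1 a (fun i hi => by
      rcases (slots2 ha h2 i).2.2.1 hi with rfl | rfl
      · rw [d9, mul_one, (cv _ _ _ _ _ _ _ _ _).2.2.2.1]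
      · rw [d11, mul_one, (cv _ _ _ _ _ _ _ _ _).2.2.2.2]),
    H.rate (kN θa θb) _ h3 b (fun i hi => by
      rcases (slots2 ha h2 i).2.2.1 hi with rfl | rfl
      · rw [d9, mul_one, (cv _ _ _ _ _ _ _ _ _).2.2.2.1]
      · rw [d11, mul_one, (cv _ _ _ _ _ _ _ _ _).2.2.2.2])]
  ring

/-- **SIG2 in rates** -/
theorem Out.sig2_rate (H : Out θa θb lam A φ r) (ha : θa ≠ 0) (h2 : θb = 2 * θa) {s t y : ℝ}
    (hy : 0 < y) (hyt : y ≤ t)
    (h : (1 - s) * y ≤ 2 * (lam (bx9 t 0 0 y 0 y 0 0 0) - lam (bx9 t 0 0 y 0 y y 0 y)) -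
      (lam (bx9 t 0 0 0 0 0 0 0 0) - lam (bx9 t 0 0 0 y 0 y 0 y))) :
    1 - s ≤ r (kN θa θb) - r (kX θa θb) := by
  have e1 := H.stepN2 ha h2 (z := t) (C := y) (X := 0) (B := y) (a := 0) (b := y)
    (by rw [mem_bx]; refine ⟨?_, ?_, ?_, ?_, ?_, ?_, ?_⟩ <;> linarith)
    (by rw [mem_bx]; refine ⟨?_, ?_, ?_, ?_, ?_, ?_, ?_⟩ <;> linarith)
  have e2 := H.stepX2 ha h2 (z := t) (C := 0) (B := 0) (N := 0) (F := 0) (a := 0) (b := y)
    (by rw [mem_bx]; refine ⟨?_, ?_, ?_, ?_, ?_, ?_, ?_⟩ <;> linarith)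
    (by rw [mem_bx]; refine ⟨?_, ?_, ?_, ?_, ?_, ?_, ?_⟩ <;> linarith)
  have e3 := H.stepN2 ha h2 (z := t) (C := 0) (X := y) (B := 0) (a := 0) (b := y)
    (by rw [mem_bx]; refine ⟨?_, ?_, ?_, ?_, ?_, ?_, ?_⟩ <;> linarith)
    (by rw [mem_bx]; refine ⟨?_, ?_, ?_, ?_, ?_, ?_, ?_⟩ <;> linarith)
  nlinarith

/-- **`σ = 2`** -/
theorem sig2_core (H : Out θa θb lam A φ r) (ha : θa ≠ 0) (h2 : θb = 2 * θa) {s c q0 q1 δ : ℝ}
    (hP : PosF lam s)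
    (hown : ∀ y : ℝ, 0 < y → (1 - s) * y ≤ -lam (bx9 y 0 0 0 0 0 0 0 0))
    (hs : 0 ≤ s) (hc : 2 * s < c) (hq0 : 0 < q0) (hq1 : 0 < q1) (hδ : δ ≤ (c - 2 * s) / 2)
    (hsum : ∑ k ∈ (gset (gC aS (bS θa θb))).erase 0, r k ≤ 4 - s - c + δ)
    (iC : ∀ y : ℝ, 0 < y → q0 * y ≤ -lam (y • uC))
    (iCP : ∀ y : ℝ, 0 < y → (c + q0 + q1) * y ≤ -lam (y • uCP))
    (SIG2 : ∃ t y : ℝ, 0 < y ∧ y ≤ t ∧ (1 - s) * y ≤
      2 * (lam (bx9 t 0 0 y 0 y 0 0 0) - lam (bx9 t 0 0 y 0 y y 0 y)) -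
      (lam (bx9 t 0 0 0 0 0 0 0 0) - lam (bx9 t 0 0 0 y 0 y 0 y))) : False := by
  -- the sum of the rates
  have hS : r (kz θa θb) + r (kX θa θb) + r (kN θa θb) ≤ 4 - s - c + δ := by
    have h1 := (gset_sum2 (θa := θa) (θb := θb) ha h2 r).2
    have m0 : (0:ℕ) ∈ gset (gC aS (bS θa θb)) := by rw [gset_eq]; simp
    rw [← Finset.add_sum_erase _ _ m0] at h1
    linarith
  have hz := H.own2 ha h2 hown
  set e : ℝ := (c - 2 * s) / 4 with he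
  have e1 : 0 < e := by rw [he]; linarith
  -- position `C + P`
  have hDo : IsOpen (Pos ∩ {v : Fin 4 → ℝ | v 1 < 2 * v 0}) :=
    pos_open.inter (isOpen_lt (continuous_apply 1) (continuous_const.mul (continuous_apply 0)))
  obtain ⟨v, -, ⟨hv, hvT⟩, -, G, g, b, f⟩ := H.pos4 (S := {0, 1}) (Or.inr (Or.inl rfl)) hDo
    inter_subset_left (fun ε hε t ht => ⟨pos_path (Or.inr (Or.inl rfl)) hε ht, by
      simp [ind]; linarith⟩) one_pos
    (H.incr0 (Or.inr (Or.inl rfl)) one_pos (by rw [T4_CP]; exact iCP 1 one_pos))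
    (add_pos hq0 hq1) one_pos (N := univ) (Eventually.of_forall fun _ => mem_univ _)
  rw [Finset.sum_pair (by decide)] at b
  rcases lt_or_ge s (G 1) with c1 | c1
  swap
  · have x1 := (H.factX2 ha h2 hP hv f).2 (by linarith)
    obtain ⟨t, y, hy, hyt, hI⟩ := SIG2
    have x2 := H.sig2_rate ha h2 hy hyt hI
    linarith
  have hvT' : v 1 < 2 * v 0 := hvT
  set ψ : (Fin 2 → ℝ) → ℝ := fun u => φ (kN θa θb) (Tn u) with hψ
  have hlip := H.lipn ha h2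
  set Lc := Real.toNNReal ((Fintype.card (Fin 12) : ℝ) * ‖Tn‖) with hLc
  set L : ℝ := (Lc : ℝ) with hL
  have hL0 : 0 ≤ L := Lc.2
  set u : ℝ := (2 * v 0 - v 1) / 2 with hu
  have hu0 : 0 < u := by rw [hu]; linarith
  set y : ℝ := e * u / (16 * (L + 1)) with hy
  have hy0 : 0 < y := by positivity
  have hyL : 8 * (y * L) ≤ e * u / 2 := by
    have h1 : y * (16 * (L + 1)) = e * u := by rw [hy]; field_simp
    nlinarith
  obtain ⟨v', -, hv', ⟨t, ht, htv⟩, G', g', b', f'⟩ := H.pos4 (S := {0}) (Or.inl rfl) pos_open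
    (Subset.refl _) (fun ε hε t ht => pos_path (Or.inl rfl) hε ht) hy0
    (H.incr0 (Or.inl rfl) hy0 (by rw [T4_C]; exact iC y hy0)) (half_pos hq0) hy0
    (N := univ) (Eventually.of_forall fun _ => mem_univ _)
  rw [Finset.sum_singleton] at b'
  have hG0 : 0 < G' 0 := by linarith
  have hX := (H.factX2 ha h2 hP hv' f').1 hG0
  set κ : ℝ := v' 0 with hκ
  have hκ0 : 0 < κ := hv'.1 0
  have hκ1 : κ ≤ 2 * y := by
    have h1 := (norm_le_pi_norm (v' - ind {0} t) 0).trans htv.le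
    have h3 : (v' - ind {0} t : Fin 4 → ℝ) 0 = κ - t := by simp [ind, hκ]
    rw [h3, Real.norm_eq_abs, abs_le] at h1
    linarith [ht.2, h1.2]
  have hκL : 4 * (κ * L) ≤ e * u / 2 := by
    have := mul_le_mul_of_nonneg_right hκ1 hL0
    linarith
  -- `F`-direction
  have A1 : 1 * u ≤ ψ ![u, 0] - ψ ![u, u] := by
    have h1 := seg_ge (Φ := ψ) (K := Lc) (D := {w : Fin 2 → ℝ | w 1 - v 2 < w 0 ∧
      w 0 < w 1 + (2 * v 0 - v 1)}) hlip.lipschitzOnWith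
      ((isOpen_lt ((continuous_apply 1).sub continuous_const) (continuous_apply 0)).inter
        (isOpen_lt (continuous_apply 0) ((continuous_apply 1).add continuous_const)))
      (p := ![u, 0]) (e := Pi.single 1 1) (y := u) (q := 1) hu0 (fun t ht => by
        have := hv.1 2
        have q0 : (![u, 0] + t • Pi.single 1 1 : Fin 2 → ℝ) 0 = u := by simp
        have q1 : (![u, 0] + t • Pi.single 1 1 : Fin 2 → ℝ) 1 = t := by simp
        constructor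
        · rw [q0, q1]; linarith [ht.2]
        · rw [q0, q1]; linarith [ht.1]) (fun w hw hd => H.factF2 ha h2 hP hv f c1 hd hw.1.le hw.2.le)
    have e2 : (![u, 0] : Fin 2 → ℝ) + u • Pi.single 1 1 = ![u, u] := by
      funext i; fin_cases i <;> simp
    rw [e2] at h1
    exact h1
  -- `H`-direction
  have A2 : r (kX θa θb) * u ≤ ψ ![0, -(2 * κ)] - ψ ![u, -(2 * κ)] := by
    have h1 := seg_ge (Φ := ψ) (K := Lc) (D := {w : Fin 2 → ℝ | w 1 < w 0 - κ})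
      hlip.lipschitzOnWith (isOpen_lt (continuous_apply 1)
        ((continuous_apply 0).sub continuous_const))
      (p := ![0, -(2 * κ)]) (e := Pi.single 0 1) (y := u) (q := r (kX θa θb)) hu0
      (fun t ht => by
        have q0 : (![0, -(2 * κ)] + t • Pi.single 0 1 : Fin 2 → ℝ) 0 = t := by simp
        have q1 : (![0, -(2 * κ)] + t • Pi.single 0 1 : Fin 2 → ℝ) 1 = -(2 * κ) := by simp
        change (![0, -(2 * κ)] + t • Pi.single 0 1 : Fin 2 → ℝ) 1 <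
          (![0, -(2 * κ)] + t • Pi.single 0 1 : Fin 2 → ℝ) 0 - κ
        rw [q0, q1]; linarith [ht.1]) (fun w hw hd => H.factH2 ha h2 hP hv' f' hG0 hd (le_of_lt hw))
    have e2 : (![0, -(2 * κ)] : Fin 2 → ℝ) + u • Pi.single 0 1 = ![u, -(2 * κ)] := by
      funext i; fin_cases i <;> simp
    rw [e2] at h1
    exact h1
  have A3 : ∀ a : ℝ, |ψ ![a, -(2 * κ)] - ψ ![a, 0]| ≤ L * (2 * κ) := by
    intro a
    have h1 := hlip.dist_le_mul ![a, -(2 * κ)] ![a, 0]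
    rw [Real.dist_eq] at h1
    refine h1.trans (mul_le_mul_of_nonneg_left ?_ hL0)
    rw [dist_pi_le_iff (by linarith)]
    intro i
    fin_cases i <;> simp [dist_eq_norm, abs_of_pos hκ0, hκ0.le]
  have A4 := abs_le.1 (A3 0)
  have A5 := abs_le.1 (A3 u)
  have A6 : ψ ![0, 0] = -(r (kN θa θb) * 0) := H.raten ha h2 0
  have A7 : ψ ![u, u] = -(r (kN θa θb) * u) := H.raten ha h2 u
  have A8 : (1 + r (kX θa θb) - e / 2) * u ≤ r (kN θa θb) * u := by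
    nlinarith [A4.1, A4.2, A5.1, A5.2]
  have A9 := le_of_mul_le_mul_right A8 hu0
  linarith

end

/-- **`σ = 2` over the facts** -/
theorem sig2_false {P : Set (Fin 12 → ℝ)} {θa θb lam0 : ℝ} {A : ℝ × ℝ}
    {φ : ℕ → (Fin 12 → ℝ) → ℝ} {r : ℕ → ℝ} {J : Type*} [Finite J]
    {f lam : J → (Fin 12 → ℝ) → ℝ} {j0 : J} {x : ℕ → Fin 12 → ℝ} {h : ℕ → ℝ} {K : ℝ}
    {sc : ℕ → ℝ} {Bs : (ℕ → Fin 12 → ℝ) → (ℕ → ℝ) → Prop} {s : ℝ}
    (hK : 0 ≤ K) (hpos : ∀ l, 0 < h l) (h0 : Tendsto h atTop (𝓝 0))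
    (hl0 : lam0 ≠ 0) (ha : θa ≠ 0) (hσ : θb = 2 * θa)
    (hx : ∀ l, ∀ k, ∀ e ∈ monL.mon k, e 1 = 0 → x l k = wl e (x l))
    (hxD : ∀ k, ∀ e ∈ monL.mon k, e 1 ≠ 0 → ∀ K : ℝ, ∀ᶠ l in atTop,
      x l k + K * h l ≤ wl e (x l))
    (ht : ∀ j, Ex926.IsTan P ((mw monL).L (xS lam0) aS (bS θa θb)) (f j) x h (lam j))
    (hlip : ∀ j, ∀ p ∈ (mw monL).L (xS lam0) aS (bS θa θb),
      ∀ q ∈ (mw monL).L (xS lam0) aS (bS θa θb), |lam j p - lam j q| ≤ K * ‖p - q‖)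
    (H : OutS (gC aS (bS θa θb)) ((mw monL).L (xS lam0) aS (bS θa θb)) (dhC aS (bS θa θb))
      (nC aS (bS θa θb)) (lam j0) A φ r)
    (spos : ∀ m, 0 < sc m) (s0 : Tendsto sc atTop (𝓝 0))
    (hBs : ∀ c0 ∈ LMd, c0 3 = c0 4 → c0 5 = c0 6 → c0 7 = c0 8 → ∀ ψ θ : ℕ → ℕ,
      StrictMono ψ → StrictMono θ →
      Bs (fun m => x (ψ m) + h (ψ m) • c0) (fun m => h (ψ m) * sc (θ m)))
    (HL : LinFacts P f j0 Bs s)
    {c q0 q1 δ : ℝ} (hs : 0 ≤ s) (hc : 2 * s < c) (hq0 : 0 < q0) (hq1 : 0 < q1)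
    (hδ : δ ≤ (c - 2 * s) / 2)
    (hsum : ∑ k ∈ (gset (gC aS (bS θa θb))).erase 0, r k ≤ 4 - s - c + δ)
    (hown : ∀ y : ℝ, 0 < y → (1 - s) * y ≤ -lam j0 (bx9 y 0 0 0 0 0 0 0 0))
    (iC : ∀ y : ℝ, 0 < y → q0 * y ≤ -lam j0 (y • uC))
    (iCP : ∀ y : ℝ, 0 < y → (c + q0 + q1) * y ≤ -lam j0 (y • uCP))
    (SIG2 : ∃ t y : ℝ, 0 < y ∧ y ≤ t ∧ (1 - s) * y ≤
      2 * (lam j0 (bx9 t 0 0 y 0 y 0 0 0) - lam j0 (bx9 t 0 0 y 0 y y 0 y)) -
      (lam j0 (bx9 t 0 0 0 0 0 0 0 0) - lam j0 (bx9 t 0 0 0 y 0 y 0 y))) : False := by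
  have hP := posF_of hl0 hK hpos h0 hx hxD ht hlip H spos s0 hBs HL
  have H' : Out θa θb (lam j0) A φ r := by
    rw [L_eq hl0] at H
    exact H
  exact sig2_core H' ha hσ hP hown hs hc hq0 hq1 hδ hsum iC iCP SIG2

end Crest.Agent.R116.SgP890
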