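import Crest.Agent.R116.RowU5_194
import Crest.Agent.R116.RowUb_388
import Crest.Agent.R116.RowU7_188
import Crest.Agent.R116.Sg3d_890
import Crest.Agent.R116.Sg3e_890
import Crest.Agent.R116.Kt1_710
import Crest.Agent.R116.Sc5e_748

/-!
# R116, row U (helper194), part 8: no generic point of the plane `Σ`

* `A1p`, `S2p`   : the two statements about the tangent at the generic point (79: A1; 748: SIG2)
* `sigP_false`   : `SigP` + facts + `A1p` + `S2p` ⊢ `False`, all `σ`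
* `facts_T`, `facts4_T` : the facts over the context (388 + 710)
* **`sigB_of`**  : 188's `SigB η` from `A1B η` (79)
-/

set_option autoImplicit false
set_option linter.unusedVariables false

open Set Filter Topology MeasureTheory
open scoped NNReal

namespace Crest.Agent.R116.RowU194

open Crest.Agent.R138.Ex926 (Base U IsTan)
open Crest.Agent.R136
open Crest.Agent.R136.MkA627
open Crest.Agent.R136.TD627
open Crest.Agent.R136.Net191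
open Crest.Agent.R136.Lq196
open Crest.Agent.R116.ChL222
open Crest.Agent.R116.PL504 (nb rL DN βL eL oL Shift)
open Crest.Agent.R116.Xd954 (FlagX)
open Crest.Agent.R116.Sg337 (coneL ProfL DL natB natB_smul bx9 uC uP uCP SL frz frz_single)
open Crest.Agent.R116.Gd222 (TSet sN PDL DT)
open Crest.Agent.R116.KI439
open Crest.Agent.R116.KF439 (PL)
open Crest.Agent.R116.Tw468 (OutT)
open Crest.Agent.R116.CtxB468
open Crest.Agent.R116.KTop387 (NumL RowU)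
open Crest.Agent.R116.Rcx363 (fo)
open Crest.Agent.R116.RowU188 (SigB)
open Dg262 (X SupOn)
open Dg219 (Walls mw gset mem_gset OutS gC dhC nC gC_zero gC_eq)
open Sg635 (xS aS bS X_eq PP_eq L_eq LMd mem_bx)
open SgF665 (LinFacts)
open LF388 (LinFacts4)

/-- **A1** at the tangent `lam` -/
def A1p (s : ℝ) (lam : (Fin 12 → ℝ) → ℝ) : Prop :=
  (∀ y : ℝ, 0 < y → lam (bx9 0 0 y 0 0 0 0 0 0) = 0) →
    2 * (1 - s) ≤ lam (bx9 1 0 1 0 0 0 0 0 0) - lam (bx9 1 0 1 0 1 0 0 0 1)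

/-- **SIG2** at the tangent `lam` -/
def S2p (s : ℝ) (lam : (Fin 12 → ℝ) → ℝ) : Prop :=
  ∃ t : ℝ, 0 < t ∧ (1 - s) * t ≤
    2 * (lam (bx9 t 0 0 t 0 t 0 0 0) - lam (bx9 t 0 0 t 0 t t 0 t)) -
      (lam (bx9 t 0 0 0 0 0 0 0 0) - lam (bx9 t 0 0 0 t 0 t 0 t))

section sig

variable {J : Type*} [Finite J] {R w0 sa sb θa θb s c q0 q1 δ : ℝ} {f : J → (Fin 12 → ℝ) → ℝ}
    {j0 : J} {v0 lam0 : ℝ} {z : ℝ × ℝ} {u k : ℕ → ℝ} {lam : J → (Fin 12 → ℝ) → ℝ} {A : ℝ × ℝ}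
    {φ : ℕ → (Fin 12 → ℝ) → ℝ} {r : ℕ → ℝ}

/-- **the resonance `σ = 0`** -/
theorem sigP_f0 (H : SigP R w0 sa sb θa θb s c q0 q1 δ f j0 v0 lam0 z u k lam A φ r)
    (ha : θa ≠ 0) (hσ : θb = 0) (hs : 0 ≤ s) (hc : 2 * s < c) (hq0 : 0 < q0) (hq1 : 0 < q1)
    (hδ : δ ≤ (c - 2 * s) / 2)
    (HL : LinFacts (Leg monL R) f j0 (Bs0 θa θb w0 sa sb v0 lam0 z u k) s) : False :=
  SgP890.sig0_false (K := 12) (x := xB θa θb w0 sa sb v0 lam0 z u) (h := fun m => u m * k m)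
    (sc := fun n => 1 / ((n : ℝ) + 1)) (by norm_num) H.hpos H.h0 H.hl0 ha hσ H.hx H.hxD H.tan H.lip
    H.out (fun n => by positivity) tendsto_one_div_add_atTop_nhds_zero_nat
    (fun c0 hc0 h3 h5 h7 ψ θ hψ hθ => Bs0.mk' hc0 h3 h5 h7 hψ hθ) HL hs hc hq0 hq1 hδ H.sum H.ownG
    H.iC H.iP H.iCP

/-- **the resonance `σ = 2`** -/
theorem sigP_f2 (H : SigP R w0 sa sb θa θb s c q0 q1 δ f j0 v0 lam0 z u k lam A φ r)
    (ha : θa ≠ 0) (hσ : θb = 2 * θa) (hs : 0 ≤ s) (hc : 2 * s < c) (hq0 : 0 < q0) (hq1 : 0 < q1)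
    (hδ : δ ≤ (c - 2 * s) / 2)
    (HL : LinFacts (Leg monL R) f j0 (Bs0 θa θb w0 sa sb v0 lam0 z u k) s)
    (S2 : S2p s (lam j0)) : False := by
  obtain ⟨t, ht, h2⟩ := S2
  exact SgP890.sig2_false (K := 12) (x := xB θa θb w0 sa sb v0 lam0 z u) (h := fun m => u m * k m)
    (sc := fun n => 1 / ((n : ℝ) + 1)) (by norm_num) H.hpos H.h0 H.hl0 ha hσ H.hx H.hxD H.tan H.lip
    H.out (fun n => by positivity) tendsto_one_div_add_atTop_nhds_zero_nat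
    (fun c0 hc0 h3 h5 h7 ψ θ hψ hθ => Bs0.mk' hc0 h3 h5 h7 hψ hθ) HL hs hc hq0 hq1 hδ H.sum H.own
    H.iC H.iCP ⟨t, t, ht, le_rfl, h2⟩

/-- **no generic point of the plane `Σ`, all `σ`** -/
theorem sigP_false (H : SigP R w0 sa sb θa θb s c q0 q1 δ f j0 v0 lam0 z u k lam A φ r)
    (ha : θa ≠ 0) (hs : 0 ≤ s) (hc : 2 * s < c) (hq0 : 0 < q0) (hq1 : 0 < q1)
    (hδ : δ ≤ (c - 2 * s) / 2)
    (HL : θb ≠ θa → LinFacts (Leg monL R) f j0 (Bs0 θa θb w0 sa sb v0 lam0 z u k) s)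
    (HL4 : LinFacts4 (Leg monL R) f j0 (Bs0 θa θb w0 sa sb v0 lam0 z u k) s)
    (A1 : θb = θa → A1p s (lam j0)) (S2 : θb = 2 * θa → S2p s (lam j0)) : False := by
  rcases eq_or_ne θb θa with h1 | h1
  · exact sigP_false1 H ha h1 hs hc hq0 hq1 hδ HL4 (A1 h1)
  · rcases eq_or_ne θb 0 with h0 | h0
    · exact sigP_f0 H ha h0 hs hc hq0 hq1 hδ (HL h1)
    · rcases eq_or_ne θb (2 * θa) with h2 | h2
      · exact sigP_f2 H ha h2 hs hc hq0 hq1 hδ (HL h1) (S2 h2)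
      · exact sigP_falseG H ha h0 h1 h2 hs hc hq0 hq1 hδ (HL h1)

end sig

section ctx

variable {G : Geo TSet (Fin 2)} {L : ℕ → ℕ → LRay} {r : ℕ → ℝ} {g s : ℝ} {θ q : Fin 2 → ℝ}
    {Rg : ℝ} {B : Base} {I : ℕ → Finset (ℕ × ℝ)} {lev : ℕ → ℚ → ℕ} {A : ℕ → ℝ}
    {f : ℕ → ℚ → ℕ → ℤ → ℕ} {b : ℕ → ℚ → ℕ → TSet} {vm : ℕ → ℚ → ℝ} {w : Fin 2 → ℕ → ℚ → ℝ}
    {fr : ℕ → ℚ → ℕ × ℝ → LInc} {fl : ℕ → ℕ × ℝ → LInc} {sc : Fin 12 → ℕ → ℝ}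
    {w0 sa sb δ R : ℝ} {I0 I' : ℕ → Finset (ℕ × ℝ)} {ν own : (Fin 12 → ℝ) → ℝ} {c₀ : ℝ}
    {c q0 q1 δ' : ℝ} {J : Type*} {ff : J → (Fin 12 → ℝ) → ℝ} {j0 : J}
    {v0 lam0 : ℝ} {z : ℝ × ℝ} {u k : ℕ → ℝ} {lam : J → (Fin 12 → ℝ) → ℝ} {A' : ℝ × ℝ}
    {φ : ℕ → (Fin 12 → ℝ) → ℝ} {rr : ℕ → ℝ}

/-- limits to the record box -/
theorem lim_nb {X : ℕ → Fin 12 → ℝ} {θa θb w0 sa sb v0 : ℝ}
    (h : Tendsto X atTop (𝓝 (rL θa θb w0 sa sb v0))) (i : Fin 12) :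
    Tendsto (fun l => X l i) atTop (𝓝 (nb w0 sa sb v0 (θa * (1 - v0)) (θb * (1 - v0)) i)) := by
  rw [← PL504.rL_nb]
  exact tendsto_pi_nhds.1 h i

/-- the eight facts over the context, `θ 1 ≠ θ 0` -/
theorem facts_T
    (h : CtxT G L r c s θ q Rg B I lev A f b vm w fr fl sc w0 sa sb δ R I0 I' ν own c₀)
    (hinv : ∀ k : Fin 12, k = 1 ∨ k = 2 ∨ k = 7 ∨ k = 8 → InvT PL B I k fl (sc k))
    (hs0 : 0 ≤ s) (hs1 : s ≤ 1) (hθ : 0 < θ 0) (hne : θ 1 ≠ θ 0)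
    (S : SigP R w0 sa sb (θ 0) (θ 1) s c q0 q1 δ' ff j0 v0 lam0 z u k lam A' φ rr)
    (hf : ff j0 = ν) :
    LinFacts (Leg monL R) ff j0 (Bs0 (θ 0) (θ 1) w0 sa sb v0 lam0 z u k) s := by
  have hv0 := S.v00
  have hv1 := S.v01
  have ht : 0 < θ 0 * (1 - v0) := mul_pos hθ (by linarith)
  refine RowU388.linFacts_sig' h hinv hs0 hs1 S hf fun X hh hX e4 e6 e8 => ?_
  rcases lt_or_gt_of_ne hne with hl | hg
  · refine Kt710.thinB h (Kt710.flagZ0 h) ht (by linarith) ?_ (fun i _ => lim_nb hX i)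
      (Eventually.of_forall e4) (Eventually.of_forall e6) (Eventually.of_forall e8)
    nlinarith
  · refine Kt710.thinB h (Kt710.flagZ1 h hθ.le) ht (by linarith) ?_ (fun i _ => lim_nb hX i)
      (Eventually.of_forall e4) (Eventually.of_forall e6) (Eventually.of_forall e8)
    nlinarith

/-- the four facts over the context -/
theorem facts4_T
    (h : CtxT G L r c s θ q Rg B I lev A f b vm w fr fl sc w0 sa sb δ R I0 I' ν own c₀)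
    (hinv : ∀ k : Fin 12, k = 1 ∨ k = 2 ∨ k = 7 ∨ k = 8 → InvT PL B I k fl (sc k))
    (hs0 : 0 ≤ s) (hs1 : s ≤ 1) (hθ : 0 < θ 0)
    (S : SigP R w0 sa sb (θ 0) (θ 1) s c q0 q1 δ' ff j0 v0 lam0 z u k lam A' φ rr)
    (hf : ff j0 = ν) :
    LinFacts4 (Leg monL R) ff j0 (Bs0 (θ 0) (θ 1) w0 sa sb v0 lam0 z u k) s := by
  have hv0 := S.v00
  have hv1 := S.v01
  have ht : 0 < θ 0 * (1 - v0) := mul_pos hθ (by linarith)
  exact RowU388.linFacts4_sig' h hinv hs0 hs1 S hf fun X hh hX e4 e6 e8 =>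
    Kt710.thinBC h ht (by linarith) (fun i _ => lim_nb hX i) (Eventually.of_forall e4)
      (Eventually.of_forall e6)

end ctx

/-- **binder (79)** : A1 over the context, at the generic point of `Σ`, `θ 1 = θ 0` -/
def A1B (η : ℝ) : Prop :=
  ∀ {G : Geo TSet (Fin 2)} {L : ℕ → ℕ → LRay} {r : ℕ → ℝ} {g s : ℝ} {θ q : Fin 2 → ℝ}
    {Rg : ℝ} {B : Base} {I : ℕ → Finset (ℕ × ℝ)} {lev : ℕ → ℚ → ℕ} {A : ℕ → ℝ}
    {f : ℕ → ℚ → ℕ → ℤ → ℕ} {b : ℕ → ℚ → ℕ → TSet} {vm : ℕ → ℚ → ℝ} {w : Fin 2 → ℕ → ℚ → ℝ}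
    {fr : ℕ → ℚ → ℕ × ℝ → LInc} {fl : ℕ → ℕ × ℝ → LInc} {sc : Fin 12 → ℕ → ℝ}
    {w0 sa sb δ R : ℝ} {I0 I' : ℕ → Finset (ℕ × ℝ)} {ν own : (Fin 12 → ℝ) → ℝ} {c₀ : ℝ},
    CtxT G L r (g + 2 * s) s θ q Rg B I lev A f b vm w fr fl sc w0 sa sb δ R I0 I' ν own c₀ →
    NumL η g s θ q → s < 1 / 2 → w0 + (θ 1 + sb) < R → w0 + 1 + sb < R →
    θ 0 + |θ 1| + 1 ≤ Rg →
    (∀ k : Fin 12, k = 1 ∨ k = 2 ∨ k = 7 ∨ k = 8 → InvT PL B I k fl (sc k)) →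
    ∀ {v0 lam0 : ℝ} {z : ℝ × ℝ} {u k : ℕ → ℝ} {lam : Fin 2 → (Fin 12 → ℝ) → ℝ} {A' : ℝ × ℝ}
      {φ : ℕ → (Fin 12 → ℝ) → ℝ} {rr : ℕ → ℝ},
    SigP R w0 sa sb (θ 0) (θ 1) s (g + 2 * s) (q 0) (q 1) (g / 2) (fo ν own) (0 : Fin 2) v0 lam0 z
      u k lam A' φ rr → θ 1 = θ 0 → A1p s (lam 0)

/-- **188's `SigB η`**, from A1 -/
theorem sigB_of {η : ℝ} (hA : A1B η) : SigB η := by
  intro G L r g s θ q Rg B I lev A f b vm w fr fl sc w0 sa sb δ R I0 I' ν own c₀ h hN hs hR0 hR1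
    hRg hinv a b' hX v0 hh gg hrec lam0 z u k lam A' φ rr hu S
  have hab := abs_nonneg (θ 1)
  have hf : fo ν own (0 : Fin 2) = ν := rfl
  have hgp := hN.gpos
  refine sigP_false S hN.θa.ne' hN.s0 (by linarith) hN.qa hN.qb (by linarith)
    (fun hne => facts_T h hinv hN.s0 hN.s1.le hN.θa hne S hf)
    (facts4_T h hinv hN.s0 hN.s1.le hN.θa S hf)
    (fun h1 => hA h hN hs hR0 hR1 hRg hinv S h1)
    (fun h2 => Sc5c748.sig2_tF h hN.qa hN.qb S hf hN.θa h2 (by linarith) (by linarith [hN.θa]))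

end Crest.Agent.R116.RowU194
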