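import Crest.Agent.R116.A1d_79
import Crest.Agent.R116.RowU8_194
import Crest.Agent.R116.Nar3h_863

/-!
# R116, row U (helper194): the binder A1 (79's `nsTc_sig`, `dim_sig`, `thin_*` into 863's `a1_thin`)
-/

set_option autoImplicit false
set_option linter.unusedVariables false

open Set Filter Topology MeasureTheory

namespace Crest.Agent.R116.RowU194

open Crest.Agent.R138.Ex926 (Base U IsTan)
open Crest.Agent.R136
open Crest.Agent.R136.MkA627
open Crest.Agent.R136.TD627
open Crest.Agent.R136.Net191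
open Crest.Agent.R136.Lq196
open Crest.Agent.R116.ChL222
open Crest.Agent.R116.PL504 (nb rL DN βL eL oL Shift)
open Crest.Agent.R116.Xd954 (FlagX cs xs bb)
open Crest.Agent.R116.Sg337 (bx9)
open Crest.Agent.R116.Gd222 (TSet sN PDL DT gam gam_pos vb)
open Crest.Agent.R116.KTop387 (NumL RowU)
open Crest.Agent.R116.Rcx363 (fo)
open Crest.Agent.R116.RowU188 (SigB)
open Crest.Agent.R116.WinG954 (leg_LMd)
open Crest.Agent.R136.NSt107 (NsW)
open Crest.Agent.R116.A1T79
open Crest.Agent.R116.Nar863 (a1_thin Axis DimC WinD)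
open Dg219 (Walls mw OutS gC dhC nC)
open Sg635 (xS aS bS L_eq LMd mem_bx)

/-- **79's A1 over the context** -/
theorem a1B {η : ℝ} : A1B η := by
  intro G L r g s θ q Rg B I lev A f b vm w fr fl sc w0 sa sb δ R I0 I' ν own c₀ h hN hs hR0 hR1
    hRg hinv v0 lam0 z u k lam A' φ rr S h1 hz
  classical
  have hθ := hN.θa
  have hab' := abs_nonneg (θ 1)
  have ha : θ 0 ≠ 0 := hθ.ne'
  have hb : θ 1 ≠ 0 := by rw [h1]; exact ha
  obtain ⟨a, b', hX⟩ := h.fX
  have hXI := hX I (fun n => Finset.Subset.refl _)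
  have hab := (hXI 0).ab
  have hout : OutS (gC aS (bS (θ 0) (θ 1))) LMd (dhC aS (bS (θ 0) (θ 1)))
      (nC aS (bS (θ 0) (θ 1))) (lam 0) A' φ rr := by
    have := S.out
    rwa [L_eq S.hl0] at this
  have htan : IsTan (Leg monL R) LMd ν (xB (θ 0) (θ 1) w0 sa sb v0 lam0 z u)
      (fun m => u m * k m) (lam 0) := by
    have := S.tan 0
    rwa [L_eq S.hl0] at this
  have h0 : (0 : Fin 12 → ℝ) ∈ LMd := by
    rw [← A1T79.bx9_zero, mem_bx]
    norm_num
  have hns : WinD (fun W => NsW W (cs a) 10 (gam q) 1) B I0 I'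
      (PL504.coN B lev w w0 sa sb fl) 2 LMd ν (lam 0) (xB (θ 0) (θ 1) w0 sa sb v0 lam0 z u)
      (fun m => u m * k m) 1 := by
    obtain ⟨kk, hk, hkk⟩ := nsTc_sig h hN.qa hN.qb (sC := cs a) (by fin_cases a <;> simp [cs])
      (Nar192.hax_of hab (hXI 0).bd (hXI 0).big) hθ (by linarith) (by linarith) S rfl one_pos
    exact ⟨kk, hk, fun k' hk' hle W w => (hkk k' hk' hle W _ _ _ _ _ w).2⟩
  have hdim : WinD (fun W => DimC W (cs a) (xs a) (cs b') (xs b') 1) B I0 I'
      (PL504.coN B lev w w0 sa sb fl) 2 LMd ν (lam 0) (xB (θ 0) (θ 1) w0 sa sb v0 lam0 z u)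
      (fun m => u m * k m) 1 := by
    refine ⟨fun n => n, tendsto_id.mono_left Crest.Agent.R138.Ex926.U_le_atTop,
      fun k' hk' hle W w => ?_⟩
    filter_upwards [dim_sig h hθ S hXI hk' w 1] with n hn x hx
    obtain ⟨κ, k1, k2⟩ := hn
    exact ⟨κ, k1, fun y hy => k2 x hx y hy⟩
  have hAx : Axis (cs a) (xs a) (cs b') (xs b') := by
    unfold Axis
    fin_cases a <;> fin_cases b'
    · exact absurd rfl hab
    · left; exact ⟨rfl, rfl, rfl, rfl⟩
    · right; exact ⟨rfl, rfl, rfl, rfl⟩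
    · exact absurd rfl hab
  have nat := fun (m : ℕ) (i : Fin 12) (hi : i ≠ 1) =>
    xB_nat (w0 := w0) (sa := sa) (sb := sb) (θa := θ 0) (θb := θ 1) (v0 := v0) (lam0 := lam0)
      (z := z) (u := u) m i hi
  have key := a1_thin (RowU388.nprof_T h) (fun n => Sd369.coc_N B lev w w0 sa sb fl n) S.hpos htan
    one_pos (leg_LMd 1) (σ := 1 - s) (by linarith) (by linarith [hN.s0])
    (by rw [thin_dens ha hb hout zero_le_one]; exact (add_comm _ _).le)
    (out_frost hout h0 S.own) (fun _ => ((0 : ℕ), (0 : ℝ)))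
    (fun l => by
      rw [nat l 5 (by decide), nat l 0 (by decide), nat l 3 (by decide)]; rfl)
    (fun l => by
      rw [nat l 6 (by decide), nat l 0 (by decide), nat l 4 (by decide)]; rfl)
    (fun l => by
      rw [nat l 11 (by decide), nat l 0 (by decide), nat l 10 (by decide)]; rfl)
    (fun k e he h1 => S.hxD k e he h1 1) hAx hdim (gam_pos hN.qa hN.qb) hns one_pos le_rfl
    (thin_zero ha hb hout one_pos (hz 1 one_pos)).le
    (fun c hc _ => thin_prod ha h1 hout one_pos one_pos le_rfl hc)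
  linarith

/-- **188's `SigB η`, no binder** -/
theorem sigB {η : ℝ} : SigB η := sigB_of a1B

end Crest.Agent.R116.RowU194
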