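import Crest.Agent.R116.A1d_79
import Crest.Agent.R116.Nar3h_863

/-!
# R116, (A1) of the rows (helper79), part 5: the thin case over `CtxT` + `SigP`

* **`a1t`** : `E` costs nothing ⊢ `2 (1 - s) ≤` rate of the positions
-/

set_option autoImplicit false
set_option linter.unusedVariables false
set_option linter.unusedSectionVars false

open Finset Filter Topology

namespace Crest.Agent.R116.A1T79

open Crest.Agent.R138.Ex926 (Base U IsTan)
open Crest.Agent.R136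
open Crest.Agent.R136.MkA627
open Crest.Agent.R136.Net191
open Crest.Agent.R136.Qg926
open Crest.Agent.R136.Lq196
open Crest.Agent.R136.NSt107 (NsW)
open Crest.Agent.R116.LZg725
open Crest.Agent.R116.ChL222
open Crest.Agent.R116.PL504 (βL eL rL oL Shift nb DN)
open Crest.Agent.R116.Gd222 (TSet sN PDL DT vb gam gam_pos)
open Crest.Agent.R116.KI439 (LRay)
open Crest.Agent.R116.Tw468
open Crest.Agent.R116.CtxB468
open Crest.Agent.R116.Nar192 (StgM NsTc tC hax_of)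
open Crest.Agent.R116.Nar863 (Axis DimC WinD a1_thin)
open Crest.Agent.R116.Sg337 (bx9 coneL natB SL)
open Crest.Agent.R116.WinG954 (monD topD leg_LMd WinG)
open Crest.Agent.R116.RowU194 (SigP xB)
open Crest.Agent.R116.Xd954 (bb cs xs FlagX)
open Sg635 (aS bS xS LMd L_eq)
open Dg219 (OutS gset Walls mw gC dhC nC)

section ctx

variable {G : Geo TSet (Fin 2)} {L : ℕ → ℕ → KI439.LRay} {rr : ℕ → ℝ} {g s : ℝ} {θ q : Fin 2 → ℝ}
    {Rg : ℝ} {B : Base}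
    {I : ℕ → Finset (ℕ × ℝ)} {lev : ℕ → ℚ → ℕ} {A0 : ℕ → ℝ}
    {f0 : ℕ → ℚ → ℕ → ℤ → ℕ} {b0 : ℕ → ℚ → ℕ → TSet} {vm : ℕ → ℚ → ℝ} {w : Fin 2 → ℕ → ℚ → ℝ}
    {fr : ℕ → ℚ → ℕ × ℝ → LInc} {fl : ℕ → ℕ × ℝ → LInc} {sc : Fin 12 → ℕ → ℝ}
    {w0 sa sb δ R : ℝ} {I0 I' : ℕ → Finset (ℕ × ℝ)} {ν own : (Fin 12 → ℝ) → ℝ} {c₀ : ℝ}
    {J : Type*} {c q0 q1 δ' : ℝ} {f : J → (Fin 12 → ℝ) → ℝ} {j0 : J}
    {v0 lam0 : ℝ} {z : ℝ × ℝ} {u k : ℕ → ℝ} {lam : J → (Fin 12 → ℝ) → ℝ} {A : ℝ × ℝ}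
    {φ : ℕ → (Fin 12 → ℝ) → ℝ} {r : ℕ → ℝ}

/-- **(A1), thin case** -/
theorem a1t
    (hC : CtxT G L rr g s θ q Rg B I lev A0 f0 b0 vm w fr fl sc w0 sa sb δ R I0 I' ν own c₀)
    (hq0 : 0 < q 0) (hq1 : 0 < q 1) (hs0 : 0 ≤ s) (hs1 : s ≤ 1) (hθ0 : 0 < θ 0) (hRa : θ 0 < Rg)
    (hRb : |θ 1| < Rg) (he : θ 1 = θ 0)
    (H : SigP R w0 sa sb (θ 0) (θ 1) s c q0 q1 δ' f j0 v0 lam0 z u k lam A φ r) (hf : f j0 = ν)
    (hz : ∀ y : ℝ, 0 < y → lam j0 (bx9 0 0 y 0 0 0 0 0 0) = 0) :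
    2 * (1 - s) ≤ lam j0 (bx9 1 0 1 0 0 0 0 0 0) - lam j0 (bx9 1 0 1 0 1 0 0 0 1) := by
  obtain ⟨a, b, hFX⟩ := hC.fX
  have hF : ∀ κ0 : ℝ, FlagX B I lev fl (sN lev w) κ0 0 a b :=
    fun κ0 => hFX I (fun n => Finset.Subset.refl _) κ0
  have h1F := hF 0
  have hax := hax_of (I := I) (fl := fl) h1F.ab
    (by filter_upwards [h1F.bd] with n h x hx; rw [← bb_vb]; exact h x hx)
    (by filter_upwards [h1F.big] with n h x hx; rw [← bb_vb]; exact h x hx)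
  have hsC : cs a = 3 ∨ cs a = 4 := by
    fin_cases a
    · exact Or.inl rfl
    · exact Or.inr rfl
  have hAx : Axis (cs a) (xs a) (cs b) (xs b) := by
    have hab := h1F.ab
    fin_cases a <;> fin_cases b
    · exact absurd rfl hab
    · exact Or.inl ⟨rfl, rfl, rfl, rfl⟩
    · exact Or.inr ⟨rfl, rfl, rfl, rfl⟩
    · exact absurd rfl hab
  have ha : θ 0 ≠ 0 := hθ0.ne'
  have hb : θ 1 ≠ 0 := by rw [he]; exact ha
  have hL : (mw monL).L (xS lam0) aS (bS (θ 0) (θ 1)) = LMd := L_eq H.l0.ne'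
  have hOut : OutS (gC aS (bS (θ 0) (θ 1))) LMd (dhC aS (bS (θ 0) (θ 1)))
      (nC aS (bS (θ 0) (θ 1))) (lam j0) A φ r := by
    have := H.out
    rwa [hL] at this
  have h0L : (0 : Fin 12 → ℝ) ∈ LMd := by
    rw [← hL]
    exact (Walls.cone (Q := mw monL)).zero
  have htan : IsTan (Leg monL R) LMd ν (xB (θ 0) (θ 1) w0 sa sb v0 lam0 z u)
      (fun m => u m * k m) (lam j0) := by
    have := H.tan j0
    rwa [hL, hf] at this
  have hns := nsTc_sig hC hq0 hq1 hsC hax hθ0 hRa hRb H hf (R0 := 1) one_pos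
  have hns' : WinD (fun W => NsW W (cs a) 10 (gam q) 1) B I0 I'
      (PL504.coN B lev w w0 sa sb fl) 2 LMd ν (lam j0)
      (xB (θ 0) (θ 1) w0 sa sb v0 lam0 z u) (fun m => u m * k m) 1 := by
    obtain ⟨kk, hk, h⟩ := hns
    exact ⟨kk, hk, fun k' h1 h2 W hW => (h k' h1 h2 W _ _ _ _ _ hW).2⟩
  have hdim : WinD (fun W => DimC W (cs a) (xs a) (cs b) (xs b) 1) B I0 I'
      (PL504.coN B lev w w0 sa sb fl) 2 LMd ν (lam j0)
      (xB (θ 0) (θ 1) w0 sa sb v0 lam0 z u) (fun m => u m * k m) 1 := by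
    refine ⟨fun n => n, tendsto_id.mono_left Crest.Agent.R138.Ex926.U_le_atTop,
      fun k' h1 h2 W hW => ?_⟩
    filter_upwards [dim_sig hC hθ0 H hF h1 hW 1] with n hn x hx
    obtain ⟨κ, hκ, h⟩ := hn
    exact ⟨κ, hκ, fun y hy => h x hx y hy⟩
  have hR : 0 ≤ R := by
    have := hC.sh.R1
    have := hC.sh.z
    have := hC.sh.d0
    have := hC.sh.D1
    have := hC.sh.c1
    linarith
  have hN : NProf B I0 I' (PL504.coN B lev w w0 sa sb fl) monL 2 R ν :=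
    WinU954.nprof_of_ext hR hC.ext
  have key := a1_thin (σ := 1 - s) (t := 1) (x := 1) hN (Sd369.coc_N B lev w w0 sa sb fl)
    (fun l => H.hpos l) htan one_pos (leg_LMd 1) (by linarith) (by linarith)
    ((thin_dens ha hb hOut zero_le_one).le.trans (add_comm _ _).le)
    (out_frost hOut h0L H.own) (fun _ => (0, 0))
    (fun l => by
      obtain ⟨x0, -, -, x3, -, x5, -⟩ := base_slots (θ 0) (θ 1) w0 sa sb v0 lam0 z.1 z.2 (u l)
      exact x5.trans (congrArg₂ (· + ·) x0 x3).symm)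
    (fun l => by
      obtain ⟨x0, -, -, -, x4, -, x6, -⟩ := base_slots (θ 0) (θ 1) w0 sa sb v0 lam0 z.1 z.2 (u l)
      exact x6.trans (congrArg₂ (· + ·) x0 x4).symm)
    (fun l => by
      obtain ⟨x0, -, -, -, -, -, -, -, -, -, x10, x11⟩ :=
        base_slots (θ 0) (θ 1) w0 sa sb v0 lam0 z.1 z.2 (u l)
      exact x11.trans (congrArg₂ (· + ·) x0 x10).symm)
    (fun i e he' h1 => H.hxD i e he' h1 1) hAx hdim (gam_pos hq0 hq1) hns' one_pos le_rfl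
    (thin_zero ha hb hOut one_pos (hz 1 one_pos)).le
    (fun c' hc' _ => thin_prod ha he hOut one_pos one_pos le_rfl hc')
  linarith

end ctx

end Crest.Agent.R116.A1T79
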