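import Crest.Agent.R116.Nar3e_863

/-!
# R116, [NARROW] (helper863), part 6: (A1) of the round case from a tangent

* `exists_win_ns` : a window with a model over the rich pairs and no heavy strips;
* **`a1_iso`**.
-/

set_option autoImplicit false
set_option linter.unusedVariables false
set_option linter.unusedSectionVars false

open Filter Topology Finset

namespace Crest.Agent.R116.Nar863

open Crest.Agent.R138.Ex926
open Crest.Agent.R136.Net191 Crest.Agent.R136.Qg926 Crest.Agent.R136.Gf356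
open Crest.Agent.R136.NSt107
open Crest.Agent.R116.ChL222 Crest.Agent.R116.PL504 Crest.Agent.R116.EvL504
open Crest.Agent.R116.WinU954

variable {ι : ℕ → Type*} [∀ n, DecidableEq (ι n)]

/-- **no heavy strips in the windows** along the tangent -/
def NsT (B : Base) (I J : ∀ n, Finset (ι n)) (co : ∀ n, ι n → ι n → Fin 12 → ℝ) (C : ℝ)
    (D : Set (Fin 12 → ℝ)) (ν lam : (Fin 12 → ℝ) → ℝ) (X : ℕ → Fin 12 → ℝ) (h : ℕ → ℝ)
    (t : ℝ) (cA cB : Fin 12) (q : ℝ) : Prop :=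
  ∃ k : ℕ → ℕ, Tendsto k U atTop ∧ ∀ k' : ℕ → ℕ, Tendsto k' U atTop →
    (∀ᶠ n in (U : Filter ℕ), k' n ≤ k n) → ∀ W : Wnd 12 ι,
      WinU W B I J co C D ν lam X h k' t → NsW W cA cB q t

/-- a window with a model over the rich pairs and no heavy strips -/
theorem exists_win_ns {B : Base} {I J : ∀ n, Finset (ι n)} {co : ∀ n, ι n → ι n → Fin 12 → ℝ}
    {C R : ℝ} {ν : (Fin 12 → ℝ) → ℝ} (hN : NProf B I J co monL C R ν) (hcoc : ∀ n, Coc (co n))
    {X : ℕ → Fin 12 → ℝ} {h : ℕ → ℝ} (hpos : ∀ l, 0 < h l) {D : Set (Fin 12 → ℝ)}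
    {lam : (Fin 12 → ℝ) → ℝ} (htan : IsTan (Leg monL R) D ν X h lam) {t : ℝ} (ht : 0 < t)
    (hD : Leg monL t ⊆ D) {σ : ℝ} (hσ0 : 0 ≤ σ) (hσ1 : σ ≤ 1)
    (dens : lam (fun _ => t) ≤ lam (cut {0} (fun _ => t) 0) + lam (Pi.single 0 t))
    (frost : ∀ y, 0 ≤ y → y ≤ t → lam (Pi.single 0 y) ≤ -(σ * y)) (i₀ : ∀ n, ι n)
    {cA cB : Fin 12} {q : ℝ} (hns : NsT B I J co C D ν lam X h t cA cB q) :
    ∃ (k' : ℕ → ℕ) (W : Wnd 12 ι) (E' : ∀ n, Finset (ι n)) (g : ℕ → ℝ),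
      Tendsto k' U atTop ∧ WinU W B I J co C D ν lam X h k' t ∧ NsW W cA cB q t ∧
      Wnd.Pruned W (rich W) E' g (fun _ _ _ => 0) ∧ (∀ᶠ n in (U : Filter ℕ), Reg W E' n) ∧
      RModel W.B' (W.cfg E') σ t W.legW W.nu W.Dc := by
  obtain ⟨k1, hk1, h1⟩ := exists_winU hN hcoc hpos htan ht hD hσ0 hσ1 dens frost
    (fun _ _ => 1) (fun _ => Base.Sub.const one_pos) i₀
  obtain ⟨k2, hk2, h2⟩ := hns
  have hk : Tendsto (fun n => min (k1 n) (k2 n)) U atTop := by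
    rw [tendsto_atTop] at hk1 hk2 ⊢
    intro b
    filter_upwards [hk1 b, hk2 b] with n a b
    exact le_min a b
  obtain ⟨W, w, -, a3⟩ := h1 _ hk (Eventually.of_forall fun n => min_le_left _ _)
  obtain ⟨E', g, b1, -, b3, b4⟩ := a3 (rich W) (fun _ => 1) (eok_rich w.wl.ok) (fun _ _ _ => 0)
    (fun n => (n : ℝ)) (tendsto_natCast_atTop_atTop.mono_left U_le_atTop)
  exact ⟨_, W, E', g, hk, w, h2 _ hk (Eventually.of_forall fun n => min_le_right _ _) W w, b1, b3,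
    b4⟩

section sides

variable {W : Wnd 12 ι} {B : Base} {I J : ∀ n, Finset (ι n)}
    {co : ∀ n, ι n → ι n → Fin 12 → ℝ} {C : ℝ} {D : Set (Fin 12 → ℝ)}
    {ν lam : (Fin 12 → ℝ) → ℝ} {X : ℕ → Fin 12 → ℝ} {h : ℕ → ℝ} {k' : ℕ → ℕ} {t : ℝ}

/-- the unit of a slot -/
theorem side_eq (w : WinU W B I J co C D ν lam X h k' t) (n : ℕ) (s : Fin 12) :
    side W n s = cK0 monL C ^ wtL s * B.d n ^ X (k' n) s := by
  unfold side
  rw [w.hkap, w.hB, w.hX]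

theorem side_mul (w : WinU W B I J co C D ν lam X h k' t) (n : ℕ) {a b c : Fin 12}
    (hw : wtL a + wtL b = wtL c) (hX : X (k' n) c = X (k' n) a + X (k' n) b) :
    side W n a * side W n b = side W n c := by
  rw [side_eq w, side_eq w, side_eq w, hX, Real.rpow_add (B.pos n), ← hw, pow_add]
  ring

end sides

/-- the height slot at `z`, velocities at `c`, positions at `x` -/
def isoT (z c x : ℝ) : Fin 12 → ℝ := ![z, 0, 0, c, c, x, x, 0, 0, 0, 0, 0]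

theorem cut_isoB (c x t : ℝ) : cut {0} (isoB c x) (fun _ => t) = isoT t c x := by
  funext k
  by_cases hk : k = 0
  · subst hk; rw [cut_zero]; rfl
  · rw [cut_ne _ _ hk]
    fin_cases k
    · exact absurd rfl hk
    all_goals rfl

open Classical in
/-- **(A1), round case, from a tangent at a moving base point** -/
theorem a1_iso {B : Base} {I J : ∀ n, Finset (ι n)} {co : ∀ n, ι n → ι n → Fin 12 → ℝ}
    {C R : ℝ} {ν : (Fin 12 → ℝ) → ℝ} (hN : NProf B I J co monL C R ν) (hcoc : ∀ n, Coc (co n))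
    {X : ℕ → Fin 12 → ℝ} {h : ℕ → ℝ} (hpos : ∀ l, 0 < h l) {D : Set (Fin 12 → ℝ)}
    {lam : (Fin 12 → ℝ) → ℝ} (htan : IsTan (Leg monL R) D ν X h lam) {t : ℝ} (ht : 0 < t)
    (hD : Leg monL t ⊆ D) {σ : ℝ} (hσ0 : 0 ≤ σ) (hσ1 : σ ≤ 1)
    (dens : lam (fun _ => t) ≤ lam (cut {0} (fun _ => t) 0) + lam (Pi.single 0 t))
    (frost : ∀ y, 0 ≤ y → y ≤ t → lam (Pi.single 0 y) ≤ -(σ * y)) (i₀ : ∀ n, ι n)
    (n5 : ∀ l, X l 5 = X l 0 + X l 3) (n6 : ∀ l, X l 6 = X l 0 + X l 4)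
    {q : ℝ} (hq : 0 < q) (hns : NsT B I J co C D ν lam X h t 3 4 q)
    {x : ℝ} (hx : 0 < x) (hxt : x ≤ t)
    (hprod : ∀ c, 0 < c → c ≤ t → lam (isoT t 0 0) - lam (isoT t c 0) ≤
      lam (isoT t 0 x) - lam (isoT t c x)) :
    2 * σ * x ≤ lam (isoT t 0 0) - lam (isoT t 0 x) := by
  obtain ⟨k', W, E', g, hk, w, a1, a2, a3, a4⟩ := exists_win_ns hN hcoc hpos htan ht hD hσ0 hσ1
    dens frost i₀ hns
  have key := a1_isoW w ht a2 a4 a3 dens
    (fun n => side_mul w n (a := 0) (b := 3) (c := 5) rfl (n5 _))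
    (fun n => side_mul w n (a := 0) (b := 4) (c := 6) rfl (n6 _)) hq a1 hx hxt
    (by
      intro c hc hct
      rw [w.nu_eq, w.nu_eq, w.nu_eq, w.nu_eq, cut_isoB, cut_isoB, cut_isoB, cut_isoB]
      linarith [hprod c hc hct])
  rw [w.nu_eq, w.nu_eq, cut_isoB, cut_isoB] at key
  linarith

end Crest.Agent.R116.Nar863
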