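import Crest.Agent.R136.NSt1_107
import Crest.Agent.R116.Sc4a_708

/-!
# R116, K-TEXT II-c, SIG2 (`σ = 2`, helper905), Sc4: curved strips in the window models (helper708)

* `NsWc` : no heavy curved strips of the class (helper192's output), `|g| ≤ ρ^(-ε)`.
* `strip_linesC` : the lines of a slice of `W.cfg E'` in a curved strip (helper107's argument).
-/

set_option autoImplicit false
set_option linter.unusedSectionVars false
set_option linter.unusedVariables false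

open Filter Topology

namespace Crest.Agent.R116.Sc708

open Finset Crest.Agent.R138.Ex926 Crest.Agent.R136.Net191 Crest.Agent.R136.Gf356
open Crest.Agent.R136.Qg926 Crest.Agent.R136.Qg4480
open Crest.Agent.R136.NSt107 (rich mem_rich rich_sub eok_rich card_pairs_le LineC abs_le_one_of_sq)

/-- perturbation of the curved functional (window copy) -/
theorem curv_errW {b0 b1 g a a' c c' e M : ℝ} (h0 : |b0| ≤ 1) (h1 : |b1| ≤ 1) (hM : 1 ≤ M)
    (hg : |g| ≤ M) (ha : |a| ≤ M) (ha' : |a'| ≤ M) (hda : |a' - a| ≤ e) (hdc : |c' - c| ≤ e) :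
    |(b0 * a' + b1 * (c' + g * a' ^ 2)) - (b0 * a + b1 * (c + g * a ^ 2))| ≤
      4 * (M ^ 2 * e) := by
  have he0 : 0 ≤ e := (abs_nonneg _).trans hda
  have e1 : (b0 * a' + b1 * (c' + g * a' ^ 2)) - (b0 * a + b1 * (c + g * a ^ 2)) =
      b0 * (a' - a) + b1 * ((c' - c) + g * ((a' + a) * (a' - a))) := by ring
  rw [e1]
  have f1 : |b0 * (a' - a)| ≤ e := by
    rw [abs_mul]
    calc |b0| * |a' - a| ≤ 1 * e := mul_le_mul h0 hda (abs_nonneg _) zero_le_one
      _ = e := one_mul _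
  have f2 : |(a' + a) * (a' - a)| ≤ 2 * M * e := by
    rw [abs_mul]
    exact mul_le_mul ((abs_add_le _ _).trans (by linarith)) hda (abs_nonneg _) (by linarith)
  have f3 : |g * ((a' + a) * (a' - a))| ≤ M * (2 * M * e) := by
    rw [abs_mul]; exact mul_le_mul hg f2 (abs_nonneg _) (by linarith)
  have f4 : |b1 * ((c' - c) + g * ((a' + a) * (a' - a)))| ≤ e + M * (2 * M * e) := by
    rw [abs_mul]
    calc |b1| * _ ≤ 1 * (e + M * (2 * M * e)) :=
          mul_le_mul h1 ((abs_add_le _ _).trans (add_le_add hdc f3)) (abs_nonneg _) zero_le_one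
      _ = _ := one_mul _
  have hMe : e ≤ M ^ 2 * e := le_mul_of_one_le_left he0 (one_le_pow₀ hM)
  calc _ ≤ |b0 * (a' - a)| + |b1 * ((c' - c) + g * ((a' + a) * (a' - a)))| := abs_add_le _ _
    _ ≤ e + (e + M * (2 * M * e)) := add_le_add f1 f4
    _ ≤ _ := by nlinarith

variable {m : ℕ} {ι : ℕ → Type*} [∀ n, DecidableEq (ι n)] {W : Wnd m ι}

open Classical in
/-- **no curved strip of the class is heavy** (slots `cA`, `cB`) -/
def NsWc (W : Wnd m ι) (cA cB : Fin m) (q R0 : ℝ) : Prop :=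
  ∃ C : ℝ, 0 ≤ C ∧ ∀ t : ℝ, 0 < t → t ≤ R0 → ∀ ε : ℝ, 0 < ε → ∀ᶠ n in (U : Filter ℕ),
    ∀ i ∈ W.Cl n, ∀ (b : Fin 2 → ℝ) (g : ℝ), b 0 ^ 2 + b 1 ^ 2 = 1 → |g| ≤ W.B'.d n ^ (-ε) →
      (((W.Cl n).filter fun j =>
        |b 0 * W.crd n i j cA + b 1 * (W.crd n i j cB + g * W.crd n i j cA ^ 2)| ≤
          W.B'.d n ^ t).card : ℝ) ≤ W.B'.d n ^ (q * t - C * ε) * (W.Cl n).card

/-- the coordinates of the class are bounded -/
theorem crd_bdd (h : W.Ok) (s : Fin m) {ε : ℝ} (hε : 0 < ε) : ∀ᶠ n in (U : Filter ℕ),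
    ∀ i ∈ W.Cl n, ∀ j ∈ W.Cl n, |W.crd n i j s| ≤ W.B'.d n ^ (-ε) := by
  have hK := h.K0_one
  have hk := h.kap s
  filter_upwards [h.ev_good, Crest.Agent.R136.Qg926.ev_const_le W.B' (c := W.K0 / W.kap s)
    (by positivity) hε] with n g h1 i hi j hj
  refine le_trans ?_ h1
  have h2 := h.near0 g hi hj s
  unfold Wnd.crd
  have hd : 0 < W.B.d n ^ W.X n s := Real.rpow_pos_of_pos (W.B.pos n) _
  rw [abs_div, abs_of_pos (mul_pos hk hd), div_le_div_iff₀ (mul_pos hk hd) hk]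
  simp only [Pi.zero_apply, Real.rpow_zero, mul_one] at h2
  nlinarith

open Classical in
/-- **lines of a slice in a curved strip**, models over the rich pairs -/
theorem strip_linesC (h : W.Ok) {E' : ∀ n, Finset (ι n)} {g : ℕ → ℝ} {ex : ℕ → ∀ n, ι n → ℕ}
    (hP : Wnd.Pruned W (rich W) E' g ex)
    (hdens : W.lam W.top ≤ W.lam (cut W.S W.top 0) + W.lam (cut W.S 0 W.top))
    {cA cB : Fin m} (hcA : cA ∉ W.S) (hcB : cB ∉ W.S) {q R0 R1 : ℝ} (hq : 0 ≤ q) (hR : R0 ≤ R1)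
    {C : ℝ} (hC : 0 ≤ C)
    (hns : ∀ t : ℝ, 0 < t → t ≤ R0 → ∀ ε : ℝ, 0 < ε → ∀ᶠ n in (U : Filter ℕ),
      ∀ i ∈ W.Cl n, ∀ (b : Fin 2 → ℝ) (g : ℝ), b 0 ^ 2 + b 1 ^ 2 = 1 → |g| ≤ W.B'.d n ^ (-ε) →
      (((W.Cl n).filter fun j =>
        |b 0 * W.crd n i j cA + b 1 * (W.crd n i j cB + g * W.crd n i j cA ^ 2)| ≤
          W.B'.d n ^ t).card : ℝ) ≤ W.B'.d n ^ (q * t - C * ε) * (W.Cl n).card)
    (hA : LineC W cA R1) (hB : LineC W cB R1)
    {t : ℝ} (ht : 0 < t) (htR : t ≤ R0) {ε : ℝ} (hε : 0 < ε) :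
    ∀ᶠ n in (U : Filter ℕ), ∀ i k, (i, k) ∈ (W.cfg E' n).I → ∀ (b : Fin 2 → ℝ) (g : ℝ),
      b 0 ^ 2 + b 1 ^ 2 = 1 → |g| ≤ W.B'.d n ^ (-ε) →
      ((((W.cfg E' n).slice k).filter fun l => |b 0 * (W.cfg E' n).rel k i l cA +
        b 1 * ((W.cfg E' n).rel k i l cB + g * (W.cfg E' n).rel k i l cA ^ 2)| ≤
          W.B'.d n ^ (t - ε)).card : ℝ) ≤
        W.B'.d n ^ (-(W.nu 0) + q * t - (4 * q + C + 3) * ε) := by
  -- points of the class in a strip
  have hstr : ∀ᶠ n in (U : Filter ℕ), ∀ i ∈ W.Cl n, ∀ (b : Fin 2 → ℝ) (g : ℝ),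
      b 0 ^ 2 + b 1 ^ 2 = 1 → |g| ≤ W.B'.d n ^ (-ε) →
      (((W.Cl n).filter fun j =>
        |b 0 * W.crd n i j cA + b 1 * (W.crd n i j cB + g * W.crd n i j cA ^ 2)| ≤
          W.B'.d n ^ (t - 4 * ε)).card : ℝ) ≤
        W.B'.d n ^ (q * t - 4 * q * ε - C * ε) * (W.Cl n).card := by
    rcases lt_or_ge 0 (t - 4 * ε) with h0 | h0
    · filter_upwards [hns (t - 4 * ε) h0 (by linarith) ε hε] with n hn i hi b g hb hg
      refine (hn i hi b g hb hg).trans (le_of_eq ?_)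
      congr 2; ring
    · filter_upwards [] with n i hi b g hb hg
      have h1 : (1 : ℝ) ≤ W.B'.d n ^ (q * t - 4 * q * ε - C * ε) :=
        Real.one_le_rpow_of_pos_of_le_one_of_nonpos (W.B'.pos n) (W.B'.lt n).le (by
          have : 0 ≤ C * ε := by positivity
          nlinarith)
      have h2 : (((W.Cl n).filter fun j =>
          |b 0 * W.crd n i j cA + b 1 * (W.crd n i j cB + g * W.crd n i j cA ^ 2)| ≤
            W.B'.d n ^ (t - 4 * ε)).card : ℝ) ≤ (W.Cl n).card := by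
        exact_mod_cast card_filter_le _ _
      have h3 : (0 : ℝ) ≤ (W.Cl n).card := Nat.cast_nonneg _
      nlinarith
  filter_upwards [Wnd.ev_cfg h (eok_rich h) hP, Wnd.ev_hts h (eok_rich h) hP hdens hε, hstr,
    hA (ε) hε, hB ε hε, card_pairs_le h (ε := ε) hε, crd_bdd h cA hε,
    Crest.Agent.R136.Qg926.ev_const_le W.B' (c := 5) (by norm_num) hε] with
    n ⟨hg, hsub, hne, heq⟩ hhts hstr hA hB hpairs hbdd hthree
  rw [heq]
  intro i k hik b g hb hgg
  have hpos : ∀ t : ℝ, 0 < W.B'.d n ^ t := fun t => Real.rpow_pos_of_pos (W.B'.pos n) t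
  have anti : ∀ {s t : ℝ}, s ≤ t → W.B'.d n ^ t ≤ W.B'.d n ^ s := fun hst =>
    Real.rpow_le_rpow_of_exponent_ge (W.B'.pos n) (W.B'.lt n).le hst
  have hE'Cl : E' n ⊆ W.Cl n := (hP.sub n).trans hsub
  obtain ⟨r1, r2, r3⟩ := Wnd.rep_of_mem hE'Cl hik
  set x := W.rep n i k with hx
  set A := ((W.cfg0 n (E' n)).slice k).filter fun l => |b 0 * (W.cfg0 n (E' n)).rel k i l cA +
    b 1 * ((W.cfg0 n (E' n)).rel k i l cB + g * (W.cfg0 n (E' n)).rel k i l cA ^ 2)| ≤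
      W.B'.d n ^ (t - ε) with hAdef
  set Str := (W.Cl n).filter fun j =>
    |b 0 * W.crd n x j cA + b 1 * (W.crd n x j cB + g * W.crd n x j cA ^ 2)| ≤
      W.B'.d n ^ (t - 4 * ε) with hStr
  have hS := hstr x r1 b g hb hgg
  set P : ℝ := (((W.Cl n).image (W.pc n)).card : ℝ) with hPdef
  set c : ℝ := ((W.Cl n).card : ℝ) with hc
  have hc0 : 0 < c := Nat.cast_pos.2 (card_pos.2 ⟨_, hg.s0⟩)
  have hP0 : 0 < P := Nat.cast_pos.2 (card_pos.2 (Finset.Nonempty.image ⟨_, hg.s0⟩ _))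
  set H : ℝ := W.B'.d n ^ (W.lam (cut W.S 0 W.top) + ε) with hH
  have hb0 : |b 0| ≤ 1 := abs_le_one_of_sq hb
  have hb1 : |b 1| ≤ 1 := abs_le_one_of_sq (by linarith : b 1 ^ 2 + b 0 ^ 2 = 1)
  have hM1 : 1 ≤ W.B'.d n ^ (-ε) :=
    Real.one_le_rpow_of_pos_of_le_one_of_nonpos (W.B'.pos n) (W.B'.lt n).le (by linarith)
  -- the pairs
  set T : Finset (Σ _ : ℕ, ℕ) := A.sigma fun l => (W.cfg0 n (E' n)).hts l with hT
  have hTcard : (A.card : ℝ) * H ≤ (T.card : ℝ) := by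
    rw [hT, card_sigma]
    push_cast
    calc (A.card : ℝ) * H = ∑ l ∈ A, H := by rw [sum_const, nsmul_eq_mul]
      _ ≤ _ := by
        refine sum_le_sum fun l hl => hhts l ?_
        have h1 := (mem_filter.1 hl).1
        obtain ⟨w, hw, hw1, -⟩ := Wnd.cfg0_slice.1 h1
        exact mem_image.2 ⟨w, hw, hw1⟩
  -- every pair of `T` has large multiplicity, all inside the strip
  have hfib : ∀ p ∈ T, c / (2 * P) ≤ ((Str.filter fun z => W.pc n z = (p.1, p.2)).card : ℝ) := by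
    intro p hp
    obtain ⟨hp1, hp2⟩ := mem_sigma.1 hp
    obtain ⟨hl1, hl2⟩ := mem_filter.1 hp1
    obtain ⟨w, hw, hw1, hw2⟩ := Wnd.cfg0_hts.1 hp2
    obtain ⟨v, hv, hv1, hv2⟩ := Wnd.cfg0_slice.1 hl1
    have hrich := (mem_rich.1 (hP.sub n hw)).2
    have epc : W.pc n w = (p.1, p.2) := by unfold Wnd.pc; rw [hw1, hw2]
    have e1 : (Str.filter fun z => W.pc n z = (p.1, p.2)) = cls (W.Cl n) (W.pc n) w := by
      ext z
      rw [mem_cls, mem_filter, epc, hStr, mem_filter]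
      constructor
      · exact fun hz => ⟨hz.1.1, hz.2⟩
      · rintro ⟨hz1, hz2⟩
        refine ⟨⟨hz1, ?_⟩, hz2⟩
        have hlz : W.lc n z = p.1 := congrArg Prod.fst hz2
        have hvC := hE'Cl hv
        obtain ⟨y1, y2, y3⟩ := W.rep_spec hvC
        rw [hv1, hv2] at y1 y2 y3
        have a1 := hA x r1 _ y1 z hz1 (y2.trans hlz.symm)
        have a2 := hB x r1 _ y1 z hz1 (y2.trans hlz.symm)
        have a3 : |b 0 * W.crd n x (W.rep n p.1 k) cA + b 1 * (W.crd n x (W.rep n p.1 k) cB +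
            g * W.crd n x (W.rep n p.1 k) cA ^ 2)| ≤ W.B'.d n ^ (t - ε) := by
          have e2 : (W.cfg0 n (E' n)).rel k i p.1 cA = W.crd n x (W.rep n p.1 k) cA := by
            show (if cA ∈ W.S then (0 : ℝ) else W.crd n _ _ cA) = _
            rw [if_neg hcA]
          have e3 : (W.cfg0 n (E' n)).rel k i p.1 cB = W.crd n x (W.rep n p.1 k) cB := by
            show (if cB ∈ W.S then (0 : ℝ) else W.crd n _ _ cB) = _
            rw [if_neg hcB]
          rw [e2, e3] at hl2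
          exact hl2
        have a4 : W.B'.d n ^ (R1 - ε) ≤ W.B'.d n ^ (t - ε) := anti (by linarith)
        have a5 := curv_errW (b0 := b 0) (b1 := b 1) (g := g) hb0 hb1 hM1 hgg
          (hbdd x r1 _ y1) (hbdd x r1 z hz1) (a1.trans a4) (a2.trans a4)
        have a6 : W.B'.d n ^ (t - ε) ≤ (W.B'.d n ^ (-ε)) ^ 2 * W.B'.d n ^ (t - ε) :=
          le_mul_of_one_le_left (hpos _).le (one_le_pow₀ hM1)
        have a7 : |b 0 * W.crd n x z cA + b 1 * (W.crd n x z cB + g * W.crd n x z cA ^ 2)| ≤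
            5 * ((W.B'.d n ^ (-ε)) ^ 2 * W.B'.d n ^ (t - ε)) := by
          have := abs_add_le ((b 0 * W.crd n x z cA + b 1 * (W.crd n x z cB +
            g * W.crd n x z cA ^ 2)) - (b 0 * W.crd n x (W.rep n p.1 k) cA +
            b 1 * (W.crd n x (W.rep n p.1 k) cB + g * W.crd n x (W.rep n p.1 k) cA ^ 2)))
            (b 0 * W.crd n x (W.rep n p.1 k) cA +
            b 1 * (W.crd n x (W.rep n p.1 k) cB + g * W.crd n x (W.rep n p.1 k) cA ^ 2))
          rw [sub_add_cancel] at this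
          linarith
        calc _ ≤ 5 * ((W.B'.d n ^ (-ε)) ^ 2 * W.B'.d n ^ (t - ε)) := a7
          _ ≤ W.B'.d n ^ (-ε) * ((W.B'.d n ^ (-ε)) ^ 2 * W.B'.d n ^ (t - ε)) :=
              mul_le_mul_of_nonneg_right hthree (by have := hpos (t - ε); positivity)
          _ = W.B'.d n ^ (t - 4 * ε) := by
              rw [← Real.rpow_natCast, ← Real.rpow_mul (W.B'.pos n).le,
                ← Real.rpow_add (W.B'.pos n), ← Real.rpow_add (W.B'.pos n)]
              congr 1; push_cast; ring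
    rw [e1, div_le_iff₀ (by positivity)]
    linarith
  have hTS : (T.card : ℝ) * (c / (2 * P)) ≤ (Str.card : ℝ) := by
    have h1 : ∑ p ∈ T, (Str.filter fun z => W.pc n z = (p.1, p.2)).card ≤ Str.card := by
      rw [← card_biUnion]
      · refine card_le_card fun z hz => ?_
        obtain ⟨p, -, hp⟩ := mem_biUnion.1 hz
        exact (mem_filter.1 hp).1
      · intro p hp p' hp' hne'
        rw [Function.onFun, Finset.disjoint_left]
        intro z hz hz'
        have e1 := (mem_filter.1 hz).2.symm.trans (mem_filter.1 hz').2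
        refine hne' ?_
        obtain ⟨p1, p2⟩ := p
        obtain ⟨p1', p2'⟩ := p'
        simp only [Prod.mk.injEq] at e1
        obtain ⟨rfl, rfl⟩ := e1
        rfl
    calc (T.card : ℝ) * (c / (2 * P)) = ∑ p ∈ T, c / (2 * P) := by rw [sum_const, nsmul_eq_mul]
      _ ≤ ∑ p ∈ T, ((Str.filter fun z => W.pc n z = (p.1, p.2)).card : ℝ) := sum_le_sum hfib
      _ ≤ Str.card := by exact_mod_cast h1
  -- conclusion
  have h1 : (A.card : ℝ) * H * (c / (2 * P)) ≤ W.B'.d n ^ (q * t - 4 * q * ε - C * ε) * c :=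
    (mul_le_mul_of_nonneg_right hTcard (by positivity)).trans (hTS.trans hS)
  have h2 : (A.card : ℝ) * H ≤ W.B'.d n ^ (q * t - 4 * q * ε - C * ε) * (2 * P) := by
    have h3 : (A.card : ℝ) * H * (c / (2 * P)) = ((A.card : ℝ) * H) / (2 * P) * c := by
      field_simp
    rw [h3] at h1
    have h4 := le_of_mul_le_mul_right h1 hc0
    rwa [div_le_iff₀ (by positivity)] at h4
  have h3 : 2 * P ≤ W.B'.d n ^ (W.lam W.top - 2 * ε) := by
    have e1 : W.B'.d n ^ (W.lam W.top - 2 * ε) =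
        W.B'.d n ^ (-ε) * W.B'.d n ^ (W.lam W.top - ε) := by
      rw [← Real.rpow_add (W.B'.pos n)]; congr 1; ring
    rw [e1]
    exact mul_le_mul (by linarith) hpairs hP0.le (hpos _).le
  have h4 : (A.card : ℝ) * H ≤
      W.B'.d n ^ (q * t - 4 * q * ε - C * ε + (W.lam W.top - 2 * ε)) := by
    rw [Real.rpow_add (W.B'.pos n)]
    exact h2.trans (mul_le_mul_of_nonneg_left h3 (hpos _).le)
  have h5 : W.B'.d n ^ (q * t - 4 * q * ε - C * ε + (W.lam W.top - 2 * ε)) =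
      W.B'.d n ^ (-(W.nu 0) + q * t - (4 * q + C + 3) * ε) * H := by
    rw [hH, ← Real.rpow_add (W.B'.pos n)]
    congr 1
    unfold Wnd.nu
    ring
  rw [h5] at h4
  exact le_of_mul_le_mul_right h4 (hpos _)

/-- **no heavy curved strips in the model**, class box `p0` with zero loss -/
theorem noStrC_win (h : W.Ok) {E' : ∀ n, Finset (ι n)} {g : ℕ → ℝ} {ex : ℕ → ∀ n, ι n → ℕ}
    (hP : Wnd.Pruned W (rich W) E' g ex)
    (hdens : W.lam W.top ≤ W.lam (cut W.S W.top 0) + W.lam (cut W.S 0 W.top))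
    {cA cB : Fin m} (hcA : cA ∉ W.S) (hcB : cB ∉ W.S) {q R0 R1 : ℝ} (hq : 0 ≤ q) (hR : R0 ≤ R1)
    (hns : NsWc W cA cB q R0) (hA : LineC W cA R1) (hB : LineC W cB R1)
    {p0 : Fin m → ℝ} (hp0 : W.nu 0 ≤ W.nu p0) :
    NoStrC W.B' (W.cfg E') p0 cA cB W.nu q R0 := by
  classical
  obtain ⟨C, hC, hns⟩ := hns
  refine ⟨4 * q + C + 3, by positivity, fun t ht htR ε hε => ?_⟩
  filter_upwards [strip_linesC h hP hdens hcA hcB hq hR hC hns hA hB ht htR hε] with
    n hn i k hik b g hb hg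
  refine le_trans ?_ ((hn i k hik b g hb hg).trans ?_)
  · refine Nat.cast_le.2 (card_le_card ?_)
    exact filter_subset_filter _ RCfg.box_subset_slice
  · exact Real.rpow_le_rpow_of_exponent_ge (W.B'.pos n) (W.B'.lt n).le (by linarith)

end Crest.Agent.R116.Sc708
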