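import Crest.Agent.R116.Nar8_192
import Crest.Agent.R116.Nar3f_863
import Crest.Agent.R116.Sc4b_708

/-!
# R116 (S0155), K side, [NARROW] (helper192), part 9: literal forms

* `StgM.of_rec` : stages over the record box `rL .. v`.
* **`CtxT.nsG_rec`** : `CtxT.nsG` for `rc l = rL .. (v l)`.
* **`CtxT.nsT`** : 863's `NsT` (slots `sC`, `10`).
* **`NsTc`**, **`CtxT.nsTc`** : 708's `NsWc` in the windows `WinG`.
-/

set_option autoImplicit false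
set_option linter.unusedVariables false
set_option linter.unusedSectionVars false

open Finset Filter Topology

namespace Crest.Agent.R116.Nar192

open Crest.Agent.R138.Defs (E2)
open Crest.Agent.R138.Ex926 (Base U)
open Crest.Agent.R136.MkA627
open Crest.Agent.R136.Net191
open Crest.Agent.R136.Lq196
open Crest.Agent.R136.Qg926
open Crest.Agent.R136.NSt107 (NsW)
open Crest.Agent.R116.LZg725
open Crest.Agent.R116.ChL222
open Crest.Agent.R116.PL504 (βL eL rL oL Shift nb DN wtL rL_nb)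
open Crest.Agent.R116.Gd222
open Crest.Agent.R116.KI439
open Crest.Agent.R116.Tw468
open Crest.Agent.R116.CtxB468
open Crest.Agent.R116.EvL504
open Crest.Agent.R116.WinU954
open Crest.Agent.R116.WinG954

/-- **stages over the record box** `rL .. v` -/
theorem StgM.of_rec {θa θb w0 sa sb δ R Rg t0 : ℝ} (sh : Shift θa θb w0 sa sb δ R)
    (ht0 : 0 < t0) (h0 : t0 ≤ δ) (hRa : θa + t0 ≤ Rg) (hRb : |θb| + t0 ≤ Rg) (hθ : 0 ≤ θa)
    {v : ℝ} (hv0 : 0 ≤ v) (hv1 : v ≤ 1) (ht : t0 ≤ θa * (1 - v)) {p : Fin 12 → ℝ}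
    (hp : p ∈ Leg monL R) {sC : Fin 12} (hsC : sC = 3 ∨ sC = 4)
    (pC : p sC = sa + θa * (1 - v)) (pP : p 10 = sb + θb * (1 - v))
    (p0 : w0 ≤ p 0) (p3 : sa < p 3) (p4 : sa < p 4) (p5 : w0 + sa < p 5) (p6 : w0 + sa < p 6)
    (p9 : w0 + 2 * sa < p 9)
    (f1 : sb + θb * (1 - v) - 2 * (sa + θa * (1 - v)) - (w0 + v) ≤ p 1)
    (f2 : sb + θb * (1 - v) - 2 * (sa + θa * (1 - v)) ≤ p 2)
    (f7 : sb + θb * (1 - v) - (sa + θa * (1 - v)) ≤ p 7)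
    (f8 : sb + θb * (1 - v) - (sa + θa * (1 - v)) ≤ p 8) :
    StgM w0 sa sb R Rg t0 sC p (rL θa θb w0 sa sb v) v (θa * (1 - v)) (θb * (1 - v)) := by
  have hrc := sh.rL_leg hv0 hv1
  have hnat : RecS w0 sa sb v (θa * (1 - v)) (θb * (1 - v)) sC (rL θa θb w0 sa sb v) := by
    rw [rL_nb]
    exact recS_nb hsC
  have hv' : 0 ≤ 1 - v := by linarith
  have a1 : θa * (1 - v) ≤ θa := by nlinarith
  have a2 : |θb * (1 - v)| ≤ |θb| := by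
    rw [abs_mul, abs_of_nonneg hv']
    nlinarith [abs_nonneg θb]
  -- slot 10 of the record is at most `R - w0 - v`
  have b10 : w0 + v + (sb + θb * (1 - v)) ≤ R := by
    have h1 := sh.R0
    have h2 := sh.R1
    nlinarith [mul_nonneg (sub_nonneg.2 h1) hv', mul_nonneg (sub_nonneg.2 h2) hv0]
  have b3 : 2 * (sa + θa * (1 - v)) + (w0 + v) + δ ≤ sb + θb * (1 - v) := by
    have h1 := sh.D0
    have h2 := sh.D1
    nlinarith [mul_nonneg (sub_nonneg.2 h1) hv', mul_nonneg (sub_nonneg.2 h2) hv0]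
  have hz := sh.z
  have hd0 := sh.d0
  have hc1 := sh.c1
  have hpos : 0 ≤ sa + θa * (1 - v) := by
    have : 0 ≤ θa * (1 - v) := mul_nonneg hθ hv'
    linarith
  exact
  { v0 := hv0
    v1 := hv1
    tt := ht
    tR := by linarith
    yR := by linarith
    p_leg := hp
    rc_leg := hrc
    nat := hnat
    cls := ⟨vis_of (by linarith) p3 p4 (by linarith) (by linarith) (by linarith), f1, f2, f7, f8⟩
    eC := by rw [pC, hnat.cC]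
    eP := by rw [pP, hnat.c10]
    rC := by rw [pC]; linarith
    rP := by rw [pP]; linarith }

/-- **no heavy curved strips in the windows along a tangent** -/
def NsTc (B : Base) (I J : ℕ → Finset (ℕ × ℝ)) (co : ∀ n : ℕ, ℕ × ℝ → ℕ × ℝ → Fin 12 → ℝ) (C : ℝ)
    (ν : (Fin 12 → ℝ) → ℝ) (X : ℕ → Fin 12 → ℝ) (h : ℕ → ℝ) (cA cB : Fin 12) (q R0 : ℝ) : Prop :=
  ∃ k : ℕ → ℕ, Tendsto k U atTop ∧ ∀ k' : ℕ → ℕ, Tendsto k' U atTop →
    (∀ᶠ n in (U : Filter ℕ), k' n ≤ k n) →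
    ∀ (W : Wnd 12 (fun _ => ℕ × ℝ)) (D : Set (Fin 12 → ℝ)) (lam : (Fin 12 → ℝ) → ℝ) (tw : ℝ)
      (Mw : Mons 12) (top : Fin 12 → ℝ), WinG W B I J co C D ν lam X h k' tw Mw top →
      Sc708.NsWc W cA cB q R0 ∧ NsW W cA cB q R0

section forms

variable {m : ℕ} {ι : ℕ → Type*} [∀ n, DecidableEq (ι n)] {W : Wnd m ι} {cA cB : Fin m}
  {q C0 R0 Gm : ℝ}

/-- 708's form -/
theorem NsG.toSc (h : NsG W cA cB Phi3 (Ok3 1) q C0 R0) (hC0 : 0 ≤ C0) :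
    Sc708.NsWc W cA cB q R0 := by
  classical
  refine ⟨C0, hC0, fun t ht htR ε hε => ?_⟩
  filter_upwards [h t ht htR ε hε] with n hn i hi b g hb hg
  have h1 := hn i hi (b 0, b 1, g) ⟨hb, by
    show |g| ≤ _
    rw [one_mul]; exact hg⟩ 0
  refine le_trans (le_of_eq ?_) h1
  congr 2
  ext j
  simp only [mem_filter]
  have e2 : Phi3 (b 0, b 1, g) (W.crd n i j cA) (W.crd n i j cB) - 0 =
      b 0 * W.crd n i j cA + b 1 * (W.crd n i j cB + g * W.crd n i j cA ^ 2) := by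
    unfold Phi3; simp only; ring
  rw [e2]

end forms

section ctx

variable {G : Geo TSet (Fin 2)} {L : ℕ → ℕ → LRay} {r : ℕ → ℝ} {g s : ℝ} {θ q : Fin 2 → ℝ}
    {Rg : ℝ} {a : Fin 2} {B : Base}
    {I : ℕ → Finset (ℕ × ℝ)} {lev : ℕ → ℚ → ℕ} {A : ℕ → ℝ}
    {f : ℕ → ℚ → ℕ → ℤ → ℕ} {b : ℕ → ℚ → ℕ → TSet} {vm : ℕ → ℚ → ℝ} {w : Fin 2 → ℕ → ℚ → ℝ}
    {fr : ℕ → ℚ → ℕ × ℝ → LInc} {fl : ℕ → ℕ × ℝ → LInc} {sc : Fin 12 → ℕ → ℝ}
    {w0 sa sb δ R : ℝ} {I0 I' : ℕ → Finset (ℕ × ℝ)} {ν own : (Fin 12 → ℝ) → ℝ} {c₀ : ℝ}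

/-- **curved strips in the windows, thin case** -/
theorem _root_.Crest.Agent.R116.CtxB468.CtxT.nsTc
    (h : CtxT G L r g s θ q Rg B I lev A f b vm w fr fl sc w0 sa sb δ R I0 I' ν own c₀)
    (hq0 : 0 < q 0) (hq1 : 0 < q 1) {sC : Fin 12} (hsC : sC = 3 ∨ sC = 4)
    (hax : ∀ᶠ n in (U : Filter ℕ), ∀ x ∈ I n,
      ‖vb (fl n x)‖ ≤ 16 * |(fl n x).b1 * (tC sC).2 - (fl n x).b2 * (tC sC).1|)
    {X rc : ℕ → Fin 12 → ℝ} {hh : ℕ → ℝ} (hpos : ∀ l, 0 < hh l)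
    (hh0 : Tendsto hh atTop (𝓝 0)) {t0 : ℝ} (ht0 : 0 < t0)
    (hst : ∀ᶠ l in (atTop : Filter ℕ), ∃ v t yy : ℝ,
      StgM w0 sa sb R Rg t0 sC (X l) (rc l) v t yy)
    (hfr : ∀ ε : ℝ, 0 < ε → ∀ᶠ l in (atTop : Filter ℕ),
      c₀ + DT g s q θ w0 sa sb (rc l) - ν (X l ⊔ rc l) ≤ ε * hh l) {R0 : ℝ} (hR0 : 0 < R0) :
    NsTc B I0 I' (PL504.coN B lev w w0 sa sb fl) 2 ν X hh sC 10 (gam q) R0 := by
  obtain ⟨k, hk, hkk⟩ := h.nsG hq0 hq1 hsC hax hpos hh0 ht0 hst hfr hR0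
  have hg : 0 ≤ gam q := (gam_pos hq0 hq1).le
  refine ⟨k, hk, fun k' hk' hle W D lam tw Mw top w => ?_⟩
  have h1 := hkk k' hk' hle W D lam tw Mw top w
  exact ⟨h1.toSc (by linarith), h1.toNsW zero_le_one (by linarith)⟩

/-- the freeze hypothesis over record boxes -/
theorem _root_.Crest.Agent.R116.CtxB468.CtxT.frz_rec
    (h : CtxT G L r g s θ q Rg B I lev A f b vm w fr fl sc w0 sa sb δ R I0 I' ν own c₀)
    {X : ℕ → Fin 12 → ℝ} {hh v : ℕ → ℝ}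
    (hv : ∀ᶠ l in (atTop : Filter ℕ), 0 ≤ v l ∧ v l ≤ 1)
    (hfr : ∀ ε : ℝ, 0 < ε → ∀ᶠ l in (atTop : Filter ℕ),
      ν (rL (θ 0) (θ 1) w0 sa sb (v l)) - ν (X l ⊔ rL (θ 0) (θ 1) w0 sa sb (v l)) ≤ ε * hh l) :
    ∀ ε : ℝ, 0 < ε → ∀ᶠ l in (atTop : Filter ℕ),
      c₀ + DT g s q θ w0 sa sb (rL (θ 0) (θ 1) w0 sa sb (v l)) -
        ν (X l ⊔ rL (θ 0) (θ 1) w0 sa sb (v l)) ≤ ε * hh l := by
  intro ε hε
  filter_upwards [hv, hfr ε hε] with l h1 h2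
  have h3 := h.ext.record (v l) h1.1 h1.2
  have h4 : DT g s q θ w0 sa sb (rL (θ 0) (θ 1) w0 sa sb (v l)) = EL θ g s q (v l) :=
    DT_rL g s q θ w0 sa sb (v l)
  rw [h4]
  linarith

/-- **863's form** -/
theorem NsTc.toNsT {co : ∀ n : ℕ, ℕ × ℝ → ℕ × ℝ → Fin 12 → ℝ} {C : ℝ} {X : ℕ → Fin 12 → ℝ}
    {hh : ℕ → ℝ} {cA cB : Fin 12} {qq t : ℝ} (h : NsTc B I0 I' co C ν X hh cA cB qq t)
    (D : Set (Fin 12 → ℝ)) (lam : (Fin 12 → ℝ) → ℝ) :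
    Nar863.NsT B I0 I' co C D ν lam X hh t cA cB qq := by
  obtain ⟨k, hk, hkk⟩ := h
  exact ⟨k, hk, fun k' hk' hle W w => (hkk k' hk' hle W D lam t monL (fun _ => t) w.toG).2⟩

end ctx

end Crest.Agent.R116.Nar192
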