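import Crest.Agent.R116.EvL1_504

/-!
# R116, EVL (helper504), part 2: evolution of fat lines, any level slots, any legal sides

* `Sides D` : the side lengths `D` satisfy the walls; `Sides.of` : `D s = K ^ wtL s * x ^ X s` with
  legal `X`, `0 < x ≤ 1`, `1 ≤ K`.
* `comp_lipD` : `comp` is Lipschitz on the box of sides `D` (constant `48`).
* `LvS S`, `LnS S`, `evoS S` : level slots `S ⊆ SL` (the height and the TIED flags); all other slots,
  the honest static flags included, are line slots.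
* `Coc.evoD` : evolution of fat lines; `Coc.fourD` : the four point law (own motions);
  `Coc.heightD` : composition at one height.
-/

set_option autoImplicit false
set_option linter.unusedVariables false

namespace Crest.Agent.R116.EvL504

open Crest.Agent.R136.Net191
open Crest.Agent.R116.ChL222 Crest.Agent.R116.PL504

/-! ### sides -/

/-- side lengths which satisfy the walls -/
structure Sides (D : Fin 12 → ℝ) : Prop where
  pos : ∀ s, 0 < D s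
  w2 : D 0 * D 1 ≤ D 2
  w5 : D 0 * D 3 ≤ D 5
  w6 : D 0 * D 4 ≤ D 6
  w7 : D 2 * D 3 ≤ D 7
  w7' : D 1 * D 5 ≤ D 7
  w8 : D 2 * D 4 ≤ D 8
  w8' : D 1 * D 6 ≤ D 8
  w9 : D 3 * D 5 ≤ D 9
  w9' : D 4 * D 6 ≤ D 9
  w10 : D 3 * D 7 ≤ D 10
  w10' : D 4 * D 8 ≤ D 10
  w10'' : D 1 * D 9 ≤ D 10
  w11 : D 0 * D 10 ≤ D 11
  w11a : D 5 * D 7 ≤ D 11
  w11b : D 6 * D 8 ≤ D 11
  w11c : D 2 * D 9 ≤ D 11

/-- sides of legal exponents -/
theorem Sides.of {X : Fin 12 → ℝ} (hX : Legal monL X) {x K : ℝ} (hx : 0 < x) (hx1 : x ≤ 1)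
    (hK : 1 ≤ K) : Sides (fun s => K ^ wtL s * x ^ X s) := by
  obtain ⟨h0, l2, l5, l6, l7, l7', l8, l8', l9, l9', l10, l10', l10'', l11, l11a, l11b, l11c⟩ :=
    legalL_iff.1 hX
  have hK0 : (0 : ℝ) < K := by linarith
  have key : ∀ i j k : Fin 12, wtL i + wtL j = wtL k → X k ≤ X i + X j →
      (K ^ wtL i * x ^ X i) * (K ^ wtL j * x ^ X j) ≤ K ^ wtL k * x ^ X k := by
    intro i j k h1 h2
    have e : (K ^ wtL i * x ^ X i) * (K ^ wtL j * x ^ X j) =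
        K ^ wtL k * x ^ (X i + X j) := by
      rw [← h1, pow_add, Real.rpow_add hx]; ring
    rw [e]
    exact mul_le_mul_of_nonneg_left (Real.rpow_le_rpow_of_exponent_ge hx hx1 h2) (by positivity)
  exact
    { pos := fun s => by positivity
      w2 := key 0 1 2 rfl l2
      w5 := key 0 3 5 rfl l5
      w6 := key 0 4 6 rfl l6
      w7 := key 2 3 7 rfl l7
      w7' := key 1 5 7 rfl l7'
      w8 := key 2 4 8 rfl l8
      w8' := key 1 6 8 rfl l8'
      w9 := key 3 5 9 rfl l9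
      w9' := key 4 6 9 rfl l9'
      w10 := key 3 7 10 rfl l10
      w10' := key 4 8 10 rfl l10'
      w10'' := key 1 9 10 rfl l10''
      w11 := key 0 10 11 rfl l11
      w11a := key 5 7 11 rfl l11a
      w11b := key 6 8 11 rfl l11b
      w11c := key 2 9 11 rfl l11c }

/-! ### Lipschitz bounds -/

theorem lip2D {a b a' b' A B r s : ℝ} (hb : |b| ≤ B) (ha' : |a'| ≤ A) (h1 : |a - a'| ≤ r * A)
    (h2 : |b - b'| ≤ s * B) : |a * b - a' * b'| ≤ (r + s) * (A * B) := by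
  have e : a * b - a' * b' = (a - a') * b + a' * (b - b') := by ring
  rw [e]
  refine (abs_add_le _ _).trans ?_
  rw [abs_mul, abs_mul]
  have hr : 0 ≤ r * A := (abs_nonneg _).trans h1
  have hs : 0 ≤ s * B := (abs_nonneg _).trans h2
  have hA : 0 ≤ A := (abs_nonneg _).trans ha'
  have t1 : |a - a'| * |b| ≤ (r * A) * B := mul_le_mul h1 hb (abs_nonneg _) hr
  have t2 : |a'| * |b - b'| ≤ A * (s * B) := mul_le_mul ha' h2 (abs_nonneg _) hA
  linarith

theorem bd2D {a b A B : ℝ} (ha : |a| ≤ A) (hb : |b| ≤ B) : |a * b| ≤ A * B := by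
  rw [abs_mul]
  exact mul_le_mul ha hb (abs_nonneg _) ((abs_nonneg _).trans ha)

/-- **`comp` is Lipschitz on the box of sides `D`** -/
theorem comp_lipD {D : Fin 12 → ℝ} (hD : Sides D) {a a' c c' : Fin 12 → ℝ} {r : ℝ} (hr : 0 ≤ r)
    (ha : ∀ k, |a k| ≤ D k) (ha' : ∀ k, |a' k| ≤ D k) (hc : ∀ k, |c k| ≤ D k)
    (hc' : ∀ k, |c' k| ≤ D k) (h1 : ∀ k, |a k - a' k| ≤ r * D k)
    (h2 : ∀ k, |c k - c' k| ≤ r * D k) (k : Fin 12) :
    |comp a c k - comp a' c' k| ≤ 48 * (r * D k) := by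
  have p := fun s => (hD.pos s).le
  have m2 : ∀ i j, |a i * c j - a' i * c' j| ≤ (r + r) * (D i * D j) := fun i j =>
    lip2D (hc j) (ha' i) (h1 i) (h2 j)
  have cc : ∀ i j, |c i * c j - c' i * c' j| ≤ (r + r) * (D i * D j) := fun i j =>
    lip2D (hc j) (hc' i) (h2 i) (h2 j)
  have aa : ∀ i j, |a i * a j - a' i * a' j| ≤ (r + r) * (D i * D j) := fun i j =>
    lip2D (ha j) (ha' i) (h1 i) (h1 j)
  have acc : ∀ i j l, |a i * (c j * c l) - a' i * (c' j * c' l)| ≤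
      (r + (r + r)) * (D i * (D j * D l)) := fun i j l =>
    lip2D (bd2D (hc j) (hc l)) (ha' i) (h1 i) (cc j l)
  have aac : ∀ i j l, |(a i * a j) * c l - (a' i * a' j) * c' l| ≤
      ((r + r) + r) * ((D i * D j) * D l) := fun i j l =>
    lip2D (hc l) (bd2D (ha' i) (ha' j)) (aa i j) (h2 l)
  have aacc : ∀ i j l m, |(a i * a j) * (c l * c m) - (a' i * a' j) * (c' l * c' m)| ≤
      ((r + r) + (r + r)) * ((D i * D j) * (D l * D m)) :=
    fun i j l m => lip2D (bd2D (hc l) (hc m)) (bd2D (ha' i) (ha' j)) (aa i j) (cc l m)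
  -- raise a bound to the side of the slot
  have up : ∀ {X n P Q : ℝ}, 0 ≤ n → |X| ≤ n * P → P ≤ Q → |X| ≤ n * Q := fun hn h hP =>
    h.trans (mul_le_mul_of_nonneg_left hP hn)
  have r2 : 0 ≤ r + r := by linarith
  have r3 : 0 ≤ r + (r + r) := by linarith
  have r3' : 0 ≤ (r + r) + r := by linarith
  have r4 : 0 ≤ (r + r) + (r + r) := by linarith
  -- longer walls
  have v9 : D 0 * (D 3 * D 3) ≤ D 9 := by
    have := mul_le_mul_of_nonneg_right hD.w5 (p 3)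
    have := hD.w9
    linarith [mul_comm (D 3) (D 5)]
  have v9' : D 0 * (D 4 * D 4) ≤ D 9 := by
    have := mul_le_mul_of_nonneg_right hD.w6 (p 4)
    have := hD.w9'
    linarith [mul_comm (D 4) (D 6)]
  have u9 : (D 3 * D 0) * D 3 ≤ D 9 := by linarith [v9]
  have u9' : (D 4 * D 0) * D 4 ≤ D 9 := by linarith [v9']
  have v10 : D 2 * (D 3 * D 3) ≤ D 10 := by
    have := mul_le_mul_of_nonneg_right hD.w7 (p 3)
    have := hD.w10
    linarith [mul_comm (D 3) (D 7)]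
  have v10' : D 2 * (D 4 * D 4) ≤ D 10 := by
    have := mul_le_mul_of_nonneg_right hD.w8 (p 4)
    have := hD.w10'
    linarith [mul_comm (D 4) (D 8)]
  have z10 : D 1 * (D 5 * D 3) ≤ D 10 := by
    have := mul_le_mul_of_nonneg_right hD.w7' (p 3)
    have := hD.w10
    linarith [mul_comm (D 3) (D 7)]
  have z10' : D 1 * (D 6 * D 4) ≤ D 10 := by
    have := mul_le_mul_of_nonneg_right hD.w8' (p 4)
    have := hD.w10'
    linarith [mul_comm (D 4) (D 8)]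
  have y11 : (D 7 * D 0) * D 3 ≤ D 11 := by
    have := mul_le_mul_of_nonneg_right hD.w5 (p 7)
    have := hD.w11a
    linarith
  have y11' : (D 8 * D 0) * D 4 ≤ D 11 := by
    have := mul_le_mul_of_nonneg_right hD.w6 (p 8)
    have := hD.w11b
    linarith
  have x11 : (D 2 * D 0) * (D 3 * D 3) ≤ D 11 := by
    have h1 := mul_le_mul hD.w5 hD.w7 (mul_nonneg (p 2) (p 3)) (p 5)
    have := hD.w11a
    have e : (D 2 * D 0) * (D 3 * D 3) = D 0 * D 3 * (D 2 * D 3) := by ring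
    linarith
  have x11' : (D 2 * D 0) * (D 4 * D 4) ≤ D 11 := by
    have h1 := mul_le_mul hD.w6 hD.w8 (mul_nonneg (p 2) (p 4)) (p 6)
    have := hD.w11b
    have e : (D 2 * D 0) * (D 4 * D 4) = D 0 * D 4 * (D 2 * D 4) := by ring
    linarith
  have w5' : D 1 * (D 5 * D 5) ≤ D 11 := by
    have := mul_le_mul_of_nonneg_right hD.w7' (p 5)
    have := hD.w11a
    linarith [mul_comm (D 5) (D 7)]
  have w6' : D 1 * (D 6 * D 6) ≤ D 11 := by
    have := mul_le_mul_of_nonneg_right hD.w8' (p 6)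
    have := hD.w11b
    linarith [mul_comm (D 6) (D 8)]
  have q11 : (D 1 * D 0) * (D 5 * D 3) ≤ D 11 := by
    have h1 := mul_le_mul hD.w5 hD.w7' (mul_nonneg (p 1) (p 5)) (p 5)
    have := hD.w11a
    have e : (D 1 * D 0) * (D 5 * D 3) = D 0 * D 3 * (D 1 * D 5) := by ring
    linarith
  have q11' : (D 1 * D 0) * (D 6 * D 4) ≤ D 11 := by
    have h1 := mul_le_mul hD.w6 hD.w8' (mul_nonneg (p 1) (p 6)) (p 6)
    have := hD.w11b
    have e : (D 1 * D 0) * (D 6 * D 4) = D 0 * D 4 * (D 1 * D 6) := by ring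
    linarith
  have q11'' : (D 1 * D 0) * D 9 ≤ D 11 := by
    have := mul_le_mul_of_nonneg_right hD.w2 (p 9)
    have := hD.w11c
    linarith
  fin_cases k
  · show |(a 0 + c 0) - (a' 0 + c' 0)| ≤ 48 * (r * D 0)
    have t1 := abs_le.1 (h1 0)
    have t2 := abs_le.1 (h2 0)
    have := mul_nonneg hr (p 0)
    rw [abs_le]; constructor <;> linarith
  · show |(a 1 + c 1) - (a' 1 + c' 1)| ≤ 48 * (r * D 1)
    have t1 := abs_le.1 (h1 1)
    have t2 := abs_le.1 (h2 1)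
    have := mul_nonneg hr (p 1)
    rw [abs_le]; constructor <;> linarith
  · show |(a 2 + c 2 - 2 * (a 1 * c 0)) - (a' 2 + c' 2 - 2 * (a' 1 * c' 0))| ≤ 48 * (r * D 2)
    have t1 := abs_le.1 (h1 2)
    have t2 := abs_le.1 (h2 2)
    have t3 := abs_le.1 (up r2 (m2 1 0) ((mul_comm _ _).trans_le hD.w2))
    have := mul_nonneg hr (p 2)
    rw [abs_le]; constructor <;> linarith
  · show |(a 3 + c 3) - (a' 3 + c' 3)| ≤ 48 * (r * D 3)
    have t1 := abs_le.1 (h1 3)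
    have t2 := abs_le.1 (h2 3)
    have := mul_nonneg hr (p 3)
    rw [abs_le]; constructor <;> linarith
  · show |(a 4 + c 4) - (a' 4 + c' 4)| ≤ 48 * (r * D 4)
    have t1 := abs_le.1 (h1 4)
    have t2 := abs_le.1 (h2 4)
    have := mul_nonneg hr (p 4)
    rw [abs_le]; constructor <;> linarith
  · show |(a 5 + c 5 - a 0 * c 3) - (a' 5 + c' 5 - a' 0 * c' 3)| ≤ 48 * (r * D 5)
    have t1 := abs_le.1 (h1 5)
    have t2 := abs_le.1 (h2 5)
    have t3 := abs_le.1 (up r2 (m2 0 3) hD.w5)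
    have := mul_nonneg hr (p 5)
    rw [abs_le]; constructor <;> linarith
  · show |(a 6 + c 6 - a 0 * c 4) - (a' 6 + c' 6 - a' 0 * c' 4)| ≤ 48 * (r * D 6)
    have t1 := abs_le.1 (h1 6)
    have t2 := abs_le.1 (h2 6)
    have t3 := abs_le.1 (up r2 (m2 0 4) hD.w6)
    have := mul_nonneg hr (p 6)
    rw [abs_le]; constructor <;> linarith
  · show |(a 7 + c 7 + a 2 * c 3 + 2 * (a 1 * c 5)) -
      (a' 7 + c' 7 + a' 2 * c' 3 + 2 * (a' 1 * c' 5))| ≤ 48 * (r * D 7)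
    have t1 := abs_le.1 (h1 7)
    have t2 := abs_le.1 (h2 7)
    have t3 := abs_le.1 (up r2 (m2 2 3) hD.w7)
    have t4 := abs_le.1 (up r2 (m2 1 5) hD.w7')
    have := mul_nonneg hr (p 7)
    rw [abs_le]; constructor <;> linarith
  · show |(a 8 + c 8 + a 2 * c 4 + 2 * (a 1 * c 6)) -
      (a' 8 + c' 8 + a' 2 * c' 4 + 2 * (a' 1 * c' 6))| ≤ 48 * (r * D 8)
    have t1 := abs_le.1 (h1 8)
    have t2 := abs_le.1 (h2 8)
    have t3 := abs_le.1 (up r2 (m2 2 4) hD.w8)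
    have t4 := abs_le.1 (up r2 (m2 1 6) hD.w8')
    have := mul_nonneg hr (p 8)
    rw [abs_le]; constructor <;> linarith
  · show |(a 9 + c 9 - a 0 * ((c 3 ^ 2 + c 4 ^ 2) / 2) + a 3 * (c 5 - a 0 * c 3) +
        a 4 * (c 6 - a 0 * c 4)) -
      (a' 9 + c' 9 - a' 0 * ((c' 3 ^ 2 + c' 4 ^ 2) / 2) + a' 3 * (c' 5 - a' 0 * c' 3) +
        a' 4 * (c' 6 - a' 0 * c' 4))| ≤ 48 * (r * D 9)
    have t1 := abs_le.1 (h1 9)
    have t2 := abs_le.1 (h2 9)
    have t3 := abs_le.1 (up r3 (acc 0 3 3) v9)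
    have t4 := abs_le.1 (up r3 (acc 0 4 4) v9')
    have t5 := abs_le.1 (up r2 (m2 3 5) hD.w9)
    have t6 := abs_le.1 (up r2 (m2 4 6) hD.w9')
    have t7 := abs_le.1 (up r3' (aac 3 0 3) u9)
    have t8 := abs_le.1 (up r3' (aac 4 0 4) u9')
    have t0 := mul_nonneg hr (p 9)
    have e : (a 9 + c 9 - a 0 * ((c 3 ^ 2 + c 4 ^ 2) / 2) + a 3 * (c 5 - a 0 * c 3) +
        a 4 * (c 6 - a 0 * c 4)) -
      (a' 9 + c' 9 - a' 0 * ((c' 3 ^ 2 + c' 4 ^ 2) / 2) + a' 3 * (c' 5 - a' 0 * c' 3) +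
        a' 4 * (c' 6 - a' 0 * c' 4)) = (a 9 - a' 9) + (c 9 - c' 9) -
        1 / 2 * (a 0 * (c 3 * c 3) - a' 0 * (c' 3 * c' 3)) -
        1 / 2 * (a 0 * (c 4 * c 4) - a' 0 * (c' 4 * c' 4)) + (a 3 * c 5 - a' 3 * c' 5) +
        (a 4 * c 6 - a' 4 * c' 6) - ((a 3 * a 0) * c 3 - (a' 3 * a' 0) * c' 3) -
        ((a 4 * a 0) * c 4 - (a' 4 * a' 0) * c' 4) := by ring
    rw [e, abs_le]
    constructor <;> linarith [t1.1, t1.2, t2.1, t2.2, t3.1, t3.2, t4.1, t4.2, t5.1, t5.2, t6.1,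
      t6.2, t7.1, t7.2, t8.1, t8.2]
  · show |(a 10 + c 10 - a 7 * c 3 - a 8 * c 4 - a 2 * ((c 3 ^ 2 + c 4 ^ 2) / 2) -
        2 * (a 1 * (c 5 * c 3 + c 6 * c 4 - c 9))) -
      (a' 10 + c' 10 - a' 7 * c' 3 - a' 8 * c' 4 - a' 2 * ((c' 3 ^ 2 + c' 4 ^ 2) / 2) -
        2 * (a' 1 * (c' 5 * c' 3 + c' 6 * c' 4 - c' 9)))| ≤ 48 * (r * D 10)
    have t1 := abs_le.1 (h1 10)
    have t2 := abs_le.1 (h2 10)
    have t3 := abs_le.1 (up r2 (m2 7 3) ((mul_comm _ _).trans_le hD.w10))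
    have t4 := abs_le.1 (up r2 (m2 8 4) ((mul_comm _ _).trans_le hD.w10'))
    have t5 := abs_le.1 (up r3 (acc 2 3 3) v10)
    have t6 := abs_le.1 (up r3 (acc 2 4 4) v10')
    have t7 := abs_le.1 (up r3 (acc 1 5 3) z10)
    have t8 := abs_le.1 (up r3 (acc 1 6 4) z10')
    have t9 := abs_le.1 (up r2 (m2 1 9) hD.w10'')
    have t0 := mul_nonneg hr (p 10)
    have e : (a 10 + c 10 - a 7 * c 3 - a 8 * c 4 - a 2 * ((c 3 ^ 2 + c 4 ^ 2) / 2) -
        2 * (a 1 * (c 5 * c 3 + c 6 * c 4 - c 9))) -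
      (a' 10 + c' 10 - a' 7 * c' 3 - a' 8 * c' 4 - a' 2 * ((c' 3 ^ 2 + c' 4 ^ 2) / 2) -
        2 * (a' 1 * (c' 5 * c' 3 + c' 6 * c' 4 - c' 9))) = (a 10 - a' 10) + (c 10 - c' 10) -
        (a 7 * c 3 - a' 7 * c' 3) - (a 8 * c 4 - a' 8 * c' 4) -
        1 / 2 * (a 2 * (c 3 * c 3) - a' 2 * (c' 3 * c' 3)) -
        1 / 2 * (a 2 * (c 4 * c 4) - a' 2 * (c' 4 * c' 4)) -
        2 * (a 1 * (c 5 * c 3) - a' 1 * (c' 5 * c' 3)) -
        2 * (a 1 * (c 6 * c 4) - a' 1 * (c' 6 * c' 4)) + 2 * (a 1 * c 9 - a' 1 * c' 9) := by ring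
    rw [e, abs_le]
    constructor <;> linarith [t1.1, t1.2, t2.1, t2.2, t3.1, t3.2, t4.1, t4.2, t5.1, t5.2, t6.1,
      t6.2, t7.1, t7.2, t8.1, t8.2, t9.1, t9.2]
  · show |(a 11 + c 11 - a 0 * c 10 - a 7 * (c 5 - a 0 * c 3) - a 8 * (c 6 - a 0 * c 4) -
        a 2 * (c 9 - a 0 * ((c 3 ^ 2 + c 4 ^ 2) / 2)) -
        a 1 * (c 5 ^ 2 + c 6 ^ 2 - 2 * (a 0 * (c 5 * c 3 + c 6 * c 4 - c 9)))) -
      (a' 11 + c' 11 - a' 0 * c' 10 - a' 7 * (c' 5 - a' 0 * c' 3) - a' 8 * (c' 6 - a' 0 * c' 4) -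
        a' 2 * (c' 9 - a' 0 * ((c' 3 ^ 2 + c' 4 ^ 2) / 2)) -
        a' 1 * (c' 5 ^ 2 + c' 6 ^ 2 - 2 * (a' 0 * (c' 5 * c' 3 + c' 6 * c' 4 - c' 9))))| ≤
      48 * (r * D 11)
    have t1 := abs_le.1 (h1 11)
    have t2 := abs_le.1 (h2 11)
    have t3 := abs_le.1 (up r2 (m2 0 10) hD.w11)
    have t4 := abs_le.1 (up r2 (m2 7 5) ((mul_comm _ _).trans_le hD.w11a))
    have t5 := abs_le.1 (up r3' (aac 7 0 3) y11)
    have t6 := abs_le.1 (up r2 (m2 8 6) ((mul_comm _ _).trans_le hD.w11b))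
    have t7 := abs_le.1 (up r3' (aac 8 0 4) y11')
    have t8 := abs_le.1 (up r2 (m2 2 9) hD.w11c)
    have t9 := abs_le.1 (up r4 (aacc 2 0 3 3) x11)
    have t10 := abs_le.1 (up r4 (aacc 2 0 4 4) x11')
    have t11 := abs_le.1 (up r3 (acc 1 5 5) w5')
    have t12 := abs_le.1 (up r3 (acc 1 6 6) w6')
    have t13 := abs_le.1 (up r4 (aacc 1 0 5 3) q11)
    have t14 := abs_le.1 (up r4 (aacc 1 0 6 4) q11')
    have t15 := abs_le.1 (up r3' (aac 1 0 9) q11'')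
    have t0 := mul_nonneg hr (p 11)
    have e : (a 11 + c 11 - a 0 * c 10 - a 7 * (c 5 - a 0 * c 3) - a 8 * (c 6 - a 0 * c 4) -
        a 2 * (c 9 - a 0 * ((c 3 ^ 2 + c 4 ^ 2) / 2)) -
        a 1 * (c 5 ^ 2 + c 6 ^ 2 - 2 * (a 0 * (c 5 * c 3 + c 6 * c 4 - c 9)))) -
      (a' 11 + c' 11 - a' 0 * c' 10 - a' 7 * (c' 5 - a' 0 * c' 3) - a' 8 * (c' 6 - a' 0 * c' 4) -
        a' 2 * (c' 9 - a' 0 * ((c' 3 ^ 2 + c' 4 ^ 2) / 2)) -
        a' 1 * (c' 5 ^ 2 + c' 6 ^ 2 - 2 * (a' 0 * (c' 5 * c' 3 + c' 6 * c' 4 - c' 9)))) =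
      (a 11 - a' 11) + (c 11 - c' 11) - (a 0 * c 10 - a' 0 * c' 10) - (a 7 * c 5 - a' 7 * c' 5) +
        ((a 7 * a 0) * c 3 - (a' 7 * a' 0) * c' 3) - (a 8 * c 6 - a' 8 * c' 6) +
        ((a 8 * a 0) * c 4 - (a' 8 * a' 0) * c' 4) - (a 2 * c 9 - a' 2 * c' 9) +
        1 / 2 * ((a 2 * a 0) * (c 3 * c 3) - (a' 2 * a' 0) * (c' 3 * c' 3)) +
        1 / 2 * ((a 2 * a 0) * (c 4 * c 4) - (a' 2 * a' 0) * (c' 4 * c' 4)) -
        (a 1 * (c 5 * c 5) - a' 1 * (c' 5 * c' 5)) - (a 1 * (c 6 * c 6) - a' 1 * (c' 6 * c' 6)) +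
        2 * ((a 1 * a 0) * (c 5 * c 3) - (a' 1 * a' 0) * (c' 5 * c' 3)) +
        2 * ((a 1 * a 0) * (c 6 * c 4) - (a' 1 * a' 0) * (c' 6 * c' 4)) -
        2 * ((a 1 * a 0) * c 9 - (a' 1 * a' 0) * c' 9) := by ring
    rw [e, abs_le]
    obtain ⟨l1, r1⟩ := t1
    obtain ⟨l2, s2⟩ := t2
    obtain ⟨l3, s3⟩ := t3
    obtain ⟨l4, s4⟩ := t4
    obtain ⟨l5, s5⟩ := t5
    obtain ⟨l6, s6⟩ := t6
    obtain ⟨l7, s7⟩ := t7
    obtain ⟨l8, s8⟩ := t8
    obtain ⟨l9, s9⟩ := t9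
    obtain ⟨l10, s10⟩ := t10
    obtain ⟨l11, s11⟩ := t11
    obtain ⟨l12, s12⟩ := t12
    obtain ⟨l13, s13⟩ := t13
    obtain ⟨l14, s14⟩ := t14
    obtain ⟨l15, s15⟩ := t15
    constructor <;> linarith

/-! ### level slots and line slots -/

/-- the level part -/
def LvS (S : Finset (Fin 12)) (a : Fin 12 → ℝ) : Fin 12 → ℝ := fun k => if k ∈ S then a k else 0

/-- the line part -/
def LnS (S : Finset (Fin 12)) (a : Fin 12 → ℝ) : Fin 12 → ℝ := fun k => if k ∈ S then 0 else a k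

/-- the pure height motion `t` -/
def hgt (t : ℝ) : Fin 12 → ℝ := fun k => if k = 0 then t else 0

/-- **the evolution** of the line slots, level slots `S` : `a` = own motion of the first line from
the new height back to the old one, `c` = relative position at the old height. -/
noncomputable def evoS (S : Finset (Fin 12)) (a c : Fin 12 → ℝ) : Fin 12 → ℝ :=
  comp (comp (LvS S a) (LnS S c)) (hgt (-(a 0)))

theorem abs_LvS_le {S : Finset (Fin 12)} {D a : Fin 12 → ℝ} (hD : ∀ k, 0 < D k)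
    (ha : ∀ k, |a k| ≤ D k) (k : Fin 12) : |LvS S a k| ≤ D k := by
  unfold LvS
  split_ifs
  · exact ha k
  · simpa using (hD k).le

theorem abs_LnS_le {S : Finset (Fin 12)} {D a : Fin 12 → ℝ} (hD : ∀ k, 0 < D k)
    (ha : ∀ k, |a k| ≤ D k) (k : Fin 12) : |LnS S a k| ≤ D k := by
  unfold LnS
  split_ifs
  · simpa using (hD k).le
  · exact ha k

theorem abs_sub_LvS {S : Finset (Fin 12)} {D a : Fin 12 → ℝ} (hD : ∀ k, 0 < D k) {r : ℝ}
    (hr : 0 ≤ r) (h : ∀ k, k ∉ S → |a k| ≤ r * D k) (k : Fin 12) :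
    |a k - LvS S a k| ≤ r * D k := by
  unfold LvS
  split_ifs with hk
  · simpa using mul_nonneg hr (hD k).le
  · simpa using h k hk

theorem abs_sub_LnS {S : Finset (Fin 12)} {D a : Fin 12 → ℝ} (hD : ∀ k, 0 < D k) {r : ℝ}
    (hr : 0 ≤ r) (h : ∀ k, k ∈ S → |a k| ≤ r * D k) (k : Fin 12) :
    |a k - LnS S a k| ≤ r * D k := by
  unfold LnS
  split_ifs with hk
  · simpa using h k hk
  · simpa using mul_nonneg hr (hD k).le

/-- a level motion on the right changes only the level slots and, through the height, slot `2` -/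
theorem comp_LvS {S : Finset (Fin 12)} (hS : S ⊆ SL) (h0 : (0 : Fin 12) ∈ S) (A b : Fin 12 → ℝ)
    {k : Fin 12} (hk : k ∉ S) :
    comp A (LvS S b) k = A k - if k = 2 then 2 * (A 1 * b 0) else 0 := by
  have z : ∀ j : Fin 12, j ∉ SL → LvS S b j = 0 := fun j hj => if_neg fun h => hj (hS h)
  have z3 : LvS S b 3 = 0 := z 3 (by decide)
  have z4 : LvS S b 4 = 0 := z 4 (by decide)
  have z5 : LvS S b 5 = 0 := z 5 (by decide)
  have z6 : LvS S b 6 = 0 := z 6 (by decide)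
  have z9 : LvS S b 9 = 0 := z 9 (by decide)
  have z10 : LvS S b 10 = 0 := z 10 (by decide)
  have z11 : LvS S b 11 = 0 := z 11 (by decide)
  have zz : LvS S b 0 = b 0 := if_pos h0
  have zk : LvS S b k = 0 := if_neg hk
  fin_cases k
  · exact absurd h0 hk
  · simp only [Fin.mk_one, Fin.isValue] at zk
    simp [comp, zk]
  · simp only [Fin.reduceFinMk, Fin.isValue] at zk
    simp [comp, zk, zz]
  · simp [comp, z3]
  · simp [comp, z4]
  · simp [comp, z5, z3]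
  · simp [comp, z6, z4]
  · simp only [Fin.reduceFinMk, Fin.isValue] at zk
    simp [comp, zk, z3, z5]
  · simp only [Fin.reduceFinMk, Fin.isValue] at zk
    simp [comp, zk, z4, z6]
  · simp [comp, z9, z3, z4, z5, z6]
  · simp [comp, z10, z9, z3, z4, z5, z6]
  · simp [comp, z11, z10, z9, z3, z4, z5, z6]

theorem comp_hgt (A : Fin 12 → ℝ) (t : ℝ) {k : Fin 12} (hk : k ≠ 0) :
    comp A (hgt t) k = A k - if k = 2 then 2 * (A 1 * t) else 0 := by
  have e : hgt t = LvS {0} (hgt t) := by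
    funext j
    simp only [hgt, LvS, Finset.mem_singleton]
    split_ifs <;> rfl
  rw [e, comp_LvS (S := {0}) (by decide) (by decide) A (hgt t) (k := k) (by simpa using hk)]
  rfl

/-- the slots `C, X, N, P, F` do not see the level slots of the second argument -/
theorem comp_LnS (A b : Fin 12 → ℝ) {k : Fin 12} (hk : k ∉ SL) :
    comp A (LnS SL b) k = comp A b k := by
  have z : ∀ j : Fin 12, j ∉ SL → LnS SL b j = b j := fun j hj => if_neg hj
  have z3 : LnS SL b 3 = b 3 := z 3 (by decide)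
  have z4 : LnS SL b 4 = b 4 := z 4 (by decide)
  have z5 : LnS SL b 5 = b 5 := z 5 (by decide)
  have z6 : LnS SL b 6 = b 6 := z 6 (by decide)
  have z9 : LnS SL b 9 = b 9 := z 9 (by decide)
  have z10 : LnS SL b 10 = b 10 := z 10 (by decide)
  have z11 : LnS SL b 11 = b 11 := z 11 (by decide)
  fin_cases k <;> simp [SL] at hk <;> simp [comp, z3, z4, z5, z6, z9, z10, z11]

section four

variable {ι : Type*} {c : ι → ι → Fin 12 → ℝ} {D : Fin 12 → ℝ} {S : Finset (Fin 12)} {r : ℝ}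

/-- **evolution of fat lines**, slots `C, X, N, P, F`: `x, x'` on one fat line, `y, y'` on another
one.  No condition on the flags and on the heights. -/
theorem Coc.evoLD (h : Coc c) (hD : Sides D) (hr : 0 ≤ r) {x x' y y' : ι}
    (h1 : ∀ k, |c x' x k| ≤ D k) (h2 : ∀ k, |c x y k| ≤ D k) (h3 : ∀ k, |c x' y k| ≤ D k)
    (h4 : ∀ k, |c y y' k| ≤ D k)
    (f1 : ∀ k, k ∉ SL → |c x' x k| ≤ r * D k) (f2 : ∀ k, k ∉ SL → |c y y' k| ≤ r * D k)
    {k : Fin 12} (hk : k ∉ SL) :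
    |c x' y' k - comp (LvS SL (c x' x)) (LnS SL (c x y)) k| ≤ 96 * (r * D k) := by
  have hp := hD.pos
  have z : ∀ (v : Fin 12 → ℝ) j, |v j - v j| ≤ r * D j := fun v j => by
    simpa using mul_nonneg hr (hp j).le
  have s1 := comp_lipD (k := k) (a := c x' x) (c := c x y) (c' := c x y) hD hr h1
    (abs_LvS_le (S := SL) hp h1) h2 h2 (abs_sub_LvS hp hr f1) (z _)
  rw [← h.add x' x y] at s1
  have s2 := comp_lipD (k := k) (a := c x' y) (a' := c x' y) hD hr h3 h3 h4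
    (abs_LvS_le (S := SL) hp h4) (z _) (abs_sub_LvS hp hr f2)
  have hk2 : k ≠ 2 := by rintro rfl; exact hk (by decide)
  rw [← h.add x' y y', comp_LvS (S := SL) (Finset.Subset.refl _) (by decide) _ _ hk,
    if_neg hk2, sub_zero] at s2
  rw [comp_LnS _ _ hk]
  rw [abs_le] at s1 s2 ⊢
  constructor <;> linarith [s1.1, s1.2, s2.1, s2.2]

/-- **evolution of fat lines.**  `x, x'` on one fat line, `y, y'` on another one, `x, y` and
`x', y'` at one height label.  Line slots `k ∉ S`, error `200 r D k`. -/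
theorem Coc.evoD (h : Coc c) (hD : Sides D) (hS : S ⊆ SL) (h0 : (0 : Fin 12) ∈ S) (hr : 0 ≤ r)
    {x x' y y' : ι}
    (h1 : ∀ k, |c x' x k| ≤ D k) (h2 : ∀ k, |c x y k| ≤ D k) (h3 : ∀ k, |c x' y k| ≤ D k)
    (h4 : ∀ k, |c y y' k| ≤ D k)
    (f1 : ∀ k, k ∉ S → |c x' x k| ≤ r * D k) (f2 : ∀ k, k ∉ S → |c y y' k| ≤ r * D k)
    (g1 : ∀ k, k ∈ S → |c x y k| ≤ r * D k) (g2 : |c x' y' 0| ≤ r * D 0) {k : Fin 12}
    (hk : k ∉ S) : |c x' y' k - evoS S (c x' x) (c x y) k| ≤ 200 * (r * D k) := by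
  have hp := hD.pos
  set A : Fin 12 → ℝ := comp (LvS S (c x' x)) (LnS S (c x y)) with hA
  have s1 : ∀ j, |c x' y j - A j| ≤ 48 * (r * D j) := fun j => by
    have := comp_lipD (k := j) hD hr h1 (abs_LvS_le hp h1) h2 (abs_LnS_le hp h2)
      (abs_sub_LvS hp hr f1) (abs_sub_LnS hp hr g1)
    rwa [← h.add x' x y] at this
  have s2 := comp_lipD (k := k) (a := c x' y) (a' := c x' y) hD hr h3 h3 h4 (abs_LvS_le hp h4)
    (fun j => by simpa using mul_nonneg hr (hp j).le) (abs_sub_LvS hp hr f2)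
  rw [← h.add x' y y', comp_LvS hS h0 _ _ hk] at s2
  have hk0 : k ≠ 0 := fun e => hk (e ▸ h0)
  unfold evoS
  rw [← hA, comp_hgt A _ hk0]
  have hrk : 0 ≤ r * D k := mul_nonneg hr (hp k).le
  by_cases hk2 : k = 2
  · subst hk2
    rw [if_pos rfl] at s2 ⊢
    -- the height
    have e0 : c x' y' 0 = c x' x 0 + c x y 0 + c y y' 0 := by
      rw [h.add x' y y']
      show c x' y 0 + c y y' 0 = _
      rw [h.add x' x y]
      rfl
    have b0 : |c y y' 0 + c x' x 0| ≤ 2 * (r * D 0) := by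
      have e : c y y' 0 + c x' x 0 = c x' y' 0 - c x y 0 := by rw [e0]; ring
      rw [e]
      refine (abs_sub _ _).trans ?_
      have := g1 0 h0
      linarith
    have t1 : |c x' y 1 * (c y y' 0 + c x' x 0)| ≤ D 1 * (2 * (r * D 0)) := bd2D (h3 1) b0
    have t2 : |(c x' y 1 - A 1) * c x' x 0| ≤ (48 * (r * D 1)) * D 0 := bd2D (s1 1) (h1 0)
    have t3 := s1 2
    have w := mul_le_mul_of_nonneg_left hD.w2 hr
    have e : c x' y' 2 - (A 2 - 2 * (A 1 * -(c x' x 0))) =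
        (c x' y' 2 - (c x' y 2 - 2 * (c x' y 1 * c y y' 0))) + (c x' y 2 - A 2) -
          2 * (c x' y 1 * (c y y' 0 + c x' x 0)) + 2 * ((c x' y 1 - A 1) * c x' x 0) := by ring
    rw [e]
    rw [abs_le] at s2 t1 t2 t3 ⊢
    constructor <;> nlinarith [s2.1, s2.2, t1.1, t1.2, t2.1, t2.2, t3.1, t3.2]
  · rw [if_neg hk2] at s2 ⊢
    rw [sub_zero] at s2 ⊢
    have t3 := s1 k
    have e : c x' y' k - A k = (c x' y' k - c x' y k) + (c x' y k - A k) := by ring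
    rw [e]
    refine (abs_add_le _ _).trans ?_
    linarith

/-- **the four point law** (transport of the own motions), all slots. -/
theorem Coc.fourD (h : Coc c) (hD : Sides D) (hr : 0 ≤ r) {x x' y y' : ι}
    (h1 : ∀ k, |c x' x k| ≤ D k) (h2 : ∀ k, |c x y k| ≤ D k) (h3 : ∀ k, |c x' y' k| ≤ D k)
    (h4 : ∀ k, |c y' y k| ≤ D k)
    (f1 : ∀ k, k ∉ S → |c x' x k| ≤ r * D k) (f2 : ∀ k, k ∉ S → |c y' y k| ≤ r * D k)
    (g1 : ∀ k, k ∈ S → |c x y k| ≤ r * D k) (g2 : ∀ k, k ∈ S → |c x' y' k| ≤ r * D k)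
    (k : Fin 12) :
    |comp (LnS S (c x' y')) (LvS S (c y' y)) k - comp (LvS S (c x' x)) (LnS S (c x y)) k| ≤
      96 * (r * D k) := by
  have hp := hD.pos
  have s1 : |c x' y k - comp (LvS S (c x' x)) (LnS S (c x y)) k| ≤ 48 * (r * D k) := by
    have := comp_lipD (k := k) hD hr h1 (abs_LvS_le hp h1) h2 (abs_LnS_le hp h2)
      (abs_sub_LvS hp hr f1) (abs_sub_LnS hp hr g1)
    rwa [← h.add x' x y] at this
  have s2 : |c x' y k - comp (LnS S (c x' y')) (LvS S (c y' y)) k| ≤ 48 * (r * D k) := by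
    have := comp_lipD (k := k) hD hr h3 (abs_LnS_le hp h3) h4 (abs_LvS_le hp h4)
      (abs_sub_LnS hp hr g2) (abs_sub_LvS hp hr f2)
    rwa [← h.add x' y' y] at this
  rw [abs_le] at s1 s2 ⊢
  constructor <;> linarith [s1.1, s1.2, s2.1, s2.2]

/-- **composition at one height** -/
theorem Coc.heightD (h : Coc c) (hD : Sides D) (hr : 0 ≤ r) {x y w : ι}
    (h1 : ∀ k, |c x y k| ≤ D k) (h2 : ∀ k, |c y w k| ≤ D k)
    (g1 : ∀ k, k ∈ S → |c x y k| ≤ r * D k) (g2 : ∀ k, k ∈ S → |c y w k| ≤ r * D k)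
    (k : Fin 12) :
    |c x w k - comp (LnS S (c x y)) (LnS S (c y w)) k| ≤ 48 * (r * D k) := by
  have hp := hD.pos
  have := comp_lipD (k := k) hD hr h1 (abs_LnS_le hp h1) h2 (abs_LnS_le hp h2)
    (abs_sub_LnS hp hr g1) (abs_sub_LnS hp hr g2)
  rwa [← h.add x y w] at this

end four

/-! ### the typical sets of level slots -/

section forms

variable (a c : Fin 12 → ℝ)

/-- static flags: only the height is a level slot -/
theorem evoS_z : evoS {0} a c = ![0, c 1, c 2 + 2 * (a 0 * c 1), c 3, c 4, c 5 - a 0 * c 3,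
    c 6 - a 0 * c 4, c 7, c 8, c 9 - a 0 * ((c 3 ^ 2 + c 4 ^ 2) / 2), c 10,
    c 11 - a 0 * c 10] := by
  funext k
  fin_cases k <;> simp [evoS, comp, LvS, LnS, hgt] <;> ring

/-- all flags are level slots -/
theorem evoS_SL {k : Fin 12} (hk : k ∉ SL) : evoS SL a c k = evoL a c k := by
  have hk0 : k ≠ 0 := by rintro rfl; exact hk (by decide)
  have hk2 : k ≠ 2 := by rintro rfl; exact hk (by decide)
  unfold evoS evoL
  rw [comp_hgt _ _ hk0, if_neg hk2, sub_zero]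
  rfl

end forms

end Crest.Agent.R116.EvL504
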