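import Crest.Agent.R136.Qg2_926
import Crest.Agent.R116.EvL2_504

/-!
# R116, EVL (helper504), part 3: the light chart in a window of 926

`WL W K tp` : window of the light chart (level slots `S ⊆ SL`, `kap s = K ^ wtL s`, resolutions
`≥ tp` on the slots `C, X, N, P, F` and on `S`; flags outside `S` may be unresolved).
`side n s` = unit of the slot; no condition on the base point except legality.

* incidences: `WL.evoSL` (slots `C, X, N, P, F`, no condition on the flags), `WL.evo` (all line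
  slots, flags resolved), `WL.four`, `WL.hgt'`;
* `compW`, `evoW` : the laws in normalised coordinates; `WL.nat` : on the natural planes
  (`X n = eL ..`) they are `comp`, `evoS`;
* configuration `cfg0` : `own n i k' k` = own motion; `WL.rel_evo`, `WL.own_four`, `WL.rel_comp`,
  `WL.own_z`, bounds.
-/

set_option autoImplicit false
set_option linter.unusedVariables false
set_option linter.unusedSectionVars false

namespace Crest.Agent.R116.EvL504

open Crest.Agent.R138.Ex926 (Base U)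
open Crest.Agent.R136.Net191 Crest.Agent.R136.Qg926 Crest.Agent.R136.Gf356
open Crest.Agent.R116.ChL222 Crest.Agent.R116.PL504

theorem wtL_one (s : Fin 12) : 1 ≤ wtL s := by
  fin_cases s <;> decide

variable {ι : ℕ → Type*} [∀ n, DecidableEq (ι n)]

/-- **window of the light chart** -/
structure WL (W : Wnd 12 ι) (K tp : ℝ) : Prop where
  ok : W.Ok
  hM : W.M = monL
  coc : ∀ n, Coc (W.co n)
  hK : W.K0 ≤ K
  kap : ∀ s, W.kap s = K ^ wtL s
  hS : W.S ⊆ SL
  kz : W.kz = 0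
  topS : ∀ s, s ∈ W.S → tp ≤ W.top s
  topL : ∀ s, s ∉ SL → tp ≤ W.top s

/-- unit of the slot `s` -/
noncomputable def side (W : Wnd 12 ι) (n : ℕ) (s : Fin 12) : ℝ := W.kap s * W.B.d n ^ W.X n s

/-- composition law in normalised coordinates -/
noncomputable def compW (W : Wnd 12 ι) (n : ℕ) (a c : Fin 12 → ℝ) (s : Fin 12) : ℝ :=
  comp (fun j => side W n j * a j) (fun j => side W n j * c j) s / side W n s

/-- evolution in normalised coordinates -/
noncomputable def evoW (W : Wnd 12 ι) (n : ℕ) (a c : Fin 12 → ℝ) (s : Fin 12) : ℝ :=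
  evoS W.S (fun j => side W n j * a j) (fun j => side W n j * c j) s / side W n s

/-- own motion of the line `i` from the height `k'` back to the height `k` -/
noncomputable def own (W : Wnd 12 ι) (n : ℕ) (i k' k : ℕ) : Fin 12 → ℝ :=
  W.crd n (W.rep n i k') (W.rep n i k)

theorem LvS_smul (S : Finset (Fin 12)) (D a : Fin 12 → ℝ) :
    LvS S (fun j => D j * a j) = fun j => D j * LvS S a j := by
  funext j
  unfold LvS
  split_ifs <;> simp

theorem LnS_smul (S : Finset (Fin 12)) (D a : Fin 12 → ℝ) :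
    LnS S (fun j => D j * a j) = fun j => D j * LnS S a j := by
  funext j
  unfold LnS
  split_ifs <;> simp

namespace WL

variable {W : Wnd 12 ι} {K tp : ℝ} (h : WL W K tp)

include h

theorem K1 : 1 ≤ K := h.ok.K0_one.trans h.hK

theorem z0 : (0 : Fin 12) ∈ W.S := h.kz ▸ h.ok.kzS

theorem side_pos' (n : ℕ) (s : Fin 12) : 0 < side W n s :=
  mul_pos (h.ok.kap s) (Real.rpow_pos_of_pos (W.B.pos n) _)

theorem r0 (n : ℕ) : 0 ≤ W.B'.d n ^ tp := (Real.rpow_pos_of_pos (W.B'.pos n) _).le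

variable {n : ℕ}

theorem sides (g : W.Good n) : Sides (side W n) := by
  have h1 := g.leg 0 h.ok.zero_leg
  rw [smul_zero, add_zero, h.hM] at h1
  have e : side W n = fun s => K ^ wtL s * W.B.d n ^ W.X n s := by
    funext s
    unfold side
    rw [h.kap s]
  rw [e]
  exact Sides.of h1 (W.B.pos n) (W.B.lt n).le h.K1

/-- from a box of window exponents to the units -/
theorem bd_of {c : Fin 12 → ℝ} {i j : ι n} {s : Fin 12} {t : ℝ} (hb : W.bx n c W.K0 i j)
    (ht : t ≤ c s) : |W.co n i j s| ≤ W.B'.d n ^ t * side W n s := by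
  refine (hb s).trans ?_
  have hK1 := h.K1
  have hd := Real.rpow_pos_of_pos (W.B.pos n) (W.X n s)
  have h1 : W.K0 ≤ K ^ wtL s := by
    refine h.hK.trans ?_
    calc K = K ^ 1 := (pow_one K).symm
      _ ≤ K ^ wtL s := pow_le_pow_right₀ hK1 (wtL_one s)
  have h2 : W.B'.d n ^ c s ≤ W.B'.d n ^ t :=
    Real.rpow_le_rpow_of_exponent_ge (W.B'.pos n) (W.B'.lt n).le ht
  unfold side
  rw [h.kap s]
  calc W.K0 * (W.B.d n ^ W.X n s * W.B'.d n ^ c s)
      ≤ K ^ wtL s * (W.B.d n ^ W.X n s * W.B'.d n ^ t) := by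
        refine mul_le_mul h1 ?_ ?_ (by positivity)
        · exact mul_le_mul_of_nonneg_left h2 hd.le
        · exact mul_nonneg hd.le (Real.rpow_nonneg (W.B'.pos n).le _)
    _ = W.B'.d n ^ t * (K ^ wtL s * W.B.d n ^ W.X n s) := by ring

/-- the whole class: unit box -/
theorem bd0 (g : W.Good n) {i j : ι n} (hi : i ∈ W.Cl n) (hj : j ∈ W.Cl n) (s : Fin 12) :
    |W.co n i j s| ≤ side W n s := by
  have := h.bd_of (s := s) (t := 0) (h.ok.near0 g hi hj) le_rfl
  rwa [Real.rpow_zero, one_mul] at this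

theorem notS {s : Fin 12} (hs : s ∉ SL) : s ∉ W.S := fun h' => hs (h.hS h')

/-- one fat line: line slots -/
theorem bdl (g : W.Good n) {i j : ι n} (hi : i ∈ W.Cl n) (hj : j ∈ W.Cl n)
    (hl : W.lc n i = W.lc n j) {s : Fin 12} (hs : s ∉ W.S) (ht : tp ≤ W.top s) :
    |W.co n i j s| ≤ W.B'.d n ^ tp * side W n s := by
  refine h.bd_of (h.ok.near_lc g hi hj hl) ?_
  rw [cut_of_notMem hs]
  exact ht

/-- one height: level slots -/
theorem bdz (g : W.Good n) {i j : ι n} (hi : i ∈ W.Cl n) (hj : j ∈ W.Cl n)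
    (hl : W.zc n i = W.zc n j) {s : Fin 12} (hs : s ∈ W.S) :
    |W.co n i j s| ≤ W.B'.d n ^ tp * side W n s := by
  refine h.bd_of (h.ok.near_zc g hi hj hl) ?_
  rw [cut_of_mem hs]
  exact h.topS s hs

/-! ### laws for incidences -/

/-- **evolution of fat lines**, slots `C, X, N, P, F`; the flags may be unresolved, the heights of
`x, y` may differ -/
theorem evoSL (g : W.Good n) {x x' y y' : ι n} (hx : x ∈ W.Cl n) (hx' : x' ∈ W.Cl n)
    (hy : y ∈ W.Cl n) (hy' : y' ∈ W.Cl n) (l1 : W.lc n x' = W.lc n x) (l2 : W.lc n y' = W.lc n y)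
    {s : Fin 12} (hs : s ∉ SL) :
    |W.co n x' y' s - comp (LvS SL (W.co n x' x)) (LnS SL (W.co n x y)) s| ≤
      96 * (W.B'.d n ^ tp * side W n s) :=
  (h.coc n).evoLD (h.sides g) (h.r0 n) (h.bd0 g hx' hx) (h.bd0 g hx hy) (h.bd0 g hx' hy)
    (h.bd0 g hy hy') (fun _ hk => h.bdl g hx' hx l1 (h.notS hk) (h.topL _ hk))
    (fun _ hk => h.bdl g hy hy' l2.symm (h.notS hk) (h.topL _ hk)) hs

/-- **evolution of fat lines**, flags resolved -/
theorem evo (hres : ∀ s, tp ≤ W.top s) (g : W.Good n) {x x' y y' : ι n} (hx : x ∈ W.Cl n)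
    (hx' : x' ∈ W.Cl n) (hy : y ∈ W.Cl n) (hy' : y' ∈ W.Cl n) (l1 : W.lc n x' = W.lc n x)
    (l2 : W.lc n y' = W.lc n y) (z1 : W.zc n x = W.zc n y) (z2 : W.zc n x' = W.zc n y')
    {s : Fin 12} (hs : s ∉ W.S) :
    |W.co n x' y' s - evoS W.S (W.co n x' x) (W.co n x y) s| ≤
      200 * (W.B'.d n ^ tp * side W n s) :=
  (h.coc n).evoD (h.sides g) h.hS h.z0 (h.r0 n) (h.bd0 g hx' hx) (h.bd0 g hx hy) (h.bd0 g hx' hy)
    (h.bd0 g hy hy') (fun _ hk => h.bdl g hx' hx l1 hk (hres _))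
    (fun _ hk => h.bdl g hy hy' l2.symm hk (hres _))
    (fun _ hk => h.bdz g hx hy z1 hk) (h.bdz g hx' hy' z2 h.z0) hs

/-- **four point law** -/
theorem four (hres : ∀ s, tp ≤ W.top s) (g : W.Good n) {x x' y y' : ι n} (hx : x ∈ W.Cl n)
    (hx' : x' ∈ W.Cl n) (hy : y ∈ W.Cl n) (hy' : y' ∈ W.Cl n) (l1 : W.lc n x' = W.lc n x)
    (l2 : W.lc n y' = W.lc n y) (z1 : W.zc n x = W.zc n y) (z2 : W.zc n x' = W.zc n y')
    (s : Fin 12) :
    |comp (LnS W.S (W.co n x' y')) (LvS W.S (W.co n y' y)) s -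
      comp (LvS W.S (W.co n x' x)) (LnS W.S (W.co n x y)) s| ≤
      96 * (W.B'.d n ^ tp * side W n s) :=
  (h.coc n).fourD (h.sides g) (h.r0 n) (h.bd0 g hx' hx) (h.bd0 g hx hy) (h.bd0 g hx' hy')
    (h.bd0 g hy' hy) (fun _ hk => h.bdl g hx' hx l1 hk (hres _))
    (fun _ hk => h.bdl g hy' hy l2 hk (hres _))
    (fun _ hk => h.bdz g hx hy z1 hk) (fun _ hk => h.bdz g hx' hy' z2 hk) s

/-- **composition at one height** -/
theorem hgt' (g : W.Good n) {x y w : ι n} (hx : x ∈ W.Cl n) (hy : y ∈ W.Cl n) (hw : w ∈ W.Cl n)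
    (z1 : W.zc n x = W.zc n y) (z2 : W.zc n y = W.zc n w) (s : Fin 12) :
    |W.co n x w s - comp (LnS W.S (W.co n x y)) (LnS W.S (W.co n y w)) s| ≤
      48 * (W.B'.d n ^ tp * side W n s) :=
  (h.coc n).heightD (h.sides g) (h.r0 n) (h.bd0 g hx hy) (h.bd0 g hy hw)
    (fun _ hk => h.bdz g hx hy z1 hk) (fun _ hk => h.bdz g hy hw z2 hk) s

/-! ### normalised coordinates -/

theorem co_eq (i j : ι n) : W.co n i j = fun s => side W n s * W.crd n i j s := by
  funext s
  have hs := (h.side_pos' n s).ne'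
  show _ = side W n s * (W.co n i j s / side W n s)
  field_simp

theorem crd_le (g : W.Good n) {i j : ι n} (hi : i ∈ W.Cl n) (hj : j ∈ W.Cl n) (s : Fin 12) :
    |W.crd n i j s| ≤ 1 := by
  have hs := h.side_pos' n s
  show |W.co n i j s / side W n s| ≤ 1
  rw [abs_div, abs_of_pos hs, div_le_one hs]
  exact h.bd0 g hi hj s

theorem crd_l (g : W.Good n) {i j : ι n} (hi : i ∈ W.Cl n) (hj : j ∈ W.Cl n)
    (hl : W.lc n i = W.lc n j) {s : Fin 12} (hs : s ∉ W.S) (ht : tp ≤ W.top s) :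
    |W.crd n i j s| ≤ W.B'.d n ^ tp := by
  have h1 := h.side_pos' n s
  show |W.co n i j s / side W n s| ≤ _
  rw [abs_div, abs_of_pos h1, div_le_iff₀ h1]
  exact h.bdl g hi hj hl hs ht

theorem crd_z (g : W.Good n) {i j : ι n} (hi : i ∈ W.Cl n) (hj : j ∈ W.Cl n)
    (hl : W.zc n i = W.zc n j) {s : Fin 12} (hs : s ∈ W.S) : |W.crd n i j s| ≤ W.B'.d n ^ tp := by
  have h1 := h.side_pos' n s
  show |W.co n i j s / side W n s| ≤ _
  rw [abs_div, abs_of_pos h1, div_le_iff₀ h1]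
  exact h.bdz g hi hj hl hs

/-- the composition law for all pairs -/
theorem crd_add (i j l : ι n) (s : Fin 12) :
    W.crd n i l s = compW W n (W.crd n i j) (W.crd n j l) s := by
  unfold compW
  rw [← h.co_eq, ← h.co_eq, ← (h.coc n).add i j l]
  rfl

/-- additivity of the height -/
theorem crd_z_add (i j l : ι n) : W.crd n i l 0 = W.crd n i j 0 + W.crd n j l 0 := by
  have e : W.co n i l 0 = W.co n i j 0 + W.co n j l 0 := by
    rw [(h.coc n).add i j l]; rfl
  show W.co n i l 0 / _ = W.co n i j 0 / _ + W.co n j l 0 / _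
  rw [e, add_div]

/-- **evolution, normalised**, slots `C, X, N, P, F` -/
theorem crd_evoSL (g : W.Good n) {x x' y y' : ι n} (hx : x ∈ W.Cl n) (hx' : x' ∈ W.Cl n)
    (hy : y ∈ W.Cl n) (hy' : y' ∈ W.Cl n) (l1 : W.lc n x' = W.lc n x) (l2 : W.lc n y' = W.lc n y)
    {s : Fin 12} (hs : s ∉ SL) :
    |W.crd n x' y' s - compW W n (LvS SL (W.crd n x' x)) (LnS SL (W.crd n x y)) s| ≤
      96 * W.B'.d n ^ tp := by
  have h1 := h.side_pos' n s
  have h2 := h.evoSL g hx hx' hy hy' l1 l2 hs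
  unfold compW
  rw [← LvS_smul, ← LnS_smul, ← h.co_eq, ← h.co_eq]
  show |W.co n x' y' s / side W n s - _ / side W n s| ≤ _
  rw [← sub_div, abs_div, abs_of_pos h1, div_le_iff₀ h1]
  linarith

/-- **evolution, normalised**, flags resolved -/
theorem crd_evo (hres : ∀ s, tp ≤ W.top s) (g : W.Good n) {x x' y y' : ι n} (hx : x ∈ W.Cl n)
    (hx' : x' ∈ W.Cl n) (hy : y ∈ W.Cl n) (hy' : y' ∈ W.Cl n) (l1 : W.lc n x' = W.lc n x)
    (l2 : W.lc n y' = W.lc n y) (z1 : W.zc n x = W.zc n y) (z2 : W.zc n x' = W.zc n y')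
    {s : Fin 12} (hs : s ∉ W.S) :
    |W.crd n x' y' s - evoW W n (W.crd n x' x) (W.crd n x y) s| ≤ 200 * W.B'.d n ^ tp := by
  have h1 := h.side_pos' n s
  have h2 := h.evo hres g hx hx' hy hy' l1 l2 z1 z2 hs
  unfold evoW
  rw [← h.co_eq, ← h.co_eq]
  show |W.co n x' y' s / side W n s - _ / side W n s| ≤ _
  rw [← sub_div, abs_div, abs_of_pos h1, div_le_iff₀ h1]
  linarith

/-- **four point law, normalised** -/
theorem crd_four (hres : ∀ s, tp ≤ W.top s) (g : W.Good n) {x x' y y' : ι n} (hx : x ∈ W.Cl n)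
    (hx' : x' ∈ W.Cl n) (hy : y ∈ W.Cl n) (hy' : y' ∈ W.Cl n) (l1 : W.lc n x' = W.lc n x)
    (l2 : W.lc n y' = W.lc n y) (z1 : W.zc n x = W.zc n y) (z2 : W.zc n x' = W.zc n y')
    (s : Fin 12) :
    |compW W n (LnS W.S (W.crd n x' y')) (LvS W.S (W.crd n y' y)) s -
      compW W n (LvS W.S (W.crd n x' x)) (LnS W.S (W.crd n x y)) s| ≤ 96 * W.B'.d n ^ tp := by
  have h1 := h.side_pos' n s
  have h2 := h.four hres g hx hx' hy hy' l1 l2 z1 z2 s
  unfold compW
  rw [← LnS_smul, ← LvS_smul, ← LvS_smul, ← LnS_smul, ← h.co_eq, ← h.co_eq, ← h.co_eq,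
    ← h.co_eq, ← sub_div, abs_div, abs_of_pos h1, div_le_iff₀ h1]
  linarith

/-- **composition at one height, normalised** -/
theorem crd_hgt (g : W.Good n) {x y w : ι n} (hx : x ∈ W.Cl n) (hy : y ∈ W.Cl n)
    (hw : w ∈ W.Cl n) (z1 : W.zc n x = W.zc n y) (z2 : W.zc n y = W.zc n w) (s : Fin 12) :
    |W.crd n x w s - compW W n (LnS W.S (W.crd n x y)) (LnS W.S (W.crd n y w)) s| ≤
      48 * W.B'.d n ^ tp := by
  have h1 := h.side_pos' n s
  have h2 := h.hgt' g hx hy hw z1 z2 s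
  unfold compW
  rw [← LnS_smul, ← LnS_smul, ← h.co_eq, ← h.co_eq]
  show |W.co n x w s / side W n s - _ / side W n s| ≤ _
  rw [← sub_div, abs_div, abs_of_pos h1, div_le_iff₀ h1]
  linarith

/-! ### natural base points -/

/-- the inverse units on a natural plane -/
theorem side_nat {z c p : ℝ} (hX : W.X n = eL z c p) (s : Fin 12) :
    (side W n s)⁻¹ = uL ((K * W.B.d n ^ z)⁻¹) ((K * W.B.d n ^ c)⁻¹) ((K ^ 4 * W.B.d n ^ p)⁻¹) s := by
  have hK : (0 : ℝ) < K := by linarith [h.K1]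
  have hK' := hK.ne'
  have hd := W.B.pos n
  have pz := Real.rpow_pos_of_pos hd z
  have pc := Real.rpow_pos_of_pos hd c
  have pp := Real.rpow_pos_of_pos hd p
  have nz := pz.ne'
  have nc := pc.ne'
  have np := pp.ne'
  unfold side
  rw [h.kap s, hX, ← uL_rpow hd]
  fin_cases s <;> simp [uL, wtL] <;> field_simp

/-- on a natural plane the law is `comp` -/
theorem compW_nat {z c p : ℝ} (hX : W.X n = eL z c p) (a b : Fin 12 → ℝ) :
    compW W n a b = comp a b := by
  have hK : (0 : ℝ) < K := by linarith [h.K1]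
  have hd := W.B.pos n
  have pz := Real.rpow_pos_of_pos hd z
  have pc := Real.rpow_pos_of_pos hd c
  have key := comp_unit (lz := (K * W.B.d n ^ z)⁻¹) (lc := (K * W.B.d n ^ c)⁻¹)
    (lp := (K ^ 4 * W.B.d n ^ p)⁻¹) (by positivity) (by positivity)
    (fun j => side W n j * a j) (fun j => side W n j * b j)
  have e : ∀ v : Fin 12 → ℝ, (fun k => uL ((K * W.B.d n ^ z)⁻¹) ((K * W.B.d n ^ c)⁻¹)
      ((K ^ 4 * W.B.d n ^ p)⁻¹) k * (side W n k * v k)) = v := by
    intro v
    funext k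
    rw [← h.side_nat hX k]
    have := (h.side_pos' n k).ne'
    field_simp
  rw [e a, e b] at key
  funext s
  unfold compW
  rw [key]
  show _ = uL ((K * W.B.d n ^ z)⁻¹) ((K * W.B.d n ^ c)⁻¹) ((K ^ 4 * W.B.d n ^ p)⁻¹) s * _
  rw [← h.side_nat hX s, div_eq_inv_mul]

theorem evoW_nat {z c p : ℝ} (hX : W.X n = eL z c p) (a b : Fin 12 → ℝ) :
    evoW W n a b = evoS W.S a b := by
  have h1 : ∀ u v : Fin 12 → ℝ, comp (fun j => side W n j * u j) (fun j => side W n j * v j) =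
      fun j => side W n j * comp u v j := by
    intro u v
    funext s
    have := congrFun (h.compW_nat hX u v) s
    unfold compW at this
    rw [div_eq_iff (h.side_pos' n s).ne'] at this
    rw [this, mul_comm]
  funext s
  unfold evoW evoS
  rw [LvS_smul, LnS_smul, h1]
  have e : hgt (-(side W n 0 * a 0)) = fun j => side W n j * hgt (-(a 0)) j := by
    funext j
    unfold hgt
    split_ifs with hj
    · subst hj; ring
    · simp
  rw [e, h1]
  field_simp [(h.side_pos' n s).ne']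

end WL

end Crest.Agent.R116.EvL504
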