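import Crest.Agent.R136.Qg3b_926
import Crest.Agent.R116.EvL3_504

/-!
# R116, EVL (helper504), part 4: the light chart on the configurations of 926

For `G = W.cfg E n` with `Reg W E n` (`E n ⊆ Cl n`, `n` good, not empty), `ρ = B'.d n`:

* `Reg.rel_le` (`≤ 1`), `Reg.own_le`, `Reg.rel_S` (`= 0` on `S`);
* `Reg.coc` : composition at one height (`48 ρ^tp`);
* `Reg.own_z` : `own n i k' k` has height component `z k - z k'` (`2 ρ^tp`);
* `Reg.evoSL` : evolution of the slots `C, X, N, P, F` (`96 ρ^tp`), flags may be unresolved;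
* `Reg.evo` : evolution of all line slots, flags resolved (`200 ρ^tp`);
* `Reg.own_four` : own motions of two lines.

All in the law `compW`, `evoW` of the window; on natural planes they are `comp`, `evoS`
(`WL.compW_nat`, `WL.evoW_nat`).
-/

set_option autoImplicit false
set_option linter.unusedVariables false
set_option linter.unusedSectionVars false

open Filter

namespace Crest.Agent.R116.EvL504

open Crest.Agent.R138.Ex926 (Base U)
open Crest.Agent.R136.Net191 Crest.Agent.R136.Qg926 Crest.Agent.R136.Gf356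
open Crest.Agent.R116.ChL222 Crest.Agent.R116.PL504

variable {ι : ℕ → Type*} [∀ n, DecidableEq (ι n)]

/-- regular `n` -/
structure Reg (W : Wnd 12 ι) (E : ∀ n, Finset (ι n)) (n : ℕ) : Prop where
  good : W.Good n
  sub : E n ⊆ W.Cl n
  ne : (E n).Nonempty

theorem ev_reg {W : Wnd 12 ι} (h : W.Ok) {E : ∀ n, Finset (ι n)}
    (h1 : ∀ᶠ n in (U : Filter ℕ), E n ⊆ W.Cl n) (h2 : ∀ᶠ n in (U : Filter ℕ), (E n).Nonempty) :
    ∀ᶠ n in (U : Filter ℕ), Reg W E n := by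
  filter_upwards [h.ev_good, h1, h2] with n a b c
  exact ⟨a, b, c⟩

namespace Reg

variable {W : Wnd 12 ι} {E : ∀ n, Finset (ι n)} {n : ℕ} (r : Reg W E n)

include r

theorem cfg_eq : W.cfg E n = W.cfg0 n (E n) := Wnd.cfg_eq r.sub r.good.clI r.ne

theorem spec {l k : ℕ} (hI : (l, k) ∈ (W.cfg E n).I) :
    W.rep n l k ∈ W.Cl n ∧ W.lc n (W.rep n l k) = l ∧ W.zc n (W.rep n l k) = k := by
  rw [r.cfg_eq] at hI
  obtain ⟨x, hx, rfl, rfl⟩ := Wnd.mem_I.1 hI
  exact W.rep_spec (r.sub hx)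

theorem zspec {k : ℕ} (hk : ∃ l, (l, k) ∈ (W.cfg E n).I) :
    W.zrep n k ∈ W.Cl n ∧ W.zc n (W.zrep n k) = k := by
  obtain ⟨l, hI⟩ := hk
  rw [r.cfg_eq] at hI
  obtain ⟨x, hx, rfl, rfl⟩ := Wnd.mem_I.1 hI
  exact W.zrep_spec (r.sub hx)

theorem rel_eq (k i l : ℕ) :
    (W.cfg E n).rel k i l = LnS W.S (W.crd n (W.rep n i k) (W.rep n l k)) := by
  rw [r.cfg_eq]
  rfl

theorem rel_S {k i l : ℕ} {s : Fin 12} (hs : s ∈ W.S) : (W.cfg E n).rel k i l s = 0 := by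
  rw [r.rel_eq]
  exact if_pos hs

theorem rel_of {k i l : ℕ} {s : Fin 12} (hs : s ∉ W.S) :
    (W.cfg E n).rel k i l s = W.crd n (W.rep n i k) (W.rep n l k) s := by
  rw [r.rel_eq]
  exact if_neg hs

theorem z_eq (k : ℕ) : (W.cfg E n).z k = W.crd n (W.s₀ n) (W.zrep n k) W.kz := by
  rw [r.cfg_eq]; rfl

variable {K tp : ℝ} (h : WL W K tp)

include h

theorem rel_le {k i l : ℕ} (hi : (i, k) ∈ (W.cfg E n).I) (hl : (l, k) ∈ (W.cfg E n).I)
    (s : Fin 12) : |(W.cfg E n).rel k i l s| ≤ 1 := by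
  by_cases hs : s ∈ W.S
  · rw [r.rel_S hs]; simp
  · rw [r.rel_of hs]
    exact h.crd_le r.good (r.spec hi).1 (r.spec hl).1 s

theorem own_le {k k' i : ℕ} (hi : (i, k) ∈ (W.cfg E n).I) (hi' : (i, k') ∈ (W.cfg E n).I)
    (s : Fin 12) : |own W n i k' k s| ≤ 1 :=
  h.crd_le r.good (r.spec hi').1 (r.spec hi).1 s

/-- the line slots of an own motion are small -/
theorem own_line {k k' i : ℕ} (hi : (i, k) ∈ (W.cfg E n).I) (hi' : (i, k') ∈ (W.cfg E n).I)
    {s : Fin 12} (hs : s ∉ W.S) (ht : tp ≤ W.top s) : |own W n i k' k s| ≤ W.B'.d n ^ tp :=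
  h.crd_l r.good (r.spec hi').1 (r.spec hi).1 (by rw [(r.spec hi').2.1, (r.spec hi).2.1]) hs ht

/-- **composition at one height** -/
theorem coc {k i j l : ℕ} (hi : (i, k) ∈ (W.cfg E n).I) (hj : (j, k) ∈ (W.cfg E n).I)
    (hl : (l, k) ∈ (W.cfg E n).I) {s : Fin 12} (hs : s ∉ W.S) :
    |(W.cfg E n).rel k i l s -
      compW W n ((W.cfg E n).rel k i j) ((W.cfg E n).rel k j l) s| ≤ 48 * W.B'.d n ^ tp := by
  obtain ⟨a1, a2, a3⟩ := r.spec hi
  obtain ⟨b1, b2, b3⟩ := r.spec hj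
  obtain ⟨c1, c2, c3⟩ := r.spec hl
  rw [r.rel_of hs, r.rel_eq, r.rel_eq]
  exact h.crd_hgt r.good a1 b1 c1 (a3.trans b3.symm) (b3.trans c3.symm) s

/-- **the height component of an own motion** -/
theorem own_z {k k' i : ℕ} (hi : (i, k) ∈ (W.cfg E n).I) (hi' : (i, k') ∈ (W.cfg E n).I) :
    |own W n i k' k 0 - ((W.cfg E n).z k - (W.cfg E n).z k')| ≤ 2 * W.B'.d n ^ tp := by
  obtain ⟨a1, a2, a3⟩ := r.spec hi
  obtain ⟨b1, b2, b3⟩ := r.spec hi'
  obtain ⟨c1, c3⟩ := r.zspec ⟨i, hi⟩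
  obtain ⟨d1, d3⟩ := r.zspec ⟨i, hi'⟩
  have s0 := r.good.s0
  rw [r.z_eq, r.z_eq, h.kz]
  have e1 := h.crd_z_add (W.s₀ n) (W.zrep n k) (W.rep n i k)
  have e2 := h.crd_z_add (W.s₀ n) (W.zrep n k') (W.rep n i k')
  have e3 := h.crd_z_add (W.s₀ n) (W.rep n i k') (W.rep n i k)
  have t1 := h.crd_z r.good c1 a1 (c3.trans a3.symm) h.z0
  have t2 := h.crd_z r.good d1 b1 (d3.trans b3.symm) h.z0
  have e : own W n i k' k 0 - (W.crd n (W.s₀ n) (W.zrep n k) 0 -
      W.crd n (W.s₀ n) (W.zrep n k') 0) =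
      W.crd n (W.zrep n k) (W.rep n i k) 0 - W.crd n (W.zrep n k') (W.rep n i k') 0 := by
    show W.crd n (W.rep n i k') (W.rep n i k) 0 - _ = _
    linarith
  rw [e]
  refine (abs_sub _ _).trans ?_
  linarith

/-- **evolution**, slots `C, X, N, P, F` -/
theorem evoSL {k k' i l : ℕ} (hi : (i, k) ∈ (W.cfg E n).I) (hl : (l, k) ∈ (W.cfg E n).I)
    (hi' : (i, k') ∈ (W.cfg E n).I) (hl' : (l, k') ∈ (W.cfg E n).I) {s : Fin 12} (hs : s ∉ SL) :
    |(W.cfg E n).rel k' i l s - compW W n (LvS SL (own W n i k' k))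
      (LnS SL ((W.cfg E n).rel k i l)) s| ≤ 96 * W.B'.d n ^ tp := by
  obtain ⟨a1, a2, a3⟩ := r.spec hi
  obtain ⟨b1, b2, b3⟩ := r.spec hl
  obtain ⟨c1, c2, c3⟩ := r.spec hi'
  obtain ⟨d1, d2, d3⟩ := r.spec hl'
  have e : LnS SL ((W.cfg E n).rel k i l) = LnS SL (W.crd n (W.rep n i k) (W.rep n l k)) := by
    rw [r.rel_eq]
    funext j
    unfold LnS
    split_ifs with h1 h2
    · rfl
    · exact absurd (h.hS h2) h1
    · rfl
  rw [r.rel_of (h.notS hs), e]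
  exact h.crd_evoSL r.good a1 c1 b1 d1 (c2.trans a2.symm) (d2.trans b2.symm) hs

/-- **evolution**, flags resolved -/
theorem evo (hres : ∀ s, tp ≤ W.top s) {k k' i l : ℕ} (hi : (i, k) ∈ (W.cfg E n).I)
    (hl : (l, k) ∈ (W.cfg E n).I) (hi' : (i, k') ∈ (W.cfg E n).I) (hl' : (l, k') ∈ (W.cfg E n).I)
    {s : Fin 12} (hs : s ∉ W.S) :
    |(W.cfg E n).rel k' i l s - evoW W n (own W n i k' k) ((W.cfg E n).rel k i l) s| ≤
      200 * W.B'.d n ^ tp := by
  obtain ⟨a1, a2, a3⟩ := r.spec hi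
  obtain ⟨b1, b2, b3⟩ := r.spec hl
  obtain ⟨c1, c2, c3⟩ := r.spec hi'
  obtain ⟨d1, d2, d3⟩ := r.spec hl'
  have e : evoW W n (own W n i k' k) ((W.cfg E n).rel k i l) s =
      evoW W n (own W n i k' k) (W.crd n (W.rep n i k) (W.rep n l k)) s := by
    rw [r.rel_eq]
    unfold evoW evoS
    rw [LnS_smul, LnS_smul]
    congr 3
    congr 1
    funext j
    unfold LnS
    split_ifs <;> rfl
  rw [r.rel_of hs, e]
  exact h.crd_evo hres r.good a1 c1 b1 d1 (c2.trans a2.symm) (d2.trans b2.symm)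
    (a3.trans b3.symm) (c3.trans d3.symm) hs

/-- **own motions of two lines between the same two heights**, flags resolved -/
theorem own_four (hres : ∀ s, tp ≤ W.top s) {k k' i l : ℕ} (hi : (i, k) ∈ (W.cfg E n).I)
    (hl : (l, k) ∈ (W.cfg E n).I) (hi' : (i, k') ∈ (W.cfg E n).I) (hl' : (l, k') ∈ (W.cfg E n).I)
    (s : Fin 12) :
    |compW W n ((W.cfg E n).rel k' i l) (LvS W.S (own W n l k' k)) s -
      compW W n (LvS W.S (own W n i k' k)) ((W.cfg E n).rel k i l) s| ≤ 96 * W.B'.d n ^ tp := by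
  obtain ⟨a1, a2, a3⟩ := r.spec hi
  obtain ⟨b1, b2, b3⟩ := r.spec hl
  obtain ⟨c1, c2, c3⟩ := r.spec hi'
  obtain ⟨d1, d2, d3⟩ := r.spec hl'
  rw [r.rel_eq, r.rel_eq]
  exact h.crd_four hres r.good a1 c1 b1 d1 (c2.trans a2.symm) (d2.trans b2.symm)
    (a3.trans b3.symm) (c3.trans d3.symm) s

end Reg

/-! ### real lines (593) -/

/-- two incidences of one real line: `C, X, N, P, F` vanish identically -/
structure Real (c : Fin 12 → ℝ) : Prop where
  z : ∀ k, k ∉ SL → c k = 0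

/-- position of the incidence `j` seen from `i` on a real line, from a base incidence `b`:
the flags are `c b j = comp (c b i) (c i j)` -/
theorem Coc.flag {α : Type*} {c : α → α → Fin 12 → ℝ} (h : Coc c) {b i j : α}
    (hr : Real (c i j)) :
    c b j 0 - c b i 0 = c i j 0 ∧
    c b j 1 - c b i 1 = c i j 1 ∧
    c b j 2 - c b i 2 = c i j 2 - 2 * (c b i 1 * c i j 0) ∧
    c b j 7 - c b i 7 = c i j 7 ∧
    c b j 8 - c b i 8 = c i j 8 ∧
    (∀ k, k ∉ SL → c b j k = c b i k) := by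
  have a := h.add b i j
  have z3 : c i j 3 = 0 := hr.z 3 (by decide)
  have z4 : c i j 4 = 0 := hr.z 4 (by decide)
  have z5 : c i j 5 = 0 := hr.z 5 (by decide)
  have z6 : c i j 6 = 0 := hr.z 6 (by decide)
  have z9 : c i j 9 = 0 := hr.z 9 (by decide)
  have z10 : c i j 10 = 0 := hr.z 10 (by decide)
  have z11 : c i j 11 = 0 := hr.z 11 (by decide)
  refine ⟨?_, ?_, ?_, ?_, ?_, ?_⟩
  · rw [a]; simp [comp]
  · rw [a]; simp [comp]
  · rw [a]; simp [comp]; ring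
  · rw [a]; simp [comp, z3, z5]
  · rw [a]; simp [comp, z4, z6]
  · intro k hk
    rw [a]
    fin_cases k <;> simp [SL] at hk <;> simp [comp, z3, z4, z5, z6, z9, z10, z11]

end Crest.Agent.R116.EvL504
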