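import Crest.Agent.R136.Qg7_926
import Crest.Agent.R136.Lq1_196
import Crest.Agent.R116.EvL4_504

/-!
# R116, K-TEXT II-c (helper954): windows of the light chart at ANY moving base point

* `NProf.of_ext` : 926's `NProf` from 196's `ExtQ`.
* `stU K t` : static data: level slot `z` only, all slots resolved up to `t`, all monomials kept.
* `WinU` : the window; `exists_winU` : a tangent on a set of directions which contains `Leg monL t`
  gives windows of 926 with `WL` (504), regular incidences and 356's `RModel`.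
* `mem_legU` : the legal exponents of the model; `nu_lin` : its profile for a linear tangent.
* `exists_winL` : the same for a tangent which is linear on `Leg monL t`.
-/

set_option autoImplicit false
set_option linter.unusedVariables false
set_option linter.unusedSectionVars false

open Filter Topology

namespace Crest.Agent.R116.WinU954

open Finset
open Crest.Agent.R138.Ex926
open Crest.Agent.R136.Net191 Crest.Agent.R136.Qg926 Crest.Agent.R136.Gf356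
open Crest.Agent.R116.ChL222 Crest.Agent.R116.PL504 Crest.Agent.R116.EvL504

/-! ### `NProf` from `ExtQ` -/

theorem nprof_of_ext {m : ℕ} {B : Base} {I0 I : ℕ → Finset (ℕ × ℝ)}
    {co : ∀ n : ℕ, ℕ × ℝ → ℕ × ℝ → Fin m → ℝ} {M : Mons m} {C R : ℝ} {kz : Fin m} {w0 s : ℝ}
    {PD : Set (Fin m → ℝ)} {D : (Fin m → ℝ) → ℝ} {r o : ℝ → Fin m → ℝ} {E : ℝ → ℝ}
    {T : Fin m → Prop} {ν own : (Fin m → ℝ) → ℝ} {c₀ : ℝ} (hR : 0 ≤ R)
    (h : Crest.Agent.R136.Lq196.ExtQ B I0 I co M C R kz w0 s PD D r o E T ν own c₀) :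
    NProf B I0 I co M C R ν where
  chart := h.chart
  R0 := hR
  sub := Eventually.of_forall h.sub
  ne := h.ne
  prof := h.prof
  lip := by
    intro p hp q hq
    have hs := Leg.sup hp hq
    have h1 := h.lip p hp _ hs le_sup_left
    have h2 := h.lip q hq _ hs le_sup_right
    have hb : ∀ a b : Fin m → ℝ, ∑ k, ((a ⊔ b) k - a k) ≤ (m : ℝ) * ‖a - b‖ := by
      intro a b
      calc ∑ k, ((a ⊔ b) k - a k) ≤ ∑ _k : Fin m, ‖a - b‖ := by
            refine Finset.sum_le_sum fun k _ => ?_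
            have h3 := norm_le_pi_norm (a - b) k
            rw [Pi.sub_apply, Real.norm_eq_abs] at h3
            have h4 := abs_le.1 h3
            rw [Pi.sup_apply]
            rcases le_total (a k) (b k) with hab | hab
            · rw [sup_eq_right.2 hab]; linarith [h4.1]
            · rw [sup_eq_left.2 hab]; linarith [norm_nonneg (a - b)]
        _ = (m : ℝ) * ‖a - b‖ := by simp
    have h3 := hb p q
    have h4 := hb q p
    rw [sup_comm, norm_sub_rev] at h4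
    rw [abs_le]
    constructor <;> linarith [h1.1, h1.2, h2.1, h2.2]
  anti := fun p hp q hq hpq => by linarith [(h.lip p hp q hq hpq).1]
  sharp := fun p hp q hq hpq => (h.lip p hp q hq hpq).2
  submod := h.submod

/-! ### static data -/

/-- level slot `z`, all slots resolved up to `t`, all monomials -/
noncomputable def stU (K t : ℝ) : WSt 12 where
  S := {0}
  kz := 0
  top := fun _ => t
  kap := fun s => K ^ wtL s
  Mw := monL
  R' := t

theorem mon0 : monL.mon 0 = ∅ := rfl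

theorem cut_zero (p r : Fin 12 → ℝ) : cut {0} p r 0 = r 0 := cut_of_mem (by simp)

theorem cut_ne (p r : Fin 12 → ℝ) {s : Fin 12} (hs : s ≠ 0) : cut {0} p r s = p s :=
  cut_of_notMem (by simpa using hs)

/-- legal exponents with the height slot at the top -/
theorem cut_leg {t : ℝ} (ht : 0 ≤ t) (p : Fin 12 → ℝ) :
    cut {0} p (fun _ => t) ∈ Leg monL t ↔ (∀ s, s ≠ 0 → 0 ≤ p s ∧ p s ≤ t) ∧
      p 7 ≤ p 2 + p 3 ∧ p 7 ≤ p 1 + p 5 ∧ p 8 ≤ p 2 + p 4 ∧ p 8 ≤ p 1 + p 6 ∧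
      p 9 ≤ p 3 + p 5 ∧ p 9 ≤ p 4 + p 6 ∧ p 10 ≤ p 3 + p 7 ∧ p 10 ≤ p 4 + p 8 ∧
      p 10 ≤ p 1 + p 9 ∧ p 11 ≤ p 5 + p 7 ∧ p 11 ≤ p 6 + p 8 ∧ p 11 ≤ p 2 + p 9 := by
  have e0 := cut_zero p (fun _ => t)
  have e : ∀ s : Fin 12, s ≠ 0 → cut {0} p (fun _ => t) s = p s := fun s hs => cut_ne p _ hs
  constructor
  · rintro ⟨h1, h2⟩
    have h3 : ∀ s, s ≠ 0 → 0 ≤ p s ∧ p s ≤ t := by
      intro s hs
      have a := h1.nonneg s
      have b := h2 s
      rw [e s hs] at a b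
      exact ⟨a, b⟩
    obtain ⟨-, w⟩ := legalL_iff.1 h1
    rw [e0, e 1 (by decide), e 2 (by decide), e 3 (by decide), e 4 (by decide), e 5 (by decide),
      e 6 (by decide), e 7 (by decide), e 8 (by decide), e 9 (by decide), e 10 (by decide),
      e 11 (by decide)] at w
    obtain ⟨w0, w1, w2, w3, w4, w5, w6, w7, w8, w9, w10, w11, w12, w13, w14, w15⟩ := w
    exact ⟨h3, w3, w4, w5, w6, w7, w8, w9, w10, w11, w13, w14, w15⟩
  · rintro ⟨h3, w3, w4, w5, w6, w7, w8, w9, w10, w11, w13, w14, w15⟩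
    have u1 := h3 1 (by decide)
    have u2 := h3 2 (by decide)
    have u3 := h3 3 (by decide)
    have u4 := h3 4 (by decide)
    have u5 := h3 5 (by decide)
    have u6 := h3 6 (by decide)
    have u10 := h3 10 (by decide)
    have u11 := h3 11 (by decide)
    refine ⟨legalL_iff.2 ⟨fun s => ?_, ?_⟩, fun s => ?_⟩
    · by_cases hs : s = 0
      · subst hs; rw [e0]; exact ht
      · rw [e s hs]; exact (h3 s hs).1
    · rw [e0, e 1 (by decide), e 2 (by decide), e 3 (by decide), e 4 (by decide), e 5 (by decide),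
        e 6 (by decide), e 7 (by decide), e 8 (by decide), e 9 (by decide), e 10 (by decide),
        e 11 (by decide)]
      exact ⟨by linarith [u1.1, u2.2], by linarith [u5.2, u3.1], by linarith [u6.2, u4.1], w3, w4,
        w5, w6, w7, w8, w9, w10, w11, by linarith [u11.2, u10.1], w13, w14, w15⟩
    · by_cases hs : s = 0
      · subst hs; rw [e0]
      · rw [e s hs]; exact (h3 s hs).2

theorem top_leg {t : ℝ} (ht : 0 ≤ t) : (fun _ => t : Fin 12 → ℝ) ∈ Leg monL t := by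
  have h := (cut_leg ht (fun _ => t)).2 ⟨fun s _ => ⟨ht, le_rfl⟩, by
    refine ⟨?_, ?_, ?_, ?_, ?_, ?_, ?_, ?_, ?_, ?_, ?_, ?_⟩ <;> linarith⟩
  rwa [cut_self] at h

theorem lin_leg {t : ℝ} (ht : 0 ≤ t) : cut {0} (fun _ => t : Fin 12 → ℝ) 0 ∈ Leg monL t := by
  have e0 : cut {0} (fun _ => t : Fin 12 → ℝ) 0 0 = 0 := cut_zero _ _
  have e : ∀ s : Fin 12, s ≠ 0 → cut {0} (fun _ => t : Fin 12 → ℝ) 0 s = t :=
    fun s hs => cut_ne _ _ hs
  refine ⟨legalL_iff.2 ⟨fun s => ?_, ?_⟩, fun s => ?_⟩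
  · by_cases hs : s = 0
    · subst hs; rw [e0]
    · rw [e s hs]; exact ht
  · rw [e0, e 1 (by decide), e 2 (by decide), e 3 (by decide), e 4 (by decide), e 5 (by decide),
      e 6 (by decide), e 7 (by decide), e 8 (by decide), e 9 (by decide), e 10 (by decide),
      e 11 (by decide)]
    refine ⟨?_, ?_, ?_, ?_, ?_, ?_, ?_, ?_, ?_, ?_, ?_, ?_, ?_, ?_, ?_, ?_⟩ <;> linarith
  · by_cases hs : s = 0
    · subst hs; rw [e0]; exact ht
    · rw [e s hs]

/-- only the height slot -/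
theorem single_leg {t y : ℝ} (hy : 0 ≤ y) (hyt : y ≤ t) :
    (Pi.single 0 y : Fin 12 → ℝ) ∈ Leg monL t := by
  have e0 : (Pi.single 0 y : Fin 12 → ℝ) 0 = y := by simp
  have e : ∀ s : Fin 12, s ≠ 0 → (Pi.single 0 y : Fin 12 → ℝ) s = 0 :=
    fun s hs => by simp [hs]
  refine ⟨legalL_iff.2 ⟨fun s => ?_, ?_⟩, fun s => ?_⟩
  · by_cases hs : s = 0
    · subst hs; rw [e0]; exact hy
    · rw [e s hs]
  · rw [e0, e 1 (by decide), e 2 (by decide), e 3 (by decide), e 4 (by decide), e 5 (by decide),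
      e 6 (by decide), e 7 (by decide), e 8 (by decide), e 9 (by decide), e 10 (by decide),
      e 11 (by decide)]
    refine ⟨?_, ?_, ?_, ?_, ?_, ?_, ?_, ?_, ?_, ?_, ?_, ?_, ?_, ?_, ?_, ?_⟩ <;> linarith
  · by_cases hs : s = 0
    · subst hs; rw [e0]; exact hyt
    · rw [e s hs]; linarith

theorem lev_leg {t : ℝ} (ht : 0 ≤ t) : cut {0} 0 (fun _ => t : Fin 12 → ℝ) ∈ Leg monL t := by
  have : cut {0} 0 (fun _ => t : Fin 12 → ℝ) = Pi.single 0 t :=
    cut_single (S := ∅)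
  rw [this]
  exact single_leg ht le_rfl

theorem stU_ok {K t : ℝ} (hK : 0 < K) (ht : 0 ≤ t) {D : Set (Fin 12 → ℝ)} (hD : Leg monL t ⊆ D) :
    (stU K t).Ok monL D where
  R0 := ht
  leg := hD
  top_leg := top_leg ht
  lin_leg := lin_leg ht
  lev_leg := lev_leg ht
  kzS := by simp [stU]
  kz0 := mon0
  kzw := mon0
  kap := fun s => pow_pos hK _


/-! ### windows -/

variable {ι : ℕ → Type*} [∀ n, DecidableEq (ι n)]

/-- **the window** with the static data `stU (cK0 monL C) t` at the base points `x (k' n)` -/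
structure WinU (W : Wnd 12 ι) (B : Base) (I J : ∀ n, Finset (ι n))
    (co : ∀ n, ι n → ι n → Fin 12 → ℝ) (C : ℝ) (D : Set (Fin 12 → ℝ)) (ν lam : (Fin 12 → ℝ) → ℝ)
    (x : ℕ → Fin 12 → ℝ) (h : ℕ → ℝ) (k' : ℕ → ℕ) (t : ℝ) : Prop where
  wl : WL W (cK0 monL C) t
  hB : W.B = B
  hI : W.I = I
  hJ : W.J = J
  hco : W.co = co
  hM : W.M = monL
  hC : W.C = C
  hX : W.X = fun n => x (k' n)
  hw : W.w = fun n => h (k' n)
  hD : W.D = D
  hlam : W.lam = lam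
  hS : W.S = {0}
  hkz : W.kz = 0
  htop : W.top = fun _ => t
  hkap : W.kap = fun s => cK0 monL C ^ wtL s
  hMw : W.Mw = monL
  hR' : W.R' = t
  hT : W.T = fun n => B.d n ^ (-(ν (x (k' n))))
  base : ∀ n, W.B'.d n = B.d n ^ h (k' n)
  baseL : ∀ n, W.B'.L n = h (k' n) * B.L n

/-- regular incidences of a dense set -/
theorem ev_reg_of {W : Wnd 12 ι} (ok : W.Ok) {E E' : ∀ n, Finset (ι n)} {Mu g : ℕ → ℝ}
    {ex : ℕ → ∀ n, ι n → ℕ} (hE : Wnd.EOk W E Mu) (hP : Wnd.Pruned W E E' g ex) :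
    ∀ᶠ n in (U : Filter ℕ), Reg W E' n := by
  refine ev_reg ok (hE.sub.mono fun n hn => (hP.sub n).trans hn) ?_
  filter_upwards [hE.big 1 one_pos] with n hn
  have h1 : 0 < ((E n).card : ℝ) :=
    lt_of_lt_of_le (mul_pos (hE.pos n) (Real.rpow_pos_of_pos (W.B'.pos n) _)) hn
  have h2 := hP.half n
  have h3 : 0 < ((E' n).card : ℝ) := by linarith
  exact Finset.card_pos.1 (by exact_mod_cast h3)

/-- **windows and models from a tangent at any moving base point.** -/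
theorem exists_winU {B : Base} {I J : ∀ n, Finset (ι n)} {co : ∀ n, ι n → ι n → Fin 12 → ℝ}
    {C R : ℝ} {ν : (Fin 12 → ℝ) → ℝ} (hN : NProf B I J co monL C R ν) (hcoc : ∀ n, Coc (co n))
    {x : ℕ → Fin 12 → ℝ} {h : ℕ → ℝ} (hpos : ∀ l, 0 < h l) {D : Set (Fin 12 → ℝ)}
    {lam : (Fin 12 → ℝ) → ℝ} (htan : IsTan (Leg monL R) D ν x h lam) {t : ℝ} (ht : 0 < t)
    (hD : Leg monL t ⊆ D) {σ : ℝ} (hσ0 : 0 ≤ σ) (hσ1 : σ ≤ 1)
    (dens : lam (fun _ => t) ≤ lam (cut {0} (fun _ => t) 0) + lam (Pi.single 0 t))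
    (frost : ∀ y, 0 ≤ y → y ≤ t → lam (Pi.single 0 y) ≤ -(σ * y))
    (s : ℕ → ℕ → ℝ) (hs : ∀ i, B.Sub (s i)) (i₀ : ∀ n, ι n) :
    ∃ k : ℕ → ℕ, Tendsto k U atTop ∧ ∀ k' : ℕ → ℕ, Tendsto k' U atTop →
      (∀ᶠ n in (U : Filter ℕ), k' n ≤ k n) → ∃ W : Wnd 12 ι,
        WinU W B I J co C D ν lam x h k' t ∧ (∀ i, W.B'.Sub (s i)) ∧
        ∀ (E : ∀ n, Finset (ι n)) (Mu : ℕ → ℝ), Wnd.EOk W E Mu →
          ∀ (ex : ℕ → ∀ n, ι n → ℕ) (g₀ : ℕ → ℝ), Tendsto g₀ U atTop →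
          ∃ (E' : ∀ n, Finset (ι n)) (g : ℕ → ℝ), Wnd.Pruned W E E' g ex ∧
            (∀ᶠ n in (U : Filter ℕ), g n ≤ g₀ n) ∧ (∀ᶠ n in (U : Filter ℕ), Reg W E' n) ∧
            RModel W.B' (W.cfg E') σ t W.legW W.nu W.Dc := by
  have hC0 := (hN.chart 0).C0
  have hK1 : 1 ≤ cK0 monL C := cK0_one hC0
  have hst := stU_ok (K := cK0 monL C) (by linarith) ht.le hD
  have h0 : (0 : Fin 12 → ℝ) ∈ D := by
    have h1 := single_leg (t := t) le_rfl ht.le
    rw [Pi.single_zero] at h1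
    exact hD h1
  have hden : (stU (cK0 monL C) t).Dens lam σ t :=
    { dens := by
        have e : cut {0} 0 (fun _ => t : Fin 12 → ℝ) = Pi.single 0 t := cut_single (S := ∅)
        show lam (fun _ => t) ≤ lam (cut {0} (fun _ => t) 0) + lam (cut {0} 0 (fun _ => t))
        rw [e]
        exact dens
      σ0 := hσ0
      σ1 := hσ1
      hR := le_rfl
      frost := frost }
  obtain ⟨k, hk, hk2⟩ := exists_rmodel hN hpos h0 htan hst hden s hs i₀
  refine ⟨k, hk, fun k' hk' hle => ?_⟩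
  obtain ⟨W, a1, a2, a3, a4, a5, a6, a7, a8, a9, a10, a11, a12, a13, a14, a15, a16, a17, a18, a19,
    a20, a21, a22⟩ := hk2 k' hk' hle
  have hK0 : W.K0 = cK0 monL C := by unfold Wnd.K0; rw [a6, a7]
  refine ⟨W, ?_, a21, ?_⟩
  · exact
      { wl :=
          { ok := a1
            hM := a6
            coc := by rw [a5]; exact hcoc
            hK := hK0.le
            kap := fun s => by rw [a15]; rfl
            hS := by
              rw [a12]
              show ({0} : Finset (Fin 12)) ⊆ SL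
              decide
            kz := a13
            topS := fun s _ => by rw [a14]; exact le_rfl
            topL := fun s _ => by rw [a14]; exact le_rfl }
        hB := a2, hI := a3, hJ := a4, hco := a5, hM := a6, hC := a7, hX := a8, hw := a9,
        hD := a10, hlam := a11, hS := a12, hkz := a13, htop := a14, hkap := a15, hMw := a16,
        hR' := a17, hT := a18, base := a19, baseL := a20 }
  · intro E Mu hE ex g₀ hg₀
    obtain ⟨E', g, b1, b2, b3⟩ := a22 E Mu hE ex g₀ hg₀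
    exact ⟨E', g, b1, b2, ev_reg_of a1 hE b1, b3⟩

namespace WinU

variable {W : Wnd 12 ι} {B : Base} {I J : ∀ n, Finset (ι n)}
    {co : ∀ n, ι n → ι n → Fin 12 → ℝ} {C : ℝ} {D : Set (Fin 12 → ℝ)}
    {ν lam : (Fin 12 → ℝ) → ℝ} {x : ℕ → Fin 12 → ℝ} {h : ℕ → ℝ} {k' : ℕ → ℕ} {t : ℝ}

/-- **legal exponents of the model** -/
theorem mem_legU (w : WinU W B I J co C D ν lam x h k' t) (ht : 0 ≤ t) {p : Fin 12 → ℝ} :
    p ∈ W.legW ↔ (∀ s, s ≠ 0 → 0 ≤ p s ∧ p s ≤ t) ∧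
      p 7 ≤ p 2 + p 3 ∧ p 7 ≤ p 1 + p 5 ∧ p 8 ≤ p 2 + p 4 ∧ p 8 ≤ p 1 + p 6 ∧
      p 9 ≤ p 3 + p 5 ∧ p 9 ≤ p 4 + p 6 ∧ p 10 ≤ p 3 + p 7 ∧ p 10 ≤ p 4 + p 8 ∧
      p 10 ≤ p 1 + p 9 ∧ p 11 ≤ p 5 + p 7 ∧ p 11 ≤ p 6 + p 8 ∧ p 11 ≤ p 2 + p 9 := by
  have e : p ∈ W.legW ↔ cut {0} p (fun _ => t) ∈ Leg monL t ∧ ∀ s, s ∉ ({0} : Finset (Fin 12)) →
      p s ≤ t := by
    show cut W.S p W.top ∈ Leg W.Mw W.R' ∧ (∀ s, s ∉ W.S → p s ≤ W.top s) ↔ _
    rw [w.hS, w.htop, w.hMw, w.hR']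
  rw [e, cut_leg ht]
  constructor
  · exact fun h => h.1
  · exact fun h => ⟨h, fun s hs => (h.1 s (by simpa using hs)).2⟩

theorem cut_mem (w : WinU W B I J co C D ν lam x h k' t) {p : Fin 12 → ℝ} (hp : p ∈ W.legW) :
    cut {0} p (fun _ => t) ∈ Leg monL t := by
  have h1 := hp.1
  rwa [w.hS, w.htop, w.hMw, w.hR'] at h1

theorem nu_eq (w : WinU W B I J co C D ν lam x h k' t) (p : Fin 12 → ℝ) :
    W.nu p = lam (cut {0} p (fun _ => t)) - lam (fun _ => t) := by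
  show W.lam (cut W.S p W.top) - W.lam W.top = _
  rw [w.hlam, w.hS, w.htop]

/-- **profile of the model for a linear tangent** -/
theorem nu_lin (w : WinU W B I J co C D ν lam x h k' t) (ht : 0 ≤ t) {r : Fin 12 → ℝ}
    (hlin : ∀ c ∈ Leg monL t, lam c = -∑ s, r s * c s) {p : Fin 12 → ℝ} (hp : p ∈ W.legW) :
    W.nu p = ∑ s ∈ univ.erase 0, r s * (t - p s) := by
  rw [w.nu_eq, hlin _ (w.cut_mem hp), hlin _ (top_leg ht)]
  rw [← Finset.add_sum_erase univ (fun s => r s * cut {0} p (fun _ => t) s) (mem_univ 0),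
    ← Finset.add_sum_erase univ (fun s => r s * (fun _ => t : Fin 12 → ℝ) s) (mem_univ 0)]
  simp only [cut_zero]
  have e : ∑ s ∈ univ.erase 0, r s * cut {0} p (fun _ => t) s = ∑ s ∈ univ.erase 0, r s * p s :=
    Finset.sum_congr rfl fun s hs => by rw [cut_ne p _ (Finset.ne_of_mem_erase hs)]
  rw [e]
  have e2 : ∑ s ∈ univ.erase 0, r s * (t - p s) =
      ∑ s ∈ univ.erase 0, r s * t - ∑ s ∈ univ.erase 0, r s * p s := by
    rw [← Finset.sum_sub_distrib]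
    exact Finset.sum_congr rfl fun s _ => by ring
  rw [e2]
  ring

/-- the scales tend to `0` -/
theorem w_tendsto (w : WinU W B I J co C D ν lam x h k' t) (hh : Tendsto h atTop (𝓝 0))
    (hk : Tendsto k' U atTop) : Tendsto W.w U (𝓝 0) := by
  rw [w.hw]
  exact hh.comp hk

/-- the base points of a window along a convergent sequence -/
theorem X_tendsto (w : WinU W B I J co C D ν lam x h k' t) {s : Fin 12} {X0 : ℝ}
    (hx : Tendsto (fun l => x l s) atTop (𝓝 X0)) (hk : Tendsto k' U atTop) :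
    Tendsto (fun n => W.X n s) U (𝓝 X0) := by
  rw [w.hX]
  exact hx.comp hk

end WinU

/-- **windows and models from a linear tangent at any moving base point.** -/
theorem exists_winL {B : Base} {I J : ∀ n, Finset (ι n)} {co : ∀ n, ι n → ι n → Fin 12 → ℝ}
    {C R : ℝ} {ν : (Fin 12 → ℝ) → ℝ} (hN : NProf B I J co monL C R ν) (hcoc : ∀ n, Coc (co n))
    {x : ℕ → Fin 12 → ℝ} {h : ℕ → ℝ} (hpos : ∀ l, 0 < h l) {D : Set (Fin 12 → ℝ)}
    {lam : (Fin 12 → ℝ) → ℝ} (htan : IsTan (Leg monL R) D ν x h lam) {t : ℝ} (ht : 0 < t)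
    (hD : Leg monL t ⊆ D) {r : Fin 12 → ℝ} (hlin : ∀ c ∈ Leg monL t, lam c = -∑ s, r s * c s)
    {σ : ℝ} (hσ0 : 0 ≤ σ) (hσ1 : σ ≤ 1) (hr0 : σ ≤ r 0)
    (s : ℕ → ℕ → ℝ) (hs : ∀ i, B.Sub (s i)) (i₀ : ∀ n, ι n) :
    ∃ k : ℕ → ℕ, Tendsto k U atTop ∧ ∀ k' : ℕ → ℕ, Tendsto k' U atTop →
      (∀ᶠ n in (U : Filter ℕ), k' n ≤ k n) → ∃ W : Wnd 12 ι,
        WinU W B I J co C D ν lam x h k' t ∧ (∀ i, W.B'.Sub (s i)) ∧
        ∀ (E : ∀ n, Finset (ι n)) (Mu : ℕ → ℝ), Wnd.EOk W E Mu →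
          ∀ (ex : ℕ → ∀ n, ι n → ℕ) (g₀ : ℕ → ℝ), Tendsto g₀ U atTop →
          ∃ (E' : ∀ n, Finset (ι n)) (g : ℕ → ℝ), Wnd.Pruned W E E' g ex ∧
            (∀ᶠ n in (U : Filter ℕ), g n ≤ g₀ n) ∧ (∀ᶠ n in (U : Filter ℕ), Reg W E' n) ∧
            RModel W.B' (W.cfg E') σ t W.legW W.nu W.Dc := by
  have l1 : ∀ y, 0 ≤ y → y ≤ t → lam (Pi.single 0 y) = -(r 0 * y) := by
    intro y h1 h2
    rw [hlin _ (single_leg h1 h2)]
    congr 1
    rw [Finset.sum_eq_single (0 : Fin 12)]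
    · simp
    · intro b _ hb
      simp [hb]
    · intro hb
      exact absurd (mem_univ _) hb
  refine exists_winU hN hcoc hpos htan ht hD hσ0 hσ1 ?_ ?_ s hs i₀
  · rw [l1 t ht.le le_rfl, hlin _ (top_leg ht.le), hlin _ (lin_leg ht.le)]
    rw [← Finset.add_sum_erase univ (fun s => r s * cut {0} (fun _ => t) 0 s) (mem_univ 0),
      ← Finset.add_sum_erase univ (fun s => r s * (fun _ => t : Fin 12 → ℝ) s) (mem_univ 0)]
    have e : ∑ s ∈ univ.erase 0, r s * cut {0} (fun _ => t) 0 s = ∑ s ∈ univ.erase 0, r s * t :=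
      Finset.sum_congr rfl fun s hs => by rw [cut_ne _ _ (Finset.ne_of_mem_erase hs)]
    have e0 : cut {0} (fun _ => t : Fin 12 → ℝ) 0 0 = 0 := cut_zero _ _
    rw [e, e0]
    linarith
  · intro y h1 h2
    rw [l1 y h1 h2]
    have := mul_le_mul_of_nonneg_right hr0 h1
    linarith

/-- **one window, one model** (all incidences of the class, pruned) from a linear tangent. -/
theorem exists_winL1 {B : Base} {I J : ∀ n, Finset (ι n)} {co : ∀ n, ι n → ι n → Fin 12 → ℝ}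
    {C R : ℝ} {ν : (Fin 12 → ℝ) → ℝ} (hN : NProf B I J co monL C R ν) (hcoc : ∀ n, Coc (co n))
    {x : ℕ → Fin 12 → ℝ} {h : ℕ → ℝ} (hpos : ∀ l, 0 < h l) (hh : Tendsto h atTop (𝓝 0))
    {D : Set (Fin 12 → ℝ)}
    {lam : (Fin 12 → ℝ) → ℝ} (htan : IsTan (Leg monL R) D ν x h lam) {t : ℝ} (ht : 0 < t)
    (hD : Leg monL t ⊆ D) {r : Fin 12 → ℝ} (hlin : ∀ c ∈ Leg monL t, lam c = -∑ s, r s * c s)
    {σ : ℝ} (hσ0 : 0 ≤ σ) (hσ1 : σ ≤ 1) (hr0 : σ ≤ r 0)
    (s : ℕ → ℕ → ℝ) (hs : ∀ i, B.Sub (s i)) (i₀ : ∀ n, ι n) :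
    ∃ (k : ℕ → ℕ) (W : Wnd 12 ι) (E : ∀ n, Finset (ι n)), Tendsto k U atTop ∧
      WinU W B I J co C D ν lam x h k t ∧ Tendsto W.w U (𝓝 0) ∧ (∀ i, W.B'.Sub (s i)) ∧
      (∀ᶠ n in (U : Filter ℕ), E n ⊆ J n) ∧ (∀ᶠ n in (U : Filter ℕ), Reg W E n) ∧
      RModel W.B' (W.cfg E) σ t W.legW W.nu W.Dc ∧
      ∀ p ∈ W.legW, W.nu p = ∑ s ∈ univ.erase 0, r s * (t - p s) := by
  obtain ⟨k, hk, h2⟩ := exists_winL hN hcoc hpos htan ht hD hlin hσ0 hσ1 hr0 s hs i₀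
  obtain ⟨W, w, b1, b2⟩ := h2 k hk (Eventually.of_forall fun n => le_rfl)
  obtain ⟨E, g, c1, c2, c3, c4⟩ := b2 W.Cl _ w.wl.ok.eok_class (fun _ _ _ => 0) (fun n => (n : ℝ))
    (tendsto_natCast_atTop_atTop.mono_left U_le_atTop)
  refine ⟨k, W, E, hk, w, w.w_tendsto hh hk, b1, ?_, c3, c4, fun p hp => w.nu_lin ht.le hlin hp⟩
  filter_upwards [w.wl.ok.cls.csub] with n hn
  rw [w.hJ] at hn
  exact (c1.sub n).trans hn

end Crest.Agent.R116.WinU954
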