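import Crest.Agent.R116.Nar3c_863
import Crest.Agent.R116.WinU_954
import Crest.Agent.R136.NSt1_107

/-!
# R116, [NARROW] (helper863), part 4: positions and velocities in the frame of the pin

`f0` = incidence of the pin, `lr` = an incidence of a line, `Vf s`, `Af sx sv` = velocity and
position functionals; `swap` : change of incidence; `posC` : slots `C, X`.
`noStr_of` : 107's `noStr` in the form `NoStr`.
-/

set_option autoImplicit false
set_option linter.unusedVariables false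
set_option linter.unusedSectionVars false

open Filter Topology Finset

namespace Crest.Agent.R116.Nar863

open Crest.Agent.R138.Ex926 (Base U)
open Crest.Agent.R136.Net191 Crest.Agent.R136.Qg926 Crest.Agent.R136.Gf356
open Crest.Agent.R136.NSt107
open Crest.Agent.R116.ChL222 Crest.Agent.R116.PL504 Crest.Agent.R116.EvL504
open Crest.Agent.R116.WinU954

variable {ι : ℕ → Type*} [∀ n, DecidableEq (ι n)]

/-- the pin -/
noncomputable def f0 (W : Wnd 12 ι) (i0 k0 : ℕ → ℕ) (n : ℕ) : ι n := W.rep n (i0 n) (k0 n)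

open Classical in
/-- a height of the line `l` -/
noncomputable def hl (W : Wnd 12 ι) (E : ∀ n, Finset (ι n)) (n l : ℕ) : ℕ :=
  if h : ∃ k, (l, k) ∈ (W.cfg E n).I then h.choose else 0

theorem hl_spec {W : Wnd 12 ι} {E : ∀ n, Finset (ι n)} {n l k : ℕ}
    (h : (l, k) ∈ (W.cfg E n).I) : (l, hl W E n l) ∈ (W.cfg E n).I := by
  have h1 : ∃ k, (l, k) ∈ (W.cfg E n).I := ⟨k, h⟩
  unfold hl
  rw [dif_pos h1]
  exact h1.choose_spec

/-- an incidence of the line `l` -/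
noncomputable def lr (W : Wnd 12 ι) (E : ∀ n, Finset (ι n)) (n l : ℕ) : ι n :=
  W.rep n l (hl W E n l)

/-- velocity functional -/
noncomputable def Vf (W : Wnd 12 ι) (E : ∀ n, Finset (ι n)) (i0 k0 : ℕ → ℕ) (s : Fin 12)
    (n l : ℕ) : ℝ := W.crd n (f0 W i0 k0 n) (lr W E n l) s

/-- position functional -/
noncomputable def Af (W : Wnd 12 ι) (E : ∀ n, Finset (ι n)) (i0 k0 : ℕ → ℕ) (sx sv : Fin 12)
    (n l : ℕ) : ℝ := Vf W E i0 k0 sx n l - (W.cfg E n).z (k0 n) * Vf W E i0 k0 sv n l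

section pin

variable {W : Wnd 12 ι} {K tp : ℝ} (h : WL W K tp) {n : ℕ} {E : ∀ n, Finset (ι n)}
  (r : Reg W E n) {i0 k0 : ℕ → ℕ} (hp : (i0 n, k0 n) ∈ (W.cfg E n).I)

include h r

theorem z_le {k i : ℕ} (hi : (i, k) ∈ (W.cfg E n).I) : |(W.cfg E n).z k| ≤ 1 := by
  rw [r.z_eq]
  exact h.crd_le r.good r.good.s0 (r.zspec ⟨i, hi⟩).1 _

include hp

/-- the height of an incidence seen from the pin -/
theorem pin_z {k i : ℕ} (hi : (i, k) ∈ (W.cfg E n).I) :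
    |W.crd n (f0 W i0 k0 n) (W.rep n i k) 0 - ((W.cfg E n).z k - (W.cfg E n).z (k0 n))| ≤
      2 * W.B'.d n ^ tp := by
  obtain ⟨a1, a2, a3⟩ := r.spec hi
  obtain ⟨b1, b2, b3⟩ := r.spec hp
  obtain ⟨c1, c3⟩ := r.zspec ⟨i, hi⟩
  obtain ⟨d1, d3⟩ := r.zspec ⟨i0 n, hp⟩
  have s0 := r.good.s0
  rw [r.z_eq, r.z_eq, h.kz]
  have e1 := h.crd_z_add (W.s₀ n) (W.zrep n k) (W.rep n i k)
  have e2 := h.crd_z_add (W.s₀ n) (W.zrep n (k0 n)) (W.rep n (i0 n) (k0 n))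
  have e3 := h.crd_z_add (W.s₀ n) (W.rep n (i0 n) (k0 n)) (W.rep n i k)
  have t1 := h.crd_z r.good c1 a1 (c3.trans a3.symm) h.z0
  have t2 := h.crd_z r.good d1 b1 (d3.trans b3.symm) h.z0
  have e : W.crd n (f0 W i0 k0 n) (W.rep n i k) 0 - (W.crd n (W.s₀ n) (W.zrep n k) 0 -
      W.crd n (W.s₀ n) (W.zrep n (k0 n)) 0) =
      W.crd n (W.zrep n k) (W.rep n i k) 0 -
        W.crd n (W.zrep n (k0 n)) (W.rep n (i0 n) (k0 n)) 0 := by
    show W.crd n (W.rep n (i0 n) (k0 n)) (W.rep n i k) 0 - _ = _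
    linarith
  rw [e]
  refine (abs_sub _ _).trans ?_
  linarith

theorem Vf_le {k l : ℕ} (s : Fin 12) (hl' : (l, k) ∈ (W.cfg E n).I) :
    |Vf W E i0 k0 s n l| ≤ 1 :=
  h.crd_le r.good (r.spec hp).1 (r.spec (hl_spec hl')).1 s

/-- change of incidence, one slot -/
theorem Vf_rep {k l : ℕ} {s : Fin 12} (hs : s ∉ SL) (hl' : (l, k) ∈ (W.cfg E n).I) :
    |Vf W E i0 k0 s n l - W.crd n (f0 W i0 k0 n) (W.rep n l k) s| ≤ 48 * W.B'.d n ^ tp := by
  obtain ⟨a1, a2, a3⟩ := r.spec hl'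
  obtain ⟨b1, b2, b3⟩ := r.spec (hl_spec hl')
  exact crd_same h r.good (r.spec hp).1 a1 b1 (a2.trans b2.symm) hs

/-- **change of incidence**, position functional at the height `k` -/
theorem swap {k i l : ℕ} {sx sv : Fin 12} (hx : sx ∉ SL) (hv : sv ∉ SL)
    (hi : (i, k) ∈ (W.cfg E n).I) (hl' : (l, k) ∈ (W.cfg E n).I) :
    |(Af W E i0 k0 sx sv n l + (W.cfg E n).z k * Vf W E i0 k0 sv n l) -
      (W.crd n (f0 W i0 k0 n) (W.rep n l k) sx +
        W.crd n (f0 W i0 k0 n) (W.rep n i k) 0 * W.crd n (f0 W i0 k0 n) (W.rep n l k) sv)| ≤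
      146 * W.B'.d n ^ tp := by
  have t1 := Vf_rep h r hp hx hl'
  have t2 := Vf_rep h r hp hv hl'
  have t3 := pin_z h r hp hi
  have t4 := z_le h r hi
  have t5 := z_le h r hp
  have t6 := h.crd_le r.good (r.spec hp).1 (r.spec hl').1 sv
  set ρ := W.B'.d n ^ tp with hρ
  have hρ0 : 0 ≤ ρ := h.r0 n
  set Z := W.crd n (f0 W i0 k0 n) (W.rep n i k) 0 with hZ
  set ζ := (W.cfg E n).z k - (W.cfg E n).z (k0 n) with hζ
  have hζ2 : |ζ| ≤ 2 := by
    refine (abs_sub _ _).trans ?_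
    linarith
  have e : (Af W E i0 k0 sx sv n l + (W.cfg E n).z k * Vf W E i0 k0 sv n l) -
      (W.crd n (f0 W i0 k0 n) (W.rep n l k) sx +
        Z * W.crd n (f0 W i0 k0 n) (W.rep n l k) sv) =
      (Vf W E i0 k0 sx n l - W.crd n (f0 W i0 k0 n) (W.rep n l k) sx) +
      ζ * (Vf W E i0 k0 sv n l - W.crd n (f0 W i0 k0 n) (W.rep n l k) sv) -
      (Z - ζ) * W.crd n (f0 W i0 k0 n) (W.rep n l k) sv := by
    unfold Af; rw [hζ]; ring
  rw [e]
  have u1 : |ζ * (Vf W E i0 k0 sv n l - W.crd n (f0 W i0 k0 n) (W.rep n l k) sv)| ≤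
      2 * (48 * ρ) := by
    rw [abs_mul]
    exact mul_le_mul hζ2 t2 (abs_nonneg _) (by norm_num)
  have u2 : |(Z - ζ) * W.crd n (f0 W i0 k0 n) (W.rep n l k) sv| ≤ (2 * ρ) * 1 := by
    rw [abs_mul]
    refine mul_le_mul t3 ?_ (abs_nonneg _) (by linarith)
    exact t6
  have v1 := abs_le.1 t1
  have v2 := abs_le.1 u1
  have v3 := abs_le.1 u2
  rw [abs_le]
  constructor <;> linarith [v1.1, v1.2, v2.1, v2.2, v3.1, v3.2]

/-- **slots `X` from `C`** (pairs `(5, 3)`, `(6, 4)`) -/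
theorem posC {sx sv : Fin 12} (hs : (sx = 5 ∧ sv = 3 ∧ side W n 0 * side W n 3 = side W n 5) ∨
      (sx = 6 ∧ sv = 4 ∧ side W n 0 * side W n 4 = side W n 6)) {k i l : ℕ}
    (hi : (i, k) ∈ (W.cfg E n).I) (hl' : (l, k) ∈ (W.cfg E n).I) :
    |((Af W E i0 k0 sx sv n l + (W.cfg E n).z k * Vf W E i0 k0 sv n l) -
      (Af W E i0 k0 sx sv n i + (W.cfg E n).z k * Vf W E i0 k0 sv n i)) -
      (W.cfg E n).rel k i l sx| ≤ 292 * W.B'.d n ^ tp ∧
    |(Vf W E i0 k0 sv n l - Vf W E i0 k0 sv n i) - (W.cfg E n).rel k i l sv| ≤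
      96 * W.B'.d n ^ tp := by
  have hsx : sx ∉ SL := by rcases hs with ⟨rfl, -, -⟩ | ⟨rfl, -, -⟩ <;> decide
  have hsv : sv ∉ SL := by rcases hs with ⟨-, rfl, -⟩ | ⟨-, rfl, -⟩ <;> decide
  have t1 := swap h r hp hsx hsv hi hl'
  have t2 := swap h r hp hsx hsv hi hi
  have t3 := Vf_rep h r hp hsv hl'
  have t4 := Vf_rep h r hp hsv hi
  rw [r.rel_of (h.notS hsx), r.rel_of (h.notS hsv)]
  set ρ := W.B'.d n ^ tp with hρ
  have key : W.crd n (f0 W i0 k0 n) (W.rep n l k) sx +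
        W.crd n (f0 W i0 k0 n) (W.rep n i k) 0 * W.crd n (f0 W i0 k0 n) (W.rep n l k) sv -
      (W.crd n (f0 W i0 k0 n) (W.rep n i k) sx +
        W.crd n (f0 W i0 k0 n) (W.rep n i k) 0 * W.crd n (f0 W i0 k0 n) (W.rep n i k) sv) =
      W.crd n (W.rep n i k) (W.rep n l k) sx := by
    rcases hs with ⟨rfl, rfl, hn⟩ | ⟨rfl, rfl, hn⟩
    · rw [crd5 h hn (f0 W i0 k0 n) (W.rep n i k) (W.rep n l k),
        crd3 h (f0 W i0 k0 n) (W.rep n i k) (W.rep n l k)]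
      ring
    · rw [crd6 h hn (f0 W i0 k0 n) (W.rep n i k) (W.rep n l k),
        crd4 h (f0 W i0 k0 n) (W.rep n i k) (W.rep n l k)]
      ring
  have key2 : W.crd n (f0 W i0 k0 n) (W.rep n l k) sv -
      W.crd n (f0 W i0 k0 n) (W.rep n i k) sv = W.crd n (W.rep n i k) (W.rep n l k) sv := by
    rcases hs with ⟨-, rfl, hn⟩ | ⟨-, rfl, hn⟩
    · rw [crd3 h (f0 W i0 k0 n) (W.rep n i k) (W.rep n l k)]; ring
    · rw [crd4 h (f0 W i0 k0 n) (W.rep n i k) (W.rep n l k)]; ring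
  have v1 := abs_le.1 t1
  have v2 := abs_le.1 t2
  have v3 := abs_le.1 t3
  have v4 := abs_le.1 t4
  constructor
  · rw [abs_le]
    constructor <;> linarith [v1.1, v1.2, v2.1, v2.2]
  · rw [abs_le]
    constructor <;> linarith [v3.1, v3.2, v4.1, v4.2]

end pin

/-! ### strips -/

/-- the slots `C, X, N, P, F` are constant along the fat lines -/
theorem lineC_of {W : Wnd 12 ι} {K tp : ℝ} (h : WL W K tp) {s : Fin 12} (hs : s ∉ SL) :
    LineC W s tp := by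
  intro ε hε
  filter_upwards [h.ok.ev_good, ev_const_le W.B' hε 48] with n g h48 x hx y hy z hz hl
  refine (crd_same h g hx hy hz hl hs).trans (absorb W.B' ?_)
  refine h48.trans (rpow_anti W.B' n ?_)
  linarith

open Classical in
/-- 107's `noStr` as `NoStr` -/
theorem noStr_of {W : Wnd 12 ι} {K tp : ℝ} (h : WL W K tp) {E' : ∀ n, Finset (ι n)} {g : ℕ → ℝ}
    {ex : ℕ → ∀ n, ι n → ℕ} (hP : Wnd.Pruned W (rich W) E' g ex)
    (hdens : W.lam W.top ≤ W.lam (cut W.S W.top 0) + W.lam (cut W.S 0 W.top))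
    {cA cB : Fin 12} (hcA : cA ∉ SL) (hcB : cB ∉ SL) {q : ℝ} (hq : 0 ≤ q)
    (hns : NsW W cA cB q tp) {p0 : Fin 12 → ℝ} (hp0 : W.nu 0 ≤ W.nu p0) :
    NoStr W.B' (W.cfg E') p0 cA cB W.nu q tp := by
  obtain ⟨K, hK⟩ := noStr h.ok hP hdens (h.notS hcA) (h.notS hcB) hq le_rfl hns
    (lineC_of h hcA) (lineC_of h hcB) hp0
  refine ⟨max K 0, le_max_right _ _, fun t ht htR ε hε => ?_⟩
  filter_upwards [hK t ht htR ε hε] with n hn i k hik b hb
  refine (hn i k hik b hb).trans (rpow_anti W.B' n ?_)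
  have := mul_le_mul_of_nonneg_right (le_max_left K 0) hε.le
  linarith

end Crest.Agent.R116.Nar863
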