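import Crest.Agent.R116.Sc5n_803
import Crest.Agent.R116.Sc4b_708
import Crest.Agent.R116.Kr14_710
import Crest.Agent.R116.Nar9_192
import Crest.Agent.R116.Nar3d_863

/-!
# R116, SIG2 (sigma = 2), plug, part 3: the window (helper803)

* `Sig2M` : the statement of `sig2_model` (905, 299, 858, 748), the only binder.
* `sig2_core` : one orientation.
* **`sig2_win`** : a tangent at a natural moving base point, slot `D` frozen:
  `σ t ≤ 2 (lam (t; C, B) ...)`.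
-/

set_option autoImplicit false
set_option linter.unusedVariables false
set_option linter.unusedSectionVars false

open Filter Topology Finset

namespace Crest.Agent.R116.Sc5803

open Crest.Agent.R138.Ex926
open Crest.Agent.R136.Net191 Crest.Agent.R136.Qg926 Crest.Agent.R136.Gf356
open Crest.Agent.R136.NSt107 (rich eok_rich LineC)
open Crest.Agent.R116.ChL222 Crest.Agent.R116.PL504 Crest.Agent.R116.EvL504
open Crest.Agent.R116.WinU954 Crest.Agent.R116.WinG954 Crest.Agent.R116.ThinD954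
open Crest.Agent.R116.Sg337 (bx9)
open Crest.Agent.R116.Kr710 (Thin ThinU)
open Crest.Agent.R116.Sc299 (GC swf swG pJ JC JA JH JF gv gE gE_line gc_of gc_of_sw gAX gAH gC gB
  gAXs gCs gBs)
open Crest.Agent.R116.Sc708 (NoStrC NsWc noStrC_win)
open Crest.Agent.R116.Kz710 (FlagDz winG_thin)

/-! ### the binder -/

/-- **`sig2_model`** (905's literal 20470) -/
def Sig2M : Prop :=
  ∀ (B : Base) (G : ℕ → RCfg (Fin 12)) (σ R : ℝ) (Leg : Set (Fin 12 → ℝ))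
    (ν : (Fin 12 → ℝ) → ℝ) (D : ℝ) (al : ℕ → ℝ) (AX AH AF C P Bf : ℕ → ℕ → ℝ)
    (Ef : ℕ → ℕ → ℕ → ℝ) (S : Finset (Fin 12)) (x q R1 : ℝ),
    RModel B G σ R Leg ν D → GC B G al AX AH AF C P Bf Ef x → Thin B G S al x →
    (∀ ε : ℝ, 0 < ε → ∀ᶠ n in (U : Filter ℕ), ∀ k i l, (i, k) ∈ (G n).I →
      (l, k) ∈ (G n).I → (G n).loose 0 ε k i l) →
    0 < x → x ≤ R → (0 : Fin 12 → ℝ) ∈ Leg → pJ JC x ∈ Leg → pJ JA x ∈ Leg → pJ JH x ∈ Leg →
    pJ JF x ∈ Leg → ν 0 - ν (pJ JC x) ≤ ν (pJ JA x) - ν (pJ JF x) →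
    0 < q → 0 < R1 → R1 ≤ x → NoStrC B G 0 3 10 ν q R1 →
    (∃ K : ℝ, 0 ≤ K ∧ ∀ r : ℝ, 0 < r → r ≤ R1 → ∀ ε : ℝ, 0 < ε → ∀ᶠ n in (U : Filter ℕ),
      ∀ i k, (i, k) ∈ (G n).I → ∀ e b u : ℝ, |e| ≤ B.d n ^ (-ε) → |b| ≤ B.d n ^ (-ε) →
      ((((G n).box (pJ JA x) ε i k).filter fun l =>
        |P n l + e * C n l ^ 2 / 2 + b * C n l - u| ≤ B.d n ^ r).card : ℝ) ≤
        B.d n ^ (-(ν (pJ JA x)) + q * r - K * ε)) →
    σ * x ≤ 2 * (ν (pJ JC x) - ν (pJ JH x)) - (ν 0 - ν (pJ JA x))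

/-! ### boxes -/

theorem pJC_eq (x : ℝ) : pJ JC x = bx9 0 0 0 x 0 x 0 0 0 := by
  funext j; fin_cases j <;> rfl

theorem pJA_eq (x : ℝ) : pJ JA x = bx9 0 0 0 0 x 0 x 0 x := by
  funext j; fin_cases j <;> rfl

theorem pJH_eq (x : ℝ) : pJ JH x = bx9 0 0 0 x 0 x x 0 x := by
  funext j; fin_cases j <;> rfl

theorem pJF_eq (x : ℝ) : pJ JF x = bx9 0 0 0 x x x x 0 x := by
  funext j; fin_cases j <;> rfl

theorem zero_eq : (0 : Fin 12 → ℝ) = bx9 0 0 0 0 0 0 0 0 0 := by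
  funext j; fin_cases j <;> rfl

/-- the class of `C`, `P` -/
def pCP (y : ℝ) : Fin 12 → ℝ := bx9 0 0 0 y 0 0 0 y 0

/-- cells and the class of `C`, `P` -/
def pACP (x y : ℝ) : Fin 12 → ℝ := bx9 0 0 0 y x 0 x y x

theorem swe_bx (z D E C X B H P F : ℝ) : swe (bx9 z D E C X B H P F) = bx9 z D E C X B H P F := by
  funext j; fin_cases j <;> rfl

/-! ### one orientation -/

/-- **one orientation** -/
theorem sig2_core (hM : Sig2M) {B : Base} {G : ℕ → RCfg (Fin 12)} {σ R : ℝ}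
    {Leg : Set (Fin 12 → ℝ)} {ν : (Fin 12 → ℝ) → ℝ} {D : ℝ} {al : ℕ → ℝ}
    {AX AH AF C P Bf : ℕ → ℕ → ℝ} {Ef : ℕ → ℕ → ℕ → ℝ} {S : Finset (Fin 12)} {x q R0 : ℝ}
    (H : RModel B G σ R Leg ν D) (g : GC B G al AX AH AF C P Bf Ef x) (T : Thin B G S al x)
    (hall : ∀ ε : ℝ, 0 < ε → ∀ᶠ n in (U : Filter ℕ), ∀ k i l, (i, k) ∈ (G n).I →
      (l, k) ∈ (G n).I → (G n).loose 0 ε k i l)
    {El : ℕ → ℕ → ℝ} (hE : ∀ ε : ℝ, 0 < ε → ∀ᶠ n in (U : Filter ℕ), ∀ k l,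
      (l, k) ∈ (G n).I → |Ef n k l - El n l| ≤ B.d n ^ (x - ε))
    (hx : 0 < x) (hxR : x ≤ R) (l0 : (0 : Fin 12 → ℝ) ∈ Leg) (lC : pJ JC x ∈ Leg)
    (lA : pJ JA x ∈ Leg) (lH : pJ JH x ∈ Leg) (lF : pJ JF x ∈ Leg)
    (lCP : ∀ y, 0 < y → y ≤ x → pCP y ∈ Leg) (lACP : ∀ y, 0 < y → y ≤ x → pACP x y ∈ Leg)
    (hplat : ν 0 - ν (pJ JC x) ≤ ν (pJ JA x) - ν (pJ JF x))
    (hprod : ∀ y, 0 < y → y ≤ x → ν 0 - ν (pCP y) ≤ ν (pJ JA x) - ν (pACP x y))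
    (hq : 0 < q) (hR0 : 0 < R0) (hN : NoStrC B G 0 3 10 ν q R0) :
    σ * x ≤ 2 * (ν (pJ JC x) - ν (pJ JH x)) - (ν 0 - ν (pJ JA x)) := by
  set R1 := min R0 x with hR1
  have hR10 : 0 < R1 := lt_min hR0 hx
  have hR1x : R1 ≤ x := min_le_right _ _
  have hR1R : R1 ≤ R0 := min_le_left _ _
  have hA : NoStrC B G (pJ JA x) 3 10 ν q R1 := by
    refine noStrC_A H.toRUnif g (pC := pCP) (pAC := pACP x) l0 lA
      (fun y h1 h2 => lCP y h1 (h2.trans hR1x)) (fun y h1 h2 => lACP y h1 (h2.trans hR1x))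
      (fun y h1 _ s => ?_) (fun s => ?_) (fun y _ _ => le_rfl) (fun y _ _ => le_rfl)
      (fun y h1 _ s => ?_) hN hR1R hR1x (fun y h1 h2 => hprod y h1 (h2.trans hR1x))
    · unfold pCP bx9
      fin_cases s <;> simp [h1.le]
    · rw [pJA_eq]
      unfold bx9
      fin_cases s <;> simp [hx.le]
    · rw [pJA_eq]
      unfold pCP pACP bx9
      fin_cases s <;> simp [h1.le, hx.le]
  have hstr := strips_A H.toRUnif g hE hx.le lA (by rw [pJA_eq]; exact le_rfl) hR1x hA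
  refine hM B G σ R Leg ν D al AX AH AF C P Bf Ef S x q R1 H g T hall hx hxR l0 lC lA lH lF
    hplat hq hR10 hR1x ?_ hstr
  obtain ⟨K, hK, h⟩ := hN
  exact ⟨K, hK, fun t ht htR => h t ht (htR.trans hR1R)⟩

/-! ### windows -/

section win

/-- all pairs of a window model are loose of exponent `0` -/
theorem hall_of {W : Wnd 12 (fun _ : ℕ => ℕ × ℝ)} {K tp : ℝ} (h : WL W K tp)
    {E : ℕ → Finset (ℕ × ℝ)} (hr : ∀ᶠ n in (U : Filter ℕ), Reg W E n)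
    (hb : ∀ n, (W.cfg E n).ρ = W.B'.d n) {ε : ℝ} (hε : 0 < ε) :
    ∀ᶠ n in (U : Filter ℕ), ∀ k i l, (i, k) ∈ (W.cfg E n).I → (l, k) ∈ (W.cfg E n).I →
      (W.cfg E n).loose 0 ε k i l := by
  filter_upwards [hr] with n r k i l hi hl j
  refine (r.rel_le h hi hl j).trans ?_
  rw [hb]
  refine Real.one_le_rpow_of_pos_of_le_one_of_nonpos (W.B'.pos n) (W.B'.lt n).le ?_
  show (0 : ℝ) - ε ≤ 0
  linarith

variable {B : Base} {I J : ℕ → Finset (ℕ × ℝ)}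
  {co : ∀ n : ℕ, ℕ × ℝ → ℕ × ℝ → Fin 12 → ℝ} {C : ℝ} {D : Set (Fin 12 → ℝ)}
  {ν lam : (Fin 12 → ℝ) → ℝ} {X : ℕ → Fin 12 → ℝ} {h : ℕ → ℝ}

/-- the natural base points, slot `D` frozen -/
def FroX (X : ℕ → Fin 12 → ℝ) (h : ℕ → ℝ) (t : ℝ) : Prop :=
  ∀ᶠ l in atTop, ∃ z c p q : ℝ, X l = Function.update (eL z c p) 1 q ∧
    p - 2 * c - z + t * h l ≤ q

theorem frX_of {W : Wnd 12 (fun _ : ℕ => ℕ × ℝ)} {k' : ℕ → ℕ} {t : ℝ} {Mw : Mons 12}
    {top : Fin 12 → ℝ} (w : WinG W B I J co C D ν lam X h k' t Mw top)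
    (hk : Tendsto k' U atTop) (hpos : ∀ l, 0 < h l) (ht : 0 ≤ t) (fro : FroX X h t) :
    ∀ᶠ n in (U : Filter ℕ), FrX W (cK0 monL C) 0 t n := by
  filter_upwards [w.ev_of (P := fun c s => ∃ z c' p q : ℝ, c = Function.update (eL z c' p) 1 q ∧
    p - 2 * c' - z + t * s ≤ q) fro hk] with n hn
  obtain ⟨z, c, p, q, e, hq⟩ := hn
  have hw : W.w n = h (k' n) := by rw [w.hw]
  have hp := hpos (k' n)
  rw [hw] at hq
  have hth : 0 ≤ t * h (k' n) := mul_nonneg ht hp.le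
  refine FrX.of_fro w.wl e (by linarith) ?_
  rw [w.base n, w.hB, ← Real.rpow_mul (B.pos n).le]
  exact Real.rpow_le_rpow_of_exponent_ge (B.pos n) (B.lt n).le (by linarith)

theorem fro_eq {t : ℝ} (fro : FroX X h t) : (∀ᶠ l in atTop, X l 3 = X l 4) ∧
    (∀ᶠ l in atTop, X l 5 = X l 6) ∧ ∀ᶠ l in atTop, X l 7 = X l 8 := by
  refine ⟨?_, ?_, ?_⟩
  all_goals
    filter_upwards [fro] with l hl
    obtain ⟨z, c, p, q, e, -⟩ := hl
    rw [e, Function.update_of_ne (by decide), Function.update_of_ne (by decide)]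
    rfl

/-- **a window over the rich pairs without heavy curved strips**, slot `D` frozen -/
theorem exists_winD_ns {R : ℝ} (hN : NProf B I J co monL C R ν) (hcoc : ∀ n, Coc (co n))
    (hpos : ∀ l, 0 < h l) (htan : IsTan (Leg monL R) D ν X h lam) (hD : LMd ⊆ D)
    {t : ℝ} (ht : 0 < t) {σ : ℝ} (hσ0 : 0 ≤ σ) (hσ1 : σ ≤ 1)
    (dens : lam (bx9 t 0 t t t t t t t) ≤
      lam (bx9 0 0 t t t t t t t) + lam (bx9 t 0 0 0 0 0 0 0 0))
    (frost : ∀ y, 0 ≤ y → y ≤ t → lam (bx9 y 0 0 0 0 0 0 0 0) ≤ -(σ * y))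
    {cA cB : Fin 12} (hcA : cA ∉ SL) (hcB : cB ∉ SL) {q R0 : ℝ} (hq : 0 < q) (hR0 : 0 < R0)
    (hns : Nar192.NsTc B I J co C ν X h cA cB q R0) :
    ∃ (k' : ℕ → ℕ) (W : Wnd 12 (fun _ : ℕ => ℕ × ℝ)) (E : ℕ → Finset (ℕ × ℝ)),
      Tendsto k' U atTop ∧ WinG W B I J co C D ν lam X h k' t monD (topD t) ∧
      (∀ᶠ n in (U : Filter ℕ), Reg W E n) ∧ (∀ᶠ n in (U : Filter ℕ), W.Cl n ⊆ J n) ∧
      RModel W.B' (W.cfg E) σ t W.legW W.nu W.Dc ∧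
      NoStrC W.B' (W.cfg E) 0 cA cB W.nu q (min R0 t) := by
  have hst := stG_fro ht.le
  have hdens : lam (topD t) ≤ lam (cut {0} (topD t) 0) + lam (Pi.single 0 t) := by
    rw [topD_cut0, topD_eq, single_eq]
    exact dens
  obtain ⟨k1, hk1, h1⟩ := exists_winG hN hcoc hpos htan ht hst ((leg_LMd t).trans hD) hσ0 hσ1
    hdens (fun y hy hyt => by rw [single_eq]; exact frost y hy hyt)
    (fun _ _ => 1) (fun _ => Base.Sub.const one_pos) (fun _ => (0, 0))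
  obtain ⟨k2, hk2, h2⟩ := hns
  have hk : Tendsto (fun n => min (k1 n) (k2 n)) U atTop := by
    rw [tendsto_atTop] at hk1 hk2 ⊢
    intro b
    filter_upwards [hk1 b, hk2 b] with n a b
    exact le_min a b
  obtain ⟨W, w, -, a3⟩ := h1 _ hk (Eventually.of_forall fun n => min_le_left _ _)
  obtain ⟨E', g, b1, -, b3, b4⟩ := a3 (rich W) (fun _ => 1) (eok_rich w.wl.ok) (fun _ _ _ => 0)
    (fun n => (n : ℝ)) (tendsto_natCast_atTop_atTop.mono_left U_le_atTop)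
  obtain ⟨c1, -⟩ := h2 _ hk (Eventually.of_forall fun n => min_le_right _ _) W D lam t monD
    (topD t) w
  have c2 : NsWc W cA cB q (min R0 t) := by
    obtain ⟨K, hK, hh⟩ := c1
    exact ⟨K, hK, fun s hs hsR => hh s hs (hsR.trans (min_le_left _ _))⟩
  refine ⟨_, W, E', hk, w, b3, ?_, b4, ?_⟩
  · filter_upwards [w.wl.ok.cls.csub] with n hn
    rwa [w.hJ] at hn
  · refine noStrC_win w.wl.ok b1 ?_ (w.wl.notS hcA) (w.wl.notS hcB) hq.le (min_le_right R0 t) c2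
      (Nar863.lineC_of w.wl hcA) (Nar863.lineC_of w.wl hcB) le_rfl
    rw [w.hlam, w.htop, w.hS, hst.cut0_top]
    exact hdens

end win

/-- **`SIG2`, the windows**: a tangent at a natural moving base point, slot `D` frozen. -/
theorem sig2_win (hM : Sig2M) {B : Base} {I J : ℕ → Finset (ℕ × ℝ)} {lev : ℕ → ℚ → ℕ}
    {inc : ℕ → ℕ × ℝ → Crest.Agent.R116.ChL222.LInc} {σs : Fin 2 → ℕ → ℝ} {w0 sa sb C R : ℝ}
    {ν : (Fin 12 → ℝ) → ℝ}
    (hN : NProf B I J (Gd222.coN B lev inc σs w0 sa sb) monL C R ν)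
    (hcoc : ∀ n, Coc (Gd222.coN B lev inc σs w0 sa sb n))
    {X : ℕ → Fin 12 → ℝ} {h : ℕ → ℝ} (hpos : ∀ l, 0 < h l) (hh : Tendsto h atTop (𝓝 0))
    {D : Set (Fin 12 → ℝ)} {lam : (Fin 12 → ℝ) → ℝ} (htan : IsTan (Leg monL R) D ν X h lam)
    (hD : LMd ⊆ D) {t : ℝ} (ht : 0 < t) {σ : ℝ} (hσ0 : 0 ≤ σ) (hσ1 : σ ≤ 1)
    (dens : lam (bx9 t 0 t t t t t t t) ≤
      lam (bx9 0 0 t t t t t t t) + lam (bx9 t 0 0 0 0 0 0 0 0))
    (frost : ∀ y, 0 ≤ y → y ≤ t → lam (bx9 y 0 0 0 0 0 0 0 0) ≤ -(σ * y))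
    (plat : lam (bx9 t 0 0 0 0 0 0 0 0) - lam (bx9 t 0 0 t 0 t 0 0 0) ≤
      lam (bx9 t 0 0 0 t 0 t 0 t) - lam (bx9 t 0 0 t t t t 0 t))
    (prod : ∀ y, 0 < y → y ≤ t →
      lam (bx9 t 0 0 0 0 0 0 0 0) - lam (bx9 t 0 0 y 0 0 0 y 0) ≤
        lam (bx9 t 0 0 0 t 0 t 0 t) - lam (bx9 t 0 0 y t 0 t y t))
    (fro : ∀ᶠ l in atTop, ∃ z c p q : ℝ, X l = Function.update (eL z c p) 1 q ∧
      p - 2 * c - z + t * h l ≤ q)
    {k0 ϑ ζ v tt yy δ : ℝ} (hF : Kz710.FlagDz B J lev inc σs k0 ϑ ζ)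
    (hm : Xd954.Mrg k0 ϑ v tt yy δ) (hty : 3 * δ ≤ ζ + tt - yy)
    (hX : ∀ s, 3 ≤ s → Tendsto (fun l => X l s) atTop (𝓝 (PL504.nb w0 sa sb v tt yy s)))
    {a b : Fin 2} (hab : a ≠ b)
    (hbd : ∀ᶠ n in (U : Filter ℕ), ∀ x ∈ J n, |Xd954.bb (inc n x) a| ≤ 2)
    (hbig : ∀ᶠ n in (U : Filter ℕ), ∀ x ∈ J n, 1 / 2 ≤ |Xd954.bb (inc n x) b|)
    {q R0 : ℝ} (hq : 0 < q) (hR0 : 0 < R0)
    (hns : Nar192.NsTc B I J (Gd222.coN B lev inc σs w0 sa sb) C ν X h (Xd954.cs a) 10 q R0) :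
    σ * t ≤ 2 * (lam (bx9 t 0 0 t 0 t 0 0 0) - lam (bx9 t 0 0 t 0 t t 0 t)) -
      (lam (bx9 t 0 0 0 0 0 0 0 0) - lam (bx9 t 0 0 0 t 0 t 0 t)) := by
  have hcA : Xd954.cs a ∉ SL := by fin_cases a <;> decide
  obtain ⟨k', W, E, hk, w, hr, hJ, H, hNs⟩ := exists_winD_ns hN hcoc hpos htan hD ht hσ0 hσ1
    dens frost hcA (by decide : (10 : Fin 12) ∉ SL) hq hR0 hns
  obtain ⟨e3, e5, e7⟩ := fro_eq fro
  have hFr := frX_of w hk hpos ht.le fro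
  have hT : ThinU W.B' (W.cfg E) (dir W inc) t :=
    winG_thin w rfl hh hk hr hJ hF hm hty hX e3 e5 e7 t
  have hR : 0 < min R0 t := lt_min hR0 ht
  have hbase : ∀ n, (W.cfg E n).ρ = W.B'.d n := H.base
  have hall := fun (ε : ℝ) (hε : 0 < ε) => hall_of w.wl hr hbase hε
  have s2 : (2 : Fin 12) ∉ W.S := by rw [w.hS]; decide
  have s7 : (7 : Fin 12) ∉ W.S := by rw [w.hS]; decide
  have s8 : (8 : Fin 12) ∉ W.S := by rw [w.hS]; decide
  have t2 : t ≤ W.top 2 := by rw [w.htop, topD_ne t (by decide)]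
  have t7 : t ≤ W.top 7 := by rw [w.htop, topD_ne t (by decide)]
  have t8 : t ≤ W.top 8 := by rw [w.htop, topD_ne t (by decide)]
  have hEl := fun (ε : ℝ) (hε : 0 < ε) =>
    gE_line w.wl s2 s7 s8 t2 t7 t8 hr hFr (le_refl t) hε
  have hdir : ∀ᶠ n in (U : Filter ℕ), 1 / 9 ≤ |dir W inc n b| := by
    filter_upwards [w.wl.ok.ev_good, hJ, hbd, hbig] with n g g1 g2 g3
    exact tau_big hab (g2 _ (g1 g.s0)) (g3 _ (g1 g.s0))
  have m0 : bx9 0 0 0 0 0 0 0 0 0 ∈ W.legW := (w.memD ht.le).2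
    ⟨rfl, ⟨le_rfl, le_rfl, le_rfl, le_rfl, le_rfl, le_rfl, le_rfl⟩,
      ⟨by linarith, by linarith, by linarith, by linarith, by linarith⟩,
      ⟨ht.le, ht.le, ht.le, ht.le, ht.le, ht.le, ht.le⟩⟩
  have mC : bx9 0 0 0 t 0 t 0 0 0 ∈ W.legW := (w.memD ht.le).2
    ⟨rfl, ⟨le_rfl, ht.le, le_rfl, ht.le, le_rfl, le_rfl, le_rfl⟩,
      ⟨by linarith, by linarith, by linarith, by linarith, by linarith⟩,
      ⟨ht.le, le_rfl, ht.le, le_rfl, ht.le, ht.le, ht.le⟩⟩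
  have mA : bx9 0 0 0 0 t 0 t 0 t ∈ W.legW := (w.memD ht.le).2
    ⟨rfl, ⟨le_rfl, le_rfl, ht.le, le_rfl, ht.le, le_rfl, ht.le⟩,
      ⟨by linarith, by linarith, by linarith, by linarith, by linarith⟩,
      ⟨ht.le, ht.le, le_rfl, ht.le, le_rfl, ht.le, le_rfl⟩⟩
  have mH : bx9 0 0 0 t 0 t t 0 t ∈ W.legW := (w.memD ht.le).2
    ⟨rfl, ⟨le_rfl, ht.le, le_rfl, ht.le, ht.le, le_rfl, ht.le⟩,
      ⟨by linarith, by linarith, by linarith, by linarith, by linarith⟩,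
      ⟨ht.le, le_rfl, ht.le, le_rfl, le_rfl, ht.le, le_rfl⟩⟩
  have mF : bx9 0 0 0 t t t t 0 t ∈ W.legW := (w.memD ht.le).2
    ⟨rfl, ⟨le_rfl, ht.le, ht.le, ht.le, ht.le, le_rfl, ht.le⟩,
      ⟨by linarith, by linarith, by linarith, by linarith, by linarith⟩,
      ⟨ht.le, le_rfl, le_rfl, le_rfl, le_rfl, ht.le, le_rfl⟩⟩
  have mCP : ∀ y, 0 < y → y ≤ t → bx9 0 0 0 y 0 0 0 y 0 ∈ W.legW := fun y hy hyt =>
    (w.memD ht.le).2
    ⟨rfl, ⟨le_rfl, hy.le, le_rfl, le_rfl, le_rfl, hy.le, le_rfl⟩,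
      ⟨by linarith, by linarith, by linarith, by linarith, by linarith⟩,
      ⟨ht.le, hyt, ht.le, ht.le, ht.le, hyt, ht.le⟩⟩
  have mACP : ∀ y, 0 < y → y ≤ t → bx9 0 0 0 y t 0 t y t ∈ W.legW := fun y hy hyt =>
    (w.memD ht.le).2
    ⟨rfl, ⟨le_rfl, hy.le, ht.le, le_rfl, ht.le, hy.le, ht.le⟩,
      ⟨by linarith, by linarith, by linarith, by linarith, by linarith⟩,
      ⟨ht.le, hyt, le_rfl, ht.le, le_rfl, hyt, le_rfl⟩⟩
  have nu : ∀ z E C X B N P F : ℝ, W.nu (bx9 z 0 E C X B N P F) =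
      lam (bx9 t 0 E C X B N P F) - lam (topD t) := fun z E C X B N P F => by
    rw [w.nu_eq, cut_topD]
  have key : σ * t ≤ 2 * (W.nu (bx9 0 0 0 t 0 t 0 0 0) - W.nu (bx9 0 0 0 t 0 t t 0 t)) -
      (W.nu (bx9 0 0 0 0 0 0 0 0 0) - W.nu (bx9 0 0 0 0 t 0 t 0 t)) := by
    have hplat : W.nu (bx9 0 0 0 0 0 0 0 0 0) - W.nu (bx9 0 0 0 t 0 t 0 0 0) ≤
        W.nu (bx9 0 0 0 0 t 0 t 0 t) - W.nu (bx9 0 0 0 t t t t 0 t) := by
      rw [nu, nu, nu, nu]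
      linarith
    have hprod : ∀ y, 0 < y → y ≤ t →
        W.nu (bx9 0 0 0 0 0 0 0 0 0) - W.nu (bx9 0 0 0 y 0 0 0 y 0) ≤
        W.nu (bx9 0 0 0 0 t 0 t 0 t) - W.nu (bx9 0 0 0 y t 0 t y t) := by
      intro y hy hyt
      rw [nu, nu, nu, nu]
      linarith [prod y hy hyt]
    fin_cases a
    · -- live slots `3, 5, 7`
      have hb1 : b = 1 := by
        fin_cases b
        · exact absurd rfl hab
        · rfl
      subst hb1
      have T : Thin W.B' (W.cfg E) ∅ (fun n => -(dir W inc n 0) / dir W inc n 1) t :=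
        thin3 (by norm_num) hT hdir
      have g := gc_of w.wl s2 s7 s8 t7 t8 hr hFr (le_refl t) T.bd T.tc T.tx
      have := sig2_core hM H g T hall (El := gv W 2) hEl ht le_rfl (by rw [zero_eq]; exact m0)
        (by rw [pJC_eq]; exact mC) (by rw [pJA_eq]; exact mA) (by rw [pJH_eq]; exact mH)
        (by rw [pJF_eq]; exact mF) mCP mACP (by rw [pJC_eq, pJA_eq, pJF_eq, zero_eq]; exact hplat)
        (by rw [pJA_eq, zero_eq]; exact hprod) hq hR hNs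
      rw [pJC_eq, pJA_eq, pJH_eq, zero_eq] at this
      exact this
    · -- live slots `4, 6, 8`
      have hb0 : b = 0 := by
        fin_cases b
        · rfl
        · exact absurd rfl hab
      subst hb0
      have T : Thin W.B' (fun n => swG (W.cfg E n)) ∅
          (fun n => -(dir W inc n 1) / dir W inc n 0) t := thin4 (by norm_num) hT hdir
      have g := gc_of_sw w.wl s2 s7 s8 t7 t8 hr hFr (le_refl t) T.bd T.tc T.tx
      have hNs' : NoStrC W.B' (fun n => swG (W.cfg E n)) 0 3 10 (fun p => W.nu (swe p)) q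
          (min R0 t) := NoStrC.swp hNs
      have hsw : ∀ z D E C X B N P F : ℝ, bx9 z D E C X B N P F ∈ W.legW →
          bx9 z D E C X B N P F ∈ {p | swe p ∈ W.legW} := fun z D E C X B N P F hh => by
        show swe _ ∈ W.legW
        rw [swe_bx]; exact hh
      have := sig2_core hM (RModel.swp H) g T
        (fun ε hε => by
          filter_upwards [hall ε hε] with n hn k i l hi hl
          exact (loose_swp _ _ _ _ _ _).2 (hn k i l hi hl))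
        (El := gv W 2) hEl ht le_rfl (by rw [zero_eq]; exact hsw _ _ _ _ _ _ _ _ _ m0)
        (by rw [pJC_eq]; exact hsw _ _ _ _ _ _ _ _ _ mC)
        (by rw [pJA_eq]; exact hsw _ _ _ _ _ _ _ _ _ mA)
        (by rw [pJH_eq]; exact hsw _ _ _ _ _ _ _ _ _ mH)
        (by rw [pJF_eq]; exact hsw _ _ _ _ _ _ _ _ _ mF)
        (fun y hy hyt => hsw _ _ _ _ _ _ _ _ _ (mCP y hy hyt))
        (fun y hy hyt => hsw _ _ _ _ _ _ _ _ _ (mACP y hy hyt))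
        (by
          rw [pJC_eq, pJA_eq, pJF_eq, zero_eq, swe_bx, swe_bx, swe_bx, swe_bx]
          exact hplat)
        (by
          intro y hy hyt
          rw [pJA_eq, zero_eq]
          show W.nu (swe _) - W.nu (swe (bx9 _ _ _ _ _ _ _ _ _)) ≤
            W.nu (swe _) - W.nu (swe (bx9 _ _ _ _ _ _ _ _ _))
          rw [swe_bx, swe_bx, swe_bx, swe_bx]
          exact hprod y hy hyt) hq hR hNs'
      rw [pJC_eq, pJA_eq, pJH_eq, zero_eq, swe_bx, swe_bx, swe_bx, swe_bx] at this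
      exact this
  rw [nu, nu, nu, nu] at key
  linarith

end Crest.Agent.R116.Sc5803
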