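import Crest.Agent.R116.Sc5b_748
import Crest.Agent.R116.RowU3_194
import Crest.Agent.R116.Nar9_192
import Crest.Agent.R116.Kr14_710
import Crest.Agent.R116.Sc5a_803

/-!
# R116, K-TEXT II-c, SIG2 (`σ = 2`), Sc5c: the field over `CtxT` + `SigP` (helper748)

* base boxes `xB`: limits, frozen form, supremum with the record box, stages (`stg_ev`).
* `nsTc_sig2` : no heavy strips along the tangent (192's `CtxT.nsTc`, freeze `SigP.fz`).
* **`sig2_win`** : `1 - s ≤ 2 (lam pC - lam pH) - (lam p0 - lam pA)`.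
* **`sig2_field`** : `1 - s ≤ r kN - r kX`; `sig2_t` : 194's / 890's form.
-/

set_option autoImplicit false
set_option linter.unusedVariables false
set_option linter.unusedSectionVars false

open Set Filter Topology

namespace Crest.Agent.R116.Sc5c748

open Crest.Agent.R138.Ex926 (Base U IsTan)
open Crest.Agent.R136
open Crest.Agent.R136.Net191
open Crest.Agent.R136.Lq196
open Crest.Agent.R136.MkA627
open Crest.Agent.R116.LZg725
open Crest.Agent.R116.ChL222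
open Crest.Agent.R116.PL504 (βL eL rL oL Shift nb)
open Crest.Agent.R116.Sg337 (natB natB_smul bx9 uC uP uCP SL frz frz_single)
open Crest.Agent.R116.Gd222
open Crest.Agent.R116.KI439
open Crest.Agent.R116.Tw468
open Crest.Agent.R116.CtxB468
open Crest.Agent.R116.RowU194 (xB xB_eq xB_nat xB_1 SigP)
open Crest.Agent.R116.Nar192 (StgM NsTc)
open Dg219 (gset OutS gC dhC nC mw)
open Sg635 (xS aS bS LMd mem_bx kz kX kN kF L_eq)

/-! ### base boxes -/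

section geo

variable {w0 sa sb θa θb v0 lam0 : ℝ} {z : ℝ × ℝ} {u k : ℕ → ℝ}

theorem xB_tend (u0 : Tendsto u atTop (𝓝 0)) (i : Fin 12) :
    Tendsto (fun m => xB θa θb w0 sa sb v0 lam0 z u m i) atTop
      (𝓝 (nb w0 sa sb v0 (θa * (1 - v0)) (θb * (1 - v0)) i)) := by
  have h1 : Tendsto (fun m => rL θa θb w0 sa sb v0 i + u m * SL θa θb lam0 z.1 z.2 i) atTop
      (𝓝 (rL θa θb w0 sa sb v0 i + 0 * SL θa θb lam0 z.1 z.2 i)) :=
    tendsto_const_nhds.add (u0.mul_const _)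
  rw [zero_mul, add_zero] at h1
  rw [← PL504.rL_nb]
  exact h1

theorem xB_fro (upos : ∀ m, 0 < u m) (kpos : ∀ m, 0 < k m) (k0 : Tendsto k atTop (𝓝 0))
    (sl : (2 * θa - θb) * z.2 - z.1 < lam0) (t : ℝ) :
    ∀ᶠ l in atTop, ∃ zz c p q : ℝ, xB θa θb w0 sa sb v0 lam0 z u l =
      Function.update (eL zz c p) 1 q ∧ p - 2 * c - zz + t * (u l * k l) ≤ q := by
  set G : ℝ := lam0 - ((2 * θa - θb) * z.2 - z.1) with hG
  have hG0 : 0 < G := by rw [hG]; linarith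
  have e1 : 0 < G / (|t| + 1) := by positivity
  filter_upwards [k0.eventually_lt_const e1] with l hl
  refine ⟨w0 + (v0 + u l * z.1), θa * (1 - v0) - θa * (u l * z.2) + sa,
    θb * (1 - v0) - θb * (u l * z.2) + sb, xB θa θb w0 sa sb v0 lam0 z u l 1, ?_, ?_⟩
  · funext i
    by_cases hi : i = 1
    · subst hi; rw [Function.update_self]
    · rw [Function.update_of_ne hi, xB_nat l i hi]
  · rw [xB_1]
    have hu := upos l
    have hk := kpos l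
    rw [lt_div_iff₀ (by positivity)] at hl
    have h3 : t * k l ≤ G := by
      have := mul_le_mul_of_nonneg_right (le_abs_self t) hk.le
      nlinarith
    have h4 : u l * (t * k l) ≤ u l * G := mul_le_mul_of_nonneg_left h3 hu.le
    have h5 : eL (w0 + (v0 + u l * z.1)) (θa * (1 - v0) - θa * (u l * z.2) + sa)
        (θb * (1 - v0) - θb * (u l * z.2) + sb) 1 =
        (θb * (1 - v0) - θb * (u l * z.2) + sb) -
          2 * (θa * (1 - v0) - θa * (u l * z.2) + sa) - (w0 + (v0 + u l * z.1)) := rfl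
    rw [h5]
    have e3 : t * (u l * k l) = u l * (t * k l) := by ring
    rw [e3]
    linarith

/-- the record box of the same time -/
theorem rL_add (m : ℕ) : rL θa θb w0 sa sb (v0 + u m * z.2) =
    rL θa θb w0 sa sb v0 + u m • natB z.2 (-(θa * z.2)) (-(θb * z.2)) := by
  funext i
  fin_cases i <;> simp [rL, eL, natB, bx9] <;> ring

theorem xB_slots (m : ℕ) :
    xB θa θb w0 sa sb v0 lam0 z u m 0 = w0 + (v0 + u m * z.1) ∧
    xB θa θb w0 sa sb v0 lam0 z u m 1 = θb * (1 - v0) + sb - 2 * (θa * (1 - v0) + sa) -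
      (w0 + v0) + u m * lam0 ∧
    xB θa θb w0 sa sb v0 lam0 z u m 2 = θb * (1 - v0) - θb * (u m * z.2) + sb -
      2 * (θa * (1 - v0) - θa * (u m * z.2) + sa) ∧
    xB θa θb w0 sa sb v0 lam0 z u m 3 = θa * (1 - v0) - θa * (u m * z.2) + sa ∧
    xB θa θb w0 sa sb v0 lam0 z u m 4 = θa * (1 - v0) - θa * (u m * z.2) + sa ∧
    xB θa θb w0 sa sb v0 lam0 z u m 5 = w0 + (v0 + u m * z.1) +
      (θa * (1 - v0) - θa * (u m * z.2) + sa) ∧
    xB θa θb w0 sa sb v0 lam0 z u m 6 = w0 + (v0 + u m * z.1) +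
      (θa * (1 - v0) - θa * (u m * z.2) + sa) ∧
    xB θa θb w0 sa sb v0 lam0 z u m 7 = θb * (1 - v0) - θb * (u m * z.2) + sb -
      (θa * (1 - v0) - θa * (u m * z.2) + sa) ∧
    xB θa θb w0 sa sb v0 lam0 z u m 8 = θb * (1 - v0) - θb * (u m * z.2) + sb -
      (θa * (1 - v0) - θa * (u m * z.2) + sa) ∧
    xB θa θb w0 sa sb v0 lam0 z u m 9 = w0 + (v0 + u m * z.1) +
      2 * (θa * (1 - v0) - θa * (u m * z.2) + sa) ∧
    xB θa θb w0 sa sb v0 lam0 z u m 10 = θb * (1 - v0) - θb * (u m * z.2) + sb ∧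
    xB θa θb w0 sa sb v0 lam0 z u m 11 = w0 + (v0 + u m * z.1) +
      (θb * (1 - v0) - θb * (u m * z.2) + sb) := by
  refine ⟨?_, ?_, ?_, ?_, ?_, ?_, ?_, ?_, ?_, ?_, ?_, ?_⟩
  · rw [xB_nat m _ (by decide)]; rfl
  · rw [xB_1]
    have h5 : eL (w0 + (v0 + u m * z.1)) (θa * (1 - v0) - θa * (u m * z.2) + sa)
        (θb * (1 - v0) - θb * (u m * z.2) + sb) 1 =
        (θb * (1 - v0) - θb * (u m * z.2) + sb) -
          2 * (θa * (1 - v0) - θa * (u m * z.2) + sa) - (w0 + (v0 + u m * z.1)) := rfl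
    rw [h5]; ring
  all_goals rw [xB_nat m _ (by decide)]; rfl

/-- the supremum with the record box of the same time -/
theorem xB_sup (m : ℕ) (hu : 0 < u m) (lt : z.1 < z.2)
    (sl : (2 * θa - θb) * z.2 - z.1 < lam0) :
    xB θa θb w0 sa sb v0 lam0 z u m ⊔ rL θa θb w0 sa sb (v0 + u m * z.2) =
      rL θa θb w0 sa sb v0 + u m • SL θa θb lam0 z.2 z.2 := by
  obtain ⟨s0, s1, s2, s3, s4, s5, s6, s7, s8, s9, s10, s11⟩ :=
    xB_slots (w0 := w0) (sa := sa) (sb := sb) (θa := θa) (θb := θb) (v0 := v0) (lam0 := lam0)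
      (z := z) (u := u) m
  have h1 : u m * z.1 ≤ u m * z.2 := mul_le_mul_of_nonneg_left lt.le hu.le
  have h2 : u m * ((2 * θa - θb) * z.2 - z.1) ≤ u m * lam0 := mul_le_mul_of_nonneg_left sl.le hu.le
  funext i
  rw [Pi.sup_apply]
  fin_cases i
  · show xB θa θb w0 sa sb v0 lam0 z u m 0 ⊔ _ = _
    rw [s0, sup_eq_right.2 (by simp [rL, eL]; linarith)]
    simp [rL, eL, SL, frz, bx9]; ring
  · show xB θa θb w0 sa sb v0 lam0 z u m 1 ⊔ _ = _
    rw [s1, sup_eq_left.2 (by simp [rL, eL]; linarith)]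
    simp [rL, eL, SL, frz, bx9]; try ring
  · show xB θa θb w0 sa sb v0 lam0 z u m 2 ⊔ _ = _
    rw [s2, sup_eq_right.2 (by simp [rL, eL]; linarith)]
    simp [rL, eL, SL, frz, bx9]; ring
  · show xB θa θb w0 sa sb v0 lam0 z u m 3 ⊔ _ = _
    rw [s3, sup_eq_right.2 (by simp [rL, eL]; linarith)]
    simp [rL, eL, SL, frz, bx9]; ring
  · show xB θa θb w0 sa sb v0 lam0 z u m 4 ⊔ _ = _
    rw [s4, sup_eq_right.2 (by simp [rL, eL]; linarith)]
    simp [rL, eL, SL, frz, bx9]; ring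
  · show xB θa θb w0 sa sb v0 lam0 z u m 5 ⊔ _ = _
    rw [s5, sup_eq_right.2 (by simp [rL, eL]; linarith)]
    simp [rL, eL, SL, frz, bx9]; ring
  · show xB θa θb w0 sa sb v0 lam0 z u m 6 ⊔ _ = _
    rw [s6, sup_eq_right.2 (by simp [rL, eL]; linarith)]
    simp [rL, eL, SL, frz, bx9]; ring
  · show xB θa θb w0 sa sb v0 lam0 z u m 7 ⊔ _ = _
    rw [s7, sup_eq_right.2 (by simp [rL, eL]; linarith)]
    simp [rL, eL, SL, frz, bx9]; ring
  · show xB θa θb w0 sa sb v0 lam0 z u m 8 ⊔ _ = _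
    rw [s8, sup_eq_right.2 (by simp [rL, eL]; linarith)]
    simp [rL, eL, SL, frz, bx9]; ring
  · show xB θa θb w0 sa sb v0 lam0 z u m 9 ⊔ _ = _
    rw [s9, sup_eq_right.2 (by simp [rL, eL]; linarith)]
    simp [rL, eL, SL, frz, bx9]; ring
  · show xB θa θb w0 sa sb v0 lam0 z u m 10 ⊔ _ = _
    rw [s10, sup_eq_right.2 (by simp [rL, eL]; linarith)]
    simp [rL, eL, SL, frz, bx9]; ring
  · show xB θa θb w0 sa sb v0 lam0 z u m 11 ⊔ _ = _
    rw [s11, sup_eq_right.2 (by simp [rL, eL]; linarith)]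
    simp [rL, eL, SL, frz, bx9]; ring

end geo

section ctx

variable {G : Geo TSet (Fin 2)} {L : ℕ → ℕ → LRay} {r : ℕ → ℝ} {g s : ℝ} {θ q : Fin 2 → ℝ}
    {Rg : ℝ} {B : Base} {I : ℕ → Finset (ℕ × ℝ)} {lev : ℕ → ℚ → ℕ} {A : ℕ → ℝ}
    {f : ℕ → ℚ → ℕ → ℤ → ℕ} {b : ℕ → ℚ → ℕ → TSet} {vm : ℕ → ℚ → ℝ} {w : Fin 2 → ℕ → ℚ → ℝ}
    {fr : ℕ → ℚ → ℕ × ℝ → LInc} {fl : ℕ → ℕ × ℝ → LInc} {sc : Fin 12 → ℕ → ℝ}
    {w0 sa sb δ R : ℝ} {I0 I' : ℕ → Finset (ℕ × ℝ)} {ν own : (Fin 12 → ℝ) → ℝ} {c₀ : ℝ}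
    {J : Type*} {c δ' : ℝ} {F : J → (Fin 12 → ℝ) → ℝ} {j0 : J} {v0 lam0 : ℝ} {z : ℝ × ℝ}
    {u k : ℕ → ℝ} {lam : J → (Fin 12 → ℝ) → ℝ} {A' : ℝ × ℝ} {φ : ℕ → (Fin 12 → ℝ) → ℝ}
    {rr : ℕ → ℝ}

/-- the base boxes are legal -/
theorem leg_ev (H : SigP R w0 sa sb (θ 0) (θ 1) s c (q 0) (q 1) δ' F j0 v0 lam0 z u k lam A' φ rr) :
    ∀ᶠ l in (atTop : Filter ℕ), xB (θ 0) (θ 1) w0 sa sb v0 lam0 z u l ∈ Leg monL R := by
  have h0L : (0 : Fin 12 → ℝ) ∈ (mw monL).L (xS lam0) aS (bS (θ 0) (θ 1)) := by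
    rw [L_eq H.hl0]
    intro k e he _
    simp
  filter_upwards [H.tan j0 0 1 one_pos] with l hl
  have := (hl 0 h0L (by simp)).1
  simpa using this

/-- stages of the base boxes -/
theorem stg_ev
    (h : CtxT G L r g s θ q Rg B I lev A f b vm w fr fl sc w0 sa sb δ R I0 I' ν own c₀)
    (H : SigP R w0 sa sb (θ 0) (θ 1) s c (q 0) (q 1) δ' F j0 v0 lam0 z u k lam A' φ rr)
    (hθ : 0 < θ 0) (hRa : θ 0 < Rg) (hRb : |θ 1| < Rg) {sC : Fin 12} (hsC : sC = 3 ∨ sC = 4) :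
    ∃ t0 : ℝ, 0 < t0 ∧ ∀ᶠ l in (atTop : Filter ℕ), ∃ v t yy : ℝ,
      StgM w0 sa sb R Rg t0 sC (xB (θ 0) (θ 1) w0 sa sb v0 lam0 z u l)
        (rL (θ 0) (θ 1) w0 sa sb (v0 + u l * z.2)) v t yy := by
  have hv0 := H.v00
  have hv1 := H.v01
  set m0 : ℝ := θ 0 * (1 - v0) / 2 with hm0
  have hm0p : 0 < m0 := by
    have : 0 < θ 0 * (1 - v0) := mul_pos hθ (by linarith)
    positivity
  set t0 : ℝ := min (min δ m0) (min (Rg - θ 0) (Rg - |θ 1|)) with ht0d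
  have ht0 : 0 < t0 := lt_min (lt_min h.sh.d0 hm0p) (lt_min (by linarith) (by linarith))
  have t1 : t0 ≤ δ := (min_le_left _ _).trans (min_le_left _ _)
  have t2 : t0 ≤ m0 := (min_le_left _ _).trans (min_le_right _ _)
  have t3 : t0 ≤ Rg - θ 0 := (min_le_right _ _).trans (min_le_left _ _)
  have t4 : t0 ≤ Rg - |θ 1| := (min_le_right _ _).trans (min_le_right _ _)
  refine ⟨t0, ht0, ?_⟩
  have u1 : Tendsto (fun l => u l * z.1) atTop (𝓝 0) := by simpa using H.u0.mul_const z.1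
  have u2 : Tendsto (fun l => u l * z.2) atTop (𝓝 0) := by simpa using H.u0.mul_const z.2
  have u3 : Tendsto (fun l => θ 0 * (u l * z.2)) atTop (𝓝 0) := by simpa using u2.const_mul (θ 0)
  have a1 : ∀ᶠ l in (atTop : Filter ℕ), -v0 < u l * z.1 := u1.eventually_const_lt (by linarith)
  have a2 : ∀ᶠ l in (atTop : Filter ℕ), -v0 < u l * z.2 := u2.eventually_const_lt (by linarith)
  have a3 : ∀ᶠ l in (atTop : Filter ℕ), u l * z.2 < 1 - v0 := u2.eventually_lt_const (by linarith)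
  have a4 : ∀ᶠ l in (atTop : Filter ℕ), θ 0 * (u l * z.2) < m0 := u3.eventually_lt_const hm0p
  filter_upwards [leg_ev H, a1, a2, a3, a4] with l hl b1 b2 b3 b4
  obtain ⟨s0, s1, s2, s3, s4, s5, s6, s7, s8, s9, s10, s11⟩ :=
    xB_slots (w0 := w0) (sa := sa) (sb := sb) (θa := θ 0) (θb := θ 1) (v0 := v0) (lam0 := lam0)
      (z := z) (u := u) l
  have e1 : θ 0 * (1 - v0) = 2 * m0 := by rw [hm0]; ring
  have hu := H.upos l
  have h1 : u l * z.1 ≤ u l * z.2 := mul_le_mul_of_nonneg_left H.lt.le hu.le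
  have h2 : u l * ((2 * θ 0 - θ 1) * z.2 - z.1) ≤ u l * lam0 :=
    mul_le_mul_of_nonneg_left H.sl.le hu.le
  refine ⟨v0 + u l * z.2, _, _, StgM.of_rec h.sh ht0 t1 (by linarith) (by linarith) hθ.le
    (by linarith) (by linarith) ?_ hl hsC ?_ ?_ ?_ ?_ ?_ ?_ ?_ ?_ ?_ ?_ ?_ ?_⟩
  · have : θ 0 * (1 - (v0 + u l * z.2)) = θ 0 * (1 - v0) - θ 0 * (u l * z.2) := by ring
    linarith
  · rcases hsC with e | e
    · rw [e, s3]; ring
    · rw [e, s4]; ring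
  · rw [s10]; ring
  · rw [s0]; linarith
  · rw [s3]; linarith
  · rw [s4]; linarith
  · rw [s5]; linarith
  · rw [s6]; linarith
  · rw [s9]; linarith
  · rw [s1]; linarith
  · rw [s2]; linarith
  · rw [s7]; linarith
  · rw [s8]; linarith

/-- **no heavy strips along the tangent** (192) -/
theorem nsTc_sig2
    (h : CtxT G L r g s θ q Rg B I lev A f b vm w fr fl sc w0 sa sb δ R I0 I' ν own c₀)
    (hq0 : 0 < q 0) (hq1 : 0 < q 1)
    (H : SigP R w0 sa sb (θ 0) (θ 1) s c (q 0) (q 1) δ' F j0 v0 lam0 z u k lam A' φ rr)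
    (hf : F j0 = ν)
    (hθ : 0 < θ 0) (hRa : θ 0 < Rg) (hRb : |θ 1| < Rg) {a b' : Fin 2} (hab : a ≠ b')
    (ha : ∀ᶠ n in (U : Filter ℕ), ∀ x ∈ I n, |vb (fl n x) a| ≤ 2)
    (hb : ∀ᶠ n in (U : Filter ℕ), ∀ x ∈ I n, 1 / 2 ≤ |vb (fl n x) b'|) {R0 : ℝ} (hR0 : 0 < R0) :
    NsTc B I0 I' (PL504.coN B lev w w0 sa sb fl) 2 ν (xB (θ 0) (θ 1) w0 sa sb v0 lam0 z u)
      (fun m => u m * k m) (Xd954.cs a) 10 (gam q) R0 := by
  have hsC : Xd954.cs a = 3 ∨ Xd954.cs a = 4 := by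
    fin_cases a
    · exact Or.inl rfl
    · exact Or.inr rfl
  obtain ⟨t0, ht0, hst⟩ := stg_ev h H hθ hRa hRb hsC
  have u2 : Tendsto (fun l => u l * z.2) atTop (𝓝 0) := by simpa using H.u0.mul_const z.2
  have a2 : ∀ᶠ l in (atTop : Filter ℕ), -v0 < u l * z.2 :=
    u2.eventually_const_lt (by linarith [H.v00])
  have a3 : ∀ᶠ l in (atTop : Filter ℕ), u l * z.2 < 1 - v0 :=
    u2.eventually_lt_const (by linarith [H.v01])
  refine h.nsTc hq0 hq1 hsC (Nar192.hax_of hab ha hb) H.hpos H.h0 ht0 hst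
    (h.frz_rec (v := fun l => v0 + u l * z.2) ?_ fun ε hε => ?_) hR0
  · filter_upwards [a2, a3] with l h1 h2
    constructor <;> linarith
  · filter_upwards [H.fz ε hε] with l hl
    rw [xB_sup l (H.upos l) H.lt H.sl, rL_add l, ← hf]
    exact hl

/-- **the inequality of the window at the origin of the plane, `σ = 2`** -/
theorem sig2_win (hM : Sc5803.Sig2M)
    (h : CtxT G L r g s θ q Rg B I lev A f b vm w fr fl sc w0 sa sb δ R I0 I' ν own c₀)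
    (hq0 : 0 < q 0) (hq1 : 0 < q 1)
    (H : SigP R w0 sa sb (θ 0) (θ 1) s c (q 0) (q 1) δ' F j0 v0 lam0 z u k lam A' φ rr)
    (hf : F j0 = ν)
    (hθ : 0 < θ 0) (h2 : θ 1 = 2 * θ 0) (hRa : θ 0 < Rg) (hRb : |θ 1| < Rg) :
    (1 - s) * 1 ≤ 2 * (lam j0 (bx9 1 0 0 1 0 1 0 0 0) - lam j0 (bx9 1 0 0 1 0 1 1 0 1)) -
      (lam j0 (bx9 1 0 0 0 0 0 0 0 0) - lam j0 (bx9 1 0 0 0 1 0 1 0 1)) := by
  have hR : 0 ≤ R := h.sh.d0.le.trans h.sh.R_pos
  have hL := L_eq (θa := θ 0) (θb := θ 1) H.hl0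
  have hO := H.out
  rw [hL] at hO
  have hT := H.tan j0
  rw [hL, hf] at hT
  have ha : θ 0 ≠ 0 := hθ.ne'
  have hv0 := H.v00
  have hv1 := H.v01
  have hkz : 1 - s ≤ rr (kz (θ 0) (θ 1)) := by
    have h1 := H.own 1 one_pos
    rw [Sc5b748.lam_z hO ha h2 1 zero_le_one] at h1
    linarith
  -- axes
  obtain ⟨bx, hbx⟩ := h.out.ax
  have hab : 1 - bx ≠ bx := by fin_cases bx <;> decide
  have hbd : ∀ᶠ n in (U : Filter ℕ), ∀ x ∈ I n, |vb (fl n x) (1 - bx)| ≤ 2 := by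
    filter_upwards [hbx] with n hn x hx using (hn x hx).2 _
  have hbg : ∀ᶠ n in (U : Filter ℕ), ∀ x ∈ I n, 1 / 2 ≤ |vb (fl n x) bx| := by
    filter_upwards [hbx] with n hn x hx using (hn x hx).1
  -- flags
  have hF : Kz710.FlagDz B I' lev fl (sN lev w) 0 0 (θ 1 - θ 0) :=
    { fe := h.fE h.sub' 0
      fn := h.nz h.sub' hθ.le
      ge := by
        filter_upwards [hbg] with n hn x hx
        have h1 := hn x (h.sub' n hx)
        rw [bb_vb, bb_vb]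
        have h3 : (1:ℝ) / 4 ≤ (vb (fl n x) bx) ^ 2 := by
          rw [← sq_abs]
          nlinarith
        fin_cases bx
        · have h4 : (1:ℝ) / 4 ≤ (vb (fl n x) 0) ^ 2 := h3
          nlinarith [sq_nonneg (vb (fl n x) 1)]
        · have h4 : (1:ℝ) / 4 ≤ (vb (fl n x) 1) ^ 2 := h3
          nlinarith [sq_nonneg (vb (fl n x) 0)] }
  -- margins
  set dm : ℝ := min (θ 0 * (1 - v0)) (θ 0 * v0) / 3 with hdm
  have p1 : 0 < θ 0 * (1 - v0) := mul_pos hθ (by linarith)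
  have p2 : 0 < θ 0 * v0 := mul_pos hθ hv0
  have d1 : 3 * dm ≤ θ 0 * (1 - v0) := by
    have := min_le_left (θ 0 * (1 - v0)) (θ 0 * v0)
    rw [hdm]; linarith
  have d2 : 3 * dm ≤ θ 0 * v0 := by
    have := min_le_right (θ 0 * (1 - v0)) (θ 0 * v0)
    rw [hdm]; linarith
  have hm : Xd954.Mrg 0 0 v0 (θ 0 * (1 - v0)) (θ 1 * (1 - v0)) dm :=
    { pos := by rw [hdm]; exact div_pos (lt_min p1 p2) (by norm_num)
      mt := d1
      mkk := by rw [h2]; linarith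
      mv := by linarith }
  have hty : 3 * dm ≤ (θ 1 - θ 0) + θ 0 * (1 - v0) - θ 1 * (1 - v0) := by
    rw [h2]; linarith
  have ns := nsTc_sig2 h hq0 hq1 H hf hθ hRa hRb hab hbd hbg one_pos
  have hs0 := h.ext.s0
  have hs1 := h.ext.s1
  exact Sc5803.sig2_win hM (B := B) (lev := lev) (inc := fl) (σs := sN lev w) (w0 := w0)
    (sa := sa) (sb := sb) (WinU954.nprof_of_ext hR h.ext)
    (fun n => Sd369.coc_N B lev w w0 sa sb fl n) H.hpos H.h0 hT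
    (fun p hp => hp) one_pos (by linarith) (by linarith)
    (Sc5b748.dens hO ha h2 zero_le_one)
    (fun y hy _ => Sc5b748.frost hO ha h2 hkz y hy)
    (Sc5b748.plat hO ha h2 zero_le_one le_rfl zero_le_one zero_le_one le_rfl (by norm_num)
      (by norm_num)).le
    (fun y hy _ => (Sc5b748.plat hO ha h2 zero_le_one le_rfl hy.le le_rfl hy.le (by linarith)
      (by linarith)).le)
    (xB_fro H.upos H.kpos H.k0 H.sl 1) hF hm hty
    (fun i _ => xB_tend H.u0 i) hab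
    (by filter_upwards [hbd] with n hn x hx; rw [bb_vb]; exact hn x (h.sub' n hx))
    (by filter_upwards [hbg] with n hn x hx; rw [bb_vb]; exact hn x (h.sub' n hx))
    (gam_pos hq0 hq1) one_pos ns

/-- **SIG2, rates** -/
theorem sig2_field (hM : Sc5803.Sig2M)
    (h : CtxT G L r g s θ q Rg B I lev A f b vm w fr fl sc w0 sa sb δ R I0 I' ν own c₀)
    (hq0 : 0 < q 0) (hq1 : 0 < q 1)
    (H : SigP R w0 sa sb (θ 0) (θ 1) s c (q 0) (q 1) δ' F j0 v0 lam0 z u k lam A' φ rr)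
    (hf : F j0 = ν)
    (hθ : 0 < θ 0) (h2 : θ 1 = 2 * θ 0) (hRa : θ 0 < Rg) (hRb : |θ 1| < Rg) :
    1 - s ≤ rr (kN (θ 0) (θ 1)) - rr (kX (θ 0) (θ 1)) := by
  have hO := H.out
  rw [L_eq (θa := θ 0) (θb := θ 1) H.hl0] at hO
  exact Sc5b748.field hO hθ.ne' h2 one_pos (sig2_win hM h hq0 hq1 H hf hθ h2 hRa hRb)

/-- **SIG2, 194's / 890's literal** -/
theorem sig2_t (hM : Sc5803.Sig2M)
    (h : CtxT G L r g s θ q Rg B I lev A f b vm w fr fl sc w0 sa sb δ R I0 I' ν own c₀)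
    (hq0 : 0 < q 0) (hq1 : 0 < q 1)
    (H : SigP R w0 sa sb (θ 0) (θ 1) s c (q 0) (q 1) δ' F j0 v0 lam0 z u k lam A' φ rr)
    (hf : F j0 = ν)
    (hθ : 0 < θ 0) (h2 : θ 1 = 2 * θ 0) (hRa : θ 0 < Rg) (hRb : |θ 1| < Rg) :
    ∃ t : ℝ, 0 < t ∧ (1 - s) * t ≤
      2 * (lam j0 (bx9 t 0 0 t 0 t 0 0 0) - lam j0 (bx9 t 0 0 t 0 t t 0 t)) -
        (lam j0 (bx9 t 0 0 0 0 0 0 0 0) - lam j0 (bx9 t 0 0 0 t 0 t 0 t)) :=
  ⟨1, one_pos, sig2_win hM h hq0 hq1 H hf hθ h2 hRa hRb⟩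

end ctx

end Crest.Agent.R116.Sc5c748
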