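import Crest.Agent.R116.Nar3h_863
import Crest.Agent.R116.Sc5c_748
import Crest.Agent.R116.Kt1_710

/-!
# R116, (A1) of the thin row, `σ = 1` (helper388; second copy of 79's A1t)

* `lam1` : values of the tangent of the plane `Σ` on boxes with `F = X`, `θb = θa`.
* `dimC_of` : 863's `DimC` in the windows of the context (954's `dim_window`).
* **`a1_u`** : `CtxT`, `SigP`, `θ 1 = θ 0` ⊢ (A1).
-/

set_option autoImplicit false
set_option linter.unusedVariables false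
set_option linter.unusedSectionVars false

open Set Filter Topology

namespace Crest.Agent.R116.A1U388

open Crest.Agent.R138.Ex926 (Base U IsTan U_le_atTop)
open Crest.Agent.R136
open Crest.Agent.R136.Net191
open Crest.Agent.R136.Qg926
open Crest.Agent.R136.Gf356
open Crest.Agent.R136.Lq196
open Crest.Agent.R136.MkA627
open Crest.Agent.R136.NSt107 (NsW)
open Crest.Agent.R116.LZg725
open Crest.Agent.R116.ChL222
open Crest.Agent.R116.PL504 (βL eL rL oL Shift nb)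
open Crest.Agent.R116.Sg337 (natB bx9 SL)
open Crest.Agent.R116.Gd222
open Crest.Agent.R116.KI439
open Crest.Agent.R116.Tw468
open Crest.Agent.R116.CtxB468
open Crest.Agent.R116.WinG954 (WinG leg_LMd)
open Crest.Agent.R116.Nar863 (WinD DimC Axis a1_thin)
open Crest.Agent.R116.Nar192 (StgM NsTc)
open Crest.Agent.R116.RowU194 (xB xB_eq xB_nat xB_1 SigP)
open Dg219 (gset OutS gC dhC nC mw)
open Sg635 (xS aS bS LMd mem_bx kz kX kN kF g_zero g6 gset_sum1 dh_single kz_ne kX_ne kN_ne kF_ne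
  kz_kX kz_kN kz_kF kX_kN kX_kF kN_kF L_eq)

/-! ### letters -/

section letters

variable {θa θb : ℝ} {lam : (Fin 12 → ℝ) → ℝ} {A : ℝ × ℝ} {φ : ℕ → (Fin 12 → ℝ) → ℝ} {r : ℕ → ℝ}

/-- the groups at `σ = 1` -/
theorem grp1 (ha : θa ≠ 0) (h1 : θb = θa) (i : Fin 12) :
    (gC aS (bS θa θb) i = kz θa θb ↔ i = 0) ∧
    (gC aS (bS θa θb) i = kX θa θb ↔ i = 5 ∨ i = 6 ∨ i = 11) ∧
    (gC aS (bS θa θb) i = kN θa θb ↔ i = 9) := by
  have a1 : kz θa θb ≠ kX θa θb := fun h => ha (kz_kX.1 h)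
  have a2 : kz θa θb ≠ kN θa θb := fun h => ha (kz_kN.1 h)
  have a4 : kX θa θb ≠ kN θa θb := fun h => ha (kX_kN.1 h)
  have b1 := (kz_ne (θa := θa) (θb := θb)).symm
  have b2 := (kX_ne (θa := θa) (θb := θb)).symm
  have b3 := (kN_ne (θa := θa) (θb := θb)).symm
  have eF : kF θa θb = kX θa θb := (kX_kF.2 h1).symm
  by_cases hi : i ∈ ({1, 2, 3, 4, 7, 8, 10} : Finset (Fin 12))
  · have hg : gC aS (bS θa θb) i = 0 := g_zero.2 hi
    rw [hg]
    fin_cases i <;> simp at hi ⊢ <;> exact ⟨b1, b2, b3⟩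
  · have e0 : gC aS (bS θa θb) 0 = kz θa θb := rfl
    have e5 : gC aS (bS θa θb) 5 = kX θa θb := rfl
    have e9 : gC aS (bS θa θb) 9 = kN θa θb := rfl
    have e11 : gC aS (bS θa θb) 11 = kX θa θb := eF
    fin_cases i <;> simp at hi ⊢
    · simp [e0, a1, a2]
    · simp [e5, a1.symm, a4]
    · simp [g6, a1.symm, a4]
    · simp [e9, a2.symm, a4.symm]
    · simp [e11, a1.symm, a4]

theorem bx0 {z E C X B N P : ℝ} (i : Fin 12)
    (hi : i ∈ ({1, 2, 3, 4, 7, 8, 10} : Finset (Fin 12))) :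
    bx9 z 0 E C X B N P X i = bx9 0 0 E C 0 B 0 P 0 i := by
  simp only [Finset.mem_insert, Finset.mem_singleton] at hi
  rcases hi with rfl | rfl | rfl | rfl | rfl | rfl | rfl <;> simp [bx9]

theorem bx_vals {z E C X B N P : ℝ} :
    bx9 z 0 E C X B N P X 0 = z ∧ bx9 z 0 E C X B N P X 5 = X ∧ bx9 z 0 E C X B N P X 6 = X ∧
    bx9 z 0 E C X B N P X 9 = N ∧ bx9 z 0 E C X B N P X 11 = X := by
  refine ⟨?_, ?_, ?_, ?_, ?_⟩ <;> simp [bx9]

/-- **values on boxes with `F = X`** -/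
theorem lam1 (H : OutS (gC aS (bS θa θb)) LMd (dhC aS (bS θa θb)) (nC aS (bS θa θb)) lam A φ r)
    (ha : θa ≠ 0) (h1 : θb = θa) {z E C X B N P : ℝ}
    (hm : bx9 z 0 E C X B N P X ∈ LMd) :
    lam (bx9 z 0 E C X B N P X) =
      φ 0 (bx9 0 0 E C 0 B 0 P 0) - r (kz θa θb) * z - r (kX θa θb) * X - r (kN θa θb) * N := by
  obtain ⟨d0, d5, d6, d9, d11⟩ := dh_single (θa := θa) (θb := θb)
  obtain ⟨v0, v5, v6, v9, v11⟩ := bx_vals (z := z) (E := E) (C := C) (X := X) (B := B) (P := P)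
    (N := N)
  have v1 : ∀ i ∈ ({1, 2, 3, 4, 7, 8, 10} : Finset (Fin 12)),
      bx9 z 0 E C X B N P X i = bx9 0 0 E C 0 B 0 P 0 i := bx0
  generalize bx9 z 0 E C X B N P X = c at *
  generalize bx9 0 0 E C 0 B 0 P 0 = c' at *
  have hs := H.sum _ hm
  have hs2 := (gset_sum1 ha h1 fun k => φ k c).2
  have e0 : φ 0 c = φ 0 c' := H.loc 0 _ _ fun i hi => v1 i (g_zero.1 hi)
  have ez : φ (kz θa θb) c = -(r (kz θa θb) * z) := by
    refine H.rate _ _ hm z fun i hi => ?_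
    rw [(grp1 ha h1 i).1.1 hi, d0, v0, mul_one]
  have eX : φ (kX θa θb) c = -(r (kX θa θb) * X) := by
    refine H.rate _ _ hm X fun i hi => ?_
    rcases (grp1 ha h1 i).2.1.1 hi with h | h | h
    · rw [h, d5, v5, mul_one]
    · rw [h, d6, v6, mul_one]
    · rw [h, d11, v11, mul_one]
  have eN : φ (kN θa θb) c = -(r (kN θa θb) * N) := by
    refine H.rate _ _ hm N fun i hi => ?_
    rw [(grp1 ha h1 i).2.2.1 hi, d9, v9, mul_one]
  rw [hs, hs2, e0, ez, eX, eN]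
  ring

section facts

variable (H : OutS (gC aS (bS θa θb)) LMd (dhC aS (bS θa θb)) (nC aS (bS θa θb)) lam A φ r)
  (ha : θa ≠ 0) (h1 : θb = θa) {t : ℝ}

include H ha h1

theorem phi0 : φ 0 (bx9 0 0 0 0 0 0 0 0 0) = 0 :=
  H.zero 0 _ fun i _ => by fin_cases i <;> simp [bx9]

/-- the height slot alone -/
theorem lam_z (y : ℝ) (hy : 0 ≤ y) : lam (bx9 y 0 0 0 0 0 0 0 0) = -(r (kz θa θb) * y) := by
  rw [lam1 H ha h1 (mem_bx.2 ⟨by linarith, by linarith, by linarith, by linarith, by linarith,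
    by linarith, by linarith⟩), phi0 H ha h1]
  ring

/-- the linear part: density of the window -/
theorem dens (ht : 0 ≤ t) : lam (bx9 t 0 t t t t t t t) ≤
    lam (bx9 0 0 t t t t t t t) + lam (bx9 t 0 0 0 0 0 0 0 0) := by
  rw [lam_z H ha h1 t ht, lam1 H ha h1 (mem_bx.2 ⟨by linarith, by linarith, by linarith,
    by linarith, by linarith, by linarith, by linarith⟩), lam1 H ha h1 (mem_bx.2 ⟨by linarith,
    by linarith, by linarith, by linarith, by linarith, by linarith, by linarith⟩)]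
  linarith

theorem frost {σ : ℝ} (hz : σ ≤ r (kz θa θb)) (y : ℝ) (hy : 0 ≤ y) :
    lam (bx9 y 0 0 0 0 0 0 0 0) ≤ -(σ * y) := by
  rw [lam_z H ha h1 y hy]
  have := mul_le_mul_of_nonneg_right hz hy
  linarith

theorem zero (ht : 0 ≤ t) (hE : lam (bx9 0 0 t 0 0 0 0 0 0) = 0) :
    lam (bx9 t 0 0 0 0 0 0 0 0) ≤ lam (bx9 t 0 t 0 0 0 0 0 0) := by
  rw [lam1 H ha h1 (mem_bx.2 ⟨by linarith, by linarith, by linarith,
    by linarith, by linarith, by linarith, by linarith⟩)] at hE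
  rw [lam_z H ha h1 t ht, lam1 H ha h1 (mem_bx.2 ⟨by linarith, by linarith, by linarith,
    by linarith, by linarith, by linarith, by linarith⟩)]
  linarith

theorem prod (ht : 0 ≤ t) {c x : ℝ} (hc : 0 ≤ c) (hct : c ≤ t) (hx : 0 ≤ x) (hxt : x ≤ t) :
    lam (bx9 t 0 t 0 0 0 0 0 0) - lam (bx9 t 0 t c 0 0 0 c 0) =
      lam (bx9 t 0 t 0 x 0 0 0 x) - lam (bx9 t 0 t c x 0 0 c x) := by
  rw [lam1 H ha h1 (mem_bx.2 ⟨by linarith, by linarith, by linarith,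
    by linarith, by linarith, by linarith, by linarith⟩), lam1 H ha h1 (mem_bx.2 ⟨by linarith,
    by linarith, by linarith, by linarith, by linarith, by linarith, by linarith⟩),
    lam1 H ha h1 (mem_bx.2 ⟨by linarith, by linarith, by linarith, by linarith, by linarith,
    by linarith, by linarith⟩), lam1 H ha h1 (mem_bx.2 ⟨by linarith, by linarith, by linarith,
    by linarith, by linarith, by linarith, by linarith⟩)]
  ring

end facts

end letters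

/-! ### one dimension in the windows -/

section win

variable {G : Geo TSet (Fin 2)} {L : ℕ → ℕ → LRay} {r : ℕ → ℝ} {g s : ℝ} {θ q : Fin 2 → ℝ}
    {Rg : ℝ} {B : Base} {I : ℕ → Finset (ℕ × ℝ)} {lev : ℕ → ℚ → ℕ} {A : ℕ → ℝ}
    {f : ℕ → ℚ → ℕ → ℤ → ℕ} {b : ℕ → ℚ → ℕ → TSet} {vm : ℕ → ℚ → ℝ} {w : Fin 2 → ℕ → ℚ → ℝ}
    {fr : ℕ → ℚ → ℕ × ℝ → LInc} {fl : ℕ → ℕ × ℝ → LInc} {sc : Fin 12 → ℕ → ℝ}
    {w0 sa sb δ R : ℝ} {I0 I' : ℕ → Finset (ℕ × ℝ)} {ν own : (Fin 12 → ℝ) → ℝ} {c₀ : ℝ}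

/-- axis of the flags: `a` is live -/
theorem axis_of {a b' : Fin 2} (hab : a ≠ b') :
    Axis (Xd954.cs a) (Xd954.xs a) (Xd954.cs b') (Xd954.xs b') := by
  fin_cases a <;> fin_cases b'
  · exact absurd rfl hab
  · exact Or.inl ⟨rfl, rfl, rfl, rfl⟩
  · exact Or.inr ⟨rfl, rfl, rfl, rfl⟩
  · exact absurd rfl hab

/-- algebra of the second component -/
theorem second {ta tb u v e : ℝ} (hb : 1 / 6 ≤ |tb|) (h : |ta * u + tb * v| ≤ e) :
    |v - -(ta / tb) * u| ≤ 6 * e := by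
  have hb0 : tb ≠ 0 := fun h0 => by rw [h0, abs_zero] at hb; norm_num at hb
  have e1 : v - -(ta / tb) * u = (ta * u + tb * v) / tb := by field_simp; ring
  rw [e1, abs_div, div_le_iff₀ (by linarith)]
  have h1 : 0 ≤ e := (abs_nonneg _).trans h
  nlinarith

/-- **863's `DimC` in the windows of the context** -/
theorem dimC_win
    (h : CtxT G L r g s θ q Rg B I lev A f b vm w fr fl sc w0 sa sb δ R I0 I' ν own c₀)
    {a b' : Fin 2} (hab : a ≠ b')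
    (ha : ∀ᶠ n in (U : Filter ℕ), ∀ x ∈ I n, |vb (fl n x) a| ≤ 2)
    (hb2 : ∀ᶠ n in (U : Filter ℕ), ∀ x ∈ I n, |vb (fl n x) b'| ≤ 2)
    (hb : ∀ᶠ n in (U : Filter ℕ), ∀ x ∈ I n, 1 / 2 ≤ |vb (fl n x) b'|)
    {v t0 y0 : ℝ} (ht0 : 0 < t0) (hv : 0 < v + t0)
    {C : ℝ} {D : Set (Fin 12 → ℝ)} {ν' lam : (Fin 12 → ℝ) → ℝ}
    {X : ℕ → Fin 12 → ℝ} {hh : ℕ → ℝ} (hh0 : Tendsto hh atTop (𝓝 0))
    (hX : ∀ i, 3 ≤ i → Tendsto (fun l => X l i) atTop (𝓝 (nb w0 sa sb v t0 y0 i)))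
    (e3 : ∀ l, X l 3 = X l 4) (e5 : ∀ l, X l 5 = X l 6) {t : ℝ} :
    WinD (fun W => DimC W (Xd954.cs a) (Xd954.xs a) (Xd954.cs b') (Xd954.xs b') t) B I0 I'
      (PL504.coN B lev w w0 sa sb fl) C D ν' lam X hh t := by
  refine ⟨fun n => n, tendsto_id.mono_left U_le_atTop, fun k' hk _ W win => ?_⟩
  obtain ⟨κ0, δ', hm, -⟩ := Kt710.exists_mrgz (ζ := y0 - t0 + 1) ht0 hv (by linarith : y0 < _)
  have hδ2 : 0 < δ' / 2 := by have := hm.pos; linarith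
  have hJ : ∀ᶠ n in (U : Filter ℕ), W.Cl n ⊆ I' n := by
    have h1 := win.wl.ok.cls.csub
    rw [win.hJ] at h1
    exact h1
  have near : ∀ᶠ n in (U : Filter ℕ), ∀ k, 3 ≤ k →
      |W.X n k - nb w0 sa sb v t0 y0 k| ≤ δ' / 2 := by
    rw [eventually_all]
    intro k
    by_cases hk3 : 3 ≤ k
    · have h1 := (win.X_tendsto (hX k hk3) hk).eventually (Metric.closedBall_mem_nhds _ hδ2)
      filter_upwards [h1] with n hn _
      rw [Real.dist_eq] at hn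
      exact hn
    · exact Eventually.of_forall fun n h3 => absurd h3 hk3
  have hF : Xd954.FlagE W.B I' lev fl (sN lev w) κ0 0 := by
    rw [win.hB]; exact h.fE (fun n => h.sub' n) κ0
  have hge : ∀ᶠ n in (U : Filter ℕ), ∀ x ∈ I' n,
      1 / 4 ≤ Xd954.bb (fl n x) 0 ^ 2 + Xd954.bb (fl n x) 1 ^ 2 :=
    Kt710.ctx_ge h fun n => h.sub' n
  have k3 : W.kap 3 = W.kap 4 := by rw [win.hkap]; rfl
  have k5 : W.kap 5 = W.kap 6 := by rw [win.hkap]; rfl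
  have hd := Xd954.dim_window win.wl.ok
    (by rw [win.hco, win.hB]; exact (Gd222.coN_eq B lev w w0 sa sb fl).symm) hJ hF hge hm near
    (win.ev_of (P := fun c _ => c 3 = c 4) (Eventually.of_forall e3) hk)
    (win.ev_of (P := fun c _ => c 5 = c 6) (Eventually.of_forall e5) hk) k3 k5
    (win.w_tendsto hh0 hk) (t + 1)
  have h6 : ∀ᶠ n in (U : Filter ℕ), 6 * W.B'.d n ^ (t + 1) ≤ W.B'.d n ^ t := by
    filter_upwards [W.B'.ev_const_log (Real.log 6) one_pos] with n hn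
    have hp := W.B'.pos n
    have e6 : (6:ℝ) ≤ W.B'.d n ^ (-(1:ℝ)) := by
      rw [← W.B'.exp_eq, ← Real.log_le_iff_le_exp (by norm_num)]
      exact hn
    have e7 : W.B'.d n ^ t = W.B'.d n ^ (-(1:ℝ)) * W.B'.d n ^ (t + 1) := by
      rw [← Real.rpow_add hp]; congr 1; ring
    rw [e7]
    exact mul_le_mul_of_nonneg_right e6 (Real.rpow_nonneg hp.le _)
  filter_upwards [hd, h6, hJ, ha, hb, hb2, win.wl.ok.ev_good] with n hn h6 hJn han hbn hb2n gd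
  have hs0 := h.sub' n (hJn gd.s0)
  have va := han _ hs0
  have vb1 := hbn _ hs0
  have vb2 := hb2n _ hs0
  set l := fl n (W.s₀ n) with hl
  have ba : Xd954.bb l a = vb l a := bb_vb l a
  have bb' : Xd954.bb l b' = vb l b' := bb_vb l b'
  set S := Real.sqrt (Xd954.bb l 0 ^ 2 + Xd954.bb l 1 ^ 2) with hS
  have hsum : Xd954.bb l 0 ^ 2 + Xd954.bb l 1 ^ 2 = vb l a ^ 2 + vb l b' ^ 2 := by
    rw [← ba, ← bb']
    fin_cases a <;> fin_cases b'
    · exact absurd rfl hab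
    · rfl
    · exact add_comm _ _
    · exact absurd rfl hab
  have hS9 : Xd954.bb l 0 ^ 2 + Xd954.bb l 1 ^ 2 ≤ 9 := by
    rw [hsum, ← sq_abs (vb l a), ← sq_abs (vb l b')]
    have := abs_nonneg (vb l a)
    have := abs_nonneg (vb l b')
    nlinarith
  have hS4 : 1 / 4 ≤ Xd954.bb l 0 ^ 2 + Xd954.bb l 1 ^ 2 := by
    rw [hsum, ← sq_abs (vb l b')]
    nlinarith [sq_nonneg (vb l a)]
  have hSp : 0 < S := Real.sqrt_pos.2 (by linarith)
  have hS3 : S ≤ 3 := by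
    rw [hS]
    exact Real.sqrt_le_iff.2 ⟨by norm_num, by linarith⟩
  have tb6 : 1 / 6 ≤ |Xd954.tau l b'| := by
    have e1 : Xd954.tau l b' = vb l b' / S := by
      unfold Xd954.tau; rw [bb']
    rw [e1, abs_div, abs_of_pos hSp, le_div_iff₀ hSp]
    linarith
  have hκ : |-(Xd954.tau l a / Xd954.tau l b')| ≤ 4 := by
    have e1 : Xd954.tau l a / Xd954.tau l b' = vb l a / vb l b' := by
      unfold Xd954.tau
      rw [ba, bb', div_div_div_cancel_right₀ hSp.ne']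
    rw [abs_neg, e1, abs_div, div_le_iff₀ (by linarith)]
    linarith
  intro x hx
  refine ⟨-(Xd954.tau l a / Xd954.tau l b'), hκ, fun y hy => ?_⟩
  obtain ⟨d1, d2⟩ := hn x hx y hy
  have sw : ∀ (p : Fin 2 → Fin 12),
      |Xd954.tau l 0 * W.crd n x y (p 0) + Xd954.tau l 1 * W.crd n x y (p 1)| ≤
        W.B'.d n ^ (t + 1) →
      |Xd954.tau l a * W.crd n x y (p a) + Xd954.tau l b' * W.crd n x y (p b')| ≤
        W.B'.d n ^ (t + 1) := by
    intro p hp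
    fin_cases a <;> fin_cases b'
    · exact absurd rfl hab
    · exact hp
    · rw [add_comm]; exact hp
    · exact absurd rfl hab
  exact ⟨(second tb6 (sw Xd954.cs d1)).trans h6, (second tb6 (sw Xd954.xs d2)).trans h6⟩

end win

/-! ### (A1) -/

section ctx

variable {G : Geo TSet (Fin 2)} {L : ℕ → ℕ → LRay} {r : ℕ → ℝ} {g s : ℝ} {θ q : Fin 2 → ℝ}
    {Rg : ℝ} {B : Base} {I : ℕ → Finset (ℕ × ℝ)} {lev : ℕ → ℚ → ℕ} {A : ℕ → ℝ}
    {f : ℕ → ℚ → ℕ → ℤ → ℕ} {b : ℕ → ℚ → ℕ → TSet} {vm : ℕ → ℚ → ℝ} {w : Fin 2 → ℕ → ℚ → ℝ}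
    {fr : ℕ → ℚ → ℕ × ℝ → LInc} {fl : ℕ → ℕ × ℝ → LInc} {sc : Fin 12 → ℕ → ℝ}
    {w0 sa sb δ R : ℝ} {I0 I' : ℕ → Finset (ℕ × ℝ)} {ν own : (Fin 12 → ℝ) → ℝ} {c₀ : ℝ}
    {J : Type*} {c δ' : ℝ} {F : J → (Fin 12 → ℝ) → ℝ} {j0 : J} {v0 lam0 : ℝ} {z : ℝ × ℝ}
    {u k : ℕ → ℝ} {lam : J → (Fin 12 → ℝ) → ℝ} {A' : ℝ × ℝ} {φ : ℕ → (Fin 12 → ℝ) → ℝ}
    {rr : ℕ → ℝ}

/-- **(A1), thin row, `σ = 1`** -/
theorem a1_u
    (h : CtxT G L r g s θ q Rg B I lev A f b vm w fr fl sc w0 sa sb δ R I0 I' ν own c₀)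
    (hq0 : 0 < q 0) (hq1 : 0 < q 1)
    (H : SigP R w0 sa sb (θ 0) (θ 1) s c (q 0) (q 1) δ' F j0 v0 lam0 z u k lam A' φ rr)
    (hf : F j0 = ν)
    (hθ : 0 < θ 0) (h1 : θ 1 = θ 0) (hRa : θ 0 < Rg) (hRb : |θ 1| < Rg)
    (hE : ∀ y : ℝ, 0 < y → lam j0 (bx9 0 0 y 0 0 0 0 0 0) = 0) :
    2 * (1 - s) ≤ lam j0 (bx9 1 0 1 0 0 0 0 0 0) - lam j0 (bx9 1 0 1 0 1 0 0 0 1) := by
  have hR : 0 ≤ R := h.sh.d0.le.trans h.sh.R_pos
  have hL := L_eq (θa := θ 0) (θb := θ 1) H.hl0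
  have hO := H.out
  rw [hL] at hO
  have hT := H.tan j0
  rw [hL, hf] at hT
  have ha : θ 0 ≠ 0 := hθ.ne'
  have hv0 := H.v00
  have hv1 := H.v01
  have hs0 := h.ext.s0
  have hs1 := h.ext.s1
  have hkz : 1 - s ≤ rr (kz (θ 0) (θ 1)) := by
    have h2 := H.own 1 one_pos
    rw [lam_z hO ha h1 1 zero_le_one] at h2
    linarith
  -- axes
  obtain ⟨bx, hbx⟩ := h.out.ax
  have hab : 1 - bx ≠ bx := by fin_cases bx <;> decide
  have hbd : ∀ c' : Fin 2, ∀ᶠ n in (U : Filter ℕ), ∀ x ∈ I n, |vb (fl n x) c'| ≤ 2 := by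
    intro c'
    filter_upwards [hbx] with n hn x hx using (hn x hx).2 _
  have hbg : ∀ᶠ n in (U : Filter ℕ), ∀ x ∈ I n, 1 / 2 ≤ |vb (fl n x) bx| := by
    filter_upwards [hbx] with n hn x hx using (hn x hx).1
  have ns := Sc5c748.nsTc_sig2 h hq0 hq1 H hf hθ hRa hRb hab (hbd _) hbg one_pos
  have sl : ∀ m : ℕ, _ := fun m => Sc5c748.xB_slots (w0 := w0) (sa := sa) (sb := sb) (θa := θ 0)
    (θb := θ 1) (v0 := v0) (lam0 := lam0) (z := z) (u := u) m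
  have p1 : 0 < θ 0 * (1 - v0) := mul_pos hθ (by linarith)
  have hdim := dimC_win (v := v0) (t0 := θ 0 * (1 - v0)) (y0 := θ 1 * (1 - v0)) (C := 2)
    (D := LMd) (ν' := ν) (lam := lam j0) (hh := fun m => u m * k m) (t := 1) h hab (hbd _) (hbd _)
    hbg p1 (by linarith) H.h0 (fun i _ => Sc5c748.xB_tend H.u0 i)
    (fun l => by obtain ⟨-, -, -, s3, s4, -⟩ := sl l; rw [s3, s4])
    (fun l => by obtain ⟨-, -, -, -, -, s5, s6, -⟩ := sl l; rw [s5, s6])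
  have hns : WinD (fun W => NsW W (Xd954.cs (1 - bx)) 10 (gam q) 1) B I0 I'
      (PL504.coN B lev w w0 sa sb fl) 2 LMd ν (lam j0)
      (xB (θ 0) (θ 1) w0 sa sb v0 lam0 z u) (fun m => u m * k m) 1 := by
    obtain ⟨kk, hkk, h2⟩ := ns
    exact ⟨kk, hkk, fun k' hk' hle W win => (h2 k' hk' hle W _ _ _ _ _ win).2⟩
  have key := a1_thin (WinU954.nprof_of_ext hR h.ext)
    (fun n => Sd369.coc_N B lev w w0 sa sb fl n) H.hpos hT one_pos (leg_LMd 1)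
    (by linarith : (0:ℝ) ≤ 1 - s) (by linarith)
    (dens hO ha h1 zero_le_one) (fun y hy _ => frost hO ha h1 hkz y hy)
    (fun _ => (0, 0))
    (fun l => by obtain ⟨s0, -, -, s3, -, s5, -⟩ := sl l; rw [s0, s3, s5])
    (fun l => by obtain ⟨s0, -, -, -, s4, -, s6, -⟩ := sl l; rw [s0, s4, s6])
    (fun l => by obtain ⟨s0, -, -, -, -, -, -, -, -, -, s10, s11⟩ := sl l; rw [s0, s10, s11])
    (fun k' e he h3 => H.hxD k' e he h3 1) (axis_of hab) hdim (gam_pos hq0 hq1) hns one_pos le_rfl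
    (zero hO ha h1 zero_le_one (hE 1 one_pos))
    (fun c' hc hct => (prod hO ha h1 zero_le_one hc.le hct zero_le_one le_rfl).le)
  linarith

end ctx

end Crest.Agent.R116.A1U388
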