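import Crest.Agent.R116.A1t_79
import Crest.Agent.R116.RowU8_194

/-!
# R116, (A1) of the rows (helper79), part 6: 194's literal

* **`a1B`** : `A1B η`
-/

set_option autoImplicit false
set_option linter.unusedVariables false

namespace Crest.Agent.R116.A1T79

/-- **the last binder of 194's `sigB_of`** -/
theorem a1B (η : ℝ) : RowU194.A1B η := by
  intro G L r g s θ q Rg B I lev A f b vm w fr fl sc w0 sa sb δ R I0 I' ν own c₀ h hN hs hR0 hR1
    hRg hinv v0 lam0 z u k lam A' φ rr S he hz
  have hab := abs_nonneg (θ 1)
  have hθ := hN.θa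
  exact a1t h hN.qa hN.qb hN.s0 (by linarith) hN.θa (by linarith) (by linarith) he S rfl hz

end Crest.Agent.R116.A1T79
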