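import Crest.Agent.R116.Sl1_850

/-!
# R116 (S0155), wave side: eta-slicing, part 2 (helper850): weighted `L^p` bounds for multipliers in
the last frequency variable (Jensen), in pointwise, weighted and set form.
-/

set_option autoImplicit false

open MeasureTheory FourierTransform
open scoped ContDiff ENNReal

namespace Crest.Agent.R116.Sl850

open Crest.Agent.R138.Defs Crest.Agent.R138.Wpk685

/-! ### Jensen with a weight -/

theorem jensen {α : Type*} [MeasurableSpace α] {μ : Measure α} {p : ℝ} (hp : 1 ≤ p)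
    {k F : α → ℝ≥0∞} (hk : AEMeasurable k μ) (hF : AEMeasurable F μ) :
    (∫⁻ a, k a * F a ∂μ) ^ p ≤ (∫⁻ a, k a ∂μ) ^ (p - 1) * ∫⁻ a, k a * F a ^ p ∂μ := by
  rcases hp.eq_or_lt with h1 | h1
  · subst h1
    simp
  have hpq : p.HolderConjugate (Real.conjExponent p) := Real.HolderConjugate.conjExponent h1
  set q := Real.conjExponent p with hq
  have hq0 : 0 < q := hpq.symm.pos
  have hp0 : 0 < p := by linarith
  have h2 := ENNReal.lintegral_mul_le_Lp_mul_Lq μ hpq.symm (f := fun a => k a ^ (1 / q))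
    (g := fun a => k a ^ (1 / p) * F a) (hk.pow_const _) ((hk.pow_const _).mul hF)
  have e1 : ∀ a, ((fun a => k a ^ (1 / q)) * fun a => k a ^ (1 / p) * F a) a = k a * F a := by
    intro a
    simp only [Pi.mul_apply]
    rw [← mul_assoc, ← ENNReal.rpow_add_of_nonneg _ _ (by positivity) (by positivity)]
    have : 1 / q + 1 / p = 1 := by
      have := hpq.symm.inv_add_inv_eq_one
      simpa [one_div] using this
    rw [this, ENNReal.rpow_one]
  have e2 : ∀ a, (k a ^ (1 / q)) ^ q = k a := by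
    intro a
    rw [← ENNReal.rpow_mul, one_div, inv_mul_cancel₀ hq0.ne', ENNReal.rpow_one]
  have e3 : ∀ a, (k a ^ (1 / p) * F a) ^ p = k a * F a ^ p := by
    intro a
    rw [ENNReal.mul_rpow_of_nonneg _ _ hp0.le, ← ENNReal.rpow_mul, one_div,
      inv_mul_cancel₀ hp0.ne', ENNReal.rpow_one]
  rw [lintegral_congr e1, lintegral_congr e2, lintegral_congr e3] at h2
  calc (∫⁻ a, k a * F a ∂μ) ^ p
      ≤ ((∫⁻ a, k a ∂μ) ^ (1 / q) * (∫⁻ a, k a * F a ^ p ∂μ) ^ (1 / p)) ^ p := by gcongr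
    _ = _ := by
      rw [ENNReal.mul_rpow_of_nonneg _ _ hp0.le, ← ENNReal.rpow_mul, ← ENNReal.rpow_mul, one_div p,
        inv_mul_cancel₀ hp0.ne', ENNReal.rpow_one]
      congr 2
      have h3 := hpq.symm.inv_add_inv_eq_one
      have h4 : q⁻¹ = 1 - p⁻¹ := by linarith
      rw [one_div, h4]
      field_simp

/-! ### the rapidly decreasing weight -/

/-- the weight. -/
noncomputable def wN (N : ℕ) (u : ℝ) : ℝ≥0∞ := ENNReal.ofReal (((1 + |u|) ^ N)⁻¹)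

theorem wN_meas (N : ℕ) : Measurable (wN N) := by
  unfold wN
  fun_prop

theorem wN_ne_top (N : ℕ) (u : ℝ) : wN N u ≠ ⊤ := ENNReal.ofReal_ne_top

theorem wN_shift (N : ℕ) {u v : ℝ} (hv : |v| ≤ 1) : wN N (u - v) ≤ ENNReal.ofReal (2 ^ N) * wN N u := by
  unfold wN
  rw [← ENNReal.ofReal_mul (by positivity)]
  refine ENNReal.ofReal_le_ofReal ?_
  have h1 : 1 + |u| ≤ 2 * (1 + |u - v|) := by
    have : |u| ≤ |u - v| + |v| := by
      calc |u| = |(u - v) + v| := by ring_nf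
        _ ≤ _ := abs_add_le _ _
    linarith [abs_nonneg (u - v)]
  rw [← div_eq_mul_inv, le_div_iff₀ (by positivity)]
  calc ((1 + |u - v|) ^ N)⁻¹ * (1 + |u|) ^ N ≤ ((1 + |u - v|) ^ N)⁻¹ * (2 * (1 + |u - v|)) ^ N := by
        gcongr
    _ = 2 ^ N := by
        rw [mul_pow]
        field_simp

theorem wN_anti {M N : ℕ} (h : M ≤ N) (u : ℝ) : wN N u ≤ wN M u := by
  unfold wN
  refine ENNReal.ofReal_le_ofReal (inv_anti₀ (by positivity) ?_)
  exact pow_le_pow_right₀ (by linarith [abs_nonneg u]) h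

theorem wN_int {N : ℕ} (hN : 2 ≤ N) : ∫⁻ u, wN N u < ⊤ := by
  refine (lintegral_mono fun u => wN_anti hN u).trans_lt ?_
  have h1 : ∫⁻ s : ℝ, ENNReal.ofReal ((1 + ‖s‖) ^ (-(2:ℝ))) < ⊤ := by
    apply finite_integral_one_add_norm
    norm_num
  refine (lintegral_mono fun u => ?_).trans_lt h1
  unfold wN
  rw [Real.rpow_neg (by positivity), Real.rpow_two, Real.norm_eq_abs]

/-! ### continuity -/

theorem ex_cont {h : E3 → ℝ} (hh : Measurable h) {g : E3 → ℂ} (hg : Integrable g) :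
    Continuous fun p : E3 × ℝ => ex h g p.1 p.2 := by
  unfold ex
  refine continuous_of_dominated (bound := fun ζ => ‖g ζ‖) ?_ ?_ hg.norm ?_
  · intro p
    refine hg.aestronglyMeasurable.mul ?_
    exact (continuous_ee.measurable.comp (by fun_prop)).aestronglyMeasurable
  · intro p
    refine Filter.Eventually.of_forall fun ζ => ?_
    rw [norm_mul, norm_ee, mul_one]
  · refine Filter.Eventually.of_forall fun ζ => ?_
    refine continuous_const.mul (continuous_ee.comp ?_)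
    fun_prop

theorem ex_cont_comp {α : Type*} [TopologicalSpace α] {h : E3 → ℝ} (hh : Measurable h)
    {g : E3 → ℂ} (hg : Integrable g) {f : α → E3} {k : α → ℝ} (hf : Continuous f)
    (hk : Continuous k) : Continuous fun a => ex h g (f a) (k a) := by
  have h1 : Continuous fun a => (f a, k a) := hf.prodMk hk
  have h2 := (ex_cont hh hg).comp h1
  exact h2

theorem norm_ex_le (h : E3 → ℝ) (g : E3 → ℂ) (X : E3) (s : ℝ) : ‖ex h g X s‖ ≤ ∫ ζ, ‖g ζ‖ := by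
  unfold ex
  refine (norm_integral_le_integral_norm _).trans_eq ?_
  congr 1
  ext ζ
  rw [norm_mul, norm_ee, mul_one]

/-! ### the pointwise bound -/

/-- the multiplier `φ(ζ₂/κ - l)`. -/
noncomputable def mul2 (φ : ℝ → ℂ) (κ l : ℝ) (g : E3 → ℂ) (ζ : E3) : ℂ := φ (ζ 2 / κ - l) * g ζ

theorem point_p {φ : ℝ → ℂ} (h1 : HasCompactSupport φ) (h2 : ContDiff ℝ ∞ φ) {p : ℝ} (hp : 1 ≤ p)
    (N : ℕ) : ∃ C : ℝ, 0 ≤ C ∧ ∀ h : E3 → ℝ, Measurable h → ∀ g : E3 → ℂ, Integrable g →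
      ∀ κ : ℝ, 0 < κ → ∀ (l : ℝ) (X : E3) (s v : ℝ), |v| ≤ κ⁻¹ →
      ‖ex h (mul2 φ κ l g) (X + v • ey) s‖ₑ ^ p ≤
        ENNReal.ofReal C * ∫⁻ u, wN N u * ‖ex h g (X + (u / κ) • ey) s‖ₑ ^ p := by
  obtain ⟨K, hKc, hKi, hKd, hφ⟩ := kern h1 h2
  obtain ⟨C, hC, hCd⟩ := hKd N
  have hp0 : 0 < p := by linarith
  have hfin : ∫⁻ u, ‖K u‖ₑ ≠ ⊤ := hKi.hasFiniteIntegral.ne
  refine ⟨(∫⁻ u, ‖K u‖ₑ).toReal ^ (p - 1) * (C * 2 ^ N), by positivity, ?_⟩
  intro h hh g hg κ hκ l X s v hv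
  have e1 : ex h (mul2 φ κ l g) (X + v • ey) s =
      ∫ u, K (u - κ * v) * ee (-((u - κ * v) * l)) * ex h g (X + (u / κ) • ey) s :=
    ex_mult_shift hh hKi hφ hg hκ.ne' l X s v
  have hcx : Continuous fun u : ℝ => ex h g (X + (u / κ) • ey) s :=
    ex_cont_comp hh hg (by fun_prop) continuous_const
  have e2 : ‖ex h (mul2 φ κ l g) (X + v • ey) s‖ₑ ≤
      ∫⁻ u, ‖K (u - κ * v)‖ₑ * ‖ex h g (X + (u / κ) • ey) s‖ₑ := by
    rw [e1]
    refine (enorm_integral_le_lintegral_enorm _).trans_eq ?_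
    refine lintegral_congr fun u => ?_
    have : ‖ee (-((u - κ * v) * l))‖ₑ = 1 := by
      rw [← ofReal_norm, norm_ee, ENNReal.ofReal_one]
    rw [enorm_mul, enorm_mul, this, mul_one]
  have hkm : Measurable fun u : ℝ => ‖K (u - κ * v)‖ₑ :=
    (hKc.comp (by fun_prop)).measurable.enorm
  have e3 : ∫⁻ u, ‖K (u - κ * v)‖ₑ = ∫⁻ u, ‖K u‖ₑ :=
    lintegral_sub_right_eq_self (fun u => ‖K u‖ₑ) (κ * v)
  have hkv : |κ * v| ≤ 1 := by
    rw [abs_mul, abs_of_pos hκ]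
    calc κ * |v| ≤ κ * κ⁻¹ := by gcongr
      _ = 1 := mul_inv_cancel₀ hκ.ne'
  have e4 : ∀ u, ‖K (u - κ * v)‖ₑ ≤ ENNReal.ofReal (C * 2 ^ N) * wN N u := by
    intro u
    have h3 : ‖K (u - κ * v)‖ₑ ≤ ENNReal.ofReal C * wN N (u - κ * v) := by
      rw [← ofReal_norm]
      unfold wN
      rw [← ENNReal.ofReal_mul hC]
      exact ENNReal.ofReal_le_ofReal (hCd _)
    refine h3.trans ?_
    rw [ENNReal.ofReal_mul hC, mul_assoc]
    gcongr
    exact wN_shift N hkv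
  calc ‖ex h (mul2 φ κ l g) (X + v • ey) s‖ₑ ^ p
      ≤ (∫⁻ u, ‖K (u - κ * v)‖ₑ * ‖ex h g (X + (u / κ) • ey) s‖ₑ) ^ p := by gcongr
    _ ≤ (∫⁻ u, ‖K (u - κ * v)‖ₑ) ^ (p - 1) *
        ∫⁻ u, ‖K (u - κ * v)‖ₑ * ‖ex h g (X + (u / κ) • ey) s‖ₑ ^ p :=
      jensen hp hkm.aemeasurable hcx.measurable.enorm.aemeasurable
    _ ≤ (∫⁻ u, ‖K u‖ₑ) ^ (p - 1) *
        ∫⁻ u, ENNReal.ofReal (C * 2 ^ N) * (wN N u * ‖ex h g (X + (u / κ) • ey) s‖ₑ ^ p) := by
      rw [e3]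
      refine mul_le_mul_right (lintegral_mono fun u => ?_) _
      rw [← mul_assoc]
      exact mul_le_mul_left (e4 u) _
    _ = _ := by
      rw [lintegral_const_mul' _ _ ENNReal.ofReal_ne_top, ← mul_assoc]
      congr 1
      rw [ENNReal.ofReal_mul (p := (∫⁻ u, ‖K u‖ₑ).toReal ^ (p - 1)) (by positivity),
        ← ENNReal.ofReal_rpow_of_nonneg ENNReal.toReal_nonneg (by linarith), ENNReal.ofReal_toReal hfin]

/-- weighted form. -/
theorem weight_p {φ : ℝ → ℂ} (h1 : HasCompactSupport φ) (h2 : ContDiff ℝ ∞ φ) {p : ℝ} (hp : 1 ≤ p)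
    (N : ℕ) : ∃ C : ℝ, 0 ≤ C ∧ ∀ h : E3 → ℝ, Measurable h → ∀ g : E3 → ℂ, Integrable g →
      ∀ κ : ℝ, 0 < κ → ∀ (l v : ℝ), |v| ≤ κ⁻¹ → ∀ W : E3 × ℝ → ℝ≥0∞, Measurable W →
      ∫⁻ z, W z * ‖ex h (mul2 φ κ l g) (z.1 + v • ey) z.2‖ₑ ^ p ≤
        ENNReal.ofReal C * ∫⁻ u, wN N u *
          ∫⁻ z, W z * ‖ex h g (z.1 + (u / κ) • ey) z.2‖ₑ ^ p := by
  obtain ⟨C, hC, H⟩ := point_p h1 h2 hp N
  refine ⟨C, hC, fun h hh g hg κ hκ l v hv W hW => ?_⟩
  have hc : Continuous fun q : (E3 × ℝ) × ℝ => ex h g (q.1.1 + (q.2 / κ) • ey) q.1.2 :=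
    ex_cont_comp hh hg (by fun_prop) (by fun_prop)
  calc ∫⁻ z, W z * ‖ex h (mul2 φ κ l g) (z.1 + v • ey) z.2‖ₑ ^ p
      ≤ ∫⁻ z, W z * (ENNReal.ofReal C * ∫⁻ u, wN N u * ‖ex h g (z.1 + (u / κ) • ey) z.2‖ₑ ^ p) := by
        gcongr with z
        exact H h hh g hg κ hκ l z.1 z.2 v hv
    _ = ENNReal.ofReal C * ∫⁻ z, ∫⁻ u, W z * (wN N u * ‖ex h g (z.1 + (u / κ) • ey) z.2‖ₑ ^ p) := by
        rw [← lintegral_const_mul' _ _ ENNReal.ofReal_ne_top]
        refine lintegral_congr fun z => ?_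
        rw [mul_left_comm]
        congr 1
        rw [lintegral_const_mul]
        have hcz : Continuous fun u : ℝ => ex h g (z.1 + (u / κ) • ey) z.2 :=
          ex_cont_comp hh hg (by fun_prop) continuous_const
        exact (wN_meas N).mul (hcz.measurable.enorm.pow_const _)
    _ = ENNReal.ofReal C * ∫⁻ u, ∫⁻ z, W z * (wN N u * ‖ex h g (z.1 + (u / κ) • ey) z.2‖ₑ ^ p) := by
        congr 1
        refine lintegral_lintegral_swap ?_
        refine Measurable.aemeasurable ?_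
        exact (hW.comp measurable_fst).mul (((wN_meas N).comp measurable_snd).mul
          (hc.measurable.enorm.pow_const _))
    _ = _ := by
        congr 1
        refine lintegral_congr fun u => ?_
        rw [← lintegral_const_mul' _ _ (wN_ne_top N u)]
        refine lintegral_congr fun z => ?_
        ring

/-- **set form**: the energy on `K + v ey` is at most `C` times the energy of `g` on the worst
translate of `K`. -/
theorem set_p {φ : ℝ → ℂ} (h1 : HasCompactSupport φ) (h2 : ContDiff ℝ ∞ φ) {p : ℝ} (hp : 1 ≤ p) :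
    ∃ C : ℝ, 0 ≤ C ∧ ∀ h : E3 → ℝ, Measurable h → ∀ g : E3 → ℂ, Integrable g →
      ∀ κ : ℝ, 0 < κ → ∀ (l v : ℝ), |v| ≤ κ⁻¹ → ∀ K : Set (E3 × ℝ), MeasurableSet K → ∀ M : ℝ≥0∞,
      (∀ a : ℝ, ∫⁻ z in K, ‖ex h g (z.1 + a • ey) z.2‖ₑ ^ p ≤ M) →
      ∫⁻ z in K, ‖ex h (mul2 φ κ l g) (z.1 + v • ey) z.2‖ₑ ^ p ≤ ENNReal.ofReal C * M := by
  obtain ⟨C, hC, H⟩ := weight_p h1 h2 hp 2
  have hfin := (wN_int le_rfl).ne
  refine ⟨C * (∫⁻ u, wN 2 u).toReal, by positivity, fun h hh g hg κ hκ l v hv K hK M hM => ?_⟩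
  have e : ∀ F : E3 × ℝ → ℝ≥0∞, ∫⁻ z in K, F z = ∫⁻ z, K.indicator (fun _ => 1) z * F z := by
    intro F
    rw [← lintegral_indicator hK]
    refine lintegral_congr fun z => ?_
    by_cases hz : z ∈ K <;> simp [hz]
  rw [e]
  refine (H h hh g hg κ hκ l v hv (K.indicator fun _ => 1) (measurable_const.indicator hK)).trans ?_
  rw [ENNReal.ofReal_mul hC, ENNReal.ofReal_toReal hfin, mul_assoc]
  gcongr
  calc ∫⁻ u, wN 2 u * ∫⁻ z, K.indicator (fun _ => 1) z * ‖ex h g (z.1 + (u / κ) • ey) z.2‖ₑ ^ p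
      ≤ ∫⁻ u, wN 2 u * M := by
        gcongr with u
        rw [← e fun z => ‖ex h g (z.1 + (u / κ) • ey) z.2‖ₑ ^ p]
        exact hM _
    _ = _ := lintegral_mul_const _ (wN_meas 2)

end Crest.Agent.R116.Sl850
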