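import Crest.Agent.R116.CWp4_480

/-!
# R116: UPPER for the cone (F3), generic part 1 (helper192)

Over 480's generic packet machine (`CWp1-4_480`), any inner product space `V`:
* `pa n A x = (1 + ‖A x‖)^{-n}` plate weights;
* `lc_pt`, `lcA`: local constancy: a function with frequencies in `ξ0 + adj A1 (ball R)` sees the small
  cell of the frame `A` (`‖A1 x‖ ≤ L ‖A x‖`) with the proportion `adet A1 / adet A` of the plate of the
  frame `A1`;
* `WE_sum_sq`, `WE_split`: Cauchy–Schwarz with an active part.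
-/

set_option autoImplicit false
set_option linter.unusedSectionVars false

open MeasureTheory FourierTransform
open scoped ContDiff ENNReal

namespace Crest.Agent.R116.Up192

open Crest.Agent.R138.Wf448
open Crest.Agent.R138.Defs (ee)
open Crest.Agent.R116.CWp480

variable {V : Type} [NormedAddCommGroup V] [InnerProductSpace ℝ V] [FiniteDimensional ℝ V]
  [MeasurableSpace V] [BorelSpace V]

/-! ### plate weights -/

/-- plate weight. -/
noncomputable def pa (n : ℕ) (A : V ≃L[ℝ] V) (x : V) : ℝ := ((1 + ‖A x‖) ^ n)⁻¹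

theorem pa_pos (n : ℕ) (A : V ≃L[ℝ] V) (x : V) : 0 < pa n A x := by unfold pa; positivity

theorem pa_le_one (n : ℕ) (A : V ≃L[ℝ] V) (x : V) : pa n A x ≤ 1 := by
  unfold pa
  exact inv_le_one_of_one_le₀ (one_le_pow₀ (by linarith [norm_nonneg (A x)]))

theorem SV_pa (A : V ≃L[ℝ] V) (n : ℕ) (c : V) : SV A 1 n (fun y => pa n A (y - c)) := SV_pt A n c

theorem dw_le_pa (n : ℕ) (A : V ≃L[ℝ] V) (x : V) :
    dw n (A : V →L[ℝ] V) x ≤ 2 ^ n * pa n A x := by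
  rw [dw_def]
  unfold pa
  have hu := norm_nonneg (A x)
  rw [← div_eq_mul_inv, inv_eq_one_div, div_le_div_iff₀ (by positivity) (by positivity), one_mul,
    ← mul_pow]
  refine pow_le_pow_left₀ (by positivity) ?_ n
  nlinarith [sq_nonneg (‖A x‖ - 1 / 2)]

theorem pa_anti (n k : ℕ) (A : V ≃L[ℝ] V) (x : V) : pa (n + k) A x ≤ pa n A x := by
  unfold pa
  refine inv_anti₀ (by positivity) ?_
  exact pow_le_pow_right₀ (by linarith [norm_nonneg (A x)]) (Nat.le_add_right n k)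

theorem pa_add_le {X : ℝ} (hX : 0 ≤ X) (n k : ℕ) {A : V ≃L[ℝ] V} {x : V} (h : X ≤ ‖A x‖) :
    pa (n + k) A x ≤ ((1 + X) ^ k)⁻¹ * pa n A x := by
  unfold pa
  rw [pow_add, mul_inv, mul_comm]
  refine mul_le_mul_of_nonneg_right ?_ (by positivity)
  exact inv_anti₀ (by positivity) (pow_le_pow_left₀ (by positivity) (by linarith) k)

theorem pa_shift (n : ℕ) (A : V ≃L[ℝ] V) (x y : V) :
    pa n A x ≤ (1 + ‖A (x - y)‖) ^ n * pa n A y := by
  have h := (SV_pt A n 0).sv x y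
  simpa [pa] using h

/-! ### scaled frames -/

/-- the frame `R • A`. -/
noncomputable def scA (R : ℝ) (hR : R ≠ 0) (A : V ≃L[ℝ] V) : V ≃L[ℝ] V :=
  A.trans (ContinuousLinearEquiv.smulLeft (Units.mk0 R hR))

theorem scA_apply (R : ℝ) (hR : R ≠ 0) (A : V ≃L[ℝ] V) (x : V) : scA R hR A x = R • A x := rfl

theorem adj_scA (R : ℝ) (hR : R ≠ 0) (A : V ≃L[ℝ] V) (η : V) :
    adj (scA R hR A : V →L[ℝ] V) η = adj (A : V →L[ℝ] V) (R • η) := by
  refine ext_inner_right ℝ fun v => ?_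
  rw [ContinuousLinearMap.adjoint_inner_left, ContinuousLinearMap.adjoint_inner_left]
  change inner ℝ η (R • A v) = inner ℝ (R • η) (A v)
  rw [real_inner_smul_left, real_inner_smul_right]

theorem adet_scA {R : ℝ} (hR : 0 < R) (A : V ≃L[ℝ] V) :
    adet (scA R hR.ne' A : V →L[ℝ] V) = R ^ Module.finrank ℝ V * adet (A : V →L[ℝ] V) := by
  unfold adet
  have e : ((scA R hR.ne' A : V →L[ℝ] V) : V →ₗ[ℝ] V) = R • ((A : V →L[ℝ] V) : V →ₗ[ℝ] V) := by
    ext x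
    rfl
  rw [e, LinearMap.det_smul, abs_mul, abs_of_pos (pow_pos hR _)]

/-! ### local constancy -/

theorem lc_pt (n : ℕ) : ∃ C : ℝ, 0 ≤ C ∧ ∀ (A1 : V ≃L[ℝ] V) (R : ℝ), 1 ≤ R → ∀ (ξ0 : V)
    (f : V → ℂ), Integrable f →
    (∀ ξ, f ξ ≠ 0 → ∃ η, ‖η‖ ≤ R ∧ ξ = ξ0 + adj (A1 : V →L[ℝ] V) η) → ∀ x,
    ‖𝓕⁻ f x‖ₑ ^ 2 ≤ ENNReal.ofReal (C * (R ^ Module.finrank ℝ V * adet (A1 : V →L[ℝ] V))) *
      wE n (A1 : V →L[ℝ] V) x f := by
  obtain ⟨C, hC, h⟩ := loc_const V n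
  refine ⟨C, hC, ?_⟩
  intro A1 R hR ξ0 f hf hs x
  have hR0 : 0 < R := one_pos.trans_le hR
  have h1 := h (scA R hR0.ne' A1) ξ0 f hf ?_ x
  · rw [adet_scA hR0] at h1
    refine h1.trans (mul_le_mul_right ?_ _)
    refine wE_mono fun y => ?_
    change ‖A1 y‖ ≤ ‖R • A1 y‖
    rw [norm_smul, Real.norm_eq_abs, abs_of_pos hR0]
    nlinarith [norm_nonneg (A1 y)]
  · intro ξ hξ
    obtain ⟨η, h2, h3⟩ := hs ξ hξ
    refine ⟨R⁻¹ • η, ?_, ?_⟩
    · rw [norm_smul, norm_inv, Real.norm_eq_abs, abs_of_pos hR0, inv_mul_le_iff₀ hR0, mul_one]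
      exact h2
    · rw [adj_scA, smul_smul, mul_inv_cancel₀ hR0.ne', one_smul]
      exact h3

theorem meas_dwc (n : ℕ) (A : V ≃L[ℝ] V) (c : V) :
    Measurable fun x : V => dw n (A : V →L[ℝ] V) (x - c) :=
  ((continuous_dw n (A : V →L[ℝ] V)).comp (continuous_id.sub continuous_const)).measurable

/-- Peetre inequality for two frames. -/
theorem dw_peetre (n : ℕ) {A A1 : V ≃L[ℝ] V} {L : ℝ} (hL : 1 ≤ L) (hA : ∀ x, ‖A1 x‖ ≤ L * ‖A x‖)
    (c y z : V) : dw n (A : V →L[ℝ] V) (z - c) * dw n (A1 : V →L[ℝ] V) (y - z) ≤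
      (2 * L ^ 2) ^ n * dw n (A1 : V →L[ℝ] V) (y - c) := by
  rw [dw_def, dw_def, dw_def, ← mul_inv, ← mul_pow, ← div_eq_mul_inv, ← one_div,
    div_le_div_iff₀ (by positivity) (by positivity), one_mul, ← mul_pow]
  refine pow_le_pow_left₀ (by positivity) ?_ n
  have a1 : ‖A1 (y - c)‖ ≤ ‖A1 (y - z)‖ + L * ‖A (z - c)‖ := by
    have e : A1 (y - c) = A1 (y - z) + A1 (z - c) := by rw [← map_add]; congr 1; abel
    rw [e]
    exact (norm_add_le _ _).trans (add_le_add le_rfl (hA _))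
  have n1 := norm_nonneg (A1 (y - c))
  have n2 := norm_nonneg (A1 (y - z))
  have n3 := norm_nonneg (A (z - c))
  have a2 : ‖A1 (y - c)‖ ^ 2 ≤ 2 * ‖A1 (y - z)‖ ^ 2 + 2 * (L ^ 2 * ‖A (z - c)‖ ^ 2) := by
    have := pow_le_pow_left₀ n1 a1 2
    nlinarith [sq_nonneg (‖A1 (y - z)‖ - L * ‖A (z - c)‖)]
  have hL2 : 1 ≤ L ^ 2 := one_le_pow₀ hL
  nlinarith [mul_nonneg (sub_nonneg.2 hL2) (sq_nonneg ‖A1 (y - z)‖),
    mul_nonneg (mul_nonneg (by positivity : (0:ℝ) ≤ L ^ 2) (sq_nonneg ‖A1 (y - z)‖))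
      (sq_nonneg ‖A (z - c)‖)]

/-- **local constancy** on a small cell. -/
theorem lcA (n : ℕ) : ∃ C : ℝ, 0 ≤ C ∧ ∀ (A A1 : V ≃L[ℝ] V) (L R : ℝ), 1 ≤ L → 1 ≤ R →
    (∀ x, ‖A1 x‖ ≤ L * ‖A x‖) → ∀ (c ξ0 : V) (f : V → ℂ), Integrable f →
    (∀ ξ, f ξ ≠ 0 → ∃ η, ‖η‖ ≤ R ∧ ξ = ξ0 + adj (A1 : V →L[ℝ] V) η) →
    wE (n + dd V) (A : V →L[ℝ] V) c f ≤
      ENNReal.ofReal (C * (L ^ (2 * n) * R ^ Module.finrank ℝ V) *
        (adet (A1 : V →L[ℝ] V) / adet (A : V →L[ℝ] V))) * wE n (A1 : V →L[ℝ] V) c f := by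
  obtain ⟨C1, hC1, h1⟩ := lc_pt (V := V) n
  have hcd := cdec_nonneg (V := V)
  refine ⟨C1 * 2 ^ n * cdec V, by positivity, ?_⟩
  intro A A1 L R hL hR hA c ξ0 f hf hs
  have ha := adet0 A
  have ha1 := adet0 A1
  have key := h1 A1 R hR ξ0 f hf hs
  set D : ℝ := C1 * (R ^ Module.finrank ℝ V * adet (A1 : V →L[ℝ] V)) with hD
  have hD0 : 0 ≤ D := by positivity
  have hF := measurable_nsq hf
  simp only [wE_eq] at key ⊢
  have hin : ∀ y, ∫⁻ z, ENNReal.ofReal (dw (n + dd V) (A : V →L[ℝ] V) (z - c)) *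
      ENNReal.ofReal (dw n (A1 : V →L[ℝ] V) (y - z)) ≤
      ENNReal.ofReal ((2 * L ^ 2) ^ n * cdec V * (adet (A : V →L[ℝ] V))⁻¹) *
        ENNReal.ofReal (dw n (A1 : V →L[ℝ] V) (y - c)) := by
    intro y
    calc ∫⁻ z, ENNReal.ofReal (dw (n + dd V) (A : V →L[ℝ] V) (z - c)) *
          ENNReal.ofReal (dw n (A1 : V →L[ℝ] V) (y - z))
        ≤ ∫⁻ z, ENNReal.ofReal ((2 * L ^ 2) ^ n * dw n (A1 : V →L[ℝ] V) (y - c)) *
            dec (A (z - c)) := by
          refine lintegral_mono fun z => ?_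
          unfold dec
          rw [← ENNReal.ofReal_mul (dw_pos _ _ _).le, ← ENNReal.ofReal_mul (by
            have := (dw_pos n (A1 : V →L[ℝ] V) (y - c)).le
            positivity)]
          refine ENNReal.ofReal_le_ofReal ?_
          have e1 : dw (n + dd V) (A : V →L[ℝ] V) (z - c) =
              dw n (A : V →L[ℝ] V) (z - c) * ((1 + ‖A (z - c)‖ ^ 2) ^ dd V)⁻¹ := by
            rw [dw_def, dw_def, pow_add, mul_inv]
          rw [e1, mul_right_comm]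
          exact mul_le_mul_of_nonneg_right (dw_peetre n hL hA c y z) (by positivity)
      _ = _ := by
          rw [lintegral_const_mul' _ _ ENNReal.ofReal_ne_top, lintegral_scale' A dec c,
            lintegral_dec, ← ENNReal.ofReal_mul (by positivity), ← ENNReal.ofReal_mul (by
              have := (dw_pos n (A1 : V →L[ℝ] V) (y - c)).le
              positivity), ← ENNReal.ofReal_mul (by positivity)]
          congr 1
          ring
  calc ∫⁻ x, ENNReal.ofReal (dw (n + dd V) (A : V →L[ℝ] V) (x - c)) * ‖𝓕⁻ f x‖ₑ ^ 2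
      ≤ ∫⁻ x, ENNReal.ofReal D * (ENNReal.ofReal (dw (n + dd V) (A : V →L[ℝ] V) (x - c)) *
          ∫⁻ y, ENNReal.ofReal (dw n (A1 : V →L[ℝ] V) (y - x)) * ‖𝓕⁻ f y‖ₑ ^ 2) := by
        refine lintegral_mono fun x => ?_
        rw [mul_left_comm]
        exact mul_le_mul_right (key x) _
    _ = ENNReal.ofReal D * ∫⁻ x, ENNReal.ofReal (dw (n + dd V) (A : V →L[ℝ] V) (x - c)) *
          ∫⁻ y, ENNReal.ofReal (dw n (A1 : V →L[ℝ] V) (y - x)) * ‖𝓕⁻ f y‖ₑ ^ 2 :=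
        lintegral_const_mul' _ _ ENNReal.ofReal_ne_top
    _ = ENNReal.ofReal D * ∫⁻ y, (∫⁻ z, ENNReal.ofReal (dw (n + dd V) (A : V →L[ℝ] V) (z - c)) *
          ENNReal.ofReal (dw n (A1 : V →L[ℝ] V) (y - z))) * ‖𝓕⁻ f y‖ₑ ^ 2 := by
        rw [tonelli_w (meas_dwc _ A c) hF]
    _ ≤ ENNReal.ofReal D * ∫⁻ y, (ENNReal.ofReal ((2 * L ^ 2) ^ n * cdec V *
          (adet (A : V →L[ℝ] V))⁻¹) * ENNReal.ofReal (dw n (A1 : V →L[ℝ] V) (y - c))) *
            ‖𝓕⁻ f y‖ₑ ^ 2 := by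
        refine mul_le_mul_right (lintegral_mono fun y => ?_) _
        exact mul_le_mul_left (hin y) _
    _ = _ := by
        simp only [mul_assoc (ENNReal.ofReal ((2 * L ^ 2) ^ n * cdec V * (adet (A : V →L[ℝ] V))⁻¹))]
        rw [lintegral_const_mul' _ _ ENNReal.ofReal_ne_top, ← mul_assoc,
          ← ENNReal.ofReal_mul hD0]
        congr 2
        rw [hD, mul_pow, ← pow_mul]
        field_simp

/-! ### sums with an active part -/

theorem enorm_sum_sq {ι : Type*} (s : Finset ι) (f : ι → V → ℂ)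
    (hf : ∀ i ∈ s, Integrable (f i)) (y : V) :
    ‖𝓕⁻ (fun ξ => ∑ i ∈ s, f i ξ) y‖ₑ ^ 2 ≤ (s.card : ℝ≥0∞) * ∑ i ∈ s, ‖𝓕⁻ (f i) y‖ₑ ^ 2 := by
  have h1 : 𝓕⁻ (fun ξ => ∑ i ∈ s, f i ξ) y = ∑ i ∈ s, 𝓕⁻ (f i) y := by
    simp only [fourierInv_eq_int]
    rw [← integral_finsetSum]
    · refine integral_congr_ae (Filter.Eventually.of_forall fun ξ => ?_)
      simp only [Finset.sum_mul]
    · intro i hi
      exact (hf i hi).mul_bdd (c := 1) (mod_cont y).aestronglyMeasurable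
        (Filter.Eventually.of_forall fun ξ => (norm_ee _).le)
  rw [h1]
  have h2 : ‖∑ i ∈ s, 𝓕⁻ (f i) y‖ ^ 2 ≤ (s.card : ℝ) * ∑ i ∈ s, ‖𝓕⁻ (f i) y‖ ^ 2 := by
    refine (pow_le_pow_left₀ (norm_nonneg _) (norm_sum_le _ _) 2).trans ?_
    exact sq_sum_le_card_mul_sum_sq
  have e : ∀ w : ℂ, ‖w‖ₑ ^ 2 = ENNReal.ofReal (‖w‖ ^ 2) := fun w => by
    rw [← ofReal_norm, ENNReal.ofReal_pow (norm_nonneg _)]
  simp only [e]
  rw [← ENNReal.ofReal_sum_of_nonneg (fun i _ => by positivity), ← ENNReal.ofReal_natCast,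
    ← ENNReal.ofReal_mul (by positivity)]
  exact ENNReal.ofReal_le_ofReal h2

theorem wE_sum_sq (n : ℕ) (A : V →L[ℝ] V) (c : V) {ι : Type*} (s : Finset ι) (f : ι → V → ℂ)
    (hf : ∀ i ∈ s, Integrable (f i)) : wE n A c (fun ξ => ∑ i ∈ s, f i ξ) ≤
      (s.card : ℝ≥0∞) * ∑ i ∈ s, wE n A c (f i) := by
  have hm : Measurable fun x : V => ENNReal.ofReal (dw n A (x - c)) :=
    ((continuous_dw n A).comp (continuous_id.sub continuous_const)).measurable.ennreal_ofReal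
  simp only [wE_eq]
  rw [← lintegral_finsetSum']
  · rw [← lintegral_const_mul' _ _ (ENNReal.natCast_ne_top _)]
    refine lintegral_mono fun x => ?_
    rw [← Finset.mul_sum, mul_left_comm]
    exact mul_le_mul_right (enorm_sum_sq s f hf x) _
  · intro i hi
    exact (hm.mul (measurable_nsq (hf i hi))).aemeasurable

theorem wE_split (n : ℕ) (A : V →L[ℝ] V) (c : V) {ι : Type*} (s : Finset ι) (P : ι → Prop)
    [DecidablePred P] (f : ι → V → ℂ) (hf : ∀ i ∈ s, Integrable (f i)) :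
    wE n A c (fun ξ => ∑ i ∈ s, f i ξ) ≤
      2 * (((s.filter P).card : ℝ≥0∞) * ∑ i ∈ s.filter P, wE n A c (f i) +
        ((s.filter fun i => ¬ P i).card : ℝ≥0∞) * ∑ i ∈ s.filter fun i => ¬ P i, wE n A c (f i)) := by
  classical
  have h1 := wE_sum_sq n A c (Finset.univ : Finset Bool)
    (fun j ξ => ∑ i ∈ s.filter (fun i => (decide (P i)) = j), f i ξ)
    (fun j _ => integrable_finsetSum _ fun i hi => hf i (Finset.mem_filter.1 hi).1)
  have e1 : (fun ξ => ∑ j : Bool, ∑ i ∈ s.filter (fun i => (decide (P i)) = j), f i ξ) =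
      fun ξ => ∑ i ∈ s, f i ξ := by
    funext ξ
    exact Finset.sum_fiberwise s _ _
  rw [e1] at h1
  refine h1.trans ?_
  simp only [Fintype.univ_bool, Finset.mem_singleton, Bool.true_eq_false, not_false_eq_true,
    Finset.card_insert_of_notMem, Finset.card_singleton, Finset.sum_insert, Finset.sum_singleton,
    decide_eq_true_eq, decide_eq_false_iff_not]
  norm_num
  gcongr
  · exact wE_sum_sq n A c _ f (fun i hi => hf i (Finset.mem_filter.1 hi).1)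
  · exact wE_sum_sq n A c _ f (fun i hi => hf i (Finset.mem_filter.1 hi).1)

end Crest.Agent.R116.Up192
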