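import Crest.Agent.R116.DomC_210
import Crest.Agent.R116.Sl2_850
import Crest.Agent.R116.UpC1_192

/-!
# R116 (S0155), wave side: leaf A5 of `WDefC_188` (helper192)

The cube integral of `‖extc g‖^3` is bounded by the plate functional of level one.
* `unfold_le`: unfolding of an integral over the integer shifts of position-time space;
* `avg_le`, `near_far`: averages over small balls, near and far part of a rapidly decreasing average;
* `extc_lc`: local constancy; `apl_lower`: the plate functional dominates the mass in small balls;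
* `a5 : ∀ M q, A5 M q`.
-/

set_option autoImplicit false

open MeasureTheory FourierTransform
open scoped ContDiff ENNReal

namespace Crest.Agent.R116.A5c192

open Crest.Agent.R138.Defs (E2 ee)
open Crest.Agent.R138.Wpk685 (cen caps cap cap_win_sum)
open Crest.Agent.R116.CDef480 Crest.Agent.R116.WC188 Crest.Agent.R116.GlC210
open Crest.Agent.R116.CWp480 Crest.Agent.R116.Up192
open Crest.Agent.R138.Wf448 (adet dw)

/-! ### unfolding -/



/-- basis of the position-time space. -/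
noncomputable def bas : Module.Basis (Fin 3 ⊕ Fin 1) ℝ (E3 × ℝ) :=
  (EuclideanSpace.basisFun (Fin 3) ℝ).toBasis.prod (Module.Basis.singleton (Fin 1) ℝ)

theorem bas_repr_inl (x : E3 × ℝ) (i : Fin 3) : bas.repr x (Sum.inl i) = x.1 i := by
  simp [bas, Module.Basis.prod]

theorem bas_repr_inr (x : E3 × ℝ) (i : Fin 1) : bas.repr x (Sum.inr i) = x.2 := by
  simp [bas, Module.Basis.prod]

theorem sep_lat {x y : E3 × ℝ} (h : x - y ∈ Submodule.span ℤ (Set.range bas)) :
    x = y ∨ 1 ≤ ‖x.1 - y.1‖ ∨ 1 ≤ |x.2 - y.2| := by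
  rw [Module.Basis.mem_span_iff_repr_mem ℤ bas] at h
  by_cases h1 : x.2 = y.2
  · by_cases h2 : x.1 = y.1
    · exact Or.inl (Prod.ext h2 h1)
    · right; left
      obtain ⟨i, hi⟩ : ∃ i, x.1 i ≠ y.1 i := by
        by_contra hc
        push Not at hc
        exact h2 (by ext i; exact hc i)
      obtain ⟨n, hn⟩ := h (Sum.inl i)
      rw [bas_repr_inl] at hn
      simp only [Prod.fst_sub, PiLp.sub_apply, algebraMap_int_eq, eq_intCast] at hn
      have hn0 : n ≠ 0 := by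
        rintro rfl
        exact hi (by simp at hn; linarith)
      have h3 : (1:ℝ) ≤ |(n:ℝ)| := by
        have : (1:ℤ) ≤ |n| := Int.one_le_abs hn0
        exact_mod_cast this
      rw [hn] at h3
      refine h3.trans ?_
      have := PiLp.norm_apply_le (x.1 - y.1) i
      simpa using this
  · right; right
    obtain ⟨n, hn⟩ := h (Sum.inr 0)
    rw [bas_repr_inr] at hn
    simp only [Prod.snd_sub, algebraMap_int_eq, eq_intCast] at hn
    have hn0 : n ≠ 0 := by
      rintro rfl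
      exact h1 (by simp at hn; linarith)
    have h3 : (1:ℝ) ≤ |(n:ℝ)| := by
      have : (1:ℤ) ≤ |n| := Int.one_le_abs hn0
      exact_mod_cast this
    rwa [hn] at h3

/-- unfolding over the integer shifts: the integral is at most a constant times the largest sum over
a `1`-separated set. -/
theorem unfold_le : ∃ C : ℝ, 0 ≤ C ∧ ∀ (F : E3 × ℝ → ℝ≥0∞), Measurable F → ∀ B : ℝ≥0∞,
    (∀ Z : Finset (E3 × ℝ), (∀ z ∈ Z, ∀ z' ∈ Z, z = z' ∨ 1 ≤ ‖z.1 - z'.1‖ ∨ 1 ≤ |z.2 - z'.2|) →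
      ∑ z ∈ Z, F z ≤ B) →
    ∫⁻ z, F z ≤ ENNReal.ofReal C * B := by
  classical
  have hfin : volume (ZSpan.fundamentalDomain bas) < ⊤ :=
    (ZSpan.fundamentalDomain_isBounded bas).measure_lt_top
  refine ⟨(volume (ZSpan.fundamentalDomain bas)).toReal, ENNReal.toReal_nonneg, ?_⟩
  intro F hF B hB
  rw [ENNReal.ofReal_toReal hfin.ne]
  have hd := ZSpan.isAddFundamentalDomain' bas (volume : Measure (E3 × ℝ))
  have : (volume : Measure (E3 × ℝ)).IsAddHaarMeasure :=
    inferInstanceAs ((volume : Measure E3).prod (volume : Measure ℝ)).IsAddHaarMeasure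
  have : Countable (Submodule.span ℤ (Set.range bas)).toAddSubgroup :=
    inferInstanceAs (Countable (Submodule.span ℤ (Set.range bas)))
  rw [hd.lintegral_eq_tsum'' F]
  rw [← lintegral_tsum]
  · calc ∫⁻ x in ZSpan.fundamentalDomain bas,
          ∑' γ : (Submodule.span ℤ (Set.range bas)).toAddSubgroup, F (γ +ᵥ x)
        ≤ ∫⁻ _x in ZSpan.fundamentalDomain bas, B := by
          refine lintegral_mono fun x => ?_
          change (∑' γ : (Submodule.span ℤ (Set.range bas)).toAddSubgroup, F (γ +ᵥ x)) ≤ B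
          rw [ENNReal.tsum_eq_iSup_sum]
          refine iSup_le fun s => ?_
          have hinj : Set.InjOn (fun γ : (Submodule.span ℤ (Set.range bas)).toAddSubgroup =>
              (γ +ᵥ x : E3 × ℝ)) (s : Set _) := by
            intro a _ b _ hab
            have : (a : E3 × ℝ) + x = (b : E3 × ℝ) + x := hab
            exact Subtype.ext (add_right_cancel this)
          rw [← Finset.sum_image (f := F) hinj]
          refine hB _ ?_
          intro z hz z' hz'
          simp only [Finset.mem_image] at hz hz'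
          obtain ⟨a, _, rfl⟩ := hz
          obtain ⟨b, _, rfl⟩ := hz'
          refine sep_lat ?_
          have : (a +ᵥ x : E3 × ℝ) - (b +ᵥ x) = ((a - b : _) : E3 × ℝ) := by
            change (a : E3 × ℝ) + x - ((b : E3 × ℝ) + x) = _
            rw [add_sub_add_right_eq_sub]
            rfl
          rw [this]
          exact (a - b).2
      _ = _ := by
          rw [setLIntegral_const, mul_comm]
  · intro γ
    refine Measurable.aemeasurable ?_
    exact hF.comp (measurable_const_vadd γ)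

/-! ### averages -/



/-- rapidly decreasing weight. -/
noncomputable def ww (n : ℕ) (X : E3) : ℝ≥0∞ := ENNReal.ofReal (((1 + ‖X‖ ^ 2) ^ n)⁻¹)

theorem ww_meas (n : ℕ) : Measurable (ww n) := by
  unfold ww
  fun_prop

theorem ww_neg (n : ℕ) (X : E3) : ww n (-X) = ww n X := by
  unfold ww; rw [norm_neg]

theorem ww_int : ∫⁻ X, ww 4 X < ⊤ := by
  have h1 : ∫⁻ X : E3, ENNReal.ofReal ((1 + ‖X‖) ^ (-(4:ℝ))) < ⊤ := by
    apply finite_integral_one_add_norm
    simp
    norm_num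
  have h2 : ∀ X : E3, ww 4 X ≤ ENNReal.ofReal (2 ^ 4) * ENNReal.ofReal ((1 + ‖X‖) ^ (-(4:ℝ))) := by
    intro X
    unfold ww
    rw [← ENNReal.ofReal_mul (by positivity)]
    refine ENNReal.ofReal_le_ofReal ?_
    have hn := norm_nonneg X
    rw [Real.rpow_neg (by positivity), show ((4:ℝ)) = ((4:ℕ):ℝ) by norm_num, Real.rpow_natCast,
      ← div_eq_mul_inv, inv_eq_one_div, div_le_div_iff₀ (by positivity) (by positivity), one_mul,
      ← mul_pow]
    refine pow_le_pow_left₀ (by positivity) ?_ 4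
    nlinarith [sq_nonneg (‖X‖ - 1 / 2)]
  refine (lintegral_mono h2).trans_lt ?_
  rw [lintegral_const_mul' _ _ ENNReal.ofReal_ne_top]
  exact ENNReal.mul_lt_top ENNReal.ofReal_lt_top h1

/-- the constant `∫ ww 4`. -/
noncomputable def c4 : ℝ≥0∞ := ∫⁻ X, ww 4 X

theorem c4_ne : c4 ≠ ⊤ := ww_int.ne

theorem ww_anti {m n : ℕ} (h : m ≤ n) (X : E3) : ww n X ≤ ww m X := by
  unfold ww
  refine ENNReal.ofReal_le_ofReal (inv_anti₀ (by positivity) ?_)
  exact pow_le_pow_right₀ (by nlinarith [sq_nonneg ‖X‖]) h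

theorem ww_int_le {n : ℕ} (h : 4 ≤ n) : ∫⁻ X, ww n X ≤ c4 :=
  lintegral_mono fun X => ww_anti h X

theorem ww_int_sub {n : ℕ} (h : 4 ≤ n) (W : E3) : ∫⁻ X, ww n (X - W) ≤ c4 := by
  rw [lintegral_sub_right_eq_self (fun X => ww n X) W]
  exact ww_int_le h

theorem ww_int_sub' {n : ℕ} (h : 4 ≤ n) (X : E3) : ∫⁻ W, ww n (X - W) ≤ c4 := by
  have e : ∀ W, ww n (X - W) = ww n (W - X) := fun W => by rw [← ww_neg, neg_sub]
  simp only [e]
  exact ww_int_sub h X

theorem ww_shift (n : ℕ) {X Y W : E3} (h : ‖Y - W‖ ≤ 1 / 10) :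
    ww n (X - Y) ≤ ENNReal.ofReal (2 ^ n) * ww n (X - W) := by
  unfold ww
  rw [← ENNReal.ofReal_mul (by positivity)]
  refine ENNReal.ofReal_le_ofReal ?_
  rw [← div_eq_mul_inv, inv_eq_one_div, div_le_div_iff₀ (by positivity) (by positivity), one_mul,
    ← mul_pow]
  refine pow_le_pow_left₀ (by positivity) ?_ n
  have h1 : ‖X - W‖ ≤ ‖X - Y‖ + 1 / 10 := by
    have : X - W = (X - Y) + (Y - W) := by abel
    rw [this]
    exact (norm_add_le _ _).trans (by linarith)
  have h2 := norm_nonneg (X - Y)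
  have h3 := norm_nonneg (X - W)
  nlinarith [sq_nonneg (‖X - Y‖ - 1 / 10)]

theorem ww_far (N : ℕ) {R : ℝ} (hR : 0 ≤ R) {X : E3} (h : R / 2 ≤ ‖X‖) :
    ww (4 + N) X ≤ ENNReal.ofReal (((1 + R ^ 2 / 4) ^ N)⁻¹) * ww 4 X := by
  unfold ww
  rw [← ENNReal.ofReal_mul (by positivity), pow_add, mul_inv, mul_comm]
  refine ENNReal.ofReal_le_ofReal ?_
  refine mul_le_mul_of_nonneg_right ?_ (by positivity)
  refine inv_anti₀ (by positivity) (pow_le_pow_left₀ (by positivity) ?_ N)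
  nlinarith

/-- the mass in the ball of radius `1/10`. -/
noncomputable def bav (E : E3 → ℝ≥0∞) (W : E3) : ℝ≥0∞ :=
  ∫⁻ Y in Metric.closedBall W (1 / 10), E Y

/-- the volume of the small ball. -/
noncomputable def vb : ℝ≥0∞ := volume (Metric.closedBall (0 : E3) (1 / 10))

theorem vb_ne_top : vb ≠ ⊤ := measure_closedBall_lt_top.ne
theorem vb_ne_zero : vb ≠ 0 := (Metric.measure_closedBall_pos volume _ (by norm_num)).ne'

theorem bav_eq (E : E3 → ℝ≥0∞) (W : E3) :
    bav E W = ∫⁻ Y, (if ‖Y - W‖ ≤ 1 / 10 then 1 else 0) * E Y := by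
  unfold bav
  rw [← lintegral_indicator Metric.isClosed_closedBall.measurableSet]
  refine lintegral_congr fun Y => ?_
  by_cases h : ‖Y - W‖ ≤ 1 / 10
  · rw [Set.indicator_of_mem (by rw [mem_closedBall_iff_norm]; exact h), if_pos h, one_mul]
  · rw [Set.indicator_of_notMem (by rw [mem_closedBall_iff_norm]; exact h), if_neg h, zero_mul]

theorem meas_near : Measurable fun p : E3 × E3 => (if ‖p.2 - p.1‖ ≤ 1 / 10 then 1 else 0 : ℝ≥0∞) := by
  refine Measurable.ite ?_ measurable_const measurable_const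
  exact measurableSet_le (by fun_prop) measurable_const

theorem bav_meas {E : E3 → ℝ≥0∞} (hE : Measurable E) : Measurable (bav E) := by
  have e : bav E = fun W => ∫⁻ Y, (if ‖Y - W‖ ≤ 1 / 10 then 1 else 0) * E Y := by
    funext W; exact bav_eq E W
  rw [e]
  exact Measurable.lintegral_prod_right' (f := fun p : E3 × E3 =>
    (if ‖p.2 - p.1‖ ≤ 1 / 10 then 1 else 0 : ℝ≥0∞) * E p.2) (meas_near.mul (hE.comp measurable_snd))

/-- `∫ k bav E = ∫ (∫_near k) E`. -/
theorem bav_swap {E k : E3 → ℝ≥0∞} (hE : Measurable E) (hk : Measurable k) :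
    ∫⁻ W, k W * bav E W = ∫⁻ Y, (∫⁻ W in Metric.closedBall Y (1 / 10), k W) * E Y := by
  calc ∫⁻ W, k W * bav E W = ∫⁻ W, ∫⁻ Y, k W * ((if ‖Y - W‖ ≤ 1 / 10 then 1 else 0) * E Y) := by
        refine lintegral_congr fun W => ?_
        rw [bav_eq, lintegral_const_mul]
        exact ((meas_near.comp (measurable_const.prodMk measurable_id)).mul hE)
    _ = ∫⁻ Y, ∫⁻ W, k W * ((if ‖Y - W‖ ≤ 1 / 10 then 1 else 0) * E Y) := by
        refine lintegral_lintegral_swap ?_
        refine Measurable.aemeasurable ?_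
        exact (hk.comp measurable_fst).mul (meas_near.mul (hE.comp measurable_snd))
    _ = _ := by
        refine lintegral_congr fun Y => ?_
        rw [← lintegral_indicator Metric.isClosed_closedBall.measurableSet, ← lintegral_mul_const]
        · refine lintegral_congr fun W => ?_
          by_cases h : ‖Y - W‖ ≤ 1 / 10
          · rw [Set.indicator_of_mem (by rw [mem_closedBall_iff_norm, norm_sub_rev]; exact h),
              if_pos h, one_mul]
          · rw [Set.indicator_of_notMem (by rw [mem_closedBall_iff_norm, norm_sub_rev]; exact h),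
              if_neg h, zero_mul, mul_zero]
        · exact hk.indicator Metric.isClosed_closedBall.measurableSet

/-- total mass. -/
theorem bav_int {E : E3 → ℝ≥0∞} (hE : Measurable E) : ∫⁻ W, bav E W = vb * ∫⁻ Y, E Y := by
  have h := bav_swap hE (k := fun _ => 1) measurable_const
  simp only [one_mul] at h
  rw [h, ← lintegral_const_mul _ hE]
  refine lintegral_congr fun Y => ?_
  rw [setLIntegral_const, one_mul]
  congr 1
  unfold vb
  rw [Measure.addHaar_closedBall_center]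

/-- averaging. -/
theorem avg_le (n : ℕ) {E : E3 → ℝ≥0∞} (hE : Measurable E) (X : E3) :
    ∫⁻ Y, ww n (X - Y) * E Y ≤
      ENNReal.ofReal (2 ^ n) * vb⁻¹ * ∫⁻ W, ww n (X - W) * bav E W := by
  have hm : Measurable fun W => ww n (X - W) := (ww_meas n).comp (by fun_prop)
  rw [bav_swap hE hm, ← lintegral_const_mul']
  · refine lintegral_mono fun Y => ?_
    rw [← mul_assoc]
    refine mul_le_mul_left ?_ _
    have h1 : vb * ww n (X - Y) ≤ ENNReal.ofReal (2 ^ n) *
        ∫⁻ W in Metric.closedBall Y (1 / 10), ww n (X - W) := by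
      rw [← lintegral_const_mul _ hm]
      calc vb * ww n (X - Y) = ∫⁻ _W in Metric.closedBall Y (1 / 10), ww n (X - Y) := by
            rw [setLIntegral_const, mul_comm]
            congr 1
            exact (Measure.addHaar_closedBall_center volume Y _).symm
        _ ≤ _ := by
            refine setLIntegral_mono (measurable_const.mul hm) fun W hW => ?_
            refine ww_shift n ?_
            rw [mem_closedBall_iff_norm, norm_sub_rev] at hW
            exact hW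
    calc ww n (X - Y) = vb⁻¹ * (vb * ww n (X - Y)) := by
          rw [← mul_assoc, ENNReal.inv_mul_cancel vb_ne_zero vb_ne_top, one_mul]
      _ ≤ vb⁻¹ * (ENNReal.ofReal (2 ^ n) * ∫⁻ W in Metric.closedBall Y (1 / 10), ww n (X - W)) := by
          gcongr
      _ = _ := by ring
  · exact ENNReal.mul_ne_top ENNReal.ofReal_ne_top (ENNReal.inv_ne_top.2 vb_ne_zero)

/-- near and far. -/
theorem near_far (N : ℕ) {R : ℝ} (hR : 0 ≤ R) {F : E3 → ℝ≥0∞} (hF : Measurable F) :
    ∫⁻ X in Metric.closedBall 0 (R / 2), ∫⁻ W, ww (4 + N) (X - W) * F W ≤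
      c4 * (∫⁻ W in Metric.closedBall 0 R, F W) +
        c4 * (ENNReal.ofReal (((1 + R ^ 2 / 4) ^ N)⁻¹) * ∫⁻ W, F W) := by
  set cN := ENNReal.ofReal (((1 + R ^ 2 / 4) ^ N)⁻¹) with hcN
  set G : E3 → ℝ≥0∞ := fun W => (Metric.closedBall (0:E3) R).indicator F W + cN * F W with hG
  have hGm : Measurable G := (hF.indicator Metric.isClosed_closedBall.measurableSet).add
    (measurable_const.mul hF)
  calc ∫⁻ X in Metric.closedBall 0 (R / 2), ∫⁻ W, ww (4 + N) (X - W) * F W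
      ≤ ∫⁻ X in Metric.closedBall 0 (R / 2), ∫⁻ W, ww 4 (X - W) * G W := by
        refine setLIntegral_mono' Metric.isClosed_closedBall.measurableSet fun X hX => ?_
        refine lintegral_mono fun W => ?_
        rw [mem_closedBall_zero_iff] at hX
        by_cases hW : ‖W‖ ≤ R
        · have h1 : F W ≤ G W := by
            rw [hG]
            simp only
            rw [Set.indicator_of_mem (by rw [mem_closedBall_zero_iff]; exact hW)]
            exact le_self_add
          exact mul_le_mul' (ww_anti (by omega) _) h1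
        · push Not at hW
          have h2 : R / 2 ≤ ‖X - W‖ := by
            have : ‖W‖ ≤ ‖X‖ + ‖X - W‖ := by
              have e : W = X - (X - W) := by abel
              calc ‖W‖ = ‖X - (X - W)‖ := by rw [← e]
                _ ≤ _ := norm_sub_le _ _
            linarith
          have h3 : cN * F W ≤ G W := by
            rw [hG]
            exact le_add_self
          calc ww (4 + N) (X - W) * F W ≤ (cN * ww 4 (X - W)) * F W :=
                mul_le_mul_left (ww_far N hR h2) _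
            _ = ww 4 (X - W) * (cN * F W) := by ring
            _ ≤ _ := mul_le_mul_right h3 _
    _ ≤ ∫⁻ X, ∫⁻ W, ww 4 (X - W) * G W := setLIntegral_le_lintegral _ _
    _ = ∫⁻ W, ∫⁻ X, ww 4 (X - W) * G W := by
        refine lintegral_lintegral_swap ?_
        refine Measurable.aemeasurable ?_
        exact ((ww_meas 4).comp (measurable_fst.sub measurable_snd)).mul (hGm.comp measurable_snd)
    _ ≤ ∫⁻ W, c4 * G W := by
        refine lintegral_mono fun W => ?_
        change ∫⁻ X, ww 4 (X - W) * G W ≤ c4 * G W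
        have hm : Measurable fun X => ww 4 (X - W) := (ww_meas 4).comp (by fun_prop)
        rw [lintegral_mul_const _ hm]
        exact mul_le_mul_left (ww_int_sub le_rfl W) _
    _ = _ := by
        rw [lintegral_const_mul _ hGm, ← mul_add]
        congr 1
        rw [hG, lintegral_add_left (hF.indicator Metric.isClosed_closedBall.measurableSet),
          lintegral_indicator Metric.isClosed_closedBall.measurableSet, lintegral_const_mul _ hF]

/-! ### the square function of level one -/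

theorem st_norm {M κ q a b M0 : ℝ} {C0 : E2} {σ : ℝ} {g : E3 → ℂ} {R D : ℝ} (ha : 1 ≤ a)
    (hb : 0 < b) (h : St M κ q a b M0 C0 σ g R D) {ζ : E3} (hζ : g ζ ≠ 0) :
    ‖ζ‖ ≤ a * (b + 1) := by
  obtain ⟨h1, h2, h3, -⟩ := h.supp ζ hζ
  have h0 : 0 < ζ 2 := lt_of_lt_of_le (by positivity) h1
  have h4 : ‖lat ζ‖ ≤ a * b := by
    rw [lat_slp h0.ne', norm_smul, Real.norm_eq_abs, abs_of_pos h0]
    gcongr
  have h5 := normsq3 ζ
  refine abs_le_of_sq_le_sq' ?_ (by positivity) |>.2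
  rw [h5]
  have h6 : ‖lat ζ‖ ^ 2 ≤ (a * b) ^ 2 := pow_le_pow_left₀ (norm_nonneg _) h4 2
  have h7 : ζ 2 ^ 2 ≤ a ^ 2 := pow_le_pow_left₀ h0.le h2 2
  nlinarith [mul_pos (mul_pos (by positivity : 0 < a) (by positivity : 0 < a)) hb]

theorem st_gdc {M κ q a b M0 : ℝ} {C0 : E2} {σ : ℝ} {g : E3 → ℂ} {R D : ℝ} (ha : 1 ≤ a)
    (hb : 0 < b) (h : St M κ q a b M0 C0 σ g R D) : Gdc g :=
  ⟨h.meas, h.bdd, a * (b + 1), fun _ hζ => st_norm ha hb h hζ⟩

/-- the packet of the cap `m` at time `s`. -/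
noncomputable def uu (g : E3 → ℂ) (m : ℤ × ℤ) (p : E3 × ℝ) : ℂ :=
  extc (fun ζ => capc 1 m ζ * g ζ) p.1 p.2

/-- the square function of level one. -/
noncomputable def ee2 (g : E3 → ℂ) (p : E3 × ℝ) : ℝ≥0∞ := ∑ m ∈ caps 1, ‖uu g m p‖ₑ ^ 2

theorem uu_cont {g : E3 → ℂ} (hg : Integrable g) (m : ℤ × ℤ) : Continuous (uu g m) :=
  Crest.Agent.R116.Sl850.ex_cont measurable_hc (capc_int hg 1 m)

theorem ee2_meas {g : E3 → ℂ} (hg : Integrable g) : Measurable (ee2 g) := by
  unfold ee2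
  exact Finset.measurable_sum _ fun m _ => (uu_cont hg m).measurable.enorm.pow_const 2

theorem umc_trc (g : E3 → ℂ) (z : E3 × ℝ) (m : ℤ × ℤ) (Y : E3) :
    umc 1 (trc z g) m Y = uu g m (Y + z.1, z.2) := by
  unfold uu umc
  have e : (fun ζ => capc 1 m ζ * trc z g ζ) = slc (trc z fun ζ => capc 1 m ζ * g ζ) 0 := by
    funext ζ
    unfold slc trc
    simp [ee, mul_assoc]
  rw [e, ← extc_eq, extc_trc, zero_add]

theorem norm_cen_le {m : ℤ × ℤ} (hm : m ∈ caps 1) : ‖cen 1 m‖ ≤ 5 := by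
  unfold Crest.Agent.R138.Wpk685.caps at hm
  simp only [Finset.mem_product, Finset.mem_Icc, div_one, Int.ceil_ofNat] at hm
  obtain ⟨⟨h1, h2⟩, h3, h4⟩ := hm
  have a1 : (-3:ℝ) ≤ m.1 := by exact_mod_cast h1
  have a2 : (m.1:ℝ) ≤ 3 := by exact_mod_cast h2
  have a3 : (-3:ℝ) ≤ m.2 := by exact_mod_cast h3
  have a4 : (m.2:ℝ) ≤ 3 := by exact_mod_cast h4
  have h := normsq2 (cen 1 m)
  unfold Crest.Agent.R138.Wpk685.cen at h ⊢
  simp only [one_mul] at h ⊢
  simp at h
  have := norm_nonneg (!₂[(m.1:ℝ), (m.2:ℝ)] : E2)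
  nlinarith

/-- the plate functional of level one dominates the mass in the small ball. -/
theorem apl_lower {g : E3 → ℂ} (hg : Integrable g) (z : E3 × ℝ) {X : E3} {s : ℝ}
    (hX : ‖X‖ ≤ 1 / 100) (hs : |s| ≤ 1 / 100) :
    ∫⁻ Y in Metric.closedBall z.1 (1 / 10), ee2 g (Y, z.2) ≤ apl 1 (trc z g) (X, s) := by
  have hpl : ∀ m ∈ caps 1, Metric.closedBall (0 : E3) (1 / 10) ⊆ plt 1 1 (cen 1 m) X s := by
    intro m hm Y hY
    rw [mem_closedBall_zero_iff] at hY
    have hc := norm_cen_le hm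
    set C := cen 1 m
    have lY : ‖lat Y‖ ≤ 1 / 10 := by
      have := normsq3 Y
      nlinarith [sq_nonneg (Y 2), norm_nonneg (lat Y), norm_nonneg Y]
    have lX : ‖lat X‖ ≤ 1 / 100 := by
      have := normsq3 X
      nlinarith [sq_nonneg (X 2), norm_nonneg (lat X), norm_nonneg X]
    have yY : |Y 2| ≤ 1 / 10 := (PiLp.norm_apply_le Y 2).trans hY
    have yX : |X 2| ≤ 1 / 100 := (PiLp.norm_apply_le X 2).trans hX
    refine ⟨?_, ?_⟩
    · calc ‖lat Y - (lat X + s • C)‖ ≤ ‖lat Y‖ + (‖lat X‖ + ‖s • C‖) :=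
            (norm_sub_le _ _).trans (by gcongr; exact norm_add_le _ _)
        _ ≤ 1 / 10 + (1 / 100 + 1 / 100 * 5) := by
            rw [norm_smul, Real.norm_eq_abs]
            gcongr
        _ ≤ 1 := by norm_num
    · have i1 : |inner ℝ C (lat Y)| ≤ 5 * (1 / 10) :=
        (abs_real_inner_le_norm _ _).trans (by gcongr)
      have i2 : |inner ℝ C (lat X)| ≤ 5 * (1 / 100) :=
        (abs_real_inner_le_norm _ _).trans (by gcongr)
      have i3 : |s * ‖C‖ ^ 2 / 2| ≤ 1 / 100 * 5 ^ 2 / 2 := by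
        rw [abs_div, abs_mul, abs_of_nonneg (by positivity : (0:ℝ) ≤ ‖C‖ ^ 2),
          abs_of_pos (by norm_num : (0:ℝ) < 2)]
        gcongr
      unfold nrm
      rw [abs_le] at *
      constructor <;> linarith [i1.1, i1.2, i2.1, i2.2, i3.1, i3.2, yY.1, yY.2, yX.1, yX.2]
  unfold apl ee2
  simp only [Real.one_rpow, inv_one, ENNReal.ofReal_one, one_mul]
  have e1 : ∫⁻ Y in Metric.closedBall z.1 (1 / 10), ∑ m ∈ caps 1, ‖uu g m (Y, z.2)‖ₑ ^ 2 =
      ∫⁻ Y in Metric.closedBall (0 : E3) (1 / 10), ∑ m ∈ caps 1, ‖uu g m (Y + z.1, z.2)‖ₑ ^ 2 := by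
    rw [← lintegral_indicator Metric.isClosed_closedBall.measurableSet,
      ← lintegral_indicator Metric.isClosed_closedBall.measurableSet,
      ← lintegral_add_right_eq_self _ z.1]
    refine lintegral_congr fun Y => ?_
    by_cases h : ‖Y‖ ≤ 1 / 10
    · rw [Set.indicator_of_mem, Set.indicator_of_mem]
      · rwa [mem_closedBall_zero_iff]
      · rwa [mem_closedBall_iff_norm, add_sub_cancel_right]
    · rw [Set.indicator_of_notMem, Set.indicator_of_notMem]
      · rwa [mem_closedBall_zero_iff]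
      · rwa [mem_closedBall_iff_norm, add_sub_cancel_right]
  rw [e1, lintegral_finsetSum]
  · refine Finset.sum_le_sum fun m hm => ?_
    simp only [umc_trc]
    exact lintegral_mono_set (hpl m hm)
  · intro m _
    have : Continuous fun Y : E3 => uu g m (Y + z.1, z.2) := (uu_cont hg m).comp (by fun_prop)
    exact this.measurable.enorm.pow_const 2

theorem slc_sum {g : E3 → ℂ} (hs : ∀ ζ, g ζ ≠ 0 → ‖slp ζ‖ ≤ 2) (s : ℝ) :
    slc g s = fun ζ => ∑ m ∈ caps 1, slc (fun ζ => capc 1 m ζ * g ζ) s ζ := by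
  funext ζ
  unfold slc
  rw [← Finset.sum_mul, ← Finset.sum_mul]
  by_cases h : g ζ = 0
  · rw [h, mul_zero]
  · congr 1
    have h1 := cap_win_sum one_pos (hs ζ h)
    unfold capc
    rw [h1, one_mul]

theorem extc_sq_le {g : E3 → ℂ} (hg : Integrable g) (hs : ∀ ζ, g ζ ≠ 0 → ‖slp ζ‖ ≤ 2) (X : E3)
    (s : ℝ) : ‖extc g X s‖ₑ ^ 2 ≤ ((caps 1).card : ℝ≥0∞) * ee2 g (X, s) := by
  rw [extc_eq, slc_sum hs]
  refine (enorm_sum_sq (caps 1) (fun m => slc (fun ζ => capc 1 m ζ * g ζ) s)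
    (fun m _ => slc_int (capc_int hg 1 m) s) X).trans_eq ?_
  unfold ee2 uu
  simp only [extc_eq]

/-- local constancy. -/
theorem extc_lc (n : ℕ) {L : ℝ} (hL : 1 ≤ L) : ∃ C : ℝ, 0 ≤ C ∧ ∀ g : E3 → ℂ, Integrable g →
    (∀ ζ, g ζ ≠ 0 → ‖ζ‖ ≤ L) → (∀ ζ, g ζ ≠ 0 → ‖slp ζ‖ ≤ 2) → ∀ (X : E3) (s : ℝ),
    ‖extc g X s‖ₑ ^ 2 ≤ ENNReal.ofReal C * ∫⁻ Y, ww n (X - Y) * ee2 g (Y, s) := by
  obtain ⟨C, hC, h⟩ := lc_pt (V := E3) n
  have hd := adet0 (ContinuousLinearEquiv.refl ℝ E3)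
  refine ⟨C * (L ^ Module.finrank ℝ E3 * adet ((ContinuousLinearEquiv.refl ℝ E3 : E3 ≃L[ℝ] E3) :
    E3 →L[ℝ] E3)) * (caps 1).card, by positivity, ?_⟩
  intro g hg hsup hs X s
  have h1 := h (ContinuousLinearEquiv.refl ℝ E3) L hL 0 (slc g s) (slc_int hg s) ?_ X
  · rw [extc_eq]
    refine h1.trans ?_
    set K : ℝ := C * (L ^ Module.finrank ℝ E3 *
      adet ((ContinuousLinearEquiv.refl ℝ E3 : E3 ≃L[ℝ] E3) : E3 →L[ℝ] E3)) with hK
    have hK0 : 0 ≤ K := by positivity
    rw [ENNReal.ofReal_mul hK0, ENNReal.ofReal_natCast, mul_assoc]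
    refine mul_le_mul_right ?_ _
    rw [wE_eq, ← lintegral_const_mul' _ _ (ENNReal.natCast_ne_top _)]
    refine lintegral_mono fun Y => ?_
    simp only
    have e1 : ENNReal.ofReal (dw n ((ContinuousLinearEquiv.refl ℝ E3 : E3 ≃L[ℝ] E3) : E3 →L[ℝ] E3)
        (Y - X)) = ww n (X - Y) := by
      rw [dw_def]
      unfold ww
      rw [ContinuousLinearEquiv.refl_apply, norm_sub_rev]
    rw [e1, ← extc_eq]
    calc ww n (X - Y) * ‖extc g Y s‖ₑ ^ 2 ≤ ww n (X - Y) * (((caps 1).card : ℝ≥0∞) * ee2 g (Y, s)) :=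
          mul_le_mul_right (extc_sq_le hg hs Y s) _
      _ = _ := by ring
  · intro ξ hξ
    refine ⟨ξ, hsup ξ fun h0 => hξ (by unfold slc; rw [h0, zero_mul]), ?_⟩
    rw [zero_add]
    refine ext_inner_right ℝ fun v => ?_
    rw [ContinuousLinearMap.adjoint_inner_left]
    rfl

theorem ee2_int {g : E3 → ℂ} (hg : Gdc g) (s : ℝ) :
    ∫⁻ Y, ee2 g (Y, s) ≤ ((caps 1).card : ℝ≥0∞) * ENNReal.ofReal (Enc g) := by
  unfold ee2
  rw [lintegral_finsetSum]
  · rw [← nsmul_eq_mul]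
    refine Finset.sum_le_card_nsmul _ _ _ fun m _ => ?_
    have h1 : Integrable (slc (fun ζ => capc 1 m ζ * g ζ) s) := slc_int (capc_int hg.int 1 m) s
    have h2 : MemLp (fun ζ => capc 1 m ζ * g ζ) 2 := by
      refine MemLp.of_le hg.l2 (capc_int hg.int 1 m).1 (Filter.Eventually.of_forall fun ζ => ?_)
      rw [norm_mul]
      exact mul_le_of_le_one_left (norm_nonneg _) (norm_capc_le 1 m ζ)
    have h3 := Crest.Agent.R138.Wf448.planchL h1 (slc_l2 h2 s)
    unfold Crest.Agent.R138.Wf448.LI at h3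
    have e1 : ∀ Y, ‖uu g m (Y, s)‖ₑ ^ 2 =
        ENNReal.ofReal (‖𝓕⁻ (slc (fun ζ => capc 1 m ζ * g ζ) s) Y‖ ^ 2) := by
      intro Y
      unfold uu
      rw [extc_eq, ENNReal.ofReal_pow (norm_nonneg _), ofReal_norm]
    rw [lintegral_congr e1, h3, Enc, ofReal_integral_eq_lintegral_ofReal]
    · refine lintegral_mono fun ζ => ENNReal.ofReal_le_ofReal ?_
      simp only
      rw [norm_slc, norm_mul]
      refine pow_le_pow_left₀ (by positivity) ?_ 2
      exact mul_le_of_le_one_left (norm_nonneg _) (norm_capc_le 1 m ζ)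
    · exact (memLp_two_iff_integrable_sq_norm hg.meas.aestronglyMeasurable).1 hg.l2
    · exact Filter.Eventually.of_forall fun ζ => by positivity
  · intro m _
    have : Continuous fun Y : E3 => uu g m (Y, s) := (uu_cont hg.int m).comp (by fun_prop)
    exact this.measurable.enorm.pow_const 2

/-! ### the mass in small balls -/

/-- mass in the small ball in position, at fixed time. -/
noncomputable def EE (g : E3 → ℂ) (z : E3 × ℝ) : ℝ≥0∞ := bav (fun Y => ee2 g (Y, z.2)) z.1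

theorem EE_meas {g : E3 → ℂ} (hg : Integrable g) : Measurable (EE g) := by
  have e : EE g = fun z => ∫⁻ Y, (if ‖Y - z.1‖ ≤ 1 / 10 then 1 else 0) * ee2 g (Y, z.2) := by
    funext z; exact bav_eq _ _
  rw [e]
  have h1 : Measurable fun p : (E3 × ℝ) × E3 =>
      (if ‖p.2 - p.1.1‖ ≤ 1 / 10 then 1 else 0 : ℝ≥0∞) := by
    refine Measurable.ite ?_ measurable_const measurable_const
    exact measurableSet_le (by fun_prop) measurable_const
  have h2 : Measurable fun p : (E3 × ℝ) × E3 => ee2 g (p.2, p.1.2) :=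
    (ee2_meas hg).comp (by fun_prop)
  exact Measurable.lintegral_prod_right' (f := fun p : (E3 × ℝ) × E3 =>
    (if ‖p.2 - p.1.1‖ ≤ 1 / 10 then 1 else 0 : ℝ≥0∞) * ee2 g (p.2, p.1.2)) (h1.mul h2)

theorem cylc_eq (R : ℝ) : cylc R = Metric.closedBall (0 : E3) R ×ˢ Set.Icc (-R) R := by
  ext p
  simp [cylc, abs_le]

theorem cylc_meas (R : ℝ) : MeasurableSet (cylc R) := by
  rw [cylc_eq]
  exact Metric.isClosed_closedBall.measurableSet.prod measurableSet_Icc

theorem vol_cylc_pos {R : ℝ} (hR : 0 < R) : volume (cylc R) ≠ 0 := by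
  rw [cylc_eq, Measure.volume_eq_prod, Measure.prod_prod]
  refine mul_ne_zero (Metric.measure_closedBall_pos volume _ hR).ne' ?_
  rw [Real.volume_Icc]
  simpa using hR

theorem vol_cylc_top (R : ℝ) : volume (cylc R) ≠ ⊤ := by
  rw [cylc_eq, Measure.volume_eq_prod, Measure.prod_prod]
  refine ENNReal.mul_ne_top measure_closedBall_lt_top.ne ?_
  rw [Real.volume_Icc]
  exact ENNReal.ofReal_ne_top

theorem NP_ge {g : E3 → ℂ} (hg : Integrable g) {R : ℝ} {Z : Finset (E3 × ℝ)} (hZ : Net 1 R Z) :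
    volume (cylc (1 / 100)) * ∑ z ∈ Z, EE g z ^ (3 / 2 : ℝ) ≤ NP 1 1 g R := by
  unfold NP
  refine le_trans ?_ (le_iSup₂ (f := fun (Z : Finset (E3 × ℝ)) (_ : Net 1 R Z) =>
    ∑ z ∈ Z, ∫⁻ p in cylc (1 * 1), (apl 1 (trc z g) p) ^ (3 / 2 : ℝ)) Z hZ)
  rw [Finset.mul_sum]
  refine Finset.sum_le_sum fun z _ => ?_
  calc volume (cylc (1 / 100)) * EE g z ^ (3 / 2 : ℝ)
      = ∫⁻ _p in cylc (1 / 100), EE g z ^ (3 / 2 : ℝ) := by rw [setLIntegral_const, mul_comm]
    _ ≤ ∫⁻ p in cylc (1 / 100), (apl 1 (trc z g) p) ^ (3 / 2 : ℝ) := by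
        refine setLIntegral_mono' (cylc_meas _) fun p hp => ?_
        refine ENNReal.rpow_le_rpow ?_ (by norm_num)
        exact apl_lower hg z hp.1 hp.2
    _ ≤ _ := by
        refine lintegral_mono_set fun p hp => ?_
        exact ⟨hp.1.trans (by norm_num), hp.2.trans (by norm_num)⟩

/-- the near part. -/
theorem near_NP : ∃ C : ℝ, 0 ≤ C ∧ ∀ g : E3 → ℂ, Integrable g → ∀ R : ℝ,
    ∫⁻ z in cylc R, EE g z ^ (3 / 2 : ℝ) ≤ ENNReal.ofReal C * NP 1 1 g R := by
  classical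
  obtain ⟨C, hC, h⟩ := unfold_le
  have v0 := vol_cylc_pos (show (0:ℝ) < 1 / 100 by norm_num)
  have v1 := vol_cylc_top (1 / 100)
  refine ⟨C * ((volume (cylc (1 / 100)))⁻¹).toReal, by positivity, fun g hg R => ?_⟩
  rw [ENNReal.ofReal_mul hC, ENNReal.ofReal_toReal (ENNReal.inv_ne_top.2 v0), mul_assoc,
    ← lintegral_indicator (cylc_meas R)]
  refine h _ (((EE_meas hg).pow_const _).indicator (cylc_meas R)) _ ?_
  intro Z hZ
  have e1 : ∑ z ∈ Z, (cylc R).indicator (fun z => EE g z ^ (3 / 2 : ℝ)) z =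
      ∑ z ∈ Z.filter (· ∈ cylc R), EE g z ^ (3 / 2 : ℝ) := by
    rw [Finset.sum_filter]
    refine Finset.sum_congr rfl fun z _ => ?_
    by_cases hz : z ∈ cylc R
    · rw [Set.indicator_of_mem hz, if_pos hz]
    · rw [Set.indicator_of_notMem hz, if_neg hz]
  rw [e1]
  have hnet : Net 1 R (Z.filter (· ∈ cylc R)) := by
    refine ⟨fun z hz => (Finset.mem_filter.1 hz).2, fun z hz z' hz' => ?_⟩
    exact hZ z (Finset.mem_filter.1 hz).1 z' (Finset.mem_filter.1 hz').1
  calc ∑ z ∈ Z.filter (· ∈ cylc R), EE g z ^ (3 / 2 : ℝ)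
      = (volume (cylc (1 / 100)))⁻¹ * (volume (cylc (1 / 100)) *
          ∑ z ∈ Z.filter (· ∈ cylc R), EE g z ^ (3 / 2 : ℝ)) := by
        rw [← mul_assoc, ENNReal.inv_mul_cancel v0 v1, one_mul]
    _ ≤ _ := mul_le_mul_right (NP_ge hg hnet) _

/-- the pointwise bound. -/
theorem cube_pt (n : ℕ) (hn : 4 ≤ n) {L : ℝ} (hL : 1 ≤ L) : ∃ C : ℝ, 0 ≤ C ∧
    ∀ g : E3 → ℂ, Integrable g →
    (∀ ζ, g ζ ≠ 0 → ‖ζ‖ ≤ L) → (∀ ζ, g ζ ≠ 0 → ‖slp ζ‖ ≤ 2) → ∀ (X : E3) (s : ℝ),
    ‖extc g X s‖ₑ ^ 3 ≤ ENNReal.ofReal C * ∫⁻ W, ww n (X - W) * EE g (W, s) ^ (3 / 2 : ℝ) := by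
  obtain ⟨C, hC, h⟩ := extc_lc n hL
  set K : ℝ≥0∞ := ENNReal.ofReal C * (ENNReal.ofReal (2 ^ n) * vb⁻¹) with hK
  have hKt : K ≠ ⊤ := ENNReal.mul_ne_top ENNReal.ofReal_ne_top
    (ENNReal.mul_ne_top ENNReal.ofReal_ne_top (ENNReal.inv_ne_top.2 vb_ne_zero))
  have hcK : K ^ (3 / 2 : ℝ) * c4 ^ (1 / 2 : ℝ) ≠ ⊤ :=
    ENNReal.mul_ne_top (ENNReal.rpow_ne_top_of_nonneg (by norm_num) hKt)
      (ENNReal.rpow_ne_top_of_nonneg (by norm_num) c4_ne)
  refine ⟨(K ^ (3 / 2 : ℝ) * c4 ^ (1 / 2 : ℝ)).toReal, ENNReal.toReal_nonneg, ?_⟩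
  intro g hg hsup hs X s
  rw [ENNReal.ofReal_toReal hcK]
  have hE : Measurable fun Y => ee2 g (Y, s) := (ee2_meas hg).comp (by fun_prop)
  have hEE : Measurable fun W => EE g (W, s) := (EE_meas hg).comp (by fun_prop)
  have hw : Measurable fun W => ww n (X - W) := (ww_meas n).comp (by fun_prop)
  have h1 : ‖extc g X s‖ₑ ^ 2 ≤ K * ∫⁻ W, ww n (X - W) * EE g (W, s) := by
    refine (h g hg hsup hs X s).trans ?_
    rw [hK, mul_assoc]
    exact mul_le_mul_right (avg_le n hE X) _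
  have h2 := Crest.Agent.R116.Sl850.jensen (p := 3 / 2) (by norm_num) hw.aemeasurable
    hEE.aemeasurable (μ := volume)
  calc ‖extc g X s‖ₑ ^ 3 = (‖extc g X s‖ₑ ^ 2) ^ (3 / 2 : ℝ) := by
        rw [← ENNReal.rpow_natCast, ← ENNReal.rpow_natCast, ← ENNReal.rpow_mul]
        norm_num
    _ ≤ (K * ∫⁻ W, ww n (X - W) * EE g (W, s)) ^ (3 / 2 : ℝ) :=
        ENNReal.rpow_le_rpow h1 (by norm_num)
    _ = K ^ (3 / 2 : ℝ) * (∫⁻ W, ww n (X - W) * EE g (W, s)) ^ (3 / 2 : ℝ) :=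
        ENNReal.mul_rpow_of_nonneg _ _ (by norm_num)
    _ ≤ K ^ (3 / 2 : ℝ) * (c4 ^ (1 / 2 : ℝ) *
          ∫⁻ W, ww n (X - W) * EE g (W, s) ^ (3 / 2 : ℝ)) := by
        refine mul_le_mul_right (h2.trans ?_) _
        refine mul_le_mul_left ?_ _
        rw [show (3 / 2 - 1 : ℝ) = 1 / 2 by norm_num]
        exact ENNReal.rpow_le_rpow (ww_int_sub' hn X) (by norm_num)
    _ = _ := by rw [mul_assoc]

/-- the total mass of `EE ^ (3/2)` at a fixed time. -/
theorem EE_total {g : E3 → ℂ} (hg : Gdc g) (s : ℝ) :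
    ∫⁻ W, EE g (W, s) ^ (3 / 2 : ℝ) ≤
      (((caps 1).card : ℝ≥0∞) * ENNReal.ofReal (Enc g)) ^ (1 / 2 : ℝ) *
        (vb * (((caps 1).card : ℝ≥0∞) * ENNReal.ofReal (Enc g))) := by
  set T : ℝ≥0∞ := ((caps 1).card : ℝ≥0∞) * ENNReal.ofReal (Enc g) with hT
  have hTt : T ≠ ⊤ := ENNReal.mul_ne_top (ENNReal.natCast_ne_top _) ENNReal.ofReal_ne_top
  have hE : Measurable fun Y => ee2 g (Y, s) := (ee2_meas hg.int).comp (by fun_prop)
  have h1 := ee2_int hg s
  have h2 : ∀ W, EE g (W, s) ≤ T := fun W => (setLIntegral_le_lintegral _ _).trans h1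
  have h3 : ∀ W, EE g (W, s) ^ (3 / 2 : ℝ) ≤ T ^ (1 / 2 : ℝ) * EE g (W, s) := by
    intro W
    have e : EE g (W, s) ^ (3 / 2 : ℝ) = EE g (W, s) ^ (1 / 2 : ℝ) * EE g (W, s) := by
      conv_rhs => rw [← ENNReal.rpow_one (EE g (W, s)), ← ENNReal.rpow_mul]
      rw [one_mul, ← ENNReal.rpow_add_of_nonneg _ _ (by norm_num) (by norm_num)]
      norm_num
    rw [e]
    exact mul_le_mul_left (ENNReal.rpow_le_rpow (h2 W) (by norm_num)) _
  refine (lintegral_mono h3).trans ?_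
  rw [lintegral_const_mul' _ _ (ENNReal.rpow_ne_top_of_nonneg (by norm_num) hTt)]
  refine mul_le_mul_right ?_ _
  refine (bav_int hE).trans_le ?_
  exact mul_le_mul_right h1 _

/-! ### assembly -/

theorem real_tail {c Q M0 R E D : ℝ} (hc : 0 ≤ c) (hQ : 0 ≤ Q) (hR : 1 ≤ R) (hE : 0 ≤ E)
    (hnd : E ≤ R ^ M0 * D) {N : ℕ} (hN : M0 ≤ N) :
    Q * (((1 + R ^ 2 / 4) ^ N)⁻¹ * (Real.sqrt (c * E) * (c * E))) * R ≤
      Q * 4 ^ N * (Real.sqrt c * c) * (R * E * Real.sqrt D) := by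
  have hR0 : 0 < R := one_pos.trans_le hR
  have h1 : Real.sqrt E ≤ R ^ (M0 / 2) * Real.sqrt D := by
    rw [← Real.sqrt_sq (by positivity : 0 ≤ R ^ (M0 / 2)), ← Real.sqrt_mul (by positivity)]
    refine Real.sqrt_le_sqrt ?_
    rw [← Real.rpow_natCast, ← Real.rpow_mul hR0.le]
    refine hnd.trans_eq ?_
    congr 2
    push_cast
    ring
  have h2 : R ^ (M0 / 2) ≤ (R ^ 2) ^ N := by
    rw [← pow_mul, ← Real.rpow_natCast]
    refine Real.rpow_le_rpow_of_exponent_le hR ?_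
    push_cast
    have : (0:ℝ) ≤ N := Nat.cast_nonneg N
    linarith
  have h3 : ((1 + R ^ 2 / 4) ^ N)⁻¹ * R ^ (M0 / 2) ≤ 4 ^ N := by
    rw [inv_mul_le_iff₀ (by positivity)]
    refine h2.trans ?_
    rw [← mul_pow]
    exact pow_le_pow_left₀ (by positivity) (by nlinarith) N
  rw [Real.sqrt_mul hc]
  calc Q * (((1 + R ^ 2 / 4) ^ N)⁻¹ * (Real.sqrt c * Real.sqrt E * (c * E))) * R
      ≤ Q * (((1 + R ^ 2 / 4) ^ N)⁻¹ * (Real.sqrt c * (R ^ (M0 / 2) * Real.sqrt D) * (c * E))) * R := by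
        gcongr
    _ = Q * (((1 + R ^ 2 / 4) ^ N)⁻¹ * R ^ (M0 / 2)) * (Real.sqrt c * c) * (R * E * Real.sqrt D) := by
        ring
    _ ≤ _ := by gcongr

/-- **A5**. -/
theorem a5 (M q : ℝ) : A5 M q := by
  intro a b M0 ha hb hb2
  set N : ℕ := ⌈|M0|⌉₊ with hNdef
  have hN : M0 ≤ N := (le_abs_self M0).trans (Nat.le_ceil _)
  have hL : 1 ≤ a * (b + 1) := by nlinarith
  obtain ⟨C1, hC1, h1⟩ := cube_pt (4 + N) (by omega) hL
  obtain ⟨C2, hC2, h2⟩ := near_NP
  set c : ℝ := ((caps 1).card : ℝ) with hc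
  have hc0 : 0 ≤ c := Nat.cast_nonneg _
  set Q : ℝ := C1 * c4.toReal * vb.toReal with hQ
  have hQ0 : 0 ≤ Q := by positivity
  refine ⟨1, max (C1 * c4.toReal * C2) (Q * 4 ^ N * (Real.sqrt c * c)), le_rfl, by positivity, ?_⟩
  intro C0 σ g R D hst
  have hgd : Gdc g := st_gdc ha hb hst
  have hg : Integrable g := hgd.int
  have hR0 : 0 < R := one_pos.trans_le hst.R1
  have hE0 : 0 ≤ Enc g := integral_nonneg fun ζ => by positivity
  have hsup : ∀ ζ, g ζ ≠ 0 → ‖ζ‖ ≤ a * (b + 1) := fun ζ hζ => st_norm ha hb hst hζ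
  have hslp : ∀ ζ, g ζ ≠ 0 → ‖slp ζ‖ ≤ 2 := fun ζ hζ => (hst.supp ζ hζ).2.2.1.trans hb2.le
  set H : E3 × ℝ → ℝ≥0∞ := fun p =>
    ∫⁻ W, ww (4 + N) (p.1 - W) * EE g (W, p.2) ^ (3 / 2 : ℝ) with hH
  have hHm : Measurable H := by
    refine Measurable.lintegral_prod_right' (f := fun p : (E3 × ℝ) × E3 =>
      ww (4 + N) (p.1.1 - p.2) * EE g (p.2, p.1.2) ^ (3 / 2 : ℝ)) ?_
    exact ((ww_meas _).comp (by fun_prop)).mul (((EE_meas hg).comp (by fun_prop)).pow_const _)
  have step1 : ∫⁻ p in cylc (R / 2), ‖extc g p.1 p.2‖ₑ ^ 3 ≤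
      ENNReal.ofReal C1 * ∫⁻ p in cylc (R / 2), H p := by
    rw [← lintegral_const_mul' _ _ ENNReal.ofReal_ne_top]
    exact lintegral_mono fun p => h1 g hg hsup hslp p.1 p.2
  set cN : ℝ≥0∞ := ENNReal.ofReal (((1 + R ^ 2 / 4) ^ N)⁻¹) with hcN
  set T : ℝ≥0∞ := ((caps 1).card : ℝ≥0∞) * ENNReal.ofReal (Enc g) with hT
  set X : ℝ≥0∞ := T ^ (1 / 2 : ℝ) * (vb * T) with hX
  have step2 : ∫⁻ p in cylc (R / 2), H p ≤
      c4 * (∫⁻ p in cylc R, EE g p ^ (3 / 2 : ℝ)) + c4 * (cN * X) * ENNReal.ofReal R := by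
    have hF : Measurable fun p : E3 × ℝ => EE g p ^ (3 / 2 : ℝ) := (EE_meas hg).pow_const _
    have e1 : ∫⁻ p in cylc (R / 2), H p =
        ∫⁻ s in Set.Icc (-(R / 2)) (R / 2), ∫⁻ Y in Metric.closedBall (0:E3) (R / 2), H (Y, s) := by
      rw [cylc_eq, Measure.volume_eq_prod, ← Measure.prod_restrict, lintegral_prod_symm _
        hHm.aemeasurable]
    have e2 : ∫⁻ p in cylc R, EE g p ^ (3 / 2 : ℝ) =
        ∫⁻ s in Set.Icc (-R) R, ∫⁻ Y in Metric.closedBall (0:E3) R, EE g (Y, s) ^ (3 / 2 : ℝ) := by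
      rw [cylc_eq, Measure.volume_eq_prod, ← Measure.prod_restrict, lintegral_prod_symm _
        hF.aemeasurable]
    rw [e1]
    calc ∫⁻ s in Set.Icc (-(R / 2)) (R / 2), ∫⁻ Y in Metric.closedBall (0:E3) (R / 2), H (Y, s)
        ≤ ∫⁻ s in Set.Icc (-(R / 2)) (R / 2),
            (c4 * (∫⁻ Y in Metric.closedBall (0:E3) R, EE g (Y, s) ^ (3 / 2 : ℝ)) +
              c4 * (cN * X)) := by
          refine lintegral_mono fun s => ?_
          have hFs : Measurable fun Y : E3 => EE g (Y, s) ^ (3 / 2 : ℝ) := hF.comp (by fun_prop)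
          refine (near_far N hR0.le hFs).trans ?_
          gcongr
          exact EE_total hgd s
      _ = (∫⁻ s in Set.Icc (-(R / 2)) (R / 2),
            c4 * (∫⁻ Y in Metric.closedBall (0:E3) R, EE g (Y, s) ^ (3 / 2 : ℝ))) +
              c4 * (cN * X) * ENNReal.ofReal R := by
          rw [lintegral_add_right _ measurable_const, setLIntegral_const, Real.volume_Icc]
          congr 3
          ring
      _ ≤ _ := by
          gcongr
          rw [lintegral_const_mul' _ _ c4_ne, e2]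
          refine mul_le_mul_right (lintegral_mono_set ?_) _
          exact Set.Icc_subset_Icc (by linarith) (by linarith)
  refine step1.trans ((mul_le_mul_right step2 _).trans ?_)
  rw [mul_add]
  refine add_le_add ?_ ?_
  · calc ENNReal.ofReal C1 * (c4 * ∫⁻ p in cylc R, EE g p ^ (3 / 2 : ℝ))
        ≤ ENNReal.ofReal C1 * (c4 * (ENNReal.ofReal C2 * NP 1 1 g R)) := by
          gcongr
          exact h2 g hg R
      _ = ENNReal.ofReal (C1 * c4.toReal * C2) * NP 1 1 g R := by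
          rw [ENNReal.ofReal_mul (by positivity), ENNReal.ofReal_mul hC1,
            ENNReal.ofReal_toReal c4_ne]
          ring
      _ ≤ _ := by
          gcongr
          exact le_max_left _ _
  · have hTr : T = ENNReal.ofReal (c * Enc g) := by
      rw [hT, ENNReal.ofReal_mul hc0, hc, ENNReal.ofReal_natCast]
    have hXr : X = ENNReal.ofReal (vb.toReal * (Real.sqrt (c * Enc g) * (c * Enc g))) := by
      rw [hX, hTr, ENNReal.ofReal_rpow_of_nonneg (by positivity) (by norm_num), ← Real.sqrt_eq_rpow,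
        ENNReal.ofReal_mul ENNReal.toReal_nonneg, ENNReal.ofReal_toReal vb_ne_top,
        ENNReal.ofReal_mul (Real.sqrt_nonneg _)]
      ring
    calc ENNReal.ofReal C1 * (c4 * (cN * X) * ENNReal.ofReal R)
        = ENNReal.ofReal (Q * (((1 + R ^ 2 / 4) ^ N)⁻¹ *
            (Real.sqrt (c * Enc g) * (c * Enc g))) * R) := by
          rw [hXr, hcN, hQ]
          conv_lhs => rw [← ENNReal.ofReal_toReal c4_ne]
          rw [← ENNReal.ofReal_mul (by positivity), ← ENNReal.ofReal_mul (by positivity),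
            ← ENNReal.ofReal_mul (by positivity), ← ENNReal.ofReal_mul (by positivity)]
          congr 1
          ring
      _ ≤ ENNReal.ofReal (Q * 4 ^ N * (Real.sqrt c * c) * (R * Enc g * Real.sqrt D)) :=
          ENNReal.ofReal_le_ofReal (real_tail hc0 hQ0 hst.R1 hE0 hst.nd hN)
      _ ≤ _ := by
          refine ENNReal.ofReal_le_ofReal ?_
          unfold SS
          refine mul_le_mul_of_nonneg_right (le_max_right _ _) ?_
          have := hst.R1
          positivity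

end Crest.Agent.R116.A5c192
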