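import Crest.Agent.R116.CDef_480
import Crest.Agent.R116.LZg3_725

/-!
# R116 (S0155), wave side, DECc, part 1: the MOVE lemma (helper295)

A phase point of a member (isotropic light box of aperture `s2`, thickness `T r`, length `r`, cut by
the conformal slab `|f| ≤ s1 r`, `f` compatible with the resolution `κ⁻¹` of the null normal) which is
moved inside its own plate dilated by `lam` and to a slope at distance `lam r^(-1/2)` stays in the
member dilated by `8 M lam²`.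
-/

set_option autoImplicit false

namespace Crest.Agent.R116.De295

open Crest.Agent.R138.Defs (E2)
open Crest.Agent.R116.CDef480
open Crest.Agent.R116.LZg725 (Cf)

/-- all facts on the function `f` of a member used by MOVE. -/
structure FF (M κ s1 s2 T r : ℝ) (f : Cf E2) : Prop where
  disc : f.disc = 1
  ny : ∀ s : ℝ, |s| ≤ r → |f.ny s| ≤ M * s2 / T
  cmp : ∀ s : ℝ, |s| ≤ r → |f.ny s| ≤ M * (κ * s1 * r)

/-- elementary facts on the sides. -/
structure SF (κ s1 s2 T r : ℝ) : Prop where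
  r1 : 1 ≤ r
  k0 : 0 < κ
  lo : r ^ (-(1/2) : ℝ) ≤ s1
  le : s1 ≤ s2
  T1 : s2 ^ 2 ≤ T
  T2 : κ⁻¹ ≤ T * r

section

variable {M κ s1 s2 T r : ℝ} {f : Cf E2}

theorem SF.r0 (h : SF κ s1 s2 T r) : 0 < r := lt_of_lt_of_le one_pos h.r1

theorem SF.rho0 (h : SF κ s1 s2 T r) : 0 < r ^ (-(1/2) : ℝ) := Real.rpow_pos_of_pos h.r0 _

theorem SF.s10 (h : SF κ s1 s2 T r) : 0 < s1 := h.rho0.trans_le h.lo

theorem SF.s20 (h : SF κ s1 s2 T r) : 0 < s2 := h.s10.trans_le h.le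

theorem SF.T0 (h : SF κ s1 s2 T r) : 0 < T := lt_of_lt_of_le (pow_pos h.s20 2) h.T1

theorem SF.hrho (h : SF κ s1 s2 T r) : r ^ (-(1/2) : ℝ) * r ^ (1/2 : ℝ) = 1 := by
  rw [← Real.rpow_add h.r0]; norm_num

theorem SF.hrr (h : SF κ s1 s2 T r) : r ^ (-(1/2) : ℝ) * r = r ^ (1/2 : ℝ) := by
  conv_lhs => rw [← Real.rpow_one r, ← Real.rpow_mul h.r0.le]
  rw [← Real.rpow_add h.r0]
  norm_num

theorem SF.sq (h : SF κ s1 s2 T r) : r ^ (1/2 : ℝ) * r ^ (1/2 : ℝ) = r := by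
  rw [← Real.rpow_add h.r0]; norm_num

/-- `r^(1/2) ≤ s1 r`. -/
theorem SF.w1 (h : SF κ s1 s2 T r) : r ^ (1/2 : ℝ) ≤ s1 * r := by
  rw [← h.hrr]
  exact mul_le_mul_of_nonneg_right h.lo h.r0.le

theorem SF.w2 (h : SF κ s1 s2 T r) : r ^ (1/2 : ℝ) ≤ s2 * r :=
  h.w1.trans (mul_le_mul_of_nonneg_right h.le h.r0.le)

/-- `1 ≤ s2 r^(1/2)`. -/
theorem SF.one_le (h : SF κ s1 s2 T r) : 1 ≤ s2 * r ^ (1/2 : ℝ) :=
  calc (1:ℝ) = r ^ (-(1/2) : ℝ) * r ^ (1/2 : ℝ) := h.hrho.symm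
    _ ≤ s2 * r ^ (1/2 : ℝ) :=
      mul_le_mul_of_nonneg_right (h.lo.trans h.le) (Real.rpow_nonneg h.r0.le _)

/-- bound of `|d|` from the bound of `ny`. -/
theorem FF.d_le (hS : SF κ s1 s2 T r) (h : FF M κ s1 s2 T r f) : |f.d| * (T * r) ≤ M * s2 / 2 := by
  have hT := hS.T0
  have hr := hS.r0
  have h1 := h.ny r (by rw [abs_of_pos hr])
  have h2 := h.ny (-r) (by rw [abs_neg, abs_of_pos hr])
  have e : f.ny (-r) - f.ny r = 4 * f.d * r := by unfold Cf.ny; ring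
  have h3 : |4 * f.d * r| ≤ |f.ny (-r)| + |f.ny r| := by rw [← e]; exact abs_sub _ _
  rw [abs_mul, abs_mul, abs_of_pos hr, abs_of_pos (by norm_num : (0:ℝ) < 4)] at h3
  have h4 : |f.d| * r ≤ M * s2 / T / 2 := by linarith
  calc |f.d| * (T * r) = T * (|f.d| * r) := by ring
    _ ≤ T * (M * s2 / T / 2) := mul_le_mul_of_nonneg_left h4 hT.le
    _ = M * s2 / 2 := by field_simp

theorem FF.d_le' (hS : SF κ s1 s2 T r) (h : FF M κ s1 s2 T r f) : |f.d| ≤ M * (κ * s1) / 2 := by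
  have hr := hS.r0
  have h1 := h.cmp r (by rw [abs_of_pos hr])
  have h2 := h.cmp (-r) (by rw [abs_neg, abs_of_pos hr])
  have e : f.ny (-r) - f.ny r = 4 * f.d * r := by unfold Cf.ny; ring
  have h3 : |4 * f.d * r| ≤ |f.ny (-r)| + |f.ny r| := by rw [← e]; exact abs_sub _ _
  rw [abs_mul, abs_mul, abs_of_pos hr, abs_of_pos (by norm_num : (0:ℝ) < 4)] at h3
  have h4 : |f.d| * r ≤ (M * (κ * s1) / 2) * r := by linarith
  exact le_of_mul_le_mul_right h4 hr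

theorem FF.M0 (hS : SF κ s1 s2 T r) (h : FF M κ s1 s2 T r f) : 0 ≤ M := by
  have h1 := (abs_nonneg _).trans (h.ny 0 (by rw [abs_zero]; exact hS.r0.le))
  have hT := hS.T0
  have h2 := hS.s20
  by_contra hM
  push Not at hM
  have : M * s2 / T < 0 := div_neg_of_neg_of_pos (mul_neg_of_neg_of_pos hM h2) hT
  linarith

/-- `s2 |ny 0| ≤ M`. -/
theorem FF.ny_le (hS : SF κ s1 s2 T r) (h : FF M κ s1 s2 T r f) : |f.ny 0| * s2 ≤ M := by
  have h1 := h.ny 0 (by rw [abs_zero]; exact hS.r0.le)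
  have hM := h.M0 hS
  have hT := hS.T0
  have h2 := hS.s20
  calc |f.ny 0| * s2 ≤ M * s2 / T * s2 := mul_le_mul_of_nonneg_right h1 h2.le
    _ = M * (s2 ^ 2 / T) := by ring
    _ ≤ M * 1 := mul_le_mul_of_nonneg_left ((div_le_one hT).2 hS.T1) hM
    _ = M := mul_one _

/-- the lateral gradient at a phase point of the member. -/
theorem FF.gr_le (hS : SF κ s1 s2 T r) (h : FF M κ s1 s2 T r f) {C : E2} {x : E2} {y : ℝ}
    (hev : |f.ev x y 0| ≤ s1 * r) (hld : |f.ld C x y 0| ≤ s1) : ‖f.gr C x 0‖ ≤ 1 + 2 * M := by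
  have hM := h.M0 hS
  have h1 := f.norm_gr_sq C x y 0
  rw [h.disc] at h1
  have h2 : |f.ny 0 * f.ld C x y 0| ≤ M := by
    rw [abs_mul]
    refine le_trans ?_ (h.ny_le hS)
    exact mul_le_mul_of_nonneg_left (hld.trans hS.le) (abs_nonneg _)
  have h3 : |f.d * f.ev x y 0| ≤ M / 2 := by
    rw [abs_mul]
    have hT := hS.T0
    have h4 := h.d_le hS
    have h5 : |f.d| * |f.ev x y 0| ≤ |f.d| * (s1 * r) :=
      mul_le_mul_of_nonneg_left hev (abs_nonneg _)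
    refine h5.trans ?_
    have h6 : |f.d| * (s1 * r) * s2 ≤ M / 2 * s2 := by
      calc |f.d| * (s1 * r) * s2 ≤ |f.d| * (s2 * r) * s2 := by
            have := hS.le; have := hS.r0; have := hS.s20; gcongr
        _ = |f.d| * (s2 ^ 2 * r) := by ring
        _ ≤ |f.d| * (T * r) := by
            have := hS.T1; have := hS.r0; gcongr
        _ ≤ M * s2 / 2 := h4
        _ = M / 2 * s2 := by ring
    exact le_of_mul_le_mul_right h6 hS.s20
  have h4 := (abs_le.1 h2).2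
  have h5 := (abs_le.1 h3).2
  have h6 : ‖f.gr C x 0‖ ^ 2 ≤ (1 + 2 * M) ^ 2 := by
    rw [h1]; nlinarith
  exact (sq_le_sq₀ (norm_nonneg _) (by linarith)).1 h6

/-- **MOVE**, values of `f` and of its derivative. -/
theorem FF.move (hS : SF κ s1 s2 T r) (h : FF M κ s1 s2 T r f) (hM : 1 ≤ M) {lam : ℝ}
    (hlam : 1 ≤ lam) {C C' : E2} {X Y : E3}
    (hev : |f.ev (lat X) (X 2) 0| ≤ s1 * r) (hld : |f.ld C (lat X) (X 2) 0| ≤ s1)
    (hC : ‖C' - C‖ ≤ lam * r ^ (-(1/2) : ℝ)) (h1 : ‖lat Y - lat X‖ ≤ lam * r ^ (1/2 : ℝ))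
    (h2 : |nrm C Y 0 - nrm C X 0| ≤ lam * κ⁻¹) :
    |f.ev (lat Y) (Y 2) 0| ≤ (8 * M * lam ^ 2) * (s1 * r) ∧
      |f.ld C' (lat Y) (Y 2) 0| ≤ (8 * M * lam ^ 2) * s1 := by
  have hr := hS.r0
  have hs1 := hS.s10
  have hs2 := hS.s20
  have hT := hS.T0
  have hk := hS.k0
  have hw1 := hS.w1
  have hM0 : 0 ≤ M := by linarith
  have hlam0 : 0 ≤ lam := by linarith
  have hsr : 0 ≤ s1 * r := by positivity
  have hgr := h.gr_le hS hev hld
  have hgr' : ‖f.gr C (lat X) 0‖ ≤ 3 * M := by linarith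
  have hρ := hS.rho0
  have hρ2 : 0 < r ^ (1/2 : ℝ) := Real.rpow_pos_of_pos hr _
  have hd := h.d_le hS
  have hd' := h.d_le' hS
  have hll : lam ≤ lam ^ 2 := by nlinarith
  have h1l : 1 ≤ lam ^ 2 := by nlinarith
  -- `|d| r ≤ M r^(1/2) / 2`
  have hdr : |f.d| * r ≤ M * r ^ (1/2 : ℝ) / 2 := by
    have h3 : |f.d| * r * s2 ≤ M / 2 := by
      have h4 : (|f.d| * r * s2) * s2 ≤ (M / 2) * s2 := by
        calc (|f.d| * r * s2) * s2 = |f.d| * (s2 ^ 2 * r) := by ring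
          _ ≤ |f.d| * (T * r) := by
              have := hS.T1; gcongr
          _ ≤ M * s2 / 2 := hd
          _ = (M / 2) * s2 := by ring
      exact le_of_mul_le_mul_right h4 hs2
    have h5 := hS.one_le
    calc |f.d| * r = |f.d| * r * 1 := (mul_one _).symm
      _ ≤ |f.d| * r * (s2 * r ^ (1/2 : ℝ)) := by gcongr
      _ = (|f.d| * r * s2) * r ^ (1/2 : ℝ) := by ring
      _ ≤ (M / 2) * r ^ (1/2 : ℝ) := by gcongr
      _ = _ := by ring
  constructor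
  · -- value
    have hexp := f.ev_expand C (lat X) (X 2) 0 (lat Y) (Y 2) 0
    have e0 : (lat Y - lat X) + ((0:ℝ) - 0) • C = lat Y - lat X := by simp
    rw [e0] at hexp
    have e1 : LZg725.nrm C (lat Y) (Y 2) 0 - LZg725.nrm C (lat X) (X 2) 0 =
        nrm C Y 0 - nrm C X 0 := rfl
    rw [e1] at hexp
    have t1 : |inner ℝ (f.gr C (lat X) 0) (lat Y - lat X)| ≤ 3 * M * lam * (s1 * r) := by
      refine (abs_real_inner_le_norm _ _).trans ?_
      calc ‖f.gr C (lat X) 0‖ * ‖lat Y - lat X‖ ≤ (3 * M) * (lam * r ^ (1/2 : ℝ)) := by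
            gcongr
        _ ≤ (3 * M) * (lam * (s1 * r)) := by gcongr
        _ = _ := by ring
    have t2 : |f.ny 0 * (nrm C Y 0 - nrm C X 0)| ≤ M * lam * (s1 * r) := by
      rw [abs_mul]
      have h3 := h.cmp 0 (by rw [abs_zero]; exact hr.le)
      calc |f.ny 0| * |nrm C Y 0 - nrm C X 0| ≤ (M * (κ * s1 * r)) * (lam * κ⁻¹) := by
            gcongr
        _ = M * lam * (s1 * r) := by field_simp
    have t3 : |f.d * ‖lat Y - lat X‖ ^ 2| ≤ M * lam ^ 2 / 2 * (s1 * r) := by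
      rw [abs_mul, abs_of_nonneg (sq_nonneg ‖lat Y - lat X‖)]
      calc |f.d| * ‖lat Y - lat X‖ ^ 2 ≤ |f.d| * (lam * r ^ (1/2 : ℝ)) ^ 2 := by gcongr
        _ = (|f.d| * r) * lam ^ 2 := by
            rw [mul_pow, sq (r ^ (1/2 : ℝ)), hS.sq]; ring
        _ ≤ (M * r ^ (1/2 : ℝ) / 2) * lam ^ 2 := by gcongr
        _ ≤ (M * (s1 * r) / 2) * lam ^ 2 := by gcongr
        _ = _ := by ring
    have e2 : f.ev (lat Y) (Y 2) 0 = f.ev (lat X) (X 2) 0 +
        inner ℝ (f.gr C (lat X) 0) (lat Y - lat X) + f.ny 0 * (nrm C Y 0 - nrm C X 0) +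
        f.d * ‖lat Y - lat X‖ ^ 2 := by
      rw [hexp]; ring
    rw [e2]
    refine (abs_add_le _ _).trans ?_
    refine (add_le_add ((abs_add_le _ _).trans (add_le_add ((abs_add_le _ _).trans
      (add_le_add hev t1)) t2)) t3).trans ?_
    have h6 : s1 * r + 3 * M * lam * (s1 * r) + M * lam * (s1 * r) + M * lam ^ 2 / 2 * (s1 * r) =
        (1 + 3 * M * lam + M * lam + M * lam ^ 2 / 2) * (s1 * r) := by ring
    rw [h6]
    refine mul_le_mul_of_nonneg_right ?_ hsr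
    have h7 : M * lam ≤ M * lam ^ 2 := mul_le_mul_of_nonneg_left hll hM0
    have h8 : 1 ≤ M * lam ^ 2 := by nlinarith
    linarith
  · -- derivative
    have s1' : f.ld C (lat Y) (Y 2) 0 = f.ld C (lat X) (X 2) 0 -
        2 * f.d * (nrm C Y 0 - nrm C X 0) := f.ld_move C (lat X) (lat Y) (X 2) (Y 2) 0 0
    have s2' := f.ld_dir C C' (lat Y) (Y 2) 0
    have s3 : f.gr C (lat Y) 0 = f.gr C (lat X) 0 + (2 * f.d) • (lat Y - lat X) := by
      have := f.gr_move C (lat X) (lat Y) 0 0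
      simpa using this
    have t1 : |2 * f.d * (nrm C Y 0 - nrm C X 0)| ≤ M * lam * s1 := by
      rw [abs_mul, abs_mul, abs_of_pos (by norm_num : (0:ℝ) < 2)]
      calc 2 * |f.d| * |nrm C Y 0 - nrm C X 0| ≤ 2 * (M * (κ * s1) / 2) * (lam * κ⁻¹) := by
            gcongr
        _ = M * lam * s1 := by field_simp
    have t2 : ‖f.gr C (lat Y) 0‖ ≤ 4 * M * lam := by
      rw [s3]
      refine (norm_add_le _ _).trans ?_
      rw [norm_smul, Real.norm_eq_abs, abs_mul, abs_of_pos (by norm_num : (0:ℝ) < 2)]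
      have h3 : 2 * |f.d| * ‖lat Y - lat X‖ ≤ M * lam := by
        calc 2 * |f.d| * ‖lat Y - lat X‖ ≤ 2 * |f.d| * (lam * r ^ (1/2 : ℝ)) := by gcongr
          _ ≤ M * lam := by
            have h4 : |f.d| * r * 2 ≤ M * r ^ (1/2 : ℝ) := by linarith
            have h5 : (2 * |f.d| * (lam * r ^ (1/2 : ℝ))) * r ^ (1/2 : ℝ) ≤
                (M * lam) * r ^ (1/2 : ℝ) := by
              calc (2 * |f.d| * (lam * r ^ (1/2 : ℝ))) * r ^ (1/2 : ℝ) =
                  lam * (|f.d| * (r ^ (1/2 : ℝ) * r ^ (1/2 : ℝ)) * 2) := by ring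
                _ = lam * (|f.d| * r * 2) := by rw [hS.sq]
                _ ≤ lam * (M * r ^ (1/2 : ℝ)) := by gcongr
                _ = _ := by ring
            exact le_of_mul_le_mul_right h5 hρ2
      have h4 : M ≤ M * lam := le_mul_of_one_le_right hM0 hlam
      linarith
    have hCs : ‖C' - C‖ ≤ lam * s1 := hC.trans (by have := hS.lo; gcongr)
    have t3 : |inner ℝ (f.gr C (lat Y) 0) (C' - C)| ≤ 4 * M * lam ^ 2 * s1 := by
      refine (abs_real_inner_le_norm _ _).trans ?_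
      calc ‖f.gr C (lat Y) 0‖ * ‖C' - C‖ ≤ (4 * M * lam) * (lam * s1) := by gcongr
        _ = _ := by ring
    have t4 : |f.ny 0 * ‖C' - C‖ ^ 2 / 2| ≤ M * lam ^ 2 / 2 * s1 := by
      rw [abs_div, abs_mul, abs_of_nonneg (sq_nonneg ‖C' - C‖),
        abs_of_pos (by norm_num : (0:ℝ) < 2)]
      have h3 := h.ny_le hS
      have hCs2 : ‖C' - C‖ ≤ lam * s2 := hCs.trans (by have := hS.le; gcongr)
      calc |f.ny 0| * ‖C' - C‖ ^ 2 / 2 = |f.ny 0| * (‖C' - C‖ * ‖C' - C‖) / 2 := by ring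
        _ ≤ |f.ny 0| * ((lam * s2) * (lam * s1)) / 2 := by gcongr
        _ = (|f.ny 0| * s2) * (lam ^ 2 * s1) / 2 := by ring
        _ ≤ M * (lam ^ 2 * s1) / 2 := by gcongr
        _ = _ := by ring
    rw [s2', s1']
    have e3 : f.ld C (lat X) (X 2) 0 - 2 * f.d * (nrm C Y 0 - nrm C X 0) -
        inner ℝ (f.gr C (lat Y) 0) (C' - C) + f.ny 0 * ‖C' - C‖ ^ 2 / 2 =
        (f.ld C (lat X) (X 2) 0 + -(2 * f.d * (nrm C Y 0 - nrm C X 0))) +
        (-(inner ℝ (f.gr C (lat Y) 0) (C' - C)) + f.ny 0 * ‖C' - C‖ ^ 2 / 2) := by ring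
    rw [e3]
    refine (abs_add_le _ _).trans ?_
    refine (add_le_add (abs_add_le _ _) (abs_add_le _ _)).trans ?_
    rw [abs_neg, abs_neg]
    refine (add_le_add (add_le_add hld t1) (add_le_add t3 t4)).trans ?_
    have h6 : s1 + M * lam * s1 + (4 * M * lam ^ 2 * s1 + M * lam ^ 2 / 2 * s1) =
        (1 + M * lam + (4 * M * lam ^ 2 + M * lam ^ 2 / 2)) * s1 := by ring
    rw [h6]
    refine mul_le_mul_of_nonneg_right ?_ hs1.le
    have h7 : M * lam ≤ M * lam ^ 2 := mul_le_mul_of_nonneg_left hll hM0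
    have h8 : 1 ≤ M * lam ^ 2 := by nlinarith
    linarith

/-- **MOVE**, the light box. -/
theorem box_move (hS : SF κ s1 s2 T r) {lam : ℝ} (hlam : 1 ≤ lam) {c C C' : E2} {X0 X Y : E3}
    (hc : ‖C - c‖ ≤ s2) (hl : ‖lat X - lat X0‖ ≤ s2 * r)
    (hn : |nrm c X 0 - nrm c X0 0| ≤ T * r)
    (hC : ‖C' - C‖ ≤ lam * r ^ (-(1/2) : ℝ)) (h1 : ‖lat Y - lat X‖ ≤ lam * r ^ (1/2 : ℝ))
    (h2 : |nrm C Y 0 - nrm C X 0| ≤ lam * κ⁻¹) :
    ‖C' - c‖ ≤ (3 * lam) * s2 ∧ ‖lat Y - lat X0‖ ≤ (3 * lam) * s2 * r ∧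
      |nrm c Y 0 - nrm c X0 0| ≤ (3 * lam) * T * r := by
  have hr := hS.r0
  have hs2 := hS.s20
  have hT := hS.T0
  have hlam0 : 0 ≤ lam := by linarith
  have hw2 := hS.w2
  refine ⟨?_, ?_, ?_⟩
  · have e : C' - c = (C' - C) + (C - c) := by abel
    rw [e]
    refine (norm_add_le _ _).trans ?_
    have h3 : lam * r ^ (-(1/2) : ℝ) ≤ lam * s2 := by
      have := hS.lo.trans hS.le; gcongr
    nlinarith
  · have e : lat Y - lat X0 = (lat Y - lat X) + (lat X - lat X0) := by abel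
    rw [e]
    refine (norm_add_le _ _).trans ?_
    have h3 : lam * r ^ (1/2 : ℝ) ≤ lam * (s2 * r) := by gcongr
    have h4 : 0 ≤ s2 * r := by positivity
    nlinarith
  · have e : nrm c Y 0 - nrm c X0 0 = (nrm C Y 0 - nrm C X 0) +
        (nrm c X 0 - nrm c X0 0) + inner ℝ (c - C) (lat Y - lat X) := by
      unfold nrm
      rw [inner_sub_right, inner_sub_left, inner_sub_left]
      ring
    rw [e]
    refine (abs_add_le _ _).trans ?_
    have h3 : |inner ℝ (c - C) (lat Y - lat X)| ≤ lam * (T * r) := by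
      refine (abs_real_inner_le_norm _ _).trans ?_
      have hc' : ‖c - C‖ ≤ s2 := by rw [norm_sub_rev]; exact hc
      calc ‖c - C‖ * ‖lat Y - lat X‖ ≤ s2 * (lam * r ^ (1/2 : ℝ)) := by gcongr
        _ ≤ s2 * (lam * (s2 * r)) := by gcongr
        _ = lam * (s2 ^ 2 * r) := by ring
        _ ≤ lam * (T * r) := by have := hS.T1; gcongr
    have h4 : lam * κ⁻¹ ≤ lam * (T * r) := by have := hS.T2; gcongr
    have h5 := abs_add_le (nrm C Y 0 - nrm C X 0) (nrm c X 0 - nrm c X0 0)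
    have h6 : 0 ≤ T * r := by positivity
    nlinarith

end

end Crest.Agent.R116.De295
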