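import Crest.Agent.R116.PDefC_299
import Crest.Agent.R116.DeG1_295

/-!
# R116, WAVE side: the NUMBERS behind `PDefC_299` (helper299)

* `an` facts, `TT` facts, `SF` / `FF` of `DeG1_295` from `Sd` / `Adm`;
* at one phase point of `pbx κ A ..`: `|ny|`, `|d|` (both bounds), `|ev|`, `|ld|`, `1/2 ≤ |gr|`;
* consequences of `Ctx`: scales, static conditions, `K Gm an ≤ s2`, `K κ Gm Y ≤ dl ..`.
-/

set_option autoImplicit false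

open MeasureTheory
open scoped ENNReal

namespace Crest.Agent.R116.PC299

open Crest.Agent.R138.Defs (E2)
open Crest.Agent.R138.Wpk685 (cen caps)
open Crest.Agent.R116.CDef480
open Crest.Agent.R116.LZg725 (Cf)
open Crest.Agent.R116.WC188
open Crest.Agent.R116.De295 (FF SF)

/-! ### `an` -/

theorem an_pos {r : ℝ} (hr : 0 < r) : 0 < an r := Real.rpow_pos_of_pos hr _

theorem an_le_one {r : ℝ} (hr : 1 ≤ r) : an r ≤ 1 :=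
  Real.rpow_le_one_of_one_le_of_nonpos hr (by norm_num)

theorem an_mul_an {r : ℝ} (hr : 0 < r) : an r * an r = r⁻¹ := by
  unfold an
  rw [← Real.rpow_add hr, ← Real.rpow_neg_one]
  norm_num

theorem an_sq {r : ℝ} (hr : 0 < r) : an r ^ 2 = r⁻¹ := by rw [pow_two, an_mul_an hr]

/-- `r θ² = 1`. -/
theorem mul_an_sq {r : ℝ} (hr : 0 < r) : r * an r ^ 2 = 1 := by
  rw [an_sq hr, mul_inv_cancel₀ hr.ne']

theorem an_dl {dl r : ℝ} (hd : 0 < dl) (hr : 0 < r) : an (dl * r) = dl ^ (-(1/2) : ℝ) * an r :=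
  Real.mul_rpow hd.le hr.le

theorem dlh_mul {dl : ℝ} (hd : 0 < dl) : dl ^ (1/2 : ℝ) * dl ^ (-(1/2) : ℝ) = 1 := by
  rw [← Real.rpow_add hd]; norm_num

theorem dlh_sq {dl : ℝ} (hd : 0 < dl) : dl ^ (-(1/2) : ℝ) * dl ^ (-(1/2) : ℝ) = dl⁻¹ :=
  an_mul_an hd

theorem dlh_ge {dl : ℝ} (hd : 0 < dl) (hd1 : dl ≤ 1) : 1 ≤ dl ^ (-(1/2) : ℝ) :=
  Real.one_le_rpow_of_pos_of_le_one_of_nonpos hd hd1 (by norm_num)

/-- `δ θ' = θ`, `δ = dl^(1/2)`. -/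
theorem dl_an {dl r : ℝ} (hd : 0 < dl) (hr : 0 < r) : dl ^ (1/2 : ℝ) * an (dl * r) = an r := by
  rw [an_dl hd hr, ← mul_assoc, dlh_mul hd, one_mul]

theorem an_le_an {dl r : ℝ} (hd : 0 < dl) (hd1 : dl ≤ 1) (hr : 0 < r) : an r ≤ an (dl * r) := by
  rw [an_dl hd hr]
  exact le_mul_of_one_le_left (an_pos hr).le (dlh_ge hd hd1)

theorem an_dl2 {dl r : ℝ} (hd : 0 < dl) (hr : 0 < r) : an (dl * (dl * r)) = dl⁻¹ * an r := by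
  rw [an_dl hd (mul_pos hd hr), an_dl hd hr, ← mul_assoc, dlh_sq hd]

/-- `θ θ'' = θ'²`. -/
theorem an_mul_an2 {dl r : ℝ} (hd : 0 < dl) (hr : 0 < r) :
    an r * an (dl * (dl * r)) = (dl * r)⁻¹ := by
  rw [an_dl2 hd hr, mul_left_comm, an_mul_an hr, mul_inv]

/-! ### members -/

variable {M κ q a b A s1 s2 T r : ℝ} {c : E2} {X0 X : E3} {f : Cf E2} {m : ℤ × ℤ}

theorem Sd.s10 (h : Sd r s1 s2) (hr : 0 < r) : 0 < s1 := (an_pos hr).trans_le h.lo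

theorem Sd.s20 (h : Sd r s1 s2) (hr : 0 < r) : 0 < s2 := (Sd.s10 h hr).trans_le h.le

theorem sq_le_TT (κ s r : ℝ) : s ^ 2 ≤ TT κ s r := le_max_left _ _

theorem kinv_le_TT (κ s : ℝ) (hr : 0 < r) : κ⁻¹ ≤ TT κ s r * r := by
  have h : (κ * r)⁻¹ ≤ TT κ s r := le_max_right _ _
  calc κ⁻¹ = (κ * r)⁻¹ * r := by rw [mul_inv, mul_assoc, inv_mul_cancel₀ hr.ne', mul_one]
    _ ≤ _ := mul_le_mul_of_nonneg_right h hr.le

theorem sf_of (h : Sd r s1 s2) (hr : 1 ≤ r) (hκ : 0 < κ) : SF κ s1 s2 (TT κ s2 r) r :=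
  ⟨hr, hκ, h.lo, h.le, sq_le_TT _ _ _, kinv_le_TT _ _ (by linarith)⟩

theorem ff_of (h : Adm M κ s1 s2 T r c X0 f) : FF M κ s1 s2 T r f := ⟨h.disc, h.ny, h.cmp⟩

theorem M_nonneg (h : Adm M κ s1 s2 (TT κ s2 r) r c X0 f) (hs : Sd r s1 s2) (hr : 1 ≤ r)
    (hκ : 0 < κ) : 0 ≤ M := (ff_of h).M0 (sf_of hs hr hκ)

/-- `|ny| ≤ M / s2` on the whole life. -/
theorem ny_le (h : Adm M κ s1 s2 (TT κ s2 r) r c X0 f) (hs : Sd r s1 s2) (hr : 1 ≤ r)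
    (hκ : 0 < κ) {s : ℝ} (hs' : |s| ≤ r) : |f.ny s| ≤ M / s2 := by
  have hS := sf_of hs hr hκ
  have hM := M_nonneg h hs hr hκ
  have h2 := Sd.s20 hs (by linarith)
  refine (h.ny s hs').trans ?_
  have hT := hS.T0
  rw [div_le_div_iff₀ hT h2]
  calc M * s2 * s2 = M * s2 ^ 2 := by ring
    _ ≤ M * TT κ s2 r := mul_le_mul_of_nonneg_left hS.T1 hM

/-- `|d| ≤ M κ s1 / 2` (compatibility). -/
theorem d_le1 (h : Adm M κ s1 s2 (TT κ s2 r) r c X0 f) (hs : Sd r s1 s2) (hr : 1 ≤ r)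
    (hκ : 0 < κ) : |f.d| ≤ M * (κ * s1) / 2 := (ff_of h).d_le' (sf_of hs hr hκ)

/-- `|d| ≤ M / (2 s2 r)`. -/
theorem d_le2 (h : Adm M κ s1 s2 (TT κ s2 r) r c X0 f) (hs : Sd r s1 s2) (hr : 1 ≤ r)
    (hκ : 0 < κ) : |f.d| ≤ M / (2 * (s2 * r)) := by
  have hr0 : 0 < r := by linarith
  have hS := sf_of hs hr hκ
  have h2 := Sd.s20 hs hr0
  have h3 := (ff_of h).d_le hS
  rw [le_div_iff₀ (by positivity)]
  have h4 : |f.d| * (s2 ^ 2 * r) ≤ |f.d| * (TT κ s2 r * r) := by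
    have := hS.T1
    gcongr
  have h5 : |f.d| * (2 * (s2 * r)) * s2 ≤ M * s2 := by
    calc |f.d| * (2 * (s2 * r)) * s2 = 2 * (|f.d| * (s2 ^ 2 * r)) := by ring
      _ ≤ M * s2 := by linarith
  exact le_of_mul_le_mul_right h5 h2

/-- change of `ny` in time. -/
theorem ny_move (h : Adm M κ s1 s2 (TT κ s2 r) r c X0 f) (hs : Sd r s1 s2) (hr : 1 ≤ r)
    (hκ : 0 < κ) (s : ℝ) : |f.ny s - f.ny 0| ≤ M * (κ * s1) * |s| := by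
  have e : f.ny s - f.ny 0 = -(2 * f.d * s) := by unfold Cf.ny; ring
  have h1 := d_le1 h hs hr hκ
  rw [e, abs_neg, abs_mul, abs_mul, abs_of_pos (by norm_num : (0:ℝ) < 2)]
  calc 2 * |f.d| * |s| ≤ 2 * (M * (κ * s1) / 2) * |s| := by gcongr
    _ = _ := by ring

/-- the facts at one phase point of a member. -/
theorem pbx_ev (h : X ∈ pbx κ A r s1 s2 c X0 f m) : |f.ev (lat X) (X 2) 0| ≤ A * s1 * r :=
  h.2.2.2.1

theorem pbx_ld (h : X ∈ pbx κ A r s1 s2 c X0 f m) :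
    |f.ld (cen (an r) m) (lat X) (X 2) 0| ≤ A * s1 := h.2.2.2.2

theorem pbx_cen (h : X ∈ pbx κ A r s1 s2 c X0 f m) : ‖cen (an r) m - c‖ ≤ A * s2 := h.1

theorem pbx_lat (h : X ∈ pbx κ A r s1 s2 c X0 f m) : ‖lat X - lat X0‖ ≤ A * s2 * r := h.2.1

theorem pbx_nrm (h : X ∈ pbx κ A r s1 s2 c X0 f m) :
    |nrm c X 0 - nrm c X0 0| ≤ A * TT κ s2 r * r := h.2.2.1

/-- the gradient at a phase point is close to one. -/
theorem gr_sq_near (h : Adm M κ s1 s2 (TT κ s2 r) r c X0 f) (hs : Sd r s1 s2) (hr : 1 ≤ r)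
    (hκ : 0 < κ) (hX : X ∈ pbx κ A r s1 s2 c X0 f m) :
    |‖f.gr (cen (an r) m) (lat X) 0‖ ^ 2 - 1| ≤ 4 * (M * A * (s1 / s2)) := by
  have hr0 : 0 < r := by linarith
  have h2 := Sd.s20 hs hr0
  have hM := M_nonneg h hs hr hκ
  have e := f.norm_gr_sq (cen (an r) m) (lat X) (X 2) 0
  rw [h.disc] at e
  have h3 := pbx_ev hX
  have h4 := pbx_ld hX
  have h5 := ny_le h hs hr hκ (s := 0) (by rw [abs_zero]; exact hr0.le)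
  have h6 := d_le2 h hs hr hκ
  have e1 : |f.ny 0 * f.ld (cen (an r) m) (lat X) (X 2) 0| ≤ M * A * (s1 / s2) := by
    rw [abs_mul]
    calc _ ≤ M / s2 * (A * s1) := mul_le_mul h5 h4 (abs_nonneg _) (by positivity)
      _ = _ := by ring
  have e2 : |f.d * f.ev (lat X) (X 2) 0| ≤ M * A * (s1 / s2) / 2 := by
    rw [abs_mul]
    calc _ ≤ M / (2 * (s2 * r)) * (A * s1 * r) := mul_le_mul h6 h3 (abs_nonneg _) (by positivity)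
      _ = _ := by field_simp
  have e3 := abs_le.1 e1
  have e4 := abs_le.1 e2
  rw [e, abs_le]
  constructor <;> nlinarith [e3.1, e3.2, e4.1, e4.2]

/-- `1/2 ≤ |gr|` at the phase points of a wide member. -/
theorem gr_ge (h : Adm M κ s1 s2 (TT κ s2 r) r c X0 f) (hs : Sd r s1 s2) (hr : 1 ≤ r)
    (hκ : 0 < κ) (hX : X ∈ pbx κ A r s1 s2 c X0 f m) (hw : 8 * (M * A * s1) ≤ s2) :
    1/2 ≤ ‖f.gr (cen (an r) m) (lat X) 0‖ ∧ ‖f.gr (cen (an r) m) (lat X) 0‖ ≤ 5/4 := by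
  have h2 := Sd.s20 hs (by linarith)
  have h1 := abs_le.1 (gr_sq_near h hs hr hκ hX)
  have h3 : M * A * (s1 / s2) ≤ 1/8 := by
    rw [← mul_div_assoc, div_le_iff₀ h2]; linarith
  have h4 := norm_nonneg (f.gr (cen (an r) m) (lat X) 0)
  constructor
  · nlinarith [h1.1]
  · nlinarith [h1.2]

/-! ### powers of `dl` -/

section dl

variable {dl d0 G Gm Y K x s : ℝ}

theorem dl_rpow_le {p : ℝ} (hd : 0 < dl) (hd1 : dl ≤ 1) (hp : p ≤ 0) : 1 ≤ dl ^ p :=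
  Real.one_le_rpow_of_pos_of_le_one_of_nonpos hd hd1 hp

/-- `K dl^p ≤ dl^p'` for `p' + 1/2 ≤ p`. -/
theorem K_dl {p p' : ℝ} (hd : 0 < dl) (hdd : dl ≤ d0) (h01 : d0 ≤ 1) (hK : 0 ≤ K)
    (hKd : K * d0 ^ (1/2 : ℝ) ≤ 1) (hp : p' + 1/2 ≤ p) : K * dl ^ p ≤ dl ^ p' := by
  have h1 : dl ^ (1/2 : ℝ) ≤ d0 ^ (1/2 : ℝ) := Real.rpow_le_rpow hd.le hdd (by norm_num)
  have h2 : K * dl ^ (1/2 : ℝ) ≤ 1 := (mul_le_mul_of_nonneg_left h1 hK).trans hKd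
  have h3 : dl ^ p ≤ dl ^ (p' + 1/2) :=
    Real.rpow_le_rpow_of_exponent_ge hd (hdd.trans h01) hp
  calc K * dl ^ p ≤ K * dl ^ (p' + 1/2) := mul_le_mul_of_nonneg_left h3 hK
    _ = (K * dl ^ (1/2 : ℝ)) * dl ^ p' := by rw [Real.rpow_add hd]; ring
    _ ≤ 1 * dl ^ p' := mul_le_mul_of_nonneg_right h2 (Real.rpow_nonneg hd.le _)
    _ = _ := one_mul _

/-- **wide sides**: `K Gm θ ≤ s`. -/
theorem wide_Gm (hd : 0 < dl) (hdd : dl ≤ d0) (h01 : d0 ≤ 1) (hG : 1 ≤ G) (hK : 0 ≤ K)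
    (hKd : K * d0 ^ (1/2 : ℝ) ≤ 1) (hGm : Gm ≤ dl ^ (-(1/4) : ℝ)) (hx : 0 ≤ x)
    (hw : dl ^ (-G) * x ≤ s) : K * (Gm * x) ≤ s := by
  refine le_trans ?_ hw
  rw [← mul_assoc]
  refine mul_le_mul_of_nonneg_right ?_ hx
  refine (mul_le_mul_of_nonneg_left hGm hK).trans ?_
  exact K_dl hd hdd h01 hK hKd (by linarith)

/-- **wide sides**: `K dl^(-1/2) θ ≤ s`. -/
theorem wide_half (hd : 0 < dl) (hdd : dl ≤ d0) (h01 : d0 ≤ 1) (hG : 1 ≤ G) (hK : 0 ≤ K)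
    (hKd : K * d0 ^ (1/2 : ℝ) ≤ 1) (hx : 0 ≤ x)
    (hw : dl ^ (-G) * x ≤ s) : K * (dl ^ (-(1/2) : ℝ) * x) ≤ s := by
  refine le_trans ?_ hw
  rw [← mul_assoc]
  refine mul_le_mul_of_nonneg_right ?_ hx
  exact K_dl hd hdd h01 hK hKd (by linarith)

end dl

/-! ### consequences of `Ctx` -/

section ctx

variable {d0 G c0 η0 : ℝ} {g : E3 → ℂ} {r1 dl Y Gm s1' s2' D K : ℝ} {I1 I : Finset ℕ}
  {P1 P : ℕ → Plate}

theorem Ctx.dl1 (h : Ctx M q a b A d0 G c0 κ η0 g r1 dl Y Gm s1' s2' s1 s2 D I1 P1 I P)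
    (h01 : d0 ≤ 1) : dl ≤ 1 := h.dlle.trans h01

theorem Ctx.k8 (h : Ctx M q a b A d0 G c0 κ η0 g r1 dl Y Gm s1' s2' s1 s2 D I1 P1 I P)
    (ha : 1 ≤ a) : κ ≤ 1/8 := by
  have h1 := h.ka
  have h2 := h.kpos
  nlinarith

theorem Ctx.r10 (h : Ctx M q a b A d0 G c0 κ η0 g r1 dl Y Gm s1' s2' s1 s2 D I1 P1 I P) :
    0 < r1 := (Real.rpow_pos_of_pos h.dlpos _).trans_le h.r1ge

theorem Ctx.rj0 (h : Ctx M q a b A d0 G c0 κ η0 g r1 dl Y Gm s1' s2' s1 s2 D I1 P1 I P) :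
    0 < dl * r1 := mul_pos h.dlpos h.r10

/-- `κ^(-4) ≤ dl r1`. -/
theorem Ctx.rj_ge (h : Ctx M q a b A d0 G c0 κ η0 g r1 dl Y Gm s1' s2' s1 s2 D I1 P1 I P) :
    1 ≤ κ ^ 4 * (dl * r1) := by
  have hr := h.rj0
  have h1 := pow_le_pow_left₀ (Real.rpow_nonneg hr.le _) h.klo 4
  rw [← Real.rpow_natCast, ← Real.rpow_mul hr.le] at h1
  have e : (-(1/4) : ℝ) * ((4 : ℕ) : ℝ) = -1 := by norm_num
  rw [e, Real.rpow_neg_one] at h1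
  calc (1:ℝ) = (dl * r1)⁻¹ * (dl * r1) := (inv_mul_cancel₀ hr.ne').symm
    _ ≤ κ ^ 4 * (dl * r1) := mul_le_mul_of_nonneg_right h1 hr.le

theorem Ctx.rj1 (h : Ctx M q a b A d0 G c0 κ η0 g r1 dl Y Gm s1' s2' s1 s2 D I1 P1 I P)
    (ha : 1 ≤ a) : 1 ≤ dl * r1 := by
  have h1 := h.rj_ge
  have h2 := h.k8 ha
  have h3 : κ ^ 4 ≤ 1 := pow_le_one₀ h.kpos.le (by linarith)
  have h4 := h.rj0
  nlinarith

theorem Ctx.r11 (h : Ctx M q a b A d0 G c0 κ η0 g r1 dl Y Gm s1' s2' s1 s2 D I1 P1 I P)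
    (h01 : d0 ≤ 1) (ha : 1 ≤ a) : 1 ≤ r1 := by
  have h1 := h.rj1 ha
  have h2 := h.dl1 h01
  have h3 := h.r10
  nlinarith

/-- `κ ≤ dl^p` for `p ≤ 4`. -/
theorem Ctx.k_le (h : Ctx M q a b A d0 G c0 κ η0 g r1 dl Y Gm s1' s2' s1 s2 D I1 P1 I P)
    (h01 : d0 ≤ 1) {p : ℝ} (hp : p ≤ 4) : κ ≤ dl ^ p := by
  refine h.khi.trans ?_
  rw [← Real.rpow_natCast]
  exact Real.rpow_le_rpow_of_exponent_ge h.dlpos (h.dl1 h01) (by simpa using hp)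

/-- static condition for the child angle. -/
theorem Ctx.st1 (h : Ctx M q a b A d0 G c0 κ η0 g r1 dl Y Gm s1' s2' s1 s2 D I1 P1 I P)
    (h01 : d0 ≤ 1) : κ * an (dl * r1) ≤ dl ^ (3 : ℕ) * an r1 := by
  have hd := h.dlpos
  rw [an_dl hd h.r10, ← mul_assoc]
  refine mul_le_mul_of_nonneg_right ?_ (an_pos h.r10).le
  calc κ * dl ^ (-(1/2) : ℝ) ≤ dl ^ (7/2 : ℝ) * dl ^ (-(1/2) : ℝ) :=
        mul_le_mul_of_nonneg_right (h.k_le h01 (by norm_num)) (Real.rpow_nonneg hd.le _)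
    _ = dl ^ (3 : ℕ) := by
        rw [← Real.rpow_add hd, ← Real.rpow_natCast]; norm_num

/-- static condition for the grandchild angle. -/
theorem Ctx.st2 (h : Ctx M q a b A d0 G c0 κ η0 g r1 dl Y Gm s1' s2' s1 s2 D I1 P1 I P) :
    κ * an (dl * (dl * r1)) ≤ dl ^ (3 : ℕ) * an r1 := by
  have hd := h.dlpos
  rw [an_dl2 hd h.r10, ← mul_assoc]
  refine mul_le_mul_of_nonneg_right ?_ (an_pos h.r10).le
  calc κ * dl⁻¹ ≤ dl ^ (4 : ℕ) * dl⁻¹ := mul_le_mul_of_nonneg_right h.khi (inv_pos.2 hd).le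
    _ = dl ^ (3 : ℕ) := by field_simp

theorem Ctx.st1' (h : Ctx M q a b A d0 G c0 κ η0 g r1 dl Y Gm s1' s2' s1 s2 D I1 P1 I P)
    (h01 : d0 ≤ 1) : κ * an (dl * r1) ≤ an r1 :=
  (h.st1 h01).trans (mul_le_of_le_one_left (an_pos h.r10).le
    (pow_le_one₀ h.dlpos.le (h.dl1 h01)))

theorem Ctx.st2' (h : Ctx M q a b A d0 G c0 κ η0 g r1 dl Y Gm s1' s2' s1 s2 D I1 P1 I P)
    (h01 : d0 ≤ 1) : κ * an (dl * (dl * r1)) ≤ an r1 :=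
  h.st2.trans (mul_le_of_le_one_left (an_pos h.r10).le (pow_le_one₀ h.dlpos.le (h.dl1 h01)))

/-- times: `|t| θ θ'' ≤ K` for `|t| ≤ K r_j`. -/
theorem Ctx.tm1 (h : Ctx M q a b A d0 G c0 κ η0 g r1 dl Y Gm s1' s2' s1 s2 D I1 P1 I P)
    {t : ℝ} (ht : |t| ≤ K * (dl * r1)) : |t| * (an r1 * an (dl * (dl * r1))) ≤ K := by
  have hr := h.rj0
  rw [an_mul_an2 h.dlpos h.r10, ← div_eq_mul_inv, div_le_iff₀ hr]
  exact ht

/-- times: `|t| κ θ''² ≤ K dl^3` for `|t| ≤ K r_j`. -/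
theorem Ctx.tm2 (h : Ctx M q a b A d0 G c0 κ η0 g r1 dl Y Gm s1' s2' s1 s2 D I1 P1 I P)
    (hK : 0 ≤ K) {t : ℝ} (ht : |t| ≤ K * (dl * r1)) :
    |t| * (κ * an (dl * (dl * r1)) ^ 2) ≤ K * dl ^ (3 : ℕ) := by
  have hd := h.dlpos
  have hr := h.rj0
  have hk := h.kpos
  rw [an_sq (mul_pos hd hr)]
  calc |t| * (κ * (dl * (dl * r1))⁻¹) ≤ (K * (dl * r1)) * (κ * (dl * (dl * r1))⁻¹) := by gcongr
    _ = K * (κ * dl⁻¹) := by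
        rw [mul_inv]
        have : (dl * r1) * (dl * r1)⁻¹ = 1 := mul_inv_cancel₀ hr.ne'
        calc K * (dl * r1) * (κ * (dl⁻¹ * (dl * r1)⁻¹)) =
              K * (κ * dl⁻¹) * ((dl * r1) * (dl * r1)⁻¹) := by ring
          _ = _ := by rw [this, mul_one]
    _ ≤ K * (dl ^ (4 : ℕ) * dl⁻¹) := by
        have := h.khi
        gcongr
    _ = K * dl ^ (3 : ℕ) := by field_simp

/-- `K Gm θ' ≤ s2`. -/
theorem Ctx.w1 (h : Ctx M q a b A d0 G c0 κ η0 g r1 dl Y Gm s1' s2' s1 s2 D I1 P1 I P)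
    (h01 : d0 ≤ 1) (hG : 1 ≤ G) (hK : 0 ≤ K) (hKd : K * d0 ^ (1/2 : ℝ) ≤ 1) :
    K * (Gm * an (dl * r1)) ≤ s2 :=
  wide_Gm h.dlpos h.dlle h01 hG hK hKd h.Gm2 (an_pos h.rj0).le h.wide

/-- `K θ'' ≤ s2`. -/
theorem Ctx.w2 (h : Ctx M q a b A d0 G c0 κ η0 g r1 dl Y Gm s1' s2' s1 s2 D I1 P1 I P)
    (h01 : d0 ≤ 1) (hG : 1 ≤ G) (hK : 0 ≤ K) (hKd : K * d0 ^ (1/2 : ℝ) ≤ 1) :
    K * an (dl * (dl * r1)) ≤ s2 := by
  rw [an_dl h.dlpos h.rj0]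
  exact wide_half h.dlpos h.dlle h01 hG hK hKd (an_pos h.rj0).le h.wide

/-- `K s1 ≤ s2`. -/
theorem Ctx.w3 (h : Ctx M q a b A d0 G c0 κ η0 g r1 dl Y Gm s1' s2' s1 s2 D I1 P1 I P)
    (h01 : d0 ≤ 1) (hG : 1 ≤ G) (hK : 0 ≤ K) (hKd : K * d0 ^ (1/2 : ℝ) ≤ 1) : K * s1 ≤ s2 :=
  (mul_le_mul_of_nonneg_left h.thin hK).trans (h.w1 h01 hG hK hKd)

/-- `K s1' ≤ s2'` if the parents are wide. -/
theorem Ctx.w3' (h : Ctx M q a b A d0 G c0 κ η0 g r1 dl Y Gm s1' s2' s1 s2 D I1 P1 I P)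
    (h01 : d0 ≤ 1) (hG : 1 ≤ G) (hK : 0 ≤ K) (hKd : K * d0 ^ (1/2 : ℝ) ≤ 1)
    (hw : dl ^ (-G) * an r1 ≤ s2') : K * s1' ≤ s2' :=
  (mul_le_mul_of_nonneg_left h.thin' hK).trans
    (wide_Gm h.dlpos h.dlle h01 hG hK hKd h.Gm2 (an_pos h.r10).le hw)

/-- `K κ Y Gm θ' ≤ dl^2 θ`. -/
theorem Ctx.w4 (h : Ctx M q a b A d0 G c0 κ η0 g r1 dl Y Gm s1' s2' s1 s2 D I1 P1 I P)
    (h01 : d0 ≤ 1) (hK : 0 ≤ K) (hKd : K * d0 ^ (1/2 : ℝ) ≤ 1) :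
    K * (κ * (Y * (Gm * an (dl * r1)))) ≤ dl ^ (2 : ℕ) * an r1 := by
  have hd := h.dlpos
  have hY0 : 0 ≤ Y := by linarith [h.Y1]
  have hG0 : 0 ≤ Gm := by linarith [h.Gm1]
  have ha := (an_pos h.r10).le
  have hp : ∀ p : ℝ, 0 ≤ dl ^ p := fun p => Real.rpow_nonneg hd.le p
  rw [an_dl hd h.r10]
  calc K * (κ * (Y * (Gm * (dl ^ (-(1/2) : ℝ) * an r1))))
      ≤ K * (dl ^ (4 : ℝ) * (dl ^ (-(1/4) : ℝ) * (dl ^ (-(1/4) : ℝ) *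
          (dl ^ (-(1/2) : ℝ) * an r1)))) := by
        have h1 := h.k_le h01 (p := 4) le_rfl
        have h2 := h.Y2
        have h3 := h.Gm2
        have h4 := hp (-(1/2))
        have h5 := hp (-(1/4))
        have h6 := hp 4
        gcongr
    _ = K * dl ^ (3 : ℝ) * an r1 := by
        have e : dl ^ (3 : ℝ) = dl ^ (4 : ℝ) * dl ^ (-(1/4) : ℝ) * dl ^ (-(1/4) : ℝ) *
            dl ^ (-(1/2) : ℝ) := by
          rw [← Real.rpow_add hd, ← Real.rpow_add hd, ← Real.rpow_add hd]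
          norm_num
        rw [e]; ring
    _ ≤ dl ^ (2 : ℝ) * an r1 := by
        refine mul_le_mul_of_nonneg_right ?_ ha
        exact K_dl hd h.dlle h01 hK hKd (by norm_num)
    _ = _ := by rw [← Real.rpow_natCast]; norm_num

/-- the members of the child. -/
theorem Ctx.gr_child (h : Ctx M q a b A d0 G c0 κ η0 g r1 dl Y Gm s1' s2' s1 s2 D I1 P1 I P)
    (ha : 1 ≤ a) (hM : 0 ≤ M) (hA : 0 ≤ A) (h01 : d0 ≤ 1) (hG : 1 ≤ G)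
    (hKd : 8 * (M * A) * d0 ^ (1/2 : ℝ) ≤ 1) {i : ℕ} (hi : i ∈ I) {m : ℤ × ℤ} {y : E3}
    (hy : y ∈ (P i).S m) :
    1/2 ≤ ‖(P i).f.gr (cen (an (dl * r1)) m) (lat y) 0‖ ∧
      ‖(P i).f.gr (cen (an (dl * r1)) m) (lat y) 0‖ ≤ 5/4 := by
  refine gr_ge (h.pl.adm i hi) h.sd (h.rj1 ha) h.kpos (h.pl.box i hi m hy) ?_
  have := h.w3 h01 hG (K := 8 * (M * A)) (by positivity) hKd
  linarith

/-- the members of the parent. -/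
theorem Ctx.gr_par (h : Ctx M q a b A d0 G c0 κ η0 g r1 dl Y Gm s1' s2' s1 s2 D I1 P1 I P)
    (ha : 1 ≤ a) (hM : 0 ≤ M) (hA : 0 ≤ A) (h01 : d0 ≤ 1) (hG : 1 ≤ G)
    (hKd : 8 * (M * A) * d0 ^ (1/2 : ℝ) ≤ 1) (hw : dl ^ (-G) * an r1 ≤ s2') {i : ℕ}
    (hi : i ∈ I1) {m : ℤ × ℤ} {y : E3} (hy : y ∈ (P1 i).S m) :
    1/2 ≤ ‖(P1 i).f.gr (cen (an r1) m) (lat y) 0‖ ∧
      ‖(P1 i).f.gr (cen (an r1) m) (lat y) 0‖ ≤ 5/4 := by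
  refine gr_ge (h.par.adm i hi) h.par.sd (h.r11 h01 ha) h.kpos (h.par.box i hi m hy) ?_
  have := h.w3' h01 hG (K := 8 * (M * A)) (by positivity) hKd hw
  linarith

/-- the numbers of a child member, in the form of `AlB2_888.strip_data`: `|ny| ≤ M/s2`,
`8 (M/s2) (A s1) ≤ 1`, `16 |d| (A s1 r_j) ≤ 1`, `16 |d| Y ≤ θ`, `2 |d| Y/κ ≤ M Y s1`. -/
theorem Ctx.nums (h : Ctx M q a b A d0 G c0 κ η0 g r1 dl Y Gm s1' s2' s1 s2 D I1 P1 I P)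
    (ha : 1 ≤ a) (hM : 0 ≤ M) (hA : 0 ≤ A) (h01 : d0 ≤ 1) (hG : 1 ≤ G)
    (hKd : 8 * (M * A) * d0 ^ (1/2 : ℝ) ≤ 1) (hKd' : 8 * M * d0 ^ (1/2 : ℝ) ≤ 1)
    {i : ℕ} (hi : i ∈ I) :
    (∀ s : ℝ, |s| ≤ dl * r1 → |(P i).f.ny s| ≤ M / s2) ∧ 8 * (M / s2) * (A * s1) ≤ 1 ∧
      16 * |(P i).f.d| * (A * s1 * (dl * r1)) ≤ 1 ∧
      16 * |(P i).f.d| * Y ≤ dl ^ (2 : ℕ) * an r1 ∧
      2 * |(P i).f.d| * Y / κ ≤ M * Y * s1 := by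
  have hadm := h.pl.adm i hi
  have hr := h.rj1 ha
  have hr0 := h.rj0
  have hk := h.kpos
  have hs2 := Sd.s20 h.sd hr0
  have hs1 := Sd.s10 h.sd hr0
  have hw := h.w3 h01 hG (K := 8 * (M * A)) (by positivity) hKd
  have hY0 : 0 ≤ Y := by linarith [h.Y1]
  have hd1 := d_le1 hadm h.sd hr hk
  have hd2 := d_le2 hadm h.sd hr hk
  refine ⟨fun s hs => ny_le hadm h.sd hr hk hs, ?_, ?_, ?_, ?_⟩
  · calc 8 * (M / s2) * (A * s1) = (8 * (M * A) * s1) / s2 := by ring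
      _ ≤ 1 := by rw [div_le_one hs2]; exact hw
  · calc 16 * |(P i).f.d| * (A * s1 * (dl * r1))
        ≤ 16 * (M / (2 * (s2 * (dl * r1)))) * (A * s1 * (dl * r1)) := by gcongr
      _ = (8 * (M * A) * s1) / s2 := by
          have e : ∀ r : ℝ, r ≠ 0 → 16 * (M / (2 * (s2 * r))) * (A * s1 * r) =
              (8 * (M * A) * s1) / s2 := by
            intro r hr
            field_simp
            ring
          exact e _ hr0.ne'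
      _ ≤ 1 := by rw [div_le_one hs2]; exact hw
  · have h4 := h.w4 h01 (K := 8 * M) (by positivity) hKd'
    calc 16 * |(P i).f.d| * Y ≤ 16 * (M * (κ * s1) / 2) * Y := by gcongr
      _ = 8 * M * (κ * (Y * s1)) := by ring
      _ ≤ 8 * M * (κ * (Y * (Gm * an (dl * r1)))) := by
          have := h.thin
          gcongr
      _ ≤ _ := h4
  · rw [div_le_iff₀ hk]
    calc 2 * |(P i).f.d| * Y ≤ 2 * (M * (κ * s1) / 2) * Y := by gcongr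
      _ = M * Y * s1 * κ := by ring

end ctx

end Crest.Agent.R116.PC299
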