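import Crest.Agent.R116.WDefC_188

/-!
# R116 (S0155): WAVE side, qualitative / algebraic base layer (helper367), part 1

* `Gd g` = measurable, bounded, bounded support; closure properties; integrability.
* `umc`: continuity, boundedness, linearity, translations.
* `trc`: group law, norms, energies.
* `enc`, `val`: monotonicity, sums, unions, splitting of the selections; sub-systems of plates.
* `selc`: bounded measurable selections `Bsc`, regularity, support, additivity.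
No kernel bounds (they are in `CWc/CWd_480`).
-/

set_option autoImplicit false

open MeasureTheory FourierTransform
open scoped ContDiff ENNReal

namespace Crest.Agent.R116.Bas367

open Crest.Agent.R138.Defs (E2 ee)
open Crest.Agent.R138.Wpk685 (th win fat cen caps cap bmp norm_ee ee_add continuous_ee)
open Crest.Agent.R116.CDef480
open Crest.Agent.R116.LZg725 (Cf)
open Crest.Agent.R116.WC188

/-! ### good functions -/

/-- measurable, bounded, with bounded support. -/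
structure Gd (g : E3 → ℂ) : Prop where
  meas : Measurable g
  bdd : ∃ L : ℝ, ∀ ζ, ‖g ζ‖ ≤ L
  supp : ∃ L : ℝ, ∀ ζ, g ζ ≠ 0 → ‖ζ‖ ≤ L

theorem Gd.memLp {g : E3 → ℂ} (hg : Gd g) (p : ℝ≥0∞) : MemLp g p := by
  obtain ⟨M, hM⟩ := hg.bdd
  obtain ⟨R, hR⟩ := hg.supp
  have hfin : volume (Metric.closedBall (0 : E3) R) < ⊤ := measure_closedBall_lt_top
  have h2 : MemLp (fun _ : E3 => M) p (volume.restrict (Metric.closedBall (0 : E3) R)) := by
    have : IsFiniteMeasure (volume.restrict (Metric.closedBall (0 : E3) R)) :=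
      ⟨by rw [Measure.restrict_apply_univ]; exact hfin⟩
    exact memLp_const M
  have h3 : MemLp ((Metric.closedBall (0 : E3) R).indicator fun _ : E3 => M) p :=
    (memLp_indicator_iff_restrict Metric.isClosed_closedBall.measurableSet).2 h2
  refine MemLp.of_le h3 hg.meas.aestronglyMeasurable (Filter.Eventually.of_forall fun ζ => ?_)
  by_cases h : ζ ∈ Metric.closedBall (0 : E3) R
  · rw [Set.indicator_of_mem h]
    exact (hM ζ).trans (le_abs_self M)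
  · have : g ζ = 0 := by
      by_contra h0
      exact h (by rw [mem_closedBall_zero_iff]; exact hR ζ h0)
    rw [this, norm_zero]
    exact norm_nonneg _

theorem Gd.int {g : E3 → ℂ} (hg : Gd g) : Integrable g := memLp_one_iff_integrable.1 (hg.memLp 1)

theorem Gd.zero : Gd (fun _ => 0) :=
  ⟨measurable_const, ⟨0, fun _ => by simp⟩, ⟨0, fun _ h => absurd rfl h⟩⟩

theorem Gd.add {f g : E3 → ℂ} (hf : Gd f) (hg : Gd g) : Gd (fun ζ => f ζ + g ζ) := by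
  obtain ⟨M, hM⟩ := hf.bdd
  obtain ⟨M', hM'⟩ := hg.bdd
  obtain ⟨R, hR⟩ := hf.supp
  obtain ⟨R', hR'⟩ := hg.supp
  refine ⟨hf.meas.add hg.meas, ⟨M + M', fun ζ => (norm_add_le _ _).trans (add_le_add (hM ζ) (hM' ζ))⟩,
    ⟨max R R', fun ζ h => ?_⟩⟩
  by_cases h1 : f ζ = 0
  · have h2 : g ζ ≠ 0 := fun h2 => h (by rw [h1, h2, add_zero])
    exact (hR' ζ h2).trans (le_max_right _ _)
  · exact (hR ζ h1).trans (le_max_left _ _)

theorem Gd.sum {κ : Type*} (s : Finset κ) {G : κ → E3 → ℂ} (hG : ∀ k ∈ s, Gd (G k)) :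
    Gd (fun ζ => ∑ k ∈ s, G k ζ) := by
  classical
  induction s using Finset.induction_on with
  | empty => simpa using Gd.zero
  | insert k s hk ih =>
    have h1 : (fun ζ => ∑ i ∈ insert k s, G i ζ) = fun ζ => G k ζ + ∑ i ∈ s, G i ζ := by
      funext ζ
      rw [Finset.sum_insert hk]
    rw [h1]
    exact (hG k (Finset.mem_insert_self _ _)).add
      (ih fun i hi => hG i (Finset.mem_insert_of_mem hi))

/-- multiplication by a bounded measurable function. -/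
theorem Gd.mul {g : E3 → ℂ} (hg : Gd g) {w : E3 → ℂ} (hw : Measurable w) {L : ℝ}
    (hL : ∀ ζ, ‖w ζ‖ ≤ L) : Gd (fun ζ => w ζ * g ζ) := by
  obtain ⟨M, hM⟩ := hg.bdd
  obtain ⟨R, hR⟩ := hg.supp
  have hL0 : 0 ≤ L := (norm_nonneg _).trans (hL 0)
  refine ⟨hw.mul hg.meas, ⟨L * M, fun ζ => ?_⟩, ⟨R, fun ζ h => hR ζ (right_ne_zero_of_mul h)⟩⟩
  rw [norm_mul]
  exact mul_le_mul (hL ζ) (hM ζ) (norm_nonneg _) hL0

theorem Gd.const_mul {g : E3 → ℂ} (hg : Gd g) (c : ℂ) : Gd (fun ζ => c * g ζ) :=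
  hg.mul measurable_const (L := ‖c‖) fun _ => le_rfl

theorem Gd.neg {g : E3 → ℂ} (hg : Gd g) : Gd (fun ζ => - g ζ) := by
  have := hg.const_mul (-1)
  simpa using this

theorem Gd.sub {f g : E3 → ℂ} (hf : Gd f) (hg : Gd g) : Gd (fun ζ => f ζ - g ζ) := by
  simpa [sub_eq_add_neg] using hf.add hg.neg

/-- restriction to a measurable set. -/
theorem Gd.ind {g : E3 → ℂ} (hg : Gd g) {S : Set E3} (hS : MeasurableSet S) :
    Gd (S.indicator g) := by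
  obtain ⟨M, hM⟩ := hg.bdd
  obtain ⟨R, hR⟩ := hg.supp
  refine ⟨hg.meas.indicator hS, ⟨M, fun ζ => (norm_indicator_le_norm_self _ _).trans (hM ζ)⟩,
    ⟨R, fun ζ h => hR ζ fun h0 => h ?_⟩⟩
  by_cases hm : ζ ∈ S
  · rw [Set.indicator_of_mem hm, h0]
  · rw [Set.indicator_of_notMem hm]

/-- norm bound from the coordinates. -/
theorem norm_le_of {ζ : E3} {u v : ℝ} (h1 : ‖lat ζ‖ ≤ u) (h2 : |ζ 2| ≤ v) : ‖ζ‖ ≤ u + v := by
  have h3 := normsq3 ζ
  have h4 := abs_nonneg (ζ 2)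
  have h5 := norm_nonneg (lat ζ)
  have h6 := sq_abs (ζ 2)
  have h7 : ‖ζ‖ ^ 2 ≤ (u + v) ^ 2 := by
    rw [h3, ← h6]
    nlinarith
  exact le_of_sq_le_sq h7 (by linarith)

/-- support of the states. -/
theorem gd_of_supp {a b : ℝ} {g : E3 → ℂ} (hm : Measurable g) (hb : ∃ L : ℝ, ∀ ζ, ‖g ζ‖ ≤ L)
    (hs : ∀ ζ, g ζ ≠ 0 → 0 < ζ 2 ∧ ζ 2 ≤ a ∧ ‖slp ζ‖ ≤ b) : Gd g := by
  refine ⟨hm, hb, ⟨a * b + a, fun ζ h => ?_⟩⟩
  obtain ⟨h1, h2, h3⟩ := hs ζ h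
  refine norm_le_of ?_ ?_
  · rw [lat_slp h1.ne', norm_smul, Real.norm_eq_abs, abs_of_pos h1]
    exact mul_le_mul h2 h3 (norm_nonneg _) (h1.le.trans h2)
  · rw [abs_of_pos h1]; exact h2

theorem St.gd {M κ q a b M0 : ℝ} {C0 : E2} {σ : ℝ} {g : E3 → ℂ} {R D : ℝ} (ha : 0 < a)
    (h : St M κ q a b M0 C0 σ g R D) : Gd g :=
  gd_of_supp h.meas h.bdd fun ζ hζ =>
    ⟨(inv_pos.2 ha).trans_le (h.supp ζ hζ).1, (h.supp ζ hζ).2.1, (h.supp ζ hζ).2.2.1⟩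

/-! ### translations -/

theorem measurable_phase (z : E3 × ℝ) :
    Measurable fun ζ : E3 => ee (inner ℝ z.1 ζ + z.2 * hc ζ) :=
  continuous_ee.measurable.comp
    ((continuous_const.inner continuous_id).measurable.add (measurable_hc.const_mul _))

theorem trc_eq (z : E3 × ℝ) (g : E3 → ℂ) :
    trc z g = fun ζ => ee (inner ℝ z.1 ζ + z.2 * hc ζ) * g ζ := by
  funext ζ
  unfold trc
  rw [mul_comm]

theorem norm_trc (z : E3 × ℝ) (g : E3 → ℂ) (ζ : E3) : ‖trc z g ζ‖ = ‖g ζ‖ := by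
  unfold trc
  rw [norm_mul, norm_ee, mul_one]

theorem trc_ne {z : E3 × ℝ} {g : E3 → ℂ} {ζ : E3} : trc z g ζ ≠ 0 ↔ g ζ ≠ 0 := by
  rw [← norm_ne_zero_iff, norm_trc, norm_ne_zero_iff]

theorem Enc_trc (z : E3 × ℝ) (g : E3 → ℂ) : Enc (trc z g) = Enc g := by
  unfold Enc
  simp only [norm_trc]

theorem trc_trc (z z' : E3 × ℝ) (g : E3 → ℂ) : trc z (trc z' g) = trc (z + z') g := by
  funext ζ
  unfold trc
  rw [mul_assoc, ← ee_add]
  congr 2
  rw [Prod.fst_add, Prod.snd_add, inner_add_left]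
  ring

@[simp] theorem trc_zero (g : E3 → ℂ) : trc 0 g = g := by
  funext ζ
  unfold trc
  have : ee (inner ℝ (0 : E3 × ℝ).1 ζ + (0 : E3 × ℝ).2 * hc ζ) = 1 := by
    simp [ee]
  rw [this, mul_one]

theorem trc_add (z : E3 × ℝ) (f g : E3 → ℂ) :
    trc z (fun ζ => f ζ + g ζ) = fun ζ => trc z f ζ + trc z g ζ := by
  funext ζ
  unfold trc
  rw [add_mul]

theorem trc_sum (z : E3 × ℝ) {κ : Type*} (s : Finset κ) (G : κ → E3 → ℂ) :
    trc z (fun ζ => ∑ k ∈ s, G k ζ) = fun ζ => ∑ k ∈ s, trc z (G k) ζ := by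
  funext ζ
  unfold trc
  rw [Finset.sum_mul]

theorem trc_mul (z : E3 × ℝ) (w g : E3 → ℂ) :
    trc z (fun ζ => w ζ * g ζ) = fun ζ => w ζ * trc z g ζ := by
  funext ζ
  unfold trc
  rw [mul_assoc]

theorem slc_trc (z : E3 × ℝ) (g : E3 → ℂ) (t : ℝ) : slc (trc z g) t = trc (z.1, z.2 + t) g := by
  funext ζ
  unfold slc trc
  rw [mul_assoc, ← ee_add]
  congr 2
  ring

theorem slc_eq_trc (g : E3 → ℂ) (t : ℝ) : slc g t = trc (0, t) g := by
  funext ζ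
  unfold slc trc
  simp

theorem Gd.trc {g : E3 → ℂ} (hg : Gd g) (z : E3 × ℝ) : Gd (trc z g) := by
  rw [trc_eq]
  exact hg.mul (measurable_phase z) (L := 1) fun ζ => (norm_ee _).le

theorem Gd.slc {g : E3 → ℂ} (hg : Gd g) (t : ℝ) : Gd (slc g t) := by
  rw [slc_eq_trc]
  exact hg.trc _

theorem trc_int {g : E3 → ℂ} (hg : Integrable g) (z : E3 × ℝ) : Integrable (trc z g) := by
  rw [trc_eq]
  exact hg.bdd_mul (c := 1) (measurable_phase z).aestronglyMeasurable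
    (Filter.Eventually.of_forall fun ζ => (norm_ee _).le)

theorem trc_l2 {g : E3 → ℂ} {p : ℝ≥0∞} (hg : MemLp g p) (z : E3 × ℝ) : MemLp (trc z g) p := by
  refine MemLp.of_le hg ?_ (Filter.Eventually.of_forall fun ζ => (norm_trc z g ζ).le)
  rw [trc_eq]
  exact (measurable_phase z).aestronglyMeasurable.mul hg.1

theorem trc_slc {η0 κ : ℝ} {g : E3 → ℂ} (h : Slc η0 κ g) (z : E3 × ℝ) : Slc η0 κ (trc z g) :=
  fun ζ hζ => h ζ (trc_ne.1 hζ)

theorem trc_slp {σ : ℝ} {g : E3 → ℂ} (h : Slp σ g) (z : E3 × ℝ) : Slp σ (trc z g) :=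
  fun ζ hζ => h ζ (trc_ne.1 hζ)

/-! ### the pieces `umc` -/

theorem fourierInv_int3 (f : E3 → ℂ) (y : E3) : 𝓕⁻ f y = ∫ ζ, f ζ * ee (inner ℝ y ζ) := by
  rw [Real.fourierInv_eq']
  congr 1
  ext ζ
  rw [smul_eq_mul, real_inner_comm, mul_comm]
  unfold ee
  push_cast
  ring_nf

theorem fourier_int3 (f : E3 → ℂ) (y : E3) : 𝓕 f y = ∫ ζ, f ζ * ee (-inner ℝ y ζ) := by
  rw [Real.fourier_eq']
  congr 1
  ext ζ
  rw [smul_eq_mul, real_inner_comm, mul_comm]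
  unfold ee
  push_cast
  ring_nf

theorem cont_ee_inner (y : E3) : Continuous fun ζ : E3 => ee (inner ℝ y ζ) :=
  continuous_ee.comp (continuous_const.inner continuous_id)

theorem mod_int3 {f : E3 → ℂ} (hf : Integrable f) (y : E3) :
    Integrable fun ζ => f ζ * ee (inner ℝ y ζ) :=
  hf.mul_bdd (c := 1) (cont_ee_inner y).aestronglyMeasurable
    (Filter.Eventually.of_forall fun _ => (norm_ee _).le)

theorem measurable_capc (ρ : ℝ) (m : ℤ × ℤ) : Measurable (capc ρ m) :=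
  (Crest.Agent.R138.Wpk685.contDiff_cap Crest.Agent.R138.Wpk685.win_contDiff _ _).continuous.measurable.comp
    measurable_slp

theorem measurable_fatc (ρ : ℝ) (m : ℤ × ℤ) : Measurable (fatc ρ m) :=
  (Crest.Agent.R138.Wpk685.contDiff_cap Crest.Agent.R138.Wpk685.fat_contDiff _ _).continuous.measurable.comp
    measurable_slp

theorem norm_capc_le (ρ : ℝ) (m : ℤ × ℤ) (ζ : E3) : ‖capc ρ m ζ‖ ≤ 1 :=
  Crest.Agent.R138.Wpk685.norm_win_le _

theorem norm_fatc_le (ρ : ℝ) (m : ℤ × ℤ) (ζ : E3) : ‖fatc ρ m ζ‖ ≤ 1 := by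
  unfold fatc cap fat bmp
  rw [Complex.norm_real, Real.norm_eq_abs, abs_of_nonneg (ContDiffBump.nonneg _)]
  exact ContDiffBump.le_one _

theorem measurable_etw (η0 κ : ℝ) : Measurable (etw η0 κ) := by
  unfold etw
  refine Complex.measurable_ofReal.comp ?_
  exact (ContDiffBump.continuous _).measurable.comp
    (((measurable_coord 2).sub_const η0).div_const κ)

theorem norm_etw_le (η0 κ : ℝ) (ζ : E3) : ‖etw η0 κ ζ‖ ≤ 1 := by
  unfold etw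
  rw [Complex.norm_real, Real.norm_eq_abs, abs_of_nonneg (ContDiffBump.nonneg _)]
  exact ContDiffBump.le_one _

theorem etw_ne {η0 κ : ℝ} (hκ : 0 < κ) {ζ : E3} (h : etw η0 κ ζ ≠ 0) : |ζ 2 - η0| < 2 * κ := by
  unfold etw at h
  have h1 : ((ζ 2 - η0) / κ) ∈ Function.support
      ((⟨3/2, 2, by norm_num, by norm_num⟩ : ContDiffBump (0 : ℝ)) : ℝ → ℝ) := by
    rw [Function.mem_support]
    intro h0
    exact h (by rw [h0]; simp)
  rw [ContDiffBump.support_eq, Metric.mem_ball, dist_zero_right, Real.norm_eq_abs, abs_div,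
    abs_of_pos hκ, div_lt_iff₀ hκ] at h1
  exact h1

theorem etw_one {η0 κ : ℝ} (hκ : 0 < κ) {ζ : E3} (h : |ζ 2 - η0| ≤ 3 / 2 * κ) :
    etw η0 κ ζ = 1 := by
  unfold etw
  rw [ContDiffBump.one_of_mem_closedBall]
  · simp
  · rw [Metric.mem_closedBall, dist_zero_right, Real.norm_eq_abs, abs_div, abs_of_pos hκ,
      div_le_iff₀ hκ]
    exact h

theorem capc_ne {ρ : ℝ} (hρ : 0 < ρ) {m : ℤ × ℤ} {ζ : E3} (h : capc ρ m ζ ≠ 0) :
    ‖slp ζ - cen ρ m‖ ≤ 71 / 50 * ρ := by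
  by_contra hc
  push Not at hc
  exact h (Crest.Agent.R138.Wpk685.cap_supp (f := win) (R := 71 / 50)
    (fun _ h' => Crest.Agent.R138.Wpk685.win_zero' h') (cen ρ m) hρ (slp ζ) hc)

theorem fatc_ne {ρ : ℝ} (hρ : 0 < ρ) {m : ℤ × ℤ} {ζ : E3} (h : fatc ρ m ζ ≠ 0) :
    ‖slp ζ - cen ρ m‖ ≤ 3 / 2 * ρ := by
  by_contra hc
  push Not at hc
  exact h (Crest.Agent.R138.Wpk685.cap_supp (f := fat) (R := 3 / 2)
    (fun _ h' => Crest.Agent.R138.Wpk685.fat_zero h'.le) (cen ρ m) hρ (slp ζ) hc)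

theorem capc_int {g : E3 → ℂ} (hg : Integrable g) (ρ : ℝ) (m : ℤ × ℤ) :
    Integrable fun ζ => capc ρ m ζ * g ζ :=
  hg.bdd_mul (c := 1) (measurable_capc ρ m).aestronglyMeasurable
    (Filter.Eventually.of_forall fun ζ => norm_capc_le ρ m ζ)

theorem capc_l2 {g : E3 → ℂ} {p : ℝ≥0∞} (hg : MemLp g p) (ρ : ℝ) (m : ℤ × ℤ) :
    MemLp (fun ζ => capc ρ m ζ * g ζ) p := by
  refine MemLp.of_le hg ((measurable_capc ρ m).aestronglyMeasurable.mul hg.1)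
    (Filter.Eventually.of_forall fun ζ => ?_)
  rw [norm_mul]
  exact mul_le_of_le_one_left (norm_nonneg _) (norm_capc_le ρ m ζ)

theorem umc_cont {g : E3 → ℂ} (hg : Integrable g) (ρ : ℝ) (m : ℤ × ℤ) :
    Continuous (umc ρ g m) :=
  Crest.Agent.R138.Wf448.fourierInv_continuous (capc_int hg ρ m)

theorem umc_bdd (ρ : ℝ) (g : E3 → ℂ) (m : ℤ × ℤ) :
    ∃ L : ℝ, 0 ≤ L ∧ ∀ y, ‖umc ρ g m y‖ ≤ L :=
  ⟨∫ v, ‖capc ρ m v * g v‖, integral_nonneg fun _ => norm_nonneg _, fun _ =>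
    Crest.Agent.R138.Wf448.norm_fourierInv_le _⟩

theorem umc_bound {g : E3 → ℂ} (hg : Integrable g) (ρ : ℝ) (m : ℤ × ℤ) (y : E3) :
    ‖umc ρ g m y‖ ≤ ∫ ζ, ‖g ζ‖ := by
  refine (Crest.Agent.R138.Wf448.norm_fourierInv_le _).trans ?_
  refine integral_mono (capc_int hg ρ m).norm hg.norm fun ζ => ?_
  show ‖capc ρ m ζ * g ζ‖ ≤ ‖g ζ‖
  rw [norm_mul]
  exact mul_le_of_le_one_left (norm_nonneg _) (norm_capc_le ρ m ζ)

theorem umc_meas_sq {g : E3 → ℂ} (hg : Integrable g) (ρ : ℝ) (m : ℤ × ℤ) :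
    Measurable fun x => ‖umc ρ g m x‖ₑ ^ 2 :=
  (umc_cont hg ρ m).measurable.enorm.pow_const 2

theorem umc_int_eq (ρ : ℝ) (g : E3 → ℂ) (m : ℤ × ℤ) (y : E3) :
    umc ρ g m y = ∫ ζ, capc ρ m ζ * g ζ * ee (inner ℝ y ζ) := fourierInv_int3 _ _

theorem umc_sum {ρ : ℝ} {κ : Type*} (s : Finset κ) {G : κ → E3 → ℂ}
    (hG : ∀ k ∈ s, Integrable (G k)) (m : ℤ × ℤ) (x : E3) :
    umc ρ (fun ζ => ∑ k ∈ s, G k ζ) m x = ∑ k ∈ s, umc ρ (G k) m x := by
  simp only [umc_int_eq]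
  rw [← integral_finsetSum _ fun k hk => mod_int3 (capc_int (hG k hk) ρ m) x]
  congr 1
  funext ζ
  rw [Finset.mul_sum, Finset.sum_mul]

theorem umc_add {ρ : ℝ} {f g : E3 → ℂ} (hf : Integrable f) (hg : Integrable g) (m : ℤ × ℤ)
    (x : E3) : umc ρ (fun ζ => f ζ + g ζ) m x = umc ρ f m x + umc ρ g m x := by
  simp only [umc_int_eq]
  rw [← integral_add (mod_int3 (capc_int hf ρ m) x) (mod_int3 (capc_int hg ρ m) x)]
  congr 1
  funext ζ
  ring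

theorem umc_sum_add {ρ : ℝ} {κ : Type*} (s : Finset κ) {G : κ → E3 → ℂ} {e : E3 → ℂ}
    (hG : ∀ k ∈ s, Integrable (G k)) (he : Integrable e) (m : ℤ × ℤ) (x : E3) :
    umc ρ (fun ζ => ∑ k ∈ s, G k ζ + e ζ) m x = ∑ k ∈ s, umc ρ (G k) m x + umc ρ e m x := by
  rw [umc_add (integrable_finsetSum _ hG) he, umc_sum s hG]

theorem umc_const_mul {ρ : ℝ} (c : ℂ) (g : E3 → ℂ) (m : ℤ × ℤ) (x : E3) :
    umc ρ (fun ζ => c * g ζ) m x = c * umc ρ g m x := by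
  simp only [umc_int_eq]
  rw [← integral_const_mul]
  congr 1
  funext ζ
  ring

theorem umc_zero {ρ : ℝ} (m : ℤ × ℤ) (x : E3) : umc ρ (fun _ => 0) m x = 0 := by
  rw [umc_int_eq]
  simp

theorem umc_trc (ρ : ℝ) (z : E3 × ℝ) (g : E3 → ℂ) (m : ℤ × ℤ) (y : E3) :
    umc ρ (trc z g) m y = extc (fun ζ => capc ρ m ζ * g ζ) (y + z.1) z.2 := by
  rw [umc_int_eq]
  unfold extc trc
  congr 1
  funext ζ
  rw [inner_add_left, show inner ℝ y ζ + inner ℝ z.1 ζ + z.2 * hc ζ =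
    (inner ℝ z.1 ζ + z.2 * hc ζ) + inner ℝ y ζ by ring, ee_add _ (inner ℝ y ζ)]
  ring

theorem umc_shift (ρ : ℝ) (X : E3) (g : E3 → ℂ) (m : ℤ × ℤ) (y : E3) :
    umc ρ (trc (X, 0) g) m y = umc ρ g m (y + X) := by
  have h := umc_trc ρ 0 g m (y + X)
  rw [trc_zero] at h
  rw [umc_trc, h]
  simp

theorem umc_trc_shift (ρ : ℝ) (z : E3 × ℝ) (X : E3) (g : E3 → ℂ) (m : ℤ × ℤ) (y : E3) :
    umc ρ (trc (z.1 + X, z.2) g) m y = umc ρ (trc z g) m (y + X) := by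
  rw [umc_trc, umc_trc]
  congr 1
  simp only
  rw [add_assoc, add_comm X z.1]

/-! ### energies of selections -/

theorem enc_mono {ρ : ℝ} (g : E3 → ℂ) {S T : ℤ × ℤ → Set E3} (h : ∀ m ∈ caps ρ, S m ⊆ T m) :
    enc ρ g S ≤ enc ρ g T :=
  Finset.sum_le_sum fun m hm => lintegral_mono_set (h m hm)

theorem enc_congr {ρ : ℝ} (g : E3 → ℂ) {S T : ℤ × ℤ → Set E3} (h : ∀ m ∈ caps ρ, S m = T m) :
    enc ρ g S = enc ρ g T :=
  Finset.sum_congr rfl fun m hm => by rw [h m hm]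

theorem enc_empty (ρ : ℝ) (g : E3 → ℂ) : enc ρ g (fun _ => ∅) = 0 := by
  unfold enc
  simp

theorem enc_union_le (ρ : ℝ) (g : E3 → ℂ) (S T : ℤ × ℤ → Set E3) :
    enc ρ g (fun m => S m ∪ T m) ≤ enc ρ g S + enc ρ g T := by
  unfold enc
  rw [← Finset.sum_add_distrib]
  exact Finset.sum_le_sum fun m _ => lintegral_union_le _ _ _

theorem lint_biUnion_le {ι : Type*} (s : Finset ι) (S : ι → Set E3) (f : E3 → ℝ≥0∞) :
    ∫⁻ x in ⋃ i ∈ s, S i, f x ≤ ∑ i ∈ s, ∫⁻ x in S i, f x := by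
  classical
  induction s using Finset.induction_on with
  | empty => simp
  | insert k s hk ih =>
    rw [Finset.set_biUnion_insert, Finset.sum_insert hk]
    exact (lintegral_union_le _ _ _).trans (add_le_add le_rfl ih)

theorem enc_biUnion_le {ι : Type*} (ρ : ℝ) (g : E3 → ℂ) (s : Finset ι)
    (S : ι → ℤ × ℤ → Set E3) :
    enc ρ g (fun m => ⋃ i ∈ s, S i m) ≤ ∑ i ∈ s, enc ρ g (S i) := by
  unfold enc
  rw [Finset.sum_comm]
  exact Finset.sum_le_sum fun m _ => lint_biUnion_le _ _ _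

/-- the energies of disjoint selections add up. -/
theorem enc_union {ρ : ℝ} {g : E3 → ℂ} {ι : Type*} (s : Finset ι) (S : ι → ℤ × ℤ → Set E3)
    (T : ℤ × ℤ → Set E3) (hm : ∀ i ∈ s, ∀ m, MeasurableSet (S i m))
    (hd : ∀ i ∈ s, ∀ j ∈ s, i ≠ j → ∀ m, Disjoint (S i m) (S j m))
    (hT : ∀ i ∈ s, ∀ m, S i m ⊆ T m) :
    ∑ i ∈ s, enc ρ g (S i) ≤ enc ρ g T := by
  unfold enc
  rw [Finset.sum_comm]
  refine Finset.sum_le_sum fun m _ => ?_
  rw [← lintegral_biUnion_finset (fun i hi j hj hij => hd i hi j hj hij m) (fun i hi => hm i hi m)]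
  exact lintegral_mono_set (Set.iUnion₂_subset fun i hi => hT i hi m)

theorem enc_biUnion {ρ : ℝ} {g : E3 → ℂ} {ι : Type*} (s : Finset ι) (S : ι → ℤ × ℤ → Set E3)
    (hm : ∀ i ∈ s, ∀ m, MeasurableSet (S i m))
    (hd : ∀ i ∈ s, ∀ j ∈ s, i ≠ j → ∀ m, Disjoint (S i m) (S j m)) :
    enc ρ g (fun m => ⋃ i ∈ s, S i m) = ∑ i ∈ s, enc ρ g (S i) :=
  le_antisymm (enc_biUnion_le ρ g s S)
    (enc_union s S _ hm hd fun _ hi m => Set.subset_biUnion_of_mem (u := fun i => S i m) hi)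

theorem enorm_sum_sq {κ : Type*} (s : Finset κ) (a : κ → ℂ) (b : ℂ) :
    ‖∑ k ∈ s, a k + b‖ₑ ^ 2 ≤ ((s.card : ℝ≥0∞) + 1) * (∑ k ∈ s, ‖a k‖ₑ ^ 2 + ‖b‖ₑ ^ 2) := by
  classical
  have h1 : ‖∑ k ∈ s, a k + b‖ₑ ≤
      ∑ k ∈ insert none (s.map Function.Embedding.some), (Option.elim k ‖b‖ₑ fun k => ‖a k‖ₑ) := by
    rw [Finset.sum_insert (by simp), Finset.sum_map]
    refine (enorm_add_le _ _).trans ?_
    rw [add_comm]
    simp only [Option.elim_none, Function.Embedding.some_apply, Option.elim_some]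
    gcongr
    exact enorm_sum_le _ _
  have h2 := ENNReal.rpow_sum_le_const_mul_sum_rpow (insert none (s.map Function.Embedding.some))
    (fun k => Option.elim k ‖b‖ₑ fun k => ‖a k‖ₑ) (p := 2) (by norm_num)
  rw [Finset.sum_insert (by simp), Finset.sum_map, Finset.sum_insert (by simp), Finset.sum_map,
    Finset.card_insert_of_notMem (by simp), Finset.card_map] at h2
  rw [Finset.sum_insert (by simp), Finset.sum_map] at h1
  simp only [Option.elim_none, Function.Embedding.some_apply, Option.elim_some] at h1 h2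
  have h3 : ∀ x : ℝ≥0∞, x ^ (2 : ℝ) = x ^ 2 := fun x => by
    rw [show (2 : ℝ) = ((2 : ℕ) : ℝ) by norm_num, ENNReal.rpow_natCast]
  simp only [h3] at h2
  refine (pow_le_pow_left' h1 2).trans (h2.trans (le_of_eq ?_))
  rw [show (2 : ℝ) - 1 = 1 by norm_num, ENNReal.rpow_one]
  push_cast
  ring

/-- **LIN**: the packet energy of a sum. -/
theorem enc_sum {ρ : ℝ} {κ : Type*} (s : Finset κ) {G : κ → E3 → ℂ} {e : E3 → ℂ}
    (hG : ∀ k ∈ s, Integrable (G k)) (he : Integrable e) (S : ℤ × ℤ → Set E3) :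
    enc ρ (fun ζ => ∑ k ∈ s, G k ζ + e ζ) S ≤
      ((s.card : ℝ≥0∞) + 1) * (∑ k ∈ s, enc ρ (G k) S + enc ρ e S) := by
  unfold enc
  rw [Finset.sum_comm, ← Finset.sum_add_distrib, Finset.mul_sum]
  refine Finset.sum_le_sum fun m _ => ?_
  calc ∫⁻ x in S m, ‖umc ρ (fun ζ => ∑ k ∈ s, G k ζ + e ζ) m x‖ₑ ^ 2
      ≤ ∫⁻ x in S m, ((s.card : ℝ≥0∞) + 1) *
          (∑ k ∈ s, ‖umc ρ (G k) m x‖ₑ ^ 2 + ‖umc ρ e m x‖ₑ ^ 2) := by
        refine lintegral_mono fun x => ?_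
        dsimp only
        rw [umc_sum_add s hG he m x]
        exact enorm_sum_sq s _ _
    _ = _ := by
        have m1 : Measurable fun x => ∑ k ∈ s, ‖umc ρ (G k) m x‖ₑ ^ 2 :=
          Finset.measurable_fun_sum s fun k hk => umc_meas_sq (hG k hk) ρ m
        have m2 : Measurable fun x => ∑ k ∈ s, ‖umc ρ (G k) m x‖ₑ ^ 2 + ‖umc ρ e m x‖ₑ ^ 2 :=
          m1.add (umc_meas_sq he ρ m)
        rw [lintegral_const_mul _ m2, lintegral_add_right _ (umc_meas_sq he ρ m),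
          lintegral_finsetSum s fun k hk => umc_meas_sq (hG k hk) ρ m]

theorem enorm_add_sq (a b : ℂ) : ‖a + b‖ₑ ^ 2 ≤ 2 * (‖a‖ₑ ^ 2 + ‖b‖ₑ ^ 2) := by
  have h := enorm_sum_sq (Finset.univ : Finset Unit) (fun _ => a) b
  simp only [Finset.univ_unique, Finset.sum_const, Finset.card_singleton, one_smul,
    Nat.cast_one] at h
  rw [show (2 : ℝ≥0∞) = 1 + 1 by norm_num]
  exact h

theorem enc_add {ρ : ℝ} {f g : E3 → ℂ} (hf : Integrable f) (hg : Integrable g)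
    (S : ℤ × ℤ → Set E3) :
    enc ρ (fun ζ => f ζ + g ζ) S ≤ 2 * (enc ρ f S + enc ρ g S) := by
  have h := enc_sum (ρ := ρ) (Finset.univ : Finset Unit) (G := fun _ => f) (e := g)
    (fun _ _ => hf) hg S
  simp only [Finset.univ_unique, Finset.sum_const, Finset.card_singleton, one_smul,
    Nat.cast_one] at h
  rw [show (2 : ℝ≥0∞) = 1 + 1 by norm_num]
  exact h

/-- comparison of the energies from a pointwise comparison of the pieces. -/
theorem enc_le_of {ρ : ℝ} {f g : E3 → ℂ} {S : ℤ × ℤ → Set E3} {c : ℝ} (hc : 0 ≤ c)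
    (hS : ∀ m ∈ caps ρ, MeasurableSet (S m))
    (h : ∀ m ∈ caps ρ, ∀ y ∈ S m, ‖umc ρ f m y‖ ≤ c * ‖umc ρ g m y‖) :
    enc ρ f S ≤ ENNReal.ofReal (c ^ 2) * enc ρ g S := by
  unfold enc
  rw [Finset.mul_sum]
  refine Finset.sum_le_sum fun m hm => ?_
  rw [← lintegral_const_mul' _ _ ENNReal.ofReal_ne_top]
  refine setLIntegral_mono' (hS m hm) fun y hy => ?_
  have h1 : ‖umc ρ f m y‖ₑ ≤ ENNReal.ofReal c * ‖umc ρ g m y‖ₑ := by
    rw [← ofReal_norm, ← ofReal_norm, ← ENNReal.ofReal_mul hc]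
    exact ENNReal.ofReal_le_ofReal (h m hm y hy)
  calc ‖umc ρ f m y‖ₑ ^ 2 ≤ (ENNReal.ofReal c * ‖umc ρ g m y‖ₑ) ^ 2 := by gcongr
    _ = _ := by rw [mul_pow, ENNReal.ofReal_pow hc]

/-- the power `3/2` of a sum. -/
theorem pow32_sum {κ : Type*} (s : Finset κ) (a : κ → ℝ≥0∞) (b : ℝ≥0∞) (r : ℝ≥0∞) :
    (r * (((s.card : ℝ≥0∞) + 1) * (∑ k ∈ s, a k + b))) ^ (3 / 2 : ℝ) ≤
      2 * ((s.card : ℝ≥0∞) + 1) ^ 2 * (∑ k ∈ s, (r * a k) ^ (3 / 2 : ℝ) + (r * b) ^ (3 / 2 : ℝ)) := by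
  set L : ℝ≥0∞ := (s.card : ℝ≥0∞) + 1 with hL
  have hL1 : 1 ≤ L := le_add_self
  have e1 : r * (L * (∑ k ∈ s, a k + b)) = L * (∑ k ∈ s, r * a k + r * b) := by
    rw [← Finset.mul_sum]; ring
  rw [e1, ENNReal.mul_rpow_of_nonneg _ _ (by norm_num)]
  have h1 := ENNReal.rpow_add_le_mul_rpow_add_rpow (∑ k ∈ s, r * a k) (r * b)
    (p := 3 / 2) (by norm_num)
  have h2 := ENNReal.rpow_sum_le_const_mul_sum_rpow s (fun k => r * a k) (p := 3 / 2) (by norm_num)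
  have h3 : (s.card : ℝ≥0∞) ^ ((3 / 2 : ℝ) - 1) ≤ L ^ (1 / 2 : ℝ) := by
    rw [show (3 / 2 : ℝ) - 1 = 1 / 2 by norm_num]
    exact ENNReal.rpow_le_rpow le_self_add (by norm_num)
  have h4 : (2 : ℝ≥0∞) ^ ((3 / 2 : ℝ) - 1) ≤ 2 := by
    calc (2 : ℝ≥0∞) ^ ((3 / 2 : ℝ) - 1) ≤ 2 ^ (1 : ℝ) :=
          ENNReal.rpow_le_rpow_of_exponent_le (by norm_num) (by norm_num)
      _ = 2 := ENNReal.rpow_one _
  have h5 : (1 : ℝ≥0∞) ≤ L ^ (1 / 2 : ℝ) := ENNReal.one_le_rpow hL1 (by norm_num)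
  calc L ^ (3 / 2 : ℝ) * (∑ k ∈ s, r * a k + r * b) ^ (3 / 2 : ℝ)
      ≤ L ^ (3 / 2 : ℝ) * (2 * (L ^ (1 / 2 : ℝ) * ∑ k ∈ s, (r * a k) ^ (3 / 2 : ℝ) +
          L ^ (1 / 2 : ℝ) * (r * b) ^ (3 / 2 : ℝ))) := by
        gcongr
        refine h1.trans ?_
        gcongr
        · refine h2.trans ?_
          gcongr
        · exact le_mul_of_one_le_left' h5
    _ = 2 * (L ^ (3 / 2 : ℝ) * L ^ (1 / 2 : ℝ)) *
          (∑ k ∈ s, (r * a k) ^ (3 / 2 : ℝ) + (r * b) ^ (3 / 2 : ℝ)) := by ring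
    _ = _ := by
        rw [← ENNReal.rpow_add_of_nonneg _ _ (by norm_num) (by norm_num)]
        norm_num

theorem pow32_add (a b : ℝ≥0∞) : (a + b) ^ (3 / 2 : ℝ) ≤ 2 * (a ^ (3 / 2 : ℝ) + b ^ (3 / 2 : ℝ)) := by
  refine (ENNReal.rpow_add_le_mul_rpow_add_rpow _ _ (by norm_num)).trans ?_
  refine mul_le_mul' ?_ le_rfl
  calc (2 : ℝ≥0∞) ^ ((3 / 2 : ℝ) - 1) ≤ 2 ^ (1 : ℝ) :=
        ENNReal.rpow_le_rpow_of_exponent_le (by norm_num) (by norm_num)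
    _ = 2 := ENNReal.rpow_one _

/-! ### plate systems -/

/-- sub-selections of a plate system. -/
theorem plates_sub {M κ A r s1 s2 R : ℝ} {I : Finset ℕ} {P : ℕ → Plate}
    (hP : Plates M κ A r s1 s2 R I P) (S' : ℕ → ℤ × ℤ → Set E3)
    (hm : ∀ i ∈ I, ∀ m, MeasurableSet (S' i m)) (hs : ∀ i ∈ I, ∀ m, S' i m ⊆ (P i).S m) :
    Plates M κ A r s1 s2 R I (fun i => { P i with S := S' i }) where
  mem := hP.mem
  sep := hP.sep
  X0 := hP.X0
  c := hP.c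
  adm := hP.adm
  meas := hm
  box := fun i hi m => (hs i hi m).trans (hP.box i hi m)
  disj := fun i hi j hj hij hz m => (hP.disj i hi j hj hij hz m).mono (hs i hi m) (hs j hj m)

theorem plates_subI {M κ A r s1 s2 R : ℝ} {I J : Finset ℕ} {P : ℕ → Plate}
    (hP : Plates M κ A r s1 s2 R I P) (hJ : J ⊆ I) : Plates M κ A r s1 s2 R J P where
  mem := fun i hi => hP.mem i (hJ hi)
  sep := fun i hi j hj => hP.sep i (hJ hi) j (hJ hj)
  X0 := fun i hi => hP.X0 i (hJ hi)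
  c := fun i hi => hP.c i (hJ hi)
  adm := fun i hi => hP.adm i (hJ hi)
  meas := fun i hi => hP.meas i (hJ hi)
  box := fun i hi => hP.box i (hJ hi)
  disj := fun i hi j hj => hP.disj i (hJ hi) j (hJ hj)

theorem val_mono {κ : ℝ} (g : E3 → ℂ) (r s1 s2 : ℝ) (I : Finset ℕ) {P P' : ℕ → Plate}
    (hz : ∀ i ∈ I, (P i).z = (P' i).z) (h : ∀ i ∈ I, ∀ m, (P i).S m ⊆ (P' i).S m) :
    val κ g r s1 s2 I P ≤ val κ g r s1 s2 I P' := by
  unfold val
  refine Finset.sum_le_sum fun i hi => ?_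
  rw [hz i hi]
  gcongr
  exact enc_mono _ fun m _ => h i hi m

theorem val_monoI {κ : ℝ} (g : E3 → ℂ) (r s1 s2 : ℝ) {I J : Finset ℕ} (P : ℕ → Plate)
    (h : J ⊆ I) : val κ g r s1 s2 J P ≤ val κ g r s1 s2 I P :=
  Finset.sum_le_sum_of_subset h

theorem val_split {κ : ℝ} {F : E3 → ℂ} {r s1 s2 : ℝ} {I : Finset ℕ} {P : ℕ → Plate}
    (Sa Sb : ℕ → ℤ × ℤ → Set E3) (hu : ∀ i ∈ I, ∀ m, (P i).S m ⊆ Sa i m ∪ Sb i m) :
    val κ F r s1 s2 I P ≤ 2 * (val κ F r s1 s2 I (fun i => { P i with S := Sa i }) +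
      val κ F r s1 s2 I (fun i => { P i with S := Sb i })) := by
  unfold val
  rw [← Finset.sum_add_distrib, Finset.mul_sum]
  refine Finset.sum_le_sum fun i hi => ?_
  have h1 : enc (r ^ (-(1/2) : ℝ)) (trc (P i).z F) (P i).S ≤
      enc (r ^ (-(1/2) : ℝ)) (trc (P i).z F) (Sa i) +
        enc (r ^ (-(1/2) : ℝ)) (trc (P i).z F) (Sb i) :=
    (enc_mono _ fun m _ => hu i hi m).trans (enc_union_le _ _ _ _)
  have h2 : (ENNReal.ofReal r * enc (r ^ (-(1/2) : ℝ)) (trc (P i).z F) (P i).S) ^ (3 / 2 : ℝ) ≤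
      2 * ((ENNReal.ofReal r * enc (r ^ (-(1/2) : ℝ)) (trc (P i).z F) (Sa i)) ^ (3 / 2 : ℝ) +
        (ENNReal.ofReal r * enc (r ^ (-(1/2) : ℝ)) (trc (P i).z F) (Sb i)) ^ (3 / 2 : ℝ)) := by
    refine (ENNReal.rpow_le_rpow (mul_le_mul' le_rfl h1) (by norm_num)).trans ?_
    rw [mul_add]
    exact pow32_add _ _
  refine (mul_le_mul' le_rfl h2).trans (le_of_eq ?_)
  simp only
  ring

end Crest.Agent.R116.Bas367
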