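import Crest.Agent.R116.CWd1_480

/-!
# R116 (S0155): cone packets, part d2 (helper480)

Bounded overlap, **thmAc** (weighted energy of a sum of packets), **thmBc** (Bessel), representation
of the pieces (`Pk.rep_piece`, `Pk.rep_umc`), lattice counts (`card_cen`).
-/

set_option autoImplicit false
set_option linter.unusedSectionVars false

open MeasureTheory FourierTransform
open scoped ContDiff ENNReal

namespace Crest.Agent.R116.CWd480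

open Crest.Agent.R138.Wf448
open Crest.Agent.R138.Defs (E2 ee)
open Crest.Agent.R138.Wpk685 (win fat cen caps)
open Crest.Agent.R116.CWp480 Crest.Agent.R116.CDef480 Crest.Agent.R116.CWc480

/-! ### scaled metrics -/

section scale

variable {V : Type} [NormedAddCommGroup V] [InnerProductSpace ℝ V] [FiniteDimensional ℝ V]
  [MeasurableSpace V] [BorelSpace V]

/-- the metric `c • A`. -/
noncomputable def scl (c : ℝ) (hc : 0 < c) (A : V ≃L[ℝ] V) : V ≃L[ℝ] V :=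
  A.trans (ContinuousLinearEquiv.smulLeft (Units.mk0 c hc.ne'))

theorem scl_apply {c : ℝ} (hc : 0 < c) (A : V ≃L[ℝ] V) (x : V) : scl c hc A x = c • A x := rfl

theorem norm_scl {c : ℝ} (hc : 0 < c) (A : V ≃L[ℝ] V) (x : V) : ‖scl c hc A x‖ = c * ‖A x‖ := by
  rw [scl_apply, norm_smul, Real.norm_eq_abs, abs_of_pos hc]

theorem SV_scl {c : ℝ} (hc : 0 < c) (hc1 : c ≤ 1) {A : V ≃L[ℝ] V} {K : ℝ} {n : ℕ} {w : V → ℝ}
    (hw : SV A K n w) : SV (scl c hc A) (K * c⁻¹ ^ n) n w := by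
  refine hw.of_le (one_le_inv_iff₀.2 ⟨hc, hc1⟩) fun x => ?_
  rw [norm_scl, ← mul_assoc, inv_mul_cancel₀ hc.ne', one_mul]

/-- comparison of dual metrics. -/
theorem adj_le {A A' : V ≃L[ℝ] V} {c : ℝ} (hA : ∀ x, ‖A x‖ ≤ c * ‖A' x‖) (u : V) :
    ‖(adjE A').symm (adjE A u)‖ ≤ c * ‖u‖ := by
  set v := (adjE A').symm (adjE A u) with hv
  have h1 : adjE A' v = adjE A u := by rw [hv, ContinuousLinearEquiv.apply_symm_apply]
  have h2 : inner ℝ v v = inner ℝ u (A (A'.symm v)) := by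
    calc inner ℝ v v = inner ℝ v (A' (A'.symm v)) := by simp
      _ = inner ℝ (adjE A' v) (A'.symm v) := (inner_adjE A' v _).symm
      _ = inner ℝ (adjE A u) (A'.symm v) := by rw [h1]
      _ = _ := inner_adjE A u _
  have h3 : inner ℝ u (A (A'.symm v)) ≤ ‖u‖ * (c * ‖v‖) := by
    refine (real_inner_le_norm _ _).trans ?_
    have := hA (A'.symm v)
    rw [ContinuousLinearEquiv.apply_symm_apply] at this
    gcongr
  rw [← h2, real_inner_self_eq_norm_sq] at h3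
  by_cases h0 : ‖v‖ = 0
  · rw [h0]
    have h4 := hA (A.symm u)
    rw [ContinuousLinearEquiv.apply_symm_apply] at h4
    have h5 := norm_nonneg u
    have h6 := norm_nonneg (A' (A.symm u))
    by_contra hc
    push Not at hc
    have h7 : c < 0 := by
      by_contra hh
      push Not at hh
      nlinarith
    have h8 : c * ‖A' (A.symm u)‖ ≤ 0 := mul_nonpos_of_nonpos_of_nonneg h7.le h6
    have h9 : ‖u‖ = 0 := le_antisymm (h4.trans h8) h5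
    rw [h9, mul_zero] at hc
    exact lt_irrefl _ hc
  · have h4 : 0 < ‖v‖ := lt_of_le_of_ne (norm_nonneg _) (Ne.symm h0)
    have h5 : ‖v‖ * ‖v‖ ≤ (c * ‖u‖) * ‖v‖ := by nlinarith
    exact le_of_mul_le_mul_right h5 h4

end scale

/-! ### bounded overlap -/

theorem Pl_le {ρ κ : ℝ} (hρ : 0 < ρ) (hκ : 0 < κ) (C : E2) (x : E3) :
    0 ≤ ‖Pl ρ κ hρ hκ C x‖ := norm_nonneg _

theorem slp_Sd {a M η0 κ ρ : ℝ} (ha : 1 ≤ a) {C : E2} {ξ : E3} (h : ξ ∈ Sd a M η0 κ ρ C) :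
    ‖slp ξ - C‖ ≤ 2 * a ^ 2 * ρ := by
  have ha0 : 0 < a := by linarith
  have h2 : 0 < ξ 2 := lt_of_lt_of_le (inv_pos.2 ha0) h.1
  have h3 := h.2.2.2
  rw [lat_sub_eq h2.ne', norm_smul, Real.norm_eq_abs, abs_of_pos h2] at h3
  have h4 : a⁻¹ * ‖slp ξ - C‖ ≤ 2 * a * ρ :=
    (mul_le_mul_of_nonneg_right h.1 (norm_nonneg _)).trans h3
  rw [inv_mul_le_iff₀ ha0] at h4
  linarith

theorem thk_Sd {a M η0 κ ρ : ℝ} (ha : 1 ≤ a) (hρ : 0 < ρ) (hκ : 0 < κ) (hκ1 : κ ≤ 1) {C : E2}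
    {A : E3 ≃L[ℝ] E3} (hA : ∀ x, ‖A x‖ ≤ (2 * a)⁻¹ * ‖Pl ρ κ hρ hκ C x‖) {ξ : E3}
    (h : ξ ∈ thk A (Sd a M η0 κ ρ C)) : ‖slp ξ - C‖ ≤ 6 * a ^ 2 * ρ := by
  obtain ⟨z, hz, h1⟩ := h
  have ha0 : 0 < a := by linarith
  set u := (adjE A).symm (ξ - z) with hu
  have h2 : adjE A u = ξ - z := by rw [hu, ContinuousLinearEquiv.apply_symm_apply]
  set v := (adjE (Pl ρ κ hρ hκ C)).symm (adjE A u) with hv
  have h3 : ‖v‖ ≤ (2 * a)⁻¹ := by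
    refine (adj_le hA u).trans ?_
    have : (0:ℝ) ≤ (2 * a)⁻¹ := by positivity
    nlinarith
  have h4 : adjE (Pl ρ κ hρ hκ C) v = ξ - z := by
    rw [hv, ContinuousLinearEquiv.apply_symm_apply, h2]
  rw [adjE_Pl] at h4
  have h5 : κ * v 2 = ξ 2 - z 2 := by
    have := congrArg (fun y : E3 => y 2) h4
    simpa using this
  have h6 : ρ • lat v + (κ * v 2) • C = lat ξ - lat z := by
    have := congrArg lat h4
    rwa [lat_pt, lat_sub] at this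
  have h7 : |κ * v 2| ≤ (2 * a)⁻¹ := by
    rw [abs_mul, abs_of_pos hκ]
    calc κ * |v 2| ≤ 1 * (2 * a)⁻¹ := by
          have := (abs_two_le v).trans h3
          gcongr
      _ = _ := one_mul _
  have e1 : (2 * a)⁻¹ = a⁻¹ / 2 := by rw [mul_inv]; ring
  have hi : 0 < a⁻¹ := inv_pos.2 ha0
  have hi1 : a⁻¹ ≤ 1 := inv_le_one_of_one_le₀ ha
  have h8 : a⁻¹ / 2 ≤ ξ 2 := by
    have := (abs_le.1 h7).1
    rw [e1] at this
    have := hz.1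
    linarith
  have h9 : 0 < ξ 2 := by linarith
  have h10 : lat ξ - ξ 2 • C = (lat z - z 2 • C) + ρ • lat v := by
    have h11 : lat ξ = lat z + (ρ • lat v + (κ * v 2) • C) := by rw [h6]; abel
    have h12 : ξ 2 = z 2 + κ * v 2 := by rw [h5]; ring
    rw [h11, h12, add_smul]
    abel
  have h13 : ‖lat ξ - ξ 2 • C‖ ≤ 3 * a * ρ := by
    rw [h10]
    refine (norm_add_le _ _).trans ?_
    rw [norm_smul, Real.norm_eq_abs, abs_of_pos hρ]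
    have h14 : ‖lat v‖ ≤ a⁻¹ / 2 := (norm_lat_le v).trans (h3.trans e1.le)
    have h15 := hz.2.2.2
    nlinarith
  rw [lat_sub_eq h9.ne', norm_smul, Real.norm_eq_abs, abs_of_pos h9] at h13
  have h16 : (a⁻¹ / 2) * ‖slp ξ - C‖ ≤ 3 * a * ρ :=
    (mul_le_mul_of_nonneg_right h8 (norm_nonneg _)).trans h13
  have h17 : a⁻¹ * ‖slp ξ - C‖ ≤ 6 * a * ρ := by linarith
  rw [inv_mul_le_iff₀ ha0] at h17
  linarith

theorem card_int {x r : ℝ} (hr : 0 ≤ r) : ((Finset.Icc ⌈x - r⌉ ⌊x + r⌋).card : ℝ) ≤ 2 * r + 1 := by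
  rw [Int.card_Icc]
  have h1 := Int.le_ceil (x - r)
  have h2 := Int.floor_le (x + r)
  rcases le_or_gt (⌊x + r⌋ + 1 - ⌈x - r⌉) 0 with h | h
  · rw [Int.toNat_of_nonpos h]
    push_cast
    linarith
  · have h3 : (((⌊x + r⌋ + 1 - ⌈x - r⌉).toNat : ℤ) : ℝ) = ⌊x + r⌋ + 1 - ⌈x - r⌉ := by
      rw [Int.toNat_of_nonneg h.le]
      push_cast
      ring
    have h4 : (((⌊x + r⌋ + 1 - ⌈x - r⌉).toNat : ℕ) : ℝ) = ⌊x + r⌋ + 1 - ⌈x - r⌉ := by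
      rw [← h3]
      push_cast
      ring
    rw [h4]
    linarith

/-- lattice count. -/
theorem card_cen {ρ : ℝ} (hρ : 0 < ρ) {r : ℝ} (hr : 0 ≤ r) (s : Finset (ℤ × ℤ)) (c : E2) :
    (Set.ncard {m | m ∈ s ∧ ‖cen ρ m - c‖ ≤ r * ρ} : ℝ) ≤ (2 * r + 1) ^ 2 := by
  have hsub : {m | m ∈ s ∧ ‖cen ρ m - c‖ ≤ r * ρ} ⊆
      ((Finset.Icc ⌈c 0 / ρ - r⌉ ⌊c 0 / ρ + r⌋ ×ˢ Finset.Icc ⌈c 1 / ρ - r⌉ ⌊c 1 / ρ + r⌋ :
        Finset (ℤ × ℤ)) : Set (ℤ × ℤ)) := by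
    rintro ⟨i, j⟩ ⟨_, h⟩
    have h0 : |ρ * i - c 0| ≤ r * ρ := (PiLp.norm_apply_le (cen ρ (i, j) - c) 0).trans h
    have h1 : |ρ * j - c 1| ≤ r * ρ := (PiLp.norm_apply_le (cen ρ (i, j) - c) 1).trans h
    have key : ∀ (k : ℤ) (x : ℝ), |ρ * k - x| ≤ r * ρ → ⌈x / ρ - r⌉ ≤ k ∧ k ≤ ⌊x / ρ + r⌋ := by
      intro k x hk
      obtain ⟨h2, h3⟩ := abs_le.1 hk
      constructor
      · rw [Int.ceil_le, sub_le_iff_le_add, div_le_iff₀ hρ]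
        linarith
      · rw [Int.le_floor, ← sub_le_iff_le_add, le_div_iff₀ hρ]
        linarith
    rw [Finset.mem_coe, Finset.mem_product, Finset.mem_Icc, Finset.mem_Icc]
    exact ⟨key i _ h0, key j _ h1⟩
  have h1 : Set.ncard {m | m ∈ s ∧ ‖cen ρ m - c‖ ≤ r * ρ} ≤
      (Finset.Icc ⌈c 0 / ρ - r⌉ ⌊c 0 / ρ + r⌋ ×ˢ Finset.Icc ⌈c 1 / ρ - r⌉ ⌊c 1 / ρ + r⌋ :
        Finset (ℤ × ℤ)).card := by
    rw [← Set.ncard_coe_finset]
    exact Set.ncard_le_ncard hsub (Finset.finite_toSet _)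
  rw [Finset.card_product] at h1
  have h2 := card_int (x := c 0 / ρ) hr
  have h3 := card_int (x := c 1 / ρ) hr
  calc (Set.ncard {m | m ∈ s ∧ ‖cen ρ m - c‖ ≤ r * ρ} : ℝ) ≤
        (Finset.Icc ⌈c 0 / ρ - r⌉ ⌊c 0 / ρ + r⌋).card * (Finset.Icc ⌈c 1 / ρ - r⌉ ⌊c 1 / ρ + r⌋).card := by
        exact_mod_cast h1
    _ ≤ (2 * r + 1) * (2 * r + 1) := by gcongr
    _ = _ := by ring

/-! ### the two theorems -/

theorem tra_slc {N : ℕ} {Q T ρ : ℝ} {e : E3 → ℂ} {C : E2} {B : E3 ≃L[ℝ] E3} {c : E3} {S : Set E3}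
    (h : Pk N Q T ρ e C B c S) {A : E3 ≃L[ℝ] E3} (hA : ∀ x, ‖A x‖ ≤ 1 * ‖B x‖) {t : ℝ}
    (ht : |t| * ρ ^ 2 ≤ T) {G : E3 → ℂ} (hG : ∀ ξ, G ξ ≠ 0 → ξ ∈ S) :
    Tra A N Q (t • vel C) (slc G t) G := by
  obtain ⟨a, ha, hph⟩ := h.ph t ht
  refine ⟨1, CWp480.cap a c B, norm_one, temperate_cap ha c B, ?_, ?_⟩
  · intro j hj ξ
    refine (Nn_le_of_le zero_le_one hA j _ ξ).trans ?_
    rw [one_pow, one_mul]
    exact cap_Nn ha c B hj ξ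
  · intro ξ
    unfold slc
    by_cases h0 : G ξ = 0
    · rw [h0]; simp
    · rw [hph ξ (hG ξ h0)]
      ring

/-- **Theorem A for the cone.** -/
theorem thmAc (n : ℕ) {a M T L Q : ℝ} (ha : 1 ≤ a) (hM : 0 ≤ M) (hL : 1 ≤ L) (hQ : 0 < Q) :
    ∃ Cst : ℝ, 0 ≤ Cst ∧ ∀ (ρ κ η0 : ℝ) (hρ : 0 < ρ) (hκ : 0 < κ), κ ≤ 1 → ∀ (e : E3 → ℂ)
      (A : E3 ≃L[ℝ] E3) (K : ℝ) (w : E3 → ℝ), SV A K n w →
    ∀ (ι : Type) (s : Finset ι) (C : ι → E2) (P : ℝ), 0 < P →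
    (∀ c, (Set.ncard {i | i ∈ s ∧ ‖C i - c‖ ≤ 6 * a ^ 2 * ρ} : ℝ) ≤ P) →
    (∀ i ∈ s, ∀ x, ‖A x‖ ≤ L * ‖Pl ρ κ hρ hκ (C i) x‖) →
    ∀ (t : ℝ), |t| * ρ ^ 2 ≤ T →
    (∀ i ∈ s, Pk (n + dd E3) Q T ρ e (C i) (Fr (lam a M) ρ κ (lam_pos ha hM) hρ hκ (C i))
      (ctr η0 (C i)) (Sd a M η0 κ ρ (C i))) →
    ∀ (G v : ι → E3 → ℂ) (Q' : ℝ), (∀ i ∈ s, ∀ ξ, G i ξ ≠ 0 → ξ ∈ Sd a M η0 κ ρ (C i)) →
    (∀ i ∈ s, Rep (n + dd E3) Q' (Fr (lam a M) ρ κ (lam_pos ha hM) hρ hκ (C i)) (ctr η0 (C i))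
      (G i) (v i)) →
    WE w (slc (fun ξ => ∑ i ∈ s, G i ξ) t) ≤ ENNReal.ofReal (Cst * K ^ 5 * P * Q' ^ 2) *
      ∑ i ∈ s, ∫⁻ y, ENNReal.ofReal (w (y - t • vel (C i))) * ‖v i y‖ₑ ^ 2 := by
  obtain ⟨C0, hC0, hA0⟩ := thmA E3 n
  have ha0 : 0 < a := by linarith
  have hc : 0 < (2 * a * L)⁻¹ := by positivity
  have hc1 : (2 * a * L)⁻¹ ≤ 1 := inv_le_one_of_one_le₀ (by nlinarith)
  refine ⟨C0 * (((2 * a * L)⁻¹)⁻¹ ^ n) ^ 5 * Q ^ 2, by positivity, ?_⟩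
  intro ρ κ η0 hρ hκ hκ1 e A K w hw ι s C P hP hov hA t ht hpk G v Q' hG hR
  have hl := lam_pos ha hM
  have hA1 : ∀ i ∈ s, ∀ x, ‖scl _ hc A x‖ ≤ (2 * a)⁻¹ * ‖Pl ρ κ hρ hκ (C i) x‖ := by
    intro i hi x
    rw [norm_scl, mul_inv, mul_assoc]
    have := hA i hi x
    gcongr
    rw [inv_mul_le_iff₀ (by linarith)]
    exact this
  have hA2 : ∀ i ∈ s, ∀ x, ‖scl _ hc A x‖ ≤
      1 * ‖Fr (lam a M) ρ κ (lam_pos ha hM) hρ hκ (C i) x‖ := by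
    intro i hi x
    refine (hA1 i hi x).trans ?_
    rw [norm_Fr, one_mul]
    have h1 : (2 * a)⁻¹ ≤ 1 := inv_le_one_of_one_le₀ (by linarith)
    have h2 : 1 ≤ lam a M := by unfold lam; linarith
    have h3 := norm_nonneg (Pl ρ κ hρ hκ (C i) x)
    nlinarith
  have h := hA0 (scl _ hc A) _ w (SV_scl hc hc1 hw) ι s (fun i => Sd a M η0 κ ρ (C i))
    (fun i => slc (G i) t) G v (fun i => t • vel (C i)) (fun i => ctr η0 (C i))
    (fun i => Fr (lam a M) ρ κ (lam_pos ha hM) hρ hκ (C i)) P 1 Q Q' hP le_rfl hQ (by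
      intro ξ
      refine le_trans ?_ (hov (slp ξ))
      have : Set.ncard {i | i ∈ s ∧ ξ ∈ thk (scl _ hc A) (Sd a M η0 κ ρ (C i))} ≤
          Set.ncard {i | i ∈ s ∧ ‖C i - slp ξ‖ ≤ 6 * a ^ 2 * ρ} := by
        refine Set.ncard_le_ncard ?_ ((Finset.finite_toSet s).subset fun i hi => hi.1)
        rintro i ⟨hi, h1⟩
        refine ⟨hi, ?_⟩
        rw [norm_sub_rev]
        exact thk_Sd ha hρ hκ hκ1 (hA1 i hi) h1
      exact_mod_cast this)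
    (by
      intro i hi ξ hξ
      refine hG i hi ξ fun h0 => hξ ?_
      show slc (G i) t ξ = 0
      unfold slc
      rw [h0, zero_mul])
    (fun i hi => slc_int (hR i hi).int t) (fun i hi => slc_l2 (hR i hi).l2 t) hA2
    (fun i hi => tra_slc (hpk i hi) (hA2 i hi) ht (hG i hi)) hR
  have e1 : (fun ξ => ∑ i ∈ s, slc (G i) t ξ) = slc (fun ξ => ∑ i ∈ s, G i ξ) t := by
    funext ξ
    unfold slc
    rw [Finset.sum_mul]
  rw [e1] at h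
  refine h.trans (le_of_eq ?_)
  congr 2
  ring

/-- **Theorem B for the cone.** -/
theorem thmBc (n : ℕ) {a M T L Q : ℝ} (ha : 1 ≤ a) (hM : 0 ≤ M) (hL : 1 ≤ L) (hQ : 0 < Q) :
    ∃ Cst : ℝ, 0 ≤ Cst ∧ ∀ (ρ κ η0 : ℝ) (hρ : 0 < ρ) (hκ : 0 < κ), κ ≤ 1 → ∀ (e : E3 → ℂ)
      (A : E3 ≃L[ℝ] E3) (K : ℝ) (w : E3 → ℝ), SV A K n w →
    ∀ (ι : Type) (s : Finset ι) (C : ι → E2) (P : ℝ), 0 < P →
    (∀ c, (Set.ncard {i | i ∈ s ∧ ‖C i - c‖ ≤ 6 * a ^ 2 * ρ} : ℝ) ≤ P) →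
    (∀ i ∈ s, ∀ x, ‖A x‖ ≤ L * ‖Pl ρ κ hρ hκ (C i) x‖) →
    ∀ (t : ℝ), |t| * ρ ^ 2 ≤ T →
    (∀ i ∈ s, Pk (n + dd E3) Q T ρ e (C i) (Fr (lam a M) ρ κ (lam_pos ha hM) hρ hκ (C i))
      (ctr η0 (C i)) (Sd a M η0 κ ρ (C i))) →
    ∀ (g : E3 → ℂ), Integrable g → MemLp g 2 → (∀ ζ, g ζ ≠ 0 → e ζ = 1) →
    ∑ i ∈ s, ∫⁻ y, ENNReal.ofReal (w (y - t • vel (C i))) *
      ‖𝓕⁻ (fun ξ => Crest.Agent.R138.Wpk685.cap win (C i) ρ (slp ξ) * g ξ) y‖ₑ ^ 2 ≤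
      ENNReal.ofReal (Cst * K ^ 4 * P) * WE w (slc g t) := by
  obtain ⟨C0, hC0, hB0⟩ := thmB E3 n
  have ha0 : 0 < a := by linarith
  have hc : 0 < (2 * a * L)⁻¹ := by positivity
  have hc1 : (2 * a * L)⁻¹ ≤ 1 := inv_le_one_of_one_le₀ (by nlinarith)
  refine ⟨C0 * (((2 * a * L)⁻¹)⁻¹ ^ n) ^ 4 * Q ^ 2 * Q ^ 2, by positivity, ?_⟩
  intro ρ κ η0 hρ hκ hκ1 e A K w hw ι s C P hP hov hA t ht hpk g hg hg2 he
  have hl := lam_pos ha hM
  have hA1 : ∀ i ∈ s, ∀ x, ‖scl _ hc A x‖ ≤ (2 * a)⁻¹ * ‖Pl ρ κ hρ hκ (C i) x‖ := by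
    intro i hi x
    rw [norm_scl, mul_inv, mul_assoc]
    have := hA i hi x
    gcongr
    rw [inv_mul_le_iff₀ (by linarith)]
    exact this
  have hA2 : ∀ i ∈ s, ∀ x, ‖scl _ hc A x‖ ≤
      1 * ‖Fr (lam a M) ρ κ (lam_pos ha hM) hρ hκ (C i) x‖ := by
    intro i hi x
    refine (hA1 i hi x).trans ?_
    rw [norm_Fr, one_mul]
    have h1 : (2 * a)⁻¹ ≤ 1 := inv_le_one_of_one_le₀ (by linarith)
    have h2 : 1 ≤ lam a M := by unfold lam; linarith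
    have h3 := norm_nonneg (Pl ρ κ hρ hκ (C i) x)
    nlinarith
  have hwn : ∀ i, ∃ b : E3 → ℂ, i ∈ s → (Win (n + dd E3) Q b ∧ ∀ ζ, CWp480.cap b (ctr η0 (C i))
      (Fr (lam a M) ρ κ (lam_pos ha hM) hρ hκ (C i)) ζ =
        Crest.Agent.R138.Wpk685.cap win (C i) ρ (slp ζ) * e ζ) := by
    intro i
    by_cases hi : i ∈ s
    · obtain ⟨b, hb⟩ := (hpk i hi).wn
      exact ⟨b, fun _ => hb⟩
    · exact ⟨0, fun h => absurd h hi⟩
  choose b hb using hwn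
  have h := hB0 (scl _ hc A) _ w (SV_scl hc hc1 hw) ι s
    (fun i => CWp480.cap (b i) (ctr η0 (C i)) (Fr (lam a M) ρ κ (lam_pos ha hM) hρ hκ (C i)))
    (fun i ξ => Crest.Agent.R138.Wpk685.cap win (C i) ρ (slp ξ) * g ξ) (slc g t)
    (fun i => t • vel (C i)) P Q Q hP hQ hQ
    (fun i hi => temperate_cap (hb i hi).1 _ _)
    (by
      intro i hi j hj ξ
      refine (Nn_le_of_le zero_le_one (hA2 i hi) j _ ξ).trans ?_
      rw [one_pow, one_mul]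
      exact cap_Nn (hb i hi).1 _ _ hj ξ)
    (by
      intro ξ
      refine le_trans ?_ (hov (slp ξ))
      have : Set.ncard {i | i ∈ s ∧ ξ ∈ tsupport (CWp480.cap (b i) (ctr η0 (C i))
          (Fr (lam a M) ρ κ (lam_pos ha hM) hρ hκ (C i)))} ≤
          Set.ncard {i | i ∈ s ∧ ‖C i - slp ξ‖ ≤ 6 * a ^ 2 * ρ} := by
        refine Set.ncard_le_ncard ?_ ((Finset.finite_toSet s).subset fun i hi => hi.1)
        rintro i ⟨hi, h1⟩
        refine ⟨hi, ?_⟩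
        have h2 : tsupport (CWp480.cap (b i) (ctr η0 (C i))
            (Fr (lam a M) ρ κ (lam_pos ha hM) hρ hκ (C i))) ⊆ Sd a M η0 κ ρ (C i) := by
          refine closure_minimal (fun ζ hζ => ?_) (isClosed_Sd _ _ _ _ _ _)
          refine (hpk i hi).sw ζ ?_
          rw [← (hb i hi).2 ζ]
          exact hζ
        have h3 := slp_Sd ha (h2 h1)
        rw [norm_sub_rev]
        refine h3.trans ?_
        have : 0 < a ^ 2 * ρ := by positivity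
        linarith
      exact_mod_cast this)
    (slc_int hg t) (slc_l2 hg2 t)
    (by
      intro i hi
      obtain ⟨a', ha', hph⟩ := (hpk i hi).ph (-t) (by rwa [abs_neg])
      refine ⟨1, CWp480.cap a' (ctr η0 (C i)) (Fr (lam a M) ρ κ (lam_pos ha hM) hρ hκ (C i)),
        norm_one, temperate_cap ha' _ _, ?_, ?_⟩
      · intro j hj ξ
        refine (Nn_le_of_le zero_le_one (hA2 i hi) j _ ξ).trans ?_
        rw [one_pow, one_mul]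
        exact cap_Nn ha' _ _ hj ξ
      · intro ξ
        show Crest.Agent.R138.Wpk685.cap win (C i) ρ (slp ξ) * g ξ = 1 * (CWp480.cap a' (ctr η0 (C i))
          (Fr (lam a M) ρ κ (lam_pos ha hM) hρ hκ (C i)) ξ * (ee (inner ℝ (-(t • vel (C i))) ξ) *
          (CWp480.cap (b i) (ctr η0 (C i)) (Fr (lam a M) ρ κ (lam_pos ha hM) hρ hκ (C i)) ξ *
            slc g t ξ)))
        rw [(hb i hi).2 ξ]
        by_cases h0 : g ξ = 0
        · unfold slc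
          rw [h0]; simp
        · by_cases h1 : Crest.Agent.R138.Wpk685.cap win (C i) ρ (slp ξ) = 0
          · rw [h1]; simp
          · have h2 := he ξ h0
            have h3 : ξ ∈ Sd a M η0 κ ρ (C i) := (hpk i hi).sw ξ (by rw [h2, mul_one]; exact h1)
            have h4 := hph ξ h3
            rw [neg_smul] at h4
            unfold slc
            rw [h2, mul_one]
            have h5 : ee (-t * CDef480.hc ξ) * ee (t * CDef480.hc ξ) = 1 := by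
              rw [neg_mul]
              exact ee_neg_mul _
            calc Crest.Agent.R138.Wpk685.cap win (C i) ρ (slp ξ) * g ξ =
                (ee (-t * CDef480.hc ξ) * ee (t * CDef480.hc ξ)) *
                  (Crest.Agent.R138.Wpk685.cap win (C i) ρ (slp ξ) * g ξ) := by rw [h5, one_mul]
              _ = _ := by rw [h4]; ring)
  have e1 : ∀ i ∈ s, WE (fun x => w (x - t • vel (C i)))
      (fun ξ => Crest.Agent.R138.Wpk685.cap win (C i) ρ (slp ξ) * g ξ) =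
      ∫⁻ y, ENNReal.ofReal (w (y - t • vel (C i))) *
      ‖𝓕⁻ (fun ξ => Crest.Agent.R138.Wpk685.cap win (C i) ρ (slp ξ) * g ξ) y‖ₑ ^ 2 :=
    fun i _ => rfl
  rw [← Finset.sum_congr rfl e1]
  refine h.trans (le_of_eq ?_)
  congr 2
  ring

/-! ### representation of the pieces -/

theorem cap_bdd_l2 {N : ℕ} {Q : ℝ} {a : E3 → ℂ} (ha : Win N Q a) (c : E3) (A : E3 ≃L[ℝ] E3)
    {f : E3 → ℂ} (hf : AEStronglyMeasurable f) {M : ℝ} (hM : ∀ ξ, ‖f ξ‖ ≤ M) :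
    Integrable (fun ξ => CWp480.cap a c A ξ * f ξ) ∧ MemLp (fun ξ => CWp480.cap a c A ξ * f ξ) 2 := by
  have h1 : Integrable (fun ξ => CWp480.cap a c A ξ * f ξ) :=
    (cap_int ha c A).mul_bdd (c := M) hf (Filter.Eventually.of_forall hM)
  refine ⟨h1, ?_⟩
  have hM0 : 0 ≤ M := (norm_nonneg _).trans (hM 0)
  have h2 : MemLp (CWp480.cap a c A) 2 :=
    (contDiff_cap ha.smooth c A).continuous.memLp_of_hasCompactSupport (hcs_cap ha c A)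
  refine MemLp.of_le_mul (c := M) h2 h1.1 (Filter.Eventually.of_forall fun ξ => ?_)
  rw [norm_mul, mul_comm]
  exact mul_le_mul_of_nonneg_right (hM ξ) (norm_nonneg _)

/-- the piece synthesised from `v` is represented by `v`. -/
theorem Pk.rep_piece {N : ℕ} {Q T ρ : ℝ} {e : E3 → ℂ} {C : E2} {B : E3 ≃L[ℝ] E3} {c : E3}
    {S : Set E3} (h : Pk N Q T ρ e C B c S) {v : E3 → ℂ} (hv : Integrable v) {M : ℝ}
    (hM : ∀ y, ‖v y‖ ≤ M) :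
    Rep N Q B c (fun ζ => Crest.Agent.R138.Wpk685.cap fat C ρ (slp ζ) * e ζ * 𝓕 v ζ) v := by
  obtain ⟨a, ha, hca⟩ := h.ft
  have e1 : (fun ζ => Crest.Agent.R138.Wpk685.cap fat C ρ (slp ζ) * e ζ * 𝓕 v ζ) =
      fun ζ => CWp480.cap a c B ζ * 𝓕 v ζ := by
    funext ζ
    rw [hca]
  rw [e1]
  have hb : ∀ ξ, ‖𝓕 v ξ‖ ≤ ∫ y, ‖v y‖ := fun ξ => VectorFourier.norm_fourierIntegral_le_integral_norm _ _ _ _ _
  have hc : Continuous (𝓕 v) := VectorFourier.fourierIntegral_continuous Real.continuous_fourierChar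
    (by exact continuous_inner) hv
  obtain ⟨h1, h2⟩ := cap_bdd_l2 ha c B hc.aestronglyMeasurable hb
  exact ⟨h1, h2, hv.1, ⟨M, hM⟩, a, ha, fun x => rep_ind (cap_int ha c B) hv x⟩

theorem fat_win (C : E2) {ρ : ℝ} (ξ : E2) : Crest.Agent.R138.Wpk685.cap fat C ρ ξ *
    Crest.Agent.R138.Wpk685.cap win C ρ ξ = Crest.Agent.R138.Wpk685.cap win C ρ ξ := by
  unfold Crest.Agent.R138.Wpk685.cap
  rcases le_or_gt ‖ρ⁻¹ • (ξ - C)‖ (71 / 50) with h | h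
  · rw [Crest.Agent.R138.Wpk685.fat_one h, one_mul]
  · rw [Crest.Agent.R138.Wpk685.win_zero' h, mul_zero]

/-- the piece `χ_C g` is represented by itself. -/
theorem Pk.rep_umc {N : ℕ} {Q T ρ : ℝ} {e : E3 → ℂ} {C : E2} {B : E3 ≃L[ℝ] E3} {c : E3}
    {S : Set E3} (h : Pk N Q T ρ e C B c S) {g : E3 → ℂ}
    (hg : Integrable (fun ξ => Crest.Agent.R138.Wpk685.cap win C ρ (slp ξ) * g ξ))
    (hg2 : MemLp (fun ξ => Crest.Agent.R138.Wpk685.cap win C ρ (slp ξ) * g ξ) 2)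
    (he : ∀ ζ, g ζ ≠ 0 → e ζ = 1) :
    Rep N Q B c (fun ξ => Crest.Agent.R138.Wpk685.cap win C ρ (slp ξ) * g ξ)
      (𝓕⁻ (fun ξ => Crest.Agent.R138.Wpk685.cap win C ρ (slp ξ) * g ξ)) := by
  obtain ⟨a, ha, hca⟩ := h.ft
  have hcont : Continuous (𝓕⁻ (fun ξ => Crest.Agent.R138.Wpk685.cap win C ρ (slp ξ) * g ξ)) :=
    fourierInv_continuous hg
  refine ⟨hg, hg2, hcont.aestronglyMeasurable, ⟨∫ ξ, ‖Crest.Agent.R138.Wpk685.cap win C ρ (slp ξ) *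
    g ξ‖, fun y => ?_⟩, a, ha, fun x => ?_⟩
  · rw [fourierInv_eq_int]
    refine (norm_integral_le_integral_norm _).trans (le_of_eq ?_)
    congr 1
    ext ζ
    rw [norm_mul _ (ee _), norm_ee, mul_one]
  · rw [← rep_mul (contDiff_cap ha.smooth c B).continuous (cap_int ha c B) (Kf_int ha c B)
      (Kf_int' ha c B) hg x]
    have e1 : (fun ξ => Crest.Agent.R138.Wpk685.cap win C ρ (slp ξ) * g ξ) =
        fun ξ => CWp480.cap a c B ξ * (Crest.Agent.R138.Wpk685.cap win C ρ (slp ξ) * g ξ) := by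
      funext ξ
      rw [hca]
      by_cases h0 : g ξ = 0
      · rw [h0]; simp
      · rw [he ξ h0, mul_one, ← mul_assoc, fat_win]
    exact congrArg (fun f : E3 → ℂ => 𝓕⁻ f x) e1

end Crest.Agent.R116.CWd480
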