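import Crest.Agent.R116.UpC4_448
import Crest.Agent.R116.CWd2_480
import Crest.Agent.R116.Bas1_367

/-!
# R116: UPPER-C, cone instance, part 4: final forms `upC_448`, `isoC_448` (helper448)
-/

set_option autoImplicit false
set_option linter.unusedSectionVars false

open MeasureTheory FourierTransform
open scoped ContDiff ENNReal

namespace Crest.Agent.R116.UpC448

open Crest.Agent.R138.Wf448
open Crest.Agent.R138.Defs (E2 ee)
open Crest.Agent.R138.Wpk685 (win fat cen caps)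
open Crest.Agent.R138.Loc878 (nearL mem_nearL Near)
open Crest.Agent.R116.CWp480 Crest.Agent.R116.CDef480 Crest.Agent.R116.CWc480
  Crest.Agent.R116.CWd480
open Crest.Agent.R116.Up192 (pa pa_pos SV_pa lint_indG)
open Crest.Agent.R116.Cad538 (frc wt wt_frame)
open Crest.Agent.R116.AlB888 (Adc)

/-! ### elementary -/

theorem dd_E3 : dd E3 = 4 := by
  unfold dd
  simp

/-- range of `η0` for a nonzero sliced function. -/
theorem eta0_range {a κ η0 : ℝ} (ha : 1 ≤ a) (haκ : 8 * a * κ ≤ 1)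
    {g : E3 → ℂ} (hs : ∀ ζ, g ζ ≠ 0 → a⁻¹ ≤ ζ 2 ∧ ζ 2 ≤ a) (hg : Slc η0 κ g)
    (h0 : ∃ ζ, g ζ ≠ 0) : 7 / (8 * a) ≤ η0 ∧ η0 ≤ 2 * a := by
  obtain ⟨ζ, hζ⟩ := h0
  obtain ⟨h1, h2⟩ := hs ζ hζ
  have h3 := abs_le.1 (hg ζ hζ)
  have ha0 : 0 < a := by linarith
  have hi : 0 < a⁻¹ := inv_pos.2 ha0
  have hi1 : a⁻¹ ≤ 1 := inv_le_one_of_one_le₀ ha
  have h4 : κ ≤ a⁻¹ / 8 := by
    have h5 : κ * a ≤ 1 / 8 := by linarith
    have h6 : κ ≤ 1 / 8 / a := (le_div_iff₀ ha0).2 h5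
    calc κ ≤ 1 / 8 / a := h6
      _ = a⁻¹ / 8 := by field_simp
  have e2 : 7 / (8 * a) = 7 / 8 * a⁻¹ := by field_simp
  rw [e2]
  constructor <;> linarith

theorem piecec_zero (η0 κ ρ : ℝ) (m : ℤ × ℤ) (S : Set E3) (ζ : E3) :
    piecec η0 κ ρ (fun _ => 0) m S ζ = 0 := by
  have h1 : umc ρ (fun _ : E3 => (0:ℂ)) m = fun _ => 0 := by
    funext x
    unfold umc
    rw [CWp480.fourierInv_eq_int]
    simp
  have h2 : 𝓕 (S.indicator (fun _ : E3 => (0:ℂ))) ζ = 0 := by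
    rw [CWp480.fourier_eq_int]
    simp
  unfold piecec
  rw [h1, h2, mul_zero]

theorem umc_sel_zero (η0 κ θ θ' : ℝ) (S : ℤ × ℤ → Set E3) (z : E3 × ℝ) (m' : ℤ × ℤ) (y : E3) :
    umc θ' (trc z (selc η0 κ θ (fun _ => 0) S)) m' y = 0 := by
  unfold umc
  rw [CWp480.fourierInv_eq_int]
  have : ∀ ζ : E3, trc z (selc η0 κ θ (fun _ => 0) S) ζ = 0 := by
    intro ζ
    unfold trc selc
    rw [Finset.sum_eq_zero fun m _ => piecec_zero η0 κ θ m (S m) ζ, zero_mul]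
  simp [this]

/-- orthonormal basis from two orthogonal unit vectors. -/
theorem exists_basis {N u : E2} (hN : ‖N‖ = 1) (hu : ‖u‖ = 1) (hNu : inner ℝ N u = (0:ℝ)) :
    ∃ b : OrthonormalBasis (Fin 2) ℝ E2, b 0 = N ∧ b 1 = u := by
  have hv : Orthonormal ℝ ![N, u] := by
    rw [orthonormal_iff_ite]
    intro i j
    fin_cases i <;> fin_cases j
    · simp [hN]
    · simpa using hNu
    · simpa [real_inner_comm] using hNu
    · simp [hu]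
  have hv' : Orthonormal ℝ ((Set.univ : Set (Fin 2)).domRestrict ![N, u]) := by
    have := hv.comp (fun i : (Set.univ : Set (Fin 2)) => i.1) Subtype.val_injective
    exact this
  obtain ⟨b, hb⟩ := hv'.exists_orthonormalBasis_extension_of_card_eq (by simp)
  exact ⟨b, hb 0 (Set.mem_univ _), hb 1 (Set.mem_univ _)⟩

/-- plate energies of the near parent caps and `Adc`. -/
theorem plates_le_Adc (n : ℕ) {κ θ θ' : ℝ} (hκ : 0 < κ) (hθ : 0 < θ) (hst : κ * θ' ≤ θ)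
    (g : E3 → ℂ) (S : ℤ × ℤ → Set E3) (z : E3 × ℝ) (m' : ℤ × ℤ) (c : E3) :
    ∑ m ∈ nearL θ θ' m', ∫⁻ y in S m,
      ENNReal.ofReal (pa n (Pl θ κ hθ hκ (cen θ' m')) (y - (z.1 + z.2 • vel (cen θ m)) - c)) *
        ‖umc θ g m y‖ₑ ^ 2 ≤
      ENNReal.ofReal (4 ^ n * (θ ^ 2 * κ)⁻¹) * Adc n θ κ θ' g S m' (z.1 + c) z.2 := by
  unfold Adc Cad538.Acc Cad538.Den
  rw [← mul_assoc, ← ENNReal.ofReal_mul (by positivity), mul_assoc,
    inv_mul_cancel₀ (by positivity), mul_one, Finset.mul_sum]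
  refine Finset.sum_le_sum fun m hm => ?_
  rw [← lintegral_const_mul' _ _ ENNReal.ofReal_ne_top]
  refine lintegral_mono fun y => ?_
  rw [← mul_assoc, ← ENNReal.ofReal_mul (by positivity)]
  refine mul_le_mul' (ENNReal.ofReal_le_ofReal ?_) le_rfl
  have hA : ‖frc θ κ (cen θ m) (y - (z.1 + z.2 • vel (cen θ m)) - c)‖ ≤
      4 * ‖Pl θ κ hθ hκ (cen θ' m') (y - (z.1 + z.2 • vel (cen θ m)) - c)‖ := by
    rw [frc_eq hθ hκ]
    have hn : ‖cen θ m - cen θ' m'‖ ≤ 3 * θ' := (mem_nearL.1 hm).2.le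
    have e1 := Pl_le_Pl hθ hκ (D := 3) (by norm_num) (C := cen θ m) (C' := cen θ' m') (by
      calc κ * ‖cen θ m - cen θ' m'‖ ≤ κ * (3 * θ') := by gcongr
        _ = 3 * (κ * θ') := by ring
        _ ≤ 3 * θ := by linarith) (y - (z.1 + z.2 • vel (cen θ m)) - c)
    linarith
  have e1 := wt_frame (frc θ κ (cen θ m)) (Pl θ κ hθ hκ (cen θ' m') : E3 →L[ℝ] E3) (K := 4)
    (by norm_num) n (z := y - (z.1 + z.2 • vel (cen θ m)) - c) hA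
  have e2 : y - (z.1 + c) - z.2 • vel (cen θ m) = y - (z.1 + z.2 • vel (cen θ m)) - c := by abel
  rw [e2]
  exact e1

/-! ### UPPER-C -/

open Classical in
/-- **UPPER-C** (339's literal). -/
theorem upC_448 (a b : ℝ) (ha : 1 ≤ a) (n k : ℕ) : ∃ C : ℝ, 0 ≤ C ∧
    ∀ (κ η0 θ θ' : ℝ) (g : E3 → ℂ) (S : ℤ × ℤ → Set E3) (z : E3 × ℝ) (N u : E2) (m' : ℤ × ℤ)
      (c : E3) (Y pp : ℝ), 0 < κ → 8 * a * κ ≤ 1 → 0 < θ → θ ≤ θ' → θ' ≤ 1 → κ * θ' ≤ θ →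
    Measurable g → (∃ L : ℝ, ∀ ζ, ‖g ζ‖ ≤ L) →
    (∀ ζ, g ζ ≠ 0 → a⁻¹ ≤ ζ 2 ∧ ζ 2 ≤ a ∧ ‖slp ζ‖ ≤ b) → Slc η0 κ g →
    (∀ m, MeasurableSet (S m)) → (∀ m, Bornology.IsBounded (S m)) → |z.2| * θ ^ 2 ≤ 1 →
    ‖N‖ = 1 → ‖u‖ = 1 → inner ℝ N u = (0:ℝ) → 0 ≤ Y → 0 ≤ pp →
    (∀ j : ℤ, (Set.ncard {m | m ∈ nearL θ θ' m' ∧
      (∃ y ∈ S m, ‖frc θ κ (cen θ m) (y - z.2 • vel (cen θ m) - (z.1 + c))‖ ≤ Y) ∧
      |(inner ℝ u (cen θ m) : ℝ) - j * θ| ≤ θ} : ℝ) ≤ pp) →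
    ∫⁻ y, ENNReal.ofReal (((1 + (θ' * inner ℝ N (lat (y - c))) ^ 2 +
        (θ * inner ℝ u (lat (y - c))) ^ 2 + (κ * nrm (cen θ' m') (y - c) 0) ^ 2) ^ (n + k + 4))⁻¹) *
        ‖umc θ' (trc z (selc η0 κ θ g S)) m' y‖ₑ ^ 2 ≤
      ENNReal.ofReal (C * (θ / θ') * (θ ^ 2 * κ)⁻¹ * (pp + (caps θ).card * ((1 + Y) ^ k)⁻¹)) *
        Adc n θ κ θ' g S m' (z.1 + c) z.2 := by
  obtain ⟨C, hC, h⟩ := upC_cell n k a ha 1
  refine ⟨C, hC, ?_⟩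
  intro κ η0 θ θ' g S z N u m' c Y pp hκ haκ hθ hθθ' _ hst hgm hgb hgs hsl hSm hSb hz hN hu hNu hY
    hpp hcnt
  have hθ' : 0 < θ' := hθ.trans_le hθθ'
  by_cases h0 : ∃ ζ, g ζ ≠ 0
  · obtain ⟨hη, hη2⟩ := eta0_range ha haκ (fun ζ hζ => ⟨(hgs ζ hζ).1, (hgs ζ hζ).2.1⟩) hsl h0
    obtain ⟨bb, hb0, hb1⟩ := exists_basis hN hu hNu
    have hgd := Bas367.gd_of_supp (a := a) (b := b) hgm hgb (fun ζ hζ =>
      ⟨(inv_pos.2 (by linarith)).trans_le (hgs ζ hζ).1, (hgs ζ hζ).2.1, (hgs ζ hζ).2.2⟩)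
    have key := h η0 κ θ θ' hκ hθ hθ' hη hη2 haκ hθθ' hst bb g hgd.int S hSm hSb z hz m' c Y pp hY
      hpp (by
        intro j
        refine le_trans (le_of_eq ?_) (hcnt j)
        congr 2
        ext m
        rw [hb1]
        simp only [Set.mem_ofPred_eq]
        have e : ∀ y : E3, y - z.1 - z.2 • vel (cen θ m) - c =
            y - z.2 • vel (cen θ m) - (z.1 + c) := fun y => by abel
        simp only [e])
    refine le_trans (le_of_eq (lintegral_congr fun y => ?_)) key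
    congr 2
    rw [dw_def, dd_E3, norm_cfr_sq, hb0, hb1]
    unfold nrm
    rw [zero_mul, zero_div, add_zero, add_assoc, add_assoc]
    congr 3
    ring
  · push Not at h0
    have hg0 : g = fun _ => 0 := funext h0
    subst hg0
    simp only [umc_sel_zero]
    simp

set_option maxHeartbeats 1000000 in
/-- **ISO** (339's literal): the same with the plate weight. -/
theorem isoC_448 (a b : ℝ) (ha : 1 ≤ a) (n : ℕ) : ∃ C : ℝ, 0 ≤ C ∧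
    ∀ (κ η0 θ θ' : ℝ) (g : E3 → ℂ) (S : ℤ × ℤ → Set E3) (z : E3 × ℝ) (m' : ℤ × ℤ)
      (c : E3), 0 < κ → 8 * a * κ ≤ 1 → 0 < θ → θ ≤ θ' → θ' ≤ 1 → κ * θ' ≤ θ →
    Measurable g → (∃ L : ℝ, ∀ ζ, ‖g ζ‖ ≤ L) →
    (∀ ζ, g ζ ≠ 0 → a⁻¹ ≤ ζ 2 ∧ ζ 2 ≤ a ∧ ‖slp ζ‖ ≤ b) → Slc η0 κ g →
    (∀ m, MeasurableSet (S m)) → (∀ m, Bornology.IsBounded (S m)) → |z.2| * θ ^ 2 ≤ 1 →
    ∫⁻ y, ENNReal.ofReal (wt (frc θ κ (cen θ' m')) n (y - c)) *
        ‖umc θ' (trc z (selc η0 κ θ g S)) m' y‖ₑ ^ 2 ≤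
      ENNReal.ofReal (C * (θ ^ 2 * κ)⁻¹) * Adc n θ κ θ' g S m' (z.1 + c) z.2 := by
  obtain ⟨C1, hC1, h1⟩ := thmA E3 n
  obtain ⟨Q, hQ, hpk⟩ := pk_wide ha (n + dd E3) 1
  have ha0 : 0 < a := by linarith
  set N := n + dd E3 with hN
  set c0 : ℝ := (2 * (4 * a) * 4)⁻¹ with hc0
  have hc00 : 0 < c0 := by positivity
  have hc01 : c0 ≤ 1 := inv_le_one_of_one_le₀ (by linarith)
  set P : ℝ := (2 * (6 * (4 * a) ^ 2) + 1) ^ 2 with hPdef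
  set Qt : ℝ := 2 ^ N * (4 ^ N * Q) ^ 2 with hQt
  set C2 : ℝ := C1 * (1 * c0⁻¹ ^ n) ^ 5 * P * Qt ^ 2 * Q ^ 2 * 4 ^ n with hC2
  have hP0 : 0 < P := by positivity
  have hQt0 : 0 < Qt := by positivity
  have hC20 : 0 ≤ C2 := by positivity
  refine ⟨C2 * 4 ^ n, by positivity, ?_⟩
  intro κ η0 θ θ' g S z m' c hκ haκ hθ hθθ' _ hst hgm hgb hgs hsl hSm hSb hz
  have hθ' : 0 < θ' := hθ.trans_le hθθ'
  by_cases h0 : ∃ ζ, g ζ ≠ 0
  swap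
  · push Not at h0
    have hg0 : g = fun _ => 0 := funext h0
    subst hg0
    simp only [umc_sel_zero]
    simp
  obtain ⟨hη, hη2⟩ := eta0_range ha haκ (fun ζ hζ => ⟨(hgs ζ hζ).1, (hgs ζ hζ).2.1⟩) hsl h0
  have hgd := Bas367.gd_of_supp (a := a) (b := b) hgm hgb (fun ζ hζ =>
    ⟨(inv_pos.2 (by linarith)).trans_le (hgs ζ hζ).1, (hgs ζ hζ).2.1, (hgs ζ hζ).2.2⟩)
  set C' := cen θ' m' with hC'
  have hκ1 : κ ≤ 1 := by nlinarith
  have hk1 : κ ≤ (4 * a)⁻¹ := by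
    rw [← one_div, le_div_iff₀ (by positivity)]
    nlinarith
  have hk2 : 2 * κ ≤ (4 * a)⁻¹ := by
    rw [← one_div, le_div_iff₀ (by positivity)]
    linarith
  have hPk : ∀ m : ℤ × ℤ, Pk N Q 1 θ (etw η0 κ) (cen θ m)
      (Fr (lam (4 * a) 2) θ κ (lam_pos (by linarith) (by norm_num)) hθ hκ (cen θ m))
      (ctr η0 (cen θ m)) (Sd (4 * a) 2 η0 κ θ (cen θ m)) := fun m =>
    hpk η0 κ hη hη2 hκ hk1 θ hθ (cen θ m)
  have hPk' := hpk η0 (2 * κ) hη hη2 (by positivity) hk2 θ' hθ' C'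
  have hnear : ∀ m ∈ nearL θ θ' m', ‖cen θ m - C'‖ ≤ 3 * θ' := fun m hm =>
    (mem_nearL.1 hm).2.le
  have hrep : ∀ m, Rep N Q (Fr (lam (4 * a) 2) θ κ (lam_pos (by linarith) (by norm_num)) hθ hκ
      (cen θ m)) (ctr η0 (cen θ m)) (piecec η0 κ θ g m (S m)) ((S m).indicator (umc θ g m)) :=
    fun m => rep_piece (hPk m) hgd.int (hSm m) (hSb m)
  have hA0 : ∀ m ∈ nearL θ θ' m', ∀ x, ‖Pl θ κ hθ hκ C' x‖ ≤ 4 * ‖Pl θ κ hθ hκ (cen θ m) x‖ := by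
    intro m hm x
    have e1 := Pl_le_Pl hθ hκ (D := 3) (by norm_num) (C := C') (C' := cen θ m) (by
      rw [norm_sub_rev]
      calc κ * ‖cen θ m - C'‖ ≤ κ * (3 * θ') := by gcongr; exact hnear m hm
        _ = 3 * (κ * θ') := by ring
        _ ≤ 3 * θ := by linarith) x
    linarith
  set A : E3 ≃L[ℝ] E3 := CWd480.scl c0 hc00 (Pl θ κ hθ hκ C') with hAdef
  have hAle : ∀ x, ‖A x‖ ≤ ‖Pl θ κ hθ hκ C' x‖ := by
    intro x
    rw [hAdef, norm_scl]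
    nlinarith [norm_nonneg (Pl θ κ hθ hκ C' x)]
  have hA1 : ∀ m ∈ nearL θ θ' m', ∀ x, ‖A x‖ ≤ 4 *
      ‖Fr (lam (4 * a) 2) θ κ (lam_pos (by linarith) (by norm_num)) hθ hκ (cen θ m) x‖ := by
    intro m hm x
    have e1 := hA0 m hm x
    have e2 := Pl_le_Fr (lam2_ge ha) hθ hκ (cen θ m) x
    have e3 := hAle x
    linarith
  have hA2 : ∀ m ∈ nearL θ θ' m', ∀ x, ‖A x‖ ≤ (2 * (4 * a))⁻¹ * ‖Pl θ κ hθ hκ (cen θ m) x‖ := by
    intro m hm x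
    rw [hAdef, norm_scl]
    have e1 := hA0 m hm x
    calc c0 * ‖Pl θ κ hθ hκ C' x‖ ≤ c0 * (4 * ‖Pl θ κ hθ hκ (cen θ m) x‖) := by gcongr
      _ = _ := by
        rw [hc0]
        field_simp
  have hB' : ∀ x, ‖A x‖ ≤ 4 * ‖Fr (lam (4 * a) 2) θ' (2 * κ)
      (lam_pos (by linarith) (by norm_num)) hθ' (by positivity) C' x‖ := by
    intro x
    have e0 := hAle x
    have e1 := Pl_mono hθ hκ hθ' (by positivity : 0 < 2 * κ) hθθ' (by linarith) C' x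
    have e2 := Pl_le_Fr (lam2_ge ha) hθ' (by positivity : 0 < 2 * κ) C' x
    have e3 := norm_nonneg (Fr (lam (4 * a) 2) θ' (2 * κ)
      (lam_pos (by linarith) (by norm_num)) hθ' (by positivity) C' x)
    linarith
  have key := h1 A (1 * c0⁻¹ ^ n) (fun y => pa n (Pl θ κ hθ hκ C') (y - c))
    (SV_scl hc00 hc01 (SV_pa (Pl θ κ hθ hκ C') n c)) (ℤ × ℤ) (nearL θ θ' m')
    (fun m => Sd (4 * a) 2 η0 κ θ (cen θ m))
    (fun m => chp η0 κ θ θ' g z m' m (S m)) (fun m => piecec η0 κ θ g m (S m))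
    (fun m => (S m).indicator (umc θ g m)) (fun m => z.1 + z.2 • vel (cen θ m))
    (fun m => ctr η0 (cen θ m))
    (fun m => Fr (lam (4 * a) 2) θ κ (lam_pos (by linarith) (by norm_num)) hθ hκ (cen θ m))
    P 4 Qt Q hP0 (by norm_num) hQt0
    (fun ξ => by
      refine le_trans ?_ (card_cen hθ (r := 6 * (4 * a) ^ 2) (by positivity) (nearL θ θ' m')
        (slp ξ))
      have : Set.ncard {i | i ∈ nearL θ θ' m' ∧ ξ ∈ thk A (Sd (4 * a) 2 η0 κ θ (cen θ i))} ≤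
          Set.ncard {m | m ∈ nearL θ θ' m' ∧ ‖cen θ m - slp ξ‖ ≤ 6 * (4 * a) ^ 2 * θ} := by
        refine Set.ncard_le_ncard ?_ ((Finset.finite_toSet _).subset fun i hi => hi.1)
        rintro i ⟨hi, h1⟩
        refine ⟨hi, ?_⟩
        rw [norm_sub_rev]
        exact thk_Sd (by linarith) hθ hκ hκ1 (hA2 i hi) h1
      exact_mod_cast this)
    (fun m _ ξ hξ => supp_piece (hPk m) (supp_chp hξ))
    (fun m _ => capc_mul_int θ' m' (trc_int z (hrep m).int))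
    (fun m _ => capc_mul_l2 θ' m' (trc_l2 z (hrep m).l2))
    hA1
    (fun m hm => tra_piece hκ A (hPk m) hPk' (by norm_num) (hA1 m hm) hB' g (S m) z hz)
    (fun m _ => hrep m)
  have e1 : ∀ y : E3, wt (frc θ κ C') n (y - c) = pa n (Pl θ κ hθ hκ C') (y - c) := by
    intro y
    unfold wt pa
    rw [frc_eq hθ hκ]
  simp only [e1]
  rw [umc_sel hθ hθθ']
  refine key.trans ?_
  have e2 : ∀ m ∈ nearL θ θ' m', ∫⁻ y, ENNReal.ofReal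
      (pa n (Pl θ κ hθ hκ C') (y - (z.1 + z.2 • vel (cen θ m)) - c)) *
        ‖(S m).indicator (umc θ g m) y‖ₑ ^ 2 = ∫⁻ y in S m, ENNReal.ofReal
      (pa n (Pl θ κ hθ hκ C') (y - (z.1 + z.2 • vel (cen θ m)) - c)) * ‖umc θ g m y‖ₑ ^ 2 := by
    intro m _
    exact lint_indG (hSm m) (fun y => ENNReal.ofReal
      (pa n (Pl θ κ hθ hκ C') (y - (z.1 + z.2 • vel (cen θ m)) - c))) (umc θ g m)
  rw [Finset.sum_congr rfl e2]
  refine (mul_le_mul' le_rfl (plates_le_Adc n hκ hθ hst g S z m' c)).trans ?_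
  rw [← mul_assoc, ← ENNReal.ofReal_mul (by positivity)]
  refine mul_le_mul' (ENNReal.ofReal_le_ofReal (le_of_eq ?_)) le_rfl
  rw [← hC2]
  ring

end Crest.Agent.R116.UpC448
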