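import Crest.Agent.R116.AlD_339
import Crest.Agent.R116.UpC5_448
import Crest.Agent.R116.PDf2_299

/-!
# R116 (S0155), wave side, AL-CONE: the orthogonality row of `SumC` (helper883)

`hsum_C` : the energies (seen from `(x, t)`) of the child plates of one frame and one label are
bounded by the parent density in the caps near the label.  This is the hypothesis `hsum` of
`SmC339.frames_mult`.
-/

set_option autoImplicit false

open MeasureTheory
open scoped ENNReal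

namespace Crest.Agent.R116.AlS883

open Crest.Agent.R138.Defs (E2)
open Crest.Agent.R138.Wpk685 (cen caps)
open Crest.Agent.R138.Loc878 (nearL mem_nearL Near)
open Crest.Agent.R116.CDef480
open Crest.Agent.R116.LZg725 (Cf)
open Crest.Agent.R116.Cad538 (frc wt Acc Den_anti)
open Crest.Agent.R116.AlB888 (Adc Adc_row sum_Adc_le)
open Crest.Agent.R116.WC188
open Crest.Agent.R116.PC299
open Crest.Agent.R116.AlC339

/-- the label of a slope is a nearest lattice point. -/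
theorem norm_sub_labc {s : ℝ} (hs : 0 < s) (c : E2) : ‖c - cen s (labc s c)‖ ≤ s := by
  have key : ∀ j : Fin 2, |c j - (cen s (labc s c)) j| ≤ s / 2 := by
    intro j
    have h : ∀ u : ℝ, |u - s * (round (u / s) : ℝ)| ≤ s / 2 := by
      intro u
      have h1 := abs_sub_round (u / s)
      have e : u - s * (round (u / s) : ℝ) = s * (u / s - round (u / s)) := by
        field_simp
      rw [e, abs_mul, abs_of_pos hs]
      nlinarith
    fin_cases j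
    · simpa [cen, labc] using h (c 0)
    · simpa [cen, labc] using h (c 1)
  have h2 : ‖c - cen s (labc s c)‖ ^ 2 ≤ s ^ 2 := by
    rw [EuclideanSpace.norm_sq_eq, Fin.sum_univ_two]
    have h0 := key 0
    have h1 := key 1
    have e0 : ‖(c - cen s (labc s c)) 0‖ = |c 0 - (cen s (labc s c)) 0| := rfl
    have e1 : ‖(c - cen s (labc s c)) 1‖ = |c 1 - (cen s (labc s c)) 1| := rfl
    rw [e0, e1]
    have g0 := pow_le_pow_left₀ (abs_nonneg _) h0 2
    have g1 := pow_le_pow_left₀ (abs_nonneg _) h1 2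
    nlinarith [sq_nonneg s]
  exact (sq_le_sq₀ (norm_nonneg _) hs.le).1 h2

open Classical in
/-- sum over disjoint sets. -/
theorem sum_setLIntegral_le {ι : Type} (F : Finset ι) {S : ι → Set E3}
    (hm : ∀ i ∈ F, MeasurableSet (S i)) (hd : ∀ i ∈ F, ∀ j ∈ F, i ≠ j → Disjoint (S i) (S j))
    (f : E3 → ℝ≥0∞) : ∑ i ∈ F, ∫⁻ y in S i, f y ≤ ∫⁻ y, f y := by
  rw [← lintegral_biUnion_finset (fun i hi j hj hij => hd i hi j hj hij) hm]
  exact setLIntegral_le_lintegral _ _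

open Classical in
/-- **orthogonality row**, one frame and one label. -/
theorem hsum_C (a b : ℝ) (ha : 1 ≤ a) (n N : ℕ) (hnN : n ≤ N) :
    ∃ C : ℝ, 0 ≤ C ∧ ∀ (M q A : ℝ), 1 ≤ A →
    ∀ (d0 G c0 κ η0 : ℝ) (g : E3 → ℂ) (r1 dl Y Gm s1' s2' s1 s2 D : ℝ)
      (I1 : Finset ℕ) (P1 : ℕ → Plate) (I : Finset ℕ) (P : ℕ → Plate),
    Ctx M q a b A d0 G c0 κ η0 g r1 dl Y Gm s1' s2' s1 s2 D I1 P1 I P → d0 ≤ 1 → 1 ≤ G →
    3 * d0 ^ (1/2 : ℝ) ≤ 1 →
    ∀ (k : ℤ × ℤ) (ζ : E3 × ℝ), ∀ F ⊆ I, (∀ i ∈ F, labc s2 (P i).c = k ∧ (P i).z = ζ) →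
    ∀ (x : E3) (t : ℝ), |t| ≤ dl * r1 →
      ∑ i ∈ F, seC N (an r1) (an (dl * r1)) κ (selc η0 κ (an r1) g (uS I1 P1)) (P i) x t ≤
        ENNReal.ofReal (C * (an r1 ^ 2 * κ)⁻¹) *
          Acc n (an r1) κ (an r1) g (uS I1 P1) (Fam A (an r1) s2 k) (ζ.1 + x) (ζ.2 + t) := by
  obtain ⟨C1, hC1, hiso⟩ := UpC448.isoC_448 a b ha N
  refine ⟨C1 * 201 ^ N * 36, by positivity, ?_⟩
  intro M q A hA d0 G c0 κ η0 g r1 dl Y Gm s1' s2' s1 s2 D I1 P1 I P hX h01 hG h3 k ζ F hF hlab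
    x t ht
  rcases F.eq_empty_or_nonempty with hFe | ⟨i0, hi0⟩
  · subst hFe
    simp
  have hr0 := hX.r10
  have hrj := hX.rj0
  have hd := hX.dlpos
  have hd1 := hX.dl1 h01
  have hr1 := hX.r11 h01 ha
  have hrj1 := hX.rj1 ha
  have hκ := hX.kpos
  set θ := an r1 with hθd
  set θ' := an (dl * r1) with hθ'd
  have hθ : 0 < θ := an_pos hr0
  have hθ' : 0 < θ' := an_pos hrj
  have hθθ' : θ ≤ θ' := an_le_an hd hd1 hr0
  have hθ'1 : θ' ≤ 1 := an_le_one hrj1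
  have hst := hX.st1' h01
  have hs20 : 0 < s2 := Sd.s20 hX.sd hrj
  have hw : 3 * θ' ≤ s2 := by
    have h4 := hX.w1 (K := 3) h01 hG (by norm_num) h3
    have h5 : θ' ≤ Gm * θ' := le_mul_of_one_le_left hθ'.le hX.Gm1
    linarith
  -- the frame
  have hζ : ζ ∈ cylc r1 := by
    have := hX.pl.mem i0 (hF hi0)
    rwa [(hlab i0 hi0).2] at this
  have hζ2 : |ζ.2| * θ ^ 2 ≤ 1 := by
    rw [hθd, an_sq hr0, ← div_eq_mul_inv, div_le_one hr0]
    exact hζ.2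
  set S := uS I1 P1 with hS
  have hSm : ∀ m, MeasurableSet (S m) := fun m =>
    Finset.measurableSet_biUnion _ fun i hi => hX.par.meas i hi m
  have hSb : ∀ m, Bornology.IsBounded (S m) := fun m =>
    Metric.isBounded_closedBall.subset (hX.par.bd m)
  -- the active caps
  set T : Finset (ℤ × ℤ) := (caps θ').filter fun m => ∃ i ∈ F, ((P i).S m).Nonempty with hT
  set w : ℤ × ℤ → E3 → ℝ≥0∞ := fun m y =>
    ENNReal.ofReal (wt (frc θ κ (cen θ' m)) N (y - (x + t • vel (cen θ' m)))) *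
      ‖umc θ' (trc ζ (selc η0 κ θ g S)) m y‖ₑ ^ 2 with hwd
  have e1 : ∑ i ∈ F, seC N θ θ' κ (selc η0 κ θ g S) (P i) x t =
      ∑ m ∈ caps θ', ∑ i ∈ F, ∫⁻ y in (P i).S m, w m y := by
    unfold seC
    rw [Finset.sum_comm]
    refine Finset.sum_congr rfl fun m _ => Finset.sum_congr rfl fun i hi => ?_
    rw [(hlab i hi).2]
  have e2 : ∑ m ∈ caps θ', ∑ i ∈ F, ∫⁻ y in (P i).S m, w m y =
      ∑ m ∈ T, ∑ i ∈ F, ∫⁻ y in (P i).S m, w m y := by
    symm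
    refine Finset.sum_subset (Finset.filter_subset _ _) fun m hm hmT => ?_
    refine Finset.sum_eq_zero fun i hi => ?_
    have hemp : (P i).S m = ∅ := by
      by_contra hne
      exact hmT (Finset.mem_filter.2 ⟨hm, i, hi, Set.nonempty_iff_ne_empty.2 hne⟩)
    rw [hemp, Measure.restrict_empty, lintegral_zero_measure]
  have e3 : ∀ m ∈ T, ∑ i ∈ F, ∫⁻ y in (P i).S m, w m y ≤
      ENNReal.ofReal (C1 * 201 ^ N * (θ ^ 2 * κ)⁻¹) *
        Adc N θ κ θ' g S m (ζ.1 + x) (ζ.2 + t) := by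
    intro m hm
    have h1 : ∑ i ∈ F, ∫⁻ y in (P i).S m, w m y ≤ ∫⁻ y, w m y := by
      refine sum_setLIntegral_le F (fun i hi => hX.pl.meas i (hF hi) m) (fun i hi j hj hij => ?_) _
      exact hX.pl.disj i (hF hi) j (hF hj) hij (by rw [(hlab i hi).2, (hlab j hj).2]) m
    have h2 := hiso κ η0 θ θ' g S ζ m (x + t • vel (cen θ' m)) hκ hX.ka hθ hθθ' hθ'1 hst
      hX.par.gm hX.par.gb hX.par.gs hX.par.slc hSm hSb hζ2
    have h3' := Adc_row (n := N) (g := g) (S := S) (j := m) (C' := cen θ' m) (th := θ) (th1 := θ')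
      (th2 := θ') (kp := κ) (s := t) (X := ζ.1 + x) (Y := ζ.1 + (x + t • vel (cen θ' m)))
      (t := ζ.2) (δ := 0) hθ le_rfl hκ.le hst
      (by
        have : θ * θ' ≤ (dl * r1)⁻¹ := by
          have h5 : θ' * θ' = (dl * r1)⁻¹ := an_mul_an hrj
          nlinarith
        calc |t| * (θ * θ') ≤ (dl * r1) * (dl * r1)⁻¹ :=
              mul_le_mul ht this (by positivity) hrj.le
          _ = 1 := mul_inv_cancel₀ hrj.ne')
      (by
        have h5 : θ' ^ 2 = (dl * r1)⁻¹ := an_sq hrj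
        have h6 : κ ≤ 1 := by
          have := hX.k8 ha
          linarith
        calc |t| * (κ * θ' ^ 2) ≤ (dl * r1) * (1 * (dl * r1)⁻¹) := by
              rw [h5]
              gcongr
          _ = 1 := by rw [one_mul, mul_inv_cancel₀ hrj.ne'])
      (by rw [sub_self, norm_zero]; positivity) le_rfl
      (by
        have : ζ.1 + (x + t • vel (cen θ' m)) - (ζ.1 + x) - t • vel (cen θ' m) = 0 := by abel
        rw [this, map_zero, norm_zero])
    have h4 : (1 + (21 * (0:ℝ) + 200)) ^ N = 201 ^ N := by norm_num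
    rw [h4] at h3'
    calc _ ≤ ∫⁻ y, w m y := h1
      _ ≤ ENNReal.ofReal (C1 * (θ ^ 2 * κ)⁻¹) *
          Adc N θ κ θ' g S m (ζ.1 + (x + t • vel (cen θ' m))) ζ.2 := h2
      _ ≤ ENNReal.ofReal (C1 * (θ ^ 2 * κ)⁻¹) * (ENNReal.ofReal (201 ^ N) *
          Adc N θ κ θ' g S m (ζ.1 + x) (ζ.2 + t)) := mul_le_mul' le_rfl h3'
      _ = _ := by
          rw [← mul_assoc, ← ENNReal.ofReal_mul (by positivity)]
          congr 2
          ring
  -- near caps are in the family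
  have hfam : ∀ m ∈ T, nearL θ θ' m ⊆ Fam A θ s2 k := by
    intro m hm j hj
    obtain ⟨-, i, hi, y, hy⟩ := Finset.mem_filter.1 hm
    obtain ⟨j1, j2⟩ := mem_nearL.1 hj
    unfold Fam
    refine Finset.mem_filter.2 ⟨j1, ?_⟩
    have h5 : ‖cen θ' m - (P i).c‖ ≤ A * s2 := pbx_cen (hX.pl.box i (hF hi) m hy)
    have h6 : ‖(P i).c - cen s2 k‖ ≤ s2 := by
      rw [← (hlab i hi).1]; exact norm_sub_labc hs20 _
    have h7 : ‖cen θ j - cen θ' m‖ < 3 * θ' := j2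
    have e : cen θ j - cen s2 k = (cen θ j - cen θ' m) + (cen θ' m - (P i).c) +
        ((P i).c - cen s2 k) := by abel
    rw [e]
    refine (norm_add_le _ _).trans ?_
    have h8 := norm_add_le (cen θ j - cen θ' m) (cen θ' m - (P i).c)
    nlinarith
  rw [e1, e2]
  calc _ ≤ ∑ m ∈ T, ENNReal.ofReal (C1 * 201 ^ N * (θ ^ 2 * κ)⁻¹) *
        Adc N θ κ θ' g S m (ζ.1 + x) (ζ.2 + t) := Finset.sum_le_sum e3
    _ = ENNReal.ofReal (C1 * 201 ^ N * (θ ^ 2 * κ)⁻¹) *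
        ∑ m ∈ T, Adc N θ κ θ' g S m (ζ.1 + x) (ζ.2 + t) := by rw [Finset.mul_sum]
    _ ≤ ENNReal.ofReal (C1 * 201 ^ N * (θ ^ 2 * κ)⁻¹) *
        (36 * Acc N θ κ θ g S (Fam A θ s2 k) (ζ.1 + x) (ζ.2 + t)) :=
        mul_le_mul' le_rfl (sum_Adc_le hθ' (Finset.filter_subset _ _) hfam _ _)
    _ ≤ ENNReal.ofReal (C1 * 201 ^ N * (θ ^ 2 * κ)⁻¹) *
        (36 * Acc n θ κ θ g S (Fam A θ s2 k) (ζ.1 + x) (ζ.2 + t)) := by
        refine mul_le_mul' le_rfl (mul_le_mul' le_rfl ?_)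
        exact Den_anti hnN _ _
    _ = _ := by
        rw [← mul_assoc]
        congr 1
        have e36 : (36 : ℝ≥0∞) = ENNReal.ofReal 36 := by norm_num
        rw [e36, ← ENNReal.ofReal_mul (by positivity)]
        congr 1
        ring

open Classical in
/-- **orthogonality row** (299's literal). -/
theorem hsum (a b : ℝ) (ha : 1 ≤ a) {n N : ℕ} (hnN : n ≤ N) : ∃ C : ℝ, 0 ≤ C ∧
    ∀ {M q A d0 G c0 κ η0 : ℝ} {g : E3 → ℂ} {r1 dl Y Gm s1' s2' s1 s2 D : ℝ}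
      {I1 : Finset ℕ} {P1 : ℕ → Plate} {I : Finset ℕ} {P : ℕ → Plate},
    1 ≤ A → d0 ≤ 1 → 3 * d0 ^ (1/2 : ℝ) ≤ 1 → 1 ≤ G →
    Ctx M q a b A d0 G c0 κ η0 g r1 dl Y Gm s1' s2' s1 s2 D I1 P1 I P →
    ∀ (k : ℤ × ℤ) (ζ : E3 × ℝ) (x : E3) (t : ℝ), |t| ≤ dl * r1 →
      ∑ i ∈ I with labc s2 (P i).c = k ∧ (P i).z = ζ,
        seC N (an r1) (an (dl * r1)) κ (selc η0 κ (an r1) g (uS I1 P1)) (P i) x t ≤
        ENNReal.ofReal (C * (an r1 ^ 2 * κ)⁻¹) *
          Acc n (an r1) κ (an r1) g (uS I1 P1) (Fam A (an r1) s2 k) (ζ.1 + x) (ζ.2 + t) := by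
  obtain ⟨C, hC, h⟩ := hsum_C a b ha n N hnN
  refine ⟨C, hC, ?_⟩
  intro M q A d0 G c0 κ η0 g r1 dl Y Gm s1' s2' s1 s2 D I1 P1 I P hA h01 h3 hG hX k ζ x t ht
  exact h M q A hA d0 G c0 κ η0 g r1 dl Y Gm s1' s2' s1 s2 D I1 P1 I P hX h01 hG h3 k ζ _
    (Finset.filter_subset _ _) (fun i hi => (Finset.mem_filter.1 hi).2) x t ht

end Crest.Agent.R116.AlS883
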