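import Crest.Agent.R116.AlS3_299
import Crest.Agent.R116.AlS0_883

/-!
# R116 (S0155), wave side, AL-CONE (helper299): `SumC`, part 4 (final numbers)

`sumC_of : (hsum) → 1 ≤ M → 0 ≤ q → q ≤ 4 → KmC M q → SumC M q`.
-/

set_option autoImplicit false

open MeasureTheory FourierTransform
open scoped ENNReal

namespace Crest.Agent.R116.AlS299

open Crest.Agent.R138.Defs (E2 ee)
open Crest.Agent.R138.Wpk685 (cen caps)
open Crest.Agent.R116.CDef480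
open Crest.Agent.R116.LZg725 (Cf)
open Crest.Agent.R116.Cad538 (frc wt Acc W0 W0_lt)
open Crest.Agent.R116.WC188
open Crest.Agent.R116.PC299
open Crest.Agent.R116.AlC339 (KmC SumC HH seC Fam labc)

/-- **hsum**: the plates of one label and one frame (883). -/
def HSum : Prop := ∀ (a b : ℝ), 1 ≤ a → ∀ {n N : ℕ}, n ≤ N → ∃ C : ℝ, 0 ≤ C ∧
  ∀ {M q A d0 G c0 κ η0 : ℝ} {g : E3 → ℂ} {r1 dl Y Gm s1' s2' s1 s2 D : ℝ} {I1 : Finset ℕ}
    {P1 : ℕ → Plate} {I : Finset ℕ} {P : ℕ → Plate}, 1 ≤ A → d0 ≤ 1 → 3 * d0 ^ (1/2 : ℝ) ≤ 1 →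
    1 ≤ G → Ctx M q a b A d0 G c0 κ η0 g r1 dl Y Gm s1' s2' s1 s2 D I1 P1 I P →
    ∀ (k : ℤ × ℤ) (ζ : E3 × ℝ) (x : E3) (t : ℝ), |t| ≤ dl * r1 →
      ∑ i ∈ I with labc s2 (P i).c = k ∧ (P i).z = ζ,
        seC N (an r1) (an (dl * r1)) κ (selc η0 κ (an r1) g (uS I1 P1)) (P i) x t ≤
        ENNReal.ofReal (C * (an r1 ^ 2 * κ)⁻¹) * Acc n (an r1) κ (an r1) g (uS I1 P1)
          (Fam A (an r1) s2 k) (ζ.1 + x) (ζ.2 + t)

/-- the threshold. -/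
theorem thr_d0 {M A b : ℝ} (hM : 1 ≤ M) (hA : 1 ≤ A) (hb : b < 2) : ∃ d0 : ℝ, 0 < d0 ∧ d0 ≤ 1 ∧
    64 * M * A * d0 ^ (1/2 : ℝ) ≤ 1 ∧ 3 * d0 ^ (1/2 : ℝ) ≤ 2 - b ∧ 3 * d0 ^ (1/2 : ℝ) ≤ 1 := by
  have hb' : 0 < 2 - b := by linarith
  have hMA : 1 ≤ M * A := one_le_mul_of_one_le_of_one_le hM hA
  set K : ℝ := 64 * M * A + 3 / (2 - b) with hK
  have h3 : 0 < 3 / (2 - b) := by positivity
  have hK1 : 1 ≤ K := by nlinarith
  have hK0 : 0 < K := by linarith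
  have e : ((K⁻¹) ^ 2 : ℝ) ^ (1/2 : ℝ) = K⁻¹ := by
    rw [← Real.rpow_natCast, ← Real.rpow_mul (by positivity)]
    norm_num
  refine ⟨(K⁻¹) ^ 2, by positivity, pow_le_one₀ (by positivity) (inv_le_one_of_one_le₀ hK1), ?_, ?_,
    ?_⟩
  · rw [e, ← div_eq_mul_inv, div_le_one hK0]; linarith
  · rw [e, ← div_eq_mul_inv, div_le_iff₀ hK0]
    calc (3:ℝ) = (2 - b) * (3 / (2 - b)) := by field_simp
      _ ≤ (2 - b) * K := mul_le_mul_of_nonneg_left (by rw [hK]; nlinarith) hb'.le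
  · rw [e, ← div_eq_mul_inv, div_le_one hK0]; nlinarith

/-- **SumC**. -/
theorem sumC_of (hS : HSum) {M q : ℝ} (hM : 1 ≤ M) (hq : 0 ≤ q) (hq4 : q ≤ 4) (hK : KmC M q) :
    SumC M q := by
  intro ε hε
  obtain ⟨n0, hn0⟩ := hK ε hε
  refine ⟨n0, fun n hn a b A ha hb hb2 hA => ?_⟩
  obtain ⟨d0, hd00, hd01, hd, hd2, hd3⟩ := thr_d0 hM hA hb2
  refine ⟨d0, hd00, hd01, fun N hnN hN4 => ?_⟩
  obtain ⟨CK, hCK, hkm⟩ := hn0 n hn a b A (34 * A ^ 2) (A + 2) ha hb hb2 hA (by nlinarith)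
    (by linarith)
  obtain ⟨Ch, hCh, hsum⟩ := hS a b ha hnN
  obtain ⟨Ct, hCt, htl⟩ := tail (b := b) ha
  have hV := V1_pos
  have hL := L0_pos hM hA
  have hW0 : 0 ≤ W0.toReal := ENNReal.toReal_nonneg
  set e1 : ℝ := (((2:ℝ) ^ N)⁻¹) ^ (-(3/2) : ℝ) * (Ch / V1) *
    (2 * (17 * A ^ 2) + 2) ^ (Module.finrank ℝ (E3 × ℝ)) with he1
  set e2 : ℝ := 2 * (((2:ℝ) ^ N)⁻¹) ^ (-(3/2) : ℝ) * (W0.toReal / V1) with he2
  have he10 : 0 ≤ e1 := by positivity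
  have he20 : 0 ≤ e2 := by positivity
  set c1 : ℝ := e1 * (V1⁻¹ * L0 M A) ^ (1 / 2 : ℝ) * CK with hc1
  set c2 : ℝ := e2 * (L0 M A * V1⁻¹) ^ (1 / 2 : ℝ) * Ct with hc2
  have hc10 : 0 ≤ c1 := by positivity
  have hc20 : 0 ≤ c2 := by positivity
  refine ⟨c1 + c2, by positivity, ?_⟩
  intro G c0 κ η0 g r1 dl Y Gm s1' s2' s1 s2 D Mu τ I1 P1 I P h hG hMu hτ hH
  have hdl := h.dlpos
  have hr0 := h.r10
  have hr := h.rj0
  have hr1 : 1 ≤ r1 := h.r11 hd01 ha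
  have hθ := an_pos hr0
  have hθ' := an_pos hr
  have hs2 := Sd.s20 h.sd hr
  have hrj : dl * r1 ≤ r1 := mul_le_of_le_one_left hr0.le (h.dl1 hd01)
  have main := frames h hM hA ha hd01 hG hd hd2 hN4 hMu hτ hCh hH
    (hsum hA hd01 hd3 (by linarith) h)
  have hkk := hkm κ η0 r1 g (uS I1 P1) D s2 h.kpos h.ka hr1
    (le_trans (Real.rpow_le_rpow_of_nonpos hr hrj (by norm_num)) h.klo)
    ⟨h.par.gm, h.par.gb, h.par.gs, h.par.slc⟩ (StepC367.par_uS_meas h.par) h.par.cp h.par.bd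
    h.par.D0 h.par.dens ((an_le_an hdl (h.dl1 hd01) hr0).trans (h.sd.lo.trans h.sd.le)) h.sd.hi
    (I.image fun i => labc s2 (P i).c) (fun k => Fam A (an r1) s2 k)
    (fun k _ => ⟨fam_sub _ _ _ _, fun m hm => fam_near hm⟩)
  have htt := htl h hb2.le hd01 (by linarith) hd2
  -- numbers
  have hdr : dl⁻¹ ≤ r1 := by
    rw [← one_div, div_le_iff₀ hdl, mul_comm]; exact h.rj1 ha
  have n1 : s2 ^ (-q / 2) ≤ r1 := by
    have g1 : an r1 ≤ s2 := (an_le_an hdl (h.dl1 hd01) hr0).trans (h.sd.lo.trans h.sd.le)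
    calc s2 ^ (-q / 2) ≤ an r1 ^ (-q / 2) := Real.rpow_le_rpow_of_nonpos hθ g1 (by linarith)
      _ = r1 ^ (q / 4) := by
          rw [an, ← Real.rpow_mul hr0.le]; congr 1; ring
      _ ≤ r1 ^ (1 : ℝ) := Real.rpow_le_rpow_of_exponent_le hr1 (by linarith)
      _ = r1 := Real.rpow_one _
  have n2 : (an (dl * r1) / an r1) ^ (1/2 : ℝ) ≤ r1 := by
    have g1 : an (dl * r1) / an r1 ≤ r1 := by
      rw [an_dl hdl hr0, mul_div_assoc, div_self hθ.ne', mul_one]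
      calc dl ^ (-(1/2) : ℝ) = (dl⁻¹) ^ (1/2 : ℝ) := by
            rw [Real.inv_rpow hdl.le, Real.rpow_neg hdl.le]
        _ ≤ r1 ^ (1/2 : ℝ) := Real.rpow_le_rpow (by positivity) hdr (by norm_num)
        _ ≤ r1 ^ (1 : ℝ) := Real.rpow_le_rpow_of_exponent_le hr1 (by norm_num)
        _ = r1 := Real.rpow_one _
    calc (an (dl * r1) / an r1) ^ (1/2 : ℝ) ≤ r1 ^ (1/2 : ℝ) :=
          Real.rpow_le_rpow (by positivity) g1 (by norm_num)
      _ ≤ r1 ^ (1 : ℝ) := Real.rpow_le_rpow_of_exponent_le hr1 (by norm_num)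
      _ = r1 := Real.rpow_one _
  have n3 : s2 ^ (-q / 2) * s2 ^ (q / 2) = 1 := by
    rw [← Real.rpow_add hs2]
    have : -q / 2 + q / 2 = 0 := by ring
    rw [this, Real.rpow_zero]
  have hs2q : 0 ≤ s2 ^ (-q / 2) := Real.rpow_nonneg hs2.le _
  set S := uS I1 P1 with hSdef
  set En := enc (an r1) g S with hEn
  set Eg := ENNReal.ofReal (Enc g) with hEg
  set X1 : ℝ := e1 * (V1⁻¹ * L0 M A * Mu) ^ (1 / 2 : ℝ) with hX1
  set X2 : ℝ := e2 * (L0 M A * (an (dl * r1) / an r1) * (V1⁻¹ * τ)) ^ (1 / 2 : ℝ) with hX2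
  have hX10 : 0 ≤ X1 := by positivity
  have hX20 : 0 ≤ X2 := by positivity
  have hK0 : 0 ≤ CK * r1 ^ ε * s2 ^ (q / 2) * Real.sqrt D * r1 := by positivity
  calc ENNReal.ofReal (s2 ^ (-q / 2)) * val κ (selc η0 κ (an r1) g S) (dl * r1) s1 s2 I P
      ≤ ENNReal.ofReal (s2 ^ (-q / 2)) *
        (ENNReal.ofReal X1 *
          (ENNReal.ofReal (CK * r1 ^ ε * s2 ^ (q / 2) * Real.sqrt D * r1) * En) +
        ENNReal.ofReal X2 * (ENNReal.ofReal (dl * r1) *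
          (ENNReal.ofReal (Ct * dl⁻¹ ^ 4) * Eg))) := by
        refine mul_le_mul' le_rfl (main.trans ?_)
        refine add_le_add (mul_le_mul' le_rfl hkk) (mul_le_mul' le_rfl (mul_le_mul' le_rfl htt))
    _ = ENNReal.ofReal (s2 ^ (-q / 2) * (X1 *
          (CK * r1 ^ ε * s2 ^ (q / 2) * Real.sqrt D * r1))) * En +
        ENNReal.ofReal (s2 ^ (-q / 2) * (X2 * ((dl * r1) * (Ct * dl⁻¹ ^ 4)))) * Eg := by
        rw [ENNReal.ofReal_mul hs2q, ENNReal.ofReal_mul hX10, ENNReal.ofReal_mul hs2q,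
          ENNReal.ofReal_mul hX20, ENNReal.ofReal_mul hr.le]
        ring
    _ ≤ ENNReal.ofReal ((c1 + c2) * r1 ^ ε * Mu ^ (1/2 : ℝ)) *
          (ENNReal.ofReal (r1 * Real.sqrt D) * En) +
        ENNReal.ofReal ((c1 + c2) * r1 ^ (10 : ℕ) * τ ^ (1/2 : ℝ)) * Eg := by
        refine add_le_add ?_ (mul_le_mul' (ENNReal.ofReal_le_ofReal ?_) le_rfl)
        · have e7 : ENNReal.ofReal ((c1 + c2) * r1 ^ ε * Mu ^ (1/2 : ℝ)) *
              (ENNReal.ofReal (r1 * Real.sqrt D) * En) =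
              ENNReal.ofReal ((c1 + c2) * r1 ^ ε * Mu ^ (1/2 : ℝ) * (r1 * Real.sqrt D)) * En := by
            rw [ENNReal.ofReal_mul (p := (c1 + c2) * r1 ^ ε * Mu ^ (1/2 : ℝ)) (by positivity)]
            exact (mul_assoc _ _ _).symm
          rw [e7]
          refine mul_le_mul' (ENNReal.ofReal_le_ofReal ?_) le_rfl
          have e5 : X1 = e1 * (V1⁻¹ * L0 M A) ^ (1 / 2 : ℝ) * Mu ^ (1/2 : ℝ) := by
            rw [hX1, Real.mul_rpow (by positivity) hMu]; ring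
          calc s2 ^ (-q / 2) * (X1 * (CK * r1 ^ ε * s2 ^ (q / 2) * Real.sqrt D * r1))
              = (s2 ^ (-q / 2) * s2 ^ (q / 2)) * (c1 * r1 ^ ε * Mu ^ (1/2 : ℝ) *
                (r1 * Real.sqrt D)) := by rw [e5, hc1]; ring
            _ = c1 * r1 ^ ε * Mu ^ (1/2 : ℝ) * (r1 * Real.sqrt D) := by rw [n3, one_mul]
            _ ≤ (c1 + c2) * r1 ^ ε * Mu ^ (1/2 : ℝ) * (r1 * Real.sqrt D) := by
                gcongr
                linarith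
        · have e5 : X2 = e2 * (L0 M A * V1⁻¹) ^ (1 / 2 : ℝ) * τ ^ (1/2 : ℝ) *
              (an (dl * r1) / an r1) ^ (1/2 : ℝ) := by
            have e6 : L0 M A * (an (dl * r1) / an r1) * (V1⁻¹ * τ) =
                (L0 M A * V1⁻¹) * τ * (an (dl * r1) / an r1) := by ring
            rw [hX2, e6, Real.mul_rpow (by positivity) (by positivity),
              Real.mul_rpow (by positivity) hτ]
            ring
          have hτ2 : 0 ≤ τ ^ (1/2 : ℝ) := Real.rpow_nonneg hτ _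
          calc s2 ^ (-q / 2) * (X2 * ((dl * r1) * (Ct * dl⁻¹ ^ 4)))
              = c2 * τ ^ (1/2 : ℝ) * (s2 ^ (-q / 2) * (an (dl * r1) / an r1) ^ (1/2 : ℝ) *
                (dl * r1) * dl⁻¹ ^ 4) := by rw [e5, hc2]; ring
            _ ≤ c2 * τ ^ (1/2 : ℝ) * (r1 * r1 * r1 * r1 ^ 4) := by gcongr
            _ = c2 * τ ^ (1/2 : ℝ) * (r1 ^ 7 * 1) := by ring
            _ ≤ c2 * τ ^ (1/2 : ℝ) * (r1 ^ 7 * r1 ^ 3) := by
                have : 1 ≤ r1 ^ 3 := one_le_pow₀ hr1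
                gcongr
            _ = c2 * r1 ^ (10 : ℕ) * τ ^ (1/2 : ℝ) := by ring
            _ ≤ (c1 + c2) * r1 ^ (10 : ℕ) * τ ^ (1/2 : ℝ) := by
                gcongr
                linarith
    _ = _ := rfl

theorem hSum : HSum := fun a b ha {_ _} hnN => AlS883.hsum a b ha hnN

/-- **SumC**. -/
theorem sumC {M q : ℝ} (hM : 1 ≤ M) (hq : 0 ≤ q) (hq4 : q ≤ 4) (hK : KmC M q) : SumC M q :=
  sumC_of hSum hM hq hq4 hK

end Crest.Agent.R116.AlS299
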