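import Crest.Agent.R116.LZg1_725

/-!
# R116, (Z4), part 2: the Klein form and the admissible conformal functions (helper725)

`disc φ = |be|² - 2 a1 g - 4 a0 d` (Klein form), invariant under translations, rotations and frame
changes, multiplied by `th²` under the zoom.  `ny φ s = ∂_y φ`, `ld φ C p` = derivative of `φ` along
the ray of slope `C` through `p`, `gr φ C p` = lateral gradient in the frame `C`.
`‖gr φ C p‖² = disc φ + 2 (ny φ) (ld φ C p) + 4 d φ(p)` (exact).
-/

set_option autoImplicit false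
set_option linter.unusedSectionVars false

namespace Crest.Agent.R116.LZg725

variable {E : Type*} [NormedAddCommGroup E] [InnerProductSpace ℝ E]

namespace Cf

/-- `∂_y φ` at time `s`. -/
noncomputable def ny (p : Cf E) (s : ℝ) : ℝ := p.g - 2 * p.d * s

/-- the lateral gradient in the frame of direction `C`. -/
noncomputable def gr (p : Cf E) (C x : E) (s : ℝ) : E := p.be + (2 * p.d) • x - (p.ny s) • C

/-- the derivative along the ray of direction `C` through `(x, y, s)`. -/
noncomputable def ld (p : Cf E) (C x : E) (y s : ℝ) : ℝ :=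
  (p.a1 - 2 * p.d * y) - inner ℝ (p.be + (2 * p.d) • x) C + p.ny s * ‖C‖ ^ 2 / 2

/-- the Klein form. -/
noncomputable def disc (p : Cf E) : ℝ := ‖p.be‖ ^ 2 - 2 * p.a1 * p.g - 4 * p.a0 * p.d

theorem ny_add (p : Cf E) (s t : ℝ) : p.ny (s + t) = p.ny s - 2 * p.d * t := by
  unfold ny; ring

theorem ny_sub (p : Cf E) (s t : ℝ) : p.ny t - p.ny s = -(2 * p.d * (t - s)) := by
  unfold ny; ring

/-- change of the point in the lateral gradient. -/
theorem gr_move (p : Cf E) (C x x' : E) (s s' : ℝ) :
    p.gr C x' s' = p.gr C x s + (2 * p.d) • ((x' - x) + (s' - s) • C) := by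
  unfold gr ny
  module

/-- change of the direction in the lateral gradient. -/
theorem gr_dir (p : Cf E) (C C' x : E) (s : ℝ) :
    p.gr C' x s = p.gr C x s - (p.ny s) • (C' - C) := by
  unfold gr
  module

/-- change of the point in the ray derivative: only the null displacement counts. -/
theorem ld_move (p : Cf E) (C x x' : E) (y y' s s' : ℝ) :
    p.ld C x' y' s' = p.ld C x y s - 2 * p.d * (nrm C x' y' s' - nrm C x y s) := by
  unfold ld ny nrm
  rw [inner_add_left, inner_add_left, real_inner_smul_left, real_inner_smul_left,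
    real_inner_comm C x, real_inner_comm C x']
  ring

/-- change of the direction in the ray derivative. -/
theorem ld_dir (p : Cf E) (C C' x : E) (y s : ℝ) :
    p.ld C' x y s = p.ld C x y s - inner ℝ (p.gr C x s) (C' - C) +
      p.ny s * ‖C' - C‖ ^ 2 / 2 := by
  unfold ld gr
  rw [norm_sub_sq_real, inner_sub_right, inner_sub_left, inner_sub_left, real_inner_smul_left,
    real_inner_smul_left, real_inner_self_eq_norm_sq, real_inner_comm C' C]
  ring

/-- `φ` is affine along the rays, with derivative `ld`. -/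
theorem ev_along (p : Cf E) (C x : E) (y s t : ℝ) :
    p.ev (x - t • C) (y + t * ‖C‖ ^ 2 / 2) (s + t) = p.ev x y s + t * p.ld C x y s := by
  unfold ev ld ny
  rw [inner_sub_right, real_inner_smul_right, norm_sub_sq_real, real_inner_smul_right, norm_smul,
    mul_pow, Real.norm_eq_abs, sq_abs, inner_add_left, real_inner_smul_left]
  ring

/-- the derivative in ray coordinates. -/
theorem ld_ray (p : Cf E) (C a : E) (c s : ℝ) : p.ld C (rx C a s) (ry C c s) s = p.rB C a c := by
  unfold ld rB ny rx ry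
  rw [inner_add_left, real_inner_smul_left, inner_sub_left, real_inner_smul_left,
    real_inner_self_eq_norm_sq, real_inner_comm C a]
  ring

theorem fr_g (c x0 : E) (y0 s0 : ℝ) (p : Cf E) : (fr c x0 y0 s0 p).g = p.ny s0 := by
  unfold fr pull tr ny
  simp

theorem fr_be (c x0 : E) (y0 s0 : ℝ) (p : Cf E) : (fr c x0 y0 s0 p).be = p.gr c x0 s0 := by
  unfold fr pull tr gr ny
  simp only [one_smul]
  module

theorem fr_a1 (c x0 : E) (y0 s0 : ℝ) (p : Cf E) : (fr c x0 y0 s0 p).a1 = p.ld c x0 y0 s0 := by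
  unfold fr pull tr ld ny
  simp only [inner_neg_right, norm_neg]
  ring

/-- **expansion of `φ` in the frame `(p0, c)`**. -/
theorem ev_expand (p : Cf E) (c x0 : E) (y0 s0 : ℝ) (x : E) (y s : ℝ) :
    p.ev x y s = p.ev x0 y0 s0 + p.ld c x0 y0 s0 * (s - s0) +
      inner ℝ (p.gr c x0 s0) ((x - x0) + (s - s0) • c) +
      p.ny s0 * (nrm c x y s - nrm c x0 y0 s0) +
      p.d * (‖(x - x0) + (s - s0) • c‖ ^ 2 - 2 * (s - s0) * (nrm c x y s - nrm c x0 y0 s0)) := by
  rw [← ev_fr c x0 y0 s0 p x y s]
  unfold ev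
  rw [fr_g, fr_be, fr_a1, fr_d, fr_a0]
  unfold ev
  ring

/-- the square of the lateral gradient. -/
theorem norm_gr_sq (p : Cf E) (C x : E) (y s : ℝ) :
    ‖p.gr C x s‖ ^ 2 = p.disc + 2 * p.ny s * p.ld C x y s + 4 * p.d * p.ev x y s := by
  unfold gr ld disc ev
  rw [norm_sub_sq_real, norm_add_sq_real, norm_smul, norm_smul, mul_pow, mul_pow,
    Real.norm_eq_abs, Real.norm_eq_abs, sq_abs, sq_abs]
  simp only [inner_add_left, real_inner_smul_left, real_inner_smul_right]
  unfold ny
  ring

theorem disc_pull (C0 : E) (th : ℝ) (p : Cf E) : (pull C0 th p).disc = th ^ 2 * p.disc := by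
  unfold disc pull
  simp only []
  rw [norm_add_sq_real, norm_smul, norm_smul, mul_pow, mul_pow, Real.norm_eq_abs, Real.norm_eq_abs,
    sq_abs, sq_abs, real_inner_smul_left, real_inner_smul_right]
  ring

theorem disc_push (C0 : E) (th : ℝ) (p : Cf E) : (push C0 th p).disc = (th⁻¹) ^ 2 * p.disc := by
  unfold push
  rw [disc_pull]

theorem disc_tr (x0 : E) (y0 s0 : ℝ) (p : Cf E) : (tr x0 y0 s0 p).disc = p.disc := by
  unfold disc tr
  simp only []
  rw [norm_add_sq_real, norm_smul, mul_pow, Real.norm_eq_abs, sq_abs, real_inner_smul_right]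
  ring

theorem disc_rot (U : E ≃ₗᵢ[ℝ] E) (p : Cf E) : (rot U p).disc = p.disc := by
  unfold disc rot
  simp only []
  rw [U.symm.norm_map]

theorem disc_smul (r : ℝ) (p : Cf E) : (smul r p).disc = r ^ 2 * p.disc := by
  unfold disc smul
  simp only []
  rw [norm_smul, mul_pow, Real.norm_eq_abs, sq_abs]
  ring

theorem disc_fr (c x0 : E) (y0 s0 : ℝ) (p : Cf E) : (fr c x0 y0 s0 p).disc = p.disc := by
  unfold fr
  rw [disc_pull, disc_tr, one_pow, one_mul]

/-! ### behaviour of `ny`, `ld`, `gr` under the symmetries -/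

theorem ny_smul (r : ℝ) (p : Cf E) (s : ℝ) : (smul r p).ny s = r * p.ny s := by
  unfold ny smul; ring

theorem ld_smul (r : ℝ) (p : Cf E) (C x : E) (y s : ℝ) :
    (smul r p).ld C x y s = r * p.ld C x y s := by
  unfold ld smul
  rw [show (ny { a0 := r * p.a0, a1 := r * p.a1, be := r • p.be, g := r * p.g, d := r * p.d } s) =
    r * p.ny s from ny_smul r p s]
  simp only []
  rw [inner_add_left, inner_add_left, real_inner_smul_left, real_inner_smul_left,
    real_inner_smul_left]
  ring

theorem ny_tr (x0 : E) (y0 s0 : ℝ) (p : Cf E) (s : ℝ) : (tr x0 y0 s0 p).ny s = p.ny (s + s0) := by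
  unfold ny tr; ring

theorem ld_tr (x0 : E) (y0 s0 : ℝ) (p : Cf E) (C x : E) (y s : ℝ) :
    (tr x0 y0 s0 p).ld C x y s = p.ld C (x + x0) (y + y0) (s + s0) := by
  unfold ld
  rw [ny_tr]
  unfold tr
  simp only []
  rw [inner_add_left, inner_add_left, inner_add_left, real_inner_smul_left, real_inner_smul_left,
    real_inner_smul_left, inner_add_left]
  ring

theorem ny_pull (C0 : E) (th : ℝ) (p : Cf E) (s : ℝ) : (pull C0 th p).ny s = p.ny (th ^ 2 * s) := by
  unfold ny pull; ring

/-- the ray derivative under the zoom. -/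
theorem ld_pull (C0 : E) {th : ℝ} (hth : th ≠ 0) (p : Cf E) (C x : E) (y s : ℝ) :
    (pull C0 th p).ld C x y s =
      th ^ 2 * p.ld (zC C0 th C) (zx C0 th x s) (zy C0 x y s) (th ^ 2 * s) := by
  have h1 := ev_along (pull C0 th p) C x y s 1
  have h2 := ev_pull C0 th p x y s
  have h3 := ev_pull C0 th p (x - (1 : ℝ) • C) (y + 1 * ‖C‖ ^ 2 / 2) (s + 1)
  have h4 := ev_along p (zC C0 th C) (zx C0 th x s) (zy C0 x y s) (th ^ 2 * s) (th ^ 2)
  have e1 : zx C0 th (x - (1 : ℝ) • C) (s + 1) = zx C0 th x s - (th ^ 2) • zC C0 th C := by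
    unfold zx zC
    rw [smul_smul, show th ^ 2 * th⁻¹ = th by field_simp]
    module
  have e2 : zy C0 (x - (1 : ℝ) • C) (y + 1 * ‖C‖ ^ 2 / 2) (s + 1) =
      zy C0 x y s + th ^ 2 * ‖zC C0 th C‖ ^ 2 / 2 := by
    unfold zy zC
    rw [norm_smul, mul_pow, Real.norm_eq_abs, sq_abs, norm_sub_sq_real, inner_sub_right,
      real_inner_smul_right, real_inner_comm C0 C]
    field_simp
    ring
  have e3 : th ^ 2 * (s + 1) = th ^ 2 * s + th ^ 2 := by ring
  rw [e1, e2, e3, h4] at h3
  linarith

end Cf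

end Crest.Agent.R116.LZg725
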