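import Crest.Agent.R116.Gc2_192
import Crest.Agent.R116.LZg2_725
import Crest.Agent.R138.Rect_779

/-!
# R116: geometry of the coherence rectangles on curved strips (helper192)

725's conformal functions `p : Cf E2`; at a point `(x, y, s)` the strip of slopes is
`{C : |p.ld C x y s| ≤ h}`, its normal at `C` is `p.gr C x s`, `un p C x s` the unit normal.
Cone versions of `Rect_779` (W5 of 1979): DISJOINT, multiplicity, summed form, class count, and the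
two-cluster form of the misaligned case.
-/

set_option autoImplicit false

namespace Crest.Agent.R116.Gc192

open Crest.Agent.R116.LZg725 (Cf)
open Crest.Agent.R138.Rect779 (orth RectF)
open Crest.Agent.R138.Wpk685 (cen)

/-! ### bridge to 725's objects -/

theorem ld_eq (p : Cf E2) (C x : E2) (y s : ℝ) :
    p.ld C x y s = Lq (p.a1 - 2 * p.d * y) (-(p.be + (2 * p.d) • x)) (p.ny s) C := by
  unfold Cf.ld Lq
  rw [inner_neg_left]
  ring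

theorem gr_eq (p : Cf E2) (C x : E2) (s : ℝ) :
    p.gr C x s = -nab (-(p.be + (2 * p.d) • x)) (p.ny s) C := by
  unfold Cf.gr nab
  abel

theorem norm_gr (p : Cf E2) (C x : E2) (s : ℝ) :
    ‖p.gr C x s‖ = ‖nab (-(p.be + (2 * p.d) • x)) (p.ny s) C‖ := by rw [gr_eq, norm_neg]

/-- the unit normal of the strip of `p` at the slope `C`, at the point `(x, s)`. -/
noncomputable def un (p : Cf E2) (C x : E2) (s : ℝ) : E2 := ‖p.gr C x s‖⁻¹ • p.gr C x s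

theorem un_eq (p : Cf E2) (C x : E2) (s : ℝ) : un p C x s =
    -(‖nab (-(p.be + (2 * p.d) • x)) (p.ny s) C‖⁻¹ • nab (-(p.be + (2 * p.d) • x)) (p.ny s) C) := by
  unfold un
  rw [norm_gr, gr_eq, smul_neg]

theorem norm_un {p : Cf E2} {C x : E2} {s k : ℝ} (hk : 0 < k) (h : k ≤ ‖p.gr C x s‖) :
    ‖un p C x s‖ = 1 := by
  unfold un
  rw [norm_smul, norm_inv, norm_norm, inv_mul_cancel₀ (hk.trans_le h).ne']

/-- `gr` at another slope and another point. -/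
theorem gr_sub (p : Cf E2) (C C' x x' : E2) (s s' : ℝ) :
    p.gr C' x' s' - p.gr C x s =
      (2 * p.d) • ((x' - x) + (s' - s) • C) - (p.ny s') • (C' - C) := by
  rw [p.gr_dir C C' x' s', p.gr_move C x x' s s']
  abel

/-- the unit normals vary slowly. -/
theorem un_sub {p : Cf E2} {C C' x x' : E2} {s s' k d : ℝ} (hk : 0 < k)
    (h : k ≤ ‖p.gr C x s‖) (h' : k ≤ ‖p.gr C' x' s'‖)
    (hd : ‖p.gr C x s - p.gr C' x' s'‖ ≤ d) : ‖un p C x s - un p C' x' s'‖ ≤ 2 * d / k :=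
  unit_sub_le hk h h' hd

/-- the unit normals at the same point vary slowly with the slope. -/
theorem un_dir {p : Cf E2} {C C' x : E2} {s k M : ℝ} (hk : 0 < k)
    (h : k ≤ ‖p.gr C x s‖) (h' : k ≤ ‖p.gr C' x s‖) (hM : |p.ny s| ≤ M) :
    ‖un p C x s - un p C' x s‖ ≤ 2 * (M * ‖C - C'‖) / k := by
  refine un_sub hk h h' ?_
  rw [gr_sub]
  simp only [sub_self, zero_smul, add_zero, smul_zero, zero_sub, norm_neg]
  rw [norm_smul, Real.norm_eq_abs]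
  exact mul_le_mul_of_nonneg_right hM (norm_nonneg _)

/-! ### DISJOINT -/

/-- a point of a rectangle, in the form of `disjoint_normals`. -/
lemma rect_point {N ξ0 ξ : E2} {L w : ℝ} (hN : ‖N‖ = 1) (h : ξ ∈ RectF N ξ0 L w) :
    |(inner ℝ N (ξ - ξ0) : ℝ)| ≤ L ∧ ‖ξ - (ξ0 + (inner ℝ N (ξ - ξ0) : ℝ) • N)‖ ≤ w := by
  refine ⟨(Crest.Agent.R138.Rect779.abs_inner_le hN _).trans h.1, ?_⟩
  have e : ξ - (ξ0 + (inner ℝ N (ξ - ξ0) : ℝ) • N) = orth N (ξ - ξ0) := by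
    unfold orth; abel
  rw [e]; exact h.2

/-- **DISJOINT for curved strips**: two rectangles with their own normals, centres in the same strip,
are disjoint unless the centres are close. -/
theorem rect_disjointC {p : Cf E2} {x : E2} {y s h k M L w : ℝ} (hk : 0 < k) (hM : |p.ny s| ≤ M)
    (hL : 16 * (L * M) ≤ k) (hw : 16 * (w * M) ≤ k) {C1 C2 ξ : E2}
    (h1 : |p.ld C1 x y s| ≤ h) (h2 : |p.ld C2 x y s| ≤ h)
    (k1 : k ≤ ‖p.gr C1 x s‖) (k2 : k ≤ ‖p.gr C2 x s‖)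
    (r1 : ξ ∈ RectF (un p C1 x s) C1 L w) (r2 : ξ ∈ RectF (un p C2 x s) C2 L w) :
    ‖C1 - C2‖ ≤ 4 * (h / k + 2 * w) := by
  obtain ⟨b1, c1⟩ := rect_point (norm_un hk k1) r1
  obtain ⟨b2, c2⟩ := rect_point (norm_un hk k2) r2
  have hM0 : 0 ≤ M := (abs_nonneg _).trans hM
  have hh : 0 ≤ h := (abs_nonneg _).trans h1
  set B : E2 := -(p.be + (2 * p.d) • x) with hB
  set bt1 : ℝ := inner ℝ (un p C1 x s) (ξ - C1)
  set bt2 : ℝ := inner ℝ (un p C2 x s) (ξ - C2)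
  rw [ld_eq] at h1 h2
  rw [norm_gr] at k1 k2
  have e1 : ∀ C (bt : ℝ), C + bt • un p C x s =
      C + (-bt) • (‖nab B (p.ny s) C‖⁻¹ • nab B (p.ny s) C) := by
    intro C bt
    rw [un_eq, smul_neg, neg_smul]
  refine disjoint_normals (b0 := L) (th := 2 * w) (bt := -bt1) (bt' := -bt2) hk hM0 hh hM h1 h2 k1 k2
    (by rw [abs_neg]; exact b1) (by rw [abs_neg]; exact b2) hL (by linarith) ?_
  rw [← e1, ← e1]
  have e2 : (C1 + bt1 • un p C1 x s) - (C2 + bt2 • un p C2 x s) =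
      (ξ - (C2 + bt2 • un p C2 x s)) - (ξ - (C1 + bt1 • un p C1 x s)) := by abel
  rw [e2]
  refine (norm_sub_le _ _).trans ?_
  linarith

/-- **multiplicity**: a slope `ξ` lies in at most `(2 K + 1)^2` rectangles of the caps of a strip. -/
theorem multC_le {p : Cf E2} {x : E2} {y s h k M L w ρ K : ℝ} (hk : 0 < k) (hM : |p.ny s| ≤ M)
    (hL : 16 * (L * M) ≤ k) (hw : 16 * (w * M) ≤ k) (hρ : 0 < ρ) (hK : 0 ≤ K)
    (hKa : 4 * (h / k + 2 * w) ≤ K * ρ) {T : Finset (ℤ × ℤ)}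
    (h1 : ∀ m ∈ T, |p.ld (cen ρ m) x y s| ≤ h) (k1 : ∀ m ∈ T, k ≤ ‖p.gr (cen ρ m) x s‖) (ξ : E2)
    (hT : ∀ m ∈ T, ξ ∈ RectF (un p (cen ρ m) x s) (cen ρ m) L w) :
    (T.card : ℝ) ≤ (2 * K + 1) ^ 2 := by
  rcases T.eq_empty_or_nonempty with rfl | ⟨m0, hm0⟩
  · simp only [Finset.card_empty, Nat.cast_zero]; positivity
  · refine Crest.Agent.R138.Rect779.card_caps_le hρ hK (ξ0 := cen ρ m0) fun m hm => ?_
    exact (rect_disjointC hk hM hL hw (h1 m hm) (h1 m0 hm0) (k1 m hm) (k1 m0 hm0) (hT m hm)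
      (hT m0 hm0)).trans hKa

/-- **summed form** of DISJOINT (for LOWER), real weights. -/
theorem sum_rowsC_le {p : Cf E2} {x : E2} {y s h k M L w ρ K : ℝ} (hk : 0 < k) (hM : |p.ny s| ≤ M)
    (hL : 16 * (L * M) ≤ k) (hw : 16 * (w * M) ≤ k) (hρ : 0 < ρ) (hK : 0 ≤ K)
    (hKa : 4 * (h / k + 2 * w) ≤ K * ρ) {T : Finset (ℤ × ℤ)}
    (h1 : ∀ m ∈ T, |p.ld (cen ρ m) x y s| ≤ h) (k1 : ∀ m ∈ T, k ≤ ‖p.gr (cen ρ m) x s‖)
    (J : ℤ × ℤ → Finset (ℤ × ℤ))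
    (hJ : ∀ m ∈ T, ∀ j ∈ J m, cen ρ j ∈ RectF (un p (cen ρ m) x s) (cen ρ m) L w)
    {U : Finset (ℤ × ℤ)} (hU : ∀ m ∈ T, J m ⊆ U) {f : ℤ × ℤ → ℝ} (hf : ∀ j, 0 ≤ f j) :
    ∑ m ∈ T, ∑ j ∈ J m, f j ≤ (2 * K + 1) ^ 2 * ∑ j ∈ U, f j := by
  classical
  have e1 : ∀ m ∈ T, ∑ j ∈ J m, f j = ∑ j ∈ U, if j ∈ J m then f j else 0 := by
    intro m hm
    rw [Finset.sum_ite_mem, Finset.inter_eq_right.2 (hU m hm)]
  rw [Finset.sum_congr rfl e1, Finset.sum_comm, Finset.mul_sum]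
  refine Finset.sum_le_sum fun j _ => ?_
  rw [← Finset.sum_filter, Finset.sum_const, nsmul_eq_mul]
  refine mul_le_mul_of_nonneg_right ?_ (hf j)
  exact multC_le hk hM hL hw hρ hK hKa (T := T.filter fun m => j ∈ J m)
    (fun m hm => h1 m (Finset.mem_filter.1 hm).1) (fun m hm => k1 m (Finset.mem_filter.1 hm).1)
    (cen ρ j) (fun m hm => hJ m (Finset.mem_filter.1 hm).1 j (Finset.mem_filter.1 hm).2)

open scoped ENNReal in
/-- **summed form** of DISJOINT (for LOWER), `ENNReal` weights. -/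
theorem sum_rowsC_le' {p : Cf E2} {x : E2} {y s h k M L w ρ K : ℝ} (hk : 0 < k) (hM : |p.ny s| ≤ M)
    (hL : 16 * (L * M) ≤ k) (hw : 16 * (w * M) ≤ k) (hρ : 0 < ρ) (hK : 0 ≤ K)
    (hKa : 4 * (h / k + 2 * w) ≤ K * ρ) {T : Finset (ℤ × ℤ)}
    (h1 : ∀ m ∈ T, |p.ld (cen ρ m) x y s| ≤ h) (k1 : ∀ m ∈ T, k ≤ ‖p.gr (cen ρ m) x s‖)
    (J : ℤ × ℤ → Finset (ℤ × ℤ))
    (hJ : ∀ m ∈ T, ∀ j ∈ J m, cen ρ j ∈ RectF (un p (cen ρ m) x s) (cen ρ m) L w)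
    {U : Finset (ℤ × ℤ)} (hU : ∀ m ∈ T, J m ⊆ U) (f : ℤ × ℤ → ℝ≥0∞) :
    ∑ m ∈ T, ∑ j ∈ J m, f j ≤ ENNReal.ofReal ((2 * K + 1) ^ 2) * ∑ j ∈ U, f j := by
  classical
  have e1 : ∀ m ∈ T, ∑ j ∈ J m, f j = ∑ j ∈ U, if j ∈ J m then f j else 0 := by
    intro m hm
    rw [Finset.sum_ite_mem, Finset.inter_eq_right.2 (hU m hm)]
  rw [Finset.sum_congr rfl e1, Finset.sum_comm, Finset.mul_sum]
  refine Finset.sum_le_sum fun j _ => ?_
  rw [← Finset.sum_filter, Finset.sum_const, nsmul_eq_mul]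
  refine mul_le_mul_left ?_ (f j)
  have := multC_le hk hM hL hw hρ hK hKa (T := T.filter fun m => j ∈ J m)
    (fun m hm => h1 m (Finset.mem_filter.1 hm).1) (fun m hm => k1 m (Finset.mem_filter.1 hm).1)
    (cen ρ j) (fun m hm => hJ m (Finset.mem_filter.1 hm).1 j (Finset.mem_filter.1 hm).2)
  rw [← ENNReal.ofReal_natCast]
  exact ENNReal.ofReal_le_ofReal this

/-! ### UPPER: coherent classes -/

/-- the phase `‖ξ‖²/2`, whose gradient is the identity. -/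
noncomputable def hsq (ξ : E2) : ℝ := ‖ξ‖ ^ 2 / 2

theorem gradient_hsq (ξ : E2) : gradient hsq ξ = ξ := by
  have h1 : HasGradientAt hsq ξ ξ := by
    rw [hasGradientAt_iff_hasFDerivAt]
    have h2 := ((hasStrictFDerivAt_norm_sq ξ).hasFDerivAt).const_mul (1 / 2 : ℝ)
    have e1 : (fun y : E2 => (1 / 2 : ℝ) * ‖y‖ ^ 2) = hsq := by
      ext y; unfold hsq; ring
    rw [e1] at h2
    refine h2.congr_fderiv ?_
    ext v
    simp [InnerProductSpace.toDual_apply_apply]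
  exact h1.gradient

theorem nearId_hsq : Crest.Agent.R138.Bil882.NearId hsq (1 / 10) := by
  intro ξ η
  rw [gradient_hsq, gradient_hsq, sub_self, norm_zero]
  positivity

/-- two slopes of a strip: the component along a direction close to the normal. -/
theorem strip_inner {p : Cf E2} {x : E2} {y s h k M σ v : ℝ} (hk : 0 < k) (hM : |p.ny s| ≤ M)
    {C C' N : E2} (hN : ‖N‖ = 1) (h1 : |p.ld C x y s| ≤ h) (h2 : |p.ld C' x y s| ≤ h)
    (k1 : k ≤ ‖p.gr C x s‖) (hσ : ‖C - C'‖ ≤ σ) (hσk : M * σ ≤ k / 2)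
    (hu : ‖un p C x s - N‖ ≤ 1 / 4) (hv : ‖orth N (C - C')‖ ≤ v) :
    |(inner ℝ N (C - C') : ℝ)| ≤ 4 * h / k + v := by
  have hM0 : 0 ≤ M := (abs_nonneg _).trans hM
  set w := C - C' with hw
  have hg0 : 0 < ‖p.gr C x s‖ := hk.trans_le k1
  -- inner product with the gradient
  have e1 : inner ℝ (p.gr C x s) w = (p.ld C' x y s - p.ld C x y s) - p.ny s * ‖w‖ ^ 2 / 2 := by
    have := p.ld_dir C C' x y s
    have e : C' - C = -w := by rw [hw]; abel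
    rw [e, inner_neg_right, norm_neg] at this
    linarith
  have e2 : |(inner ℝ (p.gr C x s) w : ℝ)| ≤ 2 * h + M * ‖w‖ ^ 2 / 2 := by
    rw [e1]
    refine (abs_sub _ _).trans (add_le_add ((abs_sub _ _).trans (by linarith)) ?_)
    rw [abs_div, abs_mul, abs_of_nonneg (sq_nonneg ‖w‖), abs_of_pos (by norm_num : (0:ℝ) < 2)]
    have := mul_le_mul_of_nonneg_right hM (sq_nonneg ‖w‖)
    linarith
  have e3 : |(inner ℝ (un p C x s) w : ℝ)| ≤ (2 * h + M * ‖w‖ ^ 2 / 2) / k := by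
    unfold un
    rw [inner_smul_left, abs_mul, div_eq_inv_mul]
    have : |(starRingEnd ℝ) ‖p.gr C x s‖⁻¹| = ‖p.gr C x s‖⁻¹ := by simp
    rw [this]
    exact mul_le_mul (inv_anti₀ hk k1) e2 (abs_nonneg _) (inv_nonneg.2 hk.le)
  have e4 : |(inner ℝ N w : ℝ)| ≤ |(inner ℝ (un p C x s) w : ℝ)| + 1 / 4 * ‖w‖ := by
    have : (inner ℝ N w : ℝ) = inner ℝ (un p C x s) w - inner ℝ (un p C x s - N) w := by
      rw [inner_sub_left]; ring
    rw [this]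
    refine (abs_sub _ _).trans (add_le_add le_rfl ((abs_real_inner_le_norm _ _).trans ?_))
    exact mul_le_mul_of_nonneg_right hu (norm_nonneg _)
  have e5 := Crest.Agent.R138.Rect779.norm_le_orth hN w
  have e6 : M * ‖w‖ ^ 2 / 2 ≤ k * (‖w‖ / 4) := by
    have : M * ‖w‖ ≤ k / 2 := (mul_le_mul_of_nonneg_left hσ hM0).trans hσk
    nlinarith [norm_nonneg w]
  have e7 : (2 * h + M * ‖w‖ ^ 2 / 2) / k ≤ 2 * h / k + ‖w‖ / 4 := by
    rw [div_add' _ _ _ hk.ne']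
    exact div_le_div_of_nonneg_right (by linarith) hk.le
  have e8 : 4 * h / k = 2 * (2 * h / k) := by ring
  rw [e8]
  linarith

open Classical in
/-- **UPPER count**: a coherent class of caps in one strip; the normals `N0` of its members are
`δ`-close to `± N`. -/
theorem class_countC {p : Cf E2} {x : E2} {y s h k M σ : ℝ} (hk : 0 < k)
    (hM : |p.ny s| ≤ M) {N : E2} (hN : ‖N‖ = 1) {ρ : ℝ} (hρ : 0 < ρ)
    {w : Finset (ℤ × ℤ)} (hw : w.Nonempty) {K L δ : ℝ} (hL : 0 < L) (hK : 0 ≤ K) (hKL : K * ρ ≤ L)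
    (hs : ∀ m ∈ w, |p.ld (cen ρ m) x y s| ≤ h) (kk : ∀ m ∈ w, k ≤ ‖p.gr (cen ρ m) x s‖)
    (hσ : ∀ m ∈ w, ∀ m' ∈ w, ‖cen ρ m - cen ρ m'‖ ≤ σ) (hσk : M * σ ≤ k / 2)
    (hu : ∀ m ∈ w, ‖un p (cen ρ m) x s - N‖ ≤ 1 / 4)
    (ho : ∀ m ∈ w, ∀ m' ∈ w, ‖orth N (cen ρ m - cen ρ m')‖ ≤ K * ρ)
    {N0 : ℤ × ℤ → E2} (hN0 : ∀ m ∈ w, ‖N0 m‖ = 1)
    (hδ : ∀ m ∈ w, ‖N0 m - N‖ ≤ δ ∨ ‖N0 m + N‖ ≤ δ) :
    ∃ m0 ∈ w, (w.card : ℝ) ≤ (20 / 9 * ((4 * h / k + K * ρ) / L) + 4) * ((w.filter fun m =>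
      cen ρ m ∈ RectF (N0 m0) (cen ρ m0) (2 * L) (K * ρ + 2 * δ * (2 * L))).card : ℝ) := by
  refine Crest.Agent.R138.Rect779.class_count nearId_hsq hN hρ hw hL hK hKL ho ?_ hN0 hδ
  intro m hm m' hm'
  rw [gradient_hsq, gradient_hsq]
  exact strip_inner hk hM hN (hs m hm) (hs m' hm') (kk m hm) (hσ m hm m' hm') hσk (hu m hm)
    (ho m hm m' hm')

/-! ### alignment and the two clusters of the misaligned case -/

/-- `4 (sin)^2 = ‖u - v‖² ‖u + v‖²` for unit vectors. -/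
lemma crs_sq_unit {u v : E2} (hu : ‖u‖ = 1) (hv : ‖v‖ = 1) :
    4 * (crs u v) ^ 2 = ‖u - v‖ ^ 2 * ‖u + v‖ ^ 2 := by
  have h1 : u 0 ^ 2 + u 1 ^ 2 = 1 := by rw [← norm_sq2, hu]; norm_num
  have h2 : v 0 ^ 2 + v 1 ^ 2 = 1 := by rw [← norm_sq2, hv]; norm_num
  have e1 : ‖u - v‖ ^ 2 = 2 - 2 * (u 0 * v 0 + u 1 * v 1) := by
    rw [norm_sq2, PiLp.sub_apply, PiLp.sub_apply]; linarith
  have e2 : ‖u + v‖ ^ 2 = 2 + 2 * (u 0 * v 0 + u 1 * v 1) := by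
    rw [norm_sq2, PiLp.add_apply, PiLp.add_apply]; linarith
  rw [e1, e2]
  have : (crs u v) ^ 2 = (u 0 ^ 2 + u 1 ^ 2) * (v 0 ^ 2 + v 1 ^ 2) - (u 0 * v 0 + u 1 * v 1) ^ 2 := by
    unfold crs; ring
  rw [this, h1, h2]; ring

lemma two_le_add_unit {u v : E2} (hu : ‖u‖ = 1) (hv : ‖v‖ = 1) : 1 ≤ ‖u - v‖ ∨ 1 ≤ ‖u + v‖ := by
  by_contra h
  push Not at h
  have e1 : ‖u - v‖ ^ 2 + ‖u + v‖ ^ 2 = 4 := by
    rw [norm_sub_sq_real, norm_add_sq_real, hu, hv]; ring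
  nlinarith [norm_nonneg (u - v), norm_nonneg (u + v)]

/-- aligned: small sine gives closeness up to the sign. -/
theorem close_of_crs {u v : E2} (hu : ‖u‖ = 1) (hv : ‖v‖ = 1) {δ : ℝ} (h : |crs u v| ≤ δ) :
    ‖u - v‖ ≤ 2 * δ ∨ ‖u + v‖ ≤ 2 * δ := by
  have h0 := crs_sq_unit hu hv
  have hδ : 0 ≤ δ := (abs_nonneg _).trans h
  have h1 : (‖u - v‖ * ‖u + v‖) ^ 2 ≤ (2 * δ) ^ 2 := by
    rw [mul_pow, ← h0, ← sq_abs (crs u v)]
    nlinarith [abs_nonneg (crs u v)]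
  have h2 : ‖u - v‖ * ‖u + v‖ ≤ 2 * δ :=
    (pow_le_pow_iff_left₀ (by positivity) (by positivity) (by norm_num)).1 h1
  rcases two_le_add_unit hu hv with h3 | h3
  · right; nlinarith [norm_nonneg (u + v)]
  · left; nlinarith [norm_nonneg (u - v)]

/-- misaligned: large sine. -/
theorem crs_of_far {u v : E2} (hu : ‖u‖ = 1) (hv : ‖v‖ = 1) {δ : ℝ} (hδ : 0 ≤ δ)
    (h1 : δ ≤ ‖u - v‖) (h2 : δ ≤ ‖u + v‖) : δ / 2 ≤ |crs u v| := by
  have h0 := crs_sq_unit hu hv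
  have h3 : (δ / 2) ^ 2 ≤ (|crs u v|) ^ 2 := by
    rw [sq_abs]
    rcases two_le_add_unit hu hv with h | h
    · have a1 : 1 ≤ ‖u - v‖ ^ 2 := by nlinarith
      have a2 : δ ^ 2 ≤ ‖u + v‖ ^ 2 := by nlinarith [norm_nonneg (u + v)]
      nlinarith [sq_nonneg δ, sq_nonneg ‖u + v‖]
    · have a1 : 1 ≤ ‖u + v‖ ^ 2 := by nlinarith
      have a2 : δ ^ 2 ≤ ‖u - v‖ ^ 2 := by nlinarith [norm_nonneg (u - v)]
      nlinarith [sq_nonneg δ, sq_nonneg ‖u - v‖]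
  exact (pow_le_pow_iff_left₀ (by positivity) (abs_nonneg _) (by norm_num)).1 h3

lemma crs_smul (a b : ℝ) (u v : E2) : crs (a • u) (b • v) = a * b * crs u v := by
  unfold crs
  simp only [PiLp.smul_apply, smul_eq_mul]
  ring

lemma crs_neg (u v : E2) : crs (-u) (-v) = crs u v := by
  unfold crs
  simp only [PiLp.neg_apply]
  ring

/-- the Jacobian of two strips in terms of the sine of the unit normals. -/
lemma crs_gr {p q : Cf E2} {C x : E2} {s k : ℝ} (hk : 0 < k) (h1 : k ≤ ‖p.gr C x s‖)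
    (h2 : k ≤ ‖q.gr C x s‖) :
    crs (p.gr C x s) (q.gr C x s) = ‖p.gr C x s‖ * ‖q.gr C x s‖ * crs (un p C x s) (un q C x s) := by
  have e1 : p.gr C x s = ‖p.gr C x s‖ • un p C x s := by
    unfold un; rw [smul_smul, mul_inv_cancel₀ (hk.trans_le h1).ne', one_smul]
  have e2 : q.gr C x s = ‖q.gr C x s‖ • un q C x s := by
    unfold un; rw [smul_smul, mul_inv_cancel₀ (hk.trans_le h2).ne', one_smul]
  conv_lhs => rw [e1, e2]
  rw [crs_smul]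

/-- **MIS, two clusters**: the slopes common to two strips through one point, whose normals make an
angle of sine at least `δ`, lie in two balls of radius `4 M h / (k² δ)`. -/
theorem mis_two {p q : Cf E2} {x : E2} {y s h k M δ : ℝ} (hk : 0 < k) (hδ : 0 < δ) (hh : 0 ≤ h)
    (S : Finset E2) (h1 : ∀ C ∈ S, |p.ld C x y s| ≤ h) (h2 : ∀ C ∈ S, |q.ld C x y s| ≤ h)
    (m1 : ∀ C ∈ S, ‖p.gr C x s‖ ≤ M) (m2 : ∀ C ∈ S, ‖q.gr C x s‖ ≤ M)
    (k1 : ∀ C ∈ S, k ≤ ‖p.gr C x s‖) (k2 : ∀ C ∈ S, k ≤ ‖q.gr C x s‖)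
    (hs : ∀ C ∈ S, δ ≤ |crs (un p C x s) (un q C x s)|) :
    ∃ T ⊆ S, T.card ≤ 2 ∧ ∀ C ∈ S, ∃ C' ∈ T, ‖C - C'‖ ≤ 4 * M * h / (k ^ 2 * δ) := by
  refine cross_cover (a1 := p.a1 - 2 * p.d * y) (b1 := -(p.be + (2 * p.d) • x)) (c1 := p.ny s)
    (a2 := q.a1 - 2 * q.d * y) (b2 := -(q.be + (2 * q.d) • x)) (c2 := q.ny s)
    (by positivity) hh S ?_ ?_ ?_ ?_ ?_
  · intro C hC; rw [← ld_eq]; exact h1 C hC
  · intro C hC; rw [← ld_eq]; exact h2 C hC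
  · intro C hC; rw [← norm_gr]; exact m1 C hC
  · intro C hC; rw [← norm_gr]; exact m2 C hC
  · intro C hC
    have e : crs (nab (-(p.be + (2 * p.d) • x)) (p.ny s) C) (nab (-(q.be + (2 * q.d) • x)) (q.ny s) C) =
        crs (p.gr C x s) (q.gr C x s) := by
      rw [gr_eq, gr_eq, crs_neg]
    rw [e, crs_gr hk (k1 C hC) (k2 C hC), abs_mul, abs_mul, abs_norm, abs_norm]
    calc k ^ 2 * δ = k * k * δ := by ring
      _ ≤ ‖p.gr C x s‖ * ‖q.gr C x s‖ * |crs (un p C x s) (un q C x s)| := by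
        have := k1 C hC
        have := k2 C hC
        have := hs C hC
        gcongr

end Crest.Agent.R116.Gc192
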