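import Crest.Agent.R116.Cad1_538
import Crest.Agent.R116.Gc3_192
import Crest.Agent.R138.Ad_480

/-!
# R116, wave side, slab step: LOWER row and strip count on the cone (helper888)

`Adc` = density of the parent packets (caps of size `th`, plates `1/th × 1/th × 1/kp`) in the child
cap `m'` (size `th1`) at a point of space-time; `potc` = coherence count in the thin rectangle with
unit normal `N`.

* `Adc_shift`, `Adc_along`, `Adc_row`: transport in the plate metric `frc th kp C`;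
* `row_abs`: the abstract row estimate; `row_c`: **LOWER** for the active child caps of a plate whose
  conformal function is `p` (725), rectangles with their own normals;
* `strip_countc`: the strip count of UPPER from a coherence bound.
-/

set_option autoImplicit false

open MeasureTheory
open scoped ENNReal

namespace Crest.Agent.R116.AlB888

open Crest.Agent.R138.Defs (E2)
open Crest.Agent.R138.Wpk685 (cen caps)
open Crest.Agent.R138.Loc878 (nearL mem_nearL Near)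
open Crest.Agent.R138.Rect779 (orth RectF norm_le_orth aligned_mem card_caps_le)
open Crest.Agent.R138.Ad480 (card_filter_nearL)
open Crest.Agent.R116.CDef480 Crest.Agent.R116.Ckm538 Crest.Agent.R116.Cad538
open Crest.Agent.R116.LZg725 (Cf)
open Crest.Agent.R116.Gc192 (un norm_un rect_disjointC multC_le)

/-! ### the plate metric -/

/-- the null normal of the difference of two velocities. -/
theorem nrm_vel_sub (C C' : E2) : nrm C (vel C' - vel C) 0 = -(‖C' - C‖ ^ 2 / 2) := by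
  unfold nrm vel
  rw [lat_sub, lat_pt, lat_pt, normsq2, normsq2, normsq2, CDef480.inner2]
  simp only [PiLp.sub_apply, pt_two]
  ring

theorem lat_vel (C : E2) : lat (vel C) = C := by unfold vel; rw [lat_pt]

/-- the frame of `C` on the drift of a neighbouring direction. -/
theorem frc_vel_le {th kp : ℝ} (hth : 0 ≤ th) (hkp : 0 ≤ kp) (C C' : E2) (s : ℝ) :
    ‖frc th kp C (s • (vel C' - vel C))‖ ≤
      |s| * (th * ‖C' - C‖ + kp * (‖C' - C‖ ^ 2 / 2)) := by
  rw [map_smul, norm_smul, Real.norm_eq_abs]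
  refine mul_le_mul_of_nonneg_left ?_ (abs_nonneg s)
  refine (norm_frc_le hth hkp C _).trans (le_of_eq ?_)
  rw [nrm_vel_sub, abs_neg, abs_of_nonneg (by positivity), lat_sub, lat_vel, lat_vel]

/-- comparison along two directions: the point `X` seen from `Y` along `C'`, in the frame and along
the direction `C`. -/
theorem frc_two_le {th kp σ δ : ℝ} (hth : 0 < th) (hkp : 0 ≤ kp) {C C' : E2} (hσ : ‖C' - C‖ ≤ σ)
    {D : E3} {s : ℝ} (hst : kp * σ ≤ 19 * th) (h1 : |s| * (th * σ) ≤ 19)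
    (h2 : |s| * (kp * σ ^ 2) ≤ 361) (hd : ‖frc th kp C' (D - s • vel C')‖ ≤ δ) :
    ‖frc th kp C (D - s • vel C)‖ ≤ 21 * δ + 200 := by
  have hσ0 : 0 ≤ σ := (norm_nonneg _).trans hσ
  have e : D - s • vel C = (D - s • vel C') + s • (vel C' - vel C) := by
    rw [smul_sub]; abel
  rw [e, map_add]
  refine (norm_add_le _ _).trans ?_
  have a1 : ‖frc th kp C (D - s • vel C')‖ ≤ (2 + 19) * ‖frc th kp C' (D - s • vel C')‖ := by
    refine frc_le_frc hth.le hkp (by norm_num) ?_ _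
    rw [norm_sub_rev]
    exact (mul_le_mul_of_nonneg_left hσ hkp).trans hst
  have a2 : ‖frc th kp C (s • (vel C' - vel C))‖ ≤ 200 := by
    refine (frc_vel_le hth.le hkp C C' s).trans ?_
    have b1 : |s| * (th * ‖C' - C‖) ≤ |s| * (th * σ) := by gcongr
    have b2 : |s| * (kp * (‖C' - C‖ ^ 2 / 2)) ≤ |s| * (kp * σ ^ 2) / 2 := by
      have : ‖C' - C‖ ^ 2 ≤ σ ^ 2 := pow_le_pow_left₀ (norm_nonneg _) hσ 2
      calc |s| * (kp * (‖C' - C‖ ^ 2 / 2)) = |s| * (kp * ‖C' - C‖ ^ 2) / 2 := by ring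
        _ ≤ _ := by gcongr
    rw [mul_add]
    linarith
  linarith

/-! ### densities of child caps -/

/-- density of the parent packets in the child cap `m'`. -/
noncomputable def Adc (n : ℕ) (th kp th1 : ℝ) (g : E3 → ℂ) (S : ℤ × ℤ → Set E3) (m' : ℤ × ℤ)
    (X : E3) (t : ℝ) : ℝ≥0∞ := Cad538.Acc n th kp th g S (nearL th th1 m') X t

variable {n : ℕ} {th kp th1 th2 : ℝ} {g : E3 → ℂ} {S S' : ℤ × ℤ → Set E3}

theorem Adc_mono {m' : ℤ × ℤ} (hS : ∀ m, S m ⊆ S' m) (X : E3) (t : ℝ) :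
    Adc n th kp th1 g S m' X t ≤ Adc n th kp th1 g S' m' X t :=
  Den_mono le_rfl (fun m _ => hS m) X t

/-- **transport** of the density of the cap `j` from `(Y, t)` to `(X, t + s)`, known only in the
direction `C'` of a cap at distance at most `16 th2`. -/
theorem Adc_row {j : ℤ × ℤ} {C' : E2} (hth : 0 < th) (h12 : th1 ≤ th2)
    (hkp : 0 ≤ kp) (hst : kp * th2 ≤ th) {s : ℝ} (h1 : |s| * (th * th2) ≤ 1)
    (h2 : |s| * (kp * th2 ^ 2) ≤ 1) (hj : ‖cen th1 j - C'‖ ≤ 16 * th2) {X Y : E3} {t δ : ℝ}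
    (hδ : 0 ≤ δ) (hd : ‖frc th kp C' (Y - X - s • vel C')‖ ≤ δ) :
    Adc n th kp th1 g S j Y t ≤
      ENNReal.ofReal ((1 + (21 * δ + 200)) ^ n) * Adc n th kp th1 g S j X (t + s) := by
  unfold Adc Cad538.Acc
  refine Den_shift (by positivity) fun m hm => ?_
  have hn : ‖cen th m - cen th1 j‖ < 3 * th1 := (mem_nearL.1 hm).2
  have hσ : ‖C' - cen th m‖ ≤ 19 * th2 := by
    have e : C' - cen th m = -(cen th1 j - C') - (cen th m - cen th1 j) := by abel
    rw [e]
    refine (norm_sub_le _ _).trans ?_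
    rw [norm_neg]
    linarith
  have e : X + (t + s) • vel (cen th m) - (Y + t • vel (cen th m)) =
      -((Y - X) - s • vel (cen th m)) := by
    rw [add_smul]; abel
  rw [e, map_neg, norm_neg]
  refine frc_two_le hth hkp hσ ?_ ?_ ?_ hd
  · nlinarith
  · calc |s| * (th * (19 * th2)) = 19 * (|s| * (th * th2)) := by ring
      _ ≤ _ := by linarith
  · calc |s| * (kp * (19 * th2) ^ 2) = 361 * (|s| * (kp * th2 ^ 2)) := by ring
      _ ≤ _ := by linarith

/-- the same in the opposite direction of time. -/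
theorem Adc_row' {j : ℤ × ℤ} {C' : E2} (hth : 0 < th) (h12 : th1 ≤ th2)
    (hkp : 0 ≤ kp) (hst : kp * th2 ≤ th) {s : ℝ} (h1 : |s| * (th * th2) ≤ 1)
    (h2 : |s| * (kp * th2 ^ 2) ≤ 1) (hj : ‖cen th1 j - C'‖ ≤ 16 * th2) {X Y : E3} {t δ : ℝ}
    (hδ : 0 ≤ δ) (hd : ‖frc th kp C' (Y - X - s • vel C')‖ ≤ δ) :
    Adc n th kp th1 g S j X (t + s) ≤
      ENNReal.ofReal ((1 + (21 * δ + 200)) ^ n) * Adc n th kp th1 g S j Y t := by
  have h := Adc_row (n := n) (g := g) (S := S) (th1 := th1) (j := j) (C' := C') (X := Y) (Y := X)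
    (t := t + s) (s := -s) hth h12 hkp hst (by rwa [abs_neg]) (by rwa [abs_neg]) hj hδ (by
      have e : X - Y - (-s) • vel C' = -(Y - X - s • vel C') := by
        rw [neg_smul]; abel
      rwa [e, map_neg, norm_neg])
  rwa [add_neg_cancel_right] at h

/-- sum of the densities of child caps. -/
theorem sum_Adc_le (hth1 : 0 < th1) {T : Finset (ℤ × ℤ)} (hT : T ⊆ caps th1)
    {M : Finset (ℤ × ℤ)} (hM : ∀ m' ∈ T, nearL th th1 m' ⊆ M) (X : E3) (t : ℝ) :
    ∑ m' ∈ T, Adc n th kp th1 g S m' X t ≤ 36 * Cad538.Acc n th kp th g S M X t := by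
  classical
  have := sum_Den_le (μ := volume) (n := n) (c := th ^ 2 * kp)
    (A := fun m => frc th kp (cen th m)) (v := fun m => vel (cen th m))
    (U := fun m y => ‖umc th g m y‖ₑ ^ 2) (S := S) T (fun m' => nearL th th1 m') hM
    (K := 36) (fun m _ => by convert card_filter_nearL (ρ := th) hth1 hT m) X t
  rw [Nat.cast_ofNat] at this
  exact this

open Classical in
/-- coherence count: child caps of the thin rectangle with unit normal `N` around `m'` whose density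
at `(X, t)` is at least `1/K0` times that of `m'`. -/
noncomputable def potc (n : ℕ) (th kp th1 th2 K0 : ℝ) (g : E3 → ℂ) (S : ℤ × ℤ → Set E3) (N : E2)
    (m' : ℤ × ℤ) (X : E3) (t : ℝ) : ℕ :=
  ((caps th1).filter fun j => cen th1 j ∈ RectF N (cen th1 m') (16 * th2) (64 * th1) ∧
    Adc n th kp th1 g S m' X t ≤ ENNReal.ofReal K0 * Adc n th kp th1 g S j X t).card

/-! ### the abstract row estimate -/

/-- **row estimate**, abstract form: `T` = active caps of the plate near the target point, `d j` =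
density of the cap `j` at the target point, `R m` = rectangle of active caps of `m`.  The densities
of the members of `T` are at most `c1 A1` at the target point, those of the members of the
rectangles at least `A0 / c2`, and a cap lies in at most `K1` rectangles. -/
theorem row_abs {ι : Type*} [DecidableEq ι] (T : Finset ι) (R : ι → Finset ι) (d : ι → ℝ≥0∞)
    {A0 A1 c1 c2 K0 N AC : ℝ≥0∞} {p K1 : ℕ}
    (hup : ∀ m ∈ T, d m ≤ c1 * A1)
    (hlow : ∀ m ∈ T, ∀ j ∈ R m, A0 ≤ c2 * d j)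
    (hp : ∀ m ∈ T, p ≤ (R m).card)
    (hmul : ∀ j, (T.filter fun m => j ∈ R m).card ≤ K1)
    (hA : A1 ≤ K0 * A0) (hA0 : A0 ≠ 0) (hA0' : A0 ≠ ⊤)
    (hsum : ∑ j ∈ T.biUnion R, d j ≤ N * AC) :
    (p : ℝ≥0∞) * ∑ m ∈ T, d m ≤ c1 * K0 * c2 * K1 * N * AC := by
  have h1 : (T.card * p : ℝ≥0∞) * A0 ≤ c2 * (K1 * (N * AC)) := by
    have s1 : (T.card * p : ℝ≥0∞) * A0 ≤ ∑ b ∈ T, ∑ _j ∈ R b, A0 := by
      rw [mul_assoc, ← nsmul_eq_mul]
      refine Finset.card_nsmul_le_sum T _ _ fun b hb => ?_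
      rw [Finset.sum_const, nsmul_eq_mul]
      exact mul_le_mul' (by exact_mod_cast hp b hb) le_rfl
    have s2 : ∑ b ∈ T, ∑ _j ∈ R b, A0 ≤ ∑ b ∈ T, ∑ j ∈ R b, c2 * d j :=
      Finset.sum_le_sum fun b hb => Finset.sum_le_sum fun j hj => hlow b hb j hj
    have s3 : ∑ b ∈ T, ∑ j ∈ R b, c2 * d j = ∑ j ∈ T.biUnion R,
        ∑ b ∈ T.filter (fun b => j ∈ R b), c2 * d j := by
      refine Finset.sum_comm' fun b j => ?_
      simp only [Finset.mem_filter, Finset.mem_biUnion]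
      constructor
      · rintro ⟨hb, hm⟩
        exact ⟨⟨hb, hm⟩, b, hb, hm⟩
      · rintro ⟨⟨hb, hm⟩, _⟩
        exact ⟨hb, hm⟩
    have s4 : ∑ j ∈ T.biUnion R, ∑ b ∈ T.filter (fun b => j ∈ R b), c2 * d j ≤
        ∑ j ∈ T.biUnion R, K1 * (c2 * d j) := by
      refine Finset.sum_le_sum fun j _ => ?_
      rw [Finset.sum_const, nsmul_eq_mul]
      exact mul_le_mul' (by exact_mod_cast hmul j) le_rfl
    refine s1.trans (s2.trans (s3.le.trans (s4.trans ?_)))
    calc ∑ j ∈ T.biUnion R, (K1 : ℝ≥0∞) * (c2 * d j) = c2 * (K1 * ∑ j ∈ T.biUnion R, d j) := by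
          rw [← Finset.mul_sum, ← Finset.mul_sum]; ring
      _ ≤ _ := by gcongr
  have h2 : ∑ m ∈ T, d m ≤ (T.card : ℝ≥0∞) * (c1 * A1) := by
    rw [← nsmul_eq_mul]
    exact Finset.sum_le_card_nsmul T _ _ hup
  have hfin : A0 * ((p : ℝ≥0∞) * ∑ m ∈ T, d m) ≤ A0 * (c1 * K0 * c2 * K1 * N * AC) := by
    calc A0 * ((p : ℝ≥0∞) * ∑ m ∈ T, d m)
        ≤ A0 * ((p : ℝ≥0∞) * ((T.card : ℝ≥0∞) * (c1 * (K0 * A0)))) := by
          gcongr
          exact h2.trans (by gcongr)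
      _ = (c1 * K0 * A0) * ((T.card * p : ℝ≥0∞) * A0) := by ring
      _ ≤ (c1 * K0 * A0) * (c2 * (K1 * (N * AC))) := mul_le_mul' le_rfl h1
      _ = _ := by ring
  exact (ENNReal.mul_le_mul_iff_right hA0 hA0').1 hfin

/-! ### multiplicity of rectangles with nearby normals -/

/-- multiplicity when the rectangles have normals `N m` that are `δ`-close (up to the sign) to the
normals of the strip at the common point. -/
theorem mult_near {p : Cf E2} {x : E2} {y s h k M L w ρ K δ : ℝ} (hk : 0 < k) (hM : |p.ny s| ≤ M)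
    (hL : 16 * (L * M) ≤ k) (hw : 16 * ((w + 2 * δ * L) * M) ≤ k) (hρ : 0 < ρ) (hK : 0 ≤ K)
    (hKa : 4 * (h / k + 2 * (w + 2 * δ * L)) ≤ K * ρ) {T : Finset (ℤ × ℤ)} {N : ℤ × ℤ → E2}
    (h1 : ∀ m ∈ T, |p.ld (cen ρ m) x y s| ≤ h) (k1 : ∀ m ∈ T, k ≤ ‖p.gr (cen ρ m) x s‖)
    (hN : ∀ m ∈ T, ‖N m‖ = 1)
    (hNd : ∀ m ∈ T, ‖un p (cen ρ m) x s - N m‖ ≤ δ ∨ ‖un p (cen ρ m) x s + N m‖ ≤ δ) (ξ : E2)
    (hT : ∀ m ∈ T, ξ ∈ RectF (N m) (cen ρ m) L w) :
    (T.card : ℝ) ≤ (2 * K + 1) ^ 2 := by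
  refine multC_le hk hM hL hw hρ hK hKa h1 k1 ξ fun m hm => ?_
  exact aligned_mem (hN m hm) (norm_un hk (k1 m hm)) (hNd m hm) (hT m hm).1 (hT m hm).2

/-! ### LOWER -/

open Classical in
/-- **LOWER row** of the slab step on the cone.  `T` = child caps of the plate which are active near
the point `(z.1 + x, z.2 + t)`; `src m` = a selected point of `m`; `N m` = unit normal used in the
coherence count of the selected point. -/
theorem row_c {p : Cf E2} {h k Mn K δ Y K0 a : ℝ} {pp : ℝ} (hth : 0 < th) (h01 : th ≤ th1)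
    (h12 : th1 ≤ th2) (hkp : 0 < kp) (hst : kp * th2 ≤ th) {z : E3 × ℝ} {x : E3} {t : ℝ}
    (ht1 : |t| * (th * th2) ≤ 1) (ht2 : |t| * (kp * th2 ^ 2) ≤ 1) (hY : 0 ≤ Y) (ha : 0 ≤ a)
    (hK0 : 1 ≤ K0) (T : Finset (ℤ × ℤ)) (src : ℤ × ℤ → E3) (N : ℤ × ℤ → E2)
    (hsrc : ∀ m ∈ T, ‖frc th kp (cen th1 m) (src m - x - t • vel (cen th1 m))‖ ≤ Y)
    (hlo : ∀ m ∈ T, ENNReal.ofReal a ≤ Adc n th kp th1 g S m (z.1 + src m) z.2)
    (hhi : ∀ m ∈ T, Adc n th kp th1 g S m (z.1 + src m) z.2 ≤ ENNReal.ofReal (8 * a))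
    (hpot : ∀ m ∈ T, pp ≤ (potc n th kp th1 th2 K0 g S (N m) m (z.1 + src m) z.2 : ℝ))
    (hk : 0 < k) (hM : |p.ny (z.2 + t)| ≤ Mn) (hL : 256 * (th2 * Mn) ≤ k)
    (hw : 16 * ((64 * th1 + 32 * (δ * th2)) * Mn) ≤ k) (hK : 0 ≤ K)
    (hKa : 4 * (h / k + 2 * (64 * th1 + 32 * (δ * th2))) ≤ K * th1)
    (hld : ∀ m ∈ T, |p.ld (cen th1 m) (lat (z.1 + x)) ((z.1 + x) 2) (z.2 + t)| ≤ h)
    (hgr : ∀ m ∈ T, k ≤ ‖p.gr (cen th1 m) (lat (z.1 + x)) (z.2 + t)‖)
    (hN : ∀ m ∈ T, ‖N m‖ = 1)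
    (hNd : ∀ m ∈ T, ‖un p (cen th1 m) (lat (z.1 + x)) (z.2 + t) - N m‖ ≤ δ ∨
      ‖un p (cen th1 m) (lat (z.1 + x)) (z.2 + t) + N m‖ ≤ δ)
    {M : Finset (ℤ × ℤ)} (hMm : ∀ m ∈ caps th, (∃ m' ∈ T,
      ‖cen th m - cen th1 m'‖ ≤ 16 * th2 + 3 * th1) → m ∈ M) :
    ENNReal.ofReal pp * ∑ m ∈ T, Adc n th kp th1 g S m (z.1 + x) (z.2 + t) ≤
      ENNReal.ofReal (288 * K0 * (201 + 21 * Y) ^ (2 * n) * (2 * K + 1) ^ 2) *
        Cad538.Acc n th kp th g S M (z.1 + x) (z.2 + t) := by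
  have hth1 : 0 < th1 := hth.trans_le h01
  have hth2 : 0 < th2 := hth1.trans_le h12
  set c1 : ℝ := (1 + (21 * Y + 200)) ^ n with hc1
  have hc1' : 0 ≤ c1 := by positivity
  have hsrc' : ∀ m ∈ T, ‖frc th kp (cen th1 m)
      ((z.1 + src m) - (z.1 + x) - t • vel (cen th1 m))‖ ≤ Y := by
    intro m hm
    have e : (z.1 + src m) - (z.1 + x) - t • vel (cen th1 m) =
        src m - x - t • vel (cen th1 m) := by abel
    rw [e]
    exact hsrc m hm
  have hup : ∀ m ∈ T, Adc n th kp th1 g S m (z.1 + x) (z.2 + t) ≤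
      ENNReal.ofReal c1 * ENNReal.ofReal (8 * a) := by
    intro m hm
    refine (Adc_row' hth h12 hkp.le hst ht1 ht2 (C' := cen th1 m) ?_ hY
      (hsrc' m hm)).trans (mul_le_mul' le_rfl (hhi m hm))
    rw [sub_self, norm_zero]
    positivity
  rcases eq_or_lt_of_le ha with ha0 | ha0
  · -- `a = 0`
    have h0 : ∑ m ∈ T, Adc n th kp th1 g S m (z.1 + x) (z.2 + t) = 0 := by
      refine Finset.sum_eq_zero fun m hm => ?_
      have := hup m hm
      rw [← ha0, mul_zero, ENNReal.ofReal_zero, mul_zero] at this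
      exact le_antisymm this bot_le
    rw [h0, mul_zero]
    exact bot_le
  · set A0 : ℝ≥0∞ := ENNReal.ofReal (a / K0) with hA0
    have hA0' : A0 ≠ 0 := by
      rw [hA0, Ne, ENNReal.ofReal_eq_zero, not_le]; positivity
    set R : ℤ × ℤ → Finset (ℤ × ℤ) := fun m => (caps th1).filter fun j =>
      cen th1 j ∈ RectF (N m) (cen th1 m) (16 * th2) (64 * th1) ∧
      Adc n th kp th1 g S m (z.1 + src m) z.2 ≤
        ENNReal.ofReal K0 * Adc n th kp th1 g S j (z.1 + src m) z.2 with hR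
    have hRm : ∀ m ∈ T, ∀ j ∈ R m, j ∈ caps th1 ∧
        cen th1 j ∈ RectF (N m) (cen th1 m) (16 * th2) (64 * th1) ∧
        A0 ≤ Adc n th kp th1 g S j (z.1 + src m) z.2 := by
      intro m hm j hj
      obtain ⟨j1, j2, j3⟩ := Finset.mem_filter.1 hj
      refine ⟨j1, j2, ?_⟩
      have h6 := (hlo m hm).trans j3
      rw [hA0, ENNReal.ofReal_div_of_pos (by linarith)]
      exact ENNReal.div_le_of_le_mul' h6
    set K1 : ℕ := ⌊(2 * K + 1) ^ 2⌋₊ with hK1
    have hmul : ∀ j, (T.filter fun m => j ∈ R m).card ≤ K1 := by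
      intro j
      refine Nat.le_floor ?_
      refine mult_near (p := p) (x := lat (z.1 + x)) (y := (z.1 + x) 2) (s := z.2 + t) (h := h)
        (k := k) (M := Mn) (L := 16 * th2) (w := 64 * th1) (K := K) (δ := δ) hk hM
        (by linarith) ?_ hth1 hK ?_ (T := T.filter fun m => j ∈ R m) (N := N)
        (fun m hm => hld m (Finset.mem_filter.1 hm).1)
        (fun m hm => hgr m (Finset.mem_filter.1 hm).1)
        (fun m hm => hN m (Finset.mem_filter.1 hm).1)
        (fun m hm => hNd m (Finset.mem_filter.1 hm).1) (cen th1 j) (fun m hm => ?_)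
      · have e : 64 * th1 + 2 * δ * (16 * th2) = 64 * th1 + 32 * (δ * th2) := by ring
        rw [e]; exact hw
      · have e : 64 * th1 + 2 * δ * (16 * th2) = 64 * th1 + 32 * (δ * th2) := by ring
        rw [e]; exact hKa
      · obtain ⟨hm1, hm2⟩ := Finset.mem_filter.1 hm
        exact (hRm m hm1 j hm2).2.1
    have hlow : ∀ m ∈ T, ∀ j ∈ R m, A0 ≤ ENNReal.ofReal c1 *
        Adc n th kp th1 g S j (z.1 + x) (z.2 + t) := by
      intro m hm j hj
      obtain ⟨-, j2, j3⟩ := hRm m hm j hj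
      exact j3.trans (Adc_row hth h12 hkp.le hst ht1 ht2 (C' := cen th1 m) j2.1 hY
        (hsrc' m hm))
    have hp : ∀ m ∈ T, ⌈pp⌉₊ ≤ (R m).card := by
      intro m hm
      exact Nat.ceil_le.2 (hpot m hm)
    have hsum : ∑ j ∈ T.biUnion R, Adc n th kp th1 g S j (z.1 + x) (z.2 + t) ≤
        36 * Cad538.Acc n th kp th g S M (z.1 + x) (z.2 + t) := by
      refine sum_Adc_le hth1 (fun j hj => ?_) (fun j hj m hm => ?_) _ _
      · obtain ⟨b, hb, hj⟩ := Finset.mem_biUnion.1 hj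
        exact (hRm b hb j hj).1
      · obtain ⟨b, hb, hj⟩ := Finset.mem_biUnion.1 hj
        have j2 := (hRm b hb j hj).2.1.1
        obtain ⟨m1, m2⟩ := mem_nearL.1 hm
        unfold Near at m2
        refine hMm m m1 ⟨b, hb, ?_⟩
        have e : cen th m - cen th1 b = (cen th1 j - cen th1 b) + (cen th m - cen th1 j) := by abel
        rw [e]
        exact (norm_add_le _ _).trans (add_le_add j2 m2.le)
    have key := row_abs T R (fun j => Adc n th kp th1 g S j (z.1 + x) (z.2 + t))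
      (K0 := ENNReal.ofReal (8 * K0)) hup hlow hp hmul (by
        rw [hA0, ← ENNReal.ofReal_mul (by positivity)]
        refine ENNReal.ofReal_le_ofReal (le_of_eq ?_)
        field_simp) hA0' ENNReal.ofReal_ne_top hsum
    have h7 : ENNReal.ofReal pp ≤ (⌈pp⌉₊ : ℝ≥0∞) := by
      rw [← ENNReal.ofReal_natCast]
      exact ENNReal.ofReal_le_ofReal (Nat.le_ceil pp)
    refine (mul_le_mul' h7 le_rfl).trans (key.trans (mul_le_mul' ?_ le_rfl))
    have hK1' : (K1 : ℝ≥0∞) ≤ ENNReal.ofReal ((2 * K + 1) ^ 2) := by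
      rw [← ENNReal.ofReal_natCast]
      exact ENNReal.ofReal_le_ofReal (Nat.floor_le (by positivity))
    calc ENNReal.ofReal c1 * ENNReal.ofReal (8 * K0) * ENNReal.ofReal c1 * (K1 : ℝ≥0∞) * 36
        ≤ ENNReal.ofReal c1 * ENNReal.ofReal (8 * K0) * ENNReal.ofReal c1 *
          ENNReal.ofReal ((2 * K + 1) ^ 2) * ENNReal.ofReal 36 := by
          gcongr
          norm_num
      _ = ENNReal.ofReal (288 * K0 * (201 + 21 * Y) ^ (2 * n) * (2 * K + 1) ^ 2) := by
          rw [← ENNReal.ofReal_mul hc1', ← ENNReal.ofReal_mul (by positivity),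
            ← ENNReal.ofReal_mul (by positivity), ← ENNReal.ofReal_mul (by positivity)]
          congr 1
          have e : 1 + (21 * Y + 200) = 201 + 21 * Y := by ring
          have e2 : (201 + 21 * Y) ^ (2 * n) = ((201 + 21 * Y) ^ n) ^ 2 := pow_mul' _ 2 n
          rw [hc1, e, e2]
          ring

/-! ### strip count -/

/-- the caps of one child cap with the same component orthogonally to `N` lie in a thin rectangle
around each of them. -/
theorem strip_rect {N : E2} {c : E2} {σ v : ℝ} {C C0 : E2} {u : E2}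
    (hu : ∀ w : E2, ‖orth N w‖ ≤ |(inner ℝ u w : ℝ)|) {κ : ℝ}
    (h1 : ‖C - c‖ ≤ σ) (h2 : ‖C0 - c‖ ≤ σ) (h3 : |(inner ℝ u C : ℝ) - κ| ≤ v)
    (h4 : |(inner ℝ u C0 : ℝ) - κ| ≤ v) : C ∈ RectF N C0 (2 * σ) (2 * v) := by
  refine ⟨?_, (hu _).trans ?_⟩
  · have e : C - C0 = (C - c) - (C0 - c) := by abel
    rw [e]
    exact (norm_sub_le _ _).trans (by linarith)
  · rw [inner_sub_right]
    have e : (inner ℝ u C : ℝ) - inner ℝ u C0 = (inner ℝ u C - κ) - (inner ℝ u C0 - κ) := by ring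
    rw [e]
    exact (abs_sub _ _).trans (by linarith)

/-- **strip count** of UPPER: a coherence bound in thin rectangles (`act m` = the cap `m` carries an
active packet through the plate of the point) bounds the number of active parent caps near `m'` in a
strip of width `th`. -/
theorem strip_countc {th th1 pp : ℝ} (hpp : 0 ≤ pp) (h01 : th ≤ th1) (hth : 0 ≤ th)
    {act : ℤ × ℤ → Prop} {N u : E2}
    (hu : ∀ w : E2, ‖orth N w‖ ≤ |(inner ℝ u w : ℝ)|)
    (hc : ∀ (c : E2) (M : Finset (ℤ × ℤ)), (∀ m ∈ M, m ∈ caps th ∧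
      cen th m ∈ RectF N c (8 * th1) (4 * th) ∧ act m) → (M.card : ℝ) ≤ pp)
    (m' : ℤ × ℤ) (κ : ℤ) :
    (Set.ncard {m | m ∈ nearL th th1 m' ∧ act m ∧
      |(inner ℝ u (cen th m) : ℝ) - κ * th| ≤ th} : ℝ) ≤ pp := by
  classical
  set M : Finset (ℤ × ℤ) := (nearL th th1 m').filter fun m => act m ∧
      |(inner ℝ u (cen th m) : ℝ) - κ * th| ≤ th with hM
  have e1 : {m | m ∈ nearL th th1 m' ∧ act m ∧
      |(inner ℝ u (cen th m) : ℝ) - κ * th| ≤ th} = (M : Set (ℤ × ℤ)) := by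
    ext m
    simp [hM]
  rw [e1, Set.ncard_coe_finset]
  rcases M.eq_empty_or_nonempty with hE | ⟨m0, hm0⟩
  · rw [hE]; simpa using hpp
  · refine hc (cen th m0) M fun m hm => ?_
    obtain ⟨h1, h2, h3⟩ := Finset.mem_filter.1 hm
    obtain ⟨h1', -, h3'⟩ := Finset.mem_filter.1 hm0
    have n1 : ‖cen th m - cen th1 m'‖ < 3 * th1 := (mem_nearL.1 h1).2
    have n2 : ‖cen th m0 - cen th1 m'‖ < 3 * th1 := (mem_nearL.1 h1').2
    have r := strip_rect hu n1.le n2.le h3 h3'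
    refine ⟨(mem_nearL.1 h1).1, ⟨r.1.trans ?_, r.2.trans ?_⟩, h2⟩
    · nlinarith
    · linarith

end Crest.Agent.R116.AlB888
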