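import Crest.Agent.R116.CDef_480

/-!
# R116 (S0155), wave side: MIS for the cone, part 1 (helper330): light planks

`pk C X0 w B r` = the plank of slope `C` through `X0` (at time `0`): lateral radius `w`, null
thickness `B`, length `r`.  Volumes, volume of an intersection, relative position of two planks
which meet, and the Cordoba sum of one arc.
-/

set_option autoImplicit false
set_option linter.unusedVariables false

open MeasureTheory
open scoped ENNReal

namespace Crest.Agent.R116.Mc330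

open Crest.Agent.R138.Defs (E2 ee)
open Crest.Agent.R116.CDef480

/-! ### volumes -/

/-- shear of `E3` straightening the null normal of slope `C`. -/
noncomputable def shC (C : E2) : E3 →ₗ[ℝ] E3 :=
  Matrix.toLpLin 2 2 !![1, 0, 0; 0, 1, 0; C 0, C 1, 1]

theorem shC_zero (C : E2) (X : E3) : shC C X 0 = X 0 := by
  simp [shC, Matrix.toLpLin_apply, dotProduct, Fin.sum_univ_three]

theorem shC_one (C : E2) (X : E3) : shC C X 1 = X 1 := by
  simp [shC, Matrix.toLpLin_apply, dotProduct, Fin.sum_univ_three]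

theorem shC_two (C : E2) (X : E3) : shC C X 2 = nrm C X 0 := by
  simp [shC, Matrix.toLpLin_apply, dotProduct, Fin.sum_univ_three, nrm, inner2]
  ring

theorem det_shC (C : E2) : LinearMap.det (shC C) = 1 := by
  unfold shC
  rw [Matrix.toLpLin_eq_toLin, LinearMap.det_toLin, Matrix.det_fin_three]
  simp

/-- volume of a coordinate box. -/
theorem vol_box (c w : Fin 3 → ℝ) (hw : ∀ i, 0 ≤ w i) :
    volume {X : E3 | ∀ i, |X i - c i| ≤ w i} = ENNReal.ofReal (8 * (w 0 * w 1 * w 2)) := by
  have e : {X : E3 | ∀ i, |X i - c i| ≤ w i} =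
      (MeasurableEquiv.toLp 2 (Fin 3 → ℝ)).symm ⁻¹'
        (Set.Icc (fun i => c i - w i) (fun i => c i + w i)) := by
    ext X
    simp only [Set.mem_ofPred_eq, Set.mem_preimage, Set.mem_Icc, Pi.le_def]
    constructor
    · intro h
      exact ⟨fun i => by have := (abs_le.1 (h i)).1; simp; linarith,
        fun i => by have := (abs_le.1 (h i)).2; simp; linarith⟩
    · rintro ⟨h1, h2⟩ i
      have a := h1 i
      have b := h2 i
      simp at a b
      exact abs_le.2 ⟨by linarith, by linarith⟩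
  rw [e, (EuclideanSpace.volume_preserving_symm_measurableEquiv_toLp (Fin 3)).measure_preimage
    measurableSet_Icc.nullMeasurableSet, Real.volume_Icc_pi]
  rw [Fin.prod_univ_three, ← ENNReal.ofReal_mul (by linarith [hw 0]), ← ENNReal.ofReal_mul (by
    have := hw 0; have := hw 1
    exact mul_nonneg (by linarith) (by linarith))]
  congr 1
  ring

/-- volume of a sheared box. -/
theorem vol_sbox (C : E2) (c w : Fin 3 → ℝ) (hw : ∀ i, 0 ≤ w i) :
    volume {X : E3 | ∀ i, |shC C X i - c i| ≤ w i} = ENNReal.ofReal (8 * (w 0 * w 1 * w 2)) := by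
  have e : {X : E3 | ∀ i, |shC C X i - c i| ≤ w i} =
      (shC C) ⁻¹' {X : E3 | ∀ i, |X i - c i| ≤ w i} := rfl
  rw [e, Measure.addHaar_preimage_linearMap _ (by rw [det_shC]; norm_num), vol_box c w hw, det_shC]
  simp

theorem abs_coord_le (x : E2) (i : Fin 2) : |x i| ≤ ‖x‖ := by
  have := PiLp.norm_apply_le x i
  simpa [Real.norm_eq_abs] using this

theorem norm_le_of_coord {x : E2} {w : ℝ} (h0 : |x 0| ≤ w) (h1 : |x 1| ≤ w) : ‖x‖ ≤ 2 * w := by
  have hw : 0 ≤ w := (abs_nonneg _).trans h0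
  have h : ‖x‖ ^ 2 ≤ (2 * w) ^ 2 := by
    rw [normsq2]
    have a := pow_le_pow_left₀ (abs_nonneg _) h0 2
    have b := pow_le_pow_left₀ (abs_nonneg _) h1 2
    rw [sq_abs] at a b
    nlinarith
  exact (pow_le_pow_iff_left₀ (norm_nonneg _) (by positivity) (by norm_num)).1 h

/-! ### planks -/

/-- the plank of slope `C` through `X0` (at time `0`). -/
def pk (C : E2) (X0 : E3) (w B r : ℝ) : Set (E3 × ℝ) :=
  {p | |p.2| ≤ r ∧ ‖lat p.1 - lat X0 + p.2 • C‖ ≤ w ∧ |nrm C p.1 p.2 - nrm C X0 0| ≤ B}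

theorem nrm_eq (C : E2) (X : E3) (s : ℝ) : nrm C X s = nrm C X 0 + s * ‖C‖ ^ 2 / 2 := by
  unfold nrm
  ring

theorem continuous_lat : Continuous lat := latL.continuous

theorem continuous_nrm (C : E2) : Continuous fun p : E3 × ℝ => nrm C p.1 p.2 := by
  unfold nrm
  have h1 : Continuous fun p : E3 × ℝ => p.1 2 :=
    (EuclideanSpace.proj (𝕜 := ℝ) (2 : Fin 3)).continuous.comp continuous_fst
  have h2 : Continuous fun p : E3 × ℝ => lat p.1 := continuous_lat.comp continuous_fst
  fun_prop

theorem isClosed_pk (C : E2) (X0 : E3) (w B r : ℝ) : IsClosed (pk C X0 w B r) := by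
  have h2 : Continuous fun p : E3 × ℝ => lat p.1 := continuous_lat.comp continuous_fst
  have h3 := continuous_nrm C
  have a1 : IsClosed {p : E3 × ℝ | |p.2| ≤ r} := isClosed_le continuous_snd.abs continuous_const
  have a2 : IsClosed {p : E3 × ℝ | ‖lat p.1 - lat X0 + p.2 • C‖ ≤ w} :=
    isClosed_le ((h2.sub continuous_const).add (continuous_snd.smul continuous_const)).norm
      continuous_const
  have a3 : IsClosed {p : E3 × ℝ | |nrm C p.1 p.2 - nrm C X0 0| ≤ B} :=
    isClosed_le (h3.sub continuous_const).abs continuous_const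
  exact a1.inter (a2.inter a3)

theorem meas_pk (C : E2) (X0 : E3) (w B r : ℝ) : MeasurableSet (pk C X0 w B r) :=
  (isClosed_pk C X0 w B r).measurableSet

/-- the slice of a plank. -/
theorem slice_le (C : E2) (X0 : E3) {w B : ℝ} (hw : 0 ≤ w) (hB : 0 ≤ B) (s : ℝ) :
    volume {X : E3 | ‖lat X - lat X0 + s • C‖ ≤ w ∧ |nrm C X s - nrm C X0 0| ≤ B} ≤
      ENNReal.ofReal (8 * (w * w * B)) := by
  have h := vol_sbox C ![X0 0 - s * C 0, X0 1 - s * C 1, nrm C X0 0 - s * ‖C‖ ^ 2 / 2] ![w, w, B]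
    (by intro i; fin_cases i <;> simp [hw, hB])
  simp only [Matrix.cons_val_zero, Matrix.cons_val_one, Matrix.cons_val] at h
  rw [← h]
  refine measure_mono ?_
  rintro X ⟨h1, h2⟩ i
  fin_cases i
  · have := (abs_coord_le (lat X - lat X0 + s • C) 0).trans h1
    simp only [PiLp.add_apply, PiLp.sub_apply, PiLp.smul_apply, smul_eq_mul, lat_zero] at this
    simp only [Fin.zero_eta, shC_zero]
    have e : X 0 - (![X0 0 - s * C 0, X0 1 - s * C 1, nrm C X0 0 - s * ‖C‖ ^ 2 / 2] : Fin 3 → ℝ) 0 =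
      X 0 - X0 0 + s * C 0 := by simp only [Matrix.cons_val_zero]; ring
    rw [e]
    exact this
  · have := (abs_coord_le (lat X - lat X0 + s • C) 1).trans h1
    simp only [PiLp.add_apply, PiLp.sub_apply, PiLp.smul_apply, smul_eq_mul, lat_one] at this
    simp only [Fin.mk_one, shC_one]
    have e : X 1 - (![X0 0 - s * C 0, X0 1 - s * C 1, nrm C X0 0 - s * ‖C‖ ^ 2 / 2] : Fin 3 → ℝ) 1 =
      X 1 - X0 1 + s * C 1 := by simp only [Matrix.cons_val_one, Matrix.cons_val_zero]; ring
    rw [e]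
    exact this
  · have e : shC C X 2 = nrm C X 0 := shC_two C X
    rw [nrm_eq] at h2
    have e2 : shC C X 2 - (nrm C X0 0 - s * ‖C‖ ^ 2 / 2) =
        nrm C X 0 + s * ‖C‖ ^ 2 / 2 - nrm C X0 0 := by rw [e]; ring
    show |shC C X 2 - (nrm C X0 0 - s * ‖C‖ ^ 2 / 2)| ≤ B
    rw [e2]
    exact h2

theorem le_slice (C : E2) (X0 : E3) {w B : ℝ} (hw : 0 ≤ w) (hB : 0 ≤ B) (s : ℝ) :
    ENNReal.ofReal (2 * (w * w * B)) ≤
    volume {X : E3 | ‖lat X - lat X0 + s • C‖ ≤ w ∧ |nrm C X s - nrm C X0 0| ≤ B} := by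
  have h := vol_sbox C ![X0 0 - s * C 0, X0 1 - s * C 1, nrm C X0 0 - s * ‖C‖ ^ 2 / 2]
    ![w / 2, w / 2, B] (by intro i; fin_cases i <;> simp <;> linarith)
  simp only [Matrix.cons_val_zero, Matrix.cons_val_one, Matrix.cons_val] at h
  have e : ENNReal.ofReal (2 * (w * w * B)) = ENNReal.ofReal (8 * (w / 2 * (w / 2) * B)) := by
    congr 1; ring
  rw [e, ← h]
  refine measure_mono ?_
  intro X hX
  have a0 := hX 0
  have a1 := hX 1
  have a2 : |shC C X 2 - (nrm C X0 0 - s * ‖C‖ ^ 2 / 2)| ≤ B := hX 2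
  rw [shC_zero] at a0
  rw [shC_one] at a1
  rw [shC_two] at a2
  simp only [Matrix.cons_val_zero] at a0
  simp only [Matrix.cons_val_one, Matrix.cons_val_zero] at a1
  refine ⟨?_, ?_⟩
  · refine (norm_le_of_coord (w := w / 2) ?_ ?_).trans (by linarith)
    · simp only [PiLp.add_apply, PiLp.sub_apply, PiLp.smul_apply, smul_eq_mul, lat_zero]
      have e : X 0 - X0 0 + s * C 0 = X 0 - (X0 0 - s * C 0) := by ring
      rw [e]; exact a0
    · simp only [PiLp.add_apply, PiLp.sub_apply, PiLp.smul_apply, smul_eq_mul, lat_one]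
      have e : X 1 - X0 1 + s * C 1 = X 1 - (X0 1 - s * C 1) := by ring
      rw [e]; exact a1
  · rw [nrm_eq]
    have e : nrm C X 0 + s * ‖C‖ ^ 2 / 2 - nrm C X0 0 =
      nrm C X 0 - (nrm C X0 0 - s * ‖C‖ ^ 2 / 2) := by ring
    rw [e]; exact a2

/-- Fubini in time. -/
theorem vol_fub {S : Set (E3 × ℝ)} (hS : MeasurableSet S) :
    volume S = ∫⁻ s : ℝ, volume {X : E3 | (X, s) ∈ S} := by
  rw [Measure.volume_eq_prod, Measure.prod_apply_symm hS]
  rfl

theorem vol_pk_le (C : E2) (X0 : E3) {w B r : ℝ} (hw : 0 ≤ w) (hB : 0 ≤ B) (hr : 0 ≤ r) :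
    volume (pk C X0 w B r) ≤ ENNReal.ofReal (16 * (w * w * B * r)) := by
  rw [vol_fub (meas_pk C X0 w B r)]
  calc ∫⁻ s : ℝ, volume {X : E3 | (X, s) ∈ pk C X0 w B r}
      ≤ ∫⁻ s : ℝ, (Set.Icc (-r) r).indicator (fun _ => ENNReal.ofReal (8 * (w * w * B))) s := by
        refine lintegral_mono fun s => ?_
        by_cases hs : s ∈ Set.Icc (-r) r
        · rw [Set.indicator_of_mem hs]
          refine (measure_mono ?_).trans (slice_le C X0 hw hB s)
          intro X hX
          exact hX.2
        · rw [Set.indicator_of_notMem hs]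
          have : {X : E3 | (X, s) ∈ pk C X0 w B r} = ∅ := by
            ext X
            simp only [Set.mem_ofPred_eq, Set.mem_empty_iff_false, iff_false]
            intro hX
            exact hs (abs_le.1 hX.1)
          rw [this]
          simp
    _ = ENNReal.ofReal (16 * (w * w * B * r)) := by
        rw [lintegral_indicator measurableSet_Icc, lintegral_const, Measure.restrict_apply_univ,
          Real.volume_Icc, ← ENNReal.ofReal_mul (by positivity)]
        congr 1
        ring

theorem le_vol_pk (C : E2) (X0 : E3) {w B r : ℝ} (hw : 0 ≤ w) (hB : 0 ≤ B) (hr : 0 ≤ r) :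
    ENNReal.ofReal (4 * (w * w * B * r)) ≤ volume (pk C X0 w B r) := by
  rw [vol_fub (meas_pk C X0 w B r)]
  calc ENNReal.ofReal (4 * (w * w * B * r))
      = ∫⁻ s : ℝ, (Set.Icc (-r) r).indicator (fun _ => ENNReal.ofReal (2 * (w * w * B))) s := by
        rw [lintegral_indicator measurableSet_Icc, lintegral_const, Measure.restrict_apply_univ,
          Real.volume_Icc, ← ENNReal.ofReal_mul (by positivity)]
        congr 1
        ring
    _ ≤ _ := by
        refine lintegral_mono fun s => ?_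
        by_cases hs : s ∈ Set.Icc (-r) r
        · rw [Set.indicator_of_mem hs]
          refine (le_slice C X0 hw hB s).trans (measure_mono ?_)
          intro X hX
          exact ⟨abs_le.2 hs, hX.1, hX.2⟩
        · rw [Set.indicator_of_notMem hs]
          exact bot_le

/-- **intersection of two planks**. -/
theorem vol_inter_le (C C' : E2) (X0 X0' : E3) {w B r : ℝ} (hw : 0 ≤ w) (hB : 0 ≤ B)
    (hC : C ≠ C') : volume (pk C X0 w B r ∩ pk C' X0' w B r) ≤
      ENNReal.ofReal (32 * (w * w * w * B) / ‖C' - C‖) := by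
  have hn : 0 < ‖C' - C‖ := norm_pos_iff.2 (sub_ne_zero.2 hC.symm)
  set e : E2 := C' - C with he
  set u : E2 := lat X0' - lat X0 with hu
  -- projection of the time
  set t0 : ℝ := inner ℝ u e / ‖e‖ ^ 2 with ht0
  rw [vol_fub ((meas_pk C X0 w B r).inter (meas_pk C' X0' w B r))]
  have key : ∀ s X, (X, s) ∈ pk C X0 w B r ∩ pk C' X0' w B r → |s - t0| ≤ 2 * w / ‖e‖ := by
    rintro s X ⟨h1, h2⟩
    have h3 : ‖u - s • e‖ ≤ 2 * w := by
      have e1 : u - s • e = (lat X - lat X0 + s • C) - (lat X - lat X0' + s • C') := by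
        rw [hu, he, smul_sub]; abel
      rw [e1]
      refine (norm_sub_le _ _).trans ?_
      have := h1.2.1
      have := h2.2.1
      linarith
    have h4 : |inner ℝ (u - s • e) e| ≤ 2 * w * ‖e‖ :=
      (abs_real_inner_le_norm _ _).trans (mul_le_mul_of_nonneg_right h3 (norm_nonneg _))
    have h5 : inner ℝ (u - s • e) e = (t0 - s) * ‖e‖ ^ 2 := by
      rw [inner_sub_left, real_inner_smul_left, real_inner_self_eq_norm_sq, ht0]
      field_simp
    rw [h5, abs_mul, abs_of_nonneg (sq_nonneg ‖e‖), abs_sub_comm] at h4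
    rw [le_div_iff₀ hn]
    have h6 : |s - t0| * ‖e‖ * ‖e‖ ≤ 2 * w * ‖e‖ := by
      calc |s - t0| * ‖e‖ * ‖e‖ = |s - t0| * ‖e‖ ^ 2 := by ring
        _ ≤ _ := h4
    exact le_of_mul_le_mul_right h6 hn
  calc ∫⁻ s : ℝ, volume {X : E3 | (X, s) ∈ pk C X0 w B r ∩ pk C' X0' w B r}
      ≤ ∫⁻ s : ℝ, (Set.Icc (t0 - 2 * w / ‖e‖) (t0 + 2 * w / ‖e‖)).indicator
          (fun _ => ENNReal.ofReal (8 * (w * w * B))) s := by
        refine lintegral_mono fun s => ?_
        by_cases hs : s ∈ Set.Icc (t0 - 2 * w / ‖e‖) (t0 + 2 * w / ‖e‖)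
        · rw [Set.indicator_of_mem hs]
          refine (measure_mono ?_).trans (slice_le C X0 hw hB s)
          intro X hX
          exact hX.1.2
        · rw [Set.indicator_of_notMem hs]
          have : {X : E3 | (X, s) ∈ pk C X0 w B r ∩ pk C' X0' w B r} = ∅ := by
            ext X
            simp only [Set.mem_ofPred_eq, Set.mem_empty_iff_false, iff_false]
            intro hX
            have := abs_le.1 (key s X hX)
            exact hs ⟨by linarith [this.1], by linarith [this.2]⟩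
          rw [this]
          simp
    _ = ENNReal.ofReal (32 * (w * w * w * B) / ‖e‖) := by
        rw [lintegral_indicator measurableSet_Icc, lintegral_const, Measure.restrict_apply_univ,
          Real.volume_Icc, ← ENNReal.ofReal_mul (by positivity)]
        congr 1
        field_simp
        ring

end Crest.Agent.R116.Mc330
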