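import Crest.Agent.R116.SmC1_339

/-!
# R116 (S0155), wave side, AL-CONE (helper339): SUPM-C, part 2

One frame; many frames (general kernels).
-/

set_option autoImplicit false

open MeasureTheory
open scoped ENNReal

namespace Crest.Agent.R116.SmC339

variable {E : Type} [NormedAddCommGroup E] [InnerProductSpace ℝ E] [FiniteDimensional ℝ E]
  [MeasurableSpace E] [BorelSpace E]

/-- **one frame, one time.** -/
theorem slice_mult {M I : Type} [Fintype M] [Fintype I] {k : M → E → ℝ≥0∞} {v : M → E}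
    {U : M → E → ℝ≥0∞} {S : I → M → Set E} (hS : ∀ i m, MeasurableSet (S i m))
    (hk : ∀ m, Measurable (k m))
    (hU : ∀ m, Measurable (U m)) {q : M → Set E} (hq : ∀ m, MeasurableSet (q m))
    {c0 Vq W Lam Mu τ CQ CG : ℝ} (hc0 : 0 < c0) (hVq : 0 < Vq) (hW : 0 < W) (hLam : 0 < Lam)
    (hMu : 0 ≤ Mu) (hτ : 0 ≤ τ) (hCQ : 0 ≤ CQ) (hCG : 0 ≤ CG)
    (hqk : ∀ m, ∀ u ∈ q m, ENNReal.ofReal c0 ≤ k m u)
    (hqV : ∀ m, ENNReal.ofReal Vq ≤ volume (q m))
    (hQ : ∀ m, ∫⁻ u, k m u ≤ ENNReal.ofReal (CQ * Vq)) (t : ℝ)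
    (R : I → Set E) (hRm : ∀ i, MeasurableSet (R i))
    (hR : ∀ i m, ∀ y ∈ S i m, ∀ u ∈ q m, y - t • v m - u ∈ R i)
    (hRV : ∀ i, volume (R i) ≤ ENNReal.ofReal (Lam * W)) (G : E → ℝ≥0∞) (hG : Measurable G)
    (hH : ∀ i, ∀ x ∈ R i, seK k v U (S i) x t ≤
      ENNReal.ofReal Vq * (ENNReal.ofReal (Mu / Lam) * G x + ENNReal.ofReal τ))
    (hsum : ∀ x, ∑ i, seK k v U (S i) x t ≤ ENNReal.ofReal (CG * Vq) * G x)
    (T : Set E) (hT : ∀ i, R i ⊆ T) :
    ∑ i, ENNReal.ofReal (W ^ (-(1/2) : ℝ)) * enK U (S i) ^ (3 / 2 : ℝ) ≤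
      ENNReal.ofReal (c0 ^ (-(3/2) : ℝ) * CG * Mu ^ (1 / 2 : ℝ)) * (∫⁻ x in T, G x ^ (3 / 2 : ℝ)) +
        ENNReal.ofReal (c0 ^ (-(3/2) : ℝ) * CQ * (Lam * τ) ^ (1 / 2 : ℝ)) * ∑ i, enK U (S i) := by
  have hc1 : 0 ≤ c0 ^ (-(3/2) : ℝ) := (Real.rpow_pos_of_pos hc0 _).le
  have hone : ∀ i, ENNReal.ofReal (W ^ (-(1/2) : ℝ)) * enK U (S i) ^ (3 / 2 : ℝ) ≤
      ENNReal.ofReal (c0 ^ (-(3/2) : ℝ) * Mu ^ (1 / 2 : ℝ) * Vq⁻¹) *
        (∫⁻ x in T, seK k v U (S i) x t * G x ^ (1 / 2 : ℝ)) +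
      ENNReal.ofReal (c0 ^ (-(3/2) : ℝ) * CQ * (Lam * τ) ^ (1 / 2 : ℝ)) * enK U (S i) := by
    intro i
    have h1 := one_plate (hS i) hk hU hq hc0 hVq hW hLam hMu hτ hqk hqV t (R i) (hRm i) (hR i)
      (hRV i) G hG (hH i)
    refine h1.trans ?_
    rw [mul_add]
    refine add_le_add ?_ ?_
    · rw [← mul_assoc, ← ENNReal.ofReal_mul (by positivity)]
      refine mul_le_mul' (le_of_eq ?_) (lintegral_mono_set (hT i))
      congr 1; ring
    · have h2 : ∫⁻ x in R i, seK k v U (S i) x t ≤ ENNReal.ofReal (CQ * Vq) * enK U (S i) :=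
        (setLIntegral_le_lintegral _ _).trans (int_seK_le (hS i) hk hU hQ t)
      calc ENNReal.ofReal (c0 ^ (-(3/2) : ℝ) * Vq⁻¹) * (ENNReal.ofReal ((Lam * τ) ^ (1 / 2 : ℝ)) *
            ∫⁻ x in R i, seK k v U (S i) x t)
          ≤ ENNReal.ofReal (c0 ^ (-(3/2) : ℝ) * Vq⁻¹) * (ENNReal.ofReal ((Lam * τ) ^ (1 / 2 : ℝ)) *
            (ENNReal.ofReal (CQ * Vq) * enK U (S i))) := by gcongr
        _ = _ := by
            rw [← mul_assoc, ← mul_assoc, ← ENNReal.ofReal_mul (by positivity),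
              ← ENNReal.ofReal_mul (by positivity)]
            congr 2
            field_simp
  have hms : ∀ i, Measurable fun x => seK k v U (S i) x t := fun i =>
    measurable_seK v (S i) t hk hU
  have hGh : Measurable fun x => G x ^ (1 / 2 : ℝ) := hG.pow_const _
  calc ∑ i, ENNReal.ofReal (W ^ (-(1/2) : ℝ)) * enK U (S i) ^ (3 / 2 : ℝ)
      ≤ ∑ i, (ENNReal.ofReal (c0 ^ (-(3/2) : ℝ) * Mu ^ (1 / 2 : ℝ) * Vq⁻¹) *
        (∫⁻ x in T, seK k v U (S i) x t * G x ^ (1 / 2 : ℝ)) +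
      ENNReal.ofReal (c0 ^ (-(3/2) : ℝ) * CQ * (Lam * τ) ^ (1 / 2 : ℝ)) * enK U (S i)) :=
        Finset.sum_le_sum fun i _ => hone i
    _ = ENNReal.ofReal (c0 ^ (-(3/2) : ℝ) * Mu ^ (1 / 2 : ℝ) * Vq⁻¹) *
        (∫⁻ x in T, (∑ i, seK k v U (S i) x t) * G x ^ (1 / 2 : ℝ)) +
      ENNReal.ofReal (c0 ^ (-(3/2) : ℝ) * CQ * (Lam * τ) ^ (1 / 2 : ℝ)) * ∑ i, enK U (S i) := by
        rw [Finset.sum_add_distrib, ← Finset.mul_sum, ← Finset.mul_sum, ← lintegral_finsetSum]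
        · congr 2
          refine lintegral_congr fun x => ?_
          rw [Finset.sum_mul]
        · intro i _
          exact (hms i).mul hGh
    _ ≤ ENNReal.ofReal (c0 ^ (-(3/2) : ℝ) * Mu ^ (1 / 2 : ℝ) * Vq⁻¹) *
        (∫⁻ x in T, ENNReal.ofReal (CG * Vq) * G x ^ (3 / 2 : ℝ)) +
      ENNReal.ofReal (c0 ^ (-(3/2) : ℝ) * CQ * (Lam * τ) ^ (1 / 2 : ℝ)) * ∑ i, enK U (S i) := by
        refine add_le_add (mul_le_mul' le_rfl (lintegral_mono fun x => ?_)) le_rfl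
        rw [rpow_three_half, ← mul_assoc]
        exact mul_le_mul' (hsum x) le_rfl
    _ = _ := by
        rw [lintegral_const_mul' _ _ ENNReal.ofReal_ne_top, ← mul_assoc,
          ← ENNReal.ofReal_mul (by positivity)]
        congr 3
        field_simp

/-- **one frame.** -/
theorem frame_mult {M I : Type} [Fintype M] [Fintype I] {k : M → E → ℝ≥0∞} {v : M → E}
    {U : M → E → ℝ≥0∞} {S : I → M → Set E} (hS : ∀ i m, MeasurableSet (S i m))
    (hk : ∀ m, Measurable (k m))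
    (hU : ∀ m, Measurable (U m)) {q : M → Set E} (hq : ∀ m, MeasurableSet (q m))
    {c0 Vq W Lam Mu τ CQ CG : ℝ} (hc0 : 0 < c0) (hVq : 0 < Vq) (hW : 0 < W) (hLam : 0 < Lam)
    (hMu : 0 ≤ Mu) (hτ : 0 ≤ τ) (hCQ : 0 ≤ CQ) (hCG : 0 ≤ CG)
    (hqk : ∀ m, ∀ u ∈ q m, ENNReal.ofReal c0 ≤ k m u)
    (hqV : ∀ m, ENNReal.ofReal Vq ≤ volume (q m))
    (hQ : ∀ m, ∫⁻ u, k m u ≤ ENNReal.ofReal (CQ * Vq)) {r : ℝ} (hr : 0 < r)
    (R : I → ℝ → Set E) (hRm : ∀ i t, |t| ≤ r → MeasurableSet (R i t))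
    (hR : ∀ i t, |t| ≤ r → ∀ m, ∀ y ∈ S i m, ∀ u ∈ q m, y - t • v m - u ∈ R i t)
    (hRV : ∀ i t, |t| ≤ r → volume (R i t) ≤ ENNReal.ofReal (Lam * W))
    (G : E × ℝ → ℝ≥0∞) (hG : Measurable G)
    (hH : ∀ i t, |t| ≤ r → ∀ x ∈ R i t, seK k v U (S i) x t ≤
      ENNReal.ofReal Vq * (ENNReal.ofReal (Mu / Lam) * G (x, t) + ENNReal.ofReal τ))
    (hsum : ∀ x t, |t| ≤ r → ∑ i, seK k v U (S i) x t ≤ ENNReal.ofReal (CG * Vq) * G (x, t))
    (T : Set (E × ℝ)) (hTm : MeasurableSet T)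
    (hT : ∀ i t, |t| ≤ r → ∀ x ∈ R i t, (x, t) ∈ T) :
    ∑ i, ENNReal.ofReal (r * W ^ (-(1/2) : ℝ)) * enK U (S i) ^ (3 / 2 : ℝ) ≤
      ENNReal.ofReal (c0 ^ (-(3/2) : ℝ) * CG * Mu ^ (1 / 2 : ℝ)) * (∫⁻ p in T, G p ^ (3 / 2 : ℝ)) +
        ENNReal.ofReal (2 * c0 ^ (-(3/2) : ℝ) * CQ * (Lam * τ) ^ (1 / 2 : ℝ)) *
          (ENNReal.ofReal r * ∑ i, enK U (S i)) := by
  have hc1 : 0 ≤ c0 ^ (-(3/2) : ℝ) := (Real.rpow_pos_of_pos hc0 _).le
  set En := ∑ i, enK U (S i) with hEn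
  set Y := ∑ i, ENNReal.ofReal (W ^ (-(1/2) : ℝ)) * enK U (S i) ^ (3 / 2 : ℝ) with hY
  set Q1 : ℝ := c0 ^ (-(3/2) : ℝ) * CG * Mu ^ (1 / 2 : ℝ) with hQ1
  set Q2 : ℝ := c0 ^ (-(3/2) : ℝ) * CQ * (Lam * τ) ^ (1 / 2 : ℝ) with hQ2
  have hQ10 : 0 ≤ Q1 := by positivity
  have hQ20 : 0 ≤ Q2 := by positivity
  have hslice : ∀ t ∈ Set.Icc (-r) r, Y ≤ ENNReal.ofReal Q1 *
      (∫⁻ x, T.indicator (fun z => G z ^ (3 / 2 : ℝ)) (x, t)) + ENNReal.ofReal Q2 * En := by
    intro t ht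
    have ht' : |t| ≤ r := abs_le.2 ht
    have hTt : MeasurableSet ((fun x : E => ((x, t) : E × ℝ)) ⁻¹' T) :=
      hTm.preimage (measurable_id.prodMk measurable_const)
    have h2 := slice_mult hS hk hU hq hc0 hVq hW hLam hMu hτ hCQ hCG hqk hqV hQ t
      (fun i => R i t) (fun i => hRm i t ht') (fun i => hR i t ht') (fun i => hRV i t ht')
      (fun x => G (x, t)) (hG.comp (measurable_id.prodMk measurable_const))
      (fun i => hH i t ht') (fun x => hsum x t ht')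
      ((fun x => ((x, t) : E × ℝ)) ⁻¹' T) (fun i x hx => hT i t ht' x hx)
    refine h2.trans (add_le_add (le_of_eq ?_) le_rfl)
    rw [← lintegral_indicator hTt]
    congr 1
  have hm : Measurable (T.indicator (fun z => G z ^ (3 / 2 : ℝ))) :=
    (hG.pow_const _).indicator hTm
  have hfin : ENNReal.ofReal (2 * r) * Y ≤ ENNReal.ofReal Q1 * (∫⁻ z in T, G z ^ (3 / 2 : ℝ)) +
        ENNReal.ofReal (2 * r) * (ENNReal.ofReal Q2 * En) := by
    calc ENNReal.ofReal (2 * r) * Y = ∫⁻ _t in Set.Icc (-r) r, Y := by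
          rw [setLIntegral_const, Real.volume_Icc, mul_comm]
          congr 2; ring
      _ ≤ ∫⁻ t in Set.Icc (-r) r, (ENNReal.ofReal Q1 *
            (∫⁻ x, T.indicator (fun z => G z ^ (3 / 2 : ℝ)) (x, t)) + ENNReal.ofReal Q2 * En) :=
          setLIntegral_mono' measurableSet_Icc hslice
      _ = ENNReal.ofReal Q1 * (∫⁻ t in Set.Icc (-r) r,
            ∫⁻ x, T.indicator (fun z => G z ^ (3 / 2 : ℝ)) (x, t)) +
            ENNReal.ofReal (2 * r) * (ENNReal.ofReal Q2 * En) := by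
          rw [lintegral_add_right _ measurable_const, lintegral_const_mul' _ _ ENNReal.ofReal_ne_top,
            setLIntegral_const, Real.volume_Icc, mul_comm (ENNReal.ofReal Q2 * En)]
          congr 3; ring
      _ ≤ ENNReal.ofReal Q1 * (∫⁻ t,
            ∫⁻ x, T.indicator (fun z => G z ^ (3 / 2 : ℝ)) (x, t)) +
            ENNReal.ofReal (2 * r) * (ENNReal.ofReal Q2 * En) := by
          gcongr
          exact Measure.restrict_le_self
      _ = _ := by
          rw [← lintegral_indicator hTm, Measure.volume_eq_prod,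
            lintegral_prod_symm _ hm.aemeasurable]
  calc ∑ i, ENNReal.ofReal (r * W ^ (-(1/2) : ℝ)) * enK U (S i) ^ (3 / 2 : ℝ)
      = ENNReal.ofReal r * Y := by
        rw [hY, Finset.mul_sum]
        refine Finset.sum_congr rfl fun i _ => ?_
        rw [ENNReal.ofReal_mul hr.le, mul_assoc]
    _ ≤ ENNReal.ofReal (2 * r) * Y := by
        gcongr
        linarith
    _ ≤ _ := hfin
    _ = _ := by
        rw [← mul_assoc (ENNReal.ofReal (2 * r)), ← mul_assoc (ENNReal.ofReal (2 * _ * _ * _)),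
          ← ENNReal.ofReal_mul (by positivity), ← ENNReal.ofReal_mul (by positivity)]
        congr 3
        rw [hQ2]; ring

/-- packing -/
theorem card_sep_le {r K : ℝ} (hr : 0 < r) (hK : 0 ≤ K) (Z : Finset (E × ℝ))
    (hsep : ∀ x ∈ Z, ∀ y ∈ Z, x ≠ y → r ≤ dist x y) (p : E × ℝ) (hp : ∀ x ∈ Z, dist x p ≤ K * r) :
    (Z.card : ℝ) ≤ (2 * K + 2) ^ (Module.finrank ℝ (E × ℝ)) := by
  classical
  have : (volume : Measure (E × ℝ)).IsAddHaarMeasure := by
    rw [Measure.volume_eq_prod]; infer_instance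
  set d := Module.finrank ℝ (E × ℝ) with hd
  have hsub : (⋃ x ∈ Z, Metric.ball x (r / 2)) ⊆ Metric.ball p ((K + 1) * r) := by
    intro y hy
    simp only [Set.mem_iUnion] at hy
    obtain ⟨x, hx, hyx⟩ := hy
    rw [Metric.mem_ball] at hyx ⊢
    have := dist_triangle y x p
    have := hp x hx
    nlinarith
  have hdisj : Set.PairwiseDisjoint (↑Z) (fun x : E × ℝ => Metric.ball x (r / 2)) := by
    intro x hx y hy hxy
    rw [Function.onFun, Set.disjoint_left]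
    intro q hq1 hq2
    rw [Metric.mem_ball] at hq1 hq2
    have h1 := hsep x hx y hy hxy
    have h2 := dist_triangle_left x y q
    linarith
  have h1 : (volume : Measure (E × ℝ)) (⋃ x ∈ Z, Metric.ball x (r / 2))
      = Z.card * (ENNReal.ofReal ((r / 2) ^ d) * volume (Metric.ball (0 : E × ℝ) 1)) := by
    rw [measure_biUnion_finset hdisj fun x _ => measurableSet_ball]
    have : ∀ x ∈ Z, (volume : Measure (E × ℝ)) (Metric.ball x (r / 2))
        = ENNReal.ofReal ((r / 2) ^ d) * volume (Metric.ball (0 : E × ℝ) 1) := by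
      intro x _
      rw [Measure.addHaar_ball_of_pos _ _ (by positivity)]
    rw [Finset.sum_congr rfl this, Finset.sum_const, nsmul_eq_mul]
  have h2 : (volume : Measure (E × ℝ)) (Metric.ball p ((K + 1) * r))
      = ENNReal.ofReal (((K + 1) * r) ^ d) * volume (Metric.ball (0 : E × ℝ) 1) := by
    rw [Measure.addHaar_ball_of_pos _ _ (by positivity)]
  have h3 := measure_mono (μ := (volume : Measure (E × ℝ))) hsub
  rw [h1, h2, ← mul_assoc] at h3
  have h4 : (volume : Measure (E × ℝ)) (Metric.ball (0 : E × ℝ) 1) ≠ 0 :=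
    (Metric.measure_ball_pos _ _ one_pos).ne'
  have h5 : (volume : Measure (E × ℝ)) (Metric.ball (0 : E × ℝ) 1) ≠ ⊤ := measure_ball_lt_top.ne
  rw [ENNReal.mul_le_mul_iff_left h4 h5] at h3
  rw [← ENNReal.ofReal_natCast, ← ENNReal.ofReal_mul (by positivity),
    ENNReal.ofReal_le_ofReal_iff (by positivity)] at h3
  have h6 : (0:ℝ) < (r / 2) ^ d := by positivity
  have h7 : (Z.card : ℝ) * (r / 2) ^ d ≤ (2 * K + 2) ^ d * (r / 2) ^ d := by
    refine h3.trans (le_of_eq ?_)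
    rw [← mul_pow]
    congr 1
    ring
  exact le_of_mul_le_mul_right h7 h6

/-- the region of one frame. -/
def reg (K r : ℝ) : Set (E × ℝ) := Metric.closedBall 0 (K * r)

/-- the cylinder. -/
def cy (R : ℝ) : Set (E × ℝ) := {p | ‖p.1‖ ≤ R ∧ |p.2| ≤ R}

theorem measurableSet_cy (R : ℝ) : MeasurableSet (cy R : Set (E × ℝ)) :=
  (isClosed_le (f := fun p : E × ℝ => ‖p.1‖) (by fun_prop) continuous_const).measurableSet.inter
      (isClosed_le (f := fun p : E × ℝ => |p.2|) (by fun_prop) continuous_const).measurableSet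

/-- bounded overlap of the frames, general density. -/
theorem sum_framesG {K r R : ℝ} (hr : 0 < r) (hK : 0 ≤ K) (hR : K * r ≤ R)
    (Z : Finset (E × ℝ)) (hsep : ∀ x ∈ Z, ∀ y ∈ Z, x ≠ y → r ≤ dist x y)
    (hZ : ∀ x ∈ Z, x ∈ cy R) (F : E × ℝ → ℝ≥0∞) (hm : Measurable F) :
    ∑ z ∈ Z, ∫⁻ p in reg K r, F (p + z) ≤
      ENNReal.ofReal ((2 * K + 2) ^ (Module.finrank ℝ (E × ℝ))) * ∫⁻ p in cy (2 * R), F p := by
  classical
  have : (volume : Measure (E × ℝ)).IsAddHaarMeasure := by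
    rw [Measure.volume_eq_prod]; infer_instance
  have hreg : MeasurableSet (reg K r : Set (E × ℝ)) := Metric.isClosed_closedBall.measurableSet
  have hcyl : MeasurableSet (cy (2 * R) : Set (E × ℝ)) := measurableSet_cy _
  have e1 : ∀ z, ∫⁻ p in reg K r, F (p + z)
      = ∫⁻ q, (reg K r).indicator (fun _ => (1 : ℝ≥0∞)) (q - z) * F q := by
    intro z
    rw [← lintegral_indicator hreg, ← lintegral_add_right_eq_self
      (fun q => (reg K r).indicator (fun _ => (1 : ℝ≥0∞)) (q - z) * F q) z]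
    refine lintegral_congr fun p => ?_
    rw [add_sub_cancel_right]
    by_cases hp : p ∈ reg K r
    · rw [Set.indicator_of_mem hp, Set.indicator_of_mem hp, one_mul]
    · rw [Set.indicator_of_notMem hp, Set.indicator_of_notMem hp, zero_mul]
  have hind : ∀ z, Measurable fun q : E × ℝ => (reg K r).indicator (fun _ => (1 : ℝ≥0∞)) (q - z) :=
    fun z => (measurable_const.indicator hreg).comp (measurable_id.sub_const z)
  simp_rw [e1]
  have hsum := lintegral_finsetSum (μ := (volume : Measure (E × ℝ))) Z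
    (f := fun z q => (reg K r).indicator (fun _ => (1 : ℝ≥0∞)) (q - z) * F q)
    (fun z _ => (hind z).mul hm)
  rw [← hsum, ← lintegral_const_mul _ hm, ← lintegral_indicator hcyl]
  refine lintegral_mono fun q => ?_
  rw [← Finset.sum_mul]
  by_cases hq : q ∈ (cy (2 * R) : Set (E × ℝ))
  · rw [Set.indicator_of_mem hq]
    gcongr
    have h1 : ∑ z ∈ Z, (reg K r).indicator (fun _ => (1 : ℝ≥0∞)) (q - z)
        = ((Z.filter fun z => q - z ∈ reg K r).card : ℝ≥0∞) := by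
      rw [Finset.card_filter]
      push_cast
      refine Finset.sum_congr rfl fun z _ => ?_
      by_cases hz : q - z ∈ reg K r
      · simp [hz]
      · simp [hz]
    rw [h1, ← ENNReal.ofReal_natCast]
    refine ENNReal.ofReal_le_ofReal ?_
    refine card_sep_le hr hK _ ?_ q ?_
    · intro x hx y hy
      exact hsep x (Finset.mem_filter.1 hx).1 y (Finset.mem_filter.1 hy).1
    · intro x hx
      have := (Finset.mem_filter.1 hx).2
      rw [reg, mem_closedBall_zero_iff] at this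
      rw [dist_comm, dist_eq_norm]; exact this
  · rw [Set.indicator_of_notMem hq]
    refine le_of_eq ?_
    rw [Finset.sum_eq_zero, zero_mul]
    intro z hz
    rw [Set.indicator_of_notMem]
    intro hqz
    apply hq
    rw [reg, mem_closedBall_zero_iff, Prod.norm_def, max_le_iff] at hqz
    have h2 := hZ z hz
    obtain ⟨h3, h4⟩ := hqz
    have h5 : ‖q.1‖ ≤ ‖(q - z).1‖ + ‖z.1‖ := by
      calc ‖q.1‖ = ‖(q - z).1 + z.1‖ := by rw [Prod.fst_sub, sub_add_cancel]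
        _ ≤ _ := norm_add_le _ _
    have h6 : |q.2| ≤ |(q - z).2| + |z.2| := by
      calc |q.2| = |(q - z).2 + z.2| := by rw [Prod.snd_sub, sub_add_cancel]
        _ ≤ _ := abs_add_le _ _
    rw [Real.norm_eq_abs] at h4
    constructor
    · have := h2.1
      linarith
    · have := h2.2
      linarith

end Crest.Agent.R116.SmC339
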