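import Mathlib

/-!
# R116 (S0155), wave side: the tube step, measure-space form (helper373)

`Z` = frames of the child level, `Mc` = child caps, `Tc` = big caps (size `θ_k`), `Q z m` = plates
of the union of the selections of the cap `m` in the frame `z`, `a m` = density of the parents near
the child cap `m`, `A t` = density of the parents in the big cap `t`.
-/

set_option autoImplicit false

open MeasureTheory
open scoped ENNReal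

namespace Crest.Agent.R116.Tu373

theorem le_rpow_of_le {x lam : ℝ≥0∞} (h0 : lam ≠ 0) (ht : lam ≠ ⊤) (h : lam ≤ x) :
    x ≤ lam ^ (-(1/2) : ℝ) * x ^ (3/2 : ℝ) := by
  have e : x ^ (3/2 : ℝ) = x ^ (1/2 : ℝ) * x := by
    rw [show (3/2 : ℝ) = 1/2 + 1 by norm_num,
      ENNReal.rpow_add_of_nonneg _ _ (by norm_num) (by norm_num), ENNReal.rpow_one]
  rw [e, ← mul_assoc]
  have h1 : 1 ≤ lam ^ (-(1/2) : ℝ) * x ^ (1/2 : ℝ) := by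
    calc (1 : ℝ≥0∞) = lam ^ (-(1/2) : ℝ) * lam ^ (1/2 : ℝ) := by
          rw [← ENNReal.rpow_add _ _ h0 ht]; norm_num
      _ ≤ _ := by gcongr
  calc x = 1 * x := (one_mul x).symm
    _ ≤ _ := mul_le_mul' h1 le_rfl

open Classical in
/-- **level set form of the multiplicity.** -/
theorem sum_int_le {X ζ κ τ : Type*} [MeasurableSpace X] (μ : Measure X)
    (Z : Finset ζ) (Mc : Finset κ) (Tc : Finset τ) (tau : κ → τ) (htau : ∀ m ∈ Mc, tau m ∈ Tc)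
    (a : κ → X → ℝ≥0∞) (A : τ → X → ℝ≥0∞) (Q : ζ → κ → Set X)
    (hA : ∀ t ∈ Tc, Measurable (A t)) (ha : ∀ m ∈ Mc, Measurable (a m))
    (hQ : ∀ z ∈ Z, ∀ m ∈ Mc, MeasurableSet (Q z m))
    (N0 : ℕ) (hN0 : ∀ m ∈ Mc, ∀ x, (Z.filter fun z => x ∈ Q z m).card ≤ N0)
    (N1 : ℝ≥0∞) (hN1 : ∀ t ∈ Tc, ∀ x, ∑ m ∈ Mc.filter (fun m => tau m = t), a m x ≤ N1 * A t x)
    (lam : ℝ≥0∞) (hl0 : lam ≠ 0) (hlt : lam ≠ ⊤)
    (hlam : ∀ z ∈ Z, ∀ m ∈ Mc, ∀ x ∈ Q z m, lam ≤ A (tau m) x) :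
    ∑ z ∈ Z, ∑ m ∈ Mc, ∫⁻ x in Q z m, a m x ∂μ ≤
      (N0 * N1 * lam ^ (-(1/2) : ℝ)) * ∑ t ∈ Tc, ∫⁻ x, A t x ^ (3/2 : ℝ) ∂μ := by
  have hm : ∀ z ∈ Z, ∀ m ∈ Mc, Measurable ((Q z m).indicator (a m)) := fun z hz m hmm =>
    (ha m hmm).indicator (hQ z hz m hmm)
  have e1 : ∑ z ∈ Z, ∑ m ∈ Mc, ∫⁻ x in Q z m, a m x ∂μ =
      ∫⁻ x, ∑ z ∈ Z, ∑ m ∈ Mc, (Q z m).indicator (a m) x ∂μ := by
    rw [lintegral_finsetSum _ fun z hz => Finset.measurable_fun_sum _ fun m hmm => hm z hz m hmm]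
    refine Finset.sum_congr rfl fun z hz => ?_
    rw [lintegral_finsetSum _ fun m hmm => hm z hz m hmm]
    refine Finset.sum_congr rfl fun m hmm => ?_
    rw [lintegral_indicator (hQ z hz m hmm)]
  have hA3 : ∀ t ∈ Tc, Measurable (fun x => A t x ^ (3/2 : ℝ)) := fun t ht => (hA t ht).pow_const _
  rw [e1, ← lintegral_finsetSum _ hA3,
    ← lintegral_const_mul _ (Finset.measurable_fun_sum _ hA3)]
  refine lintegral_mono fun x => ?_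
  -- pointwise
  have h1 : ∑ z ∈ Z, ∑ m ∈ Mc, (Q z m).indicator (a m) x ≤
      N0 * ∑ m ∈ Mc, if lam ≤ A (tau m) x then a m x else 0 := by
    rw [Finset.sum_comm, Finset.mul_sum]
    refine Finset.sum_le_sum fun m hmm => ?_
    by_cases hx : lam ≤ A (tau m) x
    · rw [if_pos hx]
      calc ∑ z ∈ Z, (Q z m).indicator (a m) x =
            ∑ z ∈ Z.filter (fun z => x ∈ Q z m), a m x := by
            rw [Finset.sum_filter]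
            refine Finset.sum_congr rfl fun z _ => ?_
            by_cases hz : x ∈ Q z m
            · rw [Set.indicator_of_mem hz, if_pos hz]
            · rw [Set.indicator_of_notMem hz, if_neg hz]
        _ = ((Z.filter fun z => x ∈ Q z m).card : ℝ≥0∞) * a m x := by
            rw [Finset.sum_const, nsmul_eq_mul]
        _ ≤ N0 * a m x := mul_le_mul' (by exact_mod_cast hN0 m hmm x) le_rfl
    · rw [if_neg hx, mul_zero]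
      refine (Finset.sum_eq_zero fun z hz => ?_).le
      exact Set.indicator_of_notMem (fun hxq => hx (hlam z hz m hmm x hxq)) _
  have h2 : ∑ m ∈ Mc, (if lam ≤ A (tau m) x then a m x else 0) ≤
      ∑ t ∈ Tc, if lam ≤ A t x then N1 * A t x else 0 := by
    have e2 : ∑ m ∈ Mc, (if lam ≤ A (tau m) x then a m x else 0) =
        ∑ t ∈ Tc, ∑ m ∈ Mc.filter (fun m => tau m = t),
          (if lam ≤ A (tau m) x then a m x else 0) :=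
      (Finset.sum_fiberwise_of_maps_to htau _).symm
    rw [e2]
    refine Finset.sum_le_sum fun t ht => ?_
    by_cases hx : lam ≤ A t x
    · rw [if_pos hx]
      refine (Finset.sum_le_sum fun m hmm => ?_).trans (hN1 t ht x)
      split_ifs
      · exact le_rfl
      · exact zero_le
    · rw [if_neg hx]
      refine (Finset.sum_eq_zero fun m hmm => ?_).le
      rw [(Finset.mem_filter.1 hmm).2, if_neg hx]
  have h3 : ∑ t ∈ Tc, (if lam ≤ A t x then N1 * A t x else 0) ≤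
      N1 * lam ^ (-(1/2) : ℝ) * ∑ t ∈ Tc, A t x ^ (3/2 : ℝ) := by
    rw [Finset.mul_sum]
    refine Finset.sum_le_sum fun t _ => ?_
    split_ifs with hx
    · rw [mul_assoc]
      exact mul_le_mul' le_rfl (le_rpow_of_le hl0 hlt hx)
    · exact zero_le
  calc ∑ z ∈ Z, ∑ m ∈ Mc, (Q z m).indicator (a m) x ≤
        N0 * ∑ m ∈ Mc, (if lam ≤ A (tau m) x then a m x else 0) := h1
    _ ≤ N0 * (N1 * lam ^ (-(1/2) : ℝ) * ∑ t ∈ Tc, A t x ^ (3/2 : ℝ)) :=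
        mul_le_mul' le_rfl (h2.trans h3)
    _ = _ := by ring

/-- the value of plates of bounded density. -/
theorem val_le {ι : Type*} (I : Finset ι) (e : ι → ℝ≥0∞) (V L : ℝ≥0∞) (hV0 : V ≠ 0) (hVt : V ≠ ⊤)
    (h : ∀ i ∈ I, e i ≤ V * L) :
    ∑ i ∈ I, V ^ (-(1/2) : ℝ) * e i ^ (3/2 : ℝ) ≤ L ^ (1/2 : ℝ) * ∑ i ∈ I, e i := by
  rw [Finset.mul_sum]
  refine Finset.sum_le_sum fun i hi => ?_
  have e1 : e i ^ (3/2 : ℝ) = e i ^ (1/2 : ℝ) * e i := by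
    rw [show (3/2 : ℝ) = 1/2 + 1 by norm_num,
      ENNReal.rpow_add_of_nonneg _ _ (by norm_num) (by norm_num), ENNReal.rpow_one]
  have e2 : V ^ (-(1/2) : ℝ) * V ^ (1/2 : ℝ) = 1 := by
    rw [← ENNReal.rpow_add _ _ hV0 hVt]; norm_num
  rw [e1, ← mul_assoc]
  refine mul_le_mul' ?_ le_rfl
  calc V ^ (-(1/2) : ℝ) * e i ^ (1/2 : ℝ) ≤ V ^ (-(1/2) : ℝ) * (V * L) ^ (1/2 : ℝ) := by
        gcongr
        exact h i hi
    _ = L ^ (1/2 : ℝ) := by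
        rw [ENNReal.mul_rpow_of_nonneg _ _ (by norm_num), ← mul_assoc, e2, one_mul]

open Classical in
/-- **TUBE STEP**, measure-space form. -/
theorem tube_abs {X ζ κ τ ι : Type*} [MeasurableSpace X] (μ : Measure X)
    (I : Finset ι) (e : ι → ℝ≥0∞) (V L τ0 η : ℝ≥0∞) (hV0 : V ≠ 0) (hVt : V ≠ ⊤)
    (hL : ∀ i ∈ I, e i ≤ V * (L + τ0))
    (Z : Finset ζ) (Mc : Finset κ) (Tc : Finset τ) (tau : κ → τ) (htau : ∀ m ∈ Mc, tau m ∈ Tc)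
    (a : κ → X → ℝ≥0∞) (A : τ → X → ℝ≥0∞) (Q : ζ → κ → Set X)
    (hA : ∀ t ∈ Tc, Measurable (A t)) (ha : ∀ m ∈ Mc, Measurable (a m))
    (hQ : ∀ z ∈ Z, ∀ m ∈ Mc, MeasurableSet (Q z m))
    (N0 : ℕ) (hN0 : ∀ m ∈ Mc, ∀ x, (Z.filter fun z => x ∈ Q z m).card ≤ N0)
    (N1 : ℝ≥0∞) (hN1 : ∀ t ∈ Tc, ∀ x, ∑ m ∈ Mc.filter (fun m => tau m = t), a m x ≤ N1 * A t x)
    (lam : ℝ≥0∞) (hl0 : lam ≠ 0) (hlt : lam ≠ ⊤)
    (hlam : ∀ z ∈ Z, ∀ m ∈ Mc, ∀ x ∈ Q z m, lam ≤ A (tau m) x)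
    (hE : ∑ i ∈ I, e i ≤ ∑ z ∈ Z, ∑ m ∈ Mc, ∫⁻ x in Q z m, a m x ∂μ + η) :
    ∑ i ∈ I, V ^ (-(1/2) : ℝ) * e i ^ (3/2 : ℝ) ≤
      (N0 * N1) * (L ^ (1/2 : ℝ) * lam ^ (-(1/2) : ℝ)) * ∑ t ∈ Tc, ∫⁻ x, A t x ^ (3/2 : ℝ) ∂μ +
        (L ^ (1/2 : ℝ) * η + τ0 ^ (1/2 : ℝ) * ∑ i ∈ I, e i) := by
  have h1 := val_le I e V (L + τ0) hV0 hVt hL
  have h2 := sum_int_le μ Z Mc Tc tau htau a A Q hA ha hQ N0 hN0 N1 hN1 lam hl0 hlt hlam
  have h3 : (L + τ0) ^ (1/2 : ℝ) ≤ L ^ (1/2 : ℝ) + τ0 ^ (1/2 : ℝ) :=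
    ENNReal.rpow_add_le_add_rpow _ _ (by norm_num) (by norm_num)
  calc ∑ i ∈ I, V ^ (-(1/2) : ℝ) * e i ^ (3/2 : ℝ) ≤ (L + τ0) ^ (1/2 : ℝ) * ∑ i ∈ I, e i := h1
    _ ≤ (L ^ (1/2 : ℝ) + τ0 ^ (1/2 : ℝ)) * ∑ i ∈ I, e i := by gcongr
    _ = L ^ (1/2 : ℝ) * ∑ i ∈ I, e i + τ0 ^ (1/2 : ℝ) * ∑ i ∈ I, e i := add_mul _ _ _
    _ ≤ L ^ (1/2 : ℝ) * ((N0 * N1 * lam ^ (-(1/2) : ℝ)) * ∑ t ∈ Tc, ∫⁻ x, A t x ^ (3/2 : ℝ) ∂μ + η) +
        τ0 ^ (1/2 : ℝ) * ∑ i ∈ I, e i := by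
        gcongr
        exact hE.trans (add_le_add h2 le_rfl)
    _ = _ := by ring

end Crest.Agent.R116.Tu373
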