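import Crest.Agent.R116.CDef_480
import Crest.Agent.R116.LZg2_725

/-!
# R116 (S0155): WAVE side, literal objects and interface Props (helper188), version 3 (FROZEN)

Everything is in COEFFICIENT FORM (`umc`, `enc`): no weights, no zoom.
* `TT κ sg R` = thin side (divided by `R`) of a light box of aperture `sg`, slice width `κ`.
* `Adm M sg T R c X0 f`, `mset` = member of the class SS (725): isotropic light box of aperture `sg`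
  cut by the conformal slab `|f| ≤ s1 R`, based at time `0` of the frame.
* `PBx M κ q r g D` = rewarded box bound for packets of level `r`.
* `St` = state; `a`, `b` = support in `η`, slope; `(C0, σ)` = slope cap.
* `NP A r g R` = plate functional of level `r` (sup over nets of frames).
* `Plate`, `Plates`, `val`, `SIG` = plate systems.
* `LB q c` : `NP A r g R ≤ C R^ε (R/r)^(c/2) (min 1 σ)^(q/2) SS` (σ-uniform, replaces the zoom).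
-/

set_option autoImplicit false

open MeasureTheory FourierTransform
open scoped ContDiff ENNReal

namespace Crest.Agent.R116.WC188

open Crest.Agent.R138.Defs (E2 ee)
open Crest.Agent.R138.Wpk685 (cen caps)
open Crest.Agent.R116.CDef480
open Crest.Agent.R116.LZg725 (Cf)

/-! ### the class of test sets -/

/-- thin side of a light box of aperture `sg` and length `R`, divided by `R`. -/
noncomputable def TT (κ sg R : ℝ) : ℝ := max (sg ^ 2) ((κ * R)⁻¹)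

/-- admissible conformal function for the slab of thickness `s1 R` in the light box of aperture `sg`,
thickness `T R`, length `R`, direction `c`, base point `X0` (at time `0`). -/
structure Adm (M κ s1 sg T R : ℝ) (c : E2) (X0 : E3) (f : Cf E2) : Prop where
  disc : f.disc = 1
  ny : ∀ s : ℝ, |s| ≤ R → |f.ny s| ≤ M * sg / T
  /-- compatibility: the slab contains packets of thin side `1/κ`. -/
  cmp : ∀ s : ℝ, |s| ≤ R → |f.ny s| ≤ M * (κ * s1 * R)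
  ld : |f.ld c (lat X0) (X0 2) 0| ≤ M * sg
  ev : |f.ev (lat X0) (X0 2) 0| ≤ M * sg * R

/-- positions at time `0` of the rays of slope `C` in the member. -/
def mset (sg T R s1 : ℝ) (c : E2) (X0 : E3) (f : Cf E2) (C : E2) : Set E3 :=
  {X | ‖C - c‖ ≤ sg ∧ ‖lat X - lat X0‖ ≤ sg * R ∧ |nrm c X 0 - nrm c X0 0| ≤ T * R ∧
    |f.ev (lat X) (X 2) 0| ≤ s1 * R ∧ |f.ld C (lat X) (X 2) 0| ≤ s1}

/-- section cost of a member. -/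
noncomputable def scost (κ s1 sg R : ℝ) : ℝ := s1 * sg * TT κ sg R * R ^ 3

/-- admissible sides. -/
structure Sd (r s1 s2 : ℝ) : Prop where
  lo : r ^ (-(1/2) : ℝ) ≤ s1
  le : s1 ≤ s2
  hi : s2 ≤ 1

/-- the phase box of a member: packets of level `r`, dilated by `A`. -/
def pbx (κ A r s1 s2 : ℝ) (c : E2) (X0 : E3) (f : Cf E2) (m : ℤ × ℤ) : Set E3 :=
  mset (A * s2) (A * TT κ s2 r) r (A * s1) c X0 f (cen (r ^ (-(1/2) : ℝ)) m)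

/-- **rewarded box bound** for the packets of level `r` (frame: time `0`). -/
def PBx (M κ q r : ℝ) (g : E3 → ℂ) (D : ℝ) : Prop :=
  ∀ (c : E2) (X0 : E3) (f : Cf E2) (s1 s2 : ℝ), Sd r s1 s2 → Adm M κ s1 s2 (TT κ s2 r) r c X0 f →
    enc (r ^ (-(1/2) : ℝ)) g (pbx κ 1 r s1 s2 c X0 f) ≤
      ENNReal.ofReal (D * s2 ^ q * scost κ s1 s2 r)

/-- normalising quantity `(R ∫ |g|²) √D`. -/
noncomputable def SS (g : E3 → ℂ) (R D : ℝ) : ℝ := R * Enc g * Real.sqrt D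

/-- **state**. -/
structure St (M κ q a b M0 : ℝ) (C0 : E2) (σ : ℝ) (g : E3 → ℂ) (R D : ℝ) : Prop where
  meas : Measurable g
  bdd : ∃ L : ℝ, ∀ ζ, ‖g ζ‖ ≤ L
  supp : ∀ ζ, g ζ ≠ 0 → a⁻¹ ≤ ζ 2 ∧ ζ 2 ≤ a ∧ ‖slp ζ‖ ≤ b ∧ ‖slp ζ - C0‖ ≤ σ
  R1 : 1 ≤ R
  D0 : 0 ≤ D
  box : PBx M κ q R g D
  nd : Enc g ≤ R ^ M0 * D

/-! ### the plate functional -/

/-- the plate of the direction `C` through `(X, s)`, transported to time `0`. -/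
def plt (w t : ℝ) (C : E2) (X : E3) (s : ℝ) : Set E3 :=
  {Y | ‖lat Y - (lat X + s • C)‖ ≤ w ∧ |nrm C Y 0 - nrm C X s| ≤ t}

/-- plate average of the packet densities of level `r` (coefficients at time `0` of the frame). -/
noncomputable def apl (r : ℝ) (g : E3 → ℂ) (p : E3 × ℝ) : ℝ≥0∞ :=
  ENNReal.ofReal r⁻¹ * ∑ m ∈ caps (r ^ (-(1/2) : ℝ)),
    ∫⁻ Y in plt (r ^ (1/2 : ℝ)) 1 (cen (r ^ (-(1/2) : ℝ)) m) p.1 p.2,
      ‖umc (r ^ (-(1/2) : ℝ)) g m Y‖ₑ ^ 2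

/-- nets of frames. -/
structure Net (r R : ℝ) (Z : Finset (E3 × ℝ)) : Prop where
  mem : ∀ z ∈ Z, z ∈ cylc R
  sep : ∀ z ∈ Z, ∀ z' ∈ Z, z = z' ∨ r ≤ ‖z.1 - z'.1‖ ∨ r ≤ |z.2 - z'.2|

/-- **NP**: plate functional of level `r` on the cylinder of size `R`. -/
noncomputable def NP (A r : ℝ) (g : E3 → ℂ) (R : ℝ) : ℝ≥0∞ :=
  ⨆ (Z : Finset (E3 × ℝ)) (_ : Net r R Z),
    ∑ z ∈ Z, ∫⁻ p in cylc (A * r), (apl r (trc z g) p) ^ (3 / 2 : ℝ)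

/-- **LB(q,c)** (all supports, all slope caps, all dilations; the gain `(min 1 σ)^(q/2)` replaces the
Lorentz zoom; only levels `r ≥ σ^(-2)`). -/
def LB (M q c : ℝ) : Prop :=
  ∀ a b A ε M0 : ℝ, 1 ≤ a → 0 < b → b < 2 → 1 ≤ A → 0 < ε → ∃ C : ℝ, 0 ≤ C ∧
    ∀ C0 σ g R D, St M 1 q a b M0 C0 σ g R D → ∀ r, 1 ≤ r → r ≤ R → r ^ (-(1/2) : ℝ) ≤ σ →
      NP A r g R ≤
        ENNReal.ofReal (C * R ^ ε * (R / r) ^ (c / 2) * (min 1 σ) ^ (q / 2) * SS g R D)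

/-! ### plate systems -/

/-- plate of level `r`: frame `z`, member `(c, X0, f)`, selection `S` (positions at time `0` of the
frame). -/
structure Plate where
  z : E3 × ℝ
  c : E2
  X0 : E3
  f : Cf E2
  S : ℤ × ℤ → Set E3

/-- finite plate system of level `r`, sides `s1 ≤ s2`, in the cylinder of size `R`. -/
structure Plates (M κ A r s1 s2 R : ℝ) (I : Finset ℕ) (P : ℕ → Plate) : Prop where
  mem : ∀ i ∈ I, (P i).z ∈ cylc R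
  sep : ∀ i ∈ I, ∀ j ∈ I, (P i).z = (P j).z ∨
    r ≤ ‖(P i).z.1 - (P j).z.1‖ ∨ r ≤ |(P i).z.2 - (P j).z.2|
  X0 : ∀ i ∈ I, ‖(P i).X0‖ ≤ A * r
  c : ∀ i ∈ I, ‖(P i).c‖ ≤ A
  adm : ∀ i ∈ I, Adm M κ s1 s2 (TT κ s2 r) r (P i).c (P i).X0 (P i).f
  meas : ∀ i ∈ I, ∀ m, MeasurableSet ((P i).S m)
  box : ∀ i ∈ I, ∀ m, (P i).S m ⊆ pbx κ A r s1 s2 (P i).c (P i).X0 (P i).f m
  disj : ∀ i ∈ I, ∀ j ∈ I, i ≠ j → (P i).z = (P j).z → ∀ m, Disjoint ((P i).S m) ((P j).S m)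

/-- value of a plate system: `∑ |P| d_P^{3/2}`, `|P| d_P = r e_P`, `|P| = r * scost`. -/
noncomputable def val (κ : ℝ) (g : E3 → ℂ) (r s1 s2 : ℝ) (I : Finset ℕ) (P : ℕ → Plate) : ℝ≥0∞ :=
  ∑ i ∈ I, ENNReal.ofReal ((r * scost κ s1 s2 r) ^ (-(1/2) : ℝ)) *
    (ENNReal.ofReal r * enc (r ^ (-(1/2) : ℝ)) (trc (P i).z g) (P i).S) ^ (3 / 2 : ℝ)

/-- **SIG**: supremum over all plate systems. -/
noncomputable def SIG (M κ A r s1 s2 : ℝ) (g : E3 → ℂ) (R : ℝ) : ℝ≥0∞ :=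
  ⨆ (I : Finset ℕ) (P : ℕ → Plate) (_ : Plates M κ A r s1 s2 R I P), val κ g r s1 s2 I P

/-- sliced states. -/
structure Ss (M κ q a b M0 : ℝ) (η0 : ℝ) (C0 : E2) (σ : ℝ) (g : E3 → ℂ) (R D : ℝ) : Prop
    extends St M κ q a b M0 C0 σ g R D where
  slc : Slc η0 κ g

/-! ### decomposition with classes (one frame) -/

/-- union of the selections of a finite plate system. -/
def uS (I : Finset ℕ) (P : ℕ → Plate) (m : ℤ × ℤ) : Set E3 := ⋃ i ∈ I, (P i).S m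

/-- output of DECc at the frame `z`, level `r`, for the sliced function `g` of level `R`: the
decomposition is valid in the region `A r`, the plates live in the region `A' r`. -/
structure DecOut (M κ q A A' a b Cn : ℝ) (nb K : ℕ) (η0 : ℝ) (C0 : E2) (σ : ℝ) (g : E3 → ℂ) (R r : ℝ)
    (z : E3 × ℝ) (cls : Cf E2 → ℤ × ℤ → E3 → ℕ)
    (Λ : Finset ℕ) (s : ℕ → ℝ × ℝ) (cl : ℕ → ℕ)
    (G : ℕ → E3 → ℂ) (D' : ℕ → ℝ) (rest : E3 → ℂ) (I : ℕ → Finset ℕ) (P : ℕ → ℕ → Plate) :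
    Prop where
  /-- decomposition. -/
  sum : ∀ ζ, trc z g ζ = ∑ k ∈ Λ, G k ζ + rest ζ
  /-- the pieces are the selected waves of the plate systems. -/
  eq : ∀ k ∈ Λ, G k = selc η0 κ (r ^ (-(1/2) : ℝ)) (trc z g) (uS (I k) (P k))
  /-- the pieces are states of level `r` (slices of width `2 κ`). -/
  st : ∀ k ∈ Λ, St M κ q (2 * a) (b + 3 * r ^ (-(1/2) : ℝ)) 4 C0 (σ + 3 * r ^ (-(1/2) : ℝ))
    (G k) r (D' k)
  slc : ∀ k ∈ Λ, Slc η0 (2 * κ) (G k)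
  /-- also every measurable sub-selection satisfies the box bound with the same constant. -/
  sub : ∀ k ∈ Λ, ∀ S' : ℤ × ℤ → Set E3, (∀ m, MeasurableSet (S' m)) →
    (∀ m, S' m ⊆ uS (I k) (P k) m) →
    PBx M κ q r (selc η0 κ (r ^ (-(1/2) : ℝ)) (trc z g) S') (D' k)
  /-- the selections themselves have penalised density `D'` (hereditary). -/
  dens : ∀ k ∈ Λ, ∀ (c : E2) (X0 : E3) (f : Cf E2) (s1 s2 : ℝ), Sd r s1 s2 →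
    Adm M κ s1 s2 (TT κ s2 r) r c X0 f →
    enc (r ^ (-(1/2) : ℝ)) (trc z g) (fun m => uS (I k) (P k) m ∩ pbx κ 1 r s1 s2 c X0 f m) ≤
      ENNReal.ofReal (D' k * s2 ^ q * scost κ s1 s2 r)
  /-- the selections are bounded and live on the caps. -/
  bd : ∀ k ∈ Λ, ∀ m, uS (I k) (P k) m ⊆ Metric.closedBall 0 (A' * r)
  cp : ∀ k ∈ Λ, ∀ m, m ∉ caps (r ^ (-(1/2) : ℝ)) → uS (I k) (P k) m = ∅
  /-- the selections of different labels are disjoint. -/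
  disj : ∀ k ∈ Λ, ∀ k' ∈ Λ, k ≠ k' → ∀ m, Disjoint (uS (I k) (P k) m) (uS (I k') (P k') m)
  /-- plate systems with frame `z`. -/
  pl : ∀ k ∈ Λ, Plates M κ A' r (s k).1 (s k).2 R (I k) (P k) ∧ ∀ i ∈ I k, (P k i).z = z
  /-- classes. -/
  cls : ∀ k ∈ Λ, ∀ i ∈ I k, ∀ m, ∀ y ∈ (P k i).S m, cls (P k i).f m y = cl k
  /-- every plate is dense. -/
  dense : ∀ k ∈ Λ, ∀ i ∈ I k,
    ENNReal.ofReal (D' k * (s k).2 ^ q * scost κ (s k).1 (s k).2 r) ≤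
      ENNReal.ofReal (Cn * nb) * enc (r ^ (-(1/2) : ℝ)) (trc z g) (P k i).S
  /-- energy. -/
  energy : ∀ k ∈ Λ, ENNReal.ofReal (Enc (G k)) ≤
    ENNReal.ofReal Cn * ∑ i ∈ I k, enc (r ^ (-(1/2) : ℝ)) (trc z g) (P k i).S
  /-- (D6). -/
  ss : ∀ k ∈ Λ, ENNReal.ofReal (SS (G k) r (D' k)) ≤
    ENNReal.ofReal (Cn * nb) * (ENNReal.ofReal ((s k).2 ^ (-q / 2)) *
      val κ g r (s k).1 (s k).2 (I k) (P k))
  rmeas : Measurable rest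
  rbdd : ∃ L : ℝ, ∀ ζ, ‖rest ζ‖ ≤ L
  rsupp : ∀ ζ, rest ζ ≠ 0 → (2 * a)⁻¹ ≤ ζ 2 ∧ ζ 2 ≤ 2 * a ∧ ‖slp ζ‖ ≤ 2
  ren : Enc rest ≤ Cn * Enc g
  /-- the rest is tiny near the frame, in coefficient form at every level `r' ≤ r`. -/
  small : ∀ r', 1 ≤ r' → r' ≤ r → ∀ z' ∈ cylc (A * r), ∀ m, ∀ y : E3, ‖y‖ ≤ A * r →
    ‖umc (r' ^ (-(1/2) : ℝ)) (trc z' rest) m y‖ ≤ Cn * nb * R ^ (-(K : ℝ)) * Real.sqrt (Enc g)

/-- **DECc**: decomposition with classes. -/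
def DECc (M q : ℝ) : Prop :=
  ∀ a b A ε M0 : ℝ, 1 ≤ a → 0 < b → b < 2 → 1 ≤ A → 0 < ε → ∀ K : ℕ,
  ∃ A' Cn R0 : ℝ, 1 ≤ A' ∧ 0 ≤ Cn ∧ 1 ≤ R0 ∧
  ∀ R r κ : ℝ, R0 ≤ R → R ^ (1/2 : ℝ) ≤ r → r ≤ R → 0 < κ → 8 * a * κ ≤ 1 → R ^ (-(1/8) : ℝ) ≤ κ →
  ∀ nb : ℕ, 1 ≤ nb →
  ∃ (Λ : Finset ℕ) (s : ℕ → ℝ × ℝ) (cl : ℕ → ℕ), (Λ.card : ℝ) ≤ Cn * R ^ ε * nb ∧
    (∀ k ∈ Λ, Sd r (s k).1 (s k).2) ∧ (∀ k ∈ Λ, cl k < nb) ∧
    ∀ η0 C0 σ g D, Ss M κ q a b M0 η0 C0 σ g R D → ∀ z ∈ cylc R,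
      ∀ cls : Cf E2 → ℤ × ℤ → E3 → ℕ,
        (∀ f m, Measurable (cls f m)) → (∀ f m y, cls f m y < nb) →
        ∃ (G : ℕ → E3 → ℂ) (D' : ℕ → ℝ) (rest : E3 → ℂ) (I : ℕ → Finset ℕ) (P : ℕ → ℕ → Plate),
          DecOut M κ q A A' a b Cn nb K η0 C0 σ g R r z cls Λ s cl G D' rest I P

/-! ### the leaves of the skeleton -/

section leaves

variable (M q : ℝ)

/-- **KMt** (538): Kakeya at the top, `R^(1-ε) ≤ r ≤ R`. -/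
def KMt : Prop := ∃ K : ℝ, 0 ≤ K ∧
  ∀ a b A ε M0 : ℝ, 1 ≤ a → 0 < b → b < 2 → 1 ≤ A → 0 < ε → ∃ C : ℝ, 0 ≤ C ∧
    ∀ C0 σ g R D, St M 1 q a b M0 C0 σ g R D →
      ∀ r, R ^ (1 - ε) ≤ r → 1 ≤ r → r ≤ R → r ^ (-(1/2) : ℝ) ≤ σ →
        NP A r g R ≤ ENNReal.ofReal (C * R ^ (K * ε) * (min 1 σ) ^ (q / 2) * SS g R D)

/-- **TRIV1** (only `nd` is used). -/
def TRIV1 : Prop := ∀ a b A M0 : ℝ, 1 ≤ a → 0 < b → b < 2 → 1 ≤ A → ∃ C : ℝ, 0 ≤ C ∧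
  ∀ C0 σ g R D, St M 1 q a b M0 C0 σ g R D → ∀ r, 1 ≤ r → r ≤ R →
    NP A r g R ≤ ENNReal.ofReal (C * R ^ (M0 / 2 + 8) * SS g R D)

/-- **TRIV2** (extension of the boxes + energy count); the exponent `K` depends on `M q` only. -/
def TRIV2 : Prop := ∃ K : ℝ, 0 ≤ K ∧
  ∀ a b A ε M0 : ℝ, 1 ≤ a → 0 < b → b < 2 → 1 ≤ A → 0 < ε → ∃ C : ℝ, 0 ≤ C ∧
  ∀ κ η0 C0 σ g R D, 0 < κ → 8 * a * κ ≤ 1 → R ^ (-(1/8) : ℝ) ≤ κ → Ss M κ q a b M0 η0 C0 σ g R D →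
    ∀ r s1 s2, R ^ (1/2 : ℝ) ≤ r → r ≤ R → Sd r s1 s2 →
      ENNReal.ofReal (s2 ^ (-q / 2)) * SIG M κ A r s1 s2 g R ≤
        ENNReal.ofReal (C * R ^ ε * (R / r) ^ K * SS g R D)

/-- **SLI** (850): slices of width `κ`, price `κ^(-K)`. -/
def SLI (K : ℝ) : Prop :=
  ∀ a b A M0 : ℝ, 1 ≤ a → 0 < b → b < 2 → 1 ≤ A → ∃ C : ℝ, 1 ≤ C ∧
    ∀ C0 σ g R D, St M 1 q a b M0 C0 σ g R D →
      ∀ r κ, 1 ≤ r → r ≤ R → 0 < κ → 8 * a * κ ≤ 1 → R ^ (-(1/8) : ℝ) ≤ κ → ∀ Q : ℝ, 0 ≤ Q →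
        (∀ η0 g' D', Ss M κ q a b (M0 + 1) η0 C0 σ g' R D' →
          NP A r g' R ≤ ENNReal.ofReal (Q * SS g' R D')) →
        NP A r g R ≤ ENNReal.ofReal (C * κ ^ (-K) * Q * SS g R D)

/-- **CNV**: a box bound for thick boxes gives the box bound for all boxes (sliced functions). -/
def CNV : Prop := ∀ a b M0 : ℝ, 1 ≤ a → 0 < b → b < 2 → ∃ C R0 : ℝ, 1 ≤ C ∧ 1 ≤ R0 ∧
  ∀ κ η0 C0 σ g R D, 0 < κ → 8 * a * κ ≤ 1 → R0 ≤ R → R ^ (-(1/4) : ℝ) ≤ κ →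
    St M κ q a b M0 C0 σ g R D → Slc η0 (2 * κ) g → St M 1 q a b M0 C0 σ g R (C * D)

/-- **A1κ** = re-rooting of `NP` + DEC (D6) for sliced functions. -/
def A1k : Prop := ∀ a b A ε M0 : ℝ, 1 ≤ a → 0 < b → b < 2 → 1 ≤ A → 0 < ε →
  ∃ A' C R0 : ℝ, 1 ≤ A' ∧ 0 ≤ C ∧ 1 ≤ R0 ∧
  ∀ κ η0 C0 σ g R D, 0 < κ → 8 * a * κ ≤ 1 → R0 ≤ R → R ^ (-(1/8) : ℝ) ≤ κ →
    Ss M κ q a b M0 η0 C0 σ g R D →
    ∀ r r1, 1 ≤ r → r ≤ r1 → r1 ≤ R → R ^ (1/2 : ℝ) ≤ r1 → ∀ Q : ℝ, 0 ≤ Q →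
      (∀ g' D', St M κ q (2 * a) ((b + 2) / 2) 4 C0 (σ + 3 * r1 ^ (-(1/2) : ℝ)) g' r1 D' →
        Slc η0 (2 * κ) g' → NP A' r g' r1 ≤ ENNReal.ofReal (Q * SS g' r1 D')) →
      ∃ s1 s2, Sd r1 s1 s2 ∧ NP A r g R ≤
        ENNReal.ofReal (C * R ^ ε * Q) * (ENNReal.ofReal (s2 ^ (-q / 2)) *
          SIG M κ A' r1 s1 s2 g R) + ENNReal.ofReal (C * R ^ (-q) * SS g R D)

/-- **A2κ** = SUP (448): plates of level `r` are bounded by the plate functional of level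
`(s1 r)²` of the slope caps, together with `LB c` (or `KMt` if `(s1 r)² > R`). -/
def A2k : Prop := ∀ c : ℝ, 0 ≤ c → LB M q c → ∃ K : ℝ, 0 ≤ K ∧
  ∀ a b A ε M0 : ℝ, 1 ≤ a → 0 < b → b < 2 → 1 ≤ A → 0 < ε → ∃ C : ℝ, 0 ≤ C ∧
  ∀ κ η0 C0 σ g R D, 0 < κ → 8 * a * κ ≤ 1 → R ^ (-(1/4) : ℝ) ≤ κ →
    St M κ q a b M0 C0 σ g R D → Slc η0 (2 * κ) g →
    ∀ r s1 s2, R ^ (1/2 : ℝ) ≤ r → r ≤ R → Sd r s1 s2 →
      ENNReal.ofReal (s2 ^ (-q / 2)) * SIG M κ A r s1 s2 g R ≤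
        ENNReal.ofReal (C * R ^ (K * ε) * (max 1 (R / (s1 * r) ^ 2)) ^ (c / 2) * SS g R D)

/-- **WCh**: target of the chain at `c1`: for the slice width `κ = d^θ` the plate functional at the
level `d R` grows slower than `c1` by the price `d^(K θ)` and a gain. -/
def WCh (K c1 : ℝ) : Prop := ∃ θ γ c3 Aw : ℝ, 0 < θ ∧ 0 < γ ∧ 0 < c3 ∧ c3 ≤ 1 ∧ 1 ≤ Aw ∧
  ∀ a b A ε M0 : ℝ, 1 ≤ a → 0 < b → b < 2 → 1 ≤ A → 0 < ε → ∃ C : ℝ, 0 ≤ C ∧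
  ∀ η0 C0 σ g R D d, 0 < d → d ≤ c3 → d ^ (-Aw) ≤ R → R ^ ε ≤ d⁻¹ → 8 * a * d ^ θ ≤ 1 →
    Ss M (d ^ θ) q a b M0 η0 C0 σ g R D → ∀ s1 s2, Sd (d * R) s1 s2 →
      ENNReal.ofReal (s2 ^ (-q / 2)) * SIG M (d ^ θ) A (d * R) s1 s2 g R ≤
        ENNReal.ofReal (C * R ^ ε * d ^ (-(c1 / 2) + K * θ + γ) * SS g R D)

/-- **A5**: the cube integral is bounded by the plate functional of level one. -/
def A5 : Prop := ∀ a b M0 : ℝ, 1 ≤ a → 0 < b → b < 2 → ∃ A C : ℝ, 1 ≤ A ∧ 0 ≤ C ∧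
  ∀ C0 σ g R D, St M 1 q a b M0 C0 σ g R D →
    ∫⁻ p in cylc (R / 2), ‖extc g p.1 p.2‖ₑ ^ 3 ≤
      ENNReal.ofReal C * NP A 1 g R + ENNReal.ofReal (C * SS g R D)

/-- `WCh` from `LB (c1+)`: what the chain has to prove, for every price exponent `K` and every
`c1 ≥ q`. -/
def WChE : Prop := ∀ K : ℝ, 0 ≤ K → ∀ c1 : ℝ, 0 < c1 → q ≤ c1 → (∀ c, c1 < c → LB M q c) →
  WCh M q K c1

end leaves

/-- **EBc**: the energy / box inequality for the cone (no reward). -/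
def EBc (M : ℝ) : Prop :=
  ∀ a b ε M0 : ℝ, 1 ≤ a → 0 < b → b < 2 → 0 < ε → ∃ C : ℝ, 0 ≤ C ∧
    ∀ g R D, St M 1 0 a b M0 0 2 g R D →
      ∫⁻ p in cylc (R / 2), ‖extc g p.1 p.2‖ₑ ^ 3 ≤ ENNReal.ofReal (C * R ^ ε * SS g R D)

end Crest.Agent.R116.WC188
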