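import Crest.Agent.R116.TuG_373
import Crest.Agent.R116.TuA_373
import Crest.Agent.R116.AlB1_888
import Crest.Agent.R116.Mc1_330
import Crest.Agent.R116.SmC2_339
import Crest.Agent.R116.WDefC_188

/-!
# R116 (S0155), wave side: the tube step on the cone, part 1 (helper373)

`AdN n th kp g S N m z x` = density of the packets of the caps `N m` (angle `th`) in the child frame
`z` at the child position `x`; `Nb` = neighbourhood of a selection in the plate metric, `Qs` = the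
corresponding tube in space-time; `cAcc` = density of the caps near the cell `k` of size `s`.
-/

set_option autoImplicit false

open MeasureTheory
open scoped ENNReal

namespace Crest.Agent.R116.TuC373

open Crest.Agent.R138.Defs (E2)
open Crest.Agent.R138.Wpk685 (cen caps cen_zero cen_one)
open Crest.Agent.R138.Rect779 (card_caps_le)
open Crest.Agent.R116.CDef480 Crest.Agent.R116.Ckm538 Crest.Agent.R116.Cad538
open Crest.Agent.R116.TuG373

variable {n : ℕ} {th kp th1 : ℝ} {g : E3 → ℂ} {S : ℤ × ℤ → Set E3}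

/-- near families of the child caps. -/
def NearF (th th1 : ℝ) (N : ℤ × ℤ → Finset (ℤ × ℤ)) : Prop :=
  ∀ m', ∀ m ∈ N m', m ∈ caps th ∧ ‖cen th m - cen th1 m'‖ ≤ 4 * th1

/-- density of the packets of the caps `N m` in the child frame `z` at the child position `x`. -/
noncomputable def AdN (n : ℕ) (th kp : ℝ) (g : E3 → ℂ) (S : ℤ × ℤ → Set E3)
    (N : ℤ × ℤ → Finset (ℤ × ℤ)) : Dn :=
  fun m z x => Cad538.Acc n th kp th g S (N m) (z.1 + x) z.2

/-- the modulus of slow variation. -/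
noncomputable def Fm (n : ℕ) (δ : ℝ) : ℝ := (13 + 5 * δ) ^ n

theorem Fm_nonneg (n : ℕ) {δ : ℝ} (h : 0 ≤ δ) : 0 ≤ Fm n δ := by unfold Fm; positivity

theorem Fm_mono (n : ℕ) {δ δ' : ℝ} (h0 : 0 ≤ δ) (h : δ ≤ δ') : Fm n δ ≤ Fm n δ' := by
  unfold Fm
  exact pow_le_pow_left₀ (by positivity) (by linarith) n

theorem slow_AdN {N : ℤ × ℤ → Finset (ℤ × ℤ)} (hN : NearF th th1 N) (hth : 0 ≤ th)
    (h01 : th ≤ th1) (hkp : 0 ≤ kp) (hkp1 : kp ≤ 1) (hst : kp * th1 ≤ th) {T : ℝ} (hT0 : 0 ≤ T)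
    (hT : T * th1 ^ 2 ≤ 1) :
    Slow th kp th1 T (Fm n) (AdN n th kp g S N) := by
  intro m z z' x x' δ _ hzt hδ hd
  unfold AdN Cad538.Acc Fm
  have hth1 : 0 ≤ th1 := hth.trans h01
  refine (Den_shift (δ := 5 * δ + 12) (X' := z'.1 + x') (t' := z'.2) (by positivity)
    fun j hj => ?_).trans (le_of_eq ?_)
  · have hnear := (hN m j hj).2
    have h1 : kp * (4 * th1) ≤ 4 * th := by linarith
    have h2 := pn_shift (th := th) (kp := kp) (L1 := 4) (σ := 4 * th1) (T := T) hth hkp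
      (by norm_num) hnear h1 hzt hd
    have e : z'.1 + x' + z'.2 • vel (cen th j) - (z.1 + x + z.2 • vel (cen th j)) =
        TuG373.D z' x' (cen th j) - TuG373.D z x (cen th j) := by
      unfold TuG373.D
      abel
    rw [e]
    refine (norm_frc_le hth hkp _ _).trans ?_
    have h3 : th * (T * (4 * th1)) ≤ 4 := by
      have : T * (th * th1) ≤ T * th1 ^ 2 :=
        mul_le_mul_of_nonneg_left (by nlinarith) hT0
      nlinarith
    have h4 : kp * (T * (4 * th1) ^ 2 / 2) ≤ 8 := by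
      have h5 : kp * (T * th1 ^ 2) ≤ 1 := by
        have : 0 ≤ T * th1 ^ 2 := by positivity
        nlinarith
      nlinarith
    have h6 : pn th kp (cen th j) (TuG373.D z' x' (cen th j) - TuG373.D z x (cen th j)) ≤
        (1 + 4) * δ + (4 + 8) := h2.trans (by linarith)
    unfold pn at h6
    linarith
  · congr 3
    ring

/-! ### cells of caps -/

/-- index of the cell of size `s` of a child cap. -/
noncomputable def tau (th1 s : ℝ) (m' : ℤ × ℤ) : ℤ × ℤ :=
  (⌊cen th1 m' 0 / s⌋, ⌊cen th1 m' 1 / s⌋)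

open Classical in
/-- caps of angle `th` within `6 s` of the cell `k` of size `s`. -/
noncomputable def Mk (th s : ℝ) (k : ℤ × ℤ) : Finset (ℤ × ℤ) :=
  (caps th).filter fun m => ‖cen th m - cen s k‖ ≤ 7 * s

theorem cen_tau {s : ℝ} (hs : 0 < s) (m' : ℤ × ℤ) : ‖cen th1 m' - cen s (tau th1 s m')‖ ≤ 2 * s := by
  refine norm2_le hs.le ?_ ?_
  · rw [PiLp.sub_apply, cen_zero s]
    exact floor_err hs
  · rw [PiLp.sub_apply, cen_one s]
    exact floor_err hs

theorem near_sub_Mk {N : ℤ × ℤ → Finset (ℤ × ℤ)} (hN : NearF th th1 N) {s σ : ℝ} (hs : 0 < s)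
    (h1 : th1 ≤ s) (hσ : σ ≤ s) {m' m : ℤ × ℤ} (hm : ‖cen th1 m - cen th1 m'‖ ≤ σ) :
    N m ⊆ Mk th s (tau th1 s m') := by
  classical
  intro j hj
  obtain ⟨hjc, hjn⟩ := hN m j hj
  refine Finset.mem_filter.2 ⟨hjc, ?_⟩
  have e : cen th j - cen s (tau th1 s m') = (cen th j - cen th1 m) + ((cen th1 m - cen th1 m') +
      (cen th1 m' - cen s (tau th1 s m'))) := by abel
  rw [e]
  refine (norm_add_le _ _).trans ?_
  have h2 := norm_add_le (cen th1 m - cen th1 m') (cen th1 m' - cen s (tau th1 s m'))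
  have h3 := cen_tau (th1 := th1) hs m'
  linarith

open Classical in
theorem card_NearF {N : ℤ × ℤ → Finset (ℤ × ℤ)} (hN : NearF th th1 N) (hth1 : 0 < th1)
    (T : Finset (ℤ × ℤ)) (m : ℤ × ℤ) : (T.filter (fun b => m ∈ N b)).card ≤ 81 := by
  have h := card_caps_le (ρ := th1) hth1 (T := T.filter (fun b => m ∈ N b)) (ξ0 := cen th m)
    (K := 4) (by norm_num) (fun b hb => by
      have := (hN b m (Finset.mem_filter.1 hb).2).2
      rwa [norm_sub_rev] at this)
  have h2 : (((T.filter (fun b => m ∈ N b)).card : ℕ) : ℝ) ≤ 81 := h.trans (by norm_num)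
  exact_mod_cast h2

/-- sum of the densities of child caps. -/
theorem sum_AdN_le {N : ℤ × ℤ → Finset (ℤ × ℤ)} (hN : NearF th th1 N) (hth1 : 0 < th1)
    {T M : Finset (ℤ × ℤ)} (hM : ∀ m' ∈ T, N m' ⊆ M) (z : E3 × ℝ) (x : E3) :
    ∑ m' ∈ T, AdN n th kp g S N m' z x ≤ 81 * Acc n th kp th g S M (z.1 + x) z.2 := by
  classical
  have := sum_Den_le (μ := volume) (n := n) (c := th ^ 2 * kp)
    (A := fun m => frc th kp (cen th m)) (v := fun m => vel (cen th m))
    (U := fun m y => ‖umc th g m y‖ₑ ^ 2) (S := S) T N hM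
    (K := 81) (fun m _ => by convert card_NearF hN hth1 T m) (z.1 + x) z.2
  rw [Nat.cast_ofNat] at this
  exact this

/-! ### neighbourhoods and tubes -/

/-- neighbourhood of the set `U` in the plate metric. -/
def Nb (th kp : ℝ) (C : E2) (Y : ℝ) (U : Set E3) : Set E3 :=
  {x | ∃ y ∈ U, ‖frc th kp C (x - y)‖ < Y}

theorem isOpen_Nb (th kp : ℝ) (C : E2) (Y : ℝ) (U : Set E3) : IsOpen (Nb th kp C Y U) := by
  have e : Nb th kp C Y U = ⋃ y ∈ U, {x | ‖frc th kp C (x - y)‖ < Y} := by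
    ext x
    simp only [Nb, Set.mem_iUnion, Set.mem_ofPred_eq, exists_prop]
  rw [e]
  refine isOpen_biUnion fun y _ => isOpen_lt ?_ continuous_const
  fun_prop

/-- the tube over `N` in the child frame `z` (positions relative to the frame). -/
def Qs (r : ℝ) (C : E2) (z : E3 × ℝ) (N : Set E3) : Set (E3 × ℝ) :=
  {p | |p.2 - z.2| ≤ r / 2 ∧ p.1 - z.1 + (p.2 - z.2) • vel C ∈ N}

theorem meas_Qs (r : ℝ) (C : E2) (z : E3 × ℝ) {N : Set E3} (hN : MeasurableSet N) :
    MeasurableSet (Qs r C z N) := by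
  have h1 : MeasurableSet {p : E3 × ℝ | |p.2 - z.2| ≤ r / 2} :=
    (isClosed_le (by fun_prop) continuous_const).measurableSet
  have h2 : Measurable fun p : E3 × ℝ => p.1 - z.1 + (p.2 - z.2) • vel C := by fun_prop
  exact h1.inter (h2 hN)

/-- **from the child frame to space-time.** -/
theorem lint_Qs {r T : ℝ} {C : E2} {z : E3 × ℝ} {N : Set E3} (hN : MeasurableSet N)
    (hz : |z.2| + r / 2 ≤ T) {f : E3 → ℝ≥0∞} {Φ : E3 × ℝ → ℝ≥0∞} (hΦ : Measurable Φ) {c : ℝ≥0∞}
    (hf : ∀ x, ∀ t, |t - z.2| ≤ r / 2 → f x ≤ c * Φ (z.1 + x - (t - z.2) • vel C, t)) :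
    ENNReal.ofReal r * ∫⁻ x in N, f x ≤ ∫⁻ p in Qs r C z N, c * Φ p
      ∂((volume : Measure E3).prod (volume.restrict (Set.Icc (-T) T))) := by
  have hm := meas_Qs r C z hN
  rw [← lintegral_indicator hm]
  have hF : Measurable ((Qs r C z N).indicator fun p => c * Φ p) := (hΦ.const_mul c).indicator hm
  rw [lintegral_prod_symm _ hF.aemeasurable]
  have hsub : Set.Icc (z.2 - r / 2) (z.2 + r / 2) ⊆ Set.Icc (-T) T := by
    intro t ht
    have h1 := abs_le.1 (le_refl |z.2|)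
    exact ⟨by linarith [ht.1, h1.1], by linarith [ht.2, h1.2]⟩
  calc ENNReal.ofReal r * ∫⁻ x in N, f x
      = ∫⁻ _t in Set.Icc (z.2 - r / 2) (z.2 + r / 2), ∫⁻ x in N, f x := by
        rw [setLIntegral_const, Real.volume_Icc, mul_comm]
        congr 2; ring
    _ ≤ ∫⁻ t in Set.Icc (z.2 - r / 2) (z.2 + r / 2),
          ∫⁻ x, (Qs r C z N).indicator (fun p => c * Φ p) (x, t) := by
        refine setLIntegral_mono' measurableSet_Icc fun t ht => ?_
        have ht' : |t - z.2| ≤ r / 2 := abs_le.2 ⟨by linarith [ht.1], by linarith [ht.2]⟩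
        have e1 : ∫⁻ x, (Qs r C z N).indicator (fun p => c * Φ p) (x, t) =
            ∫⁻ x, (Qs r C z N).indicator (fun p => c * Φ p)
              (x + (z.1 - (t - z.2) • vel C), t) := by
          rw [lintegral_add_right_eq_self
            (fun x => (Qs r C z N).indicator (fun p => c * Φ p) (x, t))]
        rw [e1, ← lintegral_indicator hN]
        refine lintegral_mono fun x => ?_
        by_cases hx : x ∈ N
        · rw [Set.indicator_of_mem hx, Set.indicator_of_mem]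
          · refine (hf x t ht').trans (le_of_eq ?_)
            congr 3
            abel
          · refine ⟨ht', ?_⟩
            have e2 : x + (z.1 - (t - z.2) • vel C) - z.1 + (t - z.2) • vel C = x := by abel
            change x + (z.1 - (t - z.2) • vel C) - z.1 + (t - z.2) • vel C ∈ N
            rwa [e2]
        · rw [Set.indicator_of_notMem hx]
          exact zero_le
    _ ≤ _ := lintegral_mono_set hsub

/-- slow variation for the tube: the point is transported along the slope of the cap. -/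
theorem AdN_ray {N : ℤ × ℤ → Finset (ℤ × ℤ)} {r : ℝ}
    (hS : Slow th kp th1 r (Fm n) (AdN n th kp g S N)) (hr : 0 ≤ r) {m' : ℤ × ℤ}
    (hm' : m' ∈ caps th1) (z : E3 × ℝ) (x : E3) {t : ℝ} (ht : |t - z.2| ≤ r / 2) :
    AdN n th kp g S N m' z x ≤ ENNReal.ofReal (13 ^ n) *
      Acc n th kp th g S (N m') (z.1 + x - (t - z.2) • vel (cen th1 m')) t := by
  have h := hS m' z (z.1 + x - (t - z.2) • vel (cen th1 m'), t) x 0 0 hm'
    (by change |t - z.2| ≤ r; linarith) le_rfl (by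
      have e : TuG373.D (z.1 + x - (t - z.2) • vel (cen th1 m'), t) 0 (cen th1 m') -
          TuG373.D z x (cen th1 m') = 0 := by
        unfold TuG373.D
        simp only
        module
      rw [e]
      unfold pn
      have : lat (0 : E3) = 0 := by ext i; fin_cases i <;> rfl
      rw [this, nrm_zero, this]
      simp)
  refine h.trans (le_of_eq ?_)
  unfold AdN Fm
  simp

/-! ### the coherence count gives a lower bound on the tube -/

/-- **MULT** on the tube. -/
theorem lam_le {N : ℤ × ℤ → Finset (ℤ × ℤ)} (hN : NearF th th1 N) {r σ s K Y : ℝ}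
    (hth : 0 ≤ th) (hth1 : 0 < th1) (hkp : 0 ≤ kp)
    (hS : Slow th kp th1 r (Fm n) (AdN n th kp g S N)) (hr : 0 ≤ r) (hσ0 : 0 ≤ σ) (hσ : σ ≤ s)
    (h1s : th1 ≤ s) (hst : kp * σ ≤ th) (hs1 : th * (r * σ) ≤ 1) (hs2 : kp * (r * σ ^ 2) ≤ 1)
    (hK : 0 ≤ K) (hY : 0 ≤ Y) {m' : ℤ × ℤ} {z : E3 × ℝ} {U : Set E3} {a pl : ℝ}
    (ha : ∀ y ∈ U, ENNReal.ofReal a ≤ AdN n th kp g S N m' z y)
    (hp : ∀ y ∈ U, pl ≤ (potT (AdN n th kp g S N) th1 σ K m' z y : ℝ)) {p : E3 × ℝ}
    (hpQ : p ∈ Qs r (cen th1 m') z (Nb th kp (cen th1 m') Y U)) :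
    ENNReal.ofReal pl * ENNReal.ofReal a ≤
      ENNReal.ofReal (81 * (K * Fm n (4 * Y + 3 / 2))) *
        Cad538.Acc n th kp th g S (Mk th s (tau th1 s m')) p.1 p.2 := by
  classical
  obtain ⟨hpt, y, hyU, hy⟩ := hpQ
  have hs : 0 < s := hth1.trans_le h1s
  have hd : pn th kp (cen th1 m') (TuG373.D (p.1, p.2) 0 (cen th1 m') -
      TuG373.D z y (cen th1 m')) ≤ 2 * Y := by
    have e : TuG373.D (p.1, p.2) 0 (cen th1 m') - TuG373.D z y (cen th1 m') =
        p.1 - z.1 + (p.2 - z.2) • vel (cen th1 m') - y := by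
      unfold TuG373.D
      simp only
      module
    rw [e]
    have a1 := lat_le_frc (kp := kp) hth (cen th1 m')
      (p.1 - z.1 + (p.2 - z.2) • vel (cen th1 m') - y)
    have a2 := nrm_le_frc (th := th) hkp (cen th1 m')
      (p.1 - z.1 + (p.2 - z.2) • vel (cen th1 m') - y)
    unfold pn
    linarith
  have h2 := mult (p := potT (AdN n th kp g S N) th1 σ K m' z y) hS hth hkp zero_le_one hK
    (by positivity : (0:ℝ) ≤ 2 * Y) hr (by linarith : kp * σ ≤ 1 * th) (ha y hyU) le_rfl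
    (by change |p.2 - z.2| ≤ r; linarith : |((p.1, p.2) : E3 × ℝ).2 - z.2| ≤ r) hd
  have h3 : ENNReal.ofReal pl ≤ ((potT (AdN n th kp g S N) th1 σ K m' z y : ℕ) : ℝ≥0∞) := by
    rw [← ENNReal.ofReal_natCast]
    exact ENNReal.ofReal_le_ofReal (hp y hyU)
  have h4 : ∑ m ∈ (caps th1).filter (fun m => ‖cen th1 m - cen th1 m'‖ ≤ σ),
      AdN n th kp g S N m (p.1, p.2) 0 ≤
      81 * Cad538.Acc n th kp th g S (Mk th s (tau th1 s m')) p.1 p.2 := by
    have := sum_AdN_le (n := n) (kp := kp) (g := g) (S := S) hN hth1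
      (T := (caps th1).filter (fun m => ‖cen th1 m - cen th1 m'‖ ≤ σ))
      (M := Mk th s (tau th1 s m'))
      (fun m hm => near_sub_Mk hN hs h1s hσ (Finset.mem_filter.1 hm).2) (p.1, p.2) 0
    simpa using this
  have h5 : Fm n ((1 + 1) * (2 * Y) + (th * (r * σ) + kp * (r * σ ^ 2 / 2))) ≤
      Fm n (4 * Y + 3 / 2) := by
    refine Fm_mono n (by positivity) ?_
    have : kp * (r * σ ^ 2 / 2) = kp * (r * σ ^ 2) / 2 := by ring
    linarith
  calc ENNReal.ofReal pl * ENNReal.ofReal a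
      ≤ ((potT (AdN n th kp g S N) th1 σ K m' z y : ℕ) : ℝ≥0∞) * ENNReal.ofReal a :=
        mul_le_mul' h3 le_rfl
    _ ≤ _ := h2
    _ ≤ ENNReal.ofReal (K * Fm n (4 * Y + 3 / 2)) *
        (81 * Cad538.Acc n th kp th g S (Mk th s (tau th1 s m')) p.1 p.2) :=
        mul_le_mul' (ENNReal.ofReal_le_ofReal (mul_le_mul_of_nonneg_left h5 hK)) h4
    _ = _ := by
        rw [← mul_assoc, mul_comm (ENNReal.ofReal _) (81 : ℝ≥0∞),
          ENNReal.ofReal_mul (by norm_num : (0:ℝ) ≤ 81)]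
        norm_num

/-! ### energy of one narrow plate -/

/-- energy of a narrow plate from a pointwise bound. -/
theorem enc_box_le {r A s1 s2 T G : ℝ} (hr : 0 < r) (hth1 : 0 < th1) (hA : 0 ≤ A)
    (hs1 : th1 ≤ s1) (h12 : s1 ≤ s2) (hG : s2 ≤ G * th1) (hG0 : 0 ≤ G) (hT : 0 ≤ T)
    {S : ℤ × ℤ → Set E3} {c : E2} {X0 : E3} (hSm : ∀ m, MeasurableSet (S m))
    (hS : ∀ m, ∀ y ∈ S m, ‖cen th1 m - c‖ ≤ A * s2 ∧ ‖lat y - lat X0‖ ≤ A * s2 * r ∧
      |nrm c y 0 - nrm c X0 0| ≤ A * T * r) {B : ℝ≥0∞}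
    (hB : ∀ m ∈ caps th1, ∀ y ∈ S m, ‖umc th1 g m y‖ₑ ^ 2 ≤ B) :
    ENNReal.ofReal r * enc th1 g S ≤ ENNReal.ofReal (r * (s1 * s2 * T * r ^ 3)) *
      (ENNReal.ofReal (8 * A ^ 3 * (2 * (A * G) + 1) ^ 2 * G) * B) := by
  classical
  have hs10 : 0 < s1 := hth1.trans_le hs1
  have hs20 : 0 < s2 := hs10.trans_le h12
  set T0 := (caps th1).filter fun m => ‖cen th1 m - c‖ ≤ A * s2 with hT0
  have hcard : (T0.card : ℝ) ≤ (2 * (A * G) + 1) ^ 2 := by
    refine card_caps_le hth1 (ξ0 := c) (by positivity) fun m hm => ?_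
    refine (Finset.mem_filter.1 hm).2.trans ?_
    calc A * s2 ≤ A * (G * th1) := mul_le_mul_of_nonneg_left hG hA
      _ = _ := by ring
  have hone : ∀ m ∈ caps th1, ∫⁻ x in S m, ‖umc th1 g m x‖ₑ ^ 2 ≤
      B * ENNReal.ofReal (8 * (A * s2 * r * (A * s2 * r) * (A * T * r))) := by
    intro m hm
    calc ∫⁻ x in S m, ‖umc th1 g m x‖ₑ ^ 2 ≤ ∫⁻ _x in S m, B :=
          setLIntegral_mono' (hSm m) fun x hx => hB m hm x hx
      _ = B * volume (S m) := by rw [setLIntegral_const]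
      _ ≤ _ := by
          refine mul_le_mul' le_rfl ((measure_mono ?_).trans (Mc330.slice_le c X0
            (w := A * s2 * r) (B := A * T * r) (by positivity) (by positivity) 0))
          intro y hy
          obtain ⟨-, h2, h3⟩ := hS m y hy
          refine ⟨?_, h3⟩
          rwa [zero_smul, add_zero]
  have hsum : enc th1 g S ≤ ENNReal.ofReal ((2 * (A * G) + 1) ^ 2) *
      (B * ENNReal.ofReal (8 * (A * s2 * r * (A * s2 * r) * (A * T * r)))) := by
    unfold enc
    have e : ∑ m ∈ caps th1, ∫⁻ x in S m, ‖umc th1 g m x‖ₑ ^ 2 =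
        ∑ m ∈ T0, ∫⁻ x in S m, ‖umc th1 g m x‖ₑ ^ 2 := by
      symm
      refine Finset.sum_subset (Finset.filter_subset _ _) fun m hm hm0 => ?_
      have : S m = ∅ := by
        by_contra hne
        obtain ⟨y, hy⟩ := Set.nonempty_iff_ne_empty.2 hne
        exact hm0 (Finset.mem_filter.2 ⟨hm, (hS m y hy).1⟩)
      rw [this, Measure.restrict_empty, lintegral_zero_measure]
    rw [e]
    calc ∑ m ∈ T0, ∫⁻ x in S m, ‖umc th1 g m x‖ₑ ^ 2
        ≤ ∑ _m ∈ T0, B * ENNReal.ofReal (8 * (A * s2 * r * (A * s2 * r) * (A * T * r))) :=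
          Finset.sum_le_sum fun m hm => hone m (Finset.mem_filter.1 hm).1
      _ = (T0.card : ℝ≥0∞) *
          (B * ENNReal.ofReal (8 * (A * s2 * r * (A * s2 * r) * (A * T * r)))) := by
          rw [Finset.sum_const, nsmul_eq_mul]
      _ ≤ _ := by
          refine mul_le_mul' ?_ le_rfl
          rw [← ENNReal.ofReal_natCast]
          exact ENNReal.ofReal_le_ofReal hcard
  calc ENNReal.ofReal r * enc th1 g S
      ≤ ENNReal.ofReal r * (ENNReal.ofReal ((2 * (A * G) + 1) ^ 2) *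
        (B * ENNReal.ofReal (8 * (A * s2 * r * (A * s2 * r) * (A * T * r))))) :=
        mul_le_mul' le_rfl hsum
    _ = ENNReal.ofReal (r * ((2 * (A * G) + 1) ^ 2 *
        (8 * (A * s2 * r * (A * s2 * r) * (A * T * r))))) * B := by
        rw [ENNReal.ofReal_mul hr.le, ENNReal.ofReal_mul (by positivity : (0:ℝ) ≤
          (2 * (A * G) + 1) ^ 2)]
        ring
    _ ≤ ENNReal.ofReal ((r * (s1 * s2 * T * r ^ 3)) *
        (8 * A ^ 3 * (2 * (A * G) + 1) ^ 2 * G)) * B := by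
        refine mul_le_mul' (ENNReal.ofReal_le_ofReal ?_) le_rfl
        have h1 : s2 ≤ G * s1 := hG.trans (mul_le_mul_of_nonneg_left hs1 hG0)
        have h2 : r * ((2 * (A * G) + 1) ^ 2 *
            (8 * (A * s2 * r * (A * s2 * r) * (A * T * r)))) =
            (8 * r ^ 4 * A ^ 3 * (2 * (A * G) + 1) ^ 2 * s2 * T) * s2 := by ring
        have h3 : (r * (s1 * s2 * T * r ^ 3)) * (8 * A ^ 3 * (2 * (A * G) + 1) ^ 2 * G) =
            (8 * r ^ 4 * A ^ 3 * (2 * (A * G) + 1) ^ 2 * s2 * T) * (G * s1) := by ring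
        rw [h2, h3]
        exact mul_le_mul_of_nonneg_left h1 (by positivity)
    _ = _ := by
        rw [ENNReal.ofReal_mul (by positivity), mul_assoc]

end Crest.Agent.R116.TuC373
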