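import Crest.Agent.R116.TuT_890

/-!
# R116 (S0155), wave side, TUBE plug: sum over the parent frames (helper890)

`L` = child level, `Li` = ancestor level, `π` = frame of the ancestor level on the path
(`TuD373.pz L j i`), `Row w` = Kakeya term of the parent frame `w`, `tl w` = tail of `tube_core`.
-/

set_option autoImplicit false

open MeasureTheory FourierTransform
open scoped ENNReal

namespace Crest.Agent.R116.TuP890

open Crest.Agent.R138.Defs (E2 ee)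
open Crest.Agent.R138.Wpk685 (cen caps)
open Crest.Agent.R116.CDef480 Crest.Agent.R116.WC188 Crest.Agent.R116.GlC210
open Crest.Agent.R116.TuL890 Crest.Agent.R116.TuT890

variable {M κ q A A' a b Cn : ℝ} {K : ℕ} {η0 : ℝ} {C0 : E2} {σ : ℝ} {g : E3 → ℂ} {R : ℝ}

open Classical in
/-- **sum over the parent frames.** -/
theorem sum_frames {L Li : Lev} (hL : LevOk M κ q A A' a b Cn K η0 C0 σ g R L)
    (hLi : LevOk M κ q A A' a b Cn K η0 C0 σ g R Li) (hR : 1 ≤ R) {k k' : ℕ} (hk : k < L.n)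
    (hk' : k' < Li.n) (π : E3 × ℝ → E3 × ℝ) (hπ : ∀ z ∈ L.Z, π z ∈ Li.Z)
    {Cst Ck : ℝ} (hCst : 0 ≤ Cst) {Row tl : E3 × ℝ → ℝ≥0∞}
    (hcore : ∀ w ∈ Li.Z, ∑ z ∈ L.Z.filter (fun z => π z = w),
      val κ g L.r (L.s k).1 (L.s k).2 (L.I z k) (L.P z k) ≤ ENNReal.ofReal Cst * Row w + tl w)
    (hrow : ∀ w ∈ Li.Z, Row w ≤ ENNReal.ofReal Ck * (ENNReal.ofReal (Li.r * √(Li.D w k')) *
      enc (Li.r ^ (-(1/2) : ℝ)) (trc w g) (Li.sl w k'))) :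
    L.S g k ≤ ENNReal.ofReal (√(Cn * L.nb) * (L.s k).2 ^ (-q / 2) * (Cst * Ck)) * Li.S g k' +
      ENNReal.ofReal (√(Cn * L.nb) * (L.s k).2 ^ (-q / 2)) * ∑ w ∈ Li.Z, tl w := by
  obtain ⟨-, hs2⟩ := lev_s_pos hL hR hk
  have hq0 : 0 ≤ (L.s k).2 ^ (-q / 2) := Real.rpow_nonneg hs2.le _
  have h1 := S_le_val hL hR hk
  have h2 : ∑ z ∈ L.Z, val κ g L.r (L.s k).1 (L.s k).2 (L.I z k) (L.P z k) =
      ∑ w ∈ Li.Z, ∑ z ∈ L.Z.filter (fun z => π z = w),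
        val κ g L.r (L.s k).1 (L.s k).2 (L.I z k) (L.P z k) :=
    (Finset.sum_fiberwise_of_maps_to hπ _).symm
  have h3 : ∑ w ∈ Li.Z, Row w ≤ ENNReal.ofReal Ck * Li.S g k' := row_le_S hLi hk' hrow
  have h4 : ∑ z ∈ L.Z, val κ g L.r (L.s k).1 (L.s k).2 (L.I z k) (L.P z k) ≤
      ENNReal.ofReal (Cst * Ck) * Li.S g k' + ∑ w ∈ Li.Z, tl w := by
    rw [h2]
    calc _ ≤ ∑ w ∈ Li.Z, (ENNReal.ofReal Cst * Row w + tl w) := Finset.sum_le_sum hcore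
      _ = ENNReal.ofReal Cst * ∑ w ∈ Li.Z, Row w + ∑ w ∈ Li.Z, tl w := by
          rw [Finset.sum_add_distrib, Finset.mul_sum]
      _ ≤ ENNReal.ofReal Cst * (ENNReal.ofReal Ck * Li.S g k') + ∑ w ∈ Li.Z, tl w := by
          gcongr
      _ = _ := by rw [ENNReal.ofReal_mul hCst, mul_assoc]
  have hF : ENNReal.ofReal (√(Cn * L.nb) * (L.s k).2 ^ (-q / 2)) =
      ENNReal.ofReal (√(Cn * L.nb)) * ENNReal.ofReal ((L.s k).2 ^ (-q / 2)) :=
    ENNReal.ofReal_mul (Real.sqrt_nonneg _)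
  calc L.S g k ≤ ENNReal.ofReal (√(Cn * L.nb)) * (ENNReal.ofReal ((L.s k).2 ^ (-q / 2)) *
        ∑ z ∈ L.Z, val κ g L.r (L.s k).1 (L.s k).2 (L.I z k) (L.P z k)) := h1
    _ ≤ ENNReal.ofReal (√(Cn * L.nb)) * (ENNReal.ofReal ((L.s k).2 ^ (-q / 2)) *
        (ENNReal.ofReal (Cst * Ck) * Li.S g k' + ∑ w ∈ Li.Z, tl w)) := by gcongr
    _ = _ := by
        rw [ENNReal.ofReal_mul (p := √(Cn * L.nb) * (L.s k).2 ^ (-q / 2)) (by positivity), hF]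
        ring

end Crest.Agent.R116.TuP890
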