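import Crest.Agent.R116.KMRDef_890
import Crest.Agent.R116.TuP2_890
import Crest.Agent.R116.TuC1_373

/-!
# R116 (S0155), wave side: the Kakeya row at one frame of a level, from `KMR` (helper890)

* `row_of_KMR`: general families of caps; `row_tube`: the row of `TuC373.tube_core`
  (= `hrow` of `TuP890.sum_frames`).
-/

set_option autoImplicit false

open MeasureTheory FourierTransform
open scoped ENNReal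

namespace Crest.Agent.R116.TuP890

open Crest.Agent.R138.Defs (E2 ee)
open Crest.Agent.R138.Wpk685 (cen caps)
open Crest.Agent.R116.CDef480 Crest.Agent.R116.WC188 Crest.Agent.R116.GlC210
open Crest.Agent.R116.TuL890 Crest.Agent.R116.TuT890

/-- the angle of a level is at most the slice width. -/
theorem th_le_kap {r R κ : ℝ} (hR : 1 ≤ R) (hr : R ^ (1/2 : ℝ) ≤ r)
    (hκ : R ^ (-(1/16) : ℝ) ≤ κ) : r ^ (-(1/2) : ℝ) ≤ κ := by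
  have hR0 : 0 < R := by linarith
  calc r ^ (-(1/2) : ℝ) ≤ (R ^ (1/2 : ℝ)) ^ (-(1/2) : ℝ) :=
        Real.rpow_le_rpow_of_nonpos (Real.rpow_pos_of_pos hR0 _) hr (by norm_num)
    _ = R ^ (-(1/4) : ℝ) := by rw [← Real.rpow_mul hR0.le]; norm_num
    _ ≤ R ^ (-(1/16) : ℝ) := Real.rpow_le_rpow_of_exponent_le hR (by norm_num)
    _ ≤ κ := hκ

/-- **Kakeya row at a frame of a level.** -/
theorem row_of_KMR {M q : ℝ} (hK : KMR890.KMR M q) (ε : ℝ) (hε : 0 < ε) :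
    ∃ n0 : ℕ, ∀ n : ℕ, n0 ≤ n → ∀ A' T Λ : ℝ, 0 ≤ A' → 0 ≤ T → 0 ≤ Λ → ∃ C : ℝ, 0 ≤ C ∧
    ∀ (a b M0 κ A Cn : ℝ) (K : ℕ) (η0 : ℝ) (C0 : E2) (σ : ℝ) (g : E3 → ℂ) (R D : ℝ),
      1 ≤ a → St M κ q a b M0 C0 σ g R D → 0 < κ → κ ≤ 1 → R ^ (-(1/16) : ℝ) ≤ κ →
      ∀ L : Lev, LevOk M κ q A A' a b Cn K η0 C0 σ g R L → ∀ k < L.n, ∀ w ∈ L.Z,
      ∀ s : ℝ, L.r ^ (-(1/2) : ℝ) ≤ s → s ≤ 1 → ∀ T' : ℝ, T' ≤ T * L.r →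
      ∀ (Kf : Finset (ℤ × ℤ)) (Mk : ℤ × ℤ → Finset (ℤ × ℤ)),
      (∀ j ∈ Kf, Mk j ⊆ caps (L.r ^ (-(1/2) : ℝ)) ∧
        ∀ m ∈ Mk j, ‖cen (L.r ^ (-(1/2) : ℝ)) m - cen s j‖ ≤ Λ * s) →
      ∑ j ∈ Kf, ∫⁻ t in Set.Icc (-T') T', ∫⁻ x,
        (Cad538.Acc n (L.r ^ (-(1/2) : ℝ)) κ (L.r ^ (-(1/2) : ℝ)) (trc w g) (L.sl w k) (Mk j) x t)
          ^ (3/2 : ℝ) ≤
        ENNReal.ofReal (C * L.r ^ ε * s ^ (q / 2)) * (ENNReal.ofReal (L.r * √(L.D w k)) *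
          enc (L.r ^ (-(1/2) : ℝ)) (trc w g) (L.sl w k)) := by
  obtain ⟨n0, h0⟩ := hK ε hε
  refine ⟨n0, fun n hn A' T Λ hA' hT hΛ => ?_⟩
  obtain ⟨C, hC, h1⟩ := h0 n hn A' T Λ hA' hT hΛ
  refine ⟨C, hC, ?_⟩
  intro a b M0 κ A Cn K η0 C0 σ g R D ha hst hκ hκ1 hκR L hL k hk w hw s hs hs1 T' hT' Kf Mk hMk
  have hR := hst.R1
  have hr := lev_r1 hL hR
  have hr0 : 0 < L.r := by linarith
  obtain ⟨cls, hd⟩ := hL.dec w hw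
  have hkΛ : k ∈ Finset.range L.n := Finset.mem_range.2 hk
  have hgd := (Bas367.St.gd (by linarith) hst).trc w
  have hmeas : ∀ m, MeasurableSet (L.sl w k m) := fun m => by
    unfold Lev.sl uS
    exact Finset.measurableSet_biUnion _ fun i hi => (hd.pl k hkΛ).1.meas i hi m
  have hD0 : 0 ≤ L.D w k := (hd.st k hkΛ).D0
  have h2 := h1 κ L.r hκ hκ1 hr (th_le_kap hR hL.lo hκR) (trc w g) hgd.int (hgd.memLp 2)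
    (L.sl w k) hmeas (fun m => hd.bd k hkΛ m) (L.D w k) hD0
    (fun c X0 f s1 s2 hsd hadm => hd.dens k hkΛ c X0 f s1 s2 hsd hadm) s hs hs1 Kf Mk hMk
  have hs0 : 0 ≤ s := (Real.rpow_nonneg hr0.le _).trans hs
  have hmono : ∑ j ∈ Kf, ∫⁻ t in Set.Icc (-T') T', ∫⁻ x,
      (Cad538.Acc n (L.r ^ (-(1/2) : ℝ)) κ (L.r ^ (-(1/2) : ℝ)) (trc w g) (L.sl w k) (Mk j) x t)
          ^ (3/2 : ℝ) ≤ ∑ j ∈ Kf, ∫⁻ t in Set.Icc (-(T * L.r)) (T * L.r), ∫⁻ x,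
      (Cad538.Acc n (L.r ^ (-(1/2) : ℝ)) κ (L.r ^ (-(1/2) : ℝ)) (trc w g) (L.sl w k) (Mk j) x t)
          ^ (3/2 : ℝ) :=
    Finset.sum_le_sum fun j _ => lintegral_mono_set (Set.Icc_subset_Icc (by linarith) hT')
  refine (hmono.trans h2).trans (le_of_eq ?_)
  rw [← mul_assoc, ← ENNReal.ofReal_mul (by positivity)]
  congr 2
  ring

/-- the row of `tube_core` (`hrow` of `sum_frames`). -/
theorem row_tube {M q : ℝ} (hK : KMR890.KMR M q) (ε : ℝ) (hε : 0 < ε) :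
    ∃ n0 : ℕ, ∀ n : ℕ, n0 ≤ n → ∀ A' T : ℝ, 0 ≤ A' → 0 ≤ T → ∃ C : ℝ, 0 ≤ C ∧
    ∀ (a b M0 κ A Cn : ℝ) (K : ℕ) (η0 : ℝ) (C0 : E2) (σ : ℝ) (g : E3 → ℂ) (R D : ℝ),
      1 ≤ a → St M κ q a b M0 C0 σ g R D → 0 < κ → κ ≤ 1 → R ^ (-(1/16) : ℝ) ≤ κ →
      ∀ L : Lev, LevOk M κ q A A' a b Cn K η0 C0 σ g R L → ∀ k < L.n, ∀ w ∈ L.Z,
      ∀ s : ℝ, L.r ^ (-(1/2) : ℝ) ≤ s → s ≤ 1 → ∀ T' : ℝ, T' ≤ T * L.r →
      ∀ Kf : Finset (ℤ × ℤ),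
      ∑ j ∈ Kf, ∫⁻ t in Set.Icc (-T') T', ∫⁻ x,
        (Cad538.Acc n (L.r ^ (-(1/2) : ℝ)) κ (L.r ^ (-(1/2) : ℝ)) (trc w g) (L.sl w k)
          (TuC373.Mk (L.r ^ (-(1/2) : ℝ)) s j) x t) ^ (3/2 : ℝ) ≤
        ENNReal.ofReal (C * L.r ^ ε * s ^ (q / 2)) * (ENNReal.ofReal (L.r * √(L.D w k)) *
          enc (L.r ^ (-(1/2) : ℝ)) (trc w g) (L.sl w k)) := by
  classical
  obtain ⟨n0, h0⟩ := row_of_KMR hK ε hε
  refine ⟨n0, fun n hn A' T hA' hT => ?_⟩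
  obtain ⟨C, hC, h1⟩ := h0 n hn A' T 7 hA' hT (by norm_num)
  refine ⟨C, hC, ?_⟩
  intro a b M0 κ A Cn K η0 C0 σ g R D ha hst hκ hκ1 hκR L hL k hk w hw s hs hs1 T' hT' Kf
  refine h1 a b M0 κ A Cn K η0 C0 σ g R D ha hst hκ hκ1 hκR L hL k hk w hw s hs hs1 T' hT' Kf _
    fun j _ => ⟨fun m hm => ?_, fun m hm => ?_⟩
  · unfold TuC373.Mk at hm
    exact (Finset.mem_filter.1 hm).1
  · unfold TuC373.Mk at hm
    exact (Finset.mem_filter.1 hm).2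

end Crest.Agent.R116.TuP890
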