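import Crest.Agent.R116.AlD_339
import Crest.Agent.R116.TuP3_890

/-!
# R116 (S0155), wave side: `KMR → KmC` (the Kakeya input of the slab step) (helper890)
-/

set_option autoImplicit false

open MeasureTheory FourierTransform
open scoped ENNReal

namespace Crest.Agent.R116.KmB890

open Crest.Agent.R138.Defs (E2 ee)
open Crest.Agent.R138.Wpk685 (cen caps)
open Crest.Agent.R116.CDef480 Crest.Agent.R116.WC188
open Crest.Agent.R116.Cad538 (Acc Den_meas2)
open Crest.Agent.R116.PC299 (an)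

/-- joint measurability of the densities. -/
theorem acc_meas2 {n : ℕ} {th κ ρ : ℝ} {g : E3 → ℂ} (hg : Integrable g) (S : ℤ × ℤ → Set E3)
    (F : Finset (ℤ × ℤ)) : Measurable fun p : E3 × ℝ => Acc n th κ ρ g S F p.1 p.2 :=
  Den_meas2 fun m _ => Bas367.umc_meas_sq hg ρ m

/-- the integral over a cylinder is at most the iterated integral. -/
theorem cyl_le_iter {f : E3 × ℝ → ℝ≥0∞} (hf : Measurable f) (T : ℝ) :
    ∫⁻ p in (cylc T : Set (E3 × ℝ)), f p ≤ ∫⁻ t in Set.Icc (-T) T, ∫⁻ x, f (x, t) := by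
  have hsub : (cylc T : Set (E3 × ℝ)) ⊆ Set.univ ×ˢ Set.Icc (-T) T := by
    rintro ⟨x, t⟩ ⟨-, h2⟩
    exact ⟨Set.mem_univ _, abs_le.1 h2⟩
  calc ∫⁻ p in (cylc T : Set (E3 × ℝ)), f p ≤ ∫⁻ p in Set.univ ×ˢ Set.Icc (-T) T, f p :=
        lintegral_mono_set hsub
    _ = ∫⁻ p, f p ∂((volume : Measure E3).prod ((volume : Measure ℝ).restrict (Set.Icc (-T) T))) := by
        rw [Measure.volume_eq_prod, ← Measure.prod_restrict, Measure.restrict_univ]
    _ = ∫⁻ t in Set.Icc (-T) T, ∫⁻ x, f (x, t) := lintegral_prod_symm' _ hf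

theorem KmC_of_KMR {M q : ℝ} (hK : KMR890.KMR M q) : AlC339.KmC M q := by
  intro ε hε
  obtain ⟨n0, h0⟩ := hK ε hε
  refine ⟨n0, fun n hn a b A L Λ ha hb hb2 hA hL hΛ => ?_⟩
  obtain ⟨C, hC, h1⟩ := h0 n hn A L Λ (by linarith) (by linarith) (by linarith)
  refine ⟨C, hC, ?_⟩
  intro κ η0 r g S D s hκ hκa hr hκr hgd hSm _ hSb hD hdens hs hs1 K F hF
  have hr0 : 0 < r := by linarith
  have ha0 : 0 < a⁻¹ := inv_pos.2 (by linarith)
  have hg : Bas367.Gd g := Bas367.gd_of_supp hgd.gm hgd.gb (a := a) (b := b) fun ζ hz =>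
    ⟨ha0.trans_le (hgd.gs ζ hz).1, (hgd.gs ζ hz).2⟩
  have hκ1 : κ ≤ 1 := by nlinarith
  have hth : r ^ (-(1/2) : ℝ) ≤ κ :=
    (Real.rpow_le_rpow_of_exponent_le hr (by norm_num)).trans hκr
  have h2 := h1 κ r hκ hκ1 hr hth g hg.int (hg.memLp 2) S hSm hSb D hD hdens s hs hs1 K F hF
  refine le_trans (Finset.sum_le_sum fun k _ => ?_) h2
  exact cyl_le_iter (f := fun p => Acc n (an r) κ (an r) g S (F k) p.1 p.2 ^ (3 / 2 : ℝ))
    ((acc_meas2 hg.int S (F k)).pow_const _) (L * r)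

end Crest.Agent.R116.KmB890
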