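import Crest.Agent.R116.Al_339
import Crest.Agent.R116.AlS4_299
import Crest.Agent.R116.KmB_890

/-!
# R116 (S0155), wave side, AL-CONE (helper339): the slab step for aligned plates

**`al_c`** : the literal `AL_C` of PDefC_299 from 890's `KMR`.
-/

set_option autoImplicit false

namespace Crest.Agent.R116.AlC339

open Crest.Agent.R116.PC299

/-- **AL_C** from the Kakeya bound `KmC`. -/
theorem al_c_of_KmC {M q : ℝ} (hM : 1 ≤ M) (hq : 0 ≤ q) (hq4 : q ≤ 4) (hK : KmC M q) : AL_C M q :=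
  al_of_sum hM (AlS299.sumC hM hq hq4 hK)

/-- **AL_C** from `KMR`. -/
theorem al_c {M q : ℝ} (hM : 1 ≤ M) (hq : 0 ≤ q) (hq4 : q ≤ 4) (hK : KMR890.KMR M q) : AL_C M q :=
  al_c_of_KmC hM hq hq4 (KmB890.KmC_of_KMR hK)

end Crest.Agent.R116.AlC339
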