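import Crest.Agent.R116.AlB1_888

/-!
# R116, wave side, slab step: strip data at the common point, LOWER for a member, core of `COHu`
(helper888)

* `strip_data`: for a ray of slope `C` of the member of `f` whose plate contains the point `(x, t)`:
  `f.ld C` at `(x, t)`, lower bound of the gradient, turning of the unit normal;
* `row_al_c`: **LOWER** for the child caps of a member (class SS of 725 with the compatibility
  `|d| ≤ M κ s1 / 2`);
* `coh_core`: the class of the parent points implies the coherence bound (`K ≥ 8 (1 + 6090 Y)^n`).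
-/

set_option autoImplicit false

open MeasureTheory
open scoped ENNReal

namespace Crest.Agent.R116.AlB888

open Crest.Agent.R138.Defs (E2)
open Crest.Agent.R138.Wpk685 (cen caps)
open Crest.Agent.R138.Loc878 (nearL mem_nearL Near)
open Crest.Agent.R138.Rect779 (orth RectF norm_le_orth aligned_mem card_caps_le orth_sub abs_inner_le)
open Crest.Agent.R116.CDef480 Crest.Agent.R116.Ckm538 Crest.Agent.R116.Cad538
open Crest.Agent.R116.LZg725 (Cf)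
open Crest.Agent.R116.Gc192 (un norm_un un_sub crs)

/-! ### planar facts -/

/-- the orthogonal part in terms of the cross product. -/
theorem norm_orth_crs {N : E2} (hN : ‖N‖ = 1) (v : E2) : ‖orth N v‖ = |crs N v| := by
  have h1 : N 0 ^ 2 + N 1 ^ 2 = 1 := by rw [← normsq2, hN]; norm_num
  have h2 : ‖orth N v‖ ^ 2 = |crs N v| ^ 2 := by
    rw [sq_abs, normsq2]
    unfold orth crs
    rw [CDef480.inner2]
    simp only [PiLp.sub_apply, PiLp.smul_apply, smul_eq_mul]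
    have e : (v 0 - (N 0 * v 0 + N 1 * v 1) * N 0) ^ 2 + (v 1 - (N 0 * v 0 + N 1 * v 1) * N 1) ^ 2 =
        (v 0 ^ 2 + v 1 ^ 2) - (N 0 * v 0 + N 1 * v 1) ^ 2 * (2 - (N 0 ^ 2 + N 1 ^ 2)) := by ring
    rw [e, h1]
    have e2 : (N 0 * v 1 - N 1 * v 0) ^ 2 = (N 0 ^ 2 + N 1 ^ 2) * (v 0 ^ 2 + v 1 ^ 2) -
        (N 0 * v 0 + N 1 * v 1) ^ 2 := by ring
    rw [e2, h1]
    ring
  have h3 := norm_nonneg (orth N v)
  have h4 := abs_nonneg (crs N v)
  nlinarith [sq_nonneg (‖orth N v‖ - |crs N v|)]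

/-- change of the normal, in terms of the sine. -/
theorem orth_le_crs {N nu : E2} (hN : ‖N‖ = 1) (hnu : ‖nu‖ = 1) {δ : ℝ} (h : |crs nu N| ≤ δ)
    (v : E2) : ‖orth N v‖ ≤ δ * ‖v‖ + ‖orth nu v‖ := by
  rw [norm_orth_crs hN, norm_orth_crs hnu]
  have h1 : nu 0 ^ 2 + nu 1 ^ 2 = 1 := by rw [← normsq2, hnu]; norm_num
  have e : crs N v = -(crs nu N) * inner ℝ nu v + inner ℝ nu N * crs nu v := by
    unfold crs
    rw [CDef480.inner2, CDef480.inner2]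
    have : N 0 * v 1 - N 1 * v 0 = (nu 0 ^ 2 + nu 1 ^ 2) * (N 0 * v 1 - N 1 * v 0) := by
      rw [h1, one_mul]
    rw [this]
    ring
  rw [e]
  refine (abs_add_le _ _).trans (add_le_add ?_ ?_)
  · rw [abs_mul, abs_neg]
    exact mul_le_mul h (abs_inner_le hnu v) (abs_nonneg _) ((abs_nonneg _).trans h)
  · rw [abs_mul]
    have := abs_inner_le hnu N
    rw [hN] at this
    exact mul_le_of_le_one_left (abs_nonneg _) this

/-! ### strip data -/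

/-- null displacement. -/
theorem nrm_disp (C : E2) (x y : E3) (t : ℝ) :
    nrm C x t - nrm C y 0 = -nrm C (y - x - t • vel C) 0 := by
  unfold nrm vel
  rw [lat_sub, lat_sub, lat_smul, lat_pt, normsq2, CDef480.inner2, CDef480.inner2, CDef480.inner2]
  simp only [PiLp.sub_apply, PiLp.smul_apply, smul_eq_mul, pt_two]
  ring

/-- lateral displacement. -/
theorem lat_disp (C : E2) (x y : E3) (t : ℝ) :
    (lat x - lat y) + (t - 0) • C = -lat (y - x - t • vel C) := by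
  unfold vel
  rw [lat_sub, lat_sub, lat_smul, lat_pt, sub_zero]
  abel

/-- `ld` at a point near the ray. -/
theorem ld_disp (f : Cf E2) (C : E2) (x y : E3) (t : ℝ) :
    f.ld C (lat x) (x 2) t =
      f.ld C (lat y) (y 2) 0 + 2 * f.d * nrm C (y - x - t • vel C) 0 := by
  have h := f.ld_move C (lat y) (lat x) (y 2) (x 2) 0 t
  have e : LZg725.nrm C (lat x) (x 2) t - LZg725.nrm C (lat y) (y 2) 0 =
      -nrm C (y - x - t • vel C) 0 := by
    rw [← nrm_disp]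
    rfl
  rw [h, e]
  ring

/-- the gradient at a point near the ray. -/
theorem gr_disp (f : Cf E2) (C : E2) (x y : E3) (t : ℝ) :
    f.gr C (lat y) 0 - f.gr C (lat x) t = (2 * f.d) • lat (y - x - t • vel C) := by
  rw [f.gr_move C (lat y) (lat x) 0 t, lat_disp, smul_neg]
  abel

/-- the gradient along a ray of the member. -/
theorem gr_lower {f : Cf E2} {C : E2} {x : E2} {y s h0 F0 Mn d0 : ℝ} (hdisc : f.disc = 1)
    (hny : |f.ny s| ≤ Mn) (hd : |f.d| ≤ d0) (hld : |f.ld C x y s| ≤ h0) (hev : |f.ev x y s| ≤ F0)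
    (hs1 : 8 * (Mn * h0) ≤ 1) (hs2 : 16 * (d0 * F0) ≤ 1) : 7 / 10 ≤ ‖f.gr C x s‖ := by
  have h1 := f.norm_gr_sq C x y s
  rw [hdisc] at h1
  have hMn : 0 ≤ Mn := (abs_nonneg _).trans hny
  have hd0 : 0 ≤ d0 := (abs_nonneg _).trans hd
  have h2 : |f.ny s * f.ld C x y s| ≤ Mn * h0 := by
    rw [abs_mul]; exact mul_le_mul hny hld (abs_nonneg _) hMn
  have h3 : |f.d * f.ev x y s| ≤ d0 * F0 := by
    rw [abs_mul]; exact mul_le_mul hd hev (abs_nonneg _) hd0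
  have h4 := (abs_le.1 h2).1
  have h5 := (abs_le.1 h3).1
  have h6 : 1 / 2 ≤ ‖f.gr C x s‖ ^ 2 := by rw [h1]; nlinarith
  nlinarith [norm_nonneg (f.gr C x s)]

/-- **strip data at the common point**. -/
theorem strip_data {f : Cf E2} {C : E2} {x y : E3} {t h0 F0 Mn d0 th kp Y : ℝ} (hth : 0 < th)
    (hkp : 0 < kp) (hdisc : f.disc = 1) (hny : |f.ny 0| ≤ Mn) (hd : |f.d| ≤ d0)
    (hld : |f.ld C (lat y) (y 2) 0| ≤ h0) (hev : |f.ev (lat y) (y 2) 0| ≤ F0)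
    (hy : ‖frc th kp C (y - x - t • vel C)‖ ≤ Y)
    (hs1 : 8 * (Mn * h0) ≤ 1) (hs2 : 16 * (d0 * F0) ≤ 1) (hs3 : 16 * (d0 * Y) ≤ th) :
    |f.ld C (lat x) (x 2) t| ≤ h0 + 2 * d0 * (Y / kp) ∧ 1 / 2 ≤ ‖f.gr C (lat x) t‖ ∧
      ‖un f C (lat x) t - un f C (lat y) 0‖ ≤ 8 * d0 * (Y / th) := by
  have hd0 : 0 ≤ d0 := (abs_nonneg _).trans hd
  have hY : 0 ≤ Y := (norm_nonneg _).trans hy
  have a1 := (nrm_le_frc (th := th) hkp.le C (y - x - t • vel C)).trans hy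
  have a2 := (lat_le_frc (kp := kp) hth.le C (y - x - t • vel C)).trans hy
  have b1 : |nrm C (y - x - t • vel C) 0| ≤ Y / kp := by
    rw [le_div_iff₀ hkp, mul_comm]; exact a1
  have b2 : ‖lat (y - x - t • vel C)‖ ≤ Y / th := by
    rw [le_div_iff₀ hth, mul_comm]; exact a2
  have g1 : 7 / 10 ≤ ‖f.gr C (lat y) 0‖ := gr_lower hdisc hny hd hld hev hs1 hs2
  have g2 : ‖f.gr C (lat y) 0 - f.gr C (lat x) t‖ ≤ 2 * d0 * (Y / th) := by
    rw [gr_disp, norm_smul, Real.norm_eq_abs, abs_mul, abs_two]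
    have := norm_nonneg (lat (y - x - t • vel C))
    gcongr
  have g3 : 2 * d0 * (Y / th) ≤ 1 / 8 := by
    have : d0 * (Y / th) = d0 * Y / th := by ring
    have h5 : d0 * Y / th ≤ 1 / 16 := by
      rw [div_le_iff₀ hth]; linarith
    nlinarith
  have g4 : 1 / 2 ≤ ‖f.gr C (lat x) t‖ := by
    have h6 : ‖f.gr C (lat y) 0‖ ≤ ‖f.gr C (lat y) 0 - f.gr C (lat x) t‖ + ‖f.gr C (lat x) t‖ := by
      have := norm_add_le (f.gr C (lat y) 0 - f.gr C (lat x) t) (f.gr C (lat x) t)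
      rwa [sub_add_cancel] at this
    linarith
  refine ⟨?_, g4, ?_⟩
  · rw [ld_disp f C x y t]
    refine (abs_add_le _ _).trans (add_le_add hld ?_)
    rw [abs_mul, abs_mul, abs_two]
    gcongr
  · have h7 := un_sub (p := f) (C := C) (C' := C) (x := lat x) (x' := lat y) (s := t) (s' := 0)
      (k := 1 / 2) (d := 2 * d0 * (Y / th)) (by norm_num) g4 (by linarith) (by
        rw [norm_sub_rev]; exact g2)
    refine h7.trans (le_of_eq ?_)
    ring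

/-! ### LOWER for the active caps of a member -/

theorem gr_tr (x0 : E2) (y0 s0 : ℝ) (p : Cf E2) (C x : E2) (s : ℝ) :
    (Cf.tr x0 y0 s0 p).gr C x s = p.gr C (x + x0) (s + s0) := by
  unfold Cf.gr
  rw [Cf.ny_tr]
  unfold Cf.tr
  simp only [smul_add]
  abel

theorem un_tr (x0 : E2) (y0 s0 : ℝ) (p : Cf E2) (C x : E2) (s : ℝ) :
    un (Cf.tr x0 y0 s0 p) C x s = un p C (x + x0) (s + s0) := by
  unfold Gc192.un
  rw [gr_tr]

/-- numbers of the slab step: consequences of the smallness of `kp`. -/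
theorem nums_kp {M A Gm Y kp dl : ℝ} (hM1 : 1 ≤ M) (hA1 : 1 ≤ A) (hGm : 1 ≤ Gm) (hY : 1 ≤ Y)
    (hkp : 0 < kp) (hκ : 8 * (M * A * Gm ^ 2 * Y * kp) ≤ dl) :
    8 * kp ≤ dl ∧ 8 * (M * Gm * Y * kp) ≤ dl ∧ 8 * (M * A * Gm ^ 2 * kp) ≤ dl := by
  have hM0 : 0 < M := by linarith
  have hA0 : 0 < A := by linarith
  have hG0 : 0 < Gm := by linarith
  have hG2 : Gm ≤ Gm ^ 2 := le_self_pow₀ hGm (by norm_num)
  have hG3 : 1 ≤ Gm ^ 2 := hGm.trans hG2
  have q0 : 1 ≤ M * A := one_le_mul_of_one_le_of_one_le hM1 hA1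
  have q1 : 1 ≤ M * A * Gm ^ 2 := one_le_mul_of_one_le_of_one_le q0 hG3
  have q2 : 1 ≤ M * A * Gm ^ 2 * Y := one_le_mul_of_one_le_of_one_le q1 hY
  refine ⟨?_, ?_, ?_⟩
  · have : 1 * kp ≤ M * A * Gm ^ 2 * Y * kp := mul_le_mul_of_nonneg_right q2 hkp.le
    linarith
  · have h2 : M * Gm ≤ M * A * Gm ^ 2 := by
      calc M * Gm = M * 1 * Gm := by ring
        _ ≤ M * A * Gm ^ 2 := by gcongr
    have h3 : M * Gm * Y * kp ≤ M * A * Gm ^ 2 * Y * kp := by gcongr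
    linarith
  · have h2 : M * A * Gm ^ 2 * 1 * kp ≤ M * A * Gm ^ 2 * Y * kp := by gcongr
    linarith

/-- numbers of the strip. -/
theorem nums_strip {M A Gm Y kp dl δ0 th th1 s1 s2 r : ℝ} (hM1 : 1 ≤ M) (hA1 : 1 ≤ A)
    (hGm : 1 ≤ Gm) (hY : 1 ≤ Y) (hkp : 0 < kp) (hκ : 8 * (M * A * Gm ^ 2 * Y * kp) ≤ dl)
    (hdl1 : dl ≤ 1) (hr : 0 < r) (hth1 : 0 < th1) (hdδ : dl ≤ δ0) (e01 : δ0 * th1 = th)
    (e1 : th1 ^ 2 * r = 1) (hs10 : 0 ≤ s1) (hs20 : 0 < s2) (hs1 : s1 ≤ Gm * th1)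
    (hw2 : 8 * (M * A * Gm * th1) ≤ s2) :
    8 * (M / s2 * (A * s1)) ≤ 1 ∧ 16 * (M * kp * s1 / 2 * (A * s1 * r)) ≤ 1 ∧
      16 * (M * kp * s1 / 2 * Y) ≤ th := by
  obtain ⟨k1, k2, k3⟩ := nums_kp hM1 hA1 hGm hY hkp hκ
  have hM0 : 0 < M := by linarith
  have hA0 : 0 < A := by linarith
  have hG0 : 0 < Gm := by linarith
  have hY0 : 0 < Y := by linarith
  refine ⟨?_, ?_, ?_⟩
  · have e : 8 * (M / s2 * (A * s1)) = 8 * (M * A * s1) / s2 := by ring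
    rw [e, div_le_one hs20]
    refine le_trans ?_ hw2
    have : M * A * s1 ≤ M * A * (Gm * th1) := by gcongr
    linarith
  · have hs1r : s1 ^ 2 * r ≤ Gm ^ 2 := by
      calc s1 ^ 2 * r ≤ (Gm * th1) ^ 2 * r := by gcongr
        _ = Gm ^ 2 * (th1 ^ 2 * r) := by ring
        _ = Gm ^ 2 := by rw [e1, mul_one]
    have e : 16 * (M * kp * s1 / 2 * (A * s1 * r)) = 8 * (M * A * (s1 ^ 2 * r) * kp) := by ring
    rw [e]
    have : M * A * (s1 ^ 2 * r) * kp ≤ M * A * Gm ^ 2 * kp := by gcongr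
    linarith
  · have e : 16 * (M * kp * s1 / 2 * Y) = 8 * (M * s1 * Y * kp) := by ring
    rw [e]
    calc 8 * (M * s1 * Y * kp) ≤ 8 * (M * (Gm * th1) * Y * kp) := by gcongr
      _ = 8 * (M * Gm * Y * kp) * th1 := by ring
      _ ≤ dl * th1 := by gcongr
      _ ≤ δ0 * th1 := by gcongr
      _ = th := e01

/-- width of the strip and turning of the normal. -/
theorem nums_turn {M A Gm Y kp dl δ0 δ th th1 th2 s1 : ℝ} (hM1 : 1 ≤ M) (hA1 : 1 ≤ A)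
    (hGm : 1 ≤ Gm) (hY : 1 ≤ Y) (hkp : 0 < kp) (hκ : 8 * (M * A * Gm ^ 2 * Y * kp) ≤ dl)
    (hth : 0 < th) (hth1 : 0 < th1) (hth2 : 0 < th2) (hδδ : δ0 * δ0 = dl)
    (e01 : δ0 * th1 = th) (e12 : δ0 * th2 = th1) (hδ : δ ≤ δ0)
    (hs1 : s1 ≤ Gm * th1) :
    A * s1 + 2 * (M * kp * s1 / 2) * (Y / kp) ≤ (A + M) * Y * (Gm * th1) ∧
      (8 * (M * kp * s1 / 2) * (Y / th) + δ) * th2 ≤ 3 / 2 * th1 := by
  obtain ⟨k1, k2, k3⟩ := nums_kp hM1 hA1 hGm hY hkp hκ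
  have hM0 : 0 < M := by linarith
  have hA0 : 0 < A := by linarith
  have hG0 : 0 < Gm := by linarith
  have hY0 : 0 < Y := by linarith
  have hm := mul_pos hG0 hth1
  refine ⟨?_, ?_⟩
  · have e : 2 * (M * kp * s1 / 2) * (Y / kp) = M * Y * s1 := by
      field_simp
    rw [e]
    have h1 : A * s1 ≤ A * Y * (Gm * th1) := by
      calc A * s1 ≤ A * (Gm * th1) := by gcongr
        _ = A * 1 * (Gm * th1) := by ring
        _ ≤ A * Y * (Gm * th1) := by gcongr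
    have h2 : M * Y * s1 ≤ M * Y * (Gm * th1) := by gcongr
    calc A * s1 + M * Y * s1 ≤ A * Y * (Gm * th1) + M * Y * (Gm * th1) := add_le_add h1 h2
      _ = _ := by ring
  · have h1 : 8 * (M * kp * s1 / 2) * (Y / th) * th2 ≤ 1 / 2 * th1 := by
      have e : 8 * (M * kp * s1 / 2) * (Y / th) * th2 = 4 * (M * s1 * Y * kp) * th2 / th := by ring
      rw [e, div_le_iff₀ hth]
      calc 4 * (M * s1 * Y * kp) * th2 ≤ 4 * (M * (Gm * th1) * Y * kp) * th2 := by gcongr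
        _ = (8 * (M * Gm * Y * kp)) * (th1 * th2 / 2) := by ring
        _ ≤ dl * (th1 * th2 / 2) := by gcongr
        _ = 1 / 2 * th1 * (dl * th2) := by ring
        _ = 1 / 2 * th1 * th := by rw [← hδδ, mul_assoc δ0, e12, e01]
    have h2 : δ * th2 ≤ th1 := by
      calc δ * th2 ≤ δ0 * th2 := by gcongr
        _ = th1 := e12
    rw [add_mul]
    linarith

/-- static relations of the three angles. -/
theorem nums_static {kp dl δ0 th th1 th2 r t : ℝ} (hkp : 0 < kp) (hkd : kp ≤ dl)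
    (hth2 : 0 < th2) (hth : 0 < th) (hδδ : δ0 * δ0 = dl) (e01 : δ0 * th1 = th)
    (e12 : δ0 * th2 = th1) (e1 : th1 ^ 2 * r = 1) (ht : |t| ≤ r) :
    kp * th2 ≤ th ∧ |t| * (th * th2) ≤ 1 ∧ |t| * (kp * th2 ^ 2) ≤ 1 := by
  have h1 : dl * th2 = th := by rw [← hδδ, mul_assoc, e12, e01]
  have hst : kp * th2 ≤ th := by rw [← h1]; gcongr
  have e : th * th2 = th1 ^ 2 := by
    have : th * th2 = th1 * (δ0 * th2) := by rw [← e01]; ring
    rw [this, e12]; ring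
  have t1 : |t| * (th * th2) ≤ 1 := by
    rw [e]
    calc |t| * th1 ^ 2 ≤ r * th1 ^ 2 := by gcongr
      _ = 1 := by rw [mul_comm]; exact e1
  refine ⟨hst, t1, ?_⟩
  have h2 : kp * th2 ^ 2 ≤ th * th2 := by
    calc kp * th2 ^ 2 = (kp * th2) * th2 := by ring
      _ ≤ th * th2 := by gcongr
  calc |t| * (kp * th2 ^ 2) ≤ |t| * (th * th2) := by gcongr
    _ ≤ 1 := t1

/-- numbers of the multiplicity. -/
theorem nums_mult {M A Gm Y th1 th2 s2 δ1 : ℝ} (hM1 : 1 ≤ M) (hA1 : 1 ≤ A)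
    (hGm : 1 ≤ Gm) (hY : 1 ≤ Y) (hth1 : 0 < th1) (h12 : th1 ≤ th2) (hs20 : 0 < s2)
    (hw1 : 3584 * (M * th2) ≤ s2) (hδ1 : δ1 * th2 ≤ 3 / 2 * th1) :
    256 * (th2 * (M / s2)) ≤ 1 / 2 ∧
    16 * ((64 * th1 + 32 * (δ1 * th2)) * (M / s2)) ≤ 1 / 2 ∧
    4 * ((A + M) * Y * (Gm * th1) / (1 / 2) + 2 * (64 * th1 + 32 * (δ1 * th2))) ≤
      912 * (M * A * Gm) * Y * th1 := by
  have hM0 : 0 < M := by linarith
  have hA0 : 0 < A := by linarith
  have hG0 : 0 < Gm := by linarith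
  have hY0 : 0 < Y := by linarith
  have hth2 : 0 < th2 := hth1.trans_le h12
  have hMt : 0 < M * th2 := mul_pos hM0 hth2
  have hMt1 : M * th1 ≤ M * th2 := by gcongr
  have h1 : 64 * th1 + 32 * (δ1 * th2) ≤ 112 * th1 := by linarith
  refine ⟨?_, ?_, ?_⟩
  · have e : 256 * (th2 * (M / s2)) = 256 * (M * th2) / s2 := by ring
    rw [e, div_le_iff₀ hs20]
    linarith
  · have h2 : 16 * ((64 * th1 + 32 * (δ1 * th2)) * (M / s2)) ≤ 16 * ((112 * th1) * (M / s2)) := by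
      gcongr
    refine h2.trans ?_
    have e : 16 * (112 * th1 * (M / s2)) = 1792 * (M * th1) / s2 := by ring
    rw [e, div_le_iff₀ hs20]
    linarith
  · have h3 : A + M ≤ 2 * (M * A) := by
      have a1 : A ≤ M * A := le_mul_of_one_le_left hA0.le hM1
      have a2 : M ≤ M * A := le_mul_of_one_le_right hM0.le hA1
      linarith
    have q3 : 1 ≤ M * A * Gm * Y := one_le_mul_of_one_le_of_one_le
      (one_le_mul_of_one_le_of_one_le (one_le_mul_of_one_le_of_one_le hM1 hA1) hGm) hY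
    have h5 : th1 ≤ M * A * Gm * Y * th1 := le_mul_of_one_le_left hth1.le q3
    have h6 : (A + M) * Y * (Gm * th1) ≤ 2 * (M * A * Gm * Y * th1) := by
      calc (A + M) * Y * (Gm * th1) ≤ (2 * (M * A)) * Y * (Gm * th1) := by gcongr
        _ = _ := by ring
    calc 4 * ((A + M) * Y * (Gm * th1) / (1 / 2) + 2 * (64 * th1 + 32 * (δ1 * th2)))
        = 8 * ((A + M) * Y * (Gm * th1)) + 8 * (64 * th1 + 32 * (δ1 * th2)) := by ring
      _ ≤ 8 * (2 * (M * A * Gm * Y * th1)) + 8 * (112 * (M * A * Gm * Y * th1)) := by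
          linarith
      _ = 912 * (M * A * Gm) * Y * th1 := by ring

/-- the constant. -/
theorem nums_const {P K0 Y : ℝ} (n : ℕ) (hP : 1 ≤ P) (hK0 : 1 ≤ K0) (hY : 1 ≤ Y) :
    288 * K0 * (201 + 21 * Y) ^ (2 * n) * (2 * (912 * P * Y) + 1) ^ 2 ≤
      4000000000 * 222 ^ (2 * n) * K0 * P ^ 2 * Y ^ (2 * n + 2) := by
  have h1 : (201 + 21 * Y) ^ (2 * n) ≤ 222 ^ (2 * n) * Y ^ (2 * n) := by
    rw [← mul_pow]
    exact pow_le_pow_left₀ (by positivity) (by linarith) _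
  have h2 : (2 * (912 * P * Y) + 1) ^ 2 ≤ (1825 * P * Y) ^ 2 := by
    refine pow_le_pow_left₀ (by positivity) ?_ 2
    have : 1 ≤ P * Y := one_le_mul_of_one_le_of_one_le hP hY
    linarith
  have h3 : 0 ≤ 222 ^ (2 * n) * K0 * P ^ 2 * (Y ^ (2 * n) * Y ^ 2) := by positivity
  calc 288 * K0 * (201 + 21 * Y) ^ (2 * n) * (2 * (912 * P * Y) + 1) ^ 2
      ≤ 288 * K0 * (222 ^ (2 * n) * Y ^ (2 * n)) * (1825 * P * Y) ^ 2 := by gcongr
    _ = (288 * 1825 ^ 2) * (222 ^ (2 * n) * K0 * P ^ 2 * (Y ^ (2 * n) * Y ^ 2)) := by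
        ring
    _ ≤ 4000000000 * (222 ^ (2 * n) * K0 * P ^ 2 * (Y ^ (2 * n) * Y ^ 2)) := by
        refine mul_le_mul_of_nonneg_right (by norm_num) h3
    _ = _ := by rw [pow_add]; ring

variable {n : ℕ} {th kp th1 th2 : ℝ} {g : E3 → ℂ} {S S' : ℤ × ℤ → Set E3}

open Classical in
/-- **LOWER row** for a member with conformal function `f` (in the frame `z`).  `th, th1, th2` =
angles of the parents, children, grandchildren; `S'` = selection of the child plate; `N m y` = unit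
normal used in the coherence count. -/
theorem row_al_c {f : Cf E2} {M A Gm K0 Y a r dl s1 s2 δ : ℝ} {pp : ℝ}
    (hth : 0 < th) (hth2 : 0 < th2) (hkp : 0 < kp) (hdl : 0 < dl) (hdl1 : dl ≤ 1) (hr : 0 < r)
    (hM1 : 1 ≤ M) (hA1 : 1 ≤ A) (hGm : 1 ≤ Gm) (hY : 1 ≤ Y) (ha : 0 ≤ a) (hK0 : 1 ≤ K0)
    (e01 : dl ^ (1/2 : ℝ) * th1 = th) (e12 : dl ^ (1/2 : ℝ) * th2 = th1) (e1 : th1 ^ 2 * r = 1)
    (hκ : 8 * (M * A * Gm ^ 2 * Y * kp) ≤ dl) (hδ : δ ≤ dl ^ (1/2 : ℝ))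
    (hs10 : 0 ≤ s1) (hs20 : 0 < s2) (hs1 : s1 ≤ Gm * th1) (hw1 : 3584 * (M * th2) ≤ s2)
    (hw2 : 8 * (M * A * Gm * th1) ≤ s2)
    (hdisc : f.disc = 1) (hny : ∀ s : ℝ, |s| ≤ r → |f.ny s| * s2 ≤ M)
    (hd : |f.d| ≤ M * kp * s1 / 2)
    {z : E3 × ℝ} {S' : ℤ × ℤ → Set E3} {N : ℤ × ℤ → E3 → E2}
    (hbox : ∀ m, ∀ y ∈ S' m, |f.ev (lat y) (y 2) 0| ≤ A * s1 * r ∧
      |f.ld (cen th1 m) (lat y) (y 2) 0| ≤ A * s1)
    (hlo : ∀ m, ∀ y ∈ S' m, ENNReal.ofReal a ≤ Adc n th kp th1 g S m (z.1 + y) z.2)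
    (hhi : ∀ m, ∀ y ∈ S' m, Adc n th kp th1 g S m (z.1 + y) z.2 ≤ ENNReal.ofReal (8 * a))
    (hN : ∀ m, ∀ y ∈ S' m, ‖N m y‖ = 1)
    (hNu : ∀ m, ∀ y ∈ S' m, ‖un f (cen th1 m) (lat y) 0 - N m y‖ ≤ δ ∨
      ‖un f (cen th1 m) (lat y) 0 + N m y‖ ≤ δ)
    (hpot : ∀ m, ∀ y ∈ S' m,
      pp ≤ (potc n th kp th1 th2 K0 g S (N m y) m (z.1 + y) z.2 : ℝ))
    (x : E3) {t : ℝ} (ht : |t| ≤ r) (T : Finset (ℤ × ℤ))
    (hT : ∀ m ∈ T, ∃ y ∈ S' m, ‖frc th kp (cen th1 m) (y - x - t • vel (cen th1 m))‖ ≤ Y)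
    {Ms : Finset (ℤ × ℤ)} (hMm : ∀ m ∈ caps th, (∃ m' ∈ T,
      ‖cen th m - cen th1 m'‖ ≤ 16 * th2 + 3 * th1) → m ∈ Ms) :
    ENNReal.ofReal pp * ∑ m ∈ T, Adc n th kp th1 g S m (z.1 + x) (z.2 + t) ≤
      ENNReal.ofReal (4000000000 * 222 ^ (2 * n) * K0 * (M * A * Gm) ^ 2 * Y ^ (2 * n + 2)) *
        Cad538.Acc n th kp th g S Ms (z.1 + x) (z.2 + t) := by
  set δ0 : ℝ := dl ^ (1/2 : ℝ) with hδ0'
  have pδ : 0 < δ0 := Real.rpow_pos_of_pos hdl _
  have pδ1 : δ0 ≤ 1 := Real.rpow_le_one hdl.le hdl1 (by norm_num)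
  have hδδ : δ0 * δ0 = dl := by
    rw [hδ0', ← Real.rpow_add hdl]; norm_num
  have hdlδ : dl ≤ δ0 := by rw [← hδδ]; exact mul_le_of_le_one_left pδ.le pδ1
  have hth1 : 0 < th1 := by rw [← e12]; exact mul_pos pδ hth2
  have h12 : th1 ≤ th2 := by rw [← e12]; exact mul_le_of_le_one_left hth2.le pδ1
  have h01 : th ≤ th1 := by rw [← e01]; exact mul_le_of_le_one_left hth1.le pδ1
  have hM0 : 0 < M := by linarith
  have hY0 : 0 < Y := by linarith
  obtain ⟨k1, k2, k3⟩ := nums_kp hM1 hA1 hGm hY hkp hκ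
  obtain ⟨hst, t1, t2⟩ := nums_static (t := t) (r := r) hkp (by linarith : kp ≤ dl) hth2 hth hδδ e01
    e12 e1 ht
  obtain ⟨c1, c2, c3⟩ := nums_strip hM1 hA1 hGm hY hkp hκ hdl1 hr hth1 hdlδ e01 e1 hs10 hs20 hs1 hw2
  obtain ⟨hh, hδ1'⟩ := nums_turn (th := th) (th2 := th2) (δ := δ) hM1 hA1 hGm hY hkp hκ hth hth1
    hth2 hδδ e01 e12 hδ hs1
  obtain ⟨n1, n2, n3⟩ := nums_mult (Gm := Gm) (Y := Y) hM1 hA1 hGm hY hth1 h12 hs20 hw1 hδ1'
  have hMAG : 1 ≤ M * A * Gm :=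
    one_le_mul_of_one_le_of_one_le (one_le_mul_of_one_le_of_one_le hM1 hA1) hGm
  have ny : ∀ s : ℝ, |s| ≤ r → |f.ny s| ≤ M / s2 := fun s hs => by
    rw [le_div_iff₀ hs20]; exact hny s hs
  have r0 : |(0:ℝ)| ≤ r := by rw [abs_zero]; exact hr.le
  choose! src hsrcS hsrc using hT
  have sd : ∀ m ∈ T, |f.ld (cen th1 m) (lat x) (x 2) t| ≤
      A * s1 + 2 * (M * kp * s1 / 2) * (Y / kp) ∧ 1 / 2 ≤ ‖f.gr (cen th1 m) (lat x) t‖ ∧
      ‖un f (cen th1 m) (lat x) t - un f (cen th1 m) (lat (src m)) 0‖ ≤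
        8 * (M * kp * s1 / 2) * (Y / th) := fun m hm =>
    strip_data hth hkp hdisc (ny 0 r0) hd (hbox m _ (hsrcS m hm)).2 (hbox m _ (hsrcS m hm)).1
      (hsrc m hm) c1 c2 c3
  have ea : ∀ v : E2, lat z.1 + v + -lat z.1 = v := fun v => by abel
  have eb : (z.1 + x) 2 + -(z.1 2) = x 2 := by
    rw [PiLp.add_apply]; ring
  have ec : z.2 + t + -z.2 = t := by ring
  have key := row_c (n := n) (g := g) (S := S) (p := Cf.tr (-lat z.1) (-(z.1 2)) (-z.2) f)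
    (h := (A + M) * Y * (Gm * th1)) (k := 1 / 2) (Mn := M / s2) (K := 912 * (M * A * Gm) * Y)
    (δ := 8 * (M * kp * s1 / 2) * (Y / th) + δ) (Y := Y) (K0 := K0) (a := a) (pp := pp) hth h01 h12
    hkp hst (z := z) (x := x) (t := t) t1 t2 hY0.le ha hK0 T src (fun m => N m (src m))
    (fun m hm => hsrc m hm) (fun m hm => hlo m _ (hsrcS m hm)) (fun m hm => hhi m _ (hsrcS m hm))
    (fun m hm => hpot m _ (hsrcS m hm)) (by norm_num)
    (by rw [Cf.ny_tr, ec]; exact ny t ht) n1 n2 (by positivity) n3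
    (fun m hm => by
      rw [Cf.ld_tr, lat_add, ea, eb, ec]
      exact (sd m hm).1.trans hh)
    (fun m hm => by
      rw [gr_tr, lat_add, ea, ec]
      exact (sd m hm).2.1)
    (fun m hm => hN m _ (hsrcS m hm))
    (fun m hm => by
      rw [un_tr, lat_add, ea, ec]
      have h3 := (sd m hm).2.2
      rcases hNu m _ (hsrcS m hm) with h4 | h4
      · left
        have e : un f (cen th1 m) (lat x) t - N m (src m) =
            (un f (cen th1 m) (lat x) t - un f (cen th1 m) (lat (src m)) 0) +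
            (un f (cen th1 m) (lat (src m)) 0 - N m (src m)) := by abel
        rw [e]
        exact (norm_add_le _ _).trans (add_le_add h3 h4)
      · right
        have e : un f (cen th1 m) (lat x) t + N m (src m) =
            (un f (cen th1 m) (lat x) t - un f (cen th1 m) (lat (src m)) 0) +
            (un f (cen th1 m) (lat (src m)) 0 + N m (src m)) := by abel
        rw [e]
        exact (norm_add_le _ _).trans (add_le_add h3 h4))
    (M := Ms) hMm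
  exact key.trans (mul_le_mul' (ENNReal.ofReal_le_ofReal (nums_const n hMAG hK0 hY)) le_rfl)

end Crest.Agent.R116.AlB888
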