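import Crest.Agent.R116.WDefC_188
import Crest.Agent.R116.AlB1_888

/-!
# R116, WAVE side: literal LOCAL objects and Props of the slab step (helper299)

Cone port of `R138.PDef_654`.  Level `i` (parent): scale `r1`, angle `an r1`; level `j` (child):
scale `dl * r1`; level `k`: scale `dl * (dl * r1)`.  `g` = the sliced root function in the frame of
the parent ball, `S = uS I1 P1` = the selection of the parent class, `selc η0 κ (an r1) g S` = the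
parent wave.  A phase point `(m, y)` = cap and position at time `0` of the frame.
* `Adc n th κ th1 g S m X t` (AlB888) = density of the parent packets near the child cap `m` around
  `(X, t)`; `potc` (AlB888) = coherence count.
* `nP th f m y` = unit normal (in slope space) of the plate `f` at the phase point.
* `rnd δ e` = the unit vector `e` rounded to a finite net, `‖rnd δ e - e‖ ≤ δ / 8`; alignment is
  tested against the ROUNDED child normal, so that on a plate cell of a child cap only few selections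
  occur.
* `AL_C` = slab step for aligned plates, `MIS_C` = misaligned plates, `STEP_C` = both.
* The coherence constant `K0` of `potc` has to be `≥ C(n) Y^n` (888): it is quantified last, with a
  polynomial price.
* Order of the quantifiers (367): the exponents `G`, `n0`, `G'` are chosen before `a, b, A`; only `d0`
  (threshold of `dl`) and `C` depend on `a, b, A`.
Exact facts used by the proof (helper339's text, checked): see docs W-TEXT sec. 5.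
-/

set_option autoImplicit false

open MeasureTheory
open scoped ENNReal

namespace Crest.Agent.R116.PC299

open Crest.Agent.R138.Defs (E2)
open Crest.Agent.R138.Wpk685 (cen caps)
open Crest.Agent.R138.Rect779 (RectF)
open Crest.Agent.R116.CDef480
open Crest.Agent.R116.LZg725 (Cf)
open Crest.Agent.R116.Cad538 (frc)
open Crest.Agent.R116.Gc192 (un crs)
open Crest.Agent.R116.AlB888 (Adc potc)
open Crest.Agent.R116.WC188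

/-- angle of level `r`. -/
noncomputable abbrev an (r : ℝ) : ℝ := r ^ (-(1/2) : ℝ)

/-- unit normal of the plate with conformal function `f` at the phase point `(m, y)`. -/
noncomputable def nP (th : ℝ) (f : Cf E2) (m : ℤ × ℤ) (y : E3) : E2 := un f (cen th m) (lat y) 0

/-- lattice index of a direction, mesh `δ / 32`. -/
noncomputable def rdx (δ : ℝ) (e : E2) : ℤ × ℤ := (⌊e 0 / (δ / 32)⌋, ⌊e 1 / (δ / 32)⌋)

/-- the unit vector of a lattice index. -/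
noncomputable def lv (a : ℤ × ℤ) : E2 :=
  ‖(WithLp.toLp 2 ![(a.1 : ℝ), (a.2 : ℝ)] : E2)‖⁻¹ • (WithLp.toLp 2 ![(a.1 : ℝ), (a.2 : ℝ)] : E2)

/-- the direction `e` rounded: `‖rnd δ e - e‖ ≤ δ / 8` for unit `e`, `0 < δ ≤ 1`. -/
noncomputable def rnd (δ : ℝ) (e : E2) : E2 := lv (rdx δ e)

/-- aligned part of the parent selection with respect to the direction `N`: the parent phase points
whose own normal makes an angle of sine at most `δ` with `N`. -/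
def Sal (δ θ : ℝ) (N : E2) (I1 : Finset ℕ) (P1 : ℕ → Plate) (m : ℤ × ℤ) : Set E3 :=
  {y | ∃ i ∈ I1, |crs (nP θ (P1 i).f m y) N| ≤ δ ∧ y ∈ (P1 i).S m}

/-- misaligned part. -/
def Smis (δ θ : ℝ) (N : E2) (I1 : Finset ℕ) (P1 : ℕ → Plate) (m : ℤ × ℤ) : Set E3 :=
  {y | ∃ i ∈ I1, δ < |crs (nP θ (P1 i).f m y) N| ∧ y ∈ (P1 i).S m}

/-- **coherence bound** of a plate system of level `θ` (next angle `θ'`): at most `pp` caps of a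
thin rectangle with normal `N` carry an `N`-aligned selected packet through the plate of size
`Y/θ × Y/θ × Y/κ` around `(x, t)`. -/
def Coh (θ θ' κ δ Y T : ℝ) (I1 : Finset ℕ) (P1 : ℕ → Plate) (pp : ℝ) : Prop :=
  ∀ (N c : E2) (x : E3) (t : ℝ), ‖N‖ = 1 → |t| ≤ T →
    ∀ M : Finset (ℤ × ℤ), (∀ m ∈ M, m ∈ caps θ ∧ cen θ m ∈ RectF N c (8 * θ') (4 * θ) ∧
      ∃ y ∈ Sal δ θ N I1 P1 m, ‖frc θ κ (cen θ m) (y - t • vel (cen θ m) - x)‖ ≤ Y) →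
    (M.card : ℝ) ≤ pp

/-- **parent class** in one frame: `g` sliced, bounded, slopes at most `b`; the plates are
admissible members (`Adm` contains the compatibility); density `D` for all members. -/
structure ParC (M κ q a b A c0 η0 : ℝ) (g : E3 → ℂ) (r1 s1 s2 D : ℝ) (I1 : Finset ℕ)
    (P1 : ℕ → Plate) : Prop where
  gm : Measurable g
  gb : ∃ L : ℝ, ∀ ζ, ‖g ζ‖ ≤ L
  gs : ∀ ζ, g ζ ≠ 0 → a⁻¹ ≤ ζ 2 ∧ ζ 2 ≤ a ∧ ‖slp ζ‖ ≤ b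
  slc : Slc η0 κ g
  D0 : 0 ≤ D
  sd : Sd r1 s1 s2
  meas : ∀ i ∈ I1, ∀ m, MeasurableSet ((P1 i).S m)
  cp : ∀ m, m ∉ caps (an r1) → uS I1 P1 m = ∅
  bd : ∀ m, uS I1 P1 m ⊆ Metric.closedBall 0 (A * r1)
  disj : ∀ i ∈ I1, ∀ j ∈ I1, i ≠ j → ∀ m, Disjoint ((P1 i).S m) ((P1 j).S m)
  adm : ∀ i ∈ I1, Adm M κ s1 s2 (TT κ s2 r1) r1 (P1 i).c (P1 i).X0 (P1 i).f
  box : ∀ i ∈ I1, ∀ m, (P1 i).S m ⊆ pbx κ A r1 s1 s2 (P1 i).c (P1 i).X0 (P1 i).f m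
  dens : ∀ (c : E2) (X0 : E3) (f : Cf E2) (u1 u2 : ℝ), Sd r1 u1 u2 →
    Adm M κ u1 u2 (TT κ u2 r1) r1 c X0 f →
    enc (an r1) g (fun m => uS I1 P1 m ∩ pbx κ 1 r1 u1 u2 c X0 f m) ≤
      ENNReal.ofReal (D * u2 ^ q * scost κ u1 u2 r1)
  dense : ∀ i ∈ I1, ENNReal.ofReal (c0 * (D * s2 ^ q * scost κ s1 s2 r1)) ≤
    enc (an r1) g (P1 i).S

/-- all points of the child plates are **aligned** (own normal rounded to mesh `δ`). -/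
def IsAl (δ κ η0 : ℝ) (g : E3 → ℂ) (dl r1 : ℝ) (I1 : Finset ℕ) (P1 : ℕ → Plate)
    (I : Finset ℕ) (P : ℕ → Plate) : Prop :=
  ∀ i ∈ I, ∀ m, ∀ y ∈ (P i).S m,
    ‖umc (an (dl * r1)) (trc (P i).z (selc η0 κ (an r1) g (uS I1 P1))) m y‖ ≤
      2 * ‖umc (an (dl * r1)) (trc (P i).z (selc η0 κ (an r1) g
        (Sal δ (an r1) (rnd δ (nP (an (dl * r1)) (P i).f m y)) I1 P1))) m y‖

/-- all points of the child plates are **misaligned**. -/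
def IsMis (δ κ η0 : ℝ) (g : E3 → ℂ) (dl r1 : ℝ) (I1 : Finset ℕ) (P1 : ℕ → Plate)
    (I : Finset ℕ) (P : ℕ → Plate) : Prop :=
  ∀ i ∈ I, ∀ m, ∀ y ∈ (P i).S m,
    ‖umc (an (dl * r1)) (trc (P i).z (selc η0 κ (an r1) g (uS I1 P1))) m y‖ ≤
      2 * ‖umc (an (dl * r1)) (trc (P i).z (selc η0 κ (an r1) g
        (Smis δ (an r1) (rnd δ (nP (an (dl * r1)) (P i).f m y)) I1 P1))) m y‖

/-- coefficient value of the parent class: `r1 √D · (packet energy)`. -/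
noncomputable def SCo (g : E3 → ℂ) (r1 D : ℝ) (S : ℤ × ℤ → Set E3) : ℝ≥0∞ :=
  ENNReal.ofReal (r1 * Real.sqrt D) * enc (an r1) g S

/-- the tail. -/
noncomputable def Tl (C Y : ℝ) (M : ℕ) (g : E3 → ℂ) (r1 : ℝ) : ℝ≥0∞ :=
  ENNReal.ofReal (C * r1 ^ (20 : ℕ) * (Y ^ M)⁻¹) * (ENNReal.ofReal (Enc g)) ^ (3/2 : ℝ)

/-- **COHu**: the class of the level `i` phase points (relative to the level `h`, scale `r0`, class
`S0` of `g0`, relative frame `ζ`) implies the coherence bound. -/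
def COHu_C : Prop :=
  ∃ d0 : ℝ, 0 < d0 ∧ d0 ≤ 1 ∧ ∀ n : ℕ, ∃ Cn : ℝ, 1 ≤ Cn ∧
  ∀ (r0 dl Y K α pp κ : ℝ) (g0 : E3 → ℂ) (S0 : ℤ × ℤ → Set E3) (ζ : E3 × ℝ)
    (I1 : Finset ℕ) (P1 : ℕ → Plate),
    1 ≤ dl * r0 → 0 < dl → dl ≤ d0 → 1 ≤ Y → Y ≤ dl ^ (-(1/4) : ℝ) → Cn * Y ^ n ≤ K →
    |ζ.2| ≤ r0 → 0 ≤ α →
    1 ≤ pp → 0 < κ → κ ≤ dl ^ (4 : ℕ) → (∀ m, MeasurableSet (S0 m)) →
    (∀ i ∈ I1, ∀ m, ∀ y ∈ (P1 i).S m,
      ENNReal.ofReal α ≤ Adc n (an r0) κ (an (dl * r0)) g0 S0 m (ζ.1 + y) ζ.2 ∧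
      Adc n (an r0) κ (an (dl * r0)) g0 S0 m (ζ.1 + y) ζ.2 ≤ ENNReal.ofReal (8 * α) ∧
      (potc n (an r0) κ (an (dl * r0)) (an (dl * (dl * r0))) K g0 S0
        (nP (an (dl * r0)) (P1 i).f m y) m (ζ.1 + y) ζ.2 : ℝ) ≤ pp) →
    (∀ i ∈ I1, ∀ m, ∀ y ∈ (P1 i).S m, 1/2 ≤ ‖(P1 i).f.gr (cen (an (dl * r0)) m) (lat y) 0‖) →
    Coh (an (dl * r0)) (an (dl * (dl * r0))) κ (dl ^ (1/2 : ℝ)) Y (2 * (dl * r0)) I1 P1 pp

/-- common hypotheses of `AL_C`, `MIS_C`, `STEP_C`.  `M` = constant of the class, `Gm` = thin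
margin, `Y` = tolerance; `κ ≤ dl^4` (consecutive levels are static), `κ ≥ (dl r1)^(-1/4)`. -/
structure Ctx (M q a b A d0 G c0 κ η0 : ℝ) (g : E3 → ℂ)
    (r1 dl Y Gm s1' s2' s1 s2 D : ℝ) (I1 : Finset ℕ) (P1 : ℕ → Plate) (I : Finset ℕ)
    (P : ℕ → Plate) : Prop where
  par : ParC M κ q a b A c0 η0 g r1 s1' s2' D I1 P1
  c0pos : 0 < c0
  c0le : c0 ≤ 1
  dlpos : 0 < dl
  dlle : dl ≤ d0
  r1ge : dl ^ (-G) ≤ r1
  kpos : 0 < κ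
  klo : (dl * r1) ^ (-(1/4) : ℝ) ≤ κ
  khi : κ ≤ dl ^ (4 : ℕ)
  ka : 8 * a * κ ≤ 1
  Gm1 : 1 ≤ Gm
  Gm2 : Gm ≤ dl ^ (-(1/4) : ℝ)
  Y1 : 1 ≤ Y
  Y2 : Y ≤ dl ^ (-(1/4) : ℝ)
  sd : Sd (dl * r1) s1 s2
  pl : Plates M κ A (dl * r1) s1 s2 r1 I P
  cp : ∀ i ∈ I, ∀ m, m ∉ caps (an (dl * r1)) → (P i).S m = ∅
  thin' : s1' ≤ Gm * an r1
  thin : s1 ≤ Gm * an (dl * r1)
  wide : dl ^ (-G) * an (dl * r1) ≤ s2

/-- **child class**: the selected points of the child plates have density in `[α, 8α]` and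
coherence count `≥ p` (with respect to their own normal). -/
structure Chi (n : ℕ) (K0 κ : ℝ) (g : E3 → ℂ) (dl r1 α p : ℝ)
    (S : ℤ × ℤ → Set E3) (I : Finset ℕ) (P : ℕ → Plate) : Prop where
  lo : ∀ i ∈ I, ∀ m, ∀ y ∈ (P i).S m,
    ENNReal.ofReal α ≤ Adc n (an r1) κ (an (dl * r1)) g S m ((P i).z.1 + y) (P i).z.2
  hi : ∀ i ∈ I, ∀ m, ∀ y ∈ (P i).S m,
    Adc n (an r1) κ (an (dl * r1)) g S m ((P i).z.1 + y) (P i).z.2 ≤ ENNReal.ofReal (8 * α)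
  pot : ∀ i ∈ I, ∀ m, ∀ y ∈ (P i).S m,
    p ≤ (potc n (an r1) κ (an (dl * r1)) (an (dl * (dl * r1))) K0 g S
      (nP (an (dl * r1)) (P i).f m y) m ((P i).z.1 + y) (P i).z.2 : ℝ)

/-- **AL_C** = UPPER + LOWER + KMC (slab step, aligned plates). -/
def AL_C (M q : ℝ) : Prop :=
  ∃ G : ℝ, 1 ≤ G ∧ ∀ ε : ℝ, 0 < ε → ∃ n0 : ℕ, ∀ n : ℕ, n0 ≤ n → ∃ G' : ℝ, 0 ≤ G' ∧
  ∀ a b A : ℝ, 1 ≤ a → 0 < b → b < 2 → 1 ≤ A → ∃ d0 : ℝ, 0 < d0 ∧ d0 ≤ 1 ∧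
  ∀ Mt : ℕ, ∃ C : ℝ, 0 ≤ C ∧
  ∀ (c0 κ η0 K0 : ℝ) (g : E3 → ℂ) (r1 dl Y Gm s1' s2' s1 s2 D α p pp : ℝ)
    (I1 : Finset ℕ) (P1 : ℕ → Plate) (I : Finset ℕ) (P : ℕ → Plate),
    Ctx M q a b A d0 G c0 κ η0 g r1 dl Y Gm s1' s2' s1 s2 D I1 P1 I P →
    Coh (an r1) (an (dl * r1)) κ (dl ^ (1/2 : ℝ)) Y (2 * r1) I1 P1 pp → 1 ≤ pp → 0 ≤ α → 1 ≤ p →
    1 ≤ K0 → Chi n K0 κ g dl r1 α p (uS I1 P1) I P →
    IsAl (dl ^ (1/2 : ℝ)) κ η0 g dl r1 I1 P1 I P →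
    ENNReal.ofReal (s2 ^ (-q / 2)) *
        val κ (selc η0 κ (an r1) g (uS I1 P1)) (dl * r1) s1 s2 I P ≤
      ENNReal.ofReal (C * r1 ^ ε * (Y * K0) ^ G' * Gm ^ G * (pp / p) ^ (1/2 : ℝ)) *
        SCo g r1 D (uS I1 P1) + Tl (C * K0 ^ G') Y Mt g r1

/-- **MIS_C**: misaligned plates are a gain, if both levels are thin and wide. -/
def MIS_C (M q : ℝ) : Prop :=
  ∃ G : ℝ, 1 ≤ G ∧ ∀ ε : ℝ, 0 < ε → ∃ G' : ℝ, 0 ≤ G' ∧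
  ∀ a b A : ℝ, 1 ≤ a → 0 < b → b < 2 → 1 ≤ A → ∃ d0 : ℝ, 0 < d0 ∧ d0 ≤ 1 ∧
  ∀ Mt : ℕ, ∃ C : ℝ, 0 ≤ C ∧
  ∀ (c0 κ η0 : ℝ) (g : E3 → ℂ) (r1 dl Y Gm s1' s2' s1 s2 D : ℝ)
    (I1 : Finset ℕ) (P1 : ℕ → Plate) (I : Finset ℕ) (P : ℕ → Plate),
    Ctx M q a b A d0 G c0 κ η0 g r1 dl Y Gm s1' s2' s1 s2 D I1 P1 I P →
    dl ^ (-G) * an r1 ≤ s2' →
    IsMis (dl ^ (1/2 : ℝ)) κ η0 g dl r1 I1 P1 I P →
    ENNReal.ofReal (s2 ^ (-q / 2)) *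
        val κ (selc η0 κ (an r1) g (uS I1 P1)) (dl * r1) s1 s2 I P ≤
      ENNReal.ofReal (C * r1 ^ ε * (Y / c0) ^ G' * Gm ^ G * dl ^ (1/2 : ℝ)) *
        SCo g r1 D (uS I1 P1) + Tl C Y Mt g r1

/-- **STEP_C** = AL_C + MIS_C (no alignment hypothesis). -/
def STEP_C (M q : ℝ) : Prop :=
  ∃ G : ℝ, 1 ≤ G ∧ ∀ ε : ℝ, 0 < ε → ∃ n0 : ℕ, ∀ n : ℕ, n0 ≤ n → ∃ G' : ℝ, 0 ≤ G' ∧
  ∀ a b A : ℝ, 1 ≤ a → 0 < b → b < 2 → 1 ≤ A → ∃ d0 : ℝ, 0 < d0 ∧ d0 ≤ 1 ∧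
  ∀ Mt : ℕ, ∃ C : ℝ, 0 ≤ C ∧
  ∀ (c0 κ η0 K0 : ℝ) (g : E3 → ℂ) (r1 dl Y Gm s1' s2' s1 s2 D α p pp : ℝ)
    (I1 : Finset ℕ) (P1 : ℕ → Plate) (I : Finset ℕ) (P : ℕ → Plate),
    Ctx M q a b A d0 G c0 κ η0 g r1 dl Y Gm s1' s2' s1 s2 D I1 P1 I P →
    dl ^ (-G) * an r1 ≤ s2' →
    Coh (an r1) (an (dl * r1)) κ (dl ^ (1/2 : ℝ)) Y (2 * r1) I1 P1 pp → 1 ≤ pp → 0 ≤ α → 1 ≤ p →
    1 ≤ K0 → Chi n K0 κ g dl r1 α p (uS I1 P1) I P →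
    ENNReal.ofReal (s2 ^ (-q / 2)) *
        val κ (selc η0 κ (an r1) g (uS I1 P1)) (dl * r1) s1 s2 I P ≤
      ENNReal.ofReal (C * r1 ^ ε * (Y * K0 / c0) ^ G' * Gm ^ G *
        ((pp / p) ^ (1/2 : ℝ) + dl ^ (1/2 : ℝ))) * SCo g r1 D (uS I1 P1) +
        Tl (C * K0 ^ G') Y Mt g r1

end Crest.Agent.R116.PC299
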