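import Crest.Agent.R116.AlB2_888
import Crest.Agent.R116.PDefC_299

/-!
# R116, wave side, slab step: `COHu_C` of PDefC_299 (helper888)

The class of the level `i` phase points (relative to the level `h`) implies the coherence bound:
cone port of `R138.Cohu101.cohu`.  Here the constant of `potc` has to be at least `8 (6091 Y)^n`,
because the thin side `1/κ` of the plates is the same at both levels.
-/

set_option autoImplicit false

open MeasureTheory
open scoped ENNReal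

namespace Crest.Agent.R116.AlB888

open Crest.Agent.R138.Defs (E2)
open Crest.Agent.R138.Wpk685 (cen caps)
open Crest.Agent.R138.Loc878 (nearL mem_nearL Near)
open Crest.Agent.R138.Rect779 (orth RectF norm_le_orth aligned_mem card_caps_le orth_sub abs_inner_le)
open Crest.Agent.R116.CDef480 Crest.Agent.R116.Ckm538 Crest.Agent.R116.Cad538
open Crest.Agent.R116.LZg725 (Cf)
open Crest.Agent.R116.Gc192 (un norm_un un_sub crs)
open Crest.Agent.R116.WC188 Crest.Agent.R116.PC299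

/-! ### angles -/

theorem an_pos {r : ℝ} (hr : 0 < r) : 0 < an r := Real.rpow_pos_of_pos hr _

/-- angles of two consecutive levels. -/
theorem an_step {r dl : ℝ} (hr : 0 < r) (hd : 0 < dl) :
    dl ^ (1/2 : ℝ) * an (dl * r) = an r := by
  unfold an
  rw [Real.mul_rpow hd.le hr.le, ← mul_assoc, ← Real.rpow_add hd]
  norm_num

theorem an_sq {r : ℝ} (hr : 0 < r) : an r ^ 2 * r = 1 := by
  unfold an
  rw [← Real.rpow_natCast, ← Real.rpow_mul hr.le]
  nth_rewrite 2 [← Real.rpow_one r]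
  rw [← Real.rpow_add hr]
  norm_num

theorem crs_comm (u v : E2) : crs u v = -crs v u := by unfold crs; ring

/-- finer lateral mesh. -/
theorem frc_mono {th th' kp : ℝ} (hth : 0 ≤ th) (h : th ≤ th') (C : E2) (z : E3) :
    ‖frc th kp C z‖ ≤ ‖frc th' kp C z‖ := by
  have h1 := norm_frc_sq th kp C z
  have h2 := norm_frc_sq th' kp C z
  have h3 : (th * ‖lat z‖) ^ 2 ≤ (th' * ‖lat z‖) ^ 2 := by gcongr
  exact (pow_le_pow_iff_left₀ (norm_nonneg _) (norm_nonneg _) (by norm_num : (2:ℕ) ≠ 0)).1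
    (by linarith)

/-- displacement of two packets through the same plate. -/
theorem disp_le {th0 th1 th2 kp Y t T : ℝ} {C C0 C' : E2} {x y y0 : E3} (hth0 : 0 < th0)
    (h01 : th0 ≤ th1) (h12 : th1 ≤ th2) (hkp : 0 < kp) (hst : kp * th2 ≤ th0) (hY : 1 ≤ Y)
    (hC : ‖C' - C‖ ≤ 3 * th1) (hC0 : ‖C - C0‖ ≤ 16 * th2) (ht : |t| ≤ T)
    (hT1 : T * (th0 * th2) ≤ 2)
    (hy : ‖frc th1 kp C (y - t • vel C - x)‖ ≤ Y)
    (hy0 : ‖frc th1 kp C0 (y0 - t • vel C0 - x)‖ ≤ Y) :
    ‖frc th0 kp C' (y0 - y)‖ ≤ 6090 * Y := by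
  have hth2 : 0 < th2 := by linarith
  have e : y0 - y = (y0 - t • vel C0 - x) - (y - t • vel C - x) + t • (vel C0 - vel C) := by
    rw [smul_sub]; abel
  have f1 : kp * ‖C' - C‖ ≤ 19 * th0 := by
    calc kp * ‖C' - C‖ ≤ kp * (3 * th1) := by gcongr
      _ ≤ kp * (19 * th2) := by
          refine mul_le_mul_of_nonneg_left ?_ hkp.le
          linarith
      _ = 19 * (kp * th2) := by ring
      _ ≤ 19 * th0 := by gcongr
  have f0 : kp * ‖C' - C0‖ ≤ 19 * th0 := by
    have h1 : ‖C' - C0‖ ≤ 19 * th2 := by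
      have : C' - C0 = (C' - C) + (C - C0) := by abel
      rw [this]
      exact (norm_add_le _ _).trans (by linarith)
    calc kp * ‖C' - C0‖ ≤ kp * (19 * th2) := by gcongr
      _ = 19 * (kp * th2) := by ring
      _ ≤ 19 * th0 := by gcongr
  have a0 : ‖frc th0 kp C' (y0 - t • vel C0 - x)‖ ≤ 21 * Y := by
    refine (frc_le_frc hth0.le hkp.le (by norm_num : (0:ℝ) ≤ 19) f0 _).trans ?_
    have := (frc_mono (kp := kp) hth0.le h01 C0 (y0 - t • vel C0 - x)).trans hy0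
    linarith
  have a1 : ‖frc th0 kp C' (y - t • vel C - x)‖ ≤ 21 * Y := by
    refine (frc_le_frc hth0.le hkp.le (by norm_num : (0:ℝ) ≤ 19) f1 _).trans ?_
    have := (frc_mono (kp := kp) hth0.le h01 C (y - t • vel C - x)).trans hy
    linarith
  have a2 : ‖frc th0 kp C' (t • (vel C0 - vel C))‖ ≤ 21 * 288 := by
    refine (frc_le_frc hth0.le hkp.le (by norm_num : (0:ℝ) ≤ 19) f1 _).trans ?_
    have h1 := frc_vel_le hth0.le hkp.le C C0 t
    have h2 : ‖C0 - C‖ ≤ 16 * th2 := by rw [norm_sub_rev]; exact hC0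
    have hT0 : 0 ≤ T := (abs_nonneg _).trans ht
    have h3 : |t| * (th0 * ‖C0 - C‖ + kp * (‖C0 - C‖ ^ 2 / 2)) ≤
        T * (th0 * (16 * th2) + kp * ((16 * th2) ^ 2 / 2)) := by
      have := norm_nonneg (C0 - C)
      gcongr
    have h4 : T * (th0 * (16 * th2) + kp * ((16 * th2) ^ 2 / 2)) ≤ 288 := by
      have h5 : kp * ((16 * th2) ^ 2 / 2) ≤ 128 * (th0 * th2) := by
        calc kp * ((16 * th2) ^ 2 / 2) = 128 * ((kp * th2) * th2) := by ring
          _ ≤ 128 * (th0 * th2) := by gcongr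
      calc T * (th0 * (16 * th2) + kp * ((16 * th2) ^ 2 / 2))
          ≤ T * (th0 * (16 * th2) + 128 * (th0 * th2)) := by gcongr
        _ = 144 * (T * (th0 * th2)) := by ring
        _ ≤ 288 := by linarith
    linarith
  rw [e, map_add, map_sub]
  have h6 := norm_add_le (frc th0 kp C' (y0 - t • vel C0 - x) - frc th0 kp C' (y - t • vel C - x))
    (frc th0 kp C' (t • (vel C0 - vel C)))
  have h7 := norm_sub_le (frc th0 kp C' (y0 - t • vel C0 - x)) (frc th0 kp C' (y - t • vel C - x))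
  linarith

/-- **COHu** on the cone, with `d0 = 1` and `Cn = 8 * 6091 ^ n`. -/
theorem cohu_c : COHu_C := by
  refine ⟨1, one_pos, le_rfl, fun n => ⟨8 * 6091 ^ n, ?_, ?_⟩⟩
  · have : (1:ℝ) ≤ 6091 ^ n := one_le_pow₀ (by norm_num)
    linarith
  intro r0 dl Y K α pp κ g0 S0 ζ I1 P1 hr hd hd1 hY1 hY2 hK hζ hα hpp hκ hκd hS0 hcls hgr
    N c x t hN ht M hM
  rcases M.eq_empty_or_nonempty with rfl | ⟨m0, hm0⟩
  · simp only [Finset.card_empty, Nat.cast_zero]; linarith
  obtain ⟨hm0c, hm0R, y0, hy0, hy0d⟩ := hM m0 hm0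
  obtain ⟨i0, hi0, hs0, hy0S⟩ := hy0
  have hr0 : 0 < r0 := by
    by_contra hcon
    push Not at hcon
    nlinarith
  have hdr : 0 < dl * r0 := mul_pos hd hr0
  have hddr : 0 < dl * (dl * r0) := mul_pos hd hdr
  -- angles
  have p0 : 0 < an r0 := an_pos hr0
  have p1 : 0 < an (dl * r0) := an_pos hdr
  have p2 : 0 < an (dl * (dl * r0)) := an_pos hddr
  have e01 : dl ^ (1/2 : ℝ) * an (dl * r0) = an r0 := an_step hr0 hd
  have e12 : dl ^ (1/2 : ℝ) * an (dl * (dl * r0)) = an (dl * r0) := an_step hdr hd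
  have e1 : an (dl * r0) ^ 2 * (dl * r0) = 1 := an_sq hdr
  have pδ : 0 < dl ^ (1/2 : ℝ) := Real.rpow_pos_of_pos hd _
  have pδ1 : dl ^ (1/2 : ℝ) ≤ 1 := Real.rpow_le_one hd.le hd1 (by norm_num)
  have hδδ : dl ^ (1/2 : ℝ) * dl ^ (1/2 : ℝ) = dl := by
    rw [← Real.rpow_add hd]; norm_num
  generalize han0 : an r0 = θ0 at *
  generalize han1 : an (dl * r0) = θ1 at *
  generalize han2 : an (dl * (dl * r0)) = θ2 at *
  generalize hδ0 : dl ^ (1/2 : ℝ) = δ at *
  have h12 : θ1 ≤ θ2 := by rw [← e12]; exact mul_le_of_le_one_left p2.le pδ1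
  have h01 : θ0 ≤ θ1 := by rw [← e01]; exact mul_le_of_le_one_left p1.le pδ1
  have hκ1 : κ ≤ dl := hκd.trans (pow_le_of_le_one hd.le hd1 (by norm_num))
  obtain ⟨hst, -, -⟩ := nums_static (t := 0) (r := dl * r0) hκ hκ1 p2 p0 hδδ e01 e12 e1
    (by rw [abs_zero]; exact hdr.le)
  have hT1 : 2 * (dl * r0) * (θ0 * θ2) ≤ 2 := by
    have e : θ0 * θ2 = θ1 ^ 2 := by
      have : θ0 * θ2 = θ1 * (δ * θ2) := by rw [← e01]; ring
      rw [this, e12]; ring
    rw [e]
    have : 2 * (dl * r0) * θ1 ^ 2 = 2 * (θ1 ^ 2 * (dl * r0)) := by ring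
    rw [this, e1]
    norm_num
  -- the normal of the reference point
  set N0 : E2 := nP θ1 (P1 i0).f m0 y0 with hN0
  have hN01 : ‖N0‖ = 1 := norm_un (k := 1 / 2) (by norm_num) (hgr i0 hi0 m0 y0 hy0S)
  have hcard : (M.card : ℝ) ≤ (potc n θ0 κ θ1 θ2 K g0 S0 N0 m0 (ζ.1 + y0) ζ.2 : ℝ) := by
    classical
    have : M.card ≤ potc n θ0 κ θ1 θ2 K g0 S0 N0 m0 (ζ.1 + y0) ζ.2 := by
      unfold potc
      refine Finset.card_le_card fun m hm => ?_
      obtain ⟨hmc, hmR, y, hy, hyd⟩ := hM m hm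
      obtain ⟨i, hi, hs, hyS⟩ := hy
      rw [Finset.mem_filter]
      have e : cen θ1 m - cen θ1 m0 = (cen θ1 m - c) - (cen θ1 m0 - c) := by abel
      have hn : ‖cen θ1 m - cen θ1 m0‖ ≤ 16 * θ2 := by
        rw [e]
        exact (norm_sub_le _ _).trans (by linarith [hmR.1, hm0R.1])
      refine ⟨hmc, ⟨hn, ?_⟩, ?_⟩
      · -- rectangle
        have h3 := orth_le_crs hN01 hN (δ := δ) (by rw [crs_comm, abs_neg]; exact hs0)
          (cen θ1 m - cen θ1 m0)
        have h4 : ‖orth N (cen θ1 m - cen θ1 m0)‖ ≤ 8 * θ1 := by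
          rw [e, orth_sub]
          exact (norm_sub_le _ _).trans (by linarith [hmR.2, hm0R.2])
        have h5 : δ * ‖cen θ1 m - cen θ1 m0‖ ≤ δ * (16 * θ2) := by gcongr
        have h6 : δ * (16 * θ2) = 16 * θ1 := by rw [← e12]; ring
        linarith
      · -- densities
        obtain ⟨-, h8, -⟩ := hcls i0 hi0 m0 y0 hy0S
        obtain ⟨h9, -, -⟩ := hcls i hi m y hyS
        have h18 : Adc n θ0 κ θ1 g0 S0 m (ζ.1 + y) ζ.2 ≤
            ENNReal.ofReal ((1 + 6090 * Y) ^ n) * Adc n θ0 κ θ1 g0 S0 m (ζ.1 + y0) ζ.2 := by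
          unfold Adc Cad538.Acc
          refine Den_shift (by positivity) fun m' hm' => ?_
          have hnear : ‖cen θ0 m' - cen θ1 m‖ < 3 * θ1 := (mem_nearL.1 hm').2
          have ee : ζ.1 + y0 + ζ.2 • vel (cen θ0 m') - (ζ.1 + y + ζ.2 • vel (cen θ0 m')) =
              y0 - y := by abel
          rw [ee]
          exact disp_le p0 h01 h12 hκ hst hY1 hnear.le hn ht hT1 hyd hy0d
        have h19 : 8 * (1 + 6090 * Y) ^ n ≤ K := by
          refine le_trans ?_ hK
          rw [mul_assoc, ← mul_pow]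
          have : (1 + 6090 * Y) ^ n ≤ (6091 * Y) ^ n :=
            pow_le_pow_left₀ (by positivity) (by linarith) n
          linarith
        calc Adc n θ0 κ θ1 g0 S0 m0 (ζ.1 + y0) ζ.2 ≤ ENNReal.ofReal (8 * α) := h8
          _ = 8 * ENNReal.ofReal α := by
              rw [ENNReal.ofReal_mul (by norm_num)]; norm_num
          _ ≤ 8 * (ENNReal.ofReal ((1 + 6090 * Y) ^ n) *
                Adc n θ0 κ θ1 g0 S0 m (ζ.1 + y0) ζ.2) := by
              gcongr; exact h9.trans h18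
          _ = ENNReal.ofReal (8 * (1 + 6090 * Y) ^ n) *
                Adc n θ0 κ θ1 g0 S0 m (ζ.1 + y0) ζ.2 := by
              rw [← mul_assoc, ENNReal.ofReal_mul (by norm_num)]; norm_num
          _ ≤ ENNReal.ofReal K * Adc n θ0 κ θ1 g0 S0 m (ζ.1 + y0) ζ.2 := by gcongr
    exact_mod_cast this
  exact hcard.trans (hcls i0 hi0 m0 y0 hy0S).2.2

end Crest.Agent.R116.AlB888
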