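import Crest.Agent.R116.AlB3_888

/-!
# R116, wave side, slab step: LOWER over the literals of PDefC_299 (helper888)

`adm_ny`, `adm_d` = numbers of an admissible member; `ctx_nums` = the numbers of the slab step from
`Ctx` (one margin `G ≥ 1` is enough); **`lower_C`** = LOWER row for the plate `i` of the child class.
The exponents do not depend on `a, b, A`.
-/

set_option autoImplicit false

open MeasureTheory
open scoped ENNReal

namespace Crest.Agent.R116.AlB888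

open Crest.Agent.R138.Defs (E2)
open Crest.Agent.R138.Wpk685 (cen caps)
open Crest.Agent.R138.Loc878 (nearL mem_nearL Near)
open Crest.Agent.R116.CDef480 Crest.Agent.R116.Ckm538 Crest.Agent.R116.Cad538
open Crest.Agent.R116.LZg725 (Cf)
open Crest.Agent.R116.Gc192 (un norm_un un_sub crs)
open Crest.Agent.R116.WC188 Crest.Agent.R116.PC299

/-! ### an admissible member -/

section adm

variable {M κ s1 s2 r : ℝ} {c : E2} {X0 : E3} {f : Cf E2}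

theorem adm_ny (h : Adm M κ s1 s2 (TT κ s2 r) r c X0 f) (hM : 0 ≤ M) (hs2 : 0 < s2) {s : ℝ}
    (hs : |s| ≤ r) : |f.ny s| * s2 ≤ M := by
  have hT : s2 ^ 2 ≤ TT κ s2 r := le_max_left _ _
  have hT0 : 0 < TT κ s2 r := lt_of_lt_of_le (by positivity) hT
  have h1 := h.ny s hs
  rw [le_div_iff₀ hT0] at h1
  have h2 : |f.ny s| * s2 ^ 2 ≤ M * s2 :=
    (mul_le_mul_of_nonneg_left hT (abs_nonneg _)).trans h1
  have h3 : (|f.ny s| * s2) * s2 ≤ M * s2 := by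
    calc (|f.ny s| * s2) * s2 = |f.ny s| * s2 ^ 2 := by ring
      _ ≤ M * s2 := h2
  exact le_of_mul_le_mul_right h3 hs2

theorem adm_d (h : Adm M κ s1 s2 (TT κ s2 r) r c X0 f) (hr : 0 < r) :
    |f.d| ≤ M * κ * s1 / 2 := by
  have h1 := h.cmp r (by rw [abs_of_pos hr])
  have h2 := h.cmp (-r) (by rw [abs_neg, abs_of_pos hr])
  have e : 4 * f.d * r = f.ny (-r) - f.ny r := by unfold Cf.ny; ring
  have h3 : |4 * f.d * r| ≤ 2 * (M * (κ * s1 * r)) := by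
    rw [e]
    exact (abs_sub _ _).trans (by linarith)
  rw [abs_mul, abs_mul, abs_of_pos hr, abs_of_pos (by norm_num : (0:ℝ) < 4)] at h3
  have h4 : (4 * |f.d|) * r ≤ (2 * (M * κ * s1)) * r := by
    calc (4 * |f.d|) * r ≤ 2 * (M * (κ * s1 * r)) := h3
      _ = _ := by ring
  have h5 := le_of_mul_le_mul_right h4 hr
  linarith

theorem pbx_box {A : ℝ} {m : ℤ × ℤ} {y : E3} (hy : y ∈ pbx κ A r s1 s2 c X0 f m) :
    |f.ev (lat y) (y 2) 0| ≤ A * s1 * r ∧ |f.ld (cen (an r) m) (lat y) (y 2) 0| ≤ A * s1 :=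
  ⟨hy.2.2.2.1, hy.2.2.2.2⟩

end adm

/-! ### strip count of UPPER -/

/-- the orthogonal part in the frame `(N, u)`. -/
theorem norm_orth_perp {N u : E2} (hN : ‖N‖ = 1) (hu : ‖u‖ = 1) (h : inner ℝ N u = 0) (w : E2) :
    ‖Crest.Agent.R138.Rect779.orth N w‖ = |(inner ℝ u w : ℝ)| := by
  rw [norm_orth_crs hN]
  have h1 : N 0 ^ 2 + N 1 ^ 2 = 1 := by rw [← normsq2, hN]; norm_num
  have h2 : u 0 ^ 2 + u 1 ^ 2 = 1 := by rw [← normsq2, hu]; norm_num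
  have h3 : N 0 * u 0 + N 1 * u 1 = 0 := by rw [← CDef480.inner2]; exact h
  have h4 : crs N w = crs N u * inner ℝ u w := by
    unfold crs
    rw [CDef480.inner2]
    have e : N 0 * w 1 - N 1 * w 0 = (u 0 ^ 2 + u 1 ^ 2) * (N 0 * w 1 - N 1 * w 0) := by
      rw [h2, one_mul]
    rw [e]
    linear_combination (u 0 * w 1 - u 1 * w 0) * h3
  have h5 : (crs N u) ^ 2 = 1 := by
    unfold crs
    have e : (N 0 * u 1 - N 1 * u 0) ^ 2 = (N 0 ^ 2 + N 1 ^ 2) * (u 0 ^ 2 + u 1 ^ 2) -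
        (N 0 * u 0 + N 1 * u 1) ^ 2 := by ring
    rw [e, h1, h2, h3]
    norm_num
  have h6 : |crs N u| = 1 := by
    rw [← sq_abs] at h5
    have := abs_nonneg (crs N u)
    nlinarith
  rw [h4, abs_mul, h6, one_mul]

/-- **strip count** of UPPER over the literal `Coh` of PDefC_299. -/
theorem strip_count_C {θ θ' κ δ Y T pp : ℝ} {I1 : Finset ℕ} {P1 : ℕ → Plate} (hpp : 0 ≤ pp)
    (h01 : θ ≤ θ') (hθ : 0 ≤ θ) (hcoh : Coh θ θ' κ δ Y T I1 P1 pp) {N u : E2} (hN : ‖N‖ = 1)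
    (hu : ‖u‖ = 1) (h : inner ℝ N u = 0) (x : E3) {t : ℝ} (ht : |t| ≤ T) (m' : ℤ × ℤ) (j : ℤ) :
    (Set.ncard {m | m ∈ nearL θ θ' m' ∧ (∃ y ∈ Sal δ θ N I1 P1 m,
      ‖frc θ κ (cen θ m) (y - t • vel (cen θ m) - x)‖ ≤ Y) ∧
      |(inner ℝ u (cen θ m) : ℝ) - j * θ| ≤ θ} : ℝ) ≤ pp :=
  strip_countc hpp h01 hθ (act := fun m => ∃ y ∈ Sal δ θ N I1 P1 m,
      ‖frc θ κ (cen θ m) (y - t • vel (cen θ m) - x)‖ ≤ Y) (N := N) (u := u)
    (fun w => (norm_orth_perp hN hu h w).le) (fun c M hM => hcoh N c x t hN ht M hM) m' j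

/-! ### numbers -/

/-- the numbers of the slab step. -/
theorem wide_nums {M A Gm Y κ dl G th1 th2 s2 : ℝ} (hM : 1 ≤ M) (hA : 1 ≤ A) (hdl : 0 < dl)
    (hdl0 : dl ≤ ((3584 * M * A) ^ 2)⁻¹) (hG : 1 ≤ G) (hGm : 1 ≤ Gm)
    (hGm2 : Gm ≤ dl ^ (-(1/4) : ℝ)) (hY : 1 ≤ Y) (hY2 : Y ≤ dl ^ (-(1/4) : ℝ)) (hκ : 0 < κ)
    (hκ2 : κ ≤ dl ^ (4 : ℕ)) (hth1 : 0 < th1) (e12 : dl ^ (1/2 : ℝ) * th2 = th1)
    (hw : dl ^ (-G) * th1 ≤ s2) :
    8 * (M * A * Gm ^ 2 * Y * κ) ≤ dl ∧ 3584 * (M * th2) ≤ s2 ∧ 8 * (M * A * Gm * th1) ≤ s2 := by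
  have hMA : 1 ≤ M * A := one_le_mul_of_one_le_of_one_le hM hA
  have hM0 : 0 < M := by linarith
  have hA0 : 0 < A := by linarith
  have hP : (1:ℝ) ≤ 3584 * M * A := by nlinarith
  have hdl1 : dl ≤ 1 := hdl0.trans (inv_le_one_of_one_le₀ (one_le_pow₀ hP))
  obtain ⟨e, he⟩ : ∃ e : ℝ, e = dl ^ (1/4 : ℝ) := ⟨_, rfl⟩
  have he0 : 0 < e := by rw [he]; exact Real.rpow_pos_of_pos hdl _
  have he1 : e ≤ 1 := by rw [he]; exact Real.rpow_le_one hdl.le hdl1 (by norm_num)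
  have e4 : e ^ 4 = dl := by
    rw [he, ← Real.rpow_natCast, ← Real.rpow_mul hdl.le]; norm_num
  have e2 : dl ^ (1/2 : ℝ) = e ^ 2 := by
    rw [he, ← Real.rpow_natCast, ← Real.rpow_mul hdl.le]; norm_num
  have ei : dl ^ (-(1/4) : ℝ) = e⁻¹ := by rw [he, Real.rpow_neg hdl.le]
  rw [ei] at hGm2 hY2
  rw [e2] at e12
  have g1 : Gm * e ≤ 1 := by
    calc Gm * e ≤ e⁻¹ * e := by gcongr
      _ = 1 := inv_mul_cancel₀ he0.ne'
  have y1 : Y * e ≤ 1 := by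
    calc Y * e ≤ e⁻¹ * e := by gcongr
      _ = 1 := inv_mul_cancel₀ he0.ne'
  -- `3584 M A e² ≤ 1`
  have k1 : 3584 * M * A * e ^ 2 ≤ 1 := by
    have h1 : (3584 * M * A * e ^ 2) ^ 2 ≤ 1 ^ 2 := by
      have h2 : (3584 * M * A * e ^ 2) ^ 2 = (3584 * M * A) ^ 2 * dl := by rw [← e4]; ring
      rw [h2, one_pow]
      calc (3584 * M * A) ^ 2 * dl ≤ (3584 * M * A) ^ 2 * ((3584 * M * A) ^ 2)⁻¹ := by gcongr
        _ = 1 := mul_inv_cancel₀ (by positivity)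
    exact (pow_le_pow_iff_left₀ (by positivity) (by norm_num) (by norm_num)).1 h1
  -- `th2 ≤ s2 e²`
  have w1 : dl⁻¹ * th1 ≤ s2 := by
    refine le_trans ?_ hw
    have : dl⁻¹ ≤ dl ^ (-G) := by
      rw [← Real.rpow_neg_one]
      exact Real.rpow_le_rpow_of_exponent_ge hdl hdl1 (by linarith)
    gcongr
  have w2 : th2 ≤ s2 * e ^ 2 := by
    have h1 : dl * (dl⁻¹ * th1) ≤ dl * s2 := by gcongr
    rw [mul_inv_cancel_left₀ hdl.ne', ← e12, ← e4] at h1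
    have h2 : e ^ 2 * th2 ≤ e ^ 2 * (s2 * e ^ 2) := by
      calc e ^ 2 * th2 ≤ e ^ 4 * s2 := h1
        _ = _ := by ring
    exact le_of_mul_le_mul_left h2 (by positivity)
  have hth2 : 0 < th2 := by
    by_contra hc
    push Not at hc
    have : e ^ 2 * th2 ≤ 0 := mul_nonpos_of_nonneg_of_nonpos (by positivity) hc
    linarith
  have hs2 : 0 < s2 := by
    by_contra hc
    push Not at hc
    have : s2 * e ^ 2 ≤ 0 := mul_nonpos_of_nonpos_of_nonneg hc (by positivity)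
    linarith
  refine ⟨?_, ?_, ?_⟩
  · have h1 : M * A * Gm ^ 2 * Y * κ ≤ M * A * Gm ^ 2 * Y * dl ^ (4 : ℕ) := by gcongr
    have h2 : M * A * Gm ^ 2 * Y * dl ^ (4 : ℕ) =
        (M * A * e ^ 2) * ((Gm * e) ^ 2 * (Y * e)) * e ^ 11 := by rw [← e4]; ring
    have h3 : (Gm * e) ^ 2 * (Y * e) ≤ 1 := by
      have : (Gm * e) ^ 2 ≤ 1 := pow_le_one₀ (by positivity) g1
      exact mul_le_one₀ this (by positivity) y1
    have h4 : e ^ 11 ≤ e ^ 4 := pow_le_pow_of_le_one he0.le he1 (by norm_num)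
    have h5 : (M * A * e ^ 2) * ((Gm * e) ^ 2 * (Y * e)) * e ^ 11 ≤ (M * A * e ^ 2) * 1 * e ^ 4 := by
      gcongr
    have h6 : 8 * (M * A * e ^ 2) ≤ 1 := by nlinarith [mul_pos (mul_pos hM0 hA0) (pow_pos he0 2)]
    calc 8 * (M * A * Gm ^ 2 * Y * κ) ≤ 8 * ((M * A * e ^ 2) * 1 * e ^ 4) := by linarith
      _ = (8 * (M * A * e ^ 2)) * e ^ 4 := by ring
      _ ≤ 1 * e ^ 4 := by gcongr
      _ = dl := by rw [one_mul, e4]
  · have h1 : 3584 * (M * th2) ≤ 3584 * (M * (s2 * e ^ 2)) := by gcongr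
    have h2 : 3584 * (M * (s2 * e ^ 2)) ≤ (3584 * M * A * e ^ 2) * s2 := by
      have h3 : M * 1 ≤ M * A := by gcongr
      calc 3584 * (M * (s2 * e ^ 2)) = 3584 * (M * 1) * (e ^ 2 * s2) := by ring
        _ ≤ 3584 * (M * A) * (e ^ 2 * s2) := by gcongr
        _ = _ := by ring
    calc 3584 * (M * th2) ≤ (3584 * M * A * e ^ 2) * s2 := h1.trans h2
      _ ≤ 1 * s2 := by gcongr
      _ = s2 := one_mul _
  · have h1 : 8 * (M * A * Gm * th1) ≤ 8 * (M * A * Gm * (e ^ 2 * (s2 * e ^ 2))) := by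
      rw [← e12]; gcongr
    have h2 : 8 * (M * A * Gm * (e ^ 2 * (s2 * e ^ 2))) =
        (8 * (M * A * e ^ 2)) * ((Gm * e) * e) * s2 := by ring
    have h6 : 8 * (M * A * e ^ 2) ≤ 1 := by nlinarith [mul_pos (mul_pos hM0 hA0) (pow_pos he0 2)]
    have h7 : (Gm * e) * e ≤ 1 := mul_le_one₀ g1 he0.le he1
    calc 8 * (M * A * Gm * th1) ≤ (8 * (M * A * e ^ 2)) * ((Gm * e) * e) * s2 := h1.trans h2.le
      _ ≤ 1 * 1 * s2 := by gcongr
      _ = s2 := by ring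

/-- division by the coherence count. -/
theorem ennreal_div_p {p B : ℝ} {X Z : ℝ≥0∞} (hp : 0 < p) (hB : 0 ≤ B)
    (h : ENNReal.ofReal p * X ≤ ENNReal.ofReal B * Z) : X ≤ ENNReal.ofReal (B / p) * Z := by
  have h1 : ENNReal.ofReal p⁻¹ * (ENNReal.ofReal p * X) ≤
      ENNReal.ofReal p⁻¹ * (ENNReal.ofReal B * Z) := mul_le_mul' le_rfl h
  rw [← mul_assoc, ← mul_assoc, ← ENNReal.ofReal_mul (by positivity),
    ← ENNReal.ofReal_mul (by positivity), inv_mul_cancel₀ hp.ne', ENNReal.ofReal_one, one_mul] at h1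
  refine h1.trans (le_of_eq ?_)
  congr 2
  rw [div_eq_mul_inv, mul_comm]

/-- **LOWER** over the literals of PDefC_299: for the child plate `i`, the active child caps `T` at the
point `(x, t)` of its frame and every family `Ms` which contains the parent caps near them.  The
margin `G = 1` is enough. -/
theorem lower_C {M A : ℝ} (hM : 1 ≤ M) (hA : 1 ≤ A) (n : ℕ) {q a b G c0 κ η0 K0 d1 : ℝ} {g : E3 → ℂ}
    {r1 dl Y Gm s1' s2' s1 s2 D α p : ℝ} {S : ℤ × ℤ → Set E3} {I1 : Finset ℕ} {P1 : ℕ → Plate}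
    {I : Finset ℕ} {P : ℕ → Plate}
    (hctx : Ctx M q a b A d1 G c0 κ η0 g r1 dl Y Gm s1' s2' s1 s2 D I1 P1 I P)
    (hd0 : dl ≤ ((3584 * M * A) ^ 2)⁻¹) (hG : 1 ≤ G) (hα : 0 ≤ α) (hp : 1 ≤ p) (hK0 : 1 ≤ K0)
    (hchi : Chi n K0 κ g dl r1 α p S I P) {i : ℕ} (hi : i ∈ I) (x : E3) {t : ℝ}
    (ht : |t| ≤ dl * r1) (T : Finset (ℤ × ℤ))
    (hT : ∀ m ∈ T, ∃ y ∈ (P i).S m, ‖frc (an r1) κ (cen (an (dl * r1)) m)
      (y - x - t • vel (cen (an (dl * r1)) m))‖ ≤ Y)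
    {Ms : Finset (ℤ × ℤ)} (hMs : ∀ m ∈ caps (an r1), (∃ m' ∈ T,
      ‖cen (an r1) m - cen (an (dl * r1)) m'‖ ≤
        16 * an (dl * (dl * r1)) + 3 * an (dl * r1)) → m ∈ Ms) :
    ∑ m ∈ T, Adc n (an r1) κ (an (dl * r1)) g S m ((P i).z.1 + x) ((P i).z.2 + t) ≤
      ENNReal.ofReal (4000000000 * 222 ^ (2 * n) * (M * A) ^ 2 * K0 * Gm ^ 2 *
        Y ^ (2 * n + 2) / p) *
        Cad538.Acc n (an r1) κ (an r1) g S Ms ((P i).z.1 + x) ((P i).z.2 + t) := by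
  have hdl := hctx.dlpos
  have hMA : (1:ℝ) ≤ 3584 * M * A := by nlinarith
  have hdl1 : dl ≤ 1 := hd0.trans (inv_le_one_of_one_le₀ (one_le_pow₀ hMA))
  have hr1 : 0 < r1 := lt_of_lt_of_le (Real.rpow_pos_of_pos hdl _) hctx.r1ge
  have hdr : 0 < dl * r1 := mul_pos hdl hr1
  have hddr : 0 < dl * (dl * r1) := mul_pos hdl hdr
  have p0 : 0 < an r1 := an_pos hr1
  have p1 : 0 < an (dl * r1) := an_pos hdr
  have p2 : 0 < an (dl * (dl * r1)) := an_pos hddr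
  have e01 : dl ^ (1/2 : ℝ) * an (dl * r1) = an r1 := an_step hr1 hdl
  have e12 : dl ^ (1/2 : ℝ) * an (dl * (dl * r1)) = an (dl * r1) := an_step hdr hdl
  have e1 : an (dl * r1) ^ 2 * (dl * r1) = 1 := an_sq hdr
  obtain ⟨k1, k2, k3⟩ := wide_nums hM hA hdl hd0 hG hctx.Gm1 hctx.Gm2 hctx.Y1 hctx.Y2 hctx.kpos
    hctx.khi p1 e12 hctx.wide
  have hs10 : 0 ≤ s1 := p1.le.trans hctx.sd.lo
  have hs20 : 0 < s2 := p1.trans_le (hctx.sd.lo.trans hctx.sd.le)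
  have hadm := hctx.pl.adm i hi
  have hgr : ∀ m, ∀ y ∈ (P i).S m, 7 / 10 ≤ ‖(P i).f.gr (cen (an (dl * r1)) m) (lat y) 0‖ := by
    intro m y hy
    obtain ⟨b1, b2⟩ := pbx_box (hctx.pl.box i hi m hy)
    have hdδ : dl ≤ dl ^ (1/2 : ℝ) := by
      conv_lhs => rw [← Real.rpow_one dl]
      exact Real.rpow_le_rpow_of_exponent_ge hdl hdl1 (by norm_num)
    obtain ⟨c1, c2, -⟩ := nums_strip hM hA hctx.Gm1 hctx.Y1 hctx.kpos k1 hdl1 hdr p1 hdδ e01 e1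
      hs10 hs20 hctx.thin k3
    refine gr_lower (Mn := M / s2) (d0 := M * κ * s1 / 2) hadm.disc ?_ (adm_d hadm hdr) b2 b1 c1 c2
    rw [le_div_iff₀ hs20]
    exact adm_ny hadm (by linarith) hs20 (by rw [abs_zero]; exact hdr.le)
  have key := row_al_c (n := n) (g := g) (S := S) (f := (P i).f) (M := M) (A := A) (Gm := Gm)
    (K0 := K0) (Y := Y) (a := α) (r := dl * r1) (dl := dl) (s1 := s1) (s2 := s2) (δ := 0) (pp := p)
    p0 p2 hctx.kpos hdl hdl1 hdr hM hA hctx.Gm1 hctx.Y1 hα hK0 e01 e12 e1 k1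
    (Real.rpow_nonneg hdl.le _) hs10 hs20 hctx.thin k2 k3 hadm.disc
    (fun s hs => adm_ny hadm (by linarith) hs20 hs) (adm_d hadm hdr) (z := (P i).z)
    (S' := (P i).S) (N := fun m y => nP (an (dl * r1)) (P i).f m y)
    (fun m y hy => pbx_box (hctx.pl.box i hi m hy)) (fun m y hy => hchi.lo i hi m y hy)
    (fun m y hy => hchi.hi i hi m y hy)
    (fun m y hy => norm_un (k := 7 / 10) (by norm_num) (hgr m y hy))
    (fun m y _ => by
      left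
      show ‖un (P i).f (cen (an (dl * r1)) m) (lat y) 0 -
        un (P i).f (cen (an (dl * r1)) m) (lat y) 0‖ ≤ 0
      rw [sub_self, norm_zero])
    (fun m y hy => hchi.pot i hi m y hy) x ht T hT hMs
  have h9 := ennreal_div_p (by linarith : 0 < p) (by
    have := hctx.Gm1
    have := hctx.Y1
    positivity) key
  refine h9.trans (le_of_eq ?_)
  congr 2
  ring

end Crest.Agent.R116.AlB888
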