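import Crest.Agent.R116.PDefC_299

/-!
# R116 (S0155), wave side, AL-CONE (helper339): interface of the slab step

* `Gd` = sliced, bounded, supported functions;
* **`KmC M q`** = Kakeya bound for the packet densities in cap form (538, 890);
* `seC` = plate energy seen from the point `(x, t)`, `Fam`, `labc` = parent caps near a child plate;
* **`HH`** = upper bound of the plate energies by the parent density (339);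
* **`SumC M q`** = summation over all plates (883).
-/

set_option autoImplicit false

open MeasureTheory
open scoped ENNReal

namespace Crest.Agent.R116.AlC339

open Crest.Agent.R138.Defs (E2)
open Crest.Agent.R138.Wpk685 (cen caps)
open Crest.Agent.R116.CDef480
open Crest.Agent.R116.LZg725 (Cf)
open Crest.Agent.R116.Cad538 (frc wt Acc)
open Crest.Agent.R116.WC188
open Crest.Agent.R116.PC299 (an Ctx SCo)

/-- sliced, bounded, supported functions. -/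
structure Gd (a b η0 κ : ℝ) (g : E3 → ℂ) : Prop where
  gm : Measurable g
  gb : ∃ L : ℝ, ∀ ζ, ‖g ζ‖ ≤ L
  gs : ∀ ζ, g ζ ≠ 0 → a⁻¹ ≤ ζ 2 ∧ ζ 2 ≤ a ∧ ‖slp ζ‖ ≤ b
  slc : Slc η0 κ g

/-- **Kakeya bound** for the packet densities, cap form. -/
def KmC (M q : ℝ) : Prop :=
  ∀ ε : ℝ, 0 < ε → ∃ n0 : ℕ, ∀ n : ℕ, n0 ≤ n →
  ∀ a b A L Λ : ℝ, 1 ≤ a → 0 < b → b < 2 → 1 ≤ A → 1 ≤ L → 1 ≤ Λ → ∃ C : ℝ, 0 ≤ C ∧
  ∀ (κ η0 r : ℝ) (g : E3 → ℂ) (S : ℤ × ℤ → Set E3) (D s : ℝ), 0 < κ → 8 * a * κ ≤ 1 →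
    1 ≤ r → r ^ (-(1/4) : ℝ) ≤ κ → Gd a b η0 κ g → (∀ m, MeasurableSet (S m)) →
    (∀ m, m ∉ caps (an r) → S m = ∅) → (∀ m, S m ⊆ Metric.closedBall 0 (A * r)) → 0 ≤ D →
    (∀ (c : E2) (X0 : E3) (f : Cf E2) (u1 u2 : ℝ), Sd r u1 u2 →
      Adm M κ u1 u2 (TT κ u2 r) r c X0 f →
      enc (an r) g (fun m => S m ∩ pbx κ 1 r u1 u2 c X0 f m) ≤
        ENNReal.ofReal (D * u2 ^ q * scost κ u1 u2 r)) →
    an r ≤ s → s ≤ 1 → ∀ (K : Finset (ℤ × ℤ)) (F : ℤ × ℤ → Finset (ℤ × ℤ)),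
    (∀ k ∈ K, F k ⊆ caps (an r) ∧ ∀ m ∈ F k, ‖cen (an r) m - cen s k‖ ≤ Λ * s) →
    ∑ k ∈ K, ∫⁻ p in (cylc (L * r) : Set (E3 × ℝ)),
      Acc n (an r) κ (an r) g S (F k) p.1 p.2 ^ (3 / 2 : ℝ) ≤
      ENNReal.ofReal (C * r ^ ε * s ^ (q / 2) * Real.sqrt D * r) * enc (an r) g S

/-- label of a slope at scale `s`. -/
noncomputable def labc (s : ℝ) (c : E2) : ℤ × ℤ := (round (c 0 / s), round (c 1 / s))

open Classical in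
/-- parent caps near the label `k` of scale `s`. -/
noncomputable def Fam (A θ s : ℝ) (k : ℤ × ℤ) : Finset (ℤ × ℤ) :=
  (caps θ).filter fun m => ‖cen θ m - cen s k‖ ≤ (A + 2) * s

/-- plate energy of `P` seen from `(x, t)`; `U` = the wave `g1` in the frame of `P`. -/
noncomputable def seC (N : ℕ) (θ θ' κ : ℝ) (g1 : E3 → ℂ) (P : Plate) (x : E3) (t : ℝ) : ℝ≥0∞ :=
  ∑ m ∈ caps θ', ∫⁻ y in P.S m,
    ENNReal.ofReal (wt (frc θ κ (cen θ' m)) N (y - (x + t • vel (cen θ' m)))) *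
      ‖umc θ' (trc P.z g1) m y‖ₑ ^ 2

/-- **(H)** with the constants `Mu`, `τ`. -/
def HH (N n : ℕ) (A κ η0 : ℝ) (g : E3 → ℂ) (r1 dl s2 : ℝ) (I1 : Finset ℕ) (P1 : ℕ → Plate)
    (I : Finset ℕ) (P : ℕ → Plate) (Mu τ : ℝ) : Prop :=
  ∀ i ∈ I, ∀ (x : E3) (t : ℝ), |t| ≤ dl * r1 →
    seC N (an r1) (an (dl * r1)) κ (selc η0 κ (an r1) g (uS I1 P1)) (P i) x t ≤
      ENNReal.ofReal ((an r1 ^ 2 * κ)⁻¹) *
        (ENNReal.ofReal (Mu * (an r1 / an (dl * r1))) *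
          Acc n (an r1) κ (an r1) g (uS I1 P1) (Fam A (an r1) s2 (labc s2 (P i).c))
            ((P i).z.1 + x) ((P i).z.2 + t) + ENNReal.ofReal τ)

/-- **summation over the plates** (frames_mult + KmC); `G ≥ 2`. -/
def SumC (M q : ℝ) : Prop :=
  ∀ ε : ℝ, 0 < ε → ∃ n0 : ℕ, ∀ n : ℕ, n0 ≤ n → ∀ a b A : ℝ, 1 ≤ a → 0 < b → b < 2 → 1 ≤ A →
  ∃ d0 : ℝ, 0 < d0 ∧ d0 ≤ 1 ∧ ∀ N : ℕ, n ≤ N → 4 ≤ N → ∃ C : ℝ, 0 ≤ C ∧
  ∀ (G c0 κ η0 : ℝ) (g : E3 → ℂ) (r1 dl Y Gm s1' s2' s1 s2 D Mu τ : ℝ)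
    (I1 : Finset ℕ) (P1 : ℕ → Plate) (I : Finset ℕ) (P : ℕ → Plate),
    Ctx M q a b A d0 G c0 κ η0 g r1 dl Y Gm s1' s2' s1 s2 D I1 P1 I P → 2 ≤ G → 0 ≤ Mu → 0 ≤ τ →
    HH N n A κ η0 g r1 dl s2 I1 P1 I P Mu τ →
    ENNReal.ofReal (s2 ^ (-q / 2)) *
        val κ (selc η0 κ (an r1) g (uS I1 P1)) (dl * r1) s1 s2 I P ≤
      ENNReal.ofReal (C * r1 ^ ε * Mu ^ (1/2 : ℝ)) * SCo g r1 D (uS I1 P1) +
        ENNReal.ofReal (C * r1 ^ (10 : ℕ) * τ ^ (1/2 : ℝ)) * ENNReal.ofReal (Enc g)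

end Crest.Agent.R116.AlC339
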