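import Crest.Agent.R116.AlV2_339
import Crest.Agent.R116.Gc3_192
import Crest.Agent.R116.AlB1_888

/-!
# R116 (S0155), wave side, AL-CONE (helper339): geometry of one plate

`Plt M κ s1 s2 r f` = bounds of an admissible compatible conformal function; `Src` = phase point of
the plate; movement along the ray and inside one cell.
-/

set_option autoImplicit false

open MeasureTheory
open scoped ENNReal

namespace Crest.Agent.R116.AlC339

open Crest.Agent.R138.Defs (E2)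
open Crest.Agent.R116.CDef480 Crest.Agent.R116.Ckm538 Crest.Agent.R116.Cad538
open Crest.Agent.R116.LZg725 (Cf)
open Crest.Agent.R116.Gc192 (un norm_un)
open Crest.Agent.R116.AlB888 (lat_vel)

/-- bounds of the conformal function of a plate. -/
structure Plt (M κ s1 s2 r : ℝ) (f : Cf E2) : Prop where
  disc : f.disc = 1
  ny1 : ∀ s : ℝ, |s| ≤ r → |f.ny s| ≤ M / s2
  ny2 : ∀ s : ℝ, |s| ≤ r → |f.ny s| ≤ M * (κ * s1 * r)

theorem Plt.d1 {M κ s1 s2 r : ℝ} {f : Cf E2} (h : Plt M κ s1 s2 r f) (hr : 0 < r)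
    (hs2 : 0 < s2) : |f.d| ≤ M / (2 * s2 * r) := by
  have h1 := h.ny1 r (by rw [abs_of_pos hr])
  have h2 := h.ny1 (-r) (by rw [abs_neg, abs_of_pos hr])
  have e : f.ny (-r) - f.ny r = 4 * (f.d * r) := by unfold Cf.ny; ring
  have h3 : |4 * (f.d * r)| ≤ 2 * (M / s2) := by
    rw [← e]; exact (abs_sub _ _).trans (by linarith)
  rw [abs_mul, abs_mul, abs_of_pos hr, abs_of_pos (by norm_num : (0:ℝ) < 4)] at h3
  rw [le_div_iff₀ (by positivity)]
  have h4 : M / s2 * s2 = M := div_mul_cancel₀ _ hs2.ne'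
  nlinarith

theorem Plt.d2 {M κ s1 s2 r : ℝ} {f : Cf E2} (h : Plt M κ s1 s2 r f) (hr : 0 < r) :
    |f.d| ≤ M * κ * s1 / 2 := by
  have h1 := h.ny2 r (by rw [abs_of_pos hr])
  have h2 := h.ny2 (-r) (by rw [abs_neg, abs_of_pos hr])
  have e : f.ny (-r) - f.ny r = 4 * (f.d * r) := by unfold Cf.ny; ring
  have h3 : |4 * (f.d * r)| ≤ 2 * (M * (κ * s1 * r)) := by
    rw [← e]; exact (abs_sub _ _).trans (by linarith)
  rw [abs_mul, abs_mul, abs_of_pos hr, abs_of_pos (by norm_num : (0:ℝ) < 4)] at h3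
  have h4 : |f.d| * r ≤ (M * κ * s1 / 2) * r := by linarith
  exact le_of_mul_le_mul_right h4 hr

theorem two_vel (C : E2) : (vel C) 2 = -‖C‖ ^ 2 / 2 := by unfold vel; rw [pt_two]

theorem lat_ray (y : E3) (t : ℝ) (C : E2) : lat (y - t • vel C) = lat y - t • C := by
  rw [lat_sub, lat_smul, lat_vel]

theorem two_ray (y : E3) (t : ℝ) (C : E2) : (y - t • vel C) 2 = y 2 + t * ‖C‖ ^ 2 / 2 := by
  rw [PiLp.sub_apply, PiLp.smul_apply, two_vel, smul_eq_mul]; ring

/-- the value along the ray. -/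
theorem ev_ray (f : Cf E2) (C : E2) (y : E3) (t : ℝ) :
    f.ev (lat (y - t • vel C)) ((y - t • vel C) 2) t = f.ev (lat y) (y 2) 0 +
      t * f.ld C (lat y) (y 2) 0 := by
  have h := f.ev_along C (lat y) (y 2) 0 t
  rw [zero_add] at h
  rw [lat_ray, two_ray, h]

/-- the gradient is constant along the ray. -/
theorem gr_ray (f : Cf E2) (C : E2) (y : E3) (t : ℝ) :
    f.gr C (lat (y - t • vel C)) t = f.gr C (lat y) 0 := by
  rw [lat_ray, f.gr_move C (lat y) (lat y - t • C) 0 t]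
  have : lat y - t • C - lat y + (t - 0) • C = 0 := by
    rw [sub_zero]; abel
  rw [this, smul_zero, add_zero]

theorem nrm_bridge (C : E2) (x : E3) (s : ℝ) : nrm C x s = LZg725.nrm C (lat x) (x 2) s := rfl

/-- the derivative is constant along the ray. -/
theorem ld_ray (f : Cf E2) (C : E2) (y : E3) (t : ℝ) :
    f.ld C (lat (y - t • vel C)) ((y - t • vel C) 2) t = f.ld C (lat y) (y 2) 0 := by
  rw [f.ld_move C (lat y) (lat (y - t • vel C)) (y 2) ((y - t • vel C) 2) 0 t]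
  have h := nrm_ray C y 0 t
  rw [zero_add, nrm_bridge, nrm_bridge] at h
  rw [h, sub_self, mul_zero, sub_zero]

/-- expansion at fixed time. -/
theorem ev_step (f : Cf E2) (C : E2) (x u : E3) (t : ℝ) :
    f.ev (lat (x + u)) ((x + u) 2) t = f.ev (lat x) (x 2) t + inner ℝ (f.gr C (lat x) t) (lat u) +
      f.ny t * nrm C u 0 + f.d * ‖lat u‖ ^ 2 := by
  have h := f.ev_expand C (lat x) (x 2) t (lat (x + u)) ((x + u) 2) t
  have e1 : lat (x + u) - lat x + (t - t) • C = lat u := by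
    rw [lat_add, sub_self, zero_smul, add_zero]; abel
  have e2 : LZg725.nrm C (lat (x + u)) ((x + u) 2) t - LZg725.nrm C (lat x) (x 2) t =
      nrm C u 0 := by
    unfold LZg725.nrm CDef480.nrm
    rw [lat_add, inner_add_right, PiLp.add_apply]
    ring
  rw [e1, e2] at h
  rw [h]
  ring

theorem gr_step (f : Cf E2) (C : E2) (x u : E3) (t : ℝ) :
    f.gr C (lat (x + u)) t = f.gr C (lat x) t + (2 * f.d) • lat u := by
  rw [f.gr_move C (lat x) (lat (x + u)) t t, lat_add, sub_self, zero_smul, add_zero]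
  congr 2
  abel

theorem ld_step (f : Cf E2) (C : E2) (x u : E3) (t : ℝ) :
    f.ld C (lat (x + u)) ((x + u) 2) t = f.ld C (lat x) (x 2) t - 2 * f.d * nrm C u 0 := by
  rw [f.ld_move C (lat x) (lat (x + u)) (x 2) ((x + u) 2) t t]
  congr 2
  unfold LZg725.nrm CDef480.nrm
  rw [lat_add, inner_add_right, PiLp.add_apply]
  ring

/-- phase point of the plate with slope `C`, position `y` at time `0`. -/
structure Src (A s1 r : ℝ) (f : Cf E2) (C : E2) (y : E3) : Prop where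
  ev : |f.ev (lat y) (y 2) 0| ≤ A * s1 * r
  ld : |f.ld C (lat y) (y 2) 0| ≤ A * s1

theorem Src.ev_t {A s1 r : ℝ} {f : Cf E2} {C : E2} {y : E3} (h : Src A s1 r f C y) {t : ℝ}
    (ht : |t| ≤ r) : |f.ev (lat (y - t • vel C)) ((y - t • vel C) 2) t| ≤ 2 * (A * s1 * r) := by
  rw [ev_ray]
  refine (abs_add_le _ _).trans ?_
  rw [abs_mul]
  have h1 := h.ev
  have h2 : |t| * |f.ld C (lat y) (y 2) 0| ≤ r * (A * s1) :=
    mul_le_mul ht h.ld (abs_nonneg _) ((abs_nonneg _).trans ht)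
  linarith

/-- the gradient of an active phase point is nearly a unit vector. -/
theorem Src.gr_sq {M κ A s1 s2 r : ℝ} {f : Cf E2} {C : E2} {y : E3} (h : Src A s1 r f C y)
    (hp : Plt M κ s1 s2 r f) (hr : 0 < r) (hs2 : 0 < s2) (hM : 0 ≤ M)
    (hsm : 32 * M * A * s1 ≤ s2) : |‖f.gr C (lat y) 0‖ ^ 2 - 1| ≤ 1 / 8 := by
  rw [f.norm_gr_sq C (lat y) (y 2) 0, hp.disc]
  have h1 := hp.ny1 0 (by rw [abs_zero]; exact hr.le)
  have h2 := hp.d1 hr hs2
  have e : 1 + 2 * f.ny 0 * f.ld C (lat y) (y 2) 0 + 4 * f.d * f.ev (lat y) (y 2) 0 - 1 =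
      2 * (f.ny 0 * f.ld C (lat y) (y 2) 0) + 4 * (f.d * f.ev (lat y) (y 2) 0) := by ring
  rw [e]
  refine (abs_add_le _ _).trans ?_
  rw [abs_mul, abs_mul, abs_mul 4, abs_mul f.d, abs_of_pos (by norm_num : (0:ℝ) < 2),
    abs_of_pos (by norm_num : (0:ℝ) < 4)]
  have h3 : |f.ny 0| * |f.ld C (lat y) (y 2) 0| ≤ M / s2 * (A * s1) :=
    mul_le_mul h1 h.ld (abs_nonneg _) (by positivity)
  have h4 : |f.d| * |f.ev (lat y) (y 2) 0| ≤ M / (2 * s2 * r) * (A * s1 * r) :=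
    mul_le_mul h2 h.ev (abs_nonneg _) (by positivity)
  have e3 : M / s2 * (A * s1) = M * A * s1 / s2 := by ring
  have e4 : M / (2 * s2 * r) * (A * s1 * r) = M * A * s1 / s2 / 2 := by field_simp
  rw [e3] at h3
  rw [e4] at h4
  have h5 : M * A * s1 / s2 ≤ 1 / 32 := by
    rw [div_le_iff₀ hs2]; linarith
  linarith

theorem norm_of_sq {v : E2} (h : |‖v‖ ^ 2 - 1| ≤ 1 / 8) : 7 / 8 ≤ ‖v‖ ∧ ‖v‖ ≤ 9 / 8 := by
  obtain ⟨h1, h2⟩ := abs_le.1 h
  have := norm_nonneg v
  constructor <;> nlinarith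

end Crest.Agent.R116.AlC339
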