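import Crest.Agent.R116.AlG1_339

/-!
# R116 (S0155), wave side, AL-CONE (helper339): one isotropic cell of a plate

All phase points of one cap `C` of the plate which are active near `(x, t)`.
-/

set_option autoImplicit false

open MeasureTheory
open scoped ENNReal

namespace Crest.Agent.R116.AlC339

open Crest.Agent.R138.Defs (E2)
open Crest.Agent.R116.CDef480 Crest.Agent.R116.Ckm538 Crest.Agent.R116.Cad538
open Crest.Agent.R116.LZg725 (Cf)
open Crest.Agent.R116.Gc192 (un norm_un un_sub)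

/-- numbers of the slab step. -/
structure Num (M A κ θ θ' δ s1 s2 r Gm Y : ℝ) : Prop where
  M1 : 1 ≤ M
  A1 : 1 ≤ A
  k0 : 0 < κ
  t0 : 0 < θ
  tt : θ ≤ θ'
  d0 : 0 < δ
  d1 : δ ≤ 1
  p1 : 0 < s1
  p2 : 0 < s2
  r0 : 0 < r
  Gm1 : 1 ≤ Gm
  Y1 : 1 ≤ Y
  hsm : 32 * M * A * s1 ≤ s2
  thin : θ' * (s1 * r) ≤ Gm
  cur : θ' ≤ s2 * r * θ ^ 2
  al : δ * θ' ≤ θ
  var : 64 * M * Y ≤ δ * (θ * (s2 * r))

variable {M A κ θ θ' δ s1 s2 r Gm Y : ℝ} {f : Cf E2} {C : E2} {x y y0 : E3} {t : ℝ}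

theorem lat_bd (hn : Num M A κ θ θ' δ s1 s2 r Gm Y) {u : E3} (h : ‖frc θ κ C u‖ ≤ Y) :
    ‖lat u‖ ≤ Y / θ := by
  rw [le_div_iff₀ hn.t0, mul_comm]
  exact (lat_le_frc hn.t0.le C u).trans h

theorem nrm_bd (hn : Num M A κ θ θ' δ s1 s2 r Gm Y) {u : E3} (h : ‖frc θ κ C u‖ ≤ Y) :
    |nrm C u 0| ≤ Y / κ := by
  rw [le_div_iff₀ hn.k0, mul_comm]
  exact (nrm_le_frc hn.k0.le C u).trans h

theorem split_u (x y : E3) (t : ℝ) (C : E2) :
    y - t • vel C = x + (y - t • vel C - x) := by abel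

/-- the gradient at the point and at the source. -/
theorem gr_near (hn : Num M A κ θ θ' δ s1 s2 r Gm Y) (hp : Plt M κ s1 s2 r f)
    (h : ‖frc θ κ C (y - t • vel C - x)‖ ≤ Y) :
    ‖f.gr C (lat y) 0 - f.gr C (lat x) t‖ ≤ δ / 64 := by
  have e : f.gr C (lat y) 0 = f.gr C (lat x) t + (2 * f.d) • lat (y - t • vel C - x) := by
    rw [← gr_ray f C y t, ← gr_step, ← split_u]
  rw [e, add_sub_cancel_left, norm_smul, Real.norm_eq_abs, abs_mul, abs_of_pos
    (by norm_num : (0:ℝ) < 2)]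
  have h1 := hp.d1 hn.r0 hn.p2
  have h2 := lat_bd hn h
  have hM := hn.M1; have hp2 := hn.p2; have hr := hn.r0; have hθ := hn.t0; have hY := hn.Y1
  calc 2 * |f.d| * ‖lat (y - t • vel C - x)‖ ≤ 2 * (M / (2 * s2 * r)) * (Y / θ) := by gcongr
    _ = M * Y / (θ * (s2 * r)) := by field_simp
    _ ≤ δ / 64 := by
        rw [div_le_div_iff₀ (by positivity) (by norm_num)]
        have := hn.var
        linarith

/-- size of the gradient at an active point. -/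
theorem gr_size (hn : Num M A κ θ θ' δ s1 s2 r Gm Y) (hp : Plt M κ s1 s2 r f)
    (hs : Src A s1 r f C y) (h : ‖frc θ κ C (y - t • vel C - x)‖ ≤ Y) :
    3 / 4 ≤ ‖f.gr C (lat x) t‖ ∧ ‖f.gr C (lat x) t‖ ≤ 5 / 4 := by
  have h1 := norm_of_sq (hs.gr_sq hp hn.r0 hn.p2 (by linarith [hn.M1]) hn.hsm)
  have h2 := gr_near hn hp h
  have h3 : δ / 64 ≤ 1 / 64 := by linarith [hn.d1]
  have h4 := abs_le.1 ((abs_norm_sub_norm_le (f.gr C (lat y) 0) (f.gr C (lat x) t)).trans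
    (h2.trans h3))
  constructor <;> linarith [h1.1, h1.2, h4.1, h4.2]

/-- the unit normal at the source and at the point. -/
theorem un_near (hn : Num M A κ θ θ' δ s1 s2 r Gm Y) (hp : Plt M κ s1 s2 r f)
    (hs : Src A s1 r f C y) (h : ‖frc θ κ C (y - t • vel C - x)‖ ≤ Y) :
    ‖un f C (lat y) 0 - un f C (lat x) t‖ ≤ δ / 16 := by
  have h1 := norm_of_sq (hs.gr_sq hp hn.r0 hn.p2 (by linarith [hn.M1]) hn.hsm)
  have h2 := gr_size hn hp hs h
  have h3 := un_sub (k := 3 / 4) (by norm_num) (by linarith [h1.1]) h2.1 (gr_near hn hp h)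
  refine h3.trans ?_
  have := hn.d0
  linarith

/-- the derivative at an active point. -/
theorem ld_near (hn : Num M A κ θ θ' δ s1 s2 r Gm Y) (hp : Plt M κ s1 s2 r f)
    (hs : Src A s1 r f C y) (h : ‖frc θ κ C (y - t • vel C - x)‖ ≤ Y) :
    |f.ld C (lat x) (x 2) t| ≤ (A + M * Y) * s1 := by
  have e : f.ld C (lat y) (y 2) 0 = f.ld C (lat x) (x 2) t -
      2 * f.d * nrm C (y - t • vel C - x) 0 := by
    rw [← ld_ray f C y t, ← ld_step, ← split_u]
  have e2 : f.ld C (lat x) (x 2) t = f.ld C (lat y) (y 2) 0 +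
      2 * f.d * nrm C (y - t • vel C - x) 0 := by linarith
  rw [e2]
  refine (abs_add_le _ _).trans ?_
  rw [abs_mul, abs_mul, abs_of_pos (by norm_num : (0:ℝ) < 2)]
  have h1 := hp.d2 hn.r0
  have h2 := nrm_bd hn h
  have hM := hn.M1; have hp1 := hn.p1; have hk := hn.k0; have hY := hn.Y1
  have h3 : 2 * |f.d| * |nrm C (y - t • vel C - x) 0| ≤ 2 * (M * κ * s1 / 2) * (Y / κ) := by
    gcongr
  have e3 : 2 * (M * κ * s1 / 2) * (Y / κ) = M * Y * s1 := by field_simp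
  have h4 := hs.ld
  rw [e3] at h3
  linarith

/-- numerics of the strip. -/
theorem strip_num (hn : Num M A κ θ θ' δ s1 s2 r Gm Y) {I : ℝ}
    (h : I ≤ 4 * (A * s1 * r) + 2 * M * (s1 * r) * Y + M * Y ^ 2 / (2 * (s2 * r * θ ^ 2))) :
    θ' * I ≤ (4 * A + 3 * M) * Gm * Y ^ 2 := by
  have hM := hn.M1; have hA := hn.A1; have hp2 := hn.p2
  have hY := hn.Y1; have hr := hn.r0; have hθ := hn.t0; have hθ' := hn.t0.trans_le hn.tt
  have hGm := hn.Gm1
  have hthin := hn.thin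
  have c4 : θ' * (M * Y ^ 2 / (2 * (s2 * r * θ ^ 2))) ≤ M * Y ^ 2 := by
    have hcur := hn.cur
    rw [mul_div_assoc', div_le_iff₀ (by positivity)]
    have h1 : θ' * (M * Y ^ 2) ≤ (s2 * r * θ ^ 2) * (M * Y ^ 2) :=
      mul_le_mul_of_nonneg_right hcur (by positivity)
    have h0 : 0 ≤ (s2 * r * θ ^ 2) * (M * Y ^ 2) := by positivity
    linarith
  have h1 : θ' * I ≤ θ' * (4 * (A * s1 * r) + 2 * M * (s1 * r) * Y +
      M * Y ^ 2 / (2 * (s2 * r * θ ^ 2))) := mul_le_mul_of_nonneg_left h hθ'.le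
  have e1 : θ' * (4 * (A * s1 * r) + 2 * M * (s1 * r) * Y +
      M * Y ^ 2 / (2 * (s2 * r * θ ^ 2))) = 4 * A * (θ' * (s1 * r)) +
        2 * M * Y * (θ' * (s1 * r)) + θ' * (M * Y ^ 2 / (2 * (s2 * r * θ ^ 2))) := by ring
  have hYY : Y ≤ Y ^ 2 := by nlinarith
  have hY2 : 1 ≤ Y ^ 2 := by nlinarith
  have g1 : Gm ≤ Gm * Y ^ 2 := by nlinarith
  have g2 : Gm * Y ≤ Gm * Y ^ 2 := mul_le_mul_of_nonneg_left hYY (by linarith)
  have g3 : Y ^ 2 ≤ Gm * Y ^ 2 := by nlinarith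
  have g4 : 4 * A * (θ' * (s1 * r)) ≤ 4 * A * (Gm * Y ^ 2) :=
    mul_le_mul_of_nonneg_left (hthin.trans g1) (by linarith)
  have g5 : 2 * M * Y * (θ' * (s1 * r)) ≤ 2 * M * (Gm * Y ^ 2) := by
    have : Y * (θ' * (s1 * r)) ≤ Gm * Y ^ 2 := by
      refine le_trans (mul_le_mul_of_nonneg_left hthin (by linarith)) ?_
      rw [mul_comm]; exact g2
    calc 2 * M * Y * (θ' * (s1 * r)) = 2 * M * (Y * (θ' * (s1 * r))) := by ring
      _ ≤ _ := mul_le_mul_of_nonneg_left this (by linarith)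
  have g6 : M * Y ^ 2 ≤ M * (Gm * Y ^ 2) := mul_le_mul_of_nonneg_left g3 (by linarith)
  have e2 : (4 * A + 3 * M) * Gm * Y ^ 2 =
      4 * A * (Gm * Y ^ 2) + 2 * M * (Gm * Y ^ 2) + M * (Gm * Y ^ 2) := by ring
  rw [e1] at h1
  rw [e2]
  linarith

/-- **strip**: two active sources of the same cap, gradient form. -/
theorem strip_gr (hn : Num M A κ θ θ' δ s1 s2 r Gm Y) (hp : Plt M κ s1 s2 r f)
    (hs : Src A s1 r f C y) (hs0 : Src A s1 r f C y0) (ht : |t| ≤ r)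
    (h : ‖frc θ κ C (y - t • vel C - x)‖ ≤ Y) (h0 : ‖frc θ κ C (y0 - t • vel C - x)‖ ≤ Y) :
    θ' * |inner ℝ (f.gr C (lat x) t) (lat (y - y0))| ≤ (4 * A + 3 * M) * Gm * Y ^ 2 := by
  refine strip_num hn ?_
  have b4 := nrm_bd hn h
  have b5 := nrm_bd hn h0
  have b7 := lat_bd hn h
  have b8 := lat_bd hn h0
  have e1 := ev_step f C x (y - t • vel C - x) t
  have e2 := ev_step f C x (y0 - t • vel C - x) t
  rw [← split_u] at e1 e2
  have e3 : lat (y - y0) = lat (y - t • vel C - x) - lat (y0 - t • vel C - x) := by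
    rw [← lat_sub]; congr 1; abel
  have b1 := hs.ev_t ht
  have b2 := hs0.ev_t ht
  rw [e3, inner_sub_right]
  generalize f.ev (lat (y - t • vel C)) ((y - t • vel C) 2) t = E1 at *
  generalize f.ev (lat (y0 - t • vel C)) ((y0 - t • vel C) 2) t = E2 at *
  generalize f.ev (lat x) (x 2) t = E0 at *
  generalize hi1 : inner ℝ (f.gr C (lat x) t) (lat (y - t • vel C - x)) = i1 at *
  generalize hi2 : inner ℝ (f.gr C (lat x) t) (lat (y0 - t • vel C - x)) = i2 at *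
  generalize nrm C (y - t • vel C - x) 0 = n1 at *
  generalize nrm C (y0 - t • vel C - x) 0 = n2 at *
  have b3 := hp.ny2 t ht
  have b6 := hp.d1 hn.r0 hn.p2
  have hM := hn.M1; have hA := hn.A1; have hp1 := hn.p1; have hp2 := hn.p2; have hk := hn.k0
  have hY := hn.Y1; have hr := hn.r0; have hθ := hn.t0
  have e4 : i1 - i2 = (E1 - E2) - f.ny t * (n1 - n2) -
      f.d * (‖lat (y - t • vel C - x)‖ ^ 2 - ‖lat (y0 - t • vel C - x)‖ ^ 2) := by
    linarith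
  have c1 : |f.ny t * (n1 - n2)| ≤ 2 * M * (s1 * r) * Y := by
    rw [abs_mul]
    have h3 : |n1 - n2| ≤ Y / κ + Y / κ := (abs_sub _ _).trans (add_le_add b4 b5)
    calc |f.ny t| * |n1 - n2| ≤ M * (κ * s1 * r) * (Y / κ + Y / κ) :=
          mul_le_mul b3 h3 (abs_nonneg _) (by positivity)
      _ = _ := by field_simp; ring
  have c2 : |f.d * (‖lat (y - t • vel C - x)‖ ^ 2 - ‖lat (y0 - t • vel C - x)‖ ^ 2)| ≤
      M * Y ^ 2 / (2 * (s2 * r * θ ^ 2)) := by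
    rw [abs_mul]
    have q1 := pow_le_pow_left₀ (norm_nonneg _) b7 2
    have q2 := pow_le_pow_left₀ (norm_nonneg _) b8 2
    have q3 : |‖lat (y - t • vel C - x)‖ ^ 2 - ‖lat (y0 - t • vel C - x)‖ ^ 2| ≤
        (Y / θ) ^ 2 := by
      rw [abs_le]
      have z1 := sq_nonneg ‖lat (y - t • vel C - x)‖
      have z2 := sq_nonneg ‖lat (y0 - t • vel C - x)‖
      constructor <;> linarith
    calc |f.d| * |‖lat (y - t • vel C - x)‖ ^ 2 - ‖lat (y0 - t • vel C - x)‖ ^ 2|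
        ≤ M / (2 * s2 * r) * (Y / θ) ^ 2 :=
          mul_le_mul b6 q3 (abs_nonneg _) (by positivity)
      _ = _ := by field_simp
  rw [e4]
  refine (abs_sub _ _).trans (add_le_add ((abs_sub _ _).trans (add_le_add ?_ c1)) c2)
  exact (abs_sub _ _).trans (by linarith)

/-- **strip**, for a unit vector near the normal. -/
theorem strip_nu (hn : Num M A κ θ θ' δ s1 s2 r Gm Y) (hp : Plt M κ s1 s2 r f)
    (hs : Src A s1 r f C y) (hs0 : Src A s1 r f C y0) (ht : |t| ≤ r)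
    (h : ‖frc θ κ C (y - t • vel C - x)‖ ≤ Y) (h0 : ‖frc θ κ C (y0 - t • vel C - x)‖ ≤ Y)
    {ν : E2} (hν : ‖ν - un f C (lat x) t‖ ≤ δ / 4) :
    |θ' * inner ℝ ν (lat (y - y0))| ≤ (6 * A + 5 * M) * Gm * Y ^ 2 := by
  have h1 := strip_gr hn hp hs hs0 ht h h0
  obtain ⟨g1, g2⟩ := gr_size hn hp hs h
  have hM := hn.M1; have hA := hn.A1; have hY := hn.Y1; have hθ := hn.t0
  have hθ' := hn.t0.trans_le hn.tt; have hGm := hn.Gm1; have hδ := hn.d0
  have e : inner ℝ (un f C (lat x) t) (lat (y - y0)) =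
      ‖f.gr C (lat x) t‖⁻¹ * inner ℝ (f.gr C (lat x) t) (lat (y - y0)) := by
    unfold un; rw [real_inner_smul_left]
  have h2 : |θ' * inner ℝ (un f C (lat x) t) (lat (y - y0))| ≤
      4 / 3 * ((4 * A + 3 * M) * Gm * Y ^ 2) := by
    rw [abs_mul, abs_of_pos hθ', e, abs_mul, abs_of_pos (by positivity)]
    have h3 : ‖f.gr C (lat x) t‖⁻¹ ≤ 4 / 3 := by
      rw [inv_le_comm₀ (by linarith) (by norm_num)]
      linarith
    calc θ' * (‖f.gr C (lat x) t‖⁻¹ * |inner ℝ (f.gr C (lat x) t) (lat (y - y0))|)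
        = ‖f.gr C (lat x) t‖⁻¹ * (θ' * |inner ℝ (f.gr C (lat x) t) (lat (y - y0))|) := by ring
      _ ≤ _ := by gcongr
  have e2 : inner ℝ ν (lat (y - y0)) = inner ℝ (un f C (lat x) t) (lat (y - y0)) +
      inner ℝ (ν - un f C (lat x) t) (lat (y - y0)) := by
    rw [inner_sub_left]; ring
  have h4 : ‖lat (y - y0)‖ ≤ 2 * (Y / θ) := by
    have e3 : lat (y - y0) = lat (y - t • vel C - x) - lat (y0 - t • vel C - x) := by
      rw [← lat_sub]; congr 1; abel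
    rw [e3]
    refine (norm_sub_le _ _).trans ?_
    have := lat_bd hn h
    have := lat_bd hn h0
    linarith
  have h5 : |θ' * inner ℝ (ν - un f C (lat x) t) (lat (y - y0))| ≤ Y / 2 := by
    rw [abs_mul, abs_of_pos hθ']
    have h6 := (abs_real_inner_le_norm (ν - un f C (lat x) t) (lat (y - y0))).trans
      (mul_le_mul hν h4 (norm_nonneg _) (by positivity))
    have hal := hn.al
    calc θ' * |inner ℝ (ν - un f C (lat x) t) (lat (y - y0))|
        ≤ θ' * (δ / 4 * (2 * (Y / θ))) := by gcongr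
      _ = (δ * θ') * Y / (2 * θ) := by field_simp; ring
      _ ≤ θ * Y / (2 * θ) := by gcongr
      _ = Y / 2 := by field_simp
  rw [e2, mul_add]
  refine (abs_add_le _ _).trans ((add_le_add h2 h5).trans ?_)
  have hYG : Y ≤ Gm * Y ^ 2 := by nlinarith
  have : 0 ≤ Gm * Y ^ 2 := by positivity
  nlinarith

end Crest.Agent.R116.AlC339
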