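import Crest.Agent.R116.AlG2_339
import Crest.Agent.R116.WDefC_188

/-!
# R116 (S0155), wave side, AL-CONE (helper339): the region of one plate

`rgn` = region at time `t` which contains the cells of all phase points of the plate; membership,
volume, size.
-/

set_option autoImplicit false

open MeasureTheory
open scoped ENNReal

namespace Crest.Agent.R116.AlC339

open Crest.Agent.R138.Defs (E2)
open Crest.Agent.R116.CDef480 Crest.Agent.R116.Ckm538 Crest.Agent.R116.Cad538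
open Crest.Agent.R116.LZg725 (Cf)
open Crest.Agent.R116.Gc192 (un norm_un un_sub)
open Crest.Agent.R116.WC188 (TT Adm mset scost)
open Crest.Agent.R116.AlV339

variable {M A κ θ θ' δ s1 s2 r Gm Y T : ℝ} {f : Cf E2} {C c : E2} {x y y0 X0 : E3} {t : ℝ}

/-- from the class to `Plt`. -/
theorem plt_of_adm (hM : 0 ≤ M) (hs2 : 0 < s2)
    (h : Adm M κ s1 s2 (TT κ s2 r) r c X0 f) : Plt M κ s1 s2 r f := by
  refine ⟨h.disc, fun s hs => (h.ny s hs).trans ?_, h.cmp⟩
  have h1 : s2 ^ 2 ≤ TT κ s2 r := le_max_left _ _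
  have h2 : 0 < s2 ^ 2 := by positivity
  rw [div_le_div_iff₀ (h2.trans_le h1) hs2]
  calc M * s2 * s2 = M * s2 ^ 2 := by ring
    _ ≤ _ := mul_le_mul_of_nonneg_left h1 hM

/-- from the class to `Src`. -/
theorem src_of_mset {sg T : ℝ} (h : y ∈ mset (A * sg) T r (A * s1) c X0 f C) :
    Src A s1 r f C y := ⟨h.2.2.2.1, h.2.2.2.2⟩

/-- the region of the plate. -/
def rgn (M A θ s2 T r : ℝ) (c : E2) (X0 : E3) (f : Cf E2) (t : ℝ) : Set E3 :=
  regC (3 * A * (s2 * r)) (4 * A ^ 2 * (T * r)) ((4 * A + 2 * M) / θ) (A * s2) c (lat X0 - t • c)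
    (nrm c X0 0) f t

theorem nrm_ray2 (c C : E2) (y : E3) (t : ℝ) :
    nrm c (y - t • vel C) t = nrm c y 0 + t * (‖C - c‖ ^ 2 / 2) := by
  unfold nrm
  rw [lat_ray, two_ray, inner_sub_right, real_inner_smul_right, norm_sub_sq_real,
    real_inner_comm c C]
  ring

theorem nrm_sub2 (c : E2) (x u : E3) (t : ℝ) : nrm c (x - u) t = nrm c x t - nrm c u 0 := by
  unfold nrm
  rw [lat_sub, inner_sub_right, PiLp.sub_apply]
  ring

theorem nrm_dir2 (c C : E2) (u : E3) : nrm c u 0 = nrm C u 0 + inner ℝ (c - C) (lat u) := by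
  unfold nrm
  rw [inner_sub_left]
  ring

/-- **membership.** -/
theorem mem_rgn (hn : Num M A κ θ θ' δ s1 s2 r Gm 1) (hG : Gm * θ ≤ θ')
    (hp : Plt M κ s1 s2 r f) (hT1 : s2 ^ 2 ≤ T) (hT2 : (κ * r)⁻¹ ≤ T) (ht : |t| ≤ r)
    (hy : y ∈ mset (A * s2) (A * T) r (A * s1) c X0 f C) {u : E3}
    (hu : ‖frc θ κ C u‖ ≤ 1) : y - t • vel C - u ∈ rgn M A θ s2 T r c X0 f t := by
  have hs : Src A s1 r f C y := ⟨hy.2.2.2.1, hy.2.2.2.2⟩
  have hM := hn.M1; have hA := hn.A1; have hp1 := hn.p1; have hp2 := hn.p2; have hk := hn.k0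
  have hr := hn.r0; have hθ := hn.t0; have hθ' := hn.t0.trans_le hn.tt
  have hGm := hn.Gm1
  have l1 : ‖lat u‖ ≤ 1 / θ := lat_bd hn hu
  have l2 : |nrm C u 0| ≤ 1 / κ := nrm_bd hn hu
  have hθr : 1 ≤ θ * (s2 * r) := by
    have h1 := hn.var
    have h2 : δ * (θ * (s2 * r)) ≤ 1 * (θ * (s2 * r)) :=
      mul_le_mul_of_nonneg_right hn.d1 (by positivity)
    linarith
  have i1 : 1 / θ ≤ s2 * r := by rw [div_le_iff₀ hθ]; linarith
  have hTr : 1 / κ ≤ T * r := by
    have h1 : (κ * r)⁻¹ * r ≤ T * r := mul_le_mul_of_nonneg_right hT2 hr.le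
    have h2 : (κ * r)⁻¹ * r = 1 / κ := by field_simp
    linarith
  have hs2T : s2 ^ 2 * r ≤ T * r := mul_le_mul_of_nonneg_right hT1 hr.le
  have hcell : ‖frc θ κ C (y - t • vel C - (y - t • vel C - u))‖ ≤ 1 := by
    rw [sub_sub_cancel]; exact hu
  refine ⟨?_, ?_, ?_, ?_⟩
  · -- lateral
    have e : lat (y - t • vel C - u) - (lat X0 - t • c) =
        (lat y - lat X0) - t • (C - c) - lat u := by
      rw [lat_sub, lat_ray, smul_sub]; abel
    rw [e]
    have h1 : ‖t • (C - c)‖ ≤ r * (A * s2) := by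
      rw [norm_smul, Real.norm_eq_abs]
      exact mul_le_mul ht hy.1 (norm_nonneg _) hr.le
    have h2 := norm_sub_le ((lat y - lat X0) - t • (C - c)) (lat u)
    have h3 := norm_sub_le (lat y - lat X0) (t • (C - c))
    have h4 := hy.2.1
    have h5 : s2 * r ≤ A * (s2 * r) := le_mul_of_one_le_left (by positivity) hA
    linarith
  · -- normal
    rw [nrm_sub2, nrm_ray2, nrm_dir2 c C u]
    have e : nrm c y 0 + t * (‖C - c‖ ^ 2 / 2) - (nrm C u 0 + inner ℝ (c - C) (lat u)) -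
        nrm c X0 0 = (nrm c y 0 - nrm c X0 0) + t * (‖C - c‖ ^ 2 / 2) - nrm C u 0 -
          inner ℝ (c - C) (lat u) := by ring
    rw [e]
    have h1 := hy.2.2.1
    have h2 : |t * (‖C - c‖ ^ 2 / 2)| ≤ r * ((A * s2) ^ 2 / 2) := by
      rw [abs_mul, abs_of_nonneg (a := ‖C - c‖ ^ 2 / 2) (by positivity)]
      have := pow_le_pow_left₀ (norm_nonneg _) hy.1 2
      exact mul_le_mul ht (by linarith) (by positivity) hr.le
    have h3 : |inner ℝ (c - C) (lat u)| ≤ A * s2 * (1 / θ) := by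
      refine (abs_real_inner_le_norm _ _).trans ?_
      rw [norm_sub_rev]
      exact mul_le_mul hy.1 l1 (norm_nonneg _) (by positivity)
    have h4 : A * s2 * (1 / θ) ≤ A * (s2 ^ 2 * r) := by
      calc A * s2 * (1 / θ) ≤ A * s2 * (s2 * r) := mul_le_mul_of_nonneg_left i1 (by positivity)
        _ = _ := by ring
    have h5 : r * ((A * s2) ^ 2 / 2) = A ^ 2 / 2 * (s2 ^ 2 * r) := by ring
    have h6 : A * (s2 ^ 2 * r) ≤ A * (T * r) := mul_le_mul_of_nonneg_left hs2T (by linarith)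
    have h7 : A ^ 2 / 2 * (s2 ^ 2 * r) ≤ A ^ 2 / 2 * (T * r) :=
      mul_le_mul_of_nonneg_left hs2T (by positivity)
    have hTr0 : 0 < T * r := lt_of_lt_of_le (by positivity) hTr
    have h8 : A * (T * r) ≤ A ^ 2 * (T * r) := by
      have : A ≤ A ^ 2 := by nlinarith
      exact mul_le_mul_of_nonneg_right this hTr0.le
    have h9 : T * r ≤ A ^ 2 * (T * r) := by
      have : 1 ≤ A ^ 2 := by nlinarith
      exact le_mul_of_one_le_left hTr0.le this
    have g1 := abs_sub ((nrm c y 0 - nrm c X0 0) + t * (‖C - c‖ ^ 2 / 2) - nrm C u 0)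
      (inner ℝ (c - C) (lat u))
    have g2 := abs_sub ((nrm c y 0 - nrm c X0 0) + t * (‖C - c‖ ^ 2 / 2)) (nrm C u 0)
    have g3 := abs_add_le (nrm c y 0 - nrm c X0 0) (t * (‖C - c‖ ^ 2 / 2))
    have h10 : A * T * r = A * (T * r) := by ring
    linarith
  · -- value
    have e1 := ev_step f C (y - t • vel C - u) u t
    rw [sub_add_cancel] at e1
    have h1 := hs.ev_t ht
    have h2 := (gr_size hn hp hs hcell).2
    have h3 : |inner ℝ (f.gr C (lat (y - t • vel C - u)) t) (lat u)| ≤ 5 / 4 * (1 / θ) :=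
      (abs_real_inner_le_norm _ _).trans (mul_le_mul h2 l1 (norm_nonneg _) (by norm_num))
    have h4 : |f.ny t * nrm C u 0| ≤ M * (s1 * r) := by
      rw [abs_mul]
      calc |f.ny t| * |nrm C u 0| ≤ M * (κ * s1 * r) * (1 / κ) :=
            mul_le_mul (hp.ny2 t ht) l2 (abs_nonneg _) (by positivity)
        _ = _ := by field_simp
    have h5 : |f.d * ‖lat u‖ ^ 2| ≤ M / 2 * (1 / θ) := by
      rw [abs_mul, abs_of_nonneg (a := ‖lat u‖ ^ 2) (by positivity)]
      have q1 := pow_le_pow_left₀ (norm_nonneg _) l1 2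
      calc |f.d| * ‖lat u‖ ^ 2 ≤ M / (2 * s2 * r) * (1 / θ) ^ 2 :=
            mul_le_mul (hp.d1 hr hp2) q1 (by positivity) (by positivity)
        _ = M / 2 * (1 / θ) * ((1 / θ) / (s2 * r)) := by field_simp
        _ ≤ M / 2 * (1 / θ) * 1 := by
            refine mul_le_mul_of_nonneg_left ?_ (by positivity)
            rw [div_le_one (by positivity)]; exact i1
        _ = _ := by ring
    have h6 : s1 * r ≤ 1 / θ := by
      have a1 := hn.thin
      rw [le_div_iff₀ hθ]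
      have a2 : (s1 * r * θ) * θ' ≤ 1 * θ' := by
        calc (s1 * r * θ) * θ' = (θ' * (s1 * r)) * θ := by ring
          _ ≤ Gm * θ := mul_le_mul_of_nonneg_right a1 hθ.le
          _ ≤ θ' := hG
          _ = 1 * θ' := (one_mul _).symm
      exact le_of_mul_le_mul_right a2 hθ'
    have e2 : f.ev (lat (y - t • vel C - u)) ((y - t • vel C - u) 2) t =
        f.ev (lat (y - t • vel C)) ((y - t • vel C) 2) t -
          inner ℝ (f.gr C (lat (y - t • vel C - u)) t) (lat u) - f.ny t * nrm C u 0 -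
          f.d * ‖lat u‖ ^ 2 := by linarith
    rw [e2]
    have g1 := abs_sub (f.ev (lat (y - t • vel C)) ((y - t • vel C) 2) t -
          inner ℝ (f.gr C (lat (y - t • vel C - u)) t) (lat u) - f.ny t * nrm C u 0)
          (f.d * ‖lat u‖ ^ 2)
    have g2 := abs_sub (f.ev (lat (y - t • vel C)) ((y - t • vel C) 2) t -
          inner ℝ (f.gr C (lat (y - t • vel C - u)) t) (lat u)) (f.ny t * nrm C u 0)
    have g3 := abs_sub (f.ev (lat (y - t • vel C)) ((y - t • vel C) 2) t)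
          (inner ℝ (f.gr C (lat (y - t • vel C - u)) t) (lat u))
    have h7 : 2 * (A * s1 * r) ≤ 2 * A * (1 / θ) := by
      calc 2 * (A * s1 * r) = 2 * A * (s1 * r) := by ring
        _ ≤ _ := mul_le_mul_of_nonneg_left h6 (by positivity)
    have h8 : M * (s1 * r) ≤ M * (1 / θ) := mul_le_mul_of_nonneg_left h6 (by positivity)
    have e3 : (4 * A + 2 * M) / θ = (4 * A + 2 * M) * (1 / θ) := by ring
    rw [e3]
    have hθ1 : 0 < 1 / θ := by positivity
    have h9 : 2 * A * (1 / θ) + 5 / 4 * (1 / θ) + M * (1 / θ) + M / 2 * (1 / θ) ≤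
        (4 * A + 2 * M) * (1 / θ) := by
      rw [← add_mul, ← add_mul, ← add_mul]
      refine mul_le_mul_of_nonneg_right ?_ hθ1.le
      linarith
    linarith
  · -- gradient
    have h1 := (gr_size hn hp hs hcell).1
    have e := f.gr_dir c C (lat (y - t • vel C - u)) t
    rw [e] at h1
    have h2 : ‖f.gr c (lat (y - t • vel C - u)) t - f.ny t • (C - c)‖ ≤
        ‖f.gr c (lat (y - t • vel C - u)) t‖ + |f.ny t| * (A * s2) := by
      refine (norm_sub_le _ _).trans (add_le_add le_rfl ?_)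
      rw [norm_smul, Real.norm_eq_abs]
      exact mul_le_mul_of_nonneg_left hy.1 (abs_nonneg _)
    by_cases h3 : 1/4 ≤ A * s2 * |f.ny t|
    · right; exact h3
    · left; push Not at h3; linarith

/-- **volume.** -/
theorem rgn_vol (hA : 1 ≤ A) (hM : 1 ≤ M) (hθ : 0 < θ) (hs2 : 0 < s2) (hr : 0 < r)
    (hT1 : s2 ^ 2 ≤ T) (hs1 : θ' ≤ s1) (hθ' : 0 < θ') (hθr : 1 ≤ θ' ^ 2 * r) (c : E2) (X0 : E3)
    (f : Cf E2) (t : ℝ) :
    volume (rgn M A θ s2 T r c X0 f t) ≤
      ENNReal.ofReal ((5376 * (4 * A + 2 * M) * A ^ 3 * (θ' / θ)) * (s1 * s2 * T * r ^ 3)) := by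
  have hT0 : 0 < T := lt_of_lt_of_le (by positivity) hT1
  refine (regC_vol (by positivity) (by positivity) (by positivity) (by positivity) _ _ _ _ _).trans
    (ENNReal.ofReal_le_ofReal ?_)
  have h1 : A * s2 * (3 * A * (s2 * r)) ≤ 3 * A ^ 2 * (T * r) := by
    calc A * s2 * (3 * A * (s2 * r)) = 3 * A ^ 2 * r * s2 ^ 2 := by ring
      _ ≤ 3 * A ^ 2 * r * T := mul_le_mul_of_nonneg_left hT1 (by positivity)
      _ = _ := by ring
  have h2 : 1 / θ ≤ (θ' / θ) * (s1 * r) := by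
    rw [div_mul_eq_mul_div, div_le_div_iff_of_pos_right hθ]
    calc (1:ℝ) ≤ θ' ^ 2 * r := hθr
      _ = θ' * (θ' * r) := by ring
      _ ≤ θ' * (s1 * r) := by gcongr
  calc 256 * ((4 * A + 2 * M) / θ) * (3 * A * (s2 * r)) *
        (4 * A ^ 2 * (T * r) + A * s2 * (3 * A * (s2 * r)))
      ≤ 256 * ((4 * A + 2 * M) / θ) * (3 * A * (s2 * r)) *
        (4 * A ^ 2 * (T * r) + 3 * A ^ 2 * (T * r)) := by
        refine mul_le_mul_of_nonneg_left ?_ (by positivity)
        linarith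
    _ = 5376 * (4 * A + 2 * M) * A ^ 3 * (1 / θ) * ((s2 * r) * (T * r)) := by ring
    _ ≤ 5376 * (4 * A + 2 * M) * A ^ 3 * ((θ' / θ) * (s1 * r)) * ((s2 * r) * (T * r)) := by
        refine mul_le_mul_of_nonneg_right ?_ (by positivity)
        exact mul_le_mul_of_nonneg_left h2 (by positivity)
    _ = _ := by ring

/-- **size.** -/
theorem rgn_norm (hA : 1 ≤ A) (hr : 0 < r) (hs21 : s2 ≤ 1) (hT1 : T ≤ 1) (hX : ‖X0‖ ≤ A * r) (hc : ‖c‖ ≤ A) (ht : |t| ≤ r)
    (hx : x ∈ rgn M A θ s2 T r c X0 f t) : ‖x‖ ≤ 17 * A ^ 2 * r := by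
  have h1 := hx.1
  have h2 := hx.2.1
  have hlatX : ‖lat X0‖ ≤ A * r := (lat_norm_le X0).trans hX
  have htc : ‖t • c‖ ≤ r * A := by
    rw [norm_smul, Real.norm_eq_abs]
    exact mul_le_mul ht hc (norm_nonneg _) hr.le
  have h3 : ‖lat x‖ ≤ 5 * A * r := by
    have e : lat x = (lat x - (lat X0 - t • c)) + (lat X0 - t • c) := by abel
    rw [e]
    refine (norm_add_le _ _).trans ?_
    have := norm_sub_le (lat X0) (t • c)
    have h4 : 3 * A * (s2 * r) ≤ 3 * A * r := by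
      refine mul_le_mul_of_nonneg_left ?_ (by positivity)
      exact mul_le_of_le_one_left hr.le hs21
    linarith
  have h4 : |nrm c X0 0| ≤ A * r + A * (A * r) := by
    unfold nrm
    have h5 : |X0 2| ≤ A * r := (two_norm_le X0).trans hX
    have h6 : |inner ℝ c (lat X0)| ≤ A * (A * r) :=
      (abs_real_inner_le_norm _ _).trans (mul_le_mul hc hlatX (norm_nonneg _) (by positivity))
    have e : X0 2 + inner ℝ c (lat X0) + 0 * ‖c‖ ^ 2 / 2 = X0 2 + inner ℝ c (lat X0) := by ring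
    rw [e]
    exact (abs_add_le _ _).trans (add_le_add h5 h6)
  have h5 : |nrm c x t| ≤ A * r + A * (A * r) + 4 * A ^ 2 * r := by
    have e : nrm c x t = (nrm c x t - nrm c X0 0) + nrm c X0 0 := by ring
    rw [e]
    refine (abs_add_le _ _).trans ?_
    have h6 : 4 * A ^ 2 * (T * r) ≤ 4 * A ^ 2 * r := by
      refine mul_le_mul_of_nonneg_left ?_ (by positivity)
      exact mul_le_of_le_one_left hr.le hT1
    linarith
  have h6 : |x 2| ≤ 12 * A ^ 2 * r := by
    have e : x 2 = nrm c x t - inner ℝ c (lat x) - t * (‖c‖ ^ 2 / 2) := by unfold nrm; ring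
    rw [e]
    have h7 : |inner ℝ c (lat x)| ≤ A * (5 * A * r) :=
      (abs_real_inner_le_norm _ _).trans (mul_le_mul hc h3 (norm_nonneg _) (by positivity))
    have h8 : |t * (‖c‖ ^ 2 / 2)| ≤ r * (A ^ 2 / 2) := by
      rw [abs_mul, abs_of_nonneg (a := ‖c‖ ^ 2 / 2) (by positivity)]
      have := pow_le_pow_left₀ (norm_nonneg _) hc 2
      exact mul_le_mul ht (by linarith) (by positivity) hr.le
    have g1 := abs_sub (nrm c x t - inner ℝ c (lat x)) (t * (‖c‖ ^ 2 / 2))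
    have g2 := abs_sub (nrm c x t) (inner ℝ c (lat x))
    have hAr : A * r ≤ A ^ 2 * r := by nlinarith [mul_pos (by linarith : (0:ℝ) < A) hr]
    have hA2 : 0 ≤ A ^ 2 * r := by positivity
    nlinarith
  refine (norm3_le x).trans ?_
  have hAr : A * r ≤ A ^ 2 * r := by nlinarith [mul_pos (by linarith : (0:ℝ) < A) hr]
  nlinarith

end Crest.Agent.R116.AlC339
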