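import Crest.Agent.R116.AlG3_339

/-!
# R116 (S0155), wave side, AL-CONE (helper339): covering of a strip by cells

Cells `1/θ' (N) × 1/θ (u) × 1/κ` with centres on the line through the source in direction `N`.
-/

set_option autoImplicit false

open MeasureTheory
open scoped ENNReal

namespace Crest.Agent.R116.AlC339

open Crest.Agent.R138.Defs (E2)
open Crest.Agent.R116.CDef480 Crest.Agent.R116.Ckm538 Crest.Agent.R116.Cad538

/-- weight of the cell `1/θ' (N) × 1/θ (u) × 1/κ`. -/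
noncomputable def wcell (θ θ' κ : ℝ) (N u C : E2) (n : ℕ) (x : E3) : ℝ :=
  ((1 + (θ' * inner ℝ N (lat x)) ^ 2 + (θ * inner ℝ u (lat x)) ^ 2 + (κ * nrm C x 0) ^ 2) ^ n)⁻¹

/-- the orthogonal direction. -/
noncomputable def perp (N : E2) : E2 := !₂[-(N 1), N 0]

theorem perp_norm (N : E2) : ‖perp N‖ = ‖N‖ := by
  have h : ‖perp N‖ ^ 2 = ‖N‖ ^ 2 := by
    rw [normsq2, normsq2]
    show (-(N 1)) ^ 2 + (N 0) ^ 2 = _
    ring
  exact (pow_left_inj₀ (norm_nonneg _) (norm_nonneg _) (by norm_num)).1 h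

theorem inner_perp (N : E2) : inner ℝ N (perp N) = 0 := by
  rw [CDef480.inner2]
  show N 0 * (-(N 1)) + N 1 * N 0 = 0
  ring

theorem inner_perp_sq {N : E2} (hN : ‖N‖ = 1) (w : E2) :
    (inner ℝ N w) ^ 2 + (inner ℝ (perp N) w) ^ 2 = ‖w‖ ^ 2 := by
  have h : N 0 ^ 2 + N 1 ^ 2 = 1 := by rw [← normsq2, hN]; norm_num
  rw [CDef480.inner2, CDef480.inner2, normsq2]
  show (N 0 * w 0 + N 1 * w 1) ^ 2 + (-(N 1) * w 0 + N 0 * w 1) ^ 2 = _
  have : (N 0 * w 0 + N 1 * w 1) ^ 2 + (-(N 1) * w 0 + N 0 * w 1) ^ 2 =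
      (N 0 ^ 2 + N 1 ^ 2) * (w 0 ^ 2 + w 1 ^ 2) := by ring
  rw [this, h, one_mul]

/-- the direction `N` inside the plates of slope `C`. -/
noncomputable def tl (C N : E2) : E3 := pt N (-(inner ℝ C N))

theorem lat_tl (C N : E2) : lat (tl C N) = N := by unfold tl; rw [lat_pt]

theorem nrm_tl (C N : E2) : nrm C (tl C N) 0 = 0 := by
  unfold nrm tl
  rw [lat_pt, pt_two]
  ring

/-- centre of the cell number `l`. -/
noncomputable def ctr (θ' : ℝ) (C N : E2) (c y0 : E3) (l : ℤ) : E3 :=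
  c + (inner ℝ N (lat (y0 - c)) + l / θ') • tl C N

theorem wcell_pos (θ θ' κ : ℝ) (N u C : E2) (n : ℕ) (x : E3) : 0 < wcell θ θ' κ N u C n x := by
  unfold wcell; positivity

theorem wcell_cont (θ θ' κ : ℝ) (N u C : E2) (n : ℕ) : Continuous (wcell θ θ' κ N u C n) := by
  have h1 : Continuous lat := latL.continuous
  have h2 := AlV339.nrm_cont C 0
  unfold wcell
  refine Continuous.inv₀ (by fun_prop) fun x => ?_
  positivity

theorem wcell_meas (θ θ' κ : ℝ) (N u C : E2) (n : ℕ) (c : E3) :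
    Measurable fun y => ENNReal.ofReal (wcell θ θ' κ N u C n (y - c)) :=
  ENNReal.measurable_ofReal.comp
    ((wcell_cont θ θ' κ N u C n).measurable.comp (measurable_id.sub_const c))

/-- **one cell** carries the isotropic weight. -/
theorem wt_le_cell {θ θ' κ : ℝ} (hθ' : 0 < θ') {C N : E2} (hN : ‖N‖ = 1)
    (n : ℕ) {c y0 y : E3} {L0 : ℝ} (h : |θ' * inner ℝ N (lat (y - y0))| ≤ L0) :
    wt (frc θ κ C) (2 * n) (y - c) ≤ 2 ^ n *
      ∑ l ∈ Finset.Icc (-⌈L0⌉ - 1) (⌈L0⌉ + 1),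
        wcell θ θ' κ N (perp N) C n (y - ctr θ' C N c y0 l) := by
  set s : ℝ := θ' * inner ℝ N (lat (y - y0)) with hs
  set l : ℤ := round s with hl
  have hls : |s - l| ≤ 1 / 2 := abs_sub_round s
  have hmem : l ∈ Finset.Icc (-⌈L0⌉ - 1) (⌈L0⌉ + 1) := by
    have h1 := abs_le.1 h
    have h2 := abs_le.1 hls
    have h3 := Int.le_ceil L0
    rw [Finset.mem_Icc]
    constructor
    · have : ((-⌈L0⌉ - 1 : ℤ) : ℝ) ≤ l := by push_cast; linarith
      exact_mod_cast this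
    · have : (l : ℝ) ≤ ((⌈L0⌉ + 1 : ℤ) : ℝ) := by push_cast; linarith
      exact_mod_cast this
  have hone : wt (frc θ κ C) (2 * n) (y - c) ≤ 2 ^ n *
      wcell θ θ' κ N (perp N) C n (y - ctr θ' C N c y0 l) := by
    have e0 : y - ctr θ' C N c y0 l = (y - c) - (inner ℝ N (lat (y0 - c)) + l / θ') • tl C N := by
      unfold ctr; abel
    have e1 : inner ℝ N (lat (y - ctr θ' C N c y0 l)) = inner ℝ N (lat (y - y0)) - l / θ' := by
      rw [e0, lat_sub, lat_smul, lat_tl, inner_sub_right, real_inner_smul_right,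
        real_inner_self_eq_norm_sq, hN]
      have : lat (y - c) = lat (y - y0) + lat (y0 - c) := by
        rw [← lat_add]; congr 1; abel
      rw [this, inner_add_right]
      ring
    have e2 : inner ℝ (perp N) (lat (y - ctr θ' C N c y0 l)) = inner ℝ (perp N) (lat (y - c)) := by
      have h0 : inner ℝ (perp N) N = 0 := by rw [real_inner_comm]; exact inner_perp N
      rw [e0, lat_sub, lat_smul, lat_tl, inner_sub_right, real_inner_smul_right, h0, mul_zero,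
        sub_zero]
    have e3 : nrm C (y - ctr θ' C N c y0 l) 0 = nrm C (y - c) 0 := by
      rw [e0, nrm_sub2, nrm_smul0, nrm_tl, mul_zero, sub_zero]
    unfold wt wcell
    rw [e1, e2, e3, ← div_eq_mul_inv, inv_eq_one_div, div_le_div_iff₀ (by positivity)
      (by positivity), one_mul, pow_mul, ← mul_pow]
    refine pow_le_pow_left₀ (by positivity) ?_ n
    have h5 : θ' * (inner ℝ N (lat (y - y0)) - l / θ') = s - l := by
      rw [hs]; field_simp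
    rw [h5]
    have h6 : (s - l) ^ 2 ≤ 1 := by
      rw [← sq_abs]
      nlinarith [abs_nonneg (s - l)]
    have h7 := norm_frc_sq θ κ C (y - c)
    have h8 : (θ * inner ℝ (perp N) (lat (y - c))) ^ 2 ≤ (θ * ‖lat (y - c)‖) ^ 2 := by
      rw [mul_pow, mul_pow]
      have := inner_perp_sq hN (lat (y - c))
      have h9 := sq_nonneg (inner ℝ N (lat (y - c)))
      refine mul_le_mul_of_nonneg_left ?_ (sq_nonneg _)
      linarith
    have h10 := norm_nonneg (frc θ κ C (y - c))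
    nlinarith
  refine hone.trans (mul_le_mul_of_nonneg_left ?_ (by positivity))
  exact Finset.single_le_sum (f := fun l => wcell θ θ' κ N (perp N) C n (y - ctr θ' C N c y0 l))
    (fun l _ => (wcell_pos _ _ _ _ _ _ _ _).le) hmem

/-- number of cells. -/
theorem card_cells {L0 : ℝ} (hL : 1 ≤ L0) :
    ((Finset.Icc (-⌈L0⌉ - 1) (⌈L0⌉ + 1)).card : ℝ) ≤ 7 * L0 := by
  rw [Int.card_Icc]
  have h1 := (Int.ceil_lt_add_one L0).le
  have h2 : 0 ≤ ⌈L0⌉ := Int.ceil_nonneg (by linarith)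
  have e : ((⌈L0⌉ + 1 + 1 - (-⌈L0⌉ - 1)).toNat : ℝ) = 2 * ⌈L0⌉ + 3 := by
    have : ((⌈L0⌉ + 1 + 1 - (-⌈L0⌉ - 1)).toNat : ℤ) = 2 * ⌈L0⌉ + 3 := by
      rw [Int.toNat_of_nonneg (by omega)]; ring
    exact_mod_cast this
  rw [e]
  linarith

/-- **covering.** `U` = the wave, `V ν` = the aligned waves. -/
theorem cell_sum {θ θ' κ : ℝ} (hθ' : 0 < θ') {C : E2} (n : ℕ) {c y0 : E3} {L0 Y : ℝ}
    {W : Finset E2} (hW : ∀ ν ∈ W, ‖ν‖ = 1) {S' : Set E3} (hS' : MeasurableSet S')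
    {U : E3 → ℝ≥0∞} {V : E2 → E3 → ℝ≥0∞} (hV : ∀ ν ∈ W, Measurable (V ν))
    (hUV : ∀ y ∈ S', ‖frc θ κ C (y - c)‖ ≤ Y → ∃ ν ∈ W,
      |θ' * inner ℝ ν (lat (y - y0))| ≤ L0 ∧ U y ≤ 4 * V ν y) {Bd : ℝ≥0∞}
    (hBd : ∀ ν ∈ W, ∀ l ∈ Finset.Icc (-⌈L0⌉ - 1) (⌈L0⌉ + 1),
      ∫⁻ y, ENNReal.ofReal (wcell θ θ' κ ν (perp ν) C n (y - ctr θ' C ν c y0 l)) * V ν y ≤ Bd) :
    ∫⁻ y in S' ∩ {y | ‖frc θ κ C (y - c)‖ ≤ Y},
        ENNReal.ofReal (wt (frc θ κ C) (2 * n) (y - c)) * U y ≤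
      ENNReal.ofReal (4 * 2 ^ n) * (W.card * ((Finset.Icc (-⌈L0⌉ - 1) (⌈L0⌉ + 1)).card * Bd)) := by
  have hm : MeasurableSet {y : E3 | ‖frc θ κ C (y - c)‖ ≤ Y} := by
    refine (isClosed_le (f := fun y : E3 => ‖frc θ κ C (y - c)‖) ?_ continuous_const).measurableSet
    fun_prop
  have hpt : ∀ y ∈ S' ∩ {y | ‖frc θ κ C (y - c)‖ ≤ Y},
      ENNReal.ofReal (wt (frc θ κ C) (2 * n) (y - c)) * U y ≤ ENNReal.ofReal (4 * 2 ^ n) *
        ∑ ν ∈ W, ∑ l ∈ Finset.Icc (-⌈L0⌉ - 1) (⌈L0⌉ + 1),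
          ENNReal.ofReal (wcell θ θ' κ ν (perp ν) C n (y - ctr θ' C ν c y0 l)) * V ν y := by
    rintro y ⟨h1, h2⟩
    obtain ⟨ν, hν, h3, h4⟩ := hUV y h1 h2
    have h5 := wt_le_cell (θ := θ) (κ := κ) (C := C) hθ' (hW ν hν) n (c := c) h3
    have h6 : ENNReal.ofReal (wt (frc θ κ C) (2 * n) (y - c)) ≤ ENNReal.ofReal (2 ^ n) *
        ∑ l ∈ Finset.Icc (-⌈L0⌉ - 1) (⌈L0⌉ + 1),
          ENNReal.ofReal (wcell θ θ' κ ν (perp ν) C n (y - ctr θ' C ν c y0 l)) := by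
      rw [← ENNReal.ofReal_sum_of_nonneg fun l _ => (wcell_pos _ _ _ _ _ _ _ _).le,
        ← ENNReal.ofReal_mul (by positivity)]
      exact ENNReal.ofReal_le_ofReal h5
    calc ENNReal.ofReal (wt (frc θ κ C) (2 * n) (y - c)) * U y
        ≤ (ENNReal.ofReal (2 ^ n) * ∑ l ∈ Finset.Icc (-⌈L0⌉ - 1) (⌈L0⌉ + 1),
          ENNReal.ofReal (wcell θ θ' κ ν (perp ν) C n (y - ctr θ' C ν c y0 l))) *
            (4 * V ν y) := mul_le_mul' h6 h4
      _ = ENNReal.ofReal (4 * 2 ^ n) * ∑ l ∈ Finset.Icc (-⌈L0⌉ - 1) (⌈L0⌉ + 1),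
          ENNReal.ofReal (wcell θ θ' κ ν (perp ν) C n (y - ctr θ' C ν c y0 l)) * V ν y := by
          rw [← Finset.sum_mul, ENNReal.ofReal_mul (by norm_num : (0:ℝ) ≤ 4),
            show ENNReal.ofReal 4 = 4 by norm_num]
          ring
      _ ≤ _ := by
          refine mul_le_mul' le_rfl ?_
          exact Finset.single_le_sum (f := fun ν => ∑ l ∈ Finset.Icc (-⌈L0⌉ - 1) (⌈L0⌉ + 1),
            ENNReal.ofReal (wcell θ θ' κ ν (perp ν) C n (y - ctr θ' C ν c y0 l)) * V ν y)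
            (fun _ _ => zero_le) hν
  refine (setLIntegral_mono' (hS'.inter hm) hpt).trans ?_
  refine (setLIntegral_le_lintegral _ _).trans ?_
  rw [lintegral_const_mul' _ _ ENNReal.ofReal_ne_top]
  refine mul_le_mul' le_rfl ?_
  rw [lintegral_finsetSum']
  · calc ∑ ν ∈ W, ∫⁻ y, ∑ l ∈ Finset.Icc (-⌈L0⌉ - 1) (⌈L0⌉ + 1),
          ENNReal.ofReal (wcell θ θ' κ ν (perp ν) C n (y - ctr θ' C ν c y0 l)) * V ν y
        ≤ ∑ ν ∈ W, ((Finset.Icc (-⌈L0⌉ - 1) (⌈L0⌉ + 1)).card * Bd : ℝ≥0∞) := by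
          refine Finset.sum_le_sum fun ν hν => ?_
          rw [lintegral_finsetSum']
          · rw [← nsmul_eq_mul]
            exact Finset.sum_le_card_nsmul _ _ _ fun l hl => hBd ν hν l hl
          · intro l _
            exact ((wcell_meas _ _ _ _ _ _ _ _).mul (hV ν hν)).aemeasurable
      _ = _ := by rw [Finset.sum_const, nsmul_eq_mul]
  · intro ν hν
    refine (Finset.measurable_fun_sum _ fun l _ => ?_).aemeasurable
    exact (wcell_meas _ _ _ _ _ _ _ _).mul (hV ν hν)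

end Crest.Agent.R116.AlC339
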