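import Crest.Agent.R116.DeDef_295
import Crest.Agent.R116.CWd2_480
import Crest.Agent.R138.Fq2_665

/-!
# R116 (S0155), wave side, DECc (D5): `EN1c`, `EN2c` (helper387)

Energy of a selected wave and total packet energy, by Plancherel and the overlap count of the caps
(constant 16, no frames).
-/

set_option autoImplicit false

open MeasureTheory FourierTransform
open scoped ContDiff ENNReal

namespace Crest.Agent.R116.En387

open Crest.Agent.R138.Defs (E2 ee)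
open Crest.Agent.R138.Wpk685 (win fat cen caps)
open Crest.Agent.R116.CDef480 Crest.Agent.R116.WC188 Crest.Agent.R116.Bas367
open Crest.Agent.R116.CWd480 (card_cen)
open Crest.Agent.R116.De295

/-- overlap count of the caps at a slope. -/
theorem card_near {ρ : ℝ} (hρ : 0 < ρ) (s : Finset (ℤ × ℤ)) (c : E2) (t : Finset (ℤ × ℤ))
    (hts : t ⊆ s) (ht : ∀ m ∈ t, ‖c - cen ρ m‖ ≤ 3 / 2 * ρ) : (t.card : ℝ) ≤ 16 := by
  have h := card_cen hρ (r := 3 / 2) (by norm_num) s c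
  have h1 : (t.card : ℝ) ≤ (Set.ncard {m | m ∈ s ∧ ‖cen ρ m - c‖ ≤ 3 / 2 * ρ} : ℝ) := by
    rw [← Set.ncard_coe_finset]
    have : Set.ncard (t : Set (ℤ × ℤ)) ≤ Set.ncard {m | m ∈ s ∧ ‖cen ρ m - c‖ ≤ 3 / 2 * ρ} := by
      refine Set.ncard_le_ncard (fun m hm => ?_) (s.finite_toSet.subset fun m hm => hm.1)
      refine ⟨hts hm, ?_⟩
      rw [norm_sub_rev]
      exact ht m hm
    exact_mod_cast this
  calc (t.card : ℝ) ≤ _ := h1
    _ ≤ (2 * (3 / 2) + 1) ^ 2 := h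
    _ = 16 := by norm_num

theorem sum_sq_of_near {ρ : ℝ} (hρ : 0 < ρ) (s : Finset (ℤ × ℤ)) (c : E2) (a b : ℤ × ℤ → ℂ)
    (hab : ∀ m ∈ s, ‖a m‖ ≤ ‖b m‖) (ha : ∀ m ∈ s, a m ≠ 0 → ‖c - cen ρ m‖ ≤ 3 / 2 * ρ) :
    ‖∑ m ∈ s, a m‖ ^ 2 ≤ 16 * ∑ m ∈ s, ‖b m‖ ^ 2 := by
  classical
  set t := s.filter fun m => a m ≠ 0 with ht
  have h1 : ∑ m ∈ s, a m = ∑ m ∈ t, a m := by
    rw [ht, Finset.sum_filter_ne_zero]
  have hcard : (t.card : ℝ) ≤ 16 := card_near hρ s c t (Finset.filter_subset _ _) fun m hm => by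
    rw [ht, Finset.mem_filter] at hm
    exact ha m hm.1 hm.2
  rw [h1]
  calc ‖∑ m ∈ t, a m‖ ^ 2 ≤ (∑ m ∈ t, ‖a m‖) ^ 2 := by
        gcongr
        exact norm_sum_le _ _
    _ ≤ t.card * ∑ m ∈ t, ‖a m‖ ^ 2 := sq_sum_le_card_mul_sum_sq
    _ ≤ 16 * ∑ m ∈ t, ‖a m‖ ^ 2 := by
        gcongr
    _ ≤ 16 * ∑ m ∈ t, ‖b m‖ ^ 2 := by
        gcongr with m hm
        exact hab m (Finset.filter_subset _ _ hm)
    _ ≤ 16 * ∑ m ∈ s, ‖b m‖ ^ 2 := by
        gcongr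
        exact Finset.filter_subset _ _

theorem enorm_sq (z : ℂ) : ‖z‖ₑ ^ 2 = ENNReal.ofReal (‖z‖ ^ 2) := by
  rw [← ofReal_norm, ENNReal.ofReal_pow (norm_nonneg _)]

theorem ofReal_Enc {g : E3 → ℂ} (hg : MemLp g 2) :
    ENNReal.ofReal (Enc g) = ∫⁻ ζ, ‖g ζ‖ₑ ^ 2 := by
  unfold Enc
  rw [ofReal_integral_eq_lintegral_ofReal]
  · exact lintegral_congr fun ζ => (enorm_sq _).symm
  · exact hg.integrable_norm_pow (by norm_num)
  · exact Filter.Eventually.of_forall fun ζ => by positivity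

/-- **(D5), first half**: energy of a selected wave. -/
theorem en1c : EN1c := by
  refine ⟨16, by norm_num, ?_⟩
  intro η0 κ ρ hκ hρ hρ1 g hg hg2 S hS
  have hsel := selc_int (η0 := η0) hκ hρ hg hS
  rw [ofReal_Enc hsel.2]
  have hpt : ∀ ζ, ‖selc η0 κ ρ g S ζ‖ₑ ^ 2 ≤ ENNReal.ofReal 16 *
      ∑ m ∈ caps ρ, ‖𝓕 ((S m).indicator (umc ρ g m)) ζ‖ₑ ^ 2 := by
    intro ζ
    have h1 := sum_sq_of_near hρ (caps ρ) (slp ζ) (fun m => piecec η0 κ ρ g m (S m) ζ)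
      (fun m => 𝓕 ((S m).indicator (umc ρ g m)) ζ) (fun m _ => ?_) (fun m _ h => ?_)
    · rw [enorm_sq]
      simp only [enorm_sq]
      rw [← ENNReal.ofReal_sum_of_nonneg fun m _ => by positivity,
        ← ENNReal.ofReal_mul (by norm_num)]
      exact ENNReal.ofReal_le_ofReal h1
    · show ‖piecec η0 κ ρ g m (S m) ζ‖ ≤ _
      unfold piecec
      rw [norm_mul, norm_mul]
      have h1 := norm_fatc_le ρ m ζ
      have h2 := norm_etw_le η0 κ ζ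
      calc ‖fatc ρ m ζ‖ * ‖etw η0 κ ζ‖ * ‖𝓕 ((S m).indicator (umc ρ g m)) ζ‖
          ≤ 1 * 1 * ‖𝓕 ((S m).indicator (umc ρ g m)) ζ‖ := by gcongr
        _ = _ := by ring
    · exact (piecec_ne hκ hρ h).2.1
  have hmeas : ∀ m ∈ caps ρ,
      AEMeasurable (fun ζ => ‖𝓕 ((S m).indicator (umc ρ g m)) ζ‖ₑ ^ 2) volume := fun m hm =>
    ((fourier_cont (umc_ind hg ρ m (hS.meas m hm) (hS.bdd m hm)).int).measurable.enorm.pow_const
      2).aemeasurable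
  calc ∫⁻ ζ, ‖selc η0 κ ρ g S ζ‖ₑ ^ 2 ≤ ∫⁻ ζ, ENNReal.ofReal 16 *
        ∑ m ∈ caps ρ, ‖𝓕 ((S m).indicator (umc ρ g m)) ζ‖ₑ ^ 2 := lintegral_mono hpt
    _ = ENNReal.ofReal 16 * ∑ m ∈ caps ρ, ∫⁻ ζ, ‖𝓕 ((S m).indicator (umc ρ g m)) ζ‖ₑ ^ 2 := by
        rw [lintegral_const_mul' _ _ ENNReal.ofReal_ne_top, lintegral_finsetSum' _ hmeas]
    _ = ENNReal.ofReal 16 * enc ρ g S := by
        unfold enc
        congr 1
        refine Finset.sum_congr rfl fun m hm => ?_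
        have hgd := umc_ind hg ρ m (hS.meas m hm) (hS.bdd m hm)
        rw [Crest.Agent.R138.Fq665.plancherel hgd.int (hgd.memLp 2),
          ← lintegral_indicator (hS.meas m hm)]
        refine lintegral_congr fun x => ?_
        by_cases hx : x ∈ S m
        · rw [Set.indicator_of_mem hx, Set.indicator_of_mem hx]
        · rw [Set.indicator_of_notMem hx, Set.indicator_of_notMem hx]
          simp

/-- **(D5), second half**: total packet energy. -/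
theorem en2c : EN2c := by
  refine ⟨16, by norm_num, ?_⟩
  intro ρ hρ hρ1 g hg hg2 S
  rw [ENNReal.ofReal_mul (by norm_num), ofReal_Enc hg2]
  have hcap : ∀ ζ : E3, ∑ m ∈ caps ρ, ‖capc ρ m ζ‖ₑ ^ 2 ≤ ENNReal.ofReal 16 := by
    intro ζ
    classical
    have h1 : ∑ m ∈ caps ρ, ‖capc ρ m ζ‖ ^ 2 ≤ 16 := by
      set t := (caps ρ).filter fun m => capc ρ m ζ ≠ 0 with ht
      have hcard : (t.card : ℝ) ≤ 16 :=
        card_near hρ (caps ρ) (slp ζ) t (Finset.filter_subset _ _) fun m hm => by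
          rw [ht, Finset.mem_filter] at hm
          exact (capc_ne hρ hm.2).trans (by nlinarith)
      have h2 : ∑ m ∈ caps ρ, ‖capc ρ m ζ‖ ^ 2 = ∑ m ∈ t, ‖capc ρ m ζ‖ ^ 2 := by
        rw [ht, Finset.sum_filter]
        refine Finset.sum_congr rfl fun m _ => ?_
        split_ifs with h
        · rfl
        · push Not at h
          rw [h]; simp
      rw [h2]
      calc ∑ m ∈ t, ‖capc ρ m ζ‖ ^ 2 ≤ ∑ m ∈ t, (1 : ℝ) := by
            refine Finset.sum_le_sum fun m _ => ?_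
            exact pow_le_one₀ (norm_nonneg _) (norm_capc_le ρ m ζ)
        _ = t.card := by simp
        _ ≤ 16 := hcard
    simp only [enorm_sq]
    rw [← ENNReal.ofReal_sum_of_nonneg fun m _ => by positivity]
    exact ENNReal.ofReal_le_ofReal h1
  have hmeas : ∀ m ∈ caps ρ,
      AEMeasurable (fun ζ => ‖capc ρ m ζ‖ₑ ^ 2 * ‖g ζ‖ₑ ^ 2) volume := fun m _ =>
    ((measurable_capc ρ m).enorm.pow_const 2).aemeasurable.mul (hg2.1.enorm.pow_const 2)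
  calc enc ρ g S ≤ ∑ m ∈ caps ρ, ∫⁻ x, ‖umc ρ g m x‖ₑ ^ 2 := by
        unfold enc
        exact Finset.sum_le_sum fun m _ => setLIntegral_le_lintegral _ _
    _ = ∑ m ∈ caps ρ, ∫⁻ ζ, ‖capc ρ m ζ‖ₑ ^ 2 * ‖g ζ‖ₑ ^ 2 := by
        refine Finset.sum_congr rfl fun m _ => ?_
        unfold umc
        rw [Crest.Agent.R138.Fq665.plancherel_inv (capc_int hg ρ m) (capc_l2 hg2 ρ m)]
        refine lintegral_congr fun ζ => ?_
        rw [enorm_mul, mul_pow]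
    _ = ∫⁻ ζ, (∑ m ∈ caps ρ, ‖capc ρ m ζ‖ₑ ^ 2) * ‖g ζ‖ₑ ^ 2 := by
        rw [← lintegral_finsetSum' _ hmeas]
        refine lintegral_congr fun ζ => ?_
        rw [Finset.sum_mul]
    _ ≤ ∫⁻ ζ, ENNReal.ofReal 16 * ‖g ζ‖ₑ ^ 2 :=
        lintegral_mono fun ζ => mul_le_mul_left (hcap ζ) _
    _ = _ := lintegral_const_mul' _ _ ENNReal.ofReal_ne_top

end Crest.Agent.R116.En387
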