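import Crest.Agent.R116.Bas1_367

/-!
# R116 (S0155): WAVE side, qualitative / algebraic base layer (helper367), part 2: `selc`

`Bsc ρ S` = measurable bounded selections.  `selc η0 κ ρ g S` is measurable, bounded, lives in the slice
`|η - η0| < 2κ` and in the `3ρ`-neighbourhood of the slopes of `g`; integrability, additivity.
-/

set_option autoImplicit false

open MeasureTheory FourierTransform
open scoped ContDiff ENNReal

namespace Crest.Agent.R116.Bas367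

open Crest.Agent.R138.Defs (E2 ee)
open Crest.Agent.R138.Wpk685 (th win fat cen caps cap bmp norm_ee ee_add continuous_ee)
open Crest.Agent.R116.CDef480
open Crest.Agent.R116.WC188

/-- measurable bounded selections. -/
structure Bsc (ρ : ℝ) (S : ℤ × ℤ → Set E3) : Prop where
  meas : ∀ m ∈ caps ρ, MeasurableSet (S m)
  bdd : ∀ m ∈ caps ρ, Bornology.IsBounded (S m)

theorem Bsc.of_ball {ρ A : ℝ} {S : ℤ × ℤ → Set E3} (hm : ∀ m, MeasurableSet (S m))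
    (hb : ∀ m, S m ⊆ Metric.closedBall 0 A) : Bsc ρ S :=
  ⟨fun m _ => hm m, fun m _ => Metric.isBounded_closedBall.subset (hb m)⟩

theorem Bsc.sub {ρ : ℝ} {S T : ℤ × ℤ → Set E3} (hT : Bsc ρ T) (hm : ∀ m ∈ caps ρ, MeasurableSet (S m))
    (h : ∀ m ∈ caps ρ, S m ⊆ T m) : Bsc ρ S :=
  ⟨hm, fun m hm' => (hT.bdd m hm').subset (h m hm')⟩

theorem Bsc.union {ρ : ℝ} {S T : ℤ × ℤ → Set E3} (hS : Bsc ρ S) (hT : Bsc ρ T) :
    Bsc ρ (fun m => S m ∪ T m) :=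
  ⟨fun m hm => (hS.meas m hm).union (hT.meas m hm), fun m hm => (hS.bdd m hm).union (hT.bdd m hm)⟩

theorem Bsc.inter {ρ : ℝ} {S T : ℤ × ℤ → Set E3} (hS : Bsc ρ S)
    (hT : ∀ m ∈ caps ρ, MeasurableSet (T m)) : Bsc ρ (fun m => S m ∩ T m) :=
  ⟨fun m hm => (hS.meas m hm).inter (hT m hm), fun m hm => (hS.bdd m hm).subset Set.inter_subset_left⟩

theorem Bsc.empty (ρ : ℝ) : Bsc ρ (fun _ => (∅ : Set E3)) :=
  ⟨fun _ _ => MeasurableSet.empty, fun _ _ => Bornology.isBounded_empty⟩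

theorem Bsc.biUnion {ρ : ℝ} {ι : Type*} (s : Finset ι) {S : ι → ℤ × ℤ → Set E3}
    (h : ∀ i ∈ s, Bsc ρ (S i)) : Bsc ρ (fun m => ⋃ i ∈ s, S i m) :=
  ⟨fun m hm => Finset.measurableSet_biUnion _ fun i hi => (h i hi).meas m hm,
    fun m hm => (Bornology.isBounded_biUnion_finset s).2 fun i hi => (h i hi).bdd m hm⟩

theorem ind_int3 {u : E3 → ℂ} (hu : Measurable u) {M : ℝ} (hM : ∀ y, ‖u y‖ ≤ M) {S : Set E3}
    (hS : MeasurableSet S) (hb : Bornology.IsBounded S) : Gd (S.indicator u) := by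
  obtain ⟨R, hR⟩ := hb.subset_closedBall 0
  refine ⟨hu.indicator hS, ⟨M, fun y => (norm_indicator_le_norm_self _ _).trans (hM y)⟩,
    ⟨R, fun y h => ?_⟩⟩
  have hy : y ∈ S := by
    by_contra h'
    exact h (Set.indicator_of_notMem h' _)
  have := hR hy
  rwa [mem_closedBall_zero_iff] at this

theorem umc_ind {g : E3 → ℂ} (hg : Integrable g) (ρ : ℝ) (m : ℤ × ℤ) {S : Set E3}
    (hS : MeasurableSet S) (hb : Bornology.IsBounded S) : Gd (S.indicator (umc ρ g m)) := by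
  obtain ⟨M, _, hM⟩ := umc_bdd ρ g m
  exact ind_int3 (umc_cont hg ρ m).measurable hM hS hb

theorem fourier_cont {f : E3 → ℂ} (hf : Integrable f) : Continuous (𝓕 f : E3 → ℂ) := by
  have h := VectorFourier.fourierIntegral_continuous (e := Real.fourierChar)
    (μ := (volume : Measure E3)) (L := innerₗ E3) Real.continuous_fourierChar continuous_inner hf
  exact h

theorem norm_fourier_le (f : E3 → ℂ) (x : E3) : ‖𝓕 f x‖ ≤ ∫ v, ‖f v‖ := by
  rw [Real.fourier_eq]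
  refine (norm_integral_le_integral_norm _).trans (le_of_eq ?_)
  simp_rw [Circle.norm_smul]

theorem fourier_sum3 {κ : Type*} (s : Finset κ) (v : κ → E3 → ℂ) (hv : ∀ i ∈ s, Integrable (v i))
    (ξ : E3) : 𝓕 (fun y => ∑ i ∈ s, v i y) ξ = ∑ i ∈ s, 𝓕 (v i) ξ := by
  have hm : Continuous (fun y : E3 => ee (-inner ℝ ξ y)) :=
    continuous_ee.comp (continuous_const.inner continuous_id).neg
  simp only [fourier_int3]
  rw [← integral_finsetSum]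
  · congr 1
    ext y
    rw [Finset.sum_mul]
  · intro i hi
    exact (hv i hi).mul_bdd (c := 1) hm.aestronglyMeasurable
      (Filter.Eventually.of_forall fun y => (norm_ee _).le)

theorem fourier_add3 {f g : E3 → ℂ} (hf : Integrable f) (hg : Integrable g) (ξ : E3) :
    𝓕 (fun y => f y + g y) ξ = 𝓕 f ξ + 𝓕 g ξ := by
  have h := fourier_sum3 (Finset.univ : Finset Bool) (fun i => if i = true then f else g)
    (by intro i _; cases i <;> simpa) ξ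
  rw [Fintype.sum_bool] at h
  simpa using h

/-! ### one selected piece -/

theorem piecec_ne {η0 κ ρ : ℝ} (hκ : 0 < κ) (hρ : 0 < ρ) {g : E3 → ℂ} {m : ℤ × ℤ} {S : Set E3}
    {ζ : E3} (h : piecec η0 κ ρ g m S ζ ≠ 0) :
    |ζ 2 - η0| < 2 * κ ∧ ‖slp ζ - cen ρ m‖ ≤ 3 / 2 * ρ ∧ 𝓕 (S.indicator (umc ρ g m)) ζ ≠ 0 := by
  unfold piecec at h
  exact ⟨etw_ne hκ (right_ne_zero_of_mul (left_ne_zero_of_mul h)),
    fatc_ne hρ (left_ne_zero_of_mul (left_ne_zero_of_mul h)), right_ne_zero_of_mul h⟩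

theorem piecec_meas {η0 κ ρ : ℝ} {g : E3 → ℂ} (hg : Integrable g) (m : ℤ × ℤ) {S : Set E3}
    (hS : MeasurableSet S) (hb : Bornology.IsBounded S) : Measurable (piecec η0 κ ρ g m S) :=
  ((measurable_fatc ρ m).mul (measurable_etw η0 κ)).mul
    (fourier_cont (umc_ind hg ρ m hS hb).int).measurable

theorem norm_piecec_le (η0 κ ρ : ℝ) (g : E3 → ℂ) (m : ℤ × ℤ) (S : Set E3) (ζ : E3) :
    ‖piecec η0 κ ρ g m S ζ‖ ≤ ∫ v, ‖S.indicator (umc ρ g m) v‖ := by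
  unfold piecec
  rw [norm_mul, norm_mul]
  have h1 := norm_fatc_le ρ m ζ
  have h2 := norm_etw_le η0 κ ζ
  have h3 := norm_fourier_le (S.indicator (umc ρ g m)) ζ
  have h4 := norm_nonneg (𝓕 (S.indicator (umc ρ g m)) ζ)
  calc ‖fatc ρ m ζ‖ * ‖etw η0 κ ζ‖ * ‖𝓕 (S.indicator (umc ρ g m)) ζ‖
      ≤ 1 * 1 * ‖𝓕 (S.indicator (umc ρ g m)) ζ‖ := by gcongr
    _ ≤ _ := by rw [one_mul, one_mul]; exact h3

/-- bounded supports away from `η = 0`. -/
theorem norm_le_slice {η0 κ L : ℝ} (hη : 2 * κ ≤ |η0|) {ζ : E3} (h1 : |ζ 2 - η0| < 2 * κ)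
    (h2 : ‖slp ζ‖ ≤ L) : ‖ζ‖ ≤ (|η0| + 2 * κ) * L + (|η0| + 2 * κ) := by
  have h0 : ζ 2 ≠ 0 := by
    intro h0
    rw [h0, zero_sub, abs_neg] at h1
    linarith
  have h3 : |ζ 2| ≤ |η0| + 2 * κ := by
    have := abs_add_le (ζ 2 - η0) η0
    rw [sub_add_cancel] at this
    linarith
  refine norm_le_of ?_ h3
  rw [lat_slp h0, norm_smul, Real.norm_eq_abs]
  exact mul_le_mul h3 h2 (norm_nonneg _) ((abs_nonneg _).trans h3)

theorem piecec_gd {η0 κ ρ : ℝ} (hκ : 0 < κ) (hρ : 0 < ρ) (hη : 2 * κ ≤ |η0|) {g : E3 → ℂ}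
    (hg : Integrable g) (m : ℤ × ℤ) {S : Set E3} (hS : MeasurableSet S)
    (hb : Bornology.IsBounded S) : Gd (piecec η0 κ ρ g m S) := by
  refine ⟨piecec_meas hg m hS hb, ⟨_, norm_piecec_le η0 κ ρ g m S⟩,
    ⟨(|η0| + 2 * κ) * (‖cen ρ m‖ + 3 / 2 * ρ) + (|η0| + 2 * κ), fun ζ h => ?_⟩⟩
  obtain ⟨h1, h2, -⟩ := piecec_ne hκ hρ h
  refine norm_le_slice hη h1 ?_
  have := norm_add_le (slp ζ - cen ρ m) (cen ρ m)
  rw [sub_add_cancel] at this
  linarith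

/-! ### the plane `η = 0` is negligible -/

theorem ae_two_ne : ∀ᵐ ζ : E3, ζ 2 ≠ 0 := by
  have h1 : (volume : Measure E3) {ζ : E3 | ζ 2 = 0} = 0 := by
    have h2 := Measure.addHaar_submodule (volume : Measure E3)
      (LinearMap.ker (EuclideanSpace.proj (𝕜 := ℝ) (2 : Fin 3) : E3 →L[ℝ] ℝ).toLinearMap) (by
        intro h
        have h3 : (EuclideanSpace.single (2 : Fin 3) (1 : ℝ) : E3) ∈
            (LinearMap.ker (EuclideanSpace.proj (𝕜 := ℝ) (2 : Fin 3) : E3 →L[ℝ] ℝ).toLinearMap) := by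
          rw [h]; exact Submodule.mem_top
        rw [LinearMap.mem_ker] at h3
        simp at h3)
    have h3 : {ζ : E3 | ζ 2 = 0} = ((LinearMap.ker
        (EuclideanSpace.proj (𝕜 := ℝ) (2 : Fin 3) : E3 →L[ℝ] ℝ).toLinearMap : Submodule ℝ E3) :
          Set E3) := by
      ext ζ
      simp [LinearMap.mem_ker]
    rw [h3]
    exact h2
  exact measure_eq_zero_iff_ae_notMem.1 h1

/-- `selc` is measurable. -/
theorem selc_meas {η0 κ ρ : ℝ} {g : E3 → ℂ} (hg : Integrable g) {S : ℤ × ℤ → Set E3}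
    (hS : Bsc ρ S) : Measurable (selc η0 κ ρ g S) := by
  unfold selc
  exact Finset.measurable_fun_sum _ fun m hm => piecec_meas hg m (hS.meas m hm) (hS.bdd m hm)

/-- `selc` is bounded. -/
theorem selc_bdd (η0 κ ρ : ℝ) (g : E3 → ℂ) (S : ℤ × ℤ → Set E3) :
    ∃ L : ℝ, ∀ ζ, ‖selc η0 κ ρ g S ζ‖ ≤ L :=
  ⟨_, fun ζ => (norm_sum_le _ _).trans
    (Finset.sum_le_sum fun m _ => norm_piecec_le η0 κ ρ g m (S m) ζ)⟩

/-- a point of the support of `selc` is in the slice and close to a cap of `g`. -/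
theorem selc_ne {η0 κ ρ : ℝ} (hκ : 0 < κ) (hρ : 0 < ρ) {g : E3 → ℂ} {S : ℤ × ℤ → Set E3} {ζ : E3}
    (h : selc η0 κ ρ g S ζ ≠ 0) :
    |ζ 2 - η0| < 2 * κ ∧ ∃ m ∈ caps ρ, ‖slp ζ - cen ρ m‖ ≤ 3 / 2 * ρ ∧
      𝓕 ((S m).indicator (umc ρ g m)) ζ ≠ 0 := by
  obtain ⟨m, hm, h1⟩ := Finset.exists_ne_zero_of_sum_ne_zero h
  obtain ⟨h2, h3, h4⟩ := piecec_ne hκ hρ h1
  exact ⟨h2, m, hm, h3, h4⟩

theorem umc_eq_zero {ρ : ℝ} {g : E3 → ℂ} {m : ℤ × ℤ} (h : ∀ ζ, g ζ ≠ 0 → capc ρ m ζ = 0) :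
    umc ρ g m = fun _ => 0 := by
  funext y
  rw [umc_int_eq]
  rw [← integral_zero (α := E3) (G := ℂ) (μ := volume)]
  congr 1
  funext ζ
  by_cases h0 : g ζ = 0
  · rw [h0, mul_zero, zero_mul]
  · rw [h ζ h0, zero_mul, zero_mul]

theorem fourier_zero (ξ : E3) : 𝓕 (fun _ : E3 => (0 : ℂ)) ξ = 0 := by
  rw [fourier_int3]; simp

/-- the support of `selc` is in the `3ρ`-neighbourhood (in slope space) of the support of `g`. -/
theorem selc_near {η0 κ ρ : ℝ} (hκ : 0 < κ) (hρ : 0 < ρ) {g : E3 → ℂ} {S : ℤ × ℤ → Set E3} {ζ : E3}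
    (h : selc η0 κ ρ g S ζ ≠ 0) :
    |ζ 2 - η0| < 2 * κ ∧ ∃ ξ, g ξ ≠ 0 ∧ ‖slp ζ - slp ξ‖ ≤ 3 * ρ := by
  obtain ⟨h1, m, _, h2, h3⟩ := selc_ne hκ hρ h
  refine ⟨h1, ?_⟩
  by_contra hc
  push Not at hc
  apply h3
  have h4 : umc ρ g m = fun _ => 0 := umc_eq_zero fun ξ hξ => by
    by_contra h5
    have h6 := capc_ne hρ h5
    have h7 := hc ξ hξ
    have h8 : ‖slp ζ - slp ξ‖ ≤ ‖slp ζ - cen ρ m‖ + ‖slp ξ - cen ρ m‖ := by
      have := norm_sub_le (slp ζ - cen ρ m) (slp ξ - cen ρ m)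
      simpa using this
    linarith
  rw [h4]
  have h5 : (S m).indicator (fun _ : E3 => (0 : ℂ)) = fun _ => 0 := by
    funext y; simp
  rw [h5]
  exact fourier_zero ζ

theorem selc_gd {η0 κ ρ : ℝ} (hκ : 0 < κ) (hρ : 0 < ρ) (hη : 2 * κ ≤ |η0|) {g : E3 → ℂ}
    (hg : Integrable g) {S : ℤ × ℤ → Set E3} (hS : Bsc ρ S) : Gd (selc η0 κ ρ g S) :=
  Gd.sum _ fun m hm => piecec_gd hκ hρ hη hg m (hS.meas m hm) (hS.bdd m hm)

/-- `selc` is integrable and square integrable (no hypothesis on the slice). -/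
theorem selc_int {η0 κ ρ : ℝ} (hκ : 0 < κ) (hρ : 0 < ρ) {g : E3 → ℂ}
    (hg : Integrable g) {S : ℤ × ℤ → Set E3} (hS : Bsc ρ S) :
    Integrable (selc η0 κ ρ g S) ∧ MemLp (selc η0 κ ρ g S) 2 := by
  set F := selc η0 κ ρ g S with hF
  obtain ⟨L, hL⟩ := selc_bdd η0 κ ρ g S
  set N : ℝ := ∑ m ∈ caps ρ, (‖cen ρ m‖ + 3 / 2 * ρ) with hN
  have hms : MeasurableSet {ζ : E3 | ζ 2 ≠ 0} :=
    (measurable_coord 2) (measurableSet_singleton (0:ℝ)).compl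
  have hgd : Gd (({ζ : E3 | ζ 2 ≠ 0} : Set E3).indicator F) := by
    refine ⟨(selc_meas hg hS).indicator hms, ⟨L, fun ζ =>
      (norm_indicator_le_norm_self _ _).trans (hL ζ)⟩,
      ⟨(|η0| + 2 * κ) * N + (|η0| + 2 * κ), fun ζ h => ?_⟩⟩
    have h0 : ζ 2 ≠ 0 := by
      intro h0
      refine h (Set.indicator_of_notMem ?_ _)
      intro h1
      exact (show ζ 2 ≠ 0 from h1) h0
    rw [Set.indicator_of_mem (show ζ ∈ {ζ : E3 | ζ 2 ≠ 0} from h0)] at h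
    obtain ⟨h1, m, hm, h2, -⟩ := selc_ne hκ hρ h
    have h3 : |ζ 2| ≤ |η0| + 2 * κ := by
      have := abs_add_le (ζ 2 - η0) η0
      rw [sub_add_cancel] at this
      linarith
    have h4 : ‖slp ζ‖ ≤ N := by
      have h5 := norm_add_le (slp ζ - cen ρ m) (cen ρ m)
      rw [sub_add_cancel] at h5
      have h6 : ‖cen ρ m‖ + 3 / 2 * ρ ≤ N :=
        Finset.single_le_sum (f := fun m => ‖cen ρ m‖ + 3 / 2 * ρ)
          (fun m _ => by positivity) hm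
      linarith
    refine norm_le_of ?_ h3
    rw [lat_slp h0, norm_smul, Real.norm_eq_abs]
    exact mul_le_mul h3 h4 (norm_nonneg _) ((abs_nonneg _).trans h3)
  have hae : ({ζ : E3 | ζ 2 ≠ 0} : Set E3).indicator F =ᵐ[volume] F := by
    filter_upwards [ae_two_ne] with ζ hζ
    exact Set.indicator_of_mem (show ζ ∈ {ζ : E3 | ζ 2 ≠ 0} from hζ) _
  exact ⟨hgd.int.congr hae, (memLp_congr_ae hae).1 (hgd.memLp 2)⟩

/-! ### linearity in the selection -/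

theorem selc_congr {η0 κ ρ : ℝ} {g : E3 → ℂ} {S T : ℤ × ℤ → Set E3}
    (h : ∀ m ∈ caps ρ, S m = T m) : selc η0 κ ρ g S = selc η0 κ ρ g T := by
  funext ζ
  unfold selc
  exact Finset.sum_congr rfl fun m hm => by rw [h m hm]

theorem piecec_empty (η0 κ ρ : ℝ) (g : E3 → ℂ) (m : ℤ × ℤ) (ζ : E3) :
    piecec η0 κ ρ g m ∅ ζ = 0 := by
  unfold piecec
  rw [Set.indicator_empty, show (fun _ : E3 => (0 : ℂ)) = fun _ => 0 from rfl, fourier_zero,
    mul_zero]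

theorem selc_empty (η0 κ ρ : ℝ) (g : E3 → ℂ) : selc η0 κ ρ g (fun _ => ∅) = fun _ => 0 := by
  funext ζ
  unfold selc
  exact Finset.sum_eq_zero fun m _ => piecec_empty η0 κ ρ g m ζ

/-- additivity over finite disjoint unions. -/
theorem selc_sum {η0 κ ρ : ℝ} {g : E3 → ℂ} (hg : Integrable g) {ι : Type*} (s : Finset ι)
    {S : ι → ℤ × ℤ → Set E3} (hS : ∀ i ∈ s, Bsc ρ (S i)) {T : ℤ × ℤ → Set E3}
    (hd : ∀ i ∈ s, ∀ j ∈ s, i ≠ j → ∀ m ∈ caps ρ, Disjoint (S i m) (S j m))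
    (hT : ∀ m ∈ caps ρ, T m = ⋃ i ∈ s, S i m) (ζ : E3) :
    selc η0 κ ρ g T ζ = ∑ i ∈ s, selc η0 κ ρ g (S i) ζ := by
  unfold selc
  rw [Finset.sum_comm]
  refine Finset.sum_congr rfl fun m hm => ?_
  unfold piecec
  rw [← Finset.mul_sum]
  congr 1
  rw [← fourier_sum3 s _ fun i hi => (umc_ind hg ρ m ((hS i hi).meas m hm) ((hS i hi).bdd m hm)).int]
  refine congrArg (fun u : E3 → ℂ => 𝓕 u ζ) ?_
  funext y
  by_cases hy : y ∈ T m
  · rw [Set.indicator_of_mem hy]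
    rw [hT m hm] at hy
    simp only [Set.mem_iUnion, exists_prop] at hy
    obtain ⟨i, hi1, hi2⟩ := hy
    rw [Finset.sum_eq_single_of_mem i hi1, Set.indicator_of_mem hi2]
    intro j hj hne
    rw [Set.indicator_of_notMem]
    intro hj2
    exact Set.disjoint_left.1 (hd j hj i hi1 hne m hm) hj2 hi2
  · rw [Set.indicator_of_notMem hy]
    symm
    refine Finset.sum_eq_zero fun i hi1 => ?_
    rw [Set.indicator_of_notMem]
    intro h2
    rw [hT m hm] at hy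
    exact hy (Set.mem_biUnion hi1 h2)

/-- `selc` is additive in the selection. -/
theorem selc_add {η0 κ ρ : ℝ} {g : E3 → ℂ} (hg : Integrable g) {S T U : ℤ × ℤ → Set E3}
    (hS : Bsc ρ S) (hT : Bsc ρ T) (hd : ∀ m ∈ caps ρ, Disjoint (S m) (T m))
    (hU : ∀ m ∈ caps ρ, U m = S m ∪ T m) (ζ : E3) :
    selc η0 κ ρ g U ζ = selc η0 κ ρ g S ζ + selc η0 κ ρ g T ζ := by
  have h := selc_sum (η0 := η0) (κ := κ) (ρ := ρ) hg (Finset.univ : Finset Bool)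
    (S := fun i => if i = true then S else T)
    (by intro i _; cases i <;> simpa) (T := U)
    (by
      intro i _ j _ hij m hm
      cases i <;> cases j
      · exact absurd rfl hij
      · simpa using (hd m hm).symm
      · simpa using hd m hm
      · exact absurd rfl hij)
    (by
      intro m hm
      rw [hU m hm]
      ext y
      simp [or_comm]) ζ
  rw [Fintype.sum_bool] at h
  simpa using h

/-- removing a part of the selection. -/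
theorem selc_sdiff {η0 κ ρ : ℝ} {g : E3 → ℂ} (hg : Integrable g) {S T : ℤ × ℤ → Set E3}
    (hS : Bsc ρ S) (hT : ∀ m ∈ caps ρ, MeasurableSet (T m)) (hTS : ∀ m ∈ caps ρ, T m ⊆ S m) (ζ : E3) :
    selc η0 κ ρ g S ζ = selc η0 κ ρ g T ζ + selc η0 κ ρ g (fun m => S m \ T m) ζ := by
  refine selc_add hg (hS.sub hT hTS)
    (hS.sub (fun m hm => (hS.meas m hm).diff (hT m hm)) fun m _ => Set.sdiff_subset) ?_ ?_ ζ
  · intro m _
    exact Set.disjoint_sdiff_right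
  · intro m hm
    exact (Set.union_sdiff_cancel (hTS m hm)).symm

/-- dependence on `g` through the pieces only. -/
theorem selc_congr_g {η0 κ ρ : ℝ} {g g' : E3 → ℂ} {S : ℤ × ℤ → Set E3}
    (h : ∀ m ∈ caps ρ, ∀ y ∈ S m, umc ρ g m y = umc ρ g' m y) :
    selc η0 κ ρ g S = selc η0 κ ρ g' S := by
  funext ζ
  unfold selc
  refine Finset.sum_congr rfl fun m hm => ?_
  unfold piecec
  congr 1
  refine congrArg (fun u : E3 → ℂ => 𝓕 u ζ) ?_
  funext y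
  by_cases hy : y ∈ S m
  · rw [Set.indicator_of_mem hy, Set.indicator_of_mem hy, h m hm y hy]
  · rw [Set.indicator_of_notMem hy, Set.indicator_of_notMem hy]

/-- linearity in `g`. -/
theorem selc_add_g {η0 κ ρ : ℝ} {f g : E3 → ℂ} (hf : Integrable f) (hg : Integrable g)
    {S : ℤ × ℤ → Set E3} (hS : Bsc ρ S) (ζ : E3) :
    selc η0 κ ρ (fun ξ => f ξ + g ξ) S ζ = selc η0 κ ρ f S ζ + selc η0 κ ρ g S ζ := by
  unfold selc
  rw [← Finset.sum_add_distrib]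
  refine Finset.sum_congr rfl fun m hm => ?_
  unfold piecec
  rw [← mul_add]
  congr 1
  rw [← fourier_add3 (umc_ind hf ρ m (hS.meas m hm) (hS.bdd m hm)).int
    (umc_ind hg ρ m (hS.meas m hm) (hS.bdd m hm)).int]
  refine congrArg (fun u : E3 → ℂ => 𝓕 u ζ) ?_
  funext y
  by_cases hy : y ∈ S m
  · rw [Set.indicator_of_mem hy, Set.indicator_of_mem hy, Set.indicator_of_mem hy,
      umc_add hf hg]
  · rw [Set.indicator_of_notMem hy, Set.indicator_of_notMem hy, Set.indicator_of_notMem hy,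
      add_zero]

/-! ### supports of the selected waves of a state -/

/-- the slice of `selc` is away from zero as soon as the support of `g` is. -/
theorem eta_lower {a κ η0 : ℝ} {g : E3 → ℂ} (hs : ∀ ζ, g ζ ≠ 0 → a⁻¹ ≤ ζ 2) (hsl : Slc η0 κ g)
    {ξ : E3} (hξ : g ξ ≠ 0) : a⁻¹ - κ ≤ η0 := by
  have h1 := hs ξ hξ
  have h2 := (abs_le.1 (hsl ξ hξ)).2
  linarith

theorem eta_upper {a κ η0 : ℝ} {g : E3 → ℂ} (hs : ∀ ζ, g ζ ≠ 0 → ζ 2 ≤ a) (hsl : Slc η0 κ g)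
    {ξ : E3} (hξ : g ξ ≠ 0) : η0 ≤ a + κ := by
  have h1 := hs ξ hξ
  have h2 := (abs_le.1 (hsl ξ hξ)).1
  linarith

/-- support of the selected wave of a sliced state: slices of width `2κ`, supports in `[1/(2a), 2a]`
(`6 a κ ≤ 1`), slopes enlarged by `3ρ`. -/
theorem selc_supp {a b κ η0 ρ σ : ℝ} (ha : 1 ≤ a) (hκ : 0 < κ) (hκa : 6 * a * κ ≤ 1) (hρ : 0 < ρ)
    {C0 : E2} {g : E3 → ℂ} (hsl : Slc η0 κ g)
    (hs : ∀ ζ, g ζ ≠ 0 → a⁻¹ ≤ ζ 2 ∧ ζ 2 ≤ a ∧ ‖slp ζ‖ ≤ b ∧ ‖slp ζ - C0‖ ≤ σ)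
    {S : ℤ × ℤ → Set E3} {ζ : E3} (h : selc η0 κ ρ g S ζ ≠ 0) :
    (2 * a)⁻¹ ≤ ζ 2 ∧ ζ 2 ≤ 2 * a ∧ ‖slp ζ‖ ≤ b + 3 * ρ ∧ ‖slp ζ - C0‖ ≤ σ + 3 * ρ := by
  obtain ⟨h1, ξ, hξ, h2⟩ := selc_near hκ hρ h
  obtain ⟨s1, s2, s3, s4⟩ := hs ξ hξ
  have a0 : 0 < a := by linarith
  have e1 := abs_le.1 (hsl ξ hξ)
  have e2 := abs_lt.1 h1
  have e3 : 3 * κ ≤ a⁻¹ / 2 := by
    rw [inv_eq_one_div, div_div, le_div_iff₀ (by positivity)]
    linarith
  have e4 : (2 * a)⁻¹ = a⁻¹ / 2 := by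
    rw [mul_inv]; ring
  refine ⟨?_, ?_, ?_, ?_⟩
  · rw [e4]; linarith
  · have : a⁻¹ ≤ 1 := inv_le_one_of_one_le₀ ha
    linarith
  · have := norm_add_le (slp ζ - slp ξ) (slp ξ)
    rw [sub_add_cancel] at this
    linarith
  · have := norm_add_le (slp ζ - slp ξ) (slp ξ - C0)
    rw [sub_add_sub_cancel] at this
    linarith

/-- the slice of the selected wave. -/
theorem selc_slc {η0 κ ρ : ℝ} (hκ : 0 < κ) (hρ : 0 < ρ) {g : E3 → ℂ} {S : ℤ × ℤ → Set E3} :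
    Slc η0 (2 * κ) (selc η0 κ ρ g S) := fun _ h => (selc_ne hκ hρ h).1.le

/-- `selc` of a sliced state is a good function. -/
theorem selc_gd' {a κ η0 ρ : ℝ} (hκ : 0 < κ) (hκa : 3 * κ ≤ a⁻¹) (hρ : 0 < ρ)
    {g : E3 → ℂ} (hg : Integrable g) (hsl : Slc η0 κ g) (hs : ∀ ζ, g ζ ≠ 0 → a⁻¹ ≤ ζ 2)
    {S : ℤ × ℤ → Set E3} (hS : Bsc ρ S) : Gd (selc η0 κ ρ g S) := by
  by_cases h : ∃ ξ, g ξ ≠ 0
  · obtain ⟨ξ, hξ⟩ := h
    have h1 := eta_lower hs hsl hξ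
    refine selc_gd hκ hρ ?_ hg hS
    exact le_trans (by linarith) (le_abs_self _)
  · have h1 : selc η0 κ ρ g S = fun _ => 0 := by
      funext ζ
      by_contra h2
      obtain ⟨-, ξ, hξ, -⟩ := selc_near hκ hρ h2
      exact h ⟨ξ, hξ⟩
    rw [h1]
    exact Gd.zero

end Crest.Agent.R116.Bas367
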