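import Crest.Agent.R116.PDefC_299
import Crest.Agent.R116.Bas2_367

/-!
# R116, WAVE side (W13): rounding of directions, aligned / misaligned selections, measurability
(helper883)

Over `PDefC_299`.
* (R1) `rnd_err : ‖rnd δ e - e‖ ≤ δ / 8`, `norm_rnd : ‖rnd δ e‖ = 1`, `norm_rnd_le` (every `e`).
* (R2) `rnd_fin` : the roundings of the unit vectors `e` with `‖e - N‖ ≤ δ / 8` lie in a finite set of
  at most `81` unit vectors at distance `≤ δ / 4` of `N`.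
* `Sal`, `Smis`: contained in `uS`, union `= uS`, disjoint, measurable, bounded.
* (R3) `nP`, `crs`, `rdx`, `rnd` measurable in the position; the sets of aligned / misaligned
  phase points are measurable, and a phase point is aligned or misaligned.
-/

set_option autoImplicit false

open MeasureTheory
open scoped ENNReal

namespace Crest.Agent.R116.IsM883

open Crest.Agent.R138.Defs (E2)
open Crest.Agent.R138.Wpk685 (cen caps)
open Crest.Agent.R116.CDef480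
open Crest.Agent.R116.LZg725 (Cf)
open Crest.Agent.R116.Gc192 (un crs)
open Crest.Agent.R116.WC188
open Crest.Agent.R116.Bas367
open Crest.Agent.R116.PC299

/-! ### rounding -/

theorem norm_lv_le (a : ℤ × ℤ) : ‖lv a‖ ≤ 1 := by
  unfold lv
  rw [norm_smul, norm_inv, norm_norm]
  exact inv_mul_le_one

theorem norm_rnd_le (δ : ℝ) (e : E2) : ‖rnd δ e‖ ≤ 1 := norm_lv_le _

/-- normalising a vector close to a unit vector. -/
theorem norm_sub_unit {w e : E2} {t : ℝ} (he : ‖e‖ = 1) (h : ‖w - e‖ ≤ t) :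
    ‖‖w‖⁻¹ • w - e‖ ≤ 2 * t ∨ w = 0 := by
  by_cases hw : w = 0
  · exact Or.inr hw
  · left
    have hw0 : ‖w‖ ≠ 0 := norm_ne_zero_iff.2 hw
    have h1 : ‖‖w‖⁻¹ • w - w‖ = |1 - ‖w‖| := by
      have : ‖w‖⁻¹ • w - w = (‖w‖⁻¹ - 1) • w := by rw [sub_smul, one_smul]
      rw [this, norm_smul, Real.norm_eq_abs]
      nth_rewrite 2 [← abs_norm w]
      rw [← abs_mul]
      congr 1
      field_simp
    have h2 : |1 - ‖w‖| ≤ t := by
      have := abs_norm_sub_norm_le w e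
      rw [he] at this
      rw [abs_sub_comm]
      exact this.trans h
    calc ‖‖w‖⁻¹ • w - e‖ = ‖(‖w‖⁻¹ • w - w) + (w - e)‖ := by congr 1; abel
      _ ≤ ‖‖w‖⁻¹ • w - w‖ + ‖w - e‖ := norm_add_le _ _
      _ ≤ t + t := by rw [h1]; exact add_le_add h2 h
      _ = 2 * t := by ring

/-- `rnd` written with the lattice point itself. -/
theorem rnd_eq {δ : ℝ} (hδ : 0 < δ) (e : E2) {w : E2}
    (hw : w = (δ / 32) • (WithLp.toLp 2 ![((rdx δ e).1 : ℝ), ((rdx δ e).2 : ℝ)] : E2)) :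
    rnd δ e = ‖w‖⁻¹ • w := by
  have h32 : (0 : ℝ) < δ / 32 := by positivity
  unfold rnd lv
  rw [hw, norm_smul, Real.norm_eq_abs, abs_of_pos h32, smul_smul, mul_inv]
  congr 1
  field_simp

theorem lattice_near {δ : ℝ} (hδ : 0 < δ) (e : E2) :
    ‖(δ / 32) • (WithLp.toLp 2 ![((rdx δ e).1 : ℝ), ((rdx δ e).2 : ℝ)] : E2) - e‖ ≤ δ / 16 := by
  have h32 : (0 : ℝ) < δ / 32 := by positivity
  have key : ∀ x : ℝ, |(δ / 32) * (⌊x / (δ / 32)⌋ : ℝ) - x| ≤ δ / 32 := by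
    intro x
    have h1 := Int.floor_le (x / (δ / 32))
    have h2 := Int.lt_floor_add_one (x / (δ / 32))
    rw [le_div_iff₀ h32] at h1
    rw [div_lt_iff₀ h32] at h2
    rw [abs_le]
    constructor <;> nlinarith
  have h0 := key (e 0)
  have h1 := key (e 1)
  set w : E2 := (δ / 32) • (WithLp.toLp 2 ![((rdx δ e).1 : ℝ), ((rdx δ e).2 : ℝ)] : E2) - e with hw
  have e0 : w 0 = (δ / 32) * (⌊e 0 / (δ / 32)⌋ : ℝ) - e 0 := by
    simp [hw, rdx]
  have e1 : w 1 = (δ / 32) * (⌊e 1 / (δ / 32)⌋ : ℝ) - e 1 := by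
    simp [hw, rdx]
  have hn : ‖w‖ ^ 2 = w 0 ^ 2 + w 1 ^ 2 := Gc192.norm_sq2 w
  have s0 : w 0 ^ 2 ≤ (δ / 32) ^ 2 := by
    rw [e0]; exact sq_le_sq.2 (h0.trans (le_abs_self _))
  have s1 : w 1 ^ 2 ≤ (δ / 32) ^ 2 := by
    rw [e1]; exact sq_le_sq.2 (h1.trans (le_abs_self _))
  refine le_of_sq_le_sq ?_ (by positivity)
  rw [hn]
  nlinarith

theorem lattice_ne {δ : ℝ} (hδ : 0 < δ) (hδ1 : δ ≤ 1) {e : E2} (he : ‖e‖ = 1) :
    (δ / 32) • (WithLp.toLp 2 ![((rdx δ e).1 : ℝ), ((rdx δ e).2 : ℝ)] : E2) ≠ 0 := by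
  intro h
  have := lattice_near hδ e
  rw [h, zero_sub, norm_neg, he] at this
  linarith

/-- **(R1)** -/
theorem rnd_err {δ : ℝ} (hδ : 0 < δ) (hδ1 : δ ≤ 1) {e : E2} (he : ‖e‖ = 1) :
    ‖rnd δ e - e‖ ≤ δ / 8 := by
  rw [rnd_eq hδ e rfl]
  rcases norm_sub_unit he (lattice_near hδ e) with h | h
  · linarith
  · exact absurd h (lattice_ne hδ hδ1 he)

/-- **(R1)** -/
theorem norm_rnd {δ : ℝ} (hδ : 0 < δ) (hδ1 : δ ≤ 1) {e : E2} (he : ‖e‖ = 1) :
    ‖rnd δ e‖ = 1 := by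
  rw [rnd_eq hδ e rfl, norm_smul, norm_inv, norm_norm]
  exact inv_mul_cancel₀ (norm_ne_zero_iff.2 (lattice_ne hδ hδ1 he))

/-- **(R2)**: near a unit vector only `81` roundings occur. -/
theorem rnd_fin {δ : ℝ} (hδ : 0 < δ) (hδ1 : δ ≤ 1) (N : E2) :
    ∃ F : Finset E2, F.card ≤ 81 ∧ (∀ w ∈ F, ‖w‖ = 1 ∧ ‖w - N‖ ≤ δ / 4) ∧
      ∀ e : E2, ‖e‖ = 1 → ‖e - N‖ ≤ δ / 8 → rnd δ e ∈ F := by
  classical
  have h32 : (0 : ℝ) < δ / 32 := by positivity
  set x : ℤ := ⌊N 0 / (δ / 32)⌋ with hx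
  set y : ℤ := ⌊N 1 / (δ / 32)⌋ with hy
  refine ⟨((Finset.Icc (x - 4) (x + 4) ×ˢ Finset.Icc (y - 4) (y + 4)).image lv).filter
    (fun w => ‖w‖ = 1 ∧ ‖w - N‖ ≤ δ / 4), ?_, ?_, ?_⟩
  · refine (Finset.card_filter_le _ _).trans (Finset.card_image_le.trans ?_)
    rw [Finset.card_product, Int.card_Icc, Int.card_Icc]
    have a1 : (x + 4 + 1 - (x - 4)).toNat = 9 := by
      have : x + 4 + 1 - (x - 4) = 9 := by ring
      rw [this]; rfl
    have a2 : (y + 4 + 1 - (y - 4)).toNat = 9 := by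
      have : y + 4 + 1 - (y - 4) = 9 := by ring
      rw [this]; rfl
    rw [a1, a2]
  · intro w hw
    exact (Finset.mem_filter.1 hw).2
  · intro e he hN
    have key : ∀ u v : ℝ, |u - v| ≤ δ / 8 →
        ⌊u / (δ / 32)⌋ ∈ Finset.Icc (⌊v / (δ / 32)⌋ - 4) (⌊v / (δ / 32)⌋ + 4) := by
      intro u v h
      rw [abs_le] at h
      have h1 : v / (δ / 32) - 4 ≤ u / (δ / 32) := by
        rw [sub_le_iff_le_add, div_le_iff₀ h32, add_mul, div_mul_cancel₀ _ h32.ne']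
        linarith
      have h2 : u / (δ / 32) ≤ v / (δ / 32) + 4 := by
        rw [div_le_iff₀ h32, add_mul, div_mul_cancel₀ _ h32.ne']
        linarith
      rw [Finset.mem_Icc]
      constructor
      · have := Int.floor_le_floor h1
        have h3 : ⌊v / (δ / 32) - 4⌋ = ⌊v / (δ / 32)⌋ - 4 := by
          simp
        rwa [h3] at this
      · have := Int.floor_le_floor h2
        have h3 : ⌊v / (δ / 32) + 4⌋ = ⌊v / (δ / 32)⌋ + 4 := by
          simp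
        rwa [h3] at this
    have c0 : |e 0 - N 0| ≤ δ / 8 := by
      have := (PiLp.norm_apply_le (e - N) 0).trans hN
      simpa using this
    have c1 : |e 1 - N 1| ≤ δ / 8 := by
      have := (PiLp.norm_apply_le (e - N) 1).trans hN
      simpa using this
    refine Finset.mem_filter.2 ⟨Finset.mem_image.2 ⟨rdx δ e, ?_, rfl⟩, norm_rnd hδ hδ1 he, ?_⟩
    · exact Finset.mem_product.2 ⟨key _ _ c0, key _ _ c1⟩
    · calc ‖rnd δ e - N‖ = ‖(rnd δ e - e) + (e - N)‖ := by congr 1; abel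
        _ ≤ ‖rnd δ e - e‖ + ‖e - N‖ := norm_add_le _ _
        _ ≤ δ / 8 + δ / 8 := add_le_add (rnd_err hδ hδ1 he) hN
        _ = δ / 4 := by ring

/-- **(R2)**, set form. -/
theorem rnd_fin' {δ : ℝ} (hδ : 0 < δ) (hδ1 : δ ≤ 1) (N : E2) :
    ∃ F : Finset E2, F.card ≤ 400 ∧ (∀ w ∈ F, ‖w‖ = 1 ∧ ‖w - N‖ ≤ δ / 4) ∧
      {w | ∃ e : E2, ‖e‖ = 1 ∧ ‖e - N‖ ≤ δ / 8 ∧ w = rnd δ e} ⊆ (F : Set E2) := by
  obtain ⟨F, h1, h2, h3⟩ := rnd_fin hδ hδ1 N
  refine ⟨F, h1.trans (by norm_num), h2, ?_⟩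
  rintro w ⟨e, he, hN, rfl⟩
  exact h3 e he hN

/-! ### the aligned and the misaligned selection -/

theorem crs_neg_left (u v : E2) : crs (-u) v = -crs u v := by
  unfold crs; simp only [PiLp.neg_apply]; ring

theorem crs_neg_right (u v : E2) : crs u (-v) = -crs u v := by
  unfold crs; simp only [PiLp.neg_apply]; ring

theorem abs_crs_le (u v : E2) : |crs u v| ≤ ‖u‖ * ‖v‖ := by
  have h : crs u v ^ 2 ≤ (‖u‖ * ‖v‖) ^ 2 := by
    rw [mul_pow, Gc192.norm_sq2 u, Gc192.norm_sq2 v]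
    unfold crs
    nlinarith [sq_nonneg (u 0 * v 0 + u 1 * v 1)]
  exact abs_le_of_sq_le_sq h (by positivity)

/-- change of the second direction. -/
theorem abs_crs_sub_le (u v w : E2) : |crs u v - crs u w| ≤ ‖u‖ * ‖v - w‖ := by
  have : crs u v - crs u w = crs u (v - w) := by
    unfold crs; simp only [PiLp.sub_apply]; ring
  rw [this]
  exact abs_crs_le _ _

theorem norm_nP_le (th : ℝ) (f : Cf E2) (m : ℤ × ℤ) (y : E3) : ‖nP th f m y‖ ≤ 1 := by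
  unfold nP un
  rw [norm_smul, norm_inv, norm_norm]
  exact inv_mul_le_one

theorem norm_nP {th : ℝ} {f : Cf E2} {m : ℤ × ℤ} {y : E3}
    (h : f.gr (cen th m) (lat y) 0 ≠ 0) : ‖nP th f m y‖ = 1 := by
  unfold nP un
  rw [norm_smul, norm_inv, norm_norm]
  exact inv_mul_cancel₀ (norm_ne_zero_iff.2 h)

section sel

variable {δ θ : ℝ} {N : E2} {I1 : Finset ℕ} {P1 : ℕ → Plate} {m : ℤ × ℤ}

theorem mem_uS {I : Finset ℕ} {P : ℕ → Plate} {m : ℤ × ℤ} {y : E3} :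
    y ∈ uS I P m ↔ ∃ i ∈ I, y ∈ (P i).S m := by
  simp [uS]

theorem Sal_sub (δ θ : ℝ) (N : E2) (I1 : Finset ℕ) (P1 : ℕ → Plate) (m : ℤ × ℤ) :
    Sal δ θ N I1 P1 m ⊆ uS I1 P1 m := by
  rintro y ⟨i, hi, _, hy⟩
  exact mem_uS.2 ⟨i, hi, hy⟩

theorem Smis_sub (δ θ : ℝ) (N : E2) (I1 : Finset ℕ) (P1 : ℕ → Plate) (m : ℤ × ℤ) :
    Smis δ θ N I1 P1 m ⊆ uS I1 P1 m := by
  rintro y ⟨i, hi, _, hy⟩
  exact mem_uS.2 ⟨i, hi, hy⟩

theorem Sal_union (δ θ : ℝ) (N : E2) (I1 : Finset ℕ) (P1 : ℕ → Plate) (m : ℤ × ℤ) :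
    Sal δ θ N I1 P1 m ∪ Smis δ θ N I1 P1 m = uS I1 P1 m := by
  apply Set.Subset.antisymm
  · exact Set.union_subset (Sal_sub ..) (Smis_sub ..)
  · intro y hy
    obtain ⟨i, hi, hy⟩ := mem_uS.1 hy
    rcases le_or_gt |crs (nP θ (P1 i).f m y) N| δ with h | h
    · exact Or.inl ⟨i, hi, h, hy⟩
    · exact Or.inr ⟨i, hi, h, hy⟩

theorem Sal_disj (hd : ∀ i ∈ I1, ∀ j ∈ I1, i ≠ j → ∀ m, Disjoint ((P1 i).S m) ((P1 j).S m)) :
    Disjoint (Sal δ θ N I1 P1 m) (Smis δ θ N I1 P1 m) := by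
  rw [Set.disjoint_left]
  rintro y ⟨i, hi, h1, hy⟩ ⟨j, hj, h2, hy'⟩
  by_cases hij : i = j
  · subst hij
    exact absurd h1 (not_le.2 h2)
  · exact Set.disjoint_left.1 (hd i hi j hj hij m) hy hy'

theorem Sal_mono {δ' : ℝ} (h : δ ≤ δ') : Sal δ θ N I1 P1 m ⊆ Sal δ' θ N I1 P1 m := by
  rintro y ⟨i, hi, h1, hy⟩
  exact ⟨i, hi, h1.trans h, hy⟩

/-- change of the direction: `‖N - N'‖ ≤ t` costs `t`. -/
theorem Sal_move {N' : E2} {t : ℝ} (h : ‖N - N'‖ ≤ t) :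
    Sal δ θ N I1 P1 m ⊆ Sal (δ + t) θ N' I1 P1 m := by
  rintro y ⟨i, hi, h1, hy⟩
  refine ⟨i, hi, ?_, hy⟩
  have h2 := abs_crs_sub_le (nP θ (P1 i).f m y) N' N
  have h3 : ‖nP θ (P1 i).f m y‖ * ‖N' - N‖ ≤ 1 * t :=
    mul_le_mul (norm_nP_le θ (P1 i).f m y) (by rw [norm_sub_rev]; exact h) (norm_nonneg _)
      zero_le_one
  have h4 := abs_sub_abs_le_abs_sub (crs (nP θ (P1 i).f m y) N') (crs (nP θ (P1 i).f m y) N)
  linarith

theorem Smis_move {N' : E2} {t : ℝ} (h : ‖N - N'‖ ≤ t) :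
    Smis δ θ N I1 P1 m ⊆ Smis (δ - t) θ N' I1 P1 m := by
  rintro y ⟨i, hi, h1, hy⟩
  refine ⟨i, hi, ?_, hy⟩
  have h2 := abs_crs_sub_le (nP θ (P1 i).f m y) N N'
  have h3 : ‖nP θ (P1 i).f m y‖ * ‖N - N'‖ ≤ 1 * t :=
    mul_le_mul (norm_nP_le θ (P1 i).f m y) h (norm_nonneg _) zero_le_one
  have h4 := abs_sub_abs_le_abs_sub (crs (nP θ (P1 i).f m y) N) (crs (nP θ (P1 i).f m y) N')
  linarith

end sel

/-! ### measurability -/

theorem measurable_lat : Measurable (lat : E3 → E2) := by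
  have : Continuous (lat : E3 → E2) := by
    unfold lat
    fun_prop
  exact this.measurable

theorem measurable_nP (th : ℝ) (f : Cf E2) (m : ℤ × ℤ) : Measurable (nP th f m) := by
  have h : Measurable fun y : E3 => f.gr (cen th m) (lat y) 0 := by
    unfold Cf.gr
    exact ((measurable_lat.const_smul (2 * f.d)).const_add f.be).sub_const _
  unfold nP un
  exact (h.norm.inv).smul h

theorem measurable_crs_left (N : E2) : Measurable fun u : E2 => crs u N := by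
  have : Continuous fun u : E2 => crs u N := by
    unfold crs
    fun_prop
  exact this.measurable

theorem measurable_rdx (δ : ℝ) : Measurable (rdx δ) := by
  have h : ∀ i : Fin 2, Measurable fun e : E2 => ⌊e i / (δ / 32)⌋ := by
    intro i
    have h1 : Measurable fun e : E2 => e i / (δ / 32) := by
      have : Continuous fun e : E2 => e i / (δ / 32) := by fun_prop
      exact this.measurable
    exact Int.measurable_floor.comp h1
  exact (h 0).prodMk (h 1)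

theorem measurable_rnd (δ : ℝ) : Measurable (rnd δ) :=
  (measurable_of_countable lv).comp (measurable_rdx δ)

/-- **(R3)** -/
theorem measurable_rnd_nP (δ th : ℝ) (f : Cf E2) (m : ℤ × ℤ) :
    Measurable fun y => rnd δ (nP th f m y) :=
  (measurable_rnd δ).comp (measurable_nP th f m)

theorem measurableSet_Sal {δ θ : ℝ} {N : E2} {I1 : Finset ℕ} {P1 : ℕ → Plate} {m : ℤ × ℤ}
    (hm : ∀ i ∈ I1, MeasurableSet ((P1 i).S m)) : MeasurableSet (Sal δ θ N I1 P1 m) := by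
  have : Sal δ θ N I1 P1 m =
      ⋃ i ∈ I1, ({y | |crs (nP θ (P1 i).f m y) N| ≤ δ} ∩ (P1 i).S m) := by
    ext y; simp only [Sal, Set.mem_setOf_eq, Set.mem_iUnion, Set.mem_inter_iff, exists_prop]
  rw [this]
  refine Finset.measurableSet_biUnion _ fun i hi => MeasurableSet.inter ?_ (hm i hi)
  exact measurableSet_le (((measurable_crs_left N).comp (measurable_nP θ _ m)).abs) measurable_const

theorem measurableSet_Smis {δ θ : ℝ} {N : E2} {I1 : Finset ℕ} {P1 : ℕ → Plate} {m : ℤ × ℤ}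
    (hm : ∀ i ∈ I1, MeasurableSet ((P1 i).S m)) : MeasurableSet (Smis δ θ N I1 P1 m) := by
  have : Smis δ θ N I1 P1 m =
      ⋃ i ∈ I1, ({y | δ < |crs (nP θ (P1 i).f m y) N|} ∩ (P1 i).S m) := by
    ext y; simp only [Smis, Set.mem_setOf_eq, Set.mem_iUnion, Set.mem_inter_iff, exists_prop]
  rw [this]
  refine Finset.measurableSet_biUnion _ fun i hi => MeasurableSet.inter ?_ (hm i hi)
  exact measurableSet_lt measurable_const (((measurable_crs_left N).comp (measurable_nP θ _ m)).abs)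

theorem measurableSet_uS {I1 : Finset ℕ} {P1 : ℕ → Plate} {m : ℤ × ℤ}
    (hm : ∀ i ∈ I1, MeasurableSet ((P1 i).S m)) : MeasurableSet (uS I1 P1 m) := by
  unfold uS
  exact Finset.measurableSet_biUnion _ fun i hi => hm i hi

/-- bounded measurable selections. -/
theorem Bsc_uS {ρ B : ℝ} {I1 : Finset ℕ} {P1 : ℕ → Plate}
    (hm : ∀ i ∈ I1, ∀ m, MeasurableSet ((P1 i).S m))
    (hb : ∀ m, uS I1 P1 m ⊆ Metric.closedBall 0 B) : Bsc ρ (uS I1 P1) :=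
  Bsc.of_ball (fun m => measurableSet_uS fun i hi => hm i hi m) hb

theorem Bsc_Sal {ρ B δ θ : ℝ} {N : E2} {I1 : Finset ℕ} {P1 : ℕ → Plate}
    (hm : ∀ i ∈ I1, ∀ m, MeasurableSet ((P1 i).S m))
    (hb : ∀ m, uS I1 P1 m ⊆ Metric.closedBall 0 B) : Bsc ρ (Sal δ θ N I1 P1) :=
  Bsc.of_ball (fun m => measurableSet_Sal fun i hi => hm i hi m)
    (fun m => (Sal_sub _ _ _ _ _ m).trans (hb m))

theorem Bsc_Smis {ρ B δ θ : ℝ} {N : E2} {I1 : Finset ℕ} {P1 : ℕ → Plate}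
    (hm : ∀ i ∈ I1, ∀ m, MeasurableSet ((P1 i).S m))
    (hb : ∀ m, uS I1 P1 m ⊆ Metric.closedBall 0 B) : Bsc ρ (Smis δ θ N I1 P1) :=
  Bsc.of_ball (fun m => measurableSet_Smis fun i hi => hm i hi m)
    (fun m => (Smis_sub _ _ _ _ _ m).trans (hb m))

/-- the parent wave splits into the aligned and the misaligned part. -/
theorem selc_al_mis {η0 κ ρ B δ θ : ℝ} {g : E3 → ℂ} (hg : Integrable g) {N : E2}
    {I1 : Finset ℕ} {P1 : ℕ → Plate} (hm : ∀ i ∈ I1, ∀ m, MeasurableSet ((P1 i).S m))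
    (hb : ∀ m, uS I1 P1 m ⊆ Metric.closedBall 0 B)
    (hd : ∀ i ∈ I1, ∀ j ∈ I1, i ≠ j → ∀ m, Disjoint ((P1 i).S m) ((P1 j).S m)) (ζ : E3) :
    selc η0 κ ρ g (uS I1 P1) ζ =
      selc η0 κ ρ g (Sal δ θ N I1 P1) ζ + selc η0 κ ρ g (Smis δ θ N I1 P1) ζ :=
  selc_add hg (Bsc_Sal hm hb) (Bsc_Smis hm hb) (fun _ _ => Sal_disj hd)
    (fun m _ => (Sal_union ..).symm) ζ

theorem measurable_lv : Measurable (lv : ℤ × ℤ → E2) := measurable_of_countable lv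

/-- a function of the rounded direction and of the position is measurable as soon as every
section is. -/
theorem measurable_of_rdx {γ : Type*} [MeasurableSpace γ] {F : ℤ × ℤ → E3 → γ}
    (hF : ∀ a, Measurable (F a)) {w : E3 → E2} (hw : Measurable w) (δ : ℝ) :
    Measurable fun y => F (rdx δ (w y)) y := by
  have h : Measurable fun p : E3 × (ℤ × ℤ) => F p.2 p.1 :=
    measurable_from_prod_countable_left fun a => hF a
  exact h.comp (measurable_id.prodMk ((measurable_rdx δ).comp hw))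

section fields

variable {η0 κ ρ ρ' B δ θ th : ℝ} {g : E3 → ℂ} {I1 : Finset ℕ} {P1 : ℕ → Plate}

/-- the child coefficients of the parent wave restricted to the aligned part, with respect to the
ROUNDED own normal. -/
theorem measurable_umc_Sal (hκ : 0 < κ) (hρ : 0 < ρ) (hg : Integrable g)
    (hm : ∀ i ∈ I1, ∀ m, MeasurableSet ((P1 i).S m))
    (hb : ∀ m, uS I1 P1 m ⊆ Metric.closedBall 0 B) (z : E3 × ℝ) (f : Cf E2) (m : ℤ × ℤ) :
    Measurable fun y => umc ρ' (trc z (selc η0 κ ρ g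
      (Sal δ θ (rnd δ (nP th f m y)) I1 P1))) m y := by
  refine measurable_of_rdx (F := fun a y => umc ρ' (trc z (selc η0 κ ρ g
    (Sal δ θ (lv a) I1 P1))) m y) (fun a => ?_) (measurable_nP th f m) δ
  exact (umc_cont (trc_int (selc_int hκ hρ hg (Bsc_Sal hm hb)).1 z) ρ' m).measurable

theorem measurable_umc_Smis (hκ : 0 < κ) (hρ : 0 < ρ) (hg : Integrable g)
    (hm : ∀ i ∈ I1, ∀ m, MeasurableSet ((P1 i).S m))
    (hb : ∀ m, uS I1 P1 m ⊆ Metric.closedBall 0 B) (z : E3 × ℝ) (f : Cf E2) (m : ℤ × ℤ) :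
    Measurable fun y => umc ρ' (trc z (selc η0 κ ρ g
      (Smis δ θ (rnd δ (nP th f m y)) I1 P1))) m y := by
  refine measurable_of_rdx (F := fun a y => umc ρ' (trc z (selc η0 κ ρ g
    (Smis δ θ (lv a) I1 P1))) m y) (fun a => ?_) (measurable_nP th f m) δ
  exact (umc_cont (trc_int (selc_int hκ hρ hg (Bsc_Smis hm hb)).1 z) ρ' m).measurable

theorem measurable_umc_uS (hκ : 0 < κ) (hρ : 0 < ρ) (hg : Integrable g)
    (hm : ∀ i ∈ I1, ∀ m, MeasurableSet ((P1 i).S m))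
    (hb : ∀ m, uS I1 P1 m ⊆ Metric.closedBall 0 B) (z : E3 × ℝ) (m : ℤ × ℤ) :
    Measurable fun y => umc ρ' (trc z (selc η0 κ ρ g (uS I1 P1))) m y :=
  (umc_cont (trc_int (selc_int hκ hρ hg (Bsc_uS hm hb)).1 z) ρ' m).measurable

end fields

/-- the alignment condition at one phase point of the child plate `(z, f)`. -/
def AlPt (δ κ η0 : ℝ) (g : E3 → ℂ) (dl r1 : ℝ) (I1 : Finset ℕ) (P1 : ℕ → Plate)
    (z : E3 × ℝ) (f : Cf E2) (m : ℤ × ℤ) (y : E3) : Prop :=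
  ‖umc (an (dl * r1)) (trc z (selc η0 κ (an r1) g (uS I1 P1))) m y‖ ≤
    2 * ‖umc (an (dl * r1)) (trc z (selc η0 κ (an r1) g
      (Sal δ (an r1) (rnd δ (nP (an (dl * r1)) f m y)) I1 P1))) m y‖

/-- the misalignment condition at one phase point. -/
def MisPt (δ κ η0 : ℝ) (g : E3 → ℂ) (dl r1 : ℝ) (I1 : Finset ℕ) (P1 : ℕ → Plate)
    (z : E3 × ℝ) (f : Cf E2) (m : ℤ × ℤ) (y : E3) : Prop :=
  ‖umc (an (dl * r1)) (trc z (selc η0 κ (an r1) g (uS I1 P1))) m y‖ ≤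
    2 * ‖umc (an (dl * r1)) (trc z (selc η0 κ (an r1) g
      (Smis δ (an r1) (rnd δ (nP (an (dl * r1)) f m y)) I1 P1))) m y‖

section pts

variable {δ κ η0 : ℝ} {g : E3 → ℂ} {dl r1 B : ℝ} {I1 : Finset ℕ} {P1 : ℕ → Plate}
  {I : Finset ℕ} {P : ℕ → Plate}

theorem isAl_iff : IsAl δ κ η0 g dl r1 I1 P1 I P ↔
    ∀ i ∈ I, ∀ m, ∀ y ∈ (P i).S m, AlPt δ κ η0 g dl r1 I1 P1 (P i).z (P i).f m y := Iff.rfl

theorem isMis_iff : IsMis δ κ η0 g dl r1 I1 P1 I P ↔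
    ∀ i ∈ I, ∀ m, ∀ y ∈ (P i).S m, MisPt δ κ η0 g dl r1 I1 P1 (P i).z (P i).f m y := Iff.rfl

/-- **(R3)** -/
theorem measurableSet_AlPt (hκ : 0 < κ) (hr1 : 0 < r1) (hg : Integrable g)
    (hm : ∀ i ∈ I1, ∀ m, MeasurableSet ((P1 i).S m))
    (hb : ∀ m, uS I1 P1 m ⊆ Metric.closedBall 0 B) (z : E3 × ℝ) (f : Cf E2) (m : ℤ × ℤ) :
    MeasurableSet {y | AlPt δ κ η0 g dl r1 I1 P1 z f m y} := by
  have hρ : 0 < an r1 := Real.rpow_pos_of_pos hr1 _
  exact measurableSet_le (measurable_umc_uS hκ hρ hg hm hb z m).norm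
    ((measurable_umc_Sal hκ hρ hg hm hb z f m).norm.const_mul 2)

/-- **(R3)** -/
theorem measurableSet_MisPt (hκ : 0 < κ) (hr1 : 0 < r1) (hg : Integrable g)
    (hm : ∀ i ∈ I1, ∀ m, MeasurableSet ((P1 i).S m))
    (hb : ∀ m, uS I1 P1 m ⊆ Metric.closedBall 0 B) (z : E3 × ℝ) (f : Cf E2) (m : ℤ × ℤ) :
    MeasurableSet {y | MisPt δ κ η0 g dl r1 I1 P1 z f m y} := by
  have hρ : 0 < an r1 := Real.rpow_pos_of_pos hr1 _
  exact measurableSet_le (measurable_umc_uS hκ hρ hg hm hb z m).norm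
    ((measurable_umc_Smis hκ hρ hg hm hb z f m).norm.const_mul 2)

/-- every phase point is aligned or misaligned. -/
theorem al_or_mis (hκ : 0 < κ) (hr1 : 0 < r1) (hg : Integrable g)
    (hm : ∀ i ∈ I1, ∀ m, MeasurableSet ((P1 i).S m))
    (hb : ∀ m, uS I1 P1 m ⊆ Metric.closedBall 0 B)
    (hd : ∀ i ∈ I1, ∀ j ∈ I1, i ≠ j → ∀ m, Disjoint ((P1 i).S m) ((P1 j).S m))
    (z : E3 × ℝ) (f : Cf E2) (m : ℤ × ℤ) (y : E3) :
    AlPt δ κ η0 g dl r1 I1 P1 z f m y ∨ MisPt δ κ η0 g dl r1 I1 P1 z f m y := by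
  have hρ : 0 < an r1 := Real.rpow_pos_of_pos hr1 _
  unfold AlPt MisPt
  set N := rnd δ (nP (an (dl * r1)) f m y) with hN
  set GA := selc η0 κ (an r1) g (Sal δ (an r1) N I1 P1) with hGA
  set GM := selc η0 κ (an r1) g (Smis δ (an r1) N I1 P1) with hGM
  have iA : Integrable (trc z GA) := trc_int (selc_int hκ hρ hg (Bsc_Sal hm hb)).1 z
  have iM : Integrable (trc z GM) := trc_int (selc_int hκ hρ hg (Bsc_Smis hm hb)).1 z
  have h1 : selc η0 κ (an r1) g (uS I1 P1) = fun ζ => GA ζ + GM ζ := by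
    funext ζ
    exact selc_al_mis hg hm hb hd ζ
  have h2 : umc (an (dl * r1)) (trc z (selc η0 κ (an r1) g (uS I1 P1))) m y =
      umc (an (dl * r1)) (trc z GA) m y + umc (an (dl * r1)) (trc z GM) m y := by
    have h3 : trc z (selc η0 κ (an r1) g (uS I1 P1)) = fun ζ => trc z GA ζ + trc z GM ζ := by
      rw [h1]
      exact trc_add z GA GM
    rw [h3, umc_add iA iM]
  rw [h2]
  have h4 := norm_add_le (umc (an (dl * r1)) (trc z GA) m y) (umc (an (dl * r1)) (trc z GM) m y)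
  rcases le_total ‖umc (an (dl * r1)) (trc z GM) m y‖ ‖umc (an (dl * r1)) (trc z GA) m y‖ with h | h
  · left; linarith
  · right; linarith

/-- the plates restricted to their aligned points. -/
def alP (δ κ η0 : ℝ) (g : E3 → ℂ) (dl r1 : ℝ) (I1 : Finset ℕ) (P1 : ℕ → Plate) (P : ℕ → Plate) :
    ℕ → Plate := fun i => { P i with
      S := fun m => (P i).S m ∩ {y | AlPt δ κ η0 g dl r1 I1 P1 (P i).z (P i).f m y} }

/-- the plates restricted to their points which are not aligned (hence misaligned). -/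
def misP (δ κ η0 : ℝ) (g : E3 → ℂ) (dl r1 : ℝ) (I1 : Finset ℕ) (P1 : ℕ → Plate) (P : ℕ → Plate) :
    ℕ → Plate := fun i => { P i with
      S := fun m => (P i).S m \ {y | AlPt δ κ η0 g dl r1 I1 P1 (P i).z (P i).f m y} }

theorem isAl_alP : IsAl δ κ η0 g dl r1 I1 P1 I (alP δ κ η0 g dl r1 I1 P1 P) := by
  intro i _ m y hy
  exact hy.2

theorem isMis_misP (hκ : 0 < κ) (hr1 : 0 < r1) (hg : Integrable g)
    (hm : ∀ i ∈ I1, ∀ m, MeasurableSet ((P1 i).S m))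
    (hb : ∀ m, uS I1 P1 m ⊆ Metric.closedBall 0 B)
    (hd : ∀ i ∈ I1, ∀ j ∈ I1, i ≠ j → ∀ m, Disjoint ((P1 i).S m) ((P1 j).S m)) :
    IsMis δ κ η0 g dl r1 I1 P1 I (misP δ κ η0 g dl r1 I1 P1 P) := by
  intro i _ m y hy
  exact (al_or_mis hκ hr1 hg hm hb hd (P i).z (P i).f m y).resolve_left hy.2

theorem alP_meas (hκ : 0 < κ) (hr1 : 0 < r1) (hg : Integrable g)
    (hm : ∀ i ∈ I1, ∀ m, MeasurableSet ((P1 i).S m))
    (hb : ∀ m, uS I1 P1 m ⊆ Metric.closedBall 0 B) {i : ℕ} {m : ℤ × ℤ}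
    (h : MeasurableSet ((P i).S m)) :
    MeasurableSet ((alP δ κ η0 g dl r1 I1 P1 P i).S m) :=
  h.inter (measurableSet_AlPt hκ hr1 hg hm hb _ _ m)

theorem misP_meas (hκ : 0 < κ) (hr1 : 0 < r1) (hg : Integrable g)
    (hm : ∀ i ∈ I1, ∀ m, MeasurableSet ((P1 i).S m))
    (hb : ∀ m, uS I1 P1 m ⊆ Metric.closedBall 0 B) {i : ℕ} {m : ℤ × ℤ}
    (h : MeasurableSet ((P i).S m)) :
    MeasurableSet ((misP δ κ η0 g dl r1 I1 P1 P i).S m) :=
  h.diff (measurableSet_AlPt hκ hr1 hg hm hb _ _ m)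

theorem alP_union {i : ℕ} {m : ℤ × ℤ} :
    (alP δ κ η0 g dl r1 I1 P1 P i).S m ∪ (misP δ κ η0 g dl r1 I1 P1 P i).S m = (P i).S m :=
  Set.inter_union_sdiff _ _

theorem alP_disj {i : ℕ} {m : ℤ × ℤ} :
    Disjoint ((alP δ κ η0 g dl r1 I1 P1 P i).S m) ((misP δ κ η0 g dl r1 I1 P1 P i).S m) :=
  Set.disjoint_sdiff_inter.symm

theorem alP_sub {i : ℕ} {m : ℤ × ℤ} : (alP δ κ η0 g dl r1 I1 P1 P i).S m ⊆ (P i).S m :=
  Set.inter_subset_left

theorem misP_sub {i : ℕ} {m : ℤ × ℤ} : (misP δ κ η0 g dl r1 I1 P1 P i).S m ⊆ (P i).S m :=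
  Set.sdiff_subset

end pts

end Crest.Agent.R116.IsM883
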