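import Crest.Agent.R116.AlH1_339
import Crest.Agent.R116.AlD_339
import Crest.Agent.R116.UpC5_448
import Crest.Agent.R116.AlB4_888
import Crest.Agent.R116.IsM1_883
import Crest.Agent.R116.En_387

/-!
# R116 (S0155), wave side, AL-CONE (helper339): UPPER for one active cap

`cap_near` = the part of the plate energy of one child cap inside the plate cell of size `Y` around
the point; `cap_far` = the part outside.
-/

set_option autoImplicit false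

open MeasureTheory
open scoped ENNReal

namespace Crest.Agent.R116.AlC339

open Crest.Agent.R138.Defs (E2)
open Crest.Agent.R138.Wpk685 (cen caps)
open Crest.Agent.R138.Loc878 (nearL mem_nearL)
open Crest.Agent.R116.CDef480 Crest.Agent.R116.Ckm538 Crest.Agent.R116.Cad538
open Crest.Agent.R116.LZg725 (Cf)
open Crest.Agent.R116.Gc192 (un norm_un un_sub)
open Crest.Agent.R116.AlB888 (Adc Adc_mono Adc_row lat_vel)
open Crest.Agent.R116.WC188 Crest.Agent.R116.PC299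
open Crest.Agent.R116.IsM883 (rnd_fin Sal_sub measurableSet_Sal Bsc_Sal Bsc_uS)

/-- size of the centre of a cell. -/
theorem ctr_near {θ θ' κ : ℝ} (hθ : 0 < θ) (hθ' : 0 < θ') (hκ : 0 < κ) {C N : E2} (hN : ‖N‖ = 1)
    {c y1 : E3} {L0 Y R : ℝ} (hy : ‖frc θ κ C (y1 - c)‖ ≤ Y) {l : ℤ}
    (hl : l ∈ Finset.Icc (-⌈L0⌉ - 1) (⌈L0⌉ + 1)) (hR : θ / θ' * (L0 + 2) ≤ R) :
    ‖frc θ κ C (ctr θ' C N c y1 l - c)‖ ≤ Y + R := by
  have e0 : ctr θ' C N c y1 l - c = (inner ℝ N (lat (y1 - c)) + l / θ') • tl C N := by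
    unfold ctr; abel
  rw [e0, map_smul, norm_smul, Real.norm_eq_abs]
  have h1 : ‖frc θ κ C (tl C N)‖ ≤ θ := by
    refine (norm_frc_le hθ.le hκ.le C _).trans (le_of_eq ?_)
    rw [lat_tl, nrm_tl, hN, abs_zero, mul_one, mul_zero, add_zero]
  have h2 : |(inner ℝ N (lat (y1 - c)) : ℝ)| ≤ Y / θ := by
    refine (abs_real_inner_le_norm _ _).trans ?_
    rw [hN, one_mul, le_div_iff₀ hθ, mul_comm]
    exact (lat_le_frc hθ.le C _).trans hy
  have h3 : |(l : ℝ)| ≤ L0 + 2 := by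
    rw [Finset.mem_Icc] at hl
    have a1 : ((-⌈L0⌉ - 1 : ℤ) : ℝ) ≤ l := by exact_mod_cast hl.1
    have a2 : (l : ℝ) ≤ ((⌈L0⌉ + 1 : ℤ) : ℝ) := by exact_mod_cast hl.2
    push_cast at a1 a2
    have a3 := (Int.ceil_lt_add_one L0).le
    rw [abs_le]
    constructor <;> linarith
  have h4 : |(inner ℝ N (lat (y1 - c)) : ℝ) + l / θ'| ≤ Y / θ + (L0 + 2) / θ' := by
    refine (abs_add_le _ _).trans (add_le_add h2 ?_)
    rw [abs_div, abs_of_pos hθ']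
    gcongr
  have hY0 : 0 ≤ Y := (norm_nonneg _).trans hy
  calc |(inner ℝ N (lat (y1 - c)) : ℝ) + l / θ'| * ‖frc θ κ C (tl C N)‖
      ≤ (Y / θ + (L0 + 2) / θ') * θ := mul_le_mul h4 h1 (norm_nonneg _) ((abs_nonneg _).trans h4)
    _ = Y + θ / θ' * (L0 + 2) := by field_simp
    _ ≤ Y + R := by linarith

set_option maxHeartbeats 1000000 in
/-- **UPPER for one cap**, near part. -/
theorem cap_near {M A : ℝ} (hM : 1 ≤ M) (hA : 1 ≤ A) (a b : ℝ) (ha : 1 ≤ a) (n k : ℕ) :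
    ∃ C0 : ℝ, 0 ≤ C0 ∧ ∀ (κ η0 θ θ' δ s1 s2 r Gm Y T pp : ℝ) (g : E3 → ℂ) (I1 : Finset ℕ)
      (P1 : ℕ → Plate) (z : E3 × ℝ) (f : Cf E2) (m : ℤ × ℤ) (S' : Set E3) (x : E3) (t B : ℝ),
    Num M A κ θ θ' δ s1 s2 r Gm Y → Gm * θ ≤ θ' → θ' ≤ 1 → κ * θ' ≤ θ → θ' ^ 2 * r ≤ 1 → κ ≤ 1 →
    8 * a * κ ≤ 1 → Gd a b η0 κ g → (∀ i ∈ I1, ∀ m, MeasurableSet ((P1 i).S m)) →
    (∀ m, uS I1 P1 m ⊆ Metric.closedBall 0 B) → |z.2| * θ ^ 2 ≤ 1 → |z.2| ≤ T →
    Coh θ θ' κ δ Y T I1 P1 pp → 0 ≤ pp → Plt M κ s1 s2 r f → MeasurableSet S' →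
    (∀ y ∈ S', Src A s1 r f (cen θ' m) y) →
    (∀ y ∈ S', ‖umc θ' (trc z (selc η0 κ θ g (uS I1 P1))) m y‖ ≤
      2 * ‖umc θ' (trc z (selc η0 κ θ g
        (Sal δ θ (rnd δ (un f (cen θ' m) (lat y) 0)) I1 P1))) m y‖) →
    |t| ≤ r →
    ∫⁻ y in S' ∩ {y | ‖frc θ κ (cen θ' m) (y - (x + t • vel (cen θ' m)))‖ ≤ Y},
      ENNReal.ofReal (wt (frc θ κ (cen θ' m)) (2 * (n + k + 4))
        (y - (x + t • vel (cen θ' m)))) *
        ‖umc θ' (trc z (selc η0 κ θ g (uS I1 P1))) m y‖ₑ ^ 2 ≤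
      ENNReal.ofReal (C0 * (Gm * Y ^ (2 * n + 2)) * (θ / θ') * (θ ^ 2 * κ)⁻¹ *
        (pp + (caps θ).card * ((1 + Y) ^ k)⁻¹)) *
        Adc n θ κ θ' g (uS I1 P1) m (z.1 + x) (z.2 + t) := by
  obtain ⟨C1, hC1, hU⟩ := UpC448.upC_448 a b ha n k
  set c1 : ℝ := 6 * A + 5 * M with hc1
  have hc11 : 1 ≤ c1 := by linarith
  refine ⟨4 * 2 ^ (n + k + 4) * (81 * (7 * c1)) * C1 * (21 * (c1 + 3) + 201) ^ n,
    by positivity, ?_⟩
  intro κ η0 θ θ' δ s1 s2 r Gm Y T pp g I1 P1 z f m S' x t B hn hG hθ'1 hκθ hθr hκ1 haκ hg hm1 hb1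
    hz hzT hcoh hpp hp hS' hsrc hal ht
  have hθ := hn.t0
  have hθθ' := hn.tt
  have hθ' : 0 < θ' := hθ.trans_le hθθ'
  have hκ := hn.k0
  have hY := hn.Y1
  have hGm := hn.Gm1
  set C := cen θ' m with hC
  set c : E3 := x + t • vel C with hc
  have hyc : ∀ y : E3, y - c = y - t • vel C - x := fun y => by rw [hc]; abel
  by_cases hne : ∃ y1 ∈ S', ‖frc θ κ C (y1 - c)‖ ≤ Y
  swap
  · have he : S' ∩ {y | ‖frc θ κ C (y - c)‖ ≤ Y} = ∅ := by
      ext y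
      simp only [Set.mem_inter_iff, Set.mem_setOf_eq, Set.mem_empty_iff_false, iff_false]
      exact fun h => hne ⟨y, h.1, h.2⟩
    rw [he]
    simp
  obtain ⟨y1, hy1, hy1Y⟩ := hne
  have hy1Y' : ‖frc θ κ C (y1 - t • vel C - x)‖ ≤ Y := by rw [← hyc]; exact hy1Y
  obtain ⟨gs1, gs2⟩ := gr_size hn hp (hsrc y1 hy1) hy1Y'
  have hun : ‖un f C (lat x) t‖ = 1 := norm_un (k := 3/4) (by norm_num) gs1
  obtain ⟨F, hF1, hF2, hF3⟩ := rnd_fin hn.d0 hn.d1 (un f C (lat x) t)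
  set L0 : ℝ := c1 * Gm * Y ^ 2 with hL0
  have hL01 : 1 ≤ L0 := by
    have h1 : 1 ≤ Y ^ 2 := one_le_pow₀ hY
    have h2 : 1 ≤ c1 * Gm := one_le_mul_of_one_le_of_one_le hc11 hGm
    exact one_le_mul_of_one_le_of_one_le h2 h1
  set Q : ℝ := pp + (caps θ).card * ((1 + Y) ^ k)⁻¹ with hQ
  have hQ0 : 0 ≤ Q := by positivity
  set Ad := Adc n θ κ θ' g (uS I1 P1) m (z.1 + x) (z.2 + t) with hAd
  set Bd : ℝ≥0∞ := ENNReal.ofReal (C1 * (θ / θ') * (θ ^ 2 * κ)⁻¹ * Q) *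
    (ENNReal.ofReal ((21 * (c1 + 3) + 201) ^ n * Y ^ (2 * n)) * Ad) with hBd
  -- integrability
  have hgi : Integrable g := (Bas367.gd_of_supp (a := a) (b := b) hg.gm hg.gb (fun ζ hζ =>
    ⟨(inv_pos.2 (by linarith)).trans_le (hg.gs ζ hζ).1, (hg.gs ζ hζ).2.1, (hg.gs ζ hζ).2.2⟩)).int
  have hVm : ∀ ν : E2, Measurable fun y => ‖umc θ' (trc z (selc η0 κ θ g (Sal δ θ ν I1 P1))) m y‖ₑ ^ 2 := by
    intro ν
    have h1 := (Bas367.selc_int (η0 := η0) hκ hθ hgi (Bsc_Sal (ρ := θ) (δ := δ) (θ := θ) (N := ν) hm1 hb1)).1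
    exact (Bas367.umc_cont (Bas367.trc_int h1 z) θ' m).measurable.enorm.pow_const 2
  have key := cell_sum (θ := θ) (θ' := θ') (κ := κ) hθ' (C := C) (n + k + 4) (c := c) (y0 := y1)
    (L0 := L0) (Y := Y) (W := F) (fun ν hν => (hF2 ν hν).1) hS'
    (U := fun y => ‖umc θ' (trc z (selc η0 κ θ g (uS I1 P1))) m y‖ₑ ^ 2)
    (V := fun ν y => ‖umc θ' (trc z (selc η0 κ θ g (Sal δ θ ν I1 P1))) m y‖ₑ ^ 2)
    (fun ν _ => hVm ν)
    (by
      intro y hy hyY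
      have hyY' : ‖frc θ κ C (y - t • vel C - x)‖ ≤ Y := by rw [← hyc]; exact hyY
      have hnorm := norm_of_sq ((hsrc y hy).gr_sq hp hn.r0 hn.p2 (by linarith [hn.M1]) hn.hsm)
      have hu1 : ‖un f C (lat y) 0‖ = 1 := norm_un (k := 7/8) (by norm_num) hnorm.1
      have hnear := un_near hn hp (hsrc y hy) hyY'
      have hδ := hn.d0
      have hmem := hF3 (un f C (lat y) 0) hu1 (hnear.trans (by linarith))
      refine ⟨rnd δ (un f C (lat y) 0), hmem, ?_, ?_⟩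
      · exact strip_nu hn hp (hsrc y hy) (hsrc y1 hy1) ht hyY' hy1Y' (hF2 _ hmem).2
      · have h1 := hal y hy
        have h2 : ‖umc θ' (trc z (selc η0 κ θ g (uS I1 P1))) m y‖ₑ ≤
            2 * ‖umc θ' (trc z (selc η0 κ θ g
              (Sal δ θ (rnd δ (un f C (lat y) 0)) I1 P1))) m y‖ₑ := by
          rw [← ofReal_norm, ← ofReal_norm, show (2:ℝ≥0∞) = ENNReal.ofReal 2 by norm_num,
            ← ENNReal.ofReal_mul (by norm_num)]
          exact ENNReal.ofReal_le_ofReal h1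
        calc ‖umc θ' (trc z (selc η0 κ θ g (uS I1 P1))) m y‖ₑ ^ 2
            ≤ (2 * ‖umc θ' (trc z (selc η0 κ θ g
              (Sal δ θ (rnd δ (un f C (lat y) 0)) I1 P1))) m y‖ₑ) ^ 2 := by gcongr
          _ = _ := by rw [mul_pow]; norm_num)
    (Bd := Bd)
    (by
      intro ν hν l hl
      have hν1 := (hF2 ν hν).1
      have h1 := hU κ η0 θ θ' g (Sal δ θ ν I1 P1) z ν (perp ν) m (ctr θ' C ν c y1 l) Y pp hκ haκ hθ
        hθθ' hθ'1 hκθ hg.gm hg.gb hg.gs hg.slc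
        (fun m => measurableSet_Sal fun i hi => hm1 i hi m)
        (fun m => Metric.isBounded_closedBall.subset ((Sal_sub _ _ _ _ _ m).trans (hb1 m))) hz hν1
        (by rw [perp_norm, hν1]) (inner_perp ν) (by linarith) hpp
        (fun j => AlB888.strip_count_C hpp hθθ' hθ.le hcoh hν1 (by rw [perp_norm, hν1])
          (inner_perp ν) (z.1 + ctr θ' C ν c y1 l) hzT m j)
      refine le_trans h1 (mul_le_mul' le_rfl ?_)
      refine (Adc_mono (fun m => Sal_sub _ _ _ _ _ m) _ _).trans ?_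
      have hfr : ‖frc θ κ C (ctr θ' C ν c y1 l - c)‖ ≤ (c1 + 3) * Y ^ 2 := by
        refine (ctr_near hθ hθ' hκ hν1 hy1Y hl (R := (c1 + 2) * Y ^ 2) ?_).trans ?_
        · have h2 : θ / θ' * Gm ≤ 1 := by
            rw [div_mul_eq_mul_div, div_le_one hθ', mul_comm]; exact hG
          have h3 : θ / θ' ≤ 1 := (div_le_one hθ').2 hθθ'
          have h4 : 1 ≤ Y ^ 2 := one_le_pow₀ hY
          calc θ / θ' * (L0 + 2) = c1 * Y ^ 2 * (θ / θ' * Gm) + θ / θ' * 2 := by rw [hL0]; ring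
            _ ≤ c1 * Y ^ 2 * 1 + 1 * 2 := by gcongr
            _ ≤ _ := by nlinarith
        · have : Y ≤ Y ^ 2 := by nlinarith
          nlinarith
      have h5 := Adc_row (n := n) (g := g) (S := uS I1 P1) (th := θ) (kp := κ) (th1 := θ')
        (th2 := θ') (j := m) (C' := C) hθ le_rfl hκ.le hκθ (s := t)
        (by
          have hr0 := hn.r0.le
          have : |t| * (θ * θ') ≤ r * (θ' * θ') := by gcongr
          linarith [hθr, (by ring : r * (θ' * θ') = θ' ^ 2 * r)])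
        (by
          have hr0 := hn.r0.le
          have h6 : |t| * (κ * θ' ^ 2) ≤ r * (1 * θ' ^ 2) := by gcongr
          linarith [hθr, (by ring : r * (1 * θ' ^ 2) = θ' ^ 2 * r)])
        (by rw [← hC, sub_self, norm_zero]; positivity) (X := z.1 + x)
        (Y := z.1 + ctr θ' C ν c y1 l) (t := z.2) (δ := (c1 + 3) * Y ^ 2) (by positivity) (by
          have e : z.1 + ctr θ' C ν c y1 l - (z.1 + x) - t • vel C = ctr θ' C ν c y1 l - c := by
            rw [hc]; abel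
          rw [e]; exact hfr)
      refine h5.trans (mul_le_mul' (ENNReal.ofReal_le_ofReal ?_) le_rfl)
      rw [pow_mul, ← mul_pow]
      refine pow_le_pow_left₀ (by positivity) ?_ n
      have h4 : 1 ≤ Y ^ 2 := one_le_pow₀ hY
      nlinarith)
  refine key.trans ?_
  have hcardF : (F.card : ℝ≥0∞) ≤ ENNReal.ofReal 81 := by
    rw [← ENNReal.ofReal_natCast]
    exact ENNReal.ofReal_le_ofReal (by exact_mod_cast hF1)
  have hcardL : ((Finset.Icc (-⌈L0⌉ - 1) (⌈L0⌉ + 1)).card : ℝ≥0∞) ≤ ENNReal.ofReal (7 * L0) := by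
    rw [← ENNReal.ofReal_natCast]
    exact ENNReal.ofReal_le_ofReal (card_cells hL01)
  calc ENNReal.ofReal (4 * 2 ^ (n + k + 4)) *
        (F.card * ((Finset.Icc (-⌈L0⌉ - 1) (⌈L0⌉ + 1)).card * Bd))
      ≤ ENNReal.ofReal (4 * 2 ^ (n + k + 4)) *
        (ENNReal.ofReal 81 * (ENNReal.ofReal (7 * L0) * Bd)) := by gcongr
    _ = _ := by
        rw [hBd, ← mul_assoc (ENNReal.ofReal (C1 * _ * _ * _)), ← ENNReal.ofReal_mul (by positivity),
          ← mul_assoc, ← mul_assoc, ← mul_assoc, ← ENNReal.ofReal_mul (by positivity),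
          ← ENNReal.ofReal_mul (by positivity), ← ENNReal.ofReal_mul (by positivity)]
        congr 2
        rw [hL0, pow_add Y]
        ring

/-- **far part** of one cap. -/
theorem cap_far {θ κ Y : ℝ} {N : ℕ} {C : E2} {S' : Set E3} (hS' : MeasurableSet S') (hY : 0 ≤ Y)
    (c : E3) (U : E3 → ℝ≥0∞) :
    ∫⁻ y in S' ∩ {y | ¬ ‖frc θ κ C (y - c)‖ ≤ Y},
        ENNReal.ofReal (wt (frc θ κ C) N (y - c)) * U y ≤
      ENNReal.ofReal (((1 + Y) ^ N)⁻¹) * ∫⁻ y in S', U y := by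
  have hm : MeasurableSet {y : E3 | ¬ ‖frc θ κ C (y - c)‖ ≤ Y} := by
    refine MeasurableSet.compl (isClosed_le (f := fun y : E3 => ‖frc θ κ C (y - c)‖) ?_
      continuous_const).measurableSet
    fun_prop
  calc ∫⁻ y in S' ∩ {y | ¬ ‖frc θ κ C (y - c)‖ ≤ Y},
        ENNReal.ofReal (wt (frc θ κ C) N (y - c)) * U y
      ≤ ∫⁻ y in S' ∩ {y | ¬ ‖frc θ κ C (y - c)‖ ≤ Y}, ENNReal.ofReal (((1 + Y) ^ N)⁻¹) * U y := by
        refine setLIntegral_mono' (hS'.inter hm) fun y hy => mul_le_mul' ?_ le_rfl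
        refine ENNReal.ofReal_le_ofReal ?_
        have h1 : Y < ‖frc θ κ C (y - c)‖ := not_le.1 hy.2
        unfold wt
        refine inv_anti₀ (by positivity) (pow_le_pow_left₀ (by positivity) (by linarith) N)
    _ ≤ ∫⁻ y in S', ENNReal.ofReal (((1 + Y) ^ N)⁻¹) * U y := lintegral_mono_set Set.inter_subset_left
    _ = _ := lintegral_const_mul' _ _ ENNReal.ofReal_ne_top

end Crest.Agent.R116.AlC339
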