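import Crest.Agent.R116.WDefC_188

/-!
# R116 (S0155), WAVE side: leaf TRIV1 (helper126)

Also useful elsewhere: `supp_norm`, `memLp_of`, `enc_umc` (Plancherel for the pieces), `card_caps`,
`apl_le`, `card_net`, `volume_cylc`.
-/

set_option autoImplicit false

open MeasureTheory FourierTransform
open scoped ContDiff ENNReal

namespace Crest.Agent.R116.Tr126

open Crest.Agent.R138.Defs (E2 ee)
open Crest.Agent.R138.Wpk685 (cen caps cap win)
open Crest.Agent.R116.CDef480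
open Crest.Agent.R116.WC188

/-! ### integrability -/

/-- support of a state. -/
def Sp (a b : ℝ) (g : E3 → ℂ) : Prop := ∀ ζ, g ζ ≠ 0 → a⁻¹ ≤ ζ 2 ∧ ζ 2 ≤ a ∧ ‖slp ζ‖ ≤ b

theorem Sp.norm_le {a b : ℝ} (ha : 1 ≤ a) (hb : 0 ≤ b) {g : E3 → ℂ} (hg : Sp a b g) {ζ : E3}
    (h : g ζ ≠ 0) : ‖ζ‖ ≤ a * (b + 1) := by
  obtain ⟨h1, h2, h3⟩ := hg ζ h
  have ha0 : 0 < a⁻¹ := by positivity
  have h4 : 0 < ζ 2 := by linarith
  have h5 : ‖lat ζ‖ ≤ a * b := by
    rw [lat_slp h4.ne', norm_smul, Real.norm_eq_abs, abs_of_pos h4]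
    exact mul_le_mul h2 h3 (norm_nonneg _) (by linarith)
  have h6 := normsq3 ζ
  have h7 : ‖ζ‖ ^ 2 ≤ (a * (b + 1)) ^ 2 := by
    rw [h6]
    nlinarith [norm_nonneg (lat ζ), mul_nonneg (show (0:ℝ) ≤ a by linarith) hb]
  exact le_of_sq_le_sq h7 (by positivity)

theorem memLp_of {a b : ℝ} (ha : 1 ≤ a) (hb : 0 ≤ b) {g : E3 → ℂ} (hg : Sp a b g)
    (hm : Measurable g) {L : ℝ} (hL : ∀ ζ, ‖g ζ‖ ≤ L) (p : ℝ≥0∞) : MemLp g p := by
  have h1 : MemLp ((Metric.closedBall (0 : E3) (a * (b + 1))).indicator g) p :=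
    (memLp_indicator_iff_restrict Metric.isClosed_closedBall.measurableSet).2
      (by
        have : IsFiniteMeasure (volume.restrict (Metric.closedBall (0 : E3) (a * (b + 1)))) :=
          ⟨by rw [Measure.restrict_apply_univ]; exact measure_closedBall_lt_top⟩
        exact MemLp.of_bound hm.aestronglyMeasurable L (Filter.Eventually.of_forall hL))
  have h2 : (Metric.closedBall (0 : E3) (a * (b + 1))).indicator g = g := by
    funext ζ
    by_cases h : g ζ = 0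
    · simp [Set.indicator, h]
    · rw [Set.indicator_of_mem]
      simpa using hg.norm_le ha hb h
  rwa [h2] at h1

theorem Sp.trc {a b : ℝ} {g : E3 → ℂ} (hg : Sp a b g) (z : E3 × ℝ) : Sp a b (trc z g) := by
  intro ζ h
  refine hg ζ fun h0 => h ?_
  unfold CDef480.trc
  rw [h0, zero_mul]

theorem norm_trc (z : E3 × ℝ) (g : E3 → ℂ) (ζ : E3) : ‖trc z g ζ‖ = ‖g ζ‖ := by
  unfold trc
  rw [norm_mul, Crest.Agent.R138.Wpk685.norm_ee, mul_one]

theorem Enc_trc (z : E3 × ℝ) (g : E3 → ℂ) : Enc (trc z g) = Enc g := by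
  unfold Enc
  simp only [norm_trc]

theorem measurable_trc {g : E3 → ℂ} (hg : Measurable g) (z : E3 × ℝ) : Measurable (trc z g) := by
  refine hg.mul (continuous_ee'.measurable.comp ?_)
  exact ((continuous_const.inner continuous_id).measurable).add (measurable_hc.const_mul _)

theorem measurable_capc (ρ : ℝ) (m : ℤ × ℤ) : Measurable (capc ρ m) := by
  have h1 : Measurable (fun ζ => ρ⁻¹ • (slp ζ - cen ρ m)) := by
    have := (measurable_slp.sub_const (cen ρ m)).const_smul ρ⁻¹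
    exact this
  exact Crest.Agent.R138.Wpk685.win_contDiff.continuous.measurable.comp h1

theorem norm_capc_le (ρ : ℝ) (m : ℤ × ℤ) (ζ : E3) : ‖capc ρ m ζ‖ ≤ 1 :=
  Crest.Agent.R138.Wpk685.norm_win_le _

theorem ofReal_Enc {g : E3 → ℂ} (hg : MemLp g 2) :
    ENNReal.ofReal (Enc g) = ∫⁻ ζ, ‖g ζ‖ₑ ^ 2 := by
  unfold Enc
  rw [ofReal_integral_eq_lintegral_ofReal ((memLp_two_iff_integrable_sq_norm hg.1).1 hg)
    (Filter.Eventually.of_forall fun _ => by positivity)]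
  refine lintegral_congr fun ζ => ?_
  rw [ENNReal.ofReal_pow (norm_nonneg _), ofReal_norm]

theorem Enc_nonneg (g : E3 → ℂ) : 0 ≤ Enc g := integral_nonneg fun _ => by positivity

/-- Plancherel for the pieces. -/
theorem lint_umc_le {a b : ℝ} (ha : 1 ≤ a) (hb : 0 ≤ b) {g : E3 → ℂ} (hg : Sp a b g)
    (hm : Measurable g) {L : ℝ} (hL : ∀ ζ, ‖g ζ‖ ≤ L) (ρ : ℝ) (m : ℤ × ℤ) :
    ∫⁻ y, ‖umc ρ g m y‖ₑ ^ 2 ≤ ENNReal.ofReal (Enc g) := by
  set f : E3 → ℂ := fun ζ => capc ρ m ζ * g ζ with hf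
  have hf1 : ∀ ζ, ‖f ζ‖ ≤ ‖g ζ‖ := by
    intro ζ
    rw [hf]
    simp only [norm_mul]
    exact mul_le_of_le_one_left (norm_nonneg _) (norm_capc_le ρ m ζ)
  have hfm : Measurable f := (measurable_capc ρ m).mul hm
  have hfs : Sp a b f := fun ζ h => hg ζ fun h0 => h (by rw [hf]; simp [h0])
  have e1 := Crest.Agent.R138.Wf448.planchL (V := E3) (g := f)
    (memLp_one_iff_integrable.1 (memLp_of ha hb hfs hfm (fun ζ => (hf1 ζ).trans (hL ζ)) 1))
    (memLp_of ha hb hfs hfm (fun ζ => (hf1 ζ).trans (hL ζ)) 2)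
  have e2 : ∀ F : E3 → ℂ, Crest.Agent.R138.Wf448.LI (fun x => ‖F x‖ ^ 2) = ∫⁻ x, ‖F x‖ₑ ^ 2 := by
    intro F
    unfold Crest.Agent.R138.Wf448.LI
    refine lintegral_congr fun x => ?_
    rw [ENNReal.ofReal_pow (norm_nonneg _), ofReal_norm]
  rw [e2, e2] at e1
  rw [ofReal_Enc (memLp_of ha hb hg hm hL 2)]
  calc ∫⁻ y, ‖umc ρ g m y‖ₑ ^ 2 = ∫⁻ x, ‖f x‖ₑ ^ 2 := e1
    _ ≤ ∫⁻ x, ‖g x‖ₑ ^ 2 := by
        refine lintegral_mono fun x => ?_
        have h2 : ‖f x‖ₑ ≤ ‖g x‖ₑ := by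
          rw [← ofReal_norm, ← ofReal_norm]
          exact ENNReal.ofReal_le_ofReal (hf1 x)
        exact pow_le_pow_left' h2 2

/-! ### counting -/

theorem card_caps {ρ : ℝ} (hρ : 0 < ρ) (hρ1 : ρ ≤ 1) :
    ((caps ρ).card : ℝ) ≤ 81 * (ρ⁻¹) ^ 2 := by
  unfold caps
  rw [Finset.card_product, Int.card_Icc]
  have h1 : (⌈2 / ρ⌉ : ℝ) < 2 / ρ + 1 := Int.ceil_lt_add_one _
  have h2 : (2:ℝ) / ρ ≤ ⌈2 / ρ⌉ := Int.le_ceil _
  have h3 : (0:ℝ) < 2 / ρ := by positivity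
  have h4 : (1:ℝ) ≤ ρ⁻¹ := (one_le_inv₀ hρ).2 hρ1
  have h5 : (0:ℤ) ≤ ⌈2 / ρ⌉ := Int.ceil_nonneg h3.le
  have h6 : (((⌈2 / ρ⌉ + 1 + 1 - (-⌈2 / ρ⌉ - 1)).toNat : ℕ) : ℝ) ≤ 9 * ρ⁻¹ := by
    have e1 : (((⌈2 / ρ⌉ + 1 + 1 - (-⌈2 / ρ⌉ - 1)).toNat : ℕ) : ℝ) =
        ((⌈2 / ρ⌉ + 1 + 1 - (-⌈2 / ρ⌉ - 1) : ℤ) : ℝ) := by
      have := Int.toNat_of_nonneg (a := ⌈2 / ρ⌉ + 1 + 1 - (-⌈2 / ρ⌉ - 1)) (by omega)
      exact_mod_cast this
    rw [e1]
    push_cast
    have e2 : 2 / ρ = 2 * ρ⁻¹ := by rw [div_eq_mul_inv]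
    rw [e2] at h1 h2 h3 h5 ⊢
    linarith
  push_cast
  calc _ ≤ (9 * ρ⁻¹) * (9 * ρ⁻¹) := mul_le_mul h6 h6 (Nat.cast_nonneg _) (by positivity)
    _ = _ := by ring

theorem rpow_half_sq {r : ℝ} (hr : 0 < r) : ((r ^ (-(1/2) : ℝ))⁻¹) ^ 2 = r := by
  rw [← Real.rpow_neg hr.le, neg_neg, ← Real.rpow_natCast, ← Real.rpow_mul hr.le]
  norm_num

theorem apl_le {a b : ℝ} (ha : 1 ≤ a) (hb : 0 ≤ b) {g : E3 → ℂ} (hg : Sp a b g)
    (hm : Measurable g) {L : ℝ} (hL : ∀ ζ, ‖g ζ‖ ≤ L) {r : ℝ} (hr : 1 ≤ r) (p : E3 × ℝ) :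
    apl r g p ≤ ENNReal.ofReal (81 * Enc g) := by
  have hr0 : 0 < r := by linarith
  have hρ : 0 < r ^ (-(1/2) : ℝ) := Real.rpow_pos_of_pos hr0 _
  have hρ1 : r ^ (-(1/2) : ℝ) ≤ 1 := Real.rpow_le_one_of_one_le_of_nonpos hr (by norm_num)
  have hc := card_caps hρ hρ1
  rw [rpow_half_sq hr0] at hc
  unfold apl
  calc _ ≤ ENNReal.ofReal r⁻¹ * ∑ m ∈ caps (r ^ (-(1/2) : ℝ)), ENNReal.ofReal (Enc g) := by
        gcongr with m hm'
        exact (setLIntegral_le_lintegral _ _).trans (lint_umc_le ha hb hg hm hL _ m)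
    _ = ENNReal.ofReal (r⁻¹ * ((caps (r ^ (-(1/2) : ℝ))).card * Enc g)) := by
        rw [Finset.sum_const, nsmul_eq_mul, ENNReal.ofReal_mul (by positivity),
          ENNReal.ofReal_mul (by positivity), ENNReal.ofReal_natCast]
    _ ≤ _ := by
        apply ENNReal.ofReal_le_ofReal
        calc r⁻¹ * ((caps (r ^ (-(1/2) : ℝ))).card * Enc g) ≤ r⁻¹ * ((81 * r) * Enc g) := by
              have := Enc_nonneg g
              gcongr
          _ = 81 * Enc g := by field_simp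

theorem cylc_eq (R : ℝ) : cylc R = Metric.closedBall (0 : E3 × ℝ) R := by
  ext p
  rw [mem_closedBall_zero_iff, Prod.norm_def, max_le_iff, Real.norm_eq_abs]
  rfl

/-- volume of the unit cylinder. -/
noncomputable def v4 : ℝ := (volume (Metric.closedBall (0 : E3 × ℝ) 1)).toReal

theorem v4_eq : volume (Metric.closedBall (0 : E3 × ℝ) 1) = ENNReal.ofReal v4 := by
  unfold v4
  rw [ENNReal.ofReal_toReal measure_closedBall_lt_top.ne]

theorem v4_pos : 0 < v4 := by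
  unfold v4
  refine ENNReal.toReal_pos ?_ measure_closedBall_lt_top.ne
  exact (Metric.measure_closedBall_pos volume (0 : E3 × ℝ) one_pos).ne'

theorem finrank4 : Module.finrank ℝ (E3 × ℝ) = 4 := by
  rw [Module.finrank_prod, finrank_euclideanSpace_fin, Module.finrank_self]

theorem volume_ball4 (z : E3 × ℝ) {R : ℝ} (hR : 0 ≤ R) :
    volume (Metric.closedBall z R) = ENNReal.ofReal (R ^ 4 * v4) := by
  have : (volume : Measure (E3 × ℝ)).IsAddHaarMeasure := by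
    rw [Measure.volume_eq_prod]; infer_instance
  rw [Measure.addHaar_closedBall' volume z hR, finrank4, v4_eq, ENNReal.ofReal_mul (by positivity)]

theorem volume_cylc {R : ℝ} (hR : 0 ≤ R) : volume (cylc R) = ENNReal.ofReal (R ^ 4 * v4) := by
  rw [cylc_eq, volume_ball4 _ hR]

/-- packing: number of frames of a net. -/
theorem card_net {r R : ℝ} (hr : 0 < r) (hrR : r ≤ R) {Z : Finset (E3 × ℝ)} (hZ : Net r R Z) :
    (Z.card : ℝ) ≤ (6 * R / r) ^ 4 := by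
  have hR : 0 < R := by linarith
  have hd : (Z : Set (E3 × ℝ)).PairwiseDisjoint fun z => Metric.closedBall z (r / 3) := by
    intro z hz z' hz' hne
    rcases hZ.sep z hz z' hz' with h | h | h
    · exact absurd h hne
    · refine Metric.closedBall_disjoint_closedBall ?_
      rw [Prod.dist_eq]
      refine lt_of_lt_of_le ?_ (le_max_left _ _)
      rw [dist_eq_norm]
      linarith
    · refine Metric.closedBall_disjoint_closedBall ?_
      rw [Prod.dist_eq]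
      refine lt_of_lt_of_le ?_ (le_max_right _ _)
      rw [Real.dist_eq]
      linarith
  have hsub : (⋃ z ∈ Z, Metric.closedBall z (r / 3)) ⊆ Metric.closedBall (0 : E3 × ℝ) (2 * R) := by
    intro p hp
    simp only [Set.mem_iUnion] at hp
    obtain ⟨z, hz, hp⟩ := hp
    have h1 := hZ.mem z hz
    rw [cylc_eq, mem_closedBall_zero_iff] at h1
    rw [mem_closedBall_zero_iff]
    rw [mem_closedBall_iff_norm] at hp
    calc ‖p‖ = ‖(p - z) + z‖ := by rw [sub_add_cancel]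
      _ ≤ ‖p - z‖ + ‖z‖ := norm_add_le _ _
      _ ≤ 2 * R := by linarith
  have h1 : ∑ z ∈ Z, volume (Metric.closedBall z (r / 3)) ≤
      volume (Metric.closedBall (0 : E3 × ℝ) (2 * R)) := by
    rw [← measure_biUnion_finset hd fun z _ => Metric.isClosed_closedBall.measurableSet]
    exact measure_mono hsub
  simp only [volume_ball4 _ (show (0:ℝ) ≤ r / 3 by positivity)] at h1
  rw [volume_ball4 _ (by positivity), Finset.sum_const, nsmul_eq_mul, ← ENNReal.ofReal_natCast,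
    ← ENNReal.ofReal_mul (Nat.cast_nonneg _)] at h1
  have hv := v4_pos
  rw [ENNReal.ofReal_le_ofReal_iff (by positivity)] at h1
  have h2 : (Z.card : ℝ) * (r / 3) ^ 4 ≤ (2 * R) ^ 4 := by
    have : (Z.card : ℝ) * (r / 3) ^ 4 * v4 ≤ (2 * R) ^ 4 * v4 := by linarith
    exact le_of_mul_le_mul_right this hv
  have h3 : (6 * R / r) ^ 4 * (r / 3) ^ 4 = (2 * R) ^ 4 := by
    rw [← mul_pow]; congr 1; field_simp; ring
  rw [← h3] at h2
  exact le_of_mul_le_mul_right h2 (by positivity)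

/-- crude bound of the plate functional by the energy. -/
theorem NP_le {a b : ℝ} (ha : 1 ≤ a) (hb : 0 ≤ b) {g : E3 → ℂ} (hg : Sp a b g)
    (hm : Measurable g) {L : ℝ} (hL : ∀ ζ, ‖g ζ‖ ≤ L) {A r R : ℝ} (hA : 0 ≤ A) (hr : 1 ≤ r)
    (hrR : r ≤ R) :
    NP A r g R ≤ ENNReal.ofReal ((6 * A) ^ 4 * v4 * 729 * R ^ 4 * (Enc g) ^ (3 / 2 : ℝ)) := by
  have hr0 : 0 < r := by linarith
  have hR0 : 0 < R := by linarith
  have hE := Enc_nonneg g
  have hv := v4_pos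
  unfold NP
  refine iSup₂_le fun Z hZ => ?_
  have h1 : ∀ z ∈ Z, ∫⁻ p in cylc (A * r), (apl r (trc z g) p) ^ (3 / 2 : ℝ) ≤
      ENNReal.ofReal ((81 * Enc g) ^ (3 / 2 : ℝ) * ((A * r) ^ 4 * v4)) := by
    intro z _
    calc _ ≤ ∫⁻ _ in cylc (A * r), ENNReal.ofReal (81 * Enc g) ^ (3 / 2 : ℝ) := by
          refine lintegral_mono fun p => ?_
          refine ENNReal.rpow_le_rpow ?_ (by norm_num)
          have := apl_le ha hb (hg.trc z) (measurable_trc hm z)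
            (fun ζ => (norm_trc z g ζ).le.trans (hL ζ)) hr p
          rwa [Enc_trc] at this
      _ = _ := by
          rw [setLIntegral_const, volume_cylc (by positivity),
            ENNReal.ofReal_rpow_of_nonneg (by positivity) (by norm_num),
            ← ENNReal.ofReal_mul (by positivity)]
  calc _ ≤ ∑ z ∈ Z, ENNReal.ofReal ((81 * Enc g) ^ (3 / 2 : ℝ) * ((A * r) ^ 4 * v4)) :=
        Finset.sum_le_sum h1
    _ = ENNReal.ofReal (Z.card * ((81 * Enc g) ^ (3 / 2 : ℝ) * ((A * r) ^ 4 * v4))) := by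
        rw [Finset.sum_const, nsmul_eq_mul, ENNReal.ofReal_mul (Nat.cast_nonneg _),
          ENNReal.ofReal_natCast]
    _ ≤ _ := by
        apply ENNReal.ofReal_le_ofReal
        have e1 : (81 * Enc g) ^ (3 / 2 : ℝ) = 729 * (Enc g) ^ (3 / 2 : ℝ) := by
          rw [Real.mul_rpow (by norm_num) hE]
          congr 1
          rw [show (81:ℝ) = 9 ^ (2:ℝ) by norm_num, ← Real.rpow_mul (by norm_num)]
          norm_num
        rw [e1]
        calc _ ≤ (6 * R / r) ^ 4 * (729 * Enc g ^ (3 / 2 : ℝ) * ((A * r) ^ 4 * v4)) := by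
              gcongr
              exact card_net hr0 hrR hZ
          _ = _ := by field_simp

/-- **TRIV1**. -/
theorem triv1 (M q : ℝ) : TRIV1 M q := by
  intro a b A M0 ha hb hb2 hA
  have hv := v4_pos
  refine ⟨(6 * A) ^ 4 * v4 * 729, by positivity, ?_⟩
  intro C0 σ g R D hS r hr hrR
  obtain ⟨L, hL⟩ := hS.bdd
  have hsp : Sp a b g := fun ζ h => ⟨(hS.supp ζ h).1, (hS.supp ζ h).2.1, (hS.supp ζ h).2.2.1⟩
  refine (NP_le ha hb.le hsp hS.meas hL (by linarith) hr hrR).trans ?_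
  apply ENNReal.ofReal_le_ofReal
  have hR : 1 ≤ R := hS.R1
  have hR0 : 0 < R := by linarith
  have hE := Enc_nonneg g
  have hD := hS.D0
  have h1 : Enc g ^ (3 / 2 : ℝ) ≤ Enc g * (R ^ (M0 / 2) * Real.sqrt D) := by
    have e1 : Enc g ^ (3 / 2 : ℝ) = Enc g * Real.sqrt (Enc g) := by
      rcases hE.eq_or_lt with h0 | h0
      · rw [← h0, zero_mul, Real.zero_rpow (by norm_num)]
      · rw [show (3 / 2 : ℝ) = 1 + 1 / 2 by norm_num, Real.rpow_add h0, Real.rpow_one,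
          Real.sqrt_eq_rpow]
    rw [e1]
    refine mul_le_mul_of_nonneg_left ?_ hE
    calc Real.sqrt (Enc g) ≤ Real.sqrt (R ^ M0 * D) := Real.sqrt_le_sqrt hS.nd
      _ = R ^ (M0 / 2) * Real.sqrt D := by
          rw [Real.sqrt_mul (by positivity), Real.sqrt_eq_rpow, ← Real.rpow_mul hR0.le]
          congr 2
          ring
  unfold SS
  have h2 : R ^ (M0 / 2 + 8) * R = R ^ 9 * R ^ (M0 / 2) := by
    rw [Real.rpow_add hR0, show (8:ℝ) = ((8:ℕ) : ℝ) by norm_num, Real.rpow_natCast]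
    ring
  have h3 : R ^ 4 ≤ R ^ 9 := pow_le_pow_right₀ hR (by norm_num)
  calc (6 * A) ^ 4 * v4 * 729 * R ^ 4 * Enc g ^ (3 / 2 : ℝ)
      ≤ (6 * A) ^ 4 * v4 * 729 * R ^ 9 * (Enc g * (R ^ (M0 / 2) * Real.sqrt D)) := by
        gcongr
    _ = (6 * A) ^ 4 * v4 * 729 * (R ^ 9 * R ^ (M0 / 2)) * (Enc g * Real.sqrt D) := by ring
    _ = _ := by rw [← h2]; ring

end Crest.Agent.R116.Tr126
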