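import Crest.Agent.R116.AlH2_339
import Crest.Agent.R116.Tr1_126

/-!
# R116 (S0155), wave side, AL-CONE (helper339): the bound (H) for every child plate

`ctx_num` = the numbers of the slab step from `Ctx` (`G ≥ 2`); `fam_ok` = the family of parent caps;
**`hh`** = the Prop `HH` of `AlD_339`.
-/

set_option autoImplicit false

open MeasureTheory
open scoped ENNReal

namespace Crest.Agent.R116.AlC339

open Crest.Agent.R138.Defs (E2)
open Crest.Agent.R138.Wpk685 (cen caps)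
open Crest.Agent.R138.Loc878 (nearL mem_nearL)
open Crest.Agent.R116.CDef480 Crest.Agent.R116.Ckm538 Crest.Agent.R116.Cad538
open Crest.Agent.R116.LZg725 (Cf)
open Crest.Agent.R116.Gc192 (un norm_un un_sub)
open Crest.Agent.R116.AlB888 (Adc Adc_mono Adc_row lat_vel sum_Adc_le wide_nums lower_C an_step an_sq an_pos)
open Crest.Agent.R116.WC188 Crest.Agent.R116.PC299

/-- numbers of `dl`, in terms of `e = dl ^ (1/4)`. -/
theorem e_num {M A dl G Gm Y : ℝ} (hM : 1 ≤ M) (hA : 1 ≤ A) (hdl : 0 < dl)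
    (hdl0 : dl ≤ ((3584 * M * A) ^ 2)⁻¹) (hG : 2 ≤ G)
    (hGm2 : Gm ≤ dl ^ (-(1/4) : ℝ)) (hY2 : Y ≤ dl ^ (-(1/4) : ℝ)) (hGm : 1 ≤ Gm) (hY : 1 ≤ Y) :
    ∃ e : ℝ, 0 < e ∧ e ≤ 1 ∧ e ^ 4 = dl ∧ e ^ 2 = dl ^ (1/2 : ℝ) ∧ Gm * e ≤ 1 ∧ Y * e ≤ 1 ∧
      3584 * (M * A) * e ^ 2 ≤ 1 ∧ (dl * dl)⁻¹ ≤ dl ^ (-G) := by
  have hMA : 1 ≤ M * A := one_le_mul_of_one_le_of_one_le hM hA
  have hP : (1:ℝ) ≤ 3584 * M * A := by nlinarith
  have hdl1 : dl ≤ 1 := hdl0.trans (inv_le_one_of_one_le₀ (one_le_pow₀ hP))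
  obtain ⟨e, he⟩ : ∃ e : ℝ, e = dl ^ (1/4 : ℝ) := ⟨_, rfl⟩
  have he0 : 0 < e := by rw [he]; exact Real.rpow_pos_of_pos hdl _
  have he1 : e ≤ 1 := by rw [he]; exact Real.rpow_le_one hdl.le hdl1 (by norm_num)
  have e4 : e ^ 4 = dl := by
    rw [he, ← Real.rpow_natCast, ← Real.rpow_mul hdl.le]; norm_num
  have e2 : e ^ 2 = dl ^ (1/2 : ℝ) := by
    rw [he, ← Real.rpow_natCast, ← Real.rpow_mul hdl.le]; norm_num
  have ei : dl ^ (-(1/4) : ℝ) = e⁻¹ := by rw [he, Real.rpow_neg hdl.le]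
  rw [ei] at hGm2 hY2
  refine ⟨e, he0, he1, e4, e2, ?_, ?_, ?_, ?_⟩
  · calc Gm * e ≤ e⁻¹ * e := by gcongr
      _ = 1 := inv_mul_cancel₀ he0.ne'
  · calc Y * e ≤ e⁻¹ * e := by gcongr
      _ = 1 := inv_mul_cancel₀ he0.ne'
  · have h1 : (3584 * (M * A) * e ^ 2) ^ 2 ≤ 1 ^ 2 := by
      have h2 : (3584 * (M * A) * e ^ 2) ^ 2 = (3584 * M * A) ^ 2 * dl := by rw [← e4]; ring
      rw [h2, one_pow]
      calc (3584 * M * A) ^ 2 * dl ≤ (3584 * M * A) ^ 2 * ((3584 * M * A) ^ 2)⁻¹ := by gcongr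
        _ = 1 := mul_inv_cancel₀ (by positivity)
    exact (pow_le_pow_iff_left₀ (by positivity) (by norm_num) (by norm_num)).1 h1
  · have h1 : (dl * dl)⁻¹ = dl ^ (-2 : ℝ) := by
      rw [Real.rpow_neg hdl.le, Real.rpow_two, sq]
    rw [h1]
    exact Real.rpow_le_rpow_of_exponent_ge hdl hdl1 (by linarith)

/-- the numbers of the slab step. -/
theorem num_of {M A κ r1 dl s1 s2 G Gm Y : ℝ} (hM : 1 ≤ M) (hA : 1 ≤ A) (hκ : 0 < κ)
    (hdl : 0 < dl) (hdl0 : dl ≤ ((3584 * M * A) ^ 2)⁻¹) (hG : 2 ≤ G) (hr1 : 0 < r1)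
    (hGm2 : Gm ≤ dl ^ (-(1/4) : ℝ)) (hY2 : Y ≤ dl ^ (-(1/4) : ℝ)) (hGm : 1 ≤ Gm) (hY : 1 ≤ Y)
    (hlo : an (dl * r1) ≤ s1) (hle : s1 ≤ s2) (hthin : s1 ≤ Gm * an (dl * r1))
    (hwide : dl ^ (-G) * an (dl * r1) ≤ s2) :
    Num M A κ (an r1) (an (dl * r1)) (dl ^ (1/2 : ℝ)) s1 s2 (dl * r1) Gm Y := by
  obtain ⟨e, he0, he1, e4, e2, g1, y1, k1, w⟩ := e_num hM hA hdl hdl0 hG hGm2 hY2 hGm hY
  have hdr : 0 < dl * r1 := mul_pos hdl hr1
  have p0 : 0 < an r1 := an_pos hr1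
  have p1 : 0 < an (dl * r1) := an_pos hdr
  have e01 : dl ^ (1/2 : ℝ) * an (dl * r1) = an r1 := an_step hr1 hdl
  have e1 : an (dl * r1) ^ 2 * (dl * r1) = 1 := an_sq hdr
  have e0 : an r1 ^ 2 * r1 = 1 := an_sq hr1
  have hs1 : 0 < s1 := p1.trans_le hlo
  have hs2 : 0 < s2 := hs1.trans_le hle
  have w1 : (dl * dl)⁻¹ * an (dl * r1) ≤ s2 := le_trans (by gcongr) hwide
  have w2 : an (dl * r1) ≤ dl * dl * s2 := by
    have h1 : (dl * dl) * ((dl * dl)⁻¹ * an (dl * r1)) ≤ (dl * dl) * s2 := by gcongr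
    rwa [mul_inv_cancel_left₀ (by positivity)] at h1
  have hMA : 1 ≤ M * A := one_le_mul_of_one_le_of_one_le hM hA
  have hdl1 : dl ≤ 1 := by rw [← e4]; exact pow_le_one₀ he0.le he1
  have hδ1 : dl ^ (1/2 : ℝ) ≤ 1 := by rw [← e2]; exact pow_le_one₀ he0.le he1
  have w3 : an (dl * r1) ≤ dl * s2 := by
    refine w2.trans ?_
    have : dl * dl ≤ 1 * dl := by gcongr
    nlinarith
  refine ⟨hM, hA, hκ, p0, ?_, Real.rpow_pos_of_pos hdl _, hδ1, hs1, hs2, hdr, hGm, hY, ?_, ?_, ?_,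
    e01.le, ?_⟩
  · rw [← e01]
    exact mul_le_of_le_one_left p1.le hδ1
  · -- `32 M A s1 ≤ s2`
    have h1 : 32 * M * A * s1 ≤ 32 * M * A * (Gm * (dl * s2)) := by
      have : s1 ≤ Gm * (dl * s2) := hthin.trans (by gcongr)
      gcongr
    refine h1.trans ?_
    have h2 : 32 * M * A * (Gm * (dl * s2)) = (32 * (M * A) * e ^ 2) * (Gm * e) * e * s2 := by
      rw [← e4]; ring
    rw [h2]
    have h3 : 32 * (M * A) * e ^ 2 ≤ 1 := by
      have : 0 ≤ M * A * e ^ 2 := by positivity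
      nlinarith
    calc (32 * (M * A) * e ^ 2) * (Gm * e) * e * s2 ≤ 1 * 1 * 1 * s2 := by gcongr
      _ = s2 := by ring
  · -- thin
    calc an (dl * r1) * (s1 * (dl * r1)) ≤ an (dl * r1) * ((Gm * an (dl * r1)) * (dl * r1)) := by
          gcongr
      _ = Gm * (an (dl * r1) ^ 2 * (dl * r1)) := by ring
      _ = Gm := by rw [e1, mul_one]
  · -- cur
    calc an (dl * r1) ≤ dl * s2 := w3
      _ = s2 * dl * (an r1 ^ 2 * r1) := by rw [e0]; ring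
      _ = _ := by ring
  · -- var
    have h1 : dl ^ (1/2 : ℝ) * (an r1 * (s2 * (dl * r1))) * (an r1 * an (dl * r1)) =
        (dl ^ (1/2 : ℝ) * an (dl * r1)) * (dl * s2) * (an r1 ^ 2 * r1) := by ring
    rw [e0, e01, mul_one] at h1
    -- so `... * an (dl r1) = dl s2`
    have h2 : dl ^ (1/2 : ℝ) * (an r1 * (s2 * (dl * r1))) * an (dl * r1) = dl * s2 := by
      have : an r1 * (dl ^ (1/2 : ℝ) * (an r1 * (s2 * (dl * r1))) * an (dl * r1)) =
          an r1 * (dl * s2) := by rw [← h1]; ring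
      exact mul_left_cancel₀ p0.ne' this
    have h3 : 64 * M * Y * an (dl * r1) ≤ dl * s2 := by
      calc 64 * M * Y * an (dl * r1) ≤ 64 * M * Y * (dl * dl * s2) := by gcongr
        _ = (64 * M * e ^ 2) * (Y * e) * e * (dl * s2) := by
            conv_lhs => rw [← e4]
            conv_rhs => rw [← e4]
            ring
        _ ≤ 1 * 1 * 1 * (dl * s2) := by
            have : 64 * M * e ^ 2 ≤ 1 := by
              have h5 : M * 1 ≤ M * A := by gcongr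
              have h6 : M * 1 * e ^ 2 ≤ M * A * e ^ 2 := by gcongr
              nlinarith
            gcongr
        _ = _ := by ring
    refine le_of_mul_le_mul_right ?_ p1
    rw [h2]
    exact h3

theorem ctx_num {M q a b A d1 G c0 κ η0 : ℝ} {g : E3 → ℂ}
    {r1 dl Y Gm s1' s2' s1 s2 D : ℝ} {I1 : Finset ℕ} {P1 : ℕ → Plate} {I : Finset ℕ}
    {P : ℕ → Plate} (hM : 1 ≤ M) (hA : 1 ≤ A)
    (h : Ctx M q a b A d1 G c0 κ η0 g r1 dl Y Gm s1' s2' s1 s2 D I1 P1 I P)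
    (hdl0 : dl ≤ ((3584 * M * A) ^ 2)⁻¹) (hG : 2 ≤ G) :
    Num M A κ (an r1) (an (dl * r1)) (dl ^ (1/2 : ℝ)) s1 s2 (dl * r1) Gm Y :=
  num_of hM hA h.kpos h.dlpos hdl0 hG
    (lt_of_lt_of_le (Real.rpow_pos_of_pos h.dlpos _) h.r1ge) h.Gm2 h.Y2 h.Gm1 h.Y1 h.sd.lo h.sd.le
    h.thin h.wide

/-- the label is close. -/
theorem labc_near {s : ℝ} (hs : 0 < s) (c : E2) : ‖c - cen s (labc s c)‖ ≤ s := by
  have h0 : |c 0 - s * round (c 0 / s)| ≤ s / 2 := by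
    have h1 := abs_sub_round (c 0 / s)
    have e : c 0 - s * round (c 0 / s) = s * (c 0 / s - round (c 0 / s)) := by
      rw [mul_sub, mul_div_cancel₀ _ hs.ne']
    rw [e, abs_mul, abs_of_pos hs]
    nlinarith
  have h1 : |c 1 - s * round (c 1 / s)| ≤ s / 2 := by
    have h1 := abs_sub_round (c 1 / s)
    have e : c 1 - s * round (c 1 / s) = s * (c 1 / s - round (c 1 / s)) := by
      rw [mul_sub, mul_div_cancel₀ _ hs.ne']
    rw [e, abs_mul, abs_of_pos hs]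
    nlinarith
  have h2 : ‖c - cen s (labc s c)‖ ^ 2 ≤ s ^ 2 := by
    rw [normsq2]
    have e0 : (c - cen s (labc s c)) 0 = c 0 - s * round (c 0 / s) := rfl
    have e1 : (c - cen s (labc s c)) 1 = c 1 - s * round (c 1 / s) := rfl
    rw [e0, e1]
    have a0 := sq_le_sq' (abs_le.1 h0).1 (abs_le.1 h0).2
    have a1 := sq_le_sq' (abs_le.1 h1).1 (abs_le.1 h1).2
    nlinarith
  exact (pow_le_pow_iff_left₀ (norm_nonneg _) hs.le (by norm_num)).1 h2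

/-- the family contains the parent caps near the caps of the plate. -/
theorem fam_ok {A θ θ' θ'' s : ℝ} (hs : 0 < s) (hA : 1 ≤ A) (h1 : 16 * θ'' + 3 * θ' ≤ s)
    {c : E2} {m m' : ℤ × ℤ} (hm : m ∈ caps θ) (hc : ‖cen θ' m' - c‖ ≤ A * s)
    (h : ‖cen θ m - cen θ' m'‖ ≤ 16 * θ'' + 3 * θ') : m ∈ Fam A θ s (labc s c) := by
  classical
  unfold Fam
  rw [Finset.mem_filter]
  refine ⟨hm, ?_⟩
  have e : cen θ m - cen s (labc s c) = (cen θ m - cen θ' m') + (cen θ' m' - c) +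
      (c - cen s (labc s c)) := by abel
  rw [e]
  have h2 := labc_near hs c
  calc _ ≤ ‖cen θ m - cen θ' m'‖ + ‖cen θ' m' - c‖ + ‖c - cen s (labc s c)‖ :=
        (norm_add_le _ _).trans (add_le_add (norm_add_le _ _) le_rfl)
    _ ≤ s + A * s + s := by linarith
    _ = (A + 2) * s := by ring

end Crest.Agent.R116.AlC339
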