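import Crest.Agent.R116.AlH3_339

/-!
# R116 (S0155), wave side, AL-CONE (helper339): the bound (H), part 2

**`hh`** = the Prop `HH` of `AlD_339` from `Ctx`, `Coh`, `Chi`, `IsAl`.
-/

set_option autoImplicit false

open MeasureTheory
open scoped ENNReal

namespace Crest.Agent.R116.AlC339

open Crest.Agent.R138.Defs (E2)
open Crest.Agent.R138.Wpk685 (cen caps)
open Crest.Agent.R138.Loc878 (nearL mem_nearL)
open Crest.Agent.R116.CDef480 Crest.Agent.R116.Ckm538 Crest.Agent.R116.Cad538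
open Crest.Agent.R116.LZg725 (Cf)
open Crest.Agent.R116.Gc192 (un norm_un un_sub)
open Crest.Agent.R116.AlB888 (Adc Adc_mono Adc_row lat_vel sum_Adc_le wide_nums lower_C an_step an_sq
  an_pos)
open Crest.Agent.R116.WC188 Crest.Agent.R116.PC299

/-- total energies. -/
theorem en_tot : ∃ C : ℝ, 0 ≤ C ∧ ∀ (η0 κ θ θ' B : ℝ) (g : E3 → ℂ) (I1 : Finset ℕ)
    (P1 : ℕ → Plate) (z : E3 × ℝ), 0 < κ → 0 < θ → θ ≤ 1 → 0 < θ' → θ' ≤ 1 → Bas367.Gd g →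
    (∀ i ∈ I1, ∀ m, MeasurableSet ((P1 i).S m)) → (∀ m, uS I1 P1 m ⊆ Metric.closedBall 0 B) →
    (∀ S : ℤ × ℤ → Set E3, enc θ g S ≤ ENNReal.ofReal (C * Enc g)) ∧
    ∀ S : ℤ × ℤ → Set E3, enc θ' (trc z (selc η0 κ θ g (uS I1 P1))) S ≤
      ENNReal.ofReal (C * Enc g) := by
  obtain ⟨C1, hC1, h1⟩ := En387.en1c
  obtain ⟨C2, hC2, h2⟩ := En387.en2c
  refine ⟨C2 + C2 * (C1 * C2), by positivity, ?_⟩
  intro η0 κ θ θ' B g I1 P1 z hκ hθ hθ1 hθ' hθ'1 hg hm hb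
  have hE : 0 ≤ Enc g := integral_nonneg fun _ => by positivity
  have hi := hg.int
  have hl := hg.memLp 2
  have hB := IsM883.Bsc_uS (ρ := θ) hm hb
  have hs := Bas367.selc_int (η0 := η0) hκ hθ hi hB
  refine ⟨fun S => (h2 θ hθ hθ1 g hi hl S).trans (ENNReal.ofReal_le_ofReal ?_), fun S => ?_⟩
  · have : 0 ≤ C2 * (C1 * C2) := by positivity
    nlinarith
  · refine (h2 θ' hθ' hθ'1 _ (Bas367.trc_int hs.1 z) (Bas367.trc_l2 hs.2 z) S).trans ?_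
    rw [Bas367.Enc_trc, ENNReal.ofReal_mul hC2]
    calc ENNReal.ofReal C2 * ENNReal.ofReal (Enc (selc η0 κ θ g (uS I1 P1)))
        ≤ ENNReal.ofReal C2 * (ENNReal.ofReal C1 * ENNReal.ofReal (C2 * Enc g)) :=
          mul_le_mul' le_rfl ((h1 η0 κ θ hκ hθ hθ1 g hi hl _ hB).trans
            (mul_le_mul' le_rfl (h2 θ hθ hθ1 g hi hl _)))
      _ = ENNReal.ofReal (C2 * (C1 * (C2 * Enc g))) := by
          rw [← ENNReal.ofReal_mul hC1, ← ENNReal.ofReal_mul hC2]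
      _ ≤ _ := by
          refine ENNReal.ofReal_le_ofReal ?_
          nlinarith

/-- the set of the active points. -/
theorem lint_split {S' : Set E3} (N : Set E3) (F : E3 → ℝ≥0∞) :
    ∫⁻ y in S', F y ≤ (∫⁻ y in S' ∩ N, F y) + ∫⁻ y in S' ∩ {y | ¬ y ∈ N}, F y := by
  have e : S' = (S' ∩ N) ∪ (S' ∩ {y | ¬ y ∈ N}) := by
    ext y
    simp only [Set.mem_union, Set.mem_inter_iff, Set.mem_ofPred_eq]
    tauto
  conv_lhs => rw [e]
  exact lintegral_union_le _ _ _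

set_option maxHeartbeats 1000000 in
/-- **(H)**. -/
theorem hh {M A a : ℝ} (hM : 1 ≤ M) (hA : 1 ≤ A) (ha : 1 ≤ a) (b : ℝ) (n Mt : ℕ) :
    ∃ C : ℝ, 0 ≤ C ∧ ∀ (q d1 G c0 κ η0 K0 : ℝ) (g : E3 → ℂ)
      (r1 dl Y Gm s1' s2' s1 s2 D α p pp : ℝ) (I1 : Finset ℕ) (P1 : ℕ → Plate) (I : Finset ℕ)
      (P : ℕ → Plate),
    Ctx M q a b A d1 G c0 κ η0 g r1 dl Y Gm s1' s2' s1 s2 D I1 P1 I P →
    dl ≤ ((3584 * M * A) ^ 2)⁻¹ → 2 ≤ G →
    Coh (an r1) (an (dl * r1)) κ (dl ^ (1/2 : ℝ)) Y (2 * r1) I1 P1 pp → 1 ≤ pp → 0 ≤ α → 1 ≤ p →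
    1 ≤ K0 → Chi n K0 κ g dl r1 α p (uS I1 P1) I P →
    IsAl (dl ^ (1/2 : ℝ)) κ η0 g dl r1 I1 P1 I P →
    HH (2 * (n + (2 * Mt + (2 * n + 2)) + 4)) n A κ η0 g r1 dl s2 I1 P1 I P
      (C * K0 * Gm ^ 3 * Y ^ (4 * n + 4) * (pp / p)) (C * r1 * (Y ^ (2 * Mt))⁻¹ * Enc g) := by
  set k : ℕ := 2 * Mt + (2 * n + 2) with hk
  obtain ⟨C0, hC0, hnear⟩ := cap_near hM hA a b ha n k
  obtain ⟨Ce, hCe, hen⟩ := en_tot
  set c2 : ℝ := 4000000000 * 222 ^ (2 * n) * (M * A) ^ 2 with hc2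
  refine ⟨C0 * c2 + (C0 * 81 * 36 * Ce + Ce), by positivity, ?_⟩
  intro q d1 G c0 κ η0 K0 g r1 dl Y Gm s1' s2' s1 s2 D α p pp I1 P1 I P hctx hdl0 hG hcoh hpp hα hp
    hK0 hchi hal i hi x t ht
  have hn := ctx_num hM hA hctx hdl0 hG
  have hdl := hctx.dlpos
  have hr1 : 0 < r1 := lt_of_lt_of_le (Real.rpow_pos_of_pos hdl _) hctx.r1ge
  have hdr : 0 < dl * r1 := mul_pos hdl hr1
  obtain ⟨e, he0, he1, e4, e2, g1, y1, k1, w⟩ := e_num hM hA hdl hdl0 hG hctx.Gm2 hctx.Y2 hctx.Gm1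
    hctx.Y1
  have hdl1 : dl ≤ 1 := by rw [← e4]; exact pow_le_one₀ he0.le he1
  have hdr1 : 1 ≤ dl * r1 := by
    have h1 : (dl * dl)⁻¹ ≤ r1 := w.trans hctx.r1ge
    have h2 : 1 ≤ (dl * dl) * r1 := by
      have := mul_le_mul_of_nonneg_left h1 (by positivity : 0 ≤ dl * dl)
      rwa [mul_inv_cancel₀ (by positivity)] at this
    have h3 : (dl * dl) * r1 ≤ dl * r1 := by
      have : dl * dl ≤ 1 * dl := by gcongr
      nlinarith
    linarith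
  have hr11 : 1 ≤ r1 := by nlinarith
  set θ := an r1 with hθd
  set θ' := an (dl * r1) with hθ'd
  have hθ : 0 < θ := an_pos hr1
  have hθ' : 0 < θ' := an_pos hdr
  have e01 : dl ^ (1/2 : ℝ) * θ' = θ := an_step hr1 hdl
  have sq0 : θ ^ 2 * r1 = 1 := an_sq hr1
  have sq1 : θ' ^ 2 * (dl * r1) = 1 := an_sq hdr
  have hθ'1 : θ' ≤ 1 := by
    by_contra hc
    push Not at hc
    have : 1 < θ' ^ 2 := by nlinarith
    nlinarith
  have hθ1 : θ ≤ 1 := hn.tt.trans hθ'1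
  have hκ := hctx.kpos
  have hd4 : dl ^ (4 : ℕ) ≤ 1 := pow_le_one₀ hdl.le hdl1
  have hκ1 : κ ≤ 1 := hctx.khi.trans hd4
  have hκθ : κ * θ' ≤ θ := by
    rw [← e01]
    refine mul_le_mul_of_nonneg_right ?_ hθ'.le
    rw [← e2]
    refine hctx.khi.trans ?_
    rw [← e4, ← pow_mul]
    exact pow_le_pow_of_le_one he0.le he1 (by norm_num)
  have hGθ : Gm * θ ≤ θ' := by
    have h1 : Gm * e ^ 2 ≤ 1 := by
      have : Gm * e ^ 2 = (Gm * e) * e := by ring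
      rw [this]
      exact mul_le_one₀ g1 he0.le he1
    calc Gm * θ = (Gm * e ^ 2) * θ' := by rw [← e01, ← e2]; ring
      _ ≤ 1 * θ' := by gcongr
      _ = θ' := one_mul _
  have hgd : Gd a b η0 κ g := ⟨hctx.par.gm, hctx.par.gb, hctx.par.gs, hctx.par.slc⟩
  have hgd' : Bas367.Gd g := Bas367.gd_of_supp (a := a) (b := b) hgd.gm hgd.gb (fun ζ hζ =>
    ⟨(inv_pos.2 (by linarith)).trans_le (hgd.gs ζ hζ).1, (hgd.gs ζ hζ).2.1, (hgd.gs ζ hζ).2.2⟩)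
  obtain ⟨en1, en2⟩ := hen η0 κ θ θ' (A * r1) g I1 P1 (P i).z hκ hθ hθ1 hθ' hθ'1 hgd'
    hctx.par.meas hctx.par.bd
  have hE : 0 ≤ Enc g := integral_nonneg fun _ => by positivity
  have hz : |(P i).z.2| ≤ r1 := (hctx.pl.mem i hi).2
  have hY := hctx.Y1
  have hGm := hctx.Gm1
  have hs2 := hn.p2
  have hadm := hctx.pl.adm i hi
  have hplt : Plt M κ s1 s2 (dl * r1) (P i).f := plt_of_adm (by linarith) hs2 hadm
  obtain ⟨-, kk, -⟩ := wide_nums hM hA hdl hdl0 (by linarith : (1:ℝ) ≤ G) hctx.Gm1 hctx.Gm2 hctx.Y1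
    hctx.Y2 hctx.kpos hctx.khi hθ' (an_step hdr hdl) hctx.wide
  set θ'' := an (dl * (dl * r1)) with hθ''d
  have hθ'' : 0 < θ'' := an_pos (mul_pos hdl hdr)
  have e12 : dl ^ (1/2 : ℝ) * θ'' = θ' := an_step hdr hdl
  have hle'' : θ' ≤ θ'' := by
    rw [← e12]
    exact mul_le_of_le_one_left hθ''.le (by rw [← e2]; exact pow_le_one₀ he0.le he1)
  have hfam : 16 * θ'' + 3 * θ' ≤ s2 := by nlinarith
  set g1 := selc η0 κ θ g (uS I1 P1) with hg1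
  set U : ℤ × ℤ → E3 → ℝ≥0∞ := fun m y => ‖umc θ' (trc (P i).z g1) m y‖ₑ ^ 2 with hU
  set N : ℕ := 2 * (n + k + 4) with hN
  set Nr : ℤ × ℤ → Set E3 := fun m =>
    {y | ‖frc θ κ (cen θ' m) (y - (x + t • vel (cen θ' m)))‖ ≤ Y} with hNr
  set wU : ℤ × ℤ → E3 → ℝ≥0∞ := fun m y =>
    ENNReal.ofReal (wt (frc θ κ (cen θ' m)) N (y - (x + t • vel (cen θ' m)))) * U m y with hwU
  set tk : ℝ := (caps θ).card * ((1 + Y) ^ k)⁻¹ with htk
  have htk0 : 0 ≤ tk := by positivity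
  set K1 : ℝ := C0 * (Gm * Y ^ (2 * n + 2)) * (θ / θ') * (θ ^ 2 * κ)⁻¹ with hK1
  have hK10 : 0 ≤ K1 := by positivity
  classical
  set T : Finset (ℤ × ℤ) := (caps θ').filter fun m => ∃ y ∈ (P i).S m, y ∈ Nr m with hT
  have hTc : T ⊆ caps θ' := Finset.filter_subset _ _
  set Ad : ℤ × ℤ → ℝ≥0∞ := fun m =>
    Adc n θ κ θ' g (uS I1 P1) m ((P i).z.1 + x) ((P i).z.2 + t) with hAd
  -- near part
  have hne : ∀ m ∈ caps θ', ∫⁻ y in (P i).S m ∩ Nr m, wU m y ≤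
      if m ∈ T then ENNReal.ofReal (K1 * (pp + tk)) * Ad m else 0 := by
    intro m hm
    split_ifs with hmT
    · refine (hnear κ η0 θ θ' (dl ^ (1/2 : ℝ)) s1 s2 (dl * r1) Gm Y (2 * r1) pp g I1 P1 (P i).z
        (P i).f m ((P i).S m) x t (A * r1) hn hGθ hθ'1 hκθ sq1.le hκ1 hctx.ka hgd hctx.par.meas
        hctx.par.bd ?_ (by linarith) hcoh (by linarith) hplt (hctx.pl.meas i hi m)
        (fun y hy => src_of_mset (hctx.pl.box i hi m hy)) (fun y hy => hal i hi m y hy) ht).trans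
        (le_of_eq ?_)
      · calc |(P i).z.2| * θ ^ 2 ≤ r1 * θ ^ 2 := by gcongr
          _ = 1 := by rw [mul_comm]; exact sq0
      · rw [hK1, htk, hAd]
    · have he : (P i).S m ∩ Nr m = ∅ := by
        ext y
        simp only [Set.mem_inter_iff, Set.mem_empty_iff_false, iff_false]
        intro h
        exact hmT (Finset.mem_filter.2 ⟨hm, y, h.1, h.2⟩)
      rw [he]
      simp
  -- far part
  have hfa : ∀ m ∈ caps θ', ∫⁻ y in (P i).S m ∩ {y | ¬ y ∈ Nr m}, wU m y ≤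
      ENNReal.ofReal (((1 + Y) ^ N)⁻¹) * ∫⁻ y in (P i).S m, U m y := by
    intro m _
    exact cap_far (hctx.pl.meas i hi m) (by linarith) _ _
  have hsum : seC N θ θ' κ g1 (P i) x t ≤
      ENNReal.ofReal (K1 * (pp + tk)) * ∑ m ∈ T, Ad m +
        ENNReal.ofReal (((1 + Y) ^ N)⁻¹) * enc θ' (trc (P i).z g1) (P i).S := by
    unfold seC enc
    rw [Finset.mul_sum, Finset.mul_sum]
    calc ∑ m ∈ caps θ', ∫⁻ y in (P i).S m, wU m y
        ≤ ∑ m ∈ caps θ', ((if m ∈ T then ENNReal.ofReal (K1 * (pp + tk)) * Ad m else 0) +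
            ENNReal.ofReal (((1 + Y) ^ N)⁻¹) * ∫⁻ y in (P i).S m, U m y) := by
          refine Finset.sum_le_sum fun m hm => ?_
          exact (lint_split (Nr m) _).trans (add_le_add (hne m hm) (hfa m hm))
      _ = _ := by
          rw [Finset.sum_add_distrib]
          congr 1
          rw [← Finset.sum_filter]
          refine Finset.sum_congr ?_ fun _ _ => rfl
          ext m
          simp only [Finset.mem_filter]
          exact ⟨fun h => h.2, fun h => ⟨hTc h, h⟩⟩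
  -- LOWER
  have hlow := lower_C hM hA n hctx hdl0 (by linarith) hα hp hK0 hchi hi x ht T
    (by
      intro m hm
      obtain ⟨-, y, hy1, hy2⟩ := Finset.mem_filter.1 hm
      refine ⟨y, hy1, ?_⟩
      have e5 : y - x - t • vel (cen θ' m) = y - (x + t • vel (cen θ' m)) := by abel
      rw [e5]
      exact hy2)
    (Ms := Fam A θ s2 (labc s2 (P i).c))
    (by
      rintro m hm ⟨m', hm', h3⟩
      obtain ⟨-, y, hy1, -⟩ := Finset.mem_filter.1 hm'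
      exact fam_ok hs2 hA hfam hm (hctx.pl.box i hi m' hy1).1 h3)
  -- total density
  have htot : ∑ m ∈ T, Ad m ≤ ENNReal.ofReal (36 * (θ ^ 2 * κ) * (Ce * Enc g)) := by
    refine (sum_Adc_le (M := caps θ) hθ' hTc (fun m _ => Finset.filter_subset _ _) _ _).trans ?_
    have h1 : Cad538.Acc n θ κ θ g (uS I1 P1) (caps θ) ((P i).z.1 + x) ((P i).z.2 + t) ≤
        ENNReal.ofReal (θ ^ 2 * κ) * enc θ g (uS I1 P1) := Den_le _ _
    refine (mul_le_mul' le_rfl (h1.trans (mul_le_mul' le_rfl (en1 _)))).trans (le_of_eq ?_)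
    rw [← ENNReal.ofReal_mul (by positivity), show (36:ℝ≥0∞) = ENNReal.ofReal 36 by norm_num,
      ← ENNReal.ofReal_mul (by norm_num)]
    congr 1; ring
  set AC := Acc n θ κ θ g (uS I1 P1) (Fam A θ s2 (labc s2 (P i).c)) ((P i).z.1 + x)
    ((P i).z.2 + t) with hAC
  have hq0 : 0 < θ ^ 2 * κ := by positivity
  -- numbers
  set Cc : ℝ := C0 * c2 + (C0 * 81 * 36 * Ce + Ce) with hCc
  have hmain : K1 * pp * (c2 * K0 * Gm ^ 2 * Y ^ (2 * n + 2) / p) ≤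
      (θ ^ 2 * κ)⁻¹ * ((Cc * K0 * Gm ^ 3 * Y ^ (4 * n + 4) * (pp / p)) * (θ / θ')) := by
    have h1 : K1 * pp * (c2 * K0 * Gm ^ 2 * Y ^ (2 * n + 2) / p) =
        (θ ^ 2 * κ)⁻¹ * (((C0 * c2) * K0 * Gm ^ 3 * Y ^ (4 * n + 4) * (pp / p)) * (θ / θ')) := by
      rw [hK1, show 4 * n + 4 = (2 * n + 2) + (2 * n + 2) by ring, pow_add Y (2 * n + 2)]
      field_simp
    rw [h1]
    have h2 : C0 * c2 ≤ Cc := by rw [hCc]; linarith [(by positivity : 0 ≤ C0 * 81 * 36 * Ce + Ce)]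
    have hp0 : 0 < p := by linarith
    gcongr
  have hYp : Y ^ (2 * n + 2) * ((1 + Y) ^ k)⁻¹ ≤ (Y ^ (2 * Mt))⁻¹ := by
    have h1 : Y ^ k ≤ (1 + Y) ^ k := pow_le_pow_left₀ (by linarith) (by linarith) k
    have h2 : ((1 + Y) ^ k)⁻¹ ≤ (Y ^ k)⁻¹ := inv_anti₀ (by positivity) h1
    calc Y ^ (2 * n + 2) * ((1 + Y) ^ k)⁻¹ ≤ Y ^ (2 * n + 2) * (Y ^ k)⁻¹ := by gcongr
      _ = _ := by rw [hk, pow_add Y (2 * Mt)]; field_simp
  have hYN : ((1 + Y) ^ N)⁻¹ ≤ (Y ^ (2 * Mt))⁻¹ := by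
    refine inv_anti₀ (by positivity) ?_
    calc Y ^ (2 * Mt) ≤ Y ^ N := pow_le_pow_right₀ hY (by rw [hN, hk]; omega)
      _ ≤ _ := pow_le_pow_left₀ (by linarith) (by linarith) N
  have htk1 : tk ≤ 81 * r1 * ((1 + Y) ^ k)⁻¹ := by
    have h1 := Tr126.card_caps hθ hθ1
    have h2 : (θ⁻¹) ^ 2 = r1 := by
      rw [inv_pow]
      field_simp
      linarith
    rw [h2] at h1
    rw [htk]
    gcongr
  have htail1 : K1 * tk * (36 * (θ ^ 2 * κ) * (Ce * Enc g)) ≤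
      (θ ^ 2 * κ)⁻¹ * ((C0 * 81 * 36 * Ce) * r1 * (Y ^ (2 * Mt))⁻¹ * Enc g) := by
    have h1 : Gm * (θ / θ') ≤ 1 := by
      rw [mul_div_assoc', div_le_one hθ']; exact hGθ
    have h2 : θ ^ 2 * κ ≤ 1 := mul_le_one₀ (pow_le_one₀ hθ.le hθ1) hκ.le hκ1
    calc K1 * tk * (36 * (θ ^ 2 * κ) * (Ce * Enc g))
        ≤ K1 * (81 * r1 * ((1 + Y) ^ k)⁻¹) * (36 * (θ ^ 2 * κ) * (Ce * Enc g)) := by gcongr
      _ = (θ ^ 2 * κ)⁻¹ * ((C0 * 81 * 36 * Ce) * r1 * (Y ^ (2 * n + 2) * ((1 + Y) ^ k)⁻¹) * Enc g *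
            ((Gm * (θ / θ')) * (θ ^ 2 * κ))) := by rw [hK1]; ring
      _ ≤ (θ ^ 2 * κ)⁻¹ * ((C0 * 81 * 36 * Ce) * r1 * (Y ^ (2 * Mt))⁻¹ * Enc g * (1 * 1)) := by
          gcongr
      _ = _ := by ring
  have htail2 : ((1 + Y) ^ N)⁻¹ * (Ce * Enc g) ≤
      (θ ^ 2 * κ)⁻¹ * (Ce * r1 * (Y ^ (2 * Mt))⁻¹ * Enc g) := by
    have h2 : θ ^ 2 * κ ≤ 1 := mul_le_one₀ (pow_le_one₀ hθ.le hθ1) hκ.le hκ1
    have h3 : 1 ≤ (θ ^ 2 * κ)⁻¹ := (one_le_inv₀ hq0).2 h2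
    calc ((1 + Y) ^ N)⁻¹ * (Ce * Enc g) ≤ (Y ^ (2 * Mt))⁻¹ * (Ce * Enc g) := by gcongr
      _ = 1 * (Ce * 1 * (Y ^ (2 * Mt))⁻¹ * Enc g) := by ring
      _ ≤ (θ ^ 2 * κ)⁻¹ * (Ce * r1 * (Y ^ (2 * Mt))⁻¹ * Enc g) := by gcongr
  have hall : seC N θ θ' κ g1 (P i) x t ≤
      ENNReal.ofReal (K1 * pp * (c2 * K0 * Gm ^ 2 * Y ^ (2 * n + 2) / p)) * AC +
      (ENNReal.ofReal (K1 * tk * (36 * (θ ^ 2 * κ) * (Ce * Enc g))) +
        ENNReal.ofReal (((1 + Y) ^ N)⁻¹ * (Ce * Enc g))) := by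
    refine hsum.trans ?_
    rw [← add_assoc]
    refine add_le_add ?_ ?_
    · rw [mul_add, ENNReal.ofReal_add (by positivity) (by positivity), add_mul]
      refine add_le_add ?_ ?_
      · have e7 : ENNReal.ofReal (K1 * pp * (c2 * K0 * Gm ^ 2 * Y ^ (2 * n + 2) / p)) =
            ENNReal.ofReal (K1 * pp) * ENNReal.ofReal (c2 * K0 * Gm ^ 2 * Y ^ (2 * n + 2) / p) :=
          ENNReal.ofReal_mul (by positivity)
        rw [e7, mul_assoc (ENNReal.ofReal (K1 * pp))]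
        exact mul_le_mul' le_rfl hlow
      · have e7 : ENNReal.ofReal (K1 * tk * (36 * (θ ^ 2 * κ) * (Ce * Enc g))) =
            ENNReal.ofReal (K1 * tk) * ENNReal.ofReal (36 * (θ ^ 2 * κ) * (Ce * Enc g)) :=
          ENNReal.ofReal_mul (by positivity)
        rw [e7]
        exact mul_le_mul' le_rfl htot
    · have e7 : ENNReal.ofReal (((1 + Y) ^ N)⁻¹ * (Ce * Enc g)) =
          ENNReal.ofReal (((1 + Y) ^ N)⁻¹) * ENNReal.ofReal (Ce * Enc g) :=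
        ENNReal.ofReal_mul (by positivity)
      rw [e7]
      exact mul_le_mul' le_rfl (en2 _)
  refine hall.trans ?_
  have hp0 : 0 < p := by linarith
  have e8 : ENNReal.ofReal ((θ ^ 2 * κ)⁻¹) *
      (ENNReal.ofReal ((Cc * K0 * Gm ^ 3 * Y ^ (4 * n + 4) * (pp / p)) * (θ / θ')) * AC +
        ENNReal.ofReal (Cc * r1 * (Y ^ (2 * Mt))⁻¹ * Enc g)) =
      ENNReal.ofReal ((θ ^ 2 * κ)⁻¹ * ((Cc * K0 * Gm ^ 3 * Y ^ (4 * n + 4) * (pp / p)) *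
        (θ / θ'))) * AC +
      ENNReal.ofReal ((θ ^ 2 * κ)⁻¹ * (Cc * r1 * (Y ^ (2 * Mt))⁻¹ * Enc g)) := by
    rw [mul_add, ← mul_assoc]
    congr 1
    · rw [ENNReal.ofReal_mul (by positivity) (p := (θ ^ 2 * κ)⁻¹)]
    · exact (ENNReal.ofReal_mul (by positivity)).symm
  refine le_trans ?_ (le_of_eq e8.symm)
  refine add_le_add (mul_le_mul' (ENNReal.ofReal_le_ofReal hmain) le_rfl) ?_
  rw [← ENNReal.ofReal_add (by positivity) (by positivity)]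
  refine ENNReal.ofReal_le_ofReal ((add_le_add htail1 htail2).trans ?_)
  rw [← mul_add]
  refine mul_le_mul_of_nonneg_left ?_ (by positivity)
  have h5 : (C0 * 81 * 36 * Ce) * r1 * (Y ^ (2 * Mt))⁻¹ * Enc g +
      Ce * r1 * (Y ^ (2 * Mt))⁻¹ * Enc g =
      (C0 * 81 * 36 * Ce + Ce) * r1 * (Y ^ (2 * Mt))⁻¹ * Enc g := by ring
  rw [h5]
  have h6 : C0 * 81 * 36 * Ce + Ce ≤ Cc := by rw [hCc]; linarith [(by positivity : 0 ≤ C0 * c2)]
  gcongr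

end Crest.Agent.R116.AlC339
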