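import Crest.Agent.R116.WDefC_188
import Crest.Agent.R138.Fq2_665

/-!
# R116 (S0155), wave side, base case (helper449), part 1: total energy of the packets, `L²` facts
-/

set_option autoImplicit false

open MeasureTheory FourierTransform
open scoped ContDiff ENNReal

namespace Crest.Agent.R116.Ba449

open Crest.Agent.R138.Defs (E2 ee)
open Crest.Agent.R138.Wpk685 (cen caps cap win cap_win_sum th_nonneg norm_win_le th_le_one
  win_contDiff)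
open Crest.Agent.R116.CDef480 Crest.Agent.R116.WC188

/-! ### windows -/

theorem norm_capc_le (ρ : ℝ) (m : ℤ × ℤ) (ζ : E3) : ‖capc ρ m ζ‖ ≤ 1 := norm_win_le _

theorem capc_re (ρ : ℝ) (m : ℤ × ℤ) (ζ : E3) : (capc ρ m ζ).re = ‖capc ρ m ζ‖ := by
  unfold capc cap win
  rw [Complex.ofReal_re, Complex.norm_real, Real.norm_eq_abs,
    abs_of_nonneg (mul_nonneg (th_nonneg _) (th_nonneg _))]

theorem sum_norm_capc {ρ : ℝ} (hρ : 0 < ρ) {ζ : E3} (h : ‖slp ζ‖ ≤ 2) :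
    ∑ m ∈ caps ρ, ‖capc ρ m ζ‖ = 1 := by
  have h1 := cap_win_sum hρ h
  have h2 := congrArg Complex.re h1
  rw [Complex.re_sum, Complex.one_re] at h2
  rw [← h2]
  exact Finset.sum_congr rfl fun m _ => (capc_re ρ m ζ).symm

theorem sum_capc_sq_le {ρ : ℝ} (hρ : 0 < ρ) {ζ : E3} (h : ‖slp ζ‖ ≤ 2) :
    ∑ m ∈ caps ρ, ‖capc ρ m ζ‖ₑ ^ 2 ≤ 1 := by
  calc ∑ m ∈ caps ρ, ‖capc ρ m ζ‖ₑ ^ 2 ≤ ∑ m ∈ caps ρ, ENNReal.ofReal ‖capc ρ m ζ‖ := by
        refine Finset.sum_le_sum fun m _ => ?_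
        rw [← ofReal_norm, ← ENNReal.ofReal_pow (norm_nonneg _)]
        refine ENNReal.ofReal_le_ofReal ?_
        have h1 := norm_capc_le ρ m ζ
        have h2 := norm_nonneg (capc ρ m ζ)
        nlinarith
    _ = ENNReal.ofReal (∑ m ∈ caps ρ, ‖capc ρ m ζ‖) :=
        (ENNReal.ofReal_sum_of_nonneg fun m _ => norm_nonneg _).symm
    _ = 1 := by rw [sum_norm_capc hρ h, ENNReal.ofReal_one]

theorem measurable_capc (ρ : ℝ) (m : ℤ × ℤ) : Measurable (capc ρ m) := by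
  unfold capc cap
  have h1 : Measurable fun ζ : E3 => ρ⁻¹ • (slp ζ - cen ρ m) :=
    (measurable_slp.sub_const (cen ρ m)).const_smul ρ⁻¹
  exact win_contDiff.continuous.measurable.comp h1

/-! ### good functions -/

/-- measurable, bounded, supported in the ball of radius `L`, slopes at most `2`. -/
structure Gd (L : ℝ) (g : E3 → ℂ) : Prop where
  meas : Measurable g
  bdd : ∃ K : ℝ, ∀ ζ, ‖g ζ‖ ≤ K
  supp : ∀ ζ, g ζ ≠ 0 → ‖ζ‖ ≤ L
  slp : ∀ ζ, g ζ ≠ 0 → ‖slp ζ‖ ≤ 2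

theorem Gd.trc {L : ℝ} {g : E3 → ℂ} (h : Gd L g) (z : E3 × ℝ) : Gd L (trc z g) := by
  have e : ∀ ζ, ‖CDef480.trc z g ζ‖ = ‖g ζ‖ := fun ζ => by
    unfold CDef480.trc
    rw [norm_mul, Crest.Agent.R138.Wpk685.norm_ee, mul_one]
  have e2 : ∀ ζ, CDef480.trc z g ζ ≠ 0 → g ζ ≠ 0 := fun ζ hz hg => by
    apply hz
    unfold CDef480.trc
    rw [hg, zero_mul]
  obtain ⟨K, hK⟩ := h.bdd
  refine ⟨?_, ⟨K, fun ζ => by rw [e]; exact hK ζ⟩, fun ζ hz => h.supp ζ (e2 ζ hz),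
    fun ζ hz => h.slp ζ (e2 ζ hz)⟩
  unfold CDef480.trc
  refine h.meas.mul (continuous_ee'.measurable.comp ?_)
  have h1 : Measurable fun ζ : E3 => (inner ℝ z.1 ζ : ℝ) := by fun_prop
  exact h1.add (measurable_hc.const_mul _)

theorem Gd.memLp {L : ℝ} {g : E3 → ℂ} (h : Gd L g) (p : ℝ≥0∞) : MemLp g p := by
  obtain ⟨K, hK⟩ := h.bdd
  have h1 : g = (Metric.closedBall (0 : E3) L).indicator g := by
    funext ζ
    by_cases hz : ζ ∈ Metric.closedBall (0 : E3) L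
    · rw [Set.indicator_of_mem hz]
    · rw [Set.indicator_of_notMem hz]
      by_contra hc
      exact hz (by simpa using h.supp ζ hc)
  rw [h1]
  rw [memLp_indicator_iff_restrict Metric.isClosed_closedBall.measurableSet]
  have : IsFiniteMeasure (volume.restrict (Metric.closedBall (0 : E3) L)) :=
    ⟨by rw [Measure.restrict_apply_univ]; exact measure_closedBall_lt_top⟩
  exact MemLp.of_bound h.meas.aestronglyMeasurable K (Filter.Eventually.of_forall hK)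

theorem Gd.int {L : ℝ} {g : E3 → ℂ} (h : Gd L g) : Integrable g :=
  memLp_one_iff_integrable.1 (h.memLp 1)

theorem Gd.lint {L : ℝ} {g : E3 → ℂ} (h : Gd L g) :
    ∫⁻ ζ, ‖g ζ‖ₑ ^ 2 = ENNReal.ofReal (Enc g) := by
  unfold Enc
  rw [ofReal_integral_eq_lintegral_ofReal]
  · refine lintegral_congr fun ζ => ?_
    rw [← ofReal_norm, ENNReal.ofReal_pow (norm_nonneg _)]
  · exact (h.memLp 2).integrable_norm_pow (by norm_num)
  · exact Filter.Eventually.of_forall fun ζ => by positivity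

theorem Enc_trc (z : E3 × ℝ) (g : E3 → ℂ) : Enc (trc z g) = Enc g := by
  unfold Enc
  congr 1
  funext ζ
  unfold trc
  rw [norm_mul, Crest.Agent.R138.Wpk685.norm_ee, mul_one]

theorem Enc_nonneg (g : E3 → ℂ) : 0 ≤ Enc g := integral_nonneg fun _ => by positivity

theorem Gd.cap {L : ℝ} {g : E3 → ℂ} (h : Gd L g) (ρ : ℝ) (m : ℤ × ℤ) :
    Gd L (fun ζ => capc ρ m ζ * g ζ) := by
  obtain ⟨K, hK⟩ := h.bdd
  refine ⟨(measurable_capc ρ m).mul h.meas, ⟨K, fun ζ => ?_⟩,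
    fun ζ hz => h.supp ζ (right_ne_zero_of_mul hz), fun ζ hz => h.slp ζ (right_ne_zero_of_mul hz)⟩
  rw [norm_mul]
  calc ‖capc ρ m ζ‖ * ‖g ζ‖ ≤ 1 * ‖g ζ‖ := by gcongr; exact norm_capc_le _ _ _
    _ ≤ K := by rw [one_mul]; exact hK ζ

theorem lint_umc {L : ℝ} {g : E3 → ℂ} (h : Gd L g) (ρ : ℝ) (m : ℤ × ℤ) :
    ∫⁻ x, ‖umc ρ g m x‖ₑ ^ 2 = ∫⁻ ζ, ‖capc ρ m ζ‖ₑ ^ 2 * ‖g ζ‖ₑ ^ 2 := by
  unfold umc
  rw [Crest.Agent.R138.Fq665.plancherel_inv (h.cap ρ m).int ((h.cap ρ m).memLp 2)]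
  refine lintegral_congr fun ζ => ?_
  rw [enorm_mul, mul_pow]

/-- **total energy of the packets.** -/
theorem sum_lint_umc {L : ℝ} {g : E3 → ℂ} (h : Gd L g) {ρ : ℝ} (hρ : 0 < ρ) :
    ∑ m ∈ caps ρ, ∫⁻ x, ‖umc ρ g m x‖ₑ ^ 2 ≤ ENNReal.ofReal (Enc g) := by
  rw [← h.lint]
  simp_rw [lint_umc h]
  have hm : ∀ m ∈ caps ρ, AEMeasurable (fun ζ => ‖capc ρ m ζ‖ₑ ^ 2 * ‖g ζ‖ₑ ^ 2) volume :=
    fun m _ => (((measurable_capc ρ m).enorm.pow_const 2).mul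
      (h.meas.enorm.pow_const 2)).aemeasurable
  rw [← lintegral_finsetSum' _ hm]
  refine lintegral_mono fun ζ => ?_
  rw [← Finset.sum_mul]
  by_cases hz : g ζ = 0
  · rw [hz]; simp
  · calc (∑ m ∈ caps ρ, ‖capc ρ m ζ‖ₑ ^ 2) * ‖g ζ‖ₑ ^ 2 ≤ 1 * ‖g ζ‖ₑ ^ 2 :=
        mul_le_mul_left (sum_capc_sq_le hρ (h.slp ζ hz)) _
      _ = _ := one_mul _

theorem enc_le {L : ℝ} {g : E3 → ℂ} (h : Gd L g) {ρ : ℝ} (hρ : 0 < ρ) (S : ℤ × ℤ → Set E3) :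
    enc ρ g S ≤ ENNReal.ofReal (Enc g) := by
  refine le_trans ?_ (sum_lint_umc h hρ)
  unfold enc
  exact Finset.sum_le_sum fun m _ => setLIntegral_le_lintegral _ _

/-- states are good. -/
theorem St.gd {M κ q a b M0 : ℝ} {C0 : E2} {σ : ℝ} {g : E3 → ℂ} {R D : ℝ} (ha : 1 ≤ a)
    (hb : b ≤ 2) (h : St M κ q a b M0 C0 σ g R D) : Gd (3 * a) g := by
  refine ⟨h.meas, h.bdd, fun ζ hz => ?_, fun ζ hz => (h.supp ζ hz).2.2.1.trans hb⟩
  obtain ⟨h1, h2, h3, -⟩ := h.supp ζ hz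
  have ha0 : 0 < a := by linarith
  have hζ : 0 < ζ 2 := lt_of_lt_of_le (inv_pos.2 ha0) h1
  have h4 : ‖lat ζ‖ ≤ 2 * a := by
    rw [lat_slp hζ.ne', norm_smul, Real.norm_eq_abs, abs_of_pos hζ]
    calc ζ 2 * ‖slp ζ‖ ≤ a * 2 := mul_le_mul h2 (h3.trans hb) (norm_nonneg _) ha0.le
      _ = 2 * a := by ring
  have h5 := normsq3 ζ
  have h6 := norm_nonneg (lat ζ)
  have h7 := norm_nonneg ζ
  nlinarith

end Crest.Agent.R116.Ba449
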