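import Crest.Agent.R116.CWd2_480
import Crest.Agent.R138.Fq2_665

/-!
# R116 (S0155): cone packets, part d3 (helper480)

Final forms over `caps`, `umc`, `selc`: `A_sel`, `A_umc`, `B_umc` (sliced `_s`, unsliced `_u`),
`WE_trc`, `level_change_s/u`, `Enc_selc_le`.
-/

set_option autoImplicit false
set_option linter.unusedSectionVars false

open MeasureTheory FourierTransform
open scoped ContDiff ENNReal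

namespace Crest.Agent.R116.CWd480

open Crest.Agent.R138.Wf448
open Crest.Agent.R138.Defs (E2 ee)
open Crest.Agent.R138.Wpk685 (win fat cen caps)
open Crest.Agent.R116.CWp480 Crest.Agent.R116.CDef480 Crest.Agent.R116.CWc480

/-! ### abstract final forms over a packet family -/

/-- a uniform family of packets: all slopes, scale `ρ`. -/
def PkF (N : ℕ) (Q T a M η0 κ ρ : ℝ) (ha : 1 ≤ a) (hM : 0 ≤ M) (hρ : 0 < ρ) (hκ : 0 < κ)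
    (e : E3 → ℂ) : Prop :=
  ∀ C : E2, Pk N Q T ρ e C (Fr (lam a M) ρ κ (lam_pos ha hM) hρ hκ C) (ctr η0 C)
    (Sd a M η0 κ ρ C)

/-- overlap constant of the lattice. -/
def Pov (a : ℝ) : ℝ := (12 * a ^ 2 + 1) ^ 2

theorem Pov_pos (a : ℝ) : 0 < Pov a := by unfold Pov; positivity

theorem hov_cen {a ρ : ℝ} (hρ : 0 < ρ) (s : Finset (ℤ × ℤ)) (c : E2) :
    (Set.ncard {m | m ∈ s ∧ ‖cen ρ m - c‖ ≤ 6 * a ^ 2 * ρ} : ℝ) ≤ Pov a := by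
  refine (card_cen hρ (by positivity) s c).trans (le_of_eq ?_)
  unfold Pov
  ring

theorem capc_le (ρ : ℝ) (m : ℤ × ℤ) (ζ : E3) : ‖capc ρ m ζ‖ ≤ 1 :=
  Crest.Agent.R138.Wpk685.norm_win_le _

theorem capc_meas (ρ : ℝ) (m : ℤ × ℤ) : Measurable (capc ρ m) := by
  unfold capc Crest.Agent.R138.Wpk685.cap
  have h : Measurable (fun ζ : E3 => ρ⁻¹ • (slp ζ - cen ρ m)) :=
    Measurable.const_smul (measurable_slp.sub_const (cen ρ m)) ρ⁻¹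
  exact Crest.Agent.R138.Wpk685.win_contDiff.continuous.measurable.comp h

theorem capc_int {g : E3 → ℂ} (hg : Integrable g) (ρ : ℝ) (m : ℤ × ℤ) :
    Integrable (fun ζ => capc ρ m ζ * g ζ) :=
  hg.bdd_mul (c := 1) (capc_meas ρ m).aestronglyMeasurable
    (Filter.Eventually.of_forall (capc_le ρ m))

theorem capc_l2 {g : E3 → ℂ} (hg : MemLp g 2) (ρ : ℝ) (m : ℤ × ℤ) :
    MemLp (fun ζ => capc ρ m ζ * g ζ) 2 := by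
  refine MemLp.of_le hg ((capc_meas ρ m).aestronglyMeasurable.mul hg.1)
    (Filter.Eventually.of_forall fun ζ => ?_)
  rw [norm_mul]
  exact mul_le_of_le_one_left (norm_nonneg _) (capc_le ρ m ζ)

section forms

variable {a M : ℝ}

/-- synthesis. -/
theorem A_syn (n : ℕ) {T L Q : ℝ} (ha : 1 ≤ a) (hM : 0 ≤ M) (hL : 1 ≤ L) (hQ : 0 < Q) :
    ∃ Cst : ℝ, 0 ≤ Cst ∧ ∀ (ρ κ η0 : ℝ) (hρ : 0 < ρ) (hκ : 0 < κ), κ ≤ 1 → ∀ (e : E3 → ℂ),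
      PkF (n + dd E3) Q T a M η0 κ ρ ha hM hρ hκ e →
    ∀ (A : E3 ≃L[ℝ] E3) (K : ℝ) (w : E3 → ℝ), SV A K n w →
    ∀ (s : Finset (ℤ × ℤ)), (∀ m ∈ s, ∀ x, ‖A x‖ ≤ L * ‖Pl ρ κ hρ hκ (cen ρ m) x‖) →
    ∀ (t : ℝ), |t| * ρ ^ 2 ≤ T →
    ∀ (v : ℤ × ℤ → E3 → ℂ), (∀ m ∈ s, Integrable (v m)) → (∀ m ∈ s, ∃ B, ∀ y, ‖v m y‖ ≤ B) →
    WE w (slc (fun ζ => ∑ m ∈ s, fatc ρ m ζ * e ζ * 𝓕 (v m) ζ) t) ≤
      ENNReal.ofReal (Cst * K ^ 5) *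
      ∑ m ∈ s, ∫⁻ y, ENNReal.ofReal (w (y - t • vel (cen ρ m))) * ‖v m y‖ₑ ^ 2 := by
  obtain ⟨C0, hC0, h⟩ := thmAc n (T := T) ha hM hL hQ
  refine ⟨C0 * Pov a * Q ^ 2, by have := Pov_pos a; positivity, ?_⟩
  intro ρ κ η0 hρ hκ hκ1 e hpk A K w hw s hA t ht v hv hb
  refine (h ρ κ η0 hρ hκ hκ1 e A K w hw (ℤ × ℤ) s (cen ρ) (Pov a) (Pov_pos a)
    (hov_cen hρ s) hA t ht (fun m _ => hpk _)
    (fun m ζ => fatc ρ m ζ * e ζ * 𝓕 (v m) ζ) v Q ?_ ?_).trans (le_of_eq ?_)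
  · intro m hm ξ hξ
    exact (hpk _).sf ξ (left_ne_zero_of_mul hξ)
  · intro m hm
    obtain ⟨B, hB⟩ := hb m hm
    exact (hpk (cen ρ m)).rep_piece (hv m hm) hB
  · congr 2
    ring

/-- analysis side of a function (upper bound of the wave by its own packets). -/
theorem A_ana (n : ℕ) {T L Q : ℝ} (ha : 1 ≤ a) (hM : 0 ≤ M) (hL : 1 ≤ L) (hQ : 0 < Q) :
    ∃ Cst : ℝ, 0 ≤ Cst ∧ ∀ (ρ κ η0 : ℝ) (hρ : 0 < ρ) (hκ : 0 < κ), κ ≤ 1 → ∀ (e : E3 → ℂ),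
      PkF (n + dd E3) Q T a M η0 κ ρ ha hM hρ hκ e →
    ∀ (A : E3 ≃L[ℝ] E3) (K : ℝ) (w : E3 → ℝ), SV A K n w →
    ∀ (s : Finset (ℤ × ℤ)), (∀ m ∈ s, ∀ x, ‖A x‖ ≤ L * ‖Pl ρ κ hρ hκ (cen ρ m) x‖) →
    ∀ (t : ℝ), |t| * ρ ^ 2 ≤ T →
    ∀ (g : E3 → ℂ), Integrable g → MemLp g 2 → (∀ ζ, g ζ ≠ 0 → e ζ = 1) →
    WE w (slc (fun ζ => ∑ m ∈ s, capc ρ m ζ * g ζ) t) ≤ ENNReal.ofReal (Cst * K ^ 5) *
      ∑ m ∈ s, ∫⁻ y, ENNReal.ofReal (w (y - t • vel (cen ρ m))) * ‖umc ρ g m y‖ₑ ^ 2 := by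
  obtain ⟨C0, hC0, h⟩ := thmAc n (T := T) ha hM hL hQ
  refine ⟨C0 * Pov a * Q ^ 2, by have := Pov_pos a; positivity, ?_⟩
  intro ρ κ η0 hρ hκ hκ1 e hpk A K w hw s hA t ht g hg hg2 he
  refine (h ρ κ η0 hρ hκ hκ1 e A K w hw (ℤ × ℤ) s (cen ρ) (Pov a) (Pov_pos a)
    (hov_cen hρ s) hA t ht (fun m _ => hpk _)
    (fun m ζ => capc ρ m ζ * g ζ) (fun m => umc ρ g m) Q ?_ ?_).trans (le_of_eq ?_)
  · intro m hm ξ hξ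
    refine (hpk _).sw ξ ?_
    rw [he ξ (right_ne_zero_of_mul hξ), mul_one]
    exact left_ne_zero_of_mul hξ
  · intro m hm
    exact (hpk (cen ρ m)).rep_umc (capc_int hg ρ m) (capc_l2 hg2 ρ m) he
  · congr 2
    ring

/-- Bessel. -/
theorem B_ana (n : ℕ) {T L Q : ℝ} (ha : 1 ≤ a) (hM : 0 ≤ M) (hL : 1 ≤ L) (hQ : 0 < Q) :
    ∃ Cst : ℝ, 0 ≤ Cst ∧ ∀ (ρ κ η0 : ℝ) (hρ : 0 < ρ) (hκ : 0 < κ), κ ≤ 1 → ∀ (e : E3 → ℂ),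
      PkF (n + dd E3) Q T a M η0 κ ρ ha hM hρ hκ e →
    ∀ (A : E3 ≃L[ℝ] E3) (K : ℝ) (w : E3 → ℝ), SV A K n w →
    ∀ (s : Finset (ℤ × ℤ)), (∀ m ∈ s, ∀ x, ‖A x‖ ≤ L * ‖Pl ρ κ hρ hκ (cen ρ m) x‖) →
    ∀ (t : ℝ), |t| * ρ ^ 2 ≤ T →
    ∀ (g : E3 → ℂ), Integrable g → MemLp g 2 → (∀ ζ, g ζ ≠ 0 → e ζ = 1) →
    ∑ m ∈ s, ∫⁻ y, ENNReal.ofReal (w (y - t • vel (cen ρ m))) * ‖umc ρ g m y‖ₑ ^ 2 ≤
      ENNReal.ofReal (Cst * K ^ 4) * WE w (slc g t) := by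
  obtain ⟨C0, hC0, h⟩ := thmBc n (T := T) ha hM hL hQ
  refine ⟨C0 * Pov a, by have := Pov_pos a; positivity, ?_⟩
  intro ρ κ η0 hρ hκ hκ1 e hpk A K w hw s hA t ht g hg hg2 he
  refine (h ρ κ η0 hρ hκ hκ1 e A K w hw (ℤ × ℤ) s (cen ρ) (Pov a) (Pov_pos a)
    (hov_cen hρ s) hA t ht (fun m _ => hpk _) g hg hg2 he).trans (le_of_eq ?_)
  congr 2
  ring

end forms

/-! ### translation -/

theorem slc_trc (z : E3 × ℝ) (g : E3 → ℂ) (t : ℝ) (ξ : E3) :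
    slc (trc z g) t ξ = ee (inner ℝ z.1 ξ) * slc g (t + z.2) ξ := by
  unfold slc trc
  rw [Crest.Agent.R138.Wf448.ee_add, add_mul, Crest.Agent.R138.Wf448.ee_add]
  ring

theorem WE_trc (w : E3 → ℝ) (z : E3 × ℝ) (g : E3 → ℂ) (t : ℝ) :
    WE w (slc (trc z g) t) = WE (fun x => w (x - z.1)) (slc g (t + z.2)) :=
  WE_modulate w z.1 (slc_trc z g t)

theorem trc_ne {z : E3 × ℝ} {g : E3 → ℂ} {ζ : E3} (h : trc z g ζ ≠ 0) : g ζ ≠ 0 := by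
  unfold trc at h
  exact left_ne_zero_of_mul h

theorem trc_eq_slc (z : E3 × ℝ) (g : E3 → ℂ) :
    trc z g = fun ζ => ee (inner ℝ z.1 ζ) * slc g z.2 ζ := by
  funext ζ
  unfold slc trc
  rw [Crest.Agent.R138.Wf448.ee_add]
  ring

theorem trc_int' {g : E3 → ℂ} (hg : Integrable g) (z : E3 × ℝ) : Integrable (trc z g) := by
  rw [trc_eq_slc]
  exact mod_int (slc_int hg z.2) z.1

theorem trc_l2' {g : E3 → ℂ} (hg : MemLp g 2) (z : E3 × ℝ) : MemLp (trc z g) 2 := by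
  rw [trc_eq_slc]
  exact mod_l2 (slc_l2 hg z.2) z.1

/-- **level change** (abstract form). -/
theorem level_change {a M : ℝ} (n : ℕ) {T L Q : ℝ} (ha : 1 ≤ a) (hM : 0 ≤ M) (hL : 1 ≤ L)
    (hQ : 0 < Q) :
    ∃ Cst : ℝ, 0 ≤ Cst ∧ ∀ (ρ ρ' κ η0 : ℝ) (hρ : 0 < ρ) (hρ' : 0 < ρ') (hκ : 0 < κ), κ ≤ 1 →
    ∀ (e : E3 → ℂ), PkF (n + dd E3) Q T a M η0 κ ρ ha hM hρ hκ e →
      PkF (n + dd E3) Q T a M η0 κ ρ' ha hM hρ' hκ e →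
    ∀ (A : E3 ≃L[ℝ] E3) (K : ℝ) (w : E3 → ℝ), SV A K n w →
    ∀ (s s' : Finset (ℤ × ℤ)), (∀ m ∈ s, ∀ x, ‖A x‖ ≤ L * ‖Pl ρ κ hρ hκ (cen ρ m) x‖) →
    (∀ m ∈ s', ∀ x, ‖A x‖ ≤ L * ‖Pl ρ' κ hρ' hκ (cen ρ' m) x‖) →
    ∀ (t : ℝ) (z : E3 × ℝ), |t| * ρ' ^ 2 ≤ T → |t + z.2| * ρ ^ 2 ≤ T →
    ∀ (g : E3 → ℂ), Integrable g → MemLp g 2 → (∀ ζ, g ζ ≠ 0 → e ζ = 1) →
    (∀ ζ, g ζ = ∑ m ∈ s, capc ρ m ζ * g ζ) →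
    ∑ m ∈ s', ∫⁻ y, ENNReal.ofReal (w (y - t • vel (cen ρ' m))) * ‖umc ρ' (trc z g) m y‖ₑ ^ 2 ≤
      ENNReal.ofReal (Cst * K ^ 9) * ∑ m ∈ s, ∫⁻ y,
        ENNReal.ofReal (w (y - (t + z.2) • vel (cen ρ m) - z.1)) * ‖umc ρ g m y‖ₑ ^ 2 := by
  obtain ⟨C1, hC1, h1⟩ := B_ana (a := a) (M := M) n (T := T) ha hM hL hQ
  obtain ⟨C2, hC2, h2⟩ := A_ana (a := a) (M := M) n (T := T) ha hM hL hQ
  refine ⟨C1 * C2, by positivity, ?_⟩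
  intro ρ ρ' κ η0 hρ hρ' hκ hκ1 e hpk hpk' A K w hw s s' hA hA' t z ht htz g hg hg2 he hsum
  have hK := hw.one_le
  have b1 := h1 ρ' κ η0 hρ' hκ hκ1 e hpk' A K w hw s' hA' t ht (trc z g) (trc_int' hg z)
    (trc_l2' hg2 z) (fun ζ hζ => he ζ (trc_ne hζ))
  have b2 := h2 ρ κ η0 hρ hκ hκ1 e hpk A K _ (hw.comp_sub z.1) s hA (t + z.2) htz g hg hg2 he
  have e1 : (fun ζ => ∑ m ∈ s, capc ρ m ζ * g ζ) = g := by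
    funext ζ
    exact (hsum ζ).symm
  rw [e1, ← WE_trc] at b2
  refine b1.trans ((mul_le_mul_right b2 _).trans (le_of_eq ?_))
  rw [← mul_assoc, ← ENNReal.ofReal_mul (by positivity)]
  congr 2
  ring

/-! ### the two instances -/

/-- sliced family. -/
theorem pkF_sliced {a : ℝ} (ha : 1 ≤ a) (N : ℕ) (T : ℝ) :
    ∃ Q : ℝ, 0 < Q ∧ ∀ (η0 κ : ℝ), a⁻¹ ≤ η0 → η0 ≤ a → ∀ (hκ : 0 < κ), κ ≤ (4 * a)⁻¹ →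
      ∀ (ρ : ℝ) (hρ : 0 < ρ), PkF N Q T (2 * a) 2 η0 κ ρ (by linarith) (by norm_num) hρ hκ
        (etw η0 κ) := by
  obtain ⟨Q, hQ, h⟩ := pk_sliced ha N T
  exact ⟨Q, hQ, fun η0 κ h1 h2 hκ h3 ρ hρ C => h η0 κ h1 h2 hκ h3 ρ hρ C⟩

/-- unsliced family. -/
theorem pkF_unsliced {a : ℝ} (ha : 1 ≤ a) (N : ℕ) (T : ℝ) :
    ∃ Q : ℝ, 0 < Q ∧ ∀ (ρ : ℝ) (hρ : 0 < ρ), PkF N Q T (2 * a) (2 * a) 0 1 ρ (by linarith)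
      (by linarith) hρ one_pos (eaw a) := by
  obtain ⟨Q, hQ, h⟩ := pk_unsliced ha N T
  exact ⟨Q, hQ, fun ρ hρ C => h ρ hρ C⟩

theorem etw_one {η0 κ : ℝ} (hκ : 0 < κ) {ζ : E3} (h : |ζ 2 - η0| ≤ κ) : etw η0 κ ζ = 1 := by
  rw [etw_eq]
  apply bt_one
  rw [abs_div, abs_of_pos hκ, div_le_iff₀ hκ]
  linarith

/-- the centre of a slice which meets the support is in the range. -/
theorem ctr_range {a η0 κ : ℝ} (ha : 1 ≤ a) (hκ : 8 * a * κ ≤ 1) {g : E3 → ℂ}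
    (hs : Slc η0 κ g) {ζ : E3} (hζ : g ζ ≠ 0) (h1 : a⁻¹ ≤ ζ 2) (h2 : ζ 2 ≤ a) :
    (2 * a)⁻¹ ≤ η0 ∧ η0 ≤ 2 * a := by
  have ha0 : 0 < a := by linarith
  have h3 := abs_le.1 (hs ζ hζ)
  have h4 : κ ≤ a⁻¹ / 8 := by
    rw [le_div_iff₀ (by norm_num), ← one_div, le_div_iff₀ ha0]
    linarith
  have e1 : (2 * a)⁻¹ = a⁻¹ / 2 := by rw [mul_inv]; ring
  have hi : 0 < a⁻¹ := inv_pos.2 ha0
  have hi1 : a⁻¹ ≤ 1 := inv_le_one_of_one_le₀ ha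
  rw [e1]
  constructor <;> linarith [h3.1, h3.2]

theorem kap_range {a κ : ℝ} (ha : 1 ≤ a) (hκ : 8 * a * κ ≤ 1) : κ ≤ (4 * (2 * a))⁻¹ ∧ κ ≤ 1 := by
  have ha0 : 0 < a := by linarith
  have h4 : κ ≤ (4 * (2 * a))⁻¹ := by
    rw [← one_div, le_div_iff₀ (by positivity)]
    linarith
  refine ⟨h4, h4.trans (inv_le_one_of_one_le₀ (by linarith))⟩

/-- hypotheses on the functions: support in `η ∈ [a⁻¹, a]`. -/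
def Rng (a : ℝ) (g : E3 → ℂ) : Prop := ∀ ζ, g ζ ≠ 0 → a⁻¹ ≤ ζ 2 ∧ ζ 2 ≤ a

theorem umc_zero {ρ : ℝ} {g : E3 → ℂ} (h : ∀ ζ, g ζ = 0) (m : ℤ × ℤ) (y : E3) :
    umc ρ g m y = 0 := by
  unfold umc
  rw [fourierInv_eq_int]
  simp [h]

/-- **level change, sliced functions**. -/
theorem level_change_s {a : ℝ} (ha : 1 ≤ a) (n : ℕ) (T : ℝ) {L : ℝ} (hL : 1 ≤ L) :
    ∃ Cst : ℝ, 0 ≤ Cst ∧ ∀ (ρ ρ' κ η0 : ℝ) (hρ : 0 < ρ) (hρ' : 0 < ρ') (hκ : 0 < κ),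
      8 * a * κ ≤ 1 →
    ∀ (A : E3 ≃L[ℝ] E3) (K : ℝ) (w : E3 → ℝ), SV A K n w →
    ∀ (s s' : Finset (ℤ × ℤ)), (∀ m ∈ s, ∀ x, ‖A x‖ ≤ L * ‖Pl ρ κ hρ hκ (cen ρ m) x‖) →
    (∀ m ∈ s', ∀ x, ‖A x‖ ≤ L * ‖Pl ρ' κ hρ' hκ (cen ρ' m) x‖) →
    ∀ (t : ℝ) (z : E3 × ℝ), |t| * ρ' ^ 2 ≤ T → |t + z.2| * ρ ^ 2 ≤ T →
    ∀ (g : E3 → ℂ), Integrable g → MemLp g 2 → Rng a g → Slc η0 κ g →
    (∀ ζ, g ζ = ∑ m ∈ s, capc ρ m ζ * g ζ) →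
    ∑ m ∈ s', ∫⁻ y, ENNReal.ofReal (w (y - t • vel (cen ρ' m))) * ‖umc ρ' (trc z g) m y‖ₑ ^ 2 ≤
      ENNReal.ofReal (Cst * K ^ 9) * ∑ m ∈ s, ∫⁻ y,
        ENNReal.ofReal (w (y - (t + z.2) • vel (cen ρ m) - z.1)) * ‖umc ρ g m y‖ₑ ^ 2 := by
  have ha2 : 1 ≤ 2 * a := by linarith
  obtain ⟨Q, hQ, hF⟩ := pkF_sliced ha2 (n + dd E3) T
  obtain ⟨C0, hC0, h⟩ := level_change (a := 2 * (2 * a)) (M := 2) n (T := T) (L := L) (Q := Q)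
    (by linarith) (by norm_num) hL hQ
  refine ⟨C0, hC0, ?_⟩
  intro ρ ρ' κ η0 hρ hρ' hκ hκ8 A K w hw s s' hA hA' t z ht htz g hg hg2 hr hs hsum
  by_cases h0 : ∀ ζ, g ζ = 0
  · have h1 : ∀ ζ, trc z g ζ = 0 := fun ζ => by unfold trc; rw [h0, zero_mul]
    have h2 : ∀ m ∈ s', ∫⁻ y, ENNReal.ofReal (w (y - t • vel (cen ρ' m))) *
        ‖umc ρ' (trc z g) m y‖ₑ ^ 2 = 0 := by
      intro m _
      simp [umc_zero h1]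
    rw [Finset.sum_congr rfl h2, Finset.sum_const_zero]
    exact zero_le
  · push Not at h0
    obtain ⟨ζ, hζ⟩ := h0
    obtain ⟨h1, h2⟩ := hr ζ hζ
    obtain ⟨h3, h4⟩ := ctr_range ha hκ8 hs hζ h1 h2
    obtain ⟨h5, h6⟩ := kap_range ha hκ8
    exact h ρ ρ' κ η0 hρ hρ' hκ h6 (etw η0 κ) (hF η0 κ h3 h4 hκ h5 ρ hρ)
      (hF η0 κ h3 h4 hκ h5 ρ' hρ') A K w hw s s' hA hA' t z ht htz g hg hg2
      (fun ζ hζ => etw_one hκ (hs ζ hζ)) hsum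

/-- **level change, unsliced functions** (`κ = 1`). -/
theorem level_change_u {a : ℝ} (ha : 1 ≤ a) (n : ℕ) (T : ℝ) {L : ℝ} (hL : 1 ≤ L) :
    ∃ Cst : ℝ, 0 ≤ Cst ∧ ∀ (ρ ρ' : ℝ) (hρ : 0 < ρ) (hρ' : 0 < ρ'),
    ∀ (A : E3 ≃L[ℝ] E3) (K : ℝ) (w : E3 → ℝ), SV A K n w →
    ∀ (s s' : Finset (ℤ × ℤ)), (∀ m ∈ s, ∀ x, ‖A x‖ ≤ L * ‖Pl ρ 1 hρ one_pos (cen ρ m) x‖) →
    (∀ m ∈ s', ∀ x, ‖A x‖ ≤ L * ‖Pl ρ' 1 hρ' one_pos (cen ρ' m) x‖) →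
    ∀ (t : ℝ) (z : E3 × ℝ), |t| * ρ' ^ 2 ≤ T → |t + z.2| * ρ ^ 2 ≤ T →
    ∀ (g : E3 → ℂ), Integrable g → MemLp g 2 → Rng a g →
    (∀ ζ, g ζ = ∑ m ∈ s, capc ρ m ζ * g ζ) →
    ∑ m ∈ s', ∫⁻ y, ENNReal.ofReal (w (y - t • vel (cen ρ' m))) * ‖umc ρ' (trc z g) m y‖ₑ ^ 2 ≤
      ENNReal.ofReal (Cst * K ^ 9) * ∑ m ∈ s, ∫⁻ y,
        ENNReal.ofReal (w (y - (t + z.2) • vel (cen ρ m) - z.1)) * ‖umc ρ g m y‖ₑ ^ 2 := by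
  obtain ⟨Q, hQ, hF⟩ := pkF_unsliced ha (n + dd E3) T
  obtain ⟨C0, hC0, h⟩ := level_change (a := 2 * a) (M := 2 * a) n (T := T) (L := L) (Q := Q)
    (by linarith) (by linarith) hL hQ
  refine ⟨C0, hC0, ?_⟩
  intro ρ ρ' hρ hρ' A K w hw s s' hA hA' t z ht htz g hg hg2 hr hsum
  exact h ρ ρ' 1 0 hρ hρ' one_pos le_rfl (eaw a) (hF ρ hρ) (hF ρ' hρ') A K w hw s s' hA hA' t z
    ht htz g hg hg2 (fun ζ hζ => eaw_one ha (hr ζ hζ).1 (hr ζ hζ).2) hsum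

/-- **synthesis, sliced**: `v m` arbitrary integrable bounded. -/
theorem A_syn_s {a : ℝ} (ha : 1 ≤ a) (n : ℕ) (T : ℝ) {L : ℝ} (hL : 1 ≤ L) :
    ∃ Cst : ℝ, 0 ≤ Cst ∧ ∀ (ρ κ η0 : ℝ) (hρ : 0 < ρ) (hκ : 0 < κ), a⁻¹ ≤ η0 → η0 ≤ a →
      κ ≤ (4 * a)⁻¹ →
    ∀ (A : E3 ≃L[ℝ] E3) (K : ℝ) (w : E3 → ℝ), SV A K n w →
    ∀ (s : Finset (ℤ × ℤ)), (∀ m ∈ s, ∀ x, ‖A x‖ ≤ L * ‖Pl ρ κ hρ hκ (cen ρ m) x‖) →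
    ∀ (t : ℝ), |t| * ρ ^ 2 ≤ T →
    ∀ (v : ℤ × ℤ → E3 → ℂ), (∀ m ∈ s, Integrable (v m)) → (∀ m ∈ s, ∃ B, ∀ y, ‖v m y‖ ≤ B) →
    WE w (slc (fun ζ => ∑ m ∈ s, fatc ρ m ζ * etw η0 κ ζ * 𝓕 (v m) ζ) t) ≤
      ENNReal.ofReal (Cst * K ^ 5) *
      ∑ m ∈ s, ∫⁻ y, ENNReal.ofReal (w (y - t • vel (cen ρ m))) * ‖v m y‖ₑ ^ 2 := by
  obtain ⟨Q, hQ, hF⟩ := pkF_sliced ha (n + dd E3) T
  obtain ⟨C0, hC0, h⟩ := A_syn (a := 2 * a) (M := 2) n (T := T) (L := L) (Q := Q)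
    (by linarith) (by norm_num) hL hQ
  refine ⟨C0, hC0, ?_⟩
  intro ρ κ η0 hρ hκ h1 h2 h3 A K w hw s hA t ht v hv hb
  have h4 : κ ≤ 1 := h3.trans (inv_le_one_of_one_le₀ (by linarith))
  exact h ρ κ η0 hρ hκ h4 (etw η0 κ) (hF η0 κ h1 h2 hκ h3 ρ hρ) A K w hw s hA t ht v hv hb

/-- **analysis (upper bound by own packets), sliced**. -/
theorem A_ana_s {a : ℝ} (ha : 1 ≤ a) (n : ℕ) (T : ℝ) {L : ℝ} (hL : 1 ≤ L) :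
    ∃ Cst : ℝ, 0 ≤ Cst ∧ ∀ (ρ κ η0 : ℝ) (hρ : 0 < ρ) (hκ : 0 < κ), a⁻¹ ≤ η0 → η0 ≤ a →
      κ ≤ (4 * a)⁻¹ →
    ∀ (A : E3 ≃L[ℝ] E3) (K : ℝ) (w : E3 → ℝ), SV A K n w →
    ∀ (s : Finset (ℤ × ℤ)), (∀ m ∈ s, ∀ x, ‖A x‖ ≤ L * ‖Pl ρ κ hρ hκ (cen ρ m) x‖) →
    ∀ (t : ℝ), |t| * ρ ^ 2 ≤ T →
    ∀ (g : E3 → ℂ), Integrable g → MemLp g 2 → Slc η0 κ g →
    WE w (slc (fun ζ => ∑ m ∈ s, capc ρ m ζ * g ζ) t) ≤ ENNReal.ofReal (Cst * K ^ 5) *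
      ∑ m ∈ s, ∫⁻ y, ENNReal.ofReal (w (y - t • vel (cen ρ m))) * ‖umc ρ g m y‖ₑ ^ 2 := by
  obtain ⟨Q, hQ, hF⟩ := pkF_sliced ha (n + dd E3) T
  obtain ⟨C0, hC0, h⟩ := A_ana (a := 2 * a) (M := 2) n (T := T) (L := L) (Q := Q)
    (by linarith) (by norm_num) hL hQ
  refine ⟨C0, hC0, ?_⟩
  intro ρ κ η0 hρ hκ h1 h2 h3 A K w hw s hA t ht g hg hg2 hs
  have h4 : κ ≤ 1 := h3.trans (inv_le_one_of_one_le₀ (by linarith))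
  exact h ρ κ η0 hρ hκ h4 (etw η0 κ) (hF η0 κ h1 h2 hκ h3 ρ hρ) A K w hw s hA t ht g hg hg2
    (fun ζ hζ => etw_one hκ (hs ζ hζ))

/-- **Bessel, sliced**. -/
theorem B_ana_s {a : ℝ} (ha : 1 ≤ a) (n : ℕ) (T : ℝ) {L : ℝ} (hL : 1 ≤ L) :
    ∃ Cst : ℝ, 0 ≤ Cst ∧ ∀ (ρ κ η0 : ℝ) (hρ : 0 < ρ) (hκ : 0 < κ), a⁻¹ ≤ η0 → η0 ≤ a →
      κ ≤ (4 * a)⁻¹ →
    ∀ (A : E3 ≃L[ℝ] E3) (K : ℝ) (w : E3 → ℝ), SV A K n w →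
    ∀ (s : Finset (ℤ × ℤ)), (∀ m ∈ s, ∀ x, ‖A x‖ ≤ L * ‖Pl ρ κ hρ hκ (cen ρ m) x‖) →
    ∀ (t : ℝ), |t| * ρ ^ 2 ≤ T →
    ∀ (g : E3 → ℂ), Integrable g → MemLp g 2 → Slc η0 κ g →
    ∑ m ∈ s, ∫⁻ y, ENNReal.ofReal (w (y - t • vel (cen ρ m))) * ‖umc ρ g m y‖ₑ ^ 2 ≤
      ENNReal.ofReal (Cst * K ^ 4) * WE w (slc g t) := by
  obtain ⟨Q, hQ, hF⟩ := pkF_sliced ha (n + dd E3) T
  obtain ⟨C0, hC0, h⟩ := B_ana (a := 2 * a) (M := 2) n (T := T) (L := L) (Q := Q)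
    (by linarith) (by norm_num) hL hQ
  refine ⟨C0, hC0, ?_⟩
  intro ρ κ η0 hρ hκ h1 h2 h3 A K w hw s hA t ht g hg hg2 hs
  have h4 : κ ≤ 1 := h3.trans (inv_le_one_of_one_le₀ (by linarith))
  exact h ρ κ η0 hρ hκ h4 (etw η0 κ) (hF η0 κ h1 h2 hκ h3 ρ hρ) A K w hw s hA t ht g hg hg2
    (fun ζ hζ => etw_one hκ (hs ζ hζ))

/-- **analysis, unsliced** (`κ = 1`). -/
theorem A_ana_u {a : ℝ} (ha : 1 ≤ a) (n : ℕ) (T : ℝ) {L : ℝ} (hL : 1 ≤ L) :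
    ∃ Cst : ℝ, 0 ≤ Cst ∧ ∀ (ρ : ℝ) (hρ : 0 < ρ),
    ∀ (A : E3 ≃L[ℝ] E3) (K : ℝ) (w : E3 → ℝ), SV A K n w →
    ∀ (s : Finset (ℤ × ℤ)), (∀ m ∈ s, ∀ x, ‖A x‖ ≤ L * ‖Pl ρ 1 hρ one_pos (cen ρ m) x‖) →
    ∀ (t : ℝ), |t| * ρ ^ 2 ≤ T →
    ∀ (g : E3 → ℂ), Integrable g → MemLp g 2 → Rng a g →
    WE w (slc (fun ζ => ∑ m ∈ s, capc ρ m ζ * g ζ) t) ≤ ENNReal.ofReal (Cst * K ^ 5) *
      ∑ m ∈ s, ∫⁻ y, ENNReal.ofReal (w (y - t • vel (cen ρ m))) * ‖umc ρ g m y‖ₑ ^ 2 := by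
  obtain ⟨Q, hQ, hF⟩ := pkF_unsliced ha (n + dd E3) T
  obtain ⟨C0, hC0, h⟩ := A_ana (a := 2 * a) (M := 2 * a) n (T := T) (L := L) (Q := Q)
    (by linarith) (by linarith) hL hQ
  refine ⟨C0, hC0, ?_⟩
  intro ρ hρ A K w hw s hA t ht g hg hg2 hr
  exact h ρ 1 0 hρ one_pos le_rfl (eaw a) (hF ρ hρ) A K w hw s hA t ht g hg hg2
    (fun ζ hζ => eaw_one ha (hr ζ hζ).1 (hr ζ hζ).2)

/-- **Bessel, unsliced** (`κ = 1`). -/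
theorem B_ana_u {a : ℝ} (ha : 1 ≤ a) (n : ℕ) (T : ℝ) {L : ℝ} (hL : 1 ≤ L) :
    ∃ Cst : ℝ, 0 ≤ Cst ∧ ∀ (ρ : ℝ) (hρ : 0 < ρ),
    ∀ (A : E3 ≃L[ℝ] E3) (K : ℝ) (w : E3 → ℝ), SV A K n w →
    ∀ (s : Finset (ℤ × ℤ)), (∀ m ∈ s, ∀ x, ‖A x‖ ≤ L * ‖Pl ρ 1 hρ one_pos (cen ρ m) x‖) →
    ∀ (t : ℝ), |t| * ρ ^ 2 ≤ T →
    ∀ (g : E3 → ℂ), Integrable g → MemLp g 2 → Rng a g →
    ∑ m ∈ s, ∫⁻ y, ENNReal.ofReal (w (y - t • vel (cen ρ m))) * ‖umc ρ g m y‖ₑ ^ 2 ≤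
      ENNReal.ofReal (Cst * K ^ 4) * WE w (slc g t) := by
  obtain ⟨Q, hQ, hF⟩ := pkF_unsliced ha (n + dd E3) T
  obtain ⟨C0, hC0, h⟩ := B_ana (a := 2 * a) (M := 2 * a) n (T := T) (L := L) (Q := Q)
    (by linarith) (by linarith) hL hQ
  refine ⟨C0, hC0, ?_⟩
  intro ρ hρ A K w hw s hA t ht g hg hg2 hr
  exact h ρ 1 0 hρ one_pos le_rfl (eaw a) (hF ρ hρ) A K w hw s hA t ht g hg hg2
    (fun ζ hζ => eaw_one ha (hr ζ hζ).1 (hr ζ hζ).2)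

/-! ### selections -/

theorem ind_int {v : E3 → ℂ} (hv : AEStronglyMeasurable v) {B : ℝ} (hB : ∀ y, ‖v y‖ ≤ B)
    {S : Set E3} (hS : MeasurableSet S) (hb : Bornology.IsBounded S) :
    Integrable (S.indicator v) ∧ ∀ y, ‖S.indicator v y‖ ≤ B := by
  have hB0 : 0 ≤ B := (norm_nonneg _).trans (hB 0)
  refine ⟨?_, fun y => ?_⟩
  · rw [integrable_indicator_iff hS]
    refine Measure.integrableOn_of_bounded (M := B) hb.measure_lt_top.ne hv ?_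
    exact Filter.Eventually.of_forall hB
  · by_cases hy : y ∈ S
    · rw [Set.indicator_of_mem hy]; exact hB y
    · rw [Set.indicator_of_notMem hy, norm_zero]; exact hB0

theorem umc_cont {g : E3 → ℂ} (hg : Integrable g) (ρ : ℝ) (m : ℤ × ℤ) : Continuous (umc ρ g m) :=
  fourierInv_continuous (capc_int hg ρ m)

theorem umc_le {g : E3 → ℂ} (ρ : ℝ) (m : ℤ × ℤ) (y : E3) :
    ‖umc ρ g m y‖ ≤ ∫ ζ, ‖capc ρ m ζ * g ζ‖ := by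
  unfold umc
  rw [fourierInv_eq_int]
  refine (norm_integral_le_integral_norm _).trans (le_of_eq ?_)
  congr 1
  ext ζ
  rw [norm_mul _ (ee _), norm_ee, mul_one]

/-- **Lemma A for selections** (any finite set `s` of caps). -/
theorem A_sel {a : ℝ} (ha : 1 ≤ a) (n : ℕ) (T : ℝ) {L : ℝ} (hL : 1 ≤ L) :
    ∃ Cst : ℝ, 0 ≤ Cst ∧ ∀ (ρ κ η0 : ℝ) (hρ : 0 < ρ) (hκ : 0 < κ), a⁻¹ ≤ η0 → η0 ≤ a →
      κ ≤ (4 * a)⁻¹ →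
    ∀ (A : E3 ≃L[ℝ] E3) (K : ℝ) (w : E3 → ℝ), SV A K n w →
    ∀ (s : Finset (ℤ × ℤ)), (∀ m ∈ s, ∀ x, ‖A x‖ ≤ L * ‖Pl ρ κ hρ hκ (cen ρ m) x‖) →
    ∀ (t : ℝ), |t| * ρ ^ 2 ≤ T →
    ∀ (g : E3 → ℂ) (S : ℤ × ℤ → Set E3), Integrable g → (∀ m ∈ s, MeasurableSet (S m)) →
    (∀ m ∈ s, Bornology.IsBounded (S m)) →
    WE w (slc (fun ζ => ∑ m ∈ s, piecec η0 κ ρ g m (S m) ζ) t) ≤ ENNReal.ofReal (Cst * K ^ 5) *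
      ∑ m ∈ s, ∫⁻ y in S m, ENNReal.ofReal (w (y - t • vel (cen ρ m))) * ‖umc ρ g m y‖ₑ ^ 2 := by
  obtain ⟨C0, hC0, h⟩ := A_syn_s ha n T hL
  refine ⟨C0, hC0, ?_⟩
  intro ρ κ η0 hρ hκ h1 h2 h3 A K w hw s hA t ht g S hg hS hSb
  have h4 := h ρ κ η0 hρ hκ h1 h2 h3 A K w hw s hA t ht (fun m => (S m).indicator (umc ρ g m))
    (fun m hm => (ind_int (umc_cont hg ρ m).aestronglyMeasurable (umc_le ρ m) (hS m hm)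
      (hSb m hm)).1)
    (fun m hm => ⟨_, (ind_int (umc_cont hg ρ m).aestronglyMeasurable (umc_le ρ m) (hS m hm)
      (hSb m hm)).2⟩)
  refine h4.trans (le_of_eq ?_)
  congr 1
  refine Finset.sum_congr rfl fun m hm => ?_
  rw [← lintegral_indicator (hS m hm)]
  refine lintegral_congr fun y => ?_
  by_cases hy : y ∈ S m
  · rw [Set.indicator_of_mem hy, Set.indicator_of_mem hy]
  · rw [Set.indicator_of_notMem hy, Set.indicator_of_notMem hy]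
    simp

/-- the weight `1` gives the energy. -/
theorem WE_one {F : E3 → ℂ} (h1 : Integrable F) (h2 : MemLp F 2) :
    WE (fun _ => 1) F = ENNReal.ofReal (Enc F) := by
  unfold WE Enc
  rw [ofReal_integral_eq_lintegral_ofReal (h2.integrable_norm_pow (by norm_num))
    (Filter.Eventually.of_forall fun ζ => by positivity)]
  simp only [ENNReal.ofReal_one, one_mul]
  rw [Crest.Agent.R138.Fq665.plancherel_inv h1 h2]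
  refine lintegral_congr fun ζ => ?_
  rw [← ofReal_norm, ENNReal.ofReal_pow (norm_nonneg _)]

/-- a metric dominated by finitely many frames. -/
theorem exists_small (ι : Type) (s : Finset ι) (B : ι → E3 ≃L[ℝ] E3) :
    ∃ A : E3 ≃L[ℝ] E3, ∀ i ∈ s, ∀ x, ‖A x‖ ≤ 1 * ‖B i x‖ := by
  set δ : ℝ := (1 + ∑ i ∈ s, ‖((B i).symm : E3 →L[ℝ] E3)‖)⁻¹ with hδ
  have h0 : 0 ≤ ∑ i ∈ s, ‖((B i).symm : E3 →L[ℝ] E3)‖ := Finset.sum_nonneg fun i _ => norm_nonneg _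
  have hδ0 : 0 < δ := by positivity
  refine ⟨scl δ hδ0 (ContinuousLinearEquiv.refl ℝ E3), fun i hi x => ?_⟩
  rw [norm_scl, one_mul]
  have h1 : ‖x‖ ≤ ‖((B i).symm : E3 →L[ℝ] E3)‖ * ‖B i x‖ := by
    have := ((B i).symm : E3 →L[ℝ] E3).le_opNorm (B i x)
    simpa using this
  have h2 : ‖((B i).symm : E3 →L[ℝ] E3)‖ ≤ 1 + ∑ i ∈ s, ‖((B i).symm : E3 →L[ℝ] E3)‖ := by
    have := Finset.single_le_sum (f := fun i => ‖((B i).symm : E3 →L[ℝ] E3)‖)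
      (fun i _ => norm_nonneg _) hi
    linarith
  rw [hδ, ContinuousLinearEquiv.refl_apply, inv_mul_le_iff₀ (by linarith)]
  exact h1.trans (mul_le_mul_of_nonneg_right h2 (norm_nonneg _))

/-- **energy of a selected wave** (partial sums over any finite set of caps). -/
theorem Enc_sel_le {a : ℝ} (ha : 1 ≤ a) :
    ∃ Cst : ℝ, 0 ≤ Cst ∧ ∀ (ρ κ η0 : ℝ), 0 < ρ → 0 < κ → a⁻¹ ≤ η0 → η0 ≤ a →
      κ ≤ (4 * a)⁻¹ → ∀ (s : Finset (ℤ × ℤ)) (g : E3 → ℂ) (S : ℤ × ℤ → Set E3), Integrable g →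
    (∀ m ∈ s, MeasurableSet (S m)) → (∀ m ∈ s, Bornology.IsBounded (S m)) →
    ENNReal.ofReal (Enc (fun ζ => ∑ m ∈ s, piecec η0 κ ρ g m (S m) ζ)) ≤
      ENNReal.ofReal Cst * ∑ m ∈ s, ∫⁻ y in S m, ‖umc ρ g m y‖ₑ ^ 2 := by
  obtain ⟨C0, hC0, h⟩ := A_sel ha 0 0 (L := 1) le_rfl
  obtain ⟨Q, hQ, hF⟩ := pkF_sliced ha 0 0
  refine ⟨C0, hC0, ?_⟩
  intro ρ κ η0 hρ hκ h1 h2 h3 s g S hg hS hSb
  obtain ⟨A, hA⟩ := exists_small (ℤ × ℤ) s (fun m => Pl ρ κ hρ hκ (cen ρ m))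
  have h4 := h ρ κ η0 hρ hκ h1 h2 h3 A 1 (fun _ => 1) (SV_one A 0) s hA 0 (by simp) g S hg hS hSb
  have hrep : ∀ m ∈ s, Integrable (piecec η0 κ ρ g m (S m)) ∧ MemLp (piecec η0 κ ρ g m (S m)) 2 := by
    intro m hm
    obtain ⟨h5, h6⟩ := ind_int (umc_cont hg ρ m).aestronglyMeasurable (umc_le ρ m) (hS m hm)
      (hSb m hm)
    have h7 := (hF η0 κ h1 h2 hκ h3 ρ hρ (cen ρ m)).rep_piece h5 h6
    exact ⟨h7.int, h7.l2⟩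
  have e0 : slc (fun ζ => ∑ m ∈ s, piecec η0 κ ρ g m (S m) ζ) 0 =
      fun ζ => ∑ m ∈ s, piecec η0 κ ρ g m (S m) ζ := by
    funext ζ
    unfold slc
    rw [zero_mul, ee_zero, mul_one]
  rw [e0, WE_one (integrable_finset_sum s fun m hm => (hrep m hm).1)
    (memLp_finset_sum s fun m hm => (hrep m hm).2)] at h4
  simpa using h4

/-- **energy of `selc`**. -/
theorem Enc_selc_le {a : ℝ} (ha : 1 ≤ a) :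
    ∃ Cst : ℝ, 0 ≤ Cst ∧ ∀ (ρ κ η0 : ℝ), 0 < ρ → 0 < κ → a⁻¹ ≤ η0 → η0 ≤ a →
      κ ≤ (4 * a)⁻¹ → ∀ (g : E3 → ℂ) (S : ℤ × ℤ → Set E3), Integrable g →
    (∀ m ∈ caps ρ, MeasurableSet (S m)) → (∀ m ∈ caps ρ, Bornology.IsBounded (S m)) →
    ENNReal.ofReal (Enc (selc η0 κ ρ g S)) ≤ ENNReal.ofReal Cst * enc ρ g S := by
  obtain ⟨C0, hC0, h⟩ := Enc_sel_le ha
  exact ⟨C0, hC0, fun ρ κ η0 hρ hκ h1 h2 h3 g S hg hS hSb =>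
    h ρ κ η0 hρ hκ h1 h2 h3 (caps ρ) g S hg hS hSb⟩

/-- partition of unity on the slopes `≤ 2`. -/
theorem sum_capc_mul {ρ : ℝ} (hρ : 0 < ρ) {g : E3 → ℂ} (hg : ∀ ζ, g ζ ≠ 0 → ‖slp ζ‖ ≤ 2) (ζ : E3) :
    g ζ = ∑ m ∈ caps ρ, capc ρ m ζ * g ζ := by
  rw [← Finset.sum_mul]
  by_cases h0 : g ζ = 0
  · rw [h0, mul_zero]
  · have h1 : ∑ m ∈ caps ρ, capc ρ m ζ = 1 :=
      Crest.Agent.R138.Wpk685.cap_win_sum hρ (hg ζ h0)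
    rw [h1, one_mul]

/-- only the caps meeting the support matter. -/
theorem sum_capc_sub {ρ : ℝ} (hρ : 0 < ρ) {g : E3 → ℂ} (hg : ∀ ζ, g ζ ≠ 0 → ‖slp ζ‖ ≤ 2)
    {s : Finset (ℤ × ℤ)} (hs : s ⊆ caps ρ) (hz : ∀ m ∈ caps ρ, m ∉ s → ∀ ζ, capc ρ m ζ * g ζ = 0)
    (ζ : E3) : g ζ = ∑ m ∈ s, capc ρ m ζ * g ζ := by
  rw [Finset.sum_subset hs fun m hm hm' => hz m hm hm' ζ]
  exact sum_capc_mul hρ hg ζ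

end Crest.Agent.R116.CWd480
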