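import Crest.Agent.R116.SmC2_339

/-!
# R116 (S0155), wave side, AL-CONE (helper339): SUPM-C, part 3

Many frames, many caps.
-/

set_option autoImplicit false

open MeasureTheory
open scoped ENNReal

namespace Crest.Agent.R116.SmC339

variable {E : Type} [NormedAddCommGroup E] [InnerProductSpace ℝ E] [FiniteDimensional ℝ E]
  [MeasurableSpace E] [BorelSpace E]

open Classical in
/-- **SUPM-C, many frames.**  Child plates `i` in the frames `z i` with labels `lab i` (the caps of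
the parent densities `G`); isotropic cells `q m`; `W` = section volume of the plates, `Lam` =
enlargement by the cells. -/
theorem frames_mult {M I K : Type} [Fintype M] [Fintype I] [Fintype K] {k : M → E → ℝ≥0∞}
    {v : M → E} {U : E × ℝ → M → E → ℝ≥0∞} {z : I → E × ℝ} {S : I → M → Set E} {lab : I → K}
    (hS : ∀ i m, MeasurableSet (S i m)) (hk : ∀ m, Measurable (k m))
    (hU : ∀ ζ m, Measurable (U ζ m)) {q : M → Set E} (hq : ∀ m, MeasurableSet (q m))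
    {c0 Vq W Lam Mu τ CQ CG : ℝ} (hc0 : 0 < c0) (hVq : 0 < Vq) (hW : 0 < W) (hLam : 0 < Lam)
    (hMu : 0 ≤ Mu) (hτ : 0 ≤ τ) (hCQ : 0 ≤ CQ) (hCG : 0 ≤ CG)
    (hqk : ∀ m, ∀ u ∈ q m, ENNReal.ofReal c0 ≤ k m u)
    (hqV : ∀ m, ENNReal.ofReal Vq ≤ volume (q m))
    (hQ : ∀ m, ∫⁻ u, k m u ≤ ENNReal.ofReal (CQ * Vq)) {r K0 R : ℝ} (hr : 0 < r) (hK0 : 0 ≤ K0)
    (hR0 : K0 * r ≤ R) (hz : ∀ i, z i ∈ (cy R : Set (E × ℝ)))
    (hsep : ∀ i j, z i ≠ z j → r ≤ dist (z i) (z j))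
    (Rg : I → ℝ → Set E) (hRm : ∀ i t, |t| ≤ r → MeasurableSet (Rg i t))
    (hR : ∀ i t, |t| ≤ r → ∀ m, ∀ y ∈ S i m, ∀ u ∈ q m, y - t • v m - u ∈ Rg i t)
    (hRV : ∀ i t, |t| ≤ r → volume (Rg i t) ≤ ENNReal.ofReal (Lam * W))
    (hRb : ∀ i t, |t| ≤ r → ∀ x ∈ Rg i t, ‖x‖ ≤ K0 * r) (hK1 : 1 ≤ K0)
    (G : K → E × ℝ → ℝ≥0∞) (hG : ∀ κ, Measurable (G κ))
    (hH : ∀ i t, |t| ≤ r → ∀ x ∈ Rg i t, seK k v (U (z i)) (S i) x t ≤
      ENNReal.ofReal Vq * (ENNReal.ofReal (Mu / Lam) * G (lab i) ((x, t) + z i) +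
        ENNReal.ofReal τ))
    (hsum : ∀ κ ζ x t, |t| ≤ r → ∑ i with lab i = κ ∧ z i = ζ, seK k v (U ζ) (S i) x t ≤
      ENNReal.ofReal (CG * Vq) * G κ ((x, t) + ζ)) :
    ∑ i, ENNReal.ofReal (r * W ^ (-(1/2) : ℝ)) * enK (U (z i)) (S i) ^ (3 / 2 : ℝ) ≤
      ENNReal.ofReal (c0 ^ (-(3/2) : ℝ) * CG * (2 * K0 + 2) ^ (Module.finrank ℝ (E × ℝ)) *
          Mu ^ (1 / 2 : ℝ)) * (∑ κ, ∫⁻ p in cy (2 * R), G κ p ^ (3 / 2 : ℝ)) +
        ENNReal.ofReal (2 * c0 ^ (-(3/2) : ℝ) * CQ * (Lam * τ) ^ (1 / 2 : ℝ)) *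
          (ENNReal.ofReal r * ∑ i, enK (U (z i)) (S i)) := by
  have hc1 : 0 ≤ c0 ^ (-(3/2) : ℝ) := (Real.rpow_pos_of_pos hc0 _).le
  set D : ℝ := (2 * K0 + 2) ^ (Module.finrank ℝ (E × ℝ)) with hD
  have hD0 : 0 ≤ D := by positivity
  set Q1 : ℝ := c0 ^ (-(3/2) : ℝ) * CG * Mu ^ (1 / 2 : ℝ) with hQ1
  set Q2 : ℝ := 2 * c0 ^ (-(3/2) : ℝ) * CQ * (Lam * τ) ^ (1 / 2 : ℝ) with hQ2
  have hQ10 : 0 ≤ Q1 := by positivity
  have hQ20 : 0 ≤ Q2 := by positivity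
  have hreg : MeasurableSet (reg K0 r : Set (E × ℝ)) := Metric.isClosed_closedBall.measurableSet
  -- sums over a class
  have hJ : ∀ (κ : K) (ζ : E × ℝ) (f : I → ℝ≥0∞), ∑ i : {i : I // lab i = κ ∧ z i = ζ}, f i.1 =
      ∑ i with lab i = κ ∧ z i = ζ, f i := by
    intro κ ζ f
    symm
    refine Finset.sum_subtype _ ?_ f
    intro i
    simp only [Finset.mem_filter, Finset.mem_univ, true_and]
  -- one frame and one cap
  have hone : ∀ (κ : K) (ζ : E × ℝ),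
      ∑ i with lab i = κ ∧ z i = ζ,
        ENNReal.ofReal (r * W ^ (-(1/2) : ℝ)) * enK (U (z i)) (S i) ^ (3 / 2 : ℝ) ≤
      ENNReal.ofReal Q1 * (∫⁻ p in reg K0 r, G κ (p + ζ) ^ (3 / 2 : ℝ)) +
        ENNReal.ofReal Q2 * (ENNReal.ofReal r *
          ∑ i with lab i = κ ∧ z i = ζ, enK (U (z i)) (S i)) := by
    intro κ ζ
    have h2 := frame_mult (I := {i : I // lab i = κ ∧ z i = ζ}) (k := k) (v := v) (U := U ζ)
      (S := fun i => S i.1) (fun i => hS i.1) hk (hU ζ) hq hc0 hVq hW hLam hMu hτ hCQ hCG hqk hqV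
      hQ hr (fun i => Rg i.1) (fun i => hRm i.1) (fun i => hR i.1) (fun i => hRV i.1)
      (fun p => G κ (p + ζ)) ((hG κ).comp (measurable_id.add_const ζ))
      (by
        intro i t ht x hx
        have h3 := hH i.1 t ht x hx
        rw [i.2.1, i.2.2] at h3
        exact h3)
      (by
        intro x t ht
        refine le_trans (le_of_eq ?_) (hsum κ ζ x t ht)
        exact hJ κ ζ fun i => seK k v (U ζ) (S i) x t)
      (reg K0 r) hreg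
      (by
        intro i t ht x hx
        rw [reg, mem_closedBall_zero_iff, Prod.norm_def, max_le_iff]
        refine ⟨hRb i.1 t ht x hx, ?_⟩
        calc ‖((x, t) : E × ℝ).2‖ = |t| := rfl
          _ ≤ r := ht
          _ ≤ K0 * r := by nlinarith)
    have e1 : ∀ f : ℝ≥0∞ → ℝ≥0∞, ∑ i with lab i = κ ∧ z i = ζ, f (enK (U (z i)) (S i)) =
        ∑ i : {i : I // lab i = κ ∧ z i = ζ}, f (enK (U ζ) (S i.1)) := by
      intro f
      rw [hJ κ ζ fun i => f (enK (U ζ) (S i))]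
      refine Finset.sum_congr rfl fun i hi => ?_
      rw [(Finset.mem_filter.1 hi).2.2]
    have e2 := e1 fun x => ENNReal.ofReal (r * W ^ (-(1/2) : ℝ)) * x ^ (3 / 2 : ℝ)
    have e3 := e1 fun x => x
    rw [e2, e3]
    exact h2
  -- sum over the frames and caps
  set Z : Finset (E × ℝ) := Finset.univ.image z with hZ
  have hsplit : ∀ f : I → ℝ≥0∞, ∑ i, f i =
      ∑ κ : K, ∑ ζ ∈ Z, ∑ i with lab i = κ ∧ z i = ζ, f i := by
    intro f
    rw [← Finset.sum_fiberwise Finset.univ lab f]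
    refine Finset.sum_congr rfl fun κ _ => ?_
    have h3 := Finset.sum_fiberwise_of_maps_to (s := Finset.univ.filter fun i => lab i = κ) (t := Z)
      (g := z) (fun i _ => Finset.mem_image_of_mem z (Finset.mem_univ i)) f
    rw [← h3]
    refine Finset.sum_congr rfl fun ζ _ => ?_
    rw [Finset.filter_filter]
  rw [hsplit fun i => ENNReal.ofReal (r * W ^ (-(1/2) : ℝ)) * enK (U (z i)) (S i) ^ (3 / 2 : ℝ),
    hsplit fun i => enK (U (z i)) (S i)]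
  have hfr : ∀ κ : K, ∑ ζ ∈ Z, ∫⁻ p in reg K0 r, G κ (p + ζ) ^ (3 / 2 : ℝ) ≤
      ENNReal.ofReal D * ∫⁻ p in cy (2 * R), G κ p ^ (3 / 2 : ℝ) := by
    intro κ
    refine sum_framesG hr hK0 hR0 Z ?_ ?_ (fun p => G κ p ^ (3 / 2 : ℝ)) ((hG κ).pow_const _)
    · intro x hx y hy hxy
      obtain ⟨i, -, rfl⟩ := Finset.mem_image.1 hx
      obtain ⟨j, -, rfl⟩ := Finset.mem_image.1 hy
      exact hsep i j hxy
    · intro x hx
      obtain ⟨i, -, rfl⟩ := Finset.mem_image.1 hx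
      exact hz i
  calc ∑ κ : K, ∑ ζ ∈ Z, ∑ i with lab i = κ ∧ z i = ζ,
        ENNReal.ofReal (r * W ^ (-(1/2) : ℝ)) * enK (U (z i)) (S i) ^ (3 / 2 : ℝ)
      ≤ ∑ κ : K, ∑ ζ ∈ Z, (ENNReal.ofReal Q1 *
          (∫⁻ p in reg K0 r, G κ (p + ζ) ^ (3 / 2 : ℝ)) +
        ENNReal.ofReal Q2 * (ENNReal.ofReal r *
          ∑ i with lab i = κ ∧ z i = ζ, enK (U (z i)) (S i))) :=
        Finset.sum_le_sum fun κ _ => Finset.sum_le_sum fun ζ _ => hone κ ζ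
    _ = ENNReal.ofReal Q1 * (∑ κ : K, ∑ ζ ∈ Z, ∫⁻ p in reg K0 r, G κ (p + ζ) ^ (3 / 2 : ℝ)) +
        ENNReal.ofReal Q2 * (ENNReal.ofReal r *
          ∑ κ : K, ∑ ζ ∈ Z, ∑ i with lab i = κ ∧ z i = ζ, enK (U (z i)) (S i)) := by
        simp only [Finset.sum_add_distrib, Finset.mul_sum]
    _ ≤ ENNReal.ofReal Q1 * (∑ κ : K, ENNReal.ofReal D *
            ∫⁻ p in cy (2 * R), G κ p ^ (3 / 2 : ℝ)) +
        ENNReal.ofReal Q2 * (ENNReal.ofReal r *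
          ∑ κ : K, ∑ ζ ∈ Z, ∑ i with lab i = κ ∧ z i = ζ, enK (U (z i)) (S i)) := by
        gcongr with κ _
        exact hfr κ
    _ = _ := by
        rw [← Finset.mul_sum, ← mul_assoc, ← ENNReal.ofReal_mul (by positivity)]
        congr 3
        rw [hQ1]; ring

end Crest.Agent.R116.SmC339
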