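import Crest.Agent.R116.PDefC_299
import Crest.Agent.R116.Bas2_367

/-!
# R116 (S0155), WAVE side, block W15 (helper367): `AL_C → MIS_C → STEP_C`

Port of `R138/Step1_654`: the selections of the child plates are split into aligned and misaligned
points (with respect to the child normal rounded to a countable net, hence measurable).
-/

set_option autoImplicit false

open MeasureTheory FourierTransform
open scoped ENNReal

namespace Crest.Agent.R116.StepC367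

open Crest.Agent.R138.Defs (E2 ee)
open Crest.Agent.R138.Wpk685 (cen caps)
open Crest.Agent.R116.CDef480
open Crest.Agent.R116.LZg725 (Cf)
open Crest.Agent.R116.Gc192 (un crs)
open Crest.Agent.R116.WC188
open Crest.Agent.R116.PC299
open Crest.Agent.R116.Bas367

/-! ### measurability of the normals -/

theorem measurable_gr (f : Cf E2) (C : E2) (s : ℝ) :
    Measurable fun y : E3 => f.gr C (lat y) s := by
  unfold Crest.Agent.R116.LZg725.Cf.gr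
  exact ((measurable_lat.const_smul (2 * f.d)).const_add f.be).sub_const _

theorem nP_meas (th : ℝ) (f : Cf E2) (m : ℤ × ℤ) : Measurable (nP th f m) := by
  unfold nP un
  exact (measurable_gr f _ _).norm.inv.smul (measurable_gr f _ _)

theorem crs_meas (N : E2) : Measurable fun e : E2 => crs e N := by
  unfold crs
  exact ((EuclideanSpace.proj (𝕜 := ℝ) (0 : Fin 2)).measurable.mul_const _).sub
    ((EuclideanSpace.proj (𝕜 := ℝ) (1 : Fin 2)).measurable.mul_const _)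

theorem rdx_meas (δ : ℝ) : Measurable (rdx δ) := by
  unfold rdx
  exact (Int.measurable_floor.comp
      ((EuclideanSpace.proj (𝕜 := ℝ) (0 : Fin 2)).measurable.div_const _)).prodMk
    (Int.measurable_floor.comp
      ((EuclideanSpace.proj (𝕜 := ℝ) (1 : Fin 2)).measurable.div_const _))

/-! ### the two parts of the parent selection -/

theorem Sal_sub (δ θ : ℝ) (N : E2) (I1 : Finset ℕ) (P1 : ℕ → Plate) (m : ℤ × ℤ) :
    Sal δ θ N I1 P1 m ⊆ uS I1 P1 m := by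
  rintro y ⟨i, hi, _, hy⟩
  exact Set.mem_biUnion (x := i) hi hy

theorem Smis_sub (δ θ : ℝ) (N : E2) (I1 : Finset ℕ) (P1 : ℕ → Plate) (m : ℤ × ℤ) :
    Smis δ θ N I1 P1 m ⊆ uS I1 P1 m := by
  rintro y ⟨i, hi, _, hy⟩
  exact Set.mem_biUnion (x := i) hi hy

theorem Sal_meas {I1 : Finset ℕ} {P1 : ℕ → Plate} (δ θ : ℝ) (N : E2)
    (hm : ∀ i ∈ I1, ∀ m, MeasurableSet ((P1 i).S m)) (m : ℤ × ℤ) :
    MeasurableSet (Sal δ θ N I1 P1 m) := by
  have h : Sal δ θ N I1 P1 m =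
      ⋃ i ∈ I1, {y | |crs (nP θ (P1 i).f m y) N| ≤ δ} ∩ (P1 i).S m := by
    ext y
    simp only [Sal, Set.mem_iUnion, exists_prop, Set.mem_inter_iff, Set.mem_ofPred_eq]
  rw [h]
  refine Finset.measurableSet_biUnion _ fun i hi => MeasurableSet.inter ?_ (hm i hi m)
  exact measurableSet_le (((crs_meas N).comp (nP_meas θ (P1 i).f m)).abs) measurable_const

theorem Smis_meas {I1 : Finset ℕ} {P1 : ℕ → Plate} (δ θ : ℝ) (N : E2)
    (hm : ∀ i ∈ I1, ∀ m, MeasurableSet ((P1 i).S m)) (m : ℤ × ℤ) :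
    MeasurableSet (Smis δ θ N I1 P1 m) := by
  have h : Smis δ θ N I1 P1 m =
      ⋃ i ∈ I1, {y | δ < |crs (nP θ (P1 i).f m y) N|} ∩ (P1 i).S m := by
    ext y
    simp only [Smis, Set.mem_iUnion, exists_prop, Set.mem_inter_iff, Set.mem_ofPred_eq]
  rw [h]
  refine Finset.measurableSet_biUnion _ fun i hi => MeasurableSet.inter ?_ (hm i hi m)
  exact measurableSet_lt measurable_const (((crs_meas N).comp (nP_meas θ (P1 i).f m)).abs)

theorem Sal_union (δ θ : ℝ) (N : E2) (I1 : Finset ℕ) (P1 : ℕ → Plate) (m : ℤ × ℤ) :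
    uS I1 P1 m = Sal δ θ N I1 P1 m ∪ Smis δ θ N I1 P1 m := by
  refine Set.Subset.antisymm ?_ (Set.union_subset (Sal_sub _ _ _ _ _ _) (Smis_sub _ _ _ _ _ _))
  intro y hy
  simp only [uS, Set.mem_iUnion, exists_prop] at hy
  obtain ⟨i, hi, hy⟩ := hy
  rcases le_or_gt |crs (nP θ (P1 i).f m y) N| δ with h | h
  · exact Or.inl ⟨i, hi, h, hy⟩
  · exact Or.inr ⟨i, hi, h, hy⟩

theorem Sal_disj {I1 : Finset ℕ} {P1 : ℕ → Plate} (δ θ : ℝ) (N : E2)
    (hd : ∀ i ∈ I1, ∀ j ∈ I1, i ≠ j → ∀ m, Disjoint ((P1 i).S m) ((P1 j).S m)) (m : ℤ × ℤ) :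
    Disjoint (Sal δ θ N I1 P1 m) (Smis δ θ N I1 P1 m) := by
  rw [Set.disjoint_left]
  rintro y ⟨i, hi, h1, hy⟩ ⟨j, hj, h2, hy'⟩
  by_cases hij : i = j
  · subst hij
    exact absurd h1 (not_le.2 h2)
  · exact Set.disjoint_left.1 (hd i hi j hj hij m) hy hy'

/-! ### facts of a parent class -/

theorem par_gd {M κ q a b A c0 η0 : ℝ} (ha : 0 < a) {g : E3 → ℂ} {r1 s1 s2 D : ℝ}
    {I1 : Finset ℕ} {P1 : ℕ → Plate} (h : ParC M κ q a b A c0 η0 g r1 s1 s2 D I1 P1) : Gd g :=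
  gd_of_supp (a := a) (b := b) h.gm h.gb fun ζ hζ =>
    ⟨(inv_pos.2 ha).trans_le (h.gs ζ hζ).1, (h.gs ζ hζ).2.1, (h.gs ζ hζ).2.2⟩

theorem par_uS_meas {M κ q a b A c0 η0 : ℝ} {g : E3 → ℂ} {r1 s1 s2 D : ℝ}
    {I1 : Finset ℕ} {P1 : ℕ → Plate} (h : ParC M κ q a b A c0 η0 g r1 s1 s2 D I1 P1)
    (m : ℤ × ℤ) : MeasurableSet (uS I1 P1 m) :=
  Finset.measurableSet_biUnion _ fun i hi => h.meas i hi m

theorem par_Bsc {M κ q a b A c0 η0 : ℝ} {g : E3 → ℂ} {r1 s1 s2 D : ℝ}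
    {I1 : Finset ℕ} {P1 : ℕ → Plate} (h : ParC M κ q a b A c0 η0 g r1 s1 s2 D I1 P1) :
    Bsc (an r1) (uS I1 P1) := Bsc.of_ball (par_uS_meas h) h.bd

theorem par_Bsc_al {M κ q a b A c0 η0 : ℝ} {g : E3 → ℂ} {r1 s1 s2 D : ℝ}
    {I1 : Finset ℕ} {P1 : ℕ → Plate} (h : ParC M κ q a b A c0 η0 g r1 s1 s2 D I1 P1)
    (δ θ : ℝ) (N : E2) : Bsc (an r1) (Sal δ θ N I1 P1) :=
  (par_Bsc h).sub (fun m _ => Sal_meas δ θ N h.meas m) fun m _ => Sal_sub δ θ N I1 P1 m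

theorem par_Bsc_mis {M κ q a b A c0 η0 : ℝ} {g : E3 → ℂ} {r1 s1 s2 D : ℝ}
    {I1 : Finset ℕ} {P1 : ℕ → Plate} (h : ParC M κ q a b A c0 η0 g r1 s1 s2 D I1 P1)
    (δ θ : ℝ) (N : E2) : Bsc (an r1) (Smis δ θ N I1 P1) :=
  (par_Bsc h).sub (fun m _ => Smis_meas δ θ N h.meas m) fun m _ => Smis_sub δ θ N I1 P1 m

/-- the parent wave is the sum of the aligned and the misaligned part (any direction). -/
theorem selc_split {M κ q a b A c0 η0 : ℝ} (ha : 0 < a) {g : E3 → ℂ} {r1 s1 s2 D : ℝ}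
    {I1 : Finset ℕ} {P1 : ℕ → Plate} (h : ParC M κ q a b A c0 η0 g r1 s1 s2 D I1 P1)
    (δ θ : ℝ) (N : E2) (ζ : E3) :
    selc η0 κ (an r1) g (uS I1 P1) ζ =
      selc η0 κ (an r1) g (Sal δ θ N I1 P1) ζ + selc η0 κ (an r1) g (Smis δ θ N I1 P1) ζ :=
  selc_add (par_gd ha h).int (par_Bsc_al h δ θ N) (par_Bsc_mis h δ θ N)
    (fun m _ => Sal_disj δ θ N h.disj m) (fun m _ => Sal_union δ θ N I1 P1 m) ζ

/-- the coefficients split. -/
theorem umc_split {M κ q a b A c0 η0 : ℝ} (ha : 0 < a) (hκ : 0 < κ) {g : E3 → ℂ}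
    {r1 s1 s2 D : ℝ} (hr : 0 < r1)
    {I1 : Finset ℕ} {P1 : ℕ → Plate} (h : ParC M κ q a b A c0 η0 g r1 s1 s2 D I1 P1)
    (δ θ : ℝ) (N : E2) (ρ : ℝ) (z : E3 × ℝ) (m : ℤ × ℤ) (y : E3) :
    umc ρ (trc z (selc η0 κ (an r1) g (uS I1 P1))) m y =
      umc ρ (trc z (selc η0 κ (an r1) g (Sal δ θ N I1 P1))) m y +
        umc ρ (trc z (selc η0 κ (an r1) g (Smis δ θ N I1 P1))) m y := by
  have hρ : 0 < an r1 := Real.rpow_pos_of_pos hr _
  have e : selc η0 κ (an r1) g (uS I1 P1) = fun ζ => selc η0 κ (an r1) g (Sal δ θ N I1 P1) ζ +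
      selc η0 κ (an r1) g (Smis δ θ N I1 P1) ζ := funext fun ζ => selc_split ha h δ θ N ζ
  rw [e, trc_add, umc_add
    (trc_int (selc_int hκ hρ (par_gd ha h).int (par_Bsc_al h δ θ N)).1 z)
    (trc_int (selc_int hκ hρ (par_gd ha h).int (par_Bsc_mis h δ θ N)).1 z)]

/-- the set of aligned positions of the child cap `m` is measurable. -/
theorem al_meas {M κ q a b A c0 η0 : ℝ} (ha : 0 < a) (hκ : 0 < κ) {g : E3 → ℂ}
    {r1 s1 s2 D : ℝ} (hr : 0 < r1)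
    {I1 : Finset ℕ} {P1 : ℕ → Plate} (h : ParC M κ q a b A c0 η0 g r1 s1 s2 D I1 P1)
    (δ ρ : ℝ) (z : E3 × ℝ) (f : Cf E2) (m : ℤ × ℤ) :
    MeasurableSet {y | ‖umc ρ (trc z (selc η0 κ (an r1) g (uS I1 P1))) m y‖ ≤
      2 * ‖umc ρ (trc z (selc η0 κ (an r1) g
        (Sal δ (an r1) (rnd δ (nP ρ f m y)) I1 P1))) m y‖} := by
  have hρ : 0 < an r1 := Real.rpow_pos_of_pos hr _
  have hg := (par_gd ha h).int
  have e : {y | ‖umc ρ (trc z (selc η0 κ (an r1) g (uS I1 P1))) m y‖ ≤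
      2 * ‖umc ρ (trc z (selc η0 κ (an r1) g
        (Sal δ (an r1) (rnd δ (nP ρ f m y)) I1 P1))) m y‖} =
      ⋃ k : ℤ × ℤ, {y | rdx δ (nP ρ f m y) = k} ∩
        {y | ‖umc ρ (trc z (selc η0 κ (an r1) g (uS I1 P1))) m y‖ ≤
          2 * ‖umc ρ (trc z (selc η0 κ (an r1) g (Sal δ (an r1) (lv k) I1 P1))) m y‖} := by
    ext y
    simp only [Set.mem_ofPred_eq, Set.mem_iUnion, Set.mem_inter_iff]
    constructor
    · intro hy
      exact ⟨rdx δ (nP ρ f m y), rfl, hy⟩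
    · rintro ⟨k, hk, hy⟩
      unfold rnd
      rw [hk]
      exact hy
  rw [e]
  refine MeasurableSet.iUnion fun k => MeasurableSet.inter ?_ ?_
  · exact ((rdx_meas δ).comp (nP_meas ρ f m)) (measurableSet_singleton k)
  · exact measurableSet_le
      (umc_cont (trc_int (selc_int hκ hρ hg (par_Bsc h)).1 z) ρ m).norm.measurable
      ((umc_cont (trc_int (selc_int hκ hρ hg (par_Bsc_al h δ (an r1) (lv k))).1 z)
        ρ m).norm.measurable.const_mul 2)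

/-! ### the tail -/

theorem Tl_mono {C C' Y : ℝ} (hC : C ≤ C') (hY : 0 ≤ Y) (M : ℕ) (g : E3 → ℂ) {r1 : ℝ}
    (_hr : 0 ≤ r1) : Tl C Y M g r1 ≤ Tl C' Y M g r1 := by
  unfold Tl
  gcongr

theorem Tl_add {C C' Y : ℝ} (hC : 0 ≤ C) (hC' : 0 ≤ C') (hY : 0 ≤ Y) (M : ℕ) (g : E3 → ℂ)
    {r1 : ℝ} (_hr : 0 ≤ r1) :
    Tl (2 * (C + C')) Y M g r1 = 2 * (Tl C Y M g r1 + Tl C' Y M g r1) := by
  unfold Tl
  have hw1 : 0 ≤ r1 ^ 20 * (Y ^ M)⁻¹ := by positivity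
  rw [← add_mul, ← mul_assoc, ← ENNReal.ofReal_add (by positivity) (by positivity),
    show (2 : ℝ≥0∞) = ENNReal.ofReal 2 by simp, ← ENNReal.ofReal_mul (by norm_num)]
  congr 2
  ring

theorem rp_mono {x a b : ℝ} (hx : 1 ≤ x) (h : a ≤ b) : x ^ a ≤ x ^ b :=
  Real.rpow_le_rpow_of_exponent_le hx h

theorem fin_calc {a v v1 v2 z1 z2 s t1 t2 : ℝ≥0∞} (hs : v ≤ 2 * (v1 + v2))
    (h1 : a * v1 ≤ z1 * s + t1) (h2 : a * v2 ≤ z2 * s + t2) :
    a * v ≤ 2 * (z1 + z2) * s + 2 * (t1 + t2) :=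
  calc a * v ≤ a * (2 * (v1 + v2)) := mul_le_mul' le_rfl hs
    _ = 2 * (a * v1 + a * v2) := by ring
    _ ≤ 2 * ((z1 * s + t1) + (z2 * s + t2)) := mul_le_mul' le_rfl (add_le_add h1 h2)
    _ = _ := by ring

/-! ### the step -/

set_option maxHeartbeats 1000000 in
/-- **STEP_C from AL_C and MIS_C**. -/
theorem stepc_of {M q : ℝ} (HA : AL_C M q) (HM : MIS_C M q) : STEP_C M q := by
  obtain ⟨GA, hGA, HA⟩ := HA
  obtain ⟨GM, hGM, HM⟩ := HM
  refine ⟨max GA GM, hGA.trans (le_max_left _ _), fun ε hε => ?_⟩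
  obtain ⟨n0, HA⟩ := HA ε hε
  obtain ⟨GM', hGM', HM⟩ := HM ε hε
  refine ⟨n0, fun n hn => ?_⟩
  obtain ⟨GA', hGA', HA⟩ := HA n hn
  refine ⟨max GA' GM', hGA'.trans (le_max_left _ _), fun a b A ha hb hb2 hA => ?_⟩
  obtain ⟨dA, hdA, hdA1, HA⟩ := HA a b A ha hb hb2 hA
  obtain ⟨dM, hdM, hdM1, HM⟩ := HM a b A ha hb hb2 hA
  refine ⟨min dA dM, lt_min hdA hdM, (min_le_left _ _).trans hdA1, fun Mt => ?_⟩
  obtain ⟨CA, hCA, HA⟩ := HA Mt
  obtain ⟨CM, hCM, HM⟩ := HM Mt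
  refine ⟨2 * (CA + CM), by positivity, ?_⟩
  intro c0 κ η0 K0 g r1 dl Y Gm s1' s2' s1 s2 D α p pp I1 P1 I P hc hw' hcoh hpp hα hp hK0 hchi
  set G : ℝ := max GA GM with hG
  set G' : ℝ := max GA' GM' with hG'
  have ha0 : 0 < a := by linarith
  have hGA2 : GA ≤ G := le_max_left _ _
  have hGM2 : GM ≤ G := le_max_right _ _
  have hdl1 : dl ≤ 1 := hc.dlle.trans ((min_le_left _ _).trans hdA1)
  have hdl := hc.dlpos
  have hrp : ∀ x : ℝ, x ≤ G → dl ^ (-x) ≤ dl ^ (-G) := fun x hx =>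
    Real.rpow_le_rpow_of_exponent_ge hdl hdl1 (by linarith)
  have hr1 : 1 ≤ r1 := by
    have : (1:ℝ) ≤ dl ^ (-G) := Real.one_le_rpow_of_pos_of_le_one_of_nonpos hdl hdl1 (by
      have := hGA.trans hGA2; linarith)
    exact this.trans hc.r1ge
  have hr1' : 0 < r1 := by linarith
  have hrj : 0 < dl * r1 := by positivity
  have hanj : 0 < an (dl * r1) := Real.rpow_pos_of_pos hrj _
  have hani : 0 < an r1 := Real.rpow_pos_of_pos hr1' _
  -- splitting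
  set F : E3 → ℂ := selc η0 κ (an r1) g (uS I1 P1) with hF
  set δ : ℝ := dl ^ (1/2 : ℝ) with hδ
  set T : ℕ → ℤ × ℤ → Set E3 := fun i m => {y |
    ‖umc (an (dl * r1)) (trc (P i).z F) m y‖ ≤
      2 * ‖umc (an (dl * r1)) (trc (P i).z (selc η0 κ (an r1) g
        (Sal δ (an r1) (rnd δ (nP (an (dl * r1)) (P i).f m y)) I1 P1))) m y‖} with hT
  have hTm : ∀ i m, MeasurableSet (T i m) := fun i m =>
    al_meas ha0 hc.kpos hr1' hc.par δ (an (dl * r1)) (P i).z (P i).f m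
  set Sa : ℕ → ℤ × ℤ → Set E3 := fun i m => (P i).S m ∩ T i m with hSa
  set Sb : ℕ → ℤ × ℤ → Set E3 := fun i m => (P i).S m ∩ (T i m)ᶜ with hSb
  have hsplit := val_split (κ := κ) (F := F) (r := dl * r1) (s1 := s1) (s2 := s2) (I := I)
    (P := P) Sa Sb (fun i _ m y hy => by
      by_cases hyT : y ∈ T i m
      · exact Or.inl ⟨hy, hyT⟩
      · exact Or.inr ⟨hy, hyT⟩)
  -- contexts
  have hctx : ∀ (d' G1 : ℝ), dl ≤ d' → G1 ≤ G → ∀ S' : ℕ → ℤ × ℤ → Set E3,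
      (∀ i ∈ I, ∀ m, MeasurableSet (S' i m)) → (∀ i ∈ I, ∀ m, S' i m ⊆ (P i).S m) →
      Ctx M q a b A d' G1 c0 κ η0 g r1 dl Y Gm s1' s2' s1 s2 D I1 P1 I
        (fun i => { P i with S := S' i }) := by
    intro d' G1 hd' hG1 S' hm hs
    exact
      { par := hc.par
        c0pos := hc.c0pos
        c0le := hc.c0le
        dlpos := hc.dlpos
        dlle := hd'
        r1ge := (hrp _ hG1).trans hc.r1ge
        kpos := hc.kpos
        klo := hc.klo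
        khi := hc.khi
        ka := hc.ka
        Gm1 := hc.Gm1
        Gm2 := hc.Gm2
        Y1 := hc.Y1
        Y2 := hc.Y2
        sd := hc.sd
        pl := plates_sub hc.pl S' hm hs
        cp := fun i hi m hm' =>
          Set.subset_empty_iff.1 ((hs i hi m).trans (hc.cp i hi m hm').subset)
        thin' := hc.thin'
        thin := hc.thin
        wide := (mul_le_mul_of_nonneg_right (hrp _ hG1) hanj.le).trans hc.wide }
  have hSam : ∀ i ∈ I, ∀ m, MeasurableSet (Sa i m) := fun i hi m =>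
    (hc.pl.meas i hi m).inter (hTm i m)
  have hSbm : ∀ i ∈ I, ∀ m, MeasurableSet (Sb i m) := fun i hi m =>
    (hc.pl.meas i hi m).inter (hTm i m).compl
  have hSas : ∀ i ∈ I, ∀ m, Sa i m ⊆ (P i).S m := fun i _ m => Set.inter_subset_left
  have hSbs : ∀ i ∈ I, ∀ m, Sb i m ⊆ (P i).S m := fun i _ m => Set.inter_subset_left
  have hcA := hctx dA GA (hc.dlle.trans (min_le_left _ _)) hGA2 Sa hSam hSas
  have hcM := hctx dM GM (hc.dlle.trans (min_le_right _ _)) hGM2 Sb hSbm hSbs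
  -- aligned
  have hA1 := HA c0 κ η0 K0 g r1 dl Y Gm s1' s2' s1 s2 D α p pp I1 P1 I _ hcA hcoh hpp hα hp hK0
    ⟨fun i hi m y hy => hchi.lo i hi m y (hSas i hi m hy),
      fun i hi m y hy => hchi.hi i hi m y (hSas i hi m hy),
      fun i hi m y hy => hchi.pot i hi m y (hSas i hi m hy)⟩
    (fun i hi m y hy => hy.2)
  -- misaligned
  have hM1 := HM c0 κ η0 g r1 dl Y Gm s1' s2' s1 s2 D I1 P1 I _ hcM
    ((mul_le_mul_of_nonneg_right (hrp _ hGM2) hani.le).trans hw')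
    (fun i hi m y hy => by
      set N : E2 := rnd δ (nP (an (dl * r1)) (P i).f m y) with hN
      have h1 : ¬ ‖umc (an (dl * r1)) (trc (P i).z F) m y‖ ≤
        2 * ‖umc (an (dl * r1)) (trc (P i).z (selc η0 κ (an r1) g
          (Sal δ (an r1) N I1 P1))) m y‖ := hy.2
      have h2 := umc_split ha0 hc.kpos hr1' hc.par δ (an r1) N (an (dl * r1)) (P i).z m y
      have h3 : ‖umc (an (dl * r1)) (trc (P i).z F) m y‖ ≤
          ‖umc (an (dl * r1)) (trc (P i).z (selc η0 κ (an r1) g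
            (Sal δ (an r1) N I1 P1))) m y‖ +
          ‖umc (an (dl * r1)) (trc (P i).z (selc η0 κ (an r1) g
            (Smis δ (an r1) N I1 P1))) m y‖ := by
        rw [hF, h2]
        exact norm_add_le _ _
      show ‖umc (an (dl * r1)) (trc (P i).z F) m y‖ ≤
        2 * ‖umc (an (dl * r1)) (trc (P i).z (selc η0 κ (an r1) g
          (Smis δ (an r1) N I1 P1))) m y‖
      push Not at h1
      linarith)
  -- sum
  have hY1 := hc.Y1
  have hGm1 := hc.Gm1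
  have hc0 := hc.c0pos
  have hc01 := hc.c0le
  have hY0 : 0 ≤ Y := by linarith
  have hZ1 : Y * K0 ≤ Y * K0 / c0 := by
    rw [le_div_iff₀ hc0]
    have : 0 ≤ Y * K0 := by positivity
    nlinarith
  have hZ2 : Y / c0 ≤ Y * K0 / c0 := by
    gcongr
    nlinarith
  have hYK : 1 ≤ Y * K0 := by nlinarith
  have hYc : 1 ≤ Y / c0 := by
    rw [le_div_iff₀ hc0]
    linarith
  have hZ3 : 1 ≤ Y * K0 / c0 := hYK.trans hZ1
  have e1 : (Y * K0) ^ GA' ≤ (Y * K0 / c0) ^ G' :=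
    (Real.rpow_le_rpow (by linarith) hZ1 hGA').trans (rp_mono hZ3 (le_max_left _ _))
  have e2 : (Y / c0) ^ GM' ≤ (Y * K0 / c0) ^ G' :=
    (Real.rpow_le_rpow (by linarith) hZ2 hGM').trans (rp_mono hZ3 (le_max_right _ _))
  have e3 : Gm ^ GA ≤ Gm ^ G := rp_mono hGm1 hGA2
  have e4 : Gm ^ GM ≤ Gm ^ G := rp_mono hGm1 hGM2
  set X1 : ℝ := (pp / p) ^ (1/2 : ℝ) with hX1
  have hX10 : 0 ≤ X1 := Real.rpow_nonneg (by positivity) _
  have hre : 0 ≤ r1 ^ ε := Real.rpow_nonneg hr1'.le _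
  have p1 : 0 ≤ (Y * K0 / c0) ^ G' := Real.rpow_nonneg (by linarith) _
  have p2 : 0 ≤ Gm ^ G := Real.rpow_nonneg (by linarith) _
  have p3 : 0 ≤ (Y * K0) ^ GA' := Real.rpow_nonneg (by linarith) _
  have p4 : 0 ≤ Gm ^ GA := Real.rpow_nonneg (by linarith) _
  have p5 : 0 ≤ (Y / c0) ^ GM' := Real.rpow_nonneg (by linarith) _
  have p6 : 0 ≤ Gm ^ GM := Real.rpow_nonneg (by linarith) _
  have p7 : 0 ≤ δ := Real.rpow_nonneg hdl.le _
  have i1 : CA * r1 ^ ε * (Y * K0) ^ GA' * Gm ^ GA * X1 ≤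
      CA * r1 ^ ε * (Y * K0 / c0) ^ G' * Gm ^ G * (X1 + δ) := by
    have : X1 ≤ X1 + δ := by linarith
    gcongr
  have i2 : CM * r1 ^ ε * (Y / c0) ^ GM' * Gm ^ GM * δ ≤
      CM * r1 ^ ε * (Y * K0 / c0) ^ G' * Gm ^ G * (X1 + δ) := by
    have : δ ≤ X1 + δ := by linarith
    gcongr
  have j1 := (ENNReal.ofReal_le_ofReal i1)
  have j2 := (ENNReal.ofReal_le_ofReal i2)
  set Z : ℝ := r1 ^ ε * (Y * K0 / c0) ^ G' * Gm ^ G * (X1 + δ) with hZ
  have hZ0 : 0 ≤ Z := by positivity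
  have k1 : CA * r1 ^ ε * (Y * K0 / c0) ^ G' * Gm ^ G * (X1 + δ) = CA * Z := by rw [hZ]; ring
  have k2 : CM * r1 ^ ε * (Y * K0 / c0) ^ G' * Gm ^ G * (X1 + δ) = CM * Z := by rw [hZ]; ring
  rw [k1] at j1
  rw [k2] at j2
  have k3 : 2 * (CA + CM) * r1 ^ ε * (Y * K0 / c0) ^ G' * Gm ^ G * (X1 + δ) =
      2 * (CA * Z + CM * Z) := by rw [hZ]; ring
  rw [k3]
  have hK0' : (0:ℝ) ≤ K0 := by linarith
  have hKG : 0 ≤ K0 ^ G' := Real.rpow_nonneg hK0' _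
  have t1 : Tl (2 * (CA + CM) * K0 ^ G') Y Mt g r1 =
      2 * (Tl (CA * K0 ^ G') Y Mt g r1 + Tl (CM * K0 ^ G') Y Mt g r1) := by
    rw [← Tl_add (by positivity) (by positivity) hY0 Mt g hr1'.le]
    congr 1
    ring
  have t2 : Tl (CA * K0 ^ GA') Y Mt g r1 ≤ Tl (CA * K0 ^ G') Y Mt g r1 :=
    Tl_mono (mul_le_mul_of_nonneg_left (rp_mono hK0 (le_max_left _ _)) hCA) hY0 Mt g hr1'.le
  have t3 : Tl CM Y Mt g r1 ≤ Tl (CM * K0 ^ G') Y Mt g r1 := by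
    refine Tl_mono ?_ hY0 Mt g hr1'.le
    have h1 : 1 ≤ K0 ^ G' := Real.one_le_rpow hK0 (hGA'.trans (le_max_left _ _))
    nlinarith
  rw [t1, ENNReal.ofReal_mul (by norm_num : (0:ℝ) ≤ 2), ENNReal.ofReal_add (by positivity)
    (by positivity), ENNReal.ofReal_ofNat]
  exact fin_calc hsplit (hA1.trans (add_le_add (mul_le_mul' j1 le_rfl) t2))
    (hM1.trans (add_le_add (mul_le_mul' j2 le_rfl) t3))

end Crest.Agent.R116.StepC367
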