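import Crest.Agent.R116.AlD_339
import Crest.Agent.R116.AlG3_339
import Crest.Agent.R116.SmC3_339
import Crest.Agent.R116.PDf2_299
import Crest.Agent.R116.StepC1_367
import Crest.Agent.R116.CWd3_480
import Crest.Agent.R116.UpC5_448
import Crest.Agent.R116.Ba1_449

/-!
# R116 (S0155), wave side, AL-CONE (helper299): `SumC`, part 1

Kernel facts, numbers (`Num`), geometry of the child plates, tail, for `frames_mult`.
-/

set_option autoImplicit false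

open MeasureTheory FourierTransform
open scoped ENNReal

namespace Crest.Agent.R116.AlS299

open Crest.Agent.R138.Defs (E2 ee)
open Crest.Agent.R138.Wpk685 (cen caps)
open Crest.Agent.R116.CDef480
open Crest.Agent.R116.LZg725 (Cf)
open Crest.Agent.R116.Cad538 (frc wt Acc W0 W0_lt det_frc lint_wt wt_anti wt_cont)
open Crest.Agent.R116.WC188
open Crest.Agent.R116.PC299
open Crest.Agent.R116.AlC339 (KmC SumC HH seC Fam labc Num rgn plt_of_adm mem_rgn rgn_vol rgn_norm)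

/-! ### the kernel -/

theorem ker_ge {θ κ : ℝ} {C : E2} {N : ℕ} {u : E3} (h : ‖frc θ κ C u‖ ≤ 1) :
    ((2:ℝ) ^ N)⁻¹ ≤ wt (frc θ κ C) N u := by
  unfold wt
  exact inv_anti₀ (by positivity) (pow_le_pow_left₀ (by positivity) (by linarith) N)

/-- the isotropic cell. -/
def cell (θ κ : ℝ) (C : E2) : Set E3 := {u | ‖frc θ κ C u‖ ≤ 1}

theorem cell_meas (θ κ : ℝ) (C : E2) : MeasurableSet (cell θ κ C) :=
  (isClosed_le (f := fun u : E3 => ‖frc θ κ C u‖) (by fun_prop) continuous_const).measurableSet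

/-- volume of the unit ball. -/
noncomputable def V1 : ℝ := (volume (Metric.closedBall (0:E3) 1)).toReal

theorem V1_pos : 0 < V1 :=
  ENNReal.toReal_pos (Metric.measure_closedBall_pos _ _ one_pos).ne' measure_closedBall_lt_top.ne

theorem ofReal_V1 : ENNReal.ofReal V1 = volume (Metric.closedBall (0:E3) 1) :=
  ENNReal.ofReal_toReal measure_closedBall_lt_top.ne

theorem cell_vol {θ κ : ℝ} (hθ : 0 < θ) (hκ : 0 < κ) (C : E2) :
    volume (cell θ κ C) = ENNReal.ofReal (V1 * (θ ^ 2 * κ)⁻¹) := by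
  have e : cell θ κ C = (frc θ κ C : E3 →ₗ[ℝ] E3) ⁻¹' Metric.closedBall (0:E3) 1 := by
    ext u
    simp only [cell, Set.mem_ofPred_eq, Set.mem_preimage, mem_closedBall_zero_iff,
      ContinuousLinearMap.coe_coe]
  have hd : LinearMap.det (frc θ κ C : E3 →ₗ[ℝ] E3) ≠ 0 := by
    rw [det_frc]; positivity
  rw [e, Measure.addHaar_preimage_linearMap _ hd, det_frc, ← ofReal_V1,
    ← ENNReal.ofReal_mul (abs_nonneg _), abs_of_pos (by positivity), mul_comm]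

theorem ker_mass {θ κ : ℝ} (hθ : 0 < θ) (hκ : 0 < κ) (C : E2) {N : ℕ} (hN : 4 ≤ N) :
    ∫⁻ u, ENNReal.ofReal (wt (frc θ κ C) N u) ≤
      ENNReal.ofReal (W0.toReal / V1 * (V1 * (θ ^ 2 * κ)⁻¹)) := by
  have hd : LinearMap.det (frc θ κ C : E3 →ₗ[ℝ] E3) ≠ 0 := by
    rw [det_frc]; positivity
  have h1 := lint_wt (frc θ κ C) hd 0
  rw [lintegral_sub_left_eq_self (fun x => ENNReal.ofReal (wt (frc θ κ C) 4 x)) 0, det_frc,
    abs_of_pos (by positivity)] at h1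
  calc ∫⁻ u, ENNReal.ofReal (wt (frc θ κ C) N u)
      ≤ ∫⁻ u, ENNReal.ofReal (wt (frc θ κ C) 4 u) :=
        lintegral_mono fun u => ENNReal.ofReal_le_ofReal (wt_anti _ hN u)
    _ = ENNReal.ofReal ((θ ^ 2 * κ)⁻¹) * W0 := h1
    _ = ENNReal.ofReal ((θ ^ 2 * κ)⁻¹) * ENNReal.ofReal W0.toReal := by
        rw [ENNReal.ofReal_toReal W0_lt.ne]
    _ = ENNReal.ofReal ((θ ^ 2 * κ)⁻¹ * W0.toReal) := by
        rw [← ENNReal.ofReal_mul (by positivity)]
    _ ≤ _ := by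
        refine ENNReal.ofReal_le_ofReal (le_of_eq ?_)
        have := V1_pos.ne'
        field_simp

/-! ### numbers -/

section ctx

variable {M q a b A d0 G c0 κ η0 : ℝ} {g : E3 → ℂ} {r1 dl Y Gm s1' s2' s1 s2 D : ℝ}
  {I1 : Finset ℕ} {P1 : ℕ → Plate} {I : Finset ℕ} {P : ℕ → Plate}

/-- `θ'² r = 1`. -/
theorem thr (h : Ctx M q a b A d0 G c0 κ η0 g r1 dl Y Gm s1' s2' s1 s2 D I1 P1 I P) :
    an (dl * r1) ^ 2 * (dl * r1) = 1 := by rw [mul_comm]; exact mul_an_sq h.rj0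

theorem num_of (h : Ctx M q a b A d0 G c0 κ η0 g r1 dl Y Gm s1' s2' s1 s2 D I1 P1 I P)
    (hM : 1 ≤ M) (hA : 1 ≤ A) (h01 : d0 ≤ 1) (hG : 2 ≤ G)
    (hd : 64 * M * A * d0 ^ (1/2 : ℝ) ≤ 1) :
    Num M A κ (an r1) (an (dl * r1)) (dl ^ (1/2 : ℝ)) s1 s2 (dl * r1) Gm 1 := by
  have hdl := h.dlpos
  have hdl1 := h.dl1 h01
  have hr := h.r10
  have hrj := h.rj0
  have hθ := an_pos hr
  have hθ' := an_pos hrj
  have hGm := h.Gm1
  have hs2 := Sd.s20 h.sd hrj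
  have hd0 : 0 < d0 := hdl.trans_le h.dlle
  have hd2 : 0 < d0 ^ (1/2 : ℝ) := Real.rpow_pos_of_pos hd0 _
  have hMA : 0 < M * A := by positivity
  have hx : 0 < dl ^ (1/2 : ℝ) := Real.rpow_pos_of_pos hdl _
  have e1 : dl ^ (1/2 : ℝ) * an (dl * r1) = an r1 := dl_an hdl hr
  have e2 : dl ^ (1/2 : ℝ) * dl ^ (1/2 : ℝ) = dl := by
    rw [← Real.rpow_add hdl]; norm_num
  have hwide : dl ^ (-(2:ℝ)) * an (dl * r1) ≤ s2 := by
    refine le_trans (mul_le_mul_of_nonneg_right ?_ hθ'.le) h.wide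
    exact Real.rpow_le_rpow_of_exponent_ge hdl hdl1 (by linarith)
  have e3 : dl ^ (-(2:ℝ)) = (dl ^ 2)⁻¹ := by
    rw [Real.rpow_neg hdl.le]; norm_num
  rw [e3] at hwide
  refine ⟨hM, hA, h.kpos, hθ, an_le_an hdl hdl1 hr, hx,
    Real.rpow_le_one hdl.le hdl1 (by norm_num), Sd.s10 h.sd hrj, hs2, hrj, hGm, le_rfl, ?_, ?_,
    ?_, e1.le, ?_⟩
  · have := h.w3 h01 (by linarith) (K := 32 * M * A) (by positivity) (by
      have : 32 * M * A * d0 ^ (1/2 : ℝ) ≤ 64 * M * A * d0 ^ (1/2 : ℝ) := by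
        have : 0 < M * A * d0 ^ (1/2 : ℝ) := by positivity
        nlinarith
      linarith)
    exact this
  · calc an (dl * r1) * (s1 * (dl * r1)) ≤ an (dl * r1) * (Gm * an (dl * r1) * (dl * r1)) := by
          have := h.thin
          gcongr
      _ = Gm * (an (dl * r1) ^ 2 * (dl * r1)) := by ring
      _ = Gm := by rw [thr h, mul_one]
  · have e4 : dl * r1 * an r1 ^ 2 = dl := by
      rw [mul_assoc, mul_an_sq hr, mul_one]
    calc an (dl * r1) ≤ dl⁻¹ * an (dl * r1) :=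
          le_mul_of_one_le_left hθ'.le ((one_le_inv₀ hdl).2 hdl1)
      _ = (dl ^ 2)⁻¹ * an (dl * r1) * dl := by field_simp
      _ ≤ s2 * dl := by gcongr
      _ = s2 * (dl * r1 * an r1 ^ 2) := by rw [e4]
      _ = _ := by ring
  · -- 64 M ≤ δ θ s2 r
    have e5 : dl ^ (1/2 : ℝ) * (an r1 * ((dl ^ 2)⁻¹ * an (dl * r1) * (dl * r1))) = dl⁻¹ := by
      calc dl ^ (1/2 : ℝ) * (an r1 * ((dl ^ 2)⁻¹ * an (dl * r1) * (dl * r1)))
          = an r1 * ((dl ^ 2)⁻¹ * (dl * r1)) * (dl ^ (1/2 : ℝ) * an (dl * r1)) := by ring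
        _ = an r1 * ((dl ^ 2)⁻¹ * (dl * r1)) * an r1 := by rw [e1]
        _ = (dl ^ 2)⁻¹ * dl * (r1 * an r1 ^ 2) := by ring
        _ = (dl ^ 2)⁻¹ * dl := by rw [mul_an_sq hr, mul_one]
        _ = dl⁻¹ := by field_simp
    have h6 : 64 * M * dl ≤ 1 := by
      have g1 : dl ≤ dl ^ (1/2 : ℝ) := by
        calc dl = dl ^ (1 : ℝ) := (Real.rpow_one _).symm
          _ ≤ _ := Real.rpow_le_rpow_of_exponent_ge hdl hdl1 (by norm_num)
      have g2 : dl ^ (1/2 : ℝ) ≤ d0 ^ (1/2 : ℝ) := Real.rpow_le_rpow hdl.le h.dlle (by norm_num)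
      calc 64 * M * dl ≤ 64 * M * A * d0 ^ (1/2 : ℝ) := by
            have : 64 * M * dl ≤ 64 * M * (A * d0 ^ (1/2 : ℝ)) := by
              refine mul_le_mul_of_nonneg_left ?_ (by positivity)
              calc dl ≤ d0 ^ (1/2 : ℝ) := g1.trans g2
                _ ≤ A * d0 ^ (1/2 : ℝ) := le_mul_of_one_le_left hd2.le hA
            linarith
        _ ≤ 1 := hd
    calc 64 * M * 1 ≤ dl⁻¹ := by
          rw [mul_one, ← one_div, le_div_iff₀ hdl]; exact h6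
      _ = dl ^ (1/2 : ℝ) * (an r1 * ((dl ^ 2)⁻¹ * an (dl * r1) * (dl * r1))) := e5.symm
      _ ≤ _ := by gcongr

theorem Gm_th (h : Ctx M q a b A d0 G c0 κ η0 g r1 dl Y Gm s1' s2' s1 s2 D I1 P1 I P)
    (h01 : d0 ≤ 1) : Gm * an r1 ≤ an (dl * r1) := by
  rw [an_dl h.dlpos h.r10]
  refine mul_le_mul_of_nonneg_right (h.Gm2.trans ?_) (an_pos h.r10).le
  exact Real.rpow_le_rpow_of_exponent_ge h.dlpos (h.dl1 h01) (by norm_num)

theorem TT_le_one (h : Ctx M q a b A d0 G c0 κ η0 g r1 dl Y Gm s1' s2' s1 s2 D I1 P1 I P)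
    (ha : 1 ≤ a) : TT κ s2 (dl * r1) ≤ 1 := by
  have hs2 := Sd.s20 h.sd h.rj0
  refine max_le (pow_le_one₀ hs2.le h.sd.hi) ?_
  have h1 := h.rj_ge
  have h2 := h.k8 ha
  have hk := h.kpos
  have hr := h.rj0
  have h3 : 1 ≤ κ * (dl * r1) := by
    have h4 : κ ^ 4 * (dl * r1) ≤ κ * (dl * r1) := by
      refine mul_le_mul_of_nonneg_right ?_ hr.le
      calc κ ^ 4 = κ * κ ^ 3 := by ring
        _ ≤ κ * 1 := mul_le_mul_of_nonneg_left (pow_le_one₀ hk.le (by linarith)) hk.le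
        _ = κ := mul_one _
    linarith
  exact inv_le_one_of_one_le₀ h3

/-- the phase points of the plate at time `t` and the cells lie in the region. -/
theorem cell_rgn (h : Ctx M q a b A d0 G c0 κ η0 g r1 dl Y Gm s1' s2' s1 s2 D I1 P1 I P)
    (hM : 1 ≤ M) (hA : 1 ≤ A) (h01 : d0 ≤ 1) (hG : 2 ≤ G)
    (hd : 64 * M * A * d0 ^ (1/2 : ℝ) ≤ 1) {i : ℕ} (hi : i ∈ I) {t : ℝ} (ht : |t| ≤ dl * r1)
    {m : ℤ × ℤ} {y : E3} (hy : y ∈ (P i).S m) {u : E3}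
    (hu : u ∈ cell (an r1) κ (cen (an (dl * r1)) m)) :
    y - t • vel (cen (an (dl * r1)) m) - u ∈
      rgn M A (an r1) s2 (TT κ s2 (dl * r1)) (dl * r1) (P i).c (P i).X0 (P i).f t := by
  have hn := num_of h hM hA h01 hG hd
  have hs2 := Sd.s20 h.sd h.rj0
  exact mem_rgn hn (Gm_th h h01) (plt_of_adm (by linarith) hs2 (h.pl.adm i hi)) (le_max_left _ _)
    (le_max_right _ _) ht (h.pl.box i hi m hy) hu

end ctx

end Crest.Agent.R116.AlS299
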