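import Crest.Agent.R116.CWc1_480

/-!
# R116 (S0155): cone packets, part d1 (helper480)

Uniform packet frames for all supports `η ∈ [a⁻¹, a]`: structure `EW` (windows in the scalar
frequency), structure `Pk` (packets of slope `C`, size `ρ`, window `e`), instances: sliced
(`pk_sliced`, `e = etw η0 κ`) and unsliced (`pk_unsliced`, `e = eaw a`).
-/

set_option autoImplicit false
set_option linter.unusedSectionVars false

open MeasureTheory FourierTransform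
open scoped ContDiff ENNReal

namespace Crest.Agent.R116.CWd480

open Crest.Agent.R138.Wf448
open Crest.Agent.R138.Defs (E2 ee)
open Crest.Agent.R138.Wpk685 (win fat cen caps)
open Crest.Agent.R116.CWp480 Crest.Agent.R116.CDef480 Crest.Agent.R116.CWc480

/-! ### smooth inverse, fixed window -/

/-- bump equal to one on `[a⁻¹, a]`, supported in `[a⁻¹/2, a + a⁻¹/2]`. -/
noncomputable def bu (a : ℝ) (ha : 1 ≤ a) : ContDiffBump ((a + a⁻¹) / 2 : ℝ) :=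
  ⟨(a - a⁻¹) / 2 + a⁻¹ / 4, (a - a⁻¹) / 2 + a⁻¹ / 2, by
    have h1 : 0 < a⁻¹ := inv_pos.2 (by linarith)
    have h2 : a⁻¹ ≤ 1 := inv_le_one_of_one_le₀ ha
    linarith, by
    have h1 : 0 < a⁻¹ := inv_pos.2 (by linarith)
    linarith⟩

theorem bu_one {a : ℝ} (ha : 1 ≤ a) {t : ℝ} (h1 : a⁻¹ ≤ t) (h2 : t ≤ a) : bu a ha t = 1 := by
  have hi : 0 < a⁻¹ := inv_pos.2 (by linarith)
  apply ContDiffBump.one_of_mem_closedBall
  rw [Metric.mem_closedBall, Real.dist_eq, abs_le]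
  show -((a - a⁻¹) / 2 + a⁻¹ / 4) ≤ _ ∧ _ ≤ (a - a⁻¹) / 2 + a⁻¹ / 4
  constructor <;> linarith

theorem bu_supp {a : ℝ} (ha : 1 ≤ a) {t : ℝ} (h : bu a ha t ≠ 0) : a⁻¹ / 2 < t ∧ t < a + a⁻¹ / 2 := by
  by_contra hc
  apply h
  apply ContDiffBump.zero_of_le_dist
  show (a - a⁻¹) / 2 + a⁻¹ / 2 ≤ _
  rw [Real.dist_eq]
  rw [not_and_or, not_lt, not_lt] at hc
  rcases hc with hc | hc
  · rw [abs_sub_comm]
    exact le_trans (by linarith) (le_abs_self _)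
  · exact le_trans (by linarith) (le_abs_self _)

/-- smooth inverse on `[a⁻¹, a]`. -/
theorem exists_inv {a : ℝ} (ha : 1 ≤ a) :
    ∃ J : ℝ → ℝ, ContDiff ℝ ∞ J ∧ ∀ t, a⁻¹ ≤ t → t ≤ a → J t = t⁻¹ := by
  have hi : 0 < a⁻¹ := inv_pos.2 (by linarith)
  refine ⟨fun t => t⁻¹ * bu a ha t, ?_, ?_⟩
  · rw [contDiff_iff_contDiffAt]
    intro t
    rcases eq_or_ne t 0 with rfl | h
    · have hev : (fun t : ℝ => t⁻¹ * bu a ha t) =ᶠ[nhds 0] fun _ => 0 := by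
        have hopen : IsOpen {t : ℝ | t < a⁻¹ / 2} := isOpen_lt continuous_id continuous_const
        filter_upwards [hopen.mem_nhds (show (0:ℝ) < a⁻¹ / 2 by linarith)] with y hy
        have hy' : y < a⁻¹ / 2 := hy
        have : bu a ha y = 0 := by
          by_contra hc
          linarith [(bu_supp ha hc).1]
        rw [this, mul_zero]
      exact contDiffAt_const.congr_of_eventuallyEq hev
    · exact (contDiffAt_inv ℝ h).mul (bu a ha).contDiff.contDiffAt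
  · intro t h1 h2
    simp only
    rw [bu_one ha h1 h2, mul_one]

/-- the fixed window: one on `[a⁻¹, a]`. -/
noncomputable def eaw (a : ℝ) (ζ : E3) : ℂ := if ha : 1 ≤ a then ((bu a ha (ζ 2) : ℝ) : ℂ) else 1

theorem eaw_one {a : ℝ} (ha : 1 ≤ a) {ζ : E3} (h1 : a⁻¹ ≤ ζ 2) (h2 : ζ 2 ≤ a) : eaw a ζ = 1 := by
  unfold eaw
  rw [dif_pos ha, bu_one ha h1 h2, Complex.ofReal_one]

/-! ### frames -/

/-- scaled plate frame. -/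
noncomputable def Fr (l ρ κ : ℝ) (hl : 0 < l) (hρ : 0 < ρ) (hκ : 0 < κ) (C : E2) : E3 ≃L[ℝ] E3 :=
  Pl (l * ρ) (l * κ) (mul_pos hl hρ) (mul_pos hl hκ) C

theorem Fr_apply {l ρ κ : ℝ} (hl : 0 < l) (hρ : 0 < ρ) (hκ : 0 < κ) (C : E2) (X : E3) :
    Fr l ρ κ hl hρ hκ C X = l • Pl ρ κ hρ hκ C X := by
  unfold Fr
  rw [Pl_apply, Pl_apply, ← pt_smul]
  congr 1
  · rw [smul_smul]
  · ring

theorem norm_Fr {l ρ κ : ℝ} (hl : 0 < l) (hρ : 0 < ρ) (hκ : 0 < κ) (C : E2) (X : E3) :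
    ‖Fr l ρ κ hl hρ hκ C X‖ = l * ‖Pl ρ κ hρ hκ C X‖ := by
  rw [Fr_apply, norm_smul, Real.norm_eq_abs, abs_of_pos hl]

theorem symm_Fr {l ρ κ : ℝ} (hl : 0 < l) (hρ : 0 < ρ) (hκ : 0 < κ) (η0 : ℝ) (C : E2) (ζ : E3) :
    (adjE (Fr l ρ κ hl hρ hκ C)).symm (ζ - ctr η0 C) =
      pt ((l * ρ)⁻¹ • (lat ζ - ζ 2 • C)) ((ζ 2 - η0) / (l * κ)) := symm_Pl _ _ η0 C ζ

theorem adjE_Fr {l ρ κ : ℝ} (hl : 0 < l) (hρ : 0 < ρ) (hκ : 0 < κ) (C : E2) (Z : E3) :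
    adjE (Fr l ρ κ hl hρ hκ C) Z = pt ((l * ρ) • lat Z + (l * κ * Z 2) • C) (l * κ * Z 2) :=
  adjE_Pl _ _ C Z

/-! ### windows in the scalar frequency -/

/-- profiles of windows in the scalar frequency, `η = p.1 + p.2 x`. -/
structure EW (a M : ℝ) (E : ℝ → ℂ) (P : Set (ℝ × ℝ)) : Prop where
  one : 1 ≤ a
  M0 : 0 ≤ M
  sm : ContDiff ℝ ∞ E
  sp : ∀ x, E x ≠ 0 → |x| ≤ M
  nb : ∀ x, ‖E x‖ ≤ 1
  cp : IsCompact P
  rg : ∀ p ∈ P, ∀ x, E x ≠ 0 → a⁻¹ ≤ p.1 + p.2 * x ∧ p.1 + p.2 * x ≤ a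

/-- the scale factor. -/
def lam (a M : ℝ) : ℝ := 1 + M + a

theorem lam_pos {a M : ℝ} (ha : 1 ≤ a) (hM : 0 ≤ M) : 0 < lam a M := by unfold lam; linarith

/-- the window of a cap in its own coordinates. -/
noncomputable def wnE (J : ℝ → ℝ) (l : ℝ) (E : ℝ → ℂ) (b : E2 → ℂ) (p : ℝ × ℝ) (z : E3) : ℂ :=
  b (J (p.1 + p.2 * (l * z 2)) • (l • lat z)) * E (l * z 2)

theorem wnE_smooth {J : ℝ → ℝ} (hJ : ContDiff ℝ ∞ J) (l : ℝ) {E : ℝ → ℂ} (hE : ContDiff ℝ ∞ E)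
    {b : E2 → ℂ} (hb : ContDiff ℝ ∞ b) :
    ContDiff ℝ ∞ (fun x : (ℝ × ℝ) × E3 => wnE J l E b x.1 x.2) := by
  unfold wnE
  have h2 : ContDiff ℝ ∞ (fun x : (ℝ × ℝ) × E3 => l * x.2 2) :=
    contDiff_const.mul ((coord_smooth 2).comp contDiff_snd)
  have h1 : ContDiff ℝ ∞ (fun x : (ℝ × ℝ) × E3 => x.1.1 + x.1.2 * (l * x.2 2)) :=
    (contDiff_fst.comp contDiff_fst).add ((contDiff_snd.comp contDiff_fst).mul h2)
  have h3 : ContDiff ℝ ∞ (fun x : (ℝ × ℝ) × E3 => l • lat x.2) :=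
    ContDiff.const_smul l (lat_smooth.comp contDiff_snd)
  exact (hb.comp ((hJ.comp h1).smul h3)).mul (hE.comp h2)

theorem cap_wnE {a M : ℝ} {E : ℝ → ℂ} {P : Set (ℝ × ℝ)} (h : EW a M E P) {J : ℝ → ℝ}
    (hJ : ∀ t, a⁻¹ ≤ t → t ≤ a → J t = t⁻¹) (b : E2 → ℂ) {p : ℝ × ℝ} (hp : p ∈ P)
    {l ρ : ℝ} (hl : 0 < l) (hρ : 0 < ρ) (hκ : 0 < p.2) (C : E2) (ζ : E3) :
    CWp480.cap (wnE J l E b p) (ctr p.1 C) (Fr l ρ p.2 hl hρ hκ C) ζ =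
      Crest.Agent.R138.Wpk685.cap b C ρ (slp ζ) * E ((ζ 2 - p.1) / p.2) := by
  unfold CWp480.cap
  rw [symm_Fr]
  unfold wnE
  rw [pt_two, lat_pt]
  have e0 : l * ((ζ 2 - p.1) / (l * p.2)) = (ζ 2 - p.1) / p.2 := by field_simp
  have e2 : l • ((l * ρ)⁻¹ • (lat ζ - ζ 2 • C)) = ρ⁻¹ • (lat ζ - ζ 2 • C) := by
    rw [smul_smul]
    congr 1
    field_simp
  rw [e0, e2]
  by_cases hz : E ((ζ 2 - p.1) / p.2) = 0
  · rw [hz, mul_zero, mul_zero]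
  · obtain ⟨h5, h6⟩ := h.rg p hp _ hz
    have e1 : p.1 + p.2 * ((ζ 2 - p.1) / p.2) = ζ 2 := by field_simp; ring
    rw [e1] at h5 h6 ⊢
    have hz2 : 0 < ζ 2 := lt_of_lt_of_le (inv_pos.2 (by linarith [h.one])) h5
    rw [hJ _ h5 h6]
    unfold Crest.Agent.R138.Wpk685.cap
    congr 2
    rw [lat_sub_eq hz2.ne', smul_smul, smul_smul]
    congr 1
    field_simp

theorem wnE_zero {a M : ℝ} {E : ℝ → ℂ} {P : Set (ℝ × ℝ)} (h : EW a M E P) {J : ℝ → ℝ}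
    (hJ : ∀ t, a⁻¹ ≤ t → t ≤ a → J t = t⁻¹) {b : E2 → ℂ} (hs : ∀ ζ, 3/2 < ‖ζ‖ → b ζ = 0)
    {p : ℝ × ℝ} (hp : p ∈ P) {z : E3} (hz : 8 < ‖z‖) : wnE J (lam a M) E b p z = 0 := by
  by_contra hc
  have hl := lam_pos h.one h.M0
  have hE : E (lam a M * z 2) ≠ 0 := fun h0 => hc (by unfold wnE; rw [h0, mul_zero])
  have hb : b (J (p.1 + p.2 * (lam a M * z 2)) • (lam a M • lat z)) ≠ 0 :=
    fun h0 => hc (by unfold wnE; rw [h0, zero_mul])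
  have h1 := h.sp _ hE
  obtain ⟨h5, h6⟩ := h.rg p hp _ hE
  rw [hJ _ h5 h6] at hb
  have ha0 : 0 < a := by linarith [h.one]
  have hpos : 0 < p.1 + p.2 * (lam a M * z 2) := lt_of_lt_of_le (inv_pos.2 ha0) h5
  have h7 : ‖(p.1 + p.2 * (lam a M * z 2))⁻¹ • (lam a M • lat z)‖ ≤ 3 / 2 := by
    by_contra hh
    exact hb (hs _ (not_le.1 hh))
  rw [norm_smul, norm_smul, Real.norm_eq_abs, abs_of_pos (inv_pos.2 hpos), Real.norm_eq_abs,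
    abs_of_pos hl, inv_mul_le_iff₀ hpos] at h7
  have h8 : lam a M * ‖lat z‖ ≤ lam a M * (3 / 2) := by
    refine h7.trans ?_
    have : a ≤ lam a M := by unfold lam; linarith [h.M0]
    gcongr
    linarith
  have h9 : ‖lat z‖ ≤ 3 / 2 := le_of_mul_le_mul_left h8 hl
  rw [abs_mul, abs_of_pos hl] at h1
  have h10 : lam a M * |z 2| ≤ lam a M * 1 := by
    refine h1.trans ?_
    unfold lam
    linarith [h.one]
  have h11 : |z 2| ≤ 1 := le_of_mul_le_mul_left h10 hl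
  have h3 := normsq3 z
  have h4 := sq_abs (z 2)
  have h12 := norm_nonneg (lat z)
  have h13 := abs_nonneg (z 2)
  nlinarith

/-- transport multiplier in the coordinates of a cap. -/
noncomputable def trE (J : ℝ → ℝ) (l : ℝ) (p : ℝ × ℝ × ℝ) (z : E3) : ℂ :=
  b57 z * ee (p.1 * (‖l • lat z‖ ^ 2 * J (p.2.1 + p.2.2 * (l * z 2)) / 2))

theorem trE_smooth {J : ℝ → ℝ} (hJ : ContDiff ℝ ∞ J) (l : ℝ) :
    ContDiff ℝ ∞ (fun x : (ℝ × ℝ × ℝ) × E3 => trE J l x.1 x.2) := by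
  unfold trE
  have h2 : ContDiff ℝ ∞ (fun x : (ℝ × ℝ × ℝ) × E3 => l * x.2 2) :=
    contDiff_const.mul ((coord_smooth 2).comp contDiff_snd)
  have h0 : ContDiff ℝ ∞ (fun x : (ℝ × ℝ × ℝ) × E3 => x.1.1) := contDiff_fst.comp contDiff_fst
  have ha : ContDiff ℝ ∞ (fun x : (ℝ × ℝ × ℝ) × E3 => x.1.2.1) :=
    contDiff_fst.comp (contDiff_snd.comp contDiff_fst)
  have hb : ContDiff ℝ ∞ (fun x : (ℝ × ℝ × ℝ) × E3 => x.1.2.2) :=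
    contDiff_snd.comp (contDiff_snd.comp contDiff_fst)
  have h1 : ContDiff ℝ ∞ (fun x : (ℝ × ℝ × ℝ) × E3 => x.1.2.1 + x.1.2.2 * (l * x.2 2)) :=
    ha.add (hb.mul h2)
  have h3 : ContDiff ℝ ∞ (fun x : (ℝ × ℝ × ℝ) × E3 => ‖l • lat x.2‖ ^ 2) :=
    (contDiff_norm_sq ℝ).comp (ContDiff.const_smul l (lat_smooth.comp contDiff_snd))
  exact (b57_smooth.comp contDiff_snd).mul (contDiff_ee.comp (h0.mul
    ((h3.mul (hJ.comp h1)).div_const 2)))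

/-! ### frequency sets -/

/-- frequency set of the slope `C`. -/
def Sd (a M η0 κ ρ : ℝ) (C : E2) : Set E3 :=
  {ζ | a⁻¹ ≤ ζ 2 ∧ ζ 2 ≤ a ∧ |ζ 2 - η0| ≤ M * κ ∧ ‖lat ζ - ζ 2 • C‖ ≤ 2 * a * ρ}

theorem isClosed_Sd (a M η0 κ ρ : ℝ) (C : E2) : IsClosed (Sd a M η0 κ ρ C) := by
  have h2 : Continuous (fun ζ : E3 => ζ 2) := (coord_smooth 2).continuous
  have h3 : Continuous lat := latL.continuous
  exact (isClosed_le continuous_const h2).inter ((isClosed_le h2 continuous_const).inter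
    ((isClosed_le (h2.sub continuous_const).abs continuous_const).inter
      (isClosed_le (h3.sub (h2.smul continuous_const)).norm continuous_const)))

theorem Sd_coord {a M η0 κ ρ : ℝ} (ha : 1 ≤ a) (hM : 0 ≤ M) (hρ : 0 < ρ) (hκ : 0 < κ) {C : E2}
    {ζ : E3} (h : ζ ∈ Sd a M η0 κ ρ C) :
    ‖(adjE (Fr (lam a M) ρ κ (lam_pos ha hM) hρ hκ C)).symm (ζ - ctr η0 C)‖ ≤ 5 := by
  have hl := lam_pos ha hM
  rw [symm_Fr]
  have h1 : ‖(lam a M * ρ)⁻¹ • (lat ζ - ζ 2 • C)‖ ≤ 2 := by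
    rw [norm_smul, Real.norm_eq_abs, abs_of_pos (inv_pos.2 (mul_pos hl hρ)),
      inv_mul_le_iff₀ (mul_pos hl hρ)]
    refine h.2.2.2.trans ?_
    have : a ≤ lam a M := by unfold lam; linarith
    nlinarith
  have h2 : |(ζ 2 - η0) / (lam a M * κ)| ≤ 1 := by
    rw [abs_div, abs_of_pos (mul_pos hl hκ), div_le_iff₀ (mul_pos hl hκ)]
    refine h.2.2.1.trans ?_
    have : M ≤ lam a M := by unfold lam; linarith
    nlinarith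
  refine (norm_pt_le _ _).trans ?_
  linarith

theorem mem_Sd {a M : ℝ} {E : ℝ → ℂ} {P : Set (ℝ × ℝ)} (h : EW a M E P) {b : E2 → ℂ}
    (hs : ∀ ζ, 3/2 < ‖ζ‖ → b ζ = 0) {p : ℝ × ℝ} (hp : p ∈ P) {ρ : ℝ} (hρ : 0 < ρ)
    (hκ : 0 < p.2) {C : E2} {ζ : E3}
    (hz : Crest.Agent.R138.Wpk685.cap b C ρ (slp ζ) * E ((ζ 2 - p.1) / p.2) ≠ 0) :
    ζ ∈ Sd a M p.1 p.2 ρ C := by
  have hE := right_ne_zero_of_mul hz
  have hb := left_ne_zero_of_mul hz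
  obtain ⟨h5, h6⟩ := h.rg p hp _ hE
  have e1 : p.1 + p.2 * ((ζ 2 - p.1) / p.2) = ζ 2 := by field_simp; ring
  rw [e1] at h5 h6
  have ha0 : 0 < a := by linarith [h.one]
  have hz2 : 0 < ζ 2 := lt_of_lt_of_le (inv_pos.2 ha0) h5
  refine ⟨h5, h6, ?_, ?_⟩
  · have h7 := h.sp _ hE
    rwa [abs_div, abs_of_pos hκ, div_le_iff₀ hκ] at h7
  · have h7 : ‖ρ⁻¹ • (slp ζ - C)‖ ≤ 3 / 2 := by
      by_contra hh
      exact hb (hs _ (not_le.1 hh))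
    rw [norm_smul, Real.norm_eq_abs, abs_of_pos (inv_pos.2 hρ), inv_mul_le_iff₀ hρ] at h7
    rw [lat_sub_eq hz2.ne', norm_smul, Real.norm_eq_abs, abs_of_pos hz2]
    calc ζ 2 * ‖slp ζ - C‖ ≤ a * (ρ * (3 / 2)) := by gcongr
      _ ≤ 2 * a * ρ := by nlinarith

/-! ### packets -/

/-- **packet data** of the slope `C` at the scale `ρ` with the window `e` in the scalar frequency:
frame `B`, centre `c`, frequency set `S`; transport is harmless for `|τ| ρ² ≤ T`. -/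
structure Pk (N : ℕ) (Q T ρ : ℝ) (e : E3 → ℂ) (C : E2) (B : E3 ≃L[ℝ] E3) (c : E3) (S : Set E3) :
    Prop where
  wn : ∃ a, Win N Q a ∧
    ∀ ζ, CWp480.cap a c B ζ = Crest.Agent.R138.Wpk685.cap win C ρ (slp ζ) * e ζ
  ft : ∃ a, Win N Q a ∧
    ∀ ζ, CWp480.cap a c B ζ = Crest.Agent.R138.Wpk685.cap fat C ρ (slp ζ) * e ζ
  sw : ∀ ζ, Crest.Agent.R138.Wpk685.cap win C ρ (slp ζ) * e ζ ≠ 0 → ζ ∈ S
  sf : ∀ ζ, Crest.Agent.R138.Wpk685.cap fat C ρ (slp ζ) * e ζ ≠ 0 → ζ ∈ S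
  ph : ∀ τ : ℝ, |τ| * ρ ^ 2 ≤ T → ∃ a, Win N Q a ∧
    ∀ ζ ∈ S, ee (τ * hc ζ) = CWp480.cap a c B ζ * ee (inner ℝ (τ • vel C) ζ)

theorem win_supp (ζ : E2) (h : 3/2 < ‖ζ‖) : win ζ = 0 :=
  Crest.Agent.R138.Wpk685.win_zero' (by linarith)

theorem fat_supp (ζ : E2) (h : 3/2 < ‖ζ‖) : fat ζ = 0 :=
  Crest.Agent.R138.Wpk685.fat_zero h.le

theorem phase_Sd {a M : ℝ} (ha : 1 ≤ a) (hM : 0 ≤ M) {J : ℝ → ℝ}
    (hJ : ∀ t, a⁻¹ ≤ t → t ≤ a → J t = t⁻¹) {η0 κ ρ : ℝ} (hρ : 0 < ρ) (hκ : 0 < κ) {C : E2}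
    {ζ : E3} (h : ζ ∈ Sd a M η0 κ ρ C) (τ : ℝ) :
    ee (τ * hc ζ) = CWp480.cap (trE J (lam a M) (τ * ρ ^ 2, η0, κ)) (ctr η0 C)
      (Fr (lam a M) ρ κ (lam_pos ha hM) hρ hκ C) ζ * ee (inner ℝ (τ • vel C) ζ) := by
  have hc5 := Sd_coord ha hM hρ hκ h
  have hl := lam_pos ha hM
  unfold CWp480.cap trE
  rw [b57_one hc5, one_mul, symm_Fr, lat_pt, pt_two]
  have e0 : lam a M * ((ζ 2 - η0) / (lam a M * κ)) = (ζ 2 - η0) / κ := by field_simp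
  have e2 : lam a M • ((lam a M * ρ)⁻¹ • (lat ζ - ζ 2 • C)) = ρ⁻¹ • (lat ζ - ζ 2 • C) := by
    rw [smul_smul]
    congr 1
    field_simp
  have e1 : η0 + κ * ((ζ 2 - η0) / κ) = ζ 2 := by field_simp; ring
  simp only [e0, e2, e1]
  rw [hJ _ h.1 h.2.1, ← Crest.Agent.R138.Wf448.ee_add]
  have h7 : ζ 2 ≠ 0 := (lt_of_lt_of_le (inv_pos.2 (by linarith)) h.1).ne'
  congr 1
  rw [hc_split C h7, inner_smul_left, norm_smul, Real.norm_eq_abs, abs_of_pos (inv_pos.2 hρ)]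
  simp only [conj_trivial]
  field_simp
  ring

/-- **uniform packets**. -/
theorem exists_pk {a M : ℝ} {E : ℝ → ℂ} {P : Set (ℝ × ℝ)} (h : EW a M E P) (N : ℕ) (T : ℝ) :
    ∃ Q : ℝ, 0 < Q ∧ ∀ p ∈ P, ∀ (hκ : 0 < p.2) (ρ : ℝ) (hρ : 0 < ρ) (C : E2),
      Pk N Q T ρ (fun ζ => E ((ζ 2 - p.1) / p.2)) C
        (Fr (lam a M) ρ p.2 (lam_pos h.one h.M0) hρ hκ C) (ctr p.1 C) (Sd a M p.1 p.2 ρ C) := by
  obtain ⟨J, hJs, hJ⟩ := exists_inv h.one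
  have hW : ∀ b : E2 → ℂ, ContDiff ℝ ∞ b → (∀ ζ, 3/2 < ‖ζ‖ → b ζ = 0) →
      ∃ Q : ℝ, 0 ≤ Q ∧ ∀ p ∈ P, Win N Q (wnE J (lam a M) E b p) := fun b hb hs =>
    unif_win (F := fun x : (ℝ × ℝ) × E3 => wnE J (lam a M) E b x.1 x.2)
      (wnE_smooth hJs _ h.sm hb) h.cp (fun p hp z hz => wnE_zero h hJ hs hp hz) N
  obtain ⟨Q1, hQ1, h1⟩ := hW win Crest.Agent.R138.Wpk685.win_contDiff win_supp
  obtain ⟨Q2, hQ2, h2⟩ := hW fat Crest.Agent.R138.Wpk685.fat_contDiff fat_supp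
  obtain ⟨Q3, hQ3, h3⟩ := unif_win (F := fun x : (ℝ × ℝ × ℝ) × E3 => trE J (lam a M) x.1 x.2)
    (trE_smooth hJs _) (K := Set.Icc (-T) T ×ˢ P) (isCompact_Icc.prod h.cp) (by
      intro p _ z hz
      show trE J (lam a M) p z = 0
      unfold trE
      rw [b57_zero (by linarith), zero_mul]) N
  refine ⟨Q1 + Q2 + Q3 + 1, by linarith, ?_⟩
  intro p hp hκ ρ hρ C
  refine ⟨⟨_, (h1 p hp).mono le_rfl (by linarith), fun ζ => ?_⟩,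
    ⟨_, (h2 p hp).mono le_rfl (by linarith), fun ζ => ?_⟩, ?_, ?_, ?_⟩
  · exact cap_wnE h hJ win hp _ hρ hκ C ζ
  · exact cap_wnE h hJ fat hp _ hρ hκ C ζ
  · intro ζ hz
    exact mem_Sd h win_supp hp hρ hκ hz
  · intro ζ hz
    exact mem_Sd h fat_supp hp hρ hκ hz
  · intro τ hτ
    refine ⟨trE J (lam a M) (τ * ρ ^ 2, p.1, p.2), ?_, ?_⟩
    · refine (h3 (τ * ρ ^ 2, p.1, p.2) ⟨?_, hp⟩).mono le_rfl (by linarith)
      rw [Set.mem_Icc, ← abs_le, abs_mul, abs_of_nonneg (sq_nonneg ρ)]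
      exact hτ
    · intro ζ hz
      exact phase_Sd h.one h.M0 hJ hρ hκ hz τ

/-! ### the two instances -/

theorem ew_sliced {a : ℝ} (ha : 1 ≤ a) :
    EW (2 * a) 2 bt (Set.Icc a⁻¹ a ×ˢ Set.Icc 0 (4 * a)⁻¹) := by
  have ha0 : 0 < a := by linarith
  refine ⟨by linarith, by norm_num, bt_smooth, ?_, norm_bt_le, isCompact_Icc.prod isCompact_Icc, ?_⟩
  · intro x hx
    by_contra hc
    exact hx (bt_zero (not_le.1 hc).le)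
  · rintro ⟨η0, κ⟩ ⟨⟨h1, h2⟩, h3, h4⟩ x hx
    simp only at h1 h2 h3 h4 ⊢
    have h5 : |x| ≤ 2 := by
      by_contra hc
      exact hx (bt_zero (not_le.1 hc).le)
    have e1 : (2 * a)⁻¹ = a⁻¹ / 2 := by rw [mul_inv]; ring
    have e2 : (4 * a)⁻¹ = a⁻¹ / 4 := by rw [mul_inv]; ring
    have hi : 0 < a⁻¹ := inv_pos.2 ha0
    have hi1 : a⁻¹ ≤ 1 := inv_le_one_of_one_le₀ ha
    have h6 : |κ * x| ≤ a⁻¹ / 2 := by
      rw [abs_mul, abs_of_nonneg h3]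
      calc κ * |x| ≤ (4 * a)⁻¹ * 2 := by gcongr
        _ = a⁻¹ / 2 := by rw [e2]; ring
    obtain ⟨h7, h8⟩ := abs_le.1 h6
    rw [e1]
    constructor <;> linarith

/-- sliced packets: `e = etw η0 κ`, range `[(2a)⁻¹, 2a]`. -/
theorem pk_sliced {a : ℝ} (ha : 1 ≤ a) (N : ℕ) (T : ℝ) :
    ∃ Q : ℝ, 0 < Q ∧ ∀ (η0 κ : ℝ), a⁻¹ ≤ η0 → η0 ≤ a → ∀ (hκ : 0 < κ), κ ≤ (4 * a)⁻¹ →
      ∀ (ρ : ℝ) (hρ : 0 < ρ) (C : E2), Pk N Q T ρ (etw η0 κ) C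
        (Fr (lam (2 * a) 2) ρ κ (lam_pos (by linarith) (by norm_num)) hρ hκ C) (ctr η0 C)
        (Sd (2 * a) 2 η0 κ ρ C) := by
  obtain ⟨Q, hQ, h⟩ := exists_pk (ew_sliced ha) N T
  refine ⟨Q, hQ, ?_⟩
  intro η0 κ h1 h2 hκ h3 ρ hρ C
  exact h (η0, κ) ⟨⟨h1, h2⟩, hκ.le, h3⟩ hκ ρ hρ C

theorem ew_unsliced {a : ℝ} (ha : 1 ≤ a) :
    EW (2 * a) (2 * a) (fun x => ((bu a ha x : ℝ) : ℂ)) {((0:ℝ), (1:ℝ))} := by
  have ha0 : 0 < a := by linarith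
  have e1 : (2 * a)⁻¹ = a⁻¹ / 2 := by rw [mul_inv]; ring
  have hi : 0 < a⁻¹ := inv_pos.2 ha0
  have hi1 : a⁻¹ ≤ 1 := inv_le_one_of_one_le₀ ha
  have hs : ∀ x, ((bu a ha x : ℝ) : ℂ) ≠ 0 → a⁻¹ / 2 < x ∧ x < a + a⁻¹ / 2 := by
    intro x hx
    exact bu_supp ha (by simpa using hx)
  refine ⟨by linarith, by linarith, Complex.ofRealCLM.contDiff.comp (bu a ha).contDiff, ?_, ?_,
    isCompact_singleton, ?_⟩
  · intro x hx
    obtain ⟨h1, h2⟩ := hs x hx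
    rw [abs_of_pos (by linarith)]
    linarith
  · intro x
    rw [Complex.norm_real, Real.norm_eq_abs, abs_of_nonneg (ContDiffBump.nonneg _)]
    exact ContDiffBump.le_one _
  · rintro p hp x hx
    rw [Set.mem_singleton_iff] at hp
    subst hp
    obtain ⟨h1, h2⟩ := hs x hx
    simp only
    rw [e1]
    constructor <;> linarith

/-- unsliced packets: `e = eaw a`, `κ = 1`. -/
theorem pk_unsliced {a : ℝ} (ha : 1 ≤ a) (N : ℕ) (T : ℝ) :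
    ∃ Q : ℝ, 0 < Q ∧ ∀ (ρ : ℝ) (hρ : 0 < ρ) (C : E2), Pk N Q T ρ (eaw a) C
        (Fr (lam (2 * a) (2 * a)) ρ 1 (lam_pos (by linarith) (by linarith)) hρ one_pos C) (ctr 0 C)
        (Sd (2 * a) (2 * a) 0 1 ρ C) := by
  obtain ⟨Q, hQ, h⟩ := exists_pk (ew_unsliced ha) N T
  refine ⟨Q, hQ, ?_⟩
  intro ρ hρ C
  have h1 := h (0, 1) (Set.mem_singleton _) one_pos ρ hρ C
  have e1 : (fun ζ : E3 => (((bu a ha ((ζ 2 - ((0:ℝ), (1:ℝ)).1) / ((0:ℝ), (1:ℝ)).2)) : ℝ) : ℂ)) =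
      eaw a := by
    funext ζ
    unfold eaw
    rw [dif_pos ha]
    simp
  rw [e1] at h1
  exact h1

end Crest.Agent.R116.CWd480
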