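import Crest.Agent.R116.WDefC_188
import Crest.Agent.R116.CWd1_480

/-!
# R116 (S0155), wave side, **A2k** (SUP of the cone), part 0: literals (helper858)

* `bn l k C Z` = box norm: `‖(l x', k nrm_C)‖`; `wden` = weighted density of the packets of size `ρ`
  at the point `(X, s)` of the frame.
* `LevCh` = **level change** (Theorem B at level `ρ`, Theorem A at level `ρ'`).
* `VolC` = volume of the time slices of the dilated members.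
* `chi A C s` = smooth slope cut-off: one for `|slp - C| ≤ (A + 3) s`, zero for `≥ (A + 4) s`;
  `MulBx` = multiplication by it keeps the box bound (unsliced).
* `TRIV2s` = TRIV2 for states with slices of width `2κ`.
-/

set_option autoImplicit false

open MeasureTheory FourierTransform
open scoped ContDiff ENNReal

namespace Crest.Agent.R116.Sup858

open Crest.Agent.R138.Defs (E2 ee)
open Crest.Agent.R138.Wpk685 (cen caps)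
open Crest.Agent.R116.CDef480 Crest.Agent.R116.WC188
open Crest.Agent.R116.LZg725 (Cf)

/-- box norm. -/
noncomputable def bn (l k : ℝ) (C : E2) (Z : E3) : ℝ := ‖pt (l • lat Z) (k * nrm C Z 0)‖

/-- weighted density of the packets of size `ρ` (position at time `0` of the frame, transported to
time `p.2`) at the point `p`. -/
noncomputable def wden (ρ l k : ℝ) (n : ℕ) (C : E2) (g : E3 → ℂ) (p : E3 × ℝ) : ℝ≥0∞ :=
  ∑ m ∈ caps ρ, ∫⁻ Y, ENNReal.ofReal (((1 + bn l k C (Y - p.2 • vel (cen ρ m) - p.1)) ^ n)⁻¹) *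
    ‖umc ρ g m Y‖ₑ ^ 2

/-- **level change**: both levels are almost orthogonal in the block metric `bn l k C`. -/
def LevCh : Prop := ∀ (a b L T : ℝ) (n : ℕ), 1 ≤ a → 0 < b → b < 2 → 1 ≤ L → 0 ≤ T →
  ∃ Cn : ℝ, 0 ≤ Cn ∧ ∀ (l k σ ρ ρ' : ℝ) (C : E2) (g : E3 → ℂ), 0 < l → 0 < k → k ≤ 1 →
    l ≤ ρ → ρ ≤ 1 → l ≤ ρ' → ρ' ≤ 1 → k * (σ + 2 * ρ) ≤ L * l → k * (σ + 2 * ρ') ≤ L * l →
    Measurable g → (∃ B : ℝ, ∀ ζ, ‖g ζ‖ ≤ B) →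
    (∀ ζ, g ζ ≠ 0 → a⁻¹ ≤ ζ 2 ∧ ζ 2 ≤ a ∧ ‖slp ζ‖ ≤ b ∧ ‖slp ζ - C‖ ≤ σ) →
    ∀ z z' p p' : E3 × ℝ, z + p = z' + p' → |p.2| * ρ ^ 2 ≤ T → |p'.2| * ρ' ^ 2 ≤ T →
      wden ρ l k n C (trc z g) p ≤ ENNReal.ofReal Cn * wden ρ' l k n C (trc z' g) p'

/-- points of the time `s` within `A (s1 r, s1 r, s2 s1 r)` of a ray of the `A`-dilated member. -/
def nbh (κ A r s1 s2 : ℝ) (c : E2) (X0 : E3) (f : Cf E2) (s : ℝ) : Set E3 :=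
  {X | ∃ (Y : E3) (C : E2), Y ∈ mset (A * s2) (A * TT κ s2 r) r (A * s1) c X0 f C ∧
    ‖lat (Y - s • vel C - X)‖ ≤ A * (s1 * r) ∧
    |nrm C (Y - s • vel C - X) 0| ≤ A * (s2 * (s1 * r))}

/-- **volume of the time slices of the dilated members.** -/
def VolC (M : ℝ) : Prop := ∀ A : ℝ, 1 ≤ A → ∃ Cv : ℝ, 0 ≤ Cv ∧
  ∀ (κ r s1 s2 : ℝ) (c : E2) (X0 : E3) (f : Cf E2), 0 < κ → κ ≤ 1 → 1 ≤ r → 1 ≤ κ * r →
    Sd r s1 s2 → ‖c‖ ≤ A → Adm M κ s1 s2 (TT κ s2 r) r c X0 f → ∀ s : ℝ, |s| ≤ r →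
      volume (nbh κ A r s1 s2 c X0 f s) ≤ ENNReal.ofReal (Cv * scost κ s1 s2 r)

/-- the bump of the slope cut-offs. -/
noncomputable def cb (A : ℝ) : ContDiffBump (0 : E2) :=
  ⟨|A| + 3, |A| + 4, by positivity, by linarith⟩

/-- smooth slope cut-off. -/
noncomputable def chi (A : ℝ) (C : E2) (s : ℝ) (ζ : E3) : ℂ := ((cb A (s⁻¹ • (slp ζ - C)) : ℝ) : ℂ)

/-- **the box bound is stable under slope cut-offs** (unsliced, `κ = 1`). -/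
def MulBx (M q : ℝ) : Prop := ∀ a b A : ℝ, 1 ≤ a → 0 < b → b < 2 → 1 ≤ A →
  ∃ Cb : ℝ, 1 ≤ Cb ∧ ∀ (g : E3 → ℂ) (R D s : ℝ) (C : E2), 1 ≤ R → 0 ≤ D →
    R ^ (-(1/2) : ℝ) ≤ s → s ≤ 1 → Measurable g → (∃ B : ℝ, ∀ ζ, ‖g ζ‖ ≤ B) →
    (∀ ζ, g ζ ≠ 0 → a⁻¹ ≤ ζ 2 ∧ ζ 2 ≤ a ∧ ‖slp ζ‖ ≤ b) → PBx M 1 q R g D →
    PBx M 1 q R (fun ζ => chi A C s ζ * g ζ) (Cb * D)

/-- **TRIV2s**: trivial bound for plate systems, states with slices of width `2κ`. -/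
def TRIV2s (M q : ℝ) : Prop := ∃ J : ℝ, 0 ≤ J ∧
  ∀ a b A ε M0 : ℝ, 1 ≤ a → 0 < b → b < 2 → 1 ≤ A → 0 < ε → ∃ C : ℝ, 0 ≤ C ∧
  ∀ κ η0 C0 σ g R D, 0 < κ → 8 * a * κ ≤ 1 → R ^ (-(1/4) : ℝ) ≤ κ →
    St M κ q a b M0 C0 σ g R D → Slc η0 (2 * κ) g →
    ∀ r s1 s2, R ^ (1/2 : ℝ) ≤ r → r ≤ R → Sd r s1 s2 →
      ENNReal.ofReal (s2 ^ (-q / 2)) * SIG M κ A r s1 s2 g R ≤
        ENNReal.ofReal (C * R ^ ε * (R / r) ^ J * SS g R D)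

end Crest.Agent.R116.Sup858
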