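import Crest.Agent.R116.Ba5_449
import Crest.Agent.R116.Sup0_858

/-!
# R116 (S0155), wave side, TRIV2 (helper449): the leaves `TRIV2s` and `TRIV2`

`SIG ≤ C (R/r)^16 s2^(q/2) SS` : extension of the boxes (`plate_le`) + energy count (`card_net`).
-/

set_option autoImplicit false

open MeasureTheory
open scoped ENNReal

namespace Crest.Agent.R116.Ba449

open Crest.Agent.R138.Defs (E2)
open Crest.Agent.R138.Wpk685 (cen caps)
open Crest.Agent.R116.CDef480
open Crest.Agent.R116.LZg725 (Cf)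
open Crest.Agent.R116.WC188

theorem pow_three_half' (x : ℝ≥0∞) : x ^ (3 / 2 : ℝ) = x ^ (1 / 2 : ℝ) * x := by
  have h : (3 / 2 : ℝ) = 1 / 2 + 1 := by norm_num
  rw [h, ENNReal.rpow_add_of_nonneg _ _ (by norm_num) (by norm_num), ENNReal.rpow_one]

/-- total energy of a plate system. -/
theorem sum_enc_le {M κ A r s1 s2 R L : ℝ} {I : Finset ℕ} {P : ℕ → Plate} {g : E3 → ℂ}
    (hg : Gd L g) (hr : 1 ≤ r) (hrR : r ≤ R) (hP : Plates M κ A r s1 s2 R I P) :
    ∑ i ∈ I, enc (r ^ (-(1/2) : ℝ)) (trc (P i).z g) (P i).S ≤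
      ENNReal.ofReal (256 * (R / r) ^ 4 * Enc g) := by
  classical
  have hr0 : 0 < r := by linarith
  have hρ : 0 < r ^ (-(1/2) : ℝ) := Real.rpow_pos_of_pos hr0 _
  set Z : Finset (E3 × ℝ) := I.image fun i => (P i).z with hZ
  have hnet : Net r R Z := by
    refine ⟨?_, ?_⟩
    · intro z hz
      obtain ⟨i, hi, rfl⟩ := Finset.mem_image.1 hz
      exact hP.mem i hi
    · intro z hz z' hz'
      obtain ⟨i, hi, rfl⟩ := Finset.mem_image.1 hz
      obtain ⟨j, hj, rfl⟩ := Finset.mem_image.1 hz'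
      exact hP.sep i hi j hj
  have hcard := card_net hr0 hrR hnet
  have h1 : ∑ i ∈ I, enc (r ^ (-(1/2) : ℝ)) (trc (P i).z g) (P i).S =
      ∑ z ∈ Z, ∑ i ∈ I with (P i).z = z, enc (r ^ (-(1/2) : ℝ)) (trc (P i).z g) (P i).S :=
    (Finset.sum_fiberwise_of_maps_to (fun i hi => Finset.mem_image_of_mem _ hi) _).symm
  rw [h1]
  have h2 : ∀ z ∈ Z, ∑ i ∈ I with (P i).z = z,
      enc (r ^ (-(1/2) : ℝ)) (trc (P i).z g) (P i).S ≤ ENNReal.ofReal (Enc g) := by
    intro z _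
    have h3 : ∑ i ∈ I with (P i).z = z, enc (r ^ (-(1/2) : ℝ)) (trc (P i).z g) (P i).S =
        ∑ i ∈ I with (P i).z = z, enc (r ^ (-(1/2) : ℝ)) (trc z g) (P i).S :=
      Finset.sum_congr rfl fun i hi => by rw [(Finset.mem_filter.1 hi).2]
    rw [h3]
    refine (Bas367.enc_union _ (fun i => (P i).S) (fun _ => Set.univ) ?_ ?_ ?_).trans ?_
    · intro i hi m
      exact hP.meas i (Finset.mem_filter.1 hi).1 m
    · intro i hi j hj hij m
      obtain ⟨hi1, hi2⟩ := Finset.mem_filter.1 hi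
      obtain ⟨hj1, hj2⟩ := Finset.mem_filter.1 hj
      exact hP.disj i hi1 j hj1 hij (hi2.trans hj2.symm) m
    · intro i _ m
      exact Set.subset_univ _
    · have h4 := enc_le (hg.trc z) hρ (fun _ => Set.univ)
      rwa [Enc_trc] at h4
  refine (Finset.sum_le_sum h2).trans ?_
  rw [Finset.sum_const, nsmul_eq_mul]
  refine (mul_le_mul' hcard le_rfl).trans (le_of_eq ?_)
  rw [← ENNReal.ofReal_mul (by positivity)]

/-- **core**: value of a plate system. -/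
theorem val_core {M q : ℝ} (hM : 1 ≤ M) (hq : 0 ≤ q) {a A : ℝ} (ha : 1 ≤ a) (hA : 1 ≤ A) :
    ∃ Cv : ℝ, 0 ≤ Cv ∧ ∀ (κ η0 : ℝ) (g : E3 → ℂ) (R D r s1 s2 : ℝ), 0 < κ → 8 * a * κ ≤ 1 →
      1 ≤ r → r ≤ R → Fs a η0 κ g → 0 ≤ D → PBx M κ q R g D → Sd r s1 s2 →
      ENNReal.ofReal (s2 ^ (-q / 2)) * SIG M κ A r s1 s2 g R ≤
        ENNReal.ofReal (Cv * (R / r) ^ 16 * SS g R D) := by
  obtain ⟨C, hC, hpl⟩ := plate_le hM hq ha hA
  refine ⟨256 * Real.sqrt C, by positivity, ?_⟩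
  intro κ η0 g R D r s1 s2 hκ hκa hr hrR hg hD hP hSd
  have hr0 : 0 < r := by linarith
  have hR0 : 0 < R := by linarith
  have hs1 : 0 < s1 := lt_of_lt_of_le (Real.rpow_pos_of_pos hr0 _) hSd.lo
  have hs2 : 0 < s2 := hs1.trans_le hSd.le
  have hsc := scost_nn (κ := κ) hs1 hs2 hr0
  have hgd := hg.gd ha
  have hE := Enc_nonneg g
  have hB1 : 1 ≤ R / r := (one_le_div hr0).2 hrR
  -- one system
  have hval : ∀ (I : Finset ℕ) (P : ℕ → Plate), Plates M κ A r s1 s2 R I P →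
      val κ g r s1 s2 I P ≤ ENNReal.ofReal (Real.sqrt (C * (R / r) ^ 25 * D * s2 ^ q) *
        (r * (256 * (R / r) ^ 4 * Enc g))) := by
    intro I P hPl
    have hterm : ∀ i ∈ I, ENNReal.ofReal ((r * scost κ s1 s2 r) ^ (-(1/2) : ℝ)) *
        (ENNReal.ofReal r * enc (r ^ (-(1/2) : ℝ)) (trc (P i).z g) (P i).S) ^ (3 / 2 : ℝ) ≤
        ENNReal.ofReal (Real.sqrt (C * (R / r) ^ 25 * D * s2 ^ q) * r) *
          enc (r ^ (-(1/2) : ℝ)) (trc (P i).z g) (P i).S := by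
      intro i hi
      have h1 := hpl κ η0 g R D r s1 s2 (P i).z (P i).c (P i).X0 (P i).f (P i).S hκ hκa hr hrR hg
        hD hP hSd (hPl.mem i hi) (hPl.adm i hi) (hPl.meas i hi) (hPl.box i hi)
      set T : ℝ := C * (R / r) ^ 25 * D * s2 ^ q with hT
      have hT0 : 0 ≤ T := by rw [hT]; positivity
      set e : ℝ≥0∞ := enc (r ^ (-(1/2) : ℝ)) (trc (P i).z g) (P i).S with he
      have h2 : (ENNReal.ofReal r * e) ^ (1 / 2 : ℝ) ≤
          ENNReal.ofReal ((r * (T * scost κ s1 s2 r)) ^ (1 / 2 : ℝ)) := by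
        rw [← ENNReal.ofReal_rpow_of_nonneg (by positivity) (by norm_num)]
        refine ENNReal.rpow_le_rpow ?_ (by norm_num)
        rw [ENNReal.ofReal_mul hr0.le]
        exact mul_le_mul' le_rfl h1
      rw [pow_three_half']
      calc ENNReal.ofReal ((r * scost κ s1 s2 r) ^ (-(1/2) : ℝ)) *
            ((ENNReal.ofReal r * e) ^ (1 / 2 : ℝ) * (ENNReal.ofReal r * e)) ≤
          ENNReal.ofReal ((r * scost κ s1 s2 r) ^ (-(1/2) : ℝ)) *
            (ENNReal.ofReal ((r * (T * scost κ s1 s2 r)) ^ (1 / 2 : ℝ)) *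
              (ENNReal.ofReal r * e)) := by gcongr
        _ = ENNReal.ofReal (Real.sqrt T * r) * e := by
            rw [← mul_assoc, ← mul_assoc, ← ENNReal.ofReal_mul (by positivity),
              ← ENNReal.ofReal_mul (by positivity)]
            congr 2
            have e1 : (r * (T * scost κ s1 s2 r)) ^ (1 / 2 : ℝ) =
                Real.sqrt T * (r * scost κ s1 s2 r) ^ (1 / 2 : ℝ) := by
              rw [show r * (T * scost κ s1 s2 r) = T * (r * scost κ s1 s2 r) by ring,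
                Real.mul_rpow hT0 (by positivity), Real.sqrt_eq_rpow]
            have e2 : (r * scost κ s1 s2 r) ^ (-(1/2) : ℝ) * (r * scost κ s1 s2 r) ^ (1 / 2 : ℝ) =
                1 := by
              rw [← Real.rpow_add (by positivity)]; norm_num
            rw [e1]
            calc (r * scost κ s1 s2 r) ^ (-(1/2) : ℝ) *
                  (Real.sqrt T * (r * scost κ s1 s2 r) ^ (1 / 2 : ℝ)) * r =
                (r * scost κ s1 s2 r) ^ (-(1/2) : ℝ) * (r * scost κ s1 s2 r) ^ (1 / 2 : ℝ) *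
                  (Real.sqrt T * r) := by ring
              _ = _ := by rw [e2, one_mul]
    unfold val
    refine (Finset.sum_le_sum hterm).trans ?_
    rw [← Finset.mul_sum]
    refine (mul_le_mul' le_rfl (sum_enc_le hgd hr hrR hPl)).trans (le_of_eq ?_)
    rw [← ENNReal.ofReal_mul (by positivity)]
    congr 1
    ring
  have hSIG : SIG M κ A r s1 s2 g R ≤
      ENNReal.ofReal (Real.sqrt (C * (R / r) ^ 25 * D * s2 ^ q) *
        (r * (256 * (R / r) ^ 4 * Enc g))) := by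
    unfold SIG
    exact iSup_le fun I => iSup_le fun P => iSup_le fun h => hval I P h
  refine (mul_le_mul' le_rfl hSIG).trans ?_
  rw [← ENNReal.ofReal_mul (by positivity)]
  refine ENNReal.ofReal_le_ofReal ?_
  -- arithmetic
  have e1 : Real.sqrt (C * (R / r) ^ 25 * D * s2 ^ q) =
      Real.sqrt C * Real.sqrt ((R / r) ^ 25) * Real.sqrt D * s2 ^ (q / 2) := by
    have h0 : 0 ≤ C * (R / r) ^ 25 * D := by positivity
    rw [Real.sqrt_mul h0, Real.sqrt_mul (by positivity), Real.sqrt_mul hC]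
    congr 1
    rw [Real.sqrt_eq_rpow, ← Real.rpow_mul hs2.le]
    congr 1
    ring
  have e2 : s2 ^ (-q / 2) * s2 ^ (q / 2) = 1 := by
    rw [← Real.rpow_add hs2]
    have : -q / 2 + q / 2 = 0 := by ring
    rw [this, Real.rpow_zero]
  have h3 : Real.sqrt ((R / r) ^ 25) ≤ (R / r) ^ 13 := by
    rw [Real.sqrt_le_left (by positivity), ← pow_mul]
    exact pow_le_pow_right₀ hB1 (by norm_num)
  have h4 : r * (R / r) ^ 4 = R * (R / r) ^ 3 := by field_simp
  unfold SS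
  rw [e1]
  calc s2 ^ (-q / 2) * (Real.sqrt C * Real.sqrt ((R / r) ^ 25) * Real.sqrt D * s2 ^ (q / 2) *
        (r * (256 * (R / r) ^ 4 * Enc g))) =
      (s2 ^ (-q / 2) * s2 ^ (q / 2)) * (256 * Real.sqrt C * Real.sqrt ((R / r) ^ 25) *
        Real.sqrt D * Enc g * (r * (R / r) ^ 4)) := by ring
    _ = 256 * Real.sqrt C * Real.sqrt ((R / r) ^ 25) * Real.sqrt D * Enc g *
        (R * (R / r) ^ 3) := by rw [e2, h4, one_mul]
    _ ≤ 256 * Real.sqrt C * (R / r) ^ 13 * Real.sqrt D * Enc g * (R * (R / r) ^ 3) := by gcongr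
    _ = 256 * Real.sqrt C * (R / r) ^ 16 * (R * Enc g * Real.sqrt D) := by ring

/-- **TRIV2s** (858). -/
theorem triv2s_holds {M q : ℝ} (hM : 1 ≤ M) (hq : 0 ≤ q) : Sup858.TRIV2s M q := by
  refine ⟨16, by norm_num, ?_⟩
  intro a b A ε M0 ha _ hb2 hA hε
  obtain ⟨C, hC, h⟩ := val_core hM hq ha hA
  refine ⟨C, hC, ?_⟩
  intro κ η0 C0 σ g R D hκ hκa _ hSt hSlc r s1 s2 hrl hrR hSd
  have hR1 := hSt.R1
  have hr : 1 ≤ r := (Real.one_le_rpow hR1 (by norm_num)).trans hrl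
  have hfs : Fs a η0 κ g := ⟨hSt.meas, hSt.bdd, fun ζ hζ => ⟨(hSt.supp ζ hζ).1, (hSt.supp ζ hζ).2.1,
    (hSt.supp ζ hζ).2.2.1.trans hb2.le⟩, hSlc⟩
  refine (h κ η0 g R D r s1 s2 hκ hκa hr hrR hfs hSt.D0 hSt.box hSd).trans ?_
  refine ENNReal.ofReal_le_ofReal ?_
  have hE := Enc_nonneg g
  have hSS : 0 ≤ SS g R D := by unfold SS; positivity
  have h1 : 1 ≤ R ^ ε := Real.one_le_rpow hR1 hε.le
  have h2 : (R / r) ^ 16 = (R / r) ^ (16 : ℝ) := by
    rw [show (16 : ℝ) = ((16 : ℕ) : ℝ) by norm_num, Real.rpow_natCast]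
  have h3 : 0 ≤ C * (R / r) ^ (16 : ℝ) * SS g R D := by
    have : 0 ≤ R / r := div_nonneg (by linarith) (by linarith)
    positivity
  rw [h2]
  calc C * (R / r) ^ (16 : ℝ) * SS g R D = 1 * (C * (R / r) ^ (16 : ℝ) * SS g R D) := (one_mul _).symm
    _ ≤ R ^ ε * (C * (R / r) ^ (16 : ℝ) * SS g R D) := mul_le_mul_of_nonneg_right h1 h3
    _ = _ := by ring

/-- **TRIV2** (the leaf of `WDefC_188` v3). -/
theorem triv2_holds {M q : ℝ} (hM : 1 ≤ M) (hq : 0 ≤ q) : TRIV2 M q := by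
  refine ⟨16, by norm_num, ?_⟩
  intro a b A ε M0 ha _ hb2 hA hε
  obtain ⟨C, hC, h⟩ := val_core hM hq ha hA
  refine ⟨C, hC, ?_⟩
  intro κ η0 C0 σ g R D hκ hκa _ hSt r s1 s2 hrl hrR hSd
  have hR1 := hSt.R1
  have hr : 1 ≤ r := (Real.one_le_rpow hR1 (by norm_num)).trans hrl
  have hfs : Fs a η0 κ g := ⟨hSt.meas, hSt.bdd, fun ζ hζ => ⟨(hSt.supp ζ hζ).1, (hSt.supp ζ hζ).2.1,
    (hSt.supp ζ hζ).2.2.1.trans hb2.le⟩, fun ζ hζ => (hSt.slc ζ hζ).trans (by linarith)⟩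
  refine (h κ η0 g R D r s1 s2 hκ hκa hr hrR hfs hSt.D0 hSt.box hSd).trans ?_
  refine ENNReal.ofReal_le_ofReal ?_
  have hE := Enc_nonneg g
  have hSS : 0 ≤ SS g R D := by unfold SS; positivity
  have h1 : 1 ≤ R ^ ε := Real.one_le_rpow hR1 hε.le
  have h2 : (R / r) ^ 16 = (R / r) ^ (16 : ℝ) := by
    rw [show (16 : ℝ) = ((16 : ℕ) : ℝ) by norm_num, Real.rpow_natCast]
  have h3 : 0 ≤ C * (R / r) ^ (16 : ℝ) * SS g R D := by
    have : 0 ≤ R / r := div_nonneg (by linarith) (by linarith)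
    positivity
  rw [h2]
  calc C * (R / r) ^ (16 : ℝ) * SS g R D = 1 * (C * (R / r) ^ (16 : ℝ) * SS g R D) := (one_mul _).symm
    _ ≤ R ^ ε * (C * (R / r) ^ (16 : ℝ) * SS g R D) := mul_le_mul_of_nonneg_right h1 h3
    _ = _ := by ring

end Crest.Agent.R116.Ba449
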