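import Crest.Agent.R116.AlS1_299
import Crest.Agent.R116.Ba6_449

/-!
# R116 (S0155), wave side, AL-CONE (helper299): `SumC`, part 2

The tail: total energy of the child plates.
-/

set_option autoImplicit false

open MeasureTheory FourierTransform
open scoped ENNReal

namespace Crest.Agent.R116.AlS299

open Crest.Agent.R138.Defs (E2 ee)
open Crest.Agent.R138.Wpk685 (cen caps)
open Crest.Agent.R116.CDef480
open Crest.Agent.R116.LZg725 (Cf)
open Crest.Agent.R116.WC188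
open Crest.Agent.R116.PC299

section

variable {M q a b A d0 G c0 κ η0 : ℝ} {g : E3 → ℂ} {r1 dl Y Gm s1' s2' s1 s2 D : ℝ}
  {I1 : Finset ℕ} {P1 : ℕ → Plate} {I : Finset ℕ} {P : ℕ → Plate}

/-- `θ ≤ d0^(1/2)`. -/
theorem an_le_d0 (h : Ctx M q a b A d0 G c0 κ η0 g r1 dl Y Gm s1' s2' s1 s2 D I1 P1 I P)
    (h01 : d0 ≤ 1) (hG : 1 ≤ G) : an r1 ≤ d0 ^ (1/2 : ℝ) := by
  have hdl := h.dlpos
  have h1 : dl⁻¹ ≤ r1 := by
    refine le_trans ?_ h.r1ge
    rw [← Real.rpow_neg_one]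
    exact Real.rpow_le_rpow_of_exponent_ge hdl (h.dl1 h01) (by linarith)
  have h2 : an r1 ≤ dl ^ (1/2 : ℝ) := by
    calc an r1 ≤ (dl⁻¹) ^ (-(1/2) : ℝ) :=
          Real.rpow_le_rpow_of_nonpos (inv_pos.2 hdl) h1 (by norm_num)
      _ = _ := by rw [Real.inv_rpow hdl.le, Real.rpow_neg hdl.le, inv_inv]
  exact h2.trans (Real.rpow_le_rpow hdl.le h.dlle (by norm_num))

/-- the parent wave is a good function (both packages). -/
theorem gd1 (h : Ctx M q a b A d0 G c0 κ η0 g r1 dl Y Gm s1' s2' s1 s2 D I1 P1 I P)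
    (ha : 1 ≤ a) (h01 : d0 ≤ 1) (hG : 1 ≤ G) (hd : 3 * d0 ^ (1/2 : ℝ) ≤ 2 - b) :
    Bas367.Gd (selc η0 κ (an r1) g (uS I1 P1)) ∧
      Ba449.Gd (6 * a) (selc η0 κ (an r1) g (uS I1 P1)) := by
  have ha0 : 0 < a := by linarith
  have hk := h.kpos
  have hka := h.ka
  have hθ := an_pos h.r10
  have hg : Bas367.Gd g := StepC367.par_gd ha0 h.par
  have hk3 : 3 * κ ≤ a⁻¹ := by
    rw [← one_div, le_div_iff₀ ha0]
    nlinarith [mul_pos ha0 hk]
  have hgd : Bas367.Gd (selc η0 κ (an r1) g (uS I1 P1)) :=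
    Bas367.selc_gd' hk hk3 hθ hg.int h.par.slc (fun ζ hζ => (h.par.gs ζ hζ).1)
      (StepC367.par_Bsc h.par)
  have hsup : ∀ ζ, selc η0 κ (an r1) g (uS I1 P1) ζ ≠ 0 →
      (2 * a)⁻¹ ≤ ζ 2 ∧ ζ 2 ≤ 2 * a ∧ ‖slp ζ‖ ≤ 2 := by
    intro ζ hζ
    obtain ⟨e1, e2, e3, -⟩ := Bas367.selc_supp (b := b) (σ := b) (C0 := 0) ha hk
      (by nlinarith [mul_pos ha0 hk]) hθ h.par.slc (fun ζ hζ => by
        obtain ⟨f1, f2, f3⟩ := h.par.gs ζ hζ
        exact ⟨f1, f2, f3, by rwa [sub_zero]⟩) hζ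
    refine ⟨e1, e2, e3.trans ?_⟩
    have := an_le_d0 h h01 hG
    linarith
  refine ⟨hgd, hgd.meas, hgd.bdd, fun ζ hζ => ?_, fun ζ hζ => (hsup ζ hζ).2.2⟩
  obtain ⟨e1, e2, e3⟩ := hsup ζ hζ
  have hζ2 : 0 < ζ 2 := lt_of_lt_of_le (by positivity) e1
  have h4 : ‖lat ζ‖ ≤ 2 * a * 2 := by
    rw [lat_slp hζ2.ne', norm_smul, Real.norm_eq_abs, abs_of_pos hζ2]
    exact mul_le_mul e2 e3 (norm_nonneg _) (by positivity)
  have h5 := Bas367.norm_le_of h4 (show |ζ 2| ≤ 2 * a by rw [abs_of_pos hζ2]; exact e2)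
  linarith

/-- **tail**: total energy of the child plates. -/
theorem tail {a b : ℝ} (ha : 1 ≤ a) : ∃ C : ℝ, 0 ≤ C ∧
    ∀ {M q A d0 G c0 κ η0 : ℝ} {g : E3 → ℂ} {r1 dl Y Gm s1' s2' s1 s2 D : ℝ}
      {I1 : Finset ℕ} {P1 : ℕ → Plate} {I : Finset ℕ} {P : ℕ → Plate},
      Ctx M q a b A d0 G c0 κ η0 g r1 dl Y Gm s1' s2' s1 s2 D I1 P1 I P → b ≤ 2 → d0 ≤ 1 →
      1 ≤ G → 3 * d0 ^ (1/2 : ℝ) ≤ 2 - b →
      ∑ i ∈ I, enc (an (dl * r1)) (trc (P i).z (selc η0 κ (an r1) g (uS I1 P1))) (P i).S ≤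
        ENNReal.ofReal (C * (dl⁻¹) ^ 4) * ENNReal.ofReal (Enc g) := by
  obtain ⟨Ce, hCe, hen⟩ := Crest.Agent.R116.CWd480.Enc_selc_le (a := 2 * a) (by linarith)
  refine ⟨256 * Ce, by positivity, ?_⟩
  intro M q A d0 G c0 κ η0 g r1 dl Y Gm s1' s2' s1 s2 D I1 P1 I P h hb h01 hG hd
  have ha0 : 0 < a := by linarith
  have hk := h.kpos
  have hka := h.ka
  have hθ := an_pos h.r10
  have hdl := h.dlpos
  have hr := h.r10
  obtain ⟨hgd, hgd2⟩ := gd1 h ha h01 hG hd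
  have hg : Bas367.Gd g := StepC367.par_gd ha0 h.par
  have hrj : dl * r1 ≤ r1 := mul_le_of_le_one_left hr.le (h.dl1 h01)
  have h1 := Ba449.sum_enc_le hgd2 (h.rj1 ha) hrj h.pl
  have e1 : r1 / (dl * r1) = dl⁻¹ := by field_simp
  rw [e1] at h1
  -- energy of the parent wave
  have h2 : ENNReal.ofReal (Enc (selc η0 κ (an r1) g (uS I1 P1))) ≤
      ENNReal.ofReal Ce * ENNReal.ofReal (Enc g) := by
    by_cases h0 : ∃ ζ, g ζ ≠ 0
    · obtain ⟨hη, hη2⟩ := UpC448.eta0_range ha hka (fun ζ hζ =>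
        ⟨(h.par.gs ζ hζ).1, (h.par.gs ζ hζ).2.1⟩) h.par.slc h0
      have h3 := hen (an r1) κ η0 hθ hk (by
          refine le_trans ?_ hη
          rw [← one_div, div_le_div_iff₀ (by positivity) (by positivity)]
          linarith) hη2 (by
          rw [← one_div, le_div_iff₀ (by positivity)]
          linarith) g (uS I1 P1) hg.int
          (fun m _ => StepC367.par_uS_meas h.par m) (StepC367.par_Bsc h.par).bdd
      refine h3.trans (mul_le_mul' le_rfl ?_)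
      have hgg : Ba449.Gd (6 * a) g := by
        refine ⟨hg.meas, hg.bdd, fun ζ hζ => ?_, fun ζ hζ => (h.par.gs ζ hζ).2.2.trans hb⟩
        obtain ⟨f1, f2, f3⟩ := h.par.gs ζ hζ
        have hζ2 : 0 < ζ 2 := lt_of_lt_of_le (inv_pos.2 ha0) f1
        have h4 : ‖lat ζ‖ ≤ a * 2 := by
          rw [lat_slp hζ2.ne', norm_smul, Real.norm_eq_abs, abs_of_pos hζ2]
          exact mul_le_mul f2 (f3.trans hb) (norm_nonneg _) (by positivity)
        have h5 := Bas367.norm_le_of h4 (show |ζ 2| ≤ a by rw [abs_of_pos hζ2]; exact f2)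
        linarith
      exact Ba449.enc_le hgg hθ _
    · push Not at h0
      have e : selc η0 κ (an r1) g (uS I1 P1) = fun _ => 0 := by
        funext ζ
        by_contra hζ
        obtain ⟨-, ξ, hξ, -⟩ := Bas367.selc_near hk hθ hζ
        exact hξ (h0 ξ)
      rw [e]
      have : Enc (fun _ : E3 => (0 : ℂ)) = 0 := by unfold Enc; simp
      rw [this, ENNReal.ofReal_zero]
      exact zero_le
  refine h1.trans ?_
  have hd4 : (0:ℝ) ≤ 256 * dl⁻¹ ^ 4 := by positivity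
  rw [ENNReal.ofReal_mul hd4]
  calc ENNReal.ofReal (256 * dl⁻¹ ^ 4) * ENNReal.ofReal (Enc (selc η0 κ (an r1) g (uS I1 P1)))
      ≤ ENNReal.ofReal (256 * dl⁻¹ ^ 4) * (ENNReal.ofReal Ce * ENNReal.ofReal (Enc g)) := by
        gcongr
    _ = _ := by
        rw [← mul_assoc, ← ENNReal.ofReal_mul hd4]
        congr 2
        ring

end

end Crest.Agent.R116.AlS299
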