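import Crest.Agent.R116.AlS2_299


/-!
# R116 (S0155), wave side, AL-CONE (helper299): `SumC`, part 3 (assembly)

`sumC : 1 ≤ M → 0 ≤ q → q ≤ 4 → KmC M q → SumC M q`.
-/

set_option autoImplicit false

open MeasureTheory FourierTransform
open scoped ENNReal

namespace Crest.Agent.R116.AlS299

open Crest.Agent.R138.Defs (E2 ee)
open Crest.Agent.R138.Wpk685 (cen caps)
open Crest.Agent.R116.CDef480
open Crest.Agent.R116.LZg725 (Cf)
open Crest.Agent.R116.Cad538 (frc wt Acc Den_meas2 W0 W0_lt wt_cont)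
open Crest.Agent.R116.WC188
open Crest.Agent.R116.PC299
open Crest.Agent.R116.SmC339 (seK enK frames_mult cy)
open Crest.Agent.R116.AlC339 (KmC SumC HH seC Fam labc Num rgn rgn_vol rgn_norm)

/-! ### translation to the kernels of `frames_mult` -/

/-- the kernel. -/
noncomputable def kk (N : ℕ) (θ θ' κ : ℝ) (m : {m // m ∈ caps θ'}) (u : E3) : ℝ≥0∞ :=
  ENNReal.ofReal (wt (frc θ κ (cen θ' m.1)) N u)

/-- the velocities. -/
noncomputable def vv (θ' : ℝ) (m : {m // m ∈ caps θ'}) : E3 := vel (cen θ' m.1)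

/-- the energies. -/
noncomputable def uu (θ' : ℝ) (g1 : E3 → ℂ) (ζ : E3 × ℝ) (m : {m // m ∈ caps θ'}) (y : E3) :
    ℝ≥0∞ := ‖umc θ' (trc ζ g1) m.1 y‖ₑ ^ 2

theorem seK_eq (N : ℕ) (θ θ' κ : ℝ) (g1 : E3 → ℂ) (P : Plate) (x : E3) (t : ℝ) :
    seK (kk N θ θ' κ) (vv θ') (uu θ' g1 P.z) (fun m => P.S m.1) x t =
      seC N θ θ' κ g1 P x t := by
  unfold seK seC kk vv uu
  exact Finset.sum_coe_sort (caps θ') fun m => ∫⁻ y in P.S m,
    ENNReal.ofReal (wt (frc θ κ (cen θ' m)) N (y - (x + t • vel (cen θ' m)))) *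
      ‖umc θ' (trc P.z g1) m y‖ₑ ^ 2

theorem enK_eq (θ' : ℝ) (g1 : E3 → ℂ) (P : Plate) :
    enK (uu θ' g1 P.z) (fun m => P.S m.1) = enc θ' (trc P.z g1) P.S := by
  unfold enK uu enc
  exact Finset.sum_coe_sort (caps θ') fun m => ∫⁻ y in P.S m, ‖umc θ' (trc P.z g1) m y‖ₑ ^ 2

/-- one term of `val`. -/
theorem term_eq {r W : ℝ} (hr : 0 < r) (hW : 0 < W) (x : ℝ≥0∞) :
    ENNReal.ofReal ((r * W) ^ (-(1/2) : ℝ)) * (ENNReal.ofReal r * x) ^ (3 / 2 : ℝ) =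
      ENNReal.ofReal (r * W ^ (-(1/2) : ℝ)) * x ^ (3 / 2 : ℝ) := by
  rw [ENNReal.mul_rpow_of_nonneg _ _ (by norm_num), ENNReal.ofReal_rpow_of_pos hr, ← mul_assoc,
    ← ENNReal.ofReal_mul (by positivity)]
  congr 2
  rw [Real.mul_rpow hr.le hW.le]
  have e : r ^ (-(1/2) : ℝ) * r ^ (3 / 2 : ℝ) = r := by
    rw [← Real.rpow_add hr]; norm_num
  calc r ^ (-(1/2) : ℝ) * W ^ (-(1/2) : ℝ) * r ^ (3 / 2 : ℝ) =
        (r ^ (-(1/2) : ℝ) * r ^ (3 / 2 : ℝ)) * W ^ (-(1/2) : ℝ) := by ring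
    _ = _ := by rw [e]

section

variable {M q a b A d0 G c0 κ η0 : ℝ} {g : E3 → ℂ} {r1 dl Y Gm s1' s2' s1 s2 D : ℝ}
  {I1 : Finset ℕ} {P1 : ℕ → Plate} {I : Finset ℕ} {P : ℕ → Plate}

theorem fam_sub (A θ s : ℝ) (k : ℤ × ℤ) : Fam A θ s k ⊆ caps θ := by
  classical
  unfold Fam
  exact Finset.filter_subset _ _

theorem fam_near {A θ s : ℝ} {k m : ℤ × ℤ} (h : m ∈ Fam A θ s k) :
    ‖cen θ m - cen s k‖ ≤ (A + 2) * s := by
  classical
  unfold Fam at h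
  exact (Finset.mem_filter.1 h).2

theorem sep_dist (h : Ctx M q a b A d0 G c0 κ η0 g r1 dl Y Gm s1' s2' s1 s2 D I1 P1 I P)
    {i j : ℕ} (hi : i ∈ I) (hj : j ∈ I) (hij : (P i).z ≠ (P j).z) :
    dl * r1 ≤ dist (P i).z (P j).z := by
  rw [Prod.dist_eq]
  rcases h.pl.sep i hi j hj with h1 | h1 | h1
  · exact absurd h1 hij
  · exact le_max_of_le_left (by rw [dist_eq_norm]; exact h1)
  · exact le_max_of_le_right (by rw [Real.dist_eq]; exact h1)

/-- constant of the volume of the regions. -/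
noncomputable def L0 (M A : ℝ) : ℝ := 5376 * (4 * A + 2 * M) * A ^ 3

theorem L0_pos (hM : 1 ≤ M) (hA : 1 ≤ A) : 0 < L0 M A := by
  unfold L0; positivity

/-- **frames_mult** for the child plates. -/
theorem frames (h : Ctx M q a b A d0 G c0 κ η0 g r1 dl Y Gm s1' s2' s1 s2 D I1 P1 I P)
    (hM : 1 ≤ M) (hA : 1 ≤ A) (ha : 1 ≤ a) (h01 : d0 ≤ 1) (hG : 2 ≤ G)
    (hd : 64 * M * A * d0 ^ (1/2 : ℝ) ≤ 1) (hd2 : 3 * d0 ^ (1/2 : ℝ) ≤ 2 - b)
    {N n : ℕ} (hN : 4 ≤ N) {Mu τ Ch : ℝ} (hMu : 0 ≤ Mu) (hτ : 0 ≤ τ) (hCh : 0 ≤ Ch)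
    (hH : HH N n A κ η0 g r1 dl s2 I1 P1 I P Mu τ)
    (hsum : ∀ (k : ℤ × ℤ) (ζ : E3 × ℝ) (x : E3) (t : ℝ), |t| ≤ dl * r1 →
      ∑ i ∈ I with labc s2 (P i).c = k ∧ (P i).z = ζ,
        seC N (an r1) (an (dl * r1)) κ (selc η0 κ (an r1) g (uS I1 P1)) (P i) x t ≤
        ENNReal.ofReal (Ch * (an r1 ^ 2 * κ)⁻¹) * Acc n (an r1) κ (an r1) g (uS I1 P1)
          (Fam A (an r1) s2 k) (ζ.1 + x) (ζ.2 + t)) :
    val κ (selc η0 κ (an r1) g (uS I1 P1)) (dl * r1) s1 s2 I P ≤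
      ENNReal.ofReal ((((2:ℝ) ^ N)⁻¹) ^ (-(3/2) : ℝ) * (Ch / V1) *
          (2 * (17 * A ^ 2) + 2) ^ (Module.finrank ℝ (E3 × ℝ)) *
          (V1⁻¹ * L0 M A * Mu) ^ (1 / 2 : ℝ)) *
        (∑ k ∈ I.image (fun i => labc s2 (P i).c), ∫⁻ p in (cylc (34 * A ^ 2 * r1) : Set (E3 × ℝ)),
          Acc n (an r1) κ (an r1) g (uS I1 P1) (Fam A (an r1) s2 k) p.1 p.2 ^ (3 / 2 : ℝ)) +
      ENNReal.ofReal (2 * (((2:ℝ) ^ N)⁻¹) ^ (-(3/2) : ℝ) * (W0.toReal / V1) *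
          (L0 M A * (an (dl * r1) / an r1) * (V1⁻¹ * τ)) ^ (1 / 2 : ℝ)) *
        (ENNReal.ofReal (dl * r1) * ∑ i ∈ I, enc (an (dl * r1))
          (trc (P i).z (selc η0 κ (an r1) g (uS I1 P1))) (P i).S) := by
  classical
  have hdl := h.dlpos
  have hr1 := h.r10
  have hr := h.rj0
  have hk := h.kpos
  have hθ := an_pos hr1
  have hθ' := an_pos hr
  have hs2 := Sd.s20 h.sd hr
  have hs1 := Sd.s10 h.sd hr
  have hV := V1_pos
  have hL := L0_pos hM hA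
  set g1 := selc η0 κ (an r1) g (uS I1 P1) with hg1
  obtain ⟨hgd, -⟩ := gd1 h ha h01 (by linarith) hd2
  rw [← hg1] at hgd
  have hgi : ∀ ζ, Integrable (trc ζ g1) := fun ζ => Bas367.trc_int hgd.int ζ
  have hW : 0 < scost κ s1 s2 (dl * r1) := by
    unfold scost
    have : 0 < TT κ s2 (dl * r1) := lt_of_lt_of_le (by positivity) (le_max_left _ _)
    positivity
  have hvq : 0 < V1 * (an r1 ^ 2 * κ)⁻¹ := by positivity
  have hratio : 0 < an (dl * r1) / an r1 := by positivity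
  set lab : {i // i ∈ I} → {k // k ∈ I.image fun i => labc s2 (P i).c} := fun i =>
    ⟨labc s2 (P i.1).c, Finset.mem_image_of_mem _ i.2⟩ with hlab
  have hgm : Integrable g := (StepC367.par_gd (by linarith) h.par).int
  have hAm : ∀ k : ℤ × ℤ, Measurable fun p : E3 × ℝ =>
      Acc n (an r1) κ (an r1) g (uS I1 P1) (Fam A (an r1) s2 k) p.1 p.2 := fun k =>
    Den_meas2 fun m _ => Bas367.umc_meas_sq hgm _ m
  have main := frames_mult (E := E3) (M := {m // m ∈ caps (an (dl * r1))}) (I := {i // i ∈ I})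
    (K := {k // k ∈ I.image fun i => labc s2 (P i).c})
    (k := kk N (an r1) (an (dl * r1)) κ) (v := vv (an (dl * r1)))
    (U := uu (an (dl * r1)) g1) (z := fun i => (P i.1).z) (S := fun i m => (P i.1).S m.1)
    (lab := lab) (fun i m => h.pl.meas i.1 i.2 m.1)
    (fun m => ENNReal.measurable_ofReal.comp (wt_cont _ N).measurable)
    (fun ζ m => Bas367.umc_meas_sq (hgi ζ) _ m.1)
    (q := fun m => cell (an r1) κ (cen (an (dl * r1)) m.1)) (fun m => cell_meas _ _ _)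
    (c0 := ((2:ℝ) ^ N)⁻¹) (Vq := V1 * (an r1 ^ 2 * κ)⁻¹) (W := scost κ s1 s2 (dl * r1))
    (Lam := L0 M A * (an (dl * r1) / an r1)) (Mu := V1⁻¹ * L0 M A * Mu) (τ := V1⁻¹ * τ)
    (CQ := W0.toReal / V1) (CG := Ch / V1) (by positivity) hvq hW (by positivity) (by positivity)
    (by positivity) (by positivity) (by positivity)
    (fun m u hu => ENNReal.ofReal_le_ofReal (ker_ge hu))
    (fun m => (cell_vol hθ hk _).ge)
    (fun m => ker_mass hθ hk _ hN)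
    (r := dl * r1) (K0 := 17 * A ^ 2) (R := 17 * A ^ 2 * r1) hr (by positivity)
    (by
      have : dl * r1 ≤ r1 := mul_le_of_le_one_left hr1.le (h.dl1 h01)
      gcongr)
    (fun i => by
      have h1 := h.pl.mem i.1 i.2
      have h2 : r1 ≤ 17 * A ^ 2 * r1 := by
        have : 1 ≤ 17 * A ^ 2 := by nlinarith
        exact le_mul_of_one_le_left hr1.le this
      exact ⟨h1.1.trans h2, h1.2.trans h2⟩)
    (fun i j hij => sep_dist h i.2 j.2 hij)
    (fun i t => rgn M A (an r1) s2 (TT κ s2 (dl * r1)) (dl * r1) (P i.1).c (P i.1).X0 (P i.1).f t)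
    (fun i t _ => (Crest.Agent.R116.AlV339.regC_closed _ _ _ _ _ _ _ _ _).measurableSet)
    (fun i t ht m y hy u hu => cell_rgn h hM hA h01 hG hd i.2 ht hy hu)
    (fun i t _ => by
      have h1 := rgn_vol (M := M) (A := A) (θ := an r1) (θ' := an (dl * r1)) (s1 := s1) (s2 := s2)
        (T := TT κ s2 (dl * r1)) (r := dl * r1) hA hM hθ hs2 hr (le_max_left _ _) h.sd.lo hθ'
        (thr h).ge (P i.1).c (P i.1).X0 (P i.1).f t
      refine h1.trans (ENNReal.ofReal_le_ofReal (le_of_eq ?_))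
      unfold L0 scost
      ring)
    (fun i t ht x hx => rgn_norm hA hr h.sd.hi (TT_le_one h ha) (h.pl.X0 i.1 i.2) (h.pl.c i.1 i.2)
      ht hx)
    (by nlinarith)
    (fun k p => Acc n (an r1) κ (an r1) g (uS I1 P1) (Fam A (an r1) s2 k.1) p.1 p.2)
    (fun k => hAm k.1)
    (fun i t ht x _ => by
      rw [seK_eq]
      refine (hH i.1 i.2 x t ht).trans (le_of_eq ?_)
      have e1 : V1⁻¹ * L0 M A * Mu / (L0 M A * (an (dl * r1) / an r1)) =
          V1⁻¹ * (Mu * (an r1 / an (dl * r1))) := by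
        field_simp
      have e2 : ((x, t) + (P i.1).z : E3 × ℝ).1 = (P i.1).z.1 + x := by
        rw [Prod.fst_add, add_comm]
      have e3 : ((x, t) + (P i.1).z : E3 × ℝ).2 = (P i.1).z.2 + t := by
        rw [Prod.snd_add, add_comm]
      rw [e1, e2, e3, ENNReal.ofReal_mul (p := V1) hV.le,
        ENNReal.ofReal_mul (p := V1⁻¹) (by positivity), ENNReal.ofReal_mul (p := V1⁻¹)
          (by positivity), mul_assoc (ENNReal.ofReal V1⁻¹), ← mul_add (ENNReal.ofReal V1⁻¹)]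
      have e4 : ENNReal.ofReal V1 * ENNReal.ofReal V1⁻¹ = 1 := by
        rw [← ENNReal.ofReal_mul hV.le, mul_inv_cancel₀ hV.ne', ENNReal.ofReal_one]
      calc _ = (ENNReal.ofReal V1 * ENNReal.ofReal V1⁻¹) * (ENNReal.ofReal ((an r1 ^ 2 * κ)⁻¹) *
            (ENNReal.ofReal (Mu * (an r1 / an (dl * r1))) *
          Acc n (an r1) κ (an r1) g (uS I1 P1) (Fam A (an r1) s2 (labc s2 (P i.1).c))
            ((P i.1).z.1 + x) ((P i.1).z.2 + t) + ENNReal.ofReal τ)) := by rw [e4, one_mul]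
        _ = _ := by ring)
    (fun k ζ x t ht => by
      have e1 : Ch / V1 * (V1 * (an r1 ^ 2 * κ)⁻¹) = Ch * (an r1 ^ 2 * κ)⁻¹ := by
        field_simp
      have e2 : ((x, t) + ζ : E3 × ℝ).1 = ζ.1 + x := by rw [Prod.fst_add, add_comm]
      have e3 : ((x, t) + ζ : E3 × ℝ).2 = ζ.2 + t := by rw [Prod.snd_add, add_comm]
      rw [e1, e2, e3]
      refine le_trans (le_of_eq ?_) (hsum k.1 ζ x t ht)
      rw [Finset.sum_filter, Finset.sum_filter, ← Finset.sum_coe_sort I]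
      refine Finset.sum_congr rfl fun i _ => ?_
      have e4 : (lab i = k ∧ (P i.1).z = ζ) ↔ (labc s2 (P i.1).c = k.1 ∧ (P i.1).z = ζ) := by
        rw [hlab, Subtype.ext_iff]
      by_cases hc : labc s2 (P i.1).c = k.1 ∧ (P i.1).z = ζ
      · rw [if_pos (e4.2 hc), if_pos hc, ← seK_eq, hc.2]
      · rw [if_neg fun hh => hc (e4.1 hh), if_neg hc])
  -- translation
  have t1 : val κ g1 (dl * r1) s1 s2 I P = ∑ i : {i // i ∈ I},
      ENNReal.ofReal (dl * r1 * scost κ s1 s2 (dl * r1) ^ (-(1/2) : ℝ)) *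
        enK (uu (an (dl * r1)) g1 (P i.1).z) (fun m => (P i.1).S m.1) ^ (3 / 2 : ℝ) := by
    unfold val
    rw [← Finset.sum_coe_sort I]
    refine Finset.sum_congr rfl fun i _ => ?_
    rw [enK_eq, term_eq hr hW]
  have t2 : ∑ i : {i // i ∈ I}, enK (uu (an (dl * r1)) g1 (P i.1).z) (fun m => (P i.1).S m.1) =
      ∑ i ∈ I, enc (an (dl * r1)) (trc (P i).z g1) (P i).S := by
    rw [← Finset.sum_coe_sort I]
    exact Finset.sum_congr rfl fun i _ => enK_eq _ _ _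
  have t3 : ∑ k : {k // k ∈ I.image fun i => labc s2 (P i).c},
      ∫⁻ p in cy (2 * (17 * A ^ 2 * r1)),
        Acc n (an r1) κ (an r1) g (uS I1 P1) (Fam A (an r1) s2 k.1) p.1 p.2 ^ (3 / 2 : ℝ) =
      ∑ k ∈ I.image (fun i => labc s2 (P i).c), ∫⁻ p in (cylc (34 * A ^ 2 * r1) : Set (E3 × ℝ)),
          Acc n (an r1) κ (an r1) g (uS I1 P1) (Fam A (an r1) s2 k) p.1 p.2 ^ (3 / 2 : ℝ) := by
    rw [← Finset.sum_coe_sort (I.image fun i => labc s2 (P i).c)]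
    refine Finset.sum_congr rfl fun k _ => ?_
    have e5 : 2 * (17 * A ^ 2 * r1) = 34 * A ^ 2 * r1 := by ring
    rw [e5]
    rfl
  rw [t1]
  refine main.trans (le_of_eq ?_)
  rw [t2, t3]

end

end Crest.Agent.R116.AlS299
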