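import Mathlib

/-!
# R116 (S0155), wave side, AL-CONE (helper339): volumes of slabs, part 1

Fibre lemma for `Fin 3 → ℝ` and the one dimensional quadratic lemma.
-/

set_option autoImplicit false

open MeasureTheory
open scoped ENNReal

namespace Crest.Agent.R116.AlV339

/-- a subset of the line with small diameter. -/
theorem vol_le_of_dist {S : Set ℝ} {D : ℝ} (h : ∀ s ∈ S, ∀ s' ∈ S, |s - s'| ≤ D) :
    volume S ≤ ENNReal.ofReal D := by
  refine (Real.volume_le_diam S).trans ?_
  refine Metric.ediam_le fun s hs s' hs' => ?_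
  rw [edist_dist, Real.dist_eq]
  exact ENNReal.ofReal_le_ofReal (h s hs s' hs')

/-- **quadratic fibre**: where the derivative is at least `c1`, the set `{|h| ≤ w}` is small. -/
theorem vol_quad {al be d w c1 : ℝ} (hw : 0 ≤ w) (hc : 0 < c1) :
    volume {s : ℝ | |al + be * s + d * s ^ 2| ≤ w ∧ c1 ≤ |be + 2 * d * s|} ≤
      ENNReal.ofReal (4 * w / c1) := by
  have key : ∀ s s' : ℝ, |al + be * s + d * s ^ 2| ≤ w → |al + be * s' + d * s' ^ 2| ≤ w →
      ((c1 ≤ be + 2 * d * s ∧ c1 ≤ be + 2 * d * s') ∨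
        (be + 2 * d * s ≤ -c1 ∧ be + 2 * d * s' ≤ -c1)) → |s - s'| ≤ 2 * w / c1 := by
    intro s s' h1 h2 h3
    rw [le_div_iff₀ hc]
    have e : (al + be * s + d * s ^ 2) - (al + be * s' + d * s' ^ 2) =
        (s - s') * (((be + 2 * d * s) + (be + 2 * d * s')) / 2) := by ring
    have h4 : |(al + be * s + d * s ^ 2) - (al + be * s' + d * s' ^ 2)| ≤ 2 * w := by
      refine (abs_sub _ _).trans ?_
      linarith
    rw [e, abs_mul] at h4
    refine le_trans ?_ h4
    refine mul_le_mul_of_nonneg_left ?_ (abs_nonneg _)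
    rcases h3 with ⟨h5, h6⟩ | ⟨h5, h6⟩
    · rw [le_abs]; left; linarith
    · rw [le_abs]; right; linarith
  have hsub : {s : ℝ | |al + be * s + d * s ^ 2| ≤ w ∧ c1 ≤ |be + 2 * d * s|} ⊆
      {s : ℝ | |al + be * s + d * s ^ 2| ≤ w ∧ c1 ≤ be + 2 * d * s} ∪
        {s : ℝ | |al + be * s + d * s ^ 2| ≤ w ∧ be + 2 * d * s ≤ -c1} := by
    rintro s ⟨h1, h2⟩
    rcases le_abs.1 h2 with h3 | h3
    · left; exact ⟨h1, h3⟩
    · right; exact ⟨h1, by linarith⟩
  refine (measure_mono hsub).trans ((measure_union_le _ _).trans ?_)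
  have e : 4 * w / c1 = 2 * w / c1 + 2 * w / c1 := by ring
  rw [e, ENNReal.ofReal_add (by positivity) (by positivity)]
  refine add_le_add (vol_le_of_dist ?_) (vol_le_of_dist ?_)
  · rintro s ⟨h1, h2⟩ s' ⟨h1', h2'⟩
    exact key s s' h1 h1' (Or.inl ⟨h2, h2'⟩)
  · rintro s ⟨h1, h2⟩ s' ⟨h1', h2'⟩
    exact key s s' h1 h1' (Or.inr ⟨h2, h2'⟩)

/-- **fibre lemma.** -/
theorem vol_slice {S : Set (Fin 3 → ℝ)} (hS : MeasurableSet S) (i : Fin 3) (b a : Fin 3 → ℝ)
    (hbox : ∀ p ∈ S, ∀ j, |p j - b j| ≤ a j) {m : ℝ≥0∞}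
    (hm : ∀ p : Fin 3 → ℝ, volume {s : ℝ | Function.update p i s ∈ S} ≤ m) :
    volume S ≤ m * ∏ j : Fin 2, ENNReal.ofReal (2 * a (i.succAbove j)) := by
  classical
  set e := MeasurableEquiv.piFinSuccAbove (fun _ : Fin 3 => ℝ) i with he
  have hmp : MeasurePreserving e := volume_preserving_piFinSuccAbove (fun _ => ℝ) i
  set S' : Set (ℝ × (Fin 2 → ℝ)) := e.symm ⁻¹' S with hS'
  have hS'm : MeasurableSet S' := e.symm.measurable hS
  have h1 : volume S = volume S' := by
    rw [← hmp.measure_preimage hS'm.nullMeasurableSet]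
    congr 1
    ext p
    rw [hS', Set.mem_preimage, Set.mem_preimage, MeasurableEquiv.symm_apply_apply]
  rw [h1, Measure.volume_eq_prod, Measure.prod_apply_symm hS'm]
  set Q : Set (Fin 2 → ℝ) := Set.pi Set.univ fun j =>
    Set.Icc (b (i.succAbove j) - a (i.succAbove j)) (b (i.succAbove j) + a (i.succAbove j)) with hQ
  have hQv : volume Q = ∏ j : Fin 2, ENNReal.ofReal (2 * a (i.succAbove j)) := by
    rw [hQ, volume_pi_pi]
    refine Finset.prod_congr rfl fun j _ => ?_
    rw [Real.volume_Icc]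
    congr 1; ring
  have hQm : MeasurableSet Q := MeasurableSet.univ_pi fun _ => measurableSet_Icc
  have hins : ∀ (s : ℝ) (v : Fin 2 → ℝ), e.symm (s, v) = (i.insertNth s v : Fin 3 → ℝ) :=
    fun _ _ => rfl
  have h2 : ∀ v : Fin 2 → ℝ, volume ((fun s => (s, v)) ⁻¹' S') ≤ Q.indicator (fun _ => m) v := by
    intro v
    by_cases hv : v ∈ Q
    · rw [Set.indicator_of_mem hv]
      refine le_trans (le_of_eq ?_) (hm (e.symm (0, v)))
      congr 1
      ext s
      simp only [hS', Set.mem_preimage, Set.mem_ofPred_eq]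
      rw [hins, hins]
      have : (i.insertNth s v : Fin 3 → ℝ) = Function.update (i.insertNth (0:ℝ) v) i s := by
        funext j
        rcases Fin.eq_self_or_eq_succAbove i j with h | ⟨k, h⟩
        · rw [h]; simp
        · rw [h, Function.update_of_ne (Fin.succAbove_ne i k)]; simp
      rw [this]
    · rw [Set.indicator_of_notMem hv]
      have : (fun s => (s, v)) ⁻¹' S' = ∅ := by
        ext s
        simp only [hS', Set.mem_preimage, Set.mem_empty_iff_false, iff_false]
        intro hs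
        apply hv
        rw [hQ]
        intro j _
        have h3 := hbox _ hs (i.succAbove j)
        have h4 : (e.symm (s, v)) (i.succAbove j) = v j := by
          rw [hins]; simp
        rw [h4, abs_le] at h3
        constructor <;> linarith [h3.1, h3.2]
      rw [this, measure_empty]
  refine (lintegral_mono h2).trans ?_
  rw [lintegral_indicator_const hQm, hQv]

end Crest.Agent.R116.AlV339
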