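import Crest.Agent.R116.AlV1_339
import Crest.Agent.R116.Cad1_538
import Crest.Agent.R116.LZg2_725

/-!
# R116 (S0155), wave side, AL-CONE (helper339): volumes of slabs, part 2

`regC` = region of one plate at one time (section of the light box cut by a slab), its volume.
-/

set_option autoImplicit false

open MeasureTheory
open scoped ENNReal

namespace Crest.Agent.R116.AlV339

open Crest.Agent.R138.Defs (E2)
open Crest.Agent.R116.CDef480 Crest.Agent.R116.Cad538
open Crest.Agent.R116.LZg725 (Cf)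

/-- region of a plate at time `t`. -/
def regC (a b w L : ℝ) (c x0 : E2) (n0 : ℝ) (f : Cf E2) (t : ℝ) : Set E3 :=
  {x | ‖lat x - x0‖ ≤ a ∧ |nrm c x t - n0| ≤ b ∧ |f.ev (lat x) (x 2) t| ≤ w ∧
    (1/4 ≤ ‖f.gr c (lat x) t‖ ∨ 1/4 ≤ L * |f.ny t|)}

theorem nrm_cont (c : E2) (t : ℝ) : Continuous fun x : E3 => nrm c x t := by
  have h1 : Continuous lat := latL.continuous
  have h2 : Continuous fun x : E3 => x 2 := (EuclideanSpace.proj (𝕜 := ℝ) 2).continuous
  unfold nrm
  fun_prop

theorem ev_cont (f : Cf E2) (t : ℝ) : Continuous fun x : E3 => f.ev (lat x) (x 2) t := by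
  have h1 : Continuous lat := latL.continuous
  have h2 : Continuous fun x : E3 => x 2 := (EuclideanSpace.proj (𝕜 := ℝ) 2).continuous
  unfold Cf.ev
  fun_prop

theorem gr_cont (f : Cf E2) (c : E2) (t : ℝ) : Continuous fun x : E3 => f.gr c (lat x) t := by
  have h1 : Continuous lat := latL.continuous
  unfold Cf.gr
  fun_prop

theorem regC_closed (a b w L : ℝ) (c x0 : E2) (n0 : ℝ) (f : Cf E2) (t : ℝ) :
    IsClosed (regC a b w L c x0 n0 f t) := by
  have h1 : Continuous lat := latL.continuous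
  refine (isClosed_le (f := fun x : E3 => ‖lat x - x0‖) (by fun_prop) continuous_const).inter
    ((isClosed_le ((nrm_cont c t).sub continuous_const).abs continuous_const).inter
    ((isClosed_le (ev_cont f t).abs continuous_const).inter
    ((isClosed_le continuous_const (gr_cont f c t).norm).union isClosed_const)))

/-- the region in the coordinates `(lat, nrm c)`. -/
theorem ev_coord (f : Cf E2) (c : E2) (t : ℝ) (x : E3) :
    f.ev (lat x) (x 2) t = (f.a0 + f.a1 * t - f.ny t * (t * ‖c‖ ^ 2 / 2)) +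
      inner ℝ (f.be - f.ny t • c) (lat x) + f.ny t * nrm c x t + f.d * ‖lat x‖ ^ 2 := by
  unfold Cf.ev Cf.ny nrm
  rw [inner_sub_left, real_inner_smul_left]
  ring

/-- the set in `Fin 3 → ℝ`. -/
def reg3 (a b w g : ℝ) (x0 : E2) (n0 : ℝ) (al : ℝ) (be : E2) (n d : ℝ) (k : Fin 3) :
    Set (Fin 3 → ℝ) :=
  {p | |p 0 - x0 0| ≤ a ∧ |p 1 - x0 1| ≤ a ∧ |p 2 - n0| ≤ b ∧
    |al + (be 0 * p 0 + be 1 * p 1) + n * p 2 + d * (p 0 ^ 2 + p 1 ^ 2)| ≤ w ∧
    g ≤ |![be 0 + 2 * d * p 0, be 1 + 2 * d * p 1, n] k|}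

theorem reg3_meas (a b w g : ℝ) (x0 : E2) (n0 : ℝ) (al : ℝ) (be : E2) (n d : ℝ) (k : Fin 3) :
    MeasurableSet (reg3 a b w g x0 n0 al be n d k) := by
  have hk : Continuous fun p : Fin 3 → ℝ => |![be 0 + 2 * d * p 0, be 1 + 2 * d * p 1, n] k| := by
    fin_cases k
    · show Continuous fun p : Fin 3 → ℝ => |be 0 + 2 * d * p 0|
      fun_prop
    · show Continuous fun p : Fin 3 → ℝ => |be 1 + 2 * d * p 1|
      fun_prop
    · show Continuous fun p : Fin 3 → ℝ => |n|
      fun_prop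
  have : IsClosed (reg3 a b w g x0 n0 al be n d k) := by
    refine (isClosed_le (f := fun p : Fin 3 → ℝ => |p 0 - x0 0|) (by fun_prop)
        continuous_const).inter
      ((isClosed_le (f := fun p : Fin 3 → ℝ => |p 1 - x0 1|) (by fun_prop)
        continuous_const).inter
      ((isClosed_le (f := fun p : Fin 3 → ℝ => |p 2 - n0|) (by fun_prop) continuous_const).inter
      ((isClosed_le (f := fun p : Fin 3 → ℝ =>
        |al + (be 0 * p 0 + be 1 * p 1) + n * p 2 + d * (p 0 ^ 2 + p 1 ^ 2)|) (by fun_prop)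
        continuous_const).inter (isClosed_le continuous_const hk))))
  exact this.measurableSet

theorem reg3_vol {a b w g : ℝ} (ha : 0 ≤ a) (hw : 0 ≤ w) (hg : 0 < g) (x0 : E2)
    (n0 : ℝ) (al : ℝ) (be : E2) (n d : ℝ) (k : Fin 3) :
    volume (reg3 a b w g x0 n0 al be n d k) ≤
      ENNReal.ofReal (4 * w / g * (4 * a * (if k = 2 then a else b))) := by
  have h := vol_slice (reg3_meas a b w g x0 n0 al be n d k) k ![x0 0, x0 1, n0] ![a, a, b]
    (by
      rintro p ⟨h0, h1, h2, -, -⟩ j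
      fin_cases j
      · exact h0
      · exact h1
      · exact h2) (m := ENNReal.ofReal (4 * w / g)) (by
      intro p
      fin_cases k
      · refine (measure_mono ?_).trans (vol_quad (al := al + be 1 * p 1 + n * p 2 + d * p 1 ^ 2)
          (be := be 0) (d := d) hw hg)
        rintro s ⟨-, -, -, h3, h4⟩
        simp only [Fin.zero_eta, Function.update_self, Fin.isValue, ne_eq, one_ne_zero,
          not_false_eq_true, Function.update_of_ne, Fin.reduceEq, Matrix.cons_val_zero] at h3 h4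
        refine ⟨?_, h4⟩
        rw [← show al + (be 0 * s + be 1 * p 1) + n * p 2 + d * (s ^ 2 + p 1 ^ 2) =
          al + be 1 * p 1 + n * p 2 + d * p 1 ^ 2 + be 0 * s + d * s ^ 2 by ring]
        exact h3
      · refine (measure_mono ?_).trans (vol_quad (al := al + be 0 * p 0 + n * p 2 + d * p 0 ^ 2)
          (be := be 1) (d := d) hw hg)
        rintro s ⟨-, -, -, h3, h4⟩
        simp only [Fin.mk_one, Function.update_self, Fin.isValue, ne_eq, zero_ne_one,
          not_false_eq_true, Function.update_of_ne, Fin.reduceEq, Matrix.cons_val_one,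
          Matrix.cons_val_zero] at h3 h4
        refine ⟨?_, h4⟩
        rw [← show al + (be 0 * p 0 + be 1 * s) + n * p 2 + d * (p 0 ^ 2 + s ^ 2) =
          al + be 0 * p 0 + n * p 2 + d * p 0 ^ 2 + be 1 * s + d * s ^ 2 by ring]
        exact h3
      · refine (measure_mono ?_).trans (vol_quad
          (al := al + (be 0 * p 0 + be 1 * p 1) + d * (p 0 ^ 2 + p 1 ^ 2))
          (be := n) (d := 0) hw hg)
        rintro s ⟨-, -, -, h3, h4⟩
        simp only [Fin.reduceFinMk, Function.update_self, Fin.isValue, ne_eq, Fin.reduceEq,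
          not_false_eq_true, Function.update_of_ne, Matrix.cons_val] at h3 h4
        refine ⟨?_, by simpa using h4⟩
        rw [← show al + (be 0 * p 0 + be 1 * p 1) + n * s + d * (p 0 ^ 2 + p 1 ^ 2) =
          al + (be 0 * p 0 + be 1 * p 1) + d * (p 0 ^ 2 + p 1 ^ 2) + n * s + 0 * s ^ 2 by ring]
        exact h3)
  refine h.trans (le_of_eq ?_)
  rw [Fin.prod_univ_two]
  fin_cases k
  · show ENNReal.ofReal (4 * w / g) * (ENNReal.ofReal (2 * a) * ENNReal.ofReal (2 * b)) =
      ENNReal.ofReal (4 * w / g * (4 * a * b))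
    rw [← ENNReal.ofReal_mul (by positivity), ← ENNReal.ofReal_mul (by positivity)]
    congr 1; ring
  · show ENNReal.ofReal (4 * w / g) * (ENNReal.ofReal (2 * a) * ENNReal.ofReal (2 * b)) =
      ENNReal.ofReal (4 * w / g * (4 * a * b))
    rw [← ENNReal.ofReal_mul (by positivity), ← ENNReal.ofReal_mul (by positivity)]
    congr 1; ring
  · show ENNReal.ofReal (4 * w / g) * (ENNReal.ofReal (2 * a) * ENNReal.ofReal (2 * a)) =
      ENNReal.ofReal (4 * w / g * (4 * a * a))
    rw [← ENNReal.ofReal_mul (by positivity), ← ENNReal.ofReal_mul (by positivity)]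
    congr 1; ring

/-- **volume of the region.** -/
theorem regC_vol {a b w L : ℝ} (ha : 0 ≤ a) (hb : 0 ≤ b) (hw : 0 ≤ w) (hL : 0 < L)
    (c x0 : E2) (n0 : ℝ) (f : Cf E2) (t : ℝ) :
    volume (regC a b w L c x0 n0 f t) ≤ ENNReal.ofReal (256 * w * a * (b + L * a)) := by
  set al := f.a0 + f.a1 * t - f.ny t * (t * ‖c‖ ^ 2 / 2) with hal
  set be := f.be - f.ny t • c with hbe
  set n0' := n0 - t * ‖c‖ ^ 2 / 2 with hn0'
  -- constants are shifted: `nrm c x t = nrm c x 0 + t ‖c‖² / 2`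
  set al' := al + f.ny t * (t * ‖c‖ ^ 2 / 2) with hal'
  have hsub : regC a b w L c x0 n0 f t ⊆ (frc 1 1 c : E3 →ₗ[ℝ] E3) ⁻¹'
      ((@WithLp.ofLp 2 (Fin 3 → ℝ)) ⁻¹' (reg3 a b w (1/8) x0 n0' al' be (f.ny t) f.d 0 ∪
        (reg3 a b w (1/8) x0 n0' al' be (f.ny t) f.d 1 ∪
          reg3 a b w (1 / (4 * L)) x0 n0' al' be (f.ny t) f.d 2))) := by
    rintro x ⟨h1, h2, h3, h4⟩
    rw [Set.mem_preimage, Set.mem_preimage]
    have e0 : WithLp.ofLp ((frc 1 1 c : E3 →ₗ[ℝ] E3) x) 0 = x 0 := by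
      show (frc 1 1 c x) 0 = x 0
      rw [frc_apply, pt_zero]; simp
    have e1 : WithLp.ofLp ((frc 1 1 c : E3 →ₗ[ℝ] E3) x) 1 = x 1 := by
      show (frc 1 1 c x) 1 = x 1
      rw [frc_apply, pt_one]; simp
    have e2 : WithLp.ofLp ((frc 1 1 c : E3 →ₗ[ℝ] E3) x) 2 = nrm c x t - t * ‖c‖ ^ 2 / 2 := by
      show (frc 1 1 c x) 2 = _
      rw [frc_apply, pt_two]; unfold nrm; ring
    have c0 : |(lat x - x0) 0| ≤ a := (PiLp.norm_apply_le (lat x - x0) 0).trans h1
    have c1 : |(lat x - x0) 1| ≤ a := (PiLp.norm_apply_le (lat x - x0) 1).trans h1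
    have hev : |al' + (be 0 * x 0 + be 1 * x 1) + f.ny t * (nrm c x t - t * ‖c‖ ^ 2 / 2) +
        f.d * (x 0 ^ 2 + x 1 ^ 2)| ≤ w := by
      have h5 := ev_coord f c t x
      rw [inner2, normsq2 (lat x), lat_zero, lat_one] at h5
      have : al' + (be 0 * x 0 + be 1 * x 1) + f.ny t * (nrm c x t - t * ‖c‖ ^ 2 / 2) +
        f.d * (x 0 ^ 2 + x 1 ^ 2) = f.ev (lat x) (x 2) t := by
        rw [h5, hal', hal, hbe]; ring
      rw [this]; exact h3
    have hn : |nrm c x t - t * ‖c‖ ^ 2 / 2 - n0'| ≤ b := by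
      have : nrm c x t - t * ‖c‖ ^ 2 / 2 - n0' = nrm c x t - n0 := by rw [hn0']; ring
      rw [this]; exact h2
    have hgr : ∀ i, f.gr c (lat x) t i = be i + 2 * f.d * lat x i := by
      intro i
      unfold Cf.gr
      rw [hbe]
      simp only [PiLp.add_apply, PiLp.sub_apply, PiLp.smul_apply, smul_eq_mul]
      ring
    have hbase : ∀ (g : ℝ) (k : Fin 3),
        g ≤ |![be 0 + 2 * f.d * x 0, be 1 + 2 * f.d * x 1, f.ny t] k| →
        WithLp.ofLp ((frc 1 1 c : E3 →ₗ[ℝ] E3) x) ∈ reg3 a b w g x0 n0' al' be (f.ny t) f.d k := by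
      intro g k hk
      refine ⟨?_, ?_, ?_, ?_, ?_⟩
      · rw [e0]; exact c0
      · rw [e1]; exact c1
      · rw [e2]; exact hn
      · rw [e0, e1, e2]; exact hev
      · rw [e0, e1]; exact hk
    rcases h4 with h4 | h4
    · have h5 : ‖f.gr c (lat x) t‖ ≤ |f.gr c (lat x) t 0| + |f.gr c (lat x) t 1| := by
        have h6 : ‖f.gr c (lat x) t‖ ^ 2 ≤ (|f.gr c (lat x) t 0| + |f.gr c (lat x) t 1|) ^ 2 := by
          rw [normsq2, ← sq_abs (f.gr c (lat x) t 0), ← sq_abs (f.gr c (lat x) t 1)]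
          nlinarith [abs_nonneg (f.gr c (lat x) t 0), abs_nonneg (f.gr c (lat x) t 1)]
        exact le_of_sq_le_sq h6 (by positivity)
      rcases le_total (|f.gr c (lat x) t 1|) (|f.gr c (lat x) t 0|) with h7 | h7
      · left
        refine hbase _ _ ?_
        show 1/8 ≤ |be 0 + 2 * f.d * x 0|
        rw [← lat_zero x, ← hgr 0]
        linarith
      · right; left
        refine hbase _ _ ?_
        show 1/8 ≤ |be 1 + 2 * f.d * x 1|
        rw [← lat_one x, ← hgr 1]
        linarith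
    · right; right
      refine hbase _ _ ?_
      show 1 / (4 * L) ≤ |f.ny t|
      rw [div_le_iff₀ (by positivity)]
      linarith
  refine (measure_mono hsub).trans ?_
  rw [Measure.addHaar_preimage_linearMap volume (by rw [det_frc]; norm_num), det_frc,
    show ENNReal.ofReal |((1:ℝ) ^ 2 * 1)⁻¹| = 1 by norm_num, one_mul]
  have hmp : MeasurePreserving (@WithLp.ofLp 2 (Fin 3 → ℝ)) := PiLp.volume_preserving_ofLp (Fin 3)
  rw [hmp.measure_preimage (((reg3_meas _ _ _ _ _ _ _ _ _ _ _).union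
    ((reg3_meas _ _ _ _ _ _ _ _ _ _ _).union (reg3_meas _ _ _ _ _ _ _ _ _ _ _))).nullMeasurableSet)]
  refine (measure_union_le _ _).trans ((add_le_add le_rfl (measure_union_le _ _)).trans ?_)
  have v0 := reg3_vol (b := b) ha hw (g := 1/8) (by norm_num) x0 n0' al' be (f.ny t) f.d 0
  have v1 := reg3_vol (b := b) ha hw (g := 1/8) (by norm_num) x0 n0' al' be (f.ny t) f.d 1
  have v2 := reg3_vol (b := b) ha hw (g := 1 / (4 * L)) (by positivity) x0 n0' al' be (f.ny t) f.d 2
  refine (add_le_add v0 (add_le_add v1 v2)).trans ?_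
  simp only [Fin.isValue, Fin.reduceEq, if_false, if_true]
  rw [← ENNReal.ofReal_add (by positivity) (by positivity),
    ← ENNReal.ofReal_add (by positivity) (by positivity)]
  refine ENNReal.ofReal_le_ofReal ?_
  have e : 4 * w / (1/8) * (4 * a * b) + (4 * w / (1/8) * (4 * a * b) +
      4 * w / (1 / (4 * L)) * (4 * a * a)) = 256 * w * a * b + 64 * w * a * (L * a) := by
    field_simp
    ring
  rw [e]
  have : 0 ≤ w * a * (L * a) := by positivity
  nlinarith

end Crest.Agent.R116.AlV339
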