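import Crest.Agent.R116.AlH4_339

/-!
# R116 (S0155), wave side, AL-CONE (helper339): assembly

**`al_of_sum`** : `SumC M q → AL_C M q` (the exponents `G = 2`, `G' = 2 n + 2`).
-/

set_option autoImplicit false

open MeasureTheory
open scoped ENNReal

namespace Crest.Agent.R116.AlC339

open Crest.Agent.R116.CDef480
open Crest.Agent.R116.WC188 Crest.Agent.R116.PC299

/-- monotonicity of `Ctx` in the threshold. -/
theorem ctx_mono {M q a b A d0 d1 G c0 κ η0 : ℝ} {g : E3 → ℂ}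
    {r1 dl Y Gm s1' s2' s1 s2 D : ℝ} {I1 : Finset ℕ} {P1 : ℕ → Plate} {I : Finset ℕ}
    {P : ℕ → Plate} (h : Ctx M q a b A d0 G c0 κ η0 g r1 dl Y Gm s1' s2' s1 s2 D I1 P1 I P)
    (h1 : dl ≤ d1) : Ctx M q a b A d1 G c0 κ η0 g r1 dl Y Gm s1' s2' s1 s2 D I1 P1 I P :=
  ⟨h.par, h.c0pos, h.c0le, h.dlpos, h1, h.r1ge, h.kpos, h.klo, h.khi, h.ka, h.Gm1, h.Gm2, h.Y1,
    h.Y2, h.sd, h.pl, h.cp, h.thin', h.thin, h.wide⟩

/-- the main term. -/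
theorem main_num {C K0 Gm Y pp p : ℝ} (hC : 0 ≤ C) (hK0 : 1 ≤ K0) (hGm : 1 ≤ Gm) (hY : 1 ≤ Y)
    (hpp : 0 ≤ pp) (hp : 0 < p) (n : ℕ) :
    (C * K0 * Gm ^ 3 * Y ^ (4 * n + 4) * (pp / p)) ^ (1/2 : ℝ) ≤
      (C + 1) * (Y * K0) ^ ((2 * n + 2 : ℕ) : ℝ) * Gm ^ (2 : ℝ) * (pp / p) ^ (1/2 : ℝ) := by
  have hq : 0 ≤ pp / p := by positivity
  have e1 : (C * K0 * Gm ^ 3 * Y ^ (4 * n + 4) * (pp / p)) ^ (1/2 : ℝ) =
      (C * K0 * Gm ^ 3) ^ (1/2 : ℝ) * Y ^ (2 * n + 2) * (pp / p) ^ (1/2 : ℝ) := by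
    rw [Real.mul_rpow (by positivity) hq, Real.mul_rpow (by positivity) (by positivity)]
    congr 2
    rw [← Real.rpow_natCast, ← Real.rpow_mul (by linarith), ← Real.rpow_natCast]
    congr 1
    push_cast
    ring
  have e2 : (C * K0 * Gm ^ 3) ^ (1/2 : ℝ) ≤ (C + 1) * K0 * Gm ^ 2 := by
    have h1 : C * K0 * Gm ^ 3 ≤ ((C + 1) * K0 * Gm ^ 2) ^ 2 := by
      have a1 : C ≤ (C + 1) ^ 2 := by nlinarith
      have a2 : K0 ≤ K0 ^ 2 := by nlinarith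
      have a3 : Gm ^ 3 ≤ (Gm ^ 2) ^ 2 := by
        rw [← pow_mul]; exact pow_le_pow_right₀ hGm (by norm_num)
      calc C * K0 * Gm ^ 3 ≤ (C + 1) ^ 2 * K0 ^ 2 * (Gm ^ 2) ^ 2 := by gcongr
        _ = _ := by ring
    calc (C * K0 * Gm ^ 3) ^ (1/2 : ℝ) ≤ (((C + 1) * K0 * Gm ^ 2) ^ 2) ^ (1/2 : ℝ) :=
          Real.rpow_le_rpow (by positivity) h1 (by norm_num)
      _ = (C + 1) * K0 * Gm ^ 2 := by
          rw [← Real.sqrt_eq_rpow, Real.sqrt_sq (by positivity)]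
  have e3 : K0 ≤ K0 ^ (2 * n + 2) := by
    calc K0 = K0 ^ 1 := (pow_one _).symm
      _ ≤ _ := pow_le_pow_right₀ hK0 (by omega)
  rw [e1, Real.rpow_natCast, Real.rpow_two, mul_pow]
  refine mul_le_mul_of_nonneg_right ?_ (by positivity)
  calc (C * K0 * Gm ^ 3) ^ (1/2 : ℝ) * Y ^ (2 * n + 2)
      ≤ ((C + 1) * K0 * Gm ^ 2) * Y ^ (2 * n + 2) := by gcongr
    _ ≤ ((C + 1) * K0 ^ (2 * n + 2) * Gm ^ 2) * Y ^ (2 * n + 2) := by gcongr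
    _ = _ := by ring

/-- the tail. -/
theorem tail_num {CS C K0 G' Y E r1 : ℝ} (hCS : 0 ≤ CS) (hC : 0 ≤ C) (hK0 : 1 ≤ K0) (hG' : 0 ≤ G')
    (hY : 1 ≤ Y) (hE : 0 ≤ E) (hr1 : 1 ≤ r1) (Mt : ℕ) :
    ENNReal.ofReal (CS * r1 ^ (10 : ℕ) * (C * r1 * (Y ^ (2 * Mt))⁻¹ * E) ^ (1/2 : ℝ)) *
        ENNReal.ofReal E ≤
      ENNReal.ofReal ((CS * (C + 1)) * K0 ^ G' * r1 ^ (20 : ℕ) * (Y ^ Mt)⁻¹) *
        (ENNReal.ofReal E) ^ (3/2 : ℝ) := by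
  have hY0 : 0 < Y := by linarith
  have e1 : (C * r1 * (Y ^ (2 * Mt))⁻¹ * E) ^ (1/2 : ℝ) =
      (C * r1) ^ (1/2 : ℝ) * (Y ^ Mt)⁻¹ * E ^ (1/2 : ℝ) := by
    rw [Real.mul_rpow (by positivity) hE, Real.mul_rpow (by positivity) (by positivity)]
    congr 2
    have : (Y ^ (2 * Mt))⁻¹ = ((Y ^ Mt)⁻¹) ^ 2 := by
      rw [inv_pow, ← pow_mul, mul_comm]
    rw [this, ← Real.sqrt_eq_rpow, Real.sqrt_sq (by positivity)]
  have e2 : (C * r1) ^ (1/2 : ℝ) ≤ (C + 1) * r1 := by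
    have h1 : C * r1 ≤ ((C + 1) * r1) ^ 2 := by
      have a1 : C ≤ (C + 1) ^ 2 := by nlinarith
      have a2 : r1 ≤ r1 ^ 2 := by nlinarith
      calc C * r1 ≤ (C + 1) ^ 2 * r1 ^ 2 := by gcongr
        _ = _ := by ring
    calc (C * r1) ^ (1/2 : ℝ) ≤ (((C + 1) * r1) ^ 2) ^ (1/2 : ℝ) :=
          Real.rpow_le_rpow (by positivity) h1 (by norm_num)
      _ = _ := by rw [← Real.sqrt_eq_rpow, Real.sqrt_sq (by positivity)]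
  have e3 : 1 ≤ K0 ^ G' := Real.one_le_rpow hK0 hG'
  have e4 : ENNReal.ofReal (E ^ (1/2 : ℝ)) * ENNReal.ofReal E = (ENNReal.ofReal E) ^ (3/2 : ℝ) := by
    rw [← ENNReal.ofReal_rpow_of_nonneg hE (by norm_num)]
    conv_lhs => rw [← ENNReal.rpow_one (ENNReal.ofReal E), ← ENNReal.rpow_mul]
    rw [← ENNReal.rpow_add_of_nonneg _ _ (by norm_num) (by norm_num)]
    norm_num
  calc ENNReal.ofReal (CS * r1 ^ (10 : ℕ) * (C * r1 * (Y ^ (2 * Mt))⁻¹ * E) ^ (1/2 : ℝ)) *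
        ENNReal.ofReal E
      = ENNReal.ofReal (CS * r1 ^ (10 : ℕ) * ((C * r1) ^ (1/2 : ℝ) * (Y ^ Mt)⁻¹)) *
          (ENNReal.ofReal (E ^ (1/2 : ℝ)) * ENNReal.ofReal E) := by
        have e5 : ENNReal.ofReal (CS * r1 ^ (10 : ℕ) *
            ((C * r1) ^ (1/2 : ℝ) * (Y ^ Mt)⁻¹ * E ^ (1/2 : ℝ))) =
            ENNReal.ofReal (CS * r1 ^ (10 : ℕ) * ((C * r1) ^ (1/2 : ℝ) * (Y ^ Mt)⁻¹)) *
              ENNReal.ofReal (E ^ (1/2 : ℝ)) := by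
          rw [← ENNReal.ofReal_mul (by positivity)]
          congr 1
          ring
        rw [e1, e5, mul_assoc (ENNReal.ofReal _) (ENNReal.ofReal (E ^ (1/2 : ℝ)))]
    _ ≤ _ := by
        rw [e4]
        refine mul_le_mul' (ENNReal.ofReal_le_ofReal ?_) le_rfl
        have h5 : r1 ^ (10 : ℕ) * r1 ≤ r1 ^ (20 : ℕ) := by
          rw [← pow_succ]; exact pow_le_pow_right₀ hr1 (by norm_num)
        calc CS * r1 ^ (10 : ℕ) * ((C * r1) ^ (1/2 : ℝ) * (Y ^ Mt)⁻¹)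
            ≤ CS * r1 ^ (10 : ℕ) * (((C + 1) * r1) * (Y ^ Mt)⁻¹) := by gcongr
          _ = CS * (C + 1) * 1 * (r1 ^ (10 : ℕ) * r1) * (Y ^ Mt)⁻¹ := by ring
          _ ≤ CS * (C + 1) * K0 ^ G' * r1 ^ (20 : ℕ) * (Y ^ Mt)⁻¹ := by gcongr

/-- **AL_C** from the summation over the plates. -/
theorem al_of_sum {M q : ℝ} (hM : 1 ≤ M) (hS : SumC M q) : AL_C M q := by
  refine ⟨2, by norm_num, ?_⟩
  intro ε hε
  obtain ⟨n0, hn0⟩ := hS ε hε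
  refine ⟨n0, ?_⟩
  intro n hn
  refine ⟨((2 * n + 2 : ℕ) : ℝ), Nat.cast_nonneg _, ?_⟩
  intro a b A ha hb hb2 hA
  obtain ⟨dS, hdS, hdS1, hS2⟩ := hn0 n hn a b A ha hb hb2 hA
  refine ⟨min dS (((3584 * M * A) ^ 2)⁻¹), lt_min hdS (by positivity), (min_le_left _ _).trans hdS1,
    ?_⟩
  intro Mt
  obtain ⟨CS, hCS, hsum⟩ := hS2 (2 * (n + (2 * Mt + (2 * n + 2)) + 4)) (by omega) (by omega)
  obtain ⟨CH, hCH, hH⟩ := hh hM hA ha b n Mt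
  refine ⟨CS * (CH + 1), by positivity, ?_⟩
  intro c0 κ η0 K0 g r1 dl Y Gm s1' s2' s1 s2 D α p pp I1 P1 I P hctx hcoh hpp hα hp hK0 hchi hal
  have hd1 : dl ≤ dS := hctx.dlle.trans (min_le_left _ _)
  have hd2 : dl ≤ ((3584 * M * A) ^ 2)⁻¹ := hctx.dlle.trans (min_le_right _ _)
  have hE : 0 ≤ Enc g := integral_nonneg fun _ => by positivity
  have hdl1 : dl ≤ 1 := hd1.trans hdS1
  have hr1 : 1 ≤ r1 := by
    refine le_trans ?_ hctx.r1ge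
    exact Real.one_le_rpow_of_pos_of_le_one_of_nonpos hctx.dlpos hdl1 (by norm_num)
  have hHH := hH q _ 2 c0 κ η0 K0 g r1 dl Y Gm s1' s2' s1 s2 D α p pp I1 P1 I P hctx hd2 le_rfl hcoh
    hpp hα hp hK0 hchi hal
  have hp0 : 0 < p := by linarith
  have hY := hctx.Y1
  have hGm := hctx.Gm1
  have key := hsum 2 c0 κ η0 g r1 dl Y Gm s1' s2' s1 s2 D
    (CH * K0 * Gm ^ 3 * Y ^ (4 * n + 4) * (pp / p)) (CH * r1 * (Y ^ (2 * Mt))⁻¹ * Enc g)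
    I1 P1 I P (ctx_mono hctx hd1) le_rfl (by positivity) (by positivity) hHH
  refine key.trans (add_le_add ?_ ?_)
  · refine mul_le_mul' (ENNReal.ofReal_le_ofReal ?_) le_rfl
    have h1 := main_num hCH hK0 hGm hY (by linarith : 0 ≤ pp) hp0 n
    calc CS * r1 ^ ε * (CH * K0 * Gm ^ 3 * Y ^ (4 * n + 4) * (pp / p)) ^ (1/2 : ℝ)
        ≤ CS * r1 ^ ε * ((CH + 1) * (Y * K0) ^ ((2 * n + 2 : ℕ) : ℝ) * Gm ^ (2 : ℝ) *
          (pp / p) ^ (1/2 : ℝ)) := by gcongr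
      _ = _ := by ring
  · exact tail_num hCS hCH hK0 (Nat.cast_nonneg _) hY hE hr1 Mt

end Crest.Agent.R116.AlC339
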