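import Crest.Agent.R116.WinG_954
import Crest.Agent.R116.SgZ_388
import Crest.Agent.R136.Dg8_219
import Crest.Agent.R116.CtxB_468

/-!
# R116, K side, `s < 1/2` (389, 171, 538, 850): the plane step of the untied / isotropic case
(helper954)

* plane through the record point `v0` spanned by the natural directions `(1; 1, 6)` and
  `(-1; 1/2 + ε, 1/2 + 3 ε)`; `dirA` : all nine groups of slots are alone.
* `linM_of` : the tangent at a generic point is linear on boxes with equal pairs (`LinM`).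
* `Pins` : the facts of the two pins `gC ≤ rX`, `gP ≤ rF`, `gD ≤ gE` at natural base points.
* **`core`** : `c + (q0 + q1) / 2 ≤ 1 + 18 ε`, abstract profile.
-/

set_option autoImplicit false
set_option linter.unusedVariables false
set_option linter.unusedSectionVars false

open Filter Topology

namespace Crest.Agent.R116.Ap954

open Finset
open Crest.Agent.R138.Ex926
open Crest.Agent.R136.Net191 Crest.Agent.R136.Qg926 Crest.Agent.R136.Gf356
open Crest.Agent.R136.Dg219 (Dir Out det2 lf gset mem_gset mw mem_mwO leg_out leg_tan)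
open Crest.Agent.R116.ChL222 Crest.Agent.R116.PL504
open Crest.Agent.R116.WinG954
open Crest.Agent.R116.Sg337 (bx9)

local notation "XX" => Crest.Agent.R136.Dg262.X

/-! ### the plane -/

/-- groups `z, D, E, C, X, B, N, P, F` -/
def grp9 : Fin 12 → Fin 9 := ![0, 1, 2, 3, 3, 4, 4, 5, 5, 6, 7, 8]

/-- a slot of the group -/
def ix9 : Fin 9 → Fin 12 := ![0, 1, 2, 3, 5, 7, 9, 10, 11]

/-- first natural direction `(1; 1, 6)` -/
def aA : Fin 12 → ℝ := eL 1 1 6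

/-- second natural direction `(-1; 1/2 + ε, 1/2 + 3 ε)` -/
noncomputable def bA (ε : ℝ) : Fin 12 → ℝ := eL (-1) (1 / 2 + ε) (1 / 2 + 3 * ε)

/-- direction of a group -/
noncomputable def n9 (ε : ℝ) (k : Fin 9) : ℝ × ℝ := (aA (ix9 k), bA ε (ix9 k))

/-- slopes of the groups, explicitly -/
def av : Fin 9 → ℝ := ![1, 3, 4, 1, 2, 5, 3, 6, 7]

/-- slopes of the groups, explicitly -/
noncomputable def bv (ε : ℝ) : Fin 9 → ℝ :=
  ![-1, 1 / 2 + ε, -(1 / 2) + ε, 1 / 2 + ε, -(1 / 2) + ε, 2 * ε, 2 * ε, 1 / 2 + 3 * ε,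
    -(1 / 2) + 3 * ε]

theorem aA_ix (k : Fin 9) : aA (ix9 k) = av k := by
  fin_cases k <;> simp [aA, ix9, av, eL] <;> norm_num

theorem bA_ix (ε : ℝ) (k : Fin 9) : bA ε (ix9 k) = bv ε k := by
  fin_cases k <;> simp [bA, ix9, bv, eL] <;> ring

theorem aA_grp (i : Fin 12) : aA i = aA (ix9 (grp9 i)) := by
  fin_cases i <;> rfl

theorem bA_grp (ε : ℝ) (i : Fin 12) : bA ε i = bA ε (ix9 (grp9 i)) := by
  fin_cases i <;> rfl

theorem det9 {ε : ℝ} (h0 : 0 < ε) (h1 : ε ≤ 1 / 100) (k l : Fin 9) (h : k ≠ l) :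
    av k * bv ε l - bv ε k * av l ≠ 0 := by
  intro he
  fin_cases k <;> fin_cases l <;>
    first
      | exact h rfl
      | (simp [av, bv] at he; try linarith)

theorem dirA {ε : ℝ} (h0 : 0 < ε) (h1 : ε ≤ 1 / 100) :
    Dir grp9 aA (bA ε) (n9 ε) (fun _ => 1) where
  pos := fun i => one_pos
  fst := fun i => by rw [one_mul]; exact aA_grp i
  snd := fun i => by rw [one_mul]; exact bA_grp ε i
  ne := fun i h => by
    have h2 : (n9 ε (grp9 i)).1 = 0 := by rw [h]; rfl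
    change aA (ix9 (grp9 i)) = 0 at h2
    rw [aA_ix] at h2
    revert h2
    generalize grp9 i = k
    fin_cases k <;> simp [av]
  det := fun i j hij => by
    have := det9 h0 h1 (grp9 i) (grp9 j) hij
    unfold det2 n9
    rw [aA_ix, aA_ix, bA_ix, bA_ix]
    exact this

/-- the natural boxes of the plane -/
theorem X_nat (w0 sa sb v0 a0 b0 ε : ℝ) (z : ℝ × ℝ) :
    XX (nb w0 sa sb v0 a0 b0) aA (bA ε) z = nb w0 sa sb (v0 + (z.1 - z.2))
      (a0 + (z.1 + (1 / 2 + ε) * z.2)) (b0 + (6 * z.1 + (1 / 2 + 3 * ε) * z.2)) := by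
  funext k
  unfold Crest.Agent.R136.Dg262.X
  fin_cases k <;> simp [nb, eL, aA, bA] <;> ring

theorem mem_O {w0 sa sb v0 a0 b0 ε R : ℝ} {z : ℝ × ℝ}
    (h : ∀ k, 0 < XX (nb w0 sa sb v0 a0 b0) aA (bA ε) z k ∧
      XX (nb w0 sa sb v0 a0 b0) aA (bA ε) z k < R) :
    z ∈ (mw monL).O (fun _ => 0) (fun _ => R) (nb w0 sa sb v0 a0 b0) aA (bA ε) :=
  mem_mwO.2 ⟨h, fun k e he => Or.inl ⟨(eL_wall _ _ _ k he).symm, (eL_wall _ _ _ k he).symm,
    (eL_wall _ _ _ k he).symm⟩⟩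

theorem LM_L (x0 a b : Fin 12 → ℝ) : LM ⊆ (mw monL).L x0 a b :=
  fun c hc w _ => hc w.1 w.2.1 w.2.2

/-! ### the tangent at a generic point -/

theorem gset9 : gset grp9 = Finset.univ := by
  decide

theorem linM_of {L : Set (Fin 12 → ℝ)} {ε : ℝ} {lam : (Fin 12 → ℝ) → ℝ} {A : ℝ × ℝ}
    {φ : Fin 9 → (Fin 12 → ℝ) → ℝ} {r : Fin 9 → ℝ}
    (H : Out grp9 L (fun _ => 1) (n9 ε) lam A φ r) (hL : LM ⊆ L) :
    LinM lam (r 0) (r 4) (r 6) (r 8) (r 3) (r 7) (r 2) (r 5) (r 1) := by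
  intro z D C P E B X N F hm
  have hm' := hL hm
  have rt : ∀ (k : Fin 9) (u : ℝ), (∀ i, grp9 i = k → bx9 z D E C X B N P F i = u * 1) →
      φ k (bx9 z D E C X B N P F) = -(r k * u) := fun k u h => H.rate k _ hm' u h
  have r0 := rt 0 z (by intro i hi; fin_cases i <;> first | (simp [bx9]; done) | exact absurd hi (by decide))
  have r1 := rt 1 D (by intro i hi; fin_cases i <;> first | (simp [bx9]; done) | exact absurd hi (by decide))
  have r2 := rt 2 E (by intro i hi; fin_cases i <;> first | (simp [bx9]; done) | exact absurd hi (by decide))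
  have r3 := rt 3 C (by intro i hi; fin_cases i <;> first | (simp [bx9]; done) | exact absurd hi (by decide))
  have r4 := rt 4 X (by intro i hi; fin_cases i <;> first | (simp [bx9]; done) | exact absurd hi (by decide))
  have r5 := rt 5 B (by intro i hi; fin_cases i <;> first | (simp [bx9]; done) | exact absurd hi (by decide))
  have r6 := rt 6 N (by intro i hi; fin_cases i <;> first | (simp [bx9]; done) | exact absurd hi (by decide))
  have r7 := rt 7 P (by intro i hi; fin_cases i <;> first | (simp [bx9]; done) | exact absurd hi (by decide))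
  have r8 := rt 8 F (by intro i hi; fin_cases i <;> first | (simp [bx9]; done) | exact absurd hi (by decide))
  rw [H.sum _ hm', gset9]
  simp only [Fin.sum_univ_succ]
  change φ 0 _ + (φ 1 _ + (φ 2 _ + (φ 3 _ + (φ 4 _ + (φ 5 _ + (φ 6 _ + (φ 7 _ + (φ 8 _ + 0)))))))) = _
  rw [r0, r1, r2, r3, r4, r5, r6, r7, r8]
  ring

/-! ### the core -/

/-- **facts of the two pins** for every tangent at a natural base point of the window -/
def Pins (R w0 s : ℝ) (ν : (Fin 12 → ℝ) → ℝ) : Prop :=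
  ∀ zz cc pp : ℝ, (∀ k, 0 < eL zz cc pp k ∧ eL zz cc pp k < R) → w0 < zz → zz < w0 + 1 →
    ∀ (h : ℕ → ℝ) (D : Set (Fin 12 → ℝ)) (lam : (Fin 12 → ℝ) → ℝ), (∀ l, 0 < h l) →
    Tendsto h atTop (𝓝 0) → IsTan (Leg monL R) D ν (fun _ => eL zz cc pp) h lam → LM ⊆ D →
    ∀ rz rX rH rF gC gP gE gB gD : ℝ, LinM lam rz rX rH rF gC gP gE gB gD → 1 - s ≤ rz →
    gC ≤ rX ∧ gP ≤ rF ∧ gD ≤ gE

/-- **the row** from the data at one generic point -/
theorem row {c s q0 q1 ε δ : ℝ} (h0 : 0 < ε) (hq0 : 0 ≤ q0) (hq1 : 0 ≤ q1) {r : Fin 9 → ℝ}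
    (hr0 : ∀ k, 0 ≤ r k) (b1 : r 1 ≤ 1) (b2 : r 2 ≤ 1) (b3 : r 3 ≤ 2) (b4 : r 4 ≤ 2)
    (b5 : r 5 ≤ 2) (b6 : r 6 ≤ 1) (b7 : r 7 ≤ 1) (b8 : r 8 ≤ 1) (own : 1 - s ≤ r 0)
    (p1 : r 3 ≤ r 4) (p2 : r 7 ≤ r 8) (p3 : r 1 ≤ r 2)
    (hD : -∑ k, r k * bv ε k ≤
      -((c - 4 + s) + (3 + q0) * (1 / 2 + ε) + (1 + q1) * (1 / 2 + 3 * ε)) + 2 * δ) :
    c + (q0 + q1) / 2 ≤ 1 + 18 * ε + 2 * δ := by
  have e : ∑ k, r k * bv ε k = -r 0 + r 1 * (1 / 2 + ε) + r 2 * (-(1 / 2) + ε) +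
      r 3 * (1 / 2 + ε) + r 4 * (-(1 / 2) + ε) + r 5 * (2 * ε) + r 6 * (2 * ε) +
      r 7 * (1 / 2 + 3 * ε) + r 8 * (-(1 / 2) + 3 * ε) := by
    simp only [Fin.sum_univ_succ]
    change r 0 * (-1) + (r 1 * (1 / 2 + ε) + (r 2 * (-(1 / 2) + ε) + (r 3 * (1 / 2 + ε) +
      (r 4 * (-(1 / 2) + ε) + (r 5 * (2 * ε) + (r 6 * (2 * ε) + (r 7 * (1 / 2 + 3 * ε) +
      (r 8 * (-(1 / 2) + 3 * ε) + 0)))))))) = _
    ring
  rw [e] at hD
  have m1 := mul_le_mul_of_nonneg_right b1 h0.le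
  have m2 := mul_le_mul_of_nonneg_right b2 h0.le
  have m3 := mul_le_mul_of_nonneg_right b3 h0.le
  have m4 := mul_le_mul_of_nonneg_right b4 h0.le
  have m5 := mul_le_mul_of_nonneg_right b5 h0.le
  have m6 := mul_le_mul_of_nonneg_right b6 h0.le
  have m7 := mul_le_mul_of_nonneg_right b7 h0.le
  have m8 := mul_le_mul_of_nonneg_right b8 h0.le
  have n0 := mul_nonneg hq0 h0.le
  have n1 := mul_nonneg hq1 h0.le
  nlinarith

/-- **core**: `ν(x0) ≥ c₀ + DN` at the record point, `ν ≤ c₀ + DN` at one point of the segment,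
the segment lies in the interior of the legal set. -/
theorem core {R w0 sa sb v0 a0 b0 c s q0 q1 θa θb c₀ ε K t0 : ℝ} {ν : (Fin 12 → ℝ) → ℝ}
    (h0 : 0 < ε) (h1 : ε ≤ 1 / 100) (hq0 : 0 ≤ q0) (hq1 : 0 ≤ q1) (hK : 0 ≤ K)
    (hν : ∀ p ∈ Leg monL R, ∀ q ∈ Leg monL R, |ν p - ν q| ≤ K * ‖p - q‖)
    (hm : ∀ p ∈ Leg monL R, ∀ q ∈ Leg monL R, p ≤ q → ν q ≤ ν p ∧ ν p - ν q ≤ ∑ i, (q i - p i))
    (hs : ∀ p ∈ Leg monL R, ∀ q ∈ Leg monL R, p ⊓ q ∈ Leg monL R →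
      ν p + ν q ≤ ν (p ⊔ q) + ν (p ⊓ q))
    (hown : ∀ p ∈ Leg monL R, ∀ q ∈ Leg monL R, p ≤ q → w0 ≤ p 0 → q 0 ≤ w0 + 1 →
      (1 - s) * (q 0 - p 0) ≤ ν p - ν q)
    (ht0 : 0 < t0)
    (hin : ∀ t, 0 < t → t ≤ t0 → (∀ k,
      0 < nb w0 sa sb (v0 - t) (a0 + (1 / 2 + ε) * t) (b0 + (1 / 2 + 3 * ε) * t) k ∧
      nb w0 sa sb (v0 - t) (a0 + (1 / 2 + ε) * t) (b0 + (1 / 2 + 3 * ε) * t) k < R) ∧
      0 < v0 - t ∧ v0 - t < 1)
    (hx : nb w0 sa sb v0 a0 b0 ∈ Leg monL R)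
    (hrec : c₀ + DN c s q0 q1 θa θb v0 a0 b0 ≤ ν (nb w0 sa sb v0 a0 b0))
    (hdm : ν (nb w0 sa sb (v0 - t0) (a0 + (1 / 2 + ε) * t0) (b0 + (1 / 2 + 3 * ε) * t0)) ≤
      c₀ + DN c s q0 q1 θa θb (v0 - t0) (a0 + (1 / 2 + ε) * t0) (b0 + (1 / 2 + 3 * ε) * t0))
    (pins : Pins R w0 s ν) : c + (q0 + q1) / 2 ≤ 1 + 18 * ε := by
  classical
  set x0 := nb w0 sa sb v0 a0 b0 with hx0
  set κ : ℝ := -((c - 4 + s) + (3 + q0) * (1 / 2 + ε) + (1 + q1) * (1 / 2 + 3 * ε)) with hκ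
  -- it suffices to lose `2 δ`
  refine le_of_forall_pos_le_add fun δ' hδ' => ?_
  set δ : ℝ := δ' / 2 with hδd
  have hδ : 0 < δ := by positivity
  have e2δ : 2 * δ = δ' := by rw [hδd]; ring
  rw [← e2δ]
  -- the interior
  set Ω : Set (ℝ × ℝ) := {z | (∀ k, 0 < XX x0 aA (bA ε) z k ∧ XX x0 aA (bA ε) z k < R) ∧
    w0 < XX x0 aA (bA ε) z 0 ∧ XX x0 aA (bA ε) z 0 < w0 + 1} with hΩ
  have hXc : Continuous fun z => XX x0 aA (bA ε) z := Crest.Agent.R136.Dg262.X_cont _ _ _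
  have hΩo : IsOpen Ω := by
    have hk : ∀ k, Continuous fun z => XX x0 aA (bA ε) z k := fun k => (continuous_apply k).comp hXc
    have e : Ω = (⋂ k, ({z | 0 < XX x0 aA (bA ε) z k} ∩ {z | XX x0 aA (bA ε) z k < R})) ∩
        ({z | w0 < XX x0 aA (bA ε) z 0} ∩ {z | XX x0 aA (bA ε) z 0 < w0 + 1}) := by
      ext z
      simp only [hΩ, Set.mem_ofPred_eq, Set.mem_inter_iff, Set.mem_iInter]
    rw [e]
    exact (isOpen_iInter_of_finite fun k => (isOpen_lt continuous_const (hk k)).inter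
      (isOpen_lt (hk k) continuous_const)).inter
      ((isOpen_lt continuous_const (hk 0)).inter (isOpen_lt (hk 0) continuous_const))
  have hseg : ∀ t, 0 < t → t ≤ t0 → ((0 : ℝ), t) ∈ Ω := by
    intro t h2 h3
    obtain ⟨i1, i2, i3⟩ := hin t h2 h3
    have e : XX x0 aA (bA ε) ((0 : ℝ), t) =
        nb w0 sa sb (v0 - t) (a0 + (1 / 2 + ε) * t) (b0 + (1 / 2 + 3 * ε) * t) := by
      rw [hx0, X_nat]
      congr 1 <;> ring
    refine ⟨fun k => by rw [e]; exact i1 k, ?_, ?_⟩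
    · rw [e, nb_z]; linarith
    · rw [e, nb_z]; linarith
  have hΩO : ∀ z ∈ Ω, z ∈ (mw monL).O (fun _ => 0) (fun _ => R) x0 aA (bA ε) :=
    fun z hz => mem_O hz.1
  have hΩL : ∀ z ∈ Ω, XX x0 aA (bA ε) z ∈ Leg monL R := fun z hz => by
    have := Crest.Agent.R136.Dg219.Walls.X_mem _ (hΩO z hz)
    rwa [Crest.Agent.R136.Dg219.mw_P] at this
  -- the two end points
  set K' : ℝ := K * ‖bA ε‖ + |κ| with hK'
  have hK'0 : 0 ≤ K' := by positivity
  set t1 : ℝ := t0 * (δ / (2 * (K' + δ))) with ht1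
  have ht1p : 0 < t1 := by positivity
  have hfr : K' * (δ / (2 * (K' + δ))) ≤ δ / 2 := by
    rw [← mul_div_assoc, div_le_div_iff₀ (by positivity) two_pos]
    nlinarith
  have hfr2 : δ / (2 * (K' + δ)) ≤ 1 / 2 := by
    rw [div_le_div_iff₀ (by positivity) two_pos]
    nlinarith
  have ht1h : t1 ≤ t0 / 2 := by
    rw [ht1]
    have := mul_le_mul_of_nonneg_left hfr2 ht0.le
    linarith
  have ht1K : K' * t1 ≤ δ * (t0 - t1) := by
    have e1 : K' * t1 = t0 * (K' * (δ / (2 * (K' + δ)))) := by rw [ht1]; ring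
    have e2 := mul_le_mul_of_nonneg_left hfr ht0.le
    have e3 : δ * t1 ≤ δ * (t0 / 2) := mul_le_mul_of_nonneg_left ht1h hδ.le
    rw [e1]
    linarith
  have ht10 : 0 < t0 - t1 := by linarith
  have eX : ∀ t : ℝ, XX x0 aA (bA ε) ((0 : ℝ), t) = x0 + t • bA ε := by
    intro t
    funext k
    unfold Crest.Agent.R136.Dg262.X
    simp only [Pi.add_apply, Pi.smul_apply, smul_eq_mul]
    ring
  have eN : ∀ t : ℝ, XX x0 aA (bA ε) ((0 : ℝ), t) =
      nb w0 sa sb (v0 - t) (a0 + (1 / 2 + ε) * t) (b0 + (1 / 2 + 3 * ε) * t) := by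
    intro t
    rw [hx0, X_nat]
    congr 1 <;> ring
  have m1 : XX x0 aA (bA ε) ((0 : ℝ), t1) ∈ Leg monL R :=
    hΩL _ (hseg t1 ht1p (by linarith))
  have hν1 : ν x0 - K * ‖bA ε‖ * t1 ≤ ν (XX x0 aA (bA ε) ((0 : ℝ), t1)) := by
    have h2 := hν _ hx _ m1
    have e1 : x0 - XX x0 aA (bA ε) ((0 : ℝ), t1) = -(t1 • bA ε) := by
      rw [eX]; abel
    rw [e1, norm_neg, norm_smul, Real.norm_eq_abs, abs_of_pos ht1p] at h2
    have h3 := (abs_le.1 h2).2
    nlinarith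
  have hDN : DN c s q0 q1 θa θb (v0 - t0) (a0 + (1 / 2 + ε) * t0) (b0 + (1 / 2 + 3 * ε) * t0) =
      DN c s q0 q1 θa θb v0 a0 b0 + κ * t0 := by
    rw [hκ]
    unfold DN
    ring
  rw [hDN, ← eN] at hdm
  set F : ℝ × ℝ → ℝ := fun z => -ν (XX x0 aA (bA ε) z) with hF
  have hκa := abs_nonneg κ
  have hκb := neg_abs_le κ
  have hinc : -(κ + δ) * (t0 - t1) ≤ F (((0 : ℝ), t1) + (t0 - t1) • ((0 : ℝ), (1 : ℝ))) -
      F ((0 : ℝ), t1) := by
    have e1 : ((0 : ℝ), t1) + (t0 - t1) • ((0 : ℝ), (1 : ℝ)) = ((0 : ℝ), t0) := by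
      ext
      · simp
      · simp
    rw [e1]
    show -(κ + δ) * (t0 - t1) ≤ -ν (XX x0 aA (bA ε) ((0 : ℝ), t0)) -
      -ν (XX x0 aA (bA ε) ((0 : ℝ), t1))
    have e2 : K' * t1 = K * ‖bA ε‖ * t1 + |κ| * t1 := by rw [hK']; ring
    have e3 : -(|κ| * t1) ≤ κ * t1 := by
      have := mul_le_mul_of_nonneg_right hκb ht1p.le
      linarith
    have e4 : κ * t1 ≤ |κ| * t1 := mul_le_mul_of_nonneg_right (le_abs_self κ) ht1p.le
    nlinarith
  -- a neighbourhood of the segment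
  obtain ⟨η, hη, hsub⟩ : ∃ η : ℝ, 0 < η ∧
      ∀ t ∈ Set.Icc 0 (t0 - t1), Metric.ball (((0 : ℝ), t1) + t • ((0 : ℝ), (1 : ℝ))) η ⊆ Ω := by
    have hc : IsCompact ((fun t : ℝ => ((0 : ℝ), t)) '' Set.Icc t1 t0) :=
      isCompact_Icc.image (by fun_prop)
    obtain ⟨η, hη, hth⟩ := hc.exists_thickening_subset_open hΩo (by
      rintro _ ⟨t, ht, rfl⟩
      exact hseg t (lt_of_lt_of_le ht1p ht.1) ht.2)
    refine ⟨η, hη, fun t ht x hx' => hth ?_⟩
    rw [Metric.mem_thickening_iff]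
    refine ⟨((0 : ℝ), t1 + t), ⟨t1 + t, ⟨by linarith [ht.1], by linarith [ht.2]⟩, rfl⟩, ?_⟩
    have e1 : ((0 : ℝ), t1) + t • ((0 : ℝ), (1 : ℝ)) = ((0 : ℝ), t1 + t) := by
      ext
      · simp
      · simp
    rw [e1] at hx'
    exact Metric.mem_ball.1 hx'
  -- Lipschitz
  obtain ⟨K1, hK1⟩ : ∃ K1 : NNReal, (K1 : ℝ) = K := ⟨⟨K, hK⟩, rfl⟩
  have hlip : LipschitzOnWith (K1 * (‖aA‖₊ + ‖bA ε‖₊)) F Ω := by
    refine LipschitzOnWith.of_dist_le_mul fun z hz z' hz' => ?_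
    have h2 := hν _ (hΩL z hz) _ (hΩL z' hz')
    have h3 := (Crest.Agent.R136.Dg219.X_lip x0 aA (bA ε)).dist_le_mul z z'
    rw [dist_eq_norm] at h3
    rw [Real.dist_eq]
    have e1 : F z - F z' = -(ν (XX x0 aA (bA ε) z) - ν (XX x0 aA (bA ε) z')) := by
      simp only [hF]; ring
    rw [e1, abs_neg]
    refine h2.trans ?_
    rw [NNReal.coe_mul, hK1, mul_assoc]
    exact mul_le_mul_of_nonneg_left h3 hK
  -- the generic point
  have hae := leg_out monL (R := R) (ν := ν) hK hν hm hs (x0 := x0) (dirA h0 h1)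
    (s := 1) (t := 0) (by
      intro i
      rw [aA_grp, aA_ix]
      generalize grp9 i = k
      fin_cases k <;> simp [av])
  obtain ⟨z, hzN, hzΩ, -, hdiff, hle⟩ := Crest.Agent.R116.Sg388.exists_rate_on
    (μ := (MeasureTheory.volume : MeasureTheory.Measure (ℝ × ℝ))) hlip
    (p := ((0 : ℝ), t1)) (v := ((0 : ℝ), (1 : ℝ))) (y := t0 - t1) (a := -(κ + δ)) (δ := δ)
    (η := η) ht10 hη hsub hinc hδ (N := {z | z ∈ (mw monL).O (fun _ => 0) (fun _ => R) x0 aA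
      (bA ε) → ∃ D : ℝ × ℝ →L[ℝ] ℝ,
      HasFDerivAt (fun z => ν (XX x0 aA (bA ε) z)) D z ∧
      ∀ (h : ℕ → ℝ), (∀ l, 0 < h l) → Tendsto h atTop (𝓝 0) → ∀ lam : (Fin 12 → ℝ) → ℝ,
        IsTan (Leg monL R) ((mw monL).L x0 aA (bA ε)) ν (fun _ => XX x0 aA (bA ε) z) h lam →
        ∃ (φ : Fin 9 → (Fin 12 → ℝ) → ℝ) (r : Fin 9 → ℝ),
          Out grp9 ((mw monL).L x0 aA (bA ε)) (fun _ => 1) (n9 ε) lam (D (1, 0), D (0, 1)) φ r})
    hae
  have hzO := hΩO z hzΩ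
  obtain ⟨DD, hDD, hout⟩ := hzN hzO
  have hDle : DD ((0 : ℝ), (1 : ℝ)) ≤ κ + 2 * δ := by
    have e1 : fderiv ℝ F z = -DD := by
      have := hDD.neg.fderiv
      exact this
    rw [e1, neg_apply] at hle
    linarith
  obtain ⟨ψ, hψ, lam, ht⟩ := leg_tan monL (R := R) hK hν hzO
    (h := fun l : ℕ => 1 / ((l : ℝ) + 1)) (fun l => by positivity)
    tendsto_one_div_add_atTop_nhds_zero_nat
  set hh : ℕ → ℝ := fun l => 1 / (((ψ l : ℕ) : ℝ) + 1) with hhh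
  have hhp : ∀ l, 0 < hh l := fun l => by positivity
  have hh0 : Tendsto hh atTop (𝓝 0) :=
    tendsto_one_div_add_atTop_nhds_zero_nat.comp hψ.tendsto_atTop
  obtain ⟨φ, r, H⟩ := hout hh hhp hh0 lam ht
  have hL := LM_L x0 aA (bA ε)
  have hlin := linM_of H hL
  -- own rate
  have hown0 : 1 - s ≤ r 0 := by
    have k1 : bx9 1 0 0 0 0 0 0 0 0 ∈ LM := by
      have := leg_LM 1 ((stG_live (t := 1) zero_le_one).single_leg (y := 1) zero_le_one le_rfl)
      rwa [single_eq] at this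
    have k0 : bx9 0 0 0 0 0 0 0 0 0 ∈ LM := by
      have := leg_LM 1 ((stG_live (t := 1) zero_le_one).single_leg (y := 0) le_rfl zero_le_one)
      rwa [single_eq] at this
    have l1 := hlin _ _ _ _ _ _ _ _ _ k1
    have l0 := hlin _ _ _ _ _ _ _ _ _ k0
    have hz1 : 0 < w0 + 1 - XX x0 aA (bA ε) z 0 := by linarith [hzΩ.2.2]
    have key := Crest.Agent.R116.SgZ388.tan_incr_ge hhp hh0 ht (hL k0) (hL k1) (A := 1 - s) hz1 (by
      filter_upwards [Crest.Agent.R116.SgO219.tan_ev ht (hL k0),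
        Crest.Agent.R116.SgO219.tan_ev ht (hL k1)] with l g0 g1 hl
      have h2 := hown _ g0 _ g1 (fun i => by
        simp only [Pi.add_apply, Pi.smul_apply, smul_eq_mul]
        have : bx9 0 0 0 0 0 0 0 0 0 i ≤ bx9 1 0 0 0 0 0 0 0 0 i := by
          fin_cases i <;> simp [bx9]
        have := mul_le_mul_of_nonneg_left this (hhp l).le
        linarith) (by
          simp only [Pi.add_apply, Pi.smul_apply, smul_eq_mul]
          have : bx9 0 0 0 0 0 0 0 0 0 0 = 0 := rfl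
          rw [this]
          linarith [hzΩ.2.1]) (by
          simp only [Pi.add_apply, Pi.smul_apply, smul_eq_mul]
          have : bx9 1 0 0 0 0 0 0 0 0 0 = 1 := rfl
          rw [this]
          linarith)
      have e1 : (XX x0 aA (bA ε) z + hh l • bx9 1 0 0 0 0 0 0 0 0) 0 -
          (XX x0 aA (bA ε) z + hh l • bx9 0 0 0 0 0 0 0 0 0) 0 = hh l := by
        simp only [Pi.add_apply, Pi.smul_apply, smul_eq_mul]
        have a1 : bx9 1 0 0 0 0 0 0 0 0 0 = 1 := rfl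
        have a0 : bx9 0 0 0 0 0 0 0 0 0 0 = 0 := rfl
        rw [a1, a0]
        ring
      rw [e1] at h2
      exact h2)
    rw [l1, l0] at key
    linarith
  -- the facts
  have hXz := X_nat w0 sa sb v0 a0 b0 ε z
  rw [← hx0] at hXz
  have hp := pins (w0 + (v0 + (z.1 - z.2))) (sa + (a0 + (z.1 + (1 / 2 + ε) * z.2)))
    (sb + (b0 + (6 * z.1 + (1 / 2 + 3 * ε) * z.2))) (by
      intro k
      have := hzΩ.1 k
      rw [hXz] at this
      exact this) (by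
      have := hzΩ.2.1
      rw [hXz, nb_z] at this
      exact this) (by
      have := hzΩ.2.2
      rw [hXz, nb_z] at this
      exact this) hh ((mw monL).L x0 aA (bA ε)) lam hhp hh0 (by
      have := ht
      rw [hXz] at this
      exact this) hL _ _ _ _ _ _ _ _ _ hlin hown0
  obtain ⟨p1, p2, p3⟩ := hp
  -- bounds of the rates
  have bd : ∀ k, r k ≤ ((Finset.univ.filter fun i => grp9 i = k).card : ℝ) := by
    intro k
    have := H.r_le k
    simpa using this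
  have b1 := bd 1
  have b2 := bd 2
  have b3 := bd 3
  have b4 := bd 4
  have b5 := bd 5
  have b6 := bd 6
  have b7 := bd 7
  have b8 := bd 8
  have c1 : (Finset.univ.filter fun i => grp9 i = 1).card = 1 := by decide
  have c2 : (Finset.univ.filter fun i => grp9 i = 2).card = 1 := by decide
  have c3 : (Finset.univ.filter fun i => grp9 i = 3).card = 2 := by decide
  have c4 : (Finset.univ.filter fun i => grp9 i = 4).card = 2 := by decide
  have c5 : (Finset.univ.filter fun i => grp9 i = 5).card = 2 := by decide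
  have c6 : (Finset.univ.filter fun i => grp9 i = 6).card = 1 := by decide
  have c7 : (Finset.univ.filter fun i => grp9 i = 7).card = 1 := by decide
  have c8 : (Finset.univ.filter fun i => grp9 i = 8).card = 1 := by decide
  rw [c1] at b1
  rw [c2] at b2
  rw [c3] at b3
  rw [c4] at b4
  rw [c5] at b5
  rw [c6] at b6
  rw [c7] at b7
  rw [c8] at b8
  norm_num at b1 b2 b3 b4 b5 b6 b7 b8
  refine row h0 hq0 hq1 H.r_nonneg b1 b2 b3 b4 b5 b6 b7 b8 hown0 p1 p2 p3 ?_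
  have htot := H.total ((0 : ℝ), (1 : ℝ))
  rw [gset9] at htot
  have e1 : lf (DD (1, 0), DD (0, 1)) ((0 : ℝ), (1 : ℝ)) = DD (0, 1) := by simp [lf]
  have e2 : ∀ k, r k * lf (n9 ε k) ((0 : ℝ), (1 : ℝ)) = r k * bv ε k := by
    intro k
    have : lf (n9 ε k) ((0 : ℝ), (1 : ℝ)) = bA ε (ix9 k) := by simp [lf, n9]
    rw [this, bA_ix]
  rw [e1, Finset.sum_congr rfl fun k _ => e2 k] at htot
  rw [← htot]
  exact hDle

end Crest.Agent.R116.Ap954
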