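import Crest.Agent.R116.Ap1_954

/-!
# R116, K side, `s < 1/2`: `c + (q_a + q_b) / 2 ≤ 1` from the contexts (helper954)

* `apriori_ext` : from 196's `ExtQ` of the light chart, invisible flags.
* **`apriori_T`**, **`apriori_R`** : from 468's contexts; `s_lt_half_T`, `s_lt_half_R`.

The only open input is `Pins R w0 s ν` (facts of the two pins at natural base points).
-/

set_option autoImplicit false
set_option linter.unusedVariables false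
set_option linter.unusedSectionVars false

open Filter Topology

namespace Crest.Agent.R116.Ap954

open Finset
open Crest.Agent.R138.Defs (E2)
open Crest.Agent.R138.Ex926 (Base U IsTan)
open Crest.Agent.R136.MkA627
open Crest.Agent.R136.Net191 Crest.Agent.R136.Lq196
open Crest.Agent.R116.LZg725
open Crest.Agent.R116.ChL222 Crest.Agent.R116.PL504
open Crest.Agent.R116.Gd222 (TSet sN PDL DT vb)
open Crest.Agent.R116.KI439
open Crest.Agent.R116.KF439 (PL Thin frF flF scN)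
open Crest.Agent.R116.Tw468 Crest.Agent.R116.CtxB468

theorem eL_pos {z c p : ℝ} (hz : 0 < z) (hc : 0 < c) (hD : 0 < p - 2 * c - z) (k : Fin 12) :
    0 < eL z c p k := by
  fin_cases k <;> simp [eL] <;> linarith

/-- **`c + (q_a + q_b) / 2 ≤ 1`**, abstract `ExtQ` -/
theorem apriori_ext {B : Base} {I0 I' : ℕ → Finset (ℕ × ℝ)}
    {co : ∀ n : ℕ, ℕ × ℝ → ℕ × ℝ → Fin 12 → ℝ} {C R w0 sa sb δ Rg κ0 g s : ℝ} {θ q : Fin 2 → ℝ}
    {o : ℝ → Fin 12 → ℝ} {T : Fin 12 → Prop} {ν own : (Fin 12 → ℝ) → ℝ} {c₀ : ℝ}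
    (h : ExtQ B I0 I' co monL C R 0 w0 s (PDL w0 sa sb Rg 0 κ0 R) (DT g s q θ w0 sa sb)
      (rL (θ 0) (θ 1) w0 sa sb) o (EL θ g s q) T ν own c₀)
    (sh : Shift (θ 0) (θ 1) w0 sa sb δ R) (hoz : ∀ v, o v 0 = w0 + v)
    (ho : ∀ v k, k ≠ 0 → o v k = R) (hRg : 0 < Rg) (hθ : 0 < θ 0) (h0R : θ 0 ≤ Rg)
    (h1R : |θ 1| ≤ Rg) (hκ : θ 0 ≤ θ 1 + 2 * κ0) (hq0 : 0 ≤ q 0) (hq1 : 0 ≤ q 1)
    (pins : Pins R w0 s ν) : g + (q 0 + q 1) / 2 ≤ 1 := by
  have hδ := sh.d0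
  have hRp : 0 ≤ R := hδ.le.trans sh.R_pos
  have hN := WinU954.nprof_of_ext hRp h
  -- it suffices to lose `18 ε`
  refine le_of_forall_pos_le_add fun d hd => ?_
  set ε : ℝ := min (1 / 100) (d / 18) with hε
  have e0 : 0 < ε := lt_min (by norm_num) (by positivity)
  have e1 : ε ≤ 1 / 100 := min_le_left _ _
  have e2 : 18 * ε ≤ d := by
    have := min_le_right (1 / 100 : ℝ) (d / 18)
    rw [← hε] at this
    linarith
  refine le_trans ?_ (show 1 + 18 * ε ≤ 1 + d by linarith)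
  set t0 : ℝ := min (1 / 4) (min (δ / 16) (Rg / 2)) with ht0
  have t0p : 0 < t0 := lt_min (by norm_num) (lt_min (by positivity) (by positivity))
  have t04 : t0 ≤ 1 / 4 := min_le_left _ _
  have t0R : t0 ≤ Rg / 2 := (min_le_right _ _).trans (min_le_right _ _)
  have bz : δ ≤ w0 := sh.z
  have bc := sh.bc (v := 1 / 2) (by norm_num) (by norm_num)
  have bD := sh.bD (v := 1 / 2) (by norm_num) (by norm_num)
  have bR := sh.bR (v := 1 / 2) (by norm_num) (by norm_num)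
  have pos : ∀ t : ℝ, 0 ≤ t → t ≤ t0 → 0 < w0 + (1 / 2 - t) ∧
      0 < sa + (θ 0 * (1 - 1 / 2) + (1 / 2 + ε) * t) ∧
      0 < (sb + (θ 1 * (1 - 1 / 2) + (1 / 2 + 3 * ε) * t)) -
        2 * (sa + (θ 0 * (1 - 1 / 2) + (1 / 2 + ε) * t)) - (w0 + (1 / 2 - t)) := by
    intro t h1 h2
    have h3 : 0 ≤ ε * t := mul_nonneg e0.le h1
    refine ⟨by linarith, by linarith, by linarith⟩
  have mem : ∀ t : ℝ, 0 ≤ t → t ≤ t0 → nb w0 sa sb (1 / 2 - t)
      (θ 0 * (1 - 1 / 2) + (1 / 2 + ε) * t) (θ 1 * (1 - 1 / 2) + (1 / 2 + 3 * ε) * t) ∈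
      Leg monL R := by
    intro t h1 h2
    obtain ⟨p1, p2, p3⟩ := pos t h1 h2
    have h3 : ε * t ≤ 1 / 100 * t := mul_le_mul_of_nonneg_right e1 h1
    exact nb_leg.2 ⟨p1.le, p2.le, p3.le, by linarith⟩
  have ab0 := abs_le.1 h1R
  refine core (K := ((12 : ℕ) : ℝ)) (v0 := 1 / 2) (a0 := θ 0 * (1 - 1 / 2))
    (b0 := θ 1 * (1 - 1 / 2)) (c₀ := c₀) (θa := θ 0) (θb := θ 1) (sa := sa) (sb := sb) (t0 := t0)
    e0 e1 hq0 hq1 (by positivity) hN.lip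
    (fun p hp q hq hpq => ⟨hN.anti p hp q hq hpq, hN.sharp p hp q hq hpq⟩) hN.submod ?_ t0p
    ?_ ?_ ?_ ?_ pins
  · intro p hp p' hp' hpp h1 h2
    have k1 := hpp 0
    have key := own_inc h hp hp' hpp (v := p 0 - w0) (v' := p' 0 - w0) (by linarith) (by linarith)
      (by linarith) (by linarith) (by ring) (by ring) (by
        intro k
        by_cases hk : k = 0
        · subst hk
          rw [hoz]
          linarith
        · rw [ho _ _ hk]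
          exact hp.2 k)
    have : (1 - s) * (p' 0 - w0 - (p 0 - w0)) = (1 - s) * (p' 0 - p 0) := by ring
    linarith
  · intro t h1 h2
    obtain ⟨p1, p2, p3⟩ := pos t h1.le h2
    have h3 : ε * t ≤ 1 / 100 * t := mul_le_mul_of_nonneg_right e1 h1.le
    refine ⟨fun k => ⟨eL_pos p1 p2 p3 k, ?_⟩, by linarith, by linarith⟩
    refine lt_of_le_of_lt (eL_le p1.le p2.le p3.le le_rfl k) ?_
    linarith
  · have := mem 0 le_rfl t0p.le
    simpa using this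
  · have h1 := h.record (1 / 2) (by norm_num) (by norm_num)
    rw [rL_nb, EL_DN] at h1
    exact h1
  · have hl := mem t0 t0p.le le_rfl
    have h3 : ε * t0 ≤ 1 / 100 * t0 := mul_le_mul_of_nonneg_right e1 t0p.le
    have h4 : 0 ≤ ε * t0 := mul_nonneg e0.le t0p.le
    have hp := nb_PD (Rg := Rg) (k0 := κ0) hl (by linarith) (by linarith) (by linarith)
      (by linarith) (by rw [abs_lt]; constructor <;> linarith) (by linarith)
    have h1 := h.dmax _ hp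
    rw [DT_nb] at h1
    exact h1

section ctx

variable {G : Geo TSet (Fin 2)} {L : ℕ → ℕ → LRay} {r : ℕ → ℝ} {g s : ℝ} {θ q : Fin 2 → ℝ}
    {Rg : ℝ} {a : Fin 2} {B : Base}
    {I : ℕ → Finset (ℕ × ℝ)} {lev : ℕ → ℚ → ℕ} {A : ℕ → ℝ}
    {f : ℕ → ℚ → ℕ → ℤ → ℕ} {b : ℕ → ℚ → ℕ → TSet} {vm : ℕ → ℚ → ℝ} {w : Fin 2 → ℕ → ℚ → ℝ}
    {fr : ℕ → ℚ → ℕ × ℝ → LInc} {fl : ℕ → ℕ × ℝ → LInc} {sc : Fin 12 → ℕ → ℝ}
    {w0 sa sb δ R : ℝ} {I0 I' : ℕ → Finset (ℕ × ℝ)} {ν own : (Fin 12 → ℝ) → ℝ} {c₀ : ℝ}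

/-- **a priori bound, thin case, nothing visible** (`g` of the context is `c = 2 s + g`) -/
theorem apriori_T
    (h : CtxT G L r g s θ q Rg B I lev A f b vm w fr fl sc w0 sa sb δ R I0 I' ν own c₀)
    (ho : ∀ (v : ℝ) (k : Fin 12), k ≠ 0 → oL (θ 0) (θ 1) w0 sa sb R (VisT B I fl sc) v k = R)
    (hθ : 0 < θ 0) (h0R : θ 0 ≤ Rg) (h1R : |θ 1| ≤ Rg) (hq0 : 0 ≤ q 0) (hq1 : 0 ≤ q 1)
    (pins : Pins R w0 s ν) : g + (q 0 + q 1) / 2 ≤ 1 :=
  apriori_ext (h.extK (|θ 0| + |θ 1|)) h.sh (fun v => oz _ v) ho h.Rg0 hθ h0R h1R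
    (by linarith [le_abs_self (θ 0), neg_abs_le (θ 1), abs_nonneg (θ 0), abs_nonneg (θ 1)])
    hq0 hq1 pins

/-- **a priori bound, round case** -/
theorem apriori_R
    (h : CtxR G L r g s θ q Rg a B I lev A f b vm w w0 sa sb δ R I0 I' ν own c₀)
    (hθ : 0 < θ 0) (hθ1 : θ 0 ≤ θ 1) (h0R : θ 0 ≤ Rg) (h1R : |θ 1| ≤ Rg) (hq0 : 0 ≤ q 0)
    (hq1 : 0 ≤ q 1) (pins : Pins R w0 s ν) : g + (q 0 + q 1) / 2 ≤ 1 :=
  apriori_ext h.ext h.sh (fun v => oz _ v) (fun v k hk => oR hk hk v) h.Rg0 hθ h0R h1R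
    (by linarith) hq0 hq1 pins

end ctx

/-- the form of the rows: `g` of the context is `g + 2 s`, `0 < g` -/
theorem s_lt_half {g s q0 q1 : ℝ} (hg : 0 < g) (hq0 : 0 ≤ q0) (hq1 : 0 ≤ q1)
    (h : (g + 2 * s) + (q0 + q1) / 2 ≤ 1) : s < 1 / 2 := by linarith

end Crest.Agent.R116.Ap954
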