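import Crest.Agent.R116.IIr1_460

/-!
# R116, K-TEXT II-c v3, part C (ties): the final statements (helper460)

`eTie_false`, `kTie_false` (also `D`-ties), `dTie_false` (double tie).  Every plane which is not the
side `T⁻` below the record is asked for only in the range of parameters where it is used.
-/

set_option autoImplicit false

namespace Crest.Agent.R116.Tie460

variable {k k' θ s c qa qb : ℝ} {A : Pl}

/-- facts of a half plane of an `e`-tie plane `b = a + k v`.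
`k = 1` (`C_b ∥ X`): `x` = loss of `X` at `C_b` fine, `r` = rate of `C_b` at `X` coarse;
`k = 1/2` (`C_b ∥ H`): `r` at `H` coarse, `h` at `C_b` fine. -/
structure EF (s k : ℝ) (S : Pl) : Prop where
  P : S.Pos
  kx : 0 < S.m → S.x ≤ s
  mn : 0 < S.m → S.n ≤ s
  mr : S.m ≤ S.r
  nx : 2 < k → S.n ≤ S.x
  FA : k < 1 → S.FanA s
  FB : k < 1 → S.FanB s

/-- facts of a half plane of a `κ`-tie (or `D`-tie) plane `b = 2 a + k v`.
`k = 1` (`X ∥ N ∥ E`, `C_b ∥ H`): `x` at `N, E` coarse, `w` at `X` fine, `N` coarse, `n` at `X, E`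
fine (order `X`, `E`, `N`), `h` at `C_b` coarse, `r` at `H` fine; `k = 2` (`C_b ∥ X`): any
representation; `k = 1/2` (`E ∥ H`): `w` at `H` coarse, `h` at `E` fine (or the other one).
All rates of one `Pl` may be taken at ONE generic point of the open half plane; only `m` and the
slots of `nz` are compared between two planes. -/
structure KF (s k : ℝ) (S : Pl) : Prop where
  P : S.Pos
  FA : S.FanA s
  mw : S.m ≤ S.w ∨ (k = 1 ∧ S.m ≤ s)
  nx : k ≠ 1 → 0 < S.w → S.n ≤ S.x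
  n1 : k = 1 → 0 < S.m → S.n ≤ s
  FB : k < 1 → S.FanB s

theorem KF.n_le (h : KF s k A) (hm : 0 < A.m) : A.n ≤ s := by
  by_cases hk : k = 1
  · exact h.n1 hk hm
  · rcases h.mw with hw | ⟨h1, _⟩
    · exact (h.nx hk (hm.trans_le hw)).trans (h.FA.kx hm)
    · exact absurd h1 hk

/-- `m ≤ s` on `T⁻` of a `κ`-plane -/
theorem exit_m (N : Num θ s c qa qb) (hk : 0 ≤ k) (h : KF s k A) (hd : k < 1 → A.d = 0)
    (tan : A.Tan c θ (2 * θ - k) qa qb) (ver : 0 ≤ A.Fa qa + 2 * A.Fb qb) (hm : qa ≤ A.m) :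
    A.m ≤ s := by
  have := N.hs; have := N.hc; have := N.ha; have := N.hb; have := N.hq; have P := h.P
  have := P.e0
  have hm0 : 0 < A.m := by linarith
  rcases h.mw with hw | ⟨_, h1⟩
  · by_contra hcon
    push Not at hcon
    have h5 := h.FA.fx hcon
    have h6 := h.FA.fh hcon
    have h := rowK (μ := 0) tan (lowμ ver N.hθ.le)
    rw [h5, h6] at h
    have h2 : 0 ≤ k * A.u := mul_nonneg hk P.u0
    have h3 : 0 ≤ k * (A.w - qb) := mul_nonneg hk (by linarith)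
    have h4 : 0 ≤ k * A.r := mul_nonneg hk P.r0
    have h7 : 0 ≤ (k - 1) * A.d := by
      rcases lt_or_ge k 1 with h8 | h8
      · rw [hd h8]; simp
      · exact mul_nonneg (by linarith) P.d0
    by_cases hk1 : k = 1
    · have h9 := (‹KF s k A›).n1 hk1 hm0
      subst hk1
      nlinarith
    · have h9 := (‹KF s k A›).nx hk1 (hm0.trans_le hw)
      have h10 : A.n = 0 := le_antisymm (by linarith) P.n0
      rw [h10] at h
      nlinarith
  · exact h1

/-! ### `e`-tie -/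

/-- side above, `k ≤ θ < 1/2`, with (NZ) -/
structure EUpNZ (k θ s c qa qb : ℝ) (A B : Pl) : Prop where
  F : EF s k B
  tan : B.Tan c θ (θ - k) qa qb
  ver : B.Fa qa + B.Fb qb ≤ 0
  ant : B.m ≤ A.m
  nz : B.n = 0 → (1 + k - θ) * A.n ≤ A.e + k * A.w + (k + θ) * A.u

/-- side above, `θ < k` (`θb < 0`) -/
structure EUp (k θ s c qa qb : ℝ) (A B : Pl) : Prop where
  F : EF s k B
  tan : B.Tan c θ (θ - k) qa qb
  ver : B.Fa qa + B.Fb qb ≤ 0
  ant : B.m ≤ A.m
  pos : qa ≤ B.m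

/-- **`e`-tie ⇒ False** -/
theorem eTie_false (N : Num θ s c qa qb) (hk : 0 < k) (F : EF s k A) (hd : k < 1 → A.d = 0)
    (tan : A.Tan c θ (θ - k) qa qb) (ver : 0 ≤ A.Fa qa + A.Fb qb) (hm : qa ≤ A.m)
    (nz : k ≤ θ → θ < 1 / 2 → ∃ B, EUpNZ k θ s c qa qb A B)
    (up : θ < k → θ < 1 / 2 ∨ θ < k / 2 →
      ∃ B, EUp k θ s c qa qb A B ∧ (k < 1 → B.d = 0)) : False := by
  have ha := N.ha
  have hm0 : 0 < A.m := by linarith
  rcases le_or_gt 1 k with h1 | h1
  · rcases le_or_gt (k / 2) θ with h2 | h2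
    · exact e_ge N h1 F.P (F.kx hm0) (F.mn hm0) F.mr F.nx tan (lowμ ver h2)
    · obtain ⟨B, hB, -⟩ := up (by linarith [N.hθ]) (Or.inr h2)
      have hB0 : 0 < B.m := by linarith [hB.pos]
      exact e_ge N h1 hB.F.P (hB.F.kx hB0) (hB.F.mn hB0) hB.F.mr hB.F.nx hB.tan
        (upμ hB.ver h2.le)
  · rcases le_or_gt (1 / 2) θ with h2 | h2
    · exact e_lt_a N hk.le h1 h2 F.P (F.FA h1) (F.FB h1) F.mr (hd h1) tan ver hm
    · rcases le_or_gt k θ with h3 | h3
      · obtain ⟨B, hB⟩ := nz h3 h2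
        exact e_lt_c N hk.le h3 h2 F.P hB.F.P (F.FA h1) (F.FB h1) (hB.F.FB h1) F.mr hB.F.mr
          (hd h1) tan ver hB.tan hB.ver hm hB.ant hB.nz
      · obtain ⟨hms, -⟩ := exits_e N hk.le F.P (F.FA h1) (F.FB h1) F.mr (by rw [hd h1]; simp)
          tan ver hm
        obtain ⟨B, hB, hBd⟩ := up h3 (Or.inl h2)
        have hB0 : 0 < B.m := by linarith [hB.pos]
        exact e_lt_b N h1 h3.le hB.F.P (hB.F.FB h1) hB.F.mr (by rw [hBd h1]; simp)
          ((hB.F.FA h1).kx hB0) ((hB.F.FA h1).kh hB0) (hB.ant.trans hms) hB0 hB.tan hB.ver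

/-! ### `κ`-tie and `D`-tie -/

/-- the plane `S₁` (offset `(1, 1)`, flags frozen at the record), `θ < k < 1` -/
structure S1 (k θ s c qa qb : ℝ) (A B : Pl) : Prop where
  P : B.Pos
  FB : B.FanB s
  dz : B.d = 0
  tan : B.Tan c θ (2 * θ - k) qa qb
  ver : B.x + 2 * B.h + B.n - B.m - B.r + qa + qb ≤ 0
  ant : B.m ≤ A.m
  nz : B.n = 0 → (1 + k - 2 * θ) * A.n ≤ A.e + (k - θ) * A.w + k * A.u

/-- side above, `2 θ < k` (`θb < 0`), `1 ≤ k` -/
structure KUp (k θ s c qa qb : ℝ) (B : Pl) : Prop where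
  F : KF s k B
  tan : B.Tan c θ (2 * θ - k) qa qb
  ver : B.Fa qa + 2 * B.Fb qb ≤ 0
  pos : qa ≤ B.m

/-- **`κ`-tie and `D`-tie ⇒ False** -/
theorem kTie_false (N : Num θ s c qa qb) (hk : 0 < k) (F : KF s k A) (hd : k < 1 → A.d = 0)
    (tan : A.Tan c θ (2 * θ - k) qa qb) (ver : 0 ≤ A.Fa qa + 2 * A.Fb qb) (hm : qa ≤ A.m)
    (sum : k ≤ θ → k < 1 → c + qa + qb ≤ A.m + A.r)
    (s1 : θ < k → k < 1 → ∃ B, S1 k θ s c qa qb A B)
    (up : 2 * θ < k → 1 ≤ k → ∃ B, KUp k θ s c qa qb B) : False := by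
  have ha := N.ha
  have hm0 : 0 < A.m := by linarith
  rcases le_or_gt 1 k with h1 | h1
  · rcases le_or_gt k (2 * θ) with h2 | h2
    · exact k_ge N h1 F.P (F.FA.kx hm0) (F.n_le hm0) F.mw tan (lowμ ver (by linarith))
    · obtain ⟨B, hB⟩ := up h2 h1
      have hB0 : 0 < B.m := by linarith [hB.pos]
      exact k_ge N h1 hB.F.P (hB.F.FA.kx hB0) (hB.F.n_le hB0) hB.F.mw hB.tan
        (upμ hB.ver (by linarith))
  · have hk1 : k ≠ 1 := h1.ne
    have mw : A.m ≤ A.w := by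
      rcases F.mw with h | ⟨h, _⟩
      · exact h
      · exact absurd h hk1
    rcases le_or_gt k θ with h2 | h2
    · obtain ⟨hms, hrs, -⟩ := exits_k N hk.le F.P F.FA (F.FB h1) mw (F.nx hk1)
        (by rw [hd h1]; simp) tan ver hm
      exact k_W N hms hrs (sum h2 h1)
    · obtain ⟨B, hB⟩ := s1 h2 h1
      exact k_S N h2 h1.le F.P hB.P F.FA (F.FB h1) hB.FB mw (F.nx hk1) (hd h1) hB.dz tan ver hm
        hB.tan hB.ver hB.ant hB.nz

/-! ### double tie: `κ`-plane below, `e`-plane above, `k' = k + θ` -/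

/-- side above, `k' < 1` -/
structure DUpNZ (k k' θ s c qa qb : ℝ) (A B : Pl) : Prop where
  P : B.Pos
  FB : B.FanB s
  dz : B.d = 0
  tan : B.Tan c θ (θ - k) qa qb
  ver : B.Fa qa + B.Fb qb ≤ 0
  ant : B.m ≤ A.m
  nz : B.n = 0 → (1 + k' - 2 * θ) * A.n ≤ A.e + (k' - θ) * A.w + k' * A.u

/-- **double tie ⇒ False** -/
theorem dTie_false (N : Num θ s c qa qb) (hk : 0 < k) (hkk : k' = k + θ) (F : KF s k' A)
    (hd : k' < 1 → A.d = 0)
    (tan : A.Tan c θ (θ - k) qa qb) (ver : 0 ≤ A.Fa qa + 2 * A.Fb qb) (hm : qa ≤ A.m)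
    (nz : k' < 1 → ∃ B, DUpNZ k k' θ s c qa qb A B)
    (up : 1 ≤ k' → θ < k → k < 1 ∨ θ ≤ k / 2 → ∃ B, EUp k θ s c qa qb A B) : False := by
  have ha := N.ha
  have hθ0 := N.hθ
  have hm0 : 0 < A.m := by linarith
  have hk'0 : 0 ≤ k' := by linarith
  have eb : θ - k = 2 * θ - k' := by rw [hkk]; ring
  have tan' : A.Tan c θ (2 * θ - k') qa qb := by rw [← eb]; exact tan
  rcases lt_or_ge k' 1 with h1 | h1
  · have hk1 : k' ≠ 1 := h1.ne
    have mw : A.m ≤ A.w := by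
      rcases F.mw with h | ⟨h, _⟩
      · exact h
      · exact absurd h hk1
    obtain ⟨B, hB⟩ := nz h1
    have tanB : B.Tan c θ (2 * θ - k') qa qb := by rw [← eb]; exact hB.tan
    have verB : B.x + 2 * B.h + B.n - B.m - B.r + qa + qb ≤ 0 := by
      have h := hB.ver
      unfold Pl.Fa Pl.Fb at h
      linarith [hB.P.u0, hB.P.d0]
    exact k_S N (by linarith) h1.le F.P hB.P F.FA (F.FB h1) hB.FB mw (F.nx hk1) (hd h1) hB.dz
      tan' ver hm tanB verB hB.ant hB.nz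
  · rcases le_or_gt k θ with h2 | h2
    · exact k_ge N h1 F.P (F.FA.kx hm0) (F.n_le hm0) F.mw tan' (lowμ ver (by linarith))
    · rcases lt_or_ge k 1 with h3 | h3
      · have hms := exit_m N hk'0 F hd tan' ver hm
        obtain ⟨B, hB⟩ := up h1 h2 (Or.inl h3)
        have hB0 : 0 < B.m := by linarith [hB.pos]
        exact e_lt_b N h3 h2.le hB.F.P (hB.F.FB h3) hB.F.mr
          (mul_nonneg (by linarith) hB.F.P.d0) ((hB.F.FA h3).kx hB0) ((hB.F.FA h3).kh hB0)
          (hB.ant.trans hms) hB0 hB.tan hB.ver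
      · rcases le_or_gt θ (k / 2) with h4 | h4
        · obtain ⟨B, hB⟩ := up h1 h2 (Or.inr h4)
          have hB0 : 0 < B.m := by linarith [hB.pos]
          exact e_ge N h3 hB.F.P (hB.F.kx hB0) (hB.F.mn hB0) hB.F.mr hB.F.nx hB.tan
            (upμ hB.ver h4)
        · have hk1 : k' ≠ 1 := by
            intro h; linarith
          have mw : A.m ≤ A.w := by
            rcases F.mw with h | ⟨h, _⟩
            · exact h
            · exact absurd h hk1
          exact k_third N (by linarith) (by linarith) F.P (F.FA.kx hm0)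
            (F.nx hk1 (hm0.trans_le mw)) mw tan' ver

end Crest.Agent.R116.Tie460
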