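import Crest.Agent.R116.KTopB_387
import Crest.Agent.R116.CtxB_468
import Crest.Agent.R116.IIr2_460

/-!
# R116, ROW TIE (helper794): the case split and the numbers

* `ETie`, `KTie`, `DTie` : the data which 460's `eTie_false`, `kTie_false`, `dTie_false` ask for.
* `VisB`, `VisE` : `B` is tied; `E` or `D` is tied.
* `FillE`, `FillK`, `FillD` : the data exist for every context with these visible slots, `s < 1/2`.
* `FillH` : `1/2 ≤ s` (538's lemma HALF).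
* **`rowTie_of`** : the four fills ⊢ `RowTie η`.
-/

set_option autoImplicit false
set_option linter.unusedVariables false

open Finset Filter Topology

namespace Crest.Agent.R116.KTie794

open Crest.Agent.R138.Ex926 (Base U)
open Crest.Agent.R136.MkA627
open Crest.Agent.R136.TD627
open Crest.Agent.R116.KI439
open Crest.Agent.R116.Gd222 (TSet)
open Crest.Agent.R116.ChL222 (LInc)
open Crest.Agent.R116.Tw468 (OutT OutR)
open Crest.Agent.R116.KF439 (PL)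
open Crest.Agent.R116.KTop387
open Crest.Agent.R116.CtxB468
open Crest.Agent.R116.Tie460
open Crest.Agent.R116.PL504 (Shift)

/-- the data of `eTie_false`, `k = θa - θb` -/
def ETie (k θ s c qa qb : ℝ) : Prop :=
  ∃ A : Pl, EF s k A ∧ (k < 1 → A.d = 0) ∧ A.Tan c θ (θ - k) qa qb ∧ 0 ≤ A.Fa qa + A.Fb qb ∧
    qa ≤ A.m ∧
    (k ≤ θ → θ < 1 / 2 → ∃ B, EUpNZ k θ s c qa qb A B) ∧
    (θ < k → θ < 1 / 2 ∨ θ < k / 2 → ∃ B, EUp k θ s c qa qb A B ∧ (k < 1 → B.d = 0))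

/-- the data of `kTie_false`, `k = 2 θa - θb` -/
def KTie (k θ s c qa qb : ℝ) : Prop :=
  ∃ A : Pl, KF s k A ∧ (k < 1 → A.d = 0) ∧ A.Tan c θ (2 * θ - k) qa qb ∧
    0 ≤ A.Fa qa + 2 * A.Fb qb ∧ qa ≤ A.m ∧
    (k ≤ θ → k < 1 → c + qa + qb ≤ A.m + A.r) ∧
    (θ < k → k < 1 → ∃ B, S1 k θ s c qa qb A B) ∧
    (2 * θ < k → 1 ≤ k → ∃ B, KUp k θ s c qa qb B)

/-- the data of `dTie_false`, `k = θa - θb`, `k' = 2 θa - θb` -/
def DTie (k k' θ s c qa qb : ℝ) : Prop :=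
  ∃ A : Pl, KF s k' A ∧ (k' < 1 → A.d = 0) ∧ A.Tan c θ (θ - k) qa qb ∧
    0 ≤ A.Fa qa + 2 * A.Fb qb ∧ qa ≤ A.m ∧
    (k' < 1 → ∃ B, DUpNZ k k' θ s c qa qb A B) ∧
    (1 ≤ k' → θ < k → k < 1 ∨ θ ≤ k / 2 → ∃ B, EUp k θ s c qa qb A B)

section

variable {k k' θ s c qa qb : ℝ}

theorem ETie.false (N : Num θ s c qa qb) (hk : 0 < k) (h : ETie k θ s c qa qb) : False := by
  obtain ⟨A, h1, h2, h3, h4, h5, h6, h7⟩ := h
  exact eTie_false N hk h1 h2 h3 h4 h5 h6 h7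

theorem KTie.false (N : Num θ s c qa qb) (hk : 0 < k) (h : KTie k θ s c qa qb) : False := by
  obtain ⟨A, h1, h2, h3, h4, h5, h6, h7, h8⟩ := h
  exact kTie_false N hk h1 h2 h3 h4 h5 h6 h7 h8

theorem DTie.false (N : Num θ s c qa qb) (hk : 0 < k) (hkk : k' = k + θ)
    (h : DTie k k' θ s c qa qb) : False := by
  obtain ⟨A, h1, h2, h3, h4, h5, h6, h7⟩ := h
  exact dTie_false N hk hkk h1 h2 h3 h4 h5 h6 h7

end

/-- `B` (slot `7` or `8`) is tied -/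
def VisB (θ : Fin 2 → ℝ) (B : Base) (I : ℕ → Finset (ℕ × ℝ)) (lev : ℕ → ℚ → ℕ)
    (fl : ℕ → ℕ × ℝ → LInc) (sc : Fin 12 → ℕ → ℝ) : Prop :=
  TieT θ B I lev fl sc 7 ∨ TieT θ B I lev fl sc 8

/-- `E` or `D` (slot `2` or `1`) is tied -/
def VisE (θ : Fin 2 → ℝ) (B : Base) (I : ℕ → Finset (ℕ × ℝ)) (lev : ℕ → ℚ → ℕ)
    (fl : ℕ → ℕ × ℝ → LInc) (sc : Fin 12 → ℕ → ℝ) : Prop :=
  TieT θ B I lev fl sc 2 ∨ TieT θ B I lev fl sc 1

/-- no `B` is visible -/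
def InvB (B : Base) (I : ℕ → Finset (ℕ × ℝ)) (fl : ℕ → ℕ × ℝ → LInc) (sc : Fin 12 → ℕ → ℝ) : Prop :=
  InvT PL B I 7 fl (sc 7) ∧ InvT PL B I 8 fl (sc 8)

/-- neither `E` nor `D` is visible -/
def InvE (B : Base) (I : ℕ → Finset (ℕ × ℝ)) (fl : ℕ → ℕ × ℝ → LInc) (sc : Fin 12 → ℕ → ℝ) : Prop :=
  InvT PL B I 2 fl (sc 2) ∧ InvT PL B I 1 fl (sc 1)

/-- a fill: for every context with the visible slots `V`, the data `X` exist.
`V θ B I lev fl sc` : case;  `X g s θ q` : conclusion. -/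
def Fill (η : ℝ)
    (V : (Fin 2 → ℝ) → Base → (ℕ → Finset (ℕ × ℝ)) → (ℕ → ℚ → ℕ) → (ℕ → ℕ × ℝ → LInc) →
      (Fin 12 → ℕ → ℝ) → Prop)
    (X : ℝ → ℝ → (Fin 2 → ℝ) → (Fin 2 → ℝ) → Prop) : Prop :=
  ∀ (g s : ℝ) (θ q : Fin 2 → ℝ), NumL η g s θ q → ∃ Rg0 : ℝ, ∀ Rg : ℝ, Rg0 ≤ Rg →
    ∀ (G : Geo TSet (Fin 2)) (L : ℕ → ℕ → LRay) (r : ℕ → ℝ) (B : Base) (I : ℕ → Finset (ℕ × ℝ))
      (lev : ℕ → ℚ → ℕ) (A : ℕ → ℝ) (f : ℕ → ℚ → ℕ → ℤ → ℕ) (b : ℕ → ℚ → ℕ → TSet)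
      (vm : ℕ → ℚ → ℝ) (w : Fin 2 → ℕ → ℚ → ℝ) (fr : ℕ → ℚ → ℕ × ℝ → LInc)
      (fl : ℕ → ℕ × ℝ → LInc) (sc : Fin 12 → ℕ → ℝ) (w0 sa sb δ R : ℝ)
      (I0 I' : ℕ → Finset (ℕ × ℝ)) (ν own : (Fin 12 → ℝ) → ℝ) (c₀ : ℝ),
      CtxT G L r (g + 2 * s) s θ q Rg B I lev A f b vm w fr fl sc w0 sa sb δ R I0 I' ν own c₀ →
      V θ B I lev fl sc → X g s θ q

/-- **`e`-tie** : `B` tied, `E` and `D` invisible -/
def FillE (η : ℝ) : Prop :=
  Fill η (fun θ B I lev fl sc => VisB θ B I lev fl sc ∧ InvE B I fl sc)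
    (fun g s θ q => s < 1 / 2 → ETie (θ 0 - θ 1) (θ 0) s (g + 2 * s) (q 0) (q 1))

/-- **`κ`-tie, `D`-tie** : `B` invisible, `E` or `D` tied -/
def FillK (η : ℝ) : Prop :=
  Fill η (fun θ B I lev fl sc => InvB B I fl sc ∧ VisE θ B I lev fl sc)
    (fun g s θ q => s < 1 / 2 → KTie (2 * θ 0 - θ 1) (θ 0) s (g + 2 * s) (q 0) (q 1))

/-- **double tie** -/
def FillD (η : ℝ) : Prop :=
  Fill η (fun θ B I lev fl sc => VisB θ B I lev fl sc ∧ VisE θ B I lev fl sc)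
    (fun g s θ q => s < 1 / 2 →
      DTie (θ 0 - θ 1) (2 * θ 0 - θ 1) (θ 0) s (g + 2 * s) (q 0) (q 1))

/-- **all ties, `1/2 ≤ s`** -/
def FillH (η : ℝ) : Prop :=
  Fill η (fun θ B I lev fl sc => VisB θ B I lev fl sc ∨ VisE θ B I lev fl sc)
    (fun g s θ q => 1 / 2 ≤ s → False)

theorem num_of {η g s : ℝ} {θ q : Fin 2 → ℝ} (hη : η < 1) (h : NumL η g s θ q) :
    Num (θ 0) s (g + 2 * s) (q 0) (q 1) where
  hθ := h.θa
  hs := h.s0
  hc := by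
    have h1 := h.qbg
    have h2 := h.gpos
    nlinarith
  ha := h.qa
  hb := h.qb.le
  hq := by
    have h1 := h.qba
    have h2 := h.qa
    nlinarith

theorem TieT.kB {θ : Fin 2 → ℝ} {B : Base} {I : ℕ → Finset (ℕ × ℝ)} {lev : ℕ → ℚ → ℕ}
    {fl : ℕ → ℕ × ℝ → LInc} {sc : Fin 12 → ℕ → ℝ} (h : VisB θ B I lev fl sc) :
    0 < θ 0 - θ 1 := by
  have e7 : PL504.βL (θ 0) (θ 1) 7 = -(θ 1) - -(θ 0) := rfl
  have e8 : PL504.βL (θ 0) (θ 1) 8 = -(θ 1) - -(θ 0) := rfl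
  rcases h with h | h
  · have h1 := h.2.1
    rw [e7] at h1; linarith
  · have h1 := h.2.1
    rw [e8] at h1; linarith

theorem TieT.kE {θ : Fin 2 → ℝ} {B : Base} {I : ℕ → Finset (ℕ × ℝ)} {lev : ℕ → ℚ → ℕ}
    {fl : ℕ → ℕ × ℝ → LInc} {sc : Fin 12 → ℕ → ℝ} (h : VisE θ B I lev fl sc) :
    0 < 2 * θ 0 - θ 1 := by
  have e2 : PL504.βL (θ 0) (θ 1) 2 = -(θ 1) - 2 * -(θ 0) := rfl
  have e1 : PL504.βL (θ 0) (θ 1) 1 = -(θ 1) - 2 * -(θ 0) - 1 := rfl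
  rcases h with h | h
  · have h1 := h.2.1
    rw [e2] at h1; linarith
  · have h1 := h.2.1
    rw [e1] at h1; linarith

section cls

variable {G : Geo TSet (Fin 2)} {L : ℕ → ℕ → LRay} {r : ℕ → ℝ} {g s : ℝ} {θ q : Fin 2 → ℝ}
    {Rg : ℝ} {B : Base} {I : ℕ → Finset (ℕ × ℝ)} {lev : ℕ → ℚ → ℕ} {A : ℕ → ℝ}
    {f : ℕ → ℚ → ℕ → ℤ → ℕ} {b : ℕ → ℚ → ℕ → TSet} {vm : ℕ → ℚ → ℝ} {w : Fin 2 → ℕ → ℚ → ℝ}
    {fr : ℕ → ℚ → ℕ × ℝ → LInc} {fl : ℕ → ℕ × ℝ → LInc} {sc : Fin 12 → ℕ → ℝ}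

theorem clsB' (h : OutT G L r g s θ q Rg B I lev A f b vm w fr fl sc) :
    VisB θ B I lev fl sc ∨ InvB B I fl sc := by
  rcases h.clsB (Or.inl rfl) with h1 | h1
  · rcases h.clsB (Or.inr rfl) with h2 | h2
    · exact Or.inr ⟨h1, h2⟩
    · exact Or.inl (Or.inr h2)
  · exact Or.inl (Or.inl h1)

theorem clsE' (h : OutT G L r g s θ q Rg B I lev A f b vm w fr fl sc) :
    VisE θ B I lev fl sc ∨ InvE B I fl sc := by
  rcases h.clsE with h1 | h1 | h1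
  · rcases h.clsD with h2 | h2
    · exact Or.inr ⟨h1, h2⟩
    · exact Or.inl (Or.inr h2)
  · exact Or.inl (Or.inl h1)
  · exact Or.inl (Or.inr h1)

/-- a visible slot is `B`, `E` or `D` -/
theorem vis_cases (h : OutT G L r g s θ q Rg B I lev A f b vm w fr fl sc)
    (hv : ∃ j, j ≠ 0 ∧ ¬ InvT PL B I j fl (sc j)) (hB : InvB B I fl sc) (hE : InvE B I fl sc) :
    False := by
  obtain ⟨j, hj, hn⟩ := hv
  apply hn
  by_cases h1 : j = 1 ∨ j = 2 ∨ j = 7 ∨ j = 8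
  · rcases h1 with rfl | rfl | rfl | rfl
    · exact hE.2
    · exact hE.1
    · exact hB.1
    · exact hB.2
  · refine h.inv_ray ?_
    revert hj h1
    clear hn
    revert j
    decide

end cls

/-- **the four fills ⊢ the row of the ties** -/
theorem rowTie_of {η : ℝ} (hη : η < 1) (hE : FillE η) (hK : FillK η) (hD : FillD η)
    (hH : FillH η) : RowTie η := by
  intro g s θ q hN
  obtain ⟨R1, hE⟩ := hE g s θ q hN
  obtain ⟨R2, hK⟩ := hK g s θ q hN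
  obtain ⟨R3, hD⟩ := hD g s θ q hN
  obtain ⟨R5, hH⟩ := hH g s θ q hN
  have N := num_of hη hN
  refine ⟨max (max (max R1 R2) (max R3 1)) R5, fun Rg hRg' => ?_⟩
  have hRg : max (max R1 R2) (max R3 1) ≤ Rg := (le_max_left _ _).trans hRg'
  intro G L r B I lev A f b vm w fr fl sc hO hv
  have hR1 : R1 ≤ Rg := ((le_max_left _ _).trans (le_max_left _ _)).trans hRg
  have hR2 : R2 ≤ Rg := ((le_max_right _ _).trans (le_max_left _ _)).trans hRg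
  have hR3 : R3 ≤ Rg := ((le_max_left _ _).trans (le_max_right _ _)).trans hRg
  have hR4 : (1:ℝ) ≤ Rg := ((le_max_right _ _).trans (le_max_right _ _)).trans hRg
  obtain ⟨w0, sa, sb, δ, R, hS⟩ := PL504.exists_shift (θ 0) (θ 1)
  obtain ⟨I0, I', ν, own, c₀, C⟩ := hO.ctx (by linarith) hS
  have hvis : VisB θ B I lev fl sc ∨ VisE θ B I lev fl sc := by
    rcases clsB' hO with hB | hB
    · exact Or.inl hB
    · rcases clsE' hO with hE' | hE'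
      · exact Or.inr hE'
      · exact (vis_cases hO hv hB hE').elim
  rcases lt_or_ge s (1 / 2) with hs | hs
  · rcases clsB' hO with hB | hB
    · rcases clsE' hO with hE' | hE'
      · exact (hD Rg hR3 G L r B I lev A f b vm w fr fl sc w0 sa sb δ R I0 I' ν own c₀ C
          ⟨hB, hE'⟩ hs).false N (TieT.kB hB) (by ring)
      · exact (hE Rg hR1 G L r B I lev A f b vm w fr fl sc w0 sa sb δ R I0 I' ν own c₀ C
          ⟨hB, hE'⟩ hs).false N (TieT.kB hB)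
    · rcases clsE' hO with hE' | hE'
      · exact (hK Rg hR2 G L r B I lev A f b vm w fr fl sc w0 sa sb δ R I0 I' ν own c₀ C
          ⟨hB, hE'⟩ hs).false N (TieT.kE hE')
      · exact vis_cases hO hv hB hE'
  · exact hH Rg ((le_max_right _ _).trans hRg') G L r B I lev A f b vm w fr fl sc w0 sa sb δ R
      I0 I' ν own c₀ C hvis hs

/-! ### flexible form -/

section comb

variable {η : ℝ}
  {V V' : (Fin 2 → ℝ) → Base → (ℕ → Finset (ℕ × ℝ)) → (ℕ → ℚ → ℕ) → (ℕ → ℕ × ℝ → LInc) →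
    (Fin 12 → ℕ → ℝ) → Prop}
  {X Y Z : ℝ → ℝ → (Fin 2 → ℝ) → (Fin 2 → ℝ) → Prop}

/-- two fills at once -/
theorem Fill.and (h1 : Fill η V X) (h2 : Fill η V Y) :
    Fill η V fun g s θ q => X g s θ q ∧ Y g s θ q := by
  intro g s θ q hN
  obtain ⟨R1, h1⟩ := h1 g s θ q hN
  obtain ⟨R2, h2⟩ := h2 g s θ q hN
  refine ⟨max R1 R2, fun Rg hRg => ?_⟩
  intro G L r B I lev A f b vm w fr fl sc w0 sa sb δ R I0 I' ν own c₀ C hV
  exact ⟨h1 Rg ((le_max_left _ _).trans hRg) G L r B I lev A f b vm w fr fl sc w0 sa sb δ R I0 I'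
    ν own c₀ C hV, h2 Rg ((le_max_right _ _).trans hRg) G L r B I lev A f b vm w fr fl sc w0 sa sb
    δ R I0 I' ν own c₀ C hV⟩

theorem Fill.mono (h : Fill η V X)
    (hXY : ∀ g s θ q, NumL η g s θ q → X g s θ q → Y g s θ q) : Fill η V Y := by
  intro g s θ q hN
  obtain ⟨R1, h⟩ := h g s θ q hN
  refine ⟨R1, fun Rg hRg => ?_⟩
  intro G L r B I lev A f b vm w fr fl sc w0 sa sb δ R I0 I' ν own c₀ C hV
  exact hXY _ _ _ _ hN (h Rg hRg G L r B I lev A f b vm w fr fl sc w0 sa sb δ R I0 I' ν own c₀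
    C hV)

theorem Fill.vis (h : Fill η V X)
    (hV : ∀ θ B I lev fl sc, V' θ B I lev fl sc → V θ B I lev fl sc) : Fill η V' X := by
  intro g s θ q hN
  obtain ⟨R1, h⟩ := h g s θ q hN
  refine ⟨R1, fun Rg hRg => ?_⟩
  intro G L r B I lev A f b vm w fr fl sc w0 sa sb δ R I0 I' ν own c₀ C hV'
  exact h Rg hRg G L r B I lev A f b vm w fr fl sc w0 sa sb δ R I0 I' ν own c₀
    C (hV _ _ _ _ _ _ hV')

/-- **case split by the numbers** -/
theorem Fill.split (P : ℝ → ℝ → (Fin 2 → ℝ) → (Fin 2 → ℝ) → Prop)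
    (h1 : Fill η V fun g s θ q => P g s θ q → X g s θ q)
    (h2 : Fill η V fun g s θ q => ¬ P g s θ q → X g s θ q) : Fill η V X := by
  refine (h1.and h2).mono fun g s θ q _ h => ?_
  by_cases hP : P g s θ q
  · exact h.1 hP
  · exact h.2 hP

end comb

/-- `e`-tie, contradiction -/
def FalseE (η : ℝ) : Prop :=
  Fill η (fun θ B I lev fl sc => VisB θ B I lev fl sc ∧ InvE B I fl sc) fun _ _ _ _ => False

/-- `κ`-tie, `D`-tie, contradiction -/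
def FalseK (η : ℝ) : Prop :=
  Fill η (fun θ B I lev fl sc => InvB B I fl sc ∧ VisE θ B I lev fl sc) fun _ _ _ _ => False

/-- double tie, contradiction -/
def FalseD (η : ℝ) : Prop :=
  Fill η (fun θ B I lev fl sc => VisB θ B I lev fl sc ∧ VisE θ B I lev fl sc)
    fun _ _ _ _ => False

/-- **the row of the ties from the three cases** -/
theorem rowTie_of3 {η : ℝ} (hE : FalseE η) (hK : FalseK η) (hD : FalseD η) : RowTie η := by
  intro g s θ q hN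
  obtain ⟨R1, hE⟩ := hE g s θ q hN
  obtain ⟨R2, hK⟩ := hK g s θ q hN
  obtain ⟨R3, hD⟩ := hD g s θ q hN
  refine ⟨max (max R1 R2) (max R3 1), fun Rg hRg => ?_⟩
  intro G L r B I lev A f b vm w fr fl sc hO hv
  have hR1 : R1 ≤ Rg := ((le_max_left _ _).trans (le_max_left _ _)).trans hRg
  have hR2 : R2 ≤ Rg := ((le_max_right _ _).trans (le_max_left _ _)).trans hRg
  have hR3 : R3 ≤ Rg := ((le_max_left _ _).trans (le_max_right _ _)).trans hRg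
  have hR4 : (1:ℝ) ≤ Rg := ((le_max_right _ _).trans (le_max_right _ _)).trans hRg
  obtain ⟨w0, sa, sb, δ, R, hS⟩ := PL504.exists_shift (θ 0) (θ 1)
  obtain ⟨I0, I', ν, own, c₀, C⟩ := hO.ctx (by linarith) hS
  rcases clsB' hO with hB | hB
  · rcases clsE' hO with hE' | hE'
    · exact hD Rg hR3 G L r B I lev A f b vm w fr fl sc w0 sa sb δ R I0 I' ν own c₀ C
        ⟨hB, hE'⟩
    · exact hE Rg hR1 G L r B I lev A f b vm w fr fl sc w0 sa sb δ R I0 I' ν own c₀ C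
        ⟨hB, hE'⟩
  · rcases clsE' hO with hE' | hE'
    · exact hK Rg hR2 G L r B I lev A f b vm w fr fl sc w0 sa sb δ R I0 I' ν own c₀ C
        ⟨hB, hE'⟩
    · exact vis_cases hO hv hB hE'

/-- 460's table for the `e`-tie -/
theorem falseE_of {η : ℝ} (hη : η < 1)
    (h : Fill η (fun θ B I lev fl sc => VisB θ B I lev fl sc ∧ InvE B I fl sc)
      fun g s θ q => θ 1 < θ 0 → ETie (θ 0 - θ 1) (θ 0) s (g + 2 * s) (q 0) (q 1)) :
    FalseE η := by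
  intro g s θ q hN
  obtain ⟨R1, h⟩ := h g s θ q hN
  refine ⟨R1, fun Rg hRg => ?_⟩
  intro G L r B I lev A f b vm w fr fl sc w0 sa sb δ R I0 I' ν own c₀ C hV
  have hk := TieT.kB hV.1
  exact (h Rg hRg G L r B I lev A f b vm w fr fl sc w0 sa sb δ R I0 I' ν own c₀
    C hV (by linarith)).false (num_of hη hN) hk

/-- 460's table for the `κ`-tie -/
theorem falseK_of {η : ℝ} (hη : η < 1)
    (h : Fill η (fun θ B I lev fl sc => InvB B I fl sc ∧ VisE θ B I lev fl sc)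
      fun g s θ q => θ 1 < 2 * θ 0 → KTie (2 * θ 0 - θ 1) (θ 0) s (g + 2 * s) (q 0) (q 1)) :
    FalseK η := by
  intro g s θ q hN
  obtain ⟨R1, h⟩ := h g s θ q hN
  refine ⟨R1, fun Rg hRg => ?_⟩
  intro G L r B I lev A f b vm w fr fl sc w0 sa sb δ R I0 I' ν own c₀ C hV
  have hk := TieT.kE hV.2
  exact (h Rg hRg G L r B I lev A f b vm w fr fl sc w0 sa sb δ R I0 I' ν own c₀
    C hV (by linarith)).false (num_of hη hN) hk

/-- 460's table for the double tie -/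
theorem falseD_of {η : ℝ} (hη : η < 1)
    (h : Fill η (fun θ B I lev fl sc => VisB θ B I lev fl sc ∧ VisE θ B I lev fl sc)
      fun g s θ q => θ 1 < θ 0 →
        DTie (θ 0 - θ 1) (2 * θ 0 - θ 1) (θ 0) s (g + 2 * s) (q 0) (q 1)) :
    FalseD η := by
  intro g s θ q hN
  obtain ⟨R1, h⟩ := h g s θ q hN
  refine ⟨R1, fun Rg hRg => ?_⟩
  intro G L r B I lev A f b vm w fr fl sc w0 sa sb δ R I0 I' ν own c₀ C hV
  have hk := TieT.kB hV.1
  exact (h Rg hRg G L r B I lev A f b vm w fr fl sc w0 sa sb δ R I0 I' ν own c₀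
    C hV (by linarith)).false (num_of hη hN) hk (by ring)

end Crest.Agent.R116.KTie794
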