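import Crest.Agent.R116.RbM1_219

/-!
# R116 (K side), rates on the half planes, light chart instance, `D` live (helper219)

* `RL9`  : ray slots `z, C_a, C_b, X, N, H, B, G, D` of the light chart
* `nat9`, `Leg9`, `RL9_mem`, `RL9_full`
* **`ae_rates9`**
-/

set_option autoImplicit false
set_option linter.unusedSectionVars false
set_option linter.unusedVariables false

open Set Filter Topology Metric MeasureTheory

namespace Crest.Agent.R116.RbM219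

open Crest.Agent.R136
open Crest.Agent.R138
open Net191 (Mons Legal Leg)
open Dg262 (X X_cont SupOn)
open Dg219 (Tn lf Cone Walls mw mw_P)
open SgO219 (PP)
open RbK219
open Rc146 (RecOut)
open ChL222 (monL legalL_iff mfL)
open PL504 (eL eL_wall)

/-- classes of the chart slots: `0 z, 1 C_a, 2 C_b, 3 X, 4 N, 5 H, 6 B, 7 G, 8 D` -/
def cl9 : Fin 12 → Fin 9 := ![0, 8, 7, 1, 1, 3, 3, 6, 6, 5, 2, 4]

def RL9 : RS (Fin 12) (Fin 9) where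
  cls := cl9
  mu := fun _ => 1
  pos := fun _ => one_pos
  sur := by decide

/-- natural levels -/
def nat9 (v c p : ℝ) : Fin 9 → ℝ :=
  ![v, c, p, v + c, v + p, v + 2 * c, p - c, p - 2 * c, p - 2 * c - v]

/-- legal class vectors -/
structure Leg9 (d : Fin 9 → ℝ) : Prop where
  X : d 3 ≤ d 0 + d 1
  B : d 6 ≤ d 7 + d 1
  H : d 5 ≤ d 1 + d 3
  P : d 2 ≤ d 1 + d 6
  N1 : d 4 ≤ d 0 + d 2
  N2 : d 4 ≤ d 3 + d 6
  N3 : d 4 ≤ d 7 + d 5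
  G : d 7 ≤ d 0 + d 8
  BD : d 6 ≤ d 8 + d 3
  PD : d 2 ≤ d 8 + d 5

theorem leg9_nat (v c p : ℝ) : Leg9 (nat9 v c p) := by
  constructor <;> simp [nat9] <;> linarith

theorem RL9_nat (v c p : ℝ) : RL9.vec (nat9 v c p) = eL v c p := by
  funext i
  fin_cases i <;> simp [RS.vec, RL9, cl9, nat9, eL]

theorem RL9_full {x0 a b : Fin 12 → ℝ} : (mw monL).Full x0 a b := Dg219.mw_full monL x0 a b

/-- **legality of class vectors** -/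
theorem RL9_mem {d : Fin 9 → ℝ} (hd : Leg9 d) : RL9.vec d ∈ PP (mw monL) := by
  rw [mem_cone]
  have hk : ∀ i : Fin 12, RL9.vec d i = d (cl9 i) := fun i => by simp [RS.vec, RL9]
  have q0 : cl9 0 = 0 := rfl
  have q1 : cl9 1 = 8 := rfl
  have q2 : cl9 2 = 7 := rfl
  have q3 : cl9 3 = 1 := rfl
  have q4 : cl9 4 = 1 := rfl
  have q5 : cl9 5 = 3 := rfl
  have q6 : cl9 6 = 3 := rfl
  have q7 : cl9 7 = 6 := rfl
  have q8 : cl9 8 = 6 := rfl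
  have q9 : cl9 9 = 5 := rfl
  have q10 : cl9 10 = 2 := rfl
  have q11 : cl9 11 = 4 := rfl
  unfold Wl
  rw [hk 0, hk 1, hk 2, hk 3, hk 4, hk 5, hk 6, hk 7, hk 8, hk 9, hk 10, hk 11, q0, q1, q2, q3,
    q4, q5, q6, q7, q8, q9, q10, q11]
  obtain ⟨f1, f2, f3, f4, f5, f6, f7, f8, f9, f10⟩ := hd
  refine ⟨?_, ?_, ?_, ?_, ?_, ?_, ?_, ?_, ?_, ?_, ?_, ?_, ?_, ?_, ?_, ?_⟩ <;> linarith

/-- direction of the record line -/
def r9 (θa θb : ℝ) : Fin 12 → ℝ := eL 1 (-θa) (-θb)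

theorem r9_vec (θa θb : ℝ) : r9 θa θb = RL9.vec (nat9 1 (-θa) (-θb)) := (RL9_nat _ _ _).symm

theorem eL_zero : eL 0 0 0 = 0 := by
  funext k; fin_cases k <;> simp [eL]

theorem act9 (θa θb : ℝ) (w : Σ k : Fin 12, {e // e ∈ monL.mon k}) :
    (mw monL).Act 0 (r9 θa θb) 0 w := by
  refine ⟨?_, ?_, ?_⟩
  · change (0:ℝ) = ∑ s, (w.2.1 s : ℝ) * (0:ℝ) + 0
    simp
  · change eL 1 (-θa) (-θb) w.1 = ∑ s, (w.2.1 s : ℝ) * eL 1 (-θa) (-θb) s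
    exact (eL_wall _ _ _ w.1 w.2.2).symm
  · change (0:ℝ) = ∑ s, (w.2.1 s : ℝ) * (0:ℝ)
    simp

/-- the wall cone at the record is the whole cone -/
theorem L9 (θa θb : ℝ) : (mw monL).L 0 (r9 θa θb) 0 = PP (mw monL) := by
  ext c
  constructor
  · intro h w
    have := h w (act9 θa θb w)
    have h2 : (mw monL).cst w = 0 := rfl
    rw [h2, add_zero]; exact this
  · intro h w _
    have := h w
    have h2 : (mw monL).cst w = 0 := rfl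
    rw [h2, add_zero] at this; exact this

theorem mem_O9 {θa θb ξ S : ℝ} (hS : ‖ξ • r9 θa θb‖ < S) :
    (ξ, (0:ℝ)) ∈ (mw monL).O (fun _ => -S) (fun _ => S) 0 (r9 θa θb) 0 := by
  have hX : X 0 (r9 θa θb) 0 (ξ, 0) = ξ • r9 θa θb := by
    rw [Rc683.line_eq, zero_add]
  refine ⟨fun k => ?_, fun w => Or.inl (act9 θa θb w)⟩
  rw [hX]
  have h2 := norm_le_pi_norm (ξ • r9 θa θb) k
  rw [Real.norm_eq_abs] at h2
  have h3 := abs_lt.1 (h2.trans_lt hS)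
  exact ⟨h3.1, h3.2⟩

/-- surface with the offset `B` -/
noncomputable abbrev srf9 (θa θb : ℝ) (B : Fin 9 → ℝ) (sg : ℝ) : Rc683.Srf (Fin 12) :=
  RL9.srf 0 (nat9 1 (-θa) (-θb)) B sg

/-- the rates of a surface, `ρ` -/
def Rates9 (θa θb : ℝ) (B : Fin 9 → ℝ) (sg c0 : ℝ) (lam : (Fin 12 → ℝ) → ℝ) (ρ : Fin 9 → ℝ) :
    Prop :=
  SRates RL9 (nat9 1 (-θa) (-θb)) B sg lam ((srf9 θa θb B sg).LW (mw monL) c0) ρ

/-- the complete output of the record blow-up on a surface -/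
def Rec9 (θa θb : ℝ) (B : Fin 9 → ℝ) (sg c0 : ℝ) (lam : (Fin 12 → ℝ) → ℝ) : Prop :=
  ∃ (φ : ℕ → (Fin 12 → ℝ) → ℝ) (r : ℕ → ℝ),
    RecOut (srf9 θa θb B sg).g (srf9 θa θb B sg).S ((srf9 θa θb B sg).LW (mw monL) c0)
      ((srf9 θa θb B sg).L (mw monL)) (srf9 θa θb B sg).a (srf9 θa θb B sg).b
      (srf9 θa θb B sg).l (srf9 θa θb B sg).dh (srf9 θa θb B sg).n lam φ r

theorem ae_rates9_box {J : Type*} [Finite J] {g : J → (Fin 12 → ℝ) → ℝ} {j0 : J}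
    {K : ℝ} (hK : 0 ≤ K)
    (hg : ∀ j, ∀ p ∈ PP (mw monL), ∀ q ∈ PP (mw monL), |g j p - g j q| ≤ K * dist p q)
    (hm : ∀ p ∈ PP (mw monL), ∀ q ∈ PP (mw monL), p ≤ q →
      0 ≤ g j0 p - g j0 q ∧ g j0 p - g j0 q ≤ ∑ i, (q i - p i))
    (hs : SupOn (g j0) (PP (mw monL))) {θa θb : ℝ} {T : Type*} [Countable T]
    {B : T → Fin 9 → ℝ} {sg : T → ℝ} (hS : ∀ s, SOk (nat9 1 (-θa) (-θb)) (B s) (sg s))
    (hB : ∀ s, Leg9 (B s)) (S : ℝ) :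
    ∀ᵐ ξ : ℝ, ξ ∈ {ξ : ℝ | (ξ, (0:ℝ)) ∈ (mw monL).O (fun _ => -S) (fun _ => S) 0
        (r9 θa θb) 0} → ∃ c0 : T → ℝ, (∀ s, 0 < c0 s) ∧
      (∀ s, (srf9 θa θb (B s) (sg s)).LW (mw monL) (c0 s) ⊆ PP (mw monL)) ∧
      ∀ k : ℕ → ℝ, (∀ l, 0 < k l) → Tendsto k atTop (𝓝 0) →
      ∃ (y k' : ℕ → ℝ) (lam : J → (Fin 12 → ℝ) → ℝ), Tendsto y atTop (𝓝 ξ) ∧
        (∀ m, 0 < k' m) ∧ Tendsto k' atTop (𝓝 0) ∧
        (∀ j, Ex926.IsTan (PP (mw monL)) (PP (mw monL)) (g j)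
          (fun m => y m • r9 θa θb) k' (lam j)) ∧
        ∀ s, Rec9 θa θb (B s) (sg s) (c0 s) (lam j0) ∧
          ∃ ρ, Rates9 θa θb (B s) (sg s) (c0 s) (lam j0) ρ := by
  have hPP : ∀ S : ℝ, (mw monL).P (fun _ => -S) (fun _ => S) ⊆ PP (mw monL) :=
    fun S p hp => hp.2
  have ok : ∀ s, (srf9 θa θb (B s) (sg s)).Ok (mw monL) 0 (r9 θa θb) := by
    intro s
    rw [r9_vec]
    refine (hS s).srf_ok RL9_full ?_
    rw [← r9_vec, L9]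
    exact RL9_mem (hB s)
  have h1 := Rc683.ae_rec (Q := mw monL) (lo := fun _ => -S) (hi := fun _ => S)
    (sf := fun s => srf9 θa θb (B s) (sg s)) ok (fun s => (hS s).rok) (f := g) (j0 := j0) hK
    (fun j p hp q hq => hg j p (hPP _ hp) q (hPP _ hq))
    (fun p hp q hq => hm p (hPP _ hp) q (hPP _ hq))
    (fun p hp q hq h1 h2 => hs p (hPP _ hp) q (hPP _ hq) (hPP _ h1) (hPP _ h2))
    (U := {ξ : ℝ | (ξ, (0:ℝ)) ∈ (mw monL).O (fun _ => -S) (fun _ => S) 0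
      (r9 θa θb) 0}) (fun ξ hξ => hξ)
  filter_upwards [h1] with ξ hξ hξU
  obtain ⟨c0, hc0, hsub, H⟩ := hξ hξU
  rw [L9] at hsub
  refine ⟨c0, hc0, hsub, fun k kpos k0 => ?_⟩
  obtain ⟨y, k', lam, hy, hk', hk0, hT, hR⟩ := H k kpos k0
  refine ⟨y, k', lam, hy, hk', hk0, fun j => ?_, fun s => ?_⟩
  · have h2 := Rc683.tan_mono (hT j) (hPP S) (L9 θa θb).symm.subset
    have e : (fun m => (0 : Fin 12 → ℝ) + y m • r9 θa θb) = fun m => y m • r9 θa θb := by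
      funext m; rw [zero_add]
    rwa [e] at h2
  · obtain ⟨φ, r, hφr⟩ := hR s
    have hLL : (srf9 θa θb (B s) (sg s)).LW (mw monL) (c0 s) ⊆
        (srf9 θa θb (B s) (sg s)).L (mw monL) := by
      rintro _ ⟨w, c, -, hc, -, rfl⟩
      exact (Walls.cone (Q := mw monL)).add _ (Walls.Tn_mem w) _ hc
    exact ⟨⟨φ, r, hφr⟩, (hS s).rates hLL hφr.toOutH (hc0 s).le⟩

/-- **RATES AT THE RECORD, light chart, `D` live** -/
theorem ae_rates9 {P : Set (Fin 12 → ℝ)} {J : Type*} [Finite J]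
    {f g : J → (Fin 12 → ℝ) → ℝ} {j0 : J} {x : ℕ → Fin 12 → ℝ} {h : ℕ → ℝ}
    (hpos : ∀ l, 0 < h l) (ht : ∀ j, Ex926.IsTan P (PP (mw monL)) (f j) x h (g j))
    {K : ℝ} (hK : 0 ≤ K)
    (hg : ∀ j, ∀ p ∈ PP (mw monL), ∀ q ∈ PP (mw monL), |g j p - g j q| ≤ K * dist p q)
    (hm : ∀ p ∈ PP (mw monL), ∀ q ∈ PP (mw monL), p ≤ q →
      0 ≤ g j0 p - g j0 q ∧ g j0 p - g j0 q ≤ ∑ i, (q i - p i))
    (hs : SupOn (g j0) (PP (mw monL))) {θa θb : ℝ} {T : Type*} [Countable T]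
    {B : T → Fin 9 → ℝ} {sg : T → ℝ} (hS : ∀ s, SOk (nat9 1 (-θa) (-θb)) (B s) (sg s))
    (hB : ∀ s, Leg9 (B s)) :
    ∀ᵐ ξ : ℝ, ∃ c0 : T → ℝ, (∀ s, 0 < c0 s) ∧
      (∀ s, (srf9 θa θb (B s) (sg s)).LW (mw monL) (c0 s) ⊆ PP (mw monL)) ∧
      ∀ k : ℕ → ℝ, (∀ l, 0 < k l) → Tendsto k atTop (𝓝 0) →
      ∃ (y k' : ℕ → ℝ) (ψ : ℕ → ℕ) (lam : J → (Fin 12 → ℝ) → ℝ), Tendsto y atTop (𝓝 ξ) ∧
        (∀ m, 0 < k' m) ∧ Tendsto k' atTop (𝓝 0) ∧ StrictMono ψ ∧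
        (∀ j, Ex926.IsTan (PP (mw monL)) (PP (mw monL)) (g j)
          (fun m => y m • r9 θa θb) k' (lam j)) ∧
        (∀ j, Ex926.IsTan P (PP (mw monL)) (f j)
          (fun m => x (ψ m) + h (ψ m) • (y m • r9 θa θb))
          (fun m => h (ψ m) * k' m) (lam j)) ∧
        ∀ s, Rec9 θa θb (B s) (sg s) (c0 s) (lam j0) ∧
          ∃ ρ, Rates9 θa θb (B s) (sg s) (c0 s) (lam j0) ρ := by
  have key := ae_all_iff.2 fun N : ℕ => ae_rates9_box (θa := θa) (θb := θb) hK hg hm hs hS hB (N:ℝ)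
  filter_upwards [key] with ξ hξ
  obtain ⟨N, hN⟩ := exists_nat_gt ‖ξ • r9 θa θb‖
  obtain ⟨c0, hc0, hsub, H⟩ := hξ N (mem_O9 hN)
  refine ⟨c0, hc0, hsub, fun k kpos k0 => ?_⟩
  obtain ⟨y, k', lam, hy, hk', hk0, hT, hR⟩ := H k kpos k0
  have hmem : ∀ m, y m • r9 θa θb ∈ PP (mw monL) := fun m => by
    rw [r9_vec, ← RS.vec_smul]
    apply RL9_mem
    have e : y m • nat9 1 (-θa) (-θb) = nat9 (y m * 1) (y m * -θa) (y m * -θb) := by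
      funext i
      fin_cases i <;> simp [nat9] <;> ring
    rw [e]
    exact leg9_nat _ _ _
  obtain ⟨ψ, hψ, -, hD⟩ := diagM (J := J) (P := fun _ => P) (L := fun _ => PP (mw monL))
    (L' := fun _ => PP (mw monL)) hpos ht (y := fun m => y m • r9 θa θb)
    (fun _ m => hmem m) (fun m => hk' _) hT (A := fun _ _ => True)
    (fun _ => Eventually.of_forall fun _ => trivial)
  exact ⟨y, k', ψ, lam, hy, fun m => hk' _, hk0, hψ, hT, hD, hR⟩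

end Crest.Agent.R116.RbM219
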