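import Crest.Agent.R116.Kz2_647
import Crest.Agent.R116.RbM2_219

/-!
# R116 (K side, ties), generic point of a half plane, light chart instances (helper647)

* `RecTan8`, `RecTan9` : record tangents (Lipschitz, monotone, supermodular on the cone)
* **`half8`** : `D` frozen (`RL8`), **`half9`** : `D` live (`RL9`)
* `half8_diag`, `half9_diag` : tangents of functions of which `lam` is the tangent
-/

set_option autoImplicit false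
set_option linter.unusedSectionVars false
set_option linter.unusedVariables false

open Set Filter Topology Metric MeasureTheory

namespace Crest.Agent.R116.Kz647

open Crest.Agent.R136
open Crest.Agent.R138
open Dg262 (X X_cont SupOn)
open Dg219 (Tn lf Cone Walls mw mw_P)
open Sl741 (slice xt rs)
open SgO219 (PP)
open RbK219 RbM219
open ChL222 (monL)

/-- the record tangents: `K`-Lipschitz, the profile monotone and supermodular on the cone -/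
structure RecTan (L : Set (Fin 12 → ℝ)) {J : Type*} (lam : J → (Fin 12 → ℝ) → ℝ) (j0 : J)
    (K : ℝ) : Prop where
  K0 : 0 ≤ K
  lip : ∀ j, ∀ c ∈ L, ∀ c' ∈ L, |lam j c - lam j c'| ≤ K * dist c c'
  mono : ∀ c ∈ L, ∀ c' ∈ L, c ≤ c' →
    0 ≤ lam j0 c - lam j0 c' ∧ lam j0 c - lam j0 c' ≤ ∑ i, (c' i - c i)
  sup : SupOn (lam j0) L
  zero : lam j0 0 = 0

/-- tangents inherit everything -/
theorem RecTan.of_tan {P L : Set (Fin 12 → ℝ)} {J : Type*} {g lam : J → (Fin 12 → ℝ) → ℝ}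
    {j0 : J} {K : ℝ} (hK : 0 ≤ K) (hg : ∀ j, ∀ p ∈ P, ∀ q ∈ P, |g j p - g j q| ≤ K * dist p q)
    (hm : ∀ p ∈ P, ∀ q ∈ P, p ≤ q →
      0 ≤ g j0 p - g j0 q ∧ g j0 p - g j0 q ≤ ∑ i, (q i - p i))
    (hs : SupOn (g j0) P) {x : ℕ → Fin 12 → ℝ} {h : ℕ → ℝ} (hpos : ∀ l, 0 < h l)
    (ht : ∀ j, Ex926.IsTan P L (g j) x h (lam j)) (h0 : (0 : Fin 12 → ℝ) ∈ L) :
    RecTan L lam j0 K where
  K0 := hK
  lip := fun j => SgO219.tan_lip hpos (ht j) (hg j)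
  mono := SgO219.tan_mono hpos (ht j0) hm
  sup := SgO219.tan_smod hpos (ht j0) hs
  zero := SgZ388.tan_zero hpos (ht j0) h0

theorem L8_zero (θa θb t : ℝ) : (0 : Fin 12 → ℝ) ∈ L8 θa θb t := (Walls.cone (Q := mw monL)).zero

/-- cone of the plane with the offset `B`, all twelve slots, `D` released -/
noncomputable abbrev L8B (θa θb t : ℝ) (B : Fin 8 → ℝ) (sg : ℝ) : Set (Fin 12 → ℝ) :=
  (mw monL).L (y8 t) (xt kp 0 (RL8.vec (sg • B))) (r8 θa θb)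

/-- `Half` in the letters of `RL8` -/
abbrev Half8 (θa θb t : ℝ) (B : Fin 8 → ℝ) (sg : ℝ) {J : Type*} (lam : J → (Fin 12 → ℝ) → ℝ)
    (j0 : J) (ρ : Fin 8 → ℝ) (κ l α : ℝ) (h : ℕ → ℝ) (lam2 : J → (Fin 12 → ℝ) → ℝ)
    (ρ2 : Fin 8 → ℝ) : Prop :=
  Half (Q8 t) RL8 (nat8 1 (-θa) (-θb)) B sg (rs kp (y8 t)) (fun j c => lam j (xt kp 0 c)) j0 ρ κ
    l α h (fun j c => lam2 j (xt kp 0 c)) ρ2

/-- base of the generic point -/
noncomputable abbrev z8 (θa θb : ℝ) (B : Fin 8 → ℝ) (l α : ℝ) : Fin 12 → ℝ :=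
  xt kp 0 (RL8.vec (l • B + α • nat8 1 (-θa) (-θb)))

/-- **generic point of a half plane, `D` frozen** -/
theorem half8 {θa θb t : ℝ} (ht0 : 0 < t) {J : Type*} [Finite J] {lam : J → (Fin 12 → ℝ) → ℝ}
    {j0 : J} {K : ℝ} (hL : RecTan (L8 θa θb t) lam j0 K) {B : Fin 8 → ℝ} {sg : ℝ}
    (hS : SOk (nat8 1 (-θa) (-θb)) B sg) (hB : Leg8 B) {c0 : ℝ} (hc0 : 0 < c0) {ρ : Fin 8 → ℝ}
    (hR : Rates8 θa θb t B sg c0 (lam j0) ρ) {κ y : ℝ} (hy : 0 < y)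
    (hκ : lam j0 (xt kp 0 (RL8.vec (y • B))) ≤ κ * y) {N : Set (ℝ × ℝ)}
    (hN : ∀ᵐ z : ℝ × ℝ, z ∈ N) :
    ∃ l α : ℝ, 0 < l ∧ l < y ∧ ((l * sg, α) : ℝ × ℝ) ∈ N ∧ z8 θa θb B l α ∈ L8 θa θb t ∧
      ∀ h' : ℕ → ℝ, (∀ m, 0 < h' m) → Tendsto h' atTop (𝓝 0) →
        ∃ (θ : ℕ → ℕ) (lam2 : J → (Fin 12 → ℝ) → ℝ) (ρ2 : Fin 8 → ℝ), StrictMono θ ∧
          (∀ j, Ex926.IsTan (L8 θa θb t) (L8B θa θb t B sg) (lam j) (fun _ => z8 θa θb B l α)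
            (fun m => h' (θ m)) (lam2 j)) ∧
          Half8 θa θb t B sg lam j0 ρ κ l α (fun m => h' (θ m)) lam2 ρ2 := by
  have hp1 : ∀ i, ¬ kp i → r8 θa θb i = 0 := fun i hi => by
    have hi' : i = 1 := not_not.1 hi
    subst hi'
    unfold r8; rw [Function.update_self]
  refine exists_half_xt (Q := mw monL) (p := kp) (hp := kp_hd) (y0 := y8 t) (ρ0 := r8 θa θb)
    (rs_r8 _ _) hp1 hS RL8_full (RL8_mem ht0.ne' hB) hL.K0 hL.lip hL.mono hL.sup hc0 hR hy ?_ hN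
  rw [hL.zero, sub_zero]
  exact hκ

/-- cone of the plane with the offset `B`, `D` live -/
noncomputable abbrev L9B (θa θb : ℝ) (B : Fin 9 → ℝ) (sg : ℝ) : Set (Fin 12 → ℝ) :=
  (mw monL).L 0 (RL9.vec (sg • B)) (r9 θa θb)

/-- base of the generic point -/
noncomputable abbrev z9 (θa θb : ℝ) (B : Fin 9 → ℝ) (l α : ℝ) : Fin 12 → ℝ :=
  RL9.vec (l • B + α • nat9 1 (-θa) (-θb))

/-- `Half` in the letters of `RL9` -/
abbrev Half9 (θa θb : ℝ) (B : Fin 9 → ℝ) (sg : ℝ) {J : Type*} (lam : J → (Fin 12 → ℝ) → ℝ)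
    (j0 : J) (ρ : Fin 9 → ℝ) (κ l α : ℝ) (h : ℕ → ℝ) (lam2 : J → (Fin 12 → ℝ) → ℝ)
    (ρ2 : Fin 9 → ℝ) : Prop :=
  Half (mw monL) RL9 (nat9 1 (-θa) (-θb)) B sg 0 lam j0 ρ κ l α h lam2 ρ2

theorem L9' (θa θb : ℝ) : (mw monL).L 0 (RL9.vec (nat9 1 (-θa) (-θb))) 0 = PP (mw monL) := by
  rw [← r9_vec]; exact L9 θa θb

/-- **generic point of a half plane, `D` live** -/
theorem half9 {θa θb : ℝ} {J : Type*} [Finite J] {lam : J → (Fin 12 → ℝ) → ℝ}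
    {j0 : J} {K : ℝ} (hL : RecTan (PP (mw monL)) lam j0 K) {B : Fin 9 → ℝ} {sg : ℝ}
    (hS : SOk (nat9 1 (-θa) (-θb)) B sg) (hB : Leg9 B) {c0 : ℝ} (hc0 : 0 < c0) {ρ : Fin 9 → ℝ}
    (hR : Rates9 θa θb B sg c0 (lam j0) ρ) {κ y : ℝ} (hy : 0 < y)
    (hκ : lam j0 (RL9.vec (y • B)) ≤ κ * y) {N : Set (ℝ × ℝ)}
    (hN : ∀ᵐ z : ℝ × ℝ, z ∈ N) :
    ∃ l α : ℝ, 0 < l ∧ l < y ∧ ((l * sg, α) : ℝ × ℝ) ∈ N ∧ z9 θa θb B l α ∈ PP (mw monL) ∧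
      ∀ h' : ℕ → ℝ, (∀ m, 0 < h' m) → Tendsto h' atTop (𝓝 0) →
        ∃ (θ : ℕ → ℕ) (lam2 : J → (Fin 12 → ℝ) → ℝ) (ρ2 : Fin 9 → ℝ), StrictMono θ ∧
          (∀ j, Ex926.IsTan (PP (mw monL)) (L9B θa θb B sg) (lam j) (fun _ => z9 θa θb B l α)
            (fun m => h' (θ m)) (lam2 j)) ∧
          Half9 θa θb B sg lam j0 ρ κ l α (fun m => h' (θ m)) lam2 ρ2 := by
  classical
  have hLL := L9' θa θb
  obtain ⟨l, α, hl, hly, hzN, H⟩ := exists_half (Q := mw monL) (R := RL9)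
    (A := nat9 1 (-θa) (-θb)) (B := B) (sg := sg) (y0 := 0) (g := lam) (j0 := j0) hS RL9_full
    (by rw [hLL]; exact RL9_mem hB) hL.K0 (by rw [hLL]; exact hL.lip) (by rw [hLL]; exact hL.mono)
    (by rw [hLL]; exact hL.sup) hc0 hR hy (κ := κ) (by rw [hL.zero, sub_zero]; exact hκ) hN
  refine ⟨l, α, hl, hly, hzN, ?_, fun h' hpos h0 => ?_⟩
  · obtain ⟨hOO, hX⟩ := mem_OOv (Q := mw monL) (y0 := 0) (b := RL9.vec (nat9 1 (-θa) (-θb)))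
      (v := RL9.vec B) hS.sq (by rw [hLL]; exact RL9_mem hB) (l := l) (α := α) hl
    have h1 := SgZ388.X_mem_PP hOO
    rw [hX, cwl_PP, hLL] at h1
    unfold z9
    rw [RL9.vec_add, RL9.vec_smul, RL9.vec_smul]
    exact h1
  · obtain ⟨θ, lam2, ρ2, hθ, hH⟩ := H h' hpos h0
    refine ⟨θ, lam2, ρ2, hθ, fun j => ?_, hH⟩
    have := hH.tan j
    rw [hLL] at this
    have e : (RL9.srf 0 (nat9 1 (-θa) (-θb)) B sg).L (mw monL) = L9B θa θb B sg := by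
      unfold L9B; rw [r9_vec]; rfl
    rw [e] at this
    exact this

/-- tangents of `f j` at the moving base points over the generic point -/
theorem diag_at {P L L2 : Set (Fin 12 → ℝ)} {J : Type*} [Finite J]
    {f lam lam2 : J → (Fin 12 → ℝ) → ℝ} {X : ℕ → Fin 12 → ℝ} {H : ℕ → ℝ} (hpos : ∀ l, 0 < H l)
    (ht : ∀ j, Ex926.IsTan P L (f j) X H (lam j)) {z : Fin 12 → ℝ} (hz : z ∈ L) {h' : ℕ → ℝ}
    (hpos' : ∀ m, 0 < h' m) (ht2 : ∀ j, Ex926.IsTan L L2 (lam j) (fun _ => z) h' (lam2 j))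
    {Pr : ℕ → ℕ → Prop} (hPr : ∀ m, ∀ᶠ l in atTop, Pr m l) :
    ∃ ψ : ℕ → ℕ, StrictMono ψ ∧ (∀ m, Pr m (ψ m)) ∧ ∀ j,
      Ex926.IsTan P L2 (f j) (fun m => X (ψ m) + H (ψ m) • z) (fun m => H (ψ m) * h' m)
        (lam2 j) :=
  diagM (P := fun _ => P) (L := fun _ => L) (L' := fun _ => L2) hpos ht (y := fun _ => z)
    (fun _ _ => hz) hpos' ht2 hPr

end Crest.Agent.R116.Kz647
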