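import Crest.Agent.R116.Rcx4_363
import Crest.Agent.R116.Kz3_647

/-!
# R116 (K side, TIES), the producer, part 5 (helper363): the generic point of a half plane

`Out8` (the tangents `lam` at the record) + a surface ⊢ (647's `half8`) the tangents `lam2` at the
generic point `z0` of the half plane, tangents of `(ν, own)` themselves at explicit bases `X m`,
with `Prf` (own law with the visible slots which are tight there).  `z8_out`, `z9_out`.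
-/

set_option autoImplicit false
set_option linter.unusedVariables false

open Set Filter Topology MeasureTheory

namespace Crest.Agent.R116.Rcx363

open Crest.Agent.R138.Ex926 (IsTan)
open Crest.Agent.R136
open Crest.Agent.R136.Net191
open Crest.Agent.R116.ChL222
open Crest.Agent.R116.PL504 (eL βL rL)
open Crest.Agent.R116.Xd954 (cs xs)
open Crest.Agent.R116.Sg337 (coneL DL natB eL_bx9)
open Crest.Agent.R116.RbM219
open Crest.Agent.R116.RbK219 (SOk RS)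
open Crest.Agent.R116.SgO219 (PP)
open Crest.Agent.R116.Kz647
open Dg262 (SupOn)
open Dg219 (mw)
open Sl741 (slice xt rs)

section eight

variable {R s : ℝ} {a b : Fin 2} {Vis Vis' : Fin 12 → Prop} {θa θb g qa qb t : ℝ} {T : Type*}
    {Bs : T → Fin 8 → ℝ} {sgs : T → ℝ} {x0 : Fin 12 → ℝ} {f : Fin 2 → (Fin 12 → ℝ) → ℝ}
    {x : ℕ → Fin 12 → ℝ} {hh : ℕ → ℝ} {lam : Fin 2 → (Fin 12 → ℝ) → ℝ} {B : Fin 8 → ℝ} {sg : ℝ}

theorem Out8.recTan (O : Out8 R s a b Vis θa θb g qa qb t Bs sgs x0 f x hh lam) :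
    RecTan (L8 θa θb t) lam 0 12 where
  K0 := by norm_num
  lip := O.lip
  mono := O.rx.prf.anti
  sup := O.rx.prf.sm
  zero := O.zero 0

/-- slope of the D-max bound along an offset which is finer than a natural one -/
theorem Out8.kap (O : Out8 R s a b Vis θa θb g qa qb t Bs sgs x0 f x hh lam) (ht : t ≠ 0)
    (hL : ∀ y : ℝ, 0 ≤ y → Leg8 (y • B)) {v c p : ℝ} (hn : nat8 v c p ≤ B) {y : ℝ} (hy : 0 ≤ y) :
    lam 0 (xt kp 0 (RL8.vec (y • B))) ≤ DL g s qa qb v c p * y := by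
  have e : nat8 (y * v) (y * c) (y * p) = y • nat8 v c p := by
    funext i
    fin_cases i <;> simp [nat8] <;> ring
  have h1 : y • nat8 v c p ≤ y • B := by
    intro i
    simp only [Pi.smul_apply, smul_eq_mul]
    exact mul_le_mul_of_nonneg_left (hn i) hy
  have h2 := b8_anti O.rx.prf ht _ _ (by rw [← e]; exact leg8_nat _ _ _) (hL y hy) h1
  have h3 := O.rx.dmax (y * v) (y * c) (y * p)
  rw [← b8_nat, e, DL_smul] at h3
  unfold b8 at h2 h3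
  linarith

theorem leg8_smul {w : Fin 8 → ℝ} (hw : Leg8 w) {y : ℝ} (hy : 0 ≤ y) : Leg8 (y • w) := by
  obtain ⟨f1, f2, f3, f4, f5, f6, f7⟩ := hw
  constructor <;> simp only [Pi.smul_apply, smul_eq_mul] <;> nlinarith

theorem z8_val (l α : ℝ) {k : Fin 12} (hk : k ≠ 1) :
    z8 θa θb B l α k = l * B (cl8 k) + α * βL θa θb k := by
  have h1 : z8 θa θb B l α k = (l • B + α • nat8 1 (-θa) (-θb)) (cl8 k) := b8_val _ hk
  rw [h1]
  simp only [Pi.add_apply, Pi.smul_apply, smul_eq_mul]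
  congr 2
  fin_cases k <;> first | rfl | exact absurd rfl hk

/-- **`Prf` at the generic point** -/
theorem prf_z8 {lam0 lam2 : (Fin 12 → ℝ) → ℝ} (H : Prf (L8 θa θb t) s a b Vis (βL θa θb) lam0)
    {l α : ℝ} (hl : 0 < l) {h' : ℕ → ℝ} (hpos : ∀ m, 0 < h' m) (h0 : Tendsto h' atTop (𝓝 0))
    (ht : IsTan (L8 θa θb t) (L8B θa θb t B sg) lam0 (fun _ => z8 θa θb B l α) h' lam2)
    (hV1 : ¬ Vis 1)
    (hV : ∀ k, Vis k → (Vis' k ∧ B (cl8 k) ≤ B 0 * βL θa θb k) ∨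
      B (cl8 k) < B 0 * βL θa θb k) :
    Prf (L8B θa θb t B sg) s a b Vis' (βL θa θb) lam2 := by
  have hcs : ∀ c : Fin 2, cs c ≠ 1 := by intro c; fin_cases c <;> decide
  have hxs : ∀ c : Fin 2, xs c ≠ 1 := by intro c; fin_cases c <;> decide
  have z0 : z8 θa θb B l α 0 = l * B 0 + α := by
    rw [z8_val l α (by decide)]
    have e0 : βL θa θb 0 = 1 := rfl
    rw [e0, mul_one]; rfl
  refine H.tan hpos h0 ht (fun _ => ?_) (fun _ => ?_) fun k hk => ?_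
  · rw [z8_val l α (hcs b), z8_val l α (hcs a)]
    congr 2
    · fin_cases a <;> fin_cases b <;> rfl
    · fin_cases a <;> fin_cases b <;> rfl
  · rw [z8_val l α (hxs b), z8_val l α (hxs a)]
    congr 2
    · fin_cases a <;> fin_cases b <;> rfl
    · fin_cases a <;> fin_cases b <;> rfl
  · have hk1 : k ≠ 1 := by rintro rfl; exact hV1 hk
    rcases hV k hk with ⟨h1, h2⟩ | h1
    · refine Or.inl ⟨h1, fun _ => ?_⟩
      rw [z8_val l α hk1, z0]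
      nlinarith
    · refine Or.inr ⟨l * (B 0 * βL θa θb k - B (cl8 k)), mul_pos hl (by linarith),
        Eventually.of_forall fun _ => ?_⟩
      rw [z8_val l α hk1, z0]
      nlinarith

/-- **THE GENERIC POINT OF A HALF PLANE, `D` frozen**: tangents of `f = (ν, own)` at the bases
`X m = rL (v0 + V m) + E m • B` (slots `≠ 1`), `D` raised -/
theorem z8_out (O : Out8 R s a b Vis θa θb g qa qb t Bs sgs x0 f x hh lam) (ht0 : 0 < t)
    (hS : SOk (nat8 1 (-θa) (-θb)) B sg) (hL : Leg8 B) {c0 : ℝ} (hc0 : 0 < c0) {ρ : Fin 8 → ℝ}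
    (hR : Rates8 θa θb t B sg c0 (lam 0) ρ) {v c p : ℝ} (hn : nat8 v c p ≤ B) (hV1 : ¬ Vis 1)
    (hV : ∀ k, Vis k → (Vis' k ∧ B (cl8 k) ≤ B 0 * βL θa θb k) ∨ B (cl8 k) < B 0 * βL θa θb k)
    {N : Set (ℝ × ℝ)} (hN : ∀ᵐ z : ℝ × ℝ, z ∈ N) {y : ℝ} (hy : 0 < y)
    {Pr : ℕ → ℕ → Prop} (hPr : ∀ m, ∀ᶠ l in atTop, Pr m l) :
    ∃ (l α : ℝ) (h' : ℕ → ℝ) (lam2 : Fin 2 → (Fin 12 → ℝ) → ℝ) (ρ2 : Fin 8 → ℝ) (ψ : ℕ → ℕ),
      0 < l ∧ l < y ∧ ((l * sg, α) : ℝ × ℝ) ∈ N ∧ z8 θa θb B l α ∈ L8 θa θb t ∧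
      Half8 θa θb t B sg lam 0 ρ (DL g s qa qb v c p) l α h' lam2 ρ2 ∧
      (∀ j, IsTan (L8 θa θb t) (L8B θa θb t B sg) (lam j) (fun _ => z8 θa θb B l α) h' (lam2 j)) ∧
      (∀ m, 0 < h' m) ∧ Tendsto h' atTop (𝓝 0) ∧ StrictMono ψ ∧ (∀ m, Pr m (ψ m)) ∧
      (∀ j, IsTan (Leg monL R) (L8B θa θb t B sg) (f j)
        (fun m => x (ψ m) + hh (ψ m) • z8 θa θb B l α) (fun m => hh (ψ m) * h' m) (lam2 j)) ∧
      Prf (L8B θa θb t B sg) s a b Vis' (βL θa θb) (lam2 0) := by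
  obtain ⟨l, α, hl, hly, hzN, hzL, H⟩ := half8 ht0 O.recTan hS hL hc0 hR hy
    (O.kap ht0.ne' (fun y hy => leg8_smul hL hy) hn hy.le) hN
  set h1 : ℕ → ℝ := fun l => 1 / ((l : ℝ) + 1) with hh1
  have hpos : ∀ l, 0 < h1 l := fun l => by rw [hh1]; positivity
  have hh0 : Tendsto h1 atTop (𝓝 0) := tendsto_one_div_add_atTop_nhds_zero_nat
  obtain ⟨φ, lam2, ρ2, hφ, hT, hH⟩ := H h1 hpos hh0
  have hpos' : ∀ m, 0 < h1 (φ m) := fun m => hpos _
  have h0' : Tendsto (fun m => h1 (φ m)) atTop (𝓝 0) := hh0.comp hφ.tendsto_atTop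
  obtain ⟨ψ, hψ, hPψ, hTT⟩ := diag_at O.pos O.tan hzL hpos' hT hPr
  exact ⟨l, α, fun m => h1 (φ m), lam2, ρ2, ψ, hl, hly, hzN, hzL, hH, hT, hpos', h0', hψ, hPψ, hTT,
    prf_z8 O.rx.prf hl hpos' h0' (hT 0) hV1 hV⟩

/-- the bases, slots `≠ 1` -/
theorem base8_val {θa θb w0 sa sb v0 H y t hm l α : ℝ} {k : Fin 12} (hk : k ≠ 1) :
    (rL θa θb w0 sa sb v0 + H • (y8 t + y • r8 θa θb) + hm • z8 θa θb B l α) k =
      rL θa θb w0 sa sb (v0 + (H * y + hm * α)) k + hm * l * B (cl8 k) := by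
  rw [rL_add]
  simp only [Pi.add_apply, Pi.smul_apply, smul_eq_mul]
  rw [z8_val l α hk, y8_at hk]
  have h1 : r8 θa θb k = βL θa θb k := by
    unfold r8
    rw [Function.update_of_ne hk]; rfl
  rw [h1]
  ring

/-- the bases, slot `D` -/
theorem base8_one {θa θb w0 sa sb v0 H y t hm l α : ℝ} :
    (rL θa θb w0 sa sb v0 + H • (y8 t + y • r8 θa θb) + hm • z8 θa θb B l α) 1 =
      rL θa θb w0 sa sb (v0 + (H * y + hm * α)) 1 +
        (H * (t - y * (2 * θa - θb - 1)) - hm * (α * (2 * θa - θb - 1))) := by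
  rw [rL_add]
  simp only [Pi.add_apply, Pi.smul_apply, smul_eq_mul]
  have h1 : z8 θa θb B l α 1 = 0 := b8_one _
  have h2 : y8 t 1 = t := by unfold y8; rw [Function.update_self]
  have h3 : r8 θa θb 1 = 0 := by unfold r8; rw [Function.update_self]
  have h4 : βL θa θb 1 = 2 * θa - θb - 1 := by
    show -θb - 2 * -θa - 1 = _
    ring
  rw [h1, h2, h3, h4]
  ring

end eight

section nine

variable {R s : ℝ} {a b : Fin 2} {Vis Vis' : Fin 12 → Prop} {θa θb g qa qb : ℝ} {T : Type*}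
    {Bs : T → Fin 9 → ℝ} {sgs : T → ℝ} {x0 : Fin 12 → ℝ} {f : Fin 2 → (Fin 12 → ℝ) → ℝ}
    {x : ℕ → Fin 12 → ℝ} {hh : ℕ → ℝ} {lam : Fin 2 → (Fin 12 → ℝ) → ℝ} {B : Fin 9 → ℝ} {sg : ℝ}

theorem Out9.recTan (O : Out9 R s a b Vis θa θb g qa qb Bs sgs x0 f x hh lam) :
    RecTan (PP (mw monL)) lam 0 12 where
  K0 := by norm_num
  lip := by rw [← coneL_PP]; exact O.lip
  mono := by rw [← coneL_PP]; exact O.rx.prf.anti
  sup := by rw [← coneL_PP]; exact O.rx.prf.sm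
  zero := O.zero 0

theorem Out9.kap (O : Out9 R s a b Vis θa θb g qa qb Bs sgs x0 f x hh lam)
    (hL : ∀ y : ℝ, 0 ≤ y → Leg9 (y • B)) {v c p : ℝ} (hn : nat9 v c p ≤ B) {y : ℝ} (hy : 0 ≤ y) :
    lam 0 (RL9.vec (y • B)) ≤ DL g s qa qb v c p * y := by
  have e : nat9 (y * v) (y * c) (y * p) = y • nat9 v c p := by
    funext i
    fin_cases i <;> simp [nat9] <;> ring
  have h1 : y • nat9 v c p ≤ y • B := by
    intro i
    simp only [Pi.smul_apply, smul_eq_mul]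
    exact mul_le_mul_of_nonneg_left (hn i) hy
  have h2 := v9_anti O.rx.prf _ _ (by rw [← e]; exact leg9_nat _ _ _) (hL y hy) h1
  have h3 := O.rx.dmax (y * v) (y * c) (y * p)
  rw [← RL9_nat, e, DL_smul] at h3
  linarith

theorem leg9_smul {w : Fin 9 → ℝ} (hw : Leg9 w) {y : ℝ} (hy : 0 ≤ y) : Leg9 (y • w) := by
  obtain ⟨f1, f2, f3, f4, f5, f6, f7, f8, f9, f10⟩ := hw
  constructor <;> simp only [Pi.smul_apply, smul_eq_mul] <;> nlinarith

theorem z9_val (l α : ℝ) (k : Fin 12) :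
    z9 θa θb B l α k = l * B (cl9 k) + α * βL θa θb k := by
  have h1 : z9 θa θb B l α k = (l • B + α • nat9 1 (-θa) (-θb)) (cl9 k) := v9_val _ _
  rw [h1]
  simp only [Pi.add_apply, Pi.smul_apply, smul_eq_mul]
  congr 2
  fin_cases k <;> rfl

/-- **`Prf` at the generic point** -/
theorem prf_z9 {lam0 lam2 : (Fin 12 → ℝ) → ℝ} (H : Prf coneL s a b Vis (βL θa θb) lam0)
    {l α : ℝ} (hl : 0 < l) {h' : ℕ → ℝ} (hpos : ∀ m, 0 < h' m) (h0 : Tendsto h' atTop (𝓝 0))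
    (ht : IsTan (PP (mw monL)) (L9B θa θb B sg) lam0 (fun _ => z9 θa θb B l α) h' lam2)
    (hV : ∀ k, Vis k → (Vis' k ∧ B (cl9 k) ≤ B 0 * βL θa θb k) ∨
      B (cl9 k) < B 0 * βL θa θb k) :
    Prf (L9B θa θb B sg) s a b Vis' (βL θa θb) lam2 := by
  rw [← coneL_PP] at ht
  have z0 : z9 θa θb B l α 0 = l * B 0 + α := by
    rw [z9_val l α]
    have e0 : βL θa θb 0 = 1 := rfl
    rw [e0, mul_one]; rfl
  refine H.tan hpos h0 ht (fun _ => ?_) (fun _ => ?_) fun k hk => ?_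
  · rw [z9_val l α, z9_val l α]
    congr 2
    · fin_cases a <;> fin_cases b <;> rfl
    · fin_cases a <;> fin_cases b <;> rfl
  · rw [z9_val l α, z9_val l α]
    congr 2
    · fin_cases a <;> fin_cases b <;> rfl
    · fin_cases a <;> fin_cases b <;> rfl
  · rcases hV k hk with ⟨h1, h2⟩ | h1
    · refine Or.inl ⟨h1, fun _ => ?_⟩
      rw [z9_val l α, z0]
      nlinarith
    · refine Or.inr ⟨l * (B 0 * βL θa θb k - B (cl9 k)), mul_pos hl (by linarith),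
        Eventually.of_forall fun _ => ?_⟩
      rw [z9_val l α, z0]
      nlinarith

/-- **THE GENERIC POINT OF A HALF PLANE, `D` live** -/
theorem z9_out (O : Out9 R s a b Vis θa θb g qa qb Bs sgs x0 f x hh lam)
    (hS : SOk (nat9 1 (-θa) (-θb)) B sg) (hL : Leg9 B) {c0 : ℝ} (hc0 : 0 < c0) {ρ : Fin 9 → ℝ}
    (hR : Rates9 θa θb B sg c0 (lam 0) ρ) {v c p : ℝ} (hn : nat9 v c p ≤ B)
    (hV : ∀ k, Vis k → (Vis' k ∧ B (cl9 k) ≤ B 0 * βL θa θb k) ∨ B (cl9 k) < B 0 * βL θa θb k)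
    {N : Set (ℝ × ℝ)} (hN : ∀ᵐ z : ℝ × ℝ, z ∈ N) {y : ℝ} (hy : 0 < y)
    {Pr : ℕ → ℕ → Prop} (hPr : ∀ m, ∀ᶠ l in atTop, Pr m l) :
    ∃ (l α : ℝ) (h' : ℕ → ℝ) (lam2 : Fin 2 → (Fin 12 → ℝ) → ℝ) (ρ2 : Fin 9 → ℝ) (ψ : ℕ → ℕ),
      0 < l ∧ l < y ∧ ((l * sg, α) : ℝ × ℝ) ∈ N ∧ z9 θa θb B l α ∈ PP (mw monL) ∧
      Half9 θa θb B sg lam 0 ρ (DL g s qa qb v c p) l α h' lam2 ρ2 ∧
      (∀ j, IsTan (PP (mw monL)) (L9B θa θb B sg) (lam j) (fun _ => z9 θa θb B l α) h'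
        (lam2 j)) ∧
      (∀ m, 0 < h' m) ∧ Tendsto h' atTop (𝓝 0) ∧ StrictMono ψ ∧ (∀ m, Pr m (ψ m)) ∧
      (∀ j, IsTan (Leg monL R) (L9B θa θb B sg) (f j)
        (fun m => x (ψ m) + hh (ψ m) • z9 θa θb B l α) (fun m => hh (ψ m) * h' m) (lam2 j)) ∧
      Prf (L9B θa θb B sg) s a b Vis' (βL θa θb) (lam2 0) := by
  obtain ⟨l, α, hl, hly, hzN, hzL, H⟩ := half9 O.recTan hS hL hc0 hR hy
    (O.kap (fun y hy => leg9_smul hL hy) hn hy.le) hN
  set h1 : ℕ → ℝ := fun l => 1 / ((l : ℝ) + 1) with hh1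
  have hpos : ∀ l, 0 < h1 l := fun l => by rw [hh1]; positivity
  have hh0 : Tendsto h1 atTop (𝓝 0) := tendsto_one_div_add_atTop_nhds_zero_nat
  obtain ⟨φ, lam2, ρ2, hφ, hT, hH⟩ := H h1 hpos hh0
  have hpos' : ∀ m, 0 < h1 (φ m) := fun m => hpos _
  have h0' : Tendsto (fun m => h1 (φ m)) atTop (𝓝 0) := hh0.comp hφ.tendsto_atTop
  obtain ⟨ψ, hψ, hPψ, hTT⟩ := diag_at (P := Leg monL R) (L := PP (mw monL)) O.pos
    (by rw [← coneL_PP]; exact O.tan) hzL hpos' hT hPr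
  exact ⟨l, α, fun m => h1 (φ m), lam2, ρ2, ψ, hl, hly, hzN, hzL, hH, hT, hpos', h0', hψ, hPψ, hTT,
    prf_z9 O.rx.prf hl hpos' h0' (hT 0) hV⟩

/-- the bases -/
theorem base9_val {θa θb w0 sa sb v0 H y hm l α : ℝ} (k : Fin 12) :
    (rL θa θb w0 sa sb v0 + H • (y • r9 θa θb) + hm • z9 θa θb B l α) k =
      rL θa θb w0 sa sb (v0 + (H * y + hm * α)) k + hm * l * B (cl9 k) := by
  rw [rL_add]
  simp only [Pi.add_apply, Pi.smul_apply, smul_eq_mul]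
  rw [z9_val l α k]
  have h1 : r9 θa θb k = βL θa θb k := rfl
  rw [h1]
  ring

end nine

end Crest.Agent.R116.Rcx363
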