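import Crest.Agent.R116.Kw3_647
import Crest.Agent.R116.Rcx5_363
import Crest.Agent.R116.KTie_794

/-!
# R116, ties (helper647): the field `sum` of `KTie` over 363's `Out8`, and the visible slots of the
cells of `FillK`, `FillE`, `FillD`.
-/

set_option autoImplicit false
set_option linter.unusedSectionVars false
set_option linter.unusedVariables false

open Set Filter Topology MeasureTheory

namespace Crest.Agent.R116.Fk647

open Crest.Agent.R138.Ex926 (Base U)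
open Crest.Agent.R136
open Crest.Agent.R136.MkA627
open Crest.Agent.R136.TD627
open Crest.Agent.R116.KI439 hiding kD
open Crest.Agent.R116.Gd222 (TSet)
open Crest.Agent.R116.ChL222 (LInc monL)
open Crest.Agent.R116.Tw468 (OutT OutR)
open Crest.Agent.R116.KF439 (PL)
open Crest.Agent.R116.CtxB468
open Crest.Agent.R116.KTie794
open Crest.Agent.R116.PL504 (eL βL rL)
open Crest.Agent.R116.Sg337 (DL)
open Crest.Agent.R116.RbM219
open Crest.Agent.R116.RbK219 (SOk RS)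
open Crest.Agent.R116.Tp139 (kD)
open Crest.Agent.R116.Rcx363
open Dg262 (SupOn)
open Sl741 (xt rs)

section out

variable {R s : ℝ} {a b : Fin 2} {Vis Vis' : Fin 12 → Prop} {θa θb g qa qb t : ℝ} {T : Type*}
    {Bs : T → Fin 8 → ℝ} {sgs : T → ℝ} {x0 : Fin 12 → ℝ} {f : Fin 2 → (Fin 12 → ℝ) → ℝ}
    {x : ℕ → Fin 12 → ℝ} {hh : ℕ → ℝ} {lam : Fin 2 → (Fin 12 → ℝ) → ℝ}

/-- **the field `sum` of `KTie`, from the producer** : `k = 2 θa - θb ≤ θa`, `k < 1` -/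
theorem sum8_out (O : Out8 R s a b Vis θa θb g qa qb t Bs sgs x0 f x hh lam) (ht0 : 0 < t)
    (hθ : 0 < θa) (hk : 0 < 2 * θa - θb) (hk1 : 2 * θa - θb < 1) (hkθ : 2 * θa - θb ≤ θa)
    (hV : ∀ i, Vis i → i = 0 ∨ i = 2) {c0 : ℝ} (hc0 : 0 < c0)
    (hM : (srf8 θa θb t kD (-1)).LW (Q8 t) c0 ⊆ (Q8 t).L (rs kp (y8 t)) (rs kp (r8 θa θb)) 0)
    {ρ : Fin 8 → ℝ} (hR : Rates8 θa θb t kD (-1) c0 (lam 0) ρ) :
    g + qa + qb ≤ ρ 1 + ρ 2 := by
  refine Kv647.sum8 (k := 2 * θa - θb) (Vis := Vis) hθ hk hk1 hkθ (by ring) ht0.ne' (O.lip 0)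
    O.rx.prf.anti O.rx.prf.sm (O.zero 0) hV O.rx.prf.own (fun v c p => ?_) hc0 hM hR
  rw [RL8_nat]
  exact O.rx.dmax v c p

/-- the surface `kD` of the family : constants -/
theorem sum8_surf (O : Out8 R s a b Vis θa θb g qa qb t Bs sgs x0 f x hh lam) (ht0 : 0 < t)
    (hθ : 0 < θa) (hk : 0 < 2 * θa - θb) (hk1 : 2 * θa - θb < 1) (hkθ : 2 * θa - θb ≤ θa)
    (hV : ∀ i, Vis i → i = 0 ∨ i = 2) {i : T} (hB : Bs i = kD) (hs : sgs i = -1) :
    ∃ c0 : ℝ, 0 < c0 ∧ Rec8 θa θb t kD (-1) c0 (lam 0) ∧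
      ∃ ρ, Rates8 θa θb t kD (-1) c0 (lam 0) ρ ∧ g + qa + qb ≤ ρ 1 + ρ 2 := by
  obtain ⟨c0, hc0, hM, hRec, ρ, hR⟩ := O.surf i
  rw [hB, hs] at hM hRec hR
  exact ⟨c0, hc0, hRec, ρ, hR, sum8_out O ht0 hθ hk hk1 hkθ hV hc0 hM hR⟩

end out

section vis

variable {G : Geo TSet (Fin 2)} {L : ℕ → ℕ → LRay} {r : ℕ → ℝ} {g s : ℝ} {θ q : Fin 2 → ℝ}
    {Rg : ℝ} {B : Base} {I : ℕ → Finset (ℕ × ℝ)} {lev : ℕ → ℚ → ℕ} {A : ℕ → ℝ}
    {f : ℕ → ℚ → ℕ → ℤ → ℕ} {b : ℕ → ℚ → ℕ → TSet} {vm : ℕ → ℚ → ℝ} {w : Fin 2 → ℕ → ℚ → ℝ}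
    {fr : ℕ → ℚ → ℕ × ℝ → LInc} {fl : ℕ → ℕ × ℝ → LInc} {sc : Fin 12 → ℕ → ℝ}

/-- only `0, 1, 2, 7, 8` can be visible -/
theorem vis_flag (h : OutT G L r g s θ q Rg B I lev A f b vm w fr fl sc) (i : Fin 12)
    (hv : VisT B I fl sc i) : i = 0 ∨ i = 1 ∨ i = 2 ∨ i = 7 ∨ i = 8 := by
  by_contra hn
  refine hv (h.inv_ray ?_)
  revert hn
  clear hv
  revert i
  decide

/-- `D` is invisible for `2 θa - θb ≤ 1` -/
theorem vis_noD (h : OutT G L r g s θ q Rg B I lev A f b vm w fr fl sc)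
    (hk : 2 * θ 0 - θ 1 ≤ 1) : ¬ VisT B I fl sc 1 :=
  not_not.2 (h.invD (by linarith))

/-- visible slots of `FillK`, `k' ≤ 1` -/
theorem vis_kap (h : OutT G L r g s θ q Rg B I lev A f b vm w fr fl sc) (hB : InvB B I fl sc)
    (hk : 2 * θ 0 - θ 1 ≤ 1) (i : Fin 12) (hv : VisT B I fl sc i) : i = 0 ∨ i = 2 := by
  rcases vis_flag h i hv with rfl | rfl | rfl | rfl | rfl
  · exact Or.inl rfl
  · exact absurd hv (vis_noD h hk)
  · exact Or.inr rfl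
  · exact absurd hB.1 hv
  · exact absurd hB.2 hv

/-- visible slots of `FillK`, every `k'` -/
theorem vis_kap' (h : OutT G L r g s θ q Rg B I lev A f b vm w fr fl sc) (hB : InvB B I fl sc)
    (i : Fin 12) (hv : VisT B I fl sc i) : i = 0 ∨ i = 1 ∨ i = 2 := by
  rcases vis_flag h i hv with rfl | rfl | rfl | rfl | rfl
  · exact Or.inl rfl
  · exact Or.inr (Or.inl rfl)
  · exact Or.inr (Or.inr rfl)
  · exact absurd hB.1 hv
  · exact absurd hB.2 hv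

/-- visible slots of `FillE` -/
theorem vis_e (h : OutT G L r g s θ q Rg B I lev A f b vm w fr fl sc) (hE : InvE B I fl sc)
    (i : Fin 12) (hv : VisT B I fl sc i) : i = 0 ∨ i = 7 ∨ i = 8 := by
  rcases vis_flag h i hv with rfl | rfl | rfl | rfl | rfl
  · exact Or.inl rfl
  · exact absurd hE.2 hv
  · exact absurd hE.1 hv
  · exact Or.inr (Or.inl rfl)
  · exact Or.inr (Or.inr rfl)

/-- visible slots of `FillD`, `k' ≤ 1` -/
theorem vis_dbl (h : OutT G L r g s θ q Rg B I lev A f b vm w fr fl sc)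
    (hk : 2 * θ 0 - θ 1 ≤ 1) (i : Fin 12) (hv : VisT B I fl sc i) :
    i = 0 ∨ i = 2 ∨ i = 7 ∨ i = 8 := by
  rcases vis_flag h i hv with rfl | rfl | rfl | rfl | rfl
  · exact Or.inl rfl
  · exact absurd hv (vis_noD h hk)
  · exact Or.inr (Or.inl rfl)
  · exact Or.inr (Or.inr (Or.inl rfl))
  · exact Or.inr (Or.inr (Or.inr rfl))

end vis

end Crest.Agent.R116.Fk647
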