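import Crest.Agent.R116.Ap3_954
import Crest.Agent.R116.Fk1_647

/-!
# R116, K side: `c + (q_a + q_b) / 2 ≤ 1` with `E` visible, `k' = 2 θ_a - θ_b ≤ 1/2`
(helper954, for 635 / 850: κ-tie, `1/2 ≤ s`)

Same step as Ap1_954, in the plane of `(1; 1, 6)` and `(-1; 1/2 + 2 ε, 1/2 + 3 ε)`; `E` moves by
`-1/2 - ε` along the second direction, hence stays strictly below its own exponent.
-/

set_option autoImplicit false
set_option linter.unusedVariables false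
set_option linter.unusedSectionVars false

open Filter Topology

namespace Crest.Agent.R116.ApV954

open Finset
open Crest.Agent.R138.Ex926
open Crest.Agent.R136.Net191 Crest.Agent.R136.Qg926 Crest.Agent.R136.Gf356
open Crest.Agent.R136.Dg219 (Dir Out det2 lf gset mem_gset mw mem_mwO leg_out leg_tan)
open Crest.Agent.R116.ChL222 Crest.Agent.R116.PL504
open Crest.Agent.R116.WinG954
open Crest.Agent.R116.Sg337 (bx9)
open Crest.Agent.R116.Ap954 (grp9 ix9 aA av aA_ix aA_grp Pins gset9 LM_L)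

local notation "XX" => Crest.Agent.R136.Dg262.X

/-- second natural direction `(-1; 1/2 + 2 ε, 1/2 + 3 ε)` -/
noncomputable def bB (ε : ℝ) : Fin 12 → ℝ := eL (-1) (1 / 2 + 2 * ε) (1 / 2 + 3 * ε)

/-- direction of a group -/
noncomputable def nV (ε : ℝ) (k : Fin 9) : ℝ × ℝ := (aA (ix9 k), bB ε (ix9 k))

/-- slopes of the groups, explicitly -/
noncomputable def bvV (ε : ℝ) : Fin 9 → ℝ :=
  ![-1, 1 / 2 - ε, -(1 / 2) - ε, 1 / 2 + 2 * ε, -(1 / 2) + 2 * ε, ε, 4 * ε, 1 / 2 + 3 * ε,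
    -(1 / 2) + 3 * ε]

theorem bB_ix (ε : ℝ) (k : Fin 9) : bB ε (ix9 k) = bvV ε k := by
  fin_cases k <;> simp [bB, ix9, bvV, eL] <;> ring

theorem bB_grp (ε : ℝ) (i : Fin 12) : bB ε i = bB ε (ix9 (grp9 i)) := by
  fin_cases i <;> rfl

theorem detV {ε : ℝ} (h0 : 0 < ε) (h1 : ε ≤ 1 / 100) (k l : Fin 9) (h : k ≠ l) :
    av k * bvV ε l - bvV ε k * av l ≠ 0 := by
  intro he
  fin_cases k <;> fin_cases l <;>
    first
      | exact h rfl
      | (simp [av, bvV] at he; try linarith)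

theorem dirV {ε : ℝ} (h0 : 0 < ε) (h1 : ε ≤ 1 / 100) :
    Dir grp9 aA (bB ε) (nV ε) (fun _ => 1) where
  pos := fun i => one_pos
  fst := fun i => by rw [one_mul]; exact aA_grp i
  snd := fun i => by rw [one_mul]; exact bB_grp ε i
  ne := fun i h => by
    have h2 : (nV ε (grp9 i)).1 = 0 := by rw [h]; rfl
    change aA (ix9 (grp9 i)) = 0 at h2
    rw [aA_ix] at h2
    revert h2
    generalize grp9 i = k
    fin_cases k <;> simp [av]
  det := fun i j hij => by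
    have := detV h0 h1 (grp9 i) (grp9 j) hij
    unfold det2 nV
    rw [aA_ix, aA_ix, bB_ix, bB_ix]
    exact this

/-- the natural boxes of the plane -/
theorem X_natV (w0 sa sb v0 a0 b0 ε : ℝ) (z : ℝ × ℝ) :
    XX (nb w0 sa sb v0 a0 b0) aA (bB ε) z = nb w0 sa sb (v0 + (z.1 - z.2))
      (a0 + (z.1 + (1 / 2 + 2 * ε) * z.2)) (b0 + (6 * z.1 + (1 / 2 + 3 * ε) * z.2)) := by
  funext k
  unfold Crest.Agent.R136.Dg262.X
  fin_cases k <;> simp [nb, eL, aA, bB] <;> ring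

theorem mem_O {w0 sa sb v0 a0 b0 ε R : ℝ} {z : ℝ × ℝ}
    (h : ∀ k, 0 < XX (nb w0 sa sb v0 a0 b0) aA (bB ε) z k ∧
      XX (nb w0 sa sb v0 a0 b0) aA (bB ε) z k < R) :
    z ∈ (mw monL).O (fun _ => 0) (fun _ => R) (nb w0 sa sb v0 a0 b0) aA (bB ε) :=
  mem_mwO.2 ⟨h, fun k e he => Or.inl ⟨(eL_wall _ _ _ k he).symm, (eL_wall _ _ _ k he).symm,
    (eL_wall _ _ _ k he).symm⟩⟩

theorem nb_2 (w0 sa sb v a b : ℝ) : nb w0 sa sb v a b 2 = b + sb - 2 * (a + sa) := by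
  simp [nb, eL]; ring

theorem linV_of {L : Set (Fin 12 → ℝ)} {ε : ℝ} {lam : (Fin 12 → ℝ) → ℝ} {A : ℝ × ℝ}
    {φ : Fin 9 → (Fin 12 → ℝ) → ℝ} {r : Fin 9 → ℝ}
    (H : Out grp9 L (fun _ => 1) (nV ε) lam A φ r) (hL : LM ⊆ L) :
    LinM lam (r 0) (r 4) (r 6) (r 8) (r 3) (r 7) (r 2) (r 5) (r 1) := by
  intro z D C P E B X N F hm
  have hm' := hL hm
  have rt : ∀ (k : Fin 9) (u : ℝ), (∀ i, grp9 i = k → bx9 z D E C X B N P F i = u * 1) →
      φ k (bx9 z D E C X B N P F) = -(r k * u) := fun k u h => H.rate k _ hm' u h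
  have r0 := rt 0 z (by intro i hi; fin_cases i <;> first | (simp [bx9]; done) | exact absurd hi (by decide))
  have r1 := rt 1 D (by intro i hi; fin_cases i <;> first | (simp [bx9]; done) | exact absurd hi (by decide))
  have r2 := rt 2 E (by intro i hi; fin_cases i <;> first | (simp [bx9]; done) | exact absurd hi (by decide))
  have r3 := rt 3 C (by intro i hi; fin_cases i <;> first | (simp [bx9]; done) | exact absurd hi (by decide))
  have r4 := rt 4 X (by intro i hi; fin_cases i <;> first | (simp [bx9]; done) | exact absurd hi (by decide))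
  have r5 := rt 5 B (by intro i hi; fin_cases i <;> first | (simp [bx9]; done) | exact absurd hi (by decide))
  have r6 := rt 6 N (by intro i hi; fin_cases i <;> first | (simp [bx9]; done) | exact absurd hi (by decide))
  have r7 := rt 7 P (by intro i hi; fin_cases i <;> first | (simp [bx9]; done) | exact absurd hi (by decide))
  have r8 := rt 8 F (by intro i hi; fin_cases i <;> first | (simp [bx9]; done) | exact absurd hi (by decide))
  rw [H.sum _ hm', gset9]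
  simp only [Fin.sum_univ_succ]
  change φ 0 _ + (φ 1 _ + (φ 2 _ + (φ 3 _ + (φ 4 _ + (φ 5 _ + (φ 6 _ + (φ 7 _ + (φ 8 _ + 0)))))))) = _
  rw [r0, r1, r2, r3, r4, r5, r6, r7, r8]
  ring


/-- **the row** from the data at one generic point -/
theorem rowV {c s q0 q1 ε δ : ℝ} (h0 : 0 < ε) (hq0 : 0 ≤ q0) (hq1 : 0 ≤ q1) {r : Fin 9 → ℝ}
    (hr0 : ∀ k, 0 ≤ r k) (b1 : r 1 ≤ 1) (b2 : r 2 ≤ 1) (b3 : r 3 ≤ 2) (b4 : r 4 ≤ 2)
    (b5 : r 5 ≤ 2) (b6 : r 6 ≤ 1) (b7 : r 7 ≤ 1) (b8 : r 8 ≤ 1) (own : 1 - s ≤ r 0)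
    (p1 : r 3 ≤ r 4) (p2 : r 7 ≤ r 8) (p3 : r 1 ≤ r 2)
    (hD : -∑ k, r k * bvV ε k ≤
      -((c - 4 + s) + (3 + q0) * (1 / 2 + 2 * ε) + (1 + q1) * (1 / 2 + 3 * ε)) + 2 * δ) :
    c + (q0 + q1) / 2 ≤ 1 + 18 * ε + 2 * δ := by
  have e : ∑ k, r k * bvV ε k = -r 0 + r 1 * (1 / 2 - ε) + r 2 * (-(1 / 2) - ε) +
      r 3 * (1 / 2 + 2 * ε) + r 4 * (-(1 / 2) + 2 * ε) + r 5 * ε + r 6 * (4 * ε) +
      r 7 * (1 / 2 + 3 * ε) + r 8 * (-(1 / 2) + 3 * ε) := by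
    simp only [Fin.sum_univ_succ]
    change r 0 * (-1) + (r 1 * (1 / 2 - ε) + (r 2 * (-(1 / 2) - ε) + (r 3 * (1 / 2 + 2 * ε) +
      (r 4 * (-(1 / 2) + 2 * ε) + (r 5 * ε + (r 6 * (4 * ε) + (r 7 * (1 / 2 + 3 * ε) +
      (r 8 * (-(1 / 2) + 3 * ε) + 0)))))))) = _
    ring
  rw [e] at hD
  have m1 := mul_nonneg (hr0 1) h0.le
  have m2 := mul_nonneg (hr0 2) h0.le
  have m3 := mul_le_mul_of_nonneg_right b3 h0.le
  have m4 := mul_le_mul_of_nonneg_right b4 h0.le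
  have m5 := mul_le_mul_of_nonneg_right b5 h0.le
  have m6 := mul_le_mul_of_nonneg_right b6 h0.le
  have m7 := mul_le_mul_of_nonneg_right b7 h0.le
  have m8 := mul_le_mul_of_nonneg_right b8 h0.le
  have n0 := mul_nonneg hq0 h0.le
  have n1 := mul_nonneg hq1 h0.le
  nlinarith

/-- **core**: `ν(x0) ≥ c₀ + DN` at the record point, `ν ≤ c₀ + DN` at one point of the segment,
the segment lies in the interior of the legal set. -/
theorem core {R w0 sa sb v0 a0 b0 c s q0 q1 θa θb c₀ ε K t0 lE kE : ℝ} {ν : (Fin 12 → ℝ) → ℝ}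
    (h0 : 0 < ε) (h1 : ε ≤ 1 / 100) (hq0 : 0 ≤ q0) (hq1 : 0 ≤ q1) (hK : 0 ≤ K)
    (hν : ∀ p ∈ Leg monL R, ∀ q ∈ Leg monL R, |ν p - ν q| ≤ K * ‖p - q‖)
    (hm : ∀ p ∈ Leg monL R, ∀ q ∈ Leg monL R, p ≤ q → ν q ≤ ν p ∧ ν p - ν q ≤ ∑ i, (q i - p i))
    (hs : ∀ p ∈ Leg monL R, ∀ q ∈ Leg monL R, p ⊓ q ∈ Leg monL R →
      ν p + ν q ≤ ν (p ⊔ q) + ν (p ⊓ q))
    (hown : ∀ p ∈ Leg monL R, ∀ q ∈ Leg monL R, p ≤ q → w0 ≤ p 0 → q 0 ≤ w0 + 1 →
      p 2 ≤ lE + kE * p 0 → (1 - s) * (q 0 - p 0) ≤ ν p - ν q)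
    (ht0 : 0 < t0)
    (hin : ∀ t, 0 < t → t ≤ t0 → (∀ k,
      0 < nb w0 sa sb (v0 - t) (a0 + (1 / 2 + 2 * ε) * t) (b0 + (1 / 2 + 3 * ε) * t) k ∧
      nb w0 sa sb (v0 - t) (a0 + (1 / 2 + 2 * ε) * t) (b0 + (1 / 2 + 3 * ε) * t) k < R) ∧
      (0 < v0 - t ∧ v0 - t < 1) ∧
      (b0 + (1 / 2 + 3 * ε) * t + sb - 2 * (a0 + (1 / 2 + 2 * ε) * t + sa)) <
        lE + kE * (w0 + (v0 - t)))
    (hx : nb w0 sa sb v0 a0 b0 ∈ Leg monL R)
    (hrec : c₀ + DN c s q0 q1 θa θb v0 a0 b0 ≤ ν (nb w0 sa sb v0 a0 b0))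
    (hdm : ν (nb w0 sa sb (v0 - t0) (a0 + (1 / 2 + 2 * ε) * t0) (b0 + (1 / 2 + 3 * ε) * t0)) ≤
      c₀ + DN c s q0 q1 θa θb (v0 - t0) (a0 + (1 / 2 + 2 * ε) * t0) (b0 + (1 / 2 + 3 * ε) * t0))
    (pins : Pins R w0 s ν) : c + (q0 + q1) / 2 ≤ 1 + 18 * ε := by
  classical
  set x0 := nb w0 sa sb v0 a0 b0 with hx0
  set κ : ℝ := -((c - 4 + s) + (3 + q0) * (1 / 2 + 2 * ε) + (1 + q1) * (1 / 2 + 3 * ε)) with hκ
  -- it suffices to lose `2 δ`
  refine le_of_forall_pos_le_add fun δ' hδ' => ?_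
  set δ : ℝ := δ' / 2 with hδd
  have hδ : 0 < δ := by positivity
  have e2δ : 2 * δ = δ' := by rw [hδd]; ring
  rw [← e2δ]
  -- the interior
  set Ω : Set (ℝ × ℝ) := {z | (∀ k, 0 < XX x0 aA (bB ε) z k ∧ XX x0 aA (bB ε) z k < R) ∧
    (w0 < XX x0 aA (bB ε) z 0 ∧ XX x0 aA (bB ε) z 0 < w0 + 1) ∧
    XX x0 aA (bB ε) z 2 < lE + kE * XX x0 aA (bB ε) z 0} with hΩ
  have hXc : Continuous fun z => XX x0 aA (bB ε) z := Crest.Agent.R136.Dg262.X_cont _ _ _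
  have hΩo : IsOpen Ω := by
    have hk : ∀ k, Continuous fun z => XX x0 aA (bB ε) z k := fun k => (continuous_apply k).comp hXc
    have e : Ω = (⋂ k, ({z | 0 < XX x0 aA (bB ε) z k} ∩ {z | XX x0 aA (bB ε) z k < R})) ∩
        (({z | w0 < XX x0 aA (bB ε) z 0} ∩ {z | XX x0 aA (bB ε) z 0 < w0 + 1}) ∩
        {z | XX x0 aA (bB ε) z 2 < lE + kE * XX x0 aA (bB ε) z 0}) := by
      ext z
      simp only [hΩ, Set.mem_ofPred_eq, Set.mem_inter_iff, Set.mem_iInter]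
    rw [e]
    exact (isOpen_iInter_of_finite fun k => (isOpen_lt continuous_const (hk k)).inter
      (isOpen_lt (hk k) continuous_const)).inter
      (((isOpen_lt continuous_const (hk 0)).inter (isOpen_lt (hk 0) continuous_const)).inter
      (isOpen_lt (hk 2) (continuous_const.add (continuous_const.mul (hk 0)))))
  have hseg : ∀ t, 0 < t → t ≤ t0 → ((0 : ℝ), t) ∈ Ω := by
    intro t h2 h3
    obtain ⟨i1, ⟨i2, i3⟩, i4⟩ := hin t h2 h3
    have e : XX x0 aA (bB ε) ((0 : ℝ), t) =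
        nb w0 sa sb (v0 - t) (a0 + (1 / 2 + 2 * ε) * t) (b0 + (1 / 2 + 3 * ε) * t) := by
      rw [hx0, X_natV]
      congr 1 <;> ring
    refine ⟨fun k => by rw [e]; exact i1 k, ⟨?_, ?_⟩, ?_⟩
    · rw [e, nb_z]; linarith
    · rw [e, nb_z]; linarith
    · rw [e, nb_z, nb_2]; linarith
  have hΩO : ∀ z ∈ Ω, z ∈ (mw monL).O (fun _ => 0) (fun _ => R) x0 aA (bB ε) :=
    fun z hz => mem_O hz.1
  have hΩL : ∀ z ∈ Ω, XX x0 aA (bB ε) z ∈ Leg monL R := fun z hz => by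
    have := Crest.Agent.R136.Dg219.Walls.X_mem _ (hΩO z hz)
    rwa [Crest.Agent.R136.Dg219.mw_P] at this
  -- the two end points
  set K' : ℝ := K * ‖bB ε‖ + |κ| with hK'
  have hK'0 : 0 ≤ K' := by positivity
  set t1 : ℝ := t0 * (δ / (2 * (K' + δ))) with ht1
  have ht1p : 0 < t1 := by positivity
  have hfr : K' * (δ / (2 * (K' + δ))) ≤ δ / 2 := by
    rw [← mul_div_assoc, div_le_div_iff₀ (by positivity) two_pos]
    nlinarith
  have hfr2 : δ / (2 * (K' + δ)) ≤ 1 / 2 := by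
    rw [div_le_div_iff₀ (by positivity) two_pos]
    nlinarith
  have ht1h : t1 ≤ t0 / 2 := by
    rw [ht1]
    have := mul_le_mul_of_nonneg_left hfr2 ht0.le
    linarith
  have ht1K : K' * t1 ≤ δ * (t0 - t1) := by
    have e1 : K' * t1 = t0 * (K' * (δ / (2 * (K' + δ)))) := by rw [ht1]; ring
    have e2 := mul_le_mul_of_nonneg_left hfr ht0.le
    have e3 : δ * t1 ≤ δ * (t0 / 2) := mul_le_mul_of_nonneg_left ht1h hδ.le
    rw [e1]
    linarith
  have ht10 : 0 < t0 - t1 := by linarith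
  have eX : ∀ t : ℝ, XX x0 aA (bB ε) ((0 : ℝ), t) = x0 + t • bB ε := by
    intro t
    funext k
    unfold Crest.Agent.R136.Dg262.X
    simp only [Pi.add_apply, Pi.smul_apply, smul_eq_mul]
    ring
  have eN : ∀ t : ℝ, XX x0 aA (bB ε) ((0 : ℝ), t) =
      nb w0 sa sb (v0 - t) (a0 + (1 / 2 + 2 * ε) * t) (b0 + (1 / 2 + 3 * ε) * t) := by
    intro t
    rw [hx0, X_natV]
    congr 1 <;> ring
  have m1 : XX x0 aA (bB ε) ((0 : ℝ), t1) ∈ Leg monL R :=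
    hΩL _ (hseg t1 ht1p (by linarith))
  have hν1 : ν x0 - K * ‖bB ε‖ * t1 ≤ ν (XX x0 aA (bB ε) ((0 : ℝ), t1)) := by
    have h2 := hν _ hx _ m1
    have e1 : x0 - XX x0 aA (bB ε) ((0 : ℝ), t1) = -(t1 • bB ε) := by
      rw [eX]; abel
    rw [e1, norm_neg, norm_smul, Real.norm_eq_abs, abs_of_pos ht1p] at h2
    have h3 := (abs_le.1 h2).2
    nlinarith
  have hDN : DN c s q0 q1 θa θb (v0 - t0) (a0 + (1 / 2 + 2 * ε) * t0) (b0 + (1 / 2 + 3 * ε) * t0) =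
      DN c s q0 q1 θa θb v0 a0 b0 + κ * t0 := by
    rw [hκ]
    unfold DN
    ring
  rw [hDN, ← eN] at hdm
  set F : ℝ × ℝ → ℝ := fun z => -ν (XX x0 aA (bB ε) z) with hF
  have hκa := abs_nonneg κ
  have hκb := neg_abs_le κ
  have hinc : -(κ + δ) * (t0 - t1) ≤ F (((0 : ℝ), t1) + (t0 - t1) • ((0 : ℝ), (1 : ℝ))) -
      F ((0 : ℝ), t1) := by
    have e1 : ((0 : ℝ), t1) + (t0 - t1) • ((0 : ℝ), (1 : ℝ)) = ((0 : ℝ), t0) := by
      ext
      · simp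
      · simp
    rw [e1]
    show -(κ + δ) * (t0 - t1) ≤ -ν (XX x0 aA (bB ε) ((0 : ℝ), t0)) -
      -ν (XX x0 aA (bB ε) ((0 : ℝ), t1))
    have e2 : K' * t1 = K * ‖bB ε‖ * t1 + |κ| * t1 := by rw [hK']; ring
    have e3 : -(|κ| * t1) ≤ κ * t1 := by
      have := mul_le_mul_of_nonneg_right hκb ht1p.le
      linarith
    have e4 : κ * t1 ≤ |κ| * t1 := mul_le_mul_of_nonneg_right (le_abs_self κ) ht1p.le
    nlinarith
  -- a neighbourhood of the segment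
  obtain ⟨η, hη, hsub⟩ : ∃ η : ℝ, 0 < η ∧
      ∀ t ∈ Set.Icc 0 (t0 - t1), Metric.ball (((0 : ℝ), t1) + t • ((0 : ℝ), (1 : ℝ))) η ⊆ Ω := by
    have hc : IsCompact ((fun t : ℝ => ((0 : ℝ), t)) '' Set.Icc t1 t0) :=
      isCompact_Icc.image (by fun_prop)
    obtain ⟨η, hη, hth⟩ := hc.exists_thickening_subset_open hΩo (by
      rintro _ ⟨t, ht, rfl⟩
      exact hseg t (lt_of_lt_of_le ht1p ht.1) ht.2)
    refine ⟨η, hη, fun t ht x hx' => hth ?_⟩
    rw [Metric.mem_thickening_iff]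
    refine ⟨((0 : ℝ), t1 + t), ⟨t1 + t, ⟨by linarith [ht.1], by linarith [ht.2]⟩, rfl⟩, ?_⟩
    have e1 : ((0 : ℝ), t1) + t • ((0 : ℝ), (1 : ℝ)) = ((0 : ℝ), t1 + t) := by
      ext
      · simp
      · simp
    rw [e1] at hx'
    exact Metric.mem_ball.1 hx'
  -- Lipschitz
  obtain ⟨K1, hK1⟩ : ∃ K1 : NNReal, (K1 : ℝ) = K := ⟨⟨K, hK⟩, rfl⟩
  have hlip : LipschitzOnWith (K1 * (‖aA‖₊ + ‖bB ε‖₊)) F Ω := by
    refine LipschitzOnWith.of_dist_le_mul fun z hz z' hz' => ?_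
    have h2 := hν _ (hΩL z hz) _ (hΩL z' hz')
    have h3 := (Crest.Agent.R136.Dg219.X_lip x0 aA (bB ε)).dist_le_mul z z'
    rw [dist_eq_norm] at h3
    rw [Real.dist_eq]
    have e1 : F z - F z' = -(ν (XX x0 aA (bB ε) z) - ν (XX x0 aA (bB ε) z')) := by
      simp only [hF]; ring
    rw [e1, abs_neg]
    refine h2.trans ?_
    rw [NNReal.coe_mul, hK1, mul_assoc]
    exact mul_le_mul_of_nonneg_left h3 hK
  -- the generic point
  have hae := leg_out monL (R := R) (ν := ν) hK hν hm hs (x0 := x0) (dirV h0 h1)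
    (s := 1) (t := 0) (by
      intro i
      rw [aA_grp, aA_ix]
      generalize grp9 i = k
      fin_cases k <;> simp [av])
  obtain ⟨z, hzN, hzΩ, -, hdiff, hle⟩ := Crest.Agent.R116.Sg388.exists_rate_on
    (μ := (MeasureTheory.volume : MeasureTheory.Measure (ℝ × ℝ))) hlip
    (p := ((0 : ℝ), t1)) (v := ((0 : ℝ), (1 : ℝ))) (y := t0 - t1) (a := -(κ + δ)) (δ := δ)
    (η := η) ht10 hη hsub hinc hδ (N := {z | z ∈ (mw monL).O (fun _ => 0) (fun _ => R) x0 aA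
      (bB ε) → ∃ D : ℝ × ℝ →L[ℝ] ℝ,
      HasFDerivAt (fun z => ν (XX x0 aA (bB ε) z)) D z ∧
      ∀ (h : ℕ → ℝ), (∀ l, 0 < h l) → Tendsto h atTop (𝓝 0) → ∀ lam : (Fin 12 → ℝ) → ℝ,
        IsTan (Leg monL R) ((mw monL).L x0 aA (bB ε)) ν (fun _ => XX x0 aA (bB ε) z) h lam →
        ∃ (φ : Fin 9 → (Fin 12 → ℝ) → ℝ) (r : Fin 9 → ℝ),
          Out grp9 ((mw monL).L x0 aA (bB ε)) (fun _ => 1) (nV ε) lam (D (1, 0), D (0, 1)) φ r})
    hae
  have hzO := hΩO z hzΩ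
  obtain ⟨DD, hDD, hout⟩ := hzN hzO
  have hDle : DD ((0 : ℝ), (1 : ℝ)) ≤ κ + 2 * δ := by
    have e1 : fderiv ℝ F z = -DD := by
      have := hDD.neg.fderiv
      exact this
    rw [e1, neg_apply] at hle
    linarith
  obtain ⟨ψ, hψ, lam, ht⟩ := leg_tan monL (R := R) hK hν hzO
    (h := fun l : ℕ => 1 / ((l : ℝ) + 1)) (fun l => by positivity)
    tendsto_one_div_add_atTop_nhds_zero_nat
  set hh : ℕ → ℝ := fun l => 1 / (((ψ l : ℕ) : ℝ) + 1) with hhh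
  have hhp : ∀ l, 0 < hh l := fun l => by positivity
  have hh0 : Tendsto hh atTop (𝓝 0) :=
    tendsto_one_div_add_atTop_nhds_zero_nat.comp hψ.tendsto_atTop
  obtain ⟨φ, r, H⟩ := hout hh hhp hh0 lam ht
  have hL := LM_L x0 aA (bB ε)
  have hlin := linV_of H hL
  -- own rate
  have hown0 : 1 - s ≤ r 0 := by
    have k1 : bx9 1 0 0 0 0 0 0 0 0 ∈ LM := by
      have := leg_LM 1 ((stG_live (t := 1) zero_le_one).single_leg (y := 1) zero_le_one le_rfl)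
      rwa [single_eq] at this
    have k0 : bx9 0 0 0 0 0 0 0 0 0 ∈ LM := by
      have := leg_LM 1 ((stG_live (t := 1) zero_le_one).single_leg (y := 0) le_rfl zero_le_one)
      rwa [single_eq] at this
    have l1 := hlin _ _ _ _ _ _ _ _ _ k1
    have l0 := hlin _ _ _ _ _ _ _ _ _ k0
    have hz1 : 0 < w0 + 1 - XX x0 aA (bB ε) z 0 := by linarith [hzΩ.2.1.2]
    have key := Crest.Agent.R116.SgZ388.tan_incr_ge hhp hh0 ht (hL k0) (hL k1) (A := 1 - s) hz1 (by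
      filter_upwards [Crest.Agent.R116.SgO219.tan_ev ht (hL k0),
        Crest.Agent.R116.SgO219.tan_ev ht (hL k1)] with l g0 g1 hl
      have h2 := hown _ g0 _ g1 (fun i => by
        simp only [Pi.add_apply, Pi.smul_apply, smul_eq_mul]
        have : bx9 0 0 0 0 0 0 0 0 0 i ≤ bx9 1 0 0 0 0 0 0 0 0 i := by
          fin_cases i <;> simp [bx9]
        have := mul_le_mul_of_nonneg_left this (hhp l).le
        linarith) (by
          simp only [Pi.add_apply, Pi.smul_apply, smul_eq_mul]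
          have : bx9 0 0 0 0 0 0 0 0 0 0 = 0 := rfl
          rw [this]
          linarith [hzΩ.2.1.1]) (by
          simp only [Pi.add_apply, Pi.smul_apply, smul_eq_mul]
          have : bx9 1 0 0 0 0 0 0 0 0 0 = 1 := rfl
          rw [this]
          linarith) (by
          simp only [Pi.add_apply, Pi.smul_apply, smul_eq_mul]
          have e0 : bx9 0 0 0 0 0 0 0 0 0 0 = 0 := rfl
          have e2 : bx9 0 0 0 0 0 0 0 0 0 2 = 0 := rfl
          rw [e0, e2]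
          have := hzΩ.2.2
          linarith)
      have e1 : (XX x0 aA (bB ε) z + hh l • bx9 1 0 0 0 0 0 0 0 0) 0 -
          (XX x0 aA (bB ε) z + hh l • bx9 0 0 0 0 0 0 0 0 0) 0 = hh l := by
        simp only [Pi.add_apply, Pi.smul_apply, smul_eq_mul]
        have a1 : bx9 1 0 0 0 0 0 0 0 0 0 = 1 := rfl
        have a0 : bx9 0 0 0 0 0 0 0 0 0 0 = 0 := rfl
        rw [a1, a0]
        ring
      rw [e1] at h2
      exact h2)
    rw [l1, l0] at key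
    linarith
  -- the facts
  have hXz := X_natV w0 sa sb v0 a0 b0 ε z
  rw [← hx0] at hXz
  have hp := pins (w0 + (v0 + (z.1 - z.2))) (sa + (a0 + (z.1 + (1 / 2 + 2 * ε) * z.2)))
    (sb + (b0 + (6 * z.1 + (1 / 2 + 3 * ε) * z.2))) (by
      intro k
      have := hzΩ.1 k
      rw [hXz] at this
      exact this) (by
      have := hzΩ.2.1.1
      rw [hXz, nb_z] at this
      exact this) (by
      have := hzΩ.2.1.2
      rw [hXz, nb_z] at this
      exact this) hh ((mw monL).L x0 aA (bB ε)) lam hhp hh0 (by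
      have := ht
      rw [hXz] at this
      exact this) hL _ _ _ _ _ _ _ _ _ hlin hown0
  obtain ⟨p1, p2, p3⟩ := hp
  -- bounds of the rates
  have bd : ∀ k, r k ≤ ((Finset.univ.filter fun i => grp9 i = k).card : ℝ) := by
    intro k
    have := H.r_le k
    simpa using this
  have b1 := bd 1
  have b2 := bd 2
  have b3 := bd 3
  have b4 := bd 4
  have b5 := bd 5
  have b6 := bd 6
  have b7 := bd 7
  have b8 := bd 8
  have c1 : (Finset.univ.filter fun i => grp9 i = 1).card = 1 := by decide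
  have c2 : (Finset.univ.filter fun i => grp9 i = 2).card = 1 := by decide
  have c3 : (Finset.univ.filter fun i => grp9 i = 3).card = 2 := by decide
  have c4 : (Finset.univ.filter fun i => grp9 i = 4).card = 2 := by decide
  have c5 : (Finset.univ.filter fun i => grp9 i = 5).card = 2 := by decide
  have c6 : (Finset.univ.filter fun i => grp9 i = 6).card = 1 := by decide
  have c7 : (Finset.univ.filter fun i => grp9 i = 7).card = 1 := by decide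
  have c8 : (Finset.univ.filter fun i => grp9 i = 8).card = 1 := by decide
  rw [c1] at b1
  rw [c2] at b2
  rw [c3] at b3
  rw [c4] at b4
  rw [c5] at b5
  rw [c6] at b6
  rw [c7] at b7
  rw [c8] at b8
  norm_num at b1 b2 b3 b4 b5 b6 b7 b8
  refine rowV h0 hq0 hq1 H.r_nonneg b1 b2 b3 b4 b5 b6 b7 b8 hown0 p1 p2 p3 ?_
  have htot := H.total ((0 : ℝ), (1 : ℝ))
  rw [gset9] at htot
  have e1 : lf (DD (1, 0), DD (0, 1)) ((0 : ℝ), (1 : ℝ)) = DD (0, 1) := by simp [lf]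
  have e2 : ∀ k, r k * lf (nV ε k) ((0 : ℝ), (1 : ℝ)) = r k * bvV ε k := by
    intro k
    have : lf (nV ε k) ((0 : ℝ), (1 : ℝ)) = bB ε (ix9 k) := by simp [lf, nV]
    rw [this, bB_ix]
  rw [e1, Finset.sum_congr rfl fun k _ => e2 k] at htot
  rw [← htot]
  exact hDle


end Crest.Agent.R116.ApV954

namespace Crest.Agent.R116.ApV954

open Finset
open Crest.Agent.R138.Defs (E2)
open Crest.Agent.R138.Ex926 (Base U IsTan)
open Crest.Agent.R136.MkA627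
open Crest.Agent.R136.Net191 Crest.Agent.R136.Lq196
open Crest.Agent.R136.TD627
open Crest.Agent.R116.LZg725
open Crest.Agent.R116.ChL222 Crest.Agent.R116.PL504
open Crest.Agent.R116.Gd222 (TSet sN PDL DT vb)
open Crest.Agent.R116.KI439
open Crest.Agent.R116.KF439 (PL Thin frF flF scN)
open Crest.Agent.R116.Tw468 Crest.Agent.R116.CtxB468
open Crest.Agent.R116.Ap954 (eL_pos Pins)

/-- **`c + (q_a + q_b) / 2 ≤ 1`**, abstract `ExtQ`, slot `2` may be visible, `k' ≤ 1/2` -/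
theorem apriori_extV {B : Base} {I0 I' : ℕ → Finset (ℕ × ℝ)}
    {co : ∀ n : ℕ, ℕ × ℝ → ℕ × ℝ → Fin 12 → ℝ} {C R w0 sa sb δ Rg κ0 g s : ℝ} {θ q : Fin 2 → ℝ}
    {o : ℝ → Fin 12 → ℝ} {T : Fin 12 → Prop} {ν own : (Fin 12 → ℝ) → ℝ} {c₀ : ℝ}
    (h : ExtQ B I0 I' co monL C R 0 w0 s (PDL w0 sa sb Rg 0 κ0 R) (DT g s q θ w0 sa sb)
      (rL (θ 0) (θ 1) w0 sa sb) o (EL θ g s q) T ν own c₀)
    (sh : Shift (θ 0) (θ 1) w0 sa sb δ R) (hoz : ∀ v, o v 0 = w0 + v)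
    (ho : ∀ v k, k ≠ 0 → k ≠ 2 → o v k = R)
    (ho2 : ∀ v x, x ≤ rL (θ 0) (θ 1) w0 sa sb v 2 → x ≤ R → x ≤ o v 2)
    (hk : 2 * θ 0 - θ 1 ≤ 1 / 2) (hRg : 0 < Rg) (hθ : 0 < θ 0) (h0R : θ 0 ≤ Rg)
    (h1R : |θ 1| ≤ Rg) (hκ : θ 0 ≤ θ 1 + 2 * κ0) (hq0 : 0 ≤ q 0) (hq1 : 0 ≤ q 1)
    (pins : Pins R w0 s ν) : g + (q 0 + q 1) / 2 ≤ 1 := by
  have hδ := sh.d0
  have hRp : 0 ≤ R := hδ.le.trans sh.R_pos
  have hN := WinU954.nprof_of_ext hRp h
  -- it suffices to lose `18 ε`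
  refine le_of_forall_pos_le_add fun d hd => ?_
  set ε : ℝ := min (1 / 100) (d / 18) with hε
  have e0 : 0 < ε := lt_min (by norm_num) (by positivity)
  have e1 : ε ≤ 1 / 100 := min_le_left _ _
  have e2 : 18 * ε ≤ d := by
    have := min_le_right (1 / 100 : ℝ) (d / 18)
    rw [← hε] at this
    linarith
  refine le_trans ?_ (show 1 + 18 * ε ≤ 1 + d by linarith)
  set t0 : ℝ := min (1 / 4) (min (δ / 16) (Rg / 2)) with ht0
  have t0p : 0 < t0 := lt_min (by norm_num) (lt_min (by positivity) (by positivity))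
  have t04 : t0 ≤ 1 / 4 := min_le_left _ _
  have t0R : t0 ≤ Rg / 2 := (min_le_right _ _).trans (min_le_right _ _)
  have bz : δ ≤ w0 := sh.z
  have bc := sh.bc (v := 1 / 2) (by norm_num) (by norm_num)
  have bD := sh.bD (v := 1 / 2) (by norm_num) (by norm_num)
  have bR := sh.bR (v := 1 / 2) (by norm_num) (by norm_num)
  have pos : ∀ t : ℝ, 0 ≤ t → t ≤ t0 → 0 < w0 + (1 / 2 - t) ∧
      0 < sa + (θ 0 * (1 - 1 / 2) + (1 / 2 + 2 * ε) * t) ∧
      0 < (sb + (θ 1 * (1 - 1 / 2) + (1 / 2 + 3 * ε) * t)) -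
        2 * (sa + (θ 0 * (1 - 1 / 2) + (1 / 2 + 2 * ε) * t)) - (w0 + (1 / 2 - t)) := by
    intro t h1 h2
    have h3 : 0 ≤ ε * t := mul_nonneg e0.le h1
    have h4 : ε * t ≤ 1 / 100 * t := mul_le_mul_of_nonneg_right e1 h1
    refine ⟨by linarith, by linarith, by linarith⟩
  have mem : ∀ t : ℝ, 0 ≤ t → t ≤ t0 → nb w0 sa sb (1 / 2 - t)
      (θ 0 * (1 - 1 / 2) + (1 / 2 + 2 * ε) * t) (θ 1 * (1 - 1 / 2) + (1 / 2 + 3 * ε) * t) ∈
      Leg monL R := by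
    intro t h1 h2
    obtain ⟨p1, p2, p3⟩ := pos t h1 h2
    have h3 : ε * t ≤ 1 / 100 * t := mul_le_mul_of_nonneg_right e1 h1
    exact nb_leg.2 ⟨p1.le, p2.le, p3.le, by linarith⟩
  have ab0 := abs_le.1 h1R
  have hrl : ∀ v : ℝ, rL (θ 0) (θ 1) w0 sa sb v 2 =
      (sb - 2 * sa) - (2 * θ 0 - θ 1) * (1 - v) := by
    intro v
    rw [rL_nb, nb_2]
    ring
  refine core (K := ((12 : ℕ) : ℝ)) (v0 := 1 / 2) (a0 := θ 0 * (1 - 1 / 2))
    (b0 := θ 1 * (1 - 1 / 2)) (c₀ := c₀) (θa := θ 0) (θb := θ 1) (sa := sa) (sb := sb) (t0 := t0)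
    (lE := sb - 2 * sa - (2 * θ 0 - θ 1) - (2 * θ 0 - θ 1) * w0) (kE := 2 * θ 0 - θ 1)
    e0 e1 hq0 hq1 (by positivity) hN.lip
    (fun p hp q hq hpq => ⟨hN.anti p hp q hq hpq, hN.sharp p hp q hq hpq⟩) hN.submod ?_ t0p
    ?_ ?_ ?_ ?_ pins
  · intro p hp p' hp' hpp h1 h2 hp2
    have k1 := hpp 0
    have key := own_inc h hp hp' hpp (v := p 0 - w0) (v' := p' 0 - w0) (by linarith) (by linarith)
      (by linarith) (by linarith) (by ring) (by ring) (by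
        intro k
        by_cases hk : k = 0
        · subst hk
          rw [hoz]
          linarith
        · by_cases hk2 : k = 2
          · subst hk2
            refine ho2 _ _ ?_ (hp.2 2)
            rw [hrl]
            have : (sb - 2 * sa) - (2 * θ 0 - θ 1) * (1 - (p 0 - w0)) =
              sb - 2 * sa - (2 * θ 0 - θ 1) - (2 * θ 0 - θ 1) * w0 + (2 * θ 0 - θ 1) * p 0 := by
              ring
            rw [this]
            exact hp2
          · rw [ho _ _ hk hk2]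
            exact hp.2 k)
    have : (1 - s) * (p' 0 - w0 - (p 0 - w0)) = (1 - s) * (p' 0 - p 0) := by ring
    linarith
  · intro t h1 h2
    obtain ⟨p1, p2, p3⟩ := pos t h1.le h2
    have h3 : ε * t ≤ 1 / 100 * t := mul_le_mul_of_nonneg_right e1 h1.le
    refine ⟨fun k => ⟨eL_pos p1 p2 p3 k, ?_⟩, ⟨by linarith, by linarith⟩, ?_⟩
    · refine lt_of_le_of_lt (eL_le p1.le p2.le p3.le le_rfl k) ?_
      linarith
    · have h5 : 0 < (1 / 2 + ε - (2 * θ 0 - θ 1)) * t :=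
        mul_pos (by linarith) h1
      nlinarith
  · have := mem 0 le_rfl t0p.le
    simpa using this
  · have h1 := h.record (1 / 2) (by norm_num) (by norm_num)
    rw [rL_nb, EL_DN] at h1
    exact h1
  · have hl := mem t0 t0p.le le_rfl
    have h3 : ε * t0 ≤ 1 / 100 * t0 := mul_le_mul_of_nonneg_right e1 t0p.le
    have h4 : 0 ≤ ε * t0 := mul_nonneg e0.le t0p.le
    have hp := nb_PD (Rg := Rg) (k0 := κ0) hl (by linarith) (by linarith) (by linarith)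
      (by linarith) (by rw [abs_lt]; constructor <;> linarith) (by linarith)
    have h1 := h.dmax _ hp
    rw [DT_nb] at h1
    exact h1

section ctx

variable {G : Geo TSet (Fin 2)} {L : ℕ → ℕ → LRay} {r : ℕ → ℝ} {g s : ℝ} {θ q : Fin 2 → ℝ}
    {Rg : ℝ} {B : Base}
    {I : ℕ → Finset (ℕ × ℝ)} {lev : ℕ → ℚ → ℕ} {A : ℕ → ℝ}
    {f : ℕ → ℚ → ℕ → ℤ → ℕ} {b : ℕ → ℚ → ℕ → TSet} {vm : ℕ → ℚ → ℝ} {w : Fin 2 → ℕ → ℚ → ℝ}
    {fr : ℕ → ℚ → ℕ × ℝ → LInc} {fl : ℕ → ℕ × ℝ → LInc} {sc : Fin 12 → ℕ → ℝ}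
    {w0 sa sb δ R : ℝ} {I0 I' : ℕ → Finset (ℕ × ℝ)} {ν own : (Fin 12 → ℝ) → ℝ} {c₀ : ℝ}

/-- **a priori bound with `E` visible, `k' = 2 θ 0 - θ 1 ≤ 1/2`** (`g` of the context is `c`) -/
theorem aprioriK
    (h : CtxT G L r g s θ q Rg B I lev A f b vm w fr fl sc w0 sa sb δ R I0 I' ν own c₀)
    (i1 : InvT PL B I 1 fl (sc 1)) (i7 : InvT PL B I 7 fl (sc 7)) (i8 : InvT PL B I 8 fl (sc 8))
    (hθ : 0 < θ 0) (h0R : θ 0 ≤ Rg) (h1R : |θ 1| ≤ Rg) (hq0 : 0 ≤ q 0) (hq1 : 0 ≤ q 1)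
    (hs : s < 1) (hk : 2 * θ 0 - θ 1 ≤ 1 / 2) : g + (q 0 + q 1) / 2 ≤ 1 := by
  have hv : ∀ i, VisT B I fl sc i → i = 0 ∨ i = 2 := by
    intro i hi
    rcases Crest.Agent.R116.Fk647.vis_flag h.out i hi with rfl | rfl | rfl | rfl | rfl
    · exact Or.inl rfl
    · exact absurd i1 hi
    · exact Or.inr rfl
    · exact absurd i7 hi
    · exact absurd i8 hi
  refine apriori_extV (h.extK (|θ 0| + |θ 1|)) h.sh (fun v => oz _ v) ?_ ?_ hk h.Rg0 hθ h0R h1R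
    (by linarith [le_abs_self (θ 0), neg_abs_le (θ 1), abs_nonneg (θ 0), abs_nonneg (θ 1)])
    hq0 hq1 (Ap954.pins_T h hs)
  · intro v k hk0 hk2
    exact oR hk0 (fun hvk => by rcases hv k hvk with rfl | rfl <;> simp_all) v
  · intro v x h1 h2
    unfold oL
    split_ifs
    · exact h1
    · exact h2

end ctx

end Crest.Agent.R116.ApV954
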