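import Crest.Agent.R116.ApV_954

/-!
# R116, ties, `1/2 ≤ s`, `k' = 2 θ_a - θ_b ≤ 1/2` : the `Fill` form of `aprioriK` (helper954)
-/

set_option autoImplicit false
set_option linter.unusedVariables false

open Filter Topology

namespace Crest.Agent.R116.ApV954

open Finset
open Crest.Agent.R138.Ex926 (Base U)
open Crest.Agent.R136.MkA627
open Crest.Agent.R136.TD627
open Crest.Agent.R116.LZg725
open Crest.Agent.R116.ChL222
open Crest.Agent.R116.Gd222 (TSet)
open Crest.Agent.R116.KI439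
open Crest.Agent.R116.KF439 (PL)
open Crest.Agent.R116.KTop387
open Crest.Agent.R116.CtxB468
open Crest.Agent.R116.KTie794

/-- **`κ`-tie, `k' ≤ 1/2`, `1/2 ≤ s`** : every case in which no `B` is visible -/
theorem fillHk {η : ℝ} {V : (Fin 2 → ℝ) → Base → (ℕ → Finset (ℕ × ℝ)) → (ℕ → ℚ → ℕ) →
      (ℕ → ℕ × ℝ → LInc) → (Fin 12 → ℕ → ℝ) → Prop}
    (hV : ∀ θ B I lev fl sc, V θ B I lev fl sc → InvB B I fl sc) :
    Fill η V (fun g s θ q => 1 / 2 ≤ s → 2 * θ 0 - θ 1 ≤ 1 / 2 → False) := by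
  intro g s θ q N
  refine ⟨θ 0 + |θ 1|, fun Rg hRg => ?_⟩
  intro G L r B I lev A f b vm w fr fl sc w0 sa sb δ R I0 I' ν own c₀ C hv hs hk
  have hB := hV _ _ _ _ _ _ hv
  have i1 : InvT PL B I 1 fl (sc 1) := C.out.invD (by linarith)
  have h1 := abs_nonneg (θ 1)
  have h2 := N.θa
  have h3 := aprioriK C i1 hB.1 hB.2 h2 (by linarith) (by linarith) N.qa.le N.qb.le N.s1 hk
  have h4 := N.gpos
  have h5 := N.qa
  have h6 := N.qb
  linarith

end Crest.Agent.R116.ApV954
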