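import Crest.Agent.R116.AsmP_597
import Crest.Agent.R138.W10_298

/-!
# R116, WAVE side: the assembly with a price (helper597), part 2: parameters, multiplicative form,
tiny terms.
-/

set_option autoImplicit false

namespace Crest.Agent.R116.AsmP597

open Finset

/-- **assembly with a price, additive form.** -/
theorem assembly_price_add {n K L b NG NW : ℕ} (hn : n = K * L) (hbL : b ≤ L) (hb : 1 ≤ b)
    (hK : 4 ≤ K) {c e g A q δ κ w : ℝ} (he : 0 ≤ e) (hA : 0 ≤ A) (hc : 0 ≤ c)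
    (hqc : q ≤ c) (hg : 0 ≤ g)
    (hL : A * (1 + 4 * b) + 3 / 4 * c * b ≤ c / 8 * L)
    (hw : w ≤ ((b : ℝ) - 1) * (c / 2 - δ) - 1 / 4) (hw0 : 0 ≤ w)
    (hNG : κ ≤ g * NG) (hNW : κ ≤ w * NW)
    (hKK : κ + L * ((NG : ℝ) + NW + 1) ≤ c / 8 * L * ((K : ℝ) - 3 - (NG + NW)))
    (x : ℕ → ℝ) (P : ℕ → ℕ → ℕ → ℝ) (s : ℕ → ℝ) (nar gain : ℕ → Prop)
    (hG : ∀ j, j < n → x (j + 1) ≤ x j + c / 2 + e)
    (hgain : ∀ j, j ≤ n → gain j → 1 ≤ j → ∃ i, i < j ∧ x j ≤ x i + (c / 2 - g) * ((j : ℝ) - i) + e)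
    (hP : ∀ h i j, 1 ≤ h → h < i → i < j → j ≤ n → j ≤ h + 4 * L →
      0 ≤ P h i j ∧ P h i j ≤ ((j : ℝ) - i) + e)
    (hT : ∀ h i j k, 1 ≤ h → h < i → i < j → j < k → k ≤ n → k ≤ h + 4 * L → nar j →
      x j ≤ x i + (A + A * (max 0 ((i : ℝ) + k - 2 * j) + max 0 ((h : ℝ) + j - 2 * i))
        + q / 4 * ((k : ℝ) - j)) + (P h i j - P i j k) / 2 + e)
    (hs : ∀ j, 1 ≤ j → j + 1 ≤ n → 0 ≤ s j ∧ s j ≤ 1 / 2 + e)
    (hS : ∀ j, 1 ≤ j → j + 2 ≤ n → ¬ nar j → ¬ gain j → ¬ nar (j + 1) → ¬ gain (j + 1) →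
      x (j + 1) ≤ x j + (δ + e) + (s j - s (j + 1)) / 2) :
    x n ≤ x 0 + (c / 2 * n - κ) + (6 * n) * e := by
  classical
  have hL1 : 1 ≤ L := hb.trans hbL
  have hKn : K ≤ n := by rw [hn]; exact Nat.le_mul_of_pos_right K hL1
  have hnR : (n : ℝ) = K * L := by rw [hn]; push_cast; ring
  have hKnR : (K : ℝ) ≤ n := by exact_mod_cast hKn
  have hKe : (K : ℝ) * e ≤ n * e := mul_le_mul_of_nonneg_right hKnR he
  have hne : 0 ≤ (n : ℝ) * e := mul_nonneg (Nat.cast_nonneg n) he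
  by_cases h1 : NG ≤ ((Finset.Icc 1 n).filter gain).card
  · -- many gain levels
    have a1 := count_gain he hg x gain hG hgain n le_rfl
    have a2 : (NG : ℝ) ≤ (((Finset.Icc 1 n).filter gain).card : ℝ) := by exact_mod_cast h1
    have a3 := mul_le_mul_of_nonneg_left a2 hg
    nlinarith
  set wide : ℕ → Prop := fun k => ∀ j, k * L ≤ j → j < k * L + b → ¬ nar j ∧ ¬ gain j with hwide
  by_cases h2 : NW ≤ ((Finset.range K).filter (fun m => 1 ≤ m ∧ wide m)).card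
  · -- many wide blocks
    have a1 := count_wide hn hbL hb he hw x s wide hG hs (fun k hk1 hkK hwk j hj1 hj2 => by
      have hkL : k * L + L ≤ n := by
        have : (k + 1) * L ≤ K * L := Nat.mul_le_mul_right L (by omega)
        rw [hn]; linarith
      have hkL1 : 1 ≤ k * L := Nat.mul_pos (by omega) (by omega)
      obtain ⟨b1, b2⟩ := hwk j hj1 (by omega)
      obtain ⟨b3, b4⟩ := hwk (j + 1) (by omega) (by omega)
      exact hS j (by omega) (by omega) b1 b2 b3 b4) K le_rfl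
    rw [← hn] at a1
    have a2 : (NW : ℝ) ≤ (((Finset.range K).filter (fun m => 1 ≤ m ∧ wide m)).card : ℝ) := by
      exact_mod_cast h2
    have a3 := mul_le_mul_of_nonneg_left a2 hw0
    have a4 : c / 2 * ((K : ℝ) * L) = c / 2 * n := by rw [hnR]
    have a5 : (K : ℝ) * ((L + 1) * e) = n * e + K * e := by rw [hnR]; ring
    rw [a4, a5] at a1
    nlinarith
  -- the tube form
  push Not at h1 h2
  set nb : ℕ → Prop := fun k => ∃ j, k * L ≤ j ∧ j < k * L + b ∧ nar j with hnbdef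
  set dd : ℕ → Prop := fun k => ∃ j, k * L ≤ j ∧ j < k * L + b ∧ gain j with hdd
  have a1 := count_nar hn hbL hb hK he hA hc hqc hL x P nar nb (fun k _ _ h => h) hG hP hT
  -- the number of dirty blocks
  have hD : ((Finset.Ico 3 K).filter dd).card ≤ ((Finset.Icc 1 n).filter gain).card := by
    have hch : ∀ k : ℕ, ∃ j, dd k → (k * L ≤ j ∧ j < k * L + b ∧ gain j) := by
      intro k
      by_cases hk : dd k
      · obtain ⟨j, hj⟩ := hk
        exact ⟨j, fun _ => hj⟩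
      · exact ⟨0, fun h => absurd h hk⟩
    choose f hf using hch
    refine Finset.card_le_card_of_injOn f ?_ ?_
    · intro k hk
      simp only [Finset.coe_filter, Finset.mem_Ico, Set.mem_ofPred_eq] at hk
      obtain ⟨b1, b2, b3⟩ := hf k hk.2
      have hkL : k * L + L ≤ n := by
        have : (k + 1) * L ≤ K * L := Nat.mul_le_mul_right L (by omega)
        rw [hn]; linarith
      have hkL1 : 1 ≤ k * L := Nat.mul_pos (by omega) (by omega)
      simp only [Finset.coe_filter, Finset.mem_Icc, Set.mem_ofPred_eq]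
      exact ⟨⟨by omega, by omega⟩, b3⟩
    · intro k hk k' hk' hkk
      simp only [Finset.coe_filter, Finset.mem_Ico, Set.mem_ofPred_eq] at hk hk'
      obtain ⟨b1, b2, _⟩ := hf k hk.2
      obtain ⟨b3, b4, _⟩ := hf k' hk'.2
      rw [hkk] at b1 b2
      rcases lt_trichotomy k k' with h | h | h
      · have : (k + 1) * L ≤ k' * L := Nat.mul_le_mul_right L h
        have e1 : (k + 1) * L = k * L + L := by ring
        omega
      · exact h
      · have : (k' + 1) * L ≤ k * L := Nat.mul_le_mul_right L h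
        have e1 : (k' + 1) * L = k' * L + L := by ring
        omega
  have hsub : (Finset.Ico 3 K).filter (fun k => ¬ nb k) ⊆
      (Finset.range K).filter (fun m => 1 ≤ m ∧ wide m) ∪ (Finset.Ico 3 K).filter dd := by
    intro k hk
    simp only [Finset.mem_filter, Finset.mem_Ico, Finset.mem_union, Finset.mem_range] at hk ⊢
    by_cases hdk : dd k
    · exact Or.inr ⟨hk.1, hdk⟩
    · refine Or.inl ⟨hk.1.2, by omega, fun j hj1 hj2 => ⟨fun h => hk.2 ⟨j, hj1, hj2, h⟩,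
        fun h => hdk ⟨j, hj1, hj2, h⟩⟩⟩
  have hcard1 : ((Finset.Ico 3 K).filter (fun k => ¬ nb k)).card ≤ NG + NW := by
    have := (Finset.card_le_card hsub).trans (Finset.card_union_le _ _)
    omega
  have hcard2 : ((Finset.Ico 3 K).filter nb).card +
      ((Finset.Ico 3 K).filter (fun k => ¬ nb k)).card = K - 3 := by
    rw [Finset.card_filter_add_card_filter_not, Nat.card_Ico]
  have hR1 : (((Finset.Ico 3 K).filter (fun k => ¬ nb k)).card : ℝ) ≤ (NG : ℝ) + NW := by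
    exact_mod_cast hcard1
  have hR2 : (((Finset.Ico 3 K).filter nb).card : ℝ) +
      (((Finset.Ico 3 K).filter (fun k => ¬ nb k)).card : ℝ) = (K : ℝ) - 3 := by
    have : ((((Finset.Ico 3 K).filter nb).card + ((Finset.Ico 3 K).filter
      (fun k => ¬ nb k)).card : ℕ) : ℝ) = ((K - 3 : ℕ) : ℝ) := by exact_mod_cast hcard2
    rw [Nat.cast_add, Nat.cast_sub (by omega)] at this
    push_cast at this
    exact this
  set u : ℝ := (((Finset.Ico 3 K).filter (fun k => ¬ nb k)).card : ℝ) with hu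
  set v : ℝ := (((Finset.Ico 3 K).filter nb).card : ℝ) with hv
  have hL0 : (0 : ℝ) ≤ L := Nat.cast_nonneg L
  have hcL : 0 ≤ c / 8 * L := mul_nonneg (by linarith) hL0
  have hvv : (K : ℝ) - 3 - (NG + NW) ≤ v := by linarith
  have b1 := mul_le_mul_of_nonneg_left hvv hcL
  have b2 := mul_le_mul_of_nonneg_left hR1 hL0
  have b3 : 3 * (K : ℝ) * ((L + 1) * e) = 3 * (n * e) + 3 * (K * e) := by rw [hnR]; ring
  rw [b3] at a1
  nlinarith

/-- **parameters.** -/
theorem params_price {c1 A a g : ℝ} (hc1 : 0 < c1) (hA : 0 ≤ A) (ha : 0 ≤ a) (hg : 0 < g) :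
    ∃ K L b NG NW : ℕ, 1 ≤ b ∧ b ≤ L ∧ 4 ≤ K ∧
      (a * L + 1 ≤ g * NG) ∧ (a * L + 1 ≤ 1 * (NW : ℝ)) ∧
      ∀ c δ : ℝ, c1 ≤ c → δ ≤ c1 / 4 →
        (A * (1 + 4 * b) + 3 / 4 * c * b ≤ c / 8 * L) ∧
        ((1 : ℝ) ≤ ((b : ℝ) - 1) * (c / 2 - δ) - 1 / 4) ∧
        (a * L + 1 + L * ((NG : ℝ) + NW + 1) ≤ c / 8 * L * ((K : ℝ) - 3 - (NG + NW))) := by
  obtain ⟨b, hb⟩ := exists_nat_ge (1 + 5 / c1)
  have h5 : 0 < 5 / c1 := by positivity
  have hb1 : (1 : ℝ) ≤ b := by linarith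
  have hA4 : 0 ≤ A * (1 + 4 * (b : ℝ)) := mul_nonneg hA (by linarith)
  obtain ⟨L, hL⟩ := exists_nat_ge (8 / c1 * (A * (1 + 4 * b)) + 6 * b)
  have h8 : 0 < 8 / c1 := by positivity
  have hL6 : 6 * (b : ℝ) ≤ L := by
    have := mul_nonneg h8.le hA4
    linarith
  have hL1 : (1 : ℝ) ≤ L := by linarith
  obtain ⟨NG, hNG⟩ := exists_nat_ge ((a * L + 1) / g)
  obtain ⟨NW, hNW⟩ := exists_nat_ge (a * L + 1)
  set M : ℝ := (NG : ℝ) + NW with hM
  have hM0 : 0 ≤ M := by positivity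
  have haL : 0 ≤ a * L := mul_nonneg ha (by linarith)
  obtain ⟨K, hK⟩ := exists_nat_ge (4 + M + 8 / c1 * (a * L + 1 + (M + 1)))
  have hq0 : 0 ≤ 8 / c1 * (a * L + 1 + (M + 1)) := by positivity
  have hK3 : 4 ≤ K := by
    have : (4 : ℝ) ≤ K := by linarith
    exact_mod_cast this
  refine ⟨K, L, b, NG, NW, by exact_mod_cast hb1, ?_, hK3, ?_, by rw [one_mul]; exact hNW, ?_⟩
  · have : (b : ℝ) ≤ L := by linarith
    exact_mod_cast this
  · rw [div_le_iff₀ hg] at hNG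
    linarith
  · intro c δ hc hδ
    have hc0 : 0 < c := by linarith
    refine ⟨?_, ?_, ?_⟩
    · have h1 : c1 / 8 * (8 / c1 * (A * (1 + 4 * b))) = A * (1 + 4 * b) := by field_simp
      have h2 : c1 / 8 * (8 / c1 * (A * (1 + 4 * b))) ≤ c / 8 * (8 / c1 * (A * (1 + 4 * b))) :=
        mul_le_mul_of_nonneg_right (by linarith) (mul_nonneg h8.le hA4)
      have h3 := mul_le_mul_of_nonneg_left hL (by linarith : (0 : ℝ) ≤ c / 8)
      nlinarith
    · have h1 : c1 / 4 ≤ c / 2 - δ := by linarith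
      have h3 : 5 / c1 * (c1 / 4) = 5 / 4 := by field_simp
      have h4 : (5 / 4 : ℝ) ≤ ((b : ℝ) - 1) * (c / 2 - δ) :=
        calc (5 / 4 : ℝ) = 5 / c1 * (c1 / 4) := h3.symm
          _ ≤ ((b : ℝ) - 1) * (c1 / 4) := mul_le_mul_of_nonneg_right (by linarith) (by linarith)
          _ ≤ _ := mul_le_mul_of_nonneg_left h1 (by linarith)
      linarith
    · have h1 : a * L + 1 + (M + 1) ≤ c / 8 * ((K : ℝ) - 3 - M) := by
        have h2 : c1 / 8 * (8 / c1 * (a * L + 1 + (M + 1))) = a * L + 1 + (M + 1) := by field_simp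
        have h3 : c1 / 8 * (8 / c1 * (a * L + 1 + (M + 1))) ≤
            c / 8 * (8 / c1 * (a * L + 1 + (M + 1))) :=
          mul_le_mul_of_nonneg_right (by linarith) hq0
        have h4 : c / 8 * (8 / c1 * (a * L + 1 + (M + 1))) ≤ c / 8 * ((K : ℝ) - 3 - M) :=
          mul_le_mul_of_nonneg_left (by linarith) (by linarith)
        linarith
      have h2 := mul_le_mul_of_nonneg_left h1 (by linarith : (0 : ℝ) ≤ L)
      have h3 : a * L + 1 ≤ L * (a * L + 1) := by nlinarith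
      nlinarith

/-! ### multiplicative form -/

open Crest.Agent.R138.W298 in
/-- **assembly with a price, multiplicative form.** -/
theorem assembly_price_mul {c1 A a g : ℝ} (hc1 : 0 < c1) (hA : 0 ≤ A) (ha : 0 ≤ a) (hg : 0 < g) :
    ∃ n L : ℕ, 3 ≤ n ∧ 1 ≤ L ∧
    ∀ c q δ : ℝ, c1 ≤ c → 0 ≤ q → q ≤ c → δ ≤ c1 / 4 → ∀ X E : ℝ, 1 < X → 1 ≤ E →
    ∀ (S : ℕ → ℝ) (p : ℕ → ℕ → ℕ → ℝ) (s : ℕ → ℝ) (nar gain : ℕ → Prop),
    (∀ j, j ≤ n → 0 ≤ S j) →
    (∀ j, j < n → S (j + 1) ≤ E * X ^ (c / 2) * S j) →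
    (∀ j, 1 ≤ j → j ≤ n → gain j →
      ∃ i, i < j ∧ S j ≤ E * X ^ ((c / 2 - g) * ((j : ℝ) - i)) * S i) →
    (∀ h i j, 1 ≤ h → h < i → i < j → j ≤ n → j ≤ h + 4 * L →
      1 ≤ p h i j ∧ p h i j ≤ E * X ^ ((j : ℝ) - i)) →
    (∀ h i j k, 1 ≤ h → h < i → i < j → j < k → k ≤ n → k ≤ h + 4 * L → nar j →
      S j ≤ E * X ^ (A + A * (max 0 ((i : ℝ) + k - 2 * j) + max 0 ((h : ℝ) + j - 2 * i))
        + q / 4 * ((k : ℝ) - j)) * (p h i j / p i j k) ^ (1 / 2 : ℝ) * S i) →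
    (∀ j, 1 ≤ j → j + 1 ≤ n → 1 ≤ s j ∧ s j ≤ E * X ^ (1 / 2 : ℝ)) →
    (∀ j, 1 ≤ j → j + 2 ≤ n → ¬ nar j → ¬ gain j → ¬ nar (j + 1) → ¬ gain (j + 1) →
      S (j + 1) ≤ E * X ^ δ * (s j / s (j + 1)) ^ (1 / 2 : ℝ) * S j) →
    S n ≤ E ^ (6 * n) * X ^ (c / 2 * n - (a * L + 1)) * S 0 := by
  obtain ⟨K, L, b, NG, NW, hb, hbL, hK, hNG, hNW, hpar⟩ := params_price hc1 hA ha hg
  have hL1 : 1 ≤ L := hb.trans hbL
  have hKL : K ≤ K * L := Nat.le_mul_of_pos_right K hL1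
  refine ⟨K * L, L, by omega, hL1, ?_⟩
  intro c q δ hc hq hqc hδ X E hX hE S p s nar gain hS0 hG hgain hp hT hs hS
  set n := K * L with hn
  have hX0 : 0 < X := by linarith
  have hE0 : 0 < E := by linarith
  have hl : 0 < Real.log X := Real.log_pos hX
  by_cases hSn : S n = 0
  · rw [hSn]
    have := hS0 0 (by omega)
    positivity
  have hpos : ∀ m, m ≤ n → 0 < S (n - m) := by
    intro m
    induction m with
    | zero => intro _; exact lt_of_le_of_ne (hS0 n le_rfl) (Ne.symm hSn)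
    | succ m ih =>
      intro hm
      have h1 := ih (by omega)
      refine lt_of_le_of_ne (hS0 _ (by omega)) (fun h => ?_)
      have h2 := hG (n - (m + 1)) (by omega)
      rw [← h, mul_zero, show n - (m + 1) + 1 = n - m by omega] at h2
      linarith
  have hpos' : ∀ j, j ≤ n → 0 < S j := fun j hj => by
    have := hpos (n - j) (by omega)
    rwa [show n - (n - j) = j by omega] at this
  obtain ⟨hp1, hp2, hp3⟩ := hpar c δ hc hδ
  have he : 0 ≤ Real.log E / Real.log X := div_nonneg (Real.log_nonneg hE) hl.le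
  have key := assembly_price_add (n := n) (K := K) (L := L) (b := b) (NG := NG) (NW := NW) hn hbL
    hb hK (c := c) (e := Real.log E / Real.log X) (g := g) (A := A) (q := q) (δ := δ)
    (κ := a * L + 1) (w := 1) he hA (by linarith) hqc hg.le hp1 hp2 (by norm_num) hNG hNW hp3
    (fun j => Real.log (S j) / Real.log X) (fun h i j => Real.log (p h i j) / Real.log X)
    (fun j => Real.log (s j) / Real.log X) nar gain
    (fun j hj => log_step hX hE (hpos' j hj.le) (hpos' (j + 1) hj) (hG j hj))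
    (fun j hj hgj hj1 => by
      obtain ⟨i, hi, h⟩ := hgain j hj1 hj hgj
      exact ⟨i, hi, log_step hX hE (hpos' i (by omega)) (hpos' j hj) h⟩)
    (fun h i j h0 h1 h2 h3 h4 => log_pot hX hE (hp h i j h0 h1 h2 h3 h4).1
      (hp h i j h0 h1 h2 h3 h4).2)
    (fun h i j k h0 h1 h2 h3 h4 h5 h6 =>
      log_step_pot hX hE (hpos' i (by omega)) (hpos' j (by omega))
        (lt_of_lt_of_le one_pos (hp h i j h0 h1 h2 (by omega) (by omega)).1)
        (lt_of_lt_of_le one_pos (hp i j k (by omega) h2 h3 h4 (by omega)).1)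
        (hT h i j k h0 h1 h2 h3 h4 h5 h6))
    (fun j h1 h2 => log_pot hX hE (hs j h1 h2).1 (hs j h1 h2).2)
    (fun j h1 h2 h3 h4 h5 h6 => by
      have := log_step_pot hX hE (hpos' j (by omega)) (hpos' (j + 1) (by omega))
        (lt_of_lt_of_le one_pos (hs j h1 (by omega)).1)
        (lt_of_lt_of_le one_pos (hs (j + 1) (by omega) (by omega)).1) (hS j h1 h2 h3 h4 h5 h6)
      linarith)
  refine exp_back hX hE (hpos' 0 (by omega)) (hpos' n le_rfl) ?_
  push_cast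
  exact key

end Crest.Agent.R116.AsmP597
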