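import Crest.Agent.R116.AsmP2_597

/-!
# R116, WAVE side: the assembly with a price (helper597), part 3: tiny additive terms, the
misaligned part of the slab step as a summand.  FINAL FORM `assembly_price`.
-/

set_option autoImplicit false

namespace Crest.Agent.R116.AsmP597

theorem root_low {p p' Z : ℝ} (hp : 1 ≤ p) (hp' : 0 < p') (hZ : 1 ≤ Z) (h : p' ≤ Z) :
    1 ≤ Z * (p / p') ^ (1 / 2 : ℝ) := by
  have hZ0 : 0 < Z := by linarith
  have h1 : 1 / Z ≤ p / p' := div_le_div₀ (by linarith) hp hp' h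
  have h2 : (1 / Z) ^ (1 / 2 : ℝ) ≤ (p / p') ^ (1 / 2 : ℝ) :=
    Real.rpow_le_rpow (by positivity) h1 (by norm_num)
  have h3 : 1 / Z ≤ (1 / Z) ^ (1 / 2 : ℝ) := by
    have h4 : 1 / Z ≤ 1 := by rw [div_le_one hZ0]; exact hZ
    calc 1 / Z = (1 / Z) ^ (1 : ℝ) := (Real.rpow_one _).symm
      _ ≤ _ := Real.rpow_le_rpow_of_exponent_ge (by positivity) h4 (by norm_num)
  calc (1 : ℝ) = Z * (1 / Z) := by field_simp
    _ ≤ _ := mul_le_mul_of_nonneg_left (h3.trans h2) hZ0.le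

set_option maxHeartbeats 800000 in
/-- **ASSEMBLY WITH A PRICE (final form).** `X = 1/dl`, `E` = loss, `τ` = tiny, `a` = exponent of
the price (`price = X ^ (a L)`), `g` = gain of a bad level, `δ` = loss of the slab rule. -/
theorem assembly_price {c1 A a g : ℝ} (hc1 : 0 < c1) (hA : 0 ≤ A) (ha : 0 ≤ a) (hg : 0 < g)
    (hgc : g ≤ c1 / 2) :
    ∃ n L : ℕ, 3 ≤ n ∧ 1 ≤ L ∧
    ∀ c q δ : ℝ, c1 ≤ c → 0 ≤ q → q ≤ c → 0 ≤ δ → δ ≤ c1 / 4 →
    ∀ X E τ : ℝ, 1 < X → 1 ≤ E → 0 ≤ τ →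
    ∀ (S : ℕ → ℝ) (p : ℕ → ℕ → ℕ → ℝ) (s : ℕ → ℝ) (nar gain : ℕ → Prop),
    (∀ j, j ≤ n → 0 ≤ S j) →
    -- Step 4
    (∀ j, j < n → S (j + 1) ≤ E * X ^ (c / 2) * S j + τ) →
    -- bad levels
    (∀ j, 1 ≤ j → j ≤ n → gain j →
      ∃ i, i < j ∧ S j ≤ E * X ^ ((c / 2 - g) * ((j : ℝ) - i)) * S i + τ) →
    -- coherence numbers
    (∀ h i j, 1 ≤ h → h < i → i < j → j ≤ n → j ≤ h + 4 * L →
      1 ≤ p h i j ∧ p h i j ≤ E * X ^ ((j : ℝ) - i)) →
    -- tube rule
    (∀ h i j k, 1 ≤ h → h < i → i < j → j < k → k ≤ n → k ≤ h + 4 * L → nar j →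
      S j ≤ E * X ^ (A + A * (max 0 ((i : ℝ) + k - 2 * j) + max 0 ((h : ℝ) + j - 2 * i))
        + q / 4 * ((k : ℝ) - j)) * (p h i j / p i j k) ^ (1 / 2 : ℝ) * S i + τ) →
    (∀ j, 1 ≤ j → j + 1 ≤ n → 1 ≤ s j ∧ s j ≤ E * X ^ (1 / 2 : ℝ)) →
    -- slab rule
    (∀ j, 1 ≤ j → j + 2 ≤ n → ¬ nar j → ¬ gain j → ¬ nar (j + 1) → ¬ gain (j + 1) →
      S (j + 1) ≤ (E * X ^ δ * (s j / s (j + 1)) ^ (1 / 2 : ℝ) + E * X ^ (c / 2 - g)) * S j + τ) →
    S n ≤ (4 * E) ^ (6 * n) * X ^ (c / 2 * n - (a * L + 1)) *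
      (S 0 + (2 * E * X ^ n) ^ (n + 1) * τ) := by
  obtain ⟨n, L, hn3, hL1, H⟩ := assembly_price_mul hc1 hA ha hg
  refine ⟨n, L, hn3, hL1, ?_⟩
  intro c q δ hc hq hqc hδ0 hδ X E τ hX hE hτ S p s nar gain hS0 hG hgain hp hT hs hS
  have hX0 : 0 < X := by linarith
  have hE0 : 0 < E := by linarith
  have hXn : (1 : ℝ) ≤ X ^ n := one_le_pow₀ hX.le
  set Z : ℝ := E * X ^ n with hZ
  have hZ1 : 1 ≤ Z := one_le_mul_of_one_le_of_one_le hE hXn
  set W : ℝ := 2 * E * X ^ n with hW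
  have hWZ : W = 2 * Z := by rw [hW, hZ]; ring
  have hW1 : 1 ≤ W := by rw [hWZ]; linarith
  have hW0 : 0 < W := by linarith
  have hWp : ∀ m : ℕ, 1 ≤ W ^ m := fun m => one_le_pow₀ hW1
  set S' : ℕ → ℝ := fun j => S j + W ^ (n + 1 - j) * τ with hS'
  have hS'0 : ∀ j, j ≤ n → 0 ≤ S' j := fun j hj => by
    have h1 := hS0 j hj
    have h2 := hWp (n + 1 - j)
    simp only [hS']
    positivity
  -- powers of `W`
  have hWlt : ∀ i j, i < j → j ≤ n → W * W ^ (n + 1 - j) ≤ W ^ (n + 1 - i) := by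
    intro i j hij hj
    rw [← pow_succ']
    exact pow_le_pow_right₀ hW1 (by omega)
  -- the generic absorption: factor `F ≥ 0` with `1 ≤ W * F`
  have habs : ∀ i j (F : ℝ), i < j → j ≤ n → 1 ≤ W * F → S j ≤ F * S i + τ →
      S' j ≤ 2 * F * S' i := by
    intro i j F hij hj hF h
    have hF0 : 0 ≤ F := by
      by_contra hc
      push Not at hc
      nlinarith
    have h1 := hWlt i j hij hj
    have h2 := hWp (n + 1 - j)
    have h3 := hS0 i (by omega)
    have h4 : W ^ (n + 1 - j) ≤ F * W ^ (n + 1 - i) :=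
      calc W ^ (n + 1 - j) = 1 * W ^ (n + 1 - j) := (one_mul _).symm
        _ ≤ (W * F) * W ^ (n + 1 - j) := mul_le_mul_of_nonneg_right hF (by linarith)
        _ = F * (W * W ^ (n + 1 - j)) := by ring
        _ ≤ _ := mul_le_mul_of_nonneg_left h1 hF0
    have h5 : W ^ (n + 1 - j) * τ ≤ F * W ^ (n + 1 - i) * τ := mul_le_mul_of_nonneg_right h4 hτ
    have h6 : τ ≤ W ^ (n + 1 - j) * τ := by nlinarith
    have h7 : 0 ≤ F * S i := mul_nonneg hF0 h3
    simp only [hS']
    nlinarith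
  have hE4 : E ≤ 4 * E := by linarith
  have hXr : ∀ u : ℝ, 0 ≤ u → 1 ≤ X ^ u := fun u hu => Real.one_le_rpow hX.le hu
  have hc0 : 0 < c := by linarith
  have key := H c q δ hc hq hqc hδ X (4 * E) hX (by linarith) S' p s nar
    (fun j => gain j ∨ ∃ i, j = i + 1 ∧ S' j ≤ 4 * E * X ^ (c / 2 - g) * S' i)
    hS'0
    (fun j hj => by
      have h1 : 1 ≤ E * X ^ (c / 2) := one_le_mul_of_one_le_of_one_le hE (hXr _ (by linarith))
      have h2 := habs j (j + 1) (E * X ^ (c / 2)) (by omega) (by omega)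
        (one_le_mul_of_one_le_of_one_le hW1 h1) (hG j hj)
      have h3 := hS'0 j hj.le
      have h4 : 0 ≤ E * X ^ (c / 2) * S' j := mul_nonneg (by linarith) h3
      linarith)
    (fun j hj1 hj hgj => by
      rcases hgj with hgj | ⟨i, hji, hi⟩
      · obtain ⟨i, hij, hi⟩ := hgain j hj1 hj hgj
        have hijR : (i : ℝ) ≤ j := by exact_mod_cast hij.le
        have h0 : 0 ≤ (c / 2 - g) * ((j : ℝ) - i) := mul_nonneg (by linarith) (by linarith)
        have h1 : 1 ≤ E * X ^ ((c / 2 - g) * ((j : ℝ) - i)) :=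
          one_le_mul_of_one_le_of_one_le hE (hXr _ h0)
        have h2 := habs i j _ hij hj (one_le_mul_of_one_le_of_one_le hW1 h1) hi
        have h3 := hS'0 i (by omega)
        refine ⟨i, hij, ?_⟩
        have h4 : 0 ≤ E * X ^ ((c / 2 - g) * ((j : ℝ) - i)) * S' i := mul_nonneg (by linarith) h3
        linarith
      · subst hji
        refine ⟨i, by omega, ?_⟩
        have e1 : (c / 2 - g) * (((i + 1 : ℕ) : ℝ) - i) = c / 2 - g := by push_cast; ring
        rw [e1]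
        exact hi)
    (fun h i j h0 h1 h2 h3 h4 => by
      obtain ⟨h5, h6⟩ := hp h i j h0 h1 h2 h3 h4
      refine ⟨h5, h6.trans (mul_le_mul_of_nonneg_right hE4 (by positivity))⟩)
    (fun h i j k h0 h1 h2 h3 h4 h5 h6 => by
      obtain ⟨b1, b2⟩ := hp h i j h0 h1 h2 (by omega) (by omega)
      obtain ⟨b3, b4⟩ := hp i j k (by omega) h2 h3 h4 (by omega)
      have hkj : ((k : ℝ) - j) ≤ n := by
        have a1 : (k : ℝ) ≤ n := by exact_mod_cast h4
        have a2 : (0 : ℝ) ≤ j := Nat.cast_nonneg j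
        linarith
      have b5 : p i j k ≤ Z := b4.trans (by
        rw [hZ]
        refine mul_le_mul_of_nonneg_left ?_ hE0.le
        rw [← Real.rpow_natCast]
        exact Real.rpow_le_rpow_of_exponent_le hX.le hkj)
      have b6 := root_low b1 (lt_of_lt_of_le one_pos b3) hZ1 b5
      set r : ℝ := (p h i j / p i j k) ^ (1 / 2 : ℝ) with hr
      have hr0 : 0 < r := by
        have : 0 < p h i j := by linarith
        have : 0 < p i j k := by linarith
        positivity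
      set u : ℝ := A + A * (max 0 ((i : ℝ) + k - 2 * j) + max 0 ((h : ℝ) + j - 2 * i))
        + q / 4 * ((k : ℝ) - j) with hu
      have hu0 : 0 ≤ u := by
        have a1 : 0 ≤ max 0 ((i : ℝ) + k - 2 * j) + max 0 ((h : ℝ) + j - 2 * i) :=
          add_nonneg (le_max_left _ _) (le_max_left _ _)
        have a2 : (0 : ℝ) ≤ (k : ℝ) - j := by
          have : (j : ℝ) ≤ k := by exact_mod_cast h3.le
          linarith
        have a3 := mul_nonneg hA a1
        have a4 : 0 ≤ q / 4 * ((k : ℝ) - j) := mul_nonneg (by linarith) a2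
        linarith
      have b7 : 1 ≤ W * (E * X ^ u * r) := by
        have a1 : 1 ≤ E * X ^ u := one_le_mul_of_one_le_of_one_le hE (hXr _ hu0)
        calc (1 : ℝ) ≤ (E * X ^ u) * (Z * r) := one_le_mul_of_one_le_of_one_le a1 b6
          _ ≤ 2 * ((E * X ^ u) * (Z * r)) := by
              have : 0 ≤ (E * X ^ u) * (Z * r) := by positivity
              linarith
          _ = _ := by rw [hWZ]; ring
      have b8 := habs i j _ h2 (by omega) b7 (hT h i j k h0 h1 h2 h3 h4 h5 h6)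
      have h3' := hS'0 i (by omega)
      have h4' : 0 ≤ E * X ^ u * r * S' i := mul_nonneg (by positivity) h3'
      linarith)
    (fun j h1 h2 => by
      obtain ⟨h5, h6⟩ := hs j h1 h2
      refine ⟨h5, h6.trans (mul_le_mul_of_nonneg_right hE4 (by positivity))⟩)
    (fun j h1 h2 h3 h4 h5 h6 => by
      simp only [not_or] at h4 h6
      have h7 := hS j h1 h2 h3 h4.1 h5 h6.1
      have h8 : ¬ S' (j + 1) ≤ 4 * E * X ^ (c / 2 - g) * S' j := fun h =>
        h6.2 ⟨j, rfl, h⟩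
      push Not at h8
      obtain ⟨b1, b2⟩ := hs j h1 (by omega)
      obtain ⟨b3, b4⟩ := hs (j + 1) (by omega) (by omega)
      have b5 : s (j + 1) ≤ Z := b4.trans (by
        rw [hZ]
        refine mul_le_mul_of_nonneg_left ?_ hE0.le
        rw [← Real.rpow_natCast]
        refine Real.rpow_le_rpow_of_exponent_le hX.le ?_
        have : (3 : ℝ) ≤ n := by exact_mod_cast hn3
        linarith)
      have b6 := root_low b1 (lt_of_lt_of_le one_pos b3) hZ1 b5
      set r : ℝ := (s j / s (j + 1)) ^ (1 / 2 : ℝ) with hr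
      have hr0 : 0 < r := by
        have : 0 < s j := by linarith
        have : 0 < s (j + 1) := by linarith
        positivity
      have hF1 : 1 ≤ E * X ^ δ := one_le_mul_of_one_le_of_one_le hE (hXr _ hδ0)
      have b7 : 1 ≤ W * (E * X ^ δ * r + E * X ^ (c / 2 - g)) := by
        calc (1 : ℝ) ≤ (E * X ^ δ) * (Z * r) := one_le_mul_of_one_le_of_one_le hF1 b6
          _ ≤ 2 * ((E * X ^ δ) * (Z * r)) := by
              have : 0 ≤ (E * X ^ δ) * (Z * r) := by positivity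
              linarith
          _ = W * (E * X ^ δ * r) := by rw [hWZ]; ring
          _ ≤ _ := mul_le_mul_of_nonneg_left
              (by have : 0 ≤ E * X ^ (c / 2 - g) := by positivity
                  linarith) hW0.le
      have b8 := habs j (j + 1) _ (by omega) (by omega) b7 h7
      have h3' := hS'0 j (by omega)
      have h4' : 0 ≤ E * X ^ δ * r * S' j := mul_nonneg (by positivity) h3'
      nlinarith)
  refine le_trans ?_ (key.trans ?_)
  · have h1 := hWp (n + 1 - n)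
    have h2 : 0 ≤ W ^ (n + 1 - n) * τ := mul_nonneg (by linarith) hτ
    simp only [hS']
    linarith
  · have h1 : S' 0 = S 0 + W ^ (n + 1) * τ := by simp [hS']
    rw [h1]

end Crest.Agent.R116.AsmP597
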