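import Mathlib

/-!
# R116, WAVE side: the real-number assembly with a PRICE (helper597), doc 2239 section (5)

One label sequence, levels `0 .. n`, numbers `x j = log S j / log X`, `X = 1/dl`.
Flags: `nar j` (narrow label), `gain j` (thick / dropped / misaligned: a gain `g` per level with
respect to SOME earlier level).  The slicing price `X ^ (a L)` is beaten: either many gain levels,
or many wide blocks, or the tube form on almost all blocks (potential with resets).
-/

set_option autoImplicit false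

namespace Crest.Agent.R116.AsmP597

open Finset

/-- trivial growth. -/
theorem triv {n : ℕ} {c e : ℝ} (x : ℕ → ℝ)
    (hG : ∀ j, j < n → x (j + 1) ≤ x j + c / 2 + e) (a : ℕ) :
    ∀ m : ℕ, a + m ≤ n → x (a + m) ≤ x a + m * (c / 2 + e) := by
  intro m
  induction m with
  | zero => intro _; simp
  | succ m ih =>
    intro h
    have h1 := ih (by omega)
    have h2 := hG (a + m) (by omega)
    have e1 : a + (m + 1) = a + m + 1 := by ring
    rw [e1]
    push_cast
    linarith

theorem triv' {n : ℕ} {c e : ℝ} (x : ℕ → ℝ)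
    (hG : ∀ j, j < n → x (j + 1) ≤ x j + c / 2 + e) {a b : ℕ} (hab : a ≤ b) (hb : b ≤ n) :
    x b ≤ x a + ((b : ℝ) - a) * (c / 2 + e) := by
  have := triv x hG a (b - a) (by omega)
  rw [show a + (b - a) = b by omega, Nat.cast_sub hab] at this
  exact this

/-- **many gain levels.** -/
theorem count_gain {n : ℕ} {c e g : ℝ} (he : 0 ≤ e) (hg : 0 ≤ g) (x : ℕ → ℝ) (gain : ℕ → Prop)
    [DecidablePred gain]
    (hG : ∀ j, j < n → x (j + 1) ≤ x j + c / 2 + e)
    (hgain : ∀ j, j ≤ n → gain j → 1 ≤ j → ∃ i, i < j ∧ x j ≤ x i + (c / 2 - g) * ((j : ℝ) - i) + e) :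
    ∀ m : ℕ, m ≤ n →
      x m ≤ x 0 + c / 2 * m - g * (((Finset.Icc 1 m).filter gain).card : ℝ) + m * e := by
  intro m
  induction m using Nat.strong_induction_on with
  | _ m ih =>
    intro hm
    rcases Nat.eq_zero_or_pos m with h0 | h0
    · subst h0; simp
    by_cases hgm : gain m
    · obtain ⟨i, hi, hx⟩ := hgain m hm hgm h0
      have h1 := ih i hi (by omega)
      have hcard : ((Finset.Icc 1 m).filter gain).card ≤
          ((Finset.Icc 1 i).filter gain).card + (m - i) := by
        have hsub : (Finset.Icc 1 m).filter gain ⊆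
            (Finset.Icc 1 i).filter gain ∪ Finset.Icc (i + 1) m := by
          intro j hj
          simp only [Finset.mem_filter, Finset.mem_Icc, Finset.mem_union] at hj ⊢
          by_cases hji : j ≤ i
          · exact Or.inl ⟨⟨hj.1.1, hji⟩, hj.2⟩
          · exact Or.inr ⟨by omega, hj.1.2⟩
        calc ((Finset.Icc 1 m).filter gain).card
            ≤ ((Finset.Icc 1 i).filter gain ∪ Finset.Icc (i + 1) m).card :=
              Finset.card_le_card hsub
          _ ≤ ((Finset.Icc 1 i).filter gain).card + (Finset.Icc (i + 1) m).card :=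
              Finset.card_union_le _ _
          _ = _ := by rw [Nat.card_Icc]; omega
      have hcardR : ((((Finset.Icc 1 m).filter gain).card : ℕ) : ℝ) ≤
          (((Finset.Icc 1 i).filter gain).card : ℝ) + ((m : ℝ) - i) := by
        have : ((((Finset.Icc 1 m).filter gain).card : ℕ) : ℝ) ≤
          (((((Finset.Icc 1 i).filter gain).card + (m - i) : ℕ)) : ℝ) := by exact_mod_cast hcard
        rw [Nat.cast_add, Nat.cast_sub hi.le] at this
        exact this
      have him : (i : ℝ) + 1 ≤ m := by exact_mod_cast hi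
      have h2 : g * ((((Finset.Icc 1 m).filter gain).card : ℕ) : ℝ) ≤
          g * ((((Finset.Icc 1 i).filter gain).card : ℝ) + ((m : ℝ) - i)) :=
        mul_le_mul_of_nonneg_left hcardR hg
      have h3 : ((i : ℝ) + 1) * e ≤ m * e := mul_le_mul_of_nonneg_right him he
      nlinarith [h1, hx, h2, h3]
    · obtain ⟨i, rfl⟩ : ∃ i, m = i + 1 := ⟨m - 1, by omega⟩
      have h1 := ih i (by omega) (by omega)
      have h2 := hG i (by omega)
      have hcard : (Finset.Icc 1 (i + 1)).filter gain = (Finset.Icc 1 i).filter gain := by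
        ext j
        simp only [Finset.mem_filter, Finset.mem_Icc]
        constructor
        · rintro ⟨⟨h3, h4⟩, h5⟩
          refine ⟨⟨h3, ?_⟩, h5⟩
          rcases Nat.lt_or_ge i j with h6 | h6
          · exact absurd (by rwa [show j = i + 1 by omega] at h5) hgm
          · exact h6
        · rintro ⟨⟨h3, h4⟩, h5⟩
          exact ⟨⟨h3, by omega⟩, h5⟩
      rw [hcard]
      push_cast
      linarith

/-- telescoping with a potential. -/
theorem tele_pot (x s : ℕ → ℝ) (g : ℝ) (a m : ℕ)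
    (h : ∀ j, a ≤ j → j < a + m → x (j + 1) ≤ x j + g + (s j - s (j + 1)) / 2) :
    x (a + m) ≤ x a + m * g + (s a - s (a + m)) / 2 := by
  induction m with
  | zero => simp
  | succ m ih =>
    have h1 := ih (fun j h1 h2 => h j h1 (by omega))
    have h2 := h (a + m) (by omega) (by omega)
    rw [show a + (m + 1) = a + m + 1 by ring]
    push_cast
    linarith

/-- **many wide blocks.** -/
theorem count_wide {n K L b : ℕ} (hn : n = K * L) (hbL : b ≤ L) (hb : 1 ≤ b)
    {c e δ w : ℝ} (he : 0 ≤ e)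
    (hw : w ≤ ((b : ℝ) - 1) * (c / 2 - δ) - 1 / 4)
    (x s : ℕ → ℝ) (wide : ℕ → Prop) [DecidablePred wide]
    (hG : ∀ j, j < n → x (j + 1) ≤ x j + c / 2 + e)
    (hs : ∀ j, 1 ≤ j → j + 1 ≤ n → 0 ≤ s j ∧ s j ≤ 1 / 2 + e)
    (hS : ∀ k, 1 ≤ k → k < K → wide k → ∀ j, k * L ≤ j → j + 1 < k * L + b →
      x (j + 1) ≤ x j + (δ + e) + (s j - s (j + 1)) / 2) :
    ∀ k : ℕ, k ≤ K → x (k * L) ≤ x 0 + c / 2 * (k * L) -
      w * (((Finset.range k).filter (fun m => 1 ≤ m ∧ wide m)).card : ℝ) + k * ((L + 1) * e) := by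
  have hL1 : 1 ≤ L := hb.trans hbL
  intro k
  induction k with
  | zero => intro _; simp
  | succ k ih =>
    intro hk
    have h1 := ih (by omega)
    have hkn : k * L + L ≤ n := by
      have : (k + 1) * L ≤ K * L := Nat.mul_le_mul_right L (by omega)
      rw [hn]; linarith
    by_cases hwk : 1 ≤ k ∧ wide k
    · obtain ⟨m, hm⟩ : ∃ m, b = m + 1 := ⟨b - 1, by omega⟩
      have hkL : 1 ≤ k * L := Nat.mul_pos (by omega) (by omega)
      have h2 := tele_pot x s (δ + e) (k * L) m (fun j hj1 hj2 =>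
        hS k hwk.1 (by omega) hwk.2 j hj1 (by omega))
      have h3 := triv' x hG (a := k * L + m) (b := k * L + L) (by omega) (by omega)
      have h6 : (s (k * L) - s (k * L + m)) / 2 ≤ 1 / 4 + e / 2 := by
        rcases Nat.eq_zero_or_pos m with h | h
        · subst h
          simp only [add_zero, sub_self, zero_div]
          linarith
        · have h4 := hs (k * L) (by omega) (by omega)
          have h5 := hs (k * L + m) (by omega) (by omega)
          linarith [h4.2, h5.1]
      have hcard : (((Finset.range (k + 1)).filter (fun m => 1 ≤ m ∧ wide m)).card : ℝ) =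
          (((Finset.range k).filter (fun m => 1 ≤ m ∧ wide m)).card : ℝ) + 1 := by
        rw [Finset.range_add_one, Finset.filter_insert, if_pos hwk, Finset.card_insert_of_notMem
          (by simp)]
        push_cast; ring
      rw [hcard]
      have hbm : (b : ℝ) - 1 = m := by rw [hm]; push_cast; ring
      rw [hbm] at hw
      rw [show (k + 1) * L = k * L + L by ring]
      push_cast at h3 ⊢
      nlinarith [h1, h2, h3, h6, hw]
    · have hcard : ((Finset.range (k + 1)).filter (fun m => 1 ≤ m ∧ wide m)).card =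
          ((Finset.range k).filter (fun m => 1 ≤ m ∧ wide m)).card := by
        rw [Finset.range_add_one, Finset.filter_insert, if_neg hwk]
      rw [hcard]
      have h3 := triv' x hG (a := k * L) (b := k * L + L) (by omega) (by omega)
      rw [show (k + 1) * L = k * L + L by ring]
      push_cast at h3 ⊢
      nlinarith [h1, h3]

/-- **potential with resets**: the tube form on the blocks that contain a narrow level. -/
theorem count_nar {n K L b : ℕ} (hn : n = K * L) (hbL : b ≤ L) (hb : 1 ≤ b) (hK : 4 ≤ K)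
    {c e A q : ℝ} (he : 0 ≤ e) (hA : 0 ≤ A) (hc : 0 ≤ c) (hqc : q ≤ c)
    (hL : A * (1 + 4 * b) + 3 / 4 * c * b ≤ c / 8 * L)
    (x : ℕ → ℝ) (P : ℕ → ℕ → ℕ → ℝ) (nar : ℕ → Prop) (nb : ℕ → Prop) [DecidablePred nb]
    (hnb : ∀ k, 3 ≤ k → k < K → nb k → ∃ j, k * L ≤ j ∧ j < k * L + b ∧ nar j)
    (hG : ∀ j, j < n → x (j + 1) ≤ x j + c / 2 + e)
    (hP : ∀ h i j, 1 ≤ h → h < i → i < j → j ≤ n → j ≤ h + 4 * L →
      0 ≤ P h i j ∧ P h i j ≤ ((j : ℝ) - i) + e)
    (hT : ∀ h i j k, 1 ≤ h → h < i → i < j → j < k → k ≤ n → k ≤ h + 4 * L → nar j →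
      x j ≤ x i + (A + A * (max 0 ((i : ℝ) + k - 2 * j) + max 0 ((h : ℝ) + j - 2 * i))
        + q / 4 * ((k : ℝ) - j)) + (P h i j - P i j k) / 2 + e) :
    x n ≤ x 0 + c / 2 * n
      - c / 8 * L * (((Finset.Ico 3 K).filter nb).card : ℝ)
      + L * (((Finset.Ico 3 K).filter (fun k => ¬ nb k)).card : ℝ) + L + (3 * K) * ((L + 1) * e) := by
  classical
  have hL1 : 1 ≤ L := hb.trans hbL
  -- chosen levels
  have hch : ∀ k : ℕ, ∃ i : ℕ, (3 ≤ k → k < K → nb k → nar i) ∧ k * L ≤ i ∧ i < k * L + b ∧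
      (k ≤ 2 → i = k * L) ∧ (K ≤ k → i = k * L) := by
    intro k
    by_cases hk : 3 ≤ k ∧ k < K ∧ nb k
    · obtain ⟨j, h1, h2, h3⟩ := hnb k hk.1 hk.2.1 hk.2.2
      exact ⟨j, fun _ _ _ => h3, h1, h2, fun h => by omega, fun h => by omega⟩
    · exact ⟨k * L, fun h h' h'' => absurd ⟨h, h', h''⟩ hk, le_rfl, by omega, fun _ => rfl,
        fun _ => rfl⟩
  choose ι h1 h2 h3 h4 h5 using hch
  have hlt : ∀ k, ι k < ι (k + 1) := by
    intro k
    have a1 := h3 k
    have a2 := h2 (k + 1)
    have a3 : (k + 1) * L = k * L + L := by ring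
    omega
  have hle : ∀ k, k ≤ K → ι k ≤ n := by
    intro k hk
    rcases Nat.lt_or_ge k K with h | h
    · have a1 := h3 k
      have a3 : (k + 1) * L ≤ K * L := Nat.mul_le_mul_right L (by omega)
      have a4 : (k + 1) * L = k * L + L := by ring
      omega
    · have := h5 k h
      have a3 : k = K := by omega
      rw [this, a3, hn]
  have hrange : ∀ k, ι (k + 3) ≤ ι k + 4 * L := by
    intro k
    have a1 := h2 k
    have a2 := h3 (k + 3)
    have a3 : (k + 3) * L = k * L + 3 * L := by ring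
    omega
  -- real versions
  have r2 : ∀ k : ℕ, (k : ℝ) * L ≤ (ι k : ℝ) := fun k => by exact_mod_cast h2 k
  have r3 : ∀ k : ℕ, (ι k : ℝ) + 1 ≤ (k : ℝ) * L + b := fun k => by exact_mod_cast h3 k
  have rbL : (b : ℝ) ≤ L := by exact_mod_cast hbL
  have rb1 : (1 : ℝ) ≤ b := by exact_mod_cast hb
  have rL1 : (1 : ℝ) ≤ L := by exact_mod_cast hL1
  have hLe : 0 ≤ (L : ℝ) * e := mul_nonneg (by linarith) he
  -- the potential
  set Φ : ℕ → ℝ := fun m => P (ι (m - 1)) (ι m) (ι (m + 1)) with hΦ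
  have hι1 : ∀ m, 2 ≤ m → 1 ≤ ι (m - 1) := by
    intro m hm
    have a1 := h2 (m - 1)
    have a2 : 1 * 1 ≤ (m - 1) * L := Nat.mul_le_mul (by omega) hL1
    omega
  have hΦb : ∀ m, 2 ≤ m → m + 1 ≤ K → 0 ≤ Φ m ∧ Φ m ≤ 2 * L + e := by
    intro m hm hmK
    have a1 : ι (m - 1) < ι m := by
      have := hlt (m - 1)
      rwa [show m - 1 + 1 = m by omega] at this
    have a2 : ι (m + 1) ≤ ι (m - 1) + 4 * L := by
      have b1 := hrange (m - 1)
      rw [show m - 1 + 3 = m + 2 by omega] at b1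
      have b2 := hlt (m + 1)
      rw [show m + 1 + 1 = m + 2 by omega] at b2
      omega
    obtain ⟨b1, b2⟩ := hP (ι (m - 1)) (ι m) (ι (m + 1)) (hι1 m hm) a1 (hlt m) (hle _ hmK) a2
    refine ⟨b1, b2.trans ?_⟩
    have b3 := r3 (m + 1)
    have b4 := r2 m
    push_cast at b3
    nlinarith
  -- the steps
  have hstep : ∀ m, 2 ≤ m → m + 2 ≤ K →
      x (ι (m + 1)) - c / 2 * ι (m + 1) + Φ (m + 1) / 2 ≤
        x (ι m) - c / 2 * ι m + Φ m / 2 + (if nb (m + 1) then - (c / 8 * L) else (L : ℝ))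
          + 3 * ((L + 1) * e) := by
    intro m hm hmK
    have s1 := r2 m
    have s2 := r3 m
    have s3 := r2 (m + 1)
    have s4 := r3 (m + 1)
    have s5 := r2 (m + 2)
    have s6 := r3 (m + 2)
    push_cast at s3 s4 s5 s6
    by_cases hnbm : nb (m + 1)
    · rw [if_pos hnbm]
      have a1 : ι (m - 1) < ι m := by
        have := hlt (m - 1)
        rwa [show m - 1 + 1 = m by omega] at this
      have a2 : ι (m + 2) ≤ ι (m - 1) + 4 * L := by
        have b1 := hrange (m - 1)
        rwa [show m - 1 + 3 = m + 2 by omega] at b1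
      have s7 := r2 (m - 1)
      have s8 := r3 (m - 1)
      rw [Nat.cast_sub (by omega : 1 ≤ m)] at s7 s8
      push_cast at s7 s8
      have key := hT (ι (m - 1)) (ι m) (ι (m + 1)) (ι (m + 2)) (hι1 m hm) a1 (hlt m) (hlt (m + 1))
        (hle _ hmK) a2 (h1 (m + 1) (by omega) (by omega) hnbm)
      have t1 : max 0 ((ι m : ℝ) + ι (m + 2) - 2 * ι (m + 1)) ≤ 2 * b :=
        max_le (by linarith) (by nlinarith)
      have t2 : max 0 ((ι (m - 1) : ℝ) + ι (m + 1) - 2 * ι m) ≤ 2 * b :=
        max_le (by linarith) (by nlinarith)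
      have t3 : A * (max 0 ((ι m : ℝ) + ι (m + 2) - 2 * ι (m + 1)) +
          max 0 ((ι (m - 1) : ℝ) + ι (m + 1) - 2 * ι m)) ≤ A * (4 * b) :=
        mul_le_mul_of_nonneg_left (by linarith) hA
      have t4 : (ι (m + 2) : ℝ) - ι (m + 1) ≤ L + b := by nlinarith
      have t5 : q / 4 * ((ι (m + 2) : ℝ) - ι (m + 1)) ≤ c / 4 * (L + b) := by
        have : 0 ≤ (ι (m + 2) : ℝ) - ι (m + 1) := by
          have : (ι (m + 1) : ℝ) ≤ ι (m + 2) := by exact_mod_cast (hlt (m + 1)).le
          linarith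
        calc q / 4 * ((ι (m + 2) : ℝ) - ι (m + 1)) ≤ c / 4 * ((ι (m + 2) : ℝ) - ι (m + 1)) :=
              mul_le_mul_of_nonneg_right (by linarith) this
          _ ≤ _ := mul_le_mul_of_nonneg_left t4 (by linarith)
      have t6 : (L : ℝ) - b ≤ (ι (m + 1) : ℝ) - ι m := by nlinarith
      have t7 : c / 2 * ((L : ℝ) - b) ≤ c / 2 * ((ι (m + 1) : ℝ) - ι m) :=
        mul_le_mul_of_nonneg_left t6 (by linarith)
      have hΦ1 : Φ (m + 1) = P (ι m) (ι (m + 1)) (ι (m + 2)) := by
        simp only [hΦ, Nat.add_sub_cancel]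
      have hΦ0 : Φ m = P (ι (m - 1)) (ι m) (ι (m + 1)) := rfl
      rw [hΦ1, hΦ0]
      nlinarith [key, t3, t5, t7, hL, hLe]
    · rw [if_neg hnbm]
      have a1 := triv' x hG (a := ι m) (b := ι (m + 1)) (hlt m).le (hle _ (by omega))
      have a2 := hΦb (m + 1) (by omega) (by omega)
      have a3 := hΦb m hm (by omega)
      have a4 : (ι (m + 1) : ℝ) - ι m ≤ 2 * L := by nlinarith
      have a5 : ((ι (m + 1) : ℝ) - ι m) * e ≤ 2 * L * e := mul_le_mul_of_nonneg_right a4 he
      nlinarith [a1, a2.2, a3.1, a5]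
  -- the sum
  have hsum : ∀ m, 2 ≤ m → m + 1 ≤ K →
      x (ι m) - c / 2 * ι m + Φ m / 2 ≤ x (ι 2) - c / 2 * ι 2 + Φ 2 / 2
        + (- (c / 8 * L) * (((Finset.Ico 3 (m + 1)).filter nb).card : ℝ)
          + L * (((Finset.Ico 3 (m + 1)).filter (fun k => ¬ nb k)).card : ℝ))
        + ((m : ℝ) - 2) * (3 * ((L + 1) * e)) := by
    intro m hm
    induction m, hm using Nat.le_induction with
    | base => intro _; simp
    | succ m hm ih =>
      intro hmK
      have a1 := ih (by omega)
      have a2 := hstep m hm (by omega)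
      have hI : Finset.Ico 3 (m + 1 + 1) = insert (m + 1) (Finset.Ico 3 (m + 1)) := by
        ext j
        simp only [Finset.mem_Ico, Finset.mem_insert]
        omega
      have hni : m + 1 ∉ Finset.Ico 3 (m + 1) := by simp
      rw [hI, Finset.filter_insert, Finset.filter_insert]
      by_cases hnbm : nb (m + 1)
      · rw [if_pos hnbm, if_neg (not_not.2 hnbm), Finset.card_insert_of_notMem
          (fun h => hni (Finset.mem_filter.1 h).1)]
        rw [if_pos hnbm] at a2
        push_cast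
        linarith
      · rw [if_neg hnbm, if_pos hnbm, Finset.card_insert_of_notMem
          (fun h => hni (Finset.mem_filter.1 h).1)]
        rw [if_neg hnbm] at a2
        push_cast
        linarith
  have f1 := hsum (K - 1) (by omega) (by omega)
  rw [show K - 1 + 1 = K by omega] at f1
  have f2 := hΦb 2 le_rfl (by omega)
  have f3 := hΦb (K - 1) (by omega) (by omega)
  have f4 := triv' x hG (a := 0) (b := ι 2) (by omega) (hle 2 (by omega))
  have f5 := triv' x hG (a := ι (K - 1)) (b := n) (hle _ (by omega)) le_rfl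
  have f6 : (ι 2 : ℝ) = 2 * L := by
    have := h4 2 le_rfl
    rw [this]; push_cast; ring
  have f7 : (n : ℝ) - ι (K - 1) ≤ L := by
    have a1 := r2 (K - 1)
    rw [Nat.cast_sub (by omega : 1 ≤ K)] at a1
    have a2 : (n : ℝ) = K * L := by rw [hn]; push_cast; ring
    rw [a2]
    push_cast at a1
    nlinarith
  have f8 : ((n : ℝ) - ι (K - 1)) * e ≤ L * e := mul_le_mul_of_nonneg_right f7 he
  have hK1 : ((K - 1 : ℕ) : ℝ) = (K : ℝ) - 1 := by
    rw [Nat.cast_sub (by omega : 1 ≤ K)]; push_cast; ring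
  rw [hK1] at f1
  rw [f6] at f1 f4
  have hKR : (4 : ℝ) ≤ K := by exact_mod_cast hK
  push_cast at f4
  nlinarith [f1, f2.2, f3.1, f4, f5, f8, hLe]

end Crest.Agent.R116.AsmP597
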