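import Crest.Agent.R116.AsmP3_597

/-!
# R116, WAVE side: the assembly with a price over a TOWER of labels (helper597)

`S t k` = functional of the label `k < N t` of level `t` (level `0` = root), `par t k` = parent
(level `t`) of the label `k` of level `t + 1`, `up par j i k` = ancestor of level `i` of the label
`k` of level `j`.
-/

set_option autoImplicit false

open scoped ENNReal

namespace Crest.Agent.R116.AsmP597

/-- ancestor of level `i` of the label `k` of level `j` (`k` itself if `j ≤ i`). -/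
def up (par : ℕ → ℕ → ℕ) : ℕ → ℕ → ℕ → ℕ
  | 0, _, k => k
  | j + 1, i, k => if j + 1 ≤ i then k else up par j i (par j k)

theorem up_self (par : ℕ → ℕ → ℕ) (j k : ℕ) : up par j j k = k := by
  cases j with
  | zero => rfl
  | succ j => simp [up]

theorem up_succ (par : ℕ → ℕ → ℕ) {j i : ℕ} (h : i ≤ j) (k : ℕ) :
    up par (j + 1) i k = up par j i (par j k) := by
  simp only [up]
  rw [if_neg (by omega)]

/-- the parent of the ancestor. -/
theorem par_up (par : ℕ → ℕ → ℕ) : ∀ (n t k : ℕ), t < n →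
    up par n t k = par t (up par n (t + 1) k) := by
  intro n
  induction n with
  | zero => intro t k h; omega
  | succ n ih =>
    intro t k h
    rw [up_succ par (by omega)]
    rcases Nat.lt_or_ge t n with h1 | h1
    · rw [ih t _ h1, up_succ par (by omega)]
    · have : t = n := by omega
      subst this
      rw [up_self, up_self]

/-- ancestors of ancestors. -/
theorem up_up (par : ℕ → ℕ → ℕ) {n i : ℕ} : ∀ j : ℕ, i ≤ j → j ≤ n → ∀ k : ℕ,
    up par j i (up par n j k) = up par n i k := by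
  intro j hij
  induction j, hij using Nat.le_induction with
  | base => intro _ k; rw [up_self]
  | succ j hij ih =>
    intro hj k
    rw [up_succ par hij, ← par_up par n j k (by omega)]
    exact ih (by omega) k

theorem up_lt (par : ℕ → ℕ → ℕ) (N : ℕ → ℕ) {n : ℕ}
    (hpar : ∀ t < n, ∀ k < N (t + 1), par t k < N t) : ∀ (j i : ℕ), j ≤ n → i ≤ j →
    ∀ k < N j, up par j i k < N i := by
  intro j
  induction j with
  | zero =>
    intro i _ hi k hk
    have : i = 0 := by omega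
    subst this
    exact hk
  | succ j ih =>
    intro i hj hi k hk
    rcases Nat.lt_or_ge j i with h | h
    · have : i = j + 1 := by omega
      subst this
      rw [up_self]
      exact hk
    · rw [up_succ par h]
      exact ih i (by omega) h _ (hpar j (by omega) k hk)

/-- the abstract tower of labels with a price. -/
def TowerP (c1 A a g : ℝ) (n L : ℕ) : Prop :=
    ∀ c q δ : ℝ, c1 ≤ c → 0 ≤ q → q ≤ c → 0 ≤ δ → δ ≤ c1 / 4 →
    ∀ X E T τ : ℝ, 1 < X → 1 ≤ E → 0 ≤ T → 0 ≤ τ →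
    ∀ (N : ℕ → ℕ) (S : ℕ → ℕ → ℝ≥0∞) (par : ℕ → ℕ → ℕ) (p : ℕ → ℕ → ℕ → ℕ → ℝ) (s : ℕ → ℕ → ℝ)
      (nar gain : ℕ → ℕ → Prop),
    (∀ k < N 0, S 0 k ≤ ENNReal.ofReal T) →
    (∀ t < n, ∀ k < N (t + 1), par t k < N t) →
    -- Step 4
    (∀ t < n, ∀ k < N (t + 1),
      S (t + 1) k ≤ ENNReal.ofReal (E * X ^ (c / 2)) * S t (par t k) + ENNReal.ofReal τ) →
    -- bad labels
    (∀ j, 1 ≤ j → j ≤ n → ∀ k < N j, gain j k → ∃ i, i < j ∧
      S j k ≤ ENNReal.ofReal (E * X ^ ((c / 2 - g) * ((j : ℝ) - i))) * S i (up par j i k) +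
        ENNReal.ofReal τ) →
    -- coherence numbers `p h i j` are attached to the labels of level `i`
    (∀ h i j, 1 ≤ h → h < i → i < j → j ≤ n → j ≤ h + 4 * L → ∀ k < N i,
      1 ≤ p h i j k ∧ p h i j k ≤ E * X ^ ((j : ℝ) - i)) →
    -- tube rule
    (∀ h i j l, 1 ≤ h → h < i → i < j → j < l → l ≤ n → l ≤ h + 4 * L → ∀ k < N j, nar j k →
      S j k ≤ ENNReal.ofReal (E *
        X ^ (A + A * (max 0 ((i : ℝ) + l - 2 * j) + max 0 ((h : ℝ) + j - 2 * i))
          + q / 4 * ((l : ℝ) - j)) * (p h i j (up par j i k) / p i j l k) ^ (1 / 2 : ℝ)) *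
        S i (up par j i k) + ENNReal.ofReal τ) →
    (∀ j, 1 ≤ j → j + 1 ≤ n → ∀ k < N j, 1 ≤ s j k ∧ s j k ≤ E * X ^ (1 / 2 : ℝ)) →
    -- slab rule
    (∀ j, 1 ≤ j → j + 2 ≤ n → ∀ k < N (j + 1), ¬ nar j (par j k) → ¬ gain j (par j k) →
      ¬ nar (j + 1) k → ¬ gain (j + 1) k →
      S (j + 1) k ≤ ENNReal.ofReal (E * X ^ δ * (s j (par j k) / s (j + 1) k) ^ (1 / 2 : ℝ)
        + E * X ^ (c / 2 - g)) * S j (par j k) + ENNReal.ofReal τ) →
    ∀ k < N n, S n k ≤ ENNReal.ofReal ((4 * E) ^ (6 * n) * X ^ (c / 2 * n - (a * L + 1)) *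
      (T + (2 * E * X ^ n) ^ (n + 1) * τ))

theorem toReal_rule {S S' : ℝ≥0∞} {F τ : ℝ} (hF : 0 ≤ F) (hτ : 0 ≤ τ) (hS' : S' ≠ ⊤)
    (h : S ≤ ENNReal.ofReal F * S' + ENNReal.ofReal τ) : S.toReal ≤ F * S'.toReal + τ := by
  have h1 : ENNReal.ofReal F * S' ≠ ⊤ := ENNReal.mul_ne_top ENNReal.ofReal_ne_top hS'
  have h2 := ENNReal.toReal_mono (ENNReal.add_ne_top.2 ⟨h1, ENNReal.ofReal_ne_top⟩) h
  rw [ENNReal.toReal_add h1 ENNReal.ofReal_ne_top, ENNReal.toReal_mul, ENNReal.toReal_ofReal hF,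
    ENNReal.toReal_ofReal hτ] at h2
  exact h2

/-- **tower with a price.** -/
theorem tower_price {c1 A a g : ℝ} (hc1 : 0 < c1) (hA : 0 ≤ A) (ha : 0 ≤ a) (hg : 0 < g)
    (hgc : g ≤ c1 / 2) : ∃ n L : ℕ, 3 ≤ n ∧ 1 ≤ L ∧ TowerP c1 A a g n L := by
  obtain ⟨n, L, hn3, hL1, H⟩ := assembly_price hc1 hA ha hg hgc
  refine ⟨n, L, hn3, hL1, ?_⟩
  intro c q δ hc hq hqc hδ0 hδ X E T τ hX hE hT hτ N S par p s nar gain h0 hpar hG hgain hp hTu hs
    hSl k hk
  have hX0 : 0 < X := by linarith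
  have hE0 : 0 < E := by linarith
  -- finiteness
  have hfin : ∀ t ≤ n, ∀ k < N t, S t k ≠ ⊤ := by
    intro t
    induction t with
    | zero => intro _ k hk; exact ne_top_of_le_ne_top ENNReal.ofReal_ne_top (h0 k hk)
    | succ t ih =>
      intro ht k hk
      refine ne_top_of_le_ne_top ?_ (hG t (by omega) k hk)
      exact ENNReal.add_ne_top.2 ⟨ENNReal.mul_ne_top ENNReal.ofReal_ne_top
        (ih (by omega) _ (hpar t (by omega) k hk)), ENNReal.ofReal_ne_top⟩
  -- the chain of ancestors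
  set kk : ℕ → ℕ := fun t => up par n t k with hkk
  have hks : ∀ t, t < n → kk t = par t (kk (t + 1)) := fun t ht => par_up par n t k ht
  have hup : ∀ i j, i ≤ j → j ≤ n → up par j i (kk j) = kk i := fun i j h1 h2 =>
    up_up par j h1 h2 k
  have hkN : ∀ t, t ≤ n → kk t < N t := fun t ht => up_lt par N hpar n t le_rfl ht k hk
  have hkn : kk n = k := up_self par n k
  have hf : ∀ t, t ≤ n → S t (kk t) ≠ ⊤ := fun t ht => hfin t ht _ (hkN t ht)
  have key := H c q δ hc hq hqc hδ0 hδ X E τ hX hE hτ (fun t => (S t (kk t)).toReal)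
    (fun h i j => p h i j (kk i)) (fun j => s j (kk j)) (fun j => nar j (kk j))
    (fun j => gain j (kk j)) (fun j _ => ENNReal.toReal_nonneg)
    (fun j hj => by
      have h1 := hG j hj (kk (j + 1)) (hkN _ (by omega))
      rw [← hks j hj] at h1
      exact toReal_rule (by positivity) hτ (hf j (by omega)) h1)
    (fun j hj1 hj hgj => by
      obtain ⟨i, hij, h1⟩ := hgain j hj1 hj (kk j) (hkN j hj) hgj
      rw [hup i j hij.le hj] at h1
      exact ⟨i, hij, toReal_rule (by positivity) hτ (hf i (by omega)) h1⟩)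
    (fun h i j h1 h2 h3 h4 h5 => hp h i j h1 h2 h3 h4 h5 (kk i) (hkN i (by omega)))
    (fun h i j l h1 h2 h3 h4 h5 h6 h7 => by
      have h8 := hTu h i j l h1 h2 h3 h4 h5 h6 (kk j) (hkN j (by omega)) h7
      rw [hup i j h3.le (by omega)] at h8
      have h9 := hp h i j h1 h2 h3 (by omega) (by omega) (kk i) (hkN i (by omega))
      have h10 := hp i j l (by omega) h3 h4 h5 (by omega) (kk j) (hkN j (by omega))
      have h11 : 0 ≤ p h i j (kk i) / p i j l (kk j) :=
        div_nonneg (by linarith [h9.1]) (by linarith [h10.1])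
      exact toReal_rule (by positivity) hτ (hf i (by omega)) h8)
    (fun j h1 h2 => hs j h1 h2 (kk j) (hkN j (by omega)))
    (fun j h1 h2 h3 h4 h5 h6 => by
      have h7 := hSl j h1 h2 (kk (j + 1)) (hkN _ (by omega))
      rw [← hks j (by omega)] at h7
      have h8 := h7 h3 h4 h5 h6
      have h9 := hs j h1 (by omega) (kk j) (hkN j (by omega))
      have h10 := hs (j + 1) (by omega) (by omega) (kk (j + 1)) (hkN _ (by omega))
      have h11 : 0 ≤ s j (kk j) / s (j + 1) (kk (j + 1)) :=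
        div_nonneg (by linarith [h9.1]) (by linarith [h10.1])
      exact toReal_rule (by positivity) hτ (hf j (by omega)) h8)
  have h00 : (S 0 (kk 0)).toReal ≤ T :=
    ENNReal.toReal_le_of_le_ofReal hT (h0 _ (hkN 0 (by omega)))
  have hfinal : (S n k).toReal ≤ (4 * E) ^ (6 * n) * X ^ (c / 2 * n - (a * L + 1)) *
      (T + (2 * E * X ^ n) ^ (n + 1) * τ) := by
    have h1 : (S n (kk n)).toReal ≤ (4 * E) ^ (6 * n) * X ^ (c / 2 * n - (a * L + 1)) *
      ((S 0 (kk 0)).toReal + (2 * E * X ^ n) ^ (n + 1) * τ) := key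
    rw [hkn] at h1
    refine h1.trans (mul_le_mul_of_nonneg_left (by linarith) (by positivity))
  exact (ENNReal.le_ofReal_iff_toReal_le (hfin n le_rfl k hk)
    (by positivity)).2 hfinal

end Crest.Agent.R116.AsmP597
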