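import Crest.Agent.R116.Ba1_449

/-!
# R116 (S0155), wave side, base case (helper449), part 2: nets, **TRIV1**
-/

set_option autoImplicit false

open MeasureTheory FourierTransform
open scoped ContDiff ENNReal

namespace Crest.Agent.R116.Ba449

open Crest.Agent.R138.Defs (E2 ee)
open Crest.Agent.R138.Wpk685 (cen caps)
open Crest.Agent.R116.CDef480 Crest.Agent.R116.WC188

/-- volume of the unit ball of `E3`. -/
noncomputable def v3 : ℝ≥0∞ := volume (Metric.ball (0 : E3) 1)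

theorem v3_lt : v3 < ⊤ := measure_ball_lt_top

theorem v3_pos : 0 < v3 := Metric.measure_ball_pos _ _ one_pos

theorem fin3 : Module.finrank ℝ E3 = 3 := by simp

theorem cylc_eq (L : ℝ) : cylc L = Metric.closedBall (0 : E3) L ×ˢ Set.Icc (-L) L := by
  ext p
  simp [cylc, abs_le]

theorem meas_cylc (L : ℝ) : MeasurableSet (cylc L) := by
  rw [cylc_eq]
  exact Metric.isClosed_closedBall.measurableSet.prod measurableSet_Icc

theorem vol_cylc {L : ℝ} (hL : 0 ≤ L) : volume (cylc L) = ENNReal.ofReal (2 * L ^ 4) * v3 := by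
  rw [cylc_eq, Measure.volume_eq_prod, Measure.prod_prod, Measure.addHaar_closedBall _ _ hL, fin3,
    Real.volume_Icc, mul_right_comm, ← ENNReal.ofReal_mul (by positivity)]
  congr 2
  ring

theorem vol_ball4 (z : E3 × ℝ) {l : ℝ} (hl : 0 < l) :
    volume (Metric.ball z l) = ENNReal.ofReal (2 * l ^ 4) * v3 := by
  rw [← Prod.mk.eta (p := z), ← ball_prod_same, Measure.volume_eq_prod, Measure.prod_prod,
    Measure.addHaar_ball _ _ hl.le, fin3, Real.volume_ball, mul_right_comm,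
    ← ENNReal.ofReal_mul (by positivity)]
  congr 2
  ring

/-- number of frames of a net. -/
theorem card_net {r R : ℝ} (hr : 0 < r) (hrR : r ≤ R) {Z : Finset (E3 × ℝ)} (hZ : Net r R Z) :
    (Z.card : ℝ≥0∞) ≤ ENNReal.ofReal (256 * (R / r) ^ 4) := by
  have hR : 0 < R := hr.trans_le hrR
  have hdisj : (Z : Set (E3 × ℝ)).PairwiseDisjoint fun z => Metric.ball z (r / 2) := by
    intro z hz z' hz' hne
    refine Metric.ball_disjoint_ball ?_
    have h1 : r ≤ dist z z' := by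
      rcases hZ.sep z hz z' hz' with h | h | h
      · exact absurd h hne
      · rw [Prod.dist_eq, dist_eq_norm]; exact h.trans (le_max_left _ _)
      · rw [Prod.dist_eq, Real.dist_eq]; exact h.trans (le_max_right _ _)
    linarith
  have h1 : ∑ z ∈ Z, volume (Metric.ball z (r / 2)) ≤ volume (cylc (2 * R)) := by
    rw [← measure_biUnion_finset hdisj fun z _ => Metric.isOpen_ball.measurableSet]
    refine measure_mono ?_
    intro p hp
    simp only [Set.mem_iUnion, exists_prop] at hp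
    obtain ⟨z, hz, hp⟩ := hp
    rw [Metric.mem_ball, Prod.dist_eq, max_lt_iff, dist_eq_norm, Real.dist_eq] at hp
    obtain ⟨h2, h3⟩ := hZ.mem z hz
    have h4 : ‖p.1‖ ≤ ‖p.1 - z.1‖ + ‖z.1‖ := by
      simpa using norm_add_le (p.1 - z.1) z.1
    have h5 : |p.2| ≤ |p.2 - z.2| + |z.2| := by
      simpa using abs_add_le (p.2 - z.2) z.2
    constructor
    · linarith [hp.1]
    · linarith [hp.2]
  rw [vol_cylc (by positivity)] at h1
  simp_rw [vol_ball4 _ (half_pos hr)] at h1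
  rw [Finset.sum_const, nsmul_eq_mul, ← mul_assoc] at h1
  have h2 := (ENNReal.mul_le_mul_iff_left v3_pos.ne' v3_lt.ne).1 h1
  have h3 : ENNReal.ofReal (2 * (2 * R) ^ 4) =
      ENNReal.ofReal (256 * (R / r) ^ 4) * ENNReal.ofReal (2 * (r / 2) ^ 4) := by
    rw [← ENNReal.ofReal_mul (by positivity)]
    congr 1
    field_simp
    norm_num
  rw [h3] at h2
  have h4 : ENNReal.ofReal (2 * (r / 2) ^ 4) ≠ 0 := by
    rw [ENNReal.ofReal_ne_zero_iff]
    positivity
  exact (ENNReal.mul_le_mul_iff_left h4 ENNReal.ofReal_ne_top).1 h2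

/-- sup bound of the plate averages. -/
theorem apl_le {L : ℝ} {g : E3 → ℂ} (h : Gd L g) {r : ℝ} (hr : 1 ≤ r) (p : E3 × ℝ) :
    apl r g p ≤ ENNReal.ofReal (Enc g) := by
  unfold apl
  calc ENNReal.ofReal r⁻¹ * ∑ m ∈ caps (r ^ (-(1/2) : ℝ)),
        ∫⁻ Y in plt (r ^ (1/2 : ℝ)) 1 (cen (r ^ (-(1/2) : ℝ)) m) p.1 p.2,
          ‖umc (r ^ (-(1/2) : ℝ)) g m Y‖ₑ ^ 2
      ≤ 1 * ∑ m ∈ caps (r ^ (-(1/2) : ℝ)), ∫⁻ Y, ‖umc (r ^ (-(1/2) : ℝ)) g m Y‖ₑ ^ 2 := by
        gcongr with m _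
        · rw [← ENNReal.ofReal_one]
          exact ENNReal.ofReal_le_ofReal (inv_le_one_of_one_le₀ hr)
        · exact Measure.restrict_le_self
    _ ≤ ENNReal.ofReal (Enc g) := by
        rw [one_mul]
        exact sum_lint_umc h (Real.rpow_pos_of_pos (by linarith) _)

/-- **TRIV1.** -/
theorem TRIV1_holds (M q : ℝ) : TRIV1 M q := by
  intro a b A M0 ha hb hb2 hA
  set V : ℝ := v3.toReal with hV
  have hV0 : 0 ≤ V := ENNReal.toReal_nonneg
  have hVe : v3 = ENNReal.ofReal V := (ENNReal.ofReal_toReal v3_lt.ne).symm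
  refine ⟨512 * A ^ 4 * V, by positivity, ?_⟩
  intro C0 σ g R D hSt r hr hrR
  have hR : 1 ≤ R := hSt.R1
  have hR0 : 0 < R := by linarith
  have hr0 : 0 < r := by linarith
  have hA0 : 0 < A := by linarith
  have hg : Gd (3 * a) g := St.gd ha hb2.le hSt
  have hE : 0 ≤ Enc g := Enc_nonneg g
  have hD := hSt.D0
  have key : NP A r g R ≤ ENNReal.ofReal (256 * (R / r) ^ 4 * (2 * (A * r) ^ 4 * V) *
      (Enc g) ^ (3 / 2 : ℝ)) := by
    unfold NP
    refine iSup_le fun Z => iSup_le fun hZ => ?_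
    calc ∑ z ∈ Z, ∫⁻ p in cylc (A * r), (apl r (trc z g) p) ^ (3 / 2 : ℝ)
        ≤ ∑ z ∈ Z, ∫⁻ p in cylc (A * r), (ENNReal.ofReal (Enc g)) ^ (3 / 2 : ℝ) := by
          refine Finset.sum_le_sum fun z _ => lintegral_mono fun p => ?_
          refine ENNReal.rpow_le_rpow ?_ (by norm_num)
          have := apl_le (hg.trc z) hr p
          rwa [Enc_trc] at this
      _ = (Z.card : ℝ≥0∞) * ((ENNReal.ofReal (Enc g)) ^ (3 / 2 : ℝ) *
            (ENNReal.ofReal (2 * (A * r) ^ 4) * v3)) := by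
          rw [Finset.sum_const, nsmul_eq_mul, setLIntegral_const, vol_cylc (by positivity)]
      _ ≤ ENNReal.ofReal (256 * (R / r) ^ 4) * ((ENNReal.ofReal (Enc g)) ^ (3 / 2 : ℝ) *
            (ENNReal.ofReal (2 * (A * r) ^ 4) * v3)) := by
          gcongr
          exact card_net hr0 hrR hZ
      _ = _ := by
          rw [hVe, ENNReal.ofReal_rpow_of_nonneg hE (by norm_num),
            ← ENNReal.ofReal_mul (by positivity), ← ENNReal.ofReal_mul (by positivity),
            ← ENNReal.ofReal_mul (by positivity)]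
          congr 1
          ring
  refine key.trans (ENNReal.ofReal_le_ofReal ?_)
  have e1 : 256 * (R / r) ^ 4 * (2 * (A * r) ^ 4 * V) = (512 * A ^ 4 * V) * R ^ 4 := by
    field_simp
    ring
  have e2 : (Enc g) ^ (3 / 2 : ℝ) ≤ Enc g * (R ^ (M0 / 2) * Real.sqrt D) := by
    rw [show (3 / 2 : ℝ) = 1 + 1 / 2 by norm_num, Real.rpow_add_of_nonneg hE (by norm_num)
      (by norm_num), Real.rpow_one]
    gcongr
    calc (Enc g) ^ (1 / 2 : ℝ) ≤ (R ^ M0 * D) ^ (1 / 2 : ℝ) :=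
          Real.rpow_le_rpow hE hSt.nd (by norm_num)
      _ = R ^ (M0 / 2) * Real.sqrt D := by
          rw [Real.mul_rpow (by positivity) hD, ← Real.rpow_mul hR0.le, Real.sqrt_eq_rpow]
          congr 2
          ring
  have e3 : R ^ 4 * R ^ (M0 / 2) ≤ R ^ (M0 / 2 + 8) * R := by
    have h1 : R ^ 4 = R ^ (4 : ℝ) := by norm_cast
    rw [h1, ← Real.rpow_add hR0]
    nth_rewrite 3 [← Real.rpow_one R]
    rw [← Real.rpow_add hR0]
    exact Real.rpow_le_rpow_of_exponent_le hR (by linarith)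
  rw [e1]
  unfold SS
  calc 512 * A ^ 4 * V * R ^ 4 * (Enc g) ^ (3 / 2 : ℝ)
      ≤ 512 * A ^ 4 * V * R ^ 4 * (Enc g * (R ^ (M0 / 2) * Real.sqrt D)) := by gcongr
    _ = (512 * A ^ 4 * V) * (R ^ 4 * R ^ (M0 / 2)) * (Enc g * Real.sqrt D) := by ring
    _ ≤ (512 * A ^ 4 * V) * (R ^ (M0 / 2 + 8) * R) * (Enc g * Real.sqrt D) := by
        have : 0 ≤ Enc g * Real.sqrt D := by positivity
        gcongr
    _ = _ := by ring

end Crest.Agent.R116.Ba449
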