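import Crest.Agent.R116.WDefC_188
import Crest.Agent.R116.DeG1_295

/-!
# R116 (S0155), wave side, TRIV2, part 1: extension of a member from the level `r` to the level `R`
(helper449)

A member of level `r` in the frame `z` (same aperture, same slab) is a member of level `R` of the
main frame with the class constant `3 (R/r) M`, and its phase points go (transport along the ray,
error of one packet dilated by `lam`) to the member dilated by `25 M A² lam²`.
-/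

set_option autoImplicit false

open MeasureTheory

namespace Crest.Agent.R116.Ba449

open Crest.Agent.R138.Defs (E2)
open Crest.Agent.R138.Wpk685 (cen caps)
open Crest.Agent.R116.CDef480
open Crest.Agent.R116.LZg725 (Cf)
open Crest.Agent.R116.WC188
open Crest.Agent.R116.De295 (FF SF)

/-! ### the thin side -/

theorem sq_le_TT (κ s R : ℝ) : s ^ 2 ≤ TT κ s R := le_max_left _ _

theorem inv_le_TT (κ s R : ℝ) : (κ * R)⁻¹ ≤ TT κ s R := le_max_right _ _

theorem inv_le_TT_mul {κ s R : ℝ} (hR : 0 < R) : κ⁻¹ ≤ TT κ s R * R := by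
  have h := mul_le_mul_of_nonneg_right (inv_le_TT κ s R) hR.le
  rwa [mul_inv, mul_assoc, inv_mul_cancel₀ hR.ne', mul_one] at h

theorem TT_anti {κ s r R : ℝ} (hκ : 0 < κ) (hr : 0 < r) (h : r ≤ R) : TT κ s R ≤ TT κ s r := by
  unfold TT
  refine max_le_max le_rfl ?_
  exact inv_anti₀ (by positivity) (by gcongr)

theorem TT_mul_mono {κ s r R : ℝ} (hκ : 0 < κ) (hr : 0 < r) (h : r ≤ R) :
    TT κ s r * r ≤ TT κ s R * R := by
  have hR : 0 < R := hr.trans_le h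
  have e : ∀ x : ℝ, 0 < x → TT κ s x * x = max (s ^ 2 * x) κ⁻¹ := by
    intro x hx
    unfold TT
    rw [max_mul_of_nonneg _ _ hx.le]
    congr 1
    rw [mul_inv, mul_assoc, inv_mul_cancel₀ hx.ne', mul_one]
  rw [e r hr, e R hR]
  exact max_le_max (by gcongr) le_rfl

theorem TT_pos' {κ s R : ℝ} (hs : 0 < s) : 0 < TT κ s R := lt_of_lt_of_le (by positivity) (sq_le_TT κ s R)

/-- the elementary facts of 295 on the sides. -/
theorem sf_of {κ r s1 s2 : ℝ} (hκ : 0 < κ) (hr : 1 ≤ r) (h : Sd r s1 s2) :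
    SF κ s1 s2 (TT κ s2 r) r :=
  ⟨hr, hκ, h.lo, h.le, sq_le_TT _ _ _, inv_le_TT_mul (by linarith)⟩

theorem ff_of {M κ s1 s2 T r : ℝ} {c : E2} {X0 : E3} {f : Cf E2} (h : Adm M κ s1 s2 T r c X0 f) :
    FF M κ s1 s2 T r f := ⟨h.disc, h.ny, h.cmp⟩

/-! ### values of an affine function outside the interval -/

theorem ny_far {f : Cf E2} {r K t : ℝ} (hr : 0 < r) (h : ∀ s : ℝ, |s| ≤ r → |f.ny s| ≤ K) :
    |f.ny t| ≤ (1 + |t| / r) * K := by
  have h0 := h 0 (by rw [abs_zero]; exact hr.le)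
  have h1 := h r (by rw [abs_of_pos hr])
  have h2 := h (-r) (by rw [abs_neg, abs_of_pos hr])
  have e : f.ny (-r) - f.ny r = 4 * f.d * r := by unfold Cf.ny; ring
  have h3 : |4 * f.d * r| ≤ |f.ny (-r)| + |f.ny r| := by rw [← e]; exact abs_sub _ _
  rw [abs_mul, abs_mul, abs_of_pos hr, abs_of_pos (by norm_num : (0:ℝ) < 4)] at h3
  have h4 : 2 * |f.d| * r ≤ K := by linarith
  have e2 : f.ny t = f.ny 0 - 2 * f.d * t := by unfold Cf.ny; ring
  rw [e2]
  refine (abs_sub _ _).trans ?_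
  rw [abs_mul, abs_mul, abs_of_pos (by norm_num : (0:ℝ) < 2)]
  have h5 : 2 * |f.d| * |t| ≤ |t| / r * K := by
    calc 2 * |f.d| * |t| = |t| / r * (2 * |f.d| * r) := by field_simp
      _ ≤ |t| / r * K := mul_le_mul_of_nonneg_left h4 (by positivity)
  linarith

/-! ### the transported member -/

/-- the conformal function in the main frame. -/
noncomputable def fz (z : E3 × ℝ) (f : Cf E2) : Cf E2 := Cf.tr (-(lat z.1)) (-(z.1 2)) (-z.2) f

/-- the base point in the main frame, transported to time `0`. -/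
noncomputable def Xz (z : E3 × ℝ) (c : E2) (X : E3) : E3 := X + z.1 + z.2 • vel c

theorem lat_vel (c : E2) : lat (vel c) = c := by unfold vel; rw [lat_pt]

theorem vel_two (c : E2) : vel c 2 = -‖c‖ ^ 2 / 2 := by unfold vel; rw [pt_two]

theorem lat_Xz (z : E3 × ℝ) (c : E2) (X : E3) : lat (Xz z c X) = lat X + lat z.1 + z.2 • c := by
  unfold Xz
  rw [lat_add, lat_add, lat_smul, lat_vel]

theorem Xz_two (z : E3 × ℝ) (c : E2) (X : E3) :
    (Xz z c X) 2 = X 2 + z.1 2 + z.2 * (-‖c‖ ^ 2 / 2) := by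
  unfold Xz
  simp only [PiLp.add_apply, PiLp.smul_apply, smul_eq_mul]
  rw [vel_two]

theorem fz_ev (z : E3 × ℝ) (f : Cf E2) (x : E2) (y s : ℝ) :
    (fz z f).ev x y s = f.ev (x - lat z.1) (y - z.1 2) (s - z.2) := by
  unfold fz
  rw [Cf.ev_tr, ← sub_eq_add_neg, ← sub_eq_add_neg, ← sub_eq_add_neg]

theorem fz_ld (z : E3 × ℝ) (f : Cf E2) (C x : E2) (y s : ℝ) :
    (fz z f).ld C x y s = f.ld C (x - lat z.1) (y - z.1 2) (s - z.2) := by
  unfold fz
  rw [Cf.ld_tr, ← sub_eq_add_neg, ← sub_eq_add_neg, ← sub_eq_add_neg]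

theorem fz_ny (z : E3 × ℝ) (f : Cf E2) (s : ℝ) : (fz z f).ny s = f.ny (s - z.2) := by
  unfold fz
  rw [Cf.ny_tr, ← sub_eq_add_neg]

/-- values along the ray, in the variables of the transport. -/
theorem ev_back (f : Cf E2) (C x : E2) (y t : ℝ) :
    f.ev (x + t • C) (y + t * (-‖C‖ ^ 2 / 2)) (-t) = f.ev x y 0 - t * f.ld C x y 0 := by
  have h := f.ev_along C x y 0 (-t)
  have e1 : x - (-t) • C = x + t • C := by module
  have e2 : y + (-t) * ‖C‖ ^ 2 / 2 = y + t * (-‖C‖ ^ 2 / 2) := by ring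
  have e3 : (0 : ℝ) + -t = -t := by ring
  rw [e1, e2, e3] at h
  rw [h]; ring

theorem nrm_back (C x : E2) (y t : ℝ) :
    LZg725.nrm C (x + t • C) (y + t * (-‖C‖ ^ 2 / 2)) (-t) = LZg725.nrm C x y 0 := by
  unfold LZg725.nrm
  rw [inner_add_right, real_inner_smul_right, real_inner_self_eq_norm_sq]
  ring

theorem ld_back (f : Cf E2) (C x : E2) (y t : ℝ) :
    f.ld C (x + t • C) (y + t * (-‖C‖ ^ 2 / 2)) (-t) = f.ld C x y 0 := by
  have h := f.ld_move C x (x + t • C) y (y + t * (-‖C‖ ^ 2 / 2)) 0 (-t)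
  rw [h, nrm_back]; ring

theorem gr_back (f : Cf E2) (C x : E2) (t : ℝ) : f.gr C (x + t • C) (-t) = f.gr C x 0 := by
  have h := f.gr_move C x (x + t • C) 0 (-t)
  rw [h]
  have e : (x + t • C - x) + ((-t : ℝ) - 0) • C = 0 := by module
  rw [e, smul_zero, add_zero]

variable {M κ s1 s2 r R A lam : ℝ} {c : E2} {X0 : E3} {f : Cf E2} {z : E3 × ℝ}

/-- **extension of the class**. -/
theorem adm_ext (hM : 1 ≤ M) (hκ : 0 < κ) (hr : 1 ≤ r) (hrR : r ≤ R) (hS : Sd r s1 s2)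
    (hz : z ∈ cylc R) (h : Adm M κ s1 s2 (TT κ s2 r) r c X0 f) :
    Adm (3 * (R / r) * M) κ s1 s2 (TT κ s2 R) R c (Xz z c X0) (fz z f) := by
  have hr0 : 0 < r := by linarith
  have hR0 : 0 < R := by linarith
  have hB : 1 ≤ R / r := (one_le_div hr0).2 hrR
  have hSF := sf_of hκ hr hS
  have hs1 := hSF.s10
  have hs2 := hSF.s20
  have hz2 : |z.2| ≤ R := hz.2
  have hTr : 0 < TT κ s2 r := TT_pos' hs2
  have hTR : 0 < TT κ s2 R := TT_pos' hs2
  have hfar : ∀ s : ℝ, |s| ≤ R → 1 + |s - z.2| / r ≤ 3 * (R / r) := by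
    intro s hs
    have h1 : |s - z.2| ≤ 2 * R := (abs_sub _ _).trans (by linarith)
    have h2 : |s - z.2| / r ≤ 2 * (R / r) := by
      calc |s - z.2| / r ≤ 2 * R / r := by gcongr
        _ = 2 * (R / r) := by ring
    linarith
  refine ⟨?_, ?_, ?_, ?_, ?_⟩
  · unfold fz
    rw [Cf.disc_tr]; exact h.disc
  · intro s hs
    rw [fz_ny]
    refine (ny_far hr0 h.ny).trans ?_
    calc (1 + |s - z.2| / r) * (M * s2 / TT κ s2 r) ≤ (3 * (R / r)) * (M * s2 / TT κ s2 R) := by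
          have h3 := TT_anti (s := s2) hκ hr0 hrR
          have h4 := hfar s hs
          gcongr
      _ = 3 * (R / r) * M * s2 / TT κ s2 R := by ring
  · intro s hs
    rw [fz_ny]
    refine (ny_far hr0 h.cmp).trans ?_
    calc (1 + |s - z.2| / r) * (M * (κ * s1 * r)) ≤ (3 * (R / r)) * (M * (κ * s1 * r)) := by
          have h4 := hfar s hs
          gcongr
      _ ≤ (3 * (R / r)) * (M * (κ * s1 * R)) := by gcongr
      _ = 3 * (R / r) * M * (κ * s1 * R) := by ring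
  · rw [fz_ld, lat_Xz, Xz_two]
    have e1 : lat X0 + lat z.1 + z.2 • c - lat z.1 = lat X0 + z.2 • c := by abel
    have e2 : X0 2 + z.1 2 + z.2 * (-‖c‖ ^ 2 / 2) - z.1 2 = X0 2 + z.2 * (-‖c‖ ^ 2 / 2) := by ring
    rw [e1, e2, zero_sub, ld_back]
    refine h.ld.trans ?_
    have : M ≤ 3 * (R / r) * M := by nlinarith
    exact mul_le_mul_of_nonneg_right this hs2.le
  · rw [fz_ev, lat_Xz, Xz_two]
    have e1 : lat X0 + lat z.1 + z.2 • c - lat z.1 = lat X0 + z.2 • c := by abel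
    have e2 : X0 2 + z.1 2 + z.2 * (-‖c‖ ^ 2 / 2) - z.1 2 = X0 2 + z.2 * (-‖c‖ ^ 2 / 2) := by ring
    rw [e1, e2, zero_sub, ev_back]
    refine (abs_sub _ _).trans ?_
    rw [abs_mul]
    have h1 := h.ev
    have h2 := h.ld
    have h3 : |z.2| * |f.ld c (lat X0) (X0 2) 0| ≤ R * (M * s2) := by gcongr
    have h4 : M * s2 * r ≤ M * s2 * R := by gcongr
    have h5 : 2 * (M * s2 * R) ≤ 3 * (R / r) * M * s2 * R := by
      have : 0 ≤ M * s2 * R := by positivity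
      nlinarith
    linarith

set_option maxHeartbeats 1000000 in
/-- **values of `f` at a transported phase point**. -/
theorem val_ext (hM : 1 ≤ M) (hA : 1 ≤ A) (hlam : 1 ≤ lam) (hκ : 0 < κ) (hκ1 : κ ≤ 1) (hr : 1 ≤ r)
    (hrR : r ≤ R) (hS : Sd r s1 s2) (hz : |z.2| ≤ R) (h : FF M κ s1 s2 (TT κ s2 r) r f)
    {C C' : E2} {x w : E2} {y v : ℝ}
    (hev : |f.ev x y 0| ≤ A * s1 * r) (hld : |f.ld C' x y 0| ≤ A * s1)
    (hC : ‖C - C'‖ ≤ 3 * r ^ (-(1/2) : ℝ)) (hw : ‖w‖ ≤ lam * R ^ (1/2 : ℝ))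
    (hv : |v + inner ℝ C w| ≤ lam * κ⁻¹) :
    |f.ev (x + z.2 • C - w) (y + z.2 * (-‖C‖ ^ 2 / 2) - v) (-z.2)| ≤
        25 * M * A * lam ^ 2 * s1 * R ∧
      |f.ld C (x + z.2 • C - w) (y + z.2 * (-‖C‖ ^ 2 / 2) - v) (-z.2)| ≤ 16 * M * A * lam * s1 := by
  have hr0 : 0 < r := by linarith
  have hR0 : 0 < R := by linarith
  have hSF := sf_of hκ hr hS
  have hs1 := hSF.s10
  have hs2 := hSF.s20
  have hT := hSF.T0
  have hρ := hSF.rho0
  have hMA : 1 ≤ M * A := by nlinarith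
  have hM0 : 0 ≤ M := by linarith
  have hlam0 : 0 ≤ lam := by linarith
  -- gradient
  have hSF' : SF κ (A * s1) (A * s2) (A ^ 2 * TT κ s2 r) r := by
    refine ⟨hr, hκ, ?_, ?_, ?_, ?_⟩
    · have := hSF.lo; nlinarith
    · have := hSF.le; gcongr
    · have := hSF.T1
      calc (A * s2) ^ 2 = A ^ 2 * s2 ^ 2 := by ring
        _ ≤ A ^ 2 * TT κ s2 r := by gcongr
    · have h1 := hSF.T2
      have h2 : 1 ≤ A ^ 2 := by nlinarith
      have h3 : 0 ≤ TT κ s2 r * r := by positivity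
      nlinarith
  have hFF' : FF (M * A) κ (A * s1) (A * s2) (A ^ 2 * TT κ s2 r) r f := by
    refine ⟨h.disc, ?_, ?_⟩
    · intro s hs
      refine (h.ny s hs).trans (le_of_eq ?_)
      field_simp
    · intro s hs
      refine (h.cmp s hs).trans ?_
      have h0 : 0 ≤ M * (κ * s1 * r) := by positivity
      have h1 : 1 ≤ A ^ 2 := by nlinarith
      calc M * (κ * s1 * r) ≤ A ^ 2 * (M * (κ * s1 * r)) := by nlinarith
        _ = M * A * (κ * (A * s1) * r) := by ring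
  have hgr : ‖f.gr C' x 0‖ ≤ 3 * (M * A) := by
    have := hFF'.gr_le hSF' (C := C') (x := x) (y := y) hev hld
    linarith
  have hny0 := h.ny_le hSF
  have hnyρ : |f.ny 0| * r ^ (-(1/2) : ℝ) ≤ M := by
    refine le_trans ?_ hny0
    have := hSF.lo.trans hSF.le; gcongr
  have hd' := h.d_le' hSF
  have hCs : ‖C - C'‖ ≤ 3 * s1 := hC.trans (by have := hSF.lo; gcongr)
  -- derivative at the slope `C`
  have hldC : |f.ld C x y 0| ≤ 15 * (M * A) * s1 := by
    rw [f.ld_dir C' C x y 0]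
    have t1 : |inner ℝ (f.gr C' x 0) (C - C')| ≤ 3 * (M * A) * (3 * s1) :=
      (abs_real_inner_le_norm _ _).trans (by gcongr)
    have t2 : |f.ny 0 * ‖C - C'‖ ^ 2 / 2| ≤ 9 / 2 * (M * s1) := by
      rw [abs_div, abs_mul, abs_of_nonneg (sq_nonneg ‖C - C'‖),
        abs_of_pos (by norm_num : (0:ℝ) < 2)]
      calc |f.ny 0| * ‖C - C'‖ ^ 2 / 2 = |f.ny 0| * (‖C - C'‖ * ‖C - C'‖) / 2 := by ring
        _ ≤ |f.ny 0| * ((3 * r ^ (-(1/2) : ℝ)) * (3 * s1)) / 2 := by gcongr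
        _ = 9 / 2 * ((|f.ny 0| * r ^ (-(1/2) : ℝ)) * s1) := by ring
        _ ≤ 9 / 2 * (M * s1) := by gcongr
    have e : f.ld C' x y 0 - inner ℝ (f.gr C' x 0) (C - C') + f.ny 0 * ‖C - C'‖ ^ 2 / 2 =
        f.ld C' x y 0 + -(inner ℝ (f.gr C' x 0) (C - C')) + f.ny 0 * ‖C - C'‖ ^ 2 / 2 := by ring
    rw [e]
    rw [← abs_neg] at t1
    refine (abs_add_le _ _).trans ((add_le_add ((abs_add_le _ _).trans (add_le_add hld t1)) t2).trans
      ?_)
    have h1 : A * s1 ≤ M * A * s1 := by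
      have : 0 ≤ A * s1 := by positivity
      nlinarith
    have h2 : M * s1 ≤ M * A * s1 := by
      have : 0 ≤ M * s1 := by positivity
      nlinarith
    have h3 : 0 ≤ M * A * s1 := by positivity
    linarith
  -- the point on the ray
  have hevX : |f.ev (x + z.2 • C) (y + z.2 * (-‖C‖ ^ 2 / 2)) (-z.2)| ≤ 16 * (M * A) * s1 * R := by
    rw [ev_back]
    refine (abs_sub _ _).trans ?_
    rw [abs_mul]
    have h1 : |z.2| * |f.ld C x y 0| ≤ R * (15 * (M * A) * s1) := by gcongr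
    have h2 : A * s1 * r ≤ (M * A) * s1 * R := by
      have : A ≤ M * A := by nlinarith
      gcongr
    linarith
  have hgrX : ‖f.gr C (x + z.2 • C) (-z.2)‖ ≤ 6 * (M * A) := by
    rw [gr_back, f.gr_dir C' C x 0]
    refine (norm_sub_le _ _).trans ?_
    rw [norm_smul, Real.norm_eq_abs]
    have h1 : |f.ny 0| * ‖C - C'‖ ≤ 3 * M := by
      calc |f.ny 0| * ‖C - C'‖ ≤ |f.ny 0| * (3 * r ^ (-(1/2) : ℝ)) := by gcongr
        _ = 3 * (|f.ny 0| * r ^ (-(1/2) : ℝ)) := by ring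
        _ ≤ 3 * M := by gcongr
    have h2 : M ≤ M * A := by nlinarith
    linarith
  have hldX : f.ld C (x + z.2 • C) (y + z.2 * (-‖C‖ ^ 2 / 2)) (-z.2) = f.ld C x y 0 :=
    ld_back f C x y z.2
  -- normal displacement
  have hn : LZg725.nrm C (x + z.2 • C - w) (y + z.2 * (-‖C‖ ^ 2 / 2) - v) (-z.2) -
      LZg725.nrm C (x + z.2 • C) (y + z.2 * (-‖C‖ ^ 2 / 2)) (-z.2) = -(v + inner ℝ C w) := by
    unfold LZg725.nrm
    rw [inner_sub_right]
    ring
  have hRhalf : R ^ (1/2 : ℝ) ≤ s1 * R := by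
    have e1 : R ^ (1/2 : ℝ) = R ^ (-(1/2) : ℝ) * R := by
      conv_rhs => rw [← Real.rpow_one R, ← Real.rpow_mul hR0.le]
      rw [← Real.rpow_add hR0]
      norm_num
    rw [e1]
    refine mul_le_mul_of_nonneg_right ?_ hR0.le
    refine le_trans ?_ hSF.lo
    exact Real.rpow_le_rpow_of_nonpos hr0 hrR (by norm_num)
  have hRsq : R ^ (1/2 : ℝ) * R ^ (1/2 : ℝ) = R := by
    rw [← Real.rpow_add hR0]; norm_num
  have hnyz : |f.ny (-z.2)| ≤ 2 * (M * (κ * s1 * R)) := by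
    refine (ny_far (t := -z.2) hr0 h.cmp).trans ?_
    rw [abs_neg]
    have h1 : |z.2| / r ≤ R / r := by gcongr
    have hB : 1 ≤ R / r := (one_le_div hr0).2 hrR
    calc (1 + |z.2| / r) * (M * (κ * s1 * r)) ≤ (2 * (R / r)) * (M * (κ * s1 * r)) := by
          have : 1 + |z.2| / r ≤ 2 * (R / r) := by linarith
          gcongr
      _ = 2 * (M * (κ * s1 * R)) := by field_simp
  have hll : lam ≤ lam ^ 2 := by nlinarith
  have h1l : 1 ≤ lam ^ 2 := by nlinarith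
  have hsR : 0 ≤ s1 * R := by positivity
  have hMA' : M ≤ M * A := by nlinarith
  constructor
  · have hexp := f.ev_expand C (x + z.2 • C) (y + z.2 * (-‖C‖ ^ 2 / 2)) (-z.2)
      (x + z.2 • C - w) (y + z.2 * (-‖C‖ ^ 2 / 2) - v) (-z.2)
    rw [hn, sub_self, zero_smul, add_zero] at hexp
    have e0 : x + z.2 • C - w - (x + z.2 • C) = -w := by abel
    rw [e0] at hexp
    have t1 : |inner ℝ (f.gr C (x + z.2 • C) (-z.2)) (-w)| ≤ 6 * (M * A) * lam * (s1 * R) := by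
      refine (abs_real_inner_le_norm _ _).trans ?_
      rw [norm_neg]
      calc ‖f.gr C (x + z.2 • C) (-z.2)‖ * ‖w‖ ≤ (6 * (M * A)) * (lam * R ^ (1/2 : ℝ)) := by gcongr
        _ ≤ (6 * (M * A)) * (lam * (s1 * R)) := by gcongr
        _ = _ := by ring
    have t2 : |f.ny (-z.2) * -(v + inner ℝ C w)| ≤ 2 * M * lam * (s1 * R) := by
      rw [abs_mul, abs_neg]
      calc |f.ny (-z.2)| * |v + inner ℝ C w| ≤ (2 * (M * (κ * s1 * R))) * (lam * κ⁻¹) := by gcongr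
        _ = 2 * M * lam * (s1 * R) := by field_simp
    have t3 : |f.d * (‖-w‖ ^ 2 - 2 * 0 * -(v + inner ℝ C w))| ≤ M / 2 * lam ^ 2 * (s1 * R) := by
      rw [abs_mul, norm_neg, mul_zero, zero_mul, sub_zero, abs_of_nonneg (sq_nonneg ‖w‖)]
      calc |f.d| * ‖w‖ ^ 2 ≤ (M * (κ * s1) / 2) * (lam * R ^ (1/2 : ℝ)) ^ 2 := by gcongr
        _ = (M * (κ * s1) / 2) * lam ^ 2 * R := by
            rw [mul_pow, sq (R ^ (1/2 : ℝ)), hRsq]; ring
        _ ≤ (M * (1 * s1) / 2) * lam ^ 2 * R := by gcongr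
        _ = _ := by ring
    rw [hexp]
    refine (abs_add_le _ _).trans ((add_le_add ((abs_add_le _ _).trans (add_le_add
      ((abs_add_le _ _).trans (add_le_add (abs_add_le _ _) t1)) t2)) t3).trans ?_)
    rw [mul_zero, abs_zero, add_zero]
    have h3 : |f.ev (x + z.2 • C) (y + z.2 * (-‖C‖ ^ 2 / 2)) (-z.2)| ≤
        16 * (M * A) * lam ^ 2 * (s1 * R) := by
      refine hevX.trans ?_
      have : 16 * (M * A) * s1 * R = 16 * (M * A) * 1 * (s1 * R) := by ring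
      rw [this]
      gcongr
    have h4 : 6 * (M * A) * lam * (s1 * R) ≤ 6 * (M * A) * lam ^ 2 * (s1 * R) := by gcongr
    have h5 : 2 * M * lam * (s1 * R) ≤ 2 * (M * A) * lam ^ 2 * (s1 * R) := by gcongr
    have h6 : M / 2 * lam ^ 2 * (s1 * R) ≤ (M * A) / 2 * lam ^ 2 * (s1 * R) := by gcongr
    have h7 : 0 ≤ (M * A) * lam ^ 2 * (s1 * R) := by positivity
    linarith
  · have e1 : f.ld C (x + z.2 • C - w) (y + z.2 * (-‖C‖ ^ 2 / 2) - v) (-z.2) =
        f.ld C x y 0 - 2 * f.d * -(v + inner ℝ C w) := by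
      rw [f.ld_move C (x + z.2 • C) (x + z.2 • C - w) (y + z.2 * (-‖C‖ ^ 2 / 2))
        (y + z.2 * (-‖C‖ ^ 2 / 2) - v) (-z.2) (-z.2), hn, hldX]
    rw [e1]
    refine (abs_sub _ _).trans ?_
    have t1 : |2 * f.d * -(v + inner ℝ C w)| ≤ M * lam * s1 := by
      rw [abs_mul, abs_mul, abs_neg, abs_of_pos (by norm_num : (0:ℝ) < 2)]
      calc 2 * |f.d| * |v + inner ℝ C w| ≤ 2 * (M * (κ * s1) / 2) * (lam * κ⁻¹) := by gcongr
        _ = M * lam * s1 := by field_simp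
    have h2 : 15 * (M * A) * s1 ≤ 15 * (M * A) * lam * s1 := by
      have : 15 * (M * A) * s1 = 15 * (M * A) * 1 * s1 := by ring
      rw [this]; gcongr
    have h3 : M * lam * s1 ≤ M * A * lam * s1 := by gcongr
    linarith

set_option maxHeartbeats 1000000 in
/-- **extension of the phase points**. -/
theorem pbx_ext (hM : 1 ≤ M) (hA : 1 ≤ A) (hlam : 1 ≤ lam) (hκ : 0 < κ) (hκ1 : κ ≤ 1) (hr : 1 ≤ r)
    (hrR : r ≤ R) (hS : Sd r s1 s2) (hz : z ∈ cylc R)
    (h : Adm M κ s1 s2 (TT κ s2 r) r c X0 f) {m m' : ℤ × ℤ} {X W : E3}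
    (hX : X ∈ pbx κ A r s1 s2 c X0 f m')
    (hC : ‖cen (R ^ (-(1/2) : ℝ)) m - cen (r ^ (-(1/2) : ℝ)) m'‖ ≤ 3 * r ^ (-(1/2) : ℝ))
    (hw : ‖lat W‖ ≤ lam * R ^ (1/2 : ℝ))
    (hv : |W 2 + inner ℝ (cen (R ^ (-(1/2) : ℝ)) m) (lat W)| ≤ lam * κ⁻¹) :
    X + z.1 + z.2 • vel (cen (R ^ (-(1/2) : ℝ)) m) - W ∈
      pbx κ (25 * M * A ^ 2 * lam ^ 2) R s1 s2 c (Xz z c X0) (fz z f) m := by
  obtain ⟨x1, x2, x3, x4, x5⟩ := hX
  set C := cen (R ^ (-(1/2) : ℝ)) m with hCd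
  set C' := cen (r ^ (-(1/2) : ℝ)) m' with hCd'
  have hr0 : 0 < r := by linarith
  have hR0 : 0 < R := by linarith
  have hSF := sf_of hκ hr hS
  have hs1 := hSF.s10
  have hs2 := hSF.s20
  have hT := hSF.T0
  have hz2 : |z.2| ≤ R := hz.2
  have hM0 : 0 ≤ M := by linarith
  have hA0 : 0 ≤ A := by linarith
  have hlam0 : 0 ≤ lam := by linarith
  have hll : lam ≤ lam ^ 2 := le_self_pow₀ hlam (by norm_num)
  have h1l : 1 ≤ lam ^ 2 := one_le_pow₀ hlam
  have hAA : A ≤ A ^ 2 := le_self_pow₀ hA (by norm_num)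
  have h1A : 1 ≤ A ^ 2 := one_le_pow₀ hA
  have hq0 : 0 ≤ A ^ 2 * lam ^ 2 := by positivity
  have hbig : A ^ 2 * lam ^ 2 ≤ M * A ^ 2 * lam ^ 2 := by
    rw [mul_assoc]; exact le_mul_of_one_le_left hq0 hM
  have hA2 : A ^ 2 ≤ A ^ 2 * lam ^ 2 := le_mul_of_one_le_right (by positivity) h1l
  have hl2 : lam ^ 2 ≤ A ^ 2 * lam ^ 2 := le_mul_of_one_le_left (by positivity) h1A
  have hAl' : A * lam ≤ A ^ 2 * lam ^ 2 := by gcongr
  have hval := val_ext (z := z) hM hA hlam hκ hκ1 hr hrR hS hz2 (ff_of h) (C := C) (C' := C')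
    (x := lat X) (w := lat W) (y := X 2) (v := W 2) x4 x5 hC hw hv
  -- coordinates of the point
  have elat : lat (X + z.1 + z.2 • vel C - W) - lat z.1 = lat X + z.2 • C - lat W := by
    rw [lat_sub, lat_add, lat_add, lat_smul, lat_vel]; abel
  have etwo : (X + z.1 + z.2 • vel C - W) 2 - z.1 2 = X 2 + z.2 * (-‖C‖ ^ 2 / 2) - W 2 := by
    simp only [PiLp.sub_apply, PiLp.add_apply, PiLp.smul_apply, smul_eq_mul]
    rw [vel_two]; ring
  have hRhalf : R ^ (1/2 : ℝ) ≤ s1 * R := by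
    have e1 : R ^ (1/2 : ℝ) = R ^ (-(1/2) : ℝ) * R := by
      conv_rhs => rw [← Real.rpow_one R, ← Real.rpow_mul hR0.le]
      rw [← Real.rpow_add hR0]
      norm_num
    rw [e1]
    refine mul_le_mul_of_nonneg_right ?_ hR0.le
    refine le_trans ?_ hSF.lo
    exact Real.rpow_le_rpow_of_nonpos hr0 hrR (by norm_num)
  have hRhalf2 : R ^ (1/2 : ℝ) ≤ s2 * R := hRhalf.trans (by have := hSF.le; gcongr)
  have hCc : ‖C - c‖ ≤ 4 * A * s2 := by
    have e : C - c = (C - C') + (C' - c) := by abel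
    rw [e]
    refine (norm_add_le _ _).trans ?_
    have h1 : 3 * r ^ (-(1/2) : ℝ) ≤ 3 * s2 := by
      have := hSF.lo.trans hSF.le; gcongr
    nlinarith
  refine ⟨?_, ?_, ?_, ?_, ?_⟩
  · refine hCc.trans ?_
    have : 4 * A ≤ 25 * M * A ^ 2 * lam ^ 2 := by linarith
    exact mul_le_mul_of_nonneg_right this hs2.le
  · have e : lat (X + z.1 + z.2 • vel C - W) - lat (Xz z c X0) =
        (lat X - lat X0) + z.2 • (C - c) - lat W := by
      rw [lat_sub, lat_add, lat_add, lat_smul, lat_vel, lat_Xz]; module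
    rw [e]
    refine (norm_sub_le _ _).trans ((add_le_add (norm_add_le _ _) le_rfl).trans ?_)
    rw [norm_smul, Real.norm_eq_abs]
    have h1 : |z.2| * ‖C - c‖ ≤ R * (4 * A * s2) := by gcongr
    have h2 : A * s2 * r ≤ A * s2 * R := by gcongr
    have h3 : lam * R ^ (1/2 : ℝ) ≤ lam * (s2 * R) := by gcongr
    have h4 : 5 * A + lam ≤ 25 * M * A ^ 2 * lam ^ 2 := by linarith
    have h5 : 0 ≤ s2 * R := by positivity
    calc ‖lat X - lat X0‖ + |z.2| * ‖C - c‖ + ‖lat W‖ ≤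
          A * s2 * R + R * (4 * A * s2) + lam * (s2 * R) := by linarith
      _ = (5 * A + lam) * (s2 * R) := by ring
      _ ≤ (25 * M * A ^ 2 * lam ^ 2) * (s2 * R) := mul_le_mul_of_nonneg_right h4 h5
      _ = _ := by ring
  · have e : nrm c (X + z.1 + z.2 • vel C - W) 0 - nrm c (Xz z c X0) 0 =
        (nrm c X 0 - nrm c X0 0) - z.2 * (‖C - c‖ ^ 2 / 2) -
          ((W 2 + inner ℝ C (lat W)) - inner ℝ (C - c) (lat W)) := by
      unfold nrm
      rw [lat_sub, lat_add, lat_add, lat_smul, lat_vel, lat_Xz, Xz_two]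
      simp only [PiLp.sub_apply, PiLp.add_apply, PiLp.smul_apply, smul_eq_mul]
      rw [vel_two, norm_sub_sq_real, inner_sub_right, inner_add_right, inner_add_right,
        inner_add_right, inner_add_right, real_inner_smul_right, real_inner_smul_right,
        real_inner_self_eq_norm_sq, inner_sub_left, real_inner_comm C c]
      ring
    rw [e]
    refine (abs_sub _ _).trans ((add_le_add (abs_sub _ _) (abs_sub _ _)).trans ?_)
    rw [abs_mul, abs_of_nonneg (a := ‖C - c‖ ^ 2 / 2) (by positivity)]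
    have hTR : 0 < TT κ s2 R := TT_pos' hs2
    have h1 : A * TT κ s2 r * r ≤ A * (TT κ s2 R * R) := by
      have := TT_mul_mono (s := s2) hκ hr0 hrR
      calc A * TT κ s2 r * r = A * (TT κ s2 r * r) := by ring
        _ ≤ A * (TT κ s2 R * R) := by gcongr
    have hsT : s2 ^ 2 * R ≤ TT κ s2 R * R := by
      have := sq_le_TT κ s2 R
      gcongr
    have h2 : |z.2| * (‖C - c‖ ^ 2 / 2) ≤ 8 * A ^ 2 * (TT κ s2 R * R) := by
      calc |z.2| * (‖C - c‖ ^ 2 / 2) ≤ R * ((4 * A * s2) ^ 2 / 2) := by gcongr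
        _ = 8 * A ^ 2 * (s2 ^ 2 * R) := by ring
        _ ≤ 8 * A ^ 2 * (TT κ s2 R * R) := by gcongr
    have h3 : |W 2 + inner ℝ C (lat W)| ≤ lam * (TT κ s2 R * R) := by
      refine hv.trans ?_
      have := inv_le_TT_mul (κ := κ) (s := s2) hR0
      gcongr
    have h4 : |inner ℝ (C - c) (lat W)| ≤ 4 * A * lam * (TT κ s2 R * R) := by
      refine (abs_real_inner_le_norm _ _).trans ?_
      calc ‖C - c‖ * ‖lat W‖ ≤ (4 * A * s2) * (lam * (s2 * R)) := by
            have : ‖lat W‖ ≤ lam * (s2 * R) := hw.trans (by gcongr)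
            gcongr
        _ = 4 * A * lam * (s2 ^ 2 * R) := by ring
        _ ≤ 4 * A * lam * (TT κ s2 R * R) := by gcongr
    have h5 : A + 8 * A ^ 2 + lam + 4 * A * lam ≤ 25 * M * A ^ 2 * lam ^ 2 := by linarith
    have h6 : 0 ≤ TT κ s2 R * R := by positivity
    calc |nrm c X 0 - nrm c X0 0| + |z.2| * (‖C - c‖ ^ 2 / 2) +
          (|W 2 + inner ℝ C (lat W)| + |inner ℝ (C - c) (lat W)|) ≤
          A * (TT κ s2 R * R) + 8 * A ^ 2 * (TT κ s2 R * R) + (lam * (TT κ s2 R * R) +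
            4 * A * lam * (TT κ s2 R * R)) := by linarith
      _ = (A + 8 * A ^ 2 + lam + 4 * A * lam) * (TT κ s2 R * R) := by ring
      _ ≤ (25 * M * A ^ 2 * lam ^ 2) * (TT κ s2 R * R) := mul_le_mul_of_nonneg_right h5 h6
      _ = _ := by ring
  · rw [fz_ev, elat, etwo, zero_sub]
    refine hval.1.trans ?_
    have h0 : 0 ≤ s1 * R := by positivity
    have h1 : 25 * M * A * lam ^ 2 ≤ 25 * M * A ^ 2 * lam ^ 2 := by gcongr
    calc 25 * M * A * lam ^ 2 * s1 * R = (25 * M * A * lam ^ 2) * (s1 * R) := by ring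
      _ ≤ (25 * M * A ^ 2 * lam ^ 2) * (s1 * R) := mul_le_mul_of_nonneg_right h1 h0
      _ = _ := by ring
  · rw [fz_ld, elat, etwo, zero_sub]
    refine hval.2.trans ?_
    have h1 : 16 * M * A * lam ≤ 25 * M * A ^ 2 * lam ^ 2 := by
      have h2 : M * (A * lam) ≤ M * (A ^ 2 * lam ^ 2) := by gcongr
      have h3 : 0 ≤ M * (A ^ 2 * lam ^ 2) := by positivity
      linarith
    exact mul_le_mul_of_nonneg_right h1 hs1.le

end Crest.Agent.R116.Ba449
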