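import Crest.Agent.R116.F1c2_124
import Crest.Agent.R116.CWd2_480
import Crest.Agent.R138.Loc1_878

/-!
# R116 (S0155), wave side, TRIV2, part 2: level change with dyadic shells (helper449)

`enc_level` : if the packets of level `ρ'` in the frame `z` are bounded in `l¹` form by the packets
of level `ρ ≤ ρ'` and the `2^j`-dilated plates through the selection `S` lie in `E j`, then
`enc ρ' (trc z g) S ≤ C (ρ'/ρ)² ∑ j 2^(-n j) enc ρ g (E j)`.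
-/

set_option autoImplicit false

open MeasureTheory
open scoped ENNReal

namespace Crest.Agent.R116.Ba449

open Crest.Agent.R138.Wf448
open Crest.Agent.R138.Defs (E2)
open Crest.Agent.R138.Wpk685 (cen caps)
open Crest.Agent.R138.Loc878 (Near nearL mem_nearL sum_near_le)
open Crest.Agent.R116.CDef480 Crest.Agent.R116.CWp480 Crest.Agent.R116.CWc480
open Crest.Agent.R116.F1c124 (kc kc_eq kc_nonneg adet_Pl)

theorem dd_E3 : dd E3 = 4 := by unfold dd; simp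

theorem continuous_kc (N : ℕ) {ρ κ : ℝ} (hρ : 0 < ρ) (hκ : 0 < κ) (C : E2) :
    Continuous (kc N ρ κ C) := by
  have e : kc N ρ κ C = fun x => adet (Pl ρ κ hρ hκ C : E3 →L[ℝ] E3) *
      ((1 + ‖Pl ρ κ hρ hκ C x‖) ^ N)⁻¹ := by
    funext x; exact kc_eq N hρ hκ C x
  rw [e]
  have h1 : Continuous fun x : E3 => (1 + ‖Pl ρ κ hρ hκ C x‖) ^ N :=
    (continuous_const.add (Pl ρ κ hρ hκ C).continuous.norm).pow N
  exact continuous_const.mul (h1.inv₀ fun x => by positivity)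

theorem kc_le_dec {N : ℕ} (hN : 4 ≤ N) {ρ κ : ℝ} (hρ : 0 < ρ) (hκ : 0 < κ) (C : E2) (x : E3) :
    ENNReal.ofReal (kc N ρ κ C x) ≤
      ENNReal.ofReal (adet (Pl ρ κ hρ hκ C : E3 →L[ℝ] E3)) * dec3 (Pl ρ κ hρ hκ C x) := by
  rw [kc_eq N hρ hκ, ENNReal.ofReal_mul (adet0 _).le]
  refine mul_le_mul' le_rfl ?_
  unfold dec3
  rw [dd_E3]
  refine ENNReal.ofReal_le_ofReal ?_
  refine inv_anti₀ (by positivity) ?_
  exact pow_le_pow_right₀ (by linarith [norm_nonneg (Pl ρ κ hρ hκ C x)]) hN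

/-- mass of the kernel, second variable. -/
theorem kc_mass {N : ℕ} (hN : 4 ≤ N) {ρ κ : ℝ} (hρ : 0 < ρ) (hκ : 0 < κ) (C : E2) (x : E3) :
    ∫⁻ y, ENNReal.ofReal (kc N ρ κ C (x - y)) ≤ ENNReal.ofReal (cd3 E3) := by
  have had := adet0 (Pl ρ κ hρ hκ C)
  calc ∫⁻ y, ENNReal.ofReal (kc N ρ κ C (x - y)) ≤
      ∫⁻ y, ENNReal.ofReal (adet (Pl ρ κ hρ hκ C : E3 →L[ℝ] E3)) *
        dec3 (Pl ρ κ hρ hκ C (x - y)) := lintegral_mono fun y => kc_le_dec hN hρ hκ C _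
    _ = ENNReal.ofReal (cd3 E3) := by
        rw [lintegral_const_mul' _ _ ENNReal.ofReal_ne_top,
          lintegral_scale (Pl ρ κ hρ hκ C) (fun y => dec3 y) x, lintegral_dec3, ← mul_assoc,
          ← ENNReal.ofReal_mul had.le, mul_inv_cancel₀ had.ne', ENNReal.ofReal_one, one_mul]

/-- mass of the kernel, first variable. -/
theorem kc_mass' {N : ℕ} (hN : 4 ≤ N) {ρ κ : ℝ} (hρ : 0 < ρ) (hκ : 0 < κ) (C : E2) (v y : E3) :
    ∫⁻ x, ENNReal.ofReal (kc N ρ κ C (x + v - y)) ≤ ENNReal.ofReal (cd3 E3) := by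
  have had := adet0 (Pl ρ κ hρ hκ C)
  calc ∫⁻ x, ENNReal.ofReal (kc N ρ κ C (x + v - y)) ≤
      ∫⁻ x, ENNReal.ofReal (adet (Pl ρ κ hρ hκ C : E3 →L[ℝ] E3)) *
        dec3 (Pl ρ κ hρ hκ C (x - (y - v))) := by
        refine lintegral_mono fun x => ?_
        have e : x + v - y = x - (y - v) := by abel
        rw [e]
        exact kc_le_dec hN hρ hκ C _
    _ = ENNReal.ofReal (cd3 E3) := by
        rw [lintegral_const_mul' _ _ ENNReal.ofReal_ne_top,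
          lintegral_scale' (Pl ρ κ hρ hκ C) (fun y => dec3 y) (y - v), lintegral_dec3, ← mul_assoc,
          ← ENNReal.ofReal_mul had.le, mul_inv_cancel₀ had.ne', ENNReal.ofReal_one, one_mul]

/-- dyadic shells. -/
theorem kc_shell (n : ℕ) {ρ κ : ℝ} (hρ : 0 < ρ) (hκ : 0 < κ) (C : E2) (W : E3) :
    ∃ j : ℕ, ‖Pl ρ κ hρ hκ C W‖ ≤ 2 ^ j ∧
      kc (4 + n) ρ κ C W ≤ (2 ^ n * ((2 : ℝ) ^ (n * j))⁻¹) * kc 4 ρ κ C W := by
  have had := adet0 (Pl ρ κ hρ hκ C)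
  have key : ∀ j : ℕ, ‖Pl ρ κ hρ hκ C W‖ ≤ 2 ^ j → (2 : ℝ) ^ j ≤ 2 * (1 + ‖Pl ρ κ hρ hκ C W‖) →
      kc (4 + n) ρ κ C W ≤ (2 ^ n * ((2 : ℝ) ^ (n * j))⁻¹) * kc 4 ρ κ C W := by
    intro j _ h2
    rw [kc_eq (4 + n) hρ hκ, kc_eq 4 hρ hκ]
    set t := ‖Pl ρ κ hρ hκ C W‖ with ht
    have ht0 : 0 ≤ t := norm_nonneg _
    have h3 : ((1 + t) ^ n)⁻¹ ≤ 2 ^ n * ((2 : ℝ) ^ (n * j))⁻¹ := by
      have h4 : (2 : ℝ) ^ (n * j) ≤ 2 ^ n * (1 + t) ^ n := by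
        rw [mul_comm n j, pow_mul, ← mul_pow]
        exact pow_le_pow_left₀ (by positivity) h2 n
      rw [← div_eq_mul_inv, le_div_iff₀ (by positivity), inv_mul_le_iff₀ (by positivity)]
      linarith
    have e : ((1 + t) ^ (4 + n))⁻¹ = ((1 + t) ^ n)⁻¹ * ((1 + t) ^ 4)⁻¹ := by
      rw [pow_add, mul_inv]; ring
    rw [e]
    calc adet (Pl ρ κ hρ hκ C : E3 →L[ℝ] E3) * (((1 + t) ^ n)⁻¹ * ((1 + t) ^ 4)⁻¹) =
        ((1 + t) ^ n)⁻¹ * (adet (Pl ρ κ hρ hκ C : E3 →L[ℝ] E3) * ((1 + t) ^ 4)⁻¹) := by ring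
      _ ≤ _ := by gcongr
  rcases le_total ‖Pl ρ κ hρ hκ C W‖ 1 with h | h
  · refine ⟨0, by simpa using h, key 0 (by simpa using h) ?_⟩
    have := norm_nonneg (Pl ρ κ hρ hκ C W)
    rw [pow_zero]; linarith
  · obtain ⟨i, h1, h2⟩ := exists_nat_pow_near h (by norm_num : (1:ℝ) < 2)
    refine ⟨i + 1, h2.le, key _ h2.le ?_⟩
    rw [pow_succ]; linarith

/-- number of near caps. -/
theorem card_nearL {ρ ρ' : ℝ} (hρ : 0 < ρ) (hρ' : ρ ≤ ρ') (m' : ℤ × ℤ) :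
    ((nearL ρ ρ' m').card : ℝ) ≤ 49 * (ρ' / ρ) ^ 2 := by
  have hρ0' : 0 < ρ' := hρ.trans_le hρ'
  have h1 := CWd480.card_cen hρ (r := 3 * (ρ' / ρ)) (by positivity) (caps ρ) (cen ρ' m')
  have h2 : ((nearL ρ ρ' m' : Finset (ℤ × ℤ)) : Set (ℤ × ℤ)) ⊆
      {m | m ∈ caps ρ ∧ ‖cen ρ m - cen ρ' m'‖ ≤ 3 * (ρ' / ρ) * ρ} := by
    intro m hm
    obtain ⟨h3, h4⟩ := mem_nearL.1 (Finset.mem_coe.1 hm)
    refine ⟨h3, ?_⟩
    have e : 3 * (ρ' / ρ) * ρ = 3 * ρ' := by field_simp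
    rw [e]
    exact le_of_lt h4
  have h3 := Set.ncard_le_ncard h2 ((caps ρ).finite_toSet.subset fun m hm => hm.1)
  rw [Set.ncard_coe_finset] at h3
  have h4 : 1 ≤ ρ' / ρ := (one_le_div hρ).2 hρ'
  calc ((nearL ρ ρ' m').card : ℝ) ≤
        (Set.ncard {m | m ∈ caps ρ ∧ ‖cen ρ m - cen ρ' m'‖ ≤ 3 * (ρ' / ρ) * ρ} : ℝ) := by
        exact_mod_cast h3
    _ ≤ (2 * (3 * (ρ' / ρ)) + 1) ^ 2 := h1
    _ ≤ (7 * (ρ' / ρ)) ^ 2 := by gcongr; linarith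
    _ = _ := by ring

theorem sum_sq_le' {ι : Type*} (s : Finset ι) (a : ι → ℝ≥0∞) :
    (∑ i ∈ s, a i) ^ 2 ≤ s.card * ∑ i ∈ s, a i ^ 2 := by
  have h := ENNReal.rpow_sum_le_const_mul_sum_rpow s a (p := 2) (by norm_num)
  have e1 : (2 : ℝ) - 1 = 1 := by norm_num
  rw [e1, ENNReal.rpow_one] at h
  simpa only [ENNReal.rpow_two] using h

/-- abstract shell integration. -/
theorem shell_abs {k k4 u : E3 → ℝ≥0∞} (hk4 : Measurable k4) (hu : Measurable u) {c : ℕ → ℝ≥0∞}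
    {S' : Set E3} (hS : MeasurableSet S') {E : ℕ → Set E3} (hEm : ∀ j, MeasurableSet (E j)) {v : E3}
    {q : ℝ≥0∞} (hq : ∀ y, ∫⁻ X, k4 (X + v - y) ≤ q)
    (h : ∀ X ∈ S', ∀ y, ∃ j, y ∈ E j ∧ k (X + v - y) ≤ c j * k4 (X + v - y)) :
    ∫⁻ X in S', ∫⁻ y, k (X + v - y) * u y ≤ ∑' j : ℕ, c j * (q * ∫⁻ y in E j, u y) := by
  obtain ⟨F, hFd⟩ : ∃ F : ℕ → E3 × E3 → ℝ≥0∞, F = fun j p =>
      c j * (k4 (p.1 + v - p.2) * (E j).indicator u p.2) := ⟨_, rfl⟩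
  have hF : ∀ j, Measurable (F j) := by
    intro j
    rw [hFd]
    have h1 : Measurable fun p : E3 × E3 => k4 (p.1 + v - p.2) :=
      hk4.comp ((measurable_fst.add_const v).sub measurable_snd)
    have h2 : Measurable fun p : E3 × E3 => (E j).indicator u p.2 :=
      (hu.indicator (hEm j)).comp measurable_snd
    exact (h1.mul h2).const_mul _
  have e : ∫⁻ X, ∫⁻ y, ∑' j, F j (X, y) = ∑' j, ∫⁻ X, ∫⁻ y, F j (X, y) := by
    calc ∫⁻ X, ∫⁻ y, ∑' j, F j (X, y) = ∫⁻ p, ∑' j, F j p ∂(volume.prod volume) :=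
          (lintegral_prod (fun p => ∑' j, F j p) (Measurable.ennreal_tsum hF).aemeasurable).symm
      _ = ∑' j, ∫⁻ p, F j p ∂(volume.prod volume) := lintegral_tsum fun j => (hF j).aemeasurable
      _ = ∑' j, ∫⁻ X, ∫⁻ y, F j (X, y) :=
          tsum_congr fun j => lintegral_prod (F j) (hF j).aemeasurable
  have hpt : ∀ X ∈ S', ∀ y, k (X + v - y) * u y ≤ ∑' j, F j (X, y) := by
    intro X hX y
    obtain ⟨j, hj1, hj2⟩ := h X hX y
    refine le_trans ?_ (ENNReal.le_tsum j)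
    rw [hFd]
    simp only
    rw [Set.indicator_of_mem hj1, ← mul_assoc]
    exact mul_le_mul' hj2 le_rfl
  calc ∫⁻ X in S', ∫⁻ y, k (X + v - y) * u y ≤ ∫⁻ X in S', ∫⁻ y, ∑' j, F j (X, y) :=
        setLIntegral_mono' hS fun X hX => lintegral_mono fun y => hpt X hX y
    _ ≤ ∫⁻ X, ∫⁻ y, ∑' j, F j (X, y) := setLIntegral_le_lintegral _ _
    _ = ∑' j, ∫⁻ X, ∫⁻ y, F j (X, y) := e
    _ ≤ _ := by
        refine ENNReal.tsum_le_tsum fun j => ?_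
        rw [lintegral_lintegral_swap (f := fun X y => F j (X, y)) (hF j).aemeasurable]
        have h3 : ∀ y, ∫⁻ X, F j (X, y) ≤ c j * (q * (E j).indicator u y) := by
          intro y
          have h4 : Measurable fun X : E3 => k4 (X + v - y) :=
            hk4.comp ((measurable_id.add_const v).sub_const y)
          have h5 : ∀ X, F j (X, y) = c j * (E j).indicator u y * k4 (X + v - y) := by
            intro X; rw [hFd]; ring
          simp_rw [h5]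
          rw [lintegral_const_mul _ h4]
          calc c j * (E j).indicator u y * ∫⁻ X, k4 (X + v - y) ≤
                c j * (E j).indicator u y * q := mul_le_mul' le_rfl (hq y)
            _ = _ := by ring
        refine (lintegral_mono h3).trans (le_of_eq ?_)
        rw [← lintegral_indicator (hEm j)]
        have h6 : Measurable ((E j).indicator u) := hu.indicator (hEm j)
        rw [lintegral_const_mul _ (h6.const_mul q), lintegral_const_mul _ h6]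

/-- step A. -/
theorem sq_bound {ρ ρ' κ : ℝ} (hρ : 0 < ρ) (hρ' : ρ ≤ ρ') (hκ : 0 < κ) {N : ℕ} (hN : 4 ≤ N)
    {K : ℝ} (hK : 0 ≤ K) {u : ℤ × ℤ → E3 → ℝ≥0∞} (hu : ∀ m, Measurable (u m)) {m' : ℤ × ℤ}
    {w : ℤ × ℤ → E3} {x : ℝ≥0∞} (h : x ≤ ENNReal.ofReal K * ∑ m ∈ nearL ρ ρ' m', ∫⁻ y,
      ENNReal.ofReal (kc N ρ κ (cen ρ m) (w m - y)) * u m y) :
    x ^ 2 ≤ ENNReal.ofReal (K ^ 2 * (49 * (ρ' / ρ) ^ 2) * cd3 E3) * ∑ m ∈ nearL ρ ρ' m',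
        ∫⁻ y, ENNReal.ofReal (kc N ρ κ (cen ρ m) (w m - y)) * u m y ^ 2 := by
  have hρ0' : 0 < ρ' := hρ.trans_le hρ'
  have hcd : 0 ≤ cd3 E3 := cd3_nonneg
  calc x ^ 2 ≤ (ENNReal.ofReal K * ∑ m ∈ nearL ρ ρ' m', ∫⁻ y,
        ENNReal.ofReal (kc N ρ κ (cen ρ m) (w m - y)) * u m y) ^ 2 := pow_le_pow_left₀ zero_le h 2
    _ ≤ ENNReal.ofReal (K ^ 2) * (ENNReal.ofReal (49 * (ρ' / ρ) ^ 2) *
        ∑ m ∈ nearL ρ ρ' m', (∫⁻ y,
          ENNReal.ofReal (kc N ρ κ (cen ρ m) (w m - y)) * u m y) ^ 2) := by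
        rw [mul_pow, ← ENNReal.ofReal_pow hK]
        refine mul_le_mul' le_rfl ((sum_sq_le' _ _).trans (mul_le_mul' ?_ le_rfl))
        rw [← ENNReal.ofReal_natCast]
        exact ENNReal.ofReal_le_ofReal (card_nearL hρ hρ' m')
    _ ≤ ENNReal.ofReal (K ^ 2) * (ENNReal.ofReal (49 * (ρ' / ρ) ^ 2) *
        ∑ m ∈ nearL ρ ρ' m', (ENNReal.ofReal (cd3 E3) * ∫⁻ y,
          ENNReal.ofReal (kc N ρ κ (cen ρ m) (w m - y)) * u m y ^ 2)) := by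
        refine mul_le_mul' le_rfl (mul_le_mul' le_rfl (Finset.sum_le_sum fun m _ => ?_))
        have hk1 : Measurable fun y => ENNReal.ofReal (kc N ρ κ (cen ρ m) (w m - y)) :=
          ((continuous_kc N hρ hκ (cen ρ m)).comp
            (continuous_const.sub continuous_id)).measurable.ennreal_ofReal
        have h1 := lint_sq_le (V := E3) (hu m).aemeasurable hk1.aemeasurable
        simp_rw [mul_comm (ENNReal.ofReal (kc N ρ κ (cen ρ m) _))]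
        exact h1.trans (mul_le_mul' (kc_mass hN hρ hκ _ _) le_rfl)
    _ = _ := by
        rw [← Finset.mul_sum, ← mul_assoc, ← mul_assoc, ← ENNReal.ofReal_mul (by positivity),
          ← ENNReal.ofReal_mul (by positivity)]

/-- **level change with dyadic shells**. -/
theorem enc_level {ρ ρ' κ : ℝ} (hρ : 0 < ρ) (hρ' : ρ ≤ ρ') (hκ : 0 < κ) {n : ℕ} {K : ℝ}
    (hK : 0 ≤ K) {g : E3 → ℂ} (hu : ∀ m, Continuous (umc ρ g m)) {z : E3 × ℝ}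
    (hF : ∀ (m' : ℤ × ℤ) (X : E3), ‖umc ρ' (trc z g) m' X‖ₑ ≤ ENNReal.ofReal K *
      ∑ m ∈ nearL ρ ρ' m', ∫⁻ y, ENNReal.ofReal
        (kc (4 + n) ρ κ (cen ρ m) (X + z.1 + z.2 • vel (cen ρ m) - y)) * ‖umc ρ g m y‖ₑ)
    {S : ℤ × ℤ → Set E3} (hS : ∀ m, MeasurableSet (S m)) {E : ℕ → ℤ × ℤ → Set E3}
    (hEm : ∀ j m, MeasurableSet (E j m))
    (hE : ∀ m', ∀ m ∈ nearL ρ ρ' m', ∀ X ∈ S m', ∀ (W : E3) (j : ℕ),
      ‖Pl ρ κ hρ hκ (cen ρ m) W‖ ≤ 2 ^ j → X + z.1 + z.2 • vel (cen ρ m) - W ∈ E j m) :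
    enc ρ' (trc z g) S ≤
      ENNReal.ofReal (K ^ 2 * (49 * (ρ' / ρ) ^ 2) * cd3 E3 ^ 2 * 2 ^ n * 36) *
        ∑' j : ℕ, ENNReal.ofReal (((2 : ℝ) ^ (n * j))⁻¹) * enc ρ g (E j) := by
  have hρ0' : 0 < ρ' := hρ.trans_le hρ'
  have hcd : 0 ≤ cd3 E3 := cd3_nonneg
  have h4n : 4 ≤ 4 + n := Nat.le_add_right _ _
  have hum : ∀ m, Measurable fun y => ‖umc ρ g m y‖ₑ := fun m => (hu m).measurable.enorm
  have hkm : ∀ (N : ℕ) (m : ℤ × ℤ), Measurable fun x : E3 =>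
      ENNReal.ofReal (kc N ρ κ (cen ρ m) x) := fun N m =>
    (continuous_kc N hρ hκ (cen ρ m)).measurable.ennreal_ofReal
  -- the transport vector
  obtain ⟨v, hv⟩ : ∃ v : ℤ × ℤ → E3, v = fun m => z.1 + z.2 • vel (cen ρ m) := ⟨_, rfl⟩
  have hXv : ∀ (X : E3) (m : ℤ × ℤ), X + z.1 + z.2 • vel (cen ρ m) = X + v m := by
    intro X m; rw [hv, add_assoc]
  simp_rw [hXv] at hF hE
  -- step A
  have hA : ∀ (m' : ℤ × ℤ) (X : E3), ‖umc ρ' (trc z g) m' X‖ₑ ^ 2 ≤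
      ENNReal.ofReal (K ^ 2 * (49 * (ρ' / ρ) ^ 2) * cd3 E3) * ∑ m ∈ nearL ρ ρ' m',
        ∫⁻ y, ENNReal.ofReal (kc (4 + n) ρ κ (cen ρ m) (X + v m - y)) * ‖umc ρ g m y‖ₑ ^ 2 :=
    fun m' X => sq_bound hρ hρ' hκ h4n hK hum (w := fun m => X + v m) (hF m' X)
  -- step B
  have hB : ∀ m', ∀ m ∈ nearL ρ ρ' m', ∫⁻ X in S m', ∫⁻ y,
      ENNReal.ofReal (kc (4 + n) ρ κ (cen ρ m) (X + v m - y)) * ‖umc ρ g m y‖ₑ ^ 2 ≤
      ∑' j : ℕ, ENNReal.ofReal (2 ^ n * ((2 : ℝ) ^ (n * j))⁻¹) * (ENNReal.ofReal (cd3 E3) *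
        ∫⁻ y in E j m, ‖umc ρ g m y‖ₑ ^ 2) := by
    intro m' m hm
    refine shell_abs (k := fun x => ENNReal.ofReal (kc (4 + n) ρ κ (cen ρ m) x))
      (k4 := fun x => ENNReal.ofReal (kc 4 ρ κ (cen ρ m) x)) (hkm 4 m) ((hum m).pow_const 2)
      (hS m') (fun j => hEm j m) (fun y => kc_mass' le_rfl hρ hκ _ _ _) ?_
    intro X hX y
    obtain ⟨j, hj1, hj2⟩ := kc_shell n hρ hκ (cen ρ m) (X + v m - y)
    refine ⟨j, ?_, ?_⟩
    · have := hE m' m hm X hX (X + v m - y) j hj1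
      rwa [sub_sub_cancel] at this
    · rw [← ENNReal.ofReal_mul (by positivity)]
      exact ENNReal.ofReal_le_ofReal hj2
  -- step C
  unfold enc
  have hC1 : ∀ m', ∫⁻ X in S m', ‖umc ρ' (trc z g) m' X‖ₑ ^ 2 ≤
      ENNReal.ofReal (K ^ 2 * (49 * (ρ' / ρ) ^ 2) * cd3 E3) *
        ∑ m ∈ nearL ρ ρ' m', ∑' j : ℕ, ENNReal.ofReal (2 ^ n * ((2 : ℝ) ^ (n * j))⁻¹) *
          (ENNReal.ofReal (cd3 E3) * ∫⁻ y in E j m, ‖umc ρ g m y‖ₑ ^ 2) := by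
    intro m'
    refine (lintegral_mono fun X => hA m' X).trans ?_
    rw [lintegral_const_mul' _ _ ENNReal.ofReal_ne_top]
    refine mul_le_mul' le_rfl ?_
    rw [lintegral_finsetSum]
    · exact Finset.sum_le_sum fun m hm => hB m' m hm
    · intro m _
      have h1 : Measurable fun p : E3 × E3 =>
          ENNReal.ofReal (kc (4 + n) ρ κ (cen ρ m) (p.1 + v m - p.2)) *
            ‖umc ρ g m p.2‖ₑ ^ 2 :=
        ((hkm (4 + n) m).comp ((measurable_fst.add_const (v m)).sub measurable_snd)).mul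
          (((hum m).pow_const 2).comp measurable_snd)
      exact h1.lintegral_prod_right'
  have e36 : (36 : ℝ≥0∞) = ENNReal.ofReal 36 := by norm_num
  have e3 : ∑ m ∈ caps ρ, ∑' j : ℕ, ENNReal.ofReal (2 ^ n * ((2 : ℝ) ^ (n * j))⁻¹) *
      (ENNReal.ofReal (cd3 E3) * ∫⁻ y in E j m, ‖umc ρ g m y‖ₑ ^ 2) =
      ENNReal.ofReal (2 ^ n * cd3 E3) * ∑' j : ℕ, ENNReal.ofReal (((2 : ℝ) ^ (n * j))⁻¹) *
        ∑ m ∈ caps ρ, ∫⁻ y in E j m, ‖umc ρ g m y‖ₑ ^ 2 := by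
    rw [← Summable.tsum_finsetSum (fun i _ => ENNReal.summable), ← ENNReal.tsum_mul_left]
    refine tsum_congr fun j => ?_
    rw [Finset.mul_sum, Finset.mul_sum]
    refine Finset.sum_congr rfl fun m _ => ?_
    rw [← mul_assoc, ← mul_assoc, ← ENNReal.ofReal_mul (by positivity),
      ← ENNReal.ofReal_mul (by positivity)]
    congr 2
    ring
  refine (Finset.sum_le_sum fun m' _ => hC1 m').trans ?_
  rw [← Finset.mul_sum]
  refine (mul_le_mul' le_rfl (sum_near_le hρ0' _)).trans (le_of_eq ?_)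
  rw [e3, e36, ← mul_assoc, ← mul_assoc, ← ENNReal.ofReal_mul (by positivity),
    ← ENNReal.ofReal_mul (by positivity)]
  congr 2
  ring

end Crest.Agent.R116.Ba449
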