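import Crest.Agent.R116.WDefC_188
import Crest.Agent.R116.Bas2_367

/-!
# R116 (S0155), wave side, DECc: literals of the inputs of the assembly (helper295)

* `Dsc` = density of a selection;
* `Fg` = sliced function of a state;
* `SUBc` (D3), `RESTc` (D4), `EN1c`, `EN2c` (D5), `STABc` (D2, density form).
-/

set_option autoImplicit false

open MeasureTheory FourierTransform
open scoped ContDiff ENNReal

namespace Crest.Agent.R116.De295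

open Crest.Agent.R138.Defs (E2 ee)
open Crest.Agent.R138.Wpk685 (cen caps)
open Crest.Agent.R116.CDef480
open Crest.Agent.R116.WC188
open Crest.Agent.R116.LZg725 (Cf)
open Crest.Agent.R116.Bas367 (Bsc)

/-- density of a selection (all members, no dilation). -/
def Dsc (M κ q r : ℝ) (g : E3 → ℂ) (S : ℤ × ℤ → Set E3) (D : ℝ) : Prop :=
  ∀ (c : E2) (X0 : E3) (f : Cf E2) (s1 s2 : ℝ), Sd r s1 s2 → Adm M κ s1 s2 (TT κ s2 r) r c X0 f →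
    enc (r ^ (-(1/2) : ℝ)) g (fun m => S m ∩ pbx κ 1 r s1 s2 c X0 f m) ≤
      ENNReal.ofReal (D * s2 ^ q * scost κ s1 s2 r)

/-- dilated density of a selection. -/
def DscA (M A κ q r : ℝ) (g : E3 → ℂ) (S : ℤ × ℤ → Set E3) (D : ℝ) : Prop :=
  ∀ (c : E2) (X0 : E3) (f : Cf E2) (s1 s2 : ℝ), Sd r s1 s2 → Adm M κ s1 s2 (TT κ s2 r) r c X0 f →
    enc (r ^ (-(1/2) : ℝ)) g (fun m => S m ∩ pbx κ A r s1 s2 c X0 f m) ≤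
      ENNReal.ofReal (D * s2 ^ q * scost κ s1 s2 r)

/-- sliced functions with supports in `a⁻¹ ≤ η ≤ a`, slopes at most `b`. -/
structure Fg (a b η0 κ : ℝ) (g : E3 → ℂ) : Prop where
  meas : Measurable g
  bdd : ∃ L : ℝ, ∀ ζ, ‖g ζ‖ ≤ L
  supp : ∀ ζ, g ζ ≠ 0 → a⁻¹ ≤ ζ 2 ∧ ζ 2 ≤ a ∧ ‖slp ζ‖ ≤ b
  slc : Slc η0 κ g

/-- **D2 (density form of STAB)**: density for the members `Adm 1` gives the dilated density for the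
members `Adm M'`, polynomially in `A`. -/
def STABc (q : ℝ) : Prop := ∀ M' : ℝ, 1 ≤ M' → ∃ (C : ℝ) (p : ℕ), 0 ≤ C ∧
  ∀ A κ r : ℝ, 1 ≤ A → 1 ≤ r → 0 < κ → κ ≤ 1 → r ^ (-(1/4) : ℝ) ≤ κ →
    ∀ (g : E3 → ℂ) (S : ℤ × ℤ → Set E3) (D : ℝ), (∀ m, MeasurableSet (S m)) → 0 ≤ D →
      Dsc 1 κ q r g S D → DscA M' A κ q r g S (C * A ^ p * D)

/-- **D3 (SUB)**: the selected wave satisfies the box bound of the selection. -/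
def SUBc (M q : ℝ) : Prop := ∀ a b : ℝ, 1 ≤ a → 0 < b → b < 2 → ∃ C : ℝ, 0 ≤ C ∧
  ∀ κ η0 r : ℝ, 0 < κ → 8 * a * κ ≤ 1 → 1 ≤ r → r ^ (-(1/4) : ℝ) ≤ κ →
    ∀ g : E3 → ℂ, Fg a b η0 κ g → ∀ S : ℤ × ℤ → Set E3, Bsc (r ^ (-(1/2) : ℝ)) S → ∀ D : ℝ, 0 ≤ D →
      Dsc M κ q r g S D → PBx M κ q r (selc η0 κ (r ^ (-(1/2) : ℝ)) g S) (C * D)

/-- **D4 (REST)**: if the selection contains all packets in the ball `K0 r` then the rest is tiny in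
the region `A r`, in coefficient form at every level `r' ≤ r`. -/
def RESTc : Prop := ∀ a b A : ℝ, 1 ≤ a → 0 < b → b < 2 → 1 ≤ A → ∃ K0 : ℝ, 1 ≤ K0 ∧
  ∀ K : ℕ, ∃ C : ℝ, 0 ≤ C ∧
  ∀ κ η0 r : ℝ, 0 < κ → 8 * a * κ ≤ 1 → 1 ≤ r → r ^ (-(1/4) : ℝ) ≤ κ →
    ∀ g : E3 → ℂ, Fg a b η0 κ g → ∀ S : ℤ × ℤ → Set E3, Bsc (r ^ (-(1/2) : ℝ)) S →
      (∀ m ∈ caps (r ^ (-(1/2) : ℝ)), Metric.closedBall 0 (K0 * r) ⊆ S m) →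
      ∀ r', 1 ≤ r' → r' ≤ r → ∀ z' ∈ cylc (A * r), ∀ m, ∀ y : E3, ‖y‖ ≤ A * r →
        ‖umc (r' ^ (-(1/2) : ℝ)) (trc z' (fun ζ => g ζ - selc η0 κ (r ^ (-(1/2) : ℝ)) g S ζ)) m y‖ ≤
          C * r ^ (-(K : ℝ)) * Real.sqrt (Enc g)

/-- **D5 (energy of a selected wave)**. -/
def EN1c : Prop := ∃ C : ℝ, 0 ≤ C ∧ ∀ η0 κ ρ : ℝ, 0 < κ → 0 < ρ → ρ ≤ 1 →
  ∀ g : E3 → ℂ, Integrable g → MemLp g 2 → ∀ S : ℤ × ℤ → Set E3, Bsc ρ S →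
    ENNReal.ofReal (Enc (selc η0 κ ρ g S)) ≤ ENNReal.ofReal C * enc ρ g S

/-- **D5 (total packet energy)**. -/
def EN2c : Prop := ∃ C : ℝ, 0 ≤ C ∧ ∀ ρ : ℝ, 0 < ρ → ρ ≤ 1 →
  ∀ g : E3 → ℂ, Integrable g → MemLp g 2 → ∀ S : ℤ × ℤ → Set E3,
    enc ρ g S ≤ ENNReal.ofReal (C * Enc g)

end Crest.Agent.R116.De295
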