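import Crest.Agent.R116.Cov1_369
import Crest.Agent.R116.DeDef_295

/-!
# R116 (S0155), wave side, COV / STAB (helper369), part 2: the forms used by the leaves

* `cov_pbx`: a dilated member is covered by `≤ card (cells (nn A M'))` members with constant `1`.
* `stab_core`: density (of any family `S` of sets) for the members `Adm 1` gives the density for the
  `A`-dilated members `Adm M'`, factor `11^5 (A M')^21`.
* `stabc : 0 ≤ q → De295.STABc q`; `stabP`; `cov2`; `pbx_change` (`PBx M ⟹ PBx M'`).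
-/

set_option autoImplicit false

open MeasureTheory FourierTransform
open scoped ENNReal

namespace Crest.Agent.R116.Cov369

open Crest.Agent.R138.Defs (E2 ee)
open Crest.Agent.R138.Wpk685 (cen caps)
open Crest.Agent.R116.CDef480
open Crest.Agent.R116.LZg725 (Cf)
open Crest.Agent.R116.WC188 (TT mset scost Sd pbx PBx Adm)

/-- good members are `Adm M` for every `M ≥ 1`. -/
theorem Good.toAdm {κ r M : ℝ} {b : Mb} (h : Good κ r b) (hκ : 0 < κ) (hr : 0 < r) (hM : 1 ≤ M) :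
    Adm M κ b.s1 b.s2 (TT κ b.s2 r) r b.c b.X0 b.f := by
  have hs1 : 0 < b.s1 := lt_of_lt_of_le (Real.rpow_pos_of_pos hr _) h.sd.lo
  have hs2 : 0 < b.s2 := hs1.trans_le h.sd.le
  have hT : 0 < TT κ b.s2 r := TT_pos hκ hr
  refine ⟨h.disc, fun s hs => (h.ny s hs).trans ?_, fun s hs => (h.cmp s hs).trans ?_,
    h.ld.trans ?_, h.ev.trans ?_⟩
  · exact div_le_div_of_nonneg_right (le_mul_of_one_le_left hs2.le hM) hT.le
  · exact le_mul_of_one_le_left (by positivity) hM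
  · exact le_mul_of_one_le_left hs2.le hM
  · rw [mul_assoc]; exact le_mul_of_one_le_left (by positivity) hM

/-- `Adm` is monotone in the constant. -/
theorem adm_mono {κ r M M' s1 s2 : ℝ} {c : E2} {X0 : E3} {f : Cf E2} (hκ : 0 < κ) (hr : 0 < r)
    (hs1 : 0 < s1) (hs2 : 0 < s2) (hM : M ≤ M')
    (h : Adm M κ s1 s2 (TT κ s2 r) r c X0 f) : Adm M' κ s1 s2 (TT κ s2 r) r c X0 f := by
  have hT : 0 < TT κ s2 r := TT_pos hκ hr
  refine ⟨h.disc, fun s hs => (h.ny s hs).trans ?_, fun s hs => (h.cmp s hs).trans ?_,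
    h.ld.trans ?_, h.ev.trans ?_⟩
  · exact div_le_div_of_nonneg_right (mul_le_mul_of_nonneg_right hM hs2.le) hT.le
  · exact mul_le_mul_of_nonneg_right hM (by positivity)
  · exact mul_le_mul_of_nonneg_right hM hs2.le
  · exact mul_le_mul_of_nonneg_right (mul_le_mul_of_nonneg_right hM hs2.le) hr.le

/-- **COV over the literals of `WDefC_188`**. -/
theorem cov_pbx {κ r A M : ℝ} (hκ : 0 < κ) (hκ1 : κ ≤ 1) (hr : 1 ≤ r) (hA : 1 ≤ A) (hM : 1 ≤ M)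
    {s1 s2 : ℝ} (hS : Sd r s1 s2) {c : E2} {X0 : E3} {f : Cf E2}
    (hadm : Adm M κ s1 s2 (TT κ s2 r) r c X0 f) :
    ∃ F : ℤ × ℤ × ℤ × ℤ × ℤ → Mb, (∀ j, Good κ r (F j) ∧ (F j).s2 ≤ s2 ∧
      (F j).s1 ≤ A * M * s1 ∧ s2 ≤ A * M * (F j).s2 ∧ s1 ≤ A * M * (F j).s1 ∧
      scost κ (F j).s1 (F j).s2 r ≤ A * M * scost κ s1 s2 r) ∧
      ∀ m, pbx κ A r s1 s2 c X0 f m ⊆
        ⋃ j ∈ cells (nn A M), pbx κ 1 r (F j).s1 (F j).s2 (F j).c (F j).X0 (F j).f m := by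
  obtain ⟨F, hF, hcov⟩ := cov hκ hκ1 hr hA hM hS hadm.disc hadm.ny hadm.cmp
  refine ⟨F, hF, fun m => ?_⟩
  have h1 := hcov (cen (r ^ (-(1/2) : ℝ)) m)
  unfold ms at h1
  unfold pbx
  simp only [one_mul]
  exact h1

theorem card_le {A M : ℝ} (hA : 1 ≤ A) (hM : 1 ≤ M) :
    ((cells (nn A M)).card : ℝ) ≤ 11 ^ 5 * (A * M) ^ 20 := by
  rw [card_cells]
  have hL : 1 ≤ A * M := one_le_mul_of_one_le_of_one_le hA hM
  have hAL : A ≤ A * M := le_mul_of_one_le_right (by linarith) hM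
  have h1 : (nn A M : ℝ) ≤ 4 * A ^ 2 * (A * M) ^ 2 + 1 := by
    unfold nn
    exact (Nat.ceil_lt_add_one (by positivity)).le
  have h2 : A ^ 2 ≤ (A * M) ^ 2 := pow_le_pow_left₀ (by linarith) hAL 2
  have h3 : (1:ℝ) ≤ (A * M) ^ 4 := one_le_pow₀ hL
  have h4 : 2 * (nn A M : ℝ) + 1 ≤ 11 * (A * M) ^ 4 := by
    have : 4 * A ^ 2 * (A * M) ^ 2 ≤ 4 * (A * M) ^ 4 := by
      have := mul_le_mul_of_nonneg_right h2 (sq_nonneg (A * M))
      nlinarith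
    linarith
  push_cast
  calc (2 * (nn A M : ℝ) + 1) ^ 5 ≤ (11 * (A * M) ^ 4) ^ 5 :=
        pow_le_pow_left₀ (by positivity) h4 5
    _ = 11 ^ 5 * (A * M) ^ 20 := by ring

/-- `enc` and finite covers. -/
theorem enc_cover {ι : Type*} (ρ : ℝ) (g : E3 → ℂ) (I : Finset ι) (S : ℤ × ℤ → Set E3)
    (V : ι → ℤ × ℤ → Set E3) (h : ∀ m, S m ⊆ ⋃ j ∈ I, V j m) :
    enc ρ g S ≤ ∑ j ∈ I, enc ρ g (V j) := by
  classical
  unfold enc
  rw [Finset.sum_comm]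
  refine Finset.sum_le_sum fun m _ => ?_
  have e : (⋃ j ∈ I, V j m) = ⋃ j : I, V (j : ι) m := by ext x; simp
  refine (lintegral_mono_set (h m)).trans ?_
  rw [e]
  refine (lintegral_iUnion_le _ _).trans ?_
  rw [tsum_fintype, Finset.univ_eq_attach]
  exact (Finset.sum_attach I (fun j => ∫⁻ x in V j m, ‖umc ρ g m x‖ₑ ^ 2)).le

/-- **STAB, core form** (any family of sets, no measurability). -/
theorem stab_core {q κ r A M' : ℝ} (hq : 0 ≤ q) (hκ : 0 < κ) (hκ1 : κ ≤ 1) (hr : 1 ≤ r)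
    (hA : 1 ≤ A) (hM' : 1 ≤ M') {g : E3 → ℂ} {S : ℤ × ℤ → Set E3} {D : ℝ} (hD : 0 ≤ D)
    (h : ∀ (c : E2) (X0 : E3) (f : Cf E2) (s1 s2 : ℝ), Sd r s1 s2 →
      Adm 1 κ s1 s2 (TT κ s2 r) r c X0 f →
      enc (r ^ (-(1/2) : ℝ)) g (fun m => S m ∩ pbx κ 1 r s1 s2 c X0 f m) ≤
        ENNReal.ofReal (D * s2 ^ q * scost κ s1 s2 r))
    {c : E2} {X0 : E3} {f : Cf E2} {s1 s2 : ℝ} (hS : Sd r s1 s2)
    (hadm : Adm M' κ s1 s2 (TT κ s2 r) r c X0 f) :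
    enc (r ^ (-(1/2) : ℝ)) g (fun m => S m ∩ pbx κ A r s1 s2 c X0 f m) ≤
      ENNReal.ofReal (11 ^ 5 * (A * M') ^ 21 * D * s2 ^ q * scost κ s1 s2 r) := by
  classical
  have hr0 : 0 < r := lt_of_lt_of_le one_pos hr
  obtain ⟨F, hF, hcov⟩ := cov_pbx hκ hκ1 hr hA hM' hS hadm
  have hs1 : 0 < s1 := lt_of_lt_of_le (Real.rpow_pos_of_pos hr0 _) hS.lo
  have hs2 : 0 < s2 := hs1.trans_le hS.le
  have hT : 0 < TT κ s2 r := TT_pos hκ hr0
  have hL : 1 ≤ A * M' := one_le_mul_of_one_le_of_one_le hA hM'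
  have hsc : 0 ≤ scost κ s1 s2 r := by
    unfold scost; positivity
  have step : ∀ j ∈ cells (nn A M'),
      enc (r ^ (-(1/2) : ℝ)) g (fun m => S m ∩
        pbx κ 1 r (F j).s1 (F j).s2 (F j).c (F j).X0 (F j).f m) ≤
      ENNReal.ofReal (D * s2 ^ q * (A * M' * scost κ s1 s2 r)) := by
    intro j _
    obtain ⟨hg, hj2, -, -, -, hjc⟩ := hF j
    have hb1 : 0 < (F j).s1 := lt_of_lt_of_le (Real.rpow_pos_of_pos hr0 _) hg.sd.lo
    have hb2 : 0 < (F j).s2 := hb1.trans_le hg.sd.le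
    have hTj : 0 < TT κ (F j).s2 r := TT_pos hκ hr0
    refine (h (F j).c (F j).X0 (F j).f (F j).s1 (F j).s2 hg.sd
      (hg.toAdm hκ hr0 le_rfl)).trans (ENNReal.ofReal_le_ofReal ?_)
    have a1 : (F j).s2 ^ q ≤ s2 ^ q := Real.rpow_le_rpow hb2.le hj2 hq
    have a2 : 0 ≤ scost κ (F j).s1 (F j).s2 r := by unfold scost; positivity
    calc D * (F j).s2 ^ q * scost κ (F j).s1 (F j).s2 r
        ≤ D * s2 ^ q * scost κ (F j).s1 (F j).s2 r :=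
          mul_le_mul_of_nonneg_right (mul_le_mul_of_nonneg_left a1 hD) a2
      _ ≤ D * s2 ^ q * (A * M' * scost κ s1 s2 r) :=
          mul_le_mul_of_nonneg_left hjc (mul_nonneg hD (Real.rpow_nonneg hs2.le _))
  have h1 := enc_cover (r ^ (-(1/2) : ℝ)) g (cells (nn A M'))
    (fun m => S m ∩ pbx κ A r s1 s2 c X0 f m)
    (fun j m => S m ∩ pbx κ 1 r (F j).s1 (F j).s2 (F j).c (F j).X0 (F j).f m) (fun m => by
      rw [← Set.inter_iUnion₂]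
      exact Set.inter_subset_inter_right _ (hcov m))
  refine h1.trans ((Finset.sum_le_sum step).trans ?_)
  rw [Finset.sum_const, nsmul_eq_mul, ← ENNReal.ofReal_natCast,
    ← ENNReal.ofReal_mul (Nat.cast_nonneg _)]
  refine ENNReal.ofReal_le_ofReal ?_
  have h2 := card_le hA hM'
  have h3 : 0 ≤ D * s2 ^ q * (A * M' * scost κ s1 s2 r) :=
    mul_nonneg (mul_nonneg hD (Real.rpow_nonneg hs2.le _)) (mul_nonneg (by linarith) hsc)
  calc ((cells (nn A M')).card : ℝ) * (D * s2 ^ q * (A * M' * scost κ s1 s2 r))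
      ≤ (11 ^ 5 * (A * M') ^ 20) * (D * s2 ^ q * (A * M' * scost κ s1 s2 r)) :=
        mul_le_mul_of_nonneg_right h2 h3
    _ = 11 ^ 5 * (A * M') ^ 21 * D * s2 ^ q * scost κ s1 s2 r := by ring

/-- **D2** of 295. -/
theorem stabc {q : ℝ} (hq : 0 ≤ q) : De295.STABc q := by
  intro M' hM'
  refine ⟨11 ^ 5 * M' ^ 21, 21, by positivity, ?_⟩
  intro A κ r hA hr hκ hκ1 _ g S D _ hD h c X0 f s1 s2 hS hadm
  refine (stab_core hq hκ hκ1 hr hA hM' hD h hS hadm).trans (le_of_eq ?_)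
  congr 1
  ring

/-- monotonicity of the box bound in the class constant. -/
theorem pbx_one {M κ q r : ℝ} {g : E3 → ℂ} {D : ℝ} (hM : 1 ≤ M) (hκ : 0 < κ) (hr : 1 ≤ r)
    (h : PBx M κ q r g D) : ∀ (c : E2) (X0 : E3) (f : Cf E2) (s1 s2 : ℝ), Sd r s1 s2 →
      Adm 1 κ s1 s2 (TT κ s2 r) r c X0 f →
      enc (r ^ (-(1/2) : ℝ)) g (fun m => Set.univ ∩ pbx κ 1 r s1 s2 c X0 f m) ≤
        ENNReal.ofReal (D * s2 ^ q * scost κ s1 s2 r) := by
  intro c X0 f s1 s2 hS hadm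
  have hr0 : 0 < r := lt_of_lt_of_le one_pos hr
  have hs1 : 0 < s1 := lt_of_lt_of_le (Real.rpow_pos_of_pos hr0 _) hS.lo
  simp only [Set.univ_inter]
  exact h c X0 f s1 s2 hS (adm_mono hκ hr0 hs1 (hs1.trans_le hS.le) hM hadm)

/-- **STAB for the box bound of a function**, polynomial in `A M'` (449's `StabP`). -/
theorem stabP {M q : ℝ} (hM : 1 ≤ M) (hq : 0 ≤ q) : ∃ (C : ℝ) (p : ℕ), 0 ≤ C ∧
    ∀ A M' κ R : ℝ, 1 ≤ A → 1 ≤ M' → 1 ≤ R → 0 < κ → κ ≤ 1 →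
      ∀ (g : E3 → ℂ) (D : ℝ), 0 ≤ D → PBx M κ q R g D →
        ∀ (c : E2) (X0 : E3) (f : Cf E2) (s1 s2 : ℝ), Sd R s1 s2 →
          Adm M' κ s1 s2 (TT κ s2 R) R c X0 f →
          enc (R ^ (-(1/2) : ℝ)) g (pbx κ A R s1 s2 c X0 f) ≤
            ENNReal.ofReal (C * (A * M') ^ p * D * s2 ^ q * scost κ s1 s2 R) := by
  refine ⟨11 ^ 5, 21, by positivity, ?_⟩
  intro A M' κ R hA hM' hR hκ hκ1 g D hD hP c X0 f s1 s2 hS hadm
  have h1 := stab_core hq hκ hκ1 hR hA hM' hD (pbx_one hM hκ hR hP) hS hadm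
  simp only [Set.univ_inter] at h1
  exact h1

/-- the box bound for one constant gives the box bound for all constants. -/
theorem pbx_change {M M' κ q r : ℝ} {g : E3 → ℂ} {D : ℝ} (hM : 1 ≤ M) (hM' : 1 ≤ M') (hq : 0 ≤ q)
    (hκ : 0 < κ) (hκ1 : κ ≤ 1) (hr : 1 ≤ r) (hD : 0 ≤ D) (h : PBx M κ q r g D) :
    PBx M' κ q r g (11 ^ 5 * M' ^ 21 * D) := by
  intro c X0 f s1 s2 hS hadm
  have h1 := stab_core hq hκ hκ1 hr le_rfl hM' hD (pbx_one hM hκ hr h) hS hadm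
  simp only [Set.univ_inter, one_mul] at h1
  exact h1

/-- the density of a selection for one constant gives the density for all constants and all
dilations. -/
theorem dsc_change {M M' A κ q r : ℝ} {g : E3 → ℂ} {S : ℤ × ℤ → Set E3} {D : ℝ} (hM : 1 ≤ M)
    (hM' : 1 ≤ M') (hA : 1 ≤ A) (hq : 0 ≤ q) (hκ : 0 < κ) (hκ1 : κ ≤ 1) (hr : 1 ≤ r) (hD : 0 ≤ D)
    (h : De295.Dsc M κ q r g S D) :
    De295.DscA M' A κ q r g S (11 ^ 5 * (A * M') ^ 21 * D) := by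
  intro c X0 f s1 s2 hS hadm
  have hr0 : 0 < r := lt_of_lt_of_le one_pos hr
  refine stab_core hq hκ hκ1 hr hA hM' hD (fun c X0 f s1 s2 hS hadm => ?_) hS hadm
  have hs1 : 0 < s1 := lt_of_lt_of_le (Real.rpow_pos_of_pos hr0 _) hS.lo
  exact h c X0 f s1 s2 hS (adm_mono hκ hr0 hs1 (hs1.trans_le hS.le) hM hadm)

/-- 894's `Cov2`. -/
theorem cov2 {M q : ℝ} (hM : 1 ≤ M) (hq : 0 ≤ q) : ∃ C : ℝ, 1 ≤ C ∧ ∀ κ r : ℝ, 0 < κ → κ ≤ 1 →
    1 ≤ r → 1 ≤ κ * r → ∀ (g : E3 → ℂ) (D : ℝ), 0 ≤ D → PBx M κ q r g D →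
      ∀ (c : E2) (X0 : E3) (f : Cf E2) (s1 s2 : ℝ), Sd r s1 s2 →
        Adm M κ s1 s2 (TT κ s2 r) r c X0 f →
        enc (r ^ (-(1/2) : ℝ)) g (pbx κ 2 r s1 s2 c X0 f) ≤
          ENNReal.ofReal (C * D * s2 ^ q * scost κ s1 s2 r) := by
  refine ⟨11 ^ 5 * (2 * M) ^ 21, ?_, ?_⟩
  · have h1 : (1:ℝ) ≤ (2 * M) ^ 21 := one_le_pow₀ (by linarith)
    nlinarith
  intro κ r hκ hκ1 hr _ g D hD hP c X0 f s1 s2 hS hadm
  have h1 := stab_core hq hκ hκ1 hr (by norm_num : (1:ℝ) ≤ 2) hM hD (pbx_one hM hκ hr hP) hS hadm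
  simp only [Set.univ_inter] at h1
  exact h1

end Crest.Agent.R116.Cov369
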