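import Crest.Agent.R116.Ba2_449
import Crest.Agent.R116.Ba3_449
import Crest.Agent.R116.Ba4_449
import Crest.Agent.R116.Bas1_367
import Crest.Agent.R116.Cov2_369

/-!
# R116 (S0155), wave side, TRIV2, part 3: one plate (helper449)

`plate_le` : energy of a plate of level `r` in the frame `z` from the box bound of level `R`.
-/

set_option autoImplicit false

open MeasureTheory
open scoped ENNReal

namespace Crest.Agent.R116.Ba449

open Crest.Agent.R138.Wf448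
open Crest.Agent.R138.Defs (E2)
open Crest.Agent.R138.Wpk685 (cen caps)
open Crest.Agent.R138.Loc878 (Near nearL mem_nearL)
open Crest.Agent.R116.CDef480 Crest.Agent.R116.CWp480 Crest.Agent.R116.CWc480
open Crest.Agent.R116.F1c124 (kc f1_root)
open Crest.Agent.R116.LZg725 (Cf)
open Crest.Agent.R116.WC188

/-- functions of the wave side with slices of width `2κ`. -/
structure Fs (a η0 κ : ℝ) (g : E3 → ℂ) : Prop where
  meas : Measurable g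
  bdd : ∃ L : ℝ, ∀ ζ, ‖g ζ‖ ≤ L
  supp : ∀ ζ, g ζ ≠ 0 → a⁻¹ ≤ ζ 2 ∧ ζ 2 ≤ a ∧ ‖slp ζ‖ ≤ 2
  slc : Slc η0 (2 * κ) g

theorem Fs.gd {a η0 κ : ℝ} {g : E3 → ℂ} (ha : 1 ≤ a) (h : Fs a η0 κ g) : Gd (3 * a) g := by
  refine ⟨h.meas, h.bdd, fun ζ hz => ?_, fun ζ hz => (h.supp ζ hz).2.2⟩
  obtain ⟨h1, h2, h3⟩ := h.supp ζ hz
  have ha0 : 0 < a := by linarith
  have hζ : 0 < ζ 2 := lt_of_lt_of_le (inv_pos.2 ha0) h1
  have h4 : ‖lat ζ‖ ≤ 2 * a := by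
    rw [lat_slp hζ.ne', norm_smul, Real.norm_eq_abs, abs_of_pos hζ]
    calc ζ 2 * ‖slp ζ‖ ≤ a * 2 := by gcongr
      _ = 2 * a := by ring
  have h5 : ‖ζ‖ ^ 2 ≤ (3 * a) ^ 2 := by
    rw [normsq3]
    have h6 : ‖lat ζ‖ ^ 2 ≤ (2 * a) ^ 2 := pow_le_pow_left₀ (norm_nonneg _) h4 2
    have h7 : ζ 2 ^ 2 ≤ a ^ 2 := pow_le_pow_left₀ hζ.le h2 2
    nlinarith
  exact (sq_le_sq₀ (norm_nonneg _) (by linarith)).1 h5

theorem meas_pbx (κ A r s1 s2 : ℝ) (c : E2) (X0 : E3) (f : Cf E2) (m : ℤ × ℤ) :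
    MeasurableSet (pbx κ A r s1 s2 c X0 f m) := by
  unfold pbx
  generalize cen (r ^ (-(1/2) : ℝ)) m = C
  generalize A * s2 = sg
  generalize A * TT κ s2 r = T
  generalize A * s1 = w
  have hl : Continuous fun X : E3 => lat X := latL.continuous
  have h2 : Continuous fun X : E3 => X 2 := by fun_prop
  have e1 : Continuous fun X : E3 => ‖lat X - lat X0‖ := (hl.sub continuous_const).norm
  have e2 : Continuous fun X : E3 => |nrm c X 0 - nrm c X0 0| := by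
    unfold nrm
    exact (((h2.add (continuous_const.inner hl)).add continuous_const).sub continuous_const).abs
  have e3 : Continuous fun X : E3 => |f.ev (lat X) (X 2) 0| := by
    unfold Cf.ev
    exact ((((continuous_const.add continuous_const).add (continuous_const.inner hl)).add
      (continuous_const.mul h2)).add (continuous_const.mul ((hl.norm.pow 2).sub
      (continuous_const.mul h2)))).abs
  have e4 : Continuous fun X : E3 => |f.ld C (lat X) (X 2) 0| := by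
    unfold Cf.ld
    exact (((continuous_const.sub (continuous_const.mul h2)).sub
      (Continuous.inner (continuous_const.add (hl.const_smul (2 * f.d))) continuous_const)).add
      continuous_const).abs
  have : mset sg T r w c X0 f C = {X | ‖C - c‖ ≤ sg} ∩ ({X | ‖lat X - lat X0‖ ≤ sg * r} ∩
      ({X | |nrm c X 0 - nrm c X0 0| ≤ T * r} ∩ ({X | |f.ev (lat X) (X 2) 0| ≤ w * r} ∩
      {X | |f.ld C (lat X) (X 2) 0| ≤ w}))) := rfl
  rw [this]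
  exact (MeasurableSet.const _).inter ((measurableSet_le e1.measurable measurable_const).inter
    ((measurableSet_le e2.measurable measurable_const).inter
    ((measurableSet_le e3.measurable measurable_const).inter
    (measurableSet_le e4.measurable measurable_const))))

theorem scost_nn {κ s1 s2 r : ℝ} (hs1 : 0 < s1) (hs2 : 0 < s2) (hr : 0 < r) :
    0 < scost κ s1 s2 r := by
  have := TT_pos' (κ := κ) (R := r) hs2
  unfold scost; positivity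

theorem scost_up {κ s1 s2 r R : ℝ} (hκ : 0 < κ) (hs1 : 0 < s1) (hs2 : 0 < s2) (hr : 0 < r)
    (h : r ≤ R) : scost κ s1 s2 R ≤ (R / r) ^ 3 * scost κ s1 s2 r := by
  have hR : 0 < R := hr.trans_le h
  have h1 := TT_anti (s := s2) hκ hr h
  unfold scost
  have h2 := TT_pos' (κ := κ) (R := R) hs2
  calc s1 * s2 * TT κ s2 R * R ^ 3 ≤ s1 * s2 * TT κ s2 r * R ^ 3 := by gcongr
    _ = (R / r) ^ 3 * (s1 * s2 * TT κ s2 r * r ^ 3) := by field_simp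

/-- norm of the frame map. -/
theorem Pl_bd {ρ κ l : ℝ} (hρ : 0 < ρ) (hκ : 0 < κ) {C : E2} {W : E3}
    (h : ‖Pl ρ κ hρ hκ C W‖ ≤ l) :
    ‖lat W‖ ≤ l * ρ⁻¹ ∧ |W 2 + inner ℝ C (lat W)| ≤ l * κ⁻¹ := by
  rw [Pl_apply] at h
  have hl : 0 ≤ l := (norm_nonneg _).trans h
  have h1 := normsq3 (pt (ρ • lat W) (κ * (W 2 + inner ℝ C (lat W))))
  rw [lat_pt, pt_two] at h1
  have h2 : ‖pt (ρ • lat W) (κ * (W 2 + inner ℝ C (lat W)))‖ ^ 2 ≤ l ^ 2 :=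
    pow_le_pow_left₀ (norm_nonneg _) h 2
  constructor
  · have h3 : ‖ρ • lat W‖ ^ 2 ≤ l ^ 2 := by nlinarith [sq_nonneg (κ * (W 2 + inner ℝ C (lat W)))]
    have h4 := (sq_le_sq₀ (norm_nonneg _) hl).1 h3
    rw [norm_smul, Real.norm_eq_abs, abs_of_pos hρ] at h4
    rw [← div_eq_mul_inv, le_div_iff₀ hρ]
    linarith
  · have h3 : |κ * (W 2 + inner ℝ C (lat W))| ^ 2 ≤ l ^ 2 := by
      rw [sq_abs]; nlinarith [sq_nonneg ‖ρ • lat W‖]
    have h4 := (sq_le_sq₀ (abs_nonneg _) hl).1 h3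
    rw [abs_mul, abs_of_pos hκ] at h4
    rw [← div_eq_mul_inv, le_div_iff₀ hκ]
    linarith

/-- a geometric sum. -/
theorem tsum_half {T : ℝ} (hT : 0 ≤ T) :
    ∑' j : ℕ, ENNReal.ofReal (T * (1 / 2 : ℝ) ^ j) = ENNReal.ofReal (T * 2) := by
  rw [← ENNReal.ofReal_tsum_of_nonneg (fun j => by positivity)
    (summable_geometric_two.mul_left T), tsum_mul_left, tsum_geometric_two]

/-- **one plate**. -/
theorem plate_le {M q : ℝ} (hM : 1 ≤ M) (hq : 0 ≤ q) {a A : ℝ} (ha : 1 ≤ a) (hA : 1 ≤ A) :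
    ∃ Cp : ℝ, 0 ≤ Cp ∧ ∀ (κ η0 : ℝ) (g : E3 → ℂ) (R D r s1 s2 : ℝ) (z : E3 × ℝ) (c : E2) (X0 : E3)
      (f : Cf E2) (S : ℤ × ℤ → Set E3), 0 < κ → 8 * a * κ ≤ 1 → 1 ≤ r → r ≤ R → Fs a η0 κ g →
      0 ≤ D → PBx M κ q R g D → Sd r s1 s2 → z ∈ cylc R → Adm M κ s1 s2 (TT κ s2 r) r c X0 f →
      (∀ m, MeasurableSet (S m)) → (∀ m, S m ⊆ pbx κ A r s1 s2 c X0 f m) →
      enc (r ^ (-(1/2) : ℝ)) (trc z g) S ≤
        ENNReal.ofReal (Cp * (R / r) ^ 25 * D * s2 ^ q * scost κ s1 s2 r) := by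
  have ha' : 1 ≤ 4 * a / 3 := by linarith
  obtain ⟨K, hK, hF1⟩ := f1_root ha' (4 + 43) 1
  have hcd : 0 ≤ cd3 E3 := cd3_nonneg
  refine ⟨(K ^ 2 * 49 * cd3 E3 ^ 2 * 2 ^ 43 * 36) * (11 ^ 5 * (75 * M ^ 2 * A ^ 2) ^ 21 * 2),
    by positivity, ?_⟩
  intro κ η0 g R D r s1 s2 z c X0 f S hκ hκa hr hrR hg hD hP hSd hz hadm hSm hSp
  have hr0 : 0 < r := by linarith
  have hR0 : 0 < R := by linarith
  have hR1 : 1 ≤ R := by linarith
  have ha0 : 0 < a := by linarith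
  have hκ1 : κ ≤ 1 := by nlinarith
  have hρ0 : 0 < R ^ (-(1/2) : ℝ) := Real.rpow_pos_of_pos hR0 _
  have hs1 : 0 < s1 := lt_of_lt_of_le (Real.rpow_pos_of_pos hr0 _) hSd.lo
  have hs2 : 0 < s2 := hs1.trans_le hSd.le
  have hsc := scost_nn (κ := κ) hs1 hs2 hr0
  have hsq : 0 ≤ s2 ^ q := Real.rpow_nonneg hs2.le _
  have hB1 : 1 ≤ R / r := (one_le_div hr0).2 hrR
  by_cases hne : ∃ ζ, g ζ ≠ 0
  swap
  · push Not at hne
    have e : trc z g = fun _ => 0 := by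
      funext ζ; unfold trc; rw [hne ζ, zero_mul]
    rw [e]
    have e2 : enc (r ^ (-(1/2) : ℝ)) (fun _ : E3 => (0 : ℂ)) S = 0 := by
      unfold enc
      simp [Bas367.umc_zero]
    rw [e2]
    exact zero_le
  obtain ⟨ζ0, hζ0⟩ := hne
  -- range of `η0`
  obtain ⟨z1, z2, -⟩ := hg.supp ζ0 hζ0
  have hsl := hg.slc ζ0 hζ0
  have h2κ : 2 * κ ≤ (4 * a)⁻¹ := by
    rw [le_inv_comm₀ (by positivity) (by positivity), ← one_div, le_div_iff₀ (by positivity)]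
    linarith
  have ei : a⁻¹ = 4 * (4 * a)⁻¹ := by
    rw [mul_inv]; field_simp
  have hη1 : (4 * a / 3)⁻¹ ≤ η0 := by
    have e1 : (4 * a / 3)⁻¹ = 3 * (4 * a)⁻¹ := by rw [div_eq_mul_inv, mul_inv, inv_inv]; ring
    rw [e1]
    have h5 := (abs_le.1 hsl).2
    linarith
  have hη2 : η0 ≤ 4 * a / 3 := by
    have h5 := (abs_le.1 hsl).1
    have h6 : (4 * a)⁻¹ ≤ a / 4 := by
      rw [inv_le_comm₀ (by positivity) (by positivity), ← one_div, div_le_iff₀ (by positivity)]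
      nlinarith
    linarith
  have hκ' : 0 < 4 * κ / 3 := by positivity
  have hκ'2 : 4 * κ / 3 ≤ (4 * (4 * a / 3))⁻¹ := by
    rw [le_inv_comm₀ (by positivity) (by positivity), ← one_div, le_div_iff₀ (by positivity)]
    nlinarith
  have hρ' : R ^ (-(1/2) : ℝ) ≤ r ^ (-(1/2) : ℝ) :=
    Real.rpow_le_rpow_of_nonpos hr0 hrR (by norm_num)
  have hρsq : (R ^ (-(1/2) : ℝ)) ^ 2 = R⁻¹ := by
    rw [← Real.rpow_natCast, ← Real.rpow_mul hR0.le]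
    norm_num
    exact Real.rpow_neg_one R
  have hρinv : (R ^ (-(1/2) : ℝ))⁻¹ = R ^ (1/2 : ℝ) := by
    rw [← Real.rpow_neg hR0.le]; norm_num
  have hratio : (r ^ (-(1/2) : ℝ) / R ^ (-(1/2) : ℝ)) ^ 2 = R / r := by
    rw [← Real.div_rpow hr0.le hR0.le, ← Real.rpow_natCast, ← Real.rpow_mul (by positivity)]
    norm_num
    rw [Real.rpow_neg_one, inv_div]
  have hzT : |z.2| * (R ^ (-(1/2) : ℝ)) ^ 2 ≤ 1 := by
    rw [hρsq, ← div_eq_mul_inv, div_le_one hR0]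
    exact hz.2
  have hgd := hg.gd ha
  have hF := fun (m' : ℤ × ℤ) (X : E3) => hF1 (R ^ (-(1/2) : ℝ)) (r ^ (-(1/2) : ℝ)) (4 * κ / 3) η0
    hρ0 hρ' hκ' hκ'2 hη1 hη2 g hgd.int (fun ζ hζ => ⟨by
      refine (hg.slc ζ hζ).trans (le_of_eq ?_); ring, (hg.supp ζ hζ).2.2⟩) z hzT m' X
  have hlev := enc_level hρ0 hρ' hκ' (n := 43) hK (fun m => Bas367.umc_cont hgd.int _ m) hF hSm
    (E := fun j => pbx κ (25 * M * A ^ 2 * (2 ^ j) ^ 2) R s1 s2 c (Xz z c X0) (fz z f))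
    (fun j m => meas_pbx _ _ _ _ _ _ _ _ _) (by
      intro m' m hm X hX W j hW
      obtain ⟨hw1, hw2⟩ := Pl_bd hρ0 hκ' hW
      have hlam : (1 : ℝ) ≤ 2 ^ j := one_le_pow₀ (by norm_num)
      refine pbx_ext (m' := m') hM hA hlam hκ hκ1 hr hrR hSd hz hadm (hSp m' hX)
        (le_of_lt (mem_nearL.1 hm).2) ?_ ?_
      · rw [← hρinv]; exact hw1
      · refine hw2.trans ?_
        have : (4 * κ / 3)⁻¹ ≤ κ⁻¹ := inv_anti₀ hκ (by linarith)
        gcongr)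
  have hadmR := adm_ext hM hκ hr hrR hSd hz hadm
  have hSdR : Sd R s1 s2 := ⟨hρ'.trans hSd.lo, hSd.le, hSd.hi⟩
  have hM' : 1 ≤ 3 * (R / r) * M := by nlinarith
  have hstab : ∀ j : ℕ, enc (R ^ (-(1/2) : ℝ)) g
      (pbx κ (25 * M * A ^ 2 * (2 ^ j) ^ 2) R s1 s2 c (Xz z c X0) (fz z f)) ≤
      ENNReal.ofReal (11 ^ 5 * ((25 * M * A ^ 2 * (2 ^ j) ^ 2) * (3 * (R / r) * M)) ^ 21 * D *
        s2 ^ q * scost κ s1 s2 R) := by
    intro j
    have hA' : 1 ≤ 25 * M * A ^ 2 * (2 ^ j) ^ 2 := by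
      have h1 : (1 : ℝ) ≤ (2 ^ j) ^ 2 := one_le_pow₀ (one_le_pow₀ (by norm_num))
      have h2 : 1 ≤ A ^ 2 := one_le_pow₀ hA
      have h3 : 1 ≤ M * A ^ 2 := one_le_mul_of_one_le_of_one_le hM h2
      have h4 : 1 ≤ M * A ^ 2 * (2 ^ j) ^ 2 := one_le_mul_of_one_le_of_one_le h3 h1
      linarith
    have h := Cov369.stab_core hq hκ hκ1 hR1 hA' hM' hD (Cov369.pbx_one hM hκ hR1 hP) hSdR hadmR
    simpa only [Set.univ_inter] using h
  set T : ℝ := 11 ^ 5 * (75 * M ^ 2 * A ^ 2 * (R / r)) ^ 21 * D * s2 ^ q * scost κ s1 s2 R with hT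
  have hscR : 0 < scost κ s1 s2 R := scost_nn hs1 hs2 hR0
  have hT0 : 0 ≤ T := by rw [hT]; positivity
  have hsum : ∑' j : ℕ, ENNReal.ofReal (((2 : ℝ) ^ (43 * j))⁻¹) * enc (R ^ (-(1/2) : ℝ)) g
      (pbx κ (25 * M * A ^ 2 * (2 ^ j) ^ 2) R s1 s2 c (Xz z c X0) (fz z f)) ≤
      ENNReal.ofReal (T * 2) := by
    rw [← tsum_half hT0]
    refine ENNReal.tsum_le_tsum fun j => ?_
    refine (mul_le_mul' le_rfl (hstab j)).trans ?_
    rw [← ENNReal.ofReal_mul (by positivity)]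
    refine ENNReal.ofReal_le_ofReal (le_of_eq ?_)
    rw [hT]
    have e1 : ((25 * M * A ^ 2 * (2 ^ j) ^ 2) * (3 * (R / r) * M)) ^ 21 =
        (75 * M ^ 2 * A ^ 2 * (R / r)) ^ 21 * (2 : ℝ) ^ (42 * j) := by
      rw [show (25 * M * A ^ 2 * (2 ^ j) ^ 2) * (3 * (R / r) * M) =
        (75 * M ^ 2 * A ^ 2 * (R / r)) * (2 ^ j) ^ 2 by ring, mul_pow, ← pow_mul, ← pow_mul]
      congr 2
      ring
    have e2 : ((2 : ℝ) ^ (43 * j))⁻¹ * (2 : ℝ) ^ (42 * j) = (1 / 2 : ℝ) ^ j := by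
      rw [show 43 * j = 42 * j + j by ring, pow_add, mul_inv, one_div, inv_pow]
      field_simp
    rw [e1]
    calc ((2 : ℝ) ^ (43 * j))⁻¹ * (11 ^ 5 * ((75 * M ^ 2 * A ^ 2 * (R / r)) ^ 21 *
          (2 : ℝ) ^ (42 * j)) * D * s2 ^ q * scost κ s1 s2 R) =
        (11 ^ 5 * (75 * M ^ 2 * A ^ 2 * (R / r)) ^ 21 * D * s2 ^ q * scost κ s1 s2 R) *
          (((2 : ℝ) ^ (43 * j))⁻¹ * (2 : ℝ) ^ (42 * j)) := by ring
      _ = _ := by rw [e2]
  refine hlev.trans ((mul_le_mul' le_rfl hsum).trans ?_)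
  rw [← ENNReal.ofReal_mul (by positivity), hratio]
  refine ENNReal.ofReal_le_ofReal ?_
  have hup := scost_up hκ hs1 hs2 hr0 hrR
  set B : ℝ := R / r with hB
  have hB0 : 0 ≤ B := by linarith
  rw [hT]
  calc K ^ 2 * (49 * B) * cd3 E3 ^ 2 * 2 ^ 43 * 36 *
        (11 ^ 5 * (75 * M ^ 2 * A ^ 2 * B) ^ 21 * D * s2 ^ q * scost κ s1 s2 R * 2) ≤
      K ^ 2 * (49 * B) * cd3 E3 ^ 2 * 2 ^ 43 * 36 *
        (11 ^ 5 * (75 * M ^ 2 * A ^ 2 * B) ^ 21 * D * s2 ^ q * (B ^ 3 * scost κ s1 s2 r) * 2) := by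
        gcongr
    _ = K ^ 2 * 49 * cd3 E3 ^ 2 * 2 ^ 43 * 36 * (11 ^ 5 * (75 * M ^ 2 * A ^ 2) ^ 21 * 2) *
        B ^ 25 * D * s2 ^ q * scost κ s1 s2 r := by
        rw [mul_pow (75 * M ^ 2 * A ^ 2) B 21]
        ring

end Crest.Agent.R116.Ba449
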