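import Crest.Agent.R138.MK6_877

/-!
# R116, K-TEXT II-c (A1), finite core (helper863)

Trilinear Kakeya in `R^3` for a shaded uniform family of lines with non-narrow fans.
`S` = lines `(A + s V, s)`, `Z` = heights `φ k`, `al` = alive, `(a, b)` = coordinates at height `k`
up to a shift `c k` and an error `r w`; `K` = number of cells of side `w` at every height; every
line is alive at a `lam`-part of the heights; an interval of length `w` has at most an `η`-part of
the heights.  If no strip of half-width `ν` in velocity space carries more than half of the lines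
of a popular cell, then `lam ^ 3 ≤ C η r^3 ν^{-26} R^ε √K`.
-/

set_option autoImplicit false
set_option linter.unusedVariables false

namespace Crest.Agent.R116.Bc863

open Finset
open Crest.Agent.R138.MK877 (nonnarrow_kakeya Near pt dir InStrip)

/-- the lines of `S` alive at `k` in the cell `q` -/
noncomputable def fib {ι : Type} (S : Finset ι) (al : ι → ℕ → Prop) (a b : ι → ℕ → ℝ) (w : ℝ)
    (k : ℕ) (q : ℤ × ℤ) : Finset ι :=
  haveI := Classical.propDecidable
  S.filter fun i => al i k ∧ (⌊a i k / w⌋, ⌊b i k / w⌋) = q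

/-- the lines of `S` alive at `k` -/
noncomputable def alv {ι : Type} (S : Finset ι) (al : ι → ℕ → Prop) (k : ℕ) : Finset ι :=
  haveI := Classical.propDecidable
  S.filter fun i => al i k

/-- the cells met at `k` -/
noncomputable def cls {ι : Type} (S : Finset ι) (al : ι → ℕ → Prop) (a b : ι → ℕ → ℝ) (w : ℝ)
    (k : ℕ) : Finset (ℤ × ℤ) :=
  (alv S al k).image fun i => (⌊a i k / w⌋, ⌊b i k / w⌋)

theorem mem_fib {ι : Type} {S : Finset ι} {al : ι → ℕ → Prop} {a b : ι → ℕ → ℝ} {w : ℝ}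
    {k : ℕ} {q : ℤ × ℤ} {i : ι} : i ∈ fib S al a b w k q ↔
      i ∈ S ∧ al i k ∧ (⌊a i k / w⌋, ⌊b i k / w⌋) = q := by
  unfold fib
  simp

theorem sum_fib {ι : Type} (S : Finset ι) (al : ι → ℕ → Prop) (a b : ι → ℕ → ℝ) (w : ℝ) (k : ℕ) :
    ∑ q ∈ cls S al a b w k, (fib S al a b w k q).card = (alv S al k).card := by
  classical
  rw [Finset.card_eq_sum_card_image (fun i => ((⌊a i k / w⌋, ⌊b i k / w⌋) : ℤ × ℤ)) (alv S al k)]
  refine Finset.sum_congr rfl fun q _ => ?_
  congr 1
  unfold fib alv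
  ext i
  simp only [Finset.mem_filter]
  tauto

/-- **finite core of (A1)** -/
theorem core (ε : ℝ) (hε : 0 < ε) : ∃ C : ℝ, 0 < C ∧
    ∀ {ι : Type} (S : Finset ι) (Z : Finset ℕ) (φ : ℕ → ℝ) (al : ι → ℕ → Prop)
      (a b : ι → ℕ → ℝ) (A V : ι → ℝ × ℝ) (c : ℕ → ℝ × ℝ) (w r R K lam η ν M : ℝ),
      0 < w → 1 ≤ r → 1 ≤ R → 0 < K → 0 < lam → lam ≤ 1 → 0 < η → 0 < ν → ν ≤ 1 →
      2 * M / w + r + 2 ≤ R → S.Nonempty → Z.Nonempty →
      (∀ i ∈ S, |(V i).1| ≤ 1 ∧ |(V i).2| ≤ 1) →
      (∀ i ∈ S, |(A i).1| ≤ M ∧ |(A i).2| ≤ M) → (∀ k ∈ Z, |φ k| ≤ M) →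
      (∀ k ∈ Z, ∀ i ∈ S, al i k → |a i k - ((A i).1 + φ k * (V i).1 + (c k).1)| ≤ r * w ∧
        |b i k - ((A i).2 + φ k * (V i).2 + (c k).2)| ≤ r * w) →
      (∀ k ∈ Z, ((cls S al a b w k).card : ℝ) ≤ K) →
      (∀ i ∈ S, lam * (Z.card : ℝ) ≤
        (haveI := Classical.propDecidable; (Z.filter fun k => al i k).card : ℝ)) →
      (∀ k ∈ Z, ((Z.filter fun k' => |φ k' - φ k| ≤ w).card : ℝ) ≤ η * Z.card) →
      (∀ k ∈ Z, ∀ i ∈ S, al i k →
        lam * (S.card : ℝ) / (4 * K) ≤
          ((fib S al a b w k (⌊a i k / w⌋, ⌊b i k / w⌋)).card : ℝ) →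
        ∀ u n : ℝ × ℝ, n.1 ^ 2 + n.2 ^ 2 = 1 →
          haveI := Classical.decPred fun l => InStrip ν u n (V l)
          (((fib S al a b w k (⌊a i k / w⌋, ⌊b i k / w⌋)).filter
            fun l => InStrip ν u n (V l)).card : ℝ) ≤
            ((fib S al a b w k (⌊a i k / w⌋, ⌊b i k / w⌋)).card : ℝ) / 2) →
      lam ^ 3 ≤ C * η * (r + 1) ^ 3 * (ν⁻¹) ^ 26 * R ^ ε * √K := by
  obtain ⟨C, hC, key⟩ := nonnarrow_kakeya ε hε
  refine ⟨32 * C, by positivity, ?_⟩
  intro ι S Z φ al a b A V c w r R K lam η ν M hw hr hR hK hlam hlam1 hη hν hν1 hRM hSn hZn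
    hV hA hφ hab hcell hal hfr hnn
  classical
  have hS0 : 0 < (S.card : ℝ) := by exact_mod_cast hSn.card_pos
  have hZ0 : 0 < (Z.card : ℝ) := by exact_mod_cast hZn.card_pos
  -- rich heights
  set Sk : ℕ → Finset ι := fun k => alv S al k with hSk
  have hSkle : ∀ k, ((Sk k).card : ℝ) ≤ S.card := fun k => by
    exact_mod_cast Finset.card_le_card (by
      intro i hi
      simp only [hSk, alv, Finset.mem_filter] at hi
      exact hi.1)
  have e1 : lam * (Z.card : ℝ) * S.card ≤ ∑ k ∈ Z, ((Sk k).card : ℝ) := by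
    have h1 : ∑ i ∈ S, (Z.filter fun k => al i k).card = ∑ k ∈ Z, (Sk k).card := by
      have : ∀ k, (Sk k).card = ∑ i ∈ S, if al i k then 1 else 0 := by
        intro k
        simp only [hSk, alv, Finset.card_filter]
      simp only [Finset.card_filter]
      rw [Finset.sum_comm]
      exact Finset.sum_congr rfl fun k _ => (this k).symm
    have h2 : (∑ i ∈ S, ((Z.filter fun k => al i k).card : ℝ)) = ∑ k ∈ Z, ((Sk k).card : ℝ) := by
      exact_mod_cast h1
    rw [← h2]
    calc lam * (Z.card : ℝ) * S.card = ∑ i ∈ S, lam * (Z.card : ℝ) := by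
          rw [Finset.sum_const, nsmul_eq_mul]; ring
      _ ≤ _ := Finset.sum_le_sum fun i hi => by
          have := hal i hi
          convert this
  set Z1 := Z.filter fun k => lam / 2 * (S.card : ℝ) ≤ (Sk k).card with hZ1
  have e2 : lam / 2 * (Z.card : ℝ) ≤ Z1.card := by
    have h1 : ∑ k ∈ Z, ((Sk k).card : ℝ) ≤ (Z1.card : ℝ) * S.card +
        Z.card * (lam / 2 * S.card) := by
      calc ∑ k ∈ Z, ((Sk k).card : ℝ)
          ≤ ∑ k ∈ Z, ((if lam / 2 * (S.card : ℝ) ≤ (Sk k).card then (S.card : ℝ) else 0) +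
              lam / 2 * S.card) := by
            refine Finset.sum_le_sum fun k _ => ?_
            split_ifs with h
            · have := hSkle k
              have h3 : 0 ≤ lam / 2 * (S.card : ℝ) := by positivity
              linarith
            · push Not at h
              linarith
        _ = _ := by
            rw [Finset.sum_add_distrib, Finset.sum_const, nsmul_eq_mul, ← Finset.sum_filter,
              Finset.sum_const, nsmul_eq_mul]
    have h2 : lam / 2 * (Z.card : ℝ) * S.card ≤ (Z1.card : ℝ) * S.card := by nlinarith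
    exact le_of_mul_le_mul_right h2 hS0
  -- cells of heights
  set T : Finset ℤ := Z1.image fun k => ⌊φ k / w⌋ with hT
  have e3 : lam / (2 * η) ≤ T.card := by
    have h1 : (Z1.card : ℝ) ≤ T.card * (η * Z.card) := by
      rw [Finset.card_eq_sum_card_image (fun k => ⌊φ k / w⌋) Z1]
      push_cast
      rw [← nsmul_eq_mul, ← Finset.sum_const]
      refine Finset.sum_le_sum fun t ht => ?_
      obtain ⟨k, hk, rfl⟩ := Finset.mem_image.1 ht
      refine le_trans ?_ (hfr k (Finset.mem_filter.1 hk).1)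
      exact_mod_cast Finset.card_le_card (by
        intro k' hk'
        obtain ⟨c1, c2⟩ := Finset.mem_filter.1 hk'
        refine Finset.mem_filter.2 ⟨(Finset.mem_filter.1 c1).1, ?_⟩
        have h5 := Int.abs_sub_lt_one_of_floor_eq_floor c2
        rw [← sub_div, abs_div, abs_of_pos hw, div_lt_one hw] at h5
        exact h5.le)
    have h2 : lam / 2 * (Z.card : ℝ) ≤ T.card * η * Z.card := by
      calc _ ≤ _ := e2
        _ ≤ _ := h1
        _ = _ := by ring
    have h3 := le_of_mul_le_mul_right h2 hZ0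
    rw [div_le_iff₀ (by positivity)]
    linarith
  have hrep : ∀ t : ℤ, ∃ k, t ∈ T → k ∈ Z1 ∧ ⌊φ k / w⌋ = t := by
    intro t
    by_cases ht : t ∈ T
    · obtain ⟨k, hk, hkt⟩ := Finset.mem_image.1 ht
      exact ⟨k, fun _ => ⟨hk, hkt⟩⟩
    · exact ⟨0, fun h => absurd h ht⟩
  choose rep hrep using hrep
  -- popular cells
  set th : ℝ := lam * (S.card : ℝ) / (4 * K) with hth
  have hth0 : 0 < th := by positivity
  set P : ℕ → Finset (ℤ × ℤ) := fun k => (cls S al a b w k).filter fun q =>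
    th ≤ ((fib S al a b w k q).card : ℝ) with hP
  have e4 : ∀ k ∈ Z1, lam * (S.card : ℝ) / 4 ≤ ∑ q ∈ P k, ((fib S al a b w k q).card : ℝ) := by
    intro k hk
    obtain ⟨hkZ, hkr⟩ := Finset.mem_filter.1 hk
    have h1 : ((Sk k).card : ℝ) = ∑ q ∈ cls S al a b w k, ((fib S al a b w k q).card : ℝ) := by
      exact_mod_cast (sum_fib S al a b w k).symm
    have h2 : ∑ q ∈ cls S al a b w k, ((fib S al a b w k q).card : ℝ) ≤
        ∑ q ∈ P k, ((fib S al a b w k q).card : ℝ) + (cls S al a b w k).card * th := by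
      calc _ ≤ ∑ q ∈ cls S al a b w k, ((if th ≤ ((fib S al a b w k q).card : ℝ) then
              ((fib S al a b w k q).card : ℝ) else 0) + th) := by
            refine Finset.sum_le_sum fun q _ => ?_
            split_ifs with h
            · linarith
            · push Not at h
              linarith
        _ = _ := by
            rw [Finset.sum_add_distrib, Finset.sum_const, nsmul_eq_mul, ← Finset.sum_filter]
    have h3 : ((cls S al a b w k).card : ℝ) * th ≤ lam * (S.card : ℝ) / 4 := by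
      calc _ ≤ K * th := mul_le_mul_of_nonneg_right (hcell k hkZ) hth0.le
        _ = _ := by rw [hth]; field_simp
    linarith
  -- the points
  set s1 : ℕ → ℤ := fun k => ⌊(c k).1 / w⌋ with hs1
  set s2 : ℕ → ℤ := fun k => ⌊(c k).2 / w⌋ with hs2
  set pnt : ℤ × (ℤ × ℤ) → (Fin 3 → ℤ) := fun p =>
    ![p.2.1 - s1 (rep p.1), p.2.2 - s2 (rep p.1), p.1] with hpnt
  have hinj : Function.Injective pnt := by
    intro p p' h
    have h2 : p.1 = p'.1 := by simpa [hpnt] using congrFun h 2
    have h0 : p.2.1 = p'.2.1 := by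
      have := congrFun h 0
      simp only [hpnt, Matrix.cons_val_zero] at this
      rw [h2] at this
      linarith
    have h1 : p.2.2 = p'.2.2 := by
      have := congrFun h 1
      simp only [hpnt, Matrix.cons_val_one] at this
      rw [h2] at this
      simpa using this
    exact Prod.ext h2 (Prod.ext h0 h1)
  set X0 : Finset (ℤ × (ℤ × ℤ)) := T.biUnion fun t => (P (rep t)).image fun q => (t, q) with hX0
  set X : Finset (Fin 3 → ℤ) := X0.image pnt with hX
  set AA : (Fin 3 → ℤ) → Finset ι := fun x =>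
    fib S al a b w (rep (x 2)) (x 0 + s1 (rep (x 2)), x 1 + s2 (rep (x 2))) with hAA
  have hAApnt : ∀ t q, AA (pnt (t, q)) = fib S al a b w (rep t) q := by
    intro t q
    simp [hAA, hpnt]
  have hmemX0 : ∀ t q, (t, q) ∈ X0 → t ∈ T ∧ q ∈ P (rep t) := by
    intro t q h
    rw [hX0, Finset.mem_biUnion] at h
    obtain ⟨t', ht', h'⟩ := h
    obtain ⟨q', hq', h''⟩ := Finset.mem_image.1 h'
    obtain ⟨rfl, rfl⟩ := Prod.mk.inj h''
    exact ⟨ht', hq'⟩
  -- data of a point
  have hnear0 : ∀ t q, (t, q) ∈ X0 → ∀ l ∈ fib S al a b w (rep t) q,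
      |((q.1 - s1 (rep t) : ℤ) : ℝ) - (A l).1 / w - φ (rep t) / w * (V l).1| ≤ r + 1 ∧
      |((q.2 - s2 (rep t) : ℤ) : ℝ) - (A l).2 / w - φ (rep t) / w * (V l).2| ≤ r + 1 ∧
      |(t : ℝ) - φ (rep t) / w| ≤ 1 := by
    intro t q htq l hl
    obtain ⟨ht, hq⟩ := hmemX0 t q htq
    obtain ⟨hrk, hrt⟩ := hrep t ht
    have hkZ : rep t ∈ Z := (Finset.mem_filter.1 hrk).1
    have hl' : l ∈ S ∧ al l (rep t) ∧ (⌊a l (rep t) / w⌋, ⌊b l (rep t) / w⌋) = q := mem_fib.1 hl
    obtain ⟨hlS, hla, hlq⟩ := hl'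
    obtain ⟨g1, g2⟩ := hab _ hkZ l hlS hla
    have fl : ∀ (y cc AV : ℝ), |y - (AV + cc)| ≤ r * w →
        |((⌊y / w⌋ - ⌊cc / w⌋ : ℤ) : ℝ) - AV / w| ≤ r + 1 := by
      intro y cc AV h
      have h1 : |(y - (AV + cc)) / w| ≤ r := by
        rw [abs_div, abs_of_pos hw, div_le_iff₀ hw]; exact h
      have f1 := Int.floor_le (y / w)
      have f2 := Int.lt_floor_add_one (y / w)
      have f3 := Int.floor_le (cc / w)
      have f4 := Int.lt_floor_add_one (cc / w)
      have h2 : (y - (AV + cc)) / w = y / w - AV / w - cc / w := by ring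
      rw [h2, abs_le] at h1
      push_cast
      rw [abs_le]
      constructor <;> linarith [h1.1, h1.2]
    refine ⟨?_, ?_, ?_⟩
    · have := fl (a l (rep t)) (c (rep t)).1 ((A l).1 + φ (rep t) * (V l).1) (by
        exact g1)
      rw [← hlq]
      have e : ((A l).1 + φ (rep t) * (V l).1) / w = (A l).1 / w + φ (rep t) / w * (V l).1 := by
        ring
      rw [e] at this
      have e2 : (((⌊a l (rep t) / w⌋, ⌊b l (rep t) / w⌋) : ℤ × ℤ).1 - s1 (rep t) : ℤ) =
        ⌊a l (rep t) / w⌋ - ⌊(c (rep t)).1 / w⌋ := rfl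
      rw [e2, sub_sub]
      exact this
    · have := fl (b l (rep t)) (c (rep t)).2 ((A l).2 + φ (rep t) * (V l).2) (by
        exact g2)
      rw [← hlq]
      have e : ((A l).2 + φ (rep t) * (V l).2) / w = (A l).2 / w + φ (rep t) / w * (V l).2 := by
        ring
      rw [e] at this
      have e2 : (((⌊a l (rep t) / w⌋, ⌊b l (rep t) / w⌋) : ℤ × ℤ).2 - s2 (rep t) : ℤ) =
        ⌊b l (rep t) / w⌋ - ⌊(c (rep t)).2 / w⌋ := rfl
      rw [e2, sub_sub]
      exact this
    · have f0 : (t : ℝ) = (⌊φ (rep t) / w⌋ : ℤ) := by rw [hrt]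
      have f1 := Int.floor_le (φ (rep t) / w)
      have f2 := Int.lt_floor_add_one (φ (rep t) / w)
      rw [abs_le]
      constructor <;> linarith
  have hne : ∀ t q, (t, q) ∈ X0 → (fib S al a b w (rep t) q).Nonempty := by
    intro t q htq
    obtain ⟨ht, hq⟩ := hmemX0 t q htq
    have h1 := (Finset.mem_filter.1 hq).2
    rw [← Finset.card_pos]
    have : (0 : ℝ) < ((fib S al a b w (rep t) q).card : ℝ) := lt_of_lt_of_le hth0 h1
    exact_mod_cast this
  have hfibS : ∀ k q, ∀ l ∈ fib S al a b w k q, l ∈ S := by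
    intro k q l hl
    exact (mem_fib.1 hl).1
  -- application
  have happ := key S (fun l => ![(A l).1 / w, (A l).2 / w, 0]) V (fun _ => 1)
    (fun _ _ => zero_le_one) ν (r + 1) R hν hν1 (by linarith) hR hV X
    (by
      intro x hx i
      obtain ⟨⟨t, q⟩, htq, rfl⟩ := Finset.mem_image.1 hx
      obtain ⟨l, hl⟩ := hne t q htq
      obtain ⟨n1, n2, n3⟩ := hnear0 t q htq l hl
      obtain ⟨ht, hq⟩ := hmemX0 t q htq
      obtain ⟨hrk, hrt⟩ := hrep t ht
      have hkZ : rep t ∈ Z := (Finset.mem_filter.1 hrk).1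
      have b1 := hφ _ hkZ
      have b2 := hA l (hfibS _ _ l hl)
      have b3 := hV l (hfibS _ _ l hl)
      have hM : 0 ≤ M := (abs_nonneg _).trans b1
      have hMw : 0 ≤ M / w := by positivity
      have c1 : |φ (rep t) / w| ≤ M / w := by
        rw [abs_div, abs_of_pos hw]; exact div_le_div_of_nonneg_right b1 hw.le
      have c2 : ∀ y v z : ℝ, |y| ≤ M → |v| ≤ 1 → |z - y / w - φ (rep t) / w * v| ≤ r + 1 →
          |z| ≤ R := by
        intro y v z hy hv hz
        have c3 : |y / w| ≤ M / w := by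
          rw [abs_div, abs_of_pos hw]; exact div_le_div_of_nonneg_right hy hw.le
        have c4 : |φ (rep t) / w * v| ≤ M / w := by
          rw [abs_mul]
          calc _ ≤ M / w * 1 := mul_le_mul c1 hv (abs_nonneg _) hMw
            _ = _ := mul_one _
        have c5 : z = (z - y / w - φ (rep t) / w * v) + y / w + φ (rep t) / w * v := by ring
        have c6 : 2 * M / w = M / w + M / w := by ring
        rw [c5]
        have c7 := abs_add_le ((z - y / w - φ (rep t) / w * v) + y / w) (φ (rep t) / w * v)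
        have c8 := abs_add_le (z - y / w - φ (rep t) / w * v) (y / w)
        linarith
      fin_cases i
      · exact c2 _ _ _ b2.1 b3.1 n1
      · exact c2 _ _ _ b2.2 b3.2 n2
      · show |(t : ℝ)| ≤ R
        have c5 : (t : ℝ) = (t - φ (rep t) / w) + φ (rep t) / w := by ring
        rw [c5]
        have c7 := abs_add_le ((t : ℝ) - φ (rep t) / w) (φ (rep t) / w)
        have c6 : 2 * M / w = M / w + M / w := by ring
        linarith)
    AA
    (by
      intro x hx
      intro l hl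
      exact hfibS _ _ l hl)
    (by
      intro x hx l hl
      obtain ⟨⟨t, q⟩, htq, rfl⟩ := Finset.mem_image.1 hx
      rw [hAApnt] at hl
      obtain ⟨n1, n2, n3⟩ := hnear0 t q htq l hl
      refine ⟨φ (rep t) / w, fun i => ?_⟩
      fin_cases i
      · simpa [pt, dir, hpnt] using n1
      · simpa [pt, dir, hpnt] using n2
      · have : |(t : ℝ) - 0 - φ (rep t) / w * 1| ≤ r + 1 := by
          rw [sub_zero, mul_one]; linarith
        simpa [pt, dir, hpnt] using this)
    (by
      intro x hx u n hn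
      obtain ⟨⟨t, q⟩, htq, rfl⟩ := Finset.mem_image.1 hx
      rw [hAApnt]
      obtain ⟨l, hl⟩ := hne t q htq
      obtain ⟨ht, hq⟩ := hmemX0 t q htq
      obtain ⟨hrk, hrt⟩ := hrep t ht
      have hkZ : rep t ∈ Z := (Finset.mem_filter.1 hrk).1
      have hl' : l ∈ S ∧ al l (rep t) ∧ (⌊a l (rep t) / w⌋, ⌊b l (rep t) / w⌋) = q := mem_fib.1 hl
      obtain ⟨hlS, hla, hlq⟩ := hl'
      have h1 := hnn _ hkZ l hlS hla (by rw [hlq]; exact (Finset.mem_filter.1 hq).2) u n hn
      rw [hlq] at h1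
      simp only [Finset.sum_const, nsmul_eq_mul, mul_one]
      convert h1)
  -- lower bound of the sum
  have hlow : (T.card : ℝ) * ((lam * (S.card : ℝ) / 4) * √th) ≤
      ∑ x ∈ X, √(∑ l ∈ AA x, (1 : ℝ)) ^ 3 := by
    have h1 : ∑ x ∈ X, √(∑ l ∈ AA x, (1 : ℝ)) ^ 3 =
        ∑ p ∈ X0, √((fib S al a b w (rep p.1) p.2).card : ℝ) ^ 3 := by
      rw [hX, Finset.sum_image (fun p _ p' _ h => hinj h)]
      refine Finset.sum_congr rfl fun p _ => ?_
      have := hAApnt p.1 p.2
      rw [show pnt p = pnt (p.1, p.2) from rfl, this]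
      simp
    have h2 : ∑ p ∈ X0, √((fib S al a b w (rep p.1) p.2).card : ℝ) ^ 3 =
        ∑ t ∈ T, ∑ q ∈ P (rep t), √((fib S al a b w (rep t) q).card : ℝ) ^ 3 := by
      rw [hX0, Finset.sum_biUnion]
      · refine Finset.sum_congr rfl fun t _ => ?_
        rw [Finset.sum_image]
        intro q _ q' _ h
        exact (Prod.mk.inj h).2
      · intro t _ t' _ htt
        rw [Function.onFun, Finset.disjoint_left]
        intro p hp hp'
        obtain ⟨q, _, rfl⟩ := Finset.mem_image.1 hp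
        obtain ⟨q', _, h⟩ := Finset.mem_image.1 hp'
        exact htt (Prod.mk.inj h).1.symm
    rw [h1, h2, ← nsmul_eq_mul, ← Finset.sum_const]
    refine Finset.sum_le_sum fun t ht => ?_
    obtain ⟨hrk, hrt⟩ := hrep t ht
    have h3 := e4 (rep t) hrk
    calc lam * (S.card : ℝ) / 4 * √th
        ≤ (∑ q ∈ P (rep t), ((fib S al a b w (rep t) q).card : ℝ)) * √th :=
          mul_le_mul_of_nonneg_right h3 (Real.sqrt_nonneg _)
      _ = ∑ q ∈ P (rep t), ((fib S al a b w (rep t) q).card : ℝ) * √th := Finset.sum_mul _ _ _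
      _ ≤ _ := by
          refine Finset.sum_le_sum fun q hq => ?_
          have h4 := (Finset.mem_filter.1 hq).2
          set μ := ((fib S al a b w (rep t) q).card : ℝ) with hμ
          have hμ0 : 0 ≤ μ := Nat.cast_nonneg _
          have h5 : √th ≤ √μ := Real.sqrt_le_sqrt h4
          calc μ * √th ≤ μ * √μ := mul_le_mul_of_nonneg_left h5 hμ0
            _ = √μ ^ 3 := by
                rw [show √μ ^ 3 = (√μ * √μ) * √μ by ring, Real.mul_self_sqrt hμ0]
  have hup : √(∑ l ∈ S, (1 : ℝ)) ^ 3 = (S.card : ℝ) * √(S.card : ℝ) := by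
    have : (∑ l ∈ S, (1 : ℝ)) = S.card := by simp
    rw [this, show √(S.card : ℝ) ^ 3 = (√(S.card : ℝ) * √(S.card : ℝ)) * √(S.card : ℝ) by ring,
      Real.mul_self_sqrt hS0.le]
  rw [hup] at happ
  have hth' : √th = √lam / 2 * √(S.card : ℝ) / √K := by
    rw [hth, Real.sqrt_div (by positivity), Real.sqrt_mul hlam.le,
      Real.sqrt_mul (by norm_num : (0 : ℝ) ≤ 4), show √(4 : ℝ) = 2 by
        rw [show (4 : ℝ) = 2 ^ 2 by norm_num]; exact Real.sqrt_sq (by norm_num)]
    have : √K ≠ 0 := (Real.sqrt_pos.2 hK).ne'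
    field_simp
  have hsK : 0 < √K := Real.sqrt_pos.2 hK
  have hsS : 0 < √(S.card : ℝ) := Real.sqrt_pos.2 hS0
  set G := C * (r + 1) ^ 3 * (ν⁻¹) ^ 26 * R ^ ε with hG
  have hG0 : 0 ≤ G := by positivity
  have f1 : lam / (2 * η) * ((lam * (S.card : ℝ) / 4) * (√lam / 2 * √(S.card : ℝ) / √K)) ≤
      G * ((S.card : ℝ) * √(S.card : ℝ)) := by
    calc _ ≤ (T.card : ℝ) * ((lam * (S.card : ℝ) / 4) * √th) := by
          rw [← hth']
          exact mul_le_mul_of_nonneg_right e3 (by positivity)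
      _ ≤ _ := hlow
      _ ≤ _ := happ
  have f2 : lam * lam * √lam / (16 * η * √K) * ((S.card : ℝ) * √(S.card : ℝ)) ≤
      G * ((S.card : ℝ) * √(S.card : ℝ)) := by
    refine le_trans (le_of_eq ?_) f1
    field_simp
    ring
  have f3 := le_of_mul_le_mul_right f2 (by positivity)
  rw [div_le_iff₀ (by positivity)] at f3
  have hsl : lam ≤ √lam := by
    rw [Real.le_sqrt hlam.le hlam.le]
    nlinarith
  calc lam ^ 3 = lam * lam * lam := by ring
    _ ≤ lam * lam * √lam := mul_le_mul_of_nonneg_left hsl (by positivity)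
    _ ≤ G * (16 * η * √K) := f3
    _ ≤ 2 * (G * (16 * η * √K)) := by
        have : 0 ≤ G * (16 * η * √K) := by positivity
        linarith
    _ = _ := by rw [hG]; ring

end Crest.Agent.R116.Bc863
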