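import Crest.Agent.R116.BcA_863
import Crest.Agent.R136.Gr2_356

/-!
# R116, K-TEXT II-c (A1): `bct_R` over `RUnif` (helper863)

Two functionals `F1, F2` (positions `X_a`, `N`), velocities `V1, V2` (`C_a`, `C_b`).  If the lines
of the box `pS` through one fine cell are in no narrow strip of velocities, then
`2 τ x ≤ ν pT - ν r`, i.e. the joint codimension of the two positions is `≤ 2 s`, `τ = 1 - s`.
-/

set_option autoImplicit false
set_option linter.unusedVariables false

open Filter Topology Finset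

namespace Crest.Agent.R116.Bc863

open Crest.Agent.R138.Ex926 (Base U)
open Crest.Agent.R136.Gf356
open Crest.Agent.R138.MK877 (InStrip)

/-- shifts of the coordinates at the heights -/
theorem exists_shift {ι : Type} (S : Finset ι) (al : ι → ℕ → Prop) (Zs : Finset ℕ)
    (F : ℕ → ι → ℝ) (L : ℕ → ι → ℝ) {e : ℝ} (he : 0 ≤ e)
    (h : ∀ k ∈ Zs, ∀ i ∈ S, ∀ i' ∈ S, al i k → al i' k →
      |F k i - F k i' - (L k i - L k i')| ≤ e) :
    ∃ c : ℕ → ℝ, ∀ k ∈ Zs, ∀ i ∈ S, al i k → |F k i - (L k i + c k)| ≤ e := by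
  classical
  have : ∀ k, ∃ c : ℝ, k ∈ Zs → ∀ i ∈ S, al i k → |F k i - (L k i + c)| ≤ e := by
    intro k
    by_cases hex : ∃ i ∈ S, al i k
    · obtain ⟨j, hj, hja⟩ := hex
      refine ⟨F k j - L k j, fun hk i hi hia => ?_⟩
      have := h k hk i hi j hj hia hja
      have e1 : F k i - (L k i + (F k j - L k j)) = F k i - F k j - (L k i - L k j) := by ring
      rw [e1]
      exact this
    · exact ⟨0, fun _ i hi hia => absurd ⟨i, hi, hia⟩ hex⟩
  choose c hc using this
  exact ⟨c, fun k hk => hc k hk⟩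

variable {κ : Type} {B : Base} {G : ℕ → RCfg κ} {Leg : Set (κ → ℝ)} {ν : (κ → ℝ) → ℝ} {D : ℝ}

set_option maxHeartbeats 3200000 in
/-- **joint Kakeya on one box (A1)**: hypotheses in the style of 356's `kauf_R`, two functionals,
and `hnn` = no narrow fans. -/
theorem bct_R (H : RUnif B G Leg ν D) (i0 k0 : ℕ → ℕ)
    (h0 : ∀ᶠ n in (U : Filter ℕ), (i0 n, k0 n) ∈ (G n).I) (pS pT r : κ → ℝ)
    (hpS : pS ∈ Leg) (hpT : pT ∈ Leg) (hr : r ∈ Leg) (hTr : ∀ j, pT j ≤ r j)
    (hST : ν pT ≤ ν pS) {x τ : ℝ} (hx : 0 < x) (hτ0 : 0 ≤ τ)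
    (F1 F2 : ℕ → ℕ → ℕ → ℝ) (A1 A2 V1 V2 : ℕ → ℕ → ℝ) (φ : ℕ → ℕ → ℝ) (Zg : ℕ → Finset ℕ)
    (hZg : ∀ᶠ n in (U : Filter ℕ), (Zg n).Nonempty) {C1 : ℝ} (hC1 : 0 < C1)
    (hφ : ∀ ε : ℝ, 0 < ε → ∀ᶠ n in (U : Filter ℕ), ∀ k ∈ Zg n, |φ n k| ≤ B.d n ^ (-(C1 * ε)))
    (hV : ∀ ε : ℝ, 0 < ε → ∀ᶠ n in (U : Filter ℕ), ∀ i ∈ (G n).box pS ε (i0 n) (k0 n),
      ∀ i' ∈ (G n).box pS ε (i0 n) (k0 n), |V1 n i - V1 n i'| ≤ B.d n ^ (-(C1 * ε)) ∧
        |V2 n i - V2 n i'| ≤ B.d n ^ (-(C1 * ε)))
    (hA : ∀ ε : ℝ, 0 < ε → ∀ᶠ n in (U : Filter ℕ), ∀ i ∈ (G n).box pS ε (i0 n) (k0 n),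
      ∀ i' ∈ (G n).box pS ε (i0 n) (k0 n), |A1 n i - A1 n i'| ≤ B.d n ^ (-(C1 * ε)) ∧
        |A2 n i - A2 n i'| ≤ B.d n ^ (-(C1 * ε)))
    (hF : ∀ ε : ℝ, 0 < ε → ∀ᶠ n in (U : Filter ℕ), ∀ k ∈ Zg n,
      ∀ i ∈ (G n).box pS ε (i0 n) (k0 n), ∀ i' ∈ (G n).box pS ε (i0 n) (k0 n),
      (i, k) ∈ (G n).I → (i', k) ∈ (G n).I →
      |F1 n k i - F1 n k i' - ((A1 n i - A1 n i') + φ n k * (V1 n i - V1 n i'))|
        ≤ B.d n ^ (x - C1 * ε) ∧
      |F2 n k i - F2 n k i' - ((A2 n i - A2 n i') + φ n k * (V2 n i - V2 n i'))|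
        ≤ B.d n ^ (x - C1 * ε))
    (hlink : ∀ ε : ℝ, 0 < ε → ∀ᶠ n in (U : Filter ℕ), ∀ k ∈ Zg n,
      ∀ i ∈ (G n).box pS ε (i0 n) (k0 n), (i, k) ∈ (G n).I → ∀ l, (l, k) ∈ (G n).I →
      (G n).loose r ε k i l → |F1 n k l - F1 n k i| ≤ B.d n ^ (x - C1 * ε) ∧
        |F2 n k l - F2 n k i| ≤ B.d n ^ (x - C1 * ε))
    (hT : ∀ ε : ℝ, 0 < ε → ∀ᶠ n in (U : Filter ℕ), ∀ k ∈ Zg n,
      ∀ i ∈ (G n).box pS ε (i0 n) (k0 n), ∀ i' ∈ (G n).box pS ε (i0 n) (k0 n),
      (i, k) ∈ (G n).I → (i', k) ∈ (G n).I → (G n).loose pT (C1 * ε) k i i')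
    (hal : ∀ ε : ℝ, 0 < ε → ∀ᶠ n in (U : Filter ℕ), ∀ i ∈ (G n).box pS ε (i0 n) (k0 n),
      ∀ T ⊆ Zg n, (∀ k ∈ Zg n, (i, k) ∈ (G n).I → k ∈ T) →
      B.d n ^ (C1 * ε) * ((Zg n).card : ℝ) ≤ (T.card : ℝ))
    {q C5 ρ0 : ℝ} (hq : 0 < q) (hC5 : 0 < C5) (hρ0 : 0 < ρ0)
    (hnn : ∀ ρ : ℝ, 0 < ρ → ρ ≤ ρ0 → ∀ ε : ℝ, 0 < ε → ε ≤ ρ → ∀ᶠ n in (U : Filter ℕ),
      ∀ k ∈ Zg n, ∀ i ∈ (G n).box pS ε (i0 n) (k0 n), (i, k) ∈ (G n).I →
      ∀ e1 e2 u : ℝ, e1 ^ 2 + e2 ^ 2 = 1 →
      ∀ T ⊆ (G n).box pS ε (i0 n) (k0 n), (∀ l ∈ T, (l, k) ∈ (G n).I ∧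
        |F1 n k l - F1 n k i| ≤ B.d n ^ (x - (C1 + 1) * ε) ∧
        |F2 n k l - F2 n k i| ≤ B.d n ^ (x - (C1 + 1) * ε) ∧
        |V1 n l * e1 + V2 n l * e2 - u| ≤ B.d n ^ ρ) →
      (T.card : ℝ) ≤ B.d n ^ (-ν r + q * ρ - C5 * ε))
    (hfr : ∀ ε : ℝ, 0 < ε → ∀ᶠ n in (U : Filter ℕ), ∀ k ∈ Zg n,
      ∀ T ⊆ Zg n, (∀ k' ∈ T, |φ n k' - φ n k| ≤ B.d n ^ x) →
      (T.card : ℝ) ≤ B.d n ^ (τ * x - ε) * ((Zg n).card : ℝ)) :
    2 * τ * x ≤ ν pT - ν r := by
  classical
  have hD := H.D1
  have hD0 : 0 < D := by linarith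
  set C : ℝ := C1 + 1 with hC
  have hCpos : 0 < C := by linarith
  set E : ℝ := D * (D * C) + 1 with hE
  have hE0 : 0 < E := by positivity
  set C6 : ℝ := (C5 + C1 + E + 3) / q + 1 with hC6
  have hC60 : 0 < C6 := by positivity
  have hC6q : q * C6 = C5 + C1 + E + 3 + q := by rw [hC6]; field_simp
  set Ctot : ℝ := 3 * C1 + 30 * (C6 + C) + x + E + 10 with hCtot
  have hCtot0 : 0 < Ctot := by positivity
  have main : τ * x - (ν pT - ν r) / 2 ≤ 0 := by
    refine le_of_ev B 0 (τ * x - (ν pT - ν r) / 2) Ctot 1 ?_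
    intro ε₀ hε₀
    set ε := min ε₀ (min 1 (ρ0 / C6)) with hεdef
    have hε : 0 < ε := lt_min hε₀ (lt_min one_pos (by positivity))
    have hε1 : ε ≤ 1 := (min_le_right _ _).trans (min_le_left _ _)
    have hερ : C6 * ε ≤ ρ0 := by
      have : ε ≤ ρ0 / C6 := (min_le_right _ _).trans (min_le_right _ _)
      rw [le_div_iff₀ hC60] at this
      linarith
    have hεε : ε ≤ ε₀ := min_le_left _ _
    have hρ : 0 < C6 * ε := by positivity
    have hC61 : 1 ≤ C6 := by
      rw [hC6]
      have : 0 ≤ (C5 + C1 + E + 3) / q := by positivity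
      linarith
    obtain ⟨CK, hCK, key⟩ := core ε hε
    have hCε : 0 < C * ε := by positivity
    filter_upwards [hZg, hφ ε hε, hV ε hε, hA ε hε, hF ε hε, hlink ε hε, hT ε hε, hal ε hε,
      hnn (C6 * ε) hρ hερ ε hε (by nlinarith), hfr ε hε, h0, H.low pS hpS ε hε, H.low r hr ε hε,
      H.sub_loose_box pT r hpT hTr hCε, H.up pT hpT (D * (C * ε)) (by positivity),
      ev_const_le B hε (CK * 2 ^ 3 * 3), ev_const_le B hε 72, ev_const_le B hε 8]
      with n hZn hφn hVn hAn hFn hlinkn hTn haln hnnn hfrn h0n hlow hlowr hsub hup hcK h72 h8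
    have hpow : ∀ t : ℝ, 0 < B.d n ^ t := fun t => rpos B n t
    have hpow1 : ∀ t : ℝ, 0 ≤ t → B.d n ^ t ≤ 1 := fun t ht =>
      Real.rpow_le_one (B.pos n).le (B.lt n).le ht
    have hpow1' : ∀ t : ℝ, t ≤ 0 → 1 ≤ B.d n ^ t := fun t ht =>
      Real.one_le_rpow_of_pos_of_le_one_of_nonpos (B.pos n) (B.lt n).le ht
    set S := (G n).box pS ε (i0 n) (k0 n) with hS
    have hSlow : B.d n ^ (-ν pS + ε) ≤ (S.card : ℝ) := hlow _ _ h0n
    have hSne : S.Nonempty := by
      rw [← Finset.card_pos]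
      have : (0 : ℝ) < (S.card : ℝ) := lt_of_lt_of_le (hpow _) hSlow
      exact_mod_cast this
    obtain ⟨j0, hj0⟩ := hSne
    set u := B.d n ^ (C * ε) with hu
    have hu0 : 0 < u := hpow _
    have hu1 : u ≤ 1 := hpow1 _ hCε.le
    set w := B.d n ^ (x - C * ε) with hw
    have hw0 : 0 < w := hpow _
    set al : ℕ → ℕ → Prop := fun i k => (i, k) ∈ (G n).I with hal_def
    set AA : ℕ → ℝ × ℝ := fun i => (A1 n i - A1 n j0, A2 n i - A2 n j0) with hAA
    set VV : ℕ → ℝ × ℝ := fun i => (u * (V1 n i - V1 n j0), u * (V2 n i - V2 n j0)) with hVV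
    set ψ : ℕ → ℝ := fun k => φ n k / u with hψ
    have hwle : B.d n ^ (x - C1 * ε) ≤ w := rpow_anti B n (by nlinarith)
    -- shifts
    obtain ⟨c1, hc1⟩ := exists_shift S al (Zg n) (fun k i => F1 n k i)
      (fun k i => (AA i).1 + ψ k * (VV i).1) hw0.le (by
        intro k hk i hi i' hi' hia hia'
        have := (hFn k hk i hi i' hi' hia hia').1
        refine le_trans (le_of_eq ?_) (this.trans hwle)
        congr 1
        simp only [hAA, hVV, hψ]
        field_simp
        ring)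
    obtain ⟨c2, hc2⟩ := exists_shift S al (Zg n) (fun k i => F2 n k i)
      (fun k i => (AA i).2 + ψ k * (VV i).2) hw0.le (by
        intro k hk i hi i' hi' hia hia'
        have := (hFn k hk i hi i' hi' hia hia').2
        refine le_trans (le_of_eq ?_) (this.trans hwle)
        congr 1
        simp only [hAA, hVV, hψ]
        field_simp
        ring)
    -- number of cells
    set K : ℝ := 9 * B.d n ^ (-(ν pT - ν r) - E * ε) with hK
    have hK0 : 0 < K := by have := hpow (-(ν pT - ν r) - E * ε); positivity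
    have hcells : ∀ k ∈ Zg n, ((cls S al (fun i k => F1 n k i) (fun i k => F2 n k i) w k).card : ℝ)
        ≤ K := by
      intro k hk
      set T := alv S al k with hTdef
      have hTm : ∀ i, i ∈ T ↔ i ∈ S ∧ (i, k) ∈ (G n).I := by
        intro i
        simp [hTdef, alv, hal_def]
      rcases T.eq_empty_or_nonempty with hTe | ⟨t0, ht0⟩
      · have : cls S al (fun i k => F1 n k i) (fun i k => F2 n k i) w k = ∅ := by
          unfold cls
          rw [← hTdef, hTe, Finset.image_empty]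
        rw [this]
        simpa using hK0.le
      obtain ⟨b1, b2⟩ := (hTm t0).1 ht0
      have key2 := cells_le_abs T ((G n).box pT (D * (C * ε)) t0 k)
        (fun i (j : Bool) => if j then F1 n k i else F2 n k i)
        (fun _ => w) (fun _ => hw0) (m0 := B.d n ^ (-ν r + ε)) (by
          intro i hi
          obtain ⟨a1, a2⟩ := (hTm i).1 hi
          have hloose : (G n).loose pT (C * ε) k t0 i :=
            H.loose_mono (fun _ => le_rfl) (by nlinarith) (hTn k hk t0 b1 i a1 b2 a2)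
          have hsub2 : (G n).box r ε i k ⊆ (G n).box r (C * ε) i k := by
            intro l hl
            obtain ⟨l1, l2⟩ := RCfg.mem_box.1 hl
            exact RCfg.mem_box.2 ⟨l1, H.loose_mono (fun _ => le_rfl) (by nlinarith) l2⟩
          refine ⟨(G n).box r ε i k, hsub2.trans (hsub k t0 i b2 a2 hloose), ?_, hlowr i k a2⟩
          intro l hl j
          obtain ⟨l1, l2⟩ := RCfg.mem_box.1 hl
          have h3 := hlinkn k hk i a1 a2 l (H.memSlice.1 l1) l2
          cases j
          · simpa using h3.2.trans hwle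
          · simpa using h3.1.trans hwle)
      simp only [Fintype.card_bool] at key2
      have e0 : (cls S al (fun i k => F1 n k i) (fun i k => F2 n k i) w k).card ≤
          (T.image fun i => fun j : Bool => ⌊(if j then F1 n k i else F2 n k i) / w⌋).card := by
        have : cls S al (fun i k => F1 n k i) (fun i k => F2 n k i) w k =
            (T.image fun i => fun j : Bool => ⌊(if j then F1 n k i else F2 n k i) / w⌋).image
              fun c => (c true, c false) := by
          rw [Finset.image_image]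
          unfold cls
          rw [← hTdef]
          refine Finset.image_congr ?_
          intro i _
          simp
        rw [this]
        exact Finset.card_image_le
      have e1 : B.d n ^ (-ν r + ε) * B.d n ^ (ν r - ε) = 1 := by
        rw [← rpow_add']
        have : -ν r + ε + (ν r - ε) = 0 := by ring
        rw [this, Real.rpow_zero]
      calc ((cls S al (fun i k => F1 n k i) (fun i k => F2 n k i) w k).card : ℝ)
          ≤ ((T.image fun i => fun j : Bool =>
              ⌊(if j then F1 n k i else F2 n k i) / w⌋).card : ℝ) := by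
            exact_mod_cast e0
        _ = ((T.image fun i => fun j : Bool =>
              ⌊(if j then F1 n k i else F2 n k i) / w⌋).card : ℝ) *
            B.d n ^ (-ν r + ε) * B.d n ^ (ν r - ε) := by rw [mul_assoc, e1, mul_one]
        _ ≤ 3 ^ 2 * (((G n).box pT (D * (C * ε)) t0 k).card : ℝ) * B.d n ^ (ν r - ε) :=
            mul_le_mul_of_nonneg_right key2 (hpow _).le
        _ ≤ 3 ^ 2 * B.d n ^ (-ν pT - D * (D * (C * ε))) * B.d n ^ (ν r - ε) := by
            refine mul_le_mul_of_nonneg_right ?_ (hpow _).le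
            exact mul_le_mul_of_nonneg_left (hup t0 k b2) (by norm_num)
        _ = _ := by
            rw [mul_assoc, ← rpow_add', hK]
            congr 1
            · norm_num
            · congr 1
              rw [hE]
              ring
    -- parameters
    set lam := B.d n ^ (C1 * ε) with hlam
    set η := B.d n ^ (τ * x - ε) with hη
    set ν' := B.d n ^ ((C6 + C) * ε) with hν'
    set M := B.d n ^ (-((C1 + C) * ε)) with hM
    set R := B.d n ^ (-(x + (C1 + C + 1) * ε)) with hR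
    have hMw : M / w = B.d n ^ (-(x + C1 * ε)) := by
      rw [hM, hw, ← Real.rpow_sub (B.pos n)]
      congr 1
      ring
    have hRM : 2 * M / w + 1 + 2 ≤ R := by
      have e1 : 2 * M / w = 2 * B.d n ^ (-(x + C1 * ε)) := by rw [mul_div_assoc, hMw]
      have e2 : 1 ≤ B.d n ^ (-(x + C1 * ε)) := hpow1' _ (by
        have : 0 ≤ C1 * ε := by positivity
        linarith)
      have e3 : B.d n ^ (-ε) * B.d n ^ (-(x + C1 * ε)) ≤ R := by
        rw [hR, ← rpow_add']
        refine rpow_anti B n ?_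
        nlinarith
      have e4 := mul_le_mul_of_nonneg_right h8 (hpow (-(x + C1 * ε))).le
      rw [e1]
      linarith
    have hres := key S (Zg n) ψ al (fun i k => F1 n k i) (fun i k => F2 n k i) AA VV
      (fun k => (c1 k, c2 k)) w 1 R K lam η ν' M hw0 le_rfl
      (hpow1' _ (by
        have : 0 ≤ (C1 + C + 1) * ε := by positivity
        linarith)) hK0 (hpow _) (hpow1 _ (by positivity)) (hpow _) (hpow _)
      (hpow1 _ (by positivity)) hRM ⟨j0, hj0⟩ hZn
      (by
        intro i hi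
        obtain ⟨v1, v2⟩ := hVn i hi j0 hj0
        have e1 : u * B.d n ^ (-(C1 * ε)) ≤ 1 := by
          rw [hu, ← rpow_add']
          refine hpow1 _ ?_
          nlinarith
        simp only [hVV]
        rw [abs_mul, abs_mul, abs_of_pos hu0]
        exact ⟨(mul_le_mul_of_nonneg_left v1 hu0.le).trans e1,
          (mul_le_mul_of_nonneg_left v2 hu0.le).trans e1⟩)
      (by
        intro i hi
        obtain ⟨v1, v2⟩ := hAn i hi j0 hj0
        have e1 : B.d n ^ (-(C1 * ε)) ≤ M := rpow_anti B n (by nlinarith)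
        exact ⟨v1.trans e1, v2.trans e1⟩)
      (by
        intro k hk
        have e1 := hφn k hk
        simp only [hψ]
        rw [abs_div, abs_of_pos hu0, div_le_iff₀ hu0, hM, hu, ← rpow_add']
        refine e1.trans (le_of_eq ?_)
        congr 1
        ring)
      (by
        intro k hk i hi hia
        rw [one_mul]
        have h1 := hc1 k hk i hi hia
        have h2 := hc2 k hk i hi hia
        exact ⟨h1, h2⟩)
      hcells
      (by
        intro i hi
        have := haln i hi ((Zg n).filter fun k => (i, k) ∈ (G n).I) (Finset.filter_subset _ _)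
          (fun k hk hI => Finset.mem_filter.2 ⟨hk, hI⟩)
        convert this)
      (by
        intro k hk
        refine hfrn k hk _ (Finset.filter_subset _ _) ?_
        intro k' hk'
        have h1 := (Finset.mem_filter.1 hk').2
        simp only [hψ] at h1
        rw [← sub_div, abs_div, abs_of_pos hu0, div_le_iff₀ hu0, hw, hu, ← rpow_add'] at h1
        refine h1.trans (le_of_eq ?_)
        congr 1
        ring)
      (by
        intro k hk i hi hia hpop uu nn hnn2
        set Fb := fib S al (fun i k => F1 n k i) (fun i k => F2 n k i) w k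
          (⌊F1 n k i / w⌋, ⌊F2 n k i / w⌋) with hFb
        have hclose : ∀ l ∈ Fb, l ∈ S ∧ (l, k) ∈ (G n).I ∧ |F1 n k l - F1 n k i| ≤ w ∧
            |F2 n k l - F2 n k i| ≤ w := by
          intro l hl
          obtain ⟨a1, a2, a3⟩ := mem_fib.1 hl
          have a4 := (Prod.mk.inj a3).1
          have a5 := (Prod.mk.inj a3).2
          have h5 := Int.abs_sub_lt_one_of_floor_eq_floor a4
          have h6 := Int.abs_sub_lt_one_of_floor_eq_floor a5
          rw [← sub_div, abs_div, abs_of_pos hw0, div_lt_one hw0] at h5 h6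
          exact ⟨a1, a2, h5.le, h6.le⟩
        have h1 := hnnn k hk i hi hia nn.1 nn.2
          (((uu.1 / u + V1 n j0) * nn.1 + (uu.2 / u + V2 n j0) * nn.2)) hnn2
          (@Finset.filter _ (fun l => InStrip ν' uu nn (VV l))
            (Classical.decPred _) Fb) (by
              intro l hl
              exact (hclose l (Finset.mem_filter.1 hl).1).1) (by
              intro l hl
              obtain ⟨l1, l2⟩ := Finset.mem_filter.1 hl
              obtain ⟨l3, l4, l5, l6⟩ := hclose l l1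
              refine ⟨l4, l5, l6, ?_⟩
              unfold InStrip at l2
              have e1 : V1 n l * nn.1 + V2 n l * nn.2 -
                  ((uu.1 / u + V1 n j0) * nn.1 + (uu.2 / u + V2 n j0) * nn.2) =
                  (((VV l).1 - uu.1) * nn.1 + ((VV l).2 - uu.2) * nn.2) / u := by
                simp only [hVV]
                field_simp
                ring
              rw [e1, abs_div, abs_of_pos hu0, div_le_iff₀ hu0]
              refine l2.trans (le_of_eq ?_)
              rw [hν', hu, ← rpow_add']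
              congr 1
              ring)
        refine h1.trans ?_
        have h2 : 2 * B.d n ^ (-ν r + q * (C6 * ε) - C5 * ε) ≤ lam * (S.card : ℝ) / (4 * K) := by
          rw [le_div_iff₀ (by positivity)]
          have e1 : lam * B.d n ^ (-ν pS + ε) ≤ lam * (S.card : ℝ) :=
            mul_le_mul_of_nonneg_left hSlow (hpow _).le
          refine le_trans ?_ e1
          have e2 : 2 * B.d n ^ (-ν r + q * (C6 * ε) - C5 * ε) * (4 * K) =
              72 * B.d n ^ (-ν pT + (q * C6 - C5 - E) * ε) := by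
            rw [hK]
            have : B.d n ^ (-ν pT + (q * C6 - C5 - E) * ε) =
                B.d n ^ (-ν r + q * (C6 * ε) - C5 * ε) * B.d n ^ (-(ν pT - ν r) - E * ε) := by
              rw [← rpow_add']; congr 1; ring
            rw [this]; ring
          rw [e2, hC6q]
          calc 72 * B.d n ^ (-ν pT + (C5 + C1 + E + 3 + q - C5 - E) * ε)
              ≤ B.d n ^ (-ε) * B.d n ^ (-ν pT + (C5 + C1 + E + 3 + q - C5 - E) * ε) :=
                mul_le_mul_of_nonneg_right h72 (hpow _).le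
            _ = B.d n ^ (-ν pT + (C1 + 2 + q) * ε) := by
                rw [← rpow_add']; congr 1; ring
            _ ≤ B.d n ^ (C1 * ε + (-ν pS + ε)) := rpow_anti B n (by nlinarith)
            _ = _ := rpow_add' B n _ _
        have h3 := h2.trans hpop
        linarith)
    -- exponents
    have hsqK : √K = 3 * B.d n ^ ((-(ν pT - ν r) - E * ε) / 2) := by
      rw [hK, Real.sqrt_mul (by norm_num), show √(9 : ℝ) = 3 by
        rw [show (9 : ℝ) = 3 ^ 2 by norm_num]; exact Real.sqrt_sq (by norm_num)]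
      congr 1
      rw [Real.sqrt_eq_rpow, ← Real.rpow_mul (B.pos n).le]
      congr 1
      ring
    have hνinv : (ν'⁻¹) ^ 26 = B.d n ^ (-(26 * ((C6 + C) * ε))) := by
      rw [hν', ← Real.rpow_neg (B.pos n).le, ← Real.rpow_natCast, ← Real.rpow_mul (B.pos n).le]
      congr 1
      push_cast
      ring
    have hRpow : R ^ ε = B.d n ^ (-(x + (C1 + C + 1) * ε) * ε) := by
      rw [hR, ← Real.rpow_mul (B.pos n).le]
    have hlam3 : lam ^ 3 = B.d n ^ (3 * (C1 * ε)) := by
      rw [hlam, ← Real.rpow_natCast, ← Real.rpow_mul (B.pos n).le]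
      congr 1
      push_cast
      ring
    rw [hlam3, hνinv, hRpow, hsqK, hη] at hres
    have hfin : CK * B.d n ^ (τ * x - ε) * (1 + 1) ^ 3 * B.d n ^ (-(26 * ((C6 + C) * ε))) *
        B.d n ^ (-(x + (C1 + C + 1) * ε) * ε) *
        (3 * B.d n ^ ((-(ν pT - ν r) - E * ε) / 2)) =
        (CK * 2 ^ 3 * 3) * B.d n ^ ((τ * x - ε) + (-(26 * ((C6 + C) * ε))) +
          (-(x + (C1 + C + 1) * ε) * ε) + ((-(ν pT - ν r) - E * ε) / 2)) := by
      rw [rpow_add', rpow_add', rpow_add']
      norm_num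
      ring
    rw [hfin] at hres
    have hfin2 : B.d n ^ (3 * (C1 * ε)) ≤ B.d n ^ (-ε) * B.d n ^ ((τ * x - ε) +
          (-(26 * ((C6 + C) * ε))) +
          (-(x + (C1 + C + 1) * ε) * ε) + ((-(ν pT - ν r) - E * ε) / 2)) :=
      hres.trans (mul_le_mul_of_nonneg_right hcK (hpow _).le)
    rw [← rpow_add'] at hfin2
    rw [one_mul]
    have hxε : 0 ≤ x * ε := by positivity
    have hCC : (C1 + C + 1) * ε * ε ≤ (C1 + C + 1) * ε := by
      have : 0 ≤ (C1 + C + 1) * ε := by positivity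
      nlinarith
    calc B.d n ^ (0 + Ctot * ε₀) ≤ B.d n ^ (3 * (C1 * ε)) := by
          refine rpow_anti B n ?_
          have h1 : Ctot * ε ≤ Ctot * ε₀ := mul_le_mul_of_nonneg_left hεε hCtot0.le
          have h2 : 3 * (C1 * ε) ≤ Ctot * ε := by
            rw [hCtot]
            have : 0 ≤ (30 * (C6 + C) + x + E + 10) * ε := by positivity
            nlinarith
          linarith
      _ ≤ _ := hfin2
      _ ≤ B.d n ^ (τ * x - (ν pT - ν r) / 2 - Ctot * ε₀) := by
          refine rpow_anti B n ?_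
          have h1 : Ctot * ε ≤ Ctot * ε₀ := mul_le_mul_of_nonneg_left hεε hCtot0.le
          have h2 : -ε + ((τ * x - ε) + (-(26 * ((C6 + C) * ε))) +
              (-(x + (C1 + C + 1) * ε) * ε) + ((-(ν pT - ν r) - E * ε) / 2)) ≥
              τ * x - (ν pT - ν r) / 2 - Ctot * ε := by
            rw [hCtot]
            have k1 : 0 ≤ E * ε := by positivity
            have k2 : 0 ≤ C6 * ε := by positivity
            have k3 : 0 ≤ C * ε := by positivity
            have k4 : 0 ≤ C1 * ε := by positivity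
            nlinarith
          linarith
  linarith

end Crest.Agent.R116.Bc863
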