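import Crest.Agent.R116.Xd4_954

/-!
# R116, [B-DIM] of K-TEXT II-c (helper369), part 1: the flag slots `7, 8` are one-dimensional

The lateral gradients `b` of the flags have length almost `1` (Klein form `disc = 1`), so the
component of the slots `7, 8` along the flag is dead.

* `bb_sq_sub` : `|b_j|² - |b_i|² = 2 (b~ · B) + |B|² + 2 et P + 4 d F`, `b~ = b_i + et C + 2 d X`.
* `FlagN` : `||b|² - 1| σ₀ ≤ σ₁ d^(-ε)`.
* `dim_B` : twin of `FlagE.dim_nat'`, slots `7, 8`, extra margin `3 δ ≤ t - y` (e-tie).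
* `dimB_window` : twin of `dim_window`.
-/

set_option autoImplicit false
set_option linter.unusedVariables false

open Finset Filter Topology

namespace Crest.Agent.R116.Bd369

open Crest.Agent.R138.Ex926
open Crest.Agent.R138
open Crest.Agent.R136.Net191
open Crest.Agent.R136.Qg926
open Crest.Agent.R116.ChL222
open Crest.Agent.R116.Xd954

/-- **the Klein form along the chart** -/
theorem bb_sq_sub (i j : LInc) :
    (bb j 0 ^ 2 + bb j 1 ^ 2) - (bb i 0 ^ 2 + bb i 1 ^ 2) =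
      2 * ((bb i 0 + i.et * coL i j 3 + 2 * i.d * coL i j 5) * coL i j 7 +
        (bb i 1 + i.et * coL i j 4 + 2 * i.d * coL i j 6) * coL i j 8) +
      (coL i j 7 ^ 2 + coL i j 8 ^ 2) + 2 * i.et * coL i j 10 + 4 * i.d * coL i j 11 := by
  have b0 := coL_B i j 0
  have b1 := coL_B i j 1
  have hP := coL_P i j (a := 0) (b := 1) (by decide)
  have hF := coL_F i j (a := 0) (b := 1) (by decide)
  have c0 : cs 0 = 3 := rfl
  have c1 : cs 1 = 4 := rfl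
  have x0 : xs 0 = 5 := rfl
  have x1 : xs 1 = 6 := rfl
  have s0 : bs 0 = 7 := rfl
  have s1 : bs 1 = 8 := rfl
  rw [c0, x0, s0] at b0
  rw [c1, x1, s1] at b1
  rw [c0, c1, x0, x1] at hP
  rw [x0, x1] at hF
  rw [hP, hF]
  have e0 : bb j 0 = bb i 0 + (coL i j 7 + i.et * coL i j 3 + 2 * i.d * coL i j 5) := by linarith
  have e1 : bb j 1 = bb i 1 + (coL i j 8 + i.et * coL i j 4 + 2 * i.d * coL i j 6) := by linarith
  rw [e0, e1]
  ring

/-- the component of the slots `7, 8` along the flag, normalised -/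
theorem B_le (i j : LInc) {lz lc lp : ℝ} (hz : 0 < lz) (hc : 0 < lc) (hp : 0 < lp)
    {c : Fin 12 → ℝ} (hc' : ∀ k, c k = PL504.uL lz lc lp k * coL i j k) :
    |bb i 0 * c 7 + bb i 1 * c 8| ≤
      (lp / lc) * |(bb j 0 ^ 2 + bb j 1 ^ 2) - (bb i 0 ^ 2 + bb i 1 ^ 2)| +
      ((lc / lp) * |c 7| ^ 2 + (lc / lp) * |c 8| ^ 2) +
      ((|i.et| / lc) * |c 10| + (|i.et| / lc) * (|c 3| * |c 7|) +
        (|i.et| / lc) * (|c 4| * |c 8|)) +
      2 * ((|i.d| / (lz * lc)) * |c 11| + (|i.d| / (lz * lc)) * (|c 5| * |c 7|) +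
        (|i.d| / (lz * lc)) * (|c 6| * |c 8|)) := by
  have hzc := mul_pos hz hc
  have hlp := div_pos hp hc
  have hlc := div_pos hc hp
  have e3 : c 3 = lc * coL i j 3 := hc' 3
  have e4 : c 4 = lc * coL i j 4 := hc' 4
  have e5 : c 5 = (lz * lc) * coL i j 5 := hc' 5
  have e6 : c 6 = (lz * lc) * coL i j 6 := hc' 6
  have e7 : c 7 = (lp / lc) * coL i j 7 := hc' 7
  have e8 : c 8 = (lp / lc) * coL i j 8 := hc' 8
  have e10 : c 10 = lp * coL i j 10 := hc' 10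
  have e11 : c 11 = (lz * lp) * coL i j 11 := hc' 11
  have key := bb_sq_sub i j
  set Δ := (bb j 0 ^ 2 + bb j 1 ^ 2) - (bb i 0 ^ 2 + bb i 1 ^ 2) with hΔ
  have e : bb i 0 * c 7 + bb i 1 * c 8 = (lp / lc) * (Δ / 2) -
      ((lc / lp) * (c 7 ^ 2 / 2) + (lc / lp) * (c 8 ^ 2 / 2)) -
      ((i.et / lc) * c 10 + (i.et / lc) * (c 3 * c 7) + (i.et / lc) * (c 4 * c 8)) -
      2 * ((i.d / (lz * lc)) * c 11 + (i.d / (lz * lc)) * (c 5 * c 7) +
        (i.d / (lz * lc)) * (c 6 * c 8)) := by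
    rw [key, e3, e4, e5, e6, e7, e8, e10, e11]
    field_simp
    ring
  rw [e]
  have aE : ∀ u : ℝ, |(i.et / lc) * u| = (|i.et| / lc) * |u| := fun u => by
    rw [abs_mul, abs_div, abs_of_pos hc]
  have aD : ∀ u : ℝ, |(i.d / (lz * lc)) * u| = (|i.d| / (lz * lc)) * |u| := fun u => by
    rw [abs_mul, abs_div, abs_of_pos hzc]
  have a1 := abs_sub ((lp / lc) * (Δ / 2) -
      ((lc / lp) * (c 7 ^ 2 / 2) + (lc / lp) * (c 8 ^ 2 / 2)) -
      ((i.et / lc) * c 10 + (i.et / lc) * (c 3 * c 7) + (i.et / lc) * (c 4 * c 8)))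
      (2 * ((i.d / (lz * lc)) * c 11 + (i.d / (lz * lc)) * (c 5 * c 7) +
        (i.d / (lz * lc)) * (c 6 * c 8)))
  have a2 := abs_sub ((lp / lc) * (Δ / 2) -
      ((lc / lp) * (c 7 ^ 2 / 2) + (lc / lp) * (c 8 ^ 2 / 2)))
      ((i.et / lc) * c 10 + (i.et / lc) * (c 3 * c 7) + (i.et / lc) * (c 4 * c 8))
  have a3 := abs_sub ((lp / lc) * (Δ / 2))
      ((lc / lp) * (c 7 ^ 2 / 2) + (lc / lp) * (c 8 ^ 2 / 2))
  have a4 : |(lp / lc) * (Δ / 2)| ≤ (lp / lc) * |Δ| := by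
    rw [abs_mul, abs_of_pos hlp, abs_div, abs_of_pos (two_pos : (0 : ℝ) < 2)]
    refine mul_le_mul_of_nonneg_left ?_ hlp.le
    linarith [abs_nonneg Δ]
  have a5 : |(lc / lp) * (c 7 ^ 2 / 2) + (lc / lp) * (c 8 ^ 2 / 2)| ≤
      (lc / lp) * |c 7| ^ 2 + (lc / lp) * |c 8| ^ 2 := by
    rw [abs_of_nonneg (by positivity), sq_abs, sq_abs]
    have t7 : (lc / lp) * (c 7 ^ 2 / 2) ≤ (lc / lp) * c 7 ^ 2 :=
      mul_le_mul_of_nonneg_left (by linarith [sq_nonneg (c 7)]) hlc.le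
    have t8 : (lc / lp) * (c 8 ^ 2 / 2) ≤ (lc / lp) * c 8 ^ 2 :=
      mul_le_mul_of_nonneg_left (by linarith [sq_nonneg (c 8)]) hlc.le
    linarith
  have a6 := abs_add_le ((i.et / lc) * c 10 + (i.et / lc) * (c 3 * c 7))
    ((i.et / lc) * (c 4 * c 8))
  have a7 := abs_add_le ((i.et / lc) * c 10) ((i.et / lc) * (c 3 * c 7))
  rw [aE, aE, abs_mul (c 3)] at a7
  rw [aE, abs_mul (c 4)] at a6
  have a8 : |2 * ((i.d / (lz * lc)) * c 11 + (i.d / (lz * lc)) * (c 5 * c 7) +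
        (i.d / (lz * lc)) * (c 6 * c 8))| ≤
      2 * ((|i.d| / (lz * lc)) * |c 11| + (|i.d| / (lz * lc)) * (|c 5| * |c 7|) +
        (|i.d| / (lz * lc)) * (|c 6| * |c 8|)) := by
    rw [abs_mul, abs_of_pos (two_pos : (0 : ℝ) < 2)]
    refine mul_le_mul_of_nonneg_left ?_ two_pos.le
    have b1 := abs_add_le ((i.d / (lz * lc)) * c 11 + (i.d / (lz * lc)) * (c 5 * c 7))
      ((i.d / (lz * lc)) * (c 6 * c 8))
    have b2 := abs_add_le ((i.d / (lz * lc)) * c 11) ((i.d / (lz * lc)) * (c 5 * c 7))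
    rw [aD, aD, abs_mul (c 5)] at b2
    rw [aD, abs_mul (c 6)] at b1
    linarith
  linarith

/-- the lateral gradients of the flags have length almost `1` -/
def FlagN (B : Base) (I : ℕ → Finset (ℕ × ℝ)) (inc : ℕ → ℕ × ℝ → LInc) (σ : Fin 2 → ℕ → ℝ) :
    Prop := ∀ ε : ℝ, 0 < ε → ∀ᶠ n in (U : Filter ℕ), ∀ x ∈ I n,
  |bb (inc n x) 0 ^ 2 + bb (inc n x) 1 ^ 2 - 1| * σ 0 n ≤ σ 1 n * B.d n ^ (-ε)

section dim

variable {B : Base} {I : ℕ → Finset (ℕ × ℝ)} {lev : ℕ → ℚ → ℕ} {inc : ℕ → ℕ × ℝ → LInc}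
    {σ : Fin 2 → ℕ → ℝ} {k0 ϑ : ℝ}

/-- **the slots `7, 8` are one-dimensional** near the natural box `(v, t, y)`, `t > y` -/
theorem dim_B (h : FlagE B I lev inc σ k0 ϑ) (hN : FlagN B I inc σ) (w0 sa sb : ℝ)
    {v t y δ : ℝ} (hm : Mrg k0 ϑ v t y δ) (hty : 3 * δ ≤ t - y) {K : ℝ} (hK : 1 ≤ K) :
    ∀ᶠ n in (U : Filter ℕ), ∀ p : Fin 12 → ℝ,
      (∀ k, 3 ≤ k → |p k - PL504.nb w0 sa sb v t y k| ≤ δ / 2) → ∀ x ∈ I n, ∀ z ∈ I n,
      Near (Gd222.coN B lev inc σ w0 sa sb n) (B.d n) p K x z →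
      ∀ s, |bb (inc n x) 0 * Gd222.coN B lev inc σ w0 sa sb n x z 7 +
        bb (inc n x) 1 * Gd222.coN B lev inc σ w0 sa sb n x z 8| ≤ B.d n ^ (p (bs s) + δ) := by
  have hδ := hm.pos
  have hδ2 : 0 < δ / 2 := by positivity
  have hδ4 : 0 < δ / 2 / 2 := by positivity
  filter_upwards [h.scal w0 sa sb hδ4, hN _ hδ4, ev_fin B (show 0 < 20 * K ^ 2 by positivity) hδ2]
    with n h3 hNn hfin p hp x hx z hz hn s
  have hD := B.pos n
  have hD1 := (B.lt n).le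
  have hK0 : 0 ≤ K := by linarith
  have hKK : K ≤ K ^ 2 := by nlinarith
  have hK1 : 1 ≤ K ^ 2 := by nlinarith
  have s0 := h.σp 0 n
  have s1 := h.σp 1 n
  have dp := fun a => Dp76.dpow_pos B n a
  obtain ⟨er, h3'⟩ := h3
  obtain ⟨ee, ef⟩ := h3' x hx
  have nx := hNn x hx
  have nz := hNn z hz
  set D := B.d n with hDd
  set lz : ℝ := 2 ^ lev n 0 * D ^ w0 with hlz
  set lc : ℝ := D ^ sa / σ 0 n with hlc
  set lp : ℝ := D ^ sb / σ 1 n with hlp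
  have hlz0 : 0 < lz := mul_pos (by positivity) (dp _)
  have hlc0 : 0 < lc := div_pos (dp _) s0
  have hlp0 : 0 < lp := div_pos (dp _) s1
  set c := Gd222.coN B lev inc σ w0 sa sb n x z with hc
  have t1 := B_le (inc n x) (inc n z) hlz0 hlc0 hlp0 (c := c) (fun k => rfl)
  set Δ := (bb (inc n z) 0 ^ 2 + bb (inc n z) 1 ^ 2) -
    (bb (inc n x) 0 ^ 2 + bb (inc n x) 1 ^ 2) with hΔ
  have hcn : ∀ k, |c k| ≤ K * D ^ p k := hn
  have n0 : ∀ k, 0 ≤ |c k| := fun k => abs_nonneg _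
  have q : ∀ k, 3 ≤ k → PL504.nb w0 sa sb v t y k - δ / 2 ≤ p k ∧
      p k ≤ PL504.nb w0 sa sb v t y k + δ / 2 :=
    fun k hk => by have := abs_le.1 (hp k hk); constructor <;> linarith [this.1, this.2]
  have m1 := hm.mt
  have m2 := hm.mkk
  have m3 := hm.mv
  have c3 := q 3 (by decide)
  have c4 := q 4 (by decide)
  have c5 := q 5 (by decide)
  have c6 := q 6 (by decide)
  have c7 := q 7 (by decide)
  have c8 := q 8 (by decide)
  have c10 := q 10 (by decide)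
  have c11 := q 11 (by decide)
  have v3 : PL504.nb w0 sa sb v t y 3 = sa + t := rfl
  have v4 : PL504.nb w0 sa sb v t y 4 = sa + t := rfl
  have v5 : PL504.nb w0 sa sb v t y 5 = (w0 + v) + (sa + t) := rfl
  have v6 : PL504.nb w0 sa sb v t y 6 = (w0 + v) + (sa + t) := rfl
  have v7 : PL504.nb w0 sa sb v t y 7 = (sb + y) - (sa + t) := rfl
  have v8 : PL504.nb w0 sa sb v t y 8 = (sb + y) - (sa + t) := rfl
  have v10 : PL504.nb w0 sa sb v t y 10 = sb + y := rfl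
  have v11 : PL504.nb w0 sa sb v t y 11 = (w0 + v) + (sb + y) := rfl
  rw [v3] at c3
  rw [v4] at c4
  rw [v5] at c5
  rw [v6] at c6
  rw [v7] at c7
  rw [v8] at c8
  rw [v10] at c10
  rw [v11] at c11
  have cc : p (bs s) ≤ (sb + y) - (sa + t) + δ / 2 := by
    fin_cases s
    · exact c7.2
    · exact c8.2
  set r : ℝ := p (bs s) + δ + δ / 2 with hr
  have hrS : r ≤ (sb + y) - (sa + t) + 2 * δ := by rw [hr]; linarith
  -- the length of the gradients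
  have u0 : (lp / lc) * |Δ| ≤ 2 * D ^ (r - δ / 2 / 2) := by
    have hd : |Δ| * σ 0 n ≤ 2 * (σ 1 n * D ^ (-(δ / 2 / 2))) := by
      have e : Δ = (bb (inc n z) 0 ^ 2 + bb (inc n z) 1 ^ 2 - 1) -
          (bb (inc n x) 0 ^ 2 + bb (inc n x) 1 ^ 2 - 1) := by rw [hΔ]; ring
      have := mul_le_mul_of_nonneg_right (abs_sub (bb (inc n z) 0 ^ 2 + bb (inc n z) 1 ^ 2 - 1)
          (bb (inc n x) 0 ^ 2 + bb (inc n x) 1 ^ 2 - 1)) s0.le
      rw [← e] at this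
      linarith
    have e : (lp / lc) * |Δ| = D ^ sb / D ^ sa / σ 1 n * (|Δ| * σ 0 n) := by
      rw [hlp, hlc]
      have := (dp sa).ne'
      field_simp
    rw [e]
    have h1 : 0 < D ^ sb / D ^ sa / σ 1 n := div_pos (div_pos (dp _) (dp _)) s1
    refine (mul_le_mul_of_nonneg_left hd h1.le).trans ?_
    have e2 : D ^ sb / D ^ sa / σ 1 n * (2 * (σ 1 n * D ^ (-(δ / 2 / 2)))) =
        2 * D ^ (sb - sa - δ / 2 / 2) := by
      rw [show sb - sa - δ / 2 / 2 = (sb - sa) + -(δ / 2 / 2) by ring, Real.rpow_add hD,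
        Real.rpow_sub hD]
      field_simp
    rw [e2]
    exact mul_le_mul_of_nonneg_left (Real.rpow_le_rpow_of_exponent_ge hD hD1 (by linarith))
      two_pos.le
  have key : |bb (inc n x) 0 * c 7 + bb (inc n x) 1 * c 8| ≤
      20 * K ^ 2 * D ^ (r - δ / 2 / 2) := by
    refine t1.trans ?_
    have u1 : lc / lp * |c 7| ^ 2 ≤ K ^ 2 * D ^ (r - δ / 2 / 2) :=
      ex_mul hD hD1 er (by positivity) (ex_sq hD (n0 _) (hcn _)) (by positivity) (by linarith)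
    have u2 : lc / lp * |c 8| ^ 2 ≤ K ^ 2 * D ^ (r - δ / 2 / 2) :=
      ex_mul hD hD1 er (by positivity) (ex_sq hD (n0 _) (hcn _)) (by positivity) (by linarith)
    have u3 : |(inc n x).et| / lc * |c 10| ≤ K * D ^ (r - δ / 2 / 2) :=
      ex_mul hD hD1 ee (n0 _) (hcn _) hK0 (by linarith)
    have u4 : |(inc n x).et| / lc * (|c 3| * |c 7|) ≤ K ^ 2 * D ^ (r - δ / 2 / 2) :=
      ex_mul hD hD1 ee (by positivity) (ex_pr hD (n0 _) (hcn _) (n0 _) (hcn _)) (by positivity)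
        (by linarith)
    have u5 : |(inc n x).et| / lc * (|c 4| * |c 8|) ≤ K ^ 2 * D ^ (r - δ / 2 / 2) :=
      ex_mul hD hD1 ee (by positivity) (ex_pr hD (n0 _) (hcn _) (n0 _) (hcn _)) (by positivity)
        (by linarith)
    have u6 : |(inc n x).d| / (lz * lc) * |c 11| ≤ K * D ^ (r - δ / 2 / 2) :=
      ex_mul hD hD1 ef (n0 _) (hcn _) hK0 (by linarith)
    have u7 : |(inc n x).d| / (lz * lc) * (|c 5| * |c 7|) ≤ K ^ 2 * D ^ (r - δ / 2 / 2) :=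
      ex_mul hD hD1 ef (by positivity) (ex_pr hD (n0 _) (hcn _) (n0 _) (hcn _)) (by positivity)
        (by linarith)
    have u8 : |(inc n x).d| / (lz * lc) * (|c 6| * |c 8|) ≤ K ^ 2 * D ^ (r - δ / 2 / 2) :=
      ex_mul hD hD1 ef (by positivity) (ex_pr hD (n0 _) (hcn _) (n0 _) (hcn _)) (by positivity)
        (by linarith)
    have hKD : K * D ^ (r - δ / 2 / 2) ≤ K ^ 2 * D ^ (r - δ / 2 / 2) :=
      mul_le_mul_of_nonneg_right hKK (dp _).le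
    have hKD1 : 1 * D ^ (r - δ / 2 / 2) ≤ K ^ 2 * D ^ (r - δ / 2 / 2) :=
      mul_le_mul_of_nonneg_right hK1 (dp _).le
    have hKp : 0 ≤ K ^ 2 * D ^ (r - δ / 2 / 2) := by positivity
    linarith
  have := hfin r _ key
  rwa [show r - δ / 2 = p (bs s) + δ by rw [hr]; ring] at this

end dim

section win

variable {W : Wnd 12 (fun _ => ℕ × ℝ)} {I : ℕ → Finset (ℕ × ℝ)} {lev : ℕ → ℚ → ℕ}
    {inc : ℕ → ℕ × ℝ → LInc} {σ : Fin 2 → ℕ → ℝ} {k0 ϑ w0 sa sb v t y δ : ℝ}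

/-- **[B-DIM] in the window** : the component of the slots `7, 8` along the flag of `s₀` is smaller
than every power of `ρ`, for all pairs of the class (own pairs included) -/
theorem dimB_window (ok : W.Ok) (hco : W.co = Gd222.coN W.B lev inc σ w0 sa sb)
    (hI : ∀ᶠ n in (U : Filter ℕ), W.Cl n ⊆ I n) (hF : FlagE W.B I lev inc σ k0 ϑ)
    (hN : FlagN W.B I inc σ)
    (hb : ∀ᶠ n in (U : Filter ℕ), ∀ x ∈ I n, 1 / 4 ≤ bb (inc n x) 0 ^ 2 + bb (inc n x) 1 ^ 2)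
    (hm : Mrg k0 ϑ v t y δ) (hty : 3 * δ ≤ t - y)
    (hX : ∀ᶠ n in (U : Filter ℕ), ∀ k, 3 ≤ k → |W.X n k - PL504.nb w0 sa sb v t y k| ≤ δ / 2)
    (hX7 : ∀ᶠ n in (U : Filter ℕ), W.X n 7 = W.X n 8)
    (hk7 : W.kap 7 = W.kap 8) (hw : Tendsto W.w U (𝓝 0)) (K : ℝ) :
    ∀ᶠ n in (U : Filter ℕ), ∀ i ∈ W.Cl n, ∀ j ∈ W.Cl n,
      |tau (inc n (W.s₀ n)) 0 * W.crd n i j 7 + tau (inc n (W.s₀ n)) 1 * W.crd n i j 8| ≤
        W.B'.d n ^ K := by
  have hδ := hm.pos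
  have hδ2 : 0 < δ / 2 := by positivity
  have hK1 := ok.K0_one
  have hK0 : 0 ≤ W.K0 := by linarith
  have hwK : ∀ᶠ n in (U : Filter ℕ), W.w n * K < δ / 2 := by
    have h1 : Tendsto (fun n => W.w n * K) U (𝓝 (0 * K)) := hw.mul_const K
    rw [zero_mul] at h1
    exact h1.eventually_lt_const hδ2
  have key : ∀ᶠ n in (U : Filter ℕ),
      2 * (1 + 2 * W.K0) / W.kap 7 ≤ W.B.d n ^ (-(δ / 2)) := by
    have hpos : 0 < 2 * (1 + 2 * W.K0) / W.kap 7 := div_pos (by positivity) (ok.kap _)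
    filter_upwards [W.B.ev_const_log (Real.log (2 * (1 + 2 * W.K0) / W.kap 7)) hδ2] with n hn
    rw [← W.B.exp_eq, ← Real.log_le_iff_le_exp hpos]
    exact hn
  filter_upwards [ok.ev_good, hI, hb, hX, hX7, hwK, key,
    hF.dim_nat' w0 sa sb hm hK1, dim_B hF hN w0 sa sb hm hty hK1]
    with n g hIn hbn hXn h78 hwn hk hd hB i hi j hj
  have hD := W.B.pos n
  have hD1 := (W.B.lt n).le
  have hs0 := g.s0
  have near : ∀ i ∈ W.Cl n, ∀ j ∈ W.Cl n,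
      Near (Gd222.coN W.B lev inc σ w0 sa sb n) (W.B.d n) (W.X n) W.K0 i j := by
    intro i hi j hj k
    have h1 := ok.near0 g hi hj k
    rw [Pi.zero_apply, Real.rpow_zero, mul_one] at h1
    rw [← hco]
    exact h1
  have nij := near i hi j hj
  have ha := hB (W.X n) hXn i (hIn hi) j (hIn hj) nij 0
  obtain ⟨-, -, a3⟩ := hd (W.X n) hXn (W.s₀ n) (hIn hs0) i (near _ hs0 _ hi)
  have hbs := hbn _ (hIn hs0)
  have hpw : W.B.d n ^ (δ / 2) ≤ W.B'.d n ^ K := by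
    rw [ok.cls.base n, ← Real.rpow_mul hD.le]
    exact Real.rpow_le_rpow_of_exponent_ge hD hD1 hwn.le
  refine le_trans (tau_comb hbs _ _) ?_
  have b07 : W.X n (bs 0) = W.X n 7 := rfl
  rw [b07] at ha
  set c := W.X n 7 with hcdef
  have hks := ok.kap 7
  have hdc : 0 < W.B.d n ^ c := Real.rpow_pos_of_pos hD c
  have e1 : W.crd n i j 7 = Gd222.coN W.B lev inc σ w0 sa sb n i j 7 / (W.kap 7 * W.B.d n ^ c) := by
    unfold Wnd.crd; rw [hco]
  have e2 : W.crd n i j 8 =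
      Gd222.coN W.B lev inc σ w0 sa sb n i j 8 / (W.kap 7 * W.B.d n ^ c) := by
    unfold Wnd.crd; rw [hco, ← h78, ← hk7]
  have b1 := nij 7
  have b2 := nij 8
  rw [← h78] at b2
  rw [← hcdef] at b1
  set u := Gd222.coN W.B lev inc σ w0 sa sb n i j 7
  set u' := Gd222.coN W.B lev inc σ w0 sa sb n i j 8
  have e3 : bb (inc n (W.s₀ n)) 0 * u + bb (inc n (W.s₀ n)) 1 * u' =
      (bb (inc n i) 0 * u + bb (inc n i) 1 * u') -
        (bb (inc n i) 0 - bb (inc n (W.s₀ n)) 0) * u -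
        (bb (inc n i) 1 - bb (inc n (W.s₀ n)) 1) * u' := by ring
  have h2δ : W.B.d n ^ (2 * δ) ≤ W.B.d n ^ δ :=
    Real.rpow_le_rpow_of_exponent_ge hD hD1 (by linarith)
  have c1 : |(bb (inc n i) 0 - bb (inc n (W.s₀ n)) 0) * u| ≤
      W.B.d n ^ δ * (W.K0 * W.B.d n ^ c) := by
    rw [abs_mul]
    exact mul_le_mul ((a3 0).trans h2δ) b1 (abs_nonneg _) (Real.rpow_nonneg hD.le _)
  have c2 : |(bb (inc n i) 1 - bb (inc n (W.s₀ n)) 1) * u'| ≤
      W.B.d n ^ δ * (W.K0 * W.B.d n ^ c) := by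
    rw [abs_mul]
    exact mul_le_mul ((a3 1).trans h2δ) b2 (abs_nonneg _) (Real.rpow_nonneg hD.le _)
  have c3 : |bb (inc n (W.s₀ n)) 0 * u + bb (inc n (W.s₀ n)) 1 * u'| ≤
      (1 + 2 * W.K0) * (W.B.d n ^ δ * W.B.d n ^ c) := by
    rw [e3]
    have d1 := abs_sub ((bb (inc n i) 0 * u + bb (inc n i) 1 * u') -
        (bb (inc n i) 0 - bb (inc n (W.s₀ n)) 0) * u)
        ((bb (inc n i) 1 - bb (inc n (W.s₀ n)) 1) * u')
    have d2 := abs_sub (bb (inc n i) 0 * u + bb (inc n i) 1 * u')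
        ((bb (inc n i) 0 - bb (inc n (W.s₀ n)) 0) * u)
    rw [Real.rpow_add hD] at ha
    nlinarith
  have e4 : bb (inc n (W.s₀ n)) 0 * W.crd n i j 7 + bb (inc n (W.s₀ n)) 1 * W.crd n i j 8 =
      (bb (inc n (W.s₀ n)) 0 * u + bb (inc n (W.s₀ n)) 1 * u') / (W.kap 7 * W.B.d n ^ c) := by
    rw [e1, e2]; ring
  rw [e4, abs_div, abs_of_pos (mul_pos hks hdc)]
  have e5 : 2 * (|bb (inc n (W.s₀ n)) 0 * u + bb (inc n (W.s₀ n)) 1 * u'| /
      (W.kap 7 * W.B.d n ^ c)) ≤ 2 * (1 + 2 * W.K0) / W.kap 7 * W.B.d n ^ δ := by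
    rw [← mul_div_assoc, div_le_iff₀ (mul_pos hks hdc)]
    have e6 : 2 * (1 + 2 * W.K0) / W.kap 7 * W.B.d n ^ δ * (W.kap 7 * W.B.d n ^ c) =
        2 * ((1 + 2 * W.K0) * (W.B.d n ^ δ * W.B.d n ^ c)) := by
      field_simp
    rw [e6]
    linarith
  refine e5.trans ?_
  calc 2 * (1 + 2 * W.K0) / W.kap 7 * W.B.d n ^ δ
      ≤ W.B.d n ^ (-(δ / 2)) * W.B.d n ^ δ :=
        mul_le_mul_of_nonneg_right hk (Real.rpow_nonneg hD.le _)
    _ = W.B.d n ^ (δ / 2) := by rw [← Real.rpow_add hD]; congr 1; ring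
    _ ≤ _ := hpw

end win

end Crest.Agent.R116.Bd369
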