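import Crest.Agent.R116.Bd2_369

/-!
# R116, [B-DIM] of K-TEXT II-c (helper710), part 3: the length of the gradients, margin `θ 1 - θ 0`

* `pr_ratio` : precisions of level `0` against level `1`.
* **`flagZ_of`** : `||b|² - 1| σ₀ ≤ σ₁ d^(θ 1 - θ 0 - ε)`, from the marks of level `0`.
-/

set_option autoImplicit false
set_option linter.unusedVariables false

open Finset Filter Topology

namespace Crest.Agent.R116.Bd710

open Crest.Agent.R138.Ex926 (Base U)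
open Crest.Agent.R138.Mk163 (zc zl rho alive own)
open Crest.Agent.R138.Dp76 (dpow_pos dpow_add dpow_le)
open Crest.Agent.R136.MkA627
open Crest.Agent.R136.Net191
open Crest.Agent.R136.TD627
open Crest.Agent.R136.PqG464 (ev_const)
open Crest.Agent.R138.Defs (E2)
open Crest.Agent.R116.LZg725
open Crest.Agent.R116.Bm903
open Crest.Agent.R116.ChL222
open Crest.Agent.R116.PL504 (ps ps_pos ps_eq prN βL eL uL cN cN_pr cN_pos rL rL_lin)
open Crest.Agent.R116.Gd222 (TSet sN sN_pos vb)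
open Crest.Agent.R116.KI439
open Crest.Agent.R116.KF439 (IsL PL PL_d frL mark_L MkFact mkL flM)
open Crest.Agent.R116.Xd954
open Crest.Agent.R116.Tw468
open Crest.Agent.R116.Bd369

/-- the sum of the error terms -/
theorem core_zeta {σ q7 s1 ρ P N b0 b1 c7 c8 c10 c11 et d Q : ℝ} (hσ : 0 < σ) (hq0 : 0 ≤ q7)
    (hP : 30 ≤ P) (hq1 : q7 ≤ 1) (hρ : 0 < ρ) (hs : 0 ≤ s1)
    (h7 : q7 * σ ≤ Q) (h1 : s1 ≤ Q) (hN : |N| ≤ q7) (hb0 : |b0| ≤ 2) (hb1 : |b1| ≤ 2)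
    (g7 : |c7| ≤ q7 * P) (g8 : |c8| ≤ q7 * P) (g10 : |c10| ≤ s1 * P)
    (g11 : |c11| ≤ ρ * s1 * P) (he : |et| * σ ≤ P) (hd : |d| * (σ * ρ) ≤ P) :
    |N - 2 * (b0 * c7 + b1 * c8) + (c7 ^ 2 + c8 ^ 2) - 2 * (et * c10) - 4 * (d * c11)| * σ ≤
      Q * (P * P * P) := by
  have hPp : 0 < P := by linarith
  have hQ : 0 ≤ Q := hs.trans h1
  have n1 : |N| * σ ≤ Q := (mul_le_mul_of_nonneg_right hN hσ.le).trans h7
  have lin : ∀ {u c : ℝ}, |u| ≤ 2 → |c| ≤ q7 * P → |u * c| * σ ≤ 2 * (Q * P) := by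
    intro u c hu hc
    rw [abs_mul]
    have h1 : |u| * |c| ≤ 2 * (q7 * P) := mul_le_mul hu hc (abs_nonneg _) (by norm_num)
    have h2 := mul_le_mul_of_nonneg_right h1 hσ.le
    have h3 := mul_le_mul_of_nonneg_right h7 hPp.le
    linarith
  have sq' : ∀ {c : ℝ}, |c| ≤ q7 * P → c ^ 2 * σ ≤ Q * (P * P) := by
    intro c hc
    have h1 : c ^ 2 ≤ (q7 * P) * (q7 * P) := by
      rw [← sq_abs, sq]
      exact mul_le_mul hc hc (abs_nonneg _) ((abs_nonneg _).trans hc)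
    have h2 := mul_le_mul_of_nonneg_right h1 hσ.le
    have h3 : (q7 * P) * (q7 * P) * σ = q7 * ((q7 * σ) * (P * P)) := by ring
    have h4 : (q7 * σ) * (P * P) ≤ Q * (P * P) :=
      mul_le_mul_of_nonneg_right h7 (by positivity)
    have h5 : q7 * ((q7 * σ) * (P * P)) ≤ 1 * ((q7 * σ) * (P * P)) :=
      mul_le_mul_of_nonneg_right hq1 (by positivity)
    linarith
  have u7 := lin hb0 g7
  have u8 := lin hb1 g8
  have v7 := sq' g7
  have v8 := sq' g8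
  have v10 : |et * c10| * σ ≤ Q * (P * P) := by
    rw [abs_mul]
    calc |et| * |c10| * σ = (|et| * σ) * |c10| := by ring
      _ ≤ P * (s1 * P) := mul_le_mul he g10 (abs_nonneg _) hPp.le
      _ = s1 * (P * P) := by ring
      _ ≤ Q * (P * P) := mul_le_mul_of_nonneg_right h1 (by positivity)
  have v11 : |d * c11| * σ ≤ Q * (P * P) := by
    rw [abs_mul]
    have h2 : |d| * |c11| ≤ |d| * (ρ * s1 * P) := mul_le_mul_of_nonneg_left g11 (abs_nonneg _)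
    calc |d| * |c11| * σ ≤ |d| * (ρ * s1 * P) * σ := mul_le_mul_of_nonneg_right h2 hσ.le
      _ = (|d| * (σ * ρ)) * (s1 * P) := by ring
      _ ≤ P * (s1 * P) := mul_le_mul_of_nonneg_right hd (by positivity)
      _ = s1 * (P * P) := by ring
      _ ≤ Q * (P * P) := mul_le_mul_of_nonneg_right h1 (by positivity)
  have tri : |N - 2 * (b0 * c7 + b1 * c8) + (c7 ^ 2 + c8 ^ 2) - 2 * (et * c10) -
      4 * (d * c11)| ≤ |N| + 2 * (|b0 * c7| + |b1 * c8|) + (c7 ^ 2 + c8 ^ 2) +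
        2 * |et * c10| + 4 * |d * c11| := by
    have w0 := abs_le.1 (le_refl |N|)
    have w1 := abs_le.1 (le_refl |b0 * c7|)
    have w2 := abs_le.1 (le_refl |b1 * c8|)
    have w3 := abs_le.1 (le_refl |et * c10|)
    have w4 := abs_le.1 (le_refl |d * c11|)
    have w5 := sq_nonneg c7
    have w6 := sq_nonneg c8
    rw [abs_le]
    constructor <;> linarith [w0.1, w0.2, w1.1, w1.2, w2.1, w2.2, w3.1, w3.2, w4.1, w4.2]
  refine (mul_le_mul_of_nonneg_right tri hσ.le).trans ?_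
  have ex : (|N| + 2 * (|b0 * c7| + |b1 * c8|) + (c7 ^ 2 + c8 ^ 2) + 2 * |et * c10| +
      4 * |d * c11|) * σ = |N| * σ + 2 * (|b0 * c7| * σ + |b1 * c8| * σ) +
      (c7 ^ 2 * σ + c8 ^ 2 * σ) + 2 * (|et * c10| * σ) + 4 * (|d * c11| * σ) := by ring
  rw [ex]
  have hPP : 30 * P ≤ P * P := by nlinarith
  have z1 : Q * 1 ≤ Q * (P * P) := mul_le_mul_of_nonneg_left (by nlinarith) hQ
  have z2 : Q * P ≤ Q * (P * P) := mul_le_mul_of_nonneg_left (by nlinarith) hQ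
  have z3 : Q * (30 * (P * P)) ≤ Q * (P * P * P) := by
    refine mul_le_mul_of_nonneg_left ?_ hQ
    have : P * P * 30 ≤ P * P * P := mul_le_mul_of_nonneg_left hP (by positivity)
    linarith
  have z0 : 0 ≤ Q * (P * P) := by positivity
  linarith

section flags

variable {r : ℕ → ℝ} {B : Base} {I : ℕ → Finset (ℕ × ℝ)} {G : Geo TSet (Fin 2)}
    {L : ℕ → ℕ → LRay} {lev : ℕ → ℚ → ℕ}
    {A : ℕ → ℝ} {g s : ℝ} {θ : Fin 2 → ℝ} {f : ℕ → ℚ → ℕ → ℤ → ℕ}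
    {b : ℕ → ℚ → ℕ → TSet} {vm : ℕ → ℚ → ℝ} {w : Fin 2 → ℕ → ℚ → ℝ}
    {fl : ℕ → ℕ × ℝ → LInc} {sc : Fin 12 → ℕ → ℝ}

/-- precisions of level `0` against level `1` -/
theorem pr_ratio (h : MkA B I G lev A (fun v => g * v) (fun v => s * v)
    (fun j v => θ j * (1 - v)) f b vm w) (k : Fin 12) {ε : ℝ} (hε : 0 < ε) :
    ∀ᶠ n in (U : Filter ℕ),
      prN lev w k n 0 ≤ prN lev w k n 1 * B.d n ^ (-βL (θ 0) (θ 1) k - ε) := by
  have hε2 : 0 < ε / 2 := half_pos hε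
  filter_upwards [cN_pr h 0 0 0 le_rfl zero_le_one hε2, cN_pr h 0 0 0 zero_le_one le_rfl hε2]
    with n h0 h1
  have a := (h0 k).2
  have b := (h1 k).1
  have hc := cN_pos B lev w 0 0 0 n k
  have e1 := rL_lin (θ 0) (θ 1) 0 0 0 1 k
  have e0 : ((0 : ℚ) : ℝ) = 0 := Rat.cast_zero
  have e0' : ((1 : ℚ) : ℝ) = 1 := Rat.cast_one
  rw [e0] at a
  rw [e0', e1, mul_one] at b
  have hd := dpow_pos B n (-βL (θ 0) (θ 1) k - ε)
  have c1 : B.d n ^ (rL (θ 0) (θ 1) 0 0 0 0 k - ε / 2) =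
      B.d n ^ (rL (θ 0) (θ 1) 0 0 0 0 k + βL (θ 0) (θ 1) k + ε / 2) *
        B.d n ^ (-βL (θ 0) (θ 1) k - ε) := by
    rw [← dpow_add]; congr 1; ring
  rw [c1] at a
  have c2 := mul_le_mul_of_nonneg_right b hd.le
  have c3 : cN B lev w 0 0 0 n k * prN lev w k n 0 ≤
      cN B lev w 0 0 0 n k * (prN lev w k n 1 * B.d n ^ (-βL (θ 0) (θ 1) k - ε)) := by
    rw [← mul_assoc]
    exact a.trans c2
  exact le_of_mul_le_mul_left c3 hc

/-- **the gradients of the flags have length `1` up to `d^(θ 1 - θ 0 - ε) σ₁ / σ₀`** -/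
theorem flagZ_of (a : Fin 2)
    (h : TSys PL G g s θ (βL (θ 0) (θ 1)) B I lev A f b vm w (frL lev f b a)
      (fun k n v => prN lev w k n v) fl sc)
    (hG : IsL G L r) (hz : ∀ n x, (fl n x).z = x.2) (h0 : 0 ≤ θ 0)
    (hd : ∀ ε : ℝ, 0 < ε → ∀ᶠ n in (U : Filter ℕ), ∀ x ∈ I n,
      |(fl n x).d| * (sN lev w 0 n * rho (lev n 0)) ≤ B.d n ^ (-ε)) :
    ∀ ε : ℝ, 0 < ε → ∀ᶠ n in (U : Filter ℕ), ∀ x ∈ I n,
      |Xd954.bb (fl n x) 0 ^ 2 + Xd954.bb (fl n x) 1 ^ 2 - 1| * sN lev w 0 n ≤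
        sN lev w 1 n * B.d n ^ (θ 1 - θ 0 - ε) := by
  have hsf := sN_fact h.mka hG
  intro ε hε
  have hε8 : 0 < ε / 8 := by positivity
  filter_upwards [h.close 7 0 le_rfl zero_le_one _ hε8,
    h.close 8 0 le_rfl zero_le_one _ hε8, h.close 10 0 le_rfl zero_le_one _ hε8,
    h.close 11 0 le_rfl zero_le_one _ hε8, hd _ hε8,
    he_of h hz (hsf.mono fun n hn => hn.1) (frL_fact a h.mka hG) hε8,
    ev_const B (c := 30) (by norm_num) hε8, h.mka.wpos 0 0 le_rfl zero_le_one,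
    h.mka.wpos 1 0 le_rfl zero_le_one, h.mka.wpos 0 1 zero_le_one le_rfl,
    h.mka.wpos 1 1 zero_le_one le_rfl, mark_L h.mka hG le_rfl zero_le_one,
    pr_ratio h.mka 7 hε8, pr_ratio h.mka 10 hε8]
    with n c7 c8 c10 c11 hdx he h30 p0 p1 p01 p11 hmk r7 r10 x hx
  have g7 := c7 x hx
  have g8 := c8 x hx
  have g10 := c10 x hx
  have g11 := c11 x hx
  rw [PL_d] at g7 g8 g10 g11
  have hex := he x hx
  have hdx' := hdx x hx
  have r0 := rho_pos3 (lev n 0)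
  have r1 := rho_pos3 (lev n 1)
  have hs0 := sN_pos lev w 0 n
  have hs1' := sN_pos lev w 1 n
  have dp := fun a => dpow_pos B n a
  -- the mark
  have hm := hmk x hx
  have hok := hm.ok
  set m := mkL lev f b n 0 x with hmd
  have hsg := KF439.sg_pos hok
  have hs1 := hok.hs1
  have es : w 0 n 0 / rho (lev n 0) = m.sg := by
    rw [← hm.wide, ← hm.R]
    have := hok.hR
    field_simp
  have es1 : w 1 n 0 / rho (lev n 0) = m.s1 := by
    rw [← hm.thin, ← hm.R]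
    have := hok.hR
    field_simp
  have q7 : prN lev w 7 n 0 = m.s1 / m.sg := by
    rw [← es, ← es1]; rfl
  have q8 : prN lev w 8 n 0 = m.s1 / m.sg := q7
  have q10 : prN lev w 10 n 0 = m.s1 := by
    rw [← es1]; rfl
  have q11 : prN lev w 11 n 0 = rho (lev n 0) * m.s1 := by
    rw [← es1]; rfl
  have q71 : prN lev w 7 n 1 = sN lev w 1 n / sN lev w 0 n := by
    unfold sN
    rw [ps_eq (div_pos p01 r1), ps_eq (div_pos p11 r1)]
    rfl
  have q101 : prN lev w 10 n 1 = sN lev w 1 n := by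
    unfold sN
    rw [ps_eq (div_pos p11 r1)]
    rfl
  have b7 : βL (θ 0) (θ 1) 7 = θ 0 - θ 1 := by
    show (-θ 1 : ℝ) - (-θ 0) = _
    ring
  have b10 : βL (θ 0) (θ 1) 10 = -θ 1 := rfl
  rw [q7, q71, b7] at r7
  rw [q10, q101, b10] at r10
  rw [q7] at g7
  rw [q8] at g8
  rw [q10] at g10
  rw [q11] at g11
  have ej : Xd954.bb (frL lev f b a n 0 x) 0 ^ 2 + Xd954.bb (frL lev f b a n 0 x) 1 ^ 2 =
      ‖grr m.phi (KF439.bray m)‖ ^ 2 := by
    rw [bb_sq]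
    exact vb_flM_sq a m
  have hbr : KF439.bray m ∈ m.rays 0 := KF439.bray_mem hm.ray
  have hq0 : 0 < m.s1 / m.sg := div_pos hs1 hsg
  have t0 : |Xd954.bb (frL lev f b a n 0 x) 0 ^ 2 + Xd954.bb (frL lev f b a n 0 x) 1 ^ 2 - 1| ≤
      m.s1 / m.sg := by
    rw [ej, le_div_iff₀ hsg]
    have := gr_sq_sharp hok hbr
    have hM : kM0 = 1 / 100 := rfl
    rw [hM] at this
    linarith
  have hbb : Xd954.bb (frL lev f b a n 0 x) 0 ^ 2 + Xd954.bb (frL lev f b a n 0 x) 1 ^ 2 ≤ 4 := by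
    rw [ej]
    have := (abs_le.1 (KF439.gr_sq hok hbr)).2
    have hM : kM0 = 1 / 100 := rfl
    rw [hM] at this
    linarith
  have hb0 : |Xd954.bb (frL lev f b a n 0 x) 0| ≤ 2 := two_of hbb
  have hb1 : |Xd954.bb (frL lev f b a n 0 x) 1| ≤ 2 := two_of (by rw [add_comm]; exact hbb)
  have hP30 : 30 ≤ B.d n ^ (-(ε / 8)) := by
    rw [Real.rpow_neg (B.pos n).le, le_inv_comm₀ (by norm_num) (dp _)]
    linarith
  have hq1 : m.s1 / m.sg ≤ 1 := by
    rw [div_le_one hsg]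
    exact hok.hsg
  -- the two sizes
  have h7 : m.s1 / m.sg * sN lev w 0 n ≤ sN lev w 1 n * B.d n ^ (θ 1 - θ 0 - ε / 8) := by
    have e1 := mul_le_mul_of_nonneg_right r7 hs0.le
    have e2 : sN lev w 1 n / sN lev w 0 n * B.d n ^ (-(θ 0 - θ 1) - ε / 8) * sN lev w 0 n =
        sN lev w 1 n * B.d n ^ (θ 1 - θ 0 - ε / 8) := by
      rw [show -(θ 0 - θ 1) - ε / 8 = θ 1 - θ 0 - ε / 8 by ring]
      field_simp
    rwa [e2] at e1
  have h1 : m.s1 ≤ sN lev w 1 n * B.d n ^ (θ 1 - θ 0 - ε / 8) := by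
    refine r10.trans (mul_le_mul_of_nonneg_left ?_ hs1'.le)
    exact dpow_le B n (by linarith)
  rw [bb_sq_eq (fl n x) (frL lev f b a n 0 x)]
  refine (core_zeta hs0 hq0.le hP30 hq1 r0 hs1.le h7 h1 t0 hb0 hb1 g7 g8 g10 g11 hex hdx').trans ?_
  have e3 : sN lev w 1 n * B.d n ^ (θ 1 - θ 0 - ε / 8) *
      (B.d n ^ (-(ε / 8)) * B.d n ^ (-(ε / 8)) * B.d n ^ (-(ε / 8))) =
      sN lev w 1 n * B.d n ^ (θ 1 - θ 0 - ε / 2) := by
    rw [mul_assoc, ← dpow_add, ← dpow_add, ← dpow_add]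
    congr 2; ring
  rw [e3]
  refine mul_le_mul_of_nonneg_left ?_ hs1'.le
  exact dpow_le B n (by linarith)

end flags

end Crest.Agent.R116.Bd710
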