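import Crest.Agent.R116.LZg4_725
import Crest.Agent.R116.ChL1_222

/-!
# R116, K side: boxes of the light-ray chart and members of the class `SS` (helper903), part 1

`toL r z φ : LInc` = incidence of the ray `r = (C', a, k)` (725's sign, velocity `-C'`) and the
height `z`, with the flag of the conformal function `φ` read in the frame of the ray.
`evr φ r s` value of `φ` on the ray at time `s`, `slr φ r` its slope, `grr φ r` the lateral gradient
in the frame of the ray (constant along the ray).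
`co_*` : the twelve relative coordinates of `coL (toL r z φ) (toL r' z' φ')` in these terms:
`D, E, B` = coefficients of `φ' - φ` in the frame of `r'` at the height `z'`,
`P, F` = slope / value of `φ` on `r'` minus those on `r`, at the height `z`.
`mv` : change of height.  `box_mem` : chart box => ray of a member.
-/

set_option autoImplicit false

namespace Crest.Agent.R116.Bm903

open Crest.Agent.R138.Defs (E2)
open Crest.Agent.R116.CDef480 (E3 lat pt normsq2 inner2)
open Crest.Agent.R116.LZg725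
open Crest.Agent.R116.ChL222

/-- the value of a conformal function on a ray. -/
noncomputable def evr (p : Cf E2) (r : E2 × E2 × ℝ) (s : ℝ) : ℝ :=
  p.ev (rx r.1 r.2.1 s) (ry r.1 r.2.2 s) s

/-- the slope of a conformal function along a ray. -/
noncomputable def slr (p : Cf E2) (r : E2 × E2 × ℝ) : ℝ := p.rB r.1 r.2.1 r.2.2

/-- the lateral gradient in the frame of a ray. -/
noncomputable def grr (p : Cf E2) (r : E2 × E2 × ℝ) : E2 := p.gr r.1 r.2.1 0

/-- the null normal of slope `r.1` along the ray `r'`. -/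
noncomputable def nur (r r' : E2 × E2 × ℝ) (s : ℝ) : ℝ :=
  nrm r.1 (rx r'.1 r'.2.1 s) (ry r'.1 r'.2.2 s) s - nrm r.1 (rx r.1 r.2.1 s) (ry r.1 r.2.2 s) s

theorem evr_eq_val (p : Cf E2) (r : E2 × E2 × ℝ) (s : ℝ) : evr p r s = p.val (rpos r s, s) := by
  unfold evr Cf.val
  simp only [lat_rpos, rpos_two]

/-- affine along the rays. -/
theorem evr_move (p : Cf E2) (r : E2 × E2 × ℝ) (s t : ℝ) :
    evr p r t = evr p r s + (t - s) * slr p r := by
  unfold evr slr
  rw [Cf.ev_ray, Cf.ev_ray]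
  ring

theorem grr_eq (p : Cf E2) (r : E2 × E2 × ℝ) (s : ℝ) :
    p.gr r.1 (rx r.1 r.2.1 s) s = grr p r := by
  unfold grr Cf.gr Cf.ny rx
  module

theorem slr_eq (p : Cf E2) (r : E2 × E2 × ℝ) (s : ℝ) :
    p.ld r.1 (rx r.1 r.2.1 s) (ry r.1 r.2.2 s) s = slr p r := Cf.ld_ray p _ _ _ _

/-- `N` moves linearly, with speed `|ΔC|²/2`. -/
theorem nur_move (r r' : E2 × E2 × ℝ) (s t : ℝ) :
    nur r r' t = nur r r' s + (t - s) * (‖r'.1 - r.1‖ ^ 2 / 2) := by
  unfold nur
  rw [nrm_ray', nrm_ray', nrm_ray', nrm_ray']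
  simp only [sub_self, norm_zero]
  ring

theorem rx_move (r r' : E2 × E2 × ℝ) (s t : ℝ) :
    rx r'.1 r'.2.1 t - rx r.1 r.2.1 t =
      (rx r'.1 r'.2.1 s - rx r.1 r.2.1 s) - (t - s) • (r'.1 - r.1) := by
  unfold rx
  module

/-! ### frame formulas -/

/-- value on another ray, from the frame of the first. -/
theorem evr_frame (p : Cf E2) (r r' : E2 × E2 × ℝ) (s : ℝ) :
    evr p r' s = evr p r s + inner ℝ (grr p r) (rx r'.1 r'.2.1 s - rx r.1 r.2.1 s) +
      p.ny s * nur r r' s + p.d * ‖rx r'.1 r'.2.1 s - rx r.1 r.2.1 s‖ ^ 2 := by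
  have h := Cf.ev_expand p r.1 (rx r.1 r.2.1 s) (ry r.1 r.2.2 s) s (rx r'.1 r'.2.1 s)
    (ry r'.1 r'.2.2 s) s
  rw [grr_eq] at h
  unfold evr nur
  rw [h]
  simp only [sub_self, zero_smul, add_zero, mul_zero, zero_mul, sub_zero]

/-- gradient on another ray, from the frame of the first. -/
theorem grr_frame (p : Cf E2) (r r' : E2 × E2 × ℝ) (s : ℝ) :
    grr p r' = grr p r - (p.ny s) • (r'.1 - r.1) +
      (2 * p.d) • (rx r'.1 r'.2.1 s - rx r.1 r.2.1 s) := by
  rw [← grr_eq p r s, ← grr_eq p r' s]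
  unfold Cf.gr
  module

/-- slope on another ray, from the frame of the first. -/
theorem slr_frame (p : Cf E2) (r r' : E2 × E2 × ℝ) (s : ℝ) :
    slr p r' = slr p r - inner ℝ (grr p r) (r'.1 - r.1) + p.ny s * (‖r'.1 - r.1‖ ^ 2 / 2) -
      2 * p.d * (inner ℝ (rx r'.1 r'.2.1 s - rx r.1 r.2.1 s) (r'.1 - r.1) + nur r r' s) := by
  have e1 := evr_frame p r r' (s + 1)
  have e0 := evr_frame p r r' s
  rw [evr_move p r s (s + 1), evr_move p r' s (s + 1), rx_move r r' s (s + 1),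
    nur_move r r' s (s + 1)] at e1
  have e2 : p.ny (s + 1) = p.ny s - 2 * p.d := by unfold Cf.ny; ring
  rw [e2, add_sub_cancel_left] at e1
  generalize rx r'.1 r'.2.1 s - rx r.1 r.2.1 s = w at *
  generalize r'.1 - r.1 = v at *
  rw [one_smul, norm_sub_sq_real, inner_sub_right] at e1
  linarith

theorem ny_add (p q : Cf E2) (s : ℝ) : (Cf.add p q).ny s = p.ny s + q.ny s := by
  unfold Cf.ny Cf.add; ring

theorem grr_add (p q : Cf E2) (r : E2 × E2 × ℝ) : grr (Cf.add p q) r = grr p r + grr q r := by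
  unfold grr Cf.gr Cf.ny Cf.add
  module

theorem evr_add (p q : Cf E2) (r : E2 × E2 × ℝ) (s : ℝ) :
    evr (Cf.add p q) r s = evr p r s + evr q r s := Cf.ev_add p q _ _ _

theorem slr_add (p q : Cf E2) (r : E2 × E2 × ℝ) : slr (Cf.add p q) r = slr p r + slr q r := by
  have h1 := evr_move (Cf.add p q) r 0 1
  have h2 := evr_move p r 0 1
  have h3 := evr_move q r 0 1
  rw [evr_add, evr_add] at h1
  linarith

/-- difference of two conformal functions. -/
noncomputable def dif (p q : Cf E2) : Cf E2 :=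
  ⟨p.a0 - q.a0, p.a1 - q.a1, p.be - q.be, p.g - q.g, p.d - q.d⟩

theorem add_dif (p q : Cf E2) : Cf.add q (dif p q) = p := by
  unfold Cf.add dif
  ext1 <;> simp

theorem dif_d (p q : Cf E2) : (dif p q).d = p.d - q.d := rfl

theorem dif_ny (p q : Cf E2) (s : ℝ) : (dif p q).ny s = p.ny s - q.ny s := by
  unfold Cf.ny dif; ring

theorem dif_grr (p q : Cf E2) (r : E2 × E2 × ℝ) : grr (dif p q) r = grr p r - grr q r := by
  unfold grr Cf.gr Cf.ny dif
  module

theorem dif_evr (p q : Cf E2) (r : E2 × E2 × ℝ) (s : ℝ) :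
    evr (dif p q) r s = evr p r s - evr q r s := by
  have h := evr_add q (dif p q) r s
  rw [add_dif] at h
  linarith

theorem dif_slr (p q : Cf E2) (r : E2 × E2 × ℝ) : slr (dif p q) r = slr p r - slr q r := by
  have h := slr_add q (dif p q) r
  rw [add_dif] at h
  linarith

/-! ### the incidence of the chart -/

/-- incidence (ray, height, conformal function). -/
noncomputable def toL (r : E2 × E2 × ℝ) (z : ℝ) (p : Cf E2) : LInc where
  c1 := -(r.1 0)
  c2 := -(r.1 1)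
  x1 := r.2.1 0
  x2 := r.2.1 1
  h := r.2.2
  z := z
  b1 := grr p r 0
  b2 := grr p r 1
  et := p.ny z
  d := p.d

/-- the ray of the K-side data `(C, X, H)` (velocity `C`). -/
noncomputable def kray (C X : E2) (H : ℝ) : E2 × E2 × ℝ := (-C, X, H)

section toL

variable (r r' : E2 × E2 × ℝ) (z z' : ℝ) (p p' : Cf E2)

theorem toL_p1 (s : ℝ) : (toL r z p).p1 s = rx r.1 r.2.1 s 0 := by
  unfold LInc.p1 toL rx
  simp only [PiLp.sub_apply, PiLp.smul_apply, smul_eq_mul]
  ring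

theorem toL_p2 (s : ℝ) : (toL r z p).p2 s = rx r.1 r.2.1 s 1 := by
  unfold LInc.p2 toL rx
  simp only [PiLp.sub_apply, PiLp.smul_apply, smul_eq_mul]
  ring

theorem toL_ph (s : ℝ) : (toL r z p).ph s = ry r.1 r.2.2 s := by
  unfold LInc.ph toL ry
  rw [normsq2]
  simp only []
  ring

theorem toL_nu (s : ℝ) : nuL (toL r z p) (toL r' z' p') s = nur r r' s := by
  unfold nuL nur nrm
  rw [toL_ph, toL_ph, toL_p1, toL_p1, toL_p2, toL_p2, inner2, inner2]
  unfold toL
  simp only []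
  ring

theorem co0 : coL (toL r z p) (toL r' z' p') 0 = z' - z := rfl

theorem co1 : coL (toL r z p) (toL r' z' p') 1 = (dif p' p).d := rfl

theorem co2 : coL (toL r z p) (toL r' z' p') 2 = (dif p' p).ny z' := by
  show p'.ny z' - p.ny z + 2 * p.d * (z' - z) = _
  unfold dif Cf.ny
  ring

theorem co3 : coL (toL r z p) (toL r' z' p') 3 = -((r'.1 - r.1) 0) := by
  show -(r'.1 0) - -(r.1 0) = _
  rw [PiLp.sub_apply]; ring

theorem co4 : coL (toL r z p) (toL r' z' p') 4 = -((r'.1 - r.1) 1) := by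
  show -(r'.1 1) - -(r.1 1) = _
  rw [PiLp.sub_apply]; ring

theorem co5 : coL (toL r z p) (toL r' z' p') 5 = (rx r'.1 r'.2.1 z - rx r.1 r.2.1 z) 0 := by
  show (toL r' z' p').p1 z - (toL r z p).p1 z = _
  rw [toL_p1, toL_p1, PiLp.sub_apply]

theorem co6 : coL (toL r z p) (toL r' z' p') 6 = (rx r'.1 r'.2.1 z - rx r.1 r.2.1 z) 1 := by
  show (toL r' z' p').p2 z - (toL r z p).p2 z = _
  rw [toL_p2, toL_p2, PiLp.sub_apply]

theorem co7 : coL (toL r z p) (toL r' z' p') 7 = grr (dif p' p) r' 0 := by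
  show grr p' r' 0 - (grr p r 0 + p.ny z * (-(r'.1 0) - -(r.1 0)) +
    2 * p.d * ((toL r' z' p').p1 z - (toL r z p).p1 z)) = _
  rw [toL_p1, toL_p1, dif_grr, grr_frame p r r' z]
  simp only [PiLp.sub_apply, PiLp.add_apply, PiLp.smul_apply, smul_eq_mul]
  ring

theorem co8 : coL (toL r z p) (toL r' z' p') 8 = grr (dif p' p) r' 1 := by
  show grr p' r' 1 - (grr p r 1 + p.ny z * (-(r'.1 1) - -(r.1 1)) +
    2 * p.d * ((toL r' z' p').p2 z - (toL r z p).p2 z)) = _
  rw [toL_p2, toL_p2, dif_grr, grr_frame p r r' z]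
  simp only [PiLp.sub_apply, PiLp.add_apply, PiLp.smul_apply, smul_eq_mul]
  ring

theorem co9 : coL (toL r z p) (toL r' z' p') 9 = nur r r' z := toL_nu r r' z z' p p' z

theorem co10 : coL (toL r z p) (toL r' z' p') 10 = slr p r' - slr p r := by
  show grr p r 0 * (-(r'.1 0) - -(r.1 0)) + grr p r 1 * (-(r'.1 1) - -(r.1 1)) +
      p.ny z * (((-(r'.1 0) - -(r.1 0)) ^ 2 + (-(r'.1 1) - -(r.1 1)) ^ 2) / 2) +
      2 * p.d * (((toL r' z' p').p1 z - (toL r z p).p1 z) * (-(r'.1 0) - -(r.1 0)) +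
        ((toL r' z' p').p2 z - (toL r z p).p2 z) * (-(r'.1 1) - -(r.1 1)) -
        nuL (toL r z p) (toL r' z' p') z) = _
  rw [toL_p1, toL_p1, toL_p2, toL_p2, toL_nu, slr_frame p r r' z, normsq2, inner2, inner2]
  simp only [PiLp.sub_apply]
  ring

theorem co11 : coL (toL r z p) (toL r' z' p') 11 = evr p r' z - evr p r z := by
  show grr p r 0 * ((toL r' z' p').p1 z - (toL r z p).p1 z) +
      grr p r 1 * ((toL r' z' p').p2 z - (toL r z p).p2 z) +
      p.ny z * nuL (toL r z p) (toL r' z' p') z +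
      p.d * (((toL r' z' p').p1 z - (toL r z p).p1 z) ^ 2 +
        ((toL r' z' p').p2 z - (toL r z p).p2 z) ^ 2) = _
  rw [toL_p1, toL_p1, toL_p2, toL_p2, toL_nu, evr_frame p r r' z, normsq2, inner2]
  simp only [PiLp.sub_apply]
  ring

end toL

/-! ### norms against coordinates -/

theorem norm_le_of {v : E2} {a b K : ℝ} (h0 : |v 0| ≤ a) (h1 : |v 1| ≤ b) (hK : a + b ≤ K) :
    ‖v‖ ≤ K := by
  have ha : 0 ≤ a := (abs_nonneg _).trans h0
  have hb : 0 ≤ b := (abs_nonneg _).trans h1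
  have e := normsq2 v
  have h2 : v 0 ^ 2 ≤ a ^ 2 := by rw [← sq_abs]; exact pow_le_pow_left₀ (abs_nonneg _) h0 2
  have h3 : v 1 ^ 2 ≤ b ^ 2 := by rw [← sq_abs]; exact pow_le_pow_left₀ (abs_nonneg _) h1 2
  have h4 : ‖v‖ ^ 2 ≤ (a + b) ^ 2 := by nlinarith
  exact ((sq_le_sq₀ (norm_nonneg _) (by linarith)).1 h4).trans hK

theorem abs0_le (v : E2) : |v 0| ≤ ‖v‖ := by
  have e := normsq2 v
  have h4 : |v 0| ^ 2 ≤ ‖v‖ ^ 2 := by rw [sq_abs]; nlinarith [sq_nonneg (v 1)]
  exact (sq_le_sq₀ (abs_nonneg _) (norm_nonneg _)).1 h4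

theorem abs1_le (v : E2) : |v 1| ≤ ‖v‖ := by
  have e := normsq2 v
  have h4 : |v 1| ^ 2 ≤ ‖v‖ ^ 2 := by rw [sq_abs]; nlinarith [sq_nonneg (v 0)]
  exact (sq_le_sq₀ (abs_nonneg _) (norm_nonneg _)).1 h4

/-! ### change of height -/

/-- the same ray and the same flag at another height. -/
theorem coL_own (r : E2 × E2 × ℝ) (z z' : ℝ) (p : Cf E2) (k : Fin 12) (hk : k ≠ 0) :
    coL (toL r z p) (toL r z' p) k = 0 := by
  have hd : (dif p p).d = 0 := by rw [dif_d, sub_self]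
  have hn : (dif p p).ny z' = 0 := by rw [dif_ny, sub_self]
  have hg : grr (dif p p) r = 0 := by rw [dif_grr, sub_self]
  fin_cases k
  · exact absurd rfl hk
  · exact (co1 r r z z' p p).trans hd
  · exact (co2 r r z z' p p).trans hn
  · exact (co3 r r z z' p p).trans (by simp)
  · exact (co4 r r z z' p p).trans (by simp)
  · exact (co5 r r z z' p p).trans (by simp)
  · exact (co6 r r z z' p p).trans (by simp)
  · exact (co7 r r z z' p p).trans (by rw [hg]; rfl)
  · exact (co8 r r z z' p p).trans (by rw [hg]; rfl)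
  · exact (co9 r r z z' p p).trans (by unfold nur; ring)
  · exact (co10 r r z z' p p).trans (by ring)
  · exact (co11 r r z z' p p).trans (by ring)

/-- the same ray, two flags, two heights: only the slots `0, 1, 2, 7, 8`. -/
theorem coL_own' (r : E2 × E2 × ℝ) (z z' : ℝ) (p p' : Cf E2) :
    coL (toL r z p) (toL r z' p') 3 = 0 ∧ coL (toL r z p) (toL r z' p') 4 = 0 ∧
    coL (toL r z p) (toL r z' p') 5 = 0 ∧ coL (toL r z p) (toL r z' p') 6 = 0 ∧
    coL (toL r z p) (toL r z' p') 9 = 0 ∧ coL (toL r z p) (toL r z' p') 10 = 0 ∧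
    coL (toL r z p) (toL r z' p') 11 = 0 := by
  refine ⟨?_, ?_, ?_, ?_, ?_, ?_, ?_⟩
  · rw [co3]; simp
  · rw [co4]; simp
  · rw [co5]; simp
  · rw [co6]; simp
  · rw [co9]; unfold nur; ring
  · rw [co10]; ring
  · rw [co11]; ring

/-- an incidence of the chart moved to the height `t` on its ray. -/
def mv (i : LInc) (t : ℝ) : LInc := { i with z := t, et := i.et - 2 * i.d * (t - i.z) }

theorem toL_mv (r : E2 × E2 × ℝ) (z t : ℝ) (p : Cf E2) : mv (toL r z p) t = toL r t p := by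
  unfold mv toL Cf.ny
  simp only [LInc.mk.injEq, true_and, and_true]
  ring

/-- the coordinates seen from another height of the ray of `i`. -/
theorem coL_mv_left (i j : LInc) (t : ℝ) :
    coL (mv i t) j 0 = coL i j 0 - (t - i.z) ∧
    coL (mv i t) j 1 = coL i j 1 ∧
    coL (mv i t) j 2 = coL i j 2 ∧
    coL (mv i t) j 3 = coL i j 3 ∧
    coL (mv i t) j 4 = coL i j 4 ∧
    coL (mv i t) j 5 = coL i j 5 + (t - i.z) * coL i j 3 ∧
    coL (mv i t) j 6 = coL i j 6 + (t - i.z) * coL i j 4 ∧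
    coL (mv i t) j 7 = coL i j 7 ∧
    coL (mv i t) j 8 = coL i j 8 ∧
    coL (mv i t) j 9 = coL i j 9 + (t - i.z) * ((coL i j 3 ^ 2 + coL i j 4 ^ 2) / 2) ∧
    coL (mv i t) j 10 = coL i j 10 ∧
    coL (mv i t) j 11 = coL i j 11 + (t - i.z) * coL i j 10 := by
  refine ⟨?_, ?_, ?_, ?_, ?_, ?_, ?_, ?_, ?_, ?_, ?_, ?_⟩ <;>
    simp only [coL, nuL, mv, LInc.p1, LInc.p2, LInc.ph, Matrix.cons_val] <;> ring

/-- the coordinates of another height of the ray of `j`. -/
theorem coL_mv_right (i j : LInc) (t : ℝ) :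
    coL i (mv j t) 0 = coL i j 0 + (t - j.z) ∧
    coL i (mv j t) 1 = coL i j 1 ∧
    coL i (mv j t) 2 = coL i j 2 - 2 * ((t - j.z) * coL i j 1) ∧
    coL i (mv j t) 3 = coL i j 3 ∧
    coL i (mv j t) 4 = coL i j 4 ∧
    coL i (mv j t) 5 = coL i j 5 ∧
    coL i (mv j t) 6 = coL i j 6 ∧
    coL i (mv j t) 7 = coL i j 7 ∧
    coL i (mv j t) 8 = coL i j 8 ∧
    coL i (mv j t) 9 = coL i j 9 ∧
    coL i (mv j t) 10 = coL i j 10 ∧
    coL i (mv j t) 11 = coL i j 11 := by
  refine ⟨?_, ?_, ?_, ?_, ?_, ?_, ?_, ?_, ?_, ?_, ?_, ?_⟩ <;>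
    simp only [coL, nuL, mv, LInc.p1, LInc.p2, LInc.ph, Matrix.cons_val] <;> ring

end Crest.Agent.R116.Bm903
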