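import Crest.Agent.R116.Bm1_903

/-!
# R116, K side: boxes of the light-ray chart and members of the class `SS` (helper903), part 2

`FlN q p r z eB eE eD` : the flag `p` is close to `q` in the frame of the ray `r` at the height `z`
(lateral gradient `eB`, null derivative `eE`, quadratic coefficient `eD`).
`mem_box` : two rays of one member, heights in its cell, flags close to the function of the member
=> bounds of the twelve coordinates.  `mem_box_unit` : the same in units of the member.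
`own_box`, `own_iff` : one ray, two heights, two flags.
-/

set_option autoImplicit false

namespace Crest.Agent.R116.Bm903

open Crest.Agent.R138.Defs (E2)
open Crest.Agent.R116.CDef480 (E3 lat pt normsq2 inner2)
open Crest.Agent.R116.LZg725
open Crest.Agent.R116.ChL222

/-- the flag `p` is close to `q` in the frame of the ray `r`, at the height `z`. -/
structure FlN (q p : Cf E2) (r : E2 × E2 × ℝ) (z eB eE eD : ℝ) : Prop where
  gr : ‖grr (dif p q) r‖ ≤ eB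
  ny : |(dif p q).ny z| ≤ eE
  d : |(dif p q).d| ≤ eD

theorem FlN.mono {q p : Cf E2} {r : E2 × E2 × ℝ} {z eB eE eD eB' eE' eD' : ℝ}
    (h : FlN q p r z eB eE eD) (hB : eB ≤ eB') (hE : eE ≤ eE') (hD : eD ≤ eD') :
    FlN q p r z eB' eE' eD' := ⟨h.gr.trans hB, h.ny.trans hE, h.d.trans hD⟩

theorem FlN.refl (q : Cf E2) (r : E2 × E2 × ℝ) (z : ℝ) : FlN q q r z 0 0 0 := by
  refine ⟨?_, ?_, ?_⟩
  · rw [dif_grr, sub_self, norm_zero]
  · rw [dif_ny, sub_self, abs_zero]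
  · rw [dif_d, sub_self, abs_zero]

theorem FlN.symm {q p : Cf E2} {r : E2 × E2 × ℝ} {z eB eE eD : ℝ} (h : FlN q p r z eB eE eD) :
    FlN p q r z eB eE eD := by
  obtain ⟨h1, h2, h3⟩ := h
  rw [dif_grr] at h1
  rw [dif_ny] at h2
  rw [dif_d] at h3
  refine ⟨?_, ?_, ?_⟩
  · rw [dif_grr, norm_sub_rev]; exact h1
  · rw [dif_ny, abs_sub_comm]; exact h2
  · rw [dif_d, abs_sub_comm]; exact h3

theorem FlN.trans {q p o : Cf E2} {r : E2 × E2 × ℝ} {z eB eE eD eB' eE' eD' : ℝ}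
    (h : FlN q p r z eB eE eD) (h' : FlN p o r z eB' eE' eD') :
    FlN q o r z (eB + eB') (eE + eE') (eD + eD') := by
  obtain ⟨h1, h2, h3⟩ := h
  obtain ⟨h4, h5, h6⟩ := h'
  rw [dif_grr] at h1 h4
  rw [dif_ny] at h2 h5
  rw [dif_d] at h3 h6
  refine ⟨?_, ?_, ?_⟩
  · rw [dif_grr, show grr o r - grr q r = (grr p r - grr q r) + (grr o r - grr p r) by abel]
    exact (norm_add_le _ _).trans (add_le_add h1 h4)
  · rw [dif_ny, show o.ny z - q.ny z = (p.ny z - q.ny z) + (o.ny z - p.ny z) by ring]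
    exact (abs_add_le _ _).trans (add_le_add h2 h5)
  · rw [dif_d, show o.d - q.d = (p.d - q.d) + (o.d - p.d) by ring]
    exact (abs_add_le _ _).trans (add_le_add h3 h6)

theorem abs_ny_move (p : Cf E2) (z z' : ℝ) : |p.ny z'| ≤ |p.ny z| + 2 * |p.d| * |z' - z| := by
  have e : p.ny z' = p.ny z + -(2 * p.d * (z' - z)) := by unfold Cf.ny; ring
  rw [e]
  refine (abs_add_le _ _).trans ?_
  rw [abs_neg, abs_mul, abs_mul, abs_two]

/-- the flag closeness at another height of the ray. -/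
theorem FlN.height {q p : Cf E2} {r : E2 × E2 × ℝ} {z eB eE eD : ℝ} (h : FlN q p r z eB eE eD)
    (z' : ℝ) : FlN q p r z' eB (eE + 2 * eD * |z' - z|) eD := by
  refine ⟨h.gr, (abs_ny_move _ z z').trans ?_, h.d⟩
  have h1 := mul_le_mul_of_nonneg_right h.d (abs_nonneg (z' - z))
  have h2 := h.ny
  nlinarith

theorem norm_grr_frame (p : Cf E2) (r r' : E2 × E2 × ℝ) (z : ℝ) :
    ‖grr p r'‖ ≤ ‖grr p r‖ + |p.ny z| * ‖r'.1 - r.1‖ +
      2 * |p.d| * ‖rx r'.1 r'.2.1 z - rx r.1 r.2.1 z‖ := by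
  rw [grr_frame p r r' z]
  refine (norm_add_le _ _).trans ?_
  rw [norm_smul, Real.norm_eq_abs, abs_mul, abs_two]
  refine add_le_add ((norm_sub_le _ _).trans ?_) le_rfl
  rw [norm_smul, Real.norm_eq_abs]

/-- the flag closeness on another ray. -/
theorem FlN.ray {q p : Cf E2} {r : E2 × E2 × ℝ} {z eB eE eD : ℝ} (h : FlN q p r z eB eE eD)
    {r' : E2 × E2 × ℝ} {a b : ℝ} (ha : ‖r'.1 - r.1‖ ≤ a)
    (hb : ‖rx r'.1 r'.2.1 z - rx r.1 r.2.1 z‖ ≤ b) :
    FlN q p r' z (eB + eE * a + 2 * eD * b) eE eD := by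
  refine ⟨(norm_grr_frame _ r r' z).trans ?_, h.ny, h.d⟩
  have h1 := mul_le_mul h.ny ha (norm_nonneg _) ((abs_nonneg _).trans h.ny)
  have h2 := mul_le_mul h.d hb (norm_nonneg _) ((abs_nonneg _).trans h.d)
  have h3 := h.gr
  nlinarith

/-! ### two rays in the frame of a function -/

theorem abs_evr_frame (p : Cf E2) (r r' : E2 × E2 × ℝ) (z : ℝ) :
    |evr p r' z - evr p r z| ≤ ‖grr p r‖ * ‖rx r'.1 r'.2.1 z - rx r.1 r.2.1 z‖ +
      |p.ny z| * |nur r r' z| + |p.d| * ‖rx r'.1 r'.2.1 z - rx r.1 r.2.1 z‖ ^ 2 := by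
  rw [evr_frame p r r' z]
  generalize rx r'.1 r'.2.1 z - rx r.1 r.2.1 z = w
  have e : evr p r z + inner ℝ (grr p r) w + p.ny z * nur r r' z + p.d * ‖w‖ ^ 2 - evr p r z =
      inner ℝ (grr p r) w + p.ny z * nur r r' z + p.d * ‖w‖ ^ 2 := by ring
  rw [e]
  refine (abs_add_le _ _).trans (add_le_add ((abs_add_le _ _).trans (add_le_add ?_ ?_)) ?_)
  · exact abs_real_inner_le_norm _ _
  · rw [abs_mul]
  · rw [abs_mul, abs_of_nonneg (sq_nonneg ‖w‖)]

theorem abs_slr_frame (p : Cf E2) (r r' : E2 × E2 × ℝ) (z : ℝ) :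
    |slr p r' - slr p r| ≤ ‖grr p r‖ * ‖r'.1 - r.1‖ + |p.ny z| * (‖r'.1 - r.1‖ ^ 2 / 2) +
      2 * |p.d| * (‖rx r'.1 r'.2.1 z - rx r.1 r.2.1 z‖ * ‖r'.1 - r.1‖ + |nur r r' z|) := by
  rw [slr_frame p r r' z]
  generalize rx r'.1 r'.2.1 z - rx r.1 r.2.1 z = w
  generalize r'.1 - r.1 = v
  have e : slr p r - inner ℝ (grr p r) v + p.ny z * (‖v‖ ^ 2 / 2) -
      2 * p.d * (inner ℝ w v + nur r r' z) - slr p r =
      -inner ℝ (grr p r) v + p.ny z * (‖v‖ ^ 2 / 2) + -(2 * p.d * (inner ℝ w v + nur r r' z)) := by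
    ring
  rw [e]
  refine (abs_add_le _ _).trans (add_le_add ((abs_add_le _ _).trans (add_le_add ?_ ?_)) ?_)
  · rw [abs_neg]; exact abs_real_inner_le_norm _ _
  · rw [abs_mul, abs_of_nonneg (by positivity : 0 ≤ ‖v‖ ^ 2 / 2)]
  · rw [abs_neg, abs_mul, abs_mul, abs_two]
    refine mul_le_mul_of_nonneg_left ((abs_add_le _ _).trans (add_le_add ?_ le_rfl)) (by positivity)
    exact abs_real_inner_le_norm _ _

/-! ### two rays of one member -/

section member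

variable {B : ℝ} {m : Mem} {r r' : E2 × E2 × ℝ}

/-- the data of a ray of a member. -/
theorem ray_slope (hr : r ∈ m.rays B) : ‖r.1 - m.c‖ ≤ m.sg := hr.1

theorem ray_lat (hr : r ∈ m.rays B) {s : ℝ} (hs : |s - m.s0| ≤ m.R) :
    ‖(rx r.1 r.2.1 s - lat m.X0) + (s - m.s0) • m.c‖ ≤ m.sg * m.R :=
  (((Mem.mem_rays.1 hr).2 s hs).1).2.1

theorem ray_nrm (hr : r ∈ m.rays B) {s : ℝ} (hs : |s - m.s0| ≤ m.R) :
    |nrm m.c (rx r.1 r.2.1 s) (ry r.1 r.2.2 s) s - nrm m.c (lat m.X0) (m.X0 2) m.s0| ≤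
      m.T B * m.R :=
  (((Mem.mem_rays.1 hr).2 s hs).1).2.2

theorem ray_val (hr : r ∈ m.rays B) {s : ℝ} (hs : |s - m.s0| ≤ m.R) :
    |evr m.phi r s| ≤ m.s1 * m.R := ((Mem.mem_rays.1 hr).2 s hs).2

theorem ray_slr (hR : 0 < m.R) (hr : r ∈ m.rays B) : |slr m.phi r| ≤ m.s1 := by
  have h1 := ray_val hr (s := m.s0 + m.R) (by rw [add_sub_cancel_left, abs_of_pos hR])
  have h2 := ray_val hr (s := m.s0 - m.R) (by rw [sub_sub_cancel_left, abs_neg, abs_of_pos hR])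
  have h3 := evr_move m.phi r (m.s0 - m.R) (m.s0 + m.R)
  have e : 2 * m.R * slr m.phi r = evr m.phi r (m.s0 + m.R) - evr m.phi r (m.s0 - m.R) := by
    rw [h3]; ring
  have h4 : |2 * m.R * slr m.phi r| ≤ 2 * m.R * m.s1 := by
    rw [e]
    refine (abs_sub _ _).trans ?_
    linarith
  rw [abs_mul, abs_of_pos (by positivity)] at h4
  exact le_of_mul_le_mul_left h4 (by positivity)

theorem two_slope (hr : r ∈ m.rays B) (hr' : r' ∈ m.rays B) : ‖r'.1 - r.1‖ ≤ 2 * m.sg := by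
  have h1 := ray_slope hr
  have h2 := ray_slope hr'
  have e : r'.1 - r.1 = (r'.1 - m.c) - (r.1 - m.c) := by abel
  rw [e]
  refine (norm_sub_le _ _).trans ?_
  linarith

theorem two_lat (hr : r ∈ m.rays B) (hr' : r' ∈ m.rays B) {s : ℝ} (hs : |s - m.s0| ≤ m.R) :
    ‖rx r'.1 r'.2.1 s - rx r.1 r.2.1 s‖ ≤ 2 * (m.sg * m.R) := by
  have h1 := ray_lat hr hs
  have h2 := ray_lat hr' hs
  have e : rx r'.1 r'.2.1 s - rx r.1 r.2.1 s =
      (rx r'.1 r'.2.1 s - lat m.X0 + (s - m.s0) • m.c) -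
      (rx r.1 r.2.1 s - lat m.X0 + (s - m.s0) • m.c) := by abel
  rw [e]
  refine (norm_sub_le _ _).trans ?_
  linarith

/-- the null normal of a direction `C` between two points at one time. -/
theorem nrm_two (C c x x' : E2) (y y' s : ℝ) :
    nrm C x' y' s - nrm C x y s = (nrm c x' y' s - nrm c x y s) + inner ℝ (C - c) (x' - x) := by
  unfold nrm
  rw [inner_sub_left, inner_sub_right, inner_sub_right]
  ring

theorem two_nur (hr : r ∈ m.rays B) (hr' : r' ∈ m.rays B) {s : ℝ} (hs : |s - m.s0| ≤ m.R) :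
    |nur r r' s| ≤ 2 * (m.T B * m.R) + 2 * (m.sg ^ 2 * m.R) := by
  have h1 := ray_nrm hr hs
  have h2 := ray_nrm hr' hs
  have h3 := two_lat hr hr' hs
  have h4 := ray_slope hr
  have hsg : 0 ≤ m.sg := (norm_nonneg _).trans h4
  unfold nur
  rw [nrm_two r.1 m.c]
  have e : nrm m.c (rx r'.1 r'.2.1 s) (ry r'.1 r'.2.2 s) s -
      nrm m.c (rx r.1 r.2.1 s) (ry r.1 r.2.2 s) s =
      (nrm m.c (rx r'.1 r'.2.1 s) (ry r'.1 r'.2.2 s) s - nrm m.c (lat m.X0) (m.X0 2) m.s0) -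
      (nrm m.c (rx r.1 r.2.1 s) (ry r.1 r.2.2 s) s - nrm m.c (lat m.X0) (m.X0 2) m.s0) := by ring
  rw [e]
  refine (abs_add_le _ _).trans (add_le_add ((abs_sub _ _).trans ?_) ?_)
  · linarith
  · refine (abs_real_inner_le_norm _ _).trans ?_
    have h5 := mul_le_mul h4 h3 (norm_nonneg _) hsg
    nlinarith

/-- **two rays of one member, flags close to its function: the coordinates of the chart.** -/
theorem mem_box (hR : 0 < m.R) (hr : r ∈ m.rays B) (hr' : r' ∈ m.rays B) {z z' : ℝ}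
    (hz : |z - m.s0| ≤ m.R) (hz' : |z' - m.s0| ≤ m.R) {p p' : Cf E2} {eB eE eD : ℝ}
    (hp : FlN m.phi p r z eB eE eD) (hp' : FlN m.phi p' r' z' eB eE eD) :
    |coL (toL r z p) (toL r' z' p') 0| ≤ 2 * m.R ∧
    |coL (toL r z p) (toL r' z' p') 1| ≤ 2 * eD ∧
    |coL (toL r z p) (toL r' z' p') 2| ≤ 2 * eE + 4 * (m.R * eD) ∧
    |coL (toL r z p) (toL r' z' p') 3| ≤ 2 * m.sg ∧
    |coL (toL r z p) (toL r' z' p') 4| ≤ 2 * m.sg ∧
    |coL (toL r z p) (toL r' z' p') 5| ≤ 2 * (m.sg * m.R) ∧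
    |coL (toL r z p) (toL r' z' p') 6| ≤ 2 * (m.sg * m.R) ∧
    |coL (toL r z p) (toL r' z' p') 7| ≤ 2 * eB + 2 * (m.sg * eE) + 4 * (m.sg * m.R * eD) ∧
    |coL (toL r z p) (toL r' z' p') 8| ≤ 2 * eB + 2 * (m.sg * eE) + 4 * (m.sg * m.R * eD) ∧
    |coL (toL r z p) (toL r' z' p') 9| ≤ 2 * (m.T B * m.R) + 2 * (m.sg ^ 2 * m.R) ∧
    |coL (toL r z p) (toL r' z' p') 10| ≤ 2 * m.s1 + 2 * (m.sg * eB) + 2 * (m.sg ^ 2 * eE) +
      (4 * (m.T B * m.R) + 12 * (m.sg ^ 2 * m.R)) * eD ∧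
    |coL (toL r z p) (toL r' z' p') 11| ≤ 2 * (m.s1 * m.R) + 2 * (m.sg * m.R * eB) +
      (2 * (m.T B * m.R) + 2 * (m.sg ^ 2 * m.R)) * eE + 4 * ((m.sg * m.R) ^ 2 * eD) := by
  have hsg : 0 ≤ m.sg := (norm_nonneg _).trans (ray_slope hr)
  have hV := two_slope hr hr'
  have hW := two_lat hr hr' hz
  have hN := two_nur hr hr' hz
  have hzz : |z' - z| ≤ 2 * m.R := by
    have e : z' - z = (z' - m.s0) - (z - m.s0) := by ring
    rw [e]
    refine (abs_sub _ _).trans ?_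
    linarith
  have heB : 0 ≤ eB := (norm_nonneg _).trans hp.gr
  have heE : 0 ≤ eE := (abs_nonneg _).trans hp.ny
  have heD : 0 ≤ eD := (abs_nonneg _).trans hp.d
  have hT : 0 ≤ m.T B * m.R := (abs_nonneg _).trans (ray_nrm hr hz)
  -- the difference `p' - p` in the frame of `r'`
  have hq := (hp.ray hV hW).symm.height z'
  have hq' := hq.trans hp'
  have h2 : 2 * eD * |z' - z| ≤ 4 * (m.R * eD) := by
    have := mul_le_mul_of_nonneg_left hzz (by positivity : 0 ≤ 2 * eD)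
    linarith
  refine ⟨?_, ?_, ?_, ?_, ?_, ?_, ?_, ?_, ?_, ?_, ?_, ?_⟩
  · rw [co0]; exact hzz
  · rw [co1]; exact hq'.d.trans (by linarith)
  · rw [co2]; exact hq'.ny.trans (by linarith)
  · rw [co3, abs_neg]; exact (abs0_le _).trans hV
  · rw [co4, abs_neg]; exact (abs1_le _).trans hV
  · rw [co5]; exact (abs0_le _).trans hW
  · rw [co6]; exact (abs1_le _).trans hW
  · rw [co7]; exact (abs0_le _).trans (hq'.gr.trans (by nlinarith))
  · rw [co8]; exact (abs1_le _).trans (hq'.gr.trans (by nlinarith))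
  · rw [co9]; exact hN
  · rw [co10]
    have e : slr p r' - slr p r = (slr m.phi r' - slr m.phi r) +
        (slr (dif p m.phi) r' - slr (dif p m.phi) r) := by
      rw [dif_slr, dif_slr]; ring
    rw [e]
    have h3 : |slr m.phi r' - slr m.phi r| ≤ 2 * m.s1 := by
      refine (abs_sub _ _).trans ?_
      have h4 := ray_slr hR hr
      have h5 := ray_slr hR hr'
      linarith
    have h4 := abs_slr_frame (dif p m.phi) r r' z
    have h5 : ‖grr (dif p m.phi) r‖ * ‖r'.1 - r.1‖ ≤ eB * (2 * m.sg) :=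
      mul_le_mul hp.gr hV (norm_nonneg _) heB
    have h6 : ‖r'.1 - r.1‖ ^ 2 ≤ (2 * m.sg) ^ 2 := pow_le_pow_left₀ (norm_nonneg _) hV 2
    have h7 : |(dif p m.phi).ny z| * (‖r'.1 - r.1‖ ^ 2 / 2) ≤ eE * (2 * m.sg ^ 2) :=
      mul_le_mul hp.ny (by linarith) (by positivity) heE
    have h8 : ‖rx r'.1 r'.2.1 z - rx r.1 r.2.1 z‖ * ‖r'.1 - r.1‖ ≤
        (2 * (m.sg * m.R)) * (2 * m.sg) := mul_le_mul hW hV (norm_nonneg _) (by positivity)
    have h9 : 2 * |(dif p m.phi).d| * (‖rx r'.1 r'.2.1 z - rx r.1 r.2.1 z‖ * ‖r'.1 - r.1‖ +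
        |nur r r' z|) ≤ 2 * eD * (6 * (m.sg ^ 2 * m.R) + 2 * (m.T B * m.R)) := by
      refine mul_le_mul (mul_le_mul_of_nonneg_left hp.d zero_le_two) ?_ (by positivity)
        (by positivity)
      nlinarith
    refine (abs_add_le _ _).trans ?_
    nlinarith
  · rw [co11]
    have e : evr p r' z - evr p r z = (evr m.phi r' z - evr m.phi r z) +
        (evr (dif p m.phi) r' z - evr (dif p m.phi) r z) := by
      rw [dif_evr, dif_evr]; ring
    rw [e]
    have h3 : |evr m.phi r' z - evr m.phi r z| ≤ 2 * (m.s1 * m.R) := by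
      refine (abs_sub _ _).trans ?_
      have h4 := ray_val hr hz
      have h5 := ray_val hr' hz
      linarith
    have h4 := abs_evr_frame (dif p m.phi) r r' z
    have h5 : ‖grr (dif p m.phi) r‖ * ‖rx r'.1 r'.2.1 z - rx r.1 r.2.1 z‖ ≤
        eB * (2 * (m.sg * m.R)) := mul_le_mul hp.gr hW (norm_nonneg _) heB
    have h6 : ‖rx r'.1 r'.2.1 z - rx r.1 r.2.1 z‖ ^ 2 ≤ (2 * (m.sg * m.R)) ^ 2 :=
      pow_le_pow_left₀ (norm_nonneg _) hW 2
    have h7 : |(dif p m.phi).ny z| * |nur r r' z| ≤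
        eE * (2 * (m.T B * m.R) + 2 * (m.sg ^ 2 * m.R)) :=
      mul_le_mul hp.ny hN (abs_nonneg _) heE
    have h8 : |(dif p m.phi).d| * ‖rx r'.1 r'.2.1 z - rx r.1 r.2.1 z‖ ^ 2 ≤
        eD * (2 * (m.sg * m.R)) ^ 2 := mul_le_mul hp.d h6 (sq_nonneg _) heD
    refine (abs_add_le _ _).trans ?_
    nlinarith

end member

/-! ### units of a member -/

/-- the units of the chart for a box of aperture `sg`, thin side `s1` (relative), length `R`. -/
noncomputable def un (sg s1 R : ℝ) : Fin 12 → ℝ :=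
  ![R, s1 / (sg ^ 2 * R), s1 / sg ^ 2, sg, sg, sg * R, sg * R, s1 / sg, s1 / sg, sg ^ 2 * R, s1,
    s1 * R]

/-- **two rays of one member, in units of the member**: `κ` = closeness of the flags in units. -/
theorem mem_box_unit {B : ℝ} {m : Mem} {r r' : E2 × E2 × ℝ} (hR : 0 < m.R) (hs1 : 0 < m.s1)
    (hsg : 0 < m.sg) {K : ℝ} (hK : 1 ≤ K) (hT : m.T B ≤ K * m.sg ^ 2)
    (hr : r ∈ m.rays B) (hr' : r' ∈ m.rays B) {z z' : ℝ}
    (hz : |z - m.s0| ≤ m.R) (hz' : |z' - m.s0| ≤ m.R) {p p' : Cf E2} {κ : ℝ} (hκ : 0 ≤ κ)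
    (hp : FlN m.phi p r z (κ * (m.s1 / m.sg)) (κ * (m.s1 / m.sg ^ 2))
      (κ * (m.s1 / (m.sg ^ 2 * m.R))))
    (hp' : FlN m.phi p' r' z' (κ * (m.s1 / m.sg)) (κ * (m.s1 / m.sg ^ 2))
      (κ * (m.s1 / (m.sg ^ 2 * m.R)))) (k : Fin 12) :
    |coL (toL r z p) (toL r' z' p') k| ≤ K * (4 + 20 * κ) * un m.sg m.s1 m.R k := by
  obtain ⟨h0, h1, h2, h3, h4, h5, h6, h7, h8, h9, h10, h11⟩ := mem_box hR hr hr' hz hz' hp hp'
  have hTR : m.T B * m.R ≤ K * (m.sg ^ 2 * m.R) := by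
    have := mul_le_mul_of_nonneg_right hT hR.le
    linarith
  have hKκ : κ ≤ K * κ := le_mul_of_one_le_left hκ hK
  have hsR : 0 < m.sg ^ 2 * m.R := by positivity
  have e1 : m.R * (κ * (m.s1 / (m.sg ^ 2 * m.R))) = κ * (m.s1 / m.sg ^ 2) := by field_simp
  have e2 : m.sg * (κ * (m.s1 / m.sg ^ 2)) = κ * (m.s1 / m.sg) := by field_simp
  have e3 : m.sg * m.R * (κ * (m.s1 / (m.sg ^ 2 * m.R))) = κ * (m.s1 / m.sg) := by field_simp
  have e4 : m.sg * (κ * (m.s1 / m.sg)) = κ * m.s1 := by field_simp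
  have e5 : m.sg ^ 2 * (κ * (m.s1 / m.sg ^ 2)) = κ * m.s1 := by field_simp
  have e6 : m.sg ^ 2 * m.R * (κ * (m.s1 / (m.sg ^ 2 * m.R))) = κ * m.s1 := by field_simp
  have e7 : m.sg * m.R * (κ * (m.s1 / m.sg)) = κ * (m.s1 * m.R) := by field_simp
  have e8 : m.sg ^ 2 * m.R * (κ * (m.s1 / m.sg ^ 2)) = κ * (m.s1 * m.R) := by field_simp
  have e9 : (m.sg * m.R) ^ 2 * (κ * (m.s1 / (m.sg ^ 2 * m.R))) = κ * (m.s1 * m.R) := by
    field_simp
  have mono : ∀ {a b u : ℝ}, 0 ≤ u → a ≤ b → a * u ≤ b * u := fun hu hab =>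
    mul_le_mul_of_nonneg_right hab hu
  have hKp : (0:ℝ) ≤ K * κ := hκ.trans hKκ
  have eK : K * (4 + 20 * κ) = 4 * K + 20 * (K * κ) := by ring
  have c1 : 2 ≤ K * (4 + 20 * κ) := by rw [eK]; linarith
  have c2 : 2 * κ ≤ K * (4 + 20 * κ) := by rw [eK]; linarith
  have c3 : 6 * κ ≤ K * (4 + 20 * κ) := by rw [eK]; linarith
  have c4 : 8 * κ ≤ K * (4 + 20 * κ) := by rw [eK]; linarith
  have c5 : 2 * K + 2 ≤ K * (4 + 20 * κ) := by rw [eK]; linarith
  have c6 : 2 + 4 * κ + (4 * K + 12) * κ ≤ K * (4 + 20 * κ) := by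
    have e : (4 * K + 12) * κ = 4 * (K * κ) + 12 * κ := by ring
    rw [eK, e]; linarith
  have c7 : 2 + 2 * κ + (2 * K + 2) * κ + 4 * κ ≤ K * (4 + 20 * κ) := by
    have e : (2 * K + 2) * κ = 2 * (K * κ) + 2 * κ := by ring
    rw [eK, e]; linarith
  fin_cases k
  · exact h0.trans (mono hR.le c1)
  · refine h1.trans ?_
    have := mono (u := m.s1 / (m.sg ^ 2 * m.R)) (by positivity) c2
    refine le_trans (le_of_eq ?_) this
    ring
  · refine h2.trans ?_
    rw [e1]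
    have := mono (u := m.s1 / m.sg ^ 2) (by positivity) c3
    refine le_trans (le_of_eq ?_) this
    ring
  · exact h3.trans (mono hsg.le c1)
  · exact h4.trans (mono hsg.le c1)
  · exact h5.trans (mono (by positivity) c1)
  · exact h6.trans (mono (by positivity) c1)
  · refine h7.trans ?_
    rw [e2, e3]
    have := mono (u := m.s1 / m.sg) (by positivity) c4
    refine le_trans (le_of_eq ?_) this
    ring
  · refine h8.trans ?_
    rw [e2, e3]
    have := mono (u := m.s1 / m.sg) (by positivity) c4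
    refine le_trans (le_of_eq ?_) this
    ring
  · refine h9.trans ?_
    have := mono (u := m.sg ^ 2 * m.R) hsR.le c5
    refine le_trans ?_ this
    linarith
  · refine h10.trans ?_
    rw [e4, e5]
    have h12 : (4 * (m.T B * m.R) + 12 * (m.sg ^ 2 * m.R)) * (κ * (m.s1 / (m.sg ^ 2 * m.R))) ≤
        (4 * K + 12) * κ * m.s1 := by
      have h13 : (4 * (m.T B * m.R) + 12 * (m.sg ^ 2 * m.R)) ≤
          (4 * K + 12) * (m.sg ^ 2 * m.R) := by linarith
      refine (mul_le_mul_of_nonneg_right h13 (by positivity)).trans (le_of_eq ?_)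
      rw [mul_assoc, e6]; ring
    have := mono (u := m.s1) hs1.le c6
    refine le_trans ?_ this
    linarith
  · refine h11.trans ?_
    rw [e7, e9]
    have h12 : (2 * (m.T B * m.R) + 2 * (m.sg ^ 2 * m.R)) * (κ * (m.s1 / m.sg ^ 2)) ≤
        (2 * K + 2) * κ * (m.s1 * m.R) := by
      have h13 : (2 * (m.T B * m.R) + 2 * (m.sg ^ 2 * m.R)) ≤
          (2 * K + 2) * (m.sg ^ 2 * m.R) := by linarith
      refine (mul_le_mul_of_nonneg_right h13 (by positivity)).trans (le_of_eq ?_)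
      rw [mul_assoc, e8]; ring
    have := mono (u := m.s1 * m.R) (by positivity) c7
    refine le_trans ?_ this
    linarith

/-! ### one ray, two heights, two flags -/

/-- the flags of two incidences of one ray are exactly as close as the slots say. -/
theorem own_flag (r : E2 × E2 × ℝ) (z z' : ℝ) (p p' : Cf E2) :
    FlN p p' r z' (|coL (toL r z p) (toL r z' p') 7| + |coL (toL r z p) (toL r z' p') 8|)
      |coL (toL r z p) (toL r z' p') 2| |coL (toL r z p) (toL r z' p') 1| := by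
  refine ⟨?_, ?_, ?_⟩
  · rw [co7, co8]; exact norm_le_of le_rfl le_rfl le_rfl
  · rw [co2]
  · rw [co1]

/-- own closeness from the closeness of the two flags to a third one. -/
theorem own_box {r : E2 × E2 × ℝ} {z z' : ℝ} {q p p' : Cf E2} {eB eE eD : ℝ}
    (hp : FlN q p r z eB eE eD) (hp' : FlN q p' r z' eB eE eD) :
    coL (toL r z p) (toL r z' p') 0 = z' - z ∧
    |coL (toL r z p) (toL r z' p') 1| ≤ 2 * eD ∧
    |coL (toL r z p) (toL r z' p') 2| ≤ 2 * eE + 2 * eD * |z' - z| ∧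
    coL (toL r z p) (toL r z' p') 3 = 0 ∧ coL (toL r z p) (toL r z' p') 4 = 0 ∧
    coL (toL r z p) (toL r z' p') 5 = 0 ∧ coL (toL r z p) (toL r z' p') 6 = 0 ∧
    |coL (toL r z p) (toL r z' p') 7| ≤ 2 * eB ∧ |coL (toL r z p) (toL r z' p') 8| ≤ 2 * eB ∧
    coL (toL r z p) (toL r z' p') 9 = 0 ∧ coL (toL r z p) (toL r z' p') 10 = 0 ∧
    coL (toL r z p) (toL r z' p') 11 = 0 := by
  obtain ⟨h3, h4, h5, h6, h9, h10, h11⟩ := coL_own' r z z' p p'
  have hq := (hp.symm.height z').trans hp'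
  refine ⟨co0 _ _ _ _ _ _, ?_, ?_, h3, h4, h5, h6, ?_, ?_, h9, h10, h11⟩
  · rw [co1]; exact hq.d.trans (by linarith)
  · rw [co2]; exact hq.ny.trans (by linarith)
  · rw [co7]; exact (abs0_le _).trans (hq.gr.trans (by linarith))
  · rw [co8]; exact (abs1_le _).trans (hq.gr.trans (by linarith))

/-- own closeness in terms of the distance of the two flags in the frame of the ray, slot by
slot. -/
theorem own_slots (r : E2 × E2 × ℝ) (z z' : ℝ) (p p' : Cf E2) :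
    |coL (toL r z p) (toL r z' p') 1| = |(dif p' p).d| ∧
    |coL (toL r z p) (toL r z' p') 2| = |(dif p' p).ny z'| ∧
    |coL (toL r z p) (toL r z' p') 7| ≤ ‖grr (dif p' p) r‖ ∧
    |coL (toL r z p) (toL r z' p') 8| ≤ ‖grr (dif p' p) r‖ := by
  refine ⟨by rw [co1], by rw [co2], ?_, ?_⟩
  · rw [co7]; exact abs0_le _
  · rw [co8]; exact abs1_le _

end Crest.Agent.R116.Bm903
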