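import Crest.Agent.R116.Bm2_903

/-!
# R116, K side: size of conformal functions on a light box (helper903), part 3

`CfB a sg R p r z` : in the frame of the ray `r` at the height `z` the conformal function `p` has
value `≤ a R`, slope `≤ a`, lateral gradient `≤ a / sg`, null derivative `≤ a / sg²`, quadratic
coefficient `≤ a / (sg² R)`.  `CfB.ray`, `CfB.height` : change of the ray and of the height inside
the box.  `CfB.val` / `cfB_of_val` : equivalence with `|p| ≤ C a R` on the light box.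
-/

set_option autoImplicit false

namespace Crest.Agent.R116.Bm903

open Crest.Agent.R138.Defs (E2)
open Crest.Agent.R116.CDef480 (E3 lat pt normsq2 inner2)
open Crest.Agent.R116.LZg725
open Crest.Agent.R116.ChL222

/-- size of a conformal function on the light box of aperture `sg` and length `R` around the ray
`r`, at the height `z`. -/
structure CfB (a sg R : ℝ) (p : Cf E2) (r : E2 × E2 × ℝ) (z : ℝ) : Prop where
  ev : |evr p r z| ≤ a * R
  sl : |slr p r| ≤ a
  gr : ‖grr p r‖ ≤ a / sg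
  ny : |p.ny z| ≤ a / sg ^ 2
  d : |p.d| ≤ a / (sg ^ 2 * R)

section size

variable {a sg R : ℝ} {p : Cf E2} {r r' : E2 × E2 × ℝ} {z : ℝ}

theorem CfB.nonneg (h : CfB a sg R p r z) : 0 ≤ a := (abs_nonneg _).trans h.sl

theorem CfB.mono {a' : ℝ} (h : CfB a sg R p r z) (hsg : 0 < sg) (hR : 0 < R) (ha : a ≤ a') :
    CfB a' sg R p r z := by
  obtain ⟨h1, h2, h3, h4, h5⟩ := h
  exact ⟨h1.trans (mul_le_mul_of_nonneg_right ha hR.le), h2.trans ha,
    h3.trans (div_le_div_of_nonneg_right ha hsg.le),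
    h4.trans (div_le_div_of_nonneg_right ha (by positivity)),
    h5.trans (div_le_div_of_nonneg_right ha (by positivity))⟩

/-- change of the ray. -/
theorem CfB.ray (h : CfB a sg R p r z) (hsg : 0 < sg) (hR : 0 < R) {k : ℝ} (hk : 1 ≤ k)
    (h1 : ‖r'.1 - r.1‖ ≤ k * sg) (h2 : ‖rx r'.1 r'.2.1 z - rx r.1 r.2.1 z‖ ≤ k * (sg * R))
    (h3 : |nur r r' z| ≤ k * (sg ^ 2 * R)) : CfB (7 * k ^ 2 * a) sg R p r' z := by
  have ha := h.nonneg
  have hk0 : 0 ≤ k := zero_le_one.trans hk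
  have hk2 : k ≤ k ^ 2 := by nlinarith
  have hk1 : 1 ≤ k ^ 2 := hk.trans hk2
  have hka : k * a ≤ k ^ 2 * a := mul_le_mul_of_nonneg_right hk2 ha
  have h1a : a ≤ k ^ 2 * a := le_mul_of_one_le_left ha hk1
  obtain ⟨g1, g2, g3, g4, g5⟩ := h
  have e1 : a / sg * (k * (sg * R)) = k * a * R := by field_simp
  have e2 : a / sg ^ 2 * (k * (sg ^ 2 * R)) = k * a * R := by field_simp
  have e3 : a / (sg ^ 2 * R) * (k * (sg * R)) ^ 2 = k ^ 2 * a * R := by field_simp
  have e4 : a / sg * (k * sg) = k * a := by field_simp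
  have e5 : a / sg ^ 2 * ((k * sg) ^ 2 / 2) = k ^ 2 * a / 2 := by field_simp
  have e6 : 2 * (a / (sg ^ 2 * R)) * (k * (sg * R) * (k * sg) + k * (sg ^ 2 * R)) =
      2 * (k ^ 2 * a) + 2 * (k * a) := by field_simp
  have e7 : a / sg ^ 2 * (k * sg) = k * a / sg := by field_simp
  have e8 : 2 * (a / (sg ^ 2 * R)) * (k * (sg * R)) = 2 * (k * a / sg) := by field_simp
  have hv2 : ‖r'.1 - r.1‖ ^ 2 ≤ (k * sg) ^ 2 := pow_le_pow_left₀ (norm_nonneg _) h1 2
  have hw2 : ‖rx r'.1 r'.2.1 z - rx r.1 r.2.1 z‖ ^ 2 ≤ (k * (sg * R)) ^ 2 :=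
    pow_le_pow_left₀ (norm_nonneg _) h2 2
  have u1 := mul_le_mul g3 h2 (norm_nonneg _) (by positivity)
  have u2 := mul_le_mul g4 h3 (abs_nonneg _) (by positivity)
  have u3 := mul_le_mul g5 hw2 (sq_nonneg _) (by positivity)
  have u4 := mul_le_mul g3 h1 (norm_nonneg _) (by positivity)
  have u5 : |p.ny z| * (‖r'.1 - r.1‖ ^ 2 / 2) ≤ a / sg ^ 2 * ((k * sg) ^ 2 / 2) :=
    mul_le_mul g4 (by linarith) (by positivity) (by positivity)
  have u6 : 2 * |p.d| * (‖rx r'.1 r'.2.1 z - rx r.1 r.2.1 z‖ * ‖r'.1 - r.1‖ + |nur r r' z|) ≤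
      2 * (a / (sg ^ 2 * R)) * (k * (sg * R) * (k * sg) + k * (sg ^ 2 * R)) := by
    refine mul_le_mul (mul_le_mul_of_nonneg_left g5 zero_le_two) ?_ (by positivity)
      (by positivity)
    exact add_le_add (mul_le_mul h2 h1 (norm_nonneg _) (by positivity)) h3
  have u7 := mul_le_mul g4 h1 (norm_nonneg _) (by positivity)
  have u8 := mul_le_mul (mul_le_mul_of_nonneg_left g5 zero_le_two) h2 (norm_nonneg _)
    (by positivity)
  rw [e1] at u1
  rw [e2] at u2
  rw [e3] at u3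
  rw [e4] at u4
  rw [e5] at u5
  rw [e6] at u6
  rw [e7] at u7
  rw [e8] at u8
  refine ⟨?_, ?_, ?_, ?_, ?_⟩
  · have h4 := abs_evr_frame p r r' z
    have e : evr p r' z = evr p r z + (evr p r' z - evr p r z) := by ring
    rw [e]
    refine (abs_add_le _ _).trans ?_
    have hkR := mul_le_mul_of_nonneg_right hka hR.le
    have h1R := mul_le_mul_of_nonneg_right h1a hR.le
    have : 0 ≤ k ^ 2 * a * R := by positivity
    linarith
  · have h4 := abs_slr_frame p r r' z
    have e : slr p r' = slr p r + (slr p r' - slr p r) := by ring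
    rw [e]
    refine (abs_add_le _ _).trans ?_
    linarith
  · refine (norm_grr_frame p r r' z).trans ?_
    have h5 : a / sg ≤ k ^ 2 * a / sg := div_le_div_of_nonneg_right h1a hsg.le
    have h6 : k * a / sg ≤ k ^ 2 * a / sg := div_le_div_of_nonneg_right hka hsg.le
    have h7 : 0 ≤ k ^ 2 * a / sg := by positivity
    have h8 : 7 * k ^ 2 * a / sg = 7 * (k ^ 2 * a / sg) := by ring
    rw [h8]
    linarith
  · refine g4.trans (div_le_div_of_nonneg_right ?_ (by positivity))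
    linarith [mul_nonneg hk0 ha]
  · refine g5.trans (div_le_div_of_nonneg_right ?_ (by positivity))
    linarith [mul_nonneg hk0 ha]

/-- change of the height. -/
theorem CfB.height (h : CfB a sg R p r z) (hsg : 0 < sg) (hR : 0 < R) {k z' : ℝ} (hk : 0 ≤ k)
    (h1 : |z' - z| ≤ k * R) : CfB ((1 + 2 * k) * a) sg R p r z' := by
  have ha := h.nonneg
  obtain ⟨g1, g2, g3, g4, g5⟩ := h
  have hka : 0 ≤ k * a := mul_nonneg hk ha
  refine ⟨?_, ?_, ?_, ?_, ?_⟩
  · rw [evr_move p r z z']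
    refine (abs_add_le _ _).trans ?_
    rw [abs_mul]
    have := mul_le_mul h1 g2 (abs_nonneg _) (by positivity)
    nlinarith
  · exact g2.trans (by nlinarith)
  · exact g3.trans (div_le_div_of_nonneg_right (by nlinarith) hsg.le)
  · refine (abs_ny_move p z z').trans ?_
    have h2 := mul_le_mul (mul_le_mul_of_nonneg_left g5 zero_le_two) h1 (abs_nonneg _)
      (by positivity)
    have e : 2 * (a / (sg ^ 2 * R)) * (k * R) = 2 * k * a / sg ^ 2 := by field_simp
    rw [e] at h2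
    have e2 : (1 + 2 * k) * a / sg ^ 2 = a / sg ^ 2 + 2 * k * a / sg ^ 2 := by ring
    rw [e2]
    linarith
  · exact g5.trans (div_le_div_of_nonneg_right (by nlinarith) (by positivity))

/-- sizes and closeness of flags. -/
theorem CfB.flN {q : Cf E2} (h : CfB a sg R (dif p q) r z) :
    FlN q p r z (a / sg) (a / sg ^ 2) (a / (sg ^ 2 * R)) := ⟨h.gr, h.ny, h.d⟩

theorem cfB_of_flN {q : Cf E2} (h : FlN q p r z (a / sg) (a / sg ^ 2) (a / (sg ^ 2 * R)))
    (h1 : |evr (dif p q) r z| ≤ a * R) (h2 : |slr (dif p q) r| ≤ a) :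
    CfB a sg R (dif p q) r z := ⟨h1, h2, h.gr, h.ny, h.d⟩

end size

/-! ### values on the light box -/

/-- the point of frame coordinates `(w, ν, u)` in the frame of the ray `r` at the height `z`. -/
noncomputable def fpx (r : E2 × E2 × ℝ) (z : ℝ) (w : E2) (u : ℝ) : E2 :=
  rx r.1 r.2.1 z + w - u • r.1

/-- null coordinate of the point of frame coordinates `(w, ν, u)`. -/
noncomputable def fpy (r : E2 × E2 × ℝ) (z : ℝ) (w : E2) (ν u : ℝ) : ℝ :=
  ry r.1 r.2.2 z + ν - inner ℝ r.1 w + u * ‖r.1‖ ^ 2 / 2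

theorem fp_frame (r : E2 × E2 × ℝ) (z : ℝ) (w : E2) (ν u : ℝ) :
    (fpx r z w u - rx r.1 r.2.1 z) + (z + u - z) • r.1 = w ∧
    nrm r.1 (fpx r z w u) (fpy r z w ν u) (z + u) -
      nrm r.1 (rx r.1 r.2.1 z) (ry r.1 r.2.2 z) z = ν := by
  constructor
  · unfold fpx
    rw [add_sub_cancel_left]
    abel
  · unfold fpx fpy nrm
    rw [inner_sub_right, inner_add_right, real_inner_smul_right, real_inner_self_eq_norm_sq]
    ring

/-- value in frame coordinates. -/
theorem ev_fp (p : Cf E2) (r : E2 × E2 × ℝ) (z : ℝ) (w : E2) (ν u : ℝ) :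
    p.ev (fpx r z w u) (fpy r z w ν u) (z + u) =
      evr p r z + u * slr p r + inner ℝ (grr p r) w + p.ny z * ν +
        p.d * (‖w‖ ^ 2 - 2 * u * ν) := by
  obtain ⟨h1, h2⟩ := fp_frame r z w ν u
  have h := Cf.ev_expand p r.1 (rx r.1 r.2.1 z) (ry r.1 r.2.2 z) z (fpx r z w u) (fpy r z w ν u)
    (z + u)
  rw [h1, h2, grr_eq, slr_eq, add_sub_cancel_left] at h
  rw [h]
  unfold evr
  ring

/-- **the size from the values on the light box** (`T ≥ sg²`). -/
theorem cfB_of_val {a sg T R : ℝ} (hsg : 0 < sg) (hT : sg ^ 2 ≤ T) (hR : 0 < R) {p : Cf E2}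
    {r : E2 × E2 × ℝ} {z : ℝ}
    (h : ∀ (w : E2) (ν u : ℝ), ‖w‖ ≤ sg * R → |ν| ≤ T * R → |u| ≤ R →
      |p.ev (fpx r z w u) (fpy r z w ν u) (z + u)| ≤ a * R) : CfB a sg R p r z := by
  have hT0 : 0 < T := lt_of_lt_of_le (pow_pos hsg 2) hT
  have hTR : 0 < T * R := mul_pos hT0 hR
  have hsR : 0 < sg * R := mul_pos hsg hR
  have z1 : ‖(0 : E2)‖ ≤ sg * R := by rw [norm_zero]; exact hsR.le
  have z2 : |(0:ℝ)| ≤ T * R := by rw [abs_zero]; exact hTR.le
  have z3 : |(0:ℝ)| ≤ R := by rw [abs_zero]; exact hR.le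
  have p2 : |T * R| ≤ T * R := (abs_of_pos hTR).le
  have n2 : |-(T * R)| ≤ T * R := by rw [abs_neg]; exact p2
  have p3 : |R| ≤ R := (abs_of_pos hR).le
  have n3 : |-R| ≤ R := by rw [abs_neg]; exact p3
  have k0 := h 0 0 0 z1 z2 z3
  have kp := h 0 0 R z1 z2 p3
  have kn := h 0 0 (-R) z1 z2 n3
  have np := h 0 (T * R) 0 z1 p2 z3
  have nn := h 0 (-(T * R)) 0 z1 n2 z3
  have dp := h 0 (T * R) R z1 p2 p3
  have dn := h 0 (-(T * R)) (-R) z1 n2 n3
  rw [ev_fp] at k0 kp kn np nn dp dn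
  simp only [inner_zero_right, norm_zero] at k0 kp kn np nn dp dn
  have e0 : evr p r z + 0 * slr p r + 0 + p.ny z * 0 + p.d * (0 ^ 2 - 2 * 0 * 0) = evr p r z := by
    ring
  rw [e0] at k0
  have ha : 0 ≤ a * R := (abs_nonneg _).trans k0
  have ha' : 0 ≤ a := by
    by_contra hc
    push Not at hc
    have := mul_neg_of_neg_of_pos hc hR
    linarith
  rw [abs_le] at k0 kp kn np nn dp dn
  have c1 : |slr p r| ≤ a := by
    rw [abs_le]
    constructor
    · by_contra hc
      push Not at hc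
      have := mul_lt_mul_of_pos_right hc hR
      linarith [k0.1, k0.2, kp.1, kp.2, kn.1, kn.2]
    · by_contra hc
      push Not at hc
      have := mul_lt_mul_of_pos_right hc hR
      linarith [k0.1, k0.2, kp.1, kp.2, kn.1, kn.2]
  have c2 : |p.ny z| * (T * R) ≤ a * R := by
    rw [← abs_of_pos hTR, ← abs_mul, abs_le]
    constructor <;> linarith [np.1, np.2, nn.1, nn.2]
  have c3 : |p.d| * (T * R * R) ≤ a * R := by
    rw [← abs_of_pos (mul_pos hTR hR), ← abs_mul, abs_le]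
    constructor <;> linarith [dp.1, dp.2, dn.1, dn.2, k0.1, k0.2]
  have c4 : ‖grr p r‖ * (sg * R) ≤ a * R := by
    rcases eq_or_ne (grr p r) 0 with hg | hg
    · rw [hg, norm_zero, zero_mul]; exact ha
    · have hg0 : 0 < ‖grr p r‖ := norm_pos_iff.2 hg
      set w : E2 := (sg * R / ‖grr p r‖) • grr p r with hw
      have hwn : ‖w‖ = sg * R := by
        rw [hw, norm_smul, Real.norm_of_nonneg (by positivity)]
        field_simp
      have hwi : inner ℝ (grr p r) w = ‖grr p r‖ * (sg * R) := by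
        rw [hw, real_inner_smul_right, real_inner_self_eq_norm_sq]
        field_simp
      have wp := h w 0 0 hwn.le z2 z3
      have wn := h (-w) 0 0 (by rw [norm_neg]; exact hwn.le) z2 z3
      rw [ev_fp, abs_le] at wp wn
      rw [norm_neg, inner_neg_right] at wn
      rw [hwi] at wp wn
      linarith [wp.1, wp.2, wn.1, wn.2]
  refine ⟨abs_le.2 k0, c1, ?_, ?_, ?_⟩
  · rw [le_div_iff₀ hsg]
    have : ‖grr p r‖ * sg * R ≤ a * R := by linarith
    exact le_of_mul_le_mul_right this hR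
  · rw [le_div_iff₀ (by positivity)]
    have h1 : |p.ny z| * T * R ≤ a * R := by linarith
    have h2 := le_of_mul_le_mul_right h1 hR
    exact (mul_le_mul_of_nonneg_left hT (abs_nonneg _)).trans h2
  · rw [le_div_iff₀ (by positivity)]
    have h1 : |p.d| * (T * R) * R ≤ a * R := by linarith
    have h2 := le_of_mul_le_mul_right h1 hR
    refine le_trans ?_ h2
    exact mul_le_mul_of_nonneg_left (mul_le_mul_of_nonneg_right hT hR.le) (abs_nonneg _)

/-- **the values on the light box from the size** (`T ≤ K sg²`). -/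
theorem CfB.val {a sg R K k : ℝ} {p : Cf E2} {r : E2 × E2 × ℝ} {z : ℝ}
    (h : CfB a sg R p r z) (hsg : 0 < sg) (hR : 0 < R) (hk : 1 ≤ k) (hK : 1 ≤ K)
    {w : E2} {ν u : ℝ} (hw : ‖w‖ ≤ k * (sg * R)) (hν : |ν| ≤ K * (sg ^ 2 * R))
    (hu : |u| ≤ k * R) :
    |p.ev (fpx r z w u) (fpy r z w ν u) (z + u)| ≤ 7 * (K * k ^ 2) * a * R := by
  have ha := h.nonneg
  have hk0 : 0 ≤ k := zero_le_one.trans hk
  have hK0 : 0 ≤ K := zero_le_one.trans hK
  obtain ⟨g1, g2, g3, g4, g5⟩ := h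
  rw [ev_fp]
  have e1 : a / sg * (k * (sg * R)) = k * a * R := by field_simp
  have e2 : a / sg ^ 2 * (K * (sg ^ 2 * R)) = K * a * R := by field_simp
  have e3 : a / (sg ^ 2 * R) * ((k * (sg * R)) ^ 2 + 2 * (k * R) * (K * (sg ^ 2 * R))) =
      k ^ 2 * a * R + 2 * (k * K) * a * R := by field_simp
  have u1 := mul_le_mul g3 hw (norm_nonneg _) (by positivity)
  have u2 := mul_le_mul g4 hν (abs_nonneg _) (by positivity)
  have u0 := mul_le_mul hu g2 (abs_nonneg _) (by positivity)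
  have u4 : |‖w‖ ^ 2 - 2 * u * ν| ≤ (k * (sg * R)) ^ 2 + 2 * (k * R) * (K * (sg ^ 2 * R)) := by
    refine (abs_sub _ _).trans (add_le_add ?_ ?_)
    · rw [abs_of_nonneg (sq_nonneg _)]
      exact pow_le_pow_left₀ (norm_nonneg _) hw 2
    · rw [abs_mul, abs_mul, abs_two]
      exact mul_le_mul (mul_le_mul_of_nonneg_left hu zero_le_two) hν (abs_nonneg _)
        (by positivity)
  have u3 := mul_le_mul g5 u4 (abs_nonneg _) (by positivity)
  rw [e1] at u1
  rw [e2] at u2
  rw [e3] at u3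
  have f1 : |evr p r z + u * slr p r + inner ℝ (grr p r) w + p.ny z * ν +
      p.d * (‖w‖ ^ 2 - 2 * u * ν)| ≤ |evr p r z| + |u| * |slr p r| + ‖grr p r‖ * ‖w‖ +
      |p.ny z| * |ν| + |p.d| * |‖w‖ ^ 2 - 2 * u * ν| := by
    refine (abs_add_le _ _).trans (add_le_add ?_ (abs_mul _ _).le)
    refine (abs_add_le _ _).trans (add_le_add ?_ (abs_mul _ _).le)
    refine (abs_add_le _ _).trans (add_le_add ?_ (abs_real_inner_le_norm _ _))
    exact (abs_add_le _ _).trans (add_le_add le_rfl (abs_mul _ _).le)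
  refine f1.trans ?_
  have haR : 0 ≤ a * R := by positivity
  have q1 : 1 ≤ K * k ^ 2 := by
    have : 1 ≤ k ^ 2 := one_le_pow₀ hk
    nlinarith
  have q2 : k ≤ K * k ^ 2 := by nlinarith [mul_nonneg hK0 hk0, sq_nonneg k]
  have q3 : K ≤ K * k ^ 2 := le_mul_of_one_le_right hK0 (one_le_pow₀ hk)
  have q4 : k ^ 2 ≤ K * k ^ 2 := le_mul_of_one_le_left (sq_nonneg _) hK
  have q5 : k * K ≤ K * k ^ 2 := by nlinarith [mul_nonneg hK0 hk0]
  have m1 := mul_le_mul_of_nonneg_right q1 haR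
  have m2 := mul_le_mul_of_nonneg_right q2 haR
  have m3 := mul_le_mul_of_nonneg_right q3 haR
  have m4 := mul_le_mul_of_nonneg_right q4 haR
  have m5 := mul_le_mul_of_nonneg_right q5 haR
  nlinarith

end Crest.Agent.R116.Bm903
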