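import Crest.Agent.R116.LZg1_725
import Crest.Agent.R138.Tub1_70

/-!
# R116 (S0155), bridge K side -> wave side, part 1: fine graining (helper430)

A thin plank of widths `(w, ρ)` around a light ray is a union of tubes of radius `r ≤ ρ` around the
lattice rays of its phase box.  Class-free: weighted planks -> weighted lattice rays, with
pointwise domination, energy and counting measure.
-/

set_option autoImplicit false

open MeasureTheory

namespace Crest.Agent.R116.Br430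

open Crest.Agent.R116.LZg725 (nrm rx ry nrm_ray nrm_ray')
open Crest.Agent.R138.Tub70 (Lat nr norm_sub_nr)

abbrev E2 := EuclideanSpace ℝ (Fin 2)

/-- labels of the rays of a phase box: direction, position, height. -/
abbrev RI := (ℤ × ℤ) × (ℤ × ℤ) × ℤ

/-- the point `(x, y)` at time `s` lies in the tube of radius `r` around the ray `(C; a, c)`. -/
def InTb (r : ℝ) (C a : E2) (c : ℝ) (x : E2) (y s : ℝ) : Prop :=
  ‖x - rx C a s‖ ≤ r ∧ |y - ry C c s| ≤ r

/-- the point `(x, y)` at time `s` lies in the plank of widths `(w, ρ)` of the ray `(C; a, c)`. -/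
def InPk (w ρ : ℝ) (C a : E2) (c : ℝ) (x : E2) (y s : ℝ) : Prop :=
  ‖x - rx C a s‖ ≤ w ∧ |nrm C x y s - (c + inner ℝ C a)| ≤ ρ

/-! ### counting integers in intervals -/

/-- the integers `k` with `|h k - x| ≤ t`. -/
noncomputable def IS (h x t : ℝ) : Finset ℤ := Finset.Icc ⌈(x - t) / h⌉ ⌊(x + t) / h⌋

theorem mem_IS {h x t : ℝ} (hh : 0 < h) {k : ℤ} : k ∈ IS h x t ↔ |h * k - x| ≤ t := by
  unfold IS
  rw [Finset.mem_Icc, Int.ceil_le, Int.le_floor, div_le_iff₀ hh, le_div_iff₀ hh, abs_le]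
  constructor
  · rintro ⟨h1, h2⟩; constructor <;> linarith
  · rintro ⟨h1, h2⟩; constructor <;> linarith

theorem card_IS_le {h x t : ℝ} (hh : 0 < h) (ht : 0 ≤ t) : ((IS h x t).card : ℝ) ≤ 2 * t / h + 1 := by
  unfold IS
  rw [Int.card_Icc]
  have h1 := Int.le_ceil ((x - t) / h)
  have h2 := Int.floor_le ((x + t) / h)
  have e : (x + t) / h - (x - t) / h = 2 * t / h := by ring
  have h3 : ((⌊(x + t) / h⌋ + 1 - ⌈(x - t) / h⌉ : ℤ) : ℝ) ≤ 2 * t / h + 1 := by
    push_cast; linarith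
  have h4 : (0 : ℝ) ≤ 2 * t / h + 1 := by positivity
  rcases le_total 0 (⌊(x + t) / h⌋ + 1 - ⌈(x - t) / h⌉) with h5 | h5
  · have : ((⌊(x + t) / h⌋ + 1 - ⌈(x - t) / h⌉).toNat : ℝ) =
        ((⌊(x + t) / h⌋ + 1 - ⌈(x - t) / h⌉ : ℤ) : ℝ) := by
      exact_mod_cast Int.toNat_of_nonneg h5
    rw [this]; exact h3
  · rw [Int.toNat_of_nonpos h5]; simpa using h4

theorem card_IS_ge {h x t : ℝ} : 2 * t / h - 1 ≤ ((IS h x t).card : ℝ) := by
  unfold IS
  rw [Int.card_Icc]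
  have h1 := Int.ceil_lt_add_one ((x - t) / h)
  have h2 := Int.lt_floor_add_one ((x + t) / h)
  have e : (x + t) / h - (x - t) / h = 2 * t / h := by ring
  have h3 : 2 * t / h - 1 ≤ ((⌊(x + t) / h⌋ + 1 - ⌈(x - t) / h⌉ : ℤ) : ℝ) := by
    push_cast; linarith
  refine h3.trans ?_
  have := Int.self_le_toNat (⌊(x + t) / h⌋ + 1 - ⌈(x - t) / h⌉)
  exact_mod_cast this

/-! ### lattice points in discs -/

theorem abs_le_of_norm (x : E2) (i : Fin 2) : |x i| ≤ ‖x‖ := by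
  have := PiLp.norm_apply_le x i
  rwa [Real.norm_eq_abs] at this

theorem norm_le_of_abs {x : E2} {t : ℝ} (ht : 0 ≤ t) (h : ∀ i, |x i| ≤ t) : ‖x‖ ≤ 2 * t := by
  rw [EuclideanSpace.norm_eq, Real.sqrt_le_left (by linarith), Fin.sum_univ_two]
  have h0 := sq_le_sq' (abs_le.mp (h 0)).1 (abs_le.mp (h 0)).2
  have h1 := sq_le_sq' (abs_le.mp (h 1)).1 (abs_le.mp (h 1)).2
  simp only [Real.norm_eq_abs, sq_abs]
  nlinarith

/-- the lattice points in the square of half side `t` around `x`. -/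
noncomputable def SQ (h : ℝ) (x : E2) (t : ℝ) : Finset (ℤ × ℤ) := IS h (x 0) t ×ˢ IS h (x 1) t

theorem mem_SQ {h : ℝ} (hh : 0 < h) {x : E2} {t : ℝ} {k : ℤ × ℤ} :
    k ∈ SQ h x t ↔ ∀ i, |(Lat h k - x) i| ≤ t := by
  unfold SQ
  rw [Finset.mem_product, mem_IS hh, mem_IS hh]
  constructor
  · rintro ⟨h1, h2⟩ i
    fin_cases i
    · simpa using h1
    · simpa using h2
  · intro H
    have h1 := H 0
    have h2 := H 1
    simp only [PiLp.sub_apply, Crest.Agent.R138.Tub70.Lat_zero_coord,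
      Crest.Agent.R138.Tub70.Lat_one_coord] at h1 h2
    exact ⟨h1, h2⟩

theorem mem_SQ_of_norm {h : ℝ} (hh : 0 < h) {x : E2} {t : ℝ} {k : ℤ × ℤ} (H : ‖Lat h k - x‖ ≤ t) :
    k ∈ SQ h x t := (mem_SQ hh).mpr fun i => (abs_le_of_norm _ i).trans H

theorem norm_of_mem_SQ {h : ℝ} (hh : 0 < h) {x : E2} {t : ℝ} (ht : 0 ≤ t) {k : ℤ × ℤ}
    (H : k ∈ SQ h x t) : ‖Lat h k - x‖ ≤ 2 * t := norm_le_of_abs ht ((mem_SQ hh).mp H)

theorem card_SQ_le {h : ℝ} (hh : 0 < h) (x : E2) {t : ℝ} (ht : h ≤ t) :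
    ((SQ h x t).card : ℝ) ≤ 9 * (t / h) ^ 2 := by
  unfold SQ
  rw [Finset.card_product, Nat.cast_mul]
  have ht0 : 0 ≤ t := hh.le.trans ht
  have h1 : 1 ≤ t / h := by rw [le_div_iff₀ hh]; linarith
  have hb : ∀ y : ℝ, ((IS h y t).card : ℝ) ≤ 3 * (t / h) := by
    intro y
    refine (card_IS_le hh ht0).trans ?_
    have : 2 * t / h = 2 * (t / h) := by ring
    rw [this]; linarith
  calc ((IS h (x 0) t).card : ℝ) * ((IS h (x 1) t).card : ℝ)
      ≤ (3 * (t / h)) * (3 * (t / h)) := by gcongr <;> exact hb _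
    _ = 9 * (t / h) ^ 2 := by ring

theorem card_SQ_ge {h : ℝ} (hh : 0 < h) (x : E2) {t : ℝ} (ht : h ≤ t) :
    (t / h) ^ 2 ≤ ((SQ h x t).card : ℝ) := by
  unfold SQ
  rw [Finset.card_product, Nat.cast_mul]
  have h1 : 1 ≤ t / h := by rw [le_div_iff₀ hh]; linarith
  have hb : ∀ y : ℝ, t / h ≤ ((IS h y t).card : ℝ) := by
    intro y
    refine le_trans ?_ card_IS_ge
    have : 2 * t / h = 2 * (t / h) := by ring
    rw [this]; linarith
  calc (t / h) ^ 2 = (t / h) * (t / h) := by ring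
    _ ≤ _ := by gcongr <;> exact hb _

/-! ### the phase box of a plank

The rays of the plank `(C, a, c; w, ρ)`: `k = (k1, k2, k3)` gives the ray of direction
`C + Lat k1`, position `a + Lat k2` at time `0` and normal `h3 k3` above the centre IN ITS OWN FRAME
(the shear `- ⟪C + Lat k1, Lat k2⟫`).  Mesh `h` in direction and position, mesh `h3 ≤ h` in the
normal. -/

/-- direction. -/
noncomputable def bC (h : ℝ) (C : E2) (k : RI) : E2 := C + Lat h k.1

/-- position. -/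
noncomputable def ba (h : ℝ) (a : E2) (k : RI) : E2 := a + Lat h k.2.1

/-- null position. -/
noncomputable def bc (h h3 : ℝ) (C : E2) (c : ℝ) (k : RI) : ℝ :=
  c - inner ℝ (bC h C k) (Lat h k.2.1) + h3 * k.2.2

/-- the labels of the phase box. -/
noncomputable def bx (h h3 w ρ : ℝ) : Finset RI :=
  SQ h 0 (w / 2) ×ˢ SQ h 0 (3 * w) ×ˢ IS h3 0 (5 * ρ)

theorem mem_bx {h h3 w ρ : ℝ} (hh : 0 < h) (hh3 : 0 < h3) {k : RI} :
    k ∈ bx h h3 w ρ ↔ (∀ i, |(Lat h k.1) i| ≤ w / 2) ∧ (∀ i, |(Lat h k.2.1) i| ≤ 3 * w) ∧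
      |h3 * k.2.2| ≤ 5 * ρ := by
  unfold bx
  rw [Finset.mem_product, Finset.mem_product, mem_SQ hh, mem_SQ hh, mem_IS hh3]
  simp only [sub_zero]

theorem norm_of_mem_bx {h h3 w ρ : ℝ} (hh : 0 < h) (hh3 : 0 < h3) (hw : 0 ≤ w) {k : RI}
    (hk : k ∈ bx h h3 w ρ) :
    ‖Lat h k.1‖ ≤ w ∧ ‖Lat h k.2.1‖ ≤ 6 * w ∧ |h3 * k.2.2| ≤ 5 * ρ := by
  rw [mem_bx hh hh3] at hk
  obtain ⟨h1, h2, h3⟩ := hk
  refine ⟨?_, ?_, h3⟩
  · have := norm_le_of_abs (by linarith) h1; linarith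
  · have := norm_le_of_abs (by linarith) h2; linarith

theorem card_bx_le {h h3 w ρ : ℝ} (hh : 0 < h) (hh3 : 0 < h3) (hw : 2 * h ≤ w) (hρ : h3 ≤ ρ) :
    ((bx h h3 w ρ).card : ℝ) ≤ 2005 * ((w / h) ^ 4 * (ρ / h3)) := by
  have h1 : 1 ≤ ρ / h3 := by rw [le_div_iff₀ hh3]; linarith
  unfold bx
  rw [Finset.card_product, Finset.card_product, Nat.cast_mul, Nat.cast_mul]
  have e1 := card_SQ_le hh (0 : E2) (t := w / 2) (by linarith)
  have e2 := card_SQ_le hh (0 : E2) (t := 3 * w) (by linarith)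
  have e3 : ((IS h3 0 (5 * ρ)).card : ℝ) ≤ 11 * (ρ / h3) := by
    refine (card_IS_le hh3 (by linarith)).trans ?_
    have : 2 * (5 * ρ) / h3 = 10 * (ρ / h3) := by ring
    rw [this]; linarith
  calc ((SQ h 0 (w / 2)).card : ℝ) * (((SQ h 0 (3 * w)).card : ℝ) * ((IS h3 0 (5 * ρ)).card : ℝ))
      ≤ (9 * (w / 2 / h) ^ 2) * ((9 * (3 * w / h) ^ 2) * (11 * (ρ / h3))) := by gcongr
    _ = (8019 / 4) * ((w / h) ^ 4 * (ρ / h3)) := by ring
    _ ≤ 2005 * ((w / h) ^ 4 * (ρ / h3)) := by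
        have : 0 ≤ (w / h) ^ 4 * (ρ / h3) := by positivity
        nlinarith

/-- the position number of the ray of direction number `k1` through (about) `(x, s)`. -/
noncomputable def th2 (h : ℝ) (C a x : E2) (s : ℝ) (k1 : ℤ × ℤ) : ℤ × ℤ :=
  nr h (x + s • (C + Lat h k1) - a)

/-- the target normal. -/
noncomputable def th3 (h : ℝ) (C a : E2) (c : ℝ) (x : E2) (y s : ℝ) (k1 : ℤ × ℤ) : ℝ :=
  y - s * ‖C + Lat h k1‖ ^ 2 / 2 - c + inner ℝ (C + Lat h k1) (Lat h (th2 h C a x s k1))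

/-- the labels of the rays of direction number `k1` through `(x, y, s)`. -/
noncomputable def thr (h h3 : ℝ) (C a : E2) (c : ℝ) (x : E2) (y s : ℝ) (k1 : ℤ × ℤ) : Finset RI :=
  (IS h3 (th3 h C a c x y s k1) h).image fun k3 => (k1, th2 h C a x s k1, k3)

/-- the rays of `thr` pass within `h` of the point. -/
theorem thr_tb {h h3 : ℝ} (hh : 0 < h) (hh3 : 0 < h3) {r : ℝ} (hr : h ≤ r) (C a : E2) (c : ℝ)
    (x : E2) (y s : ℝ) (k1 : ℤ × ℤ) {k : RI} (hk : k ∈ thr h h3 C a c x y s k1) :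
    InTb r (bC h C k) (ba h a k) (bc h h3 C c k) x y s := by
  unfold thr at hk
  rw [Finset.mem_image] at hk
  obtain ⟨k3, h3', rfl⟩ := hk
  rw [mem_IS hh3] at h3'
  unfold InTb bc ba bC rx ry
  simp only []
  constructor
  · have h1 := norm_sub_nr hh (x + s • (C + Lat h k1) - a)
    refine le_trans (le_of_eq ?_) (h1.trans hr)
    unfold th2
    congr 1; abel
  · refine le_trans (le_of_eq ?_) (h3'.trans hr)
    rw [abs_sub_comm]
    unfold th3
    congr 1; ring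

/-- `thr` lies in the phase box of every plank containing the point. -/
theorem thr_bx {h h3 w ρ V : ℝ} (hh : 0 < h) (hh3 : 0 < h3) (hhw : 2 * h ≤ w) (hw1 : w ≤ 1)
    (hρ : h * (2 + V) ≤ ρ) (hw2 : w ^ 2 ≤ ρ) {C a : E2} {c : ℝ} (hC : ‖C‖ ≤ V) {x : E2}
    {y s : ℝ} (hs : |s| ≤ 1) (hp : InPk w ρ C a c x y s) {k1 : ℤ × ℤ} (hk : k1 ∈ SQ h 0 (w / 2)) :
    thr h h3 C a c x y s k1 ⊆ bx h h3 w ρ := by
  have hw : 0 ≤ w := by linarith
  have hV : 0 ≤ V := (norm_nonneg _).trans hC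
  have hk' := (mem_SQ hh).mp hk
  have hd : ‖Lat h k1‖ ≤ w := by
    have := norm_of_mem_SQ hh (by linarith) hk
    rw [sub_zero] at this
    linarith
  intro k hkt
  unfold thr at hkt
  rw [Finset.mem_image] at hkt
  obtain ⟨k3, h3', rfl⟩ := hkt
  rw [mem_IS hh3] at h3'
  rw [mem_bx hh hh3]
  simp only []
  unfold th3 at h3'
  have hn := norm_sub_nr hh (x + s • (C + Lat h k1) - a)
  unfold th2 at h3' ⊢
  set A := Lat h (nr h (x + s • (C + Lat h k1) - a)) with hA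
  set D := C + Lat h k1 with hD
  refine ⟨fun i => by simpa using hk' i, fun i => (abs_le_of_norm _ i).trans ?_, ?_⟩
  · have e : A = -((x + s • D - a) - A) + (x - rx C a s) + s • (D - C) := by
      unfold rx; module
    rw [e]
    refine (norm_add_le _ _).trans ?_
    have h1 := norm_add_le (-((x + s • D - a) - A)) (x - rx C a s)
    rw [norm_neg] at h1
    have h2 : ‖s • (D - C)‖ ≤ w := by
      rw [norm_smul, Real.norm_eq_abs, hD, add_sub_cancel_left]
      calc |s| * ‖Lat h k1‖ ≤ 1 * w := by gcongr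
        _ = w := one_mul w
    have h3 := hp.1
    linarith
  · set K := h3 * (k3 : ℝ) with hK
    have e : K = (K - (y - s * ‖D‖ ^ 2 / 2 - c + inner ℝ D A)) -
        inner ℝ D ((x + s • D - a) - A) + (nrm C x y s - (c + inner ℝ C a)) +
          (inner ℝ (D - C) (x - rx C a s) + s * ‖D - C‖ ^ 2 / 2) := by
      unfold nrm rx
      simp only [inner_sub_right, inner_add_right, inner_sub_left, real_inner_smul_right,
        norm_sub_sq_real, real_inner_self_eq_norm_sq]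
      ring
    rw [e]
    have hDn : ‖D‖ ≤ V + 1 := by
      rw [hD]
      refine (norm_add_le _ _).trans ?_
      linarith
    have h1 : |inner ℝ D ((x + s • D - a) - A)| ≤ (V + 1) * h := by
      refine (abs_real_inner_le_norm _ _).trans ?_
      gcongr
    have h2 := hp.2
    have hDC : ‖D - C‖ ≤ w := by rw [hD, add_sub_cancel_left]; exact hd
    have h3 : |s * ‖D - C‖ ^ 2 / 2| ≤ w ^ 2 / 2 := by
      rw [mul_div_assoc, abs_mul, abs_of_nonneg (a := ‖D - C‖ ^ 2 / 2) (by positivity)]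
      calc |s| * (‖D - C‖ ^ 2 / 2) ≤ 1 * (w ^ 2 / 2) := by gcongr
        _ = w ^ 2 / 2 := one_mul _
    have h4 : |inner ℝ (D - C) (x - rx C a s)| ≤ w * w := by
      refine (abs_real_inner_le_norm _ _).trans ?_
      have := hp.1
      gcongr
    have h5 := abs_le.mp h1
    have h6 := abs_le.mp h2
    have h7 := abs_le.mp h3
    have h8 := abs_le.mp h3'
    have h9 := abs_le.mp h4
    rw [abs_le]
    constructor <;> nlinarith

open Classical in
/-- **many tubes of the phase box pass through every point of the plank**. -/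
theorem card_thr {h h3 w ρ V r : ℝ} (hh : 0 < h) (hh3 : 0 < h3) (hh3' : h3 ≤ h) (hr : h ≤ r)
    (hhw : 2 * h ≤ w) (hw1 : w ≤ 1) (hρ : h * (2 + V) ≤ ρ) (hw2 : w ^ 2 ≤ ρ) {C a : E2} {c : ℝ}
    (hC : ‖C‖ ≤ V) {x : E2} {y s : ℝ} (hs : |s| ≤ 1) (hp : InPk w ρ C a c x y s) :
    (w / h) ^ 2 / 4 * (h / h3) ≤ (((bx h h3 w ρ).filter fun k =>
      InTb r (bC h C k) (ba h a k) (bc h h3 C c k) x y s).card : ℝ) := by
  have hsub : (SQ h 0 (w / 2)).biUnion (thr h h3 C a c x y s) ⊆ (bx h h3 w ρ).filter fun k =>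
      InTb r (bC h C k) (ba h a k) (bc h h3 C c k) x y s := by
    intro k hk
    rw [Finset.mem_biUnion] at hk
    obtain ⟨k1, hk1, hk⟩ := hk
    rw [Finset.mem_filter]
    exact ⟨thr_bx hh hh3 hhw hw1 hρ hw2 hC hs hp hk1 hk, thr_tb hh hh3 hr C a c x y s k1 hk⟩
  have hcard : ((SQ h 0 (w / 2)).biUnion (thr h h3 C a c x y s)).card =
      ∑ k1 ∈ SQ h 0 (w / 2), (thr h h3 C a c x y s k1).card := by
    refine Finset.card_biUnion fun k1 _ k1' _ hne => ?_
    rw [Function.onFun, Finset.disjoint_left]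
    intro k hk hk'
    unfold thr at hk hk'
    rw [Finset.mem_image] at hk hk'
    obtain ⟨_, _, rfl⟩ := hk
    obtain ⟨_, _, h'⟩ := hk'
    exact hne (congrArg Prod.fst h').symm
  have hone : ∀ k1, h / h3 ≤ ((thr h h3 C a c x y s k1).card : ℝ) := by
    intro k1
    unfold thr
    rw [Finset.card_image_of_injective _ (fun a b hab => by
      have := congrArg (fun k : RI => k.2.2) hab
      simpa using this)]
    refine le_trans ?_ card_IS_ge
    have h1 : 1 ≤ h / h3 := by rw [le_div_iff₀ hh3]; linarith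
    have : 2 * h / h3 = 2 * (h / h3) := by ring
    rw [this]; linarith
  have h2 := card_SQ_ge hh (0 : E2) (t := w / 2) (by linarith)
  have e : (w / 2 / h) ^ 2 = (w / h) ^ 2 / 4 := by ring
  rw [e] at h2
  have h4 : (0 : ℝ) ≤ h / h3 := by positivity
  calc (w / h) ^ 2 / 4 * (h / h3) ≤ ((SQ h 0 (w / 2)).card : ℝ) * (h / h3) := by gcongr
    _ = ∑ _k1 ∈ SQ h 0 (w / 2), h / h3 := by rw [Finset.sum_const, nsmul_eq_mul]
    _ ≤ ∑ k1 ∈ SQ h 0 (w / 2), ((thr h h3 C a c x y s k1).card : ℝ) :=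
        Finset.sum_le_sum fun k1 _ => hone k1
    _ = (((SQ h 0 (w / 2)).biUnion (thr h h3 C a c x y s)).card : ℝ) := by
        rw [hcard]; push_cast; rfl
    _ ≤ _ := by exact_mod_cast Finset.card_le_card hsub

end Crest.Agent.R116.Br430
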