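import Crest.Agent.R116.Br1_430

/-!
# R116 (S0155), bridge K side -> wave side, part 2: weighted fine graining (helper430)

Weighted planks `(C i, a i, c i; w, ρ)`, weights `W i`, become weighted rays
`(i, k)`, `k ∈ bx h h3 w ρ`, of weight `uu h h3 w (W i) = 4 (h/w)² (h3/h) W i`.
-/

set_option autoImplicit false

open MeasureTheory

namespace Crest.Agent.R116.Br430

open Crest.Agent.R116.LZg725 (nrm rx ry nrm_ray nrm_ray')
open Crest.Agent.R138.Tub70 (Lat nr norm_sub_nr)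

section fine

variable {ι : Type*} {F : Finset ι} {h h3 w ρ : ℝ} {C a : ι → E2} {c : ι → ℝ} {W : ι → ℝ}

/-- weight of the rays of a plank of weight `W`. -/
noncomputable def uu (h h3 w W : ℝ) : ℝ := 4 * (h / w) ^ 2 * (h3 / h) * W

theorem uu_nonneg {W : ℝ} (hh : 0 < h) (hh3 : 0 < h3) (hW : 0 ≤ W) : 0 ≤ uu h h3 w W := by
  unfold uu; positivity

open Classical in
/-- pointwise domination for one plank. -/
theorem pk_le_one {V r : ℝ} (hh : 0 < h) (hh3 : 0 < h3) (hh3' : h3 ≤ h) (hr : h ≤ r)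
    (hhw : 2 * h ≤ w) (hw1 : w ≤ 1) (hρ : h * (2 + V) ≤ ρ) (hw2 : w ^ 2 ≤ ρ) {C a : E2} {c W : ℝ}
    (hC : ‖C‖ ≤ V) (hW : 0 ≤ W) {x : E2} {y s : ℝ} (hs : |s| ≤ 1) :
    (if InPk w ρ C a c x y s then W else 0) ≤
      ∑ k ∈ bx h h3 w ρ, (if InTb r (bC h C k) (ba h a k) (bc h h3 C c k) x y s then
        uu h h3 w W else 0) := by
  have hw : 0 < w := by linarith
  rw [← Finset.sum_filter, Finset.sum_const, nsmul_eq_mul]
  split_ifs with hi
  · have h1 := card_thr hh hh3 hh3' hr hhw hw1 hρ hw2 hC hs hi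
    have e : W = (w / h) ^ 2 / 4 * (h / h3) * uu h h3 w W := by
      unfold uu
      field_simp
    calc W = (w / h) ^ 2 / 4 * (h / h3) * uu h h3 w W := e
      _ ≤ _ := by
        have := uu_nonneg (w := w) hh hh3 hW
        gcongr
  · have := uu_nonneg (w := w) hh hh3 hW
    positivity

open Classical in
/-- (i) pointwise domination. -/
theorem pk_le {V r : ℝ} (hh : 0 < h) (hh3 : 0 < h3) (hh3' : h3 ≤ h) (hr : h ≤ r)
    (hhw : 2 * h ≤ w) (hw1 : w ≤ 1) (hρ : h * (2 + V) ≤ ρ) (hw2 : w ^ 2 ≤ ρ)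
    (hC : ∀ i ∈ F, ‖C i‖ ≤ V) (hW : ∀ i ∈ F, 0 ≤ W i) {x : E2} {y s : ℝ} (hs : |s| ≤ 1) :
    ∑ i ∈ F, (if InPk w ρ (C i) (a i) (c i) x y s then W i else 0) ≤
      ∑ i ∈ F, ∑ k ∈ bx h h3 w ρ,
        (if InTb r (bC h (C i) k) (ba h (a i) k) (bc h h3 (C i) (c i) k) x y s then
          uu h h3 w (W i) else 0) :=
  Finset.sum_le_sum fun i hi =>
    pk_le_one hh hh3 hh3' hr hhw hw1 hρ hw2 (hC i hi) (hW i hi) hs

/-- (ii) energy. -/
theorem energy_le (hh : 0 < h) (hh3 : 0 < h3) (hw : 2 * h ≤ w) (hρ : h3 ≤ ρ)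
    (hW : ∀ i ∈ F, 0 ≤ W i) :
    ∑ i ∈ F, ∑ _k ∈ bx h h3 w ρ, uu h h3 w (W i) ≤
      8020 * ((w / h) ^ 2 * (ρ / h)) * ∑ i ∈ F, W i := by
  have hw0 : 0 < w := by linarith
  rw [Finset.mul_sum]
  refine Finset.sum_le_sum fun i hi => ?_
  rw [Finset.sum_const, nsmul_eq_mul]
  have hwi := hW i hi
  have h1 := card_bx_le hh hh3 hw hρ
  calc ((bx h h3 w ρ).card : ℝ) * uu h h3 w (W i)
      ≤ (2005 * ((w / h) ^ 4 * (ρ / h3))) * uu h h3 w (W i) := by
        have := uu_nonneg (w := w) hh hh3 hwi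
        gcongr
    _ = 8020 * ((w / h) ^ 2 * (ρ / h)) * W i := by
        unfold uu
        field_simp
        ring

open Classical in
/-- (iii) mass of a set of rays. -/
theorem mass_eq (A : E2 → E2 → ℝ → Prop) :
    ∑ i ∈ F, ∑ k ∈ bx h h3 w ρ,
      (if A (bC h (C i) k) (ba h (a i) k) (bc h h3 (C i) (c i) k) then uu h h3 w (W i) else 0) =
    ∑ i ∈ F, uu h h3 w (W i) * (((bx h h3 w ρ).filter fun k =>
      A (bC h (C i) k) (ba h (a i) k) (bc h h3 (C i) (c i) k)).card : ℝ) := by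
  refine Finset.sum_congr rfl fun i _ => ?_
  rw [← Finset.sum_filter, Finset.sum_const, nsmul_eq_mul, mul_comm]

end fine

end Crest.Agent.R116.Br430
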