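import Crest.Agent.R116.Br1_430

/-!
# R116 (S0155), bridge K side -> wave side, part 3: counting lattice points near quadratic curves
(helper430)
-/

set_option autoImplicit false

namespace Crest.Agent.R116.Br430

open Crest.Agent.R138.Tub70 (Lat nr norm_sub_nr)

/-- integers with small pairwise differences. -/
theorem card_le_of_diff {s : Finset ℤ} {D : ℝ} (hD : 0 ≤ D)
    (H : ∀ i ∈ s, ∀ j ∈ s, i ≤ j → (j : ℝ) - i ≤ D) : (s.card : ℝ) ≤ D + 1 := by
  rcases s.eq_empty_or_nonempty with rfl | hne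
  · simp only [Finset.card_empty, Nat.cast_zero]; linarith
  · have h1 := H _ (s.min'_mem hne) _ (s.max'_mem hne) (s.min'_le _ (s.max'_mem hne))
    have h2 : s ⊆ Finset.Icc (s.min' hne) (s.max' hne) := fun i hi =>
      Finset.mem_Icc.mpr ⟨s.min'_le _ hi, s.le_max' _ hi⟩
    have h3 := Finset.card_le_card h2
    rw [Int.card_Icc] at h3
    have h4 : (s.card : ℝ) ≤ ((s.max' hne + 1 - s.min' hne).toNat : ℝ) := by exact_mod_cast h3
    refine h4.trans ?_
    have h5 : 0 ≤ s.max' hne + 1 - s.min' hne := by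
      have := s.min'_le _ (s.max'_mem hne); linarith
    have h6 : ((s.max' hne + 1 - s.min' hne).toNat : ℝ) =
        ((s.max' hne + 1 - s.min' hne : ℤ) : ℝ) := by exact_mod_cast Int.toNat_of_nonneg h5
    rw [h6]; push_cast; linarith

open Classical in
/-- **one-dimensional count**: a quadratic polynomial is small and steep at few lattice points. -/
theorem card_quad {h : ℝ} (hh : 0 < h) {t : ℝ} (ht : h ≤ t) (S : Finset ℤ) (α β d : ℝ) :
    ((S.filter fun j : ℤ => |α + β * (h * j) + d * (h * j) ^ 2| ≤ t ∧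
      1 / 4 ≤ |β + 2 * d * (h * j)|).card : ℝ) ≤ 18 * (t / h) := by
  have h1 : 1 ≤ t / h := by rw [le_div_iff₀ hh]; linarith
  have hsub : (S.filter fun j : ℤ => |α + β * (h * j) + d * (h * j) ^ 2| ≤ t ∧
      1 / 4 ≤ |β + 2 * d * (h * j)|) ⊆
      (S.filter fun j : ℤ => |α + β * (h * j) + d * (h * j) ^ 2| ≤ t ∧ 1 / 4 ≤ β + 2 * d * (h * j)) ∪
      (S.filter fun j : ℤ => |α + β * (h * j) + d * (h * j) ^ 2| ≤ t ∧
        1 / 4 ≤ -(β + 2 * d * (h * j))) := by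
    intro j hj
    rw [Finset.mem_filter] at hj
    rw [Finset.mem_union, Finset.mem_filter, Finset.mem_filter]
    rcases le_abs.mp hj.2.2 with h' | h'
    · exact Or.inl ⟨hj.1, hj.2.1, h'⟩
    · exact Or.inr ⟨hj.1, hj.2.1, h'⟩
  have hp : ((S.filter fun j : ℤ => |α + β * (h * j) + d * (h * j) ^ 2| ≤ t ∧
      1 / 4 ≤ β + 2 * d * (h * j)).card : ℝ) ≤ 8 * (t / h) + 1 := by
    refine card_le_of_diff (by positivity) fun i hi j hj hij => ?_
    rw [Finset.mem_filter] at hi hj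
    obtain ⟨-, hi1, hi2⟩ := hi
    obtain ⟨-, hj1, hj2⟩ := hj
    have hij' : (i : ℝ) ≤ j := by exact_mod_cast hij
    have e : (α + β * (h * j) + d * (h * j) ^ 2) - (α + β * (h * i) + d * (h * i) ^ 2) =
        ((β + 2 * d * (h * j)) + (β + 2 * d * (h * i))) / 2 * (h * (j - i)) := by ring
    have h2 := (abs_le.mp hj1).2
    have h3 := (abs_le.mp hi1).1
    have h4 : 1 / 4 * (h * ((j : ℝ) - i)) ≤ 2 * t := by
      calc 1 / 4 * (h * ((j : ℝ) - i)) ≤
          ((β + 2 * d * (h * j)) + (β + 2 * d * (h * i))) / 2 * (h * (j - i)) := by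
            have : 0 ≤ h * ((j : ℝ) - i) := mul_nonneg hh.le (by linarith)
            apply mul_le_mul_of_nonneg_right _ this
            linarith
        _ ≤ 2 * t := by rw [← e]; linarith
    have : (j : ℝ) - i = (h * ((j : ℝ) - i)) / h := by field_simp
    rw [this, ← mul_div_assoc, div_le_div_iff_of_pos_right hh]
    linarith
  have hm : ((S.filter fun j : ℤ => |α + β * (h * j) + d * (h * j) ^ 2| ≤ t ∧
      1 / 4 ≤ -(β + 2 * d * (h * j))).card : ℝ) ≤ 8 * (t / h) + 1 := by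
    refine card_le_of_diff (by positivity) fun i hi j hj hij => ?_
    rw [Finset.mem_filter] at hi hj
    obtain ⟨-, hi1, hi2⟩ := hi
    obtain ⟨-, hj1, hj2⟩ := hj
    have hij' : (i : ℝ) ≤ j := by exact_mod_cast hij
    have e : (α + β * (h * i) + d * (h * i) ^ 2) - (α + β * (h * j) + d * (h * j) ^ 2) =
        (-(β + 2 * d * (h * j)) + -(β + 2 * d * (h * i))) / 2 * (h * (j - i)) := by ring
    have h2 := (abs_le.mp hi1).2
    have h3 := (abs_le.mp hj1).1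
    have h4 : 1 / 4 * (h * ((j : ℝ) - i)) ≤ 2 * t := by
      calc 1 / 4 * (h * ((j : ℝ) - i)) ≤
          (-(β + 2 * d * (h * j)) + -(β + 2 * d * (h * i))) / 2 * (h * (j - i)) := by
            have : 0 ≤ h * ((j : ℝ) - i) := mul_nonneg hh.le (by linarith)
            apply mul_le_mul_of_nonneg_right _ this
            linarith
        _ ≤ 2 * t := by rw [← e]; linarith
    have : (j : ℝ) - i = (h * ((j : ℝ) - i)) / h := by field_simp
    rw [this, ← mul_div_assoc, div_le_div_iff_of_pos_right hh]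
    linarith
  have h5 := (Finset.card_le_card hsub).trans (Finset.card_union_le _ _)
  have h6 : ((S.filter fun j : ℤ => |α + β * (h * j) + d * (h * j) ^ 2| ≤ t ∧
      1 / 4 ≤ |β + 2 * d * (h * j)|).card : ℝ) ≤
      ((S.filter fun j : ℤ => |α + β * (h * j) + d * (h * j) ^ 2| ≤ t ∧
        1 / 4 ≤ β + 2 * d * (h * j)).card : ℝ) +
      ((S.filter fun j : ℤ => |α + β * (h * j) + d * (h * j) ^ 2| ≤ t ∧
        1 / 4 ≤ -(β + 2 * d * (h * j))).card : ℝ) := by exact_mod_cast h5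
  linarith

/-- a vector of norm `≥ 1/2` has a coordinate of size `≥ 1/4`. -/
theorem coord_of_norm {v : E2} (hv : 1 / 2 ≤ ‖v‖) : 1 / 4 ≤ |v 0| ∨ 1 / 4 ≤ |v 1| := by
  by_contra hn
  push Not at hn
  have h1 : ‖v‖ ^ 2 = v 0 ^ 2 + v 1 ^ 2 := by
    rw [EuclideanSpace.norm_eq, Real.sq_sqrt (by positivity), Fin.sum_univ_two]
    simp
  have h2 : v 0 ^ 2 < 1 / 16 := by
    rw [← sq_abs]; nlinarith [abs_nonneg (v 0)]
  have h3 : v 1 ^ 2 < 1 / 16 := by
    rw [← sq_abs]; nlinarith [abs_nonneg (v 1)]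
  nlinarith

open Classical in
/-- **two-dimensional count**: lattice points of a square near a quadratic curve. -/
theorem card_curve {h : ℝ} (hh : 0 < h) {t ℓ : ℝ} (ht : h ≤ t) (hℓ : h ≤ ℓ) (x0 : E2)
    (α : ℝ) (β : E2) (d : ℝ) :
    (((SQ h x0 ℓ).filter fun k => |α + inner ℝ β (Lat h k) + d * ‖Lat h k‖ ^ 2| ≤ t ∧
      1 / 2 ≤ ‖β + (2 * d) • Lat h k‖).card : ℝ) ≤ 108 * ((ℓ / h) * (t / h)) := by
  have h1 : 1 ≤ ℓ / h := by rw [le_div_iff₀ hh]; linarith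
  have hq : ∀ k : ℤ × ℤ, α + inner ℝ β (Lat h k) + d * ‖Lat h k‖ ^ 2 =
      α + β 0 * (h * k.1) + β 1 * (h * k.2) + d * ((h * k.1) ^ 2 + (h * k.2) ^ 2) := by
    intro k
    have e1 : inner ℝ β (Lat h k) = β 0 * (h * k.1) + β 1 * (h * k.2) := by
      simp only [PiLp.inner_apply, Fin.sum_univ_two, RCLike.inner_apply, conj_trivial,
        Crest.Agent.R138.Tub70.Lat_zero_coord, Crest.Agent.R138.Tub70.Lat_one_coord]
      ring
    have e2 : ‖Lat h k‖ ^ 2 = (h * k.1) ^ 2 + (h * k.2) ^ 2 := by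
      rw [EuclideanSpace.norm_eq, Real.sq_sqrt (by positivity), Fin.sum_univ_two]
      simp only [Real.norm_eq_abs, sq_abs, Crest.Agent.R138.Tub70.Lat_zero_coord,
        Crest.Agent.R138.Tub70.Lat_one_coord]
    rw [e1, e2]; ring
  have hc : ∀ (k : ℤ × ℤ), (β + (2 * d) • Lat h k) 0 = β 0 + 2 * d * (h * k.1) ∧
      (β + (2 * d) • Lat h k) 1 = β 1 + 2 * d * (h * k.2) := by
    intro k
    constructor <;> simp
  set P := (SQ h x0 ℓ).filter fun k => |α + inner ℝ β (Lat h k) + d * ‖Lat h k‖ ^ 2| ≤ t ∧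
      1 / 2 ≤ ‖β + (2 * d) • Lat h k‖ with hP
  set P0 := (IS h (x0 1) ℓ).biUnion fun k2 => ((IS h (x0 0) ℓ).filter fun j : ℤ =>
    |(α + β 1 * (h * k2) + d * (h * k2) ^ 2) + β 0 * (h * j) + d * (h * j) ^ 2| ≤ t ∧
      1 / 4 ≤ |β 0 + 2 * d * (h * j)|).image fun j => (j, k2) with hP0
  set P1 := (IS h (x0 0) ℓ).biUnion fun k1 => ((IS h (x0 1) ℓ).filter fun j : ℤ =>
    |(α + β 0 * (h * k1) + d * (h * k1) ^ 2) + β 1 * (h * j) + d * (h * j) ^ 2| ≤ t ∧
      1 / 4 ≤ |β 1 + 2 * d * (h * j)|).image fun j => (k1, j) with hP1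
  have hsub : P ⊆ P0 ∪ P1 := by
    intro k hk
    rw [hP, Finset.mem_filter] at hk
    obtain ⟨hk0, hk1, hk2⟩ := hk
    unfold SQ at hk0
    rw [Finset.mem_product] at hk0
    rw [hq] at hk1
    rw [Finset.mem_union]
    rcases coord_of_norm hk2 with h' | h'
    · left
      rw [hP0, Finset.mem_biUnion]
      refine ⟨k.2, hk0.2, ?_⟩
      rw [Finset.mem_image]
      refine ⟨k.1, ?_, rfl⟩
      rw [Finset.mem_filter]
      refine ⟨hk0.1, ?_, ?_⟩
      · refine le_of_eq_of_le ?_ hk1; congr 1; ring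
      · rwa [(hc k).1] at h'
    · right
      rw [hP1, Finset.mem_biUnion]
      refine ⟨k.1, hk0.1, ?_⟩
      rw [Finset.mem_image]
      refine ⟨k.2, ?_, rfl⟩
      rw [Finset.mem_filter]
      refine ⟨hk0.2, ?_, ?_⟩
      · refine le_of_eq_of_le ?_ hk1; congr 1; ring
      · rwa [(hc k).2] at h'
  have hIS : ∀ y : ℝ, ((IS h y ℓ).card : ℝ) ≤ 3 * (ℓ / h) := by
    intro y
    refine (card_IS_le hh (hh.le.trans hℓ)).trans ?_
    have : 2 * ℓ / h = 2 * (ℓ / h) := by ring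
    rw [this]; linarith
  have c0 : (P0.card : ℝ) ≤ 3 * (ℓ / h) * (18 * (t / h)) := by
    calc (P0.card : ℝ) ≤ ((∑ k2 ∈ IS h (x0 1) ℓ, (((IS h (x0 0) ℓ).filter fun j : ℤ =>
        |(α + β 1 * (h * k2) + d * (h * k2) ^ 2) + β 0 * (h * j) + d * (h * j) ^ 2| ≤ t ∧
        1 / 4 ≤ |β 0 + 2 * d * (h * j)|).image fun j => (j, k2)).card : ℕ) : ℝ) :=
          Nat.cast_le.mpr Finset.card_biUnion_le
      _ = ∑ k2 ∈ IS h (x0 1) ℓ, ((((IS h (x0 0) ℓ).filter fun j : ℤ =>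
        |(α + β 1 * (h * k2) + d * (h * k2) ^ 2) + β 0 * (h * j) + d * (h * j) ^ 2| ≤ t ∧
        1 / 4 ≤ |β 0 + 2 * d * (h * j)|).image fun j => (j, k2)).card : ℝ) := by push_cast; rfl
      _ ≤ ∑ _k2 ∈ IS h (x0 1) ℓ, 18 * (t / h) := Finset.sum_le_sum fun k2 _ =>
          (Nat.cast_le.mpr Finset.card_image_le).trans (card_quad hh ht _ _ _ _)
      _ = ((IS h (x0 1) ℓ).card : ℝ) * (18 * (t / h)) := by rw [Finset.sum_const, nsmul_eq_mul]
      _ ≤ 3 * (ℓ / h) * (18 * (t / h)) := by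
          have : 0 ≤ t / h := by have := hh.le.trans ht; positivity
          gcongr
          exact hIS _
  have c1 : (P1.card : ℝ) ≤ 3 * (ℓ / h) * (18 * (t / h)) := by
    calc (P1.card : ℝ) ≤ ((∑ k1 ∈ IS h (x0 0) ℓ, (((IS h (x0 1) ℓ).filter fun j : ℤ =>
        |(α + β 0 * (h * k1) + d * (h * k1) ^ 2) + β 1 * (h * j) + d * (h * j) ^ 2| ≤ t ∧
        1 / 4 ≤ |β 1 + 2 * d * (h * j)|).image fun j => (k1, j)).card : ℕ) : ℝ) :=
          Nat.cast_le.mpr Finset.card_biUnion_le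
      _ = ∑ k1 ∈ IS h (x0 0) ℓ, ((((IS h (x0 1) ℓ).filter fun j : ℤ =>
        |(α + β 0 * (h * k1) + d * (h * k1) ^ 2) + β 1 * (h * j) + d * (h * j) ^ 2| ≤ t ∧
        1 / 4 ≤ |β 1 + 2 * d * (h * j)|).image fun j => (k1, j)).card : ℝ) := by push_cast; rfl
      _ ≤ ∑ _k1 ∈ IS h (x0 0) ℓ, 18 * (t / h) := Finset.sum_le_sum fun k1 _ =>
          (Nat.cast_le.mpr Finset.card_image_le).trans (card_quad hh ht _ _ _ _)
      _ = ((IS h (x0 0) ℓ).card : ℝ) * (18 * (t / h)) := by rw [Finset.sum_const, nsmul_eq_mul]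
      _ ≤ 3 * (ℓ / h) * (18 * (t / h)) := by
          have : 0 ≤ t / h := by have := hh.le.trans ht; positivity
          gcongr
          exact hIS _
  have h5 := (Finset.card_le_card hsub).trans (Finset.card_union_le _ _)
  have h6 : (P.card : ℝ) ≤ (P0.card : ℝ) + (P1.card : ℝ) := by exact_mod_cast h5
  linarith

open Classical in
/-- the elements of `S` with the property `P` (fixed decidability). -/
noncomputable def filt {α : Type*} (P : α → Prop) (S : Finset α) : Finset α := S.filter P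

open Classical in
theorem mem_filt {α : Type*} {P : α → Prop} {S : Finset α} {x : α} :
    x ∈ filt P S ↔ x ∈ S ∧ P x := by
  unfold filt
  rw [Finset.mem_filter]

open Classical in
theorem card_filt_le {α : Type*} (P : α → Prop) (S : Finset α) :
    ((filt P S).card : ℝ) ≤ (S.card : ℝ) := by
  unfold filt
  exact Nat.cast_le.mpr (Finset.card_filter_le _ _)

theorem card_filt_mono {α : Type*} {P : α → Prop} {S T : Finset α} (h : ∀ x ∈ S, P x → x ∈ T) :
    ((filt P S).card : ℝ) ≤ (T.card : ℝ) :=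
  Nat.cast_le.mpr (Finset.card_le_card fun x hx => by
    rw [mem_filt] at hx
    exact h x hx.1 hx.2)

open Classical in
/-- fibre count over a triple product. -/
theorem card_fib {α β γ : Type*} {S1 : Finset α} {S2 : Finset β} {S3 : Finset γ}
    (P : α × β × γ → Prop) {n1 n2 n3 : ℝ} (h2 : 0 ≤ n2) (h3 : 0 ≤ n3) (A1 : Finset α)
    (A3 : α → Finset γ) (A2 : α → γ → Finset β)
    (hA : ∀ k1 ∈ S1, ∀ k2 ∈ S2, ∀ k3 ∈ S3, P (k1, k2, k3) → k1 ∈ A1 ∧ k3 ∈ A3 k1 ∧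
      k2 ∈ A2 k1 k3)
    (H1 : (A1.card : ℝ) ≤ n1) (H3 : ∀ k1, ((A3 k1).card : ℝ) ≤ n3)
    (H2 : ∀ k1 k3, ((A2 k1 k3).card : ℝ) ≤ n2) :
    ((filt P (S1 ×ˢ S2 ×ˢ S3)).card : ℝ) ≤ n1 * (n3 * n2) := by
  have hsub : filt P (S1 ×ˢ S2 ×ˢ S3) ⊆ A1.biUnion fun k1 => (A3 k1).biUnion fun k3 =>
      (A2 k1 k3).image fun k2 => (k1, k2, k3) := by
    rintro ⟨k1, k2, k3⟩ hk
    rw [mem_filt, Finset.mem_product, Finset.mem_product] at hk
    obtain ⟨⟨m1, m2, m3⟩, hP⟩ := hk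
    simp only at m1 m2 m3
    obtain ⟨a1, a3, a2⟩ := hA k1 m1 k2 m2 k3 m3 hP
    rw [Finset.mem_biUnion]
    refine ⟨k1, a1, ?_⟩
    rw [Finset.mem_biUnion]
    refine ⟨k3, a3, ?_⟩
    rw [Finset.mem_image]
    exact ⟨k2, a2, rfl⟩
  have e1 : ∀ k1, (((A3 k1).biUnion fun k3 =>
      (A2 k1 k3).image fun k2 => (k1, k2, k3)).card : ℝ) ≤ n3 * n2 := by
    intro k1
    calc _ ≤ ((∑ k3 ∈ A3 k1, ((A2 k1 k3).image fun k2 => (k1, k2, k3)).card : ℕ) : ℝ) :=
          Nat.cast_le.mpr Finset.card_biUnion_le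
      _ = ∑ k3 ∈ A3 k1, (((A2 k1 k3).image fun k2 => (k1, k2, k3)).card : ℝ) := by
            push_cast; rfl
      _ ≤ ∑ _k3 ∈ A3 k1, n2 :=
          Finset.sum_le_sum fun k3 _ => (Nat.cast_le.mpr Finset.card_image_le).trans (H2 k1 k3)
      _ = ((A3 k1).card : ℝ) * n2 := by rw [Finset.sum_const, nsmul_eq_mul]
      _ ≤ n3 * n2 := mul_le_mul_of_nonneg_right (H3 k1) h2
  calc ((filt P (S1 ×ˢ S2 ×ˢ S3)).card : ℝ) ≤ _ := Nat.cast_le.mpr (Finset.card_le_card hsub)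
    _ ≤ ((∑ k1 ∈ A1, ((A3 k1).biUnion fun k3 =>
          (A2 k1 k3).image fun k2 => (k1, k2, k3)).card : ℕ) : ℝ) :=
        Nat.cast_le.mpr Finset.card_biUnion_le
    _ = ∑ k1 ∈ A1, (((A3 k1).biUnion fun k3 =>
          (A2 k1 k3).image fun k2 => (k1, k2, k3)).card : ℝ) := by
            push_cast; rfl
    _ ≤ ∑ _k1 ∈ A1, n3 * n2 := Finset.sum_le_sum fun k1 _ => e1 k1
    _ = (A1.card : ℝ) * (n3 * n2) := by rw [Finset.sum_const, nsmul_eq_mul]
    _ ≤ n1 * (n3 * n2) := mul_le_mul_of_nonneg_right H1 (mul_nonneg h3 h2)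

end Crest.Agent.R116.Br430
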