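import Crest.Agent.R116.Br3_430
import Crest.Agent.R116.LZg3_725

/-!
# R116 (S0155), bridge K side -> wave side, part 4: the share lemma (helper430)

How many rays of the phase box of a plank lie in a conformal slab of width `s1`?
-/

set_option autoImplicit false

namespace Crest.Agent.R116.Br430

open Crest.Agent.R116.LZg725
open Crest.Agent.R138.Tub70 (Lat nr norm_sub_nr)

theorem of_mem_filter {α : Type*} {s : Finset α} {p : α → Prop} {inst : DecidablePred p} {x : α}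
    (h : x ∈ @Finset.filter α p inst s) : p x := (Finset.mem_filter.mp h).2

/-! ### facts on one ray -/

section one

variable {c x0 : E2} {sg T y0 s1 : ℝ} {p : Cf E2} {C a : E2} {k : ℝ}

theorem ray_facts (h : RayIn c sg T 1 x0 y0 0 p s1 C a k) :
    ‖C - c‖ ≤ sg ∧ ‖a - x0‖ ≤ sg ∧ |p.ev a k 0| ≤ s1 ∧ |p.ld C a k 0| ≤ s1 := by
  obtain ⟨h1, h2⟩ := h
  have e0 := h2 0 (by simp)
  have e1 := (h2 1 (by simp)).2
  have e2 := (h2 (-1) (by simp)).2
  have r0 : rx C a 0 = a := by unfold rx; simp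
  have r1 : ry C k 0 = k := by unfold ry; simp
  refine ⟨h1, ?_, ?_, ?_⟩
  · have := e0.1.2.1
    rw [r0] at this
    simpa using this
  · have := e0.2
    rwa [r0, r1] at this
  · rw [Cf.ev_ray] at e1 e2
    have e3 := Cf.ld_ray p C a k 0
    rw [r0, r1] at e3
    rw [e3]
    rw [abs_le] at e1 e2 ⊢
    constructor <;> linarith [e1.1, e1.2, e2.1, e2.2]

theorem ray_gr {M : ℝ} (hM : 0 ≤ M) (hsg : 0 < sg) (hs1 : 0 ≤ s1) (hT : sg ^ 2 ≤ T)
    (adm : Adm M c sg T 1 x0 y0 0 p) (h : RayIn c sg T 1 x0 y0 0 p s1 C a k) :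
    |‖p.gr C a 0‖ ^ 2 - 1| ≤ 4 * (M * (s1 / sg)) := by
  obtain ⟨h1, h2, h3, h4⟩ := ray_facts h
  have e : s1 / sg * sg = s1 := by field_simp
  refine gr_sq_near (R := 1) (T := T) (sg := sg) zero_lt_one hsg hT hM (by positivity) adm.disc
    (y := k) (adm.ny 0 (by simp)) (adm.d_le zero_le_one ((sq_nonneg _).trans hT)) ?_ ?_
  · rw [e]; exact h4
  · rw [e, mul_one]; exact h3

/-- the gradient is not small when the slab is much thinner than the box. -/
theorem ray_gr_ge {M : ℝ} (hM : 0 ≤ M) (hsg : 0 < sg) (hs1 : 0 ≤ s1) (hT : sg ^ 2 ≤ T)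
    (adm : Adm M c sg T 1 x0 y0 0 p) (h : RayIn c sg T 1 x0 y0 0 p s1 C a k)
    (hthin : 6 * M * s1 ≤ sg) : 1 / 2 ≤ ‖p.gr C a 0‖ := by
  have h1 := ray_gr hM hsg hs1 hT adm h
  have h2 : M * (s1 / sg) ≤ 1 / 6 := by
    rw [← mul_div_assoc, div_le_iff₀ hsg]; linarith
  have h3 := (abs_le.mp h1).1
  by_contra hn
  push Not at hn
  have : ‖p.gr C a 0‖ ^ 2 < 1 / 4 := by nlinarith [norm_nonneg (p.gr C a 0)]
  linarith

theorem ray_gr_le {M : ℝ} (hM : 1 ≤ M) (hsg : 0 < sg) (hs1 : 0 ≤ s1) (hT : sg ^ 2 ≤ T)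
    (hle : s1 ≤ sg) (adm : Adm M c sg T 1 x0 y0 0 p) (h : RayIn c sg T 1 x0 y0 0 p s1 C a k) :
    ‖p.gr C a 0‖ ≤ 3 * M := by
  have h1 := ray_gr (by linarith) hsg hs1 hT adm h
  have h2 : s1 / sg ≤ 1 := by rw [div_le_one hsg]; exact hle
  have h3 := norm_le_of_sq_near (K := M * (s1 / sg)) (by positivity) h1
  have h4 : M * (s1 / sg) ≤ M * 1 := by gcongr
  linarith

/-- shift inside the null plane. -/
theorem ev_shear (p : Cf E2) (C a v : E2) (k n : ℝ) :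
    p.ev (a + v) (k - inner ℝ C v + n) 0 =
      p.ev a (k + n) 0 + inner ℝ (p.gr C a 0) v + p.d * ‖v‖ ^ 2 := by
  unfold Cf.ev Cf.gr Cf.ny
  simp only [inner_add_right, inner_add_left, inner_sub_left, real_inner_smul_left,
    norm_add_sq_real]
  ring

theorem gr_shear (p : Cf E2) (C a v : E2) : p.gr C (a + v) 0 = p.gr C a 0 + (2 * p.d) • v := by
  unfold Cf.gr Cf.ny
  module

theorem ld_shear (p : Cf E2) (C a v : E2) (k n : ℝ) :
    p.ld C (a + v) (k - inner ℝ C v + n) 0 = p.ld C a k 0 - 2 * p.d * n := by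
  have h := Cf.ld_move p C a (a + v) k (k - inner ℝ C v + n) 0 0
  rw [h]
  unfold nrm
  rw [inner_add_right]
  ring

end one

/-! ### the counts -/

section count

variable {c x0 : E2} {sg T y0 s1 M h h3 w ρ : ℝ} {p : Cf E2} {C a : E2} {k0 : ℝ}

/-- the ray of label `k` lies in the member. -/
def InM (c : E2) (sg T : ℝ) (x0 : E2) (y0 : ℝ) (p : Cf E2) (s1 h h3 : ℝ) (C a : E2) (k0 : ℝ)
    (k : RI) : Prop :=
  RayIn c sg T 1 x0 y0 0 p s1 (bC h C k) (ba h a k) (bc h h3 C k0 k)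

/-- number of positions, steep case. -/
theorem count2 (hh : 0 < h) (hM : 0 ≤ M) (hsg : 0 < sg) (hs1 : h ≤ s1) (hT : sg ^ 2 ≤ T)
    (adm : Adm M c sg T 1 x0 y0 0 p) (hthin : 6 * M * s1 ≤ sg) {ℓ : ℝ} (hℓ : h ≤ ℓ) (z : E2)
    (k1 : ℤ × ℤ) (k3 : ℤ) :
    ((filt (fun k2 => InM c sg T x0 y0 p s1 h h3 C a k0 (k1, k2, k3)) (SQ h z ℓ)).card : ℝ) ≤
      108 * ((ℓ / h) * (s1 / h)) := by
  refine le_trans ?_ (card_curve hh hs1 hℓ z (p.ev a (k0 + h3 * k3) 0)
    (p.gr (C + Lat h k1) a 0) p.d)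
  refine card_filt_mono fun k2 m hR => ?_
  rw [Finset.mem_filter]
  refine ⟨m, ?_, ?_⟩
  · have := (ray_facts hR).2.2.1
    unfold ba bc bC at this
    simp only at this
    rwa [ev_shear] at this
  · have := ray_gr_ge hM hsg (hh.le.trans hs1) hT adm hR hthin
    unfold bC ba at this
    simp only at this
    rwa [gr_shear] at this

/-- number of positions in the phase box. -/
theorem count2_box (hh : 0 < h) (hhw : 2 * h ≤ w) (hM : 0 ≤ M) (hsg : 0 < sg) (hs1 : h ≤ s1)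
    (hT : sg ^ 2 ≤ T) (adm : Adm M c sg T 1 x0 y0 0 p) (hthin : 6 * M * s1 ≤ sg)
    (k1 : ℤ × ℤ) (k3 : ℤ) :
    ((filt (fun k2 => InM c sg T x0 y0 p s1 h h3 C a k0 (k1, k2, k3))
      (SQ h 0 (3 * w))).card : ℝ) ≤ 324 * ((w / h) * (s1 / h)) := by
  refine (count2 hh hM hsg hs1 hT adm hthin (ℓ := 3 * w) (by linarith) 0 k1 k3).trans
    (le_of_eq ?_)
  ring

/-- directions, small aperture. -/
theorem dir_small (hh : 0 < h) {k : RI} (hR : InM c sg T x0 y0 p s1 h h3 C a k0 k) :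
    k.1 ∈ SQ h (c - C) sg := by
  have := (ray_facts hR).1
  unfold bC at this
  refine mem_SQ_of_norm hh (le_trans (le_of_eq ?_) this)
  congr 1; abel

/-- positions, small aperture. -/
theorem pos_small (hh : 0 < h) {k : RI} (hR : InM c sg T x0 y0 p s1 h h3 C a k0 k) :
    k.2.1 ∈ SQ h (x0 - a) sg := by
  have := (ray_facts hR).2.1
  unfold ba at this
  refine mem_SQ_of_norm hh (le_trans (le_of_eq ?_) this)
  congr 1; abel

/-- number of positions, small aperture. -/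
theorem count2_small (hh : 0 < h) (hM : 1 ≤ M) (hsg : h ≤ sg) (hs1 : h ≤ s1)
    (hT : sg ^ 2 ≤ T) (adm : Adm M c sg T 1 x0 y0 0 p) (k1 : ℤ × ℤ) (k3 : ℤ) :
    ((filt (fun k2 => InM c sg T x0 y0 p s1 h h3 C a k0 (k1, k2, k3))
      (SQ h (x0 - a) sg)).card : ℝ) ≤ 108 * M * ((sg / h) * (s1 / h)) := by
  have hsg0 : 0 < sg := hh.trans_le hsg
  have hs10 : 0 < s1 := hh.trans_le hs1
  rcases le_total (6 * M * s1) sg with hthin | hthick
  · refine (count2 hh (by linarith) hsg0 hs1 hT adm hthin hsg (x0 - a) k1 k3).trans ?_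
    have : 0 ≤ (sg / h) * (s1 / h) := by positivity
    nlinarith
  · refine (card_filt_le _ _).trans ?_
    refine (card_SQ_le hh (x0 - a) hsg).trans ?_
    have h1 : sg / h ≤ 6 * M * (s1 / h) := by
      rw [← mul_div_assoc]; gcongr
    calc 9 * (sg / h) ^ 2 = 9 * ((sg / h) * (sg / h)) := by ring
      _ ≤ 9 * ((sg / h) * (6 * M * (s1 / h))) := by gcongr
      _ ≤ 108 * M * ((sg / h) * (s1 / h)) := by
        have : 0 ≤ M * ((sg / h) * (s1 / h)) := by positivity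
        nlinarith

theorem card_nor (hh3 : 0 < h3) (hρ : h3 ≤ ρ) : ((IS h3 0 (5 * ρ)).card : ℝ) ≤ 11 * (ρ / h3) := by
  have h1 : 1 ≤ ρ / h3 := by rw [le_div_iff₀ hh3]; linarith
  refine (card_IS_le hh3 (by linarith)).trans ?_
  have : 2 * (5 * ρ) / h3 = 10 * (ρ / h3) := by ring
  rw [this]; linarith

/-- **share, small aperture**. -/
theorem share_small (hh : 0 < h) (hh3 : 0 < h3) (hρ : h3 ≤ ρ) (hM : 1 ≤ M) (hsg : h ≤ sg)
    (hs1 : h ≤ s1) (hT : sg ^ 2 ≤ T) (adm : Adm M c sg T 1 x0 y0 0 p) :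
    ((filt (InM c sg T x0 y0 p s1 h h3 C a k0) (bx h h3 w ρ)).card : ℝ) ≤
      10692 * M * ((sg / h) ^ 3 * (s1 / h) * (ρ / h3)) := by
  have hsg0 : 0 < sg := hh.trans_le hsg
  have hs10 : 0 < s1 := hh.trans_le hs1
  have hρ0 : 0 < ρ := hh3.trans_le hρ
  refine (card_fib (InM c sg T x0 y0 p s1 h h3 C a k0) (n1 := 9 * (sg / h) ^ 2)
    (n2 := 108 * M * ((sg / h) * (s1 / h))) (n3 := 11 * (ρ / h3)) (by positivity) (by positivity)
    (SQ h (c - C) sg) (fun _ => IS h3 0 (5 * ρ))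
    (fun k1 k3 => filt (fun k2 => InM c sg T x0 y0 p s1 h h3 C a k0 (k1, k2, k3))
      (SQ h (x0 - a) sg)) (fun k1 _ k2 _ k3 m3 hR => ⟨dir_small hh hR, m3, ?_⟩)
    (card_SQ_le hh _ hsg) (fun _ => card_nor hh3 hρ)
    (fun k1 k3 => count2_small hh hM hsg hs1 hT adm k1 k3)).trans (le_of_eq ?_)
  · rw [mem_filt]; exact ⟨pos_small hh hR, hR⟩
  · ring

/-- the size of `∂_y φ` on `|s| ≤ 1`. -/
noncomputable def Gam (p : Cf E2) : ℝ := |p.g| + 2 * |p.d|

theorem Gam_nonneg (p : Cf E2) : 0 ≤ Gam p := by unfold Gam; positivity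

theorem ny_le_Gam (p : Cf E2) {s : ℝ} (hs : |s| ≤ 1) : |p.ny s| ≤ Gam p := by
  unfold Cf.ny Gam
  refine (abs_sub _ _).trans ?_
  rw [abs_mul, abs_mul, abs_of_pos (two_pos : (0:ℝ) < 2)]
  have := mul_le_mul_of_nonneg_left hs (abs_nonneg p.d)
  linarith

theorem Gam_T_le (hT0 : 0 ≤ T) (adm : Adm M c sg T 1 x0 y0 0 p) : Gam p * T ≤ 2 * M * sg := by
  have h1 := adm.ny 0 (by simp)
  have h2 := adm.d_le zero_le_one hT0
  have e : p.ny 0 = p.g := by unfold Cf.ny; ring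
  rw [e] at h1
  unfold Gam
  nlinarith

theorem Gam_sg_le (hsg : 0 < sg) (hT : sg ^ 2 ≤ T) (adm : Adm M c sg T 1 x0 y0 0 p) :
    Gam p * sg ≤ 2 * M := by
  have h1 := Gam_T_le ((sq_nonneg _).trans hT) adm
  have h2 : Gam p * sg ^ 2 ≤ 2 * M * sg := by
    have := mul_le_mul_of_nonneg_left hT (Gam_nonneg p)
    linarith
  have h3 : (Gam p * sg) * sg ≤ (2 * M) * sg := by linarith [sq sg]
  exact le_of_mul_le_mul_right (by nlinarith) hsg

/-- number of normals: the slab is tilted. -/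
theorem count3 (hh : 0 < h) (hh3 : 0 < h3) (hM : 1 ≤ M) (hw : 0 < w) (hwsg : w ≤ sg)
    (hs1 : 0 < s1) (hle : s1 ≤ sg) (hT : sg ^ 2 ≤ T) (adm : Adm M c sg T 1 x0 y0 0 p)
    (hG : 0 < Gam p) {t : ℝ} (ht1 : s1 ≤ t) (ht2 : w ≤ t) (hsmall : Gam p * h3 ≤ w)
    (S3 : Finset ℤ) (k1 : ℤ × ℤ) :
    ((filt (fun k3 => ∃ k2 ∈ SQ h 0 (3 * w),
      InM c sg T x0 y0 p s1 h h3 C a k0 (k1, k2, k3)) S3).card : ℝ) ≤
      509 * M * (t / (Gam p * h3)) := by
  have hsg : 0 < sg := hs1.trans_le hle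
  have ht : 0 < t := hw.trans_le ht2
  have hGs := Gam_sg_le hsg hT adm
  have hdle : 2 * |p.d| ≤ Gam p := by unfold Gam; linarith [abs_nonneg p.g]
  have hdw : |p.d| * w ≤ M := by
    have : Gam p * w ≤ Gam p * sg := by gcongr
    nlinarith
  have hone : 1 ≤ t / (Gam p * h3) := by
    rw [le_div_iff₀ (by positivity)]; linarith
  have key : ∀ k3 : ℤ, (∃ k2 ∈ SQ h 0 (3 * w),
      InM c sg T x0 y0 p s1 h h3 C a k0 (k1, k2, k3)) →
      |p.ev a k0 0 + p.g * (h3 * k3)| ≤ 127 * M * t ∧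
      |p.ld (C + Lat h k1) a k0 0 - 2 * p.d * (h3 * k3)| ≤ t := by
    intro k3 hk3
    obtain ⟨k2, hk2, hR⟩ := hk3
    have hv : ‖Lat h k2‖ ≤ 6 * w := by
      have := norm_of_mem_SQ hh (by linarith) hk2
      rw [sub_zero] at this
      linarith
    obtain ⟨-, -, f3, f4⟩ := ray_facts hR
    have f5 := ray_gr_le hM hsg hs1.le hT hle adm hR
    unfold ba bc bC at f3
    unfold ba bc bC at f4
    unfold ba bC at f5
    simp only at f3 f4 f5
    rw [ev_shear] at f3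
    rw [ld_shear] at f4
    rw [gr_shear] at f5
    have hdv : ‖(2 * p.d) • Lat h k2‖ ≤ 12 * M := by
      rw [norm_smul, Real.norm_eq_abs, abs_mul, abs_of_pos (two_pos : (0:ℝ) < 2)]
      calc 2 * |p.d| * ‖Lat h k2‖ ≤ 2 * |p.d| * (6 * w) := by gcongr
        _ = 12 * (|p.d| * w) := by ring
        _ ≤ 12 * M := by linarith
    have hgr : ‖p.gr (C + Lat h k1) a 0‖ ≤ 15 * M := by
      have e : p.gr (C + Lat h k1) a 0 = (p.gr (C + Lat h k1) a 0 + (2 * p.d) • Lat h k2) -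
          (2 * p.d) • Lat h k2 := by abel
      rw [e]
      refine (norm_sub_le _ _).trans ?_
      linarith
    have h6 : |inner ℝ (p.gr (C + Lat h k1) a 0) (Lat h k2)| ≤ 15 * M * (6 * w) :=
      (abs_real_inner_le_norm _ _).trans (mul_le_mul hgr hv (norm_nonneg _) (by positivity))
    have h7 : |p.d * ‖Lat h k2‖ ^ 2| ≤ 36 * M * w := by
      rw [abs_mul, abs_of_nonneg (sq_nonneg ‖Lat h k2‖)]
      calc |p.d| * ‖Lat h k2‖ ^ 2 ≤ |p.d| * (6 * w) ^ 2 := by gcongr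
        _ = 36 * (|p.d| * w) * w := by ring
        _ ≤ 36 * M * w := by gcongr
    have e8 : p.ev a (k0 + h3 * k3) 0 = p.ev a k0 0 + p.g * (h3 * k3) := by
      unfold Cf.ev; ring
    rw [e8] at f3
    refine ⟨?_, f4.trans ht1⟩
    have h11 : M * w ≤ M * t := by gcongr
    have h12 : t ≤ M * t := by nlinarith
    have g3 := abs_le.mp (f3.trans ht1)
    have g6 := abs_le.mp h6
    have g7 := abs_le.mp h7
    rw [abs_le]
    constructor <;> linarith [g3.1, g3.2, g6.1, g6.2, g7.1, g7.2]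
  have hcard : ((filt (fun k3 => ∃ k2 ∈ SQ h 0 (3 * w),
      InM c sg T x0 y0 p s1 h h3 C a k0 (k1, k2, k3)) S3).card : ℝ) ≤
      508 * M * (t / (Gam p * h3)) + 1 := by
    refine card_le_of_diff (by positivity) fun i hi j hj hij => ?_
    have ki := key i (mem_filt.mp hi).2
    have kj := key j (mem_filt.mp hj).2
    have hij' : (i : ℝ) ≤ j := by exact_mod_cast hij
    have hji : 0 ≤ (j : ℝ) - i := by linarith
    have hmul : ∀ {x A : ℝ}, Gam p / 2 ≤ x → x * (h3 * ((j : ℝ) - i)) ≤ A →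
        (j : ℝ) - i ≤ 2 * (A / (Gam p * h3)) := by
      intro x A hx hA
      have h1 : Gam p / 2 * (h3 * ((j : ℝ) - i)) ≤ A := by
        refine le_trans ?_ hA
        gcongr
      rw [← mul_div_assoc, le_div_iff₀ (by positivity)]
      linarith
    have hcase : Gam p / 2 ≤ |p.g| ∨ Gam p / 2 ≤ 2 * |p.d| := by
      by_contra hn
      push Not at hn
      have : Gam p < Gam p := by
        conv_lhs => unfold Gam
        linarith [hn.1, hn.2]
      exact lt_irrefl _ this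
    rcases hcase with hg | hd
    · refine (hmul hg (A := 254 * M * t) ?_).trans (le_of_eq (by ring))
      have e1 : |p.g| * (h3 * ((j : ℝ) - i)) =
          |(p.ev a k0 0 + p.g * (h3 * j)) - (p.ev a k0 0 + p.g * (h3 * i))| := by
        rw [show (p.ev a k0 0 + p.g * (h3 * j)) - (p.ev a k0 0 + p.g * (h3 * i)) =
          p.g * (h3 * ((j : ℝ) - i)) by ring, abs_mul, abs_of_nonneg (a := h3 * ((j : ℝ) - i))
          (mul_nonneg hh3.le hji)]
      rw [e1]
      refine (abs_sub _ _).trans ?_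
      linarith [ki.1, kj.1]
    · refine (hmul hd (A := 2 * t) ?_).trans ?_
      · have e1 : 2 * |p.d| * (h3 * ((j : ℝ) - i)) =
            |(p.ld (C + Lat h k1) a k0 0 - 2 * p.d * (h3 * i)) -
              (p.ld (C + Lat h k1) a k0 0 - 2 * p.d * (h3 * j))| := by
          rw [show (p.ld (C + Lat h k1) a k0 0 - 2 * p.d * (h3 * i)) -
              (p.ld (C + Lat h k1) a k0 0 - 2 * p.d * (h3 * j)) =
            2 * p.d * (h3 * ((j : ℝ) - i)) by ring, abs_mul, abs_mul,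
            abs_of_nonneg (a := h3 * ((j : ℝ) - i)) (mul_nonneg hh3.le hji),
            abs_of_pos (two_pos : (0:ℝ) < 2)]
        rw [e1]
        refine (abs_sub _ _).trans ?_
        linarith [ki.2, kj.2]
      · have h1 : 0 ≤ t / (Gam p * h3) := by positivity
        have e : 2 * (2 * t / (Gam p * h3)) = 4 * (t / (Gam p * h3)) := by ring
        rw [e]
        nlinarith
  refine hcard.trans ?_
  have h13 : t / (Gam p * h3) ≤ M * (t / (Gam p * h3)) := by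
    have : 0 ≤ t / (Gam p * h3) := by positivity
    nlinarith
  nlinarith

/-- number of directions. -/
theorem card_dir (hh : 0 < h) (hhw : 2 * h ≤ w) :
    ((SQ h 0 (w / 2)).card : ℝ) ≤ 9 / 4 * (w / h) ^ 2 := by
  refine (card_SQ_le hh (0 : E2) (t := w / 2) (by linarith)).trans (le_of_eq ?_)
  ring

theorem card_pos (hh : 0 < h) (hhw : 2 * h ≤ w) :
    ((SQ h 0 (3 * w)).card : ℝ) ≤ 81 * (w / h) ^ 2 := by
  refine (card_SQ_le hh (0 : E2) (t := 3 * w) (by linarith)).trans (le_of_eq ?_)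
  ring

set_option maxHeartbeats 400000 in
/-- **SHARE, large aperture**: `# · (s1 + w + Γ ρ) ≤ C M (w/h)⁴ (ρ/h3) s1`. -/
theorem share_large (hh : 0 < h) (hh3 : 0 < h3) (hhw : 2 * h ≤ w) (hρ : h3 ≤ ρ) (hM : 1 ≤ M)
    (hwsg : w ≤ sg) (hs1 : h ≤ s1) (hT : sg ^ 2 ≤ T)
    (adm : Adm M c sg T 1 x0 y0 0 p) (hthin : 6 * M * s1 ≤ sg) (hsmall : Gam p * h3 ≤ w) :
    ((filt (InM c sg T x0 y0 p s1 h h3 C a k0) (bx h h3 w ρ)).card : ℝ) *
      (s1 + w + Gam p * ρ) ≤ 400000 * M * ((w / h) ^ 4 * (ρ / h3) * s1) := by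
  have hw : 0 < w := by linarith
  have hsg : 0 < sg := hw.trans_le hwsg
  have hs10 : 0 < s1 := hh.trans_le hs1
  have hle : s1 ≤ sg := by nlinarith
  have hρ0 : 0 < ρ := hh3.trans_le hρ
  have hM0 : 0 ≤ M := by linarith
  -- (b1)
  have b1 : ((filt (InM c sg T x0 y0 p s1 h h3 C a k0) (bx h h3 w ρ)).card : ℝ) ≤
      2005 * ((w / h) ^ 4 * (ρ / h3)) := (card_filt_le _ _).trans (card_bx_le hh hh3 hhw hρ)
  -- (b2)
  have b2 : ((filt (InM c sg T x0 y0 p s1 h h3 C a k0) (bx h h3 w ρ)).card : ℝ) ≤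
      9 / 4 * (w / h) ^ 2 * (11 * (ρ / h3) * (324 * ((w / h) * (s1 / h)))) := by
    refine card_fib (InM c sg T x0 y0 p s1 h h3 C a k0) (by positivity) (by positivity)
      (SQ h 0 (w / 2)) (fun _ => IS h3 0 (5 * ρ))
      (fun k1 k3 => filt (fun k2 => InM c sg T x0 y0 p s1 h h3 C a k0 (k1, k2, k3))
        (SQ h 0 (3 * w))) (fun k1 m1 k2 m2 k3 m3 hR => ⟨m1, m3, ?_⟩) (card_dir hh hhw)
      (fun _ => card_nor hh3 hρ)
      (fun k1 k3 => count2_box hh hhw hM0 hsg hs1 hT adm hthin k1 k3)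
    rw [mem_filt]; exact ⟨m2, hR⟩
  -- (b3)
  have b3 : 0 < Gam p → s1 ≤ w →
      ((filt (InM c sg T x0 y0 p s1 h h3 C a k0) (bx h h3 w ρ)).card : ℝ) ≤
      9 / 4 * (w / h) ^ 2 * (509 * M * (w / (Gam p * h3)) * (324 * ((w / h) * (s1 / h)))) := by
    intro hG hsw
    refine card_fib (InM c sg T x0 y0 p s1 h h3 C a k0) (by positivity) (by positivity)
      (SQ h 0 (w / 2)) (fun k1 => filt (fun k3 => ∃ k2 ∈ SQ h 0 (3 * w),
        InM c sg T x0 y0 p s1 h h3 C a k0 (k1, k2, k3)) (IS h3 0 (5 * ρ)))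
      (fun k1 k3 => filt (fun k2 => InM c sg T x0 y0 p s1 h h3 C a k0 (k1, k2, k3))
        (SQ h 0 (3 * w))) (fun k1 m1 k2 m2 k3 m3 hR => ⟨m1, ?_, ?_⟩) (card_dir hh hhw)
      (fun k1 => count3 hh hh3 hM hw hwsg hs10 hle hT adm hG hsw le_rfl hsmall _ k1)
      (fun k1 k3 => count2_box hh hhw hM0 hsg hs1 hT adm hthin k1 k3)
    · rw [mem_filt]; exact ⟨m3, k2, m2, hR⟩
    · rw [mem_filt]; exact ⟨m2, hR⟩
  have b4 : 0 < Gam p → w ≤ s1 →
      ((filt (InM c sg T x0 y0 p s1 h h3 C a k0) (bx h h3 w ρ)).card : ℝ) ≤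
      9 / 4 * (w / h) ^ 2 * (509 * M * (s1 / (Gam p * h3)) * (81 * (w / h) ^ 2)) := by
    intro hG hsw
    refine card_fib (InM c sg T x0 y0 p s1 h h3 C a k0) (by positivity) (by positivity)
      (SQ h 0 (w / 2)) (fun k1 => filt (fun k3 => ∃ k2 ∈ SQ h 0 (3 * w),
        InM c sg T x0 y0 p s1 h h3 C a k0 (k1, k2, k3)) (IS h3 0 (5 * ρ)))
      (fun _ _ => SQ h 0 (3 * w)) (fun k1 m1 k2 m2 k3 m3 hR => ⟨m1, ?_, m2⟩) (card_dir hh hhw)
      (fun k1 => count3 hh hh3 hM hw hwsg hs10 hle hT adm hG le_rfl hsw hsmall _ k1)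
      (fun _ _ => card_pos hh hhw)
    rw [mem_filt]; exact ⟨m3, k2, m2, hR⟩
  generalize ((filt (InM c sg T x0 y0 p s1 h h3 C a k0) (bx h h3 w ρ)).card : ℝ) = N
    at b1 b2 b3 b4 ⊢
  have hX : 0 ≤ (w / h) ^ 4 * (ρ / h3) * s1 := by positivity
  have c1 : N * s1 ≤ 2005 * ((w / h) ^ 4 * (ρ / h3) * s1) := by
    refine (mul_le_mul_of_nonneg_right b1 hs10.le).trans (le_of_eq (by ring))
  have c2 : N * w ≤ 8019 * ((w / h) ^ 4 * (ρ / h3) * s1) := by
    refine (mul_le_mul_of_nonneg_right b2 hw.le).trans (le_of_eq ?_)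
    field_simp
    ring
  have c3 : N * (Gam p * ρ) ≤ 371061 * M * ((w / h) ^ 4 * (ρ / h3) * s1) := by
    rcases (Gam_nonneg p).eq_or_lt with hG | hG
    · rw [← hG, zero_mul, mul_zero]; positivity
    · rcases le_total s1 w with hsw | hsw
      · refine (mul_le_mul_of_nonneg_right (b3 hG hsw) (by positivity)).trans (le_of_eq ?_)
        field_simp
        ring
      · refine (mul_le_mul_of_nonneg_right (b4 hG hsw) (by positivity)).trans ?_
        have e : 9 / 4 * (w / h) ^ 2 * (509 * M * (s1 / (Gam p * h3)) * (81 * (w / h) ^ 2)) *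
            (Gam p * ρ) = (371061 / 4) * (M * ((w / h) ^ 4 * (ρ / h3) * s1)) := by
          field_simp
          ring
        rw [e]
        have : 0 ≤ M * ((w / h) ^ 4 * (ρ / h3) * s1) := by positivity
        nlinarith
  have c4 : (w / h) ^ 4 * (ρ / h3) * s1 ≤ M * ((w / h) ^ 4 * (ρ / h3) * s1) := by nlinarith
  calc N * (s1 + w + Gam p * ρ) = N * s1 + N * w + N * (Gam p * ρ) := by ring
    _ ≤ 400000 * M * ((w / h) ^ 4 * (ρ / h3) * s1) := by nlinarith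

end count

end Crest.Agent.R116.Br430
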