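import Crest.Agent.R116.LZg4_725

/-!
# R116 (S0155): literal light-ray Kakeya inequality (helper299)

Light ray `r = (C, a, k)`: at time `s` at `rpos r s = pt (a - s C) (k + s |C|²/2)` (480's sign).
Members = 725's `Mem` (isotropic light box cut by a conformal slab).
`SSr M δ ρ A v` : test sets of full length (`R = 1`, `s0 = 0`), resolution `δ`, thin side `ρ`;
`SSg M w ρ R A c` : the same at length `R`, in 538's ray coordinates `(C, y)`, with the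
compatibility condition `Cpt` (a `ρ`-thick plank fits into the slab).
`LKMtube T V` = K side's output (isotropic tubes); 538's `LKMg (SSg M) V` = W side's input.
-/

set_option autoImplicit false

open MeasureTheory
open scoped ENNReal

namespace Crest.Agent.R116.LKMDef299

open Crest.Agent.R138.Defs (E2)
open Crest.Agent.R116.CDef480 (E3 lat pt vel nrm)
open Crest.Agent.R116.LZg725 (Cf Mem rpos rx ry)

/-- light ray `(C, a, k)`. -/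
abbrev LRay := E2 × E2 × ℝ

/-- value of the null normal `nrm C` on the ray of slope `C`. -/
noncomputable def nv (r : LRay) : ℝ := r.2.2 + inner ℝ r.1 r.2.1

/-- section at time `s` of the isotropic tube of radius `δ`. -/
def tube (δ : ℝ) (r : LRay) (s : ℝ) : Set E3 :=
  {X | ‖lat X - (r.2.1 - s • r.1)‖ ≤ δ ∧ |X 2 - (r.2.2 + s * ‖r.1‖ ^ 2 / 2)| ≤ δ}

/-- section at time `s` of the plank of lateral radius `δ` and thin side `ρ`. -/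
def plank (δ ρ : ℝ) (r : LRay) (s : ℝ) : Set E3 :=
  {X | ‖lat X - (r.2.1 - s • r.1)‖ ≤ δ ∧ |nrm r.1 X s - nv r| ≤ ρ}

/-- a plank of thin side `ρ` fits into the slab of the member. -/
def Cpt (M ρ : ℝ) (m : Mem) : Prop :=
  ∀ s, |s - m.s0| ≤ m.R → |m.phi.ny s| * ρ ≤ M * (m.s1 * m.R)

/-- **class of test sets of full length** (`R = 1`, `s0 = 0`), resolution `δ`, thin side `ρ`. -/
def SSr (M : ℝ) (δ ρ : ℝ) (A : Set LRay) (v : ℝ) : Prop :=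
  ∃ m : Mem, m.Ok M ρ ∧ m.R = 1 ∧ m.s0 = 0 ∧ δ ≤ m.s1 ∧ m.sg ≤ 1 ∧ A = m.rays ρ ∧
    v = m.scost ρ

/-- **class of test sets of length `R`** (`s0 = 0`) for planks `w × w × ρ`, in the coordinates
`(C, y)` = (slope, position at time `0`). -/
def SSg (M : ℝ) (w ρ R : ℝ) (A : Set (E2 × E3)) (c : ℝ) : Prop :=
  ∃ m : Mem, m.Ok M ρ ∧ Cpt M ρ m ∧ m.R = R ∧ m.s0 = 0 ∧ w ≤ m.s1 * R ∧ m.sg ≤ 1 ∧
    A = {r | (r.1, lat r.2, r.2 2) ∈ m.rays ρ} ∧ c = m.scost ρ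

open Classical in
/-- **LKM, tubes**: weighted light rays, isotropic tubes of radius `δ`. -/
def LKMtube (T : ℝ → ℝ → Set LRay → ℝ → Prop) (V : ℝ) : Prop :=
  ∀ ε : ℝ, 0 < ε → ∃ K : ℝ, 0 ≤ K ∧ ∀ δ : ℝ, 0 < δ → δ ≤ 1 →
    ∀ (ι : Type) [Fintype ι] (r : ι → LRay) (w : ι → ℝ), (∀ i, 0 ≤ w i) →
      (∀ i, ‖(r i).1‖ ≤ V) → (∀ i, ‖(r i).2.1‖ ≤ V) → (∀ i, |(r i).2.2| ≤ V) → ∀ Δ : ℝ, 0 ≤ Δ →
      (∀ A v, T δ δ A v → ∑ i, (if r i ∈ A then w i * δ ^ 3 else 0) ≤ Δ * v) →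
      ∫⁻ s in Set.Icc (-1 : ℝ) 1, ∫⁻ X : E3,
          (∑ i, (if X ∈ tube δ (r i) s then ENNReal.ofReal (w i) else 0)) ^ (3/2 : ℝ) ≤
        ENNReal.ofReal (K * δ ^ (-ε) * Real.sqrt Δ * ∑ i, w i * δ ^ 3)

open Classical in
/-- **LKM, planks** (normalised length): lateral radius `δ`, thin side `ρ`, `δ² ≤ ρ ≤ δ`. -/
def LKMthin (T : ℝ → ℝ → Set LRay → ℝ → Prop) (V : ℝ) : Prop :=
  ∀ ε : ℝ, 0 < ε → ∃ K : ℝ, 0 ≤ K ∧ ∀ δ ρ : ℝ, 0 < δ → δ ≤ 1 → δ ^ 2 ≤ ρ → ρ ≤ δ →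
    ∀ (ι : Type) [Fintype ι] (r : ι → LRay) (w : ι → ℝ), (∀ i, 0 ≤ w i) →
      (∀ i, ‖(r i).1‖ ≤ V) → (∀ i, ‖(r i).2.1‖ ≤ V) → (∀ i, |(r i).2.2| ≤ V) → ∀ Δ : ℝ, 0 ≤ Δ →
      (∀ A v, T δ ρ A v → ∑ i, (if r i ∈ A then w i * (δ ^ 2 * ρ) else 0) ≤ Δ * v) →
      ∫⁻ s in Set.Icc (-1 : ℝ) 1, ∫⁻ X : E3,
          (∑ i, (if X ∈ plank δ ρ (r i) s then ENNReal.ofReal (w i) else 0)) ^ (3/2 : ℝ) ≤
        ENNReal.ofReal (K * δ ^ (-ε) * Real.sqrt Δ * ∑ i, w i * (δ ^ 2 * ρ))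

/-- **the K side's output**: LKM for tubes over the class `SS` with some constant. -/
def LKM : Prop := ∃ M : ℝ, 1 ≤ M ∧ ∀ V : ℝ, LKMtube (SSr M) V

/-! ### elementary facts -/

theorem rpos_eq_pt (r : LRay) (s : ℝ) :
    rpos r s = pt (r.2.1 - s • r.1) (r.2.2 + s * ‖r.1‖ ^ 2 / 2) := rfl

/-- the normal of slope `c` along a ray. -/
theorem nrm_rpos (c : E2) (r : LRay) (s : ℝ) :
    nrm c (rpos r s) s = r.2.2 + inner ℝ c r.2.1 + s * ‖r.1 - c‖ ^ 2 / 2 := by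
  rw [LZg725.nrm_eq, LZg725.lat_rpos, LZg725.rpos_two]
  exact LZg725.nrm_ray' c r.1 r.2.1 r.2.2 s

theorem nrm_rpos_self (r : LRay) (s : ℝ) : nrm r.1 (rpos r s) s = nv r := by
  rw [nrm_rpos, sub_self, norm_zero]
  unfold nv
  ring

/-- the plank in terms of the position of the ray. -/
theorem mem_plank_iff {δ ρ : ℝ} {r : LRay} {s : ℝ} {X : E3} :
    X ∈ plank δ ρ r s ↔
      ‖lat X - lat (rpos r s)‖ ≤ δ ∧ |nrm r.1 X s - nrm r.1 (rpos r s) s| ≤ ρ := by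
  rw [nrm_rpos_self, LZg725.lat_rpos]
  rfl

theorem mem_tube_iff {δ : ℝ} {r : LRay} {s : ℝ} {X : E3} :
    X ∈ tube δ r s ↔ ‖lat X - lat (rpos r s)‖ ≤ δ ∧ |X 2 - rpos r s 2| ≤ δ := by
  rw [LZg725.lat_rpos, LZg725.rpos_two]
  rfl

/-- monotonicity in the constant of admissibility. -/
theorem Ok.mono {M M' B : ℝ} {m : Mem} (h : m.Ok M B) (hM : M ≤ M') : m.Ok M' B := by
  have h0 : 0 ≤ m.sg := h.hs1.le.trans h.hsg
  obtain ⟨h1, h2, h3, h4⟩ := h.adm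
  refine ⟨h.hR, h.hs1, h.hsg, h1, fun s hs => (h2 s hs).trans ?_, h3.trans ?_, h4.trans ?_⟩
  · exact mul_le_mul_of_nonneg_right hM h0
  · exact mul_le_mul_of_nonneg_right hM h0
  · exact mul_le_mul_of_nonneg_right (mul_le_mul_of_nonneg_right hM h0) h.hR.le

theorem Cpt.mono {M M' B : ℝ} {m : Mem} (h : Cpt M B m) (hm : 0 ≤ m.s1 * m.R) (hM : M ≤ M') :
    Cpt M' B m := fun s hs => (h s hs).trans (mul_le_mul_of_nonneg_right hM hm)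

theorem SSr.mono {M M' δ ρ : ℝ} {A : Set LRay} {v : ℝ} (h : SSr M δ ρ A v) (hM : M ≤ M') :
    SSr M' δ ρ A v := by
  obtain ⟨σ, h1, h2⟩ := h
  exact ⟨σ, Ok.mono h1 hM, h2⟩

theorem SSg.mono {M M' w ρ R : ℝ} {A : Set (E2 × E3)} {c : ℝ} (h : SSg M w ρ R A c)
    (hM : M ≤ M') : SSg M' w ρ R A c := by
  obtain ⟨σ, h1, h2, h3⟩ := h
  exact ⟨σ, Ok.mono h1 hM, Cpt.mono h2 (mul_nonneg h1.hs1.le h1.hR.le) hM, h3⟩

/-- a larger class gives a weaker inequality. -/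
theorem LKMtube.mono {T T' : ℝ → ℝ → Set LRay → ℝ → Prop} {V : ℝ} (h : LKMtube T V)
    (hT : ∀ δ ρ A v, T δ ρ A v → T' δ ρ A v) : LKMtube T' V := by
  intro ε hε
  obtain ⟨K, hK, h1⟩ := h ε hε
  exact ⟨K, hK, fun δ h0 h1' ι _ r w hw a b c Δ hΔ hD =>
    h1 δ h0 h1' ι r w hw a b c Δ hΔ fun A v hA => hD A v (hT _ _ _ _ hA)⟩

theorem LKMthin.mono {T T' : ℝ → ℝ → Set LRay → ℝ → Prop} {V : ℝ} (h : LKMthin T V)
    (hT : ∀ δ ρ A v, T δ ρ A v → T' δ ρ A v) : LKMthin T' V := by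
  intro ε hε
  obtain ⟨K, hK, h1⟩ := h ε hε
  exact ⟨K, hK, fun δ ρ h0 h1' h2 h3 ι _ r w hw a b c Δ hΔ hD =>
    h1 δ ρ h0 h1' h2 h3 ι r w hw a b c Δ hΔ fun A v hA => hD A v (hT _ _ _ _ hA)⟩

end Crest.Agent.R116.LKMDef299
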