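import Crest.Agent.R116.LZg5_725

/-!
# R116, (Z4), part 6: neighbouring rays, thickening, sub-members (helper725)

`ev_near_ray`: variation of `φ` between neighbouring rays.  `inK_near`, `rayIn_thick`: thickening.
`gr_slab`: two-sided bound of the lateral gradient on slab rays.  `Mem.Res`: the resolution
condition `|∂_y φ| B ≤ M s1 R` (299's `Cpt`).  `Mem.sub_ok`: sub-members from a ray.
-/

set_option autoImplicit false
set_option linter.unusedSectionVars false

namespace Crest.Agent.R116.LZg725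

variable {E : Type*} [NormedAddCommGroup E] [InnerProductSpace ℝ E]
variable {M : ℝ} {c : E} {sg T R : ℝ} {x0 : E} {y0 s0 : ℝ} {p : Cf E}

/-- slope of `φ` along a ray of the slab. -/
theorem rB_le {w : ℝ} (hR : 0 < R) {C a : E} {k : ℝ}
    (h : ∀ s, |s - s0| ≤ R → |p.ev (rx C a s) (ry C k s) s| ≤ w) : |p.rB C a k| * R ≤ w := by
  have e1 := h (s0 + R) (by rw [add_sub_cancel_left, abs_of_pos hR])
  have e2 := h (s0 - R) (by rw [sub_sub_cancel_left, abs_neg, abs_of_pos hR])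
  rw [Cf.ev_ray] at e1 e2
  have e3 : 2 * R * p.rB C a k = (p.rA a k + (s0 + R) * p.rB C a k) -
      (p.rA a k + (s0 - R) * p.rB C a k) := by ring
  have e4 : |2 * R * p.rB C a k| ≤ 2 * w := by
    rw [e3]; exact (abs_sub _ _).trans (by linarith)
  rw [abs_mul, abs_of_pos (by linarith : 0 < 2 * R)] at e4
  linarith

/-- conversely: value at the centre time and slope. -/
theorem ev_le_of_slope {w1 w2 : ℝ} {C a : E} {k : ℝ}
    (h1 : |p.ev (rx C a s0) (ry C k s0) s0| ≤ w1) (h2 : |p.rB C a k| * R ≤ w2) {s : ℝ}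
    (hs : |s - s0| ≤ R) : |p.ev (rx C a s) (ry C k s) s| ≤ w1 + w2 := by
  have e : p.ev (rx C a s) (ry C k s) s =
      p.ev (rx C a s0) (ry C k s0) s0 + (s - s0) * p.rB C a k := by
    rw [Cf.ev_ray, Cf.ev_ray]; ring
  rw [e]
  refine (abs_add_le _ _).trans (add_le_add h1 ?_)
  rw [abs_mul]
  have := mul_le_mul_of_nonneg_right hs (abs_nonneg (p.rB C a k))
  linarith

/-- **variation of `φ` between neighbouring rays**: `x, y` = position of the ray `(C, a, k)` at
time `s0`, lateral displacement `lam`, null displacement `nu` (w.r.t. `C`), directions `kap`. -/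
theorem ev_near_ray {eta G lam nu kap : ℝ} (hR : 0 < R)
    (hny : ∀ s, |s - s0| ≤ R → |p.ny s| ≤ eta) {C a C' a' : E} {k k' : ℝ}
    (hG : ‖p.gr C (rx C a s0) s0‖ ≤ G) (hx : ‖rx C' a' s0 - rx C a s0‖ ≤ lam)
    (hn : |nrm C (rx C' a' s0) (ry C' k' s0) s0 - nrm C (rx C a s0) (ry C k s0) s0| ≤ nu)
    (hC : ‖C' - C‖ ≤ kap) {s : ℝ} (hs : |s - s0| ≤ R) :
    |p.ev (rx C' a' s) (ry C' k' s) s - p.ev (rx C a s) (ry C k s) s| ≤
      G * (lam + R * kap) + 2 * (eta * nu) + eta / (2 * R) * (lam + R * kap) ^ 2 := by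
  set x := rx C a s0 with hx0
  set y := ry C k s0 with hy0
  set x' := rx C' a' s0 with hx1
  set y' := ry C' k' s0 with hy1
  have hs00 : |s0 - s0| ≤ R := by rw [sub_self, abs_zero]; exact hR.le
  have hlam : 0 ≤ lam := (norm_nonneg _).trans hx
  have hnu : 0 ≤ nu := (abs_nonneg _).trans hn
  have hkap : 0 ≤ kap := (norm_nonneg _).trans hC
  have hG0 : 0 ≤ G := (norm_nonneg _).trans hG
  have heta : 0 ≤ eta := (abs_nonneg _).trans (hny s0 hs00)
  have hd : 2 * |p.d| * R ≤ eta := by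
    have := d_le_of_ny (T := 1) hR.le zero_le_one (fun s hs => by rw [mul_one]; exact hny s hs)
    linarith
  have hd' : |p.d| ≤ eta / (2 * R) := by
    rw [le_div_iff₀ (by linarith)]; linarith
  have hLC : p.rB C a k = p.ld C x y s0 := (Cf.ld_ray p C a k s0).symm
  have hLC' : p.rB C' a' k' = p.ld C' x' y' s0 := (Cf.ld_ray p C' a' k' s0).symm
  have e0 : p.ev (rx C' a' s) (ry C' k' s) s - p.ev (rx C a s) (ry C k s) s =
      (p.ev x' y' s0 - p.ev x y s0) + (s - s0) * (p.ld C' x' y' s0 - p.ld C x y s0) := by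
    rw [Cf.ev_ray, Cf.ev_ray, ← hLC, ← hLC', hx0, hy0, hx1, hy1, Cf.ev_ray, Cf.ev_ray]; ring
  have e1 : p.ev x' y' s0 - p.ev x y s0 = inner ℝ (p.gr C x s0) (x' - x) +
      p.ny s0 * (nrm C x' y' s0 - nrm C x y s0) + p.d * ‖x' - x‖ ^ 2 := by
    rw [Cf.ev_expand p C x y s0 x' y' s0, sub_self, zero_smul, add_zero]; ring
  have e2 : p.ld C' x' y' s0 - p.ld C x y s0 = -inner ℝ (p.gr C x' s0) (C' - C) +
      p.ny s0 * ‖C' - C‖ ^ 2 / 2 - 2 * p.d * (nrm C x' y' s0 - nrm C x y s0) := by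
    rw [Cf.ld_dir p C C' x' y' s0, Cf.ld_move p C x x' y y' s0 s0]; ring
  have hg' : ‖p.gr C x' s0‖ ≤ G + eta / R * lam := by
    rw [Cf.gr_move p C x x' s0 s0, sub_self, zero_smul, add_zero]
    refine (norm_add_le _ _).trans (add_le_add hG ?_)
    rw [norm_smul, Real.norm_eq_abs, abs_mul, abs_of_pos (two_pos : (0:ℝ) < 2)]
    refine mul_le_mul ?_ hx (norm_nonneg _) (by positivity)
    rw [le_div_iff₀ hR]; linarith
  have b1 : |p.ev x' y' s0 - p.ev x y s0| ≤ G * lam + eta * nu + eta / (2 * R) * lam ^ 2 := by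
    rw [e1]
    have c1 : |inner ℝ (p.gr C x s0) (x' - x)| ≤ G * lam :=
      (abs_real_inner_le_norm _ _).trans (mul_le_mul hG hx (norm_nonneg _) hG0)
    have c2 : |p.ny s0 * (nrm C x' y' s0 - nrm C x y s0)| ≤ eta * nu := by
      rw [abs_mul]; exact mul_le_mul (hny s0 hs00) hn (abs_nonneg _) heta
    have c3 : |p.d * ‖x' - x‖ ^ 2| ≤ eta / (2 * R) * lam ^ 2 := by
      rw [abs_mul, abs_of_nonneg (sq_nonneg ‖x' - x‖)]
      exact mul_le_mul hd' (pow_le_pow_left₀ (norm_nonneg _) hx 2) (sq_nonneg _) (by positivity)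
    exact (abs_add_le _ _).trans (add_le_add ((abs_add_le _ _).trans (add_le_add c1 c2)) c3)
  have b2 : |p.ld C' x' y' s0 - p.ld C x y s0| ≤
      (G + eta / R * lam) * kap + eta * kap ^ 2 / 2 + eta / R * nu := by
    rw [e2]
    have c1 : |-inner ℝ (p.gr C x' s0) (C' - C)| ≤ (G + eta / R * lam) * kap := by
      rw [abs_neg]
      exact (abs_real_inner_le_norm _ _).trans
        (mul_le_mul hg' hC (norm_nonneg _) (by positivity))
    have c2 : |p.ny s0 * ‖C' - C‖ ^ 2 / 2| ≤ eta * kap ^ 2 / 2 := by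
      rw [abs_div, abs_mul, abs_of_nonneg (sq_nonneg ‖C' - C‖), abs_of_pos (two_pos : (0:ℝ) < 2)]
      have := mul_le_mul (hny s0 hs00) (pow_le_pow_left₀ (norm_nonneg _) hC 2) (sq_nonneg _) heta
      linarith
    have c3 : |2 * p.d * (nrm C x' y' s0 - nrm C x y s0)| ≤ eta / R * nu := by
      rw [abs_mul, abs_mul, abs_of_pos (two_pos : (0:ℝ) < 2)]
      refine mul_le_mul ?_ hn (abs_nonneg _) (by positivity)
      rw [le_div_iff₀ hR]; linarith
    exact (abs_sub _ _).trans (add_le_add ((abs_add_le _ _).trans (add_le_add c1 c2)) c3)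
  rw [e0]
  refine (abs_add_le _ _).trans ?_
  rw [abs_mul]
  have b3 : |s - s0| * |p.ld C' x' y' s0 - p.ld C x y s0| ≤
      R * ((G + eta / R * lam) * kap + eta * kap ^ 2 / 2 + eta / R * nu) :=
    mul_le_mul hs b2 (abs_nonneg _) hR.le
  refine (add_le_add b1 b3).trans (le_of_eq ?_)
  field_simp
  ring

/-- the box along a neighbouring ray. -/
theorem inK_near {lam nu kap : ℝ} {C a C' a' : E} {k k' : ℝ} (hCc : ‖C - c‖ ≤ sg)
    (hx : ‖rx C' a' s0 - rx C a s0‖ ≤ lam)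
    (hn : |nrm C (rx C' a' s0) (ry C' k' s0) s0 - nrm C (rx C a s0) (ry C k s0) s0| ≤ nu)
    (hC : ‖C' - C‖ ≤ kap) {s : ℝ}
    (hin : InK c sg T R x0 y0 s0 (rx C a s) (ry C k s) s) :
    |s - s0| ≤ R ∧ ‖(rx C' a' s - x0) + (s - s0) • c‖ ≤ sg * R + (lam + R * kap) ∧
      |nrm c (rx C' a' s) (ry C' k' s) s - nrm c x0 y0 s0| ≤
        T * R + nu + R * kap ^ 2 / 2 + sg * (lam + R * kap) := by
  obtain ⟨h1, h2, h3⟩ := hin
  have hR : 0 ≤ R := (abs_nonneg _).trans h1
  have hsg : 0 ≤ sg := (norm_nonneg _).trans hCc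
  have hkap : 0 ≤ kap := (norm_nonneg _).trans hC
  have hdx : ‖rx C' a' s - rx C a s‖ ≤ lam + R * kap := by
    have e : rx C' a' s - rx C a s = (rx C' a' s0 - rx C a s0) - (s - s0) • (C' - C) := by
      unfold rx; module
    rw [e]
    refine (norm_sub_le _ _).trans (add_le_add hx ?_)
    rw [norm_smul, Real.norm_eq_abs]
    exact mul_le_mul h1 hC (norm_nonneg _) hR
  refine ⟨h1, ?_, ?_⟩
  · have e : (rx C' a' s - x0) + (s - s0) • c =
        ((rx C a s - x0) + (s - s0) • c) + (rx C' a' s - rx C a s) := by abel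
    rw [e]
    exact (norm_add_le _ _).trans (add_le_add h2 hdx)
  · -- change of normal
    have e1 : nrm C (rx C' a' s) (ry C' k' s) s =
        nrm C (rx C' a' s0) (ry C' k' s0) s0 + (s - s0) * (‖C' - C‖ ^ 2 / 2) := by
      rw [nrm_ray', nrm_ray']; ring
    have e2 : nrm C (rx C a s) (ry C k s) s = nrm C (rx C a s0) (ry C k s0) s0 := by
      rw [nrm_ray, nrm_ray]
    have e3 : nrm c (rx C' a' s) (ry C' k' s) s - nrm c (rx C a s) (ry C k s) s =
        (nrm C (rx C' a' s) (ry C' k' s) s - nrm C (rx C a s) (ry C k s) s) +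
          inner ℝ (c - C) (rx C' a' s - rx C a s) := by
      unfold nrm
      rw [inner_sub_left, inner_sub_right, inner_sub_right]
      ring
    have e4 : nrm c (rx C' a' s) (ry C' k' s) s - nrm c x0 y0 s0 =
        (nrm c (rx C a s) (ry C k s) s - nrm c x0 y0 s0) +
        ((nrm C (rx C' a' s0) (ry C' k' s0) s0 - nrm C (rx C a s0) (ry C k s0) s0) +
          (s - s0) * (‖C' - C‖ ^ 2 / 2) + inner ℝ (c - C) (rx C' a' s - rx C a s)) := by
      rw [e1, e2] at e3
      linarith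
    rw [e4]
    have g1 : |(s - s0) * (‖C' - C‖ ^ 2 / 2)| ≤ R * kap ^ 2 / 2 := by
      rw [abs_mul, abs_of_nonneg (a := ‖C' - C‖ ^ 2 / 2) (by positivity)]
      have := mul_le_mul h1 (div_le_div_of_nonneg_right
        (pow_le_pow_left₀ (norm_nonneg _) hC 2) two_pos.le) (by positivity) hR
      linarith
    have g2 : |inner ℝ (c - C) (rx C' a' s - rx C a s)| ≤ sg * (lam + R * kap) :=
      (abs_real_inner_le_norm _ _).trans
        (mul_le_mul (by rw [norm_sub_rev]; exact hCc) hdx (norm_nonneg _) hsg)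
    have g3 := abs_add_le (nrm c (rx C a s) (ry C k s) s - nrm c x0 y0 s0)
      ((nrm C (rx C' a' s0) (ry C' k' s0) s0 - nrm C (rx C a s0) (ry C k s0) s0) +
          (s - s0) * (‖C' - C‖ ^ 2 / 2) + inner ℝ (c - C) (rx C' a' s - rx C a s))
    have g4 := abs_add_le ((nrm C (rx C' a' s0) (ry C' k' s0) s0 -
      nrm C (rx C a s0) (ry C k s0) s0) + (s - s0) * (‖C' - C‖ ^ 2 / 2))
      (inner ℝ (c - C) (rx C' a' s - rx C a s))
    have g5 := abs_add_le (nrm C (rx C' a' s0) (ry C' k' s0) s0 -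
      nrm C (rx C a s0) (ry C k s0) s0) ((s - s0) * (‖C' - C‖ ^ 2 / 2))
    linarith

/-- **thickening of a member**: if the ray `(C, a, k)` lies in the member and `(C', a', k')` is
within `lam` laterally, `nu` in the null direction, `kap` in direction, `lam + R kap ≤ K sg R`,
`nu ≤ K T R`, then it lies in the `(1+K)`-thickened member. -/
theorem rayIn_thick {K G lam nu kap eta w : ℝ} (hR : 0 < R) (hsg : 0 < sg) (hT : sg ^ 2 ≤ T)
    (hM : 0 ≤ M) (hK : 0 ≤ K) (heta : eta * T ≤ M * sg)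
    (hny : ∀ s, |s - s0| ≤ R → |p.ny s| ≤ eta) {C a C' a' : E} {k k' : ℝ}
    (h : RayIn c sg T R x0 y0 s0 p w C a k)
    (hG : ‖p.gr C (rx C a s0) s0‖ ≤ G) (hx : ‖rx C' a' s0 - rx C a s0‖ ≤ lam)
    (hn : |nrm C (rx C' a' s0) (ry C' k' s0) s0 - nrm C (rx C a s0) (ry C k s0) s0| ≤ nu)
    (hC : ‖C' - C‖ ≤ kap) (h1 : lam + R * kap ≤ K * sg * R) (h2 : nu ≤ K * T * R) :
    RayIn c ((1 + K) * sg) ((1 + K) ^ 2 * T) R x0 y0 s0 p
      (w + ((G + M * K) * (lam + R * kap) + 2 * (eta * nu))) C' a' k' := by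
  have hlam : 0 ≤ lam := (norm_nonneg _).trans hx
  have hkap : 0 ≤ kap := (norm_nonneg _).trans hC
  have hs00 : |s0 - s0| ≤ R := by rw [sub_self, abs_zero]; exact hR.le
  have heta0 : 0 ≤ eta := (abs_nonneg _).trans (hny s0 hs00)
  have hT0 : 0 ≤ T := (sq_nonneg sg).trans hT
  obtain ⟨hCc, hr⟩ := h
  have hkap' : kap ≤ K * sg := by
    have : R * kap ≤ R * (K * sg) := by linarith
    exact le_of_mul_le_mul_left this hR
  refine ⟨?_, fun s hs => ⟨?_, ?_⟩⟩
  · have e : C' - c = (C - c) + (C' - C) := by abel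
    rw [e]
    refine (norm_add_le _ _).trans ?_
    linarith
  · obtain ⟨a1, a2, a3⟩ := inK_near hCc hx hn hC (hr s hs).1
    refine ⟨a1, a2.trans (by linarith), a3.trans ?_⟩
    have b1 : kap ^ 2 ≤ K ^ 2 * T := by
      calc kap ^ 2 ≤ (K * sg) ^ 2 := pow_le_pow_left₀ hkap hkap' 2
        _ = K ^ 2 * sg ^ 2 := by ring
        _ ≤ K ^ 2 * T := mul_le_mul_of_nonneg_left hT (sq_nonneg _)
    have b2 : sg * (lam + R * kap) ≤ K * T * R := by
      calc sg * (lam + R * kap) ≤ sg * (K * sg * R) := mul_le_mul_of_nonneg_left h1 hsg.le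
        _ = K * R * sg ^ 2 := by ring
        _ ≤ K * R * T := mul_le_mul_of_nonneg_left hT (by positivity)
        _ = K * T * R := by ring
    have b3 : R * kap ^ 2 / 2 ≤ R * (K ^ 2 * T) / 2 := by
      have := mul_le_mul_of_nonneg_left b1 hR.le
      linarith
    have b4 : 0 ≤ R * (K ^ 2 * T) := by positivity
    have b5 : (1 + K) ^ 2 * T * R = T * R + K * T * R + K * T * R + R * (K ^ 2 * T) := by ring
    rw [b5]
    linarith
  · have e1 := ev_near_ray hR hny hG hx hn hC hs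
    have e2 := (hr s hs).2
    have e3 : eta / (2 * R) * (lam + R * kap) ^ 2 ≤ M * K * (lam + R * kap) := by
      have f1 : eta * sg ≤ M := ny_sg_le hsg hT heta0 hM heta
      have f0 : 0 ≤ lam + R * kap := by positivity
      have f2 : eta * (lam + R * kap) ≤ M * K * R := by
        calc eta * (lam + R * kap) ≤ eta * (K * sg * R) := mul_le_mul_of_nonneg_left h1 heta0
          _ = (eta * sg) * (K * R) := by ring
          _ ≤ M * (K * R) := mul_le_mul_of_nonneg_right f1 (by positivity)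
          _ = M * K * R := by ring
      have f3 : eta / (2 * R) * (lam + R * kap) ^ 2 =
          (eta * (lam + R * kap)) * (lam + R * kap) / (2 * R) := by
        field_simp
      rw [f3, div_le_iff₀ (by linarith)]
      have f4 := mul_le_mul_of_nonneg_right f2 f0
      have f5 : 0 ≤ M * K * R * (lam + R * kap) := by positivity
      nlinarith
    have e4 : p.ev (rx C' a' s) (ry C' k' s) s = p.ev (rx C a s) (ry C k s) s +
        (p.ev (rx C' a' s) (ry C' k' s) s - p.ev (rx C a s) (ry C k s) s) := by ring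
    rw [e4]
    refine (abs_add_le _ _).trans ?_
    linarith

/-- **two-sided bound of the lateral gradient on the rays of a thin slab**. -/
theorem gr_slab {w : ℝ} (hR : 0 < R) (hsg : 0 < sg) (hT : sg ^ 2 ≤ T) (hM : 0 ≤ M)
    (hdisc : p.disc = 1) (hny : ∀ s, |s - s0| ≤ R → |p.ny s| * T ≤ M * sg)
    (hw : 0 ≤ w) {C a : E} {k : ℝ}
    (h : ∀ s, |s - s0| ≤ R → |p.ev (rx C a s) (ry C k s) s| ≤ w * sg * R) {s : ℝ}
    (hs : |s - s0| ≤ R) : |‖p.gr C (rx C a s) s‖ ^ 2 - 1| ≤ 4 * (M * w) := by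
  have hT0 : 0 ≤ T := (sq_nonneg sg).trans hT
  have hd : 2 * |p.d| * (T * R) ≤ M * sg := d_le_of_ny hR.le hT0 hny
  have hL := rB_le hR h
  refine gr_sq_near (y := ry C k s) hR hsg hT hM hw hdisc (hny s hs) hd ?_ (h s hs)
  rw [Cf.ld_ray]
  have : |p.rB C a k| * R ≤ w * sg * R := hL
  exact le_of_mul_le_mul_right this hR

theorem gr_slab_half {w : ℝ} (hR : 0 < R) (hsg : 0 < sg) (hT : sg ^ 2 ≤ T) (hM : 0 ≤ M)
    (hdisc : p.disc = 1) (hny : ∀ s, |s - s0| ≤ R → |p.ny s| * T ≤ M * sg)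
    (hw : 0 ≤ w) (hMw : 8 * (M * w) ≤ 1) {C a : E} {k : ℝ}
    (h : ∀ s, |s - s0| ≤ R → |p.ev (rx C a s) (ry C k s) s| ≤ w * sg * R) {s : ℝ}
    (hs : |s - s0| ≤ R) :
    1 / 2 ≤ ‖p.gr C (rx C a s) s‖ ∧ ‖p.gr C (rx C a s) s‖ ≤ 3 / 2 := by
  have h1 := abs_le.1 (gr_slab hR hsg hT hM hdisc hny hw h hs)
  constructor
  · nlinarith [norm_nonneg (p.gr C (rx C a s) s), h1.1]
  · nlinarith [norm_nonneg (p.gr C (rx C a s) s), h1.2]

end Crest.Agent.R116.LZg725
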