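import Crest.Agent.R116.Br4_430
import Crest.Agent.R116.LZg6_725
import Crest.Agent.R116.LKMDef_299

/-!
# R116 (S0155), bridge K side -> wave side, part 5: the members seen by the planks (helper430)

If some ray of the phase box of a plank lies in a member `m` (resolution `ρ`), the central ray of
the plank lies in one of boundedly many members of lateral thickness `≥ w`, compatible with `ρ`, and
the number of rays of the phase box in `m` is at most the ratio of the costs.
-/

set_option autoImplicit false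

namespace Crest.Agent.R116.Br430

open Crest.Agent.R116.LZg725
open Crest.Agent.R116.CDef480 (lat pt)
open Crest.Agent.R116.LKMDef299 (Cpt)
open Crest.Agent.R138.Tub70 (Lat nr norm_sub_nr)

/-! ### the net -/

theorem abs_sub_round' {h : ℝ} (hh : 0 < h) (t : ℝ) : |t - h * (round (t / h) : ℤ)| ≤ h := by
  have h1 := abs_sub_round (t / h)
  have e : t - h * (round (t / h) : ℤ) = h * (t / h - (round (t / h) : ℤ)) := by
    field_simp
  rw [e, abs_mul, abs_of_pos hh]
  nlinarith

/-- labels of the net. -/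
noncomputable def netJ : Finset RI := SQ 1 0 200 ×ˢ SQ 1 0 200 ×ˢ IS 1 0 3000

theorem mem_SQ_one {h t : ℝ} (hh : 0 < h) {k : ℤ × ℤ} (H : ‖Lat h k‖ ≤ h * t) :
    k ∈ SQ 1 0 t := by
  rw [mem_SQ one_pos]
  intro i
  have h1 := (abs_le_of_norm (Lat h k) i).trans H
  rw [sub_zero]
  fin_cases i
  · simp only [Fin.zero_eta, Fin.isValue, Crest.Agent.R138.Tub70.Lat_zero_coord, abs_mul,
      abs_of_pos hh, one_mul] at h1 ⊢
    exact le_of_mul_le_mul_left h1 hh
  · simp only [Fin.mk_one, Fin.isValue, Crest.Agent.R138.Tub70.Lat_one_coord, abs_mul,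
      abs_of_pos hh, one_mul] at h1 ⊢
    exact le_of_mul_le_mul_left h1 hh

/-- direction of the net box `j`. -/
noncomputable def nc (S : ℝ) (c : E2) (j : RI) : E2 := c + Lat (S / 10) j.1

/-- position of the net box `j`. -/
noncomputable def nx (S : ℝ) (x0 : E2) (j : RI) : E2 := x0 + Lat (S / 10) j.2.1

/-- null position of the net box `j`. -/
noncomputable def nyy (S T : ℝ) (c : E2) (y0 : ℝ) (j : RI) : ℝ :=
  y0 - inner ℝ (nc S c j) (Lat (S / 10) j.2.1) + T / 10 * j.2.2

/-- **net lemma**: a ray close to the box lies well inside one of the net boxes. -/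
theorem net {c x0 : E2} {y0 S T : ℝ} (hS : 0 < S) (hT : S ^ 2 ≤ T) {C a : E2} {k : ℝ}
    (h1 : ‖C - c‖ ≤ 2 * S) (h2 : ‖a - x0‖ ≤ 7 * S)
    (h3 : |(k + inner ℝ c a) - (y0 + inner ℝ c x0)| ≤ 12 * T) :
    ∃ j ∈ netJ, ‖C - nc S c j‖ ≤ S / 10 ∧ ∀ s : ℝ, |s - 0| ≤ 1 →
      ‖(rx C a s - nx S x0 j) + (s - 0) • nc S c j‖ ≤ S / 5 ∧
      InK (nc S c j) S T 1 (nx S x0 j) (nyy S T c y0 j) 0 (rx C a s) (ry C k s) s := by
  have hS10 : 0 < S / 10 := by positivity
  have hT0 : 0 < T := lt_of_lt_of_le (pow_pos hS 2) hT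
  have hT10 : 0 < T / 10 := by positivity
  have n1 := norm_sub_nr hS10 (C - c)
  have n2 := norm_sub_nr hS10 (a - x0)
  set j1 := nr (S / 10) (C - c) with hj1
  set j2 := nr (S / 10) (a - x0) with hj2
  set D := c + Lat (S / 10) j1 with hD
  set t3 : ℝ := (k + inner ℝ D a) - (y0 + inner ℝ D x0) with ht3
  have n3 := abs_sub_round' hT10 t3
  set j3 : ℤ := round (t3 / (T / 10)) with hj3
  have l1 : ‖Lat (S / 10) j1‖ ≤ S / 10 * 21 := by
    have e : Lat (S / 10) j1 = (C - c) - (C - c - Lat (S / 10) j1) := by abel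
    rw [e]
    refine (norm_sub_le _ _).trans ?_
    linarith
  have l2 : ‖Lat (S / 10) j2‖ ≤ S / 10 * 71 := by
    have e : Lat (S / 10) j2 = (a - x0) - (a - x0 - Lat (S / 10) j2) := by abel
    rw [e]
    refine (norm_sub_le _ _).trans ?_
    linarith
  have l3 : |t3| ≤ 27 * T := by
    have e : t3 = ((k + inner ℝ c a) - (y0 + inner ℝ c x0)) +
        inner ℝ (Lat (S / 10) j1) (a - x0) := by
      rw [ht3, hD, inner_add_left, inner_add_left, inner_sub_right]; ring
    rw [e]
    have h4 : |inner ℝ (Lat (S / 10) j1) (a - x0)| ≤ (S / 10 * 21) * (7 * S) :=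
      (abs_real_inner_le_norm _ _).trans (mul_le_mul l1 h2 (norm_nonneg _) (by positivity))
    have h5 := abs_add_le ((k + inner ℝ c a) - (y0 + inner ℝ c x0))
      (inner ℝ (Lat (S / 10) j1) (a - x0))
    nlinarith
  refine ⟨(j1, j2, j3), ?_, ?_, fun s hs => ?_⟩
  · unfold netJ
    rw [Finset.mem_product, Finset.mem_product]
    refine ⟨mem_SQ_one hS10 (l1.trans (by linarith)), mem_SQ_one hS10 (l2.trans (by linarith)), ?_⟩
    rw [mem_IS one_pos]
    simp only [one_mul, sub_zero]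
    have h5 : T / 10 * |(j3 : ℝ)| ≤ T / 10 * 3000 := by
      have e : |T / 10 * (j3 : ℝ)| = T / 10 * |(j3 : ℝ)| := by
        rw [abs_mul, abs_of_pos hT10]
      rw [← e]
      have e2 : T / 10 * (j3 : ℝ) = t3 - (t3 - T / 10 * (j3 : ℝ)) := by ring
      rw [e2]
      refine (abs_sub _ _).trans ?_
      linarith
    exact le_of_mul_le_mul_left h5 hT10
  · unfold nc
    simp only
    refine le_trans (le_of_eq ?_) n1
    congr 1; abel
  · have hs' : |s| ≤ 1 := by simpa using hs
    have w1 : ‖(rx C a s - nx S x0 (j1, j2, j3)) + (s - 0) • nc S c (j1, j2, j3)‖ ≤ S / 5 := by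
      have e : (rx C a s - nx S x0 (j1, j2, j3)) + (s - 0) • nc S c (j1, j2, j3) =
          (a - x0 - Lat (S / 10) j2) - s • (C - c - Lat (S / 10) j1) := by
        unfold rx nx nc; module
      rw [e]
      refine (norm_sub_le _ _).trans ?_
      rw [norm_smul, Real.norm_eq_abs]
      have : |s| * ‖C - c - Lat (S / 10) j1‖ ≤ 1 * (S / 10) := by gcongr
      linarith
    refine ⟨w1, hs, w1.trans (by linarith), ?_⟩
    have e : nrm (nc S c (j1, j2, j3)) (rx C a s) (ry C k s) s -
        nrm (nc S c (j1, j2, j3)) (nx S x0 (j1, j2, j3)) (nyy S T c y0 (j1, j2, j3)) 0 =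
        (t3 - T / 10 * (j3 : ℝ)) + s * ‖C - c - Lat (S / 10) j1‖ ^ 2 / 2 := by
      rw [nrm_ray']
      unfold nrm nx nyy nc
      simp only
      rw [← hD, ht3]
      have e2 : C - D = C - c - Lat (S / 10) j1 := by rw [hD]; abel
      rw [e2, inner_add_right]
      ring
    rw [e]
    refine (abs_add_le _ _).trans ?_
    have h6 : |s * ‖C - c - Lat (S / 10) j1‖ ^ 2 / 2| ≤ 1 * (S / 10) ^ 2 / 2 := by
      rw [abs_div, abs_mul, abs_of_nonneg (sq_nonneg ‖C - c - Lat (S / 10) j1‖),
        abs_of_pos (two_pos : (0:ℝ) < 2)]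
      gcongr
    have h7 : |t3 - T / 10 * (j3 : ℝ)| ≤ T / 10 := n3
    nlinarith

/-! ### flat conformal functions -/

/-- the affine function `⟨e, x - x0 + s c⟩`. -/
noncomputable def flatC (e c x0 : E2) : Cf E2 := ⟨-inner ℝ e x0, inner ℝ e c, e, 0, 0⟩

theorem flatC_ev (e c x0 x : E2) (y s : ℝ) :
    (flatC e c x0).ev x y s = inner ℝ e ((x - x0) + (s - 0) • c) := by
  unfold flatC Cf.ev
  simp only
  rw [inner_add_right, inner_sub_right, real_inner_smul_right]
  ring

theorem flatC_ny (e c x0 : E2) (s : ℝ) : (flatC e c x0).ny s = 0 := by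
  unfold flatC Cf.ny
  simp

theorem flatC_ld (e c x0 x : E2) (y s : ℝ) : (flatC e c x0).ld c x y s = 0 := by
  unfold flatC Cf.ld Cf.ny
  simp

theorem flatC_disc {e : E2} (he : ‖e‖ = 1) (c x0 : E2) : (flatC e c x0).disc = 1 := by
  unfold flatC Cf.disc
  simp [he]

end Crest.Agent.R116.Br430
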