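import Crest.Agent.R116.Br5_430

/-!
# R116 (S0155), bridge K side -> wave side, part 6: the cover (helper430)

`cover`: a member `m` of length one at the resolution `ρ` (`SSr`), planks `w × w × ρ`.  There are
members `mj j`, `j ∈ netJ`, of lateral thickness `≥ w`, compatible with `ρ`, all of the same cost
`v`, such that the central ray of every plank whose phase box meets `m` lies in one of them, and
`# (rays of the phase box in m) · v ≤ K (w/h)⁴ (ρ/h3) · cost m`.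
-/

set_option autoImplicit false

namespace Crest.Agent.R116.Br430

open Crest.Agent.R116.LZg725
open Crest.Agent.R116.CDef480 (lat pt)
open Crest.Agent.R116.LKMDef299 (Cpt)
open Crest.Agent.R138.Tub70 (Lat nr norm_sub_nr)

/-! ### members of length one -/

/-- member of length `1` around time `0`. -/
noncomputable def mk1 (c : E2) (S s1 : ℝ) (x0 : E2) (y0 : ℝ) (p : Cf E2) : Mem :=
  ⟨c, S, s1, 1, pt x0 y0, 0, p⟩

theorem mk1_T (c : E2) (S s1 : ℝ) (x0 : E2) (y0 : ℝ) (p : Cf E2) (ρ : ℝ) :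
    (mk1 c S s1 x0 y0 p).T ρ = max (S ^ 2) ρ := by
  unfold Mem.T mk1
  simp only [div_one]

theorem mk1_scost (c : E2) (S s1 : ℝ) (x0 : E2) (y0 : ℝ) (p : Cf E2) (ρ : ℝ) :
    (mk1 c S s1 x0 y0 p).scost ρ = s1 * S * max (S ^ 2) ρ := by
  unfold Mem.scost
  rw [mk1_T]
  unfold mk1
  simp only [one_pow, mul_one]

theorem mk1_rays {c : E2} {S s1 : ℝ} {x0 : E2} {y0 : ℝ} {p : Cf E2} {ρ : ℝ} {r : E2 × E2 × ℝ} :
    r ∈ (mk1 c S s1 x0 y0 p).rays ρ ↔
      RayIn c S (max (S ^ 2) ρ) 1 x0 y0 0 p s1 r.1 r.2.1 r.2.2 := by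
  rw [Mem.mem_rays, mk1_T]
  unfold mk1
  simp only [mul_one, CDef480.lat_pt, CDef480.pt_two]

theorem mk1_ok {M : ℝ} {c : E2} {S s1 : ℝ} {x0 : E2} {y0 : ℝ} {p : Cf E2} {ρ : ℝ} (h1 : 0 < s1)
    (h2 : s1 ≤ S) (h3 : Adm M c S (max (S ^ 2) ρ) 1 x0 y0 0 p) :
    (mk1 c S s1 x0 y0 p).Ok M ρ := by
  refine ⟨one_pos, h1, h2, ?_⟩
  rw [mk1_T]
  unfold mk1
  simp only [CDef480.lat_pt, CDef480.pt_two]
  exact h3

/-! ### flat members -/

theorem flat_adm {M : ℝ} (hM : 0 ≤ M) {e : E2} (he : ‖e‖ = 1) {c : E2} {S T : ℝ} (hS : 0 < S)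
    {x0 : E2} {y0 : ℝ} : Adm M c S T 1 x0 y0 0 (flatC e c x0) := by
  refine ⟨flatC_disc he c x0, fun s _ => ?_, ?_, ?_⟩
  · rw [flatC_ny, abs_zero, zero_mul]; positivity
  · rw [flatC_ld, abs_zero]; positivity
  · rw [flatC_ev, sub_self, sub_self, zero_smul, add_zero, inner_zero_right, abs_zero]; positivity

theorem flat_ok {M : ℝ} (hM : 0 ≤ M) {e : E2} (he : ‖e‖ = 1) (c : E2) {S : ℝ} (hS : 0 < S)
    (x0 : E2) (y0 ρ : ℝ) : (mk1 c S S x0 y0 (flatC e c x0)).Ok M ρ :=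
  mk1_ok hS le_rfl (flat_adm hM he hS)

theorem flat_cpt {M : ℝ} (hM : 0 ≤ M) (e c : E2) {S : ℝ} (hS : 0 < S)
    (x0 : E2) (y0 ρ : ℝ) : Cpt M ρ (mk1 c S S x0 y0 (flatC e c x0)) := by
  intro s _
  change |(flatC e c x0).ny s| * ρ ≤ M * (S * 1)
  rw [flatC_ny, abs_zero, zero_mul]
  positivity

/-! ### the central ray -/

section central

variable {c x0 : E2} {sg T y0 s1 M h h3 w ρ : ℝ} {p : Cf E2} {C a : E2} {k0 : ℝ} {k : RI}

/-- the central ray is close to the box. -/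
theorem central_near {S Tp : ℝ} (hh : 0 < h) (hh3 : 0 < h3) (hw : 0 ≤ w) (hwS : w ≤ S)
    (hsS : sg ≤ S) (hTT : T ≤ Tp) (hST : S ^ 2 ≤ Tp) (hρT : ρ ≤ Tp) (hk : k ∈ bx h h3 w ρ)
    (hR : InM c sg T x0 y0 p s1 h h3 C a k0 k) :
    ‖C - c‖ ≤ 2 * S ∧ ‖a - x0‖ ≤ 7 * S ∧
      |(k0 + inner ℝ c a) - (y0 + inner ℝ c x0)| ≤ 12 * Tp := by
  obtain ⟨l1, l2, l3⟩ := norm_of_mem_bx hh hh3 hw hk
  obtain ⟨f1, f2, -, -⟩ := ray_facts hR
  have f5 := (hR.2 0 (by simp)).1.2.2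
  rw [nrm_ray'] at f5
  have hsg : 0 ≤ sg := (norm_nonneg _).trans f1
  have hS : 0 ≤ S := hw.trans hwS
  refine ⟨?_, ?_, ?_⟩
  · have e : C - c = (bC h C k - c) - Lat h k.1 := by unfold bC; abel
    rw [e]
    refine (norm_sub_le _ _).trans ?_
    linarith
  · have e : a - x0 = (ba h a k - x0) - Lat h k.2.1 := by unfold ba; abel
    rw [e]
    refine (norm_sub_le _ _).trans ?_
    linarith
  · have e : (k0 + inner ℝ c a) - (y0 + inner ℝ c x0) =
        (bc h h3 C k0 k + inner ℝ c (ba h a k) + 0 * ‖bC h C k - c‖ ^ 2 / 2 -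
          nrm c x0 y0 0) + inner ℝ (bC h C k - c) (Lat h k.2.1) - h3 * k.2.2 := by
      unfold nrm bc ba
      rw [inner_add_right, inner_sub_left]
      ring
    rw [e]
    have g1 : |inner ℝ (bC h C k - c) (Lat h k.2.1)| ≤ sg * (6 * w) :=
      (abs_real_inner_le_norm _ _).trans (mul_le_mul f1 l2 (norm_nonneg _) hsg)
    have g2 : sg * w ≤ S * S := mul_le_mul hsS hwS hw hS
    refine (abs_sub _ _).trans ?_
    have g3 := abs_add_le (bc h h3 C k0 k + inner ℝ c (ba h a k) + 0 * ‖bC h C k - c‖ ^ 2 / 2 -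
          nrm c x0 y0 0) (inner ℝ (bC h C k - c) (Lat h k.2.1))
    rw [mul_one] at f5
    have g4 := abs_nonneg (h3 * (k.2.2 : ℝ))
    nlinarith

/-- the slab along the central ray. -/
theorem central_slab (hh : 0 < h) (hh3 : 0 < h3) (hM : 1 ≤ M) (hw : 0 ≤ w) (hwρ : w ^ 2 ≤ ρ)
    (hsg : 0 < sg) (hs1 : 0 ≤ s1) (hle : s1 ≤ sg) (hT : sg ^ 2 ≤ T)
    (adm : Adm M c sg T 1 x0 y0 0 p) (hk : k ∈ bx h h3 w ρ)
    (hR : InM c sg T x0 y0 p s1 h h3 C a k0 k) {s : ℝ} (hs : |s - 0| ≤ 1) :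
    |p.ev (rx C a s) (ry C k0 s) s| ≤ 35 * M * (s1 + w + Gam p * ρ) := by
  obtain ⟨l1, l2, l3⟩ := norm_of_mem_bx hh hh3 hw hk
  have hG := ray_gr_le hM hsg hs1 hT hle adm hR
  have r0 : ∀ D b : E2, rx D b 0 = b := fun D b => by unfold rx; simp
  have q0 : ∀ (D : E2) (t : ℝ), ry D t 0 = t := fun D t => by unfold ry; simp
  have hρ0 : 0 ≤ ρ := (sq_nonneg w).trans hwρ
  have hΓ := Gam_nonneg p
  have e1 := ev_near_ray (p := p) (s0 := 0) (R := 1) (eta := Gam p) (G := 3 * M) (lam := 6 * w)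
    (nu := 5 * ρ) (kap := w) one_pos (fun s hs => ny_le_Gam p (by simpa using hs))
    (C := bC h C k) (a := ba h a k) (k := bc h h3 C k0 k) (C' := C) (a' := a) (k' := k0)
    (by rw [r0]; exact hG)
    (by
      rw [r0, r0]
      have e : a - ba h a k = -Lat h k.2.1 := by unfold ba; abel
      rw [e, norm_neg]; exact l2)
    (by
      rw [r0, r0, q0, q0]
      have e : nrm (bC h C k) a k0 0 - nrm (bC h C k) (ba h a k) (bc h h3 C k0 k) 0 =
          -(h3 * k.2.2) := by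
        unfold nrm bc ba
        rw [inner_add_right]
        ring
      rw [e, abs_neg]; exact l3)
    (by
      have e : C - bC h C k = -Lat h k.1 := by unfold bC; abel
      rw [e, norm_neg]; exact l1) hs
  have e2 := (hR.2 s hs).2
  have e3 : p.ev (rx C a s) (ry C k0 s) s =
      p.ev (rx (bC h C k) (ba h a k) s) (ry (bC h C k) (bc h h3 C k0 k) s) s +
      (p.ev (rx C a s) (ry C k0 s) s -
        p.ev (rx (bC h C k) (ba h a k) s) (ry (bC h C k) (bc h h3 C k0 k) s) s) := by ring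
  rw [e3]
  refine (abs_add_le _ _).trans ((add_le_add e2 e1).trans ?_)
  have g1 : Gam p * w ^ 2 ≤ Gam p * ρ := by gcongr
  have g2 : 0 ≤ Gam p * ρ := by positivity
  have g3 : Gam p * ρ ≤ M * (Gam p * ρ) := by nlinarith
  have g4 : s1 ≤ M * s1 := by nlinarith
  have g5 : 0 ≤ M * w := by positivity
  have g6 : 0 ≤ M * s1 := by positivity
  nlinarith

end central

/-! ### the mesh -/

/-- mesh of directions and positions. -/
noncomputable def mh (V ρ : ℝ) : ℝ := ρ / (2 + V)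

/-- mesh of normals. -/
noncomputable def mh3 (M V w ρ : ℝ) : ℝ := mh V ρ * w ^ 2 / (2 * M)

theorem mesh {M V w ρ : ℝ} (hM : 1 ≤ M) (hV : 0 ≤ V) (hw : 0 < w) (hw1 : w ≤ 1)
    (hwρ : w ^ 2 ≤ ρ) (hρw : ρ ≤ w) :
    0 < mh V ρ ∧ 0 < mh3 M V w ρ ∧ mh3 M V w ρ ≤ mh V ρ ∧ 2 * mh V ρ ≤ w ∧
      mh V ρ * (2 + V) = ρ ∧ mh V ρ ≤ ρ ∧ mh3 M V w ρ ≤ ρ := by
  have hρ : 0 < ρ := lt_of_lt_of_le (pow_pos hw 2) hwρ
  have h0 : 0 < mh V ρ := by unfold mh; positivity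
  have e : mh V ρ * (2 + V) = ρ := by unfold mh; field_simp
  have h1 : mh V ρ ≤ ρ := by nlinarith
  have h2 : 2 * mh V ρ ≤ w := by nlinarith
  have h3 : mh3 M V w ρ ≤ mh V ρ := by
    unfold mh3
    rw [div_le_iff₀ (by linarith)]
    have : w ^ 2 ≤ 1 := by nlinarith
    gcongr
    linarith
  have h4 : 0 < mh3 M V w ρ := by unfold mh3; positivity
  exact ⟨h0, h4, h3, h2, e, h1, h3.trans h1⟩

/-! ### the cover -/

/-- constant of the cover. -/
noncomputable def KB (M : ℝ) : ℝ := 14000000 * M ^ 2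

theorem KB_nonneg (M : ℝ) : 0 ≤ KB M := by unfold KB; positivity

/-- unit vector. -/
noncomputable def e0 : E2 := EuclideanSpace.single 0 1

theorem norm_e0 : ‖e0‖ = 1 := by unfold e0; simp

section cov

variable {c x0 : E2} {sg T y0 s1 M h h3 w ρ : ℝ} {p : Cf E2} {C a : E2} {k0 : ℝ} {k : RI}

/-- the flat member of label `j`. -/
noncomputable def mflat (S ρ : ℝ) (c x0 : E2) (y0 : ℝ) (j : RI) : Mem :=
  mk1 (nc S c j) S S (nx S x0 j) (nyy S (max (S ^ 2) ρ) c y0 j) (flatC e0 (nc S c j) (nx S x0 j))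

/-- the slab member of label `j`. -/
noncomputable def mslab (S t ρ : ℝ) (c x0 : E2) (y0 : ℝ) (p : Cf E2) (j : RI) : Mem :=
  mk1 (nc S c j) S t (nx S x0 j) (nyy S (max (S ^ 2) ρ) c y0 j) p

theorem flat_cover {S : ℝ} (hh : 0 < h) (hh3 : 0 < h3) (hw : 0 < w) (hwS : w ≤ S) (hsS : sg ≤ S)
    (hTT : T ≤ max (S ^ 2) ρ) (hk : k ∈ bx h h3 w ρ)
    (hR : InM c sg T x0 y0 p s1 h h3 C a k0 k) :
    ∃ j ∈ netJ, (C, a, k0) ∈ (mflat S ρ c x0 y0 j).rays ρ := by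
  have hS : 0 < S := hw.trans_le hwS
  obtain ⟨n1, n2, n3⟩ := central_near (Tp := max (S ^ 2) ρ) hh hh3 hw.le hwS hsS hTT
    (le_max_left _ _) (le_max_right _ _) hk hR
  obtain ⟨j, hj, m1, m2⟩ := net (S := S) (T := max (S ^ 2) ρ) hS (le_max_left _ _) n1 n2 n3
  refine ⟨j, hj, ?_⟩
  unfold mflat
  rw [mk1_rays]
  refine ⟨m1.trans (by linarith), fun s hs => ?_⟩
  have hs' : |s - 0| ≤ 1 := hs
  refine ⟨(m2 s hs').2, ?_⟩
  rw [flatC_ev]
  refine (abs_real_inner_le_norm _ _).trans ?_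
  rw [norm_e0, one_mul]
  exact ((m2 s hs').1).trans (by linarith)

theorem slab_cover (hh : 0 < h) (hh3 : 0 < h3) (hM : 1 ≤ M) (hw : 0 < w) (hwρ : w ^ 2 ≤ ρ)
    (hwsg : w ≤ sg) (hs1 : 0 < s1) (hle : s1 ≤ sg)
    (adm : Adm M c sg (max (sg ^ 2) ρ) 1 x0 y0 0 p)
    (ht : 35 * M * (s1 + w + Gam p * ρ) ≤ sg) (hk : k ∈ bx h h3 w ρ)
    (hR : InM c sg (max (sg ^ 2) ρ) x0 y0 p s1 h h3 C a k0 k) :
    ∃ j ∈ netJ, (mslab sg (35 * M * (s1 + w + Gam p * ρ)) ρ c x0 y0 p j).Ok (5 + 5 * M) ρ ∧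
      Cpt (5 + 5 * M) ρ (mslab sg (35 * M * (s1 + w + Gam p * ρ)) ρ c x0 y0 p j) ∧
      (C, a, k0) ∈ (mslab sg (35 * M * (s1 + w + Gam p * ρ)) ρ c x0 y0 p j).rays ρ := by
  have hsg : 0 < sg := hw.trans_le hwsg
  have hΓ := Gam_nonneg p
  have hρ0 : 0 ≤ ρ := (sq_nonneg w).trans hwρ
  set t : ℝ := 35 * M * (s1 + w + Gam p * ρ) with htd
  have ht0 : 0 < t := by
    have : 0 ≤ Gam p * ρ := by positivity
    rw [htd]
    positivity
  obtain ⟨n1, n2, n3⟩ := central_near (Tp := max (sg ^ 2) ρ) hh hh3 hw.le hwsg le_rfl le_rfl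
    (le_max_left _ _) (le_max_right _ _) hk hR
  obtain ⟨j, hj, m1, m2⟩ := net (S := sg) (T := max (sg ^ 2) ρ) hsg (le_max_left _ _) n1 n2 n3
  have hray : RayIn (nc sg c j) sg (max (sg ^ 2) ρ) 1 (nx sg x0 j)
      (nyy sg (max (sg ^ 2) ρ) c y0 j) 0 p t C a k0 := by
    refine ⟨m1.trans (by linarith), fun s hs => ?_⟩
    exact ⟨(m2 s hs).2, central_slab hh hh3 hM hw.le hwρ hsg hs1.le hle (le_max_left _ _) adm hk
      hR hs⟩
  have hray1 : RayIn (nc sg c j) sg (max (sg ^ 2) ρ) 1 (nx sg x0 j)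
      (nyy sg (max (sg ^ 2) ρ) c y0 j) 0 p (1 * sg * 1) C a k0 := by
    refine ⟨hray.1, fun s hs => ⟨(hray.2 s hs).1, (hray.2 s hs).2.trans ?_⟩⟩
    linarith
  have hadm := adm_of_ray (M := M) (m := 1) one_pos hsg (le_max_left _ _) (by linarith) zero_le_one
    adm.disc adm.ny hray1
  refine ⟨j, hj, ?_, ?_, ?_⟩
  · have h1 : (mslab sg t ρ c x0 y0 p j).Ok (1 + 1 + 3 * M + 2 * (M * 1)) ρ := mk1_ok ht0 ht hadm
    exact LKMDef299.Ok.mono h1 (by linarith)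
  · intro s hs
    change |p.ny s| * ρ ≤ (5 + 5 * M) * (t * 1)
    have hs' : |s| ≤ 1 := by
      have : |s - 0| ≤ 1 := hs
      simpa using this
    have h1 := mul_le_mul_of_nonneg_right (ny_le_Gam p hs') hρ0
    have h2 : Gam p * ρ ≤ t := by
      rw [htd]
      have : 0 ≤ Gam p * ρ := by positivity
      nlinarith
    nlinarith
  · unfold mslab
    rw [mk1_rays]
    exact hray

end cov

set_option maxHeartbeats 1000000 in
/-- **the cover**. -/
theorem cover {M w ρ V : ℝ} (hM : 1 ≤ M) (hV : 0 ≤ V) (hw : 0 < w) (hw1 : w ≤ 1)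
    (hwρ : w ^ 2 ≤ ρ) (hρw : ρ ≤ w) {c x0 : E2} {sg s1 y0 : ℝ} {p : Cf E2} (hs1 : ρ ≤ s1)
    (hle : s1 ≤ sg) (hsg1 : sg ≤ 1) (adm : Adm M c sg (max (sg ^ 2) ρ) 1 x0 y0 0 p) :
    ∃ (mj : RI → Mem) (v : ℝ), 0 < v ∧
      (∀ j, (mj j).R = 1 ∧ (mj j).s0 = 0 ∧ w ≤ (mj j).s1 ∧ (mj j).sg ≤ 1 ∧
        (mj j).scost ρ = v) ∧
      ∀ (C a : E2) (k0 : ℝ), (∃ k ∈ bx (mh V ρ) (mh3 M V w ρ) w ρ,
        InM c sg (max (sg ^ 2) ρ) x0 y0 p s1 (mh V ρ) (mh3 M V w ρ) C a k0 k) →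
        (∃ j ∈ netJ, (mj j).Ok (5 + 5 * M) ρ ∧ Cpt (5 + 5 * M) ρ (mj j) ∧
          (C, a, k0) ∈ (mj j).rays ρ) ∧
          ((filt (InM c sg (max (sg ^ 2) ρ) x0 y0 p s1 (mh V ρ) (mh3 M V w ρ) C a k0)
            (bx (mh V ρ) (mh3 M V w ρ) w ρ)).card : ℝ) * v ≤
            KB M * ((w / mh V ρ) ^ 4 * (ρ / mh3 M V w ρ)) * (s1 * sg * max (sg ^ 2) ρ) := by
  obtain ⟨hh, hh3, hh3h, h2w, he, hhρ, hh3ρ⟩ := mesh hM hV hw hw1 hwρ hρw
  have hmh3 : mh3 M V w ρ = mh V ρ * w ^ 2 / (2 * M) := rfl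
  set h := mh V ρ with hhd
  set h3 := mh3 M V w ρ with hh3d
  have hρ : 0 < ρ := lt_of_lt_of_le (pow_pos hw 2) hwρ
  have hs10 : 0 < s1 := hρ.trans_le hs1
  have hsg : 0 < sg := hs10.trans_le hle
  have hM0 : 0 < M := by linarith
  have hMM : M ≤ M ^ 2 := by nlinarith
  have hD : 0 ≤ (w / h) ^ 4 * (ρ / h3) := by positivity
  rcases lt_or_ge sg w with hsw | hsw
  · -- small aperture
    have hsq : sg ^ 2 ≤ w ^ 2 := pow_le_pow_left₀ hsg.le hsw.le 2
    have e1 : max (sg ^ 2) ρ = ρ := max_eq_right (hsq.trans hwρ)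
    have e2 : max (w ^ 2) ρ = ρ := max_eq_right hwρ
    refine ⟨mflat w ρ c x0 y0, w * w * ρ, by positivity, fun j => ⟨rfl, rfl, le_rfl, hw1, ?_⟩,
      fun C a k0 hex => ⟨?_, ?_⟩⟩
    · unfold mflat; rw [mk1_scost, e2]
    · obtain ⟨k, hk, hR⟩ := hex
      obtain ⟨j, hj, hmem⟩ := flat_cover (S := w) hh hh3 hw le_rfl hsw.le
        (by rw [e1]; exact le_max_right _ _) hk hR
      exact ⟨j, hj, flat_ok (by linarith) norm_e0 _ hw _ _ _, flat_cpt (by linarith) _ _ hw _ _ _,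
        hmem⟩
    · rw [e1] at adm ⊢
      have h1 := share_small (w := w) (C := C) (a := a) (k0 := k0) hh hh3 hh3ρ hM
        (hhρ.trans (hs1.trans hle)) (hhρ.trans hs1) (hsq.trans hwρ) adm
      refine (mul_le_mul_of_nonneg_right h1 (by positivity)).trans ?_
      have e3 : 10692 * M * ((sg / h) ^ 3 * (s1 / h) * (ρ / h3)) * (w * w * ρ) =
          10692 * M * ((ρ / h3) * (s1 * sg * ρ) * w ^ 2 / h ^ 4) * sg ^ 2 := by
        field_simp
      have e4 : KB M * ((w / h) ^ 4 * (ρ / h3)) * (s1 * sg * ρ) =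
          14000000 * M ^ 2 * ((ρ / h3) * (s1 * sg * ρ) * w ^ 2 / h ^ 4) * w ^ 2 := by
        unfold KB
        field_simp
      rw [e3, e4]
      have hX : 0 ≤ (ρ / h3) * (s1 * sg * ρ) * w ^ 2 / h ^ 4 := by positivity
      gcongr
      nlinarith
  · -- large aperture
    have hT0 : 0 ≤ max (sg ^ 2) ρ := (sq_nonneg _).trans (le_max_left _ _)
    have fin : ∀ {n t : ℝ}, n * t ≤ 14000000 * M ^ 2 * ((w / h) ^ 4 * (ρ / h3) * s1) →
        n * (t * sg * max (sg ^ 2) ρ) ≤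
          KB M * ((w / h) ^ 4 * (ρ / h3)) * (s1 * sg * max (sg ^ 2) ρ) := by
      intro n t hn
      have h1 := mul_le_mul_of_nonneg_right hn (mul_nonneg hsg.le hT0)
      unfold KB
      linarith
    have hGw : Gam p * h3 ≤ w := by
      have g1 := Gam_sg_le hsg (le_max_left _ _) adm
      have g2 : Gam p * w ≤ 2 * M := by
        have := mul_le_mul_of_nonneg_left hsw (Gam_nonneg p)
        linarith
      rw [hmh3, ← mul_div_assoc, div_le_iff₀ (by linarith)]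
      have g3 : h ≤ 1 := by linarith
      calc Gam p * (h * w ^ 2) = (Gam p * w) * (h * w) := by ring
        _ ≤ (2 * M) * (1 * w) := by
          have := Gam_nonneg p
          gcongr
        _ = w * (2 * M) := by ring
    by_cases hcase : 6 * M * s1 ≤ sg ∧ 35 * M * (s1 + w + Gam p * ρ) ≤ sg
    · -- the slab members
      obtain ⟨hthin, hstar⟩ := hcase
      have hΓρ : 0 ≤ Gam p * ρ := mul_nonneg (Gam_nonneg p) hρ.le
      refine ⟨mslab sg (35 * M * (s1 + w + Gam p * ρ)) ρ c x0 y0 p,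
        (35 * M * (s1 + w + Gam p * ρ)) * sg * max (sg ^ 2) ρ, by positivity,
        fun j => ⟨rfl, rfl, ?_, hsg1, ?_⟩, fun C a k0 hex => ⟨?_, ?_⟩⟩
      · change w ≤ 35 * M * (s1 + w + Gam p * ρ)
        have : w ≤ M * w := by nlinarith
        nlinarith [mul_nonneg hM0.le hs10.le, mul_nonneg hM0.le hΓρ, mul_nonneg hM0.le hw.le]
      · unfold mslab; rw [mk1_scost]
      · obtain ⟨k, hk, hR⟩ := hex
        exact slab_cover hh hh3 hM hw hwρ hsw hs10 hle adm hstar hk hR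
      · refine fin ?_
        have h1 := share_large (w := w) (C := C) (a := a) (k0 := k0) hh hh3 h2w hh3ρ hM hsw
          (hhρ.trans hs1) (le_max_left _ _) adm hthin hGw
        have h2 := mul_le_mul_of_nonneg_left h1 (by positivity : 0 ≤ 35 * M)
        linarith
    · -- the flat members
      refine ⟨mflat sg ρ c x0 y0, sg * sg * max (sg ^ 2) ρ, by positivity,
        fun j => ⟨rfl, rfl, hsw, hsg1, ?_⟩, fun C a k0 hex => ⟨?_, ?_⟩⟩
      · unfold mflat; rw [mk1_scost]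
      · obtain ⟨k, hk, hR⟩ := hex
        obtain ⟨j, hj, hmem⟩ := flat_cover (S := sg) hh hh3 hw hsw le_rfl le_rfl hk hR
        exact ⟨j, hj, flat_ok (by linarith) norm_e0 _ hsg _ _ _,
          flat_cpt (by linarith) _ _ hsg _ _ _, hmem⟩
      · refine fin ?_
        have hXs : 0 ≤ (w / h) ^ 4 * (ρ / h3) * s1 := by positivity
        rcases lt_or_ge sg (6 * M * s1) with hth | hth
        · have h1 := (card_filt_le (InM c sg (max (sg ^ 2) ρ) x0 y0 p s1 h h3 C a k0)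
            (bx h h3 w ρ)).trans (card_bx_le hh hh3 h2w hh3ρ)
          calc _ ≤ 2005 * ((w / h) ^ 4 * (ρ / h3)) * (6 * M * s1) := by
                gcongr
            _ = 12030 * M * ((w / h) ^ 4 * (ρ / h3) * s1) := by ring
            _ ≤ 14000000 * M ^ 2 * ((w / h) ^ 4 * (ρ / h3) * s1) := by
                gcongr
                norm_num
        · have hst : sg ≤ 35 * M * (s1 + w + Gam p * ρ) := by
            by_contra hn
            push Not at hn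
            exact hcase ⟨hth, hn.le⟩
          have h1 := share_large (w := w) (C := C) (a := a) (k0 := k0) hh hh3 h2w hh3ρ hM hsw
            (hhρ.trans hs1) (le_max_left _ _) adm hth hGw
          have h2 := mul_le_mul_of_nonneg_left h1 (by positivity : 0 ≤ 35 * M)
          calc _ ≤ ((filt (InM c sg (max (sg ^ 2) ρ) x0 y0 p s1 h h3 C a k0)
                (bx h h3 w ρ)).card : ℝ) * (35 * M * (s1 + w + Gam p * ρ)) := by
                gcongr
            _ ≤ 14000000 * M ^ 2 * ((w / h) ^ 4 * (ρ / h3) * s1) := by linarith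

end Crest.Agent.R116.Br430
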