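import Crest.Agent.R116.Br6_430
import Crest.Agent.R116.Br2_430

/-!
# R116 (S0155), bridge K side -> wave side, part 7: planks of length one (helper430)

`lkm_norm`: the plank inequality at length one from `LKMtube (SSr M)`.
-/

set_option autoImplicit false

open MeasureTheory
open scoped ENNReal

namespace Crest.Agent.R116.Br430

open Crest.Agent.R116.LZg725
open Crest.Agent.R116.CDef480 (E3 lat pt)
open Crest.Agent.R116.LKMDef299 (Cpt LRay tube SSr LKMtube)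
open Crest.Agent.R138.Tub70 (Lat nr norm_sub_nr)

/-! ### abstract net summation -/

theorem net_sum {ι J : Type*} {F : Finset ι} {N : Finset J} {W n : ι → ℝ} {χ : J → ι → ℝ}
    {v P q Δ : ℝ} (hv : 0 < v) (hP : 0 ≤ P) (hq : 0 ≤ q) (hW : ∀ i ∈ F, 0 ≤ W i)
    (h1 : ∀ i ∈ F, n i * v ≤ P * ∑ j ∈ N, χ j i)
    (h2 : ∀ j ∈ N, ∑ i ∈ F, χ j i * (W i * q) ≤ Δ * v) :
    (∑ i ∈ F, n i * W i) * q ≤ P * (N.card * Δ) := by
  have h3 : ((∑ i ∈ F, n i * W i) * q) * v ≤ (P * (N.card * Δ)) * v := by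
    calc ((∑ i ∈ F, n i * W i) * q) * v = ∑ i ∈ F, (n i * v) * (W i * q) := by
          rw [Finset.sum_mul, Finset.sum_mul]
          exact Finset.sum_congr rfl fun i _ => by ring
      _ ≤ ∑ i ∈ F, (P * ∑ j ∈ N, χ j i) * (W i * q) :=
          Finset.sum_le_sum fun i hi =>
            mul_le_mul_of_nonneg_right (h1 i hi) (mul_nonneg (hW i hi) hq)
      _ = P * ∑ j ∈ N, ∑ i ∈ F, χ j i * (W i * q) := by
          rw [Finset.sum_comm, Finset.mul_sum]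
          refine Finset.sum_congr rfl fun i _ => ?_
          rw [mul_assoc, Finset.sum_mul]
      _ ≤ P * ∑ _j ∈ N, Δ * v :=
          mul_le_mul_of_nonneg_left (Finset.sum_le_sum h2) hP
      _ = (P * (N.card * Δ)) * v := by
          rw [Finset.sum_const, nsmul_eq_mul]; ring
  exact le_of_mul_le_mul_right h3 hv

theorem alg1 {h h3 w ρ K n Δ c : ℝ} (hh : 0 < h) (hh3 : 0 < h3) (hw : 0 < w) (hρ : 0 < ρ) :
    4 * (h / w) ^ 2 * (h3 / h) * ρ ^ 3 *
      (K * ((w / h) ^ 4 * (ρ / h3)) * c * (n * Δ) / (w ^ 2 * ρ)) =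
      4 * (ρ / h) ^ 3 * K * n * Δ * c := by
  field_simp

/-! ### the mass condition -/

/-- the fine ray. -/
noncomputable def fr' (h h3 : ℝ) (C a : E2) (k0 : ℝ) (k : RI) : LRay :=
  (bC h C k, ba h a k, bc h h3 C k0 k)

theorem mem_eq_mk1 {m : Mem} (hR : m.R = 1) (hs0 : m.s0 = 0) :
    m = mk1 m.c m.sg m.s1 (lat m.X0) (m.X0 2) m.phi := by
  obtain ⟨c, sg, s1, R, X0, s0, phi⟩ := m
  simp only at hR hs0
  subst hR hs0
  unfold mk1
  simp only [CDef480.pt_lat]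

open Classical in
/-- **mass condition of the fine rays**. -/
theorem mass_fine {ι : Type*} {F : Finset ι} {M V w ρ Δ : ℝ} (hM : 1 ≤ M) (hV : 0 ≤ V)
    (hw : 0 < w) (hw1 : w ≤ 1) (hwρ : w ^ 2 ≤ ρ) (hρw : ρ ≤ w) {C a : ι → E2} {k W : ι → ℝ}
    (hW : ∀ i ∈ F, 0 ≤ W i) (hΔ : 0 ≤ Δ)
    (H : ∀ m : Mem, m.Ok (5 + 5 * M) ρ → Cpt (5 + 5 * M) ρ m → m.R = 1 → m.s0 = 0 → w ≤ m.s1 →
      m.sg ≤ 1 → ∑ i ∈ F, (if (C i, a i, k i) ∈ m.rays ρ then W i * (w ^ 2 * ρ) else 0) ≤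
        Δ * m.scost ρ)
    {m : Mem} (hok : m.Ok M ρ) (hR : m.R = 1) (hs0 : m.s0 = 0) (hs1 : ρ ≤ m.s1)
    (hsg : m.sg ≤ 1) :
    ∑ i ∈ F, ∑ l ∈ bx (mh V ρ) (mh3 M V w ρ) w ρ,
      (if fr' (mh V ρ) (mh3 M V w ρ) (C i) (a i) (k i) l ∈ m.rays ρ then
        uu (mh V ρ) (mh3 M V w ρ) w (W i) * ρ ^ 3 else 0) ≤
      4 * (2 + V) ^ 3 * KB M * netJ.card * Δ * m.scost ρ := by
  have hm := mem_eq_mk1 hR hs0
  obtain ⟨hh, hh3, hh3h, h2w, he, hhρ, hh3ρ⟩ := mesh hM hV hw hw1 hwρ hρw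
  set h := mh V ρ with hhd
  set h3 := mh3 M V w ρ with hh3d
  have hρ : 0 < ρ := lt_of_lt_of_le (pow_pos hw 2) hwρ
  set c := m.c
  set sg := m.sg
  set s1 := m.s1
  set x0 := lat m.X0
  set y0 := m.X0 2
  set p := m.phi
  have hadm : Adm M c sg (max (sg ^ 2) ρ) 1 x0 y0 0 p := by
    have := hok.adm
    rw [hm, mk1_T] at this
    unfold mk1 at this
    simpa only [CDef480.lat_pt, CDef480.pt_two] using this
  have hcost : m.scost ρ = s1 * sg * max (sg ^ 2) ρ := by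
    rw [hm, mk1_scost]
  obtain ⟨mj, v, hv, hmj, hcov⟩ := cover (V := V) hM hV hw hw1 hwρ hρw hs1 hok.hsg hsg hadm
  rw [← hhd, ← hh3d] at hcov
  set D := (w / h) ^ 4 * (ρ / h3) with hD
  have hD0 : 0 ≤ D := by positivity
  have hcost0 : 0 ≤ m.scost ρ := hok.scost_pos.le
  have hKB := KB_nonneg M
  -- the left side
  have e1 : ∑ i ∈ F, ∑ l ∈ bx h h3 w ρ, (if fr' h h3 (C i) (a i) (k i) l ∈ m.rays ρ then
      uu h h3 w (W i) * ρ ^ 3 else 0) =
      (4 * (h / w) ^ 2 * (h3 / h)) * ρ ^ 3 * ∑ i ∈ F,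
        ((filt (InM c sg (max (sg ^ 2) ρ) x0 y0 p s1 h h3 (C i) (a i) (k i))
          (bx h h3 w ρ)).card : ℝ) * W i := by
    rw [Finset.mul_sum]
    refine Finset.sum_congr rfl fun i _ => ?_
    rw [← Finset.sum_filter, Finset.sum_const, nsmul_eq_mul]
    have e2 : (bx h h3 w ρ).filter (fun l => fr' h h3 (C i) (a i) (k i) l ∈ m.rays ρ) =
        filt (InM c sg (max (sg ^ 2) ρ) x0 y0 p s1 h h3 (C i) (a i) (k i)) (bx h h3 w ρ) := by
      ext l
      rw [mem_filt, Finset.mem_filter]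
      refine and_congr_right fun _ => ?_
      rw [hm, mk1_rays]
      rfl
    rw [e2]
    unfold uu
    ring
  -- the counts
  have key := net_sum (F := F) (N := netJ) (W := W)
    (n := fun i => ((filt (InM c sg (max (sg ^ 2) ρ) x0 y0 p s1 h h3 (C i) (a i) (k i))
          (bx h h3 w ρ)).card : ℝ))
    (χ := fun j i => if (mj j).Ok (5 + 5 * M) ρ ∧ Cpt (5 + 5 * M) ρ (mj j) ∧
      (C i, a i, k i) ∈ (mj j).rays ρ then 1 else 0)
    (v := v) (P := KB M * D * m.scost ρ) (q := w ^ 2 * ρ) (Δ := Δ) hv (by positivity)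
    (by positivity) hW (fun i _ => ?_) (fun j _ => ?_)
  · rw [e1]
    set sn := ∑ i ∈ F, ((filt (InM c sg (max (sg ^ 2) ρ) x0 y0 p s1 h h3 (C i) (a i) (k i))
          (bx h h3 w ρ)).card : ℝ) * W i
    have e3 : (2 + V) = ρ / h := by rw [← he]; field_simp
    rw [e3]
    have h5 : sn ≤ KB M * D * m.scost ρ * (netJ.card * Δ) / (w ^ 2 * ρ) := by
      rw [le_div_iff₀ (by positivity)]; exact key
    exact (mul_le_mul_of_nonneg_left h5 (by positivity)).trans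
      (le_of_eq (alg1 hh hh3 hw hρ))
  · by_cases hex : ∃ l ∈ bx h h3 w ρ, InM c sg (max (sg ^ 2) ρ) x0 y0 p s1 h h3 (C i) (a i) (k i) l
    · obtain ⟨⟨j, hj, j1, j2, j3⟩, hle⟩ := hcov (C i) (a i) (k i) hex
      refine hle.trans ?_
      rw [← hcost]
      have h6 : (1 : ℝ) ≤ ∑ j ∈ netJ, (if (mj j).Ok (5 + 5 * M) ρ ∧ Cpt (5 + 5 * M) ρ (mj j) ∧
          (C i, a i, k i) ∈ (mj j).rays ρ then (1 : ℝ) else 0) := by
        have h7 := Finset.single_le_sum (f := fun j => (if (mj j).Ok (5 + 5 * M) ρ ∧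
          Cpt (5 + 5 * M) ρ (mj j) ∧ (C i, a i, k i) ∈ (mj j).rays ρ then (1 : ℝ) else 0))
          (fun j _ => by split_ifs <;> norm_num) hj
        refine le_trans (le_of_eq ?_) h7
        rw [if_pos ⟨j1, j2, j3⟩]
      exact le_mul_of_one_le_right (by positivity) h6
    · have h9 : (filt (InM c sg (max (sg ^ 2) ρ) x0 y0 p s1 h h3 (C i) (a i) (k i))
          (bx h h3 w ρ)).card = 0 := by
        rw [Finset.card_eq_zero, Finset.eq_empty_iff_forall_notMem]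
        intro l hl
        rw [mem_filt] at hl
        exact hex ⟨l, hl.1, hl.2⟩
      rw [h9, Nat.cast_zero, zero_mul]
      refine mul_nonneg (by positivity) (Finset.sum_nonneg fun j _ => ?_)
      split_ifs <;> norm_num
  · obtain ⟨g1, g2, g3, g4, g5⟩ := hmj j
    by_cases hoc : (mj j).Ok (5 + 5 * M) ρ ∧ Cpt (5 + 5 * M) ρ (mj j)
    · have h10 := H (mj j) hoc.1 hoc.2 g1 g2 g3 g4
      rw [g5] at h10
      refine le_trans (le_of_eq ?_) h10
      refine Finset.sum_congr rfl fun i _ => ?_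
      by_cases hmem : (C i, a i, k i) ∈ (mj j).rays ρ
      · rw [if_pos ⟨hoc.1, hoc.2, hmem⟩, if_pos hmem, one_mul]
      · rw [if_neg (fun hn => hmem hn.2.2), if_neg hmem, zero_mul]
    · refine le_trans (le_of_eq ?_) (mul_nonneg hΔ hv.le)
      refine Finset.sum_eq_zero fun i _ => ?_
      rw [if_neg (fun hn => hoc ⟨hn.1, hn.2.1⟩), zero_mul]

/-! ### planks of length one -/

/-- constant of the energy. -/
noncomputable def K1 (V : ℝ) : ℝ := 8020 * (2 + V) ^ 3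

/-- constant of the density. -/
noncomputable def K2 (M V : ℝ) : ℝ := 4 * (2 + V) ^ 3 * KB M * netJ.card

theorem alg2 {h w ρ S : ℝ} (hh : 0 < h) :
    8020 * ((w / h) ^ 2 * (ρ / h)) * S * ρ ^ 3 = 8020 * (ρ / h) ^ 3 * (S * (w ^ 2 * ρ)) := by
  field_simp

open Classical in
/-- **planks of length one**. -/
theorem lkm_norm {M V : ℝ} (hM : 1 ≤ M) (hV : 0 ≤ V) (hK : LKMtube (SSr M) (7 * V + 11))
    {ε : ℝ} (hε : 0 < ε) :
    ∃ K : ℝ, 0 ≤ K ∧ ∀ w ρ : ℝ, 0 < w → w ≤ 1 → w ^ 2 ≤ ρ → ρ ≤ w →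
      ∀ (ι : Type) (F : Finset ι) (C a : ι → E2) (k W : ι → ℝ), (∀ i ∈ F, 0 ≤ W i) →
        (∀ i ∈ F, ‖C i‖ ≤ V) → (∀ i ∈ F, ‖a i‖ ≤ V) → (∀ i ∈ F, |k i| ≤ V) → ∀ Δ : ℝ, 0 ≤ Δ →
        (∀ m : Mem, m.Ok (5 + 5 * M) ρ → Cpt (5 + 5 * M) ρ m → m.R = 1 → m.s0 = 0 →
          w ≤ m.s1 → m.sg ≤ 1 →
          ∑ i ∈ F, (if (C i, a i, k i) ∈ m.rays ρ then W i * (w ^ 2 * ρ) else 0) ≤
            Δ * m.scost ρ) →
        ∫⁻ s in Set.Icc (-1 : ℝ) 1, ∫⁻ X : E3,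
          (∑ i ∈ F, (if InPk w ρ (C i) (a i) (k i) (lat X) (X 2) s then
            ENNReal.ofReal (W i) else 0)) ^ (3/2 : ℝ) ≤
        ENNReal.ofReal (K * w ^ (-ε) * Real.sqrt Δ * ∑ i ∈ F, W i * (w ^ 2 * ρ)) := by
  obtain ⟨K, hK0, hK1⟩ := hK (ε / 2) (by positivity)
  refine ⟨K * K1 V * Real.sqrt (K2 M V), ?_, ?_⟩
  · have : 0 ≤ K1 V := by unfold K1; positivity
    positivity
  intro w ρ hw hw1 hwρ hρw ι F C a k W hW hC ha hk Δ hΔ H
  obtain ⟨hh, hh3, hh3h, h2w, he, hhρ, hh3ρ⟩ := mesh hM hV hw hw1 hwρ hρw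
  have hρ : 0 < ρ := lt_of_lt_of_le (pow_pos hw 2) hwρ
  have hmass := fun {m : Mem} (hok : m.Ok M ρ) (hR : m.R = 1) (hs0 : m.s0 = 0)
    (hs1 : ρ ≤ m.s1) (hsg : m.sg ≤ 1) =>
    mass_fine hM hV hw hw1 hwρ hρw hW hΔ H hok hR hs0 hs1 hsg
  set h := mh V ρ with hhd
  set h3 := mh3 M V w ρ with hh3d
  have hKM := KB_nonneg M
  have hK2 : 0 ≤ K2 M V := by unfold K2; positivity
  -- the family of the fine rays
  have hsum : ∀ (f : ι → RI → ℝ), ∑ x : ↥(F ×ˢ bx h h3 w ρ), f x.1.1 x.1.2 =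
      ∑ i ∈ F, ∑ l ∈ bx h h3 w ρ, f i l := by
    intro f
    rw [← Finset.sum_product' F (bx h h3 w ρ) f]
    exact Finset.sum_coe_sort (F ×ˢ bx h h3 w ρ) (fun x => f x.1 x.2)
  have hmemF : ∀ x : ↥(F ×ˢ bx h h3 w ρ), x.1.1 ∈ F := fun x => (Finset.mem_product.mp x.2).1
  have hmemB : ∀ x : ↥(F ×ˢ bx h h3 w ρ), x.1.2 ∈ bx h h3 w ρ :=
    fun x => (Finset.mem_product.mp x.2).2
  have main := hK1 ρ hρ (hρw.trans hw1) ↥(F ×ˢ bx h h3 w ρ)
    (fun x => fr' h h3 (C x.1.1) (a x.1.1) (k x.1.1) x.1.2)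
    (fun x => uu h h3 w (W x.1.1)) (fun x => uu_nonneg hh hh3 (hW _ (hmemF x))) ?_ ?_ ?_
    (K2 M V * Δ) (by positivity) ?_
  · -- conclusion
    refine le_trans ?_ (main.trans ?_)
    · refine lintegral_mono_ae ?_
      filter_upwards [ae_restrict_mem measurableSet_Icc] with s hs
      refine lintegral_mono fun X => ?_
      refine ENNReal.rpow_le_rpow ?_ (by norm_num)
      have hs' : |s| ≤ 1 := by
        rw [abs_le]; exact ⟨hs.1, hs.2⟩
      have h1 := pk_le (F := F) (h := h) (h3 := h3) (w := w) (ρ := ρ) (C := C) (a := a) (c := k)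
        (W := W) (V := V) (r := ρ) hh hh3 hh3h hhρ h2w hw1 he.le hwρ hC hW (x := lat X) (y := X 2)
        hs'
      have h2 : ∑ i ∈ F, (if InPk w ρ (C i) (a i) (k i) (lat X) (X 2) s then
          ENNReal.ofReal (W i) else 0) = ENNReal.ofReal (∑ i ∈ F,
            (if InPk w ρ (C i) (a i) (k i) (lat X) (X 2) s then W i else 0)) := by
        rw [ENNReal.ofReal_sum_of_nonneg]
        · refine Finset.sum_congr rfl fun i _ => ?_
          split_ifs <;> simp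
        · intro i hi
          split_ifs
          · exact hW i hi
          · exact le_rfl
      rw [h2]
      refine (ENNReal.ofReal_le_ofReal h1).trans (le_of_eq ?_)
      rw [← hsum (fun i l => if InTb ρ (bC h (C i) l) (ba h (a i) l) (bc h h3 (C i) (k i) l)
        (lat X) (X 2) s then uu h h3 w (W i) else 0), ENNReal.ofReal_sum_of_nonneg]
      · refine Finset.sum_congr rfl fun x _ => ?_
        have h7 : InTb ρ (bC h (C x.1.1) x.1.2) (ba h (a x.1.1) x.1.2)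
            (bc h h3 (C x.1.1) (k x.1.1) x.1.2) (lat X) (X 2) s ↔
            X ∈ tube ρ (fr' h h3 (C x.1.1) (a x.1.1) (k x.1.1) x.1.2) s := Iff.rfl
        by_cases h4 : X ∈ tube ρ (fr' h h3 (C x.1.1) (a x.1.1) (k x.1.1) x.1.2) s
        · rw [if_pos (h7.mpr h4), if_pos h4]
        · rw [if_neg (fun hn => h4 (h7.mp hn)), if_neg h4, ENNReal.ofReal_zero]
      · intro x _
        split_ifs
        · exact uu_nonneg hh hh3 (hW _ (hmemF x))
        · exact le_rfl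
    · refine ENNReal.ofReal_le_ofReal ?_
      have e1 : ∑ x : ↥(F ×ˢ bx h h3 w ρ), uu h h3 w (W x.1.1) * ρ ^ 3 ≤
          K1 V * ∑ i ∈ F, W i * (w ^ 2 * ρ) := by
        rw [← Finset.sum_mul, hsum (fun i _ => uu h h3 w (W i))]
        have h5 := energy_le (F := F) (h := h) (h3 := h3) (w := w) (ρ := ρ) (W := W) hh hh3 h2w
          hh3ρ hW
        refine (mul_le_mul_of_nonneg_right h5 (by positivity)).trans (le_of_eq ?_)
        rw [alg2 hh, ← Finset.sum_mul]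
        unfold K1
        have e3 : (2 + V) = ρ / h := by rw [← he]; field_simp
        rw [e3]
      have e2 : ρ ^ (-(ε / 2)) ≤ w ^ (-ε) := by
        have h6 : ρ ^ (-(ε / 2)) ≤ (w ^ 2) ^ (-(ε / 2)) :=
          Real.rpow_le_rpow_of_nonpos (pow_pos hw 2) hwρ (by linarith)
        refine h6.trans (le_of_eq ?_)
        rw [← Real.rpow_natCast, ← Real.rpow_mul hw.le]
        congr 1
        push_cast
        ring
      have e3 : Real.sqrt (K2 M V * Δ) = Real.sqrt (K2 M V) * Real.sqrt Δ :=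
        Real.sqrt_mul hK2 Δ
      rw [e3]
      have hE : 0 ≤ ∑ i ∈ F, W i * (w ^ 2 * ρ) :=
        Finset.sum_nonneg fun i hi => mul_nonneg (hW i hi) (by positivity)
      have hK1V : 0 ≤ K1 V := by unfold K1; positivity
      have hE' : 0 ≤ ∑ x : ↥(F ×ˢ bx h h3 w ρ), uu h h3 w (W x.1.1) * ρ ^ 3 :=
        Finset.sum_nonneg fun x _ =>
          mul_nonneg (uu_nonneg hh hh3 (hW _ (hmemF x))) (by positivity)
      calc K * ρ ^ (-(ε / 2)) * (Real.sqrt (K2 M V) * Real.sqrt Δ) *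
            ∑ x : ↥(F ×ˢ bx h h3 w ρ), uu h h3 w (W x.1.1) * ρ ^ 3
          ≤ K * w ^ (-ε) * (Real.sqrt (K2 M V) * Real.sqrt Δ) *
            (K1 V * ∑ i ∈ F, W i * (w ^ 2 * ρ)) := by
            gcongr
        _ = K * K1 V * Real.sqrt (K2 M V) * w ^ (-ε) * Real.sqrt Δ *
            ∑ i ∈ F, W i * (w ^ 2 * ρ) := by ring
  · -- directions
    intro x
    obtain ⟨l1, -, -⟩ := norm_of_mem_bx hh hh3 hw.le (hmemB x)
    change ‖C x.1.1 + Lat h x.1.2.1‖ ≤ _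
    refine (norm_add_le _ _).trans ?_
    linarith [hC _ (hmemF x)]
  · -- positions
    intro x
    obtain ⟨-, l2, -⟩ := norm_of_mem_bx hh hh3 hw.le (hmemB x)
    change ‖a x.1.1 + Lat h x.1.2.2.1‖ ≤ _
    refine (norm_add_le _ _).trans ?_
    linarith [ha _ (hmemF x)]
  · -- heights
    intro x
    obtain ⟨l1, l2, l3⟩ := norm_of_mem_bx hh hh3 hw.le (hmemB x)
    change |k x.1.1 - inner ℝ (C x.1.1 + Lat h x.1.2.1) (Lat h x.1.2.2.1) + h3 * x.1.2.2.2| ≤ _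
    refine (abs_add_le _ _).trans ?_
    have h1 := abs_sub (k x.1.1) (inner ℝ (C x.1.1 + Lat h x.1.2.1) (Lat h x.1.2.2.1))
    have h2 : |inner ℝ (C x.1.1 + Lat h x.1.2.1) (Lat h x.1.2.2.1)| ≤ (V + 1) * 6 := by
      refine (abs_real_inner_le_norm _ _).trans ?_
      have h3 : ‖C x.1.1 + Lat h x.1.2.1‖ ≤ V + 1 := by
        refine (norm_add_le _ _).trans ?_
        linarith [hC _ (hmemF x)]
      exact mul_le_mul h3 (l2.trans (by linarith)) (norm_nonneg _) (by linarith)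
    have := hk _ (hmemF x)
    linarith
  · -- mass
    rintro A v ⟨m, hok, hR, hs0, hs1, hsg, rfl, rfl⟩
    have h1 := hmass hok hR hs0 hs1 hsg
    rw [hsum (fun i l => if fr' h h3 (C i) (a i) (k i) l ∈ m.rays ρ then
      uu h h3 w (W i) * ρ ^ 3 else 0)]
    refine h1.trans (le_of_eq ?_)
    unfold K2
    ring

end Crest.Agent.R116.Br430
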