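import Crest.Agent.R116.CDef_480

/-!
# R116 (S0155), wave side: Kakeya for coefficient energies on the cone, part 1 (helper538)

Cone port of `R138/Kcc1_882`.  Rays = pairs (slope `C : E2`, position `y : E3` at time `0`), the ray
is at `y - t • vel C` at time `t`.  Plank of sizes `w` (lateral), `ρ` (null normal).
`LKMg T V` = weighted light-ray Kakeya inequality at exponent `3/2` for an arbitrary class `T` of
test sets of rays with costs; `kcc_sharp` = the same for energies `U m` of selections `S m`.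
-/

set_option autoImplicit false

open MeasureTheory
open scoped ENNReal

namespace Crest.Agent.R116.Ckm538

open Crest.Agent.R138.Defs (E2)
open Crest.Agent.R116.CDef480

/-! ### cells -/

/-- reference point of the cell `k` of sizes `w, w, ρ` in the coordinates `(lat y, nrm C y 0)`. -/
noncomputable def cpt (w ρ : ℝ) (C : E2) (k : ℤ × ℤ × ℤ) : E3 :=
  pt !₂[w * k.1, w * k.2.1] (ρ * k.2.2 - inner ℝ C (!₂[w * k.1, w * k.2.1] : E2))

/-- index of the cell of `y`. -/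
noncomputable def cix (w ρ : ℝ) (C : E2) (y : E3) : ℤ × ℤ × ℤ :=
  (⌊y 0 / w⌋, ⌊y 1 / w⌋, ⌊nrm C y 0 / ρ⌋)

theorem nrm_zero (C : E2) (X : E3) : nrm C X 0 = X 2 + inner ℝ C (lat X) := by
  unfold nrm; ring

theorem nrm_sub0 (C : E2) (X Y : E3) : nrm C (X - Y) 0 = nrm C X 0 - nrm C Y 0 := by
  rw [nrm_zero, nrm_zero, nrm_zero, lat_sub, inner_sub_right]
  simp only [PiLp.sub_apply]
  ring

theorem nrm_add0 (C : E2) (X Y : E3) : nrm C (X + Y) 0 = nrm C X 0 + nrm C Y 0 := by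
  rw [nrm_zero, nrm_zero, nrm_zero, lat_add, inner_add_right]
  simp only [PiLp.add_apply]
  ring

theorem nrm_smul0 (C : E2) (c : ℝ) (X : E3) : nrm C (c • X) 0 = c * nrm C X 0 := by
  rw [nrm_zero, nrm_zero, lat_smul, inner_smul_right]
  simp only [PiLp.smul_apply, smul_eq_mul]
  ring

theorem lat_cpt (w ρ : ℝ) (C : E2) (k : ℤ × ℤ × ℤ) :
    lat (cpt w ρ C k) = !₂[w * k.1, w * k.2.1] := lat_pt _ _

theorem nrm_cpt (w ρ : ℝ) (C : E2) (k : ℤ × ℤ × ℤ) : nrm C (cpt w ρ C k) 0 = ρ * k.2.2 := by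
  rw [nrm_zero, lat_cpt]
  unfold cpt
  rw [pt_two]
  ring

theorem measurable_nrm (C : E2) (s : ℝ) : Measurable fun y : E3 => nrm C y s := by
  unfold nrm
  exact ((measurable_coord 2).add ((measurable_const.inner measurable_lat))).add_const _

theorem measurable_cix (w ρ : ℝ) (C : E2) : Measurable (cix w ρ C) := by
  unfold cix
  refine Measurable.prodMk ?_ (Measurable.prodMk ?_ ?_)
  · exact Int.measurable_floor.comp ((measurable_coord 0).div_const w)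
  · exact Int.measurable_floor.comp ((measurable_coord 1).div_const w)
  · exact Int.measurable_floor.comp ((measurable_nrm C 0).div_const ρ)

theorem floor_err {t w : ℝ} (hw : 0 < w) : |t - w * (⌊t / w⌋ : ℤ)| ≤ w := by
  have h1 := Int.floor_le (t / w)
  have h2 := Int.lt_floor_add_one (t / w)
  rw [le_div_iff₀ hw] at h1
  rw [div_lt_iff₀ hw] at h2
  rw [abs_le]
  constructor <;> nlinarith

theorem norm2_le {x : E2} {a : ℝ} (ha : 0 ≤ a) (h0 : |x 0| ≤ a) (h1 : |x 1| ≤ a) : ‖x‖ ≤ 2 * a := by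
  rw [EuclideanSpace.norm_eq, Real.sqrt_le_left (by positivity)]
  simp only [Fin.sum_univ_two, Real.norm_eq_abs, sq_abs]
  have h0' := sq_le_sq' (by linarith [abs_le.mp h0]) (abs_le.mp h0).2
  have h1' := sq_le_sq' (by linarith [abs_le.mp h1]) (abs_le.mp h1).2
  nlinarith

theorem near_cpt {w ρ : ℝ} (hw : 0 < w) (hρ : 0 < ρ) (C : E2) (y : E3) :
    ‖lat (y - cpt w ρ C (cix w ρ C y))‖ ≤ 2 * w ∧ |nrm C (y - cpt w ρ C (cix w ρ C y)) 0| ≤ ρ := by
  constructor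
  · rw [lat_sub, lat_cpt]
    refine norm2_le hw.le ?_ ?_
    · simp only [PiLp.sub_apply, lat_zero, cix]
      exact floor_err hw
    · simp only [PiLp.sub_apply, lat_one, cix]
      exact floor_err hw
  · rw [nrm_sub0, nrm_cpt]
    exact floor_err hρ

theorem norm3_le (X : E3) : ‖X‖ ≤ ‖lat X‖ + |X 2| := by
  have h := normsq3 X
  have h1 : 0 ≤ ‖lat X‖ := norm_nonneg _
  have h2 : 0 ≤ |X 2| := abs_nonneg _
  refine abs_le_of_sq_le_sq' ?_ (by positivity) |>.2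
  rw [h, ← sq_abs (X 2)]
  nlinarith

theorem lat_norm_le (X : E3) : ‖lat X‖ ≤ ‖X‖ := by
  have h := normsq3 X
  exact abs_le_of_sq_le_sq' (by nlinarith [sq_nonneg (X 2)]) (norm_nonneg _) |>.2

theorem two_norm_le (X : E3) : |X 2| ≤ ‖X‖ := by
  have h := normsq3 X
  exact abs_le_of_sq_le_sq (by nlinarith [sq_nonneg ‖lat X‖]) (norm_nonneg _)

theorem nrm0_le (C : E2) (X : E3) : |nrm C X 0| ≤ |X 2| + ‖C‖ * ‖lat X‖ := by
  rw [nrm_zero]
  exact (abs_add_le _ _).trans (add_le_add le_rfl (abs_real_inner_le_norm _ _))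

theorem norm3_le_nrm (C : E2) (X : E3) : ‖X‖ ≤ (1 + ‖C‖) * ‖lat X‖ + |nrm C X 0| := by
  have h1 := norm3_le X
  have e : X 2 = nrm C X 0 - inner ℝ C (lat X) := by rw [nrm_zero]; ring
  have h2 : |X 2| ≤ |nrm C X 0| + ‖C‖ * ‖lat X‖ := by
    rw [e]
    exact (abs_sub _ _).trans (add_le_add le_rfl (abs_real_inner_le_norm _ _))
  linarith

/-- energy over a family of cells. -/
theorem sum_cells {X I : Type*} [MeasurableSpace X] [MeasurableSpace I]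
    [MeasurableSingletonClass I] {μ : Measure X} {f : X → I}
    (hf : Measurable f) (U : X → ℝ≥0∞) {A : Set X} (hA : MeasurableSet A) (Z : Finset I) :
    ∑ k ∈ Z, ∫⁻ y in A ∩ {y | f y = k}, U y ∂μ = ∫⁻ y in A ∩ {y | f y ∈ Z}, U y ∂μ := by
  have h1 := lintegral_biUnion_finset (μ := μ) (s := Z) (t := fun k => A ∩ {y | f y = k})
    (fun k _ l _ hkl => by
      rw [Function.onFun, Set.disjoint_left]
      rintro y ⟨-, hy⟩ ⟨-, hy'⟩
      exact hkl (hy.symm.trans hy'))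
    (fun k _ => hA.inter (hf (measurableSet_singleton k))) U
  rw [← h1]
  congr 2
  ext y
  simp

/-! ### the weighted light-ray inequality -/

/-- the ray `(C, y)` passes through the plank neighbourhood of `(X, t)`. -/
def Nr (w ρ : ℝ) (C : E2) (y X : E3) (t : ℝ) : Prop :=
  ‖lat (X + t • vel C - y)‖ ≤ w ∧ |nrm C (X + t • vel C - y) 0| ≤ ρ

open Classical in
/-- **weighted light-ray Kakeya at the exponent `3/2`** for the class `T` of test sets: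
`T w ρ R A c` = "`A` is a test set of rays at the sizes `w, ρ, R` and its cost is `c`". -/
def LKMg (T : ℝ → ℝ → ℝ → Set (E2 × E3) → ℝ → Prop) (V : ℝ) : Prop :=
  ∀ ε : ℝ, 0 < ε → ∃ C0 : ℝ, 0 ≤ C0 ∧ ∀ w ρ R : ℝ, 0 < w → w ≤ R → w ^ 2 ≤ ρ * R → ρ ≤ w →
    ∀ (ι : Type) (F : Finset ι) (C : ι → E2) (y : ι → E3) (a : ι → ℝ), (∀ i ∈ F, 0 ≤ a i) →
      (∀ i ∈ F, ‖C i‖ ≤ V) → (∀ i ∈ F, ‖y i‖ ≤ V * R) → ∀ Δ : ℝ, 0 ≤ Δ →
      (∀ (A : Set (E2 × E3)) (c : ℝ), T w ρ R A c →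
        ∑ i ∈ F, (if (C i, y i) ∈ A then a i * (w ^ 2 * ρ) else 0) ≤ Δ * c) →
      ∫⁻ t in Set.Icc (-R) R, ∫⁻ X in {X : E3 | ‖X‖ ≤ R},
        (∑ i ∈ F, (if Nr w ρ (C i) (y i) X t then ENNReal.ofReal (a i) else 0)) ^ (3/2 : ℝ) ≤
        ENNReal.ofReal (C0 * (w / R) ^ (-ε) * Real.sqrt Δ * R) *
          ENNReal.ofReal (∑ i ∈ F, a i * (w ^ 2 * ρ))

/-- the set of positions (at time `0`) of the rays of slope `C` close to rays of `A`. -/
def thk (w ρ : ℝ) (A : Set (E2 × E3)) (C : E2) : Set E3 :=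
  {y | ∃ y', (C, y') ∈ A ∧ ‖lat (y - y')‖ ≤ w ∧ |nrm C (y - y') 0| ≤ ρ}

/-- plank cell at time `0` around `z`. -/
def pcell (w ρ : ℝ) (C : E2) (z : E3) : Set E3 := {y | ‖lat (y - z)‖ ≤ w ∧ |nrm C (y - z) 0| ≤ ρ}

section

variable {κ : Type}

set_option maxHeartbeats 1000000 in
open Classical in
/-- **Kakeya for phase space energies on the cone**, sharp cut-offs. -/
theorem kcc_sharp {T : ℝ → ℝ → ℝ → Set (E2 × E3) → ℝ → Prop}
    (hT : ∀ w ρ R A c, T w ρ R A c → 0 ≤ c) {V V1 : ℝ} (hV1 : 0 ≤ V1) (hV : V1 ≤ V)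
    (hKM : LKMg T V) (ε : ℝ) (hε : 0 < ε) : ∃ C0 : ℝ, 0 ≤ C0 ∧
    ∀ w ρ R : ℝ, 0 < w → w ≤ R → w ^ 2 ≤ ρ * R → ρ ≤ w →
      ∀ (F : Finset κ) (C : κ → E2) (U : κ → E3 → ℝ≥0∞)
      (S : κ → Set E3), (∀ m, MeasurableSet (S m)) →
      (∀ m ∈ F, ‖C m‖ ≤ V1) → (∀ m ∈ F, ∀ y ∈ S m, ‖y‖ + (1 + V1) * R ≤ V * R) →
      (∀ m ∈ F, ∫⁻ y in S m, U m y ≠ ⊤) → ∀ Δ : ℝ, 0 ≤ Δ →
      (∀ (A : Set (E2 × E3)) (c : ℝ), T w ρ R A c →
        ∑ m ∈ F, ∫⁻ y in S m ∩ thk w ρ A (C m), U m y ≤ ENNReal.ofReal (Δ * c)) →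
      ∫⁻ t in Set.Icc (-R) R, ∫⁻ X in {X : E3 | ‖X‖ ≤ R},
        (ENNReal.ofReal ((w ^ 2 * ρ)⁻¹) *
          ∑ m ∈ F, ∫⁻ y in S m ∩ pcell (w / 2) (ρ / 2) (C m) (X + t • vel (C m)), U m y)
            ^ (3/2 : ℝ) ≤
        ENNReal.ofReal (C0 * (w / R) ^ (-ε) * Real.sqrt Δ * R) * ∑ m ∈ F, ∫⁻ y in S m, U m y := by
  obtain ⟨C0, hC0, h⟩ := hKM ε hε
  refine ⟨C0, hC0, ?_⟩
  intro w ρ R hw hwR hwρ hρw F C U S hSm hC hS hfin Δ hΔ hbox
  have hR : 0 < R := hw.trans_le hwR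
  have hρ : 0 < ρ := by
    by_contra hn
    have : ρ * R ≤ 0 := mul_nonpos_of_nonpos_of_nonneg (not_lt.1 hn) hR.le
    nlinarith [pow_pos hw 2]
  have hV0 : 0 ≤ V := hV1.trans hV
  set w0 : ℝ := w / 4 with hw0
  set ρ0 : ℝ := ρ / 4 with hρ0
  have hw00 : 0 < w0 := by positivity
  have hρ00 : 0 < ρ0 := by positivity
  have hρw0 : ρ0 ≤ w0 := by rw [hw0, hρ0]; linarith
  -- the cells
  obtain ⟨N, hN⟩ : ∃ N : ℤ, (V + V * V) * R / ρ0 + 1 ≤ N :=
    ⟨⌈(V + V * V) * R / ρ0 + 1⌉, Int.le_ceil _⟩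
  set Z : Finset (ℤ × ℤ × ℤ) := Finset.Icc (-N) N ×ˢ (Finset.Icc (-N) N ×ˢ Finset.Icc (-N) N)
    with hZ
  have hIcc : ∀ (u : ℝ) (a : ℤ), ρ0 ≤ u → |u * a| ≤ (V + V * V) * R → a ∈ Finset.Icc (-N) N := by
    intro u a hu ha
    have hu0 : 0 < u := hρ00.trans_le hu
    have h1 : |(a : ℝ)| ≤ (V + V * V) * R / ρ0 := by
      rw [le_div_iff₀ hρ00]
      calc |(a : ℝ)| * ρ0 ≤ |(a : ℝ)| * u := mul_le_mul_of_nonneg_left hu (abs_nonneg _)
        _ = |u * a| := by rw [abs_mul, abs_of_pos hu0, mul_comm]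
        _ ≤ _ := ha
    obtain ⟨ha1, ha2⟩ := abs_le.1 h1
    rw [Finset.mem_Icc]
    constructor
    · have : ((-N : ℤ) : ℝ) ≤ a := by push_cast; linarith
      exact_mod_cast this
    · have : (a : ℝ) ≤ N := by linarith
      exact_mod_cast this
  have hZmem : ∀ m ∈ F, ∀ k : ℤ × ℤ × ℤ, ‖cpt w0 ρ0 (C m) k‖ ≤ V * R → k ∈ Z := by
    intro m hm k hk
    have hl := (lat_norm_le (cpt w0 ρ0 (C m) k)).trans hk
    have h0 := (PiLp.norm_apply_le (lat (cpt w0 ρ0 (C m) k)) 0).trans hl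
    have h1 := (PiLp.norm_apply_le (lat (cpt w0 ρ0 (C m) k)) 1).trans hl
    have h2 := nrm0_le (C m) (cpt w0 ρ0 (C m) k)
    have h3 := (two_norm_le (cpt w0 ρ0 (C m) k)).trans hk
    rw [nrm_cpt] at h2
    rw [lat_cpt] at h0 h1
    rw [Real.norm_eq_abs] at h0 h1
    have hVR : 0 ≤ V * V * R := by positivity
    have h4 : ‖C m‖ * ‖lat (cpt w0 ρ0 (C m) k)‖ ≤ V * (V * R) :=
      mul_le_mul ((hC m hm).trans hV) hl (norm_nonneg _) hV0
    rw [hZ, Finset.mem_product, Finset.mem_product]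
    refine ⟨hIcc w0 _ hρw0 ?_, hIcc w0 _ hρw0 ?_, hIcc ρ0 _ le_rfl ?_⟩
    · refine (le_of_eq ?_).trans (h0.trans (by nlinarith))
      rfl
    · refine (le_of_eq ?_).trans (h1.trans (by nlinarith))
      rfl
    · nlinarith
  set F' : Finset (κ × (ℤ × ℤ × ℤ)) :=
    (F ×ˢ Z).filter (fun p => ‖cpt w0 ρ0 (C p.1) p.2‖ ≤ V * R) with hF'
  have hF'm : ∀ p ∈ F', p.1 ∈ F ∧ ‖cpt w0 ρ0 (C p.1) p.2‖ ≤ V * R := by
    intro p hp
    obtain ⟨h1, h2⟩ := Finset.mem_filter.1 hp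
    exact ⟨(Finset.mem_product.1 h1).1, h2⟩
  set Zm : κ → Finset (ℤ × ℤ × ℤ) := fun m => Z.filter (fun k => ‖cpt w0 ρ0 (C m) k‖ ≤ V * R)
    with hZm
  have hmem : ∀ m ∈ F, ∀ y ∈ S m, cix w0 ρ0 (C m) y ∈ Zm m := by
    intro m hm y hy
    have h1 := hS m hm y hy
    obtain ⟨h2, h3⟩ := near_cpt hw00 hρ00 (C m) y
    have h4 : ‖cpt w0 ρ0 (C m) (cix w0 ρ0 (C m) y)‖ ≤ V * R := by
      have h5 := norm3_le_nrm (C m) (y - cpt w0 ρ0 (C m) (cix w0 ρ0 (C m) y))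
      have h6 : (1 + ‖C m‖) * ‖lat (y - cpt w0 ρ0 (C m) (cix w0 ρ0 (C m) y))‖ ≤
          (1 + V1) * (2 * w0) :=
        mul_le_mul (by linarith [hC m hm]) h2 (norm_nonneg _) (by positivity)
      have h7 : ‖cpt w0 ρ0 (C m) (cix w0 ρ0 (C m) y)‖ ≤
          ‖y‖ + ‖y - cpt w0 ρ0 (C m) (cix w0 ρ0 (C m) y)‖ := by
        have := norm_sub_le y (y - cpt w0 ρ0 (C m) (cix w0 ρ0 (C m) y))
        rwa [sub_sub_cancel] at this
      have h8 : (1 + V1) * (2 * w0) + ρ0 ≤ (1 + V1) * R := by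
        rw [hw0, hρ0]
        nlinarith
      linarith
    exact Finset.mem_filter.2 ⟨hZmem m hm _ h4, h4⟩
  set μ : κ → ℤ × ℤ × ℤ → ℝ≥0∞ := fun m k => ∫⁻ y in S m ∩ {y | cix w0 ρ0 (C m) y = k}, U m y
    with hμ
  have hμfin : ∀ m ∈ F, ∀ k, μ m k ≠ ⊤ := by
    intro m hm k
    exact ne_top_of_le_ne_top (hfin m hm) (lintegral_mono_set Set.inter_subset_left)
  have hsum : ∀ f : κ × (ℤ × ℤ × ℤ) → ℝ≥0∞, ∑ p ∈ F', f p = ∑ m ∈ F, ∑ k ∈ Zm m, f (m, k) := by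
    intro f
    rw [hF', Finset.sum_filter, Finset.sum_product]
    refine Finset.sum_congr rfl fun m _ => ?_
    rw [hZm, Finset.sum_filter]
  set a : κ × (ℤ × ℤ × ℤ) → ℝ := fun p => (w ^ 2 * ρ)⁻¹ * (μ p.1 p.2).toReal with ha
  have ha0 : ∀ p, 0 ≤ a p := fun p => by rw [ha]; positivity
  have haμ : ∀ p ∈ F', ENNReal.ofReal (a p * (w ^ 2 * ρ)) = μ p.1 p.2 := by
    intro p hp
    have e : a p * (w ^ 2 * ρ) = (μ p.1 p.2).toReal := by
      simp only [ha]; field_simp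
    rw [e, ENNReal.ofReal_toReal (hμfin _ (hF'm p hp).1 _)]
  have key := h w ρ R hw hwR hwρ hρw (κ × (ℤ × ℤ × ℤ)) F' (fun p => C p.1)
    (fun p => cpt w0 ρ0 (C p.1) p.2) a (fun p _ => ha0 p)
    (fun p hp => (hC _ (hF'm p hp).1).trans hV) (fun p hp => (hF'm p hp).2) Δ hΔ ?_
  · have e1 : ENNReal.ofReal (∑ p ∈ F', a p * (w ^ 2 * ρ)) = ∑ m ∈ F, ∫⁻ y in S m, U m y := by
      rw [ENNReal.ofReal_sum_of_nonneg (fun p _ => by have := ha0 p; positivity)]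
      rw [Finset.sum_congr rfl haμ, hsum (fun p => μ p.1 p.2)]
      refine Finset.sum_congr rfl fun m hm => ?_
      simp only [hμ]
      rw [sum_cells (measurable_cix w0 ρ0 (C m)) (U m) (hSm m) (Zm m)]
      congr 2
      ext y
      simp only [Set.mem_inter_iff, Set.mem_ofPred_eq, and_iff_left_iff_imp]
      exact fun hy => hmem m hm y hy
    rw [e1] at key
    refine le_trans ?_ key
    refine lintegral_mono fun t => lintegral_mono fun X => ?_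
    refine ENNReal.rpow_le_rpow ?_ (by norm_num)
    -- domination
    have e2 : ∀ p ∈ F', (if Nr w ρ (C p.1) (cpt w0 ρ0 (C p.1) p.2) X t then
        ENNReal.ofReal (a p) else 0) =
        ENNReal.ofReal ((w ^ 2 * ρ)⁻¹) * (fun p : κ × (ℤ × ℤ × ℤ) =>
          if Nr w ρ (C p.1) (cpt w0 ρ0 (C p.1) p.2) X t then μ p.1 p.2 else 0) p := by
      intro p hp
      simp only
      split_ifs
      · rw [← haμ p hp, ← ENNReal.ofReal_mul (by positivity)]
        congr 1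
        field_simp
      · simp
    rw [Finset.sum_congr rfl e2]
    rw [← Finset.mul_sum, hsum (fun p : κ × (ℤ × ℤ × ℤ) =>
          if Nr w ρ (C p.1) (cpt w0 ρ0 (C p.1) p.2) X t then μ p.1 p.2 else 0)]
    refine mul_le_mul' le_rfl (Finset.sum_le_sum fun m hm => ?_)
    simp only
    rw [← Finset.sum_filter]
    simp only [hμ]
    rw [sum_cells (measurable_cix w0 ρ0 (C m)) (U m) (hSm m)]
    refine lintegral_mono_set fun y hy => ⟨hy.1, ?_⟩
    refine Finset.mem_filter.2 ⟨hmem m hm y hy.1, ?_⟩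
    obtain ⟨h1, h2⟩ := near_cpt hw00 hρ00 (C m) y
    obtain ⟨h3, h4⟩ := hy.2
    set q : E3 := cpt w0 ρ0 (C m) (cix w0 ρ0 (C m) y) with hq
    have e3 : X + t • vel (C m) - q = (y - q) - (y - (X + t • vel (C m))) := by abel
    unfold Nr
    rw [e3, lat_sub, nrm_sub0]
    constructor
    · refine (norm_sub_le _ _).trans ((add_le_add h1 h3).trans ?_)
      rw [hw0]; linarith
    · refine (abs_sub _ _).trans ((add_le_add h2 h4).trans ?_)
      rw [hρ0]; linarith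
  · -- test sets
    intro A c hA
    have hc := hT w ρ R A c hA
    have h1 := hbox A c hA
    have h2 : ENNReal.ofReal (∑ p ∈ F', (if (C p.1, cpt w0 ρ0 (C p.1) p.2) ∈ A then
        a p * (w ^ 2 * ρ) else 0)) ≤ ENNReal.ofReal (Δ * c) := by
      refine le_trans ?_ h1
      rw [ENNReal.ofReal_sum_of_nonneg (fun p _ => by
        have := ha0 p
        split_ifs <;> positivity)]
      have e2 : ∀ p ∈ F', ENNReal.ofReal (if (C p.1, cpt w0 ρ0 (C p.1) p.2) ∈ A then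
          a p * (w ^ 2 * ρ) else 0) =
          (fun p : κ × (ℤ × ℤ × ℤ) => if (C p.1, cpt w0 ρ0 (C p.1) p.2) ∈ A then
            μ p.1 p.2 else 0) p := by
        intro p hp
        simp only
        split_ifs
        · exact haμ p hp
        · simp
      rw [Finset.sum_congr rfl e2]
      rw [hsum (fun p : κ × (ℤ × ℤ × ℤ) => if (C p.1, cpt w0 ρ0 (C p.1) p.2) ∈ A then
            μ p.1 p.2 else 0)]
      refine Finset.sum_le_sum fun m hm => ?_
      simp only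
      rw [← Finset.sum_filter]
      simp only [hμ]
      rw [sum_cells (measurable_cix w0 ρ0 (C m)) (U m) (hSm m)]
      refine lintegral_mono_set fun y hy => ⟨hy.1, ?_⟩
      have hy2 : cix w0 ρ0 (C m) y ∈ (Zm m).filter
        (fun k => (C m, cpt w0 ρ0 (C m) k) ∈ A) := hy.2
      obtain ⟨h3, h4⟩ := near_cpt hw00 hρ00 (C m) y
      exact ⟨_, (Finset.mem_filter.1 hy2).2, h3.trans (by rw [hw0]; linarith),
        h4.trans (by rw [hρ0]; linarith)⟩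
    rwa [ENNReal.ofReal_le_ofReal_iff (by positivity)] at h2

end

end Crest.Agent.R116.Ckm538
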