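import Crest.Agent.R116.Br7_430
import Crest.Agent.R116.Ckm1_538

/-!
# R116 (S0155), bridge K side -> wave side, part 8: the bridge (helper430)

`bridge : 1 ≤ M → (∀ V, LKMtube (SSr M) V) → ∀ M2 ≥ 5 + 5 M, ∀ V, LKMg (SSg M2) V`.
PRODUCER: 79 (`LKMtube (SSr M)`).  CONSUMER: 538 (`KMt` from `LKMg (SSg M2)`).
-/

set_option autoImplicit false

open MeasureTheory
open scoped ENNReal

namespace Crest.Agent.R116.Br430

open Crest.Agent.R116.LZg725
open Crest.Agent.R116.CDef480 (E3 lat pt vel)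
open Crest.Agent.R116.LKMDef299 (Cpt LRay SSr SSg LKMtube)
open Crest.Agent.R116.Ckm538 (Nr LKMg)
open Crest.Agent.R138.Tub70 (Lat nr norm_sub_nr)

/-! ### dilations -/

/-- dilated conformal function: `(cfd R p)(R x, R y, R s) = R p(x, y, s)`. -/
noncomputable def cfd (R : ℝ) (p : Cf E2) : Cf E2 := ⟨R * p.a0, p.a1, p.be, p.g, p.d / R⟩

section dil

variable {R : ℝ} (hR : 0 < R)
include hR

theorem cfd_ev (p : Cf E2) (x : E2) (y s : ℝ) :
    (cfd R p).ev (R • x) (R * y) (R * s) = R * p.ev x y s := by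
  unfold cfd Cf.ev
  simp only
  rw [real_inner_smul_right, norm_smul, Real.norm_eq_abs, mul_pow, sq_abs]
  field_simp

theorem cfd_ny (p : Cf E2) (s : ℝ) : (cfd R p).ny (R * s) = p.ny s := by
  unfold cfd Cf.ny
  simp only
  field_simp

theorem cfd_ld (p : Cf E2) (C x : E2) (y s : ℝ) :
    (cfd R p).ld C (R • x) (R * y) (R * s) = p.ld C x y s := by
  have h := cfd_ny hR p s
  unfold Cf.ld
  rw [h]
  unfold cfd
  simp only
  have e1 : (2 * (p.d / R)) • (R • x) = (2 * p.d) • x := by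
    rw [smul_smul]; congr 1; field_simp
  rw [e1]
  field_simp

theorem cfd_disc (p : Cf E2) : (cfd R p).disc = p.disc := by
  unfold cfd Cf.disc
  simp only
  field_simp

omit hR in
theorem nrm_dil (C x : E2) (y s : ℝ) : nrm C (R • x) (R * y) (R * s) = R * nrm C x y s := by
  unfold nrm
  rw [real_inner_smul_right]
  ring

theorem cfd_adm {M : ℝ} {c : E2} {sg T r : ℝ} {x0 : E2} {y0 s0 : ℝ} {p : Cf E2}
    (h : Adm M c sg T r x0 y0 s0 p) :
    Adm M c sg T (R * r) (R • x0) (R * y0) (R * s0) (cfd R p) := by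
  refine ⟨by rw [cfd_disc hR]; exact h.disc, fun s hs => ?_, ?_, ?_⟩
  · have e : s = R * (s / R) := by field_simp
    rw [e, cfd_ny hR]
    refine h.ny (s / R) ?_
    have e1 : s / R - s0 = (s - R * s0) / R := by field_simp
    rw [e1, abs_div, abs_of_pos hR, div_le_iff₀ hR]
    linarith
  · rw [cfd_ld hR]; exact h.ld
  · rw [cfd_ev hR, abs_mul, abs_of_pos hR]
    have := mul_le_mul_of_nonneg_left h.ev hR.le
    linarith

/-- the dilated member. -/
noncomputable def dil (R : ℝ) (m : Mem) : Mem :=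
  ⟨m.c, m.sg, m.s1, R * m.R, R • m.X0, R * m.s0, cfd R m.phi⟩

theorem dil_T (m : Mem) (B : ℝ) : (dil R m).T (R * B) = m.T B := by
  unfold Mem.T dil
  simp only
  rw [mul_div_mul_left _ _ hR.ne']

theorem dil_scost (m : Mem) (B : ℝ) : (dil R m).scost (R * B) = R ^ 3 * m.scost B := by
  unfold Mem.scost
  rw [dil_T hR]
  unfold dil
  simp only
  ring

theorem dil_ok {M B : ℝ} {m : Mem} (h : m.Ok M B) : (dil R m).Ok M (R * B) := by
  refine ⟨mul_pos hR h.hR, h.hs1, h.hsg, ?_⟩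
  rw [dil_T hR]
  change Adm M m.c m.sg (m.T B) (R * m.R) (lat (R • m.X0)) (R * m.X0 2) (R * m.s0) (cfd R m.phi)
  rw [CDef480.lat_smul]
  exact cfd_adm hR h.adm

theorem dil_cpt {M B : ℝ} {m : Mem} (h : Cpt M B m) : Cpt M (R * B) (dil R m) := by
  intro s hs
  change |s - R * m.s0| ≤ R * m.R at hs
  change |(cfd R m.phi).ny s| * (R * B) ≤ M * (m.s1 * (R * m.R))
  have e : s = R * (s / R) := by field_simp
  rw [e, cfd_ny hR]
  have h1 := h (s / R) (by
    have e1 : s / R - m.s0 = (s - R * m.s0) / R := by field_simp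
    rw [e1, abs_div, abs_of_pos hR, div_le_iff₀ hR]
    linarith)
  have := mul_le_mul_of_nonneg_left h1 hR.le
  linarith

omit hR in
theorem rx_dil (C a : E2) (s : ℝ) : rx C (R • a) (R * s) = R • rx C a s := by
  unfold rx; module

omit hR in
theorem ry_dil (C : E2) (k s : ℝ) : ry C (R * k) (R * s) = R * ry C k s := by
  unfold ry; ring

theorem dil_rays {B : ℝ} {m : Mem} {C a : E2} {k : ℝ} (h : (C, a, k) ∈ m.rays B) :
    (C, R • a, R * k) ∈ (dil R m).rays (R * B) := by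
  rw [Mem.mem_rays] at h ⊢
  rw [dil_T hR]
  obtain ⟨h1, h2⟩ := h
  refine ⟨h1, fun s hs => ?_⟩
  change |s - R * m.s0| ≤ R * m.R at hs
  have e : s = R * (s / R) := by field_simp
  have h3 := h2 (s / R) (by
    have e1 : s / R - m.s0 = (s - R * m.s0) / R := by field_simp
    rw [e1, abs_div, abs_of_pos hR, div_le_iff₀ hR]
    linarith)
  obtain ⟨⟨g1, g2, g3⟩, g4⟩ := h3
  simp only at g1 g2 g3 g4
  change InK m.c m.sg (m.T B) (R * m.R) (lat (R • m.X0)) (R * m.X0 2) (R * m.s0)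
    (rx C (R • a) s) (ry C (R * k) s) s ∧
    |(cfd R m.phi).ev (rx C (R • a) s) (ry C (R * k) s) s| ≤ m.s1 * (R * m.R)
  rw [CDef480.lat_smul]
  set t := s / R with ht
  rw [e, rx_dil, ry_dil]
  refine ⟨⟨?_, ?_, ?_⟩, ?_⟩
  · rw [← mul_sub, abs_mul, abs_of_pos hR]
    gcongr
  · have e2 : R • rx C a t - R • lat m.X0 + (R * t - R * m.s0) • m.c =
        R • (rx C a t - lat m.X0 + (t - m.s0) • m.c) := by module
    rw [e2, norm_smul, Real.norm_of_nonneg hR.le]
    have := mul_le_mul_of_nonneg_left g2 hR.le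
    linarith
  · rw [nrm_dil, nrm_dil, ← mul_sub, abs_mul, abs_of_pos hR]
    have := mul_le_mul_of_nonneg_left g3 hR.le
    linarith
  · rw [cfd_ev hR, abs_mul, abs_of_pos hR]
    have := mul_le_mul_of_nonneg_left g4 hR.le
    linarith

end dil

/-! ### integrals -/

theorem lint_dil3 {R : ℝ} (hR : 0 < R) (f : E3 → ℝ≥0∞) :
    ∫⁻ X, f X = ENNReal.ofReal (R ^ 3) * ∫⁻ X : E3, f (R • X) := by
  have h2 := Measure.map_addHaar_smul (volume : Measure E3) hR.ne'
  rw [finrank_euclideanSpace_fin, abs_of_pos (by positivity)] at h2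
  have h3 : ∫⁻ x, f x ∂(Measure.map (R • · : E3 → E3) volume) = ∫⁻ x : E3, f (R • x) := by
    have := lintegral_map_equiv (μ := (volume : Measure E3)) f
      (Homeomorph.smulOfNeZero R hR.ne').toMeasurableEquiv
    simpa using this
  rw [← h3, h2, lintegral_smul_measure, smul_eq_mul, ← mul_assoc,
    ← ENNReal.ofReal_mul (by positivity), mul_inv_cancel₀ (by positivity), ENNReal.ofReal_one,
    one_mul]

theorem lint_dil1 {R : ℝ} (hR : 0 < R) (f : ℝ → ℝ≥0∞) :
    ∫⁻ t in Set.Icc (-R) R, f t = ENNReal.ofReal R * ∫⁻ s in Set.Icc (-1 : ℝ) 1, f (R * s) := by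
  have h2 := Measure.map_addHaar_smul (volume : Measure ℝ) hR.ne'
  rw [Module.finrank_self, pow_one, abs_of_pos (by positivity)] at h2
  rw [← lintegral_indicator measurableSet_Icc, ← lintegral_indicator measurableSet_Icc]
  have h3 : ∫⁻ x, (Set.Icc (-R) R).indicator f x ∂(Measure.map (R • · : ℝ → ℝ) volume) =
      ∫⁻ x : ℝ, (Set.Icc (-R) R).indicator f (R • x) := by
    have := lintegral_map_equiv (μ := (volume : Measure ℝ)) ((Set.Icc (-R) R).indicator f)
      (Homeomorph.smulOfNeZero R hR.ne').toMeasurableEquiv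
    simpa using this
  have h4 : ∀ x : ℝ, (Set.Icc (-R) R).indicator f (R • x) =
      (Set.Icc (-1 : ℝ) 1).indicator (fun s => f (R * s)) x := by
    intro x
    have h5 : R • x ∈ Set.Icc (-R) R ↔ x ∈ Set.Icc (-1 : ℝ) 1 := by
      rw [Set.mem_Icc, Set.mem_Icc, smul_eq_mul]
      constructor
      · rintro ⟨a, b⟩
        exact ⟨by nlinarith, by nlinarith⟩
      · rintro ⟨a, b⟩
        exact ⟨by nlinarith, by nlinarith⟩
    by_cases h6 : x ∈ Set.Icc (-1 : ℝ) 1
    · rw [Set.indicator_of_mem (h5.mpr h6), Set.indicator_of_mem h6, smul_eq_mul]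
    · rw [Set.indicator_of_notMem (fun hn => h6 (h5.mp hn)), Set.indicator_of_notMem h6]
  rw [lintegral_congr h4] at h3
  rw [← h3, h2, lintegral_smul_measure, smul_eq_mul, ← mul_assoc,
    ← ENNReal.ofReal_mul (by positivity), mul_inv_cancel₀ (by positivity), ENNReal.ofReal_one,
    one_mul]

/-! ### the incidence -/

theorem Nr_iff {R w ρ : ℝ} (hR : 0 < R) (C : E2) (y X : E3) (s : ℝ) :
    Nr (R * w) (R * ρ) C y (R • X) (R * s) ↔
      InPk w ρ C (R⁻¹ • lat y) (R⁻¹ * y 2) (lat X) (X 2) s := by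
  have e1 : R • X + (R * s) • vel C - y = R • (X + s • vel C - R⁻¹ • y) := by
    rw [smul_sub, smul_add, smul_smul, smul_smul, mul_inv_cancel₀ hR.ne', one_smul]
  unfold Nr InPk
  rw [e1, CDef480.lat_smul, norm_smul, Real.norm_of_nonneg hR.le, mul_le_mul_iff_right₀ hR,
    Ckm538.nrm_smul0, abs_mul, abs_of_pos hR, mul_le_mul_iff_right₀ hR]
  have e2 : lat (X + s • vel C - R⁻¹ • y) = lat X - rx C (R⁻¹ • lat y) s := by
    rw [CDef480.lat_sub, CDef480.lat_add, CDef480.lat_smul, CDef480.lat_smul]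
    unfold vel rx
    rw [CDef480.lat_pt]
    abel
  have e3 : CDef480.nrm C (X + s • vel C - R⁻¹ • y) 0 =
      nrm C (lat X) (X 2) s - (R⁻¹ * y 2 + inner ℝ C (R⁻¹ • lat y)) := by
    rw [Ckm538.nrm_zero, e2]
    unfold nrm rx vel
    simp only [PiLp.sub_apply, PiLp.add_apply, PiLp.smul_apply, smul_eq_mul, CDef480.pt_two,
      inner_sub_right, real_inner_smul_right, real_inner_self_eq_norm_sq]
    ring
  rw [e2, e3]

/-! ### the bridge -/

open Classical in
/-- **BRIDGE**: the isotropic tube inequality of length one gives the plank inequality of all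
lengths, for the conformal classes. -/
theorem bridge {M : ℝ} (hM : 1 ≤ M) (hK : ∀ V, LKMtube (SSr M) V) {M2 : ℝ}
    (hM2 : 5 + 5 * M ≤ M2) (V : ℝ) : LKMg (SSg M2) V := by
  intro ε hε
  obtain ⟨K, hK0, hK1⟩ := lkm_norm hM (le_max_right V 0) (hK (7 * max V 0 + 11)) hε
  refine ⟨K, hK0, ?_⟩
  intro w ρ R hw hwR hwρ hρw ι F C y W hW hC hy Δ hΔ H
  have hR : 0 < R := hw.trans_le hwR
  have hρ : 0 < ρ := by
    by_contra hn
    have : ρ * R ≤ 0 := mul_nonpos_of_nonpos_of_nonneg (not_lt.1 hn) hR.le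
    nlinarith [pow_pos hw 2]
  have ew : R * (w / R) = w := by field_simp
  have eρ : R * (ρ / R) = ρ := by field_simp
  have hlat : ∀ X : E3, ‖lat X‖ ≤ ‖X‖ := Ckm538.lat_norm_le
  have htwo : ∀ X : E3, |X 2| ≤ ‖X‖ := Ckm538.two_norm_le
  have main := hK1 (w / R) (ρ / R) (by positivity) (by rw [div_le_one hR]; exact hwR)
    (by
      rw [div_pow, div_le_div_iff₀ (by positivity) hR]
      have := mul_le_mul_of_nonneg_right hwρ hR.le
      linarith [mul_assoc ρ R R, sq R])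
    (div_le_div_of_nonneg_right hρw hR.le) ι F C (fun i => R⁻¹ • lat (y i))
    (fun i => R⁻¹ * (y i) 2) W hW (fun i hi => (hC i hi).trans (le_max_left _ _))
    (fun i hi => ?_) (fun i hi => ?_) Δ hΔ ?_
  · -- conclusion
    have h1 : ∫⁻ t in Set.Icc (-R) R, ∫⁻ X in {X : E3 | ‖X‖ ≤ R},
        (∑ i ∈ F, (if Nr w ρ (C i) (y i) X t then ENNReal.ofReal (W i) else 0)) ^ (3/2 : ℝ) ≤
        ∫⁻ t in Set.Icc (-R) R, ∫⁻ X : E3,
        (∑ i ∈ F, (if Nr w ρ (C i) (y i) X t then ENNReal.ofReal (W i) else 0)) ^ (3/2 : ℝ) :=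
      lintegral_mono fun t => setLIntegral_le_lintegral _ _
    refine h1.trans ?_
    rw [lint_dil1 hR]
    have h2 : ∀ s : ℝ, ∫⁻ X : E3,
        (∑ i ∈ F, (if Nr w ρ (C i) (y i) X (R * s) then ENNReal.ofReal (W i) else 0)) ^
          (3/2 : ℝ) = ENNReal.ofReal (R ^ 3) * ∫⁻ X : E3,
        (∑ i ∈ F, (if InPk (w / R) (ρ / R) (C i) (R⁻¹ • lat (y i)) (R⁻¹ * (y i) 2)
          (lat X) (X 2) s then ENNReal.ofReal (W i) else 0)) ^ (3/2 : ℝ) := by
      intro s
      rw [lint_dil3 hR]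
      congr 1
      refine lintegral_congr fun X => ?_
      congr 1
      refine Finset.sum_congr rfl fun i _ => ?_
      have h3 := Nr_iff (w := w / R) (ρ := ρ / R) hR (C i) (y i) X s
      rw [ew, eρ] at h3
      by_cases h4 : InPk (w / R) (ρ / R) (C i) (R⁻¹ • lat (y i)) (R⁻¹ * (y i) 2) (lat X) (X 2) s
      · rw [if_pos (h3.mpr h4), if_pos h4]
      · rw [if_neg (fun hn => h4 (h3.mp hn)), if_neg h4]
    rw [lintegral_congr h2, lintegral_const_mul' _ _ ENNReal.ofReal_ne_top]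
    refine (mul_le_mul_right (mul_le_mul_right main _) _).trans (le_of_eq ?_)
    have hE : 0 ≤ ∑ i ∈ F, W i * (w ^ 2 * ρ) :=
      Finset.sum_nonneg fun i hi => mul_nonneg (hW i hi) (by positivity)
    rw [← ENNReal.ofReal_mul (by positivity), ← ENNReal.ofReal_mul hR.le,
      ← ENNReal.ofReal_mul (by positivity)]
    congr 1
    rw [← Finset.sum_mul, ← Finset.sum_mul]
    field_simp
  · -- positions
    rw [norm_smul, norm_inv, Real.norm_of_nonneg hR.le, inv_mul_le_iff₀ hR]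
    calc ‖lat (y i)‖ ≤ V * R := (hlat _).trans (hy i hi)
      _ ≤ R * max V 0 := by
        rw [mul_comm]
        gcongr
        exact le_max_left _ _
  · -- heights
    rw [abs_mul, abs_inv, abs_of_pos hR, inv_mul_le_iff₀ hR]
    calc |(y i) 2| ≤ V * R := (htwo _).trans (hy i hi)
      _ ≤ R * max V 0 := by
        rw [mul_comm]
        gcongr
        exact le_max_left _ _
  · -- mass
    intro m hok hcpt hmR hms0 hms1 hmsg
    have hS : SSg M2 w ρ R {r | (r.1, lat r.2, r.2 2) ∈ (dil R m).rays ρ}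
        ((dil R m).scost ρ) := by
      refine ⟨dil R m, ?_, ?_, ?_, ?_, ?_, hmsg, rfl, rfl⟩
      · have := dil_ok hR hok
        rw [eρ] at this
        exact LKMDef299.Ok.mono this hM2
      · have h1 := dil_cpt hR hcpt
        rw [eρ] at h1
        refine LKMDef299.Cpt.mono h1 ?_ hM2
        change 0 ≤ m.s1 * (R * m.R)
        have := hok.hs1
        have := hok.hR
        positivity
      · change R * m.R = R
        rw [hmR, mul_one]
      · change R * m.s0 = 0
        rw [hms0, mul_zero]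
      · change w ≤ m.s1 * R
        rwa [div_le_iff₀ hR] at hms1
    have h1 := H _ _ hS
    have h2 : (dil R m).scost ρ = R ^ 3 * m.scost (ρ / R) := by
      have := dil_scost hR m (ρ / R)
      rwa [eρ] at this
    rw [h2] at h1
    have h3 : ∀ i ∈ F, (if (C i, R⁻¹ • lat (y i), R⁻¹ * (y i) 2) ∈ m.rays (ρ / R) then
        W i * ((w / R) ^ 2 * (ρ / R)) else 0) ≤ (R ^ 3)⁻¹ *
        (if (C i, y i) ∈ {r : E2 × E3 | (r.1, lat r.2, r.2 2) ∈ (dil R m).rays ρ} then
          W i * (w ^ 2 * ρ) else 0) := by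
      intro i hi
      have hWi := hW i hi
      by_cases h4 : (C i, R⁻¹ • lat (y i), R⁻¹ * (y i) 2) ∈ m.rays (ρ / R)
      · have h5 := dil_rays hR h4
        rw [eρ, smul_smul, mul_inv_cancel₀ hR.ne', one_smul, ← mul_assoc,
          mul_inv_cancel₀ hR.ne', one_mul] at h5
        rw [if_pos h4, if_pos (show (C i, y i) ∈ {r : E2 × E3 |
          (r.1, lat r.2, r.2 2) ∈ (dil R m).rays ρ} from h5)]
        refine le_of_eq ?_
        field_simp
      · rw [if_neg h4]
        split_ifs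
        · positivity
        · simp
    refine (Finset.sum_le_sum h3).trans ?_
    rw [← Finset.mul_sum, inv_mul_le_iff₀ (by positivity)]
    refine h1.trans (le_of_eq ?_)
    ring

/-- existence form of the bridge. -/
theorem bridge_exists {M : ℝ} (hM : 1 ≤ M) (hK : ∀ V, LKMtube (SSr M) V) :
    ∃ M0 : ℝ, 1 ≤ M0 ∧ ∀ M2, M0 ≤ M2 → ∀ V, LKMg (SSg M2) V :=
  ⟨5 + 5 * M, by linarith, fun _ h V => bridge hM hK h V⟩

/-- from 299's `LKM`. -/
theorem bridge_LKM (h : LKMDef299.LKM) : ∃ M0 : ℝ, 1 ≤ M0 ∧ ∀ M2, M0 ≤ M2 → ∀ V,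
    LKMg (SSg M2) V := by
  obtain ⟨M, hM, hK⟩ := h
  exact bridge_exists hM hK

end Crest.Agent.R116.Br430
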