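import Crest.Agent.R116.LKMDef_299
import Crest.Agent.R116.Ckm1_538

/-!
# R116, BRIDGE, scaling half (helper299)

`SSc M δ ρ A v` = the class `SSr` with the compatibility condition `Cpt` (planks `δ × δ × ρ`).
`lkmg_of_thin : LKMthin (SSc M) V → LKMg (SSg M) V` (dilation by `R` of rays, members, integrals).
-/

set_option autoImplicit false

open MeasureTheory
open scoped ENNReal

namespace Crest.Agent.R116.LKMDef299

open Crest.Agent.R138.Defs (E2)
open Crest.Agent.R116.CDef480 (E3 lat pt vel nrm)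
open Crest.Agent.R116.LZg725 (Cf Mem rpos rx ry RayIn InK)
open Crest.Agent.R116.Ckm538 (LKMg Nr)

/-- class of test sets of full length with compatibility, resolution `δ`, thin side `ρ`. -/
def SSc (M : ℝ) (δ ρ : ℝ) (A : Set LRay) (v : ℝ) : Prop :=
  ∃ m : Mem, m.Ok M ρ ∧ Cpt M ρ m ∧ m.R = 1 ∧ m.s0 = 0 ∧ δ ≤ m.s1 ∧ m.sg ≤ 1 ∧ A = m.rays ρ ∧
    v = m.scost ρ

theorem SSc.ssr {M δ ρ : ℝ} {A : Set LRay} {v : ℝ} (h : SSc M δ ρ A v) : SSr M δ ρ A v := by
  obtain ⟨m, h1, -, h2⟩ := h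
  exact ⟨m, h1, h2⟩

theorem SSc.mono {M M' δ ρ : ℝ} {A : Set LRay} {v : ℝ} (h : SSc M δ ρ A v) (hM : M ≤ M') :
    SSc M' δ ρ A v := by
  obtain ⟨σ, h1, h2, h3⟩ := h
  exact ⟨σ, Ok.mono h1 hM, Cpt.mono h2 (mul_nonneg h1.hs1.le h1.hR.le) hM, h3⟩

/-! ### dilation of conformal functions and members -/

/-- dilation of a conformal function. -/
noncomputable def dilf (R : ℝ) (p : Cf E2) : Cf E2 := ⟨R * p.a0, p.a1, p.be, p.g, p.d / R⟩

section dil

variable {R : ℝ} (hR : 0 < R) (p : Cf E2)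

include hR

theorem dilf_ev (x : E2) (y s : ℝ) : (dilf R p).ev (R • x) (R * y) (R * s) = R * p.ev x y s := by
  unfold Cf.ev dilf
  simp only []
  rw [norm_smul, real_inner_smul_right, Real.norm_of_nonneg hR.le]
  field_simp

theorem dilf_ny (s : ℝ) : (dilf R p).ny (R * s) = p.ny s := by
  unfold Cf.ny dilf
  simp only []
  field_simp

theorem dilf_ld (C x : E2) (y s : ℝ) : (dilf R p).ld C (R • x) (R * y) (R * s) = p.ld C x y s := by
  unfold Cf.ld
  rw [dilf_ny hR]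
  have e1 : (2 * (dilf R p).d) • (R • x) = (2 * p.d) • x := by
    unfold dilf
    simp only []
    rw [smul_smul]
    congr 1
    field_simp
  have e2 : 2 * (dilf R p).d * (R * y) = 2 * p.d * y := by
    unfold dilf
    simp only []
    field_simp
  have e3 : (dilf R p).a1 = p.a1 := rfl
  have e4 : (dilf R p).be = p.be := rfl
  rw [e1, e2, e3, e4]

theorem dilf_disc : (dilf R p).disc = p.disc := by
  unfold Cf.disc dilf
  simp only []
  field_simp

end dil

/-- dilation of a member. -/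
noncomputable def dilm (R : ℝ) (m : Mem) : Mem :=
  ⟨m.c, m.sg, m.s1, R * m.R, R • m.X0, R * m.s0, dilf R m.phi⟩

section dilm

variable {R : ℝ} (hR : 0 < R) (m : Mem)

include hR

theorem dilm_T (B : ℝ) : (dilm R m).T (R * B) = m.T B := by
  unfold Mem.T dilm
  simp only []
  rw [mul_div_mul_left _ _ hR.ne']

theorem dilm_scost (B : ℝ) : (dilm R m).scost (R * B) = m.scost B * R ^ 3 := by
  unfold Mem.scost
  rw [dilm_T hR]
  unfold dilm
  simp only []
  ring

omit hR in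
theorem lat_smul_E3 (X : E3) : lat (R • X) = R • lat X := CDef480.lat_smul R X

omit hR in
theorem smul_two (X : E3) : (R • X) 2 = R * X 2 := rfl

theorem dilm_ok {M B : ℝ} (h : m.Ok M B) : (dilm R m).Ok M (R * B) := by
  have hs : ∀ s : ℝ, s = R * (s / R) := fun s => by field_simp
  refine ⟨mul_pos hR h.hR, h.hs1, h.hsg, ?_⟩
  rw [dilm_T hR]
  unfold dilm
  simp only []
  rw [lat_smul_E3, smul_two]
  refine ⟨?_, ?_, ?_, ?_⟩
  · rw [dilf_disc hR]; exact h.adm.disc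
  · intro s hs'
    rw [hs s, dilf_ny hR]
    refine h.adm.ny _ ?_
    rw [hs s, ← mul_sub, abs_mul, abs_of_pos hR] at hs'
    exact le_of_mul_le_mul_left hs' hR
  · rw [dilf_ld hR]; exact h.adm.ld
  · rw [dilf_ev hR, abs_mul, abs_of_pos hR]
    have := mul_le_mul_of_nonneg_left h.adm.ev hR.le
    calc R * |m.phi.ev (lat m.X0) (m.X0 2) m.s0| ≤ R * (M * m.sg * m.R) := this
      _ = M * m.sg * (R * m.R) := by ring

theorem dilm_cpt {M B : ℝ} (h : Cpt M B m) : Cpt M (R * B) (dilm R m) := by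
  have hs : ∀ s : ℝ, s = R * (s / R) := fun s => by field_simp
  intro s hs'
  unfold dilm at hs' ⊢
  simp only [] at hs' ⊢
  rw [hs s, dilf_ny hR]
  rw [hs s, ← mul_sub, abs_mul, abs_of_pos hR] at hs'
  have h1 := h (s / R) (le_of_mul_le_mul_left hs' hR)
  calc |m.phi.ny (s / R)| * (R * B) = R * (|m.phi.ny (s / R)| * B) := by ring
    _ ≤ R * (M * (m.s1 * m.R)) := mul_le_mul_of_nonneg_left h1 hR.le
    _ = M * (m.s1 * (R * m.R)) := by ring

omit hR in
theorem rx_dil (C a : E2) (s : ℝ) : rx C (R • a) (R * s) = R • rx C a s := by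
  unfold rx; rw [smul_sub, smul_smul]

omit hR in
theorem ry_dil (C : E2) (k s : ℝ) : ry C (R * k) (R * s) = R * ry C k s := by
  unfold ry; ring

omit hR in
theorem nrm_dil (C x : E2) (y s : ℝ) :
    LZg725.nrm C (R • x) (R * y) (R * s) = R * LZg725.nrm C x y s := by
  unfold LZg725.nrm; rw [real_inner_smul_right]; ring

theorem dilm_rays {B : ℝ} {C a : E2} {k : ℝ} (h : (C, a, k) ∈ m.rays B) :
    (C, R • a, R * k) ∈ (dilm R m).rays (R * B) := by
  have hs : ∀ s : ℝ, s = R * (s / R) := fun s => by field_simp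
  rw [LZg725.Mem.mem_rays] at h ⊢
  obtain ⟨h1, h2⟩ := h
  refine ⟨h1, fun s hs' => ?_⟩
  rw [dilm_T hR]
  unfold dilm at hs' ⊢
  simp only [] at hs' ⊢ h2
  rw [hs s] at hs' ⊢
  rw [← mul_sub, abs_mul, abs_of_pos hR] at hs'
  have hs'' := le_of_mul_le_mul_left hs' hR
  obtain ⟨⟨h3, h4, h5⟩, h6⟩ := h2 (s / R) hs''
  rw [rx_dil, ry_dil, lat_smul_E3, smul_two, dilf_ev hR]
  refine ⟨⟨?_, ?_, ?_⟩, ?_⟩
  · rw [← mul_sub, abs_mul, abs_of_pos hR]
    exact mul_le_mul_of_nonneg_left h3 hR.le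
  · rw [← smul_sub, ← mul_sub, mul_smul, ← smul_add, norm_smul, Real.norm_of_nonneg hR.le]
    calc R * ‖rx C a (s / R) - lat m.X0 + (s / R - m.s0) • m.c‖ ≤ R * (m.sg * m.R) :=
          mul_le_mul_of_nonneg_left h4 hR.le
      _ = m.sg * (R * m.R) := by ring
  · rw [nrm_dil, nrm_dil, ← mul_sub, abs_mul, abs_of_pos hR]
    calc R * |LZg725.nrm m.c (rx C a (s / R)) (ry C k (s / R)) (s / R) -
          LZg725.nrm m.c (lat m.X0) (m.X0 2) m.s0| ≤ R * (m.T B * m.R) :=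
          mul_le_mul_of_nonneg_left h5 hR.le
      _ = m.T B * (R * m.R) := by ring
  · rw [abs_mul, abs_of_pos hR]
    calc R * |m.phi.ev (rx C a (s / R)) (ry C k (s / R)) (s / R)| ≤ R * (m.s1 * m.R) :=
          mul_le_mul_of_nonneg_left h6 hR.le
      _ = m.s1 * (R * m.R) := by ring

end dilm

/-! ### scaling of integrals -/

theorem lint_scale3 {R : ℝ} (hR : 0 < R) (f : E3 → ℝ≥0∞) :
    ∫⁻ X, f (R⁻¹ • X) = ENNReal.ofReal (R ^ 3) * ∫⁻ X, f X := by
  have h1 := Measure.map_addHaar_smul (volume : Measure E3) (r := R⁻¹) (by positivity)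
  have h2 : (Homeomorph.smulOfNeZero R⁻¹ (inv_ne_zero hR.ne') : E3 ≃ₜ E3).toMeasurableEquiv =
      (Homeomorph.smulOfNeZero R⁻¹ (inv_ne_zero hR.ne') : E3 ≃ₜ E3).toMeasurableEquiv := rfl
  have h3 := lintegral_map_equiv (μ := (volume : Measure E3)) f
    (Homeomorph.smulOfNeZero R⁻¹ (inv_ne_zero hR.ne') : E3 ≃ₜ E3).toMeasurableEquiv
  have h4 : Measure.map (Homeomorph.smulOfNeZero R⁻¹ (inv_ne_zero hR.ne') :
      E3 ≃ₜ E3).toMeasurableEquiv (volume : Measure E3) =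
      ENNReal.ofReal |(R⁻¹ ^ Module.finrank ℝ E3)⁻¹| • volume := h1
  rw [h4, lintegral_smul_measure] at h3
  have h5 : |(R⁻¹ ^ Module.finrank ℝ E3)⁻¹| = R ^ 3 := by
    rw [show Module.finrank ℝ E3 = 3 by simp [E3], inv_pow, inv_inv, abs_of_pos (by positivity)]
  rw [h5] at h3
  exact h3.symm

theorem lint_scale1 {R : ℝ} (hR : 0 < R) (f : ℝ → ℝ≥0∞) :
    ∫⁻ t in Set.Icc (-R) R, f (R⁻¹ * t) = ENNReal.ofReal R * ∫⁻ t in Set.Icc (-1 : ℝ) 1, f t := by
  have h1 := Measure.map_addHaar_smul (volume : Measure ℝ) (r := R⁻¹) (by positivity)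
  have h3 := fun F : ℝ → ℝ≥0∞ => lintegral_map_equiv (μ := (volume : Measure ℝ)) F
    (Homeomorph.smulOfNeZero R⁻¹ (inv_ne_zero hR.ne') : ℝ ≃ₜ ℝ).toMeasurableEquiv
  have h4 : Measure.map (Homeomorph.smulOfNeZero R⁻¹ (inv_ne_zero hR.ne') :
      ℝ ≃ₜ ℝ).toMeasurableEquiv (volume : Measure ℝ) =
      ENNReal.ofReal |(R⁻¹ ^ Module.finrank ℝ ℝ)⁻¹| • volume := h1
  have h5 : |(R⁻¹ ^ Module.finrank ℝ ℝ)⁻¹| = R := by
    rw [Module.finrank_self, pow_one, inv_inv, abs_of_pos hR]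
  rw [← lintegral_indicator measurableSet_Icc, ← lintegral_indicator measurableSet_Icc]
  have h6 := h3 ((Set.Icc (-1 : ℝ) 1).indicator f)
  rw [h4, lintegral_smul_measure, h5] at h6
  refine Eq.trans (lintegral_congr fun t => ?_) h6.symm
  change (Set.Icc (-R) R).indicator (fun t => f (R⁻¹ * t)) t =
    (Set.Icc (-1 : ℝ) 1).indicator f (R⁻¹ * t)
  have e : t ∈ Set.Icc (-R) R ↔ R⁻¹ * t ∈ Set.Icc (-1 : ℝ) 1 := by
    rw [Set.mem_Icc, Set.mem_Icc, ← abs_le, ← abs_le, abs_mul, abs_of_pos (inv_pos.2 hR),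
      inv_mul_le_iff₀ hR, mul_one]
  by_cases ht : t ∈ Set.Icc (-R) R
  · rw [Set.indicator_of_mem ht, Set.indicator_of_mem (e.1 ht)]
  · rw [Set.indicator_of_notMem ht, Set.indicator_of_notMem (fun h => ht (e.2 h))]

/-! ### the theorem -/

/-- the dilated ray. -/
noncomputable def dr (R : ℝ) (C : E2) (y : E3) : LRay := (C, R⁻¹ • lat y, R⁻¹ * y 2)

theorem nr_iff {w ρ R : ℝ} (hR : 0 < R) (C : E2) (y X : E3) (t : ℝ) :
    Nr w ρ C y X t ↔ R⁻¹ • X ∈ plank (w / R) (ρ / R) (dr R C y) (R⁻¹ * t) := by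
  have hi : 0 < R⁻¹ := inv_pos.2 hR
  have e1 : lat (R⁻¹ • X) - ((dr R C y).2.1 - (R⁻¹ * t) • (dr R C y).1) =
      R⁻¹ • lat (X + t • vel C - y) := by
    unfold dr vel
    simp only []
    rw [CDef480.lat_smul, CDef480.lat_sub, CDef480.lat_add, CDef480.lat_smul, CDef480.lat_pt]
    rw [smul_sub, smul_add, smul_smul]
    abel
  have e2 : nrm (dr R C y).1 (R⁻¹ • X) (R⁻¹ * t) - nv (dr R C y) =
      R⁻¹ * nrm C (X + t • vel C - y) 0 := by
    unfold dr nv nrm vel
    simp only []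
    rw [CDef480.lat_smul, CDef480.lat_sub, CDef480.lat_add, CDef480.lat_smul, CDef480.lat_pt,
      inner_sub_right, inner_add_right, real_inner_smul_right, real_inner_smul_right,
      real_inner_smul_right, real_inner_self_eq_norm_sq]
    simp only [PiLp.sub_apply, PiLp.add_apply, PiLp.smul_apply, smul_eq_mul, CDef480.pt_two]
    ring
  unfold Nr plank
  rw [Set.mem_ofPred_eq, e1, e2, norm_smul, abs_mul, abs_of_pos hi, Real.norm_of_nonneg hi.le,
    div_eq_inv_mul, div_eq_inv_mul, mul_le_mul_iff_right₀ hi, mul_le_mul_iff_right₀ hi]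

open Classical in
/-- **scaling**: LKM for planks at unit length gives 538's form at length `R`. -/
theorem lkmg_of_thin {M V : ℝ} (h : LKMthin (SSc M) V) : LKMg (SSg M) V := by
  intro ε hε
  obtain ⟨K, hK, H⟩ := h ε hε
  refine ⟨K, hK, ?_⟩
  intro w ρ R hw hwR hwρ hρw ι F C y a ha hC hy Δ hΔ hD
  have hR : 0 < R := hw.trans_le hwR
  have hi : 0 < R⁻¹ := inv_pos.2 hR
  have hρ : 0 < ρ := by
    by_contra hcon
    push Not at hcon
    nlinarith [pow_pos hw 2]
  have h1 : (w / R) ^ 2 ≤ ρ / R := by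
    rw [div_pow, div_le_div_iff₀ (by positivity) hR]
    nlinarith
  have hn : ∀ i ∈ F, ‖lat (y i)‖ ≤ V * R ∧ |y i 2| ≤ V * R := by
    intro i hi'
    have h2 := hy i hi'
    have h4 : ‖lat (y i)‖ ≤ ‖y i‖ := Ckm538.lat_norm_le _
    have h5 : |y i 2| ≤ ‖y i‖ := by
      have := PiLp.norm_apply_le (y i) 2
      rwa [Real.norm_eq_abs] at this
    exact ⟨h4.trans h2, h5.trans h2⟩
  have key := H (w / R) (ρ / R) (by positivity) (by rwa [div_le_one hR]) h1
    (by gcongr) {i // i ∈ F} (fun i => dr R (C i) (y i)) (fun i => a i)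
    (fun i => ha i i.2) (fun i => hC i i.2) (fun i => ?_) (fun i => ?_) Δ hΔ ?_
  · -- the conclusion
    set G : ℝ → E3 → ℝ≥0∞ := fun s X => (∑ i : {i // i ∈ F},
      (if X ∈ plank (w / R) (ρ / R) (dr R (C i) (y i)) s then ENNReal.ofReal (a i) else 0)) ^
        (3/2 : ℝ) with hG
    have e1 : ∀ (t : ℝ) (X : E3), (∑ i ∈ F, (if Nr w ρ (C i) (y i) X t then
        ENNReal.ofReal (a i) else 0)) ^ (3/2 : ℝ) = G (R⁻¹ * t) (R⁻¹ • X) := by
      intro t X
      rw [hG]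
      simp only []
      congr 1
      rw [← Finset.sum_coe_sort F]
      refine Finset.sum_congr rfl fun i _ => ?_
      simp only [nr_iff hR]
    have e2 : ∀ s : ℝ, ENNReal.ofReal (R ^ 3) * ∫⁻ X, G s X = ∫⁻ X, G s (R⁻¹ • X) := fun s =>
      (lint_scale3 hR (G s)).symm
    calc ∫⁻ t in Set.Icc (-R) R, ∫⁻ X in {X : E3 | ‖X‖ ≤ R},
          (∑ i ∈ F, (if Nr w ρ (C i) (y i) X t then ENNReal.ofReal (a i) else 0)) ^ (3/2 : ℝ)
        ≤ ∫⁻ t in Set.Icc (-R) R, ENNReal.ofReal (R ^ 3) * ∫⁻ X, G (R⁻¹ * t) X := by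
          refine lintegral_mono fun t => ?_
          rw [e2]
          refine (lintegral_mono fun X => (e1 t X).le).trans ?_
          exact setLIntegral_le_lintegral _ _
      _ = ENNReal.ofReal R * ∫⁻ s in Set.Icc (-1 : ℝ) 1, ENNReal.ofReal (R ^ 3) * ∫⁻ X, G s X :=
          lint_scale1 hR fun s => ENNReal.ofReal (R ^ 3) * ∫⁻ X, G s X
      _ = ENNReal.ofReal R * (ENNReal.ofReal (R ^ 3) *
            ∫⁻ s in Set.Icc (-1 : ℝ) 1, ∫⁻ X, G s X) := by
          rw [lintegral_const_mul' _ _ ENNReal.ofReal_ne_top]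
      _ ≤ ENNReal.ofReal R * (ENNReal.ofReal (R ^ 3) *
            ENNReal.ofReal (K * (w / R) ^ (-ε) * Real.sqrt Δ *
              ∑ i : {i // i ∈ F}, a i * ((w / R) ^ 2 * (ρ / R)))) := by
          gcongr
      _ = _ := by
          have hw0 : 0 ≤ (w / R) ^ (-ε) := Real.rpow_nonneg (by positivity) _
          rw [← ENNReal.ofReal_mul (by positivity), ← ENNReal.ofReal_mul (by positivity),
            ← ENNReal.ofReal_mul (by positivity)]
          congr 1
          have e3 : ∑ i : {i // i ∈ F}, a i * ((w / R) ^ 2 * (ρ / R)) =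
              (R ^ 3)⁻¹ * ∑ i ∈ F, a i * (w ^ 2 * ρ) := by
            rw [Finset.sum_coe_sort F fun i => a i * ((w / R) ^ 2 * (ρ / R)), Finset.mul_sum]
            refine Finset.sum_congr rfl fun i _ => ?_
            field_simp
          rw [e3]
          set Sg : ℝ := ∑ i ∈ F, a i * (w ^ 2 * ρ) with hSg
          set Q : ℝ := (w / R) ^ (-ε) with hQ
          field_simp
  · -- lateral position
    have h2 := (hn i i.2).1
    unfold dr
    simp only []
    rw [norm_smul, Real.norm_of_nonneg hi.le, inv_mul_le_iff₀ hR, mul_comm R V]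
    exact h2
  · have h2 := (hn i i.2).2
    unfold dr
    simp only []
    rw [abs_mul, abs_of_pos hi, inv_mul_le_iff₀ hR, mul_comm R V]
    exact h2
  · -- test sets
    rintro A v ⟨m, m1, m2, m3, m4, m5, m6, rfl, rfl⟩
    have hρ' : R * (ρ / R) = ρ := by field_simp
    have h2 := hD {r | (r.1, lat r.2, r.2 2) ∈ (dilm R m).rays ρ} ((dilm R m).scost ρ)
      ⟨dilm R m, by rw [← hρ']; exact dilm_ok hR m m1, by
        have := dilm_cpt hR m m2
        rwa [hρ'] at this, by unfold dilm; simp only [m3, mul_one], by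
        unfold dilm; simp only [m4, mul_zero], by
        unfold dilm; simp only []; rwa [div_le_iff₀ hR] at m5, m6, rfl, rfl⟩
    have e4 := dilm_scost hR m (ρ / R)
    rw [hρ'] at e4
    rw [e4] at h2
    have h3 : ∑ i : {i // i ∈ F}, (if dr R (C i) (y i) ∈ m.rays (ρ / R) then
        a i * ((w / R) ^ 2 * (ρ / R)) else 0) ≤ (R ^ 3)⁻¹ * ∑ i ∈ F, (if (C i, y i) ∈
        {r : E2 × E3 | (r.1, lat r.2, r.2 2) ∈ (dilm R m).rays ρ} then a i * (w ^ 2 * ρ) else 0) := by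
      rw [Finset.sum_coe_sort F fun i => (if dr R (C i) (y i) ∈ m.rays (ρ / R) then
        a i * ((w / R) ^ 2 * (ρ / R)) else 0), Finset.mul_sum]
      refine Finset.sum_le_sum fun i hi' => ?_
      have ha0 := ha i hi'
      split_ifs with h4 h5
      · apply le_of_eq
        field_simp
      · exfalso
        apply h5
        have h6 := dilm_rays hR m h4
        rw [hρ', smul_smul, mul_inv_cancel₀ hR.ne', one_smul, ← mul_assoc,
          mul_inv_cancel₀ hR.ne', one_mul] at h6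
        exact h6
      · positivity
      · rw [mul_zero]
    calc _ ≤ (R ^ 3)⁻¹ * ∑ i ∈ F, (if (C i, y i) ∈
        {r : E2 × E3 | (r.1, lat r.2, r.2 2) ∈ (dilm R m).rays ρ} then a i * (w ^ 2 * ρ) else 0) := h3
      _ ≤ (R ^ 3)⁻¹ * (Δ * (m.scost (ρ / R) * R ^ 3)) := by gcongr
      _ = Δ * m.scost (ρ / R) := by field_simp

/-- all velocities. -/
theorem lkmg_of_thin_all {M : ℝ} (h : ∀ V : ℝ, LKMthin (SSc M) V) : ∀ V : ℝ, LKMg (SSg M) V :=
  fun V => lkmg_of_thin (h V)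

end Crest.Agent.R116.LKMDef299
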