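import Crest.Agent.R116.Tp1_389

/-!
# R116, K side, D4: the identity of the fact [CD] (helper899)

Two lines `j`, `j'` of one `C`-class, near the line `k` (slots `X, N, P`) at the heights `z`, `z'`;
all three alive at the height `h`.  Then at `h` the slot `P` of the pair `(j, j')` is
`D |C|^2 (z - z')`, `C, D` = slots of `(k, j)` (helper120's [CD]: own motions of `D, E, B` are zero).

* `LLaw.pin_law`.
-/

set_option autoImplicit false
set_option linter.unusedVariables false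
set_option linter.unusedSectionVars false

open Filter Topology Finset

namespace Crest.Agent.R116.CD899

open Crest.Agent.R138.Ex926 (Base U)
open Crest.Agent.R138.Fal658 Crest.Agent.R136.Gf356 Crest.Agent.R116.Kr710
open Crest.Agent.R116.EvL504 (comp evoS SL LvS LnS hgt)
open Crest.Agent.R116.Tp389 (nS evo3 evo4 evo5 evo6 evo9 ev_pair)

/-! ### errors -/

section err

variable {r β : ℝ}

/-- small -/
def Sm (r β : ℝ) (K : ℕ) (v : ℝ) : Prop := |v| ≤ r * β ^ K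

/-- bounded -/
def Bd (β : ℝ) (m : ℕ) (v : ℝ) : Prop := |v| ≤ β ^ m

theorem Sm.up (hr : 0 < r) (hβ : 8 ≤ β) {K K' : ℕ} {v : ℝ} (h : Sm r β K v) (hK : K ≤ K') :
    Sm r β K' v :=
  h.trans (mul_le_mul_of_nonneg_left (pow_le_pow_right₀ (by linarith) hK) hr.le)

theorem Sm.add (hr : 0 < r) (hβ : 8 ≤ β) {K : ℕ} {u v : ℝ} (h : Sm r β K u) (h' : Sm r β K v) :
    Sm r β (K + 1) (u + v) := by
  unfold Sm at *
  have e : 0 < r * β ^ K := mul_pos hr (pow_pos (by linarith) _)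
  calc |u + v| ≤ |u| + |v| := abs_add_le _ _
    _ ≤ 2 * (r * β ^ K) := by linarith
    _ ≤ β * (r * β ^ K) := mul_le_mul_of_nonneg_right (by linarith) e.le
    _ = r * β ^ (K + 1) := by rw [pow_succ]; ring

theorem Sm.neg {K : ℕ} {v : ℝ} (h : Sm r β K v) : Sm r β K (-v) := by
  unfold Sm at *
  rwa [abs_neg]

theorem Sm.sub (hr : 0 < r) (hβ : 8 ≤ β) {K : ℕ} {u v : ℝ} (h : Sm r β K u) (h' : Sm r β K v) :
    Sm r β (K + 1) (u - v) := by
  rw [sub_eq_add_neg]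
  exact h.add hr hβ h'.neg

theorem Sm.mul (hβ : 8 ≤ β) {K m : ℕ} {u v : ℝ} (h : Bd β m u) (h' : Sm r β K v) :
    Sm r β (K + m) (u * v) := by
  unfold Sm Bd at *
  rw [abs_mul]
  calc |u| * |v| ≤ β ^ m * (r * β ^ K) :=
        mul_le_mul h h' (abs_nonneg _) (pow_nonneg (by linarith) _)
    _ = r * β ^ (K + m) := by rw [pow_add]; ring

theorem Sm.bd (hr1 : r ≤ 1) (hβ : 8 ≤ β) {K : ℕ} {v : ℝ} (h : Sm r β K v) : Bd β K v := by
  unfold Sm Bd at *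
  have : 0 < β ^ K := pow_pos (by linarith) _
  nlinarith

theorem Bd.up (hβ : 8 ≤ β) {K K' : ℕ} {v : ℝ} (h : Bd β K v) (hK : K ≤ K') : Bd β K' v :=
  h.trans (pow_le_pow_right₀ (by linarith) hK)

theorem Bd.add (hβ : 8 ≤ β) {m : ℕ} {u v : ℝ} (h : Bd β m u) (h' : Bd β m v) :
    Bd β (m + 1) (u + v) := by
  unfold Bd at *
  have e : 0 < β ^ m := pow_pos (by linarith) _
  calc |u + v| ≤ |u| + |v| := abs_add_le _ _
    _ ≤ 2 * β ^ m := by linarith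
    _ ≤ β * β ^ m := mul_le_mul_of_nonneg_right (by linarith) e.le
    _ = β ^ (m + 1) := by rw [pow_succ]; ring

theorem Bd.sub (hβ : 8 ≤ β) {m : ℕ} {u v : ℝ} (h : Bd β m u) (h' : Bd β m v) :
    Bd β (m + 1) (u - v) := by
  rw [sub_eq_add_neg]
  refine h.add hβ ?_
  unfold Bd at *
  rwa [abs_neg]

theorem Bd.mul (hβ : 8 ≤ β) {m m' : ℕ} {u v : ℝ} (h : Bd β m u) (h' : Bd β m' v) :
    Bd β (m + m') (u * v) := by
  unfold Bd at *
  rw [abs_mul, pow_add]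
  exact mul_le_mul h h' (abs_nonneg _) (pow_nonneg (by linarith) _)

theorem Bd.num (hβ : 8 ≤ β) {t : ℝ} (ht : |t| ≤ 8) : Bd β 1 t := by
  unfold Bd
  rw [pow_one]
  linarith

end err

/-! ### the algebra -/

/-- **the identity, one configuration** : `c`, `c'` = slots of `(k, j)` at `z`, of `(k, j')` at
`z'`; `a`, `b`, `g` = slots of `(k, j)`, `(k, j')`, `(j, j')` at `h`; `α`, `α'` = own height
motions of `k`. -/
theorem pin_alg {r β : ℝ} (hr : 0 < r) (hr1 : r ≤ 1) (hβ : 8 ≤ β) {K : ℕ} (hK : 1 ≤ K)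
    {c c' a b g : Fin 12 → ℝ} {α α' τ : ℝ}
    (bc : ∀ s, Bd β 1 (c s)) (bc' : ∀ s, Bd β 1 (c' s)) (ba : ∀ s, Bd β 1 (a s))
    (bg : ∀ s, Bd β 1 (g s)) (bα : Bd β 1 α) (bα' : Bd β 1 α')
    (hc5 : Sm r β K (c 5)) (hc6 : Sm r β K (c 6)) (hc9 : Sm r β K (c 9)) (hc10 : Sm r β K (c 10))
    (hc5' : Sm r β K (c' 5)) (hc6' : Sm r β K (c' 6)) (hc9' : Sm r β K (c' 9))
    (hc10' : Sm r β K (c' 10)) (g3 : Sm r β K (g 3)) (g4 : Sm r β K (g 4)) (ga0 : a 0 = 0)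
    (u1 : Sm r β 1 (a 1 - c 1)) (u3 : Sm r β 1 (a 3 - c 3)) (u4 : Sm r β 1 (a 4 - c 4))
    (u5 : Sm r β 1 (a 5 - (c 5 - α * c 3))) (u6 : Sm r β 1 (a 6 - (c 6 - α * c 4)))
    (u9 : Sm r β 1 (a 9 - (c 9 - α * ((c 3 ^ 2 + c 4 ^ 2) / 2)))) (u10 : Sm r β 1 (a 10 - c 10))
    (v3 : Sm r β 1 (b 3 - c' 3)) (v4 : Sm r β 1 (b 4 - c' 4))
    (v5 : Sm r β 1 (b 5 - (c' 5 - α' * c' 3))) (v6 : Sm r β 1 (b 6 - (c' 6 - α' * c' 4)))
    (v9 : Sm r β 1 (b 9 - (c' 9 - α' * ((c' 3 ^ 2 + c' 4 ^ 2) / 2))))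
    (v10 : Sm r β 1 (b 10 - c' 10))
    (w3 : Sm r β 1 (b 3 - comp a g 3)) (w4 : Sm r β 1 (b 4 - comp a g 4))
    (w5 : Sm r β 1 (b 5 - comp a g 5)) (w6 : Sm r β 1 (b 6 - comp a g 6))
    (w9 : Sm r β 1 (b 9 - comp a g 9)) (w10 : Sm r β 1 (b 10 - comp a g 10))
    (hτ : Sm r β 2 (α - α' - τ)) :
    Sm r β (K + 40) (g 10 - c 1 * (c 3 ^ 2 + c 4 ^ 2) * τ) := by
  have k3 : comp a g 3 = a 3 + g 3 := by simp [comp]
  have k4 : comp a g 4 = a 4 + g 4 := by simp [comp]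
  have k5 : comp a g 5 = a 5 + g 5 := by simp [comp, ga0]
  have k6 : comp a g 6 = a 6 + g 6 := by simp [comp, ga0]
  have k9 : comp a g 9 = a 9 + g 9 + a 3 * g 5 + a 4 * g 6 := by simp [comp, ga0]
  have k10 : comp a g 10 = a 10 + g 10 - a 7 * g 3 - a 8 * g 4 -
      a 2 * ((g 3 ^ 2 + g 4 ^ 2) / 2) - 2 * (a 1 * (g 5 * g 3 + g 6 * g 4 - g 9)) := by
    simp [comp]
  rw [k3] at w3
  rw [k4] at w4
  rw [k5] at w5
  rw [k6] at w6
  rw [k9] at w9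
  rw [k10] at w10
  have up : ∀ {K1 K2 : ℕ} {v : ℝ}, Sm r β K1 v → K1 ≤ K2 → Sm r β K2 v :=
    fun h hk => h.up hr hβ hk
  have ad : ∀ {K1 : ℕ} {u v : ℝ}, Sm r β K1 u → Sm r β K1 v → Sm r β (K1 + 1) (u + v) :=
    fun h h' => h.add hr hβ h'
  have sb : ∀ {K1 : ℕ} {u v : ℝ}, Sm r β K1 u → Sm r β K1 v → Sm r β (K1 + 1) (u - v) :=
    fun h h' => h.sub hr hβ h'
  have ml : ∀ {K1 m : ℕ} {u v : ℝ}, Bd β m u → Sm r β K1 v → Sm r β (K1 + m) (u * v) :=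
    fun h h' => h'.mul hβ h
  -- `C` of `j'` and of `j`
  have ev : ∀ s : Fin 12, (s = 3 ∨ s = 4) → Sm r β (K + 3) (c' s - c s) := by
    intro s hs
    have h1 : Sm r β (K + 3) (((a s - c s) + g s) + ((b s - (a s + g s)) - (b s - c' s))) := by
      rcases hs with rfl | rfl
      · exact up (ad (ad (up u3 hK) g3) (up (sb w3 v3) (by omega))) (by omega)
      · exact up (ad (ad (up u4 hK) g4) (up (sb w4 v4) (by omega))) (by omega)
    have e : c' s - c s = ((a s - c s) + g s) + ((b s - (a s + g s)) - (b s - c' s)) := by ring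
    rw [e]
    exact h1
  have e3 := ev 3 (Or.inl rfl)
  have e4 := ev 4 (Or.inr rfl)
  -- `X` of `(j, j')`
  have x5 : ∀ (s t : Fin 12), Sm r β K (c t) → Sm r β K (c' t) → Sm r β (K + 3) (c' s - c s) →
      Sm r β 1 (a t - (c t - α * c s)) → Sm r β 1 (b t - (c' t - α' * c' s)) →
      Sm r β 1 (b t - (a t + g t)) → Sm r β (K + 8) (g t - τ * c s) := by
    intro s t p p' e q q' w
    have h1 : Sm r β (K + 5) (((c' t - c t) +
        ((b t - (c' t - α' * c' s)) - (a t - (c t - α * c s)))) - (b t - (a t + g t))) :=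
      up (sb (ad (sb p' p) (up (sb q' q) (by omega))) (up w (by omega))) (by omega)
    have h2 : Sm r β (K + 5) (c s * (α - α' - τ)) := up (ml (bc s) hτ) (by omega)
    have h3 : Sm r β (K + 5) (α' * (c' s - c s)) := up (ml bα' e) (by omega)
    have e' : g t - τ * c s = (((c' t - c t) +
        ((b t - (c' t - α' * c' s)) - (a t - (c t - α * c s)))) - (b t - (a t + g t))) +
        (c s * (α - α' - τ) - α' * (c' s - c s)) := by ring
    rw [e']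
    exact up (ad (up h1 (by omega)) (sb h2 h3)) (by omega)
  have e5 := x5 3 5 hc5 hc5' e3 u5 v5 w5
  have e6 := x5 4 6 hc6 hc6' e4 u6 v6 w6
  -- `N` of `(j, j')`
  have bQ : Bd β 3 (c 3 ^ 2 + c 4 ^ 2) := by
    have := ((bc 3).mul hβ (bc 3)).add hβ ((bc 4).mul hβ (bc 4))
    simpa [sq] using this
  have e9 : Sm r β (K + 20) (g 9 + τ * ((c 3 ^ 2 + c 4 ^ 2) / 2)) := by
    have h1 : Sm r β (K + 5) (((c' 9 - c 9) +
        ((b 9 - (c' 9 - α' * ((c' 3 ^ 2 + c' 4 ^ 2) / 2))) -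
          (a 9 - (c 9 - α * ((c 3 ^ 2 + c 4 ^ 2) / 2))))) -
        (b 9 - (a 9 + g 9 + a 3 * g 5 + a 4 * g 6))) :=
      up (sb (ad (sb hc9' hc9) (up (sb v9 u9) (by omega))) (up w9 (by omega))) (by omega)
    have h2 : Sm r β (K + 6) ((1 / 2 * (c 3 ^ 2 + c 4 ^ 2)) * (α - α' - τ)) := by
      have b1 : Bd β 4 (1 / 2 * (c 3 ^ 2 + c 4 ^ 2)) :=
        (Bd.num hβ (t := 1 / 2) (by rw [abs_of_pos] <;> norm_num)).mul hβ bQ
      exact up (ml b1 hτ) (by omega)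
    have h3 : Sm r β (K + 10) ((1 / 2 * α') * ((c' 3 + c 3) * (c' 3 - c 3) +
        (c' 4 + c 4) * (c' 4 - c 4))) := by
      have b1 : Bd β 2 (1 / 2 * α') :=
        (Bd.num hβ (t := 1 / 2) (by rw [abs_of_pos] <;> norm_num)).mul hβ bα'
      have b2 : Sm r β (K + 5) ((c' 3 + c 3) * (c' 3 - c 3)) :=
        up (ml ((bc' 3).add hβ (bc 3)) e3) (by omega)
      have b3 : Sm r β (K + 5) ((c' 4 + c 4) * (c' 4 - c 4)) :=
        up (ml ((bc' 4).add hβ (bc 4)) e4) (by omega)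
      exact up (ml b1 (ad b2 b3)) (by omega)
    have h4 : Sm r β (K + 10) (c 3 * (g 5 - τ * c 3) + c 4 * (g 6 - τ * c 4)) :=
      up (ad (ml (bc 3) e5) (ml (bc 4) e6)) (by omega)
    have h5 : Sm r β (K + 10) (g 5 * (a 3 - c 3) + g 6 * (a 4 - c 4)) :=
      up (ad (ml (bg 5) u3) (ml (bg 6) u4)) (by omega)
    have e' : g 9 + τ * ((c 3 ^ 2 + c 4 ^ 2) / 2) = ((((c' 9 - c 9) +
        ((b 9 - (c' 9 - α' * ((c' 3 ^ 2 + c' 4 ^ 2) / 2))) -
          (a 9 - (c 9 - α * ((c 3 ^ 2 + c 4 ^ 2) / 2))))) -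
        (b 9 - (a 9 + g 9 + a 3 * g 5 + a 4 * g 6))) +
        ((1 / 2 * (c 3 ^ 2 + c 4 ^ 2)) * (α - α' - τ))) -
        (((1 / 2 * α') * ((c' 3 + c 3) * (c' 3 - c 3) +
        (c' 4 + c 4) * (c' 4 - c 4))) + ((c 3 * (g 5 - τ * c 3) + c 4 * (g 6 - τ * c 4)) +
        (g 5 * (a 3 - c 3) + g 6 * (a 4 - c 4)))) := by ring
    rw [e']
    have s1 := ad (up h1 (show K + 5 ≤ K + 6 by omega)) h2
    have s2 := ad (up h3 (show K + 10 ≤ K + 11 by omega)) (ad h4 h5)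
    exact up (sb (up s1 (show K + 6 + 1 ≤ K + 11 + 1 by omega)) s2) (by omega)
  -- `P` of `(j, j')`
  have bτ : Bd β 3 τ := by
    have h1 : Bd β 2 (α - α') := bα.sub hβ bα'
    have h2 : Bd β 2 (α - α' - τ) := hτ.bd hr1 hβ
    have h3 := h1.sub hβ h2
    simpa using h3
  have h1 : Sm r β (K + 5) (((c' 10 - c 10) + ((b 10 - c' 10) - (a 10 - c 10))) -
      (b 10 - (a 10 + g 10 - a 7 * g 3 - a 8 * g 4 -
      a 2 * ((g 3 ^ 2 + g 4 ^ 2) / 2) - 2 * (a 1 * (g 5 * g 3 + g 6 * g 4 - g 9))))) :=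
    up (sb (ad (sb hc10' hc10) (up (sb v10 u10) (by omega))) (up w10 (by omega))) (by omega)
  have h2 : Sm r β (K + 3) (a 7 * g 3 + a 8 * g 4) :=
    up (ad (ml (ba 7) g3) (ml (ba 8) g4)) (by omega)
  have b12 : Bd β 1 (1 / 2 : ℝ) := Bd.num hβ (by rw [abs_of_pos] <;> norm_num)
  have b2 : Bd β 1 (2 : ℝ) := Bd.num hβ (by rw [abs_of_pos] <;> norm_num)
  have h3 : Sm r β (K + 5) ((1 / 2 * a 2) * (g 3 * g 3 + g 4 * g 4)) :=
    up (ml (b12.mul hβ (ba 2)) (ad (ml (bg 3) g3) (ml (bg 4) g4))) (by omega)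
  have h4 : Sm r β (K + 5) ((2 * a 1) * (g 5 * g 3 + g 6 * g 4)) :=
    up (ml (b2.mul hβ (ba 1)) (ad (ml (bg 5) g3) (ml (bg 6) g4))) (by omega)
  have h5 : Sm r β (K + 22) ((2 * a 1) * (g 9 + τ * ((c 3 ^ 2 + c 4 ^ 2) / 2))) :=
    up (ml (b2.mul hβ (ba 1)) e9) (by omega)
  have h6 : Sm r β (K + 22) ((τ * (c 3 ^ 2 + c 4 ^ 2)) * (a 1 - c 1)) :=
    up (ml (bτ.mul hβ bQ) u1) (by omega)
  have e' : g 10 - c 1 * (c 3 ^ 2 + c 4 ^ 2) * τ =
      ((((((c' 10 - c 10) + ((b 10 - c' 10) - (a 10 - c 10))) -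
      (b 10 - (a 10 + g 10 - a 7 * g 3 - a 8 * g 4 -
      a 2 * ((g 3 ^ 2 + g 4 ^ 2) / 2) - 2 * (a 1 * (g 5 * g 3 + g 6 * g 4 - g 9))))) +
      (a 7 * g 3 + a 8 * g 4)) + ((1 / 2 * a 2) * (g 3 * g 3 + g 4 * g 4))) +
      ((2 * a 1) * (g 5 * g 3 + g 6 * g 4))) -
      (((2 * a 1) * (g 9 + τ * ((c 3 ^ 2 + c 4 ^ 2) / 2))) -
        ((τ * (c 3 ^ 2 + c 4 ^ 2)) * (a 1 - c 1))) := by ring
  rw [e']
  have s1 := ad h1 (up h2 (show K + 3 ≤ K + 5 by omega))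
  have s2 := ad s1 (up h3 (show K + 5 ≤ K + 5 + 1 by omega))
  have s3 := ad s2 (up h4 (show K + 5 ≤ K + 5 + 1 + 1 by omega))
  exact up (sb (up s3 (show K + 5 + 1 + 1 + 1 ≤ K + 22 + 1 by omega)) (sb h5 h6)) (by omega)

/-! ### the law -/

section facts

variable {B : Base} {G : ℕ → RCfg (Fin 12)} {Leg : Set (Fin 12 → ℝ)} {ν : (Fin 12 → ℝ) → ℝ}
  {σ R D : ℝ} {S : Finset (Fin 12)} {own : ℕ → ℕ → ℕ → ℕ → Fin 12 → ℝ} {x y : ℝ}

section evo

variable (h0 : (0 : Fin 12) ∈ S) (hS : S ⊆ SL) (h1 : (1 : Fin 12) ∉ S) (h2 : (2 : Fin 12) ∉ S)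
  (h7 : (7 : Fin 12) ∉ S) (h8 : (8 : Fin 12) ∉ S) (a c : Fin 12 → ℝ)

include h0 hS h1 h2 h7 h8

theorem evo1 : evoS S a c 1 = c 1 := by
  simp [evoS, comp, LvS, LnS, hgt, h1, h2, h0]

theorem evo10 : evoS S a c 10 = c 10 := by
  have h3 : (3 : Fin 12) ∉ S := nS hS (by decide)
  have h4 : (4 : Fin 12) ∉ S := nS hS (by decide)
  have h5 : (5 : Fin 12) ∉ S := nS hS (by decide)
  have h6 : (6 : Fin 12) ∉ S := nS hS (by decide)
  have h9 : (9 : Fin 12) ∉ S := nS hS (by decide)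
  have h10 : (10 : Fin 12) ∉ S := nS hS (by decide)
  simp [evoS, comp, LvS, LnS, hgt, h3, h4, h5, h6, h9, h10, h0, h1, h2, h7, h8]

end evo

/-- **the identity of [CD] over `LLaw`**: `j`, `j'` in one `C`-class (slots `3, 4` at `h`), near `k`
in the slots `5, 6, 9, 10` at the heights `z`, `z'`. -/
theorem pin_law (H : RModel B G σ R Leg ν D) (L : LLaw B G S own x)
    (h1 : (1 : Fin 12) ∉ S) (h2 : (2 : Fin 12) ∉ S) (h7 : (7 : Fin 12) ∉ S)
    (h8 : (8 : Fin 12) ∉ S) (hy : 0 ≤ y) (hyx : y ≤ x) (C0 : ℝ) (hC0 : 0 < C0) :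
    ∃ C1 : ℝ, 0 < C1 ∧ ∀ ε : ℝ, 0 < ε → ∀ᶠ n in (U : Filter ℕ), ∀ h z z' k j j' : ℕ,
      (k, h) ∈ (G n).I → (j, h) ∈ (G n).I → (j', h) ∈ (G n).I → (k, z) ∈ (G n).I →
      (j, z) ∈ (G n).I → (k, z') ∈ (G n).I → (j', z') ∈ (G n).I →
      (∀ s : Fin 12, (s = 5 ∨ s = 6 ∨ s = 9 ∨ s = 10) →
        |(G n).rel z k j s| ≤ B.d n ^ (y - C0 * ε)) →
      (∀ s : Fin 12, (s = 5 ∨ s = 6 ∨ s = 9 ∨ s = 10) →
        |(G n).rel z' k j' s| ≤ B.d n ^ (y - C0 * ε)) →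
      (∀ s : Fin 12, (s = 3 ∨ s = 4) → |(G n).rel h j j' s| ≤ B.d n ^ (y - C0 * ε)) →
      |(G n).rel h j j' 10 - (G n).rel z k j 1 *
        ((G n).rel z k j 3 ^ 2 + (G n).rel z k j 4 ^ 2) * ((G n).z z - (G n).z z')| ≤
        B.d n ^ (y - C1 * ε) := by
  obtain ⟨K, hK⟩ := exists_nat_ge (max C0 1)
  have hK1 : 1 ≤ K := by
    have : (1 : ℝ) ≤ K := (le_max_right _ _).trans hK
    exact_mod_cast this
  have hKC : C0 ≤ K := (le_max_left _ _).trans hK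
  refine ⟨(K : ℝ) + 40, by positivity, fun ε hε => ?_⟩
  filter_upwards [ev_pair H L hε, L.coc ε hε] with n hn hcoc h z z' k j j' kh jh jh' kz jz kz' jz'
    hz hz' hg
  obtain ⟨g8, hn⟩ := hn
  obtain ⟨p1, p2, p3, p4, p5⟩ := hn z h k j kz jz kh jh
  obtain ⟨q1, q2, q3, q4, q5⟩ := hn z' h k j' kz' jz' kh jh'
  have gbd := (hn h h j j' jh jh' jh jh').1
  have hco := hcoc h k j j' kh jh jh'
  set β : ℝ := B.d n ^ (-ε) with hβ
  set r : ℝ := B.d n ^ y with hr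
  have hr0 : 0 < r := rpos B n _
  have hr1 : r ≤ 1 := by
    have := rpow_anti B n hy
    rwa [Real.rpow_zero] at this
  have pw : ∀ m : ℕ, r * β ^ m = B.d n ^ (y - m * ε) := by
    intro m
    rw [hr, hβ, ← Real.rpow_natCast, ← Real.rpow_mul (B.pos n).le, ← rpow_add']
    congr 1
    ring
  have bd : ∀ {v : ℝ}, |v| ≤ B.d n ^ (-ε) → Bd β 1 v := by
    intro v hv
    unfold Bd
    rwa [pow_one]
  have sx : ∀ {v : ℝ}, |v| ≤ B.d n ^ (x - ε) → Sm r β 1 v := by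
    intro v hv
    unfold Sm
    rw [pw]
    refine hv.trans (rpow_anti B n ?_)
    push_cast
    linarith
  have sK : ∀ {v : ℝ}, |v| ≤ B.d n ^ (y - C0 * ε) → Sm r β K v := by
    intro v hv
    unfold Sm
    rw [pw]
    refine hv.trans (rpow_anti B n ?_)
    have := mul_le_mul_of_nonneg_right hKC hε.le
    linarith
  have h0 := L.S0
  have hSS := L.SSL
  have e : ∀ s, s ∉ S → Sm r β 1 ((G n).rel h k j s -
      evoS S (own n k z h) ((G n).rel z k j) s) := fun s hs => sx (p5 s hs)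
  have e' : ∀ s, s ∉ S → Sm r β 1 ((G n).rel h k j' s -
      evoS S (own n k z' h) ((G n).rel z' k j') s) := fun s hs => sx (q5 s hs)
  have co : ∀ s, s ∉ S → Sm r β 1 ((G n).rel h k j' s -
      comp ((G n).rel h k j) ((G n).rel h j j') s) := fun s hs => sx (hco s hs)
  have hτ : Sm r β 2 (own n k z h 0 - own n k z' h 0 - ((G n).z z - (G n).z z')) := by
    have t1 := (sx p4).sub hr0 g8 (sx q4)
    have e1 : own n k z h 0 - own n k z' h 0 - ((G n).z z - (G n).z z') =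
        own n k z h 0 + ((G n).z h - (G n).z z) - (own n k z' h 0 + ((G n).z h - (G n).z z')) := by
      ring
    rw [e1]
    exact t1
  have n3 : (3 : Fin 12) ∉ S := nS hSS (by decide)
  have n4 : (4 : Fin 12) ∉ S := nS hSS (by decide)
  have n5 : (5 : Fin 12) ∉ S := nS hSS (by decide)
  have n6 : (6 : Fin 12) ∉ S := nS hSS (by decide)
  have n9 : (9 : Fin 12) ∉ S := nS hSS (by decide)
  have n10 : (10 : Fin 12) ∉ S := nS hSS (by decide)
  have main := pin_alg (r := r) (β := β) hr0 hr1 g8 (K := K) hK1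
    (c := (G n).rel z k j) (c' := (G n).rel z' k j') (a := (G n).rel h k j)
    (b := (G n).rel h k j') (g := (G n).rel h j j') (α := own n k z h 0)
    (α' := own n k z' h 0) (τ := (G n).z z - (G n).z z')
    (fun s => bd (p1 s)) (fun s => bd (q1 s)) (fun s => bd (p2 s)) (fun s => bd (gbd s))
    (bd (p3 0)) (bd (q3 0))
    (sK (hz 5 (by simp))) (sK (hz 6 (by simp))) (sK (hz 9 (by simp))) (sK (hz 10 (by simp)))
    (sK (hz' 5 (by simp))) (sK (hz' 6 (by simp))) (sK (hz' 9 (by simp))) (sK (hz' 10 (by simp)))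
    (sK (hg 3 (by simp))) (sK (hg 4 (by simp))) (L.relS n h k j 0 h0)
    (by have := e 1 h1; rwa [evo1 h0 hSS h1 h2 h7 h8] at this)
    (by have := e 3 n3; rwa [evo3 hSS] at this)
    (by have := e 4 n4; rwa [evo4 hSS] at this)
    (by have := e 5 n5; rwa [evo5 h0 hSS] at this)
    (by have := e 6 n6; rwa [evo6 h0 hSS] at this)
    (by have := e 9 n9; rwa [evo9 h0 hSS] at this)
    (by have := e 10 n10; rwa [evo10 h0 hSS h1 h2 h7 h8] at this)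
    (by have := e' 3 n3; rwa [evo3 hSS] at this)
    (by have := e' 4 n4; rwa [evo4 hSS] at this)
    (by have := e' 5 n5; rwa [evo5 h0 hSS] at this)
    (by have := e' 6 n6; rwa [evo6 h0 hSS] at this)
    (by have := e' 9 n9; rwa [evo9 h0 hSS] at this)
    (by have := e' 10 n10; rwa [evo10 h0 hSS h1 h2 h7 h8] at this)
    (co 3 n3) (co 4 n4) (co 5 n5) (co 6 n6) (co 9 n9) (co 10 n10) hτ
  have : |(G n).rel h j j' 10 - (G n).rel z k j 1 *
      ((G n).rel z k j 3 ^ 2 + (G n).rel z k j 4 ^ 2) * ((G n).z z - (G n).z z')| ≤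
      r * β ^ (K + 40) := main
  rw [pw] at this
  push_cast at this
  exact this

end facts

end Crest.Agent.R116.CD899
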