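import Crest.Agent.R136.Gr2_356

/-!
# R116, FACT [CD] (helper120), part 1: the pin lemma

`fin1`, `fin2`, `fin3` : finite counting.
`pin` : one line `i`, one height `h`, a `ρ^(C ε)`-part `K` of the heights of `i`, partners `j k` of
`i` at the height `k`, all alive at `h` and all in one fine class `r1` at the height `h`.
-/

set_option autoImplicit false
set_option linter.unusedVariables false
set_option linter.unusedSectionVars false

open Filter Topology Finset

namespace Crest.Agent.R116.CD120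

open Crest.Agent.R138.Ex926 (Base U)
open Crest.Agent.R136.Gf356

/-! ### finite counting -/

/-- a height `h` with many common incidences -/
theorem fin1 (L Z : Finset ℕ) (al : ℕ → ℕ → Prop) [∀ i, DecidablePred (al i)] {θ : ℝ}
    (hθ : 0 < θ) (hL : L.Nonempty) (hZ : Z.Nonempty)
    (hal : ∀ i ∈ L, θ * (Z.card : ℝ) ≤ ((Z.filter fun k => al i k).card : ℝ)) :
    ∃ h ∈ Z, θ ^ 2 * (L.card : ℝ) * (Z.card : ℝ) ≤
      ∑ k ∈ Z, ((L.filter fun i => al i k ∧ al i h).card : ℝ) := by
  classical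
  by_contra hcon
  push Not at hcon
  have hZ0 : (0 : ℝ) < Z.card := by exact_mod_cast hZ.card_pos
  have hL0 : (0 : ℝ) < L.card := by exact_mod_cast hL.card_pos
  have h1 : ∑ h ∈ Z, ∑ k ∈ Z, ((L.filter fun i => al i k ∧ al i h).card : ℝ) =
      ∑ i ∈ L, ((Z.filter fun k => al i k).card : ℝ) ^ 2 := by
    have e1 : ∀ h k, ((L.filter fun i => al i k ∧ al i h).card : ℝ) =
        ∑ i ∈ L, (if al i k then (1 : ℝ) else 0) * (if al i h then (1 : ℝ) else 0) := by
      intro h k
      rw [Finset.card_filter, Nat.cast_sum]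
      refine Finset.sum_congr rfl fun i _ => ?_
      by_cases a : al i k <;> by_cases b : al i h <;> simp [a, b]
    have e2 : ∀ i, ((Z.filter fun k => al i k).card : ℝ) =
        ∑ k ∈ Z, (if al i k then (1 : ℝ) else 0) := by
      intro i
      rw [Finset.card_filter, Nat.cast_sum]
      refine Finset.sum_congr rfl fun k _ => ?_
      by_cases a : al i k <;> simp [a]
    calc ∑ h ∈ Z, ∑ k ∈ Z, ((L.filter fun i => al i k ∧ al i h).card : ℝ)
        = ∑ h ∈ Z, ∑ k ∈ Z, ∑ i ∈ L,
            (if al i k then (1 : ℝ) else 0) * (if al i h then (1 : ℝ) else 0) :=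
          Finset.sum_congr rfl fun h _ => Finset.sum_congr rfl fun k _ => e1 h k
      _ = ∑ h ∈ Z, ∑ i ∈ L, ∑ k ∈ Z,
            (if al i k then (1 : ℝ) else 0) * (if al i h then (1 : ℝ) else 0) :=
          Finset.sum_congr rfl fun h _ => Finset.sum_comm
      _ = ∑ i ∈ L, ∑ h ∈ Z, ∑ k ∈ Z,
            (if al i k then (1 : ℝ) else 0) * (if al i h then (1 : ℝ) else 0) := Finset.sum_comm
      _ = ∑ i ∈ L, ((Z.filter fun k => al i k).card : ℝ) ^ 2 := by
          refine Finset.sum_congr rfl fun i _ => ?_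
          rw [e2, sq, Finset.sum_mul_sum, Finset.sum_comm]
  have h2 : θ ^ 2 * (L.card : ℝ) * (Z.card : ℝ) ^ 2 ≤
      ∑ i ∈ L, ((Z.filter fun k => al i k).card : ℝ) ^ 2 := by
    calc θ ^ 2 * (L.card : ℝ) * (Z.card : ℝ) ^ 2 = ∑ i ∈ L, (θ * (Z.card : ℝ)) ^ 2 := by
          rw [Finset.sum_const, nsmul_eq_mul]; ring
      _ ≤ _ := Finset.sum_le_sum fun i hi => by
          have := hal i hi
          have h0 : 0 ≤ θ * (Z.card : ℝ) := by positivity
          gcongr
  have h3 : ∑ h ∈ Z, ∑ k ∈ Z, ((L.filter fun i => al i k ∧ al i h).card : ℝ) <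
      ∑ h ∈ Z, θ ^ 2 * (L.card : ℝ) * (Z.card : ℝ) :=
    Finset.sum_lt_sum_of_nonempty hZ fun h hh => hcon h hh
  rw [Finset.sum_const, nsmul_eq_mul] at h3
  rw [h1] at h3
  nlinarith

/-- a line `i` with many partners in its classes -/
theorem fin2 (L Z : Finset ℕ) (T : ℕ → Finset ℕ) (hT : ∀ k ∈ Z, T k ⊆ L)
    (near : ℕ → ℕ → ℕ → Prop) [∀ k i, DecidablePred (near k i)] {M a : ℝ} (hM : 0 < M)
    (ha : 0 ≤ a) (hL : L.Nonempty) (hZ : Z.Nonempty)
    (hlab : ∀ k ∈ Z, ∃ lab : ℕ → ℕ, (∀ t ∈ T k, ∀ t' ∈ T k, lab t = lab t' → near k t t') ∧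
      (((T k).image lab).card : ℝ) ≤ M)
    (hsum : a ≤ ∑ k ∈ Z, ((T k).card : ℝ)) :
    ∃ i ∈ L, a ^ 2 ≤ (Z.card : ℝ) * M * (L.card : ℝ) *
      ∑ k ∈ Z.filter (fun k => i ∈ T k), (((T k).filter fun j => near k i j).card : ℝ) := by
  classical
  have hZ0 : (0 : ℝ) < Z.card := by exact_mod_cast hZ.card_pos
  have hL0 : (0 : ℝ) < L.card := by exact_mod_cast hL.card_pos
  -- one height
  have h1 : ∀ k ∈ Z, ((T k).card : ℝ) ^ 2 ≤
      M * ∑ i ∈ T k, (((T k).filter fun j => near k i j).card : ℝ) := by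
    intro k hk
    obtain ⟨lab, l1, l2⟩ := hlab k hk
    have e1 : ((T k).card : ℝ) = ∑ c ∈ (T k).image lab,
        (((T k).filter fun i => lab i = c).card : ℝ) := by
      have : (T k).card = ∑ c ∈ (T k).image lab, ((T k).filter fun i => lab i = c).card :=
        Finset.card_eq_sum_card_fiberwise fun i hi => Finset.mem_image_of_mem _ hi
      exact_mod_cast this
    have e2 : ∑ c ∈ (T k).image lab, (((T k).filter fun i => lab i = c).card : ℝ) ^ 2 ≤
        ∑ i ∈ T k, (((T k).filter fun j => near k i j).card : ℝ) := by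
      have e3 : ∑ i ∈ T k, (((T k).filter fun j => lab j = lab i).card : ℝ) =
          ∑ c ∈ (T k).image lab, ∑ i ∈ (T k).filter (fun i => lab i = c),
            (((T k).filter fun j => lab j = lab i).card : ℝ) :=
        (Finset.sum_fiberwise_of_maps_to (fun i hi => Finset.mem_image_of_mem _ hi) _).symm
      calc ∑ c ∈ (T k).image lab, (((T k).filter fun i => lab i = c).card : ℝ) ^ 2
          = ∑ i ∈ T k, (((T k).filter fun j => lab j = lab i).card : ℝ) := by
            rw [e3]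
            refine Finset.sum_congr rfl fun c _ => ?_
            rw [sq, ← nsmul_eq_mul, ← Finset.sum_const]
            refine Finset.sum_congr rfl fun i hi => ?_
            rw [(Finset.mem_filter.1 hi).2]
        _ ≤ _ := Finset.sum_le_sum fun i hi => by
            refine mod_cast Finset.card_le_card ?_
            intro j hj
            obtain ⟨j1, j2⟩ := Finset.mem_filter.1 hj
            exact Finset.mem_filter.2 ⟨j1, l1 i hi j j1 j2.symm⟩
    calc ((T k).card : ℝ) ^ 2
        = (∑ c ∈ (T k).image lab, (((T k).filter fun i => lab i = c).card : ℝ)) ^ 2 := by rw [e1]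
      _ ≤ (((T k).image lab).card : ℝ) *
          ∑ c ∈ (T k).image lab, (((T k).filter fun i => lab i = c).card : ℝ) ^ 2 :=
          sq_sum_le_card_mul_sum_sq
      _ ≤ M * ∑ i ∈ T k, (((T k).filter fun j => near k i j).card : ℝ) :=
          mul_le_mul l2 e2 (Finset.sum_nonneg fun c _ => sq_nonneg _) hM.le
  -- all heights
  have h2 : a ^ 2 ≤ (Z.card : ℝ) * (M * ∑ k ∈ Z, ∑ i ∈ T k,
      (((T k).filter fun j => near k i j).card : ℝ)) := by
    calc a ^ 2 ≤ (∑ k ∈ Z, ((T k).card : ℝ)) ^ 2 := by gcongr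
      _ ≤ (Z.card : ℝ) * ∑ k ∈ Z, ((T k).card : ℝ) ^ 2 := sq_sum_le_card_mul_sum_sq
      _ ≤ (Z.card : ℝ) * ∑ k ∈ Z, M * ∑ i ∈ T k, (((T k).filter fun j => near k i j).card : ℝ) :=
          mul_le_mul_of_nonneg_left (Finset.sum_le_sum h1) hZ0.le
      _ = _ := by rw [← Finset.mul_sum]
  -- swap
  have h3 : ∑ k ∈ Z, ∑ i ∈ T k, (((T k).filter fun j => near k i j).card : ℝ) =
      ∑ i ∈ L, ∑ k ∈ Z.filter (fun k => i ∈ T k),
        (((T k).filter fun j => near k i j).card : ℝ) := by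
    have e1 : ∀ k ∈ Z, ∑ i ∈ T k, (((T k).filter fun j => near k i j).card : ℝ) =
        ∑ i ∈ L, if i ∈ T k then (((T k).filter fun j => near k i j).card : ℝ) else 0 := by
      intro k hk
      rw [← Finset.sum_filter]
      refine Finset.sum_congr ?_ fun _ _ => rfl
      ext i
      simp only [Finset.mem_filter]
      exact ⟨fun h => ⟨hT k hk h, h⟩, fun h => h.2⟩
    rw [Finset.sum_congr rfl e1, Finset.sum_comm]
    refine Finset.sum_congr rfl fun i _ => ?_
    rw [Finset.sum_filter]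
  by_contra hcon
  push Not at hcon
  have h4 : ∑ i ∈ L, (Z.card : ℝ) * M * (L.card : ℝ) * ∑ k ∈ Z.filter (fun k => i ∈ T k),
        (((T k).filter fun j => near k i j).card : ℝ) < ∑ i ∈ L, a ^ 2 :=
    Finset.sum_lt_sum_of_nonempty hL hcon
  rw [← Finset.mul_sum, ← h3, Finset.sum_const, nsmul_eq_mul] at h4
  have h5 : (L.card : ℝ) * ((Z.card : ℝ) * (M * ∑ k ∈ Z, ∑ i ∈ T k,
      (((T k).filter fun j => near k i j).card : ℝ))) < (L.card : ℝ) * a ^ 2 := by
    refine lt_of_eq_of_lt ?_ h4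
    ring
  have h6 := lt_of_mul_lt_mul_left h5 hL0.le
  linarith

/-- a popular label -/
theorem fin3 (K : Finset ℕ) (J : ℕ → Finset ℕ) (lab : ℕ → ℕ) (C : Finset ℕ) {N m a : ℝ}
    (hN : (C.card : ℝ) ≤ N) (hm : 0 ≤ m) (hC : ∀ k ∈ K, ∀ j ∈ J k, lab j ∈ C)
    (hJ : ∀ k ∈ K, ∀ c ∈ C, (((J k).filter fun j => lab j = c).card : ℝ) ≤ m)
    (hsum : a ≤ ∑ k ∈ K, ((J k).card : ℝ)) (ha : 0 < a) :
    ∃ c ∈ C, a ≤ N * (m * ((K.filter fun k => ∃ j ∈ J k, lab j = c).card : ℝ)) := by
  classical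
  have h1 : ∑ k ∈ K, ((J k).card : ℝ) ≤
      ∑ c ∈ C, m * ((K.filter fun k => ∃ j ∈ J k, lab j = c).card : ℝ) := by
    calc ∑ k ∈ K, ((J k).card : ℝ)
        = ∑ k ∈ K, ∑ c ∈ C, (((J k).filter fun j => lab j = c).card : ℝ) := by
          refine Finset.sum_congr rfl fun k hk => ?_
          have : (J k).card = ∑ c ∈ C, ((J k).filter fun i => lab i = c).card :=
            Finset.card_eq_sum_card_fiberwise fun i hi => hC k hk i hi
          exact_mod_cast this
      _ = ∑ c ∈ C, ∑ k ∈ K, (((J k).filter fun j => lab j = c).card : ℝ) := Finset.sum_comm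
      _ ≤ ∑ c ∈ C, m * ((K.filter fun k => ∃ j ∈ J k, lab j = c).card : ℝ) := by
          refine Finset.sum_le_sum fun c hc => ?_
          have e1 : ∀ k ∈ K, (((J k).filter fun j => lab j = c).card : ℝ) ≤
              if (∃ j ∈ J k, lab j = c) then m else 0 := by
            intro k hk
            split_ifs with h
            · exact hJ k hk c hc
            · push Not at h
              have : (J k).filter (fun j => lab j = c) = ∅ :=
                Finset.filter_eq_empty_iff.2 fun j hj => h j hj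
              rw [this]
              simp
          refine (Finset.sum_le_sum e1).trans (le_of_eq ?_)
          rw [← Finset.sum_filter, Finset.sum_const, nsmul_eq_mul, mul_comm]
  by_contra hcon
  push Not at hcon
  rcases C.eq_empty_or_nonempty with rfl | hne
  · simp at h1
    linarith
  · have hC0 : (0 : ℝ) < C.card := by exact_mod_cast hne.card_pos
    have hN0 : 0 < N := hC0.trans_le hN
    have h2 : ∑ c ∈ C, N * (m * ((K.filter fun k => ∃ j ∈ J k, lab j = c).card : ℝ)) <
        ∑ c ∈ C, a := Finset.sum_lt_sum_of_nonempty hne hcon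
    rw [← Finset.mul_sum, Finset.sum_const, nsmul_eq_mul] at h2
    have h3 : a ≤ ∑ c ∈ C, m * ((K.filter fun k => ∃ j ∈ J k, lab j = c).card : ℝ) :=
      hsum.trans h1
    have h4 : N * a ≤ N * ∑ c ∈ C, m * ((K.filter fun k => ∃ j ∈ J k, lab j = c).card : ℝ) :=
      mul_le_mul_of_nonneg_left h3 hN0.le
    have h5 : (C.card : ℝ) * a ≤ N * a := mul_le_mul_of_nonneg_right hN ha.le
    linarith

end Crest.Agent.R116.CD120
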