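import Crest.Agent.R116.CD1a_120

/-!
# R116, FACT [CD] (helper120), part 2: the pin lemma over `RModel`
-/

set_option autoImplicit false
set_option linter.unusedVariables false
set_option linter.unusedSectionVars false

open Filter Topology Finset

namespace Crest.Agent.R116.CD120

open Crest.Agent.R138.Ex926 (Base U)
open Crest.Agent.R136.Gf356

variable {κ : Type} {B : Base} {G : ℕ → RCfg κ} {Leg : Set (κ → ℝ)} {ν : (κ → ℝ) → ℝ}
  {σ R D : ℝ}

/-- **the pin lemma**: one line `i`, one height `h`, partners `j k` of `i` (box `p`, not bad) at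
many heights `k` of `i`, all alive at `h` and all in one class `r1` at the height `h` -/
theorem pin (H : RModel B G σ R Leg ν D) {p pf q0 r1 : κ → ℝ} (hp : p ∈ Leg) (hpf : pf ∈ Leg)
    (hq0 : q0 ∈ Leg) (hr1 : r1 ∈ Leg) (hqr : ∀ j, q0 j ≤ r1 j)
    (hdec : ν q0 - ν r1 ≤ ν p - ν pf) {ε C3 : ℝ} (hε : 0 < ε) (hC3 : 0 < C3)
    (bad : ℕ → ℕ → ℕ → ℕ → Prop)
    (hbad : ∀ᶠ n in (U : Filter ℕ), ∀ i k, (i, k) ∈ (G n).I → ∀ T ⊆ (G n).box p (D ^ 5 * ε) i k,
      (∀ j ∈ T, bad n k i j) → (T.card : ℝ) ≤ B.d n ^ (-ν p + 6 * ε))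
    (hbdd : ∀ᶠ n in (U : Filter ℕ), ∀ k i i', (i, k) ∈ (G n).I → (i', k) ∈ (G n).I →
      (G n).loose q0 ε k i i')
    (hcls : ∀ᶠ n in (U : Filter ℕ), ∀ k h i j j', (i, k) ∈ (G n).I → (j, k) ∈ (G n).I →
      (j', k) ∈ (G n).I → (i, h) ∈ (G n).I → (j, h) ∈ (G n).I → (j', h) ∈ (G n).I →
      (G n).loose p (D ^ 5 * ε) k i j → (G n).loose p (D ^ 5 * ε) k i j' →
      (G n).loose r1 (D ^ 5 * ε) h j j' → (G n).loose pf (C3 * ε) k j j') :
    ∀ᶠ n in (U : Filter ℕ), ∃ (i h : ℕ) (K : Finset ℕ) (j : ℕ → ℕ), (i, h) ∈ (G n).I ∧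
      K ⊆ (G n).Z ∧
      (∀ k ∈ K, (i, k) ∈ (G n).I ∧ (j k, k) ∈ (G n).I ∧ (j k, h) ∈ (G n).I ∧
        (G n).loose p (D ^ 5 * ε) k i (j k) ∧ ¬ bad n k i (j k)) ∧
      (∀ k ∈ K, ∀ k' ∈ K, (G n).loose r1 (D ^ 5 * ε) h (j k) (j k')) ∧
      B.d n ^ ((D ^ 2 + 7 + D * C3) * ε) * ((G n).Z.card : ℝ) ≤ (K.card : ℝ) := by
  classical
  have hD := H.D1
  have hD0 : 0 < D := by linarith
  have hC3ε : 0 < C3 * ε := by positivity
  filter_upwards [H.line ε hε, H.exists_lab p hp hε, H.exists_lab_loose q0 r1 hq0 hr1 hqr hε,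
    H.up pf hpf (C3 * ε) hC3ε, ev_const_le B hε 2, hbad, hbdd, hcls]
    with n hline hlabp hlabr hup h2 hbadn hbddn hclsn
  have hpow : ∀ t : ℝ, 0 < B.d n ^ t := fun t => rpos B n t
  obtain ⟨⟨i1, k1⟩, hI1⟩ := H.nonempty n
  have hLne : (G n).L.Nonempty := ⟨i1, H.memL hI1⟩
  have hZne : (G n).Z.Nonempty := ⟨k1, H.memZ hI1⟩
  have hL0 : (0 : ℝ) < (G n).L.card := by exact_mod_cast hLne.card_pos
  have hZ0 : (0 : ℝ) < (G n).Z.card := by exact_mod_cast hZne.card_pos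
  -- the height `h`
  obtain ⟨h, hh, hsum⟩ := fin1 (G n).L (G n).Z (fun i k => (i, k) ∈ (G n).I) (hpow ε) hLne hZne
    (by intro i hi; exact hline i hi)
  set T : ℕ → Finset ℕ := fun k => (G n).L.filter fun i => (i, k) ∈ (G n).I ∧ (i, h) ∈ (G n).I
    with hT
  have hTm : ∀ {k i}, i ∈ T k ↔ (i, k) ∈ (G n).I ∧ (i, h) ∈ (G n).I := by
    intro k i
    rw [hT]
    simp only [Finset.mem_filter]
    exact ⟨fun h => h.2, fun h => ⟨H.memL h.1, h⟩⟩
  have hTL : ∀ k ∈ (G n).Z, T k ⊆ (G n).L := fun k _ => Finset.filter_subset _ _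
  -- the line `i`
  obtain ⟨i, hi, hisum⟩ := fin2 (G n).L (G n).Z T hTL (fun k i j => (G n).loose p (D ^ 5 * ε) k i j)
    (M := (G n).L.card * B.d n ^ (ν p - ε)) (a := (B.d n ^ ε) ^ 2 * (G n).L.card * (G n).Z.card)
    (mul_pos hL0 (hpow _)) (by have := hpow ε; positivity) hLne hZne
    (by
      intro k hk
      obtain ⟨lab, l1, l2⟩ := hlabp k (T k) (fun t ht => H.memSlice.2 (hTm.1 ht).1) (G n).L
        (fun t _ => RCfg.box_subset_slice.trans (Finset.filter_subset _ _))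
      exact ⟨lab, l1, l2⟩)
    hsum
  set Ki := (G n).Z.filter fun k => i ∈ T k with hKi
  have hKm : ∀ {k}, k ∈ Ki → (i, k) ∈ (G n).I ∧ (i, h) ∈ (G n).I := fun hk =>
    hTm.1 (Finset.mem_filter.1 hk).2
  set E : ℝ := ∑ k ∈ Ki, (((T k).filter fun j => (G n).loose p (D ^ 5 * ε) k i j).card : ℝ) with hE
  have hElow : B.d n ^ (-ν p + 5 * ε) * ((G n).Z.card : ℝ) ≤ E := by
    have e1 : ((B.d n ^ ε) ^ 2 * ((G n).L.card : ℝ) * ((G n).Z.card : ℝ)) ^ 2 =
        ((G n).Z.card : ℝ) * ((G n).L.card * B.d n ^ (ν p - ε)) * ((G n).L.card : ℝ) *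
          (B.d n ^ (-ν p + 5 * ε) * ((G n).Z.card : ℝ)) := by
      have e2 : (B.d n ^ ε) ^ 2 * (B.d n ^ ε) ^ 2 = B.d n ^ (ν p - ε) * B.d n ^ (-ν p + 5 * ε) := by
        rw [sq, ← rpow_add', ← rpow_add', ← rpow_add']
        congr 1
        ring
      calc ((B.d n ^ ε) ^ 2 * ((G n).L.card : ℝ) * ((G n).Z.card : ℝ)) ^ 2
          = ((B.d n ^ ε) ^ 2 * (B.d n ^ ε) ^ 2) * ((G n).L.card : ℝ) ^ 2 *
            ((G n).Z.card : ℝ) ^ 2 := by ring
        _ = _ := by rw [e2]; ring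
    rw [e1] at hisum
    exact le_of_mul_le_mul_left hisum (by have := hpow (ν p - ε); positivity)
  have hih : (i, h) ∈ (G n).I := by
    by_contra hc
    have : Ki = ∅ := Finset.filter_eq_empty_iff.2 fun k _ hk => hc (hTm.1 hk).2
    rw [hE, this, Finset.sum_empty] at hElow
    have : 0 < B.d n ^ (-ν p + 5 * ε) * ((G n).Z.card : ℝ) := mul_pos (hpow _) hZ0
    linarith
  -- the good partners
  set J : ℕ → Finset ℕ := fun k => (T k).filter fun j => (G n).loose p (D ^ 5 * ε) k i j ∧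
    ¬ bad n k i j with hJ
  have hJm : ∀ {k j}, j ∈ J k → (j, k) ∈ (G n).I ∧ (j, h) ∈ (G n).I ∧
      (G n).loose p (D ^ 5 * ε) k i j ∧ ¬ bad n k i j := by
    intro k j hj
    obtain ⟨a1, a2⟩ := Finset.mem_filter.1 hj
    exact ⟨(hTm.1 a1).1, (hTm.1 a1).2, a2.1, a2.2⟩
  have hJlow : B.d n ^ (-ν p + 6 * ε) * ((G n).Z.card : ℝ) ≤ ∑ k ∈ Ki, ((J k).card : ℝ) := by
    have e1 : ∀ k ∈ Ki, (((T k).filter fun j => (G n).loose p (D ^ 5 * ε) k i j).card : ℝ) ≤
        ((J k).card : ℝ) + B.d n ^ (-ν p + 6 * ε) := by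
      intro k hk
      set A := (T k).filter fun j => (G n).loose p (D ^ 5 * ε) k i j with hA
      have s1 : A.card = (A.filter fun j => ¬ bad n k i j).card +
          (A.filter fun j => ¬ ¬ bad n k i j).card :=
        (Finset.card_filter_add_card_filter_not (s := A) (fun j => ¬ bad n k i j)).symm
      have s2 : (A.filter fun j => ¬ bad n k i j) = J k := by
        rw [hA, Finset.filter_filter]
      have s3 : ((A.filter fun j => ¬ ¬ bad n k i j).card : ℝ) ≤ B.d n ^ (-ν p + 6 * ε) := by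
        refine hbadn i k (hKm hk).1 _ ?_ ?_
        · intro j hj
          obtain ⟨b1, b2⟩ := Finset.mem_filter.1 (Finset.mem_filter.1 hj).1
          exact RCfg.mem_box.2 ⟨H.memSlice.2 (hTm.1 b1).1, b2⟩
        · intro j hj
          exact not_not.1 (Finset.mem_filter.1 hj).2
      rw [s1, s2]
      push_cast
      linarith
    have e2 : E ≤ ∑ k ∈ Ki, ((J k).card : ℝ) + (Ki.card : ℝ) * B.d n ^ (-ν p + 6 * ε) := by
      refine (Finset.sum_le_sum e1).trans (le_of_eq ?_)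
      rw [Finset.sum_add_distrib, Finset.sum_const, nsmul_eq_mul]
    have e3 : (Ki.card : ℝ) ≤ ((G n).Z.card : ℝ) := by
      exact_mod_cast Finset.card_le_card (Finset.filter_subset _ _)
    have e4 : 2 * B.d n ^ (-ν p + 6 * ε) ≤ B.d n ^ (-ν p + 5 * ε) := by
      have : B.d n ^ (-ν p + 5 * ε) = B.d n ^ (-ε) * B.d n ^ (-ν p + 6 * ε) := by
        rw [← rpow_add']; congr 1; ring
      rw [this]
      exact mul_le_mul_of_nonneg_right h2 (hpow _).le
    have e5 := mul_le_mul_of_nonneg_right e3 (hpow (-ν p + 6 * ε)).le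
    have e6 := mul_le_mul_of_nonneg_right e4 hZ0.le
    linarith
  -- labels at the height `h`
  set TT := Ki.biUnion J with hTT
  obtain ⟨lab, hlab1, hlab2⟩ := hlabr h TT
    (by
      intro j hj
      obtain ⟨k, hk, hj'⟩ := Finset.mem_biUnion.1 hj
      exact H.memSlice.2 (hJm hj').2.1)
    (by
      intro j hj j' hj'
      obtain ⟨k, hk, hj1⟩ := Finset.mem_biUnion.1 hj
      obtain ⟨k', hk', hj1'⟩ := Finset.mem_biUnion.1 hj'
      exact hbddn h j j' (hJm hj1).2.1 (hJm hj1').2.1)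
  have hmemTT : ∀ {k j}, k ∈ Ki → j ∈ J k → j ∈ TT := fun hk hj =>
    Finset.mem_biUnion.2 ⟨_, hk, hj⟩
  obtain ⟨c, hc, hpop⟩ := fin3 Ki J lab (TT.image lab) (m := B.d n ^ (-ν pf - D * (C3 * ε))) hlab2
    (hpow _).le (fun k hk j hj => Finset.mem_image_of_mem _ (hmemTT hk hj))
    (by
      intro k hk c hc
      rcases ((J k).filter fun j => lab j = c).eq_empty_or_nonempty with he | ⟨j0, hj0⟩
      · rw [he]
        simpa using (hpow _).le
      · obtain ⟨a1, a2⟩ := Finset.mem_filter.1 hj0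
        refine le_trans ?_ (hup j0 k (hJm a1).1)
        refine mod_cast Finset.card_le_card ?_
        intro j hj
        obtain ⟨b1, b2⟩ := Finset.mem_filter.1 hj
        refine RCfg.mem_box.2 ⟨H.memSlice.2 (hJm b1).1, ?_⟩
        exact hclsn k h i j0 j (hKm hk).1 (hJm a1).1 (hJm b1).1 (hKm hk).2 (hJm a1).2.1
          (hJm b1).2.1 (hJm a1).2.2.1 (hJm b1).2.2.1
          (hlab1 j0 (hmemTT hk a1) j (hmemTT hk b1) (by rw [a2, b2])))
    hJlow (mul_pos (hpow _) hZ0)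
  set K := Ki.filter fun k => ∃ j ∈ J k, lab j = c with hK
  have hKj : ∀ k, ∃ j, k ∈ K → j ∈ J k ∧ lab j = c := by
    intro k
    by_cases hk : k ∈ K
    · obtain ⟨j, h1, h2⟩ := (Finset.mem_filter.1 hk).2
      exact ⟨j, fun _ => ⟨h1, h2⟩⟩
    · exact ⟨0, fun h => absurd h hk⟩
  choose jj hjj using hKj
  refine ⟨i, h, K, jj, hih, ?_, ?_, ?_, ?_⟩
  · exact (Finset.filter_subset _ _).trans (Finset.filter_subset _ _)
  · intro k hk
    have hk' := (Finset.mem_filter.1 hk).1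
    have := hJm (hjj k hk).1
    exact ⟨(hKm hk').1, this.1, this.2.1, this.2.2.1, this.2.2.2⟩
  · intro k hk k' hk'
    have h1 := (Finset.mem_filter.1 hk).1
    have h1' := (Finset.mem_filter.1 hk').1
    exact hlab1 _ (hmemTT h1 (hjj k hk).1) _ (hmemTT h1' (hjj k' hk').1)
      (by rw [(hjj k hk).2, (hjj k' hk').2])
  · -- the count
    have e1 : B.d n ^ (-(ν q0 - ν r1) - (D ^ 2 + 1) * ε) *
        (B.d n ^ (-ν pf - D * (C3 * ε)) * (K.card : ℝ)) =
        B.d n ^ (-(ν q0 - ν r1) - (D ^ 2 + 1) * ε + (-ν pf - D * (C3 * ε))) * (K.card : ℝ) := by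
      rw [rpow_add']; ring
    rw [e1] at hpop
    have e2 : B.d n ^ (-ν p + 6 * ε) = B.d n ^ (-(ν q0 - ν r1) - (D ^ 2 + 1) * ε +
        (-ν pf - D * (C3 * ε))) * B.d n ^ ((D ^ 2 + 7 + D * C3) * ε +
          ((ν q0 - ν r1) - (ν p - ν pf))) := by
      rw [← rpow_add']; congr 1; ring
    rw [e2, mul_assoc] at hpop
    have e3 := le_of_mul_le_mul_left hpop (hpow _)
    refine le_trans ?_ e3
    exact mul_le_mul_of_nonneg_right (rpow_anti B n (by linarith)) hZ0.le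

end Crest.Agent.R116.CD120
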