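import Crest.Agent.R138.WpkDef_685

/-!
# R116 (S0155): literal objects of the WAVE side for the light cone (helper480)

Frequency `ζ = (ω, η) : E3`, position `X = (x', y) : E3`, time `s`.
`extc g X s = ∫ g ζ ee(⟨X, ζ⟩ + s hc ζ)`, `hc ζ = |ω|²/(2η)`, slope `slp ζ = ω/η`.
Rays: `X - s • vel C`, `vel C = (C, -|C|²/2)`, i.e. `x' = a - s C`, `y = c + s |C|²/2`;
`nrm C X s = y + C.x' + s |C|²/2` is constant along the rays of slope `C`.
Invariants (affine along every ray): `1, s, x'_1, x'_2, y, qf X s = |x'|² - 2 s y`.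
Caps live in slope space: `capc ρ m ζ = cap win (cen ρ m) ρ (slp ζ)` (685's window of `E2`).
Slices: `|ζ 2 - η0| ≤ κ`.
-/

set_option autoImplicit false

open MeasureTheory FourierTransform
open scoped ContDiff ENNReal

namespace Crest.Agent.R116.CDef480

open Crest.Agent.R138.Defs (E2 ee)
open Crest.Agent.R138.Wpk685 (th win fat cen caps cap bmp)

/-- frequency / position space. -/
abbrev E3 := EuclideanSpace ℝ (Fin 3)

/-- lateral part. -/
noncomputable def lat (ζ : E3) : E2 := !₂[ζ 0, ζ 1]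

/-- the point with lateral part `x` and last coordinate `y`. -/
noncomputable def pt (x : E2) (y : ℝ) : E3 := !₂[x 0, x 1, y]

/-- slope of a frequency. -/
noncomputable def slp (ζ : E3) : E2 := (ζ 2)⁻¹ • lat ζ

/-- the cone in null coordinates. -/
noncomputable def hc (ζ : E3) : ℝ := ‖lat ζ‖ ^ 2 / (2 * ζ 2)

/-- the extension operator of the cone. -/
noncomputable def extc (g : E3 → ℂ) (X : E3) (s : ℝ) : ℂ :=
  ∫ ζ, g ζ * ee (inner ℝ X ζ + s * hc ζ)

/-- velocity of the rays of slope `C` (gradient of `hc`): the ray through `X` is `X - s • vel C`. -/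
noncomputable def vel (C : E2) : E3 := pt C (-‖C‖ ^ 2 / 2)

/-- the null normal coordinate, constant along the rays of slope `C`. -/
noncomputable def nrm (C : E2) (X : E3) (s : ℝ) : ℝ :=
  X 2 + inner ℝ C (lat X) + s * ‖C‖ ^ 2 / 2

/-- the quadratic invariant. -/
noncomputable def qf (X : E3) (s : ℝ) : ℝ := ‖lat X‖ ^ 2 - 2 * s * X 2

/-- translation: `extc (trc z g) X s = extc g (X + z.1) (s + z.2)`. -/
noncomputable def trc (z : E3 × ℝ) (g : E3 → ℂ) (ζ : E3) : ℂ :=
  g ζ * ee (inner ℝ z.1 ζ + z.2 * hc ζ)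

/-- the slice of `extc g` at time `t`, on the frequency side. -/
noncomputable def slc (g : E3 → ℂ) (t : ℝ) (ζ : E3) : ℂ := g ζ * ee (t * hc ζ)

/-- energy. -/
noncomputable def Enc (g : E3 → ℂ) : ℝ := ∫ ζ, ‖g ζ‖ ^ 2

/-- the cylinder of size `R`. -/
def cylc (R : ℝ) : Set (E3 × ℝ) := {p | ‖p.1‖ ≤ R ∧ |p.2| ≤ R}

/-- the window of the cap `m` of size `ρ` in slope space. -/
noncomputable def capc (ρ : ℝ) (m : ℤ × ℤ) (ζ : E3) : ℂ := cap win (cen ρ m) ρ (slp ζ)

/-- the fat window of the cap `m`. -/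
noncomputable def fatc (ρ : ℝ) (m : ℤ × ℤ) (ζ : E3) : ℂ := cap fat (cen ρ m) ρ (slp ζ)

/-- the window in the scalar frequency: one for `|η - η0| ≤ 3κ/2`, zero for `|η - η0| ≥ 2κ`. -/
noncomputable def etw (η0 κ : ℝ) (ζ : E3) : ℂ :=
  (((⟨3/2, 2, by norm_num, by norm_num⟩ : ContDiffBump (0 : ℝ)) ((ζ 2 - η0) / κ) : ℝ) : ℂ)

/-- `g` lives on the slice `|η - η0| ≤ κ`. -/
def Slc (η0 κ : ℝ) (g : E3 → ℂ) : Prop := ∀ ζ, g ζ ≠ 0 → |ζ 2 - η0| ≤ κ

/-- `g` has slopes at most `σ`. -/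
def Slp (σ : ℝ) (g : E3 → ℂ) : Prop := ∀ ζ, g ζ ≠ 0 → ‖slp ζ‖ ≤ σ

/-- the piece of `g` in the cap `m`, physical side. -/
noncomputable def umc (ρ : ℝ) (g : E3 → ℂ) (m : ℤ × ℤ) : E3 → ℂ :=
  𝓕⁻ (fun ζ => capc ρ m ζ * g ζ)

/-- energy of a selection (`S m` = positions at time `0` of the packets of the cap `m`). -/
noncomputable def enc (ρ : ℝ) (g : E3 → ℂ) (S : ℤ × ℤ → Set E3) : ℝ≥0∞ :=
  ∑ m ∈ caps ρ, ∫⁻ x in S m, ‖umc ρ g m x‖ₑ ^ 2

/-- one selected piece. -/
noncomputable def piecec (η0 κ ρ : ℝ) (g : E3 → ℂ) (m : ℤ × ℤ) (S : Set E3) : E3 → ℂ :=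
  fun ζ => fatc ρ m ζ * etw η0 κ ζ * 𝓕 (S.indicator (umc ρ g m)) ζ

/-- the selected wave. -/
noncomputable def selc (η0 κ ρ : ℝ) (g : E3 → ℂ) (S : ℤ × ℤ → Set E3) : E3 → ℂ :=
  fun ζ => ∑ m ∈ caps ρ, piecec η0 κ ρ g m (S m) ζ

/-! ### elementary identities -/

@[simp] theorem lat_zero (ζ : E3) : lat ζ 0 = ζ 0 := rfl
@[simp] theorem lat_one (ζ : E3) : lat ζ 1 = ζ 1 := rfl
@[simp] theorem pt_zero (x : E2) (y : ℝ) : pt x y 0 = x 0 := rfl
@[simp] theorem pt_one (x : E2) (y : ℝ) : pt x y 1 = x 1 := rfl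
@[simp] theorem pt_two (x : E2) (y : ℝ) : pt x y 2 = y := rfl

@[simp] theorem lat_pt (x : E2) (y : ℝ) : lat (pt x y) = x := by
  ext i; fin_cases i <;> rfl

@[simp] theorem pt_lat (ζ : E3) : pt (lat ζ) (ζ 2) = ζ := by
  ext i; fin_cases i <;> rfl

theorem inner2 (x y : E2) : inner ℝ x y = x 0 * y 0 + x 1 * y 1 := by
  simp only [PiLp.inner_apply, Fin.sum_univ_two, RCLike.inner_apply, conj_trivial]
  ring

theorem inner3 (x y : E3) : inner ℝ x y = x 0 * y 0 + x 1 * y 1 + x 2 * y 2 := by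
  simp only [PiLp.inner_apply, Fin.sum_univ_three, RCLike.inner_apply, conj_trivial]
  ring

theorem inner_split (x y : E3) : inner ℝ x y = inner ℝ (lat x) (lat y) + x 2 * y 2 := by
  rw [inner3, inner2]; rfl

theorem normsq2 (x : E2) : ‖x‖ ^ 2 = x 0 ^ 2 + x 1 ^ 2 := by
  rw [← real_inner_self_eq_norm_sq, inner2]; ring

theorem normsq3 (x : E3) : ‖x‖ ^ 2 = ‖lat x‖ ^ 2 + x 2 ^ 2 := by
  rw [← real_inner_self_eq_norm_sq, inner3, normsq2]
  simp only [lat_zero, lat_one]
  ring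

theorem lat_add (x y : E3) : lat (x + y) = lat x + lat y := by ext i; fin_cases i <;> rfl
theorem lat_sub (x y : E3) : lat (x - y) = lat x - lat y := by ext i; fin_cases i <;> rfl
theorem lat_smul (c : ℝ) (x : E3) : lat (c • x) = c • lat x := by ext i; fin_cases i <;> rfl

theorem pt_add (x x' : E2) (y y' : ℝ) : pt (x + x') (y + y') = pt x y + pt x' y' := by
  ext i; fin_cases i <;> rfl

theorem pt_smul (c : ℝ) (x : E2) (y : ℝ) : pt (c • x) (c * y) = c • pt x y := by
  ext i; fin_cases i <;> rfl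

/-- `lat` as a continuous linear map. -/
noncomputable def latL : E3 →L[ℝ] E2 :=
  LinearMap.toContinuousLinearMap
    { toFun := lat
      map_add' := lat_add
      map_smul' := fun c x => lat_smul c x }

@[simp] theorem latL_apply (ζ : E3) : latL ζ = lat ζ := rfl

theorem lat_slp {ζ : E3} (h : ζ 2 ≠ 0) : lat ζ = ζ 2 • slp ζ := by
  unfold slp
  rw [smul_smul, mul_inv_cancel₀ h, one_smul]

/-- decomposition of the phase at the slope `C`. -/
theorem hc_split (C : E2) {ζ : E3} (h : ζ 2 ≠ 0) :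
    hc ζ = inner ℝ (vel C) ζ + ‖lat ζ - ζ 2 • C‖ ^ 2 / (2 * ζ 2) := by
  unfold hc vel
  rw [inner_split, lat_pt, pt_two, normsq2, normsq2, normsq2, inner2]
  simp only [PiLp.sub_apply, PiLp.smul_apply, smul_eq_mul, lat_zero, lat_one]
  field_simp
  ring

/-- the ray of slope `C` through `X`: the normal is constant. -/
theorem nrm_ray (C : E2) (X : E3) (s t : ℝ) : nrm C (X - t • vel C) (s + t) = nrm C X s := by
  unfold nrm vel
  rw [lat_sub, lat_smul, lat_pt, inner_sub_right, inner_smul_right, real_inner_self_eq_norm_sq]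
  simp only [PiLp.sub_apply, PiLp.smul_apply, smul_eq_mul, pt_two]
  ring

/-- the quadratic invariant is affine along the rays. -/
theorem qf_ray (C : E2) (X : E3) (s t : ℝ) : qf (X - t • vel C) (s + t) =
    qf X s - t * (2 * (inner ℝ C (lat X) + s * ‖C‖ ^ 2 / 2 + X 2)) := by
  unfold qf vel
  rw [lat_sub, lat_smul, lat_pt, normsq2, normsq2, normsq2, inner2]
  simp only [PiLp.sub_apply, PiLp.smul_apply, smul_eq_mul, pt_two, lat_zero, lat_one]
  ring

theorem measurable_coord (i : Fin 3) : Measurable (fun ζ : E3 => ζ i) :=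
  (EuclideanSpace.proj (𝕜 := ℝ) i).measurable

theorem measurable_lat : Measurable lat := latL.measurable

theorem measurable_hc : Measurable hc :=
  (measurable_lat.norm.pow_const 2).div ((measurable_coord 2).const_mul 2)

theorem measurable_slp : Measurable slp := (measurable_coord 2).inv.smul measurable_lat

theorem continuous_ee' : Continuous ee := Crest.Agent.R138.Wpk685.continuous_ee

theorem measurable_slc {g : E3 → ℂ} (hg : Measurable g) (t : ℝ) : Measurable (slc g t) :=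
  hg.mul (continuous_ee'.measurable.comp (measurable_hc.const_mul t))

theorem norm_slc (g : E3 → ℂ) (t : ℝ) (ζ : E3) : ‖slc g t ζ‖ = ‖g ζ‖ := by
  unfold slc
  rw [norm_mul, Crest.Agent.R138.Wpk685.norm_ee, mul_one]

theorem slc_int {g : E3 → ℂ} (hg : Integrable g) (t : ℝ) : Integrable (slc g t) :=
  hg.mul_bdd (c := 1) (continuous_ee'.measurable.comp
    (measurable_hc.const_mul t)).aestronglyMeasurable
    (Filter.Eventually.of_forall fun _ => (Crest.Agent.R138.Wpk685.norm_ee _).le)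

theorem slc_l2 {g : E3 → ℂ} (hg : MemLp g 2) (t : ℝ) : MemLp (slc g t) 2 := by
  refine MemLp.of_le hg (hg.1.mul (continuous_ee'.measurable.comp
    (measurable_hc.const_mul t)).aestronglyMeasurable) (Filter.Eventually.of_forall fun ζ => ?_)
  exact (norm_slc g t ζ).le

/-- `extc g X s` is the inverse Fourier transform of the slice. -/
theorem extc_eq (g : E3 → ℂ) (X : E3) (s : ℝ) : extc g X s = 𝓕⁻ (slc g s) X := by
  rw [Real.fourierInv_eq']
  unfold extc slc
  congr 1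
  ext ζ
  rw [smul_eq_mul, Crest.Agent.R138.Wpk685.ee_add, real_inner_comm]
  unfold ee
  push_cast
  ring_nf

theorem extc_trc (z : E3 × ℝ) (g : E3 → ℂ) (X : E3) (s : ℝ) :
    extc (trc z g) X s = extc g (X + z.1) (s + z.2) := by
  unfold extc trc
  congr 1
  ext ζ
  rw [mul_assoc, ← Crest.Agent.R138.Wpk685.ee_add, inner_add_left]
  congr 2
  ring

end Crest.Agent.R116.CDef480
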