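import Crest.Agent.R116.CWp4_480
import Crest.Agent.R116.CDef_480

/-!
# R116 (S0155): cone packets, part 1 (helper480)

The plate frames `Pl ρ κ C : X ↦ (ρ x', κ (y + C.x'))`, uniform windows, the windows of the caps,
transport multipliers, bounded overlap.
-/

set_option autoImplicit false
set_option linter.unusedSectionVars false

open MeasureTheory FourierTransform
open scoped ContDiff ENNReal

namespace Crest.Agent.R116.CWc480

open Crest.Agent.R138.Wf448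
open Crest.Agent.R138.Defs (E2 ee)
open Crest.Agent.R138.Wpk685 (win fat cen caps)
open Crest.Agent.R116.CWp480 Crest.Agent.R116.CDef480

/-! ### frames -/

/-- the plate map. -/
noncomputable def plL (ρ κ : ℝ) (C : E2) : E3 →ₗ[ℝ] E3 where
  toFun X := pt (ρ • lat X) (κ * (X 2 + inner ℝ C (lat X)))
  map_add' X Y := by
    rw [← pt_add]
    congr 1
    · rw [lat_add, smul_add]
    · rw [lat_add, inner_add_right, PiLp.add_apply]; ring
  map_smul' c X := by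
    rw [RingHom.id_apply, ← pt_smul]
    congr 1
    · rw [lat_smul, smul_comm]
    · rw [lat_smul, inner_smul_right, PiLp.smul_apply, smul_eq_mul]; ring

/-- the plate frame `X ↦ (ρ x', κ (y + C.x'))`. -/
noncomputable def Pl (ρ κ : ℝ) (hρ : 0 < ρ) (hκ : 0 < κ) (C : E2) : E3 ≃L[ℝ] E3 :=
  LinearEquiv.toContinuousLinearEquiv
    { plL ρ κ C with
      invFun := fun Y => pt (ρ⁻¹ • lat Y) (κ⁻¹ * Y 2 - inner ℝ C (ρ⁻¹ • lat Y))
      left_inv := fun X => by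
        show pt (ρ⁻¹ • lat (pt (ρ • lat X) (κ * (X 2 + inner ℝ C (lat X)))))
          (κ⁻¹ * (pt (ρ • lat X) (κ * (X 2 + inner ℝ C (lat X)))) 2 - inner ℝ C
            (ρ⁻¹ • lat (pt (ρ • lat X) (κ * (X 2 + inner ℝ C (lat X)))))) = X
        rw [lat_pt, pt_two, smul_smul, inv_mul_cancel₀ hρ.ne', one_smul, ← mul_assoc,
          inv_mul_cancel₀ hκ.ne', one_mul, add_sub_cancel_right, pt_lat]
      right_inv := fun Y => by
        show pt (ρ • lat (pt (ρ⁻¹ • lat Y) (κ⁻¹ * Y 2 - inner ℝ C (ρ⁻¹ • lat Y))))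
          (κ * ((pt (ρ⁻¹ • lat Y) (κ⁻¹ * Y 2 - inner ℝ C (ρ⁻¹ • lat Y))) 2 + inner ℝ C
            (lat (pt (ρ⁻¹ • lat Y) (κ⁻¹ * Y 2 - inner ℝ C (ρ⁻¹ • lat Y)))))) = Y
        rw [lat_pt, pt_two, smul_smul, mul_inv_cancel₀ hρ.ne', one_smul, sub_add_cancel, ← mul_assoc,
          mul_inv_cancel₀ hκ.ne', one_mul, pt_lat] }

theorem Pl_apply {ρ κ : ℝ} (hρ : 0 < ρ) (hκ : 0 < κ) (C : E2) (X : E3) :
    Pl ρ κ hρ hκ C X = pt (ρ • lat X) (κ * (X 2 + inner ℝ C (lat X))) := rfl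

theorem adjE_Pl {ρ κ : ℝ} (hρ : 0 < ρ) (hκ : 0 < κ) (C : E2) (Z : E3) :
    adjE (Pl ρ κ hρ hκ C) Z = pt (ρ • lat Z + (κ * Z 2) • C) (κ * Z 2) := by
  refine ext_inner_right ℝ fun X => ?_
  rw [inner_adjE, Pl_apply, inner_split, inner_split, lat_pt, lat_pt, pt_two, pt_two,
    inner_add_left, inner_smul_left, inner_smul_right, inner_smul_left]
  simp only [conj_trivial]
  ring

/-- centre of the cap of slope `C` in the slice `η0`. -/
noncomputable def ctr (η0 : ℝ) (C : E2) : E3 := pt (η0 • C) η0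

/-- coordinates of a frequency in the frame of the slope `C`. -/
theorem symm_Pl {ρ κ : ℝ} (hρ : 0 < ρ) (hκ : 0 < κ) (η0 : ℝ) (C : E2) (ζ : E3) :
    (adjE (Pl ρ κ hρ hκ C)).symm (ζ - ctr η0 C) =
      pt (ρ⁻¹ • (lat ζ - ζ 2 • C)) ((ζ 2 - η0) / κ) := by
  rw [ContinuousLinearEquiv.symm_apply_eq, adjE_Pl, lat_pt, pt_two]
  have e1 : κ * ((ζ 2 - η0) / κ) = ζ 2 - η0 := by field_simp
  rw [e1, smul_smul, mul_inv_cancel₀ hρ.ne', one_smul]
  unfold ctr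
  ext i
  fin_cases i
  · show ζ 0 - η0 * C 0 = (ζ 0 - ζ 2 * C 0) + (ζ 2 - η0) * C 0
    ring
  · show ζ 1 - η0 * C 1 = (ζ 1 - ζ 2 * C 1) + (ζ 2 - η0) * C 1
    ring
  · rfl

theorem lat_sub_eq {ζ : E3} (h : ζ 2 ≠ 0) (C : E2) : lat ζ - ζ 2 • C = ζ 2 • (slp ζ - C) := by
  rw [smul_sub, ← lat_slp h]

theorem norm_pt_le (x : E2) (y : ℝ) : ‖pt x y‖ ≤ ‖x‖ + |y| := by
  have h := normsq3 (pt x y)
  rw [lat_pt, pt_two] at h
  have h1 := norm_nonneg x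
  have h2 := abs_nonneg y
  have h3 := norm_nonneg (pt x y)
  have h4 := sq_abs y
  nlinarith

theorem norm_lat_le (X : E3) : ‖lat X‖ ≤ ‖X‖ := by
  have h := normsq3 X
  have h1 := norm_nonneg (lat X)
  have h3 := norm_nonneg X
  nlinarith [sq_nonneg (X 2)]

theorem abs_two_le (X : E3) : |X 2| ≤ ‖X‖ := by
  have h := normsq3 X
  have h3 := norm_nonneg X
  have h4 := sq_abs (X 2)
  have h5 := abs_nonneg (X 2)
  nlinarith [sq_nonneg ‖lat X‖]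

/-! ### uniform windows -/

theorem unif_win {P V : Type} [NormedAddCommGroup P] [NormedSpace ℝ P] [NormedAddCommGroup V]
    [InnerProductSpace ℝ V] [FiniteDimensional ℝ V] [MeasurableSpace V] [BorelSpace V]
    {F : P × V → ℂ} (hF : ContDiff ℝ ∞ F) {K : Set P} (hK : IsCompact K)
    (hs : ∀ p ∈ K, ∀ z, 8 < ‖z‖ → F (p, z) = 0) (N : ℕ) :
    ∃ Q : ℝ, 0 ≤ Q ∧ ∀ p ∈ K, Win N Q (fun z => F (p, z)) := by
  have hb : ∀ j : ℕ, ∃ C : ℝ, ∀ x ∈ K ×ˢ Metric.closedBall (0 : V) 8,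
      ‖iteratedFDeriv ℝ j F x‖ ≤ C := by
    intro j
    have h1 : Continuous (iteratedFDeriv ℝ j F) :=
      hF.continuous_iteratedFDeriv (m := j) (mod_cast le_top)
    exact (hK.prod (isCompact_closedBall _ _)).exists_bound_of_continuousOn h1.continuousOn
  choose C hC using hb
  refine ⟨∑ j ∈ Finset.range (N + 1), |C j|, Finset.sum_nonneg fun j _ => abs_nonneg _, ?_⟩
  intro p hp
  have hsm : ContDiff ℝ ∞ (fun z => F (p, z)) := hF.comp (contDiff_const.prodMk contDiff_id)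
  refine ⟨hsm, hs p hp, ?_⟩
  intro j hj z
  by_cases hz : ‖z‖ ≤ 8
  · have h1 : (fun z : V => F (p, z)) = (fun w => F ((p, 0) + w)) ∘ (ContinuousLinearMap.inr ℝ P V) := by
      funext z
      simp
    have h2 : ContDiff ℝ j (fun w => F ((p, (0:V)) + w)) :=
      (hF.comp (contDiff_const.add contDiff_id)).of_le (by exact_mod_cast le_top)
    rw [h1, ContinuousLinearMap.iteratedFDeriv_comp_right (ContinuousLinearMap.inr ℝ P V) h2 z le_rfl,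
      iteratedFDeriv_comp_add_left]
    refine (ContinuousMultilinearMap.norm_compContinuousLinearMap_le _ _).trans ?_
    rw [Finset.prod_const, Finset.card_fin]
    have h3 : ‖ContinuousLinearMap.inr ℝ P V‖ ≤ 1 := by
      refine ContinuousLinearMap.opNorm_le_bound _ zero_le_one fun v => ?_
      simp [Prod.norm_def]
    have h4 : ((p, (0:V)) + (ContinuousLinearMap.inr ℝ P V) z) = (p, z) := by simp
    rw [h4]
    have h5 := hC j (p, z) ⟨hp, by simpa using hz⟩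
    calc _ ≤ |C j| * 1 := by
          refine mul_le_mul (h5.trans (le_abs_self _)) (pow_le_one₀ (norm_nonneg _) h3)
            (by positivity) (abs_nonneg _)
      _ = |C j| := mul_one _
      _ ≤ _ := Finset.single_le_sum (f := fun j => |C j|) (fun j _ => abs_nonneg _)
          (Finset.mem_range.2 (Nat.lt_succ_of_le hj))
  · push Not at hz
    have hev : (fun z => F (p, z)) =ᶠ[nhds z] fun _ => 0 := by
      have hopen : IsOpen {z : V | 8 < ‖z‖} := isOpen_lt continuous_const continuous_norm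
      filter_upwards [hopen.mem_nhds hz] with y hy
      exact hs p hp y hy
    rw [(hev.iteratedFDeriv ℝ j).self_of_nhds]
    have : iteratedFDeriv ℝ j (fun _ : V => (0:ℂ)) z = 0 := by
      have := congrFun (iteratedFDeriv_fun_zero (𝕜 := ℝ) (E := V) (F := ℂ) (n := j)) z
      exact this
    rw [this, norm_zero]
    exact Finset.sum_nonneg fun j _ => abs_nonneg _

/-- smooth inverse: `t⁻¹` on `[1/2, 3]`. -/
noncomputable def Ji (t : ℝ) : ℝ :=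
  t⁻¹ * (⟨5/4, 3/2, by norm_num, by norm_num⟩ : ContDiffBump (7/4 : ℝ)) t

theorem Ji_eq {t : ℝ} (h1 : 1/2 ≤ t) (h2 : t ≤ 3) : Ji t = t⁻¹ := by
  unfold Ji
  rw [ContDiffBump.one_of_mem_closedBall, mul_one]
  rw [Metric.mem_closedBall, Real.dist_eq, abs_le]
  constructor <;> simp only <;> linarith

theorem Ji_smooth : ContDiff ℝ ∞ Ji := by
  rw [contDiff_iff_contDiffAt]
  intro t
  unfold Ji
  rcases eq_or_ne t 0 with rfl | h
  · have hev : (fun t : ℝ => t⁻¹ * (⟨5/4, 3/2, by norm_num, by norm_num⟩ :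
        ContDiffBump (7/4 : ℝ)) t) =ᶠ[nhds 0] fun _ => 0 := by
      have hopen : IsOpen {t : ℝ | t < 1/4} := isOpen_lt continuous_id continuous_const
      filter_upwards [hopen.mem_nhds (show (0:ℝ) < 1/4 by norm_num)] with y hy
      rw [ContDiffBump.zero_of_le_dist, mul_zero]
      have hy' : y < 1/4 := hy
      rw [Real.dist_eq, abs_sub_comm, abs_of_pos (by linarith)]
      simp only
      linarith
    exact contDiffAt_const.congr_of_eventuallyEq hev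
  · exact (contDiffAt_inv ℝ h).mul (ContDiffBump.contDiff _).contDiffAt

/-- one dimensional bump. -/
noncomputable def bt (x : ℝ) : ℂ :=
  (((⟨3/2, 2, by norm_num, by norm_num⟩ : ContDiffBump (0 : ℝ)) x : ℝ) : ℂ)

theorem bt_smooth : ContDiff ℝ ∞ bt := Complex.ofRealCLM.contDiff.comp (ContDiffBump.contDiff _)

theorem bt_one {x : ℝ} (h : |x| ≤ 3/2) : bt x = 1 := by
  unfold bt
  rw [ContDiffBump.one_of_mem_closedBall]
  · simp
  · rw [Metric.mem_closedBall, Real.dist_eq, sub_zero]; exact h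

theorem bt_zero {x : ℝ} (h : 2 ≤ |x|) : bt x = 0 := by
  unfold bt
  rw [ContDiffBump.zero_of_le_dist]
  · simp
  · rw [Real.dist_eq, sub_zero]; exact h

theorem norm_bt_le (x : ℝ) : ‖bt x‖ ≤ 1 := by
  unfold bt
  rw [Complex.norm_real, Real.norm_eq_abs, abs_of_nonneg (ContDiffBump.nonneg _)]
  exact ContDiffBump.le_one _

theorem etw_eq (η0 κ : ℝ) (ζ : E3) : etw η0 κ ζ = bt ((ζ 2 - η0) / κ) := rfl

/-- the window of a cap in its own coordinates. -/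
noncomputable def wnd (a : E2 → ℂ) (p : ℝ × ℝ) (z : E3) : ℂ :=
  a (Ji (p.1 + p.2 * z 2) • lat z) * bt (z 2)

/-- parameters. -/
def Par : Set (ℝ × ℝ) := Set.Icc 1 2 ×ˢ Set.Icc 0 (1/4)

theorem Par_compact : IsCompact Par := isCompact_Icc.prod isCompact_Icc

theorem coord_smooth (i : Fin 3) : ContDiff ℝ ∞ (fun z : E3 => z i) :=
  (EuclideanSpace.proj (𝕜 := ℝ) i).contDiff

theorem lat_smooth : ContDiff ℝ ∞ lat := latL.contDiff

theorem wnd_smooth {a : E2 → ℂ} (ha : ContDiff ℝ ∞ a) :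
    ContDiff ℝ ∞ (fun x : (ℝ × ℝ) × E3 => wnd a x.1 x.2) := by
  unfold wnd
  have h2 : ContDiff ℝ ∞ (fun x : (ℝ × ℝ) × E3 => x.2 2) := (coord_smooth 2).comp contDiff_snd
  have h1 : ContDiff ℝ ∞ (fun x : (ℝ × ℝ) × E3 => x.1.1 + x.1.2 * x.2 2) :=
    (contDiff_fst.comp contDiff_fst).add ((contDiff_snd.comp contDiff_fst).mul h2)
  exact (ha.comp ((Ji_smooth.comp h1).smul (lat_smooth.comp contDiff_snd))).mul (bt_smooth.comp h2)

theorem eta_range {η0 κ z : ℝ} (h1 : 1 ≤ η0) (h2 : η0 ≤ 2) (hκ : 0 ≤ κ) (hκ2 : κ ≤ 1/4)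
    (hz : |z| ≤ 2) : 1/2 ≤ η0 + κ * z ∧ η0 + κ * z ≤ 5/2 := by
  have h3 : |κ * z| ≤ 1/2 := by
    rw [abs_mul, abs_of_nonneg hκ]
    calc κ * |z| ≤ 1/4 * 2 := by gcongr
      _ = 1/2 := by norm_num
  obtain ⟨h4, h5⟩ := abs_le.1 h3
  constructor <;> linarith

theorem wnd_supp {a : E2 → ℂ} {R : ℝ} (hs : ∀ ζ, R < ‖ζ‖ → a ζ = 0) (hR : 0 ≤ R) {p : ℝ × ℝ}
    (hp : p ∈ Par) {z : E3} (hz : wnd a p z ≠ 0) : ‖lat z‖ ≤ 5/2 * R ∧ |z 2| ≤ 2 := by
  obtain ⟨⟨h1, h2⟩, h3, h4⟩ := hp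
  have hb : |z 2| ≤ 2 := by
    by_contra hc
    push Not at hc
    exact hz (by unfold wnd; rw [bt_zero hc.le, mul_zero])
  refine ⟨?_, hb⟩
  obtain ⟨h5, h6⟩ := eta_range h1 h2 h3 h4 hb
  by_contra hc
  push Not at hc
  apply hz
  unfold wnd
  have h7 : Ji (p.1 + p.2 * z 2) = (p.1 + p.2 * z 2)⁻¹ := Ji_eq h5 (by linarith)
  rw [h7, hs, zero_mul]
  have h8 : 0 < p.1 + p.2 * z 2 := by linarith
  rw [norm_smul, Real.norm_eq_abs, abs_of_pos (inv_pos.2 h8), lt_inv_mul_iff₀ h8]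
  calc (p.1 + p.2 * z 2) * R ≤ 5/2 * R := by gcongr
    _ < ‖lat z‖ := hc

theorem wnd_unif {a : E2 → ℂ} (ha : ContDiff ℝ ∞ a) (hs : ∀ ζ, 3/2 < ‖ζ‖ → a ζ = 0) (N : ℕ) :
    ∃ Q : ℝ, 0 ≤ Q ∧ ∀ p ∈ Par, Win N Q (wnd a p) := by
  refine unif_win (F := fun x : (ℝ × ℝ) × E3 => wnd a x.1 x.2) (wnd_smooth ha) Par_compact ?_ N
  intro p hp z hz
  by_contra hc
  obtain ⟨h1, h2⟩ := wnd_supp hs (by norm_num) hp hc
  have h3 := normsq3 z
  have h4 := sq_abs (z 2)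
  have h5 := norm_nonneg (lat z)
  have h6 := abs_nonneg (z 2)
  nlinarith

/-- the windows of the caps are `wnd` in the plate frame. -/
theorem cap_wnd {ρ κ η0 : ℝ} (hρ : 0 < ρ) (hκ : 0 < κ) (hκ2 : κ ≤ 1/4) (h1 : 1 ≤ η0)
    (h2 : η0 ≤ 2) (a : E2 → ℂ) (C : E2) (ζ : E3) :
    CWp480.cap (wnd a (η0, κ)) (ctr η0 C) (Pl ρ κ hρ hκ C) ζ =
      Crest.Agent.R138.Wpk685.cap a C ρ (slp ζ) * etw η0 κ ζ := by
  unfold CWp480.cap
  rw [symm_Pl, etw_eq]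
  unfold wnd
  rw [pt_two, lat_pt]
  by_cases hz : 2 ≤ |(ζ 2 - η0) / κ|
  · rw [bt_zero hz, mul_zero, mul_zero]
  · push Not at hz
    obtain ⟨h5, h6⟩ := eta_range h1 h2 hκ.le hκ2 hz.le
    have e1 : η0 + κ * ((ζ 2 - η0) / κ) = ζ 2 := by field_simp; ring
    simp only [e1] at h5 h6 ⊢
    rw [Ji_eq h5 (by linarith)]
    unfold Crest.Agent.R138.Wpk685.cap
    congr 2
    have h7 : ζ 2 ≠ 0 := by linarith
    rw [lat_sub_eq h7, smul_smul, smul_smul]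
    congr 1
    field_simp

/-! ### transport multipliers -/

/-- the bump equal to one on the ball of radius `5`, zero off the ball of radius `7`. -/
noncomputable def b57 (z : E3) : ℂ := (((⟨5, 7, by norm_num, by norm_num⟩ : ContDiffBump (0 : E3)) z : ℝ) : ℂ)

theorem b57_smooth : ContDiff ℝ ∞ b57 := Complex.ofRealCLM.contDiff.comp (ContDiffBump.contDiff _)

theorem b57_one {z : E3} (h : ‖z‖ ≤ 5) : b57 z = 1 := by
  unfold b57
  rw [ContDiffBump.one_of_mem_closedBall]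
  · simp
  · simpa using h

theorem b57_zero {z : E3} (h : 7 ≤ ‖z‖) : b57 z = 0 := by
  unfold b57
  rw [ContDiffBump.zero_of_le_dist]
  · simp
  · simpa using h

/-- the remainder phase in the coordinates of a cap. -/
noncomputable def trm (p : ℝ × ℝ × ℝ) (z : E3) : ℂ :=
  b57 z * ee (p.1 * (‖lat z‖ ^ 2 * Ji (p.2.1 + p.2.2 * z 2) / 2))

theorem trm_smooth : ContDiff ℝ ∞ (fun x : (ℝ × ℝ × ℝ) × E3 => trm x.1 x.2) := by
  unfold trm
  have h2 : ContDiff ℝ ∞ (fun x : (ℝ × ℝ × ℝ) × E3 => x.2 2) := (coord_smooth 2).comp contDiff_snd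
  have h0 : ContDiff ℝ ∞ (fun x : (ℝ × ℝ × ℝ) × E3 => x.1.1) := contDiff_fst.comp contDiff_fst
  have ha : ContDiff ℝ ∞ (fun x : (ℝ × ℝ × ℝ) × E3 => x.1.2.1) :=
    contDiff_fst.comp (contDiff_snd.comp contDiff_fst)
  have hb : ContDiff ℝ ∞ (fun x : (ℝ × ℝ × ℝ) × E3 => x.1.2.2) :=
    contDiff_snd.comp (contDiff_snd.comp contDiff_fst)
  have h1 : ContDiff ℝ ∞ (fun x : (ℝ × ℝ × ℝ) × E3 => x.1.2.1 + x.1.2.2 * x.2 2) := ha.add (hb.mul h2)
  have h3 : ContDiff ℝ ∞ (fun x : (ℝ × ℝ × ℝ) × E3 => ‖lat x.2‖ ^ 2) :=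
    (contDiff_norm_sq ℝ).comp (lat_smooth.comp contDiff_snd)
  exact (b57_smooth.comp contDiff_snd).mul (contDiff_ee.comp (h0.mul
    ((h3.mul (Ji_smooth.comp h1)).div_const 2)))

theorem trm_unif (N : ℕ) (L : ℝ) :
    ∃ Q : ℝ, 0 ≤ Q ∧ ∀ σ : ℝ, |σ| ≤ L → ∀ p ∈ Par, Win N Q (trm (σ, p)) := by
  obtain ⟨Q, hQ, h⟩ := unif_win (F := fun x : (ℝ × ℝ × ℝ) × E3 => trm x.1 x.2) trm_smooth
    (K := Set.Icc (-L) L ×ˢ Par) (isCompact_Icc.prod Par_compact) (by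
      intro p _ z hz
      show trm p z = 0
      unfold trm
      rw [b57_zero (by linarith), zero_mul]) N
  exact ⟨Q, hQ, fun σ hσ p hp => h (σ, p) ⟨abs_le.1 hσ, hp⟩⟩

/-- the frequency set of a cap. -/
def Sc (η0 κ ρ : ℝ) (C : E2) : Set E3 := {ζ | |ζ 2 - η0| ≤ 2 * κ ∧ ‖lat ζ - ζ 2 • C‖ ≤ 4 * ρ}

theorem Sc_coord {η0 κ ρ : ℝ} (hρ : 0 < ρ) (hκ : 0 < κ) {C : E2} {ζ : E3} (h : ζ ∈ Sc η0 κ ρ C) :
    ‖(adjE (Pl ρ κ hρ hκ C)).symm (ζ - ctr η0 C)‖ ≤ 5 := by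
  rw [symm_Pl]
  have h1 : ‖ρ⁻¹ • (lat ζ - ζ 2 • C)‖ ≤ 4 := by
    rw [norm_smul, Real.norm_eq_abs, abs_of_pos (inv_pos.2 hρ), inv_mul_le_iff₀ hρ]
    linarith [h.2]
  have h2 : |(ζ 2 - η0) / κ| ≤ 2 := by
    rw [abs_div, abs_of_pos hκ, div_le_iff₀ hκ]
    exact h.1
  have h3 := normsq3 (pt (ρ⁻¹ • (lat ζ - ζ 2 • C)) ((ζ 2 - η0) / κ))
  rw [lat_pt, pt_two] at h3
  have h4 := sq_abs ((ζ 2 - η0) / κ)
  have h5 := norm_nonneg (ρ⁻¹ • (lat ζ - ζ 2 • C))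
  have h6 := abs_nonneg ((ζ 2 - η0) / κ)
  have h7 := norm_nonneg (pt (ρ⁻¹ • (lat ζ - ζ 2 • C)) ((ζ 2 - η0) / κ))
  nlinarith

/-- the phase on a cap. -/
theorem phase_cap {η0 κ ρ : ℝ} (hρ : 0 < ρ) (hκ : 0 < κ) (hκ2 : κ ≤ 1/4) (h1 : 1 ≤ η0)
    (h2 : η0 ≤ 2) {C : E2} {ζ : E3} (h : ζ ∈ Sc η0 κ ρ C) (τ : ℝ) :
    ee (τ * hc ζ) = CWp480.cap (trm (τ * ρ ^ 2, η0, κ)) (ctr η0 C) (Pl ρ κ hρ hκ C) ζ *
      ee (inner ℝ (τ • vel C) ζ) := by
  have hc5 := Sc_coord hρ hκ h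
  unfold CWp480.cap trm
  rw [b57_one hc5, one_mul, symm_Pl, lat_pt, pt_two]
  have hz : |(ζ 2 - η0) / κ| ≤ 2 := by
    rw [abs_div, abs_of_pos hκ, div_le_iff₀ hκ]
    exact h.1
  obtain ⟨h5, h6⟩ := eta_range h1 h2 hκ.le hκ2 hz
  have e1 : η0 + κ * ((ζ 2 - η0) / κ) = ζ 2 := by field_simp; ring
  simp only [e1] at h5 h6 ⊢
  rw [Ji_eq h5 (by linarith), ← Crest.Agent.R138.Wf448.ee_add]
  have h7 : ζ 2 ≠ 0 := by linarith
  congr 1
  rw [hc_split C h7, inner_smul_left, norm_smul, Real.norm_eq_abs, abs_of_pos (inv_pos.2 hρ)]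
  simp only [conj_trivial]
  field_simp
  ring

end Crest.Agent.R116.CWc480
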