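import Crest.Agent.R138.Wf5_448

/-!
# R116 (S0155): generic packet machine, part 1 (helper480)

Inner product space `V`, arbitrary linear metric `A : V ≃L[ℝ] V` on the physical side: weights slowly
varying with respect to `‖A ·‖`, averages, local orthogonality (`sv_row`, `sv_col`, `sv_mult`) for
frequency sets whose `A`-thickenings have bounded overlap.
-/

set_option autoImplicit false
set_option linter.unusedSectionVars false

open MeasureTheory FourierTransform
open scoped ContDiff ENNReal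

namespace Crest.Agent.R116.CWp480

open Crest.Agent.R138.Wf448

variable {V : Type} [NormedAddCommGroup V] [InnerProductSpace ℝ V] [FiniteDimensional ℝ V]
  [MeasurableSpace V] [BorelSpace V]

/-! ### the adjoint as an equivalence -/

/-- the adjoint as an equivalence. -/
noncomputable def adjE (A : V ≃L[ℝ] V) : V ≃L[ℝ] V :=
  ContinuousLinearEquiv.equivOfInverse (adj (A : V →L[ℝ] V)) (adj (A.symm : V →L[ℝ] V))
    (fun x => by
      refine ext_inner_right ℝ fun v => ?_
      rw [ContinuousLinearMap.adjoint_inner_left, ContinuousLinearMap.adjoint_inner_left]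
      simp)
    (fun x => by
      refine ext_inner_right ℝ fun v => ?_
      rw [ContinuousLinearMap.adjoint_inner_left, ContinuousLinearMap.adjoint_inner_left]
      simp)

theorem adjE_apply (A : V ≃L[ℝ] V) (x : V) : adjE A x = adj (A : V →L[ℝ] V) x := rfl

theorem inner_adjE (A : V ≃L[ℝ] V) (x y : V) : inner ℝ (adjE A x) y = inner ℝ x (A y) := by
  rw [adjE_apply, ContinuousLinearMap.adjoint_inner_left]
  rfl

theorem inner_adjE' (A : V ≃L[ℝ] V) (x y : V) : inner ℝ x (adjE A y) = inner ℝ (A x) y := by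
  rw [real_inner_comm, inner_adjE, real_inner_comm]

/-! ### weights -/

/-- positive weights varying slowly with respect to `‖A ·‖`. -/
structure SV (A : V ≃L[ℝ] V) (K : ℝ) (n : ℕ) (w : V → ℝ) : Prop where
  meas : Measurable w
  pos : ∀ x, 0 < w x
  sv : ∀ x y, w x ≤ K * (1 + ‖A (x - y)‖) ^ n * w y

theorem SV.one_le {A : V ≃L[ℝ] V} {K : ℝ} {n : ℕ} {w : V → ℝ} (hw : SV A K n w) : 1 ≤ K := by
  have h1 := hw.sv 0 0
  have h2 := hw.pos 0
  simp only [sub_self, map_zero, norm_zero, add_zero, one_pow, mul_one] at h1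
  by_contra h3
  push Not at h3
  nlinarith

theorem SV.inv {A : V ≃L[ℝ] V} {K : ℝ} {n : ℕ} {w : V → ℝ} (hw : SV A K n w) :
    SV A K n (fun x => (w x)⁻¹) := by
  refine ⟨hw.meas.inv, fun x => inv_pos.2 (hw.pos x), fun x y => ?_⟩
  have h1 := hw.sv y x
  have e : ‖A (y - x)‖ = ‖A (x - y)‖ := by rw [← neg_sub x y, map_neg, norm_neg]
  rw [e] at h1
  have hx := hw.pos x
  have hy := hw.pos y
  rw [inv_eq_one_div, inv_eq_one_div, div_le_iff₀ hx]
  calc (1:ℝ) = w y / w y := by field_simp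
    _ ≤ (K * (1 + ‖A (x - y)‖) ^ n * w x) / w y := by gcongr
    _ = _ := by ring

theorem SV.mono {A : V ≃L[ℝ] V} {K K' : ℝ} {n n' : ℕ} {w : V → ℝ} (hw : SV A K n w)
    (hK : K ≤ K') (hn : n ≤ n') : SV A K' n' w := by
  refine ⟨hw.meas, hw.pos, fun x y => (hw.sv x y).trans ?_⟩
  have h1 := hw.one_le
  have h2 : (1:ℝ) ≤ 1 + ‖A (x - y)‖ := by have := norm_nonneg (A (x - y)); linarith
  have h3 := (hw.pos y).le
  have h4 : (1 + ‖A (x - y)‖) ^ n ≤ (1 + ‖A (x - y)‖) ^ n' := pow_le_pow_right₀ h2 hn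
  have h5 : 0 ≤ K' := by linarith
  gcongr

/-- a weight slowly varying for `A` is slowly varying for every finer metric. -/
theorem SV.of_le {A A' : V ≃L[ℝ] V} {K : ℝ} {n : ℕ} {w : V → ℝ} (hw : SV A K n w) {L : ℝ}
    (hL : 1 ≤ L) (hA : ∀ x, ‖A x‖ ≤ L * ‖A' x‖) : SV A' (K * L ^ n) n w := by
  refine ⟨hw.meas, hw.pos, fun x y => (hw.sv x y).trans ?_⟩
  have h1 := hw.one_le
  have h3 := (hw.pos y).le
  have h4 : 1 + ‖A (x - y)‖ ≤ L * (1 + ‖A' (x - y)‖) := by
    have := hA (x - y)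
    nlinarith
  calc K * (1 + ‖A (x - y)‖) ^ n * w y ≤ K * (L * (1 + ‖A' (x - y)‖)) ^ n * w y := by gcongr
    _ = _ := by rw [mul_pow]; ring

theorem SV.comp_sub {A : V ≃L[ℝ] V} {K : ℝ} {n : ℕ} {w : V → ℝ} (hw : SV A K n w) (v : V) :
    SV A K n (fun x => w (x - v)) := by
  refine ⟨hw.meas.comp (measurable_id.sub_const v), fun x => hw.pos _, fun x y => ?_⟩
  have := hw.sv (x - v) (y - v)
  rwa [sub_sub_sub_cancel_right] at this

theorem SV_one (A : V ≃L[ℝ] V) (n : ℕ) : SV A 1 n (fun _ => 1) := by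
  refine ⟨measurable_const, fun _ => one_pos, fun x y => ?_⟩
  have : (1:ℝ) ≤ (1 + ‖A (x - y)‖) ^ n := one_le_pow₀ (by
    have := norm_nonneg (A (x - y))
    linarith)
  linarith

theorem SV_pt (A : V ≃L[ℝ] V) (n : ℕ) (x : V) : SV A 1 n (fun y => ((1 + ‖A (y - x)‖) ^ n)⁻¹) := by
  refine ⟨?_, fun y => by positivity, fun y z => ?_⟩
  · have : Continuous (fun y : V => A (y - x)) := A.continuous.comp (continuous_id.sub continuous_const)
    exact ((measurable_const.add this.norm.measurable).pow_const n).inv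
  rw [one_mul, ← div_eq_mul_inv, inv_eq_one_div, div_le_div_iff₀ (by positivity) (by positivity),
    one_mul, ← mul_pow]
  refine pow_le_pow_left₀ (by positivity) ?_ n
  have h1 : ‖A (z - x)‖ ≤ ‖A (y - z)‖ + ‖A (y - x)‖ := by
    have : A (z - x) = -A (y - z) + A (y - x) := by rw [← map_neg, ← map_add]; congr 1; abel
    rw [this]
    exact (norm_add_le _ _).trans (by rw [norm_neg])
  nlinarith [mul_nonneg (norm_nonneg (A (y - z))) (norm_nonneg (A (y - x)))]

/-! ### scaling of integrals -/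

theorem adet0 (A : V ≃L[ℝ] V) : 0 < adet (A : V →L[ℝ] V) := adet_pos A

theorem lintegral_scale (A : V ≃L[ℝ] V) (f : V → ℝ≥0∞) (x : V) :
    ∫⁻ z, f (A (x - z)) = ENNReal.ofReal (adet (A : V →L[ℝ] V))⁻¹ * ∫⁻ y, f y := by
  have h1 : ∫⁻ z, f (A (x - z)) = ∫⁻ z, f (A z) :=
    lintegral_sub_left_eq_self (fun z => f (A z)) x
  rw [h1]
  exact lintegral_comp_det A f

theorem lintegral_scale' (A : V ≃L[ℝ] V) (f : V → ℝ≥0∞) (z : V) :
    ∫⁻ x, f (A (x - z)) = ENNReal.ofReal (adet (A : V →L[ℝ] V))⁻¹ * ∫⁻ y, f y := by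
  have h1 : ∫⁻ x, f (A (x - z)) = ∫⁻ x, f (A x) :=
    lintegral_sub_right_eq_self (fun x => f (A x)) z
  rw [h1]
  exact lintegral_comp_det A f

/-! ### averages -/

/-- exponent gained for integrability. -/
noncomputable def dd (V : Type) [NormedAddCommGroup V] [InnerProductSpace ℝ V] : ℕ :=
  Module.finrank ℝ V + 1

theorem integrable_dec : Integrable (fun y : V => ((1 + ‖y‖ ^ 2) ^ (dd V))⁻¹) := by
  have h := integrable_one_add_norm (μ := (volume : Measure V)) (r := ((2 * dd V : ℕ) : ℝ)) (by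
    unfold dd
    push_cast
    have : (0:ℝ) ≤ Module.finrank ℝ V := Nat.cast_nonneg _
    linarith)
  refine (h.const_mul (2 ^ dd V)).mono' (by fun_prop) (Filter.Eventually.of_forall fun y => ?_)
  rw [Real.norm_eq_abs, abs_of_pos (by positivity), Real.rpow_neg (by positivity), Real.rpow_natCast,
    inv_eq_one_div, div_le_iff₀ (by positivity), pow_mul]
  have h0 := norm_nonneg y
  have h2 : (1 + ‖y‖) ^ 2 ≤ 2 * (1 + ‖y‖ ^ 2) := by nlinarith [sq_nonneg (1 - ‖y‖)]
  have h3 : ((1 + ‖y‖) ^ 2) ^ dd V ≤ 2 ^ dd V * (1 + ‖y‖ ^ 2) ^ dd V := by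
    rw [← mul_pow]
    gcongr
  have h4 : 0 < ((1 + ‖y‖) ^ 2) ^ dd V := by positivity
  field_simp
  linarith

/-- the constant of the averages. -/
noncomputable def cdec (V : Type) [NormedAddCommGroup V] [InnerProductSpace ℝ V]
    [FiniteDimensional ℝ V] [MeasurableSpace V] [BorelSpace V] : ℝ :=
  ∫ y : V, ((1 + ‖y‖ ^ 2) ^ (dd V))⁻¹

theorem cdec_nonneg : 0 ≤ cdec V := integral_nonneg fun y => by positivity

/-- the integrable profile. -/
noncomputable def dec (y : V) : ℝ≥0∞ := ENNReal.ofReal (((1 + ‖y‖ ^ 2) ^ (dd V))⁻¹)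

theorem lintegral_dec : ∫⁻ y : V, dec y = ENNReal.ofReal (cdec V) := by
  unfold dec
  rw [cdec, ofReal_integral_eq_lintegral_ofReal integrable_dec
    (Filter.Eventually.of_forall fun y => by positivity)]

/-- volume of the unit ball. -/
noncomputable def vb (V : Type) [NormedAddCommGroup V] [InnerProductSpace ℝ V]
    [FiniteDimensional ℝ V] [MeasurableSpace V] [BorelSpace V] : ℝ :=
  (volume (Metric.closedBall (0 : V) 1)).toReal

theorem vb_pos : 0 < vb V := by
  unfold vb
  refine ENNReal.toReal_pos ?_ measure_closedBall_lt_top.ne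
  exact (Metric.measure_closedBall_pos volume (0 : V) one_pos).ne'

theorem vb_eq : volume (Metric.closedBall (0 : V) 1) = ENNReal.ofReal (vb V) := by
  unfold vb
  rw [ENNReal.ofReal_toReal measure_closedBall_lt_top.ne]

/-- weight of `448` in the metric `A`. -/
theorem dw_def (n : ℕ) (A : V ≃L[ℝ] V) (x : V) :
    dw n (A : V →L[ℝ] V) x = ((1 + ‖A x‖ ^ 2) ^ n)⁻¹ := rfl

theorem avg_lower {A : V ≃L[ℝ] V} {K : ℝ} {n : ℕ} {w : V → ℝ} (hw : SV A K n w) (x : V) :
    ENNReal.ofReal (adet (A : V →L[ℝ] V)) * ∫⁻ z, ENNReal.ofReal (w z) *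
      ENNReal.ofReal (dw (n + dd V) (A : V →L[ℝ] V) (x - z)) ≤
      ENNReal.ofReal (2 ^ n * cdec V * K) * ENNReal.ofReal (w x) := by
  have hA := hw.one_le
  have ha := adet0 A
  have h1 : ∀ z, ENNReal.ofReal (w z) * ENNReal.ofReal (dw (n + dd V) (A : V →L[ℝ] V) (x - z)) ≤
      ENNReal.ofReal (2 ^ n * K * w x) * dec (A (x - z)) := by
    intro z
    have hx := (hw.pos x).le
    have hz := (hw.pos z).le
    unfold dec
    rw [← ENNReal.ofReal_mul hz, ← ENNReal.ofReal_mul (by positivity)]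
    apply ENNReal.ofReal_le_ofReal
    rw [dw_def]
    set u : ℝ := ‖A (x - z)‖ with hu
    have hu0 : 0 ≤ u := norm_nonneg _
    have h2 := hw.sv z x
    have h3 : ‖A (z - x)‖ = u := by
      rw [hu, ← neg_sub x z, map_neg, norm_neg]
    rw [h3] at h2
    have h4 : (1 + u) ^ n ≤ 2 ^ n * (1 + u ^ 2) ^ n := by
      rw [← mul_pow]
      refine pow_le_pow_left₀ (by positivity) ?_ n
      nlinarith [sq_nonneg (1 - u), sq_nonneg u]
    rw [pow_add, mul_inv, ← mul_assoc]
    refine mul_le_mul_of_nonneg_right ?_ (by positivity)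
    rw [← div_eq_mul_inv, div_le_iff₀ (by positivity)]
    calc w z ≤ K * (1 + u) ^ n * w x := h2
      _ ≤ K * (2 ^ n * (1 + u ^ 2) ^ n) * w x := by gcongr
      _ = _ := by ring
  calc _ ≤ ENNReal.ofReal (adet (A : V →L[ℝ] V)) * ∫⁻ z, ENNReal.ofReal (2 ^ n * K * w x) *
        dec (A (x - z)) := mul_le_mul_right (lintegral_mono h1) _
    _ = ENNReal.ofReal (adet (A : V →L[ℝ] V)) * (ENNReal.ofReal (2 ^ n * K * w x) *
        (ENNReal.ofReal (adet (A : V →L[ℝ] V))⁻¹ * ENNReal.ofReal (cdec V))) := by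
        rw [lintegral_const_mul' _ _ ENNReal.ofReal_ne_top, lintegral_scale A dec x, lintegral_dec]
    _ = _ := by
        have hx := (hw.pos x).le
        have hc := cdec_nonneg (V := V)
        rw [← ENNReal.ofReal_mul (by positivity), ← ENNReal.ofReal_mul (by positivity),
          ← ENNReal.ofReal_mul (by positivity), ← ENNReal.ofReal_mul (by positivity)]
        congr 1
        field_simp

theorem avg_upper {A : V ≃L[ℝ] V} {K : ℝ} {n : ℕ} {w : V → ℝ} (hw : SV A K n w) (x : V) :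
    ENNReal.ofReal (w x) ≤ ENNReal.ofReal (K * 2 ^ (2 * n + dd V) / vb V) *
      (ENNReal.ofReal (adet (A : V →L[ℝ] V)) *
      ∫⁻ z, ENNReal.ofReal (w z) * ENNReal.ofReal (dw (n + dd V) (A : V →L[ℝ] V) (x - z))) := by
  have hA := hw.one_le
  have hx := hw.pos x
  have ha := adet0 A
  have hv := vb_pos (V := V)
  have h1 : ENNReal.ofReal (w x / (K * 2 ^ n) * (2 ^ (n + dd V))⁻¹) *
      ENNReal.ofReal ((adet (A : V →L[ℝ] V))⁻¹ * vb V) ≤
      ∫⁻ z, ENNReal.ofReal (w z) * ENNReal.ofReal (dw (n + dd V) (A : V →L[ℝ] V) (x - z)) := by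
    calc _ = ∫⁻ z, ENNReal.ofReal (w x / (K * 2 ^ n) * (2 ^ (n + dd V))⁻¹) *
          (Metric.closedBall (0 : V) 1).indicator (fun _ => (1 : ℝ≥0∞)) (A (x - z)) := by
          rw [lintegral_const_mul' _ _ ENNReal.ofReal_ne_top,
            lintegral_scale A ((Metric.closedBall (0 : V) 1).indicator (fun _ => (1 : ℝ≥0∞))) x,
            lintegral_indicator Metric.isClosed_closedBall.measurableSet, setLIntegral_one, vb_eq,
            ENNReal.ofReal_mul (inv_nonneg.2 ha.le)]
      _ ≤ _ := by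
          refine lintegral_mono fun z => ?_
          by_cases hz : A (x - z) ∈ Metric.closedBall (0 : V) 1
          · rw [Set.indicator_of_mem hz, mul_one]
            have hz' : ‖A (x - z)‖ ≤ 1 := by simpa using hz
            have hn0 : 0 ≤ ‖A (x - z)‖ := norm_nonneg _
            rw [← ENNReal.ofReal_mul (hw.pos z).le]
            apply ENNReal.ofReal_le_ofReal
            refine mul_le_mul ?_ ?_ (by positivity) (hw.pos z).le
            · rw [div_le_iff₀ (by positivity)]
              have h2 := hw.sv x z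
              have h3 : (1 + ‖A (x - z)‖) ^ n ≤ 2 ^ n := by
                refine pow_le_pow_left₀ (by positivity) (by linarith) n
              have hz0 := (hw.pos z).le
              calc w x ≤ K * (1 + ‖A (x - z)‖) ^ n * w z := h2
                _ ≤ K * 2 ^ n * w z := by gcongr
                _ = _ := by ring
            · rw [dw_def]
              refine inv_anti₀ (by positivity) ?_
              refine pow_le_pow_left₀ (by positivity) ?_ _
              nlinarith
          · rw [Set.indicator_of_notMem hz, mul_zero]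
            exact zero_le
  calc ENNReal.ofReal (w x) = ENNReal.ofReal (K * 2 ^ (2 * n + dd V) / vb V) *
        (ENNReal.ofReal (adet (A : V →L[ℝ] V)) *
        (ENNReal.ofReal (w x / (K * 2 ^ n) * (2 ^ (n + dd V))⁻¹) *
          ENNReal.ofReal ((adet (A : V →L[ℝ] V))⁻¹ * vb V))) := by
        rw [← ENNReal.ofReal_mul (by positivity), ← ENNReal.ofReal_mul (by positivity),
          ← ENNReal.ofReal_mul (by positivity)]
        congr 1
        have : (2:ℝ) ^ (2 * n + dd V) = 2 ^ n * 2 ^ (n + dd V) := by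
          rw [← pow_add]; congr 1; omega
        rw [this]
        field_simp
    _ ≤ _ := by gcongr

theorem measurable_dwsub (n : ℕ) (A : V →L[ℝ] V) :
    Measurable (fun p : V × V => ENNReal.ofReal (dw n A (p.1 - p.2))) := by
  have h : Continuous (dw n A) := continuous_dw n A
  exact ENNReal.measurable_ofReal.comp (h.comp (continuous_fst.sub continuous_snd)).measurable

theorem measurable_dwsub' (n : ℕ) (A : V →L[ℝ] V) (x : V) :
    Measurable (fun z : V => ENNReal.ofReal (dw n A (x - z))) := by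
  have h : Continuous (dw n A) := continuous_dw n A
  have h2 : Continuous (fun z : V => dw n A (x - z)) := h.comp (continuous_const.sub continuous_id)
  exact h2.measurable.ennreal_ofReal

theorem tonelli_w {A : V →L[ℝ] V} {n : ℕ} {w : V → ℝ} (hw : Measurable w) {F : V → ℝ≥0∞}
    (hF : Measurable F) :
    ∫⁻ z, ENNReal.ofReal (w z) * ∫⁻ x, ENNReal.ofReal (dw n A (x - z)) * F x =
      ∫⁻ x, (∫⁻ z, ENNReal.ofReal (w z) * ENNReal.ofReal (dw n A (x - z))) * F x := by
  have hm : Measurable (fun p : V × V => ENNReal.ofReal (dw n A (p.2 - p.1)) * F p.2) :=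
    ((measurable_dwsub n A).comp measurable_swap).mul (hF.comp measurable_snd)
  calc _ = ∫⁻ z, ∫⁻ x, ENNReal.ofReal (w z) * (ENNReal.ofReal (dw n A (x - z)) * F x) := by
        refine lintegral_congr fun z => ?_
        rw [lintegral_const_mul' _ _ ENNReal.ofReal_ne_top]
    _ = ∫⁻ x, ∫⁻ z, ENNReal.ofReal (w z) * (ENNReal.ofReal (dw n A (x - z)) * F x) := by
        rw [lintegral_lintegral_swap]
        exact ((hw.comp measurable_fst).ennreal_ofReal.mul hm).aemeasurable
    _ = _ := by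
        refine lintegral_congr fun x => ?_
        rw [← lintegral_mul_const]
        · refine lintegral_congr fun z => ?_
          ring
        · exact hw.ennreal_ofReal.mul (measurable_dwsub' n A x)

/-- the weighted energy of `𝓕⁻ g`. -/
noncomputable def WE (w : V → ℝ) (g : V → ℂ) : ℝ≥0∞ :=
  ∫⁻ x, ENNReal.ofReal (w x) * ‖𝓕⁻ g x‖ₑ ^ 2

theorem wE_eq (n : ℕ) (A : V →L[ℝ] V) (c : V) (g : V → ℂ) :
    wE n A c g = ∫⁻ x, ENNReal.ofReal (dw n A (x - c)) * ‖𝓕⁻ g x‖ₑ ^ 2 := by
  unfold wE LI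
  refine lintegral_congr fun x => ?_
  rw [ENNReal.ofReal_mul (dw_pos n A _).le, ENNReal.ofReal_pow (norm_nonneg _), ofReal_norm]

theorem WE_mono {w w' : V → ℝ} (h : ∀ x, w x ≤ w' x) (g : V → ℂ) : WE w g ≤ WE w' g :=
  lintegral_mono fun x => mul_le_mul_left (ENNReal.ofReal_le_ofReal (h x)) _

theorem WE_const_mul {c : ℝ} (hc : 0 ≤ c) (w : V → ℝ) (g : V → ℂ) :
    WE (fun x => c * w x) g = ENNReal.ofReal c * WE w g := by
  unfold WE
  rw [← lintegral_const_mul' _ _ ENNReal.ofReal_ne_top]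
  refine lintegral_congr fun x => ?_
  rw [ENNReal.ofReal_mul hc, mul_assoc]

theorem lift_le {A : V ≃L[ℝ] V} {K : ℝ} {n : ℕ} {w : V → ℝ} (hw : SV A K n w) {F : V → ℝ≥0∞}
    (hF : Measurable F) : ∫⁻ x, ENNReal.ofReal (w x) * F x ≤
      ENNReal.ofReal (K * 2 ^ (2 * n + dd V) / vb V) * (ENNReal.ofReal (adet (A : V →L[ℝ] V)) *
        ∫⁻ z, ENNReal.ofReal (w z) * ∫⁻ x, ENNReal.ofReal (dw (n + dd V) (A : V →L[ℝ] V) (x - z)) *
          F x) := by
  rw [tonelli_w hw.meas hF, ← lintegral_const_mul' _ _ ENNReal.ofReal_ne_top,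
    ← lintegral_const_mul' _ _ ENNReal.ofReal_ne_top]
  refine lintegral_mono fun x => ?_
  have h1 := mul_le_mul_left (avg_upper hw x) (F x)
  refine h1.trans (le_of_eq ?_)
  rw [mul_assoc, mul_assoc]

theorem le_lift {A : V ≃L[ℝ] V} {K : ℝ} {n : ℕ} {w : V → ℝ} (hw : SV A K n w) {F : V → ℝ≥0∞}
    (hF : Measurable F) : ENNReal.ofReal (adet (A : V →L[ℝ] V)) *
        ∫⁻ z, ENNReal.ofReal (w z) * ∫⁻ x, ENNReal.ofReal (dw (n + dd V) (A : V →L[ℝ] V) (x - z)) *
          F x ≤
      ENNReal.ofReal (2 ^ n * cdec V * K) * ∫⁻ x, ENNReal.ofReal (w x) * F x := by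
  rw [tonelli_w hw.meas hF, ← lintegral_const_mul' _ _ ENNReal.ofReal_ne_top,
    ← lintegral_const_mul' _ _ ENNReal.ofReal_ne_top]
  refine lintegral_mono fun x => ?_
  have h1 := mul_le_mul_left (avg_lower hw x) (F x)
  rw [mul_assoc, mul_assoc] at h1
  exact h1

theorem measurable_nsq {g : V → ℂ} (hg : Integrable g) : Measurable (fun x => ‖𝓕⁻ g x‖ₑ ^ 2) :=
  ((fourierInv_continuous hg).measurable.enorm).pow_const 2

theorem WE_le {A : V ≃L[ℝ] V} {K : ℝ} {n : ℕ} {w : V → ℝ} (hw : SV A K n w) {g : V → ℂ}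
    (hg : Integrable g) : WE w g ≤ ENNReal.ofReal (K * 2 ^ (2 * n + dd V) / vb V) *
      (ENNReal.ofReal (adet (A : V →L[ℝ] V)) *
        ∫⁻ z, ENNReal.ofReal (w z) * wE (n + dd V) (A : V →L[ℝ] V) z g) := by
  have h1 := lift_le hw (measurable_nsq hg)
  simp only [wE_eq]
  exact h1

theorem le_WE {A : V ≃L[ℝ] V} {K : ℝ} {n : ℕ} {w : V → ℝ} (hw : SV A K n w) {g : V → ℂ}
    (hg : Integrable g) : ENNReal.ofReal (adet (A : V →L[ℝ] V)) *
        ∫⁻ z, ENNReal.ofReal (w z) * wE (n + dd V) (A : V →L[ℝ] V) z g ≤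
      ENNReal.ofReal (2 ^ n * cdec V * K) * WE w g := by
  have h1 := le_lift hw (measurable_nsq hg)
  simp only [wE_eq]
  exact h1

theorem measurable_wE (n : ℕ) (A : V →L[ℝ] V) {g : V → ℂ} (hg : Integrable g) :
    Measurable (fun z => wE n A z g) := by
  simp only [wE_eq]
  refine Measurable.lintegral_prod_left' (f := fun p : V × V =>
    ENNReal.ofReal (dw n A (p.1 - p.2)) * ‖𝓕⁻ g p.1‖ₑ ^ 2) ?_
  exact (measurable_dwsub n A).mul ((measurable_nsq hg).comp measurable_fst)

/-- constant of the lifting. -/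
noncomputable def cl (V : Type) [NormedAddCommGroup V] [InnerProductSpace ℝ V]
    [FiniteDimensional ℝ V] [MeasurableSpace V] [BorelSpace V] (n : ℕ) : ℝ :=
  2 ^ (3 * n + dd V) * cdec V / vb V

theorem cl_nonneg (n : ℕ) : 0 ≤ cl V n := by
  unfold cl
  have := cdec_nonneg (V := V)
  have := vb_pos (V := V)
  positivity

/-- lifting an inequality between `448`'s energies to slowly varying weights. -/
theorem lift_ineq {A : V ≃L[ℝ] V} {K : ℝ} {n : ℕ} {w : V → ℝ} (hw : SV A K n w) {κ : Type*}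
    (s : Finset κ) (g : κ → V → ℂ) {ι : Type*} (s' : Finset ι) (g' : ι → V → ℂ)
    (hg : ∀ k ∈ s, Integrable (g k)) (hg' : ∀ i ∈ s', Integrable (g' i)) {C : ℝ} (hC : 0 ≤ C)
    (H : ∀ z, ∑ k ∈ s, wE (n + dd V) (A : V →L[ℝ] V) z (g k) ≤
      ENNReal.ofReal C * ∑ i ∈ s', wE (n + dd V) (A : V →L[ℝ] V) z (g' i)) :
    ∑ k ∈ s, WE w (g k) ≤ ENNReal.ofReal (K ^ 2 * cl V n * C) * ∑ i ∈ s', WE w (g' i) := by
  have hA := hw.one_le
  have hc := cdec_nonneg (V := V)
  have hv := vb_pos (V := V)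
  have ha := adet0 A
  calc ∑ k ∈ s, WE w (g k) ≤ ∑ k ∈ s, ENNReal.ofReal (K * 2 ^ (2 * n + dd V) / vb V) *
        (ENNReal.ofReal (adet (A : V →L[ℝ] V)) *
          ∫⁻ z, ENNReal.ofReal (w z) * wE (n + dd V) (A : V →L[ℝ] V) z (g k)) :=
        Finset.sum_le_sum fun k hk => WE_le hw (hg k hk)
    _ = ENNReal.ofReal (K * 2 ^ (2 * n + dd V) / vb V) * (ENNReal.ofReal (adet (A : V →L[ℝ] V)) *
        ∫⁻ z, ENNReal.ofReal (w z) * ∑ k ∈ s, wE (n + dd V) (A : V →L[ℝ] V) z (g k)) := by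
        rw [← Finset.mul_sum, ← Finset.mul_sum]
        congr 2
        simp only [Finset.mul_sum]
        rw [lintegral_finsetSum']
        intro k hk
        exact (hw.meas.ennreal_ofReal.mul (measurable_wE _ _ (hg k hk))).aemeasurable
    _ ≤ ENNReal.ofReal (K * 2 ^ (2 * n + dd V) / vb V) * (ENNReal.ofReal (adet (A : V →L[ℝ] V)) *
        ∫⁻ z, ENNReal.ofReal (w z) * (ENNReal.ofReal C *
          ∑ i ∈ s', wE (n + dd V) (A : V →L[ℝ] V) z (g' i))) := by
        gcongr with z
        exact H z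
    _ = ENNReal.ofReal (K * 2 ^ (2 * n + dd V) / vb V) * (ENNReal.ofReal C *
        ∑ i ∈ s', (ENNReal.ofReal (adet (A : V →L[ℝ] V)) *
        ∫⁻ z, ENNReal.ofReal (w z) * wE (n + dd V) (A : V →L[ℝ] V) z (g' i))) := by
        rw [← Finset.mul_sum, mul_left_comm (ENNReal.ofReal C)]
        congr 2
        rw [← lintegral_finsetSum', ← lintegral_const_mul' _ _ ENNReal.ofReal_ne_top]
        · refine lintegral_congr fun z => ?_
          rw [← Finset.mul_sum]
          ring
        · intro k hk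
          exact (hw.meas.ennreal_ofReal.mul (measurable_wE _ _ (hg' k hk))).aemeasurable
    _ ≤ ENNReal.ofReal (K * 2 ^ (2 * n + dd V) / vb V) * (ENNReal.ofReal C * ∑ i ∈ s',
        (ENNReal.ofReal (2 ^ n * cdec V * K) * WE w (g' i))) :=
        mul_le_mul_right (mul_le_mul_right
          (Finset.sum_le_sum fun i hi => le_WE hw (hg' i hi)) _) _
    _ = _ := by
        rw [← Finset.mul_sum, ← mul_assoc, ← mul_assoc, ← ENNReal.ofReal_mul (by positivity),
          ← ENNReal.ofReal_mul (by positivity)]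
        congr 2
        unfold cl
        have : (2:ℝ) ^ (3 * n + dd V) = 2 ^ (2 * n + dd V) * 2 ^ n := by
          rw [← pow_add]; congr 1; omega
        rw [this]
        ring

end Crest.Agent.R116.CWp480
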