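import Crest.Agent.R116.CWp1_480

/-!
# R116 (S0155): generic packet machine, part 2 (helper480)

Cut-offs adapted to sets in the metric `A`, local orthogonality (`sv_row`, `sv_col`, `sv_mult`).
-/

set_option autoImplicit false
set_option linter.unusedSectionVars false

open MeasureTheory FourierTransform
open scoped ContDiff ENNReal

namespace Crest.Agent.R116.CWp480

open Crest.Agent.R138.Wf448

variable {V : Type} [NormedAddCommGroup V] [InnerProductSpace ℝ V] [FiniteDimensional ℝ V]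
  [MeasurableSpace V] [BorelSpace V]

/-! ### scaled norms in different metrics -/

theorem Nn_comp (A : V ≃L[ℝ] V) {j : ℕ} {f : V → ℂ} (hf : ContDiff ℝ j f) (c ξ : V) :
    Nn (A : V →L[ℝ] V) j (fun ξ => f ((adjE A).symm (ξ - c))) ξ =
      ‖iteratedFDeriv ℝ j f ((adjE A).symm (ξ - c))‖ := by
  have h1 : ContDiff ℝ j (fun ξ => f ((adjE A).symm (ξ - c))) :=
    hf.comp ((adjE A).symm.contDiff.comp (contDiff_id.sub contDiff_const))
  rw [Nn_eq (A : V →L[ℝ] V) h1]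
  have e1 : (fun y : V => f ((adjE A).symm (ξ + adj (A : V →L[ℝ] V) y - c))) =
      fun y => f ((adjE A).symm (ξ - c) + y) := by
    funext y
    congr 1
    have : ξ + adj (A : V →L[ℝ] V) y - c = (ξ - c) + adjE A y := by
      rw [adjE_apply]; abel
    rw [this, map_add, ContinuousLinearEquiv.symm_apply_apply]
  rw [e1, iteratedFDeriv_comp_add_left]
  simp

/-- comparison of scaled norms: if `‖A x‖ ≤ L ‖A' x‖` then the `A`-norm is at most `L^j` times the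
`A'`-norm. -/
theorem Nn_le_of_le {A A' : V ≃L[ℝ] V} {L : ℝ} (hL : 0 ≤ L) (hA : ∀ x, ‖A x‖ ≤ L * ‖A' x‖)
    (j : ℕ) (f : V → ℂ) (ξ : V) :
    Nn (A : V →L[ℝ] V) j f ξ ≤ L ^ j * Nn (A' : V →L[ℝ] V) j f ξ := by
  -- `adj A = adj A' ∘ T`, `T = adj (A ∘ A'⁻¹)`, `‖T‖ ≤ L`.
  set T : V →L[ℝ] V := adj ((A : V →L[ℝ] V).comp (A'.symm : V →L[ℝ] V)) with hT
  have hTn : ‖T‖ ≤ L := by
    have h1 : ‖T‖ = ‖(A : V →L[ℝ] V).comp (A'.symm : V →L[ℝ] V)‖ :=
      (ContinuousLinearMap.adjoint (𝕜 := ℝ) (E := V) (F := V)).norm_map _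
    rw [h1]
    refine ContinuousLinearMap.opNorm_le_bound _ hL fun x => ?_
    have := hA (A'.symm x)
    simpa using this
  have e1 : ∀ x, adj (A : V →L[ℝ] V) x = adj (A' : V →L[ℝ] V) (T x) := by
    intro x
    refine ext_inner_right ℝ fun v => ?_
    rw [ContinuousLinearMap.adjoint_inner_left, ContinuousLinearMap.adjoint_inner_left, hT,
      ContinuousLinearMap.adjoint_inner_left]
    simp
  unfold Nn
  have e2 : (iteratedFDeriv ℝ j f ξ).compContinuousLinearMap (fun _ => adj (A : V →L[ℝ] V)) =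
      ((iteratedFDeriv ℝ j f ξ).compContinuousLinearMap
        (fun _ => adj (A' : V →L[ℝ] V))).compContinuousLinearMap (fun _ => T) := by
    ext v
    simp [e1]
  rw [e2]
  refine (ContinuousMultilinearMap.norm_compContinuousLinearMap_le _ _).trans ?_
  rw [Finset.prod_const, Finset.card_fin, mul_comm]
  refine mul_le_mul_of_nonneg_right (pow_le_pow_left₀ (norm_nonneg _) hTn j) (norm_nonneg _)

/-! ### cut-offs -/

/-- the `A`-thickening of a set of frequencies. -/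
def thk (A : V ≃L[ℝ] V) (S : Set V) : Set V := {ξ | ∃ z ∈ S, ‖(adjE A).symm (ξ - z)‖ < 1}

theorem subset_thk (A : V ≃L[ℝ] V) (S : Set V) : S ⊆ thk A S := fun z hz => ⟨z, hz, by simp⟩

theorem thk_mono (A : V ≃L[ℝ] V) {S S' : Set V} (h : S ⊆ S') : thk A S ⊆ thk A S' :=
  fun _ ⟨z, hz, hz2⟩ => ⟨z, h hz, hz2⟩

theorem cutA (V : Type) [NormedAddCommGroup V] [InnerProductSpace ℝ V] [FiniteDimensional ℝ V]
    [MeasurableSpace V] [BorelSpace V] : ∃ C : ℕ → ℝ, (∀ j, 0 ≤ C j) ∧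
    ∀ (A : V ≃L[ℝ] V) (S : Set V), ∃ χ : V → ℂ, χ.HasTemperateGrowth ∧ (∀ ξ ∈ S, χ ξ = 1) ∧
    (∀ j ξ, Nn (A : V →L[ℝ] V) j χ ξ ≤ C j) ∧
    (∀ j ξ, ξ ∉ thk A S → Nn (A : V →L[ℝ] V) j χ ξ = 0) ∧ (∀ ξ, ‖χ ξ‖ ≤ 1) ∧
    (∀ ξ, ξ ∉ thk A S → χ ξ = 0) := by
  obtain ⟨C, hC, h⟩ := cutoffC V
  refine ⟨C, hC, fun A S => ?_⟩
  obtain ⟨χ, h1, h2, h3, h4, h5, h6⟩ := h ((adjE A).symm '' S) 1 one_pos
  have hc : ∀ j : ℕ, ContDiff ℝ j χ := fun j => h1.1.of_le (by exact_mod_cast le_top)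
  have hthk : ∀ ξ, ξ ∉ thk A S → (adjE A).symm ξ ∉ Metric.thickening 1 ((adjE A).symm '' S) := by
    intro ξ hξ hc
    apply hξ
    rw [Metric.mem_thickening_iff] at hc
    obtain ⟨z, ⟨y, hy, rfl⟩, hz⟩ := hc
    refine ⟨y, hy, ?_⟩
    rwa [dist_eq_norm, ← map_sub] at hz
  have e0 : (fun ξ => χ ((adjE A).symm ξ)) = fun ξ => χ ((adjE A).symm (ξ - 0)) := by
    funext ξ; rw [sub_zero]
  refine ⟨fun ξ => χ ((adjE A).symm ξ), ?_, ?_, ?_, ?_, fun ξ => h4 _, ?_⟩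
  · exact h1.comp (adjE A).symm.hasTemperateGrowth
  · intro ξ hξ
    exact h2 _ ⟨ξ, hξ, rfl⟩
  · intro j ξ
    rw [e0, Nn_comp A (hc j)]
    have := h5 j ((adjE A).symm (ξ - 0))
    simpa using this
  · intro j ξ hξ
    rw [e0, Nn_comp A (hc j), sub_zero, h3 j _ (hthk ξ hξ), norm_zero]
  · intro ξ hξ
    exact h6 _ (hthk ξ hξ)

/-! ### local orthogonality -/

/-- row form in the metric `A`. -/
theorem orthoA_row (n : ℕ) : ∃ C : ℝ, 0 ≤ C ∧ ∀ (A : V ≃L[ℝ] V) (c : V)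
    (ι : Type) [Fintype ι] (S : ι → Set V) (g : ι → V → ℂ) (L : ℝ), 0 < L →
    (∀ ξ, (Set.ncard {i | ξ ∈ thk A (S i)} : ℝ) ≤ L) →
    (∀ i ξ, g i ξ ≠ 0 → ξ ∈ S i) → (∀ i, Integrable (g i)) → (∀ i, MemLp (g i) 2) →
    wE n (A : V →L[ℝ] V) c (fun ξ => ∑ i, g i ξ) ≤
      ENNReal.ofReal (C * L) * ∑ i, wE n (A : V →L[ℝ] V) c (g i) := by
  classical
  obtain ⟨C1, hC1, h1⟩ := decayL (V := V) (W := V) n
  obtain ⟨K, hK, h2⟩ := cutA V
  set M : ℝ := 1 + ∑ j ∈ Finset.range (n + 1), K j ^ 2 with hM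
  have hM0 : 0 < M := by positivity
  refine ⟨C1 * M, by positivity, ?_⟩
  intro A c ι _ S g L hL hov hS hg hg2
  choose χ hχ1 hχ2 hχ3 hχ4 hχ5 hχ6 using fun i => h2 A (S i)
  have hb := h1 (A : V →L[ℝ] V) c ι Unit (fun _ i => χ i) g (Real.sqrt (M * L)) (by positivity)
    (fun _ i => hχ1 i) hg hg2 ?_
  · have e1 : (fun ξ => ∑ i, χ i ξ * g i ξ) = fun ξ => ∑ i, g i ξ := by
      funext ξ
      refine Finset.sum_congr rfl fun i _ => ?_
      by_cases h : g i ξ = 0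
      · rw [h, mul_zero]
      · rw [hχ2 i ξ (hS i ξ h), one_mul]
    simp only [Finset.univ_unique, Finset.sum_singleton, e1] at hb
    rw [Real.sq_sqrt (by positivity)] at hb
    rwa [mul_assoc]
  · intro j hj ξ
    simp only [Finset.univ_unique, Finset.sum_singleton]
    rw [Real.sq_sqrt (by positivity)]
    have e2 : ∀ i, Nn (A : V →L[ℝ] V) j (χ i) ξ ^ 2 ≤ if ξ ∈ thk A (S i) then M else 0 := by
      intro i
      split_ifs with hi
      · have a1 : Nn (A : V →L[ℝ] V) j (χ i) ξ ≤ K j := hχ3 i j ξ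
        refine (pow_le_pow_left₀ (Nn_nonneg _ _ _ _) a1 2).trans ?_
        have a2 := Finset.single_le_sum (f := fun j => K j ^ 2) (fun j _ => sq_nonneg _)
          (Finset.mem_range.2 (Nat.lt_succ_of_le hj))
        linarith
      · rw [hχ4 i j ξ hi]; norm_num
    refine (Finset.sum_le_sum fun i _ => e2 i).trans ?_
    rw [← Finset.sum_filter, Finset.sum_const, nsmul_eq_mul, mul_comm]
    refine mul_le_mul_of_nonneg_left ?_ hM0.le
    refine le_trans (le_of_eq ?_) (hov ξ)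
    rw [← Set.ncard_coe_finset]
    simp

/-- column form in the metric `A`. -/
theorem orthoA_col (n : ℕ) : ∃ C : ℝ, 0 ≤ C ∧ ∀ (A : V ≃L[ℝ] V) (c : V)
    (ι : Type) [Fintype ι] (m : ι → V → ℂ) (g : V → ℂ) (K L : ℝ), 0 < K → 0 < L →
    (∀ i, (m i).HasTemperateGrowth) → (∀ i, ∀ j ≤ n, ∀ ξ, Nn (A : V →L[ℝ] V) j (m i) ξ ≤ K) →
    (∀ ξ, (Set.ncard {i | ξ ∈ tsupport (m i)} : ℝ) ≤ L) → Integrable g → MemLp g 2 →
    ∑ i, wE n (A : V →L[ℝ] V) c (fun ξ => m i ξ * g ξ) ≤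
      ENNReal.ofReal (C * K ^ 2 * L) * wE n (A : V →L[ℝ] V) c g := by
  classical
  obtain ⟨C1, hC1, h1⟩ := decayL (V := V) (W := V) n
  refine ⟨C1, by positivity, ?_⟩
  intro A c ι _ m g K L hK hL hm hK2 hov hg hg2
  have hb := h1 (A : V →L[ℝ] V) c Unit ι (fun i _ => m i) (fun _ => g) (Real.sqrt (K ^ 2 * L))
    (by positivity) (fun i _ => hm i) (fun _ => hg) (fun _ => hg2) ?_
  · simp only [Finset.univ_unique, Finset.sum_singleton] at hb
    rw [Real.sq_sqrt (by positivity)] at hb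
    rwa [mul_assoc]
  · intro j hj ξ
    simp only [Finset.univ_unique, Finset.sum_singleton]
    rw [Real.sq_sqrt (by positivity)]
    have e2 : ∀ i, Nn (A : V →L[ℝ] V) j (m i) ξ ^ 2 ≤ if ξ ∈ tsupport (m i) then K ^ 2 else 0 := by
      intro i
      split_ifs with hi
      · exact pow_le_pow_left₀ (Nn_nonneg _ _ _ _) (hK2 i j hj ξ) 2
      · have : Nn (A : V →L[ℝ] V) j (m i) ξ = 0 := by
          unfold Nn
          have : iteratedFDeriv ℝ j (m i) ξ = 0 := by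
            by_contra hne
            exact hi (tsupport_iteratedFDeriv_subset (𝕜 := ℝ) j (subset_tsupport _ hne))
          rw [this, norm_eq_zero]
          ext v
          simp
        rw [this]; norm_num
    refine (Finset.sum_le_sum fun i _ => e2 i).trans ?_
    rw [← Finset.sum_filter, Finset.sum_const, nsmul_eq_mul, mul_comm]
    refine mul_le_mul_of_nonneg_left ?_ (by positivity)
    refine le_trans (le_of_eq ?_) (hov ξ)
    rw [← Set.ncard_coe_finset]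
    simp

/-- **local orthogonality, slowly varying weights**. -/
theorem sv_row (V : Type) [NormedAddCommGroup V] [InnerProductSpace ℝ V] [FiniteDimensional ℝ V]
    [MeasurableSpace V] [BorelSpace V] (n : ℕ) : ∃ C : ℝ, 0 ≤ C ∧ ∀ (A : V ≃L[ℝ] V) (K : ℝ)
    (w : V → ℝ), SV A K n w →
    ∀ (κ : Type) (s : Finset κ) (S : κ → Set V) (g : κ → V → ℂ) (L : ℝ), 0 < L →
    (∀ ξ, (Set.ncard {i | i ∈ s ∧ ξ ∈ thk A (S i)} : ℝ) ≤ L) →
    (∀ i ∈ s, ∀ ξ, g i ξ ≠ 0 → ξ ∈ S i) → (∀ i ∈ s, Integrable (g i)) → (∀ i ∈ s, MemLp (g i) 2) →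
    WE w (fun ξ => ∑ i ∈ s, g i ξ) ≤ ENNReal.ofReal (C * K ^ 2 * L) * ∑ i ∈ s, WE w (g i) := by
  obtain ⟨C1, hC1, h1⟩ := orthoA_row (V := V) (n + dd V)
  have hc := cl_nonneg (V := V) n
  refine ⟨cl V n * C1, by positivity, ?_⟩
  intro A K w hw κ s S g L hL hov hS hg hg2
  have key : ∀ z, wE (n + dd V) (A : V →L[ℝ] V) z (fun ξ => ∑ i ∈ s, g i ξ) ≤
      ENNReal.ofReal (C1 * L) * ∑ i ∈ s, wE (n + dd V) (A : V →L[ℝ] V) z (g i) := by
    intro z
    have h2 := h1 A z {i // i ∈ s} (fun i => S i.1)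
      (fun i => g i.1) L hL ?_ (fun i => hS i.1 i.2) (fun i => hg i.1 i.2) (fun i => hg2 i.1 i.2)
    · have e1 : (fun ξ => ∑ i : {i // i ∈ s}, g i.1 ξ) = fun ξ => ∑ i ∈ s, g i ξ := by
        funext ξ
        exact Finset.sum_coe_sort s (fun i => g i ξ)
      rw [e1] at h2
      have e2 : ∑ i : {i // i ∈ s}, wE (n + dd V) (A : V →L[ℝ] V) z (g i.1) =
          ∑ i ∈ s, wE (n + dd V) (A : V →L[ℝ] V) z (g i) :=
        Finset.sum_coe_sort s (fun i => wE (n + dd V) (A : V →L[ℝ] V) z (g i))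
      rwa [e2] at h2
    · intro ξ
      refine le_trans ?_ (hov ξ)
      have e3 : {i | i ∈ s ∧ ξ ∈ thk A (S i)} =
          Subtype.val '' {i : {i // i ∈ s} | ξ ∈ thk A (S i.1)} := by
        ext i
        simp only [Set.mem_ofPred_eq, Set.mem_image, Subtype.exists, exists_and_right,
          exists_eq_right]
        tauto
      rw [e3, Set.ncard_image_of_injective _ Subtype.val_injective]
  have h3 := lift_ineq hw ({()} : Finset Unit) (fun _ ξ => ∑ i ∈ s, g i ξ) s g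
    (fun _ _ => integrable_finsetSum _ hg) hg (C := C1 * L) (by positivity)
    (by simpa using key)
  simp only [Finset.sum_singleton] at h3
  refine h3.trans (le_of_eq ?_)
  congr 2
  ring

/-- **square function, slowly varying weights**. -/
theorem sv_col (V : Type) [NormedAddCommGroup V] [InnerProductSpace ℝ V] [FiniteDimensional ℝ V]
    [MeasurableSpace V] [BorelSpace V] (n : ℕ) : ∃ C : ℝ, 0 ≤ C ∧ ∀ (A : V ≃L[ℝ] V) (K : ℝ)
    (w : V → ℝ), SV A K n w →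
    ∀ (κ : Type) (s : Finset κ) (m : κ → V → ℂ) (g : V → ℂ) (Q L : ℝ), 0 < Q → 0 < L →
    (∀ i ∈ s, (m i).HasTemperateGrowth) →
    (∀ i ∈ s, ∀ j ≤ n + dd V, ∀ ξ, Nn (A : V →L[ℝ] V) j (m i) ξ ≤ Q) →
    (∀ ξ, (Set.ncard {i | i ∈ s ∧ ξ ∈ tsupport (m i)} : ℝ) ≤ L) → Integrable g → MemLp g 2 →
    ∑ i ∈ s, WE w (fun ξ => m i ξ * g ξ) ≤ ENNReal.ofReal (C * K ^ 2 * Q ^ 2 * L) * WE w g := by
  obtain ⟨C1, hC1, h1⟩ := orthoA_col (V := V) (n + dd V)
  have hc := cl_nonneg (V := V) n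
  refine ⟨cl V n * C1, by positivity, ?_⟩
  intro A K w hw κ s m g Q L hQ hL hm hmQ hov hg hg2
  have hmi : ∀ i ∈ s, Integrable (fun ξ => m i ξ * g ξ) := by
    intro i hi
    refine hg.bdd_mul (c := Q) (hm i hi).1.continuous.aestronglyMeasurable
      (Filter.Eventually.of_forall fun ξ => ?_)
    have := hmQ i hi 0 (Nat.zero_le _) ξ
    rwa [Nn_zero] at this
  have key : ∀ z, ∑ i ∈ s, wE (n + dd V) (A : V →L[ℝ] V) z (fun ξ => m i ξ * g ξ) ≤
      ENNReal.ofReal (C1 * Q ^ 2 * L) * wE (n + dd V) (A : V →L[ℝ] V) z g := by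
    intro z
    have h2 := h1 A z {i // i ∈ s} (fun i => m i.1) g Q L hQ hL
      (fun i => hm i.1 i.2) (fun i => hmQ i.1 i.2) ?_ hg hg2
    · have e2 : ∑ i : {i // i ∈ s}, wE (n + dd V) (A : V →L[ℝ] V) z (fun ξ => m i.1 ξ * g ξ) =
          ∑ i ∈ s, wE (n + dd V) (A : V →L[ℝ] V) z (fun ξ => m i ξ * g ξ) :=
        Finset.sum_coe_sort s (fun i => wE (n + dd V) (A : V →L[ℝ] V) z (fun ξ => m i ξ * g ξ))
      rwa [e2] at h2
    · intro ξ
      refine le_trans ?_ (hov ξ)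
      have e3 : {i | i ∈ s ∧ ξ ∈ tsupport (m i)} =
          Subtype.val '' {i : {i // i ∈ s} | ξ ∈ tsupport (m i.1)} := by
        ext i
        simp only [Set.mem_ofPred_eq, Set.mem_image, Subtype.exists, exists_and_right,
          exists_eq_right]
        tauto
      rw [e3, Set.ncard_image_of_injective _ Subtype.val_injective]
  have h3 := lift_ineq hw s (fun i ξ => m i ξ * g ξ) ({()} : Finset Unit) (fun _ => g)
    hmi (fun _ _ => hg) (C := C1 * Q ^ 2 * L) (by positivity)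
    (by simpa using key)
  simp only [Finset.sum_singleton] at h3
  refine h3.trans (le_of_eq ?_)
  congr 2
  ring

/-- **one multiplier, slowly varying weights**. -/
theorem sv_mult (V : Type) [NormedAddCommGroup V] [InnerProductSpace ℝ V] [FiniteDimensional ℝ V]
    [MeasurableSpace V] [BorelSpace V] (n : ℕ) : ∃ C : ℝ, 0 ≤ C ∧ ∀ (A : V ≃L[ℝ] V) (K : ℝ)
    (w : V → ℝ), SV A K n w →
    ∀ (m : V → ℂ) (g : V → ℂ) (Q : ℝ), 0 < Q → m.HasTemperateGrowth →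
    (∀ j ≤ n + dd V, ∀ ξ, Nn (A : V →L[ℝ] V) j m ξ ≤ Q) → Integrable g → MemLp g 2 →
    WE w (fun ξ => m ξ * g ξ) ≤ ENNReal.ofReal (C * K ^ 2 * Q ^ 2) * WE w g := by
  obtain ⟨C, hC, h⟩ := sv_col V n
  refine ⟨C, hC, ?_⟩
  intro A K w hw m g Q hQ hm hmQ hg hg2
  have h1 := h A K w hw Unit {()} (fun _ => m) g Q 1 hQ one_pos (fun _ _ => hm)
    (fun _ _ => hmQ) ?_ hg hg2
  · simpa using h1
  · intro ξ
    have : (Set.ncard {i : Unit | i ∈ ({()} : Finset Unit) ∧ ξ ∈ tsupport m}) ≤ 1 :=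
      (Set.ncard_le_ncard (Set.subset_univ _)).trans (by simp)
    exact_mod_cast this

end Crest.Agent.R116.CWp480
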