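import Crest.Agent.R116.CWp2_480

/-!
# R116 (S0155): generic packet machine, part 3 (helper480)

Windows, caps with an arbitrary linear frame, kernel bounds, pieces represented by a physical function
(`Rep`), transport (`Tra`), Theorem A (weighted energy of a sum of transported pieces) and Theorem B
(Bessel).
-/

set_option autoImplicit false
set_option linter.unusedSectionVars false

open MeasureTheory FourierTransform
open scoped ContDiff ENNReal

namespace Crest.Agent.R116.CWp480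

open Crest.Agent.R138.Wf448
open Crest.Agent.R138.Defs (ee)

variable {V : Type} [NormedAddCommGroup V] [InnerProductSpace ℝ V] [FiniteDimensional ℝ V]
  [MeasurableSpace V] [BorelSpace V]

theorem adet_adjE (A : V ≃L[ℝ] V) : adet (adjE A : V →L[ℝ] V) = adet (A : V →L[ℝ] V) := by
  unfold adet
  have h1 : ((adjE A : V →L[ℝ] V) : V →ₗ[ℝ] V) = LinearMap.adjoint ((A : V →L[ℝ] V) : V →ₗ[ℝ] V) := by
    refine LinearMap.ext fun x => ?_
    refine ext_inner_right ℝ fun v => ?_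
    rw [LinearMap.adjoint_inner_left]
    exact inner_adjE A x v
  rw [h1]
  set b := stdOrthonormalBasis ℝ V
  rw [← LinearMap.det_toMatrix b.toBasis, ← LinearMap.det_toMatrix b.toBasis,
    LinearMap.toMatrix_adjoint, Matrix.det_conjTranspose]
  simp

theorem ee_zero : ee 0 = 1 := by simp [ee]

theorem ee_neg_mul (t : ℝ) : ee (-t) * ee t = 1 := by rw [← ee_add, neg_add_cancel, ee_zero]

theorem fourierInv_eq_int (f : V → ℂ) (y : V) : 𝓕⁻ f y = ∫ ζ, f ζ * ee (inner ℝ y ζ) := by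
  rw [Real.fourierInv_eq']
  congr 1
  ext ζ
  rw [smul_eq_mul, mul_comm, real_inner_comm]
  unfold ee
  push_cast
  ring_nf

theorem fourier_decay (V : Type) [NormedAddCommGroup V] [InnerProductSpace ℝ V]
    [FiniteDimensional ℝ V] [MeasurableSpace V] [BorelSpace V] (N : ℕ) :
    ∃ C : ℝ, 0 < C ∧ ∀ (f : V → ℂ) (A : ℝ), ContDiff ℝ N f →
    (∀ ζ, 8 < ‖ζ‖ → f ζ = 0) → (∀ j ≤ N, ∀ ζ, ‖iteratedFDeriv ℝ j f ζ‖ ≤ A) → ∀ y,
      (1 + ‖y‖) ^ N * ‖∫ ζ, f ζ * ee (inner ℝ y ζ)‖ ≤ C * A := by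
  set v : ℝ := (volume (Metric.closedBall (0 : V) 8)).toReal with hv
  have hv0 : 0 ≤ v := ENNReal.toReal_nonneg
  refine ⟨2 ^ N * (2 ^ N + 2 ^ N) * ((N + 1) * v + 1), by positivity, ?_⟩
  intro f A hf hs hA y
  have hA0 : 0 ≤ A := (norm_nonneg _).trans (hA 0 (Nat.zero_le _) 0)
  have hts : tsupport f ⊆ Metric.closedBall 0 8 := by
    apply closure_minimal _ Metric.isClosed_closedBall
    intro x hx
    by_contra hx'
    apply hx
    exact hs x (by simpa using hx')
  have hcs : HasCompactSupport f :=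
    HasCompactSupport.of_support_subset_isCompact (isCompact_closedBall (0 : V) 8)
      ((subset_tsupport f).trans hts)
  have hint : ∀ n ≤ N, ∫ ζ, ‖iteratedFDeriv ℝ n f ζ‖ ≤ A * v := by
    intro n hn
    have h1 : ∀ ζ, ‖iteratedFDeriv ℝ n f ζ‖ ≤
        (Metric.closedBall (0 : V) 8).indicator (fun _ => A) ζ := by
      intro ζ
      by_cases hζ : ζ ∈ Metric.closedBall (0 : V) 8
      · rw [Set.indicator_of_mem hζ]; exact hA n hn ζ
      · rw [Set.indicator_of_notMem hζ]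
        have : ζ ∉ Function.support (iteratedFDeriv ℝ n f) := fun h =>
          hζ (hts (support_iteratedFDeriv_subset n h))
        rw [Function.notMem_support] at this
        simp [this]
    calc ∫ ζ, ‖iteratedFDeriv ℝ n f ζ‖ ≤
          ∫ ζ, (Metric.closedBall (0 : V) 8).indicator (fun _ => A) ζ := by
          apply integral_mono_of_nonneg (Filter.Eventually.of_forall fun ζ => norm_nonneg _) _
            (Filter.Eventually.of_forall h1)
          rw [integrable_indicator_iff Metric.isClosed_closedBall.measurableSet]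
          exact integrableOn_const (hs := (isCompact_closedBall (0 : V) 8).measure_lt_top.ne)
      _ = A * v := by
          rw [integral_indicator Metric.isClosed_closedBall.measurableSet, setIntegral_const]
          simp [Measure.real, hv, mul_comm]
  have hI : ∀ (k n : ℕ), (k : ℕ∞) ≤ 0 → (n : ℕ∞) ≤ N →
      Integrable (fun v : V ↦ ‖v‖ ^ k * ‖iteratedFDeriv ℝ n f v‖) := by
    intro k n hk hn
    have hk0 : k = 0 := by simpa using hk
    subst hk0
    simp only [pow_zero, one_mul]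
    have hcont : Continuous (iteratedFDeriv ℝ n f) :=
      hf.continuous_iteratedFDeriv (by exact_mod_cast hn)
    exact (hcont.integrable_of_hasCompactSupport (hcs.iteratedFDeriv n)).norm
  have key : ∀ n ≤ N, ‖y‖ ^ n * ‖𝓕⁻ f y‖ ≤ 2 ^ N * ((N + 1) * (A * v)) := by
    intro n hn
    have h1 := Real.pow_mul_norm_iteratedFDeriv_fourier_le (K := 0) (N := N) (f := f)
      hf hI (k := 0) (n := n) (by simp) (by exact_mod_cast hn) (-y)
    rw [norm_neg, norm_iteratedFDeriv_zero, ← Real.fourierInv_eq_fourier_neg] at h1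
    refine h1.trans ?_
    have h2 : ∑ p ∈ Finset.range (0 + 1) ×ˢ Finset.range (n + 1),
        ∫ v : V, ‖v‖ ^ p.1 * ‖iteratedFDeriv ℝ p.2 f v‖ ≤ (n + 1) * (A * v) := by
      rw [Finset.sum_product]
      simp only [zero_add, Finset.range_one, Finset.sum_singleton, pow_zero, one_mul]
      calc _ ≤ ∑ _p ∈ Finset.range (n + 1), A * v := by
            apply Finset.sum_le_sum
            intro p hp
            exact hint p ((Nat.lt_succ_iff.1 (Finset.mem_range.1 hp)).trans hn)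
        _ = _ := by simp
    have h3 : (0:ℝ) ≤ A * v := by positivity
    calc (2 * Real.pi) ^ 0 * (2 * ((0:ℕ):ℝ) + 2) ^ n * ∑ p ∈ Finset.range (0 + 1) ×ˢ
          Finset.range (n + 1), ∫ v : V, ‖v‖ ^ p.1 * ‖iteratedFDeriv ℝ p.2 f v‖
        ≤ (2 * Real.pi) ^ 0 * (2 * ((0:ℕ):ℝ) + 2) ^ n * ((n + 1) * (A * v)) := by
          gcongr
      _ = 2 ^ n * ((n + 1) * (A * v)) := by simp
      _ ≤ 2 ^ N * ((N + 1) * (A * v)) := by
          have : (n:ℝ) ≤ N := by exact_mod_cast hn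
          have h4 : (2:ℝ) ^ n ≤ 2 ^ N := pow_le_pow_right₀ (by norm_num) hn
          gcongr
  rw [← fourierInv_eq_int]
  have h5 : (1 + ‖y‖) ^ N ≤ 2 ^ N * (1 + ‖y‖ ^ N) := by
    rcases Nat.eq_zero_or_pos N with h0 | h0
    · subst h0; simp
    · have := add_pow_le (zero_le_one) (norm_nonneg y) N
      calc (1 + ‖y‖) ^ N ≤ 2 ^ (N - 1) * (1 ^ N + ‖y‖ ^ N) := this
        _ ≤ 2 ^ N * (1 ^ N + ‖y‖ ^ N) := by
            gcongr
            · norm_num
            · omega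
        _ = _ := by simp
  have k0 := key 0 (Nat.zero_le _)
  have kN := key N le_rfl
  rw [pow_zero, one_mul] at k0
  calc (1 + ‖y‖) ^ N * ‖𝓕⁻ f y‖ ≤ 2 ^ N * (1 + ‖y‖ ^ N) * ‖𝓕⁻ f y‖ := by gcongr
    _ = 2 ^ N * (‖𝓕⁻ f y‖ + ‖y‖ ^ N * ‖𝓕⁻ f y‖) := by ring
    _ ≤ 2 ^ N * (2 ^ N * ((N + 1) * (A * v)) + 2 ^ N * ((N + 1) * (A * v))) := by gcongr
    _ = 2 ^ N * (2 ^ N + 2 ^ N) * ((N + 1) * v) * A := by ring
    _ ≤ 2 ^ N * (2 ^ N + 2 ^ N) * ((N + 1) * v + 1) * A := by
        gcongr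
        linarith

/-! ### windows and caps -/

/-- windows: smooth, supported in the ball of radius `8`, derivatives up to order `N` bounded. -/
structure Win (N : ℕ) (Q : ℝ) (a : V → ℂ) : Prop where
  smooth : ContDiff ℝ ∞ a
  supp : ∀ ζ, 8 < ‖ζ‖ → a ζ = 0
  bd : ∀ j ≤ N, ∀ ζ, ‖iteratedFDeriv ℝ j a ζ‖ ≤ Q

theorem Win.nonneg {N : ℕ} {Q : ℝ} {a : V → ℂ} (ha : Win N Q a) : 0 ≤ Q :=
  (norm_nonneg _).trans (ha.bd 0 (Nat.zero_le _) 0)

theorem Win.mono {N N' : ℕ} {Q Q' : ℝ} {a : V → ℂ} (ha : Win N Q a) (hN : N' ≤ N) (hQ : Q ≤ Q') :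
    Win N' Q' a := ⟨ha.smooth, ha.supp, fun j hj ζ => (ha.bd j (hj.trans hN) ζ).trans hQ⟩

theorem Win.tsupp {N : ℕ} {Q : ℝ} {a : V → ℂ} (ha : Win N Q a) :
    tsupport a ⊆ Metric.closedBall 0 8 := by
  apply closure_minimal _ Metric.isClosed_closedBall
  intro x hx
  by_contra hx'
  apply hx
  exact ha.supp x (by simpa using hx')

theorem Win.hcs {N : ℕ} {Q : ℝ} {a : V → ℂ} (ha : Win N Q a) : HasCompactSupport a :=
  HasCompactSupport.of_support_subset_isCompact (isCompact_closedBall (0 : V) 8)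
    ((subset_tsupport a).trans ha.tsupp)

theorem Win.norm_le {N : ℕ} {Q : ℝ} {a : V → ℂ} (ha : Win N Q a) (ζ : V) : ‖a ζ‖ ≤ Q := by
  have := ha.bd 0 (Nat.zero_le _) ζ
  rwa [norm_iteratedFDeriv_zero] at this

theorem exists_win {a : V → ℂ} (ha : ContDiff ℝ ∞ a) (hs : ∀ ζ, 8 < ‖ζ‖ → a ζ = 0) (N : ℕ) :
    ∃ Q : ℝ, 0 ≤ Q ∧ Win N Q a := by
  have hts : tsupport a ⊆ Metric.closedBall 0 8 := by
    apply closure_minimal _ Metric.isClosed_closedBall
    intro x hx
    by_contra hx'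
    apply hx
    exact hs x (by simpa using hx')
  have hcs : HasCompactSupport a :=
    HasCompactSupport.of_support_subset_isCompact (isCompact_closedBall (0 : V) 8)
      ((subset_tsupport a).trans hts)
  have hb : ∀ j : ℕ, ∃ C : ℝ, ∀ ζ, ‖iteratedFDeriv ℝ j a ζ‖ ≤ C := by
    intro j
    have h1 : Continuous (iteratedFDeriv ℝ j a) :=
      ha.continuous_iteratedFDeriv (m := j) (mod_cast le_top)
    exact (hcs.iteratedFDeriv j).exists_bound_of_continuous h1
  choose C hC using hb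
  refine ⟨∑ j ∈ Finset.range (N + 1), |C j|, Finset.sum_nonneg fun j _ => abs_nonneg _, ha, hs, ?_⟩
  intro j hj ζ
  refine (hC j ζ).trans ((le_abs_self _).trans ?_)
  exact Finset.single_le_sum (f := fun j => |C j|) (fun j _ => abs_nonneg _)
    (Finset.mem_range.2 (Nat.lt_succ_of_le hj))

/-- product of windows. -/
theorem Win.mul {N : ℕ} {Q Q' : ℝ} {a b : V → ℂ} (ha : Win N Q a) (hb : ContDiff ℝ ∞ b)
    (hbd : ∀ j ≤ N, ∀ ζ, ‖ζ‖ ≤ 8 → ‖iteratedFDeriv ℝ j b ζ‖ ≤ Q') (hQ' : 0 ≤ Q') :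
    Win N (2 ^ N * Q * Q') (fun ζ => a ζ * b ζ) := by
  have hQ := ha.nonneg
  refine ⟨ha.smooth.mul hb, fun ζ hζ => by rw [ha.supp ζ hζ, zero_mul], fun j hj ζ => ?_⟩
  by_cases h8 : ‖ζ‖ ≤ 8
  · have h1 := norm_iteratedFDeriv_mul_le (𝕜 := ℝ) (N := ∞) ha.smooth hb ζ (n := j)
      (mod_cast le_top)
    refine h1.trans ?_
    calc ∑ i ∈ Finset.range (j + 1), (j.choose i : ℝ) * ‖iteratedFDeriv ℝ i a ζ‖ *
          ‖iteratedFDeriv ℝ (j - i) b ζ‖ ≤
        ∑ i ∈ Finset.range (j + 1), (j.choose i : ℝ) * Q * Q' := by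
          refine Finset.sum_le_sum fun i hi => ?_
          have hi' := Finset.mem_range.1 hi
          have h3 := ha.bd i (by omega) ζ
          have h4 := hbd (j - i) (by omega) ζ h8
          gcongr
      _ = 2 ^ j * Q * Q' := by
          rw [← Finset.sum_mul, ← Finset.sum_mul]
          have h5 : ∑ i ∈ Finset.range (j + 1), (j.choose i : ℝ) = 2 ^ j := by
            exact_mod_cast Nat.sum_range_choose j
          rw [h5]
      _ ≤ 2 ^ N * Q * Q' := by
          have : (2:ℝ) ^ j ≤ 2 ^ N := pow_le_pow_right₀ (by norm_num) hj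
          gcongr
  · push Not at h8
    have hz : iteratedFDeriv ℝ j (fun ζ => a ζ * b ζ) ζ = 0 := by
      by_contra hne
      have h1 : ζ ∈ tsupport (fun ζ => a ζ * b ζ) :=
        tsupport_iteratedFDeriv_subset (𝕜 := ℝ) j (subset_tsupport _ hne)
      have h2 : tsupport (fun ζ => a ζ * b ζ) ⊆ Metric.closedBall 0 8 := by
        apply closure_minimal _ Metric.isClosed_closedBall
        intro x hx
        by_contra hx'
        apply hx
        show a x * b x = 0
        rw [ha.supp x (by simpa using hx'), zero_mul]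
      have h3 := h2 h1
      rw [Metric.mem_closedBall, dist_zero_right] at h3
      linarith
    rw [hz, norm_zero]
    positivity

/-- the window `a` moved to the centre `c` with the frame `A`. -/
noncomputable def cap (a : V → ℂ) (c : V) (A : V ≃L[ℝ] V) (ξ : V) : ℂ := a ((adjE A).symm (ξ - c))

theorem cap_add (a : V → ℂ) (c : V) (A : V ≃L[ℝ] V) (η : V) : cap a c A (c + adjE A η) = a η := by
  unfold cap
  rw [add_sub_cancel_left, ContinuousLinearEquiv.symm_apply_apply]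

theorem contDiff_cap {a : V → ℂ} (ha : ContDiff ℝ ∞ a) (c : V) (A : V ≃L[ℝ] V) :
    ContDiff ℝ ∞ (cap a c A) :=
  ha.comp ((adjE A).symm.contDiff.comp (contDiff_id.sub contDiff_const))

theorem cap_Nn {N : ℕ} {Q : ℝ} {a : V → ℂ} (ha : Win N Q a) (c : V) (A : V ≃L[ℝ] V) {j : ℕ}
    (hj : j ≤ N) (ξ : V) : Nn (A : V →L[ℝ] V) j (cap a c A) ξ ≤ Q := by
  unfold cap
  rw [Nn_comp A (ha.smooth.of_le (by exact_mod_cast le_top))]
  exact ha.bd j hj _

theorem cap_tsupport {R : ℝ} {a : V → ℂ} (hs : ∀ ζ, R < ‖ζ‖ → a ζ = 0) (c : V)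
    (A : V ≃L[ℝ] V) : tsupport (cap a c A) ⊆ {ξ | ‖(adjE A).symm (ξ - c)‖ ≤ R} := by
  refine closure_minimal (fun ξ hξ => ?_) ?_
  · by_contra h
    apply hξ
    exact hs _ (not_le.1 h)
  · exact isClosed_le ((adjE A).symm.continuous.comp (continuous_id.sub continuous_const)).norm
      continuous_const

theorem hcs_cap {N : ℕ} {Q : ℝ} {a : V → ℂ} (ha : Win N Q a) (c : V) (A : V ≃L[ℝ] V) :
    HasCompactSupport (cap a c A) := by
  have h1 : IsCompact ((fun η => c + adjE A η) '' Metric.closedBall (0 : V) 8) :=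
    (isCompact_closedBall (0 : V) 8).image (continuous_const.add (adjE A).continuous)
  refine HasCompactSupport.of_support_subset_isCompact h1 ?_
  intro ξ hξ
  refine ⟨(adjE A).symm (ξ - c), ?_, by simp⟩
  rw [Metric.mem_closedBall, dist_zero_right]
  by_contra h
  push Not at h
  exact hξ (ha.supp _ h)

theorem temperate_cap {N : ℕ} {Q : ℝ} {a : V → ℂ} (ha : Win N Q a) (c : V) (A : V ≃L[ℝ] V) :
    (cap a c A).HasTemperateGrowth := (hcs_cap ha c A).hasTemperateGrowth (contDiff_cap ha.smooth c A)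

theorem cap_int {N : ℕ} {Q : ℝ} {a : V → ℂ} (ha : Win N Q a) (c : V) (A : V ≃L[ℝ] V) :
    Integrable (cap a c A) :=
  (contDiff_cap ha.smooth c A).continuous.integrable_of_hasCompactSupport (hcs_cap ha c A)

/-- the kernel of a cap. -/
theorem cap_kernel (a : V → ℂ) (c : V) (A : V ≃L[ℝ] V) (x : V) :
    𝓕⁻ (cap a c A) x = ((adet (A : V →L[ℝ] V) : ℝ) : ℂ) * (ee (inner ℝ x c) * 𝓕⁻ a (A x)) := by
  rw [fourierInv_eq_int, fourierInv_eq_int]
  have h1 : ∫ ξ, cap a c A ξ * ee (inner ℝ x ξ) =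
      ∫ ξ, cap a c A (c + ξ) * ee (inner ℝ x (c + ξ)) :=
    (integral_add_left_eq_self (fun ξ => cap a c A ξ * ee (inner ℝ x ξ)) c).symm
  have h2 := integral_comp_det (adjE A) (fun ξ => cap a c A (c + ξ) * ee (inner ℝ x (c + ξ)))
  rw [adet_adjE] at h2
  have ha := adet0 A
  have h3 : ∫ ξ, cap a c A (c + ξ) * ee (inner ℝ x (c + ξ)) =
      ((adet (A : V →L[ℝ] V) : ℝ) : ℂ) * ∫ y, cap a c A (c + adjE A y) *
        ee (inner ℝ x (c + adjE A y)) := by
    rw [h2, Complex.real_smul, ← mul_assoc, ← Complex.ofReal_mul, mul_inv_cancel₀ ha.ne',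
      Complex.ofReal_one, one_mul]
  rw [h1, h3, ← integral_const_mul (ee (inner ℝ x c))]
  congr 2
  ext y
  rw [cap_add, inner_add_right, ee_add, inner_adjE']
  ring

theorem Kf_bound (V : Type) [NormedAddCommGroup V] [InnerProductSpace ℝ V]
    [FiniteDimensional ℝ V] [MeasurableSpace V] [BorelSpace V] (N : ℕ) :
    ∃ C : ℝ, 0 < C ∧ ∀ (Q : ℝ) (a : V → ℂ), Win N Q a → ∀ (c : V) (A : V ≃L[ℝ] V) (x : V),
    ‖𝓕⁻ (cap a c A) x‖ ≤ C * Q * adet (A : V →L[ℝ] V) * ((1 + ‖A x‖) ^ N)⁻¹ := by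
  obtain ⟨C, hC, h⟩ := fourier_decay V N
  refine ⟨C, hC, ?_⟩
  intro Q a ha c A x
  have h1 := h a Q (ha.smooth.of_le (by exact_mod_cast le_top)) ha.supp ha.bd (A x)
  have had := adet0 A
  rw [cap_kernel, norm_mul, norm_mul, norm_ee, one_mul, Complex.norm_real, Real.norm_eq_abs,
    abs_of_pos had, ← div_eq_mul_inv, le_div_iff₀ (by positivity)]
  rw [← fourierInv_eq_int] at h1
  calc adet (A : V →L[ℝ] V) * ‖𝓕⁻ a (A x)‖ * (1 + ‖A x‖) ^ N =
      adet (A : V →L[ℝ] V) * ((1 + ‖A x‖) ^ N * ‖𝓕⁻ a (A x)‖) := by ring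
    _ ≤ adet (A : V →L[ℝ] V) * (C * Q) := by gcongr
    _ = _ := by ring

end Crest.Agent.R116.CWp480
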