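import Crest.Agent.R116.CWp3_480

/-!
# R116 (S0155): generic packet machine, part 4 (helper480)

`Rep` (frequency pieces represented by a physical function), `rep_energy`, `Tra` (transport),
**Theorem A** `thmA` and **Theorem B** `thmB`, representation lemmas (`rep_ind`, `rep_mul`).
-/

set_option autoImplicit false
set_option linter.unusedSectionVars false

open MeasureTheory FourierTransform
open scoped ContDiff ENNReal

namespace Crest.Agent.R116.CWp480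

open Crest.Agent.R138.Wf448
open Crest.Agent.R138.Defs (ee)

variable {V : Type} [NormedAddCommGroup V] [InnerProductSpace ℝ V] [FiniteDimensional ℝ V]
  [MeasurableSpace V] [BorelSpace V]

/-! ### Fourier side -/

theorem integral_fourier_mul {f g : V → ℂ} (hf : Integrable f) (hg : Integrable g) :
    ∫ ξ, 𝓕 f ξ * g ξ = ∫ x, f x * 𝓕 g x := by
  have hL : Continuous fun p : V × V => (innerₗ V) p.1 p.2 := continuous_inner
  have h := VectorFourier.integral_fourierIntegral_smul_eq_flip (e := Real.fourierChar)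
    (μ := (volume : Measure V)) (ν := (volume : Measure V))
    (L := innerₗ V) Real.continuous_fourierChar hL hf hg
  have hfl : (innerₗ V).flip = innerₗ V := by
    ext x y
    simp
  rw [hfl] at h
  simpa [smul_eq_mul] using! h

theorem fourier_eq_int (f : V → ℂ) (y : V) : 𝓕 f y = ∫ ζ, f ζ * ee (-inner ℝ y ζ) := by
  rw [Real.fourier_eq']
  congr 1
  ext ζ
  rw [smul_eq_mul, mul_comm, real_inner_comm]
  unfold ee
  push_cast
  ring_nf

theorem fourier_mod (f : V → ℂ) (x y : V) :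
    𝓕 (fun ξ => f ξ * ee (inner ℝ x ξ)) y = 𝓕⁻ f (x - y) := by
  rw [fourier_eq_int, fourierInv_eq_int]
  congr 1
  ext ζ
  rw [mul_assoc, ← ee_add, inner_sub_left]
  congr 2

theorem mod_cont (x : V) : Continuous (fun ξ : V => ee (inner ℝ x ξ)) :=
  contDiff_ee.continuous.comp (continuous_const.inner continuous_id)

theorem mod_integrable {f : V → ℂ} (hf : Integrable f) (x : V) :
    Integrable (fun ξ => f ξ * ee (inner ℝ x ξ)) :=
  hf.mul_bdd (c := 1) (mod_cont x).aestronglyMeasurable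
    (Filter.Eventually.of_forall fun ξ => (norm_ee _).le)

theorem rep_ind {a v : V → ℂ} (ha : Integrable a) (hv : Integrable v) (x : V) :
    𝓕⁻ (fun ξ => a ξ * 𝓕 v ξ) x = ∫ y, v y * 𝓕⁻ a (x - y) := by
  rw [fourierInv_eq_int]
  calc ∫ ξ, a ξ * 𝓕 v ξ * ee (inner ℝ x ξ) = ∫ ξ, 𝓕 v ξ * (a ξ * ee (inner ℝ x ξ)) := by
        congr 1; ext ξ; ring
    _ = ∫ y, v y * 𝓕 (fun ξ => a ξ * ee (inner ℝ x ξ)) y :=
        integral_fourier_mul hv (mod_integrable ha x)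
    _ = _ := by
        congr 1; ext y; rw [fourier_mod]

theorem rep_mul {a f : V → ℂ} (hac : Continuous a) (ha : Integrable a) (hai : Integrable (𝓕⁻ a))
    (hai' : Integrable (𝓕 a)) (hf : Integrable f) (x : V) :
    𝓕⁻ (fun ξ => a ξ * f ξ) x = ∫ y, 𝓕⁻ f y * 𝓕⁻ a (x - y) := by
  have hinv : 𝓕 (𝓕⁻ a) = a := hac.fourier_fourierInv_eq ha hai'
  rw [fourierInv_eq_int]
  calc ∫ ξ, a ξ * f ξ * ee (inner ℝ x ξ) = ∫ ξ, 𝓕 (𝓕⁻ a) ξ * (f ξ * ee (inner ℝ x ξ)) := by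
        rw [hinv]; congr 1; ext ξ; ring
    _ = ∫ y, 𝓕⁻ a y * 𝓕 (fun ξ => f ξ * ee (inner ℝ x ξ)) y :=
        integral_fourier_mul hai (mod_integrable hf x)
    _ = ∫ y, 𝓕⁻ a y * 𝓕⁻ f (x - y) := by
        congr 1; ext y; rw [fourier_mod]
    _ = ∫ y, 𝓕⁻ a (x - y) * 𝓕⁻ f (x - (x - y)) :=
        (integral_sub_left_eq_self (fun y => 𝓕⁻ a y * 𝓕⁻ f (x - y)) volume x).symm
    _ = _ := by
        congr 1; ext y; rw [sub_sub_cancel]; ring

theorem Kf_int {N : ℕ} {Q : ℝ} {a : V → ℂ} (ha : Win N Q a) (c : V) (A : V ≃L[ℝ] V) :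
    Integrable (𝓕⁻ (cap a c A)) := by
  have h1 : Integrable (𝓕⁻ ((hcs_cap ha c A).toSchwartzMap
    (contDiff_cap ha.smooth c A)) : SchwartzMap V ℂ) := SchwartzMap.integrable _
  rw [SchwartzMap.fourierInv_coe] at h1
  exact h1

theorem Kf_int' {N : ℕ} {Q : ℝ} {a : V → ℂ} (ha : Win N Q a) (c : V) (A : V ≃L[ℝ] V) :
    Integrable (𝓕 (cap a c A)) := by
  have h1 : Integrable (𝓕 ((hcs_cap ha c A).toSchwartzMap
    (contDiff_cap ha.smooth c A)) : SchwartzMap V ℂ) := SchwartzMap.integrable _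
  rw [SchwartzMap.fourier_coe] at h1
  exact h1

theorem Kf_cont {N : ℕ} {Q : ℝ} {a : V → ℂ} (ha : Win N Q a) (c : V) (A : V ≃L[ℝ] V) :
    Continuous (𝓕⁻ (cap a c A)) := fourierInv_continuous (cap_int ha c A)

/-! ### represented pieces -/

/-- a frequency piece `G` represented by the physical function `v` through a window in the frame
`A` at `c`. -/
structure Rep (N : ℕ) (Q : ℝ) (A : V ≃L[ℝ] V) (c : V) (G v : V → ℂ) : Prop where
  int : Integrable G
  l2 : MemLp G 2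
  vm : AEStronglyMeasurable v
  vb : ∃ M, ∀ y, ‖v y‖ ≤ M
  rep : ∃ a, Win N Q a ∧ ∀ x, 𝓕⁻ G x = ∫ y, v y * 𝓕⁻ (cap a c A) (x - y)

theorem integrable_dec3 : Integrable (fun y : V => ((1 + ‖y‖) ^ dd V)⁻¹) := by
  have h := integrable_one_add_norm (μ := (volume : Measure V)) (r := ((dd V : ℕ) : ℝ)) (by
    unfold dd
    push_cast
    linarith)
  refine h.congr (Filter.Eventually.of_forall fun y => ?_)
  simp only
  rw [Real.rpow_neg (by positivity), Real.rpow_natCast]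

/-- the second constant. -/
noncomputable def cd3 (V : Type) [NormedAddCommGroup V] [InnerProductSpace ℝ V]
    [FiniteDimensional ℝ V] [MeasurableSpace V] [BorelSpace V] : ℝ :=
  ∫ y : V, ((1 + ‖y‖) ^ dd V)⁻¹

theorem cd3_nonneg : 0 ≤ cd3 V := integral_nonneg fun y => by positivity

/-- the second integrable profile. -/
noncomputable def dec3 (y : V) : ℝ≥0∞ := ENNReal.ofReal (((1 + ‖y‖) ^ dd V)⁻¹)

theorem lintegral_dec3 : ∫⁻ y : V, dec3 y = ENNReal.ofReal (cd3 V) := by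
  unfold dec3
  rw [cd3, ofReal_integral_eq_lintegral_ofReal integrable_dec3
    (Filter.Eventually.of_forall fun y => by positivity)]

theorem lint_sq_le {f g : V → ℝ≥0∞} (hf : AEMeasurable f) (hg : AEMeasurable g) :
    (∫⁻ y, f y * g y) ^ 2 ≤ (∫⁻ y, g y) * ∫⁻ y, f y ^ 2 * g y := by
  have h1 : ∀ y, f y * g y = (fun y => g y ^ (1 / 2 : ℝ)) y * (fun y => f y * g y ^ (1 / 2 : ℝ)) y := by
    intro y
    simp only
    have : g y ^ (1 / 2 : ℝ) * g y ^ (1 / 2 : ℝ) = g y := by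
      rw [← ENNReal.rpow_add_of_nonneg _ _ (by norm_num) (by norm_num)]
      norm_num
    calc f y * g y = f y * (g y ^ (1 / 2 : ℝ) * g y ^ (1 / 2 : ℝ)) := by rw [this]
      _ = _ := by ring
  have h2 := ENNReal.lintegral_mul_le_Lp_mul_Lq volume (Real.HolderConjugate.two_two)
    (f := fun y => g y ^ (1 / 2 : ℝ)) (g := fun y => f y * g y ^ (1 / 2 : ℝ))
    (hg.pow_const _) (hf.mul (hg.pow_const _))
  have h3 : ∀ y, (g y ^ (1 / 2 : ℝ)) ^ (2 : ℝ) = g y := by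
    intro y
    rw [← ENNReal.rpow_mul]; norm_num
  have h4 : ∀ y, (f y * g y ^ (1 / 2 : ℝ)) ^ (2 : ℝ) = f y ^ 2 * g y := by
    intro y
    rw [ENNReal.mul_rpow_of_nonneg _ _ (by norm_num), h3]
    norm_cast
  simp only [h3, h4] at h2
  calc (∫⁻ y, f y * g y) ^ 2 ≤ ((∫⁻ y, g y) ^ (1 / 2 : ℝ) * (∫⁻ y, f y ^ 2 * g y) ^ (1 / 2 : ℝ)) ^ 2 := by
        refine pow_le_pow_left₀ zero_le ?_ 2
        refine le_trans (le_of_eq ?_) h2
        exact lintegral_congr h1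
    _ = _ := by
        rw [mul_pow]
        have h5 : ∀ a : ℝ≥0∞, (a ^ (1 / 2 : ℝ)) ^ 2 = a := by
          intro a
          rw [← ENNReal.rpow_natCast, ← ENNReal.rpow_mul]
          norm_num
        rw [h5, h5]

/-- energy of a represented piece, weights slowly varying in the same frame. -/
theorem rep_energy0 (V : Type) [NormedAddCommGroup V] [InnerProductSpace ℝ V]
    [FiniteDimensional ℝ V] [MeasurableSpace V] [BorelSpace V] (n : ℕ) :
    ∃ C : ℝ, 0 ≤ C ∧ ∀ (A : V ≃L[ℝ] V) (K : ℝ) (w : V → ℝ),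
    SV A K n w → ∀ (Q : ℝ) (c : V) (G v : V → ℂ), Rep (n + dd V) Q A c G v →
    WE w G ≤ ENNReal.ofReal (C * Q ^ 2 * K) * ∫⁻ y, ENNReal.ofReal (w y) * ‖v y‖ₑ ^ 2 := by
  obtain ⟨C, hC, hK⟩ := Kf_bound V (n + dd V)
  have h3 := cd3_nonneg (V := V)
  refine ⟨C * cd3 V * (C * cd3 V), by positivity, ?_⟩
  intro A K w hw Q c G v hR
  have hA := hw.one_le
  have had := adet0 A
  obtain ⟨a, ha, hrep⟩ := hR.rep
  have hQ := ha.nonneg
  have hKm : Measurable (fun x => ‖𝓕⁻ (cap a c A) x‖ₑ) := (Kf_cont ha c A).measurable.enorm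
  have hvm : AEMeasurable (fun y => ‖v y‖ₑ) := hR.vm.enorm
  have hmass : ∀ y, ∫⁻ x, ENNReal.ofReal (w x) * ‖𝓕⁻ (cap a c A) (x - y)‖ₑ ≤
      ENNReal.ofReal (K * (C * Q * cd3 V)) * ENNReal.ofReal (w y) := by
    intro y
    have hy := (hw.pos y).le
    calc _ ≤ ∫⁻ x, ENNReal.ofReal (K * (C * Q) * adet (A : V →L[ℝ] V) * w y) * dec3 (A (x - y)) := by
          refine lintegral_mono fun x => ?_
          have hx := (hw.pos x).le
          rw [← ofReal_norm, ← ENNReal.ofReal_mul hx]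
          unfold dec3
          rw [← ENNReal.ofReal_mul (by positivity)]
          apply ENNReal.ofReal_le_ofReal
          have h4 := hK Q a ha c A (x - y)
          have h5 := hw.sv x y
          set u : ℝ := ‖A (x - y)‖ with hu
          have hu0 : 0 ≤ u := norm_nonneg _
          calc w x * ‖𝓕⁻ (cap a c A) (x - y)‖ ≤ (K * (1 + u) ^ n * w y) *
                (C * Q * adet (A : V →L[ℝ] V) * ((1 + u) ^ (n + dd V))⁻¹) := by gcongr
            _ = K * (C * Q) * adet (A : V →L[ℝ] V) * w y * ((1 + u) ^ dd V)⁻¹ := by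
                rw [pow_add, mul_inv]
                field_simp
      _ = ENNReal.ofReal (K * (C * Q) * adet (A : V →L[ℝ] V) * w y) *
          (ENNReal.ofReal (adet (A : V →L[ℝ] V))⁻¹ * ENNReal.ofReal (cd3 V)) := by
          rw [lintegral_const_mul' _ _ ENNReal.ofReal_ne_top, lintegral_scale' A dec3 y,
            lintegral_dec3]
      _ = _ := by
          rw [← ENNReal.ofReal_mul (by positivity), ← ENNReal.ofReal_mul (by positivity),
            ← ENNReal.ofReal_mul (by positivity)]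
          congr 1
          field_simp
  have hmass1 : ∀ x, ∫⁻ y, ‖𝓕⁻ (cap a c A) (x - y)‖ₑ ≤ ENNReal.ofReal (C * Q * cd3 V) := by
    intro x
    calc _ ≤ ∫⁻ y, ENNReal.ofReal (C * Q * adet (A : V →L[ℝ] V)) * dec3 (A (x - y)) := by
          refine lintegral_mono fun y => ?_
          rw [← ofReal_norm]
          unfold dec3
          rw [← ENNReal.ofReal_mul (by positivity)]
          apply ENNReal.ofReal_le_ofReal
          have h4 := hK Q a ha c A (x - y)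
          refine h4.trans ?_
          have h6 : 0 ≤ ‖A (x - y)‖ := norm_nonneg _
          gcongr
          · linarith
          · omega
      _ = _ := by
          rw [lintegral_const_mul' _ _ ENNReal.ofReal_ne_top, lintegral_scale A dec3 x,
            lintegral_dec3, ← ENNReal.ofReal_mul (by positivity), ← ENNReal.ofReal_mul (by positivity)]
          congr 1
          field_simp
  have hpt : ∀ x, ‖𝓕⁻ G x‖ₑ ^ 2 ≤
      ENNReal.ofReal (C * Q * cd3 V) * ∫⁻ y, ‖v y‖ₑ ^ 2 * ‖𝓕⁻ (cap a c A) (x - y)‖ₑ := by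
    intro x
    have h4 : ‖𝓕⁻ G x‖ₑ ≤ ∫⁻ y, ‖v y‖ₑ * ‖𝓕⁻ (cap a c A) (x - y)‖ₑ := by
      rw [hrep x]
      refine (enorm_integral_le_lintegral_enorm _).trans (le_of_eq ?_)
      refine lintegral_congr fun y => ?_
      rw [enorm_mul]
    calc ‖𝓕⁻ G x‖ₑ ^ 2 ≤ (∫⁻ y, ‖v y‖ₑ * ‖𝓕⁻ (cap a c A) (x - y)‖ₑ) ^ 2 := by gcongr
      _ ≤ (∫⁻ y, ‖𝓕⁻ (cap a c A) (x - y)‖ₑ) * ∫⁻ y, ‖v y‖ₑ ^ 2 * ‖𝓕⁻ (cap a c A) (x - y)‖ₑ :=
          lint_sq_le hvm (hKm.comp (measurable_const.sub measurable_id)).aemeasurable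
      _ ≤ _ := by gcongr; exact hmass1 x
  calc WE w G ≤ ∫⁻ x, ENNReal.ofReal (w x) * (ENNReal.ofReal (C * Q * cd3 V) *
        ∫⁻ y, ‖v y‖ₑ ^ 2 * ‖𝓕⁻ (cap a c A) (x - y)‖ₑ) := by
        unfold WE
        gcongr with x
        exact hpt x
    _ = ENNReal.ofReal (C * Q * cd3 V) * ∫⁻ x, ∫⁻ y, ENNReal.ofReal (w x) *
        (‖v y‖ₑ ^ 2 * ‖𝓕⁻ (cap a c A) (x - y)‖ₑ) := by
        rw [← lintegral_const_mul' _ _ ENNReal.ofReal_ne_top]
        refine lintegral_congr fun x => ?_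
        rw [lintegral_const_mul' _ _ ENNReal.ofReal_ne_top]
        ring
    _ = ENNReal.ofReal (C * Q * cd3 V) * ∫⁻ y, ∫⁻ x, ENNReal.ofReal (w x) *
        (‖v y‖ₑ ^ 2 * ‖𝓕⁻ (cap a c A) (x - y)‖ₑ) := by
        congr 1
        rw [lintegral_lintegral_swap]
        have m1 : AEMeasurable (fun p : V × V => ENNReal.ofReal (w p.1)) (volume.prod volume) :=
          (hw.meas.comp measurable_fst).ennreal_ofReal.aemeasurable
        have m2 : AEMeasurable (fun p : V × V => ‖v p.2‖ₑ ^ 2) (volume.prod volume) :=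
          (hvm.comp_snd).pow_const 2
        have m3 : AEMeasurable (fun p : V × V => ‖𝓕⁻ (cap a c A) (p.1 - p.2)‖ₑ)
            (volume.prod volume) :=
          (hKm.comp (measurable_fst.sub measurable_snd)).aemeasurable
        exact m1.mul (m2.mul m3)
    _ = ENNReal.ofReal (C * Q * cd3 V) * ∫⁻ y, ‖v y‖ₑ ^ 2 *
        ∫⁻ x, ENNReal.ofReal (w x) * ‖𝓕⁻ (cap a c A) (x - y)‖ₑ := by
        congr 1
        refine lintegral_congr fun y => ?_
        rw [← lintegral_const_mul]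
        · refine lintegral_congr fun x => ?_
          ring
        · exact hw.meas.ennreal_ofReal.mul (hKm.comp (measurable_id.sub measurable_const))
    _ ≤ ENNReal.ofReal (C * Q * cd3 V) * ∫⁻ y, ‖v y‖ₑ ^ 2 *
        (ENNReal.ofReal (K * (C * Q * cd3 V)) * ENNReal.ofReal (w y)) := by
        gcongr with y
        exact hmass y
    _ = _ := by
        have e1 : ∀ y, ‖v y‖ₑ ^ 2 * (ENNReal.ofReal (K * (C * Q * cd3 V)) * ENNReal.ofReal (w y)) =
            ENNReal.ofReal (K * (C * Q * cd3 V)) * (ENNReal.ofReal (w y) * ‖v y‖ₑ ^ 2) :=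
          fun y => by ring
        simp only [e1]
        rw [lintegral_const_mul' _ _ ENNReal.ofReal_ne_top, ← mul_assoc,
          ← ENNReal.ofReal_mul (by positivity)]
        congr 2
        ring

/-- energy of a represented piece, weights slowly varying in a coarser metric. -/
theorem rep_energy (V : Type) [NormedAddCommGroup V] [InnerProductSpace ℝ V]
    [FiniteDimensional ℝ V] [MeasurableSpace V] [BorelSpace V] (n : ℕ) :
    ∃ C : ℝ, 0 ≤ C ∧ ∀ (A : V ≃L[ℝ] V) (K : ℝ) (w : V → ℝ), SV A K n w →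
    ∀ (L : ℝ) (A' : V ≃L[ℝ] V), 1 ≤ L → (∀ x, ‖A x‖ ≤ L * ‖A' x‖) →
    ∀ (Q : ℝ) (c : V) (G v : V → ℂ), Rep (n + dd V) Q A' c G v →
    WE w G ≤ ENNReal.ofReal (C * Q ^ 2 * (K * L ^ n)) * ∫⁻ y, ENNReal.ofReal (w y) * ‖v y‖ₑ ^ 2 := by
  obtain ⟨C, hC, h⟩ := rep_energy0 V n
  refine ⟨C, hC, ?_⟩
  intro A K w hw L A' hL hA Q c G v hR
  exact h A' (K * L ^ n) w (hw.of_le hL hA) Q c G v hR

/-! ### transport -/

theorem WE_modulate (w : V → ℝ) (v : V) {f f' : V → ℂ}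
    (hf : ∀ ξ, f' ξ = ee (inner ℝ v ξ) * f ξ) : WE w f' = WE (fun x => w (x - v)) f := by
  unfold WE
  have e2 : ∀ x, 𝓕⁻ f' x = 𝓕⁻ f (x + v) := by
    intro x
    rw [fourierInv_eq_int, fourierInv_eq_int]
    congr 1
    ext ξ
    rw [hf, inner_add_left, ee_add]
    ring
  simp only [e2]
  rw [← lintegral_sub_right_eq_self (fun x => ENNReal.ofReal (w x) * ‖𝓕⁻ f (x + v)‖ₑ ^ 2) v]
  simp

theorem WE_phase (w : V → ℝ) {f f' : V → ℂ} {c : ℂ} (hc : ‖c‖ = 1)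
    (hf : ∀ ξ, f' ξ = c * f ξ) : WE w f' = WE w f := by
  unfold WE
  have e2 : ∀ x, 𝓕⁻ f' x = c * 𝓕⁻ f x := by
    intro x
    rw [fourierInv_eq_int, fourierInv_eq_int, ← integral_const_mul]
    congr 1
    ext ξ
    rw [hf]
    ring
  simp only [e2, enorm_mul]
  have : ‖c‖ₑ = 1 := by rw [← ofReal_norm, hc, ENNReal.ofReal_one]
  simp [this]

/-- `F` is the transport of `G` by the vector `v` (in the metric `A`). -/
def Tra (A : V ≃L[ℝ] V) (N : ℕ) (Q : ℝ) (v : V) (F G : V → ℂ) : Prop :=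
  ∃ (c : ℂ) (μ : V → ℂ), ‖c‖ = 1 ∧ μ.HasTemperateGrowth ∧
    (∀ j ≤ N, ∀ ξ, Nn (A : V →L[ℝ] V) j μ ξ ≤ Q) ∧
    ∀ ξ, F ξ = c * (μ ξ * (ee (inner ℝ v ξ) * G ξ))

theorem mod_int {G : V → ℂ} (hG : Integrable G) (v : V) :
    Integrable (fun ξ => ee (inner ℝ v ξ) * G ξ) :=
  hG.bdd_mul (c := 1) (mod_cont v).aestronglyMeasurable
    (Filter.Eventually.of_forall fun ξ => (norm_ee _).le)

theorem mod_l2 {G : V → ℂ} (hG : MemLp G 2) (v : V) :
    MemLp (fun ξ => ee (inner ℝ v ξ) * G ξ) 2 := by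
  refine MemLp.of_le hG ((mod_cont v).aestronglyMeasurable.mul hG.1)
    (Filter.Eventually.of_forall fun ξ => ?_)
  rw [norm_mul, norm_ee, one_mul]

theorem sv_transport (V : Type) [NormedAddCommGroup V] [InnerProductSpace ℝ V]
    [FiniteDimensional ℝ V] [MeasurableSpace V] [BorelSpace V] (n : ℕ) : ∃ C : ℝ, 0 ≤ C ∧
    ∀ (A : V ≃L[ℝ] V) (K : ℝ) (w : V → ℝ), SV A K n w → ∀ (Q : ℝ) (v : V) (F G : V → ℂ), 0 < Q →
    Integrable G → MemLp G 2 → Tra A (n + dd V) Q v F G →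
    WE w F ≤ ENNReal.ofReal (C * K ^ 2 * Q ^ 2) * WE (fun x => w (x - v)) G := by
  obtain ⟨C, hC, h⟩ := sv_mult V n
  refine ⟨C, hC, ?_⟩
  intro A K w hw Q v F G hQ hG hG2 hT
  obtain ⟨c, μ, hc, hμ, hμQ, hF⟩ := hT
  calc WE w F = WE w (fun ξ => μ ξ * (ee (inner ℝ v ξ) * G ξ)) := WE_phase w hc hF
    _ ≤ ENNReal.ofReal (C * K ^ 2 * Q ^ 2) * WE w (fun ξ => ee (inner ℝ v ξ) * G ξ) :=
        h A K w hw μ _ Q hQ hμ hμQ (mod_int hG v) (mod_l2 hG2 v)
    _ = _ := by rw [WE_modulate w v (f := G) (fun ξ => rfl)]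

/-! ### Theorem A -/

/-- **Theorem A**: weighted energy of a sum of transported represented pieces whose frequency sets
`S m` have `A`-thickenings of bounded overlap. -/
theorem thmA (V : Type) [NormedAddCommGroup V] [InnerProductSpace ℝ V]
    [FiniteDimensional ℝ V] [MeasurableSpace V] [BorelSpace V] (n : ℕ) :
    ∃ C : ℝ, 0 ≤ C ∧ ∀ (A : V ≃L[ℝ] V) (K : ℝ) (w : V → ℝ), SV A K n w →
    ∀ (κ : Type) (s : Finset κ) (S : κ → Set V) (F G v : κ → V → ℂ) (vv c : κ → V)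
      (A' : κ → V ≃L[ℝ] V) (P L Q Q' : ℝ), 0 < P → 1 ≤ L → 0 < Q →
    (∀ ξ, (Set.ncard {i | i ∈ s ∧ ξ ∈ thk A (S i)} : ℝ) ≤ P) →
    (∀ i ∈ s, ∀ ξ, F i ξ ≠ 0 → ξ ∈ S i) → (∀ i ∈ s, Integrable (F i)) → (∀ i ∈ s, MemLp (F i) 2) →
    (∀ i ∈ s, ∀ x, ‖A x‖ ≤ L * ‖A' i x‖) →
    (∀ i ∈ s, Tra A (n + dd V) Q (vv i) (F i) (G i)) →
    (∀ i ∈ s, Rep (n + dd V) Q' (A' i) (c i) (G i) (v i)) →
    WE w (fun ξ => ∑ i ∈ s, F i ξ) ≤ ENNReal.ofReal (C * K ^ 5 * P * Q ^ 2 * Q' ^ 2 * L ^ n) *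
      ∑ i ∈ s, ∫⁻ y, ENNReal.ofReal (w (y - vv i)) * ‖v i y‖ₑ ^ 2 := by
  obtain ⟨C1, hC1, h1⟩ := sv_row V n
  obtain ⟨C2, hC2, h2⟩ := sv_transport V n
  obtain ⟨C3, hC3, h3⟩ := rep_energy V n
  refine ⟨C1 * (C2 * C3), by positivity, ?_⟩
  intro A K w hw κ s S F G v vv c A' P L Q Q' hP hL hQ hov hS hF hF2 hA hT hR
  have hK := hw.one_le
  calc WE w (fun ξ => ∑ i ∈ s, F i ξ) ≤
        ENNReal.ofReal (C1 * K ^ 2 * P) * ∑ i ∈ s, WE w (F i) := h1 A K w hw κ s S F P hP hov hS hF hF2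
    _ ≤ ENNReal.ofReal (C1 * K ^ 2 * P) * ∑ i ∈ s, (ENNReal.ofReal (C2 * K ^ 2 * Q ^ 2) *
          (ENNReal.ofReal (C3 * Q' ^ 2 * (K * L ^ n)) * ∫⁻ y, ENNReal.ofReal (w (y - vv i)) *
            ‖v i y‖ₑ ^ 2)) := by
        refine mul_le_mul_right (Finset.sum_le_sum fun i hi => ?_) _
        refine (h2 A K w hw Q (vv i) (F i) (G i) hQ (hR i hi).int (hR i hi).l2 (hT i hi)).trans
          (mul_le_mul_right ?_ _)
        exact h3 A K _ (hw.comp_sub (vv i)) L (A' i) hL (hA i hi) Q' (c i) (G i) (v i) (hR i hi)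
    _ = _ := by
        rw [← Finset.mul_sum, ← Finset.mul_sum, ← mul_assoc, ← mul_assoc,
          ← ENNReal.ofReal_mul (by positivity), ← ENNReal.ofReal_mul (by positivity)]
        congr 2
        ring

/-- **Theorem B**: Bessel inequality for transported pieces `a i * g`, `F i = a i * g'` being the
transport (by `-vv i`) of `G i`. -/
theorem thmB (V : Type) [NormedAddCommGroup V] [InnerProductSpace ℝ V]
    [FiniteDimensional ℝ V] [MeasurableSpace V] [BorelSpace V] (n : ℕ) :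
    ∃ C : ℝ, 0 ≤ C ∧ ∀ (A : V ≃L[ℝ] V) (K : ℝ) (w : V → ℝ), SV A K n w →
    ∀ (κ : Type) (s : Finset κ) (a : κ → V → ℂ) (G : κ → V → ℂ) (g' : V → ℂ) (vv : κ → V)
      (P Q Q' : ℝ), 0 < P → 0 < Q → 0 < Q' →
    (∀ i ∈ s, (a i).HasTemperateGrowth) →
    (∀ i ∈ s, ∀ j ≤ n + dd V, ∀ ξ, Nn (A : V →L[ℝ] V) j (a i) ξ ≤ Q') →
    (∀ ξ, (Set.ncard {i | i ∈ s ∧ ξ ∈ tsupport (a i)} : ℝ) ≤ P) → Integrable g' → MemLp g' 2 →
    (∀ i ∈ s, Tra A (n + dd V) Q (-vv i) (G i) (fun ξ => a i ξ * g' ξ)) →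
    ∑ i ∈ s, WE (fun x => w (x - vv i)) (G i) ≤
      ENNReal.ofReal (C * K ^ 4 * P * Q ^ 2 * Q' ^ 2) * WE w g' := by
  obtain ⟨C1, hC1, h1⟩ := sv_col V n
  obtain ⟨C2, hC2, h2⟩ := sv_transport V n
  refine ⟨C1 * C2, by positivity, ?_⟩
  intro A K w hw κ s a G g' vv P Q Q' hP hQ hQ' ha haQ hov hg hg2 hT
  have hK := hw.one_le
  have hmi : ∀ i ∈ s, Integrable (fun ξ => a i ξ * g' ξ) := by
    intro i hi
    refine hg.bdd_mul (c := Q') (ha i hi).1.continuous.aestronglyMeasurable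
      (Filter.Eventually.of_forall fun ξ => ?_)
    have := haQ i hi 0 (Nat.zero_le _) ξ
    rwa [Nn_zero] at this
  have hml : ∀ i ∈ s, MemLp (fun ξ => a i ξ * g' ξ) 2 := by
    intro i hi
    refine MemLp.of_le_mul (c := Q') hg2 ((ha i hi).1.continuous.aestronglyMeasurable.mul hg2.1)
      (Filter.Eventually.of_forall fun ξ => ?_)
    rw [norm_mul]
    have := haQ i hi 0 (Nat.zero_le _) ξ
    rw [Nn_zero] at this
    exact mul_le_mul_of_nonneg_right this (norm_nonneg _)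
  calc ∑ i ∈ s, WE (fun x => w (x - vv i)) (G i) ≤
        ∑ i ∈ s, ENNReal.ofReal (C2 * K ^ 2 * Q ^ 2) * WE w (fun ξ => a i ξ * g' ξ) := by
        refine Finset.sum_le_sum fun i hi => ?_
        have b1 := h2 A K _ (hw.comp_sub (vv i)) Q (-vv i) (G i) (fun ξ => a i ξ * g' ξ) hQ
          (hmi i hi) (hml i hi) (hT i hi)
        have e1 : (fun x => w (x - -vv i - vv i)) = w := by
          funext x
          congr 1
          abel
        rwa [e1] at b1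
    _ = ENNReal.ofReal (C2 * K ^ 2 * Q ^ 2) * ∑ i ∈ s, WE w (fun ξ => a i ξ * g' ξ) := by
        rw [Finset.mul_sum]
    _ ≤ ENNReal.ofReal (C2 * K ^ 2 * Q ^ 2) * (ENNReal.ofReal (C1 * K ^ 2 * Q' ^ 2 * P) *
          WE w g') := by
        refine mul_le_mul_right ?_ _
        exact h1 A K w hw κ s a g' Q' P hQ' hP ha haQ hov hg hg2
    _ = _ := by
        rw [← mul_assoc, ← ENNReal.ofReal_mul (by positivity)]
        congr 2
        ring

end Crest.Agent.R116.CWp480
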