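import Crest.Agent.R116.GlC_210

/-!
# R116 (S0155), wave side, CHAIN-C (helper210): numbers for the wiring
-/

set_option autoImplicit false

open scoped ENNReal

namespace Crest.Agent.R116.GlC210

open Crest.Agent.R116.AsmP597

/-- the price is at most the growth. -/
theorem price_le {c1 A a g : ℝ} {n L : ℕ} (hc1 : 0 < c1) (H : TowerP c1 A a g n L) :
    a * L + 1 ≤ c1 / 2 * n := by
  by_contra hcon
  push Not at hcon
  set e : ℝ := c1 / 2 * n - (a * L + 1) with he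
  have he0 : e < 0 := by rw [he]; linarith
  set Q : ℝ := 2 * (4 * 1) ^ (6 * n) with hQ
  have hQ1 : 1 < Q := by
    have : (1:ℝ) ≤ (4 * 1) ^ (6 * n) := one_le_pow₀ (by norm_num)
    rw [hQ]; linarith
  set X : ℝ := Q ^ (-e)⁻¹ with hX
  have hX1 : 1 < X := Real.one_lt_rpow hQ1 (by
    rw [inv_pos]; linarith)
  have hX0 : 0 < X := by linarith
  have hXe : X ^ e = Q⁻¹ := by
    rw [hX, ← Real.rpow_mul (by linarith)]
    have : (-e)⁻¹ * e = -1 := by
      have : e ≠ 0 := he0.ne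
      field_simp
    rw [this, Real.rpow_neg_one]
  have key := H c1 0 0 le_rfl le_rfl hc1.le le_rfl (by linarith) X 1 1 0 hX1 le_rfl zero_le_one
    le_rfl (fun _ => 1) (fun _ _ => 1) (fun _ _ => 0) (fun _ _ _ _ => 1) (fun _ _ => 1)
    (fun _ _ => False) (fun _ _ => False)
    (fun k _ => by simp)
    (fun t _ k _ => Nat.zero_lt_one)
    (fun t _ k _ => by
      refine le_trans ?_ le_self_add
      rw [mul_one, one_mul, ← ENNReal.ofReal_one]
      exact ENNReal.ofReal_le_ofReal (Real.one_le_rpow hX1.le (by linarith)))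
    (fun j _ _ k _ h => h.elim)
    (fun h i j _ _ hij _ _ k _ => ⟨le_rfl, by
      rw [one_mul]
      refine Real.one_le_rpow hX1.le ?_
      have : (i : ℝ) ≤ j := by exact_mod_cast hij.le
      linarith⟩)
    (fun h i j l _ _ _ _ _ _ k _ hn => hn.elim)
    (fun j _ _ k _ => ⟨le_rfl, by
      rw [one_mul]; exact Real.one_le_rpow hX1.le (by norm_num)⟩)
    (fun j _ _ k _ _ _ _ _ => by
      refine le_trans ?_ le_self_add
      rw [mul_one, ← ENNReal.ofReal_one]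
      refine ENNReal.ofReal_le_ofReal ?_
      have : 0 ≤ X ^ (c1 / 2 - g) := Real.rpow_nonneg hX0.le _
      simp only [Real.rpow_zero, div_one, Real.one_rpow, mul_one, one_mul]
      linarith)
    0 Nat.zero_lt_one
  have h1 : (1 : ℝ) ≤ (4 * 1) ^ (6 * n) * X ^ e := by
    have h2 : (1 : ℝ≥0∞) ≤ ENNReal.ofReal ((4 * 1) ^ (6 * n) * X ^ e) := by
      refine key.trans (le_of_eq ?_)
      congr 1
      rw [he]
      ring
    rwa [← ENNReal.ofReal_one, ENNReal.ofReal_le_ofReal_iff (by positivity)] at h2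
  rw [hXe, hQ, mul_inv] at h1
  have h3 : (0:ℝ) < (4 * 1) ^ (6 * n) := by positivity
  have h4 : ((4:ℝ) * 1) ^ (6 * n) * (2⁻¹ * ((4 * 1) ^ (6 * n))⁻¹) = 2⁻¹ := by
    field_simp
  rw [h4] at h1
  norm_num at h1

/-- `(s r')² ≥ x² r'` if `s ≥ x r'^(-1/2)`. -/
theorem sq_ge {r' s x : ℝ} (hr' : 0 < r') (hx : 0 ≤ x) (hs : x * r' ^ (-(1/2) : ℝ) ≤ s) :
    x ^ 2 * r' ≤ (s * r') ^ 2 := by
  have h1 : r' ^ (-(1/2) : ℝ) * r' = r' ^ (1/2 : ℝ) := by
    nth_rewrite 2 [← Real.rpow_one r']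
    rw [← Real.rpow_add hr']; norm_num
  have h2 : x * r' ^ (1/2 : ℝ) ≤ s * r' := by
    calc x * r' ^ (1/2 : ℝ) = (x * r' ^ (-(1/2) : ℝ)) * r' := by rw [mul_assoc, h1]
      _ ≤ s * r' := mul_le_mul_of_nonneg_right hs hr'.le
  calc x ^ 2 * r' = (x * r' ^ (1/2 : ℝ)) ^ 2 := by
        rw [mul_pow, ← Real.rpow_natCast (r' ^ (1/2 : ℝ)) 2, ← Real.rpow_mul hr'.le]
        norm_num
    _ ≤ (s * r') ^ 2 := pow_le_pow_left₀ (by positivity) h2 2

/-- Step 4 factor. -/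
theorem maxfac_le {r r' s dl : ℝ} (hdl : 0 < dl) (hdl1 : dl ≤ 1) (hr' : 0 < r')
    (hrr : r' = dl * r) (hs : r' ^ (-(1/2) : ℝ) ≤ s) : max 1 (r / (s * r') ^ 2) ≤ dl⁻¹ := by
  refine max_le ((one_le_inv₀ hdl).2 hdl1) ?_
  have h1 := sq_ge (s := s) hr' zero_le_one (by rwa [one_mul])
  rw [one_pow, one_mul] at h1
  have hr : r = dl⁻¹ * r' := by rw [hrr]; field_simp
  calc r / (s * r') ^ 2 ≤ r / r' := by
        refine div_le_div_of_nonneg_left ?_ hr' h1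
        rw [hr]; positivity
    _ = dl⁻¹ := by rw [hr]; field_simp

/-- Step 4 factor of a thick label. -/
theorem max_thick {r r' s dl δ : ℝ} (hdl : 0 < dl) (hdl1 : dl ≤ 1) (hδ : δ ≤ 1/2) (hr' : 0 < r')
    (hrr : r' = dl * r) (hs : dl ^ (-δ) * r' ^ (-(1/2) : ℝ) ≤ s) :
    max 1 (r / (s * r') ^ 2) ≤ dl⁻¹ ^ (1 - 2 * δ) := by
  have hX1 : 1 ≤ dl⁻¹ := (one_le_inv₀ hdl).2 hdl1
  have hX0 : 0 < dl⁻¹ := by positivity
  refine max_le (Real.one_le_rpow hX1 (by linarith)) ?_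
  have h1 := sq_ge hr' (Real.rpow_nonneg hdl.le _) hs
  have hr : r = dl⁻¹ * r' := by rw [hrr]; field_simp
  have hx : 0 < dl ^ (-δ) := Real.rpow_pos_of_pos hdl _
  have e1 : dl ^ (-δ) = dl⁻¹ ^ δ := by rw [Real.inv_rpow hdl.le, Real.rpow_neg hdl.le]
  calc r / (s * r') ^ 2 ≤ r / ((dl ^ (-δ)) ^ 2 * r') := by
        refine div_le_div_of_nonneg_left ?_ (by positivity) h1
        rw [hr]; positivity
    _ = dl⁻¹ / (dl⁻¹ ^ δ) ^ 2 := by rw [hr, e1]; field_simp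
    _ = dl⁻¹ ^ (1 - 2 * δ) := by
        rw [← Real.rpow_natCast (dl⁻¹ ^ δ) 2, ← Real.rpow_mul hX0.le, Real.rpow_sub hX0,
          Real.rpow_one]
        congr 2
        push_cast; ring

/-- power of `dl` as a power of `X = dl⁻¹`. -/
theorem dl_neg {dl x : ℝ} (hdl : 0 < dl) : dl ^ (-x) = dl⁻¹ ^ x := by
  rw [Real.inv_rpow hdl.le, Real.rpow_neg hdl.le]

theorem ofReal_mul_mono {x y : ℝ} (h : x ≤ y) (S : ℝ≥0∞) :
    ENNReal.ofReal x * S ≤ ENNReal.ofReal y * S := by gcongr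

/-- `up` only sees the parents between the levels `i` and `j`. -/
theorem up_congr {par par' : ℕ → ℕ → ℕ} {i : ℕ} : ∀ (j k : ℕ), (∀ t, i ≤ t → par t = par' t) →
    up par j i k = up par' j i k := by
  intro j
  induction j with
  | zero => intro k _; rfl
  | succ j ih =>
    intro k h
    by_cases hj : j + 1 ≤ i
    · simp only [up, if_pos hj]
    · simp only [up, if_neg hj]
      rw [h j (by omega)]
      exact ih _ h

/-- losses: `C ν^K R^x ≤ C' R^y`. -/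
theorem loss_le {C Cν ν R e x y : ℝ} {K : ℕ} (hC : 0 ≤ C) (hCν : 1 ≤ Cν) (hν : 1 ≤ ν)
    (hνR : ν ≤ Cν * R ^ e) (hR : 1 ≤ R) (hy : K * e + x ≤ y) :
    C * ν ^ K * R ^ x ≤ (C * Cν ^ K) * R ^ y := by
  have hR0 : 0 < R := by linarith
  have h1 : ν ^ K ≤ Cν ^ K * R ^ (K * e) := by
    calc ν ^ K ≤ (Cν * R ^ e) ^ K := pow_le_pow_left₀ (by linarith) hνR K
      _ = Cν ^ K * R ^ (K * e) := by
          rw [mul_pow, ← Real.rpow_natCast (R ^ e) K, ← Real.rpow_mul hR0.le, mul_comm e]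
  calc C * ν ^ K * R ^ x ≤ C * (Cν ^ K * R ^ (K * e)) * R ^ x := by gcongr
    _ = (C * Cν ^ K) * R ^ (K * e + x) := by rw [Real.rpow_add hR0]; ring
    _ ≤ (C * Cν ^ K) * R ^ y := by
        gcongr

end Crest.Agent.R116.GlC210
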