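import Crest.Agent.R116.ChC1_210

/-!
# R116 (S0155), wave side, CHAIN-C (helper210): the tower of levels satisfies `TowerP`
-/

set_option autoImplicit false

open scoped ENNReal

namespace Crest.Agent.R116.GlC210

open Crest.Agent.R116.AsmP597
open Crest.Agent.R116.CDef480 Crest.Agent.R116.WC188

/-- parents, level `0` replaced by the root. -/
def parC (L : ℕ → Lev) (t k : ℕ) : ℕ := if t = 0 then 0 else (L (t + 1)).par k

/-- number of labels, level `0` = root. -/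
def NC (L : ℕ → Lev) (t : ℕ) : ℕ := if t = 0 then 1 else (L t).n

/-- functionals, level `0` = root. -/
noncomputable def SC (L : ℕ → Lev) (g : E3 → ℂ) (v : ℝ) (t k : ℕ) : ℝ≥0∞ :=
  if t = 0 then ENNReal.ofReal v else (L t).S g k

theorem up_parC (L : ℕ → Lev) {i : ℕ} (hi : 1 ≤ i) (j k : ℕ) :
    up (parC L) j i k = anc L j i k := by
  unfold anc
  refine up_congr j k fun t ht => ?_
  funext k
  simp only [parC]
  rw [if_neg (by omega)]

theorem core {c1 At ap gg : ℝ} {n Lw : ℕ} (H : TowerP c1 At ap gg n Lw) (hn : 1 ≤ n)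
    {c q δ Cw : ℝ} (hc1 : 0 < c1) (hcc : c1 ≤ c) (hq0 : 0 ≤ q) (hqc : q ≤ c) (hδ0 : 0 ≤ δ)
    (hδ2 : δ ≤ 1/2) (hCw : 0 ≤ Cw) (hCδ : Cw * δ ≤ c1 / 4) (hg1 : gg ≤ δ * c1)
    (hg2 : gg ≤ c1 / 4)
    {R dl E τ v : ℝ} (hdl0 : 0 < dl) (hdl1 : dl < 1) (hR : 0 < R) (hE : 1 ≤ E) (hτ : 0 ≤ τ)
    (hv : 0 ≤ v)
    {g : E3 → ℂ} (L : ℕ → Lev) (ac1 ac2 : ℕ → ℕ → ℕ) (pv : ℕ → ℝ) (p : ℕ → ℕ → ℕ → ℕ → ℝ)
    (tn : ℕ → Prop)
    (hrad : ∀ t ≤ n, (L t).r = R * dl ^ t)
    (hsd : ∀ t ≤ n, ∀ k < (L t).n, Sd (L t).r ((L t).s k).1 ((L t).s k).2)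
    (hpar : ∀ t < n, ∀ k < (L (t + 1)).n, (L (t + 1)).par k < (L t).n)
    (hRoot : ∀ k < (L 1).n, (L 1).S g k ≤
      ENNReal.ofReal (E * (max 1 (R / (((L 1).s k).1 * (L 1).r) ^ 2)) ^ (c / 2) * v))
    (hGen : ∀ t, 1 ≤ t → t < n → ∀ k < (L (t + 1)).n, (L (t + 1)).S g k ≤
      ENNReal.ofReal (E * (max 1 ((L t).r / (((L (t + 1)).s k).1 * (L (t + 1)).r) ^ 2)) ^ (c / 2)) *
        (L t).S g ((L (t + 1)).par k) + ENNReal.ofReal τ)
    (hpv : ∀ x, 1 ≤ pv x ∧ pv x ≤ E * dl ^ (-(1/2) : ℝ))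
    (hp : ∀ h i j x, h < i → i < j → 1 ≤ p h i j x ∧ p h i j x ≤ E * dl ^ (-((j : ℝ) - i)))
    (htiny : ∀ t < n, ∀ k < (L (t + 1)).n, tn (ac1 (t + 1) k) →
      (L (t + 1)).S g k ≤ ENNReal.ofReal τ)
    (hstep : ∀ t, t + 2 ≤ n → ∀ k < (L (t + 2)).n,
        ¬ tn (ac1 (t + 2) k) → ¬ tn (ac1 (t + 1) ((L (t + 2)).par k)) →
        Thin dl δ (L (t + 2)).r ((L (t + 2)).s k).1 →
        Wide dl Cw (L (t + 2)).r ((L (t + 2)).s k).2 →
        Thin dl δ (L (t + 1)).r ((L (t + 1)).s ((L (t + 2)).par k)).1 →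
        Wide dl Cw (L (t + 1)).r ((L (t + 1)).s ((L (t + 2)).par k)).2 →
        (L (t + 2)).S g k ≤ ENNReal.ofReal (E * dl ^ (-(Cw * δ)) *
            ((pv (ac1 (t + 1) ((L (t + 2)).par k)) / pv (ac1 (t + 2) k)) ^ (1/2 : ℝ) +
              dl ^ (1/2 : ℝ))) * (L (t + 1)).S g ((L (t + 2)).par k) + ENNReal.ofReal τ)
    (htube : ∀ h i j l : ℕ, 1 ≤ h → h < i → i < j → j < l → l ≤ n → l ≤ h + 4 * Lw →
      ∀ k < (L j).n, ¬ Wide dl Cw (L j).r ((L j).s k).2 →
        (L j).S g k ≤ ENNReal.ofReal (E *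
          dl ^ (-(At + At * (max 0 ((i : ℝ) + l - 2 * j) + max 0 ((h : ℝ) + j - 2 * i))
            + q / 4 * ((l : ℝ) - j))) *
          (p h i j (ac2 i (anc L j i k)) / p i j l (ac2 j k)) ^ (1 / 2 : ℝ)) *
            (L i).S g (anc L j i k) + ENNReal.ofReal τ) :
    ∀ k < (L n).n, (L n).S g k ≤
      ENNReal.ofReal ((4 * E) ^ (6 * n) * dl⁻¹ ^ (c / 2 * n - (ap * Lw + 1)) *
        (v + (2 * E * dl⁻¹ ^ n) ^ (n + 1) * τ)) := by
  have hX1 : 1 < dl⁻¹ := (one_lt_inv₀ hdl0).2 hdl1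
  have hX0 : 0 < dl⁻¹ := by positivity
  have hE0 : 0 < E := by linarith
  have hr : ∀ t ≤ n, 0 < (L t).r := fun t ht => by rw [hrad t ht]; positivity
  have hstepr : ∀ t < n, (L (t + 1)).r = dl * (L t).r := fun t ht => by
    rw [hrad t ht.le, hrad (t + 1) (by omega), pow_succ]; ring
  -- Step 4 in uniform form
  have hG : ∀ t < n, ∀ k < (L (t + 1)).n, SC L g v (t + 1) k ≤
      ENNReal.ofReal (E * (max 1 ((if t = 0 then R else (L t).r) /
        (((L (t + 1)).s k).1 * (L (t + 1)).r) ^ 2)) ^ (c / 2)) *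
        SC L g v t (parC L t k) + ENNReal.ofReal τ := by
    intro t ht k hk
    rcases Nat.eq_zero_or_pos t with h0 | h0
    · subst h0
      simp only [SC, if_neg Nat.one_ne_zero, if_true, zero_add]
      refine (hRoot k hk).trans (le_trans (le_of_eq ?_) le_self_add)
      rw [ENNReal.ofReal_mul (by positivity)]
    · simp only [SC, if_neg h0.ne', if_neg (Nat.succ_ne_zero t), parC]
      exact hGen t h0 ht k hk
  have hrr : ∀ t < n, (L (t + 1)).r = dl * (if t = 0 then R else (L t).r) := by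
    intro t ht
    rcases Nat.eq_zero_or_pos t with h0 | h0
    · subst h0
      rw [if_pos rfl, hrad 1 hn, pow_one, mul_comm]
    · rw [if_neg h0.ne']
      exact hstepr t ht
  have key := H c q (Cw * δ) hcc hq0 hqc (by positivity) hCδ dl⁻¹ E v τ hX1 hE hv hτ
    (NC L) (SC L g v) (parC L) (fun h i j k => p h i j (ac2 i k)) (fun j k => pv (ac1 j k))
    (fun j k => ¬ Wide dl Cw (L j).r ((L j).s k).2)
    (fun j k => ¬ Thin dl δ (L j).r ((L j).s k).1 ∨ tn (ac1 j k))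
    (fun k _ => le_of_eq (by simp [SC]))
    (fun t ht k hk => by
      simp only [NC, if_neg (Nat.succ_ne_zero t)] at hk
      simp only [NC, parC]
      split_ifs with h0
      · exact Nat.zero_lt_one
      · exact hpar t ht k hk)
    (fun t ht k hk => by
      simp only [NC, if_neg (Nat.succ_ne_zero t)] at hk
      refine (hG t ht k hk).trans ?_
      gcongr
      · linarith
      · exact maxfac_le hdl0 hdl1.le (hr (t + 1) (by omega)) (hrr t ht)
          (hsd (t + 1) (by omega) k hk).lo)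
    (fun j hj1 hjn k hk hga => by
      obtain ⟨t, rfl⟩ : ∃ t, j = t + 1 := ⟨j - 1, by omega⟩
      simp only [NC, if_neg (Nat.succ_ne_zero t)] at hk
      refine ⟨t, by omega, ?_⟩
      have e1 : up (parC L) (t + 1) t k = parC L t k := by
        rw [up_succ _ le_rfl, up_self]
      rw [e1]
      rcases hga with hth | hti
      · refine (hG t (by omega) k hk).trans ?_
        gcongr
        have h1 := max_thick (δ := δ) hdl0 hdl1.le hδ2 (hr (t + 1) hjn) (hrr t (by omega))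
          (not_le.1 hth).le
        calc (max 1 ((if t = 0 then R else (L t).r) /
              (((L (t + 1)).s k).1 * (L (t + 1)).r) ^ 2)) ^ (c / 2)
            ≤ (dl⁻¹ ^ (1 - 2 * δ)) ^ (c / 2) := by
              refine Real.rpow_le_rpow (by positivity) h1 (by linarith)
          _ = dl⁻¹ ^ ((1 - 2 * δ) * (c / 2)) := (Real.rpow_mul hX0.le _ _).symm
          _ ≤ dl⁻¹ ^ ((c / 2 - gg) * (((t + 1 : ℕ) : ℝ) - t)) := by
              refine Real.rpow_le_rpow_of_exponent_le hX1.le ?_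
              push_cast
              nlinarith [mul_le_mul_of_nonneg_left hcc hδ0]
      · refine le_trans ?_ le_add_self
        simp only [SC, if_neg (Nat.succ_ne_zero t)]
        exact htiny t (by omega) k hk hti)
    (fun h i j _ hhi hij _ _ k _ => by
      have := hp h i j (ac2 i k) hhi hij
      rwa [dl_neg hdl0] at this)
    (fun h i j l h1 hhi hij hjl hln hlL k hk hna => by
      simp only [NC, if_neg (show j ≠ 0 by omega)] at hk
      have := htube h i j l h1 hhi hij hjl hln hlL k hk hna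
      rw [dl_neg hdl0] at this
      simp only [SC, if_neg (show j ≠ 0 by omega), if_neg (show i ≠ 0 by omega)]
      rw [up_parC L (by omega)]
      exact this)
    (fun j _ _ k _ => by
      have := hpv (ac1 j k)
      rwa [dl_neg hdl0] at this)
    (fun j hj1 hjn k hk hn1 hg1' hn2 hg2' => by
      obtain ⟨t, rfl⟩ : ∃ t, j = t + 1 := ⟨j - 1, by omega⟩
      simp only [NC, if_neg (Nat.succ_ne_zero (t + 1))] at hk
      simp only [SC, parC, if_neg (Nat.succ_ne_zero (t + 1)), if_neg (Nat.succ_ne_zero t)] at *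
      rw [not_not] at hn1 hn2
      rw [not_or, not_not] at hg1' hg2'
      refine (hstep t (by omega) k hk hg2'.2 hg1'.2 hg2'.1 hn2 hg1'.1 hn1).trans ?_
      have e2 : dl ^ (1/2 : ℝ) = dl⁻¹ ^ (-(1/2) : ℝ) := by
        rw [Real.inv_rpow hdl0.le, Real.rpow_neg hdl0.le, inv_inv]
      have e3 : E * dl⁻¹ ^ (Cw * δ) * dl ^ (1/2 : ℝ) ≤ E * dl⁻¹ ^ (c / 2 - gg) := by
        rw [e2, mul_assoc, ← Real.rpow_add hX0]
        refine mul_le_mul_of_nonneg_left ?_ hE0.le
        exact Real.rpow_le_rpow_of_exponent_le hX1.le (by linarith)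
      refine add_le_add (ofReal_mul_mono ?_ _) le_rfl
      rw [mul_add, dl_neg hdl0]
      exact add_le_add le_rfl e3)
  intro k hk
  have := key k (by simp only [NC, if_neg (show n ≠ 0 by omega)]; exact hk)
  simpa only [SC, if_neg (show n ≠ 0 by omega)] using this

end Crest.Agent.R116.GlC210
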