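import Crest.Agent.R116.Ba2_449
import Crest.Agent.R116.Bas1_367

/-!
# R116 (S0155), wave side, CHAIN-C (helper210): trivial bound of `SIG` (bounded `R`, any `κ`)
-/

set_option autoImplicit false

open MeasureTheory
open scoped ENNReal

namespace Crest.Agent.R116.GlC210

open Crest.Agent.R138.Defs (E2 ee)
open Crest.Agent.R138.Wpk685 (cen caps)
open Crest.Agent.R116.CDef480 Crest.Agent.R116.WC188
open Crest.Agent.R116

/-- **trivial bound of `SIG`** (no condition on `κ`, polynomial in `R`). -/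
theorem SIG_triv {M κ q a b M0 A : ℝ} (ha : 1 ≤ a) (hb : b ≤ 2) (hq : 0 ≤ q)
    {C0 : E2} {σ : ℝ} {g : E3 → ℂ} {R D : ℝ} (hSt : St M κ q a b M0 C0 σ g R D)
    {r s1 s2 : ℝ} (hr : 1 ≤ r) (hrR : r ≤ R) (hs : Sd r s1 s2) :
    ENNReal.ofReal (s2 ^ (-q / 2)) * SIG M κ A r s1 s2 g R ≤
      ENNReal.ofReal (256 * R ^ (5 + M0 / 2 + q / 4) * SS g R D) := by
  classical
  have hR : 1 ≤ R := hSt.R1
  have hR0 : 0 < R := by linarith
  have hr0 : 0 < r := by linarith
  have hg : Ba449.Gd (3 * a) g := Ba449.St.gd ha hb hSt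
  have hE : 0 ≤ Enc g := Ba449.Enc_nonneg g
  have hD := hSt.D0
  have hs10 : 0 < s1 := (Real.rpow_pos_of_pos hr0 _).trans_le hs.lo
  have hs20 : 0 < s2 := hs10.trans_le hs.le
  -- cost at least one
  have hcost : 1 ≤ r * scost κ s1 s2 r := by
    have e1 : r ^ (-(1/2) : ℝ) * r ^ (-(1/2) : ℝ) = r⁻¹ := by
      rw [← Real.rpow_add hr0, ← Real.rpow_neg_one]; norm_num
    have hrn : 0 < r ^ (-(1/2) : ℝ) := Real.rpow_pos_of_pos hr0 _
    have h1 : r⁻¹ ≤ s1 * s2 := by
      rw [← e1]; exact mul_le_mul hs.lo (hs.lo.trans hs.le) hrn.le hs10.le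
    have h2 : r⁻¹ ≤ TT κ s2 r := by
      refine le_trans ?_ (le_max_left _ _)
      rw [← e1, sq]
      exact mul_le_mul (hs.lo.trans hs.le) (hs.lo.trans hs.le) hrn.le hs20.le
    have h3 : 0 < r⁻¹ := by positivity
    unfold scost
    calc (1:ℝ) ≤ r ^ 2 := one_le_pow₀ hr
      _ = r * (r⁻¹ * r⁻¹ * r ^ 3) := by field_simp
      _ ≤ r * (s1 * s2 * TT κ s2 r * r ^ 3) := by gcongr
  have hw : ENNReal.ofReal ((r * scost κ s1 s2 r) ^ (-(1/2) : ℝ)) ≤ 1 := by
    rw [← ENNReal.ofReal_one]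
    exact ENNReal.ofReal_le_ofReal (Real.rpow_le_one_of_one_le_of_nonpos hcost (by norm_num))
  -- value of one system
  have key : SIG M κ A r s1 s2 g R ≤ ENNReal.ofReal (256 * R ^ 4 * (R * Enc g) *
      (R * Enc g) ^ (1 / 2 : ℝ)) := by
    unfold SIG
    refine iSup_le fun I => iSup_le fun P => iSup_le fun hP => ?_
    set Z : Finset (E3 × ℝ) := I.image (fun i => (P i).z) with hZ
    have hnet : Net r R Z := by
      constructor
      · intro z hz
        obtain ⟨i, hi, rfl⟩ := Finset.mem_image.1 hz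
        exact hP.mem i hi
      · intro z hz z' hz'
        obtain ⟨i, hi, rfl⟩ := Finset.mem_image.1 hz
        obtain ⟨j, hj, rfl⟩ := Finset.mem_image.1 hz'
        exact hP.sep i hi j hj
    have hcard : (Z.card : ℝ≥0∞) ≤ ENNReal.ofReal (256 * R ^ 4) := by
      refine (Ba449.card_net hr0 hrR hnet).trans (ENNReal.ofReal_le_ofReal ?_)
      gcongr
      exact div_le_self hR0.le hr
    have hone : ∀ i : ℕ, enc (r ^ (-(1/2) : ℝ)) (trc (P i).z g) (P i).S ≤
        ENNReal.ofReal (Enc g) := fun i => by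
      have := Ba449.enc_le (hg.trc (P i).z) (Real.rpow_pos_of_pos hr0 (-(1/2))) (P i).S
      rwa [Ba449.Enc_trc] at this
    calc val κ g r s1 s2 I P
        ≤ ∑ i ∈ I, 1 * (ENNReal.ofReal r * enc (r ^ (-(1/2) : ℝ)) (trc (P i).z g) (P i).S) ^
            (3 / 2 : ℝ) := by
          unfold val
          exact Finset.sum_le_sum fun i _ => mul_le_mul' hw le_rfl
      _ ≤ ∑ i ∈ I, (ENNReal.ofReal R * enc (r ^ (-(1/2) : ℝ)) (trc (P i).z g) (P i).S) *
            (ENNReal.ofReal (R * Enc g)) ^ (1 / 2 : ℝ) := by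
          refine Finset.sum_le_sum fun i _ => ?_
          rw [one_mul, show (3 / 2 : ℝ) = 1 + 1 / 2 by norm_num,
            ENNReal.rpow_add_of_nonneg _ _ (by norm_num) (by norm_num), ENNReal.rpow_one]
          have h1 : ENNReal.ofReal r * enc (r ^ (-(1/2) : ℝ)) (trc (P i).z g) (P i).S ≤
              ENNReal.ofReal R * enc (r ^ (-(1/2) : ℝ)) (trc (P i).z g) (P i).S :=
            mul_le_mul' (ENNReal.ofReal_le_ofReal hrR) le_rfl
          refine mul_le_mul' h1 (ENNReal.rpow_le_rpow (h1.trans ?_) (by norm_num))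
          rw [ENNReal.ofReal_mul hR0.le]
          exact mul_le_mul' le_rfl (hone i)
      _ = (ENNReal.ofReal R * ∑ i ∈ I, enc (r ^ (-(1/2) : ℝ)) (trc (P i).z g) (P i).S) *
            (ENNReal.ofReal (R * Enc g)) ^ (1 / 2 : ℝ) := by
          rw [← Finset.sum_mul, Finset.mul_sum]
      _ ≤ (ENNReal.ofReal R * ((Z.card : ℝ≥0∞) * ENNReal.ofReal (Enc g))) *
            (ENNReal.ofReal (R * Enc g)) ^ (1 / 2 : ℝ) := by
          gcongr
          rw [← Finset.sum_fiberwise_of_maps_to (s := I) (t := Z) (g := fun i => (P i).z)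
            (fun i hi => Finset.mem_image_of_mem _ hi), ← nsmul_eq_mul, ← Finset.sum_const]
          refine Finset.sum_le_sum fun z _ => ?_
          have h2 : ∑ i ∈ I with (P i).z = z, enc (r ^ (-(1/2) : ℝ)) (trc (P i).z g) (P i).S =
              ∑ i ∈ I with (P i).z = z, enc (r ^ (-(1/2) : ℝ)) (trc z g) (P i).S :=
            Finset.sum_congr rfl fun i hi => by rw [(Finset.mem_filter.1 hi).2]
          rw [h2]
          have h3 := Bas367.enc_union (ρ := r ^ (-(1/2) : ℝ)) (g := trc z g)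
            (I.filter fun i => (P i).z = z) (fun i => (P i).S) (fun _ => Set.univ)
            (fun i hi m => hP.meas i (Finset.mem_filter.1 hi).1 m)
            (fun i hi j hj hij m => hP.disj i (Finset.mem_filter.1 hi).1 j
              (Finset.mem_filter.1 hj).1 hij
              ((Finset.mem_filter.1 hi).2.trans (Finset.mem_filter.1 hj).2.symm) m)
            (fun i _ m => Set.subset_univ _)
          refine h3.trans ?_
          have := Ba449.enc_le (hg.trc z) (Real.rpow_pos_of_pos hr0 (-(1/2))) (fun _ => Set.univ)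
          rwa [Ba449.Enc_trc] at this
      _ ≤ (ENNReal.ofReal R * (ENNReal.ofReal (256 * R ^ 4) * ENNReal.ofReal (Enc g))) *
            (ENNReal.ofReal (R * Enc g)) ^ (1 / 2 : ℝ) := by gcongr
      _ = _ := by
          rw [ENNReal.ofReal_rpow_of_nonneg (by positivity) (by norm_num),
            ← ENNReal.ofReal_mul (by positivity), ← ENNReal.ofReal_mul (by positivity),
            ← ENNReal.ofReal_mul (by positivity)]
          congr 1
          ring
  -- the energy
  have e2 : (R * Enc g) ^ (1 / 2 : ℝ) ≤ R ^ (1 / 2 + M0 / 2 : ℝ) * Real.sqrt D := by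
    calc (R * Enc g) ^ (1 / 2 : ℝ) ≤ (R * (R ^ M0 * D)) ^ (1 / 2 : ℝ) :=
          Real.rpow_le_rpow (by positivity) (by gcongr; exact hSt.nd) (by norm_num)
      _ = _ := by
          rw [Real.mul_rpow hR0.le (by positivity), Real.mul_rpow (by positivity) hD,
            ← Real.rpow_mul hR0.le, Real.sqrt_eq_rpow, Real.rpow_add hR0, mul_assoc]
          congr 3
          ring
  have e3 : s2 ^ (-q / 2) ≤ R ^ (q / 4) := by
    have h1 : s2 ^ (-q / 2) ≤ (r ^ (-(1/2) : ℝ)) ^ (-q / 2) :=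
      Real.rpow_le_rpow_of_nonpos (Real.rpow_pos_of_pos hr0 _) (hs.lo.trans hs.le) (by linarith)
    calc s2 ^ (-q / 2) ≤ (r ^ (-(1/2) : ℝ)) ^ (-q / 2) := h1
      _ = r ^ (q / 4) := by
          rw [← Real.rpow_mul hr0.le]; congr 1; ring
      _ ≤ R ^ (q / 4) := Real.rpow_le_rpow hr0.le hrR (by linarith)
  calc ENNReal.ofReal (s2 ^ (-q / 2)) * SIG M κ A r s1 s2 g R
      ≤ ENNReal.ofReal (R ^ (q / 4)) * ENNReal.ofReal (256 * R ^ 4 * (R * Enc g) *
          (R * Enc g) ^ (1 / 2 : ℝ)) :=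
        mul_le_mul' (ENNReal.ofReal_le_ofReal e3) key
    _ = ENNReal.ofReal (R ^ (q / 4) * (256 * R ^ 4 * (R * Enc g) *
          (R * Enc g) ^ (1 / 2 : ℝ))) := (ENNReal.ofReal_mul (by positivity)).symm
    _ ≤ _ := by
        refine ENNReal.ofReal_le_ofReal ?_
        unfold SS
        calc R ^ (q / 4) * (256 * R ^ 4 * (R * Enc g) * (R * Enc g) ^ (1 / 2 : ℝ))
            ≤ R ^ (q / 4) * (256 * R ^ 4 * (R * Enc g) *
                (R ^ (1 / 2 + M0 / 2 : ℝ) * Real.sqrt D)) := by gcongr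
          _ = 256 * (R ^ (q / 4) * R ^ 4 * R ^ (1 / 2 + M0 / 2 : ℝ)) *
                (R * Enc g * Real.sqrt D) := by ring
          _ ≤ 256 * R ^ (5 + M0 / 2 + q / 4) * (R * Enc g * Real.sqrt D) := by
              have h4 : R ^ 4 = R ^ (4 : ℝ) := by norm_cast
              rw [h4, ← Real.rpow_add hR0, ← Real.rpow_add hR0]
              gcongr 256 * ?_ * _
              exact Real.rpow_le_rpow_of_exponent_le hR (by linarith)

end Crest.Agent.R116.GlC210
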