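import Crest.Agent.R116.ChC2_210
import Crest.Agent.R116.ChT_210

/-!
# R116 (S0155), wave side, CHAIN-C (helper210): pairing of class functionals, numbers
-/

set_option autoImplicit false

open MeasureTheory
open scoped ENNReal

namespace Crest.Agent.R116.GlC210

open Crest.Agent.R116.AsmP597
open Crest.Agent.R116.CDef480 Crest.Agent.R116.WC188

/-- **pairing of two class functionals.** -/
theorem pair_aux {𝒜1 𝒜2 : AuxF} {na1 na2 : ℝ → ℕ} {M q a b M0 : ℝ}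
    (h1 : AuxOk 𝒜1 na1 M q a b M0) (h2 : AuxOk 𝒜2 na2 M q a b M0) :
    ∃ (𝒜 : AuxF) (na : ℝ → ℕ), AuxOk 𝒜 na M q a b M0 ∧ ∀ κ η0 g R dl n L ac,
      Acl 𝒜 κ η0 g R dl n L ac → (∃ ac1, Acl 𝒜1 κ η0 g R dl n L ac1) ∧
        ∃ ac2, Acl 𝒜2 κ η0 g R dl n L ac2 := by
  refine ⟨fun κ η0 g R dl L j z f m y => na2 R * 𝒜1 κ η0 g R dl L j z f m y +
    𝒜2 κ η0 g R dl L j z f m y, fun R => na2 R * na1 R, ⟨?_, ?_, ?_, ?_⟩, ?_⟩
  · intro R
    exact Nat.one_le_iff_ne_zero.2 (Nat.mul_ne_zero (by have := h2.1 R; omega)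
      (by have := h1.1 R; omega))
  · intro η hη
    obtain ⟨C1, hC1⟩ := h1.2.1 (η / 2) (by linarith)
    obtain ⟨C2, hC2⟩ := h2.2.1 (η / 2) (by linarith)
    refine ⟨C2 * C1, fun R hR => ?_⟩
    have hR0 : 0 < R := by linarith
    push_cast
    calc (na2 R : ℝ) * na1 R ≤ (C2 * R ^ (η / 2)) * (C1 * R ^ (η / 2)) :=
          mul_le_mul (hC2 R hR) (hC1 R hR) (Nat.cast_nonneg _)
            ((Nat.cast_nonneg _).trans (hC2 R hR))
      _ = C2 * C1 * (R ^ (η / 2) * R ^ (η / 2)) := by ring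
      _ = C2 * C1 * R ^ η := by
          rw [← Real.rpow_add hR0]; congr 2; ring
  · intro κ η0 g R dl L j z f m y
    have a1 := h1.2.2.1 κ η0 g R dl L j z f m y
    have a2 := h2.2.2.1 κ η0 g R dl L j z f m y
    calc na2 R * 𝒜1 κ η0 g R dl L j z f m y + 𝒜2 κ η0 g R dl L j z f m y
        < na2 R * 𝒜1 κ η0 g R dl L j z f m y + na2 R := by omega
      _ = na2 R * (𝒜1 κ η0 g R dl L j z f m y + 1) := by ring
      _ ≤ na2 R * na1 R := Nat.mul_le_mul le_rfl (by omega)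
  · intro κ η0 C0 σ g R D hSs hKp A A' Cn dl ν K t L hdl0 hdl1 hTow hR z f m
    exact ((h1.2.2.2 κ η0 C0 σ g R D hSs hKp A A' Cn dl ν K t L hdl0 hdl1 hTow hR z f m).const_mul
      _).add (h2.2.2.2 κ η0 C0 σ g R D hSs hKp A A' Cn dl ν K t L hdl0 hdl1 hTow hR z f m)
  · intro κ η0 g R dl n L ac h
    have hp : 0 < na2 R := h2.1 R
    refine ⟨⟨fun t k => ac t k / na2 R, ?_⟩, ⟨fun t k => ac t k % na2 R, ?_⟩⟩
    · intro t ht z hz k hk i hi m y hy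
      have e := h t ht z hz k hk i hi m y hy
      have a2 := h2.2.2.1 κ η0 g R dl (trn L (t + 1)) (t + 1) z ((L (t + 1)).P z k i).f m y
      simp only at e ⊢
      rw [← e, Nat.mul_add_div hp, Nat.div_eq_of_lt a2, add_zero]
    · intro t ht z hz k hk i hi m y hy
      have e := h t ht z hz k hk i hi m y hy
      have a2 := h2.2.2.1 κ η0 g R dl (trn L (t + 1)) (t + 1) z ((L (t + 1)).P z k i).f m y
      simp only at e ⊢
      rw [← e, Nat.mul_add_mod, Nat.mod_eq_of_lt a2]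

/-- the numbers of one application. -/
theorem dnum {n Lw : ℕ} {d R ε ε1 Cw Aw θ : ℝ} (hd0 : 0 < d) (hd3 : d ≤ (1/4) ^ (n + 1))
    (hCw : 0 ≤ Cw) (hθ : θ = 4 * Lw / ((n : ℝ) + 1)) (hAw2 : 2 ≤ Aw) (hAw1 : Cw + n ≤ Aw)
    (hAw3 : 16 * θ ≤ Aw) (hAR : d ^ (-Aw) ≤ R) (hεd : R ^ ε ≤ d⁻¹)
    (hε1 : ((n : ℝ) + 1) * ε1 ≤ ε) :
    1 ≤ R ∧ d ≤ 1 ∧ ∃ dl : ℝ, 0 < dl ∧ dl ≤ 1/4 ∧ dl ^ (n + 1) = d ∧
      d ^ θ = dl ^ (4 * (Lw : ℝ)) ∧ dl ≤ R ^ (-ε1) ∧ R ^ (1/2 : ℝ) ≤ R * d ∧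
      dl ^ (-Cw) ≤ R * dl ^ n ∧ R ^ (-(1/16) : ℝ) ≤ d ^ θ ∧ dl⁻¹ ^ (n + 1) ≤ R ∧
      (∀ x : ℝ, dl⁻¹ ^ x = d ^ (-(x / ((n : ℝ) + 1)))) := by
  have hN : (0:ℝ) < (n : ℝ) + 1 := by positivity
  have hd1 : d ≤ 1 := hd3.trans (pow_le_one₀ (by norm_num) (by norm_num))
  have hmono : ∀ x : ℝ, x ≤ Aw → d ^ (-x) ≤ R := fun x hx =>
    (Real.rpow_le_rpow_of_exponent_ge hd0 hd1 (by linarith)).trans hAR
  have hR1 : 1 ≤ R := by
    have := hmono 0 (by linarith)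
    rwa [neg_zero, Real.rpow_zero] at this
  have hR0 : 0 < R := by linarith
  refine ⟨hR1, hd1, d ^ (((n : ℝ) + 1)⁻¹), Real.rpow_pos_of_pos hd0 _, ?_, ?_, ?_, ?_, ?_, ?_, ?_,
    ?_, ?_⟩
  · calc d ^ (((n : ℝ) + 1)⁻¹) ≤ ((1/4 : ℝ) ^ (n + 1)) ^ (((n : ℝ) + 1)⁻¹) :=
          Real.rpow_le_rpow hd0.le hd3 (by positivity)
      _ = 1/4 := by
          rw [← Real.rpow_natCast (1/4 : ℝ) (n + 1), ← Real.rpow_mul (by norm_num)]
          push_cast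
          rw [mul_inv_cancel₀ hN.ne', Real.rpow_one]
  · rw [← Real.rpow_natCast, ← Real.rpow_mul hd0.le]
    push_cast
    rw [inv_mul_cancel₀ hN.ne', Real.rpow_one]
  · rw [← Real.rpow_mul hd0.le, hθ]
    congr 1
    field_simp
  · have h1 : d ≤ R ^ (-ε) := by
      rw [Real.rpow_neg hR0.le]
      exact (le_inv_comm₀ (by positivity) hd0).1 hεd
    calc d ^ (((n : ℝ) + 1)⁻¹) ≤ (R ^ (-ε)) ^ (((n : ℝ) + 1)⁻¹) :=
          Real.rpow_le_rpow hd0.le h1 (by positivity)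
      _ = R ^ (-(ε / ((n : ℝ) + 1))) := by
          rw [← Real.rpow_mul hR0.le]; congr 1; ring
      _ ≤ R ^ (-ε1) := by
          refine Real.rpow_le_rpow_of_exponent_le hR1 (neg_le_neg ?_)
          rw [le_div_iff₀ hN]
          linarith
  · have h2 := hmono 2 hAw2
    rw [Real.rpow_neg hd0.le, Real.rpow_two] at h2
    have h3 : 1 ≤ R * d ^ 2 := by
      have := (inv_le_iff_one_le_mul₀ (by positivity : (0:ℝ) < d ^ 2)).1 h2
      linarith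
    have h4 : R ≤ (R * d) ^ 2 := by nlinarith
    calc R ^ (1/2 : ℝ) ≤ ((R * d) ^ 2) ^ (1/2 : ℝ) := Real.rpow_le_rpow hR0.le h4 (by norm_num)
      _ = R * d := by
          rw [← Real.sqrt_eq_rpow, Real.sqrt_sq (by positivity)]
  · have h1 : d ^ (-((Cw + n) / ((n : ℝ) + 1))) ≤ R := by
      refine hmono _ (le_trans ?_ hAw1)
      exact div_le_self (by positivity) (by
        have : (0:ℝ) ≤ n := Nat.cast_nonneg n
        linarith)
    rw [← Real.rpow_natCast, ← Real.rpow_mul hd0.le, ← Real.rpow_mul hd0.le]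
    calc d ^ (((n : ℝ) + 1)⁻¹ * -Cw)
        = d ^ (-((Cw + n) / ((n : ℝ) + 1))) * d ^ (((n : ℝ) + 1)⁻¹ * (n : ℝ)) := by
          rw [← Real.rpow_add hd0]; congr 1; field_simp; ring
      _ ≤ R * d ^ (((n : ℝ) + 1)⁻¹ * (n : ℝ)) := by gcongr
  · have h1 := hmono (16 * θ) hAw3
    have h2 : (d ^ θ)⁻¹ ≤ R ^ (1/16 : ℝ) := by
      calc (d ^ θ)⁻¹ = (d ^ (-(16 * θ))) ^ (1/16 : ℝ) := by
            rw [← Real.rpow_mul hd0.le, ← Real.rpow_neg hd0.le]; congr 1; ring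
        _ ≤ R ^ (1/16 : ℝ) := Real.rpow_le_rpow (by positivity) h1 (by norm_num)
    rw [Real.rpow_neg hR0.le]
    exact inv_le_of_inv_le₀ (Real.rpow_pos_of_pos hd0 _) h2
  · have h1 := hmono 1 (by linarith)
    have h2 : (d ^ (((n : ℝ) + 1)⁻¹)) ^ (n + 1) = d := by
      rw [← Real.rpow_natCast, ← Real.rpow_mul hd0.le]
      push_cast
      rw [inv_mul_cancel₀ hN.ne', Real.rpow_one]
    rwa [inv_pow, h2, ← Real.rpow_neg_one]
  · intro x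
    rw [← Real.rpow_neg_one, ← Real.rpow_mul hd0.le, ← Real.rpow_mul hd0.le]
    congr 1
    field_simp

end Crest.Agent.R116.GlC210
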