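import Crest.Agent.R116.ChC3_210

/-!
# R116 (S0155), wave side, CHAIN-C (helper210): the wiring
`ROOT, GEN, FIN, SLAB, TUBE, TOWX ⟹ WChE`.
-/

set_option autoImplicit false

open MeasureTheory
open scoped ENNReal

namespace Crest.Agent.R116.GlC210

open Crest.Agent.R138.Defs (E2 ee)
open Crest.Agent.R116.AsmP597
open Crest.Agent.R116.CDef480 Crest.Agent.R116.WC188

/-- the total of the last level. -/
theorem tot_le {L : Lev} {g : E3 → ℂ} {B ν : ℝ} (hB : 0 ≤ B) (hν : (L.n : ℝ) ≤ ν)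
    (h : ∀ k < L.n, L.S g k ≤ ENNReal.ofReal B) :
    ∑ k ∈ Finset.range L.n, L.S g k ≤ ENNReal.ofReal (ν * B) := by
  have h1 : (0:ℝ) ≤ ν := (Nat.cast_nonneg _).trans hν
  calc ∑ k ∈ Finset.range L.n, L.S g k ≤ ∑ _k ∈ Finset.range L.n, ENNReal.ofReal B :=
        Finset.sum_le_sum fun k hk => h k (Finset.mem_range.1 hk)
    _ = (L.n : ℝ≥0∞) * ENNReal.ofReal B := by
        rw [Finset.sum_const, Finset.card_range, nsmul_eq_mul]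
    _ = ENNReal.ofReal (L.n * B) := by
        rw [ENNReal.ofReal_mul (Nat.cast_nonneg _), ENNReal.ofReal_natCast]
    _ ≤ ENNReal.ofReal (ν * B) := ENNReal.ofReal_le_ofReal (mul_le_mul_of_nonneg_right hν hB)

/-- final arithmetic. -/
theorem fin_arith {n : ℕ} {CE R ε3 X v Y : ℝ} (hCE : 1 ≤ CE) (hR : 1 ≤ R)
    (hn : ((n : ℝ) + 1) * ε3 ≤ 1) (hX : 0 ≤ X) (hXR : X ^ (n + 1) ≤ R) (hv : 0 ≤ v)
    (hY : 0 ≤ Y) :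
    (4 * (CE * R ^ ε3)) ^ (6 * n) * Y *
        (v + (2 * (CE * R ^ ε3) * X ^ n) ^ (n + 1) * (CE * R ^ (1 - ((n : ℝ) + 2)) * v)) ≤
      (4 * CE) ^ (6 * n) * (1 + (2 * CE) ^ (n + 1) * CE) * R ^ ((6 * n : ℝ) * ε3) * Y * v := by
  have hR0 : 0 < R := by linarith
  have e1 : (4 * (CE * R ^ ε3)) ^ (6 * n) = (4 * CE) ^ (6 * n) * R ^ ((6 * n : ℝ) * ε3) := by
    rw [← mul_assoc, mul_pow, ← Real.rpow_natCast (R ^ ε3) (6 * n), ← Real.rpow_mul hR0.le]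
    congr 2
    push_cast; ring
  have e2 : (2 * (CE * R ^ ε3) * X ^ n) ^ (n + 1) ≤ (2 * CE) ^ (n + 1) * R ^ ((n : ℝ) + 1) := by
    have h1 : (X ^ n) ^ (n + 1) ≤ R ^ (n : ℝ) := by
      calc (X ^ n) ^ (n + 1) = (X ^ (n + 1)) ^ n := by rw [← pow_mul, ← pow_mul, mul_comm]
        _ ≤ R ^ n := pow_le_pow_left₀ (by positivity) hXR n
        _ = R ^ (n : ℝ) := (Real.rpow_natCast R n).symm
    have h2 : (R ^ ε3) ^ (n + 1) ≤ R ^ (1 : ℝ) := by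
      rw [← Real.rpow_natCast (R ^ ε3) (n + 1), ← Real.rpow_mul hR0.le]
      refine Real.rpow_le_rpow_of_exponent_le hR ?_
      push_cast
      linarith
    calc (2 * (CE * R ^ ε3) * X ^ n) ^ (n + 1)
        = (2 * CE) ^ (n + 1) * ((X ^ n) ^ (n + 1) * (R ^ ε3) ^ (n + 1)) := by
          rw [← mul_pow, ← mul_pow]; ring
      _ ≤ (2 * CE) ^ (n + 1) * (R ^ (n : ℝ) * R ^ (1 : ℝ)) := by gcongr
      _ = _ := by rw [← Real.rpow_add hR0]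
  have e3 : (2 * (CE * R ^ ε3) * X ^ n) ^ (n + 1) * (CE * R ^ (1 - ((n : ℝ) + 2)) * v) ≤
      (2 * CE) ^ (n + 1) * CE * v := by
    calc (2 * (CE * R ^ ε3) * X ^ n) ^ (n + 1) * (CE * R ^ (1 - ((n : ℝ) + 2)) * v)
        ≤ ((2 * CE) ^ (n + 1) * R ^ ((n : ℝ) + 1)) * (CE * R ^ (1 - ((n : ℝ) + 2)) * v) := by
          gcongr
      _ = (2 * CE) ^ (n + 1) * CE * (R ^ ((n : ℝ) + 1) * R ^ (1 - ((n : ℝ) + 2))) * v := by ring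
      _ = _ := by
          rw [← Real.rpow_add hR0]
          have : (n : ℝ) + 1 + (1 - ((n : ℝ) + 2)) = 0 := by ring
          rw [this, Real.rpow_zero, mul_one]
  rw [e1]
  calc (4 * CE) ^ (6 * n) * R ^ ((6 * n : ℝ) * ε3) * Y *
        (v + (2 * (CE * R ^ ε3) * X ^ n) ^ (n + 1) * (CE * R ^ (1 - ((n : ℝ) + 2)) * v))
      ≤ (4 * CE) ^ (6 * n) * R ^ ((6 * n : ℝ) * ε3) * Y * (v + (2 * CE) ^ (n + 1) * CE * v) := by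
        gcongr
    _ = _ := by ring

/-- exponents. -/
theorem exps (n kR kG kF : ℕ) {ε : ℝ} (hε : 0 < ε) : ∃ ε3 ε1 : ℝ, 0 < ε3 ∧ 0 < ε1 ∧
    ((n : ℝ) + 1) * ε3 ≤ 1 ∧ ε3 + ε3 + (6 * n : ℝ) * ε3 ≤ ε ∧ ε3 ≤ ε ∧ ε3 ≤ 1 ∧ 2 * ε1 ≤ ε3 ∧
    2 * ((kR : ℝ) * ε1) ≤ ε3 ∧ 2 * ((kG : ℝ) * ε1) ≤ ε3 ∧ 2 * ((kF : ℝ) * ε1) ≤ ε3 ∧
    ((n : ℝ) + 1) * ε1 ≤ ε ∧ ε1 ≤ 1/2 := by
  have hn0 : (0:ℝ) ≤ n := Nat.cast_nonneg n
  obtain ⟨ε3, hε3, h31, h32⟩ : ∃ ε3 : ℝ, 0 < ε3 ∧ (6 * (n : ℝ) + 4) * ε3 ≤ 1 ∧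
      (6 * (n : ℝ) + 4) * ε3 ≤ ε := by
    refine ⟨min ε 1 / (6 * n + 4), by positivity, ?_, ?_⟩
    · rw [mul_div_cancel₀ _ (by positivity)]; exact min_le_right _ _
    · rw [mul_div_cancel₀ _ (by positivity)]; exact min_le_left _ _
  obtain ⟨ε1, hε1, h11, h12⟩ : ∃ ε1 : ℝ, 0 < ε1 ∧ 2 * ε1 ≤ ε3 ∧
      2 * (((kR : ℝ) + kG + kF) * ε1) ≤ ε3 := by
    refine ⟨ε3 / (2 * ((kR : ℝ) + kG + kF + 1)), by positivity, ?_, ?_⟩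
    · have hk : (1:ℝ) ≤ (kR : ℝ) + kG + kF + 1 := by
        have : (0:ℝ) ≤ (kR : ℝ) + kG + kF := by positivity
        linarith
      calc 2 * (ε3 / (2 * ((kR : ℝ) + kG + kF + 1))) = ε3 / ((kR : ℝ) + kG + kF + 1) := by
            field_simp
        _ ≤ ε3 := div_le_self hε3.le hk
    · calc 2 * (((kR : ℝ) + kG + kF) * (ε3 / (2 * ((kR : ℝ) + kG + kF + 1))))
          = ε3 * (((kR : ℝ) + kG + kF) / ((kR : ℝ) + kG + kF + 1)) := by field_simp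
        _ ≤ ε3 * 1 := by
            gcongr
            rw [div_le_one (by positivity)]
            linarith
        _ = ε3 := mul_one _
  have p1 : 0 ≤ (n : ℝ) * ε3 := by positivity
  have p2 : 0 ≤ (n : ℝ) * ε1 := by positivity
  have p3 : (n : ℝ) * (2 * ε1) ≤ n * ε3 := by gcongr
  have q1 : 0 ≤ (kR : ℝ) * ε1 := by positivity
  have q2 : 0 ≤ (kG : ℝ) * ε1 := by positivity
  have q3 : 0 ≤ (kF : ℝ) * ε1 := by positivity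
  exact ⟨ε3, ε1, hε3, hε1, by linarith, by linarith, by linarith, by linarith, h11, by linarith,
    by linarith, by linarith, by linarith, by linarith⟩

theorem exps2 (k0 : ℕ) {ε3 : ℝ} (hε3 : 0 < ε3) (h3 : ε3 ≤ 1) : ∃ ε2 : ℝ, 0 < ε2 ∧ ε2 ≤ 1/2 ∧
    ∀ k : ℕ, k ≤ k0 + 1 → 2 * ((k : ℝ) * ε2) ≤ ε3 := by
  have hk0 : (0:ℝ) ≤ k0 := Nat.cast_nonneg _
  refine ⟨ε3 / (2 * ((k0 : ℝ) + 1)), by positivity, ?_, fun k hk => ?_⟩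
  · rw [div_le_iff₀ (by positivity)]
    linarith
  · have hk' : (k : ℝ) ≤ (k0 : ℝ) + 1 := by exact_mod_cast hk
    calc 2 * ((k : ℝ) * (ε3 / (2 * ((k0 : ℝ) + 1))))
        = ε3 * ((k : ℝ) / ((k0 : ℝ) + 1)) := by field_simp
      _ ≤ ε3 * 1 := by
          gcongr
          rw [div_le_one (by positivity)]
          exact hk'
      _ = ε3 := mul_one _

theorem consts {CR CG CF CS CT CX CpS CpT a : ℝ} (hCR : 1 ≤ CR) (hCG : 1 ≤ CG) (hCF : 1 ≤ CF)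
    (hCS : 1 ≤ CS) (hCT : 1 ≤ CT) (hCX : 1 ≤ CX) (hCpS : 1 ≤ CpS) (hCpT : 1 ≤ CpT) (ha : 1 ≤ a)
    (kR kG kF kS kT : ℕ) : ∃ Cm CE : ℝ, 1 ≤ Cm ∧ CR ≤ Cm ∧ CG ≤ Cm ∧ CF ≤ Cm ∧ CS ≤ Cm ∧
      CT ≤ Cm ∧ CX ≤ Cm ∧ 32 * a ≤ Cm ∧ 1 ≤ CE ∧ CR * CX ^ kR ≤ CE ∧ CG * CX ^ kG ≤ CE ∧
      CF * CX ^ kF ≤ CE ∧ CS * CX ^ kS ≤ CE ∧ CT * CX ^ kT ≤ CE ∧ CpS ≤ CE ∧ CpT ≤ CE ∧
      CX ≤ CE := by
  have hpw : ∀ (C : ℝ) (k : ℕ), 1 ≤ C → 1 ≤ C * CX ^ k := fun C k hC => by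
    have := one_le_pow₀ hCX (n := k)
    nlinarith
  have b1 := hpw CR kR hCR
  have b2 := hpw CG kG hCG
  have b3 := hpw CF kF hCF
  have b4 := hpw CS kS hCS
  have b5 := hpw CT kT hCT
  exact ⟨CR + CG + CF + CS + CT + CX + 32 * a, CR * CX ^ kR + CG * CX ^ kG + CF * CX ^ kF +
    CS * CX ^ kS + CT * CX ^ kT + CpS + CpT + CX, by linarith, by linarith, by linarith,
    by linarith, by linarith, by linarith, by linarith, by linarith, by linarith, by linarith,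
    by linarith, by linarith, by linarith, by linarith, by linarith, by linarith, by linarith⟩

/-- the price is admissible. -/
theorem dexp {K c1 θ : ℝ} {n Lw : ℕ} (hθ : θ = 4 * Lw / ((n : ℝ) + 1)) (hc1 : 0 < c1)
    (hprice : 4 * K * Lw + 1 ≤ c1 / 2 * n) :
    -(c1 / 2) + K * θ + 1 / (2 * ((n : ℝ) + 1)) ≤ 0 := by
  have hN : (0:ℝ) < (n : ℝ) + 1 := by positivity
  have h2 : K * (4 * Lw / ((n : ℝ) + 1)) + 1 / (2 * ((n : ℝ) + 1)) =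
      (4 * K * Lw + 1 / 2) / ((n : ℝ) + 1) := by field_simp
  have h1 : K * (4 * Lw / ((n : ℝ) + 1)) + 1 / (2 * ((n : ℝ) + 1)) ≤ c1 / 2 := by
    rw [h2, div_le_iff₀ hN]
    linarith
  rw [hθ]
  linarith

/-- last arithmetic. -/
theorem last_arith {n kF : ℕ} {R CE CF ν ε ε1 ε3 X P Y W dp v : ℝ} (hR : 1 ≤ R)
    (h3 : ε3 + ε3 + (6 * n : ℝ) * ε3 ≤ ε) (h3' : ε3 ≤ ε) (hCE : 1 ≤ CE)
    (hν : 1 ≤ ν) (l1 : CF * ν ^ kF * R ^ (kF * ε1) ≤ CE * R ^ ε3) (l2 : ν ≤ CE * R ^ ε3)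
    (l3 : CF * ν ^ kF ≤ CE * R ^ ε3) (hX : 0 ≤ X) (hY : 0 ≤ Y) (hv : 0 ≤ v) (hW : 0 ≤ W)
    (hdp : X * Y = dp) (hdp1 : 1 ≤ dp) (hP : CE ^ 2 * W + CE ≤ P) :
    CF * ν ^ kF * R ^ (kF * ε1) * X * (ν * (W * R ^ ((6 * n : ℝ) * ε3) * Y * v)) +
      CF * ν ^ kF * v ≤ P * R ^ ε * dp * v := by
  have hR0 : 0 < R := by linarith
  have l4 : R ^ ε3 * R ^ ε3 * R ^ ((6 * n : ℝ) * ε3) ≤ R ^ ε := by
    rw [← Real.rpow_add hR0, ← Real.rpow_add hR0]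
    exact Real.rpow_le_rpow_of_exponent_le hR h3
  have l5 : R ^ ε3 ≤ R ^ ε := Real.rpow_le_rpow_of_exponent_le hR h3'
  have hdp0 : 0 ≤ dp := by linarith
  have hfirst : CF * ν ^ kF * R ^ (kF * ε1) * X * (ν * (W * R ^ ((6 * n : ℝ) * ε3) * Y * v)) ≤
      CE ^ 2 * W * R ^ ε * dp * v := by
    calc CF * ν ^ kF * R ^ (kF * ε1) * X * (ν * (W * R ^ ((6 * n : ℝ) * ε3) * Y * v))
        ≤ CE * R ^ ε3 * X * ((CE * R ^ ε3) * (W * R ^ ((6 * n : ℝ) * ε3) * Y * v)) := by gcongr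
      _ = CE ^ 2 * W * (R ^ ε3 * R ^ ε3 * R ^ ((6 * n : ℝ) * ε3)) * (X * Y) * v := by ring
      _ ≤ CE ^ 2 * W * R ^ ε * (X * Y) * v := by gcongr
      _ = _ := by rw [hdp]
  have hsecond : CF * ν ^ kF * v ≤ CE * R ^ ε * dp * v := by
    calc CF * ν ^ kF * v ≤ CE * R ^ ε3 * v := by gcongr
      _ ≤ CE * R ^ ε * v := by gcongr
      _ = CE * R ^ ε * 1 * v := by ring
      _ ≤ _ := by gcongr
  calc _ ≤ _ := add_le_add hfirst hsecond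
    _ = (CE ^ 2 * W + CE) * R ^ ε * dp * v := by ring
    _ ≤ _ := by gcongr

theorem one_le_mul_rpow {CE R ε3 : ℝ} (hCE : 1 ≤ CE) (hR : 1 ≤ R) (h3 : 0 < ε3) :
    1 ≤ CE * R ^ ε3 := by
  have : 1 ≤ R ^ ε3 := Real.one_le_rpow hR h3.le
  nlinarith

theorem pbd {C CE R ε3 y x : ℝ} (hC : C ≤ CE) (hC1 : 1 ≤ C) (hR : 1 ≤ R) (h3 : 0 < ε3)
    (hy : 0 ≤ y) (h : x ≤ C * y) : x ≤ CE * R ^ ε3 * y := by
  have h1 : 1 ≤ R ^ ε3 := Real.one_le_rpow hR h3.le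
  refine h.trans (mul_le_mul_of_nonneg_right ?_ hy)
  nlinarith

theorem small_case {R Cm Ct P ε ε1 x v dp : ℝ} (hR : 1 ≤ R) (hε : 0 < ε) (hε1 : 0 < ε1)
    (hsmall : R ^ ε1 < Cm) (hCt : Ct = 256 * (Cm ^ ε1⁻¹) ^ |x|) (hP : Ct ≤ P) (hv : 0 ≤ v)
    (hdp : 1 ≤ dp) : 256 * R ^ x * v ≤ P * R ^ ε * dp * v := by
  have hR0 : 0 < R := by linarith
  have hCm0 : 0 < Cm := lt_trans (by positivity) hsmall
  have hRC : R ≤ Cm ^ ε1⁻¹ := by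
    calc R = (R ^ ε1) ^ ε1⁻¹ := by
          rw [← Real.rpow_mul hR0.le, mul_inv_cancel₀ hε1.ne', Real.rpow_one]
      _ ≤ Cm ^ ε1⁻¹ := Real.rpow_le_rpow (by positivity) hsmall.le (by positivity)
  have h1 : R ^ x ≤ (Cm ^ ε1⁻¹) ^ |x| :=
    (Real.rpow_le_rpow_of_exponent_le hR (le_abs_self _)).trans
      (Real.rpow_le_rpow hR0.le hRC (abs_nonneg _))
  have hRε : 1 ≤ R ^ ε := Real.one_le_rpow hR hε.le
  have hCt0 : 0 ≤ Ct := by rw [hCt]; positivity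
  have hP0 : 0 ≤ P := hCt0.trans hP
  calc 256 * R ^ x * v ≤ Ct * v := by rw [hCt]; gcongr
    _ = Ct * 1 * 1 * v := by ring
    _ ≤ P * R ^ ε * dp * v := by gcongr

/-- the large `R` part: choice of constants done. -/
theorem chain_large {M q c1 c K At δ Cw gg : ℝ} {n Lw : ℕ} (hn3 : 3 ≤ n)
    (hTP : TowerP c1 At (4 * K) gg n Lw) (hc1 : 0 < c1) (hcc : c1 ≤ c) (hq : 0 ≤ q)
    (hqc : q ≤ c) (hδ0 : 0 ≤ δ) (hδ4 : δ ≤ 1/4) (hCw0 : 0 ≤ Cw) (hCδ : Cw * δ ≤ c1 / 4)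
    (hg1 : gg ≤ δ * c1) (hg2 : gg ≤ c1 / 4)
    {ε3 CE R dl v : ℝ} (hε3 : 0 < ε3) (hCE1 : 1 ≤ CE) (hR1 : 1 ≤ R) (hdl0 : 0 < dl)
    (hdl1 : dl < 1) (hv : 0 ≤ v) (h3n : ((n : ℝ) + 1) * ε3 ≤ 1) (hXR : dl⁻¹ ^ (n + 1) ≤ R)
    {κ A A' a b Cn η0 σ ν : ℝ} {C0 : E2} {K0 : ℕ} {g : E3 → ℂ} {L : ℕ → Lev}
    {ac1 ac2 : ℕ → ℕ → ℕ} {pv : ℕ → ℝ} {p : ℕ → ℕ → ℕ → ℕ → ℝ} {tn : ℕ → Prop}
    {CpS CpT : ℝ} (hCpS : 1 ≤ CpS) (hCpT : 1 ≤ CpT) (hCEpS : CpS ≤ CE) (hCEpT : CpT ≤ CE)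
    (hTow : Tow M κ q A A' a b Cn K0 η0 C0 σ g R dl ν n L)
    (hRoot : ∀ k < (L 1).n, (L 1).S g k ≤
      ENNReal.ofReal (CE * R ^ ε3 * (max 1 (R / (((L 1).s k).1 * (L 1).r) ^ 2)) ^ (c / 2) * v))
    (hGen : ∀ t, 1 ≤ t → t < n → ∀ k < (L (t + 1)).n, (L (t + 1)).S g k ≤
      ENNReal.ofReal (CE * R ^ ε3 *
        (max 1 ((L t).r / (((L (t + 1)).s k).1 * (L (t + 1)).r) ^ 2)) ^ (c / 2)) *
        (L t).S g ((L (t + 1)).par k) +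
      ENNReal.ofReal (CE * R ^ (1 - ((n : ℝ) + 2)) * v))
    (hpv : ∀ x, 1 ≤ pv x ∧ pv x ≤ CpS * dl ^ (-(1/2) : ℝ))
    (hp : ∀ h i j x, h < i → i < j → 1 ≤ p h i j x ∧ p h i j x ≤ CpT * dl ^ (-((j : ℝ) - i)))
    (htiny : ∀ t < n, ∀ k < (L (t + 1)).n, tn (ac1 (t + 1) k) →
      (L (t + 1)).S g k ≤ ENNReal.ofReal (CE * R ^ (1 - ((n : ℝ) + 2)) * v))
    (hstep : ∀ t, t + 2 ≤ n → ∀ k < (L (t + 2)).n,
        ¬ tn (ac1 (t + 2) k) → ¬ tn (ac1 (t + 1) ((L (t + 2)).par k)) →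
        Thin dl δ (L (t + 2)).r ((L (t + 2)).s k).1 →
        Wide dl Cw (L (t + 2)).r ((L (t + 2)).s k).2 →
        Thin dl δ (L (t + 1)).r ((L (t + 1)).s ((L (t + 2)).par k)).1 →
        Wide dl Cw (L (t + 1)).r ((L (t + 1)).s ((L (t + 2)).par k)).2 →
        (L (t + 2)).S g k ≤ ENNReal.ofReal (CE * R ^ ε3 * dl ^ (-(Cw * δ)) *
            ((pv (ac1 (t + 1) ((L (t + 2)).par k)) / pv (ac1 (t + 2) k)) ^ (1/2 : ℝ) +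
              dl ^ (1/2 : ℝ))) * (L (t + 1)).S g ((L (t + 2)).par k) +
          ENNReal.ofReal (CE * R ^ (1 - ((n : ℝ) + 2)) * v))
    (htube : ∀ h i j l : ℕ, 1 ≤ h → h < i → i < j → j < l → l ≤ n → l ≤ h + 4 * Lw →
      ∀ k < (L j).n, ¬ Wide dl Cw (L j).r ((L j).s k).2 →
        (L j).S g k ≤ ENNReal.ofReal (CE * R ^ ε3 *
          dl ^ (-(At + At * (max 0 ((i : ℝ) + l - 2 * j) + max 0 ((h : ℝ) + j - 2 * i))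
            + q / 4 * ((l : ℝ) - j))) *
          (p h i j (ac2 i (anc L j i k)) / p i j l (ac2 j k)) ^ (1 / 2 : ℝ)) *
            (L i).S g (anc L j i k) + ENNReal.ofReal (CE * R ^ (1 - ((n : ℝ) + 2)) * v))
    -- the last step
    {CF ε ε1 dp Cmain : ℝ} {kF : ℕ} {F : ℝ≥0∞} (hCF : 0 ≤ CF) (hν : 1 ≤ ν)
    (h3 : ε3 + ε3 + (6 * n : ℝ) * ε3 ≤ ε) (h3' : ε3 ≤ ε)
    (l1 : CF * ν ^ kF * R ^ (kF * ε1) ≤ CE * R ^ ε3) (l2 : ν ≤ CE * R ^ ε3)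
    (l3 : CF * ν ^ kF ≤ CE * R ^ ε3)
    (hdp : dl⁻¹ ^ (c / 2) * dl⁻¹ ^ (c / 2 * n - (4 * K * Lw + 1)) = dp) (hdp1 : 1 ≤ dp)
    (hP : CE ^ 2 * ((4 * CE) ^ (6 * n) * (1 + (2 * CE) ^ (n + 1) * CE)) + CE ≤ Cmain)
    (hF : F ≤ ENNReal.ofReal (CF * ν ^ kF * R ^ (kF * ε1) * dl⁻¹ ^ (c / 2)) *
      ∑ k ∈ Finset.range (L n).n, (L n).S g k + ENNReal.ofReal (CF * ν ^ kF * v)) :
    F ≤ ENNReal.ofReal (Cmain * R ^ ε * dp * v) := by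
  have hR0 : 0 < R := by linarith
  have hrle : ∀ t ≤ n, (L t).r = R * dl ^ t := hTow.rad
  have key := core hTP (by omega) hc1 hcc hq hqc hδ0 (by linarith)
    hCw0 hCδ hg1 hg2 hdl0 hdl1 hR0 (E := CE * R ^ ε3)
    (τ := CE * R ^ (1 - ((n : ℝ) + 2)) * v) (v := v) (one_le_mul_rpow hCE1 hR1 hε3)
    (by positivity) hv (g := g) L ac1 ac2 pv p tn hrle
    (fun t ht k hk => (hTow.ok t ht).sd k hk)
    (fun t ht k hk => (hTow.next t ht).par_lt k hk)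
    hRoot hGen
    (fun x => ⟨(hpv x).1, pbd hCEpS hCpS hR1 hε3 (by positivity) (hpv x).2⟩)
    (fun h i j x hhi hij => ⟨(hp h i j x hhi hij).1,
      pbd hCEpT hCpT hR1 hε3 (by positivity) (hp h i j x hhi hij).2⟩)
    htiny hstep htube
  obtain ⟨Y, hY⟩ : ∃ Y : ℝ, Y = dl⁻¹ ^ (c / 2 * n - (4 * K * Lw + 1)) := ⟨_, rfl⟩
  have hY0 : 0 ≤ Y := by rw [hY]; positivity
  have hlast : ∀ k < (L n).n, (L n).S g k ≤ ENNReal.ofReal ((4 * CE) ^ (6 * n) *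
      (1 + (2 * CE) ^ (n + 1) * CE) * R ^ ((6 * n : ℝ) * ε3) * Y * v) := by
    intro k hk
    refine (key k hk).trans (ENNReal.ofReal_le_ofReal ?_)
    rw [← hY]
    exact fin_arith hCE1 hR1 h3n (by positivity) hXR hv hY0
  have htot := tot_le (by positivity) (hTow.le n le_rfl).1 hlast
  rw [← hY] at hdp
  calc F ≤ _ := hF
    _ ≤ ENNReal.ofReal (CF * ν ^ kF * R ^ (kF * ε1) * dl⁻¹ ^ (c / 2)) *
          ENNReal.ofReal (ν * ((4 * CE) ^ (6 * n) *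
      (1 + (2 * CE) ^ (n + 1) * CE) * R ^ ((6 * n : ℝ) * ε3) * Y * v)) +
          ENNReal.ofReal (CF * ν ^ kF * v) := by gcongr
    _ = ENNReal.ofReal (CF * ν ^ kF * R ^ (kF * ε1) * dl⁻¹ ^ (c / 2) * (ν * ((4 * CE) ^ (6 * n) *
      (1 + (2 * CE) ^ (n + 1) * CE) * R ^ ((6 * n : ℝ) * ε3) * Y * v)) +
            CF * ν ^ kF * v) := by
        rw [← ENNReal.ofReal_mul (by positivity), ← ENNReal.ofReal_add (by positivity)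
          (by positivity)]
    _ ≤ _ := ENNReal.ofReal_le_ofReal (last_arith hR1 h3 h3' hCE1 hν l1 l2 l3
        (by positivity) hY0 hv (by positivity) hdp hdp1 hP)

end Crest.Agent.R116.GlC210
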