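import Crest.Agent.R116.ChC4_210

/-!
# R116 (S0155), wave side, CHAIN-C (helper210): the wiring
`ROOT, GEN, FIN, SLAB, TUBE, TOWX ⟹ WChE`.
-/

set_option autoImplicit false

open MeasureTheory
open scoped ENNReal

namespace Crest.Agent.R116.GlC210

open Crest.Agent.R138.Defs (E2 ee)
open Crest.Agent.R116.AsmP597
open Crest.Agent.R116.CDef480 Crest.Agent.R116.WC188

set_option maxHeartbeats 1600000 in
/-- **the wiring of the class chain.** -/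
theorem chain {M q : ℝ} (hq : 0 ≤ q) (hROOT : ROOT M q) (hGEN : GEN M q) (hFIN : FIN M q)
    (hSLAB : SLAB M q) (hTUBE : TUBE M q) (hTOW : TOWX M q) : WChE M q := by
  intro K hK c1 hc1 hqc hLB
  obtain ⟨Cw, hCw, hS⟩ := hSLAB
  have hCw0 : 0 < Cw := by linarith
  obtain ⟨At, hAt, hT⟩ := hTUBE Cw hCw0.le
  -- margins
  obtain ⟨δ, hδ0, hδ4, hCδ⟩ : ∃ δ : ℝ, 0 < δ ∧ δ ≤ 1/4 ∧ Cw * δ ≤ c1 / 4 := by
    refine ⟨min (c1 / (4 * Cw)) (1/4), by positivity, min_le_right _ _, ?_⟩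
    calc Cw * min (c1 / (4 * Cw)) (1/4) ≤ Cw * (c1 / (4 * Cw)) := by
          gcongr; exact min_le_left _ _
      _ = c1 / 4 := by field_simp
  obtain ⟨gg, hgg0, hg1, hg2⟩ : ∃ gg : ℝ, 0 < gg ∧ gg ≤ δ * c1 ∧ gg ≤ c1 / 4 :=
    ⟨min (δ * c1) (c1 / 4), by positivity, min_le_left _ _, min_le_right _ _⟩
  obtain ⟨n, Lw, hn3, hLw1, hTP⟩ := tower_price (a := 4 * K) hc1 hAt (by positivity) hgg0
    (by linarith : gg ≤ c1 / 2)
  have hprice := price_le hc1 hTP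
  have hN : (0:ℝ) < (n : ℝ) + 1 := by positivity
  have hn0 : (0:ℝ) ≤ n := Nat.cast_nonneg n
  have hLwR : (1:ℝ) ≤ Lw := by exact_mod_cast hLw1
  obtain ⟨c, hcdef⟩ : ∃ c : ℝ, c = c1 + 1 / ((n : ℝ) + 1) := ⟨_, rfl⟩
  have hcc : c1 < c := by
    have : 0 < 1 / ((n : ℝ) + 1) := by positivity
    rw [hcdef]; linarith
  have hc0 : 0 ≤ c := by linarith
  have hqc' : q ≤ c := by linarith
  have hLBc := hLB c hcc
  obtain ⟨kR, hR'⟩ := hROOT c hc0 hLBc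
  obtain ⟨kG, hG'⟩ := hGEN c hc0 hLBc
  obtain ⟨kF, hF'⟩ := hFIN c hc0 hLBc
  obtain ⟨θ, hθ⟩ : ∃ θ : ℝ, θ = 4 * Lw / ((n : ℝ) + 1) := ⟨_, rfl⟩
  have hθ0 : 0 < θ := by rw [hθ]; positivity
  have hdex := dexp hθ hc1 hprice
  have w1 : 2 ≤ 2 + Cw + n + 16 * θ := by linarith
  have w2 : Cw + n ≤ 2 + Cw + n + 16 * θ := by linarith
  have w3 : 16 * θ ≤ 2 + Cw + n + 16 * θ := by linarith
  refine ⟨θ, 1 / (2 * ((n : ℝ) + 1)), (1/4) ^ (n + 1), 2 + Cw + n + 16 * θ, hθ0, by positivity,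
    by positivity, pow_le_one₀ (by norm_num) (by norm_num), by linarith, ?_⟩
  intro a b A0 ε M0 ha hb hb2 hA0 hε
  -- exponents
  obtain ⟨ε3, ε1, hε3, hε1, h3n, h3, h3', h31, h11, hkR, hkG, hkF, hε1n, hε12⟩ :=
    exps n kR kG kF hε
  -- the dilation of the tower
  obtain ⟨A1, K1F, hF1⟩ := hF' a b A0 ε1 M0 ⟨ha, hb, hb2, hA0, hε1⟩
  obtain ⟨A, hA1, hAA⟩ : ∃ A : ℝ, 1 ≤ A ∧ A1 ≤ A := ⟨max 1 A1, le_max_left _ _, le_max_right _ _⟩
  have hRg : Rg a b A ε1 := ⟨ha, hb, hb2, hA1, hε1⟩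
  obtain ⟨kS, naS, 𝒜S, pv, tn, CpS, hCpS, hokS, hpvS, K1S, hS2⟩ :=
    hS n a b A ε1 M0 ((n : ℝ) + 2) hRg
  obtain ⟨kT, naT, 𝒜T, p, CpT, hCpT, hokT, hpT, K1T, hT2⟩ :=
    hT n Lw a b A ε1 M0 ((n : ℝ) + 2) hRg
  obtain ⟨𝒜, na, hok, hdec⟩ := pair_aux hokS hokT
  obtain ⟨ε2, hε2, hε22, hk2⟩ := exps2 (kR + kG + kF + kS + kT) hε3 h31
  obtain ⟨K1G, hG1⟩ := hG' a b A ε1 M0 ((n : ℝ) + 2) hRg
  obtain ⟨K0, hK0F, hK0S, hK0T, hK0G⟩ : ∃ K0 : ℕ, K1F ≤ K0 ∧ K1S ≤ K0 ∧ K1T ≤ K0 ∧ K1G ≤ K0 :=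
    ⟨K1F + K1S + K1T + K1G, by omega, by omega, by omega, by omega⟩
  obtain ⟨A', Cn, CX, hA', hCn, hCX, hTOW'⟩ := hTOW 𝒜 na a b A ε2 M0 ⟨ha, hb, hb2, hA1, hε2⟩
    hok n K0
  obtain ⟨CR, hCR, hR2⟩ := hR' a b A ε1 M0 hRg K0 A' Cn hA' hCn
  obtain ⟨CG, hCG, hG2⟩ := hG1 K0 hK0G A' Cn hA' hCn
  obtain ⟨CF, hCF, hF2⟩ := hF1 A hAA K0 hK0F A' Cn hA' hCn
  obtain ⟨CS, hCS, hS3⟩ := hS2 K0 hK0S A' Cn hA' hCn
  obtain ⟨CT, hCT, hT3⟩ := hT2 K0 hK0T A' Cn hA' hCn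
  -- the constants
  obtain ⟨Cm, CE, hCm1, hCmR, hCmG, hCmF, hCmS, hCmT, hCmX, hCma, hCE1, hCER, hCEG, hCEF, hCES,
    hCET, hCEpS, hCEpT, hCEX⟩ := consts hCR hCG hCF hCS hCT hCX hCpS hCpT ha kR kG kF kS kT
  have zR : 0 ≤ CR := by linarith
  have zG : 0 ≤ CG := by linarith
  have zF : 0 ≤ CF := by linarith
  have zS : 0 ≤ CS := by linarith
  have zT : 0 ≤ CT := by linarith
  have zE : 0 ≤ CE := by linarith
  obtain ⟨Cmain, hCmain⟩ : ∃ C : ℝ, C = CE ^ 2 * ((4 * CE) ^ (6 * n) *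
      (1 + (2 * CE) ^ (n + 1) * CE)) + CE := ⟨_, rfl⟩
  have hCmain0 : 0 ≤ Cmain := by rw [hCmain]; positivity
  obtain ⟨Ct, hCt⟩ : ∃ C : ℝ, C = 256 * (Cm ^ ε1⁻¹) ^ |5 + M0 / 2 + q / 4| := ⟨_, rfl⟩
  have hCt0 : 0 ≤ Ct := by rw [hCt]; positivity
  refine ⟨Ct + Cmain, add_nonneg hCt0 hCmain0, ?_⟩
  intro η0 C0 σ g R D d hd0 hd3 hAR hεd h8 hSs s1 s2 hsd
  obtain ⟨hR1, hd1, dl, hdl0, hdl4, hdlN, hκ, hdlR, hRd, hdlC, hκR, hXR, hXd⟩ :=
    dnum (Lw := Lw) (ε1 := ε1) (Cw := Cw) hd0 hd3 hCw0.le hθ w1 w2 w3 hAR hεd hε1n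
  have hR0 : 0 < R := lt_of_lt_of_le one_pos hR1
  have hdl1 : dl < 1 := lt_of_le_of_lt hdl4 (by norm_num)
  have hSS0 : 0 ≤ SS g R D := by
    unfold SS
    have := Ba449.Enc_nonneg g
    positivity
  have hdpow : 1 ≤ d ^ (-(c1 / 2) + K * θ + 1 / (2 * ((n : ℝ) + 1))) :=
    Real.one_le_rpow_of_pos_of_le_one_of_nonpos hd0 hd1 hdex
  have hr1 : 1 ≤ d * R := by
    rw [mul_comm]
    exact (Real.one_le_rpow hR1 (by norm_num)).trans hRd
  have hrR : d * R ≤ R := mul_le_of_le_one_left hR0.le hd1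
  rcases lt_or_ge (R ^ ε1) Cm with hsmall | hlarge
  · -- bounded `R`
    refine (SIG_triv ha hb2.le hq hSs.toSt hr1 hrR hsd).trans (ENNReal.ofReal_le_ofReal ?_)
    exact small_case hR1 hε hε1 hsmall hCt (le_add_of_nonneg_right hCmain0) hSS0 hdpow
  · -- large `R`
    have hε1R : R ^ ε1 ≤ R := by
      nth_rewrite 2 [← Real.rpow_one R]
      exact Real.rpow_le_rpow_of_exponent_le hR1 (hε12.trans (by norm_num))
    have hbig : ∀ C : ℝ, C ≤ Cm → C ≤ R := fun C h => h.trans (hlarge.trans hε1R)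
    have hdlm : ∀ C : ℝ, C ≤ Cm → C * dl ≤ 1 := fun C h => by
      calc C * dl ≤ R ^ ε1 * dl := mul_le_mul_of_nonneg_right (h.trans hlarge) hdl0.le
        _ ≤ R ^ ε1 * R ^ (-ε1) := mul_le_mul_of_nonneg_left hdlR (by positivity)
        _ = 1 := by rw [← Real.rpow_add hR0, add_neg_cancel, Real.rpow_zero]
    have hκ4 : d ^ θ ≤ dl ^ (4 : ℝ) := by
      rw [hκ]
      exact Real.rpow_le_rpow_of_exponent_ge hdl0 hdl1.le (by linarith only [hLwR])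
    have hκdl : d ^ θ ≤ dl := by
      refine hκ4.trans ?_
      nth_rewrite 2 [← Real.rpow_one dl]
      exact Real.rpow_le_rpow_of_exponent_ge hdl0 hdl1.le (by norm_num)
    have hκ0 : 0 < d ^ θ := Real.rpow_pos_of_pos hd0 _
    have h32 : 32 * a * d ^ θ ≤ 1 :=
      (mul_le_mul_of_nonneg_left hκdl (by positivity)).trans (hdlm (32 * a) hCma)
    have hKp : Kp a R (d ^ θ) := ⟨hκ0, hκdl.trans hdl4, h8, h32, hκR⟩
    have hrn : R ^ (1/2 : ℝ) ≤ R * dl ^ n := by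
      refine hRd.trans (mul_le_mul_of_nonneg_left ?_ hR0.le)
      rw [← hdlN, pow_succ]
      exact mul_le_of_le_one_right (by positivity) hdl1.le
    obtain ⟨L, ac, ν, hν1, hνR, hTow, hAcl⟩ := hTOW' (d ^ θ) η0 C0 σ g R D hSs hKp
      (hbig CX hCmX) dl hdl0 hdl1.le hrn
    obtain ⟨⟨ac1, hac1⟩, ⟨ac2, hac2⟩⟩ := hdec _ _ _ _ _ _ _ _ hAcl
    -- losses
    have hloss : ∀ (C : ℝ) (k : ℕ) (x : ℝ), 0 ≤ C → C * CX ^ k ≤ CE →
        k ≤ kR + kG + kF + kS + kT + 1 → 2 * x ≤ ε3 → C * ν ^ k * R ^ x ≤ CE * R ^ ε3 := by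
      intro C k x hC hk hkk hx
      refine (loss_le hC hCX hν1 hνR hR1 (y := ε3) ?_).trans
        (mul_le_mul_of_nonneg_right hk (by positivity))
      have := hk2 k hkk
      linarith only [this, hx]
    have htail : ∀ (C : ℝ) (k : ℕ), 0 ≤ C → C * CX ^ k ≤ CE →
        k ≤ kR + kG + kF + kS + kT + 1 →
        C * ν ^ k * R ^ (-((n : ℝ) + 2)) * SS g R D ≤
          CE * R ^ (1 - ((n : ℝ) + 2)) * SS g R D := by
      intro C k hC hk hkk
      refine mul_le_mul_of_nonneg_right ?_ hSS0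
      refine (loss_le hC hCX hν1 hνR hR1 (y := 1 - ((n : ℝ) + 2)) ?_).trans
        (mul_le_mul_of_nonneg_right hk (by positivity))
      have := hk2 k hkk
      linarith only [this, h31]
    have hνRR : ν ≤ R := by
      refine hνR.trans ?_
      calc CX * R ^ ε2 ≤ R ^ ε1 * R ^ ε2 :=
            mul_le_mul_of_nonneg_right (hCmX.trans hlarge) (by positivity)
        _ = R ^ (ε1 + ε2) := (Real.rpow_add hR0 _ _).symm
        _ ≤ R ^ (1:ℝ) :=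
            Real.rpow_le_rpow_of_exponent_le hR1 (by linarith only [hε12, hε22])
        _ = R := Real.rpow_one R
    have hrle : ∀ t ≤ n, (L t).r = R * dl ^ t := hTow.rad
    have hrs : ∀ t < n, (L (t + 1)).r = dl * (L t).r := fun t ht => by
      rw [hrle t ht.le, hrle (t + 1) (by omega), pow_succ]; ring
    have hr0 : ∀ t ≤ n, 0 < (L t).r := fun t ht => by rw [hrle t ht]; positivity
    obtain ⟨hTy, hSt⟩ := hS3 (d ^ θ) η0 C0 σ g R D hSs hKp (hbig CS hCmS)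
      dl ν hdl0 (hdlm CS hCmS) hdlR hκ4 hν1 hνRR L ac1 hTow hac1 hdlC
    have hTu := hT3 (d ^ θ) η0 C0 σ g R D hSs hKp (hbig CT hCmT)
      dl ν hdl0 (hdlm CT hCmT) hdlR hκ.le hν1 hνRR L ac2 hTow hac2
    have lR := hloss CR kR (kR * ε1) zR hCER (by omega) hkR
    have lG := hloss CG kG (kG * ε1) zG hCEG (by omega) hkG
    have lF := hloss CF kF (kF * ε1) zF hCEF (by omega) hkF
    have lS := hloss CS kS ε1 zS hCES (by omega) h11
    have lT := hloss CT kT ε1 zT hCET (by omega) h11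
    have tG := htail CG kG zG hCEG (by omega)
    have tS := htail CS kS zS hCES (by omega)
    have tT := htail CT kT zT hCET (by omega)
    have lF0 : CF * ν ^ kF ≤ CE * R ^ ε3 := by
      have := hloss CF kF 0 zF hCEF (by omega) (by linarith only [hε3])
      rwa [Real.rpow_zero, mul_one] at this
    have lν : ν ≤ CE * R ^ ε3 := by
      refine hνR.trans (mul_le_mul hCEX ?_ (by positivity) zE)
      have h2 := hk2 1 (by omega)
      rw [Nat.cast_one, one_mul] at h2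
      exact Real.rpow_le_rpow_of_exponent_le hR1 (by linarith only [h2, hε2])
    have hquot : (L n).r / (d * R) = dl⁻¹ := by
      rw [hrle n le_rfl, ← hdlN, pow_succ]
      field_simp
    have hfin := hF2 (d ^ θ) η0 C0 σ g R D hSs hKp (hbig CF hCmF) (L n)
      (hTow.ok n le_rfl) ν hν1 hνRR (hTow.le n le_rfl) (d * R) s1 s2
      (by rw [mul_comm d R]; exact hRd) (by
        rw [hrle n le_rfl, ← hdlN, pow_succ]
        calc CF * (dl ^ n * dl * R) = (CF * dl) * (R * dl ^ n) := by ring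
          _ ≤ 1 * (R * dl ^ n) :=
            mul_le_mul_of_nonneg_right (hdlm CF hCmF) (by positivity)
          _ = R * dl ^ n := one_mul _) hsd
    rw [hquot] at hfin
    have hX0 : 0 < dl⁻¹ := by positivity
    have hfull : dl⁻¹ ^ (c / 2) * dl⁻¹ ^ (c / 2 * n - (4 * K * Lw + 1)) =
        d ^ (-(c1 / 2) + K * θ + 1 / (2 * ((n : ℝ) + 1))) := by
      rw [← Real.rpow_add hX0, hXd]
      congr 1
      rw [hθ, hcdef]
      field_simp
      ring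
    have main := chain_large hn3 hTP hc1 hcc.le hq hqc' hδ0.le hδ4 hCw0.le hCδ hg1 hg2
      hε3 hCE1 hR1 hdl0 hdl1 hSS0 h3n hXR (ac1 := ac1) (ac2 := ac2) (pv := pv R dl)
      (p := p R dl) (tn := tn R) hCpS hCpT hCEpS hCEpT hTow
      (fun k hk => (hR2 (d ^ θ) η0 C0 σ g R D hSs hKp (hbig CR hCmR) (L 1)
          (hTow.ok 1 (by omega)) ν hν1 (hTow.le 1 (by omega)) k hk).trans
          (ENNReal.ofReal_le_ofReal (by gcongr)))
      (fun t ht1 htn k hk => by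
        refine (hG2 (d ^ θ) η0 C0 σ g R D hSs hKp (hbig CG hCmG) (L t)
          (L (t + 1)) (hTow.ok t htn.le) (hTow.ok (t + 1) (by omega)) (hTow.next t htn) ?_ ν hν1
          hνRR (hTow.le t htn.le) (hTow.le (t + 1) (by omega)) k hk).trans ?_
        · rw [hrs t htn, ← mul_assoc]
          exact mul_le_of_le_one_left (hr0 t htn.le).le (hdlm CG hCmG)
        · gcongr)
      (fun x => hpvS R dl x hdl0 hdl1.le)
      (fun h i j x hhi hij => hpT R dl h i j x hdl0 hdl1.le hhi hij)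
      (fun t ht k hk htn => (hTy t ht k hk htn).trans (ENNReal.ofReal_le_ofReal tS))
      (fun t ht k hk h1 h2 h3 h4 h5 h6 => by
        refine (hSt t ht k hk h1 h2 δ hδ0.le hδ4 h3 h4 h5 h6).trans ?_
        have h9 := (hpvS R dl (ac1 (t + 1) ((L (t + 2)).par k)) hdl0 hdl1.le).1
        have h10 := (hpvS R dl (ac1 (t + 2) k) hdl0 hdl1.le).1
        gcongr)
      (fun h i j l hh1 hhi hij hjl hln hlL k hk hwd => by
        refine (hTu h i j l hh1 hhi hij hjl hln hlL k hk hwd).trans ?_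
        have h9 := (hpT R dl h i j (ac2 i (anc L j i k)) hdl0 hdl1.le hhi hij).1
        have h10 := (hpT R dl i j l (ac2 j k) hdl0 hdl1.le hij hjl).1
        gcongr)
      zF hν1 h3 h3' lF lν lF0 hfull hdpow hCmain.ge hfin
    refine main.trans (ENNReal.ofReal_le_ofReal ?_)
    gcongr
    exact le_add_of_nonneg_left hCt0

end Crest.Agent.R116.GlC210
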