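import Crest.Agent.R116.PDefC_299
import Crest.Agent.R116.IsM1_883
import Crest.Agent.R138.Chi_101

/-!
# R116, WAVE side (helper299): from the measurable classes to `Chi` and `Coh` of `PDefC_299`

Cone port of `Chi_101`.  `clsC` = class of a phase point of the child level with respect to the own
normal of its plate: dyadic index of the density `Adc` and of the coherence count `potc`.
-/

set_option autoImplicit false

open MeasureTheory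
open scoped ENNReal

namespace Crest.Agent.R116.Chc299

open Crest.Agent.R138.Defs (E2)
open Crest.Agent.R138.Wpk685 (cen caps)
open Crest.Agent.R138.Rect779 (RectF orth)
open Crest.Agent.R138
open Crest.Agent.R138.Acl101 (pcnt clsA dy)
open Crest.Agent.R138.Chi101 (card_rect_le CP CP_pos A0 p0 A0_nonneg p0_ge ofReal_A0)
open Crest.Agent.R116.CDef480
open Crest.Agent.R116.LZg725 (Cf)
open Crest.Agent.R116.AlB888 (Adc potc)
open Crest.Agent.R116.PC299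
open Crest.Agent.R116.WC188

variable {n : ℕ} {κ : ℝ} {g : E3 → ℂ} {S : ℤ × ℤ → Set E3}

/-! ### trivial bounds -/

/-- **trivial bound of the coherence count**. -/
theorem potc_le {θ θ' θ'' K0 : ℝ} (hθ' : 0 < θ') (hθ : θ' ≤ θ'') {N : E2} (hN : ‖N‖ = 1)
    (m : ℤ × ℤ) (X : E3) (t : ℝ) :
    (potc n θ κ θ' θ'' K0 g S N m X t : ℝ) ≤ CP * (θ'' / θ') := by
  classical
  unfold potc
  refine (card_rect_le (N := N) hN hθ' (ξ0 := cen θ' m) (L := 16 * θ'')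
    (K := 64) (by linarith) (by norm_num) fun m' hm' => (Finset.mem_filter.1 hm').2.1).trans ?_
  have h1 : 1 ≤ θ'' / θ' := by rwa [le_div_iff₀ hθ', one_mul]
  rw [mul_div_assoc]
  unfold CP
  have : (2 * (16 * (θ'' / θ') + 1) + 1 : ℝ) ≤ 35 * (θ'' / θ') := by linarith
  calc (2 * (16 * (θ'' / θ') + 1) + 1) * (2 * (1 + 2 * 64) + 1) ^ 2
      ≤ 35 * (θ'' / θ') * (2 * (1 + 2 * 64) + 1) ^ 2 := by gcongr
    _ = _ := by ring

theorem an_div {r dl : ℝ} (hr : 0 < r) (hd : 0 < dl) :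
    an (dl * r) / an r = dl ^ (-(1/2) : ℝ) := by
  unfold an
  rw [Real.mul_rpow hd.le hr.le]
  exact mul_div_cancel_right₀ _ (Real.rpow_pos_of_pos hr _).ne'

/-- **trivial bound of the coherence count**, three consecutive levels. -/
theorem potc_le' {r dl K0 : ℝ} (hr : 0 < r) (hd : 0 < dl) (hd1 : dl ≤ 1) (θ : ℝ) {N : E2}
    (hN : ‖N‖ = 1) (m : ℤ × ℤ) (X : E3) (t : ℝ) :
    (potc n θ κ (an r) (an (dl * r)) K0 g S N m X t : ℝ) ≤ CP * dl ^ (-(1/2) : ℝ) := by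
  have h1 : 0 < an r := Real.rpow_pos_of_pos hr _
  rw [← an_div hr hd]
  refine potc_le h1 ?_ hN m X t
  unfold an
  exact Real.rpow_le_rpow_of_nonpos (mul_pos hd hr) (mul_le_of_le_one_left hr.le hd1) (by norm_num)

/-! ### the class -/

/-- rectangle relation of `potc`. -/
def RcC (θ' θ'' : ℝ) (N : E2) (m m' : ℤ × ℤ) : Prop :=
  cen θ' m' ∈ RectF N (cen θ' m) (16 * θ'') (64 * θ')

theorem RcC_refl {θ' θ'' : ℝ} (h1 : 0 ≤ θ') (h2 : 0 ≤ θ'') (N : E2) (m : ℤ × ℤ) :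
    RcC θ' θ'' N m m := by
  unfold RcC RectF orth
  simp only [Set.mem_ofPred_eq, sub_self, norm_zero, inner_zero_right, zero_smul]
  constructor <;> positivity

theorem potc_eq (θ κ θ' θ'' K0 : ℝ) (N : E2) (m : ℤ × ℤ) (X : E3) (t : ℝ) (y : E3) :
    potc n θ κ θ' θ'' K0 g S N m (X + y) t =
      pcnt (caps θ') (fun m' y => Adc n θ κ θ' g S m' (X + y) t) (RcC θ' θ'')
        (ENNReal.ofReal K0) N m y := rfl

/-- **the class** of a child phase point `(m, y)` in the relative frame `ζ`, with respect to the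
conformal function `f` of its plate. -/
noncomputable def clsC (nA : ℕ) (T0 K0 : ℝ) (n : ℕ) (θ κ θ' θ'' : ℝ) (g : E3 → ℂ)
    (S : ℤ × ℤ → Set E3) (ζ : E3 × ℝ) (f : Cf E2) (m : ℤ × ℤ) (y : E3) : ℕ :=
  clsA nA (ENNReal.ofReal T0) (caps θ') (fun m' y => Adc n θ κ θ' g S m' (ζ.1 + y) ζ.2)
    (RcC θ' θ'') (ENNReal.ofReal K0) (nP θ' f m y) m y

variable {nA : ℕ} {T0 K0 : ℝ}

/-! ### measurability -/

theorem measurable_Adc (θ κ θ' : ℝ) (hg : Integrable g) (m : ℤ × ℤ) (t : ℝ) :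
    Measurable fun X => Adc n θ κ θ' g S m X t := by
  unfold AlB888.Adc Cad538.Acc
  refine Cad538.Den_meas (fun m' _ => ?_) t
  exact (Bas367.umc_cont hg _ _).measurable.enorm.pow_const _

theorem measurableSet_RcC (θ' θ'' : ℝ) (f : Cf E2) (m m' : ℤ × ℤ) :
    MeasurableSet {y : E3 | RcC θ' θ'' (nP θ' f m y) m m'} := by
  have h1 : Measurable fun y : E3 => nP θ' f m y := IsM883.measurable_nP θ' f m
  have e : {y : E3 | RcC θ' θ'' (nP θ' f m y) m m'} =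
      {_y : E3 | ‖cen θ' m' - cen θ' m‖ ≤ 16 * θ''} ∩
      {y : E3 | ‖cen θ' m' - cen θ' m - (inner ℝ (nP θ' f m y) (cen θ' m' - cen θ' m) : ℝ) •
        nP θ' f m y‖ ≤ 64 * θ'} := by
    ext y
    rfl
  rw [e]
  refine (MeasurableSet.const _).inter (measurableSet_le ?_ measurable_const)
  have h2 : Measurable fun y : E3 => (inner ℝ (nP θ' f m y) (cen θ' m' - cen θ' m) : ℝ) :=
    h1.inner measurable_const
  exact (measurable_const.sub (h2.smul h1)).norm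

theorem measurable_clsC {θ κ θ' θ'' : ℝ} (hg : Integrable g) (ζ : E3 × ℝ) (f : Cf E2)
    (m : ℤ × ℤ) : Measurable (clsC nA T0 K0 n θ κ θ' θ'' g S ζ f m) := by
  classical
  have hA : ∀ m', Measurable fun y => Adc n θ κ θ' g S m' (ζ.1 + y) ζ.2 := fun m' =>
    (measurable_Adc θ κ θ' hg m' ζ.2).comp (measurable_const.add measurable_id)
  unfold clsC clsA Acl101.pr
  have h1 : Measurable fun y => pcnt (caps θ')
      (fun m' y => Adc n θ κ θ' g S m' (ζ.1 + y) ζ.2) (RcC θ' θ'') (ENNReal.ofReal K0)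
      (nP θ' f m y) m y := by
    have e : (fun y => pcnt (caps θ')
      (fun m' y => Adc n θ κ θ' g S m' (ζ.1 + y) ζ.2) (RcC θ' θ'') (ENNReal.ofReal K0)
      (nP θ' f m y) m y) = fun y => ∑ m' ∈ caps θ',
        if RcC θ' θ'' (nP θ' f m y) m m' ∧ Adc n θ κ θ' g S m (ζ.1 + y) ζ.2 ≤
          ENNReal.ofReal K0 * Adc n θ κ θ' g S m' (ζ.1 + y) ζ.2 then 1 else 0 := by
      funext y
      unfold pcnt
      rw [Finset.card_filter]
    rw [e]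
    refine Finset.measurable_sum _ fun m' _ => ?_
    refine Measurable.ite ?_ measurable_const measurable_const
    exact (measurableSet_RcC θ' θ'' f m m').inter
      (measurableSet_le (hA m) ((hA m').const_mul _))
  have h2 := (measurable_from_top (f := Nat.log 2)).comp h1
  exact ((Acl101.measurable_dy nA (ENNReal.ofReal T0)).comp (hA m)).add (h2.const_mul _)

theorem clsC_lt {θ κ θ' θ'' : ℝ} (ζ : E3 × ℝ) (f : Cf E2) (m : ℤ × ℤ) (y : E3) :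
    clsC nA T0 K0 n θ κ θ' θ'' g S ζ f m y < (nA + 1) * (Nat.log 2 (caps θ').card + 1) :=
  Acl101.clsA_lt _ m y

/-! ### decoding -/

/-- **density and count of a point of the class `c`** (not clipped). -/
theorem cls_point {θ κ θ' θ'' : ℝ} (h1 : 0 ≤ θ') (h2 : 0 ≤ θ'') (hT0 : 0 ≤ T0) (hK0 : 1 ≤ K0)
    {ζ : E3 × ℝ} {f : Cf E2} {m : ℤ × ℤ} {y : E3} {c : ℕ}
    (hc : clsC nA T0 K0 n θ κ θ' θ'' g S ζ f m y = c) (hcn : c % (nA + 1) < nA)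
    (hT : Adc n θ κ θ' g S m (ζ.1 + y) ζ.2 ≤ ENNReal.ofReal T0) (hm : m ∈ caps θ') :
    ENNReal.ofReal (A0 nA T0 c) ≤ Adc n θ κ θ' g S m (ζ.1 + y) ζ.2 ∧
      Adc n θ κ θ' g S m (ζ.1 + y) ζ.2 ≤ ENNReal.ofReal (2 * A0 nA T0 c) ∧
      p0 nA c ≤ (potc n θ κ θ' θ'' K0 g S (nP θ' f m y) m (ζ.1 + y) ζ.2 : ℝ) ∧
      (potc n θ κ θ' θ'' K0 g S (nP θ' f m y) m (ζ.1 + y) ζ.2 : ℝ) < 2 * p0 nA c := by
  obtain ⟨a1, a2, a3, a4⟩ := Acl101.clsA_spec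
    (A := fun m' y => Adc n θ κ θ' g S m' (ζ.1 + y) ζ.2) (b := nP θ' f m y) hc hcn hT hm
    (RcC_refl h1 h2 _ m) (ENNReal.one_le_ofReal.2 hK0)
  rw [ofReal_A0 hT0, ENNReal.ofReal_mul (by norm_num), ofReal_A0 hT0, ENNReal.ofReal_ofNat,
    potc_eq]
  refine ⟨a1.le, a2, ?_, ?_⟩
  · unfold p0; exact_mod_cast a3
  · unfold p0; exact_mod_cast a4

/-- tiny class: the density is at most `T0 / 2 ^ nA`. -/
theorem cls_tiny {θ κ θ' θ'' : ℝ}
    {ζ : E3 × ℝ} {f : Cf E2} {m : ℤ × ℤ} {y : E3} {c : ℕ}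
    (hc : clsC nA T0 K0 n θ κ θ' θ'' g S ζ f m y = c) (hcn : ¬ c % (nA + 1) < nA)
    (hT : Adc n θ κ θ' g S m (ζ.1 + y) ζ.2 ≤ ENNReal.ofReal T0) :
    Adc n θ κ θ' g S m (ζ.1 + y) ζ.2 ≤ ENNReal.ofReal (T0 / 2 ^ nA) := by
  have := Acl101.clsA_tiny (A := fun m' y => Adc n θ κ θ' g S m' (ζ.1 + y) ζ.2) hc hcn hT
  rwa [ENNReal.ofReal_div_of_pos (by positivity), ENNReal.ofReal_pow (by norm_num),
    ENNReal.ofReal_ofNat]

/-- **child classes**: all points of the plates are in the class `c`. -/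
theorem chi_of {dl r1 : ℝ} (hr : 0 < r1) (hd : 0 < dl) (hT0 : 0 ≤ T0) (hK0 : 1 ≤ K0) {c : ℕ}
    (hcn : c % (nA + 1) < nA) {I : Finset ℕ} {P : ℕ → Plate}
    (hcap : ∀ i ∈ I, ∀ m, m ∉ caps (an (dl * r1)) → (P i).S m = ∅)
    (hT : ∀ i ∈ I, ∀ m, ∀ y ∈ (P i).S m,
      Adc n (an r1) κ (an (dl * r1)) g S m ((P i).z.1 + y) (P i).z.2 ≤ ENNReal.ofReal T0)
    (hc : ∀ i ∈ I, ∀ m, ∀ y ∈ (P i).S m,
      clsC nA T0 K0 n (an r1) κ (an (dl * r1)) (an (dl * (dl * r1))) g S (P i).z (P i).f m y = c) :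
    Chi n K0 κ g dl r1 (A0 nA T0 c) (p0 nA c) S I P := by
  have p1 : 0 ≤ an (dl * r1) := (Real.rpow_pos_of_pos (mul_pos hd hr) _).le
  have p2 : 0 ≤ an (dl * (dl * r1)) := (Real.rpow_pos_of_pos (mul_pos hd (mul_pos hd hr)) _).le
  have key : ∀ i ∈ I, ∀ m, ∀ y ∈ (P i).S m, m ∈ caps (an (dl * r1)) := by
    intro i hi m y hy
    by_contra hcon
    rw [hcap i hi m hcon] at hy
    exact hy
  refine ⟨fun i hi m y hy => ?_, fun i hi m y hy => ?_, fun i hi m y hy => ?_⟩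
  · exact (cls_point p1 p2 hT0 hK0 (hc i hi m y hy) hcn (hT i hi m y hy) (key i hi m y hy)).1
  · refine (cls_point p1 p2 hT0 hK0 (hc i hi m y hy) hcn (hT i hi m y hy)
      (key i hi m y hy)).2.1.trans (ENNReal.ofReal_le_ofReal ?_)
    have := A0_nonneg (nA := nA) hT0 c
    linarith
  · exact (cls_point p1 p2 hT0 hK0 (hc i hi m y hy) hcn (hT i hi m y hy) (key i hi m y hy)).2.2.1

/-- the coherence number is bounded by `CP dl^(-1/2)` as soon as the class has a point. -/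
theorem p0_le {r dl θ κ : ℝ} (hr : 0 < r) (hd : 0 < dl) (hd1 : dl ≤ 1) (hT0 : 0 ≤ T0)
    (hK0 : 1 ≤ K0) {ζ : E3 × ℝ} {f : Cf E2} {m : ℤ × ℤ} {y : E3} {c : ℕ}
    (hf : ‖nP (an r) f m y‖ = 1)
    (hc : clsC nA T0 K0 n θ κ (an r) (an (dl * r)) g S ζ f m y = c) (hcn : c % (nA + 1) < nA)
    (hT : Adc n θ κ (an r) g S m (ζ.1 + y) ζ.2 ≤ ENNReal.ofReal T0) (hm : m ∈ caps (an r)) :
    p0 nA c ≤ CP * dl ^ (-(1/2) : ℝ) :=
  (cls_point (Real.rpow_pos_of_pos hr _).le (Real.rpow_pos_of_pos (mul_pos hd hr) _).le hT0 hK0 hc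
    hcn hT hm).2.2.1.trans (potc_le' hr hd hd1 θ hf m _ _)

/-- **coherence of the parent** (level `i`, scale `dl * r0`) from its classes relative to the level
`h` (scale `r0`), in one frame `ζ`: `pp = 2 p0`. -/
theorem coh_of (HC : COHu_C) : ∃ d0 : ℝ, 0 < d0 ∧ d0 ≤ 1 ∧ ∀ n : ℕ, ∃ Cn : ℝ, 1 ≤ Cn ∧
    ∀ (r0 dl Y T0 K0 κ : ℝ) (nA c : ℕ) (g0 : E3 → ℂ)
    (S0 : ℤ × ℤ → Set E3) (ζ : E3 × ℝ) (I1 : Finset ℕ) (P1 : ℕ → Plate),
    1 ≤ dl * r0 → 0 < dl → dl ≤ d0 → 1 ≤ Y → Y ≤ dl ^ (-(1/4) : ℝ) → Cn * Y ^ n ≤ K0 →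
    |ζ.2| ≤ r0 → 0 ≤ T0 → 0 < κ → κ ≤ dl ^ (4 : ℕ) →
    c % (nA + 1) < nA → (∀ m, MeasurableSet (S0 m)) →
    (∀ i ∈ I1, ∀ m, m ∉ caps (an (dl * r0)) → (P1 i).S m = ∅) →
    (∀ i ∈ I1, ∀ m, ∀ y ∈ (P1 i).S m,
      1/2 ≤ ‖(P1 i).f.gr (cen (an (dl * r0)) m) (lat y) 0‖) →
    (∀ i ∈ I1, ∀ m, ∀ y ∈ (P1 i).S m,
      Adc n (an r0) κ (an (dl * r0)) g0 S0 m (ζ.1 + y) ζ.2 ≤ ENNReal.ofReal T0) →
    (∀ i ∈ I1, ∀ m, ∀ y ∈ (P1 i).S m,
      clsC nA T0 K0 n (an r0) κ (an (dl * r0)) (an (dl * (dl * r0))) g0 S0 ζ (P1 i).f m y = c) →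
    Coh (an (dl * r0)) (an (dl * (dl * r0))) κ (dl ^ (1/2 : ℝ)) Y (2 * (dl * r0)) I1 P1
      (2 * p0 nA c) := by
  obtain ⟨d0, hd0, hd01, H⟩ := HC
  refine ⟨d0, hd0, hd01, fun n => ?_⟩
  obtain ⟨Cn, hCn, H⟩ := H n
  refine ⟨Cn, hCn, ?_⟩
  intro r0 dl Y T0 K0 κ nA c g0 S0 ζ I1 P1 hr hd hdd hY1 hY2 hK0 hζ hT0 hκ hκ4 hcn hS0 hcap hgr hT hc
  have hr0 : 0 < r0 := by
    by_contra hcon
    push Not at hcon
    nlinarith
  have p1 : 0 ≤ an (dl * r0) := (Real.rpow_pos_of_pos (mul_pos hd hr0) _).le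
  have p2 : 0 ≤ an (dl * (dl * r0)) := (Real.rpow_pos_of_pos (mul_pos hd (mul_pos hd hr0)) _).le
  have hA := A0_nonneg (nA := nA) hT0 c
  have hK1 : 1 ≤ K0 := by
    refine le_trans ?_ hK0
    have := one_le_pow₀ hY1 (n := n)
    nlinarith
  refine H r0 dl Y K0 (A0 nA T0 c) (2 * p0 nA c) κ g0 S0 ζ I1 P1 hr hd hdd hY1 hY2 hK0 hζ hA
    (by linarith [p0_ge (nA := nA) c]) hκ hκ4 hS0 ?_ hgr
  intro i hi m y hy
  have hm : m ∈ caps (an (dl * r0)) := by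
    by_contra hcon
    rw [hcap i hi m hcon] at hy
    exact hy
  obtain ⟨a1, a2, -, a4⟩ := cls_point p1 p2 hT0 hK1 (hc i hi m y hy) hcn
    (hT i hi m y hy) hm
  exact ⟨a1, a2.trans (ENNReal.ofReal_le_ofReal (by linarith)), a4.le⟩

end Crest.Agent.R116.Chc299
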