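import Mathlib

/-!
# R116 (S0155), wave side: counting of the cells which meet a curved slab (helper538)

`count_cells`: cells `u × u × τ` which contain a point with `|f| ≤ h u`, `|∇ f| ≥ 1/3` in one of the
first two coordinates, `f = α + β1 w1 + β2 w2 + γ ν + d (w1² + w2²)`.
-/

set_option autoImplicit false

namespace Crest.Agent.R116.Ckm538

theorem card_le_of_close (A : Finset ℤ) {D : ℝ} (hD : 0 ≤ D)
    (h : ∀ a ∈ A, ∀ b ∈ A, |(a : ℝ) - b| ≤ D) : (A.card : ℝ) ≤ D + 1 := by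
  rcases A.eq_empty_or_nonempty with h0 | h0
  · rw [h0, Finset.card_empty]; push_cast; linarith
  · have hsub : A ⊆ Finset.Icc (A.min' h0) (A.max' h0) := fun x hx =>
      Finset.mem_Icc.2 ⟨A.min'_le x hx, A.le_max' x hx⟩
    have h1 := Finset.card_le_card hsub
    rw [Int.card_Icc] at h1
    have h2 : A.min' h0 ≤ A.max' h0 := A.min'_le_max' h0
    have h3 : ((A.max' h0 + 1 - A.min' h0).toNat : ℤ) = A.max' h0 + 1 - A.min' h0 :=
      Int.toNat_of_nonneg (by omega)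
    have h4 : (((A.max' h0 + 1 - A.min' h0).toNat : ℕ) : ℝ) =
        (A.max' h0 : ℝ) + 1 - A.min' h0 := by
      rw [← Int.cast_natCast (R := ℝ), h3]; push_cast; ring
    have h5 := h _ (A.max'_mem h0) _ (A.min'_mem h0)
    have h6 := (abs_le.1 h5).2
    calc (A.card : ℝ) ≤ ((A.max' h0 + 1 - A.min' h0).toNat : ℕ) := by exact_mod_cast h1
      _ = (A.max' h0 : ℝ) + 1 - A.min' h0 := h4
      _ ≤ D + 1 := by linarith

theorem col {β d t t' X : ℝ} (h : |β * t + d * t ^ 2 - (β * t' + d * t' ^ 2)| ≤ X)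
    (h1 : 1 / 3 ≤ β + 2 * d * t) (h2 : 1 / 3 ≤ β + 2 * d * t') : |t - t'| ≤ 3 * X := by
  have e : β * t + d * t ^ 2 - (β * t' + d * t' ^ 2) = (t - t') * (β + d * (t + t')) := by ring
  have h3 : 1 / 3 ≤ β + d * (t + t') := by linarith
  rw [e, abs_mul, abs_of_pos (by linarith : 0 < β + d * (t + t'))] at h
  nlinarith [abs_nonneg (t - t')]

theorem floor_mem' {x u a : ℝ} (hu : 0 < u) (hx : |x| ≤ a * u) :
    ⌊x / u⌋ ∈ Finset.Icc (-⌈a⌉) ⌈a⌉ := by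
  have h3 : |x / u| ≤ a := by
    rw [abs_div, abs_of_pos hu, div_le_iff₀ hu]
    exact hx
  obtain ⟨h4, h5⟩ := abs_le.1 h3
  have h6 := Int.le_ceil a
  rw [Finset.mem_Icc]
  constructor
  · rw [Int.le_floor]; push_cast; linarith
  · have : ((⌊x / u⌋ : ℤ) : ℝ) ≤ (⌈a⌉ : ℤ) := (Int.floor_le _).trans (h5.trans h6)
    exact_mod_cast this

theorem card_Icc_ceil' {a : ℝ} (ha : 0 ≤ a) : ((Finset.Icc (-⌈a⌉) ⌈a⌉).card : ℝ) ≤ 2 * a + 3 := by
  rw [Int.card_Icc]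
  have h1 := Int.ceil_lt_add_one a
  have h0 : (0 : ℤ) ≤ ⌈a⌉ := Int.ceil_nonneg ha
  have h2 : ((⌈a⌉ + 1 - -⌈a⌉).toNat : ℤ) = 2 * ⌈a⌉ + 1 := by omega
  have h3 : (((⌈a⌉ + 1 - -⌈a⌉).toNat : ℤ) : ℝ) = 2 * ⌈a⌉ + 1 := by rw [h2]; push_cast; ring
  rw [← Int.cast_natCast (R := ℝ), h3]
  linarith

theorem floor_dist {x x' u : ℝ} (hu : 0 < u) {D : ℝ} (h : |x - x'| ≤ D * u) :
    |(⌊x / u⌋ : ℝ) - ⌊x' / u⌋| ≤ D + 1 := by
  have h1 := Int.floor_le (x / u)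
  have h2 := Int.lt_floor_add_one (x / u)
  have h3 := Int.floor_le (x' / u)
  have h4 := Int.lt_floor_add_one (x' / u)
  have h5 : |x / u - x' / u| ≤ D := by
    rw [← sub_div, abs_div, abs_of_pos hu, div_le_iff₀ hu]; exact h
  obtain ⟨h6, h7⟩ := abs_le.1 h5
  rw [abs_le]
  constructor <;> linarith

theorem same_floor {x x' u : ℝ} (hu : 0 < u) (h : ⌊x / u⌋ = ⌊x' / u⌋) : |x - x'| ≤ u := by
  have h1 := Int.floor_le (x / u)
  have h2 := Int.lt_floor_add_one (x / u)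
  have h3 := Int.floor_le (x' / u)
  have h4 := Int.lt_floor_add_one (x' / u)
  rw [h] at h1 h2
  have h5 : |x / u - x' / u| ≤ 1 := by
    rw [abs_le]; constructor <;> linarith
  rw [← sub_div, abs_div, abs_of_pos hu, div_le_iff₀ hu] at h5
  linarith

/-- one coordinate, one sign. -/
theorem count_one (Ks : Finset (ℤ × ℤ × ℤ)) (P : ℤ × ℤ × ℤ → ℝ × ℝ × ℝ)
    {u τ a b h G α β1 β2 γ d : ℝ} (hu : 0 < u) (hτ : 0 < τ) (ha0 : 0 ≤ a) (hb0 : 0 ≤ b)
    (hh : 0 ≤ h) (hG0 : 0 ≤ G)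
    (hcell : ∀ k ∈ Ks, k = (⌊(P k).1 / u⌋, ⌊(P k).2.1 / u⌋, ⌊(P k).2.2 / τ⌋))
    (ha : ∀ k ∈ Ks, |(P k).2.1| ≤ a * u ∧ |(P k).2.2| ≤ b * τ)
    (hf : ∀ k ∈ Ks, |α + β1 * (P k).1 + β2 * (P k).2.1 + γ * (P k).2.2 +
      d * ((P k).1 ^ 2 + (P k).2.1 ^ 2)| ≤ h * u)
    (hγ : |γ| * τ ≤ h * u) (hG2 : |β2| + 2 * |d| * (a * u) ≤ G)
    (hgr : ∀ k ∈ Ks, 1 / 3 ≤ β1 + 2 * d * (P k).1) :
    (Ks.card : ℝ) ≤ (3 * (3 * h + G) + 2) * ((2 * a + 3) * (2 * b + 3)) := by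
  classical
  set f : ℤ × ℤ × ℤ → ℤ × ℤ := fun k => k.2 with hfdef
  set D : ℝ := 3 * (3 * h + G) + 1 with hD
  have hD0 : 0 ≤ D := by positivity
  have hfib : ∀ c ∈ Ks.image f, (Ks.filter fun x => f x = c).card ≤ ⌊D + 1⌋₊ := by
    intro c _
    refine Nat.le_floor ?_
    have hinj : Set.InjOn (fun k : ℤ × ℤ × ℤ => k.1) (Ks.filter fun x => f x = c : Finset _) := by
      intro k hk k' hk' hkk
      have h1 := (Finset.mem_filter.1 (Finset.mem_coe.1 hk)).2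
      have h2 := (Finset.mem_filter.1 (Finset.mem_coe.1 hk')).2
      exact Prod.ext hkk (h1.trans h2.symm)
    rw [← Finset.card_image_of_injOn hinj]
    refine card_le_of_close _ hD0 ?_
    intro i hi j hj
    obtain ⟨k, hk, rfl⟩ := Finset.mem_image.1 hi
    obtain ⟨k', hk', rfl⟩ := Finset.mem_image.1 hj
    obtain ⟨hk1, hk2⟩ := Finset.mem_filter.1 hk
    obtain ⟨hk1', hk2'⟩ := Finset.mem_filter.1 hk'
    have e := hcell k hk1
    have e' := hcell k' hk1'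
    have e2 : k.2 = k'.2 := hk2.trans hk2'.symm
    have hv : |(P k).2.1 - (P k').2.1| ≤ u := by
      refine same_floor hu ?_
      have h1 : k.2.1 = ⌊(P k).2.1 / u⌋ := congrArg (fun z : ℤ × ℤ × ℤ => z.2.1) e
      have h2 : k'.2.1 = ⌊(P k').2.1 / u⌋ := congrArg (fun z : ℤ × ℤ × ℤ => z.2.1) e'
      rw [← h1, ← h2, e2]
    have hν : |(P k).2.2 - (P k').2.2| ≤ τ := by
      refine same_floor hτ ?_
      have h1 : k.2.2 = ⌊(P k).2.2 / τ⌋ := congrArg (fun z : ℤ × ℤ × ℤ => z.2.2) e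
      have h2 : k'.2.2 = ⌊(P k').2.2 / τ⌋ := congrArg (fun z : ℤ × ℤ × ℤ => z.2.2) e'
      rw [← h1, ← h2, e2]
    set t := (P k).1 with ht
    set t' := (P k').1 with ht'
    set v := (P k).2.1 with hvd
    set v' := (P k').2.1 with hvd'
    set ν := (P k).2.2 with hνd
    set ν' := (P k').2.2 with hνd'
    have h1 := hf k hk1
    have h2 := hf k' hk1'
    rw [← ht, ← hvd, ← hνd] at h1
    rw [← ht', ← hvd', ← hνd'] at h2
    have h3 : |(v - v') * (β2 + d * (v + v'))| ≤ u * G := by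
      rw [abs_mul]
      refine mul_le_mul hv ?_ (abs_nonneg _) hu.le
      refine (abs_add_le _ _).trans (le_trans ?_ hG2)
      rw [abs_mul]
      have h4 : |v + v'| ≤ 2 * (a * u) := by
        refine (abs_add_le _ _).trans ?_
        have := (ha k hk1).1
        have := (ha k' hk1').1
        linarith
      have := mul_le_mul_of_nonneg_left h4 (abs_nonneg d)
      linarith
    have h4 : |γ * (ν - ν')| ≤ h * u := by
      rw [abs_mul]
      exact (mul_le_mul_of_nonneg_left hν (abs_nonneg _)).trans hγ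
    have h5 : |β1 * t + d * t ^ 2 - (β1 * t' + d * t' ^ 2)| ≤ (3 * h + G) * u := by
      have e3 : β1 * t + d * t ^ 2 - (β1 * t' + d * t' ^ 2) =
          (α + β1 * t + β2 * v + γ * ν + d * (t ^ 2 + v ^ 2)) -
          (α + β1 * t' + β2 * v' + γ * ν' + d * (t' ^ 2 + v' ^ 2)) -
          (v - v') * (β2 + d * (v + v')) - γ * (ν - ν') := by ring
      rw [e3]
      refine (abs_sub _ _).trans ?_
      refine (add_le_add ((abs_sub _ _).trans (add_le_add ((abs_sub _ _).trans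
        (add_le_add h1 h2)) h3)) h4).trans (le_of_eq ?_)
      ring
    have h6 := col h5 (hgr k hk1) (hgr k' hk1')
    have h7 : |t - t'| ≤ (3 * (3 * h + G)) * u := by linarith
    have h8 := floor_dist hu h7
    have h9 : k.1 = ⌊t / u⌋ := congrArg (fun z : ℤ × ℤ × ℤ => z.1) e
    have h10 : k'.1 = ⌊t' / u⌋ := congrArg (fun z : ℤ × ℤ × ℤ => z.1) e'
    change |((k.1 : ℤ) : ℝ) - ((k'.1 : ℤ) : ℝ)| ≤ D
    rw [h9, h10]
    exact h8
  have h1 := Finset.card_le_mul_card_image Ks ⌊D + 1⌋₊ hfib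
  have h2 : Ks.image f ⊆ Finset.Icc (-⌈a⌉) ⌈a⌉ ×ˢ Finset.Icc (-⌈b⌉) ⌈b⌉ := by
    intro c hc
    obtain ⟨k, hk, rfl⟩ := Finset.mem_image.1 hc
    have e := hcell k hk
    have h3 : k.2.1 = ⌊(P k).2.1 / u⌋ := congrArg (fun z : ℤ × ℤ × ℤ => z.2.1) e
    have h4 : k.2.2 = ⌊(P k).2.2 / τ⌋ := congrArg (fun z : ℤ × ℤ × ℤ => z.2.2) e
    rw [Finset.mem_product]
    simp only [hfdef]
    rw [h3, h4]
    exact ⟨floor_mem' hu (ha k hk).1, floor_mem' hτ (ha k hk).2⟩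
  have h3 : ((Ks.image f).card : ℝ) ≤ (2 * a + 3) * (2 * b + 3) := by
    calc ((Ks.image f).card : ℝ) ≤
        ((Finset.Icc (-⌈a⌉) ⌈a⌉ ×ˢ Finset.Icc (-⌈b⌉) ⌈b⌉).card : ℕ) := by
          exact_mod_cast Finset.card_le_card h2
      _ ≤ _ := by
          rw [Finset.card_product]
          push_cast
          exact mul_le_mul (card_Icc_ceil' ha0) (card_Icc_ceil' hb0) (Nat.cast_nonneg _)
            (by positivity)
  calc (Ks.card : ℝ) ≤ ((⌊D + 1⌋₊ * (Ks.image f).card : ℕ) : ℝ) := by exact_mod_cast h1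
    _ = (⌊D + 1⌋₊ : ℝ) * (Ks.image f).card := by push_cast; ring
    _ ≤ (D + 1) * ((2 * a + 3) * (2 * b + 3)) :=
        mul_le_mul (Nat.floor_le (by positivity)) h3 (Nat.cast_nonneg _) (by positivity)
    _ = _ := by rw [hD]; ring

/-- trivial count. -/
theorem count_all (Ks : Finset (ℤ × ℤ × ℤ)) (P : ℤ × ℤ × ℤ → ℝ × ℝ × ℝ)
    {u τ a b : ℝ} (hu : 0 < u) (hτ : 0 < τ) (ha0 : 0 ≤ a) (hb0 : 0 ≤ b)
    (hcell : ∀ k ∈ Ks, k = (⌊(P k).1 / u⌋, ⌊(P k).2.1 / u⌋, ⌊(P k).2.2 / τ⌋))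
    (ha : ∀ k ∈ Ks, |(P k).1| ≤ a * u ∧ |(P k).2.1| ≤ a * u ∧ |(P k).2.2| ≤ b * τ) :
    (Ks.card : ℝ) ≤ (2 * a + 3) * ((2 * a + 3) * (2 * b + 3)) := by
  have h2 : Ks ⊆ Finset.Icc (-⌈a⌉) ⌈a⌉ ×ˢ (Finset.Icc (-⌈a⌉) ⌈a⌉ ×ˢ Finset.Icc (-⌈b⌉) ⌈b⌉) := by
    intro k hk
    have e := hcell k hk
    have h0 : k.1 = ⌊(P k).1 / u⌋ := congrArg (fun z : ℤ × ℤ × ℤ => z.1) e
    have h3 : k.2.1 = ⌊(P k).2.1 / u⌋ := congrArg (fun z : ℤ × ℤ × ℤ => z.2.1) e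
    have h4 : k.2.2 = ⌊(P k).2.2 / τ⌋ := congrArg (fun z : ℤ × ℤ × ℤ => z.2.2) e
    rw [Finset.mem_product, Finset.mem_product, h0, h3, h4]
    exact ⟨floor_mem' hu (ha k hk).1, floor_mem' hu (ha k hk).2.1, floor_mem' hτ (ha k hk).2.2⟩
  calc (Ks.card : ℝ) ≤ ((Finset.Icc (-⌈a⌉) ⌈a⌉ ×ˢ
        (Finset.Icc (-⌈a⌉) ⌈a⌉ ×ˢ Finset.Icc (-⌈b⌉) ⌈b⌉)).card : ℕ) := by
        exact_mod_cast Finset.card_le_card h2
    _ ≤ _ := by
        rw [Finset.card_product, Finset.card_product]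
        push_cast
        exact mul_le_mul (card_Icc_ceil' ha0) (mul_le_mul (card_Icc_ceil' ha0)
          (card_Icc_ceil' hb0) (Nat.cast_nonneg _) (by positivity)) (by positivity) (by positivity)

open Classical in
/-- **cells which meet a curved slab**. -/
theorem count_cells (Ks : Finset (ℤ × ℤ × ℤ)) (P : ℤ × ℤ × ℤ → ℝ × ℝ × ℝ)
    {u τ a b h G α β1 β2 γ d : ℝ} (hu : 0 < u) (hτ : 0 < τ) (ha0 : 0 ≤ a) (hb0 : 0 ≤ b)
    (hh : 0 ≤ h) (hG0 : 0 ≤ G)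
    (hcell : ∀ k ∈ Ks, k = (⌊(P k).1 / u⌋, ⌊(P k).2.1 / u⌋, ⌊(P k).2.2 / τ⌋))
    (ha : ∀ k ∈ Ks, |(P k).1| ≤ a * u ∧ |(P k).2.1| ≤ a * u ∧ |(P k).2.2| ≤ b * τ)
    (hf : ∀ k ∈ Ks, |α + β1 * (P k).1 + β2 * (P k).2.1 + γ * (P k).2.2 +
      d * ((P k).1 ^ 2 + (P k).2.1 ^ 2)| ≤ h * u)
    (hγ : |γ| * τ ≤ h * u) (hG1 : |β1| + 2 * |d| * (a * u) ≤ G)
    (hG2 : |β2| + 2 * |d| * (a * u) ≤ G)
    (hgr : ∀ k ∈ Ks, 1 / 3 ≤ |β1 + 2 * d * (P k).1| ∨ 1 / 3 ≤ |β2 + 2 * d * (P k).2.1|) :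
    (Ks.card : ℝ) ≤ 4 * (3 * (3 * h + G) + 2) * ((2 * a + 3) * (2 * b + 3)) := by
  set X : ℝ := (3 * (3 * h + G) + 2) * ((2 * a + 3) * (2 * b + 3)) with hX
  set A1 := Ks.filter (fun k => 1 / 3 ≤ β1 + 2 * d * (P k).1) with hA1
  set A2 := Ks.filter (fun k => 1 / 3 ≤ -β1 + 2 * (-d) * (P k).1) with hA2
  set A3 := Ks.filter (fun k => 1 / 3 ≤ β2 + 2 * d * (P k).2.1) with hA3
  set A4 := Ks.filter (fun k => 1 / 3 ≤ -β2 + 2 * (-d) * (P k).2.1) with hA4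
  have hsub : Ks ⊆ (A1 ∪ A2) ∪ (A3 ∪ A4) := by
    intro k hk
    simp only [Finset.mem_union, hA1, hA2, hA3, hA4, Finset.mem_filter]
    rcases hgr k hk with h1 | h1
    · left
      rcases le_abs.1 h1 with h2 | h2
      · exact Or.inl ⟨hk, h2⟩
      · exact Or.inr ⟨hk, by linarith⟩
    · right
      rcases le_abs.1 h1 with h2 | h2
      · exact Or.inl ⟨hk, h2⟩
      · exact Or.inr ⟨hk, by linarith⟩
  have h1 : (A1.card : ℝ) ≤ X := by
    refine count_one A1 P (α := α) (γ := γ) hu hτ ha0 hb0 hh hG0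
      (fun k hk => hcell k (Finset.mem_filter.1 hk).1)
      (fun k hk => (ha k (Finset.mem_filter.1 hk).1).2)
      (fun k hk => hf k (Finset.mem_filter.1 hk).1) hγ hG2
      (fun k hk => (Finset.mem_filter.1 hk).2)
  have h2 : (A2.card : ℝ) ≤ X := by
    refine count_one A2 P (α := -α) (β2 := -β2) (γ := -γ) hu hτ ha0 hb0 hh hG0
      (fun k hk => hcell k (Finset.mem_filter.1 hk).1)
      (fun k hk => (ha k (Finset.mem_filter.1 hk).1).2)
      (fun k hk => ?_) (by rwa [abs_neg]) (by rwa [abs_neg, abs_neg])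
      (fun k hk => (Finset.mem_filter.1 hk).2)
    have := hf k (Finset.mem_filter.1 hk).1
    rw [← abs_neg] at this
    refine (le_of_eq ?_).trans this
    congr 1
    ring
  -- the second coordinate
  set sw : ℤ × ℤ × ℤ → ℤ × ℤ × ℤ := fun k => (k.2.1, k.1, k.2.2) with hsw
  have hsw2 : ∀ k, sw (sw k) = k := fun k => rfl
  have hinj : Function.Injective sw := fun k k' h => by
    rw [← hsw2 k, ← hsw2 k', h]
  set P' : ℤ × ℤ × ℤ → ℝ × ℝ × ℝ := fun k => ((P (sw k)).2.1, (P (sw k)).1, (P (sw k)).2.2)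
    with hP'
  have hmem : ∀ (A : Finset (ℤ × ℤ × ℤ)) (k), k ∈ A.image sw → sw k ∈ A := by
    intro A k hk
    obtain ⟨k', hk', rfl⟩ := Finset.mem_image.1 hk
    rwa [hsw2]
  have hcell' : ∀ A : Finset (ℤ × ℤ × ℤ), A ⊆ Ks → ∀ k ∈ A.image sw,
      k = (⌊(P' k).1 / u⌋, ⌊(P' k).2.1 / u⌋, ⌊(P' k).2.2 / τ⌋) := by
    intro A hA k hk
    have e := hcell (sw k) (hA (hmem A k hk))
    have e2 := congrArg sw e
    rw [hsw2] at e2
    exact e2
  have h3 : (A3.card : ℝ) ≤ X := by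
    rw [← Finset.card_image_of_injective A3 hinj]
    refine count_one (A3.image sw) P' (α := α) (β1 := β2) (β2 := β1) (γ := γ) (d := d)
      hu hτ ha0 hb0 hh hG0 (hcell' A3 (Finset.filter_subset _ _))
      (fun k hk => ?_) (fun k hk => ?_) hγ hG1 (fun k hk => ?_)
    · have := ha _ (Finset.mem_filter.1 (hmem A3 k hk)).1
      exact ⟨this.1, this.2.2⟩
    · have := hf _ (Finset.mem_filter.1 (hmem A3 k hk)).1
      refine (le_of_eq ?_).trans this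
      congr 1
      simp only [hP']
      ring
    · exact (Finset.mem_filter.1 (hmem A3 k hk)).2
  have h4 : (A4.card : ℝ) ≤ X := by
    rw [← Finset.card_image_of_injective A4 hinj]
    refine count_one (A4.image sw) P' (α := -α) (β1 := -β2) (β2 := -β1) (γ := -γ) (d := -d)
      hu hτ ha0 hb0 hh hG0 (hcell' A4 (Finset.filter_subset _ _))
      (fun k hk => ?_) (fun k hk => ?_) (by rwa [abs_neg]) (by rwa [abs_neg, abs_neg])
      (fun k hk => ?_)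
    · have := ha _ (Finset.mem_filter.1 (hmem A4 k hk)).1
      exact ⟨this.1, this.2.2⟩
    · have := hf _ (Finset.mem_filter.1 (hmem A4 k hk)).1
      rw [← abs_neg] at this
      refine (le_of_eq ?_).trans this
      congr 1
      simp only [hP']
      ring
    · exact (Finset.mem_filter.1 (hmem A4 k hk)).2
  have h5 : (Ks.card : ℝ) ≤ ((A1.card + A2.card) + (A3.card + A4.card) : ℕ) := by
    have h6 := (Finset.card_le_card hsub).trans (Finset.card_union_le _ _)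
    have h7 := Finset.card_union_le A1 A2
    have h8 := Finset.card_union_le A3 A4
    exact_mod_cast h6.trans (add_le_add h7 h8)
  push_cast at h5
  calc (Ks.card : ℝ) ≤ 4 * X := by linarith
    _ = _ := by rw [hX]; ring

end Crest.Agent.R116.Ckm538
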