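import Crest.Agent.R116.Ckm1_538
import Crest.Agent.R116.Ckm2_538
import Crest.Agent.R116.LKMDef_299

/-!
# R116 (S0155), wave side: covering of a member by members of smaller aperture (helper538)

`Good K B m C y` : the ray `(C, y)` (position `y` at time `0`) is `K`-close to the member `m`.
`thk_good` : rays of one plank cell around a ray of the member are good.
`sub_ok`, `sub_rays` : sub-members of aperture `σ ≤ sg` (thin side `B ≤ B'`).
-/

set_option autoImplicit false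

namespace Crest.Agent.R116.Ckm538

open Crest.Agent.R138.Defs (E2)
open Crest.Agent.R116.CDef480
open Crest.Agent.R116.LZg725 (Cf Mem rx ry InK Adm)
open Crest.Agent.R116.LKMDef299 (Cpt SSg)

/-- the ray `(C, y)` is `K`-close to the member `m` (thin side `B`, base time `0`). -/
structure Good (K B : ℝ) (m : Mem) (C : E2) (y : E3) : Prop where
  dir : ‖C - m.c‖ ≤ m.sg
  lt : ‖lat y - lat m.X0‖ ≤ K * (m.sg * m.R)
  nr : |nrm m.c y 0 - nrm m.c m.X0 0| ≤ K * (m.T B * m.R)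
  ev : |m.phi.ev (lat y) (y 2) 0| ≤ K * (m.s1 * m.R)
  ld : |m.phi.ld C (lat y) (y 2) 0| ≤ K * m.s1

theorem ld_of_ends {e l s1 R : ℝ} (hR : 0 < R) (h1 : |e + R * l| ≤ s1 * R)
    (h2 : |e + -R * l| ≤ s1 * R) : |l| ≤ s1 := by
  obtain ⟨a1, a2⟩ := abs_le.1 h1
  obtain ⟨b1, b2⟩ := abs_le.1 h2
  rw [abs_le]
  constructor
  · have : R * (-s1) ≤ R * l := by nlinarith
    exact le_of_mul_le_mul_left this hR
  · have : R * l ≤ R * s1 := by nlinarith
    exact le_of_mul_le_mul_left this hR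

/-- rays of the member. -/
theorem rays_good {B : ℝ} {m : Mem} (hR : 0 < m.R) (hs0 : m.s0 = 0) {C : E2} {y : E3}
    (h : (C, lat y, y 2) ∈ m.rays B) : Good 1 B m C y := by
  obtain ⟨h1, h2⟩ := h
  have key : ∀ s : ℝ, |s| ≤ m.R → InK m.c m.sg (m.T B) m.R (lat m.X0) (m.X0 2) 0
      (rx C (lat y) s) (ry C (y 2) s) s ∧
      |m.phi.ev (rx C (lat y) s) (ry C (y 2) s) s| ≤ m.s1 * m.R := by
    intro s hs
    have h3 := h2 s (by rw [hs0, sub_zero]; exact hs)
    obtain ⟨h4, h5⟩ := h3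
    unfold Mem.box at h4
    rw [Set.mem_ofPred_eq, LZg725.lat_rpos, LZg725.rpos_two, hs0] at h4
    unfold Cf.val at h5
    rw [LZg725.lat_rpos, LZg725.rpos_two] at h5
    exact ⟨h4, h5⟩
  have h0 := key 0 (by rw [abs_zero]; exact hR.le)
  have e1 : rx C (lat y) 0 = lat y := by unfold LZg725.rx; rw [zero_smul, sub_zero]
  have e2 : ry C (y 2) 0 = y 2 := by unfold LZg725.ry; ring
  rw [e1, e2] at h0
  obtain ⟨⟨_, h4, h5⟩, h6⟩ := h0
  have hl : ∀ s : ℝ, m.phi.ev (rx C (lat y) s) (ry C (y 2) s) s =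
      m.phi.ev (lat y) (y 2) 0 + s * m.phi.ld C (lat y) (y 2) 0 := by
    intro s
    have := Cf.ev_along m.phi C (lat y) (y 2) 0 s
    rw [zero_add] at this
    rw [← this]
    rfl
  refine ⟨h1, ?_, ?_, ?_, ?_⟩
  · rw [one_mul]
    rwa [sub_self, zero_smul, add_zero] at h4
  · rw [one_mul]; exact h5
  · rw [one_mul]; exact h6
  · rw [one_mul]
    have h7 := (key m.R (by rw [abs_of_pos hR])).2
    have h8 := (key (-m.R) (by rw [abs_neg, abs_of_pos hR])).2
    rw [hl] at h7 h8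
    exact ld_of_ends hR h7 h8

section

variable {M B : ℝ} {m : Mem}

theorem ny0 (h : m.Ok M B) (hs0 : m.s0 = 0) : |m.phi.ny 0| * m.T B ≤ M * m.sg := by
  refine h.adm.ny 0 ?_
  rw [hs0, sub_zero, abs_zero]; exact h.hR.le

theorem ny0_sg (hM : 0 ≤ M) (h : m.Ok M B) (hs0 : m.s0 = 0) : |m.phi.ny 0| * m.sg ≤ M :=
  LZg725.ny_sg_le h.sg_pos (m.sq_le_T B) (abs_nonneg _) hM (ny0 h hs0)

theorem nys_sg (hM : 0 ≤ M) (h : m.Ok M B) {s : ℝ} (hs : |s - m.s0| ≤ m.R) :
    |m.phi.ny s| * m.sg ≤ M :=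
  LZg725.ny_sg_le h.sg_pos (m.sq_le_T B) (abs_nonneg _) hM (h.adm.ny s hs)

/-- `2 |d| sg R ≤ M`. -/
theorem d_sg (hM : 0 ≤ M) (h : m.Ok M B) : 2 * |m.phi.d| * (m.sg * m.R) ≤ M := by
  have h1 := h.adm.d_le h.hR.le h.T_pos.le
  have h2 : (2 * |m.phi.d| * m.R) * m.T B ≤ M * m.sg := by
    calc (2 * |m.phi.d| * m.R) * m.T B = 2 * |m.phi.d| * (m.T B * m.R) := by ring
      _ ≤ _ := h1
  have h3 := LZg725.ny_sg_le h.sg_pos (m.sq_le_T B)
    (by have := h.hR; positivity) hM h2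
  calc 2 * |m.phi.d| * (m.sg * m.R) = 2 * |m.phi.d| * m.R * m.sg := by ring
    _ ≤ _ := h3

/-- the gradient at good rays. -/
theorem gr_good {K : ℝ} (hM : 0 ≤ M) (h : m.Ok M B) (hs0 : m.s0 = 0) {C : E2} {y : E3}
    (hg : Good K B m C y) {μ : ℝ} (hμ : 0 ≤ μ) (hμ1 : K * m.s1 ≤ μ * m.sg) :
    |‖m.phi.gr C (lat y) 0‖ ^ 2 - 1| ≤ 4 * (M * μ) := by
  refine LZg725.gr_sq_near h.hR h.sg_pos (m.sq_le_T B) hM hμ h.adm.disc (y := y 2)
    (ny0 h hs0) (h.adm.d_le h.hR.le h.T_pos.le) (hg.ld.trans hμ1) ?_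
  refine hg.ev.trans ?_
  calc K * (m.s1 * m.R) = (K * m.s1) * m.R := by ring
    _ ≤ (μ * m.sg) * m.R := mul_le_mul_of_nonneg_right hμ1 h.hR.le
    _ = _ := by ring

theorem gr_good_le {K : ℝ} (hM : 0 ≤ M) (h : m.Ok M B) (hs0 : m.s0 = 0) (hK : 0 ≤ K) {C : E2}
    {y : E3} (hg : Good K B m C y) : ‖m.phi.gr C (lat y) 0‖ ≤ 1 + 2 * (M * K) :=
  LZg725.norm_le_of_sq_near (by positivity)
    (gr_good hM h hs0 hg hK (mul_le_mul_of_nonneg_left h.hsg hK))

theorem T_ge (h : m.Ok M B) : B ≤ m.T B * m.R := by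
  have h1 : B / m.R ≤ m.T B := le_max_right _ _
  rwa [div_le_iff₀ h.hR] at h1

/-- **thickening by one plank cell**. -/
theorem thk_good (hM : 1 ≤ M) (h : m.Ok M B) (hs0 : m.s0 = 0) (hc : Cpt M B m) {w : ℝ}
    (hw : 0 ≤ w) (hw1 : w ≤ m.s1 * m.R) {C : E2} {y y' : E3} (hB : 0 ≤ B)
    (hg : Good 1 B m C y') (h1 : ‖lat (y - y')‖ ≤ w) (h2 : |nrm C (y - y') 0| ≤ B) :
    Good (2 + 4 * M) B m C y := by
  have hM0 : 0 ≤ M := by linarith
  have hR := h.hR
  have hsg := h.sg_pos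
  have hs1 := h.hs1
  have hT := h.T_pos
  have hsqT := m.sq_le_T B
  have hBT := T_ge h
  have hwsg : w ≤ m.sg * m.R := hw1.trans (mul_le_mul_of_nonneg_right h.hsg hR.le)
  have hny0 : |m.phi.ny 0| * B ≤ M * (m.s1 * m.R) := by
    refine hc 0 ?_
    rw [hs0, sub_zero, abs_zero]; exact hR.le
  refine ⟨hg.dir, ?_, ?_, ?_, ?_⟩
  · have h3 : lat y - lat m.X0 = (lat y' - lat m.X0) + lat (y - y') := by
      rw [lat_sub]; abel
    rw [h3]
    refine (norm_add_le _ _).trans ?_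
    have h4 := hg.lt
    have h5 : 0 ≤ m.sg * m.R := by positivity
    nlinarith
  · have h3 : nrm m.c y 0 - nrm m.c m.X0 0 = (nrm m.c y' 0 - nrm m.c m.X0 0) +
        (nrm C (y - y') 0 + inner ℝ (m.c - C) (lat (y - y'))) := by
      rw [nrm_sub0, inner_sub_left, nrm_zero, nrm_zero, nrm_zero, nrm_zero, nrm_zero, lat_sub,
        inner_sub_right, inner_sub_right]
      ring
    rw [h3]
    have h4 := hg.nr
    have h5 : |inner ℝ (m.c - C) (lat (y - y'))| ≤ m.sg * w := by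
      refine (abs_real_inner_le_norm _ _).trans (mul_le_mul ?_ h1 (norm_nonneg _) hsg.le)
      rw [norm_sub_rev]; exact hg.dir
    have h6 : m.sg * w ≤ m.T B * m.R := by
      calc m.sg * w ≤ m.sg * (m.sg * m.R) := mul_le_mul_of_nonneg_left hwsg hsg.le
        _ = m.sg ^ 2 * m.R := by ring
        _ ≤ _ := mul_le_mul_of_nonneg_right hsqT hR.le
    have h7 : 0 ≤ m.T B * m.R := by positivity
    refine (abs_add_le _ _).trans ?_
    have h8 := abs_add_le (nrm C (y - y') 0) (inner ℝ (m.c - C) (lat (y - y')))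
    nlinarith
  · have h3 := Cf.ev_expand m.phi C (lat y') (y' 2) 0 (lat y) (y 2) 0
    rw [sub_self, zero_smul, add_zero, mul_zero, add_zero, mul_zero, zero_mul, sub_zero] at h3
    have e1 : lat y - lat y' = lat (y - y') := by rw [lat_sub]
    have e2 : LZg725.nrm C (lat y) (y 2) 0 - LZg725.nrm C (lat y') (y' 2) 0 =
        nrm C (y - y') 0 := by
      rw [nrm_sub0]; rfl
    rw [e1, e2] at h3
    rw [h3]
    have h4 := hg.ev
    rw [one_mul] at h4
    have h5 := gr_good_le hM0 h hs0 zero_le_one hg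
    have h6 : |inner ℝ (m.phi.gr C (lat y') 0) (lat (y - y'))| ≤ (1 + 2 * M) * w := by
      refine (abs_real_inner_le_norm _ _).trans (mul_le_mul ?_ h1 (norm_nonneg _) (by positivity))
      rw [mul_one] at h5
      exact h5
    have h7 : |m.phi.ny 0 * nrm C (y - y') 0| ≤ M * (m.s1 * m.R) := by
      rw [abs_mul]
      exact (mul_le_mul_of_nonneg_left h2 (abs_nonneg _)).trans hny0
    have h8 : |m.phi.d * ‖lat (y - y')‖ ^ 2| ≤ M * (m.s1 * m.R) := by
      rw [abs_mul, abs_of_nonneg (sq_nonneg ‖lat (y - y')‖)]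
      have h9 : ‖lat (y - y')‖ ^ 2 ≤ w ^ 2 := pow_le_pow_left₀ (norm_nonneg _) h1 2
      have h10 := d_sg hM0 h
      have h11 : w ^ 2 ≤ (m.sg * m.R) * (m.s1 * m.R) := by
        rw [sq]; exact mul_le_mul hwsg hw1 hw (by positivity)
      have h12 : 0 ≤ |m.phi.d| := abs_nonneg _
      calc |m.phi.d| * ‖lat (y - y')‖ ^ 2 ≤ |m.phi.d| * ((m.sg * m.R) * (m.s1 * m.R)) :=
            mul_le_mul_of_nonneg_left (h9.trans h11) h12
        _ ≤ 2 * |m.phi.d| * (m.sg * m.R) * (m.s1 * m.R) := by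
            have : 0 ≤ |m.phi.d| * ((m.sg * m.R) * (m.s1 * m.R)) := by positivity
            nlinarith
        _ ≤ _ := mul_le_mul_of_nonneg_right h10 (by positivity)
    have h13 : |m.phi.ev (lat y') (y' 2) 0 + inner ℝ (m.phi.gr C (lat y') 0) (lat (y - y')) +
        m.phi.ny 0 * nrm C (y - y') 0 + m.phi.d * ‖lat (y - y')‖ ^ 2| ≤
        m.s1 * m.R + (1 + 2 * M) * w + M * (m.s1 * m.R) + M * (m.s1 * m.R) := by
      refine (abs_add_le _ _).trans (add_le_add ?_ h8)
      refine (abs_add_le _ _).trans (add_le_add ?_ h7)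
      exact (abs_add_le _ _).trans (add_le_add h4 h6)
    refine h13.trans ?_
    have h14 : (1 + 2 * M) * w ≤ (1 + 2 * M) * (m.s1 * m.R) :=
      mul_le_mul_of_nonneg_left hw1 (by positivity)
    nlinarith
  · have h3 := Cf.ld_move m.phi C (lat y') (lat y) (y' 2) (y 2) 0 0
    have e2 : LZg725.nrm C (lat y) (y 2) 0 - LZg725.nrm C (lat y') (y' 2) 0 =
        nrm C (y - y') 0 := by
      rw [nrm_sub0]; rfl
    rw [e2] at h3
    rw [h3]
    have h4 := hg.ld
    rw [one_mul] at h4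
    have h5 : 2 * |m.phi.d| * (B * m.R) ≤ M * (m.s1 * m.R) :=
      LZg725.d_le_of_ny hR.le hB hc
    have h6 : 2 * |m.phi.d| * B ≤ M * m.s1 := by
      have : (2 * |m.phi.d| * B) * m.R ≤ (M * m.s1) * m.R := by
        calc (2 * |m.phi.d| * B) * m.R = 2 * |m.phi.d| * (B * m.R) := by ring
          _ ≤ _ := h5
          _ = _ := by ring
      exact le_of_mul_le_mul_right this hR
    have h7 : |2 * m.phi.d * nrm C (y - y') 0| ≤ M * m.s1 := by
      rw [abs_mul, abs_mul, abs_of_pos (two_pos : (0:ℝ) < 2)]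
      exact (mul_le_mul_of_nonneg_left h2 (by positivity)).trans h6
    refine (abs_sub _ _).trans ?_
    have h8 : 0 ≤ M * m.s1 := by positivity
    nlinarith

/-! ### sub-members -/

/-- a unit vector. -/
noncomputable def e0 : E2 := !₂[1, 0]

theorem norm_e0 : ‖e0‖ = 1 := by
  have h : ‖e0‖ ^ 2 = 1 := by
    rw [normsq2]; simp [e0]
  nlinarith [norm_nonneg e0, sq_nonneg (‖e0‖ - 1)]

/-- the linear conformal function `⟨e0, (x - x_g) + s ξ⟩`. -/
noncomputable def linf (ξ : E2) (xg : E2) : Cf E2 := ⟨-inner ℝ e0 xg, inner ℝ e0 ξ, e0, 0, 0⟩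

theorem linf_ev (ξ xg x : E2) (y s : ℝ) :
    (linf ξ xg).ev x y s = inner ℝ e0 ((x - xg) + s • ξ) := by
  unfold linf Cf.ev
  simp only [inner_add_right, inner_sub_right, real_inner_smul_right]
  ring

theorem linf_ny (ξ xg : E2) (s : ℝ) : (linf ξ xg).ny s = 0 := by
  unfold linf Cf.ny; simp

theorem linf_disc (ξ xg : E2) : (linf ξ xg).disc = 1 := by
  unfold linf Cf.disc; simp [norm_e0]

theorem linf_ld (ξ xg x : E2) (y s : ℝ) : (linf ξ xg).ld ξ x y s = 0 := by
  unfold linf Cf.ld Cf.ny; simp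

/-- the sub-member of direction `ξ`, aperture `σ`, length `m.R / L`, centred at `yg`. -/
noncomputable def sub (K L σ : ℝ) (ξ : E2) (m : Mem) (yg : E3) : Mem :=
  ⟨ξ, σ, min (2 * K * L * m.s1) σ, m.R / L, yg, 0,
    if 2 * K * L * m.s1 ≤ σ then m.phi else linf ξ (lat yg)⟩

theorem sub_c (K L σ : ℝ) (ξ : E2) (m : Mem) (yg : E3) : (sub K L σ ξ m yg).c = ξ := rfl
theorem sub_sg (K L σ : ℝ) (ξ : E2) (m : Mem) (yg : E3) : (sub K L σ ξ m yg).sg = σ := rfl
theorem sub_s1 (K L σ : ℝ) (ξ : E2) (m : Mem) (yg : E3) :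
    (sub K L σ ξ m yg).s1 = min (2 * K * L * m.s1) σ := rfl
theorem sub_R (K L σ : ℝ) (ξ : E2) (m : Mem) (yg : E3) :
    (sub K L σ ξ m yg).R = m.R / L := rfl
theorem sub_X0 (K L σ : ℝ) (ξ : E2) (m : Mem) (yg : E3) : (sub K L σ ξ m yg).X0 = yg := rfl
theorem sub_s0 (K L σ : ℝ) (ξ : E2) (m : Mem) (yg : E3) : (sub K L σ ξ m yg).s0 = 0 := rfl

theorem sub_T (K L σ : ℝ) (ξ : E2) (m : Mem) (yg : E3) (B : ℝ) :
    (sub K L σ ξ m yg).T B = max (σ ^ 2) (B / (m.R / L)) := rfl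

/-- constant of the sub-members. -/
noncomputable def M1 (M K : ℝ) : ℝ := 2 + 2 * M + M * K

theorem sub_ok {K L σ B' : ℝ} (hM : 1 ≤ M) (h : m.Ok M B) (hs0 : m.s0 = 0) (hc : Cpt M B m)
    (hK : 1 ≤ K) (hL : 1 ≤ L) (hσ : 0 < σ) (hσ1 : σ ≤ m.sg) (hB : B' ≤ B) {ξ : E2} {C : E2}
    {yg : E3} (hg : Good K B m C yg) (hξ : ‖ξ - C‖ ≤ σ / 2) :
    (sub K L σ ξ m yg).Ok (M1 M K) B' ∧ Cpt (M1 M K) B' (sub K L σ ξ m yg) := by
  have hM0 : 0 ≤ M := by linarith
  have hK0 : 0 ≤ K := by linarith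
  have hL0 : 0 < L := by linarith
  have hR := h.hR
  have hs1 := h.hs1
  set R : ℝ := m.R / L with hRd
  have hR0 : 0 < R := by positivity
  have hRR : R ≤ m.R := div_le_self hR.le hL
  have hRL : m.R = L * R := by rw [hRd]; field_simp
  have hM1 : 1 ≤ M1 M K := by unfold M1; nlinarith [mul_nonneg hM0 hK0]
  have hMM1 : M ≤ M1 M K := by unfold M1; nlinarith [mul_nonneg hM0 hK0]
  have hM10 : 0 ≤ M1 M K := by linarith
  have hs1' : 0 < min (2 * K * L * m.s1) σ := lt_min (by positivity) hσ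
  by_cases hcase : 2 * K * L * m.s1 ≤ σ
  · -- same function
    have ephi : (sub K L σ ξ m yg).phi = m.phi := if_pos hcase
    have hKL : 1 ≤ K * L := by nlinarith
    have hLs1 : L * m.s1 ≤ σ := by
      have : L * m.s1 ≤ 2 * K * L * m.s1 := by
        have h1 : 0 ≤ L * m.s1 := by positivity
        nlinarith
      linarith
    have hKs1 : K * L * m.s1 ≤ σ / 2 := by linarith
    have hmin : min (2 * K * L * m.s1) σ = 2 * K * L * m.s1 := min_eq_left hcase
    have hny : ∀ s, |s| ≤ R → |m.phi.ny s| * σ ^ 2 ≤ M * σ ∧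
        |m.phi.ny s| * B' ≤ M * (L * m.s1 * R) := by
      intro s hs
      have hs' : |s - m.s0| ≤ m.R := by rw [hs0, sub_zero]; exact hs.trans hRR
      have h1 := nys_sg hM0 h hs'
      constructor
      · have h2 : |m.phi.ny s| * σ ≤ M :=
          (mul_le_mul_of_nonneg_left hσ1 (abs_nonneg _)).trans h1
        calc |m.phi.ny s| * σ ^ 2 = (|m.phi.ny s| * σ) * σ := by ring
          _ ≤ M * σ := mul_le_mul_of_nonneg_right h2 hσ.le
      · refine (mul_le_mul_of_nonneg_left hB (abs_nonneg _)).trans ((hc s hs').trans ?_)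
        rw [hRL]
        exact le_of_eq (by ring)
    constructor
    · refine ⟨hR0, hs1', min_le_right _ _, ?_⟩
      rw [sub_c, sub_sg, sub_R, sub_X0, sub_s0, sub_T, ephi]
      refine ⟨h.adm.disc, fun s hs => ?_, ?_, ?_⟩
      · rw [sub_zero] at hs
        obtain ⟨h1, h2⟩ := hny s hs
        rw [mul_max_of_nonneg _ _ (abs_nonneg _)]
        refine max_le ?_ ?_
        · exact h1.trans (mul_le_mul_of_nonneg_right hMM1 hσ.le)
        · rw [← mul_div_assoc, div_le_iff₀ hR0]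
          refine h2.trans ?_
          calc M * (L * m.s1 * R) ≤ M * (σ * R) := by gcongr
            _ ≤ M1 M K * (σ * R) := by gcongr
            _ = _ := by ring
      · have h1 := Cf.ld_dir m.phi C ξ (lat yg) (yg 2) 0
        rw [h1]
        have h2 := hg.ld
        have h3 := gr_good_le hM0 h hs0 hK0 hg
        have h4 : |inner ℝ (m.phi.gr C (lat yg) 0) (ξ - C)| ≤ (1 + 2 * (M * K)) * (σ / 2) :=
          (abs_real_inner_le_norm _ _).trans (mul_le_mul h3 hξ (norm_nonneg _) (by positivity))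
        have h5 : |m.phi.ny 0 * ‖ξ - C‖ ^ 2 / 2| ≤ M * σ := by
          rw [abs_div, abs_mul, abs_of_nonneg (sq_nonneg ‖ξ - C‖),
            abs_of_pos (two_pos : (0:ℝ) < 2)]
          have h6 : ‖ξ - C‖ ^ 2 ≤ σ ^ 2 := by
            refine (pow_le_pow_left₀ (norm_nonneg _) hξ 2).trans ?_
            nlinarith [sq_nonneg σ]
          have h7 := (hny 0 (by rw [abs_zero]; exact hR0.le)).1
          have h8 : |m.phi.ny 0| * ‖ξ - C‖ ^ 2 ≤ |m.phi.ny 0| * σ ^ 2 :=
            mul_le_mul_of_nonneg_left h6 (abs_nonneg _)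
          have h9 : 0 ≤ |m.phi.ny 0| * ‖ξ - C‖ ^ 2 := by positivity
          linarith
        have h6 : |m.phi.ld C (lat yg) (yg 2) 0 - inner ℝ (m.phi.gr C (lat yg) 0) (ξ - C) +
            m.phi.ny 0 * ‖ξ - C‖ ^ 2 / 2| ≤ K * m.s1 + (1 + 2 * (M * K)) * (σ / 2) + M * σ :=
          (abs_add_le _ _).trans (add_le_add ((abs_sub _ _).trans (add_le_add h2 h4)) h5)
        refine h6.trans ?_
        have h7 : K * m.s1 ≤ σ / 2 := by
          have : K * m.s1 ≤ K * L * m.s1 := by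
            have h8 : 0 ≤ K * m.s1 := by positivity
            nlinarith
          linarith
        unfold M1
        nlinarith [mul_nonneg (mul_nonneg hM0 hK0) hσ.le, mul_nonneg hM0 hσ.le]
      · refine hg.ev.trans ?_
        calc K * (m.s1 * m.R) = (K * L * m.s1) * R := by rw [hRL]; ring
          _ ≤ σ * R := mul_le_mul_of_nonneg_right (by linarith) hR0.le
          _ = 1 * σ * R := by ring
          _ ≤ M1 M K * σ * R := by gcongr
    · intro s hs
      rw [sub_s0, sub_R, sub_zero] at hs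
      rw [ephi, sub_s1, sub_R, hmin]
      refine (hny s hs).2.trans ?_
      calc M * (L * m.s1 * R) ≤ M1 M K * (L * m.s1 * R) := by gcongr
        _ ≤ M1 M K * ((2 * K * L * m.s1) * R) := by
            have : L * m.s1 ≤ 2 * K * L * m.s1 := by
              have h1 : 0 ≤ L * m.s1 := by positivity
              nlinarith
            gcongr
        _ = _ := by ring
  · -- linear function
    have ephi : (sub K L σ ξ m yg).phi = linf ξ (lat yg) := if_neg hcase
    constructor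
    · refine ⟨hR0, hs1', min_le_right _ _, ?_⟩
      rw [sub_c, sub_sg, sub_R, sub_X0, sub_s0, sub_T, ephi]
      refine ⟨linf_disc _ _, fun s _ => ?_, ?_, ?_⟩
      · rw [linf_ny, abs_zero, zero_mul]; positivity
      · rw [linf_ld, abs_zero]; positivity
      · rw [linf_ev, sub_self, zero_smul, add_zero, inner_zero_right, abs_zero]; positivity
    · intro s _
      rw [ephi, linf_ny, abs_zero, zero_mul, sub_s1, sub_R]; positivity

/-- rays of the cell are rays of the sub-member. -/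
theorem sub_rays {K L σ B' : ℝ} (h : m.Ok M B) (hK : 0 ≤ K) (hL : 1 ≤ L) (hσ : 0 < σ)
    {ξ : E2} {C : E2} {yg y : E3} (hg : Good K B m C y) (hξ : ‖C - ξ‖ ≤ σ / 2)
    (hlat : ‖lat y - lat yg‖ ≤ σ * (m.R / L) / 2)
    (hnrm : |nrm ξ y 0 - nrm ξ yg 0| ≤ max (σ ^ 2) (B' / (m.R / L)) * (m.R / L) / 2) :
    (C, lat y, y 2) ∈ (sub K L σ ξ m yg).rays B' := by
  have hR := h.hR
  have hs1 := h.hs1
  have hL0 : 0 < L := by linarith
  set R : ℝ := m.R / L with hRd
  have hR0 : 0 < R := by positivity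
  have hRL : m.R = L * R := by rw [hRd]; field_simp
  refine ⟨?_, fun s hs => ?_⟩
  · rw [sub_c, sub_sg]; linarith
  · rw [sub_s0, sub_R, sub_zero] at hs
    have hsR : |s| ≤ R := hs
    have hbox : ‖(rx C (lat y) s - lat yg) + s • ξ‖ ≤ σ * R := by
      have e : (rx C (lat y) s - lat yg) + s • ξ = (lat y - lat yg) - s • (C - ξ) := by
        unfold LZg725.rx; module
      rw [e]
      refine (norm_sub_le _ _).trans ?_
      rw [norm_smul, Real.norm_eq_abs]
      have := mul_le_mul hsR hξ (norm_nonneg _) hR0.le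
      linarith
    refine ⟨?_, ?_⟩
    · unfold Mem.box
      rw [Set.mem_ofPred_eq, LZg725.lat_rpos, LZg725.rpos_two, sub_c, sub_sg, sub_R, sub_X0,
        sub_s0, sub_T]
      refine ⟨by rw [sub_zero]; exact hsR, by rw [sub_zero]; exact hbox, ?_⟩
      have e1 := LZg725.nrm_ray' ξ C (lat y) (y 2) s
      have e2 : nrm ξ y 0 = y 2 + inner ℝ ξ (lat y) := nrm_zero ξ y
      have e3 : LZg725.nrm ξ (lat yg) (yg 2) 0 = nrm ξ yg 0 := rfl
      change |LZg725.nrm ξ (rx C (lat y) s) (ry C (y 2) s) s -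
        LZg725.nrm ξ (lat yg) (yg 2) 0| ≤ max (σ ^ 2) (B' / R) * R
      rw [e1, e3]
      have e4 : y 2 + inner ℝ ξ (lat y) + s * ‖C - ξ‖ ^ 2 / 2 - nrm ξ yg 0 =
          (nrm ξ y 0 - nrm ξ yg 0) + s * (‖C - ξ‖ ^ 2 / 2) := by rw [e2]; ring
      rw [e4]
      refine (abs_add_le _ _).trans ?_
      rw [abs_mul, abs_of_nonneg (a := ‖C - ξ‖ ^ 2 / 2) (by positivity)]
      have h6 : ‖C - ξ‖ ^ 2 / 2 ≤ max (σ ^ 2) (B' / R) / 2 := by
        have h7 : ‖C - ξ‖ ^ 2 ≤ σ ^ 2 := by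
          refine (pow_le_pow_left₀ (norm_nonneg _) hξ 2).trans ?_
          nlinarith [sq_nonneg σ]
        have h8 := le_max_left (σ ^ 2) (B' / R)
        linarith
      have h9 : |s| * (‖C - ξ‖ ^ 2 / 2) ≤ R * (max (σ ^ 2) (B' / R) / 2) :=
        mul_le_mul hsR h6 (by positivity) hR0.le
      nlinarith
    · unfold Cf.val
      rw [LZg725.lat_rpos, LZg725.rpos_two, sub_s1, sub_R]
      change |(sub K L σ ξ m yg).phi.ev (rx C (lat y) s) (ry C (y 2) s) s| ≤ _
      by_cases hcase : 2 * K * L * m.s1 ≤ σ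
      · have ephi : (sub K L σ ξ m yg).phi = m.phi := if_pos hcase
        rw [ephi, min_eq_left hcase]
        have hl : m.phi.ev (rx C (lat y) s) (ry C (y 2) s) s =
            m.phi.ev (lat y) (y 2) 0 + s * m.phi.ld C (lat y) (y 2) 0 := by
          have := Cf.ev_along m.phi C (lat y) (y 2) 0 s
          rw [zero_add] at this
          rw [← this]
          rfl
        rw [hl]
        refine (abs_add_le _ _).trans ?_
        rw [abs_mul]
        have h1 := hg.ev
        have h2 := mul_le_mul hsR hg.ld (abs_nonneg _) hR0.le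
        have h3 : K * (m.s1 * m.R) = K * L * m.s1 * R := by rw [hRL]; ring
        have h4 : R * (K * m.s1) ≤ K * L * m.s1 * R := by
          have h5 : 0 ≤ K * m.s1 * R := by positivity
          nlinarith
        linarith
      · have ephi : (sub K L σ ξ m yg).phi = linf ξ (lat yg) := if_neg hcase
        rw [ephi, linf_ev, min_eq_right (not_le.1 hcase).le]
        refine (abs_real_inner_le_norm _ _).trans ?_
        rw [norm_e0, one_mul]
        exact hbox

end

end Crest.Agent.R116.Ckm538
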