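import Crest.Agent.R116.Ckm3_538

/-!
# R116 (S0155), wave side: covering count (helper538)

`cover` : the good rays of a member `m` (constant `M`, thin side `B`) with slopes in a disc of radius
`σ / 2`, `σ ≤ sg`, are covered by members of aperture `σ`, thin side `B' ≤ B`, thin lateral side
`min (2 K s1) σ`, whose total section cost is at most `Cc * scost m`.
-/

set_option autoImplicit false

namespace Crest.Agent.R116.Ckm538

open Crest.Agent.R138.Defs (E2)
open Crest.Agent.R116.CDef480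
open Crest.Agent.R116.LZg725 (Cf Mem rx ry InK Adm)
open Crest.Agent.R116.LKMDef299 (Cpt SSg)

/-- index of the cell (relative to the centre of the member). -/
noncomputable def cidx (u τ : ℝ) (ξ : E2) (X0 y : E3) : ℤ × ℤ × ℤ :=
  (⌊(lat y - lat X0) 0 / u⌋, ⌊(lat y - lat X0) 1 / u⌋, ⌊(nrm ξ y 0 - nrm ξ X0 0) / τ⌋)

theorem comp_big {v : E2} (h : 1 / 2 ≤ ‖v‖) : 1 / 3 ≤ |v 0| ∨ 1 / 3 ≤ |v 1| := by
  by_contra hn
  rw [not_or, not_le, not_le] at hn
  obtain ⟨h0, h1⟩ := hn
  have h2 := normsq2 v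
  have h3 : (1 / 2 : ℝ) ^ 2 ≤ ‖v‖ ^ 2 := pow_le_pow_left₀ (by norm_num) h 2
  have h4 : v 0 ^ 2 ≤ (1 / 3) ^ 2 := by
    rw [← sq_abs]; exact pow_le_pow_left₀ (abs_nonneg _) h0.le 2
  have h5 : v 1 ^ 2 ≤ (1 / 3) ^ 2 := by
    rw [← sq_abs]; exact pow_le_pow_left₀ (abs_nonneg _) h1.le 2
  norm_num at h3 h4 h5
  linarith

theorem abs_comp_le (v : E2) (i : Fin 2) : |v i| ≤ ‖v‖ := by
  have := PiLp.norm_apply_le v i
  rwa [Real.norm_eq_abs] at this

/-- the gradient of the direction `ξ` at a good ray is large. -/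
theorem gr_big {M B K σ : ℝ} {m : Mem} (hM : 1 ≤ M) (h : m.Ok M B) (hs0 : m.s0 = 0) (hK : 1 ≤ K)
    {ξ C : E2} {y : E3} (hg : Good K B m C y) (hξ : ‖C - ξ‖ ≤ σ / 2)
    (h1 : 8 * M * K * m.s1 ≤ m.sg) (h2 : 5 * M * σ ≤ 2 * m.sg) :
    1 / 2 ≤ ‖m.phi.gr ξ (lat y) 0‖ := by
  have hM0 : 0 ≤ M := by linarith
  have hsg := h.sg_pos
  have hs1 := h.hs1
  have h3 := gr_good hM0 h hs0 hg (μ := K * m.s1 / m.sg) (by positivity)
    (by rw [div_mul_cancel₀ _ hsg.ne'])
  have h4 : 4 * (M * (K * m.s1 / m.sg)) ≤ 1 / 2 := by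
    have : 4 * (M * (K * m.s1 / m.sg)) = (8 * M * K * m.s1) / m.sg / 2 := by ring
    rw [this]
    have : 8 * M * K * m.s1 / m.sg ≤ 1 := by rw [div_le_one hsg]; exact h1
    linarith
  have h5 : 1 / 2 ≤ ‖m.phi.gr C (lat y) 0‖ ^ 2 := by
    have := (abs_le.1 (h3.trans h4)).1
    linarith
  have h6 : 7 / 10 ≤ ‖m.phi.gr C (lat y) 0‖ := by
    by_contra hn
    have hn' := not_le.1 hn
    have : ‖m.phi.gr C (lat y) 0‖ ^ 2 < (7 / 10) ^ 2 :=
      pow_lt_pow_left₀ hn' (norm_nonneg _) (by norm_num)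
    norm_num at this
    linarith
  have h7 := Cf.gr_dir m.phi C ξ (lat y) 0
  have h8 : ‖(m.phi.ny 0) • (ξ - C)‖ ≤ 1 / 5 := by
    rw [norm_smul, Real.norm_eq_abs]
    have h9 := ny0_sg hM0 h hs0
    have h10 : ‖ξ - C‖ ≤ σ / 2 := by rw [norm_sub_rev]; exact hξ
    have h11 : |m.phi.ny 0| * ‖ξ - C‖ ≤ |m.phi.ny 0| * (σ / 2) :=
      mul_le_mul_of_nonneg_left h10 (abs_nonneg _)
    have h12 : |m.phi.ny 0| * (5 * M * σ) ≤ |m.phi.ny 0| * (2 * m.sg) :=
      mul_le_mul_of_nonneg_left h2 (abs_nonneg _)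
    have h13 : M * (|m.phi.ny 0| * (5 * σ)) ≤ M * 2 := by nlinarith
    have h14 : |m.phi.ny 0| * (5 * σ) ≤ 2 := le_of_mul_le_mul_left h13 (by linarith)
    linarith
  have h9 : ‖m.phi.gr C (lat y) 0‖ ≤ ‖m.phi.gr ξ (lat y) 0‖ + ‖(m.phi.ny 0) • (ξ - C)‖ := by
    have : m.phi.gr C (lat y) 0 = m.phi.gr ξ (lat y) 0 + (m.phi.ny 0) • (ξ - C) := by
      rw [h7]; abel
    rw [this]
    exact norm_add_le _ _
  linarith

/-- the value of `φ` at time `0` in the coordinates of the frame `ξ`. -/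
theorem ev_cell (p : Cf E2) (ξ : E2) (X0 y : E3) :
    p.ev (lat y) (y 2) 0 = p.ev (lat X0) (X0 2) 0 +
      (p.gr ξ (lat X0) 0) 0 * (lat y - lat X0) 0 + (p.gr ξ (lat X0) 0) 1 * (lat y - lat X0) 1 +
      p.ny 0 * (nrm ξ y 0 - nrm ξ X0 0) +
      p.d * (((lat y - lat X0) 0) ^ 2 + ((lat y - lat X0) 1) ^ 2) := by
  have h3 := Cf.ev_expand p ξ (lat X0) (X0 2) 0 (lat y) (y 2) 0
  rw [sub_self, zero_smul, add_zero, mul_zero, add_zero, mul_zero, zero_mul, sub_zero,
    inner2, normsq2] at h3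
  rw [h3]
  have e2 : LZg725.nrm ξ (lat y) (y 2) 0 - LZg725.nrm ξ (lat X0) (X0 2) 0 =
      nrm ξ y 0 - nrm ξ X0 0 := rfl
  rw [e2]
  ring

/-- the gradient at `y`. -/
theorem gr_cell (p : Cf E2) (ξ : E2) (X0 y : E3) (i : Fin 2) :
    (p.gr ξ (lat y) 0) i = (p.gr ξ (lat X0) 0) i + 2 * p.d * (lat y - lat X0) i := by
  have h := Cf.gr_move p ξ (lat X0) (lat y) 0 0
  rw [sub_self, zero_smul, add_zero] at h
  rw [h]
  simp only [PiLp.add_apply, PiLp.smul_apply, smul_eq_mul]

/-- numerical constant of the covering. -/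
noncomputable def Cov (M K L : ℝ) : ℝ :=
  4 * K * L ^ 2 * ((4 * (9 * (4 * K + 2 * M) + 3 * (1 + 4 * M + M * K) + 2)) *
      ((8 * K * L + 3) * (10 * K + 3)) +
    (8 * M * K + 3 * M) * ((8 * K * L + 3) * ((8 * K * L + 3) * (10 * K + 3))))

theorem Cov_nonneg {M K L : ℝ} (hM : 1 ≤ M) (hK : 1 ≤ K) (hL : 1 ≤ L) : 0 ≤ Cov M K L := by
  unfold Cov
  have : 0 ≤ M := by linarith
  have : 0 ≤ K := by linarith
  have : 0 ≤ L := by linarith
  positivity

set_option maxHeartbeats 2000000 in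
/-- **covering of the good rays of a member of length `m.R` by members of aperture `σ`, length
`m.R / L`**. -/
theorem cover {M K L B B' σ : ℝ} (hM : 1 ≤ M) (hK : 1 ≤ K) (hL : 1 ≤ L) {m : Mem}
    (h : m.Ok M B) (hc : Cpt M B m) (hs0 : m.s0 = 0) (hσ : 0 < σ) (hσ1 : σ ≤ m.sg)
    (hB : B' ≤ B) (ξ : E2) (G : Set (E2 × E3))
    (hG : ∀ p ∈ G, Good K B m p.1 p.2 ∧ ‖p.1 - ξ‖ ≤ σ / 2) :
    ∃ (Ks : Finset (ℤ × ℤ × ℤ)) (mk : ℤ × ℤ × ℤ → Mem),
      (∀ k ∈ Ks, (mk k).Ok (M1 M K) B' ∧ Cpt (M1 M K) B' (mk k) ∧ (mk k).R = m.R / L ∧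
        (mk k).s0 = 0 ∧ (mk k).sg = σ ∧ (mk k).s1 = min (2 * K * L * m.s1) σ ∧
        ∃ p ∈ G, (mk k).X0 = p.2) ∧
      (∀ p ∈ G, ∃ k ∈ Ks, (p.1, lat p.2, p.2 2) ∈ (mk k).rays B') ∧
      (Ks.card : ℝ) * (min (2 * K * L * m.s1) σ * σ * max (σ ^ 2) (B' / (m.R / L))) ≤
        Cov M K L * (m.s1 * m.sg * m.T B) := by
  classical
  have hM0 : 0 ≤ M := by linarith
  have hK0 : 0 ≤ K := by linarith
  have hL0 : 0 < L := by linarith
  have hRm := h.hR
  have hs1 := h.hs1
  have hsg := h.sg_pos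
  have hT := h.T_pos
  have hsqT := m.sq_le_T B
  set R : ℝ := m.R / L with hRd
  have hR : 0 < R := by positivity
  have hRL : m.R = L * R := by rw [hRd]; field_simp
  set Ts : ℝ := max (σ ^ 2) (B' / R) with hTs
  have hTs0 : 0 < Ts := lt_of_lt_of_le (pow_pos hσ 2) (le_max_left _ _)
  have hTsT : Ts ≤ L * m.T B := by
    refine max_le ?_ ?_
    · refine ((pow_le_pow_left₀ hσ.le hσ1 2).trans hsqT).trans ?_
      nlinarith
    · have h1 : B / m.R ≤ m.T B := le_max_right _ _
      rw [div_le_iff₀ hRm] at h1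
      rw [div_le_iff₀ hR]
      calc B' ≤ B := hB
        _ ≤ m.T B * m.R := h1
        _ = _ := by rw [hRL]; ring
  set u : ℝ := σ * R / 4 with hu
  set τ : ℝ := Ts * R / 2 with hτ
  have hu0 : 0 < u := by positivity
  have hτ0 : 0 < τ := by positivity
  set a : ℝ := 4 * K * L * (m.sg / σ) with ha
  set b : ℝ := 5 * K * (L * m.T B / Ts) with hb
  have ha0 : 0 ≤ a := by positivity
  have hb0 : 0 ≤ b := by positivity
  have hau : a * u = K * (m.sg * m.R) := by
    rw [ha, hu, hRL]; field_simp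
  have hbτ : b * τ = 5 / 2 * K * (m.T B * m.R) := by
    rw [hb, hτ, hRL]; field_simp
  have hcoord : ∀ p ∈ G, |(lat p.2 - lat m.X0) 0| ≤ a * u ∧ |(lat p.2 - lat m.X0) 1| ≤ a * u ∧
      |nrm ξ p.2 0 - nrm ξ m.X0 0| ≤ b * τ := by
    intro p hp
    obtain ⟨hg, hξ⟩ := hG p hp
    have h1 := hg.lt
    rw [hau, hbτ]
    refine ⟨(abs_comp_le _ _).trans h1, (abs_comp_le _ _).trans h1, ?_⟩
    have h2 : nrm ξ p.2 0 - nrm ξ m.X0 0 = (nrm m.c p.2 0 - nrm m.c m.X0 0) +
        inner ℝ (ξ - m.c) (lat p.2 - lat m.X0) := by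
      rw [nrm_zero, nrm_zero, nrm_zero, nrm_zero, inner_sub_left, inner_sub_right,
        inner_sub_right]
      ring
    rw [h2]
    have h3 : ‖ξ - m.c‖ ≤ 3 / 2 * m.sg := by
      have h4 : ξ - m.c = (p.1 - m.c) - (p.1 - ξ) := by abel
      rw [h4]
      refine (norm_sub_le _ _).trans ?_
      have := hg.dir
      linarith
    have h4 : |inner ℝ (ξ - m.c) (lat p.2 - lat m.X0)| ≤ 3 / 2 * m.sg * (K * (m.sg * m.R)) :=
      (abs_real_inner_le_norm _ _).trans (mul_le_mul h3 h1 (norm_nonneg _) (by positivity))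
    have h5 : 3 / 2 * m.sg * (K * (m.sg * m.R)) ≤ 3 / 2 * K * (m.T B * m.R) := by
      calc 3 / 2 * m.sg * (K * (m.sg * m.R)) = 3 / 2 * K * (m.sg ^ 2 * m.R) := by ring
        _ ≤ _ := by gcongr
    have h6 := hg.nr
    refine (abs_add_le _ _).trans ?_
    linarith
  set idx : E2 × E3 → ℤ × ℤ × ℤ := fun p => cidx u τ ξ m.X0 p.2 with hidx
  set Big : Finset (ℤ × ℤ × ℤ) := Finset.Icc (-⌈a⌉) ⌈a⌉ ×ˢ
    (Finset.Icc (-⌈a⌉) ⌈a⌉ ×ˢ Finset.Icc (-⌈b⌉) ⌈b⌉) with hBig
  set Ks : Finset (ℤ × ℤ × ℤ) := Big.filter (fun k => ∃ p ∈ G, idx p = k) with hKs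
  have hKsm : ∀ k ∈ Ks, ∃ p ∈ G, idx p = k := fun k hk => (Finset.mem_filter.1 hk).2
  have hidxKs : ∀ p ∈ G, idx p ∈ Ks := by
    intro p hp
    refine Finset.mem_filter.2 ⟨?_, p, hp, rfl⟩
    obtain ⟨h1, h2, h3⟩ := hcoord p hp
    rw [hBig, Finset.mem_product, Finset.mem_product]
    exact ⟨floor_mem' hu0 h1, floor_mem' hu0 h2, floor_mem' hτ0 h3⟩
  set P : ℤ × ℤ × ℤ → E2 × E3 := fun k => if hk : ∃ p ∈ G, idx p = k then hk.choose else (0, 0)
    with hP
  have hPspec : ∀ k ∈ Ks, P k ∈ G ∧ idx (P k) = k := by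
    intro k hk
    have h1 := hKsm k hk
    have h2 : P k = h1.choose := by
      simp only [hP]
      rw [dif_pos h1]
    rw [h2]
    exact h1.choose_spec
  refine ⟨Ks, fun k => sub K L σ ξ m (P k).2, ?_, ?_, ?_⟩
  · intro k hk
    obtain ⟨hPG, _⟩ := hPspec k hk
    obtain ⟨hg, hξ⟩ := hG _ hPG
    obtain ⟨h1, h2⟩ := sub_ok hM h hs0 hc hK hL hσ hσ1 hB hg (by rw [norm_sub_rev]; exact hξ)
    exact ⟨h1, h2, rfl, rfl, rfl, rfl, P k, hPG, rfl⟩
  · intro p hp
    refine ⟨idx p, hidxKs p hp, ?_⟩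
    obtain ⟨hPG, hPi⟩ := hPspec _ (hidxKs p hp)
    obtain ⟨hg, hξ⟩ := hG p hp
    set yg : E3 := (P (idx p)).2 with hyg
    have e : cidx u τ ξ m.X0 yg = cidx u τ ξ m.X0 p.2 := hPi
    have e0 : ⌊(lat yg - lat m.X0) 0 / u⌋ = ⌊(lat p.2 - lat m.X0) 0 / u⌋ :=
      congrArg (fun z : ℤ × ℤ × ℤ => z.1) e
    have e1 : ⌊(lat yg - lat m.X0) 1 / u⌋ = ⌊(lat p.2 - lat m.X0) 1 / u⌋ :=
      congrArg (fun z : ℤ × ℤ × ℤ => z.2.1) e
    have e2 : ⌊(nrm ξ yg 0 - nrm ξ m.X0 0) / τ⌋ = ⌊(nrm ξ p.2 0 - nrm ξ m.X0 0) / τ⌋ :=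
      congrArg (fun z : ℤ × ℤ × ℤ => z.2.2) e
    have f0 := same_floor hu0 e0.symm
    have f1 := same_floor hu0 e1.symm
    have f2 := same_floor hτ0 e2.symm
    refine sub_rays h hK0 hL hσ hg hξ ?_ ?_
    · have h1 : ‖lat p.2 - lat yg‖ ≤ 2 * u := by
        refine norm2_le hu0.le ?_ ?_
        · refine (le_of_eq ?_).trans f0
          congr 1
          simp only [PiLp.sub_apply]
          ring
        · refine (le_of_eq ?_).trans f1
          congr 1
          simp only [PiLp.sub_apply]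
          ring
      refine h1.trans (le_of_eq ?_)
      rw [hu]; ring
    · refine (le_of_eq ?_).trans f2
      congr 1
      ring
  · -- the count
    set s1' : ℝ := min (2 * K * L * m.s1) σ with hs1'
    have hs1'0 : 0 < s1' := lt_min (by positivity) hσ
    set x : ℝ := m.sg / σ with hx
    set t : ℝ := L * m.T B / Ts with ht
    set z : ℝ := 1 + L * m.s1 / σ with hz
    have hx1 : 1 ≤ x := by rw [hx, le_div_iff₀ hσ, one_mul]; exact hσ1
    have ht1 : 1 ≤ t := by rw [ht, le_div_iff₀ hTs0, one_mul]; exact hTsT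
    have hz1 : 1 ≤ z := by
      have : 0 ≤ L * m.s1 / σ := by positivity
      linarith
    set Q : ℤ × ℤ × ℤ → ℝ × ℝ × ℝ := fun k => ((lat (P k).2 - lat m.X0) 0,
      (lat (P k).2 - lat m.X0) 1, nrm ξ (P k).2 0 - nrm ξ m.X0 0) with hQ
    have hcell : ∀ k ∈ Ks, k = (⌊(Q k).1 / u⌋, ⌊(Q k).2.1 / u⌋, ⌊(Q k).2.2 / τ⌋) := by
      intro k hk
      exact (hPspec k hk).2.symm
    have hrange : ∀ k ∈ Ks, |(Q k).1| ≤ a * u ∧ |(Q k).2.1| ≤ a * u ∧ |(Q k).2.2| ≤ b * τ :=
      fun k hk => hcoord _ (hPspec k hk).1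
    have h2a : 2 * a + 3 ≤ (8 * K * L + 3) * x := by
      rw [ha]; nlinarith
    have h2b : 2 * b + 3 ≤ (10 * K + 3) * t := by
      rw [hb]; nlinarith
    have h2a0 : 0 ≤ 2 * a + 3 := by positivity
    have h2b0 : 0 ≤ 2 * b + 3 := by positivity
    set H : ℝ := 4 * (9 * (4 * K + 2 * M) + 3 * (1 + 4 * M + M * K) + 2) with hH
    have hH0 : 0 ≤ H := by positivity
    have hz2 : z * (σ * R / 4) = (σ + L * m.s1) * R / 4 := by
      rw [hz]; field_simp
    have hmain : (Ks.card : ℝ) ≤ (H * ((8 * K * L + 3) * (10 * K + 3)) +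
        (8 * M * K + 3 * M) * ((8 * K * L + 3) * ((8 * K * L + 3) * (10 * K + 3)))) *
          (x * t * z) := by
      rcases Ks.eq_empty_or_nonempty with hemp | hne
      · rw [hemp, Finset.card_empty]
        push_cast
        positivity
      by_cases hcase : 8 * M * K * m.s1 ≤ m.sg ∧ 5 * M * σ ≤ 2 * m.sg
      · -- large gradient
        have hξc : ‖ξ - m.c‖ ≤ 3 / 2 * m.sg := by
          obtain ⟨k, hk⟩ := hne
          obtain ⟨hg, hξ⟩ := hG _ (hPspec k hk).1
          have h4 : ξ - m.c = ((P k).1 - m.c) - ((P k).1 - ξ) := by abel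
          rw [h4]
          refine (norm_sub_le _ _).trans ?_
          have := hg.dir
          linarith
        set h' : ℝ := (4 * K + 2 * M) * z with hh'
        set G' : ℝ := 1 + 4 * M + M * K with hG'
        have hgr0 : ‖m.phi.gr ξ (lat m.X0) 0‖ ≤ 1 + 4 * M := by
          have h1 := h.adm.gr_le hRm hsg hsqT hM
          rw [hs0] at h1
          rw [Cf.gr_dir m.phi m.c ξ (lat m.X0) 0]
          refine (norm_sub_le _ _).trans ?_
          rw [norm_smul, Real.norm_eq_abs]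
          have h2 := ny0_sg hM0 h hs0
          have h3 : |m.phi.ny 0| * ‖ξ - m.c‖ ≤ |m.phi.ny 0| * (3 / 2 * m.sg) :=
            mul_le_mul_of_nonneg_left hξc (abs_nonneg _)
          nlinarith
        have hd : 2 * |m.phi.d| * (a * u) ≤ M * K := by
          rw [hau]
          have h1 := d_sg hM0 h
          calc 2 * |m.phi.d| * (K * (m.sg * m.R)) = (2 * |m.phi.d| * (m.sg * m.R)) * K := by ring
            _ ≤ M * K := mul_le_mul_of_nonneg_right h1 hK0
        have hcount := count_cells Ks Q (α := m.phi.ev (lat m.X0) (m.X0 2) 0)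
          (β1 := (m.phi.gr ξ (lat m.X0) 0) 0) (β2 := (m.phi.gr ξ (lat m.X0) 0) 1)
          (γ := m.phi.ny 0) (d := m.phi.d) (h := h') (G := G') hu0 hτ0 ha0 hb0 (by positivity)
          (by positivity) hcell hrange ?_ ?_ ?_ ?_ ?_
        · have hz0 : 0 ≤ z := by linarith
          have h1 : 4 * (3 * (3 * h' + G') + 2) ≤ H * z := by
            have : H * z - 4 * (3 * (3 * h' + G') + 2) = 4 * (3 * G' + 2) * (z - 1) := by
              rw [hH, hh', hG']; ring
            have h2 : 0 ≤ 4 * (3 * G' + 2) * (z - 1) := by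
              have : 0 ≤ G' := by positivity
              have : 0 ≤ z - 1 := by linarith
              positivity
            linarith
          have h2 : (2 * a + 3) * (2 * b + 3) ≤ ((8 * K * L + 3) * x) * ((10 * K + 3) * t) :=
            mul_le_mul h2a h2b h2b0 (by positivity)
          have h3 : 0 ≤ (8 * M * K + 3 * M) * ((8 * K * L + 3) * ((8 * K * L + 3) *
              (10 * K + 3))) * (x * t * z) := by positivity
          calc (Ks.card : ℝ) ≤ 4 * (3 * (3 * h' + G') + 2) * ((2 * a + 3) * (2 * b + 3)) := hcount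
            _ ≤ (H * z) * (((8 * K * L + 3) * x) * ((10 * K + 3) * t)) :=
                mul_le_mul h1 h2 (by positivity) (by positivity)
            _ = H * ((8 * K * L + 3) * (10 * K + 3)) * (x * t * z) := by ring
            _ ≤ _ := by
                rw [add_mul]
                linarith
        · intro k hk
          obtain ⟨hPG, _⟩ := hPspec k hk
          obtain ⟨hg, _⟩ := hG _ hPG
          have h1 := ev_cell m.phi ξ m.X0 (P k).2
          simp only [hQ]
          rw [← h1]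
          refine hg.ev.trans ?_
          rw [hh', hu]
          calc K * (m.s1 * m.R) = K * (L * m.s1 * R) := by rw [hRL]; ring
            _ ≤ (4 * K + 2 * M) * ((σ + L * m.s1) * R / 4) := by
                have h3 : 0 ≤ K * σ * R := by positivity
                have h4 : 0 ≤ M * ((σ + L * m.s1) * R) := by positivity
                nlinarith
            _ = (4 * K + 2 * M) * z * (σ * R / 4) := by rw [← hz2]; ring
        · -- γ τ
          have h1 : |m.phi.ny 0| * Ts ≤ M * (σ + L * m.s1) := by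
            rw [hTs, mul_max_of_nonneg _ _ (abs_nonneg _)]
            refine max_le ?_ ?_
            · have h2 := ny0_sg hM0 h hs0
              have h3 : |m.phi.ny 0| * σ ≤ M :=
                (mul_le_mul_of_nonneg_left hσ1 (abs_nonneg _)).trans h2
              calc |m.phi.ny 0| * σ ^ 2 = (|m.phi.ny 0| * σ) * σ := by ring
                _ ≤ M * σ := mul_le_mul_of_nonneg_right h3 hσ.le
                _ ≤ _ := by
                    have : 0 ≤ M * (L * m.s1) := by positivity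
                    nlinarith
            · have h2 := hc 0 (by rw [hs0, sub_zero, abs_zero]; exact hRm.le)
              rw [← mul_div_assoc, div_le_iff₀ hR]
              calc |m.phi.ny 0| * B' ≤ |m.phi.ny 0| * B :=
                    mul_le_mul_of_nonneg_left hB (abs_nonneg _)
                _ ≤ M * (m.s1 * m.R) := h2
                _ = M * (L * m.s1) * R := by rw [hRL]; ring
                _ ≤ _ := by
                    have : 0 ≤ M * σ * R := by positivity
                    nlinarith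
          rw [hτ, hh', hu]
          calc |m.phi.ny 0| * (Ts * R / 2) = (|m.phi.ny 0| * Ts) * (R / 2) := by ring
            _ ≤ (M * (σ + L * m.s1)) * (R / 2) := mul_le_mul_of_nonneg_right h1 (by positivity)
            _ ≤ (4 * K + 2 * M) * ((σ + L * m.s1) * R / 4) := by
                have : 0 ≤ K * ((σ + L * m.s1) * R) := by positivity
                nlinarith
            _ = (4 * K + 2 * M) * z * (σ * R / 4) := by rw [← hz2]; ring
        · exact (add_le_add ((abs_comp_le _ _).trans hgr0) hd).trans (le_of_eq (by rw [hG']))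
        · exact (add_le_add ((abs_comp_le _ _).trans hgr0) hd).trans (le_of_eq (by rw [hG']))
        · intro k hk
          obtain ⟨hPG, _⟩ := hPspec k hk
          obtain ⟨hg, hξ⟩ := hG _ hPG
          have h1 := comp_big (gr_big hM h hs0 hK hg hξ hcase.1 hcase.2)
          rw [gr_cell m.phi ξ m.X0 (P k).2 0, gr_cell m.phi ξ m.X0 (P k).2 1] at h1
          exact h1
      · -- trivial count
        have h1 := count_all Ks Q hu0 hτ0 ha0 hb0 hcell hrange
        have h2 : x ≤ (8 * M * K + 3 * M) * z := by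
          rw [not_and_or, not_le, not_le] at hcase
          rw [hx, div_le_iff₀ hσ]
          have e : (8 * M * K + 3 * M) * z * σ = (8 * M * K + 3 * M) * (σ + L * m.s1) := by
            rw [hz]; field_simp
          rw [e]
          have p0 : m.s1 ≤ L * m.s1 := by nlinarith
          have p1 : 0 ≤ 8 * M * K * σ := by positivity
          have p2 : 0 ≤ 3 * M * (L * m.s1) := by positivity
          have p3 : 0 ≤ 3 * M * σ := by positivity
          have p4 : 8 * M * K * m.s1 ≤ 8 * M * K * (L * m.s1) := by gcongr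
          have p5 : 0 ≤ 8 * M * K * (L * m.s1) := by positivity
          rcases hcase with hc1 | hc1
          · nlinarith
          · nlinarith
        have hz0 : 0 ≤ z := by linarith
        have hx0 : 0 ≤ x := by linarith
        have ht0 : 0 ≤ t := by linarith
        have h3 : (2 * a + 3) * ((2 * a + 3) * (2 * b + 3)) ≤
            ((8 * K * L + 3) * x) * (((8 * K * L + 3) * x) * ((10 * K + 3) * t)) :=
          mul_le_mul h2a (mul_le_mul h2a h2b h2b0 (by positivity)) (by positivity)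
            (by positivity)
        calc (Ks.card : ℝ) ≤ _ := h1
          _ ≤ ((8 * K * L + 3) * x) * (((8 * K * L + 3) * x) * ((10 * K + 3) * t)) := h3
          _ = ((8 * K * L + 3) * ((8 * K * L + 3) * (10 * K + 3))) * (x * t) * x := by ring
          _ ≤ ((8 * K * L + 3) * ((8 * K * L + 3) * (10 * K + 3))) * (x * t) *
                ((8 * M * K + 3 * M) * z) := by gcongr
          _ = (8 * M * K + 3 * M) * ((8 * K * L + 3) * ((8 * K * L + 3) * (10 * K + 3))) *
                (x * t * z) := by ring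
          _ ≤ _ := by
              have : 0 ≤ H * ((8 * K * L + 3) * (10 * K + 3)) * (x * t * z) := by positivity
              rw [add_mul]
              linarith
    have hfin : x * t * z * (s1' * σ * Ts) ≤ 4 * K * L ^ 2 * (m.s1 * m.sg * m.T B) := by
      have h1 : x * σ = m.sg := by rw [hx]; field_simp
      have h2 : t * Ts = L * m.T B := by rw [ht]; field_simp
      have h3 : z * s1' ≤ 4 * K * L * m.s1 := by
        have h4 : s1' ≤ 2 * K * L * m.s1 := min_le_left _ _
        have h5 : s1' ≤ σ := min_le_right _ _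
        have h6 : L * m.s1 / σ * s1' ≤ L * m.s1 / σ * σ :=
          mul_le_mul_of_nonneg_left h5 (by positivity)
        rw [div_mul_cancel₀ _ hσ.ne'] at h6
        have h7 : L * m.s1 ≤ K * (L * m.s1) := by
          have : 0 ≤ L * m.s1 := by positivity
          nlinarith
        rw [hz]
        nlinarith
      calc x * t * z * (s1' * σ * Ts) = (x * σ) * (t * Ts) * (z * s1') := by ring
        _ = m.sg * (L * m.T B) * (z * s1') := by rw [h1, h2]
        _ ≤ m.sg * (L * m.T B) * (4 * K * L * m.s1) := mul_le_mul_of_nonneg_left h3 (by positivity)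
        _ = _ := by ring
    calc (Ks.card : ℝ) * (s1' * σ * Ts) ≤ ((H * ((8 * K * L + 3) * (10 * K + 3)) +
        (8 * M * K + 3 * M) * ((8 * K * L + 3) * ((8 * K * L + 3) * (10 * K + 3)))) *
          (x * t * z)) * (s1' * σ * Ts) := mul_le_mul_of_nonneg_right hmain (by positivity)
      _ = (H * ((8 * K * L + 3) * (10 * K + 3)) +
        (8 * M * K + 3 * M) * ((8 * K * L + 3) * ((8 * K * L + 3) * (10 * K + 3)))) *
          (x * t * z * (s1' * σ * Ts)) := by ring
      _ ≤ (H * ((8 * K * L + 3) * (10 * K + 3)) +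
        (8 * M * K + 3 * M) * ((8 * K * L + 3) * ((8 * K * L + 3) * (10 * K + 3)))) *
          (4 * K * L ^ 2 * (m.s1 * m.sg * m.T B)) := by gcongr
      _ = _ := by unfold Cov; rw [hH]; ring

end Crest.Agent.R116.Ckm538
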