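import Crest.Agent.R116.Ckm4_538

/-!
# R116 (S0155), wave side: box hypothesis of `kcc_sharp` inside one direction cap (helper538)

`DensR` : penalised density of energies `U i` of selections `S i` (directions `C i`) on the compatible
members of the class SS (725 / 299), reward `sg^q`, centres in the selections.
`cap_box` : `DensR` at `(w, ρ, R)` gives the box hypothesis of `kcc_sharp` for the class `SSg M` at
`(w', ρ', L R)` inside a cap of size `s`, with the gain `s^q`.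
-/

set_option autoImplicit false

open MeasureTheory
open scoped ENNReal

namespace Crest.Agent.R116.Ckm538

open Crest.Agent.R138.Defs (E2)
open Crest.Agent.R116.CDef480
open Crest.Agent.R116.LZg725 (Cf Mem rx ry InK Adm)
open Crest.Agent.R116.LKMDef299 (Cpt SSg)

/-- **penalised density** on compatible members of length `R`, thin side `ρ`, sides at least `w`. -/
def DensR {κ : Type} (M q w ρ R Δ : ℝ) (F : Finset κ) (C : κ → E2) (U : κ → E3 → ℝ≥0∞)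
    (S : κ → Set E3) : Prop :=
  ∀ m : Mem, m.Ok M ρ → Cpt M ρ m → m.R = R → m.s0 = 0 → w ≤ m.s1 * R → m.sg ≤ 1 →
    (∃ i ∈ F, m.X0 ∈ S i) →
    ∑ i ∈ F, ∫⁻ y in S i ∩ {y | (C i, lat y, y 2) ∈ m.rays ρ}, U i y ≤
      ENNReal.ofReal (Δ * m.sg ^ q * m.scost ρ)

/-- index of a slope in the grid of mesh `σ / 4` centred at `η`. -/
noncomputable def six (σ : ℝ) (η C : E2) : ℤ × ℤ :=
  (⌊(C - η) 0 / (σ / 4)⌋, ⌊(C - η) 1 / (σ / 4)⌋)

/-- grid point. -/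
noncomputable def spt (σ : ℝ) (η : E2) (j : ℤ × ℤ) : E2 :=
  η + (!₂[σ / 4 * j.1, σ / 4 * j.2] : E2)

theorem six_near {σ : ℝ} (hσ : 0 < σ) (η C : E2) : ‖C - spt σ η (six σ η C)‖ ≤ σ / 2 := by
  have h4 : 0 < σ / 4 := by positivity
  have h : ‖C - spt σ η (six σ η C)‖ ≤ 2 * (σ / 4) := by
    refine norm2_le h4.le ?_ ?_
    · have e : (C - spt σ η (six σ η C)) 0 = (C - η) 0 - σ / 4 * ((six σ η C).1 : ℝ) := by
        simp only [spt, PiLp.sub_apply, PiLp.add_apply]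
        simp
        ring
      rw [e]
      exact floor_err h4
    · have e : (C - spt σ η (six σ η C)) 1 = (C - η) 1 - σ / 4 * ((six σ η C).2 : ℝ) := by
        simp only [spt, PiLp.sub_apply, PiLp.add_apply]
        simp
        ring
      rw [e]
      exact floor_err h4
  linarith

theorem six_mem {σ L : ℝ} (hσ : 0 < σ) {η C : E2} (h : ‖C - η‖ ≤ L * σ) :
    six σ η C ∈ Finset.Icc (-⌈4 * L⌉) ⌈4 * L⌉ ×ˢ Finset.Icc (-⌈4 * L⌉) ⌈4 * L⌉ := by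
  have h4 : 0 < σ / 4 := by positivity
  have e : 4 * L * (σ / 4) = L * σ := by ring
  rw [Finset.mem_product]
  exact ⟨floor_mem' h4 (((abs_comp_le _ _).trans h).trans e.ge),
    floor_mem' h4 (((abs_comp_le _ _).trans h).trans e.ge)⟩

theorem card_six {L : ℝ} (hL : 0 ≤ L) :
    ((Finset.Icc (-⌈4 * L⌉) ⌈4 * L⌉ ×ˢ Finset.Icc (-⌈4 * L⌉) ⌈4 * L⌉ : Finset (ℤ × ℤ)).card : ℝ) ≤
      (8 * L + 3) ^ 2 := by
  rw [Finset.card_product]
  push_cast
  have h := card_Icc_ceil' (a := 4 * L) (by positivity)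
  rw [sq]
  refine mul_le_mul ?_ ?_ (Nat.cast_nonneg _) (by positivity) <;> linarith

theorem lint_biUnion_le {X I : Type*} [MeasurableSpace X] (μ : Measure X) (s : Finset I)
    (t : I → Set X) (f : X → ℝ≥0∞) :
    ∫⁻ x in ⋃ i ∈ s, t i, f x ∂μ ≤ ∑ i ∈ s, ∫⁻ x in t i, f x ∂μ := by
  classical
  induction s using Finset.induction_on with
  | empty => simp
  | insert a s ha ih =>
    rw [Finset.set_biUnion_insert, Finset.sum_insert ha]
    exact (lintegral_union_le _ _ _).trans (add_le_add le_rfl ih)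

set_option maxHeartbeats 1000000 in
open Classical in
/-- one disc of slopes. -/
theorem disc_box {κ : Type} {M q w ρ R Δ : ℝ} (hM : 1 ≤ M) {L : ℝ} (hL : 1 ≤ L)
    (hw : 0 < w) (hR : 0 < R) (hΔ : 0 ≤ Δ) {F : Finset κ} {C : κ → E2} {U : κ → E3 → ℝ≥0∞}
    {S : κ → Set E3} (hD : DensR (M1 M (2 + 4 * M)) q w ρ R Δ F C U S)
    {w' ρ' : ℝ} (hww : w ≤ w') (hρρ : ρ ≤ ρ') (hρ' : 0 ≤ ρ') {A : Set (E2 × E3)} {c : ℝ}
    {m : Mem} (hOk : m.Ok M ρ') (hCpt : Cpt M ρ' m) (hmR : m.R = L * R) (hs0 : m.s0 = 0)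
    (hw1 : w' ≤ m.s1 * (L * R)) (hAm : A = {r | (r.1, lat r.2, r.2 2) ∈ m.rays ρ'})
    (hc : c = m.scost ρ') {σ : ℝ} (hσ : 0 < σ) (hwσ : w ≤ σ * R) (hσ1 : σ ≤ 1)
    (hσsg : σ ≤ m.sg)
    (ξ : E2) {F' : Finset κ} (hF' : F' ⊆ F) (hξ : ∀ i ∈ F', ‖C i - ξ‖ ≤ σ / 2) :
    ∑ i ∈ F', ∫⁻ y in S i ∩ thk w' ρ' A (C i), U i y ≤
      ENNReal.ofReal (Δ * σ ^ q * (Cov M (2 + 4 * M) L * c)) := by
  set K : ℝ := 2 + 4 * M with hK
  have hK1 : 1 ≤ K := by rw [hK]; linarith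
  have hw'0 : 0 < w' := hw.trans_le hww
  set G : Set (E2 × E3) := {p | ∃ i ∈ F', p.1 = C i ∧ p.2 ∈ S i ∩ thk w' ρ' A (C i)} with hG
  have hGood : ∀ p ∈ G, Good K ρ' m p.1 p.2 ∧ ‖p.1 - ξ‖ ≤ σ / 2 := by
    rintro p ⟨i, hi, hp1, hp2, y', hy', h1, h2⟩
    refine ⟨?_, by rw [hp1]; exact hξ i hi⟩
    rw [hAm] at hy'
    have h3 := rays_good hOk.hR hs0 (B := ρ') (m := m) (C := C i) (y := y') hy'
    rw [hp1]
    refine thk_good hM hOk hs0 hCpt hw'0.le ?_ hρ' h3 h1 h2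
    rw [hmR]; exact hw1
  obtain ⟨Ks, mk, hmk, hcov, hcard⟩ := cover hM hK1 hL hOk hCpt hs0 hσ hσsg hρρ ξ G hGood
  have hmRL : m.R / L = R := by rw [hmR]; field_simp
  rw [hmRL] at hcard
  -- union bound
  have h1 : ∀ i ∈ F', ∫⁻ y in S i ∩ thk w' ρ' A (C i), U i y ≤
      ∑ k ∈ Ks, ∫⁻ y in S i ∩ {y | (C i, lat y, y 2) ∈ (mk k).rays ρ}, U i y := by
    intro i hi
    refine le_trans (lintegral_mono_set ?_) (lint_biUnion_le volume Ks
      (fun k => S i ∩ {y | (C i, lat y, y 2) ∈ (mk k).rays ρ}) (U i))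
    intro y hy
    obtain ⟨k, hk, hk2⟩ := hcov (C i, y) ⟨i, hi, rfl, hy⟩
    rw [Set.mem_iUnion₂]
    exact ⟨k, hk, hy.1, hk2⟩
  set E : ℝ := Δ * σ ^ q * (min (2 * K * L * m.s1) σ * σ * max (σ ^ 2) (ρ / R) * R ^ 3) with hE
  have h2 : ∀ k ∈ Ks, ∑ i ∈ F', ∫⁻ y in S i ∩ {y | (C i, lat y, y 2) ∈ (mk k).rays ρ}, U i y ≤
      ENNReal.ofReal E := by
    intro k hk
    obtain ⟨a1, a2, a3, a4, a5, a6, p, hp, a7⟩ := hmk k hk
    rw [hmRL] at a3
    have hs1R : w ≤ (mk k).s1 * R := by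
      rw [a6]
      rcases min_choice (2 * K * L * m.s1) σ with h3 | h3
      · rw [h3]
        have h4 : 0 ≤ m.s1 * R := mul_nonneg hOk.hs1.le hR.le
        calc w ≤ w' := hww
          _ ≤ m.s1 * (L * R) := hw1
          _ = (1 * L) * (m.s1 * R) := by ring
          _ ≤ (2 * K * L) * (m.s1 * R) := by
              refine mul_le_mul_of_nonneg_right ?_ h4
              exact mul_le_mul_of_nonneg_right (by linarith) (by linarith)
          _ = _ := by ring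
      · rw [h3]; exact hwσ
    have h3 := hD (mk k) a1 a2 a3 a4 hs1R (by rw [a5]; exact hσ1) (by
      obtain ⟨i, hi, hp1, hp2⟩ := hp
      exact ⟨i, hF' hi, by rw [a7]; exact hp2.1⟩)
    refine (Finset.sum_le_sum_of_subset hF').trans (h3.trans (le_of_eq ?_))
    rw [hE]
    unfold Mem.scost Mem.T
    rw [a3, a5, a6]
  calc ∑ i ∈ F', ∫⁻ y in S i ∩ thk w' ρ' A (C i), U i y
      ≤ ∑ i ∈ F', ∑ k ∈ Ks, ∫⁻ y in S i ∩ {y | (C i, lat y, y 2) ∈ (mk k).rays ρ}, U i y :=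
        Finset.sum_le_sum h1
    _ = ∑ k ∈ Ks, ∑ i ∈ F', ∫⁻ y in S i ∩ {y | (C i, lat y, y 2) ∈ (mk k).rays ρ}, U i y :=
        Finset.sum_comm
    _ ≤ ∑ _k ∈ Ks, ENNReal.ofReal E := Finset.sum_le_sum h2
    _ = ENNReal.ofReal ((Ks.card : ℝ) * E) := by
        rw [Finset.sum_const, nsmul_eq_mul, ENNReal.ofReal_mul (Nat.cast_nonneg _),
          ENNReal.ofReal_natCast]
    _ ≤ _ := by
        refine ENNReal.ofReal_le_ofReal ?_
        have hσq : 0 ≤ σ ^ q := Real.rpow_nonneg hσ.le q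
        have hcov0 := Cov_nonneg hM hK1 hL
        have hsc := hOk.scost_pos
        have h5 : c = m.s1 * m.sg * m.T ρ' * (L * R) ^ 3 := by
          rw [hc]; unfold Mem.scost; rw [hmR]
        have h6 : 0 ≤ m.s1 * m.sg * m.T ρ' := by
          have := hOk.hs1; have := hOk.sg_pos; have := hOk.T_pos
          positivity
        calc (Ks.card : ℝ) * E = (Δ * σ ^ q * R ^ 3) * ((Ks.card : ℝ) *
              (min (2 * K * L * m.s1) σ * σ * max (σ ^ 2) (ρ / R))) := by rw [hE]; ring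
          _ ≤ (Δ * σ ^ q * R ^ 3) * (Cov M K L * (m.s1 * m.sg * m.T ρ')) :=
              mul_le_mul_of_nonneg_left hcard (by positivity)
          _ = Δ * σ ^ q * (Cov M K L * (m.s1 * m.sg * m.T ρ' * R ^ 3)) := by ring
          _ ≤ Δ * σ ^ q * (Cov M K L * (m.s1 * m.sg * m.T ρ' * (L * R) ^ 3)) := by
              have h7 : R ^ 3 ≤ (L * R) ^ 3 := pow_le_pow_left₀ hR.le (by nlinarith) 3
              gcongr
          _ = _ := by rw [h5]

set_option maxHeartbeats 1000000 in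
open Classical in
/-- **box hypothesis inside one direction cap**, explicit member. -/
theorem cap_box' {κ : Type} {M q w ρ R Δ : ℝ} (hM : 1 ≤ M) (hq : 0 ≤ q) {L : ℝ} (hL : 1 ≤ L)
    (hw : 0 < w) (hR : 0 < R) (hΔ : 0 ≤ Δ) {F : Finset κ} {C : κ → E2} {U : κ → E3 → ℝ≥0∞}
    {S : κ → Set E3} (hD : DensR (M1 M (2 + 4 * M)) q w ρ R Δ F C U S)
    {w' ρ' : ℝ} (hww : w ≤ w') (hρρ : ρ ≤ ρ') (hρ' : 0 ≤ ρ')
    {s Λ : ℝ} (hws : w ≤ s * R) (hs1 : s ≤ 1) (hΛ : 1 ≤ Λ) (ξ : E2)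
    {F' : Finset κ} (hF' : F' ⊆ F) (hξ : ∀ i ∈ F', ‖C i - ξ‖ ≤ Λ * s)
    {A : Set (E2 × E3)} {c : ℝ}
    {m : Mem} (hOk : m.Ok M ρ') (hCpt : Cpt M ρ' m) (hmR : m.R = L * R) (hs0 : m.s0 = 0)
    (hw1 : w' ≤ m.s1 * (L * R)) (hAm : A = {r | (r.1, lat r.2, r.2 2) ∈ m.rays ρ'})
    (hc : c = m.scost ρ') (hLw : L * w ≤ w') :
    ∑ i ∈ F', ∫⁻ y in S i ∩ thk w' ρ' A (C i), U i y ≤
      ENNReal.ofReal ((8 * Λ + 3) ^ 2 * Cov M (2 + 4 * M) L * (Δ * s ^ q) * c) := by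
  have hs0' : 0 < s := by
    by_contra hn
    have : s * R ≤ 0 := mul_nonpos_of_nonpos_of_nonneg (not_lt.1 hn) hR.le
    linarith
  have hΛ0 : 0 ≤ Λ := by linarith
  have hL0 : 0 < L := by linarith
  have hsg := hOk.sg_pos
  set σ : ℝ := min s m.sg with hσd
  have hσ : 0 < σ := lt_min hs0' hsg
  have hσs : σ ≤ s := min_le_left _ _
  have hσsg : σ ≤ m.sg := min_le_right _ _
  have hwsg : w ≤ m.sg * R := by
    have h1 : w' ≤ m.sg * (L * R) := hw1.trans (mul_le_mul_of_nonneg_right hOk.hsg (by positivity))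
    have h2 : L * w ≤ L * (m.sg * R) := by
      calc L * w ≤ w' := hLw
        _ ≤ m.sg * (L * R) := h1
        _ = _ := by ring
    exact le_of_mul_le_mul_left h2 hL0
  have hwσ : w ≤ σ * R := by
    rcases min_choice s m.sg with h1 | h1
    · rw [hσd, h1]; exact hws
    · rw [hσd, h1]; exact hwsg
  set η : E2 := if s ≤ m.sg then ξ else m.c with hη
  set F2 : Finset κ := F'.filter (fun i => (S i ∩ thk w' ρ' A (C i)).Nonempty) with hF2
  have hnear : ∀ i ∈ F2, ‖C i - η‖ ≤ Λ * σ := by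
    intro i hi
    obtain ⟨hi1, y, hy1, y', hy', h1, h2⟩ := Finset.mem_filter.1 hi
    by_cases hcase : s ≤ m.sg
    · rw [hη, if_pos hcase, hσd, min_eq_left hcase]
      exact hξ i hi1
    · rw [hη, if_neg hcase, hσd, min_eq_right (not_le.1 hcase).le]
      rw [hAm] at hy'
      have h3 : ‖C i - m.c‖ ≤ m.sg := hy'.1
      nlinarith
  set KA : Finset (ℤ × ℤ) := Finset.Icc (-⌈4 * Λ⌉) ⌈4 * Λ⌉ ×ˢ Finset.Icc (-⌈4 * Λ⌉) ⌈4 * Λ⌉
    with hKA
  set E : ℝ≥0∞ := ENNReal.ofReal (Δ * s ^ q * (Cov M (2 + 4 * M) L * c)) with hE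
  have hc0 : 0 ≤ c := by rw [hc]; exact hOk.scost_pos.le
  have hcov0 := Cov_nonneg (K := 2 + 4 * M) hM (by linarith) hL
  have h1 : ∑ i ∈ F', ∫⁻ y in S i ∩ thk w' ρ' A (C i), U i y =
      ∑ i ∈ F2, ∫⁻ y in S i ∩ thk w' ρ' A (C i), U i y := by
    rw [hF2, Finset.sum_filter]
    refine Finset.sum_congr rfl fun i _ => ?_
    split_ifs with h2
    · rfl
    · rw [Set.not_nonempty_iff_eq_empty.1 h2, setLIntegral_empty]
  have h2 : ∑ i ∈ F2, ∫⁻ y in S i ∩ thk w' ρ' A (C i), U i y =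
      ∑ j ∈ KA, ∑ i ∈ F2 with six σ η (C i) = j, ∫⁻ y in S i ∩ thk w' ρ' A (C i), U i y := by
    rw [Finset.sum_fiberwise_of_maps_to (s := F2) (t := KA) (g := fun i => six σ η (C i))
      (fun i hi => six_mem hσ (hnear i hi))]
  have h3 : ∀ j ∈ KA, ∑ i ∈ F2 with six σ η (C i) = j,
      ∫⁻ y in S i ∩ thk w' ρ' A (C i), U i y ≤ E := by
    intro j _
    refine le_trans (disc_box hM hL hw hR hΔ hD hww hρρ hρ' hOk hCpt hmR hs0 hw1 hAm hc hσ hwσ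
      (hσs.trans hs1) hσsg (spt σ η j) (F' := F2.filter (fun i => six σ η (C i) = j)) ?_ ?_) ?_
    · exact ((Finset.filter_subset _ _).trans (Finset.filter_subset _ _)).trans hF'
    · intro i hi
      have := six_near hσ η (C i)
      rwa [(Finset.mem_filter.1 hi).2] at this
    · refine ENNReal.ofReal_le_ofReal ?_
      have : σ ^ q ≤ s ^ q := Real.rpow_le_rpow hσ.le hσs hq
      gcongr
  rw [h1, h2]
  calc ∑ j ∈ KA, ∑ i ∈ F2 with six σ η (C i) = j, ∫⁻ y in S i ∩ thk w' ρ' A (C i), U i y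
      ≤ ∑ _j ∈ KA, E := Finset.sum_le_sum h3
    _ = (KA.card : ℝ≥0∞) * E := by rw [Finset.sum_const, nsmul_eq_mul]
    _ ≤ ENNReal.ofReal ((8 * Λ + 3) ^ 2) * E := by
        refine mul_le_mul' ?_ le_rfl
        rw [← ENNReal.ofReal_natCast]
        exact ENNReal.ofReal_le_ofReal (card_six hΛ0)
    _ = _ := by
        rw [hE, ← ENNReal.ofReal_mul (by positivity)]
        congr 1
        ring

open Classical in
/-- **box hypothesis inside one direction cap**. -/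
theorem cap_box {κ : Type} {M q w ρ R Δ : ℝ} (hM : 1 ≤ M) (hq : 0 ≤ q) {L : ℝ} (hL : 1 ≤ L)
    (hw : 0 < w) (hR : 0 < R) (hΔ : 0 ≤ Δ) {F : Finset κ} {C : κ → E2} {U : κ → E3 → ℝ≥0∞}
    {S : κ → Set E3} (hD : DensR (M1 M (2 + 4 * M)) q w ρ R Δ F C U S)
    {w' ρ' : ℝ} (hww : w ≤ w') (hρρ : ρ ≤ ρ') (hρ' : 0 ≤ ρ')
    {s Λ : ℝ} (hws : w ≤ s * R) (hs1 : s ≤ 1) (hΛ : 1 ≤ Λ) (ξ : E2)
    {F' : Finset κ} (hF' : F' ⊆ F) (hξ : ∀ i ∈ F', ‖C i - ξ‖ ≤ Λ * s)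
    {A : Set (E2 × E3)} {c : ℝ} (hA : SSg M w' ρ' (L * R) A c) (hLw : L * w ≤ w') :
    ∑ i ∈ F', ∫⁻ y in S i ∩ thk w' ρ' A (C i), U i y ≤
      ENNReal.ofReal ((8 * Λ + 3) ^ 2 * Cov M (2 + 4 * M) L * (Δ * s ^ q) * c) := by
  obtain ⟨m, hOk, hCpt, hmR, hs0, hw1, _, hAm, hc⟩ := hA
  exact cap_box' hM hq hL hw hR hΔ hD hww hρρ hρ' hws hs1 hΛ ξ hF' hξ hOk hCpt hmR hs0 hw1 hAm hc
    hLw

/-- the member which contains everything. -/
noncomputable def bigm (V0 R : ℝ) : Mem := ⟨0, V0, V0, R, 0, 0, linf 0 0⟩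

theorem bigm_ok {V0 R : ℝ} (hV : 1 ≤ V0) (hR : 0 < R) (B : ℝ) : (bigm V0 R).Ok 1 B := by
  have hV0 : 0 < V0 := by linarith
  refine ⟨hR, hV0, le_rfl, linf_disc _ _, fun s _ => ?_, ?_, ?_⟩
  · change |(linf 0 0).ny s| * _ ≤ 1 * V0
    rw [linf_ny, abs_zero, zero_mul, one_mul]; exact hV0.le
  · change |(linf 0 0).ld 0 _ _ _| ≤ 1 * V0
    rw [linf_ld, abs_zero, one_mul]; exact hV0.le
  · change |(linf 0 0).ev (lat 0) _ _| ≤ 1 * V0 * R
    rw [linf_ev]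
    have e : lat (0 : E3) = 0 := by ext i; fin_cases i <;> rfl
    have e2 : (bigm V0 R).s0 = 0 := rfl
    rw [e, sub_zero, zero_add, e2, zero_smul, inner_zero_right, abs_zero]
    positivity

theorem bigm_cpt {V0 R : ℝ} (hV : 1 ≤ V0) (hR : 0 < R) (B : ℝ) : Cpt 1 B (bigm V0 R) := by
  intro s _
  change |(linf 0 0).ny s| * _ ≤ 1 * (V0 * R)
  rw [linf_ny, abs_zero, zero_mul]; positivity

theorem bigm_rays {V A V0 R : ℝ} (hV : 0 ≤ V) (hA : 0 ≤ A) (hV0 : 1 + V + A + V ^ 2 ≤ V0)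
    (hR : 0 < R) (B : ℝ) {C : E2} {y : E3} (hC : ‖C‖ ≤ V) (hy : ‖y‖ ≤ A * R) :
    (C, lat y, y 2) ∈ (bigm V0 R).rays B := by
  have hlat : ‖lat y‖ ≤ A * R := (lat_norm_le y).trans hy
  have hy2 : |y 2| ≤ A * R := (two_norm_le y).trans hy
  have hsqV : 0 ≤ V ^ 2 := by positivity
  have e0 : lat (0 : E3) = 0 := by ext i; fin_cases i <;> rfl
  refine ⟨?_, fun s hs => ?_⟩
  · change ‖C - 0‖ ≤ V0
    rw [sub_zero]; nlinarith
  · have hs' : |s| ≤ R := by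
      have : (bigm V0 R).s0 = 0 := rfl
      rw [this, sub_zero] at hs
      exact hs
    have h1 : ‖rx C (lat y) s‖ ≤ (A + V) * R := by
      unfold LZg725.rx
      refine (norm_sub_le _ _).trans ?_
      rw [norm_smul, Real.norm_eq_abs]
      have := mul_le_mul hs' hC (norm_nonneg _) hR.le
      nlinarith
    refine ⟨?_, ?_⟩
    · unfold Mem.box
      rw [Set.mem_ofPred_eq, LZg725.lat_rpos, LZg725.rpos_two]
      change InK 0 V0 ((bigm V0 R).T B) R (lat 0) ((0 : E3) 2) 0 (rx C (lat y) s)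
        (ry C (y 2) s) s
      refine ⟨by rw [sub_zero]; exact hs', ?_, ?_⟩
      · rw [e0, sub_zero, smul_zero, add_zero]
        refine h1.trans (mul_le_mul_of_nonneg_right (by linarith) hR.le)
      · rw [LZg725.nrm_ray']
        have e3 : LZg725.nrm 0 (lat (0 : E3)) ((0 : E3) 2) 0 = 0 := by
          unfold LZg725.nrm; simp
        rw [e3, inner_zero_left, sub_zero, add_zero, sub_zero]
        have hT : V0 ^ 2 ≤ (bigm V0 R).T B := le_max_left _ _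
        have h2 : |s * ‖C‖ ^ 2 / 2| ≤ R * V ^ 2 := by
          rw [abs_div, abs_mul, abs_of_nonneg (sq_nonneg ‖C‖), abs_of_pos (two_pos : (0:ℝ) < 2)]
          have := mul_le_mul hs' (pow_le_pow_left₀ (norm_nonneg _) hC 2) (sq_nonneg _) hR.le
          have h3 : 0 ≤ |s| * ‖C‖ ^ 2 := by positivity
          linarith
        refine (abs_add_le _ _).trans ?_
        have h4 : V0 ≤ V0 ^ 2 := by nlinarith
        calc |y 2| + |s * ‖C‖ ^ 2 / 2| ≤ A * R + R * V ^ 2 := add_le_add hy2 h2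
          _ ≤ V0 * R := by nlinarith
          _ ≤ V0 ^ 2 * R := mul_le_mul_of_nonneg_right h4 hR.le
          _ ≤ _ := mul_le_mul_of_nonneg_right hT hR.le
    · unfold Cf.val
      rw [LZg725.lat_rpos, LZg725.rpos_two]
      change |(linf 0 0).ev (rx C (lat y) s) (ry C (y 2) s) s| ≤ V0 * R
      rw [linf_ev, sub_zero, smul_zero, add_zero]
      refine (abs_real_inner_le_norm _ _).trans ?_
      rw [norm_e0, one_mul]
      exact h1.trans (mul_le_mul_of_nonneg_right (by linarith) hR.le)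

theorem DensR_mono {κ : Type} {M M' q w ρ R Δ : ℝ} (hM : M ≤ M') {F : Finset κ} {C : κ → E2}
    {U : κ → E3 → ℝ≥0∞} {S : κ → Set E3} (hD : DensR M' q w ρ R Δ F C U S) :
    DensR M q w ρ R Δ F C U S := by
  intro m h1 h2 h3 h4 h5 h6 h7
  exact hD m (LKMDef299.Ok.mono h1 hM)
    (LKMDef299.Cpt.mono h2 (mul_nonneg h1.hs1.le h1.hR.le) hM) h3 h4 h5 h6 h7

theorem M1_mono {M K M' K' : ℝ} (hM0 : 0 ≤ M) (hK0 : 0 ≤ K) (hM : M ≤ M') (hK : K ≤ K') :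
    M1 M K ≤ M1 M' K' := by
  unfold M1
  have := mul_le_mul hM hK hK0 (hM0.trans hM)
  linarith

/-- **total energy** from the penalised density. -/
theorem whole_le {κ : Type} {M q w ρ R Δ : ℝ} (hM : 1 ≤ M) (hq : 0 ≤ q)
    (hw : 0 < w) (hwR : w ≤ R) (hρR : ρ ≤ R) (hρ : 0 ≤ ρ) (hΔ : 0 ≤ Δ) {F : Finset κ}
    {C : κ → E2} {U : κ → E3 → ℝ≥0∞}
    {S : κ → Set E3} (hD : DensR (M1 M (2 + 4 * M)) q w ρ R Δ F C U S) {V A : ℝ} (hV : 0 ≤ V)
    (hA : 0 ≤ A) (hC : ∀ i ∈ F, ‖C i‖ ≤ V) (hS : ∀ i ∈ F, ∀ y ∈ S i, ‖y‖ ≤ A * R) :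
    ∑ i ∈ F, ∫⁻ y in S i, U i y ≤ ENNReal.ofReal ((8 * (1 + V + A + V ^ 2) + 3) ^ 2 *
      Cov 1 6 1 * (1 + V + A + V ^ 2) ^ 4 * (Δ * R ^ 3)) := by
  have hR : 0 < R := hw.trans_le hwR
  set V0 : ℝ := 1 + V + A + V ^ 2 with hV0
  have hV01 : 1 ≤ V0 := by have := sq_nonneg V; linarith
  have h2 : M1 1 (2 + 4 * 1) ≤ M1 M (2 + 4 * M) :=
    M1_mono zero_le_one (by norm_num) hM (by linarith)
  have h1 := cap_box' (κ := κ) (M := 1) (q := q) (w := w) (ρ := ρ) (R := R) (Δ := Δ) le_rfl hq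
    (L := 1) le_rfl hw hR hΔ (DensR_mono h2 hD) (w' := w) (ρ' := ρ) le_rfl le_rfl hρ (s := 1)
    (Λ := V0) (by rw [one_mul]; exact hwR) le_rfl hV01 0 (F' := F) (Finset.Subset.refl _)
    (fun i hi => by
      rw [sub_zero, mul_one]
      refine (hC i hi).trans ?_
      have := sq_nonneg V; linarith)
    (m := bigm V0 R) (bigm_ok hV01 hR ρ) (bigm_cpt hV01 hR ρ) (one_mul R).symm rfl
    (by rw [one_mul]
        exact hwR.trans (by
          have : 1 * R ≤ V0 * R := mul_le_mul_of_nonneg_right hV01 hR.le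
          rw [one_mul] at this
          exact this)) rfl rfl (by rw [one_mul])
  have h3 : ∑ i ∈ F, ∫⁻ y in S i, U i y ≤ ∑ i ∈ F, ∫⁻ y in S i ∩
      thk w ρ {r | (r.1, lat r.2, r.2 2) ∈ (bigm V0 R).rays ρ} (C i), U i y := by
    refine Finset.sum_le_sum fun i hi => lintegral_mono_set fun y hy => ⟨hy, y, ?_, ?_, ?_⟩
    · exact bigm_rays hV hA hV0.ge hR ρ (hC i hi) (hS i hi y hy)
    · rw [sub_self]
      have e : lat (0 : E3) = 0 := by ext i; fin_cases i <;> rfl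
      rw [e, norm_zero]; exact hw.le
    · rw [sub_self, nrm_zero]
      have e : lat (0 : E3) = 0 := by ext i; fin_cases i <;> rfl
      rw [e, inner_zero_right]
      simp [hρ]
  refine h3.trans (h1.trans (ENNReal.ofReal_le_ofReal (le_of_eq ?_)))
  have hT : (bigm V0 R).T ρ = V0 ^ 2 := by
    refine max_eq_left ?_
    change ρ / R ≤ V0 ^ 2
    rw [div_le_iff₀ hR]
    have h4 : (1 : ℝ) ≤ V0 ^ 2 := one_le_pow₀ hV01
    have h5 := mul_le_mul_of_nonneg_right h4 hR.le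
    linarith
  unfold Mem.scost
  rw [hT]
  change (8 * V0 + 3) ^ 2 * Cov 1 (2 + 4 * 1) 1 * (Δ * 1 ^ q) * (V0 * V0 * V0 ^ 2 * R ^ 3) = _
  rw [Real.one_rpow, show (2 : ℝ) + 4 * 1 = 6 by norm_num]
  ring

end Crest.Agent.R116.Ckm538
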