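import Crest.Agent.R116.Ckm5_538
import Crest.Agent.R116.Cad1_538

/-!
# R116 (S0155), wave side: KMC in coefficient form (helper538)

`kmc_sharp` : sharp part on one direction cap.
`kmc_core` : **Kakeya maximal estimate for the densities `Den` on a family of direction caps**,
packets `w × w × ρ` of length `R`, `w² ≤ ρ R`, `ρ ≤ w ≤ R`, from `LKMg (SSg M)`.
-/

set_option autoImplicit false

open MeasureTheory
open scoped ENNReal

namespace Crest.Agent.R116.Ckm538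

open Crest.Agent.R138.Defs (E2)
open Crest.Agent.R116.CDef480
open Crest.Agent.R116.LZg725 (Cf Mem rx ry InK Adm)
open Crest.Agent.R116.LKMDef299 (Cpt SSg)
open Crest.Agent.R116.Cad538

theorem ssg_nonneg {M w ρ R : ℝ} {A : Set (E2 × E3)} {c : ℝ} (h : SSg M w ρ R A c) : 0 ≤ c := by
  obtain ⟨m, hOk, _, _, _, _, _, _, hc⟩ := h
  rw [hc]; exact hOk.scost_pos.le

theorem norm_vel_le (C : E2) : ‖vel C‖ ≤ ‖C‖ + ‖C‖ ^ 2 := by
  unfold vel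
  refine (norm3_le _).trans ?_
  rw [lat_pt, pt_two, abs_div, abs_neg, abs_of_nonneg (sq_nonneg ‖C‖),
    abs_of_pos (two_pos : (0:ℝ) < 2)]
  have := sq_nonneg ‖C‖
  linarith

/-- `K ^ (3/2) ≤ K ^ 2` -/
theorem rpow32_le_sq {K : ℝ} (hK : 1 ≤ K) : K ^ (3/2 : ℝ) ≤ K ^ 2 := by
  calc K ^ (3/2 : ℝ) ≤ K ^ (2 : ℝ) := Real.rpow_le_rpow_of_exponent_le hK (by norm_num)
    _ = K ^ 2 := by norm_cast

theorem plate_sub {w ρ y : ℝ} (hw : 0 < w) (hρ : 0 < ρ) (C : E2) (X z : E3) (t : ℝ)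
    (hz : ‖frc w⁻¹ ρ⁻¹ C (z - X - t • vel C)‖ ≤ y / 2) :
    ‖lat (z - (X + t • vel C))‖ ≤ y / 2 * w ∧ |nrm C (z - (X + t • vel C)) 0| ≤ y / 2 * ρ := by
  rw [sub_sub] at hz
  have h1 := (lat_le_frc (kp := ρ⁻¹) (inv_nonneg.2 hw.le) C (z - (X + t • vel C))).trans hz
  have h2 := (nrm_le_frc (th := w⁻¹) (inv_nonneg.2 hρ.le) C (z - (X + t • vel C))).trans hz
  rw [inv_mul_le_iff₀ hw] at h1
  rw [inv_mul_le_iff₀ hρ] at h2
  exact ⟨by linarith, by linarith⟩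

theorem plate_far {w ρ y A L V R : ℝ} (hw : 0 < w) (hρ : 0 < ρ) (hρw : ρ ≤ w) (hy : 0 < y)
    (hyw : y * w ≤ R) (hL : 0 ≤ L) (hV : 0 ≤ V) {C : E2} (hC : ‖C‖ ≤ V) {X z : E3} {t : ℝ}
    (hz1 : ‖z‖ ≤ A * R) (ht : |t| ≤ L * R)
    (hz : ‖frc w⁻¹ ρ⁻¹ C (z - X - t • vel C)‖ ≤ y / 2) :
    ‖X‖ ≤ (A + L * (V + V ^ 2) + (2 + V) + L + 1) * R := by
  obtain ⟨h1, h2⟩ := plate_sub hw hρ C X z t hz
  have hR : 0 ≤ R := (by positivity : 0 ≤ y * w).trans hyw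
  have h3 := norm3_le_nrm C (z - (X + t • vel C))
  have h4 : (1 + ‖C‖) * ‖lat (z - (X + t • vel C))‖ ≤ (1 + V) * (y / 2 * w) :=
    mul_le_mul (by linarith) h1 (norm_nonneg _) (by positivity)
  have h5 : ‖X‖ ≤ ‖z‖ + ‖t • vel C‖ + ‖z - (X + t • vel C)‖ := by
    have e : X = z - t • vel C - (z - (X + t • vel C)) := by abel
    calc ‖X‖ = ‖z - t • vel C - (z - (X + t • vel C))‖ := by rw [← e]
      _ ≤ _ := (norm_sub_le _ _).trans (add_le_add (norm_sub_le _ _) le_rfl)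
  rw [norm_smul, Real.norm_eq_abs] at h5
  have h6 : ‖vel C‖ ≤ V + V ^ 2 := (norm_vel_le _).trans
    (add_le_add hC (pow_le_pow_left₀ (norm_nonneg _) hC 2))
  have h7 : |t| * ‖vel C‖ ≤ L * R * (V + V ^ 2) :=
    mul_le_mul ht h6 (norm_nonneg _) (by positivity)
  have h9 : y / 2 * w ≤ R := by
    have : 0 ≤ y * w := by positivity
    linarith
  have h10 : y / 2 * ρ ≤ R := by
    have h12 : y * ρ ≤ y * w := by gcongr
    have : 0 ≤ y * ρ := by positivity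
    linarith
  have h11 : (1 + V) * (y / 2 * w) ≤ (1 + V) * R := mul_le_mul_of_nonneg_left h9 (by positivity)
  have e : (A + L * (V + V ^ 2) + (2 + V) + L + 1) * R =
      A * R + L * R * (V + V ^ 2) + (1 + V) * R + R + (L + 1) * R := by ring
  rw [e]
  have : 0 ≤ (L + 1) * R := by positivity
  linarith

/-- numerical bound of the normalisation. -/
theorem f0_le {L1 w ρ R y : ℝ} (hL1 : 1 ≤ L1) (hw : 0 < w) (hρ : 0 < ρ) (hR : 0 < R)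
    (hy : 1 ≤ y) (hwρ : w ^ 2 ≤ ρ * R) :
    (w⁻¹ ^ 2 * ρ⁻¹) * ((L1 * (y * w)) ^ 2 * max (y * ρ) ((L1 * (y * w)) ^ 2 / (L1 * R))) ≤
      (L1 * y) ^ 4 := by
  have hL10 : 0 < L1 := by linarith
  have hy0 : 0 < y := by linarith
  have hLR0 : 0 < L1 * R := by positivity
  set ρ' : ℝ := max (y * ρ) ((L1 * (y * w)) ^ 2 / (L1 * R)) with hρ'
  have e1 : (w⁻¹ ^ 2 * ρ⁻¹) * ((L1 * (y * w)) ^ 2 * ρ') = (L1 * y) ^ 2 * (ρ' / ρ) := by
    field_simp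
  have hly : 1 ≤ L1 * y := one_le_mul_of_one_le_of_one_le hL1 hy
  have e2 : ρ' / ρ ≤ (L1 * y) ^ 2 := by
    rw [div_le_iff₀ hρ]
    refine max_le ?_ ?_
    · refine mul_le_mul_of_nonneg_right ?_ hρ.le
      have h1 : y ≤ L1 * y := le_mul_of_one_le_left hy0.le hL1
      nlinarith
    · rw [div_le_iff₀ hLR0]
      calc (L1 * (y * w)) ^ 2 = (L1 * y) ^ 2 * w ^ 2 := by ring
        _ ≤ (L1 * y) ^ 2 * (ρ * R) := by gcongr
        _ ≤ (L1 * y) ^ 2 * (ρ * (L1 * R)) := by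
            have : R ≤ L1 * R := le_mul_of_one_le_left hR.le hL1
            gcongr
        _ = _ := by ring
  rw [e1]
  calc (L1 * y) ^ 2 * (ρ' / ρ) ≤ (L1 * y) ^ 2 * (L1 * y) ^ 2 := by gcongr
    _ = _ := by ring

theorem pow4_rpow {x : ℝ} (hx : 0 ≤ x) : (x ^ 4) ^ (3/2 : ℝ) = x ^ 6 := by
  rw [← Real.rpow_natCast x 4, ← Real.rpow_mul hx, ← Real.rpow_natCast x 6]
  norm_num

/-- numerical end of `kmc_sharp`. -/
theorem sharp_num {L1 C1 c2 w R y ε s q Δ : ℝ} (hL1 : 1 ≤ L1) (hC1 : 0 ≤ C1) (hc2 : 0 ≤ c2)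
    (hw : 0 < w) (hR : 0 < R) (hy : 1 ≤ y) (hε : 0 < ε) (hs : 0 < s) (hΔ : 0 ≤ Δ) :
    (L1 * y) ^ 6 * (C1 * (L1 * (y * w) / (L1 * R)) ^ (-ε) * Real.sqrt (c2 * (Δ * s ^ q)) *
      (L1 * R)) ≤
    L1 ^ 6 * C1 * Real.sqrt c2 * L1 * y ^ 6 * (w / R) ^ (-ε) * s ^ (q / 2) * Real.sqrt Δ * R := by
  have hL10 : 0 < L1 := by linarith
  have hy0 : 0 < y := by linarith
  have e3 : L1 * (y * w) / (L1 * R) = y * (w / R) := by field_simp
  have hwR0 : 0 < w / R := by positivity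
  have e4 : (L1 * (y * w) / (L1 * R)) ^ (-ε) ≤ (w / R) ^ (-ε) := by
    rw [e3]
    refine Real.rpow_le_rpow_of_nonpos hwR0 ?_ (by linarith)
    exact le_mul_of_one_le_left hwR0.le hy
  rw [Real.sqrt_mul hc2, Real.sqrt_mul hΔ]
  have e5 : Real.sqrt (s ^ q) = s ^ (q / 2) := by
    rw [Real.sqrt_eq_rpow, ← Real.rpow_mul hs.le]
    congr 1; ring
  rw [e5]
  calc (L1 * y) ^ 6 * (C1 * (L1 * (y * w) / (L1 * R)) ^ (-ε) *
        (Real.sqrt c2 * (Real.sqrt Δ * s ^ (q / 2))) * (L1 * R))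
      ≤ (L1 * y) ^ 6 * (C1 * (w / R) ^ (-ε) *
        (Real.sqrt c2 * (Real.sqrt Δ * s ^ (q / 2))) * (L1 * R)) := by gcongr
    _ = _ := by ring

/-- **sharp part on one direction cap**. `y = 2 Y`. -/
theorem kmc_sharp {κ : Type} {M : ℝ} (hM : 1 ≤ M) (hKM : ∀ V : ℝ, LKMg (SSg M) V)
    {q A L Λ V : ℝ}
    (hq : 0 ≤ q) (hA : 0 ≤ A) (hL : 0 ≤ L) (hΛ : 1 ≤ Λ) (hV : 0 ≤ V) {ε : ℝ} (hε : 0 < ε) :
    ∃ C0 : ℝ, 0 ≤ C0 ∧ ∀ (w ρ R y : ℝ), 0 < w → w ≤ R → w ^ 2 ≤ ρ * R → ρ ≤ w →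
      1 ≤ y → y * w ≤ R → ∀ (F : Finset κ) (C : κ → E2) (U : κ → E3 → ℝ≥0∞) (S : κ → Set E3),
      (∀ i, MeasurableSet (S i)) → (∀ i ∈ F, ‖C i‖ ≤ V) → (∀ i ∈ F, ∀ z ∈ S i, ‖z‖ ≤ A * R) →
      ∀ Δ : ℝ, 0 ≤ Δ → DensR (M1 M (2 + 4 * M)) q w ρ R Δ F C U S →
      ∀ s : ℝ, w ≤ s * R → s ≤ 1 → ∀ (ξ : E2) (F' : Finset κ), F' ⊆ F →
      (∀ i ∈ F', ‖C i - ξ‖ ≤ Λ * s) →
      ∫⁻ t in Set.Icc (-(L * R)) (L * R), ∫⁻ X,
        (Shd volume (y / 2) (w⁻¹ ^ 2 * ρ⁻¹) (fun i => frc w⁻¹ ρ⁻¹ (C i)) (fun i => vel (C i))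
          U S F' X t) ^ (3/2 : ℝ) ≤
      ENNReal.ofReal (C0 * y ^ 6 * (w / R) ^ (-ε) * s ^ (q / 2) * Real.sqrt Δ * R) *
        ∑ i ∈ F', ∫⁻ z in S i, U i z := by
  set L1 : ℝ := A + L * (V + V ^ 2) + (2 + V) + L + 1 with hL1
  have hLV : 0 ≤ L * (V + V ^ 2) := by positivity
  have hL11 : 1 ≤ L1 := by rw [hL1]; linarith
  have hL10 : 0 < L1 := by linarith
  have hLL1 : L ≤ L1 := by rw [hL1]; linarith
  have hAL1 : A ≤ L1 := by rw [hL1]; linarith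
  set V' : ℝ := 2 + V with hV'
  set c2 : ℝ := (8 * Λ + 3) ^ 2 * Cov M (2 + 4 * M) L1 with hc2
  have hcov0 := Cov_nonneg (K := 2 + 4 * M) hM (by linarith) hL11
  have hc20 : 0 ≤ c2 := by positivity
  obtain ⟨C1, hC1, hk⟩ := kcc_sharp (κ := κ) (T := SSg M) (fun _ _ _ _ _ h => ssg_nonneg h) hV
      (by rw [hV']; linarith : V ≤ V') (hKM V') ε hε
  refine ⟨L1 ^ 6 * C1 * Real.sqrt c2 * L1, by positivity, ?_⟩
  intro w ρ R y hw hwR hwρ hρw hy hyw F C U S hSm hC hSA Δ hΔ hD s hws hs1 ξ F' hF' hξ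
  have hR0 : 0 < R := hw.trans_le hwR
  have hy0 : 0 < y := by linarith
  have hρ : 0 < ρ := by
    by_contra hn
    have h1 : ρ * R ≤ 0 := mul_nonpos_of_nonpos_of_nonneg (not_lt.1 hn) hR0.le
    have h2 := pow_pos hw 2
    linarith
  have hs0 : 0 < s := by
    by_contra hn
    have : s * R ≤ 0 := mul_nonpos_of_nonpos_of_nonneg (not_lt.1 hn) hR0.le
    linarith
  have hyw1 : w ≤ y * w := le_mul_of_one_le_left hw.le hy
  have hyw0 : 0 ≤ y * w := by positivity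
  have hyρ1 : ρ ≤ y * ρ := le_mul_of_one_le_left hρ.le hy
  set w' : ℝ := L1 * (y * w) with hw'
  set ρ' : ℝ := max (y * ρ) (w' ^ 2 / (L1 * R)) with hρ'
  have hw'0 : 0 < w' := by positivity
  have hLR0 : 0 < L1 * R := by positivity
  have hw'R : w' ≤ L1 * R := mul_le_mul_of_nonneg_left hyw hL10.le
  have hyww' : y * w ≤ w' := le_mul_of_one_le_left hyw0 hL11
  have hww : w ≤ w' := hyw1.trans hyww'
  have hLww : L1 * w ≤ w' := mul_le_mul_of_nonneg_left hyw1 hL10.le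
  have hρρ : ρ ≤ ρ' := hyρ1.trans (le_max_left _ _)
  have hρ'0 : 0 < ρ' := hρ.trans_le hρρ
  have hρ'w : ρ' ≤ w' := by
    refine max_le ?_ ?_
    · exact (mul_le_mul_of_nonneg_left hρw hy0.le).trans hyww'
    · rw [div_le_iff₀ hLR0, sq]
      exact mul_le_mul_of_nonneg_left hw'R hw'0.le
  have hw'ρ' : w' ^ 2 ≤ ρ' * (L1 * R) := by
    rw [← div_le_iff₀ hLR0]; exact le_max_right _ _
  have hfin : ∀ i ∈ F', ∫⁻ z in S i, U i z ≠ ⊤ := by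
    intro i hi
    have h1 := whole_le hM hq hw hwR (hρw.trans hwR) hρ.le hΔ hD hV hA hC hSA
    have h2 : ∫⁻ z in S i, U i z ≤ ∑ i ∈ F, ∫⁻ z in S i, U i z :=
      Finset.single_le_sum (f := fun i => ∫⁻ z in S i, U i z) (fun _ _ => zero_le) (hF' hi)
    exact ne_top_of_le_ne_top ENNReal.ofReal_ne_top (h2.trans h1)
  have key := hk w' ρ' (L1 * R) hw'0 hw'R hw'ρ' hρ'w F' C U S hSm
    (fun i hi => hC i (hF' hi)) (fun i hi z hz => by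
      have h1 := hSA i (hF' hi) z hz
      have h2 : A * R ≤ L1 * R := mul_le_mul_of_nonneg_right hAL1 hR0.le
      rw [hV', add_mul, add_mul]
      linarith) hfin (c2 * (Δ * s ^ q)) (by positivity)
    (fun A' c hA' => cap_box hM hq hL11 hw hR0 hΔ hD hww hρρ hρ'0.le hws hs1 hΛ ξ hF' hξ hA' hLww)
  set G : ℝ → E3 → ℝ≥0∞ := fun t X => ENNReal.ofReal ((w' ^ 2 * ρ')⁻¹) *
          ∑ i ∈ F', ∫⁻ z in S i ∩ pcell (w' / 2) (ρ' / 2) (C i) (X + t • vel (C i)), U i z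
    with hG
  set Sh : E3 → ℝ → ℝ≥0∞ := fun X t => Shd volume (y / 2) (w⁻¹ ^ 2 * ρ⁻¹)
    (fun i => frc w⁻¹ ρ⁻¹ (C i)) (fun i => vel (C i)) U S F' X t with hShdef
  set f0 : ℝ := (w⁻¹ ^ 2 * ρ⁻¹) * (w' ^ 2 * ρ') with hf0
  have hf00 : 0 ≤ f0 := by positivity
  have hShG : ∀ t X, Sh X t ≤ ENNReal.ofReal f0 * G t X := by
    intro t X
    simp only [hG, hShdef]
    rw [← mul_assoc, ← ENNReal.ofReal_mul hf00]
    have e : f0 * (w' ^ 2 * ρ')⁻¹ = w⁻¹ ^ 2 * ρ⁻¹ := by rw [hf0]; field_simp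
    rw [e]
    unfold Shd
    refine mul_le_mul' le_rfl (Finset.sum_le_sum fun i _ => ?_)
    refine lintegral_mono_set fun z hz => ⟨hz.1, ?_⟩
    obtain ⟨h1, h2⟩ := plate_sub hw hρ (C i) X z t hz.2
    refine ⟨h1.trans ?_, h2.trans ?_⟩
    · linarith
    · have := le_max_left (y * ρ) (w' ^ 2 / (L1 * R))
      rw [← hρ'] at this
      linarith
  have hSh0 : ∀ t, |t| ≤ L * R → ∀ X, X ∉ {X : E3 | ‖X‖ ≤ L1 * R} → Sh X t = 0 := by
    intro t ht X hX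
    simp only [hShdef]
    unfold Shd
    rw [Finset.sum_eq_zero, mul_zero]
    intro i hi
    have : S i ∩ {z | ‖frc w⁻¹ ρ⁻¹ (C i) (z - X - t • vel (C i))‖ ≤ y / 2} = ∅ := by
      rw [Set.eq_empty_iff_forall_notMem]
      rintro z ⟨hz1, hz2⟩
      exact hX (plate_far hw hρ hρw hy0 hyw hL hV (hC i (hF' hi)) (hSA i (hF' hi) z hz1) ht hz2)
    rw [this, setLIntegral_empty]
  have hBm : MeasurableSet {X : E3 | ‖X‖ ≤ L1 * R} :=
    (isClosed_le continuous_norm continuous_const).measurableSet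
  have hLL : Set.Icc (-(L * R)) (L * R) ⊆ Set.Icc (-(L1 * R)) (L1 * R) := by
    have : L * R ≤ L1 * R := mul_le_mul_of_nonneg_right hLL1 hR0.le
    exact Set.Icc_subset_Icc (by linarith) this
  set cc : ℝ≥0∞ := ENNReal.ofReal f0 ^ (3/2 : ℝ) with hcc
  have hccn : cc ≠ ⊤ := ENNReal.rpow_ne_top_of_nonneg (by norm_num) ENNReal.ofReal_ne_top
  calc ∫⁻ t in Set.Icc (-(L * R)) (L * R), ∫⁻ X, (Sh X t) ^ (3/2 : ℝ)
      ≤ ∫⁻ t in Set.Icc (-(L * R)) (L * R), cc * ∫⁻ X in {X : E3 | ‖X‖ ≤ L1 * R},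
          (G t X) ^ (3/2 : ℝ) := by
        refine setLIntegral_mono' measurableSet_Icc fun t ht => ?_
        rw [← lintegral_const_mul' _ _ hccn, ← lintegral_indicator hBm]
        refine lintegral_mono fun X => ?_
        by_cases hX : X ∈ {X : E3 | ‖X‖ ≤ L1 * R}
        · rw [Set.indicator_of_mem hX, hcc, ← ENNReal.mul_rpow_of_nonneg _ _ (by norm_num)]
          exact ENNReal.rpow_le_rpow (hShG t X) (by norm_num)
        · rw [Set.indicator_of_notMem hX, hSh0 t (abs_le.2 ht) X hX, ENNReal.zero_rpow_of_pos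
            (by norm_num)]
    _ = cc * ∫⁻ t in Set.Icc (-(L * R)) (L * R), ∫⁻ X in {X : E3 | ‖X‖ ≤ L1 * R},
          (G t X) ^ (3/2 : ℝ) := lintegral_const_mul' _ _ hccn
    _ ≤ cc * ∫⁻ t in Set.Icc (-(L1 * R)) (L1 * R), ∫⁻ X in {X : E3 | ‖X‖ ≤ L1 * R},
          (G t X) ^ (3/2 : ℝ) := mul_le_mul' le_rfl (lintegral_mono_set hLL)
    _ ≤ cc * (ENNReal.ofReal (C1 * (w' / (L1 * R)) ^ (-ε) * Real.sqrt (c2 * (Δ * s ^ q)) *
          (L1 * R)) * ∑ i ∈ F', ∫⁻ z in S i, U i z) := mul_le_mul' le_rfl key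
    _ ≤ _ := by
        rw [← mul_assoc]
        refine mul_le_mul' ?_ le_rfl
        have hcc1 : cc ≤ ENNReal.ofReal ((L1 * y) ^ 6) := by
          rw [hcc, ENNReal.ofReal_rpow_of_nonneg hf00 (by norm_num), ← pow4_rpow (by positivity)]
          exact ENNReal.ofReal_le_ofReal (Real.rpow_le_rpow hf00
            (f0_le hL11 hw hρ hR0 hy hwρ) (by norm_num))
        refine (mul_le_mul' hcc1 le_rfl).trans ?_
        rw [← ENNReal.ofReal_mul (by positivity)]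
        exact ENNReal.ofReal_le_ofReal (sharp_num hL11 hC1 hc20 hw hR0 hy hε hs0 hΔ)

end Crest.Agent.R116.Ckm538
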