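import Crest.Agent.R116.Ckm6_538

/-!
# R116 (S0155), wave side: KMC in coefficient form, smooth weights, families of caps (helper538)
-/

set_option autoImplicit false

open MeasureTheory
open scoped ENNReal

namespace Crest.Agent.R116.Ckm538

open Crest.Agent.R138.Defs (E2)
open Crest.Agent.R116.CDef480
open Crest.Agent.R116.LKMDef299 (Cpt SSg)
open Crest.Agent.R116.Cad538

theorem rpow32_le {l a : ℝ≥0∞} (h : a ≤ l) : a ^ (3/2 : ℝ) ≤ l ^ (1/2 : ℝ) * a := by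
  have e : (3/2 : ℝ) = 1/2 + 1 := by norm_num
  rw [e, ENNReal.rpow_add_of_nonneg _ _ (by norm_num) (by norm_num), ENNReal.rpow_one]
  exact mul_le_mul' (ENNReal.rpow_le_rpow h (by norm_num)) le_rfl

/-- tail on one direction cap. -/
theorem tail_part {κ : Type} {w ρ : ℝ} (hw : 0 < w) (hρ : 0 < ρ) {C : κ → E2}
    {U : κ → E3 → ℝ≥0∞} {S : κ → Set E3} {F F' : Finset κ} (hF' : F' ⊆ F)
    (hU : ∀ i ∈ F, Measurable (U i)) {E : ℝ}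
    (hE : ∑ i ∈ F, ∫⁻ z in S i, U i z ≤ ENNReal.ofReal E) (c : ℝ≥0∞) (hc : c ≠ ⊤) (t : ℝ) :
    ∫⁻ X, (c * Den volume 4 (w⁻¹ ^ 2 * ρ⁻¹) (fun i => frc w⁻¹ ρ⁻¹ (C i)) (fun i => vel (C i))
      U S F' X t) ^ (3/2 : ℝ) ≤
      c ^ (3/2 : ℝ) * (ENNReal.ofReal (w⁻¹ ^ 2 * ρ⁻¹ * E) ^ (1/2 : ℝ) *
        (W0 * ∑ i ∈ F', ∫⁻ z in S i, U i z)) := by
  have hc0 : 0 < w⁻¹ ^ 2 * ρ⁻¹ := by positivity
  set D : E3 → ℝ≥0∞ := fun X => Den volume 4 (w⁻¹ ^ 2 * ρ⁻¹) (fun i => frc w⁻¹ ρ⁻¹ (C i))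
    (fun i => vel (C i)) U S F' X t with hD
  have hsup : ∀ X, D X ≤ ENNReal.ofReal (w⁻¹ ^ 2 * ρ⁻¹ * E) := by
    intro X
    refine (Den_le X t).trans ?_
    rw [ENNReal.ofReal_mul hc0.le]
    exact mul_le_mul' le_rfl ((Finset.sum_le_sum_of_subset hF').trans hE)
  have h1 : ∀ X, (c * D X) ^ (3/2 : ℝ) ≤
      c ^ (3/2 : ℝ) * (ENNReal.ofReal (w⁻¹ ^ 2 * ρ⁻¹ * E) ^ (1/2 : ℝ) * D X) := by
    intro X
    rw [ENNReal.mul_rpow_of_nonneg _ _ (by norm_num)]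
    exact mul_le_mul' le_rfl (rpow32_le (hsup X))
  refine (lintegral_mono h1).trans (le_of_eq ?_)
  rw [lintegral_const_mul' _ _ (ENNReal.rpow_ne_top_of_nonneg (by norm_num) hc),
    lintegral_const_mul' _ _ (ENNReal.rpow_ne_top_of_nonneg (by norm_num) ENNReal.ofReal_ne_top)]
  congr 2
  exact lint_Den hc0 (fun i _ => det_frc _ _ _) (fun i hi => hU i (hF' hi)) t

/-- the power of the cut-off. -/
theorem tail_real {q e1 w ρ R s Δ C2 : ℝ} (hq : 0 ≤ q) (hw : 0 < w) (hwR : w ≤ R) (hρ : 0 < ρ)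
    (hwρ : w ^ 2 ≤ ρ * R) (hs : w ≤ s * R) (hΔ : 0 ≤ Δ) (hC2 : 0 ≤ C2) {k : ℕ}
    (hk : 4 + q ≤ 3 * e1 * k) :
    ENNReal.ofReal ((((R / w) ^ e1 / 2) ^ k)⁻¹) ^ (3/2 : ℝ) *
      ENNReal.ofReal (w⁻¹ ^ 2 * ρ⁻¹ * (C2 * (Δ * R ^ 3))) ^ (1/2 : ℝ) ≤
      ENNReal.ofReal (((2:ℝ) ^ k) ^ (3/2 : ℝ) * Real.sqrt C2 * (s ^ (q / 2) * Real.sqrt Δ)) := by
  have hR : 0 < R := hw.trans_le hwR
  set P : ℝ := R / w with hP
  have hP0 : 0 < P := by positivity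
  have hP1 : 1 ≤ P := by rw [hP, le_div_iff₀ hw, one_mul]; exact hwR
  have hs0 : 0 < s := by
    by_contra hn
    have : s * R ≤ 0 := mul_nonpos_of_nonpos_of_nonneg (not_lt.1 hn) hR.le
    linarith
  have hsP : P⁻¹ ≤ s := by
    rw [hP, inv_div, div_le_iff₀ hR]; exact hs
  rw [ENNReal.ofReal_rpow_of_nonneg (by positivity) (by norm_num),
    ENNReal.ofReal_rpow_of_nonneg (by positivity) (by norm_num), ← ENNReal.ofReal_mul (by positivity)]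
  refine ENNReal.ofReal_le_ofReal ?_
  have e1' : ((P ^ e1 / 2) ^ k)⁻¹ = 2 ^ k * P ^ (-(e1 * k)) := by
    rw [div_pow, inv_div, ← Real.rpow_natCast (P ^ e1), ← Real.rpow_mul hP0.le,
      Real.rpow_neg hP0.le]
    rfl
  have e2 : w⁻¹ ^ 2 * ρ⁻¹ * (C2 * (Δ * R ^ 3)) ≤ C2 * Δ * P ^ 4 := by
    have h1 : w⁻¹ ^ 2 * ρ⁻¹ * R ^ 3 ≤ P ^ 4 := by
      rw [hP, div_pow, le_div_iff₀ (by positivity)]
      have e3 : w⁻¹ ^ 2 * ρ⁻¹ * R ^ 3 * w ^ 4 = ρ⁻¹ * R ^ 3 * w ^ 2 := by field_simp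
      rw [e3]
      calc ρ⁻¹ * R ^ 3 * w ^ 2 ≤ ρ⁻¹ * R ^ 3 * (ρ * R) := by gcongr
        _ = R ^ 4 := by field_simp
    calc w⁻¹ ^ 2 * ρ⁻¹ * (C2 * (Δ * R ^ 3)) = C2 * Δ * (w⁻¹ ^ 2 * ρ⁻¹ * R ^ 3) := by ring
      _ ≤ _ := by gcongr
  have e4 : (w⁻¹ ^ 2 * ρ⁻¹ * (C2 * (Δ * R ^ 3))) ^ (1/2 : ℝ) ≤
      Real.sqrt C2 * Real.sqrt Δ * P ^ 2 := by
    refine (Real.rpow_le_rpow (by positivity) e2 (by norm_num)).trans (le_of_eq ?_)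
    rw [← Real.sqrt_eq_rpow, Real.sqrt_mul (by positivity), Real.sqrt_mul hC2]
    congr 1
    rw [show P ^ 4 = (P ^ 2) ^ 2 by ring, Real.sqrt_sq (by positivity)]
  rw [e1', Real.mul_rpow (by positivity) (by positivity), ← Real.rpow_mul hP0.le]
  have h1 : P ^ (-(e1 * k) * (3/2)) ≤ P ^ (-(2 + q/2) : ℝ) :=
    Real.rpow_le_rpow_of_exponent_le hP1 (by nlinarith)
  have h2 : P ^ (-(2 + q/2) : ℝ) * P ^ 2 = (P⁻¹) ^ (q / 2) := by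
    rw [Real.inv_rpow hP0.le, ← Real.rpow_neg hP0.le, ← Real.rpow_natCast P 2,
      ← Real.rpow_add hP0]
    congr 1
    push_cast
    ring
  have h3 : (P⁻¹) ^ (q / 2) ≤ s ^ (q / 2) :=
    Real.rpow_le_rpow (by positivity) hsP (by positivity)
  calc (2 ^ k) ^ (3/2 : ℝ) * P ^ (-(e1 * k) * (3/2)) *
        (w⁻¹ ^ 2 * ρ⁻¹ * (C2 * (Δ * R ^ 3))) ^ (1/2 : ℝ)
      ≤ (2 ^ k) ^ (3/2 : ℝ) * P ^ (-(2 + q/2) : ℝ) * (Real.sqrt C2 * Real.sqrt Δ * P ^ 2) := by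
        gcongr
    _ = (2 ^ k) ^ (3/2 : ℝ) * Real.sqrt C2 * ((P ^ (-(2 + q/2) : ℝ) * P ^ 2) *
          Real.sqrt Δ) := by ring
    _ ≤ _ := by
        rw [h2]
        gcongr

/-- powers of `P`. -/
theorem pow_bound {w R e1 ε : ℝ} (hw : 0 < w) (hwR : w ≤ R) (he1 : e1 ≤ ε / 12) :
    ((R / w) ^ e1) ^ 6 * (w / R) ^ (-(ε / 2)) ≤ (w / R) ^ (-ε) := by
  have hR : 0 < R := hw.trans_le hwR
  set P : ℝ := R / w with hP
  have hP0 : 0 < P := by positivity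
  have hP1 : 1 ≤ P := by rw [hP, le_div_iff₀ hw, one_mul]; exact hwR
  have e : w / R = P⁻¹ := by rw [hP, inv_div]
  rw [e, Real.inv_rpow hP0.le, Real.inv_rpow hP0.le, ← Real.rpow_neg hP0.le,
    ← Real.rpow_neg hP0.le, neg_neg, neg_neg, ← Real.rpow_natCast (P ^ e1) 6,
    ← Real.rpow_mul hP0.le, ← Real.rpow_add hP0]
  refine Real.rpow_le_rpow_of_exponent_le hP1 ?_
  push_cast
  linarith

open Classical in
/-- sum of the energies of families of caps. -/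
theorem sum_fam {κ β : Type} (K : Finset β) (Mf : β → Finset κ) (F : Finset κ) (N : ℕ)
    (hM : ∀ k ∈ K, Mf k ⊆ F) (hN : ∀ i ∈ F, (K.filter (fun k => i ∈ Mf k)).card ≤ N)
    (a : κ → ℝ≥0∞) :
    ∑ k ∈ K, ∑ i ∈ Mf k, a i ≤ (N : ℝ≥0∞) * ∑ i ∈ F, a i := by
  have h1 : ∑ k ∈ K, ∑ i ∈ Mf k, a i = ∑ i ∈ F, ∑ k ∈ K.filter (fun k => i ∈ Mf k), a i := by
    refine Finset.sum_comm' fun k i => ?_
    simp only [Finset.mem_filter]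
    constructor
    · rintro ⟨hk, hi⟩
      exact ⟨⟨hk, hi⟩, hM k hk hi⟩
    · rintro ⟨⟨hk, hi⟩, _⟩
      exact ⟨hk, hi⟩
  rw [h1, Finset.mul_sum]
  refine Finset.sum_le_sum fun i hi => ?_
  rw [Finset.sum_const, nsmul_eq_mul]
  exact mul_le_mul' (by exact_mod_cast hN i hi) le_rfl

set_option maxHeartbeats 1000000 in
open Classical in
/-- **KMC in coefficient form** on the cone: a family of direction caps of size `s`, overlap `N`;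
the exponent `n0` depends on `q, ε` only. -/
theorem kmc_core' {κ : Type} {M : ℝ} (hM : 1 ≤ M) (hKM : ∀ V : ℝ, LKMg (SSg M) V)
    {q : ℝ} (hq : 0 ≤ q) (ε : ℝ) (hε : 0 < ε) :
    ∃ n0 : ℕ, ∀ n, n0 ≤ n → ∀ A L Λ V : ℝ, 0 ≤ A → 0 ≤ L → 1 ≤ Λ → 0 ≤ V →
      ∃ C0 : ℝ, 0 ≤ C0 ∧
      ∀ (w ρ R : ℝ), 0 < w → w ≤ R → w ^ 2 ≤ ρ * R → ρ ≤ w →
      ∀ (F : Finset κ) (C : κ → E2) (U : κ → E3 → ℝ≥0∞) (S : κ → Set E3),
      (∀ i, MeasurableSet (S i)) → (∀ i ∈ F, Measurable (U i)) →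
      (∀ i ∈ F, ‖C i‖ ≤ V) → (∀ i ∈ F, ∀ z ∈ S i, ‖z‖ ≤ A * R) →
      ∀ Δ : ℝ, 0 ≤ Δ → DensR (M1 M (2 + 4 * M)) q w ρ R Δ F C U S →
      ∀ s : ℝ, w ≤ s * R → s ≤ 1 →
      ∀ (β : Type) (K : Finset β) (ξ : β → E2) (Mf : β → Finset κ) (N : ℕ),
      (∀ k ∈ K, Mf k ⊆ F ∧ ∀ i ∈ Mf k, ‖C i - ξ k‖ ≤ Λ * s) →
      (∀ i ∈ F, (K.filter (fun k => i ∈ Mf k)).card ≤ N) →
      ∑ k ∈ K, ∫⁻ t in Set.Icc (-(L * R)) (L * R), ∫⁻ X,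
        (Den volume n (w⁻¹ ^ 2 * ρ⁻¹) (fun i => frc w⁻¹ ρ⁻¹ (C i)) (fun i => vel (C i))
          U S (Mf k) X t) ^ (3/2 : ℝ) ≤
      ENNReal.ofReal (C0 * (w / R) ^ (-ε) * s ^ (q / 2) * Real.sqrt Δ * R * N) *
        ∑ i ∈ F, ∫⁻ z in S i, U i z := by
  set e1 : ℝ := min (ε / 12) 1 with he1
  have he10 : 0 < e1 := lt_min (by positivity) (by norm_num)
  have he12 : e1 ≤ 1 := min_le_right _ _
  have he16 : e1 ≤ ε / 12 := min_le_left _ _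
  refine ⟨4 + ⌈(4 + q) / (3 * e1)⌉₊, fun n hn => ?_⟩
  intro A L Λ V hA hL hΛ hV
  obtain ⟨C1, hC1, h1⟩ := kmc_sharp (κ := κ) hM hKM (q := q) (A := A) (L := L) (Λ := Λ) (V := V)
    hq hA hL hΛ hV (half_pos hε)
  set k0 : ℕ := n - 4 with hk0
  have hn3 : 4 ≤ n := by omega
  have hk : 4 + q ≤ 3 * e1 * k0 := by
    have h2 : ⌈(4 + q) / (3 * e1)⌉₊ ≤ k0 := by omega
    have h3 : (4 + q) / (3 * e1) ≤ k0 := (Nat.le_ceil _).trans (by exact_mod_cast h2)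
    rw [div_le_iff₀ (by positivity)] at h3
    linarith
  set C2 : ℝ := (8 * (1 + V + A + V ^ 2) + 3) ^ 2 * Cov 1 6 1 * (1 + V + A + V ^ 2) ^ 4 with hC2
  have hC20 : 0 ≤ C2 := by
    have := Cov_nonneg (M := 1) (K := 6) (L := 1) le_rfl (by norm_num) le_rfl
    positivity
  set w0 : ℝ := W0.toReal with hw0
  have hw00 : 0 ≤ w0 := ENNReal.toReal_nonneg
  have hW0 : W0 = ENNReal.ofReal w0 := (ENNReal.ofReal_toReal W0_lt.ne).symm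
  set C3 : ℝ := ((2:ℝ) ^ k0) ^ (3/2 : ℝ) * Real.sqrt C2 * w0 * (2 * L) with hC3
  have hC30 : 0 ≤ C3 := by positivity
  refine ⟨(2:ℝ) ^ (1/2 : ℝ) * (C1 + C3), by positivity, ?_⟩
  intro w ρ R hw hwR hwρ hρw F C U S hSm hU hC hSA Δ hΔ hD s hws hs1 β K ξ Mf N hKM' hN
  have hR0 : 0 < R := hw.trans_le hwR
  have hρ : 0 < ρ := by
    by_contra hn
    have h1 : ρ * R ≤ 0 := mul_nonpos_of_nonpos_of_nonneg (not_lt.1 hn) hR0.le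
    have h2 := pow_pos hw 2
    linarith
  have hs0 : 0 < s := by
    by_contra hn
    have : s * R ≤ 0 := mul_nonpos_of_nonpos_of_nonneg (not_lt.1 hn) hR0.le
    linarith
  have hen := whole_le hM hq hw hwR (hρw.trans hwR) hρ.le hΔ hD hV hA hC hSA
  have hP1 : 1 ≤ R / w := by rw [le_div_iff₀ hw, one_mul]; exact hwR
  have hP0 : 0 < R / w := by positivity
  set y : ℝ := (R / w) ^ e1 with hy
  have hy1 : 1 ≤ y := Real.one_le_rpow hP1 he10.le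
  have hyw : y * w ≤ R := by
    have : y ≤ R / w := by
      calc y ≤ (R / w) ^ (1:ℝ) := Real.rpow_le_rpow_of_exponent_le hP1 he12
        _ = R / w := Real.rpow_one _
    rwa [le_div_iff₀ hw] at this
  have hY : 0 < y / 2 := by positivity
  set c : ℝ≥0∞ := ENNReal.ofReal (((y / 2) ^ k0)⁻¹) with hc
  set X0 : ℝ := s ^ (q / 2) * Real.sqrt Δ with hX0
  have hX00 : 0 ≤ X0 := by positivity
  set Pe : ℝ := (w / R) ^ (-ε) with hPe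
  have hwR0 : 0 < w / R := by positivity
  have hPe1 : 1 ≤ Pe := by
    rw [hPe]
    refine Real.one_le_rpow_of_pos_of_le_one_of_nonpos hwR0 ?_ (by linarith)
    rw [div_le_one hR0]; exact hwR
  -- one cap
  have one : ∀ k ∈ K, ∫⁻ t in Set.Icc (-(L * R)) (L * R), ∫⁻ X,
        (Den volume n (w⁻¹ ^ 2 * ρ⁻¹) (fun i => frc w⁻¹ ρ⁻¹ (C i)) (fun i => vel (C i))
          U S (Mf k) X t) ^ (3/2 : ℝ) ≤
      ENNReal.ofReal ((2:ℝ) ^ (1/2 : ℝ) * (C1 + C3) * Pe * X0 * R) *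
        ∑ i ∈ Mf k, ∫⁻ z in S i, U i z := by
    intro k hkK
    obtain ⟨hMk, hMk'⟩ := hKM' k hkK
    set Ek : ℝ≥0∞ := ∑ i ∈ Mf k, ∫⁻ z in S i, U i z with hEk
    set Dn : E3 → ℝ → ℝ≥0∞ := fun X t => Den volume n (w⁻¹ ^ 2 * ρ⁻¹)
      (fun i => frc w⁻¹ ρ⁻¹ (C i)) (fun i => vel (C i)) U S (Mf k) X t with hDn
    set D4 : E3 → ℝ → ℝ≥0∞ := fun X t => Den volume 4 (w⁻¹ ^ 2 * ρ⁻¹)
      (fun i => frc w⁻¹ ρ⁻¹ (C i)) (fun i => vel (C i)) U S (Mf k) X t with hD4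
    set Sh : E3 → ℝ → ℝ≥0∞ := fun X t => Shd volume (y / 2) (w⁻¹ ^ 2 * ρ⁻¹)
      (fun i => frc w⁻¹ ρ⁻¹ (C i)) (fun i => vel (C i)) U S (Mf k) X t with hSh
    have hUk : ∀ i ∈ Mf k, Measurable (U i) := fun i hi => hU i (hMk hi)
    have hpt : ∀ t, ∫⁻ X, (Dn X t) ^ (3/2 : ℝ) ≤
        ENNReal.ofReal ((2:ℝ) ^ (1/2 : ℝ)) * (∫⁻ X, (Sh X t) ^ (3/2 : ℝ)) +
        ENNReal.ofReal ((2:ℝ) ^ (1/2 : ℝ)) * (ENNReal.ofReal (((2:ℝ) ^ k0) ^ (3/2 : ℝ) *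
          Real.sqrt C2 * X0) * (W0 * Ek)) := by
      intro t
      have h2 : ∀ X, (Dn X t) ^ (3/2 : ℝ) ≤
          ENNReal.ofReal ((2:ℝ) ^ (1/2 : ℝ)) * (Sh X t) ^ (3/2 : ℝ) +
          ENNReal.ofReal ((2:ℝ) ^ (1/2 : ℝ)) * (c * D4 X t) ^ (3/2 : ℝ) := by
        intro X
        have h3 : Dn X t ≤ Sh X t + c * D4 X t := Den_split hn3 hY hUk X t
        refine (ENNReal.rpow_le_rpow h3 (by norm_num)).trans ?_
        refine (ENNReal.rpow_add_le_mul_rpow_add_rpow _ _ (by norm_num)).trans (le_of_eq ?_)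
        rw [mul_add]
        have e : (2 : ℝ≥0∞) ^ ((3/2 : ℝ) - 1) = ENNReal.ofReal ((2:ℝ) ^ (1/2 : ℝ)) := by
          rw [← ENNReal.ofReal_rpow_of_nonneg (by norm_num) (by norm_num)]
          norm_num
        rw [e]
      refine (lintegral_mono h2).trans ?_
      have hm4 : Measurable fun X => D4 X t := Den_meas hUk t
      rw [lintegral_add_right _ (((hm4.const_mul c).pow_const _).const_mul _),
        lintegral_const_mul' _ _ ENNReal.ofReal_ne_top,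
        lintegral_const_mul' _ _ ENNReal.ofReal_ne_top]
      refine add_le_add le_rfl (mul_le_mul' le_rfl ?_)
      refine (tail_part hw hρ hMk hU hen c ENNReal.ofReal_ne_top t).trans ?_
      rw [← mul_assoc]
      exact mul_le_mul' (tail_real hq hw hwR hρ hwρ hws hΔ hC20 hk) le_rfl
    calc _ ≤ ∫⁻ t in Set.Icc (-(L * R)) (L * R), (ENNReal.ofReal ((2:ℝ) ^ (1/2 : ℝ)) *
          (∫⁻ X, (Sh X t) ^ (3/2 : ℝ)) +
        ENNReal.ofReal ((2:ℝ) ^ (1/2 : ℝ)) * (ENNReal.ofReal (((2:ℝ) ^ k0) ^ (3/2 : ℝ) *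
          Real.sqrt C2 * X0) * (W0 * Ek))) := lintegral_mono fun t => hpt t
      _ = ENNReal.ofReal ((2:ℝ) ^ (1/2 : ℝ)) * (∫⁻ t in Set.Icc (-(L * R)) (L * R),
          ∫⁻ X, (Sh X t) ^ (3/2 : ℝ)) +
        ENNReal.ofReal ((2:ℝ) ^ (1/2 : ℝ)) * (ENNReal.ofReal (((2:ℝ) ^ k0) ^ (3/2 : ℝ) *
          Real.sqrt C2 * X0) * (W0 * Ek)) * ENNReal.ofReal (2 * L * R) := by
          rw [lintegral_add_right _ measurable_const, lintegral_const_mul' _ _ ENNReal.ofReal_ne_top,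
            lintegral_const, Measure.restrict_apply_univ, Real.volume_Icc]
          congr 3
          ring
      _ ≤ ENNReal.ofReal ((2:ℝ) ^ (1/2 : ℝ)) * (ENNReal.ofReal (C1 * y ^ 6 *
            (w / R) ^ (-(ε / 2)) * s ^ (q / 2) * Real.sqrt Δ * R) * Ek) +
        ENNReal.ofReal ((2:ℝ) ^ (1/2 : ℝ)) * (ENNReal.ofReal (((2:ℝ) ^ k0) ^ (3/2 : ℝ) *
          Real.sqrt C2 * X0) * (W0 * Ek)) * ENNReal.ofReal (2 * L * R) := by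
          refine add_le_add (mul_le_mul' le_rfl ?_) le_rfl
          exact h1 w ρ R y hw hwR hwρ hρw hy1 hyw F C U S hSm hC hSA Δ hΔ hD s hws hs1 (ξ k)
            (Mf k) hMk hMk'
      _ = (ENNReal.ofReal ((2:ℝ) ^ (1/2 : ℝ) * (C1 * y ^ 6 * (w / R) ^ (-(ε / 2)) *
            s ^ (q / 2) * Real.sqrt Δ * R)) +
          ENNReal.ofReal ((2:ℝ) ^ (1/2 : ℝ) * ((((2:ℝ) ^ k0) ^ (3/2 : ℝ) *
          Real.sqrt C2 * X0) * w0 * (2 * L * R)))) * Ek := by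
          rw [add_mul, ENNReal.ofReal_mul (p := (2:ℝ) ^ (1/2 : ℝ)) (by positivity),
            ENNReal.ofReal_mul (p := (2:ℝ) ^ (1/2 : ℝ)) (by positivity),
            ENNReal.ofReal_mul (p := (((2:ℝ) ^ k0) ^ (3/2 : ℝ) * Real.sqrt C2 * X0) * w0)
              (by positivity),
            ENNReal.ofReal_mul (p := (((2:ℝ) ^ k0) ^ (3/2 : ℝ) * Real.sqrt C2 * X0))
              (by positivity), hW0]
          ring
      _ ≤ _ := by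
          rw [← ENNReal.ofReal_add (by positivity) (by positivity)]
          refine mul_le_mul' (ENNReal.ofReal_le_ofReal ?_) le_rfl
          have h3 : y ^ 6 * (w / R) ^ (-(ε / 2)) ≤ Pe := pow_bound hw hwR he16
          calc (2:ℝ) ^ (1/2 : ℝ) * (C1 * y ^ 6 * (w / R) ^ (-(ε / 2)) * s ^ (q / 2) *
                Real.sqrt Δ * R) +
                (2:ℝ) ^ (1/2 : ℝ) * ((((2:ℝ) ^ k0) ^ (3/2 : ℝ) * Real.sqrt C2 * X0) * w0 *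
                  (2 * L * R))
              = (2:ℝ) ^ (1/2 : ℝ) * (C1 * (y ^ 6 * (w / R) ^ (-(ε / 2))) * X0 * R +
                  C3 * 1 * X0 * R) := by
                rw [hX0, hC3]; ring
            _ ≤ (2:ℝ) ^ (1/2 : ℝ) * (C1 * Pe * X0 * R + C3 * Pe * X0 * R) := by
                gcongr
            _ = _ := by ring
  refine (Finset.sum_le_sum one).trans ?_
  rw [← Finset.mul_sum]
  have h5 := sum_fam K Mf F N (fun k hk => (hKM' k hk).1) hN (fun i => ∫⁻ z in S i, U i z)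
  refine (mul_le_mul' le_rfl h5).trans ?_
  rw [← mul_assoc, ← ENNReal.ofReal_natCast, ← ENNReal.ofReal_mul (by positivity)]
  refine mul_le_mul' (ENNReal.ofReal_le_ofReal (le_of_eq ?_)) le_rfl
  rw [hX0]; ring

open Classical in
/-- `kmc_core'` with the constants first. -/
theorem kmc_core {κ : Type} {M : ℝ} (hM : 1 ≤ M) (hKM : ∀ V : ℝ, LKMg (SSg M) V)
    {q A L Λ V : ℝ}
    (hq : 0 ≤ q) (hA : 0 ≤ A) (hL : 0 ≤ L) (hΛ : 1 ≤ Λ) (hV : 0 ≤ V) (ε : ℝ) (hε : 0 < ε) :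
    ∃ n0 : ℕ, ∀ n, n0 ≤ n → ∃ C0 : ℝ, 0 ≤ C0 ∧
      ∀ (w ρ R : ℝ), 0 < w → w ≤ R → w ^ 2 ≤ ρ * R → ρ ≤ w →
      ∀ (F : Finset κ) (C : κ → E2) (U : κ → E3 → ℝ≥0∞) (S : κ → Set E3),
      (∀ i, MeasurableSet (S i)) → (∀ i ∈ F, Measurable (U i)) →
      (∀ i ∈ F, ‖C i‖ ≤ V) → (∀ i ∈ F, ∀ z ∈ S i, ‖z‖ ≤ A * R) →
      ∀ Δ : ℝ, 0 ≤ Δ → DensR (M1 M (2 + 4 * M)) q w ρ R Δ F C U S →
      ∀ s : ℝ, w ≤ s * R → s ≤ 1 →
      ∀ (β : Type) (K : Finset β) (ξ : β → E2) (Mf : β → Finset κ) (N : ℕ),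
      (∀ k ∈ K, Mf k ⊆ F ∧ ∀ i ∈ Mf k, ‖C i - ξ k‖ ≤ Λ * s) →
      (∀ i ∈ F, (K.filter (fun k => i ∈ Mf k)).card ≤ N) →
      ∑ k ∈ K, ∫⁻ t in Set.Icc (-(L * R)) (L * R), ∫⁻ X,
        (Den volume n (w⁻¹ ^ 2 * ρ⁻¹) (fun i => frc w⁻¹ ρ⁻¹ (C i)) (fun i => vel (C i))
          U S (Mf k) X t) ^ (3/2 : ℝ) ≤
      ENNReal.ofReal (C0 * (w / R) ^ (-ε) * s ^ (q / 2) * Real.sqrt Δ * R * N) *
        ∑ i ∈ F, ∫⁻ z in S i, U i z := by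
  obtain ⟨n0, h0⟩ := kmc_core' (κ := κ) hM hKM hq ε hε
  exact ⟨n0, fun n hn => h0 n hn A L Λ V hA hL hΛ hV⟩

end Crest.Agent.R116.Ckm538
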