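import Crest.Agent.R116.WDefC_188
import Crest.Agent.R116.Cad1_538

/-!
# R116 (S0155), wave side: literal of the Kakeya row (helper890; proof: Ckm8_538)

`KMR M q`: Kakeya inequality for coefficient densities on caps of size `s`, with the gain
`s^(q/2)` from the rewarded box density; the density hypothesis is `DecOut.dens` literally.
The power `n0` of the weights depends on `M, q, ε` only (it is fixed before the dilations `A`).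
-/

set_option autoImplicit false

open MeasureTheory
open scoped ENNReal

namespace Crest.Agent.R116.KMR890

open Crest.Agent.R138.Defs (E2)
open Crest.Agent.R138.Wpk685 (cen caps)
open Crest.Agent.R116.CDef480 Crest.Agent.R116.WC188
open Crest.Agent.R116.LZg725 (Cf)

/-- **Kakeya row.** -/
def KMR (M q : ℝ) : Prop :=
  ∀ ε : ℝ, 0 < ε → ∃ n0 : ℕ, ∀ n : ℕ, n0 ≤ n → ∀ A T Λ : ℝ, 0 ≤ A → 0 ≤ T → 0 ≤ Λ →
  ∃ C : ℝ, 0 ≤ C ∧ ∀ κ r : ℝ, 0 < κ → κ ≤ 1 → 1 ≤ r → r ^ (-(1/2) : ℝ) ≤ κ →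
  ∀ g : E3 → ℂ, Integrable g → MemLp g 2 →
  ∀ S : ℤ × ℤ → Set E3, (∀ m, MeasurableSet (S m)) →
    (∀ m, S m ⊆ Metric.closedBall 0 (A * r)) → ∀ Δ : ℝ, 0 ≤ Δ →
    (∀ (c : E2) (X0 : E3) (f : Cf E2) (s1 s2 : ℝ), Sd r s1 s2 →
      Adm M κ s1 s2 (TT κ s2 r) r c X0 f →
      enc (r ^ (-(1/2) : ℝ)) g (fun m => S m ∩ pbx κ 1 r s1 s2 c X0 f m) ≤
        ENNReal.ofReal (Δ * s2 ^ q * scost κ s1 s2 r)) →
    ∀ s : ℝ, r ^ (-(1/2) : ℝ) ≤ s → s ≤ 1 →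
    ∀ (K : Finset (ℤ × ℤ)) (Mk : ℤ × ℤ → Finset (ℤ × ℤ)),
      (∀ k ∈ K, Mk k ⊆ caps (r ^ (-(1/2) : ℝ)) ∧
        ∀ m ∈ Mk k, ‖cen (r ^ (-(1/2) : ℝ)) m - cen s k‖ ≤ Λ * s) →
      ∑ k ∈ K, ∫⁻ t in Set.Icc (-(T * r)) (T * r), ∫⁻ x,
        (Cad538.Acc n (r ^ (-(1/2) : ℝ)) κ (r ^ (-(1/2) : ℝ)) g S (Mk k) x t) ^ (3/2 : ℝ) ≤
        ENNReal.ofReal (C * r ^ ε * s ^ (q / 2) * Real.sqrt Δ * r) *
          enc (r ^ (-(1/2) : ℝ)) g S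

end Crest.Agent.R116.KMR890
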