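import Crest.Agent.R116.LZg6_725
import Crest.Agent.R116.LKMDef_299
import Crest.Agent.R116.WDefC_188

/-!
# R116, (Z4), part 7: members as objects of `WDefC_188`; sub-members, thickened members (helper725)

`toMem s1 sg R c X0 f` with `B = κ⁻¹`: `toMem_T`, `adm_iff`, `rays_sub_mset` (rays of the member are
in `mset`), `mset_sub_rays` (`mset` is in the rays of the twofold member with `4 B`).
`Mem.fat K m`, `fat_ok`, `rays_sub_fat`; `Mem.sub_ok`; `cpt_zoom`; `mshift` (translations).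
-/

set_option autoImplicit false
set_option linter.unusedSectionVars false

namespace Crest.Agent.R116.LZg725

open Crest.Agent.R138.Defs (E2)
open Crest.Agent.R116.CDef480 (E3 lat pt vel)
open Crest.Agent.R116.LKMDef299 (Cpt)
open Crest.Agent.R116 (WC188.Adm WC188.TT WC188.mset)

/-- the member with data `(s1, sg, R, c, X0, f)` at time `0`. -/
def toMem (s1 sg R : ℝ) (c : E2) (X0 : E3) (f : Cf E2) : Mem := ⟨c, sg, s1, R, X0, 0, f⟩

theorem toMem_T (κ s1 sg R : ℝ) (c : E2) (X0 : E3) (f : Cf E2) :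
    (toMem s1 sg R c X0 f).T κ⁻¹ = WC188.TT κ sg R := by
  unfold Mem.T toMem WC188.TT
  simp only []
  rw [mul_inv, div_eq_mul_inv]

theorem toMem_scost (κ s1 sg R : ℝ) (c : E2) (X0 : E3) (f : Cf E2) :
    (toMem s1 sg R c X0 f).scost κ⁻¹ = WC188.scost κ s1 sg R := by
  unfold Mem.scost WC188.scost
  rw [toMem_T]
  rfl

theorem TT_pos {κ sg R : ℝ} (hsg : 0 < sg) : 0 < WC188.TT κ sg R :=
  lt_of_lt_of_le (pow_pos hsg 2) (le_max_left _ _)

theorem adm_iff {M κ s1 sg R : ℝ} {c : E2} {X0 : E3} {f : Cf E2} (hκ : 0 < κ) (hR : 0 < R)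
    (hs1 : 0 < s1) (hsg : s1 ≤ sg) :
    WC188.Adm M κ s1 sg (WC188.TT κ sg R) R c X0 f ↔
      (toMem s1 sg R c X0 f).Ok M κ⁻¹ ∧ Cpt M κ⁻¹ (toMem s1 sg R c X0 f) := by
  have hT : 0 < WC188.TT κ sg R := TT_pos (hs1.trans_le hsg)
  constructor
  · intro h
    refine ⟨⟨hR, hs1, hsg, ?_⟩, fun s hs => ?_⟩
    · rw [toMem_T]
      refine ⟨h.disc, fun s hs => ?_, h.ld, h.ev⟩
      have h1 := h.ny s (by simpa [toMem] using hs)
      rwa [le_div_iff₀ hT] at h1
    · have h1 := h.cmp s (by simpa [toMem] using hs)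
      have h2 := mul_le_mul_of_nonneg_right h1 (inv_pos.2 hκ).le
      refine h2.trans (le_of_eq ?_)
      change M * (κ * s1 * R) * κ⁻¹ = M * (s1 * R)
      field_simp
  · rintro ⟨h, h'⟩
    have ha := h.adm
    rw [toMem_T] at ha
    refine ⟨ha.disc, fun s hs => ?_, fun s hs => ?_, ha.ld, ha.ev⟩
    · rw [le_div_iff₀ hT]
      exact ha.ny s (by simpa [toMem] using hs)
    · have h1 := h' s (by simpa [toMem] using hs)
      have h2 := mul_le_mul_of_nonneg_right h1 hκ.le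
      have e1 : |f.ny s| * κ⁻¹ * κ = |f.ny s| := by field_simp
      have e2 : M * (s1 * R) * κ = M * (κ * s1 * R) := by ring
      change |f.ny s| * κ⁻¹ * κ ≤ M * (s1 * R) * κ at h2
      rwa [e1, e2] at h2

/-- the rays of the member are in `mset`. -/
theorem rays_sub_mset {κ s1 sg R : ℝ} {c : E2} {X0 : E3} {f : Cf E2} (hR : 0 < R) {C : E2}
    {X : E3} (h : (C, lat X, X 2) ∈ (toMem s1 sg R c X0 f).rays κ⁻¹) :
    X ∈ WC188.mset sg (WC188.TT κ sg R) R s1 c X0 f C := by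
  rw [Mem.mem_rays, toMem_T] at h
  obtain ⟨hC, hr⟩ := h
  have h00 : |(0:ℝ) - 0| ≤ R := by rw [sub_zero, abs_zero]; exact hR.le
  have h0 := hr 0 h00
  have ex : rx C (lat X) 0 = lat X := by unfold rx; simp
  have ey : ry C (X 2) 0 = X 2 := by unfold ry; simp
  obtain ⟨⟨-, a2, a3⟩, a4⟩ := h0
  simp only [toMem, ex, ey, sub_self, zero_smul, add_zero] at a2 a3 a4
  refine ⟨hC, a2, a3, a4, ?_⟩
  have hL := rB_le (p := f) (s0 := 0) hR (fun s hs => (hr s hs).2)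
  rw [← Cf.ld_ray f C (lat X) (X 2) 0, ex, ey] at hL
  exact le_of_mul_le_mul_right hL hR

/-- `mset` is contained in the rays of the twofold member with thin side `4 B`. -/
theorem mset_sub_rays {κ s1 sg R : ℝ} {c : E2} {X0 : E3} {f : Cf E2} (hR : 0 < R) {C : E2}
    {X : E3} (h : X ∈ WC188.mset sg (WC188.TT κ sg R) R s1 c X0 f C) :
    (C, lat X, X 2) ∈ (toMem (2 * s1) (2 * sg) R c X0 f).rays (4 * κ⁻¹) := by
  obtain ⟨hC, h1, h2, h3, h4⟩ := h
  have hsg : 0 ≤ sg := (norm_nonneg _).trans hC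
  have hT : (toMem (2 * s1) (2 * sg) R c X0 f).T (4 * κ⁻¹) = 4 * WC188.TT κ sg R := by
    unfold Mem.T toMem WC188.TT
    simp only []
    rw [mul_max_of_nonneg _ _ (by norm_num : (0:ℝ) ≤ 4), mul_inv, mul_pow, div_eq_mul_inv]
    congr 1
    · ring
    · ring
  rw [Mem.mem_rays, hT]
  have hsq : sg ^ 2 ≤ WC188.TT κ sg R := le_max_left _ _
  refine ⟨?_, fun s hs => ⟨⟨hs, ?_, ?_⟩, ?_⟩⟩
  · change ‖C - c‖ ≤ 2 * sg
    linarith
  · change ‖(rx C (lat X) s - lat X0) + (s - 0) • c‖ ≤ 2 * sg * R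
    have hs' : |s| ≤ R := by simpa [toMem] using hs
    have e : (rx C (lat X) s - lat X0) + (s - 0) • c = (lat X - lat X0) - s • (C - c) := by
      unfold rx; module
    rw [e]
    refine (norm_sub_le _ _).trans ?_
    rw [norm_smul, Real.norm_eq_abs]
    have := mul_le_mul hs' hC (norm_nonneg _) hR.le
    linarith
  · change |nrm c (rx C (lat X) s) (ry C (X 2) s) s - nrm c (lat X0) (X0 2) 0| ≤
      4 * WC188.TT κ sg R * R
    have hs' : |s| ≤ R := by simpa [toMem] using hs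
    rw [nrm_ray']
    have e : X 2 + inner ℝ c (lat X) + s * ‖C - c‖ ^ 2 / 2 - nrm c (lat X0) (X0 2) 0 =
        (CDef480.nrm c X 0 - CDef480.nrm c X0 0) + s * (‖C - c‖ ^ 2 / 2) := by
      rw [nrm_eq, nrm_eq]; unfold nrm; ring
    rw [e]
    refine (abs_add_le _ _).trans ?_
    have g1 : |s * (‖C - c‖ ^ 2 / 2)| ≤ R * (sg ^ 2 / 2) := by
      rw [abs_mul, abs_of_nonneg (a := ‖C - c‖ ^ 2 / 2) (by positivity)]
      exact mul_le_mul hs' (div_le_div_of_nonneg_right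
        (pow_le_pow_left₀ (norm_nonneg _) hC 2) two_pos.le) (by positivity) hR.le
    have g2 := mul_le_mul_of_nonneg_left hsq hR.le
    have g3 : 0 ≤ R * sg ^ 2 := by positivity
    nlinarith
  · change |f.ev (rx C (lat X) s) (ry C (X 2) s) s| ≤ 2 * s1 * R
    have ex : rx C (lat X) 0 = lat X := by unfold rx; simp
    have ey : ry C (X 2) 0 = X 2 := by unfold ry; simp
    have hs' : |s - 0| ≤ R := by simpa [toMem] using hs
    have h5 : |f.rB C (lat X) (X 2)| * R ≤ s1 * R := by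
      rw [← Cf.ld_ray f C (lat X) (X 2) 0, ex, ey]
      exact mul_le_mul_of_nonneg_right h4 hR.le
    have h3' : |f.ev (rx C (lat X) 0) (ry C (X 2) 0) 0| ≤ s1 * R := by rw [ex, ey]; exact h3
    have h6 := ev_le_of_slope (p := f) (s0 := 0) (C := C) (a := lat X) (k := X 2) h3' h5 hs'
    linarith

/-! ### thickened members -/

/-- the `K`-fold member: aperture `K sg`, slab `L s1`. -/
def Mem.fat (K L : ℝ) (m : Mem) : Mem := { m with sg := K * m.sg, s1 := L * m.s1 }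

theorem Mem.fat_T {K L B : ℝ} (m : Mem) : (m.fat K L).T (K ^ 2 * B) = K ^ 2 * m.T B := by
  unfold Mem.T Mem.fat
  simp only []
  rw [mul_max_of_nonneg _ _ (sq_nonneg K), mul_pow, mul_div_assoc]

theorem Mem.fat_ok {M B K L : ℝ} {m : Mem} (h : m.Ok M B) (hK : 1 ≤ K) (hL : 0 < L)
    (hLs : L * m.s1 ≤ K * m.sg) : (m.fat K L).Ok (K * M) (K ^ 2 * B) := by
  have hK0 : 0 < K := by linarith
  have hM : 0 ≤ M * m.sg := (abs_nonneg _).trans h.adm.ld
  refine ⟨h.hR, mul_pos hL h.hs1, hLs, ?_⟩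
  rw [Mem.fat_T]
  have ha := h.adm
  have hKK : (1:ℝ) ≤ K * K := by nlinarith
  refine ⟨ha.disc, fun s hs => ?_, ?_, ?_⟩
  · have h1 := ha.ny s hs
    have h2 := mul_le_mul_of_nonneg_left h1 (sq_nonneg K)
    change |m.phi.ny s| * (K ^ 2 * m.T B) ≤ K * M * (K * m.sg)
    linarith
  · change |m.phi.ld m.c (lat m.X0) (m.X0 2) m.s0| ≤ K * M * (K * m.sg)
    refine ha.ld.trans ?_
    have e : K * M * (K * m.sg) = (K * K) * (M * m.sg) := by ring
    rw [e]
    exact le_mul_of_one_le_left hM hKK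
  · change |m.phi.ev (lat m.X0) (m.X0 2) m.s0| ≤ K * M * (K * m.sg) * m.R
    refine ha.ev.trans ?_
    have e : K * M * (K * m.sg) * m.R = (K * K) * (M * m.sg * m.R) := by ring
    rw [e]
    exact le_mul_of_one_le_left (mul_nonneg hM h.hR.le) hKK

theorem Mem.fat_cpt {M B K L : ℝ} {m : Mem} (h : Cpt M B m) :
    Cpt (K ^ 2 / L * M) (K ^ 2 * B) (m.fat K L) ∨ L = 0 := by
  rcases eq_or_ne L 0 with hL | hL
  · right; exact hL
  · left
    intro s hs
    have h1 := mul_le_mul_of_nonneg_left (h s hs) (sq_nonneg K)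
    change |m.phi.ny s| * (K ^ 2 * B) ≤ K ^ 2 / L * M * (L * m.s1 * m.R)
    have e : K ^ 2 / L * M * (L * m.s1 * m.R) = K ^ 2 * (M * (m.s1 * m.R)) := by
      field_simp
    rw [e]
    linarith

/-- **a neighbouring ray lies in the thickened member** (`B`-thick planks: `nu ≤ B`). -/
theorem Mem.rays_thick {M B K G lam nu kap : ℝ} {m : Mem} (h : m.Ok M B) (hc : Cpt M B m)
    (hM : 0 ≤ M) (hB : 0 < B) (hK : 0 ≤ K) {r r' : E2 × E2 × ℝ} (hr : r ∈ m.rays B)
    (hG : ‖m.phi.gr r.1 (rx r.1 r.2.1 m.s0) m.s0‖ ≤ G)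
    (hx : ‖rx r'.1 r'.2.1 m.s0 - rx r.1 r.2.1 m.s0‖ ≤ lam)
    (hn : |nrm r.1 (rx r'.1 r'.2.1 m.s0) (ry r'.1 r'.2.2 m.s0) m.s0 -
      nrm r.1 (rx r.1 r.2.1 m.s0) (ry r.1 r.2.2 m.s0) m.s0| ≤ nu)
    (hC : ‖r'.1 - r.1‖ ≤ kap) (h1 : lam + m.R * kap ≤ K * m.s1 * m.R) (h2 : nu ≤ K * B) :
    r' ∈ (m.fat (1 + K) (1 + (G + M * K) * K + 2 * (M * K))).rays ((1 + K) ^ 2 * B) := by
  have hR := h.hR
  have hsg := h.sg_pos
  have hT := m.sq_le_T B
  have hT0 := h.T_pos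
  rw [Mem.mem_rays] at hr
  rw [Mem.mem_rays, Mem.fat_T]
  have hlam : 0 ≤ lam := (norm_nonneg _).trans hx
  have hkap : 0 ≤ kap := (norm_nonneg _).trans hC
  have hG0 : 0 ≤ G := (norm_nonneg _).trans hG
  have hnu : 0 ≤ nu := (abs_nonneg _).trans hn
  -- the bound of `∂_y φ`
  set eta : ℝ := min (M * m.sg / m.T B) (M * (m.s1 * m.R) / B) with heta
  have e1 : ∀ s, |s - m.s0| ≤ m.R → |m.phi.ny s| ≤ eta := by
    intro s hs
    refine le_min ?_ ?_
    · rw [le_div_iff₀ hT0]; exact h.adm.ny s hs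
    · rw [le_div_iff₀ hB]; exact hc s hs
  have e2 : eta * m.T B ≤ M * m.sg := by
    have := mul_le_mul_of_nonneg_right (min_le_left (M * m.sg / m.T B) (M * (m.s1 * m.R) / B))
      hT0.le
    rwa [div_mul_cancel₀ _ hT0.ne'] at this
  have e3 : eta * B ≤ M * (m.s1 * m.R) := by
    have := mul_le_mul_of_nonneg_right (min_le_right (M * m.sg / m.T B) (M * (m.s1 * m.R) / B))
      hB.le
    rwa [div_mul_cancel₀ _ hB.ne'] at this
  have eta0 : 0 ≤ eta := (abs_nonneg _).trans (e1 m.s0 (by rw [sub_self, abs_zero]; exact hR.le))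
  have h1' : lam + m.R * kap ≤ K * m.sg * m.R :=
    h1.trans (mul_le_mul_of_nonneg_right (mul_le_mul_of_nonneg_left h.hsg hK) hR.le)
  have hBT : B ≤ m.T B * m.R := by
    have : B / m.R ≤ m.T B := le_max_right _ _
    rwa [div_le_iff₀ hR] at this
  have h2' : nu ≤ K * m.T B * m.R := by
    have := mul_le_mul_of_nonneg_left hBT hK
    linarith
  have main := rayIn_thick (M := M) (T := m.T B) hR hsg hT hM hK e2 e1 hr hG hx hn hC h1' h2'
  obtain ⟨m1, m2⟩ := main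
  refine ⟨m1, fun s hs => ⟨(m2 s hs).1, ((m2 s hs).2).trans ?_⟩⟩
  change m.s1 * m.R + ((G + M * K) * (lam + m.R * kap) + 2 * (eta * nu)) ≤
    (1 + (G + M * K) * K + 2 * (M * K)) * m.s1 * m.R
  have f1 : (G + M * K) * (lam + m.R * kap) ≤ (G + M * K) * (K * m.s1 * m.R) :=
    mul_le_mul_of_nonneg_left h1 (by positivity)
  have f2 : eta * nu ≤ M * K * (m.s1 * m.R) := by
    calc eta * nu ≤ eta * (K * B) := mul_le_mul_of_nonneg_left h2 eta0
      _ = K * (eta * B) := by ring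
      _ ≤ K * (M * (m.s1 * m.R)) := mul_le_mul_of_nonneg_left e3 hK
      _ = M * K * (m.s1 * m.R) := by ring
  nlinarith

/-! ### sub-members -/

/-- **sub-member**: any member data with the same `φ` and a ray is admissible. -/
theorem Mem.ok_of_ray {M B : ℝ} {m : Mem} (hM : 0 ≤ M) (hR : 0 < m.R) (hs1 : 0 < m.s1)
    (hsg : m.s1 ≤ m.sg) (hdisc : m.phi.disc = 1)
    (hny : ∀ s, |s - m.s0| ≤ m.R → |m.phi.ny s| * m.T B ≤ M * m.sg) {r : E2 × E2 × ℝ}
    (hr : r ∈ m.rays B) : m.Ok (2 + 5 * M) B := by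
  refine ⟨hR, hs1, hsg, ?_⟩
  have hsg0 : 0 < m.sg := hs1.trans_le hsg
  rw [Mem.mem_rays] at hr
  have h1 : RayIn m.c m.sg (m.T B) m.R (lat m.X0) (m.X0 2) m.s0 m.phi (1 * m.sg * m.R)
      r.1 r.2.1 r.2.2 := by
    refine ⟨hr.1, fun s hs => ⟨(hr.2 s hs).1, (hr.2 s hs).2.trans ?_⟩⟩
    rw [one_mul]
    exact mul_le_mul_of_nonneg_right hsg hR.le
  have h2 := adm_of_ray (M := M) hR hsg0 (m.sq_le_T B) hM zero_le_one hdisc hny h1
  have e : 1 + 1 + 3 * M + 2 * (M * 1) = 2 + 5 * M := by ring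
  rwa [e] at h2

/-! ### the zoom of the compatibility condition -/

theorem Mem.zoom_cpt {M B : ℝ} (C0 : E2) {th : ℝ} (hth : 0 < th) {m : Mem} (h : Cpt M B m) :
    Cpt M B (m.zoom C0 th) := by
  intro s hs
  have hne := hth.ne'
  have h1 := h (s / th ^ 2) (by
    have e : s / th ^ 2 - m.s0 = (s - th ^ 2 * m.s0) / th ^ 2 := by field_simp
    rw [e, abs_div, abs_of_pos (pow_pos hth 2), div_le_iff₀ (pow_pos hth 2)]
    have hs' : |s - th ^ 2 * m.s0| ≤ th ^ 2 * m.R := hs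
    linarith)
  have e1 : (m.zoom C0 th).phi.ny s = th * m.phi.ny (s / th ^ 2) := by
    change (Cf.smul th (Cf.push C0 th m.phi)).ny s = _
    rw [Cf.ny_smul]
    unfold Cf.push
    rw [Cf.ny_pull]
    congr 2
    field_simp
  have e2 : (m.zoom C0 th).s1 * (m.zoom C0 th).R = th * (m.s1 * m.R) := by
    unfold Mem.zoom; simp only []; field_simp
  rw [e1, e2, abs_mul, abs_of_pos hth]
  have h2 := mul_le_mul_of_nonneg_left h1 hth.le
  linarith

end Crest.Agent.R116.LZg725
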