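import Crest.Agent.R116.Ckm7_538
import Crest.Agent.R116.LZg7_725
import Crest.Agent.R116.Cov2_369
import Crest.Agent.R116.KMRDef_890

/-!
# R116 (S0155), wave side: KMC over the literals of `WDefC_188` (helper538), part 8

`densR_of_adm` : the density of a selection on the `Adm M` members gives `DensR M'` for every `M'`.
`kmr` : the Kakeya row (890's literal) for the densities `Acc`, all points, `|t| ≤ T r`.
-/

set_option autoImplicit false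

open MeasureTheory
open scoped ENNReal

namespace Crest.Agent.R116.Ckm538

open Crest.Agent.R138.Defs (E2)
open Crest.Agent.R138.Wpk685 (cen caps cen_zero cen_one)
open Crest.Agent.R116.CDef480
open Crest.Agent.R116.LZg725 (Cf Mem toMem toMem_scost adm_iff rays_sub_mset)
open Crest.Agent.R116.LKMDef299 (Cpt SSg)
open Crest.Agent.R116.WC188 (TT mset scost Sd pbx PBx Adm)
open Crest.Agent.R116.Cad538

/-- the density of a selection on the members of `WDefC_188` (constant `M`) gives `DensR` for every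
constant `M'`. -/
theorem densR_of_adm {M M' q κ r : ℝ} (hM : 1 ≤ M) (hM' : 1 ≤ M') (hq : 0 ≤ q) (hκ : 0 < κ)
    (hκ1 : κ ≤ 1) (hr : 1 ≤ r) {g : E3 → ℂ} {S : ℤ × ℤ → Set E3} {Δ : ℝ} (hΔ : 0 ≤ Δ)
    (hd : ∀ (c : E2) (X0 : E3) (f : Cf E2) (s1 s2 : ℝ), Sd r s1 s2 →
      Adm M κ s1 s2 (TT κ s2 r) r c X0 f →
      enc (r ^ (-(1/2) : ℝ)) g (fun m => S m ∩ pbx κ 1 r s1 s2 c X0 f m) ≤
        ENNReal.ofReal (Δ * s2 ^ q * scost κ s1 s2 r)) :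
    DensR M' q (r ^ (1/2 : ℝ)) κ⁻¹ r (11 ^ 5 * M' ^ 21 * Δ) (caps (r ^ (-(1/2) : ℝ)))
      (cen (r ^ (-(1/2) : ℝ))) (fun m y => ‖umc (r ^ (-(1/2) : ℝ)) g m y‖ₑ ^ 2) S := by
  intro m hOk hCpt hmR hs0 hw hsg _
  have hr0 : 0 < r := by linarith
  have hs1 : 0 < m.s1 := hOk.hs1
  have hle : m.s1 ≤ m.sg := hOk.hsg
  have em : m = toMem m.s1 m.sg r m.c m.X0 m.phi := by
    obtain ⟨c, sg, s1, R, X0, s0, phi⟩ := m
    simp only at hmR hs0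
    subst hmR hs0
    rfl
  have hSd : Sd r m.s1 m.sg := by
    refine ⟨?_, hle, hsg⟩
    have e : r ^ (-(1/2) : ℝ) * r = r ^ (1/2 : ℝ) := by
      nth_rewrite 2 [← Real.rpow_one r]
      rw [← Real.rpow_add hr0]
      norm_num
    rw [← e] at hw
    exact le_of_mul_le_mul_right hw hr0
  have hadm : Adm M' κ m.s1 m.sg (TT κ m.sg r) r m.c m.X0 m.phi :=
    (adm_iff hκ hr0 hs1 hle).2 (by rw [← em]; exact ⟨hOk, hCpt⟩)
  have h1 := Cov369.stab_core hq hκ hκ1 hr le_rfl hM' hΔ (fun c X0 f s1 s2 hS ha => by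
    have hs1' : 0 < s1 := lt_of_lt_of_le (Real.rpow_pos_of_pos hr0 _) hS.lo
    exact hd c X0 f s1 s2 hS (Cov369.adm_mono hκ hr0 hs1' (hs1'.trans_le hS.le) hM ha)) hSd hadm
  refine le_trans ?_ (h1.trans (le_of_eq ?_))
  · unfold enc
    refine Finset.sum_le_sum fun i _ => lintegral_mono_set ?_
    rintro y ⟨hy1, hy2⟩
    refine ⟨hy1, ?_⟩
    unfold pbx
    simp only [one_mul]
    refine rays_sub_mset hr0 ?_
    rw [← em]
    exact hy2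
  · have e : m.scost κ⁻¹ = scost κ m.s1 m.sg r := by
      conv_lhs => rw [em]
      exact toMem_scost _ _ _ _ _ _ _
    rw [e, one_mul]

/-- lattice points near a given point. -/
theorem card_lat {s Λ : ℝ} (hs : 0 < s) (ξ : E2) (K : Finset (ℤ × ℤ))
    (hK : ∀ k ∈ K, ‖ξ - cen s k‖ ≤ Λ * s) : K.card ≤ (2 * ⌈Λ⌉₊ + 1) ^ 2 := by
  set n : ℕ := ⌈Λ⌉₊ with hn
  have hΛn : Λ ≤ n := Nat.le_ceil _
  have key : ∀ (i : Fin 2) (k : ℤ), |ξ i - s * k| ≤ Λ * s →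
      k ∈ Finset.Icc (⌊ξ i / s⌋ - (n : ℤ)) (⌊ξ i / s⌋ + (n : ℤ)) := by
    intro i k h
    have h1 : |ξ i / s - k| ≤ n := by
      have e : ξ i / s - k = (ξ i - s * k) / s := by field_simp
      rw [e, abs_div, abs_of_pos hs, div_le_iff₀ hs]
      exact h.trans (mul_le_mul_of_nonneg_right hΛn hs.le)
    have h2 := Int.floor_le (ξ i / s)
    have h3 := Int.lt_floor_add_one (ξ i / s)
    rw [abs_le] at h1
    rw [Finset.mem_Icc]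
    constructor
    · have : ((⌊ξ i / s⌋ - (n : ℤ) : ℤ) : ℝ) ≤ (k : ℝ) := by
        push_cast
        linarith
      exact_mod_cast this
    · have : (k : ℝ) < ((⌊ξ i / s⌋ + (n : ℤ) + 1 : ℤ) : ℝ) := by
        push_cast
        linarith
      have h4 : k < ⌊ξ i / s⌋ + (n : ℤ) + 1 := by exact_mod_cast this
      omega
  have hsub : K ⊆ Finset.Icc (⌊ξ 0 / s⌋ - (n : ℤ)) (⌊ξ 0 / s⌋ + (n : ℤ)) ×ˢ
      Finset.Icc (⌊ξ 1 / s⌋ - (n : ℤ)) (⌊ξ 1 / s⌋ + (n : ℤ)) := by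
    intro k hk
    have h := hK k hk
    have h0 := (PiLp.norm_apply_le (ξ - cen s k) 0).trans h
    have h1 := (PiLp.norm_apply_le (ξ - cen s k) 1).trans h
    rw [PiLp.sub_apply, Real.norm_eq_abs] at h0 h1
    rw [cen_zero] at h0
    rw [cen_one] at h1
    exact Finset.mem_product.2 ⟨key 0 k.1 h0, key 1 k.2 h1⟩
  refine (Finset.card_le_card hsub).trans (le_of_eq ?_)
  rw [Finset.card_product, Int.card_Icc, Int.card_Icc, sq]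
  have e : ∀ a : ℤ, (a + (n : ℤ) + 1 - (a - (n : ℤ))).toNat = 2 * n + 1 := by
    intro a; omega
  rw [e, e]

/-- the slopes of the caps are bounded. -/
theorem norm_cen_le {ρ : ℝ} (hρ : 0 < ρ) (hρ1 : ρ ≤ 1) {m : ℤ × ℤ} (hm : m ∈ caps ρ) :
    ‖cen ρ m‖ ≤ 8 := by
  unfold caps at hm
  rw [Finset.mem_product, Finset.mem_Icc, Finset.mem_Icc] at hm
  obtain ⟨⟨h1, h2⟩, h3, h4⟩ := hm
  have key : ∀ k : ℤ, -⌈2 / ρ⌉ - 1 ≤ k → k ≤ ⌈2 / ρ⌉ + 1 → |ρ * (k : ℝ)| ≤ 4 := by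
    intro k h h'
    have g1 : (-(⌈2 / ρ⌉ : ℝ) - 1) ≤ k := by exact_mod_cast h
    have g2 : (k : ℝ) ≤ (⌈2 / ρ⌉ : ℝ) + 1 := by exact_mod_cast h'
    have g3 : (⌈2 / ρ⌉ : ℝ) < 2 / ρ + 1 := Int.ceil_lt_add_one _
    have g4 : |(k : ℝ)| ≤ 2 / ρ + 2 := by rw [abs_le]; constructor <;> linarith
    rw [abs_mul, abs_of_pos hρ]
    calc ρ * |(k : ℝ)| ≤ ρ * (2 / ρ + 2) := mul_le_mul_of_nonneg_left g4 hρ.le
      _ = 2 + 2 * ρ := by field_simp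
      _ ≤ 4 := by linarith
  refine (Cov369.norm_le_add _).trans ?_
  rw [cen_zero, cen_one]
  have a := key m.1 h1 h2
  have b := key m.2 h3 h4
  linarith

open Classical in
/-- **Kakeya row** for the coefficient densities (890's literal). -/
theorem kmr {M0 M q : ℝ} (hM0 : 1 ≤ M0) (hM : 1 ≤ M) (hq : 0 ≤ q)
    (hKM : ∀ V : ℝ, LKMg (SSg M0) V) (ε : ℝ) (hε : 0 < ε) :
    ∃ n0 : ℕ, ∀ n, n0 ≤ n → ∀ A T Λ : ℝ, 0 ≤ A → 0 ≤ T → 0 ≤ Λ →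
      ∃ C : ℝ, 0 ≤ C ∧ ∀ (κ r : ℝ), 0 < κ → κ ≤ 1 →
      r ^ (-(1/2) : ℝ) ≤ κ → 1 ≤ r → ∀ (g : E3 → ℂ), Integrable g →
      ∀ (S : ℤ × ℤ → Set E3), (∀ m, MeasurableSet (S m)) →
      (∀ m, S m ⊆ Metric.closedBall 0 (A * r)) → ∀ Δ : ℝ, 0 ≤ Δ →
      (∀ (c : E2) (X0 : E3) (f : Cf E2) (s1 s2 : ℝ), Sd r s1 s2 →
        Adm M κ s1 s2 (TT κ s2 r) r c X0 f →
        enc (r ^ (-(1/2) : ℝ)) g (fun m => S m ∩ pbx κ 1 r s1 s2 c X0 f m) ≤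
          ENNReal.ofReal (Δ * s2 ^ q * scost κ s1 s2 r)) →
      ∀ s : ℝ, r ^ (-(1/2) : ℝ) ≤ s → s ≤ 1 →
      ∀ (β : Type) (K : Finset β) (ξ : β → E2) (Mk : β → Finset (ℤ × ℤ)) (N : ℕ),
      (∀ k ∈ K, Mk k ⊆ caps (r ^ (-(1/2) : ℝ)) ∧
        ∀ m ∈ Mk k, ‖cen (r ^ (-(1/2) : ℝ)) m - ξ k‖ ≤ Λ * s) →
      (∀ m ∈ caps (r ^ (-(1/2) : ℝ)), (K.filter (fun k => m ∈ Mk k)).card ≤ N) →
      ∑ k ∈ K, ∫⁻ t in Set.Icc (-(T * r)) (T * r), ∫⁻ x,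
        (Acc n (r ^ (-(1/2) : ℝ)) κ (r ^ (-(1/2) : ℝ)) g S (Mk k) x t) ^ (3/2 : ℝ) ≤
      ENNReal.ofReal (C * r ^ ε * s ^ (q / 2) * Real.sqrt Δ * r * N) *
        enc (r ^ (-(1/2) : ℝ)) g S := by
  obtain ⟨n0, h0⟩ := kmc_core' (κ := ℤ × ℤ) hM0 hKM (q := q) hq ε hε
  refine ⟨n0, fun n hn => ?_⟩
  intro A T Λ hA hT hΛ
  obtain ⟨C0, hC0, h1⟩ := h0 n hn A T (Λ + 1) 8 hA hT (by linarith) (by norm_num)
  set M' : ℝ := M1 M0 (2 + 4 * M0) with hM'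
  have hM'1 : 1 ≤ M' := by
    rw [hM']; unfold M1
    nlinarith
  refine ⟨C0 * Real.sqrt (11 ^ 5 * M' ^ 21), by positivity, ?_⟩
  intro κ r hκ hκ1 hκr hr g hg S hSm hSA Δ hΔ hd s hs hs1 β K ξ Mk N hMk hN
  have hr0 : 0 < r := by linarith
  set th : ℝ := r ^ (-(1/2) : ℝ) with hth
  have hth0 : 0 < th := Real.rpow_pos_of_pos hr0 _
  have hth1 : th ≤ 1 := Real.rpow_le_one_of_one_le_of_nonpos hr (by norm_num)
  have hwth : (r ^ (1/2 : ℝ))⁻¹ = th := by rw [hth, Real.rpow_neg hr0.le]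
  have hw0 : 0 < r ^ (1/2 : ℝ) := Real.rpow_pos_of_pos hr0 _
  have hww : r ^ (1/2 : ℝ) * r ^ (1/2 : ℝ) = r := by
    rw [← Real.rpow_add hr0]; norm_num
  have hwr : r ^ (1/2 : ℝ) = th * r := by
    have : th * r ^ (1/2 : ℝ) = 1 := by rw [← hwth]; exact inv_mul_cancel₀ hw0.ne'
    calc r ^ (1/2 : ℝ) = (th * r ^ (1/2 : ℝ)) * r ^ (1/2 : ℝ) := by rw [this, one_mul]
      _ = th * r := by rw [mul_assoc, hww]
  have hs0 : 0 < s := hth0.trans_le hs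
  have hκi : 1 ≤ κ⁻¹ := (one_le_inv₀ hκ).2 hκ1
  have hD := densR_of_adm hM hM'1 hq hκ hκ1 hr hΔ hd
  have h2 := h1 (r ^ (1/2 : ℝ)) κ⁻¹ r hw0 (by rw [hwr]; nlinarith)
    (by rw [sq, hww]; nlinarith) (by
      rw [← inv_inv (r ^ (1/2 : ℝ)), hwth]
      exact inv_anti₀ hth0 hκr)
    (caps th) (cen th) (fun m y => ‖umc th g m y‖ₑ ^ 2) S hSm
    (fun i _ => Bas367.umc_meas_sq hg th i) (fun i hi => norm_cen_le hth0 hth1 hi)
    (fun i _ z hz => by simpa using hSA i hz) (11 ^ 5 * M' ^ 21 * Δ) (by positivity) hD s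
    (by rw [hwr]; exact mul_le_mul_of_nonneg_right hs hr0.le) hs1 β K ξ Mk N
    (fun k hk => ⟨(hMk k hk).1, fun i hi => ((hMk k hk).2 i hi).trans
      (mul_le_mul_of_nonneg_right (by linarith) hs0.le)⟩) (fun i hi => by
        convert hN i hi)
  simp only [hwth, inv_inv] at h2
  refine le_trans h2 (mul_le_mul' (ENNReal.ofReal_le_ofReal ?_) le_rfl)
  have e1 : r ^ (1/2 : ℝ) / r = th := by rw [hwr]; field_simp
  have e2 : th ^ (-ε) ≤ r ^ ε := by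
    rw [hth, ← Real.rpow_mul hr0.le]
    exact Real.rpow_le_rpow_of_exponent_le hr (by linarith)
  have e3 : Real.sqrt (11 ^ 5 * M' ^ 21 * Δ) = Real.sqrt (11 ^ 5 * M' ^ 21) * Real.sqrt Δ :=
    Real.sqrt_mul (by positivity) _
  rw [e1, e3]
  have h3 : 0 ≤ C0 * s ^ (q / 2) * (Real.sqrt (11 ^ 5 * M' ^ 21) * Real.sqrt Δ) * r * N := by
    positivity
  calc C0 * th ^ (-ε) * s ^ (q / 2) * (Real.sqrt (11 ^ 5 * M' ^ 21) * Real.sqrt Δ) * r * N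
      = th ^ (-ε) * (C0 * s ^ (q / 2) * (Real.sqrt (11 ^ 5 * M' ^ 21) * Real.sqrt Δ) * r * N) := by
        ring
    _ ≤ r ^ ε * (C0 * s ^ (q / 2) * (Real.sqrt (11 ^ 5 * M' ^ 21) * Real.sqrt Δ) * r * N) :=
        mul_le_mul_of_nonneg_right e2 h3
    _ = _ := by ring

/-- the caps of a slope disc of radius `Λ s` around the grid points of mesh `s`: overlap. -/
theorem overlap_le {th s Λ : ℝ} (hs : 0 < s) (K : Finset (ℤ × ℤ)) (m : ℤ × ℤ)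
    (hK : ∀ k ∈ K, ‖cen th m - cen s k‖ ≤ Λ * s) : K.card ≤ (2 * ⌈Λ⌉₊ + 1) ^ 2 :=
  card_lat hs (cen th m) K hK

open Classical in
/-- **KMC** in the form consumed by TUBE, AL, MIS. -/
theorem kmr_of {M0 M q : ℝ} (hM0 : 1 ≤ M0) (hM : 1 ≤ M) (hq : 0 ≤ q)
    (hKM : ∀ V : ℝ, LKMg (SSg M0) V) : KMR890.KMR M q := by
  intro ε hε
  obtain ⟨n0, h0⟩ := kmr hM0 hM hq hKM ε hε
  refine ⟨n0, fun n hn => ?_⟩
  intro A T Λ hA hT hΛ
  obtain ⟨C, hC, h1⟩ := h0 n hn A T Λ hA hT hΛ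
  set N : ℕ := (2 * ⌈Λ⌉₊ + 1) ^ 2 with hN
  refine ⟨C * N, by positivity, ?_⟩
  intro κ r hκ hκ1 hr hκr g hg _ S hSm hSA Δ hΔ hd s hs hs1 K Mk hMk
  have hr0 : 0 < r := by linarith
  have hs0 : 0 < s := (Real.rpow_pos_of_pos hr0 _).trans_le hs
  have h2 := h1 κ r hκ hκ1 hκr hr g hg S hSm hSA Δ hΔ hd s hs hs1 (ℤ × ℤ) K (cen s) Mk N hMk
    (fun m _ => overlap_le (th := r ^ (-(1/2) : ℝ)) hs0 _ m fun k hk => by
      have h := Finset.mem_filter.1 hk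
      exact (hMk k h.1).2 m h.2)
  refine h2.trans (mul_le_mul' (ENNReal.ofReal_le_ofReal (le_of_eq ?_)) le_rfl)
  ring

end Crest.Agent.R116.Ckm538
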