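import Crest.Agent.R116.WDefC_188

/-!
# R116 (S0155), leaf CNV of WDefC_188, part 1 (helper894):
sliced functions are slowly varying in the last coordinate.

`exists_ker` : a kernel of the line with decay `(1+t²)⁻¹` and Fourier transform one on `[-2,2]`.
`repro` : `‖u X‖² ≤ C ∫ κ (1+(κ t)²)⁻¹ ‖u (X - t e)‖² dt` for `u = 𝓕⁻ h`, `h` supported in the slice
`|ζ 2 - η0| ≤ 2 κ`.
`lint_tr` : transposition of the translates.
-/

set_option autoImplicit false

open MeasureTheory FourierTransform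
open scoped ContDiff ENNReal

namespace Crest.Agent.R116.Cnv894

open Crest.Agent.R138.Defs (E2 ee)
open Crest.Agent.R138.Wpk685 (norm_ee ee_add ee_zero continuous_ee)
open Crest.Agent.R116.CDef480

/-- the unit vector of the last coordinate. -/
noncomputable def eY : E3 := pt 0 1

theorem eY_two (t : ℝ) : (t • eY) 2 = t := by
  simp [eY, pt]

theorem lat_eY (t : ℝ) : lat (t • eY) = 0 := by
  rw [lat_smul]; unfold eY; rw [lat_pt, smul_zero]

/-! ### the kernel -/

theorem exists_ker : ∃ (K : ℝ → ℂ) (C : ℝ), Continuous K ∧ 0 < C ∧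
    (∀ t, ‖K t‖ ≤ C / (1 + t ^ 2)) ∧ ∀ x : ℝ, |x| ≤ 2 → ∫ t, K t * ee (-(t * x)) = 1 := by
  let φ : ContDiffBump (0 : ℝ) := ⟨2, 3, by norm_num, by norm_num⟩
  have hc : HasCompactSupport (fun x : ℝ => ((φ x : ℝ) : ℂ)) :=
    φ.hasCompactSupport.comp_left (g := fun r : ℝ => (r : ℂ)) (by simp)
  have hs : ContDiff ℝ ∞ (fun x : ℝ => ((φ x : ℝ) : ℂ)) :=
    Complex.ofRealCLM.contDiff.comp φ.contDiff
  set f : SchwartzMap ℝ ℂ := hc.toSchwartzMap hs with hf
  set K : SchwartzMap ℝ ℂ := 𝓕⁻ f with hKdef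
  have hK : 𝓕 K = f := FourierTransform.fourier_fourierInv_eq f
  obtain ⟨C0, hC0, hb0⟩ := K.decay 0 0
  obtain ⟨C2, hC2, hb2⟩ := K.decay 2 0
  refine ⟨K, C0 + C2, K.continuous, by positivity, ?_, ?_⟩
  · intro t
    have h0 := hb0 t
    have h2 := hb2 t
    simp only [pow_zero, one_mul, norm_iteratedFDeriv_zero, Real.norm_eq_abs, sq_abs] at h0 h2
    rw [le_div_iff₀ (by positivity)]
    nlinarith
  · intro x hx
    have h1 : 𝓕 (K : ℝ → ℂ) x = 1 := by
      rw [← SchwartzMap.fourier_coe, hK]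
      change ((φ x : ℝ) : ℂ) = 1
      rw [φ.one_of_mem_closedBall (by simpa using hx)]
      simp
    rw [← h1, Real.fourier_eq']
    congr 1
    ext t
    rw [smul_eq_mul, mul_comm]
    congr 1
    unfold ee
    congr 1
    simp only [RCLike.inner_apply, conj_trivial]
    push_cast
    ring

/-! ### reproducing inequality -/

theorem integrable_wt {κ : ℝ} (hκ : 0 < κ) (C : ℝ) :
    Integrable (fun t : ℝ => κ * (C / (1 + (κ * t) ^ 2))) := by
  have h1 : Integrable (fun t : ℝ => (1 + t ^ 2)⁻¹) := integrable_inv_one_add_sq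
  have h2 := h1.comp_mul_left' hκ.ne'
  have h3 := h2.const_mul (κ * C)
  refine h3.congr (Filter.Eventually.of_forall fun t => ?_)
  simp only [div_eq_mul_inv, mul_assoc]

theorem integral_wt {κ : ℝ} (hκ : 0 < κ) (C : ℝ) :
    ∫ t : ℝ, κ * (C / (1 + (κ * t) ^ 2)) = C * Real.pi := by
  have h1 : (fun t : ℝ => κ * (C / (1 + (κ * t) ^ 2))) =
      fun t : ℝ => (κ * C) * (fun s : ℝ => (1 + s ^ 2)⁻¹) (κ * t) := by
    ext t; simp only [div_eq_mul_inv, mul_assoc]
  rw [h1, integral_const_mul, Measure.integral_comp_mul_left (fun s : ℝ => (1 + s ^ 2)⁻¹) κ,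
    integral_univ_inv_one_add_sq, smul_eq_mul, abs_of_pos (inv_pos.2 hκ)]
  field_simp

theorem fourierInv_int (h : E3 → ℂ) (y : E3) : 𝓕⁻ h y = ∫ ζ, h ζ * ee (inner ℝ y ζ) := by
  rw [Real.fourierInv_eq']
  congr 1
  ext ζ
  rw [smul_eq_mul, mul_comm, real_inner_comm]
  unfold ee
  push_cast
  ring_nf

theorem inner_sub_eY (X ζ : E3) (t : ℝ) :
    inner ℝ (X - t • eY) ζ = inner ℝ X ζ + -(t * ζ 2) := by
  rw [inner_sub_left, inner_split (t • eY), lat_eY, inner_zero_left, eY_two]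
  ring

/-- identity: convolution in the last coordinate reproduces the sliced functions. -/
theorem repro_eq {K : ℝ → ℂ} {C : ℝ} (hKc : Continuous K) (hKb : ∀ t, ‖K t‖ ≤ C / (1 + t ^ 2))
    (hK1 : ∀ x : ℝ, |x| ≤ 2 → ∫ t, K t * ee (-(t * x)) = 1)
    {h : E3 → ℂ} (hh : Integrable h) {η0 κ : ℝ} (hκ : 0 < κ)
    (hs : ∀ ζ, h ζ ≠ 0 → |ζ 2 - η0| ≤ 2 * κ) (X : E3) :
    𝓕⁻ h X = ∫ t : ℝ, (κ * K (κ * t) * ee (η0 * t)) * 𝓕⁻ h (X - t • eY) := by
  have hKI : Integrable (fun t : ℝ => (κ : ℂ) * K (κ * t) * ee (η0 * t)) := by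
    refine (integrable_wt hκ C).mono' ?_ (Filter.Eventually.of_forall fun t => ?_)
    · exact ((continuous_const.mul (hKc.comp (continuous_const.mul continuous_id))).mul
        (continuous_ee.comp (continuous_const.mul continuous_id))).aestronglyMeasurable
    · rw [norm_mul, norm_mul, norm_ee, mul_one, Complex.norm_real, Real.norm_eq_abs,
        abs_of_pos hκ]
      gcongr
      exact hKb _
  have hprod : Integrable (fun p : ℝ × E3 => ((κ : ℂ) * K (κ * p.1) * ee (η0 * p.1)) *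
      (h p.2 * ee (inner ℝ (X - p.1 • eY) p.2))) (volume.prod volume) := by
    have h1 := hKI.mul_prod hh
    have h2 : Continuous fun p : ℝ × E3 => ee (inner ℝ (X - p.1 • eY) p.2) := by
      refine continuous_ee.comp ?_
      fun_prop
    have h3 := h1.mul_bdd (c := 1) h2.aestronglyMeasurable
      (Filter.Eventually.of_forall fun p => (norm_ee _).le)
    refine h3.congr (Filter.Eventually.of_forall fun p => ?_)
    simp only [mul_assoc]
  calc 𝓕⁻ h X = ∫ ζ, h ζ * ee (inner ℝ X ζ) := fourierInv_int h X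
    _ = ∫ ζ, ∫ t : ℝ, ((κ : ℂ) * K (κ * t) * ee (η0 * t)) *
          (h ζ * ee (inner ℝ (X - t • eY) ζ)) := by
        congr 1
        ext ζ
        by_cases hz : h ζ = 0
        · simp [hz]
        · have h1 : ∫ t : ℝ, ((κ : ℂ) * K (κ * t) * ee (η0 * t)) *
              (h ζ * ee (inner ℝ (X - t • eY) ζ)) =
              h ζ * ee (inner ℝ X ζ) * ∫ t : ℝ, (κ : ℂ) *
                (fun s : ℝ => K s * ee (-(s * ((ζ 2 - η0) / κ)))) (κ * t) := by
            rw [← integral_const_mul]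
            congr 1
            ext t
            rw [inner_sub_eY, ee_add]
            have e1 : ee (-(κ * t * ((ζ 2 - η0) / κ))) = ee (η0 * t) * ee (-(t * ζ 2)) := by
              rw [← ee_add]
              congr 1
              field_simp
              ring
            simp only [e1]
            ring
          rw [h1, integral_const_mul, Measure.integral_comp_mul_left
            (fun s : ℝ => K s * ee (-(s * ((ζ 2 - η0) / κ)))) κ]
          have h2 : |(ζ 2 - η0) / κ| ≤ 2 := by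
            rw [abs_div, abs_of_pos hκ, div_le_iff₀ hκ]
            exact hs ζ hz
          rw [hK1 _ h2, abs_of_pos (inv_pos.2 hκ), Complex.real_smul]
          have h3 : (κ : ℂ) ≠ 0 := by exact_mod_cast hκ.ne'
          push_cast
          field_simp
    _ = ∫ t : ℝ, ∫ ζ, ((κ : ℂ) * K (κ * t) * ee (η0 * t)) *
          (h ζ * ee (inner ℝ (X - t • eY) ζ)) := (integral_integral_swap hprod).symm
    _ = _ := by
        congr 1
        ext t
        rw [integral_const_mul, fourierInv_int]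

/-- weighted Cauchy-Schwarz. -/
theorem lint_sq_le {w F : ℝ → ℝ≥0∞} (hw : Measurable w) (hF : Measurable F) :
    (∫⁻ t, w t * F t) ^ 2 ≤ (∫⁻ t, w t) * ∫⁻ t, w t * F t ^ 2 := by
  have h1 := ENNReal.lintegral_mul_le_Lp_mul_Lq (volume : Measure ℝ)
    (p := 2) (q := 2) (by constructor <;> norm_num)
    (f := fun t => w t ^ (1/2 : ℝ)) (g := fun t => w t ^ (1/2 : ℝ) * F t)
    (hw.pow_const _).aemeasurable ((hw.pow_const _).mul hF).aemeasurable
  have e1 : ∀ t, ((fun t => w t ^ (1/2 : ℝ)) * fun t => w t ^ (1/2 : ℝ) * F t) t = w t * F t := by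
    intro t
    simp only [Pi.mul_apply]
    rw [← mul_assoc, ← ENNReal.rpow_add_of_nonneg _ _ (by norm_num) (by norm_num)]
    norm_num
  have e2 : ∀ t, (w t ^ (1/2 : ℝ)) ^ (2:ℝ) = w t := by
    intro t
    rw [← ENNReal.rpow_mul]; norm_num
  have e3 : ∀ t, (w t ^ (1/2 : ℝ) * F t) ^ (2:ℝ) = w t * F t ^ 2 := by
    intro t
    rw [ENNReal.mul_rpow_of_nonneg _ _ (by norm_num), e2]
    norm_num
  simp only [e1, e2, e3] at h1
  calc (∫⁻ t, w t * F t) ^ 2 ≤ ((∫⁻ t, w t) ^ (1/2 : ℝ) * (∫⁻ t, w t * F t ^ 2) ^ (1/2 : ℝ)) ^ 2 := by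
        gcongr
    _ = _ := by
        rw [mul_pow, ← ENNReal.rpow_natCast, ← ENNReal.rpow_natCast, ← ENNReal.rpow_mul,
          ← ENNReal.rpow_mul]
        norm_num

theorem continuous_fourierInv {h : E3 → ℂ} (hh : Integrable h) : Continuous (𝓕⁻ h) := by
  have h1 : (𝓕⁻ h : E3 → ℂ) = fun y => ∫ ζ, h ζ * ee (inner ℝ y ζ) := by
    ext y; exact fourierInv_int h y
  rw [h1]
  refine continuous_of_dominated (F := fun y ζ => h ζ * ee (inner ℝ y ζ)) (bound := fun ζ => ‖h ζ‖)
    ?_ ?_ hh.norm ?_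
  · intro y
    exact hh.1.mul (continuous_ee.comp (continuous_const.inner continuous_id)).aestronglyMeasurable
  · intro y
    refine Filter.Eventually.of_forall fun ζ => ?_
    rw [norm_mul, norm_ee, mul_one]
  · refine Filter.Eventually.of_forall fun ζ => ?_
    exact continuous_const.mul (continuous_ee.comp (continuous_id.inner continuous_const))

/-- **reproducing inequality**. -/
theorem repro : ∃ C : ℝ, 0 < C ∧ ∀ (h : E3 → ℂ), Integrable h → ∀ η0 κ : ℝ, 0 < κ →
    (∀ ζ, h ζ ≠ 0 → |ζ 2 - η0| ≤ 2 * κ) → ∀ X : E3,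
      ‖𝓕⁻ h X‖ₑ ^ 2 ≤ ENNReal.ofReal C *
        ∫⁻ t : ℝ, ENNReal.ofReal (κ / (1 + (κ * t) ^ 2)) * ‖𝓕⁻ h (X - t • eY)‖ₑ ^ 2 := by
  obtain ⟨K, C, hKc, hC, hKb, hK1⟩ := exists_ker
  refine ⟨C * Real.pi * C, by positivity, ?_⟩
  intro h hh η0 κ hκ hs X
  have h1 := repro_eq hKc hKb hK1 hh hκ hs X
  have hm : Measurable fun t : ℝ => ENNReal.ofReal (κ * (C / (1 + (κ * t) ^ 2))) := by
    apply Measurable.ennreal_ofReal
    fun_prop
  have hm2 : Measurable fun t : ℝ => ‖𝓕⁻ h (X - t • eY)‖ₑ := by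
    apply Continuous.measurable
    exact ((continuous_fourierInv hh).comp (by fun_prop)).enorm
  have h2 : ‖𝓕⁻ h X‖ₑ ≤ ∫⁻ t : ℝ, ENNReal.ofReal (κ * (C / (1 + (κ * t) ^ 2))) *
      ‖𝓕⁻ h (X - t • eY)‖ₑ := by
    rw [h1]
    refine (enorm_integral_le_lintegral_enorm _).trans (lintegral_mono fun t => ?_)
    rw [enorm_mul]
    gcongr
    rw [← ofReal_norm, norm_mul, norm_mul, norm_ee, mul_one, Complex.norm_real,
      Real.norm_eq_abs, abs_of_pos hκ]
    gcongr
    exact hKb _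
  calc ‖𝓕⁻ h X‖ₑ ^ 2 ≤ (∫⁻ t : ℝ, ENNReal.ofReal (κ * (C / (1 + (κ * t) ^ 2))) *
      ‖𝓕⁻ h (X - t • eY)‖ₑ) ^ 2 := by gcongr
    _ ≤ (∫⁻ t : ℝ, ENNReal.ofReal (κ * (C / (1 + (κ * t) ^ 2)))) *
        ∫⁻ t : ℝ, ENNReal.ofReal (κ * (C / (1 + (κ * t) ^ 2))) * ‖𝓕⁻ h (X - t • eY)‖ₑ ^ 2 :=
        lint_sq_le hm hm2
    _ = ENNReal.ofReal (C * Real.pi) *
        ∫⁻ t : ℝ, ENNReal.ofReal C * (ENNReal.ofReal (κ / (1 + (κ * t) ^ 2)) *
          ‖𝓕⁻ h (X - t • eY)‖ₑ ^ 2) := by
        congr 1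
        · rw [← ofReal_integral_eq_lintegral_ofReal (integrable_wt hκ C), integral_wt hκ C]
          exact Filter.Eventually.of_forall fun t => by positivity
        · congr 1
          ext t
          rw [← mul_assoc, ← ENNReal.ofReal_mul hC.le]
          congr 2
          ring
    _ = _ := by
        rw [lintegral_const_mul', ← mul_assoc, ← ENNReal.ofReal_mul (by positivity)]
        exact ENNReal.ofReal_ne_top

/-- transposition of the translates. -/
theorem lint_tr {F : E3 → ℝ≥0∞} (hF : Measurable F) {w : ℝ → ℝ≥0∞} (hw : Measurable w)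
    {Θ : Set E3} (hΘ : MeasurableSet Θ) :
    ∫⁻ X in Θ, ∫⁻ t, w t * F (X - t • eY) =
      ∫⁻ Y, F Y * ∫⁻ t, w t * Θ.indicator 1 (Y + t • eY) := by
  have hI : Measurable (Θ.indicator (1 : E3 → ℝ≥0∞)) := measurable_one.indicator hΘ
  have m1 : Measurable fun p : E3 × ℝ => w p.2 * (Θ.indicator 1 p.1 * F (p.1 - p.2 • eY)) := by
    apply Measurable.mul (hw.comp measurable_snd)
    apply Measurable.mul (hI.comp measurable_fst)
    exact hF.comp (by fun_prop)
  have m2 : Measurable fun p : ℝ × E3 => w p.1 * (Θ.indicator 1 (p.2 + p.1 • eY) * F p.2) := by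
    apply Measurable.mul (hw.comp measurable_fst)
    apply Measurable.mul (hI.comp (by fun_prop)) (hF.comp measurable_snd)
  calc ∫⁻ X in Θ, ∫⁻ t, w t * F (X - t • eY)
      = ∫⁻ X, ∫⁻ t, w t * (Θ.indicator 1 X * F (X - t • eY)) := by
        rw [← lintegral_indicator hΘ]
        congr 1
        ext X
        by_cases hX : X ∈ Θ
        · simp [hX]
        · simp [hX]
    _ = ∫⁻ t, ∫⁻ X, w t * (Θ.indicator 1 X * F (X - t • eY)) :=
        lintegral_lintegral_swap m1.aemeasurable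
    _ = ∫⁻ t, ∫⁻ Y, w t * (Θ.indicator 1 (Y + t • eY) * F Y) := by
        congr 1
        ext t
        rw [← lintegral_add_right_eq_self (μ := (volume : Measure E3))
          (fun X => w t * (Θ.indicator 1 X * F (X - t • eY))) (t • eY)]
        simp only [add_sub_cancel_right]
    _ = ∫⁻ Y, ∫⁻ t, w t * (Θ.indicator 1 (Y + t • eY) * F Y) :=
        lintegral_lintegral_swap m2.aemeasurable
    _ = _ := by
        congr 1
        ext Y
        rw [← lintegral_const_mul]
        · congr 1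
          ext t
          ring
        · exact hw.mul (hI.comp (by fun_prop))

end Crest.Agent.R116.Cnv894
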