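import Crest.Agent.R116.Cnv1_894

/-!
# R116 (S0155), leaf CNV of WDefC_188, part 2 (helper894): transfer of the energy of a selection to
the translates in the last coordinate, elementary one-dimensional bounds.
-/

set_option autoImplicit false

open MeasureTheory FourierTransform
open scoped ContDiff ENNReal

namespace Crest.Agent.R116.Cnv894

open Crest.Agent.R138.Defs (E2 ee)
open Crest.Agent.R138.Wpk685 (cen caps cap win norm_win_le win_contDiff)
open Crest.Agent.R116.CDef480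
open Crest.Agent.R116.LZg725 (Cf)

/-! ### integrability -/

/-- qualitative class of functions. -/
structure Gd (g : E3 → ℂ) : Prop where
  meas : Measurable g
  bdd : ∃ L : ℝ, ∀ ζ, ‖g ζ‖ ≤ L
  supp : ∃ r : ℝ, ∀ ζ, g ζ ≠ 0 → ‖ζ‖ ≤ r

theorem Gd.int {g : E3 → ℂ} (h : Gd g) : Integrable g := by
  obtain ⟨L, hL⟩ := h.bdd
  obtain ⟨r, hr⟩ := h.supp
  have h1 : Integrable ((Metric.closedBall (0 : E3) r).indicator fun _ => L) := by
    rw [integrable_indicator_iff Metric.isClosed_closedBall.measurableSet]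
    exact integrableOn_const (hs := (isCompact_closedBall (0 : E3) r).measure_lt_top.ne)
  refine h1.mono' h.meas.aestronglyMeasurable (Filter.Eventually.of_forall fun ζ => ?_)
  by_cases hz : g ζ = 0
  · rw [hz, norm_zero]
    by_cases hζ : ζ ∈ Metric.closedBall (0 : E3) r
    · rw [Set.indicator_of_mem hζ]; exact (norm_nonneg _).trans (hL ζ)
    · rw [Set.indicator_of_notMem hζ]
  · rw [Set.indicator_of_mem (by simpa using hr ζ hz)]
    exact hL ζ

theorem measurable_capc (ρ : ℝ) (m : ℤ × ℤ) : Measurable (capc ρ m) := by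
  have h : Measurable fun ζ => ρ⁻¹ • (slp ζ - cen ρ m) := by
    have := measurable_slp
    fun_prop
  exact win_contDiff.continuous.measurable.comp h

theorem norm_capc_le (ρ : ℝ) (m : ℤ × ℤ) (ζ : E3) : ‖capc ρ m ζ‖ ≤ 1 := by
  unfold capc cap
  exact norm_win_le _

theorem Gd.cap {g : E3 → ℂ} (h : Gd g) (ρ : ℝ) (m : ℤ × ℤ) : Gd (fun ζ => capc ρ m ζ * g ζ) := by
  obtain ⟨L, hL⟩ := h.bdd
  obtain ⟨r, hr⟩ := h.supp
  refine ⟨(measurable_capc ρ m).mul h.meas, ⟨L, fun ζ => ?_⟩, ⟨r, fun ζ hz => ?_⟩⟩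
  · rw [norm_mul]
    calc ‖capc ρ m ζ‖ * ‖g ζ‖ ≤ 1 * L := by
          gcongr
          · exact norm_capc_le ρ m ζ
          · exact hL ζ
      _ = L := one_mul L
  · exact hr ζ fun h0 => hz (by rw [h0, mul_zero])

theorem measurable_umc {g : E3 → ℂ} (h : Gd g) (ρ : ℝ) (m : ℤ × ℤ) : Measurable (umc ρ g m) :=
  (continuous_fourierInv (h.cap ρ m).int).measurable

/-! ### transfer -/

/-- **transfer**: if the weighted time spent in `Θ m` by the vertical line through `Y` is bounded by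
a sum of indicators, the energy is bounded by the same sum of energies. -/
theorem enc_transfer : ∃ A : ℝ, 0 < A ∧ ∀ (ρ : ℝ) (g : E3 → ℂ), Gd g → ∀ η0 κ : ℝ, 0 < κ →
    Slc η0 (2 * κ) g → ∀ Θ : ℤ × ℤ → Set E3, (∀ m, MeasurableSet (Θ m)) →
    ∀ (ι : Type) (_ : Countable ι) (Th : ι → ℤ × ℤ → Set E3) (b : ι → ℝ≥0∞),
      (∀ i m, MeasurableSet (Th i m)) →
      (∀ m Y, ∫⁻ t : ℝ, ENNReal.ofReal (κ / (1 + (κ * t) ^ 2)) * (Θ m).indicator 1 (Y + t • eY) ≤
        ∑' i, b i * (Th i m).indicator 1 Y) →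
      enc ρ g Θ ≤ ENNReal.ofReal A * ∑' i, b i * enc ρ g (Th i) := by
  obtain ⟨A, hA, hrep⟩ := repro
  refine ⟨A, hA, ?_⟩
  intro ρ g hg η0 κ hκ hs Θ hΘ ι hι Th b hTh hb
  have hw : Measurable fun t : ℝ => ENNReal.ofReal (κ / (1 + (κ * t) ^ 2)) := by
    apply Measurable.ennreal_ofReal
    fun_prop
  have key : ∀ m, ∫⁻ x in Θ m, ‖umc ρ g m x‖ₑ ^ 2 ≤
      ENNReal.ofReal A * ∑' i, b i * ∫⁻ x in Th i m, ‖umc ρ g m x‖ₑ ^ 2 := by
    intro m
    have hF : Measurable fun x => ‖umc ρ g m x‖ₑ ^ 2 := (measurable_umc hg ρ m).enorm.pow_const _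
    have h1 : ∀ X, ‖umc ρ g m X‖ₑ ^ 2 ≤ ENNReal.ofReal A *
        ∫⁻ t : ℝ, ENNReal.ofReal (κ / (1 + (κ * t) ^ 2)) * ‖umc ρ g m (X - t • eY)‖ₑ ^ 2 :=
      fun X => hrep _ (hg.cap ρ m).int η0 κ hκ (fun ζ hz => hs ζ fun h0 => hz (by
        rw [h0, mul_zero])) X
    calc ∫⁻ x in Θ m, ‖umc ρ g m x‖ₑ ^ 2
        ≤ ∫⁻ X in Θ m, ENNReal.ofReal A * ∫⁻ t : ℝ, ENNReal.ofReal (κ / (1 + (κ * t) ^ 2)) *
            ‖umc ρ g m (X - t • eY)‖ₑ ^ 2 := lintegral_mono fun X => h1 X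
      _ = ENNReal.ofReal A * ∫⁻ Y, ‖umc ρ g m Y‖ₑ ^ 2 *
            ∫⁻ t : ℝ, ENNReal.ofReal (κ / (1 + (κ * t) ^ 2)) *
              (Θ m).indicator 1 (Y + t • eY) := by
          rw [lintegral_const_mul' _ _ ENNReal.ofReal_ne_top, lint_tr hF hw (hΘ m)]
      _ ≤ ENNReal.ofReal A * ∫⁻ Y, ‖umc ρ g m Y‖ₑ ^ 2 * ∑' i, b i * (Th i m).indicator 1 Y := by
          gcongr with Y
          exact hb m Y
      _ = ENNReal.ofReal A * ∫⁻ Y, ∑' i, b i * (Th i m).indicator (fun x => ‖umc ρ g m x‖ₑ ^ 2) Y := by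
          congr 1
          apply lintegral_congr
          intro Y
          rw [← ENNReal.tsum_mul_left]
          congr 1
          ext i
          by_cases hY : Y ∈ Th i m
          · simp [hY, mul_comm]
          · simp [hY]
      _ = ENNReal.ofReal A * ∑' i, b i * ∫⁻ x in Th i m, ‖umc ρ g m x‖ₑ ^ 2 := by
          rw [lintegral_tsum fun i => ((hF.indicator (hTh i m)).const_mul _).aemeasurable]
          congr 2
          ext i
          rw [lintegral_const_mul _ (hF.indicator (hTh i m)), lintegral_indicator (hTh i m)]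
  unfold enc
  calc ∑ m ∈ caps ρ, ∫⁻ x in Θ m, ‖umc ρ g m x‖ₑ ^ 2
      ≤ ∑ m ∈ caps ρ, ENNReal.ofReal A * ∑' i, b i * ∫⁻ x in Th i m, ‖umc ρ g m x‖ₑ ^ 2 :=
        Finset.sum_le_sum fun m _ => key m
    _ = ENNReal.ofReal A * ∑' i, b i * ∑ m ∈ caps ρ, ∫⁻ x in Th i m, ‖umc ρ g m x‖ₑ ^ 2 := by
        rw [← Finset.mul_sum, ← Summable.tsum_finsetSum (fun m _ => ENNReal.summable)]
        congr 2
        ext i
        rw [Finset.mul_sum]

/-! ### one-dimensional bounds -/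

/-- length of the set of parameters for which an affine function is small. -/
theorem vol_affine {a b s : ℝ} (hb : b ≠ 0) (_hs : 0 ≤ s) :
    volume {t : ℝ | |a + b * t| ≤ s} ≤ ENNReal.ofReal (2 * s / |b|) := by
  have h1 : {t : ℝ | |a + b * t| ≤ s} ⊆ Set.Icc (-a / b - s / |b|) (-a / b + s / |b|) := by
    intro t ht
    have ht' : |a + b * t| ≤ s := ht
    have hb' : 0 < |b| := abs_pos.2 hb
    have h2 : |t - -a / b| ≤ s / |b| := by
      have e : (t - -a / b) * b = a + b * t := by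
        rw [sub_mul, div_mul_cancel₀ _ hb]; ring
      rw [le_div_iff₀ hb', ← abs_mul, e]
      exact ht'
    rw [abs_le] at h2
    constructor <;> linarith [h2.1, h2.2]
  refine (measure_mono h1).trans ?_
  rw [Real.volume_Icc]
  apply ENNReal.ofReal_le_ofReal
  apply le_of_eq
  ring

/-- weights on a window. -/
theorem wt_le {κ t : ℝ} {i : ℝ} (hκ : 0 < κ) (h : |κ * t + i| ≤ 2) :
    κ / (1 + (κ * t) ^ 2) ≤ 9 * κ / (1 + i ^ 2) := by
  rw [div_le_div_iff₀ (by positivity) (by positivity)]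
  have h1 : (κ * t + i) ^ 2 ≤ 4 := by
    have := sq_abs (κ * t + i)
    have h0 := abs_nonneg (κ * t + i)
    nlinarith
  have h2 : i ^ 2 ≤ 2 * (κ * t) ^ 2 + 8 := by nlinarith [sq_nonneg (κ * t + (κ * t + i))]
  have h3 : 1 + i ^ 2 ≤ 9 * (1 + (κ * t) ^ 2) := by nlinarith [sq_nonneg (κ * t)]
  calc κ * (1 + i ^ 2) ≤ κ * (9 * (1 + (κ * t) ^ 2)) := by gcongr
    _ = 9 * κ * (1 + (κ * t) ^ 2) := by ring

/-- the sum of the weights. -/
theorem summable_wt : Summable fun i : ℤ => 1 / (1 + (i : ℝ) ^ 2) := by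
  have h1 : Summable fun n : ℕ => 1 / (1 + ((n : ℤ) : ℝ) ^ 2) := by
    refine Summable.of_nonneg_of_le (fun n => by positivity) (fun n => ?_)
      (Real.summable_one_div_nat_pow.2 (one_lt_two) |>.comp_injective Nat.succ_injective
        |>.mul_left 4)
    simp only [Function.comp, Nat.succ_eq_add_one, Int.cast_natCast]
    push_cast
    rw [mul_one_div, div_le_div_iff₀ (by positivity) (by positivity)]
    have : (0:ℝ) ≤ n := Nat.cast_nonneg n
    nlinarith [sq_nonneg ((n : ℝ) - 1)]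
  refine Summable.of_nat_of_neg h1 ?_
  simpa using h1

end Crest.Agent.R116.Cnv894
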