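import Crest.Agent.R116.Cnv2_894

/-!
# R116 (S0155), leaf CNV of WDefC_188, part 3 (helper894): flat containers of the vertical translates
of a thin member.
-/

set_option autoImplicit false

open MeasureTheory FourierTransform
open scoped ContDiff ENNReal

namespace Crest.Agent.R116.Cnv894

open Crest.Agent.R138.Defs (E2 ee)
open Crest.Agent.R116.CDef480
open Crest.Agent.R116.WC188
open Crest.Agent.R116.LZg725 (Cf)

/-! ### vertical translations -/

theorem lat_tr (Y : E3) (t : ℝ) : lat (Y + t • eY) = lat Y := by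
  rw [lat_add, lat_eY, add_zero]

theorem two_tr (Y : E3) (t : ℝ) : (Y + t • eY) 2 = Y 2 + t := by
  rw [PiLp.add_apply, eY_two]

theorem nrm_tr (c : E2) (Y : E3) (t : ℝ) : nrm c (Y + t • eY) 0 = nrm c Y 0 + t := by
  unfold nrm
  rw [lat_tr, two_tr]
  ring

theorem ev_trY (f : Cf E2) (Y : E3) (t : ℝ) :
    f.ev (lat (Y + t • eY)) ((Y + t • eY) 2) 0 = f.ev (lat Y) (Y 2) 0 + f.g * t := by
  rw [lat_tr, two_tr]
  unfold Cf.ev
  ring

theorem ld_trY (f : Cf E2) (C : E2) (Y : E3) (t : ℝ) :
    f.ld C (lat (Y + t • eY)) ((Y + t • eY) 2) 0 =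
      f.ld C (lat Y) (Y 2) 0 + -(2 * f.d) * t := by
  rw [lat_tr, two_tr]
  unfold Cf.ld
  ring

/-! ### flat functions -/

/-- the flat conformal function of gradient `u` vanishing on the ray of slope `C` through `x`. -/
noncomputable def flat (u x C : E2) : Cf E2 := ⟨-inner ℝ u x, inner ℝ u C, u, 0, 0⟩

theorem flat_ev (u x C : E2) (x' : E2) (y s : ℝ) :
    (flat u x C).ev x' y s = inner ℝ u (x' - x) + s * inner ℝ u C := by
  unfold Cf.ev flat
  rw [inner_sub_right]
  ring

theorem flat_ld (u x C C' : E2) (x' : E2) (y s : ℝ) :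
    (flat u x C).ld C' x' y s = inner ℝ u (C - C') := by
  unfold Cf.ld Cf.ny flat
  simp only [mul_zero, zero_mul, zero_smul, add_zero, sub_zero, zero_div]
  rw [inner_sub_right]

theorem flat_ny (u x C : E2) (s : ℝ) : (flat u x C).ny s = 0 := by
  unfold Cf.ny flat; simp

theorem flat_disc (u x C : E2) : (flat u x C).disc = ‖u‖ ^ 2 := by
  unfold Cf.disc flat; simp

/-! ### the geometric lemma -/

/-- **containers**: all points of the phase slab of `f` in the thin box lie in a flat slab of width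
`s1'`, and the vertical lines spend time at most `ov` in it, with `ov s1' ≤ 48 s1 s2² R`. -/
theorem geo {R s1 s2 : ℝ} (hR : 1 ≤ R) (h1 : 0 < s1) (h12 : s1 ≤ s2) (c : E2) (X0 : E3) (f : Cf E2)
    (hdisc : f.disc = 1) : ∃ (u x C : E2) (s1' ov : ℝ), ‖u‖ = 1 ∧ ‖x - lat X0‖ ≤ s2 * R ∧
      ‖C - c‖ ≤ s2 ∧ s1 ≤ s1' ∧ s1' ≤ s2 ∧ 0 ≤ ov ∧ ov * s1' ≤ 48 * (s1 * s2 ^ 2 * R) ∧
      (∀ C' X, X ∈ mset s2 (s2 ^ 2) R s1 c X0 f C' →
        |inner ℝ u (lat X - x)| ≤ s1' * R ∧ |inner ℝ u (C - C')| ≤ s1') ∧
      ∀ C' Y, volume {t : ℝ | Y + t • eY ∈ mset s2 (s2 ^ 2) R s1 c X0 f C'} ≤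
        ENNReal.ofReal ov := by
  have h2 : 0 < s2 := h1.trans_le h12
  have hR0 : 0 < R := by linarith
  -- the size
  set S : ℝ := max s1 (max (|f.g| * s2 ^ 2) (|f.d| * s2 ^ 2 * R)) with hS
  have hS1 : s1 ≤ S := le_max_left _ _
  have hSg : |f.g| * s2 ^ 2 ≤ S := (le_max_left _ _).trans (le_max_right _ _)
  have hSd : |f.d| * s2 ^ 2 * R ≤ S := (le_max_right _ _).trans (le_max_right _ _)
  have hS0 : 0 < S := h1.trans_le hS1
  -- overlap
  have hov : ∀ C' Y, volume {t : ℝ | Y + t • eY ∈ mset s2 (s2 ^ 2) R s1 c X0 f C'} ≤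
      ENNReal.ofReal (2 * s1 * s2 ^ 2 * R / S) := by
    intro C' Y
    rcases max_choice s1 (max (|f.g| * s2 ^ 2) (|f.d| * s2 ^ 2 * R)) with h | h
    · -- thickness
      have hSe : S = s1 := h
      have hsub : {t : ℝ | Y + t • eY ∈ mset s2 (s2 ^ 2) R s1 c X0 f C'} ⊆
          {t : ℝ | |(nrm c Y 0 - nrm c X0 0) + 1 * t| ≤ s2 ^ 2 * R} := by
        intro t ht
        have h3 := ht.2.2.1
        rw [nrm_tr] at h3
        change |(nrm c Y 0 - nrm c X0 0) + 1 * t| ≤ s2 ^ 2 * R
        rwa [show nrm c Y 0 - nrm c X0 0 + 1 * t = nrm c Y 0 + t - nrm c X0 0 by ring]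
      refine (measure_mono hsub).trans ((vol_affine one_ne_zero (by positivity)).trans ?_)
      apply ENNReal.ofReal_le_ofReal
      rw [hSe, abs_one, div_one]
      apply le_of_eq
      field_simp
    · rcases max_choice (|f.g| * s2 ^ 2) (|f.d| * s2 ^ 2 * R) with h' | h'
      · -- gradient
        have hSe : S = |f.g| * s2 ^ 2 := by rw [hS, h, h']
        have hg : 0 < |f.g| := by
          rcases (abs_nonneg f.g).eq_or_lt with h0 | h0
          · rw [hSe, ← h0, zero_mul] at hS0; exact absurd hS0 (lt_irrefl _)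
          · exact h0
        have hsub : {t : ℝ | Y + t • eY ∈ mset s2 (s2 ^ 2) R s1 c X0 f C'} ⊆
            {t : ℝ | |f.ev (lat Y) (Y 2) 0 + f.g * t| ≤ s1 * R} := by
          intro t ht
          have h3 := ht.2.2.2.1
          rw [ev_trY] at h3
          exact h3
        refine (measure_mono hsub).trans ((vol_affine (abs_pos.1 hg) (by positivity)).trans ?_)
        apply ENNReal.ofReal_le_ofReal
        rw [hSe]
        apply le_of_eq
        field_simp
      · -- curvature
        have hSe : S = |f.d| * s2 ^ 2 * R := by rw [hS, h, h']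
        have hd : 0 < |f.d| := by
          rcases (abs_nonneg f.d).eq_or_lt with h0 | h0
          · rw [hSe, ← h0, zero_mul, zero_mul] at hS0; exact absurd hS0 (lt_irrefl _)
          · exact h0
        have hsub : {t : ℝ | Y + t • eY ∈ mset s2 (s2 ^ 2) R s1 c X0 f C'} ⊆
            {t : ℝ | |f.ld C' (lat Y) (Y 2) 0 + -(2 * f.d) * t| ≤ s1} := by
          intro t ht
          have h3 := ht.2.2.2.2
          rw [ld_trY] at h3
          exact h3
        have hd' : -(2 * f.d) ≠ 0 := by
          have := abs_pos.1 hd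
          simpa using this
        refine (measure_mono hsub).trans ((vol_affine hd' h1.le).trans ?_)
        apply ENNReal.ofReal_le_ofReal
        rw [hSe, abs_neg, abs_mul, abs_two]
        rw [div_le_div_iff₀ (by positivity) (by positivity)]
        have : 0 ≤ s1 * |f.d| * s2 ^ 2 * R := by positivity
        nlinarith
  rcases le_or_gt (s2 / 24) S with hbig | hsmall
  · -- no slab condition
    refine ⟨EuclideanSpace.single 0 1, lat X0, c, s2, 2 * s1 * s2 ^ 2 * R / S, by simp, by simp; positivity,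
      by simp; positivity, h12, le_rfl, by positivity, ?_, ?_, hov⟩
    · rw [div_mul_eq_mul_div, div_le_iff₀ hS0]
      have h3 : s2 ≤ 24 * S := by linarith
      have h4 : 0 ≤ 2 * s1 * s2 ^ 2 * R := by positivity
      nlinarith [mul_le_mul_of_nonneg_left h3 h4]
    · intro C' X hX
      have hu : ‖(EuclideanSpace.single 0 1 : E2)‖ = 1 := by simp
      constructor
      · calc |inner ℝ (EuclideanSpace.single 0 1 : E2) (lat X - lat X0)| ≤
              ‖(EuclideanSpace.single 0 1 : E2)‖ * ‖lat X - lat X0‖ := abs_real_inner_le_norm _ _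
          _ ≤ 1 * (s2 * R) := by rw [hu]; gcongr; exact hX.2.1
          _ = s2 * R := one_mul _
      · calc |inner ℝ (EuclideanSpace.single 0 1 : E2) (c - C')| ≤
              ‖(EuclideanSpace.single 0 1 : E2)‖ * ‖c - C'‖ := abs_real_inner_le_norm _ _
          _ ≤ 1 * s2 := by rw [hu, norm_sub_rev]; gcongr; exact hX.1
          _ = s2 := one_mul _
  · by_cases hne : ∃ C' X, X ∈ mset s2 (s2 ^ 2) R s1 c X0 f C'
    · obtain ⟨Cs, Xs, hXs⟩ := hne
      have hg1 : |f.g| * s2 ≤ 1 / 24 := by
        have h3 : |f.g| * s2 * s2 < 1 / 24 * s2 := by nlinarith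
        exact (lt_of_mul_lt_mul_right h3 h2.le).le
      have hd1 : |f.d| * s2 * R ≤ 1 / 24 := by
        have h3 : |f.d| * s2 * R * s2 < 1 / 24 * s2 := by nlinarith
        exact (lt_of_mul_lt_mul_right h3 h2.le).le
      obtain ⟨hXs1, hXs2, hXs3, hXs4, hXs5⟩ := hXs
      set G : E2 := f.gr Cs (lat Xs) 0 with hG
      have hGsq := Cf.norm_gr_sq f Cs (lat Xs) (Xs 2) 0
      rw [← hG, hdisc] at hGsq
      have hny0 : f.ny 0 = f.g := by unfold Cf.ny; ring
      rw [hny0] at hGsq
      have e1 : |2 * f.g * f.ld Cs (lat Xs) (Xs 2) 0| ≤ 1 / 12 := by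
        rw [abs_mul, abs_mul, abs_two]
        calc 2 * |f.g| * |f.ld Cs (lat Xs) (Xs 2) 0| ≤ 2 * |f.g| * s2 := by
              gcongr; exact hXs5.trans h12
          _ ≤ 1 / 12 := by linarith
      have e2 : |4 * f.d * f.ev (lat Xs) (Xs 2) 0| ≤ 1 / 6 := by
        rw [abs_mul, abs_mul, abs_of_pos (by norm_num : (0:ℝ) < 4)]
        calc 4 * |f.d| * |f.ev (lat Xs) (Xs 2) 0| ≤ 4 * |f.d| * (s2 * R) := by
              gcongr; exact hXs4.trans (by gcongr)
          _ ≤ 1 / 6 := by linarith
      have hGlow : 1 / 2 ≤ ‖G‖ := by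
        have h3 : 1 / 4 ≤ ‖G‖ ^ 2 := by
          have := abs_le.1 e1
          have := abs_le.1 e2
          linarith
        have h4 := norm_nonneg G
        nlinarith
      have hG0 : 0 < ‖G‖ := by linarith
      set u : E2 := ‖G‖⁻¹ • G with hu
      have hunit : ‖u‖ = 1 := by
        rw [hu, norm_smul, norm_inv, norm_norm, inv_mul_cancel₀ hG0.ne']
      have hinner : ∀ v : E2, |inner ℝ u v| ≤ 2 * |inner ℝ G v| := by
        intro v
        rw [hu, real_inner_smul_left, abs_mul, abs_of_pos (inv_pos.2 hG0)]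
        gcongr
        rw [inv_le_comm₀ hG0 (by norm_num)]
        linarith
      refine ⟨u, lat Xs, Cs, 24 * S, 2 * s1 * s2 ^ 2 * R / S, hunit, hXs2, hXs1, by linarith,
        by linarith, by positivity, ?_, ?_, hov⟩
      · apply le_of_eq
        field_simp
        ring
      · intro C' X hX
        obtain ⟨hX1, hX2, hX3, hX4, hX5⟩ := hX
        have hxx : ‖lat X - lat Xs‖ ≤ 2 * s2 * R := by
          calc ‖lat X - lat Xs‖ = ‖(lat X - lat X0) - (lat Xs - lat X0)‖ := by congr 1; abel
            _ ≤ ‖lat X - lat X0‖ + ‖lat Xs - lat X0‖ := norm_sub_le _ _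
            _ ≤ s2 * R + s2 * R := add_le_add hX2 hXs2
            _ = 2 * s2 * R := by ring
        have hCC : ‖C' - Cs‖ ≤ 2 * s2 := by
          calc ‖C' - Cs‖ = ‖(C' - c) - (Cs - c)‖ := by congr 1; abel
            _ ≤ ‖C' - c‖ + ‖Cs - c‖ := norm_sub_le _ _
            _ ≤ s2 + s2 := add_le_add hX1 hXs1
            _ = 2 * s2 := by ring
        -- normal displacement in a direction `D` of the box
        have hN : ∀ D : E2, ‖D - c‖ ≤ s2 → |nrm D X 0 - nrm D Xs 0| ≤ 4 * s2 ^ 2 * R := by
          intro D hD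
          have e3 : nrm D X 0 - nrm D Xs 0 = (nrm c X 0 - nrm c X0 0) - (nrm c Xs 0 - nrm c X0 0) +
              inner ℝ (D - c) (lat X - lat Xs) := by
            unfold nrm
            simp only [inner_sub_left, inner_sub_right]
            ring
          rw [e3]
          calc _ ≤ |(nrm c X 0 - nrm c X0 0) - (nrm c Xs 0 - nrm c X0 0)| +
                |inner ℝ (D - c) (lat X - lat Xs)| := abs_add_le _ _
            _ ≤ (|nrm c X 0 - nrm c X0 0| + |nrm c Xs 0 - nrm c X0 0|) +
                ‖D - c‖ * ‖lat X - lat Xs‖ := by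
                gcongr
                · exact abs_sub _ _
                · exact abs_real_inner_le_norm _ _
            _ ≤ (s2 ^ 2 * R + s2 ^ 2 * R) + s2 * (2 * s2 * R) := by gcongr
            _ = 4 * s2 ^ 2 * R := by ring
        have hnrmeq : ∀ D : E2, ∀ Z : E3,
            Crest.Agent.R116.LZg725.nrm D (lat Z) (Z 2) 0 = nrm D Z 0 := by
          intro D Z; rfl
        constructor
        · -- value
          have h3 := Cf.ev_expand f Cs (lat Xs) (Xs 2) 0 (lat X) (X 2) 0
          rw [← hG, hny0, hnrmeq, hnrmeq] at h3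
          simp only [sub_zero, zero_smul, add_zero, mul_zero, zero_mul] at h3
          have h4 : inner ℝ G (lat X - lat Xs) = f.ev (lat X) (X 2) 0 - f.ev (lat Xs) (Xs 2) 0 -
              f.g * (nrm Cs X 0 - nrm Cs Xs 0) - f.d * ‖lat X - lat Xs‖ ^ 2 := by
            linarith
          have h5 : |f.g * (nrm Cs X 0 - nrm Cs Xs 0)| ≤ 4 * (S * R) := by
            rw [abs_mul]
            calc |f.g| * |nrm Cs X 0 - nrm Cs Xs 0| ≤ |f.g| * (4 * s2 ^ 2 * R) := by
                  gcongr; exact hN Cs hXs1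
              _ = 4 * (|f.g| * s2 ^ 2 * R) := by ring
              _ ≤ 4 * (S * R) := by gcongr
          have h6 : |f.d * ‖lat X - lat Xs‖ ^ 2| ≤ 4 * (S * R) := by
            rw [abs_mul, abs_of_nonneg (sq_nonneg ‖lat X - lat Xs‖)]
            calc |f.d| * ‖lat X - lat Xs‖ ^ 2 ≤ |f.d| * (2 * s2 * R) ^ 2 := by gcongr
              _ = 4 * (|f.d| * s2 ^ 2 * R * R) := by ring
              _ ≤ 4 * (S * R) := by gcongr
          have h7 : s1 * R ≤ S * R := by gcongr
          have h8 : |inner ℝ G (lat X - lat Xs)| ≤ 10 * (S * R) := by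
            rw [h4]
            have a1 := abs_le.1 h5
            have a2 := abs_le.1 h6
            have a3 := abs_le.1 hX4
            have a4 := abs_le.1 hXs4
            rw [abs_le]
            constructor <;> linarith [a1.1, a1.2, a2.1, a2.2, a3.1, a3.2, a4.1, a4.2]
          refine (hinner _).trans ?_
          have : 0 < S * R := by positivity
          linarith
        · -- derivative
          have h3 := Cf.ld_dir f Cs C' (lat Xs) (Xs 2) 0
          rw [← hG, hny0] at h3
          have h4 := Cf.ld_move f C' (lat Xs) (lat X) (Xs 2) (X 2) 0 0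
          rw [hnrmeq, hnrmeq] at h4
          have h5 : inner ℝ G (C' - Cs) = f.ld Cs (lat Xs) (Xs 2) 0 + f.g * ‖C' - Cs‖ ^ 2 / 2 -
              2 * f.d * (nrm C' X 0 - nrm C' Xs 0) - f.ld C' (lat X) (X 2) 0 := by
            linarith
          have h6 : |f.g * ‖C' - Cs‖ ^ 2 / 2| ≤ 2 * S := by
            rw [abs_div, abs_mul, abs_two, abs_of_nonneg (sq_nonneg ‖C' - Cs‖)]
            calc |f.g| * ‖C' - Cs‖ ^ 2 / 2 ≤ |f.g| * (2 * s2) ^ 2 / 2 := by gcongr
              _ = 2 * (|f.g| * s2 ^ 2) := by ring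
              _ ≤ 2 * S := by gcongr
          have h7 : |2 * f.d * (nrm C' X 0 - nrm C' Xs 0)| ≤ 8 * S := by
            rw [abs_mul, abs_mul, abs_two]
            calc 2 * |f.d| * |nrm C' X 0 - nrm C' Xs 0| ≤ 2 * |f.d| * (4 * s2 ^ 2 * R) := by
                  gcongr; exact hN C' hX1
              _ = 8 * (|f.d| * s2 ^ 2 * R) := by ring
              _ ≤ 8 * S := by gcongr
          have h8 : |inner ℝ G (C' - Cs)| ≤ 12 * S := by
            rw [h5]
            have a1 := abs_le.1 h6
            have a2 := abs_le.1 h7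
            have a3 := abs_le.1 hX5
            have a4 := abs_le.1 hXs5
            rw [abs_le]
            constructor <;> linarith [a1.1, a1.2, a2.1, a2.2, a3.1, a3.2, a4.1, a4.2]
          have h9 : |inner ℝ G (Cs - C')| ≤ 12 * S := by
            rw [← neg_sub C' Cs, inner_neg_right, abs_neg]; exact h8
          refine (hinner _).trans ?_
          linarith
    · -- empty
      push Not at hne
      refine ⟨EuclideanSpace.single 0 1, lat X0, c, s2, 0, by simp, by simp; positivity,
        by simp; positivity, h12, le_rfl, le_rfl, ?_, ?_, ?_⟩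
      · rw [zero_mul]; positivity
      · intro C' X hX
        exact absurd hX (hne C' X)
      · intro C' Y
        have : {t : ℝ | Y + t • eY ∈ mset s2 (s2 ^ 2) R s1 c X0 f C'} = ∅ := by
          ext t
          simp only [Set.mem_empty_iff_false, iff_false]
          exact fun h => hne C' _ h
        rw [this]
        simp

end Crest.Agent.R116.Cnv894
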