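import Crest.Agent.R116.Cnv3_894

/-!
# R116 (S0155), leaf CNV of WDefC_188 (v2), part 4 (helper894): cells of vertical translations, the
containers in the two cases `s2² < (κ R)⁻¹` (flat) and `(κ R)⁻¹ ≤ s2²` (translated functions).
-/

set_option autoImplicit false

open MeasureTheory FourierTransform
open scoped ContDiff ENNReal

namespace Crest.Agent.R116.Cnv894

open Crest.Agent.R138.Defs (E2 ee)
open Crest.Agent.R138.Wpk685 (cen caps cap win)
open Crest.Agent.R116.CDef480
open Crest.Agent.R116.WC188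
open Crest.Agent.R116.LZg725 (Cf)

/-! ### measurability of the phase boxes -/

theorem continuous_lat' : Continuous lat := latL.continuous

theorem measurableSet_mset (sg T R s1 : ℝ) (c : E2) (X0 : E3) (f : Cf E2) (C : E2) :
    MeasurableSet (mset sg T R s1 c X0 f C) := by
  have hl := continuous_lat'
  have h2 : Continuous fun X : E3 => X 2 := by fun_prop
  have e1 : Continuous fun X : E3 => ‖lat X - lat X0‖ := (hl.sub continuous_const).norm
  have e2 : Continuous fun X : E3 => |nrm c X 0 - nrm c X0 0| := by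
    unfold nrm
    exact (((h2.add (continuous_const.inner hl)).add continuous_const).sub continuous_const).abs
  have e3 : Continuous fun X : E3 => |f.ev (lat X) (X 2) 0| := by
    unfold Cf.ev
    exact ((((continuous_const.add continuous_const).add (continuous_const.inner hl)).add
      (continuous_const.mul h2)).add (continuous_const.mul ((hl.norm.pow 2).sub
      (continuous_const.mul h2)))).abs
  have e4 : Continuous fun X : E3 => |f.ld C (lat X) (X 2) 0| := by
    unfold Cf.ld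
    exact (((continuous_const.sub (continuous_const.mul h2)).sub
      (Continuous.inner (continuous_const.add (hl.const_smul (2 * f.d))) continuous_const)).add
      continuous_const).abs
  have : mset sg T R s1 c X0 f C = {X | ‖C - c‖ ≤ sg} ∩ ({X | ‖lat X - lat X0‖ ≤ sg * R} ∩
      ({X | |nrm c X 0 - nrm c X0 0| ≤ T * R} ∩ ({X | |f.ev (lat X) (X 2) 0| ≤ s1 * R} ∩
      {X | |f.ld C (lat X) (X 2) 0| ≤ s1}))) := rfl
  rw [this]
  exact (MeasurableSet.const _).inter ((measurableSet_le e1.measurable measurable_const).inter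
    ((measurableSet_le e2.measurable measurable_const).inter
    ((measurableSet_le e3.measurable measurable_const).inter
    (measurableSet_le e4.measurable measurable_const))))

/-! ### cells -/

/-- **energy by cells of vertical translations**. -/
theorem enc_cells : ∃ A : ℝ, 0 < A ∧ ∀ (ρ : ℝ) (g : E3 → ℂ), Gd g → ∀ η0 κ : ℝ, 0 < κ →
    Slc η0 (2 * κ) g → ∀ Θ : ℤ × ℤ → Set E3, (∀ m, MeasurableSet (Θ m)) →
    ∀ (Th : ℤ → ℤ × ℤ → Set E3), (∀ j m, MeasurableSet (Th j m)) → ∀ ov E : ℝ, 0 ≤ ov → 0 ≤ E →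
      (∀ (j : ℤ) m Y (t : ℝ), Y + t • eY ∈ Θ m → (j : ℝ) ≤ κ * t → κ * t < j + 1 → Y ∈ Th j m) →
      (∀ (j : ℤ) m Y, volume {t : ℝ | Y + t • eY ∈ Θ m ∧ (j : ℝ) ≤ κ * t ∧ κ * t < j + 1} ≤
        ENNReal.ofReal ov) →
      (∀ j, enc ρ g (Th j) ≤ ENNReal.ofReal E) →
      enc ρ g Θ ≤ ENNReal.ofReal (A * (κ * ov * E)) := by
  obtain ⟨A, hA, htr⟩ := enc_transfer
  set W : ℝ := ∑' i : ℤ, 1 / (1 + (i : ℝ) ^ 2) with hW
  have hW0 : 0 ≤ W := tsum_nonneg fun i => by positivity
  refine ⟨9 * A * W + 1, by positivity, ?_⟩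
  intro ρ g hg η0 κ hκ hs Θ hΘ Th hTh ov E hov hE h1 h2 h3
  have key := htr ρ g hg η0 κ hκ hs Θ hΘ ℤ inferInstance Th
    (fun j => ENNReal.ofReal (9 * κ / (1 + (j : ℝ) ^ 2) * ov)) hTh ?_
  · refine key.trans ?_
    calc ENNReal.ofReal A * ∑' j : ℤ, ENNReal.ofReal (9 * κ / (1 + (j : ℝ) ^ 2) * ov) *
          enc ρ g (Th j)
        ≤ ENNReal.ofReal A * ∑' j : ℤ, ENNReal.ofReal (9 * κ / (1 + (j : ℝ) ^ 2) * ov) *
          ENNReal.ofReal E := by
          gcongr with j
          exact h3 j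
      _ = ENNReal.ofReal A * ∑' j : ℤ, ENNReal.ofReal ((9 * κ * ov * E) * (1 / (1 + (j : ℝ) ^ 2))) := by
          congr 2
          ext j
          rw [← ENNReal.ofReal_mul (by positivity)]
          congr 1
          ring
      _ = ENNReal.ofReal A * ENNReal.ofReal ((9 * κ * ov * E) * W) := by
          rw [← ENNReal.ofReal_tsum_of_nonneg (fun j => by positivity)
            (summable_wt.mul_left _), tsum_mul_left]
      _ ≤ ENNReal.ofReal ((9 * A * W + 1) * (κ * ov * E)) := by
          rw [← ENNReal.ofReal_mul hA.le]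
          apply ENNReal.ofReal_le_ofReal
          have : 0 ≤ κ * ov * E := by positivity
          calc A * (9 * κ * ov * E * W) = 9 * A * W * (κ * ov * E) := by ring
            _ ≤ (9 * A * W + 1) * (κ * ov * E) := by
                apply mul_le_mul_of_nonneg_right _ this
                linarith
  · intro m Y
    have hms : ∀ j : ℤ, MeasurableSet {t : ℝ | Y + t • eY ∈ Θ m ∧ (j : ℝ) ≤ κ * t ∧ κ * t < j + 1} := by
      intro j
      have m1 : Measurable fun t : ℝ => Y + t • eY := by fun_prop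
      have m2 : Measurable fun t : ℝ => κ * t := by fun_prop
      exact (m1 (hΘ m)).inter ((measurableSet_le measurable_const m2).inter
        (measurableSet_lt m2 measurable_const))
    calc ∫⁻ t : ℝ, ENNReal.ofReal (κ / (1 + (κ * t) ^ 2)) * (Θ m).indicator 1 (Y + t • eY)
        ≤ ∫⁻ t : ℝ, ∑' j : ℤ, {t : ℝ | Y + t • eY ∈ Θ m ∧ (j : ℝ) ≤ κ * t ∧ κ * t < j + 1}.indicator
            (fun _ => ENNReal.ofReal (9 * κ / (1 + (j : ℝ) ^ 2))) t := by
          apply lintegral_mono
          intro t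
          by_cases ht : Y + t • eY ∈ Θ m
          · have hj1 : ((⌊κ * t⌋ : ℤ) : ℝ) ≤ κ * t := Int.floor_le _
            have hj2 : κ * t < (⌊κ * t⌋ : ℤ) + 1 := Int.lt_floor_add_one _
            have hmem : t ∈ {t : ℝ | Y + t • eY ∈ Θ m ∧ ((⌊κ * t⌋ : ℤ) : ℝ) ≤ κ * t ∧
              κ * t < (⌊κ * t⌋ : ℤ) + 1} := ⟨ht, hj1, hj2⟩
            have hw := wt_le (κ := κ) (t := t) (i := -((⌊κ * t⌋ : ℤ) : ℝ)) hκ (by
              rw [abs_le]; constructor <;> linarith)
            rw [neg_sq] at hw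
            calc ENNReal.ofReal (κ / (1 + (κ * t) ^ 2)) * (Θ m).indicator 1 (Y + t • eY)
                = ENNReal.ofReal (κ / (1 + (κ * t) ^ 2)) := by
                  rw [Set.indicator_of_mem ht, Pi.one_apply, mul_one]
              _ ≤ ENNReal.ofReal (9 * κ / (1 + ((⌊κ * t⌋ : ℤ) : ℝ) ^ 2)) :=
                  ENNReal.ofReal_le_ofReal hw
              _ = {s : ℝ | Y + s • eY ∈ Θ m ∧ ((⌊κ * t⌋ : ℤ) : ℝ) ≤ κ * s ∧
                    κ * s < (⌊κ * t⌋ : ℤ) + 1}.indicator
                    (fun _ => ENNReal.ofReal (9 * κ / (1 + ((⌊κ * t⌋ : ℤ) : ℝ) ^ 2))) t := by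
                  rw [Set.indicator_of_mem]
                  exact ⟨ht, hj1, hj2⟩
              _ ≤ _ := ENNReal.le_tsum (f := fun j : ℤ => {s : ℝ | Y + s • eY ∈ Θ m ∧
                    (j : ℝ) ≤ κ * s ∧ κ * s < j + 1}.indicator
                    (fun _ => ENNReal.ofReal (9 * κ / (1 + (j : ℝ) ^ 2))) t) ⌊κ * t⌋
          · change ENNReal.ofReal (κ / (1 + (κ * t) ^ 2)) * (Θ m).indicator 1 (Y + t • eY) ≤ _
            rw [Set.indicator_of_notMem ht, mul_zero]
            exact bot_le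
      _ = ∑' j : ℤ, ENNReal.ofReal (9 * κ / (1 + (j : ℝ) ^ 2)) *
            volume {t : ℝ | Y + t • eY ∈ Θ m ∧ (j : ℝ) ≤ κ * t ∧ κ * t < j + 1} := by
          rw [lintegral_tsum fun j => (measurable_const.indicator (hms j)).aemeasurable]
          congr 1
          ext j
          rw [lintegral_indicator (hms j), setLIntegral_const]
      _ ≤ _ := by
          apply ENNReal.tsum_le_tsum
          intro j
          by_cases hY : Y ∈ Th j m
          · rw [Set.indicator_of_mem hY, Pi.one_apply, mul_one, ENNReal.ofReal_mul (by positivity)]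
            gcongr
            exact h2 j m Y
          · have : {t : ℝ | Y + t • eY ∈ Θ m ∧ (j : ℝ) ≤ κ * t ∧ κ * t < j + 1} = ∅ := by
              ext t
              simp only [Set.mem_empty_iff_false, iff_false]
              exact fun h => hY (h1 j m Y t h.1 h.2.1 h.2.2)
            rw [this, measure_empty, mul_zero]
            exact bot_le

/-! ### containers -/

/-- the conformal function translated by `t` in the last coordinate. -/
noncomputable def shY (t : ℝ) (f : Cf E2) : Cf E2 :=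
  ⟨f.a0 + f.g * t, f.a1 - 2 * f.d * t, f.be, f.g, f.d⟩

theorem shY_ny (t : ℝ) (f : Cf E2) (s : ℝ) : (shY t f).ny s = f.ny s := rfl

theorem shY_ev (t : ℝ) (f : Cf E2) (x : E2) (y : ℝ) :
    (shY t f).ev x y 0 = f.ev x (y + t) 0 := by
  unfold shY Cf.ev; ring

theorem shY_ld (t : ℝ) (f : Cf E2) (C x : E2) (y : ℝ) :
    (shY t f).ld C x y 0 = f.ld C x (y + t) 0 := by
  unfold shY Cf.ld Cf.ny; ring

theorem shY_disc (t : ℝ) (f : Cf E2) : (shY t f).disc = f.disc := by
  unfold shY Cf.disc; ring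

/-- the statement on containers. -/
def Cont (M κ R s1 s2 : ℝ) (c : E2) (X0 : E3) (f : Cf E2) : Prop :=
  ∃ (s1' ov : ℝ) (F : ℤ → Cf E2), s1 ≤ s1' ∧ s1' ≤ s2 ∧ 0 ≤ ov ∧
    κ * ov * (s1' * TT κ s2 R) ≤ 48 * (s1 * s2 ^ 2) ∧
    (∀ j : ℤ, Adm M κ s1' s2 (TT κ s2 R) R c (X0 - ((j : ℝ) / κ) • eY) (F j)) ∧
    (∀ (j : ℤ) C' Y (t : ℝ), Y + t • eY ∈ mset s2 (s2 ^ 2) R s1 c X0 f C' → (j : ℝ) ≤ κ * t →
      κ * t < j + 1 → Y ∈ mset (2 * s2) (2 * TT κ s2 R) R (2 * s1') c
        (X0 - ((j : ℝ) / κ) • eY) (F j) C') ∧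
    ∀ (j : ℤ) C' Y, volume {t : ℝ | Y + t • eY ∈ mset s2 (s2 ^ 2) R s1 c X0 f C' ∧
      (j : ℝ) ≤ κ * t ∧ κ * t < j + 1} ≤ ENNReal.ofReal ov

theorem lat_trs (X : E3) (t : ℝ) : lat (X - t • eY) = lat X := by
  rw [sub_eq_add_neg, ← neg_smul, lat_tr]

theorem two_trs (X : E3) (t : ℝ) : (X - t • eY) 2 = X 2 - t := by
  rw [sub_eq_add_neg, ← neg_smul, two_tr]; ring

theorem nrm_trs (c : E2) (X : E3) (t : ℝ) : nrm c (X - t • eY) 0 = nrm c X 0 - t := by
  rw [sub_eq_add_neg, ← neg_smul, nrm_tr]; ring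

/-- thin boxes. -/
theorem cont_thin {M κ R s1 s2 : ℝ} (hM : 1 ≤ M) (hκ : 0 < κ) (hR : 1 ≤ R) (h1 : 0 < s1)
    (h12 : s1 ≤ s2) (hT : s2 ^ 2 < (κ * R)⁻¹) (c : E2) (X0 : E3) (f : Cf E2) (hdisc : f.disc = 1) :
    Cont M κ R s1 s2 c X0 f := by
  have h2 : 0 < s2 := h1.trans_le h12
  have hR0 : 0 < R := by linarith
  have hTT : TT κ s2 R = (κ * R)⁻¹ := max_eq_right hT.le
  obtain ⟨u, x, C, s1', ov, hu, hx, hC, hs1, hs2, hov, hovs, hin, hvol⟩ :=
    geo hR h1 h12 c X0 f hdisc
  have hs0 : 0 < s1' := h1.trans_le hs1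
  refine ⟨s1', ov, fun _ => flat u x C, hs1, hs2, hov, ?_, ?_, ?_, ?_⟩
  · rw [hTT]
    have e1 : κ * ov * (s1' * (κ * R)⁻¹) = ov * s1' / R := by field_simp
    rw [e1, div_le_iff₀ hR0]
    linarith
  · intro j
    rw [hTT]
    have hC' : |inner ℝ u (C - c)| ≤ s2 := by
      calc |inner ℝ u (C - c)| ≤ ‖u‖ * ‖C - c‖ := abs_real_inner_le_norm _ _
        _ ≤ 1 * s2 := by rw [hu]; gcongr
        _ = s2 := one_mul _
    have hx' : |inner ℝ u (lat X0 - x)| ≤ s2 * R := by
      calc |inner ℝ u (lat X0 - x)| ≤ ‖u‖ * ‖lat X0 - x‖ := abs_real_inner_le_norm _ _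
        _ ≤ 1 * (s2 * R) := by rw [hu, norm_sub_rev]; gcongr
        _ = s2 * R := one_mul _
    constructor
    · rw [flat_disc, hu, one_pow]
    · intro s _
      rw [flat_ny, abs_zero]; positivity
    · intro s _
      rw [flat_ny, abs_zero]; positivity
    · rw [flat_ld]
      refine hC'.trans ?_
      nlinarith
    · rw [flat_ev, zero_mul, add_zero, lat_trs]
      refine hx'.trans ?_
      have : 0 < s2 * R := by positivity
      nlinarith
  · intro j C' Y t hY hj1 hj2
    obtain ⟨a1, a2, a3, a4, a5⟩ := hY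
    have hin' := hin C' (Y + t • eY) ⟨a1, a2, a3, a4, a5⟩
    rw [lat_tr] at hin' a2
    rw [nrm_tr] at a3
    refine ⟨by linarith, ?_, ?_, ?_, ?_⟩
    · rw [lat_trs]
      have : 0 < s2 * R := by positivity
      linarith
    · rw [nrm_trs, hTT]
      have e1 : (κ * R)⁻¹ * R = κ⁻¹ := by field_simp
      have e2 : s2 ^ 2 * R < κ⁻¹ := by
        calc s2 ^ 2 * R < (κ * R)⁻¹ * R := by gcongr
          _ = κ⁻¹ := e1
      have e3 : 0 ≤ t - (j : ℝ) / κ := by
        rw [sub_nonneg, div_le_iff₀ hκ]; linarith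
      have e4 : t - (j : ℝ) / κ ≤ κ⁻¹ := by
        rw [sub_le_iff_le_add, ← one_div, ← add_div, le_div_iff₀ hκ]
        linarith
      have e5 := abs_le.1 a3
      rw [mul_assoc, e1, abs_le]
      constructor <;> linarith [e5.1, e5.2]
    · rw [flat_ev, zero_mul, add_zero]
      refine hin'.1.trans ?_
      have : 0 < s1' * R := by positivity
      linarith
    · rw [flat_ld]
      refine hin'.2.trans ?_
      linarith
  · intro j C' Y
    exact (measure_mono fun t ht => ht.1).trans (hvol C' Y)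

/-- volume of a cell. -/
theorem vol_cell {κ : ℝ} (hκ : 0 < κ) (j : ℤ) (P : ℝ → Prop) :
    volume {t : ℝ | P t ∧ (j : ℝ) ≤ κ * t ∧ κ * t < j + 1} ≤ ENNReal.ofReal κ⁻¹ := by
  have : {t : ℝ | P t ∧ (j : ℝ) ≤ κ * t ∧ κ * t < j + 1} ⊆ Set.Icc ((j : ℝ) / κ) (((j : ℝ) + 1) / κ) := by
    intro t ht
    constructor
    · rw [div_le_iff₀ hκ]; linarith [ht.2.1]
    · rw [le_div_iff₀ hκ]; linarith [ht.2.2]
  refine (measure_mono this).trans ?_
  rw [Real.volume_Icc]
  apply ENNReal.ofReal_le_ofReal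
  apply le_of_eq
  field_simp
  ring

/-- thick boxes. -/
theorem cont_thick {M κ R s1 s2 : ℝ} (hM : 1 ≤ M) (hκ : 0 < κ) (hR : 1 ≤ R) (h1 : 0 < s1)
    (h12 : s1 ≤ s2) (hT : (κ * R)⁻¹ ≤ s2 ^ 2) (c : E2) (X0 : E3) (f : Cf E2) (κ1 : ℝ)
    (hf : Adm M κ1 s1 s2 (s2 ^ 2) R c X0 f) : Cont M κ R s1 s2 c X0 f := by
  have h2 : 0 < s2 := h1.trans_le h12
  have hR0 : 0 < R := by linarith
  have hTT : TT κ s2 R = s2 ^ 2 := max_eq_left hT
  have hB : κ⁻¹ ≤ s2 ^ 2 * R := by
    calc κ⁻¹ = (κ * R)⁻¹ * R := by field_simp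
      _ ≤ s2 ^ 2 * R := by gcongr
  set S : ℝ := max s1 (max (|f.g| / (κ * R)) (|f.d| / κ)) with hS
  have hS1 : s1 ≤ S := le_max_left _ _
  have hSg : |f.g| / (κ * R) ≤ S := (le_max_left _ _).trans (le_max_right _ _)
  have hSd : |f.d| / κ ≤ S := (le_max_right _ _).trans (le_max_right _ _)
  have hS0 : 0 < S := h1.trans_le hS1
  have hg : |f.g| ≤ S * (κ * R) := by rwa [div_le_iff₀ (by positivity)] at hSg
  have hd : |f.d| ≤ S * κ := by rwa [div_le_iff₀ hκ] at hSd
  -- overlap
  have hov : ∀ (j : ℤ) C' Y, volume {t : ℝ | Y + t • eY ∈ mset s2 (s2 ^ 2) R s1 c X0 f C' ∧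
      (j : ℝ) ≤ κ * t ∧ κ * t < j + 1} ≤ ENNReal.ofReal (2 * s1 / (S * κ)) := by
    intro j C' Y
    rcases max_choice s1 (max (|f.g| / (κ * R)) (|f.d| / κ)) with h | h
    · refine (vol_cell hκ j _).trans (ENNReal.ofReal_le_ofReal ?_)
      have hSe : S = s1 := h
      rw [hSe, ← one_div, div_le_div_iff₀ hκ (by positivity)]
      have : 0 < s1 * κ := by positivity
      linarith
    · rcases max_choice (|f.g| / (κ * R)) (|f.d| / κ) with h' | h'
      · have hSe : S = |f.g| / (κ * R) := by rw [hS, h, h']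
        have hg0 : 0 < |f.g| := by
          rcases (abs_nonneg f.g).eq_or_lt with h0 | h0
          · rw [hSe, ← h0, zero_div] at hS0; exact absurd hS0 (lt_irrefl _)
          · exact h0
        have hsub : {t : ℝ | Y + t • eY ∈ mset s2 (s2 ^ 2) R s1 c X0 f C' ∧
            (j : ℝ) ≤ κ * t ∧ κ * t < j + 1} ⊆
            {t : ℝ | |f.ev (lat Y) (Y 2) 0 + f.g * t| ≤ s1 * R} := by
          intro t ht
          have h3 := ht.1.2.2.2.1
          rw [ev_trY] at h3
          exact h3
        refine (measure_mono hsub).trans ((vol_affine (abs_pos.1 hg0) (by positivity)).trans ?_)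
        apply ENNReal.ofReal_le_ofReal
        rw [hSe]
        apply le_of_eq
        field_simp
      · have hSe : S = |f.d| / κ := by rw [hS, h, h']
        have hd0 : 0 < |f.d| := by
          rcases (abs_nonneg f.d).eq_or_lt with h0 | h0
          · rw [hSe, ← h0, zero_div] at hS0; exact absurd hS0 (lt_irrefl _)
          · exact h0
        have hsub : {t : ℝ | Y + t • eY ∈ mset s2 (s2 ^ 2) R s1 c X0 f C' ∧
            (j : ℝ) ≤ κ * t ∧ κ * t < j + 1} ⊆
            {t : ℝ | |f.ld C' (lat Y) (Y 2) 0 + -(2 * f.d) * t| ≤ s1} := by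
          intro t ht
          have h3 := ht.1.2.2.2.2
          rw [ld_trY] at h3
          exact h3
        have hd' : -(2 * f.d) ≠ 0 := by
          have := abs_pos.1 hd0
          simpa using this
        refine (measure_mono hsub).trans ((vol_affine hd' h1.le).trans ?_)
        apply ENNReal.ofReal_le_ofReal
        rw [hSe, abs_neg, abs_mul, abs_two, div_mul_cancel₀ _ hκ.ne']
        rw [div_le_div_iff₀ (by positivity) hd0]
        have : 0 ≤ s1 * |f.d| := by positivity
        nlinarith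
  have hcell : ∀ (j : ℤ) (t : ℝ), (j : ℝ) ≤ κ * t → κ * t < j + 1 →
      0 ≤ t - (j : ℝ) / κ ∧ t - (j : ℝ) / κ ≤ κ⁻¹ := by
    intro j t hj1 hj2
    constructor
    · rw [sub_nonneg, div_le_iff₀ hκ]; linarith
    · rw [sub_le_iff_le_add, ← one_div, ← add_div, le_div_iff₀ hκ]
      linarith
  rcases le_or_gt (3 * S) s2 with hsm | hbig
  · -- translated functions
    refine ⟨3 * S, 2 * s1 / (S * κ), fun j => shY ((j : ℝ) / κ) f, by linarith, hsm, by positivity,
      ?_, ?_, ?_, hov⟩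
    · rw [hTT]
      have e1 : κ * (2 * s1 / (S * κ)) * (3 * S * s2 ^ 2) = 6 * (s1 * s2 ^ 2) := by
        field_simp
        ring
      rw [e1]
      have : 0 < s1 * s2 ^ 2 := by positivity
      linarith
    · intro j
      rw [hTT]
      constructor
      · rw [shY_disc]; exact hf.disc
      · intro s hs
        rw [shY_ny]; exact hf.ny s hs
      · intro s hs
        rw [shY_ny]
        have e1 : |f.ny s| ≤ |f.g| + 2 * (|f.d| * R) := by
          unfold Cf.ny
          calc |f.g - 2 * f.d * s| ≤ |f.g| + |2 * f.d * s| := abs_sub _ _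
            _ = |f.g| + 2 * (|f.d| * |s|) := by rw [abs_mul, abs_mul, abs_two]; ring
            _ ≤ |f.g| + 2 * (|f.d| * R) := by gcongr
        have e2 : |f.d| * R ≤ S * κ * R := by gcongr
        have e3 : 0 < κ * (3 * S) * R := by positivity
        calc |f.ny s| ≤ κ * (3 * S) * R := by nlinarith
          _ ≤ M * (κ * (3 * S) * R) := by nlinarith
      · rw [shY_ld, lat_trs, two_trs, sub_add_cancel]; exact hf.ld
      · rw [shY_ev, lat_trs, two_trs, sub_add_cancel]; exact hf.ev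
    · intro j C' Y t hY hj1 hj2
      obtain ⟨a1, a2, a3, a4, a5⟩ := hY
      obtain ⟨c1, c2⟩ := hcell j t hj1 hj2
      rw [lat_tr] at a2
      rw [nrm_tr] at a3
      rw [ev_trY] at a4
      rw [ld_trY] at a5
      have eg : |f.g * (t - (j : ℝ) / κ)| ≤ S * R := by
        rw [abs_mul, abs_of_nonneg c1]
        calc |f.g| * (t - (j : ℝ) / κ) ≤ (S * (κ * R)) * κ⁻¹ := by gcongr
          _ = S * R := by field_simp
      have ed : |2 * f.d * (t - (j : ℝ) / κ)| ≤ 2 * S := by
        rw [abs_mul, abs_mul, abs_two, abs_of_nonneg c1]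
        calc 2 * |f.d| * (t - (j : ℝ) / κ) ≤ 2 * (S * κ) * κ⁻¹ := by gcongr
          _ = 2 * S := by field_simp
      refine ⟨by linarith, ?_, ?_, ?_, ?_⟩
      · rw [lat_trs]
        have : 0 < s2 * R := by positivity
        linarith
      · rw [nrm_trs, hTT]
        have e5 := abs_le.1 a3
        rw [abs_le]
        constructor <;> linarith [e5.1, e5.2]
      · rw [shY_ev]
        have e6 : f.ev (lat Y) (Y 2 + (j : ℝ) / κ) 0 =
            f.ev (lat Y) (Y 2) 0 + f.g * t - f.g * (t - (j : ℝ) / κ) := by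
          unfold Cf.ev; ring
        rw [e6]
        have e7 := abs_le.1 a4
        have e8 := abs_le.1 eg
        have e9 : s1 * R ≤ S * R := by gcongr
        have : 0 < S * R := by positivity
        rw [abs_le]
        constructor <;> linarith [e7.1, e7.2, e8.1, e8.2]
      · rw [shY_ld]
        have e6 : f.ld C' (lat Y) (Y 2 + (j : ℝ) / κ) 0 =
            f.ld C' (lat Y) (Y 2) 0 + -(2 * f.d) * t + 2 * f.d * (t - (j : ℝ) / κ) := by
          unfold Cf.ld; ring
        rw [e6]
        have e7 := abs_le.1 a5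
        have e8 := abs_le.1 ed
        rw [abs_le]
        constructor <;> linarith [e7.1, e7.2, e8.1, e8.2]
  · -- flat
    have hu : ‖(EuclideanSpace.single 0 1 : E2)‖ = 1 := by simp
    refine ⟨s2, 2 * s1 / (S * κ), fun _ => flat (EuclideanSpace.single 0 1) (lat X0) c, h12, le_rfl,
      by positivity, ?_, ?_, ?_, hov⟩
    · rw [hTT]
      have e1 : κ * (2 * s1 / (S * κ)) * (s2 * s2 ^ 2) = 2 * s1 * s2 ^ 2 * s2 / S := by
        field_simp
      rw [e1, div_le_iff₀ hS0]
      have h3 : 0 < 2 * s1 * s2 ^ 2 := by positivity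
      calc 2 * s1 * s2 ^ 2 * s2 ≤ 2 * s1 * s2 ^ 2 * (3 * S) := by gcongr
        _ ≤ 48 * (s1 * s2 ^ 2) * S := by nlinarith [mul_pos h3 hS0]
    · intro j
      constructor
      · rw [flat_disc, hu, one_pow]
      · intro s _
        rw [flat_ny, abs_zero, hTT]; positivity
      · intro s _
        rw [flat_ny, abs_zero]; positivity
      · rw [flat_ld, sub_self, inner_zero_right, abs_zero]; positivity
      · rw [flat_ev, zero_mul, add_zero, lat_trs, sub_self, inner_zero_right, abs_zero]; positivity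
    · intro j C' Y t hY hj1 hj2
      obtain ⟨a1, a2, a3, a4, a5⟩ := hY
      obtain ⟨c1, c2⟩ := hcell j t hj1 hj2
      rw [lat_tr] at a2
      rw [nrm_tr] at a3
      have : 0 < s2 * R := by positivity
      refine ⟨by linarith, ?_, ?_, ?_, ?_⟩
      · rw [lat_trs]
        linarith
      · rw [nrm_trs, hTT]
        have e5 := abs_le.1 a3
        rw [abs_le]
        constructor <;> linarith [e5.1, e5.2]
      · rw [flat_ev, zero_mul, add_zero]
        calc |inner ℝ (EuclideanSpace.single 0 1 : E2) (lat Y - lat X0)| ≤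
              ‖(EuclideanSpace.single 0 1 : E2)‖ * ‖lat Y - lat X0‖ := abs_real_inner_le_norm _ _
          _ ≤ 1 * (s2 * R) := by rw [hu]; gcongr
          _ ≤ 2 * s2 * R := by linarith
      · rw [flat_ld]
        calc |inner ℝ (EuclideanSpace.single 0 1 : E2) (c - C')| ≤
              ‖(EuclideanSpace.single 0 1 : E2)‖ * ‖c - C'‖ := abs_real_inner_le_norm _ _
          _ ≤ 1 * s2 := by rw [hu, norm_sub_rev]; gcongr
          _ ≤ 2 * s2 := by linarith

end Crest.Agent.R116.Cnv894
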