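import Crest.Agent.R116.Cnv4_894

/-!
# R116 (S0155), leaf CNV of WDefC_188 (v2), part 5 (helper894): `cnv : Cov2 M q → CNV M q`.
-/

set_option autoImplicit false

open MeasureTheory FourierTransform
open scoped ContDiff ENNReal

namespace Crest.Agent.R116.Cnv894

open Crest.Agent.R138.Defs (E2 ee)
open Crest.Agent.R138.Wpk685 (cen caps cap win)
open Crest.Agent.R116.CDef480
open Crest.Agent.R116.WC188
open Crest.Agent.R116.LZg725 (Cf)

/-- the only covering fact which is used: the box bound for members gives the box bound for the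
`2`-dilated phase boxes. -/
def Cov2 (M q : ℝ) : Prop := ∃ C : ℝ, 1 ≤ C ∧ ∀ κ r : ℝ, 0 < κ → κ ≤ 1 → 1 ≤ r → 1 ≤ κ * r →
  ∀ (g : E3 → ℂ) (D : ℝ), 0 ≤ D → PBx M κ q r g D →
    ∀ (c : E2) (X0 : E3) (f : Cf E2) (s1 s2 : ℝ), Sd r s1 s2 →
      Adm M κ s1 s2 (TT κ s2 r) r c X0 f →
      enc (r ^ (-(1/2) : ℝ)) g (pbx κ 2 r s1 s2 c X0 f) ≤
        ENNReal.ofReal (C * D * s2 ^ q * scost κ s1 s2 r)

theorem supp_bdd {g : E3 → ℂ} {a b : ℝ} (ha : 1 ≤ a)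
    (h : ∀ ζ, g ζ ≠ 0 → a⁻¹ ≤ ζ 2 ∧ ζ 2 ≤ a ∧ ‖slp ζ‖ ≤ b) :
    ∃ r : ℝ, ∀ ζ, g ζ ≠ 0 → ‖ζ‖ ≤ r := by
  refine ⟨|a * b| + a, fun ζ hζ => ?_⟩
  obtain ⟨h1, h2, h3⟩ := h ζ hζ
  have h0 : 0 < ζ 2 := lt_of_lt_of_le (by positivity) h1
  have hb : 0 ≤ b := (norm_nonneg _).trans h3
  have h4 : ‖lat ζ‖ ≤ a * b := by
    rw [lat_slp h0.ne', norm_smul, Real.norm_eq_abs, abs_of_pos h0]
    gcongr
  have h5 := normsq3 ζ
  have h6 : 0 ≤ a * b := by positivity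
  rw [abs_of_nonneg h6]
  have h7 := norm_nonneg (lat ζ)
  have h8 : ‖ζ‖ ^ 2 ≤ (a * b + a) ^ 2 := by nlinarith
  exact le_of_sq_le_sq h8 (by positivity)

theorem St_gd {M κ q a b M0 : ℝ} {C0 : E2} {σ : ℝ} {g : E3 → ℂ} {R D : ℝ} (ha : 1 ≤ a)
    (h : St M κ q a b M0 C0 σ g R D) : Gd g :=
  ⟨h.meas, h.bdd, supp_bdd ha fun ζ hζ => ⟨(h.supp ζ hζ).1, (h.supp ζ hζ).2.1,
    (h.supp ζ hζ).2.2.1⟩⟩

/-- **CNV**. -/
theorem cnv_of {M q : ℝ} (hM : 1 ≤ M) (hcov : Cov2 M q) : CNV M q := by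
  intro a b M0 ha hb hb2
  obtain ⟨C2, hC2, hcov⟩ := hcov
  obtain ⟨A, hA, hcells⟩ := enc_cells
  refine ⟨A * (48 * C2) + 1, 1, ?_, le_rfl, ?_⟩
  · have : 0 ≤ A * (48 * C2) := by positivity
    linarith
  intro κ η0 C0 σ g R D hκ haκ hR hRκ hst hs
  have hκ1 : κ ≤ 1 := by nlinarith
  have hR0 : 0 < R := by linarith
  have hκR : 1 ≤ κ * R := by
    calc (1:ℝ) ≤ R ^ (3/4 : ℝ) := Real.one_le_rpow hR (by norm_num)
      _ = R ^ (-(1/4) : ℝ) * R := by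
          nth_rewrite 3 [← Real.rpow_one R]
          rw [← Real.rpow_add hR0]
          norm_num
      _ ≤ κ * R := by gcongr
  have hC0 : 0 ≤ A * (48 * C2) := by positivity
  have hD := hst.D0
  refine ⟨hst.meas, hst.bdd, hst.supp, hst.R1, by positivity, ?_, ?_⟩
  · intro c X0 f s1 s2 hSd hAdm
    have hlo : 0 < R ^ (-(1/2) : ℝ) := Real.rpow_pos_of_pos hR0 _
    have h1 : 0 < s1 := hlo.trans_le hSd.lo
    have h2 : 0 < s2 := h1.trans_le hSd.le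
    have hs2 : R⁻¹ ≤ s2 ^ 2 := by
      calc R⁻¹ = (R ^ (-(1/2) : ℝ)) ^ 2 := by
            rw [← Real.rpow_natCast, ← Real.rpow_mul hR0.le, ← Real.rpow_neg_one]
            norm_num
        _ ≤ s2 ^ 2 := by
            gcongr
            exact hSd.lo.trans hSd.le
    have hTT1 : TT 1 s2 R = s2 ^ 2 := by
      unfold TT
      rw [one_mul]
      exact max_eq_left hs2
    rw [hTT1] at hAdm
    have hcont : Cont M κ R s1 s2 c X0 f := by
      rcases lt_or_ge (s2 ^ 2) (κ * R)⁻¹ with h | h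
      · exact cont_thin hM hκ hR h1 hSd.le h c X0 f hAdm.disc
      · exact cont_thick hM hκ hR h1 hSd.le h c X0 f 1 hAdm
    obtain ⟨s1', ov, F, hs1', hs2', hov, hprice, hadm, hin, hvol⟩ := hcont
    have hs1'0 : 0 < s1' := h1.trans_le hs1'
    have hSd' : Sd R s1' s2 := ⟨hSd.lo.trans hs1', hs2', hSd.hi⟩
    have hTT0 : 0 < TT κ s2 R := lt_of_lt_of_le (by positivity) (le_max_left _ _)
    have hpbx : pbx 1 1 R s1 s2 c X0 f =
        fun m => mset s2 (s2 ^ 2) R s1 c X0 f (cen (R ^ (-(1/2) : ℝ)) m) := by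
      funext m
      unfold pbx
      rw [hTT1, one_mul, one_mul, one_mul]
    rw [hpbx]
    have hE0 : 0 ≤ C2 * D * s2 ^ q * scost κ s1' s2 R := by
      unfold scost
      positivity
    have key := hcells (R ^ (-(1/2) : ℝ)) g (St_gd ha hst) η0 κ hκ hs
      (fun m => mset s2 (s2 ^ 2) R s1 c X0 f (cen (R ^ (-(1/2) : ℝ)) m))
      (fun m => measurableSet_mset _ _ _ _ _ _ _ _)
      (fun j m => pbx κ 2 R s1' s2 c (X0 - ((j : ℝ) / κ) • eY) (F j) m)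
      (fun j m => measurableSet_mset _ _ _ _ _ _ _ _) ov
      (C2 * D * s2 ^ q * scost κ s1' s2 R) hov hE0
      (fun j m Y t hY hj1 hj2 => hin j _ Y t hY hj1 hj2)
      (fun j m Y => hvol j _ Y)
      (fun j => hcov κ R hκ hκ1 hR hκR g D hD hst.box c _ (F j) s1' s2 hSd' (hadm j))
    refine key.trans (ENNReal.ofReal_le_ofReal ?_)
    have hq : 0 < s2 ^ q := Real.rpow_pos_of_pos h2 _
    have e1 : A * (κ * ov * (C2 * D * s2 ^ q * scost κ s1' s2 R)) =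
        A * C2 * D * s2 ^ q * s2 * R ^ 3 * (κ * ov * (s1' * TT κ s2 R)) := by
      unfold scost; ring
    rw [e1]
    calc A * C2 * D * s2 ^ q * s2 * R ^ 3 * (κ * ov * (s1' * TT κ s2 R))
        ≤ A * C2 * D * s2 ^ q * s2 * R ^ 3 * (48 * (s1 * s2 ^ 2)) := by gcongr
      _ = A * (48 * C2) * (D * s2 ^ q * (s1 * s2 * s2 ^ 2 * R ^ 3)) := by ring
      _ ≤ (A * (48 * C2) + 1) * (D * s2 ^ q * (s1 * s2 * s2 ^ 2 * R ^ 3)) := by
          apply mul_le_mul_of_nonneg_right (by linarith)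
          positivity
      _ = (A * (48 * C2) + 1) * D * s2 ^ q * scost 1 s1 s2 R := by
          unfold scost
          rw [hTT1]
          ring
  · refine hst.nd.trans ?_
    have : 0 ≤ R ^ M0 * D := by positivity
    nlinarith

end Crest.Agent.R116.Cnv894
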