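import Crest.Agent.R116.Cnv5_894
import Crest.Agent.R116.Cov2_369

/-!
# R116 (S0155), wave side: CNV (helper894), closing file

`cov2 : Cov2 M q` (369's `Cov369.cov2`) and `cnv : CNV M q` for `1 ≤ M`, `0 ≤ q`.
-/

set_option autoImplicit false

namespace Crest.Agent.R116.Cnv894

theorem cov2_holds {M q : ℝ} (hM : 1 ≤ M) (hq : 0 ≤ q) : Cov2 M q := Cov369.cov2 hM hq

/-- **CNV** for every `M ≥ 1`, `q ≥ 0`. -/
theorem cnv {M q : ℝ} (hM : 1 ≤ M) (hq : 0 ≤ q) : Crest.Agent.R116.WC188.CNV M q :=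
  cnv_of hM (cov2_holds hM hq)

end Crest.Agent.R116.Cnv894
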