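import Crest.Agent.R116.WDefC_188

/-!
# R116 (S0155), wave side, COV (helper369)

The constant `M` of the class and the dilation `A` of a member are irrelevant: a dilated member
`pbx κ A r s1 s2 c X0 f` (normalised, `|ny| ≤ M s2/T`, compatible `|ny| ≤ M κ s1 r`) is covered by
`≤ N(A,M)` members with constant `1` and dilation `1`, whose sides satisfy `s2' ≤ s2`,
`scost' ≤ A M scost`.
-/

set_option autoImplicit false

open MeasureTheory
open scoped ENNReal

namespace Crest.Agent.R116.Cov369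

open Crest.Agent.R138.Defs (E2 ee)
open Crest.Agent.R138.Wpk685 (cen caps)
open Crest.Agent.R116.CDef480
open Crest.Agent.R116.LZg725 (Cf)
open Crest.Agent.R116.WC188 (TT mset scost Sd pbx)

/-! ### elementary facts -/

theorem abs_le_norm (v : E2) (i : Fin 2) : |v i| ≤ ‖v‖ := by
  have := PiLp.norm_apply_le v i
  rwa [Real.norm_eq_abs] at this

theorem norm_le_add (v : E2) : ‖v‖ ≤ |v 0| + |v 1| := by
  rw [EuclideanSpace.norm_eq, Fin.sum_univ_two, Real.norm_eq_abs, Real.norm_eq_abs]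
  refine Real.sqrt_le_iff.2 ⟨by positivity, ?_⟩
  nlinarith [abs_nonneg (v 0), abs_nonneg (v 1)]

theorem norm_sub_le_of (v w : E2) {h : ℝ} (h0 : |v 0 - w 0| ≤ h) (h1 : |v 1 - w 1| ≤ h) :
    ‖v - w‖ ≤ 2 * h := by
  refine (norm_le_add _).trans ?_
  simp only [PiLp.sub_apply]
  linarith

theorem floor_close {a b h : ℝ} (hh : 0 < h) (e : ⌊a / h⌋ = ⌊b / h⌋) : |a - b| ≤ h := by
  have h1 := Int.abs_sub_lt_one_of_floor_eq_floor e
  have e1 : a / h - b / h = (a - b) / h := by ring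
  rw [e1, abs_div, abs_of_pos hh, div_lt_one hh] at h1
  exact h1.le

theorem floor_mem {a h : ℝ} {n : ℕ} (hh : 0 < h) (e : |a| ≤ n * h) :
    ⌊a / h⌋ ∈ Finset.Icc (-(n : ℤ)) n := by
  rw [abs_le] at e
  rw [Finset.mem_Icc]
  constructor
  · rw [Int.le_floor]
    push_cast
    rw [le_div_iff₀ hh]
    linarith
  · have h1 : a / h ≤ n := by
      rw [div_le_iff₀ hh]; exact e.2
    have h2 := (Int.floor_le (a / h)).trans h1
    exact_mod_cast h2

/-- flat conformal function `⟨e, x - x0 + s C0⟩`. -/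
noncomputable def flat (e : E2) (C0 : E2) (X0 : E3) : Cf E2 :=
  ⟨-inner ℝ e (lat X0), inner ℝ e C0, e, 0, 0⟩

theorem flat_ev (e C0 : E2) (X0 : E3) (x : E2) (y s : ℝ) :
    (flat e C0 X0).ev x y s = inner ℝ e (x - lat X0 + s • C0) := by
  unfold flat Cf.ev
  simp only []
  rw [inner_add_right, inner_sub_right, real_inner_smul_right]
  ring

theorem flat_ny (e C0 : E2) (X0 : E3) (s : ℝ) : (flat e C0 X0).ny s = 0 := by
  unfold flat Cf.ny; simp

theorem flat_ld (e C0 : E2) (X0 : E3) (C x : E2) (y s : ℝ) :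
    (flat e C0 X0).ld C x y s = inner ℝ e (C0 - C) := by
  unfold Cf.ld
  rw [flat_ny]
  unfold flat
  simp only []
  rw [mul_zero, zero_smul, add_zero, inner_sub_right]
  ring

theorem flat_disc (e C0 : E2) (X0 : E3) : (flat e C0 X0).disc = ‖e‖ ^ 2 := by
  unfold flat Cf.disc; simp

/-- a unit vector. -/
noncomputable def e0 : E2 := EuclideanSpace.single 0 1

theorem norm_e0 : ‖e0‖ = 1 := by
  unfold e0; simp

theorem TT_pos {κ sg r : ℝ} (hκ : 0 < κ) (hr : 0 < r) : 0 < TT κ sg r :=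
  lt_of_lt_of_le (inv_pos.2 (mul_pos hκ hr)) (le_max_right _ _)

theorem TT_mono {κ sg sg' r : ℝ} (h0 : 0 ≤ sg) (h : sg ≤ sg') : TT κ sg r ≤ TT κ sg' r :=
  max_le_max (pow_le_pow_left₀ h0 h 2) le_rfl

theorem TT_le_mul {κ sg sg' r L : ℝ} (hκ : 0 < κ) (hr : 0 < r) (h0 : 0 ≤ sg)
    (hL : 1 ≤ L) (h : sg ≤ L * sg') : TT κ sg r ≤ L ^ 2 * TT κ sg' r := by
  have hL2 : (1:ℝ) ≤ L ^ 2 := one_le_pow₀ hL
  refine max_le ?_ ?_
  · calc sg ^ 2 ≤ (L * sg') ^ 2 := pow_le_pow_left₀ h0 h 2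
      _ = L ^ 2 * sg' ^ 2 := by ring
      _ ≤ L ^ 2 * TT κ sg' r := mul_le_mul_of_nonneg_left (le_max_left _ _) (by positivity)
  · calc (κ * r)⁻¹ = 1 * (κ * r)⁻¹ := (one_mul _).symm
      _ ≤ L ^ 2 * TT κ sg' r := mul_le_mul hL2 (le_max_right _ _)
          (inv_nonneg.2 (mul_pos hκ hr).le) (by positivity)

/-- member data. -/
structure Mb where
  c : E2
  X0 : E3
  f : Cf E2
  s1 : ℝ
  s2 : ℝ

/-- constant one, compatible. -/
structure Good (κ r : ℝ) (b : Mb) : Prop where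
  sd : Sd r b.s1 b.s2
  disc : b.f.disc = 1
  ny : ∀ s, |s| ≤ r → |b.f.ny s| ≤ b.s2 / TT κ b.s2 r
  cmp : ∀ s, |s| ≤ r → |b.f.ny s| ≤ κ * b.s1 * r
  ld : |b.f.ld b.c (lat b.X0) (b.X0 2) 0| ≤ b.s2
  ev : |b.f.ev (lat b.X0) (b.X0 2) 0| ≤ b.s2 * r

/-- the flat member. -/
noncomputable def fm (c : E2) (X0 : E3) (sg : ℝ) : Mb := ⟨c, X0, flat e0 c X0, sg, sg⟩

theorem good_fm {κ r : ℝ} (hκ : 0 < κ) (hr : 1 ≤ r) (c : E2) (X0 : E3) {sg : ℝ}
    (h1 : r ^ (-(1/2) : ℝ) ≤ sg) (h2 : sg ≤ 1) : Good κ r (fm c X0 sg) := by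
  have hr0 : 0 < r := lt_of_lt_of_le one_pos hr
  have hsg : 0 < sg := lt_of_lt_of_le (Real.rpow_pos_of_pos hr0 _) h1
  have hT := TT_pos (sg := sg) hκ hr0
  refine ⟨⟨h1, le_rfl, h2⟩, ?_, fun s _ => ?_, fun s _ => ?_, ?_, ?_⟩
  · change (flat e0 c X0).disc = 1
    rw [flat_disc, norm_e0, one_pow]
  · change |(flat e0 c X0).ny s| ≤ sg / TT κ sg r
    rw [flat_ny, abs_zero]; positivity
  · change |(flat e0 c X0).ny s| ≤ κ * sg * r
    rw [flat_ny, abs_zero]; positivity
  · change |(flat e0 c X0).ld c (lat X0) (X0 2) 0| ≤ sg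
    rw [flat_ld, sub_self, inner_zero_right, abs_zero]; exact hsg.le
  · change |(flat e0 c X0).ev (lat X0) (X0 2) 0| ≤ sg * r
    rw [flat_ev, zero_smul, sub_self, add_zero, inner_zero_right, abs_zero]; positivity

/-- the phase set of a member (constant slope `C`). -/
def ms (κ r : ℝ) (b : Mb) (C : E2) : Set E3 := mset b.s2 (TT κ b.s2 r) r b.s1 b.c b.X0 b.f C

theorem mem_fm {κ r : ℝ} {c : E2} {X0 : E3} {sg : ℝ} {C : E2} {X : E3}
    (h1 : ‖C - c‖ ≤ sg) (h2 : ‖lat X - lat X0‖ ≤ sg * r)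
    (h3 : |nrm c X 0 - nrm c X0 0| ≤ TT κ sg r * r) : X ∈ ms κ r (fm c X0 sg) C := by
  refine ⟨h1, h2, h3, ?_, ?_⟩
  · change |(flat e0 c X0).ev (lat X) (X 2) 0| ≤ sg * r
    rw [flat_ev, zero_smul, add_zero]
    refine (abs_real_inner_le_norm _ _).trans ?_
    rw [norm_e0, one_mul]; exact h2
  · change |(flat e0 c X0).ld C (lat X) (X 2) 0| ≤ sg
    rw [flat_ld]
    refine (abs_real_inner_le_norm _ _).trans ?_
    rw [norm_e0, one_mul, norm_sub_rev]; exact h1

/-- the index set of the cells. -/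
noncomputable def cells (n : ℕ) : Finset (ℤ × ℤ × ℤ × ℤ × ℤ) :=
  Finset.Icc (-(n : ℤ)) n ×ˢ Finset.Icc (-(n : ℤ)) n ×ˢ Finset.Icc (-(n : ℤ)) n ×ˢ
    Finset.Icc (-(n : ℤ)) n ×ˢ Finset.Icc (-(n : ℤ)) n

theorem card_cells (n : ℕ) : (cells n).card = (2 * n + 1) ^ 5 := by
  unfold cells
  simp only [Finset.card_product, Int.card_Icc]
  have e : ((n : ℤ) + 1 - -(n : ℤ)).toNat = 2 * n + 1 := by omega
  rw [e]; ring

/-- number of cells per direction. -/
noncomputable def nn (A M : ℝ) : ℕ := ⌈4 * A ^ 2 * (A * M) ^ 2⌉₊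

set_option maxHeartbeats 1000000 in
/-- **COV** (all slopes). -/
theorem cov {κ r A M : ℝ} (hκ : 0 < κ) (hκ1 : κ ≤ 1) (hr : 1 ≤ r) (hA : 1 ≤ A) (hM : 1 ≤ M)
    {s1 s2 : ℝ} (hS : Sd r s1 s2) {c : E2} {X0 : E3} {f : Cf E2} (hdisc : f.disc = 1)
    (hny : ∀ s : ℝ, |s| ≤ r → |f.ny s| ≤ M * s2 / TT κ s2 r)
    (hcmp : ∀ s : ℝ, |s| ≤ r → |f.ny s| ≤ M * (κ * s1 * r)) :
    ∃ F : ℤ × ℤ × ℤ × ℤ × ℤ → Mb, (∀ j, Good κ r (F j) ∧ (F j).s2 ≤ s2 ∧
      (F j).s1 ≤ A * M * s1 ∧ s2 ≤ A * M * (F j).s2 ∧ s1 ≤ A * M * (F j).s1 ∧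
      scost κ (F j).s1 (F j).s2 r ≤ A * M * scost κ s1 s2 r) ∧
      ∀ C, mset (A * s2) (A * TT κ s2 r) r (A * s1) c X0 f C ⊆
        ⋃ j ∈ cells (nn A M), ms κ r (F j) C := by
  classical
  have hr0 : 0 < r := lt_of_lt_of_le one_pos hr
  have hA0 : 0 < A := lt_of_lt_of_le one_pos hA
  have hM0 : 0 < M := lt_of_lt_of_le one_pos hM
  set L := A * M with hL
  have hAL : A ≤ L := le_mul_of_one_le_right hA0.le hM
  have hML : M ≤ L := le_mul_of_one_le_left hM0.le hA
  have hL1 : 1 ≤ L := hA.trans hAL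
  have hL0 : 0 < L := lt_of_lt_of_le one_pos hL1
  set an := r ^ (-(1/2) : ℝ) with han
  have han0 : 0 < an := Real.rpow_pos_of_pos hr0 _
  have hlo : an ≤ s1 := hS.lo
  have hs1 : 0 < s1 := han0.trans_le hlo
  have hs2 : 0 < s2 := hs1.trans_le hS.le
  have han2 : an ^ 2 = r⁻¹ := by
    rw [han, ← Real.rpow_natCast, ← Real.rpow_mul hr0.le]
    norm_num
    exact Real.rpow_neg_one r
  -- the new aperture
  set sg := max (s2 / L) an with hsg
  have hsg_an : an ≤ sg := le_max_right _ _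
  have hsg0 : 0 < sg := han0.trans_le hsg_an
  have hsg_s2 : sg ≤ s2 := max_le (div_le_self hs2.le hL1) (hlo.trans hS.le)
  have hs2_sg : s2 ≤ L * sg := by
    have := le_max_left (s2 / L) an
    rw [div_le_iff₀ hL0] at this
    linarith
  have hsg1 : sg ≤ 1 := hsg_s2.trans hS.hi
  have hT' : 0 < TT κ sg r := TT_pos hκ hr0
  have hT : 0 < TT κ s2 r := TT_pos hκ hr0
  have hTT : TT κ sg r ≤ TT κ s2 r := TT_mono hsg0.le hsg_s2
  have hTL : TT κ s2 r ≤ L ^ 2 * TT κ sg r := TT_le_mul hκ hr0 hs2.le hL1 hs2_sg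
  have hsgT : sg ^ 2 ≤ TT κ sg r := le_max_left _ _
  -- steps
  set h1 := sg / 2 with hh1
  set h2 := sg * r / (4 * A * L) with hh2
  set h3 := TT κ sg r * r / 2 with hh3
  have p1 : 0 < h1 := by positivity
  have p2 : 0 < h2 := by positivity
  have p3 : 0 < h3 := by positivity
  set key : E2 × E3 → ℤ × ℤ × ℤ × ℤ × ℤ := fun q =>
    (⌊(q.1 0 - c 0) / h1⌋, ⌊(q.1 1 - c 1) / h1⌋, ⌊(lat q.2 0 - lat X0 0) / h2⌋,
      ⌊(lat q.2 1 - lat X0 1) / h2⌋, ⌊(nrm c q.2 0 - nrm c X0 0) / h3⌋) with hkey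
  set W : ℤ × ℤ × ℤ × ℤ × ℤ → E2 × E3 → Prop := fun j q =>
    q.2 ∈ mset (A * s2) (A * TT κ s2 r) r (A * s1) c X0 f q.1 ∧ key q = j with hW
  -- slab or flat
  set mk : E2 × E3 → Mb := fun q =>
    if L * s1 ≤ sg then ⟨q.1, q.2, f, L * s1, sg⟩ else fm q.1 q.2 sg with hmk
  have hs1L : s1 ≤ L * s1 := le_mul_of_one_le_left hs1.le hL1
  have hs1s2 : s1 ≤ L * sg := hS.le.trans hs2_sg
  -- good members
  have good_mk : ∀ q : E2 × E3, q.2 ∈ mset (A * s2) (A * TT κ s2 r) r (A * s1) c X0 f q.1 →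
      Good κ r (mk q) := by
    intro q hq
    obtain ⟨-, -, -, hq4, hq5⟩ := hq
    simp only [hmk]
    split_ifs with hc
    · have hev : A * s1 ≤ L * s1 := mul_le_mul_of_nonneg_right hAL hs1.le
      refine ⟨⟨hlo.trans hs1L, hc, hsg1⟩, hdisc, fun s hs => ?_, fun s hs => ?_, ?_, ?_⟩
      · change |f.ny s| ≤ sg / TT κ sg r
        rcases le_total (sg ^ 2) ((κ * r)⁻¹) with hcase | hcase
        · have e : TT κ sg r = (κ * r)⁻¹ := max_eq_right hcase
          rw [e, div_inv_eq_mul]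
          calc |f.ny s| ≤ M * (κ * s1 * r) := hcmp s hs
            _ ≤ L * (κ * s1 * r) := mul_le_mul_of_nonneg_right hML (by positivity)
            _ = (L * s1) * (κ * r) := by ring
            _ ≤ sg * (κ * r) := mul_le_mul_of_nonneg_right hc (by positivity)
        · have e : TT κ sg r = sg ^ 2 := max_eq_left hcase
          rcases eq_or_lt_of_le hsg_an with he | hlt
          · -- sg = an: then sg² ≤ 1/(κ r) ≤ sg²
            have e2 : sg ^ 2 ≤ (κ * r)⁻¹ := by
              rw [← he, han2]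
              exact inv_anti₀ (mul_pos hκ hr0) (by nlinarith)
            have e3 : TT κ sg r = (κ * r)⁻¹ := max_eq_right e2
            rw [e3, div_inv_eq_mul]
            calc |f.ny s| ≤ M * (κ * s1 * r) := hcmp s hs
              _ ≤ L * (κ * s1 * r) := mul_le_mul_of_nonneg_right hML (by positivity)
              _ = (L * s1) * (κ * r) := by ring
              _ ≤ sg * (κ * r) := mul_le_mul_of_nonneg_right hc (by positivity)
          · have e4 : sg = s2 / L := by
              rcases max_cases (s2 / L) an with h | h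
              · rw [hsg]; exact h.1
              · rw [hsg, h.1] at hlt; exact absurd hlt (lt_irrefl _)
            rw [e]
            have e5 : M * s2 / TT κ s2 r ≤ M * s2 / s2 ^ 2 :=
              div_le_div_of_nonneg_left (by positivity) (by positivity) (le_max_left _ _)
            have e6 : M * s2 / s2 ^ 2 = M / s2 := by field_simp
            have e7 : sg / sg ^ 2 = L / s2 := by rw [e4]; field_simp
            rw [e7]
            exact ((hny s hs).trans (e5.trans_eq e6)).trans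
              (div_le_div_of_nonneg_right hML hs2.le)
      · change |f.ny s| ≤ κ * (L * s1) * r
        calc |f.ny s| ≤ M * (κ * s1 * r) := hcmp s hs
          _ ≤ L * (κ * s1 * r) := mul_le_mul_of_nonneg_right hML (by positivity)
          _ = κ * (L * s1) * r := by ring
      · exact hq5.trans (hev.trans hc)
      · change |f.ev (lat q.2) (q.2 2) 0| ≤ sg * r
        exact hq4.trans (mul_le_mul_of_nonneg_right (hev.trans hc) hr0.le)
    · exact good_fm hκ hr _ _ hsg_an hsg1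
  have side_mk : ∀ q : E2 × E3, (mk q).s2 = sg ∧ (mk q).s1 = min (L * s1) sg := by
    intro q
    simp only [hmk]
    split_ifs with hc
    · exact ⟨rfl, (min_eq_left hc).symm⟩
    · exact ⟨rfl, (min_eq_right (not_le.1 hc).le).symm⟩
  have cost_le : ∀ t : ℝ, 0 ≤ t → t ≤ L * s1 → scost κ t sg r ≤ L * scost κ s1 s2 r := by
    intro t ht0 ht
    unfold scost
    have a1 : t * sg ≤ (L * s1) * s2 := mul_le_mul ht hsg_s2 hsg0.le (by positivity)
    have a2 : t * sg * TT κ sg r ≤ (L * s1) * s2 * TT κ s2 r :=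
      mul_le_mul a1 hTT hT'.le (by positivity)
    calc t * sg * TT κ sg r * r ^ 3 ≤ (L * s1) * s2 * TT κ s2 r * r ^ 3 :=
          mul_le_mul_of_nonneg_right a2 (by positivity)
      _ = L * (s1 * s2 * TT κ s2 r * r ^ 3) := by ring
  -- empty cells: an auxiliary flat member
  set F' : ℤ × ℤ × ℤ × ℤ × ℤ → Mb := fun j =>
    if h : ∃ q, W j q then mk h.choose
      else ⟨c, X0, flat e0 c X0, min (L * s1) sg, sg⟩ with hF'
  have good_aux : Good κ r ⟨c, X0, flat e0 c X0, min (L * s1) sg, sg⟩ := by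
    have hg := good_fm hκ hr c X0 hsg_an hsg1
    have hmin : 0 < min (L * s1) sg := lt_min (by positivity) hsg0
    refine ⟨⟨le_min (hlo.trans hs1L) hsg_an, min_le_right _ _, hsg1⟩, hg.disc, hg.ny,
      fun s _ => ?_, hg.ld, hg.ev⟩
    change |(flat e0 c X0).ny s| ≤ κ * min (L * s1) sg * r
    rw [flat_ny, abs_zero]; positivity
  refine ⟨F', fun j => ?_, fun C X hX => ?_⟩
  · have key2 : Good κ r (F' j) ∧ (F' j).s2 = sg ∧ (F' j).s1 = min (L * s1) sg := by
      simp only [hF']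
      split_ifs with h
      · exact ⟨good_mk _ h.choose_spec.1, (side_mk _).1, (side_mk _).2⟩
      · exact ⟨good_aux, rfl, rfl⟩
    obtain ⟨g1, g2, g3⟩ := key2
    refine ⟨g1, g2.trans_le hsg_s2, ?_, ?_, ?_, ?_⟩
    · rw [g3]; exact min_le_left _ _
    · rw [g2]; exact hs2_sg
    · rw [g3, mul_min_of_nonneg _ _ hL0.le]
      refine le_min ?_ hs1s2
      calc s1 = 1 * (1 * s1) := by ring
        _ ≤ L * (L * s1) := mul_le_mul hL1 (mul_le_mul_of_nonneg_right hL1 hs1.le)
            (by positivity) hL0.le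
    · rw [g2, g3]
      exact cost_le _ (le_min (by positivity) hsg0.le) (min_le_left _ _)
  · have hX' := hX
    obtain ⟨x1, x2, x3, x4, x5⟩ := hX
    -- the cell
    have hn : 4 * A ^ 2 * L ^ 2 ≤ (nn A M : ℝ) := Nat.le_ceil _
    have hn1 : A * s2 ≤ (nn A M : ℝ) * h1 := by
      calc A * s2 ≤ A * (L * sg) := mul_le_mul_of_nonneg_left hs2_sg hA0.le
        _ = (2 * A * L) * h1 := by rw [hh1]; ring
        _ ≤ (4 * A ^ 2 * L ^ 2) * h1 := by
            refine mul_le_mul_of_nonneg_right ?_ p1.le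
            have : 1 ≤ A * L := one_le_mul_of_one_le_of_one_le hA hL1
            nlinarith
        _ ≤ _ := mul_le_mul_of_nonneg_right hn p1.le
    have hn2 : A * s2 * r ≤ (nn A M : ℝ) * h2 := by
      calc A * s2 * r ≤ A * (L * sg) * r := by
            refine mul_le_mul_of_nonneg_right ?_ hr0.le
            exact mul_le_mul_of_nonneg_left hs2_sg hA0.le
        _ = (4 * A ^ 2 * L ^ 2) * h2 := by rw [hh2]; field_simp
        _ ≤ _ := mul_le_mul_of_nonneg_right hn p2.le
    have hn3 : A * TT κ s2 r * r ≤ (nn A M : ℝ) * h3 := by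
      calc A * TT κ s2 r * r ≤ A * (L ^ 2 * TT κ sg r) * r := by
            refine mul_le_mul_of_nonneg_right ?_ hr0.le
            exact mul_le_mul_of_nonneg_left hTL hA0.le
        _ = (2 * A * L ^ 2) * h3 := by rw [hh3]; ring
        _ ≤ (4 * A ^ 2 * L ^ 2) * h3 := by
            refine mul_le_mul_of_nonneg_right ?_ p3.le
            refine mul_le_mul_of_nonneg_right ?_ (sq_nonneg L)
            nlinarith
        _ ≤ _ := mul_le_mul_of_nonneg_right hn p3.le
    have hmem : key (C, X) ∈ cells (nn A M) := by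
      simp only [hkey, cells, Finset.mem_product]
      refine ⟨floor_mem p1 ?_, floor_mem p1 ?_, floor_mem p2 ?_, floor_mem p2 ?_,
        floor_mem p3 ?_⟩
      · exact ((abs_le_norm (C - c) 0).trans x1).trans hn1
      · exact ((abs_le_norm (C - c) 1).trans x1).trans hn1
      · exact ((abs_le_norm (lat X - lat X0) 0).trans x2).trans hn2
      · exact ((abs_le_norm (lat X - lat X0) 1).trans x2).trans hn2
      · exact x3.trans hn3
    refine Set.mem_iUnion₂.2 ⟨key (C, X), hmem, ?_⟩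
    have hex : ∃ q, W (key (C, X)) q := ⟨(C, X), hX', rfl⟩
    have hFe : F' (key (C, X)) = mk hex.choose := dif_pos hex
    rw [hFe]
    obtain ⟨hq, hqk⟩ := hex.choose_spec
    set q := hex.choose with hqdef
    simp only [hkey, Prod.mk.injEq] at hqk
    obtain ⟨k1, k2, k3, k4, k5⟩ := hqk
    have c1 : ‖C - q.1‖ ≤ sg := by
      have a := floor_close p1 k1
      have b := floor_close p1 k2
      have := norm_sub_le_of C q.1 (h := h1) (by
        rw [abs_sub_comm]; convert a using 2; ring) (by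
        rw [abs_sub_comm]; convert b using 2; ring)
      rw [hh1] at this
      linarith
    have c2' : ‖lat X - lat q.2‖ ≤ 2 * h2 := by
      have a := floor_close p2 k3
      have b := floor_close p2 k4
      exact norm_sub_le_of (lat X) (lat q.2) (h := h2) (by
        rw [abs_sub_comm]; convert a using 2; ring) (by
        rw [abs_sub_comm]; convert b using 2; ring)
    have e2 : 2 * h2 ≤ sg * r := by
      rw [hh2]
      have : 2 * (sg * r / (4 * A * L)) = sg * r * (1 / (2 * A * L)) := by field_simp; ring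
      rw [this]
      refine mul_le_of_le_one_right (by positivity) ?_
      rw [div_le_one (by positivity)]
      nlinarith
    have c2 : ‖lat X - lat q.2‖ ≤ sg * r := c2'.trans e2
    have c3 : |nrm q.1 X 0 - nrm q.1 q.2 0| ≤ TT κ sg r * r := by
      have a := floor_close p3 k5
      have e3 : nrm q.1 X 0 - nrm q.1 q.2 0 = (nrm c X 0 - nrm c q.2 0) +
          inner ℝ (q.1 - c) (lat X - lat q.2) := by
        unfold nrm
        rw [inner_sub_right, inner_sub_left, inner_sub_left]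
        ring
      have e4 : |nrm c X 0 - nrm c q.2 0| ≤ h3 := by
        rw [abs_sub_comm]; convert a using 2; ring
      have e5 : |inner ℝ (q.1 - c) (lat X - lat q.2)| ≤ TT κ sg r * r / 2 := by
        refine (abs_real_inner_le_norm _ _).trans ?_
        calc ‖q.1 - c‖ * ‖lat X - lat q.2‖ ≤ (A * s2) * (2 * h2) :=
              mul_le_mul hq.1 c2' (norm_nonneg _) (by positivity)
          _ ≤ (A * (L * sg)) * (2 * h2) := by
              refine mul_le_mul_of_nonneg_right ?_ (by positivity)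
              exact mul_le_mul_of_nonneg_left hs2_sg hA0.le
          _ = sg ^ 2 * r / 2 := by rw [hh2]; field_simp; ring
          _ ≤ TT κ sg r * r / 2 := by
              have := mul_le_mul_of_nonneg_right hsgT hr0.le
              linarith
      rw [e3]
      refine (abs_add_le _ _).trans ?_
      rw [hh3] at e4
      linarith
    simp only [hmk]
    split_ifs with hc
    · have hev : A * s1 ≤ L * s1 := mul_le_mul_of_nonneg_right hAL hs1.le
      exact ⟨c1, c2, c3, x4.trans (mul_le_mul_of_nonneg_right hev hr0.le), x5.trans hev⟩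
    · exact mem_fm c1 c2 c3

end Crest.Agent.R116.Cov369
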