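import Crest.Agent.R116.Kr8_710
import Crest.Agent.R116.EvL2_504

/-!
# R116, K side: light-chart laws in normalised coordinates and the static facts (helper710)

* `LLaw B G S own x` : composition at one height, evolution of fat lines, own motions; `x` = order of
  precision; `Thin` : the slots `4, 6, 8` are `α` times the slots `3, 5, 7`.
* `hxG_rates` : static Kaufman and Falconer for `SlabG`.
* `LLaw.h1_thin`, `LLaw.h1_35`, `LLaw.h1_46`, `LLaw.s1`, `LLaw.s2`, `LLaw.s3` : the static facts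
  (H1), S1, S2, S3 of K-TEXT II-c / doc 2383 as instances of `SlabG`.
-/

set_option autoImplicit false
set_option linter.unusedVariables false
set_option linter.unusedSectionVars false

open Filter Topology Finset

namespace Crest.Agent.R116.Kr710

open Crest.Agent.R138.Ex926 (Base U)
open Crest.Agent.R138.Fal658 Crest.Agent.R136.Gf356
open Crest.Agent.R116.EvL504 (comp evoS SL)

/-- **light-chart laws in normalised coordinates**, precision `x`.  `own n i k0 k` = own motion of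
the line `i` from the height `k` back to the height `k0`. -/
structure LLaw (B : Base) (G : ℕ → RCfg (Fin 12)) (S : Finset (Fin 12))
    (own : ℕ → ℕ → ℕ → ℕ → Fin 12 → ℝ) (x : ℝ) : Prop where
  S0 : (0 : Fin 12) ∈ S
  SSL : S ⊆ SL
  relS : ∀ n k i l, ∀ s ∈ S, (G n).rel k i l s = 0
  bd : ∀ ε : ℝ, 0 < ε → ∀ᶠ n in (U : Filter ℕ), ∀ k i l, (i, k) ∈ (G n).I → (l, k) ∈ (G n).I →
    ∀ s, |(G n).rel k i l s| ≤ B.d n ^ (-ε)
  coc : ∀ ε : ℝ, 0 < ε → ∀ᶠ n in (U : Filter ℕ), ∀ k i j l, (i, k) ∈ (G n).I →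
    (j, k) ∈ (G n).I → (l, k) ∈ (G n).I → ∀ s, s ∉ S →
    |(G n).rel k i l s - comp ((G n).rel k i j) ((G n).rel k j l) s| ≤ B.d n ^ (x - ε)
  ownbd : ∀ ε : ℝ, 0 < ε → ∀ᶠ n in (U : Filter ℕ), ∀ i k0 k, (i, k0) ∈ (G n).I →
    (i, k) ∈ (G n).I → ∀ s, |own n i k0 k s| ≤ B.d n ^ (-ε)
  own0 : ∀ ε : ℝ, 0 < ε → ∀ᶠ n in (U : Filter ℕ), ∀ i k0 k, (i, k0) ∈ (G n).I →
    (i, k) ∈ (G n).I → |own n i k0 k 0 + ((G n).z k - (G n).z k0)| ≤ B.d n ^ (x - ε)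
  evo : ∀ ε : ℝ, 0 < ε → ∀ᶠ n in (U : Filter ℕ), ∀ k0 k i l, (i, k0) ∈ (G n).I →
    (l, k0) ∈ (G n).I → (i, k) ∈ (G n).I → (l, k) ∈ (G n).I → ∀ s, s ∉ S →
    |(G n).rel k i l s - evoS S (own n i k0 k) ((G n).rel k0 i l) s| ≤ B.d n ^ (x - ε)

/-- the second components are `α` times the first ones (the direction of the slab is fixed) -/
structure Thin (B : Base) (G : ℕ → RCfg (Fin 12)) (S : Finset (Fin 12)) (α : ℕ → ℝ) (x : ℝ) :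
    Prop where
  bd : ∀ ε : ℝ, 0 < ε → ∀ᶠ n in (U : Filter ℕ), |α n| ≤ B.d n ^ (-ε)
  tc : ∀ ε : ℝ, 0 < ε → ∀ᶠ n in (U : Filter ℕ), ∀ k i l, (i, k) ∈ (G n).I → (l, k) ∈ (G n).I →
    |(G n).rel k i l 4 - α n * (G n).rel k i l 3| ≤ B.d n ^ (x - ε)
  tx : ∀ ε : ℝ, 0 < ε → ∀ᶠ n in (U : Filter ℕ), ∀ k i l, (i, k) ∈ (G n).I → (l, k) ∈ (G n).I →
    |(G n).rel k i l 6 - α n * (G n).rel k i l 5| ≤ B.d n ^ (x - ε)
  tb : ∀ ε : ℝ, 0 < ε → ∀ᶠ n in (U : Filter ℕ), ∀ k i l, (i, k) ∈ (G n).I → (l, k) ∈ (G n).I →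
    |(G n).rel k i l 8 - α n * (G n).rel k i l 7| ≤ B.d n ^ (x - ε)

/-- **static Kaufman and Falconer for `SlabG`** (growths: `a` of the time, `b` of the position,
`m` of the velocity) -/
theorem hxG_rates {κ : Type} [DecidableEq κ] {B : Base} {G : ℕ → RCfg κ} {Leg : Set (κ → ℝ)}
    {ν : (κ → ℝ) → ℝ} {D : ℝ}
    (H : RUnif B G Leg ν D) (i0 k0 : ℕ → ℕ)
    (h0 : ∀ᶠ n in (U : Filter ℕ), (i0 n, k0 n) ∈ (G n).I) {pS : κ → ℝ}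
    {JC JX JH : Finset κ} {jc jx jh : κ}
    {c x h : ℕ → ℕ → ℝ} {y : ℝ} (hy : 0 < y) (S : SlabG B G i0 k0 pS JC JX JH jc jx jh c x h y)
    (lS : pS ∈ Leg) (l1 : ∀ t, 0 ≤ t → t ≤ y → EG pS JC JX JH t 0 t ∈ Leg)
    (l2 : ∀ t, 0 ≤ t → t ≤ y → EG pS JC JX JH 0 t 0 ∈ Leg) (l3 : EG pS JC JX JH 0 y y ∈ Leg)
    (l4 : EG pS JC JX JH y y y ∈ Leg) {a b m : ℝ} (ha0 : 0 ≤ a) (ha1 : a ≤ 1)
    (r3 : ∀ t, 0 ≤ t → t ≤ y → a * t ≤ ν pS - ν (EG pS JC JX JH 0 t 0))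
    (r4 : ν pS - ν (EG pS JC JX JH 0 y 0) ≤
      ν (EG pS JC JX JH y 0 y) - ν (EG pS JC JX JH y y y))
    (r1 : ∀ t, 0 ≤ t → t ≤ y → (b + m) * t ≤ ν pS - ν (EG pS JC JX JH t 0 t))
    (r2 : ν (EG pS JC JX JH 0 y 0) - ν (EG pS JC JX JH 0 y y) ≤ b * y) :
    (0 < m → a ≤ b) ∧ (1 - a < m → 1 ≤ b) :=
  ⟨fun hm => hxE_kauf H i0 k0 h0 hy (S.toE H h0 lS hy) lS l1 l2 l3 l4 ha0 ha1 r3 r4 hm r1 r2,
    fun hm => hxE_falc H i0 k0 h0 hy (S.toE H h0 lS hy) lS l1 l2 l3 l4 ha0 ha1 r3 r4 hm r1 r2⟩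

/-! ### one slice -/

/-- all bounds of one slice: `β = ρ^(-K ε)`, `r = ρ^y`; `a = rel i0 l`, `w = rel i0 l'`,
`c = rel l l'` -/
structure Sl (S : Finset (Fin 12)) (p : Fin 12 → ℝ) (ρ r β : ℝ) (a w c : Fin 12 → ℝ) : Prop where
  r0 : 0 < r
  r1 : r ≤ 1
  β8 : 8 ≤ β
  S0 : (0 : Fin 12) ∈ S
  aS : ∀ s ∈ S, a s = 0
  wS : ∀ s ∈ S, w s = 0
  cS : ∀ s ∈ S, c s = 0
  ab : ∀ s, |a s| ≤ ρ ^ p s * β
  cb : ∀ s, |c s| ≤ ρ ^ p s * β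
  a1 : ∀ s, |a s| ≤ β
  c1 : ∀ s, |c s| ≤ β
  e : ∀ s, s ∉ S → |w s - comp a c s| ≤ r * β

theorem exists_Sl {B : Base} {G : ℕ → RCfg (Fin 12)} {Leg : Set (Fin 12 → ℝ)}
    {ν : (Fin 12 → ℝ) → ℝ} {D : ℝ} (H : RUnif B G Leg ν D) {S : Finset (Fin 12)}
    {own : ℕ → ℕ → ℕ → ℕ → Fin 12 → ℝ} {x : ℝ} (L : LLaw B G S own x) {i0 k0 : ℕ → ℕ}
    (h0 : ∀ᶠ n in (U : Filter ℕ), (i0 n, k0 n) ∈ (G n).I) {pS : Fin 12 → ℝ} (lS : pS ∈ Leg)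
    {y : ℝ} (hy : 0 < y) (hyx : y ≤ x) {C0 : ℝ} (hC0 : 0 < C0) :
    ∃ K : ℝ, 1 ≤ K ∧ ∀ ε : ℝ, 0 < ε → ∀ᶠ n in (U : Filter ℕ),
      8 ≤ B.d n ^ (-ε) ∧
      ∀ l ∈ (G n).box pS (C0 * ε) (i0 n) (k0 n), ∀ l' ∈ (G n).box pS (C0 * ε) (i0 n) (k0 n),
      (l, k0 n) ∈ (G n).I ∧ (l', k0 n) ∈ (G n).I ∧
      Sl S pS (B.d n) (B.d n ^ y) (B.d n ^ (-(K * ε))) ((G n).rel (k0 n) (i0 n) l)
        ((G n).rel (k0 n) (i0 n) l') ((G n).rel (k0 n) l l') := by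
  have hD := H.D1
  have hD0 : 0 < D := by linarith
  have hDC : 0 < D ^ 2 * C0 := by positivity
  refine ⟨D ^ 2 * C0 + C0 + 1, by linarith, fun ε hε => ?_⟩
  set K : ℝ := D ^ 2 * C0 + C0 + 1 with hK
  filter_upwards [h0, near_pairs H h0 lS hC0 hε, L.bd ε hε, L.coc ε hε, ev_const_le B hε 8]
    with n g0 g1 g2 g3 g8
  refine ⟨g8, fun l hl l' hl' => ?_⟩
  obtain ⟨a1, a2⟩ := RCfg.mem_box.1 hl
  obtain ⟨b1, b2⟩ := RCfg.mem_box.1 hl'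
  have I1 := H.memSlice.1 a1
  have I2 := H.memSlice.1 b1
  have e1 : B.d n ^ (-ε) ≤ B.d n ^ (-(K * ε)) := by
    have : -ε = -(1 * ε) := by ring
    rw [this]; exact anN B n hε (by rw [hK]; linarith)
  have e2 : ∀ (s : Fin 12) (K' : ℝ), K' ≤ K →
      B.d n ^ (pS s - K' * ε) ≤ B.d n ^ pS s * B.d n ^ (-(K * ε)) := by
    intro s K' hK'
    rw [← rpow_add']
    exact rpow_anti B n (by have := mE hε hK'; linarith)
  refine ⟨I1, I2, rpos B n _, ?_, g8.trans e1, L.S0, fun s hs => L.relS n _ _ _ s hs,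
    fun s hs => L.relS n _ _ _ s hs, fun s hs => L.relS n _ _ _ s hs, ?_, ?_, ?_, ?_, ?_⟩
  · calc B.d n ^ y ≤ B.d n ^ (0 : ℝ) := rpow_anti B n hy.le
      _ = 1 := Real.rpow_zero _
  · intro s
    have := a2 s
    rw [H.base n] at this
    exact this.trans (e2 s C0 (by rw [hK]; linarith))
  · intro s
    have := g1 l hl l' hl' s
    rw [H.base n] at this
    exact this.trans (e2 s (D ^ 2 * C0) (by rw [hK]; linarith))
  · intro s; exact (g2 _ _ _ g0 I1 s).trans e1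
  · intro s; exact (g2 _ _ _ I1 I2 s).trans e1
  · intro s hs
    refine (g3 _ _ _ _ g0 I1 I2 s hs).trans ?_
    rw [← rpow_add']
    refine rpow_anti B n ?_
    have : 1 * ε ≤ K * ε := mE hε (by rw [hK]; linarith)
    linarith

namespace Sl

variable {S : Finset (Fin 12)} {p : Fin 12 → ℝ} {ρ r β : ℝ} {a w c : Fin 12 → ℝ}

/-- a product is absorbed -/
theorem absorb (h : Sl S p ρ r β a w c) (hρ : 0 < ρ) (hρ1 : ρ ≤ 1) {y : ℝ} (hr : r = ρ ^ y)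
    {i j : Fin 12} (hij : i ∈ S ∨ y ≤ p i + p j) : |a i * c j| ≤ r * β ^ 2 := by
  rcases hij with hi | hij
  · rw [h.aS i hi, zero_mul, abs_zero]
    have := h.r0
    positivity
  · rw [abs_mul]
    have hβ : 0 ≤ β := by linarith [h.β8]
    calc |a i| * |c j| ≤ (ρ ^ p i * β) * (ρ ^ p j * β) :=
          mul_le_mul (h.ab i) (h.cb j) (abs_nonneg _) (by positivity)
      _ = ρ ^ (p i + p j) * β ^ 2 := by rw [Real.rpow_add hρ]; ring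
      _ ≤ r * β ^ 2 := by
          rw [hr]
          exact mul_le_mul_of_nonneg_right (Real.rpow_le_rpow_of_exponent_ge hρ hρ1 hij)
            (by positivity)

theorem z (h : Sl S p ρ r β a w c) : a 0 = 0 := h.aS 0 h.S0

theorem zc (h : Sl S p ρ r β a w c) : c 0 = 0 := h.cS 0 h.S0

/-- slot `1` -/
theorem d1 (h : Sl S p ρ r β a w c) : |c 1 - (w 1 - a 1)| ≤ r * β := by
  have hr := h.r0
  have hβ := h.β8
  by_cases hs : (1 : Fin 12) ∈ S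
  · rw [h.aS 1 hs, h.wS 1 hs, h.cS 1 hs]
    norm_num
    positivity
  · have := h.e 1 hs
    have e : comp a c 1 = a 1 + c 1 := rfl
    rw [e, abs_sub_comm] at this
    have e2 : c 1 - (w 1 - a 1) = a 1 + c 1 - w 1 := by ring
    rw [e2]; exact this

/-- slot `2` -/
theorem d2 (h : Sl S p ρ r β a w c) : |c 2 - (w 2 - a 2)| ≤ r * β := by
  have hr := h.r0
  have hβ := h.β8
  by_cases hs : (2 : Fin 12) ∈ S
  · rw [h.aS 2 hs, h.wS 2 hs, h.cS 2 hs]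
    norm_num
    positivity
  · have := h.e 2 hs
    have e : comp a c 2 = a 2 + c 2 - 2 * (a 1 * c 0) := rfl
    rw [e, h.zc, abs_sub_comm] at this
    have e2 : c 2 - (w 2 - a 2) = a 2 + c 2 - 2 * (a 1 * 0) - w 2 := by ring
    rw [e2]; exact this

theorem nS {h : S ⊆ SL} {s : Fin 12} (hs : s ∉ SL) : s ∉ S := fun h' => hs (h h')

/-- slots `3, 4` -/
theorem d3 (h : Sl S p ρ r β a w c) (hS : S ⊆ SL) : |c 3 - (w 3 - a 3)| ≤ r * β := by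
  have := h.e 3 (fun h' => absurd (hS h') (by decide))
  have e : comp a c 3 = a 3 + c 3 := rfl
  rw [e, abs_sub_comm] at this
  have e2 : c 3 - (w 3 - a 3) = a 3 + c 3 - w 3 := by ring
  rw [e2]; exact this

theorem d4 (h : Sl S p ρ r β a w c) (hS : S ⊆ SL) : |c 4 - (w 4 - a 4)| ≤ r * β := by
  have := h.e 4 (fun h' => absurd (hS h') (by decide))
  have e : comp a c 4 = a 4 + c 4 := rfl
  rw [e, abs_sub_comm] at this
  have e2 : c 4 - (w 4 - a 4) = a 4 + c 4 - w 4 := by ring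
  rw [e2]; exact this

/-- slots `5, 6` -/
theorem d5 (h : Sl S p ρ r β a w c) (hS : S ⊆ SL) : |c 5 - (w 5 - a 5)| ≤ r * β := by
  have := h.e 5 (fun h' => absurd (hS h') (by decide))
  have e : comp a c 5 = a 5 + c 5 - a 0 * c 3 := rfl
  rw [e, h.z, abs_sub_comm] at this
  have e2 : c 5 - (w 5 - a 5) = a 5 + c 5 - 0 * c 3 - w 5 := by ring
  rw [e2]; exact this

theorem d6 (h : Sl S p ρ r β a w c) (hS : S ⊆ SL) : |c 6 - (w 6 - a 6)| ≤ r * β := by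
  have := h.e 6 (fun h' => absurd (hS h') (by decide))
  have e : comp a c 6 = a 6 + c 6 - a 0 * c 4 := rfl
  rw [e, h.z, abs_sub_comm] at this
  have e2 : c 6 - (w 6 - a 6) = a 6 + c 6 - 0 * c 4 - w 6 := by ring
  rw [e2]; exact this

/-- slot `7` -/
theorem d7 (h : Sl S p ρ r β a w c) (h7 : (7 : Fin 12) ∉ S) :
    |c 7 - (w 7 - a 7 - a 2 * c 3 - 2 * (a 1 * c 5))| ≤ r * β := by
  have := h.e 7 h7
  have e : comp a c 7 = a 7 + c 7 + a 2 * c 3 + 2 * (a 1 * c 5) := rfl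
  rw [e, abs_sub_comm] at this
  have e2 : c 7 - (w 7 - a 7 - a 2 * c 3 - 2 * (a 1 * c 5)) =
    a 7 + c 7 + a 2 * c 3 + 2 * (a 1 * c 5) - w 7 := by ring
  rw [e2]; exact this

/-- slot `9` -/
theorem d9 (h : Sl S p ρ r β a w c) (hS : S ⊆ SL) :
    |c 9 - (w 9 - a 9 - a 3 * c 5 - a 4 * c 6)| ≤ r * β := by
  have := h.e 9 (fun h' => absurd (hS h') (by decide))
  have e : comp a c 9 = a 9 + c 9 - a 0 * ((c 3 ^ 2 + c 4 ^ 2) / 2) + a 3 * (c 5 - a 0 * c 3) +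
    a 4 * (c 6 - a 0 * c 4) := rfl
  rw [e, h.z, abs_sub_comm] at this
  have e2 : c 9 - (w 9 - a 9 - a 3 * c 5 - a 4 * c 6) =
    a 9 + c 9 - 0 * ((c 3 ^ 2 + c 4 ^ 2) / 2) + a 3 * (c 5 - 0 * c 3) +
    a 4 * (c 6 - 0 * c 4) - w 9 := by ring
  rw [e2]; exact this

/-- slot `10` -/
theorem d10 (h : Sl S p ρ r β a w c) (hS : S ⊆ SL) :
    |c 10 - (w 10 - a 10 + a 7 * c 3 + a 8 * c 4 + a 2 * ((c 3 ^ 2 + c 4 ^ 2) / 2) +
      2 * (a 1 * (c 5 * c 3 + c 6 * c 4 - c 9)))| ≤ r * β := by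
  have := h.e 10 (fun h' => absurd (hS h') (by decide))
  have e : comp a c 10 = a 10 + c 10 - a 7 * c 3 - a 8 * c 4 - a 2 * ((c 3 ^ 2 + c 4 ^ 2) / 2) -
      2 * (a 1 * (c 5 * c 3 + c 6 * c 4 - c 9)) := rfl
  rw [e, abs_sub_comm] at this
  have e2 : c 10 - (w 10 - a 10 + a 7 * c 3 + a 8 * c 4 + a 2 * ((c 3 ^ 2 + c 4 ^ 2) / 2) +
      2 * (a 1 * (c 5 * c 3 + c 6 * c 4 - c 9))) =
    a 10 + c 10 - a 7 * c 3 - a 8 * c 4 - a 2 * ((c 3 ^ 2 + c 4 ^ 2) / 2) -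
      2 * (a 1 * (c 5 * c 3 + c 6 * c 4 - c 9)) - w 10 := by ring
  rw [e2]; exact this

/-- slot `11` -/
theorem d11 (h : Sl S p ρ r β a w c) (hS : S ⊆ SL) :
    |c 11 - (w 11 - a 11 + a 7 * c 5 + a 8 * c 6 + a 2 * c 9 + a 1 * (c 5 ^ 2 + c 6 ^ 2))| ≤
      r * β := by
  have := h.e 11 (fun h' => absurd (hS h') (by decide))
  have e : comp a c 11 = a 11 + c 11 - a 0 * c 10 - a 7 * (c 5 - a 0 * c 3) -
      a 8 * (c 6 - a 0 * c 4) - a 2 * (c 9 - a 0 * ((c 3 ^ 2 + c 4 ^ 2) / 2)) -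
      a 1 * (c 5 ^ 2 + c 6 ^ 2 - 2 * (a 0 * (c 5 * c 3 + c 6 * c 4 - c 9))) := rfl
  rw [e, h.z, abs_sub_comm] at this
  have e2 : c 11 - (w 11 - a 11 + a 7 * c 5 + a 8 * c 6 + a 2 * c 9 +
      a 1 * (c 5 ^ 2 + c 6 ^ 2)) =
    a 11 + c 11 - 0 * c 10 - a 7 * (c 5 - 0 * c 3) -
      a 8 * (c 6 - 0 * c 4) - a 2 * (c 9 - 0 * ((c 3 ^ 2 + c 4 ^ 2) / 2)) -
      a 1 * (c 5 ^ 2 + c 6 ^ 2 - 2 * (0 * (c 5 * c 3 + c 6 * c 4 - c 9))) - w 11 := by ring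
  rw [e2]; exact this

end Sl

end Crest.Agent.R116.Kr710
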