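import Crest.Agent.R116.KW2_420
import Crest.Agent.R116.Kr9_710

/-!
# R116, K-TEXT II-c, section 1, facts (W2), (W3), (W3k), part 3: light chart (helper420)

* `twist_gen` : `twist_lin` with a twist `τ n i k` of the line `i` and a separated function of pairs.
* `hal_of_tw` : thin own twist at few heights of every line ⟹ `hal` with `|τ| ≥ ρ^(C1 ε)`.
* `evoS_1` .. `evoS_11` : the evolution slot by slot, any level slots `S`.
* `Dir` : the direction of the slab is fixed (unit vector `(u, v)`), own motion of `{7, 8}` included;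
  `OwnThin` : linear modulus of the own motion of one slot; `hal_of_own`.
* `loose_pT` : which slots stay fine at the other heights.
* `w3_e`, `w2_e` : e-tie (`7, 8 ∈ S`, `1, 2 ∉ S`), over 710's `LLaw`.
* `w3_k` : kappa-tie (`2 ∈ S`, `7, 8 ∉ S`): the rate of `C` is at most the rate of `{7, 8}`.
-/

set_option autoImplicit false
set_option linter.unusedVariables false
set_option linter.unusedSectionVars false

open Filter Topology Finset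

namespace Crest.Agent.R116.KW420

open Crest.Agent.R138.Ex926 (Base U)
open Crest.Agent.R136.Gf356

section gen

variable {κ : Type} {B : Base} {G : ℕ → RCfg κ} {Leg : Set (κ → ℝ)} {ν : (κ → ℝ) → ℝ}
  {σ R D : ℝ}

/-- **linear twist**, general form -/
theorem twist_gen (H : RUnif B G Leg ν D) (i0 k0 : ℕ → ℕ)
    (h0 : ∀ᶠ n in (U : Filter ℕ), (i0 n, k0 n) ∈ (G n).I) (pS p' pT r : κ → ℝ) (hpS : pS ∈ Leg)
    (hp' : p' ∈ Leg) (hpT : pT ∈ Leg) (hr : r ∈ Leg) (hTr : ∀ j, pT j ≤ r j)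
    (sP : κ) {x : ℝ} (hxS : x ≤ pS sP) (hxr : x ≤ r sP)
    (Zg : ℕ → Finset ℕ) (hZg : ∀ᶠ n in (U : Filter ℕ), (Zg n).Nonempty)
    (τ : ℕ → ℕ → ℕ → ℝ) (V : ℕ → ℕ → ℕ → ℝ) {C1 : ℝ} (hC1 : 0 < C1)
    (hT : ∀ ε : ℝ, 0 < ε → ∀ᶠ n in (U : Filter ℕ), ∀ k ∈ Zg n,
      ∀ i ∈ (G n).box pS ε (i0 n) (k0 n), ∀ l ∈ (G n).box pS ε (i0 n) (k0 n),
      (i, k) ∈ (G n).I → (l, k) ∈ (G n).I → (G n).loose pT (C1 * ε) k i l)
    (hal : ∀ ε : ℝ, 0 < ε → ∀ᶠ n in (U : Filter ℕ), ∀ i ∈ (G n).box pS ε (i0 n) (k0 n),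
      ∀ T ⊆ Zg n, (∀ k ∈ Zg n, (i, k) ∈ (G n).I → B.d n ^ (C1 * ε) ≤ |τ n i k| → k ∈ T) →
      B.d n ^ (C1 * ε) * ((Zg n).card : ℝ) ≤ (T.card : ℝ))
    (hevo : ∀ ε : ℝ, 0 < ε → ∀ᶠ n in (U : Filter ℕ), ∀ k ∈ Zg n,
      ∀ i ∈ (G n).box pS ε (i0 n) (k0 n), ∀ l ∈ (G n).box pS ε (i0 n) (k0 n),
      (i, k) ∈ (G n).I → (l, k) ∈ (G n).I →
      |(G n).rel k i l sP - ((G n).rel (k0 n) i l sP - τ n i k * V n i l)|
        ≤ B.d n ^ (x - C1 * ε))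
    (hV : ∀ C2 : ℝ, 0 < C2 → ∃ C3 : ℝ, 0 < C3 ∧ ∀ ε : ℝ, 0 < ε → ∀ᶠ n in (U : Filter ℕ),
      ∀ i ∈ (G n).box pS ε (i0 n) (k0 n), ∀ l ∈ (G n).box pS ε (i0 n) (k0 n),
      |V n i l| ≤ B.d n ^ (x - C2 * ε) → (G n).loose p' (C3 * ε) (k0 n) i l) :
    ν pS - ν p' ≤ ν pT - ν r := by
  classical
  have hD := H.D1
  have hD0 : 0 < D := by linarith
  refine two_heights_R H k0 (fun ε n => (G n).box pS ε (i0 n) (k0 n)) p' pT r hp' hpT hr hTr Zg hZg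
    (C1 := C1 + 1) (by linarith) ?_ ?_ (fun ε n i k => B.d n ^ (C1 * ε) ≤ |τ n i k|) ?_ ?_ ?_
  · intro ε hε
    exact Filter.Eventually.of_forall fun n i hi => H.memSlice.1 (RCfg.box_subset_slice hi)
  · intro ε hε
    filter_upwards [H.low pS hpS ε hε, h0] with n hn h0n
    exact (rpow_anti B n (by nlinarith)).trans (hn _ _ h0n)
  · intro ε hε
    filter_upwards [hal ε hε] with n hn i hi T hT1 hT2
    refine le_trans ?_ (hn i hi T hT1 hT2)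
    exact mul_le_mul_of_nonneg_right (rpow_anti B n (by nlinarith)) (Nat.cast_nonneg _)
  · intro ε hε
    filter_upwards [hT ε hε] with n hn k hk i hi l hl h1 h2
    exact H.loose_mono (fun _ => le_rfl) (by nlinarith) (hn k hk i hi l hl h1 h2)
  · intro C2 hC2
    set C4 : ℝ := C1 + C2 + C1 + D * D + 1 with hC4
    obtain ⟨C3, hC3, hg⟩ := hV C4 (by positivity)
    refine ⟨C3, hC3, fun ε hε => ?_⟩
    have hDDε : 0 ≤ D * D * ε := by positivity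
    filter_upwards [hg ε hε, hevo ε hε, box_pair H i0 k0 h0 pS hpS hε, ev_const_le B hε 3,
      H.base |> fun hb => Filter.Eventually.of_forall hb]
      with n hgn hen hpn h3 hbn k hk i hi l hl h1 h2 g1 g2 hlr
    have hpow : ∀ t : ℝ, 0 < B.d n ^ t := fun t => rpos B n t
    refine hgn i hi l hl ?_
    have e0 := hpn i hi l hl sP
    have e1 := hlr sP
    rw [hbn] at e0 e1
    have e2 := hen k hk i hi l hl h1 h2
    have b0 : |(G n).rel (k0 n) i l sP| ≤ B.d n ^ (x - (C1 + C2 + D * D) * ε) :=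
      e0.trans (rpow_anti B n (by nlinarith))
    have b1 : |(G n).rel k i l sP| ≤ B.d n ^ (x - (C1 + C2 + D * D) * ε) :=
      e1.trans (rpow_anti B n (by nlinarith))
    have b2 : |(G n).rel k i l sP - ((G n).rel (k0 n) i l sP - τ n i k * V n i l)| ≤
        B.d n ^ (x - (C1 + C2 + D * D) * ε) := e2.trans (rpow_anti B n (by nlinarith))
    have b3 : |τ n i k * V n i l| ≤ 3 * B.d n ^ (x - (C1 + C2 + D * D) * ε) := by
      have e : τ n i k * V n i l =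
          ((G n).rel k i l sP - ((G n).rel (k0 n) i l sP - τ n i k * V n i l)) -
            (G n).rel k i l sP + (G n).rel (k0 n) i l sP := by ring
      rw [e]
      refine (abs_add_le _ _).trans ?_
      have := abs_sub ((G n).rel k i l sP - ((G n).rel (k0 n) i l sP -
        τ n i k * V n i l)) ((G n).rel k i l sP)
      linarith
    rw [abs_mul] at b3
    have b4 : B.d n ^ (C1 * ε) * |V n i l| ≤
        B.d n ^ (-ε) * B.d n ^ (x - (C1 + C2 + D * D) * ε) := by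
      refine (mul_le_mul_of_nonneg_right g1 (abs_nonneg _)).trans (b3.trans ?_)
      exact mul_le_mul_of_nonneg_right h3 (hpow _).le
    have b5 : B.d n ^ (-ε) * B.d n ^ (x - (C1 + C2 + D * D) * ε) =
        B.d n ^ (C1 * ε) * B.d n ^ (x - C4 * ε) := by
      rw [← rpow_add', ← rpow_add', hC4]; congr 1; ring
    rw [b5] at b4
    exact le_of_mul_le_mul_left b4 (hpow _)

/-- **thin own twist at few heights** -/
theorem hal_of_tw (H : RModel B G σ R Leg ν D) (k0 : ℕ → ℕ) (τ : ℕ → ℕ → ℕ → ℝ) {γ C1 : ℝ}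
    (hγ : 0 < γ) (hC1 : 2 ≤ C1) (hγC : 3 ≤ γ * C1)
    (htw : ∀ t : ℝ, 0 < t → ∀ ε : ℝ, 0 < ε → ∀ᶠ n in (U : Filter ℕ), ∀ i,
      (i, k0 n) ∈ (G n).I → ∀ T ⊆ (G n).Z, (∀ k ∈ T, (i, k) ∈ (G n).I ∧ |τ n i k| < B.d n ^ t) →
      (T.card : ℝ) ≤ B.d n ^ (γ * t - ε) * ((G n).Z.card : ℝ)) :
    ∀ ε : ℝ, 0 < ε → ∀ᶠ n in (U : Filter ℕ), ∀ i, (i, k0 n) ∈ (G n).I → ∀ T ⊆ (G n).Z,
      (∀ k ∈ (G n).Z, (i, k) ∈ (G n).I → B.d n ^ (C1 * ε) ≤ |τ n i k| → k ∈ T) →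
      B.d n ^ (C1 * ε) * ((G n).Z.card : ℝ) ≤ (T.card : ℝ) := by
  classical
  intro ε hε
  have hC1p : 0 < C1 := by linarith
  filter_upwards [H.line ε hε, htw (C1 * ε) (by positivity) ε hε, ev_const_le B hε 2]
    with n h1 h2 h3 i hi T hT1 hT2
  have hiL : i ∈ (G n).L := (H.memL hi)
  have hpow : ∀ t : ℝ, 0 < B.d n ^ t := fun t => rpos B n t
  have a1 := h1 i hiL
  have a2 := h2 i hi (((G n).Z).filter fun k => (i, k) ∈ (G n).I ∧ |τ n i k| < B.d n ^ (C1 * ε))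
    (Finset.filter_subset _ _) (fun k hk => (Finset.mem_filter.1 hk).2)
  have a3 : ((G n).hts i).card ≤ T.card +
      (((G n).Z).filter fun k => (i, k) ∈ (G n).I ∧ |τ n i k| < B.d n ^ (C1 * ε)).card := by
    refine le_trans (Finset.card_le_card ?_) (Finset.card_union_le _ _)
    intro k hk
    obtain ⟨b1, b2⟩ := RCfg.mem_hts.1 hk
    rcases lt_or_ge |τ n i k| (B.d n ^ (C1 * ε)) with hlt | hge
    · exact Finset.mem_union_right _ (Finset.mem_filter.2 ⟨b1, b2, hlt⟩)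
    · exact Finset.mem_union_left _ (hT2 k b1 b2 hge)
  have a3' : (((G n).hts i).card : ℝ) ≤ (T.card : ℝ) +
      (((((G n).Z).filter fun k => (i, k) ∈ (G n).I ∧ |τ n i k| < B.d n ^ (C1 * ε)).card : ℕ) : ℝ) := by
    exact_mod_cast a3
  have hZ : (0 : ℝ) ≤ ((G n).Z.card : ℝ) := Nat.cast_nonneg _
  have a4 : B.d n ^ (γ * (C1 * ε) - ε) ≤ B.d n ^ (2 * ε) := rpow_anti B n (by nlinarith)
  have a5 : 2 * B.d n ^ (2 * ε) ≤ B.d n ^ ε := by
    have : B.d n ^ ε = B.d n ^ (-ε) * B.d n ^ (2 * ε) := by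
      rw [← rpow_add']; congr 1; ring
    rw [this]
    exact mul_le_mul_of_nonneg_right h3 (hpow _).le
  have a6 : B.d n ^ (C1 * ε) ≤ B.d n ^ (2 * ε) := rpow_anti B n (by nlinarith)
  have m1 := mul_le_mul_of_nonneg_right a4 hZ
  have m2 := mul_le_mul_of_nonneg_right a5 hZ
  have m3 := mul_le_mul_of_nonneg_right a6 hZ
  linarith

end gen

/-! ### the evolution, slot by slot -/

section slots

open Crest.Agent.R116.EvL504

variable {S : Finset (Fin 12)} (a c : Fin 12 → ℝ)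

theorem evoS_1 (h1 : (1 : Fin 12) ∉ S) : evoS S a c 1 = c 1 := by
  simp [evoS, comp, LvS, LnS, hgt, h1]

theorem evoS_2 (h0 : (0 : Fin 12) ∈ S) (h1 : (1 : Fin 12) ∉ S) (h2 : (2 : Fin 12) ∉ S) :
    evoS S a c 2 = c 2 + 2 * (a 0 * c 1) := by
  simp [evoS, comp, LvS, LnS, hgt, h0, h1, h2]; ring

theorem evoS_7 (hS : S ⊆ SL) (h7 : (7 : Fin 12) ∉ S) :
    evoS S a c 7 = c 7 + LvS S a 2 * c 3 + 2 * (LvS S a 1 * c 5) := by
  have h3 : (3 : Fin 12) ∉ S := fun h => absurd (hS h) (by decide)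
  have h5 : (5 : Fin 12) ∉ S := fun h => absurd (hS h) (by decide)
  unfold evoS
  rw [comp_hgt _ _ (by decide)]
  simp [comp, LvS, LnS, h3, h5, h7]

theorem evoS_8 (hS : S ⊆ SL) (h8 : (8 : Fin 12) ∉ S) :
    evoS S a c 8 = c 8 + LvS S a 2 * c 4 + 2 * (LvS S a 1 * c 6) := by
  have h3 : (4 : Fin 12) ∉ S := fun h => absurd (hS h) (by decide)
  have h5 : (6 : Fin 12) ∉ S := fun h => absurd (hS h) (by decide)
  unfold evoS
  rw [comp_hgt _ _ (by decide)]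
  simp [comp, LvS, LnS, h3, h5, h8]

theorem evoS_10 (hS : S ⊆ SL) :
    evoS S a c 10 = c 10 - LvS S a 7 * c 3 - LvS S a 8 * c 4 -
      LvS S a 2 * ((c 3 ^ 2 + c 4 ^ 2) / 2) - 2 * (LvS S a 1 * (c 5 * c 3 + c 6 * c 4 - c 9)) := by
  have h3 : (3 : Fin 12) ∉ S := fun h => absurd (hS h) (by decide)
  have h4 : (4 : Fin 12) ∉ S := fun h => absurd (hS h) (by decide)
  have h5 : (5 : Fin 12) ∉ S := fun h => absurd (hS h) (by decide)
  have h6 : (6 : Fin 12) ∉ S := fun h => absurd (hS h) (by decide)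
  have h9 : (9 : Fin 12) ∉ S := fun h => absurd (hS h) (by decide)
  have h10 : (10 : Fin 12) ∉ S := fun h => absurd (hS h) (by decide)
  unfold evoS
  rw [comp_hgt _ _ (by decide)]
  simp [comp, LvS, LnS, h3, h4, h5, h6, h9, h10]

theorem evoS_11 (hS : S ⊆ SL) (h0 : (0 : Fin 12) ∈ S) :
    evoS S a c 11 = c 11 - a 0 * c 10 - LvS S a 7 * (c 5 - a 0 * c 3) -
      LvS S a 8 * (c 6 - a 0 * c 4) -
      LvS S a 2 * (c 9 - a 0 * ((c 3 ^ 2 + c 4 ^ 2) / 2)) -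
      LvS S a 1 * (c 5 ^ 2 + c 6 ^ 2 - 2 * (a 0 * (c 5 * c 3 + c 6 * c 4 - c 9))) := by
  have h3 : (3 : Fin 12) ∉ S := fun h => absurd (hS h) (by decide)
  have h4 : (4 : Fin 12) ∉ S := fun h => absurd (hS h) (by decide)
  have h5 : (5 : Fin 12) ∉ S := fun h => absurd (hS h) (by decide)
  have h6 : (6 : Fin 12) ∉ S := fun h => absurd (hS h) (by decide)
  have h9 : (9 : Fin 12) ∉ S := fun h => absurd (hS h) (by decide)
  have h10 : (10 : Fin 12) ∉ S := fun h => absurd (hS h) (by decide)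
  have h11 : (11 : Fin 12) ∉ S := fun h => absurd (hS h) (by decide)
  unfold evoS
  rw [comp_hgt _ _ (by decide)]
  simp [comp, LvS, LnS, h0, h3, h4, h5, h6, h9, h10, h11]

end slots

/-! ### the three algebraic separations -/

section alg

/-- a thick twist separates -/
theorem div_thick {t V r β : ℝ} {m : ℕ} (hr : 0 < r) (hβ : 8 ≤ β) (ht : β⁻¹ ≤ |t|)
    (h : |t * V| ≤ r * β ^ m) : |V| ≤ r * β ^ (m + 1) := by
  have hβ0 : 0 < β := by linarith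
  rw [abs_mul] at h
  have h1 : β⁻¹ * |V| ≤ r * β ^ m := (mul_le_mul_of_nonneg_right ht (abs_nonneg _)).trans h
  have h2 := mul_le_mul_of_nonneg_left h1 hβ0.le
  rw [← mul_assoc, mul_inv_cancel₀ hβ0.ne', one_mul] at h2
  calc |V| ≤ β * (r * β ^ m) := h2
    _ = r * β ^ (m + 1) := by ring

/-- from the rotated coordinates back -/
theorem rot_back {u v c d r β : ℝ} {m : ℕ} (hr : 0 < r) (hβ : 8 ≤ β) (huv : u ^ 2 + v ^ 2 = 1)
    (h1 : |u * c + v * d| ≤ r * β) (h2 : |-v * c + u * d| ≤ r * β ^ (m + 1)) :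
    |c| ≤ r * β ^ (m + 2) ∧ |d| ≤ r * β ^ (m + 2) := by
  have hβ0 : 0 < β := by linarith
  have hu : |u| ≤ 1 := abs_le.2 ⟨by nlinarith [sq_nonneg v], by nlinarith [sq_nonneg v]⟩
  have hv : |v| ≤ 1 := abs_le.2 ⟨by nlinarith [sq_nonneg u], by nlinarith [sq_nonneg u]⟩
  have e1 : c = u * (u * c + v * d) - v * (-v * c + u * d) := by linear_combination (-c) * huv
  have e2 : d = v * (u * c + v * d) + u * (-v * c + u * d) := by linear_combination (-d) * huv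
  have hm : (1 : ℝ) ≤ β ^ m := one_le_pow₀ (by linarith)
  have g1 : r * β ≤ r * β ^ (m + 1) := by
    rw [pow_succ]
    have : 0 < r * β := by positivity
    nlinarith
  have g2 : 2 * (r * β ^ (m + 1)) ≤ r * β ^ (m + 2) := by
    have e : r * β ^ (m + 2) = β * (r * β ^ (m + 1)) := by ring
    rw [e]
    have : 0 < r * β ^ (m + 1) := by positivity
    nlinarith
  have m1 : |u * (u * c + v * d)| ≤ r * β := by
    rw [abs_mul]
    exact (mul_le_mul hu h1 (abs_nonneg _) zero_le_one).trans_eq (one_mul _)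
  have m2 : |v * (-v * c + u * d)| ≤ r * β ^ (m + 1) := by
    rw [abs_mul]
    exact (mul_le_mul hv h2 (abs_nonneg _) zero_le_one).trans_eq (one_mul _)
  have m3 : |v * (u * c + v * d)| ≤ r * β := by
    rw [abs_mul]
    exact (mul_le_mul hv h1 (abs_nonneg _) zero_le_one).trans_eq (one_mul _)
  have m4 : |u * (-v * c + u * d)| ≤ r * β ^ (m + 1) := by
    rw [abs_mul]
    exact (mul_le_mul hu h2 (abs_nonneg _) zero_le_one).trans_eq (one_mul _)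
  constructor
  · rw [e1]
    refine (abs_sub _ _).trans ?_
    linarith
  · rw [e2]
    refine (abs_add_le _ _).trans ?_
    linarith

/-- the common part of `alg_w3`, `alg_w2` -/
theorem alg_dir {u v a7 a8 c d r β : ℝ} {m : ℕ} (hr : 0 < r) (hβ : 8 ≤ β) (hm : 2 ≤ m)
    (huv : u ^ 2 + v ^ 2 = 1) (h7 : |a7| ≤ β) (h8 : |a8| ≤ β) (h1 : |u * c + v * d| ≤ r * β)
    (h2 : |a7 * c + a8 * d| ≤ 5 * (r * β ^ m)) (hτ : β⁻¹ ≤ |-v * a7 + u * a8|) :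
    |c| ≤ r * β ^ (m + 3) ∧ |d| ≤ r * β ^ (m + 3) := by
  have hβ0 : 0 < β := by linarith
  have hu : |u| ≤ 1 := abs_le.2 ⟨by nlinarith [sq_nonneg v], by nlinarith [sq_nonneg v]⟩
  have hv : |v| ≤ 1 := abs_le.2 ⟨by nlinarith [sq_nonneg u], by nlinarith [sq_nonneg u]⟩
  have e : (-v * a7 + u * a8) * (-v * c + u * d) =
      (a7 * c + a8 * d) - (u * a7 + v * a8) * (u * c + v * d) := by
    linear_combination (a7 * c + a8 * d) * huv
  have g1 : |u * a7 + v * a8| ≤ 2 * β := by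
    refine (abs_add_le _ _).trans ?_
    rw [abs_mul, abs_mul]
    have t1 := mul_le_mul hu h7 (abs_nonneg _) zero_le_one
    have t2 := mul_le_mul hv h8 (abs_nonneg _) zero_le_one
    linarith
  have g2 : |(u * a7 + v * a8) * (u * c + v * d)| ≤ 2 * (r * β ^ 2) := by
    rw [abs_mul]
    refine (mul_le_mul g1 h1 (abs_nonneg _) (by linarith)).trans_eq (by ring)
  have g3 : r * β ^ 2 ≤ r * β ^ m :=
    mul_le_mul_of_nonneg_left (pow_le_pow_right₀ (by linarith) hm) hr.le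
  have g4 : |(-v * a7 + u * a8) * (-v * c + u * d)| ≤ r * β ^ (m + 1) := by
    rw [e]
    refine (abs_sub _ _).trans ?_
    have e2 : r * β ^ (m + 1) = β * (r * β ^ m) := by ring
    rw [e2]
    have : 0 < r * β ^ m := by positivity
    nlinarith
  exact rot_back (m := m + 1) hr hβ huv h1 (div_thick hr hβ hτ g4)

theorem alg_w3 {u v a7 a8 c3 c4 c10 q r β : ℝ} (hr : 0 < r) (hβ : 8 ≤ β)
    (huv : u ^ 2 + v ^ 2 = 1) (h7 : |a7| ≤ β) (h8 : |a8| ≤ β) (h1 : |u * c3 + v * c4| ≤ r * β)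
    (h10 : |c10| ≤ r * β) (hq : |q| ≤ r * β) (hE : |q - (c10 - a7 * c3 - a8 * c4)| ≤ r * β)
    (hτ : β⁻¹ ≤ |-v * a7 + u * a8|) : |c3| ≤ r * β ^ 5 ∧ |c4| ≤ r * β ^ 5 := by
  refine alg_dir (m := 2) hr hβ le_rfl huv h7 h8 h1 ?_ hτ
  have e : a7 * c3 + a8 * c4 = c10 - q + (q - (c10 - a7 * c3 - a8 * c4)) := by ring
  rw [e]
  have t1 := abs_add_le (c10 - q) (q - (c10 - a7 * c3 - a8 * c4))
  have t2 := abs_sub c10 q
  have : 0 < r * β := mul_pos hr (by linarith)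
  have e2 : r * β ^ 2 = β * (r * β) := by ring
  rw [e2]
  nlinarith

theorem alg_w2 {u v a0 a7 a8 c3 c4 c5 c6 c10 c11 q r β : ℝ} (hr : 0 < r) (hβ : 8 ≤ β)
    (huv : u ^ 2 + v ^ 2 = 1) (h0 : |a0| ≤ β) (h7 : |a7| ≤ β) (h8 : |a8| ≤ β)
    (h1 : |u * c5 + v * c6| ≤ r * β) (h3 : |c3| ≤ r * β) (h4 : |c4| ≤ r * β)
    (h10 : |c10| ≤ r * β) (h11 : |c11| ≤ r * β) (hq : |q| ≤ r * β)
    (hE : |q - (c11 - a0 * c10 - a7 * (c5 - a0 * c3) - a8 * (c6 - a0 * c4))| ≤ r * β)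
    (hτ : β⁻¹ ≤ |-v * a7 + u * a8|) : |c5| ≤ r * β ^ 6 ∧ |c6| ≤ r * β ^ 6 := by
  have hβ0 : 0 < β := by linarith
  refine alg_dir (m := 3) hr hβ (by norm_num) huv h7 h8 h1 ?_ hτ
  have e : a7 * c5 + a8 * c6 = c11 - q + (q - (c11 - a0 * c10 - a7 * (c5 - a0 * c3) -
      a8 * (c6 - a0 * c4))) - a0 * c10 + a7 * (a0 * c3) + a8 * (a0 * c4) := by ring
  have hrb : 0 < r * β := mul_pos hr hβ0
  have t1 := abs_sub c11 q
  have t3 : |a0 * c10| ≤ r * β ^ 2 := by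
    rw [abs_mul]; exact (mul_le_mul h0 h10 (abs_nonneg _) hβ0.le).trans_eq (by ring)
  have t4 : |a7 * (a0 * c3)| ≤ r * β ^ 3 := by
    rw [abs_mul, abs_mul]
    exact (mul_le_mul h7 (mul_le_mul h0 h3 (abs_nonneg _) hβ0.le) (by positivity)
      hβ0.le).trans_eq (by ring)
  have t5 : |a8 * (a0 * c4)| ≤ r * β ^ 3 := by
    rw [abs_mul, abs_mul]
    exact (mul_le_mul h8 (mul_le_mul h0 h4 (abs_nonneg _) hβ0.le) (by positivity)
      hβ0.le).trans_eq (by ring)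
  have g1 : 8 * (r * β) ≤ r * β ^ 2 := by
    have e2 : r * β ^ 2 = β * (r * β) := by ring
    rw [e2]
    exact mul_le_mul_of_nonneg_right hβ hrb.le
  have g2 : 8 * (r * β ^ 2) ≤ r * β ^ 3 := by
    have e2 : r * β ^ 3 = β * (r * β ^ 2) := by ring
    rw [e2]
    exact mul_le_mul_of_nonneg_right hβ (by positivity)
  rw [e]
  have s1 := abs_add_le (c11 - q + (q - (c11 - a0 * c10 - a7 * (c5 - a0 * c3) -
      a8 * (c6 - a0 * c4))) - a0 * c10 + a7 * (a0 * c3)) (a8 * (a0 * c4))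
  have s2 := abs_add_le (c11 - q + (q - (c11 - a0 * c10 - a7 * (c5 - a0 * c3) -
      a8 * (c6 - a0 * c4))) - a0 * c10) (a7 * (a0 * c3))
  have s3 := abs_sub (c11 - q + (q - (c11 - a0 * c10 - a7 * (c5 - a0 * c3) -
      a8 * (c6 - a0 * c4)))) (a0 * c10)
  have s4 := abs_add_le (c11 - q) (q - (c11 - a0 * c10 - a7 * (c5 - a0 * c3) -
      a8 * (c6 - a0 * c4)))
  linarith

theorem alg_w3k {a1 a2 c c' b q r β : ℝ} (hr : 0 < r) (hβ : 8 ≤ β) (h1 : |a1| ≤ β)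
    (hc' : |c'| ≤ r * β) (hb : |b| ≤ r * β) (hq : |q| ≤ r * β)
    (hE : |q - (b + a2 * c + 2 * (a1 * c'))| ≤ r * β) (hτ : β⁻¹ ≤ |a2|) : |c| ≤ r * β ^ 4 := by
  have hβ0 : 0 < β := by linarith
  refine div_thick (m := 3) hr hβ hτ ?_
  have e : a2 * c = q - b - (q - (b + a2 * c + 2 * (a1 * c'))) - 2 * (a1 * c') := by ring
  have hrb : 0 < r * β := mul_pos hr hβ0
  have t3 : |2 * (a1 * c')| ≤ 2 * (r * β ^ 2) := by
    rw [abs_mul, abs_mul, abs_of_pos (two_pos : (0 : ℝ) < 2)]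
    refine mul_le_mul_of_nonneg_left ?_ two_pos.le
    exact (mul_le_mul h1 hc' (abs_nonneg _) hβ0.le).trans_eq (by ring)
  have g1 : 8 * (r * β) ≤ r * β ^ 2 := by
    have e2 : r * β ^ 2 = β * (r * β) := by ring
    rw [e2]
    exact mul_le_mul_of_nonneg_right hβ hrb.le
  have g2 : 8 * (r * β ^ 2) ≤ r * β ^ 3 := by
    have e2 : r * β ^ 3 = β * (r * β ^ 2) := by ring
    rw [e2]
    exact mul_le_mul_of_nonneg_right hβ (by positivity)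
  rw [e]
  have s1 := abs_sub (q - b - (q - (b + a2 * c + 2 * (a1 * c')))) (2 * (a1 * c'))
  have s2 := abs_sub (q - b) (q - (b + a2 * c + 2 * (a1 * c')))
  have s3 := abs_sub q b
  linarith

end alg

/-! ### the facts over the laws of the light chart -/

section inst

open Crest.Agent.R116.EvL504 (evoS LvS SL)
open Crest.Agent.R116.Kr710 (LLaw)

/-- **the direction of the slab is fixed**: `(u, v)` is orthogonal to `{3, 4}`, `{5, 6}` and to the own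
motion of `{7, 8}`. -/
structure Dir (B : Base) (G : ℕ → RCfg (Fin 12)) (own : ℕ → ℕ → ℕ → ℕ → Fin 12 → ℝ)
    (u v : ℕ → ℝ) (x : ℝ) : Prop where
  unit : ∀ n, u n ^ 2 + v n ^ 2 = 1
  tc : ∀ ε : ℝ, 0 < ε → ∀ᶠ n in (U : Filter ℕ), ∀ k i l, (i, k) ∈ (G n).I → (l, k) ∈ (G n).I →
    |u n * (G n).rel k i l 3 + v n * (G n).rel k i l 4| ≤ B.d n ^ (x - ε)
  tx : ∀ ε : ℝ, 0 < ε → ∀ᶠ n in (U : Filter ℕ), ∀ k i l, (i, k) ∈ (G n).I → (l, k) ∈ (G n).I →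
    |u n * (G n).rel k i l 5 + v n * (G n).rel k i l 6| ≤ B.d n ^ (x - ε)
  tow : ∀ ε : ℝ, 0 < ε → ∀ᶠ n in (U : Filter ℕ), ∀ i k0 k, (i, k0) ∈ (G n).I →
    (i, k) ∈ (G n).I → |u n * own n i k0 k 7 + v n * own n i k0 k 8| ≤ B.d n ^ (x - ε)

/-- **linear modulus of the own motion of the slot `j`** (thresholds `ρ^t`, `t ≤ x1`) -/
def OwnThin (B : Base) (G : ℕ → RCfg (Fin 12)) (own : ℕ → ℕ → ℕ → ℕ → Fin 12 → ℝ) (j : Fin 12)
    (γ x1 : ℝ) : Prop :=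
  ∀ t : ℝ, 0 < t → t ≤ x1 → ∀ ε : ℝ, 0 < ε → ∀ᶠ n in (U : Filter ℕ), ∀ i k0, (i, k0) ∈ (G n).I →
    ∀ T ⊆ (G n).Z, (∀ k ∈ T, (i, k) ∈ (G n).I ∧ |own n i k0 k j| ≤ B.d n ^ t) →
    (T.card : ℝ) ≤ B.d n ^ (γ * t - ε) * ((G n).Z.card : ℝ)

variable {B : Base} {G : ℕ → RCfg (Fin 12)} {Leg : Set (Fin 12 → ℝ)} {ν : (Fin 12 → ℝ) → ℝ}
  {σ R D x0 : ℝ} {S : Finset (Fin 12)} {own : ℕ → ℕ → ℕ → ℕ → Fin 12 → ℝ}

/-- **`hal` from the linear modulus** -/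
theorem hal_of_own (H : RModel B G σ R Leg ν D) {j : Fin 12} {γ x1 : ℝ} (hγ : 0 < γ)
    (hx1 : 0 < x1) (hx0 : 0 < x0) (hO : OwnThin B G own j γ x1) (k0 : ℕ → ℕ)
    (τ : ℕ → ℕ → ℕ → ℝ)
    (hcmp : ∀ ε : ℝ, 0 < ε → ∀ᶠ n in (U : Filter ℕ), ∀ i k, (i, k0 n) ∈ (G n).I →
      (i, k) ∈ (G n).I → |own n i (k0 n) k j| ≤ |τ n i k| + B.d n ^ (x0 - ε)) :
    ∃ C1 : ℝ, 2 ≤ C1 ∧ ∀ ε : ℝ, 0 < ε → ∀ᶠ n in (U : Filter ℕ), ∀ i, (i, k0 n) ∈ (G n).I →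
      ∀ T ⊆ (G n).Z,
      (∀ k ∈ (G n).Z, (i, k) ∈ (G n).I → B.d n ^ (C1 * ε) ≤ |τ n i k| → k ∈ T) →
      B.d n ^ (C1 * ε) * ((G n).Z.card : ℝ) ≤ (T.card : ℝ) := by
  classical
  obtain ⟨C1, hC⟩ : ∃ C1 : ℝ, C1 = 2 + 3 / γ := ⟨_, rfl⟩
  have h3γ : 0 < 3 / γ := by positivity
  have hC2 : 2 ≤ C1 := by linarith
  have hγC : γ * (C1 - 1) = γ + 3 := by rw [hC]; field_simp; ring
  refine ⟨C1, hC2, fun ε hε => ?_⟩
  set e' : ℝ := min ε (min x0 x1 / (2 * C1)) with he'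
  have hm : 0 < min x0 x1 := lt_min hx0 hx1
  have he'0 : 0 < e' := lt_min hε (by positivity)
  have he'1 : e' ≤ ε := min_le_left _ _
  have he'2 : 2 * C1 * e' ≤ min x0 x1 := by
    have h1 : e' ≤ min x0 x1 / (2 * C1) := min_le_right _ _
    rw [le_div_iff₀ (by positivity)] at h1
    linarith
  have he3 : 2 * C1 * e' ≤ x0 := he'2.trans (min_le_left _ _)
  have he4 : 2 * C1 * e' ≤ x1 := he'2.trans (min_le_right _ _)
  have t0 : 0 < (C1 - 1) * e' := by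
    have : 0 < C1 - 1 := by linarith
    positivity
  have t1 : (C1 - 1) * e' ≤ x1 := by nlinarith
  filter_upwards [H.line e' he'0, hO _ t0 t1 e' he'0, ev_const_le B he'0 2, hcmp e' he'0]
    with n h1 h2 h3 h4 i hi T hT1 hT2
  have hiL : i ∈ (G n).L := (H.memL hi)
  have hpow : ∀ t : ℝ, 0 < B.d n ^ t := fun t => rpos B n t
  have b0 : 2 * B.d n ^ (C1 * e') ≤ B.d n ^ ((C1 - 1) * e') := by
    have e : B.d n ^ ((C1 - 1) * e') = B.d n ^ (-e') * B.d n ^ (C1 * e') := by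
      rw [← rpow_add']; congr 1; ring
    rw [e]
    exact mul_le_mul_of_nonneg_right h3 (hpow _).le
  have b1 : B.d n ^ (x0 - e') ≤ B.d n ^ (C1 * e') := rpow_anti B n (by nlinarith)
  have a1 := h1 i hiL
  have a2 := h2 i (k0 n) hi
    (((G n).Z).filter fun k => (i, k) ∈ (G n).I ∧ |τ n i k| < B.d n ^ (C1 * e'))
    (Finset.filter_subset _ _) (fun k hk => by
      obtain ⟨c1, c2, c3⟩ := Finset.mem_filter.1 hk
      refine ⟨c2, (h4 i k hi c2).trans ?_⟩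
      linarith)
  have a3 : ((G n).hts i).card ≤ T.card +
      (((G n).Z).filter fun k => (i, k) ∈ (G n).I ∧ |τ n i k| < B.d n ^ (C1 * e')).card := by
    refine le_trans (Finset.card_le_card ?_) (Finset.card_union_le _ _)
    intro k hk
    obtain ⟨b1, b2⟩ := RCfg.mem_hts.1 hk
    rcases lt_or_ge |τ n i k| (B.d n ^ (C1 * e')) with hlt | hge
    · exact Finset.mem_union_right _ (Finset.mem_filter.2 ⟨b1, b2, hlt⟩)
    · refine Finset.mem_union_left _ (hT2 k b1 b2 (le_trans ?_ hge))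
      exact rpow_anti B n (by nlinarith)
  have a3' : (((G n).hts i).card : ℝ) ≤ (T.card : ℝ) +
      (((((G n).Z).filter fun k => (i, k) ∈ (G n).I ∧ |τ n i k| < B.d n ^ (C1 * e')).card : ℕ) :
        ℝ) := by
    exact_mod_cast a3
  have hZ : (0 : ℝ) ≤ ((G n).Z.card : ℝ) := Nat.cast_nonneg _
  have a4 : B.d n ^ (γ * ((C1 - 1) * e') - e') ≤ B.d n ^ (2 * e') := rpow_anti B n (by
    rw [← mul_assoc, hγC]
    nlinarith)
  have a5 : 2 * B.d n ^ (2 * e') ≤ B.d n ^ e' := by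
    have : B.d n ^ e' = B.d n ^ (-e') * B.d n ^ (2 * e') := by
      rw [← rpow_add']; congr 1; ring
    rw [this]
    exact mul_le_mul_of_nonneg_right h3 (hpow _).le
  have a6 : B.d n ^ (C1 * ε) ≤ B.d n ^ (2 * e') := rpow_anti B n (by nlinarith)
  have m1 := mul_le_mul_of_nonneg_right a4 hZ
  have m2 := mul_le_mul_of_nonneg_right a5 hZ
  have m3 := mul_le_mul_of_nonneg_right a6 hZ
  linarith

/-- all bounds of one pair of lines at two heights: `a` = own motion, `c` = position at the pin,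
`w` = position at the other height -/
structure Ev (S : Finset (Fin 12)) (pS : Fin 12 → ℝ) (ρ x0 β : ℝ) (a c w : Fin 12 → ℝ) :
    Prop where
  β8 : 8 ≤ β
  cS : ∀ s ∈ S, c s = 0
  wS : ∀ s ∈ S, w s = 0
  a1 : ∀ s, |a s| ≤ β
  w1 : ∀ s, |w s| ≤ β
  cb : ∀ s, |c s| ≤ ρ ^ pS s * β
  e : ∀ s, s ∉ S → |w s - evoS S a c s| ≤ ρ ^ x0 * β

theorem exists_Ev (H : RUnif B G Leg ν D) (L : LLaw B G S own x0) {i0 k0 : ℕ → ℕ}
    (h0 : ∀ᶠ n in (U : Filter ℕ), (i0 n, k0 n) ∈ (G n).I) {pS : Fin 12 → ℝ} (lS : pS ∈ Leg)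
    {K : ℝ} (hK : D * D + 1 ≤ K) {ε : ℝ} (hε : 0 < ε) : ∀ᶠ n in (U : Filter ℕ), ∀ k,
      ∀ i ∈ (G n).box pS ε (i0 n) (k0 n), ∀ l ∈ (G n).box pS ε (i0 n) (k0 n),
      (i, k) ∈ (G n).I → (l, k) ∈ (G n).I →
      Ev S pS (B.d n) x0 (B.d n ^ (-(K * ε))) (own n i (k0 n) k) ((G n).rel (k0 n) i l)
        ((G n).rel k i l) := by
  have hD := H.D1
  filter_upwards [box_pair H i0 k0 h0 pS lS hε, L.bd ε hε, L.ownbd ε hε, L.evo ε hε,
    ev_const_le B hε 8] with n g1 g2 g3 g4 g8 k i hi l hl h1 h2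
  have I1 := H.memSlice.1 (RCfg.mem_box.1 hi).1
  have I2 := H.memSlice.1 (RCfg.mem_box.1 hl).1
  have hK1 : 1 ≤ K := by nlinarith
  have e1 : B.d n ^ (-ε) ≤ B.d n ^ (-(K * ε)) := rpow_anti B n (by nlinarith)
  refine ⟨g8.trans e1, fun s hs => L.relS n _ _ _ s hs, fun s hs => L.relS n _ _ _ s hs,
    fun s => (g3 i _ _ I1 h1 s).trans e1, fun s => (g2 _ _ _ h1 h2 s).trans e1, fun s => ?_,
    fun s hs => ?_⟩
  · have := g1 i hi l hl s
    rw [H.base n] at this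
    refine this.trans ?_
    rw [← rpow_add']
    exact rpow_anti B n (by nlinarith)
  · refine (g4 _ _ _ _ I1 I2 h1 h2 s hs).trans ?_
    rw [← rpow_add']
    exact rpow_anti B n (by nlinarith)

/-- **which slots are still fine at the other heights** -/
def Low (S : Finset (Fin 12)) (pS pT : Fin 12 → ℝ) (x0 : ℝ) : Prop :=
  ∀ j, j ∈ S ∨ pT j ≤ 0 ∨ (j = 1 ∧ pT j ≤ pS 1 ∧ pT j ≤ x0) ∨
    (j = 2 ∧ (1 : Fin 12) ∉ S ∧ pT j ≤ pS 2 ∧ pT j ≤ pS 1 ∧ pT j ≤ x0)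

theorem Ev.low {pS pT : Fin 12 → ℝ} {ρ β : ℝ} {a c w : Fin 12 → ℝ} (hρ : 0 < ρ) (hρ1 : ρ ≤ 1)
    (h : Ev S pS ρ x0 β a c w) (h0 : (0 : Fin 12) ∈ S) (hL : Low S pS pT x0) (j : Fin 12) :
    |w j| ≤ ρ ^ pT j * β ^ 3 := by
  have hβ := h.β8
  have hβ0 : 0 < β := by linarith
  have p := fun t : ℝ => Real.rpow_pos_of_pos hρ t
  have mono : ∀ {s t : ℝ}, s ≤ t → ρ ^ t ≤ ρ ^ s := fun hst =>
    Real.rpow_le_rpow_of_exponent_ge hρ hρ1 hst
  have q1 : β ≤ β ^ 3 := by nlinarith [sq_nonneg β, mul_pos hβ0 hβ0]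
  have q2 : 4 * β ^ 2 ≤ β ^ 3 := by nlinarith [mul_pos hβ0 hβ0]
  have q3 : β ≤ β ^ 2 := by nlinarith
  by_cases hjS : j ∈ S
  · rw [h.wS j hjS, abs_zero]
    have := p (pT j)
    positivity
  rcases hL j with h1 | h1 | ⟨rfl, h1, h2⟩ | ⟨rfl, h3, h4, h5, h6⟩
  · exact absurd h1 hjS
  · refine (h.w1 j).trans ?_
    have e1 : (1 : ℝ) ≤ ρ ^ pT j := by
      have := mono h1
      rwa [Real.rpow_zero] at this
    nlinarith
  · have e1 := h.e 1 hjS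
    rw [evoS_1 _ _ hjS] at e1
    have e2 := h.cb 1
    have e3 : |w 1| ≤ |w 1 - c 1| + |c 1| := by
      have := abs_add_le (w 1 - c 1) (c 1)
      rwa [sub_add_cancel] at this
    have e4 := mul_le_mul_of_nonneg_right (mono h1) hβ0.le
    have e5 := mul_le_mul_of_nonneg_right (mono h2) hβ0.le
    have e6 : 2 * β ≤ β ^ 3 := by nlinarith
    have e7 := mul_le_mul_of_nonneg_left e6 (p (pT 1)).le
    linarith
  · have e1 := h.e 2 hjS
    rw [evoS_2 _ _ h0 h3 hjS] at e1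
    have e2 := h.cb 2
    have e3 : |w 2| ≤ |w 2 - (c 2 + 2 * (a 0 * c 1))| + |c 2| + 2 * |a 0 * c 1| := by
      have t1 := abs_add_le (w 2 - (c 2 + 2 * (a 0 * c 1))) (c 2 + 2 * (a 0 * c 1))
      rw [sub_add_cancel] at t1
      have t2 := abs_add_le (c 2) (2 * (a 0 * c 1))
      rw [abs_mul 2, abs_of_pos (two_pos : (0 : ℝ) < 2)] at t2
      linarith
    have e4 := mul_le_mul_of_nonneg_right (mono h4) hβ0.le
    have e5 := mul_le_mul_of_nonneg_right (mono h6) hβ0.le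
    have e8 : |a 0 * c 1| ≤ ρ ^ pT 2 * β ^ 2 := by
      rw [abs_mul]
      have t1 := mul_le_mul (h.a1 0) (h.cb 1) (abs_nonneg _) hβ0.le
      have t2 := mul_le_mul_of_nonneg_right (mono h5) (sq_nonneg β)
      linarith
    have e6 : 2 * β + 2 * β ^ 2 ≤ β ^ 3 := by nlinarith
    have e7 := mul_le_mul_of_nonneg_left e6 (p (pT 2)).le
    linarith

/-- `|τ| ≥ β⁻¹` separates `p'`: the hypothesis of `twist_core` at one pair -/
def Sep (B : Base) (G : ℕ → RCfg (Fin 12)) (pS p' r : Fin 12 → ℝ) (i0 k0 : ℕ → ℕ)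
    (τ : ℕ → ℕ → ℕ → ℝ) (K0 : ℝ) (m : ℕ) : Prop :=
  ∀ K : ℝ, K0 ≤ K → ∀ ε : ℝ, 0 < ε → ∀ᶠ n in (U : Filter ℕ), ∀ k,
    ∀ i ∈ (G n).box pS ε (i0 n) (k0 n), ∀ l ∈ (G n).box pS ε (i0 n) (k0 n),
    (i, k) ∈ (G n).I → (l, k) ∈ (G n).I → (B.d n ^ (-(K * ε)))⁻¹ ≤ |τ n i k| →
    (∀ s, |(G n).rel k i l s| ≤ B.d n ^ r s * B.d n ^ (-(K * ε))) →
    ∀ s, |(G n).rel (k0 n) i l s| ≤ B.d n ^ p' s * (B.d n ^ (-(K * ε))) ^ m

theorem pow_eps (B : Base) (n : ℕ) (t K ε : ℝ) (m : ℕ) :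
    B.d n ^ t * (B.d n ^ (-(K * ε))) ^ m = B.d n ^ (t - (m : ℝ) * K * ε) := by
  rw [← Real.rpow_natCast, ← Real.rpow_mul (B.pos n).le, ← rpow_add']
  congr 1; ring

/-- **the core**: any set of lines `S0` of the fibre -/
theorem twist_core (H : RModel B G σ R Leg ν D) (L : LLaw B G S own x0) (i0 k0 : ℕ → ℕ)
    (h0 : ∀ᶠ n in (U : Filter ℕ), (i0 n, k0 n) ∈ (G n).I) (pS p' pT r : Fin 12 → ℝ)
    (hpS : pS ∈ Leg) (hp' : p' ∈ Leg) (hpT : pT ∈ Leg) (hr : r ∈ Leg) (hTr : ∀ j, pT j ≤ r j)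
    (hlow : Low S pS pT x0) (τ : ℕ → ℕ → ℕ → ℝ) {C1 : ℝ} (hC1 : 2 ≤ C1)
    (S0 : ℝ → ℕ → Finset ℕ)
    (hS0 : ∀ ε : ℝ, 0 < ε → ∀ᶠ n in (U : Filter ℕ), S0 ε n ⊆ (G n).box pS ε (i0 n) (k0 n))
    (hcard : ∀ ε : ℝ, 0 < ε → ∀ᶠ n in (U : Filter ℕ),
      B.d n ^ (-ν pS + C1 * ε) ≤ ((S0 ε n).card : ℝ))
    (hal : ∀ ε : ℝ, 0 < ε → ∀ᶠ n in (U : Filter ℕ), ∀ i ∈ S0 ε n, ∀ T ⊆ (G n).Z,
      (∀ k ∈ (G n).Z, (i, k) ∈ (G n).I → B.d n ^ (C1 * ε) ≤ |τ n i k| → k ∈ T) →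
      B.d n ^ (C1 * ε) * ((G n).Z.card : ℝ) ≤ (T.card : ℝ))
    {m : ℕ} {K0 : ℝ} (hsep : Sep B G pS p' r i0 k0 τ K0 m) :
    ν pS - ν p' ≤ ν pT - ν r := by
  classical
  have hD := H.D1
  have hU := H.toRUnif
  obtain ⟨M, hM⟩ : ∃ M : ℝ, M = 3 * (D * D + 1) + C1 := ⟨_, rfl⟩
  have hM0 : C1 ≤ M := by nlinarith
  refine two_heights_R hU k0 S0 p' pT r hp' hpT hr hTr (fun n => (G n).Z)
    (Eventually.of_forall fun n => ?_) (a := ν pS) (C1 := M) (by linarith) ?_ ?_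
    (fun ε n i k => B.d n ^ (C1 * ε) ≤ |τ n i k|) ?_ ?_ ?_
  · obtain ⟨⟨i1, k1⟩, hI1⟩ := H.nonempty n
    exact ⟨k1, H.memZ hI1⟩
  · intro ε hε
    filter_upwards [hS0 ε hε] with n hn i hi
    exact H.memSlice.1 (RCfg.box_subset_slice (hn hi))
  · intro ε hε
    filter_upwards [hcard ε hε] with n hn
    exact (rpow_anti B n (by nlinarith)).trans hn
  · intro ε hε
    filter_upwards [hal ε hε] with n hn i hi T hT1 hT2
    refine le_trans ?_ (hn i hi T hT1 hT2)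
    exact mul_le_mul_of_nonneg_right (rpow_anti B n (by nlinarith)) (Nat.cast_nonneg _)
  · intro ε hε
    filter_upwards [hS0 ε hε, exists_Ev hU L h0 hpS (le_refl (D * D + 1)) hε]
      with n hn hEv k hk i hi l hl h1 h2 j
    have := (hEv k i (hn hi) l (hn hl) h1 h2).low (B.pos n) (B.lt n).le L.S0 hlow j
    rw [H.base n]
    refine this.trans ?_
    rw [pow_eps]
    refine rpow_anti B n ?_
    push_cast
    nlinarith
  · intro C2 hC2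
    obtain ⟨K, hK⟩ : ∃ K : ℝ, K = |K0| + C1 + C2 + 1 := ⟨_, rfl⟩
    have hK0 : K0 ≤ K := by linarith [le_abs_self K0]
    have hKp : 0 < K := by linarith [abs_nonneg K0]
    refine ⟨(m : ℝ) * K + 1, by positivity, fun ε hε => ?_⟩
    filter_upwards [hS0 ε hε, hsep K hK0 ε hε] with n hn hsn k hk i hi l hl h1 h2 g1 g2 hlr j
    have a1 : (B.d n ^ (-(K * ε)))⁻¹ ≤ |τ n i k| := by
      refine le_trans ?_ g1
      rw [← Real.rpow_neg (B.pos n).le, neg_neg]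
      exact rpow_anti B n (by nlinarith [abs_nonneg K0])
    have a2 : ∀ s, |(G n).rel k i l s| ≤ B.d n ^ r s * B.d n ^ (-(K * ε)) := by
      intro s
      have := hlr s
      rw [H.base n] at this
      refine this.trans ?_
      rw [← rpow_add']
      exact rpow_anti B n (by nlinarith [abs_nonneg K0])
    have := hsn k i (hn hi) l (hn hl) h1 h2 a1 a2 j
    rw [H.base n]
    refine this.trans ?_
    rw [pow_eps]
    exact rpow_anti B n (by nlinarith)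

/-- the tied components against the twist -/
theorem Dir.cmp {u v : ℕ → ℝ} (T : Dir B G own u v x0) (k0 : ℕ → ℕ) {j : Fin 12}
    (hj : j = 7 ∨ j = 8) : ∀ ε : ℝ, 0 < ε → ∀ᶠ n in (U : Filter ℕ), ∀ i k, (i, k0 n) ∈ (G n).I →
      (i, k) ∈ (G n).I → |own n i (k0 n) k j| ≤
        |-v n * own n i (k0 n) k 7 + u n * own n i (k0 n) k 8| + B.d n ^ (x0 - ε) := by
  intro ε hε
  filter_upwards [T.tow ε hε] with n hn i k h1 h2
  have huv := T.unit n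
  have hu : |u n| ≤ 1 := abs_le.2 ⟨by nlinarith [sq_nonneg (v n)], by nlinarith [sq_nonneg (v n)]⟩
  have hv : |v n| ≤ 1 := abs_le.2 ⟨by nlinarith [sq_nonneg (u n)], by nlinarith [sq_nonneg (u n)]⟩
  have a1 := hn i _ _ h1 h2
  set a7 := own n i (k0 n) k 7
  set a8 := own n i (k0 n) k 8
  rcases hj with rfl | rfl
  · have e : a7 = u n * (u n * a7 + v n * a8) - v n * (-v n * a7 + u n * a8) := by
      linear_combination (-a7) * huv
    show |a7| ≤ _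
    rw [e]
    refine (abs_sub _ _).trans ?_
    rw [abs_mul, abs_mul (v n)]
    have t1 := mul_le_mul hu a1 (abs_nonneg _) zero_le_one
    have t2 := mul_le_mul_of_nonneg_right hv (abs_nonneg (-v n * a7 + u n * a8))
    rw [← e]
    linarith
  · have e : a8 = v n * (u n * a7 + v n * a8) + u n * (-v n * a7 + u n * a8) := by
      linear_combination (-a8) * huv
    show |a8| ≤ _
    rw [e]
    refine (abs_add_le _ _).trans ?_
    rw [abs_mul, abs_mul (u n)]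
    have t1 := mul_le_mul hv a1 (abs_nonneg _) zero_le_one
    have t2 := mul_le_mul_of_nonneg_right hu (abs_nonneg (-v n * a7 + u n * a8))
    rw [← e]
    linarith

theorem sep_w3 (H : RUnif B G Leg ν D) (L : LLaw B G S own x0) {u v : ℕ → ℝ}
    (T : Dir B G own u v x0) (m7 : (7 : Fin 12) ∈ S) (m8 : (8 : Fin 12) ∈ S)
    (m1 : (1 : Fin 12) ∉ S) (m2 : (2 : Fin 12) ∉ S) {i0 k0 : ℕ → ℕ}
    (h0 : ∀ᶠ n in (U : Filter ℕ), (i0 n, k0 n) ∈ (G n).I) {pS p' r : Fin 12 → ℝ} (hpS : pS ∈ Leg)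
    {y : ℝ} (hy : y ≤ x0) (hS10 : y ≤ pS 10) (hr10 : y ≤ r 10) (hp3 : p' 3 ≤ y)
    (hp4 : p' 4 ≤ y) (hp : ∀ s, s ≠ 3 → s ≠ 4 → p' s ≤ pS s) :
    Sep B G pS p' r i0 k0
      (fun n i k => -v n * own n i (k0 n) k 7 + u n * own n i (k0 n) k 8) (D * D + 1) 5 := by
  intro K hK ε hε
  have hD := H.D1
  have hK1 : 1 ≤ K := by nlinarith
  filter_upwards [exists_Ev H L h0 hpS hK hε, T.tc ε hε] with n hEv htc k i hi l hl h1 h2 hτ hr s
  have E := hEv k i hi l hl h1 h2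
  have I1 := H.memSlice.1 (RCfg.mem_box.1 hi).1
  have I2 := H.memSlice.1 (RCfg.mem_box.1 hl).1
  set β := B.d n ^ (-(K * ε)) with hβd
  have hβ := E.β8
  have hβ0 : 0 < β := by linarith
  have hpow : ∀ t : ℝ, 0 < B.d n ^ t := fun t => rpos B n t
  have up : ∀ {t : ℝ}, y ≤ t → B.d n ^ t * β ≤ B.d n ^ y * β := fun ht =>
    mul_le_mul_of_nonneg_right (rpow_anti B n ht) hβ0.le
  have e10 := E.e 10 (fun h => absurd (L.SSL h) (by decide))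
  rw [evoS_10 _ _ L.SSL] at e10
  have l7 : LvS S (own n i (k0 n) k) 7 = own n i (k0 n) k 7 := if_pos m7
  have l8 : LvS S (own n i (k0 n) k) 8 = own n i (k0 n) k 8 := if_pos m8
  have l1 : LvS S (own n i (k0 n) k) 1 = 0 := if_neg m1
  have l2 : LvS S (own n i (k0 n) k) 2 = 0 := if_neg m2
  rw [l7, l8, l1, l2, zero_mul, zero_mul, mul_zero, sub_zero, sub_zero] at e10
  have c1 : |u n * (G n).rel (k0 n) i l 3 + v n * (G n).rel (k0 n) i l 4| ≤ B.d n ^ y * β := by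
    refine (htc _ _ _ I1 I2).trans ?_
    rw [hβd, ← rpow_add']
    exact rpow_anti B n (by nlinarith)
  obtain ⟨r3, r4⟩ := alg_w3 (hpow y) hβ (T.unit n) (E.a1 7) (E.a1 8) c1
    ((E.cb 10).trans (up hS10)) ((hr 10).trans (up hr10)) (e10.trans (up hy)) hτ
  have b5 : β ≤ β ^ 5 := by
    calc β = β ^ 1 := (pow_one β).symm
      _ ≤ β ^ 5 := pow_le_pow_right₀ (by linarith) (by norm_num)
  by_cases hs3 : s = 3
  · subst hs3
    exact r3.trans (mul_le_mul_of_nonneg_right (rpow_anti B n hp3) (by positivity))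
  by_cases hs4 : s = 4
  · subst hs4
    exact r4.trans (mul_le_mul_of_nonneg_right (rpow_anti B n hp4) (by positivity))
  · refine (E.cb s).trans (mul_le_mul (rpow_anti B n (hp s hs3 hs4)) b5 hβ0.le (hpow _).le)

theorem sep_w2 (H : RUnif B G Leg ν D) (L : LLaw B G S own x0) {u v : ℕ → ℝ}
    (T : Dir B G own u v x0) (m7 : (7 : Fin 12) ∈ S) (m8 : (8 : Fin 12) ∈ S)
    (m1 : (1 : Fin 12) ∉ S) (m2 : (2 : Fin 12) ∉ S) {i0 k0 : ℕ → ℕ}
    (h0 : ∀ᶠ n in (U : Filter ℕ), (i0 n, k0 n) ∈ (G n).I) {pS p' r : Fin 12 → ℝ} (hpS : pS ∈ Leg)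
    {y : ℝ} (hy : y ≤ x0) (hS3 : y ≤ pS 3) (hS4 : y ≤ pS 4) (hS10 : y ≤ pS 10)
    (hS11 : y ≤ pS 11) (hr11 : y ≤ r 11) (hp5 : p' 5 ≤ y)
    (hp6 : p' 6 ≤ y) (hp : ∀ s, s ≠ 5 → s ≠ 6 → p' s ≤ pS s) :
    Sep B G pS p' r i0 k0
      (fun n i k => -v n * own n i (k0 n) k 7 + u n * own n i (k0 n) k 8) (D * D + 1) 6 := by
  intro K hK ε hε
  have hD := H.D1
  have hK1 : 1 ≤ K := by nlinarith
  filter_upwards [exists_Ev H L h0 hpS hK hε, T.tx ε hε] with n hEv htx k i hi l hl h1 h2 hτ hr s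
  have E := hEv k i hi l hl h1 h2
  have I1 := H.memSlice.1 (RCfg.mem_box.1 hi).1
  have I2 := H.memSlice.1 (RCfg.mem_box.1 hl).1
  set β := B.d n ^ (-(K * ε)) with hβd
  have hβ := E.β8
  have hβ0 : 0 < β := by linarith
  have hpow : ∀ t : ℝ, 0 < B.d n ^ t := fun t => rpos B n t
  have up : ∀ {t : ℝ}, y ≤ t → B.d n ^ t * β ≤ B.d n ^ y * β := fun ht =>
    mul_le_mul_of_nonneg_right (rpow_anti B n ht) hβ0.le
  have e11 := E.e 11 (fun h => absurd (L.SSL h) (by decide))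
  rw [evoS_11 _ _ L.SSL L.S0] at e11
  have l7 : LvS S (own n i (k0 n) k) 7 = own n i (k0 n) k 7 := if_pos m7
  have l8 : LvS S (own n i (k0 n) k) 8 = own n i (k0 n) k 8 := if_pos m8
  have l1 : LvS S (own n i (k0 n) k) 1 = 0 := if_neg m1
  have l2 : LvS S (own n i (k0 n) k) 2 = 0 := if_neg m2
  rw [l7, l8, l1, l2, zero_mul, zero_mul, sub_zero, sub_zero] at e11
  have c1 : |u n * (G n).rel (k0 n) i l 5 + v n * (G n).rel (k0 n) i l 6| ≤ B.d n ^ y * β := by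
    refine (htx _ _ _ I1 I2).trans ?_
    rw [hβd, ← rpow_add']
    exact rpow_anti B n (by nlinarith)
  obtain ⟨r3, r4⟩ := alg_w2 (hpow y) hβ (T.unit n) (E.a1 0) (E.a1 7) (E.a1 8) c1
    ((E.cb 3).trans (up hS3)) ((E.cb 4).trans (up hS4)) ((E.cb 10).trans (up hS10))
    ((E.cb 11).trans (up hS11)) ((hr 11).trans (up hr11)) (e11.trans (up hy)) hτ
  have b5 : β ≤ β ^ 6 := by
    calc β = β ^ 1 := (pow_one β).symm
      _ ≤ β ^ 6 := pow_le_pow_right₀ (by linarith) (by norm_num)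
  by_cases hs3 : s = 5
  · subst hs3
    exact r3.trans (mul_le_mul_of_nonneg_right (rpow_anti B n hp5) (by positivity))
  by_cases hs4 : s = 6
  · subst hs4
    exact r4.trans (mul_le_mul_of_nonneg_right (rpow_anti B n hp6) (by positivity))
  · refine (E.cb s).trans (mul_le_mul (rpow_anti B n (hp s hs3 hs4)) b5 hβ0.le (hpow _).le)

theorem sep_w3k (H : RUnif B G Leg ν D) (L : LLaw B G S own x0) (m2 : (2 : Fin 12) ∈ S)
    (m7 : (7 : Fin 12) ∉ S) (m8 : (8 : Fin 12) ∉ S) {i0 k0 : ℕ → ℕ}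
    (h0 : ∀ᶠ n in (U : Filter ℕ), (i0 n, k0 n) ∈ (G n).I) {pS p' r : Fin 12 → ℝ} (hpS : pS ∈ Leg)
    {y : ℝ} (hy : y ≤ x0) (hS5 : y ≤ pS 5) (hS6 : y ≤ pS 6) (hS7 : y ≤ pS 7) (hS8 : y ≤ pS 8)
    (hr7 : y ≤ r 7) (hr8 : y ≤ r 8) (hp3 : p' 3 ≤ y) (hp4 : p' 4 ≤ y)
    (hp : ∀ s, s ≠ 3 → s ≠ 4 → p' s ≤ pS s) :
    Sep B G pS p' r i0 k0 (fun n i k => own n i (k0 n) k 2) (D * D + 1) 4 := by
  intro K hK ε hε
  have hD := H.D1
  have hK1 : 1 ≤ K := by nlinarith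
  filter_upwards [exists_Ev H L h0 hpS hK hε] with n hEv k i hi l hl h1 h2 hτ hr s
  have E := hEv k i hi l hl h1 h2
  set β := B.d n ^ (-(K * ε)) with hβd
  have hβ := E.β8
  have hβ0 : 0 < β := by linarith
  have hpow : ∀ t : ℝ, 0 < B.d n ^ t := fun t => rpos B n t
  have up : ∀ {t : ℝ}, y ≤ t → B.d n ^ t * β ≤ B.d n ^ y * β := fun ht =>
    mul_le_mul_of_nonneg_right (rpow_anti B n ht) hβ0.le
  have e7 := E.e 7 m7
  have e8 := E.e 8 m8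
  rw [evoS_7 _ _ L.SSL m7] at e7
  rw [evoS_8 _ _ L.SSL m8] at e8
  have l2 : LvS S (own n i (k0 n) k) 2 = own n i (k0 n) k 2 := if_pos m2
  have l1 : |LvS S (own n i (k0 n) k) 1| ≤ β := by
    unfold LvS
    split_ifs
    · exact E.a1 1
    · simpa using hβ0.le
  rw [l2] at e7 e8
  have r3 := alg_w3k (hpow y) hβ l1 ((E.cb 5).trans (up hS5)) ((E.cb 7).trans (up hS7))
    ((hr 7).trans (up hr7)) (e7.trans (up hy)) hτ
  have r4 := alg_w3k (hpow y) hβ l1 ((E.cb 6).trans (up hS6)) ((E.cb 8).trans (up hS8))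
    ((hr 8).trans (up hr8)) (e8.trans (up hy)) hτ
  have b5 : β ≤ β ^ 4 := by
    calc β = β ^ 1 := (pow_one β).symm
      _ ≤ β ^ 4 := pow_le_pow_right₀ (by linarith) (by norm_num)
  by_cases hs3 : s = 3
  · subst hs3
    exact r3.trans (mul_le_mul_of_nonneg_right (rpow_anti B n hp3) (by positivity))
  by_cases hs4 : s = 4
  · subst hs4
    exact r4.trans (mul_le_mul_of_nonneg_right (rpow_anti B n hp4) (by positivity))
  · refine (E.cb s).trans (mul_le_mul (rpow_anti B n (hp s hs3 hs4)) b5 hβ0.le (hpow _).le)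

/-- `twist_core` for the whole fibre -/
theorem twist_fib (H : RModel B G σ R Leg ν D) (L : LLaw B G S own x0) (hx0 : 0 < x0)
    (i0 k0 : ℕ → ℕ) (h0 : ∀ᶠ n in (U : Filter ℕ), (i0 n, k0 n) ∈ (G n).I)
    (pS p' pT r : Fin 12 → ℝ) (hpS : pS ∈ Leg) (hp' : p' ∈ Leg) (hpT : pT ∈ Leg) (hr : r ∈ Leg)
    (hTr : ∀ j, pT j ≤ r j) (hlow : Low S pS pT x0) (τ : ℕ → ℕ → ℕ → ℝ) {j : Fin 12}
    {γ x1 : ℝ} (hγ : 0 < γ) (hx1 : 0 < x1) (hO : OwnThin B G own j γ x1)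
    (hcmp : ∀ ε : ℝ, 0 < ε → ∀ᶠ n in (U : Filter ℕ), ∀ i k, (i, k0 n) ∈ (G n).I →
      (i, k) ∈ (G n).I → |own n i (k0 n) k j| ≤ |τ n i k| + B.d n ^ (x0 - ε))
    {m : ℕ} {K0 : ℝ} (hsep : Sep B G pS p' r i0 k0 τ K0 m) :
    ν pS - ν p' ≤ ν pT - ν r := by
  obtain ⟨C1, hC1, hal⟩ := hal_of_own H hγ hx1 hx0 hO k0 τ hcmp
  refine twist_core H L i0 k0 h0 pS p' pT r hpS hp' hpT hr hTr hlow τ hC1
    (fun ε n => (G n).box pS ε (i0 n) (k0 n)) (fun ε hε => Eventually.of_forall fun n =>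
      Finset.Subset.refl _) ?_ ?_ hsep
  · intro ε hε
    filter_upwards [H.low pS hpS ε hε, h0] with n hn h0n
    exact (rpow_anti B n (by nlinarith)).trans (hn _ _ h0n)
  · intro ε hε
    filter_upwards [hal ε hε] with n hn i hi
    exact hn i (H.memSlice.1 (RCfg.box_subset_slice hi))

/-- **(W3), e-tie: `m ≤ r`.**  Level slots `{0, 7, 8}`.  Fibre `pS` (`C` coarse, `P` at `≥ y`), `p'` =
`pS` with `C` refined to at most `y`; at the other heights `pT` (`Low`), `r ≥ pT` with `P` at `≥ y`: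
`ν pS - ν p' ≤ ν pT - ν r`. -/
theorem w3_e (H : RModel B G σ R Leg ν D) (L : LLaw B G S own x0) (hx0 : 0 < x0)
    {u v : ℕ → ℝ} (T : Dir B G own u v x0) (m7 : (7 : Fin 12) ∈ S) (m8 : (8 : Fin 12) ∈ S)
    (m1 : (1 : Fin 12) ∉ S) (m2 : (2 : Fin 12) ∉ S) {j : Fin 12} (hj : j = 7 ∨ j = 8)
    {γ x1 : ℝ} (hγ : 0 < γ) (hx1 : 0 < x1) (hO : OwnThin B G own j γ x1)
    (pS p' pT r : Fin 12 → ℝ) (hpS : pS ∈ Leg) (hp' : p' ∈ Leg) (hpT : pT ∈ Leg) (hr : r ∈ Leg)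
    (hTr : ∀ j, pT j ≤ r j) (hlow : Low S pS pT x0) {y : ℝ} (hy : y ≤ x0) (hS10 : y ≤ pS 10)
    (hr10 : y ≤ r 10) (hp3 : p' 3 ≤ y) (hp4 : p' 4 ≤ y)
    (hp : ∀ s, s ≠ 3 → s ≠ 4 → p' s ≤ pS s) : ν pS - ν p' ≤ ν pT - ν r := by
  choose q hq using H.nonempty
  have h0 : ∀ᶠ n in (U : Filter ℕ), ((q n).1, (q n).2) ∈ (G n).I :=
    Eventually.of_forall fun n => hq n
  exact twist_fib H L hx0 (fun n => (q n).1) (fun n => (q n).2) h0 pS p' pT r hpS hp' hpT hr hTr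
    hlow _ hγ hx1 hO (T.cmp _ hj) (sep_w3 H.toRUnif L T m7 m8 m1 m2 h0 hpS hy hS10 hr10 hp3 hp4 hp)

/-- **(W2), e-tie: `n ≤ x`** (the rate of `X` is at most the rate of `F`).  Fibre: `X` coarse, `C`, `P`, `F`
at `≥ y`. -/
theorem w2_e (H : RModel B G σ R Leg ν D) (L : LLaw B G S own x0) (hx0 : 0 < x0)
    {u v : ℕ → ℝ} (T : Dir B G own u v x0) (m7 : (7 : Fin 12) ∈ S) (m8 : (8 : Fin 12) ∈ S)
    (m1 : (1 : Fin 12) ∉ S) (m2 : (2 : Fin 12) ∉ S) {j : Fin 12} (hj : j = 7 ∨ j = 8)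
    {γ x1 : ℝ} (hγ : 0 < γ) (hx1 : 0 < x1) (hO : OwnThin B G own j γ x1)
    (pS p' pT r : Fin 12 → ℝ) (hpS : pS ∈ Leg) (hp' : p' ∈ Leg) (hpT : pT ∈ Leg) (hr : r ∈ Leg)
    (hTr : ∀ j, pT j ≤ r j) (hlow : Low S pS pT x0) {y : ℝ} (hy : y ≤ x0) (hS3 : y ≤ pS 3)
    (hS4 : y ≤ pS 4) (hS10 : y ≤ pS 10) (hS11 : y ≤ pS 11) (hr11 : y ≤ r 11) (hp5 : p' 5 ≤ y)
    (hp6 : p' 6 ≤ y) (hp : ∀ s, s ≠ 5 → s ≠ 6 → p' s ≤ pS s) : ν pS - ν p' ≤ ν pT - ν r := by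
  choose q hq using H.nonempty
  have h0 : ∀ᶠ n in (U : Filter ℕ), ((q n).1, (q n).2) ∈ (G n).I :=
    Eventually.of_forall fun n => hq n
  exact twist_fib H L hx0 (fun n => (q n).1) (fun n => (q n).2) h0 pS p' pT r hpS hp' hpT hr hTr
    hlow _ hγ hx1 hO (T.cmp _ hj)
    (sep_w2 H.toRUnif L T m7 m8 m1 m2 h0 hpS hy hS3 hS4 hS10 hS11 hr11 hp5 hp6 hp)

/-- **(W3k), kappa-tie, `E` tied: `m ≤ w`** (the rate of `C` is at most the rate of the lateral flag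
`{7, 8}`).  Fibre: `C` coarse, `B`, `X` at `≥ y`; no direction of the slab is used. -/
theorem w3_k (H : RModel B G σ R Leg ν D) (L : LLaw B G S own x0) (hx0 : 0 < x0)
    (m2 : (2 : Fin 12) ∈ S) (m7 : (7 : Fin 12) ∉ S) (m8 : (8 : Fin 12) ∉ S)
    {γ x1 : ℝ} (hγ : 0 < γ) (hx1 : 0 < x1) (hO : OwnThin B G own 2 γ x1)
    (pS p' pT r : Fin 12 → ℝ) (hpS : pS ∈ Leg) (hp' : p' ∈ Leg) (hpT : pT ∈ Leg) (hr : r ∈ Leg)
    (hTr : ∀ j, pT j ≤ r j) (hlow : Low S pS pT x0) {y : ℝ} (hy : y ≤ x0) (hS5 : y ≤ pS 5)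
    (hS6 : y ≤ pS 6) (hS7 : y ≤ pS 7) (hS8 : y ≤ pS 8) (hr7 : y ≤ r 7) (hr8 : y ≤ r 8)
    (hp3 : p' 3 ≤ y) (hp4 : p' 4 ≤ y) (hp : ∀ s, s ≠ 3 → s ≠ 4 → p' s ≤ pS s) :
    ν pS - ν p' ≤ ν pT - ν r := by
  choose q hq using H.nonempty
  have h0 : ∀ᶠ n in (U : Filter ℕ), ((q n).1, (q n).2) ∈ (G n).I :=
    Eventually.of_forall fun n => hq n
  refine twist_fib H L hx0 (fun n => (q n).1) (fun n => (q n).2) h0 pS p' pT r hpS hp' hpT hr hTr
    hlow _ hγ hx1 hO ?_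
    (sep_w3k H.toRUnif L m2 m7 m8 h0 hpS hy hS5 hS6 hS7 hS8 hr7 hr8 hp3 hp4 hp)
  intro ε hε
  refine Eventually.of_forall fun n i k h1 h2 => ?_
  have := rpos B n (x0 - ε)
  linarith

end inst

end Crest.Agent.R116.KW420
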