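import Crest.Agent.R116.Bd1_369
import Crest.Agent.R116.KW3_420
import Crest.Agent.R116.EvL6_504

/-!
# R116, K-TEXT II-c (helper369): 420's `Dir` for the configurations of 926

* `tu l s` : direction of the flag (`tau` of 954, a fixed unit vector if the flag vanishes).
* `DimD` : the hypotheses of 954's `dim_window` and of `dimB_window`.
* **`dir_of`** : `Dir W.B' (W.cfg E) (ownL W) u v x` for every `x`; **`dir_drop`** : the same with the
  slot `D` forgotten.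
-/

set_option autoImplicit false
set_option linter.unusedVariables false

open Finset Filter Topology

namespace Crest.Agent.R116.Bd369

open Crest.Agent.R138.Ex926
open Crest.Agent.R138
open Crest.Agent.R136.Net191
open Crest.Agent.R136.Qg926
open Crest.Agent.R116.ChL222
open Crest.Agent.R116.Xd954
open Crest.Agent.R116.EvL504
open Crest.Agent.R116.KW420

/-- direction of the flag, a unit vector in all cases -/
noncomputable def tu (l : LInc) (s : Fin 2) : ℝ :=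
  if 0 < bb l 0 ^ 2 + bb l 1 ^ 2 then tau l s else (if s = 0 then 1 else 0)

theorem tu_unit (l : LInc) : tu l 0 ^ 2 + tu l 1 ^ 2 = 1 := by
  by_cases h : 0 < bb l 0 ^ 2 + bb l 1 ^ 2
  · have e : ∀ s, tu l s = tau l s := fun s => if_pos h
    rw [e, e]
    exact tau_sq h
  · have e0 : tu l 0 = 1 := by unfold tu; rw [if_neg h]; simp
    have e1 : tu l 1 = 0 := by unfold tu; rw [if_neg h]; simp
    rw [e0, e1]
    norm_num

theorem tu_eq {l : LInc} (h : 0 < bb l 0 ^ 2 + bb l 1 ^ 2) (s : Fin 2) : tu l s = tau l s :=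
  if_pos h

/-- hypotheses of `dim_window` and `dimB_window` -/
structure DimD (W : Wnd 12 (fun _ => ℕ × ℝ)) (I : ℕ → Finset (ℕ × ℝ)) (lev : ℕ → ℚ → ℕ)
    (inc : ℕ → ℕ × ℝ → LInc) (σ : Fin 2 → ℕ → ℝ) (k0 ϑ w0 sa sb v t y δ : ℝ) : Prop where
  co : W.co = Gd222.coN W.B lev inc σ w0 sa sb
  cl : ∀ᶠ n in (U : Filter ℕ), W.Cl n ⊆ I n
  fe : FlagE W.B I lev inc σ k0 ϑ
  fn : FlagN W.B I inc σ
  big : ∀ᶠ n in (U : Filter ℕ), ∀ x ∈ I n, 1 / 4 ≤ bb (inc n x) 0 ^ 2 + bb (inc n x) 1 ^ 2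
  mrg : Mrg k0 ϑ v t y δ
  mty : 3 * δ ≤ t - y
  X : ∀ᶠ n in (U : Filter ℕ), ∀ k, 3 ≤ k → |W.X n k - PL504.nb w0 sa sb v t y k| ≤ δ / 2
  X3 : ∀ᶠ n in (U : Filter ℕ), W.X n 3 = W.X n 4
  X5 : ∀ᶠ n in (U : Filter ℕ), W.X n 5 = W.X n 6
  X7 : ∀ᶠ n in (U : Filter ℕ), W.X n 7 = W.X n 8
  k3 : W.kap 3 = W.kap 4
  k5 : W.kap 5 = W.kap 6
  k7 : W.kap 7 = W.kap 8
  w0' : Tendsto W.w U (𝓝 0)

variable {W : Wnd 12 (fun _ => ℕ × ℝ)} {I : ℕ → Finset (ℕ × ℝ)} {lev : ℕ → ℚ → ℕ}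
    {inc : ℕ → ℕ × ℝ → LInc} {σ : Fin 2 → ℕ → ℝ} {k0 ϑ w0 sa sb v t y δ : ℝ}

/-- the three pairs of slots along the flag of `s₀` are smaller than every power of `ρ` -/
theorem DimD.all (ok : W.Ok) (h : DimD W I lev inc σ k0 ϑ w0 sa sb v t y δ) (x : ℝ) :
    ∀ᶠ n in (U : Filter ℕ), ∀ i ∈ W.Cl n, ∀ j ∈ W.Cl n,
      |tu (inc n (W.s₀ n)) 0 * W.crd n i j 3 + tu (inc n (W.s₀ n)) 1 * W.crd n i j 4| ≤
        W.B'.d n ^ x ∧
      |tu (inc n (W.s₀ n)) 0 * W.crd n i j 5 + tu (inc n (W.s₀ n)) 1 * W.crd n i j 6| ≤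
        W.B'.d n ^ x ∧
      |tu (inc n (W.s₀ n)) 0 * W.crd n i j 7 + tu (inc n (W.s₀ n)) 1 * W.crd n i j 8| ≤
        W.B'.d n ^ x := by
  filter_upwards [dim_window ok h.co h.cl h.fe h.big h.mrg h.X h.X3 h.X5 h.k3 h.k5 h.w0' x,
    dimB_window ok h.co h.cl h.fe h.fn h.big h.mrg h.mty h.X h.X7 h.k7 h.w0' x, ok.ev_good,
    h.cl, h.big] with n a1 a2 g hcl hb i hi j hj
  have hs := hb _ (hcl g.s0)
  have hp : 0 < bb (inc n (W.s₀ n)) 0 ^ 2 + bb (inc n (W.s₀ n)) 1 ^ 2 := by linarith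
  rw [tu_eq hp, tu_eq hp]
  obtain ⟨b1, b2⟩ := a1 i hi j hj
  exact ⟨b1, b2, a2 i hi j hj⟩

/-- **`Dir` in the window** -/
theorem dir_of (ok : W.Ok) (hS : W.S ⊆ SL) {E : ∀ n : ℕ, Finset (ℕ × ℝ)}
    (hE : ∀ᶠ n in (U : Filter ℕ), Reg W E n)
    (h : DimD W I lev inc σ k0 ϑ w0 sa sb v t y δ) (x : ℝ) :
    Dir W.B' (W.cfg E) (ownL W) (fun n => tu (inc n (W.s₀ n)) 0)
      (fun n => tu (inc n (W.s₀ n)) 1) x where
  unit := fun n => tu_unit _
  tc := by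
    intro ε hε
    filter_upwards [h.all ok (x - ε), hE] with n a r
    intro k i l hi hl
    rw [r.rel_of (fun hh => absurd (hS hh) (by decide)),
      r.rel_of (fun hh => absurd (hS hh) (by decide))]
    exact (a _ (r.spec hi).1 _ (r.spec hl).1).1
  tx := by
    intro ε hε
    filter_upwards [h.all ok (x - ε), hE] with n a r
    intro k i l hi hl
    rw [r.rel_of (fun hh => absurd (hS hh) (by decide)),
      r.rel_of (fun hh => absurd (hS hh) (by decide))]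
    exact (a _ (r.spec hi).1 _ (r.spec hl).1).2.1
  tow := by
    intro ε hε
    filter_upwards [h.all ok (x - ε), hE] with n a r
    intro i k0 k hi hi'
    exact (a _ (r.spec hi').1 _ (r.spec hi).1).2.2

/-- **`Dir` in the window, the slot `D` forgotten** -/
theorem dir_drop (ok : W.Ok) (hS : W.S ⊆ SL) {E : ∀ n : ℕ, Finset (ℕ × ℝ)}
    (hE : ∀ᶠ n in (U : Filter ℕ), Reg W E n)
    (h : DimD W I lev inc σ k0 ϑ w0 sa sb v t y δ) (x : ℝ) :
    Dir W.B' (fun n => drop 1 (W.cfg E n)) (ownL0 W) (fun n => tu (inc n (W.s₀ n)) 0)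
      (fun n => tu (inc n (W.s₀ n)) 1) x := by
  have D := dir_of ok hS hE h x
  exact
    { unit := D.unit
      tc := fun ε hε => D.tc ε hε
      tx := fun ε hε => D.tx ε hε
      tow := fun ε hε => D.tow ε hε }

end Crest.Agent.R116.Bd369
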