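import Crest.Agent.R116.CtxB_468
import Crest.Agent.R116.Dir1_369

/-!
# R116, ties (helper369): `CtxT → DimD`

* `CtxT.dimD` : every window of 926 built on a `CtxT` whose base is within `δ/2` of a natural box
  `nb w0 sa sb v t y` (`0 < t`, `y < t`, `0 < v + t`) in the slots `≥ 3`;
* `CtxT.dimD_lim` : the same for bases which converge in the slots `≥ 3` to the record point `rL .. v`,
  `0 < v < 1`, `θ 1 < θ 0`, `0 < θ 0`.
-/

set_option autoImplicit false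
set_option linter.unusedVariables false

open Finset Filter Topology

namespace Crest.Agent.R116.Ctd369

open Crest.Agent.R138.Ex926 (Base U)
open Crest.Agent.R136.MkA627
open Crest.Agent.R136.Net191
open Crest.Agent.R136.TD627
open Crest.Agent.R136.Lq196
open Crest.Agent.R136.Qg926
open Crest.Agent.R116.LZg725
open Crest.Agent.R116.ChL222
open Crest.Agent.R116.PL504 (βL eL rL oL Shift nb DN)
open Crest.Agent.R116.Gd222 (TSet sN PDL DT vb)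
open Crest.Agent.R116.KI439
open Crest.Agent.R116.KF439 (PL Thin frF flF scN)
open Crest.Agent.R116.Tw468
open Crest.Agent.R116.CtxB468
open Crest.Agent.R116.Xd954
open Crest.Agent.R116.Bd369

variable {G : Geo TSet (Fin 2)} {L : ℕ → ℕ → LRay} {r : ℕ → ℝ} {g s : ℝ} {θ q : Fin 2 → ℝ}
    {Rg : ℝ} {B : Base} {I : ℕ → Finset (ℕ × ℝ)} {lev : ℕ → ℚ → ℕ} {A : ℕ → ℝ}
    {f : ℕ → ℚ → ℕ → ℤ → ℕ} {b : ℕ → ℚ → ℕ → TSet} {vm : ℕ → ℚ → ℝ} {w : Fin 2 → ℕ → ℚ → ℝ}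
    {fr : ℕ → ℚ → ℕ × ℝ → LInc} {fl : ℕ → ℕ × ℝ → LInc} {sc : Fin 12 → ℕ → ℝ}
    {w0 sa sb δ R : ℝ} {I0 I' : ℕ → Finset (ℕ × ℝ)} {ν own : (Fin 12 → ℝ) → ℝ} {c₀ : ℝ}

/-- the flag is never small -/
theorem _root_.Crest.Agent.R116.CtxB468.CtxT.big
    (h : CtxT G L r g s θ q Rg B I lev A f b vm w fr fl sc w0 sa sb δ R I0 I' ν own c₀) :
    ∀ᶠ n in (U : Filter ℕ), ∀ x ∈ I n, 1 / 4 ≤ bb (fl n x) 0 ^ 2 + bb (fl n x) 1 ^ 2 := by
  obtain ⟨c, hc⟩ := h.out.ax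
  filter_upwards [hc] with n hn x hx
  have h1 := (hn x hx).1
  rw [← bb_vb] at h1
  have h2 : (1 : ℝ) / 4 ≤ bb (fl n x) c ^ 2 := by
    rw [← sq_abs]
    nlinarith [abs_nonneg (bb (fl n x) c)]
  fin_cases c
  · have := sq_nonneg (bb (fl n x) 1)
    simp only [Fin.zero_eta] at h2
    linarith
  · have := sq_nonneg (bb (fl n x) 0)
    simp only [Fin.mk_one] at h2
    linarith

/-- **`CtxT → DimD`** : windows near a natural box in the slots `≥ 3` -/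
theorem _root_.Crest.Agent.R116.CtxB468.CtxT.dimD
    (h : CtxT G L r g s θ q Rg B I lev A f b vm w fr fl sc w0 sa sb δ R I0 I' ν own c₀)
    {W : Wnd 12 (fun _ => ℕ × ℝ)} (hB : W.B = B) (hco : W.co = PL504.coN B lev w w0 sa sb fl)
    (hcl : ∀ᶠ n in (U : Filter ℕ), W.Cl n ⊆ I n) {v t y ε : ℝ} (hε : 0 < ε) (h1 : 3 * ε ≤ t)
    (h2 : 3 * ε ≤ t - y) (h3 : 3 * ε ≤ v + t)
    (hX : ∀ᶠ n in (U : Filter ℕ), ∀ k, 3 ≤ k → |W.X n k - nb w0 sa sb v t y k| ≤ ε / 2)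
    (X3 : ∀ᶠ n in (U : Filter ℕ), W.X n 3 = W.X n 4)
    (X5 : ∀ᶠ n in (U : Filter ℕ), W.X n 5 = W.X n 6)
    (X7 : ∀ᶠ n in (U : Filter ℕ), W.X n 7 = W.X n 8)
    (k3 : W.kap 3 = W.kap 4) (k5 : W.kap 5 = W.kap 6) (k7 : W.kap 7 = W.kap 8)
    (hw : Tendsto W.w U (𝓝 0)) :
    DimD W I lev fl (sN lev w) (3 * ε + t - y) 0 w0 sa sb v t y ε := by
  subst hB
  exact
    { co := hco
      cl := hcl
      fe := h.fE (fun n => Finset.Subset.refl _) _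
      fn := h.fN (fun n => Finset.Subset.refl _)
      big := h.big
      mrg := ⟨hε, h1, by linarith, by linarith⟩
      mty := h2
      X := hX
      X3 := X3
      X5 := X5
      X7 := X7
      k3 := k3
      k5 := k5
      k7 := k7
      w0' := hw }

/-- **`CtxT → DimD`** : bases converging to the record point in the slots `≥ 3` -/
theorem _root_.Crest.Agent.R116.CtxB468.CtxT.dimD_lim
    (h : CtxT G L r g s θ q Rg B I lev A f b vm w fr fl sc w0 sa sb δ R I0 I' ν own c₀)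
    (hθ0 : 0 < θ 0) (hθ : θ 1 < θ 0)
    {W : Wnd 12 (fun _ => ℕ × ℝ)} (hB : W.B = B) (hco : W.co = PL504.coN B lev w w0 sa sb fl)
    (hcl : ∀ᶠ n in (U : Filter ℕ), W.Cl n ⊆ I n) {v : ℝ} (hv0 : 0 < v) (hv1 : v < 1)
    (hX : ∀ k, 3 ≤ k → Tendsto (fun n => W.X n k) U (𝓝 (rL (θ 0) (θ 1) w0 sa sb v k)))
    (X3 : ∀ᶠ n in (U : Filter ℕ), W.X n 3 = W.X n 4)
    (X5 : ∀ᶠ n in (U : Filter ℕ), W.X n 5 = W.X n 6)
    (X7 : ∀ᶠ n in (U : Filter ℕ), W.X n 7 = W.X n 8)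
    (k3 : W.kap 3 = W.kap 4) (k5 : W.kap 5 = W.kap 6) (k7 : W.kap 7 = W.kap 8)
    (hw : Tendsto W.w U (𝓝 0)) :
    ∃ k0 ε : ℝ, DimD W I lev fl (sN lev w) k0 0 w0 sa sb v (θ 0 * (1 - v)) (θ 1 * (1 - v)) ε := by
  have hv : 0 < 1 - v := by linarith
  have e1 : 0 < θ 0 * (1 - v) := mul_pos hθ0 hv
  have e2 : 0 < θ 0 * (1 - v) - θ 1 * (1 - v) := by nlinarith
  set ε : ℝ := min (θ 0 * (1 - v)) (θ 0 * (1 - v) - θ 1 * (1 - v)) / 3 with hε
  have hε0 : 0 < ε := by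
    have := lt_min e1 e2
    positivity
  have a1 : 3 * ε ≤ θ 0 * (1 - v) := by
    have := min_le_left (θ 0 * (1 - v)) (θ 0 * (1 - v) - θ 1 * (1 - v))
    linarith
  have a2 : 3 * ε ≤ θ 0 * (1 - v) - θ 1 * (1 - v) := by
    have := min_le_right (θ 0 * (1 - v)) (θ 0 * (1 - v) - θ 1 * (1 - v))
    linarith
  have e3 : rL (θ 0) (θ 1) w0 sa sb v = nb w0 sa sb v (θ 0 * (1 - v)) (θ 1 * (1 - v)) := by
    unfold rL nb
    rw [add_comm (θ 0 * (1 - v)) sa, add_comm (θ 1 * (1 - v)) sb]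
  refine ⟨_, ε, h.dimD hB hco hcl hε0 a1 a2 (by linarith) ?_ X3 X5 X7 k3 k5 k7 hw⟩
  refine eventually_all.2 fun k => ?_
  by_cases hk : 3 ≤ k
  · have h4 := (Metric.tendsto_nhds.1 (hX k hk)) (ε / 2) (by positivity)
    filter_upwards [h4] with n hn _
    rw [Real.dist_eq, e3] at hn
    exact hn.le
  · exact Eventually.of_forall fun n hh => absurd hh hk

end Crest.Agent.R116.Ctd369
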