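import Crest.Agent.R116.D0T_794

/-!
# R116 (helper188): LEMMA D0 with `E` invisible

`D0E η X` = 794's `D0T` with `E` (slot `2`) invisible.  At `2 θa - θb = 1` only this form is provable
(a tied `E` lies exactly on its own level there).
-/

set_option autoImplicit false
set_option linter.unusedVariables false

open Finset Filter Topology MeasureTheory Set

namespace Crest.Agent.R116.KTie794

open Crest.Agent.R138.Ex926 (Base U)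
open Crest.Agent.R136.MkA627
open Crest.Agent.R136.TD627
open Crest.Agent.R116.KI439
open Crest.Agent.R116.Gd222 (TSet)
open Crest.Agent.R116.ChL222 (LInc)
open Crest.Agent.R116.Tw468 (OutT OutR)
open Crest.Agent.R116.KF439 (PL)
open Crest.Agent.R116.KTop387
open Crest.Agent.R116.CtxB468
open Crest.Agent.R116.PL504 (Shift rL)

/-- **LEMMA D0, `E` invisible, region `X s θ`** -/
def D0E (η : ℝ) (X : ℝ → (Fin 2 → ℝ) → Prop) : Prop :=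
  ∀ {G : Geo TSet (Fin 2)} {L : ℕ → ℕ → LRay} {r : ℕ → ℝ} {g s : ℝ} {θ q : Fin 2 → ℝ}
    {Rg : ℝ} {B : Base} {I : ℕ → Finset (ℕ × ℝ)} {lev : ℕ → ℚ → ℕ} {A : ℕ → ℝ}
    {f : ℕ → ℚ → ℕ → ℤ → ℕ} {b : ℕ → ℚ → ℕ → TSet} {vm : ℕ → ℚ → ℝ} {w : Fin 2 → ℕ → ℚ → ℝ}
    {fr : ℕ → ℚ → ℕ × ℝ → LInc} {fl : ℕ → ℕ × ℝ → LInc} {sc : Fin 12 → ℕ → ℝ}
    {w0 sa sb δ R : ℝ} {I0 I' : ℕ → Finset (ℕ × ℝ)} {ν own : (Fin 12 → ℝ) → ℝ} {c₀ : ℝ},
    CtxT G L r (g + 2 * s) s θ q Rg B I lev A f b vm w fr fl sc w0 sa sb δ R I0 I' ν own c₀ →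
    NumL η g s θ q → X s θ → w0 + (θ 1 + sb) < R → w0 + 1 + sb < R →
    θ 0 + |θ 1| + 1 ≤ Rg → InvT PL B I 1 fl (sc 1) → InvT PL B I 2 fl (sc 2) →
    ((TieT θ B I lev fl sc 7 ∨ TieT θ B I lev fl sc 8) → θ 0 - θ 1 ≤ 1) →
    Mic ν (θ 0) (θ 1) w0 sa sb

theorem D0E.mono {η : ℝ} {X Y : ℝ → (Fin 2 → ℝ) → Prop} (h : D0E η X)
    (hXY : ∀ s θ, Y s θ → X s θ) : D0E η Y := by
  intro G L r g s θ q Rg B I lev A f b vm w fr fl sc w0 sa sb δ R I0 I' ν own c₀ C N hY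
  exact h C N (hXY _ _ hY)

theorem D0E.or {η : ℝ} {X Y : ℝ → (Fin 2 → ℝ) → Prop} (h : D0E η X) (h' : D0E η Y) :
    D0E η fun s θ => X s θ ∨ Y s θ := by
  intro G L r g s θ q Rg B I lev A f b vm w fr fl sc w0 sa sb δ R I0 I' ν own c₀ C N hY
  rcases hY with hY | hY
  · exact h C N hY
  · exact h' C N hY

theorem D0E.of {η : ℝ} {X : ℝ → (Fin 2 → ℝ) → Prop} (h : D0T η X) : D0E η X := by
  intro G L r g s θ q Rg B I lev A f b vm w fr fl sc w0 sa sb δ R I0 I' ν own c₀ C N hX h1 h2 h3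
    h4 h5 h6
  exact h C N hX h1 h2 h3 h4 h6 (fun t => (t.1 h5).elim)

/-- the three cases of `2 θa - θb` -/
theorem D0E.of3 {η : ℝ} {X : ℝ → (Fin 2 → ℝ) → Prop}
    (h1 : D0E η fun s θ => X s θ ∧ 1 < 2 * θ 0 - θ 1)
    (h2 : D0E η fun s θ => X s θ ∧ 2 * θ 0 - θ 1 < 1)
    (h3 : D0E η fun s θ => X s θ ∧ 2 * θ 0 - θ 1 = 1) : D0E η X :=
  D0E.mono (D0E.or (D0E.or h1 h2) h3) fun s θ h => by
    rcases lt_trichotomy (2 * θ 0 - θ 1) 1 with h' | h' | h'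
    · exact Or.inl (Or.inr ⟨h, h'⟩)
    · exact Or.inr ⟨h, h'⟩
    · exact Or.inl (Or.inl ⟨h, h'⟩)

end Crest.Agent.R116.KTie794
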