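import Crest.Agent.R116.SgF_665
import Crest.Agent.R116.SgR1_337

/-!
# R116 (K side), LEMMA D0 : literals with the flag `D` LIVE (helper878)

* `LM` : the cone of all the walls (slot `D` included)
* `LinTanD` : tangent at a moving base, linear on the `bx`-boxes, `D` live
* `LinFactsD` : K1 F1, H1, K2 F2, S1, S2, S3, TB, RM, each with its tight wall
-/

set_option autoImplicit false

open Set Filter Topology

namespace Crest.Agent.R116.D0F878

open Crest.Agent.R138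
open Crest.Agent.R136.Net191
open Crest.Agent.R116.ChL222
open Crest.Agent.R116.Sg337 (bx9 natB)
open Crest.Agent.R116.SgF665 (wl)

/-- cone of all the walls -/
def LM : Set (Fin 12 → ℝ) := {p | ∀ k, ∀ e ∈ monL.mon k, p k ≤ wl e p}

/-- tangent at the moving base `X`, unit `h`, linear on `bx`-boxes, slot `D` live -/
structure LinTanD {J : Type*} (P : Set (Fin 12 → ℝ)) (f : J → (Fin 12 → ℝ) → ℝ) (j0 : J)
    (X : ℕ → Fin 12 → ℝ) (h : ℕ → ℝ) (rz rX rH rF gC gP gE gB gD : ℝ) : Prop where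
  hpos : ∀ l, 0 < h l
  h0 : Tendsto h atTop (𝓝 0)
  /-- every wall is tight or slack in the unit `h` -/
  dich : ∀ k, ∀ e ∈ monL.mon k, (∀ n, X n k = wl e (X n)) ∨
    ∀ K : ℝ, ∀ᶠ n in atTop, X n k + K * h n ≤ wl e (X n)
  ex : ∃ (D : Set (Fin 12 → ℝ)) (lam : J → (Fin 12 → ℝ) → ℝ), LM ⊆ D ∧
    (∀ j, Ex926.IsTan P D (f j) X h (lam j)) ∧
    ∀ z d C p E B x H F : ℝ, bx9 z d E C x B H p F ∈ LM →
      lam j0 (bx9 z d E C x B H p F) =
        -(rz * z + rX * x + rH * H + rF * F + gC * C + gP * p + gE * E + gB * B + gD * d)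

/-- **THE FACTS WITH `D` LIVE**, `Bs` = the base sequences which occur -/
structure LinFactsD {J : Type*} (P : Set (Fin 12 → ℝ)) (f : J → (Fin 12 → ℝ) → ℝ) (j0 : J)
    (Bs : (ℕ → Fin 12 → ℝ) → (ℕ → ℝ) → Prop) (s : ℝ) : Prop where
  K1 : ∀ X h rz rX rH rF gC gP gE gB gD, Bs X h →
    LinTanD P f j0 X h rz rX rH rF gC gP gE gB gD →
    (∀ n, X n 5 = X n 0 + X n 3) → (∀ n, X n 6 = X n 0 + X n 4) →
    (0 < gC → 1 - s ≤ rX) ∧ (s < gC → 1 ≤ rX)
  H1 : ∀ X h rz rX rH rF gC gP gE gB gD, Bs X h →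
    LinTanD P f j0 X h rz rX rH rF gC gP gE gB gD →
    (∀ n, X n 9 = X n 3 + X n 5) → (∀ n, X n 9 = X n 4 + X n 6) → 0 < gC → rX ≤ rH
  K2 : ∀ X h rz rX rH rF gC gP gE gB gD, Bs X h →
    LinTanD P f j0 X h rz rX rH rF gC gP gE gB gD →
    (∀ n, X n 11 = X n 0 + X n 10) → (0 < gP → 1 - s ≤ rF) ∧ (s < gP → 1 ≤ rF)
  S3 : ∀ X h rz rX rH rF gC gP gE gB gD, Bs X h →
    LinTanD P f j0 X h rz rX rH rF gC gP gE gB gD →
    (∀ n, X n 10 = X n 1 + X n 9) → 0 < gD → rH ≤ gP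
  TB : ∀ X h rz rX rH rF gC gP gE gB gD, Bs X h →
    LinTanD P f j0 X h rz rX rH rF gC gP gE gB gD →
    (∀ n, X n 7 = X n 1 + X n 5) → (∀ n, X n 8 = X n 1 + X n 6) → 0 < gD → rX ≤ gB
  RM : ∀ X h rz rX rH rF gC gP gE gB gD, Bs X h →
    LinTanD P f j0 X h rz rX rH rF gC gP gE gB gD →
    (∀ n, X n 10 = X n 7 + X n 3) → (∀ n, X n 10 = X n 8 + X n 4) → 0 < gB → gC ≤ gP

/-! ### natural boxes -/

/-- **every wall is tight on a natural box** -/
theorem natB_wall (z c p : ℝ) (k : Fin 12) {e : Fin 12 → ℕ} (he : e ∈ monL.mon k) :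
    wl e (natB z c p) = natB z c p k := by
  have hs : ∀ e : Fin 12 → ℕ, wl e (natB z c p) =
      e 0 * z + e 1 * (p - 2 * c - z) + e 2 * (p - 2 * c) + e 3 * c + e 4 * c +
      e 5 * (z + c) + e 6 * (z + c) + e 7 * (p - c) + e 8 * (p - c) + e 9 * (z + 2 * c) +
      e 10 * p + e 11 * (z + p) := by
    intro e
    simp [wl, Fin.sum_univ_succ, natB, bx9]
    ring
  rw [hs]
  change e ∈ mfL k at he
  fin_cases k <;> simp [mfL] at he
  · subst he; simp [natB, bx9]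
  · subst he; simp [natB, bx9]
  · subst he; simp [natB, bx9]
  · rcases he with rfl | rfl <;> simp [natB, bx9] <;> ring
  · rcases he with rfl | rfl <;> simp [natB, bx9] <;> ring
  · rcases he with rfl | rfl | rfl | rfl <;> simp [natB, bx9] <;> ring
  · rcases he with rfl | rfl | rfl | rfl | rfl | rfl | rfl <;> simp [natB, bx9] <;> ring
  · rcases he with rfl | rfl | rfl | rfl | rfl | rfl | rfl | rfl | rfl | rfl | rfl | rfl | rfl <;>
      simp [natB, bx9] <;> ring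

end Crest.Agent.R116.D0F878
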