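import Crest.Agent.R116.KTie_794

/-!
# R116, ROW TIE (helper794): LEMMA D0 as the ties ask for it

* `Mic`      : the micro form (188's / 878's / 363's literal)
* `D0T η X`  : D0 for every context with visible slots (`k ≤ 1`; `E` tied only for `k' < 1`), in the region `X s θ`
* `D0T.mono`, `D0T.or`
* `RegE`, `RegK` : the regions in which the ties ask for D0 (`1/2 ≤ s`: only `θ` large)
-/

set_option autoImplicit false
set_option linter.unusedVariables false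

open Finset Filter Topology MeasureTheory Set

namespace Crest.Agent.R116.KTie794

open Crest.Agent.R138.Ex926 (Base U)
open Crest.Agent.R136.MkA627
open Crest.Agent.R136.TD627
open Crest.Agent.R116.KI439
open Crest.Agent.R116.Gd222 (TSet)
open Crest.Agent.R116.ChL222 (LInc)
open Crest.Agent.R116.Tw468 (OutT OutR)
open Crest.Agent.R116.KF439 (PL)
open Crest.Agent.R116.KTop387
open Crest.Agent.R116.CtxB468
open Crest.Agent.R116.PL504 (Shift rL)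

/-- `D` costs nothing at almost every record point (micro form) -/
def Mic (ν : (Fin 12 → ℝ) → ℝ) (θa θb w0 sa sb : ℝ) : Prop :=
  ∀ᵐ v : ℝ, v ∈ Ioo (0:ℝ) 1 → Tendsto (fun y : ℝ =>
    (ν (rL θa θb w0 sa sb v) - ν (rL θa θb w0 sa sb v + y • (Pi.single 1 1 : Fin 12 → ℝ))) / y)
    (𝓝[>] 0) (𝓝 0)

/-- **LEMMA D0 for the ties, region `X s θ`** -/
def D0T (η : ℝ) (X : ℝ → (Fin 2 → ℝ) → Prop) : Prop :=
  ∀ {G : Geo TSet (Fin 2)} {L : ℕ → ℕ → LRay} {r : ℕ → ℝ} {g s : ℝ} {θ q : Fin 2 → ℝ}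
    {Rg : ℝ} {B : Base} {I : ℕ → Finset (ℕ × ℝ)} {lev : ℕ → ℚ → ℕ} {A : ℕ → ℝ}
    {f : ℕ → ℚ → ℕ → ℤ → ℕ} {b : ℕ → ℚ → ℕ → TSet} {vm : ℕ → ℚ → ℝ} {w : Fin 2 → ℕ → ℚ → ℝ}
    {fr : ℕ → ℚ → ℕ × ℝ → LInc} {fl : ℕ → ℕ × ℝ → LInc} {sc : Fin 12 → ℕ → ℝ}
    {w0 sa sb δ R : ℝ} {I0 I' : ℕ → Finset (ℕ × ℝ)} {ν own : (Fin 12 → ℝ) → ℝ} {c₀ : ℝ},
    CtxT G L r (g + 2 * s) s θ q Rg B I lev A f b vm w fr fl sc w0 sa sb δ R I0 I' ν own c₀ →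
    NumL η g s θ q → X s θ → w0 + (θ 1 + sb) < R → w0 + 1 + sb < R →
    θ 0 + |θ 1| + 1 ≤ Rg → InvT PL B I 1 fl (sc 1) →
    ((TieT θ B I lev fl sc 7 ∨ TieT θ B I lev fl sc 8) → θ 0 - θ 1 ≤ 1) →
    (TieT θ B I lev fl sc 2 → 2 * θ 0 - θ 1 < 1) →
    Mic ν (θ 0) (θ 1) w0 sa sb

theorem D0T.mono {η : ℝ} {X Y : ℝ → (Fin 2 → ℝ) → Prop} (h : D0T η X)
    (hXY : ∀ s θ, Y s θ → X s θ) : D0T η Y := by
  intro G L r g s θ q Rg B I lev A f b vm w fr fl sc w0 sa sb δ R I0 I' ν own c₀ C N hY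
  exact h C N (hXY _ _ hY)

theorem D0T.or {η : ℝ} {X Y : ℝ → (Fin 2 → ℝ) → Prop} (h : D0T η X) (h' : D0T η Y) :
    D0T η fun s θ => X s θ ∨ Y s θ := by
  intro G L r g s θ q Rg B I lev A f b vm w fr fl sc w0 sa sb δ R I0 I' ν own c₀ C N hY
  rcases hY with hY | hY
  · exact h C N hY
  · exact h' C N hY

theorem D0T.eta {η η' : ℝ} {X : ℝ → (Fin 2 → ℝ) → Prop} (h : D0T η X)
    (hη : ∀ g s θ q, NumL η' g s θ q → NumL η g s θ q) : D0T η' X := by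
  intro G L r g s θ q Rg B I lev A f b vm w fr fl sc w0 sa sb δ R I0 I' ν own c₀ C N hY
  exact h C (hη _ _ _ _ N) hY

/-- where the `e`-ties ask for D0 (`k = θa - θb ≤ 1`) -/
def RegE (s : ℝ) (θ : Fin 2 → ℝ) : Prop :=
  s < 1 / 2 ∨ θ 0 - θ 1 = 1 ∨ 1 + (θ 0 - θ 1) ≤ 2 * θ 0

/-- where the `κ`-ties and the double ties ask for D0 (`k' = 2 θa - θb ≤ 1`) -/
def RegK (s : ℝ) (θ : Fin 2 → ℝ) : Prop :=
  s < 1 / 2 ∨ 1 + (2 * θ 0 - θ 1) ≤ 3 * θ 0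

end Crest.Agent.R116.KTie794
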