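import Mathlib

/-!
# R116, K side, flag rates: algebra of Lemma D0 for every `s ∈ [0, 1)` (helper389)

Rates at one a.e. interior point of the plane `Y_ν` = boxes `(v - t'; a(v), b(v) - ν t')` with the
`D`-slot frozen at the level of the record box `R(v)`; `C_a` and `D` have the levels of the record,
everything else is coarser.

`x, h, n` codimensions of `X_a, H, N`; `r` rate of `C_b`; `w, u` rates of the flags `B, G`;
`1 - s + e` rate of `z`; `m` rate of `C_a` (at some position of the group `{C_a, D}`).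
The `D`-rate is positive (at some position), this enters through `hu, hw, hr`.
-/

set_option autoImplicit false
set_option linter.unusedVariables false

namespace Crest.Agent.R116.D0a389

/-- **Lemma D0, algebra.**  `ν` large, `δ` small: contradiction. -/
theorem d0_alg {s g qa qb x h n e r w u m ν δ : ℝ} (hs0 : 0 ≤ s) (hs1 : s < 1)
    (hqa : 0 ≤ qa) (hqg : qb < g) (he : 0 ≤ e) (hν : 0 < ν) (hδ : 0 ≤ δ)
    (hsmall : 3 + δ ≤ ν * δ) (hδg : 3 * δ ≤ g) (hqb1 : qb + δ ≤ 1)
    -- facts: positive rate of `C_a`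
    (hx : x ≤ s) (hhx : h ≤ x)
    -- facts: positive rate of `D`
    (hu : 1 - s + e ≤ u) (hw : 1 - x ≤ w) (hr : 1 - h ≤ r)
    -- facts: positive rates of `G`, `B`, `C_b`
    (hnh : n ≤ h) (hF2 : s < r → n ≤ 0) (hwm : m ≤ w) (hFal : 1 - m < w → 1 ≤ r)
    (hx1 : x ≤ 1) (hh1 : h ≤ 1) (hn1 : n ≤ 1)
    -- the rate of `C_a` for large `s`
    (hm : 2 * s + g - 1 - δ ≤ m)
    -- `f ≤ 0` on the plane, `f = 0` on the record
    (hf : 2 * s + g - (x + h + (1 + ν) * n) + ν * (r + w + u) + e - ν * qb ≤ δ) : False := by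
  have hn : r + w + u - qb - δ ≤ n := by
    by_contra hcon
    push Not at hcon
    have h1 : ν * (r + w + u - qb - δ - n) > 0 := mul_pos hν (by linarith)
    nlinarith
  have h4 : 3 - s - qb - δ ≤ x + h + n := by linarith
  by_cases hrs : s < r
  · have := hF2 hrs
    linarith
  · push Not at hrs
    by_cases hwf : 1 - m < w
    · have := hFal hwf
      linarith
    · push Not at hwf
      linarith

/-- the choice of `ν` and `δ` -/
theorem exists_nu_delta {g qb : ℝ} (hg : 0 < g) (hqb : qb < 1) :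
    ∃ δ : ℝ, 0 < δ ∧ 3 * δ ≤ g ∧ qb + δ ≤ 1 ∧ ∃ ν0 : ℝ, 0 < ν0 ∧ ∀ ν, ν0 ≤ ν → 3 + δ ≤ ν * δ := by
  have hδ : 0 < min (g / 3) (1 - qb) := lt_min (by positivity) (by linarith)
  refine ⟨min (g / 3) (1 - qb), hδ, by linarith [min_le_left (g / 3) (1 - qb)],
    by linarith [min_le_right (g / 3) (1 - qb)],
    (3 + min (g / 3) (1 - qb)) / min (g / 3) (1 - qb), by positivity, fun ν hν => ?_⟩
  rwa [div_le_iff₀ hδ] at hν

end Crest.Agent.R116.D0a389
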