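import Mathlib

/-!
# R116, K side, flag rates: algebra of Lemma D0 for every `s`, one line (helper389)

Rates at one a.e. interior point of the plane `Y_ν` = boxes `(v - t'; a(v), b(v) - ν t')` with the
`D`-slot frozen at the level of the record box `R(v)`.
`x, h, n` codimensions of `X_a, H, N`; `r` rate of `C_b`; `w, u` rates of the flags `B, G`;
`1 - s + e` rate of `z`; `m` rate of `C_a` (at some position of the group `{C_a, D}`); the `D`-rate
is positive at some position.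
-/

set_option autoImplicit false
set_option linter.unusedVariables false

namespace Crest.Agent.R116.D0a389

/-- **Lemma D0, algebra, every `s`** (Kaufman halves only). -/
theorem d0_one {s g qa qb x h n e r w u m ν δ : ℝ}
    (hqa : 0 ≤ qa) (hg : 0 ≤ g) (hqg : qb < g) (hs : 0 ≤ s) (he : 0 ≤ e) (hν : 0 < ν) (hδ : 0 ≤ δ)
    (hsmall : 3 + δ ≤ ν * δ) (hδg : 2 * δ < g - qb)
    (hx1 : x ≤ 1) (hh1 : h ≤ 1) (hn1 : n ≤ 1)
    -- (1) positive rate of `C_a`
    (hx : x ≤ s)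
    -- (2), (3) positive rate of `D`
    (hu : 1 - s ≤ u) (hw : 1 - x ≤ w)
    -- (4) positive rate of `B`
    (hmr : m ≤ r)
    -- (5) the rate of `C_a`
    (hm : 2 * s + g - 1 + qa - δ ≤ m)
    -- `f ≤ 0` on the plane, `f = 0` on the record
    (hf : 2 * s + g - (x + h + (1 + ν) * n) + ν * (r + w + u) + e - ν * qb ≤ δ) : False := by
  have hn : r + w + u - qb - δ ≤ n := by
    by_contra hcon
    push Not at hcon
    have h1 : ν * (r + w + u - qb - δ - n) > 0 := mul_pos hν (by linarith)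
    nlinarith
  linarith

/-- variant: `r ≥ 1 - h`, `h ≤ x`, `w ≥ m` instead of `r ≥ m`, `w ≥ 1 - x` -/
theorem d0_one' {s g qa qb x h n e r w u m ν δ : ℝ}
    (hqa : 0 ≤ qa) (hg : 0 ≤ g) (hqg : qb < g) (hs : 0 ≤ s) (he : 0 ≤ e) (hν : 0 < ν) (hδ : 0 ≤ δ)
    (hsmall : 3 + δ ≤ ν * δ) (hδg : 2 * δ < g - qb)
    (hx1 : x ≤ 1) (hh1 : h ≤ 1) (hn1 : n ≤ 1)
    (hx : x ≤ s) (hhx : h ≤ x) (hu : 1 - s ≤ u) (hr : 1 - h ≤ r) (hmw : m ≤ w)
    (hm : 2 * s + g - 1 + qa - δ ≤ m)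
    (hf : 2 * s + g - (x + h + (1 + ν) * n) + ν * (r + w + u) + e - ν * qb ≤ δ) : False := by
  have hn : r + w + u - qb - δ ≤ n := by
    by_contra hcon
    push Not at hcon
    have h1 : ν * (r + w + u - qb - δ - n) > 0 := mul_pos hν (by linarith)
    nlinarith
  linarith

/-- the choice of `ν` and `δ` -/
theorem exists_nu {g qb : ℝ} (hqg : qb < g) :
    ∃ δ : ℝ, 0 < δ ∧ 2 * δ < g - qb ∧ ∃ ν0 : ℝ, 0 < ν0 ∧ ∀ ν, ν0 ≤ ν → 3 + δ ≤ ν * δ := by
  have hδ : 0 < (g - qb) / 3 := by linarith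
  refine ⟨(g - qb) / 3, hδ, by linarith, (3 + (g - qb) / 3) / ((g - qb) / 3), by positivity,
    fun ν hν => ?_⟩
  rwa [div_le_iff₀ hδ] at hν

end Crest.Agent.R116.D0a389
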