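import Crest.Agent.R116.D0F_878
import Crest.Agent.R136.Rbw3_219

/-!
# R116 (K side), LEMMA D0, part 1 (helper878): planes of natural boxes with all slots alone

* `lin9` : all nine slots alone in `gC` ⟹ the tangent is linear on boxes with equal pairs, with
  rates `ρ i ≥ 0`, and the derivative of `ν` along the plane is `-Σ ρ i a i`, `-Σ ρ i b i`
* `aN ε = natB 1 ε (1 + 2 ε)`, `bN κ = natB κ 0 (10 κ)` : explicit plane, slot `D` constant along
  `aN`; for `0 < ε ≤ 1/4`, `κ ≠ 0` all the nine slots are alone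
-/

set_option autoImplicit false
set_option linter.unusedVariables false

open Set Filter Topology MeasureTheory

namespace Crest.Agent.R116.D0n878

open Crest.Agent.R138
open Crest.Agent.R136
open Crest.Agent.R136.Net191
open Crest.Agent.R136.Dg219 (mw gC dhC nC gset lf gC_eq gC_zero Walls OutS dirC)
open Crest.Agent.R116.ChL222
open Crest.Agent.R116.Sg337 (bx9 natB)
open Crest.Agent.R116.SgF665 (wl)
open Crest.Agent.R116.D0F878

/-- one representative of every slot -/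
def S9 : Finset (Fin 12) := {0, 1, 2, 3, 5, 7, 9, 10, 11}

/-- representative of a slot -/
def tw : Fin 12 → Fin 12 := ![0, 1, 2, 3, 3, 5, 5, 7, 7, 9, 10, 11]

theorem tw_mem : ∀ i, tw i ∈ S9 := by decide

theorem tw_id : ∀ i ∈ S9, tw i = i := by decide

/-- the two slots of a pair are equal -/
def Eqp (c : Fin 12 → ℝ) : Prop := ∀ i, c i = c (tw i)

theorem eqp_bx9 (z D E C X B N P F : ℝ) : Eqp (bx9 z D E C X B N P F) := by
  intro i
  fin_cases i <;> rfl

theorem eqp_natB (z c p : ℝ) : Eqp (natB z c p) := eqp_bx9 _ _ _ _ _ _ _ _ _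

section

variable {a b : Fin 12 → ℝ}

theorem gC_tw (ha : Eqp a) (hb : Eqp b) (i : Fin 12) : gC a b i = gC a b (tw i) := by
  unfold gC
  rw [ha i, hb i]

theorem dhC_tw (ha : Eqp a) (hb : Eqp b) (i : Fin 12) : dhC a b i = dhC a b (tw i) := by
  unfold dhC
  rw [ha i, hb i]

/-- **linear form of the tangent at a point where all the slots are alone** -/
theorem lin9 {L : Set (Fin 12 → ℝ)} {lam : (Fin 12 → ℝ) → ℝ} {A : ℝ × ℝ}
    {φ : ℕ → (Fin 12 → ℝ) → ℝ} {r : ℕ → ℝ} (ha : Eqp a) (hb : Eqp b)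
    (hal : ∀ i ∈ S9, ∀ j ∈ S9, gC a b i = gC a b j → i = j) (hdh : ∀ i ∈ S9, dhC a b i ≠ 0)
    (H : OutS (gC a b) L (dhC a b) (nC a b) lam A φ r) {u0 : Fin 12 → ℝ}
    (h0 : (0 : Fin 12 → ℝ) ∈ L) (hu : u0 ∈ L) (hup : ∀ i, 0 < u0 i) (hue : Eqp u0) :
    ∃ ρ : Fin 12 → ℝ, (∀ i ∈ S9, 0 ≤ ρ i) ∧
      (∀ c ∈ L, Eqp c → lam c = -∑ i ∈ S9, ρ i * c i) ∧
      A.1 = -∑ i ∈ S9, ρ i * a i ∧ A.2 = -∑ i ∈ S9, ρ i * b i := by
  classical
  have hgs : gset (gC a b) = S9.image (gC a b) := by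
    ext k
    simp only [gset, Finset.mem_image, Finset.mem_univ, true_and]
    constructor
    · rintro ⟨i, rfl⟩
      exact ⟨tw i, tw_mem i, (gC_tw ha hb i).symm⟩
    · rintro ⟨i, -, rfl⟩
      exact ⟨i, rfl⟩
  have hsum : ∀ T : ℕ → ℝ, ∑ k ∈ gset (gC a b), T k = ∑ i ∈ S9, T (gC a b i) := by
    intro T
    rw [hgs, Finset.sum_image]
    intro i hi j hj h
    exact hal i hi j hj h
  have hgrp : ∀ i ∈ S9, ∀ j, gC a b j = gC a b i → tw j = i := by
    intro i hi j h
    exact hal _ (tw_mem j) _ hi (by rw [← gC_tw ha hb j]; exact h)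
  have hφ : ∀ c ∈ L, Eqp c → ∀ i ∈ S9,
      φ (gC a b i) c = -(r (gC a b i) / dhC a b i * c i) := by
    intro c hc he i hi
    have h1 := hdh i hi
    have h2 := H.rate (gC a b i) c hc (c i / dhC a b i) (fun j hj => by
      have e := hgrp i hi j hj
      rw [he j, dhC_tw ha hb j, e]
      field_simp)
    rw [h2]
    field_simp
  refine ⟨fun i => r (gC a b i) / dhC a b i, ?_, ?_, ?_, ?_⟩
  · intro i hi
    have h1 := (H.mono (gC a b i) 0 h0 u0 hu (fun j _ => (hup j).le)).1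
    rw [H.zero (gC a b i) 0 (fun _ _ => rfl), hφ u0 hu hue i hi] at h1
    by_contra hcon
    push Not at hcon
    have := mul_neg_of_neg_of_pos hcon (hup i)
    linarith
  · intro c hc he
    rw [H.sum c hc, hsum, ← Finset.sum_neg_distrib]
    exact Finset.sum_congr rfl fun i hi => hφ c hc he i hi
  · have h1 := H.total (1, 0)
    rw [hsum] at h1
    have e : lf A (1, 0) = A.1 := by unfold lf; ring
    rw [← e, h1]
    congr 1
    refine Finset.sum_congr rfl fun i hi => ?_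
    have h2 := (dirC (a := a) (b := b)).fst i
    have h3 := hdh i hi
    have e2 : lf (nC a b (gC a b i)) (1, 0) = (nC a b (gC a b i)).1 := by unfold lf; ring
    rw [e2, h2]
    field_simp
  · have h1 := H.total (0, 1)
    rw [hsum] at h1
    have e : lf A (0, 1) = A.2 := by unfold lf; ring
    rw [← e, h1]
    congr 1
    refine Finset.sum_congr rfl fun i hi => ?_
    have h2 := (dirC (a := a) (b := b)).snd i
    have h3 := hdh i hi
    have e2 : lf (nC a b (gC a b i)) (0, 1) = (nC a b (gC a b i)).2 := by unfold lf; ring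
    rw [e2, h2]
    field_simp

end

/-! ### planes of natural boxes -/

theorem natB_add (z c p z' c' p' : ℝ) :
    natB z c p + natB z' c' p' = natB (z + z') (c + c') (p + p') := by
  funext k
  rw [Pi.add_apply]
  fin_cases k <;> simp [natB, bx9] <;> ring

theorem natB_smul (t z c p : ℝ) : t • natB z c p = natB (t * z) (t * c) (t * p) := by
  funext k
  rw [Pi.smul_apply, smul_eq_mul]
  fin_cases k <;> simp [natB, bx9] <;> ring

theorem X_nat (z c p z1 c1 p1 z2 c2 p2 t v : ℝ) :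
    Dg262.X (natB z c p) (natB z1 c1 p1) (natB z2 c2 p2) (t, v) =
      natB (z + t * z1 + v * z2) (c + t * c1 + v * c2) (p + t * p1 + v * p2) := by
  funext k
  simp only [Dg262.X]
  fin_cases k <;> simp [natB, bx9] <;> ring

theorem act_nat (z c p z1 c1 p1 z2 c2 p2 : ℝ) (w : Σ k : Fin 12, {e // e ∈ monL.mon k}) :
    (mw monL).Act (natB z c p) (natB z1 c1 p1) (natB z2 c2 p2) w := by
  obtain ⟨k, e, he⟩ := w
  have h1 := natB_wall z c p k he
  have h2 := natB_wall z1 c1 p1 k he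
  have h3 := natB_wall z2 c2 p2 k he
  unfold wl at h1 h2 h3
  simp only [Walls.Act, mw, Walls.rhs, add_zero]
  exact ⟨h1.symm, h2.symm, h3.symm⟩

theorem L_nat (z c p z1 c1 p1 z2 c2 p2 : ℝ) :
    (mw monL).L (natB z c p) (natB z1 c1 p1) (natB z2 c2 p2) = LM := by
  ext c'
  constructor
  · intro h k e he
    exact h ⟨k, e, he⟩ (act_nat _ _ _ _ _ _ _ _ _ _)
  · intro h w _
    exact h w.1 w.2.1 w.2.2

theorem O_nat {R z c p z1 c1 p1 z2 c2 p2 : ℝ} {y : ℝ × ℝ}
    (hbox : ∀ k, 0 < Dg262.X (natB z c p) (natB z1 c1 p1) (natB z2 c2 p2) y k ∧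
      Dg262.X (natB z c p) (natB z1 c1 p1) (natB z2 c2 p2) y k < R) :
    y ∈ (mw monL).O (fun _ => 0) (fun _ => R) (natB z c p) (natB z1 c1 p1) (natB z2 c2 p2) :=
  ⟨hbox, fun w => Or.inl (act_nat _ _ _ _ _ _ _ _ _ w)⟩

theorem natB_mem (z c p : ℝ) : natB z c p ∈ LM := fun k e he => (natB_wall z c p k he).ge

theorem zero_mem : (0 : Fin 12 → ℝ) ∈ LM := by
  have h := natB_mem 0 0 0
  have e : natB 0 0 0 = 0 := by funext k; fin_cases k <;> simp [natB, bx9]
  rwa [e] at h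

/-- a box with all slots `> 0` -/
theorem natB_pos : ∀ i, 0 < natB 1 1 4 i := by
  intro i
  fin_cases i <;> simp [natB, bx9] <;> norm_num

/-! ### the explicit plane -/

/-- first direction: the slot `D` is constant, all the others increase -/
def aN (ε : ℝ) : Fin 12 → ℝ := natB 1 ε (1 + 2 * ε)

/-- second direction -/
def bN (κ : ℝ) : Fin 12 → ℝ := natB κ 0 (10 * κ)

theorem aN_nonneg {ε : ℝ} (hε : 0 < ε) : ∀ i, 0 ≤ aN ε i := by
  intro i
  fin_cases i <;> simp [aN, natB, bx9] <;> linarith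

theorem aN_ne {ε : ℝ} (hε : 0 < ε) : ∀ i ∈ S9, i ≠ 1 → aN ε i ≠ 0 := by
  intro i hi h1
  simp only [S9, Finset.mem_insert, Finset.mem_singleton] at hi
  rcases hi with rfl | rfl | rfl | rfl | rfl | rfl | rfl | rfl | rfl
  · simp [aN, natB, bx9]
  · exact absurd rfl h1
  all_goals
    intro h
    simp [aN, natB, bx9] at h
    try linarith

theorem aN_one (ε : ℝ) : aN ε 1 = 0 := by
  simp [aN, natB, bx9]

theorem bN_one (κ : ℝ) : bN κ 1 = 9 * κ := by
  simp [bN, natB, bx9]; ring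

theorem dh_ne {ε κ : ℝ} (hε : 0 < ε) (hκ : κ ≠ 0) : ∀ i ∈ S9, dhC (aN ε) (bN κ) i ≠ 0 := by
  intro i hi
  unfold dhC
  by_cases h1 : i = 1
  · subst h1
    rw [if_pos (aN_one ε), bN_one]
    simp [hκ]
  · have := aN_ne hε i hi h1
    rw [if_neg this]
    exact this

/-- ratios of the slopes -/
noncomputable def tN (ε : ℝ) : Fin 12 → ℝ :=
  ![1, 0, 10, 0, 0, 1 / (1 + ε), 0, 10 * (1 / (1 + ε)), 0, 1 / (1 + 2 * ε),
    10 * (1 / (1 + 2 * ε)), 11 / 2 * (1 / (1 + ε))]

theorem ratio_eq {ε κ : ℝ} (hε : 0 < ε) : ∀ i ∈ S9, i ≠ 1 → bN κ i / aN ε i = κ * tN ε i := by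
  intro i hi h1
  have e1 : 1 + ε ≠ 0 := by positivity
  have e2 : 1 + 2 * ε ≠ 0 := by positivity
  have e3 : ε ≠ 0 := hε.ne'
  simp only [S9, Finset.mem_insert, Finset.mem_singleton] at hi
  rcases hi with rfl | rfl | rfl | rfl | rfl | rfl | rfl | rfl | rfl
  · simp [aN, bN, natB, bx9, tN]
  · exact absurd rfl h1
  · have h : aN ε 2 = 1 := by simp [aN, natB, bx9]
    rw [h]; simp [bN, natB, bx9, tN]; ring
  · simp [bN, natB, bx9, tN]
  · have h : aN ε 5 = 1 + ε := by simp [aN, natB, bx9]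
    rw [h]; simp [bN, natB, bx9, tN]; field_simp
  · have h : aN ε 7 = 1 + ε := by simp [aN, natB, bx9]; ring
    rw [h]; simp [bN, natB, bx9, tN]; field_simp
  · have h : aN ε 9 = 1 + 2 * ε := by simp [aN, natB, bx9]
    rw [h]; simp [bN, natB, bx9, tN]; field_simp
  · have h : aN ε 10 = 1 + 2 * ε := by simp [aN, natB, bx9]
    rw [h]; simp [bN, natB, bx9, tN]; field_simp
  · have h : aN ε 11 = 2 * (1 + ε) := by simp [aN, natB, bx9]; ring
    rw [h]; simp [bN, natB, bx9, tN]; field_simp; ring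

/-- **all the nine slots are alone** -/
theorem alone {ε κ : ℝ} (hε : 0 < ε) (hε1 : ε ≤ 1 / 4) (hκ : κ ≠ 0) :
    ∀ i ∈ S9, ∀ j ∈ S9, gC (aN ε) (bN κ) i = gC (aN ε) (bN κ) j → i = j := by
  intro i hi j hj h
  by_cases h1 : i = 1
  · subst h1
    rw [gC_zero.2 (aN_one ε)] at h
    by_contra h2
    exact aN_ne hε j hj (fun e => h2 e.symm) (gC_zero.1 h.symm)
  by_cases h2 : j = 1
  · subst h2
    rw [gC_zero.2 (aN_one ε)] at h
    exact absurd (gC_zero.1 h) (aN_ne hε i hi h1)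
  rw [gC_eq (aN_ne hε i hi h1) (aN_ne hε j hj h2), ratio_eq hε i hi h1, ratio_eq hε j hj h2] at h
  have h3 : tN ε i = tN ε j := mul_left_cancel₀ hκ h
  have e1 : 0 < 1 + ε := by positivity
  have e2 : 0 < 1 + 2 * ε := by positivity
  set p : ℝ := 1 / (1 + ε) with hp
  set q : ℝ := 1 / (1 + 2 * ε) with hq
  have p1 : p < 1 := by rw [hp, div_lt_one e1]; linarith
  have p2 : 4 / 5 ≤ p := by rw [hp, le_div_iff₀ e1]; linarith
  have q1 : q < p := by rw [hp, hq]; exact one_div_lt_one_div_of_lt e1 (by linarith)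
  have q2 : 2 / 3 ≤ q := by rw [hq, le_div_iff₀ e2]; linarith
  have t0 : tN ε 0 = 1 := rfl
  have t2 : tN ε 2 = 10 := rfl
  have t3 : tN ε 3 = 0 := rfl
  have t5 : tN ε 5 = p := rfl
  have t7 : tN ε 7 = 10 * p := rfl
  have t9 : tN ε 9 = q := rfl
  have t10 : tN ε 10 = 10 * q := rfl
  have t11 : tN ε 11 = 11 / 2 * p := rfl
  simp only [S9, Finset.mem_insert, Finset.mem_singleton] at hi hj
  rcases hi with rfl | rfl | rfl | rfl | rfl | rfl | rfl | rfl | rfl <;>
    rcases hj with rfl | rfl | rfl | rfl | rfl | rfl | rfl | rfl | rfl <;>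
    first
      | rfl
      | exact absurd rfl h1
      | exact absurd rfl h2
      | (exfalso; simp only [t0, t2, t3, t5, t7, t9, t10, t11] at h3; linarith)

end Crest.Agent.R116.D0n878
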