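import Crest.Agent.R116.Kg7_330
import Crest.Agent.R116.CtxB_468
import Crest.Agent.R116.WinU_954
import Crest.Agent.R116.Sd2_369

/-!
# R116, K side (helper330): the facts at natural bases over the context `CtxT`

* `winG_thinC` : 388's `ThinC` for the windows `WinG` whose base points converge to a natural box.
* `thinBC_T`, `thinMC_T` : over `CtxT`, at every natural box `(v, t, y)` with `0 < t`, `0 < v + t`.
* `facts_nat` : K1 F1, K2 F2, H1, S2, S3 for a linear tangent at a constant natural base.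
-/

set_option autoImplicit false
set_option linter.unusedVariables false
set_option linter.unusedSectionVars false

open Filter Topology Finset

namespace Crest.Agent.R116.Kg330

open Crest.Agent.R138.Ex926 (Base U IsTan)
open Crest.Agent.R136.MkA627
open Crest.Agent.R136.Net191 Crest.Agent.R136.Qg926 Crest.Agent.R136.Gf356
open Crest.Agent.R116.LZg725
open Crest.Agent.R116.ChL222 Crest.Agent.R116.PL504 Crest.Agent.R116.EvL504
open Crest.Agent.R116.WinG954 Crest.Agent.R116.Xd954 Crest.Agent.R116.ThinD954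
open Crest.Agent.R116.Kc388 (ThinC)
open Crest.Agent.R116.Gd222 (TSet sN PDL DT vb)
open Crest.Agent.R116.KI439
open Crest.Agent.R116.KF439 (PL Thin frF flF scN)
open Crest.Agent.R116.Tw468 Crest.Agent.R116.CtxB468

section win

variable {W : Wnd 12 (fun _ => ℕ × ℝ)} {B : Base} {I J : ℕ → Finset (ℕ × ℝ)}
    {lev : ℕ → ℚ → ℕ} {inc : ℕ → ℕ × ℝ → LInc} {σ : Fin 2 → ℕ → ℝ}
    {k0 ϑ w0 sa sb v t y δ K tp : ℝ} {E : ∀ _ : ℕ, Finset (ℕ × ℝ)}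
    {co : ∀ n : ℕ, ℕ × ℝ → ℕ × ℝ → Fin 12 → ℝ} {C : ℝ} {D : Set (Fin 12 → ℝ)}
    {ν lam : (Fin 12 → ℝ) → ℝ} {X : ℕ → Fin 12 → ℝ} {h : ℕ → ℝ} {k' : ℕ → ℕ} {T : ℝ}
    {Mw : Mons 12} {top : Fin 12 → ℝ}

/-- **`ThinC` for the windows of `exists_winD` / `exists_winM`** -/
theorem winG_thinC (w : WinG W B I J co C D ν lam X h k' T Mw top)
    (hco : co = Gd222.coN B lev inc σ w0 sa sb) (hh : Tendsto h atTop (𝓝 0))
    (hk : Tendsto k' U atTop) (hr : ∀ᶠ n in (U : Filter ℕ), Reg W E n)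
    (hJ : ∀ᶠ n in (U : Filter ℕ), W.Cl n ⊆ J n) (hF : FlagE B J lev inc σ k0 ϑ)
    (hg : ∀ᶠ n in (U : Filter ℕ), ∀ x ∈ J n,
      1 / 4 ≤ Xd954.bb (inc n x) 0 ^ 2 + Xd954.bb (inc n x) 1 ^ 2)
    (hm : Mrg k0 ϑ v t y δ)
    (hX : ∀ s, 3 ≤ s → Tendsto (fun l => X l s) atTop (𝓝 (PL504.nb w0 sa sb v t y s)))
    (e3 : ∀ᶠ l in atTop, X l 3 = X l 4) (e5 : ∀ᶠ l in atTop, X l 5 = X l 6) (x : ℝ) :
    ThinC W.B' (W.cfg E) (dir W inc) x := by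
  have hB := w.hB
  have near : ∀ᶠ n in (U : Filter ℕ), ∀ k, 3 ≤ k →
      |W.X n k - PL504.nb w0 sa sb v t y k| ≤ δ / 2 := by
    rw [eventually_all]
    intro k
    by_cases hk3 : 3 ≤ k
    · have h1 := (w.X_tendsto (hX k hk3) hk).eventually
        (Metric.closedBall_mem_nhds _ (half_pos hm.pos))
      filter_upwards [h1] with n hn _
      rw [Real.dist_eq] at hn
      exact hn
    · exact Eventually.of_forall fun n h3 => absurd h3 hk3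
  obtain ⟨a1, a2⟩ := thin2_of (I := J) (w0 := w0) (sa := sa) (sb := sb) w.wl hr
    (by rw [w.hco, w.hB, hco]) hJ (by rw [w.hB]; exact hF) hg hm near
    (w.ev_of (P := fun c _ => c 3 = c 4) e3 hk) (w.ev_of (P := fun c _ => c 5 = c 6) e5 hk)
    (w.w_tendsto hh hk) x
  have hle : ∀ ε : ℝ, 0 < ε → ∀ n, W.B'.d n ^ x ≤ W.B'.d n ^ (x - ε) := fun ε hε n =>
    Real.rpow_le_rpow_of_exponent_ge (W.B'.pos n) (W.B'.lt n).le (by linarith)
  refine ⟨a1, fun ε hε => ?_, fun ε hε => ?_⟩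
  · filter_upwards [a2] with n hn k i l hi hl
    exact (hn k i l hi hl).1.trans (hle ε hε n)
  · filter_upwards [a2] with n hn k i l hi hl
    exact (hn k i l hi hl).2.trans (hle ε hε n)

end win

section ctx

variable {G : Geo TSet (Fin 2)} {L : ℕ → ℕ → LRay} {r : ℕ → ℝ} {g s : ℝ} {θ q : Fin 2 → ℝ}
    {Rg : ℝ} {B : Base} {I : ℕ → Finset (ℕ × ℝ)} {lev : ℕ → ℚ → ℕ} {A : ℕ → ℝ}
    {f : ℕ → ℚ → ℕ → ℤ → ℕ} {b : ℕ → ℚ → ℕ → TSet} {vm : ℕ → ℚ → ℝ} {w : Fin 2 → ℕ → ℚ → ℝ}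
    {fr : ℕ → ℚ → ℕ × ℝ → LInc} {fl : ℕ → ℕ × ℝ → LInc} {sc : Fin 12 → ℕ → ℝ}
    {w0 sa sb δ R : ℝ} {I0 I' : ℕ → Finset (ℕ × ℝ)} {ν own : (Fin 12 → ℝ) → ℝ} {c₀ : ℝ}
    {v t y : ℝ} {X : ℕ → Fin 12 → ℝ} {h : ℕ → ℝ}

/-- length of the lateral gradient -/
theorem CtxT_ge
    (H : CtxT G L r g s θ q Rg B I lev A f b vm w fr fl sc w0 sa sb δ R I0 I' ν own c₀) :
    ∀ᶠ n in (U : Filter ℕ), ∀ x ∈ I' n,
      1 / 4 ≤ Xd954.bb (fl n x) 0 ^ 2 + Xd954.bb (fl n x) 1 ^ 2 := by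
  obtain ⟨a, b, hx⟩ := H.fX
  have h1 := (hx I' H.sub' 0).big
  filter_upwards [h1] with n hn x hxI
  have h2 := hn x hxI
  have h3 : (1 / 2 : ℝ) ^ 2 ≤ Xd954.bb (fl n x) b ^ 2 := by
    rw [← sq_abs (Xd954.bb (fl n x) b)]
    exact pow_le_pow_left₀ (by norm_num) h2 2
  have h4 : Xd954.bb (fl n x) b ^ 2 ≤
      Xd954.bb (fl n x) 0 ^ 2 + Xd954.bb (fl n x) 1 ^ 2 := by
    have s0 := sq_nonneg (Xd954.bb (fl n x) 0)
    have s1 := sq_nonneg (Xd954.bb (fl n x) 1)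
    fin_cases b
    · show Xd954.bb (fl n x) 0 ^ 2 ≤ _
      linarith
    · show Xd954.bb (fl n x) 1 ^ 2 ≤ _
      linarith
  linarith

theorem thinC_T
    (H : CtxT G L r g s θ q Rg B I lev A f b vm w fr fl sc w0 sa sb δ R I0 I' ν own c₀)
    (ht : 0 < t) (hvt : 0 < v + t)
    (hX : ∀ s, 3 ≤ s → Tendsto (fun l => X l s) atTop (𝓝 (PL504.nb w0 sa sb v t y s)))
    (e3 : ∀ᶠ l in atTop, X l 4 = X l 3) (e5 : ∀ᶠ l in atTop, X l 6 = X l 5)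
    {W : Wnd 12 (fun _ => ℕ × ℝ)} {E : ∀ _ : ℕ, Finset (ℕ × ℝ)} {D : Set (Fin 12 → ℝ)}
    {lam : (Fin 12 → ℝ) → ℝ} {k' : ℕ → ℕ} {T : ℝ} {Mw : Mons 12} {top : Fin 12 → ℝ}
    (wn : WinG W B I0 I' (PL504.coN B lev w w0 sa sb fl) 2 D ν lam X h k' T Mw top)
    (hh : Tendsto h atTop (𝓝 0)) (hk : Tendsto k' U atTop)
    (hr : ∀ᶠ n in (U : Filter ℕ), Reg W E n)
    (hJ : ∀ᶠ n in (U : Filter ℕ), W.Cl n ⊆ I' n) (x : ℝ) :
    ThinC W.B' (W.cfg E) (dir W fl) x := by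
  obtain ⟨d, hm⟩ := exists_mrg (k0 := t - y + 1) (ϑ := 0) (v := v) (t := t) (y := y) ht
    (by linarith) hvt
  exact winG_thinC wn (Gd222.coN_eq B lev w w0 sa sb fl).symm hh hk hr hJ
    (H.fE H.sub' (t - y + 1)) (CtxT_ge H) hm hX (e3.mono fun l h => h.symm)
    (e5.mono fun l h => h.symm) x

/-- **dead direction over `CtxT`**, slot `D` live -/
theorem thinMC_T
    (H : CtxT G L r g s θ q Rg B I lev A f b vm w fr fl sc w0 sa sb δ R I0 I' ν own c₀)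
    (ht : 0 < t) (hvt : 0 < v + t)
    (hX : ∀ s, 3 ≤ s → Tendsto (fun l => X l s) atTop (𝓝 (PL504.nb w0 sa sb v t y s)))
    (e3 : ∀ᶠ l in atTop, X l 4 = X l 3) (e5 : ∀ᶠ l in atTop, X l 6 = X l 5) :
    ThinMC B I0 I' (PL504.coN B lev w w0 sa sb fl) 2 ν X h :=
  fun D lam k' T W E hk hh wn hr hJ => ⟨_, thinC_T H ht hvt hX e3 e5 wn hh hk hr hJ T⟩

variable {zz cc pp : ℝ} {D : Set (Fin 12 → ℝ)} {lam : (Fin 12 → ℝ) → ℝ}
    {rz rX rH rF gC gP gE gB gD : ℝ}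

theorem eL_nb (w0 sa sb zz cc pp : ℝ) :
    eL zz cc pp = PL504.nb w0 sa sb (zz - w0) (cc - sa) (pp - sb) := by
  unfold PL504.nb
  congr 1 <;> ring

/-- **the facts at a constant natural base** -/
theorem facts_nat
    (H : CtxT G L r g s θ q Rg B I lev A f b vm w fr fl sc w0 sa sb δ R I0 I' ν own c₀)
    (hs0 : 0 ≤ s) (hs1 : s ≤ 1) (hc : sa < cc) (hz : w0 + sa < zz + cc) (hpos : ∀ l, 0 < h l)
    (h0 : Tendsto h atTop (𝓝 0)) (htan : IsTan (Leg monL R) D ν (fun _ => eL zz cc pp) h lam)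
    (hD : LM ⊆ D) (hlin : LinM lam rz rX rH rF gC gP gE gB gD) (hrz : 1 - s ≤ rz) :
    ((0 < gC → 1 - s ≤ rX) ∧ (s < gC → 1 ≤ rX)) ∧
    ((0 < gP → 1 - s ≤ rF) ∧ (s < gP → 1 ≤ rF)) ∧
    ((0 < gC → rX ≤ rH) ∧ (1 - rX < gC → 1 ≤ rH)) ∧
    ((0 < gE → rH ≤ rF) ∧ (1 - rH < gE → 1 ≤ rF)) ∧
    ((0 < gD → rH ≤ gP) ∧ (1 - rH < gD → 1 ≤ gP)) := by
  have hN := WinU954.nprof_of_ext (H.sh.d0.le.trans H.sh.R_pos) (H.extK (|θ 0| + |θ 1|))
  have L : LinTanM (Leg monL R) (fun _ : Unit => ν) () (fun _ => eL zz cc pp) h rz rX rH rF gC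
      gP gE gB gD := ⟨hpos, h0, D, fun _ => lam, hD, fun _ => htan, hlin⟩
  have hlim : ∀ s : Fin 12, 3 ≤ s → Tendsto (fun _ : ℕ => eL zz cc pp s) atTop
      (𝓝 (PL504.nb w0 sa sb (zz - w0) (cc - sa) (pp - sb) s)) := fun s _ => by
    rw [← eL_nb]
    exact tendsto_const_nhds
  have HB : BsMC B I0 I' (PL504.coN B lev w w0 sa sb fl) 2 R ν s (fun _ => eL zz cc pp) h :=
    BsMC.of_lin (f := fun _ : Unit => ν) (j0 := ()) rfl L hrz
      (Eventually.of_forall fun _ => rfl) (Eventually.of_forall fun _ => rfl)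
      (Eventually.of_forall fun _ => rfl)
      (thinMC_T H (t := cc - sa) (v := zz - w0) (y := pp - sb) (by linarith) (by linarith) hlim
        (Eventually.of_forall fun _ => rfl) (Eventually.of_forall fun _ => rfl))
  obtain ⟨f1, f2, f3, f4, f5⟩ := factsMC hN (fun n => Sd369.coc_N B lev w w0 sa sb fl n) hs0 hs1
    (f := fun _ : Unit => ν) (j0 := ()) rfl HB L
  refine ⟨f1 (fun _ => ?_) (fun _ => ?_), f2 (fun _ => ?_), f3 (fun _ => ?_), f4 (fun _ => ?_),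
    f5 (fun _ => ?_)⟩
  · show zz + cc = zz + cc; rfl
  · show zz + cc = zz + cc; rfl
  · show zz + pp = zz + pp; rfl
  · show zz + 2 * cc = cc + (zz + cc); ring
  · show zz + pp = (pp - 2 * cc) + (zz + 2 * cc); ring
  · show pp = (pp - 2 * cc - zz) + (zz + 2 * cc); ring

end ctx

end Crest.Agent.R116.Kg330
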