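import Crest.Agent.R116.OwV_363
import Crest.Agent.R116.Kt1_710
import Crest.Agent.R116.Kg8_330
import Crest.Agent.R116.D0n1_878

/-!
# R116 (K side), LEMMA D0 (helper332): moving base sequences of natural boxes, over the context

* `vis_ev`  : near a natural box strictly below its own levels every box is below its own levels
* **`bsM_mv`, `bsMC_mv`, `bsF_mv`** : natural boxes `X l → nb w0 sa sb v a' b'`, unit `h → 0`,
  `⊢` 330's `BsM`, `BsMC`, `BsF` (own rate `1 - s` and dead direction)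
* `Y_nb` : the points of the plane `Y` through the record
* **`bsM_Y`, `bsMC_Y`, `bsF_Y`, `own_Y`**, **`linFactsD_Y`** : the same at the points of `Y`,
  `t < 0`, `2 θa - θb < 1`; no condition on the visible slots
-/

set_option autoImplicit false
set_option linter.unusedVariables false
set_option linter.unusedSectionVars false

open Set Filter Topology MeasureTheory

namespace Crest.Agent.R116.D0bs332

open Crest.Agent.R138.Ex926 (Base U IsTan)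
open Crest.Agent.R136
open Crest.Agent.R136.MkA627
open Crest.Agent.R136.TD627
open Crest.Agent.R136.Net191
open Crest.Agent.R136.Lq196
open Crest.Agent.R116.ChL222
open Crest.Agent.R116.PL504 (nb rL DN eL βL oL Shift)
open Crest.Agent.R116.Sg337 (bx9 natB nb_natB eL_bx9)
open Crest.Agent.R116.Gd222 (TSet sN PDL DT)
open Crest.Agent.R116.KI439
open Crest.Agent.R116.KF439 (PL)
open Crest.Agent.R116.Tw468 (OutT)
open Crest.Agent.R116.CtxB468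
open Crest.Agent.R116.WinG954 (LM)
open Crest.Agent.R116.SgF665 (LM0 wl bx9_mem)
open Crest.Agent.R116.Kg330 (ThinB ThinM ThinMC BsF BsM BsMC bxz_LM linFactsD)
open Crest.Agent.R116.OwV363 (vis_cases' own_vis)

theorem nat_pairs {X : ℕ → Fin 12 → ℝ} (hn : ∀ n, ∃ z c p, X n = natB z c p) (l : ℕ) :
    X l 4 = X l 3 ∧ X l 6 = X l 5 ∧ X l 8 = X l 7 := by
  obtain ⟨z, c, p, h⟩ := hn l
  rw [h]
  exact ⟨rfl, rfl, rfl⟩

theorem nat_walls {X : ℕ → Fin 12 → ℝ} (hn : ∀ n, ∃ z c p, X n = natB z c p) (l : ℕ) :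
    X l 5 = X l 0 + X l 3 ∧ X l 6 = X l 0 + X l 4 ∧ X l 9 = X l 3 + X l 5 ∧
    X l 9 = X l 4 + X l 6 ∧ X l 11 = X l 0 + X l 10 ∧ X l 10 = X l 1 + X l 9 := by
  obtain ⟨z, c, p, h⟩ := hn l
  rw [h]
  refine ⟨?_, ?_, ?_, ?_, ?_, ?_⟩ <;> simp [natB, bx9] <;> ring

theorem zero_LM : (0 : Fin 12 → ℝ) ∈ LM := by
  have h := bxz_LM (y := 0) le_rfl
  have e : bx9 0 0 0 0 0 0 0 0 0 = (0 : Fin 12 → ℝ) := by funext k; fin_cases k <;> rfl
  rwa [e] at h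

theorem zero_LM0 : (0 : Fin 12 → ℝ) ∈ LM0 := by
  intro k e _ _
  simp [wl]

theorem bxz_LM0 {y : ℝ} (hy : 0 ≤ y) : bx9 y 0 0 0 0 0 0 0 0 ∈ LM0 := bx9_mem.2 (by
  refine ⟨?_, ?_, ?_, ?_, ?_, ?_, ?_⟩ <;> linarith)

theorem cont_rL (θa θb w0 sa sb : ℝ) (k : Fin 12) :
    Continuous fun x : ℝ => rL θa θb w0 sa sb (x - w0) k := by
  fin_cases k <;> simp [rL, eL] <;> fun_prop

section ctx

variable {G : Geo TSet (Fin 2)} {L : ℕ → ℕ → LRay} {r : ℕ → ℝ} {g s : ℝ} {θ q : Fin 2 → ℝ}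
    {Rg : ℝ} {B : Base} {I : ℕ → Finset (ℕ × ℝ)} {lev : ℕ → ℚ → ℕ} {A : ℕ → ℝ}
    {f : ℕ → ℚ → ℕ → ℤ → ℕ} {b : ℕ → ℚ → ℕ → TSet} {vm : ℕ → ℚ → ℝ} {w : Fin 2 → ℕ → ℚ → ℝ}
    {fr : ℕ → ℚ → ℕ × ℝ → LInc} {fl : ℕ → ℕ × ℝ → LInc} {sc : Fin 12 → ℕ → ℝ}
    {w0 sa sb δ R : ℝ} {I0 I' : ℕ → Finset (ℕ × ℝ)} {ν own : (Fin 12 → ℝ) → ℝ} {c₀ : ℝ}
    {v a' b' t : ℝ} {X : ℕ → Fin 12 → ℝ} {h : ℕ → ℝ}

/-- near a natural box strictly below its own levels, every box is below its own levels -/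
theorem vis_ev
    (H : CtxT G L r g s θ q Rg B I lev A f b vm w fr fl sc w0 sa sb δ R I0 I' ν own c₀)
    (hB : VisT B I fl sc 7 ∨ VisT B I fl sc 8 → b' - a' < (θ 1 - θ 0) * (1 - v))
    (hE : VisT B I fl sc 2 ∨ VisT B I fl sc 1 → b' - 2 * a' < (θ 1 - 2 * θ 0) * (1 - v))
    (hX : Tendsto X atTop (𝓝 (nb w0 sa sb v a' b'))) :
    ∀ᶠ l in atTop, ∀ k, k ≠ 0 → VisT B I fl sc k →
      X l k ≤ rL (θ 0) (θ 1) w0 sa sb (X l 0 - w0) k := by
  rw [eventually_all]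
  intro k
  by_cases hk : k ≠ 0 ∧ VisT B I fl sc k
  · have h1 : Tendsto (fun l => X l k) atTop (𝓝 (nb w0 sa sb v a' b' k)) :=
      tendsto_pi_nhds.1 hX k
    have h2 : Tendsto (fun l => rL (θ 0) (θ 1) w0 sa sb (X l 0 - w0) k) atTop
        (𝓝 (rL (θ 0) (θ 1) w0 sa sb v k)) := by
      have h3 := ((cont_rL (θ 0) (θ 1) w0 sa sb k).tendsto _).comp (tendsto_pi_nhds.1 hX 0)
      have e : nb w0 sa sb v a' b' 0 - w0 = v := by rw [PL504.nb_z]; ring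
      rw [e] at h3
      exact h3
    have h3 : nb w0 sa sb v a' b' k < rL (θ 0) (θ 1) w0 sa sb v k := by
      rw [PL504.rL_nb]
      rcases vis_cases' H hk.1 hk.2 with rfl | rfl | rfl | rfl
      · have h1 := hE (Or.inr hk.2)
        simp only [nb, eL, Matrix.cons_val]
        linarith
      · have h1 := hE (Or.inl hk.2)
        simp only [nb, eL, Matrix.cons_val]
        linarith
      · have h1 := hB (Or.inl hk.2)
        simp only [nb, eL, Matrix.cons_val]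
        linarith
      · have h1 := hB (Or.inr hk.2)
        simp only [nb, eL, Matrix.cons_val]
        linarith
    exact (h1.eventually_lt h2 h3).mono fun l hl _ _ => hl.le
  · exact Eventually.of_forall fun l a b => absurd ⟨a, b⟩ hk

/-- **own rate at moving bases**, at every domain of the tangent -/
theorem own_mv
    (H : CtxT G L r g s θ q Rg B I lev A f b vm w fr fl sc w0 sa sb δ R I0 I' ν own c₀)
    (hv0 : 0 < v) (hv1 : v < 1)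
    (hB : VisT B I fl sc 7 ∨ VisT B I fl sc 8 → b' - a' < (θ 1 - θ 0) * (1 - v))
    (hE : VisT B I fl sc 2 ∨ VisT B I fl sc 1 → b' - 2 * a' < (θ 1 - 2 * θ 0) * (1 - v))
    (hX : Tendsto X atTop (𝓝 (nb w0 sa sb v a' b')))
    (hpos : ∀ l, 0 < h l) (h0 : Tendsto h atTop (𝓝 0)) {D : Set (Fin 12 → ℝ)}
    {gg : (Fin 12 → ℝ) → ℝ} (hm0 : (0 : Fin 12 → ℝ) ∈ D) {y : ℝ} (hy : 0 < y)
    (hmy : bx9 y 0 0 0 0 0 0 0 0 ∈ D) (ht : IsTan (Leg monL R) D ν X h gg) :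
    (1 - s) * y ≤ -(gg (bx9 y 0 0 0 0 0 0 0 0)) := by
  have h3 : Tendsto (fun l => X l 0) atTop (𝓝 (w0 + v)) := tendsto_pi_nhds.1 hX 0
  exact own_vis H hv0 hv1 h3 (vis_ev H hB hE hX) hpos h0 hm0 hy hmy ht

/-- **330's `BsMC` at natural boxes** (slot `D` live, no statement on the slots `7, 8`) -/
theorem bsMC_mv
    (H : CtxT G L r g s θ q Rg B I lev A f b vm w fr fl sc w0 sa sb δ R I0 I' ν own c₀)
    (hv0 : 0 < v) (hv1 : v < 1) (ha : 0 < a')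
    (hB : VisT B I fl sc 7 ∨ VisT B I fl sc 8 → b' - a' < (θ 1 - θ 0) * (1 - v))
    (hE : VisT B I fl sc 2 ∨ VisT B I fl sc 1 → b' - 2 * a' < (θ 1 - 2 * θ 0) * (1 - v))
    (hn : ∀ n, ∃ z c p, X n = natB z c p) (hX : Tendsto X atTop (𝓝 (nb w0 sa sb v a' b')))
    (hpos : ∀ l, 0 < h l) (h0 : Tendsto h atTop (𝓝 0)) :
    BsMC B I0 I' (PL504.coN B lev w w0 sa sb fl) 2 R ν s X h where
  e4 := Eventually.of_forall fun l => (nat_pairs hn l).1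
  e6 := Eventually.of_forall fun l => (nat_pairs hn l).2.1
  e8 := Eventually.of_forall fun l => (nat_pairs hn l).2.2
  own := fun D gg hD ht y hy => own_mv H hv0 hv1 hB hE hX hpos h0 (hD zero_LM) hy
    (hD (bxz_LM hy.le)) ht
  thin := Kg330.thinMC_T H ha (by linarith) (fun s _ => tendsto_pi_nhds.1 hX s)
    (Eventually.of_forall fun l => (nat_pairs hn l).1)
    (Eventually.of_forall fun l => (nat_pairs hn l).2.1)

/-- 710's `FlagZ` with every margin `ζ` (468: the gradients have length `1`) -/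
theorem flagZ_all
    (H : CtxT G L r g s θ q Rg B I lev A f b vm w fr fl sc w0 sa sb δ R I0 I' ν own c₀) (ζ : ℝ) :
    Kz710.FlagZ B I fl (sN lev w) ζ := by
  intro ε hε
  filter_upwards [H.n1 fun _ => Finset.Subset.refl _] with n hn x hx
  rw [hn x hx, sub_self, abs_zero, zero_mul]
  exact mul_nonneg (Gd222.sN_pos lev w 1 n).le (Real.rpow_nonneg (B.pos n).le _)

/-- **330's `BsM` at natural boxes** (slot `D` live) -/
theorem bsM_mv
    (H : CtxT G L r g s θ q Rg B I lev A f b vm w fr fl sc w0 sa sb δ R I0 I' ν own c₀)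
    (hv0 : 0 < v) (hv1 : v < 1) (ha : 0 < a')
    (hB : VisT B I fl sc 7 ∨ VisT B I fl sc 8 → b' - a' < (θ 1 - θ 0) * (1 - v))
    (hE : VisT B I fl sc 2 ∨ VisT B I fl sc 1 → b' - 2 * a' < (θ 1 - 2 * θ 0) * (1 - v))
    (hn : ∀ n, ∃ z c p, X n = natB z c p) (hX : Tendsto X atTop (𝓝 (nb w0 sa sb v a' b')))
    (hpos : ∀ l, 0 < h l) (h0 : Tendsto h atTop (𝓝 0)) :
    BsM B I0 I' (PL504.coN B lev w w0 sa sb fl) 2 R ν s X h where
  e4 := Eventually.of_forall fun l => (nat_pairs hn l).1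
  e6 := Eventually.of_forall fun l => (nat_pairs hn l).2.1
  e8 := Eventually.of_forall fun l => (nat_pairs hn l).2.2
  own := fun D gg hD ht y hy => own_mv H hv0 hv1 hB hE hX hpos h0 (hD zero_LM) hy
    (hD (bxz_LM hy.le)) ht
  thin := by
    exact Kt710.thinM H (flagZ_all H (b' - a' + 1)) ha (by linarith) (by linarith)
      (fun s _ => tendsto_pi_nhds.1 hX s)
      (Eventually.of_forall fun l => (nat_pairs hn l).1)
      (Eventually.of_forall fun l => (nat_pairs hn l).2.1)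
      (Eventually.of_forall fun l => (nat_pairs hn l).2.2)

/-- **330's `BsF` at natural boxes** (slot `D` frozen) -/
theorem bsF_mv
    (H : CtxT G L r g s θ q Rg B I lev A f b vm w fr fl sc w0 sa sb δ R I0 I' ν own c₀)
    (hv0 : 0 < v) (hv1 : v < 1) (ha : 0 < a')
    (hB : VisT B I fl sc 7 ∨ VisT B I fl sc 8 → b' - a' < (θ 1 - θ 0) * (1 - v))
    (hE : VisT B I fl sc 2 ∨ VisT B I fl sc 1 → b' - 2 * a' < (θ 1 - 2 * θ 0) * (1 - v))
    (hn : ∀ n, ∃ z c p, X n = natB z c p) (hX : Tendsto X atTop (𝓝 (nb w0 sa sb v a' b')))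
    (hpos : ∀ l, 0 < h l) (h0 : Tendsto h atTop (𝓝 0)) :
    BsF B I0 I' (PL504.coN B lev w w0 sa sb fl) 2 R ν s X h where
  e4 := Eventually.of_forall fun l => (nat_pairs hn l).1
  e6 := Eventually.of_forall fun l => (nat_pairs hn l).2.1
  e8 := Eventually.of_forall fun l => (nat_pairs hn l).2.2
  own := fun D gg hD ht y hy => own_mv H hv0 hv1 hB hE hX hpos h0 (hD zero_LM0) hy
    (hD (bxz_LM0 hy.le)) ht
  thin := by
    exact Kt710.thinB H (flagZ_all H (b' - a' + 1)) ha (by linarith) (by linarith)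
      (fun s _ => tendsto_pi_nhds.1 hX s)
      (Eventually.of_forall fun l => (nat_pairs hn l).1)
      (Eventually.of_forall fun l => (nat_pairs hn l).2.1)
      (Eventually.of_forall fun l => (nat_pairs hn l).2.2)

/-! ### the plane `Y` -/

/-- the points of the plane `Y` -/
theorem Y_nb (θa θb w0 sa sb t v : ℝ) :
    Dg262.X (rL θa θb w0 sa sb 0) (natB 1 0 1) (natB 1 (-θa) (-θb)) (t, v) =
      nb w0 sa sb (v + t) (θa * (1 - v)) (θb * (1 - v) + t) := by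
  rw [PL504.rL_nb, nb_natB, nb_natB, D0n878.X_nat]
  congr 1 <;> ring

/-- the base sequences at the plane `Y` -/
def BsY (θa θb w0 sa sb : ℝ) (X : ℕ → Fin 12 → ℝ) (h : ℕ → ℝ) : Prop :=
  ∃ t v : ℝ, t < 0 ∧ 0 < v + t ∧ v < 1 ∧ (∀ n, ∃ z c p, X n = natB z c p) ∧
    Tendsto X atTop
      (𝓝 (Dg262.X (rL θa θb w0 sa sb 0) (natB 1 0 1) (natB 1 (-θa) (-θb)) (t, v))) ∧
    (∀ l, 0 < h l) ∧ Tendsto h atTop (𝓝 0)

theorem Y_B {θa θb t v : ℝ} (hk : θa - θb < 1) (ht : t < 0) :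
    (θb * (1 - v) + t) - θa * (1 - v) < (θb - θa) * (1 - (v + t)) := by
  nlinarith [mul_pos (neg_pos.2 ht) (sub_pos.2 hk)]

theorem Y_E {θa θb t v : ℝ} (hk : 2 * θa - θb < 1) (ht : t < 0) :
    (θb * (1 - v) + t) - 2 * (θa * (1 - v)) < (θb - 2 * θa) * (1 - (v + t)) := by
  nlinarith [mul_pos (neg_pos.2 ht) (sub_pos.2 hk)]

/-- **own rate at the plane `Y`** -/
theorem own_Y
    (H : CtxT G L r g s θ q Rg B I lev A f b vm w fr fl sc w0 sa sb δ R I0 I' ν own c₀)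
    (hθ : 0 < θ 0) (hβ : 2 * θ 0 - θ 1 < 1) (hY : BsY (θ 0) (θ 1) w0 sa sb X h)
    {D : Set (Fin 12 → ℝ)} {gg : (Fin 12 → ℝ) → ℝ} (hm0 : (0 : Fin 12 → ℝ) ∈ D) {y : ℝ}
    (hy : 0 < y) (hmy : bx9 y 0 0 0 0 0 0 0 0 ∈ D) (ht : IsTan (Leg monL R) D ν X h gg) :
    (1 - s) * y ≤ -(gg (bx9 y 0 0 0 0 0 0 0 0)) := by
  obtain ⟨t, v, t0, vt, v1, hn, hX, hpos, h0⟩ := hY
  rw [Y_nb] at hX
  exact own_mv H vt (by linarith) (fun _ => Y_B (by linarith) t0) (fun _ => Y_E hβ t0) hX hpos h0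
    hm0 hy hmy ht

theorem bsMC_Y
    (H : CtxT G L r g s θ q Rg B I lev A f b vm w fr fl sc w0 sa sb δ R I0 I' ν own c₀)
    (hθ : 0 < θ 0) (hβ : 2 * θ 0 - θ 1 < 1) (hY : BsY (θ 0) (θ 1) w0 sa sb X h) :
    BsMC B I0 I' (PL504.coN B lev w w0 sa sb fl) 2 R ν s X h := by
  obtain ⟨t, v, t0, vt, v1, hn, hX, hpos, h0⟩ := hY
  rw [Y_nb] at hX
  exact bsMC_mv H vt (by linarith) (mul_pos hθ (by linarith)) (fun _ => Y_B (by linarith) t0)
    (fun _ => Y_E hβ t0) hn hX hpos h0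

theorem bsM_Y
    (H : CtxT G L r g s θ q Rg B I lev A f b vm w fr fl sc w0 sa sb δ R I0 I' ν own c₀)
    (hθ : 0 < θ 0) (hβ : 2 * θ 0 - θ 1 < 1) (hY : BsY (θ 0) (θ 1) w0 sa sb X h) :
    BsM B I0 I' (PL504.coN B lev w w0 sa sb fl) 2 R ν s X h := by
  obtain ⟨t, v, t0, vt, v1, hn, hX, hpos, h0⟩ := hY
  rw [Y_nb] at hX
  exact bsM_mv H vt (by linarith) (mul_pos hθ (by linarith)) (fun _ => Y_B (by linarith) t0)
    (fun _ => Y_E hβ t0) hn hX hpos h0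

theorem bsF_Y
    (H : CtxT G L r g s θ q Rg B I lev A f b vm w fr fl sc w0 sa sb δ R I0 I' ν own c₀)
    (hθ : 0 < θ 0) (hβ : 2 * θ 0 - θ 1 < 1) (hY : BsY (θ 0) (θ 1) w0 sa sb X h) :
    BsF B I0 I' (PL504.coN B lev w w0 sa sb fl) 2 R ν s X h := by
  obtain ⟨t, v, t0, vt, v1, hn, hX, hpos, h0⟩ := hY
  rw [Y_nb] at hX
  exact bsF_mv H vt (by linarith) (mul_pos hθ (by linarith)) (fun _ => Y_B (by linarith) t0)
    (fun _ => Y_E hβ t0) hn hX hpos h0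

/-- **the facts with `D` live at all the natural sequences which tend to `Y`, `t < 0`** -/
theorem linFactsD_Y
    (H : CtxT G L r g s θ q Rg B I lev A f b vm w fr fl sc w0 sa sb δ R I0 I' ν own c₀)
    (hθ : 0 < θ 0) (hβ : 2 * θ 0 - θ 1 < 1) (hs0 : 0 ≤ s) (hs1 : s ≤ 1) {Jt : Type*}
    {ff : Jt → (Fin 12 → ℝ) → ℝ} {j0 : Jt} (hf : ff j0 = ν) :
    D0F878.LinFactsD (Leg monL R) ff j0 (BsY (θ 0) (θ 1) w0 sa sb) s :=
  linFactsD (WinU954.nprof_of_ext (H.sh.d0.le.trans H.sh.R_pos) (H.extK (|θ 0| + |θ 1|)))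
    (fun n => Sd369.coc_N B lev w w0 sa sb fl n) hs0 hs1 hf fun X h hY => bsM_Y H hθ hβ hY

/-! ### the planes spanned by the record and `n_ε = (1; ε, 1 + 2 ε)` -/

/-- the points of the plane of `n_ε` -/
theorem eps_nb (θa θb w0 sa sb ε t v : ℝ) :
    Dg262.X (rL θa θb w0 sa sb 0) (natB 1 ε (1 + 2 * ε)) (natB 1 (-θa) (-θb)) (t, v) =
      nb w0 sa sb (v + t) (θa * (1 - v) + ε * t) (θb * (1 - v) + (1 + 2 * ε) * t) := by
  rw [PL504.rL_nb, nb_natB, nb_natB, D0n878.X_nat]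
  congr 1 <;> ring

/-- the base sequences at the plane of `n_ε` -/
def BsE (θa θb w0 sa sb ε : ℝ) (X : ℕ → Fin 12 → ℝ) (h : ℕ → ℝ) : Prop :=
  ∃ t v : ℝ, t < 0 ∧ 0 < v + t ∧ v < 1 ∧ 0 < θa * (1 - v) + ε * t ∧
    (∀ n, ∃ z c p, X n = natB z c p) ∧
    Tendsto X atTop (𝓝 (Dg262.X (rL θa θb w0 sa sb 0) (natB 1 ε (1 + 2 * ε))
      (natB 1 (-θa) (-θb)) (t, v))) ∧
    (∀ l, 0 < h l) ∧ Tendsto h atTop (𝓝 0)

theorem eps_B {θa θb t v ε : ℝ} (hk : θa - θb < 1 + ε) (ht : t < 0) :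
    (θb * (1 - v) + (1 + 2 * ε) * t) - (θa * (1 - v) + ε * t) < (θb - θa) * (1 - (v + t)) := by
  nlinarith [mul_pos (neg_pos.2 ht) (sub_pos.2 hk)]

theorem eps_E {θa θb t v ε : ℝ} (hk : 2 * θa - θb < 1) (ht : t < 0) :
    (θb * (1 - v) + (1 + 2 * ε) * t) - 2 * (θa * (1 - v) + ε * t) <
      (θb - 2 * θa) * (1 - (v + t)) := by
  nlinarith [mul_pos (neg_pos.2 ht) (sub_pos.2 hk)]

/-- **330's `BsMC` at the plane of `n_ε`** -/
theorem bsMC_eps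
    (H : CtxT G L r g s θ q Rg B I lev A f b vm w fr fl sc w0 sa sb δ R I0 I' ν own c₀)
    {ε : ℝ} (hε : 0 < ε) (hkB : VisT B I fl sc 7 ∨ VisT B I fl sc 8 → θ 0 - θ 1 < 1 + ε)
    (hkE : VisT B I fl sc 2 ∨ VisT B I fl sc 1 → 2 * θ 0 - θ 1 < 1)
    (hY : BsE (θ 0) (θ 1) w0 sa sb ε X h) :
    BsMC B I0 I' (PL504.coN B lev w w0 sa sb fl) 2 R ν s X h := by
  obtain ⟨t, v, t0, vt, v1, ha, hn, hX, hpos, h0⟩ := hY
  rw [eps_nb] at hX
  exact bsMC_mv H vt (by linarith) ha (fun hh => eps_B (hkB hh) t0)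
    (fun hh => eps_E (hkE hh) t0) hn hX hpos h0

/-- **330's `BsM` at the plane of `n_ε`** -/
theorem bsM_eps
    (H : CtxT G L r g s θ q Rg B I lev A f b vm w fr fl sc w0 sa sb δ R I0 I' ν own c₀)
    {ε : ℝ} (hε : 0 < ε) (hkB : VisT B I fl sc 7 ∨ VisT B I fl sc 8 → θ 0 - θ 1 < 1 + ε)
    (hkE : VisT B I fl sc 2 ∨ VisT B I fl sc 1 → 2 * θ 0 - θ 1 < 1)
    (hY : BsE (θ 0) (θ 1) w0 sa sb ε X h) :
    BsM B I0 I' (PL504.coN B lev w w0 sa sb fl) 2 R ν s X h := by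
  obtain ⟨t, v, t0, vt, v1, ha, hn, hX, hpos, h0⟩ := hY
  rw [eps_nb] at hX
  exact bsM_mv H vt (by linarith) ha (fun hh => eps_B (hkB hh) t0)
    (fun hh => eps_E (hkE hh) t0) hn hX hpos h0

/-- **the facts with `D` live at all the natural sequences which tend to the plane of `n_ε`** -/
theorem linFactsD_eps
    (H : CtxT G L r g s θ q Rg B I lev A f b vm w fr fl sc w0 sa sb δ R I0 I' ν own c₀)
    {ε : ℝ} (hε : 0 < ε) (hkB : VisT B I fl sc 7 ∨ VisT B I fl sc 8 → θ 0 - θ 1 < 1 + ε)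
    (hkE : VisT B I fl sc 2 ∨ VisT B I fl sc 1 → 2 * θ 0 - θ 1 < 1)
    (hs0 : 0 ≤ s) (hs1 : s ≤ 1) {Jt : Type*}
    {ff : Jt → (Fin 12 → ℝ) → ℝ} {j0 : Jt} (hf : ff j0 = ν) :
    D0F878.LinFactsD (Leg monL R) ff j0 (BsE (θ 0) (θ 1) w0 sa sb ε) s :=
  linFactsD (WinU954.nprof_of_ext (H.sh.d0.le.trans H.sh.R_pos) (H.extK (|θ 0| + |θ 1|)))
    (fun n => Sd369.coc_N B lev w w0 sa sb fl n) hs0 hs1 hf fun X h hY => bsM_eps H hε hkB hkE hY

/-- **own rate at the plane of `n_ε`** -/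
theorem own_eps
    (H : CtxT G L r g s θ q Rg B I lev A f b vm w fr fl sc w0 sa sb δ R I0 I' ν own c₀)
    {ε : ℝ} (hε : 0 < ε) (hkB : VisT B I fl sc 7 ∨ VisT B I fl sc 8 → θ 0 - θ 1 < 1 + ε)
    (hkE : VisT B I fl sc 2 ∨ VisT B I fl sc 1 → 2 * θ 0 - θ 1 < 1)
    (hY : BsE (θ 0) (θ 1) w0 sa sb ε X h)
    {D : Set (Fin 12 → ℝ)} {gg : (Fin 12 → ℝ) → ℝ} (hm0 : (0 : Fin 12 → ℝ) ∈ D) {y : ℝ}
    (hy : 0 < y) (hmy : bx9 y 0 0 0 0 0 0 0 0 ∈ D) (ht : IsTan (Leg monL R) D ν X h gg) :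
    (1 - s) * y ≤ -(gg (bx9 y 0 0 0 0 0 0 0 0)) := by
  obtain ⟨t, v, t0, vt, v1, ha, hn, hX, hpos, h0⟩ := hY
  rw [eps_nb] at hX
  exact own_mv H vt (by linarith) (fun hh => eps_B (hkB hh) t0)
    (fun hh => eps_E (hkE hh) t0) hX hpos h0 hm0 hy hmy ht

/-- the natural sequences which tend to a natural box `(v; a', b')` strictly below its own levels -/
def BsN (B : Base) (I : ℕ → Finset (ℕ × ℝ)) (fl : ℕ → ℕ × ℝ → LInc) (sc : Fin 12 → ℕ → ℝ)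
    (θa θb w0 sa sb : ℝ) (X : ℕ → Fin 12 → ℝ) (h : ℕ → ℝ) : Prop :=
  ∃ v a' b' : ℝ, 0 < v ∧ v < 1 ∧ 0 < a' ∧
    (VisT B I fl sc 7 ∨ VisT B I fl sc 8 → b' - a' < (θb - θa) * (1 - v)) ∧
    (VisT B I fl sc 2 ∨ VisT B I fl sc 1 → b' - 2 * a' < (θb - 2 * θa) * (1 - v)) ∧
    (∀ n, ∃ z c p, X n = natB z c p) ∧ Tendsto X atTop (𝓝 (nb w0 sa sb v a' b')) ∧
    (∀ l, 0 < h l) ∧ Tendsto h atTop (𝓝 0)

/-- **the facts with `D` live at all the natural sequences** -/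
theorem linFactsD_N
    (H : CtxT G L r g s θ q Rg B I lev A f b vm w fr fl sc w0 sa sb δ R I0 I' ν own c₀)
    (hs0 : 0 ≤ s) (hs1 : s ≤ 1) {Jt : Type*}
    {ff : Jt → (Fin 12 → ℝ) → ℝ} {j0 : Jt} (hf : ff j0 = ν) :
    D0F878.LinFactsD (Leg monL R) ff j0 (BsN B I fl sc (θ 0) (θ 1) w0 sa sb) s :=
  linFactsD (WinU954.nprof_of_ext (H.sh.d0.le.trans H.sh.R_pos) (H.extK (|θ 0| + |θ 1|)))
    (fun n => Sd369.coc_N B lev w w0 sa sb fl n) hs0 hs1 hf fun X h hY => by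
      obtain ⟨v, a', b', h1, h2, h3, h5, h6, h7, h8, h9, h10⟩ := hY
      exact bsM_mv H h1 h2 h3 h5 h6 h7 h8 h9 h10

end ctx

end Crest.Agent.R116.D0bs332
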