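import Mathlib

/-!
# R116, K side, flag rates: algebra of Lemma D0 for every `s`, static facts only (helper389)

Rates at one a.e. interior point of the plane `Y_ν` = boxes `(v - t'; a(v), b(v) - ν t')` with the
`D`-slot frozen at the level of the record box `R(v)`.
`x, h, n` codimensions of `X_a, H, N`; `r` rate of `C_b`; `w, u` rates of the flags `B, G`;
`1 - s + e` rate of `z`; `m` rate of `C_a` (at some position of the group `{C_a, D}`); the `D`-rate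
is positive at some position.
Facts: K1 (`x ≤ s`), TB = (D, B; time X): `1 - x ≤ w`, RM = (B, C_b; time C_a): `m ≤ r`,
K2 (`n ≤ s`, because `r ≥ m > 0`).
-/

set_option autoImplicit false
set_option linter.unusedVariables false

namespace Crest.Agent.R116.D0a389

/-- **Lemma D0, algebra, every `s`, every case (untied, e-tie `k ≤ 1`, kappa-tie `k' ≤ 1`).** -/
theorem d0_stat {s g qa qb x h n e r w u m ν δ : ℝ}
    (hqa : 0 ≤ qa) (hg : 0 ≤ g) (hqg : qb < g) (hs : 0 ≤ s) (he : 0 ≤ e) (hν : 0 < ν)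
    (hδ : 0 ≤ δ) (hsmall : 3 + δ ≤ ν * δ) (hδg : 2 * δ < g - qb)
    (hx1 : x ≤ 1) (hh1 : h ≤ 1) (hn1 : n ≤ 1) (hu : 0 ≤ u)
    (hx : x ≤ s) (hw : 1 - x ≤ w) (hmr : m ≤ r) (hns : n ≤ s)
    (hm : 2 * s + g - 1 + qa - δ ≤ m)
    (hf : 2 * s + g - (x + h + (1 + ν) * n) + ν * (r + w + u) + e - ν * qb ≤ δ) : False := by
  have hn : r + w + u - qb - δ ≤ n := by
    by_contra hcon
    push Not at hcon
    have h1 : ν * (r + w + u - qb - δ - n) > 0 := mul_pos hν (by linarith)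
    nlinarith
  linarith

/-- the same with the facts as implications; `m` and the `C_a`-rate `m0 > 0` may be taken at
different positions -/
theorem d0_facts {s g qa qb x h n e r w u d m ν δ : ℝ}
    (hqa : 0 < qa) (hg : 0 ≤ g) (hqg : qb < g) (hs : 0 ≤ s) (hs1 : s < 1) (he : 0 ≤ e)
    (hν : 0 < ν) (hδ : 0 ≤ δ) (hδq : δ < qa) (hsmall : 3 + δ ≤ ν * δ) (hδg : 2 * δ < g - qb)
    (hx1 : x ≤ 1) (hh1 : h ≤ 1) (hn1 : n ≤ 1) (hu : 0 ≤ u)
    (K1 : 0 < m → x ≤ s) (TB : 0 < d → 1 - x ≤ w) (RM : 0 < w → m ≤ r) (K2 : 0 < r → n ≤ s)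
    (hd : 0 < d) (hm0 : qa - δ ≤ m) (hm : 2 * s + g - 1 + qa - δ ≤ m)
    (hf : 2 * s + g - (x + h + (1 + ν) * n) + ν * (r + w + u) + e - ν * qb ≤ δ) : False := by
  have hm1 : 0 < m := by linarith
  have hx := K1 hm1
  have hw := TB hd
  have hmr := RM (by linarith)
  exact d0_stat hqa.le hg hqg hs he hν hδ hsmall hδg hx1 hh1 hn1 hu hx hw hmr (K2 (by linarith)) hm hf

/-- the choice of `ν` and `δ` -/
theorem exists_nu' {g qa qb : ℝ} (hqa : 0 < qa) (hqg : qb < g) :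
    ∃ δ : ℝ, 0 < δ ∧ δ < qa ∧ 2 * δ < g - qb ∧
      ∃ ν0 : ℝ, 0 < ν0 ∧ ∀ ν, ν0 ≤ ν → 3 + δ ≤ ν * δ := by
  have hδ : 0 < min (qa / 2) ((g - qb) / 3) := lt_min (by positivity) (by linarith)
  refine ⟨min (qa / 2) ((g - qb) / 3), hδ, by linarith [min_le_left (qa / 2) ((g - qb) / 3)],
    by linarith [min_le_right (qa / 2) ((g - qb) / 3)],
    (3 + min (qa / 2) ((g - qb) / 3)) / min (qa / 2) ((g - qb) / 3), by positivity,
    fun ν hν => ?_⟩
  rwa [div_le_iff₀ hδ] at hν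

end Crest.Agent.R116.D0a389
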