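import Crest.Agent.R116.Sg1_388

/-!
# R116 (K side), D4: analytic half of LEMMA D0 with a slanted direction (helper708; 800's 20868 (4))

* `exists_density` : points of density of a set of positive measure
* **`slant`** : `F` Lipschitz on `(v1, v2) × (0, t0)`, `-K' t ≤ F (v, t) ≤ 0`, `V` measurable; if at
  almost every `(v, t)` with `v ∈ V` the derivative of `F` in the direction `(-1, q)`, `0 ≤ q`, is
  `≥ κ > 0`, then `V ∩ (v1, v2)` is a null set.
-/

set_option autoImplicit false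

open MeasureTheory Set Filter Topology
open scoped NNReal ENNReal

namespace Crest.Agent.R116.D0h708

/-- points of density -/
theorem exists_density {S : Set ℝ} (hS : MeasurableSet S) (h0 : volume S ≠ 0) :
    ∃ v ∈ S, ∀ η : ℝ, 0 < η → ∀ᶠ r in 𝓝[>] (0 : ℝ),
      volume (Sᶜ ∩ Metric.closedBall v r) ≤ ENNReal.ofReal (η * r) := by
  have h1 := Besicovitch.ae_tendsto_measure_inter_div_of_measurableSet (volume : Measure ℝ)
    hS.compl
  obtain ⟨v, hv, hv2⟩ : ∃ v ∈ S, Tendsto (fun r => volume (Sᶜ ∩ Metric.closedBall v r) /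
      volume (Metric.closedBall v r)) (𝓝[>] 0) (𝓝 (Sᶜ.indicator 1 v)) := by
    by_contra hcon
    push Not at hcon
    refine h0 (measure_mono_null (fun v hv => ?_) (ae_iff.1 h1))
    exact hcon v hv
  refine ⟨v, hv, fun η hη => ?_⟩
  have e0 : (Sᶜ.indicator 1 v : ℝ≥0∞) = 0 := indicator_of_notMem (by simpa using hv) _
  rw [e0] at hv2
  have h2 : ∀ᶠ r in 𝓝[>] (0 : ℝ), volume (Sᶜ ∩ Metric.closedBall v r) /
      volume (Metric.closedBall v r) < ENNReal.ofReal (η / 2) :=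
    hv2.eventually_lt_const (by simpa using half_pos hη)
  filter_upwards [h2, self_mem_nhdsWithin] with r hr hr0
  have hr0' : (0 : ℝ) < r := hr0
  rw [Real.volume_closedBall] at hr
  have h3 : ENNReal.ofReal (2 * r) ≠ 0 := by
    simpa using hr0'
  have h4 := (ENNReal.div_le_iff h3 ENNReal.ofReal_ne_top).1 hr.le
  refine h4.trans (le_of_eq ?_)
  rw [← ENNReal.ofReal_mul (by positivity)]
  congr 1
  ring

/-- one line -/
theorem line_mean {g : ℝ → ℝ} {L : ℝ≥0} {h κ : ℝ} (hh : 0 < h) (hκ : 0 < κ)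
    (hg : LipschitzWith L g) {A : Set ℝ} (hA : MeasurableSet A) {b : ℝ} (hb : 0 ≤ b)
    (hAb : volume (Aᶜ ∩ Icc 0 h) ≤ ENNReal.ofReal b)
    (hd : ∀ᵐ u, u ∈ Ioo 0 h → u ∈ A → κ ≤ deriv g u) :
    κ * h - (κ + L) * b ≤ g h - g 0 := by
  have hac : AbsolutelyContinuousOnInterval g 0 h :=
    LipschitzOnWith.absolutelyContinuousOnInterval hg.lipschitzOnWith
  have hI := hac.integral_deriv_eq_sub
  have hii := hac.intervalIntegrable_deriv
  rw [← hI]
  set φ : ℝ → ℝ := fun u => κ - (κ + L) * (Aᶜ).indicator (fun _ => (1 : ℝ)) u with hφ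
  have hφi : IntervalIntegrable φ volume 0 h := by
    refine intervalIntegrable_const.sub (IntervalIntegrable.const_mul ?_ _)
    rw [intervalIntegrable_iff_integrableOn_Icc_of_le hh.le]
    refine IntegrableOn.indicator ?_ hA.compl
    exact (integrableOn_const (by simp))
  have hle : ∫ u in (0 : ℝ)..h, φ u ≤ ∫ u in (0 : ℝ)..h, deriv g u := by
    refine intervalIntegral.integral_mono_ae_restrict hh.le hφi hii ?_
    have h1 : ∀ᵐ t ∂(volume.restrict (Icc 0 h)), t ∈ Ioo 0 h := by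
      rw [← restrict_Ioo_eq_restrict_Icc]
      exact ae_restrict_mem measurableSet_Ioo
    filter_upwards [h1, ae_restrict_of_ae hd] with t h2 h3
    by_cases hA' : t ∈ A
    · have e : (Aᶜ).indicator (fun _ => (1 : ℝ)) t = 0 := indicator_of_notMem (by simpa using hA') _
      simp only [hφ, e]
      have := h3 h2 hA'
      linarith
    · have e : (Aᶜ).indicator (fun _ => (1 : ℝ)) t = 1 := indicator_of_mem (by simpa using hA') _
      simp only [hφ, e]
      have h4 := norm_deriv_le_of_lipschitz hg (x₀ := t)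
      have h5 := (abs_le.1 h4).1
      linarith
  refine le_trans ?_ hle
  have e1 : ∫ u in (0 : ℝ)..h, φ u = κ * h - (κ + L) *
      ∫ u in (0 : ℝ)..h, (Aᶜ).indicator (fun _ => (1 : ℝ)) u := by
    simp only [hφ]
    rw [intervalIntegral.integral_sub intervalIntegrable_const, intervalIntegral.integral_const,
      intervalIntegral.integral_const_mul, smul_eq_mul]
    · ring
    · refine IntervalIntegrable.const_mul ?_ _
      rw [intervalIntegrable_iff_integrableOn_Icc_of_le hh.le]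
      refine IntegrableOn.indicator ?_ hA.compl
      exact (integrableOn_const (by simp))
  have e2 : ∫ u in (0 : ℝ)..h, (Aᶜ).indicator (fun _ => (1 : ℝ)) u ≤ b := by
    rw [intervalIntegral.integral_of_le hh.le, integral_indicator_const _ hA.compl, smul_eq_mul,
      mul_one, measureReal_restrict_apply hA.compl]
    refine le_trans ?_ (ENNReal.toReal_ofReal hb).le
    refine (ENNReal.toReal_le_toReal ?_ ENNReal.ofReal_ne_top).2 ?_
    · exact ne_top_of_le_ne_top ENNReal.ofReal_ne_top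
        ((measure_mono (inter_subset_inter_right _ Ioc_subset_Icc_self)).trans hAb)
    · exact (measure_mono (inter_subset_inter_right _ Ioc_subset_Icc_self)).trans hAb
  rw [e1]
  have hL : (0 : ℝ) ≤ κ + L := by positivity
  nlinarith

/-- **the slanted direction** -/
theorem slant {F : ℝ × ℝ → ℝ} {K : ℝ≥0} {v1 v2 t0 q κ K' : ℝ} (ht0 : 0 < t0) (hq : 0 ≤ q)
    (hκ : 0 < κ) (hF : LipschitzOnWith K F (Ioo v1 v2 ×ˢ Ioo 0 t0))
    (hlow : ∀ z ∈ Ioo v1 v2 ×ˢ Ioo 0 t0, -(K' * z.2) ≤ F z)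
    (hup : ∀ z ∈ Ioo v1 v2 ×ˢ Ioo 0 t0, F z ≤ 0) {V : Set ℝ} (hV : MeasurableSet V)
    (hae : ∀ᵐ z : ℝ × ℝ, z ∈ Ioo v1 v2 ×ˢ Ioo 0 t0 → z.1 ∈ V → DifferentiableAt ℝ F z →
      κ ≤ fderiv ℝ F z (-1, q)) :
    volume (V ∩ Ioo v1 v2) = 0 := by
  by_contra hcon
  set Ω : Set (ℝ × ℝ) := Ioo v1 v2 ×ˢ Ioo 0 t0 with hΩ
  have hΩo : IsOpen Ω := isOpen_Ioo.prod isOpen_Ioo
  obtain ⟨g, hg, hgΩ⟩ := hF.extend_real
  set S : Set ℝ := V ∩ Ioo v1 v2 with hS
  have hSm : MeasurableSet S := hV.inter measurableSet_Ioo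
  obtain ⟨v0, hv0, hden⟩ := exists_density hSm hcon
  have hv1 : v1 < v0 := hv0.2.1
  have hv2 : v0 < v2 := hv0.2.2
  set d : ℝ × ℝ := (-1, q) with hd
  set L : ℝ≥0 := K * ‖d‖₊ with hL
  -- the constant `η`
  obtain ⟨η, hη0, hη1, hη⟩ : ∃ η : ℝ, 0 < η ∧ η ≤ 1 ∧
      (κ + L) * (3 * η) + |K'| * (3 / 2 * η) < κ := by
    refine ⟨min 1 (κ / (2 * ((κ + L) * 3 + |K'| * (3 / 2) + 1))), lt_min one_pos (by positivity),
      min_le_left _ _, ?_⟩
    set M : ℝ := (κ + L) * 3 + |K'| * (3 / 2) with hM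
    have hM0 : 0 ≤ M := by positivity
    have h1 : min 1 (κ / (2 * (M + 1))) ≤ κ / (2 * (M + 1)) := min_le_right _ _
    set m := min 1 (κ / (2 * (M + 1))) with hm
    have h2 : (κ + L) * (3 * m) + |K'| * (3 / 2 * m) = M * m := by rw [hM]; ring
    rw [h2]
    have h3 : M * m ≤ M * (κ / (2 * (M + 1))) := mul_le_mul_of_nonneg_left h1 hM0
    have h4 : M * (κ / (2 * (M + 1))) < κ := by
      rw [← mul_div_assoc, div_lt_iff₀ (by positivity)]
      nlinarith
    linarith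
  -- the length `h`
  obtain ⟨h, hh0, hh1, hh2, hh3, hh4⟩ : ∃ h : ℝ, 0 < h ∧ v1 < v0 - 3 / 2 * h ∧ v0 + h / 2 < v2 ∧
      (3 / 2 + q) * h < t0 ∧
      volume (Sᶜ ∩ Metric.closedBall v0 (3 / 2 * h)) ≤ ENNReal.ofReal (η * (3 / 2 * h)) := by
    have e1 : ∀ᶠ r in 𝓝[>] (0 : ℝ), volume (Sᶜ ∩ Metric.closedBall v0 r) ≤
        ENNReal.ofReal (η * r) := hden η hη0
    have e2 : Tendsto (fun h : ℝ => 3 / 2 * h) (𝓝[>] (0 : ℝ)) (𝓝[>] (0 : ℝ)) := by
      refine tendsto_nhdsWithin_iff.2 ⟨?_, ?_⟩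
      · have : Tendsto (fun h : ℝ => 3 / 2 * h) (𝓝 0) (𝓝 (3 / 2 * 0)) :=
          (continuous_const.mul continuous_id).tendsto _
        rw [mul_zero] at this
        exact this.mono_left nhdsWithin_le_nhds
      · filter_upwards [self_mem_nhdsWithin] with x hx
        have : (0 : ℝ) < x := hx
        change (0 : ℝ) < 3 / 2 * x
        linarith
    have e3 := e2.eventually e1
    have c1 : ∀ᶠ h in 𝓝[>] (0 : ℝ), v1 < v0 - 3 / 2 * h := by
      have : Tendsto (fun h : ℝ => v0 - 3 / 2 * h) (𝓝 0) (𝓝 (v0 - 3 / 2 * 0)) :=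
        (continuous_const.sub (continuous_const.mul continuous_id)).tendsto _
      rw [mul_zero, sub_zero] at this
      exact (this.mono_left nhdsWithin_le_nhds).eventually_const_lt hv1
    have c2 : ∀ᶠ h in 𝓝[>] (0 : ℝ), v0 + h / 2 < v2 := by
      have : Tendsto (fun h : ℝ => v0 + h / 2) (𝓝 0) (𝓝 (v0 + 0 / 2)) :=
        (continuous_const.add (continuous_id.div_const _)).tendsto _
      rw [zero_div, add_zero] at this
      exact (this.mono_left nhdsWithin_le_nhds).eventually_lt_const hv2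
    have c3 : ∀ᶠ h in 𝓝[>] (0 : ℝ), (3 / 2 + q) * h < t0 := by
      have : Tendsto (fun h : ℝ => (3 / 2 + q) * h) (𝓝 0) (𝓝 ((3 / 2 + q) * 0)) :=
        (continuous_const.mul continuous_id).tendsto _
      rw [mul_zero] at this
      exact (this.mono_left nhdsWithin_le_nhds).eventually_lt_const ht0
    obtain ⟨h, a1, a2, a3, a4, a5⟩ := (e3.and (c1.and (c2.and (c3.and
      self_mem_nhdsWithin)))).exists
    exact ⟨h, a5, a2, a3, a4, a1⟩
  -- the good set
  set P : Set (ℝ × ℝ) := {z | (z ∈ Ω → z.1 ∈ V → κ ≤ fderiv ℝ g z d) ∧ DifferentiableAt ℝ g z}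
    with hP
  have hPae : ∀ᵐ z : ℝ × ℝ, z ∈ P := by
    filter_upwards [hae, hg.ae_differentiableAt (μ := (volume : Measure (ℝ × ℝ)))] with z h1 h2
    refine ⟨fun hz hzV => ?_, h2⟩
    have heq : F =ᶠ[𝓝 z] g := by
      filter_upwards [hΩo.mem_nhds hz] with w hw using hgΩ hw
    have h3 := h1 hz hzV ((heq.differentiableAt_iff).2 h2)
    rwa [heq.fderiv_eq] at h3
  set M : Set (ℝ × ℝ) := toMeasurable volume Pᶜ with hM
  have hMm : MeasurableSet M := measurableSet_toMeasurable _ _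
  have hM0 : volume M = 0 := by rw [hM, measure_toMeasurable]; exact hPae
  have hMP : Mᶜ ⊆ P := by
    rw [compl_subset_comm]; exact subset_toMeasurable _ _
  set ℓ : ℝ →ₗ[ℝ] ℝ × ℝ := LinearMap.toSpanSingleton ℝ (ℝ × ℝ) d with hℓ
  have hfib : ∀ᵐ p : ℝ × ℝ, ∀ᵐ t : ℝ, p + ℓ t ∈ Mᶜ :=
    (ae_ae_add_linearMap_mem_iff ℓ volume volume hMm.compl).2
      (measure_eq_zero_iff_ae_notMem.1 hM0)
  set τ : ℝ := η * h with hτ
  have hτ0 : 0 < τ := mul_pos hη0 hh0
  have hτh : τ ≤ h := by rw [hτ]; nlinarith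
  obtain ⟨p, hp, hp2⟩ : ∃ p ∈ Metric.ball ((v0, τ) : ℝ × ℝ) (τ / 2), ∀ᵐ t : ℝ, p + ℓ t ∈ Mᶜ := by
    by_contra hcon
    have hsub : Metric.ball ((v0, τ) : ℝ × ℝ) (τ / 2) ⊆ {q | ¬ ∀ᵐ t : ℝ, q + ℓ t ∈ Mᶜ} :=
      fun q hq hP => hcon ⟨q, hq, hP⟩
    exact (Metric.measure_ball_pos (volume : Measure (ℝ × ℝ)) ((v0, τ) : ℝ × ℝ)
      (half_pos hτ0)).ne' (measure_mono_null hsub (ae_iff.1 hfib))
  rw [Metric.mem_ball, Prod.dist_eq, max_lt_iff, Real.dist_eq, Real.dist_eq, abs_lt, abs_lt] at hp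
  obtain ⟨⟨p1, p2⟩, p3, p4⟩ := hp
  simp only at p1 p2 p3 p4
  -- the line
  have hline : ∀ u ∈ Icc (0 : ℝ) h, p + u • d ∈ Ω := by
    intro u hu
    refine ⟨⟨?_, ?_⟩, ?_, ?_⟩
    · change v1 < p.1 + u * (-1)
      linarith [hu.2]
    · change p.1 + u * (-1) < v2
      linarith [hu.1]
    · change 0 < p.2 + u * q
      have := mul_nonneg hu.1 hq
      linarith
    · change p.2 + u * q < t0
      have := mul_le_mul_of_nonneg_right hu.2 hq
      nlinarith
  have hgL : LipschitzWith L fun t : ℝ => g (p + t • d) := by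
    refine LipschitzWith.of_dist_le_mul fun t t' => ?_
    have h1 := hg.dist_le_mul (p + t • d) (p + t' • d)
    have h2 : dist (p + t • d) (p + t' • d) = dist t t' * ‖d‖ := by
      rw [dist_add_left, dist_eq_norm, ← sub_smul, norm_smul, Real.dist_eq, Real.norm_eq_abs]
    rw [h2] at h1
    refine h1.trans (le_of_eq ?_)
    rw [hL]
    push_cast
    ring
  set A : Set ℝ := {u | p.1 - u ∈ S} with hA
  have hAm : MeasurableSet A := by
    have : Measurable fun u : ℝ => p.1 - u := measurable_const.sub measurable_id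
    exact this hSm
  have hAb : volume (Aᶜ ∩ Icc 0 h) ≤ ENNReal.ofReal (η * (3 / 2 * h)) := by
    refine le_trans ?_ hh4
    have e1 : Aᶜ ∩ Icc 0 h ⊆ (fun u : ℝ => p.1 - u) ⁻¹' (Sᶜ ∩ Metric.closedBall v0 (3 / 2 * h)) := by
      intro u hu
      refine ⟨hu.1, ?_⟩
      change p.1 - u ∈ Metric.closedBall v0 (3 / 2 * h)
      rw [Metric.mem_closedBall, Real.dist_eq, abs_le]
      constructor <;> linarith [hu.2.1, hu.2.2]
    refine (measure_mono e1).trans (le_of_eq ?_)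
    have e2 : MeasurePreserving (fun u : ℝ => p.1 - u) volume volume :=
      Measure.measurePreserving_sub_left volume p.1
    exact e2.measure_preimage (hSm.compl.inter measurableSet_closedBall).nullMeasurableSet
  have hder : ∀ᵐ u : ℝ, u ∈ Ioo 0 h → u ∈ A → κ ≤ deriv (fun t : ℝ => g (p + t • d)) u := by
    filter_upwards [hp2] with u h1 h2 h3
    have h4 : p + u • d ∈ P := by
      have := hMP h1
      rwa [hℓ, LinearMap.toSpanSingleton_apply] at this
    have h5 : (p + u • d).1 ∈ V := by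
      change p.1 + u * (-1) ∈ V
      have h6 : p.1 - u ∈ S := h3
      have : p.1 + u * (-1) = p.1 - u := by ring
      rw [this]; exact h6.1
    have h6 := h4.1 (hline u (Ioo_subset_Icc_self h2)) h5
    have hd : HasDerivAt (fun t : ℝ => g (p + t • d)) (fderiv ℝ g (p + u • d) d) u := by
      have h1 : HasFDerivAt g (fderiv ℝ g (p + u • d)) (p + u • d) := h4.2.hasFDerivAt
      have h2 : HasDerivAt (fun t : ℝ => p + t • d) d u := by
        have := ((hasDerivAt_id u).smul_const d).const_add p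
        simpa using this
      exact h1.comp_hasDerivAt u h2
    rw [hd.deriv]
    exact h6
  have hfin := line_mean hh0 hκ hgL hAm (b := η * (3 / 2 * h)) (by positivity) hAb hder
  have g0 : -(K' * p.2) ≤ g (p + (0 : ℝ) • d) := by
    have h1 := hline 0 ⟨le_rfl, hh0.le⟩
    rw [← hgΩ h1]
    have h2 := hlow _ h1
    rw [zero_smul, add_zero] at h2 ⊢
    exact h2
  have g1 : g (p + h • d) ≤ 0 := by
    have h1 := hline h ⟨hh0.le, le_rfl⟩
    rw [← hgΩ h1]
    exact hup _ h1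
  have g2 : K' * p.2 ≤ |K'| * (3 / 2 * η * h) := by
    have h1 : K' * p.2 ≤ |K'| * p.2 := mul_le_mul_of_nonneg_right (le_abs_self _) (by linarith)
    have h2 : |K'| * p.2 ≤ |K'| * (3 / 2 * η * h) :=
      mul_le_mul_of_nonneg_left (by rw [hτ] at p4; linarith) (abs_nonneg _)
    linarith
  have hL0 : (0 : ℝ) ≤ L := L.coe_nonneg
  have g3 : ((κ + L) * (3 * η) + |K'| * (3 / 2 * η)) * h < κ * h :=
    mul_lt_mul_of_pos_right hη hh0
  have g4 : (κ + L) * (η * (3 / 2 * h)) ≤ (κ + L) * (3 * η) * h := by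
    have : 0 ≤ (κ + (L : ℝ)) * (η * h) := by positivity
    nlinarith
  nlinarith

end Crest.Agent.R116.D0h708
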