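import Mathlib
import Crest.Agent.R136.MkA_627

/-!
# R116 (K side), block X1-C, literal objects (helper794): class of test sets, configurations, gap

* `TS Ln ι S`   : class of test sets of one resolution.  A test set is a pair `s : (ι → ℕ) × S`,
  `s.1` = its dyadic ABSOLUTE widths `2^-(s.1 j)`, `j : ι` (`ℝ^{3+1}`: `ι = Fin 2`, wide and narrow
  width, `S` = 725's `Mem`; the height thickness is a function of widths, level and resolution and
  enters through `vol` only).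
* `TS.cap p`  : capacity `vol * ∏ (relative width)^(p j)`, `p` = vector of rewards.
* `Cl C`      : the relative exponents of two shapes of the levels `m ≤ m'` differ by at most
  `C (m' - m)`.
* `Cfg`, `Cfg.Ok C p` : configuration of the window `[m, m+M]`: honest classes at the top, all of the
  SAME widths `a`; own counts `≥ nu`; the bottom bound `D0` is only asked for test sets `Cl C`-close
  to the top shape.
* `UB 𝒯 C p b` : the gap of every configuration (of the class family `𝒯`) at the rewards `p` is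
  `≤ b` in the limit.  `gap p = inf b`.
* `TrivB` = (V), `Enemy` = (E): the two inputs.
* `geo` : the abstract geometry of `MkA_627` given by a sequence of classes and lines.
-/

set_option autoImplicit false

open Finset Filter Topology

namespace Crest.Agent.R116.Xa794

open Crest.Agent.R138.Ex926 (Base U)
open Crest.Agent.R138.Mk163 (zc zl rho alive own)
open Crest.Agent.R136.MkA627 (Geo MkA)

/-- a class of test sets of one resolution, over lines of type `Ln`, with widths indexed by `ι`. -/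
structure TS (Ln ι S : Type) where
  /-- the line `l` runs in the test set `s` over the cell `J` of level `i` -/
  mem : ℕ → ℤ → (ι → ℕ) × S → Ln → Prop
  /-- admissible test sets over the cell `J` of level `i` -/
  adm : ℕ → ℤ → (ι → ℕ) × S → Prop
  /-- volume of the section, a function of level and widths -/
  vol : ℕ → (ι → ℕ) → ℝ
  volpos : ∀ i a, 0 < vol i a

section

variable {Ln ι S : Type} [Fintype ι]

/-- capacity at the rewards `p` -/
noncomputable def TS.cap (T : TS Ln ι S) (p : ι → ℝ) (i : ℕ) (a : ι → ℕ) : ℝ :=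
  T.vol i a * (2 : ℝ) ^ (-(∑ j, p j * ((a j : ℝ) - i)))

/-- the relative exponents of the shapes `a` (level `m`) and `a'` (level `m' ≥ m`) differ by at most
`C (m' - m)`. -/
def Cl (C : ℕ) (m : ℕ) (a : ι → ℕ) (m' : ℕ) (a' : ι → ℕ) : Prop :=
  ∀ j, |((a j : ℤ) - m) - ((a' j : ℤ) - m')| ≤ C * ((m' : ℤ) - m)

/-- finite configuration of the window `[m, m+M]`. -/
structure Cfg (Ln ι S : Type) where
  m : ℕ
  M : ℕ
  /-- incidences (line number, height) -/
  I : Finset (ℕ × ℝ)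
  /-- the lines -/
  L : ℕ → Ln
  /-- class of a line over a cell of level `m+M` -/
  f : ℕ → ℤ → ℕ
  /-- test set of a class -/
  b : ℕ → (ι → ℕ) × S
  /-- common widths of the marks -/
  a : ι → ℕ
  D0 : ℝ
  D1 : ℝ
  nu : ℝ

open Classical in
/-- validity of a configuration at the rewards `p`, restricted bottom bound. -/
structure Cfg.Ok (T : TS Ln ι S) (C : ℕ) (p : ι → ℝ) (F : Cfg Ln ι S) : Prop where
  M1 : 1 ≤ F.M
  ne : F.I.Nonempty
  cell : ∀ x ∈ F.I, ∀ y ∈ F.I, zc F.m x.2 = zc F.m y.2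
  D1p : 0 < F.D1
  nup : 0 < F.nu
  top : ∀ J : ℤ, ∀ t ∈ alive F.I (F.m + F.M) J,
    T.mem (F.m + F.M) J (F.b (F.f t J)) (F.L t) ∧ T.adm (F.m + F.M) J (F.b (F.f t J)) ∧
      (F.b (F.f t J)).1 = F.a
  low : ∀ J : ℤ, ∀ t ∈ alive F.I (F.m + F.M) J,
    F.D1 * T.cap p (F.m + F.M) F.a ≤
      (((alive F.I (F.m + F.M) J).filter fun s => F.f s J = F.f t J).card : ℝ)
  own : ∀ x ∈ F.I, F.nu ≤ ((own F.I F.m (F.m + F.M) x).card : ℝ)
  up : ∀ J : ℤ, ∀ s : (ι → ℕ) × S, T.adm F.m J s → Cl C F.m s.1 (F.m + F.M) F.a →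
    (((alive F.I F.m J).filter fun t => T.mem F.m J s (F.L t)).card : ℝ) ≤
      F.D0 * T.cap p F.m s.1

/-- the gap of all configurations at the rewards `p` is at most `b`. -/
def UB (𝒯 : Set (TS Ln ι S)) (C : ℕ) (p : ι → ℝ) (b : ℝ) : Prop :=
  ∀ η : ℝ, 0 < η → ∃ δ : ℝ, 0 < δ ∧ ∃ M0 : ℕ, ∀ T ∈ 𝒯, ∀ F : Cfg Ln ι S, F.Ok T C p → M0 ≤ F.M →
    Real.log (F.I.card : ℝ) ≤ (2 : ℝ) ^ (δ * F.M) →
      F.D1 * F.nu ^ 2 ≤ (2 : ℝ) ^ ((b + η) * F.M) * 4 ^ F.M * F.D0

/-- the extremal gap -/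
noncomputable def gap (𝒯 : Set (TS Ln ι S)) (C : ℕ) (p : ι → ℝ) : ℝ := sInf {b | UB 𝒯 C p b}

/-- **(V)** trivial bound of the class family, the only geometric upper bound which is used. -/
def TrivB (𝒯 : Set (TS Ln ι S)) (C : ℕ) : Prop :=
  ∃ c : ℝ, 0 < c ∧ ∀ p : ι → ℝ, (∀ j, 0 ≤ p j ∧ p j ≤ 4) → ∀ T ∈ 𝒯, ∀ F : Cfg Ln ι S, F.Ok T C p →
    F.D1 ≤ c * (2 : ℝ) ^ ((2 - ∑ j, p j) * F.M) * F.D0

/-- **(E)** the enemy: the gap without rewards is positive. -/
def Enemy (𝒯 : Set (TS Ln ι S)) (C : ℕ) : Prop := ∃ b0 : ℝ, 0 < b0 ∧ ¬ UB 𝒯 C (fun _ => 0) b0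

/-- the abstract geometry of `MkA` given by a sequence of classes and lines; `val` = capacity,
`wid` = dyadic absolute widths. -/
noncomputable def geo (T : ℕ → TS Ln ι S) (q : ι → ℝ) (L : ℕ → ℕ → Ln) : Geo ((ι → ℕ) × S) ι where
  mem := fun n i J s t => (T n).mem i J s (L n t)
  adm := fun n i J s => (T n).adm i J s
  val := fun n i _ s => (T n).cap q i s.1
  wid := fun j s => (1 / 2 : ℝ) ^ (s.1 j)

/-- **the output of X1-C** (restricted D-max): exactly linear widths `θ j (1 - v)`, gap `g`, own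
profile `Λ`; `dmax` for the test sets which are `Cl C`-close to the top marks, rewards `q`. -/
def XOut (𝒯 : Set (TS Ln ι S)) (C : ℕ) (q : ι → ℝ) (g : ℝ) (θ : ι → ℝ) : Prop :=
  ∃ (B : Base) (I : ℕ → Finset (ℕ × ℝ)) (T : ℕ → TS Ln ι S) (L : ℕ → ℕ → Ln) (lev : ℕ → ℚ → ℕ)
    (A : ℕ → ℝ) (Λ : ℝ → ℝ) (f : ℕ → ℚ → ℕ → ℤ → ℕ) (b : ℕ → ℚ → ℕ → (ι → ℕ) × S)
    (vm : ℕ → ℚ → ℝ) (w : ι → ℕ → ℚ → ℝ) (atop : ℕ → ι → ℕ),
    (∀ n, T n ∈ 𝒯) ∧
    MkA B I
      { geo T q L with
        adm := fun n i J s => (T n).adm i J s ∧ Cl C i s.1 (lev n 1) (atop n) }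
      lev A (fun v => g * v + 2 * Λ v) Λ (fun j v => θ j * (1 - v)) f b vm w

end

end Crest.Agent.R116.Xa794
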