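import Crest.Agent.R116.LZg4_725
import Crest.Agent.R116.XaDef_794

/-!
# R116 (K side), literal of the light-ray instance of the class of test sets (helper439, architect I-c)

`TSL r` : the class of test sets of resolution `r` over light rays (725's wave sign
`(C, a, k) : E2 × E2 × ℝ`), over 725's `Mem` with `B = 0` (no floor) and the class constant
`kM0 = 1/100` (the lateral gradient rotates by `≤ 1/10` over a member, so `±φ` can be normalised by
one axis).  Over the cell `J` of level `i` (`zc i s = J`, i.e. `s ∈ [J 2^-i, (J+1) 2^-i)`):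
`R = 2^-i`, `s0 = (J + 1/2) 2^-i`, dyadic absolute widths `sg R = 2^-(a 0)`, `s1 R = 2^-(a 1)`,
resolution `r ≤ s1 R`, aperture `sg ≤ 1`, curvature `|d| sg R ≤ kD`, `|ny(s0)| sg ≤ 2 kD`,
`kD = 1/400` (v2, helper803: closed under extension to longer cells).  Volume (= section cost `s1 sg sg² R³`)
`vol i a = 2^-(3 a0 + a1) 2^i`.
-/

set_option autoImplicit false

namespace Crest.Agent.R116.KI439

open Crest.Agent.R116.LZg725
open Crest.Agent.R116.Xa794 (TS)
open Crest.Agent.R138.Defs (E2)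

/-- light rays of `ℝ^{3+1}`, 725's sign: `x = a - s C`, `y = k + s |C|²/2`. -/
abbrev LRay : Type := E2 × E2 × ℝ

/-- the class constant. -/
noncomputable def kM0 : ℝ := 1 / 100

/-- bound of the curvature parameters (803: with `dd`, `nn` the class is closed under extension to
longer cells). -/
noncomputable def kD : ℝ := 1 / 400

/-- admissible member over the cell `J` of level `i`, widths `a`, resolution `r`. -/
structure AdmL (r : ℝ) (i : ℕ) (J : ℤ) (a : Fin 2 → ℕ) (m : Mem) : Prop where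
  ok : m.Ok kM0 0
  hR : m.R = (1 / 2 : ℝ) ^ i
  hs0 : m.s0 = ((J : ℝ) + 1 / 2) * (1 / 2 : ℝ) ^ i
  sg1 : m.sg ≤ 1
  wide : m.sg * m.R = (1 / 2 : ℝ) ^ (a 0)
  thin : m.s1 * m.R = (1 / 2 : ℝ) ^ (a 1)
  res : r ≤ m.s1 * m.R
  dd : |m.phi.d| * (m.sg * m.R) ≤ kD
  nn : |m.phi.ny m.s0| * m.sg ≤ 2 * kD

/-- section cost. -/
noncomputable def volL (i : ℕ) (a : Fin 2 → ℕ) : ℝ := (1 / 2 : ℝ) ^ (3 * a 0 + a 1) * 2 ^ i

theorem volL_pos (i : ℕ) (a : Fin 2 → ℕ) : 0 < volL i a := by
  unfold volL; positivity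

/-- **the class of test sets of resolution `r`.** -/
noncomputable def TSL (r : ℝ) : TS LRay (Fin 2) Mem where
  mem := fun _ _ s l => l ∈ s.2.rays 0
  adm := fun i J s => AdmL r i J s.1 s.2
  vol := volL
  volpos := volL_pos

/-- all resolutions. -/
def TSS : Set (TS LRay (Fin 2) Mem) := {T | ∃ r : ℝ, 0 < r ∧ r ≤ 1 ∧ T = TSL r}

/-- `vol` is the section cost of the member. -/
theorem volL_eq {r : ℝ} {i : ℕ} {J : ℤ} {a : Fin 2 → ℕ} {m : Mem} (h : AdmL r i J a m) :
    m.scost 0 = volL i a := by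
  have hR : 0 < m.R := h.ok.hR
  have hT : m.T 0 = m.sg ^ 2 := by
    unfold Mem.T
    rw [zero_div]
    exact max_eq_left (by positivity)
  unfold Mem.scost volL
  rw [hT]
  have e1 : m.s1 * m.sg * m.sg ^ 2 * m.R ^ 3 = (m.sg * m.R) ^ 3 * (m.s1 * m.R) * (m.R)⁻¹ := by
    field_simp
  rw [e1, h.wide, h.thin, h.hR, ← pow_mul, ← inv_pow, ← pow_add]
  norm_num [mul_comm]

end Crest.Agent.R116.KI439
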