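import Mathlib
import Crest.Agent.R116.XaDef_794

/-!
# R116 (K side), block X1-C, FULL class with concave homogeneous reward (635's 16524) (helper794)

The class of test sets `TS` is that of `XaDef_794`.

* `rel i s m' a` : relative exponents of the shape `s` (level `i`) minus those of the shape `a`
  (level `m'`);
* `TS.capP Ψ m' a i s` : capacity `vol i s * 2^(-Ψ (m' - i) (rel i s m' a))`;
* `Cfg`, `Cfg.Ok T Ψ` : configuration of the window `[m, m+M]`, ALL admissible test sets at the bottom;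
  `N` bounds the exponents of all admissible test sets;
* `UB 𝒯 Ψ b` : gap at most `b` in the limit; `bet 𝒯 Ψ = sInf b`;
* `TrivB` (V), `Enemy` (E);
* `Rwd P` : properties of the reward family `P q len x` (635's Psi);
* `Chs 𝒯 P q0 κ δ0 q g` : the parameter chosen by 708;
* `geoP`, `XOutP` : the output (full D-max, reward `P q`).
-/

set_option autoImplicit false

open Finset Filter Topology

namespace Crest.Agent.R116.Xc794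

open Crest.Agent.R138.Ex926 (Base U)
open Crest.Agent.R138.Mk163 (zc zl rho alive own)
open Crest.Agent.R136.MkA627 (Geo MkA)
open Crest.Agent.R116.Xa794 (TS)

section

variable {Ln ι S : Type} [Fintype ι]

/-- relative exponents of the shape `s` of level `i` minus those of the shape `a` of level `m'` -/
def rel (i : ℕ) (s : ι → ℕ) (m' : ℕ) (a : ι → ℕ) : ι → ℝ :=
  fun j => ((s j : ℝ) - i) - ((a j : ℝ) - m')

/-- capacity with the reward `Ψ`, relative to the top marks of shape `a` and level `m'` -/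
noncomputable def capP (T : TS Ln ι S) (Ψ : ℝ → (ι → ℝ) → ℝ) (m' : ℕ) (a : ι → ℕ) (i : ℕ)
    (s : ι → ℕ) : ℝ :=
  T.vol i s * (2 : ℝ) ^ (-(Ψ ((m' : ℝ) - i) (rel i s m' a)))

/-- finite configuration of the window `[m, m+M]`. -/
structure Cfg (Ln ι S : Type) where
  m : ℕ
  M : ℕ
  /-- incidences (line number, height) -/
  I : Finset (ℕ × ℝ)
  /-- the lines -/
  L : ℕ → Ln
  /-- class of a line over a cell of level `m+M` -/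
  f : ℕ → ℤ → ℕ
  /-- test set of a class -/
  b : ℕ → (ι → ℕ) × S
  /-- common widths of the marks -/
  a : ι → ℕ
  D0 : ℝ
  D1 : ℝ
  nu : ℝ
  /-- bound of the exponents of all admissible test sets -/
  N : ℕ

open Classical in
/-- validity of a configuration with the reward `Ψ`. -/
structure Cfg.Ok (T : TS Ln ι S) (Ψ : ℝ → (ι → ℝ) → ℝ) (F : Cfg Ln ι S) : Prop where
  M1 : 1 ≤ F.M
  ne : F.I.Nonempty
  cell : ∀ x ∈ F.I, ∀ y ∈ F.I, zc F.m x.2 = zc F.m y.2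
  D1p : 0 < F.D1
  nup : 0 < F.nu
  fin : ∀ (i : ℕ) (J : ℤ) (s : (ι → ℕ) × S), T.adm i J s → ∀ j, s.1 j ≤ F.N
  top : ∀ J : ℤ, ∀ t ∈ alive F.I (F.m + F.M) J,
    T.mem (F.m + F.M) J (F.b (F.f t J)) (F.L t) ∧ T.adm (F.m + F.M) J (F.b (F.f t J)) ∧
      (F.b (F.f t J)).1 = F.a
  low : ∀ J : ℤ, ∀ t ∈ alive F.I (F.m + F.M) J,
    F.D1 * T.vol (F.m + F.M) F.a ≤
      (((alive F.I (F.m + F.M) J).filter fun s => F.f s J = F.f t J).card : ℝ)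
  own : ∀ x ∈ F.I, F.nu ≤ ((own F.I F.m (F.m + F.M) x).card : ℝ)
  up : ∀ J : ℤ, ∀ s : (ι → ℕ) × S, T.adm F.m J s →
    (((alive F.I F.m J).filter fun t => T.mem F.m J s (F.L t)).card : ℝ) ≤
      F.D0 * capP T Ψ (F.m + F.M) F.a F.m s.1

/-- the gap of all configurations with the reward `Ψ` is at most `b`. -/
def UB (𝒯 : Set (TS Ln ι S)) (Ψ : ℝ → (ι → ℝ) → ℝ) (b : ℝ) : Prop :=
  ∀ η : ℝ, 0 < η → ∃ δ : ℝ, 0 < δ ∧ ∃ M0 : ℕ, ∀ T ∈ 𝒯, ∀ F : Cfg Ln ι S, F.Ok T Ψ → M0 ≤ F.M →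
    Real.log (F.I.card : ℝ) ≤ (2 : ℝ) ^ (δ * F.M) → (F.N : ℝ) ≤ (2 : ℝ) ^ (δ * F.M) →
      F.D1 * F.nu ^ 2 ≤ (2 : ℝ) ^ ((b + η) * F.M) * 4 ^ F.M * F.D0

/-- the extremal gap -/
noncomputable def bet (𝒯 : Set (TS Ln ι S)) (Ψ : ℝ → (ι → ℝ) → ℝ) : ℝ := sInf {b | UB 𝒯 Ψ b}

/-- **(V)** trivial bound (test sets of the same absolute widths as the top marks). -/
def TrivB (𝒯 : Set (TS Ln ι S)) : Prop :=
  ∃ c : ℝ, 0 < c ∧ ∀ (Ψ : ℝ → (ι → ℝ) → ℝ), ∀ T ∈ 𝒯, ∀ F : Cfg Ln ι S,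
    F.Ok T Ψ → F.D1 ≤ c * (2 : ℝ) ^ (2 * (F.M : ℝ) - Ψ F.M (fun _ => (F.M : ℝ))) * F.D0

/-- **(E)** the enemy: no reward, top marks = full boxes, resolution `m + M`. -/
def Enemy (𝒯 : Set (TS Ln ι S)) : Prop :=
  ∃ b0 : ℝ, 0 < b0 ∧ ∀ δ : ℝ, 0 < δ → ∀ M0 : ℕ, ∃ T ∈ 𝒯, ∃ F : Cfg Ln ι S,
    F.Ok T (fun _ _ => 0) ∧ M0 ≤ F.M ∧ Real.log (F.I.card : ℝ) ≤ (2 : ℝ) ^ (δ * F.M) ∧
      F.N ≤ F.m + F.M ∧ (∀ j, F.a j = F.m + F.M) ∧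
      (2 : ℝ) ^ (b0 * F.M) * 4 ^ F.M * F.D0 < F.D1 * F.nu ^ 2

/-- properties of the reward family `P q len x` used by X1-C (635's Psi). -/
structure Rwd (P : ℝ → ℝ → (ι → ℝ) → ℝ) (ψ : ℝ → (ι → ℝ) → ℝ) (q0 : ℝ) : Prop where
  q0pos : 0 < q0
  /-- one parameter -/
  aff : ∀ q l x, P q l x = P 0 l x + q * ψ l x
  le : ∀ l x, 0 ≤ l → ψ l x ≤ l
  hom : ∀ q c l x, 0 ≤ q → 0 ≤ c → 0 ≤ l → P q (c * l) (fun j => c * x j) = c * P q l x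
  homψ : ∀ c l x, 0 ≤ c → 0 ≤ l → ψ (c * l) (fun j => c * x j) = c * ψ l x
  zero : ∀ q, P q 0 (fun _ => 0) = 0
  cont : ∀ q, Continuous (fun z : ℝ × (ι → ℝ) => P q z.1 z.2)
  contψ : Continuous (fun z : ℝ × (ι → ℝ) => ψ z.1 z.2)
  sup : ∀ q l l' x x', 0 ≤ q → 0 ≤ l → 0 ≤ l' → P q l x + P q l' x' ≤ P q (l + l') (fun j => x j + x' j)
  /-- coercivity : `ψ ≥ c l` bounds `x`; `Cc` -/
  coe : ∀ c : ℝ, 0 < c → ∃ R : ℝ, 0 < R ∧ ∀ l x, 0 ≤ l → c * l ≤ ψ l x → ∀ j, |x j| ≤ R * l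
  /-- equality case with modulus (`x` bounded, `x'` arbitrary), uniform in the lengths -/
  eqc : ∀ l0 R ε : ℝ, 0 < l0 → 0 < ε → ∃ δ : ℝ, 0 < δ ∧ ∀ q l l' x x', q0 ≤ q → q ≤ 8 →
    l0 ≤ l → l ≤ 2 → l0 ≤ l' → l' ≤ 2 → (∀ j, |x j| ≤ R) →
    P q (l + l') (fun j => x j + x' j) ≤ P q l x + P q l' x' + δ →
      ∀ j, |(x j + x' j) - (l + l') / l * x j| ≤ ε

/-- **the choice of the parameter** (708): `q` fixed, `β(q) = g`, drop rate `κ`. -/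
structure Chs (𝒯 : Set (TS Ln ι S)) (P : ℝ → ℝ → (ι → ℝ) → ℝ) (q0 κ δ0 q g : ℝ) : Prop where
  κpos : 0 < κ
  δ0pos : 0 < δ0
  qlo : q0 ≤ q
  qhi : q + δ0 ≤ 8
  gpos : 0 < g
  low : ∀ b : ℝ, b < g → ¬ UB 𝒯 (P q) b
  ub : UB 𝒯 (P q) g
  drop : ∀ δ : ℝ, 0 < δ → δ ≤ δ0 → UB 𝒯 (P (q + δ)) (g - κ * δ)

/-- the abstract geometry of `MkA`: `val` = capacity with the reward `Ψ` relative to the top marks
of shape `atop n` and level `mt n`. -/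
noncomputable def geoP (T : ℕ → TS Ln ι S) (Ψ : ℝ → (ι → ℝ) → ℝ) (mt : ℕ → ℕ)
    (atop : ℕ → ι → ℕ) (L : ℕ → ℕ → Ln) : Geo ((ι → ℕ) × S) ι where
  mem := fun n i J s t => (T n).mem i J s (L n t)
  adm := fun n i J s => (T n).adm i J s
  val := fun n i _ s => capP (T n) Ψ (mt n) (atop n) i s.1
  wid := fun j s => (1 / 2 : ℝ) ^ (s.1 j)

/-- **the output of X1-C**: full D-max with the reward `Ψ = P q`, exactly linear widths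
`θ j (1 - v)` with `κ ≤ ψ 1 θ`, gap `g`, own profile `Λ`; `N n` bounds all admissible exponents. -/
def XOutP (𝒯 : Set (TS Ln ι S)) (Ψ ψ : ℝ → (ι → ℝ) → ℝ) (κ g : ℝ) (θ : ι → ℝ) : Prop :=
  ∃ (B : Base) (I : ℕ → Finset (ℕ × ℝ)) (T : ℕ → TS Ln ι S) (L : ℕ → ℕ → Ln) (lev : ℕ → ℚ → ℕ)
    (A : ℕ → ℝ) (Λ : ℝ → ℝ) (f : ℕ → ℚ → ℕ → ℤ → ℕ) (b : ℕ → ℚ → ℕ → (ι → ℕ) × S)
    (vm : ℕ → ℚ → ℝ) (w : ι → ℕ → ℚ → ℝ) (atop : ℕ → ι → ℕ) (N : ℕ → ℕ),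
    (∀ n, T n ∈ 𝒯) ∧ (∀ n i J s, (T n).adm i J s → ∀ j, s.1 j ≤ N n) ∧
    (∀ ε : ℝ, 0 < ε → ∀ᶠ n in (U : Filter ℕ), (N n : ℝ) ≤ B.d n ^ (-ε)) ∧
    κ ≤ ψ 1 θ ∧
    MkA B I (geoP T Ψ (fun n => lev n 1) atop L)
      lev A (fun v => g * v + 2 * Λ v) Λ (fun j v => θ j * (1 - v)) f b vm w

end

end Crest.Agent.R116.Xc794
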