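import Mathlib

/-!
# R116 (K side), block X1-C with the concave homogeneous reward: choice of the reward (helper79)

`choice` : `bet` = extremal gap as a function of the parameter `q ∈ [0, 8]` of the reward;
`bet + q` is nondecreasing, `bet 0 ≥ b1`, `bet q ≤ 2 - c q`.  The supremum of `bet q + κ q` on
`[q1, 8]` need not be attained, so the output is a sequence `qs n`.
`up_step` : two maxima of `c + P` and `c + P + δ y` over the same family.
CONSUMER: 708 (Xs1), 794 / 163 (XOut).  PRODUCER: none (pure real analysis).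
-/

set_option autoImplicit false
set_option linter.unusedVariables false

namespace Crest.Agent.R116.Xu79

/-- **choice of the reward.** -/
theorem choice {bet : ℝ → ℝ} {b1 c et Q : ℝ} (hQ : 0 ≤ Q)
    (hmono : ∀ q q', 0 ≤ q → q ≤ q' → q' ≤ Q → bet q - (q' - q) ≤ bet q')
    (h0 : b1 ≤ bet 0) (hc : ∀ q, 0 ≤ q → q ≤ Q → bet q ≤ 2 - c * q) (hQc : bet Q < 0)
    (het : 0 < et) (hb : et < b1) {κ : ℝ} (hκ : 0 < κ) (hκe : 4 * (κ * Q) ≤ et) :
    ∃ qs : ℕ → ℝ, ∀ n : ℕ, b1 - et ≤ qs n ∧ 0 ≤ qs n ∧ qs n ≤ Q - et / 2 ∧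
      et / 2 ≤ bet (qs n) ∧ bet (qs n) ≤ et ∧
      ∀ δ : ℝ, 0 ≤ δ → qs n + δ ≤ Q → bet (qs n + δ) ≤ bet (qs n) - κ * δ + 1 / ((n : ℝ) + 1) := by
  classical
  set A : Set ℝ := {q | 0 ≤ q ∧ q ≤ Q ∧ et ≤ bet q} with hA
  have hA0 : (0 : ℝ) ∈ A := ⟨le_rfl, hQ, by linarith⟩
  have hAb : BddAbove A := ⟨Q, fun q hq => hq.2.1⟩
  set q1 := sSup A with hq1
  have q10 : 0 ≤ q1 := le_csSup hAb hA0
  have q1Q : q1 ≤ Q := csSup_le ⟨0, hA0⟩ fun q hq => hq.2.1
  -- `bet q1 ≥ et`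
  have hge : et ≤ bet q1 := by
    by_contra hcon
    push Not at hcon
    obtain ⟨q, hq, hlt⟩ := exists_lt_of_lt_csSup ⟨0, hA0⟩
      (show q1 - (et - bet q1) < sSup A by rw [← hq1]; linarith)
    have h1 := hmono q q1 hq.1 (le_csSup hAb hq) q1Q
    linarith [hq.2.2]
  have q1lt : q1 < Q := by
    rcases q1Q.lt_or_eq with h | h
    · exact h
    · rw [h] at hge; linarith
  have hgt : ∀ q, q1 < q → q ≤ Q → bet q < et := by
    intro q h1 h2
    by_contra hcon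
    push Not at hcon
    exact absurd (le_csSup hAb (show q ∈ A from ⟨by linarith, h2, hcon⟩)) (not_le.2 h1)
  have hle : bet q1 ≤ et := by
    by_contra hcon
    push Not at hcon
    set e := min (bet q1 - et) (Q - q1) with he
    have he0 : 0 < e := lt_min (by linarith) (by linarith)
    have h1 := hmono q1 (q1 + e) q10 (by linarith) (by linarith [min_le_right (bet q1 - et) (Q - q1)])
    have h2 := hgt (q1 + e) (by linarith) (by linarith [min_le_right (bet q1 - et) (Q - q1)])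
    linarith [min_le_left (bet q1 - et) (Q - q1)]
  have hq1b : b1 - et ≤ q1 := by
    have := hmono 0 q1 le_rfl q10 q1Q
    linarith
  -- the near maximisers
  set F : ℝ → ℝ := fun q => bet q + κ * q with hF
  set V : Set ℝ := F '' Set.Icc q1 Q with hV
  have hVn : V.Nonempty := ⟨F q1, q1, ⟨le_rfl, q1Q⟩, rfl⟩
  have hVb : BddAbove V := by
    refine ⟨et + κ * Q, ?_⟩
    rintro _ ⟨q, ⟨h1, h2⟩, rfl⟩
    have h3 : bet q ≤ et := by
      rcases h1.lt_or_eq with h | h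
      · exact (hgt q h h2).le
      · rw [← h]; exact hle
    have h4 : κ * q ≤ κ * Q := mul_le_mul_of_nonneg_left h2 hκ.le
    show bet q + κ * q ≤ _
    linarith
  have hex : ∀ n : ℕ, ∃ q, q1 ≤ q ∧ q ≤ Q ∧ sSup V - min (1 / ((n : ℝ) + 1)) (et / 4) < F q := by
    intro n
    have hpos : 0 < min (1 / ((n : ℝ) + 1)) (et / 4) := lt_min (by positivity) (by linarith)
    obtain ⟨_, ⟨q, ⟨h1, h2⟩, rfl⟩, h3⟩ := exists_lt_of_lt_csSup hVn
      (show sSup V - min (1 / ((n : ℝ) + 1)) (et / 4) < sSup V by linarith)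
    exact ⟨q, h1, h2, h3⟩
  choose qs hqs using hex
  refine ⟨qs, fun n => ?_⟩
  obtain ⟨a1, a2, a3⟩ := hqs n
  have m1 : min (1 / ((n : ℝ) + 1)) (et / 4) ≤ 1 / ((n : ℝ) + 1) := min_le_left _ _
  have m2 : min (1 / ((n : ℝ) + 1)) (et / 4) ≤ et / 4 := min_le_right _ _
  have s1 : F q1 ≤ sSup V := le_csSup hVb ⟨q1, ⟨le_rfl, q1Q⟩, rfl⟩
  have hlow : et / 2 ≤ bet (qs n) := by
    have e1 : F q1 = bet q1 + κ * q1 := rfl
    have e2 : F (qs n) = bet (qs n) + κ * qs n := rfl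
    have e3 : κ * qs n ≤ κ * Q := mul_le_mul_of_nonneg_left a2 hκ.le
    have e4 : 0 ≤ κ * q1 := mul_nonneg hκ.le q10
    rw [e2] at a3
    linarith
  have hup : bet (qs n) ≤ et := by
    rcases a1.lt_or_eq with h | h
    · exact (hgt _ h a2).le
    · rw [← h]; exact hle
  refine ⟨by linarith, by linarith, ?_, hlow, hup, ?_⟩
  · have := hmono (qs n) Q (by linarith) a2 le_rfl
    linarith
  · intro δ h1 h2
    have s2 : F (qs n + δ) ≤ sSup V := le_csSup hVb ⟨qs n + δ, ⟨by linarith, h2⟩, rfl⟩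
    have e1 : F (qs n + δ) = bet (qs n + δ) + κ * (qs n + δ) := rfl
    have e2 : F (qs n) = bet (qs n) + κ * qs n := rfl
    rw [e1] at s2
    rw [e2] at a3
    linarith

/-- **UP step**: `c + P` is at most `D` on the family, a member `s'` satisfies
`c + P + δ y ≥ D + κ δ h - e`; then `y s'` is large and `s'` is near-maximal for `c + P`. -/
theorem up_step {α : Type*} {c P y : α → ℝ} {D κ δ h e : ℝ} (hδ : 0 < δ) (s : α)
    (hD : c s + P s ≤ D) (hy : y s ≤ h) (hκ : 0 ≤ κ) (hh : 0 ≤ h)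
    (hs : D + κ * δ * h - e ≤ c s + P s + δ * y s) :
    κ * h - e / δ ≤ y s ∧ D - (e + δ * h) ≤ c s + P s := by
  constructor
  · have h1 : κ * δ * h - e ≤ δ * y s := by linarith
    have h2 : κ * h - e / δ = (κ * δ * h - e) / δ := by field_simp
    rw [h2, div_le_iff₀ hδ]
    linarith
  · have h1 : δ * y s ≤ δ * h := mul_le_mul_of_nonneg_left hy hδ.le
    have h2 : 0 ≤ κ * δ * h := by positivity
    linarith

/-! ### bounds from the concave function

`psi l x = Σ_j c_j [al x_j - ga (√(l² + x_j²) - l)]` with `al = (1 - mu)/2`, `ga = (1 + mu)/2`. -/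

/-- one bracket. -/
noncomputable def brk (mu l x : ℝ) : ℝ :=
  (1 - mu) / 2 * x - (1 + mu) / 2 * (Real.sqrt (l ^ 2 + x ^ 2) - l)

/-- a bracket is at most `l / 2`. -/
theorem brk_le {mu l x : ℝ} (hmu : 0 ≤ mu) (hmu1 : mu ≤ 1) (hl : 0 ≤ l) : brk mu l x ≤ l / 2 := by
  unfold brk
  -- `√(l² + x²) ≥ ((1-mu)/(1+mu)) x + (2 √mu/(1+mu)) l ≥ ((1-mu) x)/(1+mu)`
  have h1 : (1 - mu) / (1 + mu) * x ≤ Real.sqrt (l ^ 2 + x ^ 2) := by
    have h2 : |x| ≤ Real.sqrt (l ^ 2 + x ^ 2) := by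
      rw [← Real.sqrt_sq_eq_abs]
      exact Real.sqrt_le_sqrt (by nlinarith [sq_nonneg l])
    have h3 : (1 - mu) / (1 + mu) ≤ 1 := by rw [div_le_one (by linarith)]; linarith
    have h4 : 0 ≤ (1 - mu) / (1 + mu) := div_nonneg (by linarith) (by linarith)
    calc (1 - mu) / (1 + mu) * x ≤ (1 - mu) / (1 + mu) * |x| :=
          mul_le_mul_of_nonneg_left (le_abs_self x) h4
      _ ≤ 1 * |x| := mul_le_mul_of_nonneg_right h3 (abs_nonneg x)
      _ ≤ _ := by rw [one_mul]; exact h2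
  -- better: use `√(l² + x²) ≥ cos x + sin l`
  have h5 : ((1 - mu) * x + 2 * Real.sqrt mu * l) ≤ (1 + mu) * Real.sqrt (l ^ 2 + x ^ 2) := by
    have hs : Real.sqrt mu ^ 2 = mu := Real.sq_sqrt hmu
    have hcs : ((1 - mu) * x + 2 * Real.sqrt mu * l) ^ 2 ≤ (1 + mu) ^ 2 * (l ^ 2 + x ^ 2) := by
      nlinarith [sq_nonneg ((1 - mu) * l - 2 * Real.sqrt mu * x)]
    calc (1 - mu) * x + 2 * Real.sqrt mu * l ≤
          Real.sqrt ((1 + mu) ^ 2 * (l ^ 2 + x ^ 2)) := Real.le_sqrt_of_sq_le hcs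
      _ = (1 + mu) * Real.sqrt (l ^ 2 + x ^ 2) := by
          rw [Real.sqrt_mul (sq_nonneg _), Real.sqrt_sq (by linarith)]
  have h6 : mu ≤ Real.sqrt mu := by
    have h7 : Real.sqrt mu ^ 2 = mu := Real.sq_sqrt hmu
    have h8 : Real.sqrt mu ≤ 1 := by
      rw [show (1 : ℝ) = Real.sqrt 1 by simp]; exact Real.sqrt_le_sqrt hmu1
    nlinarith [Real.sqrt_nonneg mu]
  nlinarith [mul_nonneg (sub_nonneg.2 h6) hl, mul_nonneg (Real.sqrt_nonneg mu) hl]

/-- a bracket is at most `x / 2` for `x ≥ 0`, and negative for `x ≤ 0`. -/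
theorem brk_le_x {mu l x : ℝ} (hmu : 0 ≤ mu) (hmu1 : mu ≤ 1) (hl : 0 ≤ l) :
    brk mu l x ≤ (1 - mu) / 2 * x := by
  unfold brk
  have h1 : l ≤ Real.sqrt (l ^ 2 + x ^ 2) := by
    have : Real.sqrt (l ^ 2) ≤ Real.sqrt (l ^ 2 + x ^ 2) :=
      Real.sqrt_le_sqrt (by nlinarith [sq_nonneg x])
    rwa [Real.sqrt_sq hl] at this
  nlinarith

/-- upper bound for large positive `x`. -/
theorem brk_le_neg {mu l x : ℝ} (hmu : 0 ≤ mu) (hl : 0 ≤ l) :
    brk mu l x ≤ (1 + mu) / 2 * l - mu * x := by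
  unfold brk
  have h1 : x ≤ Real.sqrt (l ^ 2 + x ^ 2) := by
    have h2 : |x| ≤ Real.sqrt (l ^ 2 + x ^ 2) := by
      rw [← Real.sqrt_sq_eq_abs]
      exact Real.sqrt_le_sqrt (by nlinarith [sq_nonneg l])
    exact (le_abs_self x).trans h2
  nlinarith

/-- upper bound for negative `x`. -/
theorem brk_le_neg' {mu l x : ℝ} (hmu : 0 ≤ mu) (hl : 0 ≤ l) :
    brk mu l x ≤ (1 + mu) / 2 * l + x := by
  unfold brk
  have h1 : -x ≤ Real.sqrt (l ^ 2 + x ^ 2) := by
    have h2 : |x| ≤ Real.sqrt (l ^ 2 + x ^ 2) := by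
      rw [← Real.sqrt_sq_eq_abs]
      exact Real.sqrt_le_sqrt (by nlinarith [sq_nonneg l])
    exact (neg_le_abs x).trans h2
  nlinarith

/-- **bounds of the near-maximiser**: `brk a + lam * brk b ≥ k h`. -/
theorem bounds {mu lam h k xa xb : ℝ} (hmu : 0 < mu) (hmu1 : mu ≤ 1) (hh : 0 ≤ h) (hlam : 0 < lam)
    (hlam1 : lam ≤ 1) (hk : 0 < k) (hlk : lam ≤ k)
    (hp : k * h ≤ brk mu h xa + lam * brk mu h xb) :
    k * h ≤ xa ∧ xa ≤ 2 * h / mu ∧ -(2 * h / lam) ≤ xb ∧ xb ≤ 2 * h / (lam * mu) := by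
  have b1 := brk_le (mu := mu) (l := h) (x := xa) hmu.le hmu1 hh
  have b2 := brk_le (mu := mu) (l := h) (x := xb) hmu.le hmu1 hh
  have b3 : lam * brk mu h xb ≤ lam * (h / 2) := mul_le_mul_of_nonneg_left b2 hlam.le
  have hkh : 0 ≤ k * h := mul_nonneg hk.le hh
  have b4 : lam * (h / 2) ≤ k * h / 2 := by nlinarith
  have a1 : k * h / 2 ≤ brk mu h xa := by linarith
  have c1 := brk_le_x (mu := mu) (l := h) (x := xa) hmu.le hmu1 hh
  have c2 := brk_le_neg (mu := mu) (l := h) (x := xa) hmu.le hh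
  have xa0 : 0 ≤ xa := by
    by_contra hcon
    push Not at hcon
    have c3 := brk_le_neg' (mu := mu) (l := h) (x := xa) hmu.le hh
    have c4 : (1 - mu) / 2 * xa ≤ 0 := mul_nonpos_of_nonneg_of_nonpos (by linarith) hcon.le
    have c5 : k * h / 2 ≤ 0 := by linarith
    have c6 : h = 0 := by
      by_contra h7
      have : 0 < h := lt_of_le_of_ne hh (Ne.symm h7)
      have : 0 < k * h := mul_pos hk this
      linarith
    subst c6
    linarith
  refine ⟨?_, ?_, ?_, ?_⟩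
  · nlinarith
  · rw [le_div_iff₀ hmu]
    nlinarith
  · have d1 := brk_le_neg' (mu := mu) (l := h) (x := xb) hmu.le hh
    have d2 : -(h / 2) ≤ lam * brk mu h xb := by linarith
    have d3 : lam * brk mu h xb ≤ lam * ((1 + mu) / 2 * h + xb) :=
      mul_le_mul_of_nonneg_left d1 hlam.le
    rw [neg_le_iff_add_nonneg, ← sub_neg_eq_add, sub_nonneg, neg_le_iff_add_nonneg]
    have d4 : 0 ≤ lam * ((1 + mu) / 2 * h + xb) + h / 2 := by linarith
    have d5 : lam * ((1 + mu) / 2 * h) ≤ h := by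
      have : (1 + mu) / 2 * h ≤ 1 * h := mul_le_mul_of_nonneg_right (by linarith) hh
      nlinarith
    have d6 : 0 ≤ lam * (xb + 2 * h / lam) := by
      have : lam * (xb + 2 * h / lam) = lam * xb + 2 * h := by field_simp
      rw [this]
      nlinarith
    exact nonneg_of_mul_nonneg_right d6 hlam
  · have d1 := brk_le_neg (mu := mu) (l := h) (x := xb) hmu.le hh
    have d2 : -(h / 2) ≤ lam * brk mu h xb := by linarith
    have d3 : lam * brk mu h xb ≤ lam * ((1 + mu) / 2 * h - mu * xb) :=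
      mul_le_mul_of_nonneg_left d1 hlam.le
    rw [le_div_iff₀ (mul_pos hlam hmu)]
    have d5 : lam * ((1 + mu) / 2 * h) ≤ h := by
      have : (1 + mu) / 2 * h ≤ 1 * h := mul_le_mul_of_nonneg_right (by linarith) hh
      nlinarith
    nlinarith

end Crest.Agent.R116.Xu79
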