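import Mathlib
import Crest.Agent.R116.XcDef_794
import Crest.Agent.R116.Xu1_79

/-!
# R116 (K side), block X1-C: the concave homogeneous reward (helper635)

* `psi w μ l x = ∑ w_j brk μ l x_j`, `Psi p w μ q l x = ∑ p_j x_j + q psi w μ l x`.
* `rwd : Rwd (Psi p w μ) (psi w μ) q0` (literal of `XcDef_794`), for `0 < w_j`, `∑ w_j ≤ 2`,
  `0 < μ ≤ 1`.
-/

set_option autoImplicit false

open Finset

namespace Crest.Agent.R116.Psi635

open Crest.Agent.R116.Xu79 (brk brk_le brk_le_x brk_le_neg brk_le_neg')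
open Crest.Agent.R116.Xc794 (Rwd)

/-! ### one bracket -/

/-- length of a vector of the plane -/
noncomputable def nr (l x : ℝ) : ℝ := √(l ^ 2 + x ^ 2)

theorem nr_nonneg (l x : ℝ) : 0 ≤ nr l x := Real.sqrt_nonneg _

theorem nr_sq (l x : ℝ) : nr l x ^ 2 = l ^ 2 + x ^ 2 := Real.sq_sqrt (by positivity)

theorem nr_le (l x : ℝ) : nr l x ≤ |l| + |x| := by
  refine Real.sqrt_le_iff.2 ⟨by positivity, ?_⟩
  nlinarith [sq_abs l, sq_abs x, mul_nonneg (abs_nonneg l) (abs_nonneg x)]

theorem le_nr_l (l x : ℝ) : |l| ≤ nr l x :=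
  abs_le_of_sq_le_sq (by rw [nr_sq]; nlinarith [sq_nonneg x]) (nr_nonneg l x)

theorem le_nr_x (l x : ℝ) : |x| ≤ nr l x :=
  abs_le_of_sq_le_sq (by rw [nr_sq]; nlinarith [sq_nonneg l]) (nr_nonneg l x)

theorem brk_eq (μ l x : ℝ) : brk μ l x = (1 - μ) / 2 * x - (1 + μ) / 2 * (nr l x - l) := rfl

theorem inner_le (l x l' x' : ℝ) : l * l' + x * x' ≤ nr l x * nr l' x' := by
  have h : |l * l' + x * x'| ≤ nr l x * nr l' x' := by
    refine abs_le_of_sq_le_sq ?_ (mul_nonneg (nr_nonneg _ _) (nr_nonneg _ _))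
    rw [mul_pow, nr_sq, nr_sq]
    nlinarith [sq_nonneg (l * x' - l' * x)]
  exact (le_abs_self _).trans h

theorem nr_add (l x l' x' : ℝ) : nr (l + l') (x + x') ≤ nr l x + nr l' x' := by
  refine Real.sqrt_le_iff.2 ⟨add_nonneg (nr_nonneg _ _) (nr_nonneg _ _), ?_⟩
  have h1 := inner_le l x l' x'
  have h2 := nr_sq l x
  have h3 := nr_sq l' x'
  nlinarith

theorem nr_hom {c : ℝ} (hc : 0 ≤ c) (l x : ℝ) : nr (c * l) (c * x) = c * nr l x := by
  unfold nr
  rw [show (c * l) ^ 2 + (c * x) ^ 2 = c ^ 2 * (l ^ 2 + x ^ 2) by ring, Real.sqrt_mul (sq_nonneg _),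
    Real.sqrt_sq hc]

/-- defect of the triangle inequality -/
theorem nr_defect (l x l' x' : ℝ) :
    (l * x' - l' * x) ^ 2 ≤
      2 * (nr l x * nr l' x') * (nr l x + nr l' x') *
        (nr l x + nr l' x' - nr (l + l') (x + x')) := by
  have h1 := inner_le l x l' x'
  have h2 := nr_sq l x
  have h3 := nr_sq l' x'
  have h4 := nr_sq (l + l') (x + x')
  have h5 := nr_add l x l' x'
  have hA := nr_nonneg l x
  have hB := nr_nonneg l' x'
  have hS := nr_nonneg (l + l') (x + x')
  set A := nr l x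
  set B := nr l' x'
  set S := nr (l + l') (x + x')
  have e1 : (l * x' - l' * x) ^ 2 = (A * B - (l * l' + x * x')) * (A * B + (l * l' + x * x')) := by
    have : (A * B) ^ 2 = (l ^ 2 + x ^ 2) * (l' ^ 2 + x' ^ 2) := by rw [mul_pow, h2, h3]
    linear_combination -this
  have e2 : 2 * (A * B - (l * l' + x * x')) = (A + B - S) * (A + B + S) := by
    linear_combination h4 - h2 - h3
  have hAB : 0 ≤ A * B := mul_nonneg hA hB
  have e3 : (A * B - (l * l' + x * x')) * (A * B + (l * l' + x * x')) ≤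
      (A * B - (l * l' + x * x')) * (2 * (A * B)) :=
    mul_le_mul_of_nonneg_left (by linarith) (by linarith)
  have e4 : (A * B - (l * l' + x * x')) * (2 * (A * B)) =
      (A * B) * ((A + B - S) * (A + B + S)) := by rw [← e2]; ring
  have e5 : (A + B - S) * (A + B + S) ≤ (A + B - S) * (2 * (A + B)) :=
    mul_le_mul_of_nonneg_left (by linarith) (by linarith)
  calc (l * x' - l' * x) ^ 2 ≤ (A * B) * ((A + B - S) * (A + B + S)) := by rw [e1, ← e4]; exact e3
    _ ≤ (A * B) * ((A + B - S) * (2 * (A + B))) := mul_le_mul_of_nonneg_left e5 hAB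
    _ = _ := by ring

/-- **equality modulus**, uniform in the lengths -/
theorem modulus {l0 R ε : ℝ} (hl0 : 0 < l0) (hε : 0 < ε) :
    ∃ δ : ℝ, 0 < δ ∧ ∀ l l' x x' : ℝ, l0 ≤ l → l ≤ 2 → l0 ≤ l' → l' ≤ 2 → |x| ≤ R →
      nr l x + nr l' x' ≤ nr (l + l') (x + x') + δ →
        |(x + x') - (l + l') / l * x| ≤ ε := by
  set A0 : ℝ := 2 + |R| with hA0
  set K : ℝ := A0 + 2 + 2 * |R| / l0 with hK
  have hA0p : 0 < A0 := by positivity
  have hKp : 0 < K := by positivity
  set m : ℝ := min (l0 / 2) (l0 * ε / (2 * K)) with hm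
  have hmp : 0 < m := lt_min (by positivity) (by positivity)
  refine ⟨m ^ 2 / (2 * A0), by positivity, fun l l' x x' hll hl2 hll' hl2' hx hd => ?_⟩
  have hl : 0 < l := by linarith
  have hl' : 0 < l' := by linarith
  have hR : |x| ≤ |R| := hx.trans (le_abs_self R)
  set A := nr l x with hA
  set B := nr l' x' with hB
  set S := nr (l + l') (x + x') with hS
  have hAn : 0 ≤ A := nr_nonneg _ _
  have hBn : 0 ≤ B := nr_nonneg _ _
  set t : ℝ := |l * x' - l' * x| with ht
  have htn : 0 ≤ t := abs_nonneg _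
  have hAle : A ≤ A0 := by
    have := nr_le l x
    rw [abs_of_pos hl] at this
    linarith
  have hx' : |x'| ≤ t / l + 2 * |R| / l0 := by
    have e : x' = (l * x' - l' * x) / l + l' * x / l := by field_simp; ring
    rw [e]
    refine (abs_add_le _ _).trans ?_
    rw [abs_div, abs_div, abs_of_pos hl, abs_mul, abs_of_pos hl']
    have : l' * |x| / l ≤ 2 * |R| / l0 :=
      div_le_div₀ (by positivity) (mul_le_mul hl2' hR (abs_nonneg _) zero_le_two) hl0 hll
    linarith
  have hBle : B ≤ 2 + (t / l + 2 * |R| / l0) := by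
    have := nr_le l' x'
    rw [abs_of_pos hl'] at this
    linarith
  have htl : 0 ≤ t / l := div_nonneg htn hl.le
  have hdef := nr_defect l x l' x'
  rw [← hA, ← hB, ← hS] at hdef
  have hE : A + B - S ≤ m ^ 2 / (2 * A0) := by linarith
  have hsq : t ^ 2 ≤ (m * (K + t / l)) ^ 2 := by
    rw [ht, sq_abs]
    have h1 : A * B ≤ A0 * (K + t / l) := by
      refine mul_le_mul hAle ?_ hBn hA0p.le
      rw [hK]; linarith
    have h2 : A + B ≤ K + t / l := by rw [hK]; linarith
    have h3 : 0 ≤ K + t / l := by linarith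
    have h4 : 0 ≤ A + B := by linarith
    have h5 : 2 * (A * B) * (A + B) * (A + B - S) ≤
        2 * (A * B) * (A + B) * (m ^ 2 / (2 * A0)) :=
      mul_le_mul_of_nonneg_left hE (by positivity)
    have h6 : 2 * (A * B) * (A + B) ≤ 2 * (A0 * (K + t / l)) * (K + t / l) :=
      mul_le_mul (mul_le_mul_of_nonneg_left h1 zero_le_two) h2 h4 (by positivity)
    have h7 : 2 * (A * B) * (A + B) * (m ^ 2 / (2 * A0)) ≤
        2 * (A0 * (K + t / l)) * (K + t / l) * (m ^ 2 / (2 * A0)) :=
      mul_le_mul_of_nonneg_right h6 (by positivity)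
    have h8 : 2 * (A0 * (K + t / l)) * (K + t / l) * (m ^ 2 / (2 * A0)) =
        (m * (K + t / l)) ^ 2 := by field_simp
    linarith
  have h9 : t ≤ m * (K + t / l) := by
    have h3 : 0 ≤ m * (K + t / l) := mul_nonneg hmp.le (by linarith)
    exact (abs_le_of_sq_le_sq' hsq h3).2
  have h10 : m * (t / l) ≤ t / 2 := by
    have : m * (t / l) ≤ l / 2 * (t / l) :=
      mul_le_mul_of_nonneg_right ((min_le_left _ _).trans (by linarith)) htl
    refine this.trans (le_of_eq ?_)
    field_simp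
  have h11 : m * K ≤ l * ε / 2 := by
    have : m * K ≤ l0 * ε / (2 * K) * K := mul_le_mul_of_nonneg_right (min_le_right _ _) hKp.le
    have e : l0 * ε / (2 * K) * K = l0 * ε / 2 := by field_simp
    have h13 : l0 * ε ≤ l * ε := mul_le_mul_of_nonneg_right hll hε.le
    linarith
  have h12 : t ≤ l * ε := by nlinarith
  have e : (x + x') - (l + l') / l * x = (l * x' - l' * x) / l := by field_simp; ring
  rw [e, abs_div, abs_of_pos hl, div_le_iff₀ hl]
  linarith

theorem brk_super {μ : ℝ} (hμ : -1 ≤ μ) (l x l' x' : ℝ) :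
    brk μ l x + brk μ l' x' ≤ brk μ (l + l') (x + x') := by
  rw [brk_eq, brk_eq, brk_eq]
  have := nr_add l x l' x'
  nlinarith

theorem brk_hom (μ : ℝ) {c : ℝ} (hc : 0 ≤ c) (l x : ℝ) :
    brk μ (c * l) (c * x) = c * brk μ l x := by
  rw [brk_eq, brk_eq, nr_hom hc]
  ring

theorem brk_zero (μ : ℝ) : brk μ 0 0 = 0 := by
  unfold brk; simp

theorem brk_zero_x (μ : ℝ) {l : ℝ} (hl : 0 ≤ l) : brk μ l 0 = 0 := by
  unfold brk
  rw [show l ^ 2 + (0 : ℝ) ^ 2 = l ^ 2 by ring, Real.sqrt_sq hl]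
  ring

theorem brk_cont (μ : ℝ) : Continuous (fun z : ℝ × ℝ => brk μ z.1 z.2) := by
  unfold brk
  fun_prop

/-! ### the reward -/

section

variable {ι : Type} [Fintype ι]

noncomputable def psi (w : ι → ℝ) (μ l : ℝ) (x : ι → ℝ) : ℝ := ∑ j, w j * brk μ l (x j)

noncomputable def Psi (p w : ι → ℝ) (μ q l : ℝ) (x : ι → ℝ) : ℝ :=
  (∑ j, p j * x j) + q * psi w μ l x

theorem psi_le {w : ι → ℝ} {μ : ℝ} (hw : ∀ j, 0 < w j) (hw2 : ∑ j, w j ≤ 2) (hμ : 0 ≤ μ)
    (hμ1 : μ ≤ 1) {l : ℝ} (hl : 0 ≤ l) (x : ι → ℝ) : psi w μ l x ≤ l := by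
  unfold psi
  calc ∑ j, w j * brk μ l (x j) ≤ ∑ j, w j * (l / 2) :=
        Finset.sum_le_sum fun j _ => mul_le_mul_of_nonneg_left (brk_le hμ hμ1 hl) (hw j).le
    _ = (∑ j, w j) * (l / 2) := by rw [Finset.sum_mul]
    _ ≤ 2 * (l / 2) := mul_le_mul_of_nonneg_right hw2 (by linarith)
    _ = l := by ring

theorem psi_super {w : ι → ℝ} {μ : ℝ} (hw : ∀ j, 0 < w j) (hμ : 0 ≤ μ) (l l' : ℝ)
    (x x' : ι → ℝ) : psi w μ l x + psi w μ l' x' ≤ psi w μ (l + l') (fun j => x j + x' j) := by
  unfold psi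
  rw [← Finset.sum_add_distrib]
  refine Finset.sum_le_sum fun j _ => ?_
  rw [← mul_add]
  exact mul_le_mul_of_nonneg_left (brk_super (by linarith) _ _ _ _) (hw j).le

theorem psi_hom (w : ι → ℝ) (μ : ℝ) {c : ℝ} (hc : 0 ≤ c) (l : ℝ) (x : ι → ℝ) :
    psi w μ (c * l) (fun j => c * x j) = c * psi w μ l x := by
  unfold psi
  rw [Finset.mul_sum]
  refine Finset.sum_congr rfl fun j _ => ?_
  rw [brk_hom μ hc]; ring

theorem psi_coe {w : ι → ℝ} {μ : ℝ} (hw : ∀ j, 0 < w j) (hw2 : ∑ j, w j ≤ 2) (hμ : 0 < μ)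
    (hμ1 : μ ≤ 1) {c : ℝ} (hc : 0 < c) :
    ∃ R : ℝ, 0 < R ∧ ∀ l (x : ι → ℝ), 0 ≤ l → c * l ≤ psi w μ l x → ∀ j, |x j| ≤ R * l := by
  classical
  refine ⟨1 + ∑ j, (2 / (w j * μ) + 2 / μ), ?_, ?_⟩
  · have : 0 ≤ ∑ j, (2 / (w j * μ) + 2 / μ) := Finset.sum_nonneg fun j _ => by
      have := hw j
      positivity
    linarith
  · intro l x hl hx j
    have hwj := hw j
    have h1 : c * l ≤ w j * brk μ l (x j) + ∑ i ∈ Finset.univ.erase j, w i * brk μ l (x i) := by
      unfold psi at hx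
      rwa [← Finset.add_sum_erase _ _ (Finset.mem_univ j)] at hx
    have h2 : ∑ i ∈ Finset.univ.erase j, w i * brk μ l (x i) ≤ l := by
      calc ∑ i ∈ Finset.univ.erase j, w i * brk μ l (x i)
          ≤ ∑ i ∈ Finset.univ.erase j, w i * (l / 2) :=
            Finset.sum_le_sum fun i _ => mul_le_mul_of_nonneg_left (brk_le hμ.le hμ1 hl) (hw i).le
        _ ≤ ∑ i, w i * (l / 2) :=
            Finset.sum_le_sum_of_subset_of_nonneg (Finset.erase_subset _ _)
              fun i _ _ => mul_nonneg (hw i).le (by linarith)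
        _ = (∑ i, w i) * (l / 2) := by rw [Finset.sum_mul]
        _ ≤ 2 * (l / 2) := mul_le_mul_of_nonneg_right hw2 (by linarith)
        _ = l := by ring
    have hcl : 0 ≤ c * l := mul_nonneg hc.le hl
    have h3 : -l ≤ w j * brk μ l (x j) := by linarith
    have h4 : 2 / (w j * μ) + 2 / μ ≤ ∑ j, (2 / (w j * μ) + 2 / μ) :=
      Finset.single_le_sum (f := fun j => 2 / (w j * μ) + 2 / μ) (fun i _ => by
        have := hw i
        positivity) (Finset.mem_univ j)
    have h5 : (2 / (w j * μ) + 2 / μ) * l ≤ (1 + ∑ j, (2 / (w j * μ) + 2 / μ)) * l :=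
      mul_le_mul_of_nonneg_right (by linarith) hl
    refine le_trans ?_ h5
    have h6 : -(l / w j) ≤ brk μ l (x j) := by
      rw [← neg_div, div_le_iff₀ hwj]; linarith
    have hq : (2 / (w j * μ) + 2 / μ) * l = 2 * (l / w j) / μ + 2 * l / μ := by field_simp
    rw [hq]
    have hlw : 0 ≤ l / w j := by positivity
    have hlwμ : l / w j ≤ l / w j / μ := by
      rw [le_div_iff₀ hμ]; nlinarith
    have hlμ : l ≤ l / μ := by
      rw [le_div_iff₀ hμ]; nlinarith
    rw [abs_le]
    constructor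
    · have h7 := brk_le_neg' (mu := μ) (l := l) (x := x j) hμ.le hl
      have h8 : (1 + μ) / 2 * l ≤ l := by nlinarith
      have e1 : 2 * (l / w j) / μ = 2 * (l / w j / μ) := by ring
      have e2 : 2 * l / μ = 2 * (l / μ) := by ring
      rw [e1, e2]
      linarith
    · have h7 := brk_le_neg (mu := μ) (l := l) (x := x j) hμ.le hl
      have h8 : (1 + μ) / 2 * l ≤ l := by nlinarith
      have h9 : μ * x j ≤ l + l / w j := by linarith
      have h10 : x j ≤ (l + l / w j) / μ := by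
        rw [le_div_iff₀ hμ]; linarith
      have e1 : 2 * (l / w j) / μ + 2 * l / μ = 2 * ((l + l / w j) / μ) := by field_simp; ring
      rw [e1]
      have : 0 ≤ (l + l / w j) / μ := by positivity
      linarith

theorem psi_cont (w : ι → ℝ) (μ : ℝ) :
    Continuous (fun z : ℝ × (ι → ℝ) => psi w μ z.1 z.2) := by
  unfold psi
  refine continuous_finsetSum _ fun j _ => continuous_const.mul ?_
  have h : Continuous (fun z : ℝ × (ι → ℝ) => ((z.1, z.2 j) : ℝ × ℝ)) :=
    continuous_fst.prodMk ((continuous_apply j).comp continuous_snd)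
  exact (brk_cont μ).comp h

/-- **the reward satisfies the interface of `XcDef_794`.** -/
theorem rwd {p w : ι → ℝ} {μ q0 : ℝ} (hw : ∀ j, 0 < w j) (hw2 : ∑ j, w j ≤ 2) (hμ : 0 < μ)
    (hμ1 : μ ≤ 1) (hq0 : 0 < q0) : Rwd (fun q l x => Psi p w μ q l x) (psi w μ) q0 where
  q0pos := hq0
  aff := by
    intro q l x
    unfold Psi
    ring
  le := fun l x hl => psi_le hw hw2 hμ.le hμ1 hl x
  hom := by
    intro q c l x _ hc _
    unfold Psi
    rw [psi_hom w μ hc, mul_add, Finset.mul_sum]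
    congr 1
    · exact Finset.sum_congr rfl fun j _ => by ring
    · ring
  homψ := fun c l x hc _ => psi_hom w μ hc l x
  zero := by
    intro q
    unfold Psi psi
    simp [brk_zero]
  cont := by
    intro q
    unfold Psi
    refine Continuous.add ?_ (continuous_const.mul (psi_cont w μ))
    exact continuous_finsetSum _ fun j _ => continuous_const.mul
      ((continuous_apply j).comp continuous_snd)
  contψ := psi_cont w μ
  sup := by
    intro q l l' x x' hq _ _
    unfold Psi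
    have h1 := mul_le_mul_of_nonneg_left (psi_super hw hμ.le l l' x x') hq
    have h2 : ∑ j, p j * (x j + x' j) = (∑ j, p j * x j) + ∑ j, p j * x' j := by
      rw [← Finset.sum_add_distrib]
      exact Finset.sum_congr rfl fun j _ => by ring
    rw [h2]
    linarith
  coe := fun c hc => psi_coe hw hw2 hμ hμ1 hc
  eqc := by
    intro l0 R ε hl0 hε
    obtain ⟨δ, hδ, h⟩ := modulus (l0 := l0) (R := R) (ε := ε) hl0 hε
    -- weights are bounded below
    obtain ⟨c, hc, hcw⟩ : ∃ c : ℝ, 0 < c ∧ ∀ j, c ≤ w j := by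
      by_cases hne : Nonempty ι
      · obtain ⟨j0, hj0⟩ := Finite.exists_min w
        exact ⟨w j0, hw j0, hj0⟩
      · exact ⟨1, one_pos, fun j => absurd ⟨j⟩ hne⟩
    refine ⟨q0 * (c * (1 / 2 * δ)), by positivity, ?_⟩
    intro q l l' x x' hq _ hl hl2 hl' hl2' hx hdef j
    refine h l l' (x j) (x' j) hl hl2 hl' hl2' (hx j) ?_
    -- each bracket defect is nonnegative, the sum is small
    have hqp : 0 < q := hq0.trans_le hq
    have e0 : ∑ j, p j * (x j + x' j) = (∑ j, p j * x j) + ∑ j, p j * x' j := by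
      rw [← Finset.sum_add_distrib]
      exact Finset.sum_congr rfl fun j _ => by ring
    have h1 : q * (psi w μ (l + l') (fun j => x j + x' j) - psi w μ l x - psi w μ l' x') ≤
        q0 * (c * (1 / 2 * δ)) := by
      unfold Psi at hdef
      rw [e0] at hdef
      linarith
    have h2 : psi w μ (l + l') (fun j => x j + x' j) - psi w μ l x - psi w μ l' x' =
        ∑ j, w j * (brk μ (l + l') (x j + x' j) - brk μ l (x j) - brk μ l' (x' j)) := by
      unfold psi
      rw [← Finset.sum_sub_distrib, ← Finset.sum_sub_distrib]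
      exact Finset.sum_congr rfl fun j _ => by ring
    have h3 : w j * (brk μ (l + l') (x j + x' j) - brk μ l (x j) - brk μ l' (x' j)) ≤
        psi w μ (l + l') (fun j => x j + x' j) - psi w μ l x - psi w μ l' x' := by
      rw [h2]
      refine Finset.single_le_sum
        (f := fun j => w j * (brk μ (l + l') (x j + x' j) - brk μ l (x j) - brk μ l' (x' j)))
        (fun i _ => ?_) (Finset.mem_univ j)
      have := brk_super (μ := μ) (by linarith) l (x i) l' (x' i)
      exact mul_nonneg (hw i).le (by linarith)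
    have h4 : brk μ (l + l') (x j + x' j) - brk μ l (x j) - brk μ l' (x' j) =
        (1 + μ) / 2 * (nr l (x j) + nr l' (x' j) - nr (l + l') (x j + x' j)) := by
      rw [brk_eq, brk_eq, brk_eq]; ring
    have h5 := nr_add l (x j) l' (x' j)
    set E := nr l (x j) + nr l' (x' j) - nr (l + l') (x j + x' j) with hE
    have hE0 : 0 ≤ E := by rw [hE]; linarith
    rw [h4] at h3
    have h6 : c * (1 / 2 * E) ≤ w j * ((1 + μ) / 2 * E) := by
      refine mul_le_mul (hcw j) ?_ (by positivity) (hw j).le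
      exact mul_le_mul_of_nonneg_right (by linarith) hE0
    have h7 : q0 * (c * (1 / 2 * E)) ≤ q * (c * (1 / 2 * E)) :=
      mul_le_mul_of_nonneg_right hq (by positivity)
    have h8 : q * (c * (1 / 2 * E)) ≤
        q * (psi w μ (l + l') (fun j => x j + x' j) - psi w μ l x - psi w μ l' x') :=
      mul_le_mul_of_nonneg_left (h6.trans h3) hqp.le
    have h9 : q0 * (c * (1 / 2 * E)) ≤ q0 * (c * (1 / 2 * δ)) := h7.trans (h8.trans h1)
    have h10 : E ≤ δ := by
      have hpos : 0 < q0 * c := mul_pos hq0 hc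
      by_contra hcon
      push Not at hcon
      have : q0 * (c * (1 / 2 * δ)) < q0 * (c * (1 / 2 * E)) := by
        have e1 : q0 * (c * (1 / 2 * δ)) = q0 * c * (1 / 2 * δ) := by ring
        have e2 : q0 * (c * (1 / 2 * E)) = q0 * c * (1 / 2 * E) := by ring
        rw [e1, e2]
        exact mul_lt_mul_of_pos_left (by linarith) hpos
      linarith
    linarith

end

end Crest.Agent.R116.Psi635
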