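import Mathlib
import Crest.Agent.R116.XcDef_794

/-!
# R116 (K side), block X1-C, leaf [ZLIN]: literals (helper139)

* `LinAt Ψ θ g0 p` : the reward `Ψ len x` is linear up to `o(1)` near the ray of direction `(1, θ)`
  (scale free; for a `C¹` function of homogeneity one, `g0 = ∂_len Ψ (1,θ)`, `p = ∇_x Ψ (1,θ)`).
* `rg B w R G` : the geometry `G` with the admissible test sets restricted to widths within
  `d^(±R)` of those of the marks of level `1`.
* `TopPos` : position of the marks relative to the (virtual) top `(mt, atop)`.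
-/

set_option autoImplicit false

open Finset Filter Topology

namespace Crest.Agent.R116.Zl139

open Crest.Agent.R138.Ex926 (Base U)
open Crest.Agent.R136.MkA627 (Geo MkA)

/-- linearisation near the ray of direction `(1, θ)`. -/
def LinAt {ι : Type} [Fintype ι] (Ψ : ℝ → (ι → ℝ) → ℝ) (θ : ι → ℝ) (g0 : ℝ) (p : ι → ℝ) : Prop :=
  ∀ ε : ℝ, 0 < ε → ∃ δ : ℝ, 0 < δ ∧ ∀ (l l' : ℝ) (x x' : ι → ℝ), 0 < l → 0 < l' →
    (∀ j, |x j - θ j * l| ≤ δ * l) → (∀ j, |x' j - θ j * l'| ≤ δ * l') →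
      |Ψ l x - Ψ l' x' - g0 * (l - l') - ∑ j, p j * (x j - x' j)| ≤
        ε * (|l - l'| + ∑ j, |x j - x' j|)

/-- restriction to the test sets whose widths are within `d^(±R)` of those of the marks of level
`1`. -/
def rg {σ ι : Type*} (B : Base) (w : ι → ℕ → ℚ → ℝ) (R : ℝ) (G : Geo σ ι) : Geo σ ι :=
  { G with adm := fun n i J s => G.adm n i J s ∧
      ∀ j, B.d n ^ R * w j n 1 ≤ G.wid j s ∧ G.wid j s ≤ B.d n ^ (-R) * w j n 1 }

/-- position of the marks relative to the (virtual) top `(mt, atop)`: lengths `T0 - v`, relative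
exponents `θ j (T0 - v)`. -/
structure TopPos {ι : Type} (B : Base) (lev : ℕ → ℚ → ℕ) (w : ι → ℕ → ℚ → ℝ) (mt : ℕ → ℕ)
    (atop : ℕ → ι → ℕ) (θ : ι → ℝ) (T0 : ℝ) : Prop where
  len : ∀ v : ℚ, 0 ≤ v → v ≤ 1 →
    Tendsto (fun n => ((mt n : ℝ) - lev n v) * Real.log 2 / B.L n) U (𝓝 (T0 - v))
  rel : ∀ j, ∀ v : ℚ, 0 ≤ v → v ≤ 1 →
    Tendsto (fun n => (-Real.log (w j n v) - (lev n v : ℝ) * Real.log 2 -
      ((atop n j : ℝ) - mt n) * Real.log 2) / B.L n) U (𝓝 (θ j * (T0 - v)))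

end Crest.Agent.R116.Zl139
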