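import Mathlib
import Crest.Agent.R136.MkA_627
import Crest.Agent.R116.ZlDef_139
import Crest.Agent.R116.Psi_635

/-!
# R116 (K side), [ZLIN]: change of the penalised size, Taylor expansion of the concave reward
(helper883)

* `reval` : if, on the admissible test sets of the levels of a marked sequence, the size is changed by
  a factor `E n * d^(-(e v))` up to `d^(-ε)`, the sequence is marked for the new size with the growth
  exponent `c + e`.
* `brg_strict` : the bracket `al x - ga (√(l² + x²) - l)` on the cone `|x - θ l| ≤ δ l` is affine with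
  slopes `brl`, `brx` up to `2 δ ga`.
* `linAt_Psi` : 139's `LinAt` (strict differentiability on small cones around the ray `(1, θ)`) for
  635's `Psi`, with `g0 = dlen`, `p = dwid`; `dlen_nonneg`, `dwid_ge`, `dwid_le`, `Psi_euler`.
-/

set_option autoImplicit false

open Finset Filter Topology

namespace Crest.Agent.R116.Rv883

open Crest.Agent.R138.Ex926 (Base U)
open Crest.Agent.R138.Mk163 (zc zl rho alive own)
open Crest.Agent.R136.MkA627

section reval

variable {σ κ : Type*} {B : Base} {I : ℕ → Finset (ℕ × ℝ)} {G : Geo σ κ} {lev : ℕ → ℚ → ℕ}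
    {A : ℕ → ℝ} {c Λ : ℝ → ℝ} {τ : κ → ℝ → ℝ} {f : ℕ → ℚ → ℕ → ℤ → ℕ} {b : ℕ → ℚ → ℕ → σ}
    {vm : ℕ → ℚ → ℝ} {w : κ → ℕ → ℚ → ℝ}

open Classical in
/-- **change of the size** of the test sets (and restriction of the admissible ones). -/
theorem reval (h : MkA B I G lev A c Λ τ f b vm w) {G' : Geo σ κ} (hmem : G'.mem = G.mem)
    (hwid : G'.wid = G.wid)
    (hadm : ∀ v : ℚ, 0 ≤ v → v ≤ 1 → ∀ᶠ n in (U : Filter ℕ), ∀ J : ℤ, ∀ s : σ,
      G'.adm n (lev n v) J s → G.adm n (lev n v) J s)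
    {E : ℕ → ℝ} (hE : ∀ n, 0 < E n) {e : ℝ → ℝ} (he : e 0 = 0) {vm' : ℕ → ℚ → ℝ}
    (hval : ∀ v : ℚ, 0 ≤ v → v ≤ 1 → ∀ ε : ℝ, 0 < ε → ∀ᶠ n in (U : Filter ℕ), ∀ J : ℤ, ∀ s : σ,
      G'.adm n (lev n v) J s →
        G.val n (lev n v) J s ≤
          B.d n ^ (-ε) * (E n * B.d n ^ (-(e v))) * G'.val n (lev n v) J s)
    (hmark : ∀ v : ℚ, 0 ≤ v → v ≤ 1 → ∀ᶠ n in (U : Filter ℕ), ∀ J : ℤ,
      ∀ t ∈ alive (I n) (lev n v) J, G'.adm n (lev n v) J (b n v (f n v t J)) ∧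
        G'.val n (lev n v) J (b n v (f n v t J)) = vm' n v)
    (hpos : ∀ v : ℚ, 0 ≤ v → v ≤ 1 → ∀ᶠ n in (U : Filter ℕ), 0 < vm' n v)
    (hvm : ∀ v : ℚ, 0 ≤ v → v ≤ 1 → ∀ ε : ℝ, 0 < ε → ∀ᶠ n in (U : Filter ℕ),
      (E n * B.d n ^ (-(e v))) * vm' n v ≤ B.d n ^ (-ε) * vm n v) :
    MkA B I G' lev (fun n => A n * E n) (fun v => c v + e v) Λ τ f b vm' w := by
  have hdp : ∀ n, 0 < B.d n := fun n => B.pos n
  have hamp : ∀ n (v : ℚ), ampA B (fun n => A n * E n) (fun v => c v + e v) n v =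
      ampA B A c n v * (E n * B.d n ^ (-(e v))) := by
    intro n v
    unfold ampA
    rw [neg_add, Real.rpow_add (hdp n)]
    ring
  have hamp0 : ∀ n (v : ℚ), 0 < ampA B A c n v := fun n v =>
    mul_pos (h.Apos n) (Real.rpow_pos_of_pos (hdp n) _)
  have hhalf : ∀ n (ε : ℝ), B.d n ^ (-ε) = B.d n ^ (-(ε / 2)) * B.d n ^ (-(ε / 2)) := by
    intro n ε
    rw [← Real.rpow_add (hdp n)]
    congr 1
    ring
  refine
    { ne := h.ne, card := h.card, Apos := fun n => mul_pos (h.Apos n) (hE n)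
      c0 := by show c 0 + e 0 = 0; rw [h.c0, he, add_zero]
      lam0 := h.lam0, lam := h.lam, tau1 := h.tau1, lev_mono := h.lev_mono, lev_lim := h.lev_lim
      cell0 := h.cell0, one := h.one, own := h.own, dmax := ?_, mark := ?_, near := ?_
      vpos := hpos, wpos := h.wpos, tau := h.tau }
  · intro v h0 h1 ε hε
    filter_upwards [h.dmax v h0 h1 (ε / 2) (by positivity), hval v h0 h1 (ε / 2) (by positivity),
      hadm v h0 h1] with n a1 a2 a3 J s hs
    rw [hmem]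
    refine (a1 J s (a3 J s hs)).trans ?_
    rw [hamp, hhalf n ε]
    have h2 := a2 J s hs
    have h3 : 0 < B.d n ^ (-(ε / 2)) * ampA B A c n v :=
      mul_pos (Real.rpow_pos_of_pos (hdp n) _) (hamp0 n v)
    calc B.d n ^ (-(ε / 2)) * ampA B A c n v * G.val n (lev n v) J s
        ≤ B.d n ^ (-(ε / 2)) * ampA B A c n v *
          (B.d n ^ (-(ε / 2)) * (E n * B.d n ^ (-(e v))) * G'.val n (lev n v) J s) :=
          mul_le_mul_of_nonneg_left h2 h3.le
      _ = _ := by ring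
  · intro v h0 h1
    filter_upwards [h.mark v h0 h1, hmark v h0 h1] with n a1 a2 J t ht
    obtain ⟨b1, -, -, b4⟩ := a1 J t ht
    obtain ⟨c1, c2⟩ := a2 J t ht
    rw [hmem, hwid]
    exact ⟨b1, c1, c2, b4⟩
  · intro v h0 h1 ε hε
    filter_upwards [h.near v h0 h1 (ε / 2) (by positivity), hvm v h0 h1 (ε / 2) (by positivity)]
      with n a1 a2 J t ht
    have h2 := a1 J t ht
    rw [hamp, hhalf n ε]
    calc ampA B A c n v * (E n * B.d n ^ (-(e v))) * vm' n v
        = ampA B A c n v * ((E n * B.d n ^ (-(e v))) * vm' n v) := by ring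
      _ ≤ ampA B A c n v * (B.d n ^ (-(ε / 2)) * vm n v) :=
          mul_le_mul_of_nonneg_left a2 (hamp0 n v).le
      _ = B.d n ^ (-(ε / 2)) * (ampA B A c n v * vm n v) := by ring
      _ ≤ B.d n ^ (-(ε / 2)) * (B.d n ^ (-(ε / 2)) * _) :=
          mul_le_mul_of_nonneg_left h2 (Real.rpow_pos_of_pos (hdp n) _).le
      _ = _ := by ring

end reval

/-! ### the bracket -/

/-- the bracket of the concave reward. -/
noncomputable def brg (al ga l x : ℝ) : ℝ := al * x - ga * (Real.sqrt (l ^ 2 + x ^ 2) - l)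

/-- derivative in the length direction at `(1, θ)`. -/
noncomputable def brl (ga θ : ℝ) : ℝ := ga * (1 - (Real.sqrt (1 + θ ^ 2))⁻¹)

/-- derivative in the width direction at `(1, θ)`. -/
noncomputable def brx (al ga θ : ℝ) : ℝ := al - ga * (θ * (Real.sqrt (1 + θ ^ 2))⁻¹)

theorem sqrt_ge_one (θ : ℝ) : 1 ≤ Real.sqrt (1 + θ ^ 2) := by
  rw [Real.one_le_sqrt]; nlinarith [sq_nonneg θ]

theorem abs_le_sqrt (θ : ℝ) : |θ| ≤ Real.sqrt (1 + θ ^ 2) := by
  refine Real.le_sqrt_of_sq_le ?_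
  rw [sq_abs]; linarith

theorem brl_nonneg {ga : ℝ} (hga : 0 ≤ ga) (θ : ℝ) : 0 ≤ brl ga θ := by
  unfold brl
  have h1 := sqrt_ge_one θ
  have h2 : (Real.sqrt (1 + θ ^ 2))⁻¹ ≤ 1 := inv_le_one_of_one_le₀ h1
  exact mul_nonneg hga (by linarith)

theorem brl_le {ga : ℝ} (hga : 0 ≤ ga) (θ : ℝ) : brl ga θ ≤ ga := by
  unfold brl
  have h1 := sqrt_ge_one θ
  have h2 : 0 ≤ (Real.sqrt (1 + θ ^ 2))⁻¹ := by positivity
  nlinarith

theorem abs_ratio_le (θ : ℝ) : |θ * (Real.sqrt (1 + θ ^ 2))⁻¹| ≤ 1 := by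
  have h1 := sqrt_ge_one θ
  rw [abs_mul, abs_of_pos (inv_pos.2 (by linarith : (0:ℝ) < Real.sqrt (1 + θ ^ 2))),
    ← div_eq_mul_inv]
  exact div_le_one_of_le₀ (abs_le_sqrt θ) (by linarith)

theorem brx_ge {al ga : ℝ} (hga : 0 ≤ ga) (θ : ℝ) : al - ga ≤ brx al ga θ := by
  unfold brx
  have h := (abs_le.1 (abs_ratio_le θ)).2
  nlinarith

theorem brx_le {al ga : ℝ} (hga : 0 ≤ ga) (θ : ℝ) : brx al ga θ ≤ al + ga := by
  unfold brx
  have h := (abs_le.1 (abs_ratio_le θ)).1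
  nlinarith

/-- Euler. -/
theorem brg_euler (al ga θ : ℝ) : brg al ga 1 θ = brl ga θ + brx al ga θ * θ := by
  unfold brg brl brx
  have h1 := sqrt_ge_one θ
  have h3 : Real.sqrt (1 ^ 2 + θ ^ 2) = Real.sqrt (1 + θ ^ 2) := by norm_num
  rw [h3]
  set W := Real.sqrt (1 + θ ^ 2) with hW
  have hW2 : W ^ 2 = 1 + θ ^ 2 := Real.sq_sqrt (by positivity)
  have hW0 : W ≠ 0 := by linarith
  field_simp
  linear_combination (-ga) * hW2

/-- **the norm of the plane on a cone around a ray.** -/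
theorem norm_strict {θ l l' x x' δ : ℝ} (hl : 0 < l) (hl' : 0 < l')
    (hx : |x - θ * l| ≤ δ * l) (hx' : |x' - θ * l'| ≤ δ * l') :
    |Real.sqrt (l ^ 2 + x ^ 2) - Real.sqrt (l' ^ 2 + x' ^ 2) -
      ((l - l') + θ * (x - x')) * (Real.sqrt (1 + θ ^ 2))⁻¹| ≤
      2 * δ * (|l - l'| + |x - x'|) := by
  have h1 := sqrt_ge_one θ
  have hδ : 0 ≤ δ := by
    have := (abs_nonneg _).trans hx
    exact nonneg_of_mul_nonneg_left this hl
  have hθW := abs_le_sqrt θ
  set W := Real.sqrt (1 + θ ^ 2) with hW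
  have hW2 : W ^ 2 = 1 + θ ^ 2 := Real.sq_sqrt (by positivity)
  have hW0 : 0 < W := by linarith
  -- one point
  have key : ∀ {m y : ℝ}, 0 < m → |y - θ * m| ≤ δ * m →
      m ≤ Real.sqrt (m ^ 2 + y ^ 2) ∧ |Real.sqrt (m ^ 2 + y ^ 2) - W * m| ≤ δ * m := by
    intro m y hm hy
    have hN0 : 0 ≤ Real.sqrt (m ^ 2 + y ^ 2) := Real.sqrt_nonneg _
    have hN2 : Real.sqrt (m ^ 2 + y ^ 2) ^ 2 = m ^ 2 + y ^ 2 := Real.sq_sqrt (by positivity)
    set N := Real.sqrt (m ^ 2 + y ^ 2) with hN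
    have hmN : m ≤ N := by
      rw [hN]
      refine Real.le_sqrt_of_sq_le ?_
      nlinarith [sq_nonneg y]
    refine ⟨hmN, ?_⟩
    have hyN : |y| ≤ N := by
      rw [hN]
      refine Real.le_sqrt_of_sq_le ?_
      rw [sq_abs]; nlinarith [sq_nonneg m]
    have hpos : 0 < N + W * m := by positivity
    have e : (N - W * m) * (N + W * m) = (y - θ * m) * (y + θ * m) := by
      have : (N - W * m) * (N + W * m) = N ^ 2 - W ^ 2 * m ^ 2 := by ring
      rw [this, hN2, hW2]; ring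
    have h5 : |N - W * m| * (N + W * m) ≤ (δ * m) * (N + W * m) := by
      calc |N - W * m| * (N + W * m) = |(N - W * m) * (N + W * m)| := by
            rw [abs_mul, abs_of_pos hpos]
        _ = |y - θ * m| * |y + θ * m| := by rw [e, abs_mul]
        _ ≤ (δ * m) * (N + W * m) := by
            refine mul_le_mul hy ?_ (abs_nonneg _) (by positivity)
            calc |y + θ * m| ≤ |y| + |θ * m| := abs_add_le _ _
              _ = |y| + |θ| * m := by rw [abs_mul, abs_of_pos hm]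
              _ ≤ N + W * m := by
                  have := mul_le_mul_of_nonneg_right hθW hm.le
                  linarith
    exact le_of_mul_le_mul_right h5 hpos
  obtain ⟨k1, k2⟩ := key hl hx
  obtain ⟨k3, k4⟩ := key hl' hx'
  have hN2 : Real.sqrt (l ^ 2 + x ^ 2) ^ 2 = l ^ 2 + x ^ 2 := Real.sq_sqrt (by positivity)
  have hN2' : Real.sqrt (l' ^ 2 + x' ^ 2) ^ 2 = l' ^ 2 + x' ^ 2 := Real.sq_sqrt (by positivity)
  set N := Real.sqrt (l ^ 2 + x ^ 2) with hN
  set N' := Real.sqrt (l' ^ 2 + x' ^ 2) with hN'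
  have hS : 0 < N + N' := by linarith
  have hSs : l + l' ≤ N + N' := by linarith
  -- the two quotients
  have hQ1 : |(l + l') * W - (N + N')| ≤ δ * (N + N') := by
    have e : (l + l') * W - (N + N') = -((N - W * l) + (N' - W * l')) := by ring
    rw [e, abs_neg]
    calc _ ≤ |N - W * l| + |N' - W * l'| := abs_add_le _ _
      _ ≤ δ * l + δ * l' := add_le_add k2 k4
      _ ≤ δ * (N + N') := by nlinarith
  have hQ2 : |(x + x') * W - θ * (N + N')| ≤ 2 * δ * W * (N + N') := by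
    have e : (x + x') * W - θ * (N + N') =
        W * ((x - θ * l) + (x' - θ * l')) + θ * ((l + l') * W - (N + N')) := by ring
    rw [e]
    calc _ ≤ |W * ((x - θ * l) + (x' - θ * l'))| + |θ * ((l + l') * W - (N + N'))| :=
          abs_add_le _ _
      _ = W * |(x - θ * l) + (x' - θ * l')| + |θ| * |(l + l') * W - (N + N')| := by
          rw [abs_mul, abs_mul, abs_of_pos hW0]
      _ ≤ W * (δ * (N + N')) + W * (δ * (N + N')) := by
          refine add_le_add (mul_le_mul_of_nonneg_left ?_ hW0.le)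
            (mul_le_mul hθW hQ1 (abs_nonneg _) hW0.le)
          calc _ ≤ |x - θ * l| + |x' - θ * l'| := abs_add_le _ _
            _ ≤ δ * l + δ * l' := add_le_add hx hx'
            _ ≤ δ * (N + N') := by nlinarith
      _ = _ := by ring
  -- conclusion
  have hmul : (N - N' - ((l - l') + θ * (x - x')) * W⁻¹) * (W * (N + N')) =
      (l - l') * ((l + l') * W - (N + N')) + (x - x') * ((x + x') * W - θ * (N + N')) := by
    have e1 : (N - N') * (N + N') = (l - l') * (l + l') + (x - x') * (x + x') := by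
      have : (N - N') * (N + N') = N ^ 2 - N' ^ 2 := by ring
      rw [this, hN2, hN2']; ring
    have e2 : W⁻¹ * W = 1 := inv_mul_cancel₀ hW0.ne'
    calc _ = W * ((N - N') * (N + N')) - ((l - l') + θ * (x - x')) * (W⁻¹ * W) * (N + N') := by
          ring
      _ = _ := by rw [e1, e2]; ring
  have hWS : 0 < W * (N + N') := mul_pos hW0 hS
  refine le_of_mul_le_mul_right ?_ hWS
  calc |N - N' - ((l - l') + θ * (x - x')) * W⁻¹| * (W * (N + N'))
      = |(N - N' - ((l - l') + θ * (x - x')) * W⁻¹) * (W * (N + N'))| := by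
        rw [abs_mul _ (W * (N + N')), abs_of_pos hWS]
    _ ≤ |l - l'| * (δ * (N + N')) + |x - x'| * (2 * δ * W * (N + N')) := by
        rw [hmul]
        refine (abs_add_le _ _).trans ?_
        rw [abs_mul, abs_mul]
        exact add_le_add (mul_le_mul_of_nonneg_left hQ1 (abs_nonneg _))
          (mul_le_mul_of_nonneg_left hQ2 (abs_nonneg _))
    _ ≤ 2 * δ * (|l - l'| + |x - x'|) * (W * (N + N')) := by
        have h7 : 0 ≤ |l - l'| * (δ * (N + N')) := by positivity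
        nlinarith [mul_le_mul_of_nonneg_left h1 h7]

/-- the bracket on a cone around a ray. -/
theorem brg_strict {al ga θ l l' x x' δ : ℝ} (hga : 0 ≤ ga) (hl : 0 < l) (hl' : 0 < l')
    (hx : |x - θ * l| ≤ δ * l) (hx' : |x' - θ * l'| ≤ δ * l') :
    |brg al ga l x - brg al ga l' x' - brl ga θ * (l - l') - brx al ga θ * (x - x')| ≤
      ga * (2 * δ * (|l - l'| + |x - x'|)) := by
  have h := norm_strict hl hl' hx hx'
  have e : brg al ga l x - brg al ga l' x' - brl ga θ * (l - l') - brx al ga θ * (x - x') =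
      -(ga * (Real.sqrt (l ^ 2 + x ^ 2) - Real.sqrt (l' ^ 2 + x' ^ 2) -
        ((l - l') + θ * (x - x')) * (Real.sqrt (1 + θ ^ 2))⁻¹)) := by
    unfold brg brl brx
    ring
  rw [e, abs_neg, abs_mul, abs_of_nonneg hga]
  exact mul_le_mul_of_nonneg_left h hga

/-! ### the reward -/

section Psi

open Crest.Agent.R116.Xu79 (brk)
open Crest.Agent.R116.Psi635 (psi Psi)
open Crest.Agent.R116.Zl139 (LinAt)

variable {ι : Type} [Fintype ι]

omit [Fintype ι] in
theorem brk_eq (μ l x : ℝ) : brk μ l x = brg ((1 - μ) / 2) ((1 + μ) / 2) l x := rfl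

/-- derivative of 635's reward in the length direction. -/
noncomputable def dlen (w : ι → ℝ) (μ q : ℝ) (θ : ι → ℝ) : ℝ :=
  q * ∑ j, w j * brl ((1 + μ) / 2) (θ j)

/-- derivative of 635's reward in the width direction `j`. -/
noncomputable def dwid (p w : ι → ℝ) (μ q : ℝ) (θ : ι → ℝ) (j : ι) : ℝ :=
  p j + q * (w j * brx ((1 - μ) / 2) ((1 + μ) / 2) (θ j))

theorem dlen_nonneg {w : ι → ℝ} {μ q : ℝ} (hw : ∀ j, 0 ≤ w j) (hμ : 0 ≤ μ) (hq : 0 ≤ q)
    (θ : ι → ℝ) : 0 ≤ dlen w μ q θ :=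
  mul_nonneg hq (Finset.sum_nonneg fun j _ => mul_nonneg (hw j) (brl_nonneg (by linarith) _))

theorem dlen_le {w : ι → ℝ} {μ q : ℝ} (hw : ∀ j, 0 ≤ w j) (hμ : 0 ≤ μ) (hq : 0 ≤ q)
    (θ : ι → ℝ) : dlen w μ q θ ≤ q * ((1 + μ) / 2 * ∑ j, w j) := by
  unfold dlen
  refine mul_le_mul_of_nonneg_left ?_ hq
  rw [Finset.mul_sum]
  refine Finset.sum_le_sum fun j _ => ?_
  rw [mul_comm ((1 + μ) / 2)]
  exact mul_le_mul_of_nonneg_left (brl_le (by linarith) _) (hw j)

omit [Fintype ι] in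
theorem dwid_ge {p w : ι → ℝ} {μ q : ℝ} {j : ι} (hw : 0 ≤ w j) (hμ : 0 ≤ μ) (hq : 0 ≤ q)
    (θ : ι → ℝ) : p j - q * w j * μ ≤ dwid p w μ q θ j := by
  unfold dwid
  have h := brx_ge (al := (1 - μ) / 2) (ga := (1 + μ) / 2) (by linarith) (θ j)
  have h2 : -μ ≤ brx ((1 - μ) / 2) ((1 + μ) / 2) (θ j) := by linarith
  have h3 := mul_le_mul_of_nonneg_left h2 (mul_nonneg hq hw)
  nlinarith

omit [Fintype ι] in
theorem dwid_le {p w : ι → ℝ} {μ q : ℝ} {j : ι} (hw : 0 ≤ w j) (hμ : 0 ≤ μ) (hq : 0 ≤ q)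
    (θ : ι → ℝ) : dwid p w μ q θ j ≤ p j + q * w j := by
  unfold dwid
  have h := brx_le (al := (1 - μ) / 2) (ga := (1 + μ) / 2) (by linarith) (θ j)
  have h2 : brx ((1 - μ) / 2) ((1 + μ) / 2) (θ j) ≤ 1 := by linarith
  have h3 := mul_le_mul_of_nonneg_left h2 (mul_nonneg hq hw)
  nlinarith

/-- Euler: `Psi(1, θ) = dlen + ∑ dwid_j θ_j`. -/
theorem Psi_euler (p w : ι → ℝ) (μ q : ℝ) (θ : ι → ℝ) :
    Psi p w μ q 1 θ = dlen w μ q θ + ∑ j, dwid p w μ q θ j * θ j := by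
  unfold Psi psi dlen dwid
  have h1 : ∀ j, brk μ 1 (θ j) = brl ((1 + μ) / 2) (θ j) +
      brx ((1 - μ) / 2) ((1 + μ) / 2) (θ j) * θ j := fun j => by
    rw [brk_eq, brg_euler]
  simp only [h1, mul_add, add_mul, Finset.sum_add_distrib, Finset.mul_sum]
  have h2 : ∀ j, q * (w j * brx ((1 - μ) / 2) ((1 + μ) / 2) (θ j)) * θ j =
      q * (w j * (brx ((1 - μ) / 2) ((1 + μ) / 2) (θ j) * θ j)) := fun j => by ring
  simp only [h2]
  ring

/-- **`LinAt` for 635's reward.** -/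
theorem linAt_Psi {p w : ι → ℝ} {μ q : ℝ} (hμ : 0 ≤ μ) (θ : ι → ℝ) :
    LinAt (Psi p w μ q) θ (dlen w μ q θ) (dwid p w μ q θ) := by
  intro ε hε
  set K : ℝ := |q| * ((1 + μ) / 2) * ∑ j, |w j| with hK
  have hK0 : 0 ≤ K := mul_nonneg (mul_nonneg (abs_nonneg _) (by linarith))
    (Finset.sum_nonneg fun j _ => abs_nonneg _)
  refine ⟨ε / (2 * K + 1), by positivity, ?_⟩
  intro l l' x x' hl hl' hx hx'
  set δ := ε / (2 * K + 1) with hδ
  have hga : 0 ≤ (1 + μ) / 2 := by linarith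
  set X : ℝ := |l - l'| + ∑ j, |x j - x' j| with hX
  have hX0 : 0 ≤ X := add_nonneg (abs_nonneg _) (Finset.sum_nonneg fun j _ => abs_nonneg _)
  have hδ0 : 0 ≤ δ := by positivity
  have e : Psi p w μ q l x - Psi p w μ q l' x' - dlen w μ q θ * (l - l') -
      ∑ j, dwid p w μ q θ j * (x j - x' j) =
      q * ∑ j, w j * (brg ((1 - μ) / 2) ((1 + μ) / 2) l (x j) -
        brg ((1 - μ) / 2) ((1 + μ) / 2) l' (x' j) - brl ((1 + μ) / 2) (θ j) * (l - l') -
        brx ((1 - μ) / 2) ((1 + μ) / 2) (θ j) * (x j - x' j)) := by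
    unfold Psi psi dlen dwid
    simp only [brk_eq, mul_sub, add_mul, Finset.sum_add_distrib, Finset.sum_sub_distrib,
      Finset.mul_sum, Finset.sum_mul]
    have h2 : ∀ j, q * (w j * brx ((1 - μ) / 2) ((1 + μ) / 2) (θ j)) * x j =
      q * (w j * (brx ((1 - μ) / 2) ((1 + μ) / 2) (θ j) * x j)) := fun j => by ring
    have h3 : ∀ j, q * (w j * brx ((1 - μ) / 2) ((1 + μ) / 2) (θ j)) * x' j =
      q * (w j * (brx ((1 - μ) / 2) ((1 + μ) / 2) (θ j) * x' j)) := fun j => by ring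
    have h4 : ∀ j, q * (w j * brl ((1 + μ) / 2) (θ j)) * l =
      q * (w j * (brl ((1 + μ) / 2) (θ j) * l)) := fun j => by ring
    have h5 : ∀ j, q * (w j * brl ((1 + μ) / 2) (θ j)) * l' =
      q * (w j * (brl ((1 + μ) / 2) (θ j) * l')) := fun j => by ring
    simp only [h2, h3, h4, h5]
    ring
  rw [e, abs_mul]
  have h1 : |∑ j, w j * (brg ((1 - μ) / 2) ((1 + μ) / 2) l (x j) -
        brg ((1 - μ) / 2) ((1 + μ) / 2) l' (x' j) - brl ((1 + μ) / 2) (θ j) * (l - l') -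
        brx ((1 - μ) / 2) ((1 + μ) / 2) (θ j) * (x j - x' j))| ≤
      ∑ j, |w j| * ((1 + μ) / 2 * (2 * δ * X)) := by
    refine (Finset.abs_sum_le_sum_abs _ _).trans (Finset.sum_le_sum fun j _ => ?_)
    rw [abs_mul]
    refine mul_le_mul_of_nonneg_left ?_ (abs_nonneg _)
    refine (brg_strict hga hl hl' (hx j) (hx' j)).trans ?_
    refine mul_le_mul_of_nonneg_left ?_ hga
    refine mul_le_mul_of_nonneg_left ?_ (by positivity)
    have h6 := Finset.single_le_sum (f := fun j => |x j - x' j|) (fun i _ => abs_nonneg _)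
      (Finset.mem_univ j)
    rw [hX]
    linarith
  calc _ ≤ |q| * ∑ j, |w j| * ((1 + μ) / 2 * (2 * δ * X)) :=
        mul_le_mul_of_nonneg_left h1 (abs_nonneg _)
    _ = 2 * K * δ * X := by rw [← Finset.sum_mul, hK]; ring
    _ ≤ ε * X := by
        refine mul_le_mul_of_nonneg_right ?_ hX0
        rw [hδ, ← mul_div_assoc, div_le_iff₀ (by positivity)]
        nlinarith

end Psi

end Crest.Agent.R116.Rv883
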