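import Mathlib
import Crest.Agent.R116.Xu1_79

/-!
# R116 (K side), block X1-C: superadditivity and equality modulus of the concave reward (helper79)
-/

set_option autoImplicit false
set_option linter.unusedVariables false

namespace Crest.Agent.R116.Xu79

/-- norm of a plane vector. -/
noncomputable def nr (l x : ℝ) : ℝ := Real.sqrt (l ^ 2 + x ^ 2)

theorem brk_eq (mu l x : ℝ) : brk mu l x = (1 - mu) / 2 * x - (1 + mu) / 2 * (nr l x - l) := rfl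

theorem nr_nonneg (l x : ℝ) : 0 ≤ nr l x := Real.sqrt_nonneg _

theorem nr_sq (l x : ℝ) : nr l x ^ 2 = l ^ 2 + x ^ 2 := Real.sq_sqrt (by positivity)

theorem abs_le_nr (l x : ℝ) : |x| ≤ nr l x := by
  rw [← Real.sqrt_sq_eq_abs]
  exact Real.sqrt_le_sqrt (by nlinarith [sq_nonneg l])

theorem abs_le_nr' (l x : ℝ) : |l| ≤ nr l x := by
  rw [← Real.sqrt_sq_eq_abs]
  exact Real.sqrt_le_sqrt (by nlinarith [sq_nonneg x])

theorem nr_smul {t : ℝ} (ht : 0 ≤ t) (l x : ℝ) : nr (t * l) (t * x) = t * nr l x := by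
  unfold nr
  rw [show (t * l) ^ 2 + (t * x) ^ 2 = t ^ 2 * (l ^ 2 + x ^ 2) by ring,
    Real.sqrt_mul (sq_nonneg t), Real.sqrt_sq ht]

/-- Cauchy-Schwarz. -/
theorem dot_le (a1 a2 b1 b2 : ℝ) : a1 * b1 + a2 * b2 ≤ nr a1 a2 * nr b1 b2 := by
  unfold nr
  rw [← Real.sqrt_mul (by positivity)]
  apply Real.le_sqrt_of_sq_le
  nlinarith [sq_nonneg (a1 * b2 - a2 * b1)]

/-- triangle inequality. -/
theorem nr_add_le (a1 a2 b1 b2 : ℝ) : nr (a1 + b1) (a2 + b2) ≤ nr a1 a2 + nr b1 b2 := by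
  have h := dot_le a1 a2 b1 b2
  have h1 := nr_sq a1 a2
  have h2 := nr_sq b1 b2
  have h3 := nr_sq (a1 + b1) (a2 + b2)
  apply abs_le_of_sq_le_sq' _ (add_nonneg (nr_nonneg _ _) (nr_nonneg _ _)) |>.2
  nlinarith

theorem brk_smul (mu : ℝ) {t : ℝ} (ht : 0 ≤ t) (l x : ℝ) :
    brk mu (t * l) (t * x) = t * brk mu l x := by
  rw [brk_eq, brk_eq, nr_smul ht]; ring

/-- **superadditivity.** -/
theorem brk_add_le {mu : ℝ} (hmu : 0 ≤ mu) (l1 x1 l2 x2 : ℝ) :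
    brk mu l1 x1 + brk mu l2 x2 ≤ brk mu (l1 + l2) (x1 + x2) := by
  rw [brk_eq, brk_eq, brk_eq]
  have h := nr_add_le l1 x1 l2 x2
  nlinarith

/-- the defect of superadditivity. -/
theorem brk_defect (mu l1 x1 l2 x2 : ℝ) :
    brk mu (l1 + l2) (x1 + x2) - (brk mu l1 x1 + brk mu l2 x2) =
      (1 + mu) / 2 * (nr l1 x1 + nr l2 x2 - nr (l1 + l2) (x1 + x2)) := by
  rw [brk_eq, brk_eq, brk_eq]; ring

theorem nr_lip (l x x' : ℝ) : |nr l x' - nr l x| ≤ |x' - x| := by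
  have h1 := nr_add_le l x 0 (x' - x)
  have h2 := nr_add_le l x' 0 (x - x')
  have e : ∀ y : ℝ, nr 0 y = |y| := by
    intro y; unfold nr; rw [zero_pow two_ne_zero, zero_add, Real.sqrt_sq_eq_abs]
  rw [add_zero, e, add_sub_cancel] at h1 h2
  rw [abs_sub_comm x x'] at h2
  rw [abs_le]
  constructor <;> linarith

/-- **slopes** in `[-mu, 1]`. -/
theorem brk_slope {mu l x x' : ℝ} (hmu : 0 ≤ mu) (h : x ≤ x') :
    -(mu * (x' - x)) ≤ brk mu l x' - brk mu l x ∧ brk mu l x' - brk mu l x ≤ x' - x := by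
  have h1 := nr_lip l x x'
  rw [abs_of_nonneg (sub_nonneg.2 h), abs_le] at h1
  rw [brk_eq, brk_eq]
  constructor <;> nlinarith [h1.1, h1.2]

theorem le_of_sq_le_sq' {x y : ℝ} (hy : 0 ≤ y) (h : x ^ 2 ≤ y ^ 2) : x ≤ y :=
  (abs_le_of_sq_le_sq' h hy).2

/-- the distance of the unit vectors. -/
theorem unit_dist {a1 a2 b1 b2 A B : ℝ} (hAp : 0 < A) (hBp : 0 < B) (hAs : A ^ 2 = a1 ^ 2 + a2 ^ 2)
    (hBs : B ^ 2 = b1 ^ 2 + b2 ^ 2) :
    ((a1 / A - b1 / B) ^ 2 + (a2 / A - b2 / B) ^ 2) * (A * B) =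
      2 * (A * B - (a1 * b1 + a2 * b2)) := by
  have h1 : (a1 ^ 2 + a2 ^ 2) / A ^ 2 = 1 := by rw [← hAs]; field_simp
  have h2 : (b1 ^ 2 + b2 ^ 2) / B ^ 2 = 1 := by rw [← hBs]; field_simp
  have e : (a1 / A - b1 / B) ^ 2 + (a2 / A - b2 / B) ^ 2 =
      (a1 ^ 2 + a2 ^ 2) / A ^ 2 + (b1 ^ 2 + b2 ^ 2) / B ^ 2 -
        2 * ((a1 * b1 + a2 * b2) / (A * B)) := by
    field_simp
    ring
  rw [e, h1, h2, sub_mul, mul_assoc 2 _ (A * B), div_mul_cancel₀ _ (mul_pos hAp hBp).ne']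
  ring

theorem unit_dist_le {a1 a2 b1 b2 A B S m δ : ℝ} (hm : 0 < m) (ha : m ≤ A) (hb : m ≤ B)
    (hAs : A ^ 2 = a1 ^ 2 + a2 ^ 2) (hBs : B ^ 2 = b1 ^ 2 + b2 ^ 2)
    (hSs : S ^ 2 = (a1 + b1) ^ 2 + (a2 + b2) ^ 2) (hS : S ≤ A + B)
    (hδ0 : 0 ≤ δ) (hδ : A + B - S ≤ δ) :
    (a1 / A - b1 / B) ^ 2 + (a2 / A - b2 / B) ^ 2 ≤ 4 * (δ / m) := by
  have hAp : 0 < A := by linarith
  have hBp : 0 < B := by linarith
  have hAB : 0 < A * B := mul_pos hAp hBp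
  have e : 2 * (A * B - (a1 * b1 + a2 * b2)) = (A + B - S) * (A + B + S) := by
    have e1 : (A + B - S) * (A + B + S) = A ^ 2 + 2 * (A * B) + B ^ 2 - S ^ 2 := by ring
    rw [e1, hAs, hBs, hSs]; ring
  have h1 : (A + B - S) * (A + B + S) ≤ δ * (2 * (A + B)) := by
    rcases le_or_gt 0 (A + B + S) with h | h
    · calc (A + B - S) * (A + B + S) ≤ δ * (A + B + S) := mul_le_mul_of_nonneg_right hδ h
        _ ≤ δ * (2 * (A + B)) := mul_le_mul_of_nonneg_left (by linarith) hδ0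
    · have h2 : (A + B - S) * (A + B + S) ≤ 0 :=
        mul_nonpos_of_nonneg_of_nonpos (by linarith) h.le
      have h3 : 0 ≤ δ * (2 * (A + B)) := by positivity
      linarith
  have h3 : m * (A + B) ≤ 2 * (A * B) := by
    have h4 : m * A ≤ B * A := mul_le_mul_of_nonneg_right hb hAp.le
    have h5 : m * B ≤ A * B := mul_le_mul_of_nonneg_right ha hBp.le
    linarith
  have h6 : δ * (2 * (A + B)) ≤ 4 * (δ / m) * (A * B) := by
    have h7 : δ * (2 * (A + B)) = 2 * (δ / m) * (m * (A + B)) := by field_simp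
    rw [h7]
    have h8 : 0 ≤ 2 * (δ / m) := by positivity
    calc 2 * (δ / m) * (m * (A + B)) ≤ 2 * (δ / m) * (2 * (A * B)) :=
          mul_le_mul_of_nonneg_left h3 h8
      _ = _ := by ring
  have h9 := unit_dist hAp hBp hAs hBs
  apply le_of_mul_le_mul_right _ hAB
  rw [h9, e]
  exact h1.trans h6

theorem cross_le {a1 a2 b1 b2 A B D : ℝ} (hAp : 0 < A) (hBp : 0 < B) (hD : 0 ≤ D)
    (h1 : |a1 / A - b1 / B| ≤ 2 * D) (h2 : |a2 / A - b2 / B| ≤ 2 * D) (h3 : |b1| ≤ B)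
    (h4 : |b2| ≤ B) : |a2 * b1 - a1 * b2| ≤ 4 * D * (A * B) := by
  have hAB : 0 < A * B := mul_pos hAp hBp
  have e : a2 * b1 - a1 * b2 =
      ((a2 / A - b2 / B) * (b1 / B) - (a1 / A - b1 / B) * (b2 / B)) * (A * B) := by
    field_simp
    ring
  rw [e, abs_mul, abs_of_pos hAB]
  apply mul_le_mul_of_nonneg_right _ hAB.le
  refine (abs_sub _ _).trans ?_
  rw [abs_mul, abs_mul]
  have g1 : |b1 / B| ≤ 1 := by rw [abs_div, abs_of_pos hBp, div_le_one hBp]; exact h3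
  have g2 : |b2 / B| ≤ 1 := by rw [abs_div, abs_of_pos hBp, div_le_one hBp]; exact h4
  have g3 : |a2 / A - b2 / B| * |b1 / B| ≤ 2 * D * 1 :=
    mul_le_mul h2 g1 (abs_nonneg _) (by positivity)
  have g4 : |a1 / A - b1 / B| * |b2 / B| ≤ 2 * D * 1 :=
    mul_le_mul h1 g2 (abs_nonneg _) (by positivity)
  linarith

theorem size_le {a1 b1 A B κ D : ℝ} (hAp : 0 < A) (hBp : 0 < B) (hκ0 : 0 < κ)
    (hBk : B ≤ κ * b1) (hu1 : |a1 / A - b1 / B| ≤ 2 * D) (hDs : 4 * κ * D ≤ 1) :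
    A ≤ 2 * κ * a1 := by
  have h1 : 1 / κ ≤ b1 / B := by
    rw [div_le_div_iff₀ hκ0 hBp]; linarith
  have h2 : 1 / κ - 2 * D ≤ a1 / A := by
    have := (abs_le.1 hu1).1
    linarith
  have h3 : 1 / (2 * κ) ≤ a1 / A := by
    have h4 : 2 * D ≤ 1 / (2 * κ) := by
      rw [le_div_iff₀ (by positivity)]; linarith
    have h5 : 1 / κ = 1 / (2 * κ) + 1 / (2 * κ) := by field_simp; norm_num
    linarith
  rw [div_le_div_iff₀ (by positivity) hAp] at h3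
  linarith

/-- **equality modulus**: `A = (a1, a2)`, `B = (b1, b2)`, `|b2| ≤ K b1`, `a2` arbitrary. -/
theorem modulus {a1 a2 b1 b2 K m δ : ℝ} (hm : 0 < m) (ha : m ≤ a1) (hb : m ≤ b1)
    (hK : |b2| ≤ K * b1) (hδ0 : 0 ≤ δ)
    (hδ : nr a1 a2 + nr b1 b2 - nr (a1 + b1) (a2 + b2) ≤ δ) (hs : 16 * (1 + K ^ 2) * δ ≤ m) :
    |(a2 + b2) / (a1 + b1) - b2 / b1| ≤ 8 * (1 + K ^ 2) * Real.sqrt (δ / m) := by
  have ha0 : 0 < a1 := by linarith
  have hb0 : 0 < b1 := by linarith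
  have hA0 : a1 ≤ nr a1 a2 := (le_abs_self _).trans (abs_le_nr' _ _)
  have hB0 : b1 ≤ nr b1 b2 := (le_abs_self _).trans (abs_le_nr' _ _)
  have hAs := nr_sq a1 a2
  have hBs := nr_sq b1 b2
  have hABs := nr_sq (a1 + b1) (a2 + b2)
  have htri := nr_add_le a1 a2 b1 b2
  have hB1 := abs_le_nr' b1 b2
  have hB2 := abs_le_nr b1 b2
  generalize nr a1 a2 = A at *
  generalize nr b1 b2 = B at *
  generalize nr (a1 + b1) (a2 + b2) = S at *
  have hAp : 0 < A := by linarith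
  have hBp : 0 < B := by linarith
  have hD2le := unit_dist_le hm (by linarith) (by linarith) hAs hBs hABs htri hδ0 hδ
  have hDn : 0 ≤ Real.sqrt (δ / m) := Real.sqrt_nonneg _
  have hDsq : Real.sqrt (δ / m) ^ 2 = δ / m := Real.sq_sqrt (by positivity)
  generalize Real.sqrt (δ / m) = D at *
  have hfour : (2 * D) ^ 2 = 4 * (δ / m) := by rw [mul_pow, hDsq]; norm_num
  have hu1 : |a1 / A - b1 / B| ≤ 2 * D := by
    apply abs_le_of_sq_le_sq _ (by positivity)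
    rw [hfour]
    linarith [sq_nonneg (a2 / A - b2 / B)]
  have hu2 : |a2 / A - b2 / B| ≤ 2 * D := by
    apply abs_le_of_sq_le_sq _ (by positivity)
    rw [hfour]
    linarith [sq_nonneg (a1 / A - b1 / B)]
  have hκ2 : Real.sqrt (1 + K ^ 2) ^ 2 = 1 + K ^ 2 := Real.sq_sqrt (by positivity)
  have hκ0 : 0 < Real.sqrt (1 + K ^ 2) := Real.sqrt_pos.2 (by positivity)
  generalize Real.sqrt (1 + K ^ 2) = κ at *
  have hBk : B ≤ κ * b1 := by
    apply le_of_sq_le_sq' (by positivity)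
    rw [hBs, mul_pow, hκ2]
    have h1 : b2 ^ 2 ≤ (K * b1) ^ 2 := sq_le_sq' (by linarith [(abs_le.1 hK).1]) ((abs_le.1 hK).2)
    have h2 : (1 + K ^ 2) * b1 ^ 2 = b1 ^ 2 + (K * b1) ^ 2 := by ring
    rw [h2]; linarith
  have hDsm : 4 * κ * D ≤ 1 := by
    apply le_of_sq_le_sq' (by norm_num)
    have h1 : (4 * κ * D) ^ 2 = 16 * (1 + K ^ 2) * δ / m := by
      rw [mul_pow, mul_pow, hκ2, hDsq]; ring
    rw [h1, one_pow, div_le_one hm]
    exact hs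
  have hAk := size_le hAp hBp hκ0 hBk hu1 hDsm
  have hcr := cross_le hAp hBp hDn hu1 hu2 hB1 hB2
  have hpos : 0 < b1 * (a1 + b1) := by positivity
  have e : (a2 + b2) / (a1 + b1) - b2 / b1 = (a2 * b1 - a1 * b2) / (b1 * (a1 + b1)) := by
    field_simp
    ring
  rw [e, abs_div, abs_of_pos hpos, div_le_iff₀ hpos]
  refine hcr.trans ?_
  have h1 : A * B ≤ (2 * κ * a1) * (κ * b1) :=
    mul_le_mul hAk hBk hBp.le (by positivity)
  calc 4 * D * (A * B) ≤ 4 * D * ((2 * κ * a1) * (κ * b1)) :=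
        mul_le_mul_of_nonneg_left h1 (by positivity)
    _ = 8 * κ ^ 2 * D * (b1 * a1) := by ring
    _ = 8 * (1 + K ^ 2) * D * (b1 * a1) := by rw [hκ2]
    _ ≤ 8 * (1 + K ^ 2) * D * (b1 * (a1 + b1)) := by
        apply mul_le_mul_of_nonneg_left _ (by positivity)
        apply mul_le_mul_of_nonneg_left _ hb0.le
        linarith

/-- **equality modulus for a bracket**: defect of superadditivity at most `η`. -/
theorem brk_modulus {mu a1 a2 b1 b2 K m η : ℝ} (hmu : 0 ≤ mu) (hm : 0 < m) (ha : m ≤ a1)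
    (hb : m ≤ b1) (hK : |b2| ≤ K * b1) (hη0 : 0 ≤ η)
    (hη : brk mu (a1 + b1) (a2 + b2) ≤ brk mu a1 a2 + brk mu b1 b2 + η)
    (hs : 32 * (1 + K ^ 2) * η ≤ m) :
    |(a2 + b2) / (a1 + b1) - b2 / b1| ≤ 8 * (1 + K ^ 2) * Real.sqrt (2 * η / m) := by
  have hd := brk_defect mu a1 a2 b1 b2
  have htri := nr_add_le a1 a2 b1 b2
  refine modulus hm ha hb hK (δ := 2 * η) (by positivity) ?_ (by linarith)
  have h1 : (1 + mu) / 2 * (nr a1 a2 + nr b1 b2 - nr (a1 + b1) (a2 + b2)) ≤ η := by linarith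
  nlinarith

/-- **equality modulus, `ε`-`δ` form** (635): the first summand `(l, x)` is bounded, the second one
`(l', x')` arbitrary. -/
theorem modulus_eps (γ : ℝ) (hγ : 0 < γ) {l0 R ε : ℝ} (hl0 : 0 < l0) (hR : 0 ≤ R) (hε : 0 < ε)
    (Lm : ℝ) (hLm : 0 < Lm) :
    ∃ η : ℝ, 0 < η ∧ ∀ l l' x x' : ℝ, l0 ≤ l → l0 ≤ l' → l + l' ≤ Lm → |x| ≤ R →
      γ * (nr l x + nr l' x' - nr (l + l') (x + x')) ≤ η →
      |(x + x') - (l + l') / l * x| ≤ ε := by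
  obtain ⟨K, hK⟩ : ∃ K : ℝ, K = R / l0 := ⟨_, rfl⟩
  have hK0 : 0 ≤ K := by rw [hK]; positivity
  -- `δ` with `16 (1 + K²) δ ≤ l0` and `8 (1 + K²) √(δ / l0) Lm ≤ ε`
  obtain ⟨t, ht⟩ : ∃ t : ℝ, t = ε / (8 * (1 + K ^ 2) * Lm) := ⟨_, rfl⟩
  have ht0 : 0 < t := by rw [ht]; positivity
  obtain ⟨δ, hδ⟩ : ∃ δ : ℝ, δ = min (l0 / (16 * (1 + K ^ 2))) (l0 * t ^ 2) := ⟨_, rfl⟩
  have hδ0 : 0 < δ := by rw [hδ]; exact lt_min (by positivity) (by positivity)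
  have hδ1 : 16 * (1 + K ^ 2) * δ ≤ l0 := by
    have h1 : δ ≤ l0 / (16 * (1 + K ^ 2)) := by rw [hδ]; exact min_le_left _ _
    rw [le_div_iff₀ (by positivity)] at h1
    linarith
  have hδ2 : Real.sqrt (δ / l0) ≤ t := by
    rw [Real.sqrt_le_iff]
    refine ⟨ht0.le, ?_⟩
    have h1 : δ ≤ l0 * t ^ 2 := by rw [hδ]; exact min_le_right _ _
    rw [div_le_iff₀ hl0]; linarith
  refine ⟨γ * δ, by positivity, ?_⟩
  intro l l' x x' hl hl' hll hx hdef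
  have hlp : 0 < l := by linarith
  have hlp' : 0 < l' := by linarith
  have hKb : |x| ≤ K * l := by
    have h1 : R ≤ K * l := by
      rw [hK, div_mul_eq_mul_div, le_div_iff₀ hl0]
      exact mul_le_mul_of_nonneg_left hl hR
    linarith
  have hd : nr l' x' + nr l x - nr (l' + l) (x' + x) ≤ δ := by
    have h1 := le_of_mul_le_mul_left hdef hγ
    rw [add_comm l' l, add_comm x' x]
    linarith
  have hm := modulus hl0 hl' hl hKb hδ0.le hd hδ1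
  have e : (x + x') - (l + l') / l * x = ((x' + x) / (l' + l) - x / l) * (l + l') := by
    field_simp
    ring
  rw [e, abs_mul, abs_of_pos (show 0 < l + l' by linarith)]
  calc _ ≤ (8 * (1 + K ^ 2) * Real.sqrt (δ / l0)) * (l + l') :=
        mul_le_mul_of_nonneg_right hm (by linarith)
    _ ≤ (8 * (1 + K ^ 2) * t) * Lm := by
        apply mul_le_mul _ hll (by linarith) (by positivity)
        exact mul_le_mul_of_nonneg_left hδ2 (by positivity)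
    _ = ε := by rw [ht]; field_simp

end Crest.Agent.R116.Xu79
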