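import Mathlib

/-!
# R116 (K side), block X1-C with the concave reward: choice of the parameter `q` (helper708)

`β : ℝ → ℝ` (extremal gap as a function of the one real parameter `q`) is only known to satisfy
`β q - (q' - q) ≤ β q'` for `q ≤ q'` (no downward jumps).

`exists_q_mono` : if `2 g ≤ β 0` and `β Q ≤ g`, there is a FIXED `q ∈ (0, Q)` with `g < β q < 2 g`,
`β 0 - 2 g < q` and `β (q + δ) ≤ β q - κ δ` for all `0 ≤ δ ≤ δ0`, `κ = g / (4 Q)`; no maximiser is
needed (`β + id` is monotone, hence differentiable a.e., and `∫ (β + id)' ≤` its increment).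

`up_step` : the comparison of two near-maximal test sets for `q` and `q + δ`.
-/

set_option autoImplicit false

open MeasureTheory Filter Topology Set

namespace Crest.Agent.R116.Xs708

/-- **choice of `q`**, functions without downward jumps. -/
theorem exists_q_mono {β : ℝ → ℝ} {Q g : ℝ} (hQ : 0 < Q) (hg : 0 < g)
    (hβ : ∀ q q', 0 ≤ q → q ≤ q' → q' ≤ Q → β q - (q' - q) ≤ β q')
    (h0 : 2 * g ≤ β 0) (h1 : β Q ≤ g) :
    ∃ q, 0 < q ∧ q < Q ∧ β 0 - 2 * g < q ∧ g < β q ∧ β q < 2 * g ∧
      ∃ δ0 : ℝ, 0 < δ0 ∧ q + δ0 ≤ Q ∧ ∀ δ, 0 ≤ δ → δ ≤ δ0 → β (q + δ) ≤ β q - g / (4 * Q) * δ := by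
  classical
  set F : ℝ → ℝ := fun t => max g (min (2 * g) (β t)) with hF
  have hFu : ∀ t, F t ≤ 2 * g := fun t => max_le (by linarith) (min_le_left _ _)
  have hFl : ∀ t, g ≤ F t := fun t => le_max_left _ _
  set G : ℝ → ℝ := fun t => F t + t with hG
  have hmono : MonotoneOn G (Icc 0 Q) := by
    intro x hx y hy hxy
    have h2 := hβ x y hx.1 hxy hy.2
    have h3 : F x - (y - x) ≤ F y := by
      simp only [hF]
      have a0 : 0 ≤ y - x := by linarith
      rcases le_total (min (2 * g) (β x)) g with h | h
      · rw [max_eq_left h]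
        exact (by linarith : g - (y - x) ≤ g).trans (le_max_left _ _)
      · rw [max_eq_right h]
        refine le_trans ?_ (le_max_right _ _)
        refine le_min ?_ ?_
        · linarith [min_le_left (2 * g) (β x)]
        · linarith [min_le_right (2 * g) (β x)]
    simp only [hG]
    linarith
  have e0 : G 0 = 2 * g := by
    simp only [hG, hF]
    rw [min_eq_left h0, max_eq_right (by linarith), add_zero]
  have e1 : G Q = g + Q := by
    simp only [hG, hF]
    rw [max_eq_left ((min_le_right _ _).trans h1)]
  have hint := MonotoneOn.intervalIntegral_deriv_mem_uIcc (f := G) (a := 0) (b := Q)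
    (by rwa [uIcc_of_le hQ.le])
  rw [e0, e1, uIcc_of_le (by
    have := hmono ⟨le_rfl, hQ.le⟩ ⟨hQ.le, le_rfl⟩ hQ.le
    rw [e0, e1] at this
    linarith)] at hint
  have hdiff : ∀ᵐ x : ℝ, x ∈ Icc 0 Q → DifferentiableWithinAt ℝ G (Icc 0 Q) x :=
    hmono.ae_differentiableWithinAt_of_mem
  have hex : ∃ q, 0 < q ∧ q < Q ∧ DifferentiableAt ℝ G q ∧ deriv G q < 1 - g / (2 * Q) := by
    by_contra hcon
    push Not at hcon
    have key : ∀ᵐ t : ℝ, t ∈ Ioc 0 Q → (1 - g / (2 * Q)) ≤ deriv G t := by
      have hne : ∀ᵐ t : ℝ, t ≠ Q := by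
        simp [ae_iff, measure_singleton]
      filter_upwards [hdiff, hne] with t ht htne htI
      have htl : t < Q := lt_of_le_of_ne htI.2 htne
      exact hcon t htI.1 htl ((ht ⟨htI.1.le, htI.2⟩).differentiableAt (Icc_mem_nhds htI.1 htl))
    have hii : IntervalIntegrable (deriv G) volume 0 Q :=
      MonotoneOn.intervalIntegrable_deriv (by rwa [uIcc_of_le hQ.le])
    have hge : ∫ _t in (0 : ℝ)..Q, (1 - g / (2 * Q)) ≤ ∫ t in (0 : ℝ)..Q, deriv G t := by
      rw [intervalIntegral.integral_of_le hQ.le, intervalIntegral.integral_of_le hQ.le]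
      apply setIntegral_mono_on_ae
      · exact integrableOn_const (by simp)
      · exact (intervalIntegrable_iff_integrableOn_Ioc_of_le hQ.le).1 hii
      · exact measurableSet_Ioc
      · exact key
    rw [intervalIntegral.integral_const] at hge
    simp only [smul_eq_mul, sub_zero] at hge
    have h4 : Q * (1 - g / (2 * Q)) = Q - g / 2 := by
      field_simp
    rw [h4] at hge
    have := hint.2
    linarith
  obtain ⟨q, hq0, hqQ, hGd, hGq⟩ := hex
  have hFd : DifferentiableAt ℝ F q := by
    have : F = fun t => G t - t := by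
      funext t
      simp [hG]
    rw [this]
    exact hGd.sub differentiableAt_id
  have hFq : HasDerivAt F (deriv G q - 1) q := by
    have h2 : HasDerivAt (fun t => G t - t) (deriv G q - 1) q := hGd.hasDerivAt.sub (hasDerivAt_id q)
    have : F = fun t => G t - t := by
      funext t
      simp [hG]
    rw [this]
    exact h2
  have hgQ : 0 < g / (2 * Q) := by positivity
  have hne : deriv F q ≠ 0 := by
    rw [hFq.deriv]
    linarith
  have hfu : β q < 2 * g := by
    by_contra h
    push Not at h
    apply hne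
    apply IsLocalMax.deriv_eq_zero
    have : F q = 2 * g := by
      simp only [hF]
      rw [min_eq_left h, max_eq_right (by linarith)]
    exact Eventually.of_forall fun x => by rw [this]; exact hFu x
  have hfl : g < β q := by
    by_contra h
    push Not at h
    apply hne
    apply IsLocalMin.deriv_eq_zero
    have : F q = g := by
      simp only [hF]
      exact max_eq_left ((min_le_right _ _).trans h)
    exact Eventually.of_forall fun x => by rw [this]; exact hFl x
  have hFβ : F q = β q := by
    simp only [hF]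
    rw [min_eq_right hfu.le, max_eq_right hfl.le]
  have hlow : β 0 - 2 * g < q := by
    have := hβ 0 q le_rfl hq0.le hqQ.le
    linarith
  -- right derivative
  have hslope : ∀ᶠ δ in 𝓝[>] (0 : ℝ), F (q + δ) ≤ F q - g / (4 * Q) * δ := by
    have hs := hasDerivAt_iff_tendsto_slope_zero.1 hFq
    have hs' : Tendsto (fun t : ℝ => t⁻¹ • (F (q + t) - F q)) (𝓝[>] 0) (𝓝 (deriv G q - 1)) :=
      hs.mono_left (nhdsWithin_mono _ fun x hx => ne_of_gt hx)
    have h5 : deriv G q - 1 < -(g / (4 * Q)) := by
      have : g / (4 * Q) ≤ g / (2 * Q) := by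
        apply div_le_div_of_nonneg_left hg.le (by positivity)
        linarith
      linarith
    filter_upwards [hs'.eventually_lt_const h5, self_mem_nhdsWithin] with δ hδ hδp
    have hδp' : 0 < δ := hδp
    rw [smul_eq_mul, inv_mul_lt_iff₀ hδp'] at hδ
    linarith
  rw [eventually_nhdsWithin_iff, Metric.eventually_nhds_iff] at hslope
  obtain ⟨ε, hε, hball⟩ := hslope
  set δ0 : ℝ := min (ε / 2) (Q - q) with hδ0
  have hδ0p : 0 < δ0 := lt_min (by linarith) (by linarith)
  refine ⟨q, hq0, hqQ, hlow, hfl, hfu, δ0, hδ0p, ?_, fun δ hδ hδ' => ?_⟩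
  · linarith [min_le_right (ε / 2) (Q - q)]
  · rcases hδ.eq_or_lt with h | h
    · rw [← h]
      simp
    · have h6 : δ < ε := by
        have := min_le_left (ε / 2) (Q - q)
        linarith
      have h7 := hball (y := δ) (by rw [Real.dist_eq, sub_zero, abs_of_pos h]; exact h6) h
      rw [hFβ] at h7
      have h8 : F (q + δ) < 2 * g := by
        have : 0 < g / (4 * Q) * δ := by positivity
        linarith
      have h9 : β (q + δ) ≤ F (q + δ) := by
        simp only [hF] at h8 ⊢
        have h10 : min (2 * g) (β (q + δ)) < 2 * g := (le_max_right _ _).trans_lt h8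
        have h11 : β (q + δ) < 2 * g := by
          by_contra hcon
          push Not at hcon
          rw [min_eq_left hcon] at h10
          exact lt_irrefl _ h10
        rw [min_eq_right h11.le]
        exact le_max_right _ _
      linarith

/-- **UP step, finite form.**  `c s` = log of (number of lines / volume) of the test set `s`, `ps s`
= reward `Ψ_q` of its shape, `psi s ≤ h` = derivative of the reward in `q`, `D` = sup for `q`. If `s'`
is near-maximal for `q + δ` and the supremum for `q + δ` is larger by `κ δ h - e`, then the shape of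
`s'` is bounded and `s'` is near-maximal for `q`. -/
theorem up_step {σ : Type*} {c ps psi : σ → ℝ} {D h κ δ e : ℝ} {s' : σ} (hδ : 0 < δ)
    (hD : c s' + ps s' ≤ D) (hs : D + κ * δ * h - e ≤ c s' + (ps s' + δ * psi s'))
    (hpsi : psi s' ≤ h) (hκ : 0 ≤ κ * δ * h) :
    κ * h - e / δ ≤ psi s' ∧ D - e - δ * h ≤ c s' + ps s' := by
  constructor
  · have h1 : κ * δ * h - e ≤ δ * psi s' := by linarith
    have h2 : κ * h - e / δ = (κ * δ * h - e) / δ := by
      field_simp
    rw [h2, div_le_iff₀ hδ]
    linarith
  · have : δ * psi s' ≤ δ * h := mul_le_mul_of_nonneg_left hpsi hδ.le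
    linarith

end Crest.Agent.R116.Xs708
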