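import Mathlib
import Crest.Agent.R116.XcDef_794
import Crest.Agent.R116.Xs1_708
import Crest.Agent.R136.Dia1_770

/-!
# R116 (K side), block X1-C with the concave reward: the extremal gap `β(q)` (helper708)

Over `XcDef_794`.

* `ok_change`, `ub_change` : `Ψ' ≤ Ψ + c h` ⟹ (`UB 𝒯 Ψ' b → UB 𝒯 Ψ (b + c)`).
* `ub_mono`, `ub_inf`, `ub_q` (no downward jumps), `ub_triv`, `ub_ge` (enemy).
* `exists_chs` : `TrivB`, the enemy with exponent `b0`, `Rwd` ⟹ `Chs`, with `g < β < 2 g`,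
  `κ = g / (4 Q)`, `b0 - c - 2 g < q < Q`.
-/

set_option autoImplicit false

open Finset Filter Topology

namespace Crest.Agent.R116.Yb708

open Crest.Agent.R138.Mk163 (zc zl rho alive own)
open Crest.Agent.R116.Xa794 (TS)
open Crest.Agent.R116.Xc794

section

variable {Ln ι S : Type}

theorem capP_pos (T : TS Ln ι S) (Ψ : ℝ → (ι → ℝ) → ℝ) (m' : ℕ) (a' : ι → ℕ) (i : ℕ)
    (a : ι → ℕ) : 0 < capP T Ψ m' a' i a :=
  mul_pos (T.volpos i a) (Real.rpow_pos_of_pos two_pos _)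

/-- `D0 > 0` as soon as a bound with a positive left side holds. -/
theorem D0_pos {D0 D1 nu X Y : ℝ} (h1 : 0 < D1) (h2 : 0 < nu) (hX : 0 < X) (hY : 0 < Y)
    (h : D1 * nu ^ 2 ≤ X * Y * D0) : 0 < D0 := by
  have h3 : 0 < X * Y * D0 := lt_of_lt_of_le (by positivity) h
  exact (mul_pos_iff_of_pos_left (by positivity)).1 h3

/-- the configuration `F` with the bottom bound multiplied by `2^(c M)`. -/
noncomputable def chg (c : ℝ) (F : Cfg Ln ι S) : Cfg Ln ι S :=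
  { F with D0 := F.D0 * (2 : ℝ) ^ (c * F.M) }

theorem up_change {T : TS Ln ι S} {Ψ Ψ' : ℝ → (ι → ℝ) → ℝ} {c : ℝ} {F : Cfg Ln ι S}
    {X : ℝ} (hX : 0 ≤ X) {s : ι → ℕ}
    (hc : Ψ' F.M (rel F.m s (F.m + F.M) F.a) ≤ Ψ F.M (rel F.m s (F.m + F.M) F.a) + c * F.M)
    (h1 : X ≤ F.D0 * capP T Ψ (F.m + F.M) F.a F.m s) :
    X ≤ (F.D0 * (2 : ℝ) ^ (c * F.M)) * capP T Ψ' (F.m + F.M) F.a F.m s := by
  refine le_trans h1 ?_
  have hp : 0 < capP T Ψ (F.m + F.M) F.a F.m s := capP_pos _ _ _ _ _ _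
  have hD0 : 0 ≤ F.D0 := by
    by_contra hneg
    push Not at hneg
    have : F.D0 * capP T Ψ (F.m + F.M) F.a F.m s < 0 := mul_neg_of_neg_of_pos hneg hp
    exact absurd (h1.trans_lt this) (not_lt.2 hX)
  rw [mul_assoc]
  refine mul_le_mul_of_nonneg_left ?_ hD0
  unfold capP
  have e : (((F.m + F.M : ℕ) : ℝ) - F.m) = F.M := by push_cast; ring
  rw [e]
  calc T.vol F.m s * (2 : ℝ) ^ (-(Ψ F.M (rel F.m s (F.m + F.M) F.a)))
      ≤ T.vol F.m s * (2 : ℝ) ^ (c * F.M + -(Ψ' F.M (rel F.m s (F.m + F.M) F.a))) := by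
        apply mul_le_mul_of_nonneg_left _ (T.volpos _ _).le
        apply Real.rpow_le_rpow_of_exponent_le one_le_two
        linarith
    _ = _ := by
        rw [Real.rpow_add two_pos]
        ring

theorem ok_change {T : TS Ln ι S} {Ψ Ψ' : ℝ → (ι → ℝ) → ℝ} {c : ℝ} {F : Cfg Ln ι S}
    (hc : ∀ s : ι → ℕ, (∀ j, s j ≤ F.N) → Ψ' F.M (rel F.m s (F.m + F.M) F.a) ≤
      Ψ F.M (rel F.m s (F.m + F.M) F.a) + c * F.M) (h : F.Ok T Ψ) : (chg c F).Ok T Ψ' where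
  M1 := h.M1
  ne := h.ne
  cell := h.cell
  D1p := h.D1p
  nup := h.nup
  fin := h.fin
  top := h.top
  low := h.low
  own := h.own
  up := fun J s hs => up_change (Nat.cast_nonneg _) (hc s.1 (h.fin F.m J s hs)) (h.up J s hs)

theorem ub_mono {𝒯 : Set (TS Ln ι S)} {Ψ : ℝ → (ι → ℝ) → ℝ} {b b' : ℝ} (h : UB 𝒯 Ψ b)
    (hb : b ≤ b') : UB 𝒯 Ψ b' := by
  intro η hη
  obtain ⟨δ, hδ, M0, hM⟩ := h η hη
  refine ⟨δ, hδ, M0, fun T hT F hF hFM hI hN => ?_⟩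
  have h1 := hM T hT F hF hFM hI hN
  have hD0 := D0_pos hF.D1p hF.nup (Real.rpow_pos_of_pos two_pos _) (by positivity) h1
  refine h1.trans ?_
  apply mul_le_mul_of_nonneg_right _ hD0.le
  apply mul_le_mul_of_nonneg_right _ (by positivity)
  apply Real.rpow_le_rpow_of_exponent_le one_le_two
  exact mul_le_mul_of_nonneg_right (by linarith) (Nat.cast_nonneg _)

theorem ub_inf {𝒯 : Set (TS Ln ι S)} {Ψ : ℝ → (ι → ℝ) → ℝ} {b : ℝ}
    (h : ∀ b', b < b' → UB 𝒯 Ψ b') : UB 𝒯 Ψ b := by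
  intro η hη
  obtain ⟨δ, hδ, M0, hM⟩ := h (b + η / 2) (by linarith) (η / 2) (by linarith)
  refine ⟨δ, hδ, M0, fun T hT F hF hFM hI hN => ?_⟩
  have h1 := hM T hT F hF hFM hI hN
  have e : b + η / 2 + η / 2 = b + η := by ring
  rw [e] at h1
  exact h1

/-- change of the reward -/
theorem ub_change {𝒯 : Set (TS Ln ι S)} {Ψ Ψ' : ℝ → (ι → ℝ) → ℝ} {b c : ℝ}
    (hc : ∀ h x, 0 ≤ h → Ψ' h x ≤ Ψ h x + c * h) (h : UB 𝒯 Ψ' b) : UB 𝒯 Ψ (b + c) := by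
  intro η hη
  obtain ⟨δ, hδ, M0, hM⟩ := h η hη
  refine ⟨δ, hδ, M0, fun T hT F hF hFM hI hN => ?_⟩
  have h1 := hM T hT (chg c F) (ok_change (fun s _ => hc _ _ (Nat.cast_nonneg _)) hF) hFM hI hN
  simp only [chg] at h1
  refine h1.trans (le_of_eq ?_)
  have e : (b + c + η) * (F.M : ℝ) = (b + η) * F.M + c * F.M := by ring
  rw [e, Real.rpow_add two_pos]
  ring

/-- own counts of a configuration -/
theorem nu_le {T : TS Ln ι S} {Ψ : ℝ → (ι → ℝ) → ℝ} {F : Cfg Ln ι S} (h : F.Ok T Ψ) :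
    F.nu ≤ 2 ^ F.M := by
  obtain ⟨x, hx⟩ := h.ne
  refine (h.own x hx).trans ?_
  have h1 := Crest.Agent.R136.Dia770.own_le F.I (i := F.m) (j := F.m + F.M) (by omega) x
  have h2 : F.m + F.M - F.m = F.M := by omega
  rw [h2] at h1
  exact_mod_cast h1

/-- the trivial bound -/
theorem ub_triv {𝒯 : Set (TS Ln ι S)} (hV : TrivB 𝒯) {Ψ : ℝ → (ι → ℝ) → ℝ} {s : ℝ}
    (hs : ∀ M : ℕ, s * M ≤ Ψ M (fun _ => (M : ℝ))) : UB 𝒯 Ψ (2 - s) := by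
  obtain ⟨c, hc, hM⟩ := hV
  intro η hη
  obtain ⟨M0, hM0⟩ := exists_nat_gt (Real.log c / (η * Real.log 2))
  refine ⟨1, one_pos, M0, fun T hT F hF hFM _ _ => ?_⟩
  have h1 := hM Ψ T hT F hF
  have hl2 : 0 < Real.log 2 := Real.log_pos one_lt_two
  have hcM : c ≤ (2 : ℝ) ^ (η * F.M) := by
    rw [← Real.log_le_log_iff hc (Real.rpow_pos_of_pos two_pos _), Real.log_rpow two_pos]
    have h2 : Real.log c / (η * Real.log 2) < F.M := hM0.trans_le (by exact_mod_cast hFM)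
    rw [div_lt_iff₀ (by positivity)] at h2
    nlinarith
  have hD0 : 0 < F.D0 := by
    have h3 := hF.D1p.trans_le h1
    exact (mul_pos_iff_of_pos_left (mul_pos hc (Real.rpow_pos_of_pos two_pos _))).1 h3
  have hnu : F.nu ^ 2 ≤ 4 ^ F.M := by
    have h4 : F.nu ^ 2 ≤ (2 ^ F.M) ^ 2 := pow_le_pow_left₀ hF.nup.le (nu_le hF) 2
    have h5 : ((2 : ℝ) ^ F.M) ^ 2 = 4 ^ F.M := by
      rw [← pow_mul, mul_comm, pow_mul]
      norm_num
    rwa [h5] at h4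
  calc F.D1 * F.nu ^ 2
      ≤ (c * (2 : ℝ) ^ (2 * (F.M : ℝ) - Ψ F.M (fun _ => (F.M : ℝ))) * F.D0) * 4 ^ F.M :=
        mul_le_mul h1 hnu (by positivity) (by positivity)
    _ ≤ ((2 : ℝ) ^ (η * F.M) * (2 : ℝ) ^ ((2 - s) * F.M) * F.D0) * 4 ^ F.M := by
        apply mul_le_mul_of_nonneg_right _ (by positivity)
        apply mul_le_mul_of_nonneg_right _ hD0.le
        apply mul_le_mul hcM _ (Real.rpow_pos_of_pos two_pos _).le
          (Real.rpow_pos_of_pos two_pos _).le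
        apply Real.rpow_le_rpow_of_exponent_le one_le_two
        have := hs F.M
        linarith
    _ = (2 : ℝ) ^ ((2 - s + η) * F.M) * 4 ^ F.M * F.D0 := by
        rw [add_mul (2 - s) η, Real.rpow_add two_pos]
        ring

/-- the enemy with exponent `b0` (no reward, top marks = full boxes, resolution `m + M`). -/
def EnemyAt (𝒯 : Set (TS Ln ι S)) (b0 : ℝ) : Prop :=
  ∀ δ : ℝ, 0 < δ → ∀ M0 : ℕ, ∃ T ∈ 𝒯, ∃ F : Cfg Ln ι S,
    F.Ok T (fun _ _ => 0) ∧ M0 ≤ F.M ∧ Real.log (F.I.card : ℝ) ≤ (2 : ℝ) ^ (δ * F.M) ∧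
      (F.N : ℝ) ≤ (2 : ℝ) ^ (δ * F.M) ∧ F.N ≤ F.m + F.M ∧ (∀ j, F.a j = F.m + F.M) ∧
      (2 : ℝ) ^ (b0 * F.M) * 4 ^ F.M * F.D0 < F.D1 * F.nu ^ 2

/-- lower bound of the gap from the enemy -/
theorem ub_ge {𝒯 : Set (TS Ln ι S)} {b0 c : ℝ} (hE : EnemyAt 𝒯 b0) {Ψ : ℝ → (ι → ℝ) → ℝ}
    (hΨ : ∀ l x, 0 ≤ l → (∀ j, x j ≤ l) → Ψ l x ≤ c * l) {b : ℝ}
    (h : UB 𝒯 Ψ b) : b0 - c ≤ b := by
  by_contra hcon
  push Not at hcon
  obtain ⟨δ, hδ, M0, hM⟩ := h ((b0 - c - b) / 2) (by linarith)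
  obtain ⟨T, hT, F, hF, hFM, hI, hN, hNm, ha, hgap⟩ := hE δ hδ M0
  have hok : (chg c F).Ok T Ψ := by
    refine ok_change (fun s hs => ?_) hF
    have h1 : Ψ F.M (rel F.m s (F.m + F.M) F.a) ≤ c * F.M := by
      refine hΨ _ _ (Nat.cast_nonneg _) (fun j => ?_)
      have h2 : (s j : ℝ) ≤ F.m + F.M := by exact_mod_cast (hs j).trans hNm
      have h3 : (F.a j : ℝ) = F.m + F.M := by exact_mod_cast ha j
      simp only [rel]
      push_cast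
      rw [h3]
      linarith
    linarith
  have h1 := hM T hT (chg c F) hok hFM hI hN
  simp only [chg] at h1
  have h2 : (2 : ℝ) ^ (b0 * F.M) * 4 ^ F.M * F.D0 <
      (2 : ℝ) ^ ((b + (b0 - c - b) / 2) * F.M) * 4 ^ F.M * (F.D0 * 2 ^ (c * F.M)) :=
    hgap.trans_le h1
  have hD0 : 0 < F.D0 := by
    have h3 : 0 < (2 : ℝ) ^ ((b + (b0 - c - b) / 2) * F.M) * 4 ^ F.M * (F.D0 * 2 ^ (c * F.M)) := by
      refine lt_of_lt_of_le ?_ h1
      have := hF.D1p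
      have := hF.nup
      positivity
    have h4 : (2 : ℝ) ^ ((b + (b0 - c - b) / 2) * F.M) * 4 ^ F.M * (F.D0 * 2 ^ (c * F.M)) =
        ((2 : ℝ) ^ ((b + (b0 - c - b) / 2) * F.M) * 4 ^ F.M * 2 ^ (c * F.M)) * F.D0 := by ring
    rw [h4] at h3
    exact (mul_pos_iff_of_pos_left (by positivity)).1 h3
  have h5 : (2 : ℝ) ^ ((b + (b0 - c - b) / 2) * F.M) * 4 ^ F.M * (F.D0 * 2 ^ (c * F.M)) =
      (2 : ℝ) ^ ((b + (b0 - c - b) / 2) * F.M + c * F.M) * 4 ^ F.M * F.D0 := by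
    rw [Real.rpow_add two_pos]
    ring
  rw [h5] at h2
  have h6 : (2 : ℝ) ^ ((b + (b0 - c - b) / 2) * F.M + c * F.M) ≤ (2 : ℝ) ^ (b0 * F.M) := by
    apply Real.rpow_le_rpow_of_exponent_le one_le_two
    have hMn : (0 : ℝ) ≤ F.M := Nat.cast_nonneg _
    nlinarith
  have h7 : (2 : ℝ) ^ ((b + (b0 - c - b) / 2) * F.M + c * F.M) * 4 ^ F.M * F.D0 ≤
      (2 : ℝ) ^ (b0 * F.M) * 4 ^ F.M * F.D0 :=
    mul_le_mul_of_nonneg_right (mul_le_mul_of_nonneg_right h6 (by positivity)) hD0.le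
  exact absurd (h2.trans_le h7) (lt_irrefl _)

/-! ### the one-parameter family -/

variable {P : ℝ → ℝ → (ι → ℝ) → ℝ} {ψ : ℝ → (ι → ℝ) → ℝ} {q0 : ℝ}

/-- **no downward jumps** -/
theorem ub_q {𝒯 : Set (TS Ln ι S)} (hR : Rwd P ψ q0) {q q' b : ℝ} (hq : q ≤ q')
    (h : UB 𝒯 (P q') b) : UB 𝒯 (P q) (b + (q' - q)) := by
  refine ub_change (fun k x hk => ?_) h
  have h1 := hR.le k x hk
  rw [hR.aff q' k x, hR.aff q k x]
  nlinarith

/-- the gap vanishes at `Q` -/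
theorem ub_Q {𝒯 : Set (TS Ln ι S)} (hV : TrivB 𝒯) (hR : Rwd P ψ q0) {Q : ℝ} (hQ0 : 0 ≤ Q)
    (hQ : 2 ≤ P Q 1 (fun _ => 1)) : UB 𝒯 (P Q) 0 := by
  have h := ub_triv hV (Ψ := P Q) (s := 2) (fun M => by
    have h1 := hR.hom Q M 1 (fun _ => 1) hQ0 (Nat.cast_nonneg _) zero_le_one
    simp only [mul_one] at h1
    rw [h1]
    have hMn : (0 : ℝ) ≤ M := Nat.cast_nonneg _
    nlinarith)
  simpa using h

/-- **choice of the fixed parameter `q`**: `Chs` with `κ = g / (4 Q)`. -/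
theorem exists_chs {𝒯 : Set (TS Ln ι S)} (hV : TrivB 𝒯) {b0 c g Q : ℝ} (hE : EnemyAt 𝒯 b0)
    (hR : Rwd P ψ q0) (hΦ : ∀ l x, 0 ≤ l → (∀ j, x j ≤ l) → P 0 l x ≤ c * l)
    (hQ0 : 0 < Q) (hQ8 : Q ≤ 8) (hQ : 2 ≤ P Q 1 (fun _ => 1))
    (hg : 0 < g) (hgb : 2 * g + q0 ≤ b0 - c) :
    ∃ q β δ0 : ℝ, 0 < q ∧ q < Q ∧ b0 - c - 2 * g < q ∧ g < β ∧ β < 2 * g ∧
      Chs 𝒯 P q0 (g / (4 * Q)) δ0 q β := by
  set bt : ℝ → ℝ := fun q => bet 𝒯 (P q) with hbt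
  have hbox : ∀ q, 0 ≤ q → ∀ l x, 0 ≤ l → (∀ j, x j ≤ l) → P q l x ≤ (c + q) * l := by
    intro q hq l x hl hx
    have h1 := hR.le l x hl
    have h2 := hΦ l x hl hx
    rw [hR.aff q l x]
    nlinarith
  have hne : ∀ q, q ≤ Q → {b | UB 𝒯 (P q) b}.Nonempty := fun q hq =>
    ⟨0 + (Q - q), ub_q hR hq (ub_Q hV hR hQ0.le hQ)⟩
  have hge : ∀ q, 0 ≤ q → ∀ b, UB 𝒯 (P q) b → b0 - (c + q) ≤ b := fun q hq b hb =>
    ub_ge hE (hbox q hq) hb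
  have hbd : ∀ q, 0 ≤ q → BddBelow {b | UB 𝒯 (P q) b} := fun q hq =>
    ⟨b0 - (c + q), fun b hb => hge q hq b hb⟩
  have hatt : ∀ q, q ≤ Q → UB 𝒯 (P q) (bt q) := by
    intro q hq
    apply ub_inf
    intro b' hb'
    obtain ⟨b, hb, hbb⟩ := exists_lt_of_csInf_lt (hne q hq) hb'
    exact ub_mono hb hbb.le
  have hnot : ∀ q, 0 ≤ q → ∀ b, b < bt q → ¬ UB 𝒯 (P q) b := fun q hq b hb h =>
    absurd (csInf_le (hbd q hq) h) (not_le.2 hb)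
  have hjump : ∀ q q', 0 ≤ q → q ≤ q' → q' ≤ Q → bt q - (q' - q) ≤ bt q' := by
    intro q q' h0 h1 h2
    have h3 : bt q ≤ bt q' + (q' - q) := csInf_le (hbd q h0) (ub_q hR h1 (hatt q' h2))
    linarith
  have hb0 : b0 - c ≤ bt 0 := by
    have h3 : b0 - (c + 0) ≤ bt 0 := le_csInf (hne 0 hQ0.le) (fun b hb => hge 0 le_rfl b hb)
    linarith
  have hbQ : bt Q ≤ g := (csInf_le (hbd Q hQ0.le) (ub_Q hV hR hQ0.le hQ)).trans hg.le
  have hq0p := hR.q0pos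
  obtain ⟨q, hq1, hq2, hq3, hq4, hq5, δ0, hδ0, hδQ, hδ⟩ :=
    Crest.Agent.R116.Xs708.exists_q_mono hQ0 hg hjump (by linarith) hbQ
  refine ⟨q, bt q, δ0, hq1, hq2, by linarith, hq4, hq5, ?_⟩
  exact
    { κpos := by positivity
      δ0pos := hδ0
      qlo := by linarith
      qhi := by linarith
      gpos := hg.trans hq4
      low := hnot q hq1.le
      ub := hatt q hq2.le
      drop := fun δ h1 h2 => ub_mono (hatt (q + δ) (by linarith)) (hδ δ h1.le h2) }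

end

end Crest.Agent.R116.Yb708
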