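import Mathlib
import Crest.Agent.R116.Yb1_708

/-!
# R116 (K side), block X1-C: the gap `β(q)` from the enemy with room (helper635)

79's correction: with a range of exponents far beyond the top marks the enemy has to carry a reward
for the test sets which are narrower than the bottom size, `Φ l x = ∑ max (x_j - l) 0`.

* `over l x`, `EnemyAt2 𝒯 b0`;
* `ub_ge2`, `exists_chs2` : 708's `exists_chs` for `EnemyAt2`.
-/

set_option autoImplicit false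

open Finset Filter Topology

namespace Crest.Agent.R116.Yb2635

open Crest.Agent.R138.Mk163 (zc zl rho alive own)
open Crest.Agent.R116.Xa794 (TS)
open Crest.Agent.R116.Xc794
open Crest.Agent.R116.Yb708

section

variable {Ln ι S : Type} [Fintype ι]

/-- the enemy with exponent `b0`, reward `∑ max (x_j - l) 0` for the test sets narrower than the
bottom size. -/
def EnemyAt2 (𝒯 : Set (TS Ln ι S)) (b0 : ℝ) : Prop :=
  ∀ δ : ℝ, 0 < δ → ∀ M0 : ℕ, ∃ T ∈ 𝒯, ∃ F : Cfg Ln ι S,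
    F.Ok T (fun l x => ∑ j, max (x j - l) 0) ∧ M0 ≤ F.M ∧
      Real.log (F.I.card : ℝ) ≤ (2 : ℝ) ^ (δ * F.M) ∧ (F.N : ℝ) ≤ (2 : ℝ) ^ (δ * F.M) ∧
      (2 : ℝ) ^ (b0 * F.M) * 4 ^ F.M * F.D0 < F.D1 * F.nu ^ 2

theorem ub_ge2 {𝒯 : Set (TS Ln ι S)} {b0 c : ℝ} (hE : EnemyAt2 𝒯 b0) {Ψ : ℝ → (ι → ℝ) → ℝ}
    (hΨ : ∀ l x, 0 ≤ l → Ψ l x ≤ c * l + ∑ j, max (x j - l) 0) {b : ℝ}
    (h : UB 𝒯 Ψ b) : b0 - c ≤ b := by
  by_contra hcon
  push Not at hcon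
  have h0 : UB 𝒯 (fun l x => ∑ j, max (x j - l) 0) (b + c) :=
    ub_change (fun k x hk => by
      have := hΨ k x hk
      linarith) h
  obtain ⟨δ, hδ, M0, hM⟩ := h0 ((b0 - c - b) / 2) (by linarith)
  obtain ⟨T, hT, F, hF, hFM, hI, hN, hgap⟩ := hE δ hδ M0
  have h1 := hM T hT F hF hFM hI hN
  have hD0 : 0 < F.D0 := D0_pos hF.D1p hF.nup (Real.rpow_pos_of_pos two_pos _)
    (by positivity) h1
  have h6 : (2 : ℝ) ^ ((b + c + (b0 - c - b) / 2) * F.M) ≤ (2 : ℝ) ^ (b0 * F.M) := by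
    apply Real.rpow_le_rpow_of_exponent_le one_le_two
    have hMn : (0 : ℝ) ≤ F.M := Nat.cast_nonneg _
    nlinarith
  have h7 : (2 : ℝ) ^ ((b + c + (b0 - c - b) / 2) * F.M) * 4 ^ F.M * F.D0 ≤
      (2 : ℝ) ^ (b0 * F.M) * 4 ^ F.M * F.D0 :=
    mul_le_mul_of_nonneg_right (mul_le_mul_of_nonneg_right h6 (by positivity)) hD0.le
  exact absurd (hgap.trans_le (h1.trans h7)) (lt_irrefl _)

variable {P : ℝ → ℝ → (ι → ℝ) → ℝ} {ψ : ℝ → (ι → ℝ) → ℝ} {q0 : ℝ}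

/-- **choice of the fixed parameter `q`**, enemy with room. -/
theorem exists_chs2 {𝒯 : Set (TS Ln ι S)} (hV : TrivB 𝒯) {b0 c g Q : ℝ} (hE : EnemyAt2 𝒯 b0)
    (hR : Rwd P ψ q0) (hΦ : ∀ l x, 0 ≤ l → P 0 l x ≤ c * l + ∑ j, max (x j - l) 0)
    (hQ0 : 0 < Q) (hQ8 : Q ≤ 8) (hQ : 2 ≤ P Q 1 (fun _ => 1))
    (hg : 0 < g) (hgb : 2 * g + q0 ≤ b0 - c) :
    ∃ q β δ0 : ℝ, 0 < q ∧ q < Q ∧ b0 - c - 2 * g < q ∧ g < β ∧ β < 2 * g ∧
      Chs 𝒯 P q0 (g / (4 * Q)) δ0 q β := by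
  set bt : ℝ → ℝ := fun q => bet 𝒯 (P q) with hbt
  have hbox : ∀ q, 0 ≤ q → ∀ l x, 0 ≤ l → P q l x ≤ (c + q) * l + ∑ j, max (x j - l) 0 := by
    intro q hq l x hl
    have h1 := hR.le l x hl
    have h2 := hΦ l x hl
    rw [hR.aff q l x]
    nlinarith
  have hne : ∀ q, q ≤ Q → {b | UB 𝒯 (P q) b}.Nonempty := fun q hq =>
    ⟨0 + (Q - q), ub_q hR hq (ub_Q hV hR hQ0.le hQ)⟩
  have hge : ∀ q, 0 ≤ q → ∀ b, UB 𝒯 (P q) b → b0 - (c + q) ≤ b := fun q hq b hb =>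
    ub_ge2 hE (hbox q hq) hb
  have hbd : ∀ q, 0 ≤ q → BddBelow {b | UB 𝒯 (P q) b} := fun q hq =>
    ⟨b0 - (c + q), fun b hb => hge q hq b hb⟩
  have hatt : ∀ q, q ≤ Q → UB 𝒯 (P q) (bt q) := by
    intro q hq
    apply ub_inf
    intro b' hb'
    obtain ⟨b, hb, hbb⟩ := exists_lt_of_csInf_lt (hne q hq) hb'
    exact ub_mono hb hbb.le
  have hnot : ∀ q, 0 ≤ q → ∀ b, b < bt q → ¬ UB 𝒯 (P q) b := fun q hq b hb h =>
    absurd (csInf_le (hbd q hq) h) (not_le.2 hb)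
  have hjump : ∀ q q', 0 ≤ q → q ≤ q' → q' ≤ Q → bt q - (q' - q) ≤ bt q' := by
    intro q q' h0 h1 h2
    have h3 : bt q ≤ bt q' + (q' - q) := csInf_le (hbd q h0) (ub_q hR h1 (hatt q' h2))
    linarith
  have hb0 : b0 - c ≤ bt 0 := by
    have h3 : b0 - (c + 0) ≤ bt 0 := le_csInf (hne 0 hQ0.le) (fun b hb => hge 0 le_rfl b hb)
    linarith
  have hbQ : bt Q ≤ g := (csInf_le (hbd Q hQ0.le) (ub_Q hV hR hQ0.le hQ)).trans hg.le
  have hq0p := hR.q0pos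
  obtain ⟨q, hq1, hq2, hq3, hq4, hq5, δ0, hδ0, hδQ, hδ⟩ :=
    Crest.Agent.R116.Xs708.exists_q_mono hQ0 hg hjump (by linarith) hbQ
  refine ⟨q, bt q, δ0, hq1, hq2, by linarith, hq4, hq5, ?_⟩
  exact
    { κpos := by positivity
      δ0pos := hδ0
      qlo := by linarith
      qhi := by linarith
      gpos := hg.trans hq4
      low := hnot q hq1.le
      ub := hatt q hq2.le
      drop := fun δ h1 h2 => ub_mono (hatt (q + δ) (by linarith)) (hδ δ h1.le h2) }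

end

end Crest.Agent.R116.Yb2635
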