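import Mathlib
import Crest.Agent.R116.Psi_635
import Crest.Agent.R116.Xu2_79
import Crest.Agent.R116.Rv1_883
import Crest.Agent.R116.Yb2_635
import Crest.Agent.R116.KIDef_439

/-!
# R116 (K side), block X1-C: parameters of the concave homogeneous reward (helper635)

* linearisation: 883's `Rv883.linAt_Psi`, `dlen`, `dwid`.
* `Psi_slope` : two-sided slopes in one width; `Psi_lip` : Lipschitz in `(l, x)`.
* `capL_narrow`, `capL_thick` : capacities of `TSL r` under a narrower aperture / thicker slab.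
* `Par` : the numerical relations between the parameters; `exists_par`.
* `chsL2` : `TrivB`, `EnemyAt2` ⊢ parameters with `Rwd` and `Chs`.
-/

set_option autoImplicit false

open Finset

namespace Crest.Agent.R116.Psi2635

open Crest.Agent.R116.Psi635
open Crest.Agent.R116.Xu79 (brk brk_le brk_le_x bounds brk_slope)
open Crest.Agent.R116.Xc794 (Rwd Chs TrivB capP rel)
open Crest.Agent.R116.Xa794 (TS)
open Crest.Agent.R116.Yb2635 (EnemyAt2 exists_chs2)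
open Crest.Agent.R116.Rv883 (dlen dwid dlen_nonneg dlen_le dwid_ge dwid_le)

section

variable {ι : Type} [Fintype ι]

open Classical in
/-- **slopes in one width** -/
theorem Psi_slope {p w : ι → ℝ} {μ q : ℝ} (hw : ∀ j, 0 ≤ w j) (hμ : 0 ≤ μ) (hq : 0 ≤ q) (l : ℝ)
    (x x' : ι → ℝ) (j : ι) (hj : x j ≤ x' j) (hne : ∀ i, i ≠ j → x' i = x i) :
    (p j - q * w j * μ) * (x' j - x j) ≤ Psi p w μ q l x' - Psi p w μ q l x ∧
      Psi p w μ q l x' - Psi p w μ q l x ≤ (p j + q * w j) * (x' j - x j) := by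
  obtain ⟨h1, h2⟩ := brk_slope (mu := μ) (l := l) hμ hj
  have e1 : (∑ i, p i * x' i) - ∑ i, p i * x i = p j * (x' j - x j) := by
    rw [← Finset.sum_sub_distrib]
    rw [Finset.sum_eq_single j]
    · ring
    · intro i _ hi; rw [hne i hi]; ring
    · intro h; exact absurd (Finset.mem_univ j) h
  have e2 : psi w μ l x' - psi w μ l x = w j * (brk μ l (x' j) - brk μ l (x j)) := by
    unfold psi
    rw [← Finset.sum_sub_distrib]
    rw [Finset.sum_eq_single j]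
    · ring
    · intro i _ hi; rw [hne i hi]; ring
    · intro h; exact absurd (Finset.mem_univ j) h
  have e3 : Psi p w μ q l x' - Psi p w μ q l x =
      p j * (x' j - x j) + q * (w j * (brk μ l (x' j) - brk μ l (x j))) := by
    unfold Psi
    rw [← e1, ← e2]; ring
  rw [e3]
  have h3 := mul_le_mul_of_nonneg_left h1 (mul_nonneg hq (hw j))
  have h4 := mul_le_mul_of_nonneg_left h2 (mul_nonneg hq (hw j))
  constructor
  · nlinarith
  · nlinarith

theorem nr_lip_l (l l' x : ℝ) : |nr l' x - nr l x| ≤ |l' - l| := by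
  have h1 := nr_add l x (l' - l) 0
  have h2 := nr_add l' x (l - l') 0
  have h3 := nr_le (l' - l) 0
  have h4 := nr_le (l - l') 0
  rw [abs_zero, add_zero] at h3 h4
  rw [show l + (l' - l) = l' by ring, add_zero] at h1
  rw [show l' + (l - l') = l by ring, add_zero] at h2
  rw [abs_sub_comm l l'] at h4
  rw [abs_le]
  constructor <;> linarith

theorem brk_lip {μ : ℝ} (hμ : 0 ≤ μ) (hμ1 : μ ≤ 1) (l l' x x' : ℝ) :
    |brk μ l' x' - brk μ l x| ≤ 2 * |l' - l| + 2 * |x' - x| := by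
  have h1 := nr_lip_l l l' x'
  have h2 := Crest.Agent.R116.Xu79.nr_lip l x x'
  have e : brk μ l' x' - brk μ l x = (1 - μ) / 2 * (x' - x) -
      (1 + μ) / 2 * ((nr l' x' - nr l x') + (nr l x' - nr l x) - (l' - l)) := by
    rw [brk_eq, brk_eq]; ring
  rw [e]
  have h3 : |(1 - μ) / 2 * (x' - x)| ≤ 1 / 2 * |x' - x| := by
    rw [abs_mul, abs_of_nonneg (by linarith : (0 : ℝ) ≤ (1 - μ) / 2)]
    exact mul_le_mul_of_nonneg_right (by linarith) (abs_nonneg _)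
  have h4 : |(nr l' x' - nr l x') + (nr l x' - nr l x) - (l' - l)| ≤
      |l' - l| + |x' - x| + |l' - l| := by
    refine (abs_sub _ _).trans ?_
    have := abs_add_le (nr l' x' - nr l x') (nr l x' - nr l x)
    have h2' : |nr l x' - nr l x| ≤ |x' - x| := h2
    linarith
  have h5 : |(1 + μ) / 2 * ((nr l' x' - nr l x') + (nr l x' - nr l x) - (l' - l))| ≤
      1 * (|l' - l| + |x' - x| + |l' - l|) := by
    rw [abs_mul, abs_of_nonneg (by linarith : (0 : ℝ) ≤ (1 + μ) / 2)]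
    exact mul_le_mul (by linarith) h4 (abs_nonneg _) zero_le_one
  have h6 := abs_sub ((1 - μ) / 2 * (x' - x))
    ((1 + μ) / 2 * ((nr l' x' - nr l x') + (nr l x' - nr l x) - (l' - l)))
  have h7 := abs_nonneg (x' - x)
  linarith

/-- **Lipschitz** -/
theorem Psi_lip {p w : ι → ℝ} {μ q : ℝ} (hw : ∀ j, 0 ≤ w j) (hμ : 0 ≤ μ) (hμ1 : μ ≤ 1)
    (hq : 0 ≤ q) :
    ∃ C : ℝ, 0 ≤ C ∧ ∀ (l l' : ℝ) (x x' : ι → ℝ),
      |Psi p w μ q l' x' - Psi p w μ q l x| ≤ C * (|l' - l| + ∑ j, |x' j - x j|) := by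
  refine ⟨(∑ j, |p j|) + 2 * q * ∑ j, w j, ?_, fun l l' x x' => ?_⟩
  · have h1 : 0 ≤ ∑ j, |p j| := Finset.sum_nonneg fun j _ => abs_nonneg _
    have h2 : 0 ≤ ∑ j, w j := Finset.sum_nonneg fun j _ => hw j
    positivity
  set X : ℝ := |l' - l| + ∑ j, |x' j - x j| with hX
  have hX0 : 0 ≤ ∑ j, |x' j - x j| := Finset.sum_nonneg fun j _ => abs_nonneg _
  have hj : ∀ j, |x' j - x j| ≤ ∑ j, |x' j - x j| := fun j =>
    Finset.single_le_sum (f := fun j => |x' j - x j|) (fun i _ => abs_nonneg _) (Finset.mem_univ j)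
  have e : Psi p w μ q l' x' - Psi p w μ q l x = (∑ j, p j * (x' j - x j)) +
      q * ∑ j, w j * (brk μ l' (x' j) - brk μ l (x j)) := by
    unfold Psi psi
    have e1 : ∑ j, p j * (x' j - x j) = (∑ j, p j * x' j) - ∑ j, p j * x j := by
      rw [← Finset.sum_sub_distrib]
      exact Finset.sum_congr rfl fun j _ => by ring
    have e2 : ∑ j, w j * (brk μ l' (x' j) - brk μ l (x j)) =
        (∑ j, w j * brk μ l' (x' j)) - ∑ j, w j * brk μ l (x j) := by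
      rw [← Finset.sum_sub_distrib]
      exact Finset.sum_congr rfl fun j _ => by ring
    rw [e1, e2]; ring
  rw [e]
  refine (abs_add_le _ _).trans ?_
  have h1 : |∑ j, p j * (x' j - x j)| ≤ (∑ j, |p j|) * X := by
    refine (Finset.abs_sum_le_sum_abs _ _).trans ?_
    rw [Finset.sum_mul]
    refine Finset.sum_le_sum fun j _ => ?_
    rw [abs_mul]
    refine mul_le_mul_of_nonneg_left ?_ (abs_nonneg _)
    have := hj j
    have := abs_nonneg (l' - l)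
    linarith
  have h2 : |q * ∑ j, w j * (brk μ l' (x' j) - brk μ l (x j))| ≤ q * ((∑ j, w j) * (2 * X)) := by
    rw [abs_mul, abs_of_nonneg hq]
    refine mul_le_mul_of_nonneg_left ?_ hq
    refine (Finset.abs_sum_le_sum_abs _ _).trans ?_
    rw [Finset.sum_mul]
    refine Finset.sum_le_sum fun j _ => ?_
    rw [abs_mul, abs_of_nonneg (hw j)]
    refine mul_le_mul_of_nonneg_left ?_ (hw j)
    refine (brk_lip hμ hμ1 _ _ _ _).trans ?_
    have := hj j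
    linarith
  nlinarith

end

/-! ### capacities of `TSL` -/

open Crest.Agent.R116.KI439 (TSL volL)

/-- narrower aperture (the first width exponent increases by `k`). -/
theorem capL_narrow {p w : Fin 2 → ℝ} {μ q : ℝ} (hw : ∀ j, 0 ≤ w j) (hμ : 0 ≤ μ) (hq : 0 ≤ q)
    (r : ℝ) (m' : ℕ) (a' : Fin 2 → ℕ) (i : ℕ) (a : Fin 2 → ℕ) (k : ℕ) :
    capP (TSL r) (Psi p w μ q) m' a' i ![a 0 + k, a 1] ≤
      (2 : ℝ) ^ (-((3 + (p 0 - q * w 0 * μ)) * k)) *
        capP (TSL r) (Psi p w μ q) m' a' i a := by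
  have h := (Psi_slope (p := p) hw hμ hq ((m' : ℝ) - i) (rel i a m' a')
    (rel i ![a 0 + k, a 1] m' a') 0 (by simp [rel]) (by
      intro j hj
      fin_cases j
      · exact absurd rfl hj
      · simp [rel])).1
  have hx : rel i ![a 0 + k, a 1] m' a' 0 - rel i a m' a' 0 = k := by
    simp [rel]
  rw [hx] at h
  have hv : volL i ![a 0 + k, a 1] = (2 : ℝ) ^ (-(3 * (k : ℝ))) * volL i a := by
    unfold volL
    simp only [Matrix.cons_val_zero, Matrix.cons_val_one]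
    have e1 : (2 : ℝ) ^ (-(3 * (k : ℝ))) = (1 / 2 : ℝ) ^ (3 * k) := by
      rw [Real.rpow_neg two_pos.le, one_div, inv_pow]
      congr 1
      rw [← Real.rpow_natCast]
      push_cast; rfl
    rw [e1, show 3 * (a 0 + k) + a 1 = 3 * k + (3 * a 0 + a 1) by ring, pow_add]
    ring
  unfold capP
  show volL i ![a 0 + k, a 1] * _ ≤ _ * (volL i a * _)
  rw [hv]
  have hvp := Crest.Agent.R116.KI439.volL_pos i a
  have e2 : (2 : ℝ) ^ (-((3 + (p 0 - q * w 0 * μ)) * k)) =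
      (2 : ℝ) ^ (-(3 * (k : ℝ))) * (2 : ℝ) ^ (-((p 0 - q * w 0 * μ) * k)) := by
    rw [← Real.rpow_add two_pos]; congr 1; ring
  rw [e2]
  have h5 : (2 : ℝ) ^ (-(Psi p w μ q ((m' : ℝ) - i) (rel i ![a 0 + k, a 1] m' a'))) ≤
      (2 : ℝ) ^ (-((p 0 - q * w 0 * μ) * k)) *
        (2 : ℝ) ^ (-(Psi p w μ q ((m' : ℝ) - i) (rel i a m' a'))) := by
    rw [← Real.rpow_add two_pos]
    exact Real.rpow_le_rpow_of_exponent_le one_le_two (by linarith)
  have hp : 0 < (2 : ℝ) ^ (-(3 * (k : ℝ))) := Real.rpow_pos_of_pos two_pos _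
  calc (2 : ℝ) ^ (-(3 * (k : ℝ))) * volL i a *
        (2 : ℝ) ^ (-(Psi p w μ q ((m' : ℝ) - i) (rel i ![a 0 + k, a 1] m' a')))
      ≤ (2 : ℝ) ^ (-(3 * (k : ℝ))) * volL i a * ((2 : ℝ) ^ (-((p 0 - q * w 0 * μ) * k)) *
        (2 : ℝ) ^ (-(Psi p w μ q ((m' : ℝ) - i) (rel i a m' a')))) :=
        mul_le_mul_of_nonneg_left h5 (by positivity)
    _ = _ := by ring

/-- thicker slab (the second width exponent decreases by `k`). -/
theorem capL_thick {p w : Fin 2 → ℝ} {μ q : ℝ} (hw : ∀ j, 0 ≤ w j) (hμ : 0 ≤ μ) (hq : 0 ≤ q)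
    (r : ℝ) (m' : ℕ) (a' : Fin 2 → ℕ) (i : ℕ) (a : Fin 2 → ℕ) (k : ℕ) :
    capP (TSL r) (Psi p w μ q) m' a' i a ≤
      (2 : ℝ) ^ ((1 + (p 1 + q * w 1)) * k) *
        capP (TSL r) (Psi p w μ q) m' a' i ![a 0, a 1 + k] := by
  have h := (Psi_slope (p := p) hw hμ hq ((m' : ℝ) - i) (rel i a m' a')
    (rel i ![a 0, a 1 + k] m' a') 1 (by simp [rel]) (by
      intro j hj
      fin_cases j
      · simp [rel]
      · exact absurd rfl hj)).2
  have hx : rel i ![a 0, a 1 + k] m' a' 1 - rel i a m' a' 1 = k := by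
    simp [rel]
  rw [hx] at h
  have hv : volL i a = (2 : ℝ) ^ (k : ℝ) * volL i ![a 0, a 1 + k] := by
    unfold volL
    simp only [Matrix.cons_val_zero, Matrix.cons_val_one]
    have e1 : (1 / 2 : ℝ) ^ (3 * a 0 + (a 1 + k)) = (1 / 2 : ℝ) ^ (3 * a 0 + a 1) * (1 / 2) ^ k := by
      rw [← pow_add]; congr 1; ring
    rw [e1, Real.rpow_natCast]
    have e2 : (2 : ℝ) ^ k * (1 / 2) ^ k = 1 := by rw [← mul_pow]; norm_num
    calc (1 / 2 : ℝ) ^ (3 * a 0 + a 1) * 2 ^ i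
        = ((2 : ℝ) ^ k * (1 / 2) ^ k) * ((1 / 2 : ℝ) ^ (3 * a 0 + a 1) * 2 ^ i) := by
          rw [e2, one_mul]
      _ = _ := by ring
  unfold capP
  show volL i a * _ ≤ _ * (volL i ![a 0, a 1 + k] * _)
  rw [hv]
  have hvp := Crest.Agent.R116.KI439.volL_pos i ![a 0, a 1 + k]
  have e2 : (2 : ℝ) ^ ((1 + (p 1 + q * w 1)) * (k : ℝ)) =
      (2 : ℝ) ^ (k : ℝ) * (2 : ℝ) ^ ((p 1 + q * w 1) * k) := by
    rw [← Real.rpow_add two_pos]; congr 1; ring
  rw [e2]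
  have h5 : (2 : ℝ) ^ (-(Psi p w μ q ((m' : ℝ) - i) (rel i a m' a'))) ≤
      (2 : ℝ) ^ ((p 1 + q * w 1) * k) *
        (2 : ℝ) ^ (-(Psi p w μ q ((m' : ℝ) - i) (rel i ![a 0, a 1 + k] m' a'))) := by
    rw [← Real.rpow_add two_pos]
    exact Real.rpow_le_rpow_of_exponent_le one_le_two (by linarith)
  have hp : 0 < (2 : ℝ) ^ (k : ℝ) := Real.rpow_pos_of_pos two_pos _
  calc (2 : ℝ) ^ (k : ℝ) * volL i ![a 0, a 1 + k] *
        (2 : ℝ) ^ (-(Psi p w μ q ((m' : ℝ) - i) (rel i a m' a')))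
      ≤ (2 : ℝ) ^ (k : ℝ) * volL i ![a 0, a 1 + k] * ((2 : ℝ) ^ ((p 1 + q * w 1) * k) *
        (2 : ℝ) ^ (-(Psi p w μ q ((m' : ℝ) - i) (rel i ![a 0, a 1 + k] m' a')))) :=
        mul_le_mul_of_nonneg_left h5 (by positivity)
    _ = _ := by ring

/-! ### parameters -/

/-- numerical relations: `p 0, p 1` base rewards, `w 0 = 1`, `w 1` small, `κ` drop rate, `η` smallness. -/
structure Par (η b0 : ℝ) (p w : Fin 2 → ℝ) (μ q0 g0 κ : ℝ) : Prop where
  cp0 : 0 < p 0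
  cp1 : 0 < p 1
  cp0' : p 0 ≤ 1
  cp1' : p 1 ≤ 1
  cw0 : w 0 = 1
  cw1 : 0 < w 1
  cwk : w 1 ≤ κ
  cwp : 8 * w 1 ≤ p 1
  cm0 : 0 < μ
  cm1 : μ ≤ 1 / 20
  cmp : 16 * μ ≤ p 0
  cq0 : 0 < q0
  cg0 : 0 < g0
  ck : κ = g0 / 32
  ck1 : κ ≤ 1
  ctot : 2 * g0 + q0 ≤ b0 - (p 0 + p 1)
  ceg : 2 * p 1 ≤ η * g0
  cep : 2 * p 1 ≤ η * (p 0 / 2)

theorem exists_par {η b0 : ℝ} (hb : 0 < b0) (hη : 0 < η) :
    ∃ (p w : Fin 2 → ℝ) (μ q0 g0 κ : ℝ), Par η b0 p w μ q0 g0 κ := by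
  set b : ℝ := min b0 1 with hbdef
  have hb1 : 0 < b := lt_min hb one_pos
  have hbb : b ≤ b0 := min_le_left _ _
  have hb1' : b ≤ 1 := min_le_right _ _
  set e : ℝ := min η 1 with he
  have he0 : 0 < e := lt_min hη one_pos
  have he1 : e ≤ 1 := min_le_right _ _
  have heη : e ≤ η := min_le_left _ _
  have heb : e * b ≤ 1 * b := mul_le_mul_of_nonneg_right he1 hb1.le
  have hηb : e * b ≤ η * b := mul_le_mul_of_nonneg_right heη hb1.le
  have hebp : 0 < e * b := mul_pos he0 hb1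
  refine ⟨![b / 8, e * b / 32], ![1, e * b / 256], min (1 / 20) (b / 128), b / 4, b / 8, b / 256,
    ?_⟩
  refine
    { cp0 := ?_, cp1 := ?_, cp0' := ?_, cp1' := ?_, cw0 := rfl, cw1 := ?_, cwk := ?_, cwp := ?_, cm0 := ?_
      cm1 := min_le_left _ _, cmp := ?_, cq0 := by positivity, cg0 := by positivity
      ck := by ring, ck1 := by linarith, ctot := ?_, ceg := ?_, cep := ?_ }
  · show 0 < b / 8; positivity
  · show 0 < e * b / 32; positivity
  · show b / 8 ≤ 1; linarith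
  · show e * b / 32 ≤ 1; linarith
  · show 0 < e * b / 256; positivity
  · show e * b / 256 ≤ b / 256; linarith
  · show 8 * (e * b / 256) ≤ e * b / 32; linarith
  · exact lt_min (by norm_num) (by positivity)
  · show 16 * min (1 / 20) (b / 128) ≤ b / 8
    have := min_le_right (1 / 20 : ℝ) (b / 128)
    linarith
  · show 2 * (b / 8) + b / 4 ≤ b0 - (b / 8 + e * b / 32)
    linarith
  · show 2 * (e * b / 32) ≤ η * (b / 8)
    nlinarith
  · show 2 * (e * b / 32) ≤ η * (b / 8 / 2)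
    nlinarith

theorem brk_one_one {μ : ℝ} (hμ : 0 ≤ μ) (hμ1 : μ ≤ 1 / 20) : 1 / 4 ≤ brk μ 1 1 := by
  unfold brk
  have h1 : √((1 : ℝ) ^ 2 + 1 ^ 2) ≤ 1.4143 := by
    rw [show (1 : ℝ) ^ 2 + 1 ^ 2 = 2 by norm_num]
    exact Real.sqrt_le_iff.2 ⟨by norm_num, by norm_num⟩
  nlinarith

/-- **consequences of `Par` for `q ≤ 8`.** -/
theorem Par.dwid {η b0 : ℝ} {p w : Fin 2 → ℝ} {μ q0 g0 κ : ℝ} (h : Par η b0 p w μ q0 g0 κ)
    {q : ℝ} (hq : 0 ≤ q) (hq8 : q ≤ 8) (θ : Fin 2 → ℝ) :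
    0 ≤ dlen w μ q θ ∧ p 0 / 2 ≤ Rv883.dwid p w μ q θ 0 ∧ p 1 / 2 ≤ Rv883.dwid p w μ q θ 1 ∧
      Rv883.dwid p w μ q θ 1 ≤ 2 * p 1 := by
  have hw : ∀ j, 0 ≤ w j := by
    intro j
    fin_cases j
    · show 0 ≤ w 0; rw [h.cw0]; norm_num
    · exact h.cw1.le
  have h1 := dwid_ge (p := p) (j := 0) (hw 0) h.cm0.le hq θ
  have h2 := dwid_ge (p := p) (j := 1) (hw 1) h.cm0.le hq θ
  have h3 := dwid_le (p := p) (j := 1) (hw 1) h.cm0.le hq θ
  rw [h.cw0, mul_one] at h1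
  have hμ := h.cm0
  have hμ1 := h.cm1
  have hμp := h.cmp
  have hw1 := h.cw1
  have hw1p := h.cwp
  have a1 : q * μ ≤ 8 * μ := mul_le_mul_of_nonneg_right hq8 hμ.le
  have a2 : q * w 1 ≤ 8 * w 1 := mul_le_mul_of_nonneg_right hq8 hw1.le
  have a3 : q * w 1 * μ ≤ p 1 * (1 / 2) := by
    refine mul_le_mul (a2.trans hw1p) (by linarith) hμ.le h.cp1.le
  exact ⟨dlen_nonneg hw hμ.le hq θ, by linarith, by linarith, by linarith⟩

/-- **bounds of the slopes of the widths**. -/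
theorem Par.theta {η b0 : ℝ} {p w : Fin 2 → ℝ} {μ q0 g0 κ : ℝ} (h : Par η b0 p w μ q0 g0 κ)
    {θ : Fin 2 → ℝ} (hθ : κ ≤ psi w μ 1 θ) :
    κ ≤ θ 0 ∧ θ 0 ≤ 2 / μ ∧ |θ 1| ≤ 2 / (w 1 * μ) := by
  have hκp : 0 < κ := by rw [h.ck]; have := h.cg0; positivity
  have h1 : κ * 1 ≤ brk μ 1 (θ 0) + w 1 * brk μ 1 (θ 1) := by
    unfold psi at hθ
    rw [Fin.sum_univ_two, h.cw0, one_mul] at hθ
    linarith
  have hμ1 : μ ≤ 1 := by have := h.cm1; linarith
  obtain ⟨b1, b2, b3, b4⟩ := bounds h.cm0 hμ1 zero_le_one h.cw1 (h.cwk.trans h.ck1) hκp h.cwk h1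
  refine ⟨by linarith, by simpa using b2, ?_⟩
  have hμ := h.cm0
  have hw1 := h.cw1
  have h5 : 2 * 1 / w 1 ≤ 2 / (w 1 * μ) := by
    rw [div_le_div_iff₀ hw1 (mul_pos hw1 hμ)]
    nlinarith
  rw [abs_le]
  constructor
  · linarith
  · simpa using b4

/-- **the parameters of the extremal problem.** -/
theorem chsL2 {Ln S : Type} {𝒯 : Set (TS Ln (Fin 2) S)} (hV : TrivB 𝒯) {η b0 : ℝ}
    (hE : EnemyAt2 𝒯 b0) {p w : Fin 2 → ℝ} {μ q0 g0 κ : ℝ} (h : Par η b0 p w μ q0 g0 κ) :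
    ∃ q β δ0 : ℝ, 0 < q ∧ q < 8 ∧ g0 < β ∧ β < 2 * g0 ∧
      Rwd (fun q l x => Psi p w μ q l x) (psi w μ) q0 ∧
      Chs 𝒯 (fun q l x => Psi p w μ q l x) q0 κ δ0 q β := by
  have hw : ∀ j, 0 < w j := by
    intro j
    fin_cases j
    · show 0 < w 0; rw [h.cw0]; norm_num
    · exact h.cw1
  have hw2 : ∑ j, w j ≤ 2 := by
    rw [Fin.sum_univ_two, h.cw0]
    have := h.cwk.trans h.ck1
    linarith
  have hμ1 : μ ≤ 1 := by have := h.cm1; linarith
  have hR := rwd (p := p) hw hw2 h.cm0 hμ1 h.cq0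
  have hΦ : ∀ (l : ℝ) (x : Fin 2 → ℝ), 0 ≤ l →
      (fun q l x => Psi p w μ q l x) 0 l x ≤ (p 0 + p 1) * l + ∑ j, max (x j - l) 0 := by
    intro l x _
    show Psi p w μ 0 l x ≤ _
    unfold Psi
    rw [Fin.sum_univ_two, Fin.sum_univ_two, zero_mul, add_zero]
    have key : ∀ a : ℝ, 0 < a → a ≤ 1 → ∀ y : ℝ, a * y ≤ a * l + max (y - l) 0 := by
      intro a ha ha1 y
      have h1 : a * (y - l) ≤ max (y - l) 0 := by
        rcases le_total 0 (y - l) with h | h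
        · exact (mul_le_of_le_one_left h ha1).trans (le_max_left _ _)
        · exact (mul_nonpos_of_nonneg_of_nonpos ha.le h).trans (le_max_right _ _)
      linarith
    have h1 := key (p 0) h.cp0 h.cp0' (x 0)
    have h2 := key (p 1) h.cp1 h.cp1' (x 1)
    linarith
  have hQ : 2 ≤ (fun q l x => Psi p w μ q l x) 8 1 (fun _ => 1) := by
    show 2 ≤ Psi p w μ 8 1 fun _ => 1
    unfold Psi psi
    rw [Fin.sum_univ_two, Fin.sum_univ_two, h.cw0]
    have h1 := brk_one_one h.cm0.le h.cm1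
    have h2 := h.cp0
    have h3 := h.cp1
    have h4 := h.cw1
    have h5 : 0 ≤ w 1 * brk μ 1 1 := mul_nonneg h4.le (by linarith)
    linarith
  obtain ⟨q, β, δ0, h1, h2, h3, h4, h5, h6⟩ := exists_chs2 hV hE hR hΦ (by norm_num : (0 : ℝ) < 8)
    le_rfl hQ h.cg0 h.ctot
  refine ⟨q, β, δ0, h1, h2, h4, h5, hR, ?_⟩
  rw [h.ck]
  have e : g0 / (4 * 8) = g0 / 32 := by norm_num
  rw [e] at h6
  exact h6

end Crest.Agent.R116.Psi2635
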