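import Mathlib
import Crest.Agent.R116.XcDef_794

/-!
# R116 (K side), block X1-C: ROOM = level dependent range of the exponents (helper794)

`cut K0 R T` : the class `T` with the additional condition `s.1 j + K0 * i ≤ R` at the level `i`
(the range of the exponents grows by `K0` per level upwards).  All of `XcDef` (hence `xoutP`) is used
verbatim for the family `Cut K0 𝒯`; the room of 635's v1.2 is then automatic:
* a configuration `F.Ok (cut K0 R T) Ψ` has `F.a j + K0 * (F.m + F.M) ≤ R` (`Ok.room`), and its bottom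
  bound `up` is for all admissible test sets with `s.1 j + K0 * F.m ≤ R`;
* in the output `XOutP (Cut K0 𝒯)`: `adm` at the level `i` is `T.adm ∧ ∀ j, s.1 j + K0 * i ≤ R n`, and
  `atop n j + K0 * lev n 1 ≤ R n` (`room_top`), so every `s` with
  `s.1 j ≤ max (atop n) + K0 * (lev n 1 - i)` is in the range.
-/

set_option autoImplicit false
set_option linter.unusedSectionVars false

open Finset Filter Topology

namespace Crest.Agent.R116.Xc794

open Crest.Agent.R138.Ex926 (Base U)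
open Crest.Agent.R138.Mk163 (zc zl rho alive own)
open Crest.Agent.R136.MkA627 (Geo MkA)
open Crest.Agent.R116.Xa794 (TS)

section

variable {Ln ι S : Type} [Fintype ι]

/-- the class with a level dependent range of the exponents -/
def cut (K0 R : ℕ) (T : TS Ln ι S) : TS Ln ι S where
  mem := T.mem
  adm := fun i J s => T.adm i J s ∧ ∀ j, s.1 j + K0 * i ≤ R
  vol := T.vol
  volpos := T.volpos

/-- the family of all cut classes -/
def Cut (K0 : ℕ) (𝒯 : Set (TS Ln ι S)) : Set (TS Ln ι S) :=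
  {T' | ∃ T ∈ 𝒯, ∃ R : ℕ, T' = cut K0 R T}

theorem cut_mem {K0 R : ℕ} {𝒯 : Set (TS Ln ι S)} {T : TS Ln ι S} (h : T ∈ 𝒯) :
    cut K0 R T ∈ Cut K0 𝒯 := ⟨T, h, R, rfl⟩

theorem cut_adm {K0 R : ℕ} {T : TS Ln ι S} {i : ℕ} {J : ℤ} {s : (ι → ℕ) × S} :
    (cut K0 R T).adm i J s ↔ T.adm i J s ∧ ∀ j, s.1 j + K0 * i ≤ R := Iff.rfl

theorem capP_cut (K0 R : ℕ) (T : TS Ln ι S) (Ψ : ℝ → (ι → ℝ) → ℝ) (m' : ℕ) (a : ι → ℕ) (i : ℕ)
    (s : ι → ℕ) : capP (cut K0 R T) Ψ m' a i s = capP T Ψ m' a i s := rfl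

/-- `fin` of a cut class -/
theorem cut_fin {K0 R : ℕ} {T : TS Ln ι S} (i : ℕ) (J : ℤ) (s : (ι → ℕ) × S)
    (h : (cut K0 R T).adm i J s) (j : ι) : s.1 j ≤ R := (Nat.le_add_right _ _).trans (h.2 j)

/-- the room of a configuration -/
theorem Cfg.Ok.room {K0 R : ℕ} {T : TS Ln ι S} {Ψ : ℝ → (ι → ℝ) → ℝ} {F : Cfg Ln ι S}
    (h : F.Ok (cut K0 R T) Ψ) (j : ι) : F.a j + K0 * (F.m + F.M) ≤ R := by
  obtain ⟨x, hx⟩ := h.ne
  have hal : x.1 ∈ alive F.I (F.m + F.M) (zc (F.m + F.M) x.2) := by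
    unfold alive
    exact mem_image.2 ⟨x, mem_filter.2 ⟨hx, rfl⟩, rfl⟩
  obtain ⟨-, h2, h3⟩ := h.top _ _ hal
  rw [← h3]
  exact h2.2 j

end

end Crest.Agent.R116.Xc794
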