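import Crest.Agent.R116.Ext3_803
import Crest.Agent.R116.XcCut_794

/-!
# R116 (K side), room below the marks: light-ray test sets with level-dependent range (helper635)

Over 794's `cut K0 R T` (`s.1 j + K0 i ≤ R` at the level `i`).

* `TSK K0` : the family `cut K0 R (TSL r)`, `r ≤ 2^-R` (the resolution is implied by the range).
* `adm_of`  : range ⊢ admissible;  `adm_sub` : sub-members and coarser cells.
* `trivB_cut`, `trivB_K` : `TrivB` (803's proof).
* `room`, `res_room` : room of the marks of a marked sequence (levels `v < 1`; resolution).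
-/

set_option autoImplicit false

open Filter Topology

namespace Crest.Agent.R116.Rm635

open Crest.Agent.R116.LZg725
open Crest.Agent.R116.Xa794 (TS)
open Crest.Agent.R116.KI439 (LRay AdmL volL volL_pos TSL TSS kM0)
open Crest.Agent.R116.Xc794 (cut Cut cut_mem)
open Crest.Agent.R138.Mk163 (zc rho alive)

/-- the family: light-ray test sets, range of slope `K0` (794's `cut`), resolution below the
range. -/
def TSK (K0 : ℕ) : Set (TS LRay (Fin 2) Mem) :=
  {T | ∃ (r : ℝ) (R : ℕ), 0 < r ∧ r ≤ (1 / 2 : ℝ) ^ R ∧ T = cut K0 R (TSL r)}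

theorem TSK_mem {K0 R : ℕ} {r : ℝ} (h0 : 0 < r) (h : r ≤ (1 / 2 : ℝ) ^ R) :
    cut K0 R (TSL r) ∈ TSK K0 := ⟨r, R, h0, h, rfl⟩

theorem TSK_sub (K0 : ℕ) : TSK K0 ⊆ Cut K0 TSS := by
  rintro T ⟨r, R, h0, h1, rfl⟩
  exact cut_mem ⟨r, h0, h1.trans (pow_le_one₀ (by norm_num) (by norm_num)), rfl⟩

/-- change of the resolution. -/
theorem res' {r r' : ℝ} {i : ℕ} {J : ℤ} {a : Fin 2 → ℕ}
    {m : Mem} (h : AdmL r i J a m) (hr : r' ≤ (1 / 2 : ℝ) ^ (a 1)) : AdmL r' i J a m :=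
  { h with res := by rw [h.thin]; exact hr }

/-- **the range implies admissibility.** -/
theorem adm_of {r r' : ℝ} {K0 R : ℕ} (hr : r ≤ (1 / 2 : ℝ) ^ R) {i : ℕ} {J : ℤ}
    {a : Fin 2 → ℕ} {m : Mem} (h : AdmL r' i J a m) (hR : ∀ j, a j + K0 * i ≤ R) :
    (cut K0 R (TSL r)).adm i J (a, m) := by
  refine ⟨res' h (hr.trans ?_), hR⟩
  exact pow_le_pow_of_le_one (by norm_num) (by norm_num) ((Nat.le_add_right _ _).trans (hR 1))

/-- the exponents of an admissible member satisfy `i ≤ a 0`. -/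
theorem le_a0 {r : ℝ} {i : ℕ} {J : ℤ} {a : Fin 2 → ℕ} {m : Mem} (h : AdmL r i J a m) :
    i ≤ a 0 := by
  have h1 : (1 / 2 : ℝ) ^ (a 0) ≤ (1 / 2 : ℝ) ^ i := by
    rw [← h.wide, ← h.hR]
    have := mul_le_mul_of_nonneg_right h.sg1 h.ok.hR.le
    linarith
  by_contra hcon
  push Not at hcon
  have := pow_lt_pow_right_of_lt_one₀ (by norm_num : (0 : ℝ) < 1 / 2) (by norm_num) hcon
  linarith

/-- **sub-members and coarser cells**: every member whose exponents are at most the thin exponent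
of an admissible one, over a cell of a level `i' ≤ i`, is in the range. -/
theorem adm_sub {r : ℝ} {K0 R i i' : ℕ} {J J' : ℤ} {a a' : Fin 2 → ℕ} {m m' : Mem}
    (h : (cut K0 R (TSL r)).adm i J (a, m)) (hi : i' ≤ i) (h' : AdmL r i' J' a' m')
    (ha : ∀ j, a' j ≤ a 1) : (cut K0 R (TSL r)).adm i' J' (a', m') := by
  refine ⟨h', fun j => ?_⟩
  have h1 := h.2 1
  have h2 := ha j
  have h3 : K0 * i' ≤ K0 * i := Nat.mul_le_mul_left _ hi
  show a' j + K0 * i' ≤ R
  have h4 : a 1 + K0 * i ≤ R := h1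
  omega

open Classical in
/-- **TrivB for the cut family** (803's proof: the covering members have the absolute widths of the
top marks). -/
theorem trivB_cut (K0 : ℕ) : Xc794.TrivB (Cut K0 TSS) := by
  refine ⟨Ext803.KC, by unfold Ext803.KC; norm_num, ?_⟩
  rintro Ψ T ⟨T0, ⟨r, hr, hr1, rfl⟩, R, rfl⟩ F hF
  obtain ⟨x, hx⟩ := hF.ne
  set i := F.m + F.M with hi
  set J := zc i x.2 with hJ
  set J1 := zc F.m x.2 with hJ1
  have hal : x.1 ∈ alive F.I i J := by
    unfold alive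
    exact Finset.mem_image_of_mem _ (Finset.mem_filter.2 ⟨hx, rfl⟩)
  set S := (alive F.I i J).filter fun s => F.f s J = F.f x.1 J with hS
  have hlow := hF.low J x.1 hal
  have hne : S.Nonempty := ⟨x.1, Finset.mem_filter.2 ⟨hal, rfl⟩⟩
  obtain ⟨-, hadm, hshape⟩ := hF.top J x.1 hal
  have hmem : ∀ t ∈ S, F.L t ∈ (F.b (F.f x.1 J)).2.rays 0 := by
    intro t ht
    obtain ⟨h1, h2⟩ := Finset.mem_filter.1 ht
    have := (hF.top J t h1).1
    rw [h2] at this
    exact this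
  have hadm' : AdmL r i J F.a (F.b (F.f x.1 J)).2 := by
    rw [← hshape]
    exact hadm.1
  have hrng : ∀ j, F.a j + K0 * i ≤ R := by
    intro j
    rw [← hshape]
    exact hadm.2 j
  have hanc : Ext803.Anc i J F.m J1 := Ext803.anc_of_zc (Nat.le_add_right _ _) rfl rfl
  obtain ⟨m1, hm1, S', hS', hmS', hcard⟩ := Ext803.cover_one hadm' (Nat.le_add_right _ _) hanc S hne
    F.L hmem
  have hmi : F.m ≤ i := Nat.le_add_right _ _
  have hup := hF.up J1 (F.a, m1) ⟨hm1, fun j =>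
    (Nat.add_le_add_left (Nat.mul_le_mul_left _ hmi) _).trans (hrng j)⟩
  have hsub : S' ⊆ (alive F.I F.m J1).filter fun t =>
      (cut K0 R (TSL r)).mem F.m J1 (F.a, m1) (F.L t) := by
    intro t ht
    have h1 := (Finset.mem_filter.1 (hS' ht)).1
    refine Finset.mem_filter.2 ⟨?_, hmS' t ht⟩
    unfold alive at h1 ⊢
    obtain ⟨y, hy, hyt⟩ := Finset.mem_image.1 h1
    refine Finset.mem_image.2 ⟨y, ?_, hyt⟩
    have hy1 := (Finset.mem_filter.1 hy).1
    exact Finset.mem_filter.2 ⟨hy1, hF.cell y hy1 x hx⟩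
  have hc1 : (S'.card : ℝ) ≤ F.D0 * Xc794.capP (cut K0 R (TSL r)) Ψ i F.a F.m F.a :=
    (by exact_mod_cast Finset.card_le_card hsub : (S'.card : ℝ) ≤ _).trans hup
  have hiF : i - F.m = F.M := by omega
  rw [hiF] at hcard
  have hK : (0:ℝ) ≤ Ext803.KC * 8 ^ F.M := by unfold Ext803.KC; positivity
  have h3 : F.D1 * volL i F.a ≤ Ext803.KC * 8 ^ F.M *
      (F.D0 * Xc794.capP (cut K0 R (TSL r)) Ψ i F.a F.m F.a) :=
    hlow.trans (hcard.trans (mul_le_mul_of_nonneg_left hc1 hK))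
  have hrel : Xc794.rel F.m F.a i F.a = fun _ => (F.M : ℝ) := by
    funext j
    unfold Xc794.rel
    rw [hi]; push_cast; ring
  have hlen : ((i : ℝ) - F.m) = F.M := by rw [hi]; push_cast; ring
  have hcap : Xc794.capP (cut K0 R (TSL r)) Ψ i F.a F.m F.a =
      volL F.m F.a * (2 : ℝ) ^ (-(Ψ F.M fun _ => (F.M : ℝ))) := by
    unfold Xc794.capP
    rw [hrel, hlen]
    rfl
  have hvol : volL i F.a = volL F.m F.a * 2 ^ F.M := by
    unfold volL
    rw [hi, pow_add]; ring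
  rw [hcap, hvol] at h3
  have hv : 0 < volL F.m F.a := volL_pos _ _
  have h2M : (0:ℝ) < 2 ^ F.M := by positivity
  have e4 : (2 : ℝ) ^ (2 * (F.M : ℝ) - Ψ F.M (fun _ => (F.M : ℝ))) =
      4 ^ F.M * (2 : ℝ) ^ (-(Ψ F.M fun _ => (F.M : ℝ))) := by
    rw [sub_eq_add_neg, Real.rpow_add (by norm_num), Real.rpow_mul (by norm_num)]
    norm_num
  rw [e4]
  have e8 : (8:ℝ) ^ F.M = 4 ^ F.M * 2 ^ F.M := by rw [← mul_pow]; norm_num
  rw [e8] at h3
  have h4 : F.D1 * (volL F.m F.a * 2 ^ F.M) ≤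
      (Ext803.KC * (4 ^ F.M * (2 : ℝ) ^ (-(Ψ F.M fun _ => (F.M : ℝ)))) * F.D0) *
        (volL F.m F.a * 2 ^ F.M) := by
    refine h3.trans (le_of_eq ?_)
    ring
  exact le_of_mul_le_mul_right h4 (by positivity)

/-- `TrivB` passes to subfamilies. -/
theorem trivB_sub {Ln ι S : Type} [Fintype ι] {𝒯 𝒯' : Set (TS Ln ι S)} (h : 𝒯' ⊆ 𝒯)
    (hV : Xc794.TrivB 𝒯) : Xc794.TrivB 𝒯' := by
  obtain ⟨c, hc, h1⟩ := hV
  exact ⟨c, hc, fun Ψ T hT F hF => h1 Ψ T (h hT) F hF⟩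

/-- **TrivB of `TSK`.** -/
theorem trivB_K (K0 : ℕ) : Xc794.TrivB (TSK K0) := trivB_sub (TSK_sub K0) (trivB_cut K0)

/-! ### room of the marks -/

open Crest.Agent.R138.Ex926
open Crest.Agent.R136.MkA627 (Geo MkA)

section

variable {σ κ : Type*} {B : Base} {I : ℕ → Finset (ℕ × ℝ)} {G : Geo σ κ} {lev : ℕ → ℚ → ℕ}
    {A : ℕ → ℝ} {c Λ : ℝ → ℝ} {θ : κ → ℝ} {f : ℕ → ℚ → ℕ → ℤ → ℕ} {b : ℕ → ℚ → ℕ → σ}
    {vm : ℕ → ℚ → ℝ} {w : κ → ℕ → ℚ → ℝ}

theorem log_rho (i : ℕ) : Real.log (rho i) = -(i * Real.log 2) := by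
  unfold rho
  rw [one_div, Real.log_inv, Real.log_pow]

/-- width of the marks of level `v` relative to those of level `1`. -/
theorem log_w (h : MkA B I G lev A c Λ (fun j v => θ j * (1 - v)) f b vm w) (j : κ)
    {v : ℚ} (hv0 : 0 ≤ v) (hv1 : v ≤ 1) :
    Tendsto (fun n => (Real.log (w j n v) - Real.log (w j n 1)) / B.L n) U
      (𝓝 ((1 - θ j) * (1 - (v : ℝ)))) := by
  have ht := h.tau j v hv0 hv1
  have hl := h.lev_lim v 1 hv0 hv1 le_rfl
  have h1 := hl.sub ht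
  have e : (((1 : ℚ) : ℝ) - v) - θ j * (1 - (v : ℝ)) = (1 - θ j) * (1 - (v : ℝ)) := by
    push_cast; ring
  rw [e] at h1
  refine h1.congr' ?_
  filter_upwards [h.wpos j v hv0 hv1, h.wpos j 1 zero_le_one le_rfl] with n h5 h6
  have hrv : 0 < rho (lev n v) := by unfold rho; positivity
  have hr1 : 0 < rho (lev n 1) := by unfold rho; positivity
  rw [Real.log_div (div_pos hrv h5).ne' (div_pos hr1 h6).ne', Real.log_div hrv.ne' h5.ne',
      Real.log_div hr1.ne' h6.ne', log_rho, log_rho]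
  field_simp
  ring

/-- **room**: at the level `v` every width exponent `a` with `d^(c') w_v ≤ 2^-a`,
`c' < (K0 + 1 - θ j) (1 - v)`, is in the range, as soon as the marks of level `1` are. -/
theorem room (h : MkA B I G lev A c Λ (fun j v => θ j * (1 - v)) f b vm w) {K0 : ℕ}
    {R : ℕ → ℕ} (j : κ)
    (hR : ∀ᶠ n in (U : Filter ℕ), (1 / 2 : ℝ) ^ (R n) ≤ (1 / 2 : ℝ) ^ (K0 * lev n 1) * w j n 1)
    {v : ℚ} (hv0 : 0 ≤ v) (hv1 : v ≤ 1) {c' : ℝ} (hc : c' < (K0 + 1 - θ j) * (1 - (v : ℝ))) :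
    ∀ᶠ n in (U : Filter ℕ), ∀ a : ℕ, B.d n ^ c' * w j n v ≤ (1 / 2 : ℝ) ^ a →
      a + K0 * lev n v ≤ R n := by
  have hl := h.lev_lim v 1 hv0 hv1 le_rfl
  have hw := log_w h j hv0 hv1
  have hlim := (hl.const_mul (K0 : ℝ)).add hw
  have hlt : c' < (K0 : ℝ) * (((1 : ℚ) : ℝ) - v) + (1 - θ j) * (1 - (v : ℝ)) := by
    push_cast
    nlinarith
  filter_upwards [hlim.eventually_const_lt hlt, hR, h.lev_mono v 1 hv0 hv1 le_rfl,
    h.wpos j v hv0 hv1, h.wpos j 1 zero_le_one le_rfl] with n h1 h2 h4 h5 h6 a ha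
  have hL := B.L_pos n
  have hlog2 : 0 < Real.log 2 := Real.log_pos (by norm_num)
  have hd : Real.log (B.d n) = -B.L n := by
    have : B.L n = - Real.log (B.d n) := rfl
    rw [this]; ring
  have hdp := B.pos n
  have h7 : c' * B.L n < (K0 : ℝ) * (((lev n 1 : ℝ) - lev n v) * Real.log 2) +
      (Real.log (w j n v) - Real.log (w j n 1)) := by
    have e2 : (K0 : ℝ) * (((lev n 1 : ℝ) - lev n v) * Real.log 2 / B.L n) +
        (Real.log (w j n v) - Real.log (w j n 1)) / B.L n =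
        ((K0 : ℝ) * (((lev n 1 : ℝ) - lev n v) * Real.log 2) +
      (Real.log (w j n v) - Real.log (w j n 1))) / B.L n := by
      field_simp
    rw [e2, lt_div_iff₀ hL] at h1
    exact h1
  have h8 : -(R n * Real.log 2) ≤ -(K0 * lev n 1 * Real.log 2) + Real.log (w j n 1) := by
    have h9 := Real.log_le_log (by positivity) h2
    rw [Real.log_mul (by positivity) h6.ne', Real.log_pow, Real.log_pow, one_div, Real.log_inv] at h9
    push_cast at h9
    linarith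
  have h9 : -(c' * B.L n) + Real.log (w j n v) ≤ -(a * Real.log 2) := by
    have h10 := Real.log_le_log (mul_pos (Real.rpow_pos_of_pos hdp c') h5) ha
    rw [Real.log_mul (Real.rpow_pos_of_pos hdp _).ne' h5.ne', Real.log_rpow hdp, hd, Real.log_pow,
      one_div, Real.log_inv] at h10
    linarith
  have h11 : ((a : ℝ) + K0 * lev n v) * Real.log 2 < (R n : ℝ) * Real.log 2 := by
    nlinarith
  have h12 : ((a : ℝ) + K0 * lev n v) < R n := lt_of_mul_lt_mul_right h11 hlog2.le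
  have h13 : a + K0 * lev n v < R n := by exact_mod_cast h12
  exact h13.le

/-- **the resolution is far below all marks**: `2^-R ≤ d^κ0 w_v` for every `v ∈ [0, 1]` and every
`κ0 < K0 + (1 - θ j) (1 - v)`. -/
theorem res_room (h : MkA B I G lev A c Λ (fun j v => θ j * (1 - v)) f b vm w) {K0 : ℕ}
    {R : ℕ → ℕ} (j : κ)
    (hR : ∀ᶠ n in (U : Filter ℕ), (1 / 2 : ℝ) ^ (R n) ≤ (1 / 2 : ℝ) ^ (K0 * lev n 1) * w j n 1)
    {v : ℚ} (hv0 : 0 ≤ v) (hv1 : v ≤ 1) {c' : ℝ} (hc : c' < K0 + (1 - θ j) * (1 - (v : ℝ))) :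
    ∀ᶠ n in (U : Filter ℕ), (1 / 2 : ℝ) ^ (R n) ≤ B.d n ^ c' * w j n v := by
  have hl := h.lev_lim 0 1 le_rfl zero_le_one le_rfl
  have hw := log_w h j hv0 hv1
  have hlim := (hl.const_mul (K0 : ℝ)).add hw
  have hlt : c' < (K0 : ℝ) * (((1 : ℚ) : ℝ) - ((0 : ℚ) : ℝ)) + (1 - θ j) * (1 - (v : ℝ)) := by
    push_cast
    linarith
  filter_upwards [hlim.eventually_const_lt hlt, hR, h.wpos j v hv0 hv1,
    h.wpos j 1 zero_le_one le_rfl] with n h1 h2 h5 h6
  have hL := B.L_pos n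
  have hlog2 : 0 < Real.log 2 := Real.log_pos (by norm_num)
  have hd : Real.log (B.d n) = -B.L n := by
    have : B.L n = - Real.log (B.d n) := rfl
    rw [this]; ring
  have hdp := B.pos n
  have h7 : c' * B.L n < (K0 : ℝ) * (((lev n 1 : ℝ) - lev n 0) * Real.log 2) +
      (Real.log (w j n v) - Real.log (w j n 1)) := by
    have e2 : (K0 : ℝ) * (((lev n 1 : ℝ) - lev n 0) * Real.log 2 / B.L n) +
        (Real.log (w j n v) - Real.log (w j n 1)) / B.L n =
        ((K0 : ℝ) * (((lev n 1 : ℝ) - lev n 0) * Real.log 2) +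
      (Real.log (w j n v) - Real.log (w j n 1))) / B.L n := by
      field_simp
    rw [e2, lt_div_iff₀ hL] at h1
    exact h1
  have h8 : -(R n * Real.log 2) ≤ -(K0 * lev n 1 * Real.log 2) + Real.log (w j n 1) := by
    have h9 := Real.log_le_log (by positivity) h2
    rw [Real.log_mul (by positivity) h6.ne', Real.log_pow, Real.log_pow, one_div, Real.log_inv] at h9
    push_cast at h9
    linarith
  have h0 : 0 ≤ (K0 : ℝ) * lev n 0 * Real.log 2 := by positivity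
  rw [← Real.log_le_log_iff (by positivity) (mul_pos (Real.rpow_pos_of_pos hdp _) h5),
    Real.log_mul (Real.rpow_pos_of_pos hdp _).ne' h5.ne', Real.log_rpow hdp, hd, Real.log_pow,
    one_div, Real.log_inv]
  nlinarith

end

end Crest.Agent.R116.Rm635
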