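import Crest.Agent.R116.Td5_809
import Crest.Agent.R116.Psi2_635
import Crest.Agent.R116.XcCut_794

/-!
# R116, K side, TILT, part 6 (helper809): the plug over the `Ψ`-valued light-ray sequence

* `Slp Ψ q q' C` : slopes of the reward (`≥ q` in the aperture, `≤ q'` in the thickness), Lipschitz
  constant `C`; `slp_Psi` : helper635's `Psi`.
* `TD T r` : the class `T` consists of light-ray members of resolution `r`, closed under members over
  the same cell whose exponents are at most the thin exponent; `td_TSL`, `td_cut`.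
* `isL_geoP`, `valD_geoP`, `vm_geoP`.
* **`tiltL_geoP`** : `TiltL` of every marked sequence over `geoP T Ψ mt atop L` (any `mt`, `atop`),
  `TD (T n) (r n)`.
* **`tiltL_Psi`** : the same for `Psi p w μ q`, linear widths `θ_j (1 - v)` and linear `c`.
-/

set_option autoImplicit false
set_option linter.unusedVariables false

open Finset Filter Topology

namespace Crest.Agent.R116.Td809

open Crest.Agent.R138.Defs (E2)
open Crest.Agent.R138.Ex926 (Base U)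
open Crest.Agent.R138.Dp76
open Crest.Agent.R138.Mk163 (zc zl rho alive own Negl)
open Crest.Agent.R138.MkRef627 (mem_alive)
open Crest.Agent.R136.MkA627
open Crest.Agent.R116.LZg725
open Crest.Agent.R116.Bm903
open Crest.Agent.R116.KI439
open Crest.Agent.R116.KF439
open Crest.Agent.R116.Xa794 (TS)
open Crest.Agent.R116.Xc794 (geoP capP rel cut)

/-- slopes of a reward. -/
structure Slp (Ψ : ℝ → (Fin 2 → ℝ) → ℝ) (q q' C : ℝ) : Prop where
  C0 : 0 ≤ C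
  nar : ∀ l x x', x 0 ≤ x' 0 → x' 1 = x 1 → q * (x' 0 - x 0) ≤ Ψ l x' - Ψ l x
  thi : ∀ l x x', x 1 ≤ x' 1 → x' 0 = x 0 → Ψ l x' - Ψ l x ≤ q' * (x' 1 - x 1)
  lip : ∀ l l' x x', |Ψ l' x' - Ψ l x| ≤ C * (|l' - l| + ∑ j, |x' j - x j|)

theorem slp_Psi {p w : Fin 2 → ℝ} {μ q : ℝ} (hw : ∀ j, 0 ≤ w j) (hμ : 0 ≤ μ) (hμ1 : μ ≤ 1)
    (hq : 0 ≤ q) {a a' : ℝ} (ha : a ≤ p 0 - q * w 0 * μ) (ha' : p 1 + q * w 1 ≤ a') :
    ∃ C : ℝ, Slp (Psi635.Psi p w μ q) a a' C := by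
  obtain ⟨C, hC0, hC⟩ := Psi2635.Psi_lip (p := p) hw hμ hμ1 hq
  refine ⟨C, hC0, ?_, ?_, hC⟩
  · intro l x x' h1 h2
    have h3 := (Psi2635.Psi_slope (p := p) hw hμ hq l x x' 0 h1 (by
      intro j hj
      fin_cases j
      · exact absurd rfl hj
      · exact h2)).1
    exact (mul_le_mul_of_nonneg_right ha (sub_nonneg.2 h1)).trans h3
  · intro l x x' h1 h2
    have h3 := (Psi2635.Psi_slope (p := p) hw hμ hq l x x' 1 h1 (by
      intro j hj
      fin_cases j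
      · exact h2
      · exact absurd rfl hj)).2
    exact h3.trans (mul_le_mul_of_nonneg_right ha' (sub_nonneg.2 h1))

/-- light-ray class closed under members of smaller exponents. -/
structure TD (T : TS LRay (Fin 2) Mem) (r : ℝ) : Prop where
  mem : ∀ i J s l, T.mem i J s l ↔ l ∈ s.2.rays 0
  adm : ∀ i J s, T.adm i J s → AdmL r i J s.1 s.2
  vol : ∀ i a, T.vol i a = volL i a
  down : ∀ i J (s s' : SL), T.adm i J s → AdmL r i J s'.1 s'.2 → (∀ j, s'.1 j ≤ s.1 1) →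
    T.adm i J s'

theorem td_TSL (r : ℝ) : TD (TSL r) r where
  mem := fun _ _ _ _ => Iff.rfl
  adm := fun _ _ _ h => h
  vol := fun _ _ => rfl
  down := fun _ _ _ _ _ h _ => h

theorem td_cut (K0 R : ℕ) (r : ℝ) : TD (cut K0 R (TSL r)) r where
  mem := fun _ _ _ _ => Iff.rfl
  adm := fun _ _ _ h => h.1
  vol := fun _ _ => rfl
  down := fun i J s s' h h' hj => ⟨h', fun j => by
    have h1 := h.2 1
    have h2 := hj j
    omega⟩

section

variable {T : ℕ → TS LRay (Fin 2) Mem} {Ψ : ℝ → (Fin 2 → ℝ) → ℝ} {mt : ℕ → ℕ}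
    {atop : ℕ → Fin 2 → ℕ} {L : ℕ → ℕ → LRay} {r : ℕ → ℝ}

theorem isL_geoP (hT : ∀ n, TD (T n) (r n)) : IsL (geoP T Ψ mt atop L) L r where
  mem := fun n i J s t => (hT n).mem i J s (L n t)
  adm := fun n i J s h => (hT n).adm i J s h
  wid := fun j s => rfl

theorem val_geoP (hT : ∀ n, TD (T n) (r n)) (n i : ℕ) (J : ℤ) (s : SL) :
    (geoP T Ψ mt atop L).val n i J s =
      volL i s.1 * (2 : ℝ) ^ (-(Ψ ((mt n : ℝ) - i) (rel i s.1 (mt n) (atop n)))) := by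
  show capP (T n) Ψ (mt n) (atop n) i s.1 = _
  unfold capP
  rw [(hT n).vol]

theorem valD_geoP (hT : ∀ n, TD (T n) (r n)) {q q' C : ℝ} (hS : Slp Ψ q q' C) :
    ValD (geoP T Ψ mt atop L) r q q' where
  adm := fun n i J s s' h h' hj => (hT n).down i J s s' h h' hj
  nar := by
    intro n i J s k m1
    rw [val_geoP hT, val_geoP hT]
    have hv : volL i ![s.1 0 + k, s.1 1] = (2 : ℝ) ^ (-(3 * (k : ℝ))) * volL i s.1 := by
      unfold volL
      simp only [Matrix.cons_val_zero, Matrix.cons_val_one]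
      have e1 : (2 : ℝ) ^ (-(3 * (k : ℝ))) = (1 / 2 : ℝ) ^ (3 * k) := by
        rw [Real.rpow_neg two_pos.le, one_div, inv_pow]
        congr 1
        rw [← Real.rpow_natCast]
        push_cast; rfl
      rw [e1, show 3 * (s.1 0 + k) + s.1 1 = 3 * k + (3 * s.1 0 + s.1 1) by ring, pow_add]
      ring
    have h := hS.nar ((mt n : ℝ) - i) (rel i s.1 (mt n) (atop n))
      (rel i ![s.1 0 + k, s.1 1] (mt n) (atop n)) (by simp [rel]) (by simp [rel])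
    have hx : rel i ![s.1 0 + k, s.1 1] (mt n) (atop n) 0 - rel i s.1 (mt n) (atop n) 0 = k := by
      simp [rel]
    rw [hx] at h
    have hvp := volL_pos i s.1
    have hp : 0 < (2 : ℝ) ^ (-(3 * (k : ℝ))) := Real.rpow_pos_of_pos two_pos _
    have h5 : (2 : ℝ) ^ (-(Ψ ((mt n : ℝ) - i) (rel i ![s.1 0 + k, s.1 1] (mt n) (atop n)))) ≤
        (2 : ℝ) ^ (-(q * k)) * (2 : ℝ) ^ (-(Ψ ((mt n : ℝ) - i) (rel i s.1 (mt n) (atop n)))) := by
      rw [← Real.rpow_add two_pos]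
      exact Real.rpow_le_rpow_of_exponent_le one_le_two (by linarith)
    have e2 : (2 : ℝ) ^ (-(3 + q) * (k : ℝ)) = (2 : ℝ) ^ (-(3 * (k : ℝ))) * (2 : ℝ) ^ (-(q * k)) := by
      rw [← Real.rpow_add two_pos]; congr 1; ring
    show volL i ![s.1 0 + k, s.1 1] * _ ≤ _
    rw [hv, e2]
    calc (2 : ℝ) ^ (-(3 * (k : ℝ))) * volL i s.1 *
          (2 : ℝ) ^ (-(Ψ ((mt n : ℝ) - i) (rel i ![s.1 0 + k, s.1 1] (mt n) (atop n))))
        ≤ (2 : ℝ) ^ (-(3 * (k : ℝ))) * volL i s.1 * ((2 : ℝ) ^ (-(q * k)) *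
          (2 : ℝ) ^ (-(Ψ ((mt n : ℝ) - i) (rel i s.1 (mt n) (atop n))))) :=
          mul_le_mul_of_nonneg_left h5 (by positivity)
      _ = _ := by ring
  thi := by
    intro n i J s k a1 m1 hk
    rw [val_geoP hT, val_geoP hT]
    have hv : volL i ![s.1 0, a1] = (2 : ℝ) ^ (k : ℝ) * volL i s.1 := by
      unfold volL
      simp only [Matrix.cons_val_zero, Matrix.cons_val_one]
      rw [← hk, Real.rpow_natCast]
      have e1 : (1 / 2 : ℝ) ^ (3 * s.1 0 + (a1 + k)) =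
          (1 / 2 : ℝ) ^ (3 * s.1 0 + a1) * (1 / 2) ^ k := by
        rw [← pow_add]; congr 1; ring
      have e2 : (2 : ℝ) ^ k * (1 / 2) ^ k = 1 := by rw [← mul_pow]; norm_num
      rw [e1]
      calc (1 / 2 : ℝ) ^ (3 * s.1 0 + a1) * 2 ^ i
          = ((2 : ℝ) ^ k * (1 / 2) ^ k) * ((1 / 2 : ℝ) ^ (3 * s.1 0 + a1) * 2 ^ i) := by
            rw [e2, one_mul]
        _ = _ := by ring
    have h := hS.thi ((mt n : ℝ) - i) (rel i ![s.1 0, a1] (mt n) (atop n))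
      (rel i s.1 (mt n) (atop n)) (by
        simp only [rel, Matrix.cons_val_one, Matrix.cons_val_fin_one]
        have : (a1 : ℝ) ≤ s.1 1 := by
          rw [← hk]; push_cast; linarith [Nat.cast_nonneg (α := ℝ) k]
        linarith) (by simp [rel])
    have hx : rel i s.1 (mt n) (atop n) 1 - rel i ![s.1 0, a1] (mt n) (atop n) 1 = k := by
      simp only [rel, Matrix.cons_val_one, Matrix.cons_val_fin_one]
      rw [← hk]; push_cast; ring
    rw [hx] at h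
    have hvp := volL_pos i s.1
    have hp : 0 < (2 : ℝ) ^ (k : ℝ) := Real.rpow_pos_of_pos two_pos _
    have h5 : (2 : ℝ) ^ (-(Ψ ((mt n : ℝ) - i) (rel i ![s.1 0, a1] (mt n) (atop n)))) ≤
        (2 : ℝ) ^ (q' * k) * (2 : ℝ) ^ (-(Ψ ((mt n : ℝ) - i) (rel i s.1 (mt n) (atop n)))) := by
      rw [← Real.rpow_add two_pos]
      exact Real.rpow_le_rpow_of_exponent_le one_le_two (by linarith)
    have e2 : (2 : ℝ) ^ ((1 + q') * (k : ℝ)) = (2 : ℝ) ^ (k : ℝ) * (2 : ℝ) ^ (q' * k) := by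
      rw [← Real.rpow_add two_pos]; congr 1; ring
    show volL i ![s.1 0, a1] * _ ≤ _
    rw [hv, e2]
    calc (2 : ℝ) ^ (k : ℝ) * volL i s.1 *
          (2 : ℝ) ^ (-(Ψ ((mt n : ℝ) - i) (rel i ![s.1 0, a1] (mt n) (atop n))))
        ≤ (2 : ℝ) ^ (k : ℝ) * volL i s.1 * ((2 : ℝ) ^ (q' * k) *
          (2 : ℝ) ^ (-(Ψ ((mt n : ℝ) - i) (rel i s.1 (mt n) (atop n))))) :=
          mul_le_mul_of_nonneg_left h5 (by positivity)
      _ = _ := by ring

/-- logarithm of a ratio of dyadic numbers. -/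
theorem abs_exp_le {x y Lo : ℝ} (hLo : 1 ≤ Lo) {X Y : ℝ} (hX : X = (2 : ℝ) ^ (-x))
    (hY : Y = (2 : ℝ) ^ (-y)) (h1 : X ≤ Lo * Y) (h2 : Y ≤ Lo * X) :
    |x - y| ≤ Real.logb 2 Lo := by
  have hL0 : 0 < Lo := by linarith
  have e : (2 : ℝ) ^ Real.logb 2 Lo = Lo :=
    Real.rpow_logb two_pos (by norm_num) hL0
  rw [hX, hY] at h1 h2
  rw [← e, ← Real.rpow_add two_pos] at h1 h2
  have g1 := (Real.rpow_le_rpow_left_iff (one_lt_two)).1 h1
  have g2 := (Real.rpow_le_rpow_left_iff (one_lt_two)).1 h2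
  rw [abs_le]
  constructor <;> linarith

/-- values of two marks. -/
theorem val_two (hT : ∀ n, TD (T n) (r n)) {q q' C : ℝ} (hS : Slp Ψ q q' C) {n i i' : ℕ}
    {J J' : ℤ} {s s' : SL} (hs : AdmL (r n) i J s.1 s.2) (hs' : AdmL (r n) i' J' s'.1 s'.2)
    {Lo : ℝ} (hρ : Rat Lo s.2 s'.2) :
    (geoP T Ψ mt atop L).val n i J s ≤ Lo ^ (7 + 3 * C) * (geoP T Ψ mt atop L).val n i' J' s' := by
  have hone := hρ.one
  have hLo0 : 0 < Lo := by linarith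
  have hR := hs.ok.hR
  have hR' := hs'.ok.hR
  have hg := sg_pos hs.ok
  have hg' := sg_pos hs'.ok
  have h1 := hs.ok.hs1
  have h1' := hs'.ok.hs1
  rw [val_geoP hT, val_geoP hT]
  have hvol : volL i s.1 ≤ Lo ^ 7 * volL i' s'.1 := by
    rw [← volL_eq hs, ← volL_eq hs']
    unfold Mem.scost
    rw [T0, T0]
    have a1 := hρ.t1
    have a2 := pow_le_pow_left₀ hg.le hρ.g1 3
    have a3 := pow_le_pow_left₀ hR.le hρ.R2 3
    calc s.2.s1 * s.2.sg * s.2.sg ^ 2 * s.2.R ^ 3 = s.2.s1 * s.2.sg ^ 3 * s.2.R ^ 3 := by ring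
      _ ≤ (Lo * s'.2.s1) * (Lo * s'.2.sg) ^ 3 * (Lo * s'.2.R) ^ 3 := by
          refine mul_le_mul (mul_le_mul a1 a2 (by positivity) (by positivity)) a3 (by positivity)
            (by positivity)
      _ = _ := by ring
  -- differences of the exponents
  have half : ∀ k : ℕ, (1 / 2 : ℝ) ^ k = (2 : ℝ) ^ (-(k : ℝ)) := by
    intro k
    rw [Real.rpow_neg two_pos.le, Real.rpow_natCast, one_div, inv_pow]
  have d0 : |(i : ℝ) - i'| ≤ Real.logb 2 Lo := by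
    refine abs_exp_le hone (X := s.2.R) (Y := s'.2.R) ?_ ?_ hρ.R2 ?_
    · rw [hs.hR, half]
    · rw [hs'.hR, half]
    · exact hρ.R1.trans (le_mul_of_one_le_left hR.le hone)
  have d1 : ∀ j, |((s.1 j : ℝ) - i) - ((s'.1 j : ℝ) - i')| ≤ Real.logb 2 Lo := by
    intro j
    fin_cases j
    · refine abs_exp_le hone (X := s.2.sg) (Y := s'.2.sg) ?_ ?_ hρ.g1 hρ.g2
      · have e := hs.wide
        rw [hs.hR, half, half] at e
        have e2 : (2 : ℝ) ^ (-((s.1 0 : ℝ) - i)) = (2 : ℝ) ^ (-(s.1 0 : ℝ)) * (2 : ℝ) ^ (i : ℝ) := by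
          rw [← Real.rpow_add two_pos]; congr 1; ring
        have e3 : (2 : ℝ) ^ (-(i : ℝ)) * (2 : ℝ) ^ (i : ℝ) = 1 := by
          rw [← Real.rpow_add two_pos]; simp
        show s.2.sg = (2 : ℝ) ^ (-((s.1 0 : ℝ) - i))
        rw [e2, ← e, mul_assoc, e3, mul_one]
      · have e := hs'.wide
        rw [hs'.hR, half, half] at e
        have e2 : (2 : ℝ) ^ (-((s'.1 0 : ℝ) - i')) =
            (2 : ℝ) ^ (-(s'.1 0 : ℝ)) * (2 : ℝ) ^ (i' : ℝ) := by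
          rw [← Real.rpow_add two_pos]; congr 1; ring
        have e3 : (2 : ℝ) ^ (-(i' : ℝ)) * (2 : ℝ) ^ (i' : ℝ) = 1 := by
          rw [← Real.rpow_add two_pos]; simp
        show s'.2.sg = (2 : ℝ) ^ (-((s'.1 0 : ℝ) - i'))
        rw [e2, ← e, mul_assoc, e3, mul_one]
    · refine abs_exp_le hone (X := s.2.s1) (Y := s'.2.s1) ?_ ?_ hρ.t1 hρ.t2
      · have e := hs.thin
        rw [hs.hR, half, half] at e
        have e2 : (2 : ℝ) ^ (-((s.1 1 : ℝ) - i)) = (2 : ℝ) ^ (-(s.1 1 : ℝ)) * (2 : ℝ) ^ (i : ℝ) := by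
          rw [← Real.rpow_add two_pos]; congr 1; ring
        have e3 : (2 : ℝ) ^ (-(i : ℝ)) * (2 : ℝ) ^ (i : ℝ) = 1 := by
          rw [← Real.rpow_add two_pos]; simp
        show s.2.s1 = (2 : ℝ) ^ (-((s.1 1 : ℝ) - i))
        rw [e2, ← e, mul_assoc, e3, mul_one]
      · have e := hs'.thin
        rw [hs'.hR, half, half] at e
        have e2 : (2 : ℝ) ^ (-((s'.1 1 : ℝ) - i')) =
            (2 : ℝ) ^ (-(s'.1 1 : ℝ)) * (2 : ℝ) ^ (i' : ℝ) := by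
          rw [← Real.rpow_add two_pos]; congr 1; ring
        have e3 : (2 : ℝ) ^ (-(i' : ℝ)) * (2 : ℝ) ^ (i' : ℝ) = 1 := by
          rw [← Real.rpow_add two_pos]; simp
        show s'.2.s1 = (2 : ℝ) ^ (-((s'.1 1 : ℝ) - i'))
        rw [e2, ← e, mul_assoc, e3, mul_one]
  have hlip := hS.lip ((mt n : ℝ) - i) ((mt n : ℝ) - i') (rel i s.1 (mt n) (atop n))
    (rel i' s'.1 (mt n) (atop n))
  have hsum : |((mt n : ℝ) - i') - ((mt n : ℝ) - i)| +
      ∑ j, |rel i' s'.1 (mt n) (atop n) j - rel i s.1 (mt n) (atop n) j| ≤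
      3 * Real.logb 2 Lo := by
    rw [Fin.sum_univ_two]
    have f0 : |((mt n : ℝ) - i') - ((mt n : ℝ) - i)| = |(i : ℝ) - i'| := by
      congr 1; ring
    have f1 : ∀ j, |rel i' s'.1 (mt n) (atop n) j - rel i s.1 (mt n) (atop n) j| =
        |((s.1 j : ℝ) - i) - ((s'.1 j : ℝ) - i')| := by
      intro j
      rw [abs_sub_comm]
      unfold rel
      congr 1
      ring
    rw [f0, f1, f1]
    have := d1 0
    have := d1 1
    linarith
  have hΨ := hlip.trans (mul_le_mul_of_nonneg_left hsum hS.C0)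
  have hΨ1 := (abs_le.1 hΨ).2
  have hpow : (2 : ℝ) ^ (C * (3 * Real.logb 2 Lo)) = Lo ^ (3 * C) := by
    have e : C * (3 * Real.logb 2 Lo) = Real.logb 2 Lo * (3 * C) := by ring
    rw [e, Real.rpow_mul two_pos.le, Real.rpow_logb two_pos (by norm_num) hLo0]
  have h5 : (2 : ℝ) ^ (-(Ψ ((mt n : ℝ) - i) (rel i s.1 (mt n) (atop n)))) ≤
      Lo ^ (3 * C) * (2 : ℝ) ^ (-(Ψ ((mt n : ℝ) - i') (rel i' s'.1 (mt n) (atop n)))) := by
    rw [← hpow, ← Real.rpow_add two_pos]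
    exact Real.rpow_le_rpow_of_exponent_le one_le_two (by linarith)
  have e7 : Lo ^ (7 + 3 * C) = Lo ^ 7 * Lo ^ (3 * C) := by
    rw [Real.rpow_add hLo0]
    norm_num
  rw [e7]
  have hvp := volL_pos i' s'.1
  have hvp0 := volL_pos i s.1
  have p1 : 0 < (2 : ℝ) ^ (-(Ψ ((mt n : ℝ) - i) (rel i s.1 (mt n) (atop n)))) :=
    Real.rpow_pos_of_pos two_pos _
  calc volL i s.1 * (2 : ℝ) ^ (-(Ψ ((mt n : ℝ) - i) (rel i s.1 (mt n) (atop n))))
      ≤ (Lo ^ 7 * volL i' s'.1) *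
        (Lo ^ (3 * C) * (2 : ℝ) ^ (-(Ψ ((mt n : ℝ) - i') (rel i' s'.1 (mt n) (atop n))))) :=
        mul_le_mul hvol h5 p1.le (by positivity)
    _ = _ := by ring

variable {B : Base} {I : ℕ → Finset (ℕ × ℝ)} {lev : ℕ → ℚ → ℕ}
    {A : ℕ → ℝ} {c Λ : ℝ → ℝ} {τ : Fin 2 → ℝ → ℝ} {f : ℕ → ℚ → ℕ → ℤ → ℕ} {b : ℕ → ℚ → ℕ → SL}
    {vm : ℕ → ℚ → ℝ} {w : Fin 2 → ℕ → ℚ → ℝ}

theorem vm_geoP (h : MkA B I (geoP T Ψ mt atop L) lev A c Λ τ f b vm w)
    (hT : ∀ n, TD (T n) (r n)) {q q' C : ℝ} (hS : Slp Ψ q q' C) {Kt : ℝ} (hK1 : 1 ≤ Kt)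
    (ht : ∀ j, ∀ u v : ℚ, 0 ≤ u → u ≤ v → v ≤ 1 → |τ j u - τ j v| ≤ Kt * ((v : ℝ) - u)) :
    ∀ u v : ℚ, 0 ≤ u → u < v → v ≤ 1 → ∀ η : ℝ, 0 < η → ∀ᶠ n in (U : Filter ℕ),
      vm n u ≤ B.d n ^ (-((7 + 3 * C) * Kt * ((v : ℝ) - u)) - η) * vm n v := by
  intro u v hu huv hv η hη
  have hu1 : u ≤ 1 := huv.le.trans hv
  have hv0 : 0 ≤ v := hu.trans huv.le
  have hC := hS.C0
  have hpos : 0 < 7 + 3 * C := by linarith
  filter_upwards [ev_rat h (isL_geoP hT) hK1 ht hu huv hv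
    (div_pos hη hpos : 0 < η / (7 + 3 * C)), h.ne, h.mark u hu hu1, h.mark v hv0 hv] with
    n hrat hne mu mv
  obtain ⟨hone, hij, hrr, hrat⟩ := hrat
  obtain ⟨x, hx⟩ := hne
  obtain ⟨a1, a2, a3, a4⟩ := mu (zc (lev n u) x.2) x.1 (mem_alive.2 ⟨x, hx, rfl, rfl⟩)
  obtain ⟨b1, b2, b3, b4⟩ := mv (zc (lev n v) x.2) x.1 (mem_alive.2 ⟨x, hx, rfl, rfl⟩)
  have hρ := hrat (vm n u) (vm n v) _ _ ⟨x.2, rfl, rfl⟩ _ _ ⟨a2, a3, a4⟩ ⟨b2, b3, b4⟩
  have key := val_two (mt := mt) (atop := atop) (L := L) hT hS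
    ((isL_geoP hT).adm _ _ _ _ a2) ((isL_geoP hT).adm _ _ _ _ b2) hρ
  rw [a3, b3] at key
  have e : lo B Kt (η / (7 + 3 * C)) u v n ^ (7 + 3 * C) =
      B.d n ^ (-((7 + 3 * C) * Kt * ((v : ℝ) - u)) - η) := by
    unfold lo
    rw [← Real.rpow_mul (B.pos n).le]
    congr 1
    field_simp
  rwa [e] at key

/-- **TILT over the `Ψ`-valued light-ray sequence.** -/
theorem tiltL_geoP (h : MkA B I (geoP T Ψ mt atop L) lev A c Λ τ f b vm w)
    (hT : ∀ n, TD (T n) (r n)) {q q' C : ℝ} (hS : Slp Ψ q q' C)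
    (hq2 : q ≤ 2) (hq'0 : 0 ≤ q') (hqq : q' < q / 2) {Kt Cc : ℝ}
    (ht : ∀ j, ∀ u v : ℚ, 0 ≤ u → u ≤ v → v ≤ 1 → |τ j u - τ j v| ≤ Kt * ((v : ℝ) - u))
    (hc : ∀ u v : ℚ, 0 ≤ u → u ≤ v → v ≤ 1 → c u - c v ≤ Cc * ((v : ℝ) - u)) :
    ∃ C' : ℝ, 0 ≤ C' ∧ TiltL B I L lev f b w C' := by
  have hC := hS.C0
  have ht' : ∀ j, ∀ u v : ℚ, 0 ≤ u → u ≤ v → v ≤ 1 →
      |τ j u - τ j v| ≤ max 1 Kt * ((v : ℝ) - u) := fun j u v hu huv hv => by
    refine (ht j u v hu huv hv).trans (mul_le_mul_of_nonneg_right (le_max_right _ _) ?_)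
    have : (u : ℝ) ≤ v := by exact_mod_cast huv
    linarith
  have hc' : ∀ u v : ℚ, 0 ≤ u → u ≤ v → v ≤ 1 → c u - c v ≤ max 0 Cc * ((v : ℝ) - u) :=
    fun u v hu huv hv => by
      refine (hc u v hu huv hv).trans (mul_le_mul_of_nonneg_right (le_max_right _ _) ?_)
      have : (u : ℝ) ≤ v := by exact_mod_cast huv
      linarith
  have hK1 : 1 ≤ max 1 Kt := le_max_left _ _
  exact tiltL h (isL_geoP hT) (valD_geoP hT hS) (by linarith) hq2 hq'0 (by linarith) hqq hK1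
    (Kv := (7 + 3 * C) * max 1 Kt) (by positivity) (le_max_left _ _) ht' hc'
    (vm_geoP h hT hS hK1 ht')

/-- **TILT for helper635's reward, linear widths and linear amplitude** (the window of helper139's
`master`: `c v = (g + 2 s) v`, `τ_j v = θ_j (1 - v)`). -/
theorem tiltL_Psi {p wt : Fin 2 → ℝ} {μ q : ℝ} (hw : ∀ j, 0 ≤ wt j) (hμ : 0 ≤ μ) (hμ1 : μ ≤ 1)
    (hq : 0 ≤ q) {qn qt : ℝ} (hqn : qn ≤ p 0 - q * wt 0 * μ) (hqn2 : qn ≤ 2) (hqt0 : 0 ≤ qt)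
    (hqt : p 1 + q * wt 1 ≤ qt) (hqq : qt < qn / 2) {g : ℝ} {θ : Fin 2 → ℝ}
    (h : MkA B I (geoP T (Psi635.Psi p wt μ q) mt atop L) lev A (fun v => g * v) Λ
      (fun j v => θ j * (1 - v)) f b vm w) (hT : ∀ n, TD (T n) (r n)) :
    ∃ C' : ℝ, 0 ≤ C' ∧ TiltL B I L lev f b w C' := by
  obtain ⟨C, hS⟩ := slp_Psi hw hμ hμ1 hq hqn hqt
  refine tiltL_geoP (Kt := |θ 0| + |θ 1|) (Cc := |g|) h hT hS hqn2 hqt0 hqq ?_ ?_
  · intro j u v hu huv hv
    have huvR : (0 : ℝ) ≤ (v : ℝ) - u := by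
      have : (u : ℝ) ≤ v := by exact_mod_cast huv
      linarith
    have e : θ j * (1 - (u : ℝ)) - θ j * (1 - (v : ℝ)) = θ j * ((v : ℝ) - u) := by ring
    rw [e, abs_mul, abs_of_nonneg huvR]
    refine mul_le_mul_of_nonneg_right ?_ huvR
    fin_cases j
    · exact le_add_of_nonneg_right (abs_nonneg _)
    · exact le_add_of_nonneg_left (abs_nonneg _)
  · intro u v hu huv hv
    have huvR : (0 : ℝ) ≤ (v : ℝ) - u := by
      have : (u : ℝ) ≤ v := by exact_mod_cast huv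
      linarith
    have e : g * (u : ℝ) - g * v = (-g) * ((v : ℝ) - u) := by ring
    rw [e]
    exact mul_le_mul_of_nonneg_right (neg_le_abs g) huvR

/-- the same for the output of helper794's `XOutP` (`c v = g v + 2 Λ v`, any own profile). -/
theorem tiltL_X {p wt : Fin 2 → ℝ} {μ q : ℝ} (hw : ∀ j, 0 ≤ wt j) (hμ : 0 ≤ μ) (hμ1 : μ ≤ 1)
    (hq : 0 ≤ q) {qn qt : ℝ} (hqn : qn ≤ p 0 - q * wt 0 * μ) (hqn2 : qn ≤ 2) (hqt0 : 0 ≤ qt)
    (hqt : p 1 + q * wt 1 ≤ qt) (hqq : qt < qn / 2) {g : ℝ} {θ : Fin 2 → ℝ}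
    (h : MkA B I (geoP T (Psi635.Psi p wt μ q) mt atop L) lev A (fun v => g * v + 2 * Λ v) Λ
      (fun j v => θ j * (1 - v)) f b vm w) (hT : ∀ n, TD (T n) (r n)) :
    ∃ C' : ℝ, 0 ≤ C' ∧ TiltL B I L lev f b w C' := by
  obtain ⟨C, hS⟩ := slp_Psi hw hμ hμ1 hq hqn hqt
  refine tiltL_geoP (Kt := |θ 0| + |θ 1|) (Cc := |g|) h hT hS hqn2 hqt0 hqq ?_ ?_
  · intro j u v hu huv hv
    have huvR : (0 : ℝ) ≤ (v : ℝ) - u := by
      have : (u : ℝ) ≤ v := by exact_mod_cast huv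
      linarith
    have e : θ j * (1 - (u : ℝ)) - θ j * (1 - (v : ℝ)) = θ j * ((v : ℝ) - u) := by ring
    rw [e, abs_mul, abs_of_nonneg huvR]
    refine mul_le_mul_of_nonneg_right ?_ huvR
    fin_cases j
    · exact le_add_of_nonneg_right (abs_nonneg _)
    · exact le_add_of_nonneg_left (abs_nonneg _)
  · intro u v hu huv hv
    have huvR : (0 : ℝ) ≤ (v : ℝ) - u := by
      have : (u : ℝ) ≤ v := by exact_mod_cast huv
      linarith
    have hl := (h.lam u v (by exact_mod_cast hu) (by exact_mod_cast huv)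
      (by exact_mod_cast hv)).1
    have e : (-g) * ((v : ℝ) - u) ≤ |g| * ((v : ℝ) - u) :=
      mul_le_mul_of_nonneg_right (neg_le_abs g) huvR
    linarith

end

end Crest.Agent.R116.Td809
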