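import Crest.Agent.R116.KF1_439
import Crest.Agent.R136.TD3_627

/-!
# R116 (K side), K7 FLAG-L, part 2 (helper439): literals

* `IsL G L r` : the geometry of `MkA` is the light-ray one (lines `L n t`, members of 725's class
  over the cells, resolution `r`); `ValL G q` : size = section cost with linear rewards.
* `mkL` : the member of the mark of level `v` of an incidence; `mark_L` : its facts.
* **`TiltL`** : the tilt, the only geometric input of K7 (both signs at once).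
* `Thin` / `Thick` : the marks are infinitely thin / round at all levels.
* `prL` : precision of the slots at level `v`.
-/

set_option autoImplicit false
set_option linter.unusedVariables false

open Finset Filter Topology

namespace Crest.Agent.R116.KF439

open Crest.Agent.R138.Defs (E2)
open Crest.Agent.R138.Ex926
open Crest.Agent.R138.Dp76
open Crest.Agent.R138.Mk163 (zc zl rho alive own Negl)
open Crest.Agent.R138.MkRef627 (lc mem_alive)
open Crest.Agent.R136.MkA627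
open Crest.Agent.R116.LZg725
open Crest.Agent.R116.ChL222
open Crest.Agent.R116.Bm903
open Crest.Agent.R116.KI439

/-- type of the test sets of the light-ray instance. -/
abbrev SL : Type := (Fin 2 → ℕ) × Mem

/-- the geometry `G` is the light-ray one (any size function `G.val`). -/
structure IsL (G : Geo SL (Fin 2)) (L : ℕ → ℕ → LRay) (r : ℕ → ℝ) : Prop where
  mem : ∀ n i J s t, G.mem n i J s t ↔ L n t ∈ s.2.rays 0
  adm : ∀ n i J s, G.adm n i J s → AdmL (r n) i J s.1 s.2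
  wid : ∀ j s, G.wid j s = (1 / 2 : ℝ) ^ (s.1 j)

/-- the size function is the section cost with linear rewards `q`. -/
def ValL (G : Geo SL (Fin 2)) (q : Fin 2 → ℝ) : Prop := ∀ n i J s,
  G.val n i J s = volL i s.1 * (2 : ℝ) ^ (-(∑ j, q j * ((s.1 j : ℝ) - i)))

theorem rho_eq (i : ℕ) : rho i = (1 / 2 : ℝ) ^ i := by
  unfold rho
  rw [one_div, one_div, inv_pow]

theorem rho_pos' (i : ℕ) : 0 < rho i := by
  rw [rho_eq]; positivity

/-- the member of the mark of level `v` of the incidence `x` -/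
noncomputable def mkL (lev : ℕ → ℚ → ℕ) (f : ℕ → ℚ → ℕ → ℤ → ℕ) (b : ℕ → ℚ → ℕ → SL) (n : ℕ) (v : ℚ)
    (x : ℕ × ℝ) : Mem := (b n v (f n v x.1 (zc (lev n v) x.2))).2

/-- facts on the mark of level `v` of an incidence. -/
structure MkFact (L : ℕ → ℕ → LRay) (lev : ℕ → ℚ → ℕ) (w : Fin 2 → ℕ → ℚ → ℝ) (n : ℕ) (v : ℚ)
    (m : Mem) (x : ℕ × ℝ) : Prop where
  ok : m.Ok kM0 0
  R : m.R = rho (lev n v)
  sg1 : m.sg ≤ 1
  s0 : m.s0 = ((zc (lev n v) x.2 : ℝ) + 1 / 2) * (1 / 2 : ℝ) ^ (lev n v)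
  z : |x.2 - m.s0| ≤ m.R
  wide : m.sg * m.R = w 0 n v
  thin : m.s1 * m.R = w 1 n v
  ray : L n x.1 ∈ m.rays 0

theorem zc_mid (i : ℕ) (z : ℝ) :
    |z - (((zc i z : ℤ) : ℝ) + 1 / 2) * (1 / 2 : ℝ) ^ i| ≤ (1 / 2 : ℝ) ^ i := by
  have h1 := Int.floor_le ((2 : ℝ) ^ i * z)
  have h2 := Int.lt_floor_add_one ((2 : ℝ) ^ i * z)
  have hp : (0 : ℝ) < (1 / 2 : ℝ) ^ i := by positivity
  have e : (1 / 2 : ℝ) ^ i * (2 : ℝ) ^ i = 1 := by
    rw [← mul_pow]; norm_num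
  have e1 : z - (((zc i z : ℤ) : ℝ) + 1 / 2) * (1 / 2 : ℝ) ^ i =
      (1 / 2 : ℝ) ^ i * ((2 : ℝ) ^ i * z - (((zc i z : ℤ) : ℝ) + 1 / 2)) := by
    rw [mul_sub, ← mul_assoc, e]; ring
  rw [e1, abs_mul, abs_of_pos hp]
  refine mul_le_of_le_one_right hp.le ?_
  unfold zc
  rw [abs_le]
  constructor <;> linarith

section

variable {r : ℕ → ℝ} {L : ℕ → ℕ → LRay} {B : Base} {I : ℕ → Finset (ℕ × ℝ)}
    {G : Geo SL (Fin 2)} {lev : ℕ → ℚ → ℕ} {A : ℕ → ℝ} {c Λ : ℝ → ℝ} {τ : Fin 2 → ℝ → ℝ}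
    {f : ℕ → ℚ → ℕ → ℤ → ℕ} {b : ℕ → ℚ → ℕ → SL} {vm : ℕ → ℚ → ℝ} {w : Fin 2 → ℕ → ℚ → ℝ}

/-- the facts on the marks of a light-ray sequence. -/
theorem mark_L (h : MkA B I G lev A c Λ τ f b vm w) (hG : IsL G L r) {v : ℚ} (h0 : 0 ≤ v)
    (h1 : v ≤ 1) : ∀ᶠ n in (U : Filter ℕ), ∀ x ∈ I n,
      MkFact L lev w n v (mkL lev f b n v x) x := by
  filter_upwards [h.mark v h0 h1] with n hn x hx
  obtain ⟨a1, a2, a3, a4⟩ := hn (zc (lev n v) x.2) x.1 (mem_alive.2 ⟨x, hx, rfl, rfl⟩)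
  have b1 := (hG.mem _ _ _ _ _).1 a1
  have b2 := hG.adm _ _ _ _ a2
  have b3 : ∀ j, (1 / 2 : ℝ) ^ ((b n v (f n v x.1 (zc (lev n v) x.2))).1 j) = w j n v := fun j => by
    rw [← a4 j, hG.wid]
  exact
  { ok := b2.ok
    R := by rw [rho_eq]; exact b2.hR
    sg1 := b2.sg1
    s0 := b2.hs0
    z := by
      show |x.2 - (b n v (f n v x.1 (zc (lev n v) x.2))).2.s0| ≤
        (b n v (f n v x.1 (zc (lev n v) x.2))).2.R
      rw [b2.hs0, b2.hR]
      exact zc_mid _ _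
    wide := by rw [← b3 0]; exact b2.wide
    thin := by rw [← b3 1]; exact b2.thin
    ray := b1 }

/-- widths: thin at most wide at most the length of the cell. -/
theorem MkFact.le {L : ℕ → ℕ → LRay} {lev : ℕ → ℚ → ℕ} {w : Fin 2 → ℕ → ℚ → ℝ} {n : ℕ} {v : ℚ}
    {m : Mem} {x : ℕ × ℝ} (h : MkFact L lev w n v m x) :
    0 < w 1 n v ∧ w 1 n v ≤ w 0 n v ∧ w 0 n v ≤ rho (lev n v) := by
  have hR := h.ok.hR
  refine ⟨?_, ?_, ?_⟩
  · rw [← h.thin]; exact mul_pos h.ok.hs1 hR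
  · rw [← h.thin, ← h.wide]; exact mul_le_mul_of_nonneg_right h.ok.hsg hR.le
  · rw [← h.wide, ← h.R]
    exact mul_le_of_le_one_left hR.le h.sg1

end

section literals

variable (B : Base) (I : ℕ → Finset (ℕ × ℝ)) (L : ℕ → ℕ → LRay) (lev : ℕ → ℚ → ℕ)
    (f : ℕ → ℚ → ℕ → ℤ → ℕ) (b : ℕ → ℚ → ℕ → SL) (w : Fin 2 → ℕ → ℚ → ℝ)

/-- **the tilt** (only geometric input of K7): the functions of the marks of two levels `u < v` of
one incidence agree up to sign, on the ray of the incidence, up to the thickness of the mark of level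
`v` times `d^(-C (v-u))`. -/
def TiltL (C : ℝ) : Prop :=
  ∀ u v : ℚ, 0 ≤ u → u < v → v ≤ 1 → ∀ ε : ℝ, 0 < ε →
    Negl B I fun n x => ∀ σ : ℝ, Sg σ →
      w 1 n v * B.d n ^ (-(C * ((v : ℝ) - u)) - ε) ≤
        dsc (w 0 n v) (rho (lev n v)) (mkL lev f b n u x).phi (sm σ (mkL lev f b n v x).phi)
          (L n x.1) x.2

/-- the marks of every level are infinitely thin -/
def Thin : Prop := ∀ M : ℝ, ∀ v : ℚ, 0 ≤ v → v ≤ 1 → ∀ᶠ n in (U : Filter ℕ),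
  w 1 n v ≤ B.d n ^ M * w 0 n v

/-- the marks of every level are round -/
def Thick : Prop := ∀ ε : ℝ, 0 < ε → ∀ v : ℚ, 0 ≤ v → v ≤ 1 → ∀ᶠ n in (U : Filter ℕ),
  B.d n ^ ε * w 0 n v ≤ w 1 n v

/-- data of a window: base `B' = B^H`, affine level maps `mm n` into `[0,1]` which shrink to a point
`v0` of `(0,1)`, incidences of the window. -/
structure Win (B' : Base) (I' : ℕ → Finset (ℕ × ℝ)) (H : ℕ → ℝ) (mm : ℕ → ℚ → ℚ) : Prop where
  pos : ∀ n, 0 < H n ∧ H n ≤ 1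
  lim : Tendsto H U (𝓝 0)
  mem : ∀ n, ∀ x : ℚ, 0 ≤ x → x ≤ 1 → 0 ≤ mm n x ∧ mm n x ≤ 1
  aff : ∀ n, ∀ x y : ℚ, (mm n y : ℝ) - mm n x = H n * ((y : ℝ) - x)
  pt : ∃ v0 ∈ Set.Ioo (0 : ℝ) 1, ∀ x : ℚ, Tendsto (fun n => ((mm n x : ℚ) : ℝ)) U (𝓝 v0)
  base : ∀ n, B'.d n = B.d n ^ H n
  sub : ∀ n, I' n ⊆ I n

end literals

end Crest.Agent.R116.KF439
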