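import Crest.Agent.R116.Ext3_803
import Crest.Agent.R116.KF2_439
import Crest.Agent.R138.Ps1_926

/-!
# R116 (K side), I-c (helper439): growth of the density at most `2`, hence `s < 1`

`growth_le` : in a marked sequence over light rays with linear exponents `γ v` and linear rewards `q`
`γ + q 0 + q 1 ≤ 2` (803's `cover_one` : the lines of one mark of level `1` are covered by `8^ℓ`
members of the same absolute widths over the cell of level `0`).  `s_lt_one`.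
-/

set_option autoImplicit false
set_option linter.unusedVariables false

open Finset Filter Topology

namespace Crest.Agent.R116.KS439

open Crest.Agent.R138.Ex926
open Crest.Agent.R138.Dp76
open Crest.Agent.R138.Mk163 (zc zl rho alive own Negl)
open Crest.Agent.R138.MkRef627 (lc mem_alive)
open Crest.Agent.R138.TiltU51 (zc_nest)
open Crest.Agent.R136.MkA627
open Crest.Agent.R116.LZg725
open Crest.Agent.R116.KI439
open Crest.Agent.R116.KF439
open Crest.Agent.R116.Ext803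

variable {r : ℕ → ℝ} {L : ℕ → ℕ → LRay} {B : Base} {I : ℕ → Finset (ℕ × ℝ)}
    {G : Geo SL (Fin 2)} {lev : ℕ → ℚ → ℕ} {A : ℕ → ℝ} {γ : ℝ} {Λ : ℝ → ℝ} {τ : Fin 2 → ℝ → ℝ}
    {f : ℕ → ℚ → ℕ → ℤ → ℕ} {b : ℕ → ℚ → ℕ → SL} {vm : ℕ → ℚ → ℝ} {w : Fin 2 → ℕ → ℚ → ℝ}
    {q : Fin 2 → ℝ}

theorem KC_pos : 0 < KC := by unfold KC; norm_num

open Classical in
/-- one stage -/
theorem growth_step {n : ℕ} (hG : IsL G L r) (hv : ValL G q)
    (hadm : ∀ (J : ℤ) (a : Fin 2 → ℕ) (m : Mem), (∀ j, (1 / 2 : ℝ) ^ (a j) = w j n 1) →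
      AdmL (r n) (lev n 0) J a m → G.adm n (lev n 0) J (a, m))
    (hne : (I n).Nonempty) (hlev : lev n 0 ≤ lev n 1) {ε : ℝ} (hA : 0 < A n) (hvm : 0 < vm n 1)
    (hd : ∀ J : ℤ, ∀ s : SL, G.adm n (lev n 0) J s →
      (((alive (I n) (lev n 0) J).filter fun t => G.mem n (lev n 0) J s t).card : ℝ) ≤
        B.d n ^ (-ε) * ampA B A (fun v => γ * v) n 0 * G.val n (lev n 0) J s)
    (hm : ∀ J : ℤ, ∀ t ∈ alive (I n) (lev n 1) J,
      G.mem n (lev n 1) J (b n 1 (f n 1 t J)) t ∧ G.adm n (lev n 1) J (b n 1 (f n 1 t J)) ∧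
      G.val n (lev n 1) J (b n 1 (f n 1 t J)) = vm n 1 ∧
      ∀ j, G.wid j (b n 1 (f n 1 t J)) = w j n 1)
    (hn : ∀ J : ℤ, ∀ t ∈ alive (I n) (lev n 1) J,
      ampA B A (fun v => γ * v) n 1 * vm n 1 ≤ B.d n ^ (-ε) *
        (((alive (I n) (lev n 1) J).filter fun s => f n 1 s J = f n 1 t J).card : ℝ)) :
    B.d n ^ (-γ) ≤ KC * (B.d n ^ (-ε) * B.d n ^ (-ε)) *
      (2 : ℝ) ^ ((2 - (q 0 + q 1)) * ((lev n 1 : ℝ) - lev n 0)) := by
  classical
  obtain ⟨x, hx⟩ := hne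
  set i := lev n 1 with hi
  set i1 := lev n 0 with hi1
  set J := zc i x.2 with hJ
  set J1 := zc i1 x.2 with hJ1
  have hal : x.1 ∈ alive (I n) i J := mem_alive.2 ⟨x, hx, rfl, rfl⟩
  set F := (alive (I n) i J).filter fun s => f n 1 s J = f n 1 x.1 J with hF
  have hxF : x.1 ∈ F := by rw [hF, mem_filter]; exact ⟨hal, rfl⟩
  obtain ⟨c1, c2, c3, c4⟩ := hm J x.1 hal
  set s := b n 1 (f n 1 x.1 J) with hs
  have hAdm := hG.adm _ _ _ _ c2
  have hS : ∀ t ∈ F, L n t ∈ s.2.rays 0 := by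
    intro t ht
    rw [hF, mem_filter] at ht
    have h1 := (hm J t ht.1).1
    rw [ht.2] at h1
    exact (hG.mem _ _ _ _ _).1 h1
  have hanc : Anc i J i1 J1 := anc_of_zc hlev (z := x.2) rfl rfl
  obtain ⟨m1, hm1, S', hS', hrays, hcard⟩ := cover_one hAdm hlev hanc F ⟨_, hxF⟩ (L n) hS
  have hwid : ∀ j, (1 / 2 : ℝ) ^ (s.1 j) = w j n 1 := fun j => by rw [← c4 j, hG.wid]
  have hadm1 := hadm J1 s.1 m1 hwid hm1
  have hd1 := hd J1 _ hadm1
  have hsub : S' ⊆ (alive (I n) i1 J1).filter fun t => G.mem n i1 J1 (s.1, m1) t := by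
    intro t ht
    have h1 := hS' ht
    rw [hF, mem_filter] at h1
    obtain ⟨y, hy, hy1, hy2⟩ := mem_alive.1 h1.1
    rw [mem_filter, hG.mem]
    refine ⟨mem_alive.2 ⟨y, hy, hy1, ?_⟩, hrays t ht⟩
    exact zc_nest hlev (hy2.trans hJ)
  have hS'c : (S'.card : ℝ) ≤ B.d n ^ (-ε) * ampA B A (fun v => γ * v) n 0 *
      G.val n i1 J1 (s.1, m1) := le_trans (by exact_mod_cast card_le_card hsub) hd1
  have hn1 := hn J x.1 hal
  -- values
  have hv1 : G.val n i1 J1 (s.1, m1) = vm n 1 *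
      (2 : ℝ) ^ (-((1 + (q 0 + q 1)) * ((i : ℝ) - i1))) := by
    rw [← c3, hv, hv]
    have e1 : (2 : ℝ) ^ (i : ℕ) = (2 : ℝ) ^ (i : ℝ) := (Real.rpow_natCast 2 i).symm
    have e2 : (2 : ℝ) ^ (i1 : ℕ) = (2 : ℝ) ^ (i1 : ℝ) := (Real.rpow_natCast 2 i1).symm
    unfold volL
    rw [e1, e2, Fin.sum_univ_two, Fin.sum_univ_two]
    have e3 : ∀ x : ℝ, 0 < (2 : ℝ) ^ x := fun x => Real.rpow_pos_of_pos two_pos x
    show (1 / 2 : ℝ) ^ (3 * s.1 0 + s.1 1) * (2 : ℝ) ^ (i1 : ℝ) *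
        (2 : ℝ) ^ (-(q 0 * ((s.1 0 : ℝ) - i1) + q 1 * ((s.1 1 : ℝ) - i1))) =
      (1 / 2 : ℝ) ^ (3 * s.1 0 + s.1 1) * (2 : ℝ) ^ (i : ℝ) *
        (2 : ℝ) ^ (-(q 0 * ((s.1 0 : ℝ) - i) + q 1 * ((s.1 1 : ℝ) - i))) *
          (2 : ℝ) ^ (-((1 + (q 0 + q 1)) * ((i : ℝ) - i1)))
    rw [mul_assoc, mul_assoc, mul_assoc, ← Real.rpow_add two_pos, ← Real.rpow_add two_pos,
      ← Real.rpow_add two_pos]
    congr 2
    ring
  rw [hv1] at hS'c
  have e8 : (8 : ℝ) ^ (i - i1) = (2 : ℝ) ^ (3 * ((i : ℝ) - i1)) := by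
    have h8 : (8 : ℝ) = 2 ^ (3 : ℕ) := by norm_num
    rw [h8, ← pow_mul, ← Real.rpow_natCast]
    congr 1
    push_cast [Nat.cast_sub hlev]
    ring
  rw [e8] at hcard
  have ha0 : ampA B A (fun v => γ * v) n 0 = A n := by
    show A n * B.d n ^ (-(γ * ((0 : ℚ) : ℝ))) = A n
    rw [Rat.cast_zero, mul_zero, neg_zero, Real.rpow_zero, mul_one]
  have ha1 : ampA B A (fun v => γ * v) n 1 = A n * B.d n ^ (-γ) := by
    show A n * B.d n ^ (-(γ * ((1 : ℚ) : ℝ))) = A n * B.d n ^ (-γ)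
    rw [Rat.cast_one, mul_one]
  rw [ha0] at hS'c
  rw [ha1] at hn1
  have P := fun t => dpow_pos B n t
  have T := fun t : ℝ => Real.rpow_pos_of_pos (two_pos : (0 : ℝ) < 2) t
  have hKC := KC_pos
  have key : A n * B.d n ^ (-γ) * vm n 1 ≤ (A n * vm n 1) * (KC * (B.d n ^ (-ε) * B.d n ^ (-ε)) *
      (2 : ℝ) ^ ((2 - (q 0 + q 1)) * ((i : ℝ) - i1))) := by
    calc A n * B.d n ^ (-γ) * vm n 1 ≤ B.d n ^ (-ε) * (F.card : ℝ) := hn1
      _ ≤ B.d n ^ (-ε) * (KC * (2 : ℝ) ^ (3 * ((i : ℝ) - i1)) * S'.card) :=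
          mul_le_mul_of_nonneg_left hcard (P _).le
      _ ≤ B.d n ^ (-ε) * (KC * (2 : ℝ) ^ (3 * ((i : ℝ) - i1)) * (B.d n ^ (-ε) * A n *
            (vm n 1 * (2 : ℝ) ^ (-((1 + (q 0 + q 1)) * ((i : ℝ) - i1)))))) := by
          refine mul_le_mul_of_nonneg_left (mul_le_mul_of_nonneg_left hS'c ?_) (P _).le
          exact mul_nonneg hKC.le (T _).le
      _ = (A n * vm n 1) * (KC * (B.d n ^ (-ε) * B.d n ^ (-ε)) *
            ((2 : ℝ) ^ (3 * ((i : ℝ) - i1)) *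
              (2 : ℝ) ^ (-((1 + (q 0 + q 1)) * ((i : ℝ) - i1))))) := by ring
      _ = _ := by
          rw [← Real.rpow_add two_pos]
          congr 3
          ring
  have hpos : 0 < A n * vm n 1 := mul_pos hA hvm
  refine le_of_mul_le_mul_left (le_trans (le_of_eq ?_) key) hpos
  ring

/-- **the growth of the density is at most `2`.** -/
theorem growth_le (h : MkA B I G lev A (fun v => γ * v) Λ τ f b vm w) (hG : IsL G L r)
    (hv : ValL G q)
    (hadm : ∀ᶠ n in (U : Filter ℕ), ∀ (J : ℤ) (a : Fin 2 → ℕ) (m : Mem),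
      (∀ j, (1 / 2 : ℝ) ^ (a j) = w j n 1) →
      AdmL (r n) (lev n 0) J a m → G.adm n (lev n 0) J (a, m)) : γ + (q 0 + q 1) ≤ 2 := by
  by_contra hcon
  push Not at hcon
  set Q := q 0 + q 1 with hQ
  set ε := (γ + Q - 2) / 4 with hε
  have hε0 : 0 < ε := by rw [hε]; linarith
  set δ := ε / (|2 - Q| + 1) with hδ
  have hδ0 : 0 < δ := by rw [hδ]; positivity
  have hlim := h.lev_lim 0 1 le_rfl zero_le_one le_rfl
  have hl1 := hlim.eventually (gt_mem_nhds (show (((1 : ℚ) : ℝ)) - ((0 : ℚ) : ℝ) <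
    (((1 : ℚ) : ℝ)) - ((0 : ℚ) : ℝ) + δ by linarith))
  have hl2 := hlim.eventually (lt_mem_nhds (show (((1 : ℚ) : ℝ)) - ((0 : ℚ) : ℝ) - δ <
    (((1 : ℚ) : ℝ)) - ((0 : ℚ) : ℝ) by linarith))
  have hfin : ∀ᶠ n in (U : Filter ℕ), False := by
    filter_upwards [hl1, hl2, h.ne, h.lev_mono 0 1 le_rfl zero_le_one le_rfl,
      h.vpos 1 zero_le_one le_rfl, h.dmax 0 le_rfl zero_le_one (ε / 2) (by positivity),
      h.mark 1 zero_le_one le_rfl, h.near 1 zero_le_one le_rfl (ε / 2) (by positivity), hadm,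
      Crest.Agent.R138.Ps926.dpow_small B hε0 (ε := 1 / KC) (by
        have := KC_pos; positivity)] with n b1 b2 b3 b4 b5 b6 b7 b8 b9 b10
    have key := growth_step (q := q) (A := A) (γ := γ) (ε := ε / 2) hG hv b9 b3 b4 (h.Apos n) b5
      (fun J s hs => by convert b6 J s hs) b7 (fun J t ht => by convert b8 J t ht)
    have hL := B.L_pos n
    rw [Rat.cast_one, Rat.cast_zero, sub_zero] at b1 b2
    rw [div_lt_iff₀ hL] at b1
    rw [lt_div_iff₀ hL] at b2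
    have hK := KC_pos
    have P := fun t => dpow_pos B n t
    have e1 : (2 : ℝ) ^ ((2 - (q 0 + q 1)) * ((lev n 1 : ℝ) - lev n 0)) ≤
        B.d n ^ (-(2 - Q) - ε) := by
      rw [← Real.log_le_log_iff (Real.rpow_pos_of_pos two_pos _) (P _),
        Real.log_rpow two_pos, Crest.Agent.R138.ArgM163.log_dpow]
      have h3 : |(((lev n 1 : ℝ) - lev n 0) * Real.log 2) - B.L n| ≤ δ * B.L n := by
        rw [abs_le]; constructor <;> linarith
      have h4 : (2 - Q) * ((((lev n 1 : ℝ) - lev n 0) * Real.log 2) - B.L n) ≤ ε * B.L n := by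
        calc (2 - Q) * ((((lev n 1 : ℝ) - lev n 0) * Real.log 2) - B.L n)
            ≤ |2 - Q| * (δ * B.L n) := by
              refine (le_abs_self _).trans ?_
              rw [abs_mul]
              exact mul_le_mul_of_nonneg_left h3 (abs_nonneg _)
          _ ≤ (|2 - Q| + 1) * (δ * B.L n) := by
              refine mul_le_mul_of_nonneg_right (by linarith) (by positivity)
          _ = ε * B.L n := by rw [hδ]; field_simp
      have e5 : (2 - (q 0 + q 1)) * ((lev n 1 : ℝ) - lev n 0) * Real.log 2 =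
          (2 - Q) * ((((lev n 1 : ℝ) - lev n 0) * Real.log 2) - B.L n) + (2 - Q) * B.L n := by
        rw [hQ]; ring
      rw [e5]
      linarith
    have e2 : B.d n ^ (-γ) ≤ KC * (B.d n ^ (-(ε / 2)) * B.d n ^ (-(ε / 2))) *
        B.d n ^ (-(2 - Q) - ε) :=
      key.trans (mul_le_mul_of_nonneg_left e1 (mul_nonneg hK.le (mul_nonneg (P _).le (P _).le)))
    have e3 : KC * (B.d n ^ (-(ε / 2)) * B.d n ^ (-(ε / 2))) * B.d n ^ (-(2 - Q) - ε) =
        (KC * B.d n ^ ε) * (B.d n ^ ε * B.d n ^ (-γ)) := by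
      have : B.d n ^ (-(ε / 2)) * B.d n ^ (-(ε / 2)) * B.d n ^ (-(2 - Q) - ε) =
          B.d n ^ ε * (B.d n ^ ε * B.d n ^ (-γ)) := by
        rw [← dpow_add, ← dpow_add, ← dpow_add, ← dpow_add]
        congr 1
        rw [hε]; ring
      rw [mul_assoc, this]; ring
    rw [e3] at e2
    have e4 : KC * B.d n ^ ε < 1 := by
      rw [lt_div_iff₀ hK] at b10
      linarith
    have e5 : B.d n ^ ε < 1 := Real.rpow_lt_one (B.pos n).le (B.lt n) hε0
    have e6 : (KC * B.d n ^ ε) * (B.d n ^ ε * B.d n ^ (-γ)) < 1 * (1 * B.d n ^ (-γ)) := by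
      exact mul_lt_mul'' e4 (mul_lt_mul_of_pos_right e5 (P _)) (mul_nonneg hK.le (P _).le)
        (mul_nonneg (P _).le (P _).le)
    rw [one_mul, one_mul] at e6
    linarith
  exact (U.neBot.ne (Filter.eventually_false_iff_eq_bot.1 hfin)).elim

/-- **`s < 1`** -/
theorem s_lt_one {g s : ℝ} (h : MkA B I G lev A (fun v => (g + 2 * s) * v) Λ τ f b vm w)
    (hG : IsL G L r) (hv : ValL G q) (hg : 0 < g) (hq : 0 ≤ q 0 + q 1)
    (hadm : ∀ᶠ n in (U : Filter ℕ), ∀ (J : ℤ) (a : Fin 2 → ℕ) (m : Mem),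
      (∀ j, (1 / 2 : ℝ) ^ (a j) = w j n 1) →
      AdmL (r n) (lev n 0) J a m → G.adm n (lev n 0) J (a, m)) : s < 1 := by
  have := growth_le h hG hv hadm
  linarith

end Crest.Agent.R116.KS439
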