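import Crest.Agent.R116.Tw6_468
import Crest.Agent.R116.KS1_439

/-!
# R116, K10 (helper468), part 7: `s < 1` in 139's final window (439's `s_lt_one`), `out_winL'`
-/

set_option autoImplicit false
set_option linter.unusedVariables false

open Finset Filter Topology

namespace Crest.Agent.R116.Tw468

open Crest.Agent.R138.Ex926 (Base U)
open Crest.Agent.R138.Mk163 (zc zl rho alive own)
open Crest.Agent.R138.Dp76 (dpow_pos dpow_add dpow_le Dense)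
open Crest.Agent.R136.MkA627
open Crest.Agent.R116.LZg725
open Crest.Agent.R116.Gd222 (TSet)
open Crest.Agent.R116.KI439
open Crest.Agent.R116.Xa794 (TS)
open Crest.Agent.R116.KF439 (IsL ValL Thin Thick TiltL)
open Crest.Agent.R116.Zl139

section winL

variable {B : Base} {I : ℕ → Finset (ℕ × ℝ)} {T : ℕ → TS LRay (Fin 2) Mem}
    {L : ℕ → ℕ → LRay} {r : ℕ → ℝ}
    {Ψ : ℝ → (Fin 2 → ℝ) → ℝ} {mt : ℕ → ℕ} {atop : ℕ → Fin 2 → ℕ} {lev : ℕ → ℚ → ℕ}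
    {f : ℕ → ℚ → ℕ → ℤ → ℕ} {b : ℕ → ℚ → ℕ → TSet} {vm : ℕ → ℚ → ℝ} {w : Fin 2 → ℕ → ℚ → ℝ}
    {g g0 s : ℝ} {θ p : Fin 2 → ℝ} {B' : Base} {I' : ℕ → Finset (ℕ × ℝ)} {H : ℕ → ℝ}
    {mm : ℕ → ℚ → ℚ} {A' A2 : ℕ → ℝ} {vm2 : ℕ → ℚ → ℝ} {K : ℕ → ℝ}

/-- in the final window, members with the widths of the marks of level `1` are admissible over the
cells of level `0` -/
theorem adm0_winL (h : WinL B I T L r Ψ mt atop lev f b vm w g g0 s θ p B' I' H mm A' A2 vm2 K) :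
    ∀ᶠ n in (U : Filter ℕ), ∀ (J : ℤ) (a : Fin 2 → ℕ) (m : Mem),
      (∀ j, (1 / 2 : ℝ) ^ (a j) = w j n (mm n 1)) → AdmL (r n) (lev n (mm n 0)) J a m →
        (GW T L w p B' mm K).adm n (lev n (mm n 0)) J (a, m) := by
  filter_upwards [h.adm, h.Klim.eventually_ge_atTop 0, h.mkL.lev_mono 0 1 le_rfl zero_le_one le_rfl]
    with n a1 a2 a3 J a m ha hm
  have hd : B'.d n ^ (K n) ≤ 1 := Real.rpow_le_one (B'.pos n).le (B'.lt n).le a2
  have hd' : 1 ≤ B'.d n ^ (-(K n)) :=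
    Real.one_le_rpow_of_pos_of_le_one_of_nonpos (B'.pos n) (B'.lt n).le (by linarith)
  have hw : ∀ j, 0 < w j n (mm n 1) := fun j => by rw [← ha j]; positivity
  have hrg : ∀ j, B'.d n ^ (K n) * w j n (mm n 1) ≤ (1 / 2 : ℝ) ^ (a j) ∧
      (1 / 2 : ℝ) ^ (a j) ≤ B'.d n ^ (-(K n)) * w j n (mm n 1) := fun j => by
    rw [ha j]
    exact ⟨mul_le_of_le_one_left (hw j).le hd, le_mul_of_one_le_left (hw j).le hd'⟩
  exact ⟨a1 _ le_rfl a3 J a m hm fun j => (hrg j).1, hrg⟩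

/-- **`s < 1`** -/
theorem s_lt_winL (hTL : ∀ n, IsTL (T n) (r n))
    (h : WinL B I T L r Ψ mt atop lev f b vm w g g0 s θ p B' I' H mm A' A2 vm2 K)
    (hp : ∀ j, 0 ≤ p j) (hg : 0 < g + g0) : s < 1 :=
  KS439.s_lt_one h.mkL (isL_GW hTL L w p B' mm K) (valL_GW hTL L w p B' mm K) hg
    (add_nonneg (hp 0) (hp 1)) (adm0_winL h)

/-- **growth** -/
theorem growth_winL (hTL : ∀ n, IsTL (T n) (r n))
    (h : WinL B I T L r Ψ mt atop lev f b vm w g g0 s θ p B' I' H mm A' A2 vm2 K) :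
    g + g0 + 2 * s + (p 0 + p 1) ≤ 2 :=
  KS439.growth_le h.mkL (isL_GW hTL L w p B' mm K) (valL_GW hTL L w p B' mm K) (adm0_winL h)

/-- **RESULT: the seam I-c / II-c from 139's final window**, no condition on `s`. -/
theorem out_winL' (hTL : ∀ n, IsTL (T n) (r n))
    (h : WinL B I T L r Ψ mt atop lev f b vm w g g0 s θ p B' I' H mm A' A2 vm2 K)
    (hp : ∀ j, 0 ≤ p j) (hg : 0 < g + g0)
    (hT : Thin B' (fun j n x => w j n (mm n x)) → ∃ C : ℝ, TiltL B' I' L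
      (fun n x => lev n (mm n x)) (fun n x => f n (mm n x)) (fun n x => b n (mm n x))
      (fun j n x => w j n (mm n x)) C) {Rg : ℝ} (hRg : 0 ≤ Rg) (a : Fin 2) :
    (∃ (B1 : Base) (I1 : ℕ → Finset (ℕ × ℝ)) (lev1 : ℕ → ℚ → ℕ) (A1 : ℕ → ℝ)
      (f1 : ℕ → ℚ → ℕ → ℤ → ℕ) (b1 : ℕ → ℚ → ℕ → TSet) (vm1 : ℕ → ℚ → ℝ)
      (w1 : Fin 2 → ℕ → ℚ → ℝ) (fr1 : ℕ → ℚ → ℕ × ℝ → ChL222.LInc)
      (fl1 : ℕ → ℕ × ℝ → ChL222.LInc) (sc1 : Fin 12 → ℕ → ℝ),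
      OutT (GW T L w p B' mm K) L r (g + g0 + 2 * s) s θ p Rg B1 I1 lev1 A1 f1 b1 vm1 w1 fr1 fl1
        sc1) ∨
    OutR (GW T L w p B' mm K) L r (g + g0 + 2 * s) s θ p Rg a B' I' (fun n x => lev n (mm n x)) A2
      (fun n x => f n (mm n x)) (fun n x => b n (mm n x)) vm2 (fun j n x => w j n (mm n x)) :=
  out_winL hTL h hp (s_lt_winL hTL h hp hg) hT hRg a

end winL

end Crest.Agent.R116.Tw468
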