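import Mathlib
import Crest.Agent.R116.Xc2_794

/-!
# R116 (K side), block X1-C, class `Xc`, part 3 (helper794): marks and refinement

* `Mrk` : marks at one level, near-maximal;
* `refine` : a dense part (inside closed parts which carry the marks) contains a dense part which has
  the own profile and all marks.
* `Dmx` : D-max at all levels; `Dmx.of_up`.
-/

set_option autoImplicit false

open Finset Filter Topology

namespace Crest.Agent.R116.Xc3794

open Crest.Agent.R138.Ex926 Crest.Agent.R138.Dp76 Crest.Agent.R138.Ps627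
open Crest.Agent.R138.Ps926 (dpow_small small_of_not_dense Dense.of_subset)
open Crest.Agent.R138.Mk163 (zc zl rho alive own Negl)
open Crest.Agent.R138.MkRef627 (lc kc own_one alive_mono mem_alive card_class own_lower exists_num)
open Crest.Agent.R138.MkZoom779 (zc_nested)
open Crest.Agent.R136.MkA627 (ampA Geo MkA)
open Crest.Agent.R116.Xa794 (TS)
open Crest.Agent.R116.Xa2794 (lc_nested class_fib_ge class_fib_le)
open Crest.Agent.R116.Xa3794
open Crest.Agent.R116.Xc794 Crest.Agent.R116.Xc1794 Crest.Agent.R116.Xc2794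

variable {Ln ι S : Type} [Fintype ι]

open Classical in
/-- marks at the level `v`: one class per line and cell, common widths, near-maximal. -/
structure Mrk (B : Base) (I : ℕ → Finset (ℕ × ℝ)) (T : ℕ → TS Ln ι S) (L : ℕ → ℕ → Ln)
    (lev : ℕ → ℚ → ℕ) (A : ℕ → ℝ) (c : ℝ → ℝ) (V : ℕ → ℕ → (ι → ℕ) → ℝ) (v : ℚ) (f : ℕ → ℕ → ℤ → ℕ) (b : ℕ → ℕ → (ι → ℕ) × S)
    (a : ℕ → ι → ℕ) : Prop where
  mark : ∀ᶠ n in (U : Filter ℕ), ∀ x ∈ I n,
    (T n).mem (lev n v) (zc (lev n v) x.2) (b n (f n x.1 (zc (lev n v) x.2))) (L n x.1) ∧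
      (T n).adm (lev n v) (zc (lev n v) x.2) (b n (f n x.1 (zc (lev n v) x.2))) ∧
      (b n (f n x.1 (zc (lev n v) x.2))).1 = a n
  near : ∀ ε : ℝ, 0 < ε → ∀ᶠ n in (U : Filter ℕ), ∀ x ∈ I n,
    ampA B A c n v * V n (lev n v) (a n) ≤ B.d n ^ (-ε) *
      (((alive (I n) (lev n v) (zc (lev n v) x.2)).filter fun s =>
        f n s (zc (lev n v) x.2) = f n x.1 (zc (lev n v) x.2)).card : ℝ)

/-- D-max at all levels -/
def Dmx (B : Base) (I : ℕ → Finset (ℕ × ℝ)) (T : ℕ → TS Ln ι S) (L : ℕ → ℕ → Ln)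
    (lev : ℕ → ℚ → ℕ) (A : ℕ → ℝ) (c : ℝ → ℝ) (V : ℕ → ℕ → (ι → ℕ) → ℝ) : Prop :=
  open Classical in
  ∀ v : ℚ, 0 ≤ v → v ≤ 1 → ∀ ε : ℝ, 0 < ε → ∀ᶠ n in (U : Filter ℕ), ∀ (J : ℤ) (s : (ι → ℕ) × S),
    (T n).adm (lev n v) J s →
      (((alive (I n) (lev n v) J).filter fun t => (T n).mem (lev n v) J s (L n t)).card : ℝ) ≤
        B.d n ^ (-ε) * ampA B A c n v * V n (lev n v) s.1

section

variable {B : Base} {I : ℕ → Finset (ℕ × ℝ)} {lev : ℕ → ℚ → ℕ} {Λ : ℝ → ℝ} {T : ℕ → TS Ln ι S}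
  {L : ℕ → ℕ → Ln} {A : ℕ → ℝ} {c : ℝ → ℝ} {V : ℕ → ℕ → (ι → ℕ) → ℝ}

theorem Dmx.mono {J : ℕ → Finset (ℕ × ℝ)} (h : Dmx B I T L lev A c V)
    (hJ : ∀ n, J n ⊆ I n) : Dmx B J T L lev A c V := by
  classical
  intro v hv0 hv1 ε hε
  filter_upwards [h v hv0 hv1 ε hε] with n hn J0 s hs
  refine le_trans ?_ (hn J0 s hs)
  exact_mod_cast card_le_card (filter_subset_filter _ (alive_mono (hJ n) _ _))

/-- the label maps of the refinement -/
noncomputable def hmap (lev : ℕ → ℚ → ℕ) (w : ℕ → ℚ) (Af : ℕ → ℕ → Finset (ℕ × ℝ))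
    (f : ℕ → ℕ → ℕ → ℤ → ℕ) (j n : ℕ) (x : ℕ × ℝ) : Option (ℕ × ℤ) :=
  open Classical in
  if j % 2 = 0 then some (lc (lev n (Denumerable.ofNat ℚ (j / 2))) x)
  else if x ∈ Af (j / 2) n then some (kc (lev n (w (j / 2))) (f (j / 2) n) x) else none

theorem hmap_even (lev : ℕ → ℚ → ℕ) (w : ℕ → ℚ) (Af : ℕ → ℕ → Finset (ℕ × ℝ))
    (f : ℕ → ℕ → ℕ → ℤ → ℕ) (j n : ℕ) :
    hmap lev w Af f (2 * j) n = fun x => some (lc (lev n (Denumerable.ofNat ℚ j)) x) := by
  funext x
  unfold hmap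
  have h1 : (2 * j) / 2 = j := by omega
  have h2 : (2 * j) % 2 = 0 := by omega
  rw [if_pos h2, h1]

open Classical in
theorem hmap_odd (lev : ℕ → ℚ → ℕ) (w : ℕ → ℚ) (Af : ℕ → ℕ → Finset (ℕ × ℝ))
    (f : ℕ → ℕ → ℕ → ℤ → ℕ) (j n : ℕ) :
    hmap lev w Af f (2 * j + 1) n =
      fun x => if x ∈ Af j n then some (kc (lev n (w j)) (f j n) x) else none := by
  funext x
  unfold hmap
  have h1 : (2 * j + 1) / 2 = j := by omega
  have h2 : ¬ (2 * j + 1) % 2 = 0 := by omega
  rw [if_neg h2, h1]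

open Classical in
/-- **Refinement.** -/
theorem refine (h : Sq B I lev Λ) {J : ℕ → Finset (ℕ × ℝ)} (hJ : Dense B J I) (w : ℕ → ℚ)
    (hw : ∀ k, 0 ≤ w k ∧ w k ≤ 1) (Af : ℕ → ℕ → Finset (ℕ × ℝ)) (hAf : ∀ k n, Af k n ⊆ I n)
    (hJA : ∀ k, ∀ᶠ n in (U : Filter ℕ), J n ⊆ Af k n)
    (hcl : ∀ k, ∀ᶠ n in (U : Filter ℕ), ∀ x ∈ Af k n, ∀ y ∈ I n,
      lc (lev n (w k)) y = lc (lev n (w k)) x → y ∈ Af k n)
    (f : ℕ → ℕ → ℕ → ℤ → ℕ) (b : ℕ → ℕ → ℕ → (ι → ℕ) × S) (a : ℕ → ℕ → ι → ℕ)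
    (hM : ∀ k, Mrk B (Af k) T L lev A c V (w k) (f k) (b k) (a k)) :
    ∃ J' : ℕ → Finset (ℕ × ℝ), (∀ n, J' n ⊆ J n) ∧ (∀ n, J' n ⊆ I n) ∧ Dense B J' J ∧
      Dense B J' I ∧ Sq B J' lev Λ ∧
      ∀ k, Mrk B J' T L lev A c V (w k) (f k) (b k) (a k) := by
  obtain ⟨J', hsub, hhalf, hfib⟩ := prune_seq (η := fun _ _ => Option (ℕ × ℤ)) hJ
    (hmap lev w Af f)
  have hJ'J : Dense B J' J := dense_of_half (by
    filter_upwards [hhalf] with n hn using ⟨(hsub n).1, hn⟩)
  have hJ'I : Dense B J' I := hJ'J.trans hJ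
  have hne : ∀ᶠ n in (U : Filter ℕ), (J' n).Nonempty := hJ'I.nonempty h.ne
  have fl : ∀ v : ℚ, ∀ ε : ℝ, 0 < ε → ∀ᶠ n in (U : Filter ℕ), ∀ x ∈ J' n,
      B.d n ^ ε * (((I n).filter fun y => lc (lev n v) y = lc (lev n v) x).card : ℝ) ≤
        (((J' n).filter fun y => lc (lev n v) y = lc (lev n v) x).card : ℝ) := by
    intro v ε hε
    obtain ⟨j, rfl⟩ := exists_num v
    filter_upwards [hfib (2 * j) ε hε] with n hn x hx
    have := hn x hx
    simp only [hmap_even, Option.some.injEq] at this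
    exact this
  have fk : ∀ k : ℕ, ∀ ε : ℝ, 0 < ε → ∀ᶠ n in (U : Filter ℕ), ∀ x ∈ J' n,
      B.d n ^ ε * (((Af k n).filter fun y => kc (lev n (w k)) (f k n) y =
        kc (lev n (w k)) (f k n) x).card : ℝ) ≤
        (((J' n).filter fun y => kc (lev n (w k)) (f k n) y =
          kc (lev n (w k)) (f k n) x).card : ℝ) := by
    intro k ε hε
    filter_upwards [hfib (2 * k + 1) ε hε, hJA k] with n hn hJA x hx
    have h1 := hn x hx
    have hxA := hJA ((hsub n).1 hx)
    simp only [hmap_odd, if_pos hxA] at h1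
    have e1 : ((I n).filter fun y => (if y ∈ Af k n then some (kc (lev n (w k)) (f k n) y)
        else none) = some (kc (lev n (w k)) (f k n) x)) =
        (Af k n).filter fun y => kc (lev n (w k)) (f k n) y = kc (lev n (w k)) (f k n) x := by
      ext y
      rw [mem_filter, mem_filter]
      constructor
      · rintro ⟨hy, h3⟩
        by_cases hyA : y ∈ Af k n
        · rw [if_pos hyA] at h3
          exact ⟨hyA, Option.some.inj h3⟩
        · rw [if_neg hyA] at h3
          exact absurd h3 (by simp)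
      · rintro ⟨hy, h3⟩
        refine ⟨hAf k n hy, ?_⟩
        rw [if_pos hy, h3]
    have e2 : ((J' n).filter fun y => (if y ∈ Af k n then some (kc (lev n (w k)) (f k n) y)
        else none) = some (kc (lev n (w k)) (f k n) x)) =
        (J' n).filter fun y => kc (lev n (w k)) (f k n) y = kc (lev n (w k)) (f k n) x := by
      ext y
      rw [mem_filter, mem_filter]
      constructor
      · rintro ⟨hy, h3⟩
        rw [if_pos (hJA ((hsub n).1 hy))] at h3
        exact ⟨hy, Option.some.inj h3⟩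
      · rintro ⟨hy, h3⟩
        refine ⟨hy, ?_⟩
        rw [if_pos (hJA ((hsub n).1 hy)), h3]
    rw [e1, e2] at h1
    exact h1
  refine ⟨J', fun n => (hsub n).1, fun n => (hsub n).2, hJ'J, hJ'I, ?_, ?_⟩
  · refine
      { ne := hne
        card := ?_
        lam0 := h.lam0
        lam := h.lam
        lev_mono := h.lev_mono
        lev_lim := h.lev_lim
        cell0 := by
          filter_upwards [h.cell0] with n hn x hx y hy using
            hn x ((hsub n).2 hx) y ((hsub n).2 hy)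
        one := by
          filter_upwards [h.one] with n hn x hx y hy using
            hn x ((hsub n).2 hx) y ((hsub n).2 hy)
        fib := ?_ }
    · intro ε hε
      filter_upwards [h.card ε hε, hne] with n hn hne
      refine le_trans (Real.log_le_log (by exact_mod_cast card_pos.2 hne)
        (by exact_mod_cast card_le_card (hsub n).2)) hn
    · intro v hv0 hv1 ε hε
      filter_upwards [h.fib v hv0 hv1 (ε / 2) (by positivity), fl v (ε / 2) (by positivity)]
        with n h1 h2 x hx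
      have hxI := (hsub n).2 hx
      refine ⟨?_, ?_⟩
      · refine le_trans ?_ (h2 x hx)
        have h3 := mul_le_mul_of_nonneg_left (h1 x hxI).1 (dpow_pos B n (ε / 2)).le
        rw [← dpow_add] at h3
        refine le_trans (le_of_eq ?_) h3
        congr 1; ring
      · refine le_trans ?_ ((h1 x hxI).2.trans (dpow_le B n (by linarith)))
        exact_mod_cast card_le_card (filter_subset_filter _ (hsub n).2)
  · intro k
    refine
      { mark := ?_
        near := ?_ }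
    · filter_upwards [(hM k).mark, hJA k] with n hn hJA x hx using hn x (hJA ((hsub n).1 hx))
    · intro ε hε
      have hε4 : 0 < ε / 4 := by linarith
      filter_upwards [(hM k).near (ε / 4) hε4, hJA k, fk k (ε / 4) hε4,
        h.fib (w k) (hw k).1 (hw k).2 (ε / 4) hε4, hcl k] with n h1 h2 h3 h4 h5 x hx
      have hxA := h2 ((hsub n).1 hx)
      have h6 := h1 x hxA
      set m₁ : ℝ := B.d n ^ (-(1 - (w k : ℝ)) + (Λ 1 - Λ (w k)) + ε / 4) with hm₁
      set m₂ : ℝ := B.d n ^ (-(1 - (w k : ℝ)) + (Λ 1 - Λ (w k)) - ε / 4) with hm₂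
      have hm1 : 0 < m₁ := dpow_pos B n _
      have hm2 : 0 < m₂ := dpow_pos B n _
      have lowA : ∀ y ∈ Af k n, m₁ ≤ (((Af k n).filter fun z => lc (lev n (w k)) z =
          lc (lev n (w k)) y).card : ℝ) := by
        intro y hy
        refine (h4 y (hAf k n hy)).1.trans ?_
        have : ((I n).filter fun z => lc (lev n (w k)) z = lc (lev n (w k)) y) ⊆
            (Af k n).filter fun z => lc (lev n (w k)) z = lc (lev n (w k)) y := by
          intro z hz
          rw [mem_filter] at hz ⊢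
          exact ⟨h5 y hy z hz.1 hz.2, hz.2⟩
        exact_mod_cast card_le_card this
      have upJ : ∀ y ∈ J' n, (((J' n).filter fun z => lc (lev n (w k)) z =
          lc (lev n (w k)) y).card : ℝ) ≤ m₂ := by
        intro y hy
        refine le_trans ?_ (h4 y ((hsub n).2 hy)).2
        exact_mod_cast card_le_card (filter_subset_filter _ (hsub n).2)
      have p1 := class_fib_ge (f := f k n) lowA x
      have p2 := class_fib_le (f := f k n) upJ x
      have p3 := h3 x hx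
      set NA : ℝ := (((alive (Af k n) (lev n (w k)) (zc (lev n (w k)) x.2)).filter fun s =>
        f k n s (zc (lev n (w k)) x.2) = f k n x.1 (zc (lev n (w k)) x.2)).card : ℝ) with hNA
      set NJ : ℝ := (((alive (J' n) (lev n (w k)) (zc (lev n (w k)) x.2)).filter fun s =>
        f k n s (zc (lev n (w k)) x.2) = f k n x.1 (zc (lev n (w k)) x.2)).card : ℝ) with hNJ
      have p4 : B.d n ^ (ε / 4) * (m₁ * NA) ≤ m₂ * NJ :=
        (mul_le_mul_of_nonneg_left p1 (dpow_pos B n _).le).trans (p3.trans p2)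
      have p5 : NA ≤ B.d n ^ (-(3 * (ε / 4))) * NJ := by
        have hpos : 0 < B.d n ^ (ε / 4) * m₁ := mul_pos (dpow_pos B n _) hm1
        have h7 : m₂ = B.d n ^ (-(3 * (ε / 4))) * (B.d n ^ (ε / 4) * m₁) := by
          rw [hm₁, hm₂, ← dpow_add, ← dpow_add]; congr 1; ring
        rw [h7] at p4
        have h8 : (B.d n ^ (ε / 4) * m₁) * NA ≤ (B.d n ^ (ε / 4) * m₁) *
            (B.d n ^ (-(3 * (ε / 4))) * NJ) := by linarith
        exact le_of_mul_le_mul_left h8 hpos
      refine h6.trans ?_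
      have h9 : B.d n ^ (-ε) = B.d n ^ (-(ε / 4)) * B.d n ^ (-(3 * (ε / 4))) := by
        rw [← dpow_add]; congr 1; ring
      rw [h9, mul_assoc]
      exact mul_le_mul_of_nonneg_left p5 (dpow_pos B n _).le

end

end Crest.Agent.R116.Xc3794
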