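import Mathlib
import Crest.Agent.R116.Xc3_794
import Crest.Agent.R138.NatTw_76

/-!
# R116 (K side), block X1-C, class `Xc`, part 4 (helper794): (UP), D-max at all levels
-/

set_option autoImplicit false
set_option linter.unusedSectionVars false

open Finset Filter Topology

namespace Crest.Agent.R116.Xc4794

open Crest.Agent.R138.Ex926 Crest.Agent.R138.Dp76 Crest.Agent.R138.Ps627
open Crest.Agent.R138.Ps926 (dpow_small small_of_not_dense Dense.of_subset)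
open Crest.Agent.R138.NatTw76 (exists_avoid)
open Crest.Agent.R138.Mk163 (zc zl rho alive own Negl)
open Crest.Agent.R138.MkRef627 (lc kc own_one alive_mono mem_alive card_class own_lower exists_num)
open Crest.Agent.R138.MkZoom779 (zc_nested)
open Crest.Agent.R136.MkA627 (ampA Geo MkA)
open Crest.Agent.R116.Xa794 (TS)
open Crest.Agent.R116.Xa2794 (lc_nested class_fib_ge class_fib_le)
open Crest.Agent.R116.Xa3794
open Crest.Agent.R116.Xc794 Crest.Agent.R116.Xc1794 Crest.Agent.R116.Xc2794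
open Crest.Agent.R116.Xc3794

variable {Ln ι S : Type} [Fintype ι]

/-- superadditivity of the reward -/
def SupA (Ψ : ℝ → (ι → ℝ) → ℝ) : Prop :=
  ∀ l l' x x', 0 ≤ l → 0 ≤ l' → Ψ l x + Ψ l' x' ≤ Ψ (l + l') (fun j => x j + x' j)

theorem capP_sup (T : TS Ln ι S) {Ψ : ℝ → (ι → ℝ) → ℝ} (hΨ : SupA Ψ) {i m m' : ℕ} (h1 : i ≤ m)
    (h2 : m ≤ m') (s a a' : ι → ℕ) :
    capP T Ψ m' a' i s ≤ (2 : ℝ) ^ (-(Ψ ((m' : ℝ) - m) (rel m a m' a'))) * capP T Ψ m a i s := by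
  unfold capP
  have e1 : (m' : ℝ) - i = ((m : ℝ) - i) + ((m' : ℝ) - m) := by ring
  have e2 : rel i s m' a' = fun j => rel i s m a j + rel m a m' a' j := by
    funext j
    simp only [rel]; ring
  have h3 : (0 : ℝ) ≤ (m : ℝ) - i := by
    have : (i : ℝ) ≤ m := by exact_mod_cast h1
    linarith
  have h4 : (0 : ℝ) ≤ (m' : ℝ) - m := by
    have : (m : ℝ) ≤ m' := by exact_mod_cast h2
    linarith
  have h5 := hΨ _ _ (rel i s m a) (rel m a m' a') h3 h4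
  rw [← e1, ← e2] at h5
  have h6 : (2 : ℝ) ^ (-(Ψ ((m' : ℝ) - i) (rel i s m' a'))) ≤
      (2 : ℝ) ^ (-(Ψ ((m' : ℝ) - m) (rel m a m' a'))) *
        (2 : ℝ) ^ (-(Ψ ((m : ℝ) - i) (rel i s m a))) := by
    rw [← Real.rpow_add two_pos]
    exact Real.rpow_le_rpow_of_exponent_le (by norm_num) (by linarith)
  calc T.vol i s * (2 : ℝ) ^ (-(Ψ ((m' : ℝ) - i) (rel i s m' a'))) ≤
      T.vol i s * ((2 : ℝ) ^ (-(Ψ ((m' : ℝ) - m) (rel m a m' a'))) *
        (2 : ℝ) ^ (-(Ψ ((m : ℝ) - i) (rel i s m a)))) :=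
        mul_le_mul_of_nonneg_left h6 (T.volpos i s).le
    _ = _ := by ring

/-- capacity of the sequence -/
noncomputable def VV (T : ℕ → TS Ln ι S) (Ψ : ℝ → (ι → ℝ) → ℝ) (lev : ℕ → ℚ → ℕ)
    (atop : ℕ → ι → ℕ) (n i : ℕ) (s : ι → ℕ) : ℝ :=
  capP (T n) Ψ (lev n 1) (atop n) i s

section

variable {B : Base} {I : ℕ → Finset (ℕ × ℝ)} {lev : ℕ → ℚ → ℕ} {Λ : ℝ → ℝ} {T : ℕ → TS Ln ι S}
  {L : ℕ → ℕ → Ln} {A : ℕ → ℝ} {Ψ : ℝ → (ι → ℝ) → ℝ} {atop : ℕ → ι → ℕ} {N : ℕ → ℕ}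

theorem VV_pos (n i : ℕ) (s : ι → ℕ) : 0 < VV T Ψ lev atop n i s := capP_pos _ _ _ _ _ _

theorem ampA_pos (hA : ∀ n, 0 < A n) (c : ℝ → ℝ) (n : ℕ) (v : ℚ) : 0 < ampA B A c n v :=
  mul_pos (hA n) (dpow_pos B n _)

theorem dense_of_small {J : ℕ → Finset (ℕ × ℝ)} (h1 : ∀ᶠ n in (U : Filter ℕ), J n ⊆ I n)
    (h2 : ∀ η : ℝ, 0 < η → ∀ᶠ n in (U : Filter ℕ),
      ((I n).card : ℝ) ≤ B.d n ^ (-η) * ((J n).card : ℝ)) : Dense B J I := by
  refine ⟨h1, fun η hη => ?_⟩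
  filter_upwards [h2 η hη] with n hn
  have h3 := mul_le_mul_of_nonneg_left hn (dpow_pos B n η).le
  rw [← mul_assoc, ← dpow_add, add_neg_cancel, Real.rpow_zero, one_mul] at h3
  exact h3

/-- the number of shapes is sub-polynomial -/
theorem boxN_small (hNd : ∀ ε : ℝ, 0 < ε → ∀ᶠ n in (U : Filter ℕ), (N n : ℝ) ≤ B.d n ^ (-ε))
    (k : ℕ) {η : ℝ} (hη : 0 < η) :
    ∀ᶠ n in (U : Filter ℕ), ((N n : ℝ) + 1) ^ k ≤ B.d n ^ (-η) := by
  set e : ℝ := η / (2 * ((k : ℝ) + 1)) with he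
  have he0 : 0 < e := by positivity
  filter_upwards [hNd e he0, dpow_small B he0 (ε := 1 / 2) (by norm_num)] with n h1 h2
  have h3 : (2 : ℝ) ≤ B.d n ^ (-e) := by
    rw [Real.rpow_neg (B.pos n).le, ← one_div, le_div_iff₀ (dpow_pos B n e)]
    linarith
  have h4 : (N n : ℝ) + 1 ≤ B.d n ^ (-(2 * e)) := by
    have e1 : B.d n ^ (-(2 * e)) = B.d n ^ (-e) * B.d n ^ (-e) := by
      rw [← dpow_add]; congr 1; ring
    rw [e1]
    nlinarith
  refine (pow_le_pow_left₀ (by positivity) h4 k).trans ?_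
  rw [← Real.rpow_natCast, ← Real.rpow_mul (B.pos n).le]
  refine dpow_le B n ?_
  have h5 : 2 * e * (k : ℝ) ≤ η := by
    have h6 : 2 * e * ((k : ℝ) + 1) = η := by
      rw [he]; field_simp
    nlinarith
  linarith

open Classical in
theorem up_one [Nonempty S] (h : Sq B I lev Λ) (𝒯 : Set (TS Ln ι S)) (hΨ : SupA Ψ) {g : ℝ}
    (hUB : UB 𝒯 Ψ g) (hT : ∀ n, T n ∈ 𝒯)
    (hfin : ∀ (n i : ℕ) (J : ℤ) (s : (ι → ℕ) × S), (T n).adm i J s → ∀ j, s.1 j ≤ N n)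
    (hNd : ∀ ε : ℝ, 0 < ε → ∀ᶠ n in (U : Filter ℕ), (N n : ℝ) ≤ B.d n ^ (-ε))
    (hA : ∀ n, 0 < A n)
    (h0 : ∀ᶠ n in (U : Filter ℕ), ∀ (J0 : ℤ) (s : (ι → ℕ) × S), (T n).adm (lev n 0) J0 s →
      (((alive (I n) (lev n 0) J0).filter fun t => (T n).mem (lev n 0) J0 s (L n t)).card : ℝ) ≤
        A n * VV T Ψ lev atop n (lev n 0) s.1)
    {v : ℚ} (hv0 : 0 ≤ v) (hv1 : v ≤ 1) {ε : ℝ} (hε : 0 < ε) :
    ∃ E : ℕ → Finset (ℕ × ℝ), Negl B I (fun n x => x ∈ E n) ∧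
      ∀ᶠ n in (U : Filter ℕ), ∀ Q ⊆ I n, (∀ x ∈ Q, x ∉ E n) → ∀ (J : ℤ) (s : (ι → ℕ) × S),
        (T n).adm (lev n v) J s →
          (((alive Q (lev n v) J).filter fun t => (T n).mem (lev n v) J s (L n t)).card : ℝ) ≤
            B.d n ^ (-ε) * ampA B A (fun v => g * v + 2 * Λ v) n v *
              VV T Ψ lev atop n (lev n v) s.1 := by
  rcases hv0.eq_or_lt with rfl | hvpos
  · refine ⟨fun _ => ∅, ⟨1, one_pos, Eventually.of_forall fun n => ?_⟩, ?_⟩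
    · simp only [notMem_empty, filter_false, card_empty, Nat.cast_zero]
      exact mul_nonneg (dpow_pos B n _).le (Nat.cast_nonneg _)
    · filter_upwards [h0] with n hn Q hQ _ J s hs
      refine le_trans (by exact_mod_cast card_le_card (filter_subset_filter _
        (alive_mono hQ _ _))) ((hn J s hs).trans ?_)
      refine mul_le_mul_of_nonneg_right ?_ (VV_pos _ _ _).le
      unfold ampA
      have e1 : -(g * (((0 : ℚ) : ℝ)) + 2 * Λ ((0 : ℚ) : ℝ)) = 0 := by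
        rw [Rat.cast_zero, h.lam0]; ring
      simp only [e1, Real.rpow_zero, mul_one]
      have h1 : 1 ≤ B.d n ^ (-ε) := by
        have := dpow_le B n (a := -ε) (b := 0) (by linarith)
        rwa [Real.rpow_zero] at this
      nlinarith [hA n]
  set cc : ℝ → ℝ := fun v => g * v + 2 * Λ v with hcc
  set t : ℕ → ℝ := fun n => B.d n ^ (-ε) * ampA B A cc n v with ht
  have htp : ∀ n, 0 < t n := fun n => mul_pos (dpow_pos B n _) (ampA_pos hA cc n v)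
  have hex := fun n => extractC (T n) (VV T Ψ lev atop n (lev n v)) (VV_pos n (lev n v)) (N n)
    (lev n v) (hfin n (lev n v)) (L n) (I n) (htp n)
  choose A0 hA0 A1 hA1 f b a h1 h2 h3 h4 h5 using hex
  refine ⟨A0, ?_, ?_⟩
  swap
  · exact Eventually.of_forall fun n Q hQ hQA J s hs => h5 n Q hQ hQA J s hs
  -- `A0` is negligible
  have hA0ev : ∀ᶠ n in (U : Filter ℕ), A0 n ⊆ I n := Eventually.of_forall hA0
  by_cases hd : Dense B A0 I
  swap
  · obtain ⟨γ, hγ, h6⟩ := small_of_not_dense hA0ev hd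
    refine ⟨γ, hγ, ?_⟩
    filter_upwards [h6] with n hn
    refine le_trans ?_ hn.le
    refine Nat.cast_le.2 (card_le_card ?_)
    intro x hx
    simp only [mem_filter] at hx
    exact hx.2
  exfalso
  have hd1 : Dense B A1 A0 := by
    refine dense_of_small (Eventually.of_forall hA1) fun η hη => ?_
    filter_upwards [boxN_small hNd (Fintype.card ι) hη] with n hn
    exact (h1 n).trans (mul_le_mul_of_nonneg_right hn (Nat.cast_nonneg _))
  have hd2 : Dense B A1 I := hd1.trans hd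
  have hne := hd2.nonempty h.ne
  set Φ : ℕ → ℝ := fun n =>
    (2 : ℝ) ^ (-(Ψ ((lev n 1 : ℝ) - lev n v) (rel (lev n v) (a n) (lev n 1) (atop n)))) with hΦ
  have hΦp : ∀ n, 0 < Φ n := fun n => Real.rpow_pos_of_pos two_pos _
  have hlow := low_seqC h 𝒯 Ψ hUB hT hfin hNd (u := 0) (v := v) le_rfl hvpos hv1
    (A := A1) (fun n => (hA1 n).trans (hA0 n)) (Eventually.of_forall h2) (f := f) (b := b) (a := a)
    (Eventually.of_forall h3) (D1 := fun n => t n * Φ n)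
    (fun n => mul_pos (htp n) (hΦp n))
    (Eventually.of_forall fun n x hx => by
      refine le_trans (le_of_eq ?_) (h4 n x hx)
      simp only [VV, capP, hΦ]
      ring) (η := ε) hε
    (D0 := fun n => A n * Φ n) (by
      refine Eventually.of_forall fun n => ?_
      have e1 : B.d n ^ (ε + g * ((v : ℝ) - ((0 : ℚ) : ℝ)) + 2 * (Λ v - Λ ((0 : ℚ) : ℝ))) *
          (t n * Φ n) = A n * Φ n := by
        simp only [ht, hcc, ampA]
        rw [Rat.cast_zero, h.lam0]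
        have e2 : B.d n ^ (ε + g * ((v : ℝ) - 0) + 2 * (Λ v - 0)) *
            (B.d n ^ (-ε) * (A n * B.d n ^ (-(g * (v : ℝ) + 2 * Λ v))) * Φ n) =
            A n * Φ n * (B.d n ^ (ε + g * ((v : ℝ) - 0) + 2 * (Λ v - 0)) * B.d n ^ (-ε) *
              B.d n ^ (-(g * (v : ℝ) + 2 * Λ v))) := by ring
        rw [e2, ← dpow_add, ← dpow_add]
        have e3 : ε + g * ((v : ℝ) - 0) + 2 * (Λ v - 0) + -ε + -(g * (v : ℝ) + 2 * Λ v) = 0 := by
          ring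
        rw [e3, Real.rpow_zero, mul_one]
      simp only [e1]
      exact le_rfl)
  obtain ⟨n, hn1, hn2, hn3, hn4, hn5⟩ := (hlow.and ((hd2.2 (ε / 20) (by positivity)).and (h0.and
    ((h.lev_mono 0 v le_rfl hv0 hv1).and (h.lev_mono v 1 hv0 hv1 le_rfl))))).exists
  obtain ⟨c, s, hs1, hs4⟩ := hn1 (A1 n) (Subset.refl _) hn2
  have h6 := hn3 c s hs1
  have h7 : (((alive (A1 n) (lev n 0) c).filter fun t => (T n).mem (lev n 0) c s (L n t)).card : ℝ) ≤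
      (((alive (I n) (lev n 0) c).filter fun t => (T n).mem (lev n 0) c s (L n t)).card : ℝ) := by
    exact_mod_cast card_le_card (filter_subset_filter _
      (alive_mono ((hA1 n).trans (hA0 n)) _ _))
  have h8 := capP_sup (T n) hΨ hn4 hn5 s.1 (a n) (atop n)
  have h9 := mul_le_mul_of_nonneg_left h8 (hA n).le
  have h10 : A n * VV T Ψ lev atop n (lev n 0) s.1 = A n * capP (T n) Ψ (lev n 1) (atop n)
    (lev n 0) s.1 := rfl
  have h11 : A n * Φ n * capP (T n) Ψ (lev n v) (a n) (lev n 0) s.1 =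
      A n * ((2 : ℝ) ^ (-(Ψ ((lev n 1 : ℝ) - lev n v) (rel (lev n v) (a n) (lev n 1) (atop n)))) *
        capP (T n) Ψ (lev n v) (a n) (lev n 0) s.1) := by
    simp only [hΦ]; ring
  linarith

open Classical in
/-- **(UP)**: a dense part has D-max at all levels. -/
theorem exists_dmx [Nonempty S] (h : Sq B I lev Λ) (𝒯 : Set (TS Ln ι S)) (hΨ : SupA Ψ) {g : ℝ}
    (hUB : UB 𝒯 Ψ g) (hT : ∀ n, T n ∈ 𝒯)
    (hfin : ∀ (n i : ℕ) (J : ℤ) (s : (ι → ℕ) × S), (T n).adm i J s → ∀ j, s.1 j ≤ N n)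
    (hNd : ∀ ε : ℝ, 0 < ε → ∀ᶠ n in (U : Filter ℕ), (N n : ℝ) ≤ B.d n ^ (-ε))
    (hA : ∀ n, 0 < A n)
    (h0 : ∀ᶠ n in (U : Filter ℕ), ∀ (J0 : ℤ) (s : (ι → ℕ) × S), (T n).adm (lev n 0) J0 s →
      (((alive (I n) (lev n 0) J0).filter fun t => (T n).mem (lev n 0) J0 s (L n t)).card : ℝ) ≤
        A n * VV T Ψ lev atop n (lev n 0) s.1) :
    ∃ J : ℕ → Finset (ℕ × ℝ), (∀ n, J n ⊆ I n) ∧ Dense B J I ∧
      Dmx B J T L lev A (fun v => g * v + 2 * Λ v) (VV T Ψ lev atop) := by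
  have hex : ∀ j : ℕ, ∃ E : ℕ → Finset (ℕ × ℝ), Negl B I (fun n x => x ∈ E n) ∧
      (0 ≤ (Denumerable.ofNat (ℚ × ℕ) j).1 → (Denumerable.ofNat (ℚ × ℕ) j).1 ≤ 1 →
      ∀ᶠ n in (U : Filter ℕ), ∀ Q ⊆ I n, (∀ x ∈ Q, x ∉ E n) → ∀ (J : ℤ) (s : (ι → ℕ) × S),
        (T n).adm (lev n (Denumerable.ofNat (ℚ × ℕ) j).1) J s →
          (((alive Q (lev n (Denumerable.ofNat (ℚ × ℕ) j).1) J).filter fun t =>
            (T n).mem (lev n (Denumerable.ofNat (ℚ × ℕ) j).1) J s (L n t)).card : ℝ) ≤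
            B.d n ^ (-(1 / (((Denumerable.ofNat (ℚ × ℕ) j).2 : ℝ) + 1))) *
              ampA B A (fun v => g * v + 2 * Λ v) n (Denumerable.ofNat (ℚ × ℕ) j).1 *
              VV T Ψ lev atop n (lev n (Denumerable.ofNat (ℚ × ℕ) j).1) s.1) := by
    intro j
    by_cases h1 : 0 ≤ (Denumerable.ofNat (ℚ × ℕ) j).1 ∧ (Denumerable.ofNat (ℚ × ℕ) j).1 ≤ 1
    · obtain ⟨E, hE1, hE2⟩ := up_one h 𝒯 hΨ hUB hT hfin hNd hA h0 h1.1 h1.2
        (ε := 1 / (((Denumerable.ofNat (ℚ × ℕ) j).2 : ℝ) + 1)) (by positivity)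
      exact ⟨E, hE1, fun _ _ => hE2⟩
    · refine ⟨fun _ => ∅, ⟨1, one_pos, Eventually.of_forall fun n => ?_⟩, fun h2 h3 =>
        absurd ⟨h2, h3⟩ h1⟩
      simp only [notMem_empty, filter_false, card_empty, Nat.cast_zero]
      exact mul_nonneg (dpow_pos B n _).le (Nat.cast_nonneg _)
  choose E hE1 hE2 using hex
  obtain ⟨J, hJI, hJd, hJ⟩ := exists_avoid (B := B) (I := I) (fun j n x => x ∈ E j n) hE1
  refine ⟨J, hJI, hJd, ?_⟩
  intro v hv0 hv1 ε hε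
  obtain ⟨k, hk⟩ := exists_nat_one_div_lt hε
  obtain ⟨j, hj⟩ : ∃ j, Denumerable.ofNat (ℚ × ℕ) j = (v, k) :=
    ⟨@Encodable.encode (ℚ × ℕ) Denumerable.toEncodable (v, k), Denumerable.ofNat_encode _⟩
  have h1 := hE2 j (by rw [hj]; exact hv0) (by rw [hj]; exact hv1)
  rw [hj] at h1
  filter_upwards [h1, hJ j] with n h2 h3 J0 s hs
  refine (h2 (J n) (hJI n) (fun x hx => h3 x hx) J0 s hs).trans ?_
  refine mul_le_mul_of_nonneg_right ?_ (VV_pos _ _ _).le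
  refine mul_le_mul_of_nonneg_right (dpow_le B n ?_) (ampA_pos hA _ n v).le
  have h4 : (((v, k) : ℚ × ℕ).2 : ℝ) = (k : ℝ) := rfl
  linarith

end

end Crest.Agent.R116.Xc4794
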