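import Mathlib
import Crest.Agent.R116.Xc4_794

/-!
# R116 (K side), block X1-C, class `Xc`, part 5 (helper794): own profile of a dense part

No polynomial bound on the number of incidences is used, only `one` (one incidence per line and cell
of level `1`).
-/

set_option autoImplicit false
set_option linter.unusedSectionVars false

open Finset Filter Topology

namespace Crest.Agent.R116.Xc5794

open Crest.Agent.R138.Ex926 Crest.Agent.R138.Dp76 Crest.Agent.R138.Ps627
open Crest.Agent.R138.Ps926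
open Crest.Agent.R138.NatTw76 (exists_avoid)
open Crest.Agent.R138.Mk163 (zc zl rho alive own Negl)
open Crest.Agent.R138.MkRef627 (lc kc own_one alive_mono mem_alive card_class own_lower exists_num)
open Crest.Agent.R138.MkZoom779 (zc_nested zc_eq)
open Crest.Agent.R116.Xa2794 (lc_nested)
open Crest.Agent.R116.Xa3794

open Classical in
/-- a line meets at most `2^(j-i)` cells of level `j` inside a cell of level `i`. -/
theorem own_card_le {I : Finset (ℕ × ℝ)} {i j : ℕ} (hij : i ≤ j) (x : ℕ × ℝ) :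
    (own I i j x).card ≤ 2 ^ (j - i) := by
  set k : ℕ := 2 ^ (j - i) with hk
  have hk0 : (0 : ℤ) < (k : ℤ) := by rw [hk]; positivity
  have hsub : own I i j x ⊆ Finset.Ico (zc i x.2 * k) (zc i x.2 * k + k) := by
    intro c hc
    unfold own at hc
    obtain ⟨y, hy, rfl⟩ := mem_image.1 hc
    have hy2 := (mem_filter.1 hy).2.2
    rw [zc_eq hij y.2] at hy2
    rw [mem_Ico, ← hy2]
    have h1 := Int.ediv_mul_le (zc j y.2) hk0.ne'
    have h2 := Int.lt_ediv_add_one_mul_self (zc j y.2) hk0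
    constructor
    · exact h1
    · linarith
  refine (card_le_card hsub).trans ?_
  rw [Int.card_Ico]
  have : (zc i x.2 * (k : ℤ) + k - zc i x.2 * k) = (k : ℤ) := by ring
  rw [this, Int.toNat_natCast]

theorem cmax_att {κ : Type*} [DecidableEq κ] (g : ℕ × ℝ → κ) {J : Finset (ℕ × ℝ)}
    (hJ : J.Nonempty) : ∃ x ∈ J, cmax g J = (J.filter fun y => g y = g x).card := by
  classical
  obtain ⟨x, hx, hx2⟩ := exists_mem_eq_sup J hJ
    (fun x => (J.filter fun y => g y = g x).card)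
  refine ⟨x, hx, ?_⟩
  unfold cmax
  convert hx2

/-- extension of a monotone 1-Lipschitz function on the rationals of `[0,1]`. -/
theorem exists_ext (F : ℚ → ℝ) (h : ∀ u v : ℚ, 0 ≤ u → u ≤ v → v ≤ 1 →
    0 ≤ F v - F u ∧ F v - F u ≤ (v : ℝ) - u) :
    ∃ Λ : ℝ → ℝ, (∀ v : ℚ, 0 ≤ v → v ≤ 1 → Λ v = F v - F 0) ∧
      ∀ u v : ℝ, 0 ≤ u → u ≤ v → v ≤ 1 → 0 ≤ Λ v - Λ u ∧ Λ v - Λ u ≤ v - u := by
  set Sx : ℝ → Set ℝ := fun x => {y | ∃ r : ℚ, 0 ≤ r ∧ r ≤ 1 ∧ (r : ℝ) ≤ x ∧ y = F r - F 0} with hS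
  have hbdd : ∀ x, BddAbove (Sx x) := by
    intro x
    refine ⟨1, ?_⟩
    rintro y ⟨r, hr0, hr1, -, rfl⟩
    have := (h 0 r le_rfl hr0 hr1).2
    have h2 : (r : ℝ) ≤ 1 := by exact_mod_cast hr1
    simp only [Rat.cast_zero, sub_zero] at this
    linarith
  have hne : ∀ x : ℝ, 0 ≤ x → (Sx x).Nonempty := fun x hx =>
    ⟨F 0 - F 0, 0, le_rfl, by norm_num, by simpa using hx, rfl⟩
  refine ⟨fun x => sSup (Sx x), ?_, ?_⟩
  · intro v hv0 hv1
    apply le_antisymm
    · refine csSup_le (hne _ (by exact_mod_cast hv0)) ?_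
      rintro y ⟨r, hr0, hr1, hrv, rfl⟩
      have hrv' : r ≤ v := by exact_mod_cast hrv
      linarith [(h r v hr0 hrv' hv1).1]
    · exact le_csSup (hbdd _) ⟨v, hv0, hv1, le_rfl, rfl⟩
  · intro u v hu huv hv
    have hv0 := hu.trans huv
    refine ⟨?_, ?_⟩
    · rw [sub_nonneg]
      refine csSup_le_csSup (hbdd _) (hne u hu) ?_
      rintro y ⟨r, hr0, hr1, hru, rfl⟩
      exact ⟨r, hr0, hr1, hru.trans huv, rfl⟩
    · rw [sub_le_iff_le_add]
      refine csSup_le (hne v hv0) ?_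
      rintro y ⟨r, hr0, hr1, hrv, rfl⟩
      rcases le_or_gt (r : ℝ) u with hru | hru
      · have : F r - F 0 ≤ sSup (Sx u) := le_csSup (hbdd _) ⟨r, hr0, hr1, hru, rfl⟩
        linarith
      · refine le_of_forall_pos_le_add fun ε hε => ?_
        obtain ⟨s, hs0, hsu, hs⟩ : ∃ s : ℚ, 0 ≤ s ∧ (s : ℝ) ≤ u ∧ u - ε ≤ s := by
          rcases hu.eq_or_lt with hu0 | hu0
          · exact ⟨0, le_rfl, by simpa using hu, by rw [← hu0]; simp; linarith⟩
          · obtain ⟨s, hs1, hs2⟩ := exists_rat_btwn (show max 0 (u - ε) < u from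
              max_lt hu0 (by linarith))
            have h3 : (0 : ℝ) < s := (le_max_left _ _).trans_lt hs1
            exact ⟨s, by exact_mod_cast h3.le, hs2.le, ((le_max_right _ _).trans_lt hs1).le⟩
        have hsr : s ≤ r := by
          have : (s : ℝ) ≤ r := hsu.trans hru.le
          exact_mod_cast this
        have h4 := (h s r hs0 hsr hr1).2
        have h5 : F s - F 0 ≤ sSup (Sx u) := le_csSup (hbdd _) ⟨s, hs0, hsr.trans hr1, hsu, rfl⟩
        linarith

open Classical in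
/-- **own profile.** -/
theorem exists_profile {B : Base} {I1 : ℕ → Finset (ℕ × ℝ)} {lev : ℕ → ℚ → ℕ}
    (hne : ∀ᶠ n in (U : Filter ℕ), (I1 n).Nonempty)
    (hcard : ∀ ε : ℝ, 0 < ε → ∀ᶠ n in (U : Filter ℕ), Real.log ((I1 n).card : ℝ) ≤ B.d n ^ (-ε))
    (hlm : ∀ u v : ℚ, 0 ≤ u → u ≤ v → v ≤ 1 → ∀ᶠ n in (U : Filter ℕ), lev n u ≤ lev n v)
    (hll : ∀ u v : ℚ, 0 ≤ u → u ≤ v → v ≤ 1 →
      Tendsto (fun n => ((lev n v : ℝ) - lev n u) * Real.log 2 / B.L n) U (𝓝 ((v : ℝ) - u)))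
    (hcell : ∀ᶠ n in (U : Filter ℕ), ∀ x ∈ I1 n, ∀ y ∈ I1 n,
      zc (lev n 0) x.2 = zc (lev n 0) y.2)
    (hone : ∀ᶠ n in (U : Filter ℕ), ∀ x ∈ I1 n, ∀ y ∈ I1 n, x.1 = y.1 →
      zc (lev n 1) x.2 = zc (lev n 1) y.2 → x = y)
    (e : ℕ → ℕ → ℕ × ℝ → ℕ × ℤ) :
    ∃ (I2 : ℕ → Finset (ℕ × ℝ)) (Λ : ℝ → ℝ), (∀ n, I2 n ⊆ I1 n) ∧ Dense B I2 I1 ∧
      Sq B I2 lev Λ ∧ ∀ j : ℕ, ∀ ε : ℝ, 0 < ε → ∀ᶠ n in (U : Filter ℕ), ∀ x ∈ I2 n,
        B.d n ^ ε * (((I1 n).filter fun y => e j n y = e j n x).card : ℝ) ≤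
          (((I2 n).filter fun y => e j n y = e j n x).card : ℝ) := by
  -- the levels
  set w : ℕ → ℚ := fun j => max 0 (min (Denumerable.ofNat ℚ j) 1) with hw
  have hw01 : ∀ j, 0 ≤ w j ∧ w j ≤ 1 := fun j =>
    ⟨le_max_left _ _, max_le (by norm_num) (min_le_right _ _)⟩
  have hwex : ∀ v : ℚ, 0 ≤ v → v ≤ 1 → ∃ j, w j = v := by
    intro v h0 h1
    obtain ⟨j, hj⟩ := exists_num v
    exact ⟨j, by rw [hw]; simp only [hj]; rw [min_eq_left h1, max_eq_right h0]⟩
  -- fibres are polynomially bounded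
  have hfb : ∀ v : ℚ, 0 ≤ v → v ≤ 1 → ∀ᶠ n in (U : Filter ℕ), ∀ x ∈ I1 n,
      (((I1 n).filter fun y => lc (lev n v) y = lc (lev n v) x).card : ℝ) ≤ B.d n ^ (-(2 : ℝ)) := by
    intro v h0 h1
    have h2 := (hll 0 1 le_rfl zero_le_one le_rfl).eventually_lt_const
      (show ((1 : ℚ) : ℝ) - ((0 : ℚ) : ℝ) < 2 by norm_num)
    filter_upwards [hlm 0 v le_rfl h0 h1, hlm 0 1 le_rfl zero_le_one le_rfl, hone, h2]
      with n h3 h4 h5 h6 x hx
    have h7 : ((I1 n).filter fun y => lc (lev n v) y = lc (lev n v) x) ⊆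
        (I1 n).filter fun y => lc (lev n 0) y = lc (lev n 0) x := by
      intro y hy
      rw [mem_filter] at hy ⊢
      exact ⟨hy.1, lc_nested h3 hy.2⟩
    have h8 := card_le_card h7
    rw [← own_one (i := lev n 0) h5 x] at h8
    have h9 := h8.trans (own_card_le h4 x)
    have h10 : (((I1 n).filter fun y => lc (lev n v) y = lc (lev n v) x).card : ℝ) ≤
        (2 : ℝ) ^ (((lev n 1 : ℝ) - lev n 0)) := by
      have h11 : (((lev n 1 : ℝ) - lev n 0)) = ((lev n 1 - lev n 0 : ℕ) : ℝ) := by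
        rw [Nat.cast_sub h4]
      rw [h11, Real.rpow_natCast]
      exact_mod_cast h9
    exact h10.trans (two_rpow_le h6.le)
  -- the functionals
  set Φ : ℕ → ∀ n : ℕ, Finset (ℕ × ℝ) → ℝ := fun j n J => (cmax (lc (lev n (w j))) J : ℝ) with hΦ
  have hΦM : ∀ j, MonoF B I1 (Φ j) := by
    intro j
    refine ⟨Eventually.of_forall fun n J J' _ h _ => by
      simp only [hΦ]; exact_mod_cast cmax_mono _ h, 2, ?_⟩
    filter_upwards [hfb (w j) (hw01 j).1 (hw01 j).2] with n hn J hJ hJI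
    refine ⟨?_, ?_⟩
    · have h1 : (1 : ℝ) ≤ cmax (lc (lev n (w j))) J := by exact_mod_cast one_le_cmax _ hJ
      exact (dpow_le_one B n (by norm_num)).trans h1
    · obtain ⟨x, hx, h2⟩ := cmax_att (lc (lev n (w j))) hJ
      simp only [hΦ]
      rw [h2]
      refine le_trans ?_ (hn x (hJI hx))
      exact_mod_cast card_le_card (filter_subset_filter _ hJI)
  obtain ⟨I0, hI0, hst⟩ := exists_stableF hne Φ hΦM
  -- make `I0 n ⊆ I1 n` for every `n`
  set I2 : ℕ → Finset (ℕ × ℝ) := fun n => I0 n ∩ I1 n with hI2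
  have hI20 : ∀ᶠ n in (U : Filter ℕ), I2 n = I0 n := by
    filter_upwards [hI0.1] with n hn
    exact inter_eq_left.2 hn
  have hI2d : Dense B I2 I1 := by
    refine ⟨Eventually.of_forall fun n => inter_subset_right, fun η hη => ?_⟩
    filter_upwards [hI0.2 η hη, hI20] with n h1 h2
    rw [h2]; exact h1
  have hI2d0 : Dense B I2 I0 := by
    refine dense_of_half ?_
    filter_upwards [hI20] with n hn
    rw [hn]
    refine ⟨Subset.refl _, ?_⟩
    have : (0 : ℝ) ≤ ((I0 n).card : ℝ) := Nat.cast_nonneg _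
    linarith
  have hst2 : ∀ j, StableF B (Φ j) I2 := fun j => (hst j).dense hI2d0
  have hI2I1 : ∀ n, I2 n ⊆ I1 n := fun n => inter_subset_right
  have hI2ne := hI2d.nonempty hne
  have hrefl : ∀ᶠ n in (U : Filter ℕ), I2 n ⊆ I2 n := Eventually.of_forall fun n => Subset.refl _
  have hΦM2 : ∀ j, MonoF B I2 (Φ j) := fun j => (hΦM j).restrict (Eventually.of_forall hI2I1)
  have hPB : ∀ j, B.PB (fun n => Φ j n (I2 n)) := fun j => (hΦM2 j).pb hrefl hI2ne
  -- small fibres are negligible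
  have hneg : ∀ i : ℕ, Negl B I2 (fun n x =>
      (((I2 n).filter fun y => lc (lev n (w (Nat.unpair i).1)) y =
        lc (lev n (w (Nat.unpair i).1)) x).card : ℝ) <
      B.d n ^ (1 / (((Nat.unpair i).2 : ℝ) + 1)) * Φ (Nat.unpair i).1 n (I2 n)) := by
    intro i
    set j := (Nat.unpair i).1 with hj
    set c : ℝ := 1 / (((Nat.unpair i).2 : ℝ) + 1) with hc
    have hc0 : 0 < c := by rw [hc]; positivity
    set J : ℕ → Finset (ℕ × ℝ) := fun n => (I2 n).filter fun x =>
      (((I2 n).filter fun y => lc (lev n (w j)) y = lc (lev n (w j)) x).card : ℝ) <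
        B.d n ^ c * Φ j n (I2 n) with hJ
    have hnd : ¬ Dense B J I2 := by
      refine (hst2 j).not_dense_of_le (hΦM2 j) hI2ne (X := fun n => B.d n ^ c * Φ j n (I2 n))
        ((Base.PB.dpow c).mul (hPB j)) ?_ ?_
      · rw [Base.ex_mul (Base.PB.dpow c) (hPB j), Base.ex_dpow]
        linarith
      · refine Eventually.of_forall fun n hn => ?_
        obtain ⟨x, hx, h2⟩ := cmax_att (lc (lev n (w j))) hn
        have h3 : Φ j n (J n) =
          (((J n).filter fun y => lc (lev n (w j)) y = lc (lev n (w j)) x).card : ℝ) := by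
          simp only [hΦ]; rw [h2]
        rw [h3]
        have h4 := (mem_filter.1 hx).2
        refine le_trans ?_ h4.le
        exact_mod_cast card_le_card (filter_subset_filter _ (filter_subset _ _))
    obtain ⟨γ, hγ, h5⟩ := small_of_not_dense (Eventually.of_forall fun n => filter_subset _ _) hnd
    refine ⟨γ, hγ, ?_⟩
    filter_upwards [h5] with n hn
    exact hn.le
  obtain ⟨J3, hJ3I, hJ3d, hJ3⟩ := exists_avoid (B := B) (I := I2) _ hneg
  -- pruning relative to `I1`
  obtain ⟨J4, hsub, hhalf, hfib⟩ := prune_seq (η := fun _ _ => ℕ × ℤ) (hJ3d.trans hI2d)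
    (fun j n x => if j % 2 = 0 then lc (lev n (w (j / 2))) x else e (j / 2) n x)
  have hJ4J3 : Dense B J4 J3 := dense_of_half (by
    filter_upwards [hhalf] with n hn using ⟨(hsub n).1, hn⟩)
  have hJ4I1 : Dense B J4 I1 := hJ4J3.trans (hJ3d.trans hI2d)
  have hJ4ne := hJ4I1.nonempty hne
  have fl : ∀ j : ℕ, ∀ ε : ℝ, 0 < ε → ∀ᶠ n in (U : Filter ℕ), ∀ x ∈ J4 n,
      B.d n ^ ε * (((I1 n).filter fun y => lc (lev n (w j)) y = lc (lev n (w j)) x).card : ℝ) ≤
        (((J4 n).filter fun y => lc (lev n (w j)) y = lc (lev n (w j)) x).card : ℝ) := by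
    intro j ε hε
    filter_upwards [hfib (2 * j) ε hε] with n hn x hx
    have h1 := hn x hx
    have h2 : (2 * j) / 2 = j := by omega
    have h3 : (2 * j) % 2 = 0 := by omega
    simp only [h3, h2, if_true] at h1
    exact h1
  have fe : ∀ j : ℕ, ∀ ε : ℝ, 0 < ε → ∀ᶠ n in (U : Filter ℕ), ∀ x ∈ J4 n,
      B.d n ^ ε * (((I1 n).filter fun y => e j n y = e j n x).card : ℝ) ≤
        (((J4 n).filter fun y => e j n y = e j n x).card : ℝ) := by
    intro j ε hε
    filter_upwards [hfib (2 * j + 1) ε hε] with n hn x hx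
    have h1 := hn x hx
    have h2 : (2 * j + 1) / 2 = j := by omega
    have h3 : ¬ (2 * j + 1) % 2 = 0 := by omega
    simp only [h3, h2, if_false] at h1
    exact h1
  -- the exponents
  set κ : ℚ → ℝ := fun v => B.ex (fun n => (cmax (lc (lev n v)) (I2 n) : ℝ)) with hκ
  have hPBv : ∀ v : ℚ, 0 ≤ v → v ≤ 1 → B.PB (fun n => (cmax (lc (lev n v)) (I2 n) : ℝ)) := by
    intro v h0 h1
    obtain ⟨j, rfl⟩ := hwex v h0 h1
    exact hPB j
  have hfib2 : ∀ v : ℚ, 0 ≤ v → v ≤ 1 → ∀ ε : ℝ, 0 < ε → ∀ᶠ n in (U : Filter ℕ), ∀ x ∈ J4 n,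
      B.d n ^ (-κ v + ε) ≤ (((J4 n).filter fun y => lc (lev n v) y = lc (lev n v) x).card : ℝ) ∧
      (((J4 n).filter fun y => lc (lev n v) y = lc (lev n v) x).card : ℝ) ≤
        B.d n ^ (-κ v - ε) := by
    intro v h0 h1 ε hε
    obtain ⟨j, rfl⟩ := hwex v h0 h1
    obtain ⟨k, hk⟩ := exists_nat_one_div_lt (show (0 : ℝ) < ε / 3 by positivity)
    have ha := Base.ex_lt_iff_dpow (hPB j) (a := κ (w j) + ε) (show κ (w j) < κ (w j) + ε by
      linarith)
    have hb := Base.lt_ex_dpow (hPB j) (a := κ (w j) - ε / 3)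
      (show κ (w j) - ε / 3 < κ (w j) by linarith)
    have hav := hJ3 (Nat.pair j k)
    simp only [Nat.unpair_pair] at hav
    filter_upwards [ha, hb, hav, fl j (ε / 3) (by positivity)] with n h2 h3 h4 h5 x hx
    have hxJ3 := (hsub n).1 hx
    have h6 := h4 x hxJ3
    push Not at h6
    have h7 := h5 x hx
    have h8 : (((I2 n).filter fun y => lc (lev n (w j)) y = lc (lev n (w j)) x).card : ℝ) ≤
        (((I1 n).filter fun y => lc (lev n (w j)) y = lc (lev n (w j)) x).card : ℝ) := by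
      exact_mod_cast card_le_card (filter_subset_filter _ (hI2I1 n))
    refine ⟨?_, ?_⟩
    · have h9 : B.d n ^ (ε / 3) * (B.d n ^ (1 / ((k : ℝ) + 1)) * Φ j n (I2 n)) ≤
          (((J4 n).filter fun y => lc (lev n (w j)) y = lc (lev n (w j)) x).card : ℝ) :=
        (mul_le_mul_of_nonneg_left (h6.trans h8) (dpow_pos B n _).le).trans h7
      refine le_trans ?_ h9
      have h10 : B.d n ^ (ε / 3) * (B.d n ^ (ε / 3) * B.d n ^ (-(κ (w j) - ε / 3))) ≤
          B.d n ^ (ε / 3) * (B.d n ^ (1 / ((k : ℝ) + 1)) * Φ j n (I2 n)) := by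
        refine mul_le_mul_of_nonneg_left ?_ (dpow_pos B n _).le
        exact mul_le_mul (dpow_le B n hk.le) h3.le (dpow_pos B n _).le (dpow_pos B n _).le
      refine le_trans (le_of_eq ?_) h10
      rw [← dpow_add, ← dpow_add]
      congr 1; ring
    · have hxI2 := hJ3I n hxJ3
      have h9 : (((I2 n).filter fun y => lc (lev n (w j)) y = lc (lev n (w j)) x).card : ℝ) ≤
          Φ j n (I2 n) := by
        simp only [hΦ]
        exact_mod_cast le_cmax (lc (lev n (w j))) hxI2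
      have h10 : (((J4 n).filter fun y => lc (lev n (w j)) y = lc (lev n (w j)) x).card : ℝ) ≤
          (((I2 n).filter fun y => lc (lev n (w j)) y = lc (lev n (w j)) x).card : ℝ) := by
        exact_mod_cast card_le_card (filter_subset_filter _ ((hsub n).1.trans (hJ3I n)))
      refine (h10.trans (h9.trans h2.le)).trans (le_of_eq ?_)
      congr 1; ring
  -- differences of exponents
  have hdiff : ∀ u v : ℚ, 0 ≤ u → u ≤ v → v ≤ 1 → 0 ≤ κ u - κ v ∧ κ u - κ v ≤ (v : ℝ) - u := by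
    intro u v hu huv hv
    have hPu := hPBv u hu (huv.trans hv)
    have hPv := hPBv v (hu.trans huv) hv
    refine ⟨?_, ?_⟩
    · rw [sub_nonneg]
      refine Base.ex_le hPv hPu ?_
      filter_upwards [hlm u v hu huv hv, hI2ne] with n h1 h2
      obtain ⟨x, hx, h3⟩ := cmax_att (lc (lev n v)) h2
      have h4 := le_cmax (lc (lev n u)) hx
      rw [h3]
      have h5 : ((I2 n).filter fun y => lc (lev n v) y = lc (lev n v) x) ⊆
          (I2 n).filter fun y => lc (lev n u) y = lc (lev n u) x := by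
        intro y hy
        rw [mem_filter] at hy ⊢
        exact ⟨hy.1, lc_nested h1 hy.2⟩
      have h6 := (card_le_card h5).trans (by convert h4)
      exact_mod_cast h6
    · have hlim := hll u v hu huv hv
      have hX : Tendsto (B.lg (fun n => (2 : ℝ) ^ ((lev n v : ℝ) - lev n u))) U
          (𝓝 ((v : ℝ) - u)) := by
        refine hlim.congr fun n => ?_
        simp only [Base.lg]
        rw [Real.log_rpow two_pos]
      have hXp : ∀ᶠ n in (U : Filter ℕ), 0 < (2 : ℝ) ^ ((lev n v : ℝ) - lev n u) :=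
        Eventually.of_forall fun n => Real.rpow_pos_of_pos two_pos _
      have hXPB : B.PB (fun n => (2 : ℝ) ^ ((lev n v : ℝ) - lev n u)) :=
        Base.PB.of_tendsto hXp hX
      have h1 : B.ex (fun n => (cmax (lc (lev n u)) (I2 n) : ℝ)) ≤
          B.ex (fun n => (2 : ℝ) ^ ((lev n v : ℝ) - lev n u) *
            (cmax (lc (lev n v)) (I2 n) : ℝ)) := by
        refine Base.ex_le hPu (hXPB.mul hPv) ?_
        filter_upwards [hlm u v hu huv hv, hI2ne] with n h1 h2
        obtain ⟨x, hx, h3⟩ := cmax_att (lc (lev n u)) h2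
        rw [h3]
        have h4 := own_lower (J := I2 n) (i := lev n u) (j := lev n v) (x := x)
          (m := (cmax (lc (lev n v)) (I2 n) : ℝ)) (fun y hy => by
            exact_mod_cast (by convert le_cmax (lc (lev n v)) hy)) hx
        have h5 := own_card_le (I := I2 n) h1 x
        have h6 : ((own (I2 n) (lev n u) (lev n v) x).card : ℝ) ≤
            (2 : ℝ) ^ ((lev n v : ℝ) - lev n u) := by
          have h11 : (((lev n v : ℝ) - lev n u)) = ((lev n v - lev n u : ℕ) : ℝ) := by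
            rw [Nat.cast_sub h1]
          rw [h11, Real.rpow_natCast]
          exact_mod_cast h5
        refine h4.trans ?_
        rw [mul_comm]
        exact mul_le_mul_of_nonneg_right h6 (Nat.cast_nonneg _)
      rw [Base.ex_mul hXPB hPv, Base.ex_eq_of_tendsto hX] at h1
      have h2 : κ u ≤ (v : ℝ) - u + κ v := h1
      linarith
  have hκ1 : κ 1 = 0 := by
    have h1 : ∀ᶠ n in (U : Filter ℕ), (cmax (lc (lev n 1)) (I2 n) : ℝ) = 1 := by
      filter_upwards [hone, hI2ne] with n h1 h2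
      have h3 : cmax (lc (lev n 1)) (I2 n) ≤ 1 := by
        refine cmax_le _ fun x hx => ?_
        rw [card_le_one]
        intro y hy z hz
        rw [mem_filter] at hy hz
        obtain ⟨a1, a2⟩ := Prod.mk.inj (hy.2.trans hz.2.symm)
        exact h1 y (hI2I1 n hy.1) z (hI2I1 n hz.1) a1 a2
      have h4 := one_le_cmax (lc (lev n 1)) h2
      have h5 : cmax (lc (lev n 1)) (I2 n) = 1 := le_antisymm h3 h4
      rw [h5]; norm_num
    have h2 : κ 1 = B.ex (fun _ => (1 : ℝ)) := Base.ex_congr (hPBv 1 zero_le_one le_rfl) h1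
    rw [h2, Base.ex_const]
  -- the profile
  obtain ⟨Λ, hΛ, hΛ2⟩ := exists_ext (fun v => κ v + (v : ℝ)) (by
    intro u v hu huv hv
    have := hdiff u v hu huv hv
    constructor <;> linarith [this.1, this.2])
  refine ⟨J4, Λ, fun n => (hsub n).2, hJ4I1, ?_, fe⟩
  refine
    { ne := hJ4ne
      card := ?_
      lam0 := ?_
      lam := hΛ2
      lev_mono := hlm
      lev_lim := hll
      cell0 := by
        filter_upwards [hcell] with n hn x hx y hy using hn x ((hsub n).2 hx) y ((hsub n).2 hy)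
      one := by
        filter_upwards [hone] with n hn x hx y hy using hn x ((hsub n).2 hx) y ((hsub n).2 hy)
      fib := ?_ }
  · intro ε hε
    filter_upwards [hcard ε hε, hJ4ne] with n hn hne
    refine le_trans (Real.log_le_log (by exact_mod_cast card_pos.2 hne)
      (by exact_mod_cast card_le_card (hsub n).2)) hn
  · have := hΛ 0 le_rfl zero_le_one
    simpa using this
  · intro v h0 h1 ε hε
    have e1 : -(1 - (v : ℝ)) + (Λ 1 - Λ v) = -κ v := by
      have h2 := hΛ v h0 h1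
      have h3 := hΛ 1 zero_le_one le_rfl
      rw [Rat.cast_one] at h3
      rw [h2, h3, hκ1]
      ring
    rw [e1]
    exact hfib2 v h0 h1 ε hε

end Crest.Agent.R116.Xc5794
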