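import Mathlib
import Crest.Agent.R116.Xc5_794

/-!
# R116 (K side), block X1-C, class `Xc`, part 6 (helper794): the initial near-extremal sequence
-/

set_option autoImplicit false
set_option linter.unusedSectionVars false

open Finset Filter Topology

namespace Crest.Agent.R116.Xc6794

open Crest.Agent.R138.Ex926 Crest.Agent.R138.Dp76 Crest.Agent.R138.Ps627
open Crest.Agent.R138.Ps926
open Crest.Agent.R138.Mk163 (zc zl rho alive own Negl)
open Crest.Agent.R138.MkRef627 (lc kc own_one alive_mono mem_alive card_class own_lower exists_num)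
open Crest.Agent.R138.MkZoom779 (zc_nested zc_eq exists_rep)
open Crest.Agent.R136.MkA627 (ampA Geo MkA)
open Crest.Agent.R116.Xa794 (TS)
open Crest.Agent.R116.Xa2794 (lc_nested class_fib_ge class_fib_le)
open Crest.Agent.R116.Xa3794
open Crest.Agent.R116.Xc794 Crest.Agent.R116.Xc1794 Crest.Agent.R116.Xc2794
open Crest.Agent.R116.Xc3794 Crest.Agent.R116.Xc4794 Crest.Agent.R116.Xc5794

variable {Ln ι S : Type} [Fintype ι]

open Classical in
/-- one incidence per line and cell of the top level. -/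
theorem rep_ok {T : TS Ln ι S} {Ψ : ℝ → (ι → ℝ) → ℝ} {F : Cfg Ln ι S} (h : F.Ok T Ψ) :
    ∃ F' : Cfg Ln ι S, F'.Ok T Ψ ∧ F'.m = F.m ∧ F'.M = F.M ∧ F'.N = F.N ∧ F'.D0 = F.D0 ∧
      F'.D1 = F.D1 ∧ F'.nu = F.nu ∧ F'.I ⊆ F.I ∧
      ∀ x ∈ F'.I, ∀ y ∈ F'.I, x.1 = y.1 → zc (F.m + F.M) x.2 = zc (F.m + F.M) y.2 → x = y := by
  obtain ⟨I1, hI1, hone, hfull⟩ := exists_rep F.I (F.m + F.M)
  refine ⟨{ F with I := I1 }, ?_, rfl, rfl, rfl, rfl, rfl, rfl, hI1, hone⟩
  have hal : ∀ J, alive F.I (F.m + F.M) J = alive I1 (F.m + F.M) J := by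
    intro J
    ext t
    rw [mem_alive, mem_alive]
    constructor
    · rintro ⟨y, hy, h1, h2⟩
      obtain ⟨x, hx, h3, h4⟩ := hfull y hy
      exact ⟨x, hx, h3.trans h1, h4.trans h2⟩
    · rintro ⟨y, hy, h1, h2⟩
      exact ⟨y, hI1 hy, h1, h2⟩
  refine
    { M1 := h.M1
      ne := ?_
      cell := fun x hx y hy => h.cell x (hI1 hx) y (hI1 hy)
      D1p := h.D1p
      nup := h.nup
      fin := h.fin
      top := ?_
      low := ?_
      own := ?_
      up := ?_ }
  · obtain ⟨y, hy⟩ := h.ne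
    obtain ⟨x, hx, -⟩ := hfull y hy
    exact ⟨x, hx⟩
  · intro J t ht
    exact h.top J t (alive_mono hI1 _ _ ht)
  · intro J t ht
    have h1 := h.low J t (alive_mono hI1 _ _ ht)
    rw [hal J] at h1
    exact h1
  · intro x hx
    have h1 := h.own x (hI1 hx)
    refine h1.trans ?_
    have : own F.I F.m (F.m + F.M) x ⊆ own I1 F.m (F.m + F.M) x := by
      intro c hc
      unfold own at hc ⊢
      obtain ⟨y, hy, rfl⟩ := mem_image.1 hc
      rw [mem_filter] at hy
      obtain ⟨x', hx', h3, h4⟩ := hfull y hy.1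
      refine mem_image.2 ⟨x', mem_filter.2 ⟨hx', h3.trans hy.2.1, ?_⟩, h4⟩
      exact (zc_nested (Nat.le_add_right _ _) h4).trans hy.2.2
    exact_mod_cast card_le_card this
  · intro J s hs
    refine le_trans ?_ (h.up J s hs)
    exact_mod_cast card_le_card (filter_subset_filter _ (alive_mono hI1 _ _))

open Classical in
/-- **the initial sequence.** -/
theorem exists_init {𝒯 : Set (TS Ln ι S)} {Ψ : ℝ → (ι → ℝ) → ℝ} {g : ℝ}
    (hΨ0 : Ψ 0 (fun _ => 0) = 0) (hlow : ∀ b < g, ¬ UB 𝒯 Ψ b) (hUB : UB 𝒯 Ψ g) :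
    ∃ (B : Base) (I : ℕ → Finset (ℕ × ℝ)) (T : ℕ → TS Ln ι S) (L : ℕ → ℕ → Ln)
      (lev : ℕ → ℚ → ℕ) (A : ℕ → ℝ) (Λ : ℝ → ℝ) (f : ℕ → ℕ → ℤ → ℕ) (b : ℕ → ℕ → (ι → ℕ) × S)
      (atop : ℕ → ι → ℕ) (N : ℕ → ℕ),
      Nonempty S ∧ (∀ n, T n ∈ 𝒯) ∧
      (∀ (n i : ℕ) (J : ℤ) (s : (ι → ℕ) × S), (T n).adm i J s → ∀ j, s.1 j ≤ N n) ∧
      (∀ ε : ℝ, 0 < ε → ∀ᶠ n in (U : Filter ℕ), (N n : ℝ) ≤ B.d n ^ (-ε)) ∧
      (∀ n, 0 < A n) ∧ Sq B I lev Λ ∧
      (∀ᶠ n in (U : Filter ℕ), ∀ (J0 : ℤ) (s : (ι → ℕ) × S), (T n).adm (lev n 0) J0 s →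
        (((alive (I n) (lev n 0) J0).filter fun t => (T n).mem (lev n 0) J0 s (L n t)).card : ℝ) ≤
          A n * VV T Ψ lev atop n (lev n 0) s.1) ∧
      Mrk B I T L lev A (fun v => g * v + 2 * Λ v) (VV T Ψ lev atop) 1 f b atop := by
  -- the configurations
  obtain ⟨δs, hδs, Ms, hMs⟩ := hUB 1 one_pos
  have hex : ∀ n : ℕ, ∃ T ∈ 𝒯, ∃ F : Cfg Ln ι S, F.Ok T Ψ ∧ n ≤ F.M ∧
      Real.log (F.I.card : ℝ) ≤ (2 : ℝ) ^ (1 / ((n : ℝ) + 1) * F.M) ∧
      (F.N : ℝ) ≤ (2 : ℝ) ^ (1 / ((n : ℝ) + 1) * F.M) ∧ 0 < F.D0 ∧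
      (2 : ℝ) ^ ((g - 1 / ((n : ℝ) + 1)) * F.M) * 4 ^ F.M * F.D0 ≤ F.D1 * F.nu ^ 2 ∧
      ∀ x ∈ F.I, ∀ y ∈ F.I, x.1 = y.1 → zc (F.m + F.M) x.2 = zc (F.m + F.M) y.2 → x = y := by
    intro n
    have hp : (0 : ℝ) < 1 / ((n : ℝ) + 1) := by positivity
    have h1 := hlow (g - 1 / ((n : ℝ) + 1)) (by linarith)
    unfold UB at h1
    push Not at h1
    obtain ⟨η, hη, h2⟩ := h1
    obtain ⟨T, hT, F, hF, hM, hc, hN, hlt⟩ := h2 (min (1 / ((n : ℝ) + 1)) δs) (lt_min hp hδs)
      (max n Ms)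
    obtain ⟨F', hF', e1, e2, e3, e4, e5, e6, e7, e8⟩ := rep_ok hF
    have hMp : (0 : ℝ) ≤ (F.M : ℝ) := Nat.cast_nonneg _
    have hle1 : (2 : ℝ) ^ (min (1 / ((n : ℝ) + 1)) δs * F.M) ≤ (2 : ℝ) ^ (1 / ((n : ℝ) + 1) * F.M) :=
      Real.rpow_le_rpow_of_exponent_le (by norm_num)
        (mul_le_mul_of_nonneg_right (min_le_left _ _) hMp)
    have hle2 : (2 : ℝ) ^ (min (1 / ((n : ℝ) + 1)) δs * F.M) ≤ (2 : ℝ) ^ (δs * F.M) :=
      Real.rpow_le_rpow_of_exponent_le (by norm_num)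
        (mul_le_mul_of_nonneg_right (min_le_right _ _) hMp)
    have hD0 : 0 < F.D0 := by
      have h3 := hMs T hT F hF ((le_max_right _ _).trans hM) (hc.trans hle2) (hN.trans hle2)
      have h4 : 0 < F.D1 * F.nu ^ 2 := mul_pos hF.D1p (pow_pos hF.nup 2)
      by_contra hneg
      push Not at hneg
      have h5 : (2 : ℝ) ^ ((g + 1) * F.M) * 4 ^ F.M * F.D0 ≤ 0 :=
        mul_nonpos_of_nonneg_of_nonpos (by positivity) hneg
      linarith
    refine ⟨T, hT, F', hF', by rw [e2]; exact (le_max_left _ _).trans hM, ?_, ?_, by rw [e4]; exact hD0,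
      ?_, by rw [e1, e2]; exact e8⟩
    · rw [e2]
      refine le_trans (Real.log_le_log ?_ ?_) (hc.trans hle1)
      · exact_mod_cast card_pos.2 hF'.ne
      · exact_mod_cast card_le_card e7
    · rw [e2, e3]; exact hN.trans hle1
    · rw [e2, e4, e5, e6]
      refine le_trans ?_ hlt.le
      refine mul_le_mul_of_nonneg_right ?_ hD0.le
      refine mul_le_mul_of_nonneg_right ?_ (by positivity)
      refine Real.rpow_le_rpow_of_exponent_le (by norm_num) ?_
      nlinarith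
  choose T hT F hF hM hc hN hD0 hgap hone using hex
  have hM1 : ∀ n, 1 ≤ (F n).M := fun n => (hF n).M1
  have hlog2 : 0 < Real.log 2 := Real.log_pos (by norm_num)
  -- the base
  set B : Base :=
    { d := fun n => (1 / 2 : ℝ) ^ (F n).M
      pos := fun n => by positivity
      lt := fun n => pow_lt_one₀ (by norm_num) (by norm_num) (by have := hM1 n; omega)
      lim0 := by
        have h1 : Tendsto (fun n : ℕ => (1 / 2 : ℝ) ^ n) U (𝓝 0) :=
          (tendsto_pow_atTop_nhds_zero_of_lt_one (by norm_num) (by norm_num)).mono_left U_le_atTop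
        refine squeeze_zero (fun n => by positivity) (fun n => ?_) h1
        exact pow_le_pow_of_le_one (by norm_num) (by norm_num) (hM n) } with hB
  have hBL : ∀ n, B.L n = (F n).M * Real.log 2 := by
    intro n
    have : B.L n = - Real.log ((1 / 2 : ℝ) ^ (F n).M) := rfl
    rw [this, Real.log_pow, one_div, Real.log_inv]; ring
  have hMpos : ∀ n, (0 : ℝ) < ((F n).M : ℝ) := fun n => by exact_mod_cast hM1 n
  have hdp : ∀ n (e : ℝ), B.d n ^ (-e) = (2 : ℝ) ^ (e * (F n).M) := by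
    intro n e
    apply le_antisymm
    · refine le_two_rpow ?_
      rw [hBL]
      rw [show e * ((F n).M : ℝ) * Real.log 2 / (((F n).M : ℝ) * Real.log 2) = e by
        field_simp [(hMpos n).ne']]
    · refine two_rpow_le ?_
      rw [hBL]
      rw [show e * ((F n).M : ℝ) * Real.log 2 / (((F n).M : ℝ) * Real.log 2) = e by
        field_simp [(hMpos n).ne']]
  have hMlim : Tendsto (fun n => ((F n).M : ℝ)) U atTop := by
    refine tendsto_atTop_mono (fun n => (by exact_mod_cast hM n : (n : ℝ) ≤ (F n).M)) ?_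
    exact tendsto_natCast_atTop_atTop.mono_left U_le_atTop
  -- `1/(n+1)` is eventually small
  have hsm : ∀ ε : ℝ, 0 < ε → ∀ᶠ n : ℕ in (U : Filter ℕ), 1 / ((n : ℝ) + 1) ≤ ε := by
    intro ε hε
    have h1 : Tendsto (fun n : ℕ => 1 / ((n : ℝ) + 1)) U (𝓝 0) :=
      tendsto_one_div_add_atTop_nhds_zero_nat.mono_left U_le_atTop
    filter_upwards [h1.eventually_lt_const hε] with n hn using hn.le
  set lev : ℕ → ℚ → ℕ := fun n v => (F n).m + ⌊(v : ℝ) * (F n).M⌋₊ with hlev
  have hlev0 : ∀ n, lev n 0 = (F n).m := by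
    intro n; simp [hlev]
  have hlev1 : ∀ n, lev n 1 = (F n).m + (F n).M := by
    intro n; simp [hlev]
  have hlm : ∀ u v : ℚ, 0 ≤ u → u ≤ v → v ≤ 1 → ∀ᶠ n in (U : Filter ℕ), lev n u ≤ lev n v := by
    intro u v hu huv hv
    refine Eventually.of_forall fun n => ?_
    refine Nat.add_le_add_left (Nat.floor_mono ?_) _
    exact mul_le_mul_of_nonneg_right (by exact_mod_cast huv) (hMpos n).le
  have hll : ∀ u v : ℚ, 0 ≤ u → u ≤ v → v ≤ 1 →
      Tendsto (fun n => ((lev n v : ℝ) - lev n u) * Real.log 2 / B.L n) U (𝓝 ((v : ℝ) - u)) := by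
    intro u v hu huv hv
    have h0u : (0 : ℝ) ≤ u := by exact_mod_cast hu
    have h0v : (0 : ℝ) ≤ v := by exact_mod_cast hu.trans huv
    have h1 : Tendsto (fun n => 1 / ((F n).M : ℝ)) U (𝓝 0) := by
      have h2 := tendsto_inv_atTop_zero.comp hMlim
      refine h2.congr fun n => ?_
      simp only [Function.comp, one_div]
    rw [tendsto_iff_dist_tendsto_zero]
    refine squeeze_zero (fun n => dist_nonneg) (fun n => ?_) h1
    have hm := hMpos n
    have e1 : ((lev n v : ℝ) - lev n u) * Real.log 2 / B.L n =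
        ((⌊(v : ℝ) * (F n).M⌋₊ : ℝ) - ⌊(u : ℝ) * (F n).M⌋₊) / (F n).M := by
      rw [hBL]
      simp only [hlev]
      push_cast
      field_simp
      ring
    rw [e1, Real.dist_eq]
    have a1 := Nat.floor_le (mul_nonneg h0v hm.le)
    have a2 := Nat.lt_floor_add_one ((v : ℝ) * (F n).M)
    have a3 := Nat.floor_le (mul_nonneg h0u hm.le)
    have a4 := Nat.lt_floor_add_one ((u : ℝ) * (F n).M)
    have e2 : ((⌊(v : ℝ) * (F n).M⌋₊ : ℝ) - ⌊(u : ℝ) * (F n).M⌋₊) / (F n).M - ((v : ℝ) - u) =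
        (((⌊(v : ℝ) * (F n).M⌋₊ : ℝ) - (v : ℝ) * (F n).M) -
          ((⌊(u : ℝ) * (F n).M⌋₊ : ℝ) - (u : ℝ) * (F n).M)) / (F n).M := by
      field_simp
      ring
    rw [e2, abs_div, abs_of_pos hm]
    refine div_le_div_of_nonneg_right ?_ hm.le
    rw [abs_le]
    constructor <;> linarith
  have hcard : ∀ ε : ℝ, 0 < ε → ∀ᶠ n in (U : Filter ℕ),
      Real.log (((F n).I).card : ℝ) ≤ B.d n ^ (-ε) := by
    intro ε hε
    filter_upwards [hsm ε hε] with n hn
    refine (hc n).trans ?_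
    rw [← hdp n (1 / ((n : ℝ) + 1))]
    exact dpow_le B n (by linarith)
  obtain ⟨I2, Λ, hI2, hI2d, hSq, hfe⟩ := exists_profile (B := B) (I1 := fun n => (F n).I)
    (lev := lev) (Eventually.of_forall fun n => (hF n).ne) hcard hlm hll
    (Eventually.of_forall fun n x hx y hy => by rw [hlev0]; exact (hF n).cell x hx y hy)
    (Eventually.of_forall fun n x hx y hy h1 h2 => by
      rw [hlev1] at h2; exact hone n x hx y hy h1 h2)
    (fun j n => if j = 0 then kc (lev n 1) (F n).f else lc (lev n 0))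
  refine ⟨B, I2, T, fun n => (F n).L, lev, fun n => (F n).D0, Λ, fun n => (F n).f,
    fun n => (F n).b, fun n => (F n).a, fun n => (F n).N, ⟨((F 0).b 0).2⟩, hT,
    fun n i J s hs => (hF n).fin i J s hs, ?_, hD0, hSq, ?_, ?_⟩
  · intro ε hε
    filter_upwards [hsm ε hε] with n hn
    refine (hN n).trans ?_
    rw [← hdp n (1 / ((n : ℝ) + 1))]
    exact dpow_le B n (by linarith)
  · refine Eventually.of_forall fun n J0 s hs => ?_
    rw [hlev0] at hs ⊢
    have h1 := (hF n).up J0 s hs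
    refine le_trans (by exact_mod_cast card_le_card (filter_subset_filter _
      (alive_mono (hI2 n) _ _))) (h1.trans (le_of_eq ?_))
    unfold VV
    rw [hlev1]
  · refine { mark := ?_, near := ?_ }
    · refine Eventually.of_forall fun n x hx => ?_
      rw [hlev1]
      exact (hF n).top _ x.1 (mem_alive.2 ⟨x, hI2 n hx, rfl, rfl⟩)
    · intro ε hε
      set e1 : ℝ := ε / 6 with he1
      have he0 : 0 < e1 := by positivity
      filter_upwards [hfe 0 e1 he0, hfe 1 e1 he0, hSq.fib 0 le_rfl zero_le_one e1 he0, hsm e1 he0]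
        with n h1 h2 h3 h4 x hx
      have hxI := hI2 n hx
      have h1x := h1 x hx
      have h2x := h2 x hx
      have h3x := (h3 x hx).2
      simp only [if_true] at h1x
      simp only [one_ne_zero, if_false] at h2x
      -- classes
      have hlo1 : ∀ y ∈ (F n).I, (1 : ℝ) ≤ ((((F n).I).filter fun z =>
          lc (lev n 1) z = lc (lev n 1) y).card : ℝ) := by
        intro y hy
        have : 0 < (((F n).I).filter fun z => lc (lev n 1) z = lc (lev n 1) y).card :=
          card_pos.2 ⟨y, mem_filter.2 ⟨hy, rfl⟩⟩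
        exact_mod_cast this
      have hhi1 : ∀ y ∈ I2 n, (((I2 n).filter fun z =>
          lc (lev n 1) z = lc (lev n 1) y).card : ℝ) ≤ 1 := by
        intro y hy
        have : ((I2 n).filter fun z => lc (lev n 1) z = lc (lev n 1) y).card ≤ 1 := by
          rw [card_le_one]
          intro z hz z' hz'
          rw [mem_filter] at hz hz'
          obtain ⟨a1, a2⟩ := Prod.mk.inj (hz.2.trans hz'.2.symm)
          rw [hlev1] at a2
          exact hone n z (hI2 n hz.1) z' (hI2 n hz'.1) a1 a2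
        exact_mod_cast this
      have p1 := class_fib_ge (f := (F n).f) hlo1 x
      have p2 := class_fib_le (f := (F n).f) hhi1 x
      rw [one_mul] at p1 p2
      have p3 : (F n).D1 * (T n).vol (lev n 1) (F n).a ≤
          (((alive (F n).I (lev n 1) (zc (lev n 1) x.2)).filter fun s =>
            (F n).f s (zc (lev n 1) x.2) = (F n).f x.1 (zc (lev n 1) x.2)).card : ℝ) := by
        rw [hlev1]
        exact (hF n).low _ x.1 (mem_alive.2 ⟨x, hxI, rfl, rfl⟩)
      set NC : ℝ := (((alive (I2 n) (lev n 1) (zc (lev n 1) x.2)).filter fun s =>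
        (F n).f s (zc (lev n 1) x.2) = (F n).f x.1 (zc (lev n 1) x.2)).card : ℝ) with hNC
      have p4 : B.d n ^ e1 * ((F n).D1 * (T n).vol (lev n 1) (F n).a) ≤ NC := by
        refine le_trans ?_ (h1x.trans p2)
        exact mul_le_mul_of_nonneg_left (p3.trans p1) (dpow_pos B n _).le
      -- own counts
      have p5 : (F n).nu ≤ B.d n ^ (-(1 : ℝ) + Λ 1 - 2 * e1) := by
        have q1 := (hF n).own x hxI
        have q2 := own_one (I := (F n).I) (i := (F n).m) (j := (F n).m + (F n).M)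
          (fun y hy z hz a1 a2 => hone n y hy z hz a1 a2) x
        rw [q2, ← hlev0 n] at q1
        have q3 := (mul_le_mul_of_nonneg_left q1 (dpow_pos B n e1).le).trans (h2x.trans h3x)
        rw [Rat.cast_zero, hSq.lam0] at q3
        have q4 : (F n).nu ≤ B.d n ^ (-e1) * B.d n ^ (-(1 - (0 : ℝ)) + (Λ 1 - 0) - e1) := by
          have q5 := mul_le_mul_of_nonneg_left q3 (dpow_pos B n (-e1)).le
          rw [← mul_assoc, ← dpow_add, neg_add_cancel, Real.rpow_zero, one_mul] at q5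
          exact q5
        refine q4.trans (le_of_eq ?_)
        rw [← dpow_add]
        congr 1; ring
      -- the gap
      have hnu := (hF n).nup
      have p6 : (F n).nu ^ 2 ≤ B.d n ^ (-(2 : ℝ) + 2 * Λ 1 - 4 * e1) := by
        refine (pow_le_pow_left₀ hnu.le p5 2).trans (le_of_eq ?_)
        rw [← Real.rpow_natCast, ← Real.rpow_mul (B.pos n).le]
        congr 1; push_cast; ring
      have p7 : B.d n ^ (-(g + 2) + e1) * (F n).D0 ≤ (F n).D1 * (F n).nu ^ 2 := by
        refine le_trans ?_ (hgap n)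
        refine mul_le_mul_of_nonneg_right ?_ (hD0 n).le
        have e4 : (4 : ℝ) ^ (F n).M = (2 : ℝ) ^ (2 * ((F n).M : ℝ)) := by
          rw [Real.rpow_mul (by norm_num)]
          norm_num
        rw [e4, ← Real.rpow_add two_pos]
        have e5 : (g - 1 / ((n : ℝ) + 1)) * ((F n).M : ℝ) + 2 * ((F n).M : ℝ) =
            (g - 1 / ((n : ℝ) + 1) + 2) * (F n).M := by ring
        rw [e5, ← hdp]
        exact dpow_le B n (by linarith)
      have p8 : B.d n ^ (-(g + 2) + e1) * (F n).D0 ≤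
          (F n).D1 * B.d n ^ (-(2 : ℝ) + 2 * Λ 1 - 4 * e1) :=
        p7.trans (mul_le_mul_of_nonneg_left p6 (hF n).D1p.le)
      have p9 : B.d n ^ (-(g + 2 * Λ 1)) * (F n).D0 ≤ B.d n ^ (-(5 * e1)) * (F n).D1 := by
        have q1 := mul_le_mul_of_nonneg_left p8
          (dpow_pos B n ((2 : ℝ) - 2 * Λ 1 - e1)).le
        have q2 : B.d n ^ ((2 : ℝ) - 2 * Λ 1 - e1) * (B.d n ^ (-(g + 2) + e1) * (F n).D0) =
            B.d n ^ (-(g + 2 * Λ 1)) * (F n).D0 := by
          rw [← mul_assoc, ← dpow_add]; congr 2; ring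
        have q3 : B.d n ^ ((2 : ℝ) - 2 * Λ 1 - e1) * ((F n).D1 *
            B.d n ^ (-(2 : ℝ) + 2 * Λ 1 - 4 * e1)) = B.d n ^ (-(5 * e1)) * (F n).D1 := by
          rw [mul_comm (F n).D1, ← mul_assoc, ← dpow_add]; congr 2; ring
        rw [q2, q3] at q1
        exact q1
      -- conclusion
      have hvol := (T n).volpos (lev n 1) (F n).a
      have e6 : ampA B (fun n => (F n).D0) (fun v => g * v + 2 * Λ v) n 1 *
          VV T Ψ lev (fun n => (F n).a) n (lev n 1) (F n).a =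
          (B.d n ^ (-(g + 2 * Λ 1)) * (F n).D0) * (T n).vol (lev n 1) (F n).a := by
        unfold ampA VV capP
        have e7 : rel (lev n 1) (F n).a (lev n 1) (F n).a = fun _ => (0 : ℝ) := by
          funext j; simp [rel]
        rw [e7, sub_self, hΨ0, neg_zero, Real.rpow_zero, mul_one, Rat.cast_one]
        simp only [mul_one]
        ring
      rw [e6]
      have q5 := mul_le_mul_of_nonneg_right p9 hvol.le
      refine q5.trans ?_
      have q6 := mul_le_mul_of_nonneg_left p4 (dpow_pos B n (-(6 * e1))).le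
      have q7 : B.d n ^ (-(6 * e1)) * (B.d n ^ e1 * ((F n).D1 * (T n).vol (lev n 1) (F n).a)) =
          B.d n ^ (-(5 * e1)) * (F n).D1 * (T n).vol (lev n 1) (F n).a := by
        rw [← mul_assoc, ← dpow_add, ← mul_assoc]; congr 3; ring
      rw [q7] at q6
      refine q6.trans (le_of_eq ?_)
      congr 2
      rw [he1]; ring

end Crest.Agent.R116.Xc6794
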