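import Mathlib
import Crest.Agent.R116.Xc6_794

/-!
# R116 (K side), block X1-C, class `Xc`, part 7 (helper794): one step (finite stage)

`step_fin` : marks at `v`, an upper bound `UB 𝒯 Ψp bb` => for every `η > 0` and almost every `n` a part
of proportion `≥ d^η` with marks at `u < v`, the reward inequality and near-maximality.
-/

set_option autoImplicit false
set_option linter.unusedSectionVars false

open Finset Filter Topology

namespace Crest.Agent.R116.Xc7794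

open Crest.Agent.R138.Ex926 Crest.Agent.R138.Dp76 Crest.Agent.R138.Ps627
open Crest.Agent.R138.Ps926
open Crest.Agent.R138.Mk163 (zc zl rho alive own Negl)
open Crest.Agent.R138.MkRef627 (lc kc own_one alive_mono mem_alive card_class own_lower exists_num)
open Crest.Agent.R138.MkZoom779 (zc_nested zc_eq exists_rep)
open Crest.Agent.R136.MkA627 (ampA Geo MkA)
open Crest.Agent.R116.Xa794 (TS)
open Crest.Agent.R116.Xa2794 (lc_nested class_fib_ge class_fib_le)
open Crest.Agent.R116.Xa3794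
open Crest.Agent.R116.Xc794 Crest.Agent.R116.Xc1794 Crest.Agent.R116.Xc2794
open Crest.Agent.R116.Xc3794 Crest.Agent.R116.Xc4794 Crest.Agent.R116.Xc5794

variable {Ln ι S : Type} [Fintype ι]

/-- all hypotheses on a sequence without marks -/
structure Cx (𝒯 : Set (TS Ln ι S)) (B : Base) (I : ℕ → Finset (ℕ × ℝ)) (T : ℕ → TS Ln ι S)
    (L : ℕ → ℕ → Ln) (lev : ℕ → ℚ → ℕ) (A : ℕ → ℝ) (Λ : ℝ → ℝ) (g : ℝ)
    (Ψ : ℝ → (ι → ℝ) → ℝ) (atop : ℕ → ι → ℕ) (N : ℕ → ℕ) : Prop where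
  hT : ∀ n, T n ∈ 𝒯
  fin : ∀ (n i : ℕ) (J : ℤ) (s : (ι → ℕ) × S), (T n).adm i J s → ∀ j, s.1 j ≤ N n
  Nd : ∀ ε : ℝ, 0 < ε → ∀ᶠ n in (U : Filter ℕ), (N n : ℝ) ≤ B.d n ^ (-ε)
  Apos : ∀ n, 0 < A n
  sq : Sq B I lev Λ
  dmx : Dmx B I T L lev A (fun v => g * v + 2 * Λ v) (VV T Ψ lev atop)

/-- homogeneity -/
def HomA (Ψ : ℝ → (ι → ℝ) → ℝ) : Prop :=
  ∀ c l x, 0 ≤ c → 0 ≤ l → Ψ (c * l) (fun j => c * x j) = c * Ψ l x

/-- the normalising factor `1 / M` -/
noncomputable def cn (B : Base) (n : ℕ) : ℝ := Real.log 2 / B.L n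

theorem cn_pos (B : Base) (n : ℕ) : 0 < cn B n :=
  div_pos (Real.log_pos (by norm_num)) (B.L_pos n)

/-- normalised length -/
noncomputable def len (B : Base) (lev : ℕ → ℚ → ℕ) (n : ℕ) (v : ℚ) : ℝ :=
  cn B n * ((lev n 1 : ℝ) - lev n v)

/-- normalised relative exponents -/
noncomputable def ys (B : Base) (lev : ℕ → ℚ → ℕ) (atop : ℕ → ι → ℕ) (n : ℕ) (v : ℚ)
    (a : ι → ℕ) : ι → ℝ :=
  fun j => cn B n * rel (lev n v) a (lev n 1) (atop n) j

theorem two_neg (B : Base) (n : ℕ) (z : ℝ) : (2 : ℝ) ^ (-z) = B.d n ^ (cn B n * z) := by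
  have hL := B.L_pos n
  apply Real.log_injOn_pos (Set.mem_Ioi.2 (Real.rpow_pos_of_pos two_pos _))
    (Set.mem_Ioi.2 (Real.rpow_pos_of_pos (B.pos n) _))
  rw [Real.log_rpow two_pos, Real.log_rpow (B.pos n), log_d]
  unfold cn
  field_simp

section

variable {𝒯 : Set (TS Ln ι S)} {B : Base} {I : ℕ → Finset (ℕ × ℝ)} {lev : ℕ → ℚ → ℕ}
  {Λ : ℝ → ℝ} {T : ℕ → TS Ln ι S} {L : ℕ → ℕ → Ln} {A : ℕ → ℝ} {g : ℝ}
  {Ψ Ψp : ℝ → (ι → ℝ) → ℝ} {atop : ℕ → ι → ℕ} {N : ℕ → ℕ}

theorem len_lim (h : Sq B I lev Λ) {v : ℚ} (h0 : 0 ≤ v) (h1 : v ≤ 1) :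
    Tendsto (fun n => len B lev n v) U (𝓝 (1 - (v : ℝ))) := by
  have h2 := h.lev_lim v 1 h0 h1 le_rfl
  rw [Rat.cast_one] at h2
  refine h2.congr fun n => ?_
  unfold len cn
  ring

theorem hom_len (hH : HomA Ψ) (n : ℕ) {v : ℚ} (hv : lev n v ≤ lev n 1) (a : ι → ℕ) :
    Ψ (len B lev n v) (ys B lev atop n v a) =
      cn B n * Ψ ((lev n 1 : ℝ) - lev n v) (rel (lev n v) a (lev n 1) (atop n)) := by
  have h1 : (0 : ℝ) ≤ (lev n 1 : ℝ) - lev n v := by
    have : (lev n v : ℝ) ≤ lev n 1 := by exact_mod_cast hv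
    linarith
  exact hH (cn B n) _ (rel (lev n v) a (lev n 1) (atop n)) (cn_pos B n).le h1

theorem hom_len2 (hH : HomA Ψp) (n : ℕ) {u v : ℚ} (hv : lev n u ≤ lev n v) (a a' : ι → ℕ) :
    Ψp (len B lev n u - len B lev n v)
      (fun j => ys B lev atop n u a' j - ys B lev atop n v a j) =
      cn B n * Ψp ((lev n v : ℝ) - lev n u) (rel (lev n u) a' (lev n v) a) := by
  have h1 : (0 : ℝ) ≤ (lev n v : ℝ) - lev n u := by
    have : (lev n u : ℝ) ≤ lev n v := by exact_mod_cast hv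
    linarith
  have h2 := hH (cn B n) _ (rel (lev n u) a' (lev n v) a) (cn_pos B n).le h1
  rw [← h2]
  have e1 : len B lev n u - len B lev n v = cn B n * ((lev n v : ℝ) - lev n u) := by
    unfold len; ring
  have e2 : (fun j => ys B lev atop n u a' j - ys B lev atop n v a j) =
      fun j => cn B n * rel (lev n u) a' (lev n v) a j := by
    funext j
    simp only [ys, rel]; ring
  rw [e1, e2]

/-- capacity in powers of `d` -/
theorem VV_eq (hH : HomA Ψ) (n : ℕ) {v : ℚ} (hv : lev n v ≤ lev n 1) (a : ι → ℕ) :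
    VV T Ψ lev atop n (lev n v) a =
      (T n).vol (lev n v) a * B.d n ^ (Ψ (len B lev n v) (ys B lev atop n v a)) := by
  unfold VV capP
  rw [two_neg B n, hom_len hH n hv a]

set_option maxHeartbeats 1000000 in
open Classical in
/-- **one step, finite stage.** -/
theorem step_fin [Nonempty S] (h : Cx 𝒯 B I T L lev A Λ g Ψ atop N) (hH : HomA Ψ) (hHp : HomA Ψp)
    {bb : ℝ} (hUB : UB 𝒯 Ψp bb) {u v : ℚ} (hu : 0 ≤ u) (huv : u < v) (hv : v ≤ 1)
    {f : ℕ → ℕ → ℤ → ℕ} {b : ℕ → ℕ → (ι → ℕ) × S} {a : ℕ → ι → ℕ}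
    (hM : Mrk B I T L lev A (fun v => g * v + 2 * Λ v) (VV T Ψ lev atop) v f b a)
    {η : ℝ} (hη : 0 < η) :
    ∀ᶠ n in (U : Filter ℕ), ∃ A' ⊆ I n, ∃ (f' : ℕ → ℤ → ℕ) (b' : ℕ → (ι → ℕ) × S) (a' : ι → ℕ),
      A'.Nonempty ∧ ((I n).card : ℝ) ≤ B.d n ^ (-η) * (A'.card : ℝ) ∧
      (∀ x ∈ A', ∀ y ∈ I n, lc (lev n u) y = lc (lev n u) x → y ∈ A') ∧
      (∀ x ∈ A', (T n).mem (lev n u) (zc (lev n u) x.2) (b' (f' x.1 (zc (lev n u) x.2))) (L n x.1) ∧
        (T n).adm (lev n u) (zc (lev n u) x.2) (b' (f' x.1 (zc (lev n u) x.2))) ∧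
        (b' (f' x.1 (zc (lev n u) x.2))).1 = a') ∧
      Ψ (len B lev n u) (ys B lev atop n u a') ≤
        Ψ (len B lev n v) (ys B lev atop n v (a n)) +
          Ψp (len B lev n u - len B lev n v)
            (fun j => ys B lev atop n u a' j - ys B lev atop n v (a n) j) +
          (bb - g) * ((v : ℝ) - u) + 2 * η ∧
      (∀ x ∈ A', B.d n ^ (η + (bb - g) * ((v : ℝ) - u) +
          Ψ (len B lev n v) (ys B lev atop n v (a n)) +
          Ψp (len B lev n u - len B lev n v)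
            (fun j => ys B lev atop n u a' j - ys B lev atop n v (a n) j) -
          Ψ (len B lev n u) (ys B lev atop n u a')) *
          (ampA B A (fun v => g * v + 2 * Λ v) n u * VV T Ψ lev atop n (lev n u) a') ≤
        (((alive A' (lev n u) (zc (lev n u) x.2)).filter fun s =>
          f' s (zc (lev n u) x.2) = f' x.1 (zc (lev n u) x.2)).card : ℝ)) := by
  set cc : ℝ → ℝ := fun v => g * v + 2 * Λ v with hcc
  set D1 : ℕ → ℝ := fun n => B.d n ^ (η / 2) * ampA B A cc n v *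
    B.d n ^ (Ψ (len B lev n v) (ys B lev atop n v (a n))) with hD1
  have hD1p : ∀ n, 0 < D1 n := fun n =>
    mul_pos (mul_pos (dpow_pos B n _) (ampA_pos h.Apos cc n v)) (dpow_pos B n _)
  set D0 : ℕ → ℝ := fun n => B.d n ^ (η / 2 + bb * ((v : ℝ) - u) + 2 * (Λ v - Λ u)) * D1 n with hD0
  have hD0p : ∀ n, 0 < D0 n := fun n => mul_pos (dpow_pos B n _) (hD1p n)
  have hu1 : u ≤ 1 := huv.le.trans hv
  have hv0 : 0 ≤ v := hu.trans huv.le
  have hlow := low_seqC h.sq 𝒯 Ψp hUB h.hT h.fin h.Nd (u := u) (v := v) hu huv hv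
    (A := I) (fun n => Subset.refl _) (Eventually.of_forall fun n x _ y hy _ => hy) (f := f) (b := b)
    (a := a) hM.mark (D1 := D1) hD1p (by
      filter_upwards [hM.near (η / 2) (by positivity), h.sq.lev_mono v 1 hv0 hv le_rfl]
        with n hn hlv x hx
      have h1 := hn x hx
      rw [VV_eq hH n hlv] at h1
      have h2 := mul_le_mul_of_nonneg_left h1 (dpow_pos B n (η / 2)).le
      rw [← mul_assoc (B.d n ^ (η / 2)) (B.d n ^ (-(η / 2))), ← dpow_add, add_neg_cancel,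
        Real.rpow_zero, one_mul] at h2
      refine le_trans (le_of_eq ?_) h2
      simp only [hD1]; ring) (η := η / 2) (by positivity) (D0 := D0)
    (Eventually.of_forall fun n => le_rfl)
  filter_upwards [hlow, boxN_small h.Nd (Fintype.card ι) (show 0 < η / 2 by positivity),
    dpow_small B (c := η / 2) (by positivity) (ε := 1 / 2) (by norm_num),
    dpow_small B (c := η / 2 / 20) (by positivity) (ε := 1 / 2) (by norm_num), h.sq.ne,
    h.sq.lev_mono u v hu huv.le hv, h.sq.lev_mono v 1 hv0 hv le_rfl,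
    h.sq.lev_mono u 1 hu hu1 le_rfl, h.dmx u hu hu1 η hη] with n h1 h2 h3 h4 h5 h6 h7 h8 h9
  have hIc : (0 : ℝ) < ((I n).card : ℝ) := by exact_mod_cast card_pos.2 h5
  obtain ⟨A0, hA0, A1, hA1, f', b', a', e1, e2, e3, e4, e5⟩ := extractC (T n)
    (capP (T n) Ψp (lev n v) (a n) (lev n u)) (fun s => capP_pos _ _ _ _ _ _) (N n) (lev n u)
    (h.fin n (lev n u)) (L n) (I n) (hD0p n)
  -- the remainder is small
  have hrem : ((I n \ A0).card : ℝ) < B.d n ^ (η / 2 / 20) * ((I n).card : ℝ) := by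
    by_contra hcon
    push Not at hcon
    obtain ⟨c, s, hs, hlt⟩ := h1 (I n \ A0) sdiff_subset hcon
    have := e5 (I n \ A0) sdiff_subset (fun x hx => (mem_sdiff.1 hx).2) c s hs
    linarith
  have hA0c : ((I n).card : ℝ) ≤ 2 * (A0.card : ℝ) := by
    have h10 : ((I n \ A0).card : ℝ) = (I n).card - A0.card := by
      rw [card_sdiff_of_subset hA0, Nat.cast_sub (card_le_card hA0)]
    rw [h10] at hrem
    nlinarith
  have h2p : (2 : ℝ) ≤ B.d n ^ (-(η / 2)) := by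
    rw [Real.rpow_neg (B.pos n).le, ← one_div, le_div_iff₀ (dpow_pos B n _)]
    linarith
  have hA1c : ((I n).card : ℝ) ≤ B.d n ^ (-η) * (A1.card : ℝ) := by
    have h10 : (A0.card : ℝ) ≤ B.d n ^ (-(η / 2)) * A1.card :=
      e1.trans (mul_le_mul_of_nonneg_right h2 (Nat.cast_nonneg _))
    have h11 : B.d n ^ (-η) = B.d n ^ (-(η / 2)) * B.d n ^ (-(η / 2)) := by
      rw [← dpow_add]; congr 1; ring
    rw [h11, mul_assoc]
    refine hA0c.trans ?_
    exact mul_le_mul h2p h10 (Nat.cast_nonneg _) (dpow_pos B n _).le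
  have hA1ne : A1.Nonempty := by
    rw [← card_pos]
    by_contra hz
    have hz' : A1.card = 0 := by omega
    rw [hz', Nat.cast_zero, mul_zero] at hA1c
    linarith
  -- thresholds in powers of `d`
  set Yv : ℝ := Ψ (len B lev n v) (ys B lev atop n v (a n)) with hYv
  set Yd : ℝ := Ψp (len B lev n u - len B lev n v)
    (fun j => ys B lev atop n u a' j - ys B lev atop n v (a n) j) with hYd
  set Yu : ℝ := Ψ (len B lev n u) (ys B lev atop n u a') with hYu
  have hvol := (T n).volpos (lev n u) a'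
  have hampu := ampA_pos h.Apos cc n u (B := B)
  have key : D0 n * capP (T n) Ψp (lev n v) (a n) (lev n u) a' =
      B.d n ^ (η + (bb - g) * ((v : ℝ) - u) + Yv + Yd) *
        (ampA B A cc n u * (T n).vol (lev n u) a') := by
    unfold capP
    rw [two_neg B n, ← hom_len2 (atop := atop) hHp n h6 (a n) a', ← hYd]
    simp only [hD0, hD1, ampA, hcc]
    have e6 : B.d n ^ (η + (bb - g) * ((v : ℝ) - u) + Yv + Yd) *
        (A n * B.d n ^ (-(g * (u : ℝ) + 2 * Λ u)) * (T n).vol (lev n u) a') =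
        (B.d n ^ (η + (bb - g) * ((v : ℝ) - u) + Yv + Yd) * B.d n ^ (-(g * (u : ℝ) + 2 * Λ u))) *
        (A n * (T n).vol (lev n u) a') := by ring
    have e7 : B.d n ^ (η / 2 + bb * ((v : ℝ) - u) + 2 * (Λ v - Λ u)) *
        (B.d n ^ (η / 2) * (A n * B.d n ^ (-(g * (v : ℝ) + 2 * Λ v))) * B.d n ^ Yv) *
        ((T n).vol (lev n u) a' * B.d n ^ Yd) =
        (B.d n ^ (η / 2 + bb * ((v : ℝ) - u) + 2 * (Λ v - Λ u)) * B.d n ^ (η / 2) *
          B.d n ^ (-(g * (v : ℝ) + 2 * Λ v)) * B.d n ^ Yv * B.d n ^ Yd) *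
          (A n * (T n).vol (lev n u) a') := by ring
    rw [e6, e7, ← dpow_add, ← dpow_add, ← dpow_add, ← dpow_add, ← dpow_add]
    congr 2
    ring
  have hVV : VV T Ψ lev atop n (lev n u) a' = (T n).vol (lev n u) a' * B.d n ^ Yu :=
    VV_eq hH n h8 a'
  refine ⟨A1, hA1.trans hA0, f', b', a', hA1ne, hA1c, e2, e3, ?_, ?_⟩
  · -- the inequality
    obtain ⟨x, hx⟩ := hA1ne
    have h10 := e4 x hx
    rw [key] at h10
    obtain ⟨m1, m2, m3⟩ := e3 x hx
    have h11 := h9 (zc (lev n u) x.2) (b' (f' x.1 (zc (lev n u) x.2))) m2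
    rw [m3, hVV] at h11
    have hsub : ((alive A1 (lev n u) (zc (lev n u) x.2)).filter fun s =>
        f' s (zc (lev n u) x.2) = f' x.1 (zc (lev n u) x.2)) ⊆
        (alive (I n) (lev n u) (zc (lev n u) x.2)).filter fun t =>
          (T n).mem (lev n u) (zc (lev n u) x.2) (b' (f' x.1 (zc (lev n u) x.2))) (L n t) := by
      intro t ht
      rw [mem_filter, mem_alive] at ht
      obtain ⟨⟨y, hy, hy1, hy2⟩, ht2⟩ := ht
      have hym := (e3 y hy).1
      rw [hy1, hy2, ht2] at hym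
      rw [mem_filter, mem_alive]
      exact ⟨⟨y, hA0 (hA1 hy), hy1, hy2⟩, hym⟩
    have h12 : (((alive A1 (lev n u) (zc (lev n u) x.2)).filter fun s =>
        f' s (zc (lev n u) x.2) = f' x.1 (zc (lev n u) x.2)).card : ℝ) ≤
        (((alive (I n) (lev n u) (zc (lev n u) x.2)).filter fun t =>
          (T n).mem (lev n u) (zc (lev n u) x.2) (b' (f' x.1 (zc (lev n u) x.2))) (L n t)).card
            : ℝ) := by exact_mod_cast card_le_card hsub
    have h13 := h10.trans (h12.trans h11)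
    have h14 : B.d n ^ (-η) * ampA B A cc n u * ((T n).vol (lev n u) a' * B.d n ^ Yu) =
        B.d n ^ (-η + Yu) * (ampA B A cc n u * (T n).vol (lev n u) a') := by
      rw [dpow_add]; ring
    rw [h14] at h13
    have hpos : 0 < ampA B A cc n u * (T n).vol (lev n u) a' := mul_pos hampu hvol
    have h15 := le_of_mul_le_mul_right h13 hpos
    have h16 : -η + Yu ≤ η + (bb - g) * ((v : ℝ) - u) + Yv + Yd := by
      by_contra hcon
      push Not at hcon
      have := Real.rpow_lt_rpow_of_exponent_gt (B.pos n) (B.lt n) hcon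
      linarith
    linarith
  · intro x hx
    have h10 := e4 x hx
    rw [key] at h10
    refine le_trans (le_of_eq ?_) h10
    rw [hVV]
    have h17 : B.d n ^ (η + (bb - g) * ((v : ℝ) - u) + Yv + Yd - Yu) *
        (ampA B A cc n u * ((T n).vol (lev n u) a' * B.d n ^ Yu)) =
        (B.d n ^ (η + (bb - g) * ((v : ℝ) - u) + Yv + Yd - Yu) * B.d n ^ Yu) *
        (ampA B A cc n u * (T n).vol (lev n u) a') := by ring
    rw [h17, ← dpow_add]
    congr 2
    ring

end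

end Crest.Agent.R116.Xc7794
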