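import Mathlib
import Crest.Agent.R116.Xc7_794

/-!
# R116 (K side), block X1-C, class `Xc`, part 8 (helper794): the two steps for sequences

* `step_up` : marks at any `u < 1` with `κ (1 - u) ≤ ψ`;
* `step_eq` : marks at any `u < v` with the equality case of the triangle inequality.
-/

set_option autoImplicit false
set_option linter.unusedSectionVars false

open Finset Filter Topology

namespace Crest.Agent.R116.Xc8794

open Crest.Agent.R138.Ex926 Crest.Agent.R138.Dp76 Crest.Agent.R138.Ps627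
open Crest.Agent.R138.Ps926
open Crest.Agent.R138.Mk163 (zc zl rho alive own Negl)
open Crest.Agent.R138.MkRef627 (lc kc own_one alive_mono mem_alive card_class own_lower exists_num)
open Crest.Agent.R138.MkZoom779 (zc_nested zc_eq exists_rep)
open Crest.Agent.R136.MkA627 (ampA Geo MkA)
open Crest.Agent.R116.Xa794 (TS)
open Crest.Agent.R116.Xa2794 (lc_nested class_fib_ge class_fib_le)
open Crest.Agent.R116.Xa3794
open Crest.Agent.R116.Xc794 Crest.Agent.R116.Xc1794 Crest.Agent.R116.Xc2794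
open Crest.Agent.R116.Xc3794 Crest.Agent.R116.Xc4794 Crest.Agent.R116.Xc5794
open Crest.Agent.R116.Xc7794

variable {Ln ι S : Type} [Fintype ι]

section

variable {𝒯 : Set (TS Ln ι S)} {B : Base} {I : ℕ → Finset (ℕ × ℝ)} {lev : ℕ → ℚ → ℕ}
  {Λ : ℝ → ℝ} {T : ℕ → TS Ln ι S} {L : ℕ → ℕ → Ln} {A : ℕ → ℝ} {g : ℝ}
  {Ψ Ψp : ℝ → (ι → ℝ) → ℝ} {atop : ℕ → ι → ℕ} {N : ℕ → ℕ}

/-- an almost everywhere choice: conditions `P e n` for every `e > 0`. -/
theorem exists_rate (P : ℝ → ℕ → Prop) (h : ∀ e : ℝ, 0 < e → ∀ᶠ n in (U : Filter ℕ), P e n) :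
    ∃ e : ℕ → ℝ, (∀ n, 0 < e n) ∧ Tendsto e U (𝓝 0) ∧ ∀ᶠ n in (U : Filter ℕ), P (e n) n := by
  obtain ⟨k, hk, hk2⟩ := exists_diag (fun k n => P (1 / ((k : ℝ) + 1)) n)
    (fun k => h _ (by positivity))
  refine ⟨fun n => 1 / ((k n : ℝ) + 1), fun n => by positivity,
    tendsto_one_div_add_atTop_nhds_zero_nat.comp hk, ?_⟩
  filter_upwards [hk2] with n hn using hn _ le_rfl

open Classical in
/-- **marks from finite stages with errors tending to zero.** -/
theorem diag_marks [Nonempty S] {c : ℝ → ℝ} {V : ℕ → ℕ → (ι → ℕ) → ℝ}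
    (hV : ∀ n i s, 0 < V n i s) (hA : ∀ n, 0 < A n) {u : ℚ}
    (R : ℝ → ℕ → (ι → ℕ) → Prop) (hR : ∀ e e' n a, e ≤ e' → R e n a → R e' n a)
    (hG : ∀ e : ℝ, 0 < e → ∀ᶠ n in (U : Filter ℕ), ∃ A' ⊆ I n, ∃ (f' : ℕ → ℤ → ℕ)
      (b' : ℕ → (ι → ℕ) × S) (a' : ι → ℕ),
      ((I n).card : ℝ) ≤ B.d n ^ (-e) * (A'.card : ℝ) ∧
      (∀ x ∈ A', ∀ y ∈ I n, lc (lev n u) y = lc (lev n u) x → y ∈ A') ∧
      (∀ x ∈ A', (T n).mem (lev n u) (zc (lev n u) x.2) (b' (f' x.1 (zc (lev n u) x.2))) (L n x.1) ∧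
        (T n).adm (lev n u) (zc (lev n u) x.2) (b' (f' x.1 (zc (lev n u) x.2))) ∧
        (b' (f' x.1 (zc (lev n u) x.2))).1 = a') ∧ R e n a' ∧
      (∀ x ∈ A', B.d n ^ e * (ampA B A c n u * V n (lev n u) a') ≤
        (((alive A' (lev n u) (zc (lev n u) x.2)).filter fun s =>
          f' s (zc (lev n u) x.2) = f' x.1 (zc (lev n u) x.2)).card : ℝ))) :
    ∃ (A' : ℕ → Finset (ℕ × ℝ)) (f' : ℕ → ℕ → ℤ → ℕ) (b' : ℕ → ℕ → (ι → ℕ) × S)
      (a' : ℕ → ι → ℕ), (∀ n, A' n ⊆ I n) ∧ Dense B A' I ∧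
      (∀ᶠ n in (U : Filter ℕ), ∀ x ∈ A' n, ∀ y ∈ I n,
        lc (lev n u) y = lc (lev n u) x → y ∈ A' n) ∧
      Mrk B A' T L lev A c V u f' b' a' ∧
      ∀ e : ℝ, 0 < e → ∀ᶠ n in (U : Filter ℕ), R e n (a' n) := by
  obtain ⟨e, he0, hel, he⟩ := exists_rate _ hG
  have hsm : ∀ e' : ℝ, 0 < e' → ∀ᶠ n in (U : Filter ℕ), e n ≤ e' := by
    intro e' he'
    filter_upwards [hel.eventually_lt_const he'] with n hn using hn.le
  have hch : ∀ n, ∃ (A' : Finset (ℕ × ℝ)) (f' : ℕ → ℤ → ℕ) (b' : ℕ → (ι → ℕ) × S) (a' : ι → ℕ),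
      A' ⊆ I n ∧ ((∃ A' ⊆ I n, ∃ (f' : ℕ → ℤ → ℕ)
      (b' : ℕ → (ι → ℕ) × S) (a' : ι → ℕ),
      ((I n).card : ℝ) ≤ B.d n ^ (-(e n)) * (A'.card : ℝ) ∧
      (∀ x ∈ A', ∀ y ∈ I n, lc (lev n u) y = lc (lev n u) x → y ∈ A') ∧
      (∀ x ∈ A', (T n).mem (lev n u) (zc (lev n u) x.2) (b' (f' x.1 (zc (lev n u) x.2))) (L n x.1) ∧
        (T n).adm (lev n u) (zc (lev n u) x.2) (b' (f' x.1 (zc (lev n u) x.2))) ∧
        (b' (f' x.1 (zc (lev n u) x.2))).1 = a') ∧ R (e n) n a' ∧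
      (∀ x ∈ A', B.d n ^ (e n) * (ampA B A c n u * V n (lev n u) a') ≤
        (((alive A' (lev n u) (zc (lev n u) x.2)).filter fun s =>
          f' s (zc (lev n u) x.2) = f' x.1 (zc (lev n u) x.2)).card : ℝ))) →
      (((I n).card : ℝ) ≤ B.d n ^ (-(e n)) * (A'.card : ℝ) ∧
      (∀ x ∈ A', ∀ y ∈ I n, lc (lev n u) y = lc (lev n u) x → y ∈ A') ∧
      (∀ x ∈ A', (T n).mem (lev n u) (zc (lev n u) x.2) (b' (f' x.1 (zc (lev n u) x.2))) (L n x.1) ∧
        (T n).adm (lev n u) (zc (lev n u) x.2) (b' (f' x.1 (zc (lev n u) x.2))) ∧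
        (b' (f' x.1 (zc (lev n u) x.2))).1 = a') ∧ R (e n) n a' ∧
      (∀ x ∈ A', B.d n ^ (e n) * (ampA B A c n u * V n (lev n u) a') ≤
        (((alive A' (lev n u) (zc (lev n u) x.2)).filter fun s =>
          f' s (zc (lev n u) x.2) = f' x.1 (zc (lev n u) x.2)).card : ℝ)))) := by
    intro n
    by_cases hP : (∃ A' ⊆ I n, ∃ (f' : ℕ → ℤ → ℕ)
      (b' : ℕ → (ι → ℕ) × S) (a' : ι → ℕ),
      ((I n).card : ℝ) ≤ B.d n ^ (-(e n)) * (A'.card : ℝ) ∧
      (∀ x ∈ A', ∀ y ∈ I n, lc (lev n u) y = lc (lev n u) x → y ∈ A') ∧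
      (∀ x ∈ A', (T n).mem (lev n u) (zc (lev n u) x.2) (b' (f' x.1 (zc (lev n u) x.2))) (L n x.1) ∧
        (T n).adm (lev n u) (zc (lev n u) x.2) (b' (f' x.1 (zc (lev n u) x.2))) ∧
        (b' (f' x.1 (zc (lev n u) x.2))).1 = a') ∧ R (e n) n a' ∧
      (∀ x ∈ A', B.d n ^ (e n) * (ampA B A c n u * V n (lev n u) a') ≤
        (((alive A' (lev n u) (zc (lev n u) x.2)).filter fun s =>
          f' s (zc (lev n u) x.2) = f' x.1 (zc (lev n u) x.2)).card : ℝ)))
    · obtain ⟨A', hA', f', b', a', h1⟩ := hP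
      exact ⟨A', f', b', a', hA', fun _ => h1⟩
    · exact ⟨∅, fun _ _ => 0, fun _ => (fun _ => 0, Classical.arbitrary S), fun _ => 0,
        empty_subset _, fun h => absurd h hP⟩
  choose A' f' b' a' h1 h2 using hch
  refine ⟨A', f', b', a', h1, ?_, ?_, ?_, ?_⟩
  · refine dense_of_small (Eventually.of_forall h1) fun η hη => ?_
    filter_upwards [he, hsm η hη] with n hn h3
    refine (h2 n hn).1.trans (mul_le_mul_of_nonneg_right ?_ (Nat.cast_nonneg _))
    exact dpow_le B n (by linarith)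
  · filter_upwards [he] with n hn using (h2 n hn).2.1
  · refine { mark := ?_, near := ?_ }
    · filter_upwards [he] with n hn using (h2 n hn).2.2.1
    · intro ε hε
      filter_upwards [he, hsm ε hε] with n hn h3 x hx
      have h4 := (h2 n hn).2.2.2.2 x hx
      have hp : 0 < ampA B A c n u * V n (lev n u) (a' n) :=
        mul_pos (ampA_pos hA c n u) (hV _ _ _)
      have h5 := (mul_le_mul_of_nonneg_right (dpow_le B n h3) hp.le).trans h4
      have h6 := mul_le_mul_of_nonneg_left h5 (dpow_pos B n (-ε)).le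
      rw [← mul_assoc, ← dpow_add, neg_add_cancel, Real.rpow_zero, one_mul] at h6
      exact h6
  · intro e' he'
    filter_upwards [he, hsm e' he'] with n hn h3
    exact hR _ _ _ _ h3 (h2 n hn).2.2.2.1

open Classical in
/-- **equality step.** -/
theorem step_eq [Nonempty S] (h : Cx 𝒯 B I T L lev A Λ g Ψ atop N) (hH : HomA Ψ) (hS : SupA Ψ)
    (hUB : UB 𝒯 Ψ g) {u v : ℚ} (hu : 0 ≤ u) (huv : u < v) (hv : v ≤ 1)
    {f : ℕ → ℕ → ℤ → ℕ} {b : ℕ → ℕ → (ι → ℕ) × S} {a : ℕ → ι → ℕ}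
    (hM : Mrk B I T L lev A (fun v => g * v + 2 * Λ v) (VV T Ψ lev atop) v f b a) :
    ∃ (A' : ℕ → Finset (ℕ × ℝ)) (f' : ℕ → ℕ → ℤ → ℕ) (b' : ℕ → ℕ → (ι → ℕ) × S)
      (a' : ℕ → ι → ℕ), (∀ n, A' n ⊆ I n) ∧ Dense B A' I ∧
      (∀ᶠ n in (U : Filter ℕ), ∀ x ∈ A' n, ∀ y ∈ I n,
        lc (lev n u) y = lc (lev n u) x → y ∈ A' n) ∧
      Mrk B A' T L lev A (fun v => g * v + 2 * Λ v) (VV T Ψ lev atop) u f' b' a' ∧
      ∀ e : ℝ, 0 < e → ∀ᶠ n in (U : Filter ℕ),
        Ψ (len B lev n u) (ys B lev atop n u (a' n)) ≤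
          Ψ (len B lev n v) (ys B lev atop n v (a n)) +
          Ψ (len B lev n u - len B lev n v)
            (fun j => ys B lev atop n u (a' n) j - ys B lev atop n v (a n) j) + e := by
  refine diag_marks (fun n i s => VV_pos n i s) h.Apos (fun e n a' =>
    Ψ (len B lev n u) (ys B lev atop n u a') ≤
          Ψ (len B lev n v) (ys B lev atop n v (a n)) +
          Ψ (len B lev n u - len B lev n v)
            (fun j => ys B lev atop n u a' j - ys B lev atop n v (a n) j) + e)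
    (fun e e' n a he hr => by linarith) ?_
  intro e he
  filter_upwards [step_fin h hH hH hUB hu huv hv hM (η := e / 2) (by positivity),
    h.sq.lev_mono u v hu huv.le hv, h.sq.lev_mono v 1 (hu.trans huv.le) hv le_rfl]
    with n hn h1 h2
  obtain ⟨A', hA', f', b', a', -, e1, e2, e3, e4, e5⟩ := hn
  refine ⟨A', hA', f', b', a', ?_, e2, e3, by linarith, ?_⟩
  · refine e1.trans (mul_le_mul_of_nonneg_right ?_ (Nat.cast_nonneg _))
    exact dpow_le B n (by linarith)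
  · intro x hx
    refine le_trans ?_ (e5 x hx)
    refine mul_le_mul_of_nonneg_right (dpow_le B n ?_)
      (mul_pos (ampA_pos h.Apos _ n u) (VV_pos _ _ _)).le
    have h1' : (0 : ℝ) ≤ (lev n v : ℝ) - lev n u := by
      have : (lev n u : ℝ) ≤ lev n v := by exact_mod_cast h1
      linarith
    have h2' : (0 : ℝ) ≤ (lev n 1 : ℝ) - lev n v := by
      have : (lev n v : ℝ) ≤ lev n 1 := by exact_mod_cast h2
      linarith
    have h3 : 0 ≤ len B lev n v := mul_nonneg (cn_pos B n).le h2'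
    have h4 : 0 ≤ len B lev n u - len B lev n v := by
      have : len B lev n u - len B lev n v = cn B n * ((lev n v : ℝ) - lev n u) := by
        unfold len; ring
      rw [this]
      exact mul_nonneg (cn_pos B n).le h1'
    have h5 := hS _ _ (ys B lev atop n v (a n))
      (fun j => ys B lev atop n u a' j - ys B lev atop n v (a n) j) h3 h4
    have h6 : len B lev n v + (len B lev n u - len B lev n v) = len B lev n u := by ring
    have h7 : (fun j => ys B lev atop n v (a n) j + (ys B lev atop n u a' j -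
        ys B lev atop n v (a n) j)) = ys B lev atop n u a' := by
      funext j; ring
    rw [h6, h7] at h5
    linarith

open Classical in
/-- **UP step.** -/
theorem step_up [Nonempty S] {P : ℝ → ℝ → (ι → ℝ) → ℝ} {ψ : ℝ → (ι → ℝ) → ℝ} {q0 κ δ0 q : ℝ}
    (hP : Rwd P ψ q0) (hch : Chs 𝒯 P q0 κ δ0 q g)
    (h : Cx 𝒯 B I T L lev A Λ g (P q) atop N) {u : ℚ} (hu : 0 ≤ u) (hu1 : u < 1)
    {f : ℕ → ℕ → ℤ → ℕ} {b : ℕ → ℕ → (ι → ℕ) × S}
    (hM : Mrk B I T L lev A (fun v => g * v + 2 * Λ v) (VV T (P q) lev atop) 1 f b atop) :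
    ∃ (A' : ℕ → Finset (ℕ × ℝ)) (f' : ℕ → ℕ → ℤ → ℕ) (b' : ℕ → ℕ → (ι → ℕ) × S)
      (a' : ℕ → ι → ℕ), (∀ n, A' n ⊆ I n) ∧ Dense B A' I ∧
      (∀ᶠ n in (U : Filter ℕ), ∀ x ∈ A' n, ∀ y ∈ I n,
        lc (lev n u) y = lc (lev n u) x → y ∈ A' n) ∧
      Mrk B A' T L lev A (fun v => g * v + 2 * Λ v) (VV T (P q) lev atop) u f' b' a' ∧
      ∀ e : ℝ, 0 < e → ∀ᶠ n in (U : Filter ℕ),
        κ * (1 - (u : ℝ)) - e ≤ ψ (len B lev n u) (ys B lev atop n u (a' n)) := by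
  have hq0 : 0 ≤ q := hP.q0pos.le.trans hch.qlo
  refine diag_marks (fun n i s => VV_pos n i s) h.Apos (fun e n a' =>
    κ * (1 - (u : ℝ)) - e ≤ ψ (len B lev n u) (ys B lev atop n u a'))
    (fun e e' n a he hr => by linarith) ?_
  intro e he
  set δ : ℝ := min δ0 (e / 4) with hδ
  have hδp : 0 < δ := lt_min hch.δ0pos (by positivity)
  have hδ0 : δ ≤ δ0 := min_le_left _ _
  have hδe : δ ≤ e / 4 := min_le_right _ _
  set η : ℝ := min (e / 4) (e * δ / 2) with hη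
  have hηp : 0 < η := lt_min (by positivity) (by positivity)
  have hη1 : η ≤ e / 4 := min_le_left _ _
  have hη2 : η ≤ e * δ / 2 := min_le_right _ _
  have hHq : HomA (P q) := fun c l x hc hl => hP.hom q c l x hq0 hc hl
  have hHp : HomA (P (q + δ)) := fun c l x hc hl => hP.hom (q + δ) c l x (by linarith) hc hl
  have hlen := (len_lim h.sq hu hu1.le).eventually_lt_const
    (show (1 : ℝ) - u < 2 by
      have : (0 : ℝ) ≤ u := by exact_mod_cast hu
      linarith)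
  filter_upwards [step_fin h hHq hHp (hch.drop δ hδp hδ0) hu hu1 le_rfl hM (η := η) hηp,
    h.sq.lev_mono u 1 hu hu1.le le_rfl, hlen] with n hn h1 h2
  obtain ⟨A', hA', f', b', a', -, e1, e2, e3, e4, e5⟩ := hn
  -- simplify the top marks
  have l0 : len B lev n 1 = 0 := by unfold len; ring
  have y0 : ys B lev atop n 1 (atop n) = fun _ => (0 : ℝ) := by
    funext j; simp [ys, rel]
  have hz : P q (len B lev n 1) (ys B lev atop n 1 (atop n)) = 0 := by
    rw [l0, y0]; exact hP.zero q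
  have hd : P (q + δ) (len B lev n u - len B lev n 1)
      (fun j => ys B lev atop n u a' j - ys B lev atop n 1 (atop n) j) =
      P q (len B lev n u) (ys B lev atop n u a') +
        δ * ψ (len B lev n u) (ys B lev atop n u a') := by
    rw [l0, y0, sub_zero]
    have e6 : (fun j => ys B lev atop n u a' j - (0 : ℝ)) = ys B lev atop n u a' := by
      funext j; ring
    rw [e6, hP.aff (q + δ), hP.aff q]; ring
  have h1' : (0 : ℝ) ≤ (lev n 1 : ℝ) - lev n u := by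
    have : (lev n u : ℝ) ≤ lev n 1 := by exact_mod_cast h1
    linarith
  have hl0 : 0 ≤ len B lev n u := mul_nonneg (cn_pos B n).le h1'
  have hψ := hP.le (len B lev n u) (ys B lev atop n u a') hl0
  rw [hz, hd, Rat.cast_one] at e4
  have hκ := hch.κpos
  have hu' : (0 : ℝ) < 1 - u := by
    have : (u : ℝ) < 1 := by exact_mod_cast hu1
    linarith
  refine ⟨A', hA', f', b', a', ?_, e2, e3, ?_, ?_⟩
  · refine e1.trans (mul_le_mul_of_nonneg_right ?_ (Nat.cast_nonneg _))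
    exact dpow_le B n (by linarith)
  · have h6 : δ * (κ * (1 - (u : ℝ)) - e) ≤ δ * ψ (len B lev n u) (ys B lev atop n u a') := by
      nlinarith
    exact le_of_mul_le_mul_left h6 hδp
  · intro x hx
    refine le_trans ?_ (e5 x hx)
    refine mul_le_mul_of_nonneg_right (dpow_le B n ?_)
      (mul_pos (ampA_pos h.Apos _ n u) (VV_pos _ _ _)).le
    rw [hz, hd, Rat.cast_one]
    have h7 : δ * ψ (len B lev n u) (ys B lev atop n u a') ≤ δ * 2 :=
      mul_le_mul_of_nonneg_left (hψ.trans h2.le) hδp.le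
    have h8 : 0 < κ * δ * (1 - (u : ℝ)) := by positivity
    nlinarith

end

end Crest.Agent.R116.Xc8794
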