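import Mathlib
import Crest.Agent.R116.Xc9_794

/-!
# R116 (K side), block X1-C, class `Xc` (helper794): final diagonal
-/

set_option autoImplicit false
set_option linter.unusedSectionVars false

open Finset Filter Topology

namespace Crest.Agent.R116.XcD794

open Crest.Agent.R138.Ex926 Crest.Agent.R138.Dp76 Crest.Agent.R138.Ps627
open Crest.Agent.R138.Ps926
open Crest.Agent.R138.Mk163 (zc zl rho alive own Negl)
open Crest.Agent.R138.MkRef627 (lc kc own_one alive_mono mem_alive card_class own_lower exists_num)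
open Crest.Agent.R138.MkZoom779 (zc_nested zc_eq exists_rep)
open Crest.Agent.R136.MkA627 (ampA Geo MkA)
open Crest.Agent.R116.Xa794 (TS)
open Crest.Agent.R116.Xa3794
open Crest.Agent.R116.Xc794 Crest.Agent.R116.Xc1794 Crest.Agent.R116.Xc2794
open Crest.Agent.R116.Xc3794 Crest.Agent.R116.Xc4794 Crest.Agent.R116.Xc5794
open Crest.Agent.R116.Xc7794 Crest.Agent.R116.Xc8794 Crest.Agent.R116.Xc9794

variable {Ln ι S : Type} [Fintype ι]

section
variable {𝒯 : Set (TS Ln ι S)} {B : Base} {I : ℕ → Finset (ℕ × ℝ)} {lev : ℕ → ℚ → ℕ}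
  {Λ : ℝ → ℝ} {T : ℕ → TS Ln ι S} {L : ℕ → ℕ → Ln} {A : ℕ → ℝ} {g : ℝ}
  {Ψ : ℝ → (ι → ℝ) → ℝ} {atop : ℕ → ι → ℕ} {N : ℕ → ℕ}

open Classical in
/-- finite-level statement at one level `v` with error `e` -/
def Pv (B : Base) (T : ℕ → TS Ln ι S) (L : ℕ → ℕ → Ln) (lev : ℕ → ℚ → ℕ) (A : ℕ → ℝ) (Λ : ℝ → ℝ)
    (g : ℝ) (Ψ : ℝ → (ι → ℝ) → ℝ) (atop : ℕ → ι → ℕ) (n : ℕ) (J : Finset (ℕ × ℝ))
    (f : ℕ → ℤ → ℕ) (b : ℕ → (ι → ℕ) × S) (a : ι → ℕ) (θ : ι → ℝ) (e : ℝ) (v : ℚ) : Prop :=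
  (∀ x ∈ J, (T n).mem (lev n v) (zc (lev n v) x.2) (b (f x.1 (zc (lev n v) x.2))) (L n x.1) ∧
      (T n).adm (lev n v) (zc (lev n v) x.2) (b (f x.1 (zc (lev n v) x.2))) ∧
      (b (f x.1 (zc (lev n v) x.2))).1 = a) ∧
  (∀ x ∈ J, ampA B A (fun v => g * v + 2 * Λ v) n v * VV T Ψ lev atop n (lev n v) a ≤
      B.d n ^ (-e) * (((alive J (lev n v) (zc (lev n v) x.2)).filter fun s =>
        f s (zc (lev n v) x.2) = f x.1 (zc (lev n v) x.2)).card : ℝ)) ∧
  (∀ x ∈ J, B.d n ^ (-(1 - (v : ℝ)) + (Λ 1 - Λ v) + e) ≤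
      ((J.filter fun y => lc (lev n v) y = lc (lev n v) x).card : ℝ)) ∧
  ∀ j, |ys B lev atop n v a j - θ j * (1 - (v : ℝ))| ≤ e

theorem final_diag [Nonempty S] (h : Cx 𝒯 B I T L lev A Λ g Ψ atop N) {κ : ℝ}
    {ψ : ℝ → (ι → ℝ) → ℝ}
    (hψ : Continuous fun z : ℝ × (ι → ℝ) => ψ z.1 z.2)
    (hcoe : ∃ R : ℝ, ∀ x, κ ≤ ψ 1 x → ∀ j, |x j| ≤ R)
    (hk : ∀ v0 : ℚ, 0 < v0 → v0 < 1 → ∀ W : Finset ℚ, (∀ u ∈ W, 0 ≤ u ∧ u < v0) →
      ∃ (J : ℕ → Finset (ℕ × ℝ)) (f : ℚ → ℕ → ℕ → ℤ → ℕ) (b : ℚ → ℕ → ℕ → (ι → ℕ) × S)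
        (a : ℚ → ℕ → ι → ℕ) (θ : ι → ℝ), (∀ n, J n ⊆ I n) ∧ Dense B J I ∧ Sq B J lev Λ ∧
        a 1 = atop ∧ κ ≤ ψ 1 θ ∧ ∀ v ∈ insert 1 (insert v0 W),
          Mrk B J T L lev A (fun v => g * v + 2 * Λ v) (VV T Ψ lev atop) v (f v) (b v) (a v) ∧
          ∀ j, Tendsto (fun n => ys B lev atop n v (a v n) j) U (𝓝 (θ j * (1 - (v : ℝ))))) :
    ∃ (J : ℕ → Finset (ℕ × ℝ)) (f : ℕ → ℚ → ℕ → ℤ → ℕ) (b : ℕ → ℚ → ℕ → (ι → ℕ) × S)
      (a : ℕ → ℚ → ι → ℕ) (θ : ι → ℝ), (∀ n, J n ⊆ I n) ∧ Sq B J lev Λ ∧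
      (∀ n, a n 1 = atop n) ∧ κ ≤ ψ 1 θ ∧ ∀ v : ℚ, 0 ≤ v → v ≤ 1 →
        Mrk B J T L lev A (fun v => g * v + 2 * Λ v) (VV T Ψ lev atop) v (fun n => f n v)
          (fun n => b n v) (fun n => a n v) ∧
        ∀ j, Tendsto (fun n => ys B lev atop n v (a n v) j) U (𝓝 (θ j * (1 - (v : ℝ)))) := by
  classical
  set v0 : ℕ → ℚ := fun k => 1 - 1 / ((k : ℚ) + 2) with hv0
  have hv0p : ∀ k, 0 < v0 k := by
    intro k
    have : 1 / ((k : ℚ) + 2) < 1 := by
      rw [div_lt_one (by positivity)]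
      have : (0 : ℚ) ≤ k := Nat.cast_nonneg k
      linarith
    simp only [hv0]; linarith
  have hv01 : ∀ k, v0 k < 1 := by
    intro k
    have : 0 < 1 / ((k : ℚ) + 2) := by positivity
    simp only [hv0]; linarith
  set W : ℕ → Finset ℚ := fun k =>
    ((range k).image (fun m => Denumerable.ofNat ℚ m)).filter fun u => 0 ≤ u ∧ u < v0 k with hW
  have hex := fun k => hk (v0 k) (hv0p k) (hv01 k) (W k) (fun u hu => (mem_filter.1 hu).2)
  choose J f b a θ hJ hJd hJs ha hθ hM using hex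
  set e : ℕ → ℝ := fun k => 1 / ((k : ℝ) + 1) with he
  have hep : ∀ k, 0 < e k := fun k => by simp only [he]; positivity
  -- the finite statements
  have hP : ∀ k, ∀ᶠ n in (U : Filter ℕ), (J k n).Nonempty ∧
      ∀ v ∈ insert 1 (insert (v0 k) (W k)), Pv B T L lev A Λ g Ψ atop n (J k n) (f k v n)
        (b k v n) (a k v n) (θ k) (e k) v := by
    intro k
    refine ((hJs k).ne).and ?_
    rw [Filter.eventually_all_finset]
    intro v hv
    obtain ⟨hMk, hy⟩ := hM k v hv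
    have hv01' : 0 ≤ v ∧ v ≤ 1 := by
      rw [mem_insert, mem_insert] at hv
      rcases hv with rfl | rfl | hv
      · exact ⟨zero_le_one, le_rfl⟩
      · exact ⟨(hv0p k).le, (hv01 k).le⟩
      · have := (mem_filter.1 hv).2
        exact ⟨this.1, (this.2.trans (hv01 k)).le⟩
    have hyev : ∀ᶠ n in (U : Filter ℕ), ∀ j,
        |ys B lev atop n v (a k v n) j - θ k j * (1 - (v : ℝ))| ≤ e k := by
      rw [Filter.eventually_all]
      intro j
      have := (Metric.tendsto_nhds.1 (hy j)) (e k) (hep k)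
      filter_upwards [this] with n hn
      rw [Real.dist_eq] at hn
      exact hn.le
    filter_upwards [hMk.mark, hMk.near (e k) (hep k), (hJs k).fib v hv01'.1 hv01'.2 (e k) (hep k),
      hyev] with n h1 h2 h3 h4
    exact ⟨h1, h2, fun x hx => (h3 x hx).1, h4⟩
  obtain ⟨kk, hkk, hkP⟩ := exists_diag _ hP
  have hkP' : ∀ᶠ n in (U : Filter ℕ), (J (kk n) n).Nonempty ∧
      ∀ v ∈ insert 1 (insert (v0 (kk n)) (W (kk n))), Pv B T L lev A Λ g Ψ atop n (J (kk n) n)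
        (f (kk n) v n) (b (kk n) v n) (a (kk n) v n) (θ (kk n)) (e (kk n)) v := by
    filter_upwards [hkP] with n hn using hn _ le_rfl
  -- every level is in the mesh
  have hin : ∀ v : ℚ, 0 ≤ v → v ≤ 1 → ∀ᶠ n in (U : Filter ℕ),
      v ∈ insert 1 (insert (v0 (kk n)) (W (kk n))) := by
    intro v h0 h1
    rcases h1.eq_or_lt with rfl | h1
    · exact Eventually.of_forall fun n => mem_insert_self _ _
    obtain ⟨m, hm⟩ := exists_num v
    obtain ⟨K, hK⟩ := exists_nat_gt (1 / (1 - v))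
    filter_upwards [hkk.eventually_ge_atTop (max (m + 1) K)] with n hn
    refine mem_insert_of_mem (mem_insert_of_mem ?_)
    rw [hW, mem_filter, mem_image]
    have h2 : m + 1 ≤ kk n := (le_max_left _ _).trans hn
    have h3 : K ≤ kk n := (le_max_right _ _).trans hn
    refine ⟨⟨m, mem_range.2 (by omega), hm⟩, h0, ?_⟩
    have h4 : (0 : ℚ) < 1 - v := by linarith
    have h5 : (K : ℚ) ≤ kk n := by exact_mod_cast h3
    have h6 : 1 < (K : ℚ) * (1 - v) := by
      rwa [div_lt_iff₀ h4] at hK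
    have h7 : 1 / ((kk n : ℚ) + 2) < 1 - v := by
      rw [div_lt_iff₀ (by positivity)]
      nlinarith
    simp only [hv0]; linarith
  have hesm : ∀ ε : ℝ, 0 < ε → ∀ᶠ n in (U : Filter ℕ), e (kk n) ≤ ε := by
    intro ε hε
    have h1 : Tendsto (fun n => e (kk n)) U (𝓝 0) :=
      tendsto_one_div_add_atTop_nhds_zero_nat.comp hkk
    filter_upwards [h1.eventually_lt_const hε] with n hn using hn.le
  have helim : Tendsto (fun n => e (kk n)) U (𝓝 0) :=
    tendsto_one_div_add_atTop_nhds_zero_nat.comp hkk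
  -- the limit direction
  obtain ⟨R, hR⟩ := hcoe
  obtain ⟨Θ, hΘ⟩ := exists_vlim (y := fun n => θ (kk n)) (C := R)
    (Eventually.of_forall fun n j => hR _ (hθ (kk n)) j)
  have hψΘ : κ ≤ ψ 1 Θ := by
    have h1 : Tendsto (fun n => ψ 1 (θ (kk n))) U (𝓝 (ψ 1 Θ)) :=
      (hψ.tendsto ((1, Θ) : ℝ × (ι → ℝ))).comp (tendsto_const_nhds.prodMk_nhds hΘ)
    exact ge_of_tendsto h1 (Eventually.of_forall fun n => hθ (kk n))
  refine ⟨fun n => J (kk n) n, fun n v => f (kk n) v n, fun n v => b (kk n) v n,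
    fun n v => a (kk n) v n, Θ, fun n => hJ (kk n) n, ?_, ?_, hψΘ, ?_⟩
  · refine
      { ne := by filter_upwards [hkP'] with n hn using hn.1
        card := ?_
        lam0 := h.sq.lam0
        lam := h.sq.lam
        lev_mono := h.sq.lev_mono
        lev_lim := h.sq.lev_lim
        cell0 := by
          filter_upwards [h.sq.cell0] with n hn x hx y hy using
            hn x (hJ (kk n) n hx) y (hJ (kk n) n hy)
        one := by
          filter_upwards [h.sq.one] with n hn x hx y hy using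
            hn x (hJ (kk n) n hx) y (hJ (kk n) n hy)
        fib := ?_ }
    · intro ε hε
      filter_upwards [h.sq.card ε hε, hkP'] with n hn hne
      refine le_trans (Real.log_le_log (by exact_mod_cast card_pos.2 hne.1)
        (by exact_mod_cast card_le_card (hJ (kk n) n))) hn
    · intro v hv0 hv1 ε hε
      filter_upwards [h.sq.fib v hv0 hv1 ε hε, hkP', hin v hv0 hv1, hesm ε hε]
        with n h1 h2 h3 h4 x hx
      refine ⟨?_, ?_⟩
      · refine le_trans (dpow_le B n (by linarith)) ((h2.2 v h3).2.2.1 x hx)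
      · refine le_trans ?_ (h1 x (hJ (kk n) n hx)).2
        exact_mod_cast card_le_card (filter_subset_filter _ (hJ (kk n) n))
  · intro n
    simp only [ha]
  · intro v hv0 hv1
    refine ⟨{ mark := ?_, near := ?_ }, ?_⟩
    · filter_upwards [hkP', hin v hv0 hv1] with n h2 h3 using (h2.2 v h3).1
    · intro ε hε
      filter_upwards [hkP', hin v hv0 hv1, hesm ε hε] with n h2 h3 h4 x hx
      refine ((h2.2 v h3).2.1 x hx).trans ?_
      exact mul_le_mul_of_nonneg_right (dpow_le B n (by linarith)) (Nat.cast_nonneg _)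
    · intro j
      have h1 : Tendsto (fun n => ys B lev atop n v (a (kk n) v n) j -
          θ (kk n) j * (1 - (v : ℝ))) U (𝓝 0) := by
        refine squeeze_zero_norm' ?_ helim
        filter_upwards [hkP', hin v hv0 hv1] with n h2 h3
        rw [Real.norm_eq_abs]
        exact (h2.2 v h3).2.2.2 j
      have h2 : Tendsto (fun n => θ (kk n) j * (1 - (v : ℝ))) U (𝓝 (Θ j * (1 - (v : ℝ)))) :=
        ((tendsto_pi_nhds.1 hΘ) j).mul_const _
      have h3 := h1.add h2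
      rw [zero_add] at h3
      refine h3.congr fun n => ?_
      ring

end

end Crest.Agent.R116.XcD794
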