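import Mathlib
import Crest.Agent.R116.Xc8_794

/-!
# R116 (K side), block X1-C: assembly of `MkA` from the pieces of 794 (helper708)

`mk_assemble` : own profile (`Sq`), D-max (`Dmx`) and marks (`Mrk`) at every rational level with
exactly linear limits of the normalised relative exponents ⟹ `MkA` over `geoP`.
-/

set_option autoImplicit false

open Finset Filter Topology

namespace Crest.Agent.R116.XcM708

open Crest.Agent.R138.Ex926 Crest.Agent.R138.Dp76 Crest.Agent.R138.Ps627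
open Crest.Agent.R138.Mk163 (zc zl rho alive own)
open Crest.Agent.R138.MkRef627 (lc kc own_one alive_mono mem_alive card_class own_lower)
open Crest.Agent.R136.MkA627 (ampA Geo MkA)
open Crest.Agent.R116.Xa794 (TS)
open Crest.Agent.R116.Xa2794 (lc_nested)
open Crest.Agent.R116.Xa3794
open Crest.Agent.R116.Xc794 Crest.Agent.R116.Xc3794 Crest.Agent.R116.Xc4794
open Crest.Agent.R116.Xc7794

open Classical in
/-- own counts times the least fine fibre are at most the coarse fibre. -/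
theorem own_upper {J : Finset (ℕ × ℝ)} {i j : ℕ} (hij : i ≤ j) {x : ℕ × ℝ} {m : ℝ}
    (h : ∀ y ∈ J, m ≤ ((J.filter fun y' => lc j y' = lc j y).card : ℝ)) :
    m * ((own J i j x).card : ℝ) ≤ ((J.filter fun y => lc i y = lc i x).card : ℝ) := by
  set F := J.filter fun y => y.1 = x.1 ∧ zc i y.2 = zc i x.2 with hF
  have e0 : (J.filter fun y => lc i y = lc i x) = F := by
    ext y; simp only [hF, mem_filter, lc, Prod.mk.injEq]
  rw [e0]
  have e1 : (F.card : ℝ) = ∑ c ∈ F.image (fun y => zc j y.2),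
      ((F.filter fun y => zc j y.2 = c).card : ℝ) := by
    rw [card_eq_sum_card_image (fun y : ℕ × ℝ => zc j y.2) F]
    push_cast; rfl
  have e2 : own J i j x = F.image (fun y => zc j y.2) := rfl
  rw [e1, e2, mul_comm, ← nsmul_eq_mul]
  refine card_nsmul_le_sum _ _ _ fun c hc => ?_
  obtain ⟨y, hy, rfl⟩ := mem_image.1 hc
  have hyJ : y ∈ J := (mem_filter.1 hy).1
  refine (h y hyJ).trans ?_
  have hsub : (J.filter fun y' => lc j y' = lc j y) ⊆ F.filter fun z => zc j z.2 = zc j y.2 := by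
    intro z hz
    rw [mem_filter] at hz
    have h1 := lc_nested hij hz.2
    obtain ⟨h2, h3⟩ := Prod.mk.inj hz.2
    obtain ⟨h4, h5⟩ := Prod.mk.inj h1
    rw [hF, mem_filter] at hy
    rw [mem_filter, hF, mem_filter]
    exact ⟨⟨hz.1, h4.trans hy.2.1, h5.trans hy.2.2⟩, h3⟩
  exact_mod_cast card_le_card hsub

variable {Ln ι S : Type} [Fintype ι]

section

variable {B : Base} {I : ℕ → Finset (ℕ × ℝ)} {lev : ℕ → ℚ → ℕ} {Λ : ℝ → ℝ} {T : ℕ → TS Ln ι S}
  {L : ℕ → ℕ → Ln} {A : ℕ → ℝ} {g : ℝ} {Ψ : ℝ → (ι → ℝ) → ℝ} {atop : ℕ → ι → ℕ}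

open Classical in
/-- own profile from two-sided fibres. -/
theorem own_of_fib (sq : Sq B I lev Λ) (u v : ℚ) (hu : 0 ≤ u) (huv : u ≤ v) (hv : v ≤ 1) (ε : ℝ)
    (hε : 0 < ε) : ∀ᶠ n in (U : Filter ℕ), ∀ x ∈ I n,
      B.d n ^ (-((v : ℝ) - u) + (Λ v - Λ u) + ε) ≤ ((own (I n) (lev n u) (lev n v) x).card : ℝ) ∧
      ((own (I n) (lev n u) (lev n v) x).card : ℝ) ≤
        B.d n ^ (-((v : ℝ) - u) + (Λ v - Λ u) - ε) := by
  filter_upwards [sq.fib u hu (huv.trans hv) (ε / 2) (by positivity),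
    sq.fib v (hu.trans huv) hv (ε / 2) (by positivity), sq.lev_mono u v hu huv hv] with n h1 h2 h3 x hx
  have l1 := own_lower (i := lev n u) (j := lev n v)
    (m := B.d n ^ (-(1 - (v : ℝ)) + (Λ 1 - Λ v) - ε / 2)) (fun y hy => (h2 y hy).2) hx
  have l2 := own_upper h3 (x := x)
    (m := B.d n ^ (-(1 - (v : ℝ)) + (Λ 1 - Λ v) + ε / 2)) (fun y hy => (h2 y hy).1)
  constructor
  · have l3 := (h1 x hx).1.trans l1
    have hpos := dpow_pos B n (-(1 - (v : ℝ)) + (Λ 1 - Λ v) - ε / 2)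
    have e : B.d n ^ (-(1 - (u : ℝ)) + (Λ 1 - Λ u) + ε / 2) =
        B.d n ^ (-(1 - (v : ℝ)) + (Λ 1 - Λ v) - ε / 2) *
          B.d n ^ (-((v : ℝ) - u) + (Λ v - Λ u) + ε) := by
      rw [← dpow_add]; congr 1; ring
    rw [e] at l3
    exact le_of_mul_le_mul_left l3 hpos
  · have l3 := l2.trans (h1 x hx).2
    have hpos := dpow_pos B n (-(1 - (v : ℝ)) + (Λ 1 - Λ v) + ε / 2)
    have e : B.d n ^ (-(1 - (u : ℝ)) + (Λ 1 - Λ u) - ε / 2) =
        B.d n ^ (-(1 - (v : ℝ)) + (Λ 1 - Λ v) + ε / 2) *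
          B.d n ^ (-((v : ℝ) - u) + (Λ v - Λ u) - ε) := by
      rw [← dpow_add]; congr 1; ring
    rw [e] at l3
    exact le_of_mul_le_mul_left l3 hpos

/-- **assembly of `MkA`.** -/
theorem mk_assemble (hA : ∀ n, 0 < A n) (sq : Sq B I lev Λ)
    (dmx : Dmx B I T L lev A (fun v => g * v + 2 * Λ v) (VV T Ψ lev atop))
    (f : ℕ → ℚ → ℕ → ℤ → ℕ) (b : ℕ → ℚ → ℕ → (ι → ℕ) × S) (a : ℕ → ℚ → ι → ℕ) (θ : ι → ℝ)
    (htop : ∀ n, a n 1 = atop n)
    (hm : ∀ v : ℚ, 0 ≤ v → v ≤ 1 → Mrk B I T L lev A (fun v => g * v + 2 * Λ v)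
      (VV T Ψ lev atop) v (fun n => f n v) (fun n => b n v) (fun n => a n v))
    (hy : ∀ v : ℚ, 0 ≤ v → v ≤ 1 → ∀ j, Tendsto (fun n => ys B lev atop n v (a n v) j) U
      (𝓝 (θ j * (1 - (v : ℝ))))) :
    MkA B I (geoP T Ψ (fun n => lev n 1) atop L) lev A (fun v => g * v + 2 * Λ v) Λ
      (fun j v => θ j * (1 - v)) f b (fun n v => VV T Ψ lev atop n (lev n v) (a n v))
      (fun j n v => (1 / 2 : ℝ) ^ (a n v j)) := by
  classical
  refine
    { ne := sq.ne
      card := sq.card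
      Apos := hA
      c0 := by rw [sq.lam0]; ring
      lam0 := sq.lam0
      lam := sq.lam
      tau1 := fun j => by ring
      lev_mono := sq.lev_mono
      lev_lim := sq.lev_lim
      cell0 := sq.cell0
      one := sq.one
      own := fun u v hu huv hv ε hε => own_of_fib sq u v hu huv hv ε hε
      dmax := ?_
      mark := ?_
      near := ?_
      vpos := fun v _ _ => Eventually.of_forall fun n => VV_pos _ _ _
      wpos := fun j v _ _ => Eventually.of_forall fun n => by positivity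
      tau := ?_ }
  · intro v hv0 hv1 ε hε
    filter_upwards [dmx v hv0 hv1 ε hε] with n hn J s hs
    exact hn J s hs
  · intro v hv0 hv1
    filter_upwards [(hm v hv0 hv1).mark] with n hn J t ht
    obtain ⟨x, hx, h1, h2⟩ := mem_alive.1 ht
    have h3 := hn x hx
    rw [h1, h2] at h3
    obtain ⟨m1, m2, m3⟩ := h3
    refine ⟨m1, m2, ?_, fun j => ?_⟩
    · show capP (T n) Ψ (lev n 1) (atop n) (lev n v) (b n v (f n v t J)).1 = _
      rw [m3]
      rfl
    · show (1 / 2 : ℝ) ^ ((b n v (f n v t J)).1 j) = _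
      rw [m3]
  · intro v hv0 hv1 ε hε
    filter_upwards [(hm v hv0 hv1).near ε hε] with n hn J t ht
    obtain ⟨x, hx, h1, h2⟩ := mem_alive.1 ht
    have h3 := hn x hx
    rw [h1, h2] at h3
    exact h3
  · intro j v hv0 hv1
    refine (hy v hv0 hv1 j).congr fun n => ?_
    have hr : ∀ (i k : ℕ), rho i / (1 / 2 : ℝ) ^ k = (2 : ℝ) ^ ((k : ℝ) - i) := by
      intro i k
      rw [Real.rpow_sub two_pos, Real.rpow_natCast, Real.rpow_natCast]
      unfold rho
      rw [one_div_pow]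
      field_simp
    rw [hr, hr, ← Real.rpow_sub two_pos, Real.log_rpow two_pos, htop]
    unfold ys cn rel
    ring

end

end Crest.Agent.R116.XcM708
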