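import Mathlib
import Crest.Agent.R116.XcCut_794

/-!
# R116 (K side), block X1-C: the output with the true top (helper794)

`XOutQ` = `XOutP` + the shapes `a n v` of the marks (`a n 1 = atop n`, `w j n v = (1/2)^(a n v j)`,
`vm n v` = capacity of the shape) + the top marks are admissible.
`XOutQ.toP : XOutQ → XOutP`; for cut classes `XOutR` : `T n = cut K0 (R n) (T0 n)` with
`atop n j + K0 * lev n 1 ≤ R n`.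
-/

set_option autoImplicit false
set_option linter.unusedSectionVars false

open Finset Filter Topology

namespace Crest.Agent.R116.Xc794

open Crest.Agent.R138.Ex926 (Base U)
open Crest.Agent.R138.Mk163 (zc zl rho alive own)
open Crest.Agent.R136.MkA627 (Geo MkA)
open Crest.Agent.R116.Xa794 (TS)

section

variable {Ln ι S : Type} [Fintype ι]

/-- **the output of X1-C with the true top.** -/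
def XOutQ (𝒯 : Set (TS Ln ι S)) (Ψ ψ : ℝ → (ι → ℝ) → ℝ) (κ g : ℝ) (θ : ι → ℝ) : Prop :=
  ∃ (B : Base) (I : ℕ → Finset (ℕ × ℝ)) (T : ℕ → TS Ln ι S) (L : ℕ → ℕ → Ln) (lev : ℕ → ℚ → ℕ)
    (A : ℕ → ℝ) (Λ : ℝ → ℝ) (f : ℕ → ℚ → ℕ → ℤ → ℕ) (b : ℕ → ℚ → ℕ → (ι → ℕ) × S)
    (vm : ℕ → ℚ → ℝ) (w : ι → ℕ → ℚ → ℝ) (atop : ℕ → ι → ℕ) (N : ℕ → ℕ) (a : ℕ → ℚ → ι → ℕ),
    (∀ n, T n ∈ 𝒯) ∧ (∀ n i J s, (T n).adm i J s → ∀ j, s.1 j ≤ N n) ∧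
    (∀ ε : ℝ, 0 < ε → ∀ᶠ n in (U : Filter ℕ), (N n : ℝ) ≤ B.d n ^ (-ε)) ∧
    κ ≤ ψ 1 θ ∧
    MkA B I (geoP T Ψ (fun n => lev n 1) atop L)
      lev A (fun v => g * v + 2 * Λ v) Λ (fun j v => θ j * (1 - v)) f b vm w ∧
    (∀ n, a n 1 = atop n) ∧ (∀ n v j, w j n v = (1 / 2 : ℝ) ^ (a n v j)) ∧
    (∀ n v, vm n v = capP (T n) Ψ (lev n 1) (atop n) (lev n v) (a n v)) ∧
    (∀ v : ℚ, 0 ≤ v → v ≤ 1 → ∀ᶠ n in (U : Filter ℕ), ∃ (J : ℤ) (s : (ι → ℕ) × S),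
      (T n).adm (lev n v) J s ∧ s.1 = a n v)

theorem XOutQ.toP {𝒯 : Set (TS Ln ι S)} {Ψ ψ : ℝ → (ι → ℝ) → ℝ} {κ g : ℝ} {θ : ι → ℝ}
    (h : XOutQ 𝒯 Ψ ψ κ g θ) : XOutP 𝒯 Ψ ψ κ g θ := by
  obtain ⟨B, I, T, L, lev, A, Λ, f, b, vm, w, atop, N, a, h1, h2, h3, h4, h5, -⟩ := h
  exact ⟨B, I, T, L, lev, A, Λ, f, b, vm, w, atop, N, h1, h2, h3, h4, h5⟩

/-- **the output for cut classes** -/
def XOutR (K0 : ℕ) (𝒯 : Set (TS Ln ι S)) (Ψ ψ : ℝ → (ι → ℝ) → ℝ) (κ g : ℝ) (θ : ι → ℝ) : Prop :=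
  ∃ (B : Base) (I : ℕ → Finset (ℕ × ℝ)) (T0 : ℕ → TS Ln ι S) (R : ℕ → ℕ) (L : ℕ → ℕ → Ln)
    (lev : ℕ → ℚ → ℕ)
    (A : ℕ → ℝ) (Λ : ℝ → ℝ) (f : ℕ → ℚ → ℕ → ℤ → ℕ) (b : ℕ → ℚ → ℕ → (ι → ℕ) × S)
    (vm : ℕ → ℚ → ℝ) (w : ι → ℕ → ℚ → ℝ) (atop : ℕ → ι → ℕ) (N : ℕ → ℕ) (a : ℕ → ℚ → ι → ℕ),
    (∀ n, T0 n ∈ 𝒯) ∧ (∀ n i J s, (cut K0 (R n) (T0 n)).adm i J s → ∀ j, s.1 j ≤ N n) ∧
    (∀ ε : ℝ, 0 < ε → ∀ᶠ n in (U : Filter ℕ), (N n : ℝ) ≤ B.d n ^ (-ε)) ∧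
    κ ≤ ψ 1 θ ∧
    MkA B I (geoP (fun n => cut K0 (R n) (T0 n)) Ψ (fun n => lev n 1) atop L)
      lev A (fun v => g * v + 2 * Λ v) Λ (fun j v => θ j * (1 - v)) f b vm w ∧
    (∀ n, a n 1 = atop n) ∧ (∀ n v j, w j n v = (1 / 2 : ℝ) ^ (a n v j)) ∧
    (∀ n v, vm n v = capP (T0 n) Ψ (lev n 1) (atop n) (lev n v) (a n v)) ∧
    (∀ v : ℚ, 0 ≤ v → v ≤ 1 → ∀ᶠ n in (U : Filter ℕ),
      (∃ (J : ℤ) (s : (ι → ℕ) × S), (T0 n).adm (lev n v) J s ∧ s.1 = a n v) ∧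
      ∀ j, a n v j + K0 * lev n v ≤ R n)

theorem XOutQ.toR {K0 : ℕ} {𝒯 : Set (TS Ln ι S)} {Ψ ψ : ℝ → (ι → ℝ) → ℝ} {κ g : ℝ} {θ : ι → ℝ}
    (h : XOutQ (Cut K0 𝒯) Ψ ψ κ g θ) : XOutR K0 𝒯 Ψ ψ κ g θ := by
  obtain ⟨B, I, T, L, lev, A, Λ, f, b, vm, w, atop, N, a, h1, h2, h3, h4, h5, h6, h7, h8, h9⟩ := h
  choose T0 hT0 R hR using h1
  obtain rfl : T = fun n => cut K0 (R n) (T0 n) := funext hR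
  refine ⟨B, I, T0, R, L, lev, A, Λ, f, b, vm, w, atop, N, a, hT0, h2, h3, h4, h5, h6, h7, h8, ?_⟩
  intro v hv0 hv1
  filter_upwards [h9 v hv0 hv1] with n hn
  obtain ⟨J, s, hs, hs2⟩ := hn
  refine ⟨⟨J, s, hs.1, hs2⟩, fun j => ?_⟩
  have := hs.2 j
  rw [hs2] at this
  exact this

end

end Crest.Agent.R116.Xc794
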