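import Mathlib
import Crest.Agent.R116.XcD_794
import Crest.Agent.R116.XcM_708
import Crest.Agent.R116.XcOut_794

/-!
# R116 (K side), block X1-C: the theorem (helper794)

`xoutQ`, `xoutP` : `Rwd P ψ q0 → Chs 𝒯 P q0 κ δ0 q g → ∃ θ, XOutQ 𝒯 (P q) ψ κ g θ` (resp. `XOutP`).
-/

set_option autoImplicit false
set_option linter.unusedSectionVars false

open Finset Filter Topology

namespace Crest.Agent.R116.XcF794

open Crest.Agent.R138.Ex926 Crest.Agent.R138.Dp76 Crest.Agent.R138.Ps627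
open Crest.Agent.R138.Ps926
open Crest.Agent.R138.Mk163 (zc zl rho alive own Negl)
open Crest.Agent.R138.MkRef627 (lc kc own_one alive_mono mem_alive card_class own_lower exists_num)
open Crest.Agent.R138.MkZoom779 (zc_nested zc_eq exists_rep)
open Crest.Agent.R136.MkA627 (ampA Geo MkA)
open Crest.Agent.R116.Xa794 (TS)
open Crest.Agent.R116.Xa3794
open Crest.Agent.R116.Xc794 Crest.Agent.R116.Xc1794 Crest.Agent.R116.Xc2794
open Crest.Agent.R116.Xc3794 Crest.Agent.R116.Xc4794 Crest.Agent.R116.Xc5794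
open Crest.Agent.R116.Xc7794 Crest.Agent.R116.Xc8794 Crest.Agent.R116.Xc9794

variable {Ln ι S : Type} [Fintype ι]

/-- **X1-C.** -/
theorem xoutQ {𝒯 : Set (TS Ln ι S)} {P : ℝ → ℝ → (ι → ℝ) → ℝ} {ψ : ℝ → (ι → ℝ) → ℝ}
    {q0 κ δ0 q g : ℝ} (hP : Rwd P ψ q0) (hch : Chs 𝒯 P q0 κ δ0 q g) :
    ∃ θ : ι → ℝ, XOutQ 𝒯 (P q) ψ κ g θ := by
  classical
  have hq0 : 0 ≤ q := hP.q0pos.le.trans hch.qlo
  have hSq : SupA (P q) := fun l l' x x' hl hl' => hP.sup q l l' x x' hq0 hl hl'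
  obtain ⟨B, I, T, L, lev, A, Λ, f, b, atop, N, hS, hT, hfin, hNd, hA, hsq, h0, hM⟩ :=
    Crest.Agent.R116.Xc6794.exists_init (hP.zero q) hch.low hch.ub
  obtain ⟨J, hJI, hJd, hdm⟩ := exists_dmx hsq 𝒯 hSq hch.ub hT hfin hNd hA h0
  obtain ⟨J1, h1, h2, h3, h4, h5⟩ := refineF hsq hJd {1} (by
      intro v hv
      rw [mem_singleton] at hv
      subst hv
      exact ⟨zero_le_one, le_rfl⟩) (mem_singleton_self _) (fun _ => I)
    (fun _ _ n => Subset.refl _) (fun _ _ => Eventually.of_forall fun n => hJI n)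
    (fun _ _ => Eventually.of_forall fun n x _ y hy _ => hy) (fun _ => f) (fun _ => b)
    (fun _ => atop) (by
      intro v hv
      rw [mem_singleton] at hv
      subst hv
      exact hM)
  have hCx : Cx 𝒯 B J1 T L lev A Λ g (P q) atop N := ⟨hT, hfin, hNd, hA, h4, hdm.mono h1⟩
  have hM1 := h5 1 (mem_singleton_self _)
  obtain ⟨J2, f2, b2, a2, θ, g1, g2, g3, g4, g5⟩ := Crest.Agent.R116.XcD794.final_diag hCx (κ := κ) (ψ := ψ) hP.contψ (by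
      obtain ⟨R, hR, hR2⟩ := hP.coe κ hch.κpos
      exact ⟨R * 1, fun x hx j => hR2 1 x zero_le_one (by rw [mul_one]; exact hx) j⟩) (by
      intro v0 hv0 hv1 W hW
      obtain ⟨J, f, b, a, θ, e1, e2, e3, e4, e5, e6⟩ := mesh hP hch hCx hv0 hv1 hM1 W hW
      exact ⟨J, f, b, a, θ, e1, e2, e3.sq, e4, e5, e6⟩)
  refine ⟨θ, B, J2, T, L, lev, A, Λ, f2, b2, fun n v => VV T (P q) lev atop n (lev n v) (a2 n v),
    fun j n v => (1 / 2 : ℝ) ^ (a2 n v j), atop, N, a2, hT, hfin, hNd, g4,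
    Crest.Agent.R116.XcM708.mk_assemble hA g2 (hCx.dmx.mono g1) f2 b2 a2 θ g3 (fun v h0 h1 => (g5 v h0 h1).1)
      (fun v h0 h1 => (g5 v h0 h1).2), g3, fun n v j => rfl, fun n v => rfl, ?_⟩
  intro v hv0 hv1
  filter_upwards [(g5 v hv0 hv1).1.mark, g2.ne] with n hn hne
  obtain ⟨x, hx⟩ := hne
  obtain ⟨-, m2, m3⟩ := hn x hx
  exact ⟨_, _, m2, m3⟩

theorem xoutP {𝒯 : Set (TS Ln ι S)} {P : ℝ → ℝ → (ι → ℝ) → ℝ} {ψ : ℝ → (ι → ℝ) → ℝ}
    {q0 κ δ0 q g : ℝ} (hP : Rwd P ψ q0) (hch : Chs 𝒯 P q0 κ δ0 q g) :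
    ∃ θ : ι → ℝ, XOutP 𝒯 (P q) ψ κ g θ := by
  obtain ⟨θ, h⟩ := xoutQ hP hch
  exact ⟨θ, h.toP⟩

end Crest.Agent.R116.XcF794
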