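import Crest.Agent.R116.KF2_439
import Crest.Agent.R136.ZoomA_102

/-!
# R116 (K side), [KL2]: one more zoom makes the marks infinitely thin or round (helper388)

`kl2` : from a linear marked sequence with two widths (`κ = Fin 2`, wide `w 0`, thin `w 1`) with
`w 1 ≤ w 0` to a window in which the marks of every level are infinitely thin (`Thin`) or round
(`Thick`); same exponents.
-/

set_option autoImplicit false
set_option linter.unusedVariables false

open Finset Filter Topology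

namespace Crest.Agent.R116.KL388

open Crest.Agent.R138.Ex926 (Base U exists_diag exists_tendsto ev_em U_le_atTop)
open Crest.Agent.R138.Mk163 (rho alive own)
open Crest.Agent.R138.MkPoint627 (exists_affine)
open Crest.Agent.R138.MkZoom779 (Fq Fq_mem ev_mem_Fq)
open Crest.Agent.R136.MkA627
open Crest.Agent.R136.ZoomA102
open Crest.Agent.R116.KF439 (Thin Thick Win)

section

variable {σ : Type*} {B : Base} {I : ℕ → Finset (ℕ × ℝ)} {G : Geo σ (Fin 2)} {lev : ℕ → ℚ → ℕ}
    {A : ℕ → ℝ} {f : ℕ → ℚ → ℕ → ℤ → ℕ} {b : ℕ → ℚ → ℕ → σ}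
    {vm : ℕ → ℚ → ℝ} {w : Fin 2 → ℕ → ℚ → ℝ} {g s : ℝ} {θ : Fin 2 → ℝ}

/-- exponent of the thinness of the marks of level `v` -/
noncomputable def rr (B : Base) (w : Fin 2 → ℕ → ℚ → ℝ) (n : ℕ) (v : ℚ) : ℝ :=
  Real.log (w 0 n v / w 1 n v) / B.L n

theorem rr_diff {c Λ : ℝ → ℝ} {τ : Fin 2 → ℝ → ℝ} (h : MkA B I G lev A c Λ τ f b vm w) {v : ℚ}
    (h0 : 0 ≤ v) (h1 : v ≤ 1) :
    Tendsto (fun n => rr B w n v - rr B w n 1) U (𝓝 (τ 1 v - τ 0 v)) := by
  have a0 := h.tau 0 v h0 h1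
  have a1 := h.tau 1 v h0 h1
  refine (a1.sub a0).congr' ?_
  filter_upwards [h.wpos 0 v h0 h1, h.wpos 1 v h0 h1, h.wpos 0 1 zero_le_one le_rfl,
    h.wpos 1 1 zero_le_one le_rfl] with n p0 p1 q0 q1
  have hr : ∀ i, rho i ≠ 0 := fun i => by unfold rho; positivity
  have e : ∀ j, 0 < w j n v → 0 < w j n 1 →
      Real.log ((rho (lev n v) / w j n v) / (rho (lev n 1) / w j n 1)) =
      (Real.log (rho (lev n v)) - Real.log (w j n v)) -
        (Real.log (rho (lev n 1)) - Real.log (w j n 1)) := fun j x1 x2 => by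
    rw [Real.log_div (div_ne_zero (hr _) x1.ne') (div_ne_zero (hr _) x2.ne'),
      Real.log_div (hr _) x1.ne', Real.log_div (hr _) x2.ne']
  unfold rr
  rw [e 0 p0 q0, e 1 p1 q1, Real.log_div p0.ne' p1.ne', Real.log_div q0.ne' q1.ne']
  ring

/-- from the exponent to the widths -/
theorem thin_of {n : ℕ} {v : ℚ} {a : ℝ} (p0 : 0 < w 0 n v) (p1 : 0 < w 1 n v)
    (h : a ≤ rr B w n v) : w 1 n v ≤ B.d n ^ a * w 0 n v := by
  have hL := B.L_pos n
  unfold rr at h
  rw [le_div_iff₀ hL, Real.log_div p0.ne' p1.ne'] at h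
  have e : B.d n ^ a = Real.exp (-(a * B.L n)) := by
    rw [Real.rpow_def_of_pos (B.pos n)]
    congr 1
    unfold Base.L
    ring
  rw [e]
  have h2 : Real.log (w 1 n v) ≤ -(a * B.L n) + Real.log (w 0 n v) := by linarith
  have h3 := Real.exp_le_exp.2 h2
  rw [Real.exp_add, Real.exp_log p0, Real.exp_log p1] at h3
  exact h3

theorem thick_of {n : ℕ} {v : ℚ} {a : ℝ} (p0 : 0 < w 0 n v) (p1 : 0 < w 1 n v)
    (h : rr B w n v ≤ a) : B.d n ^ a * w 0 n v ≤ w 1 n v := by
  have hL := B.L_pos n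
  unfold rr at h
  rw [div_le_iff₀ hL, Real.log_div p0.ne' p1.ne'] at h
  have e : B.d n ^ a = Real.exp (-(a * B.L n)) := by
    rw [Real.rpow_def_of_pos (B.pos n)]
    congr 1
    unfold Base.L
    ring
  rw [e]
  have h2 : -(a * B.L n) + Real.log (w 0 n v) ≤ Real.log (w 1 n v) := by linarith
  have h3 := Real.exp_le_exp.2 h2
  rw [Real.exp_add, Real.exp_log p0, Real.exp_log p1] at h3
  exact h3

theorem rr_nonneg {n : ℕ} {v : ℚ} (p1 : 0 < w 1 n v) (h : w 1 n v ≤ w 0 n v) :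
    0 ≤ rr B w n v := by
  unfold rr
  refine div_nonneg (Real.log_nonneg ?_) (B.L_pos n).le
  rwa [one_le_div p1]

/-- **the window with a diagonal property** `Q k n`, linear exponents. -/
theorem zoomQ (h : MkA B I G lev A (fun v => g * v) (fun v => s * v) (fun j v => θ j * (1 - v)) f b
      vm w)
    (Q : ((ℕ → ℝ) × (ℕ → ℚ → ℚ)) → ℕ → ℕ → Prop)
    (hQ : ∀ (η : ℕ → ℝ) (m : ℕ → ℚ → ℚ), (∀ k, 0 < η k) →
      (∀ k, ∀ x : ℚ, 0 ≤ x → x ≤ 1 → 0 ≤ m k x ∧ m k x ≤ 1) →
      ∀ k, ∀ᶠ n in (U : Filter ℕ), Q (η, m) k n) :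
    ∃ (η : ℕ → ℝ) (m : ℕ → ℚ → ℚ) (t : ℕ → ℕ) (B' : Base) (I' : ℕ → Finset (ℕ × ℝ)) (A' : ℕ → ℝ),
      (∀ k, 0 < η k) ∧ Tendsto η atTop (𝓝 0) ∧ Tendsto t U atTop ∧
      (∀ x : ℚ, Tendsto (fun k => ((m k x : ℚ) : ℝ)) atTop (𝓝 (1 / 2))) ∧
      Win B I B' I' (fun n => η (t n)) (fun n => m (t n)) ∧
      MkA B' I' G (fun n x => lev n (m (t n) x)) A' (fun v => g * v) (fun v => s * v)
        (fun j v => θ j * (1 - v)) (fun n x => f n (m (t n) x)) (fun n x => b n (m (t n) x))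
        (fun n x => vm n (m (t n) x)) (fun j n x => w j n (m (t n) x)) ∧
      ∀ᶠ n in (U : Filter ℕ), Q (η, m) (t n) n := by
  obtain ⟨η, m, hη, hη1, hη0, hm, hmono, hq, hmv, -⟩ :=
    exists_affine (v0 := 1 / 2) (by norm_num) (by norm_num)
  have hz := zoomA (B := B) (I := I) (G := G) (lev := lev) (A := A) (c := fun v => g * v)
    (Λ := fun v => s * v) (τ := fun j v => θ j * (1 - v)) (f := f) (b := b) (vm := vm) (w := w)
  have hs := h.lam 0 1 le_rfl zero_le_one le_rfl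
  have hs0 : 0 ≤ s := by have := hs.1; linarith
  have hs1 : s ≤ 1 := by have := hs.2; linarith
  have hlin : ∀ a : ℝ, ∀ x y : ℚ, ∀ k, (a * (m k y : ℝ) - a * (m k x : ℝ)) / η k =
      a * ((y : ℝ) - x) := fun a x y k => by
    rw [← hq k x y]; ring
  obtain ⟨s0, hs0t, hz'⟩ := hz h η m (fun v => g * v) (fun v => s * v)
    (fun j v => θ j * (1 - v)) hη hη1 hm
    (fun x y _ hxy _ => Eventually.of_forall fun k => hmono k x y hxy)
    (fun x y _ _ _ => by
      simp only [hq]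
      exact tendsto_const_nhds)
    (fun x _ _ => by
      have e : (fun k => (g * (m k x : ℝ) - g * (m k 0 : ℝ)) / η k) = fun _ => g * (x : ℝ) := by
        funext k
        rw [hlin]; push_cast; ring
      show Tendsto (fun k => (g * (m k x : ℝ) - g * (m k 0 : ℝ)) / η k) atTop (𝓝 (g * (x : ℝ)))
      rw [e]
      exact tendsto_const_nhds)
    (fun x _ _ => by
      have e : (fun k => (s * (m k x : ℝ) - s * (m k 0 : ℝ)) / η k) = fun _ => s * (x : ℝ) := by
        funext k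
        rw [hlin]; push_cast; ring
      show Tendsto (fun k => (s * (m k x : ℝ) - s * (m k 0 : ℝ)) / η k) atTop (𝓝 (s * (x : ℝ)))
      rw [e]
      exact tendsto_const_nhds)
    (fun j x _ _ => by
      have e : (fun k => (θ j * (1 - (m k x : ℝ)) - θ j * (1 - (m k 1 : ℝ))) / η k) =
          fun _ => θ j * (1 - (x : ℝ)) := by
        funext k
        have := hlin (θ j) x 1 k
        push_cast at this
        rw [← this]; ring
      show Tendsto (fun k => (θ j * (1 - (m k x : ℝ)) - θ j * (1 - (m k 1 : ℝ))) / η k) atTop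
        (𝓝 (θ j * (1 - (x : ℝ))))
      rw [e]
      exact tendsto_const_nhds)
    (fun u v _ huv _ => by
      constructor
      · show 0 ≤ s * v - s * u
        nlinarith
      · show s * v - s * u ≤ v - u
        nlinarith)
    (by simp) (by simp) (fun j => by simp)
  obtain ⟨s1, hs1t, hs1'⟩ := exists_diag (Q (η, m)) (hQ η m hη hm)
  set t : ℕ → ℕ := fun n => min (s0 n) (s1 n) with ht
  have htt : Tendsto t U atTop := by
    rw [tendsto_atTop]
    intro c
    filter_upwards [tendsto_atTop.1 hs0t c, tendsto_atTop.1 hs1t c] with n h1 h2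
    exact le_min h1 h2
  obtain ⟨B', I', A', hB', hI', hS'⟩ := hz' t htt (Eventually.of_forall fun n => min_le_left _ _)
  refine ⟨η, m, t, B', I', A', hη, hη0, htt, hmv, ?_, hS', ?_⟩
  · exact
    { pos := fun n => ⟨hη _, hη1 _⟩
      lim := hη0.comp htt
      mem := fun n => hm (t n)
      aff := fun n x y => by
        have := hq (t n) x y
        rw [div_eq_iff (hη (t n)).ne'] at this
        rw [this]; ring
      pt := ⟨1 / 2, ⟨by norm_num, by norm_num⟩, fun x => (hmv x).comp htt⟩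
      base := hB'
      sub := hI' }
  · filter_upwards [hs1'] with n hn using hn (t n) (min_le_right _ _)

/-- **[KL2]** a window with infinitely thin or round marks. -/
theorem kl2 (h : MkA B I G lev A (fun v => g * v) (fun v => s * v) (fun j v => θ j * (1 - v)) f b
      vm w)
    (hle : ∀ v : ℚ, 0 ≤ v → v ≤ 1 → ∀ᶠ n in (U : Filter ℕ), w 1 n v ≤ w 0 n v) :
    ∃ (H : ℕ → ℝ) (mm : ℕ → ℚ → ℚ) (B' : Base) (I' : ℕ → Finset (ℕ × ℝ)) (A' : ℕ → ℝ),
      Win B I B' I' H mm ∧
      MkA B' I' G (fun n x => lev n (mm n x)) A' (fun v => g * v) (fun v => s * v)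
        (fun j v => θ j * (1 - v)) (fun n x => f n (mm n x)) (fun n x => b n (mm n x))
        (fun n x => vm n (mm n x)) (fun j n x => w j n (mm n x)) ∧
      (Thin B' (fun j n x => w j n (mm n x)) ∨ Thick B' (fun j n x => w j n (mm n x))) := by
  classical
  set Δ : ℝ := θ 1 - θ 0 with hΔ
  have hd : ∀ v : ℚ, 0 ≤ v → v ≤ 1 →
      Tendsto (fun n => rr B w n v - rr B w n 1) U (𝓝 (Δ * (1 - v))) := fun v h0 h1 => by
    have := rr_diff h h0 h1
    have e : Δ * (1 - (v : ℝ)) = θ 1 * (1 - v) - θ 0 * (1 - v) := by rw [hΔ]; ring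
    rw [e]
    exact this
  have hpos : ∀ v : ℚ, 0 ≤ v → v ≤ 1 → ∀ᶠ n in (U : Filter ℕ), 0 ≤ rr B w n v := fun v h0 h1 => by
    filter_upwards [h.wpos 1 v h0 h1, hle v h0 h1] with n a1 a2 using rr_nonneg a1 a2
  by_cases hA : Tendsto (fun n => rr B w n 1) U atTop
  · -- infinitely thin at all levels
    obtain ⟨η, m, t, B', I', A', hη, hη0, htt, hmv, hW, hM, hQ⟩ := zoomQ h
      (fun p k n => ∀ x ∈ Fq k, (k : ℝ) ≤ rr B w n (p.2 k x) ∧ 0 < w 0 n (p.2 k x) ∧
        0 < w 1 n (p.2 k x)) (by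
        intro η m hη hm k
        rw [Filter.eventually_all_finset]
        intro x hx
        obtain ⟨hx0, hx1⟩ := Fq_mem hx
        obtain ⟨hm0, hm1⟩ := hm k x hx0 hx1
        have e1 := (Metric.tendsto_nhds.1 (hd (m k x) hm0 hm1)) 1 one_pos
        filter_upwards [e1, hA.eventually_ge_atTop ((k : ℝ) + 1 + |Δ * (1 - (m k x : ℝ))|),
          h.wpos 0 (m k x) hm0 hm1, h.wpos 1 (m k x) hm0 hm1] with n a1 a2 a3 a4
        refine ⟨?_, a3, a4⟩
        rw [Real.dist_eq] at a1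
        have b1 := (abs_lt.1 a1).1
        have b2 := neg_abs_le (Δ * (1 - (m k x : ℝ)))
        show (k : ℝ) ≤ rr B w n (m k x)
        linarith)
    refine ⟨_, _, B', I', A', hW, hM, Or.inl ?_⟩
    intro M v h0 h1
    have hF : ∀ᶠ n in (U : Filter ℕ), v ∈ Fq (t n) := htt.eventually (ev_mem_Fq h0 h1)
    have hK : ∀ᶠ n in (U : Filter ℕ), |M| ≤ (t n : ℝ) :=
      (tendsto_natCast_atTop_atTop.comp htt).eventually_ge_atTop |M|
    filter_upwards [hF, hK, hQ] with n a1 a2 a3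
    obtain ⟨b1, b2, b3⟩ := a3 v a1
    have e : B'.d n ^ M = B.d n ^ (η (t n) * M) := by
      rw [hW.base, ← Real.rpow_mul (B.pos n).le]
    show w 1 n (m (t n) v) ≤ B'.d n ^ M * w 0 n (m (t n) v)
    rw [e]
    refine thin_of b2 b3 (le_trans ?_ (a2.trans b1))
    have hp := hW.pos n
    calc η (t n) * M ≤ η (t n) * |M| := mul_le_mul_of_nonneg_left (le_abs_self _) hp.1.le
      _ ≤ 1 * |M| := mul_le_mul_of_nonneg_right hp.2 (abs_nonneg _)
      _ = |M| := one_mul _
  · -- bounded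
    have hbd : ∃ C : ℝ, ∀ᶠ n in (U : Filter ℕ), |rr B w n 1| ≤ C := by
      rw [tendsto_atTop] at hA
      push Not at hA
      obtain ⟨C, hC⟩ := hA
      refine ⟨C, ?_⟩
      have hC' : ∀ᶠ n in (U : Filter ℕ), ¬ (C ≤ rr B w n 1) := by
        rcases ev_em (fun n => C ≤ rr B w n 1) with h1 | h1
        · exact absurd h1 (by simpa using hC)
        · exact h1
      filter_upwards [hC', hpos 1 zero_le_one le_rfl] with n a1 a2
      rw [abs_of_nonneg a2]
      exact (not_le.1 a1).le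
    obtain ⟨C, hC⟩ := hbd
    obtain ⟨r1, hr1, -⟩ := exists_tendsto hC
    have hlim : ∀ v : ℚ, 0 ≤ v → v ≤ 1 →
        Tendsto (fun n => rr B w n v) U (𝓝 (r1 + Δ * (1 - v))) := fun v h0 h1 => by
      have := (hd v h0 h1).add hr1
      have e : (fun n => rr B w n v - rr B w n 1 + rr B w n 1) = fun n => rr B w n v := by
        funext n; ring
      rw [e] at this
      rwa [add_comm r1]
    have hge : ∀ v : ℚ, 0 ≤ v → v ≤ 1 → 0 ≤ r1 + Δ * (1 - (v : ℝ)) := fun v h0 h1 =>
      ge_of_tendsto (hlim v h0 h1) (hpos v h0 h1)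
    obtain ⟨η, m, t, B', I', A', hη, hη0, htt, hmv, hW, hM, hQ⟩ := zoomQ h
      (fun p k n => ∀ x ∈ Fq k, |rr B w n (p.2 k x) - (r1 + Δ * (1 - (p.2 k x : ℝ)))| ≤
        p.1 k / ((k : ℝ) + 1) ∧ 0 < w 0 n (p.2 k x) ∧ 0 < w 1 n (p.2 k x)) (by
        intro η m hη hm k
        rw [Filter.eventually_all_finset]
        intro x hx
        obtain ⟨hx0, hx1⟩ := Fq_mem hx
        obtain ⟨hm0, hm1⟩ := hm k x hx0 hx1
        have hk : 0 < η k / ((k : ℝ) + 1) := div_pos (hη k) (by positivity)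
        have e1 := (Metric.tendsto_nhds.1 (hlim (m k x) hm0 hm1)) _ hk
        filter_upwards [e1, h.wpos 0 (m k x) hm0 hm1, h.wpos 1 (m k x) hm0 hm1] with n a1 a3 a4
        rw [Real.dist_eq] at a1
        exact ⟨a1.le, a3, a4⟩)
    have hB' : ∀ n (y : ℝ), B'.d n ^ y = B.d n ^ (η (t n) * y) := fun n y => by
      rw [hW.base, ← Real.rpow_mul (B.pos n).le]
    have hkk : ∀ ε : ℝ, 0 < ε → ∀ᶠ n in (U : Filter ℕ), η (t n) / ((t n : ℝ) + 1) ≤
        ε * η (t n) := fun ε hε => by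
      have hK : ∀ᶠ n in (U : Filter ℕ), 1 / ε ≤ (t n : ℝ) :=
        (tendsto_natCast_atTop_atTop.comp htt).eventually_ge_atTop (1 / ε)
      filter_upwards [hK] with n a2
      have hp := (hW.pos n).1
      have hp' : (0 : ℝ) < (t n : ℝ) + 1 := by positivity
      rw [div_le_iff₀ hp']
      have : 1 ≤ ε * ((t n : ℝ) + 1) := by
        rw [div_le_iff₀ hε] at a2
        nlinarith
      nlinarith
    refine ⟨_, _, B', I', A', hW, hM, ?_⟩
    rcases (hge (1 / 2) (by norm_num) (by norm_num)).lt_or_eq with hc | hc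
    · -- positive in the middle
      left
      set c : ℝ := r1 + Δ * (1 - ((1 / 2 : ℚ) : ℝ)) with hcdef
      intro M v h0 h1
      have hF : ∀ᶠ n in (U : Filter ℕ), v ∈ Fq (t n) := htt.eventually (ev_mem_Fq h0 h1)
      have hlim2 : Tendsto (fun n => r1 + Δ * (1 - (m (t n) v : ℝ))) U (𝓝 c) := by
        have h2 := (hmv v).comp htt
        have h3 : Tendsto (fun n => r1 + Δ * (1 - (m (t n) v : ℝ))) U
            (𝓝 (r1 + Δ * (1 - 1 / 2))) := (((h2.const_sub 1).const_mul Δ).const_add r1)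
        have e : c = r1 + Δ * (1 - 1 / 2) := by rw [hcdef]; push_cast; ring
        rw [e]; exact h3
      have hη' : Tendsto (fun n => η (t n)) U (𝓝 0) := hη0.comp htt
      have e1 := hlim2.eventually_const_lt (show c / 2 < c by linarith)
      have e2 : ∀ᶠ n in (U : Filter ℕ), η (t n) * (|M| + 1) < c / 2 := by
        have h3 := hη'.mul_const (|M| + 1)
        rw [zero_mul] at h3
        exact h3.eventually_lt_const (by positivity)
      filter_upwards [hF, hQ, e1, e2, hkk 1 one_pos] with n a1 a2 a3 a4 a5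
      obtain ⟨b1, b2, b3⟩ := a2 v a1
      show w 1 n (m (t n) v) ≤ B'.d n ^ M * w 0 n (m (t n) v)
      rw [hB']
      refine thin_of b2 b3 ?_
      have b4 := (abs_le.1 b1).1
      have b5 : η (t n) * M ≤ η (t n) * |M| :=
        mul_le_mul_of_nonneg_left (le_abs_self _) (hη _).le
      linarith
    · -- identically zero
      right
      have hz0 : r1 + Δ * (1 - (1 / 2 : ℝ)) = 0 := by
        have e : ((1 / 2 : ℚ) : ℝ) = 1 / 2 := by push_cast; ring
        rw [e] at hc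
        exact hc.symm
      have g0 := hge 0 le_rfl zero_le_one
      have g1 := hge 1 zero_le_one le_rfl
      push_cast at g0 g1
      have hD0 : Δ = 0 := by linarith
      have hr0 : r1 = 0 := by rw [hD0] at hz0; linarith
      intro ε hε v h0 h1
      have hF : ∀ᶠ n in (U : Filter ℕ), v ∈ Fq (t n) := htt.eventually (ev_mem_Fq h0 h1)
      filter_upwards [hF, hQ, hkk ε hε] with n a1 a2 a5
      obtain ⟨b1, b2, b3⟩ := a2 v a1
      show B'.d n ^ ε * w 0 n (m (t n) v) ≤ w 1 n (m (t n) v)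
      rw [hB']
      refine thick_of b2 b3 ?_
      rw [hD0, hr0] at b1
      have b4 := (abs_le.1 b1).2
      linarith

end

end Crest.Agent.R116.KL388
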