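import Mathlib
import Crest.Agent.R116.ZlDef_139
import Crest.Agent.R136.ZoomA_102
import Crest.Agent.R138.MkPoint_627

/-!
# R116 (K side), block X1-C, leaf [ZLIN], part 1 (helper139): the linearisation in a short window

* `pure_core` : `LinAt` in a window of relative length `H` near a point of the ray: error `ε H`.
* `lin_core` : the same for the test sets of a zoomed window (`rg`).
-/

set_option autoImplicit false

open Finset Filter Topology

namespace Crest.Agent.R116.Zl139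

open Crest.Agent.R138.Ex926 (Base U)
open Crest.Agent.R138.Mk163 (zc zl rho alive own)
open Crest.Agent.R136.MkA627 (Geo MkA)
open Crest.Agent.R116.Xa794 (TS geo)
open Crest.Agent.R116.Xc794

theorem pure_core {ι : Type} [Fintype ι] {Ψ : ℝ → (ι → ℝ) → ℝ} {θ : ι → ℝ} {g0 : ℝ} {p : ι → ℝ}
    (hΨ : LinAt Ψ θ g0 p) {t D ε : ℝ} (ht : 0 < t) (hD : 0 ≤ D) (hε : 0 < ε) :
    ∃ κ : ℝ, 0 < κ ∧ ∀ (lam H l l' : ℝ) (x x' : ι → ℝ), 0 < lam → 0 < H → H ≤ κ →
      t / 2 ≤ lam * l' → (∀ j, |lam * x' j - θ j * (lam * l')| ≤ κ) →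
      |lam * (l - l')| ≤ D * H → (∀ j, |lam * (x j - x' j)| ≤ D * H) →
      lam * |Ψ l x - Ψ l' x' - g0 * (l - l') - ∑ j, p j * (x j - x' j)| ≤ ε * H := by
  set N : ℝ := (Fintype.card ι : ℝ) with hN
  have hN0 : 0 ≤ N := Nat.cast_nonneg _
  set Θ : ℝ := ∑ j, |θ j| with hΘ
  have hΘ0 : 0 ≤ Θ := Finset.sum_nonneg fun j _ => abs_nonneg _
  have hΘj : ∀ j, |θ j| ≤ Θ := fun j =>
    Finset.single_le_sum (f := fun j => |θ j|) (fun i _ => abs_nonneg _) (Finset.mem_univ j)
  have hE : 0 < D * (1 + N) + 1 := by positivity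
  obtain ⟨δ, hδ, hlin⟩ := hΨ (ε / (D * (1 + N) + 1)) (by positivity)
  have hF : 0 < D + 1 + Θ * D := by positivity
  refine ⟨min (t / (4 * (D + 1))) (δ * t / (4 * (D + 1 + Θ * D))), by positivity, ?_⟩
  intro lam H l l' x x' hlam hH hHκ hl' hx' hl hx
  have k1 : H ≤ t / (4 * (D + 1)) := hHκ.trans (min_le_left _ _)
  have k2 : H ≤ δ * t / (4 * (D + 1 + Θ * D)) := hHκ.trans (min_le_right _ _)
  have k3 : ∀ j, |lam * x' j - θ j * (lam * l')| ≤ δ * t / (4 * (D + 1 + Θ * D)) := fun j =>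
    (hx' j).trans (min_le_right _ _)
  rw [le_div_iff₀ (by positivity)] at k1 k2
  have k4 : D * H ≤ t / 4 := by nlinarith
  have hl0 : t / 4 ≤ lam * l := by
    have := (abs_le.1 hl).1
    nlinarith
  have pl' : 0 < l' := by
    by_contra h
    have : lam * l' ≤ 0 := mul_nonpos_of_nonneg_of_nonpos hlam.le (not_lt.1 h)
    linarith
  have pl : 0 < l := by
    by_contra h
    have : lam * l ≤ 0 := mul_nonpos_of_nonneg_of_nonpos hlam.le (not_lt.1 h)
    linarith
  have k5 : δ * t / (4 * (D + 1 + Θ * D)) ≤ δ * t / 4 := by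
    apply div_le_div_of_nonneg_left (by positivity) (by norm_num)
    nlinarith [mul_nonneg hΘ0 hD]
  have a1 : ∀ j, |x' j - θ j * l'| ≤ δ * l' := by
    intro j
    have e : lam * |x' j - θ j * l'| = |lam * x' j - θ j * (lam * l')| := by
      rw [← abs_of_pos hlam, ← abs_mul, abs_of_pos hlam]; congr 1; ring
    have h1 : lam * |x' j - θ j * l'| ≤ lam * (δ * l') := by
      rw [e]
      refine ((k3 j).trans k5).trans ?_
      nlinarith
    exact le_of_mul_le_mul_left h1 hlam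
  have a2 : ∀ j, |x j - θ j * l| ≤ δ * l := by
    intro j
    have e : lam * |x j - θ j * l| = |lam * (x j - x' j) + (lam * x' j - θ j * (lam * l')) -
        θ j * (lam * (l - l'))| := by
      rw [← abs_of_pos hlam, ← abs_mul, abs_of_pos hlam]; congr 1; ring
    have h0 : |θ j * (lam * (l - l'))| ≤ Θ * (D * H) := by
      rw [abs_mul]
      exact mul_le_mul (hΘj j) hl (abs_nonneg _) hΘ0
    have h2 : |lam * (x j - x' j) + (lam * x' j - θ j * (lam * l')) -
        θ j * (lam * (l - l'))| ≤ D * H + δ * t / (4 * (D + 1 + Θ * D)) + Θ * (D * H) := by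
      refine (abs_sub _ _).trans (add_le_add ((abs_add_le _ _).trans (add_le_add (hx j) (k3 j))) h0)
    have h3 : D * H + δ * t / (4 * (D + 1 + Θ * D)) + Θ * (D * H) ≤ δ * t / 4 := by
      have h4 : H ≤ δ * t / (4 * (D + 1 + Θ * D)) := by
        rw [le_div_iff₀ (by positivity)]; exact k2
      have h5 : (D + Θ * D) * H ≤ (D + Θ * D) * (δ * t / (4 * (D + 1 + Θ * D))) :=
        mul_le_mul_of_nonneg_left h4 (by positivity)
      have h6 : (D + 1 + Θ * D) * (δ * t / (4 * (D + 1 + Θ * D))) = δ * t / 4 := by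
        field_simp
      nlinarith
    have h1 : lam * |x j - θ j * l| ≤ lam * (δ * l) := by
      rw [e]
      refine (h2.trans h3).trans ?_
      nlinarith
    exact le_of_mul_le_mul_left h1 hlam
  have h7 := hlin l l' x x' pl pl' a2 a1
  have h8 : lam * (|l - l'| + ∑ j, |x j - x' j|) ≤ D * H * (1 + N) := by
    rw [mul_add, Finset.mul_sum]
    have e1 : lam * |l - l'| = |lam * (l - l')| := by rw [abs_mul, abs_of_pos hlam]
    have e2 : ∀ j, lam * |x j - x' j| = |lam * (x j - x' j)| := fun j => by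
      rw [abs_mul, abs_of_pos hlam]
    rw [e1]
    simp only [e2]
    have h9 : ∑ j, |lam * (x j - x' j)| ≤ ∑ _j : ι, D * H := Finset.sum_le_sum fun j _ => hx j
    rw [Finset.sum_const, Finset.card_univ, nsmul_eq_mul] at h9
    nlinarith
  calc lam * |Ψ l x - Ψ l' x' - g0 * (l - l') - ∑ j, p j * (x j - x' j)|
      ≤ lam * (ε / (D * (1 + N) + 1) * (|l - l'| + ∑ j, |x j - x' j|)) :=
        mul_le_mul_of_nonneg_left h7 hlam.le
    _ = ε / (D * (1 + N) + 1) * (lam * (|l - l'| + ∑ j, |x j - x' j|)) := by ring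
    _ ≤ ε / (D * (1 + N) + 1) * (D * H * (1 + N)) :=
        mul_le_mul_of_nonneg_left h8 (by positivity)
    _ ≤ ε * H := by
        rw [div_mul_eq_mul_div, div_le_iff₀ hE]
        nlinarith [mul_pos hε hH]

/-- exponent of a width -/
noncomputable def ee {ι : Type} (w : ι → ℕ → ℚ → ℝ) (n : ℕ) (v : ℚ) (j : ι) : ℝ :=
  -Real.log (w j n v) / Real.log 2

section

variable {Ln ι S σ : Type} [Fintype ι] {B' : Base} {I' : ℕ → Finset (ℕ × ℝ)}
    {G : Geo σ ι} {lev' : ℕ → ℚ → ℕ}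
    {A' : ℕ → ℝ} {c' Λ' : ℝ → ℝ} {θ : ι → ℝ} {f' : ℕ → ℚ → ℕ → ℤ → ℕ} {b' : ℕ → ℚ → ℕ → σ}
    {vm' : ℕ → ℚ → ℝ} {w' : ι → ℕ → ℚ → ℝ}

omit [Fintype ι] in
/-- exponents of the marks of the window relative to its top. -/
theorem ee_lim (hz : MkA B' I' G lev' A' c' Λ' (fun j v => θ j * (1 - v)) f' b' vm' w') {v : ℚ}
    (h0 : 0 ≤ v) (h1 : v ≤ 1) (j : ι) :
    Tendsto (fun n => ((ee w' n v j - ee w' n 1 j) * Real.log 2) / B'.L n) U
      (𝓝 ((θ j - 1) * (1 - v))) := by
  have t1 := hz.tau j v h0 h1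
  have t2 := hz.lev_lim v 1 h0 h1 le_rfl
  have t3 := t1.sub t2
  have e0 : θ j * (1 - (v : ℝ)) - (((1 : ℚ) : ℝ) - v) = (θ j - 1) * (1 - v) := by
    push_cast; ring
  rw [e0] at t3
  refine t3.congr' ?_
  filter_upwards [hz.wpos j v h0 h1, hz.wpos j 1 zero_le_one le_rfl] with n p1 p2
  have hr : ∀ i : ℕ, 0 < rho i := fun i => by
    unfold Crest.Agent.R138.Mk163.rho; positivity
  have hlr : ∀ i : ℕ, Real.log (rho i) = -(i * Real.log 2) := fun i => by
    unfold Crest.Agent.R138.Mk163.rho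
    rw [Real.log_div one_ne_zero (by positivity), Real.log_one, Real.log_pow]
    ring
  have h2 : Real.log 2 ≠ 0 := (Real.log_pos one_lt_two).ne'
  rw [Real.log_div (div_pos (hr _) p1).ne' (div_pos (hr _) p2).ne',
    Real.log_div (hr _).ne' p1.ne', Real.log_div (hr _).ne' p2.ne', hlr, hlr]
  unfold ee
  have hL := (B'.L_pos n).ne'
  field_simp
  ring

/-- **linearisation of the reward in a short window.** -/
theorem lin_core {Ψ : ℝ → (ι → ℝ) → ℝ} {g0 : ℝ} {p : ι → ℝ} (hΨ : LinAt Ψ θ g0 p) {B : Base}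
    {H : ℕ → ℝ} (hH : ∀ n, 0 < H n) (hH0 : Tendsto H U (𝓝 0))
    (hL : ∀ n, B'.L n = H n * B.L n) {mt : ℕ → ℕ} {atop : ℕ → ι → ℕ} {t R : ℝ} (ht : 0 < t)
    (hR : 0 ≤ R)
    (hz : MkA B' I' G lev' A' c' Λ' (fun j v => θ j * (1 - v)) f' b' vm' w')
    (hlen : Tendsto (fun n => ((mt n : ℝ) - lev' n 0) * Real.log 2 / B.L n) U (𝓝 t))
    (hrel : ∀ j, Tendsto (fun n => (-Real.log (w' j n 0) - (lev' n 0 : ℝ) * Real.log 2 -
      ((atop n j : ℝ) - mt n) * Real.log 2) / B.L n) U (𝓝 (θ j * t)))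
    {v : ℚ} (h0 : 0 ≤ v) (h1 : v ≤ 1) {ε : ℝ} (hε : 0 < ε) :
    ∀ᶠ n in (U : Filter ℕ), ∀ s : ι → ℕ,
      (∀ j, B'.d n ^ R * w' j n 1 ≤ (1 / 2 : ℝ) ^ (s j) ∧
        (1 / 2 : ℝ) ^ (s j) ≤ B'.d n ^ (-R) * w' j n 1) →
      Real.log 2 * |Ψ ((mt n : ℝ) - lev' n v) (rel (lev' n v) s (mt n) (atop n)) -
        Ψ ((mt n : ℝ) - lev' n 0) (fun j => (ee w' n 0 j - lev' n 0) - ((atop n j : ℝ) - mt n)) -
        g0 * ((lev' n 0 : ℝ) - lev' n v) -
        ∑ j, p j * (((s j : ℝ) - lev' n v) - (ee w' n 0 j - lev' n 0))| ≤ ε * B'.L n := by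
  have l2 : 0 < Real.log 2 := Real.log_pos one_lt_two
  set Θ : ℝ := ∑ j, |θ j| with hΘ
  have hΘ0 : 0 ≤ Θ := Finset.sum_nonneg fun j _ => abs_nonneg _
  have hΘj : ∀ j, |θ j| ≤ Θ := fun j =>
    Finset.single_le_sum (f := fun j => |θ j|) (fun i _ => abs_nonneg _) (Finset.mem_univ j)
  obtain ⟨κ, hκ, hcore⟩ := pure_core hΨ (t := t) (D := R + Θ + 4) (ε := ε) ht (by positivity) hε
  have f1 : ∀ᶠ n in (U : Filter ℕ), H n ≤ κ := hH0.eventually (eventually_le_nhds hκ)
  have f2 : ∀ᶠ n in (U : Filter ℕ), t / 2 ≤ ((mt n : ℝ) - lev' n 0) * Real.log 2 / B.L n :=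
    hlen.eventually (eventually_ge_nhds (by linarith))
  have f3 : ∀ᶠ n in (U : Filter ℕ), ∀ j, |(-Real.log (w' j n 0) - (lev' n 0 : ℝ) * Real.log 2 -
      ((atop n j : ℝ) - mt n) * Real.log 2) / B.L n -
      θ j * (((mt n : ℝ) - lev' n 0) * Real.log 2 / B.L n)| ≤ κ := by
    rw [Filter.eventually_all]
    intro j
    have h3 := (hrel j).sub (hlen.const_mul (θ j))
    rw [sub_self] at h3
    have h4 := h3.abs
    rw [abs_zero] at h4
    exact h4.eventually (eventually_le_nhds hκ)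
  have f4 : ∀ᶠ n in (U : Filter ℕ),
      |((lev' n v : ℝ) - lev' n 0) * Real.log 2 / B'.L n| ≤ 2 := by
    have h3 := (hz.lev_lim 0 v le_rfl h0 h1).abs
    refine h3.eventually (eventually_le_nhds ?_)
    have hv0 : (0 : ℝ) ≤ v := by exact_mod_cast h0
    have hv1 : (v : ℝ) ≤ 1 := by exact_mod_cast h1
    push_cast
    rw [sub_zero, abs_of_nonneg hv0]
    linarith
  have f5 : ∀ᶠ n in (U : Filter ℕ), ∀ j,
      |((ee w' n 0 j - ee w' n 1 j) * Real.log 2) / B'.L n| ≤ Θ + 2 := by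
    rw [Filter.eventually_all]
    intro j
    have h3 := (ee_lim hz le_rfl zero_le_one j).abs
    refine h3.eventually (eventually_le_nhds ?_)
    push_cast
    rw [sub_zero, mul_one]
    refine (abs_sub _ _).trans_lt ?_
    have := hΘj j
    rw [abs_one]
    linarith
  have f6 : ∀ᶠ n in (U : Filter ℕ), ∀ j, 0 < w' j n 1 := by
    rw [Filter.eventually_all]
    exact fun j => hz.wpos j 1 zero_le_one le_rfl
  filter_upwards [f1, f2, f3, f4, f5, f6] with n a1 a2 a3 a4 a5 a6 s hs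
  have hLp := B.L_pos n
  have hLp' := B'.L_pos n
  have hHn := hH n
  have hlam : 0 < Real.log 2 / B.L n := div_pos l2 hLp
  have eL : H n = B'.L n / B.L n := by rw [hL]; field_simp
  have hc := hcore (Real.log 2 / B.L n) (H n) ((mt n : ℝ) - lev' n v) ((mt n : ℝ) - lev' n 0)
    (rel (lev' n v) s (mt n) (atop n))
    (fun j => (ee w' n 0 j - lev' n 0) - ((atop n j : ℝ) - mt n)) hlam hHn a1
    (by rw [div_mul_eq_mul_div, mul_comm (Real.log 2)]; exact a2)
    (by
      intro j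
      refine le_trans (le_of_eq ?_) (a3 j)
      congr 1
      unfold ee
      field_simp)
    (by
      have e1 : Real.log 2 / B.L n * (((mt n : ℝ) - lev' n v) - ((mt n : ℝ) - lev' n 0)) =
          -(((lev' n v : ℝ) - lev' n 0) * Real.log 2 / B'.L n * H n) := by
        rw [hL]; field_simp; ring
      rw [e1, abs_neg, abs_mul, abs_of_pos hHn]
      nlinarith)
    (by
      intro j
      have e1 : Real.log 2 / B.L n * (rel (lev' n v) s (mt n) (atop n) j -
          ((ee w' n 0 j - lev' n 0) - ((atop n j : ℝ) - mt n))) =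
          ((((s j : ℝ) * Real.log 2 - ee w' n 1 j * Real.log 2) / B'.L n) -
            ((ee w' n 0 j - ee w' n 1 j) * Real.log 2) / B'.L n -
            ((lev' n v : ℝ) - lev' n 0) * Real.log 2 / B'.L n) * H n := by
        rw [hL]
        unfold rel
        field_simp
        ring
      have e2 : |((s j : ℝ) * Real.log 2 - ee w' n 1 j * Real.log 2) / B'.L n| ≤ R := by
        obtain ⟨s1, s2⟩ := hs j
        have hw := a6 j
        have d1 := B'.pos n
        have e3 : ee w' n 1 j * Real.log 2 = -Real.log (w' j n 1) := by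
          unfold ee; field_simp
        have e4 : Real.log ((1 / 2 : ℝ) ^ (s j)) = -((s j : ℝ) * Real.log 2) := by
          rw [Real.log_pow, one_div, Real.log_inv]; ring
        have e5 : ∀ a : ℝ, Real.log (B'.d n ^ a * w' j n 1) = -(a * B'.L n) + Real.log (w' j n 1) := by
          intro a
          rw [Real.log_mul (Real.rpow_pos_of_pos d1 _).ne' hw.ne', Real.log_rpow d1]
          unfold Base.L
          ring
        have s3 := Real.log_le_log (mul_pos (Real.rpow_pos_of_pos d1 _) hw) s1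
        have s4 := Real.log_le_log (by positivity) s2
        rw [e5, e4] at s3
        rw [e5, e4] at s4
        rw [abs_div, abs_of_pos hLp', div_le_iff₀ hLp', e3, abs_le]
        constructor <;> linarith
      rw [e1, abs_mul, abs_of_pos hHn]
      refine mul_le_mul_of_nonneg_right ?_ hHn.le
      refine (abs_sub _ _).trans ((add_le_add (abs_sub _ _) a4).trans ?_)
      have := a5 j
      linarith)
  have e6 : Real.log 2 / B.L n * B.L n = Real.log 2 := by field_simp
  have h7 := mul_le_mul_of_nonneg_right hc hLp.le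
  rw [mul_assoc ε, ← hL] at h7
  refine le_trans (le_of_eq ?_) h7
  have e8 : (((mt n : ℝ) - lev' n v) - ((mt n : ℝ) - lev' n 0)) = (lev' n 0 : ℝ) - lev' n v := by
    ring
  have e9 : ∀ j, rel (lev' n v) s (mt n) (atop n) j -
      ((ee w' n 0 j - lev' n 0) - ((atop n j : ℝ) - mt n)) =
      ((s j : ℝ) - lev' n v) - (ee w' n 0 j - lev' n 0) := fun j => by
    unfold rel; ring
  simp only [e8, e9]
  field_simp

end

end Crest.Agent.R116.Zl139
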