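import Mathlib
import Crest.Agent.R116.Zl1_139
import Crest.Agent.R116.Rv1_883

/-!
# R116 (K side), block X1-C, leaf [ZLIN], part 2 (helper139): from `Ψ`-valued to linear rewards

`lin_of` : in a short window (`H → 0`) whose marks lie near the ray `(1, θ)` relative to the virtual
top, the `Ψ`-valued marked sequence is also a marked sequence with linear rewards `p = ∇_x Ψ (1,θ)`,
growth exponent increased by `g0 = ∂_len Ψ (1,θ)`, for the test sets of width range `d^(±R)` around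
the marks.
-/

set_option autoImplicit false

open Finset Filter Topology

namespace Crest.Agent.R116.Zl139

open Crest.Agent.R138.Ex926 (Base U)
open Crest.Agent.R138.Dp76
open Crest.Agent.R138.Mk163 (zc zl rho alive own)
open Crest.Agent.R138.MkRef627 (mem_alive)
open Crest.Agent.R136.MkA627 (Geo MkA ampA)
open Crest.Agent.R116.Xa794 (TS geo)
open Crest.Agent.R116.Xc794

section

variable {Ln ι S : Type} [Fintype ι] {B' : Base} {I' : ℕ → Finset (ℕ × ℝ)}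
    {T : ℕ → TS Ln ι S} {L : ℕ → ℕ → Ln} {lev' : ℕ → ℚ → ℕ}
    {A' : ℕ → ℝ} {c' Λ' : ℝ → ℝ} {θ : ι → ℝ} {f' : ℕ → ℚ → ℕ → ℤ → ℕ}
    {b' : ℕ → ℚ → ℕ → (ι → ℕ) × S}
    {vm' : ℕ → ℚ → ℝ} {w' : ι → ℕ → ℚ → ℝ}
    {Ψ : ℝ → (ι → ℝ) → ℝ} {g0 : ℝ} {p : ι → ℝ}
    {B : Base} {H : ℕ → ℝ} {mt : ℕ → ℕ} {atop : ℕ → ι → ℕ} {t R : ℝ}

/-- reward of the marks of level `0` -/
noncomputable def Psi0 (Ψ : ℝ → (ι → ℝ) → ℝ) (lev' : ℕ → ℚ → ℕ) (w' : ι → ℕ → ℚ → ℝ) (mt : ℕ → ℕ)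
    (atop : ℕ → ι → ℕ) (n : ℕ) : ℝ :=
  Ψ ((mt n : ℝ) - lev' n 0) (fun j => (ee w' n 0 j - lev' n 0) - ((atop n j : ℝ) - mt n))

/-- the constant of the stage -/
noncomputable def EE (Ψ : ℝ → (ι → ℝ) → ℝ) (p : ι → ℝ) (lev' : ℕ → ℚ → ℕ) (w' : ι → ℕ → ℚ → ℝ)
    (mt : ℕ → ℕ) (atop : ℕ → ι → ℕ) (n : ℕ) : ℝ :=
  (2 : ℝ) ^ (-(Psi0 Ψ lev' w' mt atop n) + ∑ j, p j * (ee w' n 0 j - lev' n 0))

omit [Fintype ι] in
/-- the marks of all levels are within the range. -/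
theorem mark_rg {G : Geo ((ι → ℕ) × S) ι}
    (hz : MkA B' I' G lev' A' c' Λ' (fun j v => θ j * (1 - v)) f' b' vm' w')
    {v : ℚ} (h0 : 0 ≤ v) (h1 : v ≤ 1) (j : ι) (hR : 1 + |θ j| < R) :
    ∀ᶠ n in (U : Filter ℕ), B'.d n ^ R * w' j n 1 ≤ w' j n v ∧
      w' j n v ≤ B'.d n ^ (-R) * w' j n 1 := by
  have t1 := (ee_lim hz h0 h1 j).abs
  have hv0 : (0 : ℝ) ≤ v := by exact_mod_cast h0
  have hv1 : (v : ℝ) ≤ 1 := by exact_mod_cast h1
  have t2 : |(θ j - 1) * (1 - (v : ℝ))| < R := by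
    rw [abs_mul]
    have a1 : |1 - (v : ℝ)| ≤ 1 := by rw [abs_le]; constructor <;> linarith
    have a2 : |θ j - 1| ≤ |θ j| + 1 := by
      refine (abs_sub _ _).trans ?_
      rw [abs_one]
    calc |θ j - 1| * |1 - (v : ℝ)| ≤ (|θ j| + 1) * 1 :=
          mul_le_mul a2 a1 (abs_nonneg _) (by positivity)
      _ < R := by linarith
  filter_upwards [t1.eventually (eventually_lt_nhds t2), hz.wpos j v h0 h1,
    hz.wpos j 1 zero_le_one le_rfl] with n a1 p1 p2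
  have hL := B'.L_pos n
  have l2 : 0 < Real.log 2 := Real.log_pos one_lt_two
  have e1 : ∀ a : ℝ, Real.log (B'.d n ^ a * w' j n 1) = -(a * B'.L n) + Real.log (w' j n 1) := by
    intro a
    rw [Real.log_mul (Real.rpow_pos_of_pos (B'.pos n) _).ne' p2.ne', Real.log_rpow (B'.pos n)]
    unfold Base.L
    ring
  have e2 : (ee w' n v j - ee w' n 1 j) * Real.log 2 =
      Real.log (w' j n 1) - Real.log (w' j n v) := by
    unfold ee; field_simp; ring
  rw [e2, abs_div, abs_of_pos hL, div_lt_iff₀ hL, abs_lt] at a1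
  have q1 : 0 < B'.d n ^ R * w' j n 1 := mul_pos (Real.rpow_pos_of_pos (B'.pos n) _) p2
  have q2 : 0 < B'.d n ^ (-R) * w' j n 1 := mul_pos (Real.rpow_pos_of_pos (B'.pos n) _) p2
  constructor
  · rw [← Real.log_le_log_iff q1 p1, e1]
    linarith [a1.2]
  · rw [← Real.log_le_log_iff p1 q2, e1]
    linarith [a1.1]

/-- **comparison of the sizes**, both directions. -/
theorem val_cmp (hΨ : LinAt Ψ θ g0 p) (hH : ∀ n, 0 < H n) (hH0 : Tendsto H U (𝓝 0))
    (hL : ∀ n, B'.L n = H n * B.L n) (ht : 0 < t) (hR : 0 ≤ R)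
    (hz : MkA B' I' (geoP T Ψ mt atop L) lev' A' c' Λ' (fun j v => θ j * (1 - v)) f' b' vm' w')
    (hlen : Tendsto (fun n => ((mt n : ℝ) - lev' n 0) * Real.log 2 / B.L n) U (𝓝 t))
    (hrel : ∀ j, Tendsto (fun n => (-Real.log (w' j n 0) - (lev' n 0 : ℝ) * Real.log 2 -
      ((atop n j : ℝ) - mt n) * Real.log 2) / B.L n) U (𝓝 (θ j * t)))
    {v : ℚ} (h0 : 0 ≤ v) (h1 : v ≤ 1) {ε : ℝ} (hε : 0 < ε) :
    ∀ᶠ n in (U : Filter ℕ), ∀ s : ι → ℕ,
      (∀ j, B'.d n ^ R * w' j n 1 ≤ (1 / 2 : ℝ) ^ (s j) ∧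
        (1 / 2 : ℝ) ^ (s j) ≤ B'.d n ^ (-R) * w' j n 1) →
      capP (T n) Ψ (mt n) (atop n) (lev' n v) s ≤
        B'.d n ^ (-ε) * (EE Ψ p lev' w' mt atop n * B'.d n ^ (-(g0 * v))) *
          (T n).cap p (lev' n v) s ∧
      (EE Ψ p lev' w' mt atop n * B'.d n ^ (-(g0 * v))) * (T n).cap p (lev' n v) s ≤
        B'.d n ^ (-ε) * capP (T n) Ψ (mt n) (atop n) (lev' n v) s := by
  have l2 : 0 < Real.log 2 := Real.log_pos one_lt_two
  have hc := lin_core hΨ hH hH0 hL ht hR hz hlen hrel h0 h1 (ε := ε / 2) (by positivity)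
  have f4 : ∀ᶠ n in (U : Filter ℕ),
      |((lev' n v : ℝ) - lev' n 0) * Real.log 2 / B'.L n - v| ≤ ε / (2 * (|g0| + 1)) := by
    have h3 := (hz.lev_lim 0 v le_rfl h0 h1).sub_const (v : ℝ)
    have e : ((v : ℝ) - ((0 : ℚ) : ℝ)) - (v : ℝ) = 0 := by push_cast; ring
    rw [e] at h3
    have h4 := h3.abs
    rw [abs_zero] at h4
    exact h4.eventually (eventually_le_nhds (by positivity))
  filter_upwards [hc, f4] with n a1 a2 s hs
  have hLp := B'.L_pos n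
  have b1 := a1 s hs
  -- logarithms
  set P : ℝ := Ψ ((mt n : ℝ) - lev' n v) (rel (lev' n v) s (mt n) (atop n)) with hP
  set P0 : ℝ := Psi0 Ψ lev' w' mt atop n with hP0
  set X : ℝ := ∑ j, p j * ((s j : ℝ) - lev' n v) with hX
  set Y : ℝ := ∑ j, p j * (ee w' n 0 j - lev' n 0) with hY
  have e1 : ∑ j, p j * (((s j : ℝ) - lev' n v) - (ee w' n 0 j - lev' n 0)) = X - Y := by
    rw [hX, hY, ← Finset.sum_sub_distrib]
    refine Finset.sum_congr rfl fun j _ => ?_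
    ring
  rw [e1] at b1
  set i : ℝ := (lev' n v : ℝ) - lev' n 0 with hi
  have b1' : Real.log 2 * |P - P0 - g0 * (-i) - (X - Y)| ≤ ε / 2 * B'.L n := by
    have e2 : -i = (lev' n 0 : ℝ) - lev' n v := by rw [hi]; ring
    rw [e2]; exact b1
  have b2 : |g0 * (i * Real.log 2) - g0 * (v * B'.L n)| ≤ ε / 2 * B'.L n := by
    have e3 : i * Real.log 2 / B'.L n - v = (i * Real.log 2 - v * B'.L n) / B'.L n := by
      field_simp
    rw [e3, abs_div, abs_of_pos hLp, div_le_iff₀ hLp] at a2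
    rw [← mul_sub, abs_mul]
    have h5 : |g0| * |i * Real.log 2 - v * B'.L n| ≤ |g0| * (ε / (2 * (|g0| + 1)) * B'.L n) :=
      mul_le_mul_of_nonneg_left a2 (abs_nonneg _)
    have h6 : |g0| * (ε / (2 * (|g0| + 1)) * B'.L n) =
        (|g0| / (|g0| + 1)) * (ε / 2 * B'.L n) := by
      field_simp
    have h7 : |g0| / (|g0| + 1) ≤ 1 := by
      rw [div_le_one (by positivity)]; linarith
    rw [h6] at h5
    have h8 : 0 ≤ ε / 2 * B'.L n := by positivity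
    nlinarith
  have b3 : |Real.log 2 * (P - P0 - g0 * (-i) - (X - Y))| ≤ ε / 2 * B'.L n := by
    rw [abs_mul, abs_of_pos l2]; exact b1'
  rw [abs_le] at b2 b3
  have d1 := B'.pos n
  have vp := (T n).volpos (lev' n v) s
  have pw : ∀ a : ℝ, (2 : ℝ) ^ a = Real.exp (Real.log 2 * a) := fun a => by
    rw [Real.rpow_def_of_pos two_pos]
  have pd : ∀ a : ℝ, B'.d n ^ a = Real.exp (-(a * B'.L n)) := fun a => by
    rw [Real.rpow_def_of_pos d1]
    unfold Base.L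
    congr 1; ring
  unfold capP TS.cap EE
  rw [← hP, ← hX, ← hP0, ← hY, pw, pw, pw, pd, pd]
  constructor
  · calc (T n).vol (lev' n v) s * Real.exp (Real.log 2 * -P)
        ≤ (T n).vol (lev' n v) s * Real.exp (-(-ε * B'.L n) + (Real.log 2 * (-P0 + Y) +
            -(-(g0 * v) * B'.L n)) + Real.log 2 * -X) := by
          refine mul_le_mul_of_nonneg_left (Real.exp_le_exp.2 ?_) vp.le
          nlinarith [b2.1, b2.2, b3.1, b3.2]
      _ = _ := by
          rw [Real.exp_add, Real.exp_add, Real.exp_add]; ring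
  · calc (Real.exp (Real.log 2 * (-P0 + Y)) * Real.exp (-(-(g0 * v) * B'.L n))) *
          ((T n).vol (lev' n v) s * Real.exp (Real.log 2 * -X))
        = (T n).vol (lev' n v) s * Real.exp ((Real.log 2 * (-P0 + Y) +
            -(-(g0 * v) * B'.L n)) + Real.log 2 * -X) := by
          rw [Real.exp_add, Real.exp_add]; ring
      _ ≤ (T n).vol (lev' n v) s * Real.exp (-(-ε * B'.L n) + Real.log 2 * -P) := by
          refine mul_le_mul_of_nonneg_left (Real.exp_le_exp.2 ?_) vp.le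
          nlinarith [b2.1, b2.2, b3.1, b3.2]
      _ = _ := by
          rw [Real.exp_add]; ring

open Classical in
/-- linear size of the marks -/
noncomputable def vm2 (T : ℕ → TS Ln ι S) (p : ι → ℝ) (lev' : ℕ → ℚ → ℕ) (w' : ι → ℕ → ℚ → ℝ)
    (n : ℕ) (v : ℚ) : ℝ :=
  if h : ∃ a : ι → ℕ, ∀ j, (1 / 2 : ℝ) ^ (a j) = w' j n v then (T n).cap p (lev' n v) h.choose
  else 1

theorem vm2_eq {n : ℕ} {v : ℚ} {a : ι → ℕ} (h : ∀ j, (1 / 2 : ℝ) ^ (a j) = w' j n v) :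
    vm2 T p lev' w' n v = (T n).cap p (lev' n v) a := by
  have hex : ∃ a : ι → ℕ, ∀ j, (1 / 2 : ℝ) ^ (a j) = w' j n v := ⟨a, h⟩
  unfold vm2
  rw [dif_pos hex]
  congr 1
  funext j
  have h1 := hex.choose_spec j
  rw [← h j] at h1
  exact (pow_right_injective₀ (by norm_num) (by norm_num)) h1

theorem cap_pos (T : TS Ln ι S) (p : ι → ℝ) (i : ℕ) (a : ι → ℕ) : 0 < T.cap p i a := by
  unfold TS.cap
  have := T.volpos i a
  positivity

theorem vm2_pos (n : ℕ) (v : ℚ) : 0 < vm2 T p lev' w' n v := by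
  unfold vm2
  split_ifs with h
  · exact cap_pos _ _ _ _
  · exact one_pos

/-- **the linear marked sequence of the window**, test sets of range `R`. -/
theorem lin_of (hΨ : LinAt Ψ θ g0 p) (hH : ∀ n, 0 < H n) (hH0 : Tendsto H U (𝓝 0))
    (hL : ∀ n, B'.L n = H n * B.L n) (ht : 0 < t) (hR : ∀ j, 1 + |θ j| < R) (hR0 : 0 ≤ R)
    (hz : MkA B' I' (geoP T Ψ mt atop L) lev' A' c' Λ' (fun j v => θ j * (1 - v)) f' b' vm' w')
    (hlen : Tendsto (fun n => ((mt n : ℝ) - lev' n 0) * Real.log 2 / B.L n) U (𝓝 t))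
    (hrel : ∀ j, Tendsto (fun n => (-Real.log (w' j n 0) - (lev' n 0 : ℝ) * Real.log 2 -
      ((atop n j : ℝ) - mt n) * Real.log 2) / B.L n) U (𝓝 (θ j * t))) :
    MkA B' I' (rg B' w' R (geo T p L)) lev' (fun n => A' n * EE Ψ p lev' w' mt atop n)
      (fun v => c' v + g0 * v) Λ' (fun j v => θ j * (1 - v)) f' b' (vm2 T p lev' w') w' := by
  have hcmp := fun (v : ℚ) (h0 : 0 ≤ v) (h1 : v ≤ 1) (ε : ℝ) (hε : 0 < ε) =>
    val_cmp (R := R) hΨ hH hH0 hL ht hR0 hz hlen hrel h0 h1 hε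
  have hrng : ∀ v : ℚ, 0 ≤ v → v ≤ 1 → ∀ᶠ n in (U : Filter ℕ), ∀ j,
      B'.d n ^ R * w' j n 1 ≤ w' j n v ∧ w' j n v ≤ B'.d n ^ (-R) * w' j n 1 := by
    intro v h0 h1
    rw [Filter.eventually_all]
    exact fun j => mark_rg hz h0 h1 j (hR j)
  refine Rv883.reval hz (G' := rg B' w' R (geo T p L)) rfl rfl
    (fun v h0 h1 => Eventually.of_forall fun n J s hs => hs.1)
    (E := EE Ψ p lev' w' mt atop) (fun n => Real.rpow_pos_of_pos two_pos _)
    (e := fun v => g0 * v) (by simp) (vm' := vm2 T p lev' w') ?_ ?_ ?_ ?_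
  · intro v h0 h1 ε hε
    filter_upwards [hcmp v h0 h1 ε hε] with n hn J s hs
    exact (hn s.1 hs.2).1
  · intro v h0 h1
    filter_upwards [hz.mark v h0 h1, hrng v h0 h1] with n hn hr J t ht
    obtain ⟨m1, m2, m3, m4⟩ := hn J t ht
    refine ⟨⟨m2, fun j => ?_⟩, ?_⟩
    · have := hr j
      rw [← m4 j] at this
      exact this
    · exact (vm2_eq (fun j => m4 j)).symm
  · intro v h0 h1
    exact Eventually.of_forall fun n => vm2_pos n v
  · intro v h0 h1 ε hε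
    filter_upwards [hcmp v h0 h1 ε hε, hz.mark v h0 h1, hrng v h0 h1, hz.ne] with n hn hm hr hne
    obtain ⟨x, hx⟩ := hne
    have hal : x.1 ∈ alive (I' n) (lev' n v) (zc (lev' n v) x.2) := mem_alive.2 ⟨x, hx, rfl, rfl⟩
    obtain ⟨m1, m2, m3, m4⟩ := hm _ _ hal
    have h4 := (hn _ (fun j => by
      have := hr j
      rw [← m4 j] at this
      exact this)).2
    rw [← vm2_eq (T := T) (p := p) (lev' := lev') (fun j => m4 j)] at h4
    refine h4.trans (le_of_eq ?_)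
    congr 1

end

end Crest.Agent.R116.Zl139
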