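import Mathlib
import Crest.Agent.R116.Zl2_139
import Crest.Agent.R116.KL2_388
import Crest.Agent.R136.PtA_627

/-!
# R116 (K side), block X1-C / K4 (helper139): the master window

* `rgK`, `lin_ofK` : range `d^(±K n)`, `K n → ∞`.
* `zoomL` : zoom to a linear loss with any diagonal property.
* `thinthick` : Thin / Thick as a diagonal property.
* **`master`** : ONE short window which carries the `Ψ`-valued marked sequence (all admissible test
  sets), the marked sequence with linear rewards (test sets of growing range) and is Thin or Thick.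
-/

set_option autoImplicit false

open Finset Filter Topology

namespace Crest.Agent.R116.Zl139

open Crest.Agent.R138.Ex926 (Base U exists_diag exists_tendsto ev_em)
open Crest.Agent.R138.Dp76
open Crest.Agent.R138.Mk163 (zc zl rho alive own)
open Crest.Agent.R138.MkRef627 (mem_alive)
open Crest.Agent.R138.MkPoint627 (exists_affine)
open Crest.Agent.R138.MkZoom779 (Fq Fq_mem ev_mem_Fq)
open Crest.Agent.R136.MkA627 (Geo MkA ampA exists_point_fam)
open Crest.Agent.R136.ZoomA102 (zoomA)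
open Crest.Agent.R116.Xa794 (TS geo)
open Crest.Agent.R116.Xc794
open Crest.Agent.R116.KF439 (Thin Thick Win)
open Crest.Agent.R116.KL388 (rr rr_diff thin_of thick_of rr_nonneg)

/-- restriction to the test sets whose widths are within `d^(±K n)` of those of the marks of level
`1`. -/
def rgK {σ ι : Type*} (B : Base) (w : ι → ℕ → ℚ → ℝ) (K : ℕ → ℝ) (G : Geo σ ι) : Geo σ ι :=
  { G with adm := fun n i J s => G.adm n i J s ∧
      ∀ j, B.d n ^ (K n) * w j n 1 ≤ G.wid j s ∧ G.wid j s ≤ B.d n ^ (-(K n)) * w j n 1 }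

section growing

variable {σ ι : Type} [Fintype ι] {B : Base} {I : ℕ → Finset (ℕ × ℝ)} {G : Geo σ ι}
    {lev : ℕ → ℚ → ℕ} {A : ℕ → ℝ} {c Λ : ℝ → ℝ} {τ : ι → ℝ → ℝ} {f : ℕ → ℚ → ℕ → ℤ → ℕ}
    {b : ℕ → ℚ → ℕ → σ} {vm : ℕ → ℚ → ℝ} {w : ι → ℕ → ℚ → ℝ}

omit [Fintype ι] in
theorem rng_mono {n : ℕ} {w1 x R R' : ℝ} (hw : 0 ≤ w1) (h : R ≤ R')
    (hx : B.d n ^ R * w1 ≤ x ∧ x ≤ B.d n ^ (-R) * w1) :
    B.d n ^ R' * w1 ≤ x ∧ x ≤ B.d n ^ (-R') * w1 :=
  ⟨(mul_le_mul_of_nonneg_right (dpow_le B n h) hw).trans hx.1,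
    hx.2.trans (mul_le_mul_of_nonneg_right (dpow_le B n (neg_le_neg h)) hw)⟩

/-- from every fixed range to a growing range. -/
theorem growK {R0 : ℝ} (h : ∀ R : ℝ, R0 ≤ R → MkA B I (rg B w R G) lev A c Λ τ f b vm w) :
    ∃ K1 : ℕ → ℝ, Tendsto K1 U atTop ∧ ∀ K : ℕ → ℝ, Tendsto K U atTop →
      (∀ᶠ n in (U : Filter ℕ), K n ≤ K1 n) →
      MkA B I (rgK B w K G) lev A c Λ τ f b vm w := by
  classical
  have hR0 := h R0 le_rfl
  obtain ⟨k, hk, hk2⟩ := exists_diag (fun k n => (∀ j, 0 < w j n 1) ∧ ∀ v ∈ Fq k, ∀ J : ℤ, ∀ s : σ,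
    (rg B w (k : ℝ) G).adm n (lev n v) J s →
      (((alive (I n) (lev n v) J).filter fun t => G.mem n (lev n v) J s t).card : ℝ) ≤
        B.d n ^ (-(1 / ((k : ℝ) + 1))) * ampA B A c n v * G.val n (lev n v) J s) (by
    intro k
    have e1 : ∀ᶠ n in (U : Filter ℕ), ∀ j, 0 < w j n 1 := by
      rw [Filter.eventually_all]
      exact fun j => hR0.wpos j 1 zero_le_one le_rfl
    refine e1.and ?_
    rw [Filter.eventually_all_finset]
    intro v hv
    obtain ⟨hv0, hv1⟩ := Fq_mem hv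
    filter_upwards [(h (max R0 k) (le_max_left _ _)).dmax v hv0 hv1 (1 / ((k : ℝ) + 1))
      (by positivity), e1] with n hn hw J s hs
    refine hn J s ⟨hs.1, fun j => ?_⟩
    exact rng_mono (hw j).le (le_max_right _ _) (hs.2 j))
  refine ⟨fun n => (k n : ℝ), tendsto_natCast_atTop_atTop.comp hk, fun K hK hle => ?_⟩
  refine
    { ne := hR0.ne, card := hR0.card, Apos := hR0.Apos, c0 := hR0.c0, lam0 := hR0.lam0
      lam := hR0.lam, tau1 := hR0.tau1, lev_mono := hR0.lev_mono, lev_lim := hR0.lev_lim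
      cell0 := hR0.cell0, one := hR0.one, own := hR0.own, dmax := ?_, mark := ?_
      near := hR0.near, vpos := hR0.vpos, wpos := hR0.wpos, tau := hR0.tau }
  · intro v h0 h1 ε hε
    have hF : ∀ᶠ n in (U : Filter ℕ), v ∈ Fq (k n) := hk.eventually (ev_mem_Fq h0 h1)
    have hE : ∀ᶠ n in (U : Filter ℕ), 1 / ε ≤ (k n : ℝ) :=
      (tendsto_natCast_atTop_atTop.comp hk).eventually_ge_atTop (1 / ε)
    have hdm := hR0.dmax v h0 h1 ε hε
    filter_upwards [hF, hE, hk2, hle] with n a1 a2 a3 a4 J s hs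
    obtain ⟨a5, a6⟩ := a3 (k n) le_rfl
    have h2 := a6 v a1 J s ⟨hs.1, fun j => rng_mono (a5 j).le a4 (hs.2 j)⟩
    have hp : 0 < ampA B A c n v := mul_pos (hR0.Apos n) (dpow_pos B n _)
    have hval : 0 ≤ G.val n (lev n v) J s := by
      by_contra hneg
      have h3 := mul_neg_of_pos_of_neg (mul_pos (dpow_pos B n (-(1 / ((k n : ℝ) + 1)))) hp)
        (not_le.1 hneg)
      have h4 : (0 : ℝ) ≤ (((alive (I n) (lev n v) J).filter fun t =>
        G.mem n (lev n v) J s t).card : ℝ) := by positivity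
      linarith
    refine h2.trans ?_
    show _ ≤ B.d n ^ (-ε) * ampA B A c n v * G.val n (lev n v) J s
    refine mul_le_mul_of_nonneg_right (mul_le_mul_of_nonneg_right (dpow_le B n ?_) hp.le) hval
    rw [neg_le_neg_iff, one_div]
    rw [one_div] at a2
    have : (ε⁻¹) ≤ (k n : ℝ) + 1 := by linarith
    calc ((k n : ℝ) + 1)⁻¹ ≤ (ε⁻¹)⁻¹ := inv_anti₀ (by positivity) this
      _ = ε := inv_inv ε
  · intro v h0 h1
    have e1 : ∀ᶠ n in (U : Filter ℕ), ∀ j, 0 < w j n 1 := by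
      rw [Filter.eventually_all]
      exact fun j => hR0.wpos j 1 zero_le_one le_rfl
    filter_upwards [hR0.mark v h0 h1, hK.eventually_ge_atTop R0, e1] with n hn hKn hw J t ht
    obtain ⟨m1, m2, m3, m4⟩ := hn J t ht
    exact ⟨m1, ⟨m2.1, fun j => rng_mono (hw j).le hKn (m2.2 j)⟩, m3, m4⟩

end growing

section zoom

variable {σ κ : Type} [Countable κ] {B : Base} {I : ℕ → Finset (ℕ × ℝ)} {G : Geo σ κ}
    {lev : ℕ → ℚ → ℕ} {A : ℕ → ℝ} {g : ℝ} {Λ : ℝ → ℝ} {θ : κ → ℝ}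
    {f : ℕ → ℚ → ℕ → ℤ → ℕ} {b : ℕ → ℚ → ℕ → σ} {vm : ℕ → ℚ → ℝ} {w : κ → ℕ → ℚ → ℝ}

/-- **zoom to a linear loss with a diagonal property** (391's `kl1` + 388's `zoomQ`). -/
theorem zoomL
    (h : MkA B I G lev A (fun v => g * v + 2 * Λ v) Λ (fun j v => θ j * (1 - v)) f b vm w)
    (Q : ((ℕ → ℝ) × (ℕ → ℚ → ℚ)) → ℕ → ℕ → Prop)
    (hQ : ∀ (η : ℕ → ℝ) (m : ℕ → ℚ → ℚ), (∀ k, 0 < η k) →
      (∀ k, ∀ x : ℚ, 0 ≤ x → x ≤ 1 → 0 ≤ m k x ∧ m k x ≤ 1) →
      ∀ k, ∀ᶠ n in (U : Filter ℕ), Q (η, m) k n) :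
    ∃ (η : ℕ → ℝ) (m : ℕ → ℚ → ℚ) (v0 : ℝ) (t : ℕ → ℕ) (B' : Base) (I' : ℕ → Finset (ℕ × ℝ))
      (A' : ℕ → ℝ) (s : ℝ),
      0 ≤ s ∧ s ≤ 1 ∧ 0 < v0 ∧ v0 < 1 ∧
      (∀ k, 0 < η k) ∧ (∀ k, η k ≤ 1) ∧ Tendsto η atTop (𝓝 0) ∧ Tendsto t U atTop ∧
      (∀ x : ℚ, Tendsto (fun k => ((m k x : ℚ) : ℝ)) atTop (𝓝 v0)) ∧
      Win B I B' I' (fun n => η (t n)) (fun n => m (t n)) ∧
      MkA B' I' G (fun n x => lev n (m (t n) x)) A' (fun v => (g + 2 * s) * v) (fun v => s * v)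
        (fun j v => θ j * (1 - v)) (fun n x => f n (m (t n) x)) (fun n x => b n (m (t n) x))
        (fun n x => vm n (m (t n) x)) (fun j n x => w j n (m (t n) x)) ∧
      ∀ᶠ n in (U : Filter ℕ), Q (η, m) (t n) n := by
  have hlam : ∀ u v : ℚ, 0 ≤ u → u ≤ v → v ≤ 1 → 0 ≤ Λ v - Λ u ∧ Λ v - Λ u ≤ (v : ℝ) - u := by
    intro u v hu huv hv
    exact h.lam u v (by exact_mod_cast hu) (by exact_mod_cast huv) (by exact_mod_cast hv)
  obtain ⟨F', h1, -, v0, hv0, D, hD⟩ := exists_point_fam (ι := Unit) (F := fun _ => Λ)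
    (C := fun _ => 0) (fun _ u v hu huv hv => by
      have := (hlam u v hu huv hv).1
      show -(0 * ((v : ℝ) - u)) ≤ Λ v - Λ u
      linarith)
  obtain ⟨η, m, hη, hη1, hη0, hm, hmono, hq, hpt, hlim⟩ := exists_affine hv0.1 hv0.2
  have hΛ : ∀ x y : ℚ, 0 ≤ x → x ≤ 1 → 0 ≤ y → y ≤ 1 →
      Tendsto (fun k => (Λ (m k y) - Λ (m k x)) / η k) atTop (𝓝 (D () * ((y : ℝ) - x))) := by
    intro x y hx0 hx1 hy0 hy1
    refine (hlim (F' ()) (D ()) (hD ()) x y).congr fun k => ?_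
    rw [h1 () _ (hm k x hx0 hx1).1 (hm k x hx0 hx1).2, h1 () _ (hm k y hy0 hy1).1 (hm k y hy0 hy1).2]
  have e : D () * (((1 : ℚ) : ℝ) - ((0 : ℚ) : ℝ)) = D () := by push_cast; ring
  have hT := hΛ 0 1 le_rfl zero_le_one zero_le_one le_rfl
  rw [e] at hT
  have hstep : ∀ k, 0 ≤ Λ (m k 1) - Λ (m k 0) ∧ Λ (m k 1) - Λ (m k 0) ≤ η k := fun k => by
    have h4 := hlam (m k 0) (m k 1) (hm k 0 le_rfl zero_le_one).1 (hmono k 0 1 zero_le_one)
      (hm k 1 zero_le_one le_rfl).2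
    have h5 := hq k 0 1
    rw [div_eq_iff (hη k).ne'] at h5
    push_cast at h5
    exact ⟨h4.1, by linarith [h4.2]⟩
  have hs0 : 0 ≤ D () := ge_of_tendsto' hT fun k => div_nonneg (hstep k).1 (hη k).le
  have hs1 : D () ≤ 1 := le_of_tendsto' hT fun k => by
    rw [div_le_one (hη k)]; exact (hstep k).2
  obtain ⟨s0, hs0t, hz⟩ := zoomA h η m (fun v => (g + 2 * D ()) * v) (fun v => D () * v)
    (fun j v => θ j * (1 - v)) hη hη1 hm
    (fun x y _ hxy _ => Eventually.of_forall fun k => hmono k x y hxy)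
    (fun x y _ _ _ => by
      simp only [hq]
      exact tendsto_const_nhds)
    (fun x hx0 hx1 => by
      have a1 := hΛ 0 x le_rfl zero_le_one hx0 hx1
      have a2 : Tendsto (fun k => g * (((m k x : ℝ) - m k 0) / η k)) atTop
          (𝓝 (g * ((x : ℝ) - ((0 : ℚ) : ℝ)))) := by
        simp only [hq]
        exact tendsto_const_nhds
      have a3 := a2.add (a1.const_mul 2)
      have a4 : g * ((x : ℝ) - ((0 : ℚ) : ℝ)) + 2 * (D () * ((x : ℝ) - ((0 : ℚ) : ℝ))) =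
          (g + 2 * D ()) * (x : ℝ) := by push_cast; ring
      rw [a4] at a3
      refine a3.congr fun k => ?_
      ring)
    (fun x hx0 hx1 => by
      have := hΛ 0 x le_rfl zero_le_one hx0 hx1
      simpa using this)
    (fun j x hx0 hx1 => by
      have a2 : Tendsto (fun k => -(θ j * (((m k x : ℝ) - m k 1) / η k))) atTop
          (𝓝 (-(θ j * ((x : ℝ) - ((1 : ℚ) : ℝ))))) := by
        simp only [hq]
        exact tendsto_const_nhds
      have a4 : -(θ j * ((x : ℝ) - ((1 : ℚ) : ℝ))) = θ j * (1 - (x : ℝ)) := by push_cast; ring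
      rw [a4] at a2
      refine a2.congr fun k => ?_
      ring)
    (fun u v hu huv hv => by
      constructor
      · nlinarith
      · nlinarith) (by simp) (by simp) (by simp)
  obtain ⟨s1, hs1t, hs1'⟩ := exists_diag (Q (η, m)) (hQ η m hη hm)
  set t : ℕ → ℕ := fun n => min (s0 n) (s1 n) with ht
  have htt : Tendsto t U atTop := by
    rw [tendsto_atTop]
    intro c
    filter_upwards [tendsto_atTop.1 hs0t c, tendsto_atTop.1 hs1t c] with n h1 h2
    exact le_min h1 h2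
  obtain ⟨B', I', A', hB', hI', hMk⟩ := hz t htt (Eventually.of_forall fun n => min_le_left _ _)
  refine ⟨η, m, v0, t, B', I', A', D (), hs0, hs1, hv0.1, hv0.2, hη, hη1, hη0, htt, hpt, ?_, hMk,
    ?_⟩
  · exact
    { pos := fun n => ⟨hη _, hη1 _⟩
      lim := hη0.comp htt
      mem := fun n => hm _
      aff := fun n x y => by
        have h5 := hq (t n) x y
        rw [div_eq_iff (hη _).ne'] at h5
        linarith
      pt := ⟨v0, hv0, fun x => (hpt x).comp htt⟩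
      base := hB'
      sub := hI' }
  · filter_upwards [hs1'] with n hn using hn (t n) (min_le_right _ _)

end zoom

section tt

variable {σ : Type} {B : Base} {I : ℕ → Finset (ℕ × ℝ)} {G : Geo σ (Fin 2)} {lev : ℕ → ℚ → ℕ}
    {A : ℕ → ℝ} {c Λ : ℝ → ℝ} {θ : Fin 2 → ℝ} {f : ℕ → ℚ → ℕ → ℤ → ℕ} {b : ℕ → ℚ → ℕ → σ}
    {vm : ℕ → ℚ → ℝ} {w : Fin 2 → ℕ → ℚ → ℝ}

/-- **Thin / Thick as a diagonal property.** -/
theorem thinthick (h : MkA B I G lev A c Λ (fun j v => θ j * (1 - v)) f b vm w)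
    (hle : ∀ v : ℚ, 0 ≤ v → v ≤ 1 → ∀ᶠ n in (U : Filter ℕ), w 1 n v ≤ w 0 n v) :
    ∃ Q : ((ℕ → ℝ) × (ℕ → ℚ → ℚ)) → ℕ → ℕ → Prop,
      (∀ (η : ℕ → ℝ) (m : ℕ → ℚ → ℚ), (∀ k, 0 < η k) →
        (∀ k, ∀ x : ℚ, 0 ≤ x → x ≤ 1 → 0 ≤ m k x ∧ m k x ≤ 1) →
        ∀ k, ∀ᶠ n in (U : Filter ℕ), Q (η, m) k n) ∧
      ∀ (η : ℕ → ℝ) (m : ℕ → ℚ → ℚ) (v0 : ℝ) (t : ℕ → ℕ) (B' : Base), (∀ k, 0 < η k) →
        (∀ k, η k ≤ 1) →
        Tendsto η atTop (𝓝 0) → Tendsto t U atTop → 0 < v0 → v0 < 1 →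
        (∀ x : ℚ, Tendsto (fun k => ((m k x : ℚ) : ℝ)) atTop (𝓝 v0)) →
        (∀ n, B'.d n = B.d n ^ η (t n)) → (∀ᶠ n in (U : Filter ℕ), Q (η, m) (t n) n) →
        Thin B' (fun j n x => w j n (m (t n) x)) ∨ Thick B' (fun j n x => w j n (m (t n) x)) := by
  classical
  set Δ : ℝ := θ 1 - θ 0 with hΔ
  have hd : ∀ v : ℚ, 0 ≤ v → v ≤ 1 →
      Tendsto (fun n => rr B w n v - rr B w n 1) U (𝓝 (Δ * (1 - v))) := fun v h0 h1 => by
    have := rr_diff h h0 h1
    have e : Δ * (1 - (v : ℝ)) = θ 1 * (1 - v) - θ 0 * (1 - v) := by rw [hΔ]; ring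
    rw [e]
    exact this
  have hpos : ∀ v : ℚ, 0 ≤ v → v ≤ 1 → ∀ᶠ n in (U : Filter ℕ), 0 ≤ rr B w n v := fun v h0 h1 => by
    filter_upwards [h.wpos 1 v h0 h1, hle v h0 h1] with n a1 a2 using rr_nonneg a1 a2
  by_cases hA : Tendsto (fun n => rr B w n 1) U atTop
  · refine ⟨fun p k n => ∀ x ∈ Fq k, (k : ℝ) ≤ rr B w n (p.2 k x) ∧ 0 < w 0 n (p.2 k x) ∧
        0 < w 1 n (p.2 k x), ?_, ?_⟩
    · intro η m hη hm k
      rw [Filter.eventually_all_finset]
      intro x hx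
      obtain ⟨hx0, hx1⟩ := Fq_mem hx
      obtain ⟨hm0, hm1⟩ := hm k x hx0 hx1
      have e1 := (Metric.tendsto_nhds.1 (hd (m k x) hm0 hm1)) 1 one_pos
      filter_upwards [e1, hA.eventually_ge_atTop ((k : ℝ) + 1 + |Δ * (1 - (m k x : ℝ))|),
        h.wpos 0 (m k x) hm0 hm1, h.wpos 1 (m k x) hm0 hm1] with n a1 a2 a3 a4
      refine ⟨?_, a3, a4⟩
      rw [Real.dist_eq] at a1
      have b1 := (abs_lt.1 a1).1
      have b2 := neg_abs_le (Δ * (1 - (m k x : ℝ)))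
      show (k : ℝ) ≤ rr B w n (m k x)
      linarith
    · intro η m v0 t B' hη hη1 hη0 htt hv0 hv1 hmv hB hQ
      left
      intro M v h0 h1
      have hF : ∀ᶠ n in (U : Filter ℕ), v ∈ Fq (t n) := htt.eventually (ev_mem_Fq h0 h1)
      have hK : ∀ᶠ n in (U : Filter ℕ), |M| ≤ (t n : ℝ) :=
        (tendsto_natCast_atTop_atTop.comp htt).eventually_ge_atTop |M|
      filter_upwards [hF, hK, hQ] with n a1 a2 a3
      obtain ⟨b1, b2, b3⟩ := a3 v a1
      have e : B'.d n ^ M = B.d n ^ (η (t n) * M) := by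
        rw [hB, ← Real.rpow_mul (B.pos n).le]
      show w 1 n (m (t n) v) ≤ B'.d n ^ M * w 0 n (m (t n) v)
      rw [e]
      refine thin_of b2 b3 (le_trans ?_ (a2.trans b1))
      calc η (t n) * M ≤ η (t n) * |M| := mul_le_mul_of_nonneg_left (le_abs_self _) (hη _).le
        _ ≤ 1 * |M| := mul_le_mul_of_nonneg_right (hη1 _) (abs_nonneg _)
        _ = |M| := one_mul _
  · have hbd : ∃ C : ℝ, ∀ᶠ n in (U : Filter ℕ), |rr B w n 1| ≤ C := by
      rw [tendsto_atTop] at hA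
      push Not at hA
      obtain ⟨C, hC⟩ := hA
      refine ⟨C, ?_⟩
      have hC' : ∀ᶠ n in (U : Filter ℕ), ¬ (C ≤ rr B w n 1) := by
        rcases ev_em (fun n => C ≤ rr B w n 1) with h1 | h1
        · exact absurd h1 (by simpa using hC)
        · exact h1
      filter_upwards [hC', hpos 1 zero_le_one le_rfl] with n a1 a2
      rw [abs_of_nonneg a2]
      exact (not_le.1 a1).le
    obtain ⟨C, hC⟩ := hbd
    obtain ⟨r1, hr1, -⟩ := exists_tendsto hC
    have hlim : ∀ v : ℚ, 0 ≤ v → v ≤ 1 →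
        Tendsto (fun n => rr B w n v) U (𝓝 (r1 + Δ * (1 - v))) := fun v h0 h1 => by
      have := (hd v h0 h1).add hr1
      have e : (fun n => rr B w n v - rr B w n 1 + rr B w n 1) = fun n => rr B w n v := by
        funext n; ring
      rw [e] at this
      rwa [add_comm r1]
    have hge : ∀ v : ℚ, 0 ≤ v → v ≤ 1 → 0 ≤ r1 + Δ * (1 - (v : ℝ)) := fun v h0 h1 =>
      ge_of_tendsto (hlim v h0 h1) (hpos v h0 h1)
    refine ⟨fun p k n => ∀ x ∈ Fq k, |rr B w n (p.2 k x) - (r1 + Δ * (1 - (p.2 k x : ℝ)))| ≤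
        p.1 k / ((k : ℝ) + 1) ∧ 0 < w 0 n (p.2 k x) ∧ 0 < w 1 n (p.2 k x), ?_, ?_⟩
    · intro η m hη hm k
      rw [Filter.eventually_all_finset]
      intro x hx
      obtain ⟨hx0, hx1⟩ := Fq_mem hx
      obtain ⟨hm0, hm1⟩ := hm k x hx0 hx1
      have hk : 0 < η k / ((k : ℝ) + 1) := div_pos (hη k) (by positivity)
      have e1 := (Metric.tendsto_nhds.1 (hlim (m k x) hm0 hm1)) _ hk
      filter_upwards [e1, h.wpos 0 (m k x) hm0 hm1, h.wpos 1 (m k x) hm0 hm1] with n a1 a3 a4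
      rw [Real.dist_eq] at a1
      exact ⟨a1.le, a3, a4⟩
    · intro η m v0 t B' hη hη1 hη0 htt hv0 hv1 hmv hB hQ
      have hB' : ∀ n (y : ℝ), B'.d n ^ y = B.d n ^ (η (t n) * y) := fun n y => by
        rw [hB, ← Real.rpow_mul (B.pos n).le]
      have hkk : ∀ ε : ℝ, 0 < ε → ∀ᶠ n in (U : Filter ℕ), η (t n) / ((t n : ℝ) + 1) ≤
          ε * η (t n) := fun ε hε => by
        have hK : ∀ᶠ n in (U : Filter ℕ), 1 / ε ≤ (t n : ℝ) :=
          (tendsto_natCast_atTop_atTop.comp htt).eventually_ge_atTop (1 / ε)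
        filter_upwards [hK] with n a2
        have hp := hη (t n)
        have hp' : (0 : ℝ) < (t n : ℝ) + 1 := by positivity
        rw [div_le_iff₀ hp']
        have : 1 ≤ ε * ((t n : ℝ) + 1) := by
          rw [div_le_iff₀ hε] at a2
          nlinarith
        nlinarith
      have g0 := hge 0 le_rfl zero_le_one
      have g1 := hge 1 zero_le_one le_rfl
      push_cast at g0 g1
      have hc0 : r1 + Δ * (1 - v0) = (1 - v0) * (r1 + Δ * (1 - 0)) + v0 * (r1 + Δ * (1 - 1)) := by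
        ring
      have hcn : 0 ≤ r1 + Δ * (1 - v0) := by
        rw [hc0]
        exact add_nonneg (mul_nonneg (by linarith) g0) (mul_nonneg hv0.le g1)
      rcases hcn.lt_or_eq with hc | hc
      · left
        intro M v h0 h1
        have hF : ∀ᶠ n in (U : Filter ℕ), v ∈ Fq (t n) := htt.eventually (ev_mem_Fq h0 h1)
        have hlim2 : Tendsto (fun n => r1 + Δ * (1 - (m (t n) v : ℝ))) U
            (𝓝 (r1 + Δ * (1 - v0))) := by
          have h2 := (hmv v).comp htt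
          exact (((h2.const_sub 1).const_mul Δ).const_add r1)
        have hη' : Tendsto (fun n => η (t n)) U (𝓝 0) := hη0.comp htt
        have e1 := hlim2.eventually_const_lt
          (show (r1 + Δ * (1 - v0)) / 2 < r1 + Δ * (1 - v0) by linarith)
        have e2 : ∀ᶠ n in (U : Filter ℕ), η (t n) * (|M| + 1) < (r1 + Δ * (1 - v0)) / 2 := by
          have h3 := hη'.mul_const (|M| + 1)
          rw [zero_mul] at h3
          exact h3.eventually_lt_const (by positivity)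
        filter_upwards [hF, hQ, e1, e2, hkk 1 one_pos] with n a1 a2 a3 a4 a5
        obtain ⟨b1, b2, b3⟩ := a2 v a1
        show w 1 n (m (t n) v) ≤ B'.d n ^ M * w 0 n (m (t n) v)
        rw [hB']
        refine thin_of b2 b3 ?_
        have b4 := (abs_le.1 b1).1
        have b5 : η (t n) * M ≤ η (t n) * |M| :=
          mul_le_mul_of_nonneg_left (le_abs_self _) (hη _).le
        linarith
      · right
        rw [hc0] at hc
        have z0 : (1 - v0) * (r1 + Δ * (1 - 0)) = 0 := by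
          have q1 := mul_nonneg (show 0 ≤ 1 - v0 by linarith) g0
          have q2 := mul_nonneg hv0.le g1
          linarith
        have z1 : v0 * (r1 + Δ * (1 - 1)) = 0 := by linarith
        have z0' : r1 + Δ * (1 - 0) = 0 := by
          rcases mul_eq_zero.1 z0 with q | q
          · exact absurd q (by linarith [sub_pos.2 hv1])
          · exact q
        have z1' : r1 + Δ * (1 - 1) = 0 := by
          rcases mul_eq_zero.1 z1 with q | q
          · exact absurd q hv0.ne'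
          · exact q
        have hr0 : r1 = 0 := by linarith
        have hD0 : Δ = 0 := by linarith
        intro ε hε v h0 h1
        have hF : ∀ᶠ n in (U : Filter ℕ), v ∈ Fq (t n) := htt.eventually (ev_mem_Fq h0 h1)
        filter_upwards [hF, hQ, hkk ε hε] with n a1 a2 a5
        obtain ⟨b1, b2, b3⟩ := a2 v a1
        show B'.d n ^ ε * w 0 n (m (t n) v) ≤ w 1 n (m (t n) v)
        rw [hB']
        refine thick_of b2 b3 ?_
        rw [hD0, hr0] at b1
        have b4 := (abs_le.1 b1).2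
        linarith

end tt

section master

variable {Ln S : Type} {B : Base} {I : ℕ → Finset (ℕ × ℝ)} {T : ℕ → TS Ln (Fin 2) S}
    {L : ℕ → ℕ → Ln} {lev : ℕ → ℚ → ℕ} {A : ℕ → ℝ} {g : ℝ} {Λ : ℝ → ℝ} {θ : Fin 2 → ℝ}
    {f : ℕ → ℚ → ℕ → ℤ → ℕ} {b : ℕ → ℚ → ℕ → (Fin 2 → ℕ) × S} {vm : ℕ → ℚ → ℝ}
    {w : Fin 2 → ℕ → ℚ → ℝ} {Ψ : ℝ → (Fin 2 → ℝ) → ℝ} {g0 : ℝ} {p : Fin 2 → ℝ} {mt : ℕ → ℕ}
    {atop : ℕ → Fin 2 → ℕ} {T0 : ℝ}

/-- **the master window**: one short window with the `Ψ`-valued sequence, the linear sequence with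
growing range, Thin or Thick, and any further diagonal property `Q`. -/
theorem master
    (h : MkA B I (geoP T Ψ mt atop L) lev A (fun v => g * v + 2 * Λ v) Λ
      (fun j v => θ j * (1 - v)) f b vm w)
    (hT : TopPos B lev w mt atop θ T0) (hT0 : 1 ≤ T0) (hΨ : LinAt Ψ θ g0 p)
    (hle : ∀ v : ℚ, 0 ≤ v → v ≤ 1 → ∀ᶠ n in (U : Filter ℕ), w 1 n v ≤ w 0 n v)
    (Q : ((ℕ → ℝ) × (ℕ → ℚ → ℚ)) → ℕ → ℕ → Prop)
    (hQ : ∀ (η : ℕ → ℝ) (m : ℕ → ℚ → ℚ), (∀ k, 0 < η k) →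
      (∀ k, ∀ x : ℚ, 0 ≤ x → x ≤ 1 → 0 ≤ m k x ∧ m k x ≤ 1) →
      ∀ k, ∀ᶠ n in (U : Filter ℕ), Q (η, m) k n) :
    ∃ (η : ℕ → ℝ) (m : ℕ → ℚ → ℚ) (t : ℕ → ℕ) (B' : Base) (I' : ℕ → Finset (ℕ × ℝ))
      (A' A2 : ℕ → ℝ) (vm2 : ℕ → ℚ → ℝ) (s : ℝ) (K1 : ℕ → ℝ),
      0 ≤ s ∧ s ≤ 1 ∧ (∀ k, 0 < η k) ∧ Tendsto η atTop (𝓝 0) ∧ Tendsto t U atTop ∧
      Win B I B' I' (fun n => η (t n)) (fun n => m (t n)) ∧
      MkA B' I' (geoP T Ψ mt atop L) (fun n x => lev n (m (t n) x)) A'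
        (fun v => (g + 2 * s) * v) (fun v => s * v)
        (fun j v => θ j * (1 - v)) (fun n x => f n (m (t n) x)) (fun n x => b n (m (t n) x))
        (fun n x => vm n (m (t n) x)) (fun j n x => w j n (m (t n) x)) ∧
      Tendsto K1 U atTop ∧
      (∀ K : ℕ → ℝ, Tendsto K U atTop → (∀ᶠ n in (U : Filter ℕ), K n ≤ K1 n) →
        MkA B' I' (rgK B' (fun j n x => w j n (m (t n) x)) K (geo T p L))
          (fun n x => lev n (m (t n) x)) A2
          (fun v => (g + g0 + 2 * s) * v) (fun v => s * v)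
          (fun j v => θ j * (1 - v)) (fun n x => f n (m (t n) x)) (fun n x => b n (m (t n) x))
          vm2 (fun j n x => w j n (m (t n) x))) ∧
      (Thin B' (fun j n x => w j n (m (t n) x)) ∨ Thick B' (fun j n x => w j n (m (t n) x))) ∧
      ∀ᶠ n in (U : Filter ℕ), Q (η, m) (t n) n := by
  classical
  obtain ⟨QT, hQT, hTT⟩ := thinthick h hle
  obtain ⟨η, m, v0, t, B', I', A', s, hs0, hs1, hv0, hv1, hη, hη1, hη0, htt, hpt, hW, hM, hD⟩ :=
    zoomL h (fun q k n => QT q k n ∧ Q q k n ∧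
      |((mt n : ℝ) - lev n (q.2 k 0)) * Real.log 2 / B.L n - (T0 - (q.2 k 0 : ℝ))| ≤
        1 / ((k : ℝ) + 1) ∧
      ∀ j, |(-Real.log (w j n (q.2 k 0)) - (lev n (q.2 k 0) : ℝ) * Real.log 2 -
        ((atop n j : ℝ) - mt n) * Real.log 2) / B.L n - θ j * (T0 - (q.2 k 0 : ℝ))| ≤
        1 / ((k : ℝ) + 1)) (by
      intro η m hη hm k
      obtain ⟨hm0, hm1⟩ := hm k 0 le_rfl zero_le_one
      have hk : (0 : ℝ) < 1 / ((k : ℝ) + 1) := by positivity
      have e1 := (Metric.tendsto_nhds.1 (hT.len (m k 0) hm0 hm1)) _ hk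
      have e2 : ∀ᶠ n in (U : Filter ℕ), ∀ j,
          |(-Real.log (w j n (m k 0)) - (lev n (m k 0) : ℝ) * Real.log 2 -
          ((atop n j : ℝ) - mt n) * Real.log 2) / B.L n - θ j * (T0 - (m k 0 : ℝ))| ≤
          1 / ((k : ℝ) + 1) := by
        rw [Filter.eventually_all]
        intro j
        filter_upwards [(Metric.tendsto_nhds.1 (hT.rel j (m k 0) hm0 hm1)) _ hk] with n hn
        rw [Real.dist_eq] at hn
        exact hn.le
      filter_upwards [hQT η m hη hm k, hQ η m hη hm k, e1, e2] with n a1 a2 a3 a4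
      rw [Real.dist_eq] at a3
      exact ⟨a1, a2, a3.le, a4⟩)
  have hH : ∀ n, 0 < η (t n) := fun n => hη _
  have hH0 : Tendsto (fun n => η (t n)) U (𝓝 0) := hη0.comp htt
  have hL : ∀ n, B'.L n = η (t n) * B.L n := fun n => by
    unfold Base.L
    rw [hW.base, Real.log_rpow (B.pos n)]
    ring
  have h1k : Tendsto (fun n => 1 / ((t n : ℝ) + 1)) U (𝓝 0) :=
    tendsto_one_div_add_atTop_nhds_zero_nat.comp htt
  have hm0 : Tendsto (fun n => ((m (t n) 0 : ℚ) : ℝ)) U (𝓝 v0) := (hpt 0).comp htt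
  have hlen : Tendsto (fun n => ((mt n : ℝ) - lev n (m (t n) 0)) * Real.log 2 / B.L n) U
      (𝓝 (T0 - v0)) := by
    have h1 : Tendsto (fun n => ((mt n : ℝ) - lev n (m (t n) 0)) * Real.log 2 / B.L n -
        (T0 - ((m (t n) 0 : ℚ) : ℝ))) U (𝓝 0) := by
      refine squeeze_zero_norm' ?_ h1k
      filter_upwards [hD] with n hn using hn.2.2.1
    have h2 := h1.add (hm0.const_sub T0)
    rw [zero_add] at h2
    refine h2.congr fun n => ?_
    ring
  have hrel : ∀ j, Tendsto (fun n => (-Real.log (w j n (m (t n) 0)) -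
      (lev n (m (t n) 0) : ℝ) * Real.log 2 - ((atop n j : ℝ) - mt n) * Real.log 2) / B.L n) U
      (𝓝 (θ j * (T0 - v0))) := by
    intro j
    have h1 : Tendsto (fun n => (-Real.log (w j n (m (t n) 0)) -
        (lev n (m (t n) 0) : ℝ) * Real.log 2 - ((atop n j : ℝ) - mt n) * Real.log 2) / B.L n -
        θ j * (T0 - ((m (t n) 0 : ℚ) : ℝ))) U (𝓝 0) := by
      refine squeeze_zero_norm' ?_ h1k
      filter_upwards [hD] with n hn using hn.2.2.2 j
    have h2 := h1.add ((hm0.const_sub T0).const_mul (θ j))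
    rw [zero_add] at h2
    refine h2.congr fun n => ?_
    ring
  have hlin : ∀ R : ℝ, 2 + (|θ 0| + |θ 1|) ≤ R →
      MkA B' I' (rg B' (fun j n x => w j n (m (t n) x)) R (geo T p L))
        (fun n x => lev n (m (t n) x)) (fun n => A' n * EE Ψ p (fun n x => lev n (m (t n) x))
          (fun j n x => w j n (m (t n) x)) mt atop n)
        (fun v => (g + g0 + 2 * s) * v) (fun v => s * v)
        (fun j v => θ j * (1 - v)) (fun n x => f n (m (t n) x)) (fun n x => b n (m (t n) x))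
        (vm2 T p (fun n x => lev n (m (t n) x)) (fun j n x => w j n (m (t n) x)))
        (fun j n x => w j n (m (t n) x)) := by
    intro R hR
    have h1 := lin_of (lev' := fun n x => lev n (m (t n) x)) (w' := fun j n x => w j n (m (t n) x))
      (t := T0 - v0) (R := R) hΨ hH hH0 hL (by linarith) (by
        intro j
        have a0 := abs_nonneg (θ 0)
        have a1 := abs_nonneg (θ 1)
        fin_cases j
        · show 1 + |θ 0| < R; linarith
        · show 1 + |θ 1| < R; linarith) (by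
        have a0 := abs_nonneg (θ 0)
        have a1 := abs_nonneg (θ 1)
        linarith) hM hlen hrel
    refine h1.congr (fun v _ _ => ?_) (fun j v _ _ => rfl)
    ring
  obtain ⟨K1, hK1, hK⟩ := growK (R0 := 2 + (|θ 0| + |θ 1|)) hlin
  exact ⟨η, m, t, B', I', A', _, _, s, K1, hs0, hs1, hη, hη0, htt, hW, hM, hK1, hK,
    hTT η m v0 t B' hη hη1 hη0 htt hv0 hv1 hpt hW.base (hD.mono fun n hn => hn.1),
    hD.mono fun n hn => hn.2.1⟩

end master

end Crest.Agent.R116.Zl139
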