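import Mathlib
import Crest.Agent.R116.Zl3_139
import Crest.Agent.R116.KF2_439

/-!
# R116 (K side), block X1-C / K4 (helper139): the master window of the light-ray class

* `topPos_of` : `TopPos` (`T0 = 1`) from `tau`, `lev_lim` and "the marks of level `1` have the shape
  `atop`".
* `IsTL T r` : the class `T` has the members of `TSL r` (`mem`, `vol`), `adm` implies `AdmL r`.
* `WinL` : everything the later blocks use of the final window (structure).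
* **`exists_winL`** : the final window exists.
-/

set_option autoImplicit false

open Finset Filter Topology

namespace Crest.Agent.R116.Zl139

open Crest.Agent.R138.Ex926 (Base U)
open Crest.Agent.R138.Dp76
open Crest.Agent.R138.Mk163 (zc zl rho alive own)
open Crest.Agent.R138.MkRef627 (mem_alive)
open Crest.Agent.R138.MkZoom779 (Fq Fq_mem ev_mem_Fq)
open Crest.Agent.R136.MkA627 (Geo MkA ampA)
open Crest.Agent.R116.Xa794 (TS geo)
open Crest.Agent.R116.Xc794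
open Crest.Agent.R116.LZg725
open Crest.Agent.R116.KI439
open Crest.Agent.R116.KF439

section

variable {ι : Type} {σ : Type*} {B : Base} {I : ℕ → Finset (ℕ × ℝ)} {G : Geo σ ι}
    {lev : ℕ → ℚ → ℕ} {A : ℕ → ℝ} {c Λ : ℝ → ℝ} {θ : ι → ℝ}
    {f : ℕ → ℚ → ℕ → ℤ → ℕ} {b : ℕ → ℚ → ℕ → σ} {vm : ℕ → ℚ → ℝ}
    {w : ι → ℕ → ℚ → ℝ} {atop : ℕ → ι → ℕ}

/-- position of the marks relative to the true top. -/
theorem topPos_of (h : MkA B I G lev A c Λ (fun j v => θ j * (1 - v)) f b vm w)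
    (hat : ∀ j, ∀ᶠ n in (U : Filter ℕ), w j n 1 = (1 / 2 : ℝ) ^ (atop n j)) :
    TopPos B lev w (fun n => lev n 1) atop θ 1 := by
  constructor
  · intro v h0 h1
    have h2 := h.lev_lim v 1 h0 h1 le_rfl
    push_cast at h2
    exact h2
  · intro j v h0 h1
    have t1 := h.tau j v h0 h1
    refine t1.congr' ?_
    filter_upwards [h.wpos j v h0 h1, h.wpos j 1 zero_le_one le_rfl, hat j] with n p1 p2 p3
    have hr : ∀ i : ℕ, 0 < rho i := fun i => by
      unfold Crest.Agent.R138.Mk163.rho; positivity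
    have hlr : ∀ i : ℕ, Real.log (rho i) = -(i * Real.log 2) := fun i => by
      unfold Crest.Agent.R138.Mk163.rho
      rw [Real.log_div one_ne_zero (by positivity), Real.log_one, Real.log_pow]
      ring
    have e4 : Real.log (w j n 1) = -((atop n j : ℝ) * Real.log 2) := by
      rw [p3, Real.log_pow, one_div, Real.log_inv]; ring
    rw [Real.log_div (div_pos (hr _) p1).ne' (div_pos (hr _) p2).ne',
      Real.log_div (hr _).ne' p1.ne', Real.log_div (hr _).ne' p2.ne', hlr, hlr, e4]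
    congr 1
    ring

end

/-- the class `T` has the members of `TSL r`; `adm` implies `AdmL r`. -/
structure IsTL (T : TS LRay (Fin 2) Mem) (r : ℝ) : Prop where
  mem : ∀ i J s l, T.mem i J s l ↔ l ∈ s.2.rays 0
  adm : ∀ i J s, T.adm i J s → AdmL r i J s.1 s.2
  vol : ∀ i a, T.vol i a = volL i a

theorem isTL_TSL (r : ℝ) : IsTL (TSL r) r where
  mem := fun _ _ _ _ => Iff.rfl
  adm := fun _ _ _ h => h
  vol := fun _ _ => rfl

/-- the linear geometry of the window -/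
noncomputable def GW (T : ℕ → TS LRay (Fin 2) Mem) (L : ℕ → ℕ → LRay) (w : Fin 2 → ℕ → ℚ → ℝ)
    (p : Fin 2 → ℝ) (B' : Base) (mm : ℕ → ℚ → ℚ) (K : ℕ → ℝ) : Geo SL (Fin 2) :=
  rgK B' (fun j n x => w j n (mm n x)) K (geo T p L)

section isl

variable {T : ℕ → TS LRay (Fin 2) Mem} {r : ℕ → ℝ}

theorem isL_GW (hT : ∀ n, IsTL (T n) (r n)) (L : ℕ → ℕ → LRay) (w : Fin 2 → ℕ → ℚ → ℝ)
    (p : Fin 2 → ℝ) (B' : Base) (mm : ℕ → ℚ → ℚ) (K : ℕ → ℝ) : IsL (GW T L w p B' mm K) L r where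
  mem := fun n i J s t => (hT n).mem i J s (L n t)
  adm := fun n i J s h => (hT n).adm i J s h.1
  wid := fun _ _ => rfl

theorem valL_GW (hT : ∀ n, IsTL (T n) (r n)) (L : ℕ → ℕ → LRay) (w : Fin 2 → ℕ → ℚ → ℝ)
    (p : Fin 2 → ℝ) (B' : Base) (mm : ℕ → ℚ → ℚ) (K : ℕ → ℝ) : ValL (GW T L w p B' mm K) p := by
  intro n i J s
  show (T n).vol i s.1 * _ = _
  rw [(hT n).vol]

theorem isL_geoP (hT : ∀ n, IsTL (T n) (r n)) (L : ℕ → ℕ → LRay) (Ψ : ℝ → (Fin 2 → ℝ) → ℝ)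
    (mt : ℕ → ℕ) (atop : ℕ → Fin 2 → ℕ) : IsL (geoP T Ψ mt atop L) L r where
  mem := fun n i J s t => (hT n).mem i J s (L n t)
  adm := fun n i J s h => (hT n).adm i J s h
  wid := fun _ _ => rfl

end isl

/-- **the final window of the light-ray class.** `g` = gap of the big sequence, `g0 = ∂_len Ψ`,
`p` = linear rewards. -/
structure WinL (B : Base) (I : ℕ → Finset (ℕ × ℝ)) (T : ℕ → TS LRay (Fin 2) Mem)
    (L : ℕ → ℕ → LRay) (r : ℕ → ℝ)
    (Ψ : ℝ → (Fin 2 → ℝ) → ℝ) (mt : ℕ → ℕ) (atop : ℕ → Fin 2 → ℕ) (lev : ℕ → ℚ → ℕ)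
    (f : ℕ → ℚ → ℕ → ℤ → ℕ) (b : ℕ → ℚ → ℕ → SL) (vm : ℕ → ℚ → ℝ) (w : Fin 2 → ℕ → ℚ → ℝ)
    (g g0 s : ℝ) (θ p : Fin 2 → ℝ) (B' : Base) (I' : ℕ → Finset (ℕ × ℝ)) (H : ℕ → ℝ)
    (mm : ℕ → ℚ → ℚ) (A' A2 : ℕ → ℝ) (vm2 : ℕ → ℚ → ℝ) (K : ℕ → ℝ) : Prop where
  s0 : 0 ≤ s
  s1 : s ≤ 1
  win : Win B I B' I' H mm
  /-- all admissible test sets, reward `Ψ` -/
  mkP : MkA B' I' (geoP T Ψ mt atop L) (fun n x => lev n (mm n x)) A'
    (fun v => (g + 2 * s) * v) (fun v => s * v) (fun j v => θ j * (1 - v))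
    (fun n x => f n (mm n x)) (fun n x => b n (mm n x)) (fun n x => vm n (mm n x))
    (fun j n x => w j n (mm n x))
  Klim : Tendsto K U atTop
  /-- test sets of range `d^(±K)`, linear rewards -/
  mkL : MkA B' I' (GW T L w p B' mm K)
    (fun n x => lev n (mm n x)) A2
    (fun v => (g + g0 + 2 * s) * v) (fun v => s * v) (fun j v => θ j * (1 - v))
    (fun n x => f n (mm n x)) (fun n x => b n (mm n x)) vm2 (fun j n x => w j n (mm n x))
  tt : Thin B' (fun j n x => w j n (mm n x)) ∨ Thick B' (fun j n x => w j n (mm n x))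
  /-- in the window every member of the range is admissible -/
  adm : ∀ᶠ n in (U : Filter ℕ), ∀ i : ℕ, lev n (mm n 0) ≤ i → i ≤ lev n (mm n 1) →
    ∀ (J : ℤ) (a : Fin 2 → ℕ) (m : Mem), AdmL (r n) i J a m →
      (∀ j, B'.d n ^ (K n) * w j n (mm n 1) ≤ (1 / 2 : ℝ) ^ (a j)) → (T n).adm i J (a, m)
  /-- room above the resolution -/
  room : ∀ᶠ n in (U : Filter ℕ), r n ≤ B'.d n ^ (K n) * w 1 n (mm n 1)

/-- the range of the class of stage `n` at level `i` (exponents of the widths). -/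
structure Rng (T : ℕ → TS LRay (Fin 2) Mem) (r : ℕ → ℝ) (mc : ℕ → ℕ) (Rn : ℕ → ℕ → ℝ) : Prop where
  adm : ∀ n i J a m, AdmL (r n) i J a m → i ≤ mc n → (∀ j, (a j : ℝ) ≤ Rn n i) →
    (T n).adm i J (a, m)
  anti : ∀ n i i', i ≤ i' → i' ≤ mc n → Rn n i' ≤ Rn n i
  res : ∀ n i, i ≤ mc n → r n ≤ (2 : ℝ) ^ (-(Rn n i))

/-- **room of the marks** in a range which grows by `K0` per level. -/
theorem room_of {σ ι : Type} {B : Base} {I : ℕ → Finset (ℕ × ℝ)} {G : Geo σ ι}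
    {lev : ℕ → ℚ → ℕ} {A : ℕ → ℝ} {c Λ : ℝ → ℝ} {θ : ι → ℝ} {f : ℕ → ℚ → ℕ → ℤ → ℕ}
    {b : ℕ → ℚ → ℕ → σ} {vm : ℕ → ℚ → ℝ} {w : ι → ℕ → ℚ → ℝ}
    (h : MkA B I G lev A c Λ (fun j v => θ j * (1 - v)) f b vm w)
    {mc : ℕ → ℕ} {Rn : ℕ → ℕ → ℝ} {K0 : ℝ}
    (hgrow : ∀ n i i', i ≤ i' → i' ≤ mc n → Rn n i' + K0 * ((i' : ℝ) - i) ≤ Rn n i)
    (hmc : ∀ᶠ n in (U : Filter ℕ), lev n 1 ≤ mc n) {j : ι} (hK0 : θ j ≤ K0)
    (htop : ∀ᶠ n in (U : Filter ℕ), ee w n 1 j ≤ Rn n (lev n 1)) {v : ℚ} (h0 : 0 ≤ v)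
    (h1 : v < 1) :
    ∀ᶠ n in (U : Filter ℕ), ee w n v j + 1 / 2 * (1 - v) * B.L n ≤ Rn n (lev n v) := by
  have hl2 : 0 < Real.log 2 := Real.log_pos one_lt_two
  have hl21 : Real.log 2 ≤ 1 := by
    have := Real.log_two_lt_d9
    linarith
  have hv : (0 : ℝ) < 1 - v := by
    have : (v : ℝ) < 1 := by exact_mod_cast h1
    linarith
  have t1 := ee_lim h h0 h1.le j
  have t2 := h.lev_lim v 1 h0 h1.le le_rfl
  push_cast at t2
  have t3 := (t2.const_mul K0).sub t1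
  have hlt : 1 / 2 * (1 - (v : ℝ)) < K0 * (1 - v) - (θ j - 1) * (1 - v) := by nlinarith
  filter_upwards [t3.eventually_const_lt hlt, hmc, htop, h.lev_mono v 1 h0 h1.le le_rfl]
    with n a1 a2 a3 a4
  have hL := B.L_pos n
  have b1 := hgrow n _ _ a4 a2
  have e : K0 * (((lev n 1 : ℝ) - lev n v) * Real.log 2 / B.L n) -
      (ee w n v j - ee w n 1 j) * Real.log 2 / B.L n =
      (K0 * ((lev n 1 : ℝ) - lev n v) - (ee w n v j - ee w n 1 j)) * Real.log 2 / B.L n := by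
    ring
  rw [e, lt_div_iff₀ hL] at a1
  have b2 : 1 / 2 * (1 - (v : ℝ)) * B.L n ≤
      K0 * ((lev n 1 : ℝ) - lev n v) - (ee w n v j - ee w n 1 j) := by
    set X := K0 * ((lev n 1 : ℝ) - lev n v) - (ee w n v j - ee w n 1 j) with hX
    have hp : 0 < 1 / 2 * (1 - (v : ℝ)) * B.L n := by positivity
    have hXp : 0 < X := by
      by_contra hneg
      have : X * Real.log 2 ≤ 0 := mul_nonpos_of_nonpos_of_nonneg (not_lt.1 hneg) hl2.le
      linarith
    nlinarith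
  linarith

/-- **the final window exists.** -/
theorem exists_winL {B : Base} {I : ℕ → Finset (ℕ × ℝ)} {T : ℕ → TS LRay (Fin 2) Mem}
    {L : ℕ → ℕ → LRay} {r : ℕ → ℝ}
    {Ψ : ℝ → (Fin 2 → ℝ) → ℝ} {mt : ℕ → ℕ} {atop : ℕ → Fin 2 → ℕ} {lev : ℕ → ℚ → ℕ} {A : ℕ → ℝ}
    {f : ℕ → ℚ → ℕ → ℤ → ℕ} {b : ℕ → ℚ → ℕ → SL} {vm : ℕ → ℚ → ℝ} {w : Fin 2 → ℕ → ℚ → ℝ}
    {g g0 T0 : ℝ} {Λ : ℝ → ℝ} {θ p : Fin 2 → ℝ}
    (hTL : ∀ n, IsTL (T n) (r n))
    (h : MkA B I (geoP T Ψ mt atop L) lev A (fun v => g * v + 2 * Λ v) Λ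
      (fun j v => θ j * (1 - v)) f b vm w)
    (hT : TopPos B lev w mt atop θ T0) (hT0 : 1 ≤ T0) (hΨ : LinAt Ψ θ g0 p)
    {mc : ℕ → ℕ} {Rn : ℕ → ℕ → ℝ} (hR : Rng T r mc Rn)
    (hmc : ∀ᶠ n in (U : Filter ℕ), lev n 1 ≤ mc n)
    {κ0 : ℝ} (hκ0 : 0 < κ0) (hroom : ∀ v : ℚ, 0 ≤ v → v < 1 → ∀ j, ∀ᶠ n in (U : Filter ℕ),
      ee w n v j + κ0 * (1 - v) * B.L n ≤ Rn n (lev n v)) :
    ∃ (s : ℝ) (B' : Base) (I' : ℕ → Finset (ℕ × ℝ)) (H : ℕ → ℝ)
      (mm : ℕ → ℚ → ℚ) (A' A2 : ℕ → ℝ) (vm2 : ℕ → ℚ → ℝ) (K : ℕ → ℝ),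
      WinL B I T L r Ψ mt atop lev f b vm w g g0 s θ p B' I' H mm A' A2 vm2 K := by
  have hle : ∀ v : ℚ, 0 ≤ v → v ≤ 1 → ∀ᶠ n in (U : Filter ℕ), w 1 n v ≤ w 0 n v := by
    intro v h0 h1
    filter_upwards [mark_L h (isL_geoP hTL L Ψ mt atop) h0 h1, h.ne] with n hn hne
    obtain ⟨x, hx⟩ := hne
    exact (hn x hx).le.2.1
  obtain ⟨η, m, t, B', I', A', A2, vm2, s, K1, hs0, hs1, hη, hη0, htt, hW, hM, hK1, hK, htk, hQ⟩ :=
    master h hT hT0 hΨ hle (fun q k n => (∀ j, q.2 k 1 < 1 →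
      ee w n (q.2 k 1) j + κ0 * (1 - (q.2 k 1 : ℝ)) * B.L n ≤ Rn n (lev n (q.2 k 1))) ∧
      lev n (q.2 k 1) ≤ lev n 1 ∧ ∀ j, 0 < w j n (q.2 k 1)) (by
      intro η m hη hm k
      have a1 := hm k 1 zero_le_one le_rfl
      have e1 : ∀ᶠ n in (U : Filter ℕ), ∀ j, m k 1 < 1 →
          ee w n (m k 1) j + κ0 * (1 - (m k 1 : ℝ)) * B.L n ≤ Rn n (lev n (m k 1)) := by
        rw [Filter.eventually_all]
        intro j
        by_cases hlt : m k 1 < 1
        · filter_upwards [hroom _ a1.1 hlt j] with n hn _ using hn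
        · exact Eventually.of_forall fun n hn => absurd hn hlt
      have e2 : ∀ᶠ n in (U : Filter ℕ), ∀ j, 0 < w j n (m k 1) := by
        rw [Filter.eventually_all]
        exact fun j => h.wpos j _ a1.1 a1.2
      filter_upwards [e1, h.lev_mono _ 1 a1.1 a1.2 le_rfl, e2] with n b1 b2 b3
      exact ⟨b1, b2, b3⟩)
  obtain ⟨v0, hv0, hpt⟩ := hW.pt
  have hl2 : 0 < Real.log 2 := Real.log_pos one_lt_two
  have hH0 : Tendsto (fun n => η (t n)) U (𝓝 0) := hη0.comp htt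
  set κ1 : ℝ := κ0 * ((1 - v0) / 2) with hκ1
  have hκ1p : 0 < κ1 := mul_pos hκ0 (by linarith [hv0.2])
  have hinv : Tendsto (fun n => κ1 * Real.log 2 / η (t n)) U atTop := by
    have h1 : Tendsto (fun n => η (t n)) U (𝓝[>] 0) := by
      rw [tendsto_nhdsWithin_iff]
      exact ⟨hH0, Eventually.of_forall fun n => hη _⟩
    have h2 := (tendsto_inv_nhdsGT_zero.comp h1).const_mul_atTop (mul_pos hκ1p hl2)
    refine h2.congr fun n => ?_
    simp [div_eq_mul_inv]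
  -- room of the marks of the top of the window
  have hrm : ∀ᶠ n in (U : Filter ℕ), (∀ j, ee w n (m (t n) 1) j + κ1 * B.L n ≤
      Rn n (lev n (m (t n) 1))) ∧ lev n (m (t n) 1) ≤ mc n ∧ ∀ j, 0 < w j n (m (t n) 1) := by
    have e1 : ∀ᶠ n in (U : Filter ℕ), ((m (t n) 1 : ℚ) : ℝ) < (1 + v0) / 2 :=
      (hpt 1).eventually_lt_const (by linarith [hv0.2])
    filter_upwards [e1, hQ, hmc] with n a1 a2 a3
    refine ⟨fun j => ?_, a2.2.1.trans a3, a2.2.2⟩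
    have hlt : m (t n) 1 < 1 := by
      have : ((m (t n) 1 : ℚ) : ℝ) < ((1 : ℚ) : ℝ) := by push_cast; linarith [hv0.2]
      exact_mod_cast this
    have h4 := a2.1 j hlt
    have h5 : κ1 * B.L n ≤ κ0 * (1 - ((m (t n) 1 : ℚ) : ℝ)) * B.L n := by
      refine mul_le_mul_of_nonneg_right ?_ (B.L_pos n).le
      rw [hκ1]
      exact mul_le_mul_of_nonneg_left (by linarith) hκ0.le
    linarith
  set K : ℕ → ℝ := fun n => min (K1 n) (κ1 * Real.log 2 / η (t n)) with hKdef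
  have hKlim : Tendsto K U atTop :=
    tendsto_atTop.2 fun C => by
      filter_upwards [hK1.eventually_ge_atTop C, hinv.eventually_ge_atTop C] with n a1 a2
      exact le_min a1 a2
  have hKη : ∀ n, K n * B'.L n ≤ κ1 * B.L n * Real.log 2 := by
    intro n
    have hL : B'.L n = η (t n) * B.L n := by
      unfold Base.L
      rw [hW.base, Real.log_rpow (B.pos n)]
      ring
    have h1 : K n * η (t n) ≤ κ1 * Real.log 2 := by
      have := mul_le_mul_of_nonneg_right (min_le_right (K1 n) (κ1 * Real.log 2 / η (t n)))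
        (hη (t n)).le
      rwa [div_mul_cancel₀ _ (hη (t n)).ne'] at this
    rw [hL, ← mul_assoc]
    have := mul_le_mul_of_nonneg_right h1 (B.L_pos n).le
    linarith
  have hlogK : ∀ n, ∀ y : ℝ, 0 < y → Real.log (B'.d n ^ (K n) * y) = -(K n * B'.L n) + Real.log y := by
    intro n y hy
    rw [Real.log_mul (dpow_pos B' n _).ne' hy.ne', Real.log_rpow (B'.pos n)]
    unfold Base.L
    ring
  refine ⟨s, B', I', fun n => η (t n), fun n => m (t n), A', A2, vm2, K, ?_⟩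
  exact
  { s0 := hs0
    s1 := hs1
    win := hW
    mkP := hM
    Klim := hKlim
    mkL := hK _ hKlim (Eventually.of_forall fun n => min_le_left _ _)
    tt := htk
    adm := by
      filter_upwards [hrm] with n hn i hi0 hi1 J a mb hadm hrg
      refine hR.adm n i J a mb hadm (hi1.trans hn.2.1) fun j => ?_
      refine le_trans ?_ ((hn.1 j).trans (hR.anti n i _ hi1 hn.2.1))
      have hw := hn.2.2 j
      have h3 := Real.log_le_log (mul_pos (dpow_pos B' n _) hw) (hrg j)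
      rw [hlogK n _ hw, Real.log_pow, one_div, Real.log_inv] at h3
      have h4 : ee w n (m (t n) 1) j * Real.log 2 = -Real.log (w j n (m (t n) 1)) := by
        unfold ee; field_simp
      have h5 : (a j : ℝ) * Real.log 2 ≤ (ee w n (m (t n) 1) j + κ1 * B.L n) * Real.log 2 := by
        have := hKη n
        nlinarith
      exact le_of_mul_le_mul_right h5 hl2
    room := by
      filter_upwards [hrm] with n hn
      have hw := hn.2.2 1
      refine (hR.res n _ hn.2.1).trans ?_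
      have hp : (0 : ℝ) < (2 : ℝ) ^ (-(Rn n (lev n (m (t n) 1)))) :=
        Real.rpow_pos_of_pos two_pos _
      rw [← Real.log_le_log_iff hp (mul_pos (dpow_pos B' n _) hw), hlogK n _ hw,
        Real.log_rpow two_pos]
      have h4 : ee w n (m (t n) 1) 1 * Real.log 2 = -Real.log (w 1 n (m (t n) 1)) := by
        unfold ee; field_simp
      have h6 := mul_le_mul_of_nonneg_right (hn.1 1) hl2.le
      have := hKη n
      nlinarith }

end Crest.Agent.R116.Zl139
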