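import Mathlib
import Crest.Agent.R116.Zl4_139
import Crest.Agent.R116.XcCut_794

/-!
# R116 (K side), block X1-C / K4 (helper139): the final window of the cut classes

`exists_winL_cut` : the classes `cut K0 (R n) (TSL (r n))` (794), `r n ≤ 2^(-R n)`, `θ j ≤ K0`.
-/

set_option autoImplicit false

open Finset Filter Topology

namespace Crest.Agent.R116.Zl139

open Crest.Agent.R138.Ex926 (Base U)
open Crest.Agent.R138.Dp76
open Crest.Agent.R138.Mk163 (zc zl rho alive own)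
open Crest.Agent.R138.MkRef627 (mem_alive)
open Crest.Agent.R136.MkA627 (Geo MkA ampA)
open Crest.Agent.R116.Xa794 (TS geo)
open Crest.Agent.R116.Xc794
open Crest.Agent.R116.LZg725
open Crest.Agent.R116.KI439
open Crest.Agent.R116.KF439

theorem isTL_cut (K0 R : ℕ) (r : ℝ) : IsTL (cut K0 R (TSL r)) r where
  mem := fun _ _ _ _ => Iff.rfl
  adm := fun _ _ _ h => h.1
  vol := fun _ _ => rfl

/-- range of a cut class at level `i` -/
noncomputable def Rc (K0 : ℕ) (R : ℕ → ℕ) (n i : ℕ) : ℝ := (R n : ℝ) - K0 * i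

theorem rng_cut (K0 : ℕ) (R : ℕ → ℕ) (r : ℕ → ℝ) (mc : ℕ → ℕ) (hr : ∀ n, r n ≤ (1 / 2 : ℝ) ^ (R n)) :
    Rng (fun n => cut K0 (R n) (TSL (r n))) r mc (Rc K0 R) where
  adm := fun n i J a m h _ ha => ⟨h, fun j => by
    have h1 := ha j
    unfold Rc at h1
    have h2 : (a j : ℝ) + K0 * i ≤ R n := by linarith
    exact_mod_cast h2⟩
  anti := fun n i i' hi _ => by
    unfold Rc
    have h1 : (i : ℝ) ≤ i' := by exact_mod_cast hi
    have h2 : (K0 : ℝ) * i ≤ K0 * i' := mul_le_mul_of_nonneg_left h1 (Nat.cast_nonneg _)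
    linarith
  res := fun n i _ => by
    refine (hr n).trans ?_
    unfold Rc
    rw [one_div, inv_pow, ← Real.rpow_natCast, ← Real.rpow_neg two_pos.le]
    refine Real.rpow_le_rpow_of_exponent_le one_le_two ?_
    have : (0 : ℝ) ≤ (K0 : ℝ) * i := by positivity
    linarith

theorem grow_cut (K0 : ℕ) (R : ℕ → ℕ) (n i i' : ℕ) :
    Rc K0 R n i' + (K0 : ℝ) * ((i' : ℝ) - i) ≤ Rc K0 R n i := by
  unfold Rc
  linarith

/-- **the final window of the cut classes.** -/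
theorem exists_winL_cut {B : Base} {I : ℕ → Finset (ℕ × ℝ)} {K0 : ℕ} {R : ℕ → ℕ}
    {L : ℕ → ℕ → LRay} {r : ℕ → ℝ}
    {Ψ : ℝ → (Fin 2 → ℝ) → ℝ} {atop : ℕ → Fin 2 → ℕ} {lev : ℕ → ℚ → ℕ} {A : ℕ → ℝ}
    {f : ℕ → ℚ → ℕ → ℤ → ℕ} {b : ℕ → ℚ → ℕ → SL} {vm : ℕ → ℚ → ℝ} {w : Fin 2 → ℕ → ℚ → ℝ}
    {g g0 : ℝ} {Λ : ℝ → ℝ} {θ p : Fin 2 → ℝ}
    (hr : ∀ n, r n ≤ (1 / 2 : ℝ) ^ (R n))
    (h : MkA B I (geoP (fun n => cut K0 (R n) (TSL (r n))) Ψ (fun n => lev n 1) atop L) lev A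
      (fun v => g * v + 2 * Λ v) Λ (fun j v => θ j * (1 - v)) f b vm w)
    (hat : ∀ j, ∀ᶠ n in (U : Filter ℕ), w j n 1 = (1 / 2 : ℝ) ^ (atop n j))
    (hK0 : ∀ j, θ j ≤ K0) (hΨ : LinAt Ψ θ g0 p) :
    ∃ (s : ℝ) (B' : Base) (I' : ℕ → Finset (ℕ × ℝ)) (H : ℕ → ℝ)
      (mm : ℕ → ℚ → ℚ) (A' A2 : ℕ → ℝ) (vm2 : ℕ → ℚ → ℝ) (K : ℕ → ℝ),
      WinL B I (fun n => cut K0 (R n) (TSL (r n))) L r Ψ (fun n => lev n 1) atop lev f b vm w
        g g0 s θ p B' I' H mm A' A2 vm2 K := by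
  have hmc : ∀ᶠ n in (U : Filter ℕ), lev n 1 ≤ (fun n => lev n 1) n :=
    Eventually.of_forall fun n => le_rfl
  have htop : ∀ j, ∀ᶠ n in (U : Filter ℕ), ee w n 1 j ≤ Rc K0 R n (lev n 1) := by
    intro j
    filter_upwards [h.mark 1 zero_le_one le_rfl, h.ne] with n hn hne
    obtain ⟨x, hx⟩ := hne
    obtain ⟨-, m2, -, m4⟩ := hn (zc (lev n 1) x.2) x.1 (mem_alive.2 ⟨x, hx, rfl, rfl⟩)
    have m5 : (1 / 2 : ℝ) ^ ((b n 1 (f n 1 x.1 (zc (lev n 1) x.2))).1 j) = w j n 1 := m4 j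
    have m6 := m2.2 j
    have e : ee w n 1 j = ((b n 1 (f n 1 x.1 (zc (lev n 1) x.2))).1 j : ℝ) := by
      unfold ee
      rw [← m5, Real.log_pow, one_div, Real.log_inv]
      have := (Real.log_pos one_lt_two).ne'
      field_simp
    rw [e]
    unfold Rc
    have m7 : (((b n 1 (f n 1 x.1 (zc (lev n 1) x.2))).1 j : ℝ)) + K0 * lev n 1 ≤ R n := by
      exact_mod_cast m6
    linarith
  exact exists_winL (fun n => isTL_cut K0 (R n) (r n)) h (topPos_of h hat) le_rfl hΨ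
    (rng_cut K0 R r (fun n => lev n 1) hr) hmc (κ0 := 1 / 2) (by norm_num)
    (fun v h0 h1 j => room_of h (fun n i i' _ _ => grow_cut K0 R n i i') hmc (hK0 j) (htop j) h0 h1)

/-- the family of the cut classes of the light-ray instance, resolution below the range. -/
def TSK (K0 : ℕ) : Set (TS LRay (Fin 2) Mem) :=
  {T | ∃ (R : ℕ) (r : ℝ), 0 < r ∧ r ≤ (1 / 2 : ℝ) ^ R ∧ T = cut K0 R (TSL r)}

end Crest.Agent.R116.Zl139
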