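import Mathlib
import Crest.Agent.R116.Zl5_139
import Crest.Agent.R116.XcOut_794
import Crest.Agent.R116.RmDef_635

/-!
# R116 (K side) (helper139): from the output `XOutQ (TSK K0)` of X1-C to the final window
-/

set_option autoImplicit false

open Finset Filter Topology

namespace Crest.Agent.R116.Zl139

open Crest.Agent.R138.Ex926 (Base U)
open Crest.Agent.R136.MkA627 (Geo MkA ampA)
open Crest.Agent.R116.Xa794 (TS geo)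
open Crest.Agent.R116.Xc794
open Crest.Agent.R116.LZg725
open Crest.Agent.R116.KI439
open Crest.Agent.R116.KF439

/-- **X1-C output ⊢ final window.** -/
theorem winL_of_XOutQ {K0 : ℕ} {Ψ ψ : ℝ → (Fin 2 → ℝ) → ℝ} {κ g g0 : ℝ} {θ p : Fin 2 → ℝ}
    (hX : XOutQ (Rm635.TSK K0) Ψ ψ κ g θ) (hK0 : ∀ j, θ j ≤ K0) (hΨ : LinAt Ψ θ g0 p) :
    κ ≤ ψ 1 θ ∧
    ∃ (R : ℕ → ℕ) (r : ℕ → ℝ), (∀ n, 0 < r n) ∧ (∀ n, r n ≤ (1 / 2 : ℝ) ^ (R n)) ∧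
    ∃ (B : Base) (I : ℕ → Finset (ℕ × ℝ)) (L : ℕ → ℕ → LRay) (lev : ℕ → ℚ → ℕ)
      (f : ℕ → ℚ → ℕ → ℤ → ℕ) (b : ℕ → ℚ → ℕ → SL) (vm : ℕ → ℚ → ℝ) (w : Fin 2 → ℕ → ℚ → ℝ)
      (atop : ℕ → Fin 2 → ℕ)
      (s : ℝ) (B' : Base) (I' : ℕ → Finset (ℕ × ℝ)) (H : ℕ → ℝ)
      (mm : ℕ → ℚ → ℚ) (A' A2 : ℕ → ℝ) (vm2 : ℕ → ℚ → ℝ) (K : ℕ → ℝ),
      WinL B I (fun n => cut K0 (R n) (TSL (r n))) L r Ψ (fun n => lev n 1) atop lev f b vm w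
        g g0 s θ p B' I' H mm A' A2 vm2 K := by
  obtain ⟨B, I, T, L, lev, A, Λ, f, b, vm, w, atop, N, a, h1, h2, h3, h4, h5, h6, h7, h8, h9⟩ := hX
  choose r R hr0 hr hT using h1
  obtain rfl : T = fun n => cut K0 (R n) (TSL (r n)) := funext hT
  obtain ⟨s, B', I', H, mm, A', A2, vm2, K, hW⟩ := exists_winL_cut hr h5
    (fun j => Eventually.of_forall fun n => by rw [h7, h6]) hK0 hΨ
  exact ⟨h4, R, r, hr0, hr, B, I, L, lev, f, b, vm, w, atop, s, B', I', H, mm, A', A2, vm2, K, hW⟩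

end Crest.Agent.R116.Zl139
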