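import Crest.Agent.R116.Ks9_79
import Crest.Agent.R116.Psi2_635
import Crest.Agent.R116.RmDef_635
import Crest.Agent.R116.XcF_794
import Crest.Agent.R116.Zl7_139
import Crest.Agent.R116.Tw7_468
import Crest.Agent.R116.Td6_809

/-!
# R116, K-side skeleton, first half (helper387)

`EnemyAt2 (Rm635.TSK K0) b0` for all `K0` ⊢ the seam `OutT | OutR` (468) with all numerical relations.

* `NumL η g s θ q` : numerical relations of the linear window (`c = (g + 2 s) v`).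
* `TopW η` : the seam: numbers with `NumL`, and for every range `Rg` and axis `a` a window
  `OutT` (thin) or `OutR` (round).
* `tilt_par` : 809's tilt in the final window.
* **`topW_of`** : enemy ⊢ `TopW η`.
* **`lkm_of`** : enemy + (`TopW η → False`) ⊢ `LKM`.
-/

set_option autoImplicit false
set_option linter.unusedVariables false

open Finset Filter Topology

namespace Crest.Agent.R116.KTop387

open Crest.Agent.R138.Ex926 (Base U)
open Crest.Agent.R138.Mk163 (zc zl rho alive own)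
open Crest.Agent.R136.MkA627
open Crest.Agent.R116.LZg725
open Crest.Agent.R116.KI439
open Crest.Agent.R116.KF439 (IsL ValL Thin Thick TiltL)
open Crest.Agent.R116.Xa794 (TS)
open Crest.Agent.R116.Xc794
open Crest.Agent.R116.Zl139
open Crest.Agent.R116.Psi635
open Crest.Agent.R116.Psi2635
open Crest.Agent.R116.Yb2635 (EnemyAt2)
open Crest.Agent.R116.Rm635 (trivB_K)
open Crest.Agent.R116.Gd222 (TSet)
open Crest.Agent.R116.Tw468 (OutT OutR out_winL' growth_winL s_lt_winL)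

/-- numerical relations of the linear window with exponents `c = (g + 2 s) v`, `Λ = s v`,
`τ_j = θ_j (1 - v)`, line rewards `q`. -/
structure NumL (η g s : ℝ) (θ q : Fin 2 → ℝ) : Prop where
  gpos : 0 < g
  s0 : 0 ≤ s
  s1 : s < 1
  qa : 0 < q 0
  qb : 0 < q 1
  qbg : q 1 ≤ η * g
  qba : q 1 ≤ η * q 0
  θa : 0 < θ 0
  grow : g + 2 * s + (q 0 + q 1) ≤ 2

/-- **the seam between the two halves of the K side**: for every range `Rg` and axis `a` a thin or a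
round window. -/
def TopW (η : ℝ) : Prop :=
  ∃ (g s : ℝ) (θ q : Fin 2 → ℝ), NumL η g s θ q ∧ ∀ (Rg : ℝ), 0 ≤ Rg → ∀ a : Fin 2,
    (∃ (G : Geo TSet (Fin 2)) (L : ℕ → ℕ → LRay) (r : ℕ → ℝ) (B : Base) (I : ℕ → Finset (ℕ × ℝ))
      (lev : ℕ → ℚ → ℕ) (A : ℕ → ℝ) (f : ℕ → ℚ → ℕ → ℤ → ℕ) (b : ℕ → ℚ → ℕ → TSet)
      (vm : ℕ → ℚ → ℝ) (w : Fin 2 → ℕ → ℚ → ℝ) (fr : ℕ → ℚ → ℕ × ℝ → ChL222.LInc)
      (fl : ℕ → ℕ × ℝ → ChL222.LInc) (sc : Fin 12 → ℕ → ℝ),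
      OutT G L r (g + 2 * s) s θ q Rg B I lev A f b vm w fr fl sc) ∨
    (∃ (G : Geo TSet (Fin 2)) (L : ℕ → ℕ → LRay) (r : ℕ → ℝ) (B : Base) (I : ℕ → Finset (ℕ × ℝ))
      (lev : ℕ → ℚ → ℕ) (A : ℕ → ℝ) (f : ℕ → ℚ → ℕ → ℤ → ℕ) (b : ℕ → ℚ → ℕ → TSet)
      (vm : ℕ → ℚ → ℝ) (w : Fin 2 → ℕ → ℚ → ℝ),
      OutR G L r (g + 2 * s) s θ q Rg a B I lev A f b vm w)

/-- the tilt in the final window (809) -/
theorem tilt_par {η b0 : ℝ} {p w : Fin 2 → ℝ} {μ q0 g0 κ q : ℝ} (hP : Par η b0 p w μ q0 g0 κ)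
    (hη : η ≤ 1 / 4) (hq : 0 ≤ q) (hq8 : q ≤ 8) {B : Base} {I : ℕ → Finset (ℕ × ℝ)} {K0 : ℕ}
    {R : ℕ → ℕ} {r : ℕ → ℝ} {mt : ℕ → ℕ} {atop : ℕ → Fin 2 → ℕ} {L : ℕ → ℕ → LRay}
    {lev : ℕ → ℚ → ℕ} {A : ℕ → ℝ} {g s : ℝ} {θ : Fin 2 → ℝ} {f : ℕ → ℚ → ℕ → ℤ → ℕ}
    {b : ℕ → ℚ → ℕ → TSet} {vm : ℕ → ℚ → ℝ} {w' : Fin 2 → ℕ → ℚ → ℝ}
    (h : MkA B I (geoP (fun n => cut K0 (R n) (TSL (r n))) (Psi p w μ q) mt atop L) lev A
      (fun v => g * v) (fun v => s * v) (fun j v => θ j * (1 - v)) f b vm w') :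
    ∃ C : ℝ, TiltL B I L lev f b w' C := by
  have hw : ∀ j, 0 ≤ w j := by
    intro j
    fin_cases j
    · show 0 ≤ w 0; rw [hP.cw0]; norm_num
    · exact hP.cw1.le
  have hp0 := hP.cp0
  have hp1 := hP.cp1
  have hp0' := hP.cp0'
  have hμ := hP.cm0
  have hμ1 := hP.cm1
  have hμp := hP.cmp
  have hw1 := hP.cw1
  have hw1p := hP.cwp
  have hep := hP.cep
  have a1 : q * μ ≤ 8 * μ := mul_le_mul_of_nonneg_right hq8 hμ.le
  have a2 : q * w 1 ≤ 8 * w 1 := mul_le_mul_of_nonneg_right hq8 hw1.le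
  have a3 : η * (p 0 / 2) ≤ 1 / 4 * (p 0 / 2) := mul_le_mul_of_nonneg_right hη (by linarith)
  obtain ⟨C, -, hC⟩ := Td809.tiltL_Psi (qn := p 0 / 2) (qt := 2 * p 1) (θ := θ) hw hμ.le
    (by linarith) hq (by rw [hP.cw0, mul_one]; linarith) (by linarith) (by linarith)
    (by linarith) (by linarith) h fun n => Td809.td_cut _ _ _
  exact ⟨C, hC⟩

/-- **first half of the K side.** -/
theorem topW_of {η : ℝ} (hη : 0 < η) (hη4 : η ≤ 1 / 4)
    (hE : ∃ b0 : ℝ, 0 < b0 ∧ ∀ K0 : ℕ, EnemyAt2 (Rm635.TSK K0) b0) : TopW η := by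
  obtain ⟨b0, hb0, hE⟩ := hE
  obtain ⟨p, w, μ, q0, g0, κ, hP⟩ := exists_par hb0 hη
  obtain ⟨K0, hK0⟩ := exists_nat_ge (2 / μ + 2 / (w 1 * μ))
  obtain ⟨q, β, δ0, hq, hq8, hβ, hβ2, hR, hC⟩ := chsL2 (trivB_K K0) (hE K0) hP
  obtain ⟨θ, hX⟩ := XcF794.xoutQ hR hC
  have hκp : 0 < κ := hC.κpos
  have hX' : XOutQ (Rm635.TSK K0) (Psi p w μ q) (psi w μ) κ β θ := hX
  have hκ : κ ≤ psi w μ 1 θ := by
    obtain ⟨B, I, T, L, lev, A, Λ, f, b, vm, w', atop, N, a, h1, h2, h3, h4, -⟩ := hX'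
    exact h4
  obtain ⟨t0, t1, t2⟩ := hP.theta hκ
  have hμ := hP.cm0
  have hw1 := hP.cw1
  have hθ : ∀ j, θ j ≤ K0 := by
    have e1 : 0 ≤ 2 / μ := by positivity
    have e2 : 0 ≤ 2 / (w 1 * μ) := by positivity
    intro j
    fin_cases j
    · show θ 0 ≤ K0
      linarith
    · show θ 1 ≤ K0
      linarith [le_abs_self (θ 1)]
  obtain ⟨-, R, r, hr0, hr, B, I, L, lev, f, b, vm, w', atop, s, B', I', H, mm, A', A2, vm2, K,
    hW⟩ := winL_of_XOutQ hX' hθ (Rv883.linAt_Psi hμ.le θ)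
  obtain ⟨d0, d1, d2, d3⟩ := hP.dwid hq.le hq8.le θ
  have hp0 := hP.cp0
  have hp1 := hP.cp1
  have hg0 := hP.cg0
  have hTL : ∀ n, IsTL (cut K0 (R n) (TSL (r n))) (r n) := fun n => isTL_cut _ _ _
  have hpp : ∀ j, 0 ≤ Rv883.dwid p w μ q θ j := by
    intro j
    fin_cases j
    · show 0 ≤ Rv883.dwid p w μ q θ 0
      linarith
    · show 0 ≤ Rv883.dwid p w μ q θ 1
      linarith
  have hgp : 0 < β + Rv883.dlen w μ q θ := by linarith
  refine ⟨β + Rv883.dlen w μ q θ, s, θ, Rv883.dwid p w μ q θ, ?_, fun Rg hRg a => ?_⟩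
  · refine
      { gpos := hgp, s0 := hW.s0, s1 := s_lt_winL hTL hW hpp hgp, qa := by linarith
        qb := by linarith, qbg := ?_, qba := ?_, θa := by linarith, grow := growth_winL hTL hW }
    · have h1 := hP.ceg
      have h2 : η * g0 ≤ η * (β + Rv883.dlen w μ q θ) := mul_le_mul_of_nonneg_left (by linarith) hη.le
      linarith
    · have h1 := hP.cep
      have h2 : η * (p 0 / 2) ≤ η * Rv883.dwid p w μ q θ 0 := mul_le_mul_of_nonneg_left d1 hη.le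
      linarith
  · rcases out_winL' hTL hW hpp hgp (fun _ => tilt_par hP hη4 hq.le hq8.le hW.mkP) hRg a with
      ⟨B1, I1, lev1, A1, f1, b1, vm1, w1, fr1, fl1, sc1, h⟩ | h
    · exact Or.inl ⟨_, L, r, B1, I1, lev1, A1, f1, b1, vm1, w1, fr1, fl1, sc1, h⟩
    · exact Or.inr ⟨_, L, r, B', I', _, A2, _, _, vm2, _, h⟩

/-- **the K side from the enemy (618 / 79) and the second half (`TopW η → False`).** -/
theorem lkm_of {η : ℝ} (hη : 0 < η) (hη4 : η ≤ 1 / 4)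
    (hE : ¬ Ks79.LKMseq 68 → ∃ b0 : ℝ, 0 < b0 ∧ ∀ K0 : ℕ, EnemyAt2 (Rm635.TSK K0) b0)
    (hB : TopW η → False) : LKMDef299.LKM :=
  Ks79.lkm_of_lkmseq (M := 68) (by norm_num) (by
    by_contra h
    exact hB (topW_of hη hη4 (hE h)))

end Crest.Agent.R116.KTop387
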