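import Crest.Agent.R116.D0n2_878
import Crest.Agent.R116.D0h1_708
import Crest.Agent.R116.RowU3_188
import Crest.Agent.R116.KTopA_387

/-!
# R116 (K side), LEMMA D0, `2 θa - θb ≤ 1`: the END (helper570, piece Y4 of 219's 22199)

`Y (t, v) = R(v) + t (1, 0, 1)` (height and slope of the slab move together), `t < 0`.

* `X_nb`     : the point of the plane is the natural box `nb (v + t) (θa (1 - v)) (θb (1 - v) + t)`;
* `line_end` : `g` Lipschitz, `∂_t g ≤ -M` a.e. on `(-h, 0)` at height `v` ⊢ `M h ≤ g (-h, v) - g (0, v)`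
  at a.e. `v`;
* `end_gen`  : over `CtxT`: `D (1, 0) ≤ -M` a.e. over `E`, `5 + q 1 - 3 s - g < M` ⊢ `E ∩ (0, 1)` null;
* **`end_null`** : `M = 6 - 4 s`, `NumL η g s θ q`, `η ≤ 1`; `end_ae` : the a.e. form.
-/

set_option autoImplicit false
set_option linter.unusedVariables false

open Set Filter Topology MeasureTheory
open scoped NNReal ENNReal

namespace Crest.Agent.R116.D0e570

open Crest.Agent.R138.Ex926 (Base U IsTan)
open Crest.Agent.R136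
open Crest.Agent.R136.MkA627
open Crest.Agent.R136.TD627
open Crest.Agent.R136.Net191
open Crest.Agent.R136.Lq196
open Crest.Agent.R116.ChL222
open Crest.Agent.R116.PL504 (nb rL DN eL βL oL Shift)
open Crest.Agent.R116.Xd954 (cs xs FlagX Mrg)
open Crest.Agent.R116.Sg337 (coneL DL natB eL_bx9)
open Crest.Agent.R116.Gd222 (TSet sN PDL DT)
open Crest.Agent.R116.KI439
open Crest.Agent.R116.KF439 (PL)
open Crest.Agent.R116.Tw468 (OutT)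
open Crest.Agent.R116.CtxB468
open Crest.Agent.R116.KTop387 (NumL)
open Crest.Agent.R116.Rcx363 (fo fo_lip)
open Crest.Agent.R116.D0n878 (X_nat)

/-- the point of the plane -/
theorem X_nb (θa θb w0 sa sb t v : ℝ) :
    Dg262.X (rL θa θb w0 sa sb 0) (natB 1 0 1) (natB 1 (-θa) (-θb)) (t, v) =
      nb w0 sa sb (v + t) (θa * (1 - v)) (θb * (1 - v) + t) := by
  rw [PL504.rL_nb, Sg337.nb_natB, Sg337.nb_natB, X_nat]
  congr 1 <;> ring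

theorem X_lip (x0 a b : Fin 12 → ℝ) (y y' : ℝ × ℝ) :
    dist (Dg262.X x0 a b y) (Dg262.X x0 a b y') ≤ (‖a‖ + ‖b‖) * dist y y' := by
  rw [dist_pi_le_iff (by positivity)]
  intro k
  simp only [Dg262.X]
  rw [Real.dist_eq]
  have e : x0 k + a k * y.1 + b k * y.2 - (x0 k + a k * y'.1 + b k * y'.2) =
      a k * (y.1 - y'.1) + b k * (y.2 - y'.2) := by ring
  rw [e]
  refine (abs_add_le _ _).trans ?_
  rw [abs_mul, abs_mul, add_mul]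
  have h1 : |y.1 - y'.1| ≤ dist y y' := by
    rw [Prod.dist_eq, ← Real.dist_eq]; exact le_max_left _ _
  have h2 : |y.2 - y'.2| ≤ dist y y' := by
    rw [Prod.dist_eq, ← Real.dist_eq]; exact le_max_right _ _
  have h3 : |a k| ≤ ‖a‖ := by rw [← Real.norm_eq_abs]; exact norm_le_pi_norm a k
  have h4 : |b k| ≤ ‖b‖ := by rw [← Real.norm_eq_abs]; exact norm_le_pi_norm b k
  exact add_le_add (mul_le_mul h3 h1 (abs_nonneg _) (norm_nonneg _))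
    (mul_le_mul h4 h2 (abs_nonneg _) (norm_nonneg _))

/-- **Fubini and the mean value on the lines** -/
theorem line_end {g : ℝ × ℝ → ℝ} {K : ℝ≥0} (hg : LipschitzWith K g) {h M : ℝ} (hh : 0 < h)
    (hM : 0 < M) {E : Set ℝ}
    (hd : ∀ᵐ y : ℝ × ℝ, -h < y.1 → y.1 < 0 → y.2 ∈ E → DifferentiableAt ℝ g y →
      fderiv ℝ g y (1, 0) ≤ -M) :
    ∀ᵐ v : ℝ, v ∈ E → M * h ≤ g (-h, v) - g (0, v) := by
  have h1 : ∀ᵐ y : ℝ × ℝ, -h < y.1 → y.1 < 0 → y.2 ∈ E →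
      DifferentiableAt ℝ g y ∧ fderiv ℝ g y (1, 0) ≤ -M := by
    filter_upwards [hd, hg.ae_differentiableAt (μ := (volume : Measure (ℝ × ℝ)))] with y a1 a2
      b1 b2 b3
    exact ⟨a2, a1 b1 b2 b3 a2⟩
  have h2 : ∀ᵐ z : ℝ × ℝ, -h < z.2 → z.2 < 0 → z.1 ∈ E →
      DifferentiableAt ℝ g (z.2, z.1) ∧ fderiv ℝ g (z.2, z.1) (1, 0) ≤ -M := by
    have hsw : MeasurePreserving (Prod.swap : ℝ × ℝ → ℝ × ℝ) volume volume := by
      rw [Measure.volume_eq_prod]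
      exact Measure.measurePreserving_swap
    exact hsw.quasiMeasurePreserving.ae h1
  rw [Measure.volume_eq_prod] at h2
  have h3 := Measure.ae_ae_of_ae_prod h2
  filter_upwards [h3] with v hv hvE
  have h4 : ∀ᵐ u : ℝ, u ∈ Ioo 0 h → u ∈ (univ : Set ℝ) →
      M ≤ deriv (fun u : ℝ => g (-u, v)) u := by
    have hn : MeasurePreserving (fun u : ℝ => -u) volume volume :=
      Measure.measurePreserving_neg (volume : Measure ℝ)
    filter_upwards [hn.quasiMeasurePreserving.ae hv] with u hu hu2 _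
    obtain ⟨a1, a2⟩ := hu (by linarith [hu2.2]) (by linarith [hu2.1]) hvE
    have e1 : HasFDerivAt g (fderiv ℝ g (-u, v)) (-u, v) := a1.hasFDerivAt
    have e2 : HasDerivAt (fun u : ℝ => ((-u, v) : ℝ × ℝ)) ((-1, 0) : ℝ × ℝ) u :=
      ((hasDerivAt_id u).neg).prodMk (hasDerivAt_const u v)
    have e3 : HasDerivAt (fun u : ℝ => g (-u, v)) (fderiv ℝ g (-u, v) (-1, 0)) u :=
      e1.comp_hasDerivAt u e2
    rw [e3.deriv]
    have e4 : ((-1, 0) : ℝ × ℝ) = -((1, 0) : ℝ × ℝ) := by simp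
    rw [e4, map_neg]
    have a2' : fderiv ℝ g (-u, v) (1, 0) ≤ -M := a2
    linarith
  have hGL : LipschitzWith K (fun u : ℝ => g (-u, v)) := by
    refine LipschitzWith.of_dist_le_mul fun u u' => ?_
    have h5 := hg.dist_le_mul (-u, v) (-u', v)
    refine h5.trans (le_of_eq ?_)
    rw [Prod.dist_eq, dist_self, dist_neg_neg, max_eq_left dist_nonneg]
  have h6 := D0h708.line_mean hh hM hGL MeasurableSet.univ (b := 0) le_rfl (by simp) h4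
  rw [mul_zero, sub_zero, neg_zero] at h6
  exact h6

section ctx

variable {η : ℝ} {G : Geo TSet (Fin 2)} {L : ℕ → ℕ → LRay} {r : ℕ → ℝ} {g s : ℝ} {θ q : Fin 2 → ℝ}
    {Rg : ℝ} {B : Base} {I : ℕ → Finset (ℕ × ℝ)} {lev : ℕ → ℚ → ℕ} {A : ℕ → ℝ}
    {f : ℕ → ℚ → ℕ → ℤ → ℕ} {b : ℕ → ℚ → ℕ → TSet} {vm : ℕ → ℚ → ℝ} {w : Fin 2 → ℕ → ℚ → ℝ}
    {fr : ℕ → ℚ → ℕ × ℝ → LInc} {fl : ℕ → ℕ × ℝ → LInc} {sc : Fin 12 → ℕ → ℝ}
    {w0 sa sb δ R : ℝ} {I0 I' : ℕ → Finset (ℕ × ℝ)} {ν own : (Fin 12 → ℝ) → ℝ} {c₀ : ℝ}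

/-- **D-max against the record on the plane** -/
theorem dmax_rec
    (h : CtxT G L r (g + 2 * s) s θ q Rg B I lev A f b vm w fr fl sc w0 sa sb δ R I0 I' ν own c₀)
    (hR0 : w0 + (θ 1 + sb) < R) (hR1 : w0 + 1 + sb < R) (hθ : 0 < θ 0)
    (hRg : θ 0 + |θ 1| < Rg) {v0 : ℝ} (hv0 : 0 < v0) (hv1 : v0 < 1) :
    ∃ κ : ℝ, 0 < κ ∧ ∀ t v : ℝ, |t| ≤ κ → |v - v0| ≤ κ →
      Dg262.X (rL (θ 0) (θ 1) w0 sa sb 0) (natB 1 0 1) (natB 1 (-θ 0) (-θ 1)) (t, v) ∈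
        Leg monL R ∧
      ν (Dg262.X (rL (θ 0) (θ 1) w0 sa sb 0) (natB 1 0 1) (natB 1 (-θ 0) (-θ 1)) (t, v)) ≤
        ν (Dg262.X (rL (θ 0) (θ 1) w0 sa sb 0) (natB 1 0 1) (natB 1 (-θ 0) (-θ 1)) (0, v)) +
          (g + 3 * s - 5 - q 1) * t := by
  obtain ⟨κ, hκ, hP⟩ := RowU188.near_PD h hR0 hR1 hθ hRg hv0 hv1
  set m : ℝ := min (κ / (2 * (1 + |θ 0| + |θ 1|))) (min (v0 / 2) ((1 - v0) / 2)) with hm
  have hS : 0 < 1 + |θ 0| + |θ 1| := by positivity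
  have hm0 : 0 < m := lt_min (by positivity) (lt_min (by linarith) (by linarith))
  have m1 : m ≤ κ / (2 * (1 + |θ 0| + |θ 1|)) := min_le_left _ _
  have m2 : m ≤ v0 / 2 := (min_le_right _ _).trans (min_le_left _ _)
  have m3 : m ≤ (1 - v0) / 2 := (min_le_right _ _).trans (min_le_right _ _)
  rw [le_div_iff₀ (by positivity)] at m1
  have m4 : m + m * |θ 0| + m * |θ 1| ≤ κ / 2 := by linarith
  have m5 : 0 ≤ m * |θ 0| := by positivity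
  have m6 : 0 ≤ m * |θ 1| := by positivity
  refine ⟨m, hm0, fun t v ht hv => ?_⟩
  have ht' := abs_le.1 ht
  have hv' := abs_le.1 hv
  have d0 : |θ 0 * (1 - v) - θ 0 * (1 - v0)| ≤ m * |θ 0| := by
    have e : θ 0 * (1 - v) - θ 0 * (1 - v0) = -(θ 0 * (v - v0)) := by ring
    rw [e, abs_neg, abs_mul, mul_comm]
    exact mul_le_mul_of_nonneg_right hv (abs_nonneg _)
  have d1 : |θ 1 * (1 - v) - θ 1 * (1 - v0)| ≤ m * |θ 1| := by
    have e : θ 1 * (1 - v) - θ 1 * (1 - v0) = -(θ 1 * (v - v0)) := by ring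
    rw [e, abs_neg, abs_mul, mul_comm]
    exact mul_le_mul_of_nonneg_right hv (abs_nonneg _)
  have hx : nb w0 sa sb (v + t) (θ 0 * (1 - v)) (θ 1 * (1 - v) + t) ∈
      PDL w0 sa sb Rg 0 (θ 0 + |θ 1| + 1) R := by
    refine hP _ _ _ ?_ ?_ ?_
    · rw [abs_le]; constructor <;> linarith
    · linarith
    · have e : θ 1 * (1 - v) + t - θ 1 * (1 - v0) =
        (θ 1 * (1 - v) - θ 1 * (1 - v0)) + t := by ring
      rw [e]
      refine (abs_add_le _ _).trans ?_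
      linarith
  have h1 := h.dmax (θ 0 + |θ 1| + 1) _ hx
  have h2 := h.ext.record v (by linarith) (by linarith)
  rw [DT_nb] at h1
  rw [EL_DN, PL504.rL_nb] at h2
  rw [X_nb, X_nb]
  refine ⟨hx.1, ?_⟩
  have e0 : nb w0 sa sb (v + 0) (θ 0 * (1 - v)) (θ 1 * (1 - v) + 0) =
      nb w0 sa sb v (θ 0 * (1 - v)) (θ 1 * (1 - v)) := by rw [add_zero, add_zero]
  rw [e0]
  have e1 : DN (g + 2 * s) s (q 0) (q 1) (θ 0) (θ 1) (v + t) (θ 0 * (1 - v)) (θ 1 * (1 - v) + t) =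
      DN (g + 2 * s) s (q 0) (q 1) (θ 0) (θ 1) v (θ 0 * (1 - v)) (θ 1 * (1 - v)) +
        (g + 3 * s - 5 - q 1) * t := by
    unfold DN; ring
  rw [e1] at h1
  linarith

/-- **the END, general rate** -/
theorem end_gen
    (h : CtxT G L r (g + 2 * s) s θ q Rg B I lev A f b vm w fr fl sc w0 sa sb δ R I0 I' ν own c₀)
    (hR0 : w0 + (θ 1 + sb) < R) (hR1 : w0 + 1 + sb < R) (hθ : 0 < θ 0)
    (hRg : θ 0 + |θ 1| < Rg) {M t0 : ℝ} (hM : 0 < M) (hMq : 5 + q 1 - 3 * s - g < M)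
    (ht0 : 0 < t0) {E : Set ℝ}
    (hloc : ∀ᵐ y : ℝ × ℝ, -t0 < y.1 → y.1 < 0 → y.2 ∈ E → ∀ D : ℝ × ℝ →L[ℝ] ℝ,
      HasFDerivAt (fun y => ν (Dg262.X (rL (θ 0) (θ 1) w0 sa sb 0) (natB 1 0 1)
        (natB 1 (-θ 0) (-θ 1)) y)) D y → D (1, 0) ≤ -M) :
    volume (E ∩ Ioo 0 1) = 0 := by
  refine measure_null_of_locally_null _ fun v0 hv0 => ?_
  obtain ⟨κ, hκ, hX⟩ := dmax_rec h hR0 hR1 hθ hRg hv0.2.1 hv0.2.2
  set Y : ℝ × ℝ → Fin 12 → ℝ := Dg262.X (rL (θ 0) (θ 1) w0 sa sb 0) (natB 1 0 1)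
    (natB 1 (-θ 0) (-θ 1)) with hY
  set Ω : Set (ℝ × ℝ) := Ioo (-κ) κ ×ˢ Ioo (v0 - κ) (v0 + κ) with hΩ
  have hΩo : IsOpen Ω := isOpen_Ioo.prod isOpen_Ioo
  have hmem : ∀ y ∈ Ω, |y.1| ≤ κ ∧ |y.2 - v0| ≤ κ := by
    intro y hy
    have h1 : -κ < y.1 ∧ y.1 < κ := hy.1
    have h2 : v0 - κ < y.2 ∧ y.2 < v0 + κ := hy.2
    constructor
    · rw [abs_le]; constructor <;> linarith [h1.1, h1.2]
    · rw [abs_le]; constructor <;> linarith [h2.1, h2.2]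
  set K : ℝ≥0 := 12 * (‖(natB 1 0 1 : Fin 12 → ℝ)‖₊ + ‖(natB 1 (-θ 0) (-θ 1) : Fin 12 → ℝ)‖₊)
    with hK
  have hlip : LipschitzOnWith K (fun y => ν (Y y)) Ω := by
    refine LipschitzOnWith.of_dist_le_mul fun y hy y' hy' => ?_
    have a1 := (hX y.1 y.2 (hmem y hy).1 (hmem y hy).2).1
    have a2 := (hX y'.1 y'.2 (hmem y' hy').1 (hmem y' hy').2).1
    have a3 := fo_lip h (0 : Fin 2) _ a1 _ a2
    have a4 : dist (ν (Y y)) (ν (Y y')) ≤ 12 * dist (Y y) (Y y') := a3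
    refine a4.trans ?_
    have a5 := X_lip (rL (θ 0) (θ 1) w0 sa sb 0) (natB 1 0 1) (natB 1 (-θ 0) (-θ 1)) y y'
    rw [← hY] at a5
    have a6 : (K : ℝ) = 12 * (‖(natB 1 0 1 : Fin 12 → ℝ)‖ + ‖(natB 1 (-θ 0) (-θ 1) : Fin 12 → ℝ)‖) := by
      rw [hK]; push_cast; rfl
    rw [a6]
    nlinarith
  obtain ⟨gx, hg, hgΩ⟩ := hlip.extend_real
  set hh : ℝ := min (t0 / 2) (κ / 2) with hhd
  have hh0 : 0 < hh := lt_min (by linarith) (by linarith)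
  have hh1 : hh < t0 := lt_of_le_of_lt (min_le_left _ _) (by linarith)
  have hh2 : hh < κ := lt_of_le_of_lt (min_le_right _ _) (by linarith)
  have key := line_end (E := E ∩ Ioo (v0 - κ) (v0 + κ)) hg hh0 hM (by
    filter_upwards [hloc] with y hy h1 h2 h3 h4
    have hyΩ : y ∈ Ω := ⟨⟨by linarith, by linarith⟩, h3.2⟩
    have heq : (fun y => ν (Y y)) =ᶠ[𝓝 y] gx := by
      filter_upwards [hΩo.mem_nhds hyΩ] with z hz using hgΩ hz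
    exact hy (by linarith) h2 h3.1 _ (h4.hasFDerivAt.congr_of_eventuallyEq heq))
  refine ⟨(E ∩ Ioo 0 1) ∩ Ioo (v0 - κ) (v0 + κ), ?_, ?_⟩
  · exact inter_mem self_mem_nhdsWithin
      (mem_nhdsWithin_of_mem_nhds (Ioo_mem_nhds (by linarith) (by linarith)))
  · refine measure_mono_null (fun v hv => ?_) (ae_iff.1 key)
    intro hcon
    have b1 := hcon ⟨hv.1.1, hv.2⟩
    have c1 : ((-hh, v) : ℝ × ℝ) ∈ Ω := ⟨⟨by linarith, by linarith⟩, hv.2⟩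
    have c2 : ((0, v) : ℝ × ℝ) ∈ Ω := ⟨⟨by linarith, by linarith⟩, hv.2⟩
    rw [← hgΩ c1, ← hgΩ c2] at b1
    have b2 := (hX (-hh) v (hmem _ c1).1 (hmem _ c1).2).2
    have b3 : M * hh ≤ (g + 3 * s - 5 - q 1) * (-hh) := by linarith
    have b4 : (M - (5 + q 1 - 3 * s - g)) * hh ≤ 0 := by linarith
    have b5 : 0 < (M - (5 + q 1 - 3 * s - g)) * hh := mul_pos (by linarith) hh0
    linarith

/-- **the END (Y4 of 219's 22199)** -/
theorem end_null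
    (h : CtxT G L r (g + 2 * s) s θ q Rg B I lev A f b vm w fr fl sc w0 sa sb δ R I0 I' ν own c₀)
    (hN : NumL η g s θ q) (hη : η ≤ 1)
    (hR0 : w0 + (θ 1 + sb) < R) (hR1 : w0 + 1 + sb < R) (hRg : θ 0 + |θ 1| + 1 ≤ Rg)
    {t0 : ℝ} (ht0 : 0 < t0) {E : Set ℝ}
    (hloc : ∀ᵐ y : ℝ × ℝ, -t0 < y.1 → y.1 < 0 → y.2 ∈ E → ∀ D : ℝ × ℝ →L[ℝ] ℝ,
      HasFDerivAt (fun y => ν (Dg262.X (rL (θ 0) (θ 1) w0 sa sb 0) (natB 1 0 1)
        (natB 1 (-θ 0) (-θ 1)) y)) D y → D (1, 0) ≤ -(6 - 4 * s)) :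
    volume (E ∩ Ioo 0 1) = 0 := by
  have h1 := hN.gpos
  have h2 := hN.s1
  have h3 := hN.qbg
  have h4 : η * g ≤ g := by nlinarith
  exact end_gen h hR0 hR1 hN.θa (by linarith) (by linarith) (by linarith) ht0 hloc

/-- the END, a.e. form -/
theorem end_ae
    (h : CtxT G L r (g + 2 * s) s θ q Rg B I lev A f b vm w fr fl sc w0 sa sb δ R I0 I' ν own c₀)
    (hN : NumL η g s θ q) (hη : η ≤ 1)
    (hR0 : w0 + (θ 1 + sb) < R) (hR1 : w0 + 1 + sb < R) (hRg : θ 0 + |θ 1| + 1 ≤ Rg)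
    {t0 : ℝ} (ht0 : 0 < t0) {P : ℝ → Prop}
    (hloc : ∀ᵐ y : ℝ × ℝ, -t0 < y.1 → y.1 < 0 → ¬ P y.2 → ∀ D : ℝ × ℝ →L[ℝ] ℝ,
      HasFDerivAt (fun y => ν (Dg262.X (rL (θ 0) (θ 1) w0 sa sb 0) (natB 1 0 1)
        (natB 1 (-θ 0) (-θ 1)) y)) D y → D (1, 0) ≤ -(6 - 4 * s)) :
    ∀ᵐ v : ℝ, v ∈ Ioo (0 : ℝ) 1 → P v := by
  have h1 := end_null h hN hη hR0 hR1 hRg ht0 (E := {v | ¬ P v}) hloc
  filter_upwards [measure_eq_zero_iff_ae_notMem.1 h1] with v hv hv2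
  by_contra hcon
  exact hv ⟨hcon, hv2⟩

end ctx

end Crest.Agent.R116.D0e570
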