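import Crest.Agent.R116.D0n3_878

/-!
# R116 (K side), LEMMA D0, `β_D ≤ 0` (helper665): numbers at a natural point, end of the line

* `num_P` : `6 - 4 s ≤ Σ ρ i a i`, `a = natB 1 ε (1 + 2 ε)`, from K1, H1, K2 and [CD] (or S3)
* `line_end2`, `line_end` : slope `≤ -m` along (almost) natural lines ⟹ slope `≤ -m` along
  `natB 1 0 1`
-/

set_option autoImplicit false
set_option linter.unusedVariables false

open Set Filter Topology MeasureTheory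
open scoped NNReal

namespace Crest.Agent.R116.D0ln665

open Crest.Agent.R138
open Crest.Agent.R136
open Crest.Agent.R136.Net191
open Crest.Agent.R116.ChL222
open Crest.Agent.R116.Sg337 (bx9 natB)
open Crest.Agent.R116.SgF665 (wl)
open Crest.Agent.R116.D0F878
open Crest.Agent.R116.D0n878

/-- algebra of the numbers -/
theorem num_alg {s ε ρ0 ρ2 ρ3 ρ5 ρ7 ρ9 ρ10 ρ11 : ℝ} (hε : 0 < ε) (s2 : 2 * s < 1)
    (own : 1 - s ≤ ρ0) (h2 : 0 ≤ ρ2) (h3 : 0 ≤ ρ3) (h7 : 0 ≤ ρ7) (hX : 1 - s ≤ ρ5)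
    (hH : ρ5 ≤ ρ9) (hP : 1 - s ≤ ρ10) (hF : s < ρ10 → 1 ≤ ρ11) :
    6 - 4 * s ≤ ρ0 * 1 + ρ2 * 1 + ρ3 * ε + ρ5 * (1 + ε) + ρ7 * (1 + ε) + ρ9 * (1 + 2 * ε) +
      ρ10 * (1 + 2 * ε) + ρ11 * (2 * (1 + ε)) := by
  have h11 := hF (by linarith)
  have a1 : 0 ≤ ρ3 * ε := by positivity
  have a2 : 0 ≤ ρ7 * (1 + ε) := by positivity
  have a3 : 0 ≤ ρ5 * ε := mul_nonneg (by linarith) hε.le
  have a4 : 0 ≤ ρ9 * ε := mul_nonneg (by linarith) hε.le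
  have a5 : 0 ≤ ρ10 * ε := mul_nonneg (by linarith) hε.le
  have a6 : 0 ≤ ρ11 * ε := mul_nonneg (by linarith) hε.le
  nlinarith

/-- **numbers at a natural point where everything is linear** -/
theorem num_P {J : Type*} {P : Set (Fin 12 → ℝ)} {f : J → (Fin 12 → ℝ) → ℝ} {j0 : J}
    {Bs : (ℕ → Fin 12 → ℝ) → (ℕ → ℝ) → Prop} {s ε : ℝ} {X : ℕ → Fin 12 → ℝ} {h : ℕ → ℝ}
    {ρ : Fin 12 → ℝ} (hε : 0 < ε) (s2 : 2 * s < 1)
    (T : LinTanD P f j0 X h (ρ 0) (ρ 5) (ρ 9) (ρ 11) (ρ 3) (ρ 10) (ρ 2) (ρ 7) (ρ 1))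
    (F : LinFactsD P f j0 Bs s) (hB : Bs X h) (hX : ∀ n, ∃ z c p, X n = natB z c p)
    (hr : ∀ i ∈ S9, 0 ≤ ρ i) (own : 1 - s ≤ ρ 0) (hC : 0 < ρ 3)
    (hP : 1 - s ≤ ρ 10 ∨ 0 < ρ 1) :
    6 - 4 * s ≤ ∑ i ∈ S9, ρ i * natB 1 ε (1 + 2 * ε) i := by
  have w5 : ∀ n, X n 5 = X n 0 + X n 3 := fun n => by
    obtain ⟨z, c, p, e⟩ := hX n; rw [e]; simp [natB, bx9]
  have w6 : ∀ n, X n 6 = X n 0 + X n 4 := fun n => by
    obtain ⟨z, c, p, e⟩ := hX n; rw [e]; simp [natB, bx9]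
  have w9 : ∀ n, X n 9 = X n 3 + X n 5 := fun n => by
    obtain ⟨z, c, p, e⟩ := hX n; rw [e]; simp [natB, bx9]; ring
  have w9' : ∀ n, X n 9 = X n 4 + X n 6 := fun n => by
    obtain ⟨z, c, p, e⟩ := hX n; rw [e]; simp [natB, bx9]; ring
  have w11 : ∀ n, X n 11 = X n 0 + X n 10 := fun n => by
    obtain ⟨z, c, p, e⟩ := hX n; rw [e]; simp [natB, bx9]
  have w10 : ∀ n, X n 10 = X n 1 + X n 9 := fun n => by
    obtain ⟨z, c, p, e⟩ := hX n; rw [e]; simp [natB, bx9]; ring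
  have k1 := (F.K1 _ _ _ _ _ _ _ _ _ _ _ hB T w5 w6).1 hC
  have k2 := F.H1 _ _ _ _ _ _ _ _ _ _ _ hB T w9 w9' hC
  have k3 := (F.K2 _ _ _ _ _ _ _ _ _ _ _ hB T w11).2
  have k4 : 1 - s ≤ ρ 10 := by
    rcases hP with hP | hP
    · exact hP
    · have := F.S3 _ _ _ _ _ _ _ _ _ _ _ hB T w10 hP
      linarith
  rw [sum_aN]
  exact num_alg hε s2 own (hr 2 (by decide)) (hr 3 (by decide)) (hr 7 (by decide)) k1 k2 k4 k3

/-! ### end of the line -/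

/-- Lipschitz with a.e. derivative `≤ -m` -/
theorem le_of_ae {g : ℝ → ℝ} {K : ℝ≥0} {y m : ℝ} (hg : LipschitzOnWith K g (Icc 0 y))
    (hy : 0 < y) (h : ∀ᵐ t : ℝ, t ∈ Ioo 0 y → ∀ d, HasDerivAt g d t → d ≤ -m) :
    g y ≤ g 0 - m * y := by
  by_contra hcon
  push Not at hcon
  obtain ⟨a, ha, ha2⟩ : ∃ a, -m < a ∧ a * (y - 0) ≤ g y - g 0 := by
    refine ⟨(g y - g 0) / y, ?_, ?_⟩
    · rw [lt_div_iff₀ hy]; linarith
    · rw [sub_zero, div_mul_cancel₀ _ hy.ne']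
  obtain ⟨t, ht, ht2, ht3, ht4⟩ := Sg388.exists_deriv_ge hg hy ha2
    (δ := (a + m) / 2) (by linarith) (N := {t | ∀ d, HasDerivAt g d t → d ≤ -m})
    (by filter_upwards [h] with t h1 h2 using h1 h2)
  have := ht2 _ ht3.hasDerivAt
  linarith

theorem norm_natB (z c p : ℝ) : ‖natB z c p‖ ≤ |z| + 2 * |c| + |p| := by
  have e1 := abs_nonneg z
  have e2 := abs_nonneg c
  have e3 := abs_nonneg p
  have f1 := abs_le.1 (le_refl |z|)
  have f2 := abs_le.1 (le_refl |c|)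
  have f3 := abs_le.1 (le_refl |p|)
  refine (pi_norm_le_iff_of_nonneg (by positivity)).2 fun k => ?_
  rw [Real.norm_eq_abs, abs_le]
  fin_cases k <;> simp [natB, bx9] <;> constructor <;> linarith [f1.1, f1.2, f2.1, f2.2, f3.1, f3.2]

/-- from one line to the end -/
theorem end_aux {lam : (Fin 12 → ℝ) → ℝ} {K A m : ℝ} (hK : 0 ≤ K)
    (hL : ∀ c ∈ LM, ∀ c' ∈ LM, |lam c - lam c'| ≤ K * ‖c - c'‖)
    (hA : ∀ M : ℝ, 0 ≤ M → lam (natB M 0 M) = M * A)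
    (hln : ∀ ε : ℝ, 0 < ε → ε ≤ 1 / 4 → ∃ z0 c0 p0 : ℝ, ∀ M : ℝ, 0 < M →
      lam (natB (z0 + M) (c0 + ε * M) (p0 + (1 + 2 * ε) * M)) ≤ lam (natB z0 c0 p0) - m * M) :
    A ≤ -m := by
  refine le_of_forall_pos_le_add fun δ hδ => ?_
  obtain ⟨ε, hε, hε4, hεδ⟩ : ∃ ε : ℝ, 0 < ε ∧ ε ≤ 1 / 4 ∧ 4 * K * ε ≤ δ / 2 := by
    refine ⟨min (1 / 4) (δ / (8 * (K + 1))), lt_min (by norm_num) (by positivity),
      min_le_left _ _, ?_⟩
    have h1 : min (1 / 4) (δ / (8 * (K + 1))) ≤ δ / (8 * (K + 1)) := min_le_right _ _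
    have h0 : 0 < 8 * (K + 1) := by positivity
    rw [le_div_iff₀ h0] at h1
    have h2 : 0 < min (1 / 4) (δ / (8 * (K + 1))) := lt_min (by norm_num) (by positivity)
    nlinarith
  obtain ⟨z0, c0, p0, hl⟩ := hln ε hε hε4
  set N0 : ℝ := |z0| + 2 * |c0| + |p0| with hN0
  have hN0' : 0 ≤ N0 := by positivity
  set M : ℝ := (2 * (|lam (natB z0 c0 p0)| + K * N0) + 1) / δ with hM
  have hMp : 0 < M := by positivity
  have h1 := hl M hMp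
  have h2 := hL _ (natB_mem M 0 M) _ (natB_mem (z0 + M) (c0 + ε * M) (p0 + (1 + 2 * ε) * M))
  have e : natB M 0 M - natB (z0 + M) (c0 + ε * M) (p0 + (1 + 2 * ε) * M) =
      natB (-z0) (-(c0 + ε * M)) (-(p0 + 2 * ε * M)) := by
    funext k
    rw [Pi.sub_apply]
    fin_cases k <;> simp [natB, bx9] <;> ring
  rw [e] at h2
  have h3 := norm_natB (-z0) (-(c0 + ε * M)) (-(p0 + 2 * ε * M))
  rw [abs_neg, abs_neg, abs_neg] at h3
  have h4 : |c0 + ε * M| ≤ |c0| + ε * M := by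
    refine (abs_add_le _ _).trans ?_
    rw [abs_of_nonneg (by positivity : 0 ≤ ε * M)]
  have h5 : |p0 + 2 * ε * M| ≤ |p0| + 2 * ε * M := by
    refine (abs_add_le _ _).trans ?_
    rw [abs_of_nonneg (by positivity : 0 ≤ 2 * ε * M)]
  have h6 : ‖natB (-z0) (-(c0 + ε * M)) (-(p0 + 2 * ε * M))‖ ≤ N0 + 4 * ε * M := by
    rw [hN0]; linarith
  have h7 := mul_le_mul_of_nonneg_left h6 hK
  rw [hA M hMp.le] at h2
  have h8 := (abs_le.1 h2).2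
  have h9 := le_abs_self (lam (natB z0 c0 p0))
  have h10 : M * δ = 2 * (|lam (natB z0 c0 p0)| + K * N0) + 1 := by
    rw [hM]; field_simp
  have h11 : 4 * K * ε * M ≤ δ / 2 * M := mul_le_mul_of_nonneg_right hεδ hMp.le
  have h12 : M * A ≤ M * (-m + δ) := by nlinarith
  exact le_of_mul_le_mul_left h12 hMp

/-- **end of the line, two variables** -/
theorem line_endG {lam : (Fin 12 → ℝ) → ℝ} {K A m : ℝ} (hK : 0 ≤ K)
    (hL : ∀ c ∈ LM, ∀ c' ∈ LM, |lam c - lam c'| ≤ K * ‖c - c'‖)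
    (hA : ∀ M : ℝ, 0 ≤ M → lam (natB M 0 M) = M * A)
    (hln : ∀ ε : ℝ, 0 < ε → ε ≤ 1 / 4 → ∃ κ α β : ℝ, α < β ∧ ∀ᵐ y : ℝ × ℝ, 0 < y.1 →
      y.2 ∈ Ioo α β → ∀ D : ℝ × ℝ →L[ℝ] ℝ,
      HasFDerivAt (fun y => lam (Dg262.X (natB 0 0 0) (natB 1 ε (1 + 2 * ε)) (natB κ 0 (10 * κ)) y))
        D y → D (1, 0) ≤ -m) :
    A ≤ -m := by
  refine end_aux hK hL hA fun ε hε hε4 => ?_
  obtain ⟨κ, α, β, hαβ, h⟩ := hln ε hε hε4
  have hX : ∀ y : ℝ × ℝ, Dg262.X (natB 0 0 0) (natB 1 ε (1 + 2 * ε)) (natB κ 0 (10 * κ)) y =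
      natB (y.1 + κ * y.2) (ε * y.1) ((1 + 2 * ε) * y.1 + 10 * κ * y.2) := by
    rintro ⟨t, v⟩
    rw [X_nat]
    congr 1 <;> ring
  set Φ : ℝ × ℝ → ℝ :=
    fun y => lam (Dg262.X (natB 0 0 0) (natB 1 ε (1 + 2 * ε)) (natB κ 0 (10 * κ)) y) with hΦ
  have hΦe : ∀ y : ℝ × ℝ, Φ y =
      lam (natB (y.1 + κ * y.2) (ε * y.1) ((1 + 2 * ε) * y.1 + 10 * κ * y.2)) := fun y => by
    rw [hΦ]; simp only; rw [hX]
  have hΦL : LipschitzWith (K.toNNReal * (Real.toNNReal (4 + 11 * |κ|))) Φ := by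
    refine LipschitzWith.of_dist_le_mul fun y y' => ?_
    rw [Real.dist_eq, hΦe, hΦe]
    refine (hL _ (natB_mem _ _ _) _ (natB_mem _ _ _)).trans ?_
    have e1 : natB (y.1 + κ * y.2) (ε * y.1) ((1 + 2 * ε) * y.1 + 10 * κ * y.2) -
        natB (y'.1 + κ * y'.2) (ε * y'.1) ((1 + 2 * ε) * y'.1 + 10 * κ * y'.2) =
        natB ((y.1 - y'.1) + κ * (y.2 - y'.2)) (ε * (y.1 - y'.1))
          ((1 + 2 * ε) * (y.1 - y'.1) + 10 * κ * (y.2 - y'.2)) := by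
      funext k
      rw [Pi.sub_apply]
      fin_cases k <;> simp [natB, bx9] <;> ring
    rw [e1]
    have h1 := norm_natB ((y.1 - y'.1) + κ * (y.2 - y'.2)) (ε * (y.1 - y'.1))
          ((1 + 2 * ε) * (y.1 - y'.1) + 10 * κ * (y.2 - y'.2))
    have d1 : |y.1 - y'.1| ≤ dist y y' := by
      rw [Prod.dist_eq, ← Real.dist_eq]; exact le_max_left _ _
    have d2 : |y.2 - y'.2| ≤ dist y y' := by
      rw [Prod.dist_eq, ← Real.dist_eq]; exact le_max_right _ _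
    have a1 : |(y.1 - y'.1) + κ * (y.2 - y'.2)| ≤ dist y y' + |κ| * dist y y' := by
      refine (abs_add_le _ _).trans (add_le_add d1 ?_)
      rw [abs_mul]; exact mul_le_mul_of_nonneg_left d2 (abs_nonneg _)
    have a2 : |ε * (y.1 - y'.1)| ≤ 1 / 4 * dist y y' := by
      rw [abs_mul, abs_of_pos hε]
      exact mul_le_mul hε4 d1 (abs_nonneg _) (by norm_num)
    have a3 : |(1 + 2 * ε) * (y.1 - y'.1) + 10 * κ * (y.2 - y'.2)| ≤
        3 / 2 * dist y y' + 10 * |κ| * dist y y' := by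
      refine (abs_add_le _ _).trans (add_le_add ?_ ?_)
      · rw [abs_mul, abs_of_pos (by positivity : 0 < 1 + 2 * ε)]
        exact mul_le_mul (by linarith) d1 (abs_nonneg _) (by norm_num)
      · rw [abs_mul, abs_mul, abs_of_pos (by norm_num : (0:ℝ) < 10)]
        exact mul_le_mul_of_nonneg_left d2 (by positivity)
    have hd := dist_nonneg (x := y) (y := y')
    have hk := abs_nonneg κ
    have h2 : ‖natB ((y.1 - y'.1) + κ * (y.2 - y'.2)) (ε * (y.1 - y'.1))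
          ((1 + 2 * ε) * (y.1 - y'.1) + 10 * κ * (y.2 - y'.2))‖ ≤
        (4 + 11 * |κ|) * dist y y' := by nlinarith
    have h3 : ((K.toNNReal * (Real.toNNReal (4 + 11 * |κ|)) : ℝ≥0) : ℝ) = K * (4 + 11 * |κ|) := by
      push_cast
      rw [Real.coe_toNNReal K hK, Real.coe_toNNReal _ (by positivity)]
    refine (mul_le_mul_of_nonneg_left h2 hK).trans (le_of_eq ?_)
    rw [h3]; ring
  -- fibers
  have hall : ∀ᵐ y : ℝ × ℝ, (0 < y.1 → y.2 ∈ Ioo α β → ∀ D : ℝ × ℝ →L[ℝ] ℝ,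
      HasFDerivAt Φ D y → D (1, 0) ≤ -m) ∧ DifferentiableAt ℝ Φ y := by
    filter_upwards [h, hΦL.ae_differentiableAt (μ := (volume : Measure (ℝ × ℝ)))] with y h1 h2
      using ⟨h1, h2⟩
  have hsw : ∀ᵐ z : ℝ × ℝ, (0 < z.2 → z.1 ∈ Ioo α β → ∀ D : ℝ × ℝ →L[ℝ] ℝ,
      HasFDerivAt Φ D (z.2, z.1) → D (1, 0) ≤ -m) ∧ DifferentiableAt ℝ Φ (z.2, z.1) := by
    have hsw : Measure.QuasiMeasurePreserving (Prod.swap : ℝ × ℝ → ℝ × ℝ) volume volume := by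
      rw [Measure.volume_eq_prod]
      exact Measure.measurePreserving_swap.quasiMeasurePreserving
    exact hsw.ae hall
  have hfib : ∀ᵐ v : ℝ, ∀ᵐ t : ℝ, (0 < t → v ∈ Ioo α β → ∀ D : ℝ × ℝ →L[ℝ] ℝ,
      HasFDerivAt Φ D (t, v) → D (1, 0) ≤ -m) ∧ DifferentiableAt ℝ Φ (t, v) := by
    rw [Measure.volume_eq_prod] at hsw
    exact Measure.ae_ae_of_ae_prod hsw
  obtain ⟨v, hv, hv2⟩ : ∃ v ∈ Ioo α β, ∀ᵐ t : ℝ, (0 < t → v ∈ Ioo α β → ∀ D : ℝ × ℝ →L[ℝ] ℝ,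
      HasFDerivAt Φ D (t, v) → D (1, 0) ≤ -m) ∧ DifferentiableAt ℝ Φ (t, v) := by
    by_contra hcon
    have hsub : Ioo α β ⊆ {v | ¬ ∀ᵐ t : ℝ, (0 < t → v ∈ Ioo α β → ∀ D : ℝ × ℝ →L[ℝ] ℝ,
      HasFDerivAt Φ D (t, v) → D (1, 0) ≤ -m) ∧ DifferentiableAt ℝ Φ (t, v)} :=
      fun v hv hP => hcon ⟨v, hv, hP⟩
    have h0 : volume (Ioo α β) = 0 := measure_mono_null hsub (ae_iff.1 hfib)
    rw [Real.volume_Ioo] at h0
    have := ENNReal.ofReal_eq_zero.1 h0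
    linarith
  refine ⟨κ * v, 0, 10 * κ * v, fun M hM => ?_⟩
  have hg : LipschitzWith (K.toNNReal * (Real.toNNReal (4 + 11 * |κ|))) fun t : ℝ => Φ (t, v) := by
    refine LipschitzWith.of_dist_le_mul fun t t' => ?_
    have h1 := hΦL.dist_le_mul (t, v) (t', v)
    have h2 : dist ((t, v) : ℝ × ℝ) (t', v) = dist t t' := by
      rw [Prod.dist_eq]; simp
    rw [h2] at h1
    exact h1
  have h1 : Φ (M, v) ≤ Φ (0, v) - m * M :=
    le_of_ae (g := fun t => Φ (t, v)) (m := m) (hg.lipschitzOnWith (s := Icc 0 M)) hM (by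
    filter_upwards [hv2] with t ht ht2 d hd
    have h3 : HasFDerivAt Φ (fderiv ℝ Φ (t, v)) (t, v) := ht.2.hasFDerivAt
    have h4 : HasDerivAt (fun t : ℝ => ((t, v) : ℝ × ℝ)) (1, 0) t :=
      (hasDerivAt_id t).prodMk (hasDerivAt_const t v)
    have h5 := h3.comp_hasDerivAt t h4
    rw [hd.unique h5]
    exact ht.1 ht2.1 hv _ h3)
  rw [hΦe, hΦe] at h1
  simp only [mul_zero, zero_add] at h1
  have e1 : natB (κ * v + M) (0 + ε * M) (10 * κ * v + (1 + 2 * ε) * M) =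
      natB (M + κ * v) (ε * M) ((1 + 2 * ε) * M + 10 * κ * v) := by
    congr 1 <;> ring
  rw [e1]
  exact h1

/-- **end of the line, two variables**, `κ = 1`, `v ∈ (-1, 0)` (helper219's literal) -/
theorem line_end2 {lam : (Fin 12 → ℝ) → ℝ} {K A m : ℝ} (hK : 0 ≤ K)
    (hL : ∀ c ∈ LM, ∀ c' ∈ LM, |lam c - lam c'| ≤ K * ‖c - c'‖)
    (hA : ∀ M : ℝ, 0 ≤ M → lam (natB M 0 M) = M * A)
    (h : ∀ ε : ℝ, 0 < ε → ε ≤ 1 / 4 → ∀ᵐ y : ℝ × ℝ, 0 < y.1 → y.2 ∈ Ioo (-1 : ℝ) 0 →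
      ∀ D : ℝ × ℝ →L[ℝ] ℝ,
      HasFDerivAt (fun y => lam (Dg262.X (natB 0 0 0) (natB 1 ε (1 + 2 * ε)) (natB 1 0 10) y)) D y →
        D (1, 0) ≤ -m) :
    A ≤ -m := by
  refine line_endG hK hL hA fun ε hε hε4 => ⟨1, -1, 0, by norm_num, ?_⟩
  have := h ε hε hε4
  rw [mul_one]
  exact this

/-- **end of the line, one variable** -/
theorem line_end {lam : (Fin 12 → ℝ) → ℝ} {K A m : ℝ} (hK : 0 ≤ K)
    (hL : ∀ c ∈ LM, ∀ c' ∈ LM, |lam c - lam c'| ≤ K * ‖c - c'‖)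
    (hA : ∀ M : ℝ, 0 ≤ M → lam (natB M 0 M) = M * A)
    (hln : ∀ ε : ℝ, 0 < ε → ε ≤ 1 / 4 → ∃ z0 c0 p0 : ℝ, ∀ᵐ t : ℝ, 0 < t → ∀ d,
      HasDerivAt (fun t => lam (natB (z0 + t) (c0 + ε * t) (p0 + (1 + 2 * ε) * t))) d t → d ≤ -m) :
    A ≤ -m := by
  refine end_aux hK hL hA fun ε hε hε4 => ?_
  obtain ⟨z0, c0, p0, h⟩ := hln ε hε hε4
  refine ⟨z0, c0, p0, fun M hM => ?_⟩
  have hg : LipschitzWith (K.toNNReal * 4) fun t : ℝ =>
      lam (natB (z0 + t) (c0 + ε * t) (p0 + (1 + 2 * ε) * t)) := by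
    refine LipschitzWith.of_dist_le_mul fun t t' => ?_
    rw [Real.dist_eq, Real.dist_eq]
    refine (hL _ (natB_mem _ _ _) _ (natB_mem _ _ _)).trans ?_
    have e1 : natB (z0 + t) (c0 + ε * t) (p0 + (1 + 2 * ε) * t) -
        natB (z0 + t') (c0 + ε * t') (p0 + (1 + 2 * ε) * t') =
        natB (t - t') (ε * (t - t')) ((1 + 2 * ε) * (t - t')) := by
      funext k
      rw [Pi.sub_apply]
      fin_cases k <;> simp [natB, bx9] <;> ring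
    rw [e1]
    have h1 := norm_natB (t - t') (ε * (t - t')) ((1 + 2 * ε) * (t - t'))
    rw [abs_mul, abs_mul, abs_of_pos hε, abs_of_pos (by positivity : 0 < 1 + 2 * ε)] at h1
    have hd := abs_nonneg (t - t')
    have h2 : ‖natB (t - t') (ε * (t - t')) ((1 + 2 * ε) * (t - t'))‖ ≤ 4 * |t - t'| := by
      nlinarith
    have h3 : ((K.toNNReal * 4 : ℝ≥0) : ℝ) = K * 4 := by
      push_cast
      rw [Real.coe_toNNReal K hK]
    refine (mul_le_mul_of_nonneg_left h2 hK).trans (le_of_eq ?_)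
    rw [h3]; ring
  have h1 := le_of_ae (m := m) (hg.lipschitzOnWith (s := Icc 0 M)) hM (by
    filter_upwards [h] with t ht ht2 d hd using ht ht2.1 d hd)
  simpa using h1

end Crest.Agent.R116.D0ln665
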