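import Crest.Agent.R116.D0y1_219
import Crest.Agent.R116.D0ln_665

/-!
# R116 (K side), LEMMA D0 for `β_D < 0`, part 2 (helper219): the first level

The plane `Y` : `pY (t, v) = R(v) + t (1; 0, 1)`, `t < 0`.  `C_a` and `D` are constant along
`(1; 0, 1)`; `C_b` is alone for `β_D < 0`.

* `FactsY`  : the facts consumed at natural base sequences converging to the point
* `outY_P`, `outY_line`, `outY_dec` : what `OutS` says on `Y`
* **`loc_pt`** : the derivative of `ν` along `(1; 0, 1)` is `≤ -(6 - 4 s)`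
-/

set_option autoImplicit false
set_option linter.unusedVariables false

open Set Filter Topology MeasureTheory
open scoped NNReal

namespace Crest.Agent.R116.D0y219

open Crest.Agent.R138
open Crest.Agent.R136
open Crest.Agent.R136.Net191
open Crest.Agent.R136.Dg219 (mw gC dhC nC gset mem_gset lf gC_eq gC_zero nC_zero nC_of Walls OutS
  dirC leg_outC leg_legal mw_full)
open Crest.Agent.R116.ChL222
open Crest.Agent.R116.Sg337 (bx9 natB uC)
open Crest.Agent.R116.SgF665 (wl)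
open Crest.Agent.R116.D0F878
open Crest.Agent.R116.D0n878
open Crest.Agent.R116.SgO219
open Dg262 (SupOn)

/-- the point of the plane `Y` -/
def pY (θa θb w0 sa sb t v : ℝ) : Fin 12 → ℝ :=
  natB (w0 + v + t) (sa + θa * (1 - v)) (sb + θb * (1 - v) + t)

theorem X_pY (θa θb w0 sa sb t v : ℝ) :
    Dg262.X (natB w0 (sa + θa) (sb + θb)) (natB 1 0 1) (natB 1 (-θa) (-θb)) (t, v) =
      pY θa θb w0 sa sb t v := by
  rw [X_nat]; unfold pY; congr 1 <;> ring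

/-- natural sequences converging to `x0` -/
def BsY (x0 : Fin 12 → ℝ) (X : ℕ → Fin 12 → ℝ) (h : ℕ → ℝ) : Prop :=
  (∀ n, ∃ z c p, X n = natB z c p) ∧ Tendsto X atTop (𝓝 x0) ∧ (∀ l, 0 < h l) ∧
    Tendsto h atTop (𝓝 0)

/-- **the facts which are consumed on `Y`** -/
structure FactsY {J : Type*} (P : Set (Fin 12 → ℝ)) (f : J → (Fin 12 → ℝ) → ℝ) (j0 : J)
    (x0 : Fin 12 → ℝ) (s : ℝ) : Prop where
  own : ∀ X h, BsY x0 X h → ∀ (D : Set (Fin 12 → ℝ)) (lam : (Fin 12 → ℝ) → ℝ), LM ⊆ D →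
    Ex926.IsTan P D (f j0) X h lam → ∀ y : ℝ, 0 < y → (1 - s) * y ≤ -lam (bx9 y 0 0 0 0 0 0 0 0)
  K1 : ∀ X h rz rX rH rF gC gP gE gB gD, BsY x0 X h →
    LinTanD P f j0 X h rz rX rH rF gC gP gE gB gD → 0 < gC → 1 - s ≤ rX
  H1 : ∀ X h rz rX rH rF gC gP gE gB gD, BsY x0 X h →
    LinTanD P f j0 X h rz rX rH rF gC gP gE gB gD → 0 < gC → rX ≤ rH
  K2 : ∀ X h rz rX rH rF gC gP gE gB gD, BsY x0 X h →
    LinTanD P f j0 X h rz rX rH rF gC gP gE gB gD → s < gP → 1 ≤ rF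
  CD : ∀ (h : ℕ → ℝ) (lam φ ρ : (Fin 12 → ℝ) → ℝ) (rz gP : ℝ), BsY x0 (fun _ => x0) h →
    Ex926.IsTan P LM (f j0) (fun _ => x0) h lam → (∀ c ∈ LM, lam c = φ c + ρ c) →
    (∀ c c' : Fin 12 → ℝ, c 1 = c' 1 → c 3 = c' 3 → c 4 = c' 4 → φ c = φ c') →
    (∀ c c' : Fin 12 → ℝ, (∀ i, i ≠ 1 → i ≠ 3 → i ≠ 4 → c i = c' i) → ρ c = ρ c') →
    1 - s ≤ rz →
    (∀ c ∈ LM, ∀ c' ∈ LM, (∀ i : Fin 12, i ≠ 0 → c i = c' i) →
      lam c - lam c' = rz * (c' 0 - c 0)) →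
    (∀ c ∈ LM, ∀ c' ∈ LM, (∀ i : Fin 12, i ≠ 10 → c i = c' i) →
      lam c - lam c' = gP * (c' 10 - c 10)) →
    (∀ y : ℝ, 0 < y → lam (bx9 0 0 0 y 0 0 0 0 0) < lam 0) →
    (∀ y : ℝ, 0 < y → lam (bx9 0 y 0 0 0 0 0 0 0) < lam 0) →
    1 - s ≤ gP

/-! ### the cone -/

theorem add_LM {c c' : Fin 12 → ℝ} (hc : c ∈ LM) (hc' : c' ∈ LM) : c + c' ∈ LM := by
  intro k e he
  have h1 := hc k e he
  have h2 := hc' k e he
  unfold wl at h1 h2 ⊢
  rw [Pi.add_apply]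
  refine (add_le_add h1 h2).trans (le_of_eq ?_)
  rw [← Finset.sum_add_distrib]
  exact Finset.sum_congr rfl fun s _ => by rw [Pi.add_apply]; ring

theorem smul_LM {t : ℝ} (ht : 0 ≤ t) {c : Fin 12 → ℝ} (hc : c ∈ LM) : t • c ∈ LM := by
  intro k e he
  have h1 := hc k e he
  unfold wl at h1 ⊢
  rw [Pi.smul_apply, smul_eq_mul]
  refine (mul_le_mul_of_nonneg_left h1 ht).trans (le_of_eq ?_)
  rw [Finset.mul_sum]
  exact Finset.sum_congr rfl fun s _ => by rw [Pi.smul_apply, smul_eq_mul]; ring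

theorem natB_zero : natB 0 0 0 = 0 := by
  funext k; fin_cases k <;> simp [natB, bx9]

theorem smul_uC (y : ℝ) : y • uC = bx9 0 0 0 y 0 0 0 0 0 := by
  funext k; fin_cases k <;> simp [uC, bx9]

theorem smul_uD (y : ℝ) : y • uD = bx9 0 y 0 0 0 0 0 0 0 := by
  funext k; fin_cases k <;> simp [uD, bx9]

theorem bx9_zero : bx9 0 0 0 0 0 0 0 0 0 = 0 := by
  funext k; fin_cases k <;> rfl

/-- `C` and `D` by one -/
def u1 : Fin 12 → ℝ := bx9 0 1 0 1 0 0 0 0 0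

/-- `C`, `D`, `P` by one -/
def u2 : Fin 12 → ℝ := bx9 0 1 0 1 0 0 0 1 0

theorem u1_mem : u1 ∈ LM := by
  refine lm_raise (fun k => ?_) fun k h1 h3 h4 => ?_
  · fin_cases k <;> simp [u1, bx9]
  · fin_cases k <;> simp [u1, bx9] at h1 h3 h4 ⊢

theorem u2_mem : u2 ∈ LM := by
  intro k e he
  have hs : ∀ e : Fin 12 → ℕ, wl e u2 = e 1 * 1 + e 3 * 1 + e 4 * 1 + e 10 * 1 := by
    intro e
    simp [wl, Fin.sum_univ_succ, u2, bx9]
    ring
  rw [hs]
  change e ∈ mfL k at he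
  fin_cases k <;> simp [mfL] at he
  · subst he; simp [u2, bx9]
  · subst he; simp [u2, bx9]
  · subst he; simp [u2, bx9]
  · rcases he with rfl | rfl <;> simp [u2, bx9]
  · rcases he with rfl | rfl <;> simp [u2, bx9]
  · rcases he with rfl | rfl | rfl | rfl <;> simp [u2, bx9]
  · rcases he with rfl | rfl | rfl | rfl | rfl | rfl | rfl <;> simp [u2, bx9]
  · rcases he with rfl | rfl | rfl | rfl | rfl | rfl | rfl | rfl | rfl | rfl | rfl | rfl | rfl <;>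
      simp [u2, bx9]

/-! ### the groups of `Y` -/

section grp

variable {θa θb : ℝ}

theorem aY_nonneg : ∀ i, 0 ≤ natB 1 0 1 i := by
  intro i; fin_cases i <;> simp [natB, bx9]

theorem grp0 {i : Fin 12} : gC (natB 1 0 1) (natB 1 (-θa) (-θb)) i = 0 ↔ i = 1 ∨ i = 3 ∨ i = 4 := by
  rw [gC_zero]
  fin_cases i <;> simp [natB, bx9]

theorem grp10 (hθ : 0 < θa) (hβ : 2 * θa - θb - 1 < 0) {i : Fin 12}
    (h : gC (natB 1 0 1) (natB 1 (-θa) (-θb)) i = gC (natB 1 0 1) (natB 1 (-θa) (-θb)) 10) :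
    i = 10 := by
  have h10 : natB 1 0 1 10 ≠ 0 := by simp [natB, bx9]
  have hi : natB 1 0 1 i ≠ 0 := by
    intro h0
    rw [gC_zero.2 h0] at h
    exact h10 (gC_zero.1 h.symm)
  rw [gC_eq hi h10] at h
  fin_cases i <;> simp [natB, bx9] at h hi ⊢ <;> linarith

theorem grp00 (hθ : 0 < θa) (hβ : 2 * θa - θb - 1 < 0) {i : Fin 12}
    (h : gC (natB 1 0 1) (natB 1 (-θa) (-θb)) i = gC (natB 1 0 1) (natB 1 (-θa) (-θb)) 0) :
    i = 0 := by
  have h10 : natB 1 0 1 0 ≠ 0 := by simp [natB, bx9]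
  have hi : natB 1 0 1 i ≠ 0 := by
    intro h0
    rw [gC_zero.2 h0] at h
    exact h10 (gC_zero.1 h.symm)
  rw [gC_eq hi h10] at h
  fin_cases i <;> simp [natB, bx9] at h hi ⊢ <;> linarith

variable {lam : (Fin 12 → ℝ) → ℝ} {A : ℝ × ℝ} {φ : ℕ → (Fin 12 → ℝ) → ℝ} {r : ℕ → ℝ}

/-- a slot which is alone -/
theorem outY_i {i0 : Fin 12} (hal : ∀ i, gC (natB 1 0 1) (natB 1 (-θa) (-θb)) i =
      gC (natB 1 0 1) (natB 1 (-θa) (-θb)) i0 → i = i0)
    (hdh : dhC (natB 1 0 1) (natB 1 (-θa) (-θb)) i0 = 1)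
    (H : OutS (gC (natB 1 0 1) (natB 1 (-θa) (-θb))) LM (dhC (natB 1 0 1) (natB 1 (-θa) (-θb)))
      (nC (natB 1 0 1) (natB 1 (-θa) (-θb))) lam A φ r) {c c' : Fin 12 → ℝ} (hc : c ∈ LM)
    (hc' : c' ∈ LM) (he : ∀ i, i ≠ i0 → c i = c' i) :
    lam c - lam c' = r (gC (natB 1 0 1) (natB 1 (-θa) (-θb)) i0) * (c' i0 - c i0) := by
  set G := gC (natB 1 0 1) (natB 1 (-θa) (-θb)) with hG
  have hr : ∀ c ∈ LM, φ (G i0) c = -(r (G i0) * c i0) := by
    intro c hc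
    refine H.rate (G i0) c hc (c i0) fun i hi => ?_
    have := hal i hi
    subst this
    rw [hdh, mul_one]
  rw [H.sum c hc, H.sum c' hc', ← Finset.add_sum_erase _ _ (mem_gset (grp := G) i0),
    ← Finset.add_sum_erase _ (fun k => φ k c') (mem_gset (grp := G) i0)]
  have h1 : ∑ k ∈ (gset G).erase (G i0), φ k c = ∑ k ∈ (gset G).erase (G i0), φ k c' := by
    refine Finset.sum_congr rfl fun k hk => H.loc k c c' fun i hi => he i ?_
    rintro rfl
    exact (Finset.ne_of_mem_erase hk) hi.symm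
  rw [h1, hr c hc, hr c' hc']
  ring

/-- `C_b` is alone -/
theorem outY_P (hθ : 0 < θa) (hβ : 2 * θa - θb - 1 < 0)
    (H : OutS (gC (natB 1 0 1) (natB 1 (-θa) (-θb))) LM (dhC (natB 1 0 1) (natB 1 (-θa) (-θb)))
      (nC (natB 1 0 1) (natB 1 (-θa) (-θb))) lam A φ r) {c c' : Fin 12 → ℝ} (hc : c ∈ LM)
    (hc' : c' ∈ LM) (he : ∀ i, i ≠ 10 → c i = c' i) :
    lam c - lam c' = r (gC (natB 1 0 1) (natB 1 (-θa) (-θb)) 10) * (c' 10 - c 10) :=
  outY_i (fun i hi => grp10 hθ hβ hi) (by unfold dhC; simp [natB, bx9]) H hc hc' he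

/-- `z` is alone -/
theorem outY_z (hθ : 0 < θa) (hβ : 2 * θa - θb - 1 < 0)
    (H : OutS (gC (natB 1 0 1) (natB 1 (-θa) (-θb))) LM (dhC (natB 1 0 1) (natB 1 (-θa) (-θb)))
      (nC (natB 1 0 1) (natB 1 (-θa) (-θb))) lam A φ r) {c c' : Fin 12 → ℝ} (hc : c ∈ LM)
    (hc' : c' ∈ LM) (he : ∀ i, i ≠ 0 → c i = c' i) :
    lam c - lam c' = r (gC (natB 1 0 1) (natB 1 (-θa) (-θb)) 0) * (c' 0 - c 0) :=
  outY_i (fun i hi => grp00 hθ hβ hi) (by unfold dhC; simp [natB, bx9]) H hc hc' he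

/-- the derivative along `(1; 0, 1)` -/
theorem outY_line
    (H : OutS (gC (natB 1 0 1) (natB 1 (-θa) (-θb))) LM (dhC (natB 1 0 1) (natB 1 (-θa) (-θb)))
      (nC (natB 1 0 1) (natB 1 (-θa) (-θb))) lam A φ r) (M : ℝ) :
    lam (natB M 0 M) = M * A.1 := by
  set G := gC (natB 1 0 1) (natB 1 (-θa) (-θb)) with hG
  have e0 : natB M 0 M = M • natB 1 0 1 := by rw [natB_smul]; simp
  have h1 : ∀ k ∈ gset G, φ k (natB M 0 M) =
      -(r k * (M * (nC (natB 1 0 1) (natB 1 (-θa) (-θb)) k).1)) := by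
    intro k hk
    obtain ⟨j, -, hj⟩ := Finset.mem_image.1 hk
    by_cases hk0 : k = 0
    · subst hk0
      rw [nC_zero]
      simp only [mul_zero, neg_zero]
      refine H.zero 0 _ fun i hi => ?_
      rw [e0, Pi.smul_apply, gC_zero.1 hi, smul_zero]
    · refine H.rate k _ (natB_mem _ _ _) _ fun i hi => ?_
      have hi0 : natB 1 0 1 i ≠ 0 := fun h => hk0 (hi.symm.trans (gC_zero.2 h))
      have h2 := (dirC (a := natB 1 0 1) (b := natB 1 (-θa) (-θb))).fst i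
      rw [← hG, hi] at h2
      rw [e0, Pi.smul_apply, smul_eq_mul, h2]
      ring
  have h3 := H.total (1, 0)
  have e1 : lf A (1, 0) = A.1 := by unfold lf; ring
  have e2 : ∀ k, lf (nC (natB 1 0 1) (natB 1 (-θa) (-θb)) k) (1, 0) =
      (nC (natB 1 0 1) (natB 1 (-θa) (-θb)) k).1 := fun k => by unfold lf; ring
  rw [H.sum _ (natB_mem _ _ _), Finset.sum_congr rfl h1, ← e1, h3, mul_neg, Finset.mul_sum,
    ← Finset.sum_neg_distrib]
  refine Finset.sum_congr rfl fun k _ => ?_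
  rw [e2]; ring

end grp

/-- limit of difference quotients of the second tangent, from below -/
theorem tan2_ge {L : Set (Fin 12 → ℝ)} {g lam : (Fin 12 → ℝ) → ℝ} {c : Fin 12 → ℝ} {k : ℕ → ℝ}
    (hk : ∀ l, 0 < k l) (ht : Ex926.IsTan L LM g (fun _ => c) k lam) {u u' : Fin 12 → ℝ}
    (hu : u ∈ LM) (hu' : u' ∈ LM) {q : ℝ}
    (h : ∀ l, q * k l ≤ g (c + k l • u) - g (c + k l • u')) : q ≤ lam u - lam u' := by
  refine ge_of_tendsto (tan_lim hk ht hu hu') (Eventually.of_forall fun l => ?_)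
  rw [le_div_iff₀ (hk l)]
  exact h l

/-- **the derivative along `(1; 0, 1)`** at a good point of `Y` -/
theorem loc_pt {J : Type*} [Finite J] {f : J → (Fin 12 → ℝ) → ℝ} {j0 : J}
    {R K s q0 ρd θa θb w0 sa sb t v : ℝ} (hK : 0 ≤ K)
    (hν : ∀ j, ∀ p ∈ Leg monL R, ∀ q ∈ Leg monL R, |f j p - f j q| ≤ K * ‖p - q‖)
    (hm : ∀ p ∈ Leg monL R, ∀ q ∈ Leg monL R, p ≤ q →
      f j0 q ≤ f j0 p ∧ f j0 p - f j0 q ≤ ∑ i, (q i - p i))
    (hs : ∀ p ∈ Leg monL R, ∀ q ∈ Leg monL R, p ⊓ q ∈ Leg monL R →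
      f j0 p + f j0 q ≤ f j0 (p ⊔ q) + f j0 (p ⊓ q))
    (hθ : 0 < θa) (hβ : 2 * θa - θb - 1 < 0) (s2 : 2 * s < 1) (hq0 : 0 < q0) (hρ : 0 < ρd)
    {D : ℝ × ℝ →L[ℝ] ℝ}
    (hbox : ∀ k, 0 < pY θa θb w0 sa sb t v k ∧ pY θa θb w0 sa sb t v k < R)
    (H : ∀ h : ℕ → ℝ, (∀ l, 0 < h l) → Tendsto h atTop (𝓝 0) → ∀ lam : (Fin 12 → ℝ) → ℝ,
      Ex926.IsTan (Leg monL R) LM (f j0) (fun _ => pY θa θb w0 sa sb t v) h lam →
        ∃ (φ : ℕ → (Fin 12 → ℝ) → ℝ) (r : ℕ → ℝ),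
          OutS (gC (natB 1 0 1) (natB 1 (-θa) (-θb))) LM (dhC (natB 1 0 1) (natB 1 (-θa) (-θb)))
            (nC (natB 1 0 1) (natB 1 (-θa) (-θb))) lam (D (1, 0), D (0, 1)) φ r)
    (hreg : ∀ (h : ℕ → ℝ) (lam : (Fin 12 → ℝ) → ℝ), (∀ l, 0 < h l) → Tendsto h atTop (𝓝 0) →
      Ex926.IsTan (Leg monL R) LM (f j0) (fun _ => pY θa θb w0 sa sb t v) h lam →
      ∀ z c p : ℝ, (2 * θa - θb - 1) * c + θa * (p - 2 * c - z) ≤ 0 → ∀ y : ℝ, 0 ≤ y →
        q0 * y ≤ lam (natB z c p) - lam (natB z c p + y • uC))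
    (hgrow : ∀ᶠ y in 𝓝[>] (0:ℝ), ρd * y ≤
      f j0 (pY θa θb w0 sa sb t v) - f j0 (pY θa θb w0 sa sb t v + y • uD))
    (F : FactsY (Leg monL R) f j0 (pY θa θb w0 sa sb t v) s) : D (1, 0) ≤ -(6 - 4 * s) := by
  set x0 : Fin 12 → ℝ := pY θa θb w0 sa sb t v with hx0
  -- the first tangent
  have kpos : ∀ l : ℕ, (0 : ℝ) < 1 / ((l : ℝ) + 1) := fun l => by positivity
  have k0 : Tendsto (fun l : ℕ => 1 / ((l : ℝ) + 1)) atTop (𝓝 0) :=
    tendsto_one_div_add_atTop_nhds_zero_nat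
  have hO : ((t, v) : ℝ × ℝ) ∈ (mw monL).O (fun _ => 0) (fun _ => R) (natB w0 (sa + θa) (sb + θb))
      (natB 1 0 1) (natB 1 (-θa) (-θb)) := O_nat (by rw [X_pY]; exact hbox)
  obtain ⟨ψ, hψ, lam, hlam⟩ := Rc683.exists_tan (J := J) (P := fun _ => Leg monL R)
    (D := fun _ => LM) (fun _ => by
      rw [← L_nat w0 (sa + θa) (sb + θb) 1 0 1 1 (-θa) (-θb)]; exact Walls.isClosed_L) hK hν
    (x := fun _ => x0) kpos (fun _ C => by
      obtain ⟨h1, hh1, hl⟩ := leg_legal monL hO C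
      rw [L_nat, X_pY] at hl
      filter_upwards [k0.eventually_lt_const hh1] with l hl1 c' hc' hC
      exact hl _ (kpos l) hl1 c' hc' hC) (fun _ => zero_mem)
  have hpos : ∀ l, 0 < (fun l => 1 / ((ψ l : ℝ) + 1)) l := fun l => kpos _
  have h0 : Tendsto (fun l => 1 / ((ψ l : ℝ) + 1)) atTop (𝓝 0) := k0.comp hψ.tendsto_atTop
  obtain ⟨φ, r, HO⟩ := H _ hpos h0 (lam j0) (hlam j0)
  set G := gC (natB 1 0 1) (natB 1 (-θa) (-θb)) with hG
  have hl0 : lam j0 0 = 0 := by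
    have h1 := outY_line HO 0
    rw [natB_zero, zero_mul] at h1
    exact h1
  have hBs : BsY x0 (fun _ => x0) (fun l => 1 / ((ψ l : ℝ) + 1)) :=
    ⟨fun _ => ⟨_, _, _, rfl⟩, tendsto_const_nhds, hpos, h0⟩
  -- [CD]
  have hown : 1 - s ≤ r (G 0) := by
    have h1 := F.own _ _ hBs LM _ le_rfl (hlam j0) 1 one_pos
    have h2 := outY_z hθ hβ HO zero_mem (c' := bx9 1 0 0 0 0 0 0 0 0) uZ_mem (fun i hi => by
      fin_cases i <;> simp [bx9] at hi ⊢)
    have e1 : (bx9 1 0 0 0 0 0 0 0 0 : Fin 12 → ℝ) 0 - (0 : Fin 12 → ℝ) 0 = 1 := by simp [bx9]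
    rw [e1, hl0] at h2
    linarith
  have hCi : ∀ y : ℝ, 0 < y → lam j0 (bx9 0 0 0 y 0 0 0 0 0) < lam j0 0 := by
    intro y hy
    have h1 := hreg _ _ hpos h0 (hlam j0) 0 0 0 (by simp) y hy.le
    rw [natB_zero, zero_add, smul_uC] at h1
    have := mul_pos hq0 hy
    linarith
  have hDi : ∀ y : ℝ, 0 < y → lam j0 (bx9 0 y 0 0 0 0 0 0 0) < lam j0 0 := by
    intro y hy
    have huD : y • uD ∈ LM := smul_LM hy.le (lm_raise uD_nonneg uD_z)
    have h1 := tan_lim hpos (hlam j0) zero_mem huD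
    have h2 : ρd * y ≤ lam j0 0 - lam j0 (y • uD) := by
      refine ge_of_tendsto h1 ?_
      have h3 : Tendsto (fun l => 1 / ((ψ l : ℝ) + 1) * y) atTop (𝓝[>] 0) := by
        refine tendsto_nhdsWithin_iff.2 ⟨?_, Eventually.of_forall fun l => mul_pos (hpos l) hy⟩
        simpa using h0.mul_const y
      filter_upwards [h3.eventually hgrow] with l hl
      rw [le_div_iff₀ (hpos l), smul_zero, add_zero, smul_smul]
      refine le_trans (le_of_eq ?_) hl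
      ring
    rw [smul_uD] at h2
    have := mul_pos hρ hy
    linarith
  have hzero : (0 : ℕ) ∈ gset G := by
    have h1 : G 1 = 0 := grp0.2 (Or.inl rfl)
    rw [← h1]; exact mem_gset 1
  have hr10 := F.CD _ (lam j0) (φ 0) (fun c => ∑ k ∈ (gset G).erase 0, φ k c) (r (G 0))
    (r (G 10)) hBs (hlam j0)
    (fun c hc => by rw [HO.sum c hc, ← Finset.add_sum_erase _ _ hzero])
    (fun c c' h1 h3 h4 => HO.loc 0 c c' fun i hi => by
      rcases grp0.1 hi with rfl | rfl | rfl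
      · exact h1
      · exact h3
      · exact h4)
    (fun c c' hcc => Finset.sum_congr rfl fun k hk => HO.loc k c c' fun i hi => by
      have hk0 := Finset.ne_of_mem_erase hk
      refine hcc i ?_ ?_ ?_
      · rintro rfl; exact hk0 (hi.symm.trans (grp0.2 (Or.inl rfl)))
      · rintro rfl; exact hk0 (hi.symm.trans (grp0.2 (Or.inr (Or.inl rfl))))
      · rintro rfl; exact hk0 (hi.symm.trans (grp0.2 (Or.inr (Or.inr rfl)))))
    hown (fun c hc c' hc' he => outY_z hθ hβ HO hc hc' he)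
    (fun c hc c' hc' he => outY_P hθ hβ HO hc hc' he) hCi hDi
  have h12 : ∀ i, i ≠ 10 → u1 i = u2 i := by
    intro i hi; fin_cases i <;> simp [u1, u2, bx9] at hi ⊢
  -- the second level
  have hLip : ∀ j, ∀ p ∈ LM, ∀ q ∈ LM, |lam j p - lam j q| ≤ K * ‖p - q‖ := by
    intro j p hp q hq
    have := tan_lip hpos (hlam j) (K := K) (fun p hp q hq => by
      rw [dist_eq_norm]; exact hν j p hp q hq) p hp q hq
    rwa [dist_eq_norm] at this
  have hMo := tan_mono hpos (hlam j0) (fun p hp q hq hpq =>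
    ⟨by linarith [(hm p hp q hq hpq).1], (hm p hp q hq hpq).2⟩)
  have hSu : SupOn (lam j0) LM := tan_smod hpos (hlam j0) (fun p hp q hq h1 h2 => hs p hp q hq h1)
  refine D0ln665.line_end2 hK (hLip j0) (fun M _ => outY_line HO M) fun ε hε hε4 => ?_
  have key := engine2 (P := Leg monL R) (f := f) (g := lam) (j0 := j0) hpos h0 hlam hK hLip hMo hSu
    (z := 0) (c := 0) (p := 0) (z1 := 1) (c1 := ε) (p1 := 1 + 2 * ε) (z2 := 1) (c2 := 0)
    (p2 := 10) (aN_nonneg hε) (by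
      have := alone hε hε4 (one_ne_zero (α := ℝ))
      unfold bN at this
      rw [mul_one] at this
      exact this) (by
      have := dh_ne hε (one_ne_zero (α := ℝ))
      unfold bN at this
      rw [mul_one] at this
      exact this)
  filter_upwards [key] with y hy ht0 hv0 D2 hD2
  obtain ⟨D', hD', k, χ, lam2, ρ, hk, hk0, hχ, hρn, htan, hlin, T, hsum, -⟩ := hy
  rw [hD2.unique hD', hsum]
  obtain ⟨t2, v2⟩ := y
  simp only at ht0 hv0
  have hXe : Dg262.X (natB 0 0 0) (natB 1 ε (1 + 2 * ε)) (natB 1 0 10) (t2, v2) =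
      natB (t2 + v2) (ε * t2) ((1 + 2 * ε) * t2 + 10 * v2) := by
    rw [X_nat]; congr 1 <;> ring
  rw [hXe] at htan T
  set c : Fin 12 → ℝ := natB (t2 + v2) (ε * t2) ((1 + 2 * ε) * t2 + 10 * v2) with hc
  have hcM : c ∈ LM := natB_mem _ _ _
  -- the region
  have hregion : (2 * θa - θb - 1) * (ε * t2) +
      θa * ((1 + 2 * ε) * t2 + 10 * v2 - 2 * (ε * t2) - (t2 + v2)) ≤ 0 := by
    have e1 : (1 + 2 * ε) * t2 + 10 * v2 - 2 * (ε * t2) - (t2 + v2) = 9 * v2 := by ring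
    rw [e1]
    have h1 : (2 * θa - θb - 1) * (ε * t2) ≤ 0 :=
      mul_nonpos_of_nonpos_of_nonneg hβ.le (by positivity)
    have h2 : θa * (9 * v2) ≤ 0 := mul_nonpos_of_nonneg_of_nonpos hθ.le (by linarith [hv0.2])
    linarith
  have huC : uC ∈ LM := lm_raise uC_nonneg uC_z
  have hr3 : q0 ≤ ρ 3 := by
    have h1 := tan2_ge hk (htan j0) zero_mem huC (q := q0) (fun l => by
      have := hreg _ _ hpos h0 (hlam j0) _ _ _ hregion (k l) (hk l).le
      rw [smul_zero, add_zero]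
      exact this)
    have e1 : lam2 j0 0 = 0 := by
      rw [hlin 0 zero_mem (fun i => rfl)]; simp
    have e2 : lam2 j0 uC = -ρ 3 := by
      rw [hlin uC huC (eqp_bx9 _ _ _ _ _ _ _ _ _)]
      congr 1
      simp only [S9]
      rw [Finset.sum_insert (by decide), Finset.sum_insert (by decide),
        Finset.sum_insert (by decide), Finset.sum_insert (by decide),
        Finset.sum_insert (by decide), Finset.sum_insert (by decide),
        Finset.sum_insert (by decide), Finset.sum_insert (by decide), Finset.sum_singleton]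
      simp [uC, bx9]
    rw [e1, e2] at h1
    linarith
  have hr10' : 1 - s ≤ ρ 10 := by
    have h1 := tan2_ge hk (htan j0) u1_mem u2_mem (q := 1 - s) (fun l => by
      have h2 := outY_P hθ hβ HO (add_LM hcM (smul_LM (hk l).le u1_mem))
        (add_LM hcM (smul_LM (hk l).le u2_mem)) (fun i hi => by
          rw [Pi.add_apply, Pi.add_apply, Pi.smul_apply, Pi.smul_apply, h12 i hi])
      have e1 : (c + k l • u2) 10 - (c + k l • u1) 10 = k l := by
        simp [u1, u2, bx9]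
      rw [e1] at h2
      rw [h2]
      exact mul_le_mul_of_nonneg_right hr10 (hk l).le)
    have e1 : lam2 j0 u1 - lam2 j0 u2 = ρ 10 := by
      rw [hlin u1 u1_mem (eqp_bx9 _ _ _ _ _ _ _ _ _), hlin u2 u2_mem (eqp_bx9 _ _ _ _ _ _ _ _ _)]
      simp only [S9]
      rw [Finset.sum_insert (by decide), Finset.sum_insert (by decide),
        Finset.sum_insert (by decide), Finset.sum_insert (by decide),
        Finset.sum_insert (by decide), Finset.sum_insert (by decide),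
        Finset.sum_insert (by decide), Finset.sum_insert (by decide), Finset.sum_singleton,
        Finset.sum_insert (by decide), Finset.sum_insert (by decide),
        Finset.sum_insert (by decide), Finset.sum_insert (by decide),
        Finset.sum_insert (by decide), Finset.sum_insert (by decide),
        Finset.sum_insert (by decide), Finset.sum_insert (by decide), Finset.sum_singleton]
      simp [u1, u2, bx9]
    rw [e1] at h1
    exact h1
  -- the facts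
  have hBs2 : BsY x0 (fun m => x0 + (1 / ((ψ (χ m) : ℝ) + 1)) • c)
      (fun m => 1 / ((ψ (χ m) : ℝ) + 1) * k m) := by
    have h1 : Tendsto (fun m => 1 / ((ψ (χ m) : ℝ) + 1)) atTop (𝓝 0) := h0.comp hχ.tendsto_atTop
    refine ⟨fun n => ⟨_, _, _, by
      show x0 + (1 / ((ψ (χ n) : ℝ) + 1)) • c = _
      rw [hx0, pY, hc, natB_smul, natB_add]⟩, ?_,
      fun m => mul_pos (kpos _) (hk m), by simpa using h1.mul hk0⟩
    have h2 : Tendsto (fun m => x0 + (1 / ((ψ (χ m) : ℝ) + 1)) • c) atTop (𝓝 (x0 + (0:ℝ) • c)) :=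
      tendsto_const_nhds.add (h1.smul_const c)
    rwa [zero_smul, add_zero] at h2
  have hr0 : 1 - s ≤ ρ 0 := by
    obtain ⟨D0, l2, hD0, ht2, hl2⟩ := T.ex
    have h1 := F.own _ _ hBs2 D0 (l2 j0) hD0 (ht2 j0) 1 one_pos
    have h2 : bx9 1 0 0 0 0 0 0 0 0 ∈ LM := uZ_mem
    rw [hl2 _ _ _ _ _ _ _ _ _ h2] at h1
    linarith
  have hρ3 : 0 < ρ 3 := lt_of_lt_of_le hq0 hr3
  have k1 := F.K1 _ _ _ _ _ _ _ _ _ _ _ hBs2 T hρ3
  have k2 := F.H1 _ _ _ _ _ _ _ _ _ _ _ hBs2 T hρ3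
  have k3 := F.K2 _ _ _ _ _ _ _ _ _ _ _ hBs2 T
  have k4 := D0ln665.num_alg hε s2 hr0 (hρn 2 (by decide)) (hρn 3 (by decide)) (hρn 7 (by decide))
    k1 k2 hr10' k3
  rw [sum_aN]
  linarith

end Crest.Agent.R116.D0y219
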