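import Crest.Agent.R116.D0bs_332
import Crest.Agent.R116.D0y2_219

/-!
# R116 (K side), LEMMA D0 for `β_D < 0` (helper332): 219's `FactsY` over the context

* `CDY`        : the field [CD] of `FactsY`
* `bsY_of`     : 219's base sequences are mine
* **`factsY_of`** : `CtxT`, `0 < θa`, `2 θa - θb < 1`, a point of `Y` with `t < 0`, [CD]
  `⊢ FactsY`
-/

set_option autoImplicit false
set_option linter.unusedVariables false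
set_option linter.unusedSectionVars false

open Set Filter Topology MeasureTheory

namespace Crest.Agent.R116.D0fy332

open Crest.Agent.R138
open Crest.Agent.R138.Ex926 (Base U IsTan)
open Crest.Agent.R136
open Crest.Agent.R136.MkA627
open Crest.Agent.R136.TD627
open Crest.Agent.R136.Net191
open Crest.Agent.R136.Lq196
open Crest.Agent.R116.ChL222
open Crest.Agent.R116.PL504 (nb rL)
open Crest.Agent.R116.Sg337 (bx9 natB nb_natB)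
open Crest.Agent.R116.Gd222 (TSet)
open Crest.Agent.R116.KI439
open Crest.Agent.R116.KF439 (PL)
open Crest.Agent.R116.Tw468 (OutT)
open Crest.Agent.R116.CtxB468

/-- the field [CD] of `FactsY` -/
def CDY {J : Type*} (P : Set (Fin 12 → ℝ)) (f : J → (Fin 12 → ℝ) → ℝ) (j0 : J)
    (x0 : Fin 12 → ℝ) (s : ℝ) : Prop :=
  ∀ (h : ℕ → ℝ) (lam φ ρ : (Fin 12 → ℝ) → ℝ) (rz gP : ℝ), D0y219.BsY x0 (fun _ => x0) h →
    Ex926.IsTan P D0F878.LM (f j0) (fun _ => x0) h lam →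
    (∀ c ∈ D0F878.LM, lam c = φ c + ρ c) →
    (∀ c c' : Fin 12 → ℝ, c 1 = c' 1 → c 3 = c' 3 → c 4 = c' 4 → φ c = φ c') →
    (∀ c c' : Fin 12 → ℝ, (∀ i, i ≠ 1 → i ≠ 3 → i ≠ 4 → c i = c' i) → ρ c = ρ c') →
    1 - s ≤ rz →
    (∀ c ∈ D0F878.LM, ∀ c' ∈ D0F878.LM, (∀ i : Fin 12, i ≠ 0 → c i = c' i) →
      lam c - lam c' = rz * (c' 0 - c 0)) →
    (∀ c ∈ D0F878.LM, ∀ c' ∈ D0F878.LM, (∀ i : Fin 12, i ≠ 10 → c i = c' i) →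
      lam c - lam c' = gP * (c' 10 - c 10)) →
    (∀ y : ℝ, 0 < y → lam (bx9 0 0 0 y 0 0 0 0 0) < lam 0) →
    (∀ y : ℝ, 0 < y → lam (bx9 0 y 0 0 0 0 0 0 0) < lam 0) →
    1 - s ≤ gP

/-- 330's form of [CD] (`z` decoupled) -/
def CDZ {J : Type*} (P : Set (Fin 12 → ℝ)) (f : J → (Fin 12 → ℝ) → ℝ) (j0 : J)
    (x0 : Fin 12 → ℝ) (s : ℝ) : Prop :=
  ∀ (h : ℕ → ℝ) (lam φ ρ : (Fin 12 → ℝ) → ℝ), D0y219.BsY x0 (fun _ => x0) h →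
    Ex926.IsTan P D0F878.LM (f j0) (fun _ => x0) h lam →
    (∀ c ∈ D0F878.LM, lam c = φ c + ρ c) →
    (∀ c c' : Fin 12 → ℝ, c 1 = c' 1 → c 3 = c' 3 → c 4 = c' 4 → φ c = φ c') →
    (∀ c c' : Fin 12 → ℝ, (∀ i, i ≠ 1 → i ≠ 3 → i ≠ 4 → c i = c' i) → ρ c = ρ c') →
    (∀ c ∈ D0F878.LM, ∀ c' ∈ D0F878.LM, (∀ i : Fin 12, i ≠ 0 → c i = c' i) →
      lam c - lam c' = (lam 0 - lam (bx9 1 0 0 0 0 0 0 0 0)) * (c' 0 - c 0)) →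
    (∀ y : ℝ, 0 < y → (1 - s) * y ≤ lam 0 - lam (bx9 y 0 0 0 0 0 0 0 0)) →
    (∀ y : ℝ, 0 < y → lam (bx9 0 0 0 y 0 0 0 0 0) < lam 0) →
    (∀ y : ℝ, 0 < y → lam (bx9 0 y 0 0 0 0 0 0 0) < lam 0) →
    ∀ y : ℝ, 0 < y → y ≤ 1 →
      (1 - s) * y ≤ lam (bx9 0 y 0 y 0 0 0 0 0) - lam (bx9 0 y 0 y 0 0 0 y 0)

/-- **adapter** -/
theorem cdY_of {J : Type*} {P : Set (Fin 12 → ℝ)} {f : J → (Fin 12 → ℝ) → ℝ} {j0 : J}
    {x0 : Fin 12 → ℝ} {s : ℝ} (H : CDZ P f j0 x0 s) : CDY P f j0 x0 s := by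
  intro h lam φ ρ rz gP hB hT hdec hφ hρ hrz hz hP hC hD
  have h0 : (0 : Fin 12 → ℝ) ∈ D0F878.LM := D0bs332.zero_LM
  have e1 : ∀ y : ℝ, 0 ≤ y → lam 0 - lam (bx9 y 0 0 0 0 0 0 0 0) = rz * y := by
    intro y hy
    rw [hz 0 h0 _ (Kg330.bxz_LM hy) fun i hi => ?_]
    · simp [bx9]
    · fin_cases i <;> simp [bx9] at hi ⊢
  have e2 := e1 1 zero_le_one
  rw [mul_one] at e2
  have key := H h lam φ ρ hB hT hdec hφ hρ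
    (fun c hc c' hc' he => by rw [e2]; exact hz c hc c' hc' he)
    (fun y hy => by rw [e1 y hy.le]; exact mul_le_mul_of_nonneg_right hrz hy.le) hC hD 1 one_pos
    le_rfl
  have e3 := hP _ D0y219.u1_mem _ D0y219.u2_mem (fun i hi => by
    fin_cases i <;> simp [D0y219.u1, D0y219.u2, bx9] at hi ⊢)
  have e4 : D0y219.u2 10 - D0y219.u1 10 = 1 := by simp [D0y219.u1, D0y219.u2, bx9]
  rw [e4, mul_one] at e3
  have e5 : (1 - s) * 1 ≤ lam D0y219.u1 - lam D0y219.u2 := key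
  linarith

theorem pY_X (θa θb w0 sa sb t v : ℝ) :
    Dg262.X (rL θa θb w0 sa sb 0) (natB 1 0 1) (natB 1 (-θa) (-θb)) (t, v) =
      D0y219.pY θa θb w0 sa sb t v := by
  rw [D0bs332.Y_nb, nb_natB]
  unfold D0y219.pY
  congr 1 <;> ring

theorem bsY_of {θa θb w0 sa sb t v : ℝ} {X : ℕ → Fin 12 → ℝ} {h : ℕ → ℝ} (ht : t < 0)
    (hvt : 0 < v + t) (hv1 : v < 1) (hB : D0y219.BsY (D0y219.pY θa θb w0 sa sb t v) X h) :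
    D0bs332.BsY θa θb w0 sa sb X h :=
  ⟨t, v, ht, hvt, hv1, hB.1, by rw [pY_X]; exact hB.2.1, hB.2.2.1, hB.2.2.2⟩

section ctx

variable {G : Geo TSet (Fin 2)} {L : ℕ → ℕ → LRay} {r : ℕ → ℝ} {g s : ℝ} {θ q : Fin 2 → ℝ}
    {Rg : ℝ} {B : Base} {I : ℕ → Finset (ℕ × ℝ)} {lev : ℕ → ℚ → ℕ} {A : ℕ → ℝ}
    {f : ℕ → ℚ → ℕ → ℤ → ℕ} {b : ℕ → ℚ → ℕ → TSet} {vm : ℕ → ℚ → ℝ} {w : Fin 2 → ℕ → ℚ → ℝ}
    {fr : ℕ → ℚ → ℕ × ℝ → LInc} {fl : ℕ → ℕ × ℝ → LInc} {sc : Fin 12 → ℕ → ℝ}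
    {w0 sa sb δ R : ℝ} {I0 I' : ℕ → Finset (ℕ × ℝ)} {ν own : (Fin 12 → ℝ) → ℝ} {c₀ : ℝ}
    {t v : ℝ}

/-- **219's `FactsY` over the context**, [CD] as a binder -/
theorem factsY_of
    (H : CtxT G L r g s θ q Rg B I lev A f b vm w fr fl sc w0 sa sb δ R I0 I' ν own c₀)
    (hθ : 0 < θ 0) (hβ : 2 * θ 0 - θ 1 < 1) (hs0 : 0 ≤ s) (hs1 : s ≤ 1) (ht : t < 0)
    (hvt : 0 < v + t) (hv1 : v < 1) {Jt : Type*} {ff : Jt → (Fin 12 → ℝ) → ℝ} {j0 : Jt}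
    (hf : ff j0 = ν)
    (hCD : CDY (Leg monL R) ff j0 (D0y219.pY (θ 0) (θ 1) w0 sa sb t v) s) :
    D0y219.FactsY (Leg monL R) ff j0 (D0y219.pY (θ 0) (θ 1) w0 sa sb t v) s := by
  have F := D0bs332.linFactsD_Y H hθ hβ hs0 hs1 (j0 := j0) hf
  refine ⟨?_, ?_, ?_, ?_, hCD⟩
  · intro X h hB D lam hD hT y hy
    rw [hf] at hT
    exact D0bs332.own_Y H hθ hβ (bsY_of ht hvt hv1 hB) (hD D0bs332.zero_LM) hy
      (hD (Kg330.bxz_LM hy.le)) hT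
  · intro X h rz rX rH rF gC gP gE gB gD hB T hC
    exact (F.K1 _ _ _ _ _ _ _ _ _ _ _ (bsY_of ht hvt hv1 hB) T
      (fun n => (D0bs332.nat_walls hB.1 n).1) (fun n => (D0bs332.nat_walls hB.1 n).2.1)).1 hC
  · intro X h rz rX rH rF gC gP gE gB gD hB T hC
    exact F.H1 _ _ _ _ _ _ _ _ _ _ _ (bsY_of ht hvt hv1 hB) T
      (fun n => (D0bs332.nat_walls hB.1 n).2.2.1) (fun n => (D0bs332.nat_walls hB.1 n).2.2.2.1) hC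
  · intro X h rz rX rH rF gC gP gE gB gD hB T hP
    exact (F.K2 _ _ _ _ _ _ _ _ _ _ _ (bsY_of ht hvt hv1 hB) T
      (fun n => (D0bs332.nat_walls hB.1 n).2.2.2.2.1)).2 hP

end ctx

end Crest.Agent.R116.D0fy332
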