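import Crest.Agent.R116.RbK2_219
import Crest.Agent.R136.Sl2_741

/-!
# R116 (K side), rates on the half planes, part 3 (helper219)

* `diagM`     : diagonal with a moving second base
* `SOk.rok`   : the data of 741's record blow-up for `RS.srf`
* `RateG`     : rate of a whole group of parallel ray slots
* `SRates`    : all rates of one surface; `SOk.rates` from `OutH`
* **`ae_rates`** : record blow-up in `RS` language (no hypothesis about the blow-up), with frozen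
  slots
-/

set_option autoImplicit false
set_option linter.unusedSectionVars false
set_option linter.unusedVariables false

open Set Filter Topology Metric MeasureTheory

namespace Crest.Agent.R116.RbK219

open Crest.Agent.R136
open Crest.Agent.R138
open Dg262 (X X_cont SupOn)
open Dg219 (Tn lf det2 zz lf_zz Cone Sep Geo gset mem_gset Walls gC nC dhC gC_zero gC_eq nC_zero
  nC_of dirC exists_grpC)
open Rc146 (OutH LH DH SH SDir gapW RecOut)
open Rc683 (Srf)
open Sl741 (slice xt rs)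

/-! ### diagonal, moving second base -/

section diag

open Crest.Agent.R138.Ex926 (IsTan)

variable {V : Type*} [NormedAddCommGroup V] [NormedSpace ℝ V]

theorem diagM_aux {P L L' : Set V} {ν g lam : V → ℝ} {x : ℕ → V} {h : ℕ → ℝ}
    (hpos : ∀ l, 0 < h l) {y : ℕ → V} (hy : ∀ m, y m ∈ L)
    {k : ℕ → ℝ} (kpos : ∀ m, 0 < k m) (ht2 : IsTan L L' g y k lam) {ψ : ℕ → ℕ}
    (hψ2 : ∀ m, ∀ c ∈ L, ‖c‖ ≤ ‖y m‖ + k m * m → x (ψ m) + h (ψ m) • c ∈ P ∧
      |ν (x (ψ m) + h (ψ m) • c) - ν (x (ψ m)) - h (ψ m) * g c| ≤ k m / (m + 1) * h (ψ m)) :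
    IsTan P L' ν (fun m => x (ψ m) + h (ψ m) • y m) (fun m => h (ψ m) * k m) lam := by
  intro C ε hε
  obtain ⟨N1, hN1⟩ := exists_nat_gt C
  obtain ⟨N2, hN2⟩ := exists_nat_gt (4 / ε)
  filter_upwards [ht2 C (ε / 2) (by positivity), eventually_ge_atTop (max N1 N2)] with m h1 h2 c hc hcC
  have hj1 : (N1 : ℝ) ≤ m := by exact_mod_cast (le_max_left _ _).trans h2
  have hj2 : (N2 : ℝ) ≤ m := by exact_mod_cast (le_max_right _ _).trans h2
  obtain ⟨m1, m2⟩ := h1 c hc hcC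
  have hk := kpos m
  have hh := hpos (ψ m)
  have hn : ‖y m + k m • c‖ ≤ ‖y m‖ + k m * m := by
    refine (norm_add_le _ _).trans ?_
    rw [norm_smul, Real.norm_of_nonneg hk.le]
    have : k m * ‖c‖ ≤ k m * m := mul_le_mul_of_nonneg_left (by linarith) hk.le
    linarith
  obtain ⟨p1, p2⟩ := hψ2 m _ m1 hn
  obtain ⟨q1, q2⟩ := hψ2 m _ (hy m) (by
    have : 0 ≤ k m * m := by positivity
    linarith)
  have e1 : x (ψ m) + h (ψ m) • y m + (h (ψ m) * k m) • c =
      x (ψ m) + h (ψ m) • (y m + k m • c) := by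
    rw [smul_add, smul_smul, add_assoc]
  refine ⟨by rw [e1]; exact p1, ?_⟩
  rw [e1]
  have h4 : k m / (m + 1) ≤ k m * (ε / 4) := by
    rw [div_le_iff₀ (by positivity)]
    rw [div_lt_iff₀ hε] at hN2
    have : 1 ≤ ε / 4 * ((m : ℝ) + 1) := by nlinarith
    calc k m = k m * 1 := (mul_one _).symm
      _ ≤ k m * (ε / 4 * ((m : ℝ) + 1)) := mul_le_mul_of_nonneg_left this hk.le
      _ = k m * (ε / 4) * (m + 1) := by ring
  have p3 : |ν (x (ψ m) + h (ψ m) • (y m + k m • c)) - ν (x (ψ m)) -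
      h (ψ m) * g (y m + k m • c)| ≤
      k m * (ε / 4) * h (ψ m) := p2.trans (mul_le_mul_of_nonneg_right h4 hh.le)
  have q3 : |ν (x (ψ m) + h (ψ m) • y m) - ν (x (ψ m)) - h (ψ m) * g (y m)| ≤
      k m * (ε / 4) * h (ψ m) := q2.trans (mul_le_mul_of_nonneg_right h4 hh.le)
  have r3 : h (ψ m) * |g (y m + k m • c) - g (y m) - k m * lam c| ≤ h (ψ m) * (ε / 2 * k m) :=
    mul_le_mul_of_nonneg_left m2 hh.le
  have e2 : ν (x (ψ m) + h (ψ m) • (y m + k m • c)) - ν (x (ψ m) + h (ψ m) • y m) -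
      h (ψ m) * k m * lam c =
      (ν (x (ψ m) + h (ψ m) • (y m + k m • c)) - ν (x (ψ m)) - h (ψ m) * g (y m + k m • c)) -
      (ν (x (ψ m) + h (ψ m) • y m) - ν (x (ψ m)) - h (ψ m) * g (y m)) +
      h (ψ m) * (g (y m + k m • c) - g (y m) - k m * lam c) := by ring
  show |ν (x (ψ m) + h (ψ m) • (y m + k m • c)) - ν (x (ψ m) + h (ψ m) • y m) -
      h (ψ m) * k m * lam c| ≤ ε * (h (ψ m) * k m)
  rw [e2]
  have s1 := abs_add_le ((ν (x (ψ m) + h (ψ m) • (y m + k m • c)) - ν (x (ψ m)) -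
      h (ψ m) * g (y m + k m • c)) - (ν (x (ψ m) + h (ψ m) • y m) - ν (x (ψ m)) -
      h (ψ m) * g (y m)))
      (h (ψ m) * (g (y m + k m • c) - g (y m) - k m * lam c))
  have s2 := abs_sub (ν (x (ψ m) + h (ψ m) • (y m + k m • c)) - ν (x (ψ m)) -
      h (ψ m) * g (y m + k m • c)) (ν (x (ψ m) + h (ψ m) • y m) - ν (x (ψ m)) -
      h (ψ m) * g (y m))
  rw [abs_mul, abs_of_pos hh] at s1
  linarith

/-- **diagonal** with a moving second base `y m ∈ L` -/
theorem diagM {J : Type*} [Finite J] {P L L' : J → Set V} {ν g lam : J → V → ℝ} {x : ℕ → V}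
    {h : ℕ → ℝ} (hpos : ∀ l, 0 < h l) (ht : ∀ j, IsTan (P j) (L j) (ν j) x h (g j)) {y : ℕ → V}
    (hy : ∀ j m, y m ∈ L j) {k : ℕ → ℝ} (kpos : ∀ m, 0 < k m)
    (ht2 : ∀ j, IsTan (L j) (L' j) (g j) y k (lam j))
    {A : ℕ → ℕ → Prop} (hA : ∀ m, ∀ᶠ l in atTop, A m l) :
    ∃ ψ : ℕ → ℕ, StrictMono ψ ∧ (∀ m, A m (ψ m)) ∧ ∀ j,
      IsTan (P j) (L' j) (ν j) (fun m => x (ψ m) + h (ψ m) • y m) (fun m => h (ψ m) * k m)
        (lam j) := by
  classical
  obtain ⟨ψ, hψ, hψ2⟩ := Filter.extraction_forall_of_eventually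
    (P := fun m l => (∀ j, ∀ c ∈ L j, ‖c‖ ≤ ‖y m‖ + k m * m → x l + h l • c ∈ P j ∧
      |ν j (x l + h l • c) - ν j (x l) - h l * g j c| ≤ k m / (m + 1) * h l) ∧ A m l) (fun m =>
      (Filter.eventually_all.2 fun j => ht j (‖y m‖ + k m * m) (k m / (m + 1)) (by
        have := kpos m; positivity)).and (hA m))
  refine ⟨ψ, hψ, fun m => (hψ2 m).2, fun j => ?_⟩
  exact diagM_aux hpos (hy j) kpos (ht2 j) fun m => (hψ2 m).1 j

end diag

variable {ι W τ : Type*} [Fintype ι] [DecidableEq ι] [Fintype W] [Fintype τ] [DecidableEq τ]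

section

variable {R : RS ι τ} {A B : τ → ℝ} {sg : ℝ} {y0 : ι → ℝ}

/-- data of 741's record blow-up for the surface -/
theorem SOk.rok (h : SOk A B sg) {Q : Walls ι W} : ∃ wv, (R.srf y0 A B sg).Rok Q wv := by
  refine Rc683.Rok.closed (s := R.srf y0 A B sg) (h.a_nonneg (R := R)) (fun i hi => ?_) rfl rfl
  exact mul_pos (R.pos i) (h.zero _ (h.a_zero.1 hi))

/-! ### groups of parallel ray slots -/

/-- parallel ray slots -/
def Par (A B : τ → ℝ) (t t' : τ) : Prop := A t * B t' = A t' * B t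

theorem SOk.grp_par (h : SOk A B sg) (i j : ι) :
    (R.srf y0 A B sg).g i = (R.srf y0 A B sg).g j ↔ Par A B (R.cls j) (R.cls i) := by
  change gC (R.vec (sg • B)) (R.vec A) i = gC (R.vec (sg • B)) (R.vec A) j ↔ _
  rw [gC_par h.ab]
  have h1 := (R.pos i).ne'
  have h2 := (R.pos j).ne'
  have h3 := h.ne
  unfold Par
  constructor
  · intro h0
    simp only [RS.vec, Pi.smul_apply, smul_eq_mul] at h0
    have h4 : R.mu i * R.mu j * sg *
        (A (R.cls j) * B (R.cls i) - A (R.cls i) * B (R.cls j)) = 0 := by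
      linear_combination h0
    have h5 := (mul_eq_zero.1 h4).resolve_left (mul_ne_zero (mul_ne_zero h1 h2) h3)
    linarith
  · intro h0
    simp only [RS.vec, Pi.smul_apply, smul_eq_mul]
    linear_combination (R.mu i * R.mu j * sg) * h0

open Classical in
/-- the direction of the group of the ray slot `t`: level of `t` raised by one -/
noncomputable def RS.eG (R : RS ι τ) (A B : τ → ℝ) (sg : ℝ) (t : τ) (i : ι) : ℝ :=
  if Par A B t (R.cls i) then R.mu i * (dl A B sg (R.cls i) / dl A B sg t) else 0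

/-- rate of the whole group of the ray slot `t`, in units of the level of `t` -/
def RS.RateG (R : RS ι τ) (A B : τ → ℝ) (sg : ℝ) (lam : (ι → ℝ) → ℝ) (LW : Set (ι → ℝ)) (t : τ)
    (ρ : ℝ) : Prop :=
  ∀ (p : ι → ℝ) (u x : ℝ), (∀ i, Par A B t (R.cls i) →
      p i = R.mu i * (dl A B sg (R.cls i) / dl A B sg t) * u) → p ∈ LW →
    p + x • R.eG A B sg t ∈ LW → lam p - lam (p + x • R.eG A B sg t) = ρ * x

variable {LW L : Set (ι → ℝ)} {lam : (ι → ℝ) → ℝ} {φ : ℕ → (ι → ℝ) → ℝ} {r : ℕ → ℝ}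

theorem SOk.rateG_of (h : SOk A B sg) {t : τ} (hA : A t ≠ 0) (hL : LW ⊆ L)
    (H : OutH (R.srf y0 A B sg).g (R.srf y0 A B sg).S LW L (R.srf y0 A B sg).a
      (R.srf y0 A B sg).b (R.srf y0 A B sg).l (R.srf y0 A B sg).dh (R.srf y0 A B sg).n lam φ r)
    {j : ι} (hj : R.cls j = t) :
    R.RateG A B sg lam LW t (r ((R.srf y0 A B sg).g j) / dl A B sg t) := by
  intro p u x hp hpm hpe
  have hd := (h.dl_pos t).ne'
  have hg : ∀ i, (R.srf y0 A B sg).g i = (R.srf y0 A B sg).g j ↔ Par A B t (R.cls i) := by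
    intro i; rw [h.grp_par (R := R) (y0 := y0), hj]
  rw [rate_inc H hL (h.mem_S hA hj) hpm hpe (u := u / dl A B sg t) (t := x / dl A B sg t)
    (fun i hi => by
      rw [hp i ((hg i).1 hi), h.dh_eq]; field_simp)
    (fun i hi => by
      rw [Pi.smul_apply, smul_eq_mul, RS.eG, if_pos ((hg i).1 hi), h.dh_eq]; field_simp)
    (fun i hi => by
      rw [Pi.smul_apply, smul_eq_mul, RS.eG, if_neg (fun h' => hi ((hg i).2 h')), mul_zero])]
  ring

/-- **all rates of a surface**; `ρ t` = rate of the group of `t` in units of the level of `t` -/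
structure SRates (R : RS ι τ) (A B : τ → ℝ) (sg : ℝ) (lam : (ι → ℝ) → ℝ) (LW : Set (ι → ℝ))
    (ρ : τ → ℝ) : Prop where
  alone : ∀ t, Aln A B t → A t ≠ 0 → R.RateAt lam LW t (ρ t)
  grp : ∀ t, A t ≠ 0 → R.RateG A B sg lam LW t (ρ t)
  nn : ∀ t, A t ≠ 0 → 0 ≤ ρ t
  le : ∀ t, A t ≠ 0 → ρ t ≤ ∑ i, R.eG A B sg t i
  par : ∀ t t', A t ≠ 0 → Par A B t t' → ρ t * dl A B sg t = ρ t' * dl A B sg t'
  /-- value at the natural points with the same levels of the slots parallel to the record -/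
  nat : ∀ α l α' l' : ℝ, 0 ≤ l → 0 ≤ l' → (∀ t, A t = 0 → l * B t = l' * B t) → ∀ rep : Finset τ,
    (∀ t, A t ≠ 0 → ∃! t', t' ∈ rep ∧ Par A B t t') → (∀ t ∈ rep, A t ≠ 0) →
    lam (R.vec (l' • B + α' • A)) - lam (R.vec (l • B + α • A)) =
      -∑ t ∈ rep, ρ t * ((l' - l) * B t + (α' - α) * A t)

theorem Par.symm' {t t' : τ} (h : Par A B t t') : Par A B t' t := by
  unfold Par at h ⊢; linarith

/-- the groups of the half plane = parallel classes of the slots with `A ≠ 0` -/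
theorem SOk.A_ne (h : SOk A B sg) {i : ι}
    (hi : (R.srf y0 A B sg).g i ∈ (R.srf y0 A B sg).S) : A (R.cls i) ≠ 0 := by
  intro hA
  have h1 := (Rc146.mem_SH.1 hi).2
  have hB : B (R.cls i) ≠ 0 := fun hB => by have := h.zero _ hB; linarith
  have ha : R.vec (sg • B) i ≠ 0 := fun ha => hB (h.a_zero.1 ha)
  have hb : R.vec A i = 0 := by simp only [RS.vec, hA, mul_zero]
  apply h1
  change det2 (nC (R.vec (sg • B)) (R.vec A) (gC (R.vec (sg • B)) (R.vec A) i)) (-sg, 0) = 0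
  rw [nC_of ha, hb]
  unfold det2
  simp

theorem SOk.sdir (h : SOk A B sg) : SDir (R.srf y0 A B sg).g (R.srf y0 A B sg).a
    (R.srf y0 A B sg).b (R.srf y0 A B sg).n (R.srf y0 A B sg).dh := by
  have := dirC (a := R.vec (sg • B)) (b := R.vec A)
  exact ⟨this.fst, this.snd, this.ne, this.det⟩

/-- **all rates of the surface from `OutH`** -/
theorem SOk.rates (h : SOk A B sg) {Q : Walls ι W} {c0 : ℝ}
    (hL : (R.srf y0 A B sg).LW Q c0 ⊆ L)
    (H : OutH (R.srf y0 A B sg).g (R.srf y0 A B sg).S ((R.srf y0 A B sg).LW Q c0) L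
      (R.srf y0 A B sg).a (R.srf y0 A B sg).b (R.srf y0 A B sg).l (R.srf y0 A B sg).dh
      (R.srf y0 A B sg).n lam φ r) (hc0 : 0 ≤ c0) :
    ∃ ρ : τ → ℝ, SRates R A B sg lam ((R.srf y0 A B sg).LW Q c0) ρ := by
  classical
  choose j hj using R.sur
  set ρ : τ → ℝ := fun t => r ((R.srf y0 A B sg).g (j t)) / dl A B sg t with hρ
  have hdh : ∀ i, 0 < (R.srf y0 A B sg).dh i := fun i => by
    rw [h.dh_eq]; exact mul_pos (R.pos i) (h.dl_pos _)
  have hmem : ∀ α l : ℝ, 0 ≤ l → R.vec (l • B + α • A) ∈ (R.srf y0 A B sg).LW Q c0 := by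
    intro α l hl
    have := h.memLW (R := R) (y0 := y0) (Q := Q) (c0 := c0) (α := α) hl
      (Walls.cone (Q := Q) (x0 := (R.srf y0 A B sg).x0) (a := (R.srf y0 A B sg).a)
        (b := (R.srf y0 A B sg).b)).zero (by rw [norm_zero]; exact mul_nonneg hc0 hl)
    rwa [add_zero] at this
  refine ⟨ρ, ⟨fun t ht hA => h.rateAt_of ht hA hL H (hj t), fun t hA => h.rateG_of hA hL H (hj t),
    fun t hA => ?_, fun t hA => ?_, fun t t' hA hp => ?_, ?_⟩⟩
  · exact div_nonneg (H.r_nonneg _ (h.mem_S hA (hj t)) fun i _ => (hdh i).le) (h.dl_pos t).le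
  · have h1 := H.r_le _ (h.mem_S hA (hj t)) fun i _ => (hdh i).le
    simp only [hρ]
    rw [div_le_iff₀ (h.dl_pos t)]
    refine h1.trans (le_of_eq ?_)
    rw [Finset.sum_filter, Finset.sum_mul]
    refine Finset.sum_congr rfl fun i _ => ?_
    have hg : (R.srf y0 A B sg).g i = (R.srf y0 A B sg).g (j t) ↔ Par A B t (R.cls i) := by
      rw [h.grp_par (R := R) (y0 := y0), hj]
    unfold RS.eG
    by_cases hp : Par A B t (R.cls i)
    · rw [if_pos (hg.2 hp), if_pos hp, h.dh_eq]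
      have := (h.dl_pos t).ne'
      field_simp
    · rw [if_neg (fun h' => hp (hg.1 h')), if_neg hp, zero_mul]
  · simp only [hρ]
    have hg : (R.srf y0 A B sg).g (j t) = (R.srf y0 A B sg).g (j t') := by
      rw [h.grp_par (R := R) (y0 := y0), hj, hj]; exact hp.symm'
    rw [div_mul_cancel₀ _ (h.dl_pos t).ne', div_mul_cancel₀ _ (h.dl_pos t').ne', hg]
  · intro α l α' l' hl hl' hpar rep hrep hrepA
    have hz : Tn (R.srf y0 A B sg).a (R.srf y0 A B sg).b (l * sg, α) = R.vec (l • B + α • A) :=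
      h.Tn_nat α l
    have hz' : Tn (R.srf y0 A B sg).a (R.srf y0 A B sg).b (l' * sg, α') =
        R.vec (l' • B + α' • A) := h.Tn_nat α' l'
    have key := nat_val H hL (h.sdir (R := R) (y0 := y0)) (z := (l * sg, α))
      (z' := (l' * sg, α')) (by rw [hz]; exact hmem α l hl) (by rw [hz']; exact hmem α' l' hl')
      (fun i hi => by
        have hA : A (R.cls i) = 0 := by
          by_contra hA
          exact hi (h.mem_S hA rfl)
        rw [hz, hz']
        simp only [RS.vec, Pi.add_apply, Pi.smul_apply, smul_eq_mul, hA, mul_zero, add_zero]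
        rw [hpar _ hA])
    rw [hz, hz'] at key
    rw [key]
    congr 1
    symm
    refine Finset.sum_bij (fun t _ => (R.srf y0 A B sg).g (j t)) (fun t ht => ?_)
      (fun t ht t' ht' htt => ?_) (fun k hk => ?_) (fun t ht => ?_)
    · exact h.mem_S (hrepA t ht) (hj t)
    · have h1 := (h.grp_par (R := R) (y0 := y0) (j t) (j t')).1 htt
      rw [hj, hj] at h1
      obtain ⟨u, -, hu⟩ := hrep t (hrepA t ht)
      rw [hu t ⟨ht, rfl⟩, hu t' ⟨ht', h1.symm'⟩]
    · obtain ⟨i, -, hi⟩ := Finset.mem_image.1 (Rc146.mem_SH.1 hk).1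
      have hA := h.A_ne (R := R) (y0 := y0) (i := i) (by rw [hi]; exact hk)
      obtain ⟨t', ⟨ht', hp⟩, -⟩ := hrep _ hA
      refine ⟨t', ht', ?_⟩
      rw [← hi, h.grp_par (R := R) (y0 := y0), hj]
      exact hp
    · have hd := (h.dl_pos t).ne'
      have hmu := (R.pos (j t)).ne'
      have h1 := (h.sdir (R := R) (y0 := y0)).Tn_eq ((l' * sg, α') - (l * sg, α)) (j t)
      have h2 : Tn (R.srf y0 A B sg).a (R.srf y0 A B sg).b ((l' * sg, α') - (l * sg, α)) (j t) =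
          R.mu (j t) * ((l' - l) * B t + (α' - α) * A t) := by
        rw [RS.srf_Tn]
        have hs := h.sq
        simp only [RS.vec, Prod.fst_sub, Prod.snd_sub, Pi.add_apply, Pi.smul_apply, smul_eq_mul,
          hj]
        have e : (l' * sg - l * sg) * sg = l' - l := by linear_combination (l' - l) * hs
        rw [e]
      rw [h2, h.dh_eq, hj] at h1
      have h3 : (l' - l) * B t + (α' - α) * A t =
          lf ((R.srf y0 A B sg).n ((R.srf y0 A B sg).g (j t)))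
            ((l' * sg, α') - (l * sg, α)) * dl A B sg t := by
        have h4 : R.mu (j t) * ((l' - l) * B t + (α' - α) * A t) = R.mu (j t) *
            (lf ((R.srf y0 A B sg).n ((R.srf y0 A B sg).g (j t)))
              ((l' * sg, α') - (l * sg, α)) * dl A B sg t) := by
          rw [h1]; ring
        exact mul_left_cancel₀ hmu h4
      simp only [hρ]
      rw [h3]
      field_simp

end

/-! ### the record blow-up in `RS` language -/

/-- **RATES AT THE RECORD**: `¬ p i` = frozen slots; record line `y0 + ξ • ρ0` with slopes `R.vec A`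
on the kept slots, `0` on the frozen ones; surfaces `B s` (countably many). At almost every record
point, along every sequence of scales: tangents of all `f j` at moving base points of the record line
and all rates of `lam j0` (at vectors which vanish on the frozen slots) -/
theorem ae_rates {Q : Walls ι W} {p : ι → Prop} [DecidablePred p] {hp : ∀ w, p (Q.hd w)}
    {lo hi y0 ρ0 : ι → ℝ} (hv : ∀ i, ¬ p i → lo i ≤ y0 i ∧ y0 i ≤ hi i)
    (hρ : ∀ i, ¬ p i → ρ0 i = 0) {R : RS {i // p i} τ} {A : τ → ℝ} (hA : rs p ρ0 = R.vec A)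
    {T : Type*} [Countable T] {B : T → τ → ℝ} {sg : T → ℝ} (hS : ∀ s, SOk A (B s) (sg s))
    (hF : ∀ s, (slice Q p y0 hp).Full (rs p y0) (R.vec (sg s • B s)) (R.vec A))
    (hleg : ∀ s, R.vec (B s) ∈ (slice Q p y0 hp).L (rs p y0) (R.vec A) 0)
    {J : Type*} [Finite J] {f : J → (ι → ℝ) → ℝ} {j0 : J} {K : ℝ} (hK : 0 ≤ K)
    (hν : ∀ j, ∀ p ∈ Q.P lo hi, ∀ q ∈ Q.P lo hi, |f j p - f j q| ≤ K * dist p q)
    (hm : ∀ p ∈ Q.P lo hi, ∀ q ∈ Q.P lo hi, p ≤ q →
      0 ≤ f j0 p - f j0 q ∧ f j0 p - f j0 q ≤ ∑ i, (q i - p i))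
    (hs : SupOn (f j0) (Q.P lo hi)) {U : Set ℝ}
    (hU : ∀ ξ ∈ U, (ξ, (0:ℝ)) ∈ Q.O lo hi y0 ρ0 0) :
    ∀ᵐ ξ : ℝ, ξ ∈ U → ∃ c0 : T → ℝ, (∀ s, 0 < c0 s) ∧
      (∀ s, (R.srf (rs p y0) A (B s) (sg s)).LW (slice Q p y0 hp) (c0 s) ⊆
        (slice Q p y0 hp).L (rs p y0) (rs p ρ0) 0) ∧
      ∀ h : ℕ → ℝ, (∀ l, 0 < h l) → Tendsto h atTop (𝓝 0) →
      ∃ (x h' : ℕ → ℝ) (lam : J → (ι → ℝ) → ℝ), Tendsto x atTop (𝓝 ξ) ∧ (∀ m, 0 < h' m) ∧
        Tendsto h' atTop (𝓝 0) ∧
        (∀ j, Ex926.IsTan (Q.P lo hi) (Q.L y0 ρ0 0) (f j) (fun m => y0 + x m • ρ0) h'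
          (lam j)) ∧
        ∀ s, (∃ (φ : ℕ → ({i // p i} → ℝ) → ℝ) (r : ℕ → ℝ),
            RecOut (R.srf (rs p y0) A (B s) (sg s)).g (R.srf (rs p y0) A (B s) (sg s)).S
              ((R.srf (rs p y0) A (B s) (sg s)).LW (slice Q p y0 hp) (c0 s))
              ((R.srf (rs p y0) A (B s) (sg s)).L (slice Q p y0 hp))
              (R.srf (rs p y0) A (B s) (sg s)).a (R.srf (rs p y0) A (B s) (sg s)).b
              (R.srf (rs p y0) A (B s) (sg s)).l (R.srf (rs p y0) A (B s) (sg s)).dh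
              (R.srf (rs p y0) A (B s) (sg s)).n (fun c => lam j0 (xt p 0 c)) φ r) ∧
          ∃ ρ : τ → ℝ, SRates R A (B s) (sg s) (fun c => lam j0 (xt p 0 c))
            ((R.srf (rs p y0) A (B s) (sg s)).LW (slice Q p y0 hp) (c0 s)) ρ := by
  have ok : ∀ s, (R.srf (rs p y0) A (B s) (sg s)).Ok (slice Q p y0 hp) (rs p y0) (rs p ρ0) := by
    intro s
    rw [hA]
    exact (hS s).srf_ok (hF s) (hleg s)
  have key := Sl741.ae_rec_slice (Q := Q) (hp := hp) hv hρ
    (sf := fun s => R.srf (rs p y0) A (B s) (sg s)) ok (fun s => (hS s).rok) (f := f) (j0 := j0)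
    hK hν hm hs hU
  filter_upwards [key] with ξ hξ hξU
  obtain ⟨c0, hc0, hsub, H⟩ := hξ hξU
  refine ⟨c0, hc0, hsub, fun h hpos h0 => ?_⟩
  obtain ⟨x, h', lam, hx, hh', hh0, hT, hO⟩ := H h hpos h0
  refine ⟨x, h', lam, hx, hh', hh0, hT, fun s => ?_⟩
  obtain ⟨φ, r, hφr⟩ := hO s
  have hLL : (R.srf (rs p y0) A (B s) (sg s)).LW (slice Q p y0 hp) (c0 s) ⊆
      (R.srf (rs p y0) A (B s) (sg s)).L (slice Q p y0 hp) := by
    rintro _ ⟨w, c, -, hc, -, rfl⟩
    exact (Walls.cone (Q := slice Q p y0 hp)).add _ (Walls.Tn_mem w) _ hc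
  exact ⟨⟨φ, r, hφr⟩, (hS s).rates hLL hφr.toOutH (hc0 s).le⟩

end Crest.Agent.R116.RbK219
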