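import Crest.Agent.R116.D0n2_878
import Crest.Agent.R116.RbK3_219

/-!
# R116 (K side), LEMMA D0 for `β_D ≤ 0`, part 1 (helper219): natural line beside `Y`, second level

* `PP_LM`
* `engine2` : at a.e. point of a plane of natural boxes in the tangent `g j0` of `f j0` at a natural
  box: `LinTanD` of `f j0` at moving natural bases, with nine rates, and the second tangent of `g`
* `line_le` : integration along the lines of the plane
-/

set_option autoImplicit false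
set_option linter.unusedVariables false

open Set Filter Topology MeasureTheory
open scoped NNReal

namespace Crest.Agent.R116.D0y219

open Crest.Agent.R138
open Crest.Agent.R136
open Crest.Agent.R136.Net191
open Crest.Agent.R136.Dg219 (mw gC dhC nC gset lf gC_eq gC_zero Walls OutS dirC leg_outC leg_legal
  mw_full)
open Crest.Agent.R116.ChL222
open Crest.Agent.R116.Sg337 (bx9 natB)
open Crest.Agent.R116.SgF665 (wl)
open Crest.Agent.R116.D0F878
open Crest.Agent.R116.D0n878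
open Crest.Agent.R116.SgO219
open Dg262 (SupOn)

theorem PP_LM : PP (mw monL) = LM := by
  ext c
  constructor
  · intro h k e he
    have h1 := h ⟨k, e, he⟩
    have h2 : (mw monL).cst ⟨k, e, he⟩ = 0 := rfl
    rw [h2, add_zero] at h1
    exact h1
  · intro h w
    have h1 := h w.1 w.2.1 w.2.2
    have h2 : (mw monL).cst w = 0 := rfl
    rw [h2, add_zero]
    exact h1

theorem mem_OO_nat {z c p z1 c1 p1 z2 c2 p2 : ℝ} (y : ℝ × ℝ) :
    y ∈ OO (mw monL) (natB z c p) (natB z1 c1 p1) (natB z2 c2 p2) := by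
  intro w
  exact Or.inl (act_nat _ _ _ _ _ _ _ _ _ w)


/-- **the second level** -/
theorem engine2 {J : Type*} [Finite J] {P : Set (Fin 12 → ℝ)} {f g : J → (Fin 12 → ℝ) → ℝ} {j0 : J}
    {zp cp pp : ℝ} {h : ℕ → ℝ} (hpos : ∀ l, 0 < h l) (h0 : Tendsto h atTop (𝓝 0))
    (ht : ∀ j, Ex926.IsTan P LM (f j) (fun _ => natB zp cp pp) h (g j)) {K : ℝ} (hK : 0 ≤ K)
    (hg : ∀ j, ∀ p ∈ LM, ∀ q ∈ LM, |g j p - g j q| ≤ K * ‖p - q‖)
    (hm : ∀ p ∈ LM, ∀ q ∈ LM, p ≤ q → 0 ≤ g j0 p - g j0 q ∧ g j0 p - g j0 q ≤ ∑ i, (q i - p i))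
    (hs : SupOn (g j0) LM) {z c p z1 c1 p1 z2 c2 p2 : ℝ} (ha : ∀ i, 0 ≤ natB z1 c1 p1 i)
    (hal : ∀ i ∈ S9, ∀ j ∈ S9, gC (natB z1 c1 p1) (natB z2 c2 p2) i =
      gC (natB z1 c1 p1) (natB z2 c2 p2) j → i = j)
    (hdh : ∀ i ∈ S9, dhC (natB z1 c1 p1) (natB z2 c2 p2) i ≠ 0) :
    ∀ᵐ y : ℝ × ℝ, ∃ D : ℝ × ℝ →L[ℝ] ℝ,
      HasFDerivAt (fun y => g j0 (Dg262.X (natB z c p) (natB z1 c1 p1) (natB z2 c2 p2) y)) D y ∧
      ∃ (k : ℕ → ℝ) (ψ : ℕ → ℕ) (lam : J → (Fin 12 → ℝ) → ℝ) (ρ : Fin 12 → ℝ),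
        (∀ l, 0 < k l) ∧ Tendsto k atTop (𝓝 0) ∧ StrictMono ψ ∧ (∀ i ∈ S9, 0 ≤ ρ i) ∧
        (∀ j, Ex926.IsTan LM LM (g j)
          (fun _ => Dg262.X (natB z c p) (natB z1 c1 p1) (natB z2 c2 p2) y) k (lam j)) ∧
        (∀ c' ∈ LM, Eqp c' → lam j0 c' = -∑ i ∈ S9, ρ i * c' i) ∧
        LinTanD P f j0 (fun m => natB zp cp pp +
            h (ψ m) • Dg262.X (natB z c p) (natB z1 c1 p1) (natB z2 c2 p2) y)
          (fun m => h (ψ m) * k m) (ρ 0) (ρ 5) (ρ 9) (ρ 11) (ρ 3) (ρ 10) (ρ 2) (ρ 7) (ρ 1) ∧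
        D (1, 0) = -∑ i ∈ S9, ρ i * natB z1 c1 p1 i ∧
        D (0, 1) = -∑ i ∈ S9, ρ i * natB z2 c2 p2 i := by
  have ePL := PP_LM
  have eL := L_nat z c p z1 c1 p1 z2 c2 p2
  have key := ae_out_lam (mw monL) (x0 := natB z c p) (a := natB z1 c1 p1) (b := natB z2 c2 p2)
    (g := g j0) hK (by
      rw [ePL]
      intro p hp q hq
      rw [dist_eq_norm]
      exact hg j0 p hp q hq) (by rw [ePL]; exact hm) (by rw [ePL]; exact hs) ha
    (mw_full _ _ _ _)
  filter_upwards [key] with y hy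
  obtain ⟨D, hD, H⟩ := hy (mem_OO_nat y)
  refine ⟨D, hD, ?_⟩
  have kpos : ∀ l : ℕ, (0 : ℝ) < 1 / ((l : ℝ) + 1) := fun l => by positivity
  have k0 : Tendsto (fun l : ℕ => 1 / ((l : ℝ) + 1)) atTop (𝓝 0) :=
    tendsto_one_div_add_atTop_nhds_zero_nat
  obtain ⟨θ, hθ, lam, hlam⟩ := exists_tan_OO (mw monL) (x0 := natB z c p) (a := natB z1 c1 p1)
    (b := natB z2 c2 p2) (g := g) hK (by rw [ePL]; exact hg) (mem_OO_nat y) kpos k0
  obtain ⟨φ, r, HO⟩ := H (fun l => 1 / ((θ l : ℝ) + 1)) (fun l => kpos _)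
    (k0.comp hθ.tendsto_atTop) (lam j0) (hlam j0)
  obtain ⟨ρ, h1, h2, h3, h4⟩ := lin9 (eqp_natB _ _ _) (eqp_natB _ _ _) hal hdh HO
    (by rw [eL]; exact zero_mem) (by rw [eL]; exact natB_mem 1 1 4) natB_pos (eqp_natB _ _ _)
  have hlam' : ∀ j, Ex926.IsTan LM LM (g j)
      (fun _ => Dg262.X (natB z c p) (natB z1 c1 p1) (natB z2 c2 p2) y)
      (fun l => 1 / ((θ l : ℝ) + 1)) (lam j) := by
    intro j
    have := hlam j
    rw [ePL, eL] at this
    exact this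
  have hcm : Dg262.X (natB z c p) (natB z1 c1 p1) (natB z2 c2 p2) y ∈ LM := by
    obtain ⟨t, v⟩ := y
    rw [X_nat]
    exact natB_mem _ _ _
  obtain ⟨ψ, hψ, -, hdiag⟩ := RbK219.diagM (J := J) (P := fun _ => P) (L := fun _ => LM)
    (L' := fun _ => LM) hpos ht
    (y := fun _ => Dg262.X (natB z c p) (natB z1 c1 p1) (natB z2 c2 p2) y)
    (fun _ _ => hcm) (fun m => kpos (θ m)) hlam' (A := fun _ _ => True)
    (fun _ => Eventually.of_forall fun _ => trivial)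
  refine ⟨fun l => 1 / ((θ l : ℝ) + 1), ψ, lam, ρ, fun l => kpos _, k0.comp hθ.tendsto_atTop, hψ,
    h1, hlam', fun c' hc' he => h2 c' (by rw [eL]; exact hc') he, ?_, h3, h4⟩
  refine ⟨fun m => mul_pos (hpos _) (kpos _), ?_, ?_, LM, lam, le_rfl, hdiag, ?_⟩
  · have := (h0.comp hψ.tendsto_atTop).mul (k0.comp hθ.tendsto_atTop)
    simpa using this
  · intro k e he
    left
    intro n
    obtain ⟨t, v⟩ := y
    rw [X_nat, natB_smul, natB_add, natB_wall _ _ _ k he]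
  · intro z' d C' p' E B x H' F hc
    rw [h2 _ (by rw [eL]; exact hc) (eqp_bx9 _ _ _ _ _ _ _ _ _)]
    congr 1
    simp only [S9]
    rw [Finset.sum_insert (by decide), Finset.sum_insert (by decide), Finset.sum_insert (by decide),
      Finset.sum_insert (by decide), Finset.sum_insert (by decide), Finset.sum_insert (by decide),
      Finset.sum_insert (by decide), Finset.sum_insert (by decide), Finset.sum_singleton]
    simp only [bx9]
    simp
    ring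

end Crest.Agent.R116.D0y219
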