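import Crest.Agent.R116.D0h3_708
import Crest.Agent.R116.D0y1_219
import Crest.Agent.R116.D0ln_665

/-!
# R116 (K side), LEMMA D0 at `β = 2 θa - θb - 1 = 0`, `3 ≤ 5 θa` (helper894)

On the plane `R(v) + t (-1; -ε, -1 - 2 ε)` the slot `D` is constant (and `E || z`, `B || X || F`,
`P || H`), so only `D` is alone there: second level along the record + plane direction
`natB 5 (-3) (-1)`, natural offsets `natB 1 1 4`.

* `exists_psi` : the slot `D` is decoupled in the first tangent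
* `slope_b` : slope of the first tangent along `natB 5 (-3) (-1)` from the rows at the second level
* **`d0h0`** : `D` has zero rate at almost every record box
-/

set_option autoImplicit false
set_option linter.unusedVariables false

open Set Filter Topology MeasureTheory
open scoped NNReal

namespace Crest.Agent.R116.D0h0894

open Crest.Agent.R138
open Crest.Agent.R136
open Crest.Agent.R136.Net191
open Crest.Agent.R136.Dg219 (mw gC dhC nC gset lf gC_eq gC_zero Walls OutS dirC leg_outC leg_legal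
  X_lip mem_gset bup_of_tan Tn)
open Crest.Agent.R116.ChL222
open Crest.Agent.R116.PL504
open Crest.Agent.R116.Sg337 (bx9 natB nb_natB)
open Crest.Agent.R116.SgF665 (wl)
open Crest.Agent.R116.D0F878
open Crest.Agent.R116.D0n878
open Crest.Agent.R116.D0h708
open Crest.Agent.R116.SgO219 (tan_lim tan_ev)
open Dg262 (SupOn)

/-! ### the plane of the second level -/

theorem v14 : natB 1 1 4 0 = 1 ∧ natB 1 1 4 1 = 1 ∧ natB 1 1 4 2 = 2 ∧ natB 1 1 4 3 = 1 ∧
    natB 1 1 4 5 = 2 ∧ natB 1 1 4 7 = 3 ∧ natB 1 1 4 9 = 3 ∧ natB 1 1 4 10 = 4 ∧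
    natB 1 1 4 11 = 5 := by
  refine ⟨?_, ?_, ?_, ?_, ?_, ?_, ?_, ?_, ?_⟩ <;> simp [natB, bx9] <;> norm_num

theorem v53 : natB 5 (-3) (-1) 0 = 5 ∧ natB 5 (-3) (-1) 1 = 0 ∧ natB 5 (-3) (-1) 2 = 5 ∧
    natB 5 (-3) (-1) 3 = -3 ∧ natB 5 (-3) (-1) 5 = 2 ∧ natB 5 (-3) (-1) 7 = 2 ∧
    natB 5 (-3) (-1) 9 = -1 ∧ natB 5 (-3) (-1) 10 = -1 ∧ natB 5 (-3) (-1) 11 = 4 := by
  refine ⟨?_, ?_, ?_, ?_, ?_, ?_, ?_, ?_, ?_⟩ <;> simp [natB, bx9] <;> norm_num

theorem ne14 : ∀ i, natB 1 1 4 i ≠ 0 := fun i => (natB_pos i).ne'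

theorem dh5 : ∀ i ∈ S9, dhC (natB 1 1 4) (natB 5 (-3) (-1)) i ≠ 0 := by
  intro i _
  unfold dhC
  rw [if_neg (ne14 i)]
  exact ne14 i

theorem alone5 : ∀ i ∈ S9, ∀ j ∈ S9, gC (natB 1 1 4) (natB 5 (-3) (-1)) i =
    gC (natB 1 1 4) (natB 5 (-3) (-1)) j → i = j := by
  intro i hi j hj h
  rw [gC_eq (ne14 i) (ne14 j)] at h
  obtain ⟨a0, a1, a2, a3, a5, a7, a9, a10, a11⟩ := v14
  obtain ⟨b0, b1, b2, b3, b5, b7, b9, b10, b11⟩ := v53
  simp only [S9, Finset.mem_insert, Finset.mem_singleton] at hi hj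
  rcases hi with rfl | rfl | rfl | rfl | rfl | rfl | rfl | rfl | rfl <;>
    rcases hj with rfl | rfl | rfl | rfl | rfl | rfl | rfl | rfl | rfl <;>
    first
      | rfl
      | (exfalso
         simp only [a0, a1, a2, a3, a5, a7, a9, a10, a11, b0, b1, b2, b3, b5, b7, b9, b10, b11] at h
         norm_num at h)

/-! ### the slot `D` in the first tangent -/

theorem natB00 (d : ℝ) : natB 0 0 d 1 = d := by simp [natB, bx9]

/-- **`D` is decoupled** -/
theorem exists_psi {a b : Fin 12 → ℝ} (ha1 : a 1 = 0) (ha : ∀ i, i ≠ 1 → a i ≠ 0)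
    {lam : (Fin 12 → ℝ) → ℝ} {A : ℝ × ℝ} {φ : ℕ → (Fin 12 → ℝ) → ℝ} {r : ℕ → ℝ}
    (H : OutS (gC a b) LM (dhC a b) (nC a b) lam A φ r) :
    ∃ ψ : ℝ → ℝ, (∀ d d', d ≤ d' → 0 ≤ ψ d - ψ d' ∧ ψ d - ψ d' ≤ d' - d) ∧
      ∀ c ∈ LM, ∀ y : ℝ, c + y • uD ∈ LM → lam c - lam (c + y • uD) = ψ (c 1) - ψ (c 1 + y) := by
  have h1 : ∀ i, gC a b i = 0 ↔ i = 1 := fun i => by
    rw [gC_zero]
    constructor
    · intro h
      by_contra h2
      exact ha i h2 h
    · rintro rfl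
      exact ha1
  have hl : ∀ c : Fin 12 → ℝ, φ 0 c = φ 0 (natB 0 0 (c 1)) := fun c =>
    H.loc 0 _ _ fun i hi => by
      rw [(h1 i).1 hi, natB00]
  have hfil : Finset.univ.filter (fun i => gC a b i = 0) = {1} := by
    ext i
    simp only [Finset.mem_filter, Finset.mem_univ, true_and, Finset.mem_singleton]
    exact h1 i
  refine ⟨fun d => φ 0 (natB 0 0 d), fun d d' hd => ?_, fun c hc y hc' => ?_⟩
  · have h2 := H.mono 0 _ (natB_mem 0 0 d) _ (natB_mem 0 0 d') fun i hi => by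
      rw [(h1 i).1 hi, natB00, natB00]; exact hd
    rw [hfil, Finset.sum_singleton, natB00, natB00] at h2
    exact h2
  · rw [H.sum c hc, H.sum _ hc', ← Finset.sum_sub_distrib]
    have hm : (0 : ℕ) ∈ gset (gC a b) := by
      have := mem_gset (grp := gC a b) 1
      rwa [(h1 1).2 rfl] at this
    rw [Finset.sum_eq_single_of_mem 0 hm]
    · have e1 : (c + y • uD) 1 = c 1 + y := by
        simp [uD, bx9]
      rw [hl c, hl (c + y • uD), e1]
    · intro k _ hk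
      have : φ k c = φ k (c + y • uD) := H.loc k _ _ fun i hi => by
        have hi1 : i ≠ 1 := fun e => hk (by rw [← hi, e]; exact (h1 1).2 rfl)
        have : uD i = 0 := by
          fin_cases i <;> first | rfl | exact absurd rfl hi1
        simp [this]
      rw [this, sub_self]

/-- the tangent along the plane -/
theorem lam_plane {a b : Fin 12 → ℝ} {lam : (Fin 12 → ℝ) → ℝ} {A : ℝ × ℝ}
    {φ : ℕ → (Fin 12 → ℝ) → ℝ} {r : ℕ → ℝ} (H : OutS (gC a b) LM (dhC a b) (nC a b) lam A φ r)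
    {c : Fin 12 → ℝ} (hc : c ∈ LM) (z : ℝ × ℝ) (he : ∀ i, c i = Tn a b z i) :
    lam c = A.1 * z.1 + A.2 * z.2 := by
  rw [H.sum c hc]
  have h1 : ∀ k ∈ gset (gC a b), φ k c = -(r k * lf (nC a b k) z) := fun k _ =>
    H.rate k c hc _ fun i hi => by
      rw [he i, (dirC (a := a) (b := b)).Tn_eq, hi]
  rw [Finset.sum_congr rfl h1, Finset.sum_neg_distrib, ← H.total z]
  rfl

/-! ### the second level -/

theorem norm14 : ‖natB 1 1 4‖ ≤ 5 := by
  refine (pi_norm_le_iff_of_nonneg (by norm_num)).2 fun k => ?_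
  rw [Real.norm_eq_abs, abs_le]
  fin_cases k <;> simp [natB, bx9] <;> norm_num

theorem X5 (t v : ℝ) : Dg262.X (natB 0 0 0) (natB 1 1 4) (natB 5 (-3) (-1)) (t, v) =
    natB (t + 5 * v) (t - 3 * v) (4 * t - v) := by
  rw [X_nat]
  congr 1 <;> ring

/-- **slope of the first tangent along `natB 5 (-3) (-1)`** -/
theorem slope_b {J : Type*} [Finite J] {P : Set (Fin 12 → ℝ)} {f g : J → (Fin 12 → ℝ) → ℝ} {j0 : J}
    {zp cp pp : ℝ} {h : ℕ → ℝ} (hpos : ∀ l, 0 < h l) (h0 : Tendsto h atTop (𝓝 0))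
    (ht : ∀ j, Ex926.IsTan P LM (f j) (fun _ => natB zp cp pp) h (g j)) {K : ℝ} (hK : 0 ≤ K)
    (hg : ∀ j, ∀ p ∈ LM, ∀ q ∈ LM, |g j p - g j q| ≤ K * ‖p - q‖)
    (hm : ∀ p ∈ LM, ∀ q ∈ LM, p ≤ q → 0 ≤ g j0 p - g j0 q ∧ g j0 p - g j0 q ≤ ∑ i, (q i - p i))
    (hs : SupOn (g j0) LM) {A m κ : ℝ}
    (hA : ∀ M : ℝ, 0 ≤ M → g j0 (natB (5 * M) (-3 * M) (-M)) = M * A)
    {ψ : ℝ → ℝ} (hψ : ∀ d d', d ≤ d' → 0 ≤ ψ d - ψ d' ∧ ψ d - ψ d' ≤ d' - d)
    (hD : ∀ c ∈ LM, ∀ y : ℝ, c + y • uD ∈ LM → g j0 c - g j0 (c + y • uD) = ψ (c 1) - ψ (c 1 + y))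
    (hκ : 0 < κ) (hlive : κ ≤ ψ 0 - ψ 1)
    (hrow : ∀ (X : ℕ → Fin 12 → ℝ) (h' : ℕ → ℝ) (ρ : Fin 12 → ℝ),
      (∀ n, ∃ z c p, X n = natB z c p) → Tendsto X atTop (𝓝 (natB zp cp pp)) →
      (∀ i ∈ S9, 0 ≤ ρ i) → 0 < ρ 1 →
      LinTanD P f j0 X h' (ρ 0) (ρ 5) (ρ 9) (ρ 11) (ρ 3) (ρ 10) (ρ 2) (ρ 7) (ρ 1) →
      m ≤ ∑ i ∈ S9, ρ i * natB 5 (-3) (-1) i) :
    A ≤ -m := by
  have eng := D0y219.engine2 hpos h0 ht hK hg hm hs (z := 0) (c := 0) (p := 0)
    (fun i => (natB_pos i).le) alone5 dh5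
  rw [Measure.volume_eq_prod] at eng
  have eng2 := Measure.ae_ae_of_ae_prod eng
  -- a good offset of `D`
  have hψL : LipschitzOnWith 1 (fun d => -ψ d) (Icc 0 1) := by
    refine LipschitzOnWith.of_dist_le_mul fun x _ y _ => ?_
    rw [Real.dist_eq, Real.dist_eq, NNReal.coe_one, one_mul, abs_le]
    rcases le_total x y with hxy | hxy
    · have h1 := hψ x y hxy
      have h2 := abs_sub_comm x y
      have h3 := le_abs_self (y - x)
      rw [← h2] at h3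
      constructor <;> linarith [h1.1, h1.2]
    · have h1 := hψ y x hxy
      have h3 := le_abs_self (x - y)
      constructor <;> linarith [h1.1, h1.2]
  obtain ⟨t, ht01, htN, htd, htk⟩ := Sg388.exists_deriv_ge hψL (by norm_num : (0:ℝ) < 1)
    (a := κ) (δ := κ / 2) (by linarith) (by positivity) (eng2.mono fun t h1 _ => h1)
  have htN' : ∀ᵐ v : ℝ, _ := htN
  have hder : HasDerivAt (fun d => -ψ d) (deriv (fun d => -ψ d) t) t := htd.hasDerivAt
  set e : ℝ := deriv (fun d => -ψ d) t with he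
  have he0 : 0 < e := by linarith
  -- one line
  set Λ : ℝ → ℝ := fun v => g j0 (Dg262.X (natB 0 0 0) (natB 1 1 4) (natB 5 (-3) (-1)) (t, v))
    with hΛ
  have hmemX : ∀ v : ℝ, Dg262.X (natB 0 0 0) (natB 1 1 4) (natB 5 (-3) (-1)) (t, v) ∈ LM :=
    fun v => by rw [X5]; exact natB_mem _ _ _
  have hΛL : ∀ y, LipschitzOnWith (K.toNNReal * ‖natB 5 (-3) (-1)‖₊) Λ (Icc 0 y) := by
    intro y
    refine LipschitzOnWith.of_dist_le_mul fun x _ x' _ => ?_
    have h1 := hg j0 _ (hmemX x) _ (hmemX x')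
    have e1 : Dg262.X (natB 0 0 0) (natB 1 1 4) (natB 5 (-3) (-1)) (t, x) -
        Dg262.X (natB 0 0 0) (natB 1 1 4) (natB 5 (-3) (-1)) (t, x') =
        (x - x') • natB 5 (-3) (-1) := by
      funext k
      simp only [Dg262.X, Pi.sub_apply, Pi.smul_apply, smul_eq_mul]
      ring
    rw [e1, norm_smul] at h1
    rw [Real.dist_eq, Real.dist_eq, NNReal.coe_mul, Real.coe_toNNReal K hK, coe_nnnorm]
    refine h1.trans (le_of_eq ?_)
    rw [Real.norm_eq_abs]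
    ring
  have hline : ∀ y : ℝ, 0 < y → Λ y ≤ Λ 0 - m * y := by
    intro y hy
    refine D0ln665.le_of_ae (hΛL y) hy ?_
    filter_upwards [htN'] with v hv hvI d hd
    obtain ⟨D, hD1, k, χ, lam, ρ, kpos, k0, hχ, hρ, hlam, hlin, T, d1, d2⟩ := hv
    -- the derivative along the line
    have hd2 : HasDerivAt Λ (D (0, 1)) v := by
      have e1 : HasDerivAt (fun v : ℝ => ((t, v) : ℝ × ℝ)) (0, 1) v :=
        (hasDerivAt_const v t).prodMk (hasDerivAt_id v)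
      exact hD1.comp_hasDerivAt v e1
    rw [hd.unique hd2, d2, neg_le_neg_iff]
    refine hrow _ _ ρ ?_ ?_ hρ ?_ T
    · intro n
      rw [X5, natB_smul, natB_add]
      exact ⟨_, _, _, rfl⟩
    · have h1 : Tendsto (fun n => h (χ n)) atTop (𝓝 0) := h0.comp hχ.tendsto_atTop
      have h2 := (h1.smul_const (Dg262.X (natB 0 0 0) (natB 1 1 4) (natB 5 (-3) (-1)) (t, v)))
      have h3 := h2.const_add (natB zp cp pp)
      simpa using h3
    · -- the rate of `D`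
      have hmu : ∀ l, Dg262.X (natB 0 0 0) (natB 1 1 4) (natB 5 (-3) (-1)) (t, v) +
          k l • uD ∈ LM := by
        intro l i w hw
        have h1 := hmemX v i w hw
        have h2 := lm_raise (u := k l • uD) (fun i => by
          rw [Pi.smul_apply, smul_eq_mul]; exact mul_nonneg (kpos l).le (uD_nonneg i))
          (fun i a1 a3 a4 => by rw [Pi.smul_apply, uD_z i a1 a3 a4, smul_zero]) i w hw
        have h3 : wl w (Dg262.X (natB 0 0 0) (natB 1 1 4) (natB 5 (-3) (-1)) (t, v) + k l • uD) =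
          wl w (Dg262.X (natB 0 0 0) (natB 1 1 4) (natB 5 (-3) (-1)) (t, v)) + wl w (k l • uD) := by
          simp only [SgF665.wl, Pi.add_apply, mul_add, Finset.sum_add_distrib]
        rw [h3, Pi.add_apply]
        linarith
      have h1 := tan_lim kpos (hlam j0) zero_mem (lm_raise uD_nonneg uD_z)
      have e0 : lam j0 0 = 0 := by
        rw [hlin 0 zero_mem (fun i => rfl)]
        simp
      have e1 : lam j0 uD = -ρ 1 := by
        rw [hlin uD (lm_raise uD_nonneg uD_z) (eqp_bx9 _ _ _ _ _ _ _ _ _), sum9]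
        simp [uD, bx9]
      rw [e0, e1, zero_sub, neg_neg] at h1
      have eX1 : Dg262.X (natB 0 0 0) (natB 1 1 4) (natB 5 (-3) (-1)) (t, v) 1 = t := by
        rw [X5]; simp [natB, bx9]; ring
      have h2 : Tendsto (fun l => (-ψ (t + k l) - -ψ t) / k l) atTop (𝓝 e) := by
        have h3 := hder.tendsto_slope_zero_right
        have h4 : Tendsto k atTop (𝓝[>] 0) :=
          tendsto_nhdsWithin_iff.2 ⟨k0, Eventually.of_forall fun l => kpos l⟩
        have h5 := h3.comp h4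
        refine h5.congr fun l => ?_
        simp only [Function.comp, smul_eq_mul]
        rw [div_eq_inv_mul]
      have h3 : ∀ l, (g j0 (Dg262.X (natB 0 0 0) (natB 1 1 4) (natB 5 (-3) (-1)) (t, v) +
          k l • (0 : Fin 12 → ℝ)) - g j0 (Dg262.X (natB 0 0 0) (natB 1 1 4)
            (natB 5 (-3) (-1)) (t, v) + k l • uD)) / k l = (-ψ (t + k l) - -ψ t) / k l := by
        intro l
        rw [smul_zero, add_zero, hD _ (hmemX v) _ (hmu l), eX1]
        congr 1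
        ring
      have h4 : e = ρ 1 := tendsto_nhds_unique h2 (h1.congr h3)
      rw [← h4]
      exact he0
  -- the end
  by_contra hcon
  push Not at hcon
  have hgap : 0 < A + m := by linarith
  set C : ℝ := |Λ 0| + K * (|t| * 5) with hC
  have hC0 : 0 ≤ C := by positivity
  set M : ℝ := (C + 1) / (A + m) with hM
  have hM0 : 0 < M := by positivity
  have h1 := hline M hM0
  have h2 := hg j0 _ (natB_mem (5 * M) (-3 * M) (-M)) _ (hmemX M)
  have e1 : natB (5 * M) (-3 * M) (-M) -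
      Dg262.X (natB 0 0 0) (natB 1 1 4) (natB 5 (-3) (-1)) (t, M) = (-t) • natB 1 1 4 := by
    rw [X5, natB_smul]
    funext k
    rw [Pi.sub_apply]
    fin_cases k <;> simp [natB, bx9] <;> ring
  rw [e1, norm_smul, Real.norm_eq_abs, abs_neg] at h2
  have h3 : K * (|t| * ‖natB 1 1 4‖) ≤ K * (|t| * 5) :=
    mul_le_mul_of_nonneg_left (mul_le_mul_of_nonneg_left norm14 (abs_nonneg _)) hK
  have h4 := (abs_le.1 (h2.trans h3)).2
  rw [hA M hM0.le] at h4
  have h5 := le_abs_self (Λ 0)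
  have h6 : M * (A + m) = C + 1 := by rw [hM]; field_simp
  have h7 : g j0 (Dg262.X (natB 0 0 0) (natB 1 1 4) (natB 5 (-3) (-1)) (t, M)) = Λ M := rfl
  rw [h7] at h4
  rw [hC] at h6
  nlinarith

/-! ### the theorem -/

section

variable {J : Type*} {f : J → (Fin 12 → ℝ) → ℝ} {j0 : J}
  {R K w0 sa sb θa θb δ c s q0 q1 c₀ ε t0 v1 v2 : ℝ}

theorem hd9 : ∀ i : Fin 12, i ≠ 1 → natB 1 ε (1 + 2 * ε) i = 0 → ε = 0 ∨ ε < 0 := by
  intro i hi h
  fin_cases i <;> simp [natB, bx9] at hi h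
  all_goals first | (left; exact h) | (right; linarith)

set_option maxHeartbeats 4000000 in
/-- **LEMMA D0 at `β = 0`, `3 ≤ 5 θ`**: zero rate of the slot `D` at almost every record box. -/
theorem d0h0 [Finite J] (hK : 0 ≤ K)
    (hν : ∀ j, ∀ p ∈ Leg monL R, ∀ q ∈ Leg monL R, |f j p - f j q| ≤ K * ‖p - q‖)
    (hm : ∀ p ∈ Leg monL R, ∀ q ∈ Leg monL R, p ≤ q →
      f j0 q ≤ f j0 p ∧ f j0 p - f j0 q ≤ ∑ i, (q i - p i))
    (hs : ∀ p ∈ Leg monL R, ∀ q ∈ Leg monL R, p ⊓ q ∈ Leg monL R →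
      f j0 p + f j0 q ≤ f j0 (p ⊔ q) + f j0 (p ⊓ q))
    (sh : Shift θa θb w0 sa sb δ R)
    (h5 : 2 * θa - θb - 1 = 0) (h7 : 3 ≤ 5 * θa)
    (hq0 : 0 ≤ q0) (hq1 : 0 ≤ q1) (hc : 1 + q1 < c)
    (hε : 0 < ε) (hε1 : ε ≤ 1) (h6 : ε ≤ θa)
    (ht0 : 0 < t0) (ht : 4 * t0 ≤ δ) (hv1 : 0 ≤ v1) (hv2 : v2 ≤ 1)
    (hrec : ∀ v ∈ Ioo v1 v2, c₀ + DN c s q0 q1 θa θb v (θa * (1 - v)) (θb * (1 - v)) ≤
      f j0 (rL θa θb w0 sa sb v))
    (hdm : ∀ v ∈ Ioo v1 v2, ∀ t ∈ Ioo 0 t0, f j0 (XP θa θb w0 sa sb ε v t) ≤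
      c₀ + DN c s q0 q1 θa θb (v - t) (θa * (1 - v) - ε * t) (θb * (1 - v) - (1 + 2 * ε) * t))
    (hfac : ∀ v ∈ Ioo v1 v2, ∀ t ∈ Ioo 0 t0, ∀ (X : ℕ → Fin 12 → ℝ) (h : ℕ → ℝ)
      (rz rX rH rF gC gP gE gB gD : ℝ), (∀ n, ∃ z c p, X n = natB z c p) →
      Tendsto X atTop (𝓝 (XP θa θb w0 sa sb ε v t)) →
      LinTanD (Leg monL R) f j0 X h rz rX rH rF gC gP gE gB gD →
      1 - s ≤ rz ∧ gC ≤ rX ∧ gP ≤ rF ∧ gD ≤ gE ∧ (0 < gC → rX ≤ rH) ∧ (0 < gD → rH ≤ gP)) :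
    ∀ᵐ v : ℝ, v ∈ Ioo v1 v2 → Tendsto (fun y : ℝ => (f j0 (rL θa θb w0 sa sb v) -
      f j0 (rL θa θb w0 sa sb v + y • (Pi.single 1 1 : Fin 12 → ℝ))) / y) (𝓝[>] 0) (𝓝 0) := by
  have hδ := sh.d0
  have hθ : 0 < θa := by linarith
  have e35 : 0 < 3 + 5 * ε := by linarith
  set q : ℝ := (5 * θa - 0 - 3) / (3 + 5 * ε) with hqd
  have hq : 0 ≤ q := div_nonneg (by linarith) e35.le
  have hqe : q * (3 + 5 * ε) = 5 * θa - 0 - 3 := by rw [hqd]; field_simp
  set κ : ℝ := c - 1 - q1 with hκd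
  have hκ : 0 < κ := by rw [hκd]; linarith
  set A1 : ℝ := (c - 4 + s) + (3 + q0) * θa + (1 + q1) * θb with hA1
  set A2 : ℝ := -(c - 4 + s) + (3 + q0) * ε + (1 + q1) * (1 + 2 * ε) with hA2
  set ℓ : ℝ × ℝ →L[ℝ] ℝ := A1 • ContinuousLinearMap.fst ℝ ℝ ℝ +
    A2 • ContinuousLinearMap.snd ℝ ℝ ℝ with hℓ
  have ℓ_val : ∀ z : ℝ × ℝ, ℓ z = A1 * z.1 + A2 * z.2 := fun z => by simp [hℓ]
  set x0 : Fin 12 → ℝ := natB w0 (sa + θa) (sb + θb) with hx0
  set G : ℝ × ℝ → ℝ := fun y => f j0 (Dg262.X x0 (natB 1 ε (1 + 2 * ε)) (natB 1 (-θa) (-θb)) y)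
    with hG
  set F : ℝ × ℝ → ℝ := fun z => G (-z.2, z.1) - c₀ - ℓ z with hF
  have GX : ∀ v t : ℝ, G (-t, v) = f j0 (XP θa θb w0 sa sb ε v t) := fun v t => by
    simp only [hG, hx0]; rw [X_XP]
  set Ω : Set (ℝ × ℝ) := Ioo v1 v2 ×ˢ Ioo 0 t0 with hΩ
  have hin : ∀ z ∈ Ω, 0 ≤ z.1 ∧ z.1 ≤ 1 ∧ 0 < z.2 ∧ z.2 ≤ t0 := fun z hz =>
    ⟨hv1.trans hz.1.1.le, hz.1.2.le.trans hv2, hz.2.1, hz.2.2.le⟩
  have hleg : ∀ z ∈ Ω, XP θa θb w0 sa sb ε z.1 z.2 ∈ Leg monL R := fun z hz => by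
    obtain ⟨a1, a2, a3, a4⟩ := hin z hz
    exact XP_leg sh hε hε1 ht a1 a2 a3 a4
  -- `F ≤ 0`
  have hup : ∀ z ∈ Ω, F z ≤ 0 := fun z hz => by
    have e1 := hdm z.1 hz.1 z.2 hz.2
    rw [DN_lin] at e1
    simp only [hF]
    rw [GX, ℓ_val]
    linarith
  -- lower bound
  set K' : ℝ := K * ‖natB 1 ε (1 + 2 * ε)‖ + |A2| with hK'
  have hlow : ∀ z ∈ Ω, -(K' * z.2) ≤ F z := fun z hz => by
    obtain ⟨a1, a2, a3, a4⟩ := hin z hz
    have e1 := hrec z.1 hz.1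
    have e2 := DN_lin (c := c) (s := s) (q0 := q0) (q1 := q1) (θa := θa) (θb := θb) (ε := ε) z.1 0
    simp only [mul_zero, sub_zero, add_zero] at e2
    rw [e2] at e1
    have e3 := hν j0 _ (rL_mem sh a1 a2) _ (hleg z hz)
    have e4 : rL θa θb w0 sa sb z.1 - XP θa θb w0 sa sb ε z.1 z.2 =
        z.2 • natB 1 ε (1 + 2 * ε) := by
      rw [rL_XP θa θb w0 sa sb ε, XP, XP, natB_smul, sub_eq_iff_eq_add, natB_add]
      congr 1 <;> ring
    rw [e4, norm_smul, Real.norm_eq_abs, abs_of_pos a3] at e3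
    have e5 := (abs_le.1 e3).2
    have e6 := mul_le_mul_of_nonneg_right (le_abs_self A2) a3.le
    simp only [hF]
    rw [GX, ℓ_val, hK']
    linarith
  -- Lipschitz
  obtain ⟨K1, hK1⟩ : ∃ K1 : ℝ≥0, (K1 : ℝ) = K := ⟨⟨K, hK⟩, rfl⟩
  have hlip : LipschitzOnWith (K1 * (‖natB 1 ε (1 + 2 * ε)‖₊ + ‖natB 1 (-θa) (-θb)‖₊) + ‖ℓ‖₊) F
      Ω := by
    refine LipschitzOnWith.of_dist_le_mul fun z hz z' hz' => ?_
    have e1 := hν j0 _ (hleg z hz) _ (hleg z' hz')
    have e2 := (X_lip x0 (natB 1 ε (1 + 2 * ε)) (natB 1 (-θa) (-θb))).dist_le_mul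
      (-z.2, z.1) (-z'.2, z'.1)
    rw [hx0, X_XP, X_XP, dist_eq_norm] at e2
    have e3 : dist ((-z.2, z.1) : ℝ × ℝ) (-z'.2, z'.1) = dist z z' := by
      rw [Prod.dist_eq, Prod.dist_eq, dist_neg_neg, max_comm]
    rw [e3] at e2
    have e4 : |ℓ z - ℓ z'| ≤ ‖ℓ‖ * dist z z' := by
      rw [← map_sub, ← Real.norm_eq_abs, dist_eq_norm]
      exact ℓ.le_opNorm _
    have e5 : F z - F z' = (f j0 (XP θa θb w0 sa sb ε z.1 z.2) -
        f j0 (XP θa θb w0 sa sb ε z'.1 z'.2)) - (ℓ z - ℓ z') := by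
      simp only [hF]; rw [GX, GX]; ring
    rw [Real.dist_eq, e5]
    refine (abs_sub _ _).trans ?_
    have e6 : K * ‖XP θa θb w0 sa sb ε z.1 z.2 - XP θa θb w0 sa sb ε z'.1 z'.2‖ ≤
        K * (((‖natB 1 ε (1 + 2 * ε)‖₊ + ‖natB 1 (-θa) (-θb)‖₊ : ℝ≥0) : ℝ) * dist z z') :=
      mul_le_mul_of_nonneg_left e2 hK
    have e7 : (((K1 * (‖natB 1 ε (1 + 2 * ε)‖₊ + ‖natB 1 (-θa) (-θb)‖₊) + ‖ℓ‖₊ : ℝ≥0)) : ℝ) *
        dist z z' = K * (((‖natB 1 ε (1 + 2 * ε)‖₊ + ‖natB 1 (-θa) (-θb)‖₊ : ℝ≥0) : ℝ) *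
        dist z z') + ‖ℓ‖ * dist z z' := by
      rw [NNReal.coe_add, NNReal.coe_mul, hK1, coe_nnnorm]; ring
    rw [e7]
    linarith
  -- the first level
  have hen := ae_rot (leg_outC monL hK (hν j0) hm hs (x0 := x0) (a := natB 1 ε (1 + 2 * ε))
    (b := natB 1 (-θa) (-θb)) (aN_nonneg hε))
  have eL := L_nat w0 (sa + θa) (sb + θb) 1 ε (1 + 2 * ε) 1 (-θa) (-θb)
  rw [← hx0] at eL
  -- null sets
  have hnull : ∀ m : ℕ, volume (⋂ k, VU (f j0) θa θb w0 sa sb δ v1 v2 m k) = 0 := by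
    intro m
    set V : Set ℝ := ⋂ k, VU (f j0) θa θb w0 sa sb δ v1 v2 m k with hV
    have hVm : MeasurableSet V :=
      MeasurableSet.iInter fun k => (VU_open hK (hν j0) sh hv1 hv2 m k).measurableSet
    have hsub : V ∩ Ioo v1 v2 = V := inter_eq_left.2 fun v hv => (mem_iInter.1 hv 0).1
    rw [← hsub]
    refine slant (F := F) (K' := K') (κ := κ) (q := q) ht0 hq hκ hlip hlow hup hVm ?_
    filter_upwards [hen] with z hz hzΩ hzV _
    obtain ⟨a1, a2, a3, a4⟩ := hin z hzΩ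
    have hXz : Dg262.X x0 (natB 1 ε (1 + 2 * ε))
        (natB 1 (-θa) (-θb)) (-z.2, z.1) = XP θa θb w0 sa sb ε z.1 z.2 := X_XP _ _ _ _ _ _ _ _
    have hO : (-z.2, z.1) ∈ (mw monL).O (fun _ => 0) (fun _ => R) x0 (natB 1 ε (1 + 2 * ε))
        (natB 1 (-θa) (-θb)) := O_nat (fun k => by
      rw [hXz]; exact XP_box sh hε hε1 ht a1 a2 a3 a4 k)
    obtain ⟨D, hD, hT⟩ := hz hO
    choose y hy0 hyδ hyk hy using fun k => (mem_iInter.1 hzV k).2
    have hy1 : Tendsto y atTop (𝓝 0) :=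
      squeeze_zero (fun k => (hy0 k).le) (fun k => (hyk k).le)
        tendsto_one_div_add_atTop_nhds_zero_nat
    obtain ⟨χ, hχ, lam, hlam⟩ := Rc683.exists_tan (J := J) (P := fun _ => Leg monL R)
      (D := fun _ => (mw monL).L x0 (natB 1 ε (1 + 2 * ε)) (natB 1 (-θa) (-θb)))
      (fun _ => Walls.isClosed_L) hK hν
      (x := fun _ => Dg262.X x0 (natB 1 ε (1 + 2 * ε)) (natB 1 (-θa) (-θb)) (-z.2, z.1)) hy0
      (fun _ C => by
        obtain ⟨h1, hh1, hl⟩ := leg_legal monL hO C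
        filter_upwards [hy1.eventually_lt_const hh1] with l hl1 c' hc' hC
        exact hl (y l) (hy0 l) hl1 c' hc' hC) (fun _ => by rw [eL]; exact zero_mem)
    have hχ0 : Tendsto (fun l => y (χ l)) atTop (𝓝 0) := hy1.comp hχ.tendsto_atTop
    obtain ⟨φ, r, HO⟩ := hT (fun l => y (χ l)) (fun l => hy0 _) hχ0 (lam j0) (hlam j0)
    have hlam' : ∀ j, Ex926.IsTan (Leg monL R) LM (f j)
        (fun _ => XP θa θb w0 sa sb ε z.1 z.2) (fun l => y (χ l)) (lam j) := fun j => by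
      have := hlam j
      rw [eL, hXz] at this
      exact this
    rw [eL] at HO
    have z0L : (0 : Fin 12 → ℝ) ∈ LM := zero_mem
    obtain ⟨ψ, hψ, hψD⟩ := exists_psi (aN_one ε) (fun i hi h => by
      rcases hd9 i hi h with h | h <;> linarith) HO
    -- `D` is live in the first tangent
    have hlive : 1 / ((m : ℝ) + 1) ≤ ψ 0 - ψ 1 := by
      have hmem : uD ∈ LM := lm_raise uD_nonneg uD_z
      have k1 := tan_lim (fun l => hy0 _) (hlam' j0) z0L hmem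
      have k2 := hψD 0 z0L 1 (by rw [zero_add, one_smul]; exact hmem)
      rw [zero_add, one_smul, Pi.zero_apply, zero_add] at k2
      rw [k2] at k1
      refine ge_of_tendsto k1 (Eventually.of_forall fun l => ?_)
      rw [smul_zero, add_zero, le_div_iff₀ (hy0 _)]
      have eu : uD = (Pi.single 1 1 : Fin 12 → ℝ) := single_one.symm
      rw [eu]
      have e1 := hy (χ l)
      have e2 := incr (ν := f j0) hs (p := XP θa θb w0 sa sb ε z.1 z.2)
        (q := rL θa θb w0 sa sb z.1) (u := y (χ l) • (Pi.single 1 1 : Fin 12 → ℝ)) ?_ ?_ ?_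
        (hleg z hzΩ) (rL_mem sh a1 a2) ?_
      · have e3 : 1 / ((m : ℝ) + 1) * y (χ l) = y (χ l) / ((m : ℝ) + 1) := by ring
        rw [e3]
        exact e1.le.trans e2
      · rw [rL_XP θa θb w0 sa sb ε]
        intro k
        have e4 : 0 < ε * z.2 := mul_pos hε a3
        fin_cases k <;> simp [XP, natB, bx9] <;> nlinarith
      · intro k
        rw [Pi.smul_apply, smul_eq_mul]
        refine mul_nonneg (hy0 _).le ?_
        by_cases h : k = 1
        · subst h; simp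
        · rw [Pi.single_eq_of_ne h]
      · intro k hk
        by_cases h : k = 1
        · subst h
          rw [rL_XP θa θb w0 sa sb ε]
          simp [XP, natB, bx9]
          ring
        · exfalso
          apply hk
          rw [Pi.smul_apply, Pi.single_eq_of_ne h, smul_zero]
      · refine leg_raise (hleg z hzΩ) (fun k => ?_) (fun k hk _ _ => ?_) (fun k => ?_)
        · rw [Pi.smul_apply, smul_eq_mul]
          refine mul_nonneg (hy0 _).le ?_
          by_cases h : k = 1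
          · subst h; simp
          · rw [Pi.single_eq_of_ne h]
        · rw [Pi.smul_apply, Pi.single_eq_of_ne hk, smul_zero]
        · have e5 : XP θa θb w0 sa sb ε z.1 z.2 1 = rL θa θb w0 sa sb z.1 1 := by
            rw [rL_XP θa θb w0 sa sb ε]
            simp [XP, natB, bx9]
            ring
          by_cases h : k = 1
          · subst h
            rw [e5]
            exact (rLD_mem sh a1 a2 (hy0 (χ l)).le (hyδ _)).2 1
          · rw [Pi.smul_apply, Pi.single_eq_of_ne h, smul_zero, add_zero]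
            exact (hleg z hzΩ).2 k
    -- the first tangent
    have hS1 : 0 < 1 + q := by linarith
    have eθb : θb = 2 * θa - 1 := by linarith
    have hμ : θa - q * ε = 3 * (1 + q) / 5 := by linarith
    set A : ℝ := 5 / (1 + q) * (q * D (1, 0) + D (0, 1)) with hAd
    have hA : ∀ M : ℝ, 0 ≤ M → lam j0 (natB (5 * M) (-3 * M) (-M)) = M * A := by
      intro M _
      rw [lam_plane HO (natB_mem _ _ _) (5 * M / (1 + q) * q, 5 * M / (1 + q)) ?_]
      · rw [hAd]; field_simp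
      · intro i
        have e1 : 5 * M / (1 + q) * (1 + q) = 5 * M := by field_simp
        have e2 : 5 * M / (1 + q) * (θa - q * ε) = 3 * M := by rw [hμ]; field_simp
        set w : ℝ := 5 * M / (1 + q) with hw
        have e3 : Tn (natB 1 ε (1 + 2 * ε)) (natB 1 (-θa) (-θb)) (w * q, w) =
            natB (w * (1 + q)) (-(w * (θa - q * ε))) (w * (1 + q) - 2 * (w * (θa - q * ε))) := by
          funext k
          rw [eθb]
          fin_cases k <;> simp [Tn, natB, bx9] <;> ring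
        rw [e3, e1, e2]
        congr 1 <;> ring
    set N1 : ℝ := κ - ((1 + q) * (c - 4 + s) + (3 + q0) * (θa - q * ε) +
      (1 + q1) * (2 * (θa - q * ε) - (1 + q))) with hN1
    have hK'' : ∀ j, ∀ p ∈ LM, ∀ p' ∈ LM, |lam j p - lam j p'| ≤ K * ‖p - p'‖ := fun j p hp p' hp' => by
      have := (bup_of_tan (fun l => hy0 _) hχ0 (hlam' j)).lip (K := K) (fun p hp q hq => by
        rw [dist_eq_norm]; exact hν j p hp q hq) p hp p' hp'
      rwa [dist_eq_norm] at this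
    have hmain := slope_b (f := f) (g := lam) (j0 := j0) (P := Leg monL R)
      (zp := w0 + z.1 - z.2) (cp := sa + θa * (1 - z.1) - ε * z.2)
      (pp := sb + θb * (1 - z.1) - (1 + 2 * ε) * z.2) (h := fun l => y (χ l))
      (fun l => hy0 _) hχ0 hlam' hK hK''
      ((bup_of_tan (fun l => hy0 _) hχ0 (hlam' j0)).mono (fun p hp q hq hpq => by
        have := hm p hp q hq hpq
        exact ⟨by linarith [this.1], this.2⟩))
      ((bup_of_tan (fun l => hy0 _) hχ0 (hlam' j0)).smod (fun p hp q hq h1 h2 => hs p hp q hq h1))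
      (A := A) (m := 5 / (1 + q) * N1) (κ := 1 / ((m : ℝ) + 1)) hA hψ hψD (by positivity) hlive
      (by
        intro X h' ρ hX hX0 hρ hgD T
        obtain ⟨hgz, P1, P2, P3, H1, S3⟩ := hfac z.1 hzΩ.1 z.2 hzΩ.2 X h' _ _ _ _ _ _ _ _ _ hX
          hX0 T
        have r0 : 0 ≤ ρ 3 := hρ 3 (by decide)
        have r1 : 0 ≤ ρ 10 := hρ 10 (by decide)
        have r2 : 0 ≤ ρ 2 := hρ 2 (by decide)
        have r3 : 0 ≤ ρ 7 := hρ 7 (by decide)
        have r4 : 0 ≤ ρ 9 := hρ 9 (by decide)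
        have P4 : ρ 3 ≤ ρ 9 := by
          rcases r0.lt_or_eq with h | h
          · exact P1.trans (H1 h)
          · rw [← h]; exact r4
        have hrow := rowH (θ := θa) (β := 0) (ε := ε) (q := q) (S := 1 + q) (c := c) (s := s)
          (q0 := q0) (q1 := q1) hε (by norm_num) (by norm_num) (by linarith) hq0 hq1 hc hq hqe rfl
          hgz r0 r1 r2 r3 hgD.le P1 P2 P3 P4 (S3 hgD)
        have e1 : N1 ≤ (1 + q) / 5 * ∑ i ∈ S9, ρ i * natB 5 (-3) (-1) i := by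
          rw [sum9]
          obtain ⟨b0, b1, b2, b3, b5, b7, b9, b10, b11⟩ := v53
          rw [b0, b1, b2, b3, b5, b7, b9, b10, b11, hN1]
          rw [hμ] at hrow ⊢
          refine le_of_sub_nonneg ?_
          have hrow' := sub_nonneg.2 hrow
          refine hrow'.trans (le_of_eq ?_)
          ring
        have e2 : 5 / (1 + q) * N1 ≤ 5 / (1 + q) *
            ((1 + q) / 5 * ∑ i ∈ S9, ρ i * natB 5 (-3) (-1) i) :=
          mul_le_mul_of_nonneg_left e1 (by positivity)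
        have e3 : 5 / (1 + q) * ((1 + q) / 5 * ∑ i ∈ S9, ρ i * natB 5 (-3) (-1) i) =
            ∑ i ∈ S9, ρ i * natB 5 (-3) (-1) i := by field_simp
        rwa [e3] at e2)
    have hfin : q * D (1, 0) + D (0, 1) ≤ -N1 := by
      have e1 : (1 + q) / 5 * A ≤ (1 + q) / 5 * -(5 / (1 + q) * N1) :=
        mul_le_mul_of_nonneg_left hmain (by positivity)
      have e2 : (1 + q) / 5 * A = q * D (1, 0) + D (0, 1) := by rw [hAd]; field_simp
      have e3 : (1 + q) / 5 * -(5 / (1 + q) * N1) = -N1 := by field_simp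
      rwa [e2, e3] at e1
    -- the derivative
    have hder : HasFDerivAt F (D.comp ((-(ContinuousLinearMap.snd ℝ ℝ ℝ)).prod
        (ContinuousLinearMap.fst ℝ ℝ ℝ)) - ℓ) z := by
      have e1 : HasFDerivAt (fun z : ℝ × ℝ => ((-z.2, z.1) : ℝ × ℝ))
          ((-(ContinuousLinearMap.snd ℝ ℝ ℝ)).prod (ContinuousLinearMap.fst ℝ ℝ ℝ)) z :=
        ((-(ContinuousLinearMap.snd ℝ ℝ ℝ)).prod
          (ContinuousLinearMap.fst ℝ ℝ ℝ)).hasFDerivAt
      have e2 : HasFDerivAt G D (-z.2, z.1) := hD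
      exact ((e2.comp z e1).sub_const c₀).sub ℓ.hasFDerivAt
    rw [hder.fderiv]
    have e1 : (D.comp ((-(ContinuousLinearMap.snd ℝ ℝ ℝ)).prod
        (ContinuousLinearMap.fst ℝ ℝ ℝ)) - ℓ) (-1, q) =
        -(q * D (1, 0)) - D (0, 1) - (A1 * (-1) + A2 * q) := by
      rw [sub_apply, ℓ_val]
      have e2 : (D.comp ((-(ContinuousLinearMap.snd ℝ ℝ ℝ)).prod
          (ContinuousLinearMap.fst ℝ ℝ ℝ))) (-1, q) = D (-q, -1) := rfl
      have e3 : ((-q, -1) : ℝ × ℝ) = (-q) • ((1, 0) : ℝ × ℝ) + (-1 : ℝ) • ((0, 1) : ℝ × ℝ) := by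
        ext <;> simp
      rw [e2, e3, map_add, map_smul, map_smul, smul_eq_mul, smul_eq_mul]
      ring
    rw [e1]
    have e2 : κ = N1 - (A1 * (-1) + A2 * q) := by
      rw [hN1, hA1, hA2, eθb]; ring
    linarith
  -- the limit
  have hae : ∀ᵐ v : ℝ, ∀ m : ℕ, v ∉ ⋂ k, VU (f j0) θa θb w0 sa sb δ v1 v2 m k :=
    ae_all_iff.2 fun m => measure_eq_zero_iff_ae_notMem.1 (hnull m)
  filter_upwards [hae] with v hv hvI
  have a1 : 0 ≤ v := hv1.trans hvI.1.le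
  have a2 : v ≤ 1 := hvI.2.le.trans hv2
  rw [Metric.tendsto_nhds]
  intro e he
  obtain ⟨m, hm'⟩ := exists_nat_one_div_lt he
  have h8 := hv m
  rw [mem_iInter] at h8
  push Not at h8
  obtain ⟨k, hk⟩ := h8
  have e1 : ∀ᶠ y : ℝ in 𝓝[>] (0 : ℝ), y < min δ (1 / ((k : ℝ) + 1)) := by
    refine (eventually_lt_nhds ?_).filter_mono nhdsWithin_le_nhds
    exact lt_min hδ (by positivity)
  filter_upwards [e1, self_mem_nhdsWithin] with y hy hy0
  have hy0' : (0 : ℝ) < y := hy0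
  have hyδ : y ≤ δ := hy.le.trans (min_le_left _ _)
  have e2 : f j0 (rL θa θb w0 sa sb v) -
      f j0 (rL θa θb w0 sa sb v + y • (Pi.single 1 1 : Fin 12 → ℝ)) ≤ y / ((m : ℝ) + 1) := by
    by_contra hcon
    push Not at hcon
    exact hk ⟨hvI, y, hy0', hyδ, hy.trans_le (min_le_right _ _), hcon⟩
  have e3 : 0 ≤ f j0 (rL θa θb w0 sa sb v) -
      f j0 (rL θa θb w0 sa sb v + y • (Pi.single 1 1 : Fin 12 → ℝ)) := by
    have := (hm _ (rL_mem sh a1 a2) _ (rLD_mem sh a1 a2 hy0'.le hyδ) (by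
      intro i
      rw [Pi.add_apply, Pi.smul_apply, smul_eq_mul]
      have : 0 ≤ (Pi.single 1 1 : Fin 12 → ℝ) i := by
        by_cases h : i = 1
        · subst h; simp
        · rw [Pi.single_eq_of_ne h]
      have := mul_nonneg hy0'.le this
      linarith)).1
    linarith
  rw [Real.dist_eq, sub_zero, abs_of_nonneg (div_nonneg e3 hy0'.le), div_lt_iff₀ hy0']
  have e4 : y / ((m : ℝ) + 1) = 1 / ((m : ℝ) + 1) * y := by ring
  rw [e4] at e2
  have e5 := mul_lt_mul_of_pos_right hm' hy0'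
  linarith

end

end Crest.Agent.R116.D0h0894
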