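import Mathlib

/-!
# R116 (K side), D4: analytic half of the lemmas D0 and SIG (helper388; doc 2383 of 194)

* `exists_deriv_ge` : a Lipschitz function on an interval has, in every co-null set, a point where
  its derivative is `≥` its mean slope minus `δ`.
* `exists_rate`, `exists_rate_on` : the same along a segment of `Fin m → ℝ` (any direction `v`), full
  differentiability, arbitrary co-null set, point in the open `η`-neighbourhood of the segment.
* `exists_rateS` : direction `1_S`, the sum of the partial derivatives.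
* `exists_pt_fib` : over a set `V` of positive measure.
* `exists_pt_plane` : below a curve.
* `incr_anti` : increments are antitone.
-/

set_option autoImplicit false

open MeasureTheory Set Filter Topology
open scoped NNReal

namespace Crest.Agent.R116.Sg388

/-! ### one variable -/

theorem exists_deriv_ge {g : ℝ → ℝ} {K : ℝ≥0} {x y a δ : ℝ} (hg : LipschitzOnWith K g (Icc x y))
    (hxy : x < y) (h : a * (y - x) ≤ g y - g x) (hδ : 0 < δ) {N : Set ℝ}
    (hN : ∀ᵐ t, t ∈ Ioo x y → t ∈ N) :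
    ∃ t ∈ Ioo x y, t ∈ N ∧ DifferentiableAt ℝ g t ∧ a - δ ≤ deriv g t := by
  by_contra hcon
  push Not at hcon
  have hac : AbsolutelyContinuousOnInterval g x y :=
    LipschitzOnWith.absolutelyContinuousOnInterval (by rwa [uIcc_of_le hxy.le])
  have hI := hac.integral_deriv_eq_sub
  have hii := hac.intervalIntegrable_deriv
  have hae : ∀ᵐ t, t ∈ Ioo x y → deriv g t ≤ a - δ := by
    filter_upwards [hN, hac.ae_differentiableAt] with t h1 h2 ht
    have h3 : t ∈ uIcc x y := by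
      rw [uIcc_of_le hxy.le]; exact Ioo_subset_Icc_self ht
    exact (hcon t ht (h1 ht) (h2 h3)).le
  have hle : ∫ t in x..y, deriv g t ≤ ∫ t in x..y, (a - δ) := by
    refine intervalIntegral.integral_mono_ae_restrict hxy.le hii intervalIntegrable_const ?_
    have h1 : ∀ᵐ t ∂(volume.restrict (Icc x y)), t ∈ Ioo x y := by
      rw [← restrict_Ioo_eq_restrict_Icc]
      exact ae_restrict_mem measurableSet_Ioo
    filter_upwards [h1, ae_restrict_of_ae hae] with t h2 h3 using h3 h2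
  rw [hI, intervalIntegral.integral_const, smul_eq_mul] at hle
  nlinarith

/-! ### several variables -/

section

variable {E : Type*} [NormedAddCommGroup E] [NormedSpace ℝ E] [FiniteDimensional ℝ E]
  [MeasurableSpace E] [BorelSpace E] {μ : Measure E} [μ.IsAddHaarMeasure]

/-- along a segment of a finite dimensional space. -/
theorem exists_rate_E {Φ : E → ℝ} {K : ℝ≥0} (hΦ : LipschitzWith K Φ) {p v : E} {y a δ η : ℝ}
    (hy : 0 < y) (h : a * y ≤ Φ (p + y • v) - Φ p) (hδ : 0 < δ) (hη : 0 < η) {N : Set E}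
    (hN : ∀ᵐ q ∂μ, q ∈ N) :
    ∃ q ∈ N, (∃ t ∈ Ioo 0 y, ‖q - (p + t • v)‖ < η) ∧ DifferentiableAt ℝ Φ q ∧
      a - δ ≤ fderiv ℝ Φ q v := by
  -- a measurable co-null set
  set M : Set E := toMeasurable μ Nᶜ with hM
  have hMm : MeasurableSet M := measurableSet_toMeasurable _ _
  have hM0 : μ M = 0 := by rw [hM, measure_toMeasurable]; exact hN
  have hMN : Mᶜ ⊆ N := by
    rw [compl_subset_comm]; exact subset_toMeasurable _ _
  have hΦm : MeasurableSet {q | DifferentiableAt ℝ Φ q} := measurableSet_of_differentiableAt ℝ Φ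
  set s : Set E := Mᶜ ∩ {q | DifferentiableAt ℝ Φ q} with hs
  have hsm : MeasurableSet s := hMm.compl.inter hΦm
  have hsa : ∀ᵐ q ∂μ, q ∈ s := by
    have h1 : ∀ᵐ q ∂μ, q ∈ Mᶜ := measure_eq_zero_iff_ae_notMem.1 hM0
    filter_upwards [h1, hΦ.ae_differentiableAt (μ := μ)] with q a1 a2 using ⟨a1, a2⟩
  set L : ℝ →ₗ[ℝ] E := LinearMap.toSpanSingleton ℝ E v with hL
  have hfib : ∀ᵐ q ∂μ, ∀ᵐ t : ℝ, q + L t ∈ s :=
    (ae_ae_add_linearMap_mem_iff L volume μ hsm).2 hsa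
  -- a good base point near `p`
  set r : ℝ := min η (δ * y / (4 * ((K : ℝ) + 1))) with hr
  have hr0 : 0 < r := lt_min hη (by positivity)
  have hpos : 0 < μ (Metric.ball p r) := Metric.measure_ball_pos μ p hr0
  obtain ⟨q, hq, hq2⟩ : ∃ q ∈ Metric.ball p r, ∀ᵐ t : ℝ, q + L t ∈ s := by
    by_contra hcon
    have hsub : Metric.ball p r ⊆ {q | ¬ ∀ᵐ t : ℝ, q + L t ∈ s} :=
      fun q hq hP => hcon ⟨q, hq, hP⟩
    exact hpos.ne' (measure_mono_null hsub (ae_iff.1 hfib))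
  rw [Metric.mem_ball, dist_eq_norm] at hq
  -- one variable
  have hgL : LipschitzWith (K * ‖v‖₊) fun t : ℝ => Φ (q + t • v) := by
    refine LipschitzWith.of_dist_le_mul fun t t' => ?_
    have h1 := hΦ.dist_le_mul (q + t • v) (q + t' • v)
    have h2 : dist (q + t • v) (q + t' • v) = dist t t' * ‖v‖ := by
      rw [dist_add_left, dist_eq_norm, ← sub_smul, norm_smul, Real.dist_eq, Real.norm_eq_abs]
    rw [h2] at h1
    refine h1.trans (le_of_eq ?_)
    push_cast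
    ring
  have hslope : (a - δ / 2) * (y - 0) ≤ Φ (q + y • v) - Φ (q + (0 : ℝ) • v) := by
    have h1 := hΦ.dist_le_mul (q + y • v) (p + y • v)
    have h2 := hΦ.dist_le_mul q p
    rw [dist_add_right, dist_eq_norm q p] at h1
    rw [dist_eq_norm q p] at h2
    rw [Real.dist_eq] at h1 h2
    have h3 : (K : ℝ) * ‖q - p‖ ≤ δ * y / 4 := by
      have h4 : ‖q - p‖ ≤ δ * y / (4 * ((K : ℝ) + 1)) := hq.le.trans (min_le_right _ _)
      have hK : (0 : ℝ) ≤ K := K.coe_nonneg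
      calc (K : ℝ) * ‖q - p‖ ≤ ((K : ℝ) + 1) * (δ * y / (4 * ((K : ℝ) + 1))) := by
            refine mul_le_mul (by linarith) h4 (norm_nonneg _) (by positivity)
        _ = δ * y / 4 := by field_simp
    have h5 := (abs_le.1 h1).1
    have h6 := (abs_le.1 h2).2
    rw [zero_smul, add_zero]
    nlinarith
  obtain ⟨t, ht, ht2, ht3, ht4⟩ := exists_deriv_ge (g := fun t : ℝ => Φ (q + t • v))
    (hgL.lipschitzOnWith (s := Icc 0 y)) hy hslope (half_pos hδ) (N := {t | q + L t ∈ s})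
    (by filter_upwards [hq2] with t h1 _ using h1)
  have hLt : L t = t • v := by rw [hL, LinearMap.toSpanSingleton_apply]
  have ht2' : q + t • v ∈ s := by rw [← hLt]; exact ht2
  refine ⟨q + t • v, hMN ht2'.1, ⟨t, ht, ?_⟩, ht2'.2, ?_⟩
  · rw [add_sub_add_right_eq_sub]
    exact hq.trans_le (min_le_left _ _)
  · have hd : HasDerivAt (fun t : ℝ => Φ (q + t • v)) (fderiv ℝ Φ (q + t • v) v) t := by
      have h1 : HasFDerivAt Φ (fderiv ℝ Φ (q + t • v)) (q + t • v) := ht2'.2.hasFDerivAt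
      have h2 : HasDerivAt (fun t : ℝ => q + t • v) v t := by
        have := ((hasDerivAt_id t).smul_const v).const_add q
        simpa using this
      exact h1.comp_hasDerivAt t h2
    rw [hd.deriv] at ht4
    linarith

end

/-- along a segment, Lipschitz on a set which contains the `η`-neighbourhood of the segment. -/
theorem exists_rate_on {E : Type*} [NormedAddCommGroup E] [NormedSpace ℝ E]
    [FiniteDimensional ℝ E] [MeasurableSpace E] [BorelSpace E] {μ : Measure E}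
    [μ.IsAddHaarMeasure] {Φ : E → ℝ} {K : ℝ≥0} {D : Set E} (hΦ : LipschitzOnWith K Φ D) {p v : E}
    {y a δ η : ℝ} (hy : 0 < y) (hη : 0 < η)
    (hD : ∀ t ∈ Icc 0 y, Metric.ball (p + t • v) η ⊆ D)
    (h : a * y ≤ Φ (p + y • v) - Φ p) (hδ : 0 < δ) {N : Set E} (hN : ∀ᵐ q ∂μ, q ∈ N) :
    ∃ q ∈ N, q ∈ D ∧ (∃ t ∈ Ioo 0 y, ‖q - (p + t • v)‖ < η) ∧ DifferentiableAt ℝ Φ q ∧
      a - δ ≤ fderiv ℝ Φ q v := by
  obtain ⟨g, hg, hgD⟩ := hΦ.extend_real
  have e0 : p ∈ D := by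
    have := hD 0 ⟨le_rfl, hy.le⟩ (Metric.mem_ball_self hη)
    simpa using this
  have e1 : p + y • v ∈ D := hD y ⟨hy.le, le_rfl⟩ (Metric.mem_ball_self hη)
  rw [hgD e0, hgD e1] at h
  obtain ⟨q, hq, ⟨t, ht, hqt⟩, hd, hle⟩ := exists_rate_E (μ := μ) hg hy h hδ hη hN
  have hb : q ∈ Metric.ball (p + t • v) η := by rw [Metric.mem_ball, dist_eq_norm]; exact hqt
  have hbD := hD t (Ioo_subset_Icc_self ht)
  have heq : Φ =ᶠ[𝓝 q] g := by
    filter_upwards [Metric.isOpen_ball.mem_nhds hb] with z hz using hgD (hbD hz)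
  refine ⟨q, hq, hbD hb, ⟨t, ht, hqt⟩, (heq.differentiableAt_iff).2 hd, ?_⟩
  rw [heq.fderiv_eq]
  exact hle

/-! ### the slots of `S` -/

section slots

variable {m : ℕ}

/-- the vector `y 1_S` -/
def ind (S : Finset (Fin m)) (y : ℝ) : Fin m → ℝ := fun i => if i ∈ S then y else 0

theorem ind_eq_smul (S : Finset (Fin m)) (y : ℝ) : ind S y = y • ind S 1 := by
  funext i
  simp only [ind, Pi.smul_apply, smul_eq_mul]
  split_ifs <;> simp

theorem ind_eq_sum (S : Finset (Fin m)) (y : ℝ) : ind S y = ∑ i ∈ S, Pi.single i y := by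
  funext j
  rw [Finset.sum_apply]
  simp only [ind, Pi.single_apply]
  rw [Finset.sum_ite_eq]

/-- **rates**: partial derivatives in the slots of `S`, full differentiability, any co-null set. -/
theorem exists_rateS {Φ : (Fin m → ℝ) → ℝ} {K : ℝ≥0} {D : Set (Fin m → ℝ)}
    (hΦ : LipschitzOnWith K Φ D) {p : Fin m → ℝ} {S : Finset (Fin m)} {y a δ η : ℝ} (hy : 0 < y)
    (hη : 0 < η) (hD : ∀ t ∈ Icc 0 y, Metric.ball (p + ind S t) η ⊆ D)
    (h : a * y ≤ Φ (p + ind S y) - Φ p) (hδ : 0 < δ) {N : Set (Fin m → ℝ)}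
    (hN : ∀ᵐ q, q ∈ N) :
    ∃ q ∈ N, q ∈ D ∧ (∃ t ∈ Ioo 0 y, ‖q - (p + ind S t)‖ < η) ∧ DifferentiableAt ℝ Φ q ∧
      a - δ ≤ ∑ i ∈ S, fderiv ℝ Φ q (Pi.single i 1) := by
  obtain ⟨q, h1, h2, ⟨t, h3, h4⟩, h5, h6⟩ := exists_rate_on (μ := volume) hΦ (p := p)
    (v := ind S 1) hy hη (fun t ht => by rw [← ind_eq_smul]; exact hD t ht)
    (by rw [← ind_eq_smul]; exact h) hδ hN
  refine ⟨q, h1, h2, ⟨t, h3, by rw [ind_eq_smul]; exact h4⟩, h5, ?_⟩
  rw [← map_sum, ← ind_eq_sum]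
  exact h6

/-- global version of `exists_rateS`. -/
theorem exists_rateS' {Φ : (Fin m → ℝ) → ℝ} {K : ℝ≥0} (hΦ : LipschitzWith K Φ) {p : Fin m → ℝ}
    {S : Finset (Fin m)} {y a δ η : ℝ} (hy : 0 < y) (hη : 0 < η)
    (h : a * y ≤ Φ (p + ind S y) - Φ p) (hδ : 0 < δ) {N : Set (Fin m → ℝ)}
    (hN : ∀ᵐ q, q ∈ N) :
    ∃ q ∈ N, (∃ t ∈ Ioo 0 y, ‖q - (p + ind S t)‖ < η) ∧ DifferentiableAt ℝ Φ q ∧
      a - δ ≤ ∑ i ∈ S, fderiv ℝ Φ q (Pi.single i 1) := by
  obtain ⟨q, h1, -, h2⟩ := exists_rateS (D := univ) hΦ.lipschitzOnWith hy hη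
    (fun _ _ => subset_univ _) h hδ hN
  exact ⟨q, h1, h2⟩

/-- **antitone increments**: from submodularity on a domain. -/
theorem incr_anti {J : (Fin m → ℝ) → ℝ} {D : Set (Fin m → ℝ)}
    (hJ : ∀ p q, p ∈ D → q ∈ D → p ⊔ q ∈ D → p ⊓ q ∈ D → J (p ⊔ q) + J (p ⊓ q) ≤ J p + J q)
    {p q : Fin m → ℝ} {S : Finset (Fin m)} (hpq : p ≤ q) (hS : ∀ i ∈ S, p i = q i) {y : ℝ}
    (hy : 0 ≤ y) (hp : p ∈ D) (hq : q ∈ D) (hp' : p + ind S y ∈ D) (hq' : q + ind S y ∈ D) :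
    J (q + ind S y) - J q ≤ J (p + ind S y) - J p := by
  have e1 : (p + ind S y) ⊔ q = q + ind S y := by
    funext i
    simp only [Pi.sup_apply, Pi.add_apply, ind]
    by_cases hi : i ∈ S
    · rw [if_pos hi, hS i hi]
      exact max_eq_left (by linarith)
    · rw [if_neg hi, add_zero, add_zero]
      exact max_eq_right (hpq i)
  have e2 : (p + ind S y) ⊓ q = p := by
    funext i
    simp only [Pi.inf_apply, Pi.add_apply, ind]
    by_cases hi : i ∈ S
    · rw [if_pos hi, hS i hi]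
      exact min_eq_right (by linarith)
    · rw [if_neg hi, add_zero]
      exact min_eq_left (hpq i)
  have h1 := hJ (p + ind S y) q hp' hq (by rw [e1]; exact hq') (by rw [e2]; exact hp)
  rw [e1, e2] at h1
  linarith

end slots

/-! ### the plane -/

/-- **LEMMA SIG, choice of the point**: `f ≤ 0` at the lower end and `f = 0` at the upper end of a
vertical segment (first coordinate). -/
theorem exists_pt_plane {f : ℝ × ℝ → ℝ} {K : ℝ≥0} {D : Set (ℝ × ℝ)} (hf : LipschitzOnWith K f D)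
    {v v' t δ η : ℝ} (hv : v < v') (hη : 0 < η)
    (hD : ∀ u ∈ Icc v v', Metric.ball (u, t) η ⊆ D) (h0 : f (v, t) ≤ 0) (h1 : 0 ≤ f (v', t))
    (hδ : 0 < δ) {N : Set (ℝ × ℝ)} (hN : ∀ᵐ z, z ∈ N) :
    ∃ z ∈ N, z ∈ D ∧ (∃ u ∈ Ioo v v', ‖z - (u, t)‖ < η) ∧ DifferentiableAt ℝ f z ∧
      -δ ≤ fderiv ℝ f z (1, 0) := by
  have e : ∀ u : ℝ, ((v, t) : ℝ × ℝ) + u • ((1, 0) : ℝ × ℝ) = (v + u, t) := fun u => by
    ext <;> simp
  obtain ⟨z, a1, a2, ⟨u, a3, a4⟩, a5, a6⟩ := exists_rate_on (μ := (volume : Measure (ℝ × ℝ))) hf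
    (p := (v, t)) (v := (1, 0)) (y := v' - v) (a := 0) (δ := δ) (η := η) (by linarith) hη
    (fun u hu => by
      rw [e]
      exact hD _ ⟨by linarith [hu.1], by linarith [hu.2]⟩)
    (by
      rw [e]
      have : v + (v' - v) = v' := by ring
      rw [this]
      linarith) hδ hN
  rw [e] at a4
  refine ⟨z, a1, a2, ⟨v + u, ⟨by linarith [a3.1], by linarith [a3.2]⟩, a4⟩, a5, ?_⟩
  linarith

/-- **LEMMA D0, choice of the point**: over a set of positive measure of first coordinates. -/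
theorem exists_pt_fib {f : ℝ × ℝ → ℝ} {K : ℝ≥0} {D : Set (ℝ × ℝ)} (hDo : IsOpen D)
    (hf : LipschitzOnWith K f D) {V : Set ℝ} (hV : volume V ≠ 0) {y0 y a δ : ℝ}
    (hy0 : y0 < y)
    (hD : ∀ v ∈ V, ∀ t ∈ Icc y0 y, (v, t) ∈ D)
    (h : ∀ v ∈ V, f (v, y) - f (v, y0) ≤ a * (y - y0)) (hδ : 0 < δ) {N : Set (ℝ × ℝ)}
    (hN : ∀ᵐ z, z ∈ N) :
    ∃ v ∈ V, ∃ t ∈ Ioo y0 y, (v, t) ∈ N ∧ DifferentiableAt ℝ f (v, t) ∧
      fderiv ℝ f (v, t) (0, 1) ≤ a + δ := by
  obtain ⟨g, hg, hgD⟩ := hf.extend_real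
  have hall : ∀ᵐ z : ℝ × ℝ, z ∈ N ∧ DifferentiableAt ℝ g z := by
    filter_upwards [hN, hg.ae_differentiableAt (μ := (volume : Measure (ℝ × ℝ)))] with z h1 h2
      using ⟨h1, h2⟩
  have hfib : ∀ᵐ v : ℝ, ∀ᵐ t : ℝ, (v, t) ∈ N ∧ DifferentiableAt ℝ g (v, t) := by
    rw [Measure.volume_eq_prod] at hall
    exact Measure.ae_ae_of_ae_prod hall
  obtain ⟨v, hv, hv2⟩ : ∃ v ∈ V, ∀ᵐ t : ℝ, (v, t) ∈ N ∧ DifferentiableAt ℝ g (v, t) := by
    by_contra hcon
    have hsub : V ⊆ {v | ¬ ∀ᵐ t : ℝ, (v, t) ∈ N ∧ DifferentiableAt ℝ g (v, t)} :=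
      fun v hv hP => hcon ⟨v, hv, hP⟩
    exact hV (measure_mono_null hsub (ae_iff.1 hfib))
  have hgL : LipschitzWith K fun t : ℝ => -g (v, t) := by
    refine LipschitzWith.of_dist_le_mul fun t t' => ?_
    have h1 := hg.dist_le_mul (v, t) (v, t')
    have h2 : dist ((v, t) : ℝ × ℝ) (v, t') = dist t t' := by
      rw [Prod.dist_eq]
      simp
    rw [h2] at h1
    rw [dist_neg_neg]
    exact h1
  have hsl : (-a) * (y - y0) ≤ -g (v, y) - -g (v, y0) := by
    have h1 := h v hv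
    rw [hgD (hD v hv y ⟨hy0.le, le_rfl⟩), hgD (hD v hv y0 ⟨le_rfl, hy0.le⟩)] at h1
    linarith
  obtain ⟨t, ht, ht2, ht3, ht4⟩ := exists_deriv_ge (g := fun t : ℝ => -g (v, t))
    (hgL.lipschitzOnWith (s := Icc y0 y)) hy0 hsl hδ
    (N := {t | (v, t) ∈ N ∧ DifferentiableAt ℝ g (v, t)})
    (by filter_upwards [hv2] with t h1 _ using h1)
  have heq : f =ᶠ[𝓝 ((v, t) : ℝ × ℝ)] g := by
    filter_upwards [hDo.mem_nhds (hD v hv t (Ioo_subset_Icc_self ht))] with z hz using hgD hz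
  refine ⟨v, hv, t, ht, ht2.1, (heq.differentiableAt_iff).2 ht2.2, ?_⟩
  rw [heq.fderiv_eq]
  have hd : HasDerivAt (fun t : ℝ => -g (v, t)) (-(fderiv ℝ g (v, t) (0, 1))) t := by
    have h1 : HasFDerivAt g (fderiv ℝ g (v, t)) (v, t) := ht2.2.hasFDerivAt
    have h2 : HasDerivAt (fun t : ℝ => ((v, t) : ℝ × ℝ)) (0, 1) t :=
      (hasDerivAt_const t v).prodMk (hasDerivAt_id t)
    exact (h1.comp_hasDerivAt t h2).neg
  rw [hd.deriv] at ht4
  linarith

end Crest.Agent.R116.Sg388
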