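import Crest.Agent.R116.D0n1_878
import Crest.Agent.R116.SgO3_219
import Crest.Agent.R116.Sg1_388

/-!
# R116 (K side), LEMMA D0, part 2 (helper878): the engine

* `engine` : at a.e. point of a plane of natural boxes with all slots alone: `LinTanD` with nine
  rates along a subsequence of any sequence of scales, and the derivatives of `ν` along the plane
* `rate_ge` : increments at the base pass to the rates
* `incr`, `leg_raise` : increments are antitone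
-/

set_option autoImplicit false
set_option linter.unusedVariables false

open Set Filter Topology MeasureTheory
open scoped NNReal

namespace Crest.Agent.R116.D0n878

open Crest.Agent.R138
open Crest.Agent.R136
open Crest.Agent.R136.Net191
open Crest.Agent.R136.Dg219 (mw gC dhC nC gset lf gC_eq gC_zero Walls OutS dirC leg_outC leg_legal)
open Crest.Agent.R116.ChL222
open Crest.Agent.R116.Sg337 (bx9 natB)
open Crest.Agent.R116.SgF665 (wl)
open Crest.Agent.R116.D0F878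
open Crest.Agent.R116.SgO219 (tan_lim tan_ev)

/-- **the engine** -/
theorem engine {J : Type*} [Finite J] {f : J → (Fin 12 → ℝ) → ℝ} {j0 : J} {R K : ℝ} (hK : 0 ≤ K)
    (hν : ∀ j, ∀ p ∈ Leg monL R, ∀ q ∈ Leg monL R, |f j p - f j q| ≤ K * ‖p - q‖)
    (hm : ∀ p ∈ Leg monL R, ∀ q ∈ Leg monL R, p ≤ q →
      f j0 q ≤ f j0 p ∧ f j0 p - f j0 q ≤ ∑ i, (q i - p i))
    (hs : ∀ p ∈ Leg monL R, ∀ q ∈ Leg monL R, p ⊓ q ∈ Leg monL R →
      f j0 p + f j0 q ≤ f j0 (p ⊔ q) + f j0 (p ⊓ q))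
    {z c p z1 c1 p1 z2 c2 p2 : ℝ} (ha : ∀ i, 0 ≤ natB z1 c1 p1 i)
    (hal : ∀ i ∈ S9, ∀ j ∈ S9, gC (natB z1 c1 p1) (natB z2 c2 p2) i =
      gC (natB z1 c1 p1) (natB z2 c2 p2) j → i = j)
    (hdh : ∀ i ∈ S9, dhC (natB z1 c1 p1) (natB z2 c2 p2) i ≠ 0) :
    ∀ᵐ y : ℝ × ℝ, (∀ k, 0 < Dg262.X (natB z c p) (natB z1 c1 p1) (natB z2 c2 p2) y k ∧
        Dg262.X (natB z c p) (natB z1 c1 p1) (natB z2 c2 p2) y k < R) →
      ∃ D : ℝ × ℝ →L[ℝ] ℝ,
        HasFDerivAt (fun y => f j0 (Dg262.X (natB z c p) (natB z1 c1 p1) (natB z2 c2 p2) y)) D y ∧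
        ∀ h : ℕ → ℝ, (∀ l, 0 < h l) → Tendsto h atTop (𝓝 0) →
          ∃ ψ : ℕ → ℕ, StrictMono ψ ∧ ∃ ρ : Fin 12 → ℝ, (∀ i ∈ S9, 0 ≤ ρ i) ∧
            LinTanD (Leg monL R) f j0
              (fun _ => Dg262.X (natB z c p) (natB z1 c1 p1) (natB z2 c2 p2) y)
              (fun l => h (ψ l)) (ρ 0) (ρ 5) (ρ 9) (ρ 11) (ρ 3) (ρ 10) (ρ 2) (ρ 7) (ρ 1) ∧
            D (1, 0) = -∑ i ∈ S9, ρ i * natB z1 c1 p1 i ∧
            D (0, 1) = -∑ i ∈ S9, ρ i * natB z2 c2 p2 i := by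
  have key := leg_outC monL hK (hν j0) hm hs (x0 := natB z c p) (b := natB z2 c2 p2) ha
  filter_upwards [key] with y hy hbox
  have hO := O_nat hbox
  obtain ⟨D, hD, H⟩ := hy hO
  refine ⟨D, hD, fun h hpos h0 => ?_⟩
  have eL := L_nat z c p z1 c1 p1 z2 c2 p2
  obtain ⟨ψ, hψ, lam, hlam⟩ := Rc683.exists_tan (J := J) (P := fun _ => Leg monL R)
    (D := fun _ => (mw monL).L (natB z c p) (natB z1 c1 p1) (natB z2 c2 p2))
    (fun _ => Walls.isClosed_L) hK hν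
    (x := fun _ => Dg262.X (natB z c p) (natB z1 c1 p1) (natB z2 c2 p2) y) hpos (fun _ C => by
      obtain ⟨h1, hh1, hl⟩ := leg_legal monL hO C
      filter_upwards [h0.eventually_lt_const hh1] with l hl1 c' hc' hC
      exact hl (h l) (hpos l) hl1 c' hc' hC) (fun _ => by rw [eL]; exact zero_mem)
  refine ⟨ψ, hψ, ?_⟩
  obtain ⟨φ, r, HO⟩ := H (fun l => h (ψ l)) (fun l => hpos _) (h0.comp hψ.tendsto_atTop)
    (lam j0) (hlam j0)
  obtain ⟨ρ, h1, h2, h3, h4⟩ := lin9 (eqp_natB _ _ _) (eqp_natB _ _ _) hal hdh HO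
    (by rw [eL]; exact zero_mem) (by rw [eL]; exact natB_mem 1 1 4) natB_pos (eqp_natB _ _ _)
  refine ⟨ρ, h1, ⟨fun l => hpos _, h0.comp hψ.tendsto_atTop, ?_, LM, lam, le_rfl, ?_, ?_⟩, h3, h4⟩
  · intro k e he
    left
    intro n
    obtain ⟨t, v⟩ := y
    show Dg262.X (natB z c p) (natB z1 c1 p1) (natB z2 c2 p2) (t, v) k =
      wl e (Dg262.X (natB z c p) (natB z1 c1 p1) (natB z2 c2 p2) (t, v))
    rw [X_nat, natB_wall _ _ _ k he]
  · intro j
    have := hlam j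
    rw [eL] at this
    exact this
  · intro z' d C' p' E B x H' F hc
    rw [h2 _ (by rw [eL]; exact hc) (eqp_bx9 _ _ _ _ _ _ _ _ _)]
    congr 1
    simp only [S9]
    rw [Finset.sum_insert (by decide), Finset.sum_insert (by decide), Finset.sum_insert (by decide),
      Finset.sum_insert (by decide), Finset.sum_insert (by decide), Finset.sum_insert (by decide),
      Finset.sum_insert (by decide), Finset.sum_insert (by decide), Finset.sum_singleton]
    simp only [bx9]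
    simp
    ring

/-- **increments at the base pass to the rates** -/
theorem rate_ge {J : Type*} {P : Set (Fin 12 → ℝ)} {f : J → (Fin 12 → ℝ) → ℝ} {j0 : J}
    {X : ℕ → Fin 12 → ℝ} {h : ℕ → ℝ} {rz rX rH rF gC gP gE gB gD : ℝ}
    (T : LinTanD P f j0 X h rz rX rH rF gC gP gE gB gD) {z d E C x B H p F q : ℝ}
    (hc : bx9 z d E C x B H p F ∈ LM) (h0 : (0 : Fin 12 → ℝ) ∈ LM)
    (hq : ∀ᶠ l in atTop, q * h l ≤ f j0 (X l) - f j0 (X l + h l • bx9 z d E C x B H p F)) :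
    q ≤ rz * z + rX * x + rH * H + rF * F + gC * C + gP * p + gE * E + gB * B + gD * d := by
  obtain ⟨D, lam, hD, ht, hf⟩ := T.ex
  have h1 := tan_lim T.hpos (ht j0) (hD h0) (hD hc)
  have e0 : (0 : Fin 12 → ℝ) = bx9 0 0 0 0 0 0 0 0 0 := by
    funext k; fin_cases k <;> rfl
  have e1 : lam j0 0 = 0 := by
    rw [e0, hf _ _ _ _ _ _ _ _ _ (by rw [← e0]; exact h0)]; ring
  rw [e1, hf _ _ _ _ _ _ _ _ _ hc] at h1
  have h2 : q ≤ 0 - -(rz * z + rX * x + rH * H + rF * F + gC * C + gP * p + gE * E + gB * B +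
      gD * d) := by
    refine ge_of_tendsto h1 ?_
    filter_upwards [hq] with l hl
    rw [le_div_iff₀ (T.hpos l), smul_zero, add_zero]
    exact hl
  linarith

/-! ### raising slots which are no heads of walls -/

theorem wall_hd3 : ∀ k : Fin 12, ∀ e ∈ mfL k, k ≠ 1 ∧ k ≠ 3 ∧ k ≠ 4 := by decide

theorem leg_raise {R : ℝ} {p u : Fin 12 → ℝ} (hp : p ∈ Leg monL R) (h0 : ∀ k, 0 ≤ u k)
    (hz : ∀ k, k ≠ 1 → k ≠ 3 → k ≠ 4 → u k = 0) (hR : ∀ k, p k + u k ≤ R) :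
    p + u ∈ Leg monL R := by
  refine ⟨⟨fun k => ?_, fun k e he => ?_⟩, fun k => hR k⟩
  · have := hp.1.nonneg k
    have := h0 k
    rw [Pi.add_apply]; linarith
  · have h1 := hp.1.wall k e he
    have hk := wall_hd3 k e he
    rw [Pi.add_apply, hz k hk.1 hk.2.1 hk.2.2, add_zero]
    refine h1.trans (Finset.sum_le_sum fun s _ => ?_)
    rw [Pi.add_apply]
    have := mul_nonneg (Nat.cast_nonneg (α := ℝ) (e s)) (h0 s)
    nlinarith

theorem lm_raise {u : Fin 12 → ℝ} (h0 : ∀ k, 0 ≤ u k)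
    (hz : ∀ k, k ≠ 1 → k ≠ 3 → k ≠ 4 → u k = 0) : u ∈ LM := by
  intro k e he
  have hk := wall_hd3 k e he
  rw [hz k hk.1 hk.2.1 hk.2.2]
  exact Finset.sum_nonneg fun s _ => mul_nonneg (Nat.cast_nonneg _) (h0 s)

/-- increments grow when the other slots get coarser -/
theorem incr {R : ℝ} {ν : (Fin 12 → ℝ) → ℝ}
    (hs : ∀ p ∈ Leg monL R, ∀ q ∈ Leg monL R, p ⊓ q ∈ Leg monL R → ν p + ν q ≤ ν (p ⊔ q) + ν (p ⊓ q))
    {p q u : Fin 12 → ℝ} (hpq : p ≤ q) (hu : ∀ k, 0 ≤ u k) (he : ∀ k, u k ≠ 0 → p k = q k)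
    (hp : p ∈ Leg monL R) (hq : q ∈ Leg monL R) (hp' : p + u ∈ Leg monL R) :
    ν q - ν (q + u) ≤ ν p - ν (p + u) := by
  have e1 : (p + u) ⊔ q = q + u := by
    funext k
    simp only [Pi.sup_apply, Pi.add_apply]
    by_cases hk : u k = 0
    · rw [hk, add_zero, add_zero]; exact max_eq_right (hpq k)
    · rw [he k hk]; exact max_eq_left (by linarith [hu k])
  have e2 : (p + u) ⊓ q = p := by
    funext k
    simp only [Pi.inf_apply, Pi.add_apply]
    by_cases hk : u k = 0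
    · rw [hk, add_zero]; exact min_eq_left (hpq k)
    · rw [he k hk]; exact min_eq_right (by linarith [hu k])
  have h1 := hs (p + u) hp' q hq (by rw [e2]; exact hp)
  rw [e1, e2] at h1
  linarith

/-- natural box with positive slots is legal -/
theorem nat_leg {R z c p : ℝ} (h0 : ∀ k, 0 ≤ natB z c p k) (hR : ∀ k, natB z c p k ≤ R) :
    natB z c p ∈ Leg monL R :=
  ⟨⟨h0, fun k e he => (natB_wall z c p k he).ge⟩, hR⟩

end Crest.Agent.R116.D0n878
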