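import Crest.Agent.R116.D0h1_708
import Crest.Agent.R116.D0n2_878
import Crest.Agent.R116.PL3_504

/-!
# R116 (K side), LEMMA D0 at `5 θ ≥ 3 + β` (helper708; row of helper538, 21269 (B), 878's plane)

`θ = θa`, `β = 2 θa - θb - 1` (slope of `D` along the record), `-θ < β ≤ θ`, `-1 < β < 1`, `β ≠ 0`.
Plane `R(v) + t (-1; -ε, -1 - 2 ε)`, slanted direction `(-1, q)`, `q (3 + 5 ε) = 5 θ - β - 3`.

* `aloneR`, `dhR` : all nine slots are alone
* `rowH` : the row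
* **`d0h`** : `D` has zero rate at almost every record box
-/

set_option autoImplicit false
set_option linter.unusedVariables false

open Set Filter Topology MeasureTheory
open scoped NNReal

namespace Crest.Agent.R116.D0h708

open Crest.Agent.R138
open Crest.Agent.R136
open Crest.Agent.R136.Net191
open Crest.Agent.R136.Dg219 (mw gC dhC nC gC_eq gC_zero)
open Crest.Agent.R116.ChL222
open Crest.Agent.R116.PL504
open Crest.Agent.R116.Sg337 (bx9 natB nb_natB)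
open Crest.Agent.R116.D0F878
open Crest.Agent.R116.D0n878

/-! ### the plane -/

/-- the record direction with `θb = 2 θ - 1 - β` -/
def rN (θ β : ℝ) : Fin 12 → ℝ := natB 1 (-θ) (-(2 * θ - 1 - β))

theorem rN_val (θ β : ℝ) : rN θ β 0 = 1 ∧ rN θ β 1 = β ∧ rN θ β 2 = β + 1 ∧ rN θ β 3 = -θ ∧
    rN θ β 5 = 1 - θ ∧ rN θ β 7 = β + 1 - θ ∧ rN θ β 9 = 1 - 2 * θ ∧ rN θ β 10 = β + 1 - 2 * θ ∧
    rN θ β 11 = β + 2 - 2 * θ := by
  refine ⟨?_, ?_, ?_, ?_, ?_, ?_, ?_, ?_, ?_⟩ <;> simp [rN, natB, bx9] <;> ring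

theorem aN_val (ε : ℝ) : aN ε 0 = 1 ∧ aN ε 1 = 0 ∧ aN ε 2 = 1 ∧ aN ε 3 = ε ∧
    aN ε 5 = 1 + ε ∧ aN ε 7 = 1 + ε ∧ aN ε 9 = 1 + 2 * ε ∧ aN ε 10 = 1 + 2 * ε ∧
    aN ε 11 = 2 + 2 * ε := by
  refine ⟨?_, ?_, ?_, ?_, ?_, ?_, ?_, ?_, ?_⟩ <;> simp [aN, natB, bx9] <;> ring

theorem dhR {ε θ β : ℝ} (hε : 0 < ε) (hβ : β ≠ 0) : ∀ i ∈ S9, dhC (aN ε) (rN θ β) i ≠ 0 := by
  intro i hi
  unfold dhC
  by_cases h1 : i = 1
  · subst h1
    rw [if_pos (aN_one ε), (rN_val θ β).2.1]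
    exact hβ
  · have := aN_ne hε i hi h1
    rw [if_neg this]
    exact this

/-- **all nine slots are alone** -/
theorem aloneR {ε θ β : ℝ} (hε : 0 < ε) (hθ : 0 < θ) (h1 : -θ < β) (h2 : β ≤ θ) (h3 : -1 < β)
    (h4 : β < 1) (h5 : β ≠ 0) (h6 : ε ≤ θ + β) :
    ∀ i ∈ S9, ∀ j ∈ S9, gC (aN ε) (rN θ β) i = gC (aN ε) (rN θ β) j → i = j := by
  intro i hi j hj h
  by_cases k1 : i = 1
  · subst k1
    rw [gC_zero.2 (aN_one ε)] at h
    by_contra k2
    exact aN_ne hε j hj (fun e => k2 e.symm) (gC_zero.1 h.symm)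
  by_cases k2 : j = 1
  · subst k2
    rw [gC_zero.2 (aN_one ε)] at h
    exact absurd (gC_zero.1 h) (aN_ne hε i hi k1)
  have n1 := aN_ne hε i hi k1
  have n2 := aN_ne hε j hj k2
  rw [gC_eq n1 n2, div_eq_div_iff n1 n2] at h
  obtain ⟨r0, -, r2, r3, r5, r7, r9, r10, r11⟩ := rN_val θ β
  obtain ⟨a0, -, a2, a3, a5, a7, a9, a10, a11⟩ := aN_val ε
  have e1 : -ε < ε * β := by nlinarith
  have e2 : ε * β < ε := by nlinarith
  simp only [S9, Finset.mem_insert, Finset.mem_singleton] at hi hj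
  rcases lt_or_gt_of_ne h5 with hb | hb
  · have e3 : ε * β < 0 := mul_neg_of_pos_of_neg hε hb
    rcases hi with rfl | rfl | rfl | rfl | rfl | rfl | rfl | rfl | rfl <;>
      rcases hj with rfl | rfl | rfl | rfl | rfl | rfl | rfl | rfl | rfl <;>
      first
        | rfl
        | exact absurd rfl k1
        | exact absurd rfl k2
        | (exfalso
           simp only [r0, r2, r3, r5, r7, r9, r10, r11, a0, a2, a3, a5, a7, a9, a10, a11] at h
           ring_nf at h e1 e2 e3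
           linarith)
  · have e3 : 0 < ε * β := mul_pos hε hb
    rcases hi with rfl | rfl | rfl | rfl | rfl | rfl | rfl | rfl | rfl <;>
      rcases hj with rfl | rfl | rfl | rfl | rfl | rfl | rfl | rfl | rfl <;>
      first
        | rfl
        | exact absurd rfl k1
        | exact absurd rfl k2
        | (exfalso
           simp only [r0, r2, r3, r5, r7, r9, r10, r11, a0, a2, a3, a5, a7, a9, a10, a11] at h
           ring_nf at h e1 e2 e3
           linarith)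

/-! ### the row -/

/-- **the row** -/
theorem rowH {θ β ε q S c s q0 q1 rz rX rH rF gC gP gE gB gD : ℝ} (hε : 0 < ε)
    (h3 : -1 < β) (h4 : β < 1) (h6 : ε ≤ θ + β) (hq0 : 0 ≤ q0) (hq1 : 0 ≤ q1)
    (hc : 1 + q1 < c) (hq : 0 ≤ q) (hqe : q * (3 + 5 * ε) = 5 * θ - β - 3) (hS : S = 1 + q)
    (own : 1 - s ≤ rz) (pC : 0 ≤ gC) (pP : 0 ≤ gP) (pE : 0 ≤ gE) (pB : 0 ≤ gB) (pD : 0 ≤ gD)
    (P1 : gC ≤ rX) (P2 : gP ≤ rF) (P3 : gD ≤ gE) (P4 : gC ≤ rH) (S3 : rH ≤ gP) :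
    c - 1 - q1 ≤ rz * S + gD * β + gE * (S + β) - gC * (θ - q * ε) + rX * (S - (θ - q * ε)) +
      gB * (S + β - (θ - q * ε)) + rH * (S - 2 * (θ - q * ε)) +
      gP * (S + β - 2 * (θ - q * ε)) + rF * (2 * S + β - 2 * (θ - q * ε)) +
      S * (c - 4 + s) + (3 + q0) * (θ - q * ε) + (1 + q1) * (2 * (θ - q * ε) - S - β) := by
  have hμ : θ - q * ε = (3 * S + β) / 5 := by
    rw [hS]; linarith
  rw [hμ]
  have hS1 : 1 ≤ S := by rw [hS]; linarith
  have hT : 0 ≤ S + 2 * β := by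
    have e1 : (3 + 5 * ε) * (S + 2 * β) = 5 * (θ + β + ε * (1 + 2 * β)) := by
      rw [hS]; linarith
    have e2 : -ε ≤ ε * (1 + 2 * β) := by nlinarith
    have e3 : 0 ≤ (3 + 5 * ε) * (S + 2 * β) := by rw [e1]; linarith
    exact nonneg_of_mul_nonneg_right e3 (by positivity)
  set T : ℝ := S + 2 * β with hTd
  have m1 : 0 ≤ (2 * S - β) * (rX - gC) := mul_nonneg (by linarith) (by linarith)
  have m2 : 0 ≤ T * (rH - gC) := mul_nonneg hT (by linarith)
  have m3 : 0 ≤ T * (gP - rH) := mul_nonneg hT (by linarith)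
  have m4 : 0 ≤ (4 * S + 3 * β) * (rF - gP) := mul_nonneg (by linarith) (by linarith)
  have m5 : 0 ≤ T * gP := mul_nonneg hT pP
  have m6 : 0 ≤ T * gB := mul_nonneg hT pB
  have m7 : 0 ≤ gD * β + gE * (S + β) := by
    rcases le_total 0 β with hb | hb
    · have := mul_nonneg pD hb
      have := mul_nonneg pE (show 0 ≤ S + β by linarith)
      linarith
    · have a1 : 0 ≤ (gE - gD) * (-β) := mul_nonneg (by linarith) (by linarith)
      have a2 : 0 ≤ T * gE := mul_nonneg hT pE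
      rw [hTd] at a2
      nlinarith
  have m8 : 0 ≤ (rz - (1 - s)) * S := mul_nonneg (by linarith) (by linarith)
  have m9 : 0 ≤ q0 * (3 * S + β) := mul_nonneg hq0 (by linarith)
  have m10 : 0 ≤ q1 * (6 * S - 3 * β) := mul_nonneg hq1 (by linarith)
  have m11 : 0 ≤ (S - 1) * (c - 1 - q1) := mul_nonneg (by linarith) (by linarith)
  rw [hTd] at m2 m3 m5 m6
  nlinarith

/-! ### boxes -/

theorem natB_eL (z c p : ℝ) : natB z c p = eL z c p := by
  funext k
  fin_cases k <;> simp [natB, bx9, eL]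

/-- the box of the plane -/
def XP (θa θb w0 sa sb ε v t : ℝ) : Fin 12 → ℝ :=
  natB (w0 + v - t) (sa + θa * (1 - v) - ε * t) (sb + θb * (1 - v) - (1 + 2 * ε) * t)

theorem X_XP (θa θb w0 sa sb ε v t : ℝ) :
    Dg262.X (natB w0 (sa + θa) (sb + θb)) (natB 1 ε (1 + 2 * ε)) (natB 1 (-θa) (-θb)) (-t, v) =
      XP θa θb w0 sa sb ε v t := by
  rw [X_nat, XP]
  congr 1 <;> ring

theorem rL_XP (θa θb w0 sa sb ε v : ℝ) : rL θa θb w0 sa sb v = XP θa θb w0 sa sb ε v 0 := by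
  rw [rL_nb, nb_natB, XP]
  congr 1 <;> ring

theorem natB_pos' {z c p : ℝ} (hz : 0 < z) (hc : 0 < c) (hD : 0 < p - 2 * c - z) (k : Fin 12) :
    0 < natB z c p k := by
  fin_cases k <;> simp [natB, bx9] <;> linarith

theorem natB_le' {z c p R : ℝ} (hz : 0 < z) (hc : 0 < c) (hD : 0 < p - 2 * c - z) (hR : z + p < R)
    (k : Fin 12) : natB z c p k < R := by
  fin_cases k <;> simp [natB, bx9] <;> linarith

theorem wall_hd4 : ∀ k : Fin 12, ∀ e ∈ mfL k, k ≠ 0 ∧ k ≠ 1 ∧ k ≠ 3 ∧ k ≠ 4 := by decide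

theorem lm_raise0 {u : Fin 12 → ℝ} (h0 : ∀ k, 0 ≤ u k)
    (hz : ∀ k, k ≠ 0 → k ≠ 1 → k ≠ 3 → k ≠ 4 → u k = 0) : u ∈ LM := by
  intro k e he
  have hk := wall_hd4 k e he
  rw [hz k hk.1 hk.2.1 hk.2.2.1 hk.2.2.2]
  exact Finset.sum_nonneg fun s _ => mul_nonneg (Nat.cast_nonneg _) (h0 s)

theorem single_one : (Pi.single 1 1 : Fin 12 → ℝ) = bx9 0 1 0 0 0 0 0 0 0 := by
  funext k
  fin_cases k <;> simp [bx9, Pi.single, Function.update]

/-- sums over the nine slots -/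
theorem sum9 (T : Fin 12 → ℝ) : ∑ i ∈ S9, T i =
    T 0 + T 1 + T 2 + T 3 + T 5 + T 7 + T 9 + T 10 + T 11 := by
  simp only [S9]
  rw [Finset.sum_insert (by decide), Finset.sum_insert (by decide), Finset.sum_insert (by decide),
    Finset.sum_insert (by decide), Finset.sum_insert (by decide), Finset.sum_insert (by decide),
    Finset.sum_insert (by decide), Finset.sum_insert (by decide), Finset.sum_singleton]
  ring

/-- `(v, t) ↦ (-t, v)` preserves the measure -/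
theorem ae_rot {P : ℝ × ℝ → Prop} (h : ∀ᵐ y : ℝ × ℝ, P y) : ∀ᵐ z : ℝ × ℝ, P (-z.2, z.1) := by
  have h1 : MeasurePreserving (fun z : ℝ × ℝ => (-z.1, z.2)) volume volume :=
    (Measure.measurePreserving_neg (volume : Measure ℝ)).prod (MeasurePreserving.id volume)
  have h2 : MeasurePreserving (Prod.swap : ℝ × ℝ → ℝ × ℝ) volume volume :=
    Measure.measurePreserving_swap
  exact ((h1.comp h2).quasiMeasurePreserving).ae h

end Crest.Agent.R116.D0h708
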