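import Crest.Agent.R116.D0h2_708

/-!
# R116 (K side), LEMMA D0 at `5 θ ≥ 3 + β`, the theorem (helper708)
-/

set_option autoImplicit false
set_option linter.unusedVariables false

open Set Filter Topology MeasureTheory
open scoped NNReal

namespace Crest.Agent.R116.D0h708

open Crest.Agent.R138
open Crest.Agent.R136
open Crest.Agent.R136.Net191
open Crest.Agent.R136.Dg219 (mw gC dhC nC gC_eq gC_zero X_lip)
open Crest.Agent.R116.ChL222
open Crest.Agent.R116.PL504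
open Crest.Agent.R116.Sg337 (bx9 natB nb_natB)
open Crest.Agent.R116.D0F878
open Crest.Agent.R116.D0n878

section

variable {J : Type*} {f : J → (Fin 12 → ℝ) → ℝ} {j0 : J}
  {R K w0 sa sb θa θb δ c s q0 q1 c₀ ε t0 v1 v2 : ℝ}

/-- the positions used -/
theorem XP_box (sh : Shift θa θb w0 sa sb δ R) (hε : 0 < ε) (hε1 : ε ≤ 1) (ht : 4 * t0 ≤ δ)
    {v t : ℝ} (hv0 : 0 ≤ v) (hv1 : v ≤ 1) (h0 : 0 < t) (h1 : t ≤ t0) (k : Fin 12) :
    0 < XP θa θb w0 sa sb ε v t k ∧ XP θa θb w0 sa sb ε v t k < R := by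
  have b1 := sh.bz hv0
  have b2 := sh.bc hv0 hv1
  have b3 := sh.bD hv0 hv1
  have b4 := sh.bR hv0 hv1
  have hd := sh.d0
  have e1 : ε * t ≤ 1 * t := mul_le_mul_of_nonneg_right hε1 h0.le
  have e2 : 0 < ε * t := mul_pos hε h0
  have c1 : 0 < w0 + v - t := by linarith
  have c2 : 0 < sa + θa * (1 - v) - ε * t := by linarith
  have c3 : 0 < (sb + θb * (1 - v) - (1 + 2 * ε) * t) - 2 * (sa + θa * (1 - v) - ε * t) -
      (w0 + v - t) := by
    nlinarith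
  exact ⟨natB_pos' c1 c2 c3 k, natB_le' c1 c2 c3 (by nlinarith) k⟩

theorem XP_leg (sh : Shift θa θb w0 sa sb δ R) (hε : 0 < ε) (hε1 : ε ≤ 1) (ht : 4 * t0 ≤ δ)
    {v t : ℝ} (hv0 : 0 ≤ v) (hv1 : v ≤ 1) (h0 : 0 < t) (h1 : t ≤ t0) :
    XP θa θb w0 sa sb ε v t ∈ Leg monL R :=
  nat_leg (fun k => (XP_box sh hε hε1 ht hv0 hv1 h0 h1 k).1.le)
    (fun k => (XP_box sh hε hε1 ht hv0 hv1 h0 h1 k).2.le)

theorem rL_mem (sh : Shift θa θb w0 sa sb δ R) {v : ℝ} (hv0 : 0 ≤ v) (hv1 : v ≤ 1) :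
    rL θa θb w0 sa sb v ∈ Leg monL R := by
  have b1 := sh.bz hv0
  have b2 := sh.bc hv0 hv1
  have b3 := sh.bD hv0 hv1
  have b4 := sh.bR hv0 hv1
  have hd := sh.d0
  rw [rL_nb]
  exact nb_leg.2 ⟨by linarith, by linarith, by linarith, by linarith⟩

theorem rLD_mem (sh : Shift θa θb w0 sa sb δ R) {v y : ℝ} (hv0 : 0 ≤ v) (hv1 : v ≤ 1)
    (hy0 : 0 ≤ y) (hy : y ≤ δ) :
    rL θa θb w0 sa sb v + y • (Pi.single 1 1 : Fin 12 → ℝ) ∈ Leg monL R := by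
  have b1 := sh.bz hv0
  have b2 := sh.bc hv0 hv1
  have b3 := sh.bD hv0 hv1
  have b4 := sh.bR hv0 hv1
  have hd := sh.d0
  refine leg_raise (rL_mem sh hv0 hv1) (fun k => ?_) (fun k hk _ _ => ?_) (fun k => ?_)
  · rw [Pi.smul_apply, smul_eq_mul]
    refine mul_nonneg hy0 ?_
    by_cases h : k = 1
    · subst h; simp
    · rw [Pi.single_eq_of_ne h]
  · rw [Pi.smul_apply, Pi.single_eq_of_ne hk, smul_zero]
  · by_cases h : k = 1
    · subst h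
      rw [Pi.smul_apply, Pi.single_eq_same, smul_eq_mul, mul_one, rL_nb]
      have : nb w0 sa sb v (θa * (1 - v)) (θb * (1 - v)) 1 =
        (sb + θb * (1 - v)) - 2 * (sa + θa * (1 - v)) - (w0 + v) := rfl
      rw [this]
      linarith
    · rw [Pi.smul_apply, Pi.single_eq_of_ne h, smul_zero, add_zero]
      exact (rL_mem sh hv0 hv1).2 k

/-- the set of the record boxes with `D`-rate `> 1 / (m + 1)` at some size in `(0, 1/(k+1))` -/
def VU (f : (Fin 12 → ℝ) → ℝ) (θa θb w0 sa sb δ v1 v2 : ℝ) (m k : ℕ) : Set ℝ :=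
  {v | v ∈ Ioo v1 v2 ∧ ∃ y : ℝ, 0 < y ∧ y ≤ δ ∧ y < 1 / ((k : ℝ) + 1) ∧
    y / ((m : ℝ) + 1) < f (rL θa θb w0 sa sb v) -
      f (rL θa θb w0 sa sb v + y • (Pi.single 1 1 : Fin 12 → ℝ))}

theorem rL_cont (θa θb w0 sa sb : ℝ) : Continuous (rL θa θb w0 sa sb) := by
  refine continuous_pi fun k => ?_
  fin_cases k <;> simp [rL, eL] <;> fun_prop

theorem VU_open (hK : 0 ≤ K)
    (hν : ∀ p ∈ Leg monL R, ∀ q ∈ Leg monL R, |f j0 p - f j0 q| ≤ K * ‖p - q‖)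
    (sh : Shift θa θb w0 sa sb δ R) (hv1 : 0 ≤ v1) (hv2 : v2 ≤ 1) (m k : ℕ) :
    IsOpen (VU (f j0) θa θb w0 sa sb δ v1 v2 m k) := by
  have hc : ContinuousOn (f j0) (Leg monL R) := by
    have : LipschitzOnWith ⟨K, hK⟩ (f j0) (Leg monL R) :=
      LipschitzOnWith.of_dist_le_mul fun p hp q hq => by
        rw [Real.dist_eq, dist_eq_norm]; exact hν p hp q hq
    exact this.continuousOn
  have e : VU (f j0) θa θb w0 sa sb δ v1 v2 m k = ⋃ y ∈ {y : ℝ | 0 < y ∧ y ≤ δ ∧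
      y < 1 / ((k : ℝ) + 1)}, (Ioo v1 v2 ∩ (fun v => f j0 (rL θa θb w0 sa sb v) -
      f j0 (rL θa θb w0 sa sb v + y • (Pi.single 1 1 : Fin 12 → ℝ))) ⁻¹'
        Ioi (y / ((m : ℝ) + 1))) := by
    ext v
    simp only [VU, mem_ofPred_eq, mem_iUnion, mem_inter_iff, mem_preimage, mem_Ioi, exists_prop]
    constructor
    · rintro ⟨h1, y, h2, h3, h4, h5⟩
      exact ⟨y, ⟨h2, h3, h4⟩, h1, h5⟩
    · rintro ⟨y, ⟨h2, h3, h4⟩, h1, h5⟩
      exact ⟨h1, y, h2, h3, h4, h5⟩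
  rw [e]
  refine isOpen_biUnion fun y hy => ?_
  refine ContinuousOn.isOpen_inter_preimage ?_ isOpen_Ioo isOpen_Ioi
  refine ContinuousOn.sub ?_ ?_
  · exact hc.comp (rL_cont _ _ _ _ _).continuousOn fun v hv =>
      rL_mem sh (hv1.trans hv.1.le) (hv.2.le.trans hv2)
  · exact hc.comp ((rL_cont _ _ _ _ _).add continuous_const).continuousOn fun v hv =>
      rLD_mem sh (hv1.trans hv.1.le) (hv.2.le.trans hv2) hy.1.le hy.2.1

/-- the D-max exponent is linear on the plane -/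
theorem DN_lin (v t : ℝ) : DN c s q0 q1 θa θb (v - t) (θa * (1 - v) - ε * t)
    (θb * (1 - v) - (1 + 2 * ε) * t) =
      ((c - 4 + s) + (3 + q0) * θa + (1 + q1) * θb) * v +
      (-(c - 4 + s) + (3 + q0) * ε + (1 + q1) * (1 + 2 * ε)) * t := by
  unfold DN
  ring

set_option maxHeartbeats 4000000 in
/-- **LEMMA D0 at `3 + β ≤ 5 θ`**: zero rate of the slot `D` at almost every record box. -/
theorem d0h [Finite J] (hK : 0 ≤ K)
    (hν : ∀ j, ∀ p ∈ Leg monL R, ∀ q ∈ Leg monL R, |f j p - f j q| ≤ K * ‖p - q‖)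
    (hm : ∀ p ∈ Leg monL R, ∀ q ∈ Leg monL R, p ≤ q →
      f j0 q ≤ f j0 p ∧ f j0 p - f j0 q ≤ ∑ i, (q i - p i))
    (hs : ∀ p ∈ Leg monL R, ∀ q ∈ Leg monL R, p ⊓ q ∈ Leg monL R →
      f j0 p + f j0 q ≤ f j0 (p ⊔ q) + f j0 (p ⊓ q))
    (sh : Shift θa θb w0 sa sb δ R)
    (h1 : -θa < 2 * θa - θb - 1) (h2 : 2 * θa - θb - 1 ≤ θa) (h3 : -1 < 2 * θa - θb - 1)
    (h4 : 2 * θa - θb - 1 < 1) (h5 : 2 * θa - θb - 1 ≠ 0) (h7 : 3 + (2 * θa - θb - 1) ≤ 5 * θa)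
    (hq0 : 0 ≤ q0) (hq1 : 0 ≤ q1) (hc : 1 + q1 < c)
    (hε : 0 < ε) (hε1 : ε ≤ 1) (h6 : ε ≤ θa + (2 * θa - θb - 1))
    (ht0 : 0 < t0) (ht : 4 * t0 ≤ δ) (hv1 : 0 ≤ v1) (hv2 : v2 ≤ 1)
    (hrec : ∀ v ∈ Ioo v1 v2, c₀ + DN c s q0 q1 θa θb v (θa * (1 - v)) (θb * (1 - v)) ≤
      f j0 (rL θa θb w0 sa sb v))
    (hdm : ∀ v ∈ Ioo v1 v2, ∀ t ∈ Ioo 0 t0, f j0 (XP θa θb w0 sa sb ε v t) ≤
      c₀ + DN c s q0 q1 θa θb (v - t) (θa * (1 - v) - ε * t) (θb * (1 - v) - (1 + 2 * ε) * t))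
    (hown : ∀ v ∈ Ioo v1 v2, ∀ t ∈ Ioo 0 t0, ∀ᶠ y in 𝓝[>] (0 : ℝ), (1 - s) * y ≤
      f j0 (XP θa θb w0 sa sb ε v t) -
        f j0 (XP θa θb w0 sa sb ε v t + y • bx9 1 0 0 0 0 0 0 0 0))
    (hfac : ∀ v ∈ Ioo v1 v2, ∀ t ∈ Ioo 0 t0, ∀ (h : ℕ → ℝ) (rz rX rH rF gC gP gE gB gD : ℝ),
      LinTanD (Leg monL R) f j0 (fun _ => XP θa θb w0 sa sb ε v t) h rz rX rH rF gC gP gE gB gD →
      1 - s ≤ rz → gC ≤ rX ∧ gP ≤ rF ∧ gD ≤ gE ∧ (0 < gC → rX ≤ rH) ∧ (0 < gD → rH ≤ gP)) :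
    ∀ᵐ v : ℝ, v ∈ Ioo v1 v2 → Tendsto (fun y : ℝ => (f j0 (rL θa θb w0 sa sb v) -
      f j0 (rL θa θb w0 sa sb v + y • (Pi.single 1 1 : Fin 12 → ℝ))) / y) (𝓝[>] 0) (𝓝 0) := by
  have hδ := sh.d0
  set β : ℝ := 2 * θa - θb - 1 with hβ
  have hθ : 0 < θa := by linarith
  have e35 : 0 < 3 + 5 * ε := by linarith
  set q : ℝ := (5 * θa - β - 3) / (3 + 5 * ε) with hqd
  have hq : 0 ≤ q := div_nonneg (by linarith) e35.le
  have hqe : q * (3 + 5 * ε) = 5 * θa - β - 3 := by rw [hqd]; field_simp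
  set κ : ℝ := c - 1 - q1 with hκd
  have hκ : 0 < κ := by rw [hκd]; linarith
  set A1 : ℝ := (c - 4 + s) + (3 + q0) * θa + (1 + q1) * θb with hA1
  set A2 : ℝ := -(c - 4 + s) + (3 + q0) * ε + (1 + q1) * (1 + 2 * ε) with hA2
  set ℓ : ℝ × ℝ →L[ℝ] ℝ := A1 • ContinuousLinearMap.fst ℝ ℝ ℝ +
    A2 • ContinuousLinearMap.snd ℝ ℝ ℝ with hℓ
  have ℓ_val : ∀ z : ℝ × ℝ, ℓ z = A1 * z.1 + A2 * z.2 := fun z => by simp [hℓ]
  set x0 : Fin 12 → ℝ := natB w0 (sa + θa) (sb + θb) with hx0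
  set G : ℝ × ℝ → ℝ := fun y => f j0 (Dg262.X x0 (natB 1 ε (1 + 2 * ε)) (natB 1 (-θa) (-θb)) y)
    with hG
  set F : ℝ × ℝ → ℝ := fun z => G (-z.2, z.1) - c₀ - ℓ z with hF
  have GX : ∀ v t : ℝ, G (-t, v) = f j0 (XP θa θb w0 sa sb ε v t) := fun v t => by
    simp only [hG, hx0]; rw [X_XP]
  set Ω : Set (ℝ × ℝ) := Ioo v1 v2 ×ˢ Ioo 0 t0 with hΩ
  have hin : ∀ z ∈ Ω, 0 ≤ z.1 ∧ z.1 ≤ 1 ∧ 0 < z.2 ∧ z.2 ≤ t0 := fun z hz =>
    ⟨hv1.trans hz.1.1.le, hz.1.2.le.trans hv2, hz.2.1, hz.2.2.le⟩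
  have hleg : ∀ z ∈ Ω, XP θa θb w0 sa sb ε z.1 z.2 ∈ Leg monL R := fun z hz => by
    obtain ⟨a1, a2, a3, a4⟩ := hin z hz
    exact XP_leg sh hε hε1 ht a1 a2 a3 a4
  -- `F ≤ 0`
  have hup : ∀ z ∈ Ω, F z ≤ 0 := fun z hz => by
    have e1 := hdm z.1 hz.1 z.2 hz.2
    rw [DN_lin] at e1
    simp only [hF]
    rw [GX, ℓ_val]
    linarith
  -- lower bound
  set K' : ℝ := K * ‖natB 1 ε (1 + 2 * ε)‖ + |A2| with hK'
  have hlow : ∀ z ∈ Ω, -(K' * z.2) ≤ F z := fun z hz => by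
    obtain ⟨a1, a2, a3, a4⟩ := hin z hz
    have e1 := hrec z.1 hz.1
    have e2 := DN_lin (c := c) (s := s) (q0 := q0) (q1 := q1) (θa := θa) (θb := θb) (ε := ε) z.1 0
    simp only [mul_zero, sub_zero, add_zero] at e2
    rw [e2] at e1
    have e3 := hν j0 _ (rL_mem sh a1 a2) _ (hleg z hz)
    have e4 : rL θa θb w0 sa sb z.1 - XP θa θb w0 sa sb ε z.1 z.2 =
        z.2 • natB 1 ε (1 + 2 * ε) := by
      rw [rL_XP θa θb w0 sa sb ε, XP, XP, natB_smul, sub_eq_iff_eq_add, natB_add]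
      congr 1 <;> ring
    rw [e4, norm_smul, Real.norm_eq_abs, abs_of_pos a3] at e3
    have e5 := (abs_le.1 e3).2
    have e6 := mul_le_mul_of_nonneg_right (le_abs_self A2) a3.le
    simp only [hF]
    rw [GX, ℓ_val, hK']
    linarith
  -- Lipschitz
  obtain ⟨K1, hK1⟩ : ∃ K1 : ℝ≥0, (K1 : ℝ) = K := ⟨⟨K, hK⟩, rfl⟩
  have hlip : LipschitzOnWith (K1 * (‖natB 1 ε (1 + 2 * ε)‖₊ + ‖natB 1 (-θa) (-θb)‖₊) + ‖ℓ‖₊) F
      Ω := by
    refine LipschitzOnWith.of_dist_le_mul fun z hz z' hz' => ?_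
    have e1 := hν j0 _ (hleg z hz) _ (hleg z' hz')
    have e2 := (X_lip x0 (natB 1 ε (1 + 2 * ε)) (natB 1 (-θa) (-θb))).dist_le_mul
      (-z.2, z.1) (-z'.2, z'.1)
    rw [hx0, X_XP, X_XP, dist_eq_norm] at e2
    have e3 : dist ((-z.2, z.1) : ℝ × ℝ) (-z'.2, z'.1) = dist z z' := by
      rw [Prod.dist_eq, Prod.dist_eq, dist_neg_neg, max_comm]
    rw [e3] at e2
    have e4 : |ℓ z - ℓ z'| ≤ ‖ℓ‖ * dist z z' := by
      rw [← map_sub, ← Real.norm_eq_abs, dist_eq_norm]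
      exact ℓ.le_opNorm _
    have e5 : F z - F z' = (f j0 (XP θa θb w0 sa sb ε z.1 z.2) -
        f j0 (XP θa θb w0 sa sb ε z'.1 z'.2)) - (ℓ z - ℓ z') := by
      simp only [hF]; rw [GX, GX]; ring
    rw [Real.dist_eq, e5]
    refine (abs_sub _ _).trans ?_
    have e6 : K * ‖XP θa θb w0 sa sb ε z.1 z.2 - XP θa θb w0 sa sb ε z'.1 z'.2‖ ≤
        K * (((‖natB 1 ε (1 + 2 * ε)‖₊ + ‖natB 1 (-θa) (-θb)‖₊ : ℝ≥0) : ℝ) * dist z z') :=
      mul_le_mul_of_nonneg_left e2 hK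
    have e7 : (((K1 * (‖natB 1 ε (1 + 2 * ε)‖₊ + ‖natB 1 (-θa) (-θb)‖₊) + ‖ℓ‖₊ : ℝ≥0)) : ℝ) *
        dist z z' = K * (((‖natB 1 ε (1 + 2 * ε)‖₊ + ‖natB 1 (-θa) (-θb)‖₊ : ℝ≥0) : ℝ) *
        dist z z') + ‖ℓ‖ * dist z z' := by
      rw [NNReal.coe_add, NNReal.coe_mul, hK1, coe_nnnorm]; ring
    rw [e7]
    linarith
  -- the engine
  have hal := aloneR (θ := θa) (β := β) hε hθ h1 h2 h3 h4 h5 h6
  have hdh := dhR (θ := θa) (β := β) hε h5
  have eR : rN θa β = natB 1 (-θa) (-θb) := by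
    rw [rN]; congr 1; rw [hβ]; ring
  rw [eR] at hal hdh
  have hen := ae_rot (engine (j0 := j0) hK hν hm hs (z := w0) (c := sa + θa) (p := sb + θb)
    (z1 := 1) (c1 := ε) (p1 := 1 + 2 * ε) (z2 := 1) (c2 := -θa) (p2 := -θb) (aN_nonneg hε) hal hdh)
  -- null sets
  have hnull : ∀ m : ℕ, volume (⋂ k, VU (f j0) θa θb w0 sa sb δ v1 v2 m k) = 0 := by
    intro m
    set V : Set ℝ := ⋂ k, VU (f j0) θa θb w0 sa sb δ v1 v2 m k with hV
    have hVm : MeasurableSet V :=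
      MeasurableSet.iInter fun k => (VU_open hK (hν j0) sh hv1 hv2 m k).measurableSet
    have hsub : V ∩ Ioo v1 v2 = V := inter_eq_left.2 fun v hv => (mem_iInter.1 hv 0).1
    rw [← hsub]
    refine slant (F := F) (K' := K') (κ := κ) (q := q) ht0 hq hκ hlip hlow hup hVm ?_
    filter_upwards [hen] with z hz hzΩ hzV _
    obtain ⟨a1, a2, a3, a4⟩ := hin z hzΩ
    have hXz : Dg262.X (natB w0 (sa + θa) (sb + θb)) (natB 1 ε (1 + 2 * ε))
        (natB 1 (-θa) (-θb)) (-z.2, z.1) = XP θa θb w0 sa sb ε z.1 z.2 := X_XP _ _ _ _ _ _ _ _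
    obtain ⟨D, hD, hT⟩ := hz (fun k => by
      rw [hXz]; exact XP_box sh hε hε1 ht a1 a2 a3 a4 k)
    choose y hy0 hyδ hyk hy using fun k => (mem_iInter.1 hzV k).2
    have hy1 : Tendsto y atTop (𝓝 0) :=
      squeeze_zero (fun k => (hy0 k).le) (fun k => (hyk k).le)
        tendsto_one_div_add_atTop_nhds_zero_nat
    obtain ⟨ψ, hψ, ρ, hρ, T, d1, d2⟩ := hT y hy0 hy1
    rw [hXz] at T
    have z0L : (0 : Fin 12 → ℝ) ∈ LM := zero_mem
    -- the rate of `D`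
    have hgD : 0 < ρ 1 := by
      have hmem : bx9 0 1 0 0 0 0 0 0 0 ∈ LM := by
        refine lm_raise0 (fun k => ?_) (fun k k0 k1 k3 k4 => ?_)
        · fin_cases k <;> simp [bx9]
        · fin_cases k <;> first | rfl | exact absurd rfl k0 | exact absurd rfl k1
      have key := rate_ge T (q := 1 / ((m : ℝ) + 1)) hmem z0L (Eventually.of_forall fun l => by
        have e1 := hy (ψ l)
        rw [← single_one]
        have e2 := incr (ν := f j0) hs (p := XP θa θb w0 sa sb ε z.1 z.2)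
          (q := rL θa θb w0 sa sb z.1) (u := y (ψ l) • (Pi.single 1 1 : Fin 12 → ℝ)) ?_ ?_ ?_
          (hleg z hzΩ) (rL_mem sh a1 a2) ?_
        · have e3 : 1 / ((m : ℝ) + 1) * y (ψ l) = y (ψ l) / ((m : ℝ) + 1) := by ring
          rw [e3]
          exact e1.le.trans e2
        · rw [rL_XP θa θb w0 sa sb ε]
          intro k
          have e4 : 0 < ε * z.2 := mul_pos hε a3
          fin_cases k <;> simp [XP, natB, bx9] <;> nlinarith
        · intro k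
          rw [Pi.smul_apply, smul_eq_mul]
          refine mul_nonneg (hy0 _).le ?_
          by_cases h : k = 1
          · subst h; simp
          · rw [Pi.single_eq_of_ne h]
        · intro k hk
          by_cases h : k = 1
          · subst h
            rw [rL_XP θa θb w0 sa sb ε]
            simp [XP, natB, bx9]
            ring
          · exfalso
            apply hk
            rw [Pi.smul_apply, Pi.single_eq_of_ne h, smul_zero]
        · refine leg_raise (hleg z hzΩ) (fun k => ?_) (fun k hk _ _ => ?_) (fun k => ?_)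
          · rw [Pi.smul_apply, smul_eq_mul]
            refine mul_nonneg (hy0 _).le ?_
            by_cases h : k = 1
            · subst h; simp
            · rw [Pi.single_eq_of_ne h]
          · rw [Pi.smul_apply, Pi.single_eq_of_ne hk, smul_zero]
          · have e5 : XP θa θb w0 sa sb ε z.1 z.2 1 = rL θa θb w0 sa sb z.1 1 := by
              rw [rL_XP θa θb w0 sa sb ε]
              simp [XP, natB, bx9]
              ring
            by_cases h : k = 1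
            · subst h
              rw [e5]
              exact (rLD_mem sh a1 a2 (hy0 (ψ l)).le (hyδ _)).2 1
            · rw [Pi.smul_apply, Pi.single_eq_of_ne h, smul_zero, add_zero]
              exact (hleg z hzΩ).2 k)
      have e1 : (0 : ℝ) < 1 / ((m : ℝ) + 1) := by positivity
      linarith
    -- the own rate
    have hgz : 1 - s ≤ ρ 0 := by
      have hmem : bx9 1 0 0 0 0 0 0 0 0 ∈ LM := by
        refine lm_raise0 (fun k => ?_) (fun k k0 k1 k3 k4 => ?_)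
        · fin_cases k <;> simp [bx9]
        · fin_cases k <;> first | rfl | exact absurd rfl k0 | exact absurd rfl k1
      have hT0 : Tendsto (fun l => y (ψ l)) atTop (𝓝[>] (0 : ℝ)) :=
        tendsto_nhdsWithin_iff.2 ⟨hy1.comp hψ.tendsto_atTop, Eventually.of_forall fun l => hy0 _⟩
      have key := rate_ge T (q := 1 - s) hmem z0L (hT0.eventually (hown z.1 hzΩ.1 z.2 hzΩ.2))
      linarith
    obtain ⟨P1, P2, P3, H1, S3⟩ := hfac z.1 hzΩ.1 z.2 hzΩ.2 _ _ _ _ _ _ _ _ _ _ T hgz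
    have r0 : 0 ≤ ρ 3 := hρ 3 (by decide)
    have r1 : 0 ≤ ρ 10 := hρ 10 (by decide)
    have r2 : 0 ≤ ρ 2 := hρ 2 (by decide)
    have r3 : 0 ≤ ρ 7 := hρ 7 (by decide)
    have r4 : 0 ≤ ρ 9 := hρ 9 (by decide)
    have P4 : ρ 3 ≤ ρ 9 := by
      rcases r0.lt_or_eq with h | h
      · exact P1.trans (H1 h)
      · rw [← h]; exact r4
    have hrow := rowH (θ := θa) (β := β) (ε := ε) (q := q) (S := 1 + q) (c := c) (s := s)
      (q0 := q0) (q1 := q1) hε h3 h4 h6 hq0 hq1 hc hq hqe rfl hgz r0 r1 r2 r3 hgD.le P1 P2 P3 P4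
      (S3 hgD)
    -- the derivative
    have hder : HasFDerivAt F (D.comp ((-(ContinuousLinearMap.snd ℝ ℝ ℝ)).prod
        (ContinuousLinearMap.fst ℝ ℝ ℝ)) - ℓ) z := by
      have e1 : HasFDerivAt (fun z : ℝ × ℝ => ((-z.2, z.1) : ℝ × ℝ))
          ((-(ContinuousLinearMap.snd ℝ ℝ ℝ)).prod (ContinuousLinearMap.fst ℝ ℝ ℝ)) z :=
        ((-(ContinuousLinearMap.snd ℝ ℝ ℝ)).prod
          (ContinuousLinearMap.fst ℝ ℝ ℝ)).hasFDerivAt
      have e2 : HasFDerivAt G D (-z.2, z.1) := hD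
      exact ((e2.comp z e1).sub_const c₀).sub ℓ.hasFDerivAt
    rw [hder.fderiv]
    have e1 : (D.comp ((-(ContinuousLinearMap.snd ℝ ℝ ℝ)).prod
        (ContinuousLinearMap.fst ℝ ℝ ℝ)) - ℓ) (-1, q) =
        -(q * D (1, 0)) - D (0, 1) - (A1 * (-1) + A2 * q) := by
      rw [sub_apply, ℓ_val]
      have e2 : (D.comp ((-(ContinuousLinearMap.snd ℝ ℝ ℝ)).prod
          (ContinuousLinearMap.fst ℝ ℝ ℝ))) (-1, q) = D (-q, -1) := rfl
      have e3 : ((-q, -1) : ℝ × ℝ) = (-q) • ((1, 0) : ℝ × ℝ) + (-1 : ℝ) • ((0, 1) : ℝ × ℝ) := by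
        ext <;> simp
      rw [e2, e3, map_add, map_smul, map_smul, smul_eq_mul, smul_eq_mul]
      ring
    rw [e1, d1, d2, sum9, sum9]
    refine hrow.trans (le_of_eq ?_)
    simp only [natB, bx9]
    simp
    rw [hA1, hA2, hβ]
    ring
  -- the limit
  have hae : ∀ᵐ v : ℝ, ∀ m : ℕ, v ∉ ⋂ k, VU (f j0) θa θb w0 sa sb δ v1 v2 m k :=
    ae_all_iff.2 fun m => measure_eq_zero_iff_ae_notMem.1 (hnull m)
  filter_upwards [hae] with v hv hvI
  have a1 : 0 ≤ v := hv1.trans hvI.1.le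
  have a2 : v ≤ 1 := hvI.2.le.trans hv2
  rw [Metric.tendsto_nhds]
  intro e he
  obtain ⟨m, hm'⟩ := exists_nat_one_div_lt he
  have h8 := hv m
  rw [mem_iInter] at h8
  push Not at h8
  obtain ⟨k, hk⟩ := h8
  have e1 : ∀ᶠ y : ℝ in 𝓝[>] (0 : ℝ), y < min δ (1 / ((k : ℝ) + 1)) := by
    refine (eventually_lt_nhds ?_).filter_mono nhdsWithin_le_nhds
    exact lt_min hδ (by positivity)
  filter_upwards [e1, self_mem_nhdsWithin] with y hy hy0
  have hy0' : (0 : ℝ) < y := hy0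
  have hyδ : y ≤ δ := hy.le.trans (min_le_left _ _)
  have e2 : f j0 (rL θa θb w0 sa sb v) -
      f j0 (rL θa θb w0 sa sb v + y • (Pi.single 1 1 : Fin 12 → ℝ)) ≤ y / ((m : ℝ) + 1) := by
    by_contra hcon
    push Not at hcon
    exact hk ⟨hvI, y, hy0', hyδ, hy.trans_le (min_le_right _ _), hcon⟩
  have e3 : 0 ≤ f j0 (rL θa θb w0 sa sb v) -
      f j0 (rL θa θb w0 sa sb v + y • (Pi.single 1 1 : Fin 12 → ℝ)) := by
    have := (hm _ (rL_mem sh a1 a2) _ (rLD_mem sh a1 a2 hy0'.le hyδ) (by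
      intro i
      rw [Pi.add_apply, Pi.smul_apply, smul_eq_mul]
      have : 0 ≤ (Pi.single 1 1 : Fin 12 → ℝ) i := by
        by_cases h : i = 1
        · subst h; simp
        · rw [Pi.single_eq_of_ne h]
      have := mul_nonneg hy0'.le this
      linarith)).1
    linarith
  rw [Real.dist_eq, sub_zero, abs_of_nonneg (div_nonneg e3 hy0'.le), div_lt_iff₀ hy0']
  have e4 : y / ((m : ℝ) + 1) = 1 / ((m : ℝ) + 1) * y := by ring
  rw [e4] at e2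
  have e5 := mul_lt_mul_of_pos_right hm' hy0'
  linarith

end

end Crest.Agent.R116.D0h708
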