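import Crest.Agent.R116.Rcx6_363

/-!
# R116 (K side, TIES), own rate with visible slots (helper363)

* `vis_nat`  : natural boxes `(v; a, b)` and the own box of the height `v`: visible slots are
  `1, 2, 7, 8`; `B` needs `b - a ≤ (θb - θa) (1 - v)`, `E`, `D` need `b - 2 a ≤ (θb - 2 θa) (1 - v)`;
* **`own_vis`** : `CtxT`, bases `X l` of heights `→ w0 + v1`, visible slots not finer than their own
  level ⊢ own rate `1 - s` of every tangent at `X`;
* `own_nat`  : constant natural bases `nb w0 sa sb v a b`, equality allowed.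
-/

set_option autoImplicit false
set_option linter.unusedVariables false

open Set Filter Topology MeasureTheory

namespace Crest.Agent.R116.OwV363

open Crest.Agent.R138.Ex926 (Base U IsTan)
open Crest.Agent.R136
open Crest.Agent.R136.MkA627
open Crest.Agent.R136.TD627
open Crest.Agent.R136.Net191
open Crest.Agent.R136.Lq196
open Crest.Agent.R116.ChL222
open Crest.Agent.R116.PL504 (nb rL DN eL βL oL Shift)
open Crest.Agent.R116.Sg337 (bx9)
open Crest.Agent.R116.Gd222 (TSet sN PDL DT)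
open Crest.Agent.R116.KI439
open Crest.Agent.R116.KF439 (PL)
open Crest.Agent.R116.Tw468 (OutT)
open Crest.Agent.R116.CtxB468

section ctx

variable {G : Geo TSet (Fin 2)} {L : ℕ → ℕ → LRay} {r : ℕ → ℝ} {g s : ℝ} {θ q : Fin 2 → ℝ}
    {Rg : ℝ} {B : Base} {I : ℕ → Finset (ℕ × ℝ)} {lev : ℕ → ℚ → ℕ} {A : ℕ → ℝ}
    {f : ℕ → ℚ → ℕ → ℤ → ℕ} {b : ℕ → ℚ → ℕ → TSet} {vm : ℕ → ℚ → ℝ} {w : Fin 2 → ℕ → ℚ → ℝ}
    {fr : ℕ → ℚ → ℕ × ℝ → LInc} {fl : ℕ → ℕ × ℝ → LInc} {sc : Fin 12 → ℕ → ℝ}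
    {w0 sa sb δ R : ℝ} {I0 I' : ℕ → Finset (ℕ × ℝ)} {ν own : (Fin 12 → ℝ) → ℝ} {c₀ : ℝ}

/-- only the slots `1, 2, 7, 8` are visible -/
theorem vis_cases'
    (H : CtxT G L r g s θ q Rg B I lev A f b vm w fr fl sc w0 sa sb δ R I0 I' ν own c₀)
    {k : Fin 12} (hk : k ≠ 0) (hv : VisT B I fl sc k) : k = 1 ∨ k = 2 ∨ k = 7 ∨ k = 8 := by
  by_contra h1
  refine hv (H.out.inv_ray ?_)
  revert hk h1
  clear hv
  revert k
  decide

/-- **natural boxes against the own box of the same height** -/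
theorem vis_nat
    (H : CtxT G L r g s θ q Rg B I lev A f b vm w fr fl sc w0 sa sb δ R I0 I' ν own c₀)
    {v a' b' : ℝ} (hB : VisT B I fl sc 7 ∨ VisT B I fl sc 8 → b' - a' ≤ (θ 1 - θ 0) * (1 - v))
    (hE : VisT B I fl sc 2 ∨ VisT B I fl sc 1 → b' - 2 * a' ≤ (θ 1 - 2 * θ 0) * (1 - v))
    (k : Fin 12) (hk : k ≠ 0) (hv : VisT B I fl sc k) :
    nb w0 sa sb v a' b' k ≤ rL (θ 0) (θ 1) w0 sa sb v k := by
  rw [PL504.rL_nb]
  rcases vis_cases' H hk hv with rfl | rfl | rfl | rfl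
  · have h1 := hE (Or.inr hv)
    simp only [nb, eL, Matrix.cons_val]
    linarith
  · have h1 := hE (Or.inl hv)
    simp only [nb, eL, Matrix.cons_val]
    linarith
  · have h1 := hB (Or.inl hv)
    simp only [nb, eL, Matrix.cons_val]
    linarith
  · have h1 := hB (Or.inr hv)
    simp only [nb, eL, Matrix.cons_val]
    linarith

/-- **own rate at bases whose visible slots are not finer than their own level** -/
theorem own_vis
    (H : CtxT G L r g s θ q Rg B I lev A f b vm w fr fl sc w0 sa sb δ R I0 I' ν own c₀)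
    {v1 : ℝ} (hv0 : 0 < v1) (hv1 : v1 < 1) {X : ℕ → Fin 12 → ℝ} {h : ℕ → ℝ}
    (hX : Tendsto (fun l => X l 0) atTop (𝓝 (w0 + v1)))
    (hV : ∀ᶠ l in atTop, ∀ k, k ≠ 0 → VisT B I fl sc k →
      X l k ≤ rL (θ 0) (θ 1) w0 sa sb (X l 0 - w0) k)
    (hpos : ∀ l, 0 < h l) (h0 : Tendsto h atTop (𝓝 0)) {D : Set (Fin 12 → ℝ)}
    {gg : (Fin 12 → ℝ) → ℝ} (hm0 : (0 : Fin 12 → ℝ) ∈ D) {y : ℝ} (hy : 0 < y)
    (hmy : bx9 y 0 0 0 0 0 0 0 0 ∈ D) (ht : IsTan (Leg monL R) D ν X h gg) :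
    (1 - s) * y ≤ -(gg (bx9 y 0 0 0 0 0 0 0 0)) := by
  have h1 := SgO219.tan_lim hpos ht hm0 hmy
  rw [Sg337.tan_zero hpos ht hm0, zero_sub] at h1
  have hX0 : Tendsto (fun l => X l 0 - w0) atTop (𝓝 v1) := by
    have h2 := hX.sub_const w0
    simpa using h2
  have hX1 : Tendsto (fun l => X l 0 - w0 + h l * y) atTop (𝓝 v1) := by
    simpa using hX0.add (h0.mul_const y)
  refine ge_of_tendsto h1 ?_
  filter_upwards [SgO219.tan_ev ht hm0, SgO219.tan_ev ht hmy,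
    hX0.eventually (Ioo_mem_nhds hv0 hv1), hX1.eventually (Ioo_mem_nhds hv0 hv1), hV]
    with l m1 m2 n1 n2 n3
  have hl := hpos l
  rw [smul_zero, add_zero] at m1 ⊢
  have hs0 : bx9 y 0 0 0 0 0 0 0 0 0 = y := rfl
  have hnn : ∀ k : Fin 12, 0 ≤ bx9 y 0 0 0 0 0 0 0 0 k := fun k => by
    fin_cases k <;> simp [bx9, hy.le]
  have h2 := PL504.own_inc H.ext m1 m2 (fun k => by
      simp only [Pi.add_apply, Pi.smul_apply, smul_eq_mul]
      have := mul_nonneg hl.le (hnn k)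
      linarith) (v := X l 0 - w0) (v' := X l 0 - w0 + h l * y) n1.1.le n1.2.le n2.1.le n2.2.le
    (by ring)
    (by simp only [Pi.add_apply, Pi.smul_apply, smul_eq_mul, hs0]; ring)
    (fun k => by
      by_cases hk : k = 0
      · rw [hk]
        refine le_of_eq ?_
        have : oL (θ 0) (θ 1) w0 sa sb R (VisT B I fl sc) (X l 0 - w0) 0 = w0 + (X l 0 - w0) :=
          oz _ _
        rw [this]; ring
      · by_cases hkv : VisT B I fl sc k
        · rw [oV hkv]; exact n3 k hk hkv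
        · exact (m1.2 k).trans (oR hk hkv _).ge)
  rw [le_div_iff₀ hl]
  nlinarith

/-- **own rate at a constant natural base** -/
theorem own_nat
    (H : CtxT G L r g s θ q Rg B I lev A f b vm w fr fl sc w0 sa sb δ R I0 I' ν own c₀)
    {v a' b' : ℝ} (hv0 : 0 < v) (hv1 : v < 1)
    (hB : VisT B I fl sc 7 ∨ VisT B I fl sc 8 → b' - a' ≤ (θ 1 - θ 0) * (1 - v))
    (hE : VisT B I fl sc 2 ∨ VisT B I fl sc 1 → b' - 2 * a' ≤ (θ 1 - 2 * θ 0) * (1 - v))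
    {h : ℕ → ℝ} (hpos : ∀ l, 0 < h l) (h0 : Tendsto h atTop (𝓝 0)) {D : Set (Fin 12 → ℝ)}
    {gg : (Fin 12 → ℝ) → ℝ} (hm0 : (0 : Fin 12 → ℝ) ∈ D) {y : ℝ} (hy : 0 < y)
    (hmy : bx9 y 0 0 0 0 0 0 0 0 ∈ D)
    (ht : IsTan (Leg monL R) D ν (fun _ => nb w0 sa sb v a' b') h gg) :
    (1 - s) * y ≤ -(gg (bx9 y 0 0 0 0 0 0 0 0)) := by
  have e0 : nb w0 sa sb v a' b' 0 = w0 + v := PL504.nb_z
  refine own_vis H hv0 hv1 (X := fun _ => nb w0 sa sb v a' b') ?_ ?_ hpos h0 hm0 hy hmy ht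
  · simp only [e0]; exact tendsto_const_nhds
  · refine Eventually.of_forall fun l k hk hv => ?_
    have e1 : nb w0 sa sb v a' b' 0 - w0 = v := by rw [e0]; ring
    rw [e1]
    exact vis_nat H hB hE k hk hv

/-- the conditions of `own_nat` on the half plane `R(v) - t (1; ε, 1 + 2 ε)` (878's `n_ε`;
`ε = 0` : the plane `Y`) -/
theorem vis_Y {v t ε : ℝ} (ht : 0 ≤ t) (hε : 0 ≤ ε) :
    (θ 0 - θ 1 ≤ 1 → (θ 1 * (1 - v) - (1 + 2 * ε) * t) - (θ 0 * (1 - v) - ε * t) ≤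
      (θ 1 - θ 0) * (1 - (v - t))) ∧
    (2 * θ 0 - θ 1 ≤ 1 → (θ 1 * (1 - v) - (1 + 2 * ε) * t) - 2 * (θ 0 * (1 - v) - ε * t) ≤
      (θ 1 - 2 * θ 0) * (1 - (v - t))) := by
  have h1 := mul_nonneg hε ht
  constructor
  · intro hk
    nlinarith [mul_nonneg ht (sub_nonneg.2 hk)]
  · intro hk
    nlinarith [mul_nonneg ht (sub_nonneg.2 hk)]

end ctx

end Crest.Agent.R116.OwV363
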