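import Crest.Agent.R116.D0h3_708
import Crest.Agent.R116.Kg8_330
import Crest.Agent.R116.OwV_363
import Crest.Agent.R116.Ap3_954
import Crest.Agent.R116.D0T_794

/-!
# R116 (K side), LEMMA D0 at `5 θ ≥ 3 + β` over the contexts (helper708)

* `d0H_ctx` : `CtxT` (visible slots allowed) ⊢ `Mic`
* **`d0H`** : `D0T η` in the region `RegH`
-/

set_option autoImplicit false
set_option linter.unusedVariables false

open Set Filter Topology MeasureTheory

namespace Crest.Agent.R116.D0h708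

open Crest.Agent.R138.Ex926 (Base U IsTan)
open Crest.Agent.R136.MkA627
open Crest.Agent.R136.TD627
open Crest.Agent.R136.Net191
open Crest.Agent.R136.Lq196
open Crest.Agent.R116.ChL222
open Crest.Agent.R116.PL504 (nb rL DN eL βL oL Shift rL_nb)
open Crest.Agent.R116.Sg337 (bx9 natB nb_natB)
open Crest.Agent.R116.Gd222 (TSet sN PDL DT)
open Crest.Agent.R116.KI439
open Crest.Agent.R116.KF439 (PL)
open Crest.Agent.R116.Tw468 (OutT)
open Crest.Agent.R116.CtxB468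
open Crest.Agent.R116.KTop387
open Crest.Agent.R116.KTie794
open Crest.Agent.R116.D0F878
open Crest.Agent.R116.D0n878

section ctx

variable {G : Geo TSet (Fin 2)} {L : ℕ → ℕ → LRay} {r : ℕ → ℝ} {g s : ℝ} {θ q : Fin 2 → ℝ}
    {Rg : ℝ} {B : Base} {I : ℕ → Finset (ℕ × ℝ)} {lev : ℕ → ℚ → ℕ} {A : ℕ → ℝ}
    {f : ℕ → ℚ → ℕ → ℤ → ℕ} {b : ℕ → ℚ → ℕ → TSet} {vm : ℕ → ℚ → ℝ} {w : Fin 2 → ℕ → ℚ → ℝ}
    {fr : ℕ → ℚ → ℕ × ℝ → LInc} {fl : ℕ → ℕ × ℝ → LInc} {sc : Fin 12 → ℕ → ℝ}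
    {w0 sa sb δ R : ℝ} {I0 I' : ℕ → Finset (ℕ × ℝ)} {ν own : (Fin 12 → ℝ) → ℝ} {c₀ : ℝ}

theorem XP_nb (θa θb w0 sa sb ε v t : ℝ) : XP θa θb w0 sa sb ε v t =
    nb w0 sa sb (v - t) (θa * (1 - v) - ε * t) (θb * (1 - v) - (1 + 2 * ε) * t) := by
  rw [nb_natB, XP]
  congr 1 <;> ring

/-- **LEMMA D0 at `3 + β ≤ 5 θ`** over the context -/
theorem d0H_ctx
    (H : CtxT G L r g s θ q Rg B I lev A f b vm w fr fl sc w0 sa sb δ R I0 I' ν own c₀)
    (hs0 : 0 ≤ s) (hs1 : s < 1) (hq0 : 0 ≤ q 0) (hq1 : 0 ≤ q 1) (hc : 1 + q 1 < g)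
    (hRg : θ 0 + |θ 1| + 1 ≤ Rg)
    (h1 : -θ 0 < 2 * θ 0 - θ 1 - 1) (h2 : 2 * θ 0 - θ 1 - 1 ≤ θ 0) (h3 : -1 < 2 * θ 0 - θ 1 - 1)
    (h4 : 2 * θ 0 - θ 1 - 1 < 1) (h5 : 2 * θ 0 - θ 1 - 1 ≠ 0)
    (h7 : 3 + (2 * θ 0 - θ 1 - 1) ≤ 5 * θ 0)
    (hB : VisT B I fl sc 7 ∨ VisT B I fl sc 8 → θ 0 - θ 1 ≤ 1)
    (hE : VisT B I fl sc 2 ∨ VisT B I fl sc 1 → 2 * θ 0 - θ 1 ≤ 1) :
    Mic ν (θ 0) (θ 1) w0 sa sb := by
  have sh := H.sh
  have hδ := sh.d0
  have hθ : 0 < θ 0 := by linarith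
  have hN := WinU954.nprof_of_ext (sh.d0.le.trans sh.R_pos) (H.extK (|θ 0| + |θ 1|))
  -- the constant `ε`
  set ε : ℝ := min 1 (θ 0 + (2 * θ 0 - θ 1 - 1)) with hεd
  have hε : 0 < ε := lt_min one_pos (by linarith)
  have hε1 : ε ≤ 1 := min_le_left _ _
  have h6 : ε ≤ θ 0 + (2 * θ 0 - θ 1 - 1) := min_le_right _ _
  have key : ∀ n : ℕ, ∀ᵐ v : ℝ, v ∈ Ioo (1 / ((n : ℝ) + 2)) (1 - 1 / ((n : ℝ) + 2)) →
      Tendsto (fun y : ℝ => (ν (rL (θ 0) (θ 1) w0 sa sb v) -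
        ν (rL (θ 0) (θ 1) w0 sa sb v + y • (Pi.single 1 1 : Fin 12 → ℝ))) / y) (𝓝[>] 0) (𝓝 0) := by
    intro n
    set v1 : ℝ := 1 / ((n : ℝ) + 2) with hv1d
    have hv1 : 0 < v1 := by positivity
    have hv1' : v1 ≤ 1 / 2 := by
      rw [hv1d]
      exact one_div_le_one_div_of_le two_pos (by linarith [Nat.cast_nonneg (α := ℝ) n])
    set t0 : ℝ := min (δ / 4) (min (v1 / 4) (θ 0 * v1 / 2)) with ht0d
    have ht0 : 0 < t0 := lt_min (by positivity) (lt_min (by positivity) (by positivity))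
    have htδ : 4 * t0 ≤ δ := by
      have := min_le_left (δ / 4) (min (v1 / 4) (θ 0 * v1 / 2)); linarith
    have htv : t0 ≤ v1 / 4 := (min_le_right _ _).trans (min_le_left _ _)
    have htθ : t0 ≤ θ 0 * v1 / 2 := (min_le_right _ _).trans (min_le_right _ _)
    -- the region
    have reg : ∀ v ∈ Ioo v1 (1 - v1), ∀ t ∈ Ioo (0 : ℝ) t0,
        0 < v - t ∧ v - t < 1 ∧ 0 < θ 0 * (1 - v) - ε * t ∧ ε * t ≤ t ∧ 0 < ε * t := by
      intro v hv t ht
      have e1 : θ 0 * v1 ≤ θ 0 * (1 - v) := mul_le_mul_of_nonneg_left (by linarith [hv.2]) hθ.le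
      have e2 : ε * t ≤ 1 * t := mul_le_mul_of_nonneg_right hε1 ht.1.le
      have e3 : 0 < ε * t := mul_pos hε ht.1
      refine ⟨by linarith [hv.1, ht.2], by linarith [hv.2, ht.1], by linarith [ht.2], by linarith,
        e3⟩
    have hbox : ∀ v ∈ Ioo v1 (1 - v1), ∀ t ∈ Ioo (0 : ℝ) t0, ∀ k,
        0 < XP (θ 0) (θ 1) w0 sa sb ε v t k ∧ XP (θ 0) (θ 1) w0 sa sb ε v t k < R :=
      fun v hv t ht k => XP_box sh hε hε1 htδ (by linarith [hv.1]) (by linarith [hv.2]) ht.1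
        ht.2.le k
    have hleg : ∀ v ∈ Ioo v1 (1 - v1), ∀ t ∈ Ioo (0 : ℝ) t0,
        XP (θ 0) (θ 1) w0 sa sb ε v t ∈ Leg monL R :=
      fun v hv t ht => XP_leg sh hε hε1 htδ (by linarith [hv.1]) (by linarith [hv.2]) ht.1 ht.2.le
    have main := d0h (J := Unit) (f := fun _ => ν) (j0 := ()) (K := ((12 : ℕ) : ℝ)) (c := g)
      (s := s) (q0 := q 0) (q1 := q 1) (c₀ := c₀) (t0 := t0) (v1 := v1) (v2 := 1 - v1)
      (by positivity) (fun _ => hN.lip)
      (fun p hp q hq hpq => ⟨hN.anti p hp q hq hpq, hN.sharp p hp q hq hpq⟩) hN.submod sh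
      h1 h2 h3 h4 h5 h7 hq0 hq1 hc hε hε1 h6 ht0 htδ hv1.le (by linarith) ?_ ?_ ?_ ?_
    · exact main
    · intro v hv
      have e1 := H.ext.record v (by linarith [hv.1]) (by linarith [hv.2])
      rw [EL_DN] at e1
      exact e1
    · intro v hv t ht
      obtain ⟨r1, r2, r3, r4, r5⟩ := reg v hv t ht
      have hl := hleg v hv t ht
      have aθ := le_abs_self (θ 1)
      have bθ := neg_abs_le (θ 1)
      have h01 : 0 ≤ 1 - v := by linarith [hv.2]
      have h02 : 1 - v ≤ 1 := by linarith [hv.1]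
      have u1 : θ 0 * (1 - v) ≤ θ 0 * 1 := mul_le_mul_of_nonneg_left h02 hθ.le
      have u2 : |θ 1 * (1 - v)| ≤ |θ 1| * 1 := by
        rw [abs_mul, abs_of_nonneg h01]
        exact mul_le_mul_of_nonneg_left h02 (abs_nonneg _)
      have u3 := abs_le.1 u2
      have t8 : t < 1 / 8 := by linarith [ht.2]
      rw [XP_nb] at hl ⊢
      have hp := nb_PD (Rg := Rg) (k0 := θ 0 + |θ 1| + 1) hl r1.le r2.le r3 (by linarith [ht.1])
        (by rw [abs_lt]; constructor <;> nlinarith [ht.1]) (by nlinarith [ht.1])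
      have e1 := (H.extK (θ 0 + |θ 1| + 1)).dmax _ hp
      rw [DT_nb] at e1
      exact e1
    · intro v hv t ht
      obtain ⟨r1, r2, r3, r4, r5⟩ := reg v hv t ht
      have hl := hleg v hv t ht
      have hR := hbox v hv t ht 0
      have e1 : ∀ᶠ y : ℝ in 𝓝[>] (0 : ℝ), y < min (1 - (v - t))
          (R - XP (θ 0) (θ 1) w0 sa sb ε v t 0) := by
        refine (eventually_lt_nhds ?_).filter_mono nhdsWithin_le_nhds
        exact lt_min (by linarith) (by linarith [hR.2])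
      filter_upwards [e1, self_mem_nhdsWithin] with y hy hy0
      have hy0' : (0 : ℝ) < y := hy0
      have hy1 : y < 1 - (v - t) := hy.trans_le (min_le_left _ _)
      have hy2 : y < R - XP (θ 0) (θ 1) w0 sa sb ε v t 0 := hy.trans_le (min_le_right _ _)
      have hnn : ∀ k : Fin 12, 0 ≤ bx9 1 0 0 0 0 0 0 0 0 k := fun k => by
        fin_cases k <;> simp [bx9]
      have hne : ∀ k : Fin 12, k ≠ 0 → bx9 1 0 0 0 0 0 0 0 0 k = 0 := fun k hk => by
        fin_cases k <;> first | exact absurd rfl hk | rfl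
      have hz : XP (θ 0) (θ 1) w0 sa sb ε v t 0 = w0 + (v - t) := by rw [XP_nb]; rfl
      have hs0' : bx9 1 0 0 0 0 0 0 0 0 0 = (1 : ℝ) := rfl
      have hl2 : XP (θ 0) (θ 1) w0 sa sb ε v t + y • bx9 1 0 0 0 0 0 0 0 0 ∈ Leg monL R := by
        refine ⟨⟨fun k => ?_, fun k e he => ?_⟩, fun k => ?_⟩
        · have a1 := hl.1.nonneg k
          have a2 := mul_nonneg hy0'.le (hnn k)
          rw [Pi.add_apply, Pi.smul_apply, smul_eq_mul]; linarith
        · have a1 := hl.1.wall k e he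
          have hk := wall_hd4 k e he
          rw [Pi.add_apply, Pi.smul_apply, hne k hk.1, smul_zero, add_zero]
          refine a1.trans (Finset.sum_le_sum fun i _ => ?_)
          rw [Pi.add_apply, Pi.smul_apply, smul_eq_mul]
          have a2 := mul_nonneg (Nat.cast_nonneg (α := ℝ) (e i)) (mul_nonneg hy0'.le (hnn i))
          nlinarith
        · rw [Pi.add_apply, Pi.smul_apply, smul_eq_mul]
          by_cases hk : k = 0
          · subst hk; rw [hs0']; linarith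
          · rw [hne k hk, mul_zero, add_zero]; exact hl.2 k
      have hV := OwV363.vis_Y (θ := θ) (v := v) (t := t) (ε := ε) ht.1.le hε.le
      have key := PL504.own_inc H.ext hl hl2 (fun k => by
          simp only [Pi.add_apply, Pi.smul_apply, smul_eq_mul]
          have := mul_nonneg hy0'.le (hnn k)
          linarith) (v := v - t) (v' := v - t + y) r1.le r2.le (by linarith) (by linarith)
        hz (by simp only [Pi.add_apply, Pi.smul_apply, smul_eq_mul, hs0', hz]; ring)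
        (fun k => by
          by_cases hk : k = 0
          · rw [hk, hz]
            exact (oz (VisT B I fl sc) (v - t)).ge
          · by_cases hkv : VisT B I fl sc k
            · rw [oV hkv, XP_nb]
              exact OwV363.vis_nat H (fun h => hV.1 (hB h)) (fun h => hV.2 (hE h)) k hk hkv
            · exact (hl.2 k).trans (oR hk hkv _).ge)
      have e2 : (1 - s) * (v - t + y - (v - t)) = (1 - s) * y := by ring
      rw [e2] at key
      exact key
    · intro v hv t ht hh rz rX rH rF gC gP gE gB gD T hrz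
      obtain ⟨r1, r2, r3, r4, r5⟩ := reg v hv t ht
      obtain ⟨D, lam, hD, htan, hlin⟩ := T.ex
      have eX : XP (θ 0) (θ 1) w0 sa sb ε v t = eL (w0 + v - t)
          (sa + θ 0 * (1 - v) - ε * t) (sb + θ 1 * (1 - v) - (1 + 2 * ε) * t) := by
        rw [XP, natB_eL]
      have ht0' := htan ()
      rw [eX] at ht0'
      have hb := hbox v hv t ht
      rw [eX] at hb
      have P := Ap954.pins_T H hs1 (w0 + v - t) (sa + θ 0 * (1 - v) - ε * t)
        (sb + θ 1 * (1 - v) - (1 + 2 * ε) * t) hb (by linarith) (by linarith) hh D (lam ())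
        T.hpos T.h0 ht0' hD rz rX rH rF gC gP gE gB gD
        (fun z d C p E B x H F hm => hlin z d C p E B x H F hm) hrz
      have F := Kg330.facts_nat H hs0 hs1.le (by linarith) (by linarith) T.hpos T.h0 ht0' hD
        (fun z d C p E B x H F hm => hlin z d C p E B x H F hm) hrz
      exact ⟨P.1, P.2.1, P.2.2, F.2.2.1.1, F.2.2.2.2.1⟩
  have hall := ae_all_iff.2 key
  unfold Mic
  filter_upwards [hall] with v hv hvI
  obtain ⟨n1, hn1⟩ := exists_nat_one_div_lt (lt_min hvI.1 (sub_pos.2 hvI.2))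
  refine hv n1 ⟨?_, ?_⟩
  · have e1 : 1 / ((n1 : ℝ) + 2) ≤ 1 / ((n1 : ℝ) + 1) :=
      one_div_le_one_div_of_le (by positivity) (by linarith)
    have := hn1.trans_le (min_le_left _ _)
    linarith
  · have e1 : 1 / ((n1 : ℝ) + 2) ≤ 1 / ((n1 : ℝ) + 1) :=
      one_div_le_one_div_of_le (by positivity) (by linarith)
    have := hn1.trans_le (min_le_right _ _)
    linarith

end ctx

/-- region of `d0H` -/
def RegH (s : ℝ) (θ : Fin 2 → ℝ) : Prop :=
  1 / 2 ≤ s ∧ -θ 0 < 2 * θ 0 - θ 1 - 1 ∧ 2 * θ 0 - θ 1 - 1 ≤ θ 0 ∧ -1 < 2 * θ 0 - θ 1 - 1 ∧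
    2 * θ 0 - θ 1 - 1 < 1 ∧ 2 * θ 0 - θ 1 - 1 ≠ 0 ∧ 3 + (2 * θ 0 - θ 1 - 1) ≤ 5 * θ 0

/-- **D0 for `1/2 ≤ s`** -/
theorem d0H {η : ℝ} (hη : η < 1) : D0T η RegH := by
  intro G L r g s θ q Rg B I lev A f b vm w fr fl sc w0 sa sb δ R I0 I' ν own c₀ C N hX hR0 hR1
    hRg hI hT1 hT2
  obtain ⟨x1, x2, x3, x4, x5, x6, x7⟩ := hX
  have hq1 : q 1 < g := by
    have := N.qbg
    have := mul_lt_mul_of_pos_right hη N.gpos
    linarith
  refine d0H_ctx C N.s0 N.s1 N.qa.le N.qb.le (by linarith) hRg x2 x3 x4 x5 x6 x7 ?_ ?_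
  · rintro (h | h)
    · exact hT1 (Or.inl ((C.out.clsB (Or.inl rfl)).resolve_left h))
    · exact hT1 (Or.inr ((C.out.clsB (Or.inr rfl)).resolve_left h))
  · rintro (h | h)
    · rcases C.out.clsE with h8 | h8 | h8
      · exact absurd h8 h
      · exact (hT2 h8).le
      · exact absurd hI h8.1
    · exact absurd hI h

end Crest.Agent.R116.D0h708
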