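import Crest.Agent.R116.D0h4_708

/-!
# R116 (K side), LEMMA D0 at `5 θ ≥ 3 + β` with any `0 < β ≤ θ` (helper708)

`D0h3_708 / D0h4_708` have `-1 < β < 1`.  Here `0 < β` without upper bound; only
`β = θ = 1` is excluded (there the slots 5 and 10 are never separated).

* `aloneP`, `rowP`, `d0p`, `d0P_ctx`
* **`d0H2`** : `D0T η` in the region `RegH2`
-/

set_option autoImplicit false
set_option linter.unusedVariables false

open Set Filter Topology MeasureTheory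
open scoped NNReal

namespace Crest.Agent.R116.D0h708

open Crest.Agent.R138.Ex926 (Base U IsTan)
open Crest.Agent.R136.MkA627
open Crest.Agent.R136.TD627
open Crest.Agent.R136.Net191
open Crest.Agent.R136.Lq196
open Crest.Agent.R116.ChL222
open Crest.Agent.R116.PL504 (nb rL DN eL βL oL Shift rL_nb)
open Crest.Agent.R116.Sg337 (bx9 natB nb_natB)
open Crest.Agent.R116.Gd222 (TSet sN PDL DT)
open Crest.Agent.R116.KI439
open Crest.Agent.R116.KF439 (PL)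
open Crest.Agent.R116.Tw468 (OutT)
open Crest.Agent.R116.CtxB468
open Crest.Agent.R116.KTop387
open Crest.Agent.R116.KTie794
open Crest.Agent.R116.D0F878
open Crest.Agent.R116.D0n878
open Crest.Agent.R136.Dg219 (mw gC dhC nC gC_eq gC_zero X_lip)

section

open Crest.Agent.R138
open Crest.Agent.R136

variable {J : Type*} {f : J → (Fin 12 → ℝ) → ℝ} {j0 : J}
  {R K w0 sa sb θa θb δ c s q0 q1 c₀ ε t0 v1 v2 : ℝ}

/-- **all nine slots are alone** -/
theorem aloneP {ε θ β : ℝ} (hε : 0 < ε) (h2 : β ≤ θ) (h5 : 0 < β)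
    (h6 : (θ - β) + ε * (1 - β) ≠ 0) :
    ∀ i ∈ S9, ∀ j ∈ S9, gC (aN ε) (rN θ β) i = gC (aN ε) (rN θ β) j → i = j := by
  intro i hi j hj h
  by_cases k1 : i = 1
  · subst k1
    rw [gC_zero.2 (aN_one ε)] at h
    by_contra k2
    exact aN_ne hε j hj (fun e => k2 e.symm) (gC_zero.1 h.symm)
  by_cases k2 : j = 1
  · subst k2
    rw [gC_zero.2 (aN_one ε)] at h
    exact absurd (gC_zero.1 h) (aN_ne hε i hi k1)
  have n1 := aN_ne hε i hi k1
  have n2 := aN_ne hε j hj k2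
  rw [gC_eq n1 n2, div_eq_div_iff n1 n2] at h
  obtain ⟨r0, -, r2, r3, r5, r7, r9, r10, r11⟩ := rN_val θ β
  obtain ⟨a0, -, a2, a3, a5, a7, a9, a10, a11⟩ := aN_val ε
  have hθ : 0 < θ := h5.trans_le h2
  have e3 : 0 < ε * β := mul_pos hε h5
  have e4 : θ - β + (ε - ε * β) ≠ 0 := fun e => h6 (by linarith)
  simp only [S9, Finset.mem_insert, Finset.mem_singleton] at hi hj
  rcases hi with rfl | rfl | rfl | rfl | rfl | rfl | rfl | rfl | rfl <;>
    rcases hj with rfl | rfl | rfl | rfl | rfl | rfl | rfl | rfl | rfl <;>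
    first
      | rfl
      | exact absurd rfl k1
      | exact absurd rfl k2
      | (exfalso
         simp only [r0, r2, r3, r5, r7, r9, r10, r11, a0, a2, a3, a5, a7, a9, a10, a11] at h
         first
           | (ring_nf at h e3
              linarith)
           | (refine e4 ?_
              ring_nf at h ⊢
              linarith))

/-- **the row** -/
theorem rowP {θ β ε q S c s q0 q1 rz rX rH rF gC gP gE gB gD : ℝ} (hε : 0 < ε) (hε1 : ε ≤ 1)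
    (h3 : 0 < β) (h4 : β ≤ θ) (hq0 : 0 ≤ q0) (hq1 : 0 ≤ q1)
    (hc : 1 + q1 < c) (hq : 0 ≤ q) (hqe : q * (3 + 5 * ε) = 5 * θ - β - 3) (hS : S = 1 + q)
    (own : 1 - s ≤ rz) (pC : 0 ≤ gC) (pP : 0 ≤ gP) (pE : 0 ≤ gE) (pB : 0 ≤ gB) (pD : 0 ≤ gD)
    (P1 : gC ≤ rX) (P2 : gP ≤ rF) (P3 : gD ≤ gE) (P4 : gC ≤ rH) (S3 : rH ≤ gP) :
    c - 1 - q1 ≤ rz * S + gD * β + gE * (S + β) - gC * (θ - q * ε) + rX * (S - (θ - q * ε)) +
      gB * (S + β - (θ - q * ε)) + rH * (S - 2 * (θ - q * ε)) +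
      gP * (S + β - 2 * (θ - q * ε)) + rF * (2 * S + β - 2 * (θ - q * ε)) +
      S * (c - 4 + s) + (3 + q0) * (θ - q * ε) + (1 + q1) * (2 * (θ - q * ε) - S - β) := by
  have hμ : θ - q * ε = (3 * S + β) / 5 := by
    rw [hS]; linarith
  rw [hμ]
  have hS1 : 1 ≤ S := by rw [hS]; linarith
  have hT : 0 ≤ S + 2 * β := by linarith
  have hS2 : 0 ≤ 2 * S - β := by
    have e1 : (3 + 5 * ε) * (2 * S - β) = 10 * (θ - β) + 10 * ε + 5 * β * (1 - ε) := by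
      rw [hS]; linarith
    have e2 : 0 ≤ 5 * β * (1 - ε) := mul_nonneg (by linarith) (by linarith)
    have e3 : 0 ≤ (3 + 5 * ε) * (2 * S - β) := by rw [e1]; linarith
    exact nonneg_of_mul_nonneg_right e3 (by positivity)
  set T : ℝ := S + 2 * β with hTd
  have m1 : 0 ≤ (2 * S - β) * (rX - gC) := mul_nonneg hS2 (by linarith)
  have m2 : 0 ≤ T * (rH - gC) := mul_nonneg hT (by linarith)
  have m3 : 0 ≤ T * (gP - rH) := mul_nonneg hT (by linarith)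
  have m4 : 0 ≤ (4 * S + 3 * β) * (rF - gP) := mul_nonneg (by linarith) (by linarith)
  have m5 : 0 ≤ T * gP := mul_nonneg hT pP
  have m6 : 0 ≤ T * gB := mul_nonneg hT pB
  have m7 : 0 ≤ gD * β + gE * (S + β) := by
    have := mul_nonneg pD h3.le
    have := mul_nonneg pE (show 0 ≤ S + β by linarith)
    linarith
  have m8 : 0 ≤ (rz - (1 - s)) * S := mul_nonneg (by linarith) (by linarith)
  have m9 : 0 ≤ q0 * (3 * S + β) := mul_nonneg hq0 (by linarith)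
  have m10 : 0 ≤ q1 * (6 * S - 3 * β) := mul_nonneg hq1 (by linarith)
  have m11 : 0 ≤ (S - 1) * (c - 1 - q1) := mul_nonneg (by linarith) (by linarith)
  rw [hTd] at m2 m3 m5 m6
  nlinarith

set_option maxHeartbeats 4000000 in
/-- **LEMMA D0 at `3 + β ≤ 5 θ`, `0 < β`**: zero rate of the slot `D` at almost every record box. -/
theorem d0p [Finite J] (hK : 0 ≤ K)
    (hν : ∀ j, ∀ p ∈ Leg monL R, ∀ q ∈ Leg monL R, |f j p - f j q| ≤ K * ‖p - q‖)
    (hm : ∀ p ∈ Leg monL R, ∀ q ∈ Leg monL R, p ≤ q →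
      f j0 q ≤ f j0 p ∧ f j0 p - f j0 q ≤ ∑ i, (q i - p i))
    (hs : ∀ p ∈ Leg monL R, ∀ q ∈ Leg monL R, p ⊓ q ∈ Leg monL R →
      f j0 p + f j0 q ≤ f j0 (p ⊔ q) + f j0 (p ⊓ q))
    (sh : Shift θa θb w0 sa sb δ R)
    (h2 : 2 * θa - θb - 1 ≤ θa) (h5 : 0 < 2 * θa - θb - 1)
    (h7 : 3 + (2 * θa - θb - 1) ≤ 5 * θa)
    (hq0 : 0 ≤ q0) (hq1 : 0 ≤ q1) (hc : 1 + q1 < c)
    (hε : 0 < ε) (hε1 : ε ≤ 1) (h6 : (θa - (2 * θa - θb - 1)) + ε * (1 - (2 * θa - θb - 1)) ≠ 0)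
    (ht0 : 0 < t0) (ht : 4 * t0 ≤ δ) (hv1 : 0 ≤ v1) (hv2 : v2 ≤ 1)
    (hrec : ∀ v ∈ Ioo v1 v2, c₀ + DN c s q0 q1 θa θb v (θa * (1 - v)) (θb * (1 - v)) ≤
      f j0 (rL θa θb w0 sa sb v))
    (hdm : ∀ v ∈ Ioo v1 v2, ∀ t ∈ Ioo 0 t0, f j0 (XP θa θb w0 sa sb ε v t) ≤
      c₀ + DN c s q0 q1 θa θb (v - t) (θa * (1 - v) - ε * t) (θb * (1 - v) - (1 + 2 * ε) * t))
    (hown : ∀ v ∈ Ioo v1 v2, ∀ t ∈ Ioo 0 t0, ∀ᶠ y in 𝓝[>] (0 : ℝ), (1 - s) * y ≤
      f j0 (XP θa θb w0 sa sb ε v t) -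
        f j0 (XP θa θb w0 sa sb ε v t + y • bx9 1 0 0 0 0 0 0 0 0))
    (hfac : ∀ v ∈ Ioo v1 v2, ∀ t ∈ Ioo 0 t0, ∀ (h : ℕ → ℝ) (rz rX rH rF gC gP gE gB gD : ℝ),
      LinTanD (Leg monL R) f j0 (fun _ => XP θa θb w0 sa sb ε v t) h rz rX rH rF gC gP gE gB gD →
      1 - s ≤ rz → gC ≤ rX ∧ gP ≤ rF ∧ gD ≤ gE ∧ (0 < gC → rX ≤ rH) ∧ (0 < gD → rH ≤ gP)) :
    ∀ᵐ v : ℝ, v ∈ Ioo v1 v2 → Tendsto (fun y : ℝ => (f j0 (rL θa θb w0 sa sb v) -
      f j0 (rL θa θb w0 sa sb v + y • (Pi.single 1 1 : Fin 12 → ℝ))) / y) (𝓝[>] 0) (𝓝 0) := by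
  have hδ := sh.d0
  set β : ℝ := 2 * θa - θb - 1 with hβ
  have hθ : 0 < θa := by linarith
  have e35 : 0 < 3 + 5 * ε := by linarith
  set q : ℝ := (5 * θa - β - 3) / (3 + 5 * ε) with hqd
  have hq : 0 ≤ q := div_nonneg (by linarith) e35.le
  have hqe : q * (3 + 5 * ε) = 5 * θa - β - 3 := by rw [hqd]; field_simp
  set κ : ℝ := c - 1 - q1 with hκd
  have hκ : 0 < κ := by rw [hκd]; linarith
  set A1 : ℝ := (c - 4 + s) + (3 + q0) * θa + (1 + q1) * θb with hA1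
  set A2 : ℝ := -(c - 4 + s) + (3 + q0) * ε + (1 + q1) * (1 + 2 * ε) with hA2
  set ℓ : ℝ × ℝ →L[ℝ] ℝ := A1 • ContinuousLinearMap.fst ℝ ℝ ℝ +
    A2 • ContinuousLinearMap.snd ℝ ℝ ℝ with hℓ
  have ℓ_val : ∀ z : ℝ × ℝ, ℓ z = A1 * z.1 + A2 * z.2 := fun z => by simp [hℓ]
  set x0 : Fin 12 → ℝ := natB w0 (sa + θa) (sb + θb) with hx0
  set G : ℝ × ℝ → ℝ := fun y => f j0 (Dg262.X x0 (natB 1 ε (1 + 2 * ε)) (natB 1 (-θa) (-θb)) y)
    with hG
  set F : ℝ × ℝ → ℝ := fun z => G (-z.2, z.1) - c₀ - ℓ z with hF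
  have GX : ∀ v t : ℝ, G (-t, v) = f j0 (XP θa θb w0 sa sb ε v t) := fun v t => by
    simp only [hG, hx0]; rw [X_XP]
  set Ω : Set (ℝ × ℝ) := Ioo v1 v2 ×ˢ Ioo 0 t0 with hΩ
  have hin : ∀ z ∈ Ω, 0 ≤ z.1 ∧ z.1 ≤ 1 ∧ 0 < z.2 ∧ z.2 ≤ t0 := fun z hz =>
    ⟨hv1.trans hz.1.1.le, hz.1.2.le.trans hv2, hz.2.1, hz.2.2.le⟩
  have hleg : ∀ z ∈ Ω, XP θa θb w0 sa sb ε z.1 z.2 ∈ Leg monL R := fun z hz => by
    obtain ⟨a1, a2, a3, a4⟩ := hin z hz
    exact XP_leg sh hε hε1 ht a1 a2 a3 a4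
  -- `F ≤ 0`
  have hup : ∀ z ∈ Ω, F z ≤ 0 := fun z hz => by
    have e1 := hdm z.1 hz.1 z.2 hz.2
    rw [DN_lin] at e1
    simp only [hF]
    rw [GX, ℓ_val]
    linarith
  -- lower bound
  set K' : ℝ := K * ‖natB 1 ε (1 + 2 * ε)‖ + |A2| with hK'
  have hlow : ∀ z ∈ Ω, -(K' * z.2) ≤ F z := fun z hz => by
    obtain ⟨a1, a2, a3, a4⟩ := hin z hz
    have e1 := hrec z.1 hz.1
    have e2 := DN_lin (c := c) (s := s) (q0 := q0) (q1 := q1) (θa := θa) (θb := θb) (ε := ε) z.1 0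
    simp only [mul_zero, sub_zero, add_zero] at e2
    rw [e2] at e1
    have e3 := hν j0 _ (rL_mem sh a1 a2) _ (hleg z hz)
    have e4 : rL θa θb w0 sa sb z.1 - XP θa θb w0 sa sb ε z.1 z.2 =
        z.2 • natB 1 ε (1 + 2 * ε) := by
      rw [rL_XP θa θb w0 sa sb ε, XP, XP, natB_smul, sub_eq_iff_eq_add, natB_add]
      congr 1 <;> ring
    rw [e4, norm_smul, Real.norm_eq_abs, abs_of_pos a3] at e3
    have e5 := (abs_le.1 e3).2
    have e6 := mul_le_mul_of_nonneg_right (le_abs_self A2) a3.le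
    simp only [hF]
    rw [GX, ℓ_val, hK']
    linarith
  -- Lipschitz
  obtain ⟨K1, hK1⟩ : ∃ K1 : ℝ≥0, (K1 : ℝ) = K := ⟨⟨K, hK⟩, rfl⟩
  have hlip : LipschitzOnWith (K1 * (‖natB 1 ε (1 + 2 * ε)‖₊ + ‖natB 1 (-θa) (-θb)‖₊) + ‖ℓ‖₊) F
      Ω := by
    refine LipschitzOnWith.of_dist_le_mul fun z hz z' hz' => ?_
    have e1 := hν j0 _ (hleg z hz) _ (hleg z' hz')
    have e2 := (X_lip x0 (natB 1 ε (1 + 2 * ε)) (natB 1 (-θa) (-θb))).dist_le_mul
      (-z.2, z.1) (-z'.2, z'.1)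
    rw [hx0, X_XP, X_XP, dist_eq_norm] at e2
    have e3 : dist ((-z.2, z.1) : ℝ × ℝ) (-z'.2, z'.1) = dist z z' := by
      rw [Prod.dist_eq, Prod.dist_eq, dist_neg_neg, max_comm]
    rw [e3] at e2
    have e4 : |ℓ z - ℓ z'| ≤ ‖ℓ‖ * dist z z' := by
      rw [← map_sub, ← Real.norm_eq_abs, dist_eq_norm]
      exact ℓ.le_opNorm _
    have e5 : F z - F z' = (f j0 (XP θa θb w0 sa sb ε z.1 z.2) -
        f j0 (XP θa θb w0 sa sb ε z'.1 z'.2)) - (ℓ z - ℓ z') := by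
      simp only [hF]; rw [GX, GX]; ring
    rw [Real.dist_eq, e5]
    refine (abs_sub _ _).trans ?_
    have e6 : K * ‖XP θa θb w0 sa sb ε z.1 z.2 - XP θa θb w0 sa sb ε z'.1 z'.2‖ ≤
        K * (((‖natB 1 ε (1 + 2 * ε)‖₊ + ‖natB 1 (-θa) (-θb)‖₊ : ℝ≥0) : ℝ) * dist z z') :=
      mul_le_mul_of_nonneg_left e2 hK
    have e7 : (((K1 * (‖natB 1 ε (1 + 2 * ε)‖₊ + ‖natB 1 (-θa) (-θb)‖₊) + ‖ℓ‖₊ : ℝ≥0)) : ℝ) *
        dist z z' = K * (((‖natB 1 ε (1 + 2 * ε)‖₊ + ‖natB 1 (-θa) (-θb)‖₊ : ℝ≥0) : ℝ) *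
        dist z z') + ‖ℓ‖ * dist z z' := by
      rw [NNReal.coe_add, NNReal.coe_mul, hK1, coe_nnnorm]; ring
    rw [e7]
    linarith
  -- the engine
  have hal := aloneP (θ := θa) (β := β) hε h2 h5 h6
  have hdh := dhR (θ := θa) (β := β) hε h5.ne'
  have eR : rN θa β = natB 1 (-θa) (-θb) := by
    rw [rN]; congr 1; rw [hβ]; ring
  rw [eR] at hal hdh
  have hen := ae_rot (engine (j0 := j0) hK hν hm hs (z := w0) (c := sa + θa) (p := sb + θb)
    (z1 := 1) (c1 := ε) (p1 := 1 + 2 * ε) (z2 := 1) (c2 := -θa) (p2 := -θb) (aN_nonneg hε) hal hdh)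
  -- null sets
  have hnull : ∀ m : ℕ, volume (⋂ k, VU (f j0) θa θb w0 sa sb δ v1 v2 m k) = 0 := by
    intro m
    set V : Set ℝ := ⋂ k, VU (f j0) θa θb w0 sa sb δ v1 v2 m k with hV
    have hVm : MeasurableSet V :=
      MeasurableSet.iInter fun k => (VU_open hK (hν j0) sh hv1 hv2 m k).measurableSet
    have hsub : V ∩ Ioo v1 v2 = V := inter_eq_left.2 fun v hv => (mem_iInter.1 hv 0).1
    rw [← hsub]
    refine slant (F := F) (K' := K') (κ := κ) (q := q) ht0 hq hκ hlip hlow hup hVm ?_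
    filter_upwards [hen] with z hz hzΩ hzV _
    obtain ⟨a1, a2, a3, a4⟩ := hin z hzΩ
    have hXz : Dg262.X (natB w0 (sa + θa) (sb + θb)) (natB 1 ε (1 + 2 * ε))
        (natB 1 (-θa) (-θb)) (-z.2, z.1) = XP θa θb w0 sa sb ε z.1 z.2 := X_XP _ _ _ _ _ _ _ _
    obtain ⟨D, hD, hT⟩ := hz (fun k => by
      rw [hXz]; exact XP_box sh hε hε1 ht a1 a2 a3 a4 k)
    choose y hy0 hyδ hyk hy using fun k => (mem_iInter.1 hzV k).2
    have hy1 : Tendsto y atTop (𝓝 0) :=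
      squeeze_zero (fun k => (hy0 k).le) (fun k => (hyk k).le)
        tendsto_one_div_add_atTop_nhds_zero_nat
    obtain ⟨ψ, hψ, ρ, hρ, T, d1, d2⟩ := hT y hy0 hy1
    rw [hXz] at T
    have z0L : (0 : Fin 12 → ℝ) ∈ LM := zero_mem
    -- the rate of `D`
    have hgD : 0 < ρ 1 := by
      have hmem : bx9 0 1 0 0 0 0 0 0 0 ∈ LM := by
        refine lm_raise0 (fun k => ?_) (fun k k0 k1 k3 k4 => ?_)
        · fin_cases k <;> simp [bx9]
        · fin_cases k <;> first | rfl | exact absurd rfl k0 | exact absurd rfl k1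
      have key := rate_ge T (q := 1 / ((m : ℝ) + 1)) hmem z0L (Eventually.of_forall fun l => by
        have e1 := hy (ψ l)
        rw [← single_one]
        have e2 := incr (ν := f j0) hs (p := XP θa θb w0 sa sb ε z.1 z.2)
          (q := rL θa θb w0 sa sb z.1) (u := y (ψ l) • (Pi.single 1 1 : Fin 12 → ℝ)) ?_ ?_ ?_
          (hleg z hzΩ) (rL_mem sh a1 a2) ?_
        · have e3 : 1 / ((m : ℝ) + 1) * y (ψ l) = y (ψ l) / ((m : ℝ) + 1) := by ring
          rw [e3]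
          exact e1.le.trans e2
        · rw [rL_XP θa θb w0 sa sb ε]
          intro k
          have e4 : 0 < ε * z.2 := mul_pos hε a3
          fin_cases k <;> simp [XP, natB, bx9] <;> nlinarith
        · intro k
          rw [Pi.smul_apply, smul_eq_mul]
          refine mul_nonneg (hy0 _).le ?_
          by_cases h : k = 1
          · subst h; simp
          · rw [Pi.single_eq_of_ne h]
        · intro k hk
          by_cases h : k = 1
          · subst h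
            rw [rL_XP θa θb w0 sa sb ε]
            simp [XP, natB, bx9]
            ring
          · exfalso
            apply hk
            rw [Pi.smul_apply, Pi.single_eq_of_ne h, smul_zero]
        · refine leg_raise (hleg z hzΩ) (fun k => ?_) (fun k hk _ _ => ?_) (fun k => ?_)
          · rw [Pi.smul_apply, smul_eq_mul]
            refine mul_nonneg (hy0 _).le ?_
            by_cases h : k = 1
            · subst h; simp
            · rw [Pi.single_eq_of_ne h]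
          · rw [Pi.smul_apply, Pi.single_eq_of_ne hk, smul_zero]
          · have e5 : XP θa θb w0 sa sb ε z.1 z.2 1 = rL θa θb w0 sa sb z.1 1 := by
              rw [rL_XP θa θb w0 sa sb ε]
              simp [XP, natB, bx9]
              ring
            by_cases h : k = 1
            · subst h
              rw [e5]
              exact (rLD_mem sh a1 a2 (hy0 (ψ l)).le (hyδ _)).2 1
            · rw [Pi.smul_apply, Pi.single_eq_of_ne h, smul_zero, add_zero]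
              exact (hleg z hzΩ).2 k)
      have e1 : (0 : ℝ) < 1 / ((m : ℝ) + 1) := by positivity
      linarith
    -- the own rate
    have hgz : 1 - s ≤ ρ 0 := by
      have hmem : bx9 1 0 0 0 0 0 0 0 0 ∈ LM := by
        refine lm_raise0 (fun k => ?_) (fun k k0 k1 k3 k4 => ?_)
        · fin_cases k <;> simp [bx9]
        · fin_cases k <;> first | rfl | exact absurd rfl k0 | exact absurd rfl k1
      have hT0 : Tendsto (fun l => y (ψ l)) atTop (𝓝[>] (0 : ℝ)) :=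
        tendsto_nhdsWithin_iff.2 ⟨hy1.comp hψ.tendsto_atTop, Eventually.of_forall fun l => hy0 _⟩
      have key := rate_ge T (q := 1 - s) hmem z0L (hT0.eventually (hown z.1 hzΩ.1 z.2 hzΩ.2))
      linarith
    obtain ⟨P1, P2, P3, H1, S3⟩ := hfac z.1 hzΩ.1 z.2 hzΩ.2 _ _ _ _ _ _ _ _ _ _ T hgz
    have r0 : 0 ≤ ρ 3 := hρ 3 (by decide)
    have r1 : 0 ≤ ρ 10 := hρ 10 (by decide)
    have r2 : 0 ≤ ρ 2 := hρ 2 (by decide)
    have r3 : 0 ≤ ρ 7 := hρ 7 (by decide)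
    have r4 : 0 ≤ ρ 9 := hρ 9 (by decide)
    have P4 : ρ 3 ≤ ρ 9 := by
      rcases r0.lt_or_eq with h | h
      · exact P1.trans (H1 h)
      · rw [← h]; exact r4
    have hrow := rowP (θ := θa) (β := β) (ε := ε) (q := q) (S := 1 + q) (c := c) (s := s)
      (q0 := q0) (q1 := q1) hε hε1 h5 h2 hq0 hq1 hc hq hqe rfl hgz r0 r1 r2 r3 hgD.le P1 P2 P3 P4
      (S3 hgD)
    -- the derivative
    have hder : HasFDerivAt F (D.comp ((-(ContinuousLinearMap.snd ℝ ℝ ℝ)).prod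
        (ContinuousLinearMap.fst ℝ ℝ ℝ)) - ℓ) z := by
      have e1 : HasFDerivAt (fun z : ℝ × ℝ => ((-z.2, z.1) : ℝ × ℝ))
          ((-(ContinuousLinearMap.snd ℝ ℝ ℝ)).prod (ContinuousLinearMap.fst ℝ ℝ ℝ)) z :=
        ((-(ContinuousLinearMap.snd ℝ ℝ ℝ)).prod
          (ContinuousLinearMap.fst ℝ ℝ ℝ)).hasFDerivAt
      have e2 : HasFDerivAt G D (-z.2, z.1) := hD
      exact ((e2.comp z e1).sub_const c₀).sub ℓ.hasFDerivAt
    rw [hder.fderiv]
    have e1 : (D.comp ((-(ContinuousLinearMap.snd ℝ ℝ ℝ)).prod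
        (ContinuousLinearMap.fst ℝ ℝ ℝ)) - ℓ) (-1, q) =
        -(q * D (1, 0)) - D (0, 1) - (A1 * (-1) + A2 * q) := by
      rw [sub_apply, ℓ_val]
      have e2 : (D.comp ((-(ContinuousLinearMap.snd ℝ ℝ ℝ)).prod
          (ContinuousLinearMap.fst ℝ ℝ ℝ))) (-1, q) = D (-q, -1) := rfl
      have e3 : ((-q, -1) : ℝ × ℝ) = (-q) • ((1, 0) : ℝ × ℝ) + (-1 : ℝ) • ((0, 1) : ℝ × ℝ) := by
        ext <;> simp
      rw [e2, e3, map_add, map_smul, map_smul, smul_eq_mul, smul_eq_mul]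
      ring
    rw [e1, d1, d2, sum9, sum9]
    refine hrow.trans (le_of_eq ?_)
    simp only [natB, bx9]
    simp
    rw [hA1, hA2, hβ]
    ring
  -- the limit
  have hae : ∀ᵐ v : ℝ, ∀ m : ℕ, v ∉ ⋂ k, VU (f j0) θa θb w0 sa sb δ v1 v2 m k :=
    ae_all_iff.2 fun m => measure_eq_zero_iff_ae_notMem.1 (hnull m)
  filter_upwards [hae] with v hv hvI
  have a1 : 0 ≤ v := hv1.trans hvI.1.le
  have a2 : v ≤ 1 := hvI.2.le.trans hv2
  rw [Metric.tendsto_nhds]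
  intro e he
  obtain ⟨m, hm'⟩ := exists_nat_one_div_lt he
  have h8 := hv m
  rw [mem_iInter] at h8
  push Not at h8
  obtain ⟨k, hk⟩ := h8
  have e1 : ∀ᶠ y : ℝ in 𝓝[>] (0 : ℝ), y < min δ (1 / ((k : ℝ) + 1)) := by
    refine (eventually_lt_nhds ?_).filter_mono nhdsWithin_le_nhds
    exact lt_min hδ (by positivity)
  filter_upwards [e1, self_mem_nhdsWithin] with y hy hy0
  have hy0' : (0 : ℝ) < y := hy0
  have hyδ : y ≤ δ := hy.le.trans (min_le_left _ _)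
  have e2 : f j0 (rL θa θb w0 sa sb v) -
      f j0 (rL θa θb w0 sa sb v + y • (Pi.single 1 1 : Fin 12 → ℝ)) ≤ y / ((m : ℝ) + 1) := by
    by_contra hcon
    push Not at hcon
    exact hk ⟨hvI, y, hy0', hyδ, hy.trans_le (min_le_right _ _), hcon⟩
  have e3 : 0 ≤ f j0 (rL θa θb w0 sa sb v) -
      f j0 (rL θa θb w0 sa sb v + y • (Pi.single 1 1 : Fin 12 → ℝ)) := by
    have := (hm _ (rL_mem sh a1 a2) _ (rLD_mem sh a1 a2 hy0'.le hyδ) (by
      intro i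
      rw [Pi.add_apply, Pi.smul_apply, smul_eq_mul]
      have : 0 ≤ (Pi.single 1 1 : Fin 12 → ℝ) i := by
        by_cases h : i = 1
        · subst h; simp
        · rw [Pi.single_eq_of_ne h]
      have := mul_nonneg hy0'.le this
      linarith)).1
    linarith
  rw [Real.dist_eq, sub_zero, abs_of_nonneg (div_nonneg e3 hy0'.le), div_lt_iff₀ hy0']
  have e4 : y / ((m : ℝ) + 1) = 1 / ((m : ℝ) + 1) * y := by ring
  rw [e4] at e2
  have e5 := mul_lt_mul_of_pos_right hm' hy0'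
  linarith

end

section ctx

variable {G : Geo TSet (Fin 2)} {L : ℕ → ℕ → LRay} {r : ℕ → ℝ} {g s : ℝ} {θ q : Fin 2 → ℝ}
    {Rg : ℝ} {B : Base} {I : ℕ → Finset (ℕ × ℝ)} {lev : ℕ → ℚ → ℕ} {A : ℕ → ℝ}
    {f : ℕ → ℚ → ℕ → ℤ → ℕ} {b : ℕ → ℚ → ℕ → TSet} {vm : ℕ → ℚ → ℝ} {w : Fin 2 → ℕ → ℚ → ℝ}
    {fr : ℕ → ℚ → ℕ × ℝ → LInc} {fl : ℕ → ℕ × ℝ → LInc} {sc : Fin 12 → ℕ → ℝ}
    {w0 sa sb δ R : ℝ} {I0 I' : ℕ → Finset (ℕ × ℝ)} {ν own : (Fin 12 → ℝ) → ℝ} {c₀ : ℝ}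

/-- **LEMMA D0 at `3 + β ≤ 5 θ`, `0 < β`** over the context -/
theorem d0P_ctx
    (H : CtxT G L r g s θ q Rg B I lev A f b vm w fr fl sc w0 sa sb δ R I0 I' ν own c₀)
    (hs0 : 0 ≤ s) (hs1 : s < 1) (hq0 : 0 ≤ q 0) (hq1 : 0 ≤ q 1) (hc : 1 + q 1 < g)
    (hRg : θ 0 + |θ 1| + 1 ≤ Rg)
    (h2 : 2 * θ 0 - θ 1 - 1 ≤ θ 0) (h5 : 0 < 2 * θ 0 - θ 1 - 1)
    (h8 : ¬ (2 * θ 0 - θ 1 - 1 = θ 0 ∧ θ 0 = 1)) (h7 : 3 + (2 * θ 0 - θ 1 - 1) ≤ 5 * θ 0)
    (hB : VisT B I fl sc 7 ∨ VisT B I fl sc 8 → θ 0 - θ 1 ≤ 1)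
    (hE : VisT B I fl sc 2 ∨ VisT B I fl sc 1 → 2 * θ 0 - θ 1 ≤ 1) :
    Mic ν (θ 0) (θ 1) w0 sa sb := by
  have sh := H.sh
  have hδ := sh.d0
  have hθ : 0 < θ 0 := by linarith
  have hN := WinU954.nprof_of_ext (sh.d0.le.trans sh.R_pos) (H.extK (|θ 0| + |θ 1|))
  -- the constant `ε`
  obtain ⟨ε, hε, hε1, h6⟩ : ∃ ε : ℝ, 0 < ε ∧ ε ≤ 1 ∧
      (θ 0 - (2 * θ 0 - θ 1 - 1)) + ε * (1 - (2 * θ 0 - θ 1 - 1)) ≠ 0 := by
    by_cases e1 : (θ 0 - (2 * θ 0 - θ 1 - 1)) + 1 * (1 - (2 * θ 0 - θ 1 - 1)) = 0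
    · refine ⟨1 / 2, by norm_num, by norm_num, fun e2 => h8 ⟨?_, ?_⟩⟩ <;> linarith
    · exact ⟨1, one_pos, le_refl _, e1⟩
  have key : ∀ n : ℕ, ∀ᵐ v : ℝ, v ∈ Ioo (1 / ((n : ℝ) + 2)) (1 - 1 / ((n : ℝ) + 2)) →
      Tendsto (fun y : ℝ => (ν (rL (θ 0) (θ 1) w0 sa sb v) -
        ν (rL (θ 0) (θ 1) w0 sa sb v + y • (Pi.single 1 1 : Fin 12 → ℝ))) / y) (𝓝[>] 0) (𝓝 0) := by
    intro n
    set v1 : ℝ := 1 / ((n : ℝ) + 2) with hv1d
    have hv1 : 0 < v1 := by positivity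
    have hv1' : v1 ≤ 1 / 2 := by
      rw [hv1d]
      exact one_div_le_one_div_of_le two_pos (by linarith [Nat.cast_nonneg (α := ℝ) n])
    set t0 : ℝ := min (δ / 4) (min (v1 / 4) (θ 0 * v1 / 2)) with ht0d
    have ht0 : 0 < t0 := lt_min (by positivity) (lt_min (by positivity) (by positivity))
    have htδ : 4 * t0 ≤ δ := by
      have := min_le_left (δ / 4) (min (v1 / 4) (θ 0 * v1 / 2)); linarith
    have htv : t0 ≤ v1 / 4 := (min_le_right _ _).trans (min_le_left _ _)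
    have htθ : t0 ≤ θ 0 * v1 / 2 := (min_le_right _ _).trans (min_le_right _ _)
    -- the region
    have reg : ∀ v ∈ Ioo v1 (1 - v1), ∀ t ∈ Ioo (0 : ℝ) t0,
        0 < v - t ∧ v - t < 1 ∧ 0 < θ 0 * (1 - v) - ε * t ∧ ε * t ≤ t ∧ 0 < ε * t := by
      intro v hv t ht
      have e1 : θ 0 * v1 ≤ θ 0 * (1 - v) := mul_le_mul_of_nonneg_left (by linarith [hv.2]) hθ.le
      have e2 : ε * t ≤ 1 * t := mul_le_mul_of_nonneg_right hε1 ht.1.le
      have e3 : 0 < ε * t := mul_pos hε ht.1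
      refine ⟨by linarith [hv.1, ht.2], by linarith [hv.2, ht.1], by linarith [ht.2], by linarith,
        e3⟩
    have hbox : ∀ v ∈ Ioo v1 (1 - v1), ∀ t ∈ Ioo (0 : ℝ) t0, ∀ k,
        0 < XP (θ 0) (θ 1) w0 sa sb ε v t k ∧ XP (θ 0) (θ 1) w0 sa sb ε v t k < R :=
      fun v hv t ht k => XP_box sh hε hε1 htδ (by linarith [hv.1]) (by linarith [hv.2]) ht.1
        ht.2.le k
    have hleg : ∀ v ∈ Ioo v1 (1 - v1), ∀ t ∈ Ioo (0 : ℝ) t0,
        XP (θ 0) (θ 1) w0 sa sb ε v t ∈ Leg monL R :=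
      fun v hv t ht => XP_leg sh hε hε1 htδ (by linarith [hv.1]) (by linarith [hv.2]) ht.1 ht.2.le
    have main := d0p (J := Unit) (f := fun _ => ν) (j0 := ()) (K := ((12 : ℕ) : ℝ)) (c := g)
      (s := s) (q0 := q 0) (q1 := q 1) (c₀ := c₀) (t0 := t0) (v1 := v1) (v2 := 1 - v1)
      (by positivity) (fun _ => hN.lip)
      (fun p hp q hq hpq => ⟨hN.anti p hp q hq hpq, hN.sharp p hp q hq hpq⟩) hN.submod sh
      h2 h5 h7 hq0 hq1 hc hε hε1 h6 ht0 htδ hv1.le (by linarith) ?_ ?_ ?_ ?_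
    · exact main
    · intro v hv
      have e1 := H.ext.record v (by linarith [hv.1]) (by linarith [hv.2])
      rw [EL_DN] at e1
      exact e1
    · intro v hv t ht
      obtain ⟨r1, r2, r3, r4, r5⟩ := reg v hv t ht
      have hl := hleg v hv t ht
      have aθ := le_abs_self (θ 1)
      have bθ := neg_abs_le (θ 1)
      have h01 : 0 ≤ 1 - v := by linarith [hv.2]
      have h02 : 1 - v ≤ 1 := by linarith [hv.1]
      have u1 : θ 0 * (1 - v) ≤ θ 0 * 1 := mul_le_mul_of_nonneg_left h02 hθ.le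
      have u2 : |θ 1 * (1 - v)| ≤ |θ 1| * 1 := by
        rw [abs_mul, abs_of_nonneg h01]
        exact mul_le_mul_of_nonneg_left h02 (abs_nonneg _)
      have u3 := abs_le.1 u2
      have t8 : t < 1 / 8 := by linarith [ht.2]
      rw [XP_nb] at hl ⊢
      have hp := nb_PD (Rg := Rg) (k0 := θ 0 + |θ 1| + 1) hl r1.le r2.le r3 (by linarith [ht.1])
        (by rw [abs_lt]; constructor <;> nlinarith [ht.1]) (by nlinarith [ht.1])
      have e1 := (H.extK (θ 0 + |θ 1| + 1)).dmax _ hp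
      rw [DT_nb] at e1
      exact e1
    · intro v hv t ht
      obtain ⟨r1, r2, r3, r4, r5⟩ := reg v hv t ht
      have hl := hleg v hv t ht
      have hR := hbox v hv t ht 0
      have e1 : ∀ᶠ y : ℝ in 𝓝[>] (0 : ℝ), y < min (1 - (v - t))
          (R - XP (θ 0) (θ 1) w0 sa sb ε v t 0) := by
        refine (eventually_lt_nhds ?_).filter_mono nhdsWithin_le_nhds
        exact lt_min (by linarith) (by linarith [hR.2])
      filter_upwards [e1, self_mem_nhdsWithin] with y hy hy0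
      have hy0' : (0 : ℝ) < y := hy0
      have hy1 : y < 1 - (v - t) := hy.trans_le (min_le_left _ _)
      have hy2 : y < R - XP (θ 0) (θ 1) w0 sa sb ε v t 0 := hy.trans_le (min_le_right _ _)
      have hnn : ∀ k : Fin 12, 0 ≤ bx9 1 0 0 0 0 0 0 0 0 k := fun k => by
        fin_cases k <;> simp [bx9]
      have hne : ∀ k : Fin 12, k ≠ 0 → bx9 1 0 0 0 0 0 0 0 0 k = 0 := fun k hk => by
        fin_cases k <;> first | exact absurd rfl hk | rfl
      have hz : XP (θ 0) (θ 1) w0 sa sb ε v t 0 = w0 + (v - t) := by rw [XP_nb]; rfl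
      have hs0' : bx9 1 0 0 0 0 0 0 0 0 0 = (1 : ℝ) := rfl
      have hl2 : XP (θ 0) (θ 1) w0 sa sb ε v t + y • bx9 1 0 0 0 0 0 0 0 0 ∈ Leg monL R := by
        refine ⟨⟨fun k => ?_, fun k e he => ?_⟩, fun k => ?_⟩
        · have a1 := hl.1.nonneg k
          have a2 := mul_nonneg hy0'.le (hnn k)
          rw [Pi.add_apply, Pi.smul_apply, smul_eq_mul]; linarith
        · have a1 := hl.1.wall k e he
          have hk := wall_hd4 k e he
          rw [Pi.add_apply, Pi.smul_apply, hne k hk.1, smul_zero, add_zero]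
          refine a1.trans (Finset.sum_le_sum fun i _ => ?_)
          rw [Pi.add_apply, Pi.smul_apply, smul_eq_mul]
          have a2 := mul_nonneg (Nat.cast_nonneg (α := ℝ) (e i)) (mul_nonneg hy0'.le (hnn i))
          nlinarith
        · rw [Pi.add_apply, Pi.smul_apply, smul_eq_mul]
          by_cases hk : k = 0
          · subst hk; rw [hs0']; linarith
          · rw [hne k hk, mul_zero, add_zero]; exact hl.2 k
      have hV := OwV363.vis_Y (θ := θ) (v := v) (t := t) (ε := ε) ht.1.le hε.le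
      have key := PL504.own_inc H.ext hl hl2 (fun k => by
          simp only [Pi.add_apply, Pi.smul_apply, smul_eq_mul]
          have := mul_nonneg hy0'.le (hnn k)
          linarith) (v := v - t) (v' := v - t + y) r1.le r2.le (by linarith) (by linarith)
        hz (by simp only [Pi.add_apply, Pi.smul_apply, smul_eq_mul, hs0', hz]; ring)
        (fun k => by
          by_cases hk : k = 0
          · rw [hk, hz]
            exact (oz (VisT B I fl sc) (v - t)).ge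
          · by_cases hkv : VisT B I fl sc k
            · rw [oV hkv, XP_nb]
              exact OwV363.vis_nat H (fun h => hV.1 (hB h)) (fun h => hV.2 (hE h)) k hk hkv
            · exact (hl.2 k).trans (oR hk hkv _).ge)
      have e2 : (1 - s) * (v - t + y - (v - t)) = (1 - s) * y := by ring
      rw [e2] at key
      exact key
    · intro v hv t ht hh rz rX rH rF gC gP gE gB gD T hrz
      obtain ⟨r1, r2, r3, r4, r5⟩ := reg v hv t ht
      obtain ⟨D, lam, hD, htan, hlin⟩ := T.ex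
      have eX : XP (θ 0) (θ 1) w0 sa sb ε v t = eL (w0 + v - t)
          (sa + θ 0 * (1 - v) - ε * t) (sb + θ 1 * (1 - v) - (1 + 2 * ε) * t) := by
        rw [XP, natB_eL]
      have ht0' := htan ()
      rw [eX] at ht0'
      have hb := hbox v hv t ht
      rw [eX] at hb
      have P := Ap954.pins_T H hs1 (w0 + v - t) (sa + θ 0 * (1 - v) - ε * t)
        (sb + θ 1 * (1 - v) - (1 + 2 * ε) * t) hb (by linarith) (by linarith) hh D (lam ())
        T.hpos T.h0 ht0' hD rz rX rH rF gC gP gE gB gD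
        (fun z d C p E B x H F hm => hlin z d C p E B x H F hm) hrz
      have F := Kg330.facts_nat H hs0 hs1.le (by linarith) (by linarith) T.hpos T.h0 ht0' hD
        (fun z d C p E B x H F hm => hlin z d C p E B x H F hm) hrz
      exact ⟨P.1, P.2.1, P.2.2, F.2.2.1.1, F.2.2.2.2.1⟩
  have hall := ae_all_iff.2 key
  unfold Mic
  filter_upwards [hall] with v hv hvI
  obtain ⟨n1, hn1⟩ := exists_nat_one_div_lt (lt_min hvI.1 (sub_pos.2 hvI.2))
  refine hv n1 ⟨?_, ?_⟩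
  · have e1 : 1 / ((n1 : ℝ) + 2) ≤ 1 / ((n1 : ℝ) + 1) :=
      one_div_le_one_div_of_le (by positivity) (by linarith)
    have := hn1.trans_le (min_le_left _ _)
    linarith
  · have e1 : 1 / ((n1 : ℝ) + 2) ≤ 1 / ((n1 : ℝ) + 1) :=
      one_div_le_one_div_of_le (by positivity) (by linarith)
    have := hn1.trans_le (min_le_right _ _)
    linarith

end ctx

/-- region of `d0H2` -/
def RegH2 (s : ℝ) (θ : Fin 2 → ℝ) : Prop :=
  1 / 2 ≤ s ∧ -θ 0 < 2 * θ 0 - θ 1 - 1 ∧ 2 * θ 0 - θ 1 - 1 ≤ θ 0 ∧ -1 < 2 * θ 0 - θ 1 - 1 ∧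
    2 * θ 0 - θ 1 - 1 ≠ 0 ∧ 3 + (2 * θ 0 - θ 1 - 1) ≤ 5 * θ 0 ∧
    ¬ (2 * θ 0 - θ 1 - 1 = θ 0 ∧ θ 0 = 1)

/-- **D0 for `1/2 ≤ s`**, without upper bound on `β` -/
theorem d0H2 {η : ℝ} (hη : η < 1) : D0T η RegH2 := by
  intro G L r g s θ q Rg B I lev A f b vm w fr fl sc w0 sa sb δ R I0 I' ν own c₀ C N hX hR0 hR1
    hRg hI hT1 hT2
  obtain ⟨x1, x2, x3, x4, x5, x6, x7⟩ := hX
  have hq1 : q 1 < g := by
    have := N.qbg
    have := mul_lt_mul_of_pos_right hη N.gpos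
    linarith
  have hB : VisT B I fl sc 7 ∨ VisT B I fl sc 8 → θ 0 - θ 1 ≤ 1 := by
    rintro (h | h)
    · exact hT1 (Or.inl ((C.out.clsB (Or.inl rfl)).resolve_left h))
    · exact hT1 (Or.inr ((C.out.clsB (Or.inr rfl)).resolve_left h))
  have hE : VisT B I fl sc 2 ∨ VisT B I fl sc 1 → 2 * θ 0 - θ 1 ≤ 1 := by
    rintro (h | h)
    · rcases C.out.clsE with h8 | h8 | h8
      · exact absurd h8 h
      · exact (hT2 h8).le
      · exact absurd hI h8.1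
    · exact absurd hI h
  rcases lt_or_ge (2 * θ 0 - θ 1 - 1) 1 with h | h
  · exact d0H_ctx C N.s0 N.s1 N.qa.le N.qb.le (by linarith) hRg x2 x3 x4 h x5 x6 hB hE
  · exact d0P_ctx C N.s0 N.s1 N.qa.le N.qb.le (by linarith) hRg x3 (by linarith) x7 x6 hB hE

end Crest.Agent.R116.D0h708
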