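import Crest.Agent.R116.SgR2_337

/-!
# R116, K-TEXT II-c, Lemma D0: increments at the record over natural `D` (helper708)

For 878's `d0_micro`: at the record box `rL v` (natural `D`, any flags)

* `recN_C` : `q0 y ≤ ν (R) - ν (R + y uC)`;
* `recN_CP` : `(g - 1 + q0 + c q1) y ≤ ν (R) - ν (R + y uC)`, from the box `(v - y; a + y, b + c y)`,
  `0 ≤ c ≤ 1` (`c = 1` untied and κ-tie `k' ≤ 1`, `c = 1 - k` at an e-tie `k ≤ 1`);
* `own_e0`, `frz_leg`, `frz_e0_leg` : own increments at boxes with any `D` finer than natural.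
-/

set_option autoImplicit false

open Finset

namespace Crest.Agent.R116.D0r708

open Crest.Agent.R138.Ex926 (Base U)
open Crest.Agent.R136.Net191
open Crest.Agent.R136.Lq196
open Crest.Agent.R116.ChL222
open Crest.Agent.R116.PL504 (nb rL DN Shift)
open Crest.Agent.R116.Xd954 (cs xs FlagX Mrg)
open Crest.Agent.R116.Sg337
open Crest.Agent.R116

/-- what is used of the profile near the box `c` (no own increments: ties allowed) -/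
structure ProfN (R δ : ℝ) (a b : Fin 2) (c : Fin 12 → ℝ) (ν : (Fin 12 → ℝ) → ℝ) : Prop where
  ab : a ≠ b
  anti : ∀ p ∈ Leg monL R, ∀ q ∈ Leg monL R, p ≤ q → ν q ≤ ν p
  cost : ∀ p ∈ Leg monL R, ∀ q ∈ Leg monL R, p ≤ q → (∀ k, |p k - c k| ≤ δ) →
    (∀ k, |q k - c k| ≤ δ) → (q (cs b) ≤ p (cs b) ∨ q (cs b) ≤ q (cs a)) →
    (q (xs b) ≤ p (xs b) ∨ q (xs b) ≤ q (xs a)) →
    ν p - ν q ≤ ∑ k ∈ ({cs b, xs b} : Finset (Fin 12))ᶜ, (q k - p k)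

section core

variable {R w0 s δ m z0 C0 P0 z C P y : ℝ} {a b : Fin 2} {ν : (Fin 12 → ℝ) → ℝ}

/-- box over the natural one: `D` natural, `C + y3`, `X + y4`, `N + y6`, `P + y7` -/
def nB (z C P y3 y4 y6 y7 : ℝ) : Fin 12 → ℝ :=
  bx9 z (P - 2 * C - z) (P - 2 * C) (C + y3) (z + C + y4) (P - C) (z + 2 * C + y6) (P + y7) (z + P)

theorem nB_leg (h : Ctr R w0 δ m z0 C0 P0) (n : Nr m z0 C0 P0 z C P) {y3 y4 y6 y7 : ℝ}
    (h3 : 0 ≤ y3 ∧ y3 ≤ m) (h4 : 0 ≤ y4 ∧ y4 ≤ y3) (h6 : 0 ≤ y6 ∧ y6 ≤ y3 + y4)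
    (h7 : 0 ≤ y7 ∧ y7 ≤ y3 ∧ y7 ≤ y6) : nB z C P y3 y4 y6 y7 ∈ Leg monL R := by
  obtain ⟨m1, m2, m3, m4, m5, m6, m7, m8⟩ := h
  obtain ⟨n1, n2, n3, n4, n5, n6⟩ := n
  obtain ⟨a1, a2⟩ := h3
  obtain ⟨b1, b2⟩ := h4
  obtain ⟨c1, c2⟩ := h6
  obtain ⟨d1, d2, d3⟩ := h7
  refine leg9 ⟨?_, ?_, ?_, ?_, ?_, ?_, ?_, ?_, ?_⟩ ⟨?_, ?_, ?_, ?_, ?_, ?_, ?_, ?_, ?_, ?_⟩
    ⟨?_, ?_, ?_, ?_, ?_, ?_, ?_, ?_, ?_⟩ <;> linarith

theorem nB_near (h : Ctr R w0 δ m z0 C0 P0) (n : Nr m z0 C0 P0 z C P) {y3 y4 y6 y7 : ℝ}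
    (h3 : 0 ≤ y3 ∧ y3 ≤ m) (h4 : 0 ≤ y4 ∧ y4 ≤ y3) (h6 : 0 ≤ y6 ∧ y6 ≤ y3 + y4)
    (h7 : 0 ≤ y7 ∧ y7 ≤ y3 ∧ y7 ≤ y6) :
    ∀ k, |nB z C P y3 y4 y6 y7 k - natB z0 C0 P0 k| ≤ δ := by
  obtain ⟨m1, m2, m3, m4, m5, m6, m7, m8⟩ := h
  obtain ⟨n1, n2, n3, n4, n5, n6⟩ := n
  obtain ⟨a1, a2⟩ := h3
  obtain ⟨b1, b2⟩ := h4
  obtain ⟨c1, c2⟩ := h6
  obtain ⟨d1, d2, d3⟩ := h7
  refine bx9_near ?_ ?_ ?_ ?_ ?_ ?_ ?_ ?_ ?_ <;> rw [abs_le] <;> constructor <;> linarith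

theorem nB_cost (H : ProfN R δ a b (natB z0 C0 P0) ν) (h : Ctr R w0 δ m z0 C0 P0)
    (n : Nr m z0 C0 P0 z C P) {y3 y4 y6 y7 x3 x4 x6 x7 : ℝ}
    (h3 : 0 ≤ y3 ∧ y3 ≤ m) (h4 : 0 ≤ y4 ∧ y4 ≤ y3) (h6 : 0 ≤ y6 ∧ y6 ≤ y3 + y4)
    (h7 : 0 ≤ y7 ∧ y7 ≤ y3 ∧ y7 ≤ y6)
    (g3 : 0 ≤ x3 ∧ x3 ≤ m) (g4 : 0 ≤ x4 ∧ x4 ≤ x3) (g6 : 0 ≤ x6 ∧ x6 ≤ x3 + x4)
    (g7 : 0 ≤ x7 ∧ x7 ≤ x3 ∧ x7 ≤ x6) (l3 : y3 ≤ x3) (l4 : y4 ≤ x4) (l6 : y6 ≤ x6)
    (l7 : y7 ≤ x7) :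
    ν (nB z C P y3 y4 y6 y7) - ν (nB z C P x3 x4 x6 x7) ≤
      (x3 - y3) + (x4 - y4) + (x6 - y6) + (x7 - y7) := by
  have hab := H.ab
  refine (H.cost _ (nB_leg h n h3 h4 h6 h7) _ (nB_leg h n g3 g4 g6 g7) ?_
    (nB_near h n h3 h4 h6 h7) (nB_near h n g3 g4 g6 g7) (Or.inr ?_) (Or.inr ?_)).trans
    (le_of_eq ?_)
  · exact bx9_le le_rfl le_rfl le_rfl (by linarith) (by linarith) le_rfl (by linarith)
      (by linarith) le_rfl
  · fin_cases a <;> fin_cases b <;> exact le_rfl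
  · fin_cases a <;> fin_cases b <;> exact le_rfl
  · unfold nB
    rw [bx9_sum hab]
    ring

theorem natB_nB : natB z C P = nB z C P 0 0 0 0 := by
  unfold natB nB; simp only [add_zero]

theorem nB_uC : nB z C P y 0 0 0 = natB z C P + y • uC := by
  funext k
  fin_cases k <;> simp [nB, natB, uC, bx9]

variable {g q0 q1 K c : ℝ}

/-- **(iii)** at the record, natural `D` -/
theorem recN_C (H : ProfN R δ a b (natB z0 C0 P0) ν) (h : Ctr R w0 δ m z0 C0 P0)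
    (n : Nr m z0 C0 P0 z C P) (n' : Nr m z0 C0 P0 z (C + y) P)
    (y0 : 0 ≤ y) (ym : y ≤ m) (hrec : K + Dm g s q0 q1 z C P ≤ ν (natB z C P))
    (hD : ν (natB z (C + y) P) ≤ K + Dm g s q0 q1 z (C + y) P) :
    q0 * y ≤ ν (natB z C P) - ν (natB z C P + y • uC) := by
  have hm := h.m0.le
  have hc := nB_cost H h n (y3 := y) (y4 := 0) (y6 := 0) (y7 := 0) (x3 := y) (x4 := y)
    (x6 := 2 * y) (x7 := 0) ⟨y0, ym⟩ ⟨le_rfl, y0⟩ ⟨le_rfl, by linarith⟩ ⟨le_rfl, y0, le_rfl⟩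
    ⟨y0, ym⟩ ⟨y0, le_rfl⟩ ⟨by linarith, by linarith⟩ ⟨le_rfl, y0, by linarith⟩ le_rfl y0
    (by linarith) le_rfl
  have hl : natB z (C + y) P ≤ nB z C P y y (2 * y) 0 :=
    bx9_le le_rfl (by linarith) (by linarith) le_rfl (by linarith) (by linarith) (by linarith)
      (by linarith) le_rfl
  have ha := H.anti _ (natB_leg h n') _ (nB_leg h n ⟨y0, ym⟩ ⟨y0, le_rfl⟩
    ⟨by linarith, by linarith⟩ ⟨le_rfl, y0, by linarith⟩) hl
  rw [← nB_uC]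
  unfold Dm at hrec hD
  nlinarith

/-- the box `(v - y; a + y, b + c y)` over the height `v` -/
def qB (z C P y c : ℝ) : Fin 12 → ℝ :=
  bx9 z (P - 2 * C - z + (c - 1) * y) (P - 2 * C + (c - 2) * y) (C + y) (z + C)
    (P - C + (c - 1) * y) (z + 2 * C + y) (P + c * y) (z + P + (c - 1) * y)

theorem qB_eq : qB z C P y c = natB (z - y) (C + y) (P + c * y) + y • Pi.single 0 1 := by
  funext k
  fin_cases k <;> simp [qB, natB, bx9] <;> ring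

theorem qB_leg (h : Ctr R w0 δ m z0 C0 P0) (n : Nr m z0 C0 P0 z C P) (y0 : 0 ≤ y) (ym : y ≤ m)
    (c0 : 0 ≤ c) (c1 : c ≤ 1) : qB z C P y c ∈ Leg monL R := by
  have e1 : 0 ≤ c * y := mul_nonneg c0 y0
  have e2 : c * y ≤ y := by nlinarith
  have e3 : (c - 1) * y = c * y - y := by ring
  have e4 : (c - 2) * y = c * y - 2 * y := by ring
  obtain ⟨m1, m2, m3, m4, m5, m6, m7, m8⟩ := h
  obtain ⟨n1, n2, n3, n4, n5, n6⟩ := n
  unfold qB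
  rw [e3, e4]
  refine leg9 ⟨?_, ?_, ?_, ?_, ?_, ?_, ?_, ?_, ?_⟩ ⟨?_, ?_, ?_, ?_, ?_, ?_, ?_, ?_, ?_, ?_⟩
    ⟨?_, ?_, ?_, ?_, ?_, ?_, ?_, ?_, ?_⟩ <;> linarith

/-- **(iv)** at the record, natural `D`: `C` costs at least `(g - 1 + q0 + c q1) y` -/
theorem recN_CP (H : ProfN R δ a b (natB z0 C0 P0) ν) (h : Ctr R w0 δ m z0 C0 P0)
    (n : Nr m z0 C0 P0 z C P) (y0 : 0 ≤ y) (ym : y ≤ m) (c0 : 0 ≤ c) (c1 : c ≤ 1)
    (hrec : K + Dm g s q0 q1 z C P ≤ ν (natB z C P))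
    (hD : ν (natB (z - y) (C + y) (P + c * y)) ≤ K + Dm g s q0 q1 (z - y) (C + y) (P + c * y))
    (hown : (1 - s) * y ≤ ν (natB (z - y) (C + y) (P + c * y)) -
      ν (natB (z - y) (C + y) (P + c * y) + y • Pi.single 0 1)) :
    (g - 1 + q0 + c * q1) * y ≤ ν (natB z C P) - ν (natB z C P + y • uC) := by
  have e1 : 0 ≤ c * y := mul_nonneg c0 y0
  have e2 : c * y ≤ y := by nlinarith
  have hc := nB_cost H h n (y3 := y) (y4 := 0) (y6 := 0) (y7 := 0) (x3 := y) (x4 := 0)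
    (x6 := y) (x7 := c * y) ⟨y0, ym⟩ ⟨le_rfl, y0⟩ ⟨le_rfl, by linarith⟩ ⟨le_rfl, y0, le_rfl⟩
    ⟨y0, ym⟩ ⟨le_rfl, y0⟩ ⟨y0, by linarith⟩ ⟨e1, e2, e2⟩ le_rfl le_rfl y0 e1
  have hl : qB z C P y c ≤ nB z C P y 0 y (c * y) := by
    have e3 : (c - 1) * y = c * y - y := by ring
    have e4 : (c - 2) * y = c * y - 2 * y := by ring
    unfold qB nB
    rw [e3, e4]
    exact bx9_le le_rfl (by linarith) (by linarith) le_rfl (by linarith) (by linarith)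
      (by linarith) (by linarith) (by linarith)
  have ha := H.anti _ (qB_leg h n y0 ym c0 c1) _ (nB_leg h n ⟨y0, ym⟩ ⟨le_rfl, y0⟩
    ⟨y0, by linarith⟩ ⟨e1, e2, e2⟩) hl
  rw [← qB_eq] at hown
  rw [← nB_uC]
  unfold Dm at hrec hD
  nlinarith

end core

/-- natural boxes with any finer `D` are legal -/
theorem frz_leg {R d z C P : ℝ} (hz : 0 ≤ z) (hC : 0 ≤ C) (hN : 0 ≤ P - 2 * C - z)
    (hd : P - 2 * C - z ≤ d) (hdR : d ≤ R) (hR : z + P ≤ R) : frz d z C P ∈ Leg monL R := by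
  refine leg9 ⟨?_, ?_, ?_, ?_, ?_, ?_, ?_, ?_, ?_⟩ ⟨?_, ?_, ?_, ?_, ?_, ?_, ?_, ?_, ?_, ?_⟩
    ⟨?_, ?_, ?_, ?_, ?_, ?_, ?_, ?_, ?_⟩ <;> linarith

theorem frz_e0 (d z C P y : ℝ) : frz d z C P + y • Pi.single 0 1 =
    bx9 (z + y) d (P - 2 * C) C (z + C) (P - C) (z + 2 * C) P (z + P) := by
  funext k
  fin_cases k <;> simp [frz, bx9]

theorem frz_e0_leg {R d z C P y : ℝ} (hz : 0 ≤ z) (hC : 0 ≤ C) (hN : 0 ≤ P - 2 * C - z)
    (hd : P - 2 * C - z ≤ d) (hdR : d ≤ R) (hR : z + P ≤ R) (hy : 0 ≤ y) (hyR : z + y ≤ R) :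
    frz d z C P + y • Pi.single 0 1 ∈ Leg monL R := by
  rw [frz_e0]
  refine leg9 ⟨?_, ?_, ?_, ?_, ?_, ?_, ?_, ?_, ?_⟩ ⟨?_, ?_, ?_, ?_, ?_, ?_, ?_, ?_, ?_, ?_⟩
    ⟨?_, ?_, ?_, ?_, ?_, ?_, ?_, ?_, ?_⟩ <;> linarith

section ext

variable {B : Base} {I0 I : ℕ → Finset (ℕ × ℝ)} {lev : ℕ → ℚ → ℕ} {inc : ℕ → ℕ × ℝ → LInc}
    {σ : Fin 2 → ℕ → ℝ} {k0 ϑ w0 sa sb g q0 q1 θa θb : ℝ} {a b : Fin 2}
    {C R s c₀ : ℝ} {PD : Set (Fin 12 → ℝ)} {D : (Fin 12 → ℝ) → ℝ}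
    {o : ℝ → Fin 12 → ℝ} {E : ℝ → ℝ} {T : Fin 12 → Prop} {ν own : (Fin 12 → ℝ) → ℝ}

/-- **own increments in the height** -/
theorem own_e0
    (h : ExtQ B I0 I (Gd222.coN B lev inc σ w0 sa sb) monL C R 0 w0 s PD D
      (rL θa θb w0 sa sb) o E T ν own c₀) {p : Fin 12 → ℝ} {v y : ℝ}
    (hp : p ∈ Leg monL R) (hq : p + y • Pi.single 0 1 ∈ Leg monL R) (hy : 0 ≤ y)
    (hv0 : 0 ≤ v) (hv1 : v + y ≤ 1) (hpz : p 0 = w0 + v) (hpo : ∀ k, p k ≤ o v k) :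
    (1 - s) * y ≤ ν p - ν (p + y • Pi.single 0 1) := by
  have h1 := PL504.own_inc h hp hq (by
    intro k
    have : 0 ≤ (y • (Pi.single 0 1 : Fin 12 → ℝ)) k := by
      rw [Pi.smul_apply, smul_eq_mul]
      refine mul_nonneg hy ?_
      by_cases hk : k = 0
      · subst hk; simp
      · simp [hk]
    show p k ≤ p k + _
    linarith) (v := v) (v' := v + y) hv0 (by linarith) (by linarith) hv1 hpz (by
      show p 0 + (y • (Pi.single 0 1 : Fin 12 → ℝ)) 0 = _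
      rw [hpz]; simp; ring) hpo
  have e : v + y - v = y := by ring
  rwa [e] at h1

/-- the profile near a natural box, ties allowed -/
theorem profN_of
    (h : ExtQ B I0 I (Gd222.coN B lev inc σ w0 sa sb) monL C R 0 w0 s PD D
      (rL θa θb w0 sa sb) o E T ν own c₀)
    (hF : FlagX B I lev inc σ k0 ϑ a b) {v t y δ : ℝ} (hm : Mrg k0 ϑ v t y δ) :
    ProfN R δ a b (natB (w0 + v) (sa + t) (sb + y)) ν where
  ab := hF.ab
  anti := fun p hp q hq hpq => by linarith [(h.lip p hp q hq hpq).1]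
  cost := fun p hp q hq hpq h1 h2 h3 h4 => by
    rw [← nb_natB] at h1 h2
    exact Xd954.nu_lip_nat h hF hm hp hq hpq h1 h2 h3 h4

theorem rL_natB (θa θb w0 sa sb t : ℝ) : rL θa θb w0 sa sb t =
    natB (w0 + t) (sa + θa * (1 - t)) (sb + θb * (1 - t)) := by
  rw [PL504.rL_nb, nb_natB]

/-- **`D0`, inputs (a), (b) of 878**: `C`-increments at the record, natural `D`.  `c = 1` untied and
at a κ-tie `k' ≤ 1`, `c = 1 - k` at an e-tie `k ≤ 1`; `hoq` = the box `(v - y; a + y, b + c y)` is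
below the own box of the height `v - y` (untied: `hoq_untied`). -/
theorem d0r_all
    (h : ExtQ B I0 I (Gd222.coN B lev inc σ w0 sa sb) monL C R 0 w0 s PD D
      (rL θa θb w0 sa sb) o E T ν own c₀)
    (hF : FlagX B I lev inc σ k0 ϑ a b)
    (hD : ∀ v a b : ℝ, D (nb w0 sa sb v a b) = DN g s q0 q1 θa θb v a b)
    (hE : ∀ v : ℝ, 0 ≤ v → v ≤ 1 → E v = DN g s q0 q1 θa θb v (θa * (1 - v)) (θb * (1 - v)))
    {v0 δ κ0 c : ℝ} (hv0 : 0 < v0) (hv1 : v0 < 1)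
    (hm : Mrg k0 ϑ v0 (θa * (1 - v0)) (θb * (1 - v0)) δ)
    (hw : 0 < w0) (hC : 0 < sa + θa * (1 - v0))
    (hDn : 0 < (sb + θb * (1 - v0)) - 2 * (sa + θa * (1 - v0)) - (w0 + v0))
    (hR : (w0 + v0) + (sb + θb * (1 - v0)) < R)
    (hκ0 : 0 < κ0) (hc0 : 0 ≤ c) (hc1 : c ≤ 1)
    (hPD : ∀ v a b : ℝ, |v - v0| ≤ κ0 → |a - θa * (1 - v0)| ≤ κ0 → |b - θb * (1 - v0)| ≤ κ0 →
      nb w0 sa sb v a b ∈ PD)
    (hoq : ∀ v y : ℝ, |v - v0| ≤ κ0 → 0 ≤ y → y ≤ κ0 → 0 ≤ v - y → v ≤ 1 →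
      nb w0 sa sb (v - y) (θa * (1 - v) + y) (θb * (1 - v) + c * y) ∈ Leg monL R →
      ∀ k, nb w0 sa sb (v - y) (θa * (1 - v) + y) (θb * (1 - v) + c * y) k ≤ o (v - y) k) :
    ∃ κ : ℝ, 0 < κ ∧ κ < v0 ∧ v0 + κ < 1 ∧ κ ≤ κ0 ∧ ∀ v y : ℝ, |v - v0| ≤ κ → 0 ≤ y → y ≤ κ →
      rL θa θb w0 sa sb v ∈ Leg monL R ∧ rL θa θb w0 sa sb v + y • uC ∈ Leg monL R ∧
      q0 * y ≤ ν (rL θa θb w0 sa sb v) - ν (rL θa θb w0 sa sb v + y • uC) ∧
      (g - 1 + q0 + c * q1) * y ≤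
        ν (rL θa θb w0 sa sb v) - ν (rL θa θb w0 sa sb v + y • uC) := by
  set A0 : ℝ := sa + θa * (1 - v0) with hA0
  set Q0 : ℝ := sb + θb * (1 - v0) with hQ0
  set z0 : ℝ := w0 + v0 with hz0
  set m0 : ℝ := min (min (min δ v0) (min (1 - v0) A0)) (min (min (Q0 - 2 * A0 - z0)
    (R - (z0 + Q0))) κ0) with hm0
  have hpos : 0 < m0 := by
    rw [hm0]
    refine lt_min (lt_min (lt_min hm.pos hv0) (lt_min (by linarith) hC))
      (lt_min (lt_min hDn (by linarith)) hκ0)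
  have e1 : m0 ≤ δ := ((min_le_left _ _).trans (min_le_left _ _)).trans (min_le_left _ _)
  have e2 : m0 ≤ v0 := ((min_le_left _ _).trans (min_le_left _ _)).trans (min_le_right _ _)
  have e3 : m0 ≤ 1 - v0 := ((min_le_left _ _).trans (min_le_right _ _)).trans (min_le_left _ _)
  have e4 : m0 ≤ A0 := ((min_le_left _ _).trans (min_le_right _ _)).trans (min_le_right _ _)
  have e5 : m0 ≤ Q0 - 2 * A0 - z0 :=
    ((min_le_right _ _).trans (min_le_left _ _)).trans (min_le_left _ _)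
  have e6 : m0 ≤ R - (z0 + Q0) :=
    ((min_le_right _ _).trans (min_le_left _ _)).trans (min_le_right _ _)
  have e7 : m0 ≤ κ0 := (min_le_right _ _).trans (min_le_right _ _)
  set m : ℝ := m0 / 40 with hmd
  have mpos : 0 < m := by positivity
  have em : m0 = 40 * m := by rw [hmd]; ring
  set L : ℝ := 1 + |θa| + |θb| with hL
  have hL1 : 1 ≤ L := by rw [hL]; linarith [abs_nonneg θa, abs_nonneg θb]
  set κ : ℝ := m / (2 * L) with hκ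
  have κpos : 0 < κ := by positivity
  have hκm : L * κ = m / 2 := by rw [hκ]; field_simp
  have κm : κ ≤ m / 2 := by nlinarith
  have hctr' : Ctr R w0 δ m z0 A0 Q0 := by
    constructor <;> linarith
  have dev : ∀ t : ℝ, |t - v0| ≤ κ → |θa * (1 - t) - θa * (1 - v0)| ≤ m / 2 ∧
      |θb * (1 - t) - θb * (1 - v0)| ≤ m / 2 := by
    intro t ht
    constructor
    · have e : θa * (1 - t) - θa * (1 - v0) = -(θa * (t - v0)) := by ring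
      rw [e, abs_neg, abs_mul]
      have : |θa| * |t - v0| ≤ L * κ := mul_le_mul (by rw [hL]; linarith [abs_nonneg θb]) ht
        (abs_nonneg _) (by linarith)
      linarith
    · have e : θb * (1 - t) - θb * (1 - v0) = -(θb * (t - v0)) := by ring
      rw [e, abs_neg, abs_mul]
      have : |θb| * |t - v0| ≤ L * κ := mul_le_mul (by rw [hL]; linarith [abs_nonneg θa]) ht
        (abs_nonneg _) (by linarith)
      linarith
  have hnr : ∀ t x1 x2 x3 : ℝ, |t - v0| ≤ κ → |x1| ≤ κ → |x2| ≤ κ → |x3| ≤ κ →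
      Nr m z0 A0 Q0 (w0 + t + x1) (sa + θa * (1 - t) + x2) (sb + θb * (1 - t) + x3) := by
    intro t x1 x2 x3 h2 h3 h4 h5
    obtain ⟨d1, d2⟩ := dev t h2
    rw [abs_le] at h2 h3 h4 h5 d1 d2
    constructor <;> linarith [h2.1, h2.2, h3.1, h3.2, h4.1, h4.2, h5.1, h5.2, d1.1, d1.2, d2.1,
      d2.2]
  set K : ℝ := c₀ - Dm g s q0 q1 w0 (sa + θa) (sb + θb) with hK
  have hdm : ∀ t x1 x2 x3 : ℝ, |t - v0| ≤ κ → |x1| ≤ κ → |x2| ≤ κ → |x3| ≤ κ →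
      ν (natB (w0 + t + x1) (sa + θa * (1 - t) + x2) (sb + θb * (1 - t) + x3)) ≤
        K + Dm g s q0 q1 (w0 + t + x1) (sa + θa * (1 - t) + x2) (sb + θb * (1 - t) + x3) := by
    intro t x1 x2 x3 h2 h3 h4 h5
    obtain ⟨d1, d2⟩ := dev t h2
    have g1 : nb w0 sa sb (t + x1) (θa * (1 - t) + x2) (θb * (1 - t) + x3) ∈ PD := by
      refine hPD _ _ _ ?_ ?_ ?_
      · rw [abs_le] at h2 h3 ⊢; constructor <;> linarith [h2.1, h2.2, h3.1, h3.2]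
      · rw [abs_le] at h4 d1 ⊢; constructor <;> linarith [h4.1, h4.2, d1.1, d1.2]
      · rw [abs_le] at h5 d2 ⊢; constructor <;> linarith [h5.1, h5.2, d2.1, d2.2]
    have g2 := h.dmax _ g1
    rw [hD, DN_Dm g s q0 q1 θa θb w0 sa sb, nb_natB] at g2
    rw [← add_assoc w0, ← add_assoc sa, ← add_assoc sb] at g2
    linarith
  have H : ProfN R δ a b (natB z0 A0 Q0) ν := profN_of h hF hm
  refine ⟨κ, κpos, by linarith, by linarith, by linarith, ?_⟩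
  intro v y hv y0 y1
  have ay : |y| ≤ κ := by rwa [abs_of_nonneg y0]
  have ay' : |-y| ≤ κ := by rwa [abs_neg]
  have a0 : |(0 : ℝ)| ≤ κ := by simpa using κpos.le
  have acy : |c * y| ≤ κ := by
    rw [abs_mul, abs_of_nonneg hc0, abs_of_nonneg y0]
    nlinarith
  have hv' := abs_le.1 hv
  have hn : Nr m z0 A0 Q0 (w0 + v) (sa + θa * (1 - v)) (sb + θb * (1 - v)) := by
    simpa using hnr v 0 0 0 hv a0 a0 a0
  have hnC : Nr m z0 A0 Q0 (w0 + v) (sa + θa * (1 - v) + y) (sb + θb * (1 - v)) := by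
    simpa using hnr v 0 y 0 hv a0 ay a0
  have hrec : K + Dm g s q0 q1 (w0 + v) (sa + θa * (1 - v)) (sb + θb * (1 - v)) ≤
      ν (natB (w0 + v) (sa + θa * (1 - v)) (sb + θb * (1 - v))) := by
    have g1 := h.record v (by linarith) (by linarith)
    rw [hE v (by linarith) (by linarith), DN_Dm g s q0 q1 θa θb w0 sa sb, rL_natB] at g1
    linarith
  have hleg1 := natB_leg hctr' hn
  have hym : y ≤ m := by linarith
  have hleg2 : natB (w0 + v) (sa + θa * (1 - v)) (sb + θb * (1 - v)) + y • uC ∈ Leg monL R := by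
    rw [← nB_uC]
    exact nB_leg hctr' hn ⟨y0, hym⟩ ⟨le_rfl, y0⟩ ⟨le_rfl, by linarith⟩ ⟨le_rfl, y0, le_rfl⟩
  rw [rL_natB]
  refine ⟨hleg1, hleg2, ?_, ?_⟩
  · exact recN_C H hctr' hn hnC y0 hym hrec (by simpa using hdm v 0 y 0 hv a0 ay a0)
  · have hvy : 0 ≤ v - y := by linarith
    have hq1 : natB (w0 + v - y) (sa + θa * (1 - v) + y) (sb + θb * (1 - v) + c * y) ∈
        Leg monL R := by
      have := natB_leg hctr' (hnr v (-y) y (c * y) hv ay' ay acy)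
      rwa [← sub_eq_add_neg] at this
    have hown := own_e0 h (p := natB (w0 + v - y) (sa + θa * (1 - v) + y)
      (sb + θb * (1 - v) + c * y)) (v := v - y) (y := y) hq1 (by
        rw [← qB_eq]
        exact qB_leg hctr' hn y0 hym hc0 hc1) y0 hvy (by linarith) (by
        show w0 + v - y = _
        ring) (by
        intro k
        have e : w0 + (v - y) = w0 + v - y := by ring
        have h9 : nb w0 sa sb (v - y) (θa * (1 - v) + y) (θb * (1 - v) + c * y) =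
            natB (w0 + v - y) (sa + θa * (1 - v) + y) (sb + θb * (1 - v) + c * y) := by
          rw [nb_natB, e, ← add_assoc, ← add_assoc]
        have := hoq v y (by linarith) y0 (by linarith) hvy (by linarith) (by rw [h9]; exact hq1) k
        rw [h9] at this
        exact this)
    refine recN_CP H hctr' hn y0 hym hc0 hc1 hrec ?_ hown
    have := hdm v (-y) y (c * y) hv ay' ay acy
    rwa [← sub_eq_add_neg] at this

/-- no visible slot: `hoq` of `d0r_all` -/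
theorem hoq_untied {v0 κ0 c : ℝ}
    (ho : ∀ v : ℝ, 0 ≤ v → v ≤ 1 → ∀ k, k ≠ 0 → R ≤ o v k)
    (hoz : ∀ v : ℝ, 0 ≤ v → v ≤ 1 → o v 0 = w0 + v) :
    ∀ v y : ℝ, |v - v0| ≤ κ0 → 0 ≤ y → y ≤ κ0 → 0 ≤ v - y → v ≤ 1 →
      nb w0 sa sb (v - y) (θa * (1 - v) + y) (θb * (1 - v) + c * y) ∈ Leg monL R →
      ∀ k, nb w0 sa sb (v - y) (θa * (1 - v) + y) (θb * (1 - v) + c * y) k ≤ o (v - y) k := by
  intro v y _ h2 _ h4 h5 hleg k
  by_cases hk : k = 0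
  · subst hk
    rw [hoz _ h4 (by linarith)]
    exact le_rfl
  · exact (hleg.2 k).trans (ho _ h4 (by linarith) k hk)

end ext

end Crest.Agent.R116.D0r708
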