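import Crest.Agent.R116.Rcx3_363

/-!
# R116 (K side, TIES), the producer, part 6 (helper363)

* `leg_e1`     : above the record point the slot `D` may be raised a little;
* **`ddead_ae`** : the micro statement (D0) ⊢ `DDead` at almost every record point;
* **`exists_out8`**, **`exists_out9`** : `CtxT` (+ D0 for `D` frozen) ⊢ `Out8`, `Out9`.
-/

set_option autoImplicit false
set_option linter.unusedVariables false

open Set Filter Topology MeasureTheory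

namespace Crest.Agent.R116.Rcx363

open Crest.Agent.R138.Ex926 (Base U IsTan)
open Crest.Agent.R136
open Crest.Agent.R136.MkA627
open Crest.Agent.R136.TD627
open Crest.Agent.R136.Net191
open Crest.Agent.R136.Lq196
open Crest.Agent.R116.ChL222
open Crest.Agent.R116.PL504 (nb rL DN eL βL oL Shift)
open Crest.Agent.R116.Xd954 (cs xs FlagX Mrg)
open Crest.Agent.R116.Sg337 (coneL DL natB eL_bx9)
open Crest.Agent.R116.Gd222 (TSet sN PDL DT)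
open Crest.Agent.R116.KI439
open Crest.Agent.R116.KF439 (PL)
open Crest.Agent.R116.Tw468 (OutT OutR)
open Crest.Agent.R116.CtxB468
open Crest.Agent.R116.RbM219
open Crest.Agent.R116.RbK219 (SOk RS)
open Crest.Agent.R116.SgO219 (PP tan_lim tan_ev)
open Dg262 (SupOn)
open Dg219 (mw)
open Sl741 (slice xt rs)

/-- the slot `D` may be raised at the record point -/
theorem leg_e1 {θa θb w0 sa sb δ R : ℝ} (sh : Shift θa θb w0 sa sb δ R)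
    (hR0 : w0 + (θb + sb) < R) (hR1 : w0 + 1 + sb < R) {v : ℝ} (hv0 : 0 ≤ v) (hv1 : v ≤ 1) :
    ∃ r : ℝ, 0 < r ∧ ∀ y : ℝ, 0 ≤ y → y ≤ r →
      rL θa θb w0 sa sb v + y • (Pi.single 1 1 : Fin 12 → ℝ) ∈ Leg monL R := by
  obtain ⟨r, hr, h⟩ := leg_near sh hR0 hR1 hv0 hv1
  refine ⟨r, hr, fun y hy0 hyr => h _ ?_ fun k => ?_⟩
  · have h1 := single_mem (p := 0) zero_coneL hy0
    rwa [zero_add] at h1
  · rw [Pi.smul_apply, smul_eq_mul]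
    by_cases hk : k = 1
    · subst hk
      rw [Pi.single_eq_same, mul_one, abs_of_nonneg hy0]
      exact hyr
    · rw [Pi.single_eq_of_ne hk, mul_zero, abs_zero]
      exact hr.le

section ctx

variable {G : Geo TSet (Fin 2)} {L : ℕ → ℕ → LRay} {r : ℕ → ℝ} {g s : ℝ} {θ q : Fin 2 → ℝ}
    {Rg : ℝ} {B : Base} {I : ℕ → Finset (ℕ × ℝ)} {lev : ℕ → ℚ → ℕ} {A : ℕ → ℝ}
    {f : ℕ → ℚ → ℕ → ℤ → ℕ} {b : ℕ → ℚ → ℕ → TSet} {vm : ℕ → ℚ → ℝ} {w : Fin 2 → ℕ → ℚ → ℝ}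
    {fr : ℕ → ℚ → ℕ × ℝ → LInc} {fl : ℕ → ℕ × ℝ → LInc} {sc : Fin 12 → ℕ → ℝ}
    {w0 sa sb δ R : ℝ} {I0 I' : ℕ → Finset (ℕ × ℝ)} {ν own : (Fin 12 → ℝ) → ℝ} {c₀ : ℝ}

/-- **the micro statement ⊢ `DDead` at almost every record point** -/
theorem ddead_ae
    (h : CtxT G L r g s θ q Rg B I lev A f b vm w fr fl sc w0 sa sb δ R I0 I' ν own c₀)
    (hR0 : w0 + (θ 1 + sb) < R) (hR1 : w0 + 1 + sb < R)
    (hmic : ∀ᵐ v : ℝ, v ∈ Ioo (0:ℝ) 1 → Tendsto (fun y : ℝ =>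
      (ν (rL (θ 0) (θ 1) w0 sa sb v) - ν (rL (θ 0) (θ 1) w0 sa sb v +
        y • (Pi.single 1 1 : Fin 12 → ℝ))) / y) (𝓝[>] 0) (𝓝 0)) :
    ∀ᵐ v : ℝ, v ∈ Ioo (0:ℝ) 1 → DDead R ν (θ 0) (θ 1) w0 sa sb v := by
  have hlip : LipschitzOnWith 12 ν (Leg monL R) :=
    LipschitzOnWith.of_dist_le_mul fun p hp q hq => by
      rw [Real.dist_eq]
      exact fo_lip h 0 p hp q hq
  obtain ⟨ν', hν', he⟩ := hlip.extend_real
  have hν'' : ∀ p q, |ν' p - ν' q| ≤ 12 * dist p q := fun p q => by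
    have := hν'.dist_le_mul p q
    rwa [Real.dist_eq] at this
  have he' : ∀ p ∈ Leg monL R, ν' p = ν p := fun p hp => (he hp).symm
  set y0 : Fin 12 → ℝ := rL (θ 0) (θ 1) w0 sa sb 0 with hy0
  have hline : ∀ v : ℝ, y0 + v • βL (θ 0) (θ 1) = rL (θ 0) (θ 1) w0 sa sb v := fun v => by
    rw [hy0, ← rL_add, zero_add]
  have hmic' : ∀ᵐ v : ℝ, v ∈ Ioo (0:ℝ) 1 → Tendsto (fun y : ℝ =>
      (ν' (y0 + v • βL (θ 0) (θ 1)) - ν' (y0 + v • βL (θ 0) (θ 1) +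
        y • (Pi.single 1 1 : Fin 12 → ℝ))) / y) (𝓝[>] 0) (𝓝 0) := by
    filter_upwards [hmic] with v hv hvI
    obtain ⟨ρ, hρ, hl⟩ := leg_e1 h.sh hR0 hR1 hvI.1.le hvI.2.le
    refine (hv hvI).congr' ?_
    have h6 : ∀ᶠ y in 𝓝[>] (0 : ℝ), y ≤ ρ := nhdsWithin_le_nhds (Iic_mem_nhds hρ)
    filter_upwards [h6, self_mem_nhdsWithin] with y hy1 hy2
    have hy2' : (0 : ℝ) < y := hy2
    have m0 := hl 0 le_rfl hρ.le
    rw [zero_smul, add_zero] at m0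
    rw [hline, he' _ m0, he' _ (hl y hy2'.le hy1)]
  filter_upwards [Fz708.ae_frzAt (e := (Pi.single 1 1 : Fin 12 → ℝ)) (K := 12) (by norm_num) hν''
    isOpen_Ioo hmic'] with v hv hvI
  exact DDead.of_frzAt (hv hvI) he'

/-- **`Out8` from `CtxT` and D0** -/
theorem exists_out8
    (h : CtxT G L r g s θ q Rg B I lev A f b vm w fr fl sc w0 sa sb δ R I0 I' ν own c₀)
    (hR0 : w0 + (θ 1 + sb) < R) (hR1 : w0 + 1 + sb < R) (hθ : 0 < θ 0)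
    (hRg : θ 0 + |θ 1| < Rg)
    (hmic : ∀ᵐ v : ℝ, v ∈ Ioo (0:ℝ) 1 → Tendsto (fun y : ℝ =>
      (ν (rL (θ 0) (θ 1) w0 sa sb v) - ν (rL (θ 0) (θ 1) w0 sa sb v +
        y • (Pi.single 1 1 : Fin 12 → ℝ))) / y) (𝓝[>] 0) (𝓝 0))
    (hV1 : InvT PL B I 1 fl (sc 1)) {t : ℝ} (ht0 : 0 < t) {T : Type*} [Countable T]
    {Bs : T → Fin 8 → ℝ} {sg : T → ℝ}
    (hS : ∀ i, SOk (nat8 1 (-(θ 0)) (-(θ 1))) (Bs i) (sg i)) (hB : ∀ i, Leg8 (Bs i))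
    {N : Set ℝ} (hN : ∀ᵐ v : ℝ, v ∈ N) :
    ∃ v0 ∈ N, 0 < v0 ∧ v0 < 1 ∧ ∃ (a b' : Fin 2) (x : ℕ → Fin 12 → ℝ) (hh : ℕ → ℝ)
      (lam : Fin 2 → (Fin 12 → ℝ) → ℝ),
      (∀ κ0 : ℝ, FlagX B I' lev fl (sN lev w) κ0 0 a b') ∧
      DDead R ν (θ 0) (θ 1) w0 sa sb v0 ∧
      Out8 R s a b' (VisT B I fl sc) (θ 0) (θ 1) g (q 0) (q 1) t Bs sg
        (rL (θ 0) (θ 1) w0 sa sb v0) (fo ν own) x hh lam := by
  obtain ⟨a, b', hX⟩ := h.fX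
  have hX' : ∀ κ0 : ℝ, FlagX B I' lev fl (sN lev w) κ0 0 a b' := hX I' h.sub'
  obtain ⟨v0, hvN, hv0, hv1, hD⟩ : ∃ v0 ∈ N, 0 < v0 ∧ v0 < 1 ∧
      DDead R ν (θ 0) (θ 1) w0 sa sb v0 := by
    by_contra hcon
    push Not at hcon
    have h1 : volume (Ioo (0:ℝ) 1) = 0 := by
      refine measure_mono_null (t := {v | ¬ (v ∈ N ∧ (v ∈ Ioo (0:ℝ) 1 →
        DDead R ν (θ 0) (θ 1) w0 sa sb v))}) (fun v hv hP => ?_)
        (ae_iff.1 (hN.and (ddead_ae h hR0 hR1 hmic)))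
      exact hcon v hP.1 hv.1 hv.2 (hP.2 hv)
    rw [Real.volume_Ioo] at h1
    simp at h1
  obtain ⟨x, hh, lam, hO⟩ := recx8 h hR0 hR1 hθ hRg hX' hv0 hv1 hD hV1 ht0 hS hB
  exact ⟨v0, hvN, hv0, hv1, a, b', x, hh, lam, hX', hD, hO⟩

/-- **`Out9` from `CtxT`** -/
theorem exists_out9
    (h : CtxT G L r g s θ q Rg B I lev A f b vm w fr fl sc w0 sa sb δ R I0 I' ν own c₀)
    (hR0 : w0 + (θ 1 + sb) < R) (hR1 : w0 + 1 + sb < R) (hθ : 0 < θ 0)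
    (hRg : θ 0 + |θ 1| < Rg) {T : Type*} [Countable T]
    {Bs : T → Fin 9 → ℝ} {sg : T → ℝ}
    (hS : ∀ i, SOk (nat9 1 (-(θ 0)) (-(θ 1))) (Bs i) (sg i)) (hB : ∀ i, Leg9 (Bs i))
    {N : Set ℝ} (hN : ∀ᵐ v : ℝ, v ∈ N) :
    ∃ v0 ∈ N, 0 < v0 ∧ v0 < 1 ∧ ∃ (a b' : Fin 2) (x : ℕ → Fin 12 → ℝ) (hh : ℕ → ℝ)
      (lam : Fin 2 → (Fin 12 → ℝ) → ℝ),
      (∀ κ0 : ℝ, FlagX B I' lev fl (sN lev w) κ0 0 a b') ∧
      Out9 R s a b' (VisT B I fl sc) (θ 0) (θ 1) g (q 0) (q 1) Bs sg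
        (rL (θ 0) (θ 1) w0 sa sb v0) (fo ν own) x hh lam := by
  obtain ⟨a, b', hX⟩ := h.fX
  have hX' : ∀ κ0 : ℝ, FlagX B I' lev fl (sN lev w) κ0 0 a b' := hX I' h.sub'
  obtain ⟨v0, hvN, hv0, hv1⟩ : ∃ v0 ∈ N, 0 < v0 ∧ v0 < 1 := by
    by_contra hcon
    push Not at hcon
    have h1 : volume (Ioo (0:ℝ) 1) = 0 := by
      refine measure_mono_null (t := {v | ¬ v ∈ N}) (fun v hv hP => ?_) (ae_iff.1 hN)
      exact absurd hv.2 (not_lt.2 (hcon v hP hv.1))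
    rw [Real.volume_Ioo] at h1
    simp at h1
  obtain ⟨x, hh, lam, hO⟩ := recx9 h hR0 hR1 hθ hRg hX' hv0 hv1 hS hB
  exact ⟨v0, hvN, hv0, hv1, a, b', x, hh, lam, hX', hO⟩

end ctx

end Crest.Agent.R116.Rcx363
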