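import Crest.Agent.R116.D0n5_878
import Crest.Agent.R116.D0T_794
import Crest.Agent.R116.Kg8_330
import Crest.Agent.R116.Rcx6_363
import Crest.Agent.R116.D0r_708

/-!
# R116 (K side), LEMMA D0, `beta_D > 0`, `s < 1/2`: the end over `CtxT` (helper878)

* `own_vis` : own increments at natural boxes, visible slots allowed
* `near_box` : natural boxes near a record box are D-max boxes
* **`D0pos`** : `D0T η (fun s θ => s < 1/2 ∧ 1 < 2 * θ 0 - θ 1)`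
-/

set_option autoImplicit false
set_option linter.unusedVariables false

open Finset Filter Topology MeasureTheory Set

namespace Crest.Agent.R116.D0p878

open Crest.Agent.R138.Ex926 (Base U IsTan)
open Crest.Agent.R136
open Crest.Agent.R136.MkA627
open Crest.Agent.R136.TD627
open Crest.Agent.R136.Net191
open Crest.Agent.R136.Lq196
open Crest.Agent.R116.ChL222
open Crest.Agent.R116.PL504 (nb rL DN eL βL oL Shift)
open Crest.Agent.R116.Xd954 (cs xs FlagX Mrg exists_mrg)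
open Crest.Agent.R116.Sg337 (bx9 natB Dm uC eL_bx9 nb_natB DN_Dm)
open Crest.Agent.R116.Gd222 (TSet sN PDL DT)
open Crest.Agent.R116.KI439
open Crest.Agent.R116.KF439 (PL)
open Crest.Agent.R116.Tw468 (OutT OutR)
open Crest.Agent.R116.CtxB468
open Crest.Agent.R116.KTop387 (NumL)
open Crest.Agent.R116.KTie794 (D0T Mic)
open Crest.Agent.R116.D0n878
open Crest.Agent.R116.D0F878 (LinTanD)
open Crest.Agent.R116.D0r708 (rL_natB d0r_all own_e0)

theorem uZ_eq : uZ = (Pi.single 0 1 : Fin 12 → ℝ) := by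
  funext k
  fin_cases k <;> simp [uZ, bx9]

theorem uD_eq : uD = (Pi.single 1 1 : Fin 12 → ℝ) := by
  funext k
  fin_cases k <;> simp [uD, bx9]

/-- deviation of two natural boxes -/
theorem natB_dev {z c p z' c' p' κ : ℝ} (hz : |z - z'| ≤ κ) (hc : |c - c'| ≤ κ)
    (hp : |p - p'| ≤ κ) (k : Fin 12) : |natB z c p k - natB z' c' p' k| ≤ 4 * κ := by
  rw [abs_le] at hz hc hp ⊢
  fin_cases k <;> simp [natB, bx9] <;> constructor <;> linarith

theorem n_0 (z c p : ℝ) : natB z c p 0 = z := by simp [natB, bx9]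
theorem n_1 (z c p : ℝ) : natB z c p 1 = p - 2 * c - z := by simp [natB, bx9]
theorem n_3 (z c p : ℝ) : natB z c p 3 = c := by simp [natB, bx9]
theorem n_11 (z c p : ℝ) : natB z c p 11 = z + p := by simp [natB, bx9]
theorem n_2 (z c p : ℝ) : natB z c p 2 = p - 2 * c := by simp [natB, bx9]
theorem n_7 (z c p : ℝ) : natB z c p 7 = p - c := by simp [natB, bx9]
theorem n_8 (z c p : ℝ) : natB z c p 8 = p - c := by simp [natB, bx9]

theorem vis_set : ∀ k : Fin 12, k ≠ 0 → k ≠ 1 → k ≠ 2 → k ≠ 7 → k ≠ 8 →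
    k ∈ ({3, 4, 5, 6, 9, 10, 11} : Finset (Fin 12)) := by decide

section ctx

variable {G : Geo TSet (Fin 2)} {L : ℕ → ℕ → LRay} {r : ℕ → ℝ} {g s : ℝ} {θ q : Fin 2 → ℝ}
    {Rg : ℝ} {B : Base} {I : ℕ → Finset (ℕ × ℝ)} {lev : ℕ → ℚ → ℕ} {A : ℕ → ℝ}
    {f : ℕ → ℚ → ℕ → ℤ → ℕ} {b : ℕ → ℚ → ℕ → TSet} {vm : ℕ → ℚ → ℝ} {w : Fin 2 → ℕ → ℚ → ℝ}
    {fr : ℕ → ℚ → ℕ × ℝ → LInc} {fl : ℕ → ℕ × ℝ → LInc} {sc : Fin 12 → ℕ → ℝ}
    {w0 sa sb δ R : ℝ} {I0 I' : ℕ → Finset (ℕ × ℝ)} {ν own : (Fin 12 → ℝ) → ℝ} {c₀ : ℝ}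

/-- natural boxes below the own exponents -/
theorem le_oL (H : CtxT G L r g s θ q Rg B I lev A f b vm w fr fl sc w0 sa sb δ R I0 I' ν own c₀)
    (hV1 : InvT PL B I 1 fl (sc 1)) {z c p : ℝ}
    (h78 : (VisT B I fl sc 7 ∨ VisT B I fl sc 8) → p - c ≤
      (sb + θ 1 * (1 - (z - w0))) - (sa + θ 0 * (1 - (z - w0))))
    (h2 : VisT B I fl sc 2 → p - 2 * c ≤
      (sb + θ 1 * (1 - (z - w0))) - 2 * (sa + θ 0 * (1 - (z - w0))))
    (hR : ∀ k, natB z c p k ≤ R) (k : Fin 12) :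
    natB z c p k ≤ oL (θ 0) (θ 1) w0 sa sb R (VisT B I fl sc) (z - w0) k := by
  by_cases hk0 : k = 0
  · rw [hk0, oz, n_0]; linarith
  by_cases hv : VisT B I fl sc k
  · rw [oV hv, rL_natB]
    have hk : k = 1 ∨ k = 2 ∨ k = 7 ∨ k = 8 := by
      by_contra hcon
      push Not at hcon
      exact hv (H.out.inv_ray (vis_set k hk0 hcon.1 hcon.2.1 hcon.2.2.1 hcon.2.2.2))
    rcases hk with rfl | rfl | rfl | rfl
    · exact absurd hV1 hv
    · rw [n_2, n_2]; exact h2 hv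
    · rw [n_7, n_7]; exact h78 (Or.inl hv)
    · rw [n_8, n_8]; exact h78 (Or.inr hv)
  · rw [oR hk0 hv]; exact hR k

/-- **own increments at natural boxes**, visible slots allowed -/
theorem own_vis
    (H : CtxT G L r g s θ q Rg B I lev A f b vm w fr fl sc w0 sa sb δ R I0 I' ν own c₀)
    (hV1 : InvT PL B I 1 fl (sc 1)) {z c p : ℝ}
    (h78 : (VisT B I fl sc 7 ∨ VisT B I fl sc 8) → p - c ≤
      (sb + θ 1 * (1 - (z - w0))) - (sa + θ 0 * (1 - (z - w0))))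
    (h2 : VisT B I fl sc 2 → p - 2 * c ≤
      (sb + θ 1 * (1 - (z - w0))) - 2 * (sa + θ 0 * (1 - (z - w0))))
    (hz0 : w0 ≤ z) (hz1 : z < w0 + 1) (hbox : ∀ k, 0 < natB z c p k ∧ natB z c p k < R) :
    ∀ᶠ y in 𝓝[>] (0 : ℝ), (1 - s) * y ≤ ν (natB z c p) - ν (natB z c p + y • uZ) := by
  have hp : natB z c p ∈ Leg monL R := nat_leg (fun k => (hbox k).1.le) fun k => (hbox k).2.le
  have hzR' := (hbox 0).2
  rw [n_0] at hzR'
  have h1 : ∀ᶠ y in 𝓝[>] (0 : ℝ), y ≤ min (R - z) (w0 + 1 - z) :=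
    nhdsWithin_le_nhds (Iic_mem_nhds (lt_min (by linarith) (by linarith)))
  filter_upwards [h1, self_mem_nhdsWithin] with y hy hy0
  have hy0' : (0 : ℝ) < y := hy0
  have hyR := hy.trans (min_le_left _ _)
  have hy1 := hy.trans (min_le_right _ _)
  rw [uZ_eq]
  have hq : natB z c p + y • (Pi.single 0 1 : Fin 12 → ℝ) ∈ Leg monL R := by
    refine ⟨⟨fun k => ?_, fun k e he => ?_⟩, fun k => ?_⟩
    · have := (hbox k).1
      rw [Pi.add_apply, Pi.smul_apply, smul_eq_mul]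
      by_cases hk : k = 0
      · subst hk; rw [Pi.single_eq_same]; linarith
      · rw [Pi.single_eq_of_ne hk]; linarith
    · have hk : k ≠ 0 := hd0 k e he
      have h3 := hp.1.wall k e he
      rw [Pi.add_apply, Pi.smul_apply, smul_eq_mul, Pi.single_eq_of_ne hk, mul_zero, add_zero]
      refine h3.trans (Finset.sum_le_sum fun t _ => ?_)
      refine mul_le_mul_of_nonneg_left ?_ (Nat.cast_nonneg _)
      rw [Pi.add_apply, Pi.smul_apply, smul_eq_mul]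
      by_cases ht : t = 0
      · subst ht; rw [Pi.single_eq_same]; linarith
      · rw [Pi.single_eq_of_ne ht]; linarith
    · rw [Pi.add_apply, Pi.smul_apply, smul_eq_mul]
      by_cases hk : k = 0
      · subst hk
        rw [Pi.single_eq_same, n_0]
        linarith
      · rw [Pi.single_eq_of_ne hk]
        have := (hbox k).2
        linarith
  have h2' := PL504.own_inc H.ext hp hq (fun k => by
      rw [Pi.add_apply, Pi.smul_apply, smul_eq_mul]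
      by_cases hk : k = 0
      · subst hk; rw [Pi.single_eq_same]; linarith
      · rw [Pi.single_eq_of_ne hk]; linarith) (v := z - w0) (v' := z - w0 + y) (by linarith)
    (by linarith) (by linarith) (by linarith) (by rw [n_0]; ring)
    (by rw [Pi.add_apply, Pi.smul_apply, smul_eq_mul, Pi.single_eq_same, n_0]; ring)
    (le_oL H hV1 h78 h2 fun k => (hbox k).2.le)
  have e : z - w0 + y - (z - w0) = y := by ring
  rwa [e] at h2'

/-- **natural boxes near a record box** -/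
theorem near_box
    (H : CtxT G L r g s θ q Rg B I lev A f b vm w fr fl sc w0 sa sb δ R I0 I' ν own c₀)
    (hR0 : w0 + (θ 1 + sb) < R) (hR1 : w0 + 1 + sb < R) (hθ : 0 < θ 0)
    (hRg : θ 0 + |θ 1| + 1 ≤ Rg) {v0 : ℝ} (hv0 : 0 < v0) (hv1 : v0 < 1) :
    ∃ κ : ℝ, 0 < κ ∧ ∀ z c p : ℝ, |z - (w0 + v0)| ≤ κ → |c - (sa + θ 0 * (1 - v0))| ≤ κ →
      |p - (sb + θ 1 * (1 - v0))| ≤ κ →
      (∀ k, 0 < natB z c p k ∧ natB z c p k < R) ∧ w0 < z ∧ z < w0 + 1 ∧ sa < c ∧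
        natB z c p ∈ PDL w0 sa sb Rg 0 (θ 0 + |θ 1| + 2) R := by
  have hbx : ∀ k, 0 < rL (θ 0) (θ 1) w0 sa sb v0 k ∧ rL (θ 0) (θ 1) w0 sa sb v0 k < R := by
    intro k
    have h1 := H.sh.rL_pos hv0.le hv1.le k
    refine ⟨H.sh.d0.trans_le h1, ?_⟩
    have sh' : Shift (θ 0) (θ 1) w0 sa sb δ (max (w0 + (θ 1 + sb)) (w0 + 1 + sb)) :=
      ⟨H.sh.d0, H.sh.z, H.sh.c0, H.sh.c1, H.sh.D0, H.sh.D1, le_max_left _ _, le_max_right _ _⟩
    exact ((sh'.rL_leg hv0.le hv1.le).2 k).trans_lt (max_lt hR0 hR1)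
  obtain ⟨m0, hm0, hm⟩ : ∃ m0 : ℝ, 0 < m0 ∧ ∀ k, m0 ≤ rL (θ 0) (θ 1) w0 sa sb v0 k ∧
      rL (θ 0) (θ 1) w0 sa sb v0 k + m0 ≤ R := by
    have hne : (Finset.univ : Finset (Fin 12)).Nonempty := Finset.univ_nonempty
    refine ⟨Finset.univ.inf' hne fun k => min (rL (θ 0) (θ 1) w0 sa sb v0 k)
      (R - rL (θ 0) (θ 1) w0 sa sb v0 k), ?_, fun k => ?_⟩
    · rw [Finset.lt_inf'_iff]
      exact fun k _ => lt_min (hbx k).1 (by linarith [(hbx k).2])
    · have h1 := Finset.inf'_le (fun k => min (rL (θ 0) (θ 1) w0 sa sb v0 k)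
        (R - rL (θ 0) (θ 1) w0 sa sb v0 k)) (Finset.mem_univ k)
      have h2 := h1.trans (min_le_left _ _)
      have h3 := h1.trans (min_le_right _ _)
      exact ⟨h2, by linarith⟩
  have hθv : 0 < θ 0 * (1 - v0) := mul_pos hθ (by linarith)
  obtain ⟨κ, hκ, e1, e2, e3, e4, e5⟩ : ∃ κ : ℝ, 0 < κ ∧ 5 * κ ≤ m0 ∧ 2 * κ ≤ v0 ∧ 2 * κ ≤ 1 - v0 ∧
      2 * κ ≤ 1 ∧ 2 * κ ≤ θ 0 * (1 - v0) := by
    refine ⟨min (m0 / 5) (min (min (v0 / 2) ((1 - v0) / 2)) (min (1 / 2) (θ 0 * (1 - v0) / 2))),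
      lt_min (by positivity) (lt_min (lt_min (by positivity) (by linarith))
        (lt_min (by norm_num) (by positivity))), ?_, ?_, ?_, ?_, ?_⟩
    · have := min_le_left (m0 / 5) (min (min (v0 / 2) ((1 - v0) / 2))
        (min (1 / 2) (θ 0 * (1 - v0) / 2)))
      linarith
    · have := (min_le_right (m0 / 5) (min (min (v0 / 2) ((1 - v0) / 2))
        (min (1 / 2) (θ 0 * (1 - v0) / 2)))).trans ((min_le_left _ _).trans (min_le_left _ _))
      linarith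
    · have := (min_le_right (m0 / 5) (min (min (v0 / 2) ((1 - v0) / 2))
        (min (1 / 2) (θ 0 * (1 - v0) / 2)))).trans ((min_le_left _ _).trans (min_le_right _ _))
      linarith
    · have := (min_le_right (m0 / 5) (min (min (v0 / 2) ((1 - v0) / 2))
        (min (1 / 2) (θ 0 * (1 - v0) / 2)))).trans ((min_le_right _ _).trans (min_le_left _ _))
      linarith
    · have := (min_le_right (m0 / 5) (min (min (v0 / 2) ((1 - v0) / 2))
        (min (1 / 2) (θ 0 * (1 - v0) / 2)))).trans ((min_le_right _ _).trans (min_le_right _ _))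
      linarith
  refine ⟨κ, hκ, fun z c p hz hc hp => ?_⟩
  have hbox : ∀ k, 0 < natB z c p k ∧ natB z c p k < R := by
    intro k
    have h1 := natB_dev hz hc hp k
    have h2 := hm k
    rw [rL_natB] at h2
    rw [abs_le] at h1
    constructor <;> linarith [h1.1, h1.2, h2.1, h2.2]
  have hl : natB z c p ∈ Leg monL R := nat_leg (fun k => (hbox k).1.le) fun k => (hbox k).2.le
  have hen : nb w0 sa sb (z - w0) (c - sa) (p - sb) = natB z c p := by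
    rw [nb_natB]
    congr 1 <;> ring
  have hz' := abs_le.1 hz
  have hc' := abs_le.1 hc
  have hp' := abs_le.1 hp
  have t1 : |θ 1 * (1 - v0)| ≤ |θ 1| := by
    rw [abs_mul, abs_of_pos (by linarith : (0:ℝ) < 1 - v0)]
    exact mul_le_of_le_one_right (abs_nonneg _) (by linarith)
  have t2 := abs_le.1 t1
  have t3 : θ 0 * (1 - v0) ≤ θ 0 := mul_le_of_le_one_right hθ.le (by linarith)
  refine ⟨hbox, by linarith [hz'.1], by linarith [hz'.2], by linarith [hc'.1], ?_⟩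
  rw [← hen]
  refine nb_PD (by rw [hen]; exact hl) (by linarith [hz'.1]) (by linarith [hz'.2])
    (by linarith [hc'.1]) (by linarith [hc'.2, abs_nonneg (θ 1)]) ?_ ?_
  · rw [abs_lt]
    constructor <;> linarith [hp'.1, hp'.2, t2.1, t2.2]
  · linarith [hc'.2, hp'.1, t2.1]

/-- the `C`-increments at the record -/
theorem hC_T {g : ℝ}
    (H : CtxT G L r g s θ q Rg B I lev A f b vm w fr fl sc w0 sa sb δ R I0 I' ν own c₀)
    (hR0 : w0 + (θ 1 + sb) < R) (hR1 : w0 + 1 + sb < R) (hθ : 0 < θ 0)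
    (hRg : θ 0 + |θ 1| + 1 ≤ Rg) (hV1 : InvT PL B I 1 fl (sc 1))
    (h78 : (VisT B I fl sc 7 ∨ VisT B I fl sc 8) → θ 0 - θ 1 ≤ 1)
    (h2 : VisT B I fl sc 2 → 2 * θ 0 - θ 1 ≤ 2) {v : ℝ} (hv0 : 0 < v) (hv1 : v < 1) :
    ∀ᶠ y in 𝓝[>] (0 : ℝ), q 0 * y ≤
      ν (rL (θ 0) (θ 1) w0 sa sb v) - ν (rL (θ 0) (θ 1) w0 sa sb v + y • uC) := by
  obtain ⟨a, b', hX⟩ := H.fX
  obtain ⟨κ, hκ, hn⟩ := near_box H hR0 hR1 hθ hRg hv0 hv1
  have hθv : 0 < θ 0 * (1 - v) := mul_pos hθ (by linarith)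
  have t1 : |θ 1 * (1 - v)| ≤ |θ 1| := by
    rw [abs_mul, abs_of_pos (by linarith : (0:ℝ) < 1 - v)]
    exact mul_le_of_le_one_right (abs_nonneg _) (by linarith)
  have t2 := abs_le.1 t1
  have t3 : θ 0 * (1 - v) ≤ θ 0 := mul_le_of_le_one_right hθ.le (by linarith)
  obtain ⟨d, hm⟩ := exists_mrg (k0 := θ 0 + |θ 1| + 2) (ϑ := 0) (v := v) (t := θ 0 * (1 - v))
    (y := θ 1 * (1 - v)) hθv (by linarith [t2.1]) (by linarith)
  have hF := hX I' H.sub' (θ 0 + |θ 1| + 2)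
  have hE := H.extK (θ 0 + |θ 1| + 2)
  rw [← Gd222.coN_eq] at hE
  obtain ⟨hb0, -⟩ := hn (w0 + v) (sa + θ 0 * (1 - v)) (sb + θ 1 * (1 - v))
    (by rw [sub_self, abs_zero]; exact hκ.le) (by rw [sub_self, abs_zero]; exact hκ.le)
    (by rw [sub_self, abs_zero]; exact hκ.le)
  have b1 := (hb0 1).1
  have b3 := (hb0 3).1
  have b11 := (hb0 11).2
  rw [n_1] at b1
  rw [n_3] at b3
  rw [n_11] at b11
  obtain ⟨κ', h1, -, -, -, h5⟩ := d0r_all (c := 0) hE hF DT_nb (fun v _ _ => EL_DN v) hv0 hv1 hm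
    (H.sh.d0.trans_le H.sh.z) b3 (by linarith) (by linarith) hκ le_rfl zero_le_one
    (fun v' a' b'' e1 e2 e3 => by
      rw [nb_natB]
      refine (hn _ _ _ ?_ ?_ ?_).2.2.2.2
      · rwa [add_sub_add_left_eq_sub]
      · rwa [add_sub_add_left_eq_sub]
      · rwa [add_sub_add_left_eq_sub])
    (fun v' y e1 e2 e3 e4 e5 hl k => by
      have hRk : ∀ k, nb w0 sa sb (v' - y) (θ 0 * (1 - v') + y) (θ 1 * (1 - v') + 0 * y) k ≤ R :=
        hl.2
      rw [nb_natB] at hRk ⊢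
      have h6 := le_oL H hV1 (z := w0 + (v' - y)) (c := sa + (θ 0 * (1 - v') + y))
        (p := sb + (θ 1 * (1 - v') + 0 * y)) (fun hv => by
          have := h78 hv
          have e7 : w0 + (v' - y) - w0 = v' - y := by ring
          rw [e7]
          nlinarith) (fun hv => by
          have := h2 hv
          have e7 : w0 + (v' - y) - w0 = v' - y := by ring
          rw [e7]
          nlinarith) hRk k
      have e7 : w0 + (v' - y) - w0 = v' - y := by ring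
      rw [e7] at h6
      exact h6)
  have h6 : ∀ᶠ y in 𝓝[>] (0 : ℝ), y ≤ κ' := nhdsWithin_le_nhds (Iic_mem_nhds h1)
  filter_upwards [h6, self_mem_nhdsWithin] with y hy hy0
  have hy0' : (0 : ℝ) < y := hy0
  exact (h5 v y (by rw [sub_self, abs_zero]; exact h1.le) hy0'.le hy).2.2.1

/-- from the null sets of `D`-live heights to the micro form -/
theorem mic_of
    (H : CtxT G L r g s θ q Rg B I lev A f b vm w fr fl sc w0 sa sb δ R I0 I' ν own c₀)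
    (hR0 : w0 + (θ 1 + sb) < R) (hR1 : w0 + 1 + sb < R)
    (hloc : ∀ v0 : ℝ, 0 < v0 → v0 < 1 → ∃ v1 v2 : ℝ, v1 < v0 ∧ v0 < v2 ∧ ∀ ρ : ℝ, 0 < ρ →
      volume {v : ℝ | v ∈ Ioo v1 v2 ∧ ∃ᶠ y in 𝓝[>] (0:ℝ), ρ * y ≤
        ν (rL (θ 0) (θ 1) w0 sa sb v) - ν (rL (θ 0) (θ 1) w0 sa sb v + y • uD)} = 0) :
    Mic ν (θ 0) (θ 1) w0 sa sb := by
  have key : ∀ n : ℕ, ∀ᵐ v : ℝ, v ∈ Ioo (0:ℝ) 1 → ¬ ∃ᶠ y in 𝓝[>] (0:ℝ), 1 / ((n:ℝ) + 1) * y ≤
      ν (rL (θ 0) (θ 1) w0 sa sb v) - ν (rL (θ 0) (θ 1) w0 sa sb v + y • uD) := by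
    intro n
    have hn : (0:ℝ) < 1 / ((n:ℝ) + 1) := by positivity
    rw [ae_iff]
    have e : {v : ℝ | ¬ (v ∈ Ioo (0:ℝ) 1 → ¬ ∃ᶠ y in 𝓝[>] (0:ℝ), 1 / ((n:ℝ) + 1) * y ≤
        ν (rL (θ 0) (θ 1) w0 sa sb v) - ν (rL (θ 0) (θ 1) w0 sa sb v + y • uD))} =
        {v : ℝ | v ∈ Ioo (0:ℝ) 1 ∧ ∃ᶠ y in 𝓝[>] (0:ℝ), 1 / ((n:ℝ) + 1) * y ≤
        ν (rL (θ 0) (θ 1) w0 sa sb v) - ν (rL (θ 0) (θ 1) w0 sa sb v + y • uD)} := by
      ext v
      simp only [Set.mem_ofPred_eq, not_forall, not_not, exists_prop]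
    rw [e]
    refine measure_null_of_locally_null _ fun v0 hv0 => ?_
    obtain ⟨v1, v2, h1, h2, h3⟩ := hloc v0 hv0.1.1 hv0.1.2
    refine ⟨_, ?_, h3 _ hn⟩
    refine mem_of_superset (inter_mem self_mem_nhdsWithin
      (mem_nhdsWithin_of_mem_nhds (Ioo_mem_nhds h1 h2))) fun v hv => ⟨hv.2, hv.1.2⟩
  unfold Mic
  filter_upwards [ae_all_iff.2 key] with v hv hvI
  obtain ⟨ρ, hρ, hl⟩ := Rcx363.leg_e1 H.sh hR0 hR1 hvI.1.le hvI.2.le
  have h6 : ∀ᶠ y in 𝓝[>] (0 : ℝ), y ≤ ρ := nhdsWithin_le_nhds (Iic_mem_nhds hρ)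
  have m0 := hl 0 le_rfl hρ.le
  rw [zero_smul, add_zero] at m0
  have hnn : ∀ᶠ y in 𝓝[>] (0 : ℝ), 0 ≤ (ν (rL (θ 0) (θ 1) w0 sa sb v) -
      ν (rL (θ 0) (θ 1) w0 sa sb v + y • (Pi.single 1 1 : Fin 12 → ℝ))) / y := by
    filter_upwards [h6, self_mem_nhdsWithin] with y hy1 hy2
    have hy2' : (0 : ℝ) < y := hy2
    refine div_nonneg ((H.ext.lip _ m0 _ (hl y hy2'.le hy1) fun k => ?_).1) hy2'.le
    rw [Pi.add_apply, Pi.smul_apply, smul_eq_mul]
    have : (0:ℝ) ≤ (Pi.single 1 1 : Fin 12 → ℝ) k := by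
      by_cases hk : k = 1
      · subst hk; simp
      · rw [Pi.single_eq_of_ne hk]
    have := mul_nonneg hy2'.le this
    linarith
  refine tendsto_order.2 ⟨fun a ha => ?_, fun a ha => ?_⟩
  · filter_upwards [hnn] with y hy
    exact ha.trans_le hy
  · obtain ⟨n, hn⟩ := exists_nat_one_div_lt ha
    have h7 := hv n hvI
    rw [not_frequently] at h7
    filter_upwards [h7, self_mem_nhdsWithin] with y hy hy2
    have hy2' : (0 : ℝ) < y := hy2
    rw [not_le, uD_eq] at hy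
    rw [div_lt_iff₀ hy2']
    exact hy.trans (mul_lt_mul_of_pos_right hn hy2')

/-- **the set of `D`-live heights is locally null**, `beta_D > 0`, `s < 1/2` -/
theorem loc_pos
    (H : CtxT G L r (g + 2 * s) s θ q Rg B I lev A f b vm w fr fl sc w0 sa sb δ R I0 I' ν own c₀)
    (hs0 : 0 ≤ s) (hs1 : s < 1) (hq0 : 0 < q 0) (hq1 : 0 ≤ q 1) (hqg : q 1 < g)
    (hR0 : w0 + (θ 1 + sb) < R) (hR1 : w0 + 1 + sb < R) (hθ : 0 < θ 0)
    (hRg : θ 0 + |θ 1| + 1 ≤ Rg) (hV1 : InvT PL B I 1 fl (sc 1))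
    (h78 : (VisT B I fl sc 7 ∨ VisT B I fl sc 8) → θ 0 - θ 1 ≤ 1)
    (h2 : ¬ VisT B I fl sc 2) (s2 : s < 1 / 2) (hβ : 1 < 2 * θ 0 - θ 1) {v0 : ℝ} (hv0 : 0 < v0)
    (hv1 : v0 < 1) :
    ∃ v1 v2 : ℝ, v1 < v0 ∧ v0 < v2 ∧ ∀ ρ : ℝ, 0 < ρ →
      volume {v : ℝ | v ∈ Ioo v1 v2 ∧ ∃ᶠ y in 𝓝[>] (0:ℝ), ρ * y ≤
        ν (rL (θ 0) (θ 1) w0 sa sb v) - ν (rL (θ 0) (θ 1) w0 sa sb v + y • uD)} = 0 := by
  obtain ⟨κ, hκ, hn⟩ := near_box H hR0 hR1 hθ hRg hv0 hv1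
  obtain ⟨M, hM1, hMa, hMb⟩ : ∃ M : ℝ, 1 ≤ M ∧ θ 0 ≤ M ∧ |θ 1| ≤ M :=
    ⟨1 + θ 0 + |θ 1|, by linarith [abs_nonneg (θ 1)], by linarith [abs_nonneg (θ 1)], by linarith⟩
  obtain ⟨d, hd, hdκ, hd0, hd1⟩ : ∃ d : ℝ, 0 < d ∧ 8 * (M * d) ≤ κ ∧ d < v0 ∧ d < 1 - v0 := by
    refine ⟨min (κ / (8 * M)) (min (v0 / 2) ((1 - v0) / 2)), lt_min (by positivity)
      (lt_min (by positivity) (by linarith)), ?_, ?_, ?_⟩
    · have h1 : min (κ / (8 * M)) (min (v0 / 2) ((1 - v0) / 2)) ≤ κ / (8 * M) := min_le_left _ _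
      rw [le_div_iff₀ (by positivity)] at h1
      linarith
    · have h1 := (min_le_right (κ / (8 * M)) (min (v0 / 2) ((1 - v0) / 2))).trans (min_le_left _ _)
      linarith
    · have h1 := (min_le_right (κ / (8 * M)) (min (v0 / 2) ((1 - v0) / 2))).trans (min_le_right _ _)
      linarith
  have hdM : d ≤ M * d := le_mul_of_one_le_left hd.le hM1
  have dev : ∀ v : ℝ, v ∈ Icc (v0 - d) (v0 + d) → |v - v0| ≤ κ / 8 ∧
      |θ 0 * (v - v0)| ≤ κ / 8 ∧ |θ 1 * (v - v0)| ≤ κ / 8 := by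
    intro v hv
    have h1 : |v - v0| ≤ d := by rw [abs_le]; constructor <;> linarith [hv.1, hv.2]
    refine ⟨by linarith, ?_, ?_⟩
    · rw [abs_mul, abs_of_pos hθ]
      have := mul_le_mul hMa h1 (abs_nonneg _) (by linarith)
      linarith
    · rw [abs_mul]
      have := mul_le_mul hMb h1 (abs_nonneg _) (by linarith)
      linarith
  have hvI : ∀ v : ℝ, v ∈ Icc (v0 - d) (v0 + d) → 0 < v ∧ v < 1 := fun v hv =>
    ⟨by linarith [hv.1], by linarith [hv.2]⟩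
  refine ⟨v0 - d, v0 + d, by linarith, by linarith, fun ρ hρ => ?_⟩
  set K0 : ℝ := c₀ - Dm (g + 2 * s) s (q 0) (q 1) w0 (sa + θ 0) (sb + θ 1) with hK0
  have hrc : ∀ v : ℝ, rc (θ 0) (θ 1) w0 sa sb v = rL (θ 0) (θ 1) w0 sa sb v := fun v => by
    rw [rL_natB]; rfl
  have hns : ∀ v : ℝ, v ∈ Icc (v0 - d) (v0 + d) → ∀ x y z : ℝ, |x| ≤ 3 * κ / 4 → |y| ≤ 3 * κ / 4 →
      |z| ≤ 3 * κ / 4 → (∀ k, 0 < natB (w0 + v + x) (sa + θ 0 * (1 - v) + y)
        (sb + θ 1 * (1 - v) + z) k ∧ natB (w0 + v + x) (sa + θ 0 * (1 - v) + y)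
        (sb + θ 1 * (1 - v) + z) k < R) ∧ |w0 + v + x - (w0 + v0)| ≤ κ ∧
        |sa + θ 0 * (1 - v) + y - (sa + θ 0 * (1 - v0))| ≤ κ ∧
        |sb + θ 1 * (1 - v) + z - (sb + θ 1 * (1 - v0))| ≤ κ := by
    intro v hv x y z hx hy hz
    obtain ⟨a1, a2, a3⟩ := dev v hv
    rw [abs_le] at a1 a2 a3 hx hy hz
    have b1 : |w0 + v + x - (w0 + v0)| ≤ κ := by
      rw [abs_le]; constructor <;> linarith [a1.1, a1.2, hx.1, hx.2]
    have b2 : |sa + θ 0 * (1 - v) + y - (sa + θ 0 * (1 - v0))| ≤ κ := by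
      rw [abs_le]; constructor <;> linarith [a2.1, a2.2, hy.1, hy.2]
    have b3 : |sb + θ 1 * (1 - v) + z - (sb + θ 1 * (1 - v0))| ≤ κ := by
      rw [abs_le]; constructor <;> linarith [a3.1, a3.2, hz.1, hz.2]
    exact ⟨(hn _ _ _ b1 b2 b3).1, b1, b2, b3⟩
  have hbx : ∀ v ∈ Icc (v0 - d) (v0 + d), ∀ k, 0 < rc (θ 0) (θ 1) w0 sa sb v k ∧
      rc (θ 0) (θ 1) w0 sa sb v k < R := by
    intro v hv k
    have h3 : (0:ℝ) ≤ 3 * κ / 4 := by positivity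
    have h1 := (hns v hv 0 0 0 (by rwa [abs_zero]) (by rwa [abs_zero]) (by rwa [abs_zero])).1 k
    rw [add_zero, add_zero, add_zero] at h1
    exact h1
  set Do : ℝ → ℝ → ℝ → Prop := fun z c p =>
    (|z - (w0 + v0)| ≤ κ ∧ |c - (sa + θ 0 * (1 - v0))| ≤ κ ∧ |p - (sb + θ 1 * (1 - v0))| ≤ κ) ∧
    ((VisT B I fl sc 7 ∨ VisT B I fl sc 8) → p - c ≤
      (sb + θ 1 * (1 - (z - w0))) - (sa + θ 0 * (1 - (z - w0)))) with hDo
  have hlipν : ∀ j : Unit, ∀ p ∈ Leg monL R, ∀ q ∈ Leg monL R,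
      |(fun _ : Unit => ν) j p - (fun _ : Unit => ν) j q| ≤ (12:ℝ) * ‖p - q‖ := by
    intro j p hp q hq
    have h1 := Rcx363.fo_lip H 0 p hp q hq
    rw [dist_eq_norm] at h1
    exact h1
  have hmono : ∀ p ∈ Leg monL R, ∀ q ∈ Leg monL R, p ≤ q →
      (fun _ : Unit => ν) () q ≤ (fun _ : Unit => ν) () p ∧
      (fun _ : Unit => ν) () p - (fun _ : Unit => ν) () q ≤ ∑ i, (q i - p i) := by
    intro p hp q hq hpq
    have h1 := H.ext.lip p hp q hq hpq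
    exact ⟨by show ν q ≤ ν p; linarith [h1.1], h1.2⟩
  have h9 := null_EF (J := Unit) (f := fun _ => ν) (j0 := ()) (R := R) (K := 12) (s := s)
    (g := g + 2 * s) (q0 := q 0) (q1 := q 1) (θa := θ 0) (θb := θ 1) (w0 := w0) (sa := sa)
    (sb := sb) (K0 := K0) (δ := κ / 8) (L := 1 + |θ 1 - θ 0|) (v1 := v0 - d) (v2 := v0 + d)
    (ρ := ρ) (Do := Do) (by norm_num) hlipν hmono H.ext.submod hθ (by linarith) (by linarith) hq0
    hq1 (by linarith) (by positivity) (by linarith [abs_nonneg (θ 1 - θ 0)]) hbx ?_ ?_ ?_ ?_ ?_ ?_ hρ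
  · simp only [hrc] at h9
    exact h9
  · -- record
    intro v hv
    have h1 := H.ext.record v (hvI v hv).1.le (hvI v hv).2.le
    rw [EL_DN, DN_Dm (g + 2 * s) s (q 0) (q 1) (θ 0) (θ 1) w0 sa sb] at h1
    show K0 + _ ≤ ν (rc (θ 0) (θ 1) w0 sa sb v)
    rw [hrc, hK0]
    linarith
  · -- `C`
    intro v hv
    rw [hrc]
    exact hC_T H hR0 hR1 hθ hRg hV1 h78 (fun h => absurd h h2) (hvI v hv).1 (hvI v hv).2
  · -- domain
    intro v hv e t x y he he4 ht htd hx hy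
    have hL1 : 1 ≤ 1 + |θ 1 - θ 0| := by linarith [abs_nonneg (θ 1 - θ 0)]
    have hL0 : 0 < 1 + |θ 1 - θ 0| := by linarith
    have het : 0 < e * t := mul_pos he ht
    have het2 : e * t ≤ κ / 32 := by nlinarith
    have hxt : |x| ≤ e * t := hx.trans (div_le_self het.le hL1)
    have hyt : |y| ≤ e * t := hy.trans (div_le_self het.le hL1)
    have e1 : w0 + v - t + x = w0 + v + (x - t) := by ring
    have e2 : sa + θ 0 * (1 - v) - e * t = sa + θ 0 * (1 - v) + (-(e * t)) := by ring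
    have e3 : sb + θ 1 * (1 - v) - (1 + 2 * e) * t + y =
        sb + θ 1 * (1 - v) + (y - (1 + 2 * e) * t) := by ring
    have hx' := abs_le.1 hxt
    have hy' := abs_le.1 hyt
    have hb := (hns v hv (x - t) (-(e * t)) (y - (1 + 2 * e) * t)
      (by rw [abs_le]; constructor <;> linarith [hx'.1, hx'.2])
      (by rw [abs_neg, abs_of_pos het]; linarith)
      (by rw [abs_le]; constructor <;> linarith [hy'.1, hy'.2])).2
    rw [e1, e2, e3]
    refine ⟨hb, fun hvis => ?_⟩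
    have h10 := h78 hvis
    rw [le_div_iff₀ hL0] at hx hy
    have h13 : |y| + |θ 1 - θ 0| * |x| ≤ e * t := by
      have h14 : (|y| + |θ 1 - θ 0| * |x|) * (1 + |θ 1 - θ 0|) ≤ e * t * (1 + |θ 1 - θ 0|) := by
        have h15 := mul_le_mul_of_nonneg_left hx (abs_nonneg (θ 1 - θ 0))
        have e4 : (|y| + |θ 1 - θ 0| * |x|) * (1 + |θ 1 - θ 0|) =
            |y| * (1 + |θ 1 - θ 0|) + |θ 1 - θ 0| * (|x| * (1 + |θ 1 - θ 0|)) := by ring
        have e5 : e * t * (1 + |θ 1 - θ 0|) = e * t + |θ 1 - θ 0| * (e * t) := by ring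
        rw [e4, e5]
        linarith
      exact le_of_mul_le_mul_right h14 hL0
    have h16 : (θ 1 - θ 0) * x ≤ |θ 1 - θ 0| * |x| := by
      rw [← abs_mul]; exact le_abs_self _
    have h17 : -t ≤ (θ 1 - θ 0) * t := by nlinarith
    have h18 := le_abs_self y
    have e6 : w0 + v + (x - t) - w0 = v + x - t := by ring
    rw [e6]
    nlinarith
  · -- D-max
    rintro z c p ⟨⟨h1, h3, h4⟩, -⟩
    have h5 := (hn z c p h1 h3 h4).2.2.2.2
    have h6 := H.dmax _ _ h5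
    have hen : natB z c p = nb w0 sa sb (z - w0) (c - sa) (p - sb) := by
      rw [nb_natB]
      congr 1 <;> ring
    rw [hen, DT_nb, DN_Dm (g + 2 * s) s (q 0) (q 1) (θ 0) (θ 1) w0 sa sb, ← hen] at h6
    have e1 : w0 + (z - w0) = z := by ring
    have e2 : sa + (c - sa) = c := by ring
    have e3 : sb + (p - sb) = p := by ring
    rw [e1, e2, e3] at h6
    show ν (natB z c p) ≤ K0 + _
    rw [hK0]
    linarith
  · -- own
    rintro z c p ⟨⟨h1, h3, h4⟩, h5⟩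
    obtain ⟨b1, b2, b3, b4, b5⟩ := hn z c p h1 h3 h4
    exact own_vis H hV1 h5 (fun h => absurd h h2) b2.le b3 b1
  · -- facts
    rintro z c p ⟨⟨h1, h3, h4⟩, -⟩ h rz rX rH rF gC gP gE gB gD T hrz
    obtain ⟨b1, b2, b3, b4, b5⟩ := hn z c p h1 h3 h4
    obtain ⟨D, lam, hD, htan, hlin⟩ := T.ex
    have h6 := Kg330.facts_nat H (zz := z) (cc := c) (pp := p) (h := h) (D := D) (lam := lam ())
      hs0 hs1.le b4 (by linarith) T.hpos T.h0 (by
        have := htan ()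
        simp only [← eL_bx9] at this
        exact this) hD (fun z d C p E B x H F hm => hlin z d C p E B x H F hm) hrz
    exact ⟨h6.1.1, h6.2.2.1.1, h6.2.2.2.2.1, h6.2.1.2⟩

/-- **LEMMA D0 for `beta_D > 0`, `s < 1/2`** -/
theorem D0pos {η : ℝ} (hη : η < 1) : D0T η fun s θ => s < 1 / 2 ∧ 1 < 2 * θ 0 - θ 1 := by
  intro G L r g s θ q Rg B I lev A f b vm w fr fl sc w0 sa sb δ R I0 I' ν own c₀ H N hX hR0 hR1 hRg
    hV1 h78 h2
  obtain ⟨hs2, hβ⟩ := hX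
  have hq1g : q 1 < g := by
    have h1 := N.qbg
    have h3 : η * g < 1 * g := mul_lt_mul_of_pos_right hη N.gpos
    linarith
  have v2 : ¬ VisT B I fl sc 2 := by
    intro hv
    rcases H.out.clsE with h | h | h
    · exact hv h
    · linarith [h2 h]
    · exact h.vis hV1
  have v78 : (VisT B I fl sc 7 ∨ VisT B I fl sc 8) → θ 0 - θ 1 ≤ 1 := by
    rintro (hv | hv)
    · rcases H.out.clsB (Or.inl rfl) with h | h
      · exact absurd h hv
      · exact h78 (Or.inl h)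
    · rcases H.out.clsB (Or.inr rfl) with h | h
      · exact absurd h hv
      · exact h78 (Or.inr h)
  exact mic_of H hR0 hR1 fun v0 a1 a2 => loc_pos H N.s0 N.s1 N.qa N.qb.le hq1g hR0 hR1 N.θa hRg hV1
    v78 v2 hs2 hβ a1 a2

end ctx

end Crest.Agent.R116.D0p878
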