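import Crest.Agent.R116.D0h0_894
import Crest.Agent.R116.D0bs_332
import Crest.Agent.R116.D0E_188
import Crest.Agent.R116.D0p_878
import Crest.Agent.R116.Ap3_954

/-!
# R116 (K side), LEMMA D0, `s ≥ 1/2`: the end over `CtxT` (helper894)

* **`facts_mv`** : own rate, pins, H1, S3 at natural sequences which tend to a natural box strictly
  below its own levels (the binder `hfac` of `d0h`, `d0h0`)
* `XP_rec`, `XP_dm` : record, D-max along the plane `R(v) - t n_ε`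
* **`D0Hz`** : `D0E η (fun s θ => 1/2 ≤ s ∧ 2 θ 0 - θ 1 = 1 ∧ 3 ≤ 5 θ 0)`
-/

set_option autoImplicit false
set_option linter.unusedVariables false
set_option linter.unusedSectionVars false

open Finset Filter Topology MeasureTheory Set

namespace Crest.Agent.R116.D0h0894

open Crest.Agent.R138.Ex926 (Base U IsTan)
open Crest.Agent.R136
open Crest.Agent.R136.MkA627
open Crest.Agent.R136.TD627
open Crest.Agent.R136.Net191
open Crest.Agent.R136.Lq196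
open Crest.Agent.R116.ChL222
open Crest.Agent.R116.PL504 (nb rL DN eL βL oL Shift)
open Crest.Agent.R116.Sg337 (bx9 natB eL_bx9 nb_natB)
open Crest.Agent.R116.Gd222 (TSet sN PDL DT)
open Crest.Agent.R116.KI439
open Crest.Agent.R116.KF439 (PL)
open Crest.Agent.R116.Tw468 (OutT OutR)
open Crest.Agent.R116.CtxB468
open Crest.Agent.R116.KTop387 (NumL)
open Crest.Agent.R116.KTie794 (D0T D0E Mic)
open Crest.Agent.R116.D0n878
open Crest.Agent.R116.D0F878 (LinTanD)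
open Crest.Agent.R116.D0bs332
open Crest.Agent.R116.D0h708 (XP natB_eL)

section ctx

variable {G : Geo TSet (Fin 2)} {L : ℕ → ℕ → LRay} {r : ℕ → ℝ} {g s : ℝ} {θ q : Fin 2 → ℝ}
    {Rg : ℝ} {B : Base} {I : ℕ → Finset (ℕ × ℝ)} {lev : ℕ → ℚ → ℕ} {A : ℕ → ℝ}
    {f : ℕ → ℚ → ℕ → ℤ → ℕ} {b : ℕ → ℚ → ℕ → TSet} {vm : ℕ → ℚ → ℝ} {w : Fin 2 → ℕ → ℚ → ℝ}
    {fr : ℕ → ℚ → ℕ × ℝ → LInc} {fl : ℕ → ℕ × ℝ → LInc} {sc : Fin 12 → ℕ → ℝ}
    {w0 sa sb δ R : ℝ} {I0 I' : ℕ → Finset (ℕ × ℝ)} {ν own : (Fin 12 → ℝ) → ℝ} {c₀ : ℝ}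
    {v a' b' : ℝ}

/-- **all the facts of the rows at `s ≥ 1/2`**, natural bases `X l → nb w0 sa sb v a' b'` -/
theorem facts_mv
    (H : CtxT G L r g s θ q Rg B I lev A f b vm w fr fl sc w0 sa sb δ R I0 I' ν own c₀)
    (hs0 : 0 ≤ s) (hs1 : s < 1) (hv0 : 0 < v) (hv1 : v < 1) (ha : 0 < a')
    (hB : VisT B I fl sc 7 ∨ VisT B I fl sc 8 → b' - a' < (θ 1 - θ 0) * (1 - v))
    (hE : VisT B I fl sc 2 ∨ VisT B I fl sc 1 → b' - 2 * a' < (θ 1 - 2 * θ 0) * (1 - v))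
    {X : ℕ → Fin 12 → ℝ} {h : ℕ → ℝ}
    (hn : ∀ n, ∃ z c p, X n = natB z c p) (hX : Tendsto X atTop (𝓝 (nb w0 sa sb v a' b')))
    {J : Type*} {ff : J → (Fin 12 → ℝ) → ℝ} {j0 : J} (hf : ff j0 = ν)
    {rz rX rH rF gC gP gE gB gD : ℝ}
    (T : LinTanD (Leg monL R) ff j0 X h rz rX rH rF gC gP gE gB gD) :
    1 - s ≤ rz ∧ gC ≤ rX ∧ gP ≤ rF ∧ gD ≤ gE ∧ (0 < gC → rX ≤ rH) ∧ (0 < gD → rH ≤ gP) := by
  obtain ⟨D, lam, hD, htan, hlin⟩ := T.ex
  have ht := htan j0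
  rw [hf] at ht
  have hrz : 1 - s ≤ rz := by
    have h1 := own_mv H hv0 hv1 hB hE hX T.hpos T.h0 (hD zero_LM) one_pos
      (hD (Kg330.bxz_LM zero_le_one)) ht
    have h2 := hlin 1 0 0 0 0 0 0 0 0 (Kg330.bxz_LM zero_le_one)
    rw [h2] at h1
    linarith
  have hBs : BsN B I fl sc (θ 0) (θ 1) w0 sa sb X h :=
    ⟨v, a', b', hv0, hv1, ha, hB, hE, hn, hX, T.hpos, T.h0⟩
  have F := linFactsD_N H hs0 hs1.le (j0 := j0) hf
  have P := Op171.one_pin_tan (WinU954.nprof_of_ext (H.sh.d0.le.trans H.sh.R_pos)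
    (H.extK (|θ 0| + |θ 1|))) (fun n => Sd369.coc_N B lev w w0 sa sb fl n) T.hpos T.h0 ht hD
    (rz := rz) (rX := rX) (rH := rH) (rF := rF) (gC := gC) (gP := gP) (gE := gE) (gB := gB)
    (gD := gD) (fun z d C p E B x H F hm => hlin z d C p E B x H F hm)
    (σ := 1 - s) (by linarith) hrz (fun l => by
      obtain ⟨z, c, p, e⟩ := hn l
      exact ⟨z, c, p, by rw [e, natB_eL]⟩) (fun _ => ((0 : ℕ), (0 : ℝ)))
  exact ⟨hrz, P.1, P.2.1, P.2.2,
    F.H1 _ _ _ _ _ _ _ _ _ _ _ hBs T (fun n => (nat_walls hn n).2.2.1)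
      (fun n => (nat_walls hn n).2.2.2.1),
    F.S3 _ _ _ _ _ _ _ _ _ _ _ hBs T (fun n => (nat_walls hn n).2.2.2.2.2)⟩

theorem XP_nb (θa θb ε v t : ℝ) : XP θa θb w0 sa sb ε v t =
    nb w0 sa sb (v - t) (θa * (1 - v) - ε * t) (θb * (1 - v) - (1 + 2 * ε) * t) := by
  rw [nb_natB, XP]
  congr 1 <;> ring

/-- record -/
theorem XP_rec
    (H : CtxT G L r g s θ q Rg B I lev A f b vm w fr fl sc w0 sa sb δ R I0 I' ν own c₀)
    (hv0 : 0 ≤ v) (hv1 : v ≤ 1) :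
    c₀ + DN g s (q 0) (q 1) (θ 0) (θ 1) v (θ 0 * (1 - v)) (θ 1 * (1 - v)) ≤
      ν (rL (θ 0) (θ 1) w0 sa sb v) := by
  have h1 := H.ext.record v hv0 hv1
  rw [EL_DN] at h1
  exact h1

/-- D-max -/
theorem XP_dm
    (H : CtxT G L r g s θ q Rg B I lev A f b vm w fr fl sc w0 sa sb δ R I0 I' ν own c₀)
    (hθ : 0 < θ 0) (hRg : θ 0 + |θ 1| + 1 ≤ Rg) {ε t : ℝ} (hε : 0 < ε) (hε1 : ε ≤ 1)
    (ht : 0 < t) (htδ : 4 * t ≤ δ) (ht3 : 3 * t < 1) (htv : t ≤ v) (hv1 : v < 1)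
    (ha : ε * t < θ 0 * (1 - v)) :
    ν (XP (θ 0) (θ 1) w0 sa sb ε v t) ≤ c₀ + DN g s (q 0) (q 1) (θ 0) (θ 1) (v - t)
      (θ 0 * (1 - v) - ε * t) (θ 1 * (1 - v) - (1 + 2 * ε) * t) := by
  have hv0 : 0 < v := by linarith
  have hl := D0h708.XP_leg H.sh hε hε1 htδ hv0.le hv1.le ht le_rfl
  rw [XP_nb] at hl ⊢
  have t1 : |θ 1 * (1 - v)| ≤ |θ 1| := by
    rw [abs_mul, abs_of_pos (by linarith : (0:ℝ) < 1 - v)]
    exact mul_le_of_le_one_right (abs_nonneg _) (by linarith)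
  have t2 := abs_le.1 t1
  have t3 : θ 0 * (1 - v) ≤ θ 0 := mul_le_of_le_one_right hθ.le (by linarith)
  have e1 : 0 < ε * t := mul_pos hε ht
  have e2 : ε * t ≤ t := mul_le_of_le_one_left ht.le hε1
  have h1 := H.dmax (θ 0 + |θ 1| + 2) _ (nb_PD (k0 := θ 0 + |θ 1| + 2) hl (by linarith)
    (by linarith) (by linarith) (by linarith [abs_nonneg (θ 1)]) (by
      rw [abs_lt]
      constructor <;> nlinarith [t2.1, t2.2]) (by nlinarith [t2.1]))
  rw [DT_nb] at h1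
  exact h1

/-- **LEMMA D0 at `2 θa - θb = 1`, `3 ≤ 5 θa`, `s ≥ 1/2`** (`E` invisible) -/
theorem D0Hz {η : ℝ} (hη : η < 1) :
    D0E η fun s θ => 1 / 2 ≤ s ∧ 2 * θ 0 - θ 1 = 1 ∧ 3 ≤ 5 * θ 0 := by
  intro G L r g s θ q Rg B I lev A f b vm w fr fl sc w0 sa sb δ R I0 I' ν own c₀ H N hX hR0 hR1 hRg
    hV1 hV2 h78
  obtain ⟨hs2, hβ, h35⟩ := hX
  have hq1g : q 1 < g := by
    have h1 := N.qbg
    have h3 : η * g < 1 * g := mul_lt_mul_of_pos_right hη N.gpos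
    linarith
  have v78 : (VisT B I fl sc 7 ∨ VisT B I fl sc 8) → θ 0 - θ 1 ≤ 1 := by
    rintro (hv | hv)
    · rcases H.out.clsB (Or.inl rfl) with h | h
      · exact absurd h hv
      · exact h78 (Or.inl h)
    · rcases H.out.clsB (Or.inr rfl) with h | h
      · exact absurd h hv
      · exact h78 (Or.inr h)
  have v21 : ¬ (VisT B I fl sc 2 ∨ VisT B I fl sc 1) := by
    rintro (h | h)
    · exact h hV2
    · exact h hV1
  have hδ := H.sh.d0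
  have hθ := N.θa
  have hlipν : ∀ j : Unit, ∀ p ∈ Leg monL R, ∀ q ∈ Leg monL R,
      |(fun _ : Unit => ν) j p - (fun _ : Unit => ν) j q| ≤ (12:ℝ) * ‖p - q‖ := by
    intro j p hp q hq
    have h1 := Rcx363.fo_lip H 0 p hp q hq
    rw [dist_eq_norm] at h1
    exact h1
  have hmono : ∀ p ∈ Leg monL R, ∀ q ∈ Leg monL R, p ≤ q →
      (fun _ : Unit => ν) () q ≤ (fun _ : Unit => ν) () p ∧
      (fun _ : Unit => ν) () p - (fun _ : Unit => ν) () q ≤ ∑ i, (q i - p i) := by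
    intro p hp q hq hpq
    have h1 := H.ext.lip p hp q hq hpq
    exact ⟨by show ν q ≤ ν p; linarith [h1.1], h1.2⟩
  have key : ∀ n : ℕ, ∀ᵐ v : ℝ, v ∈ Ioo (1 / ((n:ℝ) + 1)) (1 - 1 / ((n:ℝ) + 1)) →
      Tendsto (fun y : ℝ => (ν (rL (θ 0) (θ 1) w0 sa sb v) -
        ν (rL (θ 0) (θ 1) w0 sa sb v + y • (Pi.single 1 1 : Fin 12 → ℝ))) / y)
        (𝓝[>] 0) (𝓝 0) := by
    intro n
    have hn : (0:ℝ) < 1 / ((n:ℝ) + 1) := by positivity
    set e : ℝ := 1 / ((n:ℝ) + 1) with he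
    obtain ⟨t0, ht0, h1, h2, h3, h4⟩ : ∃ t0 : ℝ, 0 < t0 ∧ 4 * t0 ≤ δ ∧ 4 * t0 ≤ 1 ∧ t0 ≤ e ∧
        2 * t0 ≤ θ 0 * e := by
      refine ⟨min (min (δ / 4) (1 / 4)) (min e (θ 0 * e / 2)), lt_min (lt_min (by positivity)
        (by norm_num)) (lt_min hn (by positivity)), ?_, ?_, ?_, ?_⟩
      · have := (min_le_left (min (δ / 4) (1 / 4)) (min e (θ 0 * e / 2))).trans (min_le_left _ _)
        linarith
      · have := (min_le_left (min (δ / 4) (1 / 4)) (min e (θ 0 * e / 2))).trans (min_le_right _ _)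
        linarith
      · exact (min_le_right (min (δ / 4) (1 / 4)) (min e (θ 0 * e / 2))).trans (min_le_left _ _)
      · have := (min_le_right (min (δ / 4) (1 / 4)) (min e (θ 0 * e / 2))).trans
          (min_le_right _ _)
        linarith
    have hpos : ∀ v ∈ Ioo e (1 - e), ∀ t ∈ Ioo 0 t0, t < v ∧ v < 1 ∧
        1 / 4 * t < θ 0 * (1 - v) := by
      intro v hv t ht
      have h5 : θ 0 * e ≤ θ 0 * (1 - v) := mul_le_mul_of_nonneg_left (by linarith [hv.2]) hθ.le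
      exact ⟨by linarith [hv.1, ht.2], by linarith [hv.2], by linarith [ht.1, ht.2]⟩
    have h9 := d0h0 (J := Unit) (f := fun _ => ν) (j0 := ()) (R := R) (K := 12) (s := s)
      (c := g + 2 * s) (q0 := q 0) (q1 := q 1) (θa := θ 0) (θb := θ 1) (w0 := w0) (sa := sa)
      (sb := sb) (c₀ := c₀) (δ := δ) (ε := 1 / 4) (t0 := t0) (v1 := e) (v2 := 1 - e)
      (by norm_num) hlipν hmono H.ext.submod H.sh (by linarith) h35 N.qa.le N.qb.le (by linarith)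
      (by norm_num) (by norm_num) (by linarith) ht0 h1 hn.le (by linarith)
      (fun v hv => XP_rec H (by linarith [hv.1]) (by linarith [hv.2]))
      (fun v hv t ht => by
        obtain ⟨a1, a2, a3⟩ := hpos v hv t ht
        exact XP_dm H hθ hRg (by norm_num) (by norm_num) ht.1 (by linarith [ht.2])
          (by linarith [ht.2]) a1.le a2 a3)
      (fun v hv t ht X h rz rX rH rF gC gP gE gB gD hn' hX T => by
        obtain ⟨a1, a2, a3⟩ := hpos v hv t ht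
        rw [XP_nb] at hX
        refine facts_mv H N.s0 N.s1 (by linarith) (by linarith [ht.1]) (by linarith)
          (fun hvis => ?_) (fun hvis => absurd hvis v21) hn' hX (j0 := ()) rfl T
        have h6 := v78 hvis
        have h7 := ht.1
        nlinarith)
    exact h9
  unfold Mic
  filter_upwards [ae_all_iff.2 key] with v hv hvI
  obtain ⟨n, hn⟩ := exists_nat_one_div_lt (lt_min hvI.1 (by linarith [hvI.2] : 0 < 1 - v))
  exact hv n ⟨hn.trans_le (min_le_left _ _), by linarith [hn.trans_le (min_le_right v (1 - v))]⟩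

end ctx

end Crest.Agent.R116.D0h0894
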