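import Crest.Agent.R116.D0m_570

/-!
# R116 (K side), LEMMA D0: the end for `β_D < 0`, compact intervals of heights (helper570)

* `null_of_Icc` : `E ⊆ (0, 1)` null on every `[v1, v2]` is null
* **`mic_of_locI`** : `mic_of_loc` with the local rate asked only for `E ⊆ [v1, v2]`, `0 < v1 < v2 < 1`
-/

set_option autoImplicit false
set_option linter.unusedVariables false

open Set Filter Topology MeasureTheory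
open scoped NNReal ENNReal

namespace Crest.Agent.R116.D0m570

open Crest.Agent.R138.Ex926 (Base U IsTan)
open Crest.Agent.R136
open Crest.Agent.R136.MkA627
open Crest.Agent.R136.TD627
open Crest.Agent.R136.Net191
open Crest.Agent.R136.Lq196
open Crest.Agent.R116.ChL222
open Crest.Agent.R116.PL504 (nb rL DN eL βL oL Shift)
open Crest.Agent.R116.Sg337 (coneL DL natB bx9 eL_bx9)
open Crest.Agent.R116.Gd222 (TSet sN PDL DT)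
open Crest.Agent.R116.KI439
open Crest.Agent.R116.KF439 (PL)
open Crest.Agent.R116.Tw468 (OutT)
open Crest.Agent.R116.CtxB468
open Crest.Agent.R116.KTop387 (NumL)
open Crest.Agent.R116.D0n878 (rc uD)
open Crest.Agent.R116.KTie794 (Mic)

theorem null_of_Icc {E : Set ℝ} (hEI : E ⊆ Ioo 0 1)
    (h : ∀ v1 v2 : ℝ, 0 < v1 → v1 < v2 → v2 < 1 → volume (E ∩ Icc v1 v2) = 0) :
    volume E = 0 := by
  refine measure_null_of_locally_null _ fun v hv => ?_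
  have h0 := hEI hv
  refine ⟨E ∩ Icc (v / 2) ((v + 1) / 2), ?_, h _ _ (by linarith [h0.1]) (by linarith [h0.1, h0.2])
    (by linarith [h0.2])⟩
  exact inter_mem self_mem_nhdsWithin
    (mem_nhdsWithin_of_mem_nhds (Icc_mem_nhds (by linarith [h0.1]) (by linarith [h0.2])))

section ctx

variable {η : ℝ} {G : Geo TSet (Fin 2)} {L : ℕ → ℕ → LRay} {r : ℕ → ℝ} {g s : ℝ} {θ q : Fin 2 → ℝ}
    {Rg : ℝ} {B : Base} {I : ℕ → Finset (ℕ × ℝ)} {lev : ℕ → ℚ → ℕ} {A : ℕ → ℝ}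
    {f : ℕ → ℚ → ℕ → ℤ → ℕ} {b : ℕ → ℚ → ℕ → TSet} {vm : ℕ → ℚ → ℝ} {w : Fin 2 → ℕ → ℚ → ℝ}
    {fr : ℕ → ℚ → ℕ × ℝ → LInc} {fl : ℕ → ℕ × ℝ → LInc} {sc : Fin 12 → ℕ → ℝ}
    {w0 sa sb δ R : ℝ} {I0 I' : ℕ → Finset (ℕ × ℝ)} {ν own : (Fin 12 → ℝ) → ℝ} {c₀ : ℝ}

/-- null sets on compact intervals ⊢ the micro form -/
theorem mic_of_nullI
    (h : CtxT G L r g s θ q Rg B I lev A f b vm w fr fl sc w0 sa sb δ R I0 I' ν own c₀)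
    (hR0 : w0 + (θ 1 + sb) < R) (hR1 : w0 + 1 + sb < R)
    (H : ∀ ρ : ℝ, 0 < ρ → ∀ v1 v2 : ℝ, 0 < v1 → v1 < v2 → v2 < 1 → ∀ E : Set ℝ,
      MeasurableSet E → E ⊆ Icc v1 v2 →
      (∀ v ∈ E, ∃ᶠ y in 𝓝[>] (0:ℝ), ρ * y ≤ ν (rc (θ 0) (θ 1) w0 sa sb v) -
        ν (rc (θ 0) (θ 1) w0 sa sb v + y • uD)) → volume E = 0) :
    Mic ν (θ 0) (θ 1) w0 sa sb :=
  mic_of_null_rc h hR0 hR1 fun ρ hρ E hE hEI hf => null_of_Icc hEI fun v1 v2 a1 a2 a3 =>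
    H ρ hρ v1 v2 a1 a2 a3 _ (hE.inter measurableSet_Icc) inter_subset_right
      fun v hv => hf v hv.1

/-- **the end of D0 for `β_D < 0`** -/
theorem mic_of_locI
    (h : CtxT G L r (g + 2 * s) s θ q Rg B I lev A f b vm w fr fl sc w0 sa sb δ R I0 I' ν own c₀)
    (hN : NumL η g s θ q) (hη : η ≤ 1)
    (hR0 : w0 + (θ 1 + sb) < R) (hR1 : w0 + 1 + sb < R) (hRg : θ 0 + |θ 1| + 1 ≤ Rg)
    (hloc : ∀ ρ : ℝ, 0 < ρ → ∀ v1 v2 : ℝ, 0 < v1 → v1 < v2 → v2 < 1 → ∀ E : Set ℝ,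
      MeasurableSet E → E ⊆ Icc v1 v2 →
      (∀ v ∈ E, ∃ᶠ y in 𝓝[>] (0:ℝ), ρ * y ≤ ν (rc (θ 0) (θ 1) w0 sa sb v) -
        ν (rc (θ 0) (θ 1) w0 sa sb v + y • uD)) →
      ∃ t0 : ℝ, 0 < t0 ∧ ∀ᵐ y : ℝ × ℝ, -t0 < y.1 → y.1 < 0 → y.2 ∈ E →
        ∀ D : ℝ × ℝ →L[ℝ] ℝ,
        HasFDerivAt (fun y => ν (Dg262.X (rL (θ 0) (θ 1) w0 sa sb 0) (natB 1 0 1)
          (natB 1 (-θ 0) (-θ 1)) y)) D y → D (1, 0) ≤ -(6 - 4 * s)) :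
    Mic ν (θ 0) (θ 1) w0 sa sb := by
  refine mic_of_nullI h hR0 hR1 fun ρ hρ v1 v2 a1 a2 a3 E hE hEI hf => ?_
  obtain ⟨t0, ht0, hl⟩ := hloc ρ hρ v1 v2 a1 a2 a3 E hE hEI hf
  have h1 := D0e570.end_null h hN hη hR0 hR1 hRg ht0 hl
  have h2 : E ⊆ Ioo 0 1 := fun v hv => ⟨by linarith [(hEI hv).1], by linarith [(hEI hv).2]⟩
  rwa [inter_eq_left.2 h2] at h1

/-- the same with any rate `M`, `5 + q 1 - 3 s - g < M`, no `NumL` -/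
theorem mic_of_locM
    (h : CtxT G L r (g + 2 * s) s θ q Rg B I lev A f b vm w fr fl sc w0 sa sb δ R I0 I' ν own c₀)
    (hR0 : w0 + (θ 1 + sb) < R) (hR1 : w0 + 1 + sb < R) (hθ : 0 < θ 0)
    (hRg : θ 0 + |θ 1| < Rg) {M : ℝ} (hM : 0 < M) (hMq : 5 + q 1 - 3 * s - g < M)
    (hloc : ∀ ρ : ℝ, 0 < ρ → ∀ v1 v2 : ℝ, 0 < v1 → v1 < v2 → v2 < 1 → ∀ E : Set ℝ,
      MeasurableSet E → E ⊆ Icc v1 v2 →
      (∀ v ∈ E, ∃ᶠ y in 𝓝[>] (0:ℝ), ρ * y ≤ ν (rc (θ 0) (θ 1) w0 sa sb v) -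
        ν (rc (θ 0) (θ 1) w0 sa sb v + y • uD)) →
      ∃ t0 : ℝ, 0 < t0 ∧ ∀ᵐ y : ℝ × ℝ, -t0 < y.1 → y.1 < 0 → y.2 ∈ E →
        ∀ D : ℝ × ℝ →L[ℝ] ℝ,
        HasFDerivAt (fun y => ν (Dg262.X (rL (θ 0) (θ 1) w0 sa sb 0) (natB 1 0 1)
          (natB 1 (-θ 0) (-θ 1)) y)) D y → D (1, 0) ≤ -M) :
    Mic ν (θ 0) (θ 1) w0 sa sb := by
  refine mic_of_nullI h hR0 hR1 fun ρ hρ v1 v2 a1 a2 a3 E hE hEI hf => ?_
  obtain ⟨t0, ht0, hl⟩ := hloc ρ hρ v1 v2 a1 a2 a3 E hE hEI hf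
  have h1 := D0e570.end_gen h hR0 hR1 hθ hRg hM hMq ht0 hl
  have h2 : E ⊆ Ioo 0 1 := fun v hv => ⟨by linarith [(hEI hv).1], by linarith [(hEI hv).2]⟩
  rwa [inter_eq_left.2 h2] at h1

end ctx

end Crest.Agent.R116.D0m570
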