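import Crest.Agent.R116.SgR1_337

/-!
# R116, K-TEXT II-c, Lemma SIG (helper194, doc 2383): from the record to the plane `Σ` (helper337)

Part 2: over `ExtQ` (196) / `PL504`, the plane
`SigB lam v t = update (nb w0 sa sb v (θa (1 - t)) (θb (1 - t))) 1 lam` (natural boxes over the record
point of height `t`, coarser height `v ≤ t`, slot `D` frozen at `lam`):

* `sig_all` : for `(v, t)` near `(v0, v0)`, `v ≤ t`, `0 ≤ y ≤ κ`:
  `q0 y ≤ ν (Sig) - ν (Sig + y C)`, `q1 y ≤ ν (Sig) - ν (Sig + y (E, B, P))`,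
  `(g + q0 + q1) y ≤ ν (Sig) - ν (Sig + y (C, P))`, `F ≤ 0`, `F = 0` on the record.
-/

set_option autoImplicit false

open Finset

namespace Crest.Agent.R116.Sg337

open Crest.Agent.R138.Ex926 (Base U)
open Crest.Agent.R136.Net191
open Crest.Agent.R136.Lq196
open Crest.Agent.R116.ChL222
open Crest.Agent.R116.PL504 (nb rL DN Shift)
open Crest.Agent.R116.Xd954 (cs xs FlagX Mrg)
open Crest.Agent.R116

/-- the slots `C` -/
def uC : Fin 12 → ℝ := bx9 0 0 0 1 0 0 0 0 0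
/-- the slots `E, B, P` -/
def uP : Fin 12 → ℝ := bx9 0 0 1 0 0 1 0 1 0
/-- the slots `C, P` -/
def uCP : Fin 12 → ℝ := bx9 0 0 0 1 0 0 0 1 0

theorem fC_add (lam z C P y : ℝ) : fC lam z C P y = frz lam z C P + y • uC := by
  funext k
  fin_cases k <;> simp [fC, frz, uC, bx9]

theorem fP_add (lam z C P y : ℝ) : fP lam z C P y = frz lam z C P + y • uP := by
  funext k
  fin_cases k <;> simp [fP, frz, uP, bx9]

theorem fCP_add (lam z C P y : ℝ) : fCP lam z C P y = frz lam z C P + y • uCP := by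
  funext k
  fin_cases k <;> simp [fCP, frz, uCP, bx9]

/-- the frozen natural box over the record point of height `t`, at the height `v` -/
noncomputable def SigB (θa θb w0 sa sb lam v t : ℝ) : Fin 12 → ℝ :=
  Function.update (nb w0 sa sb v (θa * (1 - t)) (θb * (1 - t))) 1 lam

theorem SigB_frz (θa θb w0 sa sb lam v t : ℝ) : SigB θa θb w0 sa sb lam v t =
    frz lam (w0 + v) (sa + θa * (1 - t)) (sb + θb * (1 - t)) := by
  unfold SigB
  rw [nb_bx9]
  funext k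
  fin_cases k <;> simp [Function.update, frz, bx9]

theorem DN_Dm (g s q0 q1 θa θb w0 sa sb v a b : ℝ) : DN g s q0 q1 θa θb v a b =
    Dm g s q0 q1 (w0 + v) (sa + a) (sb + b) - Dm g s q0 q1 w0 (sa + θa) (sb + θb) := by
  unfold DN Dm; ring

section ext

variable {B : Base} {I0 I : ℕ → Finset (ℕ × ℝ)} {lev : ℕ → ℚ → ℕ} {inc : ℕ → ℕ × ℝ → LInc}
    {σ : Fin 2 → ℕ → ℝ} {k0 ϑ w0 sa sb g q0 q1 θa θb : ℝ} {a b : Fin 2}
    {C R s c₀ : ℝ} {PD : Set (Fin 12 → ℝ)} {D : (Fin 12 → ℝ) → ℝ}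
    {o : ℝ → Fin 12 → ℝ} {E : ℝ → ℝ} {T : Fin 12 → Prop} {ν own : (Fin 12 → ℝ) → ℝ}

/-- the profile near a natural box -/
theorem prof9_of
    (h : ExtQ B I0 I (Gd222.coN B lev inc σ w0 sa sb) monL C R 0 w0 s PD D
      (rL θa θb w0 sa sb) o E T ν own c₀)
    (hF : FlagX B I lev inc σ k0 ϑ a b)
    (ho : ∀ v : ℝ, 0 ≤ v → v ≤ 1 → ∀ k, k ≠ 0 → R ≤ o v k)
    (hoz : ∀ v : ℝ, 0 ≤ v → v ≤ 1 → o v 0 = w0 + v)
    {v t y δ : ℝ} (hm : Mrg k0 ϑ v t y δ) :
    Prof9 R w0 s δ a b (natB (w0 + v) (sa + t) (sb + y)) ν where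
  ab := hF.ab
  anti := fun p hp q hq hpq => by linarith [(h.lip p hp q hq hpq).1]
  sm := h.submod
  own := fun p hp q hq hpq h1 h2 => by
    have h3 : p 0 ≤ q 0 := hpq 0
    have h4 := PL504.own_inc h hp hq hpq (v := p 0 - w0) (v' := q 0 - w0) (by linarith)
      (by linarith) (by linarith) (by linarith) (by ring) (by ring) (fun k => ?_)
    · have e : q 0 - w0 - (p 0 - w0) = q 0 - p 0 := by ring
      rwa [e] at h4
    · by_cases hk : k = 0
      · rw [hk, hoz _ (by linarith) (by linarith)]; linarith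
      · exact (hp.2 k).trans (ho _ (by linarith) (by linarith) k hk)
  cost := fun p hp q hq hpq h1 h2 h3 h4 => by
    rw [← nb_natB] at h1 h2
    exact Xd954.nu_lip_nat h hF hm hp hq hpq h1 h2 h3 h4

/-- **from the record to the plane `Σ`.** -/
theorem sig_all
    (h : ExtQ B I0 I (Gd222.coN B lev inc σ w0 sa sb) monL C R 0 w0 s PD D
      (rL θa θb w0 sa sb) o E T ν own c₀)
    (hF : FlagX B I lev inc σ k0 ϑ a b)
    (ho : ∀ v : ℝ, 0 ≤ v → v ≤ 1 → ∀ k, k ≠ 0 → R ≤ o v k)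
    (hoz : ∀ v : ℝ, 0 ≤ v → v ≤ 1 → o v 0 = w0 + v)
    (hD : ∀ v a b : ℝ, D (nb w0 sa sb v a b) = DN g s q0 q1 θa θb v a b)
    (hE : ∀ v : ℝ, 0 ≤ v → v ≤ 1 → E v = DN g s q0 q1 θa θb v (θa * (1 - v)) (θb * (1 - v)))
    {v0 δ κ0 η0 : ℝ} (hv0 : 0 < v0) (hv1 : v0 < 1)
    (hm : Mrg k0 ϑ v0 (θa * (1 - v0)) (θb * (1 - v0)) δ)
    (hw : 0 < w0) (hC : 0 < sa + θa * (1 - v0))
    (hDn : 0 < (sb + θb * (1 - v0)) - 2 * (sa + θa * (1 - v0)) - (w0 + v0))
    (hR : (w0 + v0) + (sb + θb * (1 - v0)) < R)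
    (hκ0 : 0 < κ0) (hη0 : 0 < η0)
    (hPD : ∀ v a b : ℝ, |v - v0| ≤ κ0 → |a - θa * (1 - v0)| ≤ κ0 → |b - θb * (1 - v0)| ≤ κ0 →
      nb w0 sa sb v a b ∈ PD)
    (hD0 : ∀ t : ℝ, |t - v0| ≤ κ0 → ∀ η : ℝ, 0 ≤ η → η ≤ η0 →
      ν (rL θa θb w0 sa sb t) ≤
        ν (Function.update (rL θa θb w0 sa sb t) 1 (rL θa θb w0 sa sb t 1 + η))) :
    ∃ κ lam : ℝ, 0 < κ ∧ κ < v0 ∧ v0 + κ < 1 ∧ κ ≤ κ0 ∧
      (∀ v t : ℝ, |v - v0| ≤ κ → |t - v0| ≤ κ →
        nb w0 sa sb v (θa * (1 - t)) (θb * (1 - t)) 1 + κ ≤ lam ∧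
        nb w0 sa sb v (θa * (1 - t)) (θb * (1 - t)) ∈ Leg monL R ∧
        SigB θa θb w0 sa sb lam v t ∈ Leg monL R ∧
        (∀ y : ℝ, 0 ≤ y → y ≤ κ → SigB θa θb w0 sa sb lam v t + y • uC ∈ Leg monL R ∧
          SigB θa θb w0 sa sb lam v t + y • uP ∈ Leg monL R ∧
          SigB θa θb w0 sa sb lam v t + y • uCP ∈ Leg monL R)) ∧
      (∀ v t : ℝ, |v - v0| ≤ κ → |t - v0| ≤ κ →
        ν (SigB θa θb w0 sa sb lam v t) ≤
          c₀ + DN g s q0 q1 θa θb v (θa * (1 - t)) (θb * (1 - t))) ∧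
      (∀ t : ℝ, |t - v0| ≤ κ → ν (SigB θa θb w0 sa sb lam t t) =
        c₀ + DN g s q0 q1 θa θb t (θa * (1 - t)) (θb * (1 - t))) ∧
      (∀ v t y : ℝ, |v - v0| ≤ κ → |t - v0| ≤ κ → v ≤ t → 0 ≤ y → y ≤ κ →
        q0 * y ≤ ν (SigB θa θb w0 sa sb lam v t) - ν (SigB θa θb w0 sa sb lam v t + y • uC) ∧
        q1 * y ≤ ν (SigB θa θb w0 sa sb lam v t) - ν (SigB θa θb w0 sa sb lam v t + y • uP) ∧
        (g + q0 + q1) * y ≤
          ν (SigB θa θb w0 sa sb lam v t) - ν (SigB θa θb w0 sa sb lam v t + y • uCP)) := by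
  -- the margin
  set A0 : ℝ := sa + θa * (1 - v0) with hA0
  set Q0 : ℝ := sb + θb * (1 - v0) with hQ0
  set z0 : ℝ := w0 + v0 with hz0
  set m0 : ℝ := min (min (min δ v0) (min (1 - v0) A0)) (min (min (Q0 - 2 * A0 - z0)
    (R - (z0 + Q0))) (min κ0 η0)) with hm0
  have hpos : 0 < m0 := by
    rw [hm0]
    refine lt_min (lt_min (lt_min hm.pos hv0) (lt_min (by linarith) hC))
      (lt_min (lt_min hDn (by linarith)) (lt_min hκ0 hη0))
  have e1 : m0 ≤ δ := ((min_le_left _ _).trans (min_le_left _ _)).trans (min_le_left _ _)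
  have e2 : m0 ≤ v0 := ((min_le_left _ _).trans (min_le_left _ _)).trans (min_le_right _ _)
  have e3 : m0 ≤ 1 - v0 := ((min_le_left _ _).trans (min_le_right _ _)).trans (min_le_left _ _)
  have e4 : m0 ≤ A0 := ((min_le_left _ _).trans (min_le_right _ _)).trans (min_le_right _ _)
  have e5 : m0 ≤ Q0 - 2 * A0 - z0 :=
    ((min_le_right _ _).trans (min_le_left _ _)).trans (min_le_left _ _)
  have e6 : m0 ≤ R - (z0 + Q0) :=
    ((min_le_right _ _).trans (min_le_left _ _)).trans (min_le_right _ _)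
  have e7 : m0 ≤ κ0 := ((min_le_right _ _).trans (min_le_right _ _)).trans (min_le_left _ _)
  have e8 : m0 ≤ η0 := ((min_le_right _ _).trans (min_le_right _ _)).trans (min_le_right _ _)
  set m : ℝ := m0 / 40 with hmd
  have mpos : 0 < m := by positivity
  have em : m0 = 40 * m := by rw [hmd]; ring
  have hctr : Ctr R w0 δ m z0 A0 Q0 := by
    constructor <;> linarith
  set L : ℝ := 1 + |θa| + |θb| with hL
  have hL1 : 1 ≤ L := by rw [hL]; linarith [abs_nonneg θa, abs_nonneg θb]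
  set κ : ℝ := m / (2 * L) with hκ
  have κpos : 0 < κ := by positivity
  have hκm : L * κ = m / 2 := by rw [hκ]; field_simp
  have κm : κ ≤ m / 2 := by nlinarith
  have dev : ∀ t : ℝ, |t - v0| ≤ κ → |θa * (1 - t) - θa * (1 - v0)| ≤ m / 2 ∧
      |θb * (1 - t) - θb * (1 - v0)| ≤ m / 2 := by
    intro t ht
    constructor
    · have e : θa * (1 - t) - θa * (1 - v0) = -(θa * (t - v0)) := by ring
      rw [e, abs_neg, abs_mul]
      have : |θa| * |t - v0| ≤ L * κ := mul_le_mul (by rw [hL]; linarith [abs_nonneg θb]) ht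
        (abs_nonneg _) (by linarith)
      linarith
    · have e : θb * (1 - t) - θb * (1 - v0) = -(θb * (t - v0)) := by ring
      rw [e, abs_neg, abs_mul]
      have : |θb| * |t - v0| ≤ L * κ := mul_le_mul (by rw [hL]; linarith [abs_nonneg θa]) ht
        (abs_nonneg _) (by linarith)
      linarith
  have hnr : ∀ v t x1 x2 x3 : ℝ, |v - v0| ≤ κ → |t - v0| ≤ κ → |x1| ≤ κ → |x2| ≤ κ → |x3| ≤ κ →
      Nr m z0 A0 Q0 (w0 + v + x1) (sa + θa * (1 - t) + x2) (sb + θb * (1 - t) + x3) := by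
    intro v t x1 x2 x3 h1 h2 h3 h4 h5
    obtain ⟨d1, d2⟩ := dev t h2
    rw [abs_le] at h1 h3 h4 h5 d1 d2
    constructor <;> linarith [h1.1, h1.2, h3.1, h3.2, h4.1, h4.2, h5.1, h5.2, d1.1, d1.2, d2.1,
      d2.2]
  have hnr0 : ∀ v t : ℝ, |v - v0| ≤ κ → |t - v0| ≤ κ →
      Nr m z0 A0 Q0 (w0 + v) (sa + θa * (1 - t)) (sb + θb * (1 - t)) := by
    intro v t h1 h2
    have := hnr v t 0 0 0 h1 h2 (by simpa using κpos.le) (by simpa using κpos.le)
      (by simpa using κpos.le)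
    simpa using this
  set lam : ℝ := Q0 - 2 * A0 - z0 + 20 * m with hlam
  have l1 : Q0 - 2 * A0 - z0 + 20 * m ≤ lam := le_rfl
  have l2 : lam ≤ Q0 - 2 * A0 - z0 + 25 * m := by linarith
  have H : Prof9 R w0 s δ a b (natB z0 A0 Q0) ν := prof9_of h hF ho hoz hm
  -- D-max
  set K : ℝ := c₀ - Dm g s q0 q1 w0 (sa + θa) (sb + θb) with hK
  have hdm : ∀ v t x1 x2 x3 : ℝ, |v - v0| ≤ κ → |t - v0| ≤ κ → |x1| ≤ κ → |x2| ≤ κ → |x3| ≤ κ →
      ν (natB (w0 + v + x1) (sa + θa * (1 - t) + x2) (sb + θb * (1 - t) + x3)) ≤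
        K + Dm g s q0 q1 (w0 + v + x1) (sa + θa * (1 - t) + x2) (sb + θb * (1 - t) + x3) := by
    intro v t x1 x2 x3 h1 h2 h3 h4 h5
    obtain ⟨d1, d2⟩ := dev t h2
    have g1 : nb w0 sa sb (v + x1) (θa * (1 - t) + x2) (θb * (1 - t) + x3) ∈ PD := by
      refine hPD _ _ _ ?_ ?_ ?_
      · rw [abs_le] at h1 h3 ⊢; constructor <;> linarith [h1.1, h1.2, h3.1, h3.2]
      · rw [abs_le] at h4 d1 ⊢; constructor <;> linarith [h4.1, h4.2, d1.1, d1.2]
      · rw [abs_le] at h5 d2 ⊢; constructor <;> linarith [h5.1, h5.2, d2.1, d2.2]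
    have g2 := h.dmax _ g1
    rw [hD, DN_Dm g s q0 q1 θa θb w0 sa sb, nb_natB] at g2
    rw [← add_assoc w0, ← add_assoc sa, ← add_assoc sb] at g2
    linarith
  have hdm0 : ∀ v t : ℝ, |v - v0| ≤ κ → |t - v0| ≤ κ →
      ν (natB (w0 + v) (sa + θa * (1 - t)) (sb + θb * (1 - t))) ≤
        K + Dm g s q0 q1 (w0 + v) (sa + θa * (1 - t)) (sb + θb * (1 - t)) := by
    intro v t h1 h2
    have := hdm v t 0 0 0 h1 h2 (by simpa using κpos.le) (by simpa using κpos.le)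
      (by simpa using κpos.le)
    simpa using this
  -- record
  have hrec : ∀ t : ℝ, |t - v0| ≤ κ → K + Dm g s q0 q1 (w0 + t) (sa + θa * (1 - t))
      (sb + θb * (1 - t)) ≤ ν (frz lam (w0 + t) (sa + θa * (1 - t)) (sb + θb * (1 - t))) := by
    intro t ht
    have ht' := abs_le.1 ht
    have g1 := h.record t (by linarith) (by linarith)
    rw [hE t (by linarith) (by linarith), DN_Dm g s q0 q1 θa θb w0 sa sb] at g1
    have hn := hnr0 t t ht ht
    have g3 : rL θa θb w0 sa sb t 1 =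
        (sb + θb * (1 - t)) - 2 * (sa + θa * (1 - t)) - (w0 + t) := by
      rw [PL504.rL_nb]; rfl
    have g2 := hD0 t (by linarith) (lam - rL θa θb w0 sa sb t 1)
      (by rw [g3]; linarith [hn.z1, hn.z2, hn.C1, hn.C2, hn.P1, hn.P2])
      (by rw [g3]; linarith [hn.z1, hn.z2, hn.C1, hn.C2, hn.P1, hn.P2])
    have g4 : Function.update (rL θa θb w0 sa sb t) 1
        (rL θa θb w0 sa sb t 1 + (lam - rL θa θb w0 sa sb t 1)) =
        frz lam (w0 + t) (sa + θa * (1 - t)) (sb + θb * (1 - t)) := by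
      rw [← SigB_frz, PL504.rL_nb]
      unfold SigB
      congr 1
      ring
    rw [g4] at g2
    linarith
  have hfr : ∀ v t : ℝ, |v - v0| ≤ κ → |t - v0| ≤ κ →
      frz lam (w0 + v) (sa + θa * (1 - t)) (sb + θb * (1 - t)) ∈ Leg monL R := by
    intro v t h1 h2
    rw [frz_eq]
    exact pB_leg hctr (hnr0 v t h1 h2) l1 l2 (pt0 mpos.le)
  have hle : ∀ v t : ℝ, |v - v0| ≤ κ → |t - v0| ≤ κ →
      ν (frz lam (w0 + v) (sa + θa * (1 - t)) (sb + θb * (1 - t))) ≤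
        K + Dm g s q0 q1 (w0 + v) (sa + θa * (1 - t)) (sb + θb * (1 - t)) := by
    intro v t h1 h2
    have hn := hnr0 v t h1 h2
    refine (H.anti _ (natB_leg hctr hn) _ (hfr v t h1 h2) ?_).trans (hdm0 v t h1 h2)
    refine bx9_le le_rfl ?_ le_rfl le_rfl le_rfl le_rfl le_rfl le_rfl le_rfl
    linarith [hn.z1, hn.z2, hn.C1, hn.C2, hn.P1, hn.P2]
  have hKe : ∀ v t : ℝ, K + Dm g s q0 q1 (w0 + v) (sa + θa * (1 - t)) (sb + θb * (1 - t)) =
      c₀ + DN g s q0 q1 θa θb v (θa * (1 - t)) (θb * (1 - t)) := by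
    intro v t
    rw [DN_Dm g s q0 q1 θa θb w0 sa sb, hK]
    ring
  refine ⟨κ, lam, κpos, by linarith, by linarith, by linarith, ?_, ?_, ?_, ?_⟩
  · intro v t h1 h2
    have hn := hnr0 v t h1 h2
    refine ⟨?_, ?_, ?_, ?_⟩
    · rw [PL504.nb_D]
      linarith [hn.z1, hn.z2, hn.C1, hn.C2, hn.P1, hn.P2]
    · rw [nb_natB]; exact natB_leg hctr hn
    · rw [SigB_frz]; exact hfr v t h1 h2
    · intro y y0 y1
      rw [SigB_frz, ← fC_add, ← fP_add, ← fCP_add, fC_eq, fP_eq, fCP_eq]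
      exact ⟨pB_leg hctr hn l1 l2 (ptC mpos.le y0 (by linarith)),
        pB_leg hctr hn l1 l2 (ptP mpos.le y0 (by linarith)),
        pB_leg hctr hn l1 l2 (ptCP mpos.le y0 (by linarith))⟩
  · intro v t h1 h2
    rw [SigB_frz, ← hKe]
    exact hle v t h1 h2
  · intro t ht
    rw [SigB_frz, ← hKe]
    exact le_antisymm (hle t t ht ht) (hrec t ht)
  · intro v t y h1 h2 h3 y0 y1
    have ay : |y| ≤ κ := by rwa [abs_of_nonneg y0]
    have ay' : |-y| ≤ κ := by rwa [abs_neg]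
    have a0 : |(0 : ℝ)| ≤ κ := by simpa using κpos.le
    have hn := hnr0 t t h2 h2
    have hn' := hnr0 v t h1 h2
    have hr := hrec t h2
    have c1 := rec_C (y := y) H hctr hn (by simpa using hnr t t 0 y 0 h2 h2 a0 ay a0) l1 l2 y0
      (by linarith) hr (by simpa using hdm t t 0 y 0 h2 h2 a0 ay a0)
    have c2 := rec_P (y := y) H hctr hn (by simpa using hnr t t 0 0 y h2 h2 a0 a0 ay) l1 l2 y0
      (by linarith) hr (by simpa using hdm t t 0 0 y h2 h2 a0 a0 ay)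
    have c3 := rec_CP (y := y) H hctr hn
      (by simpa [sub_eq_add_neg] using hnr t t (-y) y y h2 h2 ay' ay ay) l1 l2 y0
      (by linarith) hr (by simpa [sub_eq_add_neg] using hdm t t (-y) y y h2 h2 ay' ay ay)
    have d1 := coarse H hctr hn hn' (by linarith) l1 l2 (ptC mpos.le y0 (by linarith))
    have d2 := coarse H hctr hn hn' (by linarith) l1 l2 (ptP mpos.le y0 (by linarith))
    have d3 := coarse H hctr hn hn' (by linarith) l1 l2 (ptCP mpos.le y0 (by linarith))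
    rw [← fC_eq, ← fC_eq] at d1
    rw [← fP_eq, ← fP_eq] at d2
    rw [← fCP_eq, ← fCP_eq] at d3
    rw [SigB_frz, ← fC_add, ← fP_add, ← fCP_add]
    exact ⟨c1.trans d1, c2.trans d2, c3.trans d3⟩

end ext

end Crest.Agent.R116.Sg337
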