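import Crest.Agent.R116.D0n2_878
import Crest.Agent.R116.SgR2_337

/-!
# R116 (K side), LEMMA D0, part 3 (helper878): `beta_D > 0`, `s < 1/2`

`null_E` : the set of heights of the record at which the flag `D` has positive loss is null.
-/

set_option autoImplicit false
set_option linter.unusedVariables false

open Set Filter Topology MeasureTheory
open scoped NNReal

namespace Crest.Agent.R116.D0n878

open Crest.Agent.R138
open Crest.Agent.R136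
open Crest.Agent.R136.Net191
open Crest.Agent.R116.ChL222
open Crest.Agent.R116.Sg337 (bx9 natB Dm uC)
open Crest.Agent.R116.SgF665 (wl)
open Crest.Agent.R116.D0F878

/-- the record box of height `v` -/
def rc (θa θb w0 sa sb v : ℝ) : Fin 12 → ℝ :=
  natB (w0 + v) (sa + θa * (1 - v)) (sb + θb * (1 - v))

/-- unit step of the flag `D` -/
def uD : Fin 12 → ℝ := bx9 0 1 0 0 0 0 0 0 0

/-- unit step of the height -/
def uZ : Fin 12 → ℝ := bx9 1 0 0 0 0 0 0 0 0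

theorem natB_le {z c p z' c' p' : ℝ} (hz : z ≤ z') (hc : c ≤ c')
    (hd : p - 2 * c - z ≤ p' - 2 * c' - z') : natB z c p ≤ natB z' c' p' := by
  intro k
  fin_cases k <;> simp [natB, bx9] <;> linarith

theorem uD_nonneg : ∀ k, 0 ≤ uD k := by
  intro k; fin_cases k <;> simp [uD, bx9]

theorem uC_nonneg : ∀ k, 0 ≤ uC k := by
  intro k; fin_cases k <;> simp [uC, bx9]

theorem uD_z : ∀ k, k ≠ 1 → k ≠ 3 → k ≠ 4 → uD k = 0 := by
  intro k h1 h3 h4; fin_cases k <;> simp [uD, bx9] at h1 ⊢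

theorem uC_z : ∀ k, k ≠ 1 → k ≠ 3 → k ≠ 4 → uC k = 0 := by
  intro k h1 h3 h4; fin_cases k <;> simp [uC, bx9] at h3 h4 ⊢

theorem hd0 : ∀ k : Fin 12, ∀ e ∈ mfL k, k ≠ 0 := by decide

theorem uZ_mem : uZ ∈ LM := by
  intro k e he
  have h1 := hd0 k e he
  have h2 : uZ k = 0 := by fin_cases k <;> simp [uZ, bx9] at h1 ⊢
  rw [h2]
  exact Finset.sum_nonneg fun s _ => mul_nonneg (Nat.cast_nonneg _) (by
    fin_cases s <;> simp [uZ, bx9])

/-- pass an increment to a smaller base with the same levels in the moved slots -/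
theorem incr_le {R : ℝ} {ν : (Fin 12 → ℝ) → ℝ}
    (hs : ∀ p ∈ Leg monL R, ∀ q ∈ Leg monL R, p ⊓ q ∈ Leg monL R → ν p + ν q ≤ ν (p ⊔ q) + ν (p ⊓ q))
    {p q u : Fin 12 → ℝ} (hp : p ∈ Leg monL R) (hq : q ∈ Leg monL R) (hpq : p ≤ q)
    (h0 : ∀ k, 0 ≤ u k) (hz : ∀ k, k ≠ 1 → k ≠ 3 → k ≠ 4 → u k = 0)
    (he : ∀ k, u k ≠ 0 → p k = q k) (hqR : ∀ k, q k < R) :
    ∀ᶠ y in 𝓝[>] (0:ℝ), ν q - ν (q + y • u) ≤ ν p - ν (p + y • u) := by
  have h1 : ∀ k, ∀ᶠ y in 𝓝[>] (0:ℝ), p k + y * u k ≤ R := by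
    intro k
    have ht : Tendsto (fun y : ℝ => p k + y * u k) (𝓝[>] 0) (𝓝 (p k + 0 * u k)) := by
      have : Continuous fun y : ℝ => p k + y * u k := by fun_prop
      exact (this.tendsto 0).mono_left nhdsWithin_le_nhds
    rw [zero_mul, add_zero] at ht
    exact (ht.eventually_lt_const ((hpq k).trans_lt (hqR k))).mono fun y hy => hy.le
  filter_upwards [eventually_all.2 h1, self_mem_nhdsWithin] with y hy hy0
  have hy0' : (0:ℝ) < y := hy0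
  refine incr hs hpq (fun k => ?_) (fun k hk => ?_) hp hq (leg_raise hp (fun k => ?_)
    (fun k a b c => ?_) (fun k => ?_))
  · rw [Pi.smul_apply, smul_eq_mul]; exact mul_nonneg hy0'.le (h0 k)
  · rw [Pi.smul_apply, smul_eq_mul] at hk
    exact he k fun h => hk (by rw [h, mul_zero])
  · rw [Pi.smul_apply, smul_eq_mul]; exact mul_nonneg hy0'.le (h0 k)
  · rw [Pi.smul_apply, smul_eq_mul, hz k a b c, mul_zero]
  · rw [Pi.smul_apply, smul_eq_mul]; exact hy k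

/-- **algebra at the point** -/
theorem d0_alg {s g q1 ε ρ0 ρ2 ρ3 ρ5 ρ7 ρ9 ρ10 ρ11 : ℝ} (hε : 0 < ε) (s2 : 2 * s < 1)
    (own : 1 - s ≤ ρ0) (h2 : 0 ≤ ρ2) (h3 : 0 ≤ ρ3) (h7 : 0 ≤ ρ7) (hX : 1 - s ≤ ρ5)
    (hH : ρ5 ≤ ρ9) (hP : ρ9 ≤ ρ10) (hF : s < ρ10 → 1 ≤ ρ11) :
    6 - 4 * s ≤ ρ0 * 1 + ρ2 * 1 + ρ3 * ε + ρ5 * (1 + ε) + ρ7 * (1 + ε) + ρ9 * (1 + 2 * ε) +
      ρ10 * (1 + 2 * ε) + ρ11 * (2 * (1 + ε)) := by
  have h11 := hF (by linarith)
  have a1 : 0 ≤ ρ3 * ε := by positivity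
  have a2 : 0 ≤ ρ7 * (1 + ε) := by positivity
  have a3 : 0 ≤ ρ5 * ε := mul_nonneg (by linarith) hε.le
  have a4 : 0 ≤ ρ9 * ε := mul_nonneg (by linarith) hε.le
  have a5 : 0 ≤ ρ10 * ε := mul_nonneg (by linarith) hε.le
  have a6 : 0 ≤ ρ11 * ε := mul_nonneg (by linarith) hε.le
  nlinarith

theorem sum_aN (ρ : Fin 12 → ℝ) (ε : ℝ) : ∑ i ∈ S9, ρ i * natB 1 ε (1 + 2 * ε) i =
    ρ 0 * 1 + ρ 2 * 1 + ρ 3 * ε + ρ 5 * (1 + ε) + ρ 7 * (1 + ε) + ρ 9 * (1 + 2 * ε) +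
      ρ 10 * (1 + 2 * ε) + ρ 11 * (2 * (1 + ε)) := by
  simp only [S9]
  rw [Finset.sum_insert (by decide), Finset.sum_insert (by decide), Finset.sum_insert (by decide),
    Finset.sum_insert (by decide), Finset.sum_insert (by decide), Finset.sum_insert (by decide),
    Finset.sum_insert (by decide), Finset.sum_insert (by decide), Finset.sum_singleton]
  simp only [natB, bx9]
  simp
  ring

/-- the point of the plane -/
theorem X_pt (θa θb w0 sa sb v0 ε κ t v : ℝ) :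
    Dg262.X (natB (w0 + v0 - κ * v0) (sa + θa * (1 - v0)) (sb + θb * (1 - v0) - 10 * κ * v0))
      (natB 1 ε (1 + 2 * ε)) (natB κ 0 (10 * κ)) (t, v) =
    natB (w0 + v0 + κ * (v - v0) + t) (sa + θa * (1 - v0) + ε * t)
      (sb + θb * (1 - v0) + 10 * κ * (v - v0) + (1 + 2 * ε) * t) := by
  rw [X_nat]
  congr 1 <;> ring

/-- the derivative in the swapped variables -/
theorem fderiv_swap {Φ : ℝ × ℝ → ℝ} {D : ℝ × ℝ →L[ℝ] ℝ} {t v : ℝ} (h : HasFDerivAt Φ D (t, v)) :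
    fderiv ℝ (fun z : ℝ × ℝ => -Φ (z.2, z.1)) (v, t) (0, 1) = -D (1, 0) := by
  have h1 : HasFDerivAt (fun z : ℝ × ℝ => (z.2, z.1))
      ((ContinuousLinearMap.snd ℝ ℝ ℝ).prod (ContinuousLinearMap.fst ℝ ℝ ℝ)) (v, t) :=
    hasFDerivAt_snd.prodMk hasFDerivAt_fst
  have h2 : HasFDerivAt (fun z : ℝ × ℝ => Φ (z.2, z.1))
      (D.comp ((ContinuousLinearMap.snd ℝ ℝ ℝ).prod (ContinuousLinearMap.fst ℝ ℝ ℝ))) (v, t) :=
    HasFDerivAt.comp (v, t) (g := Φ) h h1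
  have h3 : HasFDerivAt (fun z : ℝ × ℝ => -Φ (z.2, z.1))
      (-(D.comp ((ContinuousLinearMap.snd ℝ ℝ ℝ).prod (ContinuousLinearMap.fst ℝ ℝ ℝ)))) (v, t) :=
    h2.neg
  rw [h3.fderiv]
  simp

end Crest.Agent.R116.D0n878
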