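import Mathlib

/-!
# R116 (K side), D0 on `Y`, `β_D < 0`, piece (Y3) of 219's cut 22199 (helper635): pure analysis

* (A) `growth` : a monotone Lipschitz function with upper right slope `≥ ρ` on `S` grows by
  `ρ |S|`;
* (B) `dens_left` : left density `≥ 1/2` at almost every point of a measurable set;
* (C) `meas_freq` : measurability of the set of the points with slope `> ρ` at small rational steps
-/

set_option autoImplicit false

open MeasureTheory Set Filter Topology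
open scoped NNReal ENNReal

namespace Crest.Agent.R116.D0w635

/-- upper slope at a point of differentiability -/
theorem deriv_ge {G : ℝ → ℝ} {y d ρ : ℝ} (hd : HasDerivAt G d y)
    (hf : ∃ᶠ η in 𝓝[>] (0 : ℝ), ρ * η ≤ G (y + η) - G y) : ρ ≤ d := by
  by_contra hcon
  push Not at hcon
  have h1 : Tendsto (fun η : ℝ => (G (y + η) - G y) / η) (𝓝[>] 0) (𝓝 d) := by
    have h2 := hd.tendsto_slope_zero
    have h3 : Tendsto (fun t : ℝ => t⁻¹ • (G (y + t) - G y)) (𝓝[>] 0) (𝓝 d) :=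
      h2.mono_left (nhdsWithin_mono _ fun t ht => ne_of_gt ht)
    refine h3.congr fun t => ?_
    rw [smul_eq_mul, div_eq_inv_mul]
  have h2 : ∀ᶠ η in 𝓝[>] (0 : ℝ), (G (y + η) - G y) / η < ρ := h1.eventually_lt_const hcon
  obtain ⟨η, h3, h4, h5⟩ := (hf.and_eventually (h2.and self_mem_nhdsWithin)).exists
  have h6 : (0 : ℝ) < η := h5
  rw [div_lt_iff₀ h6] at h4
  linarith

/-- **(A)** -/
theorem growth {G : ℝ → ℝ} {Y ρ : ℝ} {K : ℝ≥0} (hY : 0 ≤ Y) (hm : MonotoneOn G (Icc 0 Y))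
    (hL : LipschitzOnWith K G (Icc 0 Y)) {S : Set ℝ} (hS : MeasurableSet S) (hSY : S ⊆ Ioo 0 Y)
    (_hρ : 0 ≤ ρ) (hf : ∀ y ∈ S, ∃ᶠ η in 𝓝[>] (0 : ℝ), ρ * η ≤ G (y + η) - G y) :
    ρ * (volume S).toReal ≤ G Y - G 0 := by
  have hac : AbsolutelyContinuousOnInterval G 0 Y :=
    LipschitzOnWith.absolutelyContinuousOnInterval (by rwa [uIcc_of_le hY])
  have hI := hac.integral_deriv_eq_sub
  have hii := hac.intervalIntegrable_deriv
  have hd := hac.ae_differentiableAt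
  rw [← hI]
  -- lower bound by the indicator
  have hae : ∀ᵐ t, t ∈ Ioo 0 Y → S.indicator (fun _ => ρ) t ≤ deriv G t := by
    filter_upwards [hd] with t h1 ht
    have h2 : DifferentiableAt ℝ G t := h1 (by rw [uIcc_of_le hY]; exact Ioo_subset_Icc_self ht)
    by_cases hts : t ∈ S
    · rw [indicator_of_mem hts]
      exact deriv_ge h2.hasDerivAt (hf t hts)
    · rw [indicator_of_notMem hts]
      refine deriv_ge h2.hasDerivAt (Eventually.frequently ?_)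
      have h3 : ∀ᶠ η in 𝓝[>] (0 : ℝ), η < Y - t :=
        (tendsto_id.mono_left nhdsWithin_le_nhds).eventually_lt_const (by linarith [ht.2])
      filter_upwards [h3, self_mem_nhdsWithin] with η h4 h5
      have h6 : (0 : ℝ) < η := h5
      have := hm (Ioo_subset_Icc_self ht) (⟨by linarith [ht.1], by linarith⟩ : t + η ∈ Icc 0 Y)
        (by linarith)
      linarith
  have hfin : volume S ≠ ∞ := ne_top_of_le_ne_top (by simp) (measure_mono hSY)
  have hind : IntegrableOn (S.indicator fun _ => ρ) (Ioc 0 Y) := by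
    rw [IntegrableOn, integrable_indicator_iff hS]
    refine integrableOn_const ?_
    exact ne_top_of_le_ne_top hfin (Measure.restrict_apply_le _ _)
  have hle : ∫ t in (0:ℝ)..Y, S.indicator (fun _ => ρ) t ≤ ∫ t in (0:ℝ)..Y, deriv G t := by
    refine intervalIntegral.integral_mono_ae_restrict hY
      ((intervalIntegrable_iff_integrableOn_Ioc_of_le hY).2 hind) hii ?_
    have h1 : ∀ᵐ t ∂(volume.restrict (Icc 0 Y)), t ∈ Ioo 0 Y := by
      rw [← restrict_Ioo_eq_restrict_Icc]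
      exact ae_restrict_mem measurableSet_Ioo
    filter_upwards [h1, ae_restrict_of_ae hae] with t h2 h3 using h3 h2
  refine le_trans (le_of_eq ?_) hle
  rw [intervalIntegral.integral_of_le hY, integral_indicator hS, setIntegral_const,
    smul_eq_mul, mul_comm, Measure.real, Measure.restrict_apply hS]
  congr 2
  rw [inter_eq_left.2 (hSY.trans Ioo_subset_Ioc_self)]

/-- **(B)** -/
theorem dens_left {E : Set ℝ} (hE : MeasurableSet E) :
    ∀ᵐ v : ℝ, v ∈ E → ∀ᶠ η in 𝓝[>] (0 : ℝ), η / 2 ≤ (volume (E ∩ Ioo (v - η) v)).toReal := by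
  have h1 := Besicovitch.ae_tendsto_measure_inter_div_of_measurableSet (volume : Measure ℝ)
    hE.compl
  filter_upwards [h1] with v hv hvE
  have e0 : (Eᶜ.indicator 1 v : ℝ≥0∞) = 0 := indicator_of_notMem (by simpa using hvE) _
  rw [e0] at hv
  have h2 : ∀ᶠ r in 𝓝[>] (0 : ℝ), volume (Eᶜ ∩ Metric.closedBall v r) /
      volume (Metric.closedBall v r) < ENNReal.ofReal (1 / 4) :=
    hv.eventually_lt_const (by simp)
  filter_upwards [h2, self_mem_nhdsWithin] with r hr hr0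
  have hr0' : (0 : ℝ) < r := hr0
  rw [Real.volume_closedBall] at hr
  have h3 : ENNReal.ofReal (2 * r) ≠ 0 := by simpa using hr0'
  have h4 := (ENNReal.div_le_iff h3 ENNReal.ofReal_ne_top).1 hr.le
  rw [← ENNReal.ofReal_mul (by norm_num)] at h4
  have h5 : volume (Eᶜ ∩ Ioo (v - r) v) ≤ ENNReal.ofReal (1 / 4 * (2 * r)) := by
    refine (measure_mono (inter_subset_inter_right _ fun x hx => ?_)).trans h4
    rw [Metric.mem_closedBall, Real.dist_eq, abs_le]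
    constructor <;> linarith [hx.1, hx.2]
  have h6 : (volume (Eᶜ ∩ Ioo (v - r) v)).toReal ≤ 1 / 4 * (2 * r) :=
    ENNReal.toReal_le_of_le_ofReal (by positivity) h5
  have h7 : volume (E ∩ Ioo (v - r) v) + volume (Eᶜ ∩ Ioo (v - r) v) = volume (Ioo (v - r) v) := by
    rw [inter_comm E, inter_comm Eᶜ]
    exact measure_inter_add_sdiff _ hE
  have h8 : (volume (E ∩ Ioo (v - r) v)).toReal + (volume (Eᶜ ∩ Ioo (v - r) v)).toReal = r := by
    rw [← ENNReal.toReal_add, h7, Real.volume_Ioo, ENNReal.toReal_ofReal (by linarith)]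
    · ring
    · exact ne_top_of_le_ne_top (by simp) (measure_mono (inter_subset_right (s := E)))
    · exact ne_top_of_le_ne_top (by simp) (measure_mono (inter_subset_right (s := Eᶜ)))
  linarith

/-- **(C)** -/
theorem meas_freq {δ : ℝ → ℝ → ℝ} {ρ : ℝ} (hδ : ∀ y : ℝ, 0 < y → Continuous fun v => δ v y) :
    MeasurableSet {v : ℝ | ∀ n : ℕ, ∃ y : ℚ, (0:ℝ) < (y:ℝ) ∧ (y:ℝ) < 1 / ((n:ℝ) + 1) ∧
      ρ * (y:ℝ) < δ v (y:ℝ)} := by
  have e : {v : ℝ | ∀ n : ℕ, ∃ y : ℚ, (0:ℝ) < (y:ℝ) ∧ (y:ℝ) < 1 / ((n:ℝ) + 1) ∧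
      ρ * (y:ℝ) < δ v (y:ℝ)} =
      ⋂ n : ℕ, ⋃ y : ℚ, {v : ℝ | (0:ℝ) < (y:ℝ) ∧ (y:ℝ) < 1 / ((n:ℝ) + 1) ∧
        ρ * (y:ℝ) < δ v (y:ℝ)} := by
    ext v; simp
  rw [e]
  refine MeasurableSet.iInter fun n => MeasurableSet.iUnion fun y => ?_
  by_cases h0 : (0:ℝ) < (y:ℝ) ∧ (y:ℝ) < 1 / ((n:ℝ) + 1)
  · have : {v : ℝ | (0:ℝ) < (y:ℝ) ∧ (y:ℝ) < 1 / ((n:ℝ) + 1) ∧ ρ * (y:ℝ) < δ v (y:ℝ)} =
        {v : ℝ | ρ * (y:ℝ) < δ v (y:ℝ)} := by
      ext v
      simp only [mem_ofPred_eq]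
      exact ⟨fun h => h.2.2, fun h => ⟨h0.1, h0.2, h⟩⟩
    rw [this]
    exact (isOpen_lt continuous_const (hδ _ h0.1)).measurableSet
  · have : {v : ℝ | (0:ℝ) < (y:ℝ) ∧ (y:ℝ) < 1 / ((n:ℝ) + 1) ∧ ρ * (y:ℝ) < δ v (y:ℝ)} = ∅ := by
      ext v
      simp only [mem_ofPred_eq, mem_empty_iff_false, iff_false]
      exact fun h => h0 ⟨h.1, h.2.1⟩
    rw [this]
    exact MeasurableSet.empty

/-- **(C)**, positivity in `ℚ` -/
theorem meas_freq' {δ : ℝ → ℝ → ℝ} {ρ : ℝ} (hδ : ∀ y : ℝ, 0 < y → Continuous fun v => δ v y) :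
    MeasurableSet {v : ℝ | ∀ n : ℕ, ∃ y : ℚ, 0 < y ∧ (y:ℝ) < 1 / ((n:ℝ) + 1) ∧
      ρ * (y:ℝ) < δ v (y:ℝ)} := by
  have h := meas_freq (ρ := ρ) hδ
  simpa using h

/-- countable form of `∃ᶠ` -/
theorem freq_iff {δ : ℝ → ℝ} {ρ : ℝ} (hδ : ContinuousOn δ (Ioi 0)) :
    (∃ᶠ η in 𝓝[>] (0 : ℝ), ρ * η < δ η) ↔
      ∀ n : ℕ, ∃ y : ℚ, 0 < y ∧ (y:ℝ) < 1 / ((n:ℝ) + 1) ∧ ρ * (y:ℝ) < δ (y:ℝ) := by
  constructor
  · intro h n
    have h1 : ∀ᶠ η in 𝓝[>] (0 : ℝ), η < 1 / ((n:ℝ) + 1) :=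
      (tendsto_id.mono_left nhdsWithin_le_nhds).eventually_lt_const (by positivity)
    obtain ⟨η, h2, h3, h4⟩ := (h.and_eventually (h1.and self_mem_nhdsWithin)).exists
    have h5 : (0 : ℝ) < η := h4
    have h6 : ContinuousAt δ η := hδ.continuousAt (Ioi_mem_nhds h5)
    have h7 : ∀ᶠ t in 𝓝 η, ρ * t < δ t :=
      (continuousAt_const.mul continuousAt_id).eventually_lt h6 h2
    have h8 : ∀ᶠ t in 𝓝 η, 0 < t ∧ t < 1 / ((n:ℝ) + 1) :=
      (Ioo_mem_nhds h5 h3 : Ioo 0 (1 / ((n:ℝ) + 1)) ∈ 𝓝 η)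
    obtain ⟨ε, hε, hb⟩ := Metric.eventually_nhds_iff.1 (h7.and h8)
    obtain ⟨y, hy1, hy2⟩ := exists_rat_btwn (show η < η + ε by linarith)
    obtain ⟨h9, h10, h11⟩ := hb (y := (y:ℝ)) (by
      rw [Real.dist_eq, abs_lt]; constructor <;> linarith)
    exact ⟨y, by exact_mod_cast h10, h11, h9⟩
  · intro h
    rw [Filter.frequently_iff]
    intro U hU
    obtain ⟨ε, hε, hb⟩ := mem_nhdsGT_iff_exists_Ioo_subset.1 hU
    have hε' : (0 : ℝ) < ε := hε
    obtain ⟨n, hn⟩ := exists_nat_one_div_lt hε'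
    obtain ⟨y, h1, h2, h3⟩ := h n
    exact ⟨(y:ℝ), hb ⟨by exact_mod_cast h1, h2.trans hn⟩, h3⟩

end Crest.Agent.R116.D0w635
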