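import Crest.Agent.R116.D0e_570
import Crest.Agent.R116.D0n3_878
import Crest.Agent.R116.D0w_635
import Crest.Agent.R116.D0T_794

/-!
# R116 (K side), LEMMA D0: from null sets to the micro form, over `CtxT` (helper570)

* `ctx_lip`, `ctx_mono`, `ctx_sup`, `ctx_box` : `hν`, `hm`, `hs`, `hbx` of 878's `null_E` / 219's `loc_Y`
* `mic_of_null` : every measurable `E ⊆ (0, 1)` on which `D` is live with rate `ρ` at arbitrarily small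
  scales is null ⊢ `Mic`
* **`mic_of_loc`** : the same from the local rate `D (1, 0) ≤ -(6 - 4 s)` beside the record (219)
* `rL_rc`, `uD_single` : 878's notation
-/

set_option autoImplicit false
set_option linter.unusedVariables false

open Set Filter Topology MeasureTheory
open scoped NNReal ENNReal

namespace Crest.Agent.R116.D0m570

open Crest.Agent.R138.Ex926 (Base U IsTan)
open Crest.Agent.R136
open Crest.Agent.R136.MkA627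
open Crest.Agent.R136.TD627
open Crest.Agent.R136.Net191
open Crest.Agent.R136.Lq196
open Crest.Agent.R116.ChL222
open Crest.Agent.R116.PL504 (nb rL DN eL βL oL Shift)
open Crest.Agent.R116.Xd954 (cs xs FlagX Mrg)
open Crest.Agent.R116.Sg337 (coneL DL natB bx9 eL_bx9)
open Crest.Agent.R116.Gd222 (TSet sN PDL DT)
open Crest.Agent.R116.KI439
open Crest.Agent.R116.KF439 (PL)
open Crest.Agent.R116.Tw468 (OutT)
open Crest.Agent.R116.CtxB468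
open Crest.Agent.R116.KTop387 (NumL)
open Crest.Agent.R116.Rcx363 (fo fo_lip leg_near single_mem zero_coneL)
open Crest.Agent.R116.D0n878 (rc uD)
open Crest.Agent.R116.KTie794 (Mic)

theorem rL_rc (θa θb w0 sa sb v : ℝ) : rL θa θb w0 sa sb v = rc θa θb w0 sa sb v := by
  rw [PL504.rL_nb, Sg337.nb_natB]
  rfl

theorem uD_single : uD = (Pi.single 1 1 : Fin 12 → ℝ) := by
  funext k
  fin_cases k <;> simp [uD, bx9]

theorem rL_cont (θa θb w0 sa sb : ℝ) : Continuous fun v => rL θa θb w0 sa sb v := by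
  refine continuous_pi fun k => ?_
  simp only [rL_rc]
  fin_cases k <;> simp [rc, natB, bx9] <;> fun_prop

section ctx

variable {η : ℝ} {G : Geo TSet (Fin 2)} {L : ℕ → ℕ → LRay} {r : ℕ → ℝ} {g s : ℝ} {θ q : Fin 2 → ℝ}
    {Rg : ℝ} {B : Base} {I : ℕ → Finset (ℕ × ℝ)} {lev : ℕ → ℚ → ℕ} {A : ℕ → ℝ}
    {f : ℕ → ℚ → ℕ → ℤ → ℕ} {b : ℕ → ℚ → ℕ → TSet} {vm : ℕ → ℚ → ℝ} {w : Fin 2 → ℕ → ℚ → ℝ}
    {fr : ℕ → ℚ → ℕ × ℝ → LInc} {fl : ℕ → ℕ × ℝ → LInc} {sc : Fin 12 → ℕ → ℝ}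
    {w0 sa sb δ R : ℝ} {I0 I' : ℕ → Finset (ℕ × ℝ)} {ν own : (Fin 12 → ℝ) → ℝ} {c₀ : ℝ}

theorem ctx_lip
    (h : CtxT G L r g s θ q Rg B I lev A f b vm w fr fl sc w0 sa sb δ R I0 I' ν own c₀) :
    ∀ j : Fin 2, ∀ p ∈ Leg monL R, ∀ q ∈ Leg monL R,
      |fo ν own j p - fo ν own j q| ≤ (12:ℝ) * ‖p - q‖ := by
  intro j p hp q hq
  rw [← dist_eq_norm]
  exact fo_lip h j p hp q hq

theorem ctx_mono
    (h : CtxT G L r g s θ q Rg B I lev A f b vm w fr fl sc w0 sa sb δ R I0 I' ν own c₀) :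
    ∀ p ∈ Leg monL R, ∀ q ∈ Leg monL R, p ≤ q → ν q ≤ ν p ∧ ν p - ν q ≤ ∑ i, (q i - p i) := by
  intro p hp q hq hpq
  obtain ⟨h1, h2⟩ := h.ext.lip p hp q hq hpq
  exact ⟨by linarith, h2⟩

theorem ctx_sup
    (h : CtxT G L r g s θ q Rg B I lev A f b vm w fr fl sc w0 sa sb δ R I0 I' ν own c₀) :
    ∀ p ∈ Leg monL R, ∀ q ∈ Leg monL R, p ⊓ q ∈ Leg monL R → ν p + ν q ≤ ν (p ⊔ q) + ν (p ⊓ q) := by
  intro p hp q hq hi
  have := h.ext.submod p hp q hq hi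
  linarith

/-- the record boxes are strictly inside -/
theorem ctx_box
    (h : CtxT G L r g s θ q Rg B I lev A f b vm w fr fl sc w0 sa sb δ R I0 I' ν own c₀)
    (hR0 : w0 + (θ 1 + sb) < R) (hR1 : w0 + 1 + sb < R) :
    ∀ v ∈ Icc (0:ℝ) 1, ∀ k, 0 < rc (θ 0) (θ 1) w0 sa sb v k ∧ rc (θ 0) (θ 1) w0 sa sb v k < R := by
  intro v hv k
  rw [← rL_rc]
  refine ⟨h.sh.d0.trans_le (h.sh.rL_pos hv.1 hv.2 k), ?_⟩
  have sh := h.sh
  have sh' : Shift (θ 0) (θ 1) w0 sa sb δ (max (w0 + (θ 1 + sb)) (w0 + 1 + sb)) :=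
    ⟨sh.d0, sh.z, sh.c0, sh.c1, sh.D0, sh.D1, le_max_left _ _, le_max_right _ _⟩
  exact ((sh'.rL_leg hv.1 hv.2).2 k).trans_lt (max_lt hR0 hR1)

/-- raising `D` a little above the record is legal -/
theorem ctx_legD
    (h : CtxT G L r g s θ q Rg B I lev A f b vm w fr fl sc w0 sa sb δ R I0 I' ν own c₀)
    (hR0 : w0 + (θ 1 + sb) < R) (hR1 : w0 + 1 + sb < R) {v : ℝ} (hv : v ∈ Ioo (0:ℝ) 1) :
    ∀ᶠ y in 𝓝[>] (0:ℝ), rL (θ 0) (θ 1) w0 sa sb v ∈ Leg monL R ∧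
      rL (θ 0) (θ 1) w0 sa sb v + y • (Pi.single 1 1 : Fin 12 → ℝ) ∈ Leg monL R := by
  obtain ⟨ρ, hρ, hl⟩ := leg_near h.sh hR0 hR1 hv.1.le hv.2.le
  have h1 : ∀ᶠ y in 𝓝[>] (0:ℝ), y < ρ :=
    (tendsto_id.mono_left nhdsWithin_le_nhds).eventually_lt_const hρ
  filter_upwards [h1, self_mem_nhdsWithin] with y hy hy0
  have hy0' : (0:ℝ) < y := hy0
  refine ⟨h.sh.rL_leg hv.1.le hv.2.le, hl _ ?_ fun k => ?_⟩
  · have := single_mem zero_coneL hy0'.le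
    rwa [zero_add] at this
  · rw [Pi.smul_apply, smul_eq_mul, abs_mul, abs_of_pos hy0']
    by_cases hk : k = 1
    · subst hk; simp; exact hy.le
    · simp [hk]; exact hρ.le

/-- **from null sets to the micro form** -/
theorem mic_of_null
    (h : CtxT G L r g s θ q Rg B I lev A f b vm w fr fl sc w0 sa sb δ R I0 I' ν own c₀)
    (hR0 : w0 + (θ 1 + sb) < R) (hR1 : w0 + 1 + sb < R)
    (H : ∀ ρ : ℝ, 0 < ρ → ∀ E : Set ℝ, MeasurableSet E → E ⊆ Ioo 0 1 →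
      (∀ v ∈ E, ∃ᶠ y in 𝓝[>] (0:ℝ), ρ * y ≤ ν (rL (θ 0) (θ 1) w0 sa sb v) -
        ν (rL (θ 0) (θ 1) w0 sa sb v + y • (Pi.single 1 1 : Fin 12 → ℝ))) → volume E = 0) :
    Mic ν (θ 0) (θ 1) w0 sa sb := by
  have hlip : LipschitzOnWith 12 ν (Leg monL R) := by
    refine LipschitzOnWith.of_dist_le_mul fun p hp q hq => ?_
    rw [Real.dist_eq]
    exact fo_lip h (0 : Fin 2) p hp q hq
  obtain ⟨νx, hx, hxe⟩ := hlip.extend_real
  set δx : ℝ → ℝ → ℝ := fun v y => νx (rL (θ 0) (θ 1) w0 sa sb v) -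
    νx (rL (θ 0) (θ 1) w0 sa sb v + y • (Pi.single 1 1 : Fin 12 → ℝ)) with hδx
  have hcv : ∀ y : ℝ, 0 < y → Continuous fun v => δx v y := by
    intro y _
    have h1 := rL_cont (θ 0) (θ 1) w0 sa sb
    exact (hx.continuous.comp h1).sub (hx.continuous.comp (h1.add continuous_const))
  have hcy : ∀ v : ℝ, Continuous fun y => δx v y := by
    intro v
    exact continuous_const.sub (hx.continuous.comp
      (continuous_const.add (continuous_id.smul continuous_const)))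
  -- the increment is the one of the extension
  have heq : ∀ v ∈ Ioo (0:ℝ) 1, ∀ᶠ y in 𝓝[>] (0:ℝ), δx v y = ν (rL (θ 0) (θ 1) w0 sa sb v) -
      ν (rL (θ 0) (θ 1) w0 sa sb v + y • (Pi.single 1 1 : Fin 12 → ℝ)) := by
    intro v hv
    filter_upwards [ctx_legD h hR0 hR1 hv] with y hy
    rw [hδx]
    simp only
    rw [← hxe hy.1, ← hxe hy.2]
  have hnull : ∀ m : ℕ, volume ({v : ℝ | ∀ n : ℕ, ∃ y : ℚ, 0 < y ∧ (y:ℝ) < 1 / ((n:ℝ) + 1) ∧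
      1 / ((m:ℝ) + 1) * (y:ℝ) < δx v (y:ℝ)} ∩ Ioo 0 1) = 0 := by
    intro m
    refine H (1 / ((m:ℝ) + 1)) (by positivity) _
      ((D0w635.meas_freq' hcv).inter measurableSet_Ioo) inter_subset_right fun v hv => ?_
    have h1 := (D0w635.freq_iff (δ := δx v) (ρ := 1 / ((m:ℝ) + 1))
      (hcy v).continuousOn).2 hv.1
    refine (h1.and_eventually (heq v hv.2)).mono fun y hy => ?_
    rw [← hy.2]
    exact hy.1.le
  have hae : ∀ᵐ v : ℝ, ∀ m : ℕ, v ∉ ({v : ℝ | ∀ n : ℕ, ∃ y : ℚ, 0 < y ∧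
      (y:ℝ) < 1 / ((n:ℝ) + 1) ∧ 1 / ((m:ℝ) + 1) * (y:ℝ) < δx v (y:ℝ)} ∩ Ioo 0 1) :=
    ae_all_iff.2 fun m => measure_eq_zero_iff_ae_notMem.1 (hnull m)
  unfold Mic
  filter_upwards [hae] with v hv hv2
  rw [Metric.tendsto_nhds]
  intro ε hε
  obtain ⟨m, hm⟩ := exists_nat_one_div_lt hε
  have h1 : ¬ ∃ᶠ y in 𝓝[>] (0:ℝ), 1 / ((m:ℝ) + 1) * y < δx v y := by
    intro hcon
    exact hv m ⟨(D0w635.freq_iff (hcy v).continuousOn).1 hcon, hv2⟩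
  rw [not_frequently] at h1
  filter_upwards [h1, heq v hv2, ctx_legD h hR0 hR1 hv2, self_mem_nhdsWithin] with y h2 h3 h4 h5
  have hy : (0:ℝ) < y := h5
  rw [← h3, Real.dist_eq, sub_zero, abs_div, abs_of_pos hy, div_lt_iff₀ hy]
  have h6 : 0 ≤ δx v y := by
    rw [h3]
    refine (h.ext.lip _ h4.1 _ h4.2 ?_).1
    intro k
    simp only [Pi.add_apply, Pi.smul_apply, smul_eq_mul]
    by_cases hk : k = 1
    · subst hk; simp; exact hy.le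
    · simp [hk]
  rw [abs_of_nonneg h6]
  have h7 : δx v y ≤ 1 / ((m:ℝ) + 1) * y := not_lt.1 h2
  have h8 : 1 / ((m:ℝ) + 1) * y < ε * y := mul_lt_mul_of_pos_right hm hy
  linarith

/-- the same in 878's notation -/
theorem mic_of_null_rc
    (h : CtxT G L r g s θ q Rg B I lev A f b vm w fr fl sc w0 sa sb δ R I0 I' ν own c₀)
    (hR0 : w0 + (θ 1 + sb) < R) (hR1 : w0 + 1 + sb < R)
    (H : ∀ ρ : ℝ, 0 < ρ → ∀ E : Set ℝ, MeasurableSet E → E ⊆ Ioo 0 1 →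
      (∀ v ∈ E, ∃ᶠ y in 𝓝[>] (0:ℝ), ρ * y ≤ ν (rc (θ 0) (θ 1) w0 sa sb v) -
        ν (rc (θ 0) (θ 1) w0 sa sb v + y • uD)) → volume E = 0) :
    Mic ν (θ 0) (θ 1) w0 sa sb := by
  refine mic_of_null h hR0 hR1 fun ρ hρ E hE hEI hf => H ρ hρ E hE hEI ?_
  simpa only [rL_rc, ← uD_single] using hf

/-- **the end of D0 for `β_D < 0`** -/
theorem mic_of_loc
    (h : CtxT G L r (g + 2 * s) s θ q Rg B I lev A f b vm w fr fl sc w0 sa sb δ R I0 I' ν own c₀)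
    (hN : NumL η g s θ q) (hη : η ≤ 1)
    (hR0 : w0 + (θ 1 + sb) < R) (hR1 : w0 + 1 + sb < R) (hRg : θ 0 + |θ 1| + 1 ≤ Rg)
    (hloc : ∀ ρ : ℝ, 0 < ρ → ∀ E : Set ℝ, MeasurableSet E → E ⊆ Ioo 0 1 →
      (∀ v ∈ E, ∃ᶠ y in 𝓝[>] (0:ℝ), ρ * y ≤ ν (rL (θ 0) (θ 1) w0 sa sb v) -
        ν (rL (θ 0) (θ 1) w0 sa sb v + y • (Pi.single 1 1 : Fin 12 → ℝ))) →
      ∃ t0 : ℝ, 0 < t0 ∧ ∀ᵐ y : ℝ × ℝ, -t0 < y.1 → y.1 < 0 → y.2 ∈ E →
        ∀ D : ℝ × ℝ →L[ℝ] ℝ,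
        HasFDerivAt (fun y => ν (Dg262.X (rL (θ 0) (θ 1) w0 sa sb 0) (natB 1 0 1)
          (natB 1 (-θ 0) (-θ 1)) y)) D y → D (1, 0) ≤ -(6 - 4 * s)) :
    Mic ν (θ 0) (θ 1) w0 sa sb := by
  refine mic_of_null h hR0 hR1 fun ρ hρ E hE hEI hf => ?_
  obtain ⟨t0, ht0, hl⟩ := hloc ρ hρ E hE hEI hf
  have h1 := D0e570.end_null h hN hη hR0 hR1 hRg ht0 hl
  rwa [inter_eq_left.2 hEI] at h1

/-- the same in 878's notation -/
theorem mic_of_loc_rc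
    (h : CtxT G L r (g + 2 * s) s θ q Rg B I lev A f b vm w fr fl sc w0 sa sb δ R I0 I' ν own c₀)
    (hN : NumL η g s θ q) (hη : η ≤ 1)
    (hR0 : w0 + (θ 1 + sb) < R) (hR1 : w0 + 1 + sb < R) (hRg : θ 0 + |θ 1| + 1 ≤ Rg)
    (hloc : ∀ ρ : ℝ, 0 < ρ → ∀ E : Set ℝ, MeasurableSet E → E ⊆ Ioo 0 1 →
      (∀ v ∈ E, ∃ᶠ y in 𝓝[>] (0:ℝ), ρ * y ≤ ν (rc (θ 0) (θ 1) w0 sa sb v) -
        ν (rc (θ 0) (θ 1) w0 sa sb v + y • uD)) →
      ∃ t0 : ℝ, 0 < t0 ∧ ∀ᵐ y : ℝ × ℝ, -t0 < y.1 → y.1 < 0 → y.2 ∈ E →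
        ∀ D : ℝ × ℝ →L[ℝ] ℝ,
        HasFDerivAt (fun y => ν (Dg262.X (rL (θ 0) (θ 1) w0 sa sb 0) (natB 1 0 1)
          (natB 1 (-θ 0) (-θ 1)) y)) D y → D (1, 0) ≤ -(6 - 4 * s)) :
    Mic ν (θ 0) (θ 1) w0 sa sb := by
  refine mic_of_loc h hN hη hR0 hR1 hRg fun ρ hρ E hE hEI hf => hloc ρ hρ E hE hEI ?_
  simpa only [rL_rc, ← uD_single] using hf

end ctx

end Crest.Agent.R116.D0m570
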