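import Crest.Agent.R116.D0n3_878

/-!
# R116 (K side), LEMMA D0, part 4 (helper878): the set of `D`-live heights is null
-/

set_option autoImplicit false
set_option linter.unusedVariables false

open Set Filter Topology MeasureTheory
open scoped NNReal

namespace Crest.Agent.R116.D0n878

open Crest.Agent.R138
open Crest.Agent.R136
open Crest.Agent.R136.Net191
open Crest.Agent.R136.Dg219 (gC dhC)
open Crest.Agent.R116.ChL222
open Crest.Agent.R116.Sg337 (bx9 natB Dm uC)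
open Crest.Agent.R116.SgF665 (wl)
open Crest.Agent.R116.D0F878

/-- Lipschitz constant of `ν` on the plane -/
theorem plane_lip {R K : ℝ} {ν : (Fin 12 → ℝ) → ℝ} (hK : 0 ≤ K)
    (hν : ∀ p ∈ Leg monL R, ∀ q ∈ Leg monL R, |ν p - ν q| ≤ K * ‖p - q‖)
    {x0 a b : Fin 12 → ℝ} {S : Set (ℝ × ℝ)}
    (hS : ∀ z ∈ S, Dg262.X x0 a b (z.2, z.1) ∈ Leg monL R) :
    LipschitzOnWith (K.toNNReal * (‖a‖₊ + ‖b‖₊)) (fun z : ℝ × ℝ => -ν (Dg262.X x0 a b (z.2, z.1))) S := by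
  refine LipschitzOnWith.of_dist_le_mul fun z hz z' hz' => ?_
  rw [Real.dist_eq]
  have h1 := hν _ (hS z hz) _ (hS z' hz')
  have e1 : -ν (Dg262.X x0 a b (z.2, z.1)) - -ν (Dg262.X x0 a b (z'.2, z'.1)) =
      -(ν (Dg262.X x0 a b (z.2, z.1)) - ν (Dg262.X x0 a b (z'.2, z'.1))) := by ring
  rw [e1, abs_neg]
  refine h1.trans ?_
  have e2 : Dg262.X x0 a b (z.2, z.1) - Dg262.X x0 a b (z'.2, z'.1) =
      (z.2 - z'.2) • a + (z.1 - z'.1) • b := by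
    funext k
    simp only [Dg262.X, Pi.sub_apply, Pi.add_apply, Pi.smul_apply, smul_eq_mul]
    ring
  have h2 : ‖Dg262.X x0 a b (z.2, z.1) - Dg262.X x0 a b (z'.2, z'.1)‖ ≤
      (‖a‖ + ‖b‖) * dist z z' := by
    rw [e2]
    refine (norm_add_le _ _).trans ?_
    rw [norm_smul, norm_smul, Prod.dist_eq, Real.norm_eq_abs, Real.norm_eq_abs]
    have h3 : |z.2 - z'.2| ≤ max (dist z.1 z'.1) (dist z.2 z'.2) := by
      rw [← Real.dist_eq]; exact le_max_right _ _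
    have h4 : |z.1 - z'.1| ≤ max (dist z.1 z'.1) (dist z.2 z'.2) := by
      rw [← Real.dist_eq]; exact le_max_left _ _
    have h5 := norm_nonneg a
    have h6 := norm_nonneg b
    nlinarith
  have h3 : ((K.toNNReal * (‖a‖₊ + ‖b‖₊) : ℝ≥0) : ℝ) = K * (‖a‖ + ‖b‖) := by
    push_cast
    rw [Real.coe_toNNReal K hK]
  rw [h3, mul_assoc]
  exact mul_le_mul_of_nonneg_left h2 hK

/-! ### geometry of the wedge -/

section geo

variable {θa θb w0 sa sb v0 ε κ τ v : ℝ}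

/-- below the record box with the same `D` -/
theorem pt_le_D (hκ : 9 * κ = 2 * θa - θb - 1) (h1 : 0 ≤ (1 - κ) * (v - v0) + τ)
    (h2 : θa * (v - v0) ≤ ε * τ) :
    natB (w0 + v0 + κ * (v - v0) + -τ) (sa + θa * (1 - v0) + ε * -τ)
      (sb + θb * (1 - v0) + 10 * κ * (v - v0) + (1 + 2 * ε) * -τ) ≤ rc θa θb w0 sa sb v := by
  have e : θb = 2 * θa - 1 - 9 * κ := by linarith
  subst e
  refine natB_le ?_ ?_ (le_of_eq ?_)
  · linarith
  · linarith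
  · ring

/-- below the record box with the same `C` -/
theorem pt_le_C (hθ : 0 < θa) (hκ : 9 * κ = 2 * θa - θb - 1) (hκ0 : 0 ≤ κ) {x : ℝ}
    (hx : θa * x = ε * τ) (h1 : 0 ≤ x - κ * (v - v0) + τ) (h2 : v - v0 ≤ x) :
    natB (w0 + v0 + κ * (v - v0) + -τ) (sa + θa * (1 - v0) + ε * -τ)
      (sb + θb * (1 - v0) + 10 * κ * (v - v0) + (1 + 2 * ε) * -τ) ≤
      rc θa θb w0 sa sb (v0 + x) := by
  have e : θb = 2 * θa - 1 - 9 * κ := by linarith
  subst e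
  have h3 : 0 ≤ κ * (x - (v - v0)) := mul_nonneg hκ0 (by linarith)
  refine natB_le ?_ (le_of_eq ?_) ?_
  · linarith
  · linarith
  · linarith

/-- the box of the plane -/
theorem pt_low (hκ : 0 < κ) (hε : 0 < ε) (hε4 : ε ≤ 1 / 4) {m0 u0 t1 : ℝ}
    (hm : ∀ k, m0 ≤ rc θa θb w0 sa sb v0 k) (hv : |v - v0| ≤ u0) (hτ0 : 0 ≤ τ) (hτ1 : τ ≤ t1)
    (h : u0 * (11 * κ) + 3 * t1 < m0) (k : Fin 12) :
    0 < natB (w0 + v0 + κ * (v - v0) + -τ) (sa + θa * (1 - v0) + ε * -τ)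
      (sb + θb * (1 - v0) + 10 * κ * (v - v0) + (1 + 2 * ε) * -τ) k := by
  have c1 := hm k
  have hu : 0 ≤ u0 := (abs_nonneg _).trans hv
  have c2 : natB (w0 + v0 + κ * (v - v0) + -τ) (sa + θa * (1 - v0) + ε * -τ)
      (sb + θb * (1 - v0) + 10 * κ * (v - v0) + (1 + 2 * ε) * -τ) k =
      rc θa θb w0 sa sb v0 k + (v - v0) * natB κ 0 (10 * κ) k - τ * natB 1 ε (1 + 2 * ε) k := by
    unfold rc
    fin_cases k <;> simp [natB, bx9] <;> ring
  have c3 : 0 ≤ natB 1 ε (1 + 2 * ε) k ∧ natB 1 ε (1 + 2 * ε) k ≤ 3 := by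
    fin_cases k <;> simp [natB, bx9] <;> constructor <;> linarith
  have c4 : 0 ≤ natB κ 0 (10 * κ) k ∧ natB κ 0 (10 * κ) k ≤ 11 * κ := by
    fin_cases k <;> simp [natB, bx9] <;> first | (constructor <;> linarith) | linarith
  have c5 : |(v - v0) * natB κ 0 (10 * κ) k| ≤ u0 * (11 * κ) := by
    rw [abs_mul, abs_of_nonneg c4.1]; exact mul_le_mul hv c4.2 c4.1 hu
  have c6 := (abs_le.1 c5).1
  have c7 : τ * natB 1 ε (1 + 2 * ε) k ≤ t1 * 3 :=
    mul_le_mul hτ1 c3.2 c3.1 (hτ0.trans hτ1)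
  rw [c2]
  linarith

/-- the budget of the segment -/
theorem pt_Dm {g s q0 q1 : ℝ} :
    Dm g s q0 q1 (w0 + v0 + κ * (v - v0) + -τ) (sa + θa * (1 - v0) + ε * -τ)
      (sb + θb * (1 - v0) + 10 * κ * (v - v0) + (1 + 2 * ε) * -τ) -
      Dm g s q0 q1 (w0 + v) (sa + θa * (1 - v)) (sb + θb * (1 - v)) =
    (5 - s - g + q1 + ε * (5 + q0 + 2 * q1)) * τ +
      ((4 - s - g) * (1 - κ) - (3 + q0) * θa - (1 + q1) * (10 * κ + θb)) * (v - v0) := by
  unfold Dm; ring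

end geo

/-- constants of the wedge -/
theorem exists_cst {θa κ ε L A q δ1 δ m0 v0 v1 v2 : ℝ} (hθ : 0 < θa) (hκ : 0 < κ) (hε : 0 < ε)
    (hL : 0 < L) (hδ1 : 0 < δ1) (hδ : 0 < δ) (hm0 : 0 < m0) (h1 : v1 < v0) (h2 : v0 < v2) :
    ∃ t1 t0 u0 : ℝ, 0 < t0 ∧ t0 < t1 ∧ 0 < u0 ∧ t1 ≤ δ ∧ t1 * ε / θa ≤ v2 - v0 ∧
      u0 ≤ v0 - v1 ∧ u0 ≤ v2 - v0 ∧ u0 * (11 * κ) + 3 * t1 < m0 ∧ (1 + κ) * u0 ≤ t0 ∧
      θa * u0 ≤ ε * t0 ∧ 10 * κ * u0 * L ≤ ε * t0 ∧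
      |A| * u0 + (q + δ1) * t0 ≤ δ1 * t1 := by
  set t1 : ℝ := min (min δ (m0 / 8)) ((v2 - v0) * θa / ε) with ht1d
  have hv20 : 0 < v2 - v0 := by linarith
  have ht1 : 0 < t1 := lt_min (lt_min hδ (by positivity)) (by positivity)
  have ht1δ : t1 ≤ δ := (min_le_left _ _).trans (min_le_left _ _)
  have ht1m : t1 ≤ m0 / 8 := (min_le_left _ _).trans (min_le_right _ _)
  have ht1v : t1 * ε / θa ≤ v2 - v0 := by
    have h6 : t1 ≤ (v2 - v0) * θa / ε := min_le_right _ _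
    rw [le_div_iff₀ hε] at h6
    rw [div_le_iff₀ hθ]
    exact h6
  set M : ℝ := θa / ε + 1 + κ + 10 * κ * L / ε with hMd
  have hM : 0 < M := by positivity
  have e1 : ε * M = θa + ε * (1 + κ) + 10 * κ * L := by rw [hMd]; field_simp; ring
  have p1 : 0 ≤ ε * (1 + κ) := by positivity
  have p2 : 0 ≤ 10 * κ * L := by positivity
  have hM2 : 1 + κ ≤ M := by
    rw [hMd]
    have : 0 ≤ θa / ε := by positivity
    have : 0 ≤ 10 * κ * L / ε := by positivity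
    linarith
  have hden : 0 < |A| + (|q| + δ1) * M + 1 := by positivity
  clear_value t1 M
  set u0 : ℝ := min (min (min (v0 - v1) (v2 - v0)) (m0 / (100 * κ)))
    (min (t1 / (2 * M)) (δ1 * t1 / (|A| + (|q| + δ1) * M + 1))) with hu0d
  have hu0 : 0 < u0 := by
    refine lt_min (lt_min (lt_min (by linarith) (by linarith)) (by positivity))
      (lt_min (by positivity) (by positivity))
  have hu1 : u0 ≤ v0 - v1 := ((min_le_left _ _).trans (min_le_left _ _)).trans (min_le_left _ _)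
  have hu2 : u0 ≤ v2 - v0 := ((min_le_left _ _).trans (min_le_left _ _)).trans (min_le_right _ _)
  have hu3 : u0 * (100 * κ) ≤ m0 := by
    have h6 : u0 ≤ m0 / (100 * κ) := (min_le_left _ _).trans (min_le_right _ _)
    rwa [le_div_iff₀ (by positivity)] at h6
  have hu4 : u0 * (2 * M) ≤ t1 := by
    have h6 : u0 ≤ t1 / (2 * M) := (min_le_right _ _).trans (min_le_left _ _)
    rwa [le_div_iff₀ (by positivity)] at h6
  have hu5 : u0 * (|A| + (|q| + δ1) * M + 1) ≤ δ1 * t1 := by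
    have h6 : u0 ≤ δ1 * t1 / (|A| + (|q| + δ1) * M + 1) := (min_le_right _ _).trans (min_le_right _ _)
    rwa [le_div_iff₀ hden] at h6
  clear_value u0
  have hMu : 0 < M * u0 := by positivity
  refine ⟨t1, M * u0, u0, hMu, by nlinarith, hu0, ht1δ, ht1v, hu1, hu2, ?_, ?_, ?_, ?_, ?_⟩
  · nlinarith
  · nlinarith
  · have : ε * (M * u0) = (ε * M) * u0 := by ring
    rw [this, e1]; nlinarith
  · have : ε * (M * u0) = (ε * M) * u0 := by ring
    rw [this, e1]; nlinarith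
  · have h7 : (q + δ1) * (M * u0) ≤ (|q| + δ1) * (M * u0) :=
      mul_le_mul_of_nonneg_right (by linarith [le_abs_self q]) hMu.le
    nlinarith

/-- **the set of heights at which `D` is live is null**, `beta_D > 0`, `s < 1/2`. -/
theorem null_E {J : Type*} [Finite J] {f : J → (Fin 12 → ℝ) → ℝ} {j0 : J}
    {R K s g q0 q1 θa θb w0 sa sb K0 δ L v1 v2 ρ : ℝ}
    {Bs : (ℕ → Fin 12 → ℝ) → (ℕ → ℝ) → Prop} {Do : ℝ → ℝ → ℝ → Prop} (hK : 0 ≤ K)
    (hν : ∀ j, ∀ p ∈ Leg monL R, ∀ q ∈ Leg monL R, |f j p - f j q| ≤ K * ‖p - q‖)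
    (hm : ∀ p ∈ Leg monL R, ∀ q ∈ Leg monL R, p ≤ q →
      f j0 q ≤ f j0 p ∧ f j0 p - f j0 q ≤ ∑ i, (q i - p i))
    (hs : ∀ p ∈ Leg monL R, ∀ q ∈ Leg monL R, p ⊓ q ∈ Leg monL R →
      f j0 p + f j0 q ≤ f j0 (p ⊔ q) + f j0 (p ⊓ q))
    (hθ : 0 < θa) (hβ : 0 < 2 * θa - θb - 1) (s2 : 2 * s < 1) (hq0 : 0 < q0) (hq1 : 0 ≤ q1)
    (hg : 2 * s + q1 < g) (hδ : 0 < δ) (hL : 0 < L)
    (hbx : ∀ v ∈ Icc v1 v2, ∀ k, 0 < rc θa θb w0 sa sb v k ∧ rc θa θb w0 sa sb v k < R)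
    (hrec : ∀ v ∈ Icc v1 v2, K0 + Dm g s q0 q1 (w0 + v) (sa + θa * (1 - v)) (sb + θb * (1 - v)) ≤
      f j0 (rc θa θb w0 sa sb v))
    (hC : ∀ v ∈ Icc v1 v2, ∀ᶠ y in 𝓝[>] (0:ℝ), q0 * y ≤
      f j0 (rc θa θb w0 sa sb v) - f j0 (rc θa θb w0 sa sb v + y • uC))
    (hdom : ∀ v ∈ Icc v1 v2, ∀ e t x y : ℝ, 0 < e → e ≤ 1 / 4 → 0 < t → t ≤ δ →
      |x| ≤ e * t / L → |y| ≤ e * t / L →
      Do (w0 + v - t + x) (sa + θa * (1 - v) - e * t) (sb + θb * (1 - v) - (1 + 2 * e) * t + y))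
    (hDm : ∀ z c p, Do z c p → f j0 (natB z c p) ≤ K0 + Dm g s q0 q1 z c p)
    (hown : ∀ z c p, Do z c p → ∀ᶠ y in 𝓝[>] (0:ℝ), (1 - s) * y ≤
      f j0 (natB z c p) - f j0 (natB z c p + y • uZ))
    (hBs : ∀ z c p, Do z c p → ∀ h : ℕ → ℝ, (∀ l, 0 < h l) → Tendsto h atTop (𝓝 0) →
      Bs (fun _ => natB z c p) h)
    (hF : LinFactsD (Leg monL R) f j0 Bs s) (hρ : 0 < ρ) :
    volume {v : ℝ | v ∈ Ioo v1 v2 ∧ ∃ᶠ y in 𝓝[>] (0:ℝ), ρ * y ≤
      f j0 (rc θa θb w0 sa sb v) - f j0 (rc θa θb w0 sa sb v + y • uD)} = 0 := by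
  set E : Set ℝ := {v : ℝ | v ∈ Ioo v1 v2 ∧ ∃ᶠ y in 𝓝[>] (0:ℝ), ρ * y ≤
      f j0 (rc θa θb w0 sa sb v) - f j0 (rc θa θb w0 sa sb v + y • uD)} with hEd
  by_contra hE
  obtain ⟨v0, hv0E, hv0⟩ := exists_mem_forall_mem_nhdsWithin_pos_measure (μ := volume) hE
  obtain ⟨hva, hvb⟩ := hv0E.1
  have hv0I : v0 ∈ Icc v1 v2 := ⟨hva.le, hvb.le⟩
  obtain ⟨κ, hκ, hκ9⟩ : ∃ κ : ℝ, 0 < κ ∧ 9 * κ = 2 * θa - θb - 1 :=
    ⟨(2 * θa - θb - 1) / 9, by positivity, by ring⟩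
  -- constants
  obtain ⟨gap, hgap⟩ : ∃ gap : ℝ, gap = 1 - 3 * s + g - q1 := ⟨_, rfl⟩
  have hgap0 : 0 < gap := by rw [hgap]; linarith
  have h5 : 0 < 8 * (5 + q0 + 2 * q1) := by positivity
  obtain ⟨ε, hε, hε4, hεg⟩ : ∃ ε : ℝ, 0 < ε ∧ ε ≤ 1 / 4 ∧ ε * (5 + q0 + 2 * q1) ≤ gap / 8 := by
    refine ⟨min (1 / 4) (gap / (8 * (5 + q0 + 2 * q1))), lt_min (by norm_num)
      (div_pos hgap0 h5), min_le_left _ _, ?_⟩
    have h6 : min (1 / 4) (gap / (8 * (5 + q0 + 2 * q1))) ≤ gap / (8 * (5 + q0 + 2 * q1)) :=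
      min_le_right _ _
    rw [le_div_iff₀ h5] at h6
    linarith
  obtain ⟨q, hqd⟩ : ∃ q : ℝ, q = 5 - s - g + q1 + ε * (5 + q0 + 2 * q1) := ⟨_, rfl⟩
  obtain ⟨A, hAd⟩ : ∃ A : ℝ, A = (4 - s - g) * (1 - κ) - (3 + q0) * θa -
      (1 + q1) * (10 * κ + θb) := ⟨_, rfl⟩
  have hδ1 : 0 < gap / 8 := by positivity
  obtain ⟨m0, hm0, hm0k⟩ : ∃ m0 : ℝ, 0 < m0 ∧ ∀ k, m0 ≤ rc θa θb w0 sa sb v0 k := by
    have hne : (Finset.univ : Finset (Fin 12)).Nonempty := Finset.univ_nonempty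
    refine ⟨Finset.univ.inf' hne (rc θa θb w0 sa sb v0), ?_, fun k =>
      Finset.inf'_le _ (Finset.mem_univ k)⟩
    rw [Finset.lt_inf'_iff]
    exact fun k _ => (hbx v0 hv0I k).1
  obtain ⟨t1, t0, u0, ht0, ht01, hu0, ht1δ, ht1v, hu1, hu2, hc1, hc2, hc3, hc4, hc5⟩ :=
    exists_cst (A := A) (q := q) hθ hκ hε hL hδ1 hδ hm0 hva hvb
  -- the bad heights near `v0`
  set V : Set ℝ := E ∩ Ioo (v0 - u0) (v0 + u0) with hVd
  have hV : volume V ≠ 0 := by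
    refine (hv0 V ?_).ne'
    exact inter_mem self_mem_nhdsWithin
      (mem_nhdsWithin_of_mem_nhds (Ioo_mem_nhds (by linarith) (by linarith)))
  have hVu : ∀ v ∈ V, |v - v0| ≤ u0 := by
    intro v hv
    rw [abs_le]
    exact ⟨by linarith [hv.2.1], by linarith [hv.2.2]⟩
  have hVI : ∀ v ∈ V, v ∈ Icc v1 v2 := fun v hv => ⟨hv.1.1.1.le, hv.1.1.2.le⟩
  -- pointwise geometry
  have hle : ∀ τ v : ℝ, t0 ≤ τ → |v - v0| ≤ u0 →
      natB (w0 + v0 + κ * (v - v0) + -τ) (sa + θa * (1 - v0) + ε * -τ)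
        (sb + θb * (1 - v0) + 10 * κ * (v - v0) + (1 + 2 * ε) * -τ) ≤
        rc θa θb w0 sa sb v := by
    intro τ v hτ hv
    obtain ⟨b1, b2⟩ := abs_le.1 hv
    have c2 : ε * t0 ≤ ε * τ := mul_le_mul_of_nonneg_left hτ hε.le
    have c3 : θa * (v - v0) ≤ θa * u0 := mul_le_mul_of_nonneg_left b2 hθ.le
    have c4 : κ * (v - v0) ≤ κ * u0 := mul_le_mul_of_nonneg_left b2 hκ.le
    refine pt_le_D hκ9 ?_ (by linarith)
    have e1 : (1 - κ) * (v - v0) = (v - v0) - κ * (v - v0) := by ring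
    rw [e1]; linarith
  have hle' : ∀ τ v : ℝ, t0 ≤ τ → |v - v0| ≤ u0 →
      natB (w0 + v0 + κ * (v - v0) + -τ) (sa + θa * (1 - v0) + ε * -τ)
        (sb + θb * (1 - v0) + 10 * κ * (v - v0) + (1 + 2 * ε) * -τ) ≤
        rc θa θb w0 sa sb (v0 + τ * ε / θa) := by
    intro τ v hτ hv
    obtain ⟨b1, b2⟩ := abs_le.1 hv
    have c2 : ε * t0 ≤ ε * τ := mul_le_mul_of_nonneg_left hτ hε.le
    have c4 : κ * (v - v0) ≤ κ * u0 := mul_le_mul_of_nonneg_left b2 hκ.le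
    have c5 : u0 ≤ τ * ε / θa := by rw [le_div_iff₀ hθ]; linarith
    exact pt_le_C hθ hκ9 hκ.le (by field_simp) (by linarith) (by linarith)
  have hdo : ∀ τ v : ℝ, t0 ≤ τ → τ ≤ t1 → |v - v0| ≤ u0 →
      Do (w0 + v0 + κ * (v - v0) + -τ) (sa + θa * (1 - v0) + ε * -τ)
        (sb + θb * (1 - v0) + 10 * κ * (v - v0) + (1 + 2 * ε) * -τ) := by
    intro τ v hτ hτ1 hv
    have c1 : 10 * κ * |v - v0| ≤ ε * τ / L := by
      rw [le_div_iff₀ hL]
      have c2 : 10 * κ * |v - v0| * L ≤ 10 * κ * u0 * L :=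
        mul_le_mul_of_nonneg_right (mul_le_mul_of_nonneg_left hv (by positivity)) hL.le
      have c4 : ε * t0 ≤ ε * τ := mul_le_mul_of_nonneg_left hτ hε.le
      linarith
    have c0 : 0 ≤ κ * |v - v0| := by positivity
    have h6 := hdom v0 hv0I ε τ (κ * (v - v0)) (10 * κ * (v - v0)) hε hε4 (by linarith)
      (by linarith) (by rw [abs_mul, abs_of_pos hκ]; linarith)
      (by rw [abs_mul, abs_of_pos (by positivity : (0:ℝ) < 10 * κ)]; exact c1)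
    have e1 : w0 + v0 + κ * (v - v0) + -τ = w0 + v0 - τ + κ * (v - v0) := by ring
    have e2 : sa + θa * (1 - v0) + ε * -τ = sa + θa * (1 - v0) - ε * τ := by ring
    have e3 : sb + θb * (1 - v0) + 10 * κ * (v - v0) + (1 + 2 * ε) * -τ =
        sb + θb * (1 - v0) - (1 + 2 * ε) * τ + 10 * κ * (v - v0) := by ring
    rw [e1, e2, e3]
    exact h6
  have hbox : ∀ τ v : ℝ, t0 ≤ τ → τ ≤ t1 → |v - v0| ≤ u0 → v ∈ Icc v1 v2 →
      ∀ k, 0 < natB (w0 + v0 + κ * (v - v0) + -τ) (sa + θa * (1 - v0) + ε * -τ)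
        (sb + θb * (1 - v0) + 10 * κ * (v - v0) + (1 + 2 * ε) * -τ) k ∧
        natB (w0 + v0 + κ * (v - v0) + -τ) (sa + θa * (1 - v0) + ε * -τ)
        (sb + θb * (1 - v0) + 10 * κ * (v - v0) + (1 + 2 * ε) * -τ) k < R :=
    fun τ v hτ hτ1 hv hvI k => ⟨pt_low hκ hε hε4 hm0k hv (by linarith) hτ1 hc1 k,
      (hle τ v hτ hv k).trans_lt (hbx v hvI k).2⟩
  -- the good set
  obtain ⟨G, hG, eng⟩ : ∃ G : ℝ × ℝ → Prop, (∀ y, G y →
      (∀ k, 0 < Dg262.X (natB (w0 + v0 - κ * v0) (sa + θa * (1 - v0))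
        (sb + θb * (1 - v0) - 10 * κ * v0)) (natB 1 ε (1 + 2 * ε)) (natB κ 0 (10 * κ)) y k ∧
        Dg262.X (natB (w0 + v0 - κ * v0) (sa + θa * (1 - v0))
        (sb + θb * (1 - v0) - 10 * κ * v0)) (natB 1 ε (1 + 2 * ε)) (natB κ 0 (10 * κ)) y k < R) →
      ∃ D : ℝ × ℝ →L[ℝ] ℝ,
        HasFDerivAt (fun y => f j0 (Dg262.X (natB (w0 + v0 - κ * v0) (sa + θa * (1 - v0))
        (sb + θb * (1 - v0) - 10 * κ * v0)) (natB 1 ε (1 + 2 * ε)) (natB κ 0 (10 * κ)) y)) D y ∧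
        ∀ h : ℕ → ℝ, (∀ l, 0 < h l) → Tendsto h atTop (𝓝 0) →
          ∃ ψ : ℕ → ℕ, StrictMono ψ ∧ ∃ ρ : Fin 12 → ℝ, (∀ i ∈ S9, 0 ≤ ρ i) ∧
            LinTanD (Leg monL R) f j0
              (fun _ => Dg262.X (natB (w0 + v0 - κ * v0) (sa + θa * (1 - v0))
        (sb + θb * (1 - v0) - 10 * κ * v0)) (natB 1 ε (1 + 2 * ε)) (natB κ 0 (10 * κ)) y)
              (fun l => h (ψ l)) (ρ 0) (ρ 5) (ρ 9) (ρ 11) (ρ 3) (ρ 10) (ρ 2) (ρ 7) (ρ 1) ∧
            D (1, 0) = -∑ i ∈ S9, ρ i * natB 1 ε (1 + 2 * ε) i) ∧ ∀ᵐ y, G y := by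
    refine ⟨_, fun y hy => hy, ?_⟩
    filter_upwards [engine (j0 := j0) hK hν hm hs (z := w0 + v0 - κ * v0)
      (c := sa + θa * (1 - v0)) (p := sb + θb * (1 - v0) - 10 * κ * v0) (z1 := 1) (c1 := ε)
      (p1 := 1 + 2 * ε) (z2 := κ) (c2 := 0) (p2 := 10 * κ) (aN_nonneg hε)
      (alone hε hε4 hκ.ne') (dh_ne hε hκ.ne')] with y hy hb
    obtain ⟨D, hD, H⟩ := hy hb
    refine ⟨D, hD, fun h hp h0 => ?_⟩
    obtain ⟨ψ, hψ, r, h1, h2, h3, -⟩ := H h hp h0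
    exact ⟨ψ, hψ, r, h1, h2, h3⟩
  have hN : ∀ᵐ z : ℝ × ℝ, z ∈ {z : ℝ × ℝ | G (z.2, z.1)} := by
    have hsw : Measure.QuasiMeasurePreserving (Prod.swap : ℝ × ℝ → ℝ × ℝ) volume volume := by
      rw [Measure.volume_eq_prod]
      exact Measure.measurePreserving_swap.quasiMeasurePreserving
    exact hsw.ae eng
  have hXp := X_pt θa θb w0 sa sb v0 ε κ
  set x0 : Fin 12 → ℝ := natB (w0 + v0 - κ * v0) (sa + θa * (1 - v0))
    (sb + θb * (1 - v0) - 10 * κ * v0) with hx0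
  set a : Fin 12 → ℝ := natB 1 ε (1 + 2 * ε) with ha
  set b : Fin 12 → ℝ := natB κ 0 (10 * κ) with hb
  set S : Set (ℝ × ℝ) := {z | ∀ k, 0 < Dg262.X x0 a b (z.2, z.1) k ∧
    Dg262.X x0 a b (z.2, z.1) k < R} with hS
  have hSo : IsOpen S := by
    have hc : Continuous fun z : ℝ × ℝ => Dg262.X x0 a b (z.2, z.1) := by
      unfold Dg262.X
      fun_prop
    have e : S = (fun z : ℝ × ℝ => Dg262.X x0 a b (z.2, z.1)) ⁻¹'
        (Set.pi Set.univ fun _ => Ioo 0 R) := by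
      ext z
      simp [hS, Set.mem_pi]
    rw [e]
    exact (isOpen_set_pi Set.finite_univ fun _ _ => isOpen_Ioo).preimage hc
  have hleg : ∀ z ∈ S, Dg262.X x0 a b (z.2, z.1) ∈ Leg monL R := by
    intro z hz
    have hz' : ∀ k, 0 < Dg262.X x0 a b (z.2, z.1) k ∧ Dg262.X x0 a b (z.2, z.1) k < R := hz
    rw [hXp] at hz' ⊢
    exact nat_leg (fun k => (hz' k).1.le) fun k => (hz' k).2.le
  have hmemS : ∀ v ∈ V, ∀ t ∈ Icc (-t1) (-t0), (v, t) ∈ S := by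
    intro v hv t ht
    have h6 := hbox (-t) v (by linarith [ht.2]) (by linarith [ht.1]) (hVu v hv) (hVI v hv)
    intro k
    show 0 < Dg262.X x0 a b (t, v) k ∧ Dg262.X x0 a b (t, v) k < R
    rw [hXp]
    have h7 := h6 k
    rw [neg_neg] at h7
    exact h7
  have hbud : ∀ v ∈ V, -f j0 (Dg262.X x0 a b (-t0, v)) - -f j0 (Dg262.X x0 a b (-t1, v)) ≤
      (q + gap / 8) * (-t0 - -t1) := by
    intro v hv
    have h1 := hle t0 v le_rfl (hVu v hv)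
    have hb0 := hmemS v hv (-t0) ⟨by linarith, le_rfl⟩
    have hb1 := hmemS v hv (-t1) ⟨le_rfl, by linarith⟩
    have h2 := hleg _ hb0
    have h3 := (hm _ h2 _ (nat_leg (fun k => (hbx v (hVI v hv) k).1.le)
      fun k => (hbx v (hVI v hv) k).2.le) (by
        show Dg262.X x0 a b (-t0, v) ≤ _
        rw [hXp]; exact h1)).1
    have h4 := hrec v (hVI v hv)
    have h5' := hDm _ _ _ (hdo t1 v (by linarith) le_rfl (hVu v hv))
    have h6 := pt_Dm (θa := θa) (θb := θb) (w0 := w0) (sa := sa) (sb := sb) (v0 := v0) (ε := ε)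
      (κ := κ) (τ := t1) (v := v) (g := g) (s := s) (q0 := q0) (q1 := q1)
    rw [← hqd, ← hAd] at h6
    have h7 : A * (v - v0) ≤ |A| * u0 := by
      refine (le_abs_self _).trans ?_
      rw [abs_mul]
      exact mul_le_mul_of_nonneg_left (hVu v hv) (abs_nonneg _)
    rw [hXp (-t1) v]
    have h3' : f j0 (rc θa θb w0 sa sb v) ≤ f j0 (Dg262.X x0 a b (-t0, v)) := h3
    have e1 : (q + gap / 8) * (-t0 - -t1) = q * t1 + gap / 8 * t1 - (q + gap / 8) * t0 := by ring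
    rw [e1]
    linarith
  obtain ⟨v, hvV, t, ht, hgood, -, hder⟩ := Sg388.exists_pt_fib hSo
    (plane_lip hK (hν j0) hleg) hV (y0 := -t1) (y := -t0) (a := q + gap / 8) (by linarith) hmemS
    hbud hδ1 hN
  have htI : t ∈ Icc (-t1) (-t0) := ⟨ht.1.le, ht.2.le⟩
  have hbz : ∀ k, 0 < Dg262.X x0 a b (t, v) k ∧ Dg262.X x0 a b (t, v) k < R :=
    hmemS v hvV t htI
  obtain ⟨D, hD, H⟩ := hG (t, v) hgood hbz
  rw [fderiv_swap hD] at hder
  -- the scales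
  obtain ⟨ns, hns, hns2⟩ := exists_seq_forall_of_frequently
    (hvV.1.2.and_eventually self_mem_nhdsWithin)
  have hpos : ∀ l, 0 < ns l := fun l => (hns2 l).2
  have hns0 : Tendsto ns atTop (𝓝 0) := tendsto_nhds_of_tendsto_nhdsWithin hns
  obtain ⟨ψ, hψ, r, hr, T, hsum⟩ := H ns hpos hns0
  have hnψ : Tendsto (fun l => ns (ψ l)) atTop (𝓝[>] 0) := hns.comp hψ.tendsto_atTop
  have hXt := hXp t v
  -- the base
  obtain ⟨τ, hτ⟩ : ∃ τ : ℝ, t = -τ := ⟨-t, by ring⟩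
  subst hτ
  have hτ0 : t0 ≤ τ := by linarith [htI.2]
  have hτ1 : τ ≤ t1 := by linarith [htI.1]
  have hvu := hVu v hvV
  have hvI := hVI v hvV
  set p : Fin 12 → ℝ := Dg262.X x0 a b (-τ, v) with hp
  have hpL : p ∈ Leg monL R := by
    have := hleg (v, -τ) hbz
    exact this
  have hrI : v0 + τ * ε / θa ∈ Icc v1 v2 := by
    have h6 : 0 ≤ τ * ε / θa := by
      have : 0 < τ := by linarith
      positivity
    have h7 : τ * ε / θa ≤ t1 * ε / θa := by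
      rw [div_le_div_iff_of_pos_right hθ]
      exact mul_le_mul_of_nonneg_right hτ1 hε.le
    exact ⟨by linarith, by linarith⟩
  have hq1L : rc θa θb w0 sa sb v ∈ Leg monL R :=
    nat_leg (fun k => (hbx v hvI k).1.le) fun k => (hbx v hvI k).2.le
  have hq2L : rc θa θb w0 sa sb (v0 + τ * ε / θa) ∈ Leg monL R :=
    nat_leg (fun k => (hbx _ hrI k).1.le) fun k => (hbx _ hrI k).2.le
  -- rates
  have hzero := zero_mem
  have hgD : ρ ≤ r 1 := by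
    have h1 := incr_le hs hpL hq1L (by rw [hp, hXp]; exact hle τ v hτ0 hvu) uD_nonneg uD_z
      (fun k hk => ?_) (fun k => (hbx v hvI k).2)
    · have h2 := rate_ge (q := ρ) T (z := 0) (d := 1) (E := 0) (C := 0) (x := 0) (B := 0)
        (H := 0) (p := 0) (F := 0) (lm_raise uD_nonneg uD_z) hzero (by
          filter_upwards [hnψ.eventually h1] with l hl
          exact (hns2 (ψ l)).1.trans hl)
      simpa using h2
    · rw [hp, hXp]
      have hk1 : k = 1 := by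
        by_contra hne
        exact hk (by fin_cases k <;> simp [uD, bx9] at hne ⊢)
      subst hk1
      have e : θb = 2 * θa - 1 - 9 * κ := by linarith
      simp only [rc, natB, bx9]
      simp
      rw [e]
      ring
  have hgC : q0 ≤ r 3 := by
    have h1 := incr_le hs hpL hq2L (by rw [hp, hXp]; exact hle' τ v hτ0 hvu) uC_nonneg uC_z
      (fun k hk => ?_) (fun k => (hbx _ hrI k).2)
    · have h2 := rate_ge (q := q0) T (z := 0) (d := 0) (E := 0) (C := 1) (x := 0) (B := 0)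
        (H := 0) (p := 0) (F := 0) (lm_raise uC_nonneg uC_z) hzero (by
          filter_upwards [hnψ.eventually h1, hnψ.eventually (hC _ hrI)] with l hl hl2
          exact hl2.trans hl)
      simpa using h2
    · rw [hp, hXp]
      have e1 : θa * (1 - (v0 + τ * ε / θa)) = θa * (1 - v0) - ε * τ := by
        field_simp
        ring
      have hk1 : k = 3 ∨ k = 4 := by
        by_contra hne
        push Not at hne
        exact hk (by fin_cases k <;> simp [uC, bx9] at hne ⊢)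
      rcases hk1 with rfl | rfl
      · simp only [rc, natB, bx9]
        simp
        linarith
      · simp only [rc, natB, bx9]
        simp
        linarith
  have hdov := hdo τ v hτ0 hτ1 hvu
  have hrz : 1 - s ≤ r 0 := by
    have h1 := hown _ _ _ hdov
    have h2 := rate_ge (q := 1 - s) T (z := 1) (d := 0) (E := 0) (C := 0) (x := 0) (B := 0)
      (H := 0) (p := 0) (F := 0) uZ_mem hzero (by
        filter_upwards [hnψ.eventually h1] with l hl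
        rw [← hXp] at hl
        exact hl)
    simpa using h2
  -- facts
  have hB : Bs (fun _ => p) (fun l => ns (ψ l)) := by
    have := hBs _ _ _ hdov (fun l => ns (ψ l)) (fun l => hpos _) (hns0.comp hψ.tendsto_atTop)
    rw [← hXp] at this
    exact this
  have hpe : p = natB (w0 + v0 + κ * (v - v0) + -τ) (sa + θa * (1 - v0) + ε * -τ)
        (sb + θb * (1 - v0) + 10 * κ * (v - v0) + (1 + 2 * ε) * -τ) := hXp _ _
  have k1 := hF.K1 _ _ _ _ _ _ _ _ _ _ _ hB T (fun _ => by rw [hpe]; simp [natB, bx9])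
    (fun _ => by rw [hpe]; simp [natB, bx9])
  have h1' := hF.H1 _ _ _ _ _ _ _ _ _ _ _ hB T (fun _ => by rw [hpe]; simp [natB, bx9]; ring)
    (fun _ => by rw [hpe]; simp [natB, bx9]; ring)
  have k2 := hF.K2 _ _ _ _ _ _ _ _ _ _ _ hB T (fun _ => by rw [hpe]; simp [natB, bx9])
  have s3 := hF.S3 _ _ _ _ _ _ _ _ _ _ _ hB T (fun _ => by rw [hpe]; simp [natB, bx9]; ring)
  have hC0 : 0 < r 3 := by linarith
  have hD0 : 0 < r 1 := by linarith
  have hal := d0_alg (q1 := q1) (g := g) hε s2 hrz (hr 2 (by decide)) (hr 3 (by decide))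
    (hr 7 (by decide)) (k1.1 hC0) (h1' hC0) (s3 hD0) k2.2
  rw [hsum, sum_aN, neg_neg] at hder
  linarith

end Crest.Agent.R116.D0n878
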