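import Mathlib

/-!
# (Y3) of 219's cut of `D0neg`: the growth of `D` on the plane `Y` for `β_D < 0` (pure analysis)

* `grow`      : a monotone `G` whose right increments are infinitely often `≥ ρ η` on `S` gains
  `ρ |S|`;
* `dens_left` : at a.e. point of a measurable set `E` the left intervals are half full;
* `meas_freq` : measurability of "infinitely often `ρ y < δ v y`".
-/

open MeasureTheory Set Filter Topology
open scoped NNReal ENNReal

namespace Crest.Agent.D0v348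

/-- (A), only monotonicity is used. -/
theorem grow' {G : ℝ → ℝ} {Y : ℝ} (hY : 0 ≤ Y) (hm : MonotoneOn G (Icc 0 Y)) {S : Set ℝ}
    (hS : MeasurableSet S) (hSY : S ⊆ Ioo 0 Y) {ρ : ℝ}
    (h : ∀ y ∈ S, ∃ᶠ η in 𝓝[>] (0 : ℝ), ρ * η ≤ G (y + η) - G y) :
    ρ * (volume S).toReal ≤ G Y - G 0 := by
  have hm' : MonotoneOn G (uIcc 0 Y) := by rwa [uIcc_of_le hY]
  have h1 := hm'.intervalIntegral_deriv_mem_uIcc
  have h0 : G 0 ≤ G Y := hm ⟨le_rfl, hY⟩ ⟨hY, le_rfl⟩ hY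
  rw [uIcc_of_le (by linarith)] at h1
  refine le_trans ?_ h1.2
  have hi := hm'.intervalIntegrable_deriv
  rw [intervalIntegral.integral_of_le hY]
  have hi' : IntegrableOn (deriv G) (Ioc 0 Y) :=
    (intervalIntegrable_iff_integrableOn_Ioc_of_le hY).1 hi
  have hSc : S ⊆ Ioc 0 Y := hSY.trans Ioo_subset_Ioc_self
  have hfin : volume S ≠ ∞ := by
    refine ne_top_of_le_ne_top ?_ (measure_mono hSY)
    rw [Real.volume_Ioo]
    exact ENNReal.ofReal_ne_top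
  have hd : ∀ᵐ x : ℝ, x ∈ Ioo 0 Y → DifferentiableAt ℝ G x := by
    filter_upwards [hm.ae_differentiableWithinAt_of_mem] with x hx hx'
    exact (hx (Ioo_subset_Icc_self hx')).differentiableAt (Icc_mem_nhds hx'.1 hx'.2)
  have hnn : ∀ x ∈ Ioo 0 Y, 0 ≤ deriv G x := by
    intro x hx
    rw [← derivWithin_of_mem_nhds (Icc_mem_nhds hx.1 hx.2)]
    exact hm.derivWithin_nonneg
  have hge : ∀ᵐ x : ℝ, x ∈ S → ρ ≤ deriv G x := by
    filter_upwards [hd] with x hx hxS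
    have hD := hasDerivAt_iff_tendsto_slope_zero.1 (hx (hSY hxS)).hasDerivAt
    have ht := hD.mono_left (nhdsWithin_mono (0 : ℝ) (fun y (hy : y ∈ Ioi (0 : ℝ)) => ne_of_gt hy))
    refine ge_of_tendsto_of_frequently ht ?_
    refine ((h x hxS).and_eventually self_mem_nhdsWithin).mono ?_
    rintro η ⟨h2, h3⟩
    have h3' : (0 : ℝ) < η := h3
    rw [smul_eq_mul, inv_mul_eq_div, le_div_iff₀ h3']
    exact h2
  calc ρ * (volume S).toReal = ∫ x in S, ρ := by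
        rw [setIntegral_const, smul_eq_mul, mul_comm]; rfl
    _ ≤ ∫ x in S, deriv G x := by
        refine setIntegral_mono_on_ae ?_ (hi'.mono_set hSc) hS hge
        exact integrableOn_const hfin
    _ ≤ ∫ x in Ioc 0 Y, deriv G x := by
        refine setIntegral_mono_set hi' ?_ (Eventually.of_forall hSc)
        rw [EventuallyLE, ← restrict_Ioo_eq_restrict_Ioc, ae_restrict_iff' measurableSet_Ioo]
        exact Eventually.of_forall hnn

/-- (A) in 219's form. -/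
theorem grow {G : ℝ → ℝ} {Y : ℝ} {K : ℝ≥0} (hY : 0 ≤ Y) (hm : MonotoneOn G (Icc 0 Y))
    (_hL : LipschitzOnWith K G (Icc 0 Y)) {S : Set ℝ}
    (hS : MeasurableSet S) (hSY : S ⊆ Ioo 0 Y) {ρ : ℝ} (_hρ : 0 ≤ ρ)
    (h : ∀ y ∈ S, ∃ᶠ η in 𝓝[>] (0 : ℝ), ρ * η ≤ G (y + η) - G y) :
    ρ * (volume S).toReal ≤ G Y - G 0 :=
  grow' hY hm hS hSY h

/-- (A) between two points. -/
theorem grow_ab {G : ℝ → ℝ} {a b : ℝ} (hab : a ≤ b) (hm : MonotoneOn G (Icc a b)) {S : Set ℝ}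
    (hS : MeasurableSet S) (hSY : S ⊆ Ioo a b) {ρ : ℝ}
    (h : ∀ y ∈ S, ∃ᶠ η in 𝓝[>] (0 : ℝ), ρ * η ≤ G (y + η) - G y) :
    ρ * (volume S).toReal ≤ G b - G a := by
  have h1 := grow' (G := fun y => G (a + y)) (Y := b - a) (by linarith)
    (fun x hx y hy hxy => hm ⟨by linarith [hx.1], by linarith [hx.2]⟩
      ⟨by linarith [hy.1], by linarith [hy.2]⟩ (by linarith))
    (S := (fun y => a + y) ⁻¹' S) (measurable_const_add a hS)
    (fun y hy => ⟨by linarith [(hSY hy).1], by linarith [(hSY hy).2]⟩) (ρ := ρ)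
    (fun y hy => (h (a + y) hy).mono fun η hη => by
      have e : a + (y + η) = a + y + η := by ring
      simp only [e]
      exact hη)
  rw [measure_preimage_add] at h1
  have e1 : a + (b - a) = b := by ring
  simpa [e1] using h1

/-- (B): the left Lebesgue density. -/
theorem dens_left {E : Set ℝ} (hE : MeasurableSet E) : ∀ᵐ v : ℝ, v ∈ E →
    ∀ᶠ η in 𝓝[>] (0 : ℝ), η / 2 ≤ (volume (E ∩ Ioo (v - η) v)).toReal := by
  filter_upwards [Besicovitch.ae_tendsto_measure_inter_div_of_measurableSet volume hE] with v hv hvE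
  rw [indicator_of_mem hvE, Pi.one_apply] at hv
  have h34 : ENNReal.ofReal (3 / 4) < 1 := by
    rw [← ENNReal.ofReal_one]
    exact (ENNReal.ofReal_lt_ofReal_iff one_pos).2 (by norm_num)
  filter_upwards [hv.eventually (lt_mem_nhds h34), self_mem_nhdsWithin] with η h1 h2
  have hη : (0 : ℝ) < η := h2
  have hb : volume (Metric.closedBall v η) = ENNReal.ofReal (2 * η) := Real.volume_closedBall v η
  rw [hb] at h1
  have hpos : ENNReal.ofReal (2 * η) ≠ 0 := by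
    rw [Ne, ENNReal.ofReal_eq_zero, not_le]; linarith
  have h3 : ENNReal.ofReal (3 / 4) * ENNReal.ofReal (2 * η) ≤
      volume (E ∩ Metric.closedBall v η) :=
    (ENNReal.le_div_iff_mul_le (Or.inl hpos) (Or.inl ENNReal.ofReal_ne_top)).1 h1.le
  rw [← ENNReal.ofReal_mul (by norm_num)] at h3
  have hsub : E ∩ Metric.closedBall v η ⊆ (E ∩ Ioo (v - η) v) ∪ (Icc v (v + η) ∪ {v - η}) := by
    rintro x ⟨hxE, hx⟩
    rw [Real.closedBall_eq_Icc] at hx
    by_cases hxv : v ≤ x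
    · exact Or.inr (Or.inl ⟨hxv, hx.2⟩)
    · rcases eq_or_lt_of_le hx.1 with h | h
      · exact Or.inr (Or.inr h.symm)
      · exact Or.inl ⟨hxE, h, not_le.1 hxv⟩
  have h4 : volume (E ∩ Metric.closedBall v η) ≤ volume (E ∩ Ioo (v - η) v) + ENNReal.ofReal η := by
    refine (measure_mono hsub).trans ((measure_union_le _ _).trans ?_)
    gcongr
    refine (measure_union_le _ _).trans ?_
    rw [Real.volume_Icc, measure_singleton, add_zero]
    gcongr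
    linarith
  have hfin : volume (E ∩ Ioo (v - η) v) ≠ ∞ := by
    refine ne_top_of_le_ne_top ?_ (measure_mono inter_subset_right)
    rw [Real.volume_Ioo]
    exact ENNReal.ofReal_ne_top
  have h5 := h3.trans h4
  rw [← ENNReal.ofReal_toReal hfin, ← ENNReal.ofReal_add ENNReal.toReal_nonneg hη.le,
    ENNReal.ofReal_le_ofReal_iff (by positivity)] at h5
  linarith

/-- (C): measurability of the bad set. -/
theorem meas_freq {ρ : ℝ} {δ : ℝ → ℝ → ℝ} (hδ : ∀ y : ℝ, 0 < y → Continuous (fun v => δ v y)) :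
    MeasurableSet {v : ℝ | ∀ n : ℕ, ∃ y : ℚ, (0 : ℝ) < y ∧ (y : ℝ) < 1 / ((n : ℝ) + 1) ∧
      ρ * (y : ℝ) < δ v y} := by
  have e : {v : ℝ | ∀ n : ℕ, ∃ y : ℚ, (0 : ℝ) < y ∧ (y : ℝ) < 1 / ((n : ℝ) + 1) ∧
      ρ * (y : ℝ) < δ v y} = ⋂ n : ℕ, ⋃ y : ℚ, {v : ℝ | (0 : ℝ) < y ∧
        (y : ℝ) < 1 / ((n : ℝ) + 1) ∧ ρ * (y : ℝ) < δ v y} := by
    ext v
    simp only [mem_ofPred_eq, mem_iInter, mem_iUnion]
  rw [e]
  refine MeasurableSet.iInter fun n => MeasurableSet.iUnion fun y => ?_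
  by_cases h1 : (0 : ℝ) < y
  · by_cases h2 : (y : ℝ) < 1 / ((n : ℝ) + 1)
    · have e2 : {v : ℝ | (0 : ℝ) < y ∧ (y : ℝ) < 1 / ((n : ℝ) + 1) ∧ ρ * (y : ℝ) < δ v y} =
          {v : ℝ | ρ * (y : ℝ) < δ v y} := by
        ext v
        simp only [mem_ofPred_eq, h1, h2, true_and]
      rw [e2]
      exact (isOpen_lt continuous_const (hδ y h1)).measurableSet
    · have e2 : {v : ℝ | (0 : ℝ) < y ∧ (y : ℝ) < 1 / ((n : ℝ) + 1) ∧ ρ * (y : ℝ) < δ v y} = ∅ := by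
        ext v
        simp only [mem_ofPred_eq, h2, false_and, and_false, mem_empty_iff_false]
      rw [e2]
      exact MeasurableSet.empty
  · have e2 : {v : ℝ | (0 : ℝ) < y ∧ (y : ℝ) < 1 / ((n : ℝ) + 1) ∧ ρ * (y : ℝ) < δ v y} = ∅ := by
      ext v
      simp only [mem_ofPred_eq, h1, false_and, mem_empty_iff_false]
    rw [e2]
    exact MeasurableSet.empty

/-- From the bad set of (C) to the hypothesis of (A). -/
theorem freq_of {ρ : ℝ} {δ : ℝ → ℝ}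
    (h : ∀ n : ℕ, ∃ y : ℚ, (0 : ℝ) < y ∧ (y : ℝ) < 1 / ((n : ℝ) + 1) ∧ ρ * (y : ℝ) < δ y) :
    ∃ᶠ η in 𝓝[>] (0 : ℝ), ρ * η ≤ δ η := by
  intro hev
  obtain ⟨e, he, h1⟩ := mem_nhdsGT_iff_exists_Ioo_subset.1 hev
  obtain ⟨n, hn⟩ := exists_nat_one_div_lt (show (0 : ℝ) < e from he)
  obtain ⟨y, hy0, hyn, hy⟩ := h n
  exact h1 ⟨hy0, hyn.trans hn⟩ hy.le

/-- Off the bad set of (C): `δ y ≤ ρ y` for all small `y` (`δ` continuous on `y > 0`). -/
theorem ev_of_not {ρ : ℝ} {δ : ℝ → ℝ} (hc : ContinuousOn δ (Ioi 0))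
    (h : ¬ ∀ n : ℕ, ∃ y : ℚ, (0 : ℝ) < y ∧ (y : ℝ) < 1 / ((n : ℝ) + 1) ∧ ρ * (y : ℝ) < δ y) :
    ∃ n : ℕ, ∀ y : ℝ, 0 < y → y < 1 / ((n : ℝ) + 1) → δ y ≤ ρ * y := by
  push Not at h
  obtain ⟨n, hn⟩ := h
  refine ⟨n, fun y hy hy' => ?_⟩
  by_contra hlt
  rw [not_le] at hlt
  have hopen : IsOpen {x : ℝ | x ∈ Ioi (0 : ℝ) ∧ ρ * x < δ x} := by
    have h1 : ContinuousOn (fun x => δ x - ρ * x) (Ioi (0 : ℝ)) :=
      hc.sub ((continuous_const.mul continuous_id).continuousOn)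
    have h2 := h1.isOpen_inter_preimage isOpen_Ioi (isOpen_Ioi (a := (0 : ℝ)))
    have e : {x : ℝ | x ∈ Ioi (0 : ℝ) ∧ ρ * x < δ x} =
        Ioi (0 : ℝ) ∩ (fun x => δ x - ρ * x) ⁻¹' Ioi (0 : ℝ) := by
      ext x
      simp only [mem_ofPred_eq, mem_inter_iff, mem_preimage, mem_Ioi, sub_pos]
    rw [e]
    exact h2
  have hopen2 : IsOpen ({x : ℝ | x ∈ Ioi (0 : ℝ) ∧ ρ * x < δ x} ∩ Iio (1 / ((n : ℝ) + 1))) :=
    hopen.inter isOpen_Iio
  obtain ⟨q, hq⟩ := Rat.denseRange_cast.exists_mem_open hopen2 ⟨y, ⟨hy, hlt⟩, hy'⟩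
  exact absurd (hn q hq.1.1 hq.2) (not_le.2 hq.1.2)

end Crest.Agent.D0v348
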