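import Crest.Agent.R116.D0n3_878

/-!
# R116 (K side), LEMMA D0, `β_D < 0` (helper665, for helper219): increments of `C` at the record
pass to the tangent on the plane `Y`, `C` ahead
-/

set_option autoImplicit false
set_option linter.unusedVariables false

open Set Filter Topology MeasureTheory
open scoped NNReal

namespace Crest.Agent.R116.D0yA665

open Crest.Agent.R138
open Crest.Agent.R136
open Crest.Agent.R136.Net191
open Crest.Agent.R116.ChL222
open Crest.Agent.R116.Sg337 (bx9 natB uC)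
open Crest.Agent.R116.SgF665 (wl)
open Crest.Agent.R116.D0F878
open Crest.Agent.R116.D0n878
open Crest.Agent.R116.SgO219 (tan_lim tan_ev)

theorem lm_add {p q : Fin 12 → ℝ} (hp : p ∈ LM) (hq : q ∈ LM) : p + q ∈ LM := by
  intro k e he
  have h1 := hp k e he
  have h2 := hq k e he
  rw [SgF665.wl_add, Pi.add_apply]
  exact add_le_add h1 h2

theorem smul_uC_nonneg {y : ℝ} (hy : 0 ≤ y) : ∀ k, 0 ≤ (y • uC) k := by
  intro k
  rw [Pi.smul_apply, smul_eq_mul]
  exact mul_nonneg hy (uC_nonneg k)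

theorem smul_uC_z {y : ℝ} : ∀ k, k ≠ 1 → k ≠ 3 → k ≠ 4 → (y • uC) k = 0 := by
  intro k h1 h3 h4
  rw [Pi.smul_apply, smul_eq_mul, uC_z k h1 h3 h4, mul_zero]

/-- **increments of `C` on `Y`, `C` ahead** -/
theorem regC {R θa θb w0 sa sb q0 t v : ℝ} {ν lam : (Fin 12 → ℝ) → ℝ} {h : ℕ → ℝ}
    (hs : ∀ p ∈ Leg monL R, ∀ q ∈ Leg monL R, p ⊓ q ∈ Leg monL R → ν p + ν q ≤ ν (p ⊔ q) + ν (p ⊓ q))
    (hθ : 0 < θa) (hβ : 2 * θa - θb - 1 < 0) (ht : t < 0) (hv : v ∈ Ioo (0:ℝ) 1)
    (hbx : ∀ v ∈ Ioo (0:ℝ) 1, ∀ k, 0 < rc θa θb w0 sa sb v k ∧ rc θa θb w0 sa sb v k < R)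
    (hC : ∀ v0 ∈ Ioo (0:ℝ) 1, ∃ κ : ℝ, 0 < κ ∧ ∀ v y : ℝ, |v - v0| ≤ κ → 0 ≤ y → y ≤ κ →
      q0 * y ≤ ν (rc θa θb w0 sa sb v) - ν (rc θa θb w0 sa sb v + y • uC))
    (hpos : ∀ l, 0 < h l) (h0 : Tendsto h atTop (𝓝 0))
    (hT : Ex926.IsTan (Leg monL R) LM ν
      (fun _ => natB (w0 + v + t) (sa + θa * (1 - v)) (sb + θb * (1 - v) + t)) h lam)
    {z c p : ℝ} (hc : (2 * θa - θb - 1) * c + θa * (p - 2 * c - z) ≤ 0) {y : ℝ} (hy : 0 ≤ y) :
    q0 * y ≤ lam (natB z c p) - lam (natB z c p + y • uC) := by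
  have m1 : natB z c p ∈ LM := natB_mem z c p
  have m2 : natB z c p + y • uC ∈ LM := lm_add m1 (lm_raise (smul_uC_nonneg hy) smul_uC_z)
  refine ge_of_tendsto (tan_lim hpos hT m1 m2) ?_
  obtain ⟨κ, hκ, hk⟩ := hC v hv
  -- smallness
  have e1 : Tendsto (fun l => |h l * (c / θa)|) atTop (𝓝 0) := by
    have : Tendsto (fun l => h l * (c / θa)) atTop (𝓝 (0 * (c / θa))) := h0.mul_const _
    rw [zero_mul] at this
    simpa using this.abs
  have e2 : Tendsto (fun l => h l * y) atTop (𝓝 0) := by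
    have : Tendsto (fun l => h l * y) atTop (𝓝 (0 * y)) := h0.mul_const _
    rwa [zero_mul] at this
  have e3 : Tendsto (fun l => h l * (z + c / θa)) atTop (𝓝 0) := by
    have : Tendsto (fun l => h l * (z + c / θa)) atTop (𝓝 (0 * (z + c / θa))) := h0.mul_const _
    rwa [zero_mul] at this
  have hmin : 0 < min κ (min v (1 - v)) := lt_min hκ (lt_min hv.1 (by linarith [hv.2]))
  filter_upwards [tan_ev hT m1, tan_ev hT m2, e1.eventually_lt_const hmin,
    e2.eventually_lt_const hκ, e3.eventually_lt_const (by linarith : (0:ℝ) < -t)]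
    with l l1 l2 s1 s2 s3
  have hl := hpos l
  obtain ⟨v', hv'⟩ : ∃ v', v' = v - h l * (c / θa) := ⟨_, rfl⟩
  have a1 : |v' - v| < min κ (min v (1 - v)) := by
    have : v' - v = -(h l * (c / θa)) := by rw [hv']; ring
    rw [this, abs_neg]; exact s1
  have a2 : |v' - v| ≤ κ := (a1.trans_le (min_le_left _ _)).le
  have a3 := abs_lt.1 (a1.trans_le ((min_le_right _ _).trans (min_le_left _ _)))
  have a4 := abs_lt.1 (a1.trans_le ((min_le_right _ _).trans (min_le_right _ _)))
  have hv'I : v' ∈ Ioo (0:ℝ) 1 := ⟨by linarith [a3.1], by linarith [a4.2]⟩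
  have eθ : θa * (1 - v') = θa * (1 - v) + h l * c := by
    rw [hv']; field_simp; ring
  have hθ' : h l * (c / θa) * θa = h l * c := by field_simp
  -- the two boxes
  have hp : natB (w0 + v + t) (sa + θa * (1 - v)) (sb + θb * (1 - v) + t) + h l • natB z c p =
      natB (w0 + v + t + h l * z) (sa + θa * (1 - v) + h l * c)
        (sb + θb * (1 - v) + t + h l * p) := by
    rw [natB_smul, natB_add]
  have hle : natB (w0 + v + t + h l * z) (sa + θa * (1 - v) + h l * c)
        (sb + θb * (1 - v) + t + h l * p) ≤ rc θa θb w0 sa sb v' := by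
    refine natB_le ?_ (le_of_eq ?_) ?_
    · rw [hv']
      have : h l * (z + c / θa) = h l * z + h l * (c / θa) := by ring
      linarith
    · rw [eθ]; ring
    · have b1 : h l * ((2 * θa - θb - 1) * c + θa * (p - 2 * c - z)) ≤ 0 :=
        mul_nonpos_of_nonneg_of_nonpos hl.le hc
      have b2 : h l * (p - 2 * c - z) ≤ -(2 * θa - θb - 1) * (h l * (c / θa)) := by
        have b3 : θa * (h l * (p - 2 * c - z)) ≤
            θa * (-(2 * θa - θb - 1) * (h l * (c / θa))) := by
          have b4 : θa * (-(2 * θa - θb - 1) * (h l * (c / θa))) =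
              -(2 * θa - θb - 1) * (h l * (c / θa) * θa) := by ring
          rw [b4, hθ']
          nlinarith
        exact le_of_mul_le_mul_left b3 hθ
      rw [hv']
      nlinarith
  have hqL : rc θa θb w0 sa sb v' ∈ Leg monL R :=
    nat_leg (fun k => (hbx v' hv'I k).1.le) fun k => (hbx v' hv'I k).2.le
  have e5 : natB (w0 + v + t) (sa + θa * (1 - v)) (sb + θb * (1 - v) + t) +
      h l • (natB z c p + y • uC) =
      natB (w0 + v + t + h l * z) (sa + θa * (1 - v) + h l * c)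
        (sb + θb * (1 - v) + t + h l * p) + (h l * y) • uC := by
    rw [smul_add, ← add_assoc, hp, smul_smul]
  rw [hp] at l1
  rw [e5] at l2
  have hy' : 0 ≤ h l * y := mul_nonneg hl.le hy
  have h1 := incr hs hle (smul_uC_nonneg hy') (fun k hk' => by
    have hk1 : k = 3 ∨ k = 4 := by
      by_contra hne
      push Not at hne
      refine hk' ?_
      rw [Pi.smul_apply, smul_eq_mul]
      have : uC k = 0 := by
        fin_cases k <;> simp [uC, bx9] at hne ⊢
      rw [this, mul_zero]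
    rcases hk1 with rfl | rfl <;>
    · simp only [rc, natB, bx9]
      simp
      linarith) l1 hqL l2
  have h2 := hk v' (h l * y) a2 hy' s2.le
  rw [le_div_iff₀ hl, hp, e5]
  calc q0 * y * h l = q0 * (h l * y) := by ring
    _ ≤ _ := h2.trans h1

end Crest.Agent.R116.D0yA665
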