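import Crest.Agent.R116.D0n3_878
import Crest.Agent.R116.D0w_635

/-!
# R116 (K side), LEMMA D0 for `β_D < 0`: growth of `D` beside the record (helper635; 219's 22742 (B))

`pY = R(v) + t (1; 0, 1)`, `t < 0`. If the flag `D` is alive (slope `≥ ρ` at small steps) at the
record boxes of a measurable set `E` with left density `≥ 1/2` at `v`, then the `D`-increments at
`pY` are `≥ (ρ/2) y` for ALL small `y`.
-/

set_option autoImplicit false
set_option linter.unusedVariables false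

open Set Filter Topology MeasureTheory
open scoped NNReal

namespace Crest.Agent.R116.D0yB635

open Crest.Agent.R138
open Crest.Agent.R136
open Crest.Agent.R136.Net191
open Crest.Agent.R116.ChL222
open Crest.Agent.R116.Sg337 (bx9 natB Dm uC)
open Crest.Agent.R116.SgF665 (wl)
open Crest.Agent.R116.D0F878
open Crest.Agent.R116.D0n878

/-- the box beside the record -/
def pY (θa θb w0 sa sb v t : ℝ) : Fin 12 → ℝ :=
  natB (w0 + v + t) (sa + θa * (1 - v)) (sb + θb * (1 - v) + t)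

theorem uD_one : uD 1 = 1 := rfl

theorem uD_ne {k : Fin 12} (hk : uD k ≠ 0) : k = 1 := by
  by_contra h
  apply hk
  fin_cases k <;> simp [uD, bx9] at h ⊢

theorem pY_one (θa θb w0 sa sb v t : ℝ) : pY θa θb w0 sa sb v t 1 =
    sb + θb * (1 - v) - 2 * (sa + θa * (1 - v)) - (w0 + v) := by
  simp [pY, natB, bx9]; ring

theorem rc_one (θa θb w0 sa sb v : ℝ) : rc θa θb w0 sa sb v 1 =
    sb + θb * (1 - v) - 2 * (sa + θa * (1 - v)) - (w0 + v) := by
  simp [rc, natB, bx9]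

/-- `pY ≤ R(v)` -/
theorem pY_le {θa θb w0 sa sb v t : ℝ} (ht : t ≤ 0) :
    pY θa θb w0 sa sb v t ≤ rc θa θb w0 sa sb v :=
  natB_le (by linarith) le_rfl (by linarith)

/-- `pY + y e_D ≤ R(v + y/β)` for `0 ≤ y ≤ t β` -/
theorem pY_raise {θa θb w0 sa sb v t y : ℝ} (hθ : 0 < θa) (hβ : 2 * θa - θb - 1 < 0)
    (hy : 0 ≤ y) (hyt : t ≤ y / (2 * θa - θb - 1)) :
    pY θa θb w0 sa sb v t + y • uD ≤ rc θa θb w0 sa sb (v + y / (2 * θa - θb - 1)) := by
  set β := 2 * θa - θb - 1 with hβd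
  have hu : y / β ≤ 0 := div_nonpos_of_nonneg_of_nonpos hy hβ.le
  have he : β * (y / β) = y := by rw [← mul_div_assoc, mul_div_cancel_left₀ _ hβ.ne]
  have h1 : pY θa θb w0 sa sb v t + y • uD ≤
      natB (w0 + v + t) (sa + θa * (1 - v)) (sb + θb * (1 - v) + t + y) := by
    intro k
    fin_cases k <;> simp [pY, uD, natB, bx9] <;> linarith
  refine h1.trans (natB_le (by linarith) ?_ (le_of_eq ?_))
  · nlinarith
  · have : β * (y / β) = (2 * θa - θb - 1) * (y / β) := by rw [hβd]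
    nlinarith

theorem pY_raise_one {θa θb w0 sa sb v t y : ℝ} (hβ : 2 * θa - θb - 1 < 0) :
    (pY θa θb w0 sa sb v t + y • uD) 1 = rc θa θb w0 sa sb (v + y / (2 * θa - θb - 1)) 1 := by
  rw [Pi.add_apply, Pi.smul_apply, smul_eq_mul, uD_one, pY_one, rc_one]
  have he : (2 * θa - θb - 1) * (y / (2 * θa - θb - 1)) = y := by
    rw [← mul_div_assoc, mul_div_cancel_left₀ _ hβ.ne]
  nlinarith

/-- measure of the set of the steps -/
theorem vol_steps {E : Set ℝ} {v β y : ℝ} (hβ : β < 0) :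
    (volume {x : ℝ | x ∈ Ioo 0 y ∧ v + x / β ∈ E}).toReal =
      -β * (volume (E ∩ Ioo (v - (-y / β)) v)).toReal := by
  have e : {x : ℝ | x ∈ Ioo 0 y ∧ v + x / β ∈ E} =
      (fun x : ℝ => x * β⁻¹) ⁻¹' ((fun u : ℝ => v + u) ⁻¹' (E ∩ Ioo (v - (-y / β)) v)) := by
    ext x
    simp only [mem_ofPred_eq, mem_Ioo, mem_preimage, mem_inter_iff]
    rw [← div_eq_mul_inv]
    have h1 : (v - -y / β < v + x / β) ↔ x < y := by
      have e1 : -y / β = -(y / β) := by ring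
      rw [e1, sub_neg_eq_add, add_lt_add_iff_left, div_lt_div_right_of_neg hβ]
    have h2 : (v + x / β < v) ↔ 0 < x := by
      rw [add_lt_iff_neg_left]
      constructor
      · intro h
        by_contra hcon
        push Not at hcon
        exact absurd (div_nonneg_of_nonpos hcon hβ.le) (not_le.2 h)
      · intro h
        exact div_neg_of_pos_of_neg h hβ
    rw [h1, h2]
    tauto
  rw [e, Real.volume_preimage_mul_right (inv_ne_zero hβ.ne), measure_preimage_add, inv_inv,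
    ENNReal.toReal_mul, ENNReal.toReal_ofReal (abs_nonneg _), abs_of_neg hβ]

/-- **growth of `D` beside the record** -/
theorem growD {R K : ℝ} {ν : (Fin 12 → ℝ) → ℝ} {θa θb w0 sa sb v t ρ : ℝ} {E : Set ℝ}
    (hs : ∀ p ∈ Leg monL R, ∀ q ∈ Leg monL R, p ⊓ q ∈ Leg monL R →
      ν p + ν q ≤ ν (p ⊔ q) + ν (p ⊓ q))
    (hθ : 0 < θa) (hβ : 2 * θa - θb - 1 < 0) (ht : t < 0) (hv : v ∈ Ioo (0:ℝ) 1)
    (hbx : ∀ v ∈ Ioo (0:ℝ) 1, ∀ k, 0 < rc θa θb w0 sa sb v k ∧ rc θa θb w0 sa sb v k < R)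
    (hK : 0 ≤ K) (hν : ∀ p ∈ Leg monL R, ∀ q ∈ Leg monL R, |ν p - ν q| ≤ K * ‖p - q‖)
    (hm : ∀ p ∈ Leg monL R, ∀ q ∈ Leg monL R, p ≤ q →
      ν q ≤ ν p ∧ ν p - ν q ≤ ∑ i, (q i - p i))
    (hρ : 0 ≤ ρ) (hE : MeasurableSet E) (hEI : E ⊆ Ioo 0 1)
    (hf : ∀ v ∈ E, ∃ᶠ y in 𝓝[>] (0:ℝ),
      ρ * y ≤ ν (rc θa θb w0 sa sb v) - ν (rc θa θb w0 sa sb v + y • uD))
    (hd : ∀ᶠ η in 𝓝[>] (0:ℝ), η / 2 ≤ (volume (E ∩ Ioo (v - η) v)).toReal)
    (hpY : ∀ k, 0 < natB (w0 + v + t) (sa + θa * (1 - v)) (sb + θb * (1 - v) + t) k) :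
    ∀ᶠ y in 𝓝[>] (0:ℝ), ρ / 2 * y ≤
      ν (natB (w0 + v + t) (sa + θa * (1 - v)) (sb + θb * (1 - v) + t)) -
      ν (natB (w0 + v + t) (sa + θa * (1 - v)) (sb + θb * (1 - v) + t) + y • uD) := by
  set β := 2 * θa - θb - 1 with hβd
  change ∀ᶠ y in 𝓝[>] (0:ℝ), ρ / 2 * y ≤ ν (pY θa θb w0 sa sb v t) -
    ν (pY θa θb w0 sa sb v t + y • uD)
  set P := pY θa θb w0 sa sb v t with hP
  have hPR : ∀ k, P k < R := fun k => (pY_le ht.le k).trans_lt (hbx v hv k).2
  have hPleg : P ∈ Leg monL R := nat_leg (fun k => (hpY k).le) fun k => (hPR k).le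
  -- room
  have hev1 : ∀ᶠ y in 𝓝[>] (0:ℝ), y < R - P 1 :=
    (tendsto_id.mono_left nhdsWithin_le_nhds).eventually_lt_const (by linarith [hPR 1])
  have hev2 : ∀ᶠ y in 𝓝[>] (0:ℝ), y < t * β :=
    (tendsto_id.mono_left nhdsWithin_le_nhds).eventually_lt_const (mul_pos_of_neg_of_neg ht hβ)
  have hev3 : ∀ᶠ y in 𝓝[>] (0:ℝ), y < -β * v :=
    (tendsto_id.mono_left nhdsWithin_le_nhds).eventually_lt_const
      (mul_pos (by linarith) hv.1)
  have hsc : Tendsto (fun y : ℝ => -y / β) (𝓝[>] 0) (𝓝[>] 0) := by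
    refine tendsto_nhdsWithin_iff.2 ⟨?_, ?_⟩
    · have h1 : Tendsto (fun y : ℝ => -y / β) (𝓝 0) (𝓝 (-0 / β)) :=
        ((continuous_neg.div_const β).tendsto 0)
      rw [neg_zero, zero_div] at h1
      exact h1.mono_left nhdsWithin_le_nhds
    · filter_upwards [self_mem_nhdsWithin] with y hy
      have hy' : (0:ℝ) < y := hy
      exact div_pos_of_neg_of_neg (by linarith) hβ
  filter_upwards [hev1, hev2, hev3, hsc.eventually hd, self_mem_nhdsWithin] with Y h1 h2 h3 h4 h5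
  have hY : (0:ℝ) < Y := h5
  -- legality
  have hleg : ∀ y, 0 ≤ y → y ≤ Y → P + y • uD ∈ Leg monL R := by
    intro y hy hyY
    refine leg_raise hPleg (fun k => ?_) (fun k a b c => ?_) (fun k => ?_)
    · rw [Pi.smul_apply, smul_eq_mul]; exact mul_nonneg hy (uD_nonneg k)
    · rw [Pi.smul_apply, smul_eq_mul, uD_z k a b c, mul_zero]
    · rw [Pi.smul_apply, smul_eq_mul]
      by_cases hk : uD k = 0
      · rw [hk, mul_zero, add_zero]; exact (hPR k).le
      · rw [uD_ne hk, uD_one]; linarith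
  have hle : ∀ y y' : ℝ, y ≤ y' → P + y • uD ≤ P + y' • uD := by
    intro y y' hyy k
    simp only [Pi.add_apply, Pi.smul_apply, smul_eq_mul]
    have := mul_le_mul_of_nonneg_right hyy (uD_nonneg k)
    linarith
  set Gf : ℝ → ℝ := fun y => ν P - ν (P + y • uD) with hG
  have hmono : MonotoneOn Gf (Icc 0 Y) := by
    intro y hy y' hy' hyy
    have := (hm _ (hleg y hy.1 hy.2) _ (hleg y' hy'.1 hy'.2) (hle y y' hyy)).1
    show ν P - ν (P + y • uD) ≤ ν P - ν (P + y' • uD)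
    linarith
  obtain ⟨K1, hK1⟩ : ∃ K1 : ℝ≥0, (K1 : ℝ) = K * ‖(uD : Fin 12 → ℝ)‖ :=
    ⟨⟨K * ‖(uD : Fin 12 → ℝ)‖, by positivity⟩, rfl⟩
  have hlip : LipschitzOnWith K1 Gf (Icc 0 Y) := by
    refine LipschitzOnWith.of_dist_le_mul fun y hy y' hy' => ?_
    rw [Real.dist_eq, Real.dist_eq, hK1]
    have e1 : Gf y - Gf y' = -(ν (P + y • uD) - ν (P + y' • uD)) := by
      simp only [hG]; ring
    rw [e1, abs_neg]
    refine (hν _ (hleg y hy.1 hy.2) _ (hleg y' hy'.1 hy'.2)).trans (le_of_eq ?_)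
    rw [add_sub_add_left_eq_sub, ← sub_smul, norm_smul, Real.norm_eq_abs]
    ring
  -- the set of the good steps
  set S : Set ℝ := {x : ℝ | x ∈ Ioo 0 Y ∧ v + x / β ∈ E} with hS
  have hSm : MeasurableSet S := by
    have : S = Ioo 0 Y ∩ (fun x : ℝ => v + x / β) ⁻¹' E := rfl
    rw [this]
    exact measurableSet_Ioo.inter (hE.preimage (by fun_prop))
  have hSf : ∀ y ∈ S, ∃ᶠ η in 𝓝[>] (0:ℝ), ρ * η ≤ Gf (y + η) - Gf y := by
    intro y hy
    obtain ⟨⟨hy0, hyY⟩, hyE⟩ := hy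
    have hvI := hEI hyE
    have hroom : ∀ᶠ η in 𝓝[>] (0:ℝ), η < Y - y :=
      (tendsto_id.mono_left nhdsWithin_le_nhds).eventually_lt_const (by linarith)
    refine ((hf _ hyE).and_eventually (hroom.and self_mem_nhdsWithin)).mono ?_
    rintro η ⟨g1, g2, g3⟩
    have hη : (0:ℝ) < η := g3
    have hrc : rc θa θb w0 sa sb (v + y / β) ∈ Leg monL R :=
      nat_leg (fun k => (hbx _ hvI k).1.le) fun k => (hbx _ hvI k).2.le
    have hyt : t ≤ y / β := by
      rw [le_div_iff_of_neg hβ]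
      linarith
    have hpq : P + y • uD ≤ rc θa θb w0 sa sb (v + y / β) := pY_raise hθ hβ hy0.le hyt
    have e2 : P + y • uD + η • uD = P + (y + η) • uD := by rw [add_smul, add_assoc]
    have key := incr hs (u := η • uD) hpq
      (fun k => by rw [Pi.smul_apply, smul_eq_mul]; exact mul_nonneg hη.le (uD_nonneg k))
      (fun k hk => by
        rw [Pi.smul_apply, smul_eq_mul] at hk
        have hk1 := uD_ne (fun h => hk (by rw [h, mul_zero]))
        rw [hk1]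
        exact pY_raise_one hβ)
      (hleg y hy0.le hyY.le) hrc (by rw [e2]; exact hleg _ (by linarith) (by linarith))
    rw [e2] at key
    show ρ * η ≤ (ν P - ν (P + (y + η) • uD)) - (ν P - ν (P + y • uD))
    linarith
  have hgr := D0w635.growth hY.le hmono hlip hSm (fun x hx => hx.1) hρ hSf
  have hvol : Y / 2 ≤ (volume S).toReal := by
    rw [hS, vol_steps hβ]
    have h6 : -β * (-Y / β / 2) ≤ -β * (volume (E ∩ Ioo (v - (-Y / β)) v)).toReal :=
      mul_le_mul_of_nonneg_left h4 (by linarith)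
    have h7 : -β * (-Y / β / 2) = Y / 2 := by
      have := hβ.ne
      field_simp
    linarith
  have e0 : Gf 0 = 0 := by
    simp only [hG, zero_smul, add_zero, sub_self]
  rw [e0, sub_zero] at hgr
  have h8 : ρ * (Y / 2) ≤ ρ * (volume S).toReal := mul_le_mul_of_nonneg_left hvol hρ
  show ρ / 2 * Y ≤ Gf Y
  linarith

end Crest.Agent.R116.D0yB635
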