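import Crest.Agent.R116.D0y2_219
import Crest.Agent.R116.D0yA_665
import Crest.Agent.R116.D0yB_635

/-!
# R116 (K side), LEMMA D0 for `β_D < 0`, part 3 (helper219): the a.e. form on the plane `Y`

* **`loc_Y`** : at a.e. point of `Y` above the heights at which `D` is live, every derivative of `ν`
  along `(1; 0, 1)` is `≤ -(6 - 4 s)`
* `exists_t0` : the box is positive for `-t0 < t` on a compact set of heights
-/

set_option autoImplicit false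
set_option linter.unusedVariables false

open Set Filter Topology MeasureTheory
open scoped NNReal

namespace Crest.Agent.R116.D0y219

open Crest.Agent.R138
open Crest.Agent.R136
open Crest.Agent.R136.Net191
open Crest.Agent.R136.Dg219 (mw gC dhC nC gset mem_gset lf gC_eq gC_zero nC_zero nC_of Walls OutS
  dirC leg_outC leg_legal mw_full)
open Crest.Agent.R116.ChL222
open Crest.Agent.R116.Sg337 (bx9 natB uC)
open Crest.Agent.R116.SgF665 (wl)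
open Crest.Agent.R116.D0F878
open Crest.Agent.R116.D0n878
open Crest.Agent.R116.SgO219
open Dg262 (SupOn)

theorem pY_le_rc {θa θb w0 sa sb t v : ℝ} (ht : t ≤ 0) :
    pY θa θb w0 sa sb t v ≤ rc θa θb w0 sa sb v := by
  unfold pY rc
  exact natB_le (by linarith) le_rfl (by linarith)

/-- **the a.e. form on `Y`** -/
theorem loc_Y {J : Type*} [Finite J] {f : J → (Fin 12 → ℝ) → ℝ} {j0 : J}
    {R K s q0 ρd θa θb w0 sa sb : ℝ} (hK : 0 ≤ K)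
    (hν : ∀ j, ∀ p ∈ Leg monL R, ∀ q ∈ Leg monL R, |f j p - f j q| ≤ K * ‖p - q‖)
    (hm : ∀ p ∈ Leg monL R, ∀ q ∈ Leg monL R, p ≤ q →
      f j0 q ≤ f j0 p ∧ f j0 p - f j0 q ≤ ∑ i, (q i - p i))
    (hs : ∀ p ∈ Leg monL R, ∀ q ∈ Leg monL R, p ⊓ q ∈ Leg monL R →
      f j0 p + f j0 q ≤ f j0 (p ⊔ q) + f j0 (p ⊓ q))
    (hθ : 0 < θa) (hβ : 2 * θa - θb - 1 < 0) (s2 : 2 * s < 1) (hq0 : 0 < q0) (hρ : 0 < ρd)
    (hbx : ∀ v ∈ Ioo (0:ℝ) 1, ∀ k, 0 < rc θa θb w0 sa sb v k ∧ rc θa θb w0 sa sb v k < R)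
    (hC : ∀ v0 ∈ Ioo (0:ℝ) 1, ∃ κ : ℝ, 0 < κ ∧ ∀ v y : ℝ, |v - v0| ≤ κ → 0 ≤ y → y ≤ κ →
      q0 * y ≤ f j0 (rc θa θb w0 sa sb v) - f j0 (rc θa θb w0 sa sb v + y • uC))
    {E : Set ℝ} (hE : MeasurableSet E) (hEI : E ⊆ Ioo 0 1)
    (hf : ∀ v ∈ E, ∃ᶠ y in 𝓝[>] (0:ℝ), ρd * y ≤
      f j0 (rc θa θb w0 sa sb v) - f j0 (rc θa θb w0 sa sb v + y • uD))
    (hF : ∀ t v : ℝ, t < 0 → 0 < v + t → v < 1 → (∀ k, 0 < pY θa θb w0 sa sb t v k) →
      FactsY (Leg monL R) f j0 (pY θa θb w0 sa sb t v) s) :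
    ∀ᵐ y : ℝ × ℝ, y.1 < 0 → 0 < y.2 + y.1 → y.2 ∈ E →
      (∀ k, 0 < pY θa θb w0 sa sb y.1 y.2 k) → ∀ D : ℝ × ℝ →L[ℝ] ℝ,
      HasFDerivAt (fun y => f j0 (Dg262.X (natB w0 (sa + θa) (sb + θb)) (natB 1 0 1)
        (natB 1 (-θa) (-θb)) y)) D y → D (1, 0) ≤ -(6 - 4 * s) := by
  have key := leg_outC monL hK (hν j0) hm hs (x0 := natB w0 (sa + θa) (sb + θb))
    (b := natB 1 (-θa) (-θb)) aY_nonneg
  have hdens : ∀ᵐ y : ℝ × ℝ, y.2 ∈ E →
      ∀ᶠ η in 𝓝[>] (0:ℝ), η / 2 ≤ (volume (E ∩ Ioo (y.2 - η) y.2)).toReal := by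
    have h1 := D0w635.dens_left hE
    have h2 : Measure.QuasiMeasurePreserving (Prod.snd : ℝ × ℝ → ℝ) volume volume := by
      rw [Measure.volume_eq_prod]
      exact Measure.quasiMeasurePreserving_snd
    exact h2.ae h1
  filter_upwards [key, hdens] with y hy hd ht hvt hvE hpos D' hD'
  obtain ⟨t, v⟩ := y
  simp only at ht hvt hvE hpos hd
  have hv : v ∈ Ioo (0:ℝ) 1 := hEI hvE
  have hbox : ∀ k, 0 < pY θa θb w0 sa sb t v k ∧ pY θa θb w0 sa sb t v k < R := fun k =>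
    ⟨hpos k, (pY_le_rc ht.le k).trans_lt (hbx v hv k).2⟩
  obtain ⟨D, hD, H⟩ := hy (O_nat (by rw [X_pY]; exact hbox))
  rw [hD'.unique hD]
  rw [L_nat] at H
  have H' : ∀ h : ℕ → ℝ, (∀ l, 0 < h l) → Tendsto h atTop (𝓝 0) → ∀ lam : (Fin 12 → ℝ) → ℝ,
      Ex926.IsTan (Leg monL R) LM (f j0) (fun _ => pY θa θb w0 sa sb t v) h lam →
        ∃ (φ : ℕ → (Fin 12 → ℝ) → ℝ) (r : ℕ → ℝ),
          OutS (gC (natB 1 0 1) (natB 1 (-θa) (-θb))) LM (dhC (natB 1 0 1) (natB 1 (-θa) (-θb)))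
            (nC (natB 1 0 1) (natB 1 (-θa) (-θb))) lam (D (1, 0), D (0, 1)) φ r := by
    intro h h1 h2 lam h3
    exact H h h1 h2 lam (by rw [X_pY]; exact h3)
  exact loc_pt (ρd := ρd / 2) hK hν hm hs hθ hβ s2 hq0 (by linarith) hbox H'
    (fun h lam h1 h2 h3 z c p hc y hy =>
      D0yA665.regC hs hθ hβ ht hv hbx hC h1 h2 h3 hc hy)
    (D0yB635.growD hs hθ hβ ht hv hbx hK (hν j0) hm hρ.le hE hEI hf (hd hvE) hpos)
    (hF t v ht hvt hv.2 hpos)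

/-- positivity of the box near a compact set of heights -/
theorem exists_t0 {θa θb w0 sa sb v1 v2 : ℝ}
    (h1 : ∀ k, 0 < rc θa θb w0 sa sb v1 k) (h2 : ∀ k, 0 < rc θa θb w0 sa sb v2 k)
    (hv1 : 0 < v1) (h12 : v1 < v2) :
    ∃ t0 : ℝ, 0 < t0 ∧ ∀ t v : ℝ, -t0 < t → t < 0 → v ∈ Icc v1 v2 →
      0 < v + t ∧ ∀ k, 0 < pY θa θb w0 sa sb t v k := by
  have hne : (Finset.univ : Finset (Fin 12)).Nonempty := Finset.univ_nonempty
  obtain ⟨m0, hm0, hmk⟩ : ∃ m0 : ℝ, 0 < m0 ∧ ∀ k, m0 ≤ rc θa θb w0 sa sb v1 k ∧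
      m0 ≤ rc θa θb w0 sa sb v2 k := by
    refine ⟨Finset.univ.inf' hne fun k => min (rc θa θb w0 sa sb v1 k) (rc θa θb w0 sa sb v2 k),
      ?_, fun k => ?_⟩
    · rw [Finset.lt_inf'_iff]
      exact fun k _ => lt_min (h1 k) (h2 k)
    · have h3 := Finset.inf'_le (fun k => min (rc θa θb w0 sa sb v1 k) (rc θa θb w0 sa sb v2 k))
        (Finset.mem_univ k)
      exact ⟨h3.trans (min_le_left _ _), h3.trans (min_le_right _ _)⟩
  refine ⟨min (m0 / 2) v1, lt_min (by linarith) hv1, fun t v ht ht0 hv => ?_⟩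
  have t1 : -(m0 / 2) < t := lt_of_le_of_lt (by linarith [min_le_left (m0 / 2) v1]) ht
  have t2 : -v1 < t := lt_of_le_of_lt (by linarith [min_le_right (m0 / 2) v1]) ht
  refine ⟨by linarith [hv.1], fun k => ?_⟩
  have e1 : pY θa θb w0 sa sb t v k = rc θa θb w0 sa sb v k + t * natB 1 0 1 k := by
    unfold pY rc
    fin_cases k <;> simp [natB, bx9] <;> ring
  have e2 : 0 ≤ natB 1 0 1 k ∧ natB 1 0 1 k ≤ 2 := by
    fin_cases k <;> simp [natB, bx9] <;> norm_num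
  have e3 : m0 ≤ rc θa θb w0 sa sb v k := by
    obtain ⟨a1, a2⟩ := hmk k
    have h3 : 0 < v2 - v1 := by linarith
    have e4 : (v2 - v1) * rc θa θb w0 sa sb v k =
        (v2 - v) * rc θa θb w0 sa sb v1 k + (v - v1) * rc θa θb w0 sa sb v2 k := by
      unfold rc
      fin_cases k <;> simp [natB, bx9] <;> ring
    have e5 : (v2 - v) * m0 ≤ (v2 - v) * rc θa θb w0 sa sb v1 k :=
      mul_le_mul_of_nonneg_left a1 (by linarith [hv.2])
    have e6 : (v - v1) * m0 ≤ (v - v1) * rc θa θb w0 sa sb v2 k :=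
      mul_le_mul_of_nonneg_left a2 (by linarith [hv.1])
    have e7 : (v2 - v1) * m0 ≤ (v2 - v1) * rc θa θb w0 sa sb v k := by
      rw [e4]; linarith
    exact le_of_mul_le_mul_left e7 h3
  rw [e1]
  nlinarith [e2.1, e2.2]

end Crest.Agent.R116.D0y219
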