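import Crest.Agent.R116.D0p_878

/-!
# R116 (K side), LEMMA D0, `β_D ≤ 0` (helper665, for helper219): inputs of the first level over `CtxT`

* `hbx_T` : the record boxes are in the interior
* `hC_loc` : `C`-increments at the record, uniform near every height
-/

set_option autoImplicit false
set_option linter.unusedVariables false

open Finset Filter Topology MeasureTheory Set

namespace Crest.Agent.R116.D0y3a665

open Crest.Agent.R138.Ex926 (Base U IsTan)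
open Crest.Agent.R136
open Crest.Agent.R136.MkA627
open Crest.Agent.R136.TD627
open Crest.Agent.R136.Net191
open Crest.Agent.R136.Lq196
open Crest.Agent.R116.ChL222
open Crest.Agent.R116.PL504 (nb rL DN eL βL oL Shift)
open Crest.Agent.R116.Xd954 (cs xs FlagX Mrg exists_mrg)
open Crest.Agent.R116.Sg337 (bx9 natB Dm uC eL_bx9 nb_natB DN_Dm)
open Crest.Agent.R116.Gd222 (TSet sN PDL DT)
open Crest.Agent.R116.KI439
open Crest.Agent.R116.KF439 (PL)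
open Crest.Agent.R116.Tw468 (OutT OutR)
open Crest.Agent.R116.CtxB468
open Crest.Agent.R116.KTop387 (NumL)
open Crest.Agent.R116.KTie794 (D0T Mic)
open Crest.Agent.R116.D0n878
open Crest.Agent.R116.D0F878 (LinTanD)
open Crest.Agent.R116.D0r708 (rL_natB d0r_all own_e0)
open Crest.Agent.R116.D0p878

theorem rc_eq (θa θb w0 sa sb v : ℝ) : rc θa θb w0 sa sb v = rL θa θb w0 sa sb v := by
  rw [rL_natB]; rfl

section ctx

variable {G : Geo TSet (Fin 2)} {L : ℕ → ℕ → LRay} {r : ℕ → ℝ} {g s : ℝ} {θ q : Fin 2 → ℝ}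
    {Rg : ℝ} {B : Base} {I : ℕ → Finset (ℕ × ℝ)} {lev : ℕ → ℚ → ℕ} {A : ℕ → ℝ}
    {f : ℕ → ℚ → ℕ → ℤ → ℕ} {b : ℕ → ℚ → ℕ → TSet} {vm : ℕ → ℚ → ℝ} {w : Fin 2 → ℕ → ℚ → ℝ}
    {fr : ℕ → ℚ → ℕ × ℝ → LInc} {fl : ℕ → ℕ × ℝ → LInc} {sc : Fin 12 → ℕ → ℝ}
    {w0 sa sb δ R : ℝ} {I0 I' : ℕ → Finset (ℕ × ℝ)} {ν own : (Fin 12 → ℝ) → ℝ} {c₀ : ℝ}

/-- **record boxes are interior** -/
theorem hbx_T
    (H : CtxT G L r g s θ q Rg B I lev A f b vm w fr fl sc w0 sa sb δ R I0 I' ν own c₀)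
    (hR0 : w0 + (θ 1 + sb) < R) (hR1 : w0 + 1 + sb < R) :
    ∀ v ∈ Set.Ioo (0:ℝ) 1, ∀ k, 0 < rc (θ 0) (θ 1) w0 sa sb v k ∧
      rc (θ 0) (θ 1) w0 sa sb v k < R := by
  intro v hv k
  rw [rc_eq]
  have h1 := H.sh.rL_pos hv.1.le hv.2.le k
  refine ⟨H.sh.d0.trans_le h1, ?_⟩
  have sh' : Shift (θ 0) (θ 1) w0 sa sb δ (max (w0 + (θ 1 + sb)) (w0 + 1 + sb)) :=
    ⟨H.sh.d0, H.sh.z, H.sh.c0, H.sh.c1, H.sh.D0, H.sh.D1, le_max_left _ _, le_max_right _ _⟩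
  exact ((sh'.rL_leg hv.1.le hv.2.le).2 k).trans_lt (max_lt hR0 hR1)

/-- **the `C`-increments at the record**, uniform near every height -/
theorem hC_loc {g : ℝ}
    (H : CtxT G L r g s θ q Rg B I lev A f b vm w fr fl sc w0 sa sb δ R I0 I' ν own c₀)
    (hR0 : w0 + (θ 1 + sb) < R) (hR1 : w0 + 1 + sb < R) (hθ : 0 < θ 0)
    (hRg : θ 0 + |θ 1| + 1 ≤ Rg) (hV1 : InvT PL B I 1 fl (sc 1))
    (h78 : (VisT B I fl sc 7 ∨ VisT B I fl sc 8) → θ 0 - θ 1 ≤ 1)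
    (h2 : VisT B I fl sc 2 → 2 * θ 0 - θ 1 ≤ 2) :
    ∀ v0 ∈ Set.Ioo (0:ℝ) 1, ∃ κ : ℝ, 0 < κ ∧ ∀ v y : ℝ, |v - v0| ≤ κ → 0 ≤ y → y ≤ κ →
      q 0 * y ≤ ν (rc (θ 0) (θ 1) w0 sa sb v) - ν (rc (θ 0) (θ 1) w0 sa sb v + y • uC) := by
  intro v hv
  obtain ⟨hv0, hv1⟩ := hv
  obtain ⟨a, b', hX⟩ := H.fX
  obtain ⟨κ, hκ, hn⟩ := near_box H hR0 hR1 hθ hRg hv0 hv1
  have hθv : 0 < θ 0 * (1 - v) := mul_pos hθ (by linarith)
  have t1 : |θ 1 * (1 - v)| ≤ |θ 1| := by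
    rw [abs_mul, abs_of_pos (by linarith : (0:ℝ) < 1 - v)]
    exact mul_le_of_le_one_right (abs_nonneg _) (by linarith)
  have t2 := abs_le.1 t1
  have t3 : θ 0 * (1 - v) ≤ θ 0 := mul_le_of_le_one_right hθ.le (by linarith)
  obtain ⟨d, hm⟩ := exists_mrg (k0 := θ 0 + |θ 1| + 2) (ϑ := 0) (v := v) (t := θ 0 * (1 - v))
    (y := θ 1 * (1 - v)) hθv (by linarith [t2.1]) (by linarith)
  have hF := hX I' H.sub' (θ 0 + |θ 1| + 2)
  have hE := H.extK (θ 0 + |θ 1| + 2)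
  rw [← Gd222.coN_eq] at hE
  obtain ⟨hb0, -⟩ := hn (w0 + v) (sa + θ 0 * (1 - v)) (sb + θ 1 * (1 - v))
    (by rw [sub_self, abs_zero]; exact hκ.le) (by rw [sub_self, abs_zero]; exact hκ.le)
    (by rw [sub_self, abs_zero]; exact hκ.le)
  have b1 := (hb0 1).1
  have b3 := (hb0 3).1
  have b11 := (hb0 11).2
  rw [n_1] at b1
  rw [n_3] at b3
  rw [n_11] at b11
  obtain ⟨κ', h1, -, -, -, h5⟩ := d0r_all (c := 0) hE hF DT_nb (fun v _ _ => EL_DN v) hv0 hv1 hm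
    (H.sh.d0.trans_le H.sh.z) b3 (by linarith) (by linarith) hκ le_rfl zero_le_one
    (fun v' a' b'' e1 e2 e3 => by
      rw [nb_natB]
      refine (hn _ _ _ ?_ ?_ ?_).2.2.2.2
      · rwa [add_sub_add_left_eq_sub]
      · rwa [add_sub_add_left_eq_sub]
      · rwa [add_sub_add_left_eq_sub])
    (fun v' y e1 e2 e3 e4 e5 hl k => by
      have hRk : ∀ k, nb w0 sa sb (v' - y) (θ 0 * (1 - v') + y) (θ 1 * (1 - v') + 0 * y) k ≤ R :=
        hl.2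
      rw [nb_natB] at hRk ⊢
      have h6 := le_oL H hV1 (z := w0 + (v' - y)) (c := sa + (θ 0 * (1 - v') + y))
        (p := sb + (θ 1 * (1 - v') + 0 * y)) (fun hv => by
          have := h78 hv
          have e7 : w0 + (v' - y) - w0 = v' - y := by ring
          rw [e7]
          nlinarith) (fun hv => by
          have := h2 hv
          have e7 : w0 + (v' - y) - w0 = v' - y := by ring
          rw [e7]
          nlinarith) hRk k
      have e7 : w0 + (v' - y) - w0 = v' - y := by ring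
      rw [e7] at h6
      exact h6)
  refine ⟨κ', h1, fun v' y e1 e2 e3 => ?_⟩
  rw [rc_eq]
  exact (h5 v' y e1 e2 e3).2.2.1

/-- slots `B` in the literal of `D0T` -/
theorem vis78 (H : CtxT G L r g s θ q Rg B I lev A f b vm w fr fl sc w0 sa sb δ R I0 I' ν own c₀)
    (h78 : (TieT θ B I lev fl sc 7 ∨ TieT θ B I lev fl sc 8) → θ 0 - θ 1 ≤ 1) :
    (VisT B I fl sc 7 ∨ VisT B I fl sc 8) → θ 0 - θ 1 ≤ 1 := by
  rintro (hv | hv)
  · rcases H.out.clsB (Or.inl rfl) with h | h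
    · exact absurd h hv
    · exact h78 (Or.inl h)
  · rcases H.out.clsB (Or.inr rfl) with h | h
    · exact absurd h hv
    · exact h78 (Or.inr h)

/-- slot `E` in the literal of `D0T` -/
theorem vis2 (H : CtxT G L r g s θ q Rg B I lev A f b vm w fr fl sc w0 sa sb δ R I0 I' ν own c₀)
    (hV1 : InvT PL B I 1 fl (sc 1)) (h2 : TieT θ B I lev fl sc 2 → 2 * θ 0 - θ 1 ≤ 1) :
    VisT B I fl sc 2 → 2 * θ 0 - θ 1 ≤ 1 := by
  intro hv
  rcases H.out.clsE with h | h | h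
  · exact absurd h hv
  · exact h2 h
  · exact absurd hV1 h.vis

/-- `hC_loc` in the letters of `D0T` -/
theorem hC_D0T {g : ℝ}
    (H : CtxT G L r g s θ q Rg B I lev A f b vm w fr fl sc w0 sa sb δ R I0 I' ν own c₀)
    (hR0 : w0 + (θ 1 + sb) < R) (hR1 : w0 + 1 + sb < R) (hθ : 0 < θ 0)
    (hRg : θ 0 + |θ 1| + 1 ≤ Rg) (hV1 : InvT PL B I 1 fl (sc 1))
    (h78 : (TieT θ B I lev fl sc 7 ∨ TieT θ B I lev fl sc 8) → θ 0 - θ 1 ≤ 1)
    (h2 : TieT θ B I lev fl sc 2 → 2 * θ 0 - θ 1 ≤ 1) :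
    ∀ v0 ∈ Set.Ioo (0:ℝ) 1, ∃ κ : ℝ, 0 < κ ∧ ∀ v y : ℝ, |v - v0| ≤ κ → 0 ≤ y → y ≤ κ →
      q 0 * y ≤ ν (rc (θ 0) (θ 1) w0 sa sb v) - ν (rc (θ 0) (θ 1) w0 sa sb v + y • uC) :=
  hC_loc H hR0 hR1 hθ hRg hV1 (vis78 H h78) fun h => (vis2 H hV1 h2 h).trans one_le_two

end ctx

end Crest.Agent.R116.D0y3a665
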