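import Crest.Agent.R116.D0y3_219
import Crest.Agent.R116.D0T_794
import Crest.Agent.R116.D0m2_570
import Crest.Agent.R116.D0y3a_665

/-!
# R116 (K side), LEMMA D0 for `β_D < 0`, `s < 1/2`, part 4 (helper219): the end over `CtxT`

* **`mic_neg`** : `D` costs nothing at a.e. record height, `FactsY` as a binder
-/

set_option autoImplicit false
set_option linter.unusedVariables false

open Finset Filter Topology MeasureTheory Set

namespace Crest.Agent.R116.D0y219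

open Crest.Agent.R138.Ex926 (Base U IsTan)
open Crest.Agent.R136
open Crest.Agent.R136.MkA627
open Crest.Agent.R136.TD627
open Crest.Agent.R136.Net191
open Crest.Agent.R136.Lq196
open Crest.Agent.R116.ChL222
open Crest.Agent.R116.PL504 (nb rL DN eL βL oL Shift)
open Crest.Agent.R116.Xd954 (cs xs FlagX Mrg exists_mrg)
open Crest.Agent.R116.Sg337 (bx9 natB Dm uC eL_bx9 nb_natB DN_Dm)
open Crest.Agent.R116.Gd222 (TSet sN PDL DT)
open Crest.Agent.R116.KI439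
open Crest.Agent.R116.KF439 (PL)
open Crest.Agent.R116.Tw468 (OutT OutR)
open Crest.Agent.R116.CtxB468
open Crest.Agent.R116.KTop387 (NumL)
open Crest.Agent.R116.KTie794 (D0T Mic)
open Crest.Agent.R116.D0n878
open Crest.Agent.R116.D0r708 (rL_natB d0r_all own_e0)
open Crest.Agent.R116.D0p878 (near_box le_oL n_1 n_3 n_11)

section ctx

variable {G : Geo TSet (Fin 2)} {L : ℕ → ℕ → LRay} {r : ℕ → ℝ} {g s : ℝ} {θ q : Fin 2 → ℝ}
    {Rg : ℝ} {B : Base} {I : ℕ → Finset (ℕ × ℝ)} {lev : ℕ → ℚ → ℕ} {A : ℕ → ℝ}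
    {f : ℕ → ℚ → ℕ → ℤ → ℕ} {b : ℕ → ℚ → ℕ → TSet} {vm : ℕ → ℚ → ℝ} {w : Fin 2 → ℕ → ℚ → ℝ}
    {fr : ℕ → ℚ → ℕ × ℝ → LInc} {fl : ℕ → ℕ × ℝ → LInc} {sc : Fin 12 → ℕ → ℝ}
    {w0 sa sb δ R : ℝ} {I0 I' : ℕ → Finset (ℕ × ℝ)} {ν own : (Fin 12 → ℝ) → ℝ} {c₀ : ℝ}

/-- **`D` costs nothing**, `β_D < 0`, `s < 1/2` -/
theorem mic_neg {η : ℝ}
    (H : CtxT G L r (g + 2 * s) s θ q Rg B I lev A f b vm w fr fl sc w0 sa sb δ R I0 I' ν own c₀)
    (hN : NumL η g s θ q) (hη : η ≤ 1) (hR0 : w0 + (θ 1 + sb) < R) (hR1 : w0 + 1 + sb < R)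
    (hRg : θ 0 + |θ 1| + 1 ≤ Rg) (hV1 : InvT PL B I 1 fl (sc 1)) (s2 : s < 1 / 2)
    (hβ : 2 * θ 0 - θ 1 < 1)
    (hF : ∀ t v : ℝ, t < 0 → 0 < v + t → v < 1 →
      FactsY (Leg monL R) (fun _ : Unit => ν) () (pY (θ 0) (θ 1) w0 sa sb t v) s) :
    Mic ν (θ 0) (θ 1) w0 sa sb := by
  have hlipν : ∀ j : Unit, ∀ p ∈ Leg monL R, ∀ q ∈ Leg monL R,
      |(fun _ : Unit => ν) j p - (fun _ : Unit => ν) j q| ≤ (12:ℝ) * ‖p - q‖ := by
    intro j p hp q hq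
    have h1 := Rcx363.fo_lip H 0 p hp q hq
    rw [dist_eq_norm] at h1
    exact h1
  have hC := D0y3a665.hC_loc H hR0 hR1 hN.θa hRg hV1 (fun _ => by linarith [hN.θa])
    (fun _ => by linarith)
  refine D0m570.mic_of_locI H hN hη hR0 hR1 hRg fun ρ hρ v1 v2 a1 a2 a3 E hE hEI hf => ?_
  have hEI' : E ⊆ Set.Ioo 0 1 := fun v hv => ⟨by linarith [(hEI hv).1], by linarith [(hEI hv).2]⟩
  obtain ⟨t0, ht0, hpos⟩ := exists_t0 (fun k => (D0m570.ctx_box H hR0 hR1 v1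
      ⟨a1.le, by linarith⟩ k).1) (fun k => (D0m570.ctx_box H hR0 hR1 v2
      ⟨by linarith, a3.le⟩ k).1) a1 a2
  refine ⟨t0, ht0, ?_⟩
  have key := loc_Y (J := Unit) (f := fun _ => ν) (j0 := ()) (R := R) (K := 12) (s := s)
    (q0 := q 0) (ρd := ρ) (θa := θ 0) (θb := θ 1) (w0 := w0) (sa := sa) (sb := sb) (by norm_num)
    hlipν (D0m570.ctx_mono H) (D0m570.ctx_sup H) hN.θa (by linarith) (by linarith) hN.qa hρ
    (fun v hv => D0m570.ctx_box H hR0 hR1 v ⟨hv.1.le, hv.2.le⟩) hC hE hEI' hf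
    (fun t v ht hvt hv1 _ => hF t v ht hvt hv1)
  have e0 : rL (θ 0) (θ 1) w0 sa sb 0 = natB w0 (sa + θ 0) (sb + θ 1) := by
    rw [D0m570.rL_rc]
    unfold rc
    congr 1 <;> ring
  rw [e0]
  filter_upwards [key] with y hy h1 h2 h3 D hD
  obtain ⟨b1, b2⟩ := hpos y.1 y.2 h1 h2 (hEI h3)
  exact hy h2 b1 h3 b2 D hD

end ctx

end Crest.Agent.R116.D0y219
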