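import Crest.Agent.R116.Kg3_330
import Crest.Agent.R116.Op3_171
import Crest.Agent.R116.CD1_120

/-!
# R116, K side (helper330): the fact [CD] (120) for a tangent at a natural base

* `cd_tanW` : [CD] in a window, hypotheses on a few boxes only.
* `cd_tan` : **[CD] for a tangent decoupled in the groups** `{C, D}`, `{X, E}`, `{H, B}`, `z`, `P`,
  `F`: strictly positive increments of `C` and of `D` at the base ⊢ `1 - s ≤ gP`.
* `cd_free` : the same for a tangent whose `{C, D}` decouple from the rest and whose `z` is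
  alone (any other groups); `cd_facts` : in the form of 219's `FactsY.CD`.
-/

set_option autoImplicit false
set_option linter.unusedVariables false
set_option linter.unusedSectionVars false

open Filter Topology Finset

namespace Crest.Agent.R116.Kh330

open Crest.Agent.R138.Ex926 (Base U IsTan)
open Crest.Agent.R136.Net191 Crest.Agent.R136.Qg926 Crest.Agent.R136.Gf356
open Crest.Agent.R116.ChL222 Crest.Agent.R116.PL504 Crest.Agent.R116.EvL504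
open Crest.Agent.R116.WinU954 Crest.Agent.R116.Sg337 Crest.Agent.R116.WinG954
open Crest.Agent.R116.Kg330 (mem_LM)
open Crest.Agent.R116.Kr710 (LLaw)

variable {ι : ℕ → Type*} [∀ n, DecidableEq (ι n)]

/-- **[CD] in a window**, hypotheses on a few boxes -/
theorem cd_tanW {B : Base} {I J : ∀ n, Finset (ι n)}
    {co : ∀ n, ι n → ι n → Fin 12 → ℝ}
    {C R : ℝ} {ν : (Fin 12 → ℝ) → ℝ} (hN : NProf B I J co monL C R ν) (hcoc : ∀ n, Coc (co n))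
    {x : ℕ → Fin 12 → ℝ} {h : ℕ → ℝ} (hpos : ∀ l, 0 < h l) (hh : Tendsto h atTop (𝓝 0))
    {D : Set (Fin 12 → ℝ)}
    {lam : (Fin 12 → ℝ) → ℝ} (htan : IsTan (Leg monL R) D ν x h lam) (hD : LM ⊆ D)
    (hx : ∀ l, ∃ z c p : ℝ, x l = eL z c p) (i₀ : ∀ n, ι n) {s : ℝ} (hs0 : 0 ≤ s) (hs1 : s ≤ 1)
    (dens : lam (bx9 1 1 1 1 1 1 1 1 1) ≤ lam (bx9 0 1 1 1 1 1 1 1 1) +
      lam (bx9 1 0 0 0 0 0 0 0 0))
    (frost : ∀ y, 0 ≤ y → y ≤ 1 → lam (bx9 y 0 0 0 0 0 0 0 0) ≤ -((1 - s) * y))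
    (hdec : lam (bx9 1 0 0 0 0 0 0 0 0) - lam (bx9 1 1 0 1 0 0 0 0 0) ≤
      lam (bx9 1 0 1 0 1 1 1 1 0) - lam (bx9 1 1 1 1 1 1 1 1 0))
    (hC : ∀ t, 0 < t → t ≤ 1 → lam (bx9 1 0 1 t 1 1 1 1 0) < lam (bx9 1 0 1 0 1 1 1 1 0))
    (hDi : ∀ t, 0 < t → t ≤ 1 → lam (bx9 1 t 1 0 1 1 1 1 0) < lam (bx9 1 0 1 0 1 1 1 1 0)) :
    1 - s ≤ lam (bx9 1 1 0 1 0 0 0 0 0) - lam (bx9 1 1 0 1 0 0 0 1 0) := by
  obtain ⟨k, W, E, a1, w, a3, a4, a5, a6, a7, H⟩ := exists_winG1 hN hcoc hpos hh htan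
    (t := 1) one_pos (stG_live zero_le_one) ((leg_LM 1).trans hD) (σ := 1 - s) (by linarith)
    (by linarith) (by rw [const_cut0, const_eq, single_eq]; exact dens)
    (fun y h1 h2 => by rw [single_eq]; exact frost y h1 h2)
    (fun _ _ => 1) (fun _ => Base.Sub.const one_pos) i₀
  have hfr : ∀ᶠ n in (U : Filter ℕ), FrX W (cK0 monL C) 1 1 n := by
    refine Eventually.of_forall fun n => ?_
    obtain ⟨z, c, p, e⟩ := hx (k n)
    refine FrX.of_nat w.wl (z := z) (c := c) (p := p) ?_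
    rw [w.hX]
    exact e
  have L := llaw w.wl (fun s => by rw [w.htop]) a7 hfr
  have hS : ∀ j : Fin 12, j ≠ 0 → j ∉ W.S := fun j hj hm => hj (by
    rw [w.hS, Finset.mem_singleton] at hm; exact hm)
  have mem : ∀ {z D E C X B N P F : ℝ},
      (0 ≤ D ∧ 0 ≤ E ∧ 0 ≤ C ∧ 0 ≤ X ∧ 0 ≤ B ∧ 0 ≤ N ∧ 0 ≤ P ∧ 0 ≤ F) →
      (B ≤ E + C ∧ B ≤ D + X ∧ N ≤ C + X ∧ P ≤ C + B ∧ P ≤ D + N ∧ F ≤ X + B ∧ F ≤ E + N) →
      (D ≤ 1 ∧ E ≤ 1 ∧ C ≤ 1 ∧ X ≤ 1 ∧ B ≤ 1 ∧ N ≤ 1 ∧ P ≤ 1 ∧ F ≤ 1) →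
      bx9 z D E C X B N P F ∈ W.legW := fun h1 h2 h3 => (w.memL zero_le_one).2 ⟨h1, h2, h3⟩
  have nu : ∀ z D E C X B N P F : ℝ, W.nu (bx9 z D E C X B N P F) =
      lam (bx9 1 D E C X B N P F) - lam (bx9 1 1 1 1 1 1 1 1 1) := by
    intro z D E C X B N P F
    rw [w.nu_eq, cut_top, const_eq]
  have m0 : bx9 0 0 0 0 0 0 0 0 0 ∈ W.legW := mem (by norm_num) (by norm_num) (by norm_num)
  have mp : bx9 0 0 1 0 1 1 1 1 0 ∈ W.legW := mem (by norm_num) (by norm_num) (by norm_num)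
  have mpf : bx9 0 1 1 1 1 1 1 1 0 ∈ W.legW := mem (by norm_num) (by norm_num) (by norm_num)
  have mr1 : bx9 0 1 0 1 0 0 0 0 0 ∈ W.legW := mem (by norm_num) (by norm_num) (by norm_num)
  have mr2 : bx9 0 1 0 1 0 0 0 1 0 ∈ W.legW := mem (by norm_num) (by norm_num) (by norm_num)
  have key := CD120.cd_model H L (hS 1 (by decide)) (hS 2 (by decide)) (hS 7 (by decide))
    (hS 8 (by decide)) (y := 1) one_pos le_rfl le_rfl mp mpf m0 mr1 mr2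
    (fun j hj => by rcases hj with rfl | rfl | rfl | rfl <;> simp [bx9])
    (fun j => by fin_cases j <;> simp [bx9]) (fun j => by fin_cases j <;> simp [bx9])
    (fun j => by fin_cases j <;> simp [bx9]) (by simp [bx9]) (by simp [bx9]) (by simp [bx9])
    (fun j => by fin_cases j <;> simp [bx9]) (by simp [bx9])
    (by rw [nu, nu, nu, nu]; linarith)
    (fun t h1 h2 => ⟨bx9 0 0 1 t 1 1 1 1 0,
      mem ⟨le_rfl, zero_le_one, h1.le, zero_le_one, zero_le_one, zero_le_one, zero_le_one, le_rfl⟩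
        ⟨by linarith, by linarith, by linarith, by linarith, by linarith, by linarith,
          by linarith⟩
        ⟨zero_le_one, le_rfl, h2, le_rfl, le_rfl, le_rfl, le_rfl, zero_le_one⟩,
      fun j => by fin_cases j <;> simp [bx9], by rw [nu, nu]; linarith [hC t h1 h2]⟩)
    (fun t h1 h2 => ⟨bx9 0 t 1 0 1 1 1 1 0,
      mem ⟨h1.le, zero_le_one, le_rfl, zero_le_one, zero_le_one, zero_le_one, zero_le_one, le_rfl⟩
        ⟨by linarith, by linarith, by linarith, by linarith, by linarith, by linarith,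
          by linarith⟩
        ⟨h2, le_rfl, zero_le_one, le_rfl, le_rfl, le_rfl, le_rfl, zero_le_one⟩,
      fun j => by fin_cases j <;> simp [bx9], by rw [nu, nu]; linarith [hDi t h1 h2]⟩)
  rw [nu, nu] at key
  linarith

/-- **[CD] for a decoupled tangent at a natural base** -/
theorem cd_tan {B : Base} {I J : ∀ n, Finset (ι n)}
    {co : ∀ n, ι n → ι n → Fin 12 → ℝ}
    {C R : ℝ} {ν : (Fin 12 → ℝ) → ℝ} (hN : NProf B I J co monL C R ν) (hcoc : ∀ n, Coc (co n))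
    {x : ℕ → Fin 12 → ℝ} {h : ℕ → ℝ} (hpos : ∀ l, 0 < h l) (hh : Tendsto h atTop (𝓝 0))
    {D : Set (Fin 12 → ℝ)}
    {lam : (Fin 12 → ℝ) → ℝ} (htan : IsTan (Leg monL R) D ν x h lam) (hD : LM ⊆ D)
    (hx : ∀ l, ∃ z c p : ℝ, x l = eL z c p) (i₀ : ∀ n, ι n) {s : ℝ} (hs0 : 0 ≤ s) (hs1 : s ≤ 1)
    {φ ψ1 ψ2 : ℝ → ℝ → ℝ} {rz rF gP : ℝ}
    (hlin : ∀ z d C p E B x H F : ℝ, bx9 z d E C x B H p F ∈ LM →
      lam (bx9 z d E C x B H p F) = -(rz * z + rF * F + gP * p + φ C d + ψ1 x E + ψ2 H B))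
    (hrz : 1 - s ≤ rz) (hC : ∀ y, 0 < y → y ≤ 1 → φ 0 0 < φ y 0)
    (hDi : ∀ y, 0 < y → y ≤ 1 → φ 0 0 < φ 0 y) : 1 - s ≤ gP := by
  have hz : ∀ y : ℝ, 0 ≤ y → y ≤ 1 → bx9 y 0 0 0 0 0 0 0 0 ∈ LM := fun y h1 h2 =>
    mem_LM ⟨h1, le_rfl, le_rfl, le_rfl, le_rfl, le_rfl, le_rfl, le_rfl, le_rfl⟩
      ⟨by linarith, by linarith, by linarith, by linarith, by linarith, by linarith,
        by linarith, by linarith, by linarith, by linarith⟩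
      ⟨h2, zero_le_one, zero_le_one, zero_le_one, zero_le_one, zero_le_one, zero_le_one,
        zero_le_one, zero_le_one⟩
  have e0 : (0 : Fin 12 → ℝ) = bx9 0 0 0 0 0 0 0 0 0 := by
    funext k; fin_cases k <;> simp [bx9]
  have l0 : lam (bx9 0 0 0 0 0 0 0 0 0) = 0 := by
    rw [← e0]; exact htan.zero hpos (hD (e0 ▸ hz 0 le_rfl zero_le_one))
  have s0 : φ 0 0 + ψ1 0 0 + ψ2 0 0 = 0 := by
    rw [hlin _ _ _ _ _ _ _ _ _ (hz 0 le_rfl zero_le_one)] at l0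
    linarith
  have mt : ∀ t : ℝ, 0 ≤ t → t ≤ 1 → bx9 1 0 1 t 1 1 1 1 0 ∈ LM ∧ bx9 1 t 1 0 1 1 1 1 0 ∈ LM :=
    fun t h1 h2 =>
    ⟨mem_LM ⟨zero_le_one, le_rfl, zero_le_one, h1, zero_le_one, zero_le_one, zero_le_one,
        zero_le_one, le_rfl⟩
      ⟨by linarith, by linarith, by linarith, by linarith, by linarith, by linarith,
        by linarith, by linarith, by linarith, by linarith⟩
      ⟨le_rfl, zero_le_one, le_rfl, h2, le_rfl, le_rfl, le_rfl, le_rfl, zero_le_one⟩,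
    mem_LM ⟨zero_le_one, h1, zero_le_one, le_rfl, zero_le_one, zero_le_one, zero_le_one,
        zero_le_one, le_rfl⟩
      ⟨by linarith, by linarith, by linarith, by linarith, by linarith, by linarith,
        by linarith, by linarith, by linarith, by linarith⟩
      ⟨le_rfl, h2, le_rfl, zero_le_one, le_rfl, le_rfl, le_rfl, le_rfl, zero_le_one⟩⟩
  have n1 : bx9 1 1 1 1 1 1 1 1 1 ∈ LM := mem_LM (by norm_num) (by norm_num) (by norm_num)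
  have n2 : bx9 0 1 1 1 1 1 1 1 1 ∈ LM := mem_LM (by norm_num) (by norm_num) (by norm_num)
  have n3 : bx9 1 1 0 1 0 0 0 0 0 ∈ LM := mem_LM (by norm_num) (by norm_num) (by norm_num)
  have n4 : bx9 1 1 0 1 0 0 0 1 0 ∈ LM := mem_LM (by norm_num) (by norm_num) (by norm_num)
  have n5 : bx9 1 1 1 1 1 1 1 1 0 ∈ LM := mem_LM (by norm_num) (by norm_num) (by norm_num)
  have n6 := (mt 0 le_rfl zero_le_one).1
  have key := cd_tanW hN hcoc hpos hh htan hD hx i₀ hs0 hs1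
    (by rw [hlin _ _ _ _ _ _ _ _ _ n1, hlin _ _ _ _ _ _ _ _ _ n2,
          hlin _ _ _ _ _ _ _ _ _ (hz 1 zero_le_one le_rfl)]; linarith)
    (fun y h1 h2 => by
      rw [hlin _ _ _ _ _ _ _ _ _ (hz y h1 h2)]
      have := mul_le_mul_of_nonneg_right hrz h1
      linarith)
    (by rw [hlin _ _ _ _ _ _ _ _ _ (hz 1 zero_le_one le_rfl), hlin _ _ _ _ _ _ _ _ _ n3,
          hlin _ _ _ _ _ _ _ _ _ n6, hlin _ _ _ _ _ _ _ _ _ n5]; linarith)
    (fun t h1 h2 => by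
      rw [hlin _ _ _ _ _ _ _ _ _ (mt t h1.le h2).1, hlin _ _ _ _ _ _ _ _ _ n6]
      linarith [hC t h1 h2])
    (fun t h1 h2 => by
      rw [hlin _ _ _ _ _ _ _ _ _ (mt t h1.le h2).2, hlin _ _ _ _ _ _ _ _ _ n6]
      linarith [hDi t h1 h2])
  rw [hlin _ _ _ _ _ _ _ _ _ n3, hlin _ _ _ _ _ _ _ _ _ n4] at key
  linarith

theorem bx_1 (z d E c X b H p F : ℝ) : bx9 z d E c X b H p F 1 = d := rfl
theorem bx_3 (z d E c X b H p F : ℝ) : bx9 z d E c X b H p F 3 = c := rfl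
theorem bx_4 (z d E c X b H p F : ℝ) : bx9 z d E c X b H p F 4 = c := rfl

theorem bx_ne (z d E c X b H p F d' c' : ℝ) (i : Fin 12) (h1 : i ≠ 1) (h3 : i ≠ 3)
    (h4 : i ≠ 4) : bx9 z d E c X b H p F i = bx9 z d' E c' X b H p F i := by
  fin_cases i
  · simp [bx9]
  · exact absurd rfl h1
  · simp [bx9]
  · exact absurd rfl h3
  · exact absurd rfl h4
  all_goals simp [bx9]

theorem bx_0 (z d E c X b H p F : ℝ) : bx9 z d E c X b H p F 0 = z := rfl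

theorem bx_ne0 (z z' d E c X b H p F : ℝ) (i : Fin 12) (h0 : i ≠ 0) :
    bx9 z d E c X b H p F i = bx9 z' d E c X b H p F i := by
  fin_cases i
  · exact absurd rfl h0
  all_goals simp [bx9]

/-- **[CD], group-free form**: `{C, D}` decouple from the rest, `z` is alone -/
theorem cd_free {B : Base} {I J : ∀ n, Finset (ι n)}
    {co : ∀ n, ι n → ι n → Fin 12 → ℝ}
    {C R : ℝ} {ν : (Fin 12 → ℝ) → ℝ} (hN : NProf B I J co monL C R ν) (hcoc : ∀ n, Coc (co n))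
    {x : ℕ → Fin 12 → ℝ} {h : ℕ → ℝ} (hpos : ∀ l, 0 < h l) (hh : Tendsto h atTop (𝓝 0))
    {D : Set (Fin 12 → ℝ)}
    {lam : (Fin 12 → ℝ) → ℝ} (htan : IsTan (Leg monL R) D ν x h lam) (hD : LM ⊆ D)
    (hx : ∀ l, ∃ z c p : ℝ, x l = eL z c p) (i₀ : ∀ n, ι n) {s : ℝ} (hs0 : 0 ≤ s) (hs1 : s ≤ 1)
    {φ ρ : (Fin 12 → ℝ) → ℝ} (hdec : ∀ c ∈ LM, lam c = φ c + ρ c)
    (hφ : ∀ c c' : Fin 12 → ℝ, c 1 = c' 1 → c 3 = c' 3 → c 4 = c' 4 → φ c = φ c')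
    (hρ : ∀ c c' : Fin 12 → ℝ, (∀ i, i ≠ 1 → i ≠ 3 → i ≠ 4 → c i = c' i) → ρ c = ρ c')
    {rz : ℝ} (hrz : 1 - s ≤ rz)
    (hz : ∀ c ∈ LM, ∀ c' ∈ LM, (∀ i, i ≠ 0 → c i = c' i) → lam c - lam c' = rz * (c' 0 - c 0))
    (hC : ∀ y : ℝ, 0 < y → lam (bx9 0 0 0 y 0 0 0 0 0) < lam 0)
    (hDi : ∀ y : ℝ, 0 < y → lam (bx9 0 y 0 0 0 0 0 0 0) < lam 0) :
    1 - s ≤ lam (bx9 0 1 0 1 0 0 0 0 0) - lam (bx9 0 1 0 1 0 0 0 1 0) := by
  have e0 : (0 : Fin 12 → ℝ) = bx9 0 0 0 0 0 0 0 0 0 := by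
    funext k; fin_cases k <;> simp [bx9]
  have zz : ∀ z z' d E c X b H p F : ℝ, bx9 z d E c X b H p F ∈ LM → bx9 z' d E c X b H p F ∈ LM →
      lam (bx9 z d E c X b H p F) - lam (bx9 z' d E c X b H p F) = rz * (z' - z) := by
    intro z z' d E c X b H p F h1 h2
    rw [hz _ h1 _ h2 fun i hi => bx_ne0 z z' d E c X b H p F i hi, bx_0, bx_0]
  have m0 : bx9 0 0 0 0 0 0 0 0 0 ∈ LM := mem_LM (by norm_num) (by norm_num) (by norm_num)
  have l0 : lam (bx9 0 0 0 0 0 0 0 0 0) = 0 := by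
    rw [← e0]; exact htan.zero hpos (hD (e0 ▸ m0))
  have mz : ∀ y : ℝ, 0 ≤ y → y ≤ 1 → bx9 y 0 0 0 0 0 0 0 0 ∈ LM := fun y h1 h2 =>
    mem_LM ⟨h1, le_rfl, le_rfl, le_rfl, le_rfl, le_rfl, le_rfl, le_rfl, le_rfl⟩
      ⟨by linarith, by linarith, by linarith, by linarith, by linarith, by linarith,
        by linarith, by linarith, by linarith, by linarith⟩
      ⟨h2, zero_le_one, zero_le_one, zero_le_one, zero_le_one, zero_le_one, zero_le_one,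
        zero_le_one, zero_le_one⟩
  have lz : ∀ y : ℝ, 0 ≤ y → y ≤ 1 → lam (bx9 y 0 0 0 0 0 0 0 0) = -(rz * y) := by
    intro y h1 h2
    have h3 := zz 0 y 0 0 0 0 0 0 0 0 m0 (mz y h1 h2)
    rw [l0] at h3
    linarith
  have mC : ∀ t : ℝ, 0 ≤ t → t ≤ 1 → bx9 0 0 0 t 0 0 0 0 0 ∈ LM ∧ bx9 0 t 0 0 0 0 0 0 0 ∈ LM :=
    fun t h1 h2 =>
    ⟨mem_LM ⟨le_rfl, le_rfl, le_rfl, h1, le_rfl, le_rfl, le_rfl, le_rfl, le_rfl⟩
      ⟨by linarith, by linarith, by linarith, by linarith, by linarith, by linarith,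
        by linarith, by linarith, by linarith, by linarith⟩
      ⟨zero_le_one, zero_le_one, zero_le_one, h2, zero_le_one, zero_le_one, zero_le_one,
        zero_le_one, zero_le_one⟩,
    mem_LM ⟨le_rfl, h1, le_rfl, le_rfl, le_rfl, le_rfl, le_rfl, le_rfl, le_rfl⟩
      ⟨by linarith, by linarith, by linarith, by linarith, by linarith, by linarith,
        by linarith, by linarith, by linarith, by linarith⟩
      ⟨zero_le_one, h2, zero_le_one, zero_le_one, zero_le_one, zero_le_one, zero_le_one,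
        zero_le_one, zero_le_one⟩⟩
  have mt : ∀ t : ℝ, 0 ≤ t → t ≤ 1 → bx9 1 0 1 t 1 1 1 1 0 ∈ LM ∧ bx9 1 t 1 0 1 1 1 1 0 ∈ LM :=
    fun t h1 h2 =>
    ⟨mem_LM ⟨zero_le_one, le_rfl, zero_le_one, h1, zero_le_one, zero_le_one, zero_le_one,
        zero_le_one, le_rfl⟩
      ⟨by linarith, by linarith, by linarith, by linarith, by linarith, by linarith,
        by linarith, by linarith, by linarith, by linarith⟩
      ⟨le_rfl, zero_le_one, le_rfl, h2, le_rfl, le_rfl, le_rfl, le_rfl, zero_le_one⟩,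
    mem_LM ⟨zero_le_one, h1, zero_le_one, le_rfl, zero_le_one, zero_le_one, zero_le_one,
        zero_le_one, le_rfl⟩
      ⟨by linarith, by linarith, by linarith, by linarith, by linarith, by linarith,
        by linarith, by linarith, by linarith, by linarith⟩
      ⟨le_rfl, h2, le_rfl, zero_le_one, le_rfl, le_rfl, le_rfl, le_rfl, zero_le_one⟩⟩
  have n1 : bx9 1 1 1 1 1 1 1 1 1 ∈ LM := mem_LM (by norm_num) (by norm_num) (by norm_num)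
  have n2 : bx9 0 1 1 1 1 1 1 1 1 ∈ LM := mem_LM (by norm_num) (by norm_num) (by norm_num)
  have n3 : bx9 1 1 0 1 0 0 0 0 0 ∈ LM := mem_LM (by norm_num) (by norm_num) (by norm_num)
  have n4 : bx9 1 1 0 1 0 0 0 1 0 ∈ LM := mem_LM (by norm_num) (by norm_num) (by norm_num)
  have n5 : bx9 1 1 1 1 1 1 1 1 0 ∈ LM := mem_LM (by norm_num) (by norm_num) (by norm_num)
  have n7 : bx9 0 1 0 1 0 0 0 0 0 ∈ LM := mem_LM (by norm_num) (by norm_num) (by norm_num)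
  have n8 : bx9 0 1 0 1 0 0 0 1 0 ∈ LM := mem_LM (by norm_num) (by norm_num) (by norm_num)
  have n6 := (mt 0 le_rfl zero_le_one).1
  have m1 := mz 1 zero_le_one le_rfl
  have hzt := zz 0 1 1 1 1 1 1 1 1 1 n2 n1
  have r0 : ∀ z d E c X b H p F d' c' : ℝ, ρ (bx9 z d E c X b H p F) =
      ρ (bx9 z d' E c' X b H p F) := by
    intro z d E c X b H p F d' c'
    refine hρ _ _ fun i h1 h2 h3 => ?_
    rw [bx_ne z d E c X b H p F d' c' i h1 h2 h3]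
  have p0 : ∀ z d E c X b H p F z' E' X' b' H' p' F' : ℝ, φ (bx9 z d E c X b H p F) =
      φ (bx9 z' d E' c X' b' H' p' F') :=
    fun z d E c X b H p F z' E' X' b' H' p' F' => hφ _ _ (by rw [bx_1, bx_1])
      (by rw [bx_3, bx_3]) (by rw [bx_4, bx_4])
  have key := cd_tanW hN hcoc hpos hh htan hD hx i₀ hs0 hs1
    (by rw [lz 1 zero_le_one le_rfl]; linarith)
    (fun y h1 h2 => by
      rw [lz y h1 h2]
      have := mul_le_mul_of_nonneg_right hrz h1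
      linarith)
    (by
      linarith [hdec _ m1, hdec _ n3, hdec _ n6, hdec _ n5,
        p0 1 0 0 0 0 0 0 0 0 1 1 1 1 1 1 0, p0 1 1 0 1 0 0 0 0 0 1 1 1 1 1 1 0,
        r0 1 0 0 0 0 0 0 0 0 1 1, r0 1 0 1 0 1 1 1 1 0 1 1])
    (fun t h1 h2 => by
      have h3 := hC t h1
      rw [e0] at h3
      linarith [hdec _ m0, hdec _ (mC t h1.le h2).1, r0 0 0 0 t 0 0 0 0 0 0 0,
        hdec _ (mt t h1.le h2).1, hdec _ n6, p0 1 0 1 0 1 1 1 1 0 0 0 0 0 0 0 0,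
        p0 1 0 1 t 1 1 1 1 0 0 0 0 0 0 0 0, r0 1 0 1 t 1 1 1 1 0 0 0])
    (fun t h1 h2 => by
      have h3 := hDi t h1
      rw [e0] at h3
      linarith [hdec _ m0, hdec _ (mC t h1.le h2).2, r0 0 t 0 0 0 0 0 0 0 0 0,
        hdec _ (mt t h1.le h2).2, hdec _ n6, p0 1 0 1 0 1 1 1 1 0 0 0 0 0 0 0 0,
        p0 1 t 1 0 1 1 1 1 0 0 0 0 0 0 0 0, r0 1 t 1 0 1 1 1 1 0 0 0])
  linarith [zz 0 1 1 0 1 0 0 0 0 0 n7 n3, zz 0 1 1 0 1 0 0 0 1 0 n8 n4]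

/-- the same with `rz` read off -/
theorem cd_facts {B : Base} {I J : ∀ n, Finset (ι n)}
    {co : ∀ n, ι n → ι n → Fin 12 → ℝ}
    {C R : ℝ} {ν : (Fin 12 → ℝ) → ℝ} (hN : NProf B I J co monL C R ν) (hcoc : ∀ n, Coc (co n))
    {x0 : Fin 12 → ℝ} {h : ℕ → ℝ} (hpos : ∀ l, 0 < h l) (hh : Tendsto h atTop (𝓝 0))
    {lam φ ρ : (Fin 12 → ℝ) → ℝ} (htan : IsTan (Leg monL R) D0F878.LM ν (fun _ => x0) h lam)
    (hx0 : ∃ z c p : ℝ, x0 = natB z c p) (i₀ : ∀ n, ι n) {s : ℝ} (hs0 : 0 ≤ s) (hs1 : s ≤ 1)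
    (hdec : ∀ c ∈ D0F878.LM, lam c = φ c + ρ c)
    (hφ : ∀ c c' : Fin 12 → ℝ, c 1 = c' 1 → c 3 = c' 3 → c 4 = c' 4 → φ c = φ c')
    (hρ : ∀ c c' : Fin 12 → ℝ, (∀ i, i ≠ 1 → i ≠ 3 → i ≠ 4 → c i = c' i) → ρ c = ρ c')
    (hz : ∀ c ∈ D0F878.LM, ∀ c' ∈ D0F878.LM, (∀ i, i ≠ 0 → c i = c' i) →
      lam c - lam c' = (lam 0 - lam (bx9 1 0 0 0 0 0 0 0 0)) * (c' 0 - c 0))
    (hown : ∀ y : ℝ, 0 < y → (1 - s) * y ≤ lam 0 - lam (bx9 y 0 0 0 0 0 0 0 0))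
    (hC : ∀ y : ℝ, 0 < y → lam (bx9 0 0 0 y 0 0 0 0 0) < lam 0)
    (hDi : ∀ y : ℝ, 0 < y → lam (bx9 0 y 0 0 0 0 0 0 0) < lam 0) :
    1 - s ≤ lam (bx9 0 1 0 1 0 0 0 0 0) - lam (bx9 0 1 0 1 0 0 0 1 0) := by
  obtain ⟨z, c, p, e⟩ := hx0
  exact cd_free hN hcoc hpos hh htan le_rfl (fun _ => ⟨z, c, p, e⟩) i₀ hs0 hs1 hdec hφ hρ
    (by have := hown 1 one_pos; rwa [mul_one] at this) hz hC hDi

end Crest.Agent.R116.Kh330
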