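import Crest.Agent.R116.D0y4_219
import Crest.Agent.R116.D0fy_332
import Crest.Agent.R116.Kh1_330

/-!
# R116 (K side), LEMMA D0 for `β_D < 0`, `s < 1/2` (helper219): the end

* `cdY_T`    : [CD] at the points of `Y`
* **`D0neg`** : `D0T η (fun s θ => s < 1/2 ∧ 2 * θ 0 - θ 1 < 1)`, every `η ≤ 1`
-/

set_option autoImplicit false
set_option linter.unusedVariables false

open Finset Filter Topology MeasureTheory Set

namespace Crest.Agent.R116.D0y219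

open Crest.Agent.R138
open Crest.Agent.R138.Ex926 (Base U IsTan)
open Crest.Agent.R136
open Crest.Agent.R136.MkA627
open Crest.Agent.R136.TD627
open Crest.Agent.R136.Net191
open Crest.Agent.R116.ChL222
open Crest.Agent.R116.Sg337 (bx9 natB)
open Crest.Agent.R116.Gd222 (TSet sN PDL DT)
open Crest.Agent.R116.KI439
open Crest.Agent.R116.KF439 (PL)
open Crest.Agent.R116.Tw468 (OutT OutR)
open Crest.Agent.R116.CtxB468
open Crest.Agent.R116.KTop387 (NumL)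
open Crest.Agent.R116.KTie794 (D0T Mic)
open Crest.Agent.R116.D0n878
open Crest.Agent.R116.D0F878

section ctx

variable {G : Geo TSet (Fin 2)} {L : ℕ → ℕ → LRay} {r : ℕ → ℝ} {g s : ℝ} {θ q : Fin 2 → ℝ}
    {Rg : ℝ} {B : Base} {I : ℕ → Finset (ℕ × ℝ)} {lev : ℕ → ℚ → ℕ} {A : ℕ → ℝ}
    {f : ℕ → ℚ → ℕ → ℤ → ℕ} {b : ℕ → ℚ → ℕ → TSet} {vm : ℕ → ℚ → ℝ} {w : Fin 2 → ℕ → ℚ → ℝ}
    {fr : ℕ → ℚ → ℕ × ℝ → LInc} {fl : ℕ → ℕ × ℝ → LInc} {sc : Fin 12 → ℕ → ℝ}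
    {w0 sa sb δ R : ℝ} {I0 I' : ℕ → Finset (ℕ × ℝ)} {ν own : (Fin 12 → ℝ) → ℝ} {c₀ : ℝ}

/-- **[CD] at the points of `Y`** -/
theorem cdY_T
    (H : CtxT G L r g s θ q Rg B I lev A f b vm w fr fl sc w0 sa sb δ R I0 I' ν own c₀)
    (hs0 : 0 ≤ s) (hs1 : s ≤ 1) (t v : ℝ) :
    D0fy332.CDY (Leg monL R) (fun _ : Unit => ν) () (pY (θ 0) (θ 1) w0 sa sb t v) s := by
  intro h lam φ ρ rz gP hB hT hdec hφ hρ hrz hz hP hC hD
  have N := WinU954.nprof_of_ext (H.sh.d0.le.trans H.sh.R_pos) (H.extK (|θ 0| + |θ 1|))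
  have e2 : ∀ y : ℝ, 0 < y → lam 0 - lam (bx9 y 0 0 0 0 0 0 0 0) = rz * y := by
    intro y hy
    have m1 : bx9 y 0 0 0 0 0 0 0 0 ∈ LM := by
      have e : bx9 y 0 0 0 0 0 0 0 0 = y • uZ := by
        funext k; fin_cases k <;> simp [uZ, bx9]
      rw [e]
      exact smul_LM hy.le uZ_mem
    have h1 := hz 0 zero_mem _ m1 (fun i hi => by
      fin_cases i <;> simp [bx9] at hi ⊢)
    have e3 : (bx9 y 0 0 0 0 0 0 0 0 : Fin 12 → ℝ) 0 - (0 : Fin 12 → ℝ) 0 = y := by simp [bx9]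
    rw [e3] at h1
    exact h1
  have e1 : lam 0 - lam (bx9 1 0 0 0 0 0 0 0 0) = rz := by rw [e2 1 one_pos, mul_one]
  have h1 := Kh330.cd_facts N (fun n => Sd369.coc_N B lev w w0 sa sb fl n) hB.2.2.1 hB.2.2.2 hT
    ⟨_, _, _, rfl⟩ (fun _ => ((0 : ℕ), (0 : ℝ))) hs0 hs1 hdec hφ hρ (by rw [e1]; exact hz)
    (fun y hy => by rw [e2 y hy]; exact mul_le_mul_of_nonneg_right hrz hy.le) hC hD
  have h2 := hP u1 u1_mem u2 u2_mem (fun i hi => by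
    fin_cases i <;> simp [u1, u2, bx9] at hi ⊢)
  have e4 : u2 10 - u1 10 = 1 := by simp [u1, u2, bx9]
  rw [e4, mul_one] at h2
  rw [← h2]
  exact h1

/-- **LEMMA D0 for `β_D < 0`, `s < 1/2`** -/
theorem D0neg {η : ℝ} (hη : η ≤ 1) : D0T η fun s θ => s < 1 / 2 ∧ 2 * θ 0 - θ 1 < 1 := by
  intro G L r g s θ q Rg B I lev A f b vm w fr fl sc w0 sa sb δ R I0 I' ν own c₀ H N hX hR0 hR1 hRg
    hV1 h78 h2
  exact mic_neg H N hη hR0 hR1 hRg hV1 hX.1 hX.2 fun t v ht hvt hv1 =>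
    D0fy332.factsY_of H N.θa hX.2 N.s0 N.s1.le ht hvt hv1 rfl (cdY_T H N.s0 N.s1.le t v)

end ctx

end Crest.Agent.R116.D0y219
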