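import Crest.Agent.R116.D0z_899
import Crest.Agent.R116.D0p_878
import Crest.Agent.R116.D0bs_332
import Crest.Agent.R116.D0e_570
import Crest.Agent.R116.D0E_188

/-!
# R116 (K side), LEMMA D0, case `β_D = 0`, `s < 1/2`, `E` invisible (helper899), part 2

* `loc0`  : the first level at a generic point of the plane `{D = D0}`;
* `factN_T` : the facts over `CtxT`;
* **`d0zero`** : `D0E η (fun s θ => s < 1/2 ∧ 2 * θ 0 - θ 1 = 1)`.
-/

set_option autoImplicit false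
set_option linter.unusedVariables false

open Set Filter Topology MeasureTheory
open scoped NNReal

namespace Crest.Agent.R116.D0z899

open Crest.Agent.R138
open Crest.Agent.R138.Ex926 (Base U IsTan)
open Crest.Agent.R136
open Crest.Agent.R136.MkA627
open Crest.Agent.R136.TD627
open Crest.Agent.R136.Net191
open Crest.Agent.R136.Lq196
open Crest.Agent.R136.Dg219 (mw gC dhC nC gset lf gC_eq gC_zero Walls OutS dirC leg_outC leg_legal
  mem_gset)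
open Crest.Agent.R116.ChL222
open Crest.Agent.R116.PL504 (nb rL DN eL βL oL Shift)
open Crest.Agent.R116.Sg337 (bx9 natB Dm uC nb_natB)
open Crest.Agent.R116.SgF665 (wl)
open Crest.Agent.R116.Gd222 (TSet sN PDL DT)
open Crest.Agent.R116.KI439
open Crest.Agent.R116.KF439 (PL)
open Crest.Agent.R116.Tw468 (OutT OutR)
open Crest.Agent.R116.CtxB468
open Crest.Agent.R116.KTop387 (NumL)
open Crest.Agent.R116.KTie794 (D0E Mic)
open Crest.Agent.R116.D0F878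
open Crest.Agent.R116.D0n878
open Crest.Agent.R116.SgO219 (tan_lim tan_ev tan_lip tan_mono tan_smod)
open Dg262 (SupOn)

/-- **the first level** -/
theorem loc0 {J : Type*} [Finite J] {f : J → (Fin 12 → ℝ) → ℝ} {j0 : J} {R K : ℝ} (hK : 0 ≤ K)
    (hν : ∀ j, ∀ p ∈ Leg monL R, ∀ q ∈ Leg monL R, |f j p - f j q| ≤ K * ‖p - q‖)
    (hm : ∀ p ∈ Leg monL R, ∀ q ∈ Leg monL R, p ≤ q →
      f j0 q ≤ f j0 p ∧ f j0 p - f j0 q ≤ ∑ i, (q i - p i))
    (hs : ∀ p ∈ Leg monL R, ∀ q ∈ Leg monL R, p ⊓ q ∈ Leg monL R →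
      f j0 p + f j0 q ≤ f j0 (p ⊔ q) + f j0 (p ⊓ q))
    (z c p : ℝ) {s : ℝ} (s2 : 2 * s < 1) :
    ∀ᵐ y : ℝ × ℝ, (∀ k, 0 < Dg262.X (natB z c p) (natB 1 1 3) (natB 1 0 1) y k ∧
        Dg262.X (natB z c p) (natB 1 1 3) (natB 1 0 1) y k < R) →
      FactN (Leg monL R) f j0 s (Dg262.X (natB z c p) (natB 1 1 3) (natB 1 0 1) y) →
      ∀ q0 ρ : ℝ, 0 < q0 → 0 < ρ →
      (∀ᶠ h in 𝓝[>] (0:ℝ), q0 * h ≤
        f j0 (Dg262.X (natB z c p) (natB 1 1 3) (natB 1 0 1) y) -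
        f j0 (Dg262.X (natB z c p) (natB 1 1 3) (natB 1 0 1) y + h • uC)) →
      (∃ᶠ h in 𝓝[>] (0:ℝ), ρ * h ≤
        f j0 (Dg262.X (natB z c p) (natB 1 1 3) (natB 1 0 1) y) -
        f j0 (Dg262.X (natB z c p) (natB 1 1 3) (natB 1 0 1) y + h • uD)) →
      ∀ D : ℝ × ℝ →L[ℝ] ℝ,
        HasFDerivAt (fun y => f j0 (Dg262.X (natB z c p) (natB 1 1 3) (natB 1 0 1) y)) D y →
        D (0, 1) ≤ -(6 - 4 * s) := by
  classical
  have key := leg_outC monL hK (hν j0) hm hs (x0 := natB z c p) (b := natB 1 0 1) a1_nonneg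
  filter_upwards [key] with y hy hbox hF q0 ρ hq0 hρ hC hD D hDf
  have hO := O_nat hbox
  obtain ⟨D', hD', H⟩ := hy hO
  have eD : D = D' := hDf.unique hD'
  subst eD
  obtain ⟨ns, hns, hns2⟩ := exists_seq_forall_of_frequently
    (hD.and_eventually self_mem_nhdsWithin)
  have hpos : ∀ l, 0 < ns l := fun l => (hns2 l).2
  have hns0 : Tendsto ns atTop (𝓝 0) := tendsto_nhds_of_tendsto_nhdsWithin hns
  have eL := L_nat z c p 1 1 3 1 0 1
  obtain ⟨ψ1, hψ1, g, hg⟩ := Rc683.exists_tan (J := J) (P := fun _ => Leg monL R)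
    (D := fun _ => (mw monL).L (natB z c p) (natB 1 1 3) (natB 1 0 1))
    (fun _ => Walls.isClosed_L) hK hν
    (x := fun _ => Dg262.X (natB z c p) (natB 1 1 3) (natB 1 0 1) y) hpos (fun _ C => by
      obtain ⟨h1, hh1, hl⟩ := leg_legal monL hO C
      filter_upwards [hns0.eventually_lt_const hh1] with l hl1 c' hc' hC
      exact hl (ns l) (hpos l) hl1 c' hc' hC) (fun _ => by rw [eL]; exact zero_mem)
  obtain ⟨φ, r, HO⟩ := H (fun l => ns (ψ1 l)) (fun l => hpos _) (hns0.comp hψ1.tendsto_atTop)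
    (g j0) (hg j0)
  rw [eL] at HO
  have hg' : ∀ j, Ex926.IsTan (Leg monL R) LM (f j)
      (fun _ => Dg262.X (natB z c p) (natB 1 1 3) (natB 1 0 1) y) (fun l => ns (ψ1 l))
      (g j) := fun j => by have := hg j; rwa [eL] at this
  have hp1 : ∀ l, 0 < ns (ψ1 l) := fun l => hpos _
  have hn1 : Tendsto (fun l => ns (ψ1 l)) atTop (𝓝 0) := hns0.comp hψ1.tendsto_atTop
  have hn2 : Tendsto (fun l => ns (ψ1 l)) atTop (𝓝[>] 0) := hns.comp hψ1.tendsto_atTop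
  obtain ⟨m, ψ, g1, g2, g3, g4, g5⟩ := lin0 HO
  -- rates at the base
  have hmq : q0 ≤ m := by
    have h1 := tan_lim hp1 (hg' j0) zero_mem uC_mem0
    have h2 := g4 0 zero_mem rfl 1 zero_le_one
    rw [one_smul, zero_add, mul_one] at h2
    rw [h2] at h1
    refine ge_of_tendsto h1 ?_
    filter_upwards [hn2.eventually hC] with l hl
    rw [le_div_iff₀ (hp1 l), smul_zero, add_zero]
    exact hl
  have hψρ : ρ ≤ ψ 1 := by
    have h1 := tan_lim hp1 (hg' j0) zero_mem uD_mem0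
    have h2 := g3 0 zero_mem 1 zero_le_one
    rw [one_smul, zero_add, Pi.zero_apply, zero_add, g1, sub_zero] at h2
    rw [h2] at h1
    refine ge_of_tendsto h1 (Eventually.of_forall fun l => ?_)
    rw [le_div_iff₀ (hp1 l), smul_zero, add_zero]
    exact (hns2 (ψ1 l)).1
  obtain ⟨t, v⟩ := y
  have eX := X_nat z c p 1 1 3 1 0 1 t v
  rw [eX] at hF
  have hg2 : ∀ j, Ex926.IsTan (Leg monL R) LM (f j)
      (fun _ => natB (z + t * 1 + v * 1) (c + t * 1 + v * 0) (p + t * 3 + v * 1))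
      (fun l => ns (ψ1 l)) (g j) := by
    intro j
    have := hg' j
    rwa [eX] at this
  refine slope0 hp1 hn1 hg2 hK (fun j c' hc' c'' hc'' => ?_) (fun c' hc' c'' hc'' hle => ?_) ?_
    (lt_of_lt_of_le hq0 hmq) hρ g1 g2 hψρ g3 g4 g5 s2 hF
  · have := tan_lip hp1 (hg' j) (K := K) (fun p hp q hq => by
      rw [dist_eq_norm]; exact hν j p hp q hq) c' hc' c'' hc''
    rwa [dist_eq_norm] at this
  · exact tan_mono hp1 (hg' j0) (fun p hp q hq hpq => by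
      have h1 := hm p hp q hq hpq
      exact ⟨by linarith [h1.1], h1.2⟩) c' hc' c'' hc'' hle
  · exact tan_smod hp1 (hg' j0) (fun p hp q hq h1 h2 => hs p hp q hq h1)

section ctx

variable {G : Geo TSet (Fin 2)} {L : ℕ → ℕ → LRay} {r : ℕ → ℝ} {g s : ℝ} {θ q : Fin 2 → ℝ}
    {Rg : ℝ} {B : Base} {I : ℕ → Finset (ℕ × ℝ)} {lev : ℕ → ℚ → ℕ} {A : ℕ → ℝ}
    {f : ℕ → ℚ → ℕ → ℤ → ℕ} {b : ℕ → ℚ → ℕ → TSet} {vm : ℕ → ℚ → ℝ} {w : Fin 2 → ℕ → ℚ → ℝ}
    {fr : ℕ → ℚ → ℕ × ℝ → LInc} {fl : ℕ → ℕ × ℝ → LInc} {sc : Fin 12 → ℕ → ℝ}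
    {w0 sa sb δ R : ℝ} {I0 I' : ℕ → Finset (ℕ × ℝ)} {ν own : (Fin 12 → ℝ) → ℝ} {c₀ : ℝ}

/-- **the facts over `CtxT`** at a natural box strictly below its own visible levels -/
theorem factN_T
    (H : CtxT G L r g s θ q Rg B I lev A f b vm w fr fl sc w0 sa sb δ R I0 I' ν own c₀)
    (hs0 : 0 ≤ s) (hs1 : s ≤ 1) {v a' b' : ℝ} (hv0 : 0 < v) (hv1 : v < 1) (ha : 0 < a')
    (hB : VisT B I fl sc 7 ∨ VisT B I fl sc 8 → b' - a' < (θ 1 - θ 0) * (1 - v))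
    (hE : VisT B I fl sc 2 ∨ VisT B I fl sc 1 → b' - 2 * a' < (θ 1 - 2 * θ 0) * (1 - v)) :
    FactN (Leg monL R) (fun _ : Unit => ν) () s (nb w0 sa sb v a' b') := by
  intro X h rz rX rH rF gC gP gE gB gD hn hX T
  obtain ⟨D, lam, hD, htan, hlin⟩ := T.ex
  have hN := WinU954.nprof_of_ext (H.sh.d0.le.trans H.sh.R_pos) (H.extK (|θ 0| + |θ 1|))
  have L : Kg330.LinTanM (Leg monL R) (fun _ : Unit => ν) () X h rz rX rH rF gC
      gP gE gB gD := ⟨T.hpos, T.h0, D, lam, hD, htan,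
        fun z D C P E B X H F hm => hlin z D C P E B X H F hm⟩
  have HB := D0bs332.bsMC_mv H hv0 hv1 ha hB hE hn hX T.hpos T.h0
  have hz : bx9 1 0 0 0 0 0 0 0 0 ∈ LM := uZ_mem
  have hown := D0bs332.own_mv H hv0 hv1 hB hE hX T.hpos T.h0 (hD zero_mem) one_pos (hD hz)
    (htan ())
  rw [hlin _ _ _ _ _ _ _ _ _ hz] at hown
  obtain ⟨f1, f2, f3, f4, f5⟩ := Kg330.factsMC hN
    (fun n => Sd369.coc_N B lev w w0 sa sb fl n) hs0 hs1 (f := fun _ : Unit => ν) (j0 := ()) rfl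
    HB L
  have hw := D0bs332.nat_walls hn
  refine ⟨by linarith, fun hC => ⟨?_, ?_⟩, fun hDD => ?_, fun hP => ?_⟩
  · exact (f1 (fun n => (hw n).1) (fun n => (hw n).2.1)).1 hC
  · exact (f3 (fun n => (hw n).2.2.1)).1 hC
  · exact (f5 (fun n => (hw n).2.2.2.2.2)).1 hDD
  · exact (f2 (fun n => (hw n).2.2.2.2.1)).2 hP

/-! ### the change of the plane -/

/-- the linear change `(t, v) ↦ (-a v, t + (1 + a) v)` -/
noncomputable def TT (a : ℝ) (ha : a ≠ 0) : (ℝ × ℝ) ≃ₗ[ℝ] (ℝ × ℝ) where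
  toFun y := (-(a * y.2), y.1 + (1 + a) * y.2)
  map_add' x y := by ext <;> simp <;> ring
  map_smul' c x := by ext <;> simp <;> ring
  invFun z := (z.2 + (1 + a) / a * z.1, -(z.1 / a))
  left_inv y := by
    ext
    · simp only []
      field_simp
      ring
    · simp only []
      field_simp
  right_inv z := by
    ext
    · simp only []
      field_simp
    · simp only []
      field_simp
      ring

theorem TT_apply (a : ℝ) (ha : a ≠ 0) (y : ℝ × ℝ) :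
    TT a ha y = (-(a * y.2), y.1 + (1 + a) * y.2) := rfl

theorem TT_symm (a : ℝ) (ha : a ≠ 0) (z : ℝ × ℝ) :
    (TT a ha).symm z = (z.2 + (1 + a) / a * z.1, -(z.1 / a)) := rfl

theorem TT_qmp (a : ℝ) (ha : a ≠ 0) :
    Measure.QuasiMeasurePreserving (fun y => TT a ha y) (volume : Measure (ℝ × ℝ)) volume :=
  Measure.LinearMap.quasiMeasurePreserving volume ((TT a ha : (ℝ × ℝ) ≃ₗ[ℝ] (ℝ × ℝ)) : (ℝ × ℝ) →ₗ[ℝ] (ℝ × ℝ))
    (LinearEquiv.isUnit_det' (TT a ha)).ne_zero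

theorem X_TT (a : ℝ) (ha : a ≠ 0) (w0 sa sb : ℝ) (y : ℝ × ℝ) :
    Dg262.X (natB w0 (sa + a) (sb + (2 * a - 1))) (natB 1 1 3) (natB 1 0 1) (TT a ha y) =
      nb w0 sa sb (y.2 + y.1) (a * (1 - y.2)) ((2 * a - 1) * (1 - y.2) + y.1) := by
  obtain ⟨t, v⟩ := y
  rw [TT_apply, X_nat, nb_natB]
  congr 1 <;> ring

theorem X_TT' (a : ℝ) (ha : a ≠ 0) (w0 sa sb : ℝ) (y : ℝ × ℝ) :
    Dg262.X (natB w0 (sa + a) (sb + (2 * a - 1))) (natB 1 1 3) (natB 1 0 1) (TT a ha y) =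
      Dg262.X (rL a (2 * a - 1) w0 sa sb 0) (natB 1 0 1) (natB 1 (-a) (-(2 * a - 1))) y := by
  obtain ⟨t, v⟩ := y
  rw [X_TT, D0e570.X_nb]

/-- the derivative is carried by the change of the plane -/
theorem TT_deriv {F : (Fin 12 → ℝ) → ℝ} {a w0 sa sb : ℝ} (ha : a ≠ 0) {y : ℝ × ℝ}
    {D : ℝ × ℝ →L[ℝ] ℝ}
    (h : HasFDerivAt (fun y => F (Dg262.X (rL a (2 * a - 1) w0 sa sb 0) (natB 1 0 1)
      (natB 1 (-a) (-(2 * a - 1))) y)) D y) :
    ∃ D' : ℝ × ℝ →L[ℝ] ℝ, D' (0, 1) = D (1, 0) ∧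
      HasFDerivAt (fun y => F (Dg262.X (natB w0 (sa + a) (sb + (2 * a - 1))) (natB 1 1 3)
        (natB 1 0 1) y)) D' (TT a ha y) := by
  set e := (TT a ha).toContinuousLinearEquiv with he
  have e1 : ∀ z, e z = TT a ha z := fun z => rfl
  have e2 : ∀ z, e.symm z = (TT a ha).symm z := fun z => rfl
  refine ⟨D.comp (e.symm : (ℝ × ℝ) →L[ℝ] (ℝ × ℝ)), ?_, ?_⟩
  · rw [ContinuousLinearMap.comp_apply, ContinuousLinearEquiv.coe_coe, e2, TT_symm]
    congr 1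
    ext <;> simp
  · have h1 : HasFDerivAt (fun z => (e.symm : (ℝ × ℝ) →L[ℝ] (ℝ × ℝ)) z)
        (e.symm : (ℝ × ℝ) →L[ℝ] (ℝ × ℝ)) (TT a ha y) :=
      (e.symm : (ℝ × ℝ) →L[ℝ] (ℝ × ℝ)).hasFDerivAt
    have h2 : (e.symm : (ℝ × ℝ) →L[ℝ] (ℝ × ℝ)) (TT a ha y) = y := by
      rw [ContinuousLinearEquiv.coe_coe, e2]; exact (TT a ha).symm_apply_apply y
    have h3 := HasFDerivAt.comp (TT a ha y) (g := fun y => F (Dg262.X (rL a (2 * a - 1) w0 sa sb 0)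
      (natB 1 0 1) (natB 1 (-a) (-(2 * a - 1))) y)) (by rw [h2]; exact h) h1
    refine h3.congr_of_eventuallyEq (Eventually.of_forall fun z => ?_)
    show F _ = F _
    congr 1
    have h4 := X_TT' a ha w0 sa sb ((TT a ha).symm z)
    rw [(TT a ha).apply_symm_apply] at h4
    rw [h4]
    rfl

/-- **the set of `D`-live heights is locally null**, `β_D = 0`, `s < 1/2`, `E` invisible -/
theorem loc_zero {η : ℝ}
    (H : CtxT G L r (g + 2 * s) s θ q Rg B I lev A f b vm w fr fl sc w0 sa sb δ R I0 I' ν own c₀)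
    (N : NumL η g s θ q) (hη : η ≤ 1)
    (hR0 : w0 + (θ 1 + sb) < R) (hR1 : w0 + 1 + sb < R)
    (hRg : θ 0 + |θ 1| + 1 ≤ Rg) (hV1 : InvT PL B I 1 fl (sc 1)) (hV2 : InvT PL B I 2 fl (sc 2))
    (s2 : s < 1 / 2) (hβ : 2 * θ 0 - θ 1 = 1) {v0 : ℝ} (hv0 : 0 < v0) (hv1 : v0 < 1) :
    ∃ v1 v2 : ℝ, v1 < v0 ∧ v0 < v2 ∧ ∀ ρ : ℝ, 0 < ρ →
      volume {v : ℝ | v ∈ Ioo v1 v2 ∧ ∃ᶠ y in 𝓝[>] (0:ℝ), ρ * y ≤
        ν (rL (θ 0) (θ 1) w0 sa sb v) - ν (rL (θ 0) (θ 1) w0 sa sb v + y • uD)} = 0 := by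
  classical
  have hθ : 0 < θ 0 := N.θa
  have hθ1 : θ 1 = 2 * θ 0 - 1 := by linarith
  have n2 : ¬ VisT B I fl sc 2 := fun h => h hV2
  obtain ⟨κ, hκ, hn⟩ := D0p878.near_box H hR0 hR1 hθ hRg hv0 hv1
  obtain ⟨M, hM1, hMa, hMb⟩ : ∃ M : ℝ, 1 ≤ M ∧ θ 0 ≤ M ∧ |θ 1| ≤ M :=
    ⟨1 + θ 0 + |θ 1|, by linarith [abs_nonneg (θ 1)], by linarith [abs_nonneg (θ 1)], by linarith⟩
  obtain ⟨d, hd, hdκ, hd0, hd1⟩ : ∃ d : ℝ, 0 < d ∧ 8 * (M * d) ≤ κ ∧ d < v0 / 2 ∧ d < 1 - v0 := by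
    refine ⟨min (κ / (8 * M)) (min (v0 / 3) ((1 - v0) / 2)), lt_min (by positivity)
      (lt_min (by positivity) (by linarith)), ?_, ?_, ?_⟩
    · have h1 : min (κ / (8 * M)) (min (v0 / 3) ((1 - v0) / 2)) ≤ κ / (8 * M) := min_le_left _ _
      rw [le_div_iff₀ (by positivity)] at h1
      linarith
    · have h1 := (min_le_right (κ / (8 * M)) (min (v0 / 3) ((1 - v0) / 2))).trans (min_le_left _ _)
      linarith
    · have h1 := (min_le_right (κ / (8 * M)) (min (v0 / 3) ((1 - v0) / 2))).trans (min_le_right _ _)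
      linarith
  have hdM : d ≤ M * d := le_mul_of_one_le_left hd.le hM1
  have dev : ∀ v : ℝ, v ∈ Icc (v0 - d) (v0 + d) → |v - v0| ≤ κ / 8 ∧
      |θ 0 * (v - v0)| ≤ κ / 8 ∧ |θ 1 * (v - v0)| ≤ κ / 8 := by
    intro v hv
    have h1 : |v - v0| ≤ d := by rw [abs_le]; constructor <;> linarith [hv.1, hv.2]
    refine ⟨by linarith, ?_, ?_⟩
    · rw [abs_mul, abs_of_pos hθ]
      have := mul_le_mul hMa h1 (abs_nonneg _) (by linarith)
      linarith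
    · rw [abs_mul]
      have := mul_le_mul hMb h1 (abs_nonneg _) (by linarith)
      linarith
  have hvI : ∀ v : ℝ, v ∈ Icc (v0 - d) (v0 + d) → v0 / 2 < v ∧ v < 1 := fun v hv =>
    ⟨by linarith [hv.1], by linarith [hv.2]⟩
  -- boxes
  have hns : ∀ v : ℝ, v ∈ Icc (v0 - d) (v0 + d) → ∀ x z : ℝ, |x| ≤ κ / 2 →
      |z| ≤ κ / 2 → ∀ k, 0 < natB (w0 + v + x) (sa + θ 0 * (1 - v))
        (sb + θ 1 * (1 - v) + z) k ∧ natB (w0 + v + x) (sa + θ 0 * (1 - v))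
        (sb + θ 1 * (1 - v) + z) k < R := by
    intro v hv x z hx hz
    obtain ⟨a1, a2, a3⟩ := dev v hv
    rw [abs_le] at a1 a2 a3 hx hz
    have b1 : |w0 + v + x - (w0 + v0)| ≤ κ := by
      rw [abs_le]; constructor <;> linarith [a1.1, a1.2, hx.1, hx.2]
    have b2 : |sa + θ 0 * (1 - v) - (sa + θ 0 * (1 - v0))| ≤ κ := by
      rw [abs_le]; constructor <;> linarith [a2.1, a2.2]
    have b3 : |sb + θ 1 * (1 - v) + z - (sb + θ 1 * (1 - v0))| ≤ κ := by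
      rw [abs_le]; constructor <;> linarith [a3.1, a3.2, hz.1, hz.2]
    exact (hn _ _ _ b1 b2 b3).1
  have hlipν : ∀ j : Unit, ∀ p ∈ Leg monL R, ∀ q ∈ Leg monL R,
      |(fun _ : Unit => ν) j p - (fun _ : Unit => ν) j q| ≤ (12:ℝ) * ‖p - q‖ := by
    intro j p hp q hq
    have h1 := Rcx363.fo_lip H 0 p hp q hq
    rw [dist_eq_norm] at h1
    exact h1
  have hmono : ∀ p ∈ Leg monL R, ∀ q ∈ Leg monL R, p ≤ q →
      (fun _ : Unit => ν) () q ≤ (fun _ : Unit => ν) () p ∧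
      (fun _ : Unit => ν) () p - (fun _ : Unit => ν) () q ≤ ∑ i, (q i - p i) := by
    intro p hp q hq hpq
    have h1 := H.ext.lip p hp q hq hpq
    exact ⟨by show ν q ≤ ν p; linarith [h1.1], h1.2⟩
  refine ⟨v0 - d, v0 + d, by linarith, by linarith, fun ρ hρ => ?_⟩
  set E : Set ℝ := {v : ℝ | v ∈ Ioo (v0 - d) (v0 + d) ∧ ∃ᶠ y in 𝓝[>] (0:ℝ), ρ * y ≤
        ν (rL (θ 0) (θ 1) w0 sa sb v) - ν (rL (θ 0) (θ 1) w0 sa sb v + y • uD)} with hE
  obtain ⟨t0, ht0, ht1, ht2⟩ : ∃ t0 : ℝ, 0 < t0 ∧ t0 ≤ κ / 2 ∧ t0 ≤ v0 / 2 :=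
    ⟨min (κ / 2) (v0 / 2), lt_min (by linarith) (by linarith), min_le_left _ _, min_le_right _ _⟩
  have hEI : E ⊆ Ioo 0 1 := by
    intro v hv
    have := hvI v ⟨hv.1.1.le, hv.1.2.le⟩
    exact ⟨by linarith, this.2⟩
  have key := D0e570.end_null H N hη hR0 hR1 hRg ht0 (E := E) ?_
  · rwa [inter_eq_left.2 hEI] at key
  have h0 := loc0 (J := Unit) (f := fun _ : Unit => ν) (j0 := ()) (R := R) (K := 12)
    (by norm_num) hlipν hmono H.ext.submod w0 (sa + θ 0) (sb + (2 * θ 0 - 1)) (s := s)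
    (by linarith)
  have h0' := (TT_qmp (θ 0) hθ.ne').ae h0
  filter_upwards [h0'] with y hy hy1 hy2 hyE D hD
  obtain ⟨t, v⟩ := y
  have hy1' : -t0 < t := hy1
  have hy2' : t < 0 := hy2
  have hvE : v ∈ E := hyE
  have hvc : v ∈ Icc (v0 - d) (v0 + d) := ⟨hvE.1.1.le, hvE.1.2.le⟩
  obtain ⟨c1, c2⟩ := hvI v hvc
  rw [hθ1] at hD
  obtain ⟨D', eD, hD'⟩ := TT_deriv (w0 := w0) (sa := sa) (sb := sb) hθ.ne' hD
  have ex := X_TT (θ 0) hθ.ne' w0 sa sb (t, v)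
  simp only [] at ex
  rw [← hθ1] at ex
  rw [← hθ1] at hy hD'
  rw [ex] at hy
  have en : nb w0 sa sb (v + t) (θ 0 * (1 - v)) (θ 1 * (1 - v) + t) =
      natB (w0 + v + t) (sa + θ 0 * (1 - v)) (sb + θ 1 * (1 - v) + t) := by
    rw [nb_natB]
    congr 1 <;> ring
  have tabs : |t| ≤ κ / 2 := by rw [abs_le]; constructor <;> linarith
  have hbox := hns v hvc t t tabs tabs
  have hp : natB (w0 + v + t) (sa + θ 0 * (1 - v)) (sb + θ 1 * (1 - v) + t) ∈ Leg monL R :=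
    nat_leg (fun k => (hbox k).1.le) fun k => (hbox k).2.le
  have hbox0 := hns v hvc 0 0 (by rw [abs_zero]; linarith) (by rw [abs_zero]; linarith)
  rw [add_zero, add_zero] at hbox0
  have hq : natB (w0 + v) (sa + θ 0 * (1 - v)) (sb + θ 1 * (1 - v)) ∈ Leg monL R :=
    nat_leg (fun k => (hbox0 k).1.le) fun k => (hbox0 k).2.le
  have hle : natB (w0 + v + t) (sa + θ 0 * (1 - v)) (sb + θ 1 * (1 - v) + t) ≤
      natB (w0 + v) (sa + θ 0 * (1 - v)) (sb + θ 1 * (1 - v)) :=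
    natB_le (by linarith) le_rfl (by linarith)
  rw [← eD]
  refine hy ?_ ?_ (q 0) ρ N.qa hρ ?_ ?_ D' hD'
  · rw [en]; exact hbox
  · refine factN_T H N.s0 N.s1.le (by linarith) (by linarith) (mul_pos hθ (by linarith))
      (fun _ => ?_) (fun h => (h.elim (fun h => h hV2) (fun h => h hV1)).elim)
    rw [hθ1]
    nlinarith
  · rw [en]
    have h1 := D0p878.hC_T H hR0 hR1 hθ hRg hV1 (fun _ => by linarith) (fun h => absurd h n2)
      (v := v) (by linarith) c2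
    rw [D0r708.rL_natB] at h1
    have h2 := incr_le H.ext.submod hp hq hle uC_nonneg uC_z
      (fun k hk => by
        fin_cases k <;> first
          | (exfalso; apply hk; simp [uC, bx9]; done)
          | (simp [natB, bx9])) fun k => (hbox0 k).2
    filter_upwards [h1, h2] with z h3 h4
    linarith
  · rw [en]
    have h1 := hvE.2
    rw [D0r708.rL_natB] at h1
    have h2 := incr_le H.ext.submod hp hq hle uD_nonneg uD_z
      (fun k hk => by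
        fin_cases k <;> first
          | (exfalso; apply hk; simp [uD, bx9]; done)
          | (simp [natB, bx9]; ring)) fun k => (hbox0 k).2
    refine (h1.and_eventually h2).mono fun z hz => ?_
    linarith [hz.1, hz.2]

/-- **LEMMA D0 for `β_D = 0`, `s < 1/2`, `E` invisible** -/
theorem d0zero {η : ℝ} (hη : η ≤ 1) : D0E η fun s θ => s < 1 / 2 ∧ 2 * θ 0 - θ 1 = 1 := by
  intro G L r g s θ q Rg B I lev A f b vm w fr fl sc w0 sa sb δ R I0 I' ν own c₀ H N hX hR0 hR1 hRg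
    hV1 hV2 h78
  exact D0p878.mic_of H hR0 hR1 fun v0 a1 a2 => loc_zero H N hη hR0 hR1 hRg hV1 hV2 hX.1 hX.2
    a1 a2

end ctx

end Crest.Agent.R116.D0z899
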