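import Crest.Agent.R116.RbK3_219
import Crest.Agent.R116.SgO3_219

/-!
# R116 (K side, ties), generic point of a plane of the record tangent (helper647)

* `pos_slope`  : a Lipschitz function with `ψ y - ψ 0 ≤ κ y` has slope `≤ κ` at generic points
* `FRates`     : rates of ALL ray slots of a surface (no condition `A t ≠ 0`) for a tangent at an
  interior point of the plane
* `OutS.frates`: `FRates` from `OutS`
* `exists_rep` : one slot per parallel class
* **`pick`**   : generic point `z0 = (l0, α0)`, `l0 > 0`, of the plane at which the slope in the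
  direction `B` is `≤ κ`; every tangent there has `FRates`, the rates of the slots with `A t ≠ 0` are
  those of the record window, `lam2 (vec B) ≤ κ`, same values along the record
-/

set_option autoImplicit false
set_option linter.unusedSectionVars false
set_option linter.unusedVariables false

open Set Filter Topology Metric MeasureTheory

namespace Crest.Agent.R116.Kz647

open Crest.Agent.R136
open Crest.Agent.R138
open Dg262 (X X_cont SupOn)
open Dg219 (Tn lf det2 zz lf_zz Cone Sep Geo gset mem_gset Walls gC nC dhC gC_zero gC_eq nC_zero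
  nC_of dirC exists_grpC OutS)
open Rc146 (OutH LH DH SH SDir gapW RecOut)
open Rc683 (Srf)
open RbK219
open SgO219 (cw PP OO cw_PP ae_out_lam exists_tan_OO)

/-- slope at most `κ` at a set of positive measure -/
theorem pos_slope {ψ : ℝ → ℝ} {K y κ : ℝ} (hy : 0 < y) (hK : 0 ≤ K)
    (hL : ∀ u ∈ Icc 0 y, ∀ v ∈ Icc 0 y, |ψ u - ψ v| ≤ K * |u - v|)
    (hle : ψ y - ψ 0 ≤ κ * y) {S : Set ℝ} (hS : ∀ᵐ l : ℝ, l ∈ S) :
    ∃ l ∈ Ioo 0 y, l ∈ S ∧ ∃ d, HasDerivAt ψ d l ∧ d ≤ κ := by
  have hLip : LipschitzOnWith ⟨K, hK⟩ ψ (uIcc 0 y) := by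
    rw [uIcc_of_le hy.le]
    exact LipschitzOnWith.of_dist_le_mul fun u hu v hv => by
      rw [Real.dist_eq, Real.dist_eq]; exact hL u hu v hv
  have hac : AbsolutelyContinuousOnInterval ψ 0 y := hLip.absolutelyContinuousOnInterval
  have hint := hac.integral_deriv_eq_sub
  have hii := hac.intervalIntegrable_deriv
  by_contra hcon
  push Not at hcon
  have hae : ∀ᵐ l : ℝ, l ∈ Ioo 0 y → κ < deriv ψ l := by
    have h1 : ∀ᵐ l : ℝ, l ∈ Ioo 0 y → DifferentiableAt ℝ ψ l := by
      have h2 := (hLip.mono (Ioo_subset_Icc_self.trans (by rw [uIcc_of_le hy.le]) :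
        Ioo (0:ℝ) y ⊆ uIcc 0 y)).ae_differentiableWithinAt_of_mem (μ := volume)
      filter_upwards [h2] with l hl hly
      exact (hl hly).differentiableAt (Ioo_mem_nhds hly.1 hly.2)
    filter_upwards [h1, hS] with l hl hlS hly
    exact hcon l hly hlS _ (hl hly).hasDerivAt
  have hi2 : IntervalIntegrable (fun l => deriv ψ l - κ) volume 0 y := hii.sub (by simp)
  have h0 : 0 ≤ᵐ[volume.restrict (uIoc 0 y)] (fun l => deriv ψ l - κ) := by
    rw [EventuallyLE, uIoc_of_le hy.le]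
    refine ae_restrict_of_ae_eq_of_ae_restrict Ioo_ae_eq_Ioc ?_
    rw [ae_restrict_iff' measurableSet_Ioo]
    filter_upwards [hae] with l hl hly
    have := hl hly
    simp only [Pi.zero_apply]; linarith
  have hpos : 0 < ∫ l in (0:ℝ)..y, (deriv ψ l - κ) := by
    rw [intervalIntegral.integral_pos_iff_support_of_nonneg_ae' h0 hi2]
    refine ⟨hy, ?_⟩
    have h3 : volume (Ioo 0 y) ≤ volume (Function.support (fun l => deriv ψ l - κ) ∩ Ioc 0 y) := by
      refine measure_mono_ae ?_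
      filter_upwards [hae] with l hl hly
      have := hl hly
      exact ⟨by simp only [Function.mem_support]; intro h; linarith, Ioo_subset_Ioc_self hly⟩
    exact ((Measure.measure_Ioo_pos _).mpr hy).trans_le h3
  rw [intervalIntegral.integral_sub hii (by simp), hint] at hpos
  simp at hpos
  linarith

variable {ι W τ : Type*} [Fintype ι] [DecidableEq ι] [Fintype W] [Fintype τ] [DecidableEq τ]

/-- **all rates of a plane**, no condition `A t ≠ 0`; `ρ t` = rate of the group of `t` in units of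
the level of `t` -/
structure FRates (R : RS ι τ) (A B : τ → ℝ) (sg : ℝ) (lam : (ι → ℝ) → ℝ) (L : Set (ι → ℝ))
    (ρ : τ → ℝ) : Prop where
  alone : ∀ t, Aln A B t → R.RateAt lam L t (ρ t)
  grp : ∀ t, R.RateG A B sg lam L t (ρ t)
  nn : ∀ t, 0 ≤ ρ t
  le : ∀ t, ρ t ≤ ∑ i, R.eG A B sg t i
  par : ∀ t t', Par A B t t' → ρ t * dl A B sg t = ρ t' * dl A B sg t'
  /-- linear on the whole natural plane -/
  nat : ∀ α l : ℝ, ∀ rep : Finset τ, (∀ t, ∃! t', t' ∈ rep ∧ Par A B t t') →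
    lam (R.vec (l • B + α • A)) = -∑ t ∈ rep, ρ t * (l * B t + α * A t)

section outS

variable {grp : ι → ℕ} {L : Set (ι → ℝ)} {dh : ι → ℝ} {n : ℕ → ℝ × ℝ} {lam : (ι → ℝ) → ℝ}
  {D : ℝ × ℝ} {φ : ℕ → (ι → ℝ) → ℝ} {r : ℕ → ℝ}

theorem inc_phiS (H : OutS grp L dh n lam D φ r) {k : ℕ} (hk : k ∈ gset grp) {p e : ι → ℝ}
    (hp : p ∈ L) (hpe : p + e ∈ L) (heo : ∀ i, grp i ≠ k → e i = 0) :
    lam p - lam (p + e) = φ k p - φ k (p + e) := by
  rw [H.sum p hp, H.sum _ hpe, ← Finset.sum_sub_distrib, Finset.sum_eq_single_of_mem k hk]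
  intro k' _ hkk
  rw [H.loc k' (p + e) p fun i hi => by
    rw [Pi.add_apply, heo i (fun h => hkk (by rw [← hi, ← h])), add_zero], sub_self]

theorem rate_incS (H : OutS grp L dh n lam D φ r) {k : ℕ} (hk : k ∈ gset grp)
    {p e : ι → ℝ} (hp : p ∈ L) (hpe : p + e ∈ L) {u t : ℝ}
    (hpu : ∀ i, grp i = k → p i = u * dh i) (het : ∀ i, grp i = k → e i = t * dh i)
    (heo : ∀ i, grp i ≠ k → e i = 0) : lam p - lam (p + e) = r k * t := by
  rw [inc_phiS H hk hp hpe heo, H.rate k p hp u hpu,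
    H.rate k (p + e) hpe (u + t) fun i hi => by
      rw [Pi.add_apply, hpu i hi, het i hi]; ring]
  ring

end outS

section reps

variable {A B : τ → ℝ} {sg : ℝ}

theorem Par.refl' (t : τ) : Par A B t t := rfl

theorem Par.trans' (h : SOk A B sg) {t t' t'' : τ} (h1 : Par A B t t') (h2 : Par A B t' t'') :
    Par A B t t'' := by
  unfold Par at *
  by_cases hB : B t' = 0
  · have hA := h.zero t' hB
    rw [hB, mul_zero] at h1
    rw [hB, mul_zero] at h2
    have hBt : B t = 0 := by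
      rcases mul_eq_zero.1 h1.symm with h3 | h3
      · exact absurd h3 hA.ne'
      · exact h3
    have hBt'' : B t'' = 0 := by
      rcases mul_eq_zero.1 h2 with h3 | h3
      · exact absurd h3 hA.ne'
      · exact h3
    rw [hBt, hBt'']; ring
  · apply mul_right_cancel₀ hB
    linear_combination (B t'') * h1 + (B t) * h2

/-- one slot per parallel class -/
theorem exists_rep (h : SOk A B sg) :
    ∃ rep : Finset τ, ∀ t, ∃! t', t' ∈ rep ∧ Par A B t t' := by
  classical
  let s : Setoid τ := ⟨fun t t' => Par A B t t', ⟨fun t => Par.refl' t, fun h' => h'.symm',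
    fun h1 h2 => Par.trans' h h1 h2⟩⟩
  refine ⟨Finset.univ.image fun t => (Quotient.mk s t).out, fun t => ?_⟩
  refine ⟨(Quotient.mk s t).out, ⟨Finset.mem_image_of_mem _ (Finset.mem_univ t), ?_⟩, ?_⟩
  · have h1 : s (Quotient.mk s t).out t := Quotient.mk_out t
    exact Par.symm' h1
  · rintro t' ⟨ht', hp⟩
    obtain ⟨u, -, rfl⟩ := Finset.mem_image.1 ht'
    have h1 : s (Quotient.mk s u).out u := Quotient.mk_out u
    have h2 : Par A B t u := Par.trans' h hp h1
    have h3 : Quotient.mk s t = Quotient.mk s u := Quotient.sound h2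
    rw [h3]

/-- the representatives with `A t ≠ 0` -/
theorem rep_A (h : SOk A B sg) {rep : Finset τ} (hrep : ∀ t, ∃! t', t' ∈ rep ∧ Par A B t t')
    {repA : Finset τ} (hr : ∀ t, t ∈ repA ↔ t ∈ rep ∧ A t ≠ 0) :
    (∀ t, A t ≠ 0 → ∃! t', t' ∈ repA ∧ Par A B t t') ∧ ∀ t ∈ repA, A t ≠ 0 := by
  refine ⟨fun t hA => ?_, fun t ht => ((hr t).1 ht).2⟩
  obtain ⟨t', ⟨h1, h2⟩, h3⟩ := hrep t
  have hA' : A t' ≠ 0 := by
    intro h0
    unfold Par at h2
    rw [h0, zero_mul] at h2
    have hB : B t' = 0 := (mul_eq_zero.1 h2).resolve_left hA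
    have := h.zero t' hB
    linarith
  exact ⟨t', ⟨(hr t').2 ⟨h1, hA'⟩, h2⟩, fun u hu => h3 u ⟨((hr u).1 hu.1).1, hu.2⟩⟩

end reps

section

variable {R : RS ι τ} {A B : τ → ℝ} {sg : ℝ} {y0 : ι → ℝ} {Q : Walls ι W}

theorem srf_dh_pos (h : SOk A B sg) (i : ι) : 0 < (R.srf y0 A B sg).dh i := by
  rw [h.dh_eq]; exact mul_pos (R.pos i) (h.dl_pos _)

/-- natural vector with a given level in one group -/
theorem exists_lvl (h : SOk A B sg) (j : ι) (x : ℝ) :
    ∃ z : ℝ × ℝ, ∀ i, (R.srf y0 A B sg).g i = (R.srf y0 A B sg).g j →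
      Tn (R.srf y0 A B sg).a (R.srf y0 A B sg).b z i = x * (R.srf y0 A B sg).dh i := by
  have hd := h.sdir (R := R) (y0 := y0)
  refine ⟨zz ((R.srf y0 A B sg).n ((R.srf y0 A B sg).g j)) x, fun i hi => ?_⟩
  rw [hd.Tn_eq, hi, lf_zz (hd.ne j)]

/-- room for the group of `t` -/
theorem roomGrp (h : SOk A B sg) (hF : Q.Full y0 (R.vec (sg • B)) (R.vec A)) (t : τ) :
    ∃ c : ι → ℝ, c ∈ (R.srf y0 A B sg).L Q ∧ c + R.eG A B sg t ∈ (R.srf y0 A B sg).L Q ∧
      ∀ i, Par A B t (R.cls i) → c i = 0 := by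
  classical
  obtain ⟨wv, hG⟩ := exists_grpC (b := R.vec A) (h.a_nonneg (R := R))
  obtain ⟨j, hj⟩ := R.sur t
  have hgeo : Geo (R.srf y0 A B sg).g (Q.D y0 (R.vec (sg • B)) (R.vec A))
      (Q.L y0 (R.vec (sg • B)) (R.vec A)) (Q.rm (R.srf y0 A B sg).g) Q.rs :=
    Walls.geoG hG hF fun _ _ => Iff.rfl
  have hg : ∀ i, (R.srf y0 A B sg).g i = (R.srf y0 A B sg).g j ↔ Par A B t (R.cls i) := by
    intro i; rw [h.grp_par (R := R) (y0 := y0), hj]
  obtain ⟨C, hC, H⟩ := Walls.roomG hG hF (grp := (R.srf y0 A B sg).g) (fun _ _ => Iff.rfl)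
    ((R.srf y0 A B sg).g j)
  set Am : ℝ := ∑ i, |R.eG A B sg t i| with hAm
  have hAm0 : 0 ≤ Am := Finset.sum_nonneg fun i _ => abs_nonneg _
  have hK : 0 ≤ C * Am := mul_nonneg hC hAm0
  refine ⟨(C * Am) • Q.rm (R.srf y0 A B sg).g ((R.srf y0 A B sg).g j), ?_, ?_, ?_⟩
  · exact hgeo.cone.smul _ (hgeo.room.mem _) _ hK
  · have h1 := H (R.eG A B sg t) Am (C * Am) hAm0 (fun i =>
      Finset.single_le_sum (f := fun i => |R.eG A B sg t i|) (fun i _ => abs_nonneg _)
        (Finset.mem_univ i)) ?_ le_rfl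
    · rw [add_comm]; exact h1
    · obtain ⟨z, hz⟩ := exists_lvl (R := R) (y0 := y0) h j (1 / dl A B sg t)
      refine ⟨Tn (R.vec (sg • B)) (R.vec A) z, Walls.Tn_mem _, fun i hi => ?_⟩
      have := hz i hi
      have hd := (h.dl_pos t).ne'
      change Tn (R.srf y0 A B sg).a (R.srf y0 A B sg).b z i = _
      rw [this, h.dh_eq, RS.eG, if_pos ((hg i).1 hi)]
      field_simp
  · intro i hi
    rw [Pi.smul_apply, smul_eq_mul, Walls.rm, if_pos ((hg i).2 hi), mul_zero]

/-- **all rates from `OutS`** -/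
theorem frates_of (h : SOk A B sg) {lam : (ι → ℝ) → ℝ} {D : ℝ × ℝ} {φ : ℕ → (ι → ℝ) → ℝ}
    {r : ℕ → ℝ}
    (H : OutS (R.srf y0 A B sg).g ((R.srf y0 A B sg).L Q) (R.srf y0 A B sg).dh
      (R.srf y0 A B sg).n lam D φ r) :
    ∃ ρ : τ → ℝ, FRates R A B sg lam ((R.srf y0 A B sg).L Q) ρ := by
  classical
  choose j hj using R.sur
  set ρ : τ → ℝ := fun t => r ((R.srf y0 A B sg).g (j t)) / dl A B sg t with hρ
  have hdh : ∀ i, 0 < (R.srf y0 A B sg).dh i := srf_dh_pos h
  have hg : ∀ t i, (R.srf y0 A B sg).g i = (R.srf y0 A B sg).g (j t) ↔ Par A B t (R.cls i) := by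
    intro t i; rw [h.grp_par (R := R) (y0 := y0), hj]
  have hsd := h.sdir (R := R) (y0 := y0)
  have hL : ∀ z, Tn (R.srf y0 A B sg).a (R.srf y0 A B sg).b z ∈ (R.srf y0 A B sg).L Q :=
    fun z => Walls.Tn_mem z
  refine ⟨ρ, ⟨fun t ht p u x hp hpm hpe => ?_, fun t p u x hp hpm hpe => ?_, fun t => ?_,
    fun t => ?_, fun t t' hp => ?_, fun α l rep hrep => ?_⟩⟩
  · have hd := (h.dl_pos t).ne'
    rw [rate_incS H (mem_gset (j t)) hpm hpe (u := u / dl A B sg t) (t := x / dl A B sg t)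
      (fun i hi => by
        have hi' := (h.grp_iff ht (hj t) i).1 hi
        rw [hp i hi', h.dh_eq, hi']; field_simp)
      (fun i hi => by
        have hi' := (h.grp_iff ht (hj t) i).1 hi
        rw [Pi.smul_apply, smul_eq_mul, RS.e, if_pos hi', h.dh_eq, hi']; field_simp)
      (fun i hi => by
        have hi' : R.cls i ≠ t := fun h' => hi ((h.grp_iff ht (hj t) i).2 h')
        rw [Pi.smul_apply, smul_eq_mul, RS.e, if_neg hi', mul_zero])]
    simp only [hρ]; ring
  · have hd := (h.dl_pos t).ne'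
    rw [rate_incS H (mem_gset (j t)) hpm hpe (u := u / dl A B sg t) (t := x / dl A B sg t)
      (fun i hi => by
        rw [hp i ((hg t i).1 hi), h.dh_eq]; field_simp)
      (fun i hi => by
        rw [Pi.smul_apply, smul_eq_mul, RS.eG, if_pos ((hg t i).1 hi), h.dh_eq]; field_simp)
      (fun i hi => by
        rw [Pi.smul_apply, smul_eq_mul, RS.eG, if_neg (fun h' => hi ((hg t i).2 h')),
          mul_zero])]
    simp only [hρ]; ring
  · exact div_nonneg (H.r_nonneg _ fun i _ => hdh i) (h.dl_pos t).le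
  · -- le
    obtain ⟨z, hz⟩ := exists_lvl (R := R) (y0 := y0) h (j t) 1
    have h1 := (H.mono ((R.srf y0 A B sg).g (j t)) 0 (Walls.cone (Q := Q)).zero _ (hL z)
      (fun i hi => by rw [hz i hi, one_mul]; exact (hdh i).le)).2
    rw [H.zero _ 0 (fun _ _ => rfl), H.rate _ _ (hL z) 1 hz] at h1
    have h2 : r ((R.srf y0 A B sg).g (j t)) ≤ ∑ i ∈ Finset.univ.filter
        (fun i => (R.srf y0 A B sg).g i = (R.srf y0 A B sg).g (j t)), (R.srf y0 A B sg).dh i := by
      have h3 : ∑ i ∈ Finset.univ.filter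
          (fun i => (R.srf y0 A B sg).g i = (R.srf y0 A B sg).g (j t)),
          (Tn (R.srf y0 A B sg).a (R.srf y0 A B sg).b z i - (0 : ι → ℝ) i) =
          ∑ i ∈ Finset.univ.filter
          (fun i => (R.srf y0 A B sg).g i = (R.srf y0 A B sg).g (j t)),
            (R.srf y0 A B sg).dh i := by
        refine Finset.sum_congr rfl fun i hi => ?_
        rw [hz i (Finset.mem_filter.1 hi).2, Pi.zero_apply]; ring
      rw [h3] at h1
      linarith
    simp only [hρ]
    rw [div_le_iff₀ (h.dl_pos t)]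
    refine h2.trans (le_of_eq ?_)
    rw [Finset.sum_filter, Finset.sum_mul]
    refine Finset.sum_congr rfl fun i _ => ?_
    unfold RS.eG
    by_cases hp : Par A B t (R.cls i)
    · rw [if_pos ((hg t i).2 hp), if_pos hp, h.dh_eq]
      have := (h.dl_pos t).ne'
      field_simp
    · rw [if_neg (fun h' => hp ((hg t i).1 h')), if_neg hp, zero_mul]
  · simp only [hρ]
    have hgg : (R.srf y0 A B sg).g (j t) = (R.srf y0 A B sg).g (j t') := by
      rw [h.grp_par (R := R) (y0 := y0), hj, hj]; exact hp.symm'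
    rw [div_mul_cancel₀ _ (h.dl_pos t).ne', div_mul_cancel₀ _ (h.dl_pos t').ne', hgg]
  · -- nat
    have hz : Tn (R.srf y0 A B sg).a (R.srf y0 A B sg).b (l * sg, α) = R.vec (l • B + α • A) :=
      h.Tn_nat α l
    rw [← hz, H.sum _ (hL _), ← Finset.sum_neg_distrib]
    symm
    refine Finset.sum_bij (fun t _ => (R.srf y0 A B sg).g (j t)) (fun t ht => ?_)
      (fun t ht t' ht' htt => ?_) (fun k hk => ?_) (fun t ht => ?_)
    · exact mem_gset _
    · have h1 := (h.grp_par (R := R) (y0 := y0) (j t) (j t')).1 htt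
      rw [hj, hj] at h1
      obtain ⟨u, -, hu⟩ := hrep t
      rw [hu t ⟨ht, rfl⟩, hu t' ⟨ht', h1.symm'⟩]
    · obtain ⟨i, -, hi⟩ := Finset.mem_image.1 hk
      obtain ⟨t', ⟨ht', hp⟩, -⟩ := hrep (R.cls i)
      refine ⟨t', ht', ?_⟩
      rw [← hi, h.grp_par (R := R) (y0 := y0), hj]
      exact hp
    · have hd := (h.dl_pos t).ne'
      rw [H.rate ((R.srf y0 A B sg).g (j t)) _ (hL _)
        (lf ((R.srf y0 A B sg).n ((R.srf y0 A B sg).g (j t))) (l * sg, α))
        (fun i hi => by rw [hsd.Tn_eq, hi])]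
      have hmu := (R.pos (j t)).ne'
      have h1 := hsd.Tn_eq (l * sg, α) (j t)
      rw [hz, h.dh_eq, hj] at h1
      simp only [RS.vec, Pi.add_apply, Pi.smul_apply, smul_eq_mul, hj] at h1
      have h3 : l * B t + α * A t =
          lf ((R.srf y0 A B sg).n ((R.srf y0 A B sg).g (j t))) (l * sg, α) * dl A B sg t := by
        have h4 : R.mu (j t) * (l * B t + α * A t) = R.mu (j t) *
            (lf ((R.srf y0 A B sg).n ((R.srf y0 A B sg).g (j t))) (l * sg, α) *
              dl A B sg t) := by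
          rw [h1]; ring
        exact mul_left_cancel₀ hmu h4
      simp only [hρ]
      rw [h3]
      field_simp

end

end Crest.Agent.R116.Kz647
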