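import Crest.Agent.R116.D0y1_219
import Crest.Agent.R116.D0ln_665
import Crest.Agent.R116.Kz1_647

/-!
# R116 (K side), LEMMA D0, case `β_D = 0` (helper899), part 1

The plane `{D = D0}` of natural boxes, directions `natB 1 1 3`, `natB 1 0 1`: at a generic point the
slot `D` is alone in its group `0` and `C` is alone (the pairs `z, E | X, B, F | H, P` are NOT
resolved).

* `lin0`   : structure of the first tangent: increments of `C` are `m y`, increments of `D` are
  `ψ (c 1 + y) - ψ (c 1)`, slope along `natB 1 0 1`;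
* `slope0` : second level (219's `engine2`, 665's `end_aux`): `A ≤ -(6 - 4 s)`.
-/

set_option autoImplicit false
set_option linter.unusedVariables false

open Set Filter Topology MeasureTheory
open scoped NNReal

namespace Crest.Agent.R116.D0z899

open Crest.Agent.R138
open Crest.Agent.R136
open Crest.Agent.R136.Net191
open Crest.Agent.R136.Dg219 (mw gC dhC nC gset lf gC_eq gC_zero Walls OutS dirC leg_outC leg_legal
  mem_gset)
open Crest.Agent.R116.ChL222
open Crest.Agent.R116.Sg337 (bx9 natB Dm uC)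
open Crest.Agent.R116.SgF665 (wl)
open Crest.Agent.R116.D0F878
open Crest.Agent.R116.D0n878
open Crest.Agent.R116.D0y219
open Crest.Agent.R116.D0ln665
open Crest.Agent.R116.SgO219 (tan_lim tan_ev tan_lip)
open Dg262 (SupOn)

theorem natB_one (z c p : ℝ) : natB z c p 1 = p - 2 * c - z := by simp [natB, bx9]

theorem a1_ne : ∀ i : Fin 12, i ≠ 1 → natB 1 1 3 i ≠ 0 := by
  intro i hi
  fin_cases i <;> simp [natB, bx9] at hi ⊢ <;> norm_num

theorem a1_one : natB 1 1 3 1 = 0 := by rw [natB_one]; norm_num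

theorem b1_one : natB 1 0 1 1 = 0 := by rw [natB_one]; norm_num

theorem a1_nonneg : ∀ i : Fin 12, 0 ≤ natB 1 1 3 i := by
  intro i
  fin_cases i <;> simp [natB, bx9] <;> norm_num

theorem b1_ne : ∀ i : Fin 12, i ≠ 1 → i ≠ 3 → i ≠ 4 → natB 1 0 1 i ≠ 0 := by
  intro i h1 h3 h4
  fin_cases i <;> simp [natB, bx9] at h1 h3 h4 ⊢

theorem g1 {i : Fin 12} (h : gC (natB 1 1 3) (natB 1 0 1) i = 0) : i = 1 := by
  by_contra hi
  exact a1_ne i hi (gC_zero.1 h)

theorem g3 {i : Fin 12}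
    (h : gC (natB 1 1 3) (natB 1 0 1) i = gC (natB 1 1 3) (natB 1 0 1) 3) : i = 3 ∨ i = 4 := by
  by_cases h1 : i = 1
  · subst h1
    rw [gC_zero.2 a1_one] at h
    exact absurd (gC_zero.1 h.symm) (a1_ne 3 (by decide))
  · rw [gC_eq (a1_ne i h1) (a1_ne 3 (by decide))] at h
    have e3 : natB 1 0 1 3 = 0 := by simp [natB, bx9]
    rw [e3, zero_div] at h
    have h2 : natB 1 0 1 i = 0 := by
      rcases div_eq_zero_iff.1 h with h | h
      · exact h
      · exact absurd h (a1_ne i h1)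
    by_contra hc
    push Not at hc
    exact b1_ne i h1 hc.1 hc.2 h2

/-- boxes which differ only in the slots of one group -/
theorem grp_sub {grp : Fin 12 → ℕ} {L : Set (Fin 12 → ℝ)} {dh : Fin 12 → ℝ} {n : ℕ → ℝ × ℝ}
    {lam : (Fin 12 → ℝ) → ℝ} {A : ℝ × ℝ} {φ : ℕ → (Fin 12 → ℝ) → ℝ} {r : ℕ → ℝ}
    (H : OutS grp L dh n lam A φ r) {c c' : Fin 12 → ℝ} (hc : c ∈ L) (hc' : c' ∈ L)
    {k : ℕ} (hk : k ∈ gset grp) (h : ∀ i, grp i ≠ k → c i = c' i) :
    lam c - lam c' = φ k c - φ k c' := by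
  classical
  rw [H.sum c hc, H.sum c' hc', ← Finset.add_sum_erase _ _ hk, ← Finset.add_sum_erase _ _ hk]
  have : ∑ j ∈ (gset grp).erase k, φ j c = ∑ j ∈ (gset grp).erase k, φ j c' := by
    refine Finset.sum_congr rfl fun j hj => H.loc j _ _ fun i hi => h i ?_
    rw [hi]
    exact (Finset.mem_erase.1 hj).1
  rw [this]
  ring

theorem uC_mem {c : Fin 12 → ℝ} (hc : c ∈ LM) {y : ℝ} (hy : 0 ≤ y) : c + y • uC ∈ LM := by
  intro k e he
  have h1 := hc k e he
  have h2 : (y • uC) ∈ LM := lm_raise (fun k => by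
    rw [Pi.smul_apply, smul_eq_mul]; exact mul_nonneg hy (uC_nonneg k)) (fun k a b c => by
    rw [Pi.smul_apply, smul_eq_mul, uC_z k a b c, mul_zero])
  have h3 := h2 k e he
  rw [SgF665.wl_add, Pi.add_apply]
  exact add_le_add h1 h3

theorem uD_mem {c : Fin 12 → ℝ} (hc : c ∈ LM) {y : ℝ} (hy : 0 ≤ y) : c + y • uD ∈ LM := by
  intro k e he
  have h1 := hc k e he
  have h2 : (y • uD) ∈ LM := lm_raise (fun k => by
    rw [Pi.smul_apply, smul_eq_mul]; exact mul_nonneg hy (uD_nonneg k)) (fun k a b c => by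
    rw [Pi.smul_apply, smul_eq_mul, uD_z k a b c, mul_zero])
  have h3 := h2 k e he
  rw [SgF665.wl_add, Pi.add_apply]
  exact add_le_add h1 h3

theorem uD_off {i : Fin 12} (h : i ≠ 1) : uD i = 0 := by
  fin_cases i <;> first | rfl | exact absurd rfl h

theorem uC_off {i : Fin 12} (h3 : i ≠ 3) (h4 : i ≠ 4) : uC i = 0 := by
  fin_cases i <;> first | rfl | exact absurd rfl h3 | exact absurd rfl h4

/-- **structure of the first tangent on the plane `{D = D0}`** -/
theorem lin0 {lam : (Fin 12 → ℝ) → ℝ} {A : ℝ × ℝ} {φ : ℕ → (Fin 12 → ℝ) → ℝ} {r : ℕ → ℝ}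
    (H : OutS (gC (natB 1 1 3) (natB 1 0 1)) LM (dhC (natB 1 1 3) (natB 1 0 1))
      (nC (natB 1 1 3) (natB 1 0 1)) lam A φ r) :
    ∃ (m : ℝ) (ψ : ℝ → ℝ), ψ 0 = 0 ∧
      (∀ u v, u ≤ v → 0 ≤ ψ v - ψ u ∧ ψ v - ψ u ≤ v - u) ∧
      (∀ c ∈ LM, ∀ y : ℝ, 0 ≤ y → lam c - lam (c + y • uD) = ψ (c 1 + y) - ψ (c 1)) ∧
      (∀ c ∈ LM, c 4 = c 3 → ∀ y : ℝ, 0 ≤ y → lam c - lam (c + y • uC) = m * y) ∧
      ∀ M : ℝ, lam (natB M 0 M) = M * A.2 := by
  classical
  set a : Fin 12 → ℝ := natB 1 1 3 with ha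
  set b : Fin 12 → ℝ := natB 1 0 1 with hb
  have hg0 : ∀ i, gC a b i = 0 ↔ i = 1 := fun i =>
    ⟨fun h => g1 h, fun h => by rw [h]; exact gC_zero.2 a1_one⟩
  have hmem0 : (0 : ℕ) ∈ gset (gC a b) := by
    have := mem_gset (grp := gC a b) (1 : Fin 12)
    rwa [(hg0 1).2 rfl] at this
  have hmem3 : gC a b 3 ∈ gset (gC a b) := mem_gset (grp := gC a b) (3 : Fin 12)
  have hφ0 : ∀ c, φ 0 c = φ 0 (Function.update 0 1 (c 1)) := by
    intro c
    refine H.loc 0 _ _ fun i hi => ?_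
    rw [(hg0 i).1 hi, Function.update_self]
  have hfil : (Finset.univ.filter fun i => gC a b i = 0) = {1} := by
    ext i
    simp only [Finset.mem_filter, Finset.mem_univ, true_and, Finset.mem_singleton]
    exact hg0 i
  have a3 : a 3 = 1 := by rw [ha]; simp [natB, bx9]
  have a4 : a 4 = 1 := by rw [ha]; simp [natB, bx9]
  refine ⟨r (gC a b 3), fun d => -φ 0 (Function.update 0 1 d), ?_, ?_, ?_, ?_, ?_⟩
  · have : φ 0 (Function.update 0 1 (0 : ℝ)) = 0 := H.zero 0 _ (fun i hi => by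
      rw [(hg0 i).1 hi, Function.update_self])
    show -φ 0 (Function.update 0 1 (0 : ℝ)) = 0
    rw [this, neg_zero]
  · intro u v huv
    have h1 := H.mono 0 _ (natB_mem 0 0 u) _ (natB_mem 0 0 v) (fun i hi => by
      rw [(hg0 i).1 hi, natB_one, natB_one]; linarith)
    rw [hφ0 (natB 0 0 u), hφ0 (natB 0 0 v), natB_one, natB_one, hfil, Finset.sum_singleton,
      natB_one, natB_one] at h1
    simp only [mul_zero, sub_zero] at h1
    show 0 ≤ -φ 0 (Function.update 0 1 v) - -φ 0 (Function.update 0 1 u) ∧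
      -φ 0 (Function.update 0 1 v) - -φ 0 (Function.update 0 1 u) ≤ v - u
    constructor <;> linarith [h1.1, h1.2]
  · intro c hc y hy
    have h1 := grp_sub H hc (uD_mem hc hy) hmem0 (fun i hi => by
      have : i ≠ 1 := fun e => hi ((hg0 i).2 e)
      rw [Pi.add_apply, Pi.smul_apply, uD_off this, smul_zero, add_zero])
    rw [h1, hφ0 c, hφ0 (c + y • uD)]
    have e1 : (c + y • uD) 1 = c 1 + y := by
      rw [Pi.add_apply, Pi.smul_apply]
      have : uD 1 = 1 := rfl
      rw [this, smul_eq_mul, mul_one]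
    rw [e1]
    show _ = -φ 0 (Function.update 0 1 (c 1 + y)) - -φ 0 (Function.update 0 1 (c 1))
    ring
  · intro c hc h43 y hy
    have h1 := grp_sub H hc (uC_mem hc hy) hmem3 (fun i hi => by
      have h3 : i ≠ 3 := fun e => hi (by rw [e])
      have h4 : i ≠ 4 := fun e => hi (by
        rw [e]
        have e4 : a 4 ≠ 0 := by rw [a4]; norm_num
        have e3 : a 3 ≠ 0 := by rw [a3]; norm_num
        rw [gC_eq e4 e3, a3, a4]
        have f3 : b 3 = 0 := by rw [hb]; simp [natB, bx9]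
        have f4 : b 4 = 0 := by rw [hb]; simp [natB, bx9]
        rw [f3, f4])
      rw [Pi.add_apply, Pi.smul_apply, uC_off h3 h4, smul_zero, add_zero])
    have hdh : ∀ i, gC a b i = gC a b 3 → dhC a b i = 1 := by
      intro i hi
      rcases g3 hi with rfl | rfl
      · unfold dhC; rw [a3, if_neg one_ne_zero]
      · unfold dhC; rw [a4, if_neg one_ne_zero]
    have h2 := H.rate (gC a b 3) c hc (c 3) (fun i hi => by
      rw [hdh i hi, mul_one]
      rcases g3 hi with rfl | rfl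
      · rfl
      · exact h43)
    have u3 : uC 3 = 1 := rfl
    have u4 : uC 4 = 1 := rfl
    have h3 := H.rate (gC a b 3) (c + y • uC) (uC_mem hc hy) (c 3 + y) (fun i hi => by
      rw [hdh i hi, mul_one, Pi.add_apply, Pi.smul_apply, smul_eq_mul]
      rcases g3 hi with rfl | rfl
      · rw [u3, mul_one]
      · rw [u4, mul_one, h43])
    rw [h1, h2, h3]
    ring
  · intro M
    have hc : natB M 0 M ∈ LM := natB_mem M 0 M
    have e1 : natB M 0 M = M • b := by
      rw [hb, natB_smul]; congr 1 <;> ring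
    rw [H.sum _ hc]
    have h1 : ∀ k ∈ gset (gC a b), φ k (natB M 0 M) = -(r k * (M * (nC a b k).2)) := by
      intro k hk
      refine H.rate k _ hc _ fun i hi => ?_
      rw [e1, Pi.smul_apply, smul_eq_mul, (dirC (a := a) (b := b)).snd i, hi]
      ring
    rw [Finset.sum_congr rfl h1]
    have h2 := H.total (0, 1)
    have e2 : lf A (0, 1) = A.2 := by unfold lf; ring
    rw [e2] at h2
    rw [h2, mul_neg, Finset.mul_sum, ← Finset.sum_neg_distrib]
    refine Finset.sum_congr rfl fun k _ => ?_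
    unfold lf
    ring

/-- the facts which are used, at natural sequences near `x0` -/
def FactN {J : Type*} (P : Set (Fin 12 → ℝ)) (f : J → (Fin 12 → ℝ) → ℝ) (j0 : J) (s : ℝ)
    (x0 : Fin 12 → ℝ) : Prop :=
  ∀ (X : ℕ → Fin 12 → ℝ) (h : ℕ → ℝ) (rz rX rH rF gC gP gE gB gD : ℝ),
    (∀ n, ∃ z c p, X n = natB z c p) → Tendsto X atTop (𝓝 x0) →
    LinTanD P f j0 X h rz rX rH rF gC gP gE gB gD →
    1 - s ≤ rz ∧ (0 < gC → 1 - s ≤ rX ∧ rX ≤ rH) ∧ (0 < gD → rH ≤ gP) ∧ (s < gP → 1 ≤ rF)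

theorem sum_uC (ρ : Fin 12 → ℝ) : ∑ i ∈ S9, ρ i * uC i = ρ 3 := by
  simp only [S9]
  rw [Finset.sum_insert (by decide), Finset.sum_insert (by decide), Finset.sum_insert (by decide),
    Finset.sum_insert (by decide), Finset.sum_insert (by decide), Finset.sum_insert (by decide),
    Finset.sum_insert (by decide), Finset.sum_insert (by decide), Finset.sum_singleton]
  simp only [uC, bx9]
  simp

theorem sum_uD (ρ : Fin 12 → ℝ) : ∑ i ∈ S9, ρ i * uD i = ρ 1 := by
  simp only [S9]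
  rw [Finset.sum_insert (by decide), Finset.sum_insert (by decide), Finset.sum_insert (by decide),
    Finset.sum_insert (by decide), Finset.sum_insert (by decide), Finset.sum_insert (by decide),
    Finset.sum_insert (by decide), Finset.sum_insert (by decide), Finset.sum_singleton]
  simp only [uD, bx9]
  simp

theorem uC_mem0 : uC ∈ LM := by
  have := uC_mem zero_mem zero_le_one
  rwa [one_smul, zero_add] at this

theorem uD_mem0 : uD ∈ LM := by
  have := uD_mem zero_mem zero_le_one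
  rwa [one_smul, zero_add] at this

/-- **the second level**: slope along `natB 1 0 1` -/
theorem slope0 {J : Type*} [Finite J] {P : Set (Fin 12 → ℝ)} {f g : J → (Fin 12 → ℝ) → ℝ} {j0 : J}
    {zp cp pp s : ℝ} {h : ℕ → ℝ} (hpos : ∀ l, 0 < h l) (h0 : Tendsto h atTop (𝓝 0))
    (ht : ∀ j, Ex926.IsTan P LM (f j) (fun _ => natB zp cp pp) h (g j)) {K : ℝ} (hK : 0 ≤ K)
    (hg : ∀ j, ∀ p ∈ LM, ∀ q ∈ LM, |g j p - g j q| ≤ K * ‖p - q‖)
    (hm : ∀ p ∈ LM, ∀ q ∈ LM, p ≤ q → 0 ≤ g j0 p - g j0 q ∧ g j0 p - g j0 q ≤ ∑ i, (q i - p i))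
    (hs : SupOn (g j0) LM) {m A κ : ℝ} {ψ : ℝ → ℝ} (hm0 : 0 < m) (hκ : 0 < κ) (ψ0 : ψ 0 = 0)
    (hψ : ∀ u v, u ≤ v → 0 ≤ ψ v - ψ u ∧ ψ v - ψ u ≤ v - u) (hψ1 : κ ≤ ψ 1)
    (hD : ∀ c ∈ LM, ∀ y : ℝ, 0 ≤ y → g j0 c - g j0 (c + y • uD) = ψ (c 1 + y) - ψ (c 1))
    (hC : ∀ c ∈ LM, c 4 = c 3 → ∀ y : ℝ, 0 ≤ y → g j0 c - g j0 (c + y • uC) = m * y)
    (hA : ∀ M : ℝ, g j0 (natB M 0 M) = M * A) (s2 : 2 * s < 1)
    (hF : FactN P f j0 s (natB zp cp pp)) : A ≤ -(6 - 4 * s) := by
  refine end_aux hK (hg j0) (fun M _ => hA M) fun ε hε hε4 => ?_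
  have eng := engine2 hpos h0 ht hK hg hm hs (z := 0) (c := 0) (p := 0) (z1 := 1) (c1 := ε)
    (p1 := 1 + 2 * ε) (z2 := 1) (c2 := 0) (p2 := 10 * 1) (aN_nonneg hε)
    (alone hε hε4 one_ne_zero) (dh_ne hε one_ne_zero)
  have hX : ∀ t v : ℝ, Dg262.X (natB 0 0 0) (natB 1 ε (1 + 2 * ε)) (natB 1 0 (10 * 1)) (t, v) =
      natB (v + t) (0 + ε * t) (10 * v + (1 + 2 * ε) * t) := by
    intro t v
    rw [X_nat]
    congr 1 <;> ring
  -- Fubini
  have hsw : Measure.QuasiMeasurePreserving (Prod.swap : ℝ × ℝ → ℝ × ℝ) volume volume := by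
    rw [Measure.volume_eq_prod]
    exact Measure.measurePreserving_swap.quasiMeasurePreserving
  have h1 := hsw.ae eng
  rw [Measure.volume_eq_prod] at h1
  have h2 := Measure.ae_ae_of_ae_prod h1
  clear h1 eng
  -- the height of `D`
  obtain ⟨v, ⟨hv0, hv1⟩, hvS, d, hd, hdκ⟩ := Kz647.pos_slope (ψ := fun v => -ψ (9 * v)) (K := 9)
    (y := 1 / 9) (κ := -(9 * κ)) (by norm_num) (by norm_num) (fun u _ v _ => by
      have e : -ψ (9 * u) - -ψ (9 * v) = -(ψ (9 * u) - ψ (9 * v)) := by ring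
      rw [e, abs_neg]
      have e9 : 9 * |u - v| = |9 * u - 9 * v| := by
        rw [← mul_sub, abs_mul, abs_of_pos (by norm_num : (0:ℝ) < 9)]
      rw [e9]
      rcases le_total (9 * u) (9 * v) with huv | huv
      · have := hψ _ _ huv
        rw [abs_sub_comm, abs_of_nonneg this.1, abs_sub_comm, abs_of_nonneg (by linarith)]
        exact this.2
      · have := hψ _ _ huv
        rw [abs_of_nonneg this.1, abs_of_nonneg (by linarith)]
        exact this.2) (by
      have e1 : (9:ℝ) * (1 / 9) = 1 := by norm_num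
      simp only [e1, mul_zero, ψ0]
      linarith) h2
  have hgr : HasDerivAt (fun u : ℝ => ψ (9 * v + u)) (-(d * (1 / 9))) 0 := by
    have f1 : HasDerivAt (fun u : ℝ => v + u * (1 / 9)) (1 / 9) 0 := by
      simpa using ((hasDerivAt_id (0:ℝ)).mul_const (1 / 9 : ℝ)).const_add v
    have f2 : HasDerivAt (fun v => -ψ (9 * v)) d (v + 0 * (1 / 9)) := by
      rw [zero_mul, add_zero]; exact hd
    have f3 := (f2.comp (0:ℝ) f1).neg
    refine f3.congr_of_eventuallyEq (Eventually.of_forall fun u => ?_)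
    simp only [Pi.neg_apply, Function.comp_apply, neg_neg]
    congr 1
    ring
  refine ⟨v, 0, 10 * v, fun M hM => ?_⟩
  set Φ : ℝ × ℝ → ℝ :=
    fun y => g j0 (Dg262.X (natB 0 0 0) (natB 1 ε (1 + 2 * ε)) (natB 1 0 (10 * 1)) y) with hΦ
  have hgL : LipschitzWith (K.toNNReal * 4) fun t : ℝ => Φ (t, v) := by
    refine LipschitzWith.of_dist_le_mul fun t t' => ?_
    rw [Real.dist_eq, Real.dist_eq, hΦ]
    simp only
    rw [hX, hX]
    refine (hg j0 _ (natB_mem _ _ _) _ (natB_mem _ _ _)).trans ?_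
    have e1 : natB (v + t) (0 + ε * t) (10 * v + (1 + 2 * ε) * t) -
        natB (v + t') (0 + ε * t') (10 * v + (1 + 2 * ε) * t') =
        natB (t - t') (ε * (t - t')) ((1 + 2 * ε) * (t - t')) := by
      funext k
      rw [Pi.sub_apply]
      fin_cases k <;> simp [natB, bx9] <;> ring
    rw [e1]
    have h1 := norm_natB (t - t') (ε * (t - t')) ((1 + 2 * ε) * (t - t'))
    rw [abs_mul, abs_mul, abs_of_pos hε, abs_of_pos (by positivity : 0 < 1 + 2 * ε)] at h1
    have hd := abs_nonneg (t - t')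
    have h2 : ‖natB (t - t') (ε * (t - t')) ((1 + 2 * ε) * (t - t'))‖ ≤ 4 * |t - t'| := by
      nlinarith
    have h3 : ((K.toNNReal * 4 : ℝ≥0) : ℝ) = K * 4 := by
      push_cast
      rw [Real.coe_toNNReal K hK]
    refine (mul_le_mul_of_nonneg_left h2 hK).trans (le_of_eq ?_)
    rw [h3]; ring
  have key := le_of_ae (g := fun t => Φ (t, v)) (m := 6 - 4 * s)
    (hgL.lipschitzOnWith (s := Icc 0 M)) hM (by
    filter_upwards [hvS] with t hG ht2 d' hd'
    obtain ⟨D', hD', k, θ, lam, ρ, kpos, k0, hθ, hρ, hlam, hform, T, h10, -⟩ := hG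
    have e5 : d' = D' (1, 0) := by
      have h4 : HasDerivAt (fun t : ℝ => ((t, v) : ℝ × ℝ)) (1, 0) t :=
        (hasDerivAt_id t).prodMk (hasDerivAt_const t v)
      have hD2 : HasFDerivAt Φ D' (t, v) := hD'
      have h5 := hD2.comp_hasDerivAt t h4
      exact hd'.unique h5
    have ec := hX t v
    set c0 : Fin 12 → ℝ := Dg262.X (natB 0 0 0) (natB 1 ε (1 + 2 * ε)) (natB 1 0 (10 * 1)) (t, v)
      with hc0
    have hc0m : c0 ∈ LM := by rw [ec]; exact natB_mem _ _ _
    have c1 : c0 1 = 9 * v := by rw [ec, natB_one]; ring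
    have c43 : c0 4 = c0 3 := by rw [ec]; simp [natB, bx9]
    have l0 : lam j0 0 = 0 := by
      rw [hform 0 zero_mem (fun i => rfl)]
      simp
    have lC : lam j0 uC = -ρ 3 := by
      rw [hform uC uC_mem0 (eqp_bx9 _ _ _ _ _ _ _ _ _), sum_uC]
    have lD : lam j0 uD = -ρ 1 := by
      rw [hform uD uD_mem0 (eqp_bx9 _ _ _ _ _ _ _ _ _), sum_uD]
    have r3 : ρ 3 = m := by
      have g1 := tan_lim kpos (hlam j0) zero_mem uC_mem0
      rw [l0, lC] at g1
      have g2 : Tendsto (fun l => (g j0 (c0 + k l • (0 : Fin 12 → ℝ)) - g j0 (c0 + k l • uC)) / k l)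
          atTop (𝓝 m) := by
        refine tendsto_const_nhds.congr fun l => ?_
        rw [smul_zero, add_zero, hC c0 hc0m c43 _ (kpos l).le, mul_div_cancel_right₀ _ (kpos l).ne']
      have := tendsto_nhds_unique g1 g2
      linarith
    have r1 : ρ 1 = -(d * (1 / 9)) := by
      have g1 := tan_lim kpos (hlam j0) zero_mem uD_mem0
      rw [l0, lD] at g1
      have g3 := (hasDerivAt_iff_tendsto_slope_zero.1 hgr).comp
        (tendsto_nhdsWithin_iff.2 ⟨k0, Eventually.of_forall fun m => (kpos m).ne'⟩ :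
          Tendsto k atTop (𝓝[≠] 0))
      have g2 : Tendsto (fun l => (g j0 (c0 + k l • (0 : Fin 12 → ℝ)) - g j0 (c0 + k l • uD)) / k l)
          atTop (𝓝 (-(d * (1 / 9)))) := by
        refine g3.congr fun l => ?_
        simp only [Function.comp_apply, smul_eq_mul, zero_add, add_zero]
        rw [smul_zero, add_zero, hD c0 hc0m _ (kpos l).le, c1, inv_mul_eq_div]
      have := tendsto_nhds_unique g1 g2
      linarith
    have hr1 : 0 < ρ 1 := by rw [r1]; linarith
    have hr3 : 0 < ρ 3 := by rw [r3]; exact hm0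
    have hnat : ∀ n, ∃ z c p, natB zp cp pp + h (θ n) • c0 = natB z c p := fun n =>
      ⟨_, _, _, by rw [ec, natB_smul, natB_add]⟩
    have hlim : Tendsto (fun n => natB zp cp pp + h (θ n) • c0) atTop (𝓝 (natB zp cp pp)) := by
      have : Tendsto (fun n => natB zp cp pp + h (θ n) • c0) atTop
          (𝓝 (natB zp cp pp + (0:ℝ) • c0)) :=
        tendsto_const_nhds.add ((h0.comp hθ.tendsto_atTop).smul_const c0)
      rwa [zero_smul, add_zero] at this
    obtain ⟨q1, q2, q3, q4⟩ := hF _ _ _ _ _ _ _ _ _ _ _ hnat hlim T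
    have q5 := q2 hr3
    have q6 := q3 hr1
    have hal := num_alg hε s2 q1 (hρ 2 (by decide)) (hρ 3 (by decide)) (hρ 7 (by decide)) q5.1
      q5.2 (by linarith) q4
    rw [e5, h10, sum_aN]
    linarith)
  rw [hΦ] at key
  simp only at key
  rw [hX, hX] at key
  have e1 : natB (v + 0) (0 + ε * 0) (10 * v + (1 + 2 * ε) * 0) = natB v 0 (10 * v) := by
    congr 1 <;> ring
  rw [e1] at key
  exact key

end Crest.Agent.R116.D0z899
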