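import Crest.Agent.R116.DeG2_295

/-!
# R116 (S0155), wave side, DECc, part 3: greedy data with classes, labels (helper295)

Port of `Wpk13_685` (R138).
-/

set_option autoImplicit false
set_option linter.unusedSectionVars false
set_option linter.unusedVariables false

open MeasureTheory FourierTransform
open scoped ContDiff ENNReal

namespace Crest.Agent.R116.De295

open Crest.Agent.R138.Defs (E2 ee)
open Crest.Agent.R138.Wpk685 (cen caps sg sg_ge sg_mono sg_le_one exists_side rp_facts levelsM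
  X_antiM A_uniqM X_partM k1 k2 k1_pair k2_pair k_self LamC mem_LamC lab la0 la1 lj la0_lab la1_lab
  lj_lab lab_self mem_Lam)
open Crest.Agent.R116.CDef480
open Crest.Agent.R116.WC188
open Crest.Agent.R116.LZg725 (Cf)
open Crest.Agent.R116.Bas367 (Bsc)

/-! ### greedy data -/

/-- phase box as a subset of phase space. -/
def PB3 (κ r : ℝ) (p : Ts) : Set Ph3 := {w | w.2 ∈ pbt κ r p w.1}

theorem PB3_meas (κ r : ℝ) (p : Ts) : MeasurableSet (PB3 κ r p) :=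
  meas_of_sli3 fun m => pbx_meas _ _ _ _ _ _ _ _ m

/-- test set of a pair (member, class). -/
def TC (κ r : ℝ) (cls : Cf E2 → ℤ × ℤ → E3 → ℕ) (p : Ts × ℕ) : Set Ph3 :=
  PB3 κ r p.1 ∩ {w | cls p.1.f w.1 w.2 = p.2}

theorem TC_meas (κ r : ℝ) {cls : Cf E2 → ℤ × ℤ → E3 → ℕ} (hc : ∀ f m, Measurable (cls f m))
    (p : Ts × ℕ) : MeasurableSet (TC κ r cls p) :=
  (PB3_meas κ r p.1).inter (meas_of_sli3 fun m => hc p.1.f m (measurableSet_singleton _))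

theorem rpq3 {r : ℝ} (hr : 1 ≤ r) (q : ℝ) : (r ^ (-(1/2) : ℝ)) ^ q * r ^ (q / 2) = 1 := by
  have hr0 : 0 < r := by linarith
  rw [← Real.rpow_mul hr0.le, ← Real.rpow_add hr0]
  have : -(1/2) * q + q / 2 = 0 := by ring
  rw [this, Real.rpow_zero]

/-- default test set. -/
noncomputable def ts0 : Ts := ⟨0, 0, ⟨0, 0, 0, 0, 0⟩, 0, 0⟩

theorem greedy3 {M κ q r : ℝ} (hq : 0 ≤ q) (hr : 1 ≤ r) {g : E3 → ℂ} (n nb : ℕ)
    {cls : Cf E2 → ℤ × ℤ → E3 → ℕ} (hc : ∀ f m, Measurable (cls f m))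
    {X0 : Set Ph3} (hX0 : MeasurableSet X0) {E0 : ℝ} (hE0 : 0 ≤ E0)
    (H0 : mu3 (r ^ (-(1/2) : ℝ)) g X0 ≤ ENNReal.ofReal E0) :
    ∃ (X : ℕ → Set Ph3) (nn : ℕ → ℕ) (P : ℕ → ℕ → Ts) (ka : ℕ → ℕ → ℕ) (A : ℕ → ℕ → Set Ph3),
      X 0 = X0 ∧ (∀ j, MeasurableSet (X j)) ∧
      (∀ j, ∀ i < nn j, MeasurableSet (A j i) ∧ A j i ⊆ X j ∧ OkT M κ r n (P j i) ∧
        ka j i < nb ∧ A j i ⊆ TC κ r cls (P j i, ka j i) ∧
        ENNReal.ofReal (E0 * r ^ (q / 2) / 2 ^ (j + 1) * cs3 q κ r (P j i).a0 (P j i).a1) <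
          mu3 (r ^ (-(1/2) : ℝ)) g (A j i)) ∧
      (∀ j, ∀ i < nn j, ∀ i' < nn j, i ≠ i' → Disjoint (A j i) (A j i')) ∧
      (∀ j, ∀ x, x ∈ X (j + 1) ↔ x ∈ X j ∧ ∀ i < nn j, x ∉ A j i) ∧
      ∀ j, ∀ p : Ts, OkT M κ r n p → ∀ β < nb,
        mu3 (r ^ (-(1/2) : ℝ)) g (X j ∩ TC κ r cls (p, β)) ≤
          ENNReal.ofReal (E0 * r ^ (q / 2) / 2 ^ j * cs3 q κ r p.a0 p.a1) := by
  classical
  obtain ⟨hρ, hρ1, hρ2⟩ := rp_facts hr
  have hr0 : 0 < r := by linarith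
  have hqr := rpq3 hr q
  have hcg := cs3_ge (κ := κ) hq hr
  set ρ : ℝ := r ^ (-(1/2) : ℝ) with hρdef
  have hρq : 0 < ρ ^ q := Real.rpow_pos_of_pos hρ _
  have hrq : 0 < r ^ (q / 2) := Real.rpow_pos_of_pos hr0 _
  obtain ⟨X, nn, P, A, hXz, H⟩ := levelsM (mu3 ρ g) (TC κ r cls) (TC_meas κ r hc)
    (fun j p => if OkT M κ r n p.1 ∧ p.2 < nb then
      ENNReal.ofReal (E0 * r ^ (q / 2) / 2 ^ (j + 1) * cs3 q κ r p.1.a0 p.1.a1) else ⊤)
    (fun j => ENNReal.ofReal (E0 / 2 ^ (j + 1))) (fun j => ENNReal.ofReal_ne_top) (by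
      intro j p
      split_ifs
      · refine ENNReal.ofReal_le_ofReal ?_
        calc E0 / 2 ^ (j + 1) = E0 / 2 ^ (j + 1) * (ρ ^ q * r ^ (q / 2)) := by rw [hqr, mul_one]
          _ = E0 * r ^ (q / 2) / 2 ^ (j + 1) * ρ ^ q := by ring
          _ ≤ _ := by
            have := hcg p.1.a0 p.1.a1
            gcongr
      · exact le_top) X0 hX0 (fun j => 2 ^ (j + 1)) (by
      intro j
      refine H0.trans ?_
      have h1 : ((2 ^ (j + 1) : ℕ) : ℝ≥0∞) = ENNReal.ofReal (2 ^ (j + 1)) := by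
        rw [ENNReal.ofReal_pow (by norm_num), ENNReal.ofReal_ofNat]
        push_cast
        rfl
      rw [h1, ← ENNReal.ofReal_mul (by positivity)]
      refine ENNReal.ofReal_le_ofReal (le_of_eq ?_)
      field_simp)
  refine ⟨X, nn, fun j i => ((P j i).getD (ts0, 0)).1, fun j i => ((P j i).getD (ts0, 0)).2, A,
    hXz, fun j => (H j).1, ?_, fun j => (H j).2.2.1, fun j => (H j).2.2.2.1, ?_⟩
  · intro j i hi
    obtain ⟨h0, h1, p, hp, h2, h3⟩ := (H j).2.1 i hi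
    simp only [hp, Option.getD_some]
    by_cases hc : OkT M κ r n p.1 ∧ p.2 < nb
    · simp only [if_pos hc] at h3
      exact ⟨h0, h1, hc.1, hc.2, h2, h3⟩
    · simp only [if_neg hc] at h3
      exact absurd h3 not_top_lt
  · intro j
    rcases j with _ | j
    · intro p _ β _
      rw [hXz, pow_zero, div_one]
      refine (measure_mono Set.inter_subset_left).trans (H0.trans (ENNReal.ofReal_le_ofReal ?_))
      calc E0 = E0 * (ρ ^ q * r ^ (q / 2)) := by rw [hqr, mul_one]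
        _ = E0 * r ^ (q / 2) * ρ ^ q := by ring
        _ ≤ _ := by
          have := hcg p.a0 p.a1
          gcongr
    · intro p h1 β hβ
      have h3 := (H j).2.2.2.2 (p, β)
      simp only [if_pos (And.intro h1 hβ)] at h3
      exact h3

theorem de_of3 {M κ q r : ℝ} (hq : 0 ≤ q) (hr : 1 ≤ r) {g : E3 → ℂ} {n nb : ℕ}
    {cls : Cf E2 → ℤ × ℤ → E3 → ℕ}
    (hcb : ∀ f m y, cls f m y < nb) {X : Set Ph3} (hX : MeasurableSet X) {Δ : ℝ} (hΔ : 0 ≤ Δ)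
    (H : ∀ p : Ts, OkT M κ r n p → ∀ β < nb,
        mu3 (r ^ (-(1/2) : ℝ)) g (X ∩ TC κ r cls (p, β)) ≤
          ENNReal.ofReal (Δ * cs3 q κ r p.a0 p.a1)) :
    DE3 M κ q r g n (sli3 X) (nb * Δ) := by
  classical
  obtain ⟨hρ, hρ1, hρ2⟩ := rp_facts hr
  have hr0 : 0 < r := by linarith
  intro p h1
  have e1 : (fun m => sli3 X m ∩ pbt κ r p m) = sli3 (X ∩ PB3 κ r p) := rfl
  rw [e1, ← mu3_apply _ _ (hX.inter (PB3_meas κ r p))]
  have h3 : X ∩ PB3 κ r p ⊆ ⋃ β ∈ Finset.range nb, X ∩ TC κ r cls (p, β) := by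
    intro w hw
    refine Set.mem_biUnion (Finset.mem_coe.2 (Finset.mem_range.2 (hcb p.f w.1 w.2))) ?_
    exact ⟨hw.1, hw.2, rfl⟩
  refine (measure_mono h3).trans ((measure_biUnion_finset_le _ _).trans ?_)
  refine (Finset.sum_le_sum fun β hβ => H p h1 β (Finset.mem_range.1 hβ)).trans ?_
  have hc : 0 < cs3 q κ r p.a0 p.a1 := cs3_pos hr _ _
  rw [Finset.sum_const, Finset.card_range, nsmul_eq_mul, ← ENNReal.ofReal_natCast,
    ← ENNReal.ofReal_mul (by positivity), mul_assoc]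

/-! ### labels -/

section labM

variable (nn : ℕ → ℕ) (P : ℕ → ℕ → Ts) (ka : ℕ → ℕ → ℕ) (A : ℕ → ℕ → Set Ph3)

/-- plates of a label. -/
def II3 (k : ℕ) : Finset ℕ :=
  (Finset.range (nn (lj (k1 k)))).filter (fun i => (P (lj (k1 k)) i).a0 = la0 (k1 k) ∧
    (P (lj (k1 k)) i).a1 = la1 (k1 k) ∧ ka (lj (k1 k)) i = k2 k)

/-- phase points of a label. -/
def XX3 (k : ℕ) : Set Ph3 := ⋃ i ∈ II3 nn P ka k, A (lj (k1 k)) i

variable {nn P ka A}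

theorem mem_II3 {k i : ℕ} : i ∈ II3 nn P ka k ↔ i < nn (lj (k1 k)) ∧
    (P (lj (k1 k)) i).a0 = la0 (k1 k) ∧ (P (lj (k1 k)) i).a1 = la1 (k1 k) ∧
    ka (lj (k1 k)) i = k2 k := by
  unfold II3
  rw [Finset.mem_filter, Finset.mem_range]

theorem mem_XX3 {k : ℕ} {x : Ph3} :
    x ∈ XX3 nn P ka A k ↔ ∃ i ∈ II3 nn P ka k, x ∈ A (lj (k1 k)) i := by
  unfold XX3
  simp only [Set.mem_iUnion, exists_prop]

variable {X : ℕ → Set Ph3}
  (hA : ∀ j, ∀ i < nn j, A j i ⊆ X j)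
  (hd : ∀ j, ∀ i < nn j, ∀ i' < nn j, i ≠ i' → Disjoint (A j i) (A j i'))
  (hX : ∀ j, ∀ x, x ∈ X (j + 1) ↔ x ∈ X j ∧ ∀ i < nn j, x ∉ A j i)

include hA in
theorem XX3_sub (k : ℕ) : XX3 nn P ka A k ⊆ X (lj (k1 k)) := by
  intro x hx
  obtain ⟨i, hi, h4⟩ := mem_XX3.1 hx
  exact hA _ i (mem_II3.1 hi).1 h4

include hA hd hX in
theorem XX3_disj {k k' : ℕ} (hne : k ≠ k') :
    Disjoint (XX3 nn P ka A k) (XX3 nn P ka A k') := by
  rw [Set.disjoint_left]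
  intro x hx hx'
  obtain ⟨i, h, h4⟩ := mem_XX3.1 hx
  obtain ⟨i', h', h4'⟩ := mem_XX3.1 hx'
  obtain ⟨h1, h2, h3, h5⟩ := mem_II3.1 h
  obtain ⟨h1', h2', h3', h5'⟩ := mem_II3.1 h'
  obtain ⟨e1, e2⟩ := A_uniqM hA hd hX h1 h1' h4 h4'
  apply hne
  rw [← k_self k, ← k_self k']
  have e3 : k1 k = k1 k' := by
    rw [← lab_self (k1 k), ← lab_self (k1 k'), ← h2, ← h3, ← h2', ← h3', ← e2, ← e1]
  have e4 : k2 k = k2 k' := by
    rw [← h5, ← h5', ← e2, ← e1]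
  rw [e3, e4]

include hA hX in
theorem XX3_union {n J nb : ℕ} (hP : ∀ j, ∀ i < nn j, (P j i).a0 ≤ (P j i).a1 ∧
    (P j i).a1 ≤ n ∧ ka j i < nb)
    (x : Ph3) : x ∈ X 0 \ X J ↔ ∃ k ∈ LamC n J nb, x ∈ XX3 nn P ka A k := by
  rw [Set.mem_sdiff, X_partM hA hX J]
  constructor
  · rintro ⟨h1 | ⟨j, hj, i, hi, h1⟩, h2⟩
    · exact absurd h1 h2
    · refine ⟨Nat.pair (lab ((P j i).a0) ((P j i).a1) j) (ka j i), ?_, ?_⟩
      · rw [mem_LamC, k1_pair, k2_pair, mem_Lam, la0_lab, la1_lab, lj_lab]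
        exact ⟨⟨(hP j i hi).1, (hP j i hi).2.1, hj⟩, (hP j i hi).2.2⟩
      · rw [mem_XX3]
        refine ⟨i, ?_, ?_⟩
        · rw [mem_II3, k1_pair, k2_pair, la0_lab, la1_lab, lj_lab]
          exact ⟨hi, rfl, rfl, rfl⟩
        · rw [k1_pair, lj_lab]
          exact h1
  · rintro ⟨k, hk, hx⟩
    obtain ⟨i, hi, h4⟩ := mem_XX3.1 hx
    rw [mem_LamC, mem_Lam] at hk
    have h1 := (mem_II3.1 hi).1
    refine ⟨Or.inr ⟨lj (k1 k), hk.1.2.2, i, h1, h4⟩, fun h5 => ?_⟩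
    have h6 := X_antiM hX (Nat.succ_le_of_lt hk.1.2.2) h5
    exact ((hX (lj (k1 k)) x).1 h6).2 i h1 h4

end labM

/-! ### the inequality (D6) for one plate -/

theorem d6_3 {q s2 r V Δ : ℝ} {e : ℝ≥0∞} (hs2 : 0 < s2) (hV : 0 < V) (hr : 0 < r)
    (hΔ : 0 ≤ Δ) (het : e ≠ ⊤)
    (he : ENNReal.ofReal (Δ / 2 * (s2 ^ q * V)) ≤ e) :
    ENNReal.ofReal (Real.sqrt Δ * r) * e ≤ ENNReal.ofReal (Real.sqrt 2) *
      (ENNReal.ofReal (s2 ^ (-q / 2)) * (ENNReal.ofReal ((r * V) ^ (-(1/2) : ℝ)) *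
        (ENNReal.ofReal r * e) ^ (3 / 2 : ℝ))) := by
  have e1 : V / (s2 * r ^ 2) * s2 * r ^ 2 = V := by field_simp
  have e2 : V / (s2 * r ^ 2) * s2 * r ^ 3 = r * V := by field_simp
  have h := Crest.Agent.R138.Wpk685.d6_enn (q := q) (s1 := V / (s2 * r ^ 2)) (s2 := s2) (r := r)
    (Δ := Δ) (e := e) (by positivity) hs2 hr hΔ het (by rw [e1]; exact he)
  rw [e2] at h
  exact h

end Crest.Agent.R116.De295
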