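import Crest.Agent.R116.Dc1_295

/-!
# R116 (S0155), wave side, DECc, part 4: the decomposition from its inputs (helper295)

Port of `Wpk14_685` (R138).
-/

set_option autoImplicit false
set_option linter.unusedSectionVars false
set_option linter.unusedVariables false

open MeasureTheory FourierTransform
open scoped ContDiff ENNReal

namespace Crest.Agent.R116.De295

open Crest.Agent.R138.Defs (E2 ee)
open Crest.Agent.R138.Wpk685 (cen caps sg sg_ge sg_mono sg_le_one exists_side rp_facts levelsM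
  X_antiM A_uniqM X_partM k1 k2 k1_pair k2_pair k_self LamC mem_LamC lab la0 la1 lj la0_lab la1_lab
  lj_lab lab_self mem_Lam Lam card_LamC two_pow_logb)
open Crest.Agent.R116.CDef480
open Crest.Agent.R116.WC188
open Crest.Agent.R116.LZg725 (Cf)
open Crest.Agent.R116.Bas367 (Bsc Gd)

/-! ### elementary facts -/

theorem lintEnc {f : E3 → ℂ} (hf : MemLp f 2) : ∫⁻ ξ, ‖f ξ‖ₑ ^ 2 = ENNReal.ofReal (Enc f) := by
  unfold Enc
  rw [ofReal_integral_eq_lintegral_ofReal hf.norm.integrable_sq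
    (Filter.Eventually.of_forall fun _ => by positivity)]
  refine lintegral_congr fun ξ => ?_
  rw [ENNReal.ofReal_pow (norm_nonneg _), ofReal_norm]

theorem Enc_nn (g : E3 → ℂ) : 0 ≤ Enc g := integral_nonneg fun _ => by positivity

theorem Enc_sub_le {f g : E3 → ℂ} (hf : MemLp f 2) (hg : MemLp g 2) :
    Enc (fun ξ => f ξ - g ξ) ≤ 2 * Enc f + 2 * Enc g := by
  unfold Enc
  rw [← integral_const_mul, ← integral_const_mul, ← integral_add]
  · refine integral_mono_of_nonneg (Filter.Eventually.of_forall fun _ => by positivity) ?_ ?_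
    · exact (hf.norm.integrable_sq.const_mul 2).add (hg.norm.integrable_sq.const_mul 2)
    · refine Filter.Eventually.of_forall fun ξ => ?_
      have h1 := norm_sub_le (f ξ) (g ξ)
      have h2 := norm_nonneg (f ξ - g ξ)
      simp only
      nlinarith [sq_nonneg (‖f ξ‖ - ‖g ξ‖)]
  · exact hf.norm.integrable_sq.const_mul 2
  · exact hg.norm.integrable_sq.const_mul 2

theorem lint_sq_le3 {f g : E3 → ℝ≥0∞} (hf : AEMeasurable f) (hg : AEMeasurable g) :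
    (∫⁻ y, f y * g y) ^ 2 ≤ (∫⁻ y, g y) * ∫⁻ y, f y ^ 2 * g y := by
  have h1 : ∀ y, f y * g y = (fun y => g y ^ (1 / 2 : ℝ)) y * (fun y => f y * g y ^ (1 / 2 : ℝ)) y := by
    intro y
    simp only
    have : g y ^ (1 / 2 : ℝ) * g y ^ (1 / 2 : ℝ) = g y := by
      rw [← ENNReal.rpow_add_of_nonneg _ _ (by norm_num) (by norm_num)]
      norm_num
    calc f y * g y = f y * (g y ^ (1 / 2 : ℝ) * g y ^ (1 / 2 : ℝ)) := by rw [this]
      _ = _ := by ring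
  have h2 := ENNReal.lintegral_mul_le_Lp_mul_Lq volume (Real.HolderConjugate.two_two)
    (f := fun y => g y ^ (1 / 2 : ℝ)) (g := fun y => f y * g y ^ (1 / 2 : ℝ))
    (hg.pow_const _) (hf.mul (hg.pow_const _))
  have h3 : ∀ y, (g y ^ (1 / 2 : ℝ)) ^ (2:ℝ) = g y := by
    intro y
    rw [← ENNReal.rpow_mul]; norm_num
  have h4 : ∀ y, (f y * g y ^ (1 / 2 : ℝ)) ^ (2:ℝ) = f y ^ 2 * g y := by
    intro y
    rw [ENNReal.mul_rpow_of_nonneg _ _ (by norm_num), h3]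
    norm_num
  simp only [h3, h4] at h2
  have h5 : ∫⁻ y, f y * g y ≤ (∫⁻ y, g y) ^ (1 / 2 : ℝ) * (∫⁻ y, f y ^ 2 * g y) ^ (1 / 2 : ℝ) := by
    refine le_trans (le_of_eq (lintegral_congr h1)) h2
  calc (∫⁻ y, f y * g y) ^ 2 ≤
      ((∫⁻ y, g y) ^ (1 / 2 : ℝ) * (∫⁻ y, f y ^ 2 * g y) ^ (1 / 2 : ℝ)) ^ 2 :=
        pow_le_pow_left₀ zero_le h5 2
    _ = _ := by
        rw [mul_pow, ← ENNReal.rpow_natCast, ← ENNReal.rpow_natCast, ← ENNReal.rpow_mul,
          ← ENNReal.rpow_mul]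
        norm_num

/-- pointwise bound of all coefficients by the energy, compact supports. -/
theorem umc_sup (L : ℝ) : ∃ C : ℝ, 0 ≤ C ∧ ∀ F : E3 → ℂ, Integrable F → MemLp F 2 →
    (∀ ξ, L < ‖ξ‖ → F ξ = 0) → ∀ (ρ : ℝ) (z : E3 × ℝ) (m : ℤ × ℤ) (y : E3),
      ‖umc ρ (trc z F) m y‖ ≤ C * Real.sqrt (Enc F) := by
  set V : ℝ≥0∞ := volume (Metric.closedBall (0 : E3) L) with hV
  have hVt : V ≠ ⊤ := measure_closedBall_lt_top.ne
  refine ⟨Real.sqrt V.toReal, by positivity, ?_⟩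
  intro F hFi hF hs ρ z m y
  rw [← Real.sqrt_mul ENNReal.toReal_nonneg]
  refine Crest.Agent.R138.Wpk685.norm_le_of_enorm_sq
    (mul_nonneg ENNReal.toReal_nonneg (Enc_nn F)) ?_
  rw [ENNReal.ofReal_mul ENNReal.toReal_nonneg, ENNReal.ofReal_toReal hVt, ← lintEnc hF]
  have h1 : ‖umc ρ (trc z F) m y‖ₑ ≤ ∫⁻ ξ, ‖F ξ‖ₑ * (Metric.closedBall (0 : E3) L).indicator 1 ξ := by
    have h0 := Bas367.umc_bound (Bas367.trc_int hFi z) ρ m y
    simp only [Bas367.norm_trc] at h0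
    rw [← ofReal_norm]
    refine (ENNReal.ofReal_le_ofReal h0).trans ?_
    rw [ofReal_integral_eq_lintegral_ofReal hFi.norm
      (Filter.Eventually.of_forall fun _ => norm_nonneg _)]
    refine lintegral_mono fun ξ => ?_
    simp only
    rw [ofReal_norm]
    by_cases hξ : ξ ∈ Metric.closedBall (0 : E3) L
    · rw [Set.indicator_of_mem hξ, Pi.one_apply, mul_one]
    · rw [hs ξ (by rw [Metric.mem_closedBall, dist_zero_right] at hξ; exact not_le.1 hξ)]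
      simp
  have hm : Measurable ((Metric.closedBall (0 : E3) L).indicator (1 : E3 → ℝ≥0∞)) :=
    measurable_one.indicator Metric.isClosed_closedBall.measurableSet
  refine (pow_le_pow_left₀ zero_le h1 2).trans ?_
  refine (lint_sq_le3 hF.1.enorm hm.aemeasurable).trans ?_
  rw [lintegral_indicator_one Metric.isClosed_closedBall.measurableSet]
  refine mul_le_mul_right ?_ _
  refine lintegral_mono fun ξ => ?_
  calc ‖F ξ‖ₑ ^ 2 * (Metric.closedBall (0 : E3) L).indicator 1 ξ ≤ ‖F ξ‖ₑ ^ 2 * 1 := by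
        gcongr
        exact Set.indicator_le_self' (fun _ _ => zero_le) ξ
    _ = _ := mul_one _

theorem PBx_mono {M κ q r : ℝ} {g : E3 → ℂ} {D D' : ℝ} (hr : 1 ≤ r) (h : PBx M κ q r g D)
    (hD : D ≤ D') : PBx M κ q r g D' := by
  intro c X0 f s1 s2 hsd hadm
  obtain ⟨hρ, _, _⟩ := rp_facts hr
  have hs1 : 0 < s1 := hρ.trans_le hsd.lo
  have hs2 : 0 < s2 := hs1.trans_le hsd.le
  have hV := scost_pos (κ := κ) hs1 hs2 (by linarith : 0 < r)
  refine (h c X0 f s1 s2 hsd hadm).trans (ENNReal.ofReal_le_ofReal ?_)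
  gcongr

theorem Dsc_mono {M κ q r : ℝ} {g : E3 → ℂ} {S S' : ℤ × ℤ → Set E3} {D D' : ℝ} (hr : 1 ≤ r)
    (h : Dsc M κ q r g S D) (hS : ∀ m ∈ caps (r ^ (-(1/2) : ℝ)), S' m ⊆ S m) (hD : D ≤ D') :
    Dsc M κ q r g S' D' := by
  intro c X0 f s1 s2 hsd hadm
  obtain ⟨hρ, _, _⟩ := rp_facts hr
  have hs1 : 0 < s1 := hρ.trans_le hsd.lo
  have hs2 : 0 < s2 := hs1.trans_le hsd.le
  have hV := scost_pos (κ := κ) hs1 hs2 (by linarith : 0 < r)
  refine ((Bas367.enc_mono g fun m hm => Set.inter_subset_inter_left _ (hS m hm)).trans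
    (h c X0 f s1 s2 hsd hadm)).trans (ENNReal.ofReal_le_ofReal ?_)
  gcongr

theorem Dsc_anti {M M' κ q r : ℝ} {g : E3 → ℂ} {S : ℤ × ℤ → Set E3} {D : ℝ} (hr : 1 ≤ r)
    (hκ : 0 < κ) (hM : M ≤ M') (h : Dsc M' κ q r g S D) : Dsc M κ q r g S D := by
  intro c X0 f s1 s2 hsd hadm
  obtain ⟨hρ, _, _⟩ := rp_facts hr
  have hs1 : 0 < s1 := hρ.trans_le hsd.lo
  have hs2 : 0 < s2 := hs1.trans_le hsd.le
  have hT := TT_pos (κ := κ) (r := r) hs2
  exact h c X0 f s1 s2 hsd (adm_mono hadm hM hκ hs1 hs2 hT (by linarith))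

theorem St.fg {M κ q a b M0 η0 : ℝ} {C0 : E2} {σ : ℝ} {g : E3 → ℂ} {R D : ℝ}
    (h : Ss M κ q a b M0 η0 C0 σ g R D) : Fg a b η0 κ g :=
  ⟨h.meas, h.bdd, fun ζ hζ => ⟨(h.supp ζ hζ).1, (h.supp ζ hζ).2.1, (h.supp ζ hζ).2.2.1⟩, h.slc⟩

theorem Fg.trc {a b η0 κ : ℝ} {g : E3 → ℂ} (h : Fg a b η0 κ g) (z : E3 × ℝ) :
    Fg a b η0 κ (CDef480.trc z g) := by
  obtain ⟨L, hL⟩ := h.bdd
  refine ⟨?_, ⟨L, fun ζ => by rw [Bas367.norm_trc]; exact hL ζ⟩,
    fun ζ hζ => h.supp ζ (Bas367.trc_ne.1 hζ), Bas367.trc_slc h.slc z⟩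
  rw [Bas367.trc_eq]
  exact (Bas367.measurable_phase z).mul h.meas

theorem Fg.gd {a b η0 κ : ℝ} {g : E3 → ℂ} (ha : 1 ≤ a) (h : Fg a b η0 κ g) : Gd g :=
  Bas367.gd_of_supp h.meas h.bdd fun ζ hζ =>
    ⟨(inv_pos.2 (by linarith)).trans_le (h.supp ζ hζ).1, (h.supp ζ hζ).2.1, (h.supp ζ hζ).2.2⟩

theorem Bas367_lat (y : E3) : ‖lat y‖ ≤ ‖y‖ := by
  have h3 := normsq3 y
  have h4 : ‖lat y‖ ^ 2 ≤ ‖y‖ ^ 2 := by nlinarith [sq_nonneg (y 2)]
  exact (sq_le_sq₀ (norm_nonneg _) (norm_nonneg _)).1 h4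

end Crest.Agent.R116.De295
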