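import Crest.Agent.R116.Dc2_295

/-!
# R116 (S0155), wave side, DECc, part 5: assembly of the decomposition (helper295)

Port of `Wpk14_685` (R138): `decc_of`.
-/

set_option autoImplicit false
set_option linter.unusedSectionVars false
set_option linter.unusedVariables false

open MeasureTheory FourierTransform
open scoped ContDiff ENNReal

namespace Crest.Agent.R116.De295

open Crest.Agent.R138.Defs (E2 ee)
open Crest.Agent.R138.Wpk685 (cen caps sg sg_ge sg_mono sg_le_one exists_side rp_facts levelsM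
  X_antiM A_uniqM X_partM k1 k2 k1_pair k2_pair k_self LamC mem_LamC lab la0 la1 lj la0_lab la1_lab
  lj_lab lab_self mem_Lam Lam card_LamC two_pow_logb)
open Crest.Agent.R116.CDef480
open Crest.Agent.R116.WC188
open Crest.Agent.R116.LZg725 (Cf)
open Crest.Agent.R116.Bas367 (Bsc Gd)

set_option maxHeartbeats 2000000 in
theorem big3 {M q : ℝ} (hM : 2 ≤ M) (hq : 0 ≤ q) {a b A M0 : ℝ} (ha : 1 ≤ a) (hb : 0 < b)
    (hb2 : b < 2) (hA : 1 ≤ A) {K : ℕ}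
    {C1 C2 C3 C4 C5 C6 Cv K0 : ℝ}
    (hC1 : 0 ≤ C1) (hC2 : 0 ≤ C2) (hC3 : 0 ≤ C3) (hC4 : 0 ≤ C4) (hC5 : 0 ≤ C5) (hC6 : 0 ≤ C6)
    (hCv : 0 ≤ Cv) (hK0 : 1 ≤ K0)
    (H1 : ∀ κ η0 r : ℝ, 0 < κ → 8 * a * κ ≤ 1 → 1 ≤ r → r ^ (-(1/4) : ℝ) ≤ κ →
      ∀ g : E3 → ℂ, Fg a b η0 κ g → ∀ S : ℤ × ℤ → Set E3, Bsc (r ^ (-(1/2) : ℝ)) S →
      ∀ D : ℝ, 0 ≤ D → Dsc M κ q r g S D →
        PBx M κ q r (selc η0 κ (r ^ (-(1/2) : ℝ)) g S) (C1 * D))
    (H2 : ∀ η0 κ ρ : ℝ, 0 < κ → 0 < ρ → ρ ≤ 1 →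
      ∀ g : E3 → ℂ, Integrable g → MemLp g 2 → ∀ S : ℤ × ℤ → Set E3, Bsc ρ S →
        ENNReal.ofReal (Enc (selc η0 κ ρ g S)) ≤ ENNReal.ofReal C2 * enc ρ g S)
    (H3 : ∀ ρ : ℝ, 0 < ρ → ρ ≤ 1 →
      ∀ g : E3 → ℂ, Integrable g → MemLp g 2 → ∀ S : ℤ × ℤ → Set E3,
        enc ρ g S ≤ ENNReal.ofReal (C3 * Enc g))
    (H4 : ∀ κ η0 r : ℝ, 0 < κ → 8 * a * κ ≤ 1 → 1 ≤ r → r ^ (-(1/4) : ℝ) ≤ κ →
      ∀ g : E3 → ℂ, Fg a b η0 κ g → ∀ S : ℤ × ℤ → Set E3, Bsc (r ^ (-(1/2) : ℝ)) S →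
      (∀ m ∈ caps (r ^ (-(1/2) : ℝ)), Metric.closedBall 0 (K0 * r) ⊆ S m) →
      ∀ r', 1 ≤ r' → r' ≤ r → ∀ z' ∈ cylc (A * r), ∀ m, ∀ y : E3, ‖y‖ ≤ A * r →
        ‖umc (r' ^ (-(1/2) : ℝ)) (trc z' (fun ζ => g ζ - selc η0 κ (r ^ (-(1/2) : ℝ)) g S ζ)) m y‖ ≤
          C4 * r ^ (-((2 * K : ℕ) : ℝ)) * Real.sqrt (Enc g))
    (H5 : ∀ κ r : ℝ, 1 ≤ r → 0 < κ → κ ≤ 1 → r ^ (-(1/4) : ℝ) ≤ κ →
      ∀ (g : E3 → ℂ) (S : ℤ × ℤ → Set E3) (D : ℝ), (∀ m, MeasurableSet (S m)) → 0 ≤ D →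
        Dsc 1 κ q r g S D → Dsc M κ q r g S (C5 * D))
    (Hv : ∀ F : E3 → ℂ, Integrable F → MemLp F 2 →
      (∀ ξ, 12 * a < ‖ξ‖ → F ξ = 0) → ∀ (ρ : ℝ) (z : E3 × ℝ) (m : ℤ × ℤ) (y : E3),
      ‖umc ρ (trc z F) m y‖ ≤ Cv * Real.sqrt (Enc F))
    {ε : ℝ} (hε : 0 < ε)
    (H6 : ∀ R : ℝ, 1 ≤ R → ((Lam ⌈Real.logb 2 R⌉₊
      ((2 * K + ⌈q / 2⌉₊ + 3) * ⌈Real.logb 2 R⌉₊)).card : ℝ) ≤ C6 * R ^ ε)
    {N7 Cd Cp : ℝ} (hN7 : N7 = NB3 K0) (hCd : Cd = (C5 + 1) * 2 ^ (q + 4))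
    (hCp : Cp = (C1 + 1) * Cd + C2 * N7)
    {A' : ℝ} (hA' : A' = 2 * K0 + 9)
    {C : ℝ} (hCC6 : C6 ≤ C) (hCC1 : 2 * Cp ≤ C) (hCCe : C2 ≤ C)
    (hCC2 : C2 * Real.sqrt Cp * Real.sqrt 2 ≤ C)
    (hCC3 : 2 + 2 * (C2 * C3) ≤ C)
    (hCC4 : C4 + Cv * Real.sqrt (C2 * (N7 * C3)) ≤ C)
    {R r κ : ℝ} (hR : 1 ≤ R) (hRr : R ^ (1/2 : ℝ) ≤ r) (hrR : r ≤ R) (hb3 : b + 3 * r ^ (-(1/2) : ℝ) ≤ 2)
    (hκ : 0 < κ) (hκa : 8 * a * κ ≤ 1) (hκr : r ^ (-(1/4) : ℝ) ≤ κ)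
    {nb : ℕ} (hnb : 1 ≤ nb) :
    ∃ (Λ : Finset ℕ) (s : ℕ → ℝ × ℝ) (cl : ℕ → ℕ), (Λ.card : ℝ) ≤ C * R ^ ε * nb ∧
    (∀ k ∈ Λ, Sd r (s k).1 (s k).2) ∧ (∀ k ∈ Λ, cl k < nb) ∧
    ∀ η0 C0 σ g D, Ss M κ q a b M0 η0 C0 σ g R D → ∀ z ∈ cylc R,
      ∀ cls : Cf E2 → ℤ × ℤ → E3 → ℕ,
        (∀ f m, Measurable (cls f m)) → (∀ f m y, cls f m y < nb) →
        ∃ (G : ℕ → E3 → ℂ) (D' : ℕ → ℝ) (rest : E3 → ℂ) (I : ℕ → Finset ℕ) (P : ℕ → ℕ → Plate),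
          DecOut M κ q A A' a b C nb K η0 C0 σ g R r z cls Λ s cl G D' rest I P := by
  classical
  have hR0 : 0 < R := by linarith
  have hr1 : 1 ≤ r := (Real.one_le_rpow hR (by norm_num)).trans hRr
  have hr0 : 0 < r := by linarith
  have hRe : 1 ≤ R ^ ε := Real.one_le_rpow hR hε.le
  have hC0 : 0 ≤ C := hC6.trans hCC6
  have hN70 : 0 ≤ N7 := by rw [hN7]; positivity
  have hCd0 : 0 ≤ Cd := by rw [hCd]; positivity
  have hCp0 : 0 ≤ Cp := by rw [hCp]; positivity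
  have hnb' : (1:ℝ) ≤ nb := by exact_mod_cast hnb
  have hnb0 : (0:ℝ) < nb := by linarith
  have hM0 : 0 ≤ M := by linarith
  have hK00 : 0 ≤ K0 := by linarith
  have hκ8 : ∀ c : ℝ, c ≤ 8 * a → c * κ ≤ 1 := fun c hc =>
    (mul_le_mul_of_nonneg_right hc hκ.le).trans hκa
  have hκ1 : κ ≤ 1 := by
    have := hκ8 1 (by linarith)
    rwa [one_mul] at this
  have hκr1 : 1 ≤ κ * r := by
    have h1 : r ^ (-(1/4) : ℝ) * r ≤ κ * r := by gcongr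
    refine le_trans ?_ h1
    nth_rw 2 [← Real.rpow_one r]
    rw [← Real.rpow_add hr0]
    exact Real.one_le_rpow hr1 (by norm_num)
  have hsnb : Real.sqrt nb ≤ nb := by
    rw [Real.sqrt_le_left hnb0.le]
    exact le_self_pow₀ hnb' two_ne_zero
  obtain ⟨hρ, hρ1, hρ2⟩ := rp_facts hr1
  obtain ⟨ρ, hρe⟩ : ∃ ρ : ℝ, ρ = r ^ (-(1/2) : ℝ) := ⟨_, rfl⟩
  rw [← hρe] at hρ hρ1 hρ2 hb3
  set n : ℕ := ⌈Real.logb 2 R⌉₊ with hn
  have hRn : R ≤ 2 ^ n := two_pow_logb hR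
  have hnρ : 1 ≤ 2 ^ n * ρ := by
    have h1 : 1 ≤ r * ρ := by
      refine (sq_le_sq₀ zero_le_one (by positivity)).1 ?_
      rw [mul_pow, hρ2]
      have : r ^ 2 * r⁻¹ = r := by field_simp
      rw [this]; linarith
    calc (1:ℝ) ≤ r * ρ := h1
      _ ≤ 2 ^ n * ρ := by
        have := hrR.trans hRn
        gcongr
  set T : ℕ := 2 * K + ⌈q / 2⌉₊ + 3 with hT
  set J : ℕ := T * n with hJ
  have hJR : R ^ T ≤ 2 ^ J := by
    rw [hJ, mul_comm, pow_mul]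
    gcongr
  refine ⟨LamC n J nb, fun k => (sg ρ (la0 (k1 k)), sg ρ (la1 (k1 k))), k2, ?_, ?_, ?_, ?_⟩
  · have h1 : ((LamC n J nb).card : ℝ) ≤ ((Lam n J).card : ℝ) * nb := by
      exact_mod_cast card_LamC n J nb
    refine h1.trans ?_
    have h2 := H6 R hR
    gcongr
    exact h2.trans (by gcongr)
  · intro k hk
    rw [mem_LamC, mem_Lam] at hk
    refine ⟨?_, sg_mono hρ hk.1.1, sg_le_one _ _⟩
    rw [← hρe]
    exact sg_ge hρ hρ1 _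
  · intro k hk
    exact (mem_LamC.1 hk).2
  intro η0 C0 σ g D hSt z hz cls hcm hcb
  have hFg : Fg a b η0 κ g := St.fg hSt
  obtain ⟨g', hg'⟩ : ∃ g', g' = trc z g := ⟨_, rfl⟩
  have hFg' : Fg a b η0 κ g' := by rw [hg']; exact hFg.trc z
  have hgd : Gd g' := hFg'.gd ha
  have hgi : Integrable g' := hgd.int
  have hg2 : MemLp g' 2 := hgd.memLp 2
  have hEn : Enc g' = Enc g := by rw [hg', Bas367.Enc_trc]
  have hκ6 : 6 * a * κ ≤ 1 := hκ8 _ (by linarith)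
  have hsupg : ∀ ζ, g' ζ ≠ 0 → a⁻¹ ≤ ζ 2 ∧ ζ 2 ≤ a ∧ ‖slp ζ‖ ≤ b ∧ ‖slp ζ - C0‖ ≤ σ := by
    intro ζ hζ
    rw [hg', Bas367.trc_ne] at hζ
    exact hSt.supp ζ hζ
  -- phase space
  set X0 : Set Ph3 := {w | w.1 ∈ caps ρ ∧ ‖w.2‖ ≤ K0 * r} with hX0
  have hX0m : MeasurableSet X0 := by
    refine meas_of_sli3 fun m => ?_
    by_cases hm : m ∈ caps ρ
    · have : sli3 X0 m = Metric.closedBall 0 (K0 * r) := by
        ext y
        rw [mem_sli3, hX0, Metric.mem_closedBall, dist_zero_right]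
        exact and_iff_right hm
      rw [this]
      exact Metric.isClosed_closedBall.measurableSet
    · have : sli3 X0 m = ∅ := by
        ext y
        rw [mem_sli3, hX0]
        simp [hm]
      rw [this]
      exact MeasurableSet.empty
  obtain ⟨E0, hE0⟩ : ∃ E0 : ℝ, E0 = C3 * Enc g' := ⟨_, rfl⟩
  have hE00 : 0 ≤ E0 := by rw [hE0]; exact mul_nonneg hC3 (Enc_nn g')
  have hmu0 : mu3 ρ g' X0 ≤ ENNReal.ofReal E0 := by
    rw [mu3_apply _ _ hX0m, hE0]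
    exact H3 ρ hρ hρ1 g' hgi hg2 _
  obtain ⟨X, nn, P, ka, Ac, hXz, hXm, hAc, hdis, hXs, hDD⟩ :
      ∃ (X : ℕ → Set Ph3) (nn : ℕ → ℕ) (P : ℕ → ℕ → Ts) (ka : ℕ → ℕ → ℕ) (A : ℕ → ℕ → Set Ph3),
      X 0 = X0 ∧ (∀ j, MeasurableSet (X j)) ∧
      (∀ j, ∀ i < nn j, MeasurableSet (A j i) ∧ A j i ⊆ X j ∧ OkT M κ r n (P j i) ∧
        ka j i < nb ∧ A j i ⊆ TC κ r cls (P j i, ka j i) ∧
        ENNReal.ofReal (E0 * r ^ (q / 2) / 2 ^ (j + 1) * cs3 q κ r (P j i).a0 (P j i).a1) <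
          mu3 ρ g' (A j i)) ∧
      (∀ j, ∀ i < nn j, ∀ i' < nn j, i ≠ i' → Disjoint (A j i) (A j i')) ∧
      (∀ j, ∀ x, x ∈ X (j + 1) ↔ x ∈ X j ∧ ∀ i < nn j, x ∉ A j i) ∧
      ∀ j, ∀ p : Ts, OkT M κ r n p → ∀ β < nb,
        mu3 ρ g' (X j ∩ TC κ r cls (p, β)) ≤
          ENNReal.ofReal (E0 * r ^ (q / 2) / 2 ^ j * cs3 q κ r p.a0 p.a1) := by
    have h0 := greedy3 (M := M) (κ := κ) hq hr1 (g := g') n nb hcm hX0m hE00
      (by rw [← hρe]; exact hmu0)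
    rw [← hρe] at h0
    exact h0
  set Δ0 : ℝ := E0 * r ^ (q / 2) with hΔ0
  have hrq : 0 < r ^ (q / 2) := Real.rpow_pos_of_pos hr0 _
  have hΔ00 : 0 ≤ Δ0 := mul_nonneg hE00 hrq.le
  have hΔj : ∀ j : ℕ, 0 ≤ Δ0 / 2 ^ j := fun j => by positivity
  have hAX : ∀ j, ∀ i < nn j, Ac j i ⊆ X j := fun j i hi => (hAc j i hi).2.1
  have hAm : ∀ j, ∀ i < nn j, MeasurableSet (Ac j i) := fun j i hi => (hAc j i hi).1
  have hXX0 : ∀ j, X j ⊆ X0 := fun j => by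
    rw [← hXz]; exact X_antiM hXs (Nat.zero_le j)
  have hDE : ∀ j, DE3 M κ q r g' n (sli3 (X j)) (nb * (Δ0 / 2 ^ j)) := fun j =>
    de_of3 hq hr1 hcb (hXm j) (hΔj j) (by rw [← hρe]; exact hDD j)
  -- bounded selections
  have hBs' : ∀ S : ℤ × ℤ → Set E3, (∀ m ∈ caps ρ, MeasurableSet (S m)) →
      (∀ m ∈ caps ρ, S m ⊆ sli3 X0 m) → Bsc ρ S := fun S h1 h2 =>
    ⟨h1, fun m hm => (Metric.isBounded_closedBall (x := (0:E3)) (r := K0 * r)).subset fun y hy => by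
      rw [Metric.mem_closedBall, dist_zero_right]
      exact (h2 m hm hy).2⟩
  have hBs : ∀ U : Set Ph3, MeasurableSet U → U ⊆ X0 → Bsc ρ (sli3 U) := fun U h1 h2 =>
    hBs' _ (fun m _ => sli3_meas h1 m) (fun m _ y hy => h2 hy)
  set Y : Set Ph3 := X 0 \ X J with hY
  have hYm : MeasurableSet Y := (hXm 0).diff (hXm J)
  have hYX : Y ⊆ X0 := fun w hw => by rw [← hXz]; exact hw.1
  -- energies
  have hselEn : ∀ S : ℤ × ℤ → Set E3, Bsc ρ S →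
      ENNReal.ofReal (Enc (selc η0 κ ρ g' S)) ≤ ENNReal.ofReal C2 * enc ρ g' S := by
    intro S hS
    exact H2 η0 κ ρ hκ hρ hρ1 g' hgi hg2 _ hS
  have hselEn' : ∀ S : ℤ × ℤ → Set E3, Bsc ρ S →
      Enc (selc η0 κ ρ g' S) ≤ C2 * C3 * Enc g' := by
    intro S hS
    have h1 := hselEn S hS
    have h2 := H3 ρ hρ hρ1 g' hgi hg2 S
    have h3 : ENNReal.ofReal (Enc (selc η0 κ ρ g' S)) ≤ ENNReal.ofReal (C2 * C3 * Enc g') := by
      rw [mul_assoc, ENNReal.ofReal_mul hC2]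
      exact h1.trans (by gcongr)
    rwa [ENNReal.ofReal_le_ofReal_iff (mul_nonneg (mul_nonneg hC2 hC3) (Enc_nn g'))] at h3
  have hselD : ∀ (S : ℤ × ℤ → Set E3) (j : ℕ), Bsc ρ S → (∀ m ∈ caps ρ, S m ⊆ sli3 (X j) m) →
      Enc (selc η0 κ ρ g' S) ≤ C2 * (N7 * (nb * (Δ0 / 2 ^ j) * r ^ 3)) := by
    intro S j hS hSj
    have h1 := hselEn S hS
    have h2 : enc ρ g' S ≤ ENNReal.ofReal (N7 * (nb * (Δ0 / 2 ^ j) * r ^ 3)) := by
      rw [hρe, hN7]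
      refine tot_le3 (M := M) (κ := κ) hM0 hκ hr1 hκr1 (n := n) (by rw [← hρe]; exact hnρ) hK00 ?_
        (mul_nonneg hnb0.le (hΔj j)) (q := q) ?_
      · intro m hm y hy
        rw [← hρe] at hm
        exact (hXX0 j (hSj m hm hy)).2
      · exact (hDE j).mono (by rw [← hρe]; exact hSj)
    have h3 : ENNReal.ofReal (Enc (selc η0 κ ρ g' S)) ≤
        ENNReal.ofReal (C2 * (N7 * (nb * (Δ0 / 2 ^ j) * r ^ 3))) := by
      rw [ENNReal.ofReal_mul hC2]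
      exact h1.trans (by gcongr)
    have := hΔj j
    rwa [ENNReal.ofReal_le_ofReal_iff (by positivity)] at h3
  -- the selections of a label
  obtain ⟨Pl, hPl⟩ : ∃ Pl : ℕ → ℕ → Plate, Pl = fun k i =>
    ⟨z, (P (lj (k1 k)) i).c, (P (lj (k1 k)) i).X0, (P (lj (k1 k)) i).f,
      sli3 (Ac (lj (k1 k)) i)⟩ := ⟨_, rfl⟩
  have hPS : ∀ k i, (Pl k i).S = sli3 (Ac (lj (k1 k)) i) := fun k i => by rw [hPl]
  have hPz : ∀ k i, (Pl k i).z = z := fun k i => by rw [hPl]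
  have hPc : ∀ k i, (Pl k i).c = (P (lj (k1 k)) i).c := fun k i => by rw [hPl]
  have hPX : ∀ k i, (Pl k i).X0 = (P (lj (k1 k)) i).X0 := fun k i => by rw [hPl]
  have hPf : ∀ k i, (Pl k i).f = (P (lj (k1 k)) i).f := fun k i => by rw [hPl]
  set I : ℕ → Finset ℕ := fun k => II3 nn P ka k with hI
  have hU : ∀ k, uS (I k) (Pl k) = sli3 (XX3 nn P ka Ac k) := by
    intro k
    funext m
    ext y
    unfold uS
    simp only [Set.mem_iUnion, exists_prop, hPS, mem_sli3]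
    exact mem_XX3.symm
  have hXMm : ∀ k, MeasurableSet (XX3 nn P ka Ac k) := fun k =>
    Finset.measurableSet_biUnion _ fun i hi => hAm _ i (mem_II3.1 hi).1
  have hXMs : ∀ k, XX3 nn P ka Ac k ⊆ X (lj (k1 k)) := fun k => XX3_sub hAX k
  have hXM0 : ∀ k, XX3 nn P ka Ac k ⊆ X0 := fun k => (hXMs k).trans (hXX0 _)
  have hBsk : ∀ k, Bsc ρ (uS (I k) (Pl k)) := fun k => by
    rw [hU]; exact hBs _ (hXMm k) (hXM0 k)
  have hSub : ∀ k, ∀ S' : ℤ × ℤ → Set E3, (∀ m, MeasurableSet (S' m)) →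
      (∀ m, S' m ⊆ uS (I k) (Pl k) m) → Bsc ρ S' ∧
        DE3 M κ q r g' n S' (nb * (Δ0 / 2 ^ (lj (k1 k)))) := by
    intro k S' h1 h2
    have h3 : ∀ m, S' m ⊆ sli3 (XX3 nn P ka Ac k) m := fun m => by rw [← hU]; exact h2 m
    exact ⟨hBs' S' (fun m _ => h1 m) (fun m _ y hy => hXM0 k (h3 m hy)),
      (hDE _).mono fun m _ y hy => hXMs k (h3 m hy)⟩
  have hUm : ∀ k m, MeasurableSet (uS (I k) (Pl k) m) := fun k m => by
    rw [hU]; exact sli3_meas (hXMm k) m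
  -- density bounds
  obtain ⟨Dk, hDk⟩ : ∃ Dk : ℕ → ℝ, Dk = fun k => Cp * (nb * (Δ0 / 2 ^ lj (k1 k))) := ⟨_, rfl⟩
  have hxk : ∀ k : ℕ, 0 ≤ nb * (Δ0 / 2 ^ lj (k1 k)) := fun k => mul_nonneg hnb0.le (hΔj _)
  have hDk0 : ∀ k, 0 ≤ Dk k := fun k => by
    rw [hDk]; exact mul_nonneg hCp0 (hxk k)
  have hsubDens : ∀ k, ∀ S' : ℤ × ℤ → Set E3, (∀ m, MeasurableSet (S' m)) →
      (∀ m, S' m ⊆ uS (I k) (Pl k) m) →
      Dsc M κ q r g' S' (Cd * (nb * (Δ0 / 2 ^ lj (k1 k)))) := by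
    intro k S' h1 h2
    have h3 : DE3 (2 * (M / 2)) κ q r g' n S' (nb * (Δ0 / 2 ^ (lj (k1 k)))) := by
      have e : 2 * (M / 2) = M := by ring
      rw [e]
      exact (hSub k S' h1 h2).2
    have h4 := dsc_of_de3 (M := M / 2) (by linarith) hκ hq hr1 (n := n)
      (by rw [← hρe]; exact hnρ) (hxk k) h3
    have h5 := Dsc_anti (M := 1) hr1 hκ (by linarith) h4
    have hx0 : 0 ≤ 2 ^ (q + 4) * (nb * (Δ0 / 2 ^ lj (k1 k))) :=
      mul_nonneg (by positivity) (hxk k)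
    have h6 := H5 κ r hr1 hκ hκ1 hκr g' S' _ h1 hx0 h5
    refine Dsc_mono hr1 h6 (fun _ _ => Set.Subset.refl _) ?_
    rw [hCd]
    have h7 : C5 * (2 ^ (q + 4) * (nb * (Δ0 / 2 ^ lj (k1 k)))) ≤
        (C5 + 1) * (2 ^ (q + 4) * (nb * (Δ0 / 2 ^ lj (k1 k)))) :=
      mul_le_mul_of_nonneg_right (by linarith) hx0
    refine h7.trans (le_of_eq ?_)
    ring
  have hCdCp : Cd ≤ Cp := by
    rw [hCp]
    have h1 : 0 ≤ C1 * Cd := mul_nonneg hC1 hCd0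
    have h2 : 0 ≤ C2 * N7 := mul_nonneg hC2 hN70
    have h3 : (C1 + 1) * Cd = C1 * Cd + Cd := by ring
    linarith
  have hC1Cp : C1 * Cd ≤ Cp := by
    rw [hCp]
    have h2 : 0 ≤ C2 * N7 := mul_nonneg hC2 hN70
    have h3 : (C1 + 1) * Cd = C1 * Cd + Cd := by ring
    linarith
  have hC2Cp : C2 * N7 ≤ Cp := by
    rw [hCp]
    have h1 : 0 ≤ (C1 + 1) * Cd := mul_nonneg (by linarith) hCd0
    linarith
  have hsubPB : ∀ k, ∀ S' : ℤ × ℤ → Set E3, (∀ m, MeasurableSet (S' m)) →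
      (∀ m, S' m ⊆ uS (I k) (Pl k) m) → PBx M κ q r (selc η0 κ ρ g' S') (Dk k) := by
    intro k S' h1 h2
    have h3 := H1 κ η0 r hκ hκa hr1 hκr g' hFg' S' (by rw [← hρe]; exact (hSub k S' h1 h2).1)
      (Cd * (nb * (Δ0 / 2 ^ lj (k1 k)))) (mul_nonneg hCd0 (hxk k)) (hsubDens k S' h1 h2)
    rw [← hρe] at h3
    refine PBx_mono hr1 h3 ?_
    rw [hDk]
    calc C1 * (Cd * (nb * (Δ0 / 2 ^ lj (k1 k)))) = (C1 * Cd) * (nb * (Δ0 / 2 ^ lj (k1 k))) := by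
          ring
      _ ≤ Cp * (nb * (Δ0 / 2 ^ lj (k1 k))) := mul_le_mul_of_nonneg_right hC1Cp (hxk k)
  -- decompositions
  have hdisU : ∀ k, ∀ k', k ≠ k' → ∀ m, Disjoint (uS (I k) (Pl k) m) (uS (I k') (Pl k') m) := by
    intro k k' hne m
    rw [hU, hU]
    have := XX3_disj (P := P) (ka := ka) hAX hdis hXs hne
    rw [Set.disjoint_left] at this ⊢
    exact fun y hy hy' => this hy hy'
  have hsum1 : ∀ ξ, selc η0 κ ρ g' (sli3 Y) ξ =
      ∑ k ∈ LamC n J nb, selc η0 κ ρ g' (uS (I k) (Pl k)) ξ := by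
    intro ξ
    refine Bas367.selc_sum hgi (LamC n J nb) (fun k _ => hBsk k)
      (fun k _ k' _ hne m _ => hdisU k k' hne m) ?_ ξ
    intro m _
    ext y
    rw [Set.mem_iUnion₂]
    simp only [hU, mem_sli3]
    rw [hY, XX3_union hAX hXs (n := n) (J := J) (nb := nb) (fun j i hi =>
      ⟨(hAc j i hi).2.2.1.1, (hAc j i hi).2.2.1.2.1, (hAc j i hi).2.2.2.1⟩) (m, y)]
    simp only [exists_prop]
  have hsubJ : X J ⊆ X 0 := X_antiM hXs (Nat.zero_le J)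
  have hsum2 : ∀ ξ, selc η0 κ ρ g' (sli3 X0) ξ =
      selc η0 κ ρ g' (sli3 Y) ξ + selc η0 κ ρ g' (sli3 (X J)) ξ := by
    intro ξ
    refine Bas367.selc_add hgi (hBs Y hYm hYX) (hBs (X J) (hXm J) (hXX0 J)) ?_ ?_ ξ
    · intro m _
      exact Set.disjoint_left.2 fun y hy hy' => hy.2 hy'
    · intro m _
      ext y
      constructor
      · intro hx
        by_cases h2 : (m, y) ∈ X J
        · exact Or.inr h2
        · exact Or.inl ⟨by rw [hXz]; exact hx, h2⟩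
      · rintro (hb | hb)
        · exact hYX hb
        · exact hXX0 J hb
  have hselgd : ∀ S : ℤ × ℤ → Set E3, Bsc ρ S → Gd (selc η0 κ ρ g' S) := by
    intro S hS
    refine Bas367.selc_gd' (a := a) hκ ?_ hρ hgi hFg'.slc (fun ζ hζ => (hFg'.supp ζ hζ).1) hS
    rw [inv_eq_one_div, le_div_iff₀ (by linarith)]
    have h1 := hκ8 (3 * a) (by linarith)
    have h2 : 3 * κ * a = 3 * a * κ := by ring
    rw [h2]
    exact h1
  have hselsup : ∀ S : ℤ × ℤ → Set E3, ∀ ζ, selc η0 κ ρ g' S ζ ≠ 0 →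
      (2 * a)⁻¹ ≤ ζ 2 ∧ ζ 2 ≤ 2 * a ∧ ‖slp ζ‖ ≤ b + 3 * ρ ∧ ‖slp ζ - C0‖ ≤ σ + 3 * ρ := by
    intro S ζ hζ
    exact Bas367.selc_supp ha hκ hκ6 hρ hFg'.slc hsupg hζ
  have hmem : ∀ k, ∀ i ∈ I k, i < nn (lj (k1 k)) ∧ (P (lj (k1 k)) i).a0 = la0 (k1 k) ∧
      (P (lj (k1 k)) i).a1 = la1 (k1 k) ∧ ka (lj (k1 k)) i = k2 k := fun k i hi => mem_II3.1 hi
  have hs1 : ∀ k, 0 < sg ρ (la0 (k1 k)) := fun k => hρ.trans_le (sg_ge hρ hρ1 _)
  have hs2 : ∀ k, 0 < sg ρ (la1 (k1 k)) := fun k => hρ.trans_le (sg_ge hρ hρ1 _)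
  have hVp : ∀ k, 0 < scost κ (sg ρ (la0 (k1 k))) (sg ρ (la1 (k1 k))) r := fun k =>
    scost_pos (hs1 k) (hs2 k) hr0
  have hDkn : ∀ k, ∀ i ∈ I k, ENNReal.ofReal (Δ0 / 2 ^ lj (k1 k) / 2 *
      ((sg ρ (la1 (k1 k))) ^ q * scost κ (sg ρ (la0 (k1 k))) (sg ρ (la1 (k1 k))) r)) ≤
      enc ρ g' (Pl k i).S := by
    intro k i hi
    obtain ⟨hi1, hi2, hi3, hi4⟩ := hmem k i hi
    have h1 := (hAc _ i hi1).2.2.2.2.2
    rw [hPS, ← mu3_apply _ _ (hAm _ i hi1)]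
    refine le_trans (le_of_eq ?_) h1.le
    unfold cs3
    rw [hi2, hi3, pow_succ, ← hρe]
    congr 2
    ring
  have hensum : ∀ k, enc ρ g' (uS (I k) (Pl k)) = ∑ i ∈ I k, enc ρ g' (Pl k i).S := by
    intro k
    refine Bas367.enc_biUnion (I k) (fun i => (Pl k i).S) ?_ ?_
    · intro i hi m
      rw [hPS]
      exact sli3_meas (hAm _ i (hmem k i hi).1) m
    · intro i hi j hj hij m
      rw [hPS, hPS]
      have := hdis _ i (hmem k i hi).1 j (hmem k j hj).1 hij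
      rw [Set.disjoint_left] at this ⊢
      exact fun y hy hy' => this hy hy'
  have hYgd := hselgd _ (hBs Y hYm hYX)
  refine ⟨fun k => selc η0 κ ρ g' (uS (I k) (Pl k)), Dk,
    fun ξ => g' ξ - selc η0 κ ρ g' (sli3 Y) ξ, I, Pl, ?_⟩
  refine { sum := ?_, eq := ?_, st := ?_, slc := ?_, sub := ?_, dens := ?_, bd := ?_, cp := ?_,
           disj := ?_, pl := ?_, cls := ?_, dense := ?_, energy := ?_, ss := ?_, rmeas := ?_,
           rbdd := ?_, rsupp := ?_, ren := ?_, small := ?_ }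
  · intro ξ
    rw [← hg', ← hsum1]
    ring
  · intro k _
    rw [← hρe, ← hg']
  · -- states
    intro k hk
    have hkgd := hselgd _ (hBsk k)
    refine ⟨hkgd.meas, hkgd.bdd, ?_, hr1, hDk0 k,
      hsubPB k _ (hUm k) (fun m => Set.Subset.refl _), ?_⟩
    · rw [← hρe]; exact hselsup _
    · refine (hselD _ (lj (k1 k)) (hBsk k) (fun m _ => by
        rw [hU]; exact fun y hy => hXMs k hy)).trans ?_
      have h4 : r ^ (4 : ℝ) = r ^ 4 := by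
        rw [← Real.rpow_natCast]; norm_num
      rw [h4, hDk]
      have h5 : r ^ 3 ≤ r ^ 4 := pow_le_pow_right₀ hr1 (by norm_num)
      have h7 := hxk k
      calc C2 * (N7 * (nb * (Δ0 / 2 ^ lj (k1 k)) * r ^ 3)) =
            r ^ 3 * ((C2 * N7) * (nb * (Δ0 / 2 ^ lj (k1 k)))) := by ring
        _ ≤ r ^ 4 * (Cp * (nb * (Δ0 / 2 ^ lj (k1 k)))) :=
            mul_le_mul h5 (mul_le_mul_of_nonneg_right hC2Cp h7)
              (mul_nonneg (mul_nonneg hC2 hN70) h7) (by positivity)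
  · intro k _
    exact Bas367.selc_slc hκ hρ
  · intro k hk S' h1 h2
    rw [← hρe, ← hg']
    exact hsubPB k S' h1 h2
  · -- densities
    intro k hk c Y0 f s1 s2 hsd hadm
    rw [← hg']
    have h0 := Dsc_mono hr1 (hsubDens k _ (hUm k) (fun m => Set.Subset.refl _))
      (fun _ _ => Set.Subset.refl _) (D' := Dk k)
      (by rw [hDk]; exact mul_le_mul_of_nonneg_right hCdCp (hxk k))
    exact h0 c Y0 f s1 s2 hsd hadm
  · intro k hk m y hy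
    rw [hU] at hy
    rw [Metric.mem_closedBall, dist_zero_right]
    refine ((hXM0 k hy).2).trans ?_
    have : K0 ≤ A' := by linarith
    gcongr
  · intro k hk m hm
    rw [← hρe] at hm
    rw [Set.eq_empty_iff_forall_notMem]
    intro y hy
    rw [hU] at hy
    exact hm (hXM0 k hy).1
  · intro k _ k' _ hne m
    exact hdisU k k' hne m
  · -- plates
    intro k hk
    have hfr : ∀ i ∈ I k, ‖(Pl k i).X0‖ ≤ A' * r ∧ ‖(Pl k i).c‖ ≤ A' := by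
      intro i hi
      obtain ⟨hi1, hi2, hi3, hi4⟩ := hmem k i hi
      obtain ⟨h1, h2, h3, h5, h6, h7⟩ := hAc _ i hi1
      have hne : (Ac (lj (k1 k)) i).Nonempty := by
        by_contra hne
        rw [Set.not_nonempty_iff_eq_empty] at hne
        rw [hne, measure_empty] at h7
        exact not_lt_zero h7
      obtain ⟨w, hw⟩ := hne
      have h8 := (h6 hw).1
      have h9 := hXX0 _ (h2 hw)
      have hcap := Crest.Agent.R138.Wpk685.caps_norm hρ hρ1 _ h9.1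
      obtain ⟨b1, b2, b3, _, _⟩ := h8
      rw [← hρe] at b1 b2 b3
      simp only [one_mul] at b1 b2 b3
      have hsl1 := sg_le_one ρ (P (lj (k1 k)) i).a1
      have hsl0 : 0 < sg ρ (P (lj (k1 k)) i).a1 := hρ.trans_le (sg_ge hρ hρ1 _)
      have hTT1 := TT_le_one (κ := κ) (r := r) hsl0.le hsl1 hκr1
      rw [hPX, hPc]
      have hy := h9.2
      have e1 : ‖(P (lj (k1 k)) i).c‖ ≤ 7 := by
        have e : (P (lj (k1 k)) i).c = cen ρ w.1 - (cen ρ w.1 - (P (lj (k1 k)) i).c) := by abel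
        rw [e]
        refine (norm_sub_le _ _).trans ?_
        linarith
      have e2 : ‖lat w.2 - lat (P (lj (k1 k)) i).X0‖ ≤ r :=
        b2.trans (mul_le_of_le_one_left hr0.le hsl1)
      have e3 : |nrm (P (lj (k1 k)) i).c w.2 0 - nrm (P (lj (k1 k)) i).c (P (lj (k1 k)) i).X0 0| ≤
          r := b3.trans (mul_le_of_le_one_left hr0.le hTT1)
      have e4 : ‖lat w.2‖ ≤ K0 * r := (Bas367_lat w.2).trans hy
      have e5 : |w.2 2| ≤ K0 * r := (PiLp.norm_apply_le w.2 2).trans hy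
      have e6 : ‖lat (P (lj (k1 k)) i).X0‖ ≤ (K0 + 1) * r := by
        have e : lat (P (lj (k1 k)) i).X0 = lat w.2 - (lat w.2 - lat (P (lj (k1 k)) i).X0) := by
          abel
        rw [e]
        refine (norm_sub_le _ _).trans ?_
        linarith
      have e7 : |(P (lj (k1 k)) i).X0 2| ≤ (K0 + 8) * r := by
        have e8 : (P (lj (k1 k)) i).X0 2 = w.2 2 +
            inner ℝ (P (lj (k1 k)) i).c (lat w.2 - lat (P (lj (k1 k)) i).X0) -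
            (nrm (P (lj (k1 k)) i).c w.2 0 -
              nrm (P (lj (k1 k)) i).c (P (lj (k1 k)) i).X0 0) := by
          unfold nrm
          rw [inner_sub_right]
          ring
        have e9 : |inner ℝ (P (lj (k1 k)) i).c (lat w.2 - lat (P (lj (k1 k)) i).X0)| ≤ 7 * r := by
          refine (abs_real_inner_le_norm _ _).trans ?_
          gcongr
        rw [e8]
        have t1 := abs_sub (w.2 2 +
            inner ℝ (P (lj (k1 k)) i).c (lat w.2 - lat (P (lj (k1 k)) i).X0))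
            (nrm (P (lj (k1 k)) i).c w.2 0 -
              nrm (P (lj (k1 k)) i).c (P (lj (k1 k)) i).X0 0)
        have t2 := abs_add_le (w.2 2)
          (inner ℝ (P (lj (k1 k)) i).c (lat w.2 - lat (P (lj (k1 k)) i).X0))
        linarith
      refine ⟨(Bas367.norm_le_of e6 e7).trans (le_of_eq ?_), e1.trans ?_⟩
      · rw [hA']; ring
      · rw [hA']; linarith
    refine ⟨⟨fun i _ => by rw [hPz]; exact hz, fun i _ j _ => Or.inl (by rw [hPz, hPz]),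
      fun i hi => (hfr i hi).1, fun i hi => (hfr i hi).2, fun i hi => ?_, fun i hi m => ?_,
      fun i hi m y hy => ?_, ?_⟩, fun i _ => hPz k i⟩
    · obtain ⟨hi1, hi2, hi3, hi4⟩ := hmem k i hi
      have h3 := (hAc _ i hi1).2.2.1.2.2
      rw [hPc, hPX, hPf]
      rw [← hρe, hi2, hi3] at h3
      exact h3
    · rw [hPS]
      exact sli3_meas (hAm _ i (hmem k i hi).1) m
    · obtain ⟨hi1, hi2, hi3, hi4⟩ := hmem k i hi
      rw [hPS] at hy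
      have h6 := ((hAc _ i hi1).2.2.2.2.1 hy).1
      have h7 : y ∈ pbt κ r (P (lj (k1 k)) i) m := h6
      unfold pbt at h7
      rw [← hρe, hi2, hi3] at h7
      rw [hPc, hPX, hPf]
      exact pbx_mono hr0.le zero_le_one (by linarith) (hs1 k).le (hs2 k) le_rfl le_rfl h7
    · intro i hi j hj hij _ m
      rw [hPS, hPS]
      have := hdis _ i (hmem k i hi).1 j (hmem k j hj).1 hij
      rw [Set.disjoint_left] at this ⊢
      exact fun y hy hy' => this hy hy'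
  · -- classes
    intro k hk i hi m y hy
    obtain ⟨hi1, hi2, hi3, hi4⟩ := hmem k i hi
    rw [hPS] at hy
    have h6 := ((hAc _ i hi1).2.2.2.2.1 hy).2
    rw [hPf, ← hi4]
    exact h6
  · -- dense
    intro k hk i hi
    rw [← hρe, ← hg']
    simp only
    have h1 := hDkn k i hi
    have h3 := hΔj (lj (k1 k))
    have e1 := hs1 k
    have e2 := hs2 k
    have e3 := hVp k
    rw [hDk]
    simp only
    calc ENNReal.ofReal (Cp * (nb * (Δ0 / 2 ^ lj (k1 k))) *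
          (sg ρ (la1 (k1 k))) ^ q * scost κ (sg ρ (la0 (k1 k))) (sg ρ (la1 (k1 k))) r) =
        ENNReal.ofReal (2 * Cp * nb) * ENNReal.ofReal (Δ0 / 2 ^ lj (k1 k) / 2 *
          ((sg ρ (la1 (k1 k))) ^ q * scost κ (sg ρ (la0 (k1 k))) (sg ρ (la1 (k1 k))) r)) := by
          rw [← ENNReal.ofReal_mul (by positivity)]
          congr 1
          ring
      _ ≤ _ := by
          refine mul_le_mul' (ENNReal.ofReal_le_ofReal ?_) h1
          gcongr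
  · -- energy
    intro k hk
    rw [← hρe, ← hg', ← hensum]
    exact (hselEn _ (hBsk k)).trans (mul_le_mul' (ENNReal.ofReal_le_ofReal hCCe) le_rfl)
  · -- D6
    intro k hk
    have h1 := hselEn _ (hBsk k)
    rw [hensum] at h1
    have hcase : ∀ i ∈ I k, ENNReal.ofReal (Real.sqrt (Δ0 / 2 ^ lj (k1 k)) * r) *
        enc ρ g' (Pl k i).S ≤ ENNReal.ofReal (Real.sqrt 2) *
        (ENNReal.ofReal ((sg ρ (la1 (k1 k))) ^ (-q / 2)) *
          (ENNReal.ofReal ((r * scost κ (sg ρ (la0 (k1 k))) (sg ρ (la1 (k1 k))) r) ^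
            (-(1/2) : ℝ)) * (ENNReal.ofReal r * enc ρ g' (Pl k i).S) ^ (3 / 2 : ℝ))) := by
      intro i hi
      refine d6_3 (hs2 k) (hVp k) hr0 (hΔj _) ?_ (hDkn k i hi)
      exact ne_of_lt ((H3 ρ hρ hρ1 g' hgi hg2 _).trans_lt ENNReal.ofReal_lt_top)
    have h7 : SS (selc η0 κ ρ g' (uS (I k) (Pl k))) r (Dk k) =
        Real.sqrt Cp * Real.sqrt nb * ((Real.sqrt (Δ0 / 2 ^ lj (k1 k)) * r) *
          Enc (selc η0 κ ρ g' (uS (I k) (Pl k)))) := by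
      unfold SS
      rw [hDk]
      simp only
      rw [Real.sqrt_mul hCp0, Real.sqrt_mul hnb0.le]
      ring
    have hval : val κ g r (sg ρ (la0 (k1 k))) (sg ρ (la1 (k1 k))) (I k) (Pl k) =
        ∑ i ∈ I k, (ENNReal.ofReal ((r * scost κ (sg ρ (la0 (k1 k))) (sg ρ (la1 (k1 k))) r) ^
          (-(1/2) : ℝ)) * (ENNReal.ofReal r * enc ρ g' (Pl k i).S) ^ (3 / 2 : ℝ)) := by
      unfold val
      refine Finset.sum_congr rfl fun i hi => ?_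
      rw [hPz, ← hg', ← hρe]
    simp only
    rw [hval, h7, ENNReal.ofReal_mul (by positivity : 0 ≤ Real.sqrt Cp * Real.sqrt nb),
      ENNReal.ofReal_mul (by positivity : 0 ≤ Real.sqrt (Δ0 / 2 ^ lj (k1 k)) * r)]
    calc ENNReal.ofReal (Real.sqrt Cp * Real.sqrt nb) *
          (ENNReal.ofReal (Real.sqrt (Δ0 / 2 ^ lj (k1 k)) * r) *
          ENNReal.ofReal (Enc (selc η0 κ ρ g' (uS (I k) (Pl k))))) ≤
        ENNReal.ofReal (Real.sqrt Cp * Real.sqrt nb) *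
          (ENNReal.ofReal (Real.sqrt (Δ0 / 2 ^ lj (k1 k)) * r) *
          (ENNReal.ofReal C2 * ∑ i ∈ I k, enc ρ g' (Pl k i).S)) := by gcongr
      _ = ENNReal.ofReal C2 * ENNReal.ofReal (Real.sqrt Cp * Real.sqrt nb) * (∑ i ∈ I k,
          ENNReal.ofReal (Real.sqrt (Δ0 / 2 ^ lj (k1 k)) * r) * enc ρ g' (Pl k i).S) := by
          rw [← Finset.mul_sum]; ring
      _ ≤ ENNReal.ofReal C2 * ENNReal.ofReal (Real.sqrt Cp * Real.sqrt nb) * (∑ i ∈ I k,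
          ENNReal.ofReal (Real.sqrt 2) * (ENNReal.ofReal ((sg ρ (la1 (k1 k))) ^ (-q / 2)) *
          (ENNReal.ofReal ((r * scost κ (sg ρ (la0 (k1 k))) (sg ρ (la1 (k1 k))) r) ^
            (-(1/2) : ℝ)) *
          (ENNReal.ofReal r * enc ρ g' (Pl k i).S) ^ (3 / 2 : ℝ)))) := by
          exact mul_le_mul' le_rfl (Finset.sum_le_sum fun i hi => hcase i hi)
      _ = ENNReal.ofReal (C2 * (Real.sqrt Cp * Real.sqrt nb) * Real.sqrt 2) *
          (ENNReal.ofReal ((sg ρ (la1 (k1 k))) ^ (-q / 2)) * ∑ i ∈ I k,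
          (ENNReal.ofReal ((r * scost κ (sg ρ (la0 (k1 k))) (sg ρ (la1 (k1 k))) r) ^
            (-(1/2) : ℝ)) *
          (ENNReal.ofReal r * enc ρ g' (Pl k i).S) ^ (3 / 2 : ℝ))) := by
          have hCs : ENNReal.ofReal (C2 * (Real.sqrt Cp * Real.sqrt nb) * Real.sqrt 2) =
              ENNReal.ofReal C2 * ENNReal.ofReal (Real.sqrt Cp * Real.sqrt nb) *
                ENNReal.ofReal (Real.sqrt 2) := by
            rw [← ENNReal.ofReal_mul hC2, ← ENNReal.ofReal_mul (mul_nonneg hC2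
              (mul_nonneg (Real.sqrt_nonneg _) (Real.sqrt_nonneg _)))]
          rw [← Finset.mul_sum, ← Finset.mul_sum, hCs]
          ring
      _ ≤ _ := by
          refine mul_le_mul' (ENNReal.ofReal_le_ofReal ?_) le_rfl
          calc C2 * (Real.sqrt Cp * Real.sqrt nb) * Real.sqrt 2 =
                C2 * Real.sqrt Cp * Real.sqrt 2 * Real.sqrt nb := by ring
            _ ≤ C * nb := by gcongr
  · exact hgd.meas.sub hYgd.meas
  · exact (hgd.sub hYgd).bdd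
  · intro ξ hξ
    by_cases h1 : g' ξ = 0
    · have h2 : selc η0 κ ρ g' (sli3 Y) ξ ≠ 0 := by
        intro h2
        exact hξ (by rw [h1, h2, sub_zero])
      obtain ⟨s1, s2, s3, _⟩ := hselsup _ ξ h2
      exact ⟨s1, s2, s3.trans hb3⟩
    · obtain ⟨s1, s2, s3, _⟩ := hsupg ξ h1
      refine ⟨le_trans ?_ s1, s2.trans (by linarith), s3.trans hb2.le⟩
      exact inv_anti₀ (by linarith) (by linarith)
  · refine (Enc_sub_le hg2 (hYgd.memLp 2)).trans ?_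
    have h1 := hselEn' _ (hBs Y hYm hYX)
    rw [hEn] at h1 ⊢
    have h2 := Enc_nn g
    calc 2 * Enc g + 2 * Enc (selc η0 κ ρ g' (sli3 Y)) ≤ 2 * Enc g + 2 * (C2 * C3 * Enc g) := by
          gcongr
      _ = (2 + 2 * (C2 * C3)) * Enc g := by ring
      _ ≤ C * Enc g := by gcongr
  · -- the rest is small
    intro r' hr'1 hr'2 z' hz' m y hy
    have hBJ := hBs (X J) (hXm J) (hXX0 J)
    have hB0 := hBs X0 hX0m (Set.Subset.refl _)
    have h1 : trc z' (fun ξ => g' ξ - selc η0 κ ρ g' (sli3 Y) ξ) = fun ξ =>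
        trc z' (fun ζ => g' ζ - selc η0 κ ρ g' (sli3 X0) ζ) ξ +
          trc z' (selc η0 κ ρ g' (sli3 (X J))) ξ := by
      funext ξ
      unfold trc
      beta_reduce
      rw [hsum2 ξ]
      ring
    have hi1 : Integrable (trc z' (fun ζ => g' ζ - selc η0 κ ρ g' (sli3 X0) ζ)) :=
      ((hgd.sub (hselgd _ hB0)).trc z').int
    have hi2 : Integrable (trc z' (selc η0 κ ρ g' (sli3 (X J)))) := ((hselgd _ hBJ).trc z').int
    rw [h1, Bas367.umc_add hi1 hi2]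
    have hRM : 0 < R ^ (-(K : ℝ)) := Real.rpow_pos_of_pos hR0 _
    have e0 : R ^ (-(K : ℝ)) = (R ^ K)⁻¹ := by
      rw [Real.rpow_neg hR0.le, Real.rpow_natCast]
    -- first part
    have h2 := H4 κ η0 r hκ hκa hr1 hκr g' hFg' (sli3 X0) (by rw [← hρe]; exact hB0) (by
      intro m hm y hy
      rw [← hρe] at hm
      rw [Metric.mem_closedBall, dist_zero_right] at hy
      exact ⟨hm, hy⟩) r' hr'1 hr'2 z' hz' m y hy
    rw [← hρe, hEn] at h2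
    have hrM : r ^ (-((2 * K : ℕ) : ℝ)) ≤ R ^ (-(K : ℝ)) := by
      rw [e0, Real.rpow_neg hr0.le, Real.rpow_natCast, pow_mul]
      have h4 : R ≤ r ^ 2 := by
        calc R = (R ^ (1/2 : ℝ)) ^ 2 := by
              rw [← Real.rpow_natCast, ← Real.rpow_mul hR0.le]; norm_num
          _ ≤ r ^ 2 := by gcongr
      exact inv_anti₀ (by positivity) (by gcongr)
    have hsE := Real.sqrt_nonneg (Enc g)
    have h4 : ‖umc (r' ^ (-(1/2) : ℝ))
        (trc z' (fun ζ => g' ζ - selc η0 κ ρ g' (sli3 X0) ζ)) m y‖ ≤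
        C4 * R ^ (-(K : ℝ)) * Real.sqrt (Enc g) := by
      refine h2.trans ?_
      gcongr
    -- second part
    have h5 := Hv (selc η0 κ ρ g' (sli3 (X J))) (hselgd _ hBJ).int ((hselgd _ hBJ).memLp 2)
      (by
        intro ξ hξ
        by_contra hne
        obtain ⟨s1, s2, s3, _⟩ := hselsup _ ξ hne
        have ha0 : 0 < a := by linarith
        have s0 : 0 < ξ 2 := lt_of_lt_of_le (inv_pos.2 (by linarith)) s1
        have s4 : ‖slp ξ‖ ≤ 2 := s3.trans hb3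
        have s5 : ‖lat ξ‖ ≤ 2 * a * 2 := by
          rw [lat_slp s0.ne', norm_smul, Real.norm_eq_abs, abs_of_pos s0]
          exact mul_le_mul s2 s4 (norm_nonneg _) (by linarith)
        have s6 : |ξ 2| ≤ 2 * a := by rw [abs_of_pos s0]; exact s2
        have s7 := Bas367.norm_le_of s5 s6
        linarith) (r' ^ (-(1/2) : ℝ)) z' m y
    have h6 := hselD (sli3 (X J)) J hBJ (fun m _ => Set.Subset.refl _)
    have h7 : C2 * (N7 * (nb * (Δ0 / 2 ^ J) * r ^ 3)) ≤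
        nb ^ 2 * (C2 * (N7 * C3) * (((R ^ K)⁻¹) ^ 2 * Enc g)) := by
      have e2 : r ^ (q / 2) ≤ R ^ ⌈q / 2⌉₊ := by
        calc r ^ (q / 2) ≤ R ^ (q / 2) := Real.rpow_le_rpow hr0.le hrR (by positivity)
          _ ≤ R ^ ((⌈q / 2⌉₊ : ℕ) : ℝ) := Real.rpow_le_rpow_of_exponent_le hR (Nat.le_ceil _)
          _ = _ := Real.rpow_natCast _ _
      have e4 : r ^ (q / 2) * r ^ 3 / 2 ^ J ≤ ((R ^ K)⁻¹) ^ 2 := by
        rw [inv_pow, div_le_iff₀ (by positivity), ← div_eq_inv_mul, le_div_iff₀ (by positivity)]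
        calc r ^ (q / 2) * r ^ 3 * (R ^ K) ^ 2 ≤ R ^ ⌈q / 2⌉₊ * R ^ 3 * (R ^ K) ^ 2 := by gcongr
          _ = R ^ T := by rw [hT]; ring
          _ ≤ 2 ^ J := hJR
      have h8 := Enc_nn g
      have h9 : (nb:ℝ) ≤ nb ^ 2 := le_self_pow₀ hnb' two_ne_zero
      rw [hΔ0, hE0, hEn]
      calc C2 * (N7 * (nb * (C3 * Enc g * r ^ (q / 2) / 2 ^ J) * r ^ 3)) =
          nb * (C2 * (N7 * C3) * (r ^ (q / 2) * r ^ 3 / 2 ^ J * Enc g)) := by ring
        _ ≤ _ := by gcongr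
    have h8 : ‖umc (r' ^ (-(1/2) : ℝ)) (trc z' (selc η0 κ ρ g' (sli3 (X J)))) m y‖ ≤
        Cv * Real.sqrt (C2 * (N7 * C3)) * (nb * (R ^ (-(K : ℝ)) * Real.sqrt (Enc g))) := by
      refine h5.trans ?_
      have h9 : Real.sqrt (Enc (selc η0 κ ρ g' (sli3 (X J)))) ≤
          Real.sqrt (C2 * (N7 * C3)) * (nb * (R ^ (-(K : ℝ)) * Real.sqrt (Enc g))) := by
        refine (Real.sqrt_le_sqrt (h6.trans h7)).trans (le_of_eq ?_)
        rw [Real.sqrt_mul (by positivity : (0:ℝ) ≤ nb ^ 2), Real.sqrt_sq hnb0.le,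
          Real.sqrt_mul (by positivity : 0 ≤ C2 * (N7 * C3)),
          Real.sqrt_mul (by positivity : 0 ≤ ((R ^ K)⁻¹) ^ 2), Real.sqrt_sq (by positivity), e0]
        ring
      calc Cv * Real.sqrt (Enc (selc η0 κ ρ g' (sli3 (X J)))) ≤
          Cv * (Real.sqrt (C2 * (N7 * C3)) * (nb * (R ^ (-(K : ℝ)) * Real.sqrt (Enc g)))) := by
            gcongr
        _ = _ := by ring
    have h10 : C4 * R ^ (-(K : ℝ)) * Real.sqrt (Enc g) ≤
        C4 * (nb * (R ^ (-(K : ℝ)) * Real.sqrt (Enc g))) := by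
      have h11 : 0 ≤ R ^ (-(K : ℝ)) * Real.sqrt (Enc g) := by positivity
      have h12 : R ^ (-(K : ℝ)) * Real.sqrt (Enc g) ≤
          nb * (R ^ (-(K : ℝ)) * Real.sqrt (Enc g)) := le_mul_of_one_le_left h11 hnb'
      rw [mul_assoc]
      gcongr
    calc ‖umc (r' ^ (-(1/2) : ℝ)) (trc z' (fun ζ => g' ζ - selc η0 κ ρ g' (sli3 X0) ζ)) m y +
          umc (r' ^ (-(1/2) : ℝ)) (trc z' (selc η0 κ ρ g' (sli3 (X J)))) m y‖ ≤
        C4 * (nb * (R ^ (-(K : ℝ)) * Real.sqrt (Enc g))) +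
          Cv * Real.sqrt (C2 * (N7 * C3)) * (nb * (R ^ (-(K : ℝ)) * Real.sqrt (Enc g))) :=
          (norm_add_le _ _).trans (add_le_add (h4.trans h10) h8)
      _ = (C4 + Cv * Real.sqrt (C2 * (N7 * C3))) * nb * R ^ (-(K : ℝ)) *
          Real.sqrt (Enc g) := by ring
      _ ≤ _ := by gcongr

end Crest.Agent.R116.De295
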