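import Crest.Agent.R116.Dc3_295

/-!
# R116 (S0155), wave side: `DECc M q` from its inputs (helper295)
-/

set_option autoImplicit false

open MeasureTheory FourierTransform
open scoped ContDiff ENNReal

namespace Crest.Agent.R116.De295

open Crest.Agent.R138.Defs (E2 ee)
open Crest.Agent.R138.Wpk685 (cen caps Lam card_bound)
open Crest.Agent.R116.CDef480
open Crest.Agent.R116.WC188
open Crest.Agent.R116.Bas367 (Bsc Gd)

/-- **DECc from its inputs**. -/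
theorem decc_of {M q : ℝ} (hM : 2 ≤ M) (hq : 0 ≤ q) (hST : STABc q) (hSU : SUBc M q)
    (hRE : RESTc) (hE1 : EN1c) (hE2 : EN2c) : DECc M q := by
  intro a b A ε M0 ha hb hb2 hA hε K
  obtain ⟨C1, hC1, H1⟩ := hSU a b ha hb hb2
  obtain ⟨C2, hC2, H2⟩ := hE1
  obtain ⟨C3, hC3, H3⟩ := hE2
  obtain ⟨K0, hK0, H4'⟩ := hRE a b A ha hb hb2 hA
  obtain ⟨C4, hC4, H4⟩ := H4' (2 * K)
  obtain ⟨C5, p, hC5, H5'⟩ := hST M (by linarith)
  obtain ⟨Cv, hCv, Hv⟩ := umc_sup (12 * a)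
  obtain ⟨C6, hC6, H6⟩ := card_bound hε (2 * K + ⌈q / 2⌉₊ + 3)
  have H5 : ∀ κ r : ℝ, 1 ≤ r → 0 < κ → κ ≤ 1 → r ^ (-(1/4) : ℝ) ≤ κ →
      ∀ (g : E3 → ℂ) (S : ℤ × ℤ → Set E3) (D : ℝ), (∀ m, MeasurableSet (S m)) → 0 ≤ D →
        Dsc 1 κ q r g S D → Dsc M κ q r g S (C5 * D) := by
    intro κ r hr hκ hκ1 hκr g S D hS hD h
    have h1 := H5' 1 κ r le_rfl hr hκ hκ1 hκr g S D hS hD h
    rw [one_pow, mul_one] at h1
    exact h1
  set N7 : ℝ := ((NB3 K0 : ℕ) : ℝ) with hN7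
  have hN70 : 0 ≤ N7 := by rw [hN7]; positivity
  set Cd : ℝ := (C5 + 1) * 2 ^ (q + 4) with hCd
  have hCd0 : 0 ≤ Cd := by rw [hCd]; positivity
  set Cp : ℝ := (C1 + 1) * Cd + C2 * N7 with hCp
  have hCp0 : 0 ≤ Cp := by rw [hCp]; positivity
  have t1 : 0 ≤ C2 * Real.sqrt Cp * Real.sqrt 2 := by positivity
  have t2 : 0 ≤ 2 + 2 * (C2 * C3) := by positivity
  have t3 : 0 ≤ C4 + Cv * Real.sqrt (C2 * (N7 * C3)) := by positivity
  have hb3 : 0 < 3 / (2 - b) := div_pos (by norm_num) (by linarith)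
  refine ⟨2 * K0 + 9, C6 + 2 * Cp + C2 + C2 * Real.sqrt Cp * Real.sqrt 2 + (2 + 2 * (C2 * C3)) +
    (C4 + Cv * Real.sqrt (C2 * (N7 * C3))), max 1 ((3 / (2 - b)) ^ 4), by linarith,
    by positivity, le_max_left _ _, ?_⟩
  intro R r κ hR0 hRr hrR hκ hκa hκR nb hnb
  have hR : 1 ≤ R := (le_max_left _ _).trans hR0
  have hRp : 0 < R := by linarith
  have hR4 : (3 / (2 - b)) ^ 4 ≤ R := (le_max_right _ _).trans hR0
  have hr1 : 1 ≤ r := (Real.one_le_rpow hR (by norm_num)).trans hRr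
  have hr0 : 0 < r := by linarith
  have hκr : r ^ (-(1/4) : ℝ) ≤ κ := by
    refine le_trans ?_ hκR
    have h1 : (R ^ (1/2 : ℝ)) ^ (-(1/4) : ℝ) = R ^ (-(1/8) : ℝ) := by
      rw [← Real.rpow_mul hRp.le]; norm_num
    rw [← h1]
    exact Real.rpow_le_rpow_of_nonpos (Real.rpow_pos_of_pos hRp _) hRr (by norm_num)
  have hb4 : b + 3 * r ^ (-(1/2) : ℝ) ≤ 2 := by
    have h1 : r ^ (-(1/2) : ℝ) ≤ (2 - b) / 3 := by
      have h2 : r ^ (-(1/2) : ℝ) ≤ (R ^ (1/2 : ℝ)) ^ (-(1/2) : ℝ) :=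
        Real.rpow_le_rpow_of_nonpos (Real.rpow_pos_of_pos hRp _) hRr (by norm_num)
      have h3 : (R ^ (1/2 : ℝ)) ^ (-(1/2) : ℝ) = R ^ (-(1/4) : ℝ) := by
        rw [← Real.rpow_mul hRp.le]; norm_num
      have h4 : R ^ (-(1/4) : ℝ) ≤ ((3 / (2 - b)) ^ 4) ^ (-(1/4) : ℝ) :=
        Real.rpow_le_rpow_of_nonpos (by positivity) hR4 (by norm_num)
      have h5 : ((3 / (2 - b)) ^ 4) ^ (-(1/4) : ℝ) = (2 - b) / 3 := by
        rw [← Real.rpow_natCast, ← Real.rpow_mul hb3.le]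
        norm_num
        rw [Real.rpow_neg_one, inv_div]
      rw [← h5]
      exact (h2.trans (le_of_eq h3)).trans h4
    linarith
  exact big3 hM hq ha hb hb2 hA hC1 hC2 hC3 hC4 hC5 hC6 hCv hK0 H1 H2 H3 H4 H5 Hv hε H6
    hN7 hCd hCp rfl (by linarith) (by linarith) (by linarith) (by linarith) (by linarith)
    (by linarith) hR hRr hrR hb4 hκ hκa hκr hnb

end Crest.Agent.R116.De295
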