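import Mathlib

/-!
# R116 (S0155), wave side: composition of the one-level facts along a path of labels (helper229)

Abstract part, no geometry.  `ι` = caps, `E` = positions with a measure `μ`.
* `mink` : Minkowski for finite sums in `L²` of a measure, `ENNReal`.
* `U_chain` : the pointwise bounds `a (l+1) m' x ≤ Λ ∑_{m near m'} (avg a_l²)^{1/2} + τ` on the
  selections compose in `l¹` over the caps, `L²` in the positions.
* `E_chain` : the energy bounds compose.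
-/

set_option autoImplicit false

open MeasureTheory
open scoped ENNReal

namespace Crest.Agent.R116.Dch229

/-! ### square roots in `ENNReal` -/

/-- square root. -/
noncomputable def rt (x : ℝ≥0∞) : ℝ≥0∞ := x ^ (1 / 2 : ℝ)

theorem rt_mono {x y : ℝ≥0∞} (h : x ≤ y) : rt x ≤ rt y := ENNReal.rpow_le_rpow h (by norm_num)

theorem rt_sq (x : ℝ≥0∞) : rt (x ^ 2) = x := by
  unfold rt
  rw [← ENNReal.rpow_natCast, ← ENNReal.rpow_mul]
  norm_num

theorem sq_rt (x : ℝ≥0∞) : rt x ^ 2 = x := by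
  unfold rt
  rw [← ENNReal.rpow_natCast, ← ENNReal.rpow_mul]
  norm_num

theorem rt_mul (x y : ℝ≥0∞) : rt (x * y) = rt x * rt y :=
  ENNReal.mul_rpow_of_nonneg _ _ (by norm_num)

theorem rt_le_iff {x y : ℝ≥0∞} : rt x ≤ y ↔ x ≤ y ^ 2 := by
  constructor
  · intro h
    rw [← sq_rt x]
    exact pow_le_pow_left₀ zero_le h 2
  · intro h
    rw [← rt_sq y]
    exact rt_mono h

theorem rt_zero : rt 0 = 0 := by
  unfold rt
  exact ENNReal.zero_rpow_of_pos (by norm_num)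

theorem measurable_rt : Measurable rt := by
  unfold rt
  exact ENNReal.continuous_rpow_const.measurable

section mink

variable {E : Type*} [MeasurableSpace E] {μ : Measure E}

theorem mink_add {f g : E → ℝ≥0∞} (hf : AEMeasurable f μ) (hg : AEMeasurable g μ) :
    rt (∫⁻ x, (f x + g x) ^ 2 ∂μ) ≤ rt (∫⁻ x, f x ^ 2 ∂μ) + rt (∫⁻ x, g x ^ 2 ∂μ) := by
  have h := ENNReal.lintegral_Lp_add_le hf hg (p := 2) (by norm_num)
  simpa [rt, Pi.add_apply] using h

theorem mink {κ : Type*} (s : Finset κ) {f : κ → E → ℝ≥0∞} (hf : ∀ i ∈ s, AEMeasurable (f i) μ) :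
    rt (∫⁻ x, (∑ i ∈ s, f i x) ^ 2 ∂μ) ≤ ∑ i ∈ s, rt (∫⁻ x, f i x ^ 2 ∂μ) := by
  classical
  induction s using Finset.induction_on with
  | empty => simp [rt_zero]
  | insert i s hi ih =>
    have h1 : ∀ j ∈ s, AEMeasurable (f j) μ := fun j hj => hf j (Finset.mem_insert_of_mem hj)
    have h2 := mink_add (μ := μ) (hf i (Finset.mem_insert_self i s))
      (Finset.aemeasurable_fun_sum s h1)
    rw [Finset.sum_insert hi]
    simp only [Finset.sum_insert hi]
    exact h2.trans (add_le_add le_rfl (ih h1))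

/-- Cauchy-Schwarz for finite sums of square roots. -/
theorem sum_rt_sq_le {κ : Type*} (s : Finset κ) (f : κ → ℝ≥0∞) :
    (∑ i ∈ s, rt (f i)) ^ 2 ≤ (s.card : ℝ≥0∞) * ∑ i ∈ s, f i := by
  have h := ENNReal.inner_le_Lp_mul_Lq (s := s) (f := fun _ => (1 : ℝ≥0∞)) (g := fun i => rt (f i))
    (p := 2) (q := 2) (by constructor <;> norm_num)
  simp only [one_mul, ENNReal.one_rpow, Finset.sum_const, nsmul_eq_mul, mul_one] at h
  have e : ∀ i, rt (f i) ^ (2 : ℝ) = f i := by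
    intro i
    have := sq_rt (f i)
    rwa [← ENNReal.rpow_natCast] at this
  simp only [e] at h
  have h2 := pow_le_pow_left₀ zero_le h 2
  refine h2.trans (le_of_eq ?_)
  rw [mul_pow]
  congr 1
  · exact sq_rt _
  · exact sq_rt _

end mink

/-! ### one step of the chains -/

section step

variable {E ι : Type*} [MeasurableSpace E] {μ : Measure E}

/-- double sums over chains: every `m` is reached from at most `M` caps `m'`. -/
theorem sum_chain [DecidableEq ι] {nr : Finset ι} {nc : ι → Finset ι} {nc' : Finset ι} {M : ℕ}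
    (hsub : ∀ m' ∈ nr, nc m' ⊆ nc') (hM : ∀ m ∈ nc', (nr.filter fun m' => m ∈ nc m').card ≤ M)
    (F : ι → ℝ≥0∞) : ∑ m' ∈ nr, ∑ m ∈ nc m', F m ≤ (M : ℝ≥0∞) * ∑ m ∈ nc', F m := by
  have e : ∑ m' ∈ nr, ∑ m ∈ nc m', F m = ∑ m ∈ nc', ∑ m' ∈ nr.filter (fun m' => m ∈ nc m'), F m := by
    refine Finset.sum_comm' fun m' m => ?_
    constructor
    · rintro ⟨h1, h2⟩
      exact ⟨Finset.mem_filter.2 ⟨h1, h2⟩, hsub m' h1 h2⟩
    · rintro ⟨h1, h2⟩
      exact Finset.mem_filter.1 h1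
  rw [e, Finset.mul_sum]
  refine Finset.sum_le_sum fun m hm => ?_
  rw [Finset.sum_const, nsmul_eq_mul]
  gcongr
  exact_mod_cast hM m hm

/-- **one step of the pointwise chain.**  `k m'` = weight around the point under consideration,
`D m` = densities of the packets of the bottom level seen from the level `l`, `D' m` = the same seen
from the point under consideration (level `l + 1`). -/
theorem U_step [DecidableEq ι] {nr : Finset ι} {nc : ι → Finset ι} {nc' : Finset ι} {M : ℕ}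
    (hsub : ∀ m' ∈ nr, nc m' ⊆ nc') (hM : ∀ m ∈ nc', (nr.filter fun m' => m ∈ nc m').card ≤ M)
    {S : ι → Set E} (hS : ∀ m' ∈ nr, MeasurableSet (S m')) {a : ι → E → ℝ≥0∞}
    {k : ι → E → ℝ≥0∞} (hk : ∀ m' ∈ nr, Measurable (k m')) {D : ι → E → ℝ≥0∞}
    (hD : ∀ m ∈ nc', Measurable (D m)) {D' : ι → ℝ≥0∞} {A Λ Λ' τ τ' C C' : ℝ≥0∞}
    (h1 : A ≤ Λ * ∑ m' ∈ nr, rt (∫⁻ y in S m', k m' y * a m' y ^ 2 ∂μ) + τ)
    (h2 : ∀ m' ∈ nr, ∀ y ∈ S m', a m' y ≤ Λ' * ∑ m ∈ nc m', rt (D m y) + τ')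
    (h3 : ∀ m' ∈ nr, ∀ m ∈ nc m', ∫⁻ y, k m' y * D m y ∂μ ≤ C * D' m)
    (h4 : ∀ m' ∈ nr, ∫⁻ y, k m' y ∂μ ≤ C') :
    A ≤ Λ * Λ' * rt C * M * ∑ m ∈ nc', rt (D' m) + (Λ * (nr.card * (rt C' * τ')) + τ) := by
  have key : ∀ m' ∈ nr, rt (∫⁻ y in S m', k m' y * a m' y ^ 2 ∂μ) ≤
      Λ' * rt C * ∑ m ∈ nc m', rt (D' m) + rt C' * τ' := by
    intro m' hm'
    have hkm := hk m' hm'
    have hDm : ∀ m ∈ nc m', Measurable (D m) := fun m hm => hD m (hsub m' hm' hm)
    have e1 : ∫⁻ y in S m', k m' y * a m' y ^ 2 ∂μ ≤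
        ∫⁻ y, (∑ m ∈ nc m', (Λ' * rt (D m y)) * rt (k m' y) + τ' * rt (k m' y)) ^ 2 ∂μ := by
      refine (setLIntegral_mono' (hS m' hm') fun y hy => ?_).trans (setLIntegral_le_lintegral _ _)
      have h5 := pow_le_pow_left₀ zero_le (h2 m' hm' y hy) 2
      calc k m' y * a m' y ^ 2 ≤ k m' y * (Λ' * ∑ m ∈ nc m', rt (D m y) + τ') ^ 2 := by gcongr
        _ = _ := by
          conv_lhs => rw [← sq_rt (k m' y)]
          rw [← mul_pow]
          congr 1
          rw [Finset.mul_sum, mul_add, Finset.mul_sum, mul_comm τ']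
          congr 1
          refine Finset.sum_congr rfl fun m _ => ?_
          ring
    have hm1 : ∀ m ∈ nc m', Measurable fun y => Λ' * rt (D m y) * rt (k m' y) := fun m hm =>
      ((measurable_rt.comp (hDm m hm)).const_mul _).mul (measurable_rt.comp hkm)
    have hm2 : Measurable fun y => τ' * rt (k m' y) := (measurable_rt.comp hkm).const_mul _
    have e2 := mink_add (μ := μ) (f := fun y => ∑ m ∈ nc m', Λ' * rt (D m y) * rt (k m' y))
      (g := fun y => τ' * rt (k m' y)) (Finset.aemeasurable_fun_sum _ fun m hm => (hm1 m hm).aemeasurable)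
      hm2.aemeasurable
    have e3 := mink (μ := μ) (nc m') (f := fun m y => Λ' * rt (D m y) * rt (k m' y))
      (fun m hm => (hm1 m hm).aemeasurable)
    refine (rt_mono e1).trans (e2.trans (add_le_add (e3.trans ?_) ?_))
    · rw [Finset.mul_sum]
      refine Finset.sum_le_sum fun m hm => ?_
      rw [rt_le_iff]
      calc ∫⁻ y, (Λ' * rt (D m y) * rt (k m' y)) ^ 2 ∂μ
          = ∫⁻ y, Λ' ^ 2 * (k m' y * D m y) ∂μ := by
            refine lintegral_congr fun y => ?_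
            rw [mul_pow, mul_pow, sq_rt, sq_rt]; ring
        _ = Λ' ^ 2 * ∫⁻ y, k m' y * D m y ∂μ := lintegral_const_mul _ (hkm.mul (hDm m hm))
        _ ≤ Λ' ^ 2 * (C * D' m) := by gcongr; exact h3 m' hm' m hm
        _ = (Λ' * rt C * rt (D' m)) ^ 2 := by
            rw [mul_pow, mul_pow, sq_rt, sq_rt]; ring
    · rw [rt_le_iff]
      calc ∫⁻ y, (τ' * rt (k m' y)) ^ 2 ∂μ = ∫⁻ y, τ' ^ 2 * k m' y ∂μ := by
            refine lintegral_congr fun y => ?_
            rw [mul_pow, sq_rt]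
        _ = τ' ^ 2 * ∫⁻ y, k m' y ∂μ := lintegral_const_mul _ hkm
        _ ≤ τ' ^ 2 * C' := by gcongr; exact h4 m' hm'
        _ = (rt C' * τ') ^ 2 := by rw [mul_pow, sq_rt]; ring
  calc A ≤ Λ * ∑ m' ∈ nr, rt (∫⁻ y in S m', k m' y * a m' y ^ 2 ∂μ) + τ := h1
    _ ≤ Λ * ∑ m' ∈ nr, (Λ' * rt C * ∑ m ∈ nc m', rt (D' m) + rt C' * τ') + τ := by
        gcongr with m' hm'
        exact key m' hm'
    _ = Λ * (Λ' * rt C * ∑ m' ∈ nr, ∑ m ∈ nc m', rt (D' m)) +
          (Λ * (nr.card * (rt C' * τ')) + τ) := by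
        rw [Finset.sum_add_distrib, ← Finset.mul_sum, Finset.sum_const, nsmul_eq_mul, mul_add,
          add_assoc]
    _ ≤ Λ * (Λ' * rt C * (M * ∑ m ∈ nc', rt (D' m))) + (Λ * (nr.card * (rt C' * τ')) + τ) := by
        gcongr
        exact sum_chain hsub hM _
    _ = _ := by ring

/-- **one step of the energy chain.** -/
theorem E_step [DecidableEq ι] {nr : Finset ι} {nc : ι → Finset ι} {nc' : Finset ι} {M : ℕ}
    (hsub : ∀ m' ∈ nr, nc m' ⊆ nc') (hM : ∀ m ∈ nc', (nr.filter fun m' => m ∈ nc m').card ≤ M)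
    {e e' : ι → ℝ≥0∞} {A Λ Λ' τ τ' : ℝ≥0∞} (h1 : A ≤ Λ * ∑ m' ∈ nr, e m' + τ)
    (h2 : ∀ m' ∈ nr, e m' ≤ Λ' * ∑ m ∈ nc m', e' m + τ') :
    A ≤ Λ * Λ' * M * ∑ m ∈ nc', e' m + (Λ * (nr.card * τ') + τ) := by
  calc A ≤ Λ * ∑ m' ∈ nr, e m' + τ := h1
    _ ≤ Λ * ∑ m' ∈ nr, (Λ' * ∑ m ∈ nc m', e' m + τ') + τ := by
        gcongr with m' hm'
        exact h2 m' hm'
    _ = Λ * (Λ' * ∑ m' ∈ nr, ∑ m ∈ nc m', e' m) + (Λ * (nr.card * τ') + τ) := by
        rw [Finset.sum_add_distrib, ← Finset.mul_sum, Finset.sum_const, nsmul_eq_mul, mul_add,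
          add_assoc]
    _ ≤ Λ * (Λ' * (M * ∑ m ∈ nc', e' m)) + (Λ * (nr.card * τ') + τ) := by
        gcongr
        exact sum_chain hsub hM _
    _ = _ := by ring

end step

end Crest.Agent.R116.Dch229
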