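import Crest.Agent.R138.Loc1_878

/-!
# R116 (S0155), wave side: near caps of non-adjacent levels (helper229)

`nearC ρ ρ' m'` = caps `m` of level `ρ` with `‖cen ρ m - cen ρ' m'‖ < 4 ρ'`; if `4 ρ ≤ ρ'` then it
contains `nearL ρ ρ' m'`, and the sets compose: `m'' → m' → m` with `m'` in `nearL` and `m` in
`nearC` gives `m` in `nearC`; every `m` is reached from at most `100` caps `m'`.
-/

set_option autoImplicit false

open scoped ENNReal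

namespace Crest.Agent.R116.Dch229

open Crest.Agent.R138.Defs (E2)
open Crest.Agent.R138.Wpk685 (cen caps)
open Crest.Agent.R138.Loc878 (Near nearL mem_nearL)

open Classical in
/-- caps of level `ρ` near the cap `m'` of a (much) finer level `ρ'`. -/
noncomputable def nearC (ρ ρ' : ℝ) (m' : ℤ × ℤ) : Finset (ℤ × ℤ) :=
  (caps ρ).filter fun m => ‖cen ρ m - cen ρ' m'‖ < 4 * ρ'

theorem mem_nearC {ρ ρ' : ℝ} {m' m : ℤ × ℤ} :
    m ∈ nearC ρ ρ' m' ↔ m ∈ caps ρ ∧ ‖cen ρ m - cen ρ' m'‖ < 4 * ρ' := by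
  classical
  simp [nearC]

theorem nearL_subset {ρ ρ' : ℝ} (hρ' : 0 ≤ ρ') (m' : ℤ × ℤ) : nearL ρ ρ' m' ⊆ nearC ρ ρ' m' := by
  intro m hm
  obtain ⟨h1, h2⟩ := mem_nearL.1 hm
  refine mem_nearC.2 ⟨h1, ?_⟩
  unfold Near at h2
  linarith

/-- composition. -/
theorem nearC_trans {ρ ρ1 ρ2 : ℝ} (h : 4 * ρ1 ≤ ρ2) {m2 m1 : ℤ × ℤ} (h1 : m1 ∈ nearL ρ1 ρ2 m2) :
    nearC ρ ρ1 m1 ⊆ nearC ρ ρ2 m2 := by
  intro m hm
  obtain ⟨h2, h3⟩ := mem_nearC.1 hm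
  refine mem_nearC.2 ⟨h2, ?_⟩
  have h4 := (mem_nearL.1 h1).2
  unfold Near at h4
  have e : cen ρ m - cen ρ2 m2 = (cen ρ m - cen ρ1 m1) + (cen ρ1 m1 - cen ρ2 m2) := by abel
  rw [e]
  exact (norm_add_le _ _).trans_lt (by linarith)

theorem card_cen {ρ : ℝ} (hρ : 0 < ρ) (ξ : E2) (s : Finset (ℤ × ℤ))
    (hs : ∀ m ∈ s, ‖ξ - cen ρ m‖ < 4 * ρ) : s.card ≤ 64 := by
  have h1 : s ⊆ Finset.Icc (⌊ξ 0 / ρ⌋ - 3) (⌊ξ 0 / ρ⌋ + 4) ×ˢ
      Finset.Icc (⌊ξ 1 / ρ⌋ - 3) (⌊ξ 1 / ρ⌋ + 4) := by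
    intro m hm
    have h2 := hs m hm
    have h3 : ∀ (i : Fin 2) (k : ℤ), cen ρ m i = ρ * k → ⌊ξ i / ρ⌋ - 3 ≤ k ∧ k ≤ ⌊ξ i / ρ⌋ + 4 := by
      intro i k hk
      have h4 : |ξ i - ρ * k| < 4 * ρ := by
        have := PiLp.norm_apply_le (ξ - cen ρ m) i
        rw [PiLp.sub_apply, hk, Real.norm_eq_abs] at this
        linarith
      obtain ⟨h5, h6⟩ := abs_lt.1 h4
      have h7 : (ξ i / ρ) * ρ = ξ i := by field_simp
      have h8 := Int.floor_le (ξ i / ρ)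
      have h9 := Int.lt_floor_add_one (ξ i / ρ)
      constructor
      · have : ((⌊ξ i / ρ⌋ : ℤ) : ℝ) - 4 < k := by
          by_contra hc
          push Not at hc
          nlinarith
        have : ⌊ξ i / ρ⌋ - 4 < k := by exact_mod_cast this
        omega
      · have : (k : ℝ) < ⌊ξ i / ρ⌋ + 5 := by
          by_contra hc
          push Not at hc
          nlinarith
        have : k < ⌊ξ i / ρ⌋ + 5 := by exact_mod_cast this
        omega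
    exact Finset.mem_product.2 ⟨Finset.mem_Icc.2 (h3 0 m.1 rfl), Finset.mem_Icc.2 (h3 1 m.2 rfl)⟩
  refine (Finset.card_le_card h1).trans (le_of_eq ?_)
  rw [Finset.card_product, Int.card_Icc, Int.card_Icc]
  have e1 : ∀ a : ℤ, (a + 4 + 1 - (a - 3)).toNat = 8 := by intro a; omega
  rw [e1, e1]

theorem card_reach {ρ ρ1 : ℝ} (hρ1 : 0 < ρ1) (s : Finset (ℤ × ℤ)) (m : ℤ × ℤ) :
    (s.filter fun m1 => m ∈ nearC ρ ρ1 m1).card ≤ 64 := by
  refine card_cen hρ1 (cen ρ m) _ fun m1 hm1 => ?_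
  exact (mem_nearC.1 (Finset.mem_filter.1 hm1).2).2

end Crest.Agent.R116.Dch229
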