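import Crest.Agent.R116.F1c3_124
import Crest.Agent.R116.AlB1_888

/-!
# R116 (S0155): (F1)/(F2) in terms of the densities `Adc` (helper124)

* `pt_le`   : pointwise bound of a child packet by the density `Adc`, loss `(ρ'/ρ)²`;
* `upperC`  : plate average of a child packet (plate of the child direction) by `Adc`, `κ ρ' ≤ ρ`;
* `upper_set`: energy of a child packet on a set by the integral of `Adc` on its neighbourhood.
-/

set_option autoImplicit false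
set_option linter.unusedSectionVars false

open MeasureTheory FourierTransform
open scoped ContDiff ENNReal

namespace Crest.Agent.R116.F1c124

open Crest.Agent.R138.Wf448
open Crest.Agent.R138.Defs (E2 ee)
open Crest.Agent.R138.Wpk685 (win fat cen caps)
open Crest.Agent.R138.Loc878 (Near nearL mem_nearL capwin_prod)
open Crest.Agent.R116.CWp480 Crest.Agent.R116.CDef480 Crest.Agent.R116.CWc480
open Crest.Agent.R116.CWd480
open Crest.Agent.R116.Cad538 (wt frc frc_apply Acc Den)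
open Crest.Agent.R116.AlB888 (Adc)

/-! ### dictionary -/

theorem frc_eq_Pl {ρ κ : ℝ} (hρ : 0 < ρ) (hκ : 0 < κ) (C : E2) (x : E3) :
    frc ρ κ C x = Pl ρ κ hρ hκ C x := by
  rw [frc_apply, Pl_apply, Crest.Agent.R116.Ckm538.nrm_zero]

theorem kc_wt (n : ℕ) {ρ κ : ℝ} (hρ : 0 < ρ) (hκ : 0 < κ) (C : E2) (x : E3) :
    kc n ρ κ C x = ρ ^ 2 * κ * wt (frc ρ κ C) n x := by
  rw [kc_eq n hρ hκ, adet_Pl]
  unfold wt
  rw [frc_eq_Pl hρ hκ]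

theorem wt_neg (n : ℕ) (ρ κ : ℝ) (C : E2) (x : E3) :
    wt (frc ρ κ C) n (-x) = wt (frc ρ κ C) n x := by
  unfold wt
  rw [map_neg, norm_neg]

theorem kc_adc (n : ℕ) {ρ κ : ℝ} (hρ : 0 < ρ) (hκ : 0 < κ) (C : E2) (X y : E3) (z : E3 × ℝ) :
    kc n ρ κ C (X + z.1 + z.2 • vel C - y) =
      ρ ^ 2 * κ * wt (frc ρ κ C) n (y - (z.1 + X) - z.2 • vel C) := by
  rw [kc_wt n hρ hκ, ← wt_neg]
  congr 2
  abel

theorem Adc_def (n : ℕ) (ρ κ ρ' : ℝ) (g : E3 → ℂ) (S : ℤ × ℤ → Set E3) (m' : ℤ × ℤ) (X : E3)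
    (t : ℝ) : Adc n ρ κ ρ' g S m' X t = ENNReal.ofReal (ρ ^ 2 * κ) *
      ∑ m ∈ nearL ρ ρ' m', ∫⁻ y in S m,
        ENNReal.ofReal (wt (frc ρ κ (cen ρ m)) n (y - X - t • vel (cen ρ m))) *
          ‖umc ρ g m y‖ₑ ^ 2 := rfl

/-- number of the near parent caps. -/
theorem card_nearL_le {ρ ρ' : ℝ} (hρ : 0 < ρ) (hρ' : ρ ≤ ρ') (m' : ℤ × ℤ) :
    ((nearL ρ ρ' m').card : ℝ) ≤ 49 * (ρ' / ρ) ^ 2 := by
  have h := card_cen hρ (r := 3 * (ρ' / ρ)) (by have := hρ.le.trans hρ'; positivity)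
    (nearL ρ ρ' m') (cen ρ' m')
  have e : {m | m ∈ nearL ρ ρ' m' ∧ ‖cen ρ m - cen ρ' m'‖ ≤ 3 * (ρ' / ρ) * ρ} =
      ((nearL ρ ρ' m' : Finset (ℤ × ℤ)) : Set (ℤ × ℤ)) := by
    ext m
    simp only [Set.mem_ofPred_eq, Finset.mem_coe]
    refine ⟨fun h => h.1, fun h => ⟨h, ?_⟩⟩
    have h1 := (mem_nearL.1 h).2
    unfold Near at h1
    have e1 : 3 * (ρ' / ρ) * ρ = 3 * ρ' := by field_simp
    rw [e1]
    exact h1.le
  rw [e, Set.ncard_coe_finset] at h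
  refine h.trans ?_
  have h1 : 1 ≤ ρ' / ρ := (one_le_div hρ).2 hρ'
  nlinarith

theorem lint_kc {n : ℕ} (hn : 4 ≤ n) {ρ κ : ℝ} (hρ : 0 < ρ) (hκ : 0 < κ) (C : E2) (X : E3) :
    ∫⁻ y, ENNReal.ofReal (kc n ρ κ C (X - y)) ≤ Cad538.W0 := by
  have hdet : LinearMap.det (frc ρ κ C : E3 →ₗ[ℝ] E3) ≠ 0 := by
    rw [Cad538.det_frc]; positivity
  have h2 := Cad538.lint_wt (frc ρ κ C) hdet X
  rw [Cad538.det_frc] at h2
  calc ∫⁻ y, ENNReal.ofReal (kc n ρ κ C (X - y))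
      ≤ ∫⁻ y, ENNReal.ofReal (ρ ^ 2 * κ) * ENNReal.ofReal (wt (frc ρ κ C) 4 (X - y)) := by
        refine lintegral_mono fun y => ?_
        rw [← ENNReal.ofReal_mul (by positivity)]
        refine ENNReal.ofReal_le_ofReal ?_
        rw [kc_wt n hρ hκ]
        exact mul_le_mul_of_nonneg_left (Cad538.wt_anti _ hn _) (by positivity)
    _ = ENNReal.ofReal (ρ ^ 2 * κ) * (ENNReal.ofReal |(ρ ^ 2 * κ)⁻¹| * Cad538.W0) := by
        rw [lintegral_const_mul' _ _ ENNReal.ofReal_ne_top, h2]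
    _ = Cad538.W0 := by
        rw [← mul_assoc, ← ENNReal.ofReal_mul (by positivity),
          abs_of_pos (by positivity : (0:ℝ) < (ρ ^ 2 * κ)⁻¹), mul_inv_cancel₀ (by positivity),
          ENNReal.ofReal_one, one_mul]

theorem sum_sq_ennreal {ι : Type*} (s : Finset ι) (f : ι → ℝ≥0∞) :
    (∑ i ∈ s, f i) ^ 2 ≤ (s.card : ℝ≥0∞) * ∑ i ∈ s, f i ^ 2 := by
  have h2 := ENNReal.rpow_sum_le_const_mul_sum_rpow s f (p := 2) (by norm_num)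
  have e : ∀ x : ℝ≥0∞, x ^ (2 : ℝ) = x ^ 2 := fun x => by
    rw [← ENNReal.rpow_natCast]; norm_num
  simp only [e] at h2
  refine h2.trans (le_of_eq ?_)
  congr 1
  norm_num

theorem measurable_kc (n : ℕ) {ρ κ : ℝ} (hρ : 0 < ρ) (hκ : 0 < κ) (C : E2) (X : E3) :
    Measurable (fun y => ENNReal.ofReal (kc n ρ κ C (X - y))) := by
  have e : (fun y => kc n ρ κ C (X - y)) = fun y => ρ ^ 2 * κ * wt (frc ρ κ C) n (X - y) := by
    funext y; exact kc_wt n hρ hκ C _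
  have h : Measurable (fun y => kc n ρ κ C (X - y)) := by
    rw [e]
    exact (((Cad538.wt_cont (frc ρ κ C) n).measurable).comp
      (measurable_const.sub measurable_id)).const_mul _
  exact h.ennreal_ofReal

/-- Cauchy-Schwarz against the kernel. -/
theorem kc_cs {n : ℕ} {ρ κ : ℝ} (hρ : 0 < ρ) (hκ : 0 < κ) (C : E2) (X : E3) {S : Set E3}
    (hS : MeasurableSet S) {u : E3 → ℂ} (hu : Continuous u) :
    (∫⁻ y in S, ENNReal.ofReal (kc (n + 4) ρ κ C (X - y)) * ‖u y‖ₑ) ^ 2 ≤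
      Cad538.W0 * ∫⁻ y in S, ENNReal.ofReal (kc n ρ κ C (X - y)) * ‖u y‖ₑ ^ 2 := by
  have h := lint_sq_le (f := S.indicator fun y => ‖u y‖ₑ)
    (g := fun y => ENNReal.ofReal (kc (n + 4) ρ κ C (X - y)))
    (hu.measurable.enorm.indicator hS).aemeasurable (measurable_kc _ hρ hκ C X).aemeasurable
  have e1 : ∫⁻ y, (S.indicator fun y => ‖u y‖ₑ) y * ENNReal.ofReal (kc (n + 4) ρ κ C (X - y)) =
      ∫⁻ y in S, ENNReal.ofReal (kc (n + 4) ρ κ C (X - y)) * ‖u y‖ₑ := by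
    rw [← lintegral_indicator hS]
    refine lintegral_congr fun y => ?_
    by_cases hy : y ∈ S
    · rw [Set.indicator_of_mem hy, Set.indicator_of_mem hy, mul_comm]
    · rw [Set.indicator_of_notMem hy, Set.indicator_of_notMem hy, zero_mul]
  rw [e1] at h
  refine h.trans (mul_le_mul' (lint_kc (by omega) hρ hκ C X) ?_)
  rw [← lintegral_indicator hS]
  refine lintegral_mono fun y => ?_
  by_cases hy : y ∈ S
  · simp only [Set.indicator_of_mem hy]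
    rw [mul_comm]
    refine mul_le_mul' (ENNReal.ofReal_le_ofReal ?_) le_rfl
    rw [kc_wt _ hρ hκ, kc_wt _ hρ hκ]
    exact mul_le_mul_of_nonneg_left (Cad538.wt_anti _ (by omega) _) (by positivity)
  · simp only [Set.indicator_of_notMem hy]
    simp

/-- **(U)**: pointwise bound of a child packet of a selected wave by the density. -/
theorem pt_le {a : ℝ} (ha : 1 ≤ a) (n : ℕ) (T : ℝ) : ∃ K : ℝ, 0 ≤ K ∧
    ∀ (ρ ρ' κ η0 : ℝ), 0 < ρ → ρ ≤ ρ' → 0 < κ → κ ≤ (4 * a)⁻¹ → a⁻¹ ≤ η0 → η0 ≤ a →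
    ∀ (g : E3 → ℂ) (S : ℤ × ℤ → Set E3), Integrable g → (∀ m ∈ caps ρ, MeasurableSet (S m)) →
    (∀ m ∈ caps ρ, Bornology.IsBounded (S m)) →
    ∀ z : E3 × ℝ, |z.2| * ρ ^ 2 ≤ T → ∀ (m' : ℤ × ℤ) (X : E3),
    ‖umc ρ' (trc z (selc η0 κ ρ g S)) m' X‖ₑ ^ 2 ≤
      ENNReal.ofReal (K * (ρ' / ρ) ^ 2) * Adc n ρ κ ρ' g S m' (z.1 + X) z.2 := by
  obtain ⟨K, hK, h⟩ := f1_sel ha (n + 4) T
  have hW := Cad538.W0_lt
  refine ⟨K ^ 2 * 49 * Cad538.W0.toReal, by positivity, ?_⟩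
  intro ρ ρ' κ η0 hρ hρ' hκ hκ2 h1 h2 g S hg hS hSb z hz m' X
  have h3 := h ρ ρ' κ η0 hρ hρ' hκ hκ2 h1 h2 g S hg hS hSb z hz m' X
  refine (pow_le_pow_left' h3 2).trans ?_
  rw [mul_pow, ← ENNReal.ofReal_pow hK]
  have h4 : (∑ m ∈ nearL ρ ρ' m', ∫⁻ y in S m,
      ENNReal.ofReal (kc (n + 4) ρ κ (cen ρ m) (X + z.1 + z.2 • vel (cen ρ m) - y)) *
        ‖umc ρ g m y‖ₑ) ^ 2 ≤ ENNReal.ofReal (49 * (ρ' / ρ) ^ 2) *
      (Cad538.W0 * Adc n ρ κ ρ' g S m' (z.1 + X) z.2) := by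
    refine (sum_sq_ennreal _ _).trans ?_
    refine mul_le_mul' ?_ ?_
    · rw [← ENNReal.ofReal_natCast]
      exact ENNReal.ofReal_le_ofReal (card_nearL_le hρ hρ' m')
    · rw [Adc_def, ← mul_assoc, mul_comm Cad538.W0, mul_assoc, Finset.mul_sum, Finset.mul_sum]
      refine Finset.sum_le_sum fun m hm => ?_
      refine (kc_cs hρ hκ (cen ρ m) _ (hS m (mem_nearL.1 hm).1)
        (CWd480.umc_cont hg ρ m)).trans (le_of_eq ?_)
      rw [mul_left_comm, ← lintegral_const_mul' _ _ ENNReal.ofReal_ne_top]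
      congr 1
      refine lintegral_congr fun y => ?_
      rw [← mul_assoc, ← ENNReal.ofReal_mul (by positivity), kc_adc n hρ hκ]
  refine (mul_le_mul' le_rfl h4).trans (le_of_eq ?_)
  have hN0 : 0 ≤ 49 * (ρ' / ρ) ^ 2 := by positivity
  rw [show K ^ 2 * 49 * Cad538.W0.toReal * (ρ' / ρ) ^ 2 =
      K ^ 2 * ((49 * (ρ' / ρ) ^ 2) * Cad538.W0.toReal) by ring]
  generalize 49 * (ρ' / ρ) ^ 2 = Nn at hN0 ⊢
  rw [ENNReal.ofReal_mul (by positivity), ENNReal.ofReal_mul hN0, ENNReal.ofReal_toReal hW.ne]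
  ring

/-! ### plate averages -/

theorem frc_mono {ρ κ κ2 : ℝ} (h0 : 0 ≤ κ2) (h : κ2 ≤ κ) (C : E2) (x : E3) :
    ‖frc ρ κ2 C x‖ ≤ ‖frc ρ κ C x‖ := by
  refine (sq_le_sq₀ (norm_nonneg _) (norm_nonneg _)).1 ?_
  rw [Cad538.norm_frc_sq, Cad538.norm_frc_sq, mul_pow κ2, mul_pow κ]
  have h1 : κ2 ^ 2 ≤ κ ^ 2 := pow_le_pow_left₀ h0 h 2
  have h2 := mul_le_mul_of_nonneg_right h1 (sq_nonneg (nrm C x 0))
  linarith

/-- the frames of near caps are comparable. -/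
theorem frc_near {ρ ρ' κ : ℝ} (hρ : 0 < ρ) (hκ : 0 ≤ κ) (hκρ : κ * ρ' ≤ ρ) {m m' : ℤ × ℤ}
    (hm : Near ρ ρ' m' m) (x : E3) :
    ‖frc ρ κ (cen ρ' m') x‖ ≤ 5 * ‖frc ρ κ (cen ρ m) x‖ ∧
    ‖frc ρ κ (cen ρ m) x‖ ≤ 5 * ‖frc ρ κ (cen ρ' m') x‖ := by
  unfold Near at hm
  have h1 : κ * ‖cen ρ m - cen ρ' m'‖ ≤ 3 * ρ := by
    calc κ * ‖cen ρ m - cen ρ' m'‖ ≤ κ * (3 * ρ') := by gcongr
      _ = 3 * (κ * ρ') := by ring
      _ ≤ 3 * ρ := by gcongr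
  constructor
  · have := Cad538.frc_le_frc hρ.le hκ (C := cen ρ m) (C' := cen ρ' m') (K := 3) (by norm_num)
      (by rw [norm_sub_rev]; exact h1) x
    linarith
  · have := Cad538.frc_le_frc hρ.le hκ (C := cen ρ' m') (C' := cen ρ m) (K := 3) (by norm_num)
      h1 x
    linarith

/-- **UPPER bridge of the cone**: plate average of a child packet of a selected wave (plate of the
child direction, normal thickness `1/κ2`, `κ2 ≤ κ`, `κ2 ρ' ≤ ρ`). -/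
theorem upperC {a : ℝ} (ha : 1 ≤ a) (n : ℕ) (T : ℝ) : ∃ K : ℝ, 0 ≤ K ∧
    ∀ (ρ ρ' κ κ2 η0 : ℝ), 0 < ρ → ρ ≤ ρ' → 0 < κ → κ ≤ (4 * a)⁻¹ → a⁻¹ ≤ η0 → η0 ≤ a →
    0 < κ2 → κ2 ≤ κ → κ2 * ρ' ≤ ρ →
    ∀ (g : E3 → ℂ) (S : ℤ × ℤ → Set E3), Integrable g → (∀ m ∈ caps ρ, MeasurableSet (S m)) →
    (∀ m ∈ caps ρ, Bornology.IsBounded (S m)) →
    ∀ z : E3 × ℝ, |z.2| * ρ ^ 2 ≤ T → ∀ (m' : ℤ × ℤ) (x : E3),
    ENNReal.ofReal (ρ ^ 2 * κ2) * ∫⁻ v, ENNReal.ofReal (wt (frc ρ κ2 (cen ρ' m')) n (v - x)) *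
      ‖umc ρ' (trc z (selc η0 κ ρ g S)) m' v‖ₑ ^ 2 ≤
      ENNReal.ofReal K * Adc n ρ κ2 ρ' g S m' (z.1 + x) z.2 := by
  obtain ⟨K, hK, h⟩ := f2_sel ha n T (L := 5) (by norm_num)
  refine ⟨K * 5 ^ n, by positivity, ?_⟩
  intro ρ ρ' κ κ2 η0 hρ hρ' hκ hκ4 h1 h2 hκ2 hκκ hκρ g S hg hS hSb z hz m' x
  have e1 : (fun v : E3 => wt (frc ρ κ2 (cen ρ' m')) n (v - x)) =
      fun v => ((1 + ‖Pl ρ κ2 hρ hκ2 (cen ρ' m') (v - x)‖) ^ n)⁻¹ := by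
    funext v
    unfold wt
    rw [frc_eq_Pl hρ hκ2]
  have hw : SV (Pl ρ κ2 hρ hκ2 (cen ρ' m')) 1 n
      (fun v : E3 => wt (frc ρ κ2 (cen ρ' m')) n (v - x)) := by
    rw [e1]; exact SV_pt _ n x
  have h3 := h ρ ρ' κ η0 hρ hρ' hκ h1 h2 hκ4 (Pl ρ κ2 hρ hκ2 (cen ρ' m')) 1 _ hw m' (by
    intro m hm y
    rw [← frc_eq_Pl hρ hκ2, ← frc_eq_Pl hρ hκ]
    exact ((frc_near hρ hκ2.le hκρ (mem_nearL.1 hm).2 y).1).trans
      (mul_le_mul_of_nonneg_left (frc_mono hκ2.le hκκ _ y) (by norm_num))) z hz g S hg hS hSb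
  rw [one_pow, mul_one] at h3
  refine (mul_le_mul' le_rfl h3).trans ?_
  rw [Adc_def, mul_left_comm, ENNReal.ofReal_mul hK, mul_assoc (ENNReal.ofReal K)]
  refine mul_le_mul' le_rfl ?_
  rw [mul_left_comm]
  refine mul_le_mul' le_rfl ?_
  rw [Finset.mul_sum]
  refine Finset.sum_le_sum fun m hm => ?_
  rw [← lintegral_const_mul' _ _ ENNReal.ofReal_ne_top]
  refine lintegral_mono fun y => ?_
  rw [← mul_assoc, ← ENNReal.ofReal_mul (by positivity)]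
  refine mul_le_mul' (ENNReal.ofReal_le_ofReal ?_) le_rfl
  have e2 : y - z.1 - z.2 • vel (cen ρ m) - x = y - (z.1 + x) - z.2 • vel (cen ρ m) := by abel
  rw [e2]
  exact Cad538.wt_frame _ _ (by norm_num) n
    (frc_near hρ hκ2.le hκρ (mem_nearL.1 hm).2 _).2

/-- lower bound of the averaged weight on a neighbourhood. -/
theorem nbhd_lower (n : ℕ) {ρ κ : ℝ} (hρ : 0 < ρ) (hκ : 0 < κ) (C : E2) {N : Set E3} {v : E3}
    (hN : ∀ x, ‖frc ρ κ C (v - x)‖ ≤ 1 → x ∈ N) :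
    ENNReal.ofReal (vb E3 * (2 ^ n)⁻¹) ≤ ENNReal.ofReal (ρ ^ 2 * κ) *
      ∫⁻ x in N, ENNReal.ofReal (wt (frc ρ κ C) n (v - x)) := by
  set B : Set E3 := {x | ‖frc ρ κ C (v - x)‖ ≤ 1} with hB
  have hBm : MeasurableSet B := by
    refine measurableSet_le ?_ measurable_const
    exact (((frc ρ κ C).continuous.comp (continuous_const.sub continuous_id)).norm).measurable
  have h1 : ∫⁻ x in B, ENNReal.ofReal (2 ^ n)⁻¹ ≤
      ∫⁻ x in N, ENNReal.ofReal (wt (frc ρ κ C) n (v - x)) := by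
    refine (setLIntegral_mono' hBm fun x hx => ?_).trans (lintegral_mono_set fun x hx => hN x hx)
    refine ENNReal.ofReal_le_ofReal ?_
    unfold wt
    refine inv_anti₀ (by positivity) (pow_le_pow_left₀ (by positivity) ?_ n)
    have : ‖frc ρ κ C (v - x)‖ ≤ 1 := hx
    linarith
  have h2 : volume B = ENNReal.ofReal (ρ ^ 2 * κ)⁻¹ * ENNReal.ofReal (vb E3) := by
    have h3 := lintegral_scale (Pl ρ κ hρ hκ C)
      ((Metric.closedBall (0 : E3) 1).indicator fun _ => (1 : ℝ≥0∞)) v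
    rw [lintegral_indicator_const Metric.isClosed_closedBall.measurableSet, one_mul, vb_eq,
      adet_Pl] at h3
    rw [← h3, ← lintegral_indicator_one hBm]
    refine lintegral_congr fun x => ?_
    by_cases hx : x ∈ B
    · rw [Set.indicator_of_mem hx, Set.indicator_of_mem]
      · rfl
      · rw [Metric.mem_closedBall, dist_zero_right, ← frc_eq_Pl hρ hκ]; exact hx
    · rw [Set.indicator_of_notMem hx, Set.indicator_of_notMem]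
      rw [Metric.mem_closedBall, dist_zero_right, ← frc_eq_Pl hρ hκ]; exact hx
  refine le_trans (le_of_eq ?_) (mul_le_mul' le_rfl h1)
  rw [setLIntegral_const, h2, ← mul_assoc, ← mul_assoc, ← ENNReal.ofReal_mul (by positivity),
    ← ENNReal.ofReal_mul (by positivity), ← ENNReal.ofReal_mul (by positivity)]
  congr 1
  have : ρ ^ 2 * κ ≠ 0 := by positivity
  field_simp

theorem selc_integrable {a : ℝ} (ha : 1 ≤ a) {ρ κ η0 : ℝ} (hρ : 0 < ρ) (hκ : 0 < κ)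
    (hκ4 : κ ≤ (4 * a)⁻¹) (h1 : a⁻¹ ≤ η0) (h2 : η0 ≤ a) {g : E3 → ℂ} {S : ℤ × ℤ → Set E3}
    (hg : Integrable g) (hS : ∀ m ∈ caps ρ, MeasurableSet (S m))
    (hSb : ∀ m ∈ caps ρ, Bornology.IsBounded (S m)) : Integrable (selc η0 κ ρ g S) := by
  obtain ⟨Q, _, hF⟩ := pkF_sliced ha 0 0
  unfold selc
  refine integrable_finsetSum _ fun m hm => ?_
  obtain ⟨h5, h6⟩ := CWd480.ind_int (CWd480.umc_cont hg ρ m).aestronglyMeasurable (umc_le ρ m)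
    (hS m hm) (hSb m hm)
  exact ((hF η0 κ h1 h2 hκ hκ4 ρ hρ (cen ρ m)).rep_piece h5 h6).int

theorem umc_trc_selc_cont {a : ℝ} (ha : 1 ≤ a) {ρ κ η0 : ℝ} (hρ : 0 < ρ) (hκ : 0 < κ)
    (hκ4 : κ ≤ (4 * a)⁻¹) (h1 : a⁻¹ ≤ η0) (h2 : η0 ≤ a) {g : E3 → ℂ} {S : ℤ × ℤ → Set E3}
    (hg : Integrable g) (hS : ∀ m ∈ caps ρ, MeasurableSet (S m))
    (hSb : ∀ m ∈ caps ρ, Bornology.IsBounded (S m)) (z : E3 × ℝ) (ρ' : ℝ) (m' : ℤ × ℤ) :
    Continuous (umc ρ' (trc z (selc η0 κ ρ g S)) m') :=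
  CWd480.umc_cont (trc_int (selc_integrable ha hρ hκ hκ4 h1 h2 hg hS hSb) z) ρ' m'

/-- **(E)**: energy of a child packet on a set. -/
theorem upper_set {a : ℝ} (ha : 1 ≤ a) (n : ℕ) (T : ℝ) : ∃ K : ℝ, 0 ≤ K ∧
    ∀ (ρ ρ' κ κ2 η0 : ℝ), 0 < ρ → ρ ≤ ρ' → 0 < κ → κ ≤ (4 * a)⁻¹ → a⁻¹ ≤ η0 → η0 ≤ a →
    0 < κ2 → κ2 ≤ κ → κ2 * ρ' ≤ ρ →
    ∀ (g : E3 → ℂ) (S : ℤ × ℤ → Set E3), Integrable g → (∀ m ∈ caps ρ, MeasurableSet (S m)) →
    (∀ m ∈ caps ρ, Bornology.IsBounded (S m)) →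
    ∀ z : E3 × ℝ, |z.2| * ρ ^ 2 ≤ T → ∀ (m' : ℤ × ℤ) (Y N : Set E3), MeasurableSet Y →
    MeasurableSet N → (∀ v ∈ Y, ∀ x, ‖frc ρ κ2 (cen ρ' m') (v - x)‖ ≤ 1 → x ∈ N) →
    ∫⁻ v in Y, ‖umc ρ' (trc z (selc η0 κ ρ g S)) m' v‖ₑ ^ 2 ≤
      ENNReal.ofReal K * ∫⁻ x in N, Adc n ρ κ2 ρ' g S m' (z.1 + x) z.2 := by
  obtain ⟨K, hK, h⟩ := upperC ha n T
  have hvb := vb_pos (V := E3)
  refine ⟨(vb E3 * (2 ^ n)⁻¹)⁻¹ * K, by positivity, ?_⟩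
  intro ρ ρ' κ κ2 η0 hρ hρ' hκ hκ4 h1 h2 hκ2 hκκ hκρ g S hg hS hSb z hz m' Y N hY hN hYN
  set u : E3 → ℂ := umc ρ' (trc z (selc η0 κ ρ g S)) m' with hu
  set c : ℝ := vb E3 * (2 ^ n)⁻¹ with hc
  have hc0 : 0 < c := by positivity
  -- swap
  have key : ENNReal.ofReal c * ∫⁻ v in Y, ‖u v‖ₑ ^ 2 ≤
      ∫⁻ x in N, ENNReal.ofReal K * Adc n ρ κ2 ρ' g S m' (z.1 + x) z.2 := by
    have hum : Measurable fun v => ‖u v‖ₑ ^ 2 :=
      (umc_trc_selc_cont ha hρ hκ hκ4 h1 h2 hg hS hSb z ρ' m').measurable.enorm.pow_const 2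
    calc ENNReal.ofReal c * ∫⁻ v in Y, ‖u v‖ₑ ^ 2
        = ∫⁻ v in Y, ENNReal.ofReal c * ‖u v‖ₑ ^ 2 := by
          rw [lintegral_const_mul' _ _ ENNReal.ofReal_ne_top]
      _ ≤ ∫⁻ v in Y, ∫⁻ x in N, ENNReal.ofReal (ρ ^ 2 * κ2) *
            (ENNReal.ofReal (wt (frc ρ κ2 (cen ρ' m')) n (v - x)) * ‖u v‖ₑ ^ 2) := by
          refine setLIntegral_mono' hY fun v hv => ?_
          have h3 := nbhd_lower n hρ hκ2 (cen ρ' m') (hYN v hv)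
          refine (mul_le_mul' h3 le_rfl).trans (le_of_eq ?_)
          rw [← lintegral_const_mul' _ _ ENNReal.ofReal_ne_top, ← lintegral_mul_const' _ _ (by
            exact ENNReal.pow_ne_top enorm_ne_top)]
          refine lintegral_congr fun x => ?_
          rw [mul_assoc]
      _ = ∫⁻ x in N, ∫⁻ v in Y, ENNReal.ofReal (ρ ^ 2 * κ2) *
            (ENNReal.ofReal (wt (frc ρ κ2 (cen ρ' m')) n (v - x)) * ‖u v‖ₑ ^ 2) := by
          refine lintegral_lintegral_swap ?_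
          refine Measurable.aemeasurable ?_
          refine Measurable.const_mul (Measurable.mul ?_ (hum.comp measurable_fst)) _
          refine ENNReal.measurable_ofReal.comp ?_
          exact ((Cad538.wt_cont (frc ρ κ2 (cen ρ' m')) n).comp
            (continuous_fst.sub continuous_snd)).measurable
      _ ≤ _ := by
          refine lintegral_mono fun x => ?_
          rw [lintegral_const_mul' _ _ ENNReal.ofReal_ne_top]
          refine le_trans (mul_le_mul' le_rfl (setLIntegral_le_lintegral _ _)) ?_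
          exact h ρ ρ' κ κ2 η0 hρ hρ' hκ hκ4 h1 h2 hκ2 hκκ hκρ g S hg hS hSb z hz m' x
  rw [lintegral_const_mul' _ _ ENNReal.ofReal_ne_top] at key
  have hcc : ENNReal.ofReal c⁻¹ * ENNReal.ofReal c = 1 := by
    rw [← ENNReal.ofReal_mul (by positivity), inv_mul_cancel₀ hc0.ne', ENNReal.ofReal_one]
  calc ∫⁻ v in Y, ‖u v‖ₑ ^ 2 = ENNReal.ofReal c⁻¹ * (ENNReal.ofReal c * ∫⁻ v in Y, ‖u v‖ₑ ^ 2) := by
        rw [← mul_assoc, hcc, one_mul]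
    _ ≤ ENNReal.ofReal c⁻¹ * (ENNReal.ofReal K *
        ∫⁻ x in N, Adc n ρ κ2 ρ' g S m' (z.1 + x) z.2) := mul_le_mul' le_rfl key
    _ = _ := by
        rw [← mul_assoc, ← ENNReal.ofReal_mul (by positivity)]

end Crest.Agent.R116.F1c124
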