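import Crest.Agent.R116.TuS_363
import Crest.Agent.R116.F1c4_124
import Crest.Agent.R116.Dch1_229
import Crest.Agent.R116.Dch2_229

/-!
# R116 (S0155), wave side, W12 TUBE: (U) along the path, part 1 (helper894)

* `kc_transfer` : the product of the kernel of the middle level (power `N + 4`) and the kernel of the
  bottom level (power `N`) is at most `13^N` times the integrable kernel of the middle level times
  the kernel of the bottom level at the new point.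
* `step_int` : one middle cap; `step_sum` : the sum over the middle caps.
-/

set_option autoImplicit false

open MeasureTheory
open scoped ENNReal

namespace Crest.Agent.R116.DcU894

open Crest.Agent.R138.Defs (E2)
open Crest.Agent.R138.Wpk685 (cen caps)
open Crest.Agent.R138.Loc878 (nearL)
open Crest.Agent.R116.CDef480
open Crest.Agent.R116.Cad538 (wt frc W0)
open Crest.Agent.R116.F1c124 (kc kc_nonneg kc_wt lint_kc measurable_kc)
open Crest.Agent.R116.TuG373 (pn)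
open Crest.Agent.R116.Dch229 (nearC mem_nearC nearC_trans card_reach sum_chain)

/-! ### the plate norm and the frame -/

theorem frc_le_pn {th kp : ℝ} (hth : 0 ≤ th) (hkp : 0 ≤ kp) (C : E2) (Z : E3) :
    ‖frc th kp C Z‖ ≤ pn th kp C Z := Cad538.norm_frc_le hth hkp C Z

theorem pn_le_frc {th kp : ℝ} (hth : 0 ≤ th) (hkp : 0 ≤ kp) (C : E2) (Z : E3) :
    pn th kp C Z ≤ 2 * ‖frc th kp C Z‖ := by
  have h1 := Cad538.lat_le_frc (kp := kp) hth C Z
  have h2 := Cad538.nrm_le_frc (th := th) hkp C Z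
  unfold TuG373.pn
  linarith

/-- geometry of one step. -/
theorem frc_step {th th1 κ : ℝ} (hth : 0 < th) (h01 : th ≤ th1) (hκ : 0 ≤ κ) (hκ1 : κ ≤ 1)
    (hst : κ * th1 ≤ th) {C C1 : E2} (hC : ‖C - C1‖ ≤ 4 * th1) {t : ℝ} (ht : |t| * th1 ^ 2 ≤ 1)
    (q p : E3) :
    ‖frc th κ C (q + p + t • (vel C - vel C1))‖ ≤ ‖frc th κ C q‖ + 10 * ‖frc th1 κ C1 p‖ + 12 := by
  have hth1 : 0 < th1 := hth.trans_le h01
  have h1 : ‖frc th κ C p‖ ≤ 10 * ‖frc th1 κ C1 p‖ := by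
    have a1 := frc_le_pn hth.le hκ C p
    have a2 := TuG373.pn_change (th := th) (kp := κ) (L1 := 4) hκ (C := C) (C' := C1)
      (by calc κ * ‖C - C1‖ ≤ κ * (4 * th1) := mul_le_mul_of_nonneg_left hC hκ
            _ ≤ 4 * th := by linarith) (by norm_num) p
    have a3 := TuG373.pn_mono (th := th) (kp := κ) h01 le_rfl C1 p
    have a4 := pn_le_frc hth1.le hκ C1 p
    linarith
  have h2 : ‖frc th κ C (t • (vel C - vel C1))‖ ≤ 12 := by
    refine (frc_le_pn hth.le hκ C _).trans ?_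
    rw [TuG373.pn_vel]
    have hn := norm_nonneg (C - C1)
    have ht0 := abs_nonneg t
    have b1 : th * (|t| * ‖C - C1‖) ≤ 4 := by
      calc th * (|t| * ‖C - C1‖) ≤ th1 * (|t| * (4 * th1)) := by gcongr
        _ = 4 * (|t| * th1 ^ 2) := by ring
        _ ≤ 4 := by linarith
    have b2 : κ * (|t| * ‖C - C1‖ ^ 2 / 2) ≤ 8 := by
      calc κ * (|t| * ‖C - C1‖ ^ 2 / 2) ≤ 1 * (|t| * (4 * th1) ^ 2 / 2) := by gcongr
        _ = 8 * (|t| * th1 ^ 2) := by ring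
        _ ≤ 8 := by linarith
    linarith
  have h3 : ‖frc th κ C (q + p + t • (vel C - vel C1))‖ ≤
      ‖frc th κ C q‖ + ‖frc th κ C p‖ + ‖frc th κ C (t • (vel C - vel C1))‖ := by
    rw [map_add, map_add]
    exact (norm_add_le _ _).trans (add_le_add (norm_add_le _ _) le_rfl)
  linarith

/-- **power transfer.** -/
theorem kc_transfer (N : ℕ) {th th1 κ : ℝ} (hth : 0 < th) (h01 : th ≤ th1) (hκ : 0 < κ)
    (hκ1 : κ ≤ 1) (hst : κ * th1 ≤ th) {C C1 : E2} (hC : ‖C - C1‖ ≤ 4 * th1) {t : ℝ}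
    (ht : |t| * th1 ^ 2 ≤ 1) (q p : E3) :
    kc (N + 4) th1 κ C1 p * kc N th κ C q ≤
      13 ^ N * (kc 4 th1 κ C1 p * kc N th κ C (q + p + t • (vel C - vel C1))) := by
  have hth1 : 0 < th1 := hth.trans_le h01
  rw [kc_wt _ hth1 hκ, kc_wt _ hth1 hκ, kc_wt _ hth hκ, kc_wt _ hth hκ]
  have h1 := frc_step hth h01 hκ.le hκ1 hst hC ht q p
  unfold Cad538.wt
  set a := ‖frc th κ C q‖ with ha
  set b := ‖frc th1 κ C1 p‖ with hb
  set c := ‖frc th κ C (q + p + t • (vel C - vel C1))‖ with hc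
  have a0 : 0 ≤ a := norm_nonneg _
  have b0 : 0 ≤ b := norm_nonneg _
  have c0 : 0 ≤ c := norm_nonneg _
  have h2 : 1 + c ≤ 13 * ((1 + b) * (1 + a)) := by nlinarith [mul_nonneg a0 b0]
  have h3 : (1 + c) ^ N ≤ 13 ^ N * ((1 + b) ^ N * (1 + a) ^ N) := by
    rw [← mul_pow, ← mul_pow]
    exact pow_le_pow_left₀ (by positivity) h2 N
  have h4 : ((1 + b) ^ (N + 4))⁻¹ * ((1 + a) ^ N)⁻¹ ≤
      13 ^ N * (((1 + b) ^ 4)⁻¹ * ((1 + c) ^ N)⁻¹) := by
    rw [pow_add, mul_inv, ← mul_inv, ← mul_inv, ← mul_inv, ← div_eq_mul_inv, inv_eq_one_div,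
      div_le_div_iff₀ (by positivity) (by positivity), one_mul]
    calc (1 + b) ^ 4 * (1 + c) ^ N ≤ (1 + b) ^ 4 * (13 ^ N * ((1 + b) ^ N * (1 + a) ^ N)) :=
          mul_le_mul_of_nonneg_left h3 (by positivity)
      _ = _ := by ring
  calc th1 ^ 2 * κ * ((1 + b) ^ (N + 4))⁻¹ * (th ^ 2 * κ * ((1 + a) ^ N)⁻¹) =
        (th1 ^ 2 * κ * (th ^ 2 * κ)) * (((1 + b) ^ (N + 4))⁻¹ * ((1 + a) ^ N)⁻¹) := by ring
    _ ≤ (th1 ^ 2 * κ * (th ^ 2 * κ)) * (13 ^ N * (((1 + b) ^ 4)⁻¹ * ((1 + c) ^ N)⁻¹)) :=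
        mul_le_mul_of_nonneg_left h4 (by positivity)
    _ = _ := by ring

/-! ### the kernel integral of the bottom level -/

/-- kernel integral of the bottom level (angle `th`) seen from the point `y` of the frame displaced
by `w`. -/
noncomputable def Jk (N : ℕ) (th κ : ℝ) (u : ℤ × ℤ → E3 → ℂ) (S : ℤ × ℤ → Set E3) (w : E3 × ℝ)
    (y : E3) (m : ℤ × ℤ) : ℝ≥0∞ :=
  ∫⁻ x in S m, ENNReal.ofReal (kc N th κ (cen th m) (TuG373.D w y (cen th m) - x)) * ‖u m x‖ₑ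

variable {N : ℕ} {th th1 κ : ℝ} {u : ℤ × ℤ → E3 → ℂ} {S : ℤ × ℤ → Set E3}

/-- one middle cap `m1`, one bottom cap `m2`, pointwise in the middle position `x`. -/
theorem step_pt (hth : 0 < th) (h01 : th ≤ th1) (hκ : 0 < κ) (hκ1 : κ ≤ 1) (hst : κ * th1 ≤ th)
    {z w : E3 × ℝ} (hz : |z.2| * th1 ^ 2 ≤ 1) {m1 m2 : ℤ × ℤ}
    (hm : ‖cen th m2 - cen th1 m1‖ ≤ 4 * th1) (x y : E3) :
    ENNReal.ofReal (kc (N + 4) th1 κ (cen th1 m1) (y + z.1 + z.2 • vel (cen th1 m1) - x)) *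
        Jk N th κ u S w x m2 ≤
      ENNReal.ofReal (13 ^ N) * (ENNReal.ofReal (kc 4 th1 κ (cen th1 m1)
        (y + z.1 + z.2 • vel (cen th1 m1) - x)) * Jk N th κ u S (z + w) y m2) := by
  unfold Jk
  rw [← lintegral_const_mul' _ _ ENNReal.ofReal_ne_top,
    ← lintegral_const_mul' _ _ ENNReal.ofReal_ne_top,
    ← lintegral_const_mul' _ _ ENNReal.ofReal_ne_top]
  refine lintegral_mono fun x' => ?_
  have h := kc_transfer N hth h01 hκ hκ1 hst hm hz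
    (TuG373.D w x (cen th m2) - x') (y + z.1 + z.2 • vel (cen th1 m1) - x)
  have e : TuG373.D w x (cen th m2) - x' + (y + z.1 + z.2 • vel (cen th1 m1) - x) +
      z.2 • (vel (cen th m2) - vel (cen th1 m1)) = TuG373.D (z + w) y (cen th m2) - x' := by
    unfold TuG373.D
    rw [Prod.fst_add, Prod.snd_add]
    module
  rw [e] at h
  have h' := ENNReal.ofReal_le_ofReal h
  rw [ENNReal.ofReal_mul (kc_nonneg _ hκ.le _ _), ENNReal.ofReal_mul (by positivity),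
    ENNReal.ofReal_mul (kc_nonneg _ hκ.le _ _)] at h'
  dsimp only
  rw [← mul_assoc]
  calc _ ≤ (ENNReal.ofReal (13 ^ N) * (ENNReal.ofReal (kc 4 th1 κ (cen th1 m1)
        (y + z.1 + z.2 • vel (cen th1 m1) - x)) * ENNReal.ofReal (kc N th κ (cen th m2)
          (TuG373.D (z + w) y (cen th m2) - x')))) * ‖u m2 x'‖ₑ := mul_le_mul' h' le_rfl
    _ = _ := by ring

/-- one middle cap. -/
theorem step_int (hth : 0 < th) (h01 : th ≤ th1) (hκ : 0 < κ) (hκ1 : κ ≤ 1) (hst : κ * th1 ≤ th)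
    {z w : E3 × ℝ} (hz : |z.2| * th1 ^ 2 ≤ 1) {m1 : ℤ × ℤ} {nc : Finset (ℤ × ℤ)}
    (hnc : ∀ m2 ∈ nc, ‖cen th m2 - cen th1 m1‖ ≤ 4 * th1) {S1 : Set E3} (hS1 : MeasurableSet S1)
    {a : E3 → ℝ≥0∞} {B τ : ℝ≥0∞} {y : E3}
    (ha : ∀ x ∈ S1, a x ≤ B * ∑ m2 ∈ nc, Jk N th κ u S w x m2 + τ) :
    ∫⁻ x in S1, ENNReal.ofReal (kc (N + 4) th1 κ (cen th1 m1)
        (y + z.1 + z.2 • vel (cen th1 m1) - x)) * a x ≤
      ENNReal.ofReal (13 ^ N) * W0 * B * ∑ m2 ∈ nc, Jk N th κ u S (z + w) y m2 + W0 * τ := by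
  have hth1 : 0 < th1 := hth.trans_le h01
  set k4 : E3 → ℝ≥0∞ := fun x => ENNReal.ofReal (kc 4 th1 κ (cen th1 m1)
    (y + z.1 + z.2 • vel (cen th1 m1) - x)) with hk4
  set kN : E3 → ℝ≥0∞ := fun x => ENNReal.ofReal (kc (N + 4) th1 κ (cen th1 m1)
    (y + z.1 + z.2 • vel (cen th1 m1) - x)) with hkN
  have m4 : Measurable k4 := measurable_kc 4 hth1 hκ _ _
  have mN : Measurable kN := measurable_kc (N + 4) hth1 hκ _ _
  have i4 : ∫⁻ x, k4 x ≤ W0 := lint_kc le_rfl hth1 hκ _ _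
  have iN : ∫⁻ x, kN x ≤ W0 := lint_kc (by omega) hth1 hκ _ _
  set J : ℝ≥0∞ := ∑ m2 ∈ nc, Jk N th κ u S (z + w) y m2 with hJ
  calc ∫⁻ x in S1, kN x * a x
      ≤ ∫⁻ x in S1, (ENNReal.ofReal (13 ^ N) * B * J * k4 x + τ * kN x) := by
        refine setLIntegral_mono' hS1 fun x hx => ?_
        calc kN x * a x ≤ kN x * (B * ∑ m2 ∈ nc, Jk N th κ u S w x m2 + τ) :=
              mul_le_mul' le_rfl (ha x hx)
          _ = B * ∑ m2 ∈ nc, kN x * Jk N th κ u S w x m2 + τ * kN x := by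
              rw [mul_add, mul_left_comm, Finset.mul_sum, mul_comm τ]
          _ ≤ B * ∑ m2 ∈ nc, ENNReal.ofReal (13 ^ N) * (k4 x * Jk N th κ u S (z + w) y m2) +
                τ * kN x := by
              refine add_le_add (mul_le_mul' le_rfl (Finset.sum_le_sum fun m2 hm2 => ?_)) le_rfl
              exact step_pt hth h01 hκ hκ1 hst hz (hnc m2 hm2) x y
          _ = _ := by
              rw [← Finset.mul_sum, ← Finset.mul_sum, ← hJ]
              ring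
    _ ≤ ∫⁻ x, (ENNReal.ofReal (13 ^ N) * B * J * k4 x + τ * kN x) := setLIntegral_le_lintegral _ _
    _ = ENNReal.ofReal (13 ^ N) * B * J * (∫⁻ x, k4 x) + τ * (∫⁻ x, kN x) := by
        rw [lintegral_add_left (m4.const_mul _), lintegral_const_mul _ m4,
          lintegral_const_mul _ mN]
    _ ≤ ENNReal.ofReal (13 ^ N) * B * J * W0 + τ * W0 := by gcongr
    _ = _ := by ring

/-- **one step**: all middle caps. -/
theorem step_sum {th2 : ℝ} (hth : 0 < th) (h01 : th ≤ th1) (hκ : 0 < κ) (hκ1 : κ ≤ 1)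
    (hst : κ * th1 ≤ th) (h12 : 4 * th1 ≤ th2)
    {z w : E3 × ℝ} (hz : |z.2| * th1 ^ 2 ≤ 1) {m : ℤ × ℤ} {S1 : ℤ × ℤ → Set E3}
    (hS1 : ∀ m1 ∈ nearL th1 th2 m, MeasurableSet (S1 m1)) {a : ℤ × ℤ → E3 → ℝ≥0∞} {B τ : ℝ≥0∞}
    {y : E3} (ha : ∀ m1 ∈ nearL th1 th2 m, ∀ x ∈ S1 m1, a m1 x ≤
      B * ∑ m2 ∈ nearC th th1 m1, Jk N th κ u S w x m2 + τ) :
    ∑ m1 ∈ nearL th1 th2 m, ∫⁻ x in S1 m1, ENNReal.ofReal (kc (N + 4) th1 κ (cen th1 m1)
        (y + z.1 + z.2 • vel (cen th1 m1) - x)) * a m1 x ≤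
      ENNReal.ofReal (13 ^ N) * W0 * B * 64 *
          ∑ m2 ∈ nearC th th2 m, Jk N th κ u S (z + w) y m2 +
        ((nearL th1 th2 m).card : ℝ≥0∞) * (W0 * τ) := by
  classical
  have hth1 : 0 < th1 := hth.trans_le h01
  calc _ ≤ ∑ m1 ∈ nearL th1 th2 m, (ENNReal.ofReal (13 ^ N) * W0 * B *
        ∑ m2 ∈ nearC th th1 m1, Jk N th κ u S (z + w) y m2 + W0 * τ) :=
        Finset.sum_le_sum fun m1 hm1 => step_int hth h01 hκ hκ1 hst hz
          (fun m2 hm2 => (mem_nearC.1 hm2).2.le) (hS1 m1 hm1) (ha m1 hm1)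
    _ = ENNReal.ofReal (13 ^ N) * W0 * B * ∑ m1 ∈ nearL th1 th2 m,
          ∑ m2 ∈ nearC th th1 m1, Jk N th κ u S (z + w) y m2 +
            ((nearL th1 th2 m).card : ℝ≥0∞) * (W0 * τ) := by
        rw [Finset.sum_add_distrib, ← Finset.mul_sum, Finset.sum_const, nsmul_eq_mul]
    _ ≤ ENNReal.ofReal (13 ^ N) * W0 * B * ((64 : ℕ) *
          ∑ m2 ∈ nearC th th2 m, Jk N th κ u S (z + w) y m2) +
            ((nearL th1 th2 m).card : ℝ≥0∞) * (W0 * τ) := by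
        gcongr
        exact sum_chain (fun m1 hm1 => nearC_trans h12 hm1)
          (fun m2 _ => card_reach hth1 _ m2) _
    _ = _ := by
        rw [Nat.cast_ofNat]
        ring

end Crest.Agent.R116.DcU894
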