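import Crest.Agent.R116.DomC_210
import Crest.Agent.R116.AsmT_597

/-!
# R116 (S0155), wave side, CHAIN-C (helper210): levels, tower, interface Props

Direct (non-nested) class chain over `WDefC_188`: every function of every level is a selection of
packets of the ROOT `g`; the label of a phase point contains the first dominating label of the
parent level; auxiliary classes may depend on ALL previous levels (`AuxF`, evaluated on the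
truncated history `trn L j`).

* `Lev`, `Lev.S`, `Lev.pf`, `LevOk`, `Next`, `Cls`, `Tow`.
* interface Props: `EXL` (existence of levels), `ROOT`, `GEN`, `FIN` (Step 4), `SLAB`, `TUBE`.
* target: all of them `⟹ WChE`.

v2 (02:30): `Kν` of ROOT, GEN, FIN after `LB M q c` (as in `A2k`); SLAB only for `δ ≤ 1/4`; `TOWX`;
`Kp.kb : 32 a κ ≤ 1` (pieces have support parameter `2 a`).
-/

set_option autoImplicit false

open MeasureTheory FourierTransform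
open scoped ENNReal

namespace Crest.Agent.R116.GlC210

open Crest.Agent.R138.Defs (E2 ee)
open Crest.Agent.R138.Wpk685 (cen caps)
open Crest.Agent.R116.CDef480 Crest.Agent.R116.WC188
open Crest.Agent.R116.LZg725 (Cf)
open Crest.Agent.R116.AsmP597 (up)

/-- one level of the class chain. -/
structure Lev where
  /-- radius. -/
  r : ℝ
  /-- number of labels. -/
  n : ℕ
  /-- number of classes used in the decomposition. -/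
  nb : ℕ
  /-- sides of the plates of the label `k`. -/
  s : ℕ → ℝ × ℝ
  /-- class of the label `k`. -/
  cl : ℕ → ℕ
  /-- parent label. -/
  par : ℕ → ℕ
  /-- net of frames. -/
  Z : Finset (E3 × ℝ)
  /-- nearest frame. -/
  ζ : E3 × ℝ → E3 × ℝ
  /-- the functions. -/
  G : E3 × ℝ → ℕ → E3 → ℂ
  /-- the densities. -/
  D : E3 × ℝ → ℕ → ℝ
  /-- the remainder. -/
  rest : E3 × ℝ → E3 → ℂ
  /-- indices of the plates. -/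
  I : E3 × ℝ → ℕ → Finset ℕ
  /-- the plates. -/
  P : E3 × ℝ → ℕ → ℕ → Plate

/-- cap size of the level. -/
noncomputable def Lev.th (L : Lev) : ℝ := L.r ^ (-(1/2) : ℝ)

/-- selection of the label `k` in the frame `z`. -/
def Lev.sl (L : Lev) (z : E3 × ℝ) (k : ℕ) : ℤ × ℤ → Set E3 := uS (L.I z k) (L.P z k)

/-- the normalising quantity of the label `k` (coefficient form). -/
noncomputable def Lev.S (L : Lev) (g : E3 → ℂ) (k : ℕ) : ℝ≥0∞ :=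
  ∑ z ∈ L.Z, ENNReal.ofReal (L.r * Real.sqrt (L.D z k)) *
    ∑ i ∈ L.I z k, enc (L.r ^ (-(1/2) : ℝ)) (trc z g) (L.P z k i).S

/-- the parent function with label `κ` in the frame `z` of a finer level. -/
noncomputable def Lev.pf (L : Lev) (z : E3 × ℝ) (κ : ℕ) : E3 → ℂ :=
  trc (z - L.ζ z) (L.G (L.ζ z) κ)

/-- bound of the numbers of labels and classes of a level. -/
def Lev.Le (L : Lev) (ν : ℝ) : Prop := (L.n : ℝ) ≤ ν ∧ (L.nb : ℝ) ≤ ν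

/-- the level is a decomposition of the root at every frame of a net. -/
structure LevOk (M κ q A A' a b Cn : ℝ) (K : ℕ) (η0 : ℝ) (C0 : E2) (σ : ℝ) (g : E3 → ℂ) (R : ℝ)
    (L : Lev) : Prop where
  lo : R ^ (1/2 : ℝ) ≤ L.r
  hi : L.r ≤ R
  n1 : 1 ≤ L.n
  nb1 : 1 ≤ L.nb
  net : Net L.r R L.Z
  near : ∀ p ∈ cylc R, L.ζ p ∈ L.Z ∧ p - L.ζ p ∈ cylc L.r
  sd : ∀ k < L.n, Sd L.r (L.s k).1 (L.s k).2
  dec : ∀ z ∈ L.Z, ∃ cls, DecOut M κ q A A' a b Cn L.nb K η0 C0 σ g R L.r z cls (Finset.range L.n)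
    L.s L.cl (L.G z) (L.D z) (L.rest z) (L.I z) (L.P z)

/-- `L'` is a next level after `L`: the parent label is the first dominating label. -/
structure Next (L L' : Lev) : Prop where
  par_lt : ∀ k < L'.n, L'.par k < L.n
  arg : ∀ z ∈ L'.Z, ∀ k < L'.n, ∀ i ∈ L'.I z k, ∀ m, ∀ y ∈ (L'.P z k i).S m,
    argc (L'.r ^ (-(1/2) : ℝ)) (L.pf z) L.n m y = L'.par k

/-- an auxiliary class function at a given level: frame, own function of the plate, cap, position. -/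
abbrev Aux := E3 × ℝ → Cf E2 → ℤ × ℤ → E3 → ℕ

/-- the label `k` of `L'` has auxiliary class `ac k`. -/
def Cls (L' : Lev) (aux : Aux) (ac : ℕ → ℕ) : Prop :=
  ∀ z ∈ L'.Z, ∀ k < L'.n, ∀ i ∈ L'.I z k, ∀ m, ∀ y ∈ (L'.P z k i).S m,
    aux z (L'.P z k i).f m y = ac k

/-- tower of levels `t ≤ n`, radii `R dl^t`. -/
structure Tow (M κ q A A' a b Cn : ℝ) (K : ℕ) (η0 : ℝ) (C0 : E2) (σ : ℝ) (g : E3 → ℂ) (R : ℝ)
    (dl ν : ℝ) (n : ℕ) (L : ℕ → Lev) : Prop where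
  rad : ∀ t ≤ n, (L t).r = R * dl ^ t
  ok : ∀ t ≤ n, LevOk M κ q A A' a b Cn K η0 C0 σ g R (L t)
  le : ∀ t ≤ n, (L t).Le ν
  next : ∀ t < n, Next (L t) (L (t + 1))

/-- truncated history: only the levels `< j` are visible. -/
def trn (L : ℕ → Lev) (j : ℕ) : ℕ → Lev := fun i => if i < j then L i else L 0

/-- a class functional: auxiliary classes of level `j`, computed from `κ, η0, g, R`, the ratio `dl` and
the previous levels. -/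
abbrev AuxF := ℝ → ℝ → (E3 → ℂ) → ℝ → ℝ → (ℕ → Lev) → ℕ → Aux

/-- the labels of the levels `1, .., n` have the auxiliary classes `ac` of the functional `𝒜`. -/
def Acl (𝒜 : AuxF) (κ η0 : ℝ) (g : E3 → ℂ) (R dl : ℝ) (n : ℕ) (L : ℕ → Lev) (ac : ℕ → ℕ → ℕ) :
    Prop :=
  ∀ t < n, Cls (L (t + 1)) (𝒜 κ η0 g R dl (trn L (t + 1)) (t + 1)) (ac (t + 1))

/-- ancestor of level `i` of the label `k` of level `j`. -/
def anc (L : ℕ → Lev) (j i k : ℕ) : ℕ := up (fun t => (L (t + 1)).par) j i k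

/-- general restrictions on the parameters of a state. -/
structure Rg (a b A ε : ℝ) : Prop where
  a1 : 1 ≤ a
  b0 : 0 < b
  b2 : b < 2
  A1 : 1 ≤ A
  e0 : 0 < ε

/-- restrictions on the slice width. -/
structure Kp (a R κ : ℝ) : Prop where
  k0 : 0 < κ
  k4 : κ ≤ 1/4
  ka : 8 * a * κ ≤ 1
  kb : 32 * a * κ ≤ 1
  kR : R ^ (-(1/16) : ℝ) ≤ κ

/-! ### existence of levels -/

/-- **EXL**: the first level (no parent, no classes), and the next level for every measurable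
auxiliary class function `< na`; the same constants `A'`, `Cn` for all levels. -/
def EXL (M q : ℝ) : Prop :=
  ∀ a b A ε M0 : ℝ, Rg a b A ε → ∀ K : ℕ, ∃ A' Cn : ℝ, 1 ≤ A' ∧ 1 ≤ Cn ∧
  ∀ κ η0 C0 σ g R D, Ss M κ q a b M0 η0 C0 σ g R D → Kp a R κ → Cn ≤ R →
    (∀ r', R ^ (1/2 : ℝ) ≤ r' → r' ≤ R →
      ∃ L' : Lev, L'.r = r' ∧ LevOk M κ q A A' a b Cn K η0 C0 σ g R L' ∧ L'.nb = 1 ∧
        (L'.n : ℝ) ≤ Cn * R ^ ε) ∧
    (∀ L : Lev, LevOk M κ q A A' a b Cn K η0 C0 σ g R L →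
      ∀ r', R ^ (1/2 : ℝ) ≤ r' → r' ≤ L.r → ∀ (na : ℕ) (aux : Aux), 1 ≤ na →
        (∀ z f m y, aux z f m y < na) → (∀ z f m, Measurable (aux z f m)) →
        ∃ (L' : Lev) (ac : ℕ → ℕ), L'.r = r' ∧ LevOk M κ q A A' a b Cn K η0 C0 σ g R L' ∧
          Next L L' ∧ Cls L' aux ac ∧ (∀ k, ac k < na) ∧ L'.nb = L.n * na ∧
          (L'.n : ℝ) ≤ Cn * R ^ ε * L'.nb)

/-- the class functional `𝒜` has less than `na R` values and is measurable. -/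
def AuxOk (𝒜 : AuxF) (na : ℝ → ℕ) (M q a b M0 : ℝ) : Prop :=
  (∀ R, 1 ≤ na R) ∧ (∀ η : ℝ, 0 < η → ∃ C : ℝ, ∀ R, 1 ≤ R → (na R : ℝ) ≤ C * R ^ η) ∧
  (∀ κ η0 g R dl L j z f m y, 𝒜 κ η0 g R dl L j z f m y < na R) ∧
  ∀ κ η0 C0 σ g R D, Ss M κ q a b M0 η0 C0 σ g R D → Kp a R κ →
    ∀ (A A' Cn dl ν : ℝ) (K t : ℕ) (L : ℕ → Lev), 0 < dl → dl ≤ 1 →
      Tow M κ q A A' a b Cn K η0 C0 σ g R dl ν t L → R ^ (1/2 : ℝ) ≤ R * dl ^ (t + 1) →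
      ∀ z f m, Measurable (𝒜 κ η0 g R dl L (t + 1) z f m)

/-- **TOWX** (390): towers with auxiliary classes exist; `A'`, `Cn` may depend on everything. -/
def TOWX (M q : ℝ) : Prop :=
  ∀ (𝒜 : AuxF) (na : ℝ → ℕ) (a b A ε M0 : ℝ), Rg a b A ε → AuxOk 𝒜 na M q a b M0 → ∀ n K : ℕ,
  ∃ A' Cn C : ℝ, 1 ≤ A' ∧ 1 ≤ Cn ∧ 1 ≤ C ∧
  ∀ κ η0 C0 σ g R D, Ss M κ q a b M0 η0 C0 σ g R D → Kp a R κ → C ≤ R →
    ∀ dl : ℝ, 0 < dl → dl ≤ 1 → R ^ (1/2 : ℝ) ≤ R * dl ^ n →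
    ∃ (L : ℕ → Lev) (ac : ℕ → ℕ → ℕ) (ν : ℝ), 1 ≤ ν ∧ ν ≤ C * R ^ ε ∧
      Tow M κ q A A' a b Cn K η0 C0 σ g R dl ν n L ∧ Acl 𝒜 κ η0 g R dl n L ac

/-! ### Step 4 -/

/-- **ROOT**: bounds of a level by the root. -/
def ROOT (M q : ℝ) : Prop := ∀ c : ℝ, 0 ≤ c → LB M q c → ∃ Kν : ℕ,
  ∀ a b A ε M0 : ℝ, Rg a b A ε → ∀ K : ℕ, ∀ A' Cn : ℝ, 1 ≤ A' → 1 ≤ Cn → ∃ C : ℝ, 1 ≤ C ∧
  ∀ κ η0 C0 σ g R D, Ss M κ q a b M0 η0 C0 σ g R D → Kp a R κ → C ≤ R →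
  ∀ L : Lev, LevOk M κ q A A' a b Cn K η0 C0 σ g R L → ∀ ν : ℝ, 1 ≤ ν → L.Le ν → ∀ k < L.n,
    L.S g k ≤ ENNReal.ofReal (C * ν ^ Kν * R ^ (Kν * ε) *
      (max 1 (R / ((L.s k).1 * L.r) ^ 2)) ^ (c / 2) * SS g R D)

/-- **GEN**: one step of the chain (Step 4, thick gain). -/
def GEN (M q : ℝ) : Prop := ∀ c : ℝ, 0 ≤ c → LB M q c → ∃ Kν : ℕ,
  ∀ a b A ε M0 T : ℝ, Rg a b A ε → ∃ K1 : ℕ, ∀ K : ℕ, K1 ≤ K → ∀ A' Cn : ℝ, 1 ≤ A' → 1 ≤ Cn →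
  ∃ C : ℝ, 1 ≤ C ∧
  ∀ κ η0 C0 σ g R D, Ss M κ q a b M0 η0 C0 σ g R D → Kp a R κ → C ≤ R →
  ∀ L L' : Lev, LevOk M κ q A A' a b Cn K η0 C0 σ g R L →
    LevOk M κ q A A' a b Cn K η0 C0 σ g R L' → Next L L' → C * L'.r ≤ L.r →
    ∀ ν : ℝ, 1 ≤ ν → ν ≤ R → L.Le ν → L'.Le ν → ∀ k < L'.n,
      L'.S g k ≤ ENNReal.ofReal (C * ν ^ Kν * R ^ (Kν * ε) *
          (max 1 (L.r / ((L'.s k).1 * L'.r) ^ 2)) ^ (c / 2)) * L.S g (L'.par k) +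
        ENNReal.ofReal (C * ν ^ Kν * R ^ (-T) * SS g R D)

/-- **FIN**: the last step, arbitrary plates of radius `r`. -/
def FIN (M q : ℝ) : Prop := ∀ c : ℝ, 0 ≤ c → LB M q c → ∃ Kν : ℕ,
  ∀ a b A0 ε M0 : ℝ, Rg a b A0 ε → ∃ A1 : ℝ, ∃ K1 : ℕ, ∀ A : ℝ, A1 ≤ A → ∀ K : ℕ, K1 ≤ K →
  ∀ A' Cn : ℝ, 1 ≤ A' → 1 ≤ Cn → ∃ C : ℝ, 1 ≤ C ∧
  ∀ κ η0 C0 σ g R D, Ss M κ q a b M0 η0 C0 σ g R D → Kp a R κ → C ≤ R →
  ∀ L : Lev, LevOk M κ q A A' a b Cn K η0 C0 σ g R L → ∀ ν : ℝ, 1 ≤ ν → ν ≤ R → L.Le ν →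
    ∀ r s1 s2 : ℝ, R ^ (1/2 : ℝ) ≤ r → C * r ≤ L.r → Sd r s1 s2 →
      ENNReal.ofReal (s2 ^ (-q / 2)) * SIG M κ A0 r s1 s2 g R ≤
        ENNReal.ofReal (C * ν ^ Kν * R ^ (Kν * ε) * (L.r / r) ^ (c / 2)) *
          ∑ k ∈ Finset.range L.n, L.S g k + ENNReal.ofReal (C * ν ^ Kν * SS g R D)

/-! ### the slab step and the tube step -/

/-- a label with sides `s1 ≤ s2` is thin at level `r`, margin `X ^ δ`, `X = dl⁻¹`. -/
def Thin (dl δ r s1 : ℝ) : Prop := s1 ≤ dl ^ (-δ) * r ^ (-(1/2) : ℝ)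

/-- a label with sides `s1 ≤ s2` is wide at level `r`, margin `X ^ Cw`. -/
def Wide (dl Cw r s2 : ℝ) : Prop := dl ^ (-Cw) * r ^ (-(1/2) : ℝ) ≤ s2

/-- **SLAB** (slab step): there is a width margin `Cw` such that for every `ε` there are a class
functional `𝒜 < na R`, a potential `pv` and a set `tn` of tiny auxiliary classes, such that (tiny)
tiny labels carry nothing and (step) for three consecutive levels the step inequality holds for all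
labels `k` such that `k` and its parent are thin, wide and not tiny. -/
def SLAB (M q : ℝ) : Prop := ∃ Cw : ℝ, 1 ≤ Cw ∧
  ∀ (n : ℕ) (a b A ε M0 T : ℝ), Rg a b A ε →
  ∃ (Kν : ℕ) (na : ℝ → ℕ) (𝒜 : AuxF) (pv : ℝ → ℝ → ℕ → ℝ) (tn : ℝ → ℕ → Prop) (Cp : ℝ),
    1 ≤ Cp ∧ AuxOk 𝒜 na M q a b M0 ∧
    (∀ R dl x, 0 < dl → dl ≤ 1 → 1 ≤ pv R dl x ∧ pv R dl x ≤ Cp * dl ^ (-(1/2) : ℝ)) ∧
    ∃ K1 : ℕ, ∀ K : ℕ, K1 ≤ K → ∀ A' Cn : ℝ, 1 ≤ A' → 1 ≤ Cn → ∃ C : ℝ, 1 ≤ C ∧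
    ∀ κ η0 C0 σ g R D, Ss M κ q a b M0 η0 C0 σ g R D → Kp a R κ → C ≤ R →
    ∀ dl ν : ℝ, 0 < dl → C * dl ≤ 1 → dl ≤ R ^ (-ε) → κ ≤ dl ^ (4 : ℝ) →
      1 ≤ ν → ν ≤ R → ∀ (L : ℕ → Lev) (ac : ℕ → ℕ → ℕ),
      Tow M κ q A A' a b Cn K η0 C0 σ g R dl ν n L → Acl 𝒜 κ η0 g R dl n L ac →
      dl ^ (-Cw) ≤ R * dl ^ n →
      -- (tiny)
      (∀ t < n, ∀ k < (L (t + 1)).n, tn R (ac (t + 1) k) →
        (L (t + 1)).S g k ≤ ENNReal.ofReal (C * ν ^ Kν * R ^ (-T) * SS g R D)) ∧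
      -- (step)
      ∀ t, t + 2 ≤ n → ∀ k < (L (t + 2)).n,
        ¬ tn R (ac (t + 2) k) → ¬ tn R (ac (t + 1) ((L (t + 2)).par k)) → ∀ δ : ℝ, 0 ≤ δ → δ ≤ 1/4 →
        Thin dl δ (L (t + 2)).r ((L (t + 2)).s k).1 → Wide dl Cw (L (t + 2)).r ((L (t + 2)).s k).2 →
        Thin dl δ (L (t + 1)).r ((L (t + 1)).s ((L (t + 2)).par k)).1 →
        Wide dl Cw (L (t + 1)).r ((L (t + 1)).s ((L (t + 2)).par k)).2 →
        (L (t + 2)).S g k ≤ ENNReal.ofReal (C * ν ^ Kν * R ^ ε * dl ^ (-(Cw * δ)) *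
            ((pv R dl (ac (t + 1) ((L (t + 2)).par k)) / pv R dl (ac (t + 2) k)) ^ (1/2 : ℝ) +
              dl ^ (1/2 : ℝ))) * (L (t + 1)).S g ((L (t + 2)).par k) +
          ENNReal.ofReal (C * ν ^ Kν * R ^ (-T) * SS g R D)

/-- **TUBE** (tube step): for every narrowness margin `Gw` there is `At` such that for all `n, Lw`
(levels `t ≤ n`, window `Lw`, slices `κ ≤ dl^(4 Lw)`) there are a class functional `𝒜` and coherence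
numbers `p R dl h i j x` (`x` = auxiliary class of a label of level `i`), such that for
`1 ≤ h < i < j < l ≤ n`, `l ≤ h + 4 Lw` and every label `k` of level `j` which is not wide: either it
is tiny or the tube inequality holds. -/
def TUBE (M q : ℝ) : Prop := ∀ Gw : ℝ, 0 ≤ Gw → ∃ At : ℝ, 0 ≤ At ∧
  ∀ (n Lw : ℕ) (a b A ε M0 T : ℝ), Rg a b A ε →
  ∃ (Kν : ℕ) (na : ℝ → ℕ) (𝒜 : AuxF) (p : ℝ → ℝ → ℕ → ℕ → ℕ → ℕ → ℝ) (Cp : ℝ),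
    1 ≤ Cp ∧ AuxOk 𝒜 na M q a b M0 ∧
    (∀ R dl h i j x, 0 < dl → dl ≤ 1 → h < i → i < j →
      1 ≤ p R dl h i j x ∧ p R dl h i j x ≤ Cp * dl ^ (-((j : ℝ) - i))) ∧
    ∃ K1 : ℕ, ∀ K : ℕ, K1 ≤ K → ∀ A' Cn : ℝ, 1 ≤ A' → 1 ≤ Cn → ∃ C : ℝ, 1 ≤ C ∧
    ∀ κ η0 C0 σ g R D, Ss M κ q a b M0 η0 C0 σ g R D → Kp a R κ → C ≤ R →
    ∀ dl ν : ℝ, 0 < dl → C * dl ≤ 1 → dl ≤ R ^ (-ε) → κ ≤ dl ^ (4 * (Lw : ℝ)) →
      1 ≤ ν → ν ≤ R → ∀ (L : ℕ → Lev) (ac : ℕ → ℕ → ℕ),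
      Tow M κ q A A' a b Cn K η0 C0 σ g R dl ν n L → Acl 𝒜 κ η0 g R dl n L ac →
      ∀ h i j l : ℕ, 1 ≤ h → h < i → i < j → j < l → l ≤ n → l ≤ h + 4 * Lw → ∀ k < (L j).n,
        ¬ Wide dl Gw (L j).r ((L j).s k).2 →
        (L j).S g k ≤ ENNReal.ofReal (C * ν ^ Kν * R ^ ε *
          dl ^ (-(At + At * (max 0 ((i : ℝ) + l - 2 * j) + max 0 ((h : ℝ) + j - 2 * i))
            + q / 4 * ((l : ℝ) - j))) *
          (p R dl h i j (ac i (anc L j i k)) / p R dl i j l (ac j k)) ^ (1 / 2 : ℝ)) *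
            (L i).S g (anc L j i k) + ENNReal.ofReal (C * ν ^ Kν * R ^ (-T) * SS g R D)

end Crest.Agent.R116.GlC210
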