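import Crest.Agent.R116.A1k1_229
import Crest.Agent.R116.GlC_210

/-!
# R116 (S0155), wave side: one step of the class chain (helper229)

* selections of a level: `sl_meas`, `sl_bdd`, `sl_cp`;
* `dom_step`: on the selection of a label of the next level the coefficients of the root are
  dominated by the coefficients of the selected wave of the parent label;
* `Path`: a path of frames and labels.
-/

set_option autoImplicit false

open MeasureTheory FourierTransform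
open scoped ContDiff ENNReal

namespace Crest.Agent.R116.Dch229

open Crest.Agent.R138.Defs (E2 ee)
open Crest.Agent.R138.Wpk685 (cen caps cap win)
open Crest.Agent.R116.CDef480 Crest.Agent.R116.WC188 Crest.Agent.R116.GlC210
open Crest.Agent.R116.A1k229 (Nice nice_of_St)

section lev

variable {M κ q A A' a b Cn : ℝ} {K : ℕ} {η0 : ℝ} {C0 : E2} {σ : ℝ} {g : E3 → ℂ} {R : ℝ}
  {L L' : Lev}

theorem mem_sl {z : E3 × ℝ} {k : ℕ} {m : ℤ × ℤ} {y : E3} :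
    y ∈ L.sl z k m ↔ ∃ i ∈ L.I z k, y ∈ (L.P z k i).S m := by
  unfold Lev.sl uS
  simp only [Set.mem_iUnion, exists_prop]

theorem sl_meas (h : LevOk M κ q A A' a b Cn K η0 C0 σ g R L) {z : E3 × ℝ} (hz : z ∈ L.Z) {k : ℕ}
    (hk : k < L.n) (m : ℤ × ℤ) : MeasurableSet (L.sl z k m) := by
  obtain ⟨cls, hd⟩ := h.dec z hz
  unfold Lev.sl uS
  exact Finset.measurableSet_biUnion _ fun i hi =>
    (hd.pl k (Finset.mem_range.2 hk)).1.meas i hi m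

theorem sl_sub (h : LevOk M κ q A A' a b Cn K η0 C0 σ g R L) {z : E3 × ℝ} (hz : z ∈ L.Z) {k : ℕ}
    (hk : k < L.n) (m : ℤ × ℤ) : L.sl z k m ⊆ Metric.closedBall 0 (A' * L.r) := by
  obtain ⟨cls, hd⟩ := h.dec z hz
  exact hd.bd k (Finset.mem_range.2 hk) m

theorem sl_norm (h : LevOk M κ q A A' a b Cn K η0 C0 σ g R L) {z : E3 × ℝ} (hz : z ∈ L.Z) {k : ℕ}
    (hk : k < L.n) {m : ℤ × ℤ} {y : E3} (hy : y ∈ L.sl z k m) : ‖y‖ ≤ A' * L.r := by
  have := sl_sub h hz hk m hy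
  rwa [mem_closedBall_zero_iff] at this

theorem sl_bdd (h : LevOk M κ q A A' a b Cn K η0 C0 σ g R L) {z : E3 × ℝ} (hz : z ∈ L.Z) {k : ℕ}
    (hk : k < L.n) (m : ℤ × ℤ) : Bornology.IsBounded (L.sl z k m) :=
  Metric.isBounded_closedBall.subset (sl_sub h hz hk m)

theorem sl_cp (h : LevOk M κ q A A' a b Cn K η0 C0 σ g R L) {z : E3 × ℝ} (hz : z ∈ L.Z) {k : ℕ}
    (hk : k < L.n) {m : ℤ × ℤ} {y : E3} (hy : y ∈ L.sl z k m) :
    m ∈ caps (L.r ^ (-(1/2) : ℝ)) := by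
  obtain ⟨cls, hd⟩ := h.dec z hz
  by_contra hc
  have := hd.cp k (Finset.mem_range.2 hk) m hc
  have h2 : y ∈ (∅ : Set E3) := by
    rw [← this]
    exact hy
  exact h2

theorem one_le_r (h : LevOk M κ q A A' a b Cn K η0 C0 σ g R L) (hR : 1 ≤ R) : 1 ≤ L.r :=
  (Real.one_le_rpow hR (by norm_num)).trans h.lo

/-- the parent function is the translated selected wave. -/
theorem pf_eq (h : LevOk M κ q A A' a b Cn K η0 C0 σ g R L) {z : E3 × ℝ} (hz : z ∈ cylc R) {k : ℕ}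
    (hk : k < L.n) : L.pf z k = trc (z - L.ζ z) (selc η0 κ (L.r ^ (-(1/2) : ℝ)) (trc (L.ζ z) g)
      (L.sl (L.ζ z) k)) := by
  obtain ⟨cls, hd⟩ := h.dec _ (h.near z hz).1
  unfold Lev.pf
  rw [hd.eq k (Finset.mem_range.2 hk)]
  rfl

/-- **domination, one step.** -/
theorem dom_step (ha : 0 < a) (hA : 1 ≤ A) (hR : 1 ≤ R)
    (h : LevOk M κ q A A' a b Cn K η0 C0 σ g R L) (h' : LevOk M κ q A A' a b Cn K η0 C0 σ g R L')
    (hn : Next L L') (hr : L'.r ≤ L.r) (hA' : A' * L'.r ≤ A * L.r) {z : E3 × ℝ} (hz : z ∈ L'.Z)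
    {k : ℕ} (hk : k < L'.n) {m : ℤ × ℤ} {y : E3} (hy : y ∈ L'.sl z k m) :
    ‖umc (L'.r ^ (-(1/2) : ℝ)) (trc z g) m y‖ ≤
      L.n * ‖umc (L'.r ^ (-(1/2) : ℝ)) (trc (z - L.ζ z) (selc η0 κ (L.r ^ (-(1/2) : ℝ))
        (trc (L.ζ z) g) (L.sl (L.ζ z) (L'.par k)))) m y‖ +
      Cn * L.nb * R ^ (-(K : ℝ)) * Real.sqrt (Enc g) := by
  have hzR : z ∈ cylc R := h'.net.mem z hz
  obtain ⟨hzZ, hzn⟩ := h.near z hzR
  obtain ⟨cls, hd⟩ := h.dec _ hzZ
  have hr1 : 1 ≤ L.r := one_le_r h hR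
  have hr1' : 1 ≤ L'.r := one_le_r h' hR
  have e1 : trc z g = fun ξ => ∑ k' ∈ Finset.range L.n, L.pf z k' ξ +
      trc (z - L.ζ z) (L.rest (L.ζ z)) ξ := by
    have e0 : trc z g = trc (z - L.ζ z) (trc (L.ζ z) g) := by
      rw [A1k229.trc_trc, add_sub_cancel]
    rw [e0]
    funext ξ
    have h1 := hd.sum ξ
    unfold Lev.pf
    unfold trc at h1 ⊢
    rw [h1, add_mul, Finset.sum_mul]
  have hI : ∀ k' ∈ Finset.range L.n, Integrable (L.pf z k') := by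
    intro k' hk'
    exact ((nice_of_St (hd.st k' hk')).trc _).int (by linarith)
  have hIr : Integrable (trc (z - L.ζ z) (L.rest (L.ζ z))) := by
    have : Nice (2 * a) 2 (L.rest (L.ζ z)) := ⟨hd.rmeas, hd.rbdd, hd.rsupp⟩
    exact (this.trc _).int (by linarith)
  have hpar : L'.par k < L.n := hn.par_lt k hk
  obtain ⟨i, hi, hyi⟩ := mem_sl.1 hy
  have hdom : Domc (L'.r ^ (-(1/2) : ℝ)) (L.pf z) L.n (L'.par k) m y := by
    rw [← hn.arg z hz k hk i hi m y hyi]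
    exact argc_dom _ _ h.n1 m y
  have h2 := norm_domc hI hIr hdom
  rw [← e1, pf_eq h hzR hpar] at h2
  refine h2.trans (add_le_add le_rfl ?_)
  refine hd.small L'.r hr1' hr (z - L.ζ z) ?_ m y ?_
  · refine ⟨hzn.1.trans ?_, hzn.2.trans ?_⟩ <;> nlinarith
  · exact (sl_norm h' hz hk hy).trans hA'

end lev

/-! ### paths -/

/-- a path of frames and labels from level `j` down to level `i`. -/
structure Path (L : ℕ → Lev) (i j : ℕ) (zs : ℕ → E3 × ℝ) (ks : ℕ → ℕ) : Prop where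
  mem : ∀ l, i ≤ l → l ≤ j → zs l ∈ (L l).Z
  lab : ∀ l, i ≤ l → l ≤ j → ks l < (L l).n
  fr : ∀ l, i ≤ l → l < j → zs l = (L l).ζ (zs (l + 1))
  pr : ∀ l, i ≤ l → l < j → ks l = (L (l + 1)).par (ks (l + 1))

theorem Path.sub {L : ℕ → Lev} {i j : ℕ} {zs : ℕ → E3 × ℝ} {ks : ℕ → ℕ} (h : Path L i j zs ks)
    {i' j' : ℕ} (hi : i ≤ i') (hj : j' ≤ j) : Path L i' j' zs ks :=
  ⟨fun l h1 h2 => h.mem l (hi.trans h1) (h2.trans hj),
    fun l h1 h2 => h.lab l (hi.trans h1) (h2.trans hj),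
    fun l h1 h2 => h.fr l (hi.trans h1) (h2.trans_le hj),
    fun l h1 h2 => h.pr l (hi.trans h1) (h2.trans_le hj)⟩

section tow

variable {M κ q A A' a b Cn : ℝ} {K : ℕ} {η0 : ℝ} {C0 : E2} {σ : ℝ} {g : E3 → ℂ} {R : ℝ}
  {dl ν : ℝ} {n : ℕ} {L : ℕ → Lev}

theorem rad_pos (h : Tow M κ q A A' a b Cn K η0 C0 σ g R dl ν n L) (hR : 1 ≤ R) {t : ℕ}
    (ht : t ≤ n) : 1 ≤ (L t).r := one_le_r (h.ok t ht) hR

theorem rad_succ (h : Tow M κ q A A' a b Cn K η0 C0 σ g R dl ν n L) {t : ℕ} (ht : t < n) :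
    (L (t + 1)).r = dl * (L t).r := by
  rw [h.rad (t + 1) ht, h.rad t ht.le, pow_succ]
  ring

/-- the frames of a path are near. -/
theorem path_near (h : Tow M κ q A A' a b Cn K η0 C0 σ g R dl ν n L) {i j : ℕ} (hj : j ≤ n)
    {zs : ℕ → E3 × ℝ} {ks : ℕ → ℕ} (hp : Path L i j zs ks) {l : ℕ} (h1 : i ≤ l) (h2 : l < j) :
    zs (l + 1) - zs l ∈ cylc (L l).r := by
  rw [hp.fr l h1 h2]
  have h3 : zs (l + 1) ∈ cylc R :=
    (h.ok (l + 1) ((Nat.succ_le_of_lt h2).trans hj)).net.mem _ (hp.mem (l + 1) (by omega) h2)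
  exact ((h.ok l (h2.le.trans hj)).near _ h3).2

/-- **domination along a path**, one step. -/
theorem dom_path (h : Tow M κ q A A' a b Cn K η0 C0 σ g R dl ν n L) (ha : 0 < a) (hA : 1 ≤ A)
    (hR : 1 ≤ R) (hd1 : dl ≤ 1) (hdA : A' * dl ≤ 1) {i j : ℕ} (hj : j ≤ n)
    {zs : ℕ → E3 × ℝ} {ks : ℕ → ℕ} (hp : Path L i j zs ks) {l : ℕ} (h1 : i ≤ l) (h2 : l < j)
    {m : ℤ × ℤ} {y : E3} (hy : y ∈ (L (l + 1)).sl (zs (l + 1)) (ks (l + 1)) m) :
    ‖umc ((L (l + 1)).r ^ (-(1/2) : ℝ)) (trc (zs (l + 1)) g) m y‖ ≤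
      (L l).n * ‖umc ((L (l + 1)).r ^ (-(1/2) : ℝ)) (trc (zs (l + 1) - zs l)
        (selc η0 κ ((L l).r ^ (-(1/2) : ℝ)) (trc (zs l) g) ((L l).sl (zs l) (ks l)))) m y‖ +
      Cn * (L l).nb * R ^ (-(K : ℝ)) * Real.sqrt (Enc g) := by
  have hl : l < n := h2.trans_le hj
  have hr := rad_pos h hR hl.le
  have hs := rad_succ h hl
  rw [hp.fr l h1 h2, hp.pr l h1 h2]
  refine dom_step ha hA hR (h.ok l hl.le) (h.ok (l + 1) hl) (h.next l hl) ?_ ?_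
    (hp.mem (l + 1) (by omega) h2) (hp.lab (l + 1) (by omega) h2) hy
  · rw [hs]; nlinarith
  · rw [hs]
    have : A' * (dl * (L l).r) = (A' * dl) * (L l).r := by ring
    rw [this]
    nlinarith

end tow

end Crest.Agent.R116.Dch229
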