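import Crest.Agent.R116.DcU1_894
import Crest.Agent.R116.Dch3_229

/-!
# R116 (S0155), wave side, W12 TUBE: (U) along the path, part 2 (helper894)

* `one_level` : the coefficients of the root on the selection of level `l + 1` by the kernel
  integrals of the selection of level `l`.
* `chain` : induction along the path, bottom level `i`.
-/

set_option autoImplicit false

open MeasureTheory
open scoped ENNReal

namespace Crest.Agent.R116.DcU894

open Crest.Agent.R138.Defs (E2)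
open Crest.Agent.R138.Wpk685 (cen caps)
open Crest.Agent.R138.Loc878 (nearL)
open Crest.Agent.R116.CDef480 Crest.Agent.R116.WC188 Crest.Agent.R116.GlC210
open Crest.Agent.R116.Cad538 (wt frc W0 W0_lt)
open Crest.Agent.R116.F1c124 (kc kc_nonneg kc_wt lint_kc measurable_kc f1_sel card_nearL_le)
open Crest.Agent.R116.Dch229 (nearC mem_nearC nearC_trans nearL_subset Path)
open Crest.Agent.R116.TuD373 (tht)
open Crest.Agent.R116.TuS363 (tht_pos tht_mono tht_shift rad_tht_sq)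

/-! ### scalar facts -/

theorem tht_four {R dl : ℝ} (hR : 0 < R) (hdl : 0 < dl) (h16 : 16 * dl ≤ 1) (t : ℕ) :
    4 * tht R dl t ≤ tht R dl (t + 1) := by
  have h := tht_shift (R := R) (dl := dl) hR hdl (i := t) (j := t + 1) (by omega)
  have e : t + 1 - t = 1 := by omega
  rw [e, pow_one] at h
  have h1 : dl ^ (1/2 : ℝ) ≤ 1/4 := by
    rw [← Real.sqrt_eq_rpow]
    rw [show (1/4 : ℝ) = √(1/16) by
      rw [show (1/16 : ℝ) = (1/4) ^ 2 by norm_num, Real.sqrt_sq (by norm_num)]]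
    exact Real.sqrt_le_sqrt (by linarith)
  have h2 := tht_pos hR hdl (t + 1)
  nlinarith

theorem tht_ratio {R dl : ℝ} (hR : 0 < R) (hdl : 0 < dl) (t : ℕ) :
    (tht R dl (t + 1) / tht R dl t) ^ 2 = dl⁻¹ := by
  have h1 := rad_tht_sq hR hdl t
  have h2 := rad_tht_sq hR hdl (t + 1)
  have h3 := tht_pos hR hdl t
  have h4 : R * dl ^ t * (dl * tht R dl (t + 1) ^ 2) = R * dl ^ t * tht R dl t ^ 2 := by
    rw [h1, ← h2]; ring
  have h5 : dl * tht R dl (t + 1) ^ 2 = tht R dl t ^ 2 :=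
    mul_left_cancel₀ (by positivity) h4
  rw [div_pow, div_eq_iff (by positivity), ← h5, ← mul_assoc, inv_mul_cancel₀ hdl.ne', one_mul]

theorem enorm_le_of {u v : ℂ} {k c ν : ℝ} (hk : k ≤ ν) (hν : 0 ≤ ν)
    (h : ‖u‖ ≤ k * ‖v‖ + c) : ‖u‖ₑ ≤ ENNReal.ofReal ν * ‖v‖ₑ + ENNReal.ofReal c := by
  rw [← ofReal_norm, ← ofReal_norm, ← ENNReal.ofReal_mul hν]
  refine (ENNReal.ofReal_le_ofReal ?_).trans ENNReal.ofReal_add_le
  refine h.trans (add_le_add ?_ le_rfl)
  exact mul_le_mul_of_nonneg_right hk (norm_nonneg _)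

/-! ### one level -/

/-- **one level.** -/
theorem one_level {a : ℝ} (ha : 1 ≤ a) (N : ℕ) : ∃ K0 : ℝ, 0 ≤ K0 ∧
    ∀ {M κ q A A' b Cn : ℝ} {K : ℕ} {η0 : ℝ} {C0 : E2} {σ : ℝ} {g : E3 → ℂ} {R dl ν : ℝ} {n : ℕ}
      {L : ℕ → Lev}, 0 < κ → κ ≤ (4 * (2 * a))⁻¹ → (2 * a)⁻¹ ≤ η0 → η0 ≤ 2 * a → 1 ≤ A →
      0 ≤ Cn → Integrable g → 1 ≤ R → 0 < dl → dl ≤ 1 → A' * dl ≤ 1 → 1 ≤ ν →
      Tow M κ q A A' a b Cn K η0 C0 σ g R dl ν n L → ∀ {i j : ℕ}, j ≤ n →
      ∀ {zs : ℕ → E3 × ℝ} {ks : ℕ → ℕ}, Path L i j zs ks → ∀ l, i ≤ l → l < j →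
      ∀ (m : ℤ × ℤ) (y : E3), y ∈ (L (l + 1)).sl (zs (l + 1)) (ks (l + 1)) m →
      ‖umc (tht R dl (l + 1)) (trc (zs (l + 1)) g) m y‖ₑ ≤ ENNReal.ofReal (ν * K0) *
        (∑ m1 ∈ nearL (tht R dl l) (tht R dl (l + 1)) m, ∫⁻ x in (L l).sl (zs l) (ks l) m1,
          ENNReal.ofReal (kc N (tht R dl l) κ (cen (tht R dl l) m1)
            (y + (zs (l + 1) - zs l).1 + (zs (l + 1) - zs l).2 • vel (cen (tht R dl l) m1) - x)) *
            ‖umc (tht R dl l) (trc (zs l) g) m1 x‖ₑ) +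
        ENNReal.ofReal (Cn * ν * R ^ (-(K : ℝ)) * √(Enc g)) := by
  obtain ⟨K0, hK0, hf⟩ := f1_sel (a := 2 * a) (by linarith) N 1
  refine ⟨K0, hK0, ?_⟩
  intro M κ q A A' b Cn K η0 C0 σ g R dl ν n L hκ hκa hη1 hη2 hA hCn hg hR hdl hdl1 hdA hν hT i j
    hj zs ks hp l h1 h2 m y hy
  have hR0 : 0 < R := by linarith
  have hl : l < n := h2.trans_le hj
  have e0 : (L l).r ^ (-(1/2) : ℝ) = tht R dl l := by rw [hT.rad l hl.le]; rfl
  have e1 : (L (l + 1)).r ^ (-(1/2) : ℝ) = tht R dl (l + 1) := by rw [hT.rad (l + 1) hl]; rfl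
  have hd := Dch229.dom_path hT (by linarith) hA hR hdl1 hdA hj hp h1 h2 hy
  rw [e0, e1] at hd
  have hLe := hT.le l hl.le
  have hok := hT.ok l hl.le
  have hzl := hp.mem l h1 h2.le
  have hkl := hp.lab l h1 h2.le
  have hnear := Dch229.path_near hT hj hp h1 h2
  have hf' := hf (tht R dl l) (tht R dl (l + 1)) κ η0 (tht_pos hR0 hdl l)
    (tht_mono hR0 hdl hdl1 (Nat.le_succ l)) hκ hκa hη1 hη2 (trc (zs l) g)
    ((L l).sl (zs l) (ks l)) (F1c124.trc_int hg _) (fun m1 _ => Dch229.sl_meas hok hzl hkl m1)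
    (fun m1 _ => Dch229.sl_bdd hok hzl hkl m1) (zs (l + 1) - zs l)
    (by
      have h3 := hnear.2
      rw [hT.rad l hl.le] at h3
      calc |(zs (l + 1) - zs l).2| * tht R dl l ^ 2 ≤ R * dl ^ l * tht R dl l ^ 2 := by gcongr
        _ = 1 := rad_tht_sq hR0 hdl l) m y
  have h4 := enorm_le_of (k := ((L l).n : ℝ)) (ν := ν) hLe.1 (by linarith) hd
  refine h4.trans (add_le_add ?_ (ENNReal.ofReal_le_ofReal ?_))
  · rw [ENNReal.ofReal_mul (by linarith), mul_assoc]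
    exact mul_le_mul' le_rfl hf'
  · have h5 := hLe.2
    have h6 : 0 ≤ R ^ (-(K : ℝ)) := (Real.rpow_pos_of_pos hR0 _).le
    have h7 := Real.sqrt_nonneg (Enc g)
    gcongr

/-! ### induction along the path -/

/-- recursion of the tails. -/
theorem tail_rec {X Y θ τ : ℝ} (hY : 0 ≤ Y) (hX : Y + 1 ≤ X) (hθ : 0 ≤ θ) (d : ℕ)
    (hτ : τ ≤ X ^ d * θ) : Y * τ + θ ≤ X ^ (d + 1) * θ := by
  have hX1 : 1 ≤ X := by linarith
  have h1 : 1 ≤ X ^ d := one_le_pow₀ hX1
  have h2 : Y * τ ≤ Y * (X ^ d * θ) := mul_le_mul_of_nonneg_left hτ hY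
  have h3 : θ ≤ X ^ d * θ := by nlinarith
  have h4 : (Y + 1) * (X ^ d * θ) ≤ X * (X ^ d * θ) :=
    mul_le_mul_of_nonneg_right hX (by positivity)
  calc Y * τ + θ ≤ (Y + 1) * (X ^ d * θ) := by linarith
    _ ≤ X * (X ^ d * θ) := h4
    _ = _ := by ring

/-- **(U), kernel form, along the path.** -/
theorem chain {a : ℝ} (ha : 1 ≤ a) (N : ℕ) : ∃ K1 : ℝ, 1 ≤ K1 ∧
    ∀ {M κ q A A' b Cn : ℝ} {K : ℕ} {η0 : ℝ} {C0 : E2} {σ : ℝ} {g : E3 → ℂ} {R dl ν : ℝ} {n : ℕ}
      {L : ℕ → Lev}, 0 < κ → κ ≤ 1 → κ ≤ (4 * (2 * a))⁻¹ → (2 * a)⁻¹ ≤ η0 → η0 ≤ 2 * a →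
      1 ≤ A → 0 ≤ Cn → Integrable g → 1 ≤ R → 0 < dl → 16 * dl ≤ 1 → A' * dl ≤ 1 →
      dl⁻¹ ≤ R → 1 ≤ ν →
      Tow M κ q A A' a b Cn K η0 C0 σ g R dl ν n L → ∀ {i j : ℕ}, j ≤ n →
      κ * tht R dl j ≤ tht R dl i →
      ∀ {zs : ℕ → E3 × ℝ} {ks : ℕ → ℕ}, Path L i j zs ks → ∀ d, i + 1 + d ≤ j →
      ∀ (m : ℤ × ℤ) (y : E3), y ∈ (L (i + 1 + d)).sl (zs (i + 1 + d)) (ks (i + 1 + d)) m →
      ‖umc (tht R dl (i + 1 + d)) (trc (zs (i + 1 + d)) g) m y‖ₑ ≤
        ENNReal.ofReal ((ν * K1) ^ (d + 1)) *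
        ∑ m2 ∈ nearC (tht R dl i) (tht R dl (i + 1 + d)) m,
          Jk N (tht R dl i) κ (umc (tht R dl i) (trc (zs i) g)) ((L i).sl (zs i) (ks i))
            (zs (i + 1 + d) - zs i) y m2 +
        ENNReal.ofReal ((2 * ν * K1 * R) ^ (d + 1) * (Cn * ν * R ^ (-(K : ℝ)) * √(Enc g))) := by
  obtain ⟨K0, hK0, hone⟩ := one_level ha (N + 4)
  set w : ℝ := W0.toReal with hw
  have hw0 : 0 ≤ w := ENNReal.toReal_nonneg
  have hW : W0 = ENNReal.ofReal w := (ENNReal.ofReal_toReal W0_lt.ne).symm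
  set K1 : ℝ := 1 + K0 * (1 + 64 * 13 ^ N * w + 49 * w) with hK1
  have h1K1 : 1 ≤ K1 := by
    have : 0 ≤ K0 * (1 + 64 * 13 ^ N * w + 49 * w) := by positivity
    linarith
  have hK1a : K0 ≤ K1 := by
    have : 0 ≤ K0 * (64 * 13 ^ N * w + 49 * w) := by positivity
    rw [hK1]; linarith
  have hK1b : K0 * (64 * 13 ^ N * w) ≤ K1 := by
    have : 0 ≤ K0 * (1 + 49 * w) := by positivity
    rw [hK1]; linarith
  have hK1c : K0 * (49 * w) ≤ K1 := by
    have : 0 ≤ K0 * (1 + 64 * 13 ^ N * w) := by positivity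
    rw [hK1]; linarith
  refine ⟨K1, h1K1, ?_⟩
  intro M κ q A A' b Cn K η0 C0 σ g R dl ν n L hκ hκ1 hκa hη1 hη2 hA hCn hg hR hdl h16 hdA hdR hν
    hT i j hj hst zs ks hp d
  have hR0 : 0 < R := by linarith
  have hν0 : 0 < ν := by linarith
  have hdl1 : dl ≤ 1 := by linarith
  set θ : ℝ := Cn * ν * R ^ (-(K : ℝ)) * √(Enc g) with hθ
  have hθ0 : 0 ≤ θ := by
    have h6 : 0 ≤ R ^ (-(K : ℝ)) := (Real.rpow_pos_of_pos hR0 _).le
    positivity
  have hti := tht_pos (dl := dl) hR0 hdl i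
  have hY0 : 0 ≤ ν * K1 * R := by positivity
  have hXY : ν * K1 * R + 1 ≤ 2 * ν * K1 * R := by
    have : 1 ≤ ν * K1 * R := by
      have h7 : 1 ≤ ν * K1 := by nlinarith
      nlinarith
    linarith
  induction d with
  | zero =>
    intro hd m y hy
    have h := hone hκ hκa hη1 hη2 hA hCn hg hR hdl hdl1 hdA hν hT hj hp i le_rfl (by omega) m y hy
    refine h.trans (add_le_add ?_ (ENNReal.ofReal_le_ofReal ?_))
    · refine mul_le_mul' (ENNReal.ofReal_le_ofReal ?_) ?_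
      · rw [zero_add, pow_one]
        exact mul_le_mul_of_nonneg_left hK1a hν0.le
      · refine (Finset.sum_le_sum fun m1 _ => ?_).trans
          (Finset.sum_le_sum_of_subset (nearL_subset (tht_pos hR0 hdl (i + 1)).le m))
        unfold Jk
        refine lintegral_mono fun x => ?_
        refine mul_le_mul' (ENNReal.ofReal_le_ofReal ?_) le_rfl
        have e : TuG373.D (zs (i + 1 + 0) - zs i) y (cen (tht R dl i) m1) - x =
            y + (zs (i + 1) - zs i).1 + (zs (i + 1) - zs i).2 • vel (cen (tht R dl i) m1) - x := by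
          unfold TuG373.D
          rw [add_zero]
          abel
        rw [e, kc_wt _ hti hκ, kc_wt _ hti hκ]
        exact mul_le_mul_of_nonneg_left (Cad538.wt_anti _ (by omega) _) (by positivity)
    · have := tail_rec hY0 hXY hθ0 0 (τ := 0) (by rw [pow_zero, one_mul]; exact hθ0)
      linarith
  | succ d ih =>
    intro hd m y hy
    have hd' : i + 1 + d ≤ j := by omega
    set l : ℕ := i + 1 + d with hl
    have el : i + 1 + (d + 1) = l + 1 := by omega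
    rw [el] at hy ⊢
    have hil : i ≤ l := by omega
    have hlj : l < j := by omega
    have hln : l < n := by omega
    have htl := tht_pos (dl := dl) hR0 hdl l
    have hile : tht R dl i ≤ tht R dl l := tht_mono hR0 hdl hdl1 hil
    have hstl : κ * tht R dl l ≤ tht R dl i :=
      (mul_le_mul_of_nonneg_left (tht_mono hR0 hdl hdl1 hlj.le) hκ.le).trans hst
    have hok := hT.ok l hln.le
    have hzl := hp.mem l hil hlj.le
    have hkl := hp.lab l hil hlj.le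
    have hnear := (Dch229.path_near hT hj hp hil hlj).2
    rw [hT.rad l hln.le] at hnear
    have htime : |(zs (l + 1) - zs l).2| * tht R dl l ^ 2 ≤ 1 := by
      calc |(zs (l + 1) - zs l).2| * tht R dl l ^ 2 ≤ R * dl ^ l * tht R dl l ^ 2 := by gcongr
        _ = 1 := rad_tht_sq hR0 hdl l
    have h := hone hκ hκa hη1 hη2 hA hCn hg hR hdl hdl1 hdA hν hT hj hp l hil hlj m y hy
    have hs := step_sum (N := N) (u := umc (tht R dl i) (trc (zs i) g))
      (S := (L i).sl (zs i) (ks i)) (th := tht R dl i) (th1 := tht R dl l)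
      (th2 := tht R dl (l + 1)) (κ := κ) hti hile hκ hκ1 hstl (tht_four hR0 hdl h16 l)
      (z := zs (l + 1) - zs l) (w := zs l - zs i) htime (m := m)
      (S1 := (L l).sl (zs l) (ks l)) (fun m1 _ => Dch229.sl_meas hok hzl hkl m1)
      (a := fun m1 x => ‖umc (tht R dl l) (trc (zs l) g) m1 x‖ₑ)
      (B := ENNReal.ofReal ((ν * K1) ^ (d + 1)))
      (τ := ENNReal.ofReal ((2 * ν * K1 * R) ^ (d + 1) * θ)) (y := y)
      (fun m1 _ x hx => ih hd' m1 x hx)
    have ez : zs (l + 1) - zs l + (zs l - zs i) = zs (l + 1) - zs i := by abel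
    rw [ez] at hs
    set J : ℝ≥0∞ := ∑ m2 ∈ nearC (tht R dl i) (tht R dl (l + 1)) m,
          Jk N (tht R dl i) κ (umc (tht R dl i) (trc (zs i) g)) ((L i).sl (zs i) (ks i))
            (zs (l + 1) - zs i) y m2 with hJ
    have hcard : (((nearL (tht R dl l) (tht R dl (l + 1)) m).card : ℕ) : ℝ≥0∞) ≤
        ENNReal.ofReal (49 * R) := by
      rw [← ENNReal.ofReal_natCast]
      refine ENNReal.ofReal_le_ofReal ?_
      refine (card_nearL_le htl (tht_mono hR0 hdl hdl1 (Nat.le_succ l)) m).trans ?_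
      rw [tht_ratio hR0 hdl]
      linarith
    have hX0 : 0 ≤ (2 * ν * K1 * R) ^ (d + 1) * θ := by positivity
    calc _ ≤ ENNReal.ofReal (ν * K0) * (ENNReal.ofReal (13 ^ N) * W0 *
          ENNReal.ofReal ((ν * K1) ^ (d + 1)) * 64 * J +
          ENNReal.ofReal (49 * R) * (W0 * ENNReal.ofReal ((2 * ν * K1 * R) ^ (d + 1) * θ))) +
          ENNReal.ofReal θ := by
          refine h.trans (add_le_add (mul_le_mul' le_rfl (hs.trans ?_)) le_rfl)
          exact add_le_add le_rfl (mul_le_mul' hcard le_rfl)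
      _ = ENNReal.ofReal (ν * K0) * (ENNReal.ofReal (13 ^ N) * W0 *
          ENNReal.ofReal ((ν * K1) ^ (d + 1)) * 64) * J +
          (ENNReal.ofReal (ν * K0) * (ENNReal.ofReal (49 * R) * (W0 *
            ENNReal.ofReal ((2 * ν * K1 * R) ^ (d + 1) * θ))) + ENNReal.ofReal θ) := by
          ring
      _ ≤ _ := by
          refine add_le_add (mul_le_mul' ?_ le_rfl) ?_
          · rw [hW, show (64 : ℝ≥0∞) = ENNReal.ofReal 64 by norm_num,
              ← ENNReal.ofReal_mul (by positivity), ← ENNReal.ofReal_mul (by positivity),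
              ← ENNReal.ofReal_mul (by positivity), ← ENNReal.ofReal_mul (by positivity)]
            refine ENNReal.ofReal_le_ofReal ?_
            calc ν * K0 * (13 ^ N * w * (ν * K1) ^ (d + 1) * 64)
                = (ν * (K0 * (64 * 13 ^ N * w))) * (ν * K1) ^ (d + 1) := by ring
              _ ≤ (ν * K1) * (ν * K1) ^ (d + 1) := by gcongr
              _ = _ := by ring
          · rw [hW, ← ENNReal.ofReal_mul (by positivity), ← ENNReal.ofReal_mul (by positivity),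
              ← ENNReal.ofReal_mul (by positivity), ← ENNReal.ofReal_add (by positivity) hθ0]
            refine ENNReal.ofReal_le_ofReal ?_
            have h8 := tail_rec hY0 hXY hθ0 (d + 1) (τ := (2 * ν * K1 * R) ^ (d + 1) * θ) le_rfl
            refine le_trans (add_le_add ?_ le_rfl) h8
            calc ν * K0 * (49 * R * (w * ((2 * ν * K1 * R) ^ (d + 1) * θ)))
                = (ν * (K0 * (49 * w)) * R) * ((2 * ν * K1 * R) ^ (d + 1) * θ) := by ring
              _ ≤ (ν * K1 * R) * ((2 * ν * K1 * R) ^ (d + 1) * θ) := by gcongr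

end Crest.Agent.R116.DcU894
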