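import Crest.Agent.R116.DcU2_894

/-!
# R116 (S0155), wave side, W12 TUBE: (U) along the path, part 3 (helper894)

`usq` : the square of the kernel form; caps with a selected packet in the `Y`-plate (count) and the
other caps (tail).
-/

set_option autoImplicit false

open MeasureTheory
open scoped ENNReal

namespace Crest.Agent.R116.DcU894

open Crest.Agent.R138.Defs (E2)
open Crest.Agent.R138.Wpk685 (cen caps)
open Crest.Agent.R138.Loc878 (nearL)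
open Crest.Agent.R116.CDef480 Crest.Agent.R116.WC188 Crest.Agent.R116.GlC210
open Crest.Agent.R116.Cad538 (wt frc W0 W0_lt)
open Crest.Agent.R116.F1c124 (kc kc_nonneg kc_wt kc_cs wt_neg sum_sq_ennreal)
open Crest.Agent.R116.Dch229 (nearC mem_nearC)
open Crest.Agent.R116.TuD373 (tht nrC)
open Crest.Agent.R116.TuG373 (pn)
open Crest.Agent.R116.TuC373 (AdN)

theorem sq3 (a b c : ℝ≥0∞) : (a + b + c) ^ 2 ≤ 3 * (a ^ 2 + b ^ 2 + c ^ 2) := by
  have h := sum_sq_ennreal (Finset.univ : Finset (Fin 3)) (![a, b, c])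
  simpa [Fin.sum_univ_three] using h

/-- the kernel outside the `Y`-plate. -/
theorem kc_out (n1 : ℕ) {th κ Y : ℝ} (hth : 0 < th) (hth1 : th ≤ 1) (hκ : 0 < κ) (hκ1 : κ ≤ 1)
    (hY : 0 < Y) {C : E2} {Z : E3} (h : Y < pn th κ C Z) :
    kc n1 th κ C Z ≤ 2 ^ n1 * (Y ^ n1)⁻¹ := by
  rw [kc_wt _ hth hκ]
  have h1 := pn_le_frc hth.le hκ.le C Z
  have h2 : Y / 2 ≤ 1 + ‖frc th κ C Z‖ := by linarith
  have h3 : wt (frc th κ C) n1 Z ≤ ((Y / 2) ^ n1)⁻¹ := by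
    unfold Cad538.wt
    exact inv_anti₀ (by positivity) (pow_le_pow_left₀ (by positivity) h2 n1)
  have h4 : th ^ 2 * κ ≤ 1 := by
    have : th ^ 2 ≤ 1 := pow_le_one₀ hth.le hth1
    calc th ^ 2 * κ ≤ 1 * 1 := by gcongr
      _ = 1 := one_mul 1
  have h5 := Cad538.wt_pos (frc th κ C) n1 Z
  calc th ^ 2 * κ * wt (frc th κ C) n1 Z ≤ 1 * ((Y / 2) ^ n1)⁻¹ := by gcongr
    _ = _ := by
        rw [one_mul, div_pow, inv_div, div_eq_mul_inv]

variable {th κ : ℝ} {g : E3 → ℂ} {S : ℤ × ℤ → Set E3}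

/-- one cap, inside. -/
theorem Jk_in {n0 n1 : ℕ} (hn : n0 ≤ n1) (hth : 0 < th) (hκ : 0 < κ) (hg : Integrable g)
    {m : ℤ × ℤ} (hS : MeasurableSet (S m)) (w : E3 × ℝ) (y : E3) :
    Jk (n1 + 4) th κ (umc th g) S w y m ^ 2 ≤ W0 * (ENNReal.ofReal (th ^ 2 * κ) * ∫⁻ x in S m,
      ENNReal.ofReal (wt (frc th κ (cen th m)) n0 (x - (w.1 + y) - w.2 • vel (cen th m))) *
        ‖umc th g m x‖ₑ ^ 2) := by
  refine (kc_cs hth hκ (cen th m) (TuG373.D w y (cen th m)) hS (F1c124.umc_cont hg th m)).trans ?_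
  refine mul_le_mul' le_rfl ?_
  rw [← lintegral_const_mul' _ _ ENNReal.ofReal_ne_top]
  refine lintegral_mono fun x => ?_
  dsimp only
  rw [← mul_assoc, ← ENNReal.ofReal_mul (by positivity)]
  refine mul_le_mul' (ENNReal.ofReal_le_ofReal ?_) le_rfl
  rw [kc_wt _ hth hκ, ← wt_neg]
  have e : -(TuG373.D w y (cen th m) - x) = x - (w.1 + y) - w.2 • vel (cen th m) := by
    unfold TuG373.D
    abel
  rw [e]
  exact mul_le_mul_of_nonneg_left (Cad538.wt_anti _ hn _) (by positivity)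

/-- one cap, outside. -/
theorem Jk_out (n1 : ℕ) {Y : ℝ} (hth : 0 < th) (hth1 : th ≤ 1) (hκ : 0 < κ) (hκ1 : κ ≤ 1)
    (hY : 0 < Y) (hg : Integrable g) {m : ℤ × ℤ} (hS : MeasurableSet (S m)) {w : E3 × ℝ} {y : E3}
    (h : ∀ x ∈ S m, Y < pn th κ (cen th m) (x - TuG373.D w y (cen th m))) :
    Jk (n1 + 4) th κ (umc th g) S w y m ^ 2 ≤
      W0 * (ENNReal.ofReal (2 ^ n1 * (Y ^ n1)⁻¹) * ∫⁻ x, ‖umc th g m x‖ₑ ^ 2) := by
  refine (kc_cs hth hκ (cen th m) (TuG373.D w y (cen th m)) hS (F1c124.umc_cont hg th m)).trans ?_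
  refine mul_le_mul' le_rfl ?_
  rw [← lintegral_const_mul' _ _ ENNReal.ofReal_ne_top]
  refine (setLIntegral_mono' hS fun x hx => ?_).trans (setLIntegral_le_lintegral _ _)
  refine mul_le_mul' (ENNReal.ofReal_le_ofReal ?_) le_rfl
  refine kc_out n1 hth hth1 hκ hκ1 hY ?_
  have h1 := h x hx
  rw [← TuG373.pn_neg, neg_sub] at h1
  exact h1

open Classical in
/-- **the square of the kernel form.** -/
theorem usq {n0 n1 : ℕ} (hn : n0 ≤ n1) {th1 Y : ℝ} (hth : 0 < th) (hth1 : th ≤ 1) (hκ : 0 < κ)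
    (hκ1 : κ ≤ 1) (hY : 0 < Y) {Lr : ℝ} (hg : Ba449.Gd Lr g)
    (hS : ∀ m ∈ caps th, MeasurableSet (S m)) (w : E3 × ℝ) (y : E3) (m : ℤ × ℤ) {c : ℕ}
    (hc : ((nrC th th1 m).filter fun m' => ∃ y0 ∈ S m',
      pn th κ (cen th m') (y0 - TuG373.D w y (cen th m')) ≤ Y).card = c) {B τ v : ℝ≥0∞}
    (hv : v ≤ B * ∑ m2 ∈ nearC th th1 m, Jk (n1 + 4) th κ (umc th g) S w y m2 + τ) :
    v ^ 2 ≤ 3 * B ^ 2 * W0 * (c : ℝ≥0∞) * AdN n0 th κ g S (nrC th th1) m w y +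
      (3 * B ^ 2 * ENNReal.ofReal (81 * (th⁻¹) ^ 2) * W0 *
        ENNReal.ofReal (2 ^ n1 * (Y ^ n1)⁻¹) * ENNReal.ofReal (Enc g) + 3 * τ ^ 2) := by
  set J : ℤ × ℤ → ℝ≥0∞ := fun m2 => Jk (n1 + 4) th κ (umc th g) S w y m2 with hJ
  set P : ℤ × ℤ → Prop := fun m' => ∃ y0 ∈ S m',
      pn th κ (cen th m') (y0 - TuG373.D w y (cen th m')) ≤ Y with hP
  have hsub : nearC th th1 m ⊆ nrC th th1 m := by
    intro m' hm'
    obtain ⟨h1, h2⟩ := mem_nearC.1 hm'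
    exact Finset.mem_filter.2 ⟨h1, h2.le⟩
  have hcap : ∀ m' ∈ nearC th th1 m, m' ∈ caps th := fun m' hm' => (mem_nearC.1 hm').1
  have hsplit : ∑ m2 ∈ nearC th th1 m, J m2 =
      ∑ m2 ∈ (nearC th th1 m).filter P, J m2 + ∑ m2 ∈ (nearC th th1 m).filter (fun m' => ¬ P m'),
        J m2 := (Finset.sum_filter_add_sum_filter_not _ _ _).symm
  have hin : (∑ m2 ∈ (nearC th th1 m).filter P, J m2) ^ 2 ≤
      (c : ℝ≥0∞) * (W0 * AdN n0 th κ g S (nrC th th1) m w y) := by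
    refine (sum_sq_ennreal _ _).trans (mul_le_mul' ?_ ?_)
    · rw [← hc]
      exact_mod_cast Finset.card_le_card (Finset.filter_subset_filter _ hsub)
    · unfold TuC373.AdN Cad538.Acc Cad538.Den
      rw [mul_left_comm, Finset.mul_sum]
      rw [Finset.mul_sum]
      refine (Finset.sum_le_sum fun m2 hm2 => ?_).trans
        (Finset.sum_le_sum_of_subset ((Finset.filter_subset _ _).trans hsub))
      have hm3 := hcap m2 (Finset.mem_filter.1 hm2).1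
      refine (Jk_in hn hth hκ hg.int (hS m2 hm3) w y).trans (le_of_eq ?_)
      ring
  have hout : (∑ m2 ∈ (nearC th th1 m).filter (fun m' => ¬ P m'), J m2) ^ 2 ≤
      ENNReal.ofReal (81 * (th⁻¹) ^ 2) * (W0 * (ENNReal.ofReal (2 ^ n1 * (Y ^ n1)⁻¹) *
        ENNReal.ofReal (Enc g))) := by
    refine (sum_sq_ennreal _ _).trans (mul_le_mul' ?_ ?_)
    · rw [← ENNReal.ofReal_natCast]
      refine ENNReal.ofReal_le_ofReal ((Nat.cast_le.2 (Finset.card_le_card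
        (fun m' hm' => hcap m' (Finset.mem_filter.1 hm').1))).trans
          (Tr126.card_caps hth hth1))
    · calc _ ≤ ∑ m2 ∈ (nearC th th1 m).filter (fun m' => ¬ P m'),
            W0 * (ENNReal.ofReal (2 ^ n1 * (Y ^ n1)⁻¹) * ∫⁻ x, ‖umc th g m2 x‖ₑ ^ 2) := by
            refine Finset.sum_le_sum fun m2 hm2 => ?_
            obtain ⟨hm3, hm4⟩ := Finset.mem_filter.1 hm2
            refine Jk_out n1 hth hth1 hκ hκ1 hY hg.int (hS m2 (hcap m2 hm3)) ?_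
            intro x hx
            by_contra hcon
            exact hm4 ⟨x, hx, not_lt.1 hcon⟩
        _ = W0 * (ENNReal.ofReal (2 ^ n1 * (Y ^ n1)⁻¹) *
            ∑ m2 ∈ (nearC th th1 m).filter (fun m' => ¬ P m'), ∫⁻ x, ‖umc th g m2 x‖ₑ ^ 2) := by
            rw [Finset.mul_sum, Finset.mul_sum]
        _ ≤ _ := by
            refine mul_le_mul' le_rfl (mul_le_mul' le_rfl (le_trans ?_
              (Ba449.sum_lint_umc hg hth)))
            exact Finset.sum_le_sum_of_subset fun m' hm' => hcap m' (Finset.mem_filter.1 hm').1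
  calc v ^ 2 ≤ (B * ∑ m2 ∈ nearC th th1 m, J m2 + τ) ^ 2 := pow_le_pow_left₀ zero_le hv 2
    _ = (B * ∑ m2 ∈ (nearC th th1 m).filter P, J m2 +
          B * ∑ m2 ∈ (nearC th th1 m).filter (fun m' => ¬ P m'), J m2 + τ) ^ 2 := by
        rw [hsplit, mul_add]
    _ ≤ 3 * ((B * ∑ m2 ∈ (nearC th th1 m).filter P, J m2) ^ 2 +
          (B * ∑ m2 ∈ (nearC th th1 m).filter (fun m' => ¬ P m'), J m2) ^ 2 + τ ^ 2) := sq3 _ _ _
    _ ≤ 3 * (B ^ 2 * ((c : ℝ≥0∞) * (W0 * AdN n0 th κ g S (nrC th th1) m w y)) +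
          B ^ 2 * (ENNReal.ofReal (81 * (th⁻¹) ^ 2) * (W0 *
            (ENNReal.ofReal (2 ^ n1 * (Y ^ n1)⁻¹) * ENNReal.ofReal (Enc g)))) + τ ^ 2) := by
        rw [mul_pow, mul_pow]
        gcongr
    _ = _ := by ring

end Crest.Agent.R116.DcU894
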