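import Crest.Agent.R116.TuS_363

/-!
# R116 (S0155), wave side: the two analytic sources of the tube step (helper373)

`USRC` = (U) along the path (helper894), `ESRC` = (E) along the path (helper229), over 363's literals
`Uat`, `Eat`; consumed by `TuZ_373` (proof of `GlC210.TUBE`).
-/

set_option autoImplicit false

open MeasureTheory
open scoped ENNReal

namespace Crest.Agent.R116.TuZ373

open Crest.Agent.R138.Defs (E2)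
open Crest.Agent.R116.CDef480 Crest.Agent.R116.WC188 Crest.Agent.R116.GlC210

/-- **(U)** along the path, all pairs `i < j` of levels. -/
def USRC (M q : ℝ) : Prop := ∀ n : ℕ, ∃ Kv : ℕ,
  ∀ (Lw n0 : ℕ) (a b A e1 M0 T : ℝ), Rg a b A e1 → 4 ≤ n0 →
  ∃ K1 : ℕ, ∀ K : ℕ, K1 ≤ K → ∀ A' Cn : ℝ, 1 ≤ A' → 1 ≤ Cn → ∃ C : ℝ, 1 ≤ C ∧
  ∀ κ η0 C0 σ g R D, Ss M κ q a b M0 η0 C0 σ g R D → Kp a R κ → C ≤ R →
  ∀ dl ν : ℝ, 0 < dl → C * dl ≤ 1 → κ ≤ dl ^ (4 * (Lw : ℝ)) → 1 ≤ ν → ν ≤ R →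
  ∀ L : ℕ → Lev, Tow M κ q A A' a b Cn K η0 C0 σ g R dl ν n L →
  ∀ i j k : ℕ, i < j → j ≤ n → j ≤ i + 4 * Lw → k < (L j).n →
    TuS363.Uat n0 κ g R dl (R ^ e1) L j i k (C * ν ^ Kv)
      (ENNReal.ofReal (C * R ^ (-T) * Enc g))

/-- **(E)** along the path, all pairs `i < j` of levels. -/
def ESRC (M q : ℝ) : Prop := ∀ n : ℕ, ∃ Kv : ℕ,
  ∀ (Lw n0 : ℕ) (a b A e1 M0 T : ℝ), Rg a b A e1 → 4 ≤ n0 →
  ∃ K1 : ℕ, ∀ K : ℕ, K1 ≤ K → ∀ A' Cn : ℝ, 1 ≤ A' → 1 ≤ Cn → ∃ C : ℝ, 1 ≤ C ∧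
  ∀ κ η0 C0 σ g R D, Ss M κ q a b M0 η0 C0 σ g R D → Kp a R κ → C ≤ R →
  ∀ dl ν : ℝ, 0 < dl → C * dl ≤ 1 → κ ≤ dl ^ (4 * (Lw : ℝ)) → 1 ≤ ν → ν ≤ R →
  ∀ L : ℕ → Lev, Tow M κ q A A' a b Cn K η0 C0 σ g R dl ν n L →
  ∀ i j k : ℕ, i < j → j ≤ n → j ≤ i + 4 * Lw → k < (L j).n →
    TuS363.Eat n0 κ g R dl (R ^ e1) L j i k (C * ν ^ Kv)
      (ENNReal.ofReal (C * R ^ (-T) * Enc g))

end Crest.Agent.R116.TuZ373
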