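import Crest.Agent.R116.DcU3_894
import Crest.Agent.R116.TuZ0_373

/-!
# R116 (S0155), wave side, W12 TUBE: (U) along the path, part 4 (helper894)

`U_of` : the interface Prop `Uat` of `TuS_363` for every pair of levels `i < j ≤ n` of a tower and
every label of level `j`, `Cu = C ν^(2 n)`, tail `C R^(-T) Enc g`.
-/

set_option autoImplicit false

open MeasureTheory
open scoped ENNReal

namespace Crest.Agent.R116.DcU894

open Crest.Agent.R138.Defs (E2)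
open Crest.Agent.R138.Wpk685 (cen caps)
open Crest.Agent.R116.CDef480 Crest.Agent.R116.WC188 Crest.Agent.R116.GlC210
open Crest.Agent.R116.Cad538 (W0 W0_lt)
open Crest.Agent.R116.Dch229 (nearC Path)
open Crest.Agent.R116.TuD373 (tht nrC pz)
open Crest.Agent.R116.TuS363 (Uat cntU pz_self pz_succ pz_mem' tht_pos tht_inv tht_le_one
  rad_pos rad_anti)

/-! ### the path of a frame and a label -/

theorem pz_fr (L : ℕ → Lev) : ∀ (j l : ℕ) (z : E3 × ℝ), l < j →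
    pz L j l z = (L l).ζ (pz L j (l + 1) z) := by
  intro j
  induction j with
  | zero => intro l z h; omega
  | succ j ih =>
    intro l z h
    rw [pz_succ L (by omega)]
    rcases Nat.lt_or_ge l j with h1 | h1
    · rw [ih l _ h1, pz_succ L (by omega)]
    · have : l = j := by omega
      subst this
      rw [pz_self, pz_self]

section tow

variable {M κ q A A' a b Cn : ℝ} {K : ℕ} {η0 : ℝ} {C0 : E2} {σ : ℝ} {g : E3 → ℂ} {R dl ν : ℝ}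
  {n : ℕ} {L : ℕ → Lev}

theorem anc_self (L : ℕ → Lev) (j k : ℕ) : anc L j j k = k := AsmP597.up_self _ _ _

theorem path_pz (hT : Tow M κ q A A' a b Cn K η0 C0 σ g R dl ν n L) {i j : ℕ} (hjn : j ≤ n)
    {z : E3 × ℝ} (hz : z ∈ (L j).Z) {k : ℕ} (hk : k < (L j).n) :
    Path L i j (fun l => pz L j l z) (fun l => anc L j l k) := by
  refine ⟨fun l _ h2 => pz_mem' hT h2 hjn hz, fun l _ h2 => ?_, fun l _ h2 => pz_fr L j l z h2,
    fun l _ h2 => ?_⟩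
  · exact AsmP597.up_lt _ (fun t => (L t).n) (n := n) (fun t ht k hk => (hT.next t ht).par_lt k hk)
      j l hjn h2 k hk
  · exact AsmP597.par_up _ j l k h2

end tow

theorem umc_trc_zero {g : E3 → ℂ} (hg : ∀ ζ, g ζ = 0) (ρ : ℝ) (z : E3 × ℝ) (m : ℤ × ℤ) (y : E3) :
    umc ρ (trc z g) m y = 0 := by
  have e : trc z g = fun _ => 0 := by
    funext ζ
    unfold trc
    rw [hg, zero_mul]
  rw [e]
  exact Bas367.umc_zero m y

/-- scalar bound of the tails. -/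
theorem tail_scal {R ν k1 w Cn T e1 : ℝ} {n n1 d K : ℕ} (hR : 1 ≤ R) (hν : 1 ≤ ν) (hνR : ν ≤ R)
    (hk1 : 1 ≤ k1) (hw : 0 ≤ w) (hCn : 0 ≤ Cn) (hd : d + 1 ≤ n)
    (hn1 : T + 2 * n + 1 ≤ e1 * n1) (hK : T + 4 * n + 2 ≤ 2 * K) :
    3 * ((ν * k1) ^ (d + 1)) ^ 2 * (81 * R) * w * (2 ^ n1 * ((R ^ e1) ^ n1)⁻¹) +
      3 * ((2 * ν * k1 * R) ^ (d + 1) * (Cn * ν * R ^ (-(K : ℝ)))) ^ 2 ≤
    (243 * k1 ^ (2 * n) * w * 2 ^ n1 + 3 * (2 * k1) ^ (2 * n) * Cn ^ 2) * R ^ (-T) := by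
  have hR0 : 0 < R := by linarith
  have hν0 : 0 < ν := by linarith
  have h1 : ((ν * k1) ^ (d + 1)) ^ 2 ≤ k1 ^ (2 * n) * R ^ (2 * n) := by
    rw [← pow_mul, ← mul_pow]
    have hb : 1 ≤ k1 * R := by nlinarith
    calc (ν * k1) ^ ((d + 1) * 2) ≤ (k1 * R) ^ ((d + 1) * 2) :=
          pow_le_pow_left₀ (by positivity) (by nlinarith) _
      _ ≤ (k1 * R) ^ (2 * n) := pow_le_pow_right₀ hb (by omega)
  have h2 : ((2 * ν * k1 * R) ^ (d + 1)) ^ 2 ≤ (2 * k1) ^ (2 * n) * R ^ (4 * n) := by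
    have e : (2 * k1) ^ (2 * n) * R ^ (4 * n) = (2 * k1 * R ^ 2) ^ (2 * n) := by
      rw [mul_pow (2 * k1), ← pow_mul]
      congr 2
      ring
    rw [← pow_mul, e]
    have hR2 : 1 ≤ R ^ 2 := one_le_pow₀ hR
    have hb : 1 ≤ 2 * k1 * R ^ 2 := by nlinarith
    calc (2 * ν * k1 * R) ^ ((d + 1) * 2) ≤ (2 * k1 * R ^ 2) ^ ((d + 1) * 2) := by
          refine pow_le_pow_left₀ (by positivity) ?_ _
          calc 2 * ν * k1 * R ≤ 2 * R * k1 * R := by gcongr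
            _ = _ := by ring
      _ ≤ _ := pow_le_pow_right₀ hb (by omega)
  have e1' : ((R ^ e1) ^ n1)⁻¹ = R ^ (-(e1 * n1)) := by
    rw [← Real.rpow_natCast, ← Real.rpow_mul hR0.le, ← Real.rpow_neg hR0.le]
  have e2 : R ^ (2 * n) * R * R ^ (-(e1 * n1)) ≤ R ^ (-T) := by
    rw [← pow_succ, ← Real.rpow_natCast, ← Real.rpow_add hR0]
    refine Real.rpow_le_rpow_of_exponent_le hR ?_
    push_cast
    linarith
  have e3 : R ^ (4 * n) * (R * R ^ (-(K : ℝ))) ^ 2 ≤ R ^ (-T) := by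
    have : (R * R ^ (-(K : ℝ))) ^ 2 = R ^ (2 - 2 * (K : ℝ)) := by
      nth_rewrite 1 [← Real.rpow_one R]
      rw [← Real.rpow_add hR0, ← Real.rpow_natCast, ← Real.rpow_mul hR0.le]
      congr 1
      push_cast
      ring
    rw [this, ← Real.rpow_natCast, ← Real.rpow_add hR0]
    refine Real.rpow_le_rpow_of_exponent_le hR ?_
    push_cast
    linarith
  have p0 : 0 ≤ R ^ (-(K : ℝ)) := (Real.rpow_pos_of_pos hR0 _).le
  have p1 : 0 ≤ R ^ (-(e1 * n1)) := (Real.rpow_pos_of_pos hR0 _).le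
  rw [e1', add_mul]
  refine add_le_add ?_ ?_
  · calc 3 * ((ν * k1) ^ (d + 1)) ^ 2 * (81 * R) * w * (2 ^ n1 * R ^ (-(e1 * n1)))
        ≤ 3 * (k1 ^ (2 * n) * R ^ (2 * n)) * (81 * R) * w * (2 ^ n1 * R ^ (-(e1 * n1))) := by
          gcongr
      _ = 243 * k1 ^ (2 * n) * w * 2 ^ n1 * (R ^ (2 * n) * R * R ^ (-(e1 * n1))) := by ring
      _ ≤ _ := by gcongr
  · calc 3 * ((2 * ν * k1 * R) ^ (d + 1) * (Cn * ν * R ^ (-(K : ℝ)))) ^ 2
        = 3 * (((2 * ν * k1 * R) ^ (d + 1)) ^ 2 * (Cn * ν * R ^ (-(K : ℝ))) ^ 2) := by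
          rw [mul_pow]
      _ ≤ 3 * (((2 * k1) ^ (2 * n) * R ^ (4 * n)) * (Cn * R * R ^ (-(K : ℝ))) ^ 2) := by
          gcongr
      _ = 3 * (2 * k1) ^ (2 * n) * Cn ^ 2 * (R ^ (4 * n) * (R * R ^ (-(K : ℝ))) ^ 2) := by ring
      _ ≤ _ := by gcongr

theorem tail_all {R ν k1 w Cn T e1 h E C : ℝ} {n n1 d K : ℕ} (hR : 1 ≤ R) (hν : 1 ≤ ν)
    (hνR : ν ≤ R) (hk1 : 1 ≤ k1) (hw : 0 ≤ w) (hCn : 0 ≤ Cn) (hd : d + 1 ≤ n)
    (hn1 : T + 2 * n + 1 ≤ e1 * n1) (hK : T + 4 * n + 2 ≤ 2 * K) (hh : h ≤ R)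
    (hE : 0 ≤ E)
    (hC : 243 * k1 ^ (2 * n) * w * 2 ^ n1 + 3 * (2 * k1) ^ (2 * n) * Cn ^ 2 ≤ C) :
    3 * ((ν * k1) ^ (d + 1)) ^ 2 * (81 * h) * w * (2 ^ n1 * ((R ^ e1) ^ n1)⁻¹) * E +
      3 * ((2 * ν * k1 * R) ^ (d + 1) * (Cn * ν * R ^ (-(K : ℝ)) * √E)) ^ 2 ≤
    C * R ^ (-T) * E := by
  have hR0 : 0 < R := by linarith
  have ht := tail_scal (e1 := e1) (T := T) hR hν hνR hk1 hw hCn hd hn1 hK
  have h6 : 0 ≤ R ^ (-T) := (Real.rpow_pos_of_pos hR0 _).le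
  have hs := Real.sq_sqrt hE
  have hY : 0 ≤ ((R ^ e1) ^ n1)⁻¹ :=
    inv_nonneg.2 (pow_nonneg (Real.rpow_pos_of_pos hR0 e1).le _)
  have e2 : ((2 * ν * k1 * R) ^ (d + 1) * (Cn * ν * R ^ (-(K : ℝ)) * √E)) ^ 2 =
      ((2 * ν * k1 * R) ^ (d + 1) * (Cn * ν * R ^ (-(K : ℝ)))) ^ 2 * E := by
    calc _ = ((2 * ν * k1 * R) ^ (d + 1) * (Cn * ν * R ^ (-(K : ℝ)))) ^ 2 * √E ^ 2 := by
          ring
      _ = _ := by rw [hs]
  rw [e2]
  set X : ℝ := ((ν * k1) ^ (d + 1)) ^ 2 with hX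
  set Z : ℝ := ((2 * ν * k1 * R) ^ (d + 1) * (Cn * ν * R ^ (-(K : ℝ)))) ^ 2 with hZ
  set Y : ℝ := ((R ^ e1) ^ n1)⁻¹ with hYd
  have hX0 : 0 ≤ X := sq_nonneg _
  have h7 : 3 * X * (81 * h) * w * (2 ^ n1 * Y) * E ≤ 3 * X * (81 * R) * w * (2 ^ n1 * Y) * E := by
    have h8 : 3 * X * (81 * h) ≤ 3 * X * (81 * R) :=
      mul_le_mul_of_nonneg_left (by linarith) (by positivity)
    have h9 : 0 ≤ (2:ℝ) ^ n1 * Y := mul_nonneg (by positivity) hY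
    exact mul_le_mul_of_nonneg_right (mul_le_mul_of_nonneg_right
      (mul_le_mul_of_nonneg_right h8 hw) h9) hE
  have h10 := mul_le_mul_of_nonneg_right ht hE
  have h11 := mul_le_mul_of_nonneg_right (mul_le_mul_of_nonneg_right hC h6) hE
  calc 3 * X * (81 * h) * w * (2 ^ n1 * Y) * E + 3 * (Z * E)
      ≤ 3 * X * (81 * R) * w * (2 ^ n1 * Y) * E + 3 * (Z * E) := add_le_add h7 le_rfl
    _ = (3 * X * (81 * R) * w * (2 ^ n1 * Y) + 3 * Z) * E := by ring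
    _ ≤ _ := h10
    _ ≤ _ := h11

theorem enn_main {x w : ℝ} (hx : 0 ≤ x) :
    3 * ENNReal.ofReal x ^ 2 * ENNReal.ofReal w = ENNReal.ofReal (3 * x ^ 2 * w) := by
  rw [show (3 : ℝ≥0∞) = ENNReal.ofReal 3 by norm_num, ← ENNReal.ofReal_pow hx,
    ← ENNReal.ofReal_mul (by positivity), ← ENNReal.ofReal_mul (by positivity)]

theorem enn_tail {x y w v E t : ℝ} (hx : 0 ≤ x) (hy : 0 ≤ y) (hw : 0 ≤ w) (hv : 0 ≤ v)
    (hE : 0 ≤ E) (ht : 0 ≤ t) :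
    3 * ENNReal.ofReal x ^ 2 * ENNReal.ofReal y * ENNReal.ofReal w * ENNReal.ofReal v *
      ENNReal.ofReal E + 3 * ENNReal.ofReal t ^ 2 =
      ENNReal.ofReal (3 * x ^ 2 * y * w * v * E + 3 * t ^ 2) := by
  rw [show (3 : ℝ≥0∞) = ENNReal.ofReal 3 by norm_num, ← ENNReal.ofReal_pow hx,
    ← ENNReal.ofReal_pow ht]
  have h3 : (0:ℝ) ≤ 3 := by norm_num
  have h1 : 0 ≤ 3 * x ^ 2 := by positivity
  have h2 : 0 ≤ 3 * x ^ 2 * y := by positivity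
  have h4 : 0 ≤ 3 * x ^ 2 * y * w := by positivity
  have h5 : 0 ≤ 3 * x ^ 2 * y * w * v := by positivity
  have h6 : 0 ≤ 3 * x ^ 2 * y * w * v * E := by positivity
  have h7 : 0 ≤ 3 * t ^ 2 := by positivity
  rw [ENNReal.ofReal_add h6 h7, ENNReal.ofReal_mul h5, ENNReal.ofReal_mul h4,
    ENNReal.ofReal_mul h2, ENNReal.ofReal_mul h1, ENNReal.ofReal_mul h3, ENNReal.ofReal_mul h3]

/-- **(U) along the path.** -/
theorem U_of (n n0 : ℕ) {a A e1 : ℝ} (T : ℝ) (ha : 1 ≤ a) (hA : 1 ≤ A) (he : 0 < e1) :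
    ∃ K1 : ℕ, ∀ K : ℕ, K1 ≤ K → ∀ A' Cn : ℝ, 0 ≤ A' → 0 ≤ Cn → ∃ C : ℝ, 1 ≤ C ∧
    ∀ (M κ q b M0 η0 : ℝ) (C0 : E2) (σ : ℝ) (g : E3 → ℂ) (R D : ℝ), b ≤ 2 →
      Ss M κ q a b M0 η0 C0 σ g R D → Kp a R κ → ∀ dl ν : ℝ, 0 < dl → C * dl ≤ 1 → 1 ≤ ν → ν ≤ R →
      ∀ L : ℕ → Lev, Tow M κ q A A' a b Cn K η0 C0 σ g R dl ν n L →
      ∀ i j : ℕ, i < j → j ≤ n → κ * tht R dl j ≤ tht R dl i → ∀ k < (L j).n,
        Uat n0 κ g R dl (R ^ e1) L j i k (C * ν ^ (2 * n))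
          (ENNReal.ofReal (C * R ^ (-T) * Enc g)) := by
  set n1 : ℕ := max n0 ⌈(T + 2 * n + 1) / e1⌉₊ with hn1
  have hn01 : n0 ≤ n1 := le_max_left _ _
  have hn1e : T + 2 * n + 1 ≤ e1 * n1 := by
    have h1 : (T + 2 * n + 1) / e1 ≤ n1 :=
      (Nat.le_ceil _).trans (Nat.cast_le.2 (le_max_right _ _))
    rw [div_le_iff₀ he] at h1
    linarith
  refine ⟨⌈T⌉₊ + 2 * n + 1, fun K hK A' Cn hA' hCn => ?_⟩
  have hKT : T + 4 * n + 2 ≤ 2 * K := by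
    have h1 : T ≤ ⌈T⌉₊ := Nat.le_ceil T
    have h2 : ((⌈T⌉₊ + 2 * n + 1 : ℕ) : ℝ) ≤ K := by exact_mod_cast hK
    push_cast at h2
    have h3 : (0:ℝ) ≤ ⌈T⌉₊ := Nat.cast_nonneg _
    linarith
  obtain ⟨k1, hk1, hch⟩ := chain ha (n1 + 4)
  set w : ℝ := W0.toReal with hw
  have hw0 : 0 ≤ w := ENNReal.toReal_nonneg
  have hW : W0 = ENNReal.ofReal w := (ENNReal.ofReal_toReal W0_lt.ne).symm
  set c1 : ℝ := 243 * k1 ^ (2 * n) * w * 2 ^ n1 + 3 * (2 * k1) ^ (2 * n) * Cn ^ 2 with hc1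
  have hc10 : 0 ≤ c1 := by positivity
  set C : ℝ := 16 + A' + 3 * k1 ^ (2 * n) * w + c1 with hC
  have hC2 : 0 ≤ 3 * k1 ^ (2 * n) * w := by positivity
  refine ⟨C, by linarith, ?_⟩
  intro M κ q b M0 η0 C0 σ g R D hb hSs hKp dl ν hdl hCdl hν hνR L hT i j hij hjn hst k hk
  have hR1 : 1 ≤ R := hSs.R1
  have hR0 : 0 < R := by linarith
  have hκ := hKp.k0
  have hκ1 : κ ≤ 1 := by linarith [hKp.k4]
  have ha0 : 0 < a := by linarith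
  have hκa : κ ≤ (4 * (2 * a))⁻¹ := by
    rw [le_inv_comm₀ hκ (by positivity), inv_eq_one_div, le_div_iff₀ hκ]
    linarith [hKp.ka]
  have h16 : 16 * dl ≤ 1 := by nlinarith
  have hdA : A' * dl ≤ 1 := by nlinarith
  have hn1' : 1 ≤ n := by omega
  have hdR : dl⁻¹ ≤ R := by
    have h1 := (hT.ok 1 hn1').lo
    rw [hT.rad 1 hn1', pow_one] at h1
    have h2 : 1 ≤ R ^ (1/2 : ℝ) := Real.one_le_rpow hR1 (by norm_num)
    rw [inv_le_iff_one_le_mul₀ hdl]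
    linarith
  have hri : 1 ≤ R * dl ^ i := by
    have h1 := Dch229.one_le_r (hT.ok i (by omega)) hR1
    rwa [hT.rad i (by omega)] at h1
  have hdl1 : dl ≤ 1 := by linarith
  intro z hz p hp m y hy
  have hysl : y ∈ (L j).sl z k m := Dch229.mem_sl.2 ⟨p, hp, hy⟩
  by_cases hg0 : ∀ ζ, g ζ = 0
  · rw [umc_trc_zero hg0]
    simp
  push Not at hg0
  obtain ⟨ξ, hξ⟩ := hg0
  have hη := Bas367.eta_lower (fun ζ h => (hSs.supp ζ h).1) hSs.slc hξ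
  have hη' := Bas367.eta_upper (fun ζ h => (hSs.supp ζ h).2.1) hSs.slc hξ
  have hη1 : (2 * a)⁻¹ ≤ η0 := by
    have e4 : (2 * a)⁻¹ = a⁻¹ / 2 := by rw [mul_inv]; ring
    have h8 : κ ≤ a⁻¹ / 2 := by
      rw [inv_eq_one_div, div_div, le_div_iff₀ (by positivity)]
      have := hKp.ka
      nlinarith
    rw [e4]
    linarith
  have hη2 : η0 ≤ 2 * a := by linarith [hKp.k4]
  have hgd := Ba449.St.gd ha hb hSs.toSt
  obtain ⟨d, rfl⟩ : ∃ d, j = i + 1 + d := ⟨j - (i + 1), by omega⟩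
  have hpath := path_pz hT (i := i) hjn hz hk
  have hv := hch hκ hκ1 hκa hη1 hη2 hA hCn hgd.int hR1 hdl h16 hdA hdR hν hT hjn hst hpath d le_rfl
    m y (by
      change y ∈ (L (i + 1 + d)).sl (pz L (i + 1 + d) (i + 1 + d) z)
        (anc L (i + 1 + d) (i + 1 + d) k) m
      rw [pz_self, anc_self]
      exact hysl)
  rw [pz_self] at hv
  have hS : ∀ m ∈ caps (tht R dl i), MeasurableSet ((L i).sl (pz L (i + 1 + d) i z)
      (anc L (i + 1 + d) i k) m) := fun m _ =>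
    Dch229.sl_meas (hT.ok i (by omega)) (hpath.mem i le_rfl (by omega))
      (hpath.lab i le_rfl (by omega)) m
  have hu := usq (n0 := n0) hn01 (tht_pos hR0 hdl i) (tht_le_one hri) hκ hκ1
    (Real.rpow_pos_of_pos hR0 e1) (hgd.trc (pz L (i + 1 + d) i z)) hS
    (z - pz L (i + 1 + d) i z) y m (c := cntU κ R dl (R ^ e1) L (i + 1 + d) i z
      (anc L (i + 1 + d) i k) m y) rfl hv
  rw [Ba449.Enc_trc] at hu
  have hE : 0 ≤ Enc g := Ba449.Enc_nonneg g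
  have hν0 : 0 < ν := by linarith
  have hk10 : 0 < k1 := by linarith
  set θ : ℝ := Cn * ν * R ^ (-(K : ℝ)) * √(Enc g) with hθ
  have hθ0 : 0 ≤ θ := by
    have h6 : 0 ≤ R ^ (-(K : ℝ)) := (Real.rpow_pos_of_pos hR0 _).le
    positivity
  refine hu.trans (add_le_add ?_ ?_)
  · refine mul_le_mul' (mul_le_mul' ?_ le_rfl) le_rfl
    rw [hW, enn_main (by positivity)]
    refine ENNReal.ofReal_le_ofReal ?_
    have h1 : ((ν * k1) ^ (d + 1)) ^ 2 ≤ ν ^ (2 * n) * k1 ^ (2 * n) := by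
      rw [← pow_mul, ← mul_pow]
      exact pow_le_pow_right₀ (by nlinarith) (by omega)
    calc 3 * ((ν * k1) ^ (d + 1)) ^ 2 * w ≤ 3 * (ν ^ (2 * n) * k1 ^ (2 * n)) * w := by gcongr
      _ = (3 * k1 ^ (2 * n) * w) * ν ^ (2 * n) := by ring
      _ ≤ C * ν ^ (2 * n) := by
          gcongr
          rw [hC]
          linarith
  · have hY : 0 < R ^ e1 := Real.rpow_pos_of_pos hR0 e1
    have hinv : (tht R dl i)⁻¹ ^ 2 ≤ R := by
      rw [tht_inv hR0 hdl, TuS363.sqrt_sq hR0 hdl]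
      calc R * dl ^ i ≤ R * 1 := by gcongr; exact pow_le_one₀ hdl.le hdl1
        _ = R := mul_one R
    have hinv0 : 0 ≤ (tht R dl i)⁻¹ ^ 2 := by positivity
    have p1 : 0 ≤ (ν * k1) ^ (d + 1) := by positivity
    have p2 : 0 ≤ 81 * (tht R dl i)⁻¹ ^ 2 := by positivity
    have p3 : 0 ≤ 2 ^ n1 * ((R ^ e1) ^ n1)⁻¹ := by positivity
    have p4 : 0 ≤ (2 * ν * k1 * R) ^ (d + 1) * θ := by positivity
    rw [hW, enn_tail p1 p2 hw0 p3 hE p4]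
    refine ENNReal.ofReal_le_ofReal ?_
    exact tail_all hR1 hν hνR hk1 hw0 hCn (by omega : d + 1 ≤ n) hn1e hKT hinv hE (by
      rw [hC]; linarith)

/-- **USRC** (373's literal). -/
theorem usrc (M q : ℝ) : TuZ373.USRC M q := by
  intro n
  refine ⟨2 * n, ?_⟩
  intro Lw n0 a b A e1 M0 T hrg hn0
  obtain ⟨K1, h⟩ := U_of n n0 T hrg.a1 hrg.A1 hrg.e0
  refine ⟨K1, fun K hK A' Cn hA' hCn => ?_⟩
  obtain ⟨C, hC, h2⟩ := h K hK A' Cn (by linarith) (by linarith)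
  refine ⟨C, hC, ?_⟩
  intro κ η0 C0 σ g R D hSs hKp _ dl ν hdl hCdl hκ hν hνR L hT i j k hij hjn hjw hk
  have hR0 : 0 < R := by linarith [hSs.R1]
  refine h2 M κ q b M0 η0 C0 σ g R D hrg.b2.le hSs hKp dl ν hdl hCdl hν hνR L hT i j hij hjn ?_ k hk
  exact TuS363.kap_tht hR0 hdl (by nlinarith) hκ hij.le hjw

end Crest.Agent.R116.DcU894
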