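import Crest.Agent.R116.Dch9_229

/-!
# R116 (S0155), wave side: from the kernel form to `Uat` (helper229)

`Kat` = kernel form of (U) along the path; `Uat_of_Kat` : Cauchy–Schwarz, split into the `Y`-plate
and its complement, count.
-/

set_option autoImplicit false

open MeasureTheory FourierTransform
open scoped ContDiff ENNReal

namespace Crest.Agent.R116.Dch229

open Crest.Agent.R138.Defs (E2 ee)
open Crest.Agent.R138.Wpk685 (cen caps cap win)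
open Crest.Agent.R116.CDef480 Crest.Agent.R116.WC188 Crest.Agent.R116.GlC210
open Crest.Agent.R116.Ckm538 Crest.Agent.R116.Cad538
open Crest.Agent.R116.TuD373 Crest.Agent.R116.TuS363
open Crest.Agent.R116.F1c124 (kc kc_wt kc_cs sum_sq_ennreal)

/-- **kernel form of (U) along the path**. -/
def Kat (N' : ℕ) (κ : ℝ) (g : E3 → ℂ) (R dl : ℝ) (L : ℕ → Lev) (j i k : ℕ) (B τ : ℝ) : Prop :=
  ∀ z ∈ (L j).Z, ∀ m, ∀ y ∈ (L j).sl z k m,
    ‖umc (tht R dl j) (trc z g) m y‖ₑ ≤ ENNReal.ofReal B *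
      (∑ m2 ∈ nearC (tht R dl i) (tht R dl j) m, ∫⁻ x in (L i).sl (pz L j i z) (anc L j i k) m2,
        ENNReal.ofReal (kc N' (tht R dl i) κ (cen (tht R dl i) m2)
          (TuG373.D (z - pz L j i z) y (cen (tht R dl i) m2) - x)) *
          ‖umc (tht R dl i) (trc (pz L j i z) g) m2 x‖ₑ) + ENNReal.ofReal τ

theorem add_sq_enn (x y : ℝ≥0∞) : (x + y) ^ 2 ≤ 2 * x ^ 2 + 2 * y ^ 2 := by
  have h := sum_sq_ennreal (Finset.univ : Finset Bool) (fun b => if b then x else y)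
  simp only [Fintype.sum_bool, Finset.card_univ, Fintype.card_bool, if_true] at h
  refine h.trans (le_of_eq ?_)
  simp only [Bool.false_eq_true, if_false]
  push_cast
  ring

open Classical in
/-- split of the square of a sum. -/
theorem sq_split {ι : Type*} (s : Finset ι) (P : ι → Prop) (f x e : ι → ℝ≥0∞) {η : ℝ≥0∞}
    (h1 : ∀ m ∈ s, P m → f m ^ 2 ≤ x m) (h2 : ∀ m ∈ s, ¬ P m → f m ^ 2 ≤ η * e m) :
    (∑ m ∈ s, f m) ^ 2 ≤ 2 * (((s.filter P).card : ℝ≥0∞) * ∑ m ∈ s.filter P, x m) +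
      2 * ((s.card : ℝ≥0∞) * (η * ∑ m ∈ s, e m)) := by
  rw [← Finset.sum_filter_add_sum_filter_not s P f]
  refine (add_sq_enn _ _).trans (add_le_add (mul_le_mul' le_rfl ?_) (mul_le_mul' le_rfl ?_))
  · refine (sum_sq_ennreal _ f).trans (mul_le_mul' le_rfl (Finset.sum_le_sum fun m hm => ?_))
    obtain ⟨a1, a2⟩ := Finset.mem_filter.1 hm
    exact h1 m a1 a2
  · refine (sum_sq_ennreal _ f).trans (mul_le_mul' ?_ ?_)
    · exact_mod_cast Finset.card_le_card (Finset.filter_subset _ s)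
    · rw [Finset.mul_sum]
      refine (Finset.sum_le_sum fun m hm => ?_).trans
        (Finset.sum_le_sum_of_subset (Finset.filter_subset _ s))
      obtain ⟨a1, a2⟩ := Finset.mem_filter.1 hm
      exact h2 m a1 a2

theorem kc_anti {n n' : ℕ} (h : n ≤ n') {ρ κ : ℝ} (hρ : 0 < ρ) (hκ : 0 < κ) (C : E2) (x : E3) :
    kc n' ρ κ C x ≤ kc n ρ κ C x := by
  rw [kc_wt n' hρ hκ, kc_wt n hρ hκ]
  exact mul_le_mul_of_nonneg_left (wt_anti _ h _) (by positivity)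

theorem kc_le_one {n : ℕ} {ρ κ : ℝ} (hρ : 0 < ρ) (hρ1 : ρ ≤ 1) (hκ : 0 < κ) (hκ1 : κ ≤ 1) (C : E2)
    (x : E3) : kc n ρ κ C x ≤ 1 := by
  rw [kc_wt n hρ hκ]
  have h1 := wt_le_one (frc ρ κ C) n x
  have h2 := (wt_pos (frc ρ κ C) n x).le
  have h3 : ρ ^ 2 * κ ≤ 1 := by
    have : ρ ^ 2 ≤ 1 := pow_le_one₀ hρ.le hρ1
    nlinarith
  have h4 : 0 ≤ ρ ^ 2 * κ := by positivity
  nlinarith

theorem kc_far {n N : ℕ} {ρ κ : ℝ} (hρ : 0 < ρ) (hρ1 : ρ ≤ 1) (hκ : 0 < κ) (hκ1 : κ ≤ 1) (C : E2)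
    {x : E3} {s : ℝ} (hs : 0 < s) (hx : s ≤ ‖frc ρ κ C x‖) : kc (n + N) ρ κ C x ≤ (s ^ N)⁻¹ := by
  have h1 := kc_le_one (n := n) hρ hρ1 hκ hκ1 C x
  rw [kc_wt n hρ hκ] at h1
  rw [kc_wt (n + N) hρ hκ]
  have h2 : wt (frc ρ κ C) (n + N) x ≤ wt (frc ρ κ C) n x * (s ^ N)⁻¹ := by
    unfold wt
    rw [← mul_inv, pow_add]
    refine inv_anti₀ (by positivity) ?_
    gcongr
    linarith
  have h3 : 0 ≤ (s ^ N)⁻¹ := by positivity
  calc ρ ^ 2 * κ * wt (frc ρ κ C) (n + N) x ≤ ρ ^ 2 * κ * (wt (frc ρ κ C) n x * (s ^ N)⁻¹) := by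
        gcongr
    _ = (ρ ^ 2 * κ * wt (frc ρ κ C) n x) * (s ^ N)⁻¹ := by ring
    _ ≤ 1 * (s ^ N)⁻¹ := by gcongr
    _ = _ := one_mul _

theorem pn_le_frc {th kp : ℝ} (hth : 0 ≤ th) (hkp : 0 ≤ kp) (C : E2) (x : E3) :
    TuG373.pn th kp C x ≤ 2 * ‖frc th kp C x‖ := by
  unfold TuG373.pn
  have h1 := lat_le_frc (kp := kp) hth C x
  have h2 := nrm_le_frc (th := th) hkp C x
  linarith

/-- **from the kernel form to `Uat`**, explicit tails. -/
theorem Uat_of_Kat {a : ℝ} (ha : 1 ≤ a) {M κ q A A' b Cn : ℝ} {K : ℕ} {M0 η0 : ℝ} {C0 : E2} {σ : ℝ}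
    {g : E3 → ℂ} {R D dl ν : ℝ} {n : ℕ} {L : ℕ → Lev}
    (h : Stg M κ q A A' a b Cn K M0 η0 C0 σ g R D dl ν n L) (hb : b ≤ 2) {i j k : ℕ} (hij : i ≤ j)
    (hj : j ≤ n) (hk : k < (L j).n) {n0 N : ℕ} {B τ : ℝ} (hB : 0 ≤ B) (hτ : 0 ≤ τ)
    (hK : Kat (n0 + N + 4) κ g R dl L j i k B τ) {Y : ℝ} (hY : 0 < Y) :
    Uat n0 κ g R dl Y L j i k (4 * B ^ 2 * W0.toReal)
      (ENNReal.ofReal (4 * B ^ 2 * W0.toReal * (81 * R) * ((Y / 2) ^ N)⁻¹ * Enc g + 2 * τ ^ 2)) := by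
  classical
  intro z hz p hp m y hy
  have hyS : y ∈ (L j).sl z k m := mem_sl.2 ⟨p, hp, hy⟩
  have h1 := hK z hz m y hyS
  have hri : (L i).r ^ (-(1/2) : ℝ) = tht R dl i := by rw [h.tow.rad i (hij.trans hj)]; rfl
  have hthi : 0 < tht R dl i := by rw [← hri]; exact h.th0 (hij.trans hj)
  have hthi1 : tht R dl i ≤ 1 := by rw [← hri]; exact h.th1 (hij.trans hj)
  have hκ1 : κ ≤ 1 := (CWd480.kap_range ha h.k8).2
  have hp1 := path_of h.tow hj hz hk (i := i)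
  have hzi := hp1.mem i le_rfl hij
  have hki := hp1.lab i le_rfl hij
  have hoki := h.tow.ok i (hij.trans hj)
  set ρ : ℝ := tht R dl i with hρ
  set w : E3 × ℝ := pz L j i z with hw
  set k' : ℕ := anc L j i k with hk'
  have hgi : Integrable (trc w g) := ((A1k229.nice_of_St h.ss.toSt).trc _).int (by linarith)
  have hW0 : W0 = ENNReal.ofReal W0.toReal := (ENNReal.ofReal_toReal W0_lt.ne).symm
  have hW00 : 0 ≤ W0.toReal := ENNReal.toReal_nonneg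
  have hE0 : 0 ≤ Enc g := integral_nonneg fun ζ => by positivity
  have hR := h.R1
  have hk0 := h.k0
  set f : ℤ × ℤ → ℝ≥0∞ := fun m2 => ∫⁻ x in (L i).sl w k' m2,
    ENNReal.ofReal (kc (n0 + N + 4) ρ κ (cen ρ m2) (TuG373.D (z - w) y (cen ρ m2) - x)) *
      ‖umc ρ (trc w g) m2 x‖ₑ with hf
  set P : ℤ × ℤ → Prop := fun m2 => ∃ y0 ∈ (L i).sl w k' m2,
    TuG373.pn ρ κ (cen ρ m2) (y0 - TuG373.D (z - w) y (cen ρ m2)) ≤ Y with hP
  have hum : ∀ m2, Measurable fun x => ‖umc ρ (trc w g) m2 x‖ₑ ^ 2 := fun m2 =>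
    A1k229.umc_meas hgi m2
  have hcs : ∀ m2, f m2 ^ 2 ≤ W0 * ∫⁻ x in (L i).sl w k' m2,
      ENNReal.ofReal (kc (n0 + N) ρ κ (cen ρ m2) (TuG373.D (z - w) y (cen ρ m2) - x)) *
        ‖umc ρ (trc w g) m2 x‖ₑ ^ 2 := fun m2 =>
    kc_cs hthi h.k0 _ _ (sl_meas hoki hzi hki m2) (A1k229.umc_cont hgi m2)
  set xx : ℤ × ℤ → ℝ≥0∞ := fun m2 => W0 * (ENNReal.ofReal (ρ ^ 2 * κ) *
    ∫⁻ x in (L i).sl w k' m2, ENNReal.ofReal (wt (frc ρ κ (cen ρ m2)) n0
      (x - ((z - w).1 + y) - (z - w).2 • vel (cen ρ m2))) * ‖umc ρ (trc w g) m2 x‖ₑ ^ 2) with hxx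
  set ee' : ℤ × ℤ → ℝ≥0∞ := fun m2 => ∫⁻ x in (L i).sl w k' m2, ‖umc ρ (trc w g) m2 x‖ₑ ^ 2
    with hee
  have hnear : ∀ m2 ∈ nearC ρ (tht R dl j) m, P m2 → f m2 ^ 2 ≤ xx m2 := by
    intro m2 _ _
    refine (hcs m2).trans (mul_le_mul' le_rfl ?_)
    rw [← lintegral_const_mul' _ _ ENNReal.ofReal_ne_top]
    refine lintegral_mono fun x => ?_
    rw [← mul_assoc, ← ENNReal.ofReal_mul (by positivity)]
    refine mul_le_mul' (ENNReal.ofReal_le_ofReal ?_) le_rfl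
    refine (kc_anti (Nat.le_add_right n0 N) hthi h.k0 _ _).trans (le_of_eq ?_)
    have e2 : TuG373.D (z - w) y (cen ρ m2) - x = y + (z - w).1 + (z - w).2 • vel (cen ρ m2) - x := by
      unfold TuG373.D
      abel
    rw [e2]
    exact Crest.Agent.R116.F1c124.kc_adc n0 hthi h.k0 _ _ _ _
  have hfar : ∀ m2 ∈ nearC ρ (tht R dl j) m, ¬ P m2 → f m2 ^ 2 ≤
      (W0 * ENNReal.ofReal (((Y / 2) ^ N)⁻¹)) * ee' m2 := by
    intro m2 _ hn
    refine (hcs m2).trans ?_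
    rw [mul_assoc]
    refine mul_le_mul' le_rfl ?_
    rw [hee, ← lintegral_const_mul' _ _ ENNReal.ofReal_ne_top]
    refine setLIntegral_mono' (sl_meas hoki hzi hki m2) fun x hx => ?_
    refine mul_le_mul' (ENNReal.ofReal_le_ofReal ?_) le_rfl
    refine kc_far hthi hthi1 h.k0 hκ1 _ (by positivity) ?_
    by_contra hc
    push Not at hc
    apply hn
    refine ⟨x, hx, ?_⟩
    have e3 : x - TuG373.D (z - w) y (cen ρ m2) = -(TuG373.D (z - w) y (cen ρ m2) - x) := by abel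
    rw [e3, TuG373.pn_neg]
    have := pn_le_frc hthi.le h.k0.le (cen ρ m2) (TuG373.D (z - w) y (cen ρ m2) - x)
    linarith
  have hsq := sq_split (nearC ρ (tht R dl j) m) P f xx ee' hnear hfar
  have hcnt : (((nearC ρ (tht R dl j) m).filter P).card : ℝ≥0∞) ≤
      (cntU κ R dl Y L j i z k' m y : ℝ≥0∞) := by
    unfold cntU
    have : ((nearC ρ (tht R dl j) m).filter P).card ≤
        ((nrC (tht R dl i) (tht R dl j) m).filter fun m' => ∃ y0 ∈ (L i).sl (pz L j i z) k' m',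
          TuG373.pn (tht R dl i) κ (cen (tht R dl i) m')
          (y0 - TuG373.D (z - pz L j i z) y (cen (tht R dl i) m')) ≤ Y).card := by
      refine Finset.card_le_card fun m2 hm2 => ?_
      obtain ⟨a1, a2⟩ := Finset.mem_filter.1 hm2
      obtain ⟨a3, a4⟩ := mem_nearC.1 a1
      exact Finset.mem_filter.2 ⟨Finset.mem_filter.2 ⟨a3, a4.le⟩, a2⟩
    convert (Nat.cast_le (α := ℝ≥0∞)).2 this
  have hsum1 : ∑ m2 ∈ (nearC ρ (tht R dl j) m).filter P, xx m2 ≤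
      W0 * dns n0 κ g R dl L j i z k' m (z - w) y := by
    rw [hxx, ← Finset.mul_sum, ← Finset.mul_sum]
    unfold dns TuC373.AdN Cad538.Acc Den
    refine mul_le_mul' le_rfl (mul_le_mul' le_rfl ?_)
    refine Finset.sum_le_sum_of_subset fun m2 hm2 => ?_
    obtain ⟨a1, a2⟩ := mem_nearC.1 (Finset.mem_filter.1 hm2).1
    exact Finset.mem_filter.2 ⟨a1, a2.le⟩
  have hsum2 : ∑ m2 ∈ nearC ρ (tht R dl j) m, ee' m2 ≤ ENNReal.ofReal (Enc g) := by
    refine le_trans ?_ (TuL890.enc_le_Enc ha hb h.ss.toSt hthi w ((L i).sl w k'))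
    unfold enc
    exact Finset.sum_le_sum_of_subset fun m2 hm2 => (mem_nearC.1 hm2).1
  have hcard : ((nearC ρ (tht R dl j) m).card : ℝ≥0∞) ≤ ENNReal.ofReal (81 * R) := by
    rw [← ENNReal.ofReal_natCast]
    refine ENNReal.ofReal_le_ofReal ?_
    have h7 : (nearC ρ (tht R dl j) m).card ≤ (caps ρ).card := Finset.card_le_card fun m hm =>
      (mem_nearC.1 hm).1
    have h8 := A1k229.card_caps_le hthi hthi1
    have h9 : (ρ ^ 2)⁻¹ = (L i).r := by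
      rw [← hri]
      exact inv_eq_of_mul_eq_one_left (r_th (by linarith [h.r1 (hij.trans hj)]))
    rw [h9] at h8
    have h10 := hoki.hi
    calc ((nearC ρ (tht R dl j) m).card : ℝ) ≤ ((caps ρ).card : ℝ) := by exact_mod_cast h7
      _ ≤ 81 * (L i).r := h8
      _ ≤ 81 * R := by linarith
  calc ‖umc (tht R dl j) (trc z g) m y‖ₑ ^ 2
      ≤ (ENNReal.ofReal B * (∑ m2 ∈ nearC ρ (tht R dl j) m, f m2) + ENNReal.ofReal τ) ^ 2 := by
        gcongr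
    _ ≤ 2 * (ENNReal.ofReal B * (∑ m2 ∈ nearC ρ (tht R dl j) m, f m2)) ^ 2 +
        2 * ENNReal.ofReal τ ^ 2 := add_sq_enn _ _
    _ = 2 * ENNReal.ofReal B ^ 2 * (∑ m2 ∈ nearC ρ (tht R dl j) m, f m2) ^ 2 +
        2 * ENNReal.ofReal τ ^ 2 := by rw [mul_pow, mul_assoc]
    _ ≤ 2 * ENNReal.ofReal B ^ 2 * (2 * ((cntU κ R dl Y L j i z k' m y : ℝ≥0∞) *
          (W0 * dns n0 κ g R dl L j i z k' m (z - w) y)) +
          2 * (ENNReal.ofReal (81 * R) * ((W0 * ENNReal.ofReal (((Y / 2) ^ N)⁻¹)) *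
            ENNReal.ofReal (Enc g)))) + 2 * ENNReal.ofReal τ ^ 2 := by
        refine add_le_add (mul_le_mul' le_rfl (hsq.trans (add_le_add ?_ ?_))) le_rfl
        · exact mul_le_mul' le_rfl (mul_le_mul' hcnt hsum1)
        · exact mul_le_mul' le_rfl (mul_le_mul' hcard (mul_le_mul' le_rfl hsum2))
    _ = (4 * ENNReal.ofReal B ^ 2 * W0) * (cntU κ R dl Y L j i z k' m y : ℝ≥0∞) *
          dns n0 κ g R dl L j i z k' m (z - w) y +
        ((4 * ENNReal.ofReal B ^ 2 * W0) * ENNReal.ofReal (81 * R) *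
          ENNReal.ofReal (((Y / 2) ^ N)⁻¹) * ENNReal.ofReal (Enc g) +
          2 * ENNReal.ofReal τ ^ 2) := by ring
    _ = _ := by
        have e5 : (4 : ℝ≥0∞) * ENNReal.ofReal B ^ 2 * W0 =
            ENNReal.ofReal (4 * B ^ 2 * W0.toReal) := by
          rw [ENNReal.ofReal_mul (by positivity), ENNReal.ofReal_mul (by norm_num),
            ENNReal.ofReal_pow hB, ← hW0, ENNReal.ofReal_ofNat]
        have e6 : (2 : ℝ≥0∞) * ENNReal.ofReal τ ^ 2 = ENNReal.ofReal (2 * τ ^ 2) := by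
          rw [ENNReal.ofReal_mul (by norm_num), ENNReal.ofReal_pow hτ, ENNReal.ofReal_ofNat]
        rw [e5, e6, ← ENNReal.ofReal_mul (by positivity), ← ENNReal.ofReal_mul (by positivity),
          ← ENNReal.ofReal_mul (by positivity), ← ENNReal.ofReal_add (by positivity)
            (by positivity)]

end Crest.Agent.R116.Dch229
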