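import Crest.Agent.R116.F1c2_124
import Crest.Agent.R116.DeDef_295
import Crest.Agent.R116.Tr1_126

/-!
# R116 (S0155), wave side, DECc: the input `RESTc` of `DeDef_295` (helper126)

`rest : RESTc`.  The rest `g - selc η0 κ ρ g S` in the frame `z'` at level `ρ' ≥ ρ` is, by 124's
exact formulas `f1_root_eq` / `f1_sel_eq`, the sum over the near caps of
`∫_{y ∉ S m} umc ρ g m y * Kn (X + z'.1 - y)`, and there `|X + z'.1 + z'.2 vel C - y| ≥ r`.
-/

set_option autoImplicit false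

open MeasureTheory FourierTransform
open scoped ContDiff ENNReal

namespace Crest.Agent.R116.Rst126

open Crest.Agent.R138.Defs (E2 ee)
open Crest.Agent.R138.Wpk685 (win fat cen caps)
open Crest.Agent.R138.Wf448
open Crest.Agent.R138.Loc878 (Near nearL mem_nearL)
open Crest.Agent.R116.CWp480 Crest.Agent.R116.CDef480 Crest.Agent.R116.CWc480
open Crest.Agent.R116.CWd480 Crest.Agent.R116.F1c124 Crest.Agent.R116.De295
open Crest.Agent.R116.Bas367 (Bsc)

/-! ### geometry -/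

theorem norm2_le {x : E2} {a : ℝ} (h0 : |x 0| ≤ a) (h1 : |x 1| ≤ a) : ‖x‖ ≤ 2 * a := by
  have ha : 0 ≤ a := (abs_nonneg _).trans h0
  have h := normsq2 x
  have e0 := sq_abs (x 0)
  have e1 := sq_abs (x 1)
  have f0 := abs_nonneg (x 0)
  have f1 := abs_nonneg (x 1)
  have : ‖x‖ ^ 2 ≤ (2 * a) ^ 2 := by
    rw [h, ← e0, ← e1]
    nlinarith
  exact le_of_sq_le_sq this (by positivity)

theorem norm3_le (X : E3) : ‖X‖ ≤ ‖lat X‖ + |X 2| := by
  have h := normsq3 X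
  have e0 := sq_abs (X 2)
  have : ‖X‖ ^ 2 ≤ (‖lat X‖ + |X 2|) ^ 2 := by
    rw [h, ← e0]
    nlinarith [norm_nonneg (lat X), abs_nonneg (X 2)]
  exact le_of_sq_le_sq this (by positivity)

theorem norm_cen_caps {ρ : ℝ} (hρ : 0 < ρ) (hρ1 : ρ ≤ 1) {m : ℤ × ℤ} (hm : m ∈ caps ρ) :
    ‖cen ρ m‖ ≤ 8 := by
  unfold caps at hm
  rw [Finset.mem_product, Finset.mem_Icc, Finset.mem_Icc] at hm
  have hc : (⌈2 / ρ⌉ : ℝ) < 2 / ρ + 1 := Int.ceil_lt_add_one _
  have key : ∀ k : ℤ, -⌈2 / ρ⌉ - 1 ≤ k → k ≤ ⌈2 / ρ⌉ + 1 → |ρ * k| ≤ 4 := by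
    intro k h1 h2
    have h3 : (k : ℝ) ≤ 2 / ρ + 2 := by
      have : (k : ℝ) ≤ ⌈2 / ρ⌉ + 1 := by exact_mod_cast h2
      linarith
    have h4 : -(2 / ρ + 2) ≤ (k : ℝ) := by
      have : (-⌈2 / ρ⌉ - 1 : ℝ) ≤ k := by exact_mod_cast h1
      linarith
    have h5 : ρ * (2 / ρ + 2) = 2 + 2 * ρ := by field_simp
    rw [abs_le]
    constructor
    · nlinarith
    · nlinarith
  have := norm2_le (x := cen ρ m) (a := 4)
    (by rw [Crest.Agent.R138.Wpk685.cen_zero]; exact key _ hm.1.1 hm.1.2)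
    (by rw [Crest.Agent.R138.Wpk685.cen_one]; exact key _ hm.2.1 hm.2.2)
  linarith

theorem norm_vel_le {C : E2} (h : ‖C‖ ≤ 8) : ‖vel C‖ ≤ 40 := by
  refine (norm3_le _).trans ?_
  unfold vel
  rw [lat_pt, pt_two, abs_div, abs_neg, abs_of_nonneg (sq_nonneg ‖C‖), abs_two]
  have := norm_nonneg C
  nlinarith

/-- lower bound of the plate norm. -/
theorem norm_Pl_ge {ρ κ : ℝ} (hρ : 0 < ρ) (hκ : ρ ≤ κ) {C : E2} (hC : ‖C‖ ≤ 8) (W : E3) :
    ρ * ‖W‖ ≤ 10 * ‖pt (ρ • lat W) (κ * (W 2 + inner ℝ C (lat W)))‖ := by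
  set P := pt (ρ • lat W) (κ * (W 2 + inner ℝ C (lat W))) with hP
  have h1 : ρ * ‖lat W‖ ≤ ‖P‖ := by
    have := norm_lat_le P
    rw [hP, lat_pt, norm_smul, Real.norm_eq_abs, abs_of_pos hρ, ← hP] at this
    exact this
  have h2 : κ * |W 2 + inner ℝ C (lat W)| ≤ ‖P‖ := by
    have := abs_two_le P
    rw [hP, pt_two, abs_mul, abs_of_pos (lt_of_lt_of_le hρ hκ), ← hP] at this
    exact this
  have h3 : |inner ℝ C (lat W)| ≤ 8 * ‖lat W‖ :=
    (abs_real_inner_le_norm _ _).trans (mul_le_mul_of_nonneg_right hC (norm_nonneg _))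
  have h4 : |W 2| ≤ |W 2 + inner ℝ C (lat W)| + |inner ℝ C (lat W)| := by
    have := abs_sub (W 2 + inner ℝ C (lat W)) (inner ℝ C (lat W))
    rw [add_sub_cancel_right] at this
    exact this
  have h5 := norm3_le W
  have h6 : ρ * |W 2 + inner ℝ C (lat W)| ≤ κ * |W 2 + inner ℝ C (lat W)| :=
    mul_le_mul_of_nonneg_right hκ (abs_nonneg _)
  have h7 : ρ * ‖W‖ ≤ ρ * (‖lat W‖ + (|W 2 + inner ℝ C (lat W)| + 8 * ‖lat W‖)) := by
    apply mul_le_mul_of_nonneg_left _ hρ.le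
    linarith
  nlinarith

/-! ### the kernel far away -/

theorem lint_kc {ρ κ : ℝ} (hρ : 0 < ρ) (hκ : 0 < κ) (C : E2) (x : E3) :
    ∫⁻ y, ENNReal.ofReal (kc (dd E3) ρ κ C (x - y)) = ENNReal.ofReal (cd3 E3) := by
  have h1 : ∀ y, ENNReal.ofReal (kc (dd E3) ρ κ C (x - y)) =
      ENNReal.ofReal (adet (Pl ρ κ hρ hκ C : E3 →L[ℝ] E3)) * dec3 (Pl ρ κ hρ hκ C (x - y)) := by
    intro y
    rw [kc_eq _ hρ hκ, ENNReal.ofReal_mul (adet0 _).le]
    rfl
  simp only [h1]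
  rw [lintegral_const_mul' _ _ ENNReal.ofReal_ne_top, lintegral_scale (Pl ρ κ hρ hκ C) dec3 x,
    lintegral_dec3, ← mul_assoc, ← ENNReal.ofReal_mul (adet0 _).le,
    mul_inv_cancel₀ (adet0 _).ne', ENNReal.ofReal_one, one_mul]

theorem kc_far {n : ℕ} {ρ κ r : ℝ} (hρ : 0 < ρ) (hκ : ρ ≤ κ) (hr : 0 < r) {C : E2} (hC : ‖C‖ ≤ 8)
    {W : E3} (hW : r ≤ ‖W‖) :
    kc (n + dd E3) ρ κ C W ≤ (10 * (ρ * r)⁻¹) ^ n * kc (dd E3) ρ κ C W := by
  unfold kc
  set P := ‖pt (ρ • lat W) (κ * (W 2 + inner ℝ C (lat W)))‖ with hP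
  have h1 : ρ * r ≤ 10 * P :=
    (mul_le_mul_of_nonneg_left hW hρ.le).trans (norm_Pl_ge hρ hκ hC W)
  have h0 : 0 < ρ * r := by positivity
  have hP0 : 0 < P := by linarith
  have h2 : (1 + P)⁻¹ ≤ 10 * (ρ * r)⁻¹ := by
    rw [← div_eq_mul_inv, inv_eq_one_div, div_le_div_iff₀ (by positivity) h0]
    linarith
  have h3 : ((1 + P) ^ (n + dd E3))⁻¹ ≤ (10 * (ρ * r)⁻¹) ^ n * ((1 + P) ^ dd E3)⁻¹ := by
    rw [pow_add, mul_inv, ← inv_pow]
    exact mul_le_mul_of_nonneg_right (pow_le_pow_left₀ (by positivity) h2 n) (by positivity)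
  have hκ0 : 0 < κ := lt_of_lt_of_le hρ hκ
  calc ρ ^ 2 * κ * ((1 + P) ^ (n + dd E3))⁻¹
      ≤ ρ ^ 2 * κ * ((10 * (ρ * r)⁻¹) ^ n * ((1 + P) ^ dd E3)⁻¹) := by gcongr
    _ = _ := by ring

/-! ### the L¹ norm -/

theorem lint_norm_le {a b : ℝ} (ha : 1 ≤ a) (hb : 0 ≤ b) {g : E3 → ℂ} (hg : Tr126.Sp a b g)
    (hm : Measurable g) {L : ℝ} (hL : ∀ ζ, ‖g ζ‖ ≤ L) :
    ∫⁻ ζ, ‖g ζ‖ₑ ≤ ENNReal.ofReal
      (Real.sqrt (volume (Metric.closedBall (0 : E3) (a * (b + 1)))).toReal *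
        Real.sqrt (Enc g)) := by
  set B := Metric.closedBall (0 : E3) (a * (b + 1)) with hB
  have hBf : volume B ≠ ⊤ := measure_closedBall_lt_top.ne
  have h1 := lint_sq_le (f := fun ζ : E3 => ‖g ζ‖ₑ) (g := B.indicator 1)
    hm.enorm.aemeasurable
    ((measurable_one.indicator Metric.isClosed_closedBall.measurableSet).aemeasurable)
  have h2 : ∀ y, ‖g y‖ₑ * B.indicator (1 : E3 → ℝ≥0∞) y = ‖g y‖ₑ := by
    intro y
    by_cases h : g y = 0
    · rw [h]; simp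
    · rw [Set.indicator_of_mem]
      · simp
      · rw [hB, mem_closedBall_zero_iff]; exact hg.norm_le ha hb h
  simp only [h2] at h1
  have h3 : ∫⁻ y, B.indicator (1 : E3 → ℝ≥0∞) y = ENNReal.ofReal (volume B).toReal := by
    rw [lintegral_indicator_one Metric.isClosed_closedBall.measurableSet,
      ENNReal.ofReal_toReal hBf]
  have h4 : ∫⁻ y, ‖g y‖ₑ ^ 2 * B.indicator (1 : E3 → ℝ≥0∞) y ≤ ENNReal.ofReal (Enc g) := by
    rw [Tr126.ofReal_Enc (Tr126.memLp_of ha hb hg hm hL 2)]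
    refine lintegral_mono fun y => ?_
    by_cases h : y ∈ B
    · rw [Set.indicator_of_mem h]; simp
    · rw [Set.indicator_of_notMem h]; simp
  rw [h3] at h1
  have h5 : (∫⁻ ζ, ‖g ζ‖ₑ) ^ 2 ≤ (ENNReal.ofReal
      (Real.sqrt (volume B).toReal * Real.sqrt (Enc g))) ^ 2 := by
    refine h1.trans ((mul_le_mul_right h4 _).trans ?_)
    rw [← ENNReal.ofReal_mul ENNReal.toReal_nonneg, ← ENNReal.ofReal_pow (by positivity), mul_pow,
      Real.sq_sqrt ENNReal.toReal_nonneg, Real.sq_sqrt (Tr126.Enc_nonneg g)]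
  exact (ENNReal.pow_le_pow_left_iff (by norm_num)).1 h5

/-! ### the rest: exact formula and bound -/

theorem Pc_int {N : ℕ} {Q ρ ρ' τ : ℝ} {e : E3 → ℂ} {C C' : E2} {B : E3 ≃L[ℝ] E3} {c : E3}
    (h : Pc N Q ρ ρ' τ e C C' B c) : Integrable (Kn e ρ ρ' τ C C') := by
  obtain ⟨a, ha, hk, _⟩ := h.kn
  have e1 : Kn e ρ ρ' τ C C' = fun x => 𝓕⁻ (CWp480.cap a c B) (x + τ • vel C) := funext hk
  rw [e1]
  exact (Kf_int ha c B).comp_add_right _

/-- exact formula of the rest. -/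
theorem rest_eq {N : ℕ} {Q ρ ρ' κ η0 : ℝ} (hρ : 0 < ρ) (hρ' : ρ ≤ ρ') (hκ : 0 < κ)
    {z : E3 × ℝ} {m' : ℤ × ℤ} {B : ℤ × ℤ → E3 ≃L[ℝ] E3} {c : ℤ × ℤ → E3}
    (hP : ∀ m ∈ nearL ρ ρ' m', Pc N Q ρ ρ' z.2 (etw η0 κ) (cen ρ m) (cen ρ' m') (B m) (c m))
    {g : E3 → ℂ} (hg : Integrable g) (hs : ∀ ζ, g ζ ≠ 0 → etw η0 κ ζ = 1 ∧ ‖slp ζ‖ ≤ 2)
    {S : ℤ × ℤ → Set E3} (hS : Bsc ρ S) (X : E3) :
    umc ρ' (trc z (fun ζ => g ζ - selc η0 κ ρ g S ζ)) m' X = ∑ m ∈ nearL ρ ρ' m',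
      ∫ y, (S m)ᶜ.indicator (umc ρ g m) y *
        Kn (etw η0 κ) ρ ρ' z.2 (cen ρ m) (cen ρ' m') (X + z.1 - y) := by
  have hsel := (Bas367.selc_int (η0 := η0) hκ hρ hg hS).1
  have e0 : trc z (fun ζ => g ζ - selc η0 κ ρ g S ζ) =
      fun ζ => trc z g ζ + (-1) * trc z (selc η0 κ ρ g S) ζ := by
    funext ζ
    unfold trc
    ring
  have hi1 : Integrable (trc z g) := Bas367.trc_int hg z
  have hi2 : Integrable (fun ζ => (-1) * trc z (selc η0 κ ρ g S) ζ) :=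
    (Bas367.trc_int hsel z).const_mul (-1)
  have hind : ∀ m ∈ caps ρ, Integrable ((S m).indicator (umc ρ g m)) := fun m hm =>
    ind_int hg ρ m (hS.meas m hm) (hS.bdd m hm)
  rw [e0, Bas367.umc_add hi1 hi2, Bas367.umc_const_mul, f1_root_eq hρ hρ' hP hg hs X,
    f1_sel_eq hρ hρ' hP hind X, neg_one_mul, ← sub_eq_add_neg, ← Finset.sum_sub_distrib]
  refine Finset.sum_congr rfl fun m hm => ?_
  have hmc : m ∈ caps ρ := (mem_nearL.1 hm).1
  have hK : Integrable (fun y => Kn (etw η0 κ) ρ ρ' z.2 (cen ρ m) (cen ρ' m') (X + z.1 - y)) :=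
    (Pc_int (hP m hm)).comp_sub_left _
  obtain ⟨L, _, hL⟩ := Bas367.umc_bdd ρ g m
  have hc := Bas367.umc_cont hg ρ m
  have h1 : Integrable (fun y => umc ρ g m y *
      Kn (etw η0 κ) ρ ρ' z.2 (cen ρ m) (cen ρ' m') (X + z.1 - y)) :=
    hK.bdd_mul (c := L) hc.aestronglyMeasurable (Filter.Eventually.of_forall hL)
  have h2 : Integrable (fun y => (S m).indicator (umc ρ g m) y *
      Kn (etw η0 κ) ρ ρ' z.2 (cen ρ m) (cen ρ' m') (X + z.1 - y)) :=
    hK.bdd_mul (c := L) (hc.measurable.indicator (hS.meas m hmc)).aestronglyMeasurable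
      (Filter.Eventually.of_forall fun y => (norm_indicator_le_norm_self _ _).trans (hL y))
  rw [← integral_sub h1 h2]
  congr 1
  funext y
  by_cases hy : y ∈ S m
  · rw [Set.indicator_of_mem hy, Set.indicator_of_notMem (by simpa using hy)]
    ring
  · rw [Set.indicator_of_notMem hy, Set.indicator_of_mem (by simpa using hy)]
    ring

/-- **D4 (REST)** of `DeDef_295`. -/
theorem rest : RESTc := by
  intro a b A ha hb hb2 hA
  refine ⟨43 * A, by linarith, fun K => ?_⟩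
  obtain ⟨Q, K1, hK1, hkn⟩ := kn_sliced (a := 2 * a) (by linarith) (2 * K + 2 + dd E3) A
  set vB : ℝ := Real.sqrt (volume (Metric.closedBall (0 : E3) (a * (b + 1)))).toReal with hvB
  refine ⟨K1 * (81 * (10 ^ (2 * K + 2) * cd3 E3 * vB)), by
    have := cd3_nonneg (V := E3)
    positivity, ?_⟩
  intro κ η0 r hκ hκa hr hκr g hg S hS hSb r' hr'1 hr' z hz m' X hX
  have hr0 : 0 < r := by linarith
  have hr'0 : 0 < r' := by linarith
  set ρ : ℝ := r ^ (-(1/2) : ℝ) with hρd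
  set ρ' : ℝ := r' ^ (-(1/2) : ℝ) with hρ'd
  have hρ : 0 < ρ := Real.rpow_pos_of_pos hr0 _
  have hρ1 : ρ ≤ 1 := Real.rpow_le_one_of_one_le_of_nonpos hr (by norm_num)
  have hρρ' : ρ ≤ ρ' := Real.rpow_le_rpow_of_nonpos hr'0 hr' (by norm_num)
  have hρκ : ρ ≤ κ := by
    refine le_trans ?_ hκr
    exact Real.rpow_le_rpow_of_exponent_le hr (by norm_num)
  have hρ2 : ρ ^ 2 = r⁻¹ := by
    have := Tr126.rpow_half_sq hr0
    rw [← hρd, inv_pow] at this
    rw [← this, inv_inv]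
  have hρr : (ρ * r)⁻¹ = ρ := by
    have h1 : ρ * (ρ * r) = 1 := by
      rw [← mul_assoc, ← pow_two, hρ2, inv_mul_cancel₀ hr0.ne']
    exact inv_eq_of_mul_eq_one_left h1
  have hRHS : 0 ≤ K1 * (81 * (10 ^ (2 * K + 2) * cd3 E3 * vB)) * r ^ (-(K : ℝ)) *
      Real.sqrt (Enc g) := by
    have := cd3_nonneg (V := E3)
    positivity
  by_cases hne : ∃ ξ, g ξ ≠ 0
  swap
  · push Not at hne
    have h1 : (fun ζ => g ζ - selc η0 κ ρ g S ζ) = fun _ => 0 := by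
      funext ζ
      rw [hne ζ, zero_sub, neg_eq_zero]
      by_contra h2
      obtain ⟨-, ξ, hξ, -⟩ := Bas367.selc_near hκ hρ h2
      exact hξ (hne ξ)
    have h2 : trc z (fun _ : E3 => (0 : ℂ)) = fun _ => 0 := by
      funext ζ
      unfold trc
      rw [zero_mul]
    rw [h1, h2, Bas367.umc_zero, norm_zero]
    exact hRHS
  obtain ⟨ξ, hξ⟩ := hne
  obtain ⟨L, hL⟩ := hg.bdd
  have hsp : Tr126.Sp a b g := hg.supp
  have hgi : Integrable g := memLp_one_iff_integrable.1 (Tr126.memLp_of ha hb.le hsp hg.meas hL 1)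
  have ha0 : 0 < a := by linarith
  have hκ8 : κ ≤ (8 * a)⁻¹ := by
    rw [inv_eq_one_div, le_div_iff₀ (by positivity)]
    linarith
  have hai : a⁻¹ = 8 * (8 * a)⁻¹ := by field_simp
  have h2ai : (2 * a)⁻¹ = 4 * (8 * a)⁻¹ := by field_simp; norm_num
  have hη1 : (2 * a)⁻¹ ≤ η0 := by
    have := Bas367.eta_lower (fun ζ h => (hg.supp ζ h).1) hg.slc hξ
    rw [h2ai]; rw [hai] at this
    have : 0 < (8 * a)⁻¹ := by positivity
    linarith
  have hη2 : η0 ≤ 2 * a := by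
    have := Bas367.eta_upper (fun ζ h => (hg.supp ζ h).2.1) hg.slc hξ
    have h8 : (8 * a)⁻¹ ≤ 1 := inv_le_one_of_one_le₀ (by linarith)
    linarith
  have hτ : |z.2| * ρ ^ 2 ≤ A := by
    rw [hρ2, ← div_eq_mul_inv, div_le_iff₀ hr0]
    exact hz.2
  have hP := fun m (hm : m ∈ nearL ρ ρ' m') =>
    hkn η0 κ hη1 hη2 hκ (by rw [show 4 * (2 * a) = 8 * a by ring]; exact hκ8) ρ ρ' z.2 hρ hρρ' hτ
      (cen ρ m) (cen ρ' m') (mem_nearL.1 hm).2.le
  have hgs : ∀ ζ, g ζ ≠ 0 → etw η0 κ ζ = 1 ∧ ‖slp ζ‖ ≤ 2 := fun ζ hζ =>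
    ⟨Bas367.etw_one hκ ((hg.slc ζ hζ).trans (by linarith)), (hg.supp ζ hζ).2.2.trans hb2.le⟩
  have key : ‖umc ρ' (trc z (fun ζ => g ζ - selc η0 κ ρ g S ζ)) m' X‖ₑ ≤
      ENNReal.ofReal (K1 * (81 * (10 ^ (2 * K + 2) * cd3 E3 * vB)) * r ^ (-(K : ℝ)) *
      Real.sqrt (Enc g)) := by
    rw [rest_eq hρ hρρ' hκ (fun m hm => (hP m hm).1) hgi hgs hS X]
    refine (enorm_sum_conv _ hK1
      (b := fun m x => kc (2 * K + 2 + dd E3) ρ κ (cen ρ m) (x + z.2 • vel (cen ρ m)))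
      (fun m hm x => (hP m hm).2 x) (X + z.1)).trans ?_
    have hterm : ∀ m ∈ nearL ρ ρ' m', ∫⁻ y, ENNReal.ofReal
        (kc (2 * K + 2 + dd E3) ρ κ (cen ρ m) (X + z.1 - y + z.2 • vel (cen ρ m))) *
          ‖(S m)ᶜ.indicator (umc ρ g m) y‖ₑ ≤
        ENNReal.ofReal ((10 * ρ) ^ (2 * K + 2) * cd3 E3 * (vB * Real.sqrt (Enc g))) := by
      intro m hm
      have hmc : m ∈ caps ρ := (mem_nearL.1 hm).1
      have hC := norm_cen_caps hρ hρ1 hmc
      have hpt : ∀ y, ENNReal.ofReal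
        (kc (2 * K + 2 + dd E3) ρ κ (cen ρ m) (X + z.1 - y + z.2 • vel (cen ρ m))) *
          ‖(S m)ᶜ.indicator (umc ρ g m) y‖ₑ ≤
          ENNReal.ofReal ((10 * ρ) ^ (2 * K + 2) * (vB * Real.sqrt (Enc g))) *
            ENNReal.ofReal (kc (dd E3) ρ κ (cen ρ m) (X + z.1 + z.2 • vel (cen ρ m) - y)) := by
        intro y
        by_cases hy : y ∈ S m
        · rw [Set.indicator_of_notMem (by simpa using hy)]
          simp
        · rw [Set.indicator_of_mem (by simpa using hy)]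
          have hy2 : 43 * A * r < ‖y‖ := by
            by_contra hc
            push Not at hc
            exact hy (hSb m hmc (by rw [mem_closedBall_zero_iff]; exact hc))
          have h1 : ‖X + z.1 + z.2 • vel (cen ρ m)‖ ≤ 42 * A * r := by
            have e1 := norm_add_le (X + z.1) (z.2 • vel (cen ρ m))
            have e2 := norm_add_le X z.1
            have e3 : ‖z.2 • vel (cen ρ m)‖ ≤ (A * r) * 40 := by
              rw [norm_smul, Real.norm_eq_abs]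
              exact mul_le_mul hz.2 (norm_vel_le hC) (norm_nonneg _) (by positivity)
            have e4 := hz.1
            linarith
          have h2 : r ≤ ‖X + z.1 + z.2 • vel (cen ρ m) - y‖ := by
            have e1 := norm_sub_norm_le y (X + z.1 + z.2 • vel (cen ρ m))
            rw [norm_sub_rev] at e1
            have e2 : r ≤ A * r := le_mul_of_one_le_left hr0.le hA
            linarith
          have h3 := kc_far (n := 2 * K + 2) hρ hρκ hr0 hC h2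
          rw [hρr] at h3
          have h4 : ‖umc ρ g m y‖ₑ ≤ ENNReal.ofReal (vB * Real.sqrt (Enc g)) := by
            refine le_trans ?_ (lint_norm_le ha hb.le hsp hg.meas hL)
            rw [← ofReal_norm]
            refine (ENNReal.ofReal_le_ofReal (Bas367.umc_bound hgi ρ m y)).trans (le_of_eq ?_)
            rw [ofReal_integral_eq_lintegral_ofReal hgi.norm
              (Filter.Eventually.of_forall fun _ => norm_nonneg _)]
            simp only [ofReal_norm]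
          rw [show X + z.1 - y + z.2 • vel (cen ρ m) = X + z.1 + z.2 • vel (cen ρ m) - y by abel]
          refine (mul_le_mul' (ENNReal.ofReal_le_ofReal h3) h4).trans (le_of_eq ?_)
          rw [← ENNReal.ofReal_mul (mul_nonneg (by positivity) (kc_nonneg _ hκ.le _ _)),
            ← ENNReal.ofReal_mul (by positivity)]
          congr 1
          ring
      refine (lintegral_mono hpt).trans (le_of_eq ?_)
      rw [lintegral_const_mul' _ _ ENNReal.ofReal_ne_top, lint_kc hρ hκ,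
        ← ENNReal.ofReal_mul (by positivity)]
      congr 1
      ring
    refine (mul_le_mul_right (Finset.sum_le_sum hterm) _).trans ?_
    have hcd := cd3_nonneg (V := E3)
    rw [Finset.sum_const, nsmul_eq_mul, ← ENNReal.ofReal_natCast,
      ← ENNReal.ofReal_mul (by positivity), ← ENNReal.ofReal_mul hK1]
    apply ENNReal.ofReal_le_ofReal
    have hcard : ((nearL ρ ρ' m').card : ℝ) ≤ 81 * r := by
      have h1 : (nearL ρ ρ' m').card ≤ (caps ρ).card :=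
        Finset.card_le_card fun m hm => (mem_nearL.1 hm).1
      have h2 := Tr126.card_caps hρ hρ1
      rw [Tr126.rpow_half_sq hr0] at h2
      exact le_trans (by exact_mod_cast h1) h2
    have hpow : r * ρ ^ (2 * K + 2) = r ^ (-(K : ℝ)) := by
      rw [show 2 * K + 2 = 2 * (K + 1) by ring, pow_mul, hρ2, Real.rpow_neg hr0.le,
        Real.rpow_natCast, pow_succ, inv_pow]
      field_simp
    calc K1 * ((nearL ρ ρ' m').card * ((10 * ρ) ^ (2 * K + 2) * cd3 E3 *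
          (vB * Real.sqrt (Enc g))))
        ≤ K1 * ((81 * r) * ((10 * ρ) ^ (2 * K + 2) * cd3 E3 * (vB * Real.sqrt (Enc g)))) := by
          gcongr
      _ = K1 * (81 * (10 ^ (2 * K + 2) * cd3 E3 * vB)) * (r * ρ ^ (2 * K + 2)) *
          Real.sqrt (Enc g) := by
          rw [mul_pow]; ring
      _ = _ := by rw [hpow]
  rw [← ofReal_norm] at key
  exact (ENNReal.ofReal_le_ofReal_iff hRHS).1 key

end Crest.Agent.R116.Rst126
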