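import Crest.Agent.R116.F1c1_124

/-!
# R116 (S0155): (F1) in `l^1` form for the cone packets, part 2 (helper124)

* `f1_root_eq` / `f1_root` : packets of level `ρ' ≥ ρ` in the frame `z` from the packets of level
  `ρ` at time `0` (sliced `g`), `f1_root_u` (unsliced `g`, `κ = 1`).
* `f1_sel_eq` / `f1_sel` : the same for a selected wave `selc η0 κ ρ g S` (only the selection on the
  right hand side).
-/

set_option autoImplicit false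
set_option linter.unusedSectionVars false

open MeasureTheory FourierTransform
open scoped ContDiff ENNReal

namespace Crest.Agent.R116.F1c124

open Crest.Agent.R138.Wf448
open Crest.Agent.R138.Defs (E2 ee)
open Crest.Agent.R138.Wpk685 (win fat cen caps)
open Crest.Agent.R138.Loc878 (Near nearL mem_nearL capwin_prod)
open Crest.Agent.R116.CWp480 Crest.Agent.R116.CDef480 Crest.Agent.R116.CWc480
open Crest.Agent.R116.CWd480

/-! ### qualitative facts -/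

theorem measurable_capc {b : E2 → ℂ} (hb : Continuous b) (C : E2) (ρ : ℝ) :
    Measurable (fun ζ : E3 => Crest.Agent.R138.Wpk685.cap b C ρ (slp ζ)) := by
  unfold Crest.Agent.R138.Wpk685.cap
  exact hb.measurable.comp ((measurable_slp.sub_const C).const_smul ρ⁻¹)

theorem norm_cap_win_le (C : E2) (ρ : ℝ) (ξ : E2) :
    ‖Crest.Agent.R138.Wpk685.cap win C ρ ξ‖ ≤ 1 := Crest.Agent.R138.Wpk685.norm_win_le _

theorem capc_mul_int {g : E3 → ℂ} (hg : Integrable g) (ρ : ℝ) (m : ℤ × ℤ) :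
    Integrable (fun ζ => capc ρ m ζ * g ζ) :=
  hg.bdd_mul (c := 1) (measurable_capc Crest.Agent.R138.Wpk685.win_contDiff.continuous
    (cen ρ m) ρ).aestronglyMeasurable
    (Filter.Eventually.of_forall fun _ => norm_cap_win_le _ _ _)

theorem trc_int {g : E3 → ℂ} (hg : Integrable g) (z : E3 × ℝ) : Integrable (trc z g) := by
  unfold trc
  refine hg.mul_bdd (c := 1) ?_ (Filter.Eventually.of_forall fun _ =>
    (Crest.Agent.R138.Wpk685.norm_ee _).le)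
  exact (continuous_ee'.measurable.comp
    ((continuous_const.inner continuous_id).measurable.add
      (measurable_hc.const_mul z.2))).aestronglyMeasurable

theorem umc_cont {g : E3 → ℂ} (hg : Integrable g) (ρ : ℝ) (m : ℤ × ℤ) :
    Continuous (umc ρ g m) := fourierInv_continuous (capc_mul_int hg ρ m)

theorem umc_norm_le {g : E3 → ℂ} (ρ : ℝ) (m : ℤ × ℤ) (y : E3) :
    ‖umc ρ g m y‖ ≤ ∫ ζ, ‖capc ρ m ζ * g ζ‖ := by
  unfold umc
  rw [fourierInv_eq_int]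
  refine (norm_integral_le_integral_norm _).trans (le_of_eq ?_)
  congr 1
  ext ζ
  rw [norm_mul, Crest.Agent.R138.Wpk685.norm_ee, mul_one]

/-- the indicator of a bounded measurable set times a packet is integrable. -/
theorem ind_int {g : E3 → ℂ} (hg : Integrable g) (ρ : ℝ) (m : ℤ × ℤ) {S : Set E3}
    (hS : MeasurableSet S) (hb : Bornology.IsBounded S) :
    Integrable (S.indicator (umc ρ g m)) := by
  rw [integrable_indicator_iff hS]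
  exact IntegrableOn.of_bound hb.measure_lt_top (umc_cont hg ρ m).aestronglyMeasurable
    (∫ ζ, ‖capc ρ m ζ * g ζ‖) (Filter.Eventually.of_forall fun y => umc_norm_le ρ m y)

theorem capfat_supp {ρ : ℝ} (hρ : 0 < ρ) (C : E2) (ξ : E2)
    (h : Crest.Agent.R138.Wpk685.cap fat C ρ ξ ≠ 0) : ‖ξ - C‖ ≤ 3/2 * ρ := by
  by_contra hc
  push Not at hc
  apply h
  unfold Crest.Agent.R138.Wpk685.cap
  apply Crest.Agent.R138.Wpk685.fat_zero
  rw [norm_smul, Real.norm_eq_abs, abs_of_pos (inv_pos.2 hρ), le_inv_mul_iff₀ hρ]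
  linarith

theorem capfat_one {ρ : ℝ} (hρ : 0 < ρ) (C : E2) (ξ : E2)
    (h : ‖ξ - C‖ ≤ 71/50 * ρ) : Crest.Agent.R138.Wpk685.cap fat C ρ ξ = 1 := by
  unfold Crest.Agent.R138.Wpk685.cap
  apply Crest.Agent.R138.Wpk685.fat_one
  rw [norm_smul, Real.norm_eq_abs, abs_of_pos (inv_pos.2 hρ), inv_mul_le_iff₀ hρ]
  linarith

theorem capwin_fat_far {ρ ρ' : ℝ} (hρ : 0 < ρ) (hρ' : ρ ≤ ρ') {m m' : ℤ × ℤ}
    (hm : ¬ Near ρ ρ' m' m) (ξ : E2) : Crest.Agent.R138.Wpk685.cap win (cen ρ' m') ρ' ξ *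
      Crest.Agent.R138.Wpk685.cap fat (cen ρ m) ρ ξ = 0 := by
  by_contra hne
  have h1 := capfat_supp hρ _ ξ (right_ne_zero_of_mul hne)
  have h2 := Crest.Agent.R138.Wpk685.capwin_supp (lt_of_lt_of_le hρ hρ') m' ξ
    (left_ne_zero_of_mul hne)
  apply hm
  unfold Near
  have h3 : ‖cen ρ m - cen ρ' m'‖ ≤ ‖ξ - cen ρ m‖ + ‖ξ - cen ρ' m'‖ := by
    have : cen ρ m - cen ρ' m' = -(ξ - cen ρ m) + (ξ - cen ρ' m') := by abel
    rw [this]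
    exact (norm_add_le _ _).trans (by rw [norm_neg])
  have h4 : 0 < ρ' := lt_of_lt_of_le hρ hρ'
  linarith

/-! ### exact formulas -/

/-- **(F1), root form**: exact formula. The scalar window `e` is one on the support of `g`. -/
theorem f1_root_eq {N : ℕ} {Q ρ ρ' : ℝ} (hρ : 0 < ρ) (hρ' : ρ ≤ ρ') {e : E3 → ℂ}
    {z : E3 × ℝ} {m' : ℤ × ℤ} {B : ℤ × ℤ → E3 ≃L[ℝ] E3} {c : ℤ × ℤ → E3}
    (hP : ∀ m ∈ nearL ρ ρ' m', Pc N Q ρ ρ' z.2 e (cen ρ m) (cen ρ' m') (B m) (c m))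
    {g : E3 → ℂ} (hg : Integrable g) (hs : ∀ ζ, g ζ ≠ 0 → e ζ = 1 ∧ ‖slp ζ‖ ≤ 2) (X : E3) :
    umc ρ' (trc z g) m' X = ∑ m ∈ nearL ρ ρ' m', ∫ y, umc ρ g m y *
      Kn e ρ ρ' z.2 (cen ρ m) (cen ρ' m') (X + z.1 - y) := by
  classical
  have hρ'0 : 0 < ρ' := lt_of_lt_of_le hρ hρ'
  have hterm : ∀ m ∈ nearL ρ ρ' m', ∫ y, umc ρ g m y *
      Kn e ρ ρ' z.2 (cen ρ m) (cen ρ' m') (X + z.1 - y) =
      ∫ ζ, capc ρ m ζ * ((capc ρ' m' ζ * trc z g ζ) * ee (inner ℝ X ζ)) := by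
    intro m hm
    have h1 := (hP m hm).int_mul (capc_mul_int hg ρ m) (X + z.1)
    refine h1.symm.trans ?_
    congr 1
    ext ζ
    by_cases hne : capc ρ m ζ * g ζ = 0
    · have e1 : capc ρ m ζ * ((capc ρ' m' ζ * trc z g ζ) * ee (inner ℝ X ζ)) =
          (capc ρ m ζ * g ζ) * (capc ρ' m' ζ * ee (inner ℝ z.1 ζ + z.2 * hc ζ) *
            ee (inner ℝ X ζ)) := by unfold trc; ring
      rw [e1, hne, mul_zero, zero_mul, zero_mul]
    · have h3 : capc ρ m ζ ≠ 0 := left_ne_zero_of_mul hne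
      have h4 := hs ζ (right_ne_zero_of_mul hne)
      have h5 : Crest.Agent.R138.Wpk685.cap fat (cen ρ m) ρ (slp ζ) = 1 :=
        capfat_one hρ _ _ (Crest.Agent.R138.Wpk685.capwin_supp hρ m _ h3)
      rw [h5, h4.1, inner_add_left, ee_add]
      unfold trc capc
      rw [ee_add]
      ring
  rw [Finset.sum_congr rfl hterm]
  have hi : Integrable (fun ζ => (capc ρ' m' ζ * trc z g ζ) * ee (inner ℝ X ζ)) :=
    mod_integrable (capc_mul_int (trc_int hg z) ρ' m') X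
  rw [← integral_finsetSum _ (fun m _ => capc_mul_int hi ρ m)]
  unfold umc
  rw [fourierInv_eq_int]
  congr 1
  ext ζ
  rw [← Finset.sum_mul]
  by_cases h0 : capc ρ' m' ζ * trc z g ζ = 0
  · rw [h0, zero_mul, mul_zero]
  · have h3 : g ζ ≠ 0 := by
      intro hc
      apply h0
      unfold trc
      rw [hc, zero_mul, mul_zero]
    have h4 := (hs ζ h3).2
    have h5 : ∑ m ∈ nearL ρ ρ' m', capc ρ m ζ = 1 := by
      rw [← Crest.Agent.R138.Wpk685.cap_win_sum hρ h4]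
      unfold nearL
      rw [Finset.sum_filter_of_ne]
      · rfl
      intro m _ hne
      by_contra hc
      have h6 := capwin_prod hρ hρ' hc (slp ζ)
      rcases mul_eq_zero.1 h6 with h7 | h7
      · exact hne h7
      · exact (left_ne_zero_of_mul h0) h7
    rw [h5, one_mul]

/-- **(F1), selected form**: exact formula. -/
theorem f1_sel_eq {N : ℕ} {Q ρ ρ' κ η0 : ℝ} (hρ : 0 < ρ) (hρ' : ρ ≤ ρ')
    {z : E3 × ℝ} {m' : ℤ × ℤ} {B : ℤ × ℤ → E3 ≃L[ℝ] E3} {c : ℤ × ℤ → E3}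
    (hP : ∀ m ∈ nearL ρ ρ' m', Pc N Q ρ ρ' z.2 (etw η0 κ) (cen ρ m) (cen ρ' m') (B m) (c m))
    {g : E3 → ℂ} {S : ℤ × ℤ → Set E3}
    (hS : ∀ m ∈ caps ρ, Integrable ((S m).indicator (umc ρ g m))) (X : E3) :
    umc ρ' (trc z (selc η0 κ ρ g S)) m' X = ∑ m ∈ nearL ρ ρ' m',
      ∫ y, (S m).indicator (umc ρ g m) y *
        Kn (etw η0 κ) ρ ρ' z.2 (cen ρ m) (cen ρ' m') (X + z.1 - y) := by
  classical
  have hρ'0 : 0 < ρ' := lt_of_lt_of_le hρ hρ'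
  have hsc : ∀ m ∈ nearL ρ ρ' m', m ∈ caps ρ := fun m hm => (mem_nearL.1 hm).1
  have hterm : ∀ m ∈ nearL ρ ρ' m', ∫ y, (S m).indicator (umc ρ g m) y *
      Kn (etw η0 κ) ρ ρ' z.2 (cen ρ m) (cen ρ' m') (X + z.1 - y) =
      ∫ ζ, Crest.Agent.R138.Wpk685.cap win (cen ρ' m') ρ' (slp ζ) *
      (Crest.Agent.R138.Wpk685.cap fat (cen ρ m) ρ (slp ζ) * etw η0 κ ζ) * ee (z.2 * hc ζ) *
        𝓕 ((S m).indicator (umc ρ g m)) ζ * ee (inner ℝ (X + z.1) ζ) := fun m hm =>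
    ((hP m hm).int_ind (hS m (hsc m hm)) (X + z.1)).symm
  have hint : ∀ m ∈ nearL ρ ρ' m', Integrable (fun ζ =>
      Crest.Agent.R138.Wpk685.cap win (cen ρ' m') ρ' (slp ζ) *
      (Crest.Agent.R138.Wpk685.cap fat (cen ρ m) ρ (slp ζ) * etw η0 κ ζ) * ee (z.2 * hc ζ) *
        𝓕 ((S m).indicator (umc ρ g m)) ζ * ee (inner ℝ (X + z.1) ζ)) := by
    intro m hm
    refine mod_integrable ((hP m hm).int_bdd (K := ∫ y, ‖(S m).indicator (umc ρ g m) y‖) ?_ ?_) _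
    · exact (VectorFourier.fourierIntegral_continuous Real.continuous_fourierChar
        (by exact continuous_inner) (hS m (hsc m hm))).aestronglyMeasurable
    · intro ζ
      exact VectorFourier.norm_fourierIntegral_le_integral_norm _ _ _ _ _
  rw [Finset.sum_congr rfl hterm, ← integral_finsetSum _ hint]
  change 𝓕⁻ (fun ζ => capc ρ' m' ζ * trc z (selc η0 κ ρ g S) ζ) X = _
  rw [fourierInv_eq_int]
  congr 1
  ext ζ
  have e1 : trc z (selc η0 κ ρ g S) ζ = ∑ m ∈ caps ρ,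
      fatc ρ m ζ * etw η0 κ ζ * 𝓕 ((S m).indicator (umc ρ g m)) ζ *
        ee (inner ℝ z.1 ζ + z.2 * hc ζ) := by
    unfold trc selc piecec
    rw [Finset.sum_mul]
  rw [e1, Finset.mul_sum, Finset.sum_mul]
  unfold nearL
  rw [Finset.sum_filter_of_ne]
  · refine Finset.sum_congr rfl fun m _ => ?_
    have e2 : ee (inner ℝ (X + z.1) ζ) * ee (z.2 * hc ζ) =
        ee (inner ℝ X ζ) * ee (inner ℝ z.1 ζ + z.2 * hc ζ) := by
      rw [inner_add_left, ee_add, ee_add, mul_assoc]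
    have e3 : capc ρ' m' ζ = Crest.Agent.R138.Wpk685.cap win (cen ρ' m') ρ' (slp ζ) := rfl
    have e4 : fatc ρ m ζ = Crest.Agent.R138.Wpk685.cap fat (cen ρ m) ρ (slp ζ) := rfl
    rw [e3, e4]
    calc _ = Crest.Agent.R138.Wpk685.cap win (cen ρ' m') ρ' (slp ζ) *
          (Crest.Agent.R138.Wpk685.cap fat (cen ρ m) ρ (slp ζ) * etw η0 κ ζ) *
          𝓕 ((S m).indicator (umc ρ g m)) ζ *
          (ee (inner ℝ X ζ) * ee (inner ℝ z.1 ζ + z.2 * hc ζ)) := by ring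
      _ = _ := by rw [← e2]; ring
  · intro m _ hne
    by_contra hc
    have h6 := capwin_fat_far hρ hρ' hc (slp ζ)
    apply hne
    rw [← mul_assoc (Crest.Agent.R138.Wpk685.cap win (cen ρ' m') ρ' (slp ζ)), h6]
    ring

/-! ### the `l¹` bounds -/

/-- enorm bound of an integral against the kernel. -/
theorem enorm_conv_le {K : ℝ} {v k : E3 → ℂ} {b : E3 → ℝ} (hb : ∀ x, ‖k x‖ ≤ K * b x)
    (hK : 0 ≤ K) (X : E3) :
    ‖∫ y, v y * k (X - y)‖ₑ ≤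
      ENNReal.ofReal K * ∫⁻ y, ENNReal.ofReal (b (X - y)) * ‖v y‖ₑ := by
  refine (enorm_integral_le_lintegral_enorm _).trans ?_
  rw [← lintegral_const_mul' _ _ ENNReal.ofReal_ne_top]
  refine lintegral_mono fun y => ?_
  rw [enorm_mul, ← mul_assoc, ← ENNReal.ofReal_mul hK, mul_comm]
  refine mul_le_mul_left ?_ _
  rw [← ofReal_norm]
  exact ENNReal.ofReal_le_ofReal (hb _)

theorem enorm_sum_conv {ι : Type*} (s : Finset ι) {K : ℝ} (hK : 0 ≤ K) {v k : ι → E3 → ℂ}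
    {b : ι → E3 → ℝ} (hb : ∀ m ∈ s, ∀ x, ‖k m x‖ ≤ K * b m x) (X : E3) :
    ‖∑ m ∈ s, ∫ y, v m y * k m (X - y)‖ₑ ≤ ENNReal.ofReal K *
      ∑ m ∈ s, ∫⁻ y, ENNReal.ofReal (b m (X - y)) * ‖v m y‖ₑ := by
  refine (enorm_sum_le _ _).trans ?_
  rw [Finset.mul_sum]
  exact Finset.sum_le_sum fun m hm => enorm_conv_le (hb m hm) hK X

/-- **(F1-l1), root form**, sliced functions. -/
theorem f1_root {a : ℝ} (ha : 1 ≤ a) (N : ℕ) (T : ℝ) : ∃ K : ℝ, 0 ≤ K ∧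
    ∀ (ρ ρ' κ η0 : ℝ), 0 < ρ → ρ ≤ ρ' → 0 < κ → κ ≤ (4 * a)⁻¹ → a⁻¹ ≤ η0 → η0 ≤ a →
    ∀ g : E3 → ℂ, Integrable g → (∀ ζ, g ζ ≠ 0 → |ζ 2 - η0| ≤ 3/2 * κ ∧ ‖slp ζ‖ ≤ 2) →
    ∀ z : E3 × ℝ, |z.2| * ρ ^ 2 ≤ T → ∀ (m' : ℤ × ℤ) (X : E3),
    ‖umc ρ' (trc z g) m' X‖ₑ ≤ ENNReal.ofReal K * ∑ m ∈ nearL ρ ρ' m', ∫⁻ y,
      ENNReal.ofReal (kc N ρ κ (cen ρ m) (X + z.1 + z.2 • vel (cen ρ m) - y)) *
        ‖umc ρ g m y‖ₑ := by
  obtain ⟨Q, K, hK, hb⟩ := kn_sliced ha N T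
  refine ⟨K, hK, ?_⟩
  intro ρ ρ' κ η0 hρ hρ' hκ hκ2 h1 h2 g hg hs z hz m' X
  have hb' := fun m (hm : m ∈ nearL ρ ρ' m') =>
    hb η0 κ h1 h2 hκ hκ2 ρ ρ' z.2 hρ hρ' hz (cen ρ m) (cen ρ' m') (mem_nearL.1 hm).2.le
  rw [f1_root_eq hρ hρ' (fun m hm => (hb' m hm).1) hg (fun ζ hζ => ⟨?_, (hs ζ hζ).2⟩) X]
  · refine (enorm_sum_conv _ hK (b := fun m x => kc N ρ κ (cen ρ m) (x + z.2 • vel (cen ρ m)))
      (fun m hm x => (hb' m hm).2 x) (X + z.1)).trans (le_of_eq ?_)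
    congr 1
    refine Finset.sum_congr rfl fun m _ => ?_
    refine lintegral_congr fun y => ?_
    rw [show X + z.1 - y + z.2 • vel (cen ρ m) = X + z.1 + z.2 • vel (cen ρ m) - y by abel]
  · rw [etw_eq]
    apply bt_one
    rw [abs_div, abs_of_pos hκ, div_le_iff₀ hκ]
    exact (hs ζ hζ).1

/-- **(F1-l1), root form**, unsliced functions. -/
theorem f1_root_u {a : ℝ} (ha : 1 ≤ a) (N : ℕ) (T : ℝ) : ∃ K : ℝ, 0 ≤ K ∧
    ∀ (ρ ρ' : ℝ), 0 < ρ → ρ ≤ ρ' →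
    ∀ g : E3 → ℂ, Integrable g → (∀ ζ, g ζ ≠ 0 → a⁻¹ ≤ ζ 2 ∧ ζ 2 ≤ a ∧ ‖slp ζ‖ ≤ 2) →
    ∀ z : E3 × ℝ, |z.2| * ρ ^ 2 ≤ T → ∀ (m' : ℤ × ℤ) (X : E3),
    ‖umc ρ' (trc z g) m' X‖ₑ ≤ ENNReal.ofReal K * ∑ m ∈ nearL ρ ρ' m', ∫⁻ y,
      ENNReal.ofReal (kc N ρ 1 (cen ρ m) (X + z.1 + z.2 • vel (cen ρ m) - y)) *
        ‖umc ρ g m y‖ₑ := by
  obtain ⟨Q, K, hK, hb⟩ := kn_unsliced ha N T
  refine ⟨K, hK, ?_⟩
  intro ρ ρ' hρ hρ' g hg hs z hz m' X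
  have hb' := fun m (hm : m ∈ nearL ρ ρ' m') =>
    hb ρ ρ' z.2 hρ hρ' hz (cen ρ m) (cen ρ' m') (mem_nearL.1 hm).2.le
  rw [f1_root_eq hρ hρ' (fun m hm => (hb' m hm).1) hg (fun ζ hζ => ⟨?_, (hs ζ hζ).2.2⟩) X]
  · refine (enorm_sum_conv _ hK (b := fun m x => kc N ρ 1 (cen ρ m) (x + z.2 • vel (cen ρ m)))
      (fun m hm x => (hb' m hm).2 x) (X + z.1)).trans (le_of_eq ?_)
    congr 1
    refine Finset.sum_congr rfl fun m _ => ?_
    refine lintegral_congr fun y => ?_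
    rw [show X + z.1 - y + z.2 • vel (cen ρ m) = X + z.1 + z.2 • vel (cen ρ m) - y by abel]
  · exact eaw_one ha (hs ζ hζ).1 (hs ζ hζ).2.1

/-- **(F1-l1), selected form**. -/
theorem f1_sel {a : ℝ} (ha : 1 ≤ a) (N : ℕ) (T : ℝ) : ∃ K : ℝ, 0 ≤ K ∧
    ∀ (ρ ρ' κ η0 : ℝ), 0 < ρ → ρ ≤ ρ' → 0 < κ → κ ≤ (4 * a)⁻¹ → a⁻¹ ≤ η0 → η0 ≤ a →
    ∀ (g : E3 → ℂ) (S : ℤ × ℤ → Set E3), Integrable g → (∀ m ∈ caps ρ, MeasurableSet (S m)) →
    (∀ m ∈ caps ρ, Bornology.IsBounded (S m)) →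
    ∀ z : E3 × ℝ, |z.2| * ρ ^ 2 ≤ T → ∀ (m' : ℤ × ℤ) (X : E3),
    ‖umc ρ' (trc z (selc η0 κ ρ g S)) m' X‖ₑ ≤ ENNReal.ofReal K *
      ∑ m ∈ nearL ρ ρ' m', ∫⁻ y in S m,
        ENNReal.ofReal (kc N ρ κ (cen ρ m) (X + z.1 + z.2 • vel (cen ρ m) - y)) *
          ‖umc ρ g m y‖ₑ := by
  obtain ⟨Q, K, hK, hb⟩ := kn_sliced ha N T
  refine ⟨K, hK, ?_⟩
  intro ρ ρ' κ η0 hρ hρ' hκ hκ2 h1 h2 g S hg hS hSb z hz m' X
  have hb' := fun m (hm : m ∈ nearL ρ ρ' m') =>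
    hb η0 κ h1 h2 hκ hκ2 ρ ρ' z.2 hρ hρ' hz (cen ρ m) (cen ρ' m') (mem_nearL.1 hm).2.le
  rw [f1_sel_eq hρ hρ' (fun m hm => (hb' m hm).1)
    (fun m hm => ind_int hg ρ m (hS m hm) (hSb m hm)) X]
  refine (enorm_sum_conv _ hK (b := fun m x => kc N ρ κ (cen ρ m) (x + z.2 • vel (cen ρ m)))
      (fun m hm x => (hb' m hm).2 x) (X + z.1)).trans (le_of_eq ?_)
  congr 1
  refine Finset.sum_congr rfl fun m hm => ?_
  rw [← lintegral_indicator (hS m (mem_nearL.1 hm).1)]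
  refine lintegral_congr fun y => ?_
  rw [show X + z.1 - y + z.2 • vel (cen ρ m) = X + z.1 + z.2 • vel (cen ρ m) - y by abel]
  by_cases hy : y ∈ S m
  · rw [Set.indicator_of_mem hy, Set.indicator_of_mem hy]
  · rw [Set.indicator_of_notMem hy, Set.indicator_of_notMem hy]
    simp

end Crest.Agent.R116.F1c124
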