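import Crest.Agent.R116.DeDef_295
import Crest.Agent.R116.DeG1_295
import Crest.Agent.R116.F1c2_124

/-!
# R116 (S0155), wave side, DECc (D3): `SUBc` (helper387)

`subc_of : 1 ≤ M → STABc q → SUBc M q`: the selected wave satisfies the box bound of the selection
(124's `f1_sel`, 295's MOVE, polynomial stability of the densities).
-/

set_option autoImplicit false

open MeasureTheory FourierTransform
open scoped ContDiff ENNReal

namespace Crest.Agent.R116.Sub387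

open Crest.Agent.R138.Defs (E2 ee)
open Crest.Agent.R138.Wpk685 (win fat cen caps)
open Crest.Agent.R138.Wf448 (adet)
open Crest.Agent.R116.CWp480 Crest.Agent.R116.CWc480
open Crest.Agent.R116.CDef480 Crest.Agent.R116.WC188
open Crest.Agent.R116.Bas367 (Bsc)
open Crest.Agent.R138.Loc878 (Near nearL mem_nearL sum_near_le)
open Crest.Agent.R116.De295 Crest.Agent.R116.F1c124
open Crest.Agent.R116.LZg725 (Cf)

/-! ### members -/

theorem continuous_lat' : Continuous lat := latL.continuous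

theorem meas_mset (sg T R s1 : ℝ) (c : E2) (X0 : E3) (f : Cf E2) (C : E2) :
    MeasurableSet (mset sg T R s1 c X0 f C) := by
  have hl := continuous_lat'
  have h2 : Continuous fun X : E3 => X 2 := by fun_prop
  have e1 : Continuous fun X : E3 => ‖lat X - lat X0‖ := (hl.sub continuous_const).norm
  have e2 : Continuous fun X : E3 => |nrm c X 0 - nrm c X0 0| := by
    unfold nrm
    exact (((h2.add (continuous_const.inner hl)).add continuous_const).sub continuous_const).abs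
  have e3 : Continuous fun X : E3 => |f.ev (lat X) (X 2) 0| := by
    unfold Cf.ev
    exact ((((continuous_const.add continuous_const).add (continuous_const.inner hl)).add
      (continuous_const.mul h2)).add (continuous_const.mul ((hl.norm.pow 2).sub
      (continuous_const.mul h2)))).abs
  have e4 : Continuous fun X : E3 => |f.ld C (lat X) (X 2) 0| := by
    unfold Cf.ld
    exact (((continuous_const.sub (continuous_const.mul h2)).sub
      (Continuous.inner (continuous_const.add (hl.const_smul (2 * f.d))) continuous_const)).add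
      continuous_const).abs
  have : mset sg T R s1 c X0 f C = {X | ‖C - c‖ ≤ sg} ∩ ({X | ‖lat X - lat X0‖ ≤ sg * R} ∩
      ({X | |nrm c X 0 - nrm c X0 0| ≤ T * R} ∩ ({X | |f.ev (lat X) (X 2) 0| ≤ s1 * R} ∩
      {X | |f.ld C (lat X) (X 2) 0| ≤ s1}))) := rfl
  rw [this]
  exact (MeasurableSet.const _).inter ((measurableSet_le e1.measurable measurable_const).inter
    ((measurableSet_le e2.measurable measurable_const).inter
    ((measurableSet_le e3.measurable measurable_const).inter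
    (measurableSet_le e4.measurable measurable_const))))

theorem meas_pbx (κ A r s1 s2 : ℝ) (c : E2) (X0 : E3) (f : Cf E2) (m : ℤ × ℤ) :
    MeasurableSet (pbx κ A r s1 s2 c X0 f m) := meas_mset _ _ _ _ _ _ _ _

theorem sf_of {κ s1 s2 r : ℝ} (hr : 1 ≤ r) (hκ : 0 < κ) (hsd : Sd r s1 s2) :
    SF κ s1 s2 (TT κ s2 r) r := by
  refine ⟨hr, hκ, hsd.lo, hsd.le, le_max_left _ _, ?_⟩
  have hr0 : 0 < r := by linarith
  calc κ⁻¹ = (κ * r)⁻¹ * r := by field_simp
    _ ≤ TT κ s2 r * r := mul_le_mul_of_nonneg_right (le_max_right _ _) hr0.le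

theorem ff_of {M κ s1 s2 T r : ℝ} {c : E2} {X0 : E3} {f : Cf E2} (h : Adm M κ s1 s2 T r c X0 f) :
    FF M κ s1 s2 T r f := ⟨h.disc, h.ny, h.cmp⟩

/-- members of `Adm 1` are members of `Adm M`. -/
theorem adm_mono {M κ s1 s2 r : ℝ} (hM : 1 ≤ M) (hr : 1 ≤ r) (hκ : 0 < κ) (hsd : Sd r s1 s2)
    {c : E2} {X0 : E3} {f : Cf E2} (h : Adm 1 κ s1 s2 (TT κ s2 r) r c X0 f) :
    Adm M κ s1 s2 (TT κ s2 r) r c X0 f := by
  have hS := sf_of hr hκ hsd
  have h1 := hS.s10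
  have h2 := hS.s20
  have h3 := hS.T0
  have h4 := hS.r0
  refine ⟨h.disc, fun s hs => (h.ny s hs).trans ?_, fun s hs => (h.cmp s hs).trans ?_,
    h.ld.trans ?_, h.ev.trans ?_⟩
  · gcongr
  · gcongr
  · gcongr
  · gcongr

/-- **MOVE** for the phase boxes: displacement at most `t` in the metric of the plate of `cen m`. -/
theorem pbx_move {M κ r s1 s2 : ℝ} (hM : 1 ≤ M) (hr : 1 ≤ r) (hκ : 0 < κ) (hκ1 : κ ≤ 1)
    (hsd : Sd r s1 s2) {c : E2} {X0 : E3} {f : Cf E2} (h : Adm M κ s1 s2 (TT κ s2 r) r c X0 f)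
    {C C' : E2} (hC : ‖C' - C‖ ≤ 3 * r ^ (-(1/2) : ℝ)) {X Y : E3}
    (hX : X ∈ mset (1 * s2) (1 * TT κ s2 r) r (1 * s1) c X0 f C) {t : ℝ} (ht : 1 ≤ t)
    (hP : ‖pt (r ^ (-(1/2) : ℝ) • lat (X - Y)) (κ * ((X - Y) 2 + inner ℝ C' (lat (X - Y))))‖ ≤ t) :
    Y ∈ mset (128 * M * t ^ 2 * s2) (128 * M * t ^ 2 * TT κ s2 r) r (128 * M * t ^ 2 * s1)
      c X0 f C' := by
  obtain ⟨x1, x2, x3, x4, x5⟩ := hX
  rw [one_mul] at x1 x2 x3 x4 x5
  have hS := sf_of hr hκ hsd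
  have hρ := hS.rho0
  have hρr := hS.hrho
  have hr12 : 0 < r ^ (1/2 : ℝ) := Real.rpow_pos_of_pos hS.r0 _
  set ρ := r ^ (-(1/2) : ℝ) with hρd
  have ht0 : 0 ≤ t := by linarith
  have hl : ‖ρ • lat (X - Y)‖ ≤ t := by
    have := norm_lat_le (pt (ρ • lat (X - Y)) (κ * ((X - Y) 2 + inner ℝ C' (lat (X - Y)))))
    rw [lat_pt] at this
    exact this.trans hP
  have hn : |κ * ((X - Y) 2 + inner ℝ C' (lat (X - Y)))| ≤ t := by
    have := abs_two_le (pt (ρ • lat (X - Y)) (κ * ((X - Y) 2 + inner ℝ C' (lat (X - Y)))))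
    rw [pt_two] at this
    exact this.trans hP
  rw [norm_smul, Real.norm_eq_abs, abs_of_pos hρ] at hl
  rw [abs_mul, abs_of_pos hκ] at hn
  have hlat : ‖lat (X - Y)‖ ≤ t * r ^ (1/2 : ℝ) := by
    calc ‖lat (X - Y)‖ = (ρ * ‖lat (X - Y)‖) * r ^ (1/2 : ℝ) := by
          rw [mul_comm ρ, mul_assoc, hρr, mul_one]
      _ ≤ t * r ^ (1/2 : ℝ) := mul_le_mul_of_nonneg_right hl hr12.le
  have hnrm : |(X - Y) 2 + inner ℝ C' (lat (X - Y))| ≤ t * κ⁻¹ := by
    rw [← div_eq_mul_inv, le_div_iff₀ hκ, mul_comm]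
    exact hn
  have h4t : 1 ≤ 4 * t := by linarith
  have a1 : ‖lat Y - lat X‖ ≤ (4 * t) * r ^ (1/2 : ℝ) := by
    rw [norm_sub_rev, ← lat_sub]
    refine hlat.trans (mul_le_mul_of_nonneg_right (by linarith) hr12.le)
  have a2 : ‖C' - C‖ ≤ (4 * t) * r ^ (-(1/2) : ℝ) :=
    hC.trans (mul_le_mul_of_nonneg_right (by linarith) hρ.le)
  have hκi : 1 ≤ κ⁻¹ := one_le_inv_iff₀.2 ⟨hκ, hκ1⟩
  have a3 : |nrm C Y 0 - nrm C X 0| ≤ (4 * t) * κ⁻¹ := by
    have e1 : nrm C Y 0 - nrm C X 0 = -((X - Y) 2 + inner ℝ C' (lat (X - Y))) +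
        inner ℝ (C' - C) (lat (X - Y)) := by
      unfold nrm
      rw [lat_sub, inner_sub_right, inner_sub_left, inner_sub_right, inner_sub_right,
        PiLp.sub_apply]
      ring
    rw [e1]
    refine (abs_add_le _ _).trans ?_
    rw [abs_neg]
    have b1 : |inner ℝ (C' - C) (lat (X - Y))| ≤ 3 * t := by
      refine (abs_real_inner_le_norm _ _).trans ?_
      calc ‖C' - C‖ * ‖lat (X - Y)‖ ≤ (3 * ρ) * ‖lat (X - Y)‖ := by gcongr
        _ = 3 * (ρ * ‖lat (X - Y)‖) := by ring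
        _ ≤ 3 * t := by linarith
    nlinarith
  obtain ⟨b1, b2⟩ := (ff_of h).move hS hM h4t x4 x5 a2 a1 a3
  obtain ⟨c1, c2, c3⟩ := box_move hS h4t x1 x2 x3 a2 a1 a3
  have hbig : 3 * (4 * t) ≤ 128 * M * t ^ 2 := by nlinarith
  have hs20 := hS.s20
  have hr0 := hS.r0
  have hT0 := hS.T0
  refine ⟨c1.trans ?_, c2.trans ?_, c3.trans ?_, b1.trans (le_of_eq ?_), b2.trans (le_of_eq ?_)⟩
  · gcongr
  · gcongr
  · gcongr
  · ring
  · ring

/-! ### generic inequalities -/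

theorem sum_sq_le {ι : Type*} (s : Finset ι) (f : ι → ℝ≥0∞) :
    (∑ i ∈ s, f i) ^ 2 ≤ s.card * ∑ i ∈ s, f i ^ 2 := by
  have h := ENNReal.rpow_sum_le_const_mul_sum_rpow s f (p := 2) (by norm_num)
  have h3 : ∀ x : ℝ≥0∞, x ^ (2 : ℝ) = x ^ 2 := fun x => by
    rw [show (2 : ℝ) = ((2 : ℕ) : ℝ) by norm_num, ENNReal.rpow_natCast]
  simp only [h3] at h
  rwa [show (2 : ℝ) - 1 = 1 by norm_num, ENNReal.rpow_one] at h

theorem lint_sq_mu {μ : Measure E3} {f g : E3 → ℝ≥0∞} (hf : AEMeasurable f μ)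
    (hg : AEMeasurable g μ) :
    (∫⁻ y, f y * g y ∂μ) ^ 2 ≤ (∫⁻ y, g y ∂μ) * ∫⁻ y, f y ^ 2 * g y ∂μ := by
  have h1 : ∀ y, f y * g y = g y ^ (1 / 2 : ℝ) * (f y * g y ^ (1 / 2 : ℝ)) := by
    intro y
    have : g y ^ (1 / 2 : ℝ) * g y ^ (1 / 2 : ℝ) = g y := by
      rw [← ENNReal.rpow_add_of_nonneg _ _ (by norm_num) (by norm_num)]
      norm_num
    calc f y * g y = f y * (g y ^ (1 / 2 : ℝ) * g y ^ (1 / 2 : ℝ)) := by rw [this]
      _ = _ := by ring
  have h2 := ENNReal.lintegral_mul_le_Lp_mul_Lq μ (Real.HolderConjugate.two_two)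
    (f := fun y => g y ^ (1 / 2 : ℝ)) (g := fun y => f y * g y ^ (1 / 2 : ℝ))
    (hg.pow_const _) (hf.mul (hg.pow_const _))
  have h3 : ∀ y, (g y ^ (1 / 2 : ℝ)) ^ (2 : ℝ) = g y := by
    intro y
    rw [← ENNReal.rpow_mul]; norm_num
  have h4 : ∀ y, (f y * g y ^ (1 / 2 : ℝ)) ^ (2 : ℝ) = f y ^ 2 * g y := by
    intro y
    rw [ENNReal.mul_rpow_of_nonneg _ _ (by norm_num), h3]
    norm_cast
  simp only [h3, h4] at h2
  calc (∫⁻ y, f y * g y ∂μ) ^ 2 ≤
        ((∫⁻ y, g y ∂μ) ^ (1 / 2 : ℝ) * (∫⁻ y, f y ^ 2 * g y ∂μ) ^ (1 / 2 : ℝ)) ^ 2 := by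
        refine pow_le_pow_left₀ zero_le ?_ 2
        refine le_trans (le_of_eq ?_) h2
        exact lintegral_congr h1
    _ = _ := by
        rw [mul_pow]
        have h5 : ∀ a : ℝ≥0∞, (a ^ (1 / 2 : ℝ)) ^ 2 = a := by
          intro a
          rw [← ENNReal.rpow_natCast, ← ENNReal.rpow_mul]
          norm_num
        rw [h5, h5]

/-! ### the kernel -/

/-- mass of the kernel. -/
theorem kc_mass {ρ κ : ℝ} (hρ : 0 < ρ) (hκ : 0 < κ) (C : E2) (Y : E3) :
    ∫⁻ X, ENNReal.ofReal (kc (dd E3) ρ κ C (X - Y)) = ENNReal.ofReal (cd3 E3) := by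
  have h1 : ∀ X, ENNReal.ofReal (kc (dd E3) ρ κ C (X - Y)) =
      ENNReal.ofReal (adet (Pl ρ κ hρ hκ C : E3 →L[ℝ] E3)) *
        dec3 (Pl ρ κ hρ hκ C (X - Y)) := by
    intro X
    rw [kc_eq _ hρ hκ, ENNReal.ofReal_mul (adet0 _).le]
    rfl
  simp only [h1]
  rw [lintegral_const_mul' _ _ ENNReal.ofReal_ne_top, lintegral_scale' _ dec3 Y, lintegral_dec3,
    ← mul_assoc, ← ENNReal.ofReal_mul (adet0 _).le, mul_inv_cancel₀ (adet0 _).ne',
    ENNReal.ofReal_one, one_mul]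

theorem kc_mass' {ρ κ : ℝ} (hρ : 0 < ρ) (hκ : 0 < κ) (C : E2) (X : E3) :
    ∫⁻ Y, ENNReal.ofReal (kc (dd E3) ρ κ C (X - Y)) = ENNReal.ofReal (cd3 E3) := by
  have h1 : ∀ Y, ENNReal.ofReal (kc (dd E3) ρ κ C (X - Y)) =
      ENNReal.ofReal (adet (Pl ρ κ hρ hκ C : E3 →L[ℝ] E3)) *
        dec3 (Pl ρ κ hρ hκ C (X - Y)) := by
    intro Y
    rw [kc_eq _ hρ hκ, ENNReal.ofReal_mul (adet0 _).le]
    rfl
  simp only [h1]
  rw [lintegral_const_mul' _ _ ENNReal.ofReal_ne_top, lintegral_scale _ dec3 X, lintegral_dec3,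
    ← mul_assoc, ← ENNReal.ofReal_mul (adet0 _).le, mul_inv_cancel₀ (adet0 _).ne',
    ENNReal.ofReal_one, one_mul]

theorem kc_cont (N : ℕ) {ρ κ : ℝ} (hρ : 0 < ρ) (hκ : 0 < κ) (C : E2) : Continuous (kc N ρ κ C) := by
  have h1 : kc N ρ κ C = fun x => adet (Pl ρ κ hρ hκ C : E3 →L[ℝ] E3) *
      ((1 + ‖Pl ρ κ hρ hκ C x‖) ^ N)⁻¹ := by
    funext x
    exact kc_eq N hρ hκ C x
  rw [h1]
  refine continuous_const.mul (Continuous.inv₀ ?_ fun x => by positivity)
  exact (continuous_const.add (Pl ρ κ hρ hκ C).continuous.norm).pow N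

/-- splitting of the decay. -/
theorem kc_split (N j : ℕ) (ρ κ : ℝ) (C : E2) (x : E3) :
    kc (N + j) ρ κ C x = kc N ρ κ C x *
      ((1 + ‖pt (ρ • lat x) (κ * (x 2 + inner ℝ C (lat x)))‖) ^ j)⁻¹ := by
  unfold kc
  rw [pow_add, mul_inv]
  ring

theorem kc_anti (N j : ℕ) {ρ κ : ℝ} (hκ : 0 ≤ κ) (C : E2) (x : E3) :
    kc (N + j) ρ κ C x ≤ kc N ρ κ C x := by
  rw [kc_split N j]
  refine mul_le_of_le_one_right (kc_nonneg N hκ C x) (inv_le_one_of_one_le₀ (one_le_pow₀ ?_))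
  have := norm_nonneg (pt (ρ • lat x) (κ * (x 2 + inner ℝ C (lat x))))
  linarith

/-- dyadic index. -/
theorem exists_dyadic {u : ℝ} (hu : 0 ≤ u) (j : ℕ) : ∃ k : ℕ, u ≤ 2 ^ k ∧
    ((1 + u) ^ j)⁻¹ ≤ 2 ^ j * ((2 ^ j) ^ k)⁻¹ := by
  obtain ⟨k, hk⟩ : ∃ k : ℕ, u ≤ 2 ^ k := by
    obtain ⟨k, hk⟩ := pow_unbounded_of_one_lt u (one_lt_two)
    exact ⟨k, hk.le⟩
  classical
  set k0 := Nat.find (p := fun k : ℕ => u ≤ 2 ^ k) ⟨k, hk⟩ with hk0
  have h1 : u ≤ 2 ^ k0 := Nat.find_spec (p := fun k : ℕ => u ≤ 2 ^ k) ⟨k, hk⟩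
  refine ⟨k0, h1, ?_⟩
  have h2 : (2:ℝ) ^ k0 ≤ 2 * (1 + u) := by
    rcases Nat.eq_zero_or_pos k0 with h0 | h0
    · rw [h0]; linarith
    · have h3 : ¬ u ≤ 2 ^ (k0 - 1) :=
        Nat.find_min (p := fun k : ℕ => u ≤ 2 ^ k) ⟨k, hk⟩ (Nat.sub_lt h0 one_pos)
      push Not at h3
      have h4 : (2:ℝ) ^ k0 = 2 * 2 ^ (k0 - 1) := by
        rw [← pow_succ']
        congr 1
        omega
      rw [h4]
      linarith
  rw [← pow_mul, mul_comm j k0, pow_mul]
  have h5 : ((2:ℝ) ^ k0) ^ j ≤ 2 ^ j * (1 + u) ^ j := by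
    rw [← mul_pow]
    exact pow_le_pow_left₀ (by positivity) h2 j
  have h6 : 0 < (1 + u) ^ j := by positivity
  have h7 : (0:ℝ) < ((2:ℝ) ^ k0) ^ j := by positivity
  rw [← div_eq_mul_inv, inv_eq_one_div, div_le_div_iff₀ h6 h7, one_mul]
  exact h5

/-- the weights. -/
noncomputable def th (j k : ℕ) : ℝ := 2 ^ j * ((2 ^ j) ^ k)⁻¹

theorem th_nonneg (j k : ℕ) : 0 ≤ th j k := by unfold th; positivity

theorem tsum_th (p : ℕ) (B : ℝ) (hB : 0 ≤ B) :
    ∑' k, ENNReal.ofReal (th (2 * p + 1) k * (B * 4 ^ k) ^ p) =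
      ENNReal.ofReal (2 ^ (2 * p + 2) * B ^ p) := by
  have h1 : ∀ k : ℕ, th (2 * p + 1) k * (B * 4 ^ k) ^ p =
      (2 ^ (2 * p + 1) * B ^ p) * (1 / 2) ^ k := by
    intro k
    unfold th
    have e1 : ((4:ℝ) ^ k) ^ p = (2 ^ (2 * p)) ^ k := by
      rw [← pow_mul, ← pow_mul, show (4:ℝ) = 2 ^ 2 by norm_num, ← pow_mul]
      congr 1
      ring
    have e2 : ((2:ℝ) ^ (2 * p + 1)) ^ k = (2 ^ (2 * p)) ^ k * 2 ^ k := by
      rw [← mul_pow, pow_succ]
    rw [mul_pow, e1, e2, mul_inv, one_div, inv_pow]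
    have h3 : ((2:ℝ) ^ (2 * p)) ^ k ≠ 0 := by positivity
    field_simp
  simp only [h1]
  have hs : Summable fun k : ℕ => (2 ^ (2 * p + 1) * B ^ p) * (1 / 2 : ℝ) ^ k :=
    summable_geometric_two.mul_left _
  rw [← ENNReal.ofReal_tsum_of_nonneg (fun k => by positivity) hs, tsum_mul_left,
    tsum_geometric_two]
  congr 1
  ring

/-! ### the main estimate -/

theorem card_nearL' {ρ : ℝ} (hρ : 0 < ρ) (m' : ℤ × ℤ) : (nearL ρ ρ m').card ≤ 36 := by
  have h := Crest.Agent.R138.Wpk685.card_near hρ (cen ρ m') (fun m => m ∈ nearL ρ ρ m')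
    (fun m hm => by
      have := (mem_nearL.1 hm).2
      unfold Near at this
      rwa [norm_sub_rev] at this)
  have e : {m | m ∈ nearL ρ ρ m'} = ((nearL ρ ρ m' : Finset (ℤ × ℤ)) : Set (ℤ × ℤ)) := rfl
  rwa [e, Set.ncard_coe_finset] at h

/-- the weight collecting the dyadic phase boxes. -/
noncomputable def W (j : ℕ) (Q : ℕ → Set E3) (y : E3) : ℝ≥0∞ :=
  ∑' k, ENNReal.ofReal (th j k) * (Q k).indicator 1 y

theorem meas_W (j : ℕ) {Q : ℕ → Set E3} (hQ : ∀ k, MeasurableSet (Q k)) : Measurable (W j Q) :=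
  Measurable.tsum fun k => measurable_const.mul (measurable_one.indicator (hQ k))

theorem le_W (j : ℕ) (Q : ℕ → Set E3) {y : E3} {k : ℕ} (hy : y ∈ Q k) :
    ENNReal.ofReal (th j k) ≤ W j Q y := by
  have h := ENNReal.le_tsum (f := fun k => ENNReal.ofReal (th j k) * (Q k).indicator 1 y) k
  simp only [Set.indicator_of_mem hy, Pi.one_apply, mul_one] at h
  exact h

/-- one pair of caps. -/
theorem pair_le (j : ℕ) {ρ κ : ℝ} (hρ : 0 < ρ) (hκ : 0 < κ) (C : E2) {B S : Set E3}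
    (hB : MeasurableSet B) {Q : ℕ → Set E3} (hQ : ∀ k, MeasurableSet (Q k))
    (hmove : ∀ X ∈ B, ∀ y (k : ℕ),
      ‖pt (ρ • lat (X - y)) (κ * ((X - y) 2 + inner ℝ C (lat (X - y))))‖ ≤ 2 ^ k → y ∈ Q k)
    {u : E3 → ℝ≥0∞} (hu : Measurable u) :
    ∫⁻ X in B, ∫⁻ y in S, u y * ENNReal.ofReal (kc (dd E3 + j) ρ κ C (X - y)) ≤
      ENNReal.ofReal (cd3 E3) * ∫⁻ y in S, u y * W j Q y := by
  have hW := meas_W j hQ
  have hkc : Measurable fun p : E3 × E3 => ENNReal.ofReal (kc (dd E3) ρ κ C (p.1 - p.2)) :=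
    ((kc_cont (dd E3) hρ hκ C).measurable.comp (measurable_fst.sub measurable_snd)).ennreal_ofReal
  calc ∫⁻ X in B, ∫⁻ y in S, u y * ENNReal.ofReal (kc (dd E3 + j) ρ κ C (X - y)) ≤
        ∫⁻ X in B, ∫⁻ y in S, (u y * W j Q y) * ENNReal.ofReal (kc (dd E3) ρ κ C (X - y)) := by
        refine setLIntegral_mono' hB fun X hX => ?_
        refine lintegral_mono fun y => ?_
        rw [mul_assoc]
        refine mul_le_mul_right ?_ _
        obtain ⟨k, h1, h2⟩ := exists_dyadic (norm_nonneg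
          (pt (ρ • lat (X - y)) (κ * ((X - y) 2 + inner ℝ C (lat (X - y)))))) j
        rw [kc_split, mul_comm, ENNReal.ofReal_mul (by positivity)]
        refine mul_le_mul_left ?_ _
        exact (ENNReal.ofReal_le_ofReal h2).trans (le_W j Q (hmove X hX y k h1))
    _ ≤ ∫⁻ X, ∫⁻ y in S, (u y * W j Q y) * ENNReal.ofReal (kc (dd E3) ρ κ C (X - y)) :=
        setLIntegral_le_lintegral _ _
    _ = ∫⁻ y in S, ∫⁻ X, (u y * W j Q y) * ENNReal.ofReal (kc (dd E3) ρ κ C (X - y)) := by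
        rw [lintegral_lintegral_swap]
        exact (((hu.mul hW).comp measurable_snd).mul hkc).aemeasurable
    _ = ∫⁻ y in S, (u y * W j Q y) * ENNReal.ofReal (cd3 E3) := by
        refine lintegral_congr fun y => ?_
        rw [lintegral_const_mul, kc_mass hρ hκ C y]
        exact ((kc_cont (dd E3) hρ hκ C).measurable.comp
          (measurable_id.sub measurable_const)).ennreal_ofReal
    _ = _ := by
        rw [lintegral_mul_const' _ _ ENNReal.ofReal_ne_top, mul_comm]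

/-- the weighted energy of a selection is a sum of energies in the dyadic boxes. -/
theorem lint_W (j : ℕ) {S : Set E3} (hS : MeasurableSet S) {Q : ℕ → Set E3}
    (hQ : ∀ k, MeasurableSet (Q k)) {u : E3 → ℝ≥0∞} (hu : Measurable u) :
    ∫⁻ y in S, u y * W j Q y = ∑' k, ENNReal.ofReal (th j k) * ∫⁻ y in S ∩ Q k, u y := by
  unfold W
  simp only [← ENNReal.tsum_mul_left]
  rw [lintegral_tsum]
  · refine tsum_congr fun k => ?_
    have e1 : ∀ y, u y * (ENNReal.ofReal (th j k) * (Q k).indicator 1 y) =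
        ENNReal.ofReal (th j k) * (Q k).indicator u y := by
      intro y
      by_cases hy : y ∈ Q k
      · simp [Set.indicator_of_mem hy, mul_comm]
      · simp [Set.indicator_of_notMem hy]
    simp only [e1]
    rw [lintegral_const_mul' _ _ ENNReal.ofReal_ne_top, lintegral_indicator (hQ k),
      Measure.restrict_restrict (hQ k), Set.inter_comm]
  · intro k
    exact (hu.mul (measurable_const.mul (measurable_one.indicator (hQ k)))).aemeasurable

/-- **(D3)**: the selected wave satisfies the box bound of the selection. -/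
theorem subc_of {M q : ℝ} (hM : 1 ≤ M) (hST : STABc q) : SUBc M q := by
  classical
  intro a b ha hb hb2
  obtain ⟨Cs, p, hCs, hst⟩ := hST M hM
  obtain ⟨K, hK, hf1⟩ := f1_sel (a := 2 * a) (by linarith) (dd E3 + (2 * p + 1)) 0
  have hc3 := cd3_nonneg (V := E3)
  refine ⟨K ^ 2 * 36 * (cd3 E3 * cd3 E3) * 36 * (2 ^ (2 * p + 2) * (128 * M) ^ p * Cs),
    by positivity, ?_⟩
  intro κ η0 r hκ hκa hr hrκ g hg S hS D hD hDs
  have ha0 : 0 < a := by linarith
  have hκ1 : κ ≤ 1 := by nlinarith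
  have hr0 : 0 < r := by linarith
  set ρ := r ^ (-(1/2) : ℝ) with hρd
  have hρ : 0 < ρ := Real.rpow_pos_of_pos hr0 _
  intro c X0 f s1 s2 hsd hadm
  have hgd : Bas367.Gd g := Bas367.gd_of_supp hg.meas hg.bdd
    (a := a) (b := b) (fun ζ hζ => ⟨lt_of_lt_of_le (inv_pos.2 ha0) (hg.supp ζ hζ).1,
      (hg.supp ζ hζ).2.1, (hg.supp ζ hζ).2.2⟩)
  by_cases hg0 : ∀ ζ, g ζ = 0
  · have e1 : g = fun _ => 0 := funext hg0
    have e2 : ∀ m, (S m).indicator (umc ρ (fun _ => 0) m) = fun _ => (0:ℂ) := by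
      intro m
      funext y
      by_cases hy : y ∈ S m
      · rw [Set.indicator_of_mem hy, Bas367.umc_zero]
      · rw [Set.indicator_of_notMem hy]
    have e3 : selc η0 κ ρ g S = fun _ => 0 := by
      funext ζ
      unfold selc piecec
      rw [e1]
      simp only [e2]
      simp [Bas367.fourier_zero]
    rw [e3]
    unfold enc
    simp [Bas367.umc_zero]
  push Not at hg0
  obtain ⟨ζ0, hζ0⟩ := hg0
  obtain ⟨z1, z2, z3⟩ := hg.supp ζ0 hζ0
  have z4 := abs_le.1 (hg.slc ζ0 hζ0)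
  have hai : 0 < a⁻¹ := inv_pos.2 ha0
  have hai1 : a⁻¹ ≤ 1 := inv_le_one_of_one_le₀ ha
  have hκ8 : κ ≤ a⁻¹ / 8 := by
    rw [le_div_iff₀ (by norm_num), ← one_div, le_div_iff₀ ha0]
    linarith
  have e2a : (2 * a)⁻¹ = a⁻¹ / 2 := by rw [mul_inv]; ring
  have e8a : (4 * (2 * a))⁻¹ = a⁻¹ / 8 := by
    rw [show 4 * (2 * a) = 8 * a by ring, mul_inv]; ring
  have hη1 : (2 * a)⁻¹ ≤ η0 := by rw [e2a]; linarith
  have hη2 : η0 ≤ 2 * a := by linarith
  -- the selection restricted to the caps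
  set S' : ℤ × ℤ → Set E3 := fun m => if m ∈ caps ρ then S m else ∅ with hS'
  have hS'm : ∀ m, MeasurableSet (S' m) := by
    intro m
    simp only [hS']
    split_ifs with h
    · exact hS.meas m h
    · exact MeasurableSet.empty
  have hS'e : ∀ m ∈ caps ρ, S' m = S m := fun m hm => by simp only [hS', if_pos hm]
  have hD1 : Dsc 1 κ q r g S' D := by
    intro c X0 f s1 s2 hsd hadm
    refine le_trans (le_of_eq ?_) (hDs c X0 f s1 s2 hsd (adm_mono hM hr hκ hsd hadm))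
    exact Bas367.enc_congr g fun m hm => by rw [hS'e m hm]
  have hdens := fun k : ℕ => hst (128 * M * 4 ^ k) κ r (by
    have : (1:ℝ) ≤ 4 ^ k := one_le_pow₀ (by norm_num)
    nlinarith) hr hκ hκ1 hrκ g S' D hS'm hD hD1 c X0 f s1 s2 hsd hadm
  -- dyadic boxes
  set Q : ℤ × ℤ → ℕ → Set E3 := fun m k => pbx κ (128 * M * 4 ^ k) r s1 s2 c X0 f m with hQ
  have hQm : ∀ m k, MeasurableSet (Q m k) := fun m k => meas_pbx _ _ _ _ _ _ _ _ _
  set u : ℤ × ℤ → E3 → ℝ≥0∞ := fun m y => ‖umc ρ g m y‖ₑ ^ 2 with hu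
  have hum : ∀ m, Measurable (u m) := fun m =>
    ((Bas367.umc_cont hgd.int ρ m).measurable.enorm).pow_const 2
  set G := selc η0 κ ρ g S with hG
  set j := 2 * p + 1 with hj
  have hpt : ∀ m' X, ‖umc ρ G m' X‖ₑ ^ 2 ≤ ENNReal.ofReal (K ^ 2 * 36 * cd3 E3) *
      ∑ m ∈ nearL ρ ρ m', ∫⁻ y in S m,
        u m y * ENNReal.ofReal (kc (dd E3 + j) ρ κ (cen ρ m) (X - y)) := by
    intro m' X
    have h1 := hf1 ρ ρ κ η0 hρ le_rfl hκ (by rw [e8a]; exact hκ8) hη1 hη2 g S hgd.int hS.meas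
      hS.bdd 0 (by simp) m' X
    rw [Bas367.trc_zero] at h1
    simp only [Prod.fst_zero, Prod.snd_zero, zero_smul, add_zero] at h1
    have hkm : ∀ m, AEMeasurable (fun y => ENNReal.ofReal (kc (dd E3 + j) ρ κ (cen ρ m) (X - y)))
        (volume.restrict (S m)) := fun m =>
      (((kc_cont _ hρ hκ _).measurable.comp
        (measurable_const.sub measurable_id)).ennreal_ofReal).aemeasurable
    calc ‖umc ρ G m' X‖ₑ ^ 2 ≤ (ENNReal.ofReal K * ∑ m ∈ nearL ρ ρ m', ∫⁻ y in S m,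
          ENNReal.ofReal (kc (dd E3 + j) ρ κ (cen ρ m) (X - y)) * ‖umc ρ g m y‖ₑ) ^ 2 := by
          gcongr
      _ = ENNReal.ofReal (K ^ 2) * (∑ m ∈ nearL ρ ρ m', ∫⁻ y in S m,
          ‖umc ρ g m y‖ₑ * ENNReal.ofReal (kc (dd E3 + j) ρ κ (cen ρ m) (X - y))) ^ 2 := by
          rw [mul_pow, ENNReal.ofReal_pow hK]
          congr 2
          refine Finset.sum_congr rfl fun m _ => lintegral_congr fun y => mul_comm _ _
      _ ≤ ENNReal.ofReal (K ^ 2) * ((nearL ρ ρ m').card * ∑ m ∈ nearL ρ ρ m', (∫⁻ y in S m,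
          ‖umc ρ g m y‖ₑ * ENNReal.ofReal (kc (dd E3 + j) ρ κ (cen ρ m) (X - y))) ^ 2) := by
          gcongr
          exact sum_sq_le _ _
      _ ≤ ENNReal.ofReal (K ^ 2) * (36 * ∑ m ∈ nearL ρ ρ m', (ENNReal.ofReal (cd3 E3) *
          ∫⁻ y in S m, u m y * ENNReal.ofReal (kc (dd E3 + j) ρ κ (cen ρ m) (X - y)))) := by
          gcongr with m hm
          · exact_mod_cast card_nearL' hρ m'
          · refine (lint_sq_mu (Bas367.umc_cont hgd.int ρ m).measurable.enorm.aemeasurable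
              (hkm m)).trans ?_
            refine mul_le_mul_left ?_ _
            refine (setLIntegral_le_lintegral _ _).trans ?_
            rw [← kc_mass' hρ hκ (cen ρ m) X]
            exact lintegral_mono fun y => ENNReal.ofReal_le_ofReal (kc_anti _ _ hκ.le _ _)
      _ = _ := by
          rw [← Finset.mul_sum, ← mul_assoc, ← mul_assoc]
          congr 1
          rw [ENNReal.ofReal_mul (by positivity), ENNReal.ofReal_mul (by positivity)]
          norm_num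
  have hpair : ∀ m' ∈ caps ρ, ∀ m ∈ nearL ρ ρ m',
      ∫⁻ X in pbx κ 1 r s1 s2 c X0 f m', ∫⁻ y in S m,
        u m y * ENNReal.ofReal (kc (dd E3 + j) ρ κ (cen ρ m) (X - y)) ≤
      ENNReal.ofReal (cd3 E3) * ∫⁻ y in S m, u m y * W j (Q m) y := by
    intro m' hm' m hm
    refine pair_le j hρ hκ (cen ρ m) (meas_pbx _ _ _ _ _ _ _ _ _) (hQm m) ?_ (hum m)
    intro X hX y k hk
    have h1 : (1:ℝ) ≤ 2 ^ k := one_le_pow₀ (by norm_num)
    have h2 := pbx_move hM hr hκ hκ1 hsd hadm (C := cen ρ m') (C' := cen ρ m)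
      (mem_nearL.1 hm).2.le hX h1 hk
    have e4 : ((2:ℝ) ^ k) ^ 2 = 4 ^ k := by
      rw [← pow_mul, mul_comm, pow_mul]; norm_num
    rw [e4] at h2
    exact h2
  calc enc ρ G (fun m => pbx κ 1 r s1 s2 c X0 f m) ≤
        ∑ m' ∈ caps ρ, ENNReal.ofReal (K ^ 2 * 36 * cd3 E3) * ∑ m ∈ nearL ρ ρ m',
          (ENNReal.ofReal (cd3 E3) * ∫⁻ y in S m, u m y * W j (Q m) y) := by
        unfold enc
        refine Finset.sum_le_sum fun m' hm' => ?_
        calc ∫⁻ X in pbx κ 1 r s1 s2 c X0 f m', ‖umc ρ G m' X‖ₑ ^ 2 ≤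
              ∫⁻ X in pbx κ 1 r s1 s2 c X0 f m', ENNReal.ofReal (K ^ 2 * 36 * cd3 E3) *
              ∑ m ∈ nearL ρ ρ m', ∫⁻ y in S m,
                u m y * ENNReal.ofReal (kc (dd E3 + j) ρ κ (cen ρ m) (X - y)) :=
              lintegral_mono fun X => hpt m' X
          _ = ENNReal.ofReal (K ^ 2 * 36 * cd3 E3) * ∑ m ∈ nearL ρ ρ m',
              ∫⁻ X in pbx κ 1 r s1 s2 c X0 f m', ∫⁻ y in S m,
                u m y * ENNReal.ofReal (kc (dd E3 + j) ρ κ (cen ρ m) (X - y)) := by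
              rw [lintegral_const_mul' _ _ ENNReal.ofReal_ne_top, lintegral_finsetSum']
              intro m _
              refine (Measurable.lintegral_prod_right' (ν := volume.restrict (S m)) (f :=
                fun p : E3 × E3 => u m p.2 *
                  ENNReal.ofReal (kc (dd E3 + j) ρ κ (cen ρ m) (p.1 - p.2))) ?_).aemeasurable
              exact ((hum m).comp measurable_snd).mul (((kc_cont _ hρ hκ _).measurable.comp
                (measurable_fst.sub measurable_snd)).ennreal_ofReal)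
          _ ≤ _ := by
              gcongr with m hm
              exact hpair m' hm' m hm
    _ = ENNReal.ofReal (K ^ 2 * 36 * cd3 E3) * ENNReal.ofReal (cd3 E3) *
        ∑ m' ∈ caps ρ, ∑ m ∈ nearL ρ ρ m', ∫⁻ y in S m, u m y * W j (Q m) y := by
        simp only [← Finset.mul_sum]
        ring
    _ ≤ ENNReal.ofReal (K ^ 2 * 36 * cd3 E3) * ENNReal.ofReal (cd3 E3) *
        (36 * ∑ m ∈ caps ρ, ∫⁻ y in S m, u m y * W j (Q m) y) := by
        gcongr
        exact sum_near_le hρ _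
    _ = ENNReal.ofReal (K ^ 2 * 36 * cd3 E3) * ENNReal.ofReal (cd3 E3) *
        (36 * ∑' k, ENNReal.ofReal (th j k) * enc ρ g (fun m => S' m ∩ Q m k)) := by
        congr 2
        unfold enc
        simp only [Finset.mul_sum]
        rw [Summable.tsum_finsetSum fun _ _ => ENNReal.summable]
        refine Finset.sum_congr rfl fun m hm => ?_
        rw [lint_W j (hS.meas m hm) (hQm m) (hum m)]
        refine tsum_congr fun k => ?_
        rw [hS'e m hm]
    _ ≤ ENNReal.ofReal (K ^ 2 * 36 * cd3 E3) * ENNReal.ofReal (cd3 E3) *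
        (36 * ∑' k, ENNReal.ofReal (th j k * (128 * M * 4 ^ k) ^ p) *
          ENNReal.ofReal (Cs * (D * s2 ^ q * scost κ s1 s2 r))) := by
        refine mul_le_mul_right (mul_le_mul_right (ENNReal.tsum_le_tsum fun k => ?_) _) _
        refine (mul_le_mul_right (hdens k) _).trans (le_of_eq ?_)
        have h1 : (0:ℝ) ≤ (128 * M * 4 ^ k) ^ p := by positivity
        rw [ENNReal.ofReal_mul (th_nonneg j k), mul_assoc (ENNReal.ofReal (th j k)),
          ← ENNReal.ofReal_mul h1]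
        congr 2
        ring
    _ = _ := by
        rw [ENNReal.tsum_mul_right, hj, tsum_th p (128 * M) (by positivity)]
        have e36 : (36 : ℝ≥0∞) = ENNReal.ofReal 36 := by norm_num
        rw [e36, ← ENNReal.ofReal_mul (by positivity), ← ENNReal.ofReal_mul (by positivity),
          ← ENNReal.ofReal_mul (by positivity), ← ENNReal.ofReal_mul (by positivity)]
        congr 1
        ring

end Crest.Agent.R116.Sub387
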