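import Crest.Agent.R116.Dc4_295
import Crest.Agent.R116.Cov2_369
import Crest.Agent.R116.Sub_387
import Crest.Agent.R116.En_387
import Crest.Agent.R116.Rst1_126

/-!
# R116 (S0155), wave side: `DECc M q` holds for `2 ≤ M`, `0 ≤ q` (helper295)
-/

set_option autoImplicit false

namespace Crest.Agent.R116.De295

open Crest.Agent.R116.WC188

/-- **DECc holds**. -/
theorem decc {M q : ℝ} (hM : 2 ≤ M) (hq : 0 ≤ q) : DECc M q :=
  decc_of hM hq (Cov369.stabc hq) (Sub387.subc_of (by linarith) (Cov369.stabc hq)) Rst126.rest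
    En387.en1c En387.en2c

end Crest.Agent.R116.De295
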