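import Crest.Agent.R116.F1c2_124
import Crest.Agent.R116.CWd3_480

/-!
# R116 (S0155): (F2) for the cone packets (helper124)

One child cap `m'` of size `ρ' ≥ ρ`, any slowly varying weight `w` (metric `A` dominated by the
plates of the near parent caps):
* `f2_syn` : synthesised waves, `f2_sel` : selected waves `selc η0 κ ρ g S`,
* `f2_root_s`, `f2_root_u` : functions (sliced / unsliced).
-/

set_option autoImplicit false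
set_option linter.unusedSectionVars false

open MeasureTheory FourierTransform
open scoped ContDiff ENNReal

namespace Crest.Agent.R116.F1c124

open Crest.Agent.R138.Wf448
open Crest.Agent.R138.Defs (E2 ee)
open Crest.Agent.R138.Wpk685 (win fat cen caps)
open Crest.Agent.R138.Loc878 (Near nearL mem_nearL capwin_prod)
open Crest.Agent.R116.CWp480 Crest.Agent.R116.CDef480 Crest.Agent.R116.CWc480
open Crest.Agent.R116.CWd480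

/-! ### representation through the composite window -/

section rep

variable {N : ℕ} {Q ρ ρ' : ℝ} {e : E3 → ℂ} {C C' : E2} {B : E3 ≃L[ℝ] E3} {c : E3}

theorem Pc.zero (h : Pc N Q ρ ρ' 0 e C C' B c) : ∃ a, Win N Q a ∧
    ∀ ζ, Crest.Agent.R138.Wpk685.cap win C' ρ' (slp ζ) *
      (Crest.Agent.R138.Wpk685.cap fat C ρ (slp ζ) * e ζ) = CWp480.cap a c B ζ := by
  obtain ⟨a, ha, hid⟩ := h.wn
  refine ⟨a, ha, fun ζ => ?_⟩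
  have := hid ζ
  rw [zero_mul, ee_zero, mul_one, zero_smul, inner_zero_left, ee_zero, mul_one] at this
  exact this

/-- composite window applied to a synthesised piece. -/
theorem Pc.rep_piece (h : Pc N Q ρ ρ' 0 e C C' B c) {v : E3 → ℂ} (hv : Integrable v) {M : ℝ}
    (hM : ∀ y, ‖v y‖ ≤ M) :
    Rep N Q B c (fun ζ => Crest.Agent.R138.Wpk685.cap win C' ρ' (slp ζ) *
      (Crest.Agent.R138.Wpk685.cap fat C ρ (slp ζ) * e ζ * 𝓕 v ζ)) v := by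
  obtain ⟨a, ha, hca⟩ := h.zero
  have e1 : (fun ζ => Crest.Agent.R138.Wpk685.cap win C' ρ' (slp ζ) *
      (Crest.Agent.R138.Wpk685.cap fat C ρ (slp ζ) * e ζ * 𝓕 v ζ)) =
      fun ζ => CWp480.cap a c B ζ * 𝓕 v ζ := by
    funext ζ
    rw [← hca]
    ring
  rw [e1]
  have hb : ∀ ξ, ‖𝓕 v ξ‖ ≤ ∫ y, ‖v y‖ := fun ξ =>
    VectorFourier.norm_fourierIntegral_le_integral_norm _ _ _ _ _
  have hc : Continuous (𝓕 v) := VectorFourier.fourierIntegral_continuous Real.continuous_fourierChar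
    (by exact continuous_inner) hv
  obtain ⟨h1, h2⟩ := cap_bdd_l2 ha c B hc.aestronglyMeasurable hb
  exact ⟨h1, h2, hv.1, ⟨M, hM⟩, a, ha, fun x => rep_ind (cap_int ha c B) hv x⟩

/-- composite window applied to `χ_C g`. -/
theorem Pc.rep_umc (h : Pc N Q ρ ρ' 0 e C C' B c) {g : E3 → ℂ}
    (hg : Integrable (fun ξ => Crest.Agent.R138.Wpk685.cap win C ρ (slp ξ) * g ξ))
    (hg2 : MemLp (fun ξ => Crest.Agent.R138.Wpk685.cap win C ρ (slp ξ) * g ξ) 2)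
    (he : ∀ ζ, g ζ ≠ 0 → e ζ = 1) :
    Rep N Q B c (fun ξ => Crest.Agent.R138.Wpk685.cap win C' ρ' (slp ξ) *
      (Crest.Agent.R138.Wpk685.cap win C ρ (slp ξ) * g ξ))
      (𝓕⁻ (fun ξ => Crest.Agent.R138.Wpk685.cap win C ρ (slp ξ) * g ξ)) := by
  obtain ⟨a, ha, hca⟩ := h.zero
  have hcont : Continuous (𝓕⁻ (fun ξ => Crest.Agent.R138.Wpk685.cap win C ρ (slp ξ) * g ξ)) :=
    fourierInv_continuous hg
  have e1 : (fun ξ => Crest.Agent.R138.Wpk685.cap win C' ρ' (slp ξ) *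
      (Crest.Agent.R138.Wpk685.cap win C ρ (slp ξ) * g ξ)) =
      fun ξ => CWp480.cap a c B ξ * (Crest.Agent.R138.Wpk685.cap win C ρ (slp ξ) * g ξ) := by
    funext ξ
    by_cases h0 : g ξ = 0
    · rw [h0]; ring
    · rw [← hca, he ξ h0]
      have := fat_win C (ρ := ρ) (slp ξ)
      calc _ = Crest.Agent.R138.Wpk685.cap win C' ρ' (slp ξ) *
          (Crest.Agent.R138.Wpk685.cap win C ρ (slp ξ) * g ξ) := rfl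
        _ = Crest.Agent.R138.Wpk685.cap win C' ρ' (slp ξ) *
          ((Crest.Agent.R138.Wpk685.cap fat C ρ (slp ξ) *
            Crest.Agent.R138.Wpk685.cap win C ρ (slp ξ)) * g ξ) := by rw [this]
        _ = _ := by ring
  have hwin : Continuous win := Crest.Agent.R138.Wpk685.win_contDiff.continuous
  have hm := measurable_capc hwin C' ρ'
  refine ⟨hg.bdd_mul (c := 1) hm.aestronglyMeasurable
    (Filter.Eventually.of_forall fun _ => norm_cap_win_le _ _ _), ?_, hcont.aestronglyMeasurable,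
    ⟨∫ ξ, ‖Crest.Agent.R138.Wpk685.cap win C ρ (slp ξ) * g ξ‖, fun y => ?_⟩, a, ha, fun x => ?_⟩
  · refine MemLp.of_le hg2 (hm.aestronglyMeasurable.mul hg2.1)
      (Filter.Eventually.of_forall fun ξ => ?_)
    rw [norm_mul]
    exact mul_le_of_le_one_left (norm_nonneg _) (norm_cap_win_le _ _ _)
  · rw [fourierInv_eq_int]
    refine (norm_integral_le_integral_norm _).trans (le_of_eq ?_)
    congr 1
    ext ζ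
    rw [norm_mul _ (ee _), Crest.Agent.R138.Wpk685.norm_ee, mul_one]
  · rw [← rep_mul (contDiff_cap ha.smooth c B).continuous (cap_int ha c B) (Kf_int ha c B)
      (Kf_int' ha c B) hg x, e1]

end rep

/-! ### the core -/

theorem f2_core {a M : ℝ} (n : ℕ) {T L Q : ℝ} (ha : 1 ≤ a) (hM : 0 ≤ M) (hL : 1 ≤ L) (hQ : 0 < Q)
    (Q' : ℝ) :
    ∃ Cst : ℝ, 0 ≤ Cst ∧ ∀ (ρ ρ' κ η0 : ℝ) (hρ : 0 < ρ) (hκ : 0 < κ), κ ≤ 1 → ∀ (e : E3 → ℂ),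
      PkF (n + dd E3) Q T a M η0 κ ρ ha hM hρ hκ e →
    ∀ (A : E3 ≃L[ℝ] E3) (K : ℝ) (w : E3 → ℝ), SV A K n w → ∀ m' : ℤ × ℤ,
    (∀ m ∈ nearL ρ ρ' m', ∀ x, ‖A x‖ ≤ L * ‖Pl ρ κ hρ hκ (cen ρ m) x‖) →
    ∀ z : E3 × ℝ, |z.2| * ρ ^ 2 ≤ T →
    ∀ (F v : ℤ × ℤ → E3 → ℂ),
    (∀ m ∈ nearL ρ ρ' m', ∀ ξ, F m ξ ≠ 0 → ξ ∈ Sd a M η0 κ ρ (cen ρ m)) →
    (∀ m ∈ nearL ρ ρ' m', Rep (n + dd E3) Q'
      (Fr (lam a M) ρ κ (lam_pos ha hM) hρ hκ (cen ρ m)) (ctr η0 (cen ρ m))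
      (fun ζ => capc ρ' m' ζ * F m ζ) (v m)) →
    ∀ G : E3 → ℂ, (∀ ζ, capc ρ' m' ζ * G ζ = ∑ m ∈ nearL ρ ρ' m', capc ρ' m' ζ * F m ζ) →
    ∫⁻ x, ENNReal.ofReal (w x) * ‖umc ρ' (trc z G) m' x‖ₑ ^ 2 ≤ ENNReal.ofReal (Cst * K ^ 5) *
      ∑ m ∈ nearL ρ ρ' m', ∫⁻ y,
        ENNReal.ofReal (w (y - z.1 - z.2 • vel (cen ρ m))) * ‖v m y‖ₑ ^ 2 := by
  obtain ⟨C0, hC0, h⟩ := thmAc n (T := T) ha hM hL hQ
  refine ⟨C0 * Pov a * Q' ^ 2, by have := Pov_pos a; positivity, ?_⟩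
  intro ρ ρ' κ η0 hρ hκ hκ1 e hpk A K w hw m' hA z hz F v hF hR G hG
  have e1 : ∫⁻ x, ENNReal.ofReal (w x) * ‖umc ρ' (trc z G) m' x‖ₑ ^ 2 =
      WE (fun x => w (x - z.1))
        (slc (fun ζ => ∑ m ∈ nearL ρ ρ' m', capc ρ' m' ζ * F m ζ) z.2) := by
    refine WE_modulate w z.1 (f := slc (fun ζ => ∑ m ∈ nearL ρ ρ' m', capc ρ' m' ζ * F m ζ) z.2)
      (f' := fun ζ => capc ρ' m' ζ * trc z G ζ) fun ξ => ?_
    have e2 : slc (fun ζ => ∑ m ∈ nearL ρ ρ' m', capc ρ' m' ζ * F m ζ) z.2 ξ =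
        (capc ρ' m' ξ * G ξ) * ee (z.2 * hc ξ) := by
      unfold slc
      rw [hG ξ]
    rw [e2]
    unfold trc
    rw [ee_add]
    ring
  rw [e1]
  refine (h ρ κ η0 hρ hκ hκ1 e A K _ (hw.comp_sub z.1) (ℤ × ℤ) (nearL ρ ρ' m') (cen ρ) (Pov a)
    (Pov_pos a) (hov_cen hρ _) hA z.2 hz (fun m _ => hpk _)
    (fun m ζ => capc ρ' m' ζ * F m ζ) v Q' ?_ hR).trans (le_of_eq ?_)
  · intro m hm ξ hξ
    exact hF m hm ξ (right_ne_zero_of_mul hξ)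
  · congr 1
    · congr 1
      ring
    · refine Finset.sum_congr rfl fun m _ => lintegral_congr fun y => ?_
      rw [show y - z.2 • vel (cen ρ m) - z.1 = y - z.1 - z.2 • vel (cen ρ m) by abel]

/-- far parent caps do not see the child cap. -/
theorem syn_near {ρ ρ' : ℝ} (hρ : 0 < ρ) (hρ' : ρ ≤ ρ') (e : E3 → ℂ) (V : ℤ × ℤ → E3 → ℂ)
    (m' : ℤ × ℤ) (ζ : E3) :
    capc ρ' m' ζ * ∑ m ∈ caps ρ, fatc ρ m ζ * e ζ * V m ζ =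
      ∑ m ∈ nearL ρ ρ' m', capc ρ' m' ζ * (fatc ρ m ζ * e ζ * V m ζ) := by
  classical
  rw [Finset.mul_sum]
  unfold nearL
  rw [Finset.sum_filter_of_ne]
  intro m _ hne
  by_contra hc
  have h6 : capc ρ' m' ζ * fatc ρ m ζ = 0 := capwin_fat_far hρ hρ' hc (slp ζ)
  apply hne
  calc _ = (capc ρ' m' ζ * fatc ρ m ζ) * (e ζ * V m ζ) := by ring
    _ = 0 := by rw [h6, zero_mul]

theorem root_near {ρ ρ' : ℝ} (hρ : 0 < ρ) (hρ' : ρ ≤ ρ') {g : E3 → ℂ}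
    (hs : ∀ ζ, g ζ ≠ 0 → ‖slp ζ‖ ≤ 2) (m' : ℤ × ℤ) (ζ : E3) :
    capc ρ' m' ζ * g ζ = ∑ m ∈ nearL ρ ρ' m', capc ρ' m' ζ * (capc ρ m ζ * g ζ) := by
  classical
  by_cases h0 : capc ρ' m' ζ * g ζ = 0
  · rw [h0]
    symm
    refine Finset.sum_eq_zero fun m _ => ?_
    calc _ = capc ρ m ζ * (capc ρ' m' ζ * g ζ) := by ring
      _ = 0 := by rw [h0, mul_zero]
  · have h4 := hs ζ (right_ne_zero_of_mul h0)
    have h5 : ∑ m ∈ nearL ρ ρ' m', capc ρ m ζ = 1 := by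
      rw [← Crest.Agent.R138.Wpk685.cap_win_sum hρ h4]
      unfold nearL
      rw [Finset.sum_filter_of_ne]
      · rfl
      intro m _ hne
      by_contra hc
      have h6 := capwin_prod hρ hρ' hc (slp ζ)
      rcases mul_eq_zero.1 h6 with h7 | h7
      · exact hne h7
      · exact (left_ne_zero_of_mul h0) h7
    calc capc ρ' m' ζ * g ζ = (∑ m ∈ nearL ρ ρ' m', capc ρ m ζ) * (capc ρ' m' ζ * g ζ) := by
          rw [h5, one_mul]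
      _ = _ := by
          rw [Finset.sum_mul]
          refine Finset.sum_congr rfl fun m _ => ?_
          ring

/-! ### final forms -/

/-- **(F2), synthesis**. -/
theorem f2_syn {a : ℝ} (ha : 1 ≤ a) (n : ℕ) (T : ℝ) {L : ℝ} (hL : 1 ≤ L) :
    ∃ Cst : ℝ, 0 ≤ Cst ∧ ∀ (ρ ρ' κ η0 : ℝ) (hρ : 0 < ρ) (_ : ρ ≤ ρ') (hκ : 0 < κ), a⁻¹ ≤ η0 →
      η0 ≤ a → κ ≤ (4 * a)⁻¹ →
    ∀ (A : E3 ≃L[ℝ] E3) (K : ℝ) (w : E3 → ℝ), SV A K n w → ∀ m' : ℤ × ℤ,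
    (∀ m ∈ nearL ρ ρ' m', ∀ x, ‖A x‖ ≤ L * ‖Pl ρ κ hρ hκ (cen ρ m) x‖) →
    ∀ z : E3 × ℝ, |z.2| * ρ ^ 2 ≤ T →
    ∀ v : ℤ × ℤ → E3 → ℂ, (∀ m ∈ nearL ρ ρ' m', Integrable (v m)) →
      (∀ m ∈ nearL ρ ρ' m', ∃ B, ∀ y, ‖v m y‖ ≤ B) →
    ∫⁻ x, ENNReal.ofReal (w x) *
      ‖umc ρ' (trc z fun ζ => ∑ m ∈ caps ρ, fatc ρ m ζ * etw η0 κ ζ * 𝓕 (v m) ζ) m' x‖ₑ ^ 2 ≤
      ENNReal.ofReal (Cst * K ^ 5) * ∑ m ∈ nearL ρ ρ' m', ∫⁻ y,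
        ENNReal.ofReal (w (y - z.1 - z.2 • vel (cen ρ m))) * ‖v m y‖ₑ ^ 2 := by
  obtain ⟨Q, hQ, hF⟩ := pkF_sliced ha (n + dd E3) T
  obtain ⟨Q', K', hK', hP⟩ := kn_sliced ha (n + dd E3) (max T 0)
  obtain ⟨C0, hC0, h⟩ := f2_core (a := 2 * a) (M := 2) n (T := T) (L := L) (Q := Q)
    (by linarith) (by norm_num) hL hQ Q'
  refine ⟨C0, hC0, ?_⟩
  intro ρ ρ' κ η0 hρ hρ' hκ h1 h2 h3 A K w hw m' hA z hz v hv hb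
  have h4 : κ ≤ 1 := h3.trans (inv_le_one_of_one_le₀ (by linarith))
  have hpk := hF η0 κ h1 h2 hκ h3 ρ hρ
  refine h ρ ρ' κ η0 hρ hκ h4 (etw η0 κ) hpk A K w hw m' hA z hz
    (fun m ζ => fatc ρ m ζ * etw η0 κ ζ * 𝓕 (v m) ζ) v ?_ ?_ _ (syn_near hρ hρ' _ _ m')
  · intro m _ ξ hξ
    exact (hpk (cen ρ m)).sf ξ (left_ne_zero_of_mul hξ)
  · intro m hm
    obtain ⟨B, hB⟩ := hb m hm
    exact (hP η0 κ h1 h2 hκ h3 ρ ρ' 0 hρ hρ' (by simp) _ _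
      (mem_nearL.1 hm).2.le).1.rep_piece (hv m hm) hB

/-- **(F2), selected waves**. -/
theorem f2_sel {a : ℝ} (ha : 1 ≤ a) (n : ℕ) (T : ℝ) {L : ℝ} (hL : 1 ≤ L) :
    ∃ Cst : ℝ, 0 ≤ Cst ∧ ∀ (ρ ρ' κ η0 : ℝ) (hρ : 0 < ρ) (_ : ρ ≤ ρ') (hκ : 0 < κ), a⁻¹ ≤ η0 →
      η0 ≤ a → κ ≤ (4 * a)⁻¹ →
    ∀ (A : E3 ≃L[ℝ] E3) (K : ℝ) (w : E3 → ℝ), SV A K n w → ∀ m' : ℤ × ℤ,
    (∀ m ∈ nearL ρ ρ' m', ∀ x, ‖A x‖ ≤ L * ‖Pl ρ κ hρ hκ (cen ρ m) x‖) →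
    ∀ z : E3 × ℝ, |z.2| * ρ ^ 2 ≤ T →
    ∀ (g : E3 → ℂ) (S : ℤ × ℤ → Set E3), Integrable g → (∀ m ∈ caps ρ, MeasurableSet (S m)) →
    (∀ m ∈ caps ρ, Bornology.IsBounded (S m)) →
    ∫⁻ x, ENNReal.ofReal (w x) * ‖umc ρ' (trc z (selc η0 κ ρ g S)) m' x‖ₑ ^ 2 ≤
      ENNReal.ofReal (Cst * K ^ 5) * ∑ m ∈ nearL ρ ρ' m', ∫⁻ y in S m,
        ENNReal.ofReal (w (y - z.1 - z.2 • vel (cen ρ m))) * ‖umc ρ g m y‖ₑ ^ 2 := by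
  obtain ⟨C0, hC0, h⟩ := f2_syn ha n T hL
  refine ⟨C0, hC0, ?_⟩
  intro ρ ρ' κ η0 hρ hρ' hκ h1 h2 h3 A K w hw m' hA z hz g S hg hS hSb
  have hsc : ∀ m ∈ nearL ρ ρ' m', m ∈ caps ρ := fun m hm => (mem_nearL.1 hm).1
  have hi := fun m (hm : m ∈ nearL ρ ρ' m') => CWd480.ind_int
    (CWd480.umc_cont hg ρ m).aestronglyMeasurable (umc_le ρ m) (hS m (hsc m hm)) (hSb m (hsc m hm))
  have h4 := h ρ ρ' κ η0 hρ hρ' hκ h1 h2 h3 A K w hw m' hA z hz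
    (fun m => (S m).indicator (umc ρ g m)) (fun m hm => (hi m hm).1) (fun m hm => ⟨_, (hi m hm).2⟩)
  refine h4.trans (le_of_eq ?_)
  congr 1
  refine Finset.sum_congr rfl fun m hm => ?_
  rw [← lintegral_indicator (hS m (hsc m hm))]
  refine lintegral_congr fun y => ?_
  by_cases hy : y ∈ S m
  · rw [Set.indicator_of_mem hy, Set.indicator_of_mem hy]
  · rw [Set.indicator_of_notMem hy, Set.indicator_of_notMem hy]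
    simp

/-- **(F2), sliced functions**. -/
theorem f2_root_s {a : ℝ} (ha : 1 ≤ a) (n : ℕ) (T : ℝ) {L : ℝ} (hL : 1 ≤ L) :
    ∃ Cst : ℝ, 0 ≤ Cst ∧ ∀ (ρ ρ' κ η0 : ℝ) (hρ : 0 < ρ) (_ : ρ ≤ ρ') (hκ : 0 < κ), a⁻¹ ≤ η0 →
      η0 ≤ a → κ ≤ (4 * a)⁻¹ →
    ∀ (A : E3 ≃L[ℝ] E3) (K : ℝ) (w : E3 → ℝ), SV A K n w → ∀ m' : ℤ × ℤ,
    (∀ m ∈ nearL ρ ρ' m', ∀ x, ‖A x‖ ≤ L * ‖Pl ρ κ hρ hκ (cen ρ m) x‖) →
    ∀ z : E3 × ℝ, |z.2| * ρ ^ 2 ≤ T →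
    ∀ g : E3 → ℂ, Integrable g → MemLp g 2 →
      (∀ ζ, g ζ ≠ 0 → |ζ 2 - η0| ≤ 3/2 * κ ∧ ‖slp ζ‖ ≤ 2) →
    ∫⁻ x, ENNReal.ofReal (w x) * ‖umc ρ' (trc z g) m' x‖ₑ ^ 2 ≤
      ENNReal.ofReal (Cst * K ^ 5) * ∑ m ∈ nearL ρ ρ' m', ∫⁻ y,
        ENNReal.ofReal (w (y - z.1 - z.2 • vel (cen ρ m))) * ‖umc ρ g m y‖ₑ ^ 2 := by
  obtain ⟨Q, hQ, hF⟩ := pkF_sliced ha (n + dd E3) T
  obtain ⟨Q', K', hK', hP⟩ := kn_sliced ha (n + dd E3) (max T 0)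
  obtain ⟨C0, hC0, h⟩ := f2_core (a := 2 * a) (M := 2) n (T := T) (L := L) (Q := Q)
    (by linarith) (by norm_num) hL hQ Q'
  refine ⟨C0, hC0, ?_⟩
  intro ρ ρ' κ η0 hρ hρ' hκ h1 h2 h3 A K w hw m' hA z hz g hg hg2 hs
  have h4 : κ ≤ 1 := h3.trans (inv_le_one_of_one_le₀ (by linarith))
  have hpk := hF η0 κ h1 h2 hκ h3 ρ hρ
  have he : ∀ ζ, g ζ ≠ 0 → etw η0 κ ζ = 1 := by
    intro ζ hζ
    rw [etw_eq]
    apply bt_one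
    rw [abs_div, abs_of_pos hκ, div_le_iff₀ hκ]
    exact (hs ζ hζ).1
  refine h ρ ρ' κ η0 hρ hκ h4 (etw η0 κ) hpk A K w hw m' hA z hz
    (fun m ζ => capc ρ m ζ * g ζ) (umc ρ g) ?_ ?_ g
    (root_near hρ hρ' (fun ζ hζ => (hs ζ hζ).2) m')
  · intro m _ ξ hξ
    refine (hpk (cen ρ m)).sw ξ ?_
    rw [he ξ (right_ne_zero_of_mul hξ), mul_one]
    exact left_ne_zero_of_mul hξ
  · intro m hm
    exact (hP η0 κ h1 h2 hκ h3 ρ ρ' 0 hρ hρ' (by simp) _ _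
      (mem_nearL.1 hm).2.le).1.rep_umc (CWd480.capc_int hg ρ m) (CWd480.capc_l2 hg2 ρ m) he

/-- **(F2), unsliced functions** (`κ = 1`). -/
theorem f2_root_u {a : ℝ} (ha : 1 ≤ a) (n : ℕ) (T : ℝ) {L : ℝ} (hL : 1 ≤ L) :
    ∃ Cst : ℝ, 0 ≤ Cst ∧ ∀ (ρ ρ' : ℝ) (hρ : 0 < ρ) (_ : ρ ≤ ρ'),
    ∀ (A : E3 ≃L[ℝ] E3) (K : ℝ) (w : E3 → ℝ), SV A K n w → ∀ m' : ℤ × ℤ,
    (∀ m ∈ nearL ρ ρ' m', ∀ x, ‖A x‖ ≤ L * ‖Pl ρ 1 hρ one_pos (cen ρ m) x‖) →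
    ∀ z : E3 × ℝ, |z.2| * ρ ^ 2 ≤ T →
    ∀ g : E3 → ℂ, Integrable g → MemLp g 2 →
      (∀ ζ, g ζ ≠ 0 → a⁻¹ ≤ ζ 2 ∧ ζ 2 ≤ a ∧ ‖slp ζ‖ ≤ 2) →
    ∫⁻ x, ENNReal.ofReal (w x) * ‖umc ρ' (trc z g) m' x‖ₑ ^ 2 ≤
      ENNReal.ofReal (Cst * K ^ 5) * ∑ m ∈ nearL ρ ρ' m', ∫⁻ y,
        ENNReal.ofReal (w (y - z.1 - z.2 • vel (cen ρ m))) * ‖umc ρ g m y‖ₑ ^ 2 := by
  obtain ⟨Q, hQ, hF⟩ := pkF_unsliced ha (n + dd E3) T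
  obtain ⟨Q', K', hK', hP⟩ := kn_unsliced ha (n + dd E3) (max T 0)
  obtain ⟨C0, hC0, h⟩ := f2_core (a := 2 * a) (M := 2 * a) n (T := T) (L := L) (Q := Q)
    (by linarith) (by linarith) hL hQ Q'
  refine ⟨C0, hC0, ?_⟩
  intro ρ ρ' hρ hρ' A K w hw m' hA z hz g hg hg2 hs
  have hpk := hF ρ hρ
  have he : ∀ ζ, g ζ ≠ 0 → eaw a ζ = 1 := fun ζ hζ => eaw_one ha (hs ζ hζ).1 (hs ζ hζ).2.1
  refine h ρ ρ' 1 0 hρ one_pos le_rfl (eaw a) hpk A K w hw m' hA z hz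
    (fun m ζ => capc ρ m ζ * g ζ) (umc ρ g) ?_ ?_ g
    (root_near hρ hρ' (fun ζ hζ => (hs ζ hζ).2.2) m')
  · intro m _ ξ hξ
    refine (hpk (cen ρ m)).sw ξ ?_
    rw [he ξ (right_ne_zero_of_mul hξ), mul_one]
    exact left_ne_zero_of_mul hξ
  · intro m hm
    exact (hP ρ ρ' 0 hρ hρ' (by simp) _ _
      (mem_nearL.1 hm).2.le).1.rep_umc (CWd480.capc_int hg ρ m) (CWd480.capc_l2 hg2 ρ m) he

end Crest.Agent.R116.F1c124
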