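import Crest.Agent.R116.Ckm1_538

/-!
# R116 (S0155), wave side: plate metric, multiplicity and coherence for the tube step (helper373)

`pn θ κ C Z = θ ‖lat Z‖ + κ |nrm C Z 0|` = plate norm of the displacement `Z` for the slope `C`
(plates `θ⁻¹ × θ⁻¹ × κ⁻¹`).  `D z x C = z.1 + z.2 • vel C + x` = time-zero position of the ray of
slope `C` through the point `(z.1 + x, z.2)`.
`potT` = isotropic coherence count, `mult` = lower bound on the whole plate of a child packet,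
`coht` = coherence bound of the parents.
-/

set_option autoImplicit false

open MeasureTheory
open scoped ENNReal

namespace Crest.Agent.R116.TuG373

open Crest.Agent.R138.Defs (E2)
open Crest.Agent.R138.Wpk685 (cen caps)
open Crest.Agent.R116.CDef480 Crest.Agent.R116.Ckm538

/-- plate norm. -/
noncomputable def pn (th kp : ℝ) (C : E2) (Z : E3) : ℝ := th * ‖lat Z‖ + kp * |nrm C Z 0|

/-- time-zero position of the ray of slope `C` through `(z.1 + x, z.2)`. -/
noncomputable def D (z : E3 × ℝ) (x : E3) (C : E2) : E3 := z.1 + z.2 • vel C + x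

variable {th kp : ℝ}

theorem pn_nonneg (hth : 0 ≤ th) (hkp : 0 ≤ kp) (C : E2) (Z : E3) : 0 ≤ pn th kp C Z := by
  unfold pn; positivity

theorem pn_add (hth : 0 ≤ th) (hkp : 0 ≤ kp) (C : E2) (Z Z' : E3) :
    pn th kp C (Z + Z') ≤ pn th kp C Z + pn th kp C Z' := by
  unfold pn
  rw [lat_add, nrm_add0]
  have h1 := mul_le_mul_of_nonneg_left (norm_add_le (lat Z) (lat Z')) hth
  have h2 := mul_le_mul_of_nonneg_left (abs_add_le (nrm C Z 0) (nrm C Z' 0)) hkp
  linarith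

theorem pn_neg (C : E2) (Z : E3) : pn th kp C (-Z) = pn th kp C Z := by
  have e1 : lat (-Z) = -lat Z := by ext i; fin_cases i <;> rfl
  have e2 : nrm C (-Z) 0 = -nrm C Z 0 := by
    rw [nrm_zero, nrm_zero, e1, inner_neg_right]
    simp only [PiLp.neg_apply]
    ring
  unfold pn
  rw [e1, e2, norm_neg, abs_neg]

theorem pn_sub (hth : 0 ≤ th) (hkp : 0 ≤ kp) (C : E2) (Z Z' : E3) :
    pn th kp C (Z - Z') ≤ pn th kp C Z + pn th kp C Z' := by
  rw [sub_eq_add_neg]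
  refine (pn_add hth hkp C Z (-Z')).trans ?_
  rw [pn_neg]

theorem pn_mono {th' kp' : ℝ} (h1 : th ≤ th') (h2 : kp ≤ kp') (C : E2) (Z : E3) :
    pn th kp C Z ≤ pn th' kp' C Z := by
  unfold pn
  have a1 := mul_le_mul_of_nonneg_right h1 (norm_nonneg (lat Z))
  have a2 := mul_le_mul_of_nonneg_right h2 (abs_nonneg (nrm C Z 0))
  linarith

theorem nrm_change (C C' : E2) (Z : E3) : nrm C Z 0 = nrm C' Z 0 + inner ℝ (C - C') (lat Z) := by
  rw [nrm_zero, nrm_zero, inner_sub_left]; ring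

/-- change of direction. -/
theorem pn_change {L1 : ℝ} (hkp : 0 ≤ kp) {C C' : E2}
    (h : kp * ‖C - C'‖ ≤ L1 * th) (hL : 0 ≤ L1) (Z : E3) :
    pn th kp C Z ≤ (1 + L1) * pn th kp C' Z := by
  unfold pn
  have h1 : |nrm C Z 0| ≤ |nrm C' Z 0| + ‖C - C'‖ * ‖lat Z‖ := by
    rw [nrm_change C C' Z]
    exact (abs_add_le _ _).trans (add_le_add le_rfl (abs_real_inner_le_norm _ _))
  have h2 := mul_le_mul_of_nonneg_left h1 hkp
  have h3 := mul_le_mul_of_nonneg_right h (norm_nonneg (lat Z))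
  have h4 : 0 ≤ L1 * (kp * |nrm C' Z 0|) := by positivity
  nlinarith

theorem nrm_vel (t : ℝ) (C C' : E2) : nrm C (t • (vel C - vel C')) 0 = t * ‖C - C'‖ ^ 2 / 2 := by
  rw [nrm_smul0, nrm_sub0, nrm_zero, nrm_zero]
  unfold vel
  rw [lat_pt, lat_pt, pt_two, pt_two, real_inner_self_eq_norm_sq, @norm_sub_sq_real]
  ring

/-- displacement of two rays of different slopes. -/
theorem pn_vel (t : ℝ) (C C' : E2) :
    pn th kp C (t • (vel C - vel C')) = th * (|t| * ‖C - C'‖) + kp * (|t| * ‖C - C'‖ ^ 2 / 2) := by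
  unfold pn
  rw [nrm_vel]
  have e1 : lat (t • (vel C - vel C')) = t • (C - C') := by
    rw [lat_smul, lat_sub]
    unfold vel
    rw [lat_pt, lat_pt]
  rw [e1, norm_smul, Real.norm_eq_abs, abs_div, abs_mul, abs_two,
    abs_of_nonneg (sq_nonneg ‖C - C'‖)]

theorem D_sub (z z' : E3 × ℝ) (x x' : E3) (C C' : E2) :
    D z' x' C - D z x C = (D z' x' C' - D z x C') + (z'.2 - z.2) • (vel C - vel C') := by
  unfold D
  module

/-- transport: it is enough to follow one slope. -/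
theorem pn_shift {L1 σ δ T : ℝ} (hth : 0 ≤ th) (hkp : 0 ≤ kp) (hL : 0 ≤ L1) {C C' : E2}
    (hσ : ‖C - C'‖ ≤ σ) (h1 : kp * σ ≤ L1 * th) {z z' : E3 × ℝ} {x x' : E3}
    (hT : |z'.2 - z.2| ≤ T) (hd : pn th kp C' (D z' x' C' - D z x C') ≤ δ) :
    pn th kp C (D z' x' C - D z x C) ≤ (1 + L1) * δ + (th * (T * σ) + kp * (T * σ ^ 2 / 2)) := by
  rw [D_sub z z' x x' C C']
  refine (pn_add hth hkp C _ _).trans (add_le_add ?_ ?_)
  · refine (pn_change (C' := C') (L1 := L1) hkp ?_ hL _).trans ?_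
    · exact (mul_le_mul_of_nonneg_left hσ hkp).trans h1
    · exact mul_le_mul_of_nonneg_left hd (by linarith)
  · rw [pn_vel]
    have hT0 : 0 ≤ T := (abs_nonneg _).trans hT
    have h0 := norm_nonneg (C - C')
    gcongr

/-! ### counts -/

/-- a family of densities: child cap, frame, point. -/
abbrev Dn := ℤ × ℤ → E3 × ℝ → E3 → ℝ≥0∞

/-- slow variation along the packets of the child caps (angle `th'`), time window `T`. -/
def Slow (th kp th' T : ℝ) (F : ℝ → ℝ) (Ad : Dn) : Prop :=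
  ∀ (m : ℤ × ℤ) (z z' : E3 × ℝ) (x x' : E3) (δ : ℝ), m ∈ caps th' → |z'.2 - z.2| ≤ T → 0 ≤ δ →
    pn th kp (cen th' m) (D z' x' (cen th' m) - D z x (cen th' m)) ≤ δ →
    Ad m z x ≤ ENNReal.ofReal (F δ) * Ad m z' x'

open Classical in
/-- isotropic coherence count: child caps in the ball of radius `σ` whose density at the point is at
least `1/K` times the density of the cap `m'`. -/
noncomputable def potT (Ad : Dn) (th' σ K : ℝ) (m' : ℤ × ℤ) (z : E3 × ℝ) (y : E3) : ℕ :=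
  ((caps th').filter fun m => ‖cen th' m - cen th' m'‖ ≤ σ ∧
    Ad m' z y ≤ ENNReal.ofReal K * Ad m z y).card

open Classical in
/-- **MULT**: the counted caps are present on the whole plate of the child packet. -/
theorem mult {Ad : Dn} {th' σ K L1 δ T : ℝ} {F : ℝ → ℝ} (hS : Slow th kp th' T F Ad)
    (hth : 0 ≤ th) (hkp : 0 ≤ kp) (hL : 0 ≤ L1) (hK : 0 ≤ K) (hδ : 0 ≤ δ) (hT : 0 ≤ T)
    (h1 : kp * σ ≤ L1 * th) {m' : ℤ × ℤ} {ζ z : E3 × ℝ} {y x : E3} {a : ℝ≥0∞} {p : ℕ}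
    (ha : a ≤ Ad m' ζ y) (hp : p ≤ potT Ad th' σ K m' ζ y) (ht : |z.2 - ζ.2| ≤ T)
    (hd : pn th kp (cen th' m') (D z x (cen th' m') - D ζ y (cen th' m')) ≤ δ) :
    (p : ℝ≥0∞) * a ≤
      ENNReal.ofReal (K * F ((1 + L1) * δ + (th * (T * σ) + kp * (T * σ ^ 2 / 2)))) *
        ∑ m ∈ (caps th').filter (fun m => ‖cen th' m - cen th' m'‖ ≤ σ), Ad m z x := by
  set δ' : ℝ := (1 + L1) * δ + (th * (T * σ) + kp * (T * σ ^ 2 / 2)) with hδ'
  set W := (caps th').filter fun m => ‖cen th' m - cen th' m'‖ ≤ σ ∧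
    Ad m' ζ y ≤ ENNReal.ofReal K * Ad m ζ y with hW
  have hpW : p ≤ W.card := hp
  rcases W.eq_empty_or_nonempty with h0 | ⟨m1, hm1⟩
  · rw [h0, Finset.card_empty, Nat.le_zero] at hpW
    rw [hpW, Nat.cast_zero, zero_mul]
    exact zero_le
  have hσ0 : 0 ≤ σ := (norm_nonneg _).trans (Finset.mem_filter.1 hm1).2.1
  have hδ'0 : 0 ≤ δ' := by
    have : 0 ≤ th * (T * σ) + kp * (T * σ ^ 2 / 2) := by positivity
    have : 0 ≤ (1 + L1) * δ := by positivity
    linarith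
  have key : ∀ m ∈ W, a ≤ ENNReal.ofReal (K * F δ') * Ad m z x := by
    intro m hm
    obtain ⟨hmc, hmσ, hmK⟩ := Finset.mem_filter.1 hm
    have h2 := hS m ζ z y x δ' hmc ht hδ'0 (pn_shift hth hkp hL hmσ h1 ht hd)
    calc a ≤ ENNReal.ofReal K * Ad m ζ y := ha.trans hmK
      _ ≤ ENNReal.ofReal K * (ENNReal.ofReal (F δ') * Ad m z x) := mul_le_mul' le_rfl h2
      _ = _ := by rw [ENNReal.ofReal_mul hK, mul_assoc]
  calc (p : ℝ≥0∞) * a ≤ W.card * a := mul_le_mul' (by exact_mod_cast hpW) le_rfl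
    _ = ∑ _m ∈ W, a := by rw [Finset.sum_const, nsmul_eq_mul]
    _ ≤ ∑ m ∈ W, ENNReal.ofReal (K * F δ') * Ad m z x := Finset.sum_le_sum key
    _ = ENNReal.ofReal (K * F δ') * ∑ m ∈ W, Ad m z x := by rw [Finset.mul_sum]
    _ ≤ _ := by
        refine mul_le_mul' le_rfl (Finset.sum_le_sum_of_subset fun m hm => ?_)
        obtain ⟨hmc, hmσ, -⟩ := Finset.mem_filter.1 hm
        exact Finset.mem_filter.2 ⟨hmc, hmσ⟩

/-! ### covering of a disc by squares -/

/-- number of squares of side `s` which meet a disc of radius `R`. -/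
theorem card_cells {κ : Type*} (M : Finset κ) (f : κ → E2) (c : E2) {R s : ℝ} (hs : 0 < s)
    (hR : 0 ≤ R) (h : ∀ m ∈ M, ‖f m - c‖ ≤ R) :
    ((M.image fun m => (⌊f m 0 / s⌋, ⌊f m 1 / s⌋)).card : ℝ) ≤ (2 * R / s + 2) ^ 2 := by
  have hco : ∀ m ∈ M, ∀ i, |f m i - c i| ≤ R := by
    intro m hm i
    have h1 : |(f m - c) i| ≤ ‖f m - c‖ := by
      rw [← Real.norm_eq_abs]
      exact PiLp.norm_apply_le (f m - c) i
    exact (by simpa using h1 : |f m i - c i| ≤ ‖f m - c‖).trans (h m hm)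
  have hsub : (M.image fun m => (⌊f m 0 / s⌋, ⌊f m 1 / s⌋)) ⊆
      Finset.Icc ⌊(c 0 - R) / s⌋ ⌊(c 0 + R) / s⌋ ×ˢ Finset.Icc ⌊(c 1 - R) / s⌋ ⌊(c 1 + R) / s⌋ := by
    intro k hk
    obtain ⟨m, hm, rfl⟩ := Finset.mem_image.1 hk
    have h0 := abs_le.1 (hco m hm 0)
    have h1 := abs_le.1 (hco m hm 1)
    simp only [Finset.mem_product, Finset.mem_Icc]
    refine ⟨⟨Int.floor_le_floor ?_, Int.floor_le_floor ?_⟩,
      ⟨Int.floor_le_floor ?_, Int.floor_le_floor ?_⟩⟩ <;>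
      exact (div_le_div_iff_of_pos_right hs).2 (by linarith [h0.1, h0.2, h1.1, h1.2])
  have hcard : ∀ i : Fin 2, ((Finset.Icc ⌊(c i - R) / s⌋ ⌊(c i + R) / s⌋).card : ℝ) ≤
      2 * R / s + 2 := by
    intro i
    rw [Int.card_Icc]
    have h1 : (⌊(c i + R) / s⌋ : ℝ) ≤ (c i + R) / s := Int.floor_le _
    have h2 : (c i - R) / s < ⌊(c i - R) / s⌋ + 1 := Int.lt_floor_add_one _
    have h3 : (c i + R) / s - (c i - R) / s = 2 * R / s := by ring
    have h4 : 0 ≤ 2 * R / s := by positivity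
    rcases le_or_gt 0 (⌊(c i + R) / s⌋ + 1 - ⌊(c i - R) / s⌋) with h | h
    · have : ((⌊(c i + R) / s⌋ + 1 - ⌊(c i - R) / s⌋).toNat : ℤ) =
          ⌊(c i + R) / s⌋ + 1 - ⌊(c i - R) / s⌋ := Int.toNat_of_nonneg h
      have h5 : ((⌊(c i + R) / s⌋ + 1 - ⌊(c i - R) / s⌋).toNat : ℝ) =
          (⌊(c i + R) / s⌋ : ℝ) + 1 - ⌊(c i - R) / s⌋ := by exact_mod_cast this
      rw [h5]
      linarith
    · rw [Int.toNat_of_nonpos h.le]
      push_cast
      linarith
  calc ((M.image fun m => (⌊f m 0 / s⌋, ⌊f m 1 / s⌋)).card : ℝ) ≤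
        ((Finset.Icc ⌊(c 0 - R) / s⌋ ⌊(c 0 + R) / s⌋ ×ˢ
          Finset.Icc ⌊(c 1 - R) / s⌋ ⌊(c 1 + R) / s⌋).card : ℝ) := by
        exact_mod_cast Finset.card_le_card hsub
    _ = ((Finset.Icc ⌊(c 0 - R) / s⌋ ⌊(c 0 + R) / s⌋).card : ℝ) *
        ((Finset.Icc ⌊(c 1 - R) / s⌋ ⌊(c 1 + R) / s⌋).card : ℝ) := by
        rw [Finset.card_product]; push_cast; ring
    _ ≤ (2 * R / s + 2) * (2 * R / s + 2) := by
        gcongr
        · exact hcard 0
        · exact hcard 1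
    _ = _ := by ring

theorem cell_close {a b : E2} {s : ℝ} (hs : 0 < s) (h0 : ⌊a 0 / s⌋ = ⌊b 0 / s⌋)
    (h1 : ⌊a 1 / s⌋ = ⌊b 1 / s⌋) : ‖a - b‖ ≤ 2 * s := by
  have key : ∀ i : Fin 2, ⌊a i / s⌋ = ⌊b i / s⌋ → |(a - b) i| ≤ s := by
    intro i hi
    have e := Int.abs_sub_lt_one_of_floor_eq_floor hi
    rw [← sub_div, abs_div, abs_of_pos hs, div_lt_one hs] at e
    simpa using e.le
  exact norm2_le hs.le (key 0 h0) (key 1 h1)

open Classical in
/-- **COHT**: the coherence bound of the parents from their own class. Level `h` plates: `th0`,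
parents: angle `th` (child caps of the level `h`), `Ad` = density of the level `h` near the caps of
the parents; `M` = parent caps in a disc of radius `R0` with a selected packet in the `Y`-plate
around the point `(z, x)`. -/
theorem coht {Ad : Dn} {th0 σ K L1 Y T R0 pp : ℝ} {F : ℝ → ℝ}
    (hS : Slow th0 kp th 0 F Ad) (hth0 : 0 ≤ th0) (hkp : 0 ≤ kp)
    (h0 : th0 ≤ th) (hL : 0 ≤ L1) (hσ : 0 < σ) (hY : 0 ≤ Y) (hT : 0 ≤ T) (hR0 : 0 ≤ R0)
    (h1 : kp * σ ≤ L1 * th0) {S : ℤ × ℤ → Set E3} {ζ : E3 × ℝ} {a : ℝ}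
    (hK : 8 * F ((2 + L1) * Y + (th0 * (T * σ) + kp * (T * σ ^ 2 / 2))) ≤ K)
    (hF0 : ∀ δ, 0 ≤ δ → 0 ≤ F δ)
    (hlo : ∀ m, ∀ y ∈ S m, ENNReal.ofReal a ≤ Ad m ζ y)
    (hhi : ∀ m, ∀ y ∈ S m, Ad m ζ y ≤ ENNReal.ofReal (8 * a))
    (hpot : ∀ m, ∀ y ∈ S m, (potT Ad th σ K m ζ y : ℝ) ≤ pp) (hpp : 0 ≤ pp)
    (M : Finset (ℤ × ℤ)) (c : E2) (z : E3 × ℝ) (x : E3) (hz : |z.2| ≤ T)
    (hM : ∀ m ∈ M, m ∈ caps th ∧ ‖cen th m - c‖ ≤ R0 ∧
      ∃ y ∈ S m, pn th kp (cen th m) (y - D z x (cen th m)) ≤ Y) :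
    (M.card : ℝ) ≤ (4 * R0 / σ + 2) ^ 2 * pp := by
  have hs : 0 < σ / 2 := by positivity
  set f : ℤ × ℤ → ℤ × ℤ := fun m => (⌊cen th m 0 / (σ / 2)⌋, ⌊cen th m 1 / (σ / 2)⌋) with hf
  -- one cell
  have hcell : ∀ k ∈ M.image f, ((M.filter fun m => f m = k).card : ℝ) ≤ pp := by
    intro k _
    rcases (M.filter fun m => f m = k).eq_empty_or_nonempty with h | ⟨m0, hm0⟩
    · rw [h, Finset.card_empty, Nat.cast_zero]; exact hpp
    obtain ⟨hm0M, hm0k⟩ := Finset.mem_filter.1 hm0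
    obtain ⟨hm0c, -, y0, hy0, hd0⟩ := hM m0 hm0M
    refine le_trans ?_ (hpot m0 y0 hy0)
    have : (M.filter fun m => f m = k).card ≤ potT Ad th σ K m0 ζ y0 := by
      unfold potT
      refine Finset.card_le_card fun m hm => ?_
      obtain ⟨hmM, hmk⟩ := Finset.mem_filter.1 hm
      obtain ⟨hmc, -, y, hy, hd⟩ := hM m hmM
      have hfe : f m = f m0 := hmk.trans hm0k.symm
      have hc : ‖cen th m - cen th m0‖ ≤ σ := by
        have := cell_close (a := cen th m) (b := cen th m0) hs (congrArg Prod.fst hfe)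
          (congrArg Prod.snd hfe)
        linarith
      refine Finset.mem_filter.2 ⟨hmc, hc, ?_⟩
      set δ : ℝ := (2 + L1) * Y + (th0 * (T * σ) + kp * (T * σ ^ 2 / 2)) with hδ
      have hδ0 : 0 ≤ δ := by positivity
      -- displacement
      have hdisp : pn th0 kp (cen th m) (D ζ y0 (cen th m) - D ζ y (cen th m)) ≤ δ := by
        have e : D ζ y0 (cen th m) - D ζ y (cen th m) =
            ((y0 - D z x (cen th m0)) - (y - D z x (cen th m))) -
              z.2 • (vel (cen th m) - vel (cen th m0)) := by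
          unfold D
          module
        rw [e]
        have b0 : kp * ‖cen th m - cen th m0‖ ≤ L1 * th0 :=
          (mul_le_mul_of_nonneg_left hc hkp).trans h1
        have b1 : pn th0 kp (cen th m) (y0 - D z x (cen th m0)) ≤ (1 + L1) * Y := by
          refine (pn_change hkp b0 hL _).trans ?_
          refine mul_le_mul_of_nonneg_left ?_ (by linarith)
          exact (pn_mono h0 le_rfl _ _).trans hd0
        have b2 : pn th0 kp (cen th m) (y - D z x (cen th m)) ≤ Y :=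
          (pn_mono h0 le_rfl _ _).trans hd
        have b3 : pn th0 kp (cen th m) (z.2 • (vel (cen th m) - vel (cen th m0))) ≤
            th0 * (T * σ) + kp * (T * σ ^ 2 / 2) := by
          rw [pn_vel]
          have := norm_nonneg (cen th m - cen th m0)
          gcongr
        have b4 := pn_sub hth0 hkp (cen th m) ((y0 - D z x (cen th m0)) - (y - D z x (cen th m)))
          (z.2 • (vel (cen th m) - vel (cen th m0)))
        have b5 := pn_sub hth0 hkp (cen th m) (y0 - D z x (cen th m0)) (y - D z x (cen th m))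
        rw [hδ]
        linarith
      have h2 := hS m ζ ζ y y0 δ hmc (by simp) hδ0 hdisp
      have hK0 : 0 ≤ K := le_trans (mul_nonneg (by norm_num) (hF0 δ hδ0)) hK
      calc Ad m0 ζ y0 ≤ ENNReal.ofReal (8 * a) := hhi m0 y0 hy0
        _ = ENNReal.ofReal 8 * ENNReal.ofReal a := ENNReal.ofReal_mul (by norm_num)
        _ ≤ ENNReal.ofReal 8 * (ENNReal.ofReal (F δ) * Ad m ζ y0) := by
            gcongr
            exact (hlo m y hy).trans h2
        _ = ENNReal.ofReal (8 * F δ) * Ad m ζ y0 := by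
            rw [ENNReal.ofReal_mul (by norm_num), mul_assoc]
        _ ≤ _ := by gcongr
    exact_mod_cast this
  have hcells := card_cells M (cen th) c hs hR0 fun m hm => (hM m hm).2.1
  have e1 : (M.card : ℝ) = ∑ k ∈ M.image f, ((M.filter fun m => f m = k).card : ℝ) := by
    have := Finset.card_eq_sum_card_image f M
    exact_mod_cast this
  rw [e1]
  calc ∑ k ∈ M.image f, ((M.filter fun m => f m = k).card : ℝ) ≤ ∑ _k ∈ M.image f, pp :=
        Finset.sum_le_sum hcell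
    _ = ((M.image f).card : ℝ) * pp := by rw [Finset.sum_const, nsmul_eq_mul]
    _ ≤ (2 * R0 / (σ / 2) + 2) ^ 2 * pp := mul_le_mul_of_nonneg_right hcells hpp
    _ = _ := by
        congr 2
        field_simp
        ring

end Crest.Agent.R116.TuG373
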