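import Crest.Agent.R116.Dch2_229
import Crest.Agent.R116.Dch3_229
import Crest.Agent.R116.F1c3_124
import Crest.Agent.R116.TuG_373

/-!
# R116 (S0155), wave side: DOM-CHAIN, energy form (helper229), part 1: one step

`E_one`: weighted energy of the coefficients of the root on the selection of a label of level
`l + 1`, by the weighted energy on the selection of the parent label of level `l`.
-/

set_option autoImplicit false

open MeasureTheory FourierTransform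
open scoped ContDiff ENNReal

namespace Crest.Agent.R116.Dch229

open Crest.Agent.R138.Defs (E2 ee)
open Crest.Agent.R138.Wpk685 (cen caps cap win)
open Crest.Agent.R138.Loc878 (Near nearL mem_nearL)
open Crest.Agent.R116.CDef480 Crest.Agent.R116.WC188 Crest.Agent.R116.GlC210
open Crest.Agent.R116.A1k229 (Nice nice_of_St)
open Crest.Agent.R116.CWp480 (SV)
open Crest.Agent.R116.CWc480 (Pl Pl_apply)
open Crest.Agent.R116.Ckm538 Crest.Agent.R116.Cad538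

theorem Pl_eq {ρ κ : ℝ} (hρ : 0 < ρ) (hκ : 0 < κ) (C : E2) (x : E3) :
    Pl ρ κ hρ hκ C x = frc ρ κ C x := by
  rw [Pl_apply, frc_apply, nrm_zero]

/-- integral of a dominated coefficient. -/
theorem lint_dom {S : Set E3} (hS : MeasurableSet S) {w : E3 → ℝ} (hw1 : ∀ x, w x ≤ 1)
    (hwm : Measurable w) {u v : E3 → ℂ} (hv : Measurable fun y => ‖v y‖ₑ ^ 2) {n ϑ : ℝ}
    (h : ∀ y ∈ S, ‖u y‖ ≤ n * ‖v y‖ + ϑ) :
    ∫⁻ y in S, ENNReal.ofReal (w y) * ‖u y‖ₑ ^ 2 ≤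
      ENNReal.ofReal (2 * n ^ 2) * (∫⁻ y, ENNReal.ofReal (w y) * ‖v y‖ₑ ^ 2) +
        ENNReal.ofReal (2 * ϑ ^ 2) * volume S := by
  have e : ∀ z : ℂ, ‖z‖ₑ ^ 2 = ENNReal.ofReal (‖z‖ ^ 2) := fun z => by
    rw [ENNReal.ofReal_pow (norm_nonneg _), ofReal_norm]
  have h1 : ∀ y ∈ S, ENNReal.ofReal (w y) * ‖u y‖ₑ ^ 2 ≤
      ENNReal.ofReal (2 * n ^ 2) * (ENNReal.ofReal (w y) * ‖v y‖ₑ ^ 2) +
        ENNReal.ofReal (2 * ϑ ^ 2) := by
    intro y hy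
    have h2 : ‖u y‖ₑ ^ 2 ≤ ENNReal.ofReal (2 * n ^ 2) * ‖v y‖ₑ ^ 2 +
        ENNReal.ofReal (2 * ϑ ^ 2) := by
      rw [e, e, ← ENNReal.ofReal_mul (by positivity), ← ENNReal.ofReal_add (by positivity)
        (by positivity)]
      refine ENNReal.ofReal_le_ofReal ?_
      have h3 := h y hy
      have h4 : ‖u y‖ ^ 2 ≤ (n * ‖v y‖ + ϑ) ^ 2 := pow_le_pow_left₀ (norm_nonneg _) h3 2
      nlinarith [sq_nonneg (n * ‖v y‖ - ϑ)]
    have h5 : ENNReal.ofReal (w y) ≤ 1 := by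
      rw [← ENNReal.ofReal_one]
      exact ENNReal.ofReal_le_ofReal (hw1 y)
    calc ENNReal.ofReal (w y) * ‖u y‖ₑ ^ 2 ≤ ENNReal.ofReal (w y) *
          (ENNReal.ofReal (2 * n ^ 2) * ‖v y‖ₑ ^ 2 + ENNReal.ofReal (2 * ϑ ^ 2)) := by gcongr
      _ = ENNReal.ofReal (2 * n ^ 2) * (ENNReal.ofReal (w y) * ‖v y‖ₑ ^ 2) +
          ENNReal.ofReal (w y) * ENNReal.ofReal (2 * ϑ ^ 2) := by ring
      _ ≤ ENNReal.ofReal (2 * n ^ 2) * (ENNReal.ofReal (w y) * ‖v y‖ₑ ^ 2) +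
          1 * ENNReal.ofReal (2 * ϑ ^ 2) := by gcongr
      _ = _ := by rw [one_mul]
  have hm : Measurable fun y => ENNReal.ofReal (2 * n ^ 2) *
      (ENNReal.ofReal (w y) * ‖v y‖ₑ ^ 2) := (hwm.ennreal_ofReal.mul hv).const_mul _
  refine (setLIntegral_mono' hS h1).trans ?_
  rw [lintegral_add_left hm, setLIntegral_const]
  refine add_le_add ?_ le_rfl
  rw [lintegral_const_mul' _ _ ENNReal.ofReal_ne_top]
  exact mul_le_mul' le_rfl (setLIntegral_le_lintegral _ _)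

/-- the setting of the chain. -/
structure Stg (M κ q A A' a b Cn : ℝ) (K : ℕ) (M0 η0 : ℝ) (C0 : E2) (σ : ℝ) (g : E3 → ℂ)
    (R D dl ν : ℝ) (n : ℕ) (L : ℕ → Lev) : Prop where
  ss : Ss M κ q a b M0 η0 C0 σ g R D
  tow : Tow M κ q A A' a b Cn K η0 C0 σ g R dl ν n L
  k0 : 0 < κ
  k8 : 8 * a * κ ≤ 1
  a1 : 1 ≤ a
  A1 : 1 ≤ A
  Cn0 : 0 ≤ Cn
  A'1 : 1 ≤ A'
  d0 : 0 < dl
  d16 : 16 * dl ≤ 1
  dA : A' * dl ≤ 1
  ν1 : 1 ≤ ν

section stg

variable {M κ q A A' a b Cn : ℝ} {K : ℕ} {M0 η0 : ℝ} {C0 : E2} {σ : ℝ} {g : E3 → ℂ}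
    {R D dl ν : ℝ} {n : ℕ} {L : ℕ → Lev}

theorem Stg.R1 (h : Stg M κ q A A' a b Cn K M0 η0 C0 σ g R D dl ν n L) : 1 ≤ R := h.ss.R1

theorem Stg.d1 (h : Stg M κ q A A' a b Cn K M0 η0 C0 σ g R D dl ν n L) : dl ≤ 1 := by
  have := h.d16
  have := h.d0
  linarith

theorem Stg.r1 (h : Stg M κ q A A' a b Cn K M0 η0 C0 σ g R D dl ν n L) {t : ℕ} (ht : t ≤ n) :
    1 ≤ (L t).r := rad_pos h.tow h.R1 ht

theorem Stg.th0 (h : Stg M κ q A A' a b Cn K M0 η0 C0 σ g R D dl ν n L) {t : ℕ} (ht : t ≤ n) :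
    0 < (L t).r ^ (-(1/2) : ℝ) := Real.rpow_pos_of_pos (by linarith [h.r1 ht]) _

theorem Stg.th1 (h : Stg M κ q A A' a b Cn K M0 η0 C0 σ g R D dl ν n L) {t : ℕ} (ht : t ≤ n) :
    (L t).r ^ (-(1/2) : ℝ) ≤ 1 := Real.rpow_le_one_of_one_le_of_nonpos (h.r1 ht) (by norm_num)

theorem th_sq {r : ℝ} (hr : 0 < r) : (r ^ (-(1/2) : ℝ)) ^ 2 = r⁻¹ := by
  rw [← Real.rpow_natCast, ← Real.rpow_mul hr.le]
  norm_num
  exact Real.rpow_neg_one r

theorem r_th {r : ℝ} (hr : 0 < r) : r * (r ^ (-(1/2) : ℝ)) ^ 2 = 1 := by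
  rw [th_sq hr]
  field_simp

/-- consecutive cap sizes. -/
theorem Stg.th4 (h : Stg M κ q A A' a b Cn K M0 η0 C0 σ g R D dl ν n L) {t : ℕ} (ht : t < n) :
    4 * (L t).r ^ (-(1/2) : ℝ) ≤ (L (t + 1)).r ^ (-(1/2) : ℝ) := by
  have h1 := h.r1 ht.le
  have hd := h.d0
  rw [rad_succ h.tow ht, Real.mul_rpow hd.le (by linarith)]
  refine mul_le_mul_of_nonneg_right ?_ (h.th0 ht.le).le
  have h2 : dl ≤ (1/16 : ℝ) := by linarith [h.d16]
  calc (4 : ℝ) = (1/16 : ℝ) ^ (-(1/2) : ℝ) := by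
        rw [show (1/16 : ℝ) = 4 ^ (-(2:ℝ)) by rw [Real.rpow_neg (by norm_num)]; norm_num,
          ← Real.rpow_mul (by norm_num)]
        norm_num
    _ ≤ dl ^ (-(1/2) : ℝ) := Real.rpow_le_rpow_of_nonpos hd h2 (by norm_num)

theorem Stg.th_mono (h : Stg M κ q A A' a b Cn K M0 η0 C0 σ g R D dl ν n L) {s t : ℕ} (hst : s ≤ t)
    (ht : t ≤ n) : (L s).r ^ (-(1/2) : ℝ) ≤ (L t).r ^ (-(1/2) : ℝ) := by
  induction t with
  | zero => rw [Nat.le_zero.1 hst]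
  | succ t ih =>
    rcases Nat.lt_or_ge s (t + 1) with h1 | h1
    · have h2 := ih (by omega) (by omega)
      have h3 := h.th4 (t := t) (by omega)
      have h4 := h.th0 (t := t) (by omega)
      linarith
    · rw [le_antisymm hst h1]

/-- **one step of the weighted energy inequality.** -/
theorem E_one {a : ℝ} (ha : 1 ≤ a) (nw : ℕ) {L0 : ℝ} (hL0 : 1 ≤ L0) : ∃ Cst : ℝ, 1 ≤ Cst ∧
    ∀ {M κ q A A' b Cn : ℝ} {K : ℕ} {M0 η0 : ℝ} {C0 : E2} {σ : ℝ} {g : E3 → ℂ}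
      {R D dl ν : ℝ} {n : ℕ} {L : ℕ → Lev} (_ : Stg M κ q A A' a b Cn K M0 η0 C0 σ g R D dl ν n L)
      {i j : ℕ} (_ : j ≤ n) {zs : ℕ → E3 × ℝ} {ks : ℕ → ℕ} (_ : Path L i j zs ks)
      {l : ℕ} (_ : i ≤ l) (_ : l < j) {Am : E3 ≃L[ℝ] E3} {K0 : ℝ} {w : E3 → ℝ}
      (_ : SV Am K0 nw w) (_ : ∀ x, w x ≤ 1) {m' : ℤ × ℤ}
      (_ : ∀ m ∈ nearL ((L l).r ^ (-(1/2) : ℝ)) ((L (l + 1)).r ^ (-(1/2) : ℝ)) m', ∀ x,
        ‖Am x‖ ≤ L0 * ‖frc ((L l).r ^ (-(1/2) : ℝ)) κ (cen ((L l).r ^ (-(1/2) : ℝ)) m) x‖),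
    ∫⁻ y in (L (l + 1)).sl (zs (l + 1)) (ks (l + 1)) m', ENNReal.ofReal (w y) *
        ‖umc ((L (l + 1)).r ^ (-(1/2) : ℝ)) (trc (zs (l + 1)) g) m' y‖ₑ ^ 2 ≤
      ENNReal.ofReal (Cst * K0 ^ 5 * ν ^ 2) *
        (∑ m ∈ nearL ((L l).r ^ (-(1/2) : ℝ)) ((L (l + 1)).r ^ (-(1/2) : ℝ)) m',
          ∫⁻ x in (L l).sl (zs l) (ks l) m, ENNReal.ofReal (w (x - (zs (l + 1) - zs l).1 -
            (zs (l + 1) - zs l).2 • vel (cen ((L l).r ^ (-(1/2) : ℝ)) m))) *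
            ‖umc ((L l).r ^ (-(1/2) : ℝ)) (trc (zs l) g) m x‖ₑ ^ 2) +
      ENNReal.ofReal (2 * (Cn * ν * R ^ (-(K : ℝ)) * Real.sqrt (Enc g)) ^ 2 * (A' * R) ^ 3) *
        volume (Metric.ball (0 : E3) 1) := by
  obtain ⟨C1, hC1, hf⟩ := Crest.Agent.R116.F1c124.f2_sel (a := 2 * a) (by linarith) nw 1 hL0
  refine ⟨2 * C1 + 1, by linarith, ?_⟩
  intro M κ q A A' b Cn K M0 η0 C0 σ g R D dl ν n L h i j hj zs ks hp l h1 h2 Am K0 w hw hw1 m' hm'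
  have hK0 := hw.one_le
  have hl : l < n := h2.trans_le hj
  by_cases h0 : ∀ ζ, g ζ = 0
  · have h3 : ∀ ζ, trc (zs (l + 1)) g ζ = 0 := fun ζ => by unfold trc; rw [h0, zero_mul]
    simp [CWd480.umc_zero h3]
  · push Not at h0
    obtain ⟨ζ, hζ⟩ := h0
    obtain ⟨s1, s2, -, -⟩ := h.ss.supp ζ hζ
    obtain ⟨c1, c2⟩ := CWd480.ctr_range ha h.k8 h.ss.slc hζ s1 s2
    obtain ⟨c3, -⟩ := CWd480.kap_range ha h.k8
    have hA'0 : 0 < A' := by linarith [h.A'1]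
    have hR := h.R1
    have hR0 : 0 < R := by linarith
    have hthl := h.th0 hl.le
    have hthl1 := h.th0 (t := l + 1) hl
    have hok := h.tow.ok l hl.le
    have hok1 := h.tow.ok (l + 1) hl
    have hzl := hp.mem l h1 h2.le
    have hkl := hp.lab l h1 h2.le
    have hzl1 := hp.mem (l + 1) (by omega) h2
    have hkl1 := hp.lab (l + 1) (by omega) h2
    set ρ : ℝ := (L l).r ^ (-(1/2) : ℝ) with hρ
    set ρ' : ℝ := (L (l + 1)).r ^ (-(1/2) : ℝ) with hρ'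
    have hρρ : ρ ≤ ρ' := h.th_mono (Nat.le_succ l) hl
    have hgi : Integrable (trc (zs l) g) :=
      ((nice_of_St h.ss.toSt).trc _).int (by linarith)
    have hnear := path_near h.tow hj hp h1 h2
    have hz2 : |(zs (l + 1) - zs l).2| * ρ ^ 2 ≤ 1 := by
      have e1 := r_th (r := (L l).r) (by linarith [h.r1 hl.le])
      calc |(zs (l + 1) - zs l).2| * ρ ^ 2 ≤ (L l).r * ρ ^ 2 := by
            gcongr
            exact hnear.2
        _ = 1 := e1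
    have hfs := hf ρ ρ' κ η0 hthl hρρ h.k0 c1 c2 c3 Am K0 w hw m'
      (fun m hm x => by rw [Pl_eq]; exact hm' m hm x) (zs (l + 1) - zs l) hz2 (trc (zs l) g)
      ((L l).sl (zs l) (ks l)) hgi (fun m _ => sl_meas hok hzl hkl m)
      (fun m _ => sl_bdd hok hzl hkl m)
    set sw : E3 → ℂ := selc η0 κ ρ (trc (zs l) g) ((L l).sl (zs l) (ks l)) with hsw
    have hswi : Integrable (trc (zs (l + 1) - zs l) sw) := by
      obtain ⟨cls, hd⟩ := hok.dec _ hzl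
      have e2 : sw = (L l).G (zs l) (ks l) := (hd.eq (ks l) (Finset.mem_range.2 hkl)).symm
      rw [e2]
      exact ((nice_of_St (hd.st _ (Finset.mem_range.2 hkl))).trc _).int (by linarith)
    have hdom := lint_dom (S := (L (l + 1)).sl (zs (l + 1)) (ks (l + 1)) m')
      (sl_meas hok1 hzl1 hkl1 m') hw1 hw.meas
      (u := umc ρ' (trc (zs (l + 1)) g) m') (v := umc ρ' (trc (zs (l + 1) - zs l) sw) m')
      (A1k229.umc_meas hswi m') (n := (L l).n)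
      (ϑ := Cn * (L l).nb * R ^ (-(K : ℝ)) * Real.sqrt (Enc g))
      (fun y hy => dom_path h.tow (by linarith) h.A1 hR h.d1 h.dA hj hp h1 h2 hy)
    have hn : ((L l).n : ℝ) ≤ ν := (h.tow.le l hl.le).1
    have hnb : ((L l).nb : ℝ) ≤ ν := (h.tow.le l hl.le).2
    refine hdom.trans (add_le_add ?_ ?_)
    · refine (mul_le_mul' le_rfl hfs).trans ?_
      rw [← mul_assoc, ← ENNReal.ofReal_mul (by positivity)]
      refine mul_le_mul' (ENNReal.ofReal_le_ofReal ?_) le_rfl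
      calc 2 * ((L l).n : ℝ) ^ 2 * (C1 * K0 ^ 5) ≤ 2 * ν ^ 2 * (C1 * K0 ^ 5) := by gcongr
        _ = (2 * C1) * (K0 ^ 5 * ν ^ 2) := by ring
        _ ≤ (2 * C1 + 1) * (K0 ^ 5 * ν ^ 2) := by
            gcongr
            linarith
        _ = _ := by ring
    · have hvol : volume ((L (l + 1)).sl (zs (l + 1)) (ks (l + 1)) m') ≤
          ENNReal.ofReal ((A' * R) ^ 3) * volume (Metric.ball (0 : E3) 1) := by
        refine (measure_mono (sl_sub hok1 hzl1 hkl1 m')).trans ?_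
        have hr1 := h.r1 (t := l + 1) hl
        rw [Measure.addHaar_closedBall _ _ (by positivity)]
        have e3 : Module.finrank ℝ E3 = 3 := by simp
        rw [e3]
        gcongr
        exact hok1.hi
      refine (mul_le_mul' le_rfl hvol).trans ?_
      rw [← mul_assoc, ← ENNReal.ofReal_mul (by positivity)]
      refine mul_le_mul' (ENNReal.ofReal_le_ofReal ?_) le_rfl
      have hCn := h.Cn0
      gcongr

end stg

end Crest.Agent.R116.Dch229
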