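import Crest.Agent.R116.Dch4_229
import Crest.Agent.R116.A1k2_229

/-!
# R116 (S0155), wave side: DOM-CHAIN, energy form (helper229), part 2: composition

`E_chain`: weighted energy of the coefficients of the root on the selection of a label of level `j`
by the weighted energy on the selection of its ancestor of level `i`.
-/

set_option autoImplicit false

open MeasureTheory FourierTransform
open scoped ContDiff ENNReal

namespace Crest.Agent.R116.Dch229

open Crest.Agent.R138.Defs (E2 ee)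
open Crest.Agent.R138.Wpk685 (cen caps cap win)
open Crest.Agent.R138.Loc878 (Near nearL mem_nearL)
open Crest.Agent.R116.CDef480 Crest.Agent.R116.WC188 Crest.Agent.R116.GlC210
open Crest.Agent.R116.CWp480 (SV)
open Crest.Agent.R116.Ckm538 Crest.Agent.R116.Cad538
open Crest.Agent.R116.TuG373 (pn pn_vel)

theorem frc_mono {th th' kp : ℝ} (h0 : 0 ≤ th) (h : th ≤ th') (C : E2) (x : E3) :
    ‖frc th kp C x‖ ≤ ‖frc th' kp C x‖ := by
  have h1 : ‖frc th kp C x‖ ^ 2 ≤ ‖frc th' kp C x‖ ^ 2 := by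
    rw [norm_frc_sq, norm_frc_sq]
    have h2 : (th * ‖lat x‖) ^ 2 ≤ (th' * ‖lat x‖) ^ 2 := by gcongr
    linarith
  exact le_of_sq_le_sq' h1 (norm_nonneg _)
where
  le_of_sq_le_sq' {x y : ℝ} (h : x ^ 2 ≤ y ^ 2) (hy : 0 ≤ y) : x ≤ y := by
    by_contra hc
    push Not at hc
    nlinarith

open Classical in
/-- summation over the intermediate caps. -/
theorem sum_reach {ρ ρ1 ρ2 : ℝ} (h1 : 0 < ρ1) (h4 : 4 * ρ1 ≤ ρ2) (m2 : ℤ × ℤ)
    (F : ℤ × ℤ → ℝ≥0∞) :
    ∑ m1 ∈ nearL ρ1 ρ2 m2, ∑ m ∈ nearC ρ ρ1 m1, F m ≤ 64 * ∑ m ∈ nearC ρ ρ2 m2, F m := by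
  have e1 : ∑ m1 ∈ nearL ρ1 ρ2 m2, ∑ m ∈ nearC ρ ρ1 m1, F m =
      ∑ m ∈ nearC ρ ρ2 m2, ∑ m1 ∈ (nearL ρ1 ρ2 m2).filter (fun m1 => m ∈ nearC ρ ρ1 m1), F m := by
    refine Finset.sum_comm' fun m1 m => ?_
    simp only [Finset.mem_filter]
    constructor
    · rintro ⟨ha, hb⟩
      exact ⟨⟨ha, hb⟩, nearC_trans h4 ha hb⟩
    · rintro ⟨⟨ha, hb⟩, _⟩
      exact ⟨ha, hb⟩
  rw [e1, Finset.mul_sum]
  refine Finset.sum_le_sum fun m _ => ?_
  rw [Finset.sum_const, nsmul_eq_mul]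
  refine mul_le_mul' ?_ le_rfl
  have := card_reach (ρ := ρ) h1 (nearL ρ1 ρ2 m2) m
  exact_mod_cast this

/-- displacement of two near directions during the time `r`. -/
theorem disp_le {th th1 κ r t : ℝ} (h0 : 0 ≤ th) (h1 : th ≤ th1) (hκ : 0 ≤ κ) (hκ1 : κ ≤ 1)
    (hr : r * th1 ^ 2 = 1) (ht : |t| ≤ r) {C C' : E2} (hC : ‖C - C'‖ ≤ 4 * th1) :
    ‖frc th κ C (t • (vel C - vel C'))‖ ≤ 12 := by
  have h2 := norm_frc_le h0 hκ C (t • (vel C - vel C'))
  have h3 := pn_vel (th := th) (kp := κ) t C C'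
  unfold pn at h3
  rw [h3] at h2
  refine h2.trans ?_
  have hn := norm_nonneg (C - C')
  have ht0 := abs_nonneg t
  have hr0 : 0 ≤ r := ht0.trans ht
  have hth1 : 0 ≤ th1 := h0.trans h1
  have h4 : |t| * ‖C - C'‖ ≤ r * (4 * th1) := mul_le_mul ht hC hn hr0
  have h5 : th * (|t| * ‖C - C'‖) ≤ 4 := by
    calc th * (|t| * ‖C - C'‖) ≤ th1 * (r * (4 * th1)) := by gcongr
      _ = 4 * (r * th1 ^ 2) := by ring
      _ = 4 := by rw [hr, mul_one]
  have h6 : |t| * ‖C - C'‖ ^ 2 ≤ 16 := by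
    calc |t| * ‖C - C'‖ ^ 2 ≤ r * (4 * th1) ^ 2 := by gcongr
      _ = 16 * (r * th1 ^ 2) := by ring
      _ = 16 := by rw [hr, mul_one]
  have h7 : κ * (|t| * ‖C - C'‖ ^ 2 / 2) ≤ 8 := by
    have h8 : 0 ≤ |t| * ‖C - C'‖ ^ 2 / 2 := by positivity
    nlinarith
  linarith

/-- **composition of the weighted energy inequalities.** -/
theorem E_chain {a : ℝ} (ha : 1 ≤ a) (nw : ℕ) {L0 : ℝ} (hL0 : 1 ≤ L0) : ∃ C1 : ℝ, 1 ≤ C1 ∧
    ∀ {M κ q A A' b Cn : ℝ} {K : ℕ} {M0 η0 : ℝ} {C0 : E2} {σ : ℝ} {g : E3 → ℂ}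
      {R D dl ν : ℝ} {n : ℕ} {L : ℕ → Lev} (_ : Stg M κ q A A' a b Cn K M0 η0 C0 σ g R D dl ν n L)
      {i j : ℕ} (_ : j ≤ n) {zs : ℕ → E3 × ℝ} {ks : ℕ → ℕ} (_ : Path L i j zs ks)
      {Am : E3 ≃L[ℝ] E3} {K0 : ℝ} {Cs : E2} {D0 : ℝ}
      (_ : ∀ C, ‖C - Cs‖ ≤ D0 → ∀ x, ‖Am x‖ ≤ L0 * ‖frc ((L i).r ^ (-(1/2) : ℝ)) κ C x‖)
      {l : ℕ} (_ : i ≤ l) (_ : l ≤ j) {m' : ℤ × ℤ}
      (_ : ‖cen ((L l).r ^ (-(1/2) : ℝ)) m' - Cs‖ + 4 * (L l).r ^ (-(1/2) : ℝ) ≤ D0)
      {w : E3 → ℝ} (_ : SV Am K0 nw w) (_ : ∀ x, w x ≤ 1),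
    ∫⁻ y in (L l).sl (zs l) (ks l) m', ENNReal.ofReal (w y) *
        ‖umc ((L l).r ^ (-(1/2) : ℝ)) (trc (zs l) g) m' y‖ₑ ^ 2 ≤
      ENNReal.ofReal ((C1 * K0 ^ 5 * ν ^ 2 * (64 * (K0 * (1 + 12 * L0) ^ nw))) ^ (l - i)) *
        (∑ m ∈ nearC ((L i).r ^ (-(1/2) : ℝ)) ((L l).r ^ (-(1/2) : ℝ)) m',
          ∫⁻ x in (L i).sl (zs i) (ks i) m, ENNReal.ofReal (w (x - (zs l - zs i).1 -
            (zs l - zs i).2 • vel (cen ((L i).r ^ (-(1/2) : ℝ)) m))) *
            ‖umc ((L i).r ^ (-(1/2) : ℝ)) (trc (zs i) g) m x‖ₑ ^ 2) +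
      ENNReal.ofReal ((2 * (Cn * ν * R ^ (-(K : ℝ)) * Real.sqrt (Enc g)) ^ 2 * (A' * R) ^ 3) *
        (C1 * K0 ^ 5 * ν ^ 2 * (81 * R) + 1) ^ (l - i)) *
        volume (Metric.ball (0 : E3) 1) := by
  obtain ⟨C1, hC1, hone⟩ := E_one ha nw hL0
  refine ⟨C1, hC1, ?_⟩
  intro M κ q A A' b Cn K M0 η0 C0 σ g R D dl ν n L h i j hj zs ks hp Am K0 Cs D0 hAm l hil
  have hin : ∀ {l}, l ≤ j → l ≤ n := fun h' => h'.trans hj
  have hR := h.R1
  have hν := h.ν1
  have hCn := h.Cn0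
  have hA'0 : 0 < A' := by linarith [h.A'1]
  have hκ1 : κ ≤ 1 := (CWd480.kap_range ha h.k8).2
  induction l, hil using Nat.le_induction with
  | base =>
    intro hlj m' _ w hw hw1
    have hij : i ≤ n := hin hlj
    rw [Nat.sub_self, pow_zero, pow_zero, ENNReal.ofReal_one, one_mul]
    by_cases hm : m' ∈ caps ((L i).r ^ (-(1/2) : ℝ))
    · have hmC : m' ∈ nearC ((L i).r ^ (-(1/2) : ℝ)) ((L i).r ^ (-(1/2) : ℝ)) m' := by
        refine mem_nearC.2 ⟨hm, ?_⟩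
        rw [sub_self, norm_zero]
        linarith [h.th0 hij]
      refine le_add_right (le_trans (le_of_eq ?_) (Finset.single_le_sum (f := fun m =>
        ∫⁻ x in (L i).sl (zs i) (ks i) m, ENNReal.ofReal (w (x - (zs i - zs i).1 -
            (zs i - zs i).2 • vel (cen ((L i).r ^ (-(1/2) : ℝ)) m))) *
            ‖umc ((L i).r ^ (-(1/2) : ℝ)) (trc (zs i) g) m x‖ₑ ^ 2) (fun _ _ => zero_le) hmC))
      refine lintegral_congr fun x => ?_
      rw [sub_self, Prod.fst_zero, Prod.snd_zero, zero_smul, sub_zero, sub_zero]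
    · have he : (L i).sl (zs i) (ks i) m' = ∅ := by
        rw [Set.eq_empty_iff_forall_notMem]
        intro y hy
        exact hm (sl_cp (h.tow.ok i hij) (hp.mem i le_rfl hlj) (hp.lab i le_rfl hlj) hy)
      rw [he, Measure.restrict_empty, lintegral_zero_measure]
      exact zero_le
  | succ l hil ih =>
    intro hlj m' hD w hw hw1
    have hlj' : l < j := hlj
    have hln : l < n := hlj.trans hj
    have hK0 := hw.one_le
    set ρi : ℝ := (L i).r ^ (-(1/2) : ℝ) with hρi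
    set ρ : ℝ := (L l).r ^ (-(1/2) : ℝ) with hρ
    set ρ' : ℝ := (L (l + 1)).r ^ (-(1/2) : ℝ) with hρ'
    have hi0 : 0 < ρi := h.th0 ((hil.trans hlj'.le).trans hj)
    have hρ0 : 0 < ρ := h.th0 hln.le
    have hρ'0 : 0 < ρ' := h.th0 (t := l + 1) hln
    have hρiρ : ρi ≤ ρ := h.th_mono hil hln.le
    have h4 : 4 * ρ ≤ ρ' := h.th4 hln
    have hrl := h.r1 hln.le
    have hrth : (L l).r * ρ ^ 2 = 1 := r_th (by linarith)
    have hnearz := path_near h.tow hj hp hil hlj'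
    -- geometry of the near caps
    have hgeo : ∀ m ∈ nearL ρ ρ' m', ‖cen ρ m - Cs‖ + 4 * ρ ≤ D0 := by
      intro m hm
      have h5 := (mem_nearL.1 hm).2
      unfold Near at h5
      have e : cen ρ m - Cs = (cen ρ m - cen ρ' m') + (cen ρ' m' - Cs) := by abel
      have h6 := norm_add_le (cen ρ m - cen ρ' m') (cen ρ' m' - Cs)
      rw [← e] at h6
      linarith
    have hfr : ∀ m ∈ nearL ρ ρ' m', ∀ x, ‖Am x‖ ≤ L0 * ‖frc ρ κ (cen ρ m) x‖ := by
      intro m hm x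
      have h5 := hgeo m hm
      refine (hAm (cen ρ m) (by linarith) x).trans ?_
      gcongr
      exact frc_mono hi0.le hρiρ _ _
    have h1 := hone h hj hp hil hlj' hw hw1 hfr
    set U : ℤ × ℤ → E3 → ℝ≥0∞ := fun m x => ‖umc ρi (trc (zs i) g) m x‖ₑ ^ 2 with hU
    set F : ℤ × ℤ → ℝ≥0∞ := fun m => ∫⁻ x in (L i).sl (zs i) (ks i) m,
      ENNReal.ofReal (w (x - (zs (l + 1) - zs i).1 - (zs (l + 1) - zs i).2 •
        vel (cen ρi m))) * U m x with hF
    set c : ℝ := 2 * (Cn * ν * R ^ (-(K : ℝ)) * Real.sqrt (Enc g)) ^ 2 * (A' * R) ^ 3 with hc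
    have hc0 : 0 ≤ c := by positivity
    set B : ℝ := K0 * (1 + 12 * L0) ^ nw with hB
    have hB1 : 1 ≤ B := by
      have : 1 ≤ (1 + 12 * L0) ^ nw := one_le_pow₀ (by linarith)
      nlinarith
    set E : ℝ := C1 * K0 ^ 5 * ν ^ 2 with hE
    have hE1 : 1 ≤ E := by
      have e1 : 1 ≤ K0 ^ 5 := one_le_pow₀ hK0
      have e2 : 1 ≤ ν ^ 2 := one_le_pow₀ hν
      have e3 : 1 ≤ C1 * K0 ^ 5 := one_le_mul_of_one_le_of_one_le hC1 e1
      exact one_le_mul_of_one_le_of_one_le e3 e2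
    set V : ℝ≥0∞ := volume (Metric.ball (0 : E3) 1) with hV
    -- the induction hypothesis for every near cap
    have h2 : ∀ m ∈ nearL ρ ρ' m', ∫⁻ x in (L l).sl (zs l) (ks l) m,
        ENNReal.ofReal (w (x - (zs (l + 1) - zs l).1 - (zs (l + 1) - zs l).2 •
          vel (cen ρ m))) * ‖umc ρ (trc (zs l) g) m x‖ₑ ^ 2 ≤
        ENNReal.ofReal ((E * (64 * B)) ^ (l - i)) * (ENNReal.ofReal B *
          ∑ m2 ∈ nearC ρi ρ m, F m2) +
        ENNReal.ofReal (c * (E * (81 * R) + 1) ^ (l - i)) * V := by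
      intro m hm
      have hwm : SV Am K0 nw (fun x => w (x - (zs (l + 1) - zs l).1 -
          (zs (l + 1) - zs l).2 • vel (cen ρ m))) := by
        have := hw.comp_sub ((zs (l + 1) - zs l).1 + (zs (l + 1) - zs l).2 • vel (cen ρ m))
        convert this using 3
        abel
      have h3 := ih hlj'.le (hgeo m hm) hwm (fun x => hw1 _)
      refine h3.trans (add_le_add (mul_le_mul' le_rfl ?_) le_rfl)
      rw [Finset.mul_sum]
      refine Finset.sum_le_sum fun m2 hm2 => ?_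
      rw [hF, ← lintegral_const_mul' _ _ ENNReal.ofReal_ne_top]
      refine lintegral_mono fun x => ?_
      rw [← mul_assoc, ← ENNReal.ofReal_mul (by positivity)]
      refine mul_le_mul' (ENNReal.ofReal_le_ofReal ?_) le_rfl
      set C2 : E2 := cen ρi m2 with hC2
      have hd2 := (mem_nearC.1 hm2).2
      have hgm := hgeo m hm
      have hC2D : ‖C2 - Cs‖ ≤ D0 := by
        have e : C2 - Cs = (C2 - cen ρ m) + (cen ρ m - Cs) := by abel
        rw [e]
        exact (norm_add_le _ _).trans (by linarith)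
      have hs := hw.sv (x - (zs l - zs i).1 - (zs l - zs i).2 • vel C2 -
        (zs (l + 1) - zs l).1 - (zs (l + 1) - zs l).2 • vel (cen ρ m))
        (x - (zs (l + 1) - zs i).1 - (zs (l + 1) - zs i).2 • vel C2)
      have e5 : x - (zs l - zs i).1 - (zs l - zs i).2 • vel C2 -
          (zs (l + 1) - zs l).1 - (zs (l + 1) - zs l).2 • vel (cen ρ m) -
          (x - (zs (l + 1) - zs i).1 - (zs (l + 1) - zs i).2 • vel C2) =
          (zs (l + 1) - zs l).2 • (vel C2 - vel (cen ρ m)) := by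
        simp only [Prod.fst_sub, Prod.snd_sub]
        module
      rw [e5] at hs
      have h6 : ‖Am ((zs (l + 1) - zs l).2 • (vel C2 - vel (cen ρ m)))‖ ≤ 12 * L0 := by
        refine (hAm C2 hC2D _).trans ?_
        have := disp_le hi0.le hρiρ h.k0.le hκ1 hrth hnearz.2 hd2.le
        nlinarith
      refine hs.trans ?_
      have hpos := (hw.pos (x - (zs (l + 1) - zs i).1 - (zs (l + 1) - zs i).2 • vel C2)).le
      have hn0 := norm_nonneg (Am ((zs (l + 1) - zs l).2 • (vel C2 - vel (cen ρ m))))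
      rw [hB]
      gcongr
    have hcard : ((nearL ρ ρ' m').card : ℝ≥0∞) ≤ ENNReal.ofReal (81 * R) := by
      rw [← ENNReal.ofReal_natCast]
      refine ENNReal.ofReal_le_ofReal ?_
      have h7 : (nearL ρ ρ' m').card ≤ (caps ρ).card := Finset.card_le_card fun m hm =>
        (mem_nearL.1 hm).1
      have h8 := A1k229.card_caps_le hρ0 (h.th1 hln.le)
      have h9 : (ρ ^ 2)⁻¹ = (L l).r := inv_eq_of_mul_eq_one_left hrth
      rw [h9] at h8
      have h10 := (h.tow.ok l hln.le).hi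
      calc ((nearL ρ ρ' m').card : ℝ) ≤ ((caps ρ).card : ℝ) := by exact_mod_cast h7
        _ ≤ 81 * (L l).r := h8
        _ ≤ 81 * R := by linarith
    have e6 : l + 1 - i = (l - i) + 1 := by omega
    calc _ ≤ ENNReal.ofReal E * (∑ m ∈ nearL ρ ρ' m',
          ∫⁻ x in (L l).sl (zs l) (ks l) m, ENNReal.ofReal (w (x - (zs (l + 1) - zs l).1 -
            (zs (l + 1) - zs l).2 • vel (cen ρ m))) * ‖umc ρ (trc (zs l) g) m x‖ₑ ^ 2) +
          ENNReal.ofReal c * V := h1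
      _ ≤ ENNReal.ofReal E * (∑ m ∈ nearL ρ ρ' m',
          (ENNReal.ofReal ((E * (64 * B)) ^ (l - i)) * (ENNReal.ofReal B *
          ∑ m2 ∈ nearC ρi ρ m, F m2) +
        ENNReal.ofReal (c * (E * (81 * R) + 1) ^ (l - i)) * V)) + ENNReal.ofReal c * V := by
          gcongr with m hm
          exact h2 m hm
      _ = ENNReal.ofReal E * (ENNReal.ofReal ((E * (64 * B)) ^ (l - i)) * (ENNReal.ofReal B *
          (∑ m ∈ nearL ρ ρ' m', ∑ m2 ∈ nearC ρi ρ m, F m2)) +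
          (nearL ρ ρ' m').card * (ENNReal.ofReal (c * (E * (81 * R) + 1) ^ (l - i)) * V)) +
          ENNReal.ofReal c * V := by
          rw [Finset.sum_add_distrib, ← Finset.mul_sum, ← Finset.mul_sum, Finset.sum_const,
            nsmul_eq_mul]
      _ ≤ ENNReal.ofReal E * (ENNReal.ofReal ((E * (64 * B)) ^ (l - i)) * (ENNReal.ofReal B *
          (64 * ∑ m2 ∈ nearC ρi ρ' m', F m2)) +
          ENNReal.ofReal (81 * R) * (ENNReal.ofReal (c * (E * (81 * R) + 1) ^ (l - i)) * V)) +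
          ENNReal.ofReal c * V := by
          gcongr
          exact sum_reach hρ0 h4 m' F
      _ = ENNReal.ofReal E * ENNReal.ofReal ((E * (64 * B)) ^ (l - i)) * ENNReal.ofReal B * 64 *
          (∑ m2 ∈ nearC ρi ρ' m', F m2) +
          (ENNReal.ofReal E * ENNReal.ofReal (81 * R) *
            ENNReal.ofReal (c * (E * (81 * R) + 1) ^ (l - i)) + ENNReal.ofReal c) * V := by ring
      _ ≤ _ := by
          have e7 : (64 : ℝ≥0∞) = ENNReal.ofReal 64 := by
            rw [show (64 : ℝ) = ((64 : ℕ) : ℝ) by norm_num, ENNReal.ofReal_natCast]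
            norm_num
          rw [e7, ← ENNReal.ofReal_mul (by positivity), ← ENNReal.ofReal_mul (by positivity),
            ← ENNReal.ofReal_mul (by positivity), ← ENNReal.ofReal_mul (by positivity),
            ← ENNReal.ofReal_mul (by positivity), ← ENNReal.ofReal_add (by positivity) hc0, e6]
          refine add_le_add (mul_le_mul' (ENNReal.ofReal_le_ofReal (le_of_eq ?_)) le_rfl)
            (mul_le_mul' (ENNReal.ofReal_le_ofReal ?_) le_rfl)
          · rw [pow_succ]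
            ring
          · have h11 : 1 ≤ (E * (81 * R) + 1) ^ (l - i) := one_le_pow₀ (by
              have : 0 ≤ E * (81 * R) := by positivity
              linarith)
            rw [pow_succ]
            nlinarith

end Crest.Agent.R116.Dch229
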