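import Crest.Agent.R116.GlC_210
import Crest.Agent.R116.Bas1_367
import Crest.Agent.R116.Ba1_449
import Crest.Agent.R116.Tr1_126

/-!
# R116 (S0155), wave side, TUBE plug: level lemmas and bookkeeping of the tails (helper890)

* `S_le_val`: the label functional is bounded by the value of its plates (from `dense`).
* `group`, `trc_group`: regrouping of the frames of a finer level by the nearest frame.
* `enc_sl`: energy of the selection = sum over the plates; `row_le_S`.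
* `tail`, `tail_sum`: `x^(1/2) y ≤ R^(-T) SS` for tiny terms.
-/

set_option autoImplicit false

open MeasureTheory FourierTransform
open scoped ENNReal

namespace Crest.Agent.R116.TuL890

open Crest.Agent.R138.Defs (E2 ee)
open Crest.Agent.R138.Wpk685 (cen caps)
open Crest.Agent.R116.CDef480 Crest.Agent.R116.WC188 Crest.Agent.R116.GlC210
open Crest.Agent.R116.LZg725 (Cf)

/-! ### one plate -/

theorem scost_pos {κ s1 sg r : ℝ} (h1 : 0 < s1) (h2 : 0 < sg) (hr : 0 < r) :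
    0 < scost κ s1 sg r := by
  unfold scost TT
  have : 0 < max (sg ^ 2) ((κ * r)⁻¹) := lt_max_of_lt_left (by positivity)
  positivity

theorem ofReal_half (x : ℝ) : ENNReal.ofReal x ^ (1/2 : ℝ) = ENNReal.ofReal (√x) := by
  rcases le_or_gt x 0 with h | h
  · rw [ENNReal.ofReal_of_nonpos h, Real.sqrt_eq_zero_of_nonpos h, ENNReal.ofReal_zero,
      ENNReal.zero_rpow_of_pos (by norm_num)]
  · rw [ENNReal.ofReal_rpow_of_pos h, Real.sqrt_eq_rpow]

theorem pow32 (e : ℝ≥0∞) : e ^ (3/2 : ℝ) = e ^ (1/2 : ℝ) * e := by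
  rw [show (3/2 : ℝ) = 1/2 + 1 by norm_num,
    ENNReal.rpow_add_of_nonneg _ _ (by norm_num) (by norm_num), ENNReal.rpow_one]

/-- a dense plate is bounded by its value. -/
theorem plate_val {D s2 q c r x : ℝ} {e : ℝ≥0∞} (hr : 0 < r) (hs2 : 0 < s2) (hc : 0 < c)
    (hd : ENNReal.ofReal (D * s2 ^ q * c) ≤ ENNReal.ofReal x * e) :
    ENNReal.ofReal (r * √D) * e ≤ ENNReal.ofReal (√x) * (ENNReal.ofReal (s2 ^ (-q / 2)) *
      (ENNReal.ofReal ((r * c) ^ (-(1/2) : ℝ)) * (ENNReal.ofReal r * e) ^ (3 / 2 : ℝ))) := by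
  rcases le_or_gt D 0 with hD | hD
  · rw [Real.sqrt_eq_zero_of_nonpos hD, mul_zero, ENNReal.ofReal_zero, zero_mul]
    exact zero_le
  have hq : 0 < s2 ^ q := Real.rpow_pos_of_pos hs2 q
  have h1 : ENNReal.ofReal (√(D * s2 ^ q * c)) ≤ ENNReal.ofReal (√x) * e ^ (1/2 : ℝ) := by
    rw [← ofReal_half, ← ofReal_half, ← ENNReal.mul_rpow_of_nonneg _ _ (by norm_num)]
    exact ENNReal.rpow_le_rpow hd (by norm_num)
  have e1 : r * √D = (r * (√(s2 ^ q * c))⁻¹) * √(D * s2 ^ q * c) := by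
    rw [mul_assoc D, Real.sqrt_mul hD.le]
    have : √(s2 ^ q * c) ≠ 0 := (Real.sqrt_pos.2 (by positivity)).ne'
    field_simp
  have e2 : s2 ^ (-q / 2) * ((r * c) ^ (-(1/2) : ℝ) * r ^ (3/2 : ℝ)) =
      r * (√(s2 ^ q * c))⁻¹ := by
    rw [Real.sqrt_mul hq.le, Real.sqrt_eq_rpow, Real.sqrt_eq_rpow, ← Real.rpow_mul hs2.le,
      mul_inv, ← Real.rpow_neg hs2.le, ← Real.rpow_neg hc.le, Real.mul_rpow hr.le hc.le]
    have e3 : r ^ (-(1/2) : ℝ) * r ^ (3/2 : ℝ) = r := by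
      rw [← Real.rpow_add hr]; norm_num
    have e4 : (-q / 2 : ℝ) = -(q * (1/2)) := by ring
    rw [e4]
    calc _ = s2 ^ (-(q * (1/2)) : ℝ) * c ^ (-(1/2) : ℝ) * (r ^ (-(1/2) : ℝ) * r ^ (3/2 : ℝ)) := by
          ring
      _ = _ := by rw [e3]; ring
  calc ENNReal.ofReal (r * √D) * e =
        ENNReal.ofReal (r * (√(s2 ^ q * c))⁻¹) * ENNReal.ofReal (√(D * s2 ^ q * c)) * e := by
        rw [e1, ENNReal.ofReal_mul (by positivity)]
    _ ≤ ENNReal.ofReal (r * (√(s2 ^ q * c))⁻¹) * (ENNReal.ofReal (√x) * e ^ (1/2 : ℝ)) * e := by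
        gcongr
    _ = ENNReal.ofReal (√x) * (ENNReal.ofReal (r * (√(s2 ^ q * c))⁻¹) * e ^ (3/2 : ℝ)) := by
        rw [pow32]; ring
    _ = _ := by
        rw [← e2, ENNReal.ofReal_mul (by positivity), ENNReal.ofReal_mul (by positivity),
          ENNReal.mul_rpow_of_nonneg _ _ (by norm_num), ENNReal.ofReal_rpow_of_pos hr]
        ring

/-! ### labels and plates -/

section lev

variable {M κ q A A' a b Cn : ℝ} {K : ℕ} {η0 : ℝ} {C0 : E2} {σ : ℝ} {g : E3 → ℂ} {R : ℝ} {L : Lev}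

theorem lev_r1 (h : LevOk M κ q A A' a b Cn K η0 C0 σ g R L) (hR : 1 ≤ R) : 1 ≤ L.r :=
  (Real.one_le_rpow hR (by norm_num)).trans h.lo

theorem lev_s_pos (h : LevOk M κ q A A' a b Cn K η0 C0 σ g R L) (hR : 1 ≤ R) {k : ℕ}
    (hk : k < L.n) : 0 < (L.s k).1 ∧ 0 < (L.s k).2 := by
  have h1 := h.sd k hk
  have h2 : 0 < L.r ^ (-(1/2) : ℝ) := Real.rpow_pos_of_pos (by linarith [lev_r1 h hR]) _
  exact ⟨h2.trans_le h1.lo, (h2.trans_le h1.lo).trans_le h1.le⟩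

/-- **the label functional is bounded by the value of the plates.** -/
theorem S_le_val (h : LevOk M κ q A A' a b Cn K η0 C0 σ g R L) (hR : 1 ≤ R) {k : ℕ}
    (hk : k < L.n) :
    L.S g k ≤ ENNReal.ofReal (√(Cn * L.nb)) * (ENNReal.ofReal ((L.s k).2 ^ (-q / 2)) *
      ∑ z ∈ L.Z, val κ g L.r (L.s k).1 (L.s k).2 (L.I z k) (L.P z k)) := by
  have hr := lev_r1 h hR
  have hr0 : 0 < L.r := by linarith
  obtain ⟨hs1, hs2⟩ := lev_s_pos h hR hk
  unfold Lev.S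
  rw [Finset.mul_sum, Finset.mul_sum]
  refine Finset.sum_le_sum fun z hz => ?_
  obtain ⟨cls, hd⟩ := h.dec z hz
  have hkΛ : k ∈ Finset.range L.n := Finset.mem_range.2 hk
  unfold val
  rw [Finset.mul_sum, Finset.mul_sum, Finset.mul_sum]
  refine Finset.sum_le_sum fun i hi => ?_
  rw [(hd.pl k hkΛ).2 i hi]
  exact plate_val hr0 hs2 (scost_pos hs1 hs2 hr0) (hd.dense k hkΛ i hi)

/-- the energy of the selection is the sum of the energies of the plates. -/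
theorem enc_sl (h : LevOk M κ q A A' a b Cn K η0 C0 σ g R L) {k : ℕ} (hk : k < L.n)
    {z : E3 × ℝ} (hz : z ∈ L.Z) (ρ : ℝ) (f : E3 → ℂ) :
    enc ρ f (L.sl z k) = ∑ i ∈ L.I z k, enc ρ f (L.P z k i).S := by
  obtain ⟨cls, hd⟩ := h.dec z hz
  have hkΛ : k ∈ Finset.range L.n := Finset.mem_range.2 hk
  obtain ⟨hp, hpz⟩ := hd.pl k hkΛ
  exact Bas367.enc_biUnion (L.I z k) (fun i => (L.P z k i).S) (fun i hi m => hp.meas i hi m)
    (fun i hi j hj hij m => hp.disj i hi j hj hij (by rw [hpz i hi, hpz j hj]) m)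

/-- summation of a row bound. -/
theorem row_le_S (h : LevOk M κ q A A' a b Cn K η0 C0 σ g R L) {k : ℕ} (hk : k < L.n)
    {X : E3 × ℝ → ℝ≥0∞} {C : ℝ≥0∞}
    (hX : ∀ z ∈ L.Z, X z ≤ C * (ENNReal.ofReal (L.r * √(L.D z k)) *
      enc (L.r ^ (-(1/2) : ℝ)) (trc z g) (L.sl z k))) :
    ∑ z ∈ L.Z, X z ≤ C * L.S g k := by
  unfold Lev.S
  rw [Finset.mul_sum]
  refine Finset.sum_le_sum fun z hz => (hX z hz).trans (le_of_eq ?_)
  rw [enc_sl h hk hz]

/-! ### regrouping of frames -/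

/-- regrouping of the frames of a level by the nearest frame of another level. -/
theorem group {L' : Lev} (h : LevOk M κ q A A' a b Cn K η0 C0 σ g R L)
    (h' : LevOk M κ q A A' a b Cn K η0 C0 σ g R L') (F : E3 × ℝ → ℝ≥0∞) :
    ∑ z ∈ L'.Z, F z = ∑ w ∈ L.Z, ∑ z ∈ L'.Z.filter (fun z => L.ζ z = w), F z :=
  (Finset.sum_fiberwise_of_maps_to (fun z hz => (h.near z (h'.net.mem z hz)).1) F).symm

theorem trc_group (L : Lev) (z : E3 × ℝ) (f : E3 → ℂ) :
    trc z f = trc (z - L.ζ z) (trc (L.ζ z) f) := by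
  rw [Bas367.trc_trc, sub_add_cancel]

/-- the displaced frames of one group, as a net in `cylc L.r`. -/
theorem group_net {L' : Lev} (h : LevOk M κ q A A' a b Cn K η0 C0 σ g R L)
    (h' : LevOk M κ q A A' a b Cn K η0 C0 σ g R L') (w : E3 × ℝ) :
    (∀ z ∈ L'.Z.filter (fun z => L.ζ z = w), z - w ∈ cylc L.r) ∧
    ∀ z ∈ L'.Z.filter (fun z => L.ζ z = w), ∀ z' ∈ L'.Z.filter (fun z => L.ζ z = w),
      z = z' ∨ L'.r ≤ ‖(z - w).1 - (z' - w).1‖ ∨ L'.r ≤ |(z - w).2 - (z' - w).2| := by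
  refine ⟨fun z hz => ?_, fun z hz z' hz' => ?_⟩
  · obtain ⟨h1, h2⟩ := Finset.mem_filter.1 hz
    have := (h.near z (h'.net.mem z h1)).2
    rwa [h2] at this
  · rcases h'.net.sep z (Finset.mem_filter.1 hz).1 z' (Finset.mem_filter.1 hz').1 with e | e | e
    · exact Or.inl e
    · right; left
      rw [Prod.fst_sub, Prod.fst_sub, sub_sub_sub_cancel_right]
      exact e
    · right; right
      rw [Prod.snd_sub, Prod.snd_sub, sub_sub_sub_cancel_right]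
      exact e

end lev

/-! ### tails -/

/-- one tail. -/
theorem tail {E D R M0 α β T c1 c2 : ℝ} (hR : 1 ≤ R) (hE : 0 ≤ E)
    (hnd : E ≤ R ^ M0 * D) (hc1 : 0 ≤ c1) (hc2 : 0 ≤ c2) {x y : ℝ≥0∞}
    (hx : x ≤ ENNReal.ofReal (c1 * R ^ α * E)) (hy : y ≤ ENNReal.ofReal (c2 * R ^ β * E))
    (hab : α / 2 + β + M0 / 2 + T ≤ 1) :
    x ^ (1/2 : ℝ) * y ≤ ENNReal.ofReal (√c1 * c2 * (R ^ (-T) * (R * E * √D))) := by
  have hR0 : 0 < R := by linarith
  have h1 : √(c1 * R ^ α * E) ≤ √c1 * (R ^ (α / 2) * (R ^ (M0 / 2) * √D)) := by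
    calc √(c1 * R ^ α * E) ≤ √(c1 * R ^ α * (R ^ M0 * D)) := by
          refine Real.sqrt_le_sqrt ?_
          gcongr
      _ = _ := by
          rw [mul_assoc c1, Real.sqrt_mul hc1, Real.sqrt_mul (by positivity),
            Real.sqrt_mul (by positivity), Real.sqrt_eq_rpow (R ^ α), Real.sqrt_eq_rpow (R ^ M0),
            ← Real.rpow_mul hR0.le, ← Real.rpow_mul hR0.le]
          congr 4 <;> ring
  calc x ^ (1/2 : ℝ) * y ≤ ENNReal.ofReal (c1 * R ^ α * E) ^ (1/2 : ℝ) *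
        ENNReal.ofReal (c2 * R ^ β * E) := by gcongr
    _ = ENNReal.ofReal (√(c1 * R ^ α * E) * (c2 * R ^ β * E)) := by
        rw [ofReal_half, ← ENNReal.ofReal_mul (Real.sqrt_nonneg _)]
    _ ≤ _ := by
        refine ENNReal.ofReal_le_ofReal ?_
        calc √(c1 * R ^ α * E) * (c2 * R ^ β * E) ≤
              √c1 * (R ^ (α / 2) * (R ^ (M0 / 2) * √D)) * (c2 * R ^ β * E) := by gcongr
          _ = √c1 * c2 * ((R ^ (α / 2) * R ^ β * R ^ (M0 / 2)) * (E * √D)) := by ring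
          _ = √c1 * c2 * (R ^ (α / 2 + β + M0 / 2) * (E * √D)) := by
              rw [Real.rpow_add hR0, Real.rpow_add hR0]
          _ ≤ √c1 * c2 * (R ^ (-T + 1) * (E * √D)) := by
              have : R ^ (α / 2 + β + M0 / 2) ≤ R ^ (-T + 1) :=
                Real.rpow_le_rpow_of_exponent_le hR (by linarith)
              gcongr
          _ = _ := by rw [Real.rpow_add hR0, Real.rpow_one]; ring

/-- sum of tails over a finite family of at most `c3 R^γ` members. -/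
theorem tail_sum {E D R M0 α β γ T c1 c2 c3 : ℝ} (hR : 1 ≤ R) (hE : 0 ≤ E)
    (hnd : E ≤ R ^ M0 * D) (hc1 : 0 ≤ c1) (hc2 : 0 ≤ c2) {ι : Type*} (s : Finset ι)
    (hs : (s.card : ℝ) ≤ c3 * R ^ γ) {x y : ι → ℝ≥0∞}
    (hx : ∀ i ∈ s, x i ≤ ENNReal.ofReal (c1 * R ^ α * E))
    (hy : ∀ i ∈ s, y i ≤ ENNReal.ofReal (c2 * R ^ β * E))
    (hab : α / 2 + β + γ + M0 / 2 + T ≤ 1) :
    ∑ i ∈ s, x i ^ (1/2 : ℝ) * y i ≤
      ENNReal.ofReal (√c1 * c2 * c3 * (R ^ (-T) * (R * E * √D))) := by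
  have hR0 : 0 < R := by linarith
  have h1 : ∀ i ∈ s, x i ^ (1/2 : ℝ) * y i ≤
      ENNReal.ofReal (√c1 * c2 * (R ^ (-(T + γ)) * (R * E * √D))) := fun i hi =>
    tail hR hE hnd hc1 hc2 (hx i hi) (hy i hi) (by linarith)
  calc ∑ i ∈ s, x i ^ (1/2 : ℝ) * y i ≤
        ∑ _i ∈ s, ENNReal.ofReal (√c1 * c2 * (R ^ (-(T + γ)) * (R * E * √D))) :=
        Finset.sum_le_sum h1
    _ = ENNReal.ofReal ((s.card : ℝ) * (√c1 * c2 * (R ^ (-(T + γ)) * (R * E * √D)))) := by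
        rw [Finset.sum_const, nsmul_eq_mul, ENNReal.ofReal_mul (p := (s.card : ℝ))
          (Nat.cast_nonneg _), ENNReal.ofReal_natCast]
    _ ≤ ENNReal.ofReal ((c3 * R ^ γ) * (√c1 * c2 * (R ^ (-(T + γ)) * (R * E * √D)))) := by
        refine ENNReal.ofReal_le_ofReal ?_
        gcongr
    _ = _ := by
        congr 1
        have e : R ^ γ * R ^ (-(T + γ)) = R ^ (-T) := by
          rw [← Real.rpow_add hR0]; congr 1; ring
        calc _ = √c1 * c2 * c3 * ((R ^ γ * R ^ (-(T + γ))) * (R * E * √D)) := by ring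
          _ = _ := by rw [e]

/-- number of frames of a net. -/
theorem card_net' {r R : ℝ} (hr : 1 ≤ r) (hrR : r ≤ R) {Z : Finset (E3 × ℝ)} (hZ : Net r R Z) :
    (Z.card : ℝ) ≤ 1296 * R ^ (4 : ℝ) := by
  have h := Tr126.card_net (by linarith) hrR hZ
  refine h.trans ?_
  have e : R ^ (4 : ℝ) = R ^ 4 := by
    rw [show (4 : ℝ) = ((4 : ℕ) : ℝ) by norm_num, Real.rpow_natCast]
  rw [e, show (1296 : ℝ) * R ^ 4 = (6 * R) ^ 4 by ring]
  have hR : 0 < R := by linarith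
  exact pow_le_pow_left₀ (by positivity) (div_le_self (by positivity) hr) 4

/-- energies of selections of a state. -/
theorem enc_le_Enc {M κ q a b M0 : ℝ} {C0 : E2} {σ : ℝ} {g : E3 → ℂ} {R D : ℝ} (ha : 1 ≤ a)
    (hb : b ≤ 2) (h : St M κ q a b M0 C0 σ g R D) {ρ : ℝ} (hρ : 0 < ρ) (z : E3 × ℝ)
    (S : ℤ × ℤ → Set E3) : enc ρ (trc z g) S ≤ ENNReal.ofReal (Enc g) := by
  have := Ba449.enc_le ((Ba449.St.gd ha hb h).trc z) hρ S
  rwa [Ba449.Enc_trc] at this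

end Crest.Agent.R116.TuL890
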