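import Crest.Agent.R116.TuD_373
import Crest.Agent.R116.TuL_890

/-!
# R116 (S0155), wave side, tube step: static facts of a tower (helper363)

`tht_*`, `sgm_*` : real inequalities between the angles, the radii and the coherence radius
(`κ ≤ dl^(4 Lw)`, `l ≤ h + 4 Lw`); `pz_*` : the frames on a path.

Interface Props for one pair of levels `i < j` and one label `k` of level `j` (parent label
`anc L j i k`): `Uat` = (U), `Eat` = (E), `Cdat` = class data.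
-/

set_option autoImplicit false

open MeasureTheory
open scoped ENNReal

namespace Crest.Agent.R116.TuS363

open Crest.Agent.R138.Defs (E2)
open Crest.Agent.R138.Wpk685 (cen caps)
open Crest.Agent.R116.CDef480 Crest.Agent.R116.WC188 Crest.Agent.R116.GlC210
open Crest.Agent.R116.TuD373

variable {R dl κ : ℝ} {h i j l t : ℕ}

/-! ### radii and angles -/

theorem rad_pos (hR : 0 < R) (hdl : 0 < dl) (t : ℕ) : 0 < R * dl ^ t := by positivity

theorem rad_anti (hR : 0 < R) (hdl : 0 < dl) (hdl1 : dl ≤ 1) (hij : i ≤ j) :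
    R * dl ^ j ≤ R * dl ^ i :=
  mul_le_mul_of_nonneg_left (pow_le_pow_of_le_one hdl.le hdl1 hij) hR.le

theorem tht_pos (hR : 0 < R) (hdl : 0 < dl) (t : ℕ) : 0 < tht R dl t :=
  Real.rpow_pos_of_pos (rad_pos hR hdl t) _

theorem tht_inv (hR : 0 < R) (hdl : 0 < dl) (t : ℕ) :
    (tht R dl t)⁻¹ = (R * dl ^ t) ^ (1/2 : ℝ) := by
  unfold tht
  rw [Real.rpow_neg (rad_pos hR hdl t).le, inv_inv]

theorem tht_eq_inv (hR : 0 < R) (hdl : 0 < dl) (t : ℕ) :
    tht R dl t = ((R * dl ^ t) ^ (1/2 : ℝ))⁻¹ := by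
  rw [← tht_inv hR hdl, inv_inv]

theorem tht_sqrt (hR : 0 < R) (hdl : 0 < dl) (t : ℕ) : tht R dl t * (R * dl ^ t) ^ (1/2 : ℝ) = 1 := by
  rw [tht_eq_inv hR hdl, inv_mul_cancel₀ (Real.rpow_pos_of_pos (rad_pos hR hdl t) _).ne']

theorem sqrt_sq (hR : 0 < R) (hdl : 0 < dl) (t : ℕ) :
    ((R * dl ^ t) ^ (1/2 : ℝ)) ^ 2 = R * dl ^ t := by
  rw [← Real.rpow_natCast, ← Real.rpow_mul (rad_pos hR hdl t).le]
  norm_num

theorem rad_tht_sq (hR : 0 < R) (hdl : 0 < dl) (t : ℕ) : R * dl ^ t * tht R dl t ^ 2 = 1 := by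
  have h1 := tht_sqrt hR hdl t
  have h2 := sqrt_sq hR hdl t
  calc R * dl ^ t * tht R dl t ^ 2 = (tht R dl t * (R * dl ^ t) ^ (1/2 : ℝ)) ^ 2 := by
        rw [mul_pow, h2]; ring
    _ = 1 := by rw [h1, one_pow]

theorem tht_mono (hR : 0 < R) (hdl : 0 < dl) (hdl1 : dl ≤ 1) (hij : i ≤ j) :
    tht R dl i ≤ tht R dl j := by
  unfold tht
  exact Real.rpow_le_rpow_of_nonpos (rad_pos hR hdl j) (rad_anti hR hdl hdl1 hij) (by norm_num)

theorem tht_le_one (hr : 1 ≤ R * dl ^ t) : tht R dl t ≤ 1 :=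
  Real.rpow_le_one_of_one_le_of_nonpos hr (by norm_num)

/-- `tht j = tht i * (dl^(j-i))^(-1/2)`. -/
theorem tht_shift (hR : 0 < R) (hdl : 0 < dl) (hij : i ≤ j) :
    tht R dl j * (dl ^ (j - i)) ^ (1/2 : ℝ) = tht R dl i := by
  have h1 : dl ^ j = dl ^ i * dl ^ (j - i) := by rw [← pow_add]; congr 1; omega
  have h2 : 0 < dl ^ (j - i) := by positivity
  have h3 : 0 < R * dl ^ i := rad_pos hR hdl i
  unfold tht
  rw [h1, ← mul_assoc, Real.mul_rpow h3.le h2.le, mul_assoc, ← Real.rpow_add h2]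
  norm_num

/-- static condition. -/
theorem kap_tht (hR : 0 < R) (hdl : 0 < dl) (hdl1 : dl ≤ 1) {Lw : ℕ}
    (hκ : κ ≤ dl ^ (4 * (Lw : ℝ))) (hij : i ≤ j) (hj : j ≤ i + 4 * Lw) :
    κ * tht R dl j ≤ tht R dl i := by
  rw [← tht_shift hR hdl hij, mul_comm]
  refine mul_le_mul_of_nonneg_left (hκ.trans ?_) (tht_pos hR hdl j).le
  rw [← Real.rpow_natCast dl (j - i), ← Real.rpow_mul hdl.le]
  refine Real.rpow_le_rpow_of_exponent_ge hdl hdl1 ?_
  have h1 : ((j - i : ℕ) : ℝ) ≤ 4 * (Lw : ℝ) := by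
    have : j - i ≤ 4 * Lw := by omega
    exact_mod_cast this
  have h2 : (0:ℝ) ≤ ((j - i : ℕ) : ℝ) := Nat.cast_nonneg _
  linarith

/-! ### the coherence radius -/

theorem sgm_le_tht : sgm R dl i j l ≤ tht R dl l := min_le_left _ _

theorem sgm_le_div : sgm R dl i j l ≤ (R * dl ^ i) ^ (1/2 : ℝ) / (R * dl ^ j) := min_le_right _ _

theorem sgm_pos (hR : 0 < R) (hdl : 0 < dl) : 0 < sgm R dl i j l :=
  lt_min (tht_pos hR hdl l) (div_pos (Real.rpow_pos_of_pos (rad_pos hR hdl i) _) (rad_pos hR hdl j))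

theorem tht_le_sgm (hR : 0 < R) (hdl : 0 < dl) (hdl1 : dl ≤ 1) (hij : i ≤ j) (hjl : j ≤ l) :
    tht R dl j ≤ sgm R dl i j l := by
  refine le_min (tht_mono hR hdl hdl1 hjl) ?_
  rw [le_div_iff₀ (rad_pos hR hdl j)]
  have h1 := sqrt_sq hR hdl j
  have h2 := tht_sqrt hR hdl j
  have h3 : (R * dl ^ j) ^ (1/2 : ℝ) ≤ (R * dl ^ i) ^ (1/2 : ℝ) :=
    Real.rpow_le_rpow (rad_pos hR hdl j).le (rad_anti hR hdl hdl1 hij) (by norm_num)
  calc tht R dl j * (R * dl ^ j) = (tht R dl j * (R * dl ^ j) ^ (1/2 : ℝ)) *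
        (R * dl ^ j) ^ (1/2 : ℝ) := by rw [mul_assoc, ← sq, h1]
    _ = (R * dl ^ j) ^ (1/2 : ℝ) := by rw [h2, one_mul]
    _ ≤ _ := h3

/-- `r_j σ ≤ r_i^(1/2)`. -/
theorem rad_sgm (hR : 0 < R) (hdl : 0 < dl) :
    R * dl ^ j * sgm R dl i j l ≤ (R * dl ^ i) ^ (1/2 : ℝ) := by
  have h1 := mul_le_mul_of_nonneg_left (sgm_le_div (R := R) (dl := dl) (i := i) (j := j) (l := l))
    (rad_pos hR hdl j).le
  rwa [mul_div_cancel₀ _ (rad_pos hR hdl j).ne'] at h1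

theorem tht_rad_sgm (hR : 0 < R) (hdl : 0 < dl) :
    tht R dl i * (R * dl ^ j * sgm R dl i j l) ≤ 1 := by
  rw [← tht_sqrt hR hdl i]
  exact mul_le_mul_of_nonneg_left (rad_sgm hR hdl) (tht_pos hR hdl i).le

theorem kap_sgm (hR : 0 < R) (hdl : 0 < dl) (hdl1 : dl ≤ 1) (hκ0 : 0 ≤ κ) {Lw : ℕ}
    (hκ : κ ≤ dl ^ (4 * (Lw : ℝ))) (hil : i ≤ l) (hl : l ≤ i + 4 * Lw) :
    κ * sgm R dl i j l ≤ tht R dl i :=
  (mul_le_mul_of_nonneg_left sgm_le_tht hκ0).trans (kap_tht hR hdl hdl1 hκ hil hl)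

theorem kap_rad_sgm (hR : 0 < R) (hdl : 0 < dl) (h1 : κ * sgm R dl i j l ≤ tht R dl i) :
    κ * (R * dl ^ j * sgm R dl i j l ^ 2) ≤ 1 := by
  have h2 := rad_sgm (i := i) (j := j) (l := l) hR hdl
  have h3 := sgm_pos (i := i) (j := j) (l := l) hR hdl
  have h4 := tht_pos hR hdl i
  have h5 := rad_pos hR hdl j
  calc κ * (R * dl ^ j * sgm R dl i j l ^ 2) =
        (κ * sgm R dl i j l) * (R * dl ^ j * sgm R dl i j l) := by ring
    _ ≤ tht R dl i * (R * dl ^ i) ^ (1/2 : ℝ) := mul_le_mul h1 h2 (by positivity) h4.le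
    _ = 1 := tht_sqrt hR hdl i

/-- `tht_l / sgm_ijl ≤ dl^(-max 0 ((i+l)/2-j))`. -/
theorem tht_div_sgm (hR : 0 < R) (hdl : 0 < dl) (hdl1 : dl ≤ 1) :
    tht R dl l / sgm R dl i j l ≤ dl ^ (-(max 0 (((i : ℝ) + l) / 2 - j))) := by
  have hs := sgm_pos (i := i) (j := j) (l := l) hR hdl
  have htl := tht_pos hR hdl l
  have hone : 1 ≤ dl ^ (-(max 0 (((i : ℝ) + l) / 2 - j))) :=
    Real.one_le_rpow_of_pos_of_le_one_of_nonpos hdl hdl1 (by
      have := le_max_left 0 (((i : ℝ) + l) / 2 - j); linarith)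
  rw [div_le_iff₀ hs]
  unfold sgm
  rcases min_choice (tht R dl l) ((R * dl ^ i) ^ (1/2 : ℝ) / (R * dl ^ j)) with hc | hc
  · rw [hc]
    nlinarith
  · rw [hc]
    have h1 : dl ^ (-(((i : ℝ) + l) / 2 - j)) ≤ dl ^ (-(max 0 (((i : ℝ) + l) / 2 - j))) :=
      Real.rpow_le_rpow_of_exponent_ge hdl hdl1 (by
        have := le_max_right 0 (((i : ℝ) + l) / 2 - j); linarith)
    have h2 : tht R dl l = dl ^ (-(((i : ℝ) + l) / 2 - j)) *
        ((R * dl ^ i) ^ (1/2 : ℝ) / (R * dl ^ j)) := by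
      have e1 : (R * dl ^ i) ^ (1/2 : ℝ) = R ^ (1/2 : ℝ) * dl ^ ((i : ℝ) / 2) := by
        rw [Real.mul_rpow hR.le (by positivity), ← Real.rpow_natCast, ← Real.rpow_mul hdl.le]
        congr 2; ring
      have e2 : tht R dl l = R ^ (-(1/2) : ℝ) * dl ^ (-((l : ℝ) / 2)) := by
        unfold tht
        rw [Real.mul_rpow hR.le (by positivity), ← Real.rpow_natCast, ← Real.rpow_mul hdl.le]
        congr 2; ring
      have e3 : R * dl ^ j = R ^ (1 : ℝ) * dl ^ (j : ℝ) := by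
        rw [Real.rpow_one, Real.rpow_natCast]
      rw [e1, e2, e3, div_eq_mul_inv (R ^ (1/2 : ℝ) * dl ^ ((i : ℝ) / 2)), mul_inv,
        ← Real.rpow_neg hR.le, ← Real.rpow_neg hdl.le]
      have e4 : R ^ (-(1/2) : ℝ) = R ^ (1/2 : ℝ) * R ^ (-1 : ℝ) := by
        rw [← Real.rpow_add hR]; norm_num
      have e5 : dl ^ (-((l : ℝ) / 2)) = dl ^ (-(((i : ℝ) + l) / 2 - j)) * dl ^ ((i : ℝ) / 2) *
          dl ^ (-(j : ℝ)) := by
        rw [← Real.rpow_add hdl, ← Real.rpow_add hdl]; congr 1; ring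
      rw [e4, e5]
      ring
    rw [h2]
    refine mul_le_mul_of_nonneg_right h1 ?_
    exact (div_pos (Real.rpow_pos_of_pos (rad_pos hR hdl i) _) (rad_pos hR hdl j)).le

/-- number of coherence discs in a disc of radius `4 tht_j`. -/
theorem cnt_le (hR : 0 < R) (hdl : 0 < dl) (hdl1 : dl ≤ 1) :
    (4 * (4 * tht R dl j) / sgm R dl h i j + 2) ^ 2 ≤
      324 * dl ^ (-(max 0 ((h : ℝ) + j - 2 * i))) := by
  have h1 := tht_div_sgm (i := h) (j := i) (l := j) hR hdl hdl1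
  set x : ℝ := dl ^ (-(max 0 (((h : ℝ) + j) / 2 - i))) with hx
  have hx1 : 1 ≤ x := Real.one_le_rpow_of_pos_of_le_one_of_nonpos hdl hdl1 (by
      have := le_max_left 0 (((h : ℝ) + j) / 2 - i); linarith)
  have h2 : 4 * (4 * tht R dl j) / sgm R dl h i j = 16 * (tht R dl j / sgm R dl h i j) := by ring
  have h3 : x ^ 2 = dl ^ (-(max 0 ((h : ℝ) + j - 2 * i))) := by
    rw [hx, ← Real.rpow_natCast, ← Real.rpow_mul hdl.le]
    congr 1
    have e : (h : ℝ) + j - 2 * i = 2 * (((h : ℝ) + j) / 2 - i) := by ring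
    have e2 : max 0 (2 * (((h : ℝ) + j) / 2 - i)) = 2 * max 0 (((h : ℝ) + j) / 2 - i) := by
      rw [mul_max_of_nonneg _ _ (by norm_num : (0:ℝ) ≤ 2), mul_zero]
    rw [e, e2]
    push_cast
    ring
  rw [h2, ← h3]
  have h4 : 0 ≤ tht R dl j / sgm R dl h i j :=
    (div_pos (tht_pos hR hdl j) (sgm_pos hR hdl)).le
  calc (16 * (tht R dl j / sgm R dl h i j) + 2) ^ 2 ≤ (16 * x + 2 * x) ^ 2 := by
        refine pow_le_pow_left₀ (by positivity) ?_ 2
        linarith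
    _ = _ := by ring

/-! ### interface Props -/

open Classical in
/-- number of near caps of level `i` with a selected packet of the label `k'` in the `Y`-plate around
the point `y` of the frame `z` of level `j`. -/
noncomputable def cntU (κ R dl Y : ℝ) (L : ℕ → Lev) (j i : ℕ) (z : E3 × ℝ) (k' : ℕ) (m : ℤ × ℤ)
    (y : E3) : ℕ :=
  ((nrC (tht R dl i) (tht R dl j) m).filter fun m' => ∃ y0 ∈ (L i).sl (pz L j i z) k' m',
    TuG373.pn (tht R dl i) κ (cen (tht R dl i) m')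
      (y0 - TuG373.D (z - pz L j i z) y (cen (tht R dl i) m')) ≤ Y).card

/-- **(U)** along the path, with the count `cntU`, on the selections of the label `k`. -/
def Uat (n0 : ℕ) (κ : ℝ) (g : E3 → ℂ) (R dl Y : ℝ) (L : ℕ → Lev) (j i k : ℕ) (Cu : ℝ)
    (τ0 : ℝ≥0∞) : Prop :=
  ∀ z ∈ (L j).Z, ∀ p ∈ (L j).I z k, ∀ m, ∀ y ∈ ((L j).P z k p).S m,
    ‖umc (tht R dl j) (trc z g) m y‖ₑ ^ 2 ≤
      ENNReal.ofReal Cu * (cntU κ R dl Y L j i z (anc L j i k) m y : ℝ≥0∞) *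
        dns n0 κ g R dl L j i z (anc L j i k) m (z - pz L j i z) y + τ0

/-- **(E)** along the path, on the selection of the label `k`. -/
def Eat (n0 : ℕ) (κ : ℝ) (g : E3 → ℂ) (R dl Y : ℝ) (L : ℕ → Lev) (j i k : ℕ) (Ce : ℝ)
    (τ1 : ℝ≥0∞) : Prop :=
  ∀ z ∈ (L j).Z, ∀ m ∈ caps (tht R dl j),
    ∫⁻ y in (L j).sl z k m, ‖umc (tht R dl j) (trc z g) m y‖ₑ ^ 2 ≤
      ENNReal.ofReal Ce * (∫⁻ x in TuC373.Nb (tht R dl i) κ (cen (tht R dl j) m) Y
          ((L j).sl z k m),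
        dns n0 κ g R dl L j i z (anc L j i k) m (z - pz L j i z) x) + τ1

/-- **class data** of the label `k` of level `j`: density of the ancestor of level `i` within a factor
`8`, coherence counts `(i, j, l)` between `pl` and `ph`. -/
def Cdat (n0 : ℕ) (κ : ℝ) (g : E3 → ℂ) (R dl : ℝ) (L : ℕ → Lev) (i j l k : ℕ) (K0 al pl ph : ℝ) :
    Prop :=
  ∀ z ∈ (L j).Z, ∀ p ∈ (L j).I z k, ∀ m, ∀ y ∈ ((L j).P z k p).S m,
    ENNReal.ofReal al ≤ dns n0 κ g R dl L j i z (anc L j i k) m (z - pz L j i z) y ∧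
    dns n0 κ g R dl L j i z (anc L j i k) m (z - pz L j i z) y ≤ ENNReal.ofReal (8 * al) ∧
    pl ≤ (TuG373.potT (dns n0 κ g R dl L j i z (anc L j i k)) (tht R dl j) (sgm R dl i j l) K0 m
      (z - pz L j i z) y : ℝ) ∧
    (TuG373.potT (dns n0 κ g R dl L j i z (anc L j i k)) (tht R dl j) (sgm R dl i j l) K0 m
      (z - pz L j i z) y : ℝ) ≤ ph

/-! ### frames on a path -/

theorem pz_self (L : ℕ → Lev) (j : ℕ) (z : E3 × ℝ) : pz L j j z = z := by
  cases j with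
  | zero => rfl
  | succ j => simp [pz]

theorem pz_succ (L : ℕ → Lev) {i j : ℕ} (hij : i ≤ j) (z : E3 × ℝ) :
    pz L (j + 1) i z = pz L j i ((L j).ζ z) := by
  rw [pz, if_neg (by omega)]

section tow

variable {M q A A' a b Cn : ℝ} {K : ℕ} {η0 : ℝ} {C0 : E2} {σ : ℝ} {g : E3 → ℂ} {ν : ℝ}
  {n : ℕ} {L : ℕ → Lev}

theorem cylc_mono {r r' : ℝ} (h : r ≤ r') : cylc r ⊆ cylc r' :=
  fun _ hp => ⟨hp.1.trans h, hp.2.trans h⟩

theorem pz_mem (hT : Tow M κ q A A' a b Cn K η0 C0 σ g R dl ν n L) (hij : i < j) (hjn : j ≤ n)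
    {z : E3 × ℝ} (hz : z ∈ cylc R) : pz L j i z ∈ (L i).Z := by
  obtain ⟨d, rfl⟩ : ∃ d, j = i + 1 + d := ⟨j - (i + 1), by omega⟩
  clear hij
  induction d generalizing z with
  | zero =>
    rw [Nat.add_zero, pz_succ L le_rfl, pz_self]
    exact ((hT.ok i (by omega)).near z hz).1
  | succ d ih =>
    have e : i + 1 + (d + 1) = (i + 1 + d) + 1 := by omega
    rw [e, pz_succ L (by omega)]
    have hok := hT.ok (i + 1 + d) (by omega)
    exact ih (hok.net.mem _ (hok.near z hz).1) (by omega)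

theorem pz_mem' (hT : Tow M κ q A A' a b Cn K η0 C0 σ g R dl ν n L) (hij : i ≤ j) (hjn : j ≤ n)
    {z : E3 × ℝ} (hz : z ∈ (L j).Z) : pz L j i z ∈ (L i).Z := by
  rcases hij.lt_or_eq with h1 | h1
  · exact pz_mem hT h1 hjn ((hT.ok j hjn).net.mem z hz)
  · subst h1
    rwa [pz_self]

/-- displacement along a path. -/
theorem pz_disp (hT : Tow M κ q A A' a b Cn K η0 C0 σ g R dl ν n L) (hR : 0 < R) (hdl : 0 < dl)
    (hdl2 : dl ≤ 1/2) (hij : i ≤ j) (hjn : j ≤ n) {z : E3 × ℝ} (hz : z ∈ cylc R) :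
    z - pz L j i z ∈ cylc (2 * (R * dl ^ i) - 2 * (R * dl ^ j)) := by
  obtain ⟨d, rfl⟩ : ∃ d, j = i + d := ⟨j - i, by omega⟩
  clear hij
  induction d generalizing z with
  | zero =>
    rw [Nat.add_zero, pz_self, sub_self, sub_self]
    constructor <;> simp
  | succ d ih =>
    have e : i + (d + 1) = (i + d) + 1 := by omega
    rw [e, pz_succ L (by omega)]
    have hok := hT.ok (i + d) (by omega)
    obtain ⟨hz1, hz2⟩ := hok.near z hz
    have h1 := ih (hok.net.mem _ hz1) (by omega)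
    rw [hT.rad (i + d) (by omega)] at hz2
    have e2 : z - pz L (i + d) i ((L (i + d)).ζ z) =
        (z - (L (i + d)).ζ z) + ((L (i + d)).ζ z - pz L (i + d) i ((L (i + d)).ζ z)) := by abel
    have h3 : R * dl ^ (i + d + 1) ≤ R * dl ^ (i + d) / 2 := by
      rw [pow_succ]
      have := rad_pos hR hdl (i + d)
      nlinarith
    rw [e2]
    constructor
    · refine (norm_add_le _ _).trans ?_
      have a1 := hz2.1
      have a2 := h1.1
      linarith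
    · refine (abs_add_le _ _).trans ?_
      have a1 := hz2.2
      have a2 := h1.2
      linarith

end tow

end Crest.Agent.R116.TuS363
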