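import Crest.Agent.R116.Dch3_229
import Crest.Agent.R116.TuS_363

/-!
# R116 (S0155), wave side: the path of a frame and a label (helper229)

`path_of`: `l ↦ pz L j l z`, `l ↦ anc L j l k` is a path.
-/

set_option autoImplicit false

open MeasureTheory
open scoped ENNReal

namespace Crest.Agent.R116.Dch229

open Crest.Agent.R138.Defs (E2)
open Crest.Agent.R138.Wpk685 (cen caps)
open Crest.Agent.R116.CDef480 Crest.Agent.R116.WC188 Crest.Agent.R116.GlC210
open Crest.Agent.R116.TuD373 Crest.Agent.R116.TuS363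

theorem pz_zeta (L : ℕ → Lev) {j l : ℕ} (hl : l < j) (z : E3 × ℝ) :
    pz L j l z = (L l).ζ (pz L j (l + 1) z) := by
  induction j generalizing z with
  | zero => omega
  | succ j ih =>
    rw [pz_succ L (by omega)]
    rcases Nat.lt_or_ge l j with h | h
    · rw [ih h, pz_succ L (by omega)]
    · have : l = j := by omega
      subst this
      rw [pz_self, pz_self]

theorem anc_self (L : ℕ → Lev) (j k : ℕ) : anc L j j k = k := AsmP597.up_self _ _ _

theorem anc_succ (L : ℕ → Lev) {j i : ℕ} (h : i ≤ j) (k : ℕ) :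
    anc L (j + 1) i k = anc L j i ((L (j + 1)).par k) := AsmP597.up_succ _ h k

theorem anc_par (L : ℕ → Lev) {j l : ℕ} (hl : l < j) (k : ℕ) :
    anc L j l k = (L (l + 1)).par (anc L j (l + 1) k) := by
  induction j generalizing k with
  | zero => omega
  | succ j ih =>
    rw [anc_succ L (by omega)]
    rcases Nat.lt_or_ge l j with h | h
    · rw [ih h, anc_succ L (by omega)]
    · have : l = j := by omega
      subst this
      rw [anc_self, anc_self]

section tow

variable {M κ q A A' a b Cn : ℝ} {K : ℕ} {η0 : ℝ} {C0 : E2} {σ : ℝ} {g : E3 → ℂ} {R : ℝ}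
  {dl ν : ℝ} {n : ℕ} {L : ℕ → Lev}

theorem path_of (hT : Tow M κ q A A' a b Cn K η0 C0 σ g R dl ν n L) {i j : ℕ} (hjn : j ≤ n)
    {z : E3 × ℝ} (hz : z ∈ (L j).Z) {k : ℕ} (hk : k < (L j).n) :
    Path L i j (fun l => pz L j l z) (fun l => anc L j l k) := by
  refine ⟨fun l _ h2 => pz_mem' hT h2 hjn hz, fun l _ h2 => ?_, fun l _ h2 => pz_zeta L h2 z,
    fun l _ h2 => anc_par L h2 k⟩
  obtain ⟨d, rfl⟩ : ∃ d, j = l + d := ⟨j - l, by omega⟩
  clear h2 hz
  induction d generalizing k with
  | zero => rwa [Nat.add_zero, anc_self]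
  | succ d ih =>
    have e : l + (d + 1) = (l + d) + 1 := by omega
    rw [e, anc_succ L (by omega)]
    exact ih (by omega) ((hT.next (l + d) (by omega)).par_lt k hk)

end tow

end Crest.Agent.R116.Dch229
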