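import Crest.Agent.R116.Dch5_229
import Crest.Agent.R116.Dch6_229
import Crest.Agent.R116.F1c4_124

/-!
# R116 (S0155), wave side: DOM-CHAIN, energy form (helper229), part 3: (E) along the path

`Eat_of` : the interface Prop `Eat` of 363 (set form over the neighbourhood `Nb` in the plate
metric).
-/

set_option autoImplicit false

open MeasureTheory FourierTransform
open scoped ContDiff ENNReal

namespace Crest.Agent.R116.Dch229

open Crest.Agent.R138.Defs (E2 ee)
open Crest.Agent.R138.Wpk685 (cen caps cap win)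
open Crest.Agent.R138.Loc878 (Near nearL mem_nearL)
open Crest.Agent.R116.CDef480 Crest.Agent.R116.WC188 Crest.Agent.R116.GlC210
open Crest.Agent.R116.CWp480 (SV vb vb_pos)
open Crest.Agent.R116.Ckm538 Crest.Agent.R116.Cad538
open Crest.Agent.R116.TuD373 Crest.Agent.R116.TuS363
open Crest.Agent.R116.CWc480 (Pl)

/-! ### the weight of a set -/

/-- weight of the set `U` in the metric `A`. -/
noncomputable def wU (Am : E3 ≃L[ℝ] E3) (U : Set E3) (N : ℕ) (y : E3) : ℝ :=
  ((1 + Metric.infDist (Am y) (Am '' U)) ^ N)⁻¹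

theorem SV_wU (Am : E3 ≃L[ℝ] E3) (U : Set E3) (N : ℕ) : SV Am 1 N (wU Am U N) := by
  have hc : Continuous fun y => Metric.infDist (Am y) (Am '' U) :=
    (Metric.continuous_infDist_pt _).comp Am.continuous
  refine ⟨?_, fun x => ?_, fun x y => ?_⟩
  · unfold wU
    exact ((measurable_const.add hc.measurable).pow_const N).inv
  · unfold wU
    have : 0 ≤ Metric.infDist (Am x) (Am '' U) := Metric.infDist_nonneg
    positivity
  · unfold wU
    have h1 : 0 ≤ Metric.infDist (Am x) (Am '' U) := Metric.infDist_nonneg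
    have h2 : 0 ≤ Metric.infDist (Am y) (Am '' U) := Metric.infDist_nonneg
    rw [one_mul, ← div_eq_mul_inv, inv_eq_one_div, div_le_div_iff₀ (by positivity) (by positivity),
      one_mul, ← mul_pow]
    refine pow_le_pow_left₀ (by positivity) ?_ N
    have h3 : Metric.infDist (Am y) (Am '' U) ≤ Metric.infDist (Am x) (Am '' U) +
        dist (Am y) (Am x) := Metric.infDist_le_infDist_add_dist
    have h4 : dist (Am y) (Am x) = ‖Am (x - y)‖ := by
      rw [dist_comm, dist_eq_norm, ← map_sub]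
    rw [h4] at h3
    have h5 := norm_nonneg (Am (x - y))
    nlinarith [mul_nonneg h1 h5]

theorem wU_le_one (Am : E3 ≃L[ℝ] E3) (U : Set E3) (N : ℕ) (y : E3) : wU Am U N y ≤ 1 := by
  unfold wU
  have : 0 ≤ Metric.infDist (Am y) (Am '' U) := Metric.infDist_nonneg
  exact inv_le_one_of_one_le₀ (one_le_pow₀ (by linarith))

theorem wU_mem (Am : E3 ≃L[ℝ] E3) {U : Set E3} (N : ℕ) {y : E3} (hy : y ∈ U) : wU Am U N y = 1 := by
  unfold wU
  rw [Metric.infDist_zero_of_mem (Set.mem_image_of_mem _ hy)]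
  simp

theorem wU_far {Am : E3 ≃L[ℝ] E3} {U : Set E3} (hU : U.Nonempty) (N : ℕ) {y : E3} {s : ℝ}
    (hs : 0 < s) (hy : ∀ u ∈ U, s ≤ ‖Am (y - u)‖) : wU Am U N y ≤ (s ^ N)⁻¹ := by
  unfold wU
  refine inv_anti₀ (by positivity) (pow_le_pow_left₀ hs.le ?_ N)
  have h1 : s ≤ Metric.infDist (Am y) (Am '' U) := by
    refine (Metric.le_infDist (hU.image _)).2 ?_
    rintro _ ⟨u, hu, rfl⟩
    rw [dist_eq_norm, ← map_sub]
    exact hy u hu
  linarith

/-! ### from the weight to the neighbourhood -/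

theorem w_nbhd {th κ th1 : ℝ} (hth : 0 < th) (hκ : 0 < κ) (h1 : κ * th1 ≤ th) {Cs C2 : E2}
    (hC : ‖C2 - Cs‖ ≤ 4 * th1) {U : Set E3} (hU : U.Nonempty) {Y : ℝ} (hY : 12 ≤ Y) (n0 N : ℕ)
    (v : E3) :
    ENNReal.ofReal (wU (Pl th κ hth hκ Cs) U N v) ≤
      ENNReal.ofReal (2 ^ n0 * (vb E3)⁻¹) * (ENNReal.ofReal (th ^ 2 * κ) *
        ∫⁻ x in TuC373.Nb th κ Cs Y U, ENNReal.ofReal (wt (frc th κ C2) n0 (v - x))) +
      ENNReal.ofReal (((Y / 2) ^ N)⁻¹) := by
  by_cases hfar : ∀ u ∈ U, Y / 2 ≤ ‖Pl th κ hth hκ Cs (v - u)‖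
  · exact (ENNReal.ofReal_le_ofReal (wU_far hU N (by linarith) hfar)).trans le_add_self
  · push Not at hfar
    obtain ⟨u, hu, huv⟩ := hfar
    refine le_add_right ?_
    have hcmp : κ * ‖Cs - C2‖ ≤ 4 * th := by
      rw [norm_sub_rev]
      calc κ * ‖C2 - Cs‖ ≤ κ * (4 * th1) := by gcongr
        _ = 4 * (κ * th1) := by ring
        _ ≤ 4 * th := by gcongr
    have h2 := Crest.Agent.R116.F1c124.nbhd_lower n0 hth hκ C2
      (N := TuC373.Nb th κ Cs Y U) (v := v) (fun x hx => by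
        refine ⟨u, hu, ?_⟩
        have h3 := frc_le_frc hth.le hκ.le (by norm_num : (0:ℝ) ≤ 4) hcmp (v - x)
        have h4 : ‖frc th κ Cs (v - u)‖ < Y / 2 := by rwa [← Pl_eq hth hκ]
        have e : x - u = (v - u) - (v - x) := by abel
        rw [e, map_sub]
        refine (norm_sub_le _ _).trans_lt ?_
        linarith)
    have hv := vb_pos (V := E3)
    calc ENNReal.ofReal (wU (Pl th κ hth hκ Cs) U N v) ≤ ENNReal.ofReal 1 :=
          ENNReal.ofReal_le_ofReal (wU_le_one _ _ _ _)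
      _ = ENNReal.ofReal (2 ^ n0 * (vb E3)⁻¹) * ENNReal.ofReal (vb E3 * (2 ^ n0)⁻¹) := by
          rw [← ENNReal.ofReal_mul (by positivity)]
          congr 1
          field_simp
      _ ≤ _ := mul_le_mul' le_rfl h2

theorem swap_abs {k : E3 → E3 → ℝ≥0∞} {u : E3 → ℝ≥0∞} (hk : Measurable (Function.uncurry k))
    (hu : Measurable u) (S N : Set E3) :
    ∫⁻ x in S, (∫⁻ x' in N, k x x') * u x = ∫⁻ x' in N, ∫⁻ x in S, k x x' * u x := by
  have e1 : ∀ x, (∫⁻ x' in N, k x x') * u x = ∫⁻ x' in N, k x x' * u x := by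
    intro x
    rw [lintegral_mul_const]
    exact hk.comp measurable_prodMk_left
  simp only [e1]
  rw [lintegral_lintegral_swap]
  exact (hk.mul (hu.comp measurable_fst)).aemeasurable

/-- one direction. -/
theorem w_term {S Nn : Set E3} {u W : E3 → ℝ≥0∞} {k : E3 → E3 → ℝ≥0∞}
    (hk : Measurable (Function.uncurry k)) (hu : Measurable u) {c0 c1 η : ℝ≥0∞} (h0 : c0 ≠ ⊤)
    (h1 : c1 ≠ ⊤) (hη : η ≠ ⊤) (hW : ∀ x, W x ≤ c0 * (c1 * ∫⁻ x' in Nn, k x x') + η) :
    ∫⁻ x in S, W x * u x ≤ c0 * (∫⁻ x' in Nn, c1 * ∫⁻ x in S, k x x' * u x) +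
      η * ∫⁻ x in S, u x := by
  calc ∫⁻ x in S, W x * u x
      ≤ ∫⁻ x in S, (c0 * (c1 * ((∫⁻ x' in Nn, k x x') * u x)) + η * u x) := by
        refine lintegral_mono fun x => (mul_le_mul' (hW x) le_rfl).trans (le_of_eq ?_)
        ring
    _ = c0 * (c1 * ∫⁻ x in S, (∫⁻ x' in Nn, k x x') * u x) + η * ∫⁻ x in S, u x := by
        rw [lintegral_add_right _ (hu.const_mul _), lintegral_const_mul' _ _ h0,
          lintegral_const_mul' _ _ h1, lintegral_const_mul' _ _ hη]
    _ = _ := by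
        rw [swap_abs hk hu, lintegral_const_mul' _ _ h1]

theorem wt_meas2 (A : E3 →L[ℝ] E3) (n : ℕ) (a v : E3) : Measurable (Function.uncurry
    fun x x' : E3 => ENNReal.ofReal (wt A n (x - (a + x') - v))) := by
  refine ENNReal.measurable_ofReal.comp ?_
  exact ((wt_cont A n).comp (by fun_prop :
    Continuous fun p : E3 × E3 => p.1 - (a + p.2) - v)).measurable

/-- **from the weighted energies to the integral of the density over the neighbourhood.** -/
theorem w_sum {th κ th1 : ℝ} (hth : 0 < th) (hκ : 0 < κ) (h1 : κ * th1 ≤ th) {g : E3 → ℂ}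
    (hg : Integrable g) {S : ℤ × ℤ → Set E3} {m' : ℤ × ℤ} {U : Set E3}
    (hU : U.Nonempty) {Y : ℝ} (hY : 12 ≤ Y) (n0 N : ℕ) (dz : E3 × ℝ) :
    ∑ m ∈ nearC th th1 m', ∫⁻ x in S m, ENNReal.ofReal (wU (Pl th κ hth hκ (cen th1 m')) U N
        (x - dz.1 - dz.2 • vel (cen th m))) * ‖umc th g m x‖ₑ ^ 2 ≤
      ENNReal.ofReal (2 ^ n0 * (vb E3)⁻¹) *
        (∫⁻ x in TuC373.Nb th κ (cen th1 m') Y U, TuC373.AdN n0 th κ g S (nrC th th1) m' dz x) +
      ENNReal.ofReal (((Y / 2) ^ N)⁻¹) * enc th g S := by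
  classical
  have hum : ∀ m, Measurable fun x => ‖umc th g m x‖ₑ ^ 2 := fun m => A1k229.umc_meas hg m
  have hterm : ∀ m ∈ nearC th th1 m', _ := fun m hm =>
    w_term (S := S m) (Nn := TuC373.Nb th κ (cen th1 m') Y U) (u := fun x => ‖umc th g m x‖ₑ ^ 2)
      (W := fun x => ENNReal.ofReal (wU (Pl th κ hth hκ (cen th1 m')) U N
        (x - dz.1 - dz.2 • vel (cen th m))))
      (wt_meas2 (frc th κ (cen th m)) n0 dz.1 (dz.2 • vel (cen th m))) (hum m)
      (c0 := ENNReal.ofReal (2 ^ n0 * (vb E3)⁻¹)) (c1 := ENNReal.ofReal (th ^ 2 * κ))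
      (η := ENNReal.ofReal (((Y / 2) ^ N)⁻¹)) ENNReal.ofReal_ne_top ENNReal.ofReal_ne_top
      ENNReal.ofReal_ne_top (fun x => by
        have h2 := w_nbhd hth hκ h1 (mem_nearC.1 hm).2.le hU hY n0 N
          (x - dz.1 - dz.2 • vel (cen th m))
        have e1 : ∀ x', x - dz.1 - dz.2 • vel (cen th m) - x' =
            x - (dz.1 + x') - dz.2 • vel (cen th m) := fun x' => by abel
        simp only [e1] at h2
        exact h2)
  refine (Finset.sum_le_sum hterm).trans ?_
  rw [Finset.sum_add_distrib, ← Finset.mul_sum, ← Finset.mul_sum]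
  refine add_le_add (mul_le_mul' le_rfl ?_) (mul_le_mul' le_rfl ?_)
  · rw [← lintegral_finsetSum]
    · refine lintegral_mono fun x' => ?_
      simp only
      rw [← Finset.mul_sum]
      unfold TuC373.AdN Cad538.Acc Den
      refine mul_le_mul' le_rfl (Finset.sum_le_sum_of_subset fun m hm => ?_)
      obtain ⟨a1, a2⟩ := mem_nearC.1 hm
      exact Finset.mem_filter.2 ⟨a1, a2.le⟩
    · intro m _
      refine Measurable.const_mul ?_ _
      refine Measurable.lintegral_prod_left' (μ := volume.restrict (S m))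
        (f := fun p : E3 × E3 => ENNReal.ofReal (wt (frc th κ (cen th m)) n0
          (p.1 - (dz.1 + p.2) - dz.2 • vel (cen th m))) * ‖umc th g m p.1‖ₑ ^ 2) ?_
      exact (wt_meas2 (frc th κ (cen th m)) n0 dz.1 (dz.2 • vel (cen th m))).mul
        ((hum m).comp measurable_fst)
  · unfold enc
    exact Finset.sum_le_sum_of_subset fun m hm => (mem_nearC.1 hm).1

end Crest.Agent.R116.Dch229
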