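import Crest.Agent.R116.Dch7_229

/-!
# R116 (S0155), wave side: DOM-CHAIN, energy form (helper229), part 4: (E) along the path

`Eat_of`, `Eat_fin` : the interface Prop `Eat` of 363.
-/

set_option autoImplicit false

open MeasureTheory FourierTransform
open scoped ContDiff ENNReal

namespace Crest.Agent.R116.Dch229

open Crest.Agent.R138.Defs (E2 ee)
open Crest.Agent.R138.Wpk685 (cen caps cap win)
open Crest.Agent.R116.CDef480 Crest.Agent.R116.WC188 Crest.Agent.R116.GlC210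
open Crest.Agent.R116.CWp480 (SV vb vb_pos)
open Crest.Agent.R116.Ckm538 Crest.Agent.R116.Cad538
open Crest.Agent.R116.TuD373 Crest.Agent.R116.TuS363
open Crest.Agent.R116.CWc480 (Pl)

/-- **(E) along the path**, explicit tails. -/
theorem Eat_of {a : ℝ} (ha : 1 ≤ a) (n0 N : ℕ) : ∃ C1 : ℝ, 1 ≤ C1 ∧
    ∀ {M κ q A A' b Cn : ℝ} {K : ℕ} {M0 η0 : ℝ} {C0 : E2} {σ : ℝ} {g : E3 → ℂ}
      {R D dl ν : ℝ} {n : ℕ} {L : ℕ → Lev} (_ : Stg M κ q A A' a b Cn K M0 η0 C0 σ g R D dl ν n L)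
      (_ : b ≤ 2) {i j k : ℕ} (_ : i ≤ j) (_ : j ≤ n) (_ : k < (L j).n)
      (_ : κ * tht R dl j ≤ tht R dl i) {Y : ℝ} (_ : 12 ≤ Y),
      Eat n0 κ g R dl Y L j i k ((C1 * ν ^ 2) ^ (j - i) * (2 ^ n0 * (vb E3)⁻¹))
        (ENNReal.ofReal ((C1 * ν ^ 2) ^ (j - i) * ((Y / 2) ^ N)⁻¹ * Enc g) +
          ENNReal.ofReal ((2 * (Cn * ν * R ^ (-(K : ℝ)) * Real.sqrt (Enc g)) ^ 2 * (A' * R) ^ 3) *
          (C1 * ν ^ 2 * (81 * R) + 1) ^ (j - i)) * volume (Metric.ball (0 : E3) 1)) := by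
  obtain ⟨C1, hC1, hch⟩ := E_chain ha N (L0 := 6) (by norm_num)
  refine ⟨C1 * (64 * (1 + 12 * 6) ^ N), ?_, ?_⟩
  · have : (1:ℝ) ≤ 64 * (1 + 12 * 6) ^ N := by
      have : (1:ℝ) ≤ (1 + 12 * 6) ^ N := one_le_pow₀ (by norm_num)
      linarith
    exact one_le_mul_of_one_le_of_one_le hC1 this
  intro M κ q A A' b Cn K M0 η0 C0 σ g R D dl ν n L h hb i j k hij hj hk hst Y hY z hz m hm
  have hvb := vb_pos (V := E3)
  have hν := h.ν1
  have hR := h.R1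
  have hE0 : 0 ≤ Enc g := integral_nonneg fun ζ => by positivity
  rcases Set.eq_empty_or_nonempty ((L j).sl z k m) with he | hU
  · rw [he, Measure.restrict_empty, lintegral_zero_measure]
    exact zero_le
  have hri : (L i).r ^ (-(1/2) : ℝ) = tht R dl i := by rw [h.tow.rad i (hij.trans hj)]; rfl
  have hrj : (L j).r ^ (-(1/2) : ℝ) = tht R dl j := by rw [h.tow.rad j hj]; rfl
  have hthi : 0 < tht R dl i := by rw [← hri]; exact h.th0 (hij.trans hj)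
  have hthj : 0 < tht R dl j := by rw [← hrj]; exact h.th0 hj
  have hp := path_of h.tow hj hz hk (i := i)
  set Cs : E2 := cen (tht R dl j) m with hCs
  have hAm : ∀ C, ‖C - Cs‖ ≤ 4 * tht R dl j → ∀ x, ‖Pl (tht R dl i) κ hthi h.k0 Cs x‖ ≤
      6 * ‖frc ((L i).r ^ (-(1/2) : ℝ)) κ C x‖ := by
    intro C hC x
    rw [Pl_eq, hri]
    have h1 : κ * ‖Cs - C‖ ≤ 4 * tht R dl i := by
      rw [norm_sub_rev]
      calc κ * ‖C - Cs‖ ≤ κ * (4 * tht R dl j) := by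
            have := h.k0.le
            gcongr
        _ = 4 * (κ * tht R dl j) := by ring
        _ ≤ 4 * tht R dl i := by gcongr
    have := frc_le_frc hthi.le h.k0.le (by norm_num : (0:ℝ) ≤ 4) h1 x
    linarith
  have h1 := hch h hj hp hAm hij le_rfl (m' := m) (by
    rw [hrj, hCs, sub_self, norm_zero, zero_add])
    (SV_wU (Pl (tht R dl i) κ hthi h.k0 Cs) ((L j).sl z k m) N) (fun x => wU_le_one _ _ _ _)
  simp only [pz_self, anc_self, hri, hrj] at h1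
  rw [one_pow, mul_one, one_mul] at h1
  have e1 : ∫⁻ y in (L j).sl z k m, ‖umc (tht R dl j) (trc z g) m y‖ₑ ^ 2 =
      ∫⁻ y in (L j).sl z k m, ENNReal.ofReal (wU (Pl (tht R dl i) κ hthi h.k0 Cs)
        ((L j).sl z k m) N y) * ‖umc (tht R dl j) (trc z g) m y‖ₑ ^ 2 := by
    refine setLIntegral_congr_fun (sl_meas (h.tow.ok j hj) hz hk m) fun y hy => ?_
    rw [wU_mem _ N hy, ENNReal.ofReal_one, one_mul]
  rw [e1]
  refine h1.trans ?_
  have hgi : Integrable (trc (pz L j i z) g) :=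
    ((A1k229.nice_of_St h.ss.toSt).trc _).int (by linarith)
  have h2 := w_sum hthi h.k0 hst hgi (S := (L i).sl (pz L j i z) (anc L j i k)) (m' := m)
    hU hY n0 N (z - pz L j i z)
  have h3 : enc (tht R dl i) (trc (pz L j i z) g) ((L i).sl (pz L j i z) (anc L j i k)) ≤
      ENNReal.ofReal (Enc g) := TuL890.enc_le_Enc ha hb h.ss.toSt hthi _ _
  have hCn := h.Cn0
  have hA' := h.A'1
  set B : ℝ := (C1 * ν ^ 2 * (64 * (1 + 12 * 6) ^ N)) ^ (j - i) with hB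
  have hB0 : 0 ≤ B := by positivity
  have eB : (C1 * (64 * (1 + 12 * 6) ^ N) * ν ^ 2) ^ (j - i) = B := by
    rw [hB]
    congr 1
    ring
  rw [eB]
  calc _ ≤ ENNReal.ofReal B * (ENNReal.ofReal (2 ^ n0 * (vb E3)⁻¹) *
        (∫⁻ x in TuC373.Nb (tht R dl i) κ Cs Y ((L j).sl z k m),
          dns n0 κ g R dl L j i z (anc L j i k) m (z - pz L j i z) x) +
        ENNReal.ofReal (((Y / 2) ^ N)⁻¹) * ENNReal.ofReal (Enc g)) +
        ENNReal.ofReal ((2 * (Cn * ν * R ^ (-(K : ℝ)) * Real.sqrt (Enc g)) ^ 2 * (A' * R) ^ 3) *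
        (C1 * ν ^ 2 * (81 * R) + 1) ^ (j - i)) * volume (Metric.ball (0 : E3) 1) := by
        refine add_le_add (mul_le_mul' le_rfl (h2.trans (add_le_add le_rfl ?_))) le_rfl
        exact mul_le_mul' le_rfl h3
    _ ≤ _ := by
        have hY0 : 0 < Y := by linarith
        rw [mul_add, ← mul_assoc, ← ENNReal.ofReal_mul hB0,
          ← ENNReal.ofReal_mul (by positivity : 0 ≤ ((Y / 2) ^ N)⁻¹), ← ENNReal.ofReal_mul hB0,
          add_assoc]
        refine add_le_add le_rfl (add_le_add (le_of_eq (by rw [mul_assoc B]))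
          (mul_le_mul' (ENNReal.ofReal_le_ofReal ?_) le_rfl))
        have h4 : C1 ≤ C1 * (64 * (1 + 12 * 6) ^ N) := by
          have : (1:ℝ) ≤ 64 * (1 + 12 * 6) ^ N := by
            have : (1:ℝ) ≤ (1 + 12 * 6) ^ N := one_le_pow₀ (by norm_num)
            linarith
          nlinarith
        gcongr

/-! ### final form -/

theorem vb_ball : volume (Metric.ball (0 : E3) 1) =
    ENNReal.ofReal (volume (Metric.ball (0 : E3) 1)).toReal :=
  (ENNReal.ofReal_toReal Metric.isBounded_ball.measure_lt_top.ne).symm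

/-- **(E) along the path, final form**: `Y = R^e1`, `Ce = C ν^(2 n)`, tail `C R^(-T) Enc g`. -/
theorem Eat_fin {a : ℝ} (ha : 1 ≤ a) (n n0 : ℕ) (T : ℝ) {e1 : ℝ} (he1 : 0 < e1) :
    ∃ K1 : ℕ, ∀ K : ℕ, K1 ≤ K → ∀ A' Cn : ℝ, 1 ≤ A' → 0 ≤ Cn → ∃ C : ℝ, 1 ≤ C ∧
    ∀ {M κ q A b M0 η0 : ℝ} {C0 : E2} {σ : ℝ} {g : E3 → ℂ} {R D dl ν : ℝ} {L : ℕ → Lev},
      Stg M κ q A A' a b Cn K M0 η0 C0 σ g R D dl ν n L → b ≤ 2 → C ≤ R → ν ≤ R →
      ∀ {i j k : ℕ}, i ≤ j → j ≤ n → k < (L j).n → κ * tht R dl j ≤ tht R dl i →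
      Eat n0 κ g R dl (R ^ e1) L j i k (C * ν ^ (2 * n)) (ENNReal.ofReal (C * R ^ (-T) * Enc g)) := by
  set N : ℕ := ⌈(2 * n + T) / e1⌉₊ with hN
  have hN1 : (2 * n + T) / e1 ≤ N := Nat.le_ceil _
  have hN2 : 2 * n + T ≤ e1 * N := by
    rw [div_le_iff₀ he1] at hN1
    linarith
  obtain ⟨C1, hC1, hE⟩ := Eat_of ha n0 N
  refine ⟨⌈(5 + 3 * n + T) / 2⌉₊, ?_⟩
  intro K hK A' Cn hA' hCn
  have hK2 : 5 + 3 * n + T ≤ 2 * K := by
    have h1 : (5 + 3 * n + T) / 2 ≤ (⌈(5 + 3 * (n:ℝ) + T) / 2⌉₊ : ℝ) := Nat.le_ceil _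
    have h2 : ((⌈(5 + 3 * (n:ℝ) + T) / 2⌉₊ : ℕ) : ℝ) ≤ K := by exact_mod_cast hK
    linarith
  set V : ℝ := (volume (Metric.ball (0 : E3) 1)).toReal with hV
  have hV0 : 0 ≤ V := ENNReal.toReal_nonneg
  have hvb := vb_pos (V := E3)
  set Ca : ℝ := C1 ^ n * (2 ^ n0 * (vb E3)⁻¹) with hCa
  set Cb : ℝ := C1 ^ n * 2 ^ N with hCb
  set Cc : ℝ := 2 * Cn ^ 2 * A' ^ 3 * (82 * C1) ^ n * V with hCc
  have hCa0 : 0 ≤ Ca := by positivity
  have hCb0 : 0 ≤ Cb := by positivity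
  have hCc0 : 0 ≤ Cc := by positivity
  refine ⟨Ca + Cb + Cc + 1 + (12 : ℝ) ^ e1⁻¹, ?_, ?_⟩
  · have : (0:ℝ) ≤ (12 : ℝ) ^ e1⁻¹ := by positivity
    linarith
  intro M κ q A b M0 η0 C0 σ g R D dl ν L h hb hCR hνR i j k hij hj hk hst
  have hR := h.R1
  have hR0 : 0 < R := by linarith
  have hν := h.ν1
  have h12 : (0:ℝ) ≤ (12 : ℝ) ^ e1⁻¹ := by positivity
  have hY : 12 ≤ R ^ e1 := by
    have h1 : (12 : ℝ) ^ e1⁻¹ ≤ R := by linarith
    calc (12 : ℝ) = ((12 : ℝ) ^ e1⁻¹) ^ e1 := by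
          rw [← Real.rpow_mul (by norm_num), inv_mul_cancel₀ he1.ne', Real.rpow_one]
      _ ≤ R ^ e1 := Real.rpow_le_rpow (by positivity) h1 he1.le
  have hE0 : 0 ≤ Enc g := integral_nonneg fun ζ => by positivity
  have h1 := hE h hb hij hj hk hst hY
  intro z hz m hm
  refine (h1 z hz m hm).trans ?_
  have hji : j - i ≤ n := by omega
  have hC1ν : 1 ≤ C1 * ν ^ 2 := one_le_mul_of_one_le_of_one_le hC1 (one_le_pow₀ hν)
  have hpw : (C1 * ν ^ 2) ^ (j - i) ≤ C1 ^ n * ν ^ (2 * n) := by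
    calc (C1 * ν ^ 2) ^ (j - i) ≤ (C1 * ν ^ 2) ^ n := pow_le_pow_right₀ hC1ν hji
      _ = C1 ^ n * ν ^ (2 * n) := by rw [mul_pow, ← pow_mul]
  refine add_le_add (mul_le_mul' (ENNReal.ofReal_le_ofReal ?_) le_rfl) ?_
  · calc (C1 * ν ^ 2) ^ (j - i) * (2 ^ n0 * (vb E3)⁻¹)
        ≤ (C1 ^ n * ν ^ (2 * n)) * (2 ^ n0 * (vb E3)⁻¹) := by gcongr
      _ = Ca * ν ^ (2 * n) := by rw [hCa]; ring
      _ ≤ (Ca + Cb + Cc + 1 + (12 : ℝ) ^ e1⁻¹) * ν ^ (2 * n) := by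
          gcongr
          linarith
  · rw [vb_ball, ← ENNReal.ofReal_mul (by positivity), ← ENNReal.ofReal_add (by positivity)
      (by positivity)]
    refine ENNReal.ofReal_le_ofReal ?_
    have hT0 : 0 ≤ R ^ (-T) := (Real.rpow_pos_of_pos hR0 _).le
    have hb1 : (C1 * ν ^ 2) ^ (j - i) * ((R ^ e1 / 2) ^ N)⁻¹ ≤ Cb * R ^ (-T) := by
      have e2 : ((R ^ e1 / 2) ^ N)⁻¹ = 2 ^ N * R ^ (-(e1 * N)) := by
        rw [div_pow, inv_div, ← Real.rpow_natCast (R ^ e1) N, ← Real.rpow_mul hR0.le,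
          Real.rpow_neg hR0.le]
        rfl
      rw [e2]
      calc (C1 * ν ^ 2) ^ (j - i) * (2 ^ N * R ^ (-(e1 * N)))
          ≤ (C1 ^ n * ν ^ (2 * n)) * (2 ^ N * R ^ (-(e1 * N))) := by gcongr
        _ ≤ (C1 ^ n * R ^ (2 * n)) * (2 ^ N * R ^ (-(e1 * N))) := by gcongr
        _ = Cb * (R ^ ((2 * n : ℕ) : ℝ) * R ^ (-(e1 * N))) := by
            rw [hCb, Real.rpow_natCast]; ring
        _ ≤ Cb * R ^ (-T) := by
            rw [← Real.rpow_add hR0]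
            refine mul_le_mul_of_nonneg_left (Real.rpow_le_rpow_of_exponent_le hR ?_) hCb0
            push_cast
            linarith
    have hb2 : (2 * (Cn * ν * R ^ (-(K : ℝ)) * Real.sqrt (Enc g)) ^ 2 * (A' * R) ^ 3) *
        (C1 * ν ^ 2 * (81 * R) + 1) ^ (j - i) * V ≤ Cc * R ^ (-T) * Enc g := by
      have e3 : (Cn * ν * R ^ (-(K : ℝ)) * Real.sqrt (Enc g)) ^ 2 =
          Cn ^ 2 * ν ^ 2 * R ^ (-(2 * K : ℝ)) * Enc g := by
        rw [mul_pow, mul_pow, mul_pow, Real.sq_sqrt hE0, ← Real.rpow_natCast (R ^ (-(K : ℝ))) 2,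
          ← Real.rpow_mul hR0.le]
        congr 3
        push_cast
        ring
      have e4 : C1 * ν ^ 2 * (81 * R) + 1 ≤ 82 * C1 * R ^ 3 := by
        have a1 : C1 * ν ^ 2 * (81 * R) ≤ C1 * R ^ 2 * (81 * R) := by gcongr
        have a2 : 1 ≤ C1 * R ^ 3 := one_le_mul_of_one_le_of_one_le hC1 (one_le_pow₀ hR)
        nlinarith
      have e5 : (C1 * ν ^ 2 * (81 * R) + 1) ^ (j - i) ≤ (82 * C1) ^ n * R ^ (3 * n) := by
        have a3 : 1 ≤ C1 * ν ^ 2 * (81 * R) + 1 := by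
          have : 0 ≤ C1 * ν ^ 2 * (81 * R) := by positivity
          linarith
        calc (C1 * ν ^ 2 * (81 * R) + 1) ^ (j - i) ≤ (C1 * ν ^ 2 * (81 * R) + 1) ^ n :=
              pow_le_pow_right₀ a3 hji
          _ ≤ (82 * C1 * R ^ 3) ^ n := by gcongr
          _ = _ := by rw [mul_pow, ← pow_mul]
      rw [e3]
      calc (2 * (Cn ^ 2 * ν ^ 2 * R ^ (-(2 * K : ℝ)) * Enc g) * (A' * R) ^ 3) *
            (C1 * ν ^ 2 * (81 * R) + 1) ^ (j - i) * V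
          ≤ (2 * (Cn ^ 2 * R ^ 2 * R ^ (-(2 * K : ℝ)) * Enc g) * (A' * R) ^ 3) *
            ((82 * C1) ^ n * R ^ (3 * n)) * V := by gcongr
        _ = Cc * (R ^ ((5 + 3 * n : ℕ) : ℝ) * R ^ (-(2 * K : ℝ))) * Enc g := by
            rw [hCc, Real.rpow_natCast]; ring
        _ ≤ Cc * R ^ (-T) * Enc g := by
            rw [← Real.rpow_add hR0]
            refine mul_le_mul_of_nonneg_right (mul_le_mul_of_nonneg_left
              (Real.rpow_le_rpow_of_exponent_le hR ?_) hCc0) hE0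
            push_cast
            linarith
    calc _ ≤ Cb * R ^ (-T) * Enc g + Cc * R ^ (-T) * Enc g :=
          add_le_add (mul_le_mul_of_nonneg_right hb1 hE0) hb2
      _ = (Cb + Cc) * (R ^ (-T) * Enc g) := by ring
      _ ≤ (Ca + Cb + Cc + 1 + (12 : ℝ) ^ e1⁻¹) * (R ^ (-T) * Enc g) := by
          refine mul_le_mul_of_nonneg_right ?_ (by positivity)
          linarith
      _ = _ := by ring

end Crest.Agent.R116.Dch229
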