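import Crest.Agent.R116.Dch8_229
import Crest.Agent.R116.TuZ0_373

/-!
# R116 (S0155), wave side: the source `ESRC` of the tube step (helper229)
-/

set_option autoImplicit false

open MeasureTheory
open scoped ENNReal

namespace Crest.Agent.R116.Dch229

open Crest.Agent.R138.Defs (E2)
open Crest.Agent.R116.CDef480 Crest.Agent.R116.WC188 Crest.Agent.R116.GlC210
open Crest.Agent.R116.TuD373 Crest.Agent.R116.TuS363

theorem Eat_mono {n0 : ℕ} {κ : ℝ} {g : E3 → ℂ} {R dl Y : ℝ} {L : ℕ → Lev} {j i k : ℕ}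
    {Ce Ce' : ℝ} {τ τ' : ℝ≥0∞} (h : Eat n0 κ g R dl Y L j i k Ce τ) (h1 : Ce ≤ Ce')
    (h2 : τ ≤ τ') : Eat n0 κ g R dl Y L j i k Ce' τ' := fun z hz m hm =>
  (h z hz m hm).trans (add_le_add (mul_le_mul' (ENNReal.ofReal_le_ofReal h1) le_rfl) h2)

/-- **the energy source of the tube step.** -/
theorem esrc (M q : ℝ) : TuZ373.ESRC M q := by
  intro n
  refine ⟨2 * n, ?_⟩
  intro Lw n0 a b A e1 M0 T hRg _
  obtain ⟨K1, h⟩ := Eat_fin hRg.a1 n n0 T hRg.e0
  refine ⟨K1, fun K hK A' Cn hA' hCn => ?_⟩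
  obtain ⟨C, hC, h⟩ := h K hK A' Cn hA' (by linarith)
  refine ⟨C + 16 + A', by linarith, ?_⟩
  intro κ η0 C0 σ g R D hS hκ hCR dl ν hdl hCdl hκdl hν hνR L hT i j k hij hj hjL hk
  have hR := hS.R1
  have h16 : 16 * dl ≤ 1 := by nlinarith
  have hA'd : A' * dl ≤ 1 := by nlinarith
  have hst : Stg M κ q A A' a b Cn K M0 η0 C0 σ g R D dl ν n L :=
    ⟨hS, hT, hκ.k0, hκ.ka, hRg.a1, hRg.A1, by linarith, hA', hdl, h16, hA'd, hν⟩
  have h1 := h hst hRg.b2.le (by linarith) hνR hij.le hj hk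
    (kap_tht (by linarith) hdl (by linarith) hκdl hij.le hjL)
  have hE0 : 0 ≤ Enc g := integral_nonneg fun ζ => by positivity
  refine Eat_mono h1 ?_ (ENNReal.ofReal_le_ofReal ?_)
  · gcongr
    linarith
  · have : 0 ≤ R ^ (-T) := (Real.rpow_pos_of_pos (by linarith) _).le
    gcongr
    linarith

end Crest.Agent.R116.Dch229
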