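import Crest.Agent.R116.De7_219

/-!
# R116: general decoupling over `E`: the analytic core from the plane theorem by disintegration
(helper219; plane theorem = helper262)

`crossAE` : if the natural family contains a generic plane (`Dg262.Grp (A e) (A v) g w`), then for
a.e. `z ∈ E` the cross differences of all blow-ups vanish.
-/

set_option autoImplicit false
set_option linter.unusedSectionVars false
set_option linter.unusedVariables false

open Set Filter Topology Metric MeasureTheory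

namespace Crest.Agent.R116.De219

open Crest.Agent.R136 Crest.Agent.R136.Dg219
open Dg262 (SupOn X Mix Qz)

/-- limits along the positive rationals -/
theorem tendsto_rat {f : ℝ → ℝ} (hf : ContinuousOn f (Ioi 0)) {ρ : ℝ} :
    Tendsto f (𝓝[>] 0) (𝓝 ρ) ↔
      Tendsto (fun q : ℚ => f q) (comap (fun q : ℚ => (q : ℝ)) (𝓝[>] 0)) (𝓝 ρ) := by
  constructor
  · intro h
    exact h.comp tendsto_comap
  · intro h
    rw [(closed_nhds_basis ρ).tendsto_right_iff]
    rintro V ⟨hV, hVc⟩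
    obtain ⟨U, hU, hUV⟩ := mem_comap.1 (h hV)
    obtain ⟨ε, hε, hεU⟩ := mem_nhdsGT_iff_exists_Ioo_subset.1 hU
    filter_upwards [Ioo_mem_nhdsGT hε] with w hw
    by_contra hn
    have hopen : IsOpen (Ioo 0 ε ∩ f ⁻¹' Vᶜ) :=
      (hf.mono Ioo_subset_Ioi_self).isOpen_inter_preimage isOpen_Ioo hVc.isOpen_compl
    obtain ⟨q, hq⟩ := Rat.denseRange_cast.exists_mem_open hopen ⟨w, hw, hn⟩
    exact hq.2 (hUV (hεU hq.1))

variable {ι : Type*} [Fintype ι] [DecidableEq ι]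
variable {E : Type*} [NormedAddCommGroup E] [NormedSpace ℝ E] [FiniteDimensional ℝ E]
  [MeasurableSpace E] [BorelSpace E]

/-- the mixed increment at the point `x` is `o(h)` -/
def Qp (ν : (ι → ℝ) → ℝ) (x : ι → ℝ) (i j : ι) (c : ι → ℝ) (α β : ℝ) : Prop :=
  Tendsto (fun h : ℝ => Mix ν (Pi.single i (α * h)) (Pi.single j (β * h)) (x + h • c) / h)
    (𝓝[>] 0) (𝓝 0)

theorem Qz_iff {ν : (ι → ℝ) → ℝ} {x0 a b x : ι → ℝ} {z : ℝ × ℝ} (h : X x0 a b z = x) (i j : ι)
    (c : ι → ℝ) (α β : ℝ) : Qz ν x0 a b z i j c α β ↔ Qp ν x i j c α β := by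
  unfold Qz Qp; rw [h]

theorem X_pt (x : ι → ℝ) : X x 0 0 (0, 0) = x := by
  funext i; simp [X]

theorem meas_Qp {ν : (ι → ℝ) → ℝ} (hν : Continuous ν) (x0 : ι → ℝ) (A : E →ₗ[ℝ] (ι → ℝ))
    (i j : ι) (c : ι → ℝ) (α β : ℝ) : MeasurableSet {z : E | Qp ν (XE x0 A z) i j c α β} := by
  set F : ℝ → E → ℝ := fun h z =>
    Mix ν (Pi.single i (α * h)) (Pi.single j (β * h)) (XE x0 A z + h • c) / h with hF
  have hX := XE_cont x0 A
  have hFm : ∀ h, Measurable (F h) := by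
    intro h
    apply Continuous.measurable
    simp only [hF, Mix]
    fun_prop
  have hs : ∀ (k : ι) (γ : ℝ), Continuous fun h : ℝ => (Pi.single k (γ * h) : ι → ℝ) := by
    intro k γ
    exact (continuous_single k).comp (by fun_prop : Continuous fun h : ℝ => γ * h)
  have hFc : ∀ z, ContinuousOn (fun h => F h z) (Ioi 0) := by
    intro z
    simp only [hF, Mix]
    have h1 := hs i α
    have h2 := hs j β
    refine ContinuousOn.div ?_ continuousOn_id (fun h hh => ne_of_gt hh)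
    exact Continuous.continuousOn (by fun_prop)
  have e1 : {z : E | Qp ν (XE x0 A z) i j c α β} =
      {z : E | Tendsto (fun q : ℚ => F q z) (comap (fun q : ℚ => (q : ℝ)) (𝓝[>] 0)) (𝓝 0)} := by
    ext z
    exact tendsto_rat (hFc z)
  rw [e1]
  exact measurableSet_tendsto (𝓝 0) fun q => hFm q

/-- corners of a pair of steps in `D` -/
def Cor (D : Set (ι → ℝ)) (i j : ι) (c : ι → ℝ) (α β : ℝ) : Prop :=
  c ∈ D ∧ c + α • e i ∈ D ∧ c + β • e j ∈ D ∧ c + α • e i + β • e j ∈ D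

/-- from rational data to all data -/
theorem Qp_all {ν : (ι → ℝ) → ℝ} {K : ℝ} (hK : 0 ≤ K) (hν : ∀ p q, |ν p - ν q| ≤ K * dist p q)
    {x : ι → ℝ} {D : Set (ι → ℝ)} (hD : IsOpen D) {i j : ι}
    (H : ∀ (c : ι → ℚ) (α β : ℚ), 0 ≤ α → 0 ≤ β → Cor D i j (fun l => (c l : ℝ)) α β →
      Qp ν x i j (fun l => (c l : ℝ)) α β)
    {c : ι → ℝ} {α β : ℝ} (hα : 0 ≤ α) (hβ : 0 ≤ β) (hc : Cor D i j c α β) :
    Qp ν x i j c α β := by
  rw [← Qz_iff (X_pt x) i j c α β]
  apply Dg262.Q_closed hK hν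
  intro ε hε
  -- the set of good data is open
  have hO : IsOpen {y : (ι → ℝ) × ℝ × ℝ | Cor D i j y.1 y.2.1 y.2.2} := by
    unfold Cor
    have c1 : Continuous fun y : (ι → ℝ) × ℝ × ℝ => y.1 := continuous_fst
    have c2 : Continuous fun y : (ι → ℝ) × ℝ × ℝ => y.1 + y.2.1 • (e i : ι → ℝ) := by fun_prop
    have c3 : Continuous fun y : (ι → ℝ) × ℝ × ℝ => y.1 + y.2.2 • (e j : ι → ℝ) := by fun_prop
    have c4 : Continuous fun y : (ι → ℝ) × ℝ × ℝ => y.1 + y.2.1 • (e i : ι → ℝ) +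
      y.2.2 • (e j : ι → ℝ) := by fun_prop
    exact (hD.preimage c1).inter ((hD.preimage c2).inter ((hD.preimage c3).inter (hD.preimage c4)))
  obtain ⟨δ, hδ, hball⟩ := Metric.isOpen_iff.1 hO (c, α, β) hc
  set δ' := min δ ε with hδ'
  have hδ0 : 0 < δ' := lt_min hδ hε
  have hch : ∀ l, ∃ q : ℚ, |(q : ℝ) - c l| < δ' / 2 := by
    intro l
    obtain ⟨q, h1, h2⟩ := exists_rat_btwn (show c l < c l + δ' / 2 by linarith)
    exact ⟨q, by rw [abs_lt]; constructor <;> linarith⟩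
  choose cq hcq using hch
  obtain ⟨αq, a1, a2⟩ := exists_rat_btwn (show α < α + δ' by linarith)
  obtain ⟨βq, b1, b2⟩ := exists_rat_btwn (show β < β + δ' by linarith)
  have d1 : dist (fun l => (cq l : ℝ)) c < δ' := by
    have : dist (fun l => (cq l : ℝ)) c ≤ δ' / 2 := by
      rw [dist_pi_le_iff (by positivity)]
      intro l
      rw [Real.dist_eq]; exact (hcq l).le
    linarith
  have d2 : |(αq : ℝ) - α| < δ' := by rw [abs_lt]; constructor <;> linarith
  have d3 : |(βq : ℝ) - β| < δ' := by rw [abs_lt]; constructor <;> linarith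
  refine ⟨fun l => (cq l : ℝ), αq, βq, d1.trans_le (min_le_right _ _),
    d2.trans_le (min_le_right _ _), d3.trans_le (min_le_right _ _), ?_⟩
  rw [Qz_iff (X_pt x)]
  apply H cq αq βq (by exact_mod_cast (hα.trans a1.le)) (by exact_mod_cast (hβ.trans b1.le))
  have : ((fun l => (cq l : ℝ)), (αq : ℝ), (βq : ℝ)) ∈ ball (c, α, β) δ := by
    rw [mem_ball, Prod.dist_eq, Prod.dist_eq, max_lt_iff, max_lt_iff]
    exact ⟨d1.trans_le (min_le_left _ _), by rw [Real.dist_eq]; exact d2.trans_le (min_le_left _ _),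
      by rw [Real.dist_eq]; exact d3.trans_le (min_le_left _ _)⟩
  exact hball this

/-- the parametrised plane -/
def pl (e1 v : E) : ℝ × ℝ →ₗ[ℝ] E where
  toFun := fun s => s.1 • e1 + s.2 • v
  map_add' := fun s t => by simp only [Prod.fst_add, Prod.snd_add, add_smul]; abel
  map_smul' := fun r s => by
    simp only [Prod.smul_fst, Prod.smul_snd, smul_eq_mul, RingHom.id_apply, smul_add, mul_smul]

theorem X_pl (x0 : ι → ℝ) (A : E →ₗ[ℝ] (ι → ℝ)) (e1 v z0 : E) (s : ℝ × ℝ) :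
    X (XE x0 A z0) (A e1) (A v) s = XE x0 A (z0 + pl e1 v s) := by
  funext i
  simp only [X, XE, pl, LinearMap.coe_mk, AddHom.coe_mk, map_add, map_smul, Pi.add_apply,
    Pi.smul_apply, smul_eq_mul]
  ring

/-- the plain form over `E` (globally Lipschitz `ν`) -/
theorem plainE (μ : Measure E) [μ.IsAddHaarMeasure] {ν : (ι → ℝ) → ℝ} {P : Set (ι → ℝ)} {K : ℝ}
    (hK : 0 ≤ K) (hν : ∀ p q, |ν p - ν q| ≤ K * dist p q) (hs : SupOn ν P) {x0 : ι → ℝ}
    {A : E →ₗ[ℝ] (ι → ℝ)} {g : ι → ℕ} {w : ℕ → ℝ × ℝ} {e1 v : E}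
    (hG : Dg262.Grp (A e1) (A v) g w) {Ω : Set E} {D : Set (ι → ℝ)} (hΩ : IsOpen Ω)
    (hDo : IsOpen D) (hDc : Convex ℝ D) (hleg : LegUE P x0 A Ω D) :
    ∀ᵐ z : E ∂μ, z ∈ Ω → ∀ i j, g i ≠ g j → ∀ (c : ι → ℝ) (α β : ℝ), 0 ≤ α → 0 ≤ β →
      Cor D i j c α β → Qp ν (XE x0 A z) i j c α β := by
  have hνc : Continuous ν := by
    have : LipschitzWith ⟨K, hK⟩ ν := LipschitzWith.of_dist_le_mul fun p q => by
      rw [Real.dist_eq]; exact hν p q
    exact this.continuous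
  set S : Set E := {z | z ∈ Ω → ∀ (i j : ι) (c : ι → ℚ) (α β : ℚ), g i ≠ g j → 0 ≤ α → 0 ≤ β →
    Cor D i j (fun l => (c l : ℝ)) α β → Qp ν (XE x0 A z) i j (fun l => (c l : ℝ)) α β} with hS
  have hSm : MeasurableSet S := by
    have e0 : S = Ωᶜ ∪ ⋂ (i : ι), ⋂ (j : ι), ⋂ (c : ι → ℚ), ⋂ (α : ℚ), ⋂ (β : ℚ),
        {z | g i ≠ g j → 0 ≤ α → 0 ≤ β → Cor D i j (fun l => (c l : ℝ)) α β →
          Qp ν (XE x0 A z) i j (fun l => (c l : ℝ)) α β} := by
      ext z
      simp only [hS, mem_ofPred_eq, mem_union, mem_compl_iff, mem_iInter, imp_iff_not_or]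
    rw [e0]
    refine hΩ.measurableSet.compl.union ?_
    refine MeasurableSet.iInter fun i => MeasurableSet.iInter fun j => MeasurableSet.iInter fun c =>
      MeasurableSet.iInter fun α => MeasurableSet.iInter fun β => ?_
    by_cases h : g i ≠ g j ∧ 0 ≤ α ∧ 0 ≤ β ∧ Cor D i j (fun l => (c l : ℝ)) α β
    · have : {z : E | g i ≠ g j → 0 ≤ α → 0 ≤ β → Cor D i j (fun l => (c l : ℝ)) α β →
          Qp ν (XE x0 A z) i j (fun l => (c l : ℝ)) α β} =
          {z : E | Qp ν (XE x0 A z) i j (fun l => (c l : ℝ)) α β} := by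
        ext z
        exact ⟨fun H => H h.1 h.2.1 h.2.2.1 h.2.2.2, fun H _ _ _ _ => H⟩
      rw [this]
      exact meas_Qp hνc x0 A i j _ α β
    · have : {z : E | g i ≠ g j → 0 ≤ α → 0 ≤ β → Cor D i j (fun l => (c l : ℝ)) α β →
          Qp ν (XE x0 A z) i j (fun l => (c l : ℝ)) α β} = univ := by
        rw [eq_univ_iff_forall]
        intro z h1 h2 h3 h4
        exact absurd ⟨h1, h2, h3, h4⟩ h
      rw [this]
      exact MeasurableSet.univ
  have hplane : ∀ z0 : E, ∀ᵐ s : ℝ × ℝ, z0 + pl e1 v s ∈ S := by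
    intro z0
    have hLc : Continuous (pl e1 v) := (pl e1 v).continuous_of_finiteDimensional
    have hleg' : Dg262.LegU P (XE x0 A z0) (A e1) (A v) {s | z0 + pl e1 v s ∈ Ω} D := by
      intro s0 hs0 c0 hc0
      obtain ⟨ε, hε, H⟩ := hleg _ hs0 c0 hc0
      have hcont : Continuous fun s => z0 + pl e1 v s := continuous_const.add hLc
      obtain ⟨δ, hδ, h1⟩ := Metric.continuous_iff.1 hcont s0 ε hε
      refine ⟨min ε δ, lt_min hε hδ, fun s c h hsd hcd hh hhe => ?_⟩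
      rw [X_pl]
      exact H _ c h (h1 s (hsd.trans_le (min_le_right _ _))) (hcd.trans_le (min_le_left _ _)) hh
        (hhe.trans_le (min_le_left _ _))
    filter_upwards [Dg262.ae_plain_glob hK hν hs hG hDc hleg'] with s hsp hsΩ i j c α β hij hα hβ hc
    have h1 := hsp hsΩ i j hij (fun l => (c l : ℝ)) (α : ℝ) (β : ℝ) (by exact_mod_cast hα)
      (by exact_mod_cast hβ) hc.1 hc.2.1 hc.2.2.1 hc.2.2.2
    rwa [Qz_iff (X_pl x0 A e1 v z0 s)] at h1
  have key := ae_mem_of_ae_add_linearMap_mem (𝕜 := ℝ) (pl e1 v) (volume : Measure (ℝ × ℝ)) μ hSm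
    hplane
  filter_upwards [key] with z hz hzΩ i j hij c α β hα hβ hc
  exact Qp_all hK hν hDo (fun c α β hα hβ hc => hz hzΩ i j c α β hij hα hβ hc) hα hβ hc

/-- **vanishing of the cross differences over `E`** -/
theorem crossAE (μ : Measure E) [μ.IsAddHaarMeasure] {ν : (ι → ℝ) → ℝ} {P : Set (ι → ℝ)} {K : ℝ}
    (hK : 0 ≤ K) (hν : ∀ p ∈ P, ∀ q ∈ P, |ν p - ν q| ≤ K * dist p q) (hs : SupOn ν P)
    {x0 : ι → ℝ} {A : E →ₗ[ℝ] (ι → ℝ)} {g : ι → ℕ} {w : ℕ → ℝ × ℝ} {e1 v : E}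
    (hG : Dg262.Grp (A e1) (A v) g w) {Ω : Set E} {D : Set (ι → ℝ)} (hΩ : IsOpen Ω)
    (hDo : IsOpen D) (hDc : Convex ℝ D) (hleg : LegUE P x0 A Ω D) :
    CrossAE μ ν x0 A Ω D g := by
  have hlip : LipschitzOnWith ⟨K, hK⟩ ν P := LipschitzOnWith.of_dist_le_mul fun p hp q hq => by
    rw [Real.dist_eq]; exact hν p hp q hq
  obtain ⟨ν', h1, h2⟩ := hlip.extend_real
  have hν' : ∀ p q, |ν' p - ν' q| ≤ K * dist p q := by
    intro p q
    have := h1.dist_le_mul p q
    rw [Real.dist_eq] at this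
    exact this
  have hs' : SupOn ν' P := by
    intro p hp q hq h3 h4
    rw [← h2 hp, ← h2 hq, ← h2 h3, ← h2 h4]
    exact hs p hp q hq h3 h4
  unfold CrossAE
  filter_upwards [plainE μ hK hν' hs' hG hΩ hDo hDc hleg] with z hz hzΩ hl hl0 hlt lam Bf hlam
  intro i j hij c α β hα hβ h00 h10 h01 h11
  have h5 := hz hzΩ i j hij c α β hα hβ ⟨h00, h10, h01, h11⟩
  have ht : Tendsto hl atTop (𝓝[>] 0) :=
    tendsto_nhdsWithin_iff.2 ⟨hlt, Eventually.of_forall fun l => hl0 l⟩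
  have h6 := h5.comp ht
  -- the limits for the extension
  have hlam' : ∀ c ∈ D, Tendsto (fun l => (ν' (XE x0 A z + hl l • c) - Bf l) / hl l) atTop
      (𝓝 (lam c)) := by
    intro c1 hc1
    obtain ⟨ε, hε, H⟩ := hleg z hzΩ c1 hc1
    refine (hlam c1 hc1).congr' ?_
    filter_upwards [hlt.eventually_lt_const hε] with l hll
    rw [h2 (H z c1 (hl l) (by rw [dist_self]; exact hε) (by rw [dist_self]; exact hε) (hl0 l) hll)]
  have h7 := ((hlam' _ h11).add (hlam' _ h00)).sub ((hlam' _ h10).add (hlam' _ h01))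
  have h8 := h7.congr' (f₂ := (fun h : ℝ => Mix ν' (Pi.single i (α * h)) (Pi.single j (β * h))
      (XE x0 A z + h • c) / h) ∘ hl) (Eventually.of_forall fun l => by
    simp only [Function.comp, Mix]
    have e1 : XE x0 A z + hl l • c + Pi.single i (α * hl l) + Pi.single j (β * hl l) =
        XE x0 A z + hl l • (c + α • e i + β • e j) := by
      rw [Dg262.single_eq_smul, Dg262.single_eq_smul, smul_add, smul_add, smul_smul, smul_smul,
        mul_comm (hl l) α, mul_comm (hl l) β]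
      abel
    have e2 : XE x0 A z + hl l • c + Pi.single i (α * hl l) =
        XE x0 A z + hl l • (c + α • e i) := by
      rw [Dg262.single_eq_smul, smul_add, smul_smul, mul_comm (hl l) α]; abel
    have e3 : XE x0 A z + hl l • c + Pi.single j (β * hl l) =
        XE x0 A z + hl l • (c + β • e j) := by
      rw [Dg262.single_eq_smul, smul_add, smul_smul, mul_comm (hl l) β]; abel
    rw [e1, e2, e3]; ring)
  have h9 := tendsto_nhds_unique h8 h6
  linarith

end Crest.Agent.R116.De219
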