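import Crest.Agent.R136.Dg6_219

/-!
# R116: general decoupling over a natural family with any number of parameters, part 5 (helper219)

The parameter space is a real vector space `E` (finite dimensional in the a.e. statement), the
natural family is `XE x0 A z = x0 + A z` with a linear map `A : E →ₗ[ℝ] (ι → ℝ)`.
* `frechetE`  : Lipschitz ridge functions on `E` with affine sum are affine
* `DirE`      : slopes `A z i = dh i * n (grp i) z`
* `OutE`, `ratesE` : splitting with linear rates
* `exists_grpE` : ordering of the groups (restriction to a generic plane)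
-/

set_option autoImplicit false
set_option linter.unusedSectionVars false
set_option linter.unusedVariables false

open Set Filter Topology Metric

namespace Crest.Agent.R116.De219

open Crest.Agent.R136 Crest.Agent.R136.Dg219

variable {ι κ : Type*} [Fintype ι] [DecidableEq ι] [DecidableEq κ]
variable {E : Type*} [AddCommGroup E] [Module ℝ E]

/-- **Fréchet** on a vector space: Lipschitz ridge functions of pairwise non proportional forms
with affine sum are affine. -/
theorem frechetE (S : Finset κ) (n : κ → E →ₗ[ℝ] ℝ) (hn : ∀ k ∈ S, n k ≠ 0)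
    (hdet : ∀ k ∈ S, ∀ l ∈ S, k ≠ l → ∃ v, n l v = 0 ∧ n k v ≠ 0) :
    ∀ (f : κ → ℝ → ℝ) (K : κ → ℝ) (A0 : ℝ) (A : E →ₗ[ℝ] ℝ), (∀ k ∈ S, 0 ≤ K k) →
      (∀ k ∈ S, ∀ a b, |f k a - f k b| ≤ K k * |a - b|) →
      (∀ z : E, ∑ k ∈ S, f k (n k z) = A0 + A z) →
      ∀ k ∈ S, ∀ u, f k u = f k 0 + (f k 1 - f k 0) * u := by
  induction S using Finset.induction_on with
  | empty => intro f K A0 A _ _ _ k hk; simp at hk
  | insert r S hr ih =>
    intro f K A0 A hK hf hsum
    have ih' := ih (fun k hk => hn k (Finset.mem_insert_of_mem hk))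
      (fun k hk l hl => hdet k (Finset.mem_insert_of_mem hk) l (Finset.mem_insert_of_mem hl))
    -- all indices of `S`
    have hS : ∀ k ∈ S, ∀ u, f k u = f k 0 + (f k 1 - f k 0) * u := by
      intro k hk
      have hkr : k ≠ r := fun h => hr (h ▸ hk)
      obtain ⟨v, hvr, hne⟩ := hdet k (Finset.mem_insert_of_mem hk) r (Finset.mem_insert_self _ _) hkr
      have hshift : ∀ t : ℝ, ∀ l ∈ S, ∀ u, f l (u + t * n l v) - f l u =
          f l (t * n l v) - f l 0 := by
        intro t
        set f' : κ → ℝ → ℝ := fun l u => f l (u + t * n l v) - f l u with hf'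
        have h1 : ∀ z : E, ∑ l ∈ S, f' l (n l z) = t * A v + (0 : E →ₗ[ℝ] ℝ) z := by
          intro z
          have s1 := hsum z
          have s2 := hsum (z + t • v)
          rw [Finset.sum_insert hr] at s1 s2
          simp only [map_add, map_smul, smul_eq_mul] at s2
          rw [hvr, mul_zero, add_zero] at s2
          simp only [hf', Finset.sum_sub_distrib, LinearMap.zero_apply]
          linarith
        have h2 := ih' f' (fun l => 2 * K l) (t * A v) 0
          (fun l hl => by
            have := hK l (Finset.mem_insert_of_mem hl)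
            linarith)
          (fun l hl a b => by
            have q1 := hf l (Finset.mem_insert_of_mem hl) (a + t * n l v) (b + t * n l v)
            have q2 := hf l (Finset.mem_insert_of_mem hl) a b
            rw [add_sub_add_right_eq_sub] at q1
            simp only [hf']
            have q3 : f l (a + t * n l v) - f l a - (f l (b + t * n l v) - f l b) =
              (f l (a + t * n l v) - f l (b + t * n l v)) - (f l a - f l b) := by ring
            rw [q3]
            refine (abs_sub _ _).trans ?_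
            linarith)
          h1
        intro l hl u
        have h3 := h2 l hl
        have hb : ∀ w, |f' l w| ≤ K l * |t * n l v| := by
          intro w
          have := hf l (Finset.mem_insert_of_mem hl) (w + t * n l v) w
          rw [add_sub_cancel_left] at this
          exact this
        have hslope : f' l 1 - f' l 0 = 0 := by
          by_contra hne
          set B := K l * |t * n l v| with hB
          have hB0 : 0 ≤ B := (abs_nonneg _).trans (hb 0)
          have q1 := h3 ((2 * B + 1) / (f' l 1 - f' l 0))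
          rw [mul_div_cancel₀ _ hne] at q1
          have q2 := (abs_le.1 (hb ((2 * B + 1) / (f' l 1 - f' l 0)))).2
          have q3 := (abs_le.1 (hb 0)).1
          linarith
        have h4 := h3 u
        rw [hslope, zero_mul, add_zero] at h4
        simp only [hf', zero_add] at h4
        exact h4
      intro u
      refine additive_lip (hK k (Finset.mem_insert_of_mem hk)) (hf k (Finset.mem_insert_of_mem hk))
        ?_ u
      intro u s
      have := hshift (s / n k v) k hk u
      rwa [div_mul_cancel₀ _ hne] at this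
    intro k hk
    rcases Finset.mem_insert.1 hk with rfl | hk'
    · intro u
      have hn0 := hn k (Finset.mem_insert_self _ _)
      obtain ⟨z0, hz0⟩ : ∃ z0 : E, n k z0 = 1 := by
        obtain ⟨y, hy⟩ : ∃ y, n k y ≠ 0 := by
          by_contra hcon
          push Not at hcon
          exact hn0 (LinearMap.ext hcon)
        exact ⟨(n k y)⁻¹ • y, by rw [map_smul, smul_eq_mul, inv_mul_cancel₀ hy]⟩
      have key : ∀ u : ℝ, f k u = A0 + u * A z0 -
          ∑ l ∈ S, (f l 0 + (f l 1 - f l 0) * (u * n l z0)) := by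
        intro u
        have s1 := hsum (u • z0)
        rw [Finset.sum_insert hr] at s1
        simp only [map_smul, smul_eq_mul] at s1
        rw [hz0, mul_one] at s1
        have s2 : ∑ l ∈ S, f l (u * n l z0) =
            ∑ l ∈ S, (f l 0 + (f l 1 - f l 0) * (u * n l z0)) :=
          Finset.sum_congr rfl fun l hl => hS l hl _
        rw [s2] at s1
        linarith
      have e : ∀ u : ℝ, ∑ l ∈ S, (f l 0 + (f l 1 - f l 0) * (u * n l z0)) =
          ∑ l ∈ S, f l 0 + u * ∑ l ∈ S, (f l 1 - f l 0) * n l z0 := by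
        intro u
        rw [Finset.sum_add_distrib, Finset.mul_sum]
        congr 1
        exact Finset.sum_congr rfl fun l _ => by ring
      have k0 := key 0
      have k1 := key 1
      have ku := key u
      rw [e] at k0 k1 ku
      rw [ku, k0, k1]
      ring
    · exact hS k hk'

section

variable {grp : ι → κ} {D L : Set (ι → ℝ)} {g : (ι → ℝ) → ℝ} {ρ : κ → ι → ℝ} {ρs : ι → ℝ}

/-- the slopes: `A z i = dh i * n (grp i) z`, forms of different groups not proportional -/
structure DirE (grp : ι → κ) (A : E →ₗ[ℝ] (ι → ℝ)) (n : κ → E →ₗ[ℝ] ℝ) (dh : ι → ℝ) : Prop where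
  pos : ∀ i, 0 < dh i
  eq : ∀ i z, A z i = dh i * n (grp i) z
  ne : ∀ i, n (grp i) ≠ 0
  det : ∀ i j, grp i ≠ grp j → ∃ v, n (grp j) v = 0 ∧ n (grp i) v ≠ 0

/-- output of the splitting at one point -/
structure OutE (grp : ι → κ) (L : Set (ι → ℝ)) (dh : ι → ℝ) (n : κ → E →ₗ[ℝ] ℝ)
    (lam : (ι → ℝ) → ℝ) (T : E →ₗ[ℝ] ℝ) (φ : κ → (ι → ℝ) → ℝ) (r : κ → ℝ) : Prop where
  sum : ∀ c ∈ L, lam c = ∑ k ∈ gset grp, φ k c
  loc : ∀ k c c', (∀ i, grp i = k → c i = c' i) → φ k c = φ k c'
  zero : ∀ k c, (∀ i, grp i = k → c i = 0) → φ k c = 0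
  mono : ∀ k, ∀ c ∈ L, ∀ c' ∈ L, (∀ i, grp i = k → c i ≤ c' i) → 0 ≤ φ k c - φ k c' ∧
    φ k c - φ k c' ≤ ∑ i ∈ Finset.univ.filter (fun i => grp i = k), (c' i - c i)
  smod : ∀ k, ∀ p ∈ L, ∀ q ∈ L, p ⊓ q ∈ L → p ⊔ q ∈ L →
    φ k p + φ k q ≤ φ k (p ⊔ q) + φ k (p ⊓ q)
  rate : ∀ k, ∀ c ∈ L, ∀ u : ℝ, (∀ i, grp i = k → c i = u * dh i) → φ k c = -(r k * u)
  r_nonneg : ∀ k, 0 ≤ r k
  r_le : ∀ k, r k ≤ ∑ i ∈ Finset.univ.filter (fun i => grp i = k), dh i
  total : ∀ z : E, T z = -∑ k ∈ gset grp, r k * n k z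

/-- **splitting with linear rates** over `E` -/
theorem ratesE (hG : Geo grp D L ρ ρs) (hg : Sep grp L g) (gc : Continuous g) (g0 : g 0 = 0)
    (hm : ∀ c ∈ L, ∀ c' ∈ L, c ≤ c' → 0 ≤ g c - g c' ∧ g c - g c' ≤ ∑ i, (c' i - c i))
    (hs : ∀ p ∈ L, ∀ q ∈ L, p ⊓ q ∈ L → p ⊔ q ∈ L → g p + g q ≤ g (p ⊔ q) + g (p ⊓ q))
    {A : E →ₗ[ℝ] (ι → ℝ)} {n : κ → E →ₗ[ℝ] ℝ} {dh : ι → ℝ} (hd : DirE grp A n dh)
    (hT : ∀ z, A z ∈ L) {T : E →ₗ[ℝ] ℝ} (hA : ∀ z, g (A z) = T z) :
    ∃ r : κ → ℝ, OutE grp L dh n g T (phi grp L g ρ) r := by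
  classical
  set S := gset grp with hS
  have hmem : ∀ k ∈ S, ∃ i, grp i = k := by
    intro k hk
    obtain ⟨i, -, hi⟩ := Finset.mem_image.1 hk
    exact ⟨i, hi⟩
  set dK : κ → ℝ := fun k => ∑ i ∈ Finset.univ.filter (fun i => grp i = k), dh i with hdK
  have hdK0 : ∀ k, 0 ≤ dK k := fun k => Finset.sum_nonneg fun i _ => (hd.pos i).le
  -- a point with form value `1`
  have hpt : ∀ k ∈ S, ∃ z : E, n k z = 1 := by
    intro k hk
    obtain ⟨i, hi⟩ := hmem k hk
    obtain ⟨y, hy⟩ : ∃ y, n k y ≠ 0 := by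
      by_contra hcon
      push Not at hcon
      exact hd.ne i (by rw [hi]; exact LinearMap.ext hcon)
    exact ⟨(n k y)⁻¹ • y, by rw [map_smul, smul_eq_mul, inv_mul_cancel₀ hy]⟩
  set zp : κ → E := fun k => if h : ∃ z : E, n k z = 1 then h.choose else 0 with hzp
  have hzp1 : ∀ k ∈ S, n k (zp k) = 1 := by
    intro k hk
    have h := hpt k hk
    simp only [hzp, dif_pos h]
    exact h.choose_spec
  -- the function of one variable
  set f : κ → ℝ → ℝ := fun k u => phi grp L g ρ k (A (u • zp k)) with hf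
  have hval : ∀ k ∈ S, ∀ w : ℝ, ∀ i, grp i = k → A (w • zp k) i = w * dh i := by
    intro k hk w i hi
    rw [hd.eq, hi, map_smul, smul_eq_mul, hzp1 k hk]; ring
  have hpar : ∀ k ∈ S, ∀ c : ι → ℝ, ∀ u : ℝ, (∀ i, grp i = k → c i = u * dh i) →
      phi grp L g ρ k c = f k u := by
    intro k hk c u hcu
    apply phi_congr
    funext i
    by_cases hi : grp i = k
    · rw [pr_in k _ hi, pr_in k _ hi, hcu i hi, hval k hk u i hi]
    · rw [pr_off k _ hi, pr_off k _ hi]
  have hTf : ∀ k ∈ S, ∀ z, phi grp L g ρ k (A z) = f k (n k z) := by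
    intro k hk z
    exact hpar k hk _ _ fun i hi => by rw [hd.eq, hi]; ring
  have hmono : ∀ k ∈ S, ∀ u v : ℝ, u ≤ v → 0 ≤ f k u - f k v ∧ f k u - f k v ≤ dK k * (v - u) := by
    intro k hk u v huv
    have h1 := phi_mono hG hg hm k (hT (u • zp k)) (hT (v • zp k)) (fun i hi => by
      rw [hval k hk u i hi, hval k hk v i hi]
      exact mul_le_mul_of_nonneg_right huv (hd.pos i).le)
    refine ⟨h1.1, h1.2.trans (le_of_eq ?_)⟩
    rw [hdK, Finset.sum_mul]
    refine Finset.sum_congr rfl fun i hi => ?_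
    rw [Finset.mem_filter] at hi
    rw [hval k hk u i hi.2, hval k hk v i hi.2]; ring
  have hlip : ∀ k ∈ S, ∀ u v : ℝ, |f k u - f k v| ≤ dK k * |u - v| := by
    intro k hk u v
    rcases le_total u v with h | h
    · have := hmono k hk u v h
      rw [abs_of_nonneg this.1, abs_sub_comm, abs_of_nonneg (by linarith)]
      exact this.2
    · have := hmono k hk v u h
      rw [abs_sub_comm, abs_of_nonneg this.1, abs_of_nonneg (by linarith)]
      exact this.2
  have hf0 : ∀ k ∈ S, f k 0 = 0 := by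
    intro k hk
    rw [← hpar k hk 0 0 (fun i _ => by simp)]
    exact phi_zero k fun i _ => rfl
  have hsum : ∀ z : E, ∑ k ∈ S, f k (n k z) = 0 + T z := by
    intro z
    rw [zero_add, ← hA z]
    have := repr hG hg gc (hT z)
    rw [g0, sub_zero] at this
    rw [this]
    exact Finset.sum_congr rfl fun k hk => (hTf k hk z).symm
  have hlin := frechetE S n
    (fun k hk => by obtain ⟨i, hi⟩ := hmem k hk; rw [← hi]; exact hd.ne i)
    (fun k hk l hl hkl => by
      obtain ⟨i, hi⟩ := hmem k hk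
      obtain ⟨j, hj⟩ := hmem l hl
      rw [← hi, ← hj]
      exact hd.det i j (by rw [hi, hj]; exact hkl))
    f dK 0 T (fun k _ => hdK0 k) hlip hsum
  have hlin' : ∀ k ∈ S, ∀ u, f k u = -((-f k 1) * u) := by
    intro k hk u
    rw [hlin k hk u, hf0 k hk]; ring
  -- rates
  refine ⟨fun k => if k ∈ S then -f k 1 else 0, ?_, ?_, ?_, ?_, ?_, ?_, ?_, ?_, ?_⟩
  · intro c hc
    have := repr hG hg gc hc
    rwa [g0, sub_zero] at this
  · intro k c c' h
    apply phi_congr
    funext i
    by_cases hi : grp i = k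
    · rw [pr_in k _ hi, pr_in k _ hi, h i hi]
    · rw [pr_off k _ hi, pr_off k _ hi]
  · intro k c h
    exact phi_zero k h
  · intro k c hc c' hc' h
    exact phi_mono hG hg hm k hc hc' h
  · intro k p hp q hq h1 h2
    exact phi_sup hG hg hs k hp hq h1 h2
  · intro k c hc u h
    by_cases hk : k ∈ S
    · rw [if_pos hk, hpar k hk c u h, hlin' k hk u]
    · rw [if_neg hk, zero_mul, neg_zero]
      apply phi_zero
      intro i hi
      exact absurd (hi ▸ mem_gset i) hk
  · intro k
    by_cases hk : k ∈ S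
    · rw [if_pos hk]
      have := (hmono k hk 0 1 zero_le_one).1
      rw [hf0 k hk] at this
      linarith
    · rw [if_neg hk]
  · intro k
    by_cases hk : k ∈ S
    · rw [if_pos hk]
      have := (hmono k hk 0 1 zero_le_one).2
      rw [hf0 k hk] at this
      simp only [hdK] at this
      linarith
    · rw [if_neg hk]; exact hdK0 k
  · intro z
    have h1 := hsum z
    rw [zero_add] at h1
    rw [← h1, ← Finset.sum_neg_distrib]
    refine Finset.sum_congr rfl fun k hk => ?_
    rw [if_pos hk, hlin' k hk (n k z)]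

end

/-! ### ordering of the groups -/

/-- groups of coordinates with directions of the natural family -/
structure GrpE (A : E →ₗ[ℝ] (ι → ℝ)) (g : ι → ℕ) (w : ℕ → E) : Prop where
  fix : ∀ i, A (w (g i)) i = 0
  up : ∀ i j, g i < g j → 0 < A (w (g i)) j

/-- avoiding finitely many hyperplanes -/
theorem exists_avoid {J : Type*} [Finite J] (f : J → E →ₗ[ℝ] ℝ) (hf : ∀ j, f j ≠ 0) :
    ∃ v : E, ∀ j, f j v ≠ 0 := by
  by_contra hcon
  push Not at hcon
  have h : ⋃ j, ((LinearMap.ker (f j) : Subspace ℝ E) : Set E) = univ := by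
    rw [eq_univ_iff_forall]
    intro v
    obtain ⟨j, hj⟩ := hcon v
    exact mem_iUnion.2 ⟨j, hj⟩
  obtain ⟨j, hj⟩ := Subspace.exists_eq_top_of_iUnion_eq_univ h
  exact hf j (LinearMap.ker_eq_top.1 hj)

theorem exists_grpE {grp : ι → κ} {A : E →ₗ[ℝ] (ι → ℝ)} {n : κ → E →ₗ[ℝ] ℝ} {dh : ι → ℝ}
    (hd : DirE grp A n dh) {e : E} (he : ∀ i, 0 < A e i) :
    ∃ (g : ι → ℕ) (w : ℕ → E), GrpE A g w ∧ ∀ i j, grp i ≠ grp j → g i ≠ g j := by
  classical
  -- generic second direction
  set J := {x : ι × ι // grp x.1 ≠ grp x.2} with hJ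
  have hf : ∀ j : J, (n (grp j.1.1) e) • n (grp j.1.2) - (n (grp j.1.2) e) • n (grp j.1.1) ≠
      (0 : E →ₗ[ℝ] ℝ) := by
    rintro ⟨⟨i, j⟩, hij⟩ h0
    obtain ⟨v, hv1, hv2⟩ := hd.det i j hij
    have h1 := LinearMap.congr_fun h0 v
    simp only [LinearMap.sub_apply, LinearMap.smul_apply, smul_eq_mul, LinearMap.zero_apply, hv1,
      mul_zero, zero_sub, neg_eq_zero] at h1
    have h2 : n (grp j) e ≠ 0 := by
      intro h3
      have := he j
      rw [hd.eq, h3, mul_zero] at this
      exact lt_irrefl _ this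
    exact (mul_ne_zero h2 hv2) h1
  obtain ⟨v, hv⟩ := exists_avoid _ hf
  obtain ⟨g, w, hG, hgg⟩ := exists_grp (a := fun i => A e i) (b := fun i => A v i) (p := 1) (q := 0)
    (fun i => by have := he i; simpa using this)
  refine ⟨g, fun k => (w k).1 • e + (w k).2 • v, ⟨fun i => ?_, fun i j hij => ?_⟩, ?_⟩
  · rw [map_add, map_smul, map_smul, Pi.add_apply, Pi.smul_apply, Pi.smul_apply, smul_eq_mul,
      smul_eq_mul]
    have := hG.fix i
    linarith
  · rw [map_add, map_smul, map_smul, Pi.add_apply, Pi.smul_apply, Pi.smul_apply, smul_eq_mul,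
      smul_eq_mul]
    have := hG.up i j hij
    linarith
  · intro i j hij hg
    have h1 := hgg i j hg
    have h2 := hv ⟨(i, j), hij⟩
    apply h2
    simp only [LinearMap.sub_apply, LinearMap.smul_apply, smul_eq_mul]
    simp only [hd.eq] at h1
    have h3 : dh i * dh j * (n (grp i) e * n (grp j) v - n (grp j) e * n (grp i) v) = 0 := by
      linear_combination h1
    exact (mul_eq_zero.1 h3).resolve_left (mul_pos (hd.pos i) (hd.pos j)).ne'

end Crest.Agent.R116.De219
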