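import Crest.Agent.R116.De5_219

/-!
# R116: general decoupling over `E`, geometry of the walls (helper219)

Walls `Q : Dg219.Walls ι W` as in R136/Dg6_219; the natural family is `XE x0 A z = x0 + A z`.
* `LE`, `DE` : closed / open cone of the active walls (equality along the whole family)
* `geoE`, `OE`, `legalE`, `AE_mem`, `X_memE`, `LegUE`, `legUE`
-/

set_option autoImplicit false
set_option linter.unusedSectionVars false
set_option linter.unusedVariables false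

open Set Filter Topology Metric

namespace Crest.Agent.R116.De219

open Crest.Agent.R136 Crest.Agent.R136.Dg219

variable {ι κ : Type*} [Fintype ι] [DecidableEq ι] [DecidableEq κ]
variable {E : Type*} [NormedAddCommGroup E] [NormedSpace ℝ E] [FiniteDimensional ℝ E]
variable {W : Type*} [Fintype W] (Q : Walls ι W)

/-- natural family -/
def XE (x0 : ι → ℝ) (A : E →ₗ[ℝ] (ι → ℝ)) (z : E) : ι → ℝ := x0 + A z

theorem A_cont (A : E →ₗ[ℝ] (ι → ℝ)) : Continuous A := A.continuous_of_finiteDimensional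

theorem XE_cont (x0 : ι → ℝ) (A : E →ₗ[ℝ] (ι → ℝ)) : Continuous (XE x0 A) :=
  continuous_const.add (A_cont A)

theorem XE_add (x0 : ι → ℝ) (A : E →ₗ[ℝ] (ι → ℝ)) (z z' : E) (s : ℝ) :
    XE x0 A (z + s • z') = XE x0 A z + s • A z' := by
  unfold XE; rw [map_add, map_smul, add_assoc]

/-- active walls: equality along the natural family -/
def ActE (x0 : ι → ℝ) (A : E →ₗ[ℝ] (ι → ℝ)) (w : W) : Prop :=
  x0 (Q.hd w) = Q.rhs w x0 + Q.cst w ∧ ∀ z, A z (Q.hd w) = Q.rhs w (A z)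

/-- closed cone of the active walls -/
def LE (x0 : ι → ℝ) (A : E →ₗ[ℝ] (ι → ℝ)) : Set (ι → ℝ) :=
  {c | ∀ w, ActE Q x0 A w → c (Q.hd w) ≤ Q.rhs w c}

/-- open cone of the active walls -/
def DE (x0 : ι → ℝ) (A : E →ₗ[ℝ] (ι → ℝ)) : Set (ι → ℝ) :=
  {c | ∀ w, ActE Q x0 A w → c (Q.hd w) < Q.rhs w c}

/-- points of the natural family in the interior of all the other walls -/
def OE (lo hi x0 : ι → ℝ) (A : E →ₗ[ℝ] (ι → ℝ)) : Set E :=
  {z | (∀ k, lo k < XE x0 A z k ∧ XE x0 A z k < hi k) ∧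
    ∀ w, ActE Q x0 A w ∨ XE x0 A z (Q.hd w) < Q.rhs w (XE x0 A z) + Q.cst w}

variable {Q} {x0 lo hi : ι → ℝ} {A : E →ₗ[ℝ] (ι → ℝ)}

theorem act_neE {grp : ι → κ} {n : κ → E →ₗ[ℝ] ℝ} {dh : ι → ℝ} (hd : DirE grp A n dh) {w : W}
    (hw : ActE Q x0 A w) : ∃ s, Q.co w s ≠ 0 := by
  by_contra hcon
  push Not at hcon
  have h1 : ∀ c : ι → ℝ, Q.rhs w c = 0 := by
    intro c
    unfold Walls.rhs
    exact Finset.sum_eq_zero fun s _ => by rw [hcon s]; simp
  apply hd.ne (Q.hd w)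
  refine LinearMap.ext fun z => ?_
  have h2 := hw.2 z
  rw [h1, hd.eq] at h2
  exact (mul_eq_zero.1 h2).resolve_left (hd.pos (Q.hd w)).ne'

theorem act_outE {grp : ι → κ} {n : κ → E →ₗ[ℝ] ℝ} {dh : ι → ℝ} (hd : DirE grp A n dh) {w : W}
    (hw : ActE Q x0 A w) {k : κ} (hk : grp (Q.hd w) ≠ k) : ∃ s, Q.co w s ≠ 0 ∧ grp s ≠ k := by
  by_contra hcon
  push Not at hcon
  obtain ⟨s0, hs0⟩ := act_neE hd hw
  have hs0k := hcon s0 hs0
  set t : ℝ := ∑ s, (Q.co w s : ℝ) * dh s with ht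
  obtain ⟨v, hv1, hv2⟩ := hd.det (Q.hd w) s0 (by rw [hs0k]; exact hk)
  rw [hs0k] at hv1
  have h1 : Q.rhs w (A v) = t * n k v := by
    unfold Walls.rhs
    rw [ht, Finset.sum_mul]
    refine Finset.sum_congr rfl fun s _ => ?_
    by_cases h : Q.co w s = 0
    · rw [h]; simp
    · rw [hd.eq s, hcon s h]; ring
  have h2 := hw.2 v
  rw [h1, hd.eq, hv1, mul_zero] at h2
  exact hv2 ((mul_eq_zero.1 h2).resolve_left (hd.pos (Q.hd w)).ne')

theorem rs_memE {grp : ι → κ} {n : κ → E →ₗ[ℝ] ℝ} {dh : ι → ℝ} (hd : DirE grp A n dh) {w : W}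
    (hw : ActE Q x0 A w) : Q.rs (Q.hd w) + 1 ≤ Q.rhs w Q.rs := by
  obtain ⟨s, hs⟩ := act_neE hd hw
  exact (Q.rs_lt hs).trans (Q.le_rhs (fun i => by linarith [Q.one_le_rs i]) hs)

theorem rm_memE {grp : ι → κ} {n : κ → E →ₗ[ℝ] ℝ} {dh : ι → ℝ} (hd : DirE grp A n dh) {w : W}
    (hw : ActE Q x0 A w) {k : κ} (hk : grp (Q.hd w) ≠ k) :
    Q.rs (Q.hd w) + 1 ≤ Q.rhs w (Q.rm grp k) := by
  obtain ⟨s, hs, hsk⟩ := act_outE hd hw hk
  refine (Q.rs_lt hs).trans ?_
  have h1 : Q.rm grp k s = Q.rs s := by unfold Walls.rm; rw [if_neg hsk]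
  rw [← h1]
  exact Q.le_rhs (Q.rm_nonneg grp k) hs

theorem coneE : Cone (LE Q x0 A) where
  zero := fun w _ => by
    have : Q.rhs w 0 = 0 := by unfold Walls.rhs; simp
    rw [this]; exact le_rfl
  add := fun c hc d hd w hw => by
    rw [Q.rhs_add, Pi.add_apply]
    exact add_le_add (hc w hw) (hd w hw)
  smul := fun c hc t ht w hw => by
    rw [Q.rhs_smul, Pi.smul_apply, smul_eq_mul]
    exact mul_le_mul_of_nonneg_left (hc w hw) ht

theorem isClosed_LE : IsClosed (LE Q x0 A) := by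
  have : LE Q x0 A = ⋂ w, ⋂ (_ : ActE Q x0 A w), {c | c (Q.hd w) ≤ Q.rhs w c} := by
    ext c; simp [LE]
  rw [this]
  exact isClosed_iInter fun w => isClosed_iInter fun _ =>
    isClosed_le (continuous_apply _) (Q.rhs_cont w)

theorem isOpen_DE : IsOpen (DE Q x0 A) := by
  have : DE Q x0 A = ⋂ w, {c | ActE Q x0 A w → c (Q.hd w) < Q.rhs w c} := by
    ext c; simp [DE]
  rw [this]
  refine isOpen_iInter_of_finite fun w => ?_
  by_cases hw : ActE Q x0 A w
  · have : {c : ι → ℝ | ActE Q x0 A w → c (Q.hd w) < Q.rhs w c} =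
        {c | c (Q.hd w) < Q.rhs w c} := by ext c; simp [hw]
    rw [this]
    exact isOpen_lt (continuous_apply _) (Q.rhs_cont w)
  · have : {c : ι → ℝ | ActE Q x0 A w → c (Q.hd w) < Q.rhs w c} = univ := by ext c; simp [hw]
    rw [this]; exact isOpen_univ

theorem convex_DE : Convex ℝ (DE Q x0 A) := by
  intro c hc d hd s t hs ht hst w hw
  rw [Q.rhs_add, Q.rhs_smul, Q.rhs_smul]
  simp only [Pi.add_apply, Pi.smul_apply, smul_eq_mul]
  have h1 := hc w hw
  have h2 := hd w hw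
  rcases hs.eq_or_lt with h | h
  · rw [← h] at hst ⊢
    have : t = 1 := by linarith
    rw [this]; linarith
  · nlinarith

theorem roomE {grp : ι → κ} {n : κ → E →ₗ[ℝ] ℝ} {dh : ι → ℝ} (hd : DirE grp A n dh) :
    Room grp (LE Q x0 A) (Q.rm grp) where
  off := fun k i hi => by unfold Walls.rm; rw [if_pos hi]
  mem := fun k w hw => by
    by_cases hk : grp (Q.hd w) = k
    · have : Q.rm grp k (Q.hd w) = 0 := by unfold Walls.rm; rw [if_pos hk]
      rw [this]
      exact Q.rhs_nonneg (Q.rm_nonneg grp k)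
    · have : Q.rm grp k (Q.hd w) = Q.rs (Q.hd w) := by unfold Walls.rm; rw [if_neg hk]
      rw [this]
      linarith [rm_memE hd hw hk]
  ex := fun k c hc => by
    set B : W → ℝ := fun w => |c (Q.hd w)| + ∑ s, (Q.co w s : ℝ) * |c s| with hB
    have hB0 : ∀ w, 0 ≤ B w := fun w => add_nonneg (abs_nonneg _)
      (Finset.sum_nonneg fun s _ => mul_nonneg (Nat.cast_nonneg _) (abs_nonneg _))
    set R : ℝ := ∑ w, B w with hR
    have hR0 : 0 ≤ R := Finset.sum_nonneg fun w _ => hB0 w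
    have hRB : ∀ w, B w ≤ R := fun w =>
      Finset.single_le_sum (f := B) (fun w _ => hB0 w) (Finset.mem_univ w)
    refine ⟨R, hR0, fun w hw => ?_⟩
    rw [Q.rhs_add, Q.rhs_smul]
    simp only [Pi.add_apply, Pi.smul_apply, smul_eq_mul]
    have hpr : -(∑ s, (Q.co w s : ℝ) * |c s|) ≤ Q.rhs w (pr grp k c) := by
      unfold Walls.rhs
      rw [← Finset.sum_neg_distrib]
      refine Finset.sum_le_sum fun s _ => ?_
      rw [← mul_neg]
      refine mul_le_mul_of_nonneg_left ?_ (Nat.cast_nonneg _)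
      by_cases hs : grp s = k
      · rw [pr_in k c hs]; exact neg_abs_le _
      · rw [pr_off k c hs]; simp
    have hb := hRB w
    simp only [hB] at hb
    by_cases hk : grp (Q.hd w) = k
    · have e1 : Q.rm grp k (Q.hd w) = 0 := by unfold Walls.rm; rw [if_pos hk]
      rw [e1, pr_in k c hk, mul_zero, add_zero]
      by_cases hex : ∃ s, Q.co w s ≠ 0 ∧ grp s ≠ k
      · obtain ⟨s, hs, hsk⟩ := hex
        have h1 : Q.rm grp k s = Q.rs s := by unfold Walls.rm; rw [if_neg hsk]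
        have h2 : 1 ≤ Q.rhs w (Q.rm grp k) := by
          have := Q.le_rhs (Q.rm_nonneg grp k) hs
          rw [h1] at this
          exact (Q.one_le_rs s).trans this
        have h3 : R * 1 ≤ R * Q.rhs w (Q.rm grp k) := mul_le_mul_of_nonneg_left h2 hR0
        have h4 := le_abs_self (c (Q.hd w))
        linarith
      · push Not at hex
        have h1 : Q.rhs w (pr grp k c) = Q.rhs w c := by
          unfold Walls.rhs
          refine Finset.sum_congr rfl fun s _ => ?_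
          by_cases hs : Q.co w s = 0
          · rw [hs]; simp
          · rw [pr_in k c (hex s hs)]
        rw [h1]
        have h2 := hc w hw
        have h3 : 0 ≤ R * Q.rhs w (Q.rm grp k) :=
          mul_nonneg hR0 (Q.rhs_nonneg (Q.rm_nonneg grp k))
        linarith
    · have e1 : Q.rm grp k (Q.hd w) = Q.rs (Q.hd w) := by unfold Walls.rm; rw [if_neg hk]
      rw [e1, pr_off k c hk, zero_add]
      have h2 := rm_memE hd hw hk
      have h3 : R * (Q.rs (Q.hd w) + 1) ≤ R * Q.rhs w (Q.rm grp k) :=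
        mul_le_mul_of_nonneg_left h2 hR0
      have h4 := abs_nonneg (c (Q.hd w))
      linarith

/-- **geometry of the walls** -/
theorem geoE {grp : ι → κ} {n : κ → E →ₗ[ℝ] ℝ} {dh : ι → ℝ} (hd : DirE grp A n dh) :
    Geo grp (DE Q x0 A) (LE Q x0 A) (Q.rm grp) Q.rs where
  cone := coneE
  room := roomE hd
  opn := isOpen_DE
  conv := convex_DE
  sub := fun c hc w hw => (hc w hw).le
  inn := fun c hc ε hε w hw => by
    rw [Q.rhs_add, Q.rhs_smul]
    simp only [Pi.add_apply, Pi.smul_apply, smul_eq_mul]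
    have h1 := hc w hw
    have h2 := rs_memE hd hw
    nlinarith

theorem AE_mem (z : E) : A z ∈ LE Q x0 A := fun w hw => (hw.2 z).le

theorem act_XE {w : W} (hw : ActE Q x0 A w) (z : E) :
    XE x0 A z (Q.hd w) = Q.rhs w (XE x0 A z) + Q.cst w := by
  unfold XE
  rw [Q.rhs_add, Pi.add_apply, ← hw.2 z, hw.1]; ring

/-- the strict conditions for points of the space -/
def UE (Q : Walls ι W) (lo hi x0 : ι → ℝ) (A : E →ₗ[ℝ] (ι → ℝ)) : Set (ι → ℝ) :=
  {p | (∀ k, lo k < p k ∧ p k < hi k) ∧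
    ∀ w, ActE Q x0 A w ∨ p (Q.hd w) < Q.rhs w p + Q.cst w}

theorem isOpen_UE : IsOpen (UE Q lo hi x0 A) := by
  have : UE Q lo hi x0 A = (⋂ k, {p : ι → ℝ | lo k < p k ∧ p k < hi k}) ∩
      ⋂ w, {p | ActE Q x0 A w ∨ p (Q.hd w) < Q.rhs w p + Q.cst w} := by
    ext c; simp [UE]
  rw [this]
  refine IsOpen.inter (isOpen_iInter_of_finite fun k => ?_) (isOpen_iInter_of_finite fun w => ?_)
  · exact (isOpen_lt continuous_const (continuous_apply k)).inter
      (isOpen_lt (continuous_apply k) continuous_const)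
  · by_cases hw : ActE Q x0 A w
    · have : {p : ι → ℝ | ActE Q x0 A w ∨ p (Q.hd w) < Q.rhs w p + Q.cst w} = univ := by
        ext c; simp [hw]
      rw [this]; exact isOpen_univ
    · have : {p : ι → ℝ | ActE Q x0 A w ∨ p (Q.hd w) < Q.rhs w p + Q.cst w} =
          {p | p (Q.hd w) < Q.rhs w p + Q.cst w} := by ext c; simp [hw]
      rw [this]
      exact isOpen_lt (continuous_apply _) ((Q.rhs_cont w).add continuous_const)

theorem isOpen_OE : IsOpen (OE Q lo hi x0 A) := by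
  have : OE Q lo hi x0 A = XE x0 A ⁻¹' UE Q lo hi x0 A := rfl
  rw [this]
  exact isOpen_UE.preimage (XE_cont x0 A)

/-- **local uniform legality** -/
theorem legalE {z0 : E} (hz0 : z0 ∈ OE Q lo hi x0 A) (C : ℝ) :
    ∃ ε : ℝ, 0 < ε ∧ ∀ z, dist z z0 < ε → ∀ h : ℝ, 0 < h → h < ε → ∀ c ∈ LE Q x0 A, ‖c‖ ≤ C →
      XE x0 A z + h • c ∈ Q.P lo hi := by
  have hU : XE x0 A z0 ∈ UE Q lo hi x0 A := hz0
  obtain ⟨δ, hδ, hball⟩ := Metric.isOpen_iff.1 (isOpen_UE (Q := Q) (lo := lo) (hi := hi)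
    (x0 := x0) (A := A)) _ hU
  obtain ⟨ε1, hε1, h1⟩ := Metric.continuous_iff.1 (XE_cont x0 A) z0 (δ / 2) (by positivity)
  refine ⟨min ε1 (δ / (2 * (|C| + 1))), lt_min hε1 (by positivity), ?_⟩
  intro z hz h hh hhe c hc hcC
  have h2 := h1 z (hz.trans_le (min_le_left _ _))
  have h3 : h < δ / (2 * (|C| + 1)) := hhe.trans_le (min_le_right _ _)
  rw [lt_div_iff₀ (by positivity)] at h3
  have hn : ‖h • c‖ < δ / 2 := by
    rw [norm_smul, Real.norm_of_nonneg hh.le]
    have h4 : ‖c‖ ≤ |C| := hcC.trans (le_abs_self C)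
    have h5 : h * ‖c‖ ≤ h * |C| := mul_le_mul_of_nonneg_left h4 hh.le
    nlinarith
  have hp : XE x0 A z + h • c ∈ UE Q lo hi x0 A := by
    apply hball
    rw [mem_ball]
    calc dist (XE x0 A z + h • c) (XE x0 A z0)
        ≤ dist (XE x0 A z + h • c) (XE x0 A z) + dist (XE x0 A z) (XE x0 A z0) :=
          dist_triangle _ _ _
      _ < δ / 2 + δ / 2 := by
          refine add_lt_add ?_ h2
          rw [dist_eq_norm, add_sub_cancel_left]; exact hn
      _ = δ := by ring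
  refine ⟨fun k => ⟨(hp.1 k).1.le, (hp.1 k).2.le⟩, fun w => ?_⟩
  rcases hp.2 w with hw | hw
  · rw [Q.rhs_add, Q.rhs_smul]
    simp only [Pi.add_apply, Pi.smul_apply, smul_eq_mul]
    rw [act_XE hw z]
    have := mul_le_mul_of_nonneg_left (hc w hw) hh.le
    linarith
  · exact hw.le

theorem X_memE {z : E} (hz : z ∈ OE Q lo hi x0 A) : XE x0 A z ∈ Q.P lo hi := by
  obtain ⟨ε, hε, H⟩ := legalE hz 0
  have := H z (by rw [dist_self]; exact hε) (ε / 2) (by positivity) (by linarith) 0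
    (coneE (Q := Q)).zero (by simp)
  simpa using this

/-- local uniform legality of the offsets in `D` at the points of `Ω` -/
def LegUE (P : Set (ι → ℝ)) (x0 : ι → ℝ) (A : E →ₗ[ℝ] (ι → ℝ)) (Ω : Set E) (D : Set (ι → ℝ)) :
    Prop :=
  ∀ z0 ∈ Ω, ∀ c0 ∈ D, ∃ ε > 0, ∀ z c h, dist z z0 < ε → dist c c0 < ε → 0 < h → h < ε →
    XE x0 A z + h • c ∈ P

theorem legUE : LegUE (Q.P lo hi) x0 A (OE Q lo hi x0 A) (DE Q x0 A) := by
  intro z0 hz0 c0 hc0
  obtain ⟨δ, hδ, hball⟩ := Metric.isOpen_iff.1 (isOpen_DE (Q := Q) (x0 := x0) (A := A)) c0 hc0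
  obtain ⟨ε, hε, H⟩ := legalE hz0 (‖c0‖ + δ)
  refine ⟨min ε δ, lt_min hε hδ, fun z c h hz hc hh hhe => ?_⟩
  refine H z (hz.trans_le (min_le_left _ _)) h hh (hhe.trans_le (min_le_left _ _)) c ?_ ?_
  · have h1 : c ∈ DE Q x0 A := hball (hc.trans_le (min_le_right _ _))
    exact fun w hw => (h1 w hw).le
  · have h1 : dist c c0 ≤ δ := (hc.trans_le (min_le_right _ _)).le
    rw [dist_eq_norm] at h1
    calc ‖c‖ = ‖c0 + (c - c0)‖ := by congr 1; abel
      _ ≤ ‖c0‖ + ‖c - c0‖ := norm_add_le _ _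
      _ ≤ ‖c0‖ + δ := by linarith

end Crest.Agent.R116.De219
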