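import Crest.Agent.R116.De6_219
import Crest.Agent.R136.Dg7_219

/-!
# R116: THE GENERAL DECOUPLING THEOREM over a natural family with any number of parameters
(helper219; analytic core = helper481)

`outE_of_cross` : from the a.e. vanishing of the cross differences (`CrossAE`) to the splitting
with linear rates of every blow-up.
-/

set_option autoImplicit false
set_option linter.unusedSectionVars false
set_option linter.unusedVariables false

open Set Filter Topology Metric MeasureTheory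

namespace Crest.Agent.R116.De219

open Crest.Agent.R136 Crest.Agent.R136.Dg219
open Dg262 (SupOn)

variable {ι κ : Type*} [Fintype ι] [DecidableEq ι] [DecidableEq κ]
variable {E : Type*} [NormedAddCommGroup E] [NormedSpace ℝ E] [FiniteDimensional ℝ E]
  [MeasurableSpace E] [BorelSpace E]
variable {W : Type*} [Fintype W] (Q : Walls ι W)

/-- a.e. vanishing of the cross differences of all blow-ups (sequence form) -/
def CrossAE {κ' : Type*} (μ : Measure E) (ν : (ι → ℝ) → ℝ) (x0 : ι → ℝ) (A : E →ₗ[ℝ] (ι → ℝ))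
    (Ω : Set E) (D : Set (ι → ℝ)) (g : ι → κ') : Prop :=
  ∀ᵐ z : E ∂μ, z ∈ Ω → ∀ hl : ℕ → ℝ, (∀ l, 0 < hl l) → Tendsto hl atTop (𝓝 0) →
      ∀ (lam : (ι → ℝ) → ℝ) (Bf : ℕ → ℝ),
      (∀ c ∈ D, Tendsto (fun l => (ν (XE x0 A z + hl l • c) - Bf l) / hl l) atTop
        (𝓝 (lam c))) → Cross g D lam

variable {x0 lo hi : ι → ℝ} {A : E →ₗ[ℝ] (ι → ℝ)}

theorem XE_lip (x0 : ι → ℝ) (A : E →ₗ[ℝ] (ι → ℝ)) :
    LipschitzWith ‖LinearMap.toContinuousLinearMap A‖₊ (XE x0 A) := by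
  have h := (LinearMap.toContinuousLinearMap A).lipschitz
  intro z z'
  have := h z z'
  simp only [XE, edist_add_left]
  exact this

theorem OutE.congr {grp : ι → κ} {L : Set (ι → ℝ)} {dh : ι → ℝ} {n : κ → E →ₗ[ℝ] ℝ}
    {lam lam' : (ι → ℝ) → ℝ} {T : E →ₗ[ℝ] ℝ} {φ : κ → (ι → ℝ) → ℝ} {r : κ → ℝ}
    (H : OutE grp L dh n lam T φ r) (h : ∀ c ∈ L, lam' c = lam c) :
    OutE grp L dh n lam' T φ r where
  sum := fun c hc => by rw [h c hc]; exact H.sum c hc
  loc := H.loc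
  zero := H.zero
  mono := H.mono
  smod := H.smod
  rate := H.rate
  r_nonneg := H.r_nonneg
  r_le := H.r_le
  total := H.total

/-- **GENERAL DECOUPLING THEOREM over `E`**, from the vanishing of the cross differences -/
theorem outE_of_cross (μ : Measure E) [μ.IsAddHaarMeasure] {ν : (ι → ℝ) → ℝ} {K : ℝ} (hK : 0 ≤ K)
    (hν : ∀ p ∈ Q.P lo hi, ∀ q ∈ Q.P lo hi, |ν p - ν q| ≤ K * dist p q)
    (hm : ∀ p ∈ Q.P lo hi, ∀ q ∈ Q.P lo hi, p ≤ q →
      0 ≤ ν p - ν q ∧ ν p - ν q ≤ ∑ i, (q i - p i))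
    (hs : SupOn ν (Q.P lo hi)) {grp : ι → κ} {n : κ → E →ₗ[ℝ] ℝ} {dh : ι → ℝ}
    (hd : DirE grp A n dh)
    (hcross : CrossAE μ ν x0 A (OE Q lo hi x0 A) (DE Q x0 A) grp) :
    ∀ᵐ z : E ∂μ, z ∈ OE Q lo hi x0 A → ∃ T : E →L[ℝ] ℝ,
      HasFDerivAt (fun z => ν (XE x0 A z)) T z ∧
      ∀ (h : ℕ → ℝ) (lam : (ι → ℝ) → ℝ),
        BUp (Q.P lo hi) (LE Q x0 A) ν (XE x0 A z) h lam →
        ∃ (φ : κ → (ι → ℝ) → ℝ) (r : κ → ℝ),
          OutE grp (LE Q x0 A) dh n lam (T : E →ₗ[ℝ] ℝ) φ r := by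
  -- Lipschitz extension
  have hlip : LipschitzOnWith ⟨K, hK⟩ ν (Q.P lo hi) :=
    LipschitzOnWith.of_dist_le_mul fun p hp q hq => by rw [Real.dist_eq]; exact hν p hp q hq
  obtain ⟨ν', hν', he⟩ := hlip.extend_real
  have hdiff := (hν'.comp (XE_lip x0 A)).ae_differentiableAt (μ := μ)
  have hgeo : Geo grp (DE Q x0 A) (LE Q x0 A) (Q.rm grp) Q.rs := geoE hd
  filter_upwards [hdiff, hcross] with z hz1 hz2 hz
  obtain ⟨T, hT'⟩ := hz1
  have hT : HasFDerivAt (fun z => ν (XE x0 A z)) T z := by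
    refine hT'.congr_of_eventuallyEq ?_
    filter_upwards [(isOpen_OE (Q := Q) (lo := lo) (hi := hi) (x0 := x0) (A := A)).mem_nhds hz]
      with z' hz'
    exact he (X_memE hz')
  refine ⟨T, hT, fun h lam H => ?_⟩
  -- extension of `lam`
  have hlam : LipschitzOnWith ⟨K, hK⟩ lam (LE Q x0 A) :=
    LipschitzOnWith.of_dist_le_mul fun p hp q hq => by
      rw [Real.dist_eq]; exact H.lip hν p hp q hq
  obtain ⟨G, hG, heG⟩ := hlam.extend_real
  have h0L : (0 : ι → ℝ) ∈ LE Q x0 A := hgeo.cone.zero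
  have hG0 : G 0 = 0 := by rw [← heG h0L]; exact H.lam0 h0L
  have hsep : Sep grp (DE Q x0 A) G := by
    refine sep_open ?_ hgeo.opn hgeo.conv
    have hc := hz2 hz h H.pos H.zero lam (fun _ => ν (XE x0 A z))
      (fun c hc => H.lim c (hgeo.sub hc))
    intro i j hij c α β hα hβ h00 h10 h01 h11
    rw [← heG (hgeo.sub h11), ← heG (hgeo.sub h00), ← heG (hgeo.sub h10), ← heG (hgeo.sub h01)]
    exact hc i j hij c α β hα hβ h00 h10 h01 h11
  have hsepL : Sep grp (LE Q x0 A) G := sep_closed hsep hG.continuous hgeo.inn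
  have hmono : ∀ c ∈ LE Q x0 A, ∀ c' ∈ LE Q x0 A, c ≤ c' → 0 ≤ G c - G c' ∧
      G c - G c' ≤ ∑ i, (c' i - c i) := by
    intro c hc c' hc' hcc
    rw [← heG hc, ← heG hc']
    exact H.mono hm c hc c' hc' hcc
  have hsmod : ∀ p ∈ LE Q x0 A, ∀ q ∈ LE Q x0 A, p ⊓ q ∈ LE Q x0 A → p ⊔ q ∈ LE Q x0 A →
      G p + G q ≤ G (p ⊔ q) + G (p ⊓ q) := by
    intro p hp q hq h1 h2
    rw [← heG hp, ← heG hq, ← heG h1, ← heG h2]
    exact H.smod hs p hp q hq h1 h2
  have hA : ∀ z' : E, G (A z') = (T : E →ₗ[ℝ] ℝ) z' := by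
    intro z'
    rw [← heG (AE_mem (Q := Q) (x0 := x0) z')]
    have hinv : Tendsto (fun l => ‖(h l)⁻¹‖) atTop atTop := by
      have h1 : Tendsto h atTop (𝓝[>] 0) :=
        tendsto_nhdsWithin_iff.2 ⟨H.zero, Eventually.of_forall fun l => H.pos l⟩
      have h2 := tendsto_inv_nhdsGT_zero.comp h1
      refine h2.congr fun l => ?_
      rw [Function.comp, Real.norm_of_nonneg (inv_nonneg.2 (H.pos l).le)]
    have h3 := hT.lim z' hinv
    have h4 := H.lim _ (AE_mem (Q := Q) (x0 := x0) (A := A) z')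
    refine tendsto_nhds_unique h4 (h3.congr fun l => ?_)
    rw [inv_inv, XE_add, smul_eq_mul, div_eq_inv_mul]
  obtain ⟨r, hr⟩ := ratesE hgeo hsepL hG.continuous hG0 hmono hsmod hd
    (fun z' => AE_mem (Q := Q) z') hA
  exact ⟨_, r, hr.congr fun c hc => heG hc⟩

/-- coordinates alone in their group: linear in the coordinate, with a rate in `[0, 1]` -/
theorem OutE.single {grp : ι → κ} {L : Set (ι → ℝ)} {dh : ι → ℝ} {n : κ → E →ₗ[ℝ] ℝ}
    {lam : (ι → ℝ) → ℝ} {T : E →ₗ[ℝ] ℝ} {φ : κ → (ι → ℝ) → ℝ} {r : κ → ℝ}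
    (H : OutE grp L dh n lam T φ r) {i : ι} (hi : 0 < dh i) (hal : ∀ j, grp j = grp i → j = i) :
    0 ≤ r (grp i) / dh i ∧ r (grp i) / dh i ≤ 1 ∧
      ∀ c ∈ L, φ (grp i) c = -(r (grp i) / dh i * c i) := by
  refine ⟨div_nonneg (H.r_nonneg _) hi.le, ?_, ?_⟩
  · rw [div_le_one hi]
    refine (H.r_le _).trans (le_of_eq ?_)
    have : Finset.univ.filter (fun j => grp j = grp i) = {i} := by
      ext j
      simp only [Finset.mem_filter, Finset.mem_univ, true_and, Finset.mem_singleton]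
      exact ⟨hal j, fun h => by rw [h]⟩
    rw [this, Finset.sum_singleton]
  · intro c hc
    rw [H.rate (grp i) c hc (c i / dh i) (fun j hj => by
      rw [hal j hj]; field_simp)]
    ring

end Crest.Agent.R116.De219
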