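import Crest.Agent.R116.De4_219
import Crest.Agent.R136.Dg8_219

/-!
# R116: THE GENERAL DECOUPLING THEOREM over a natural family with any number of parameters, final
forms (helper219)

* `exists_planeE` : a generic plane of the natural family with ordered groups
* `ae_outE`       : general walls
* `leg_outE`, `leg_tanE` : `Net191.Leg M R` and `Ex926.IsTan`
-/

set_option autoImplicit false
set_option linter.unusedSectionVars false
set_option linter.unusedVariables false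

open Set Filter Topology Metric MeasureTheory

namespace Crest.Agent.R116.De219

open Crest.Agent.R136 Crest.Agent.R136.Dg219
open Crest.Agent.R138
open Dg262 (SupOn)
open Net191 (Mons Legal Leg)

variable {ι κ : Type*} [Fintype ι] [DecidableEq ι] [DecidableEq κ]
variable {E : Type*} [NormedAddCommGroup E] [NormedSpace ℝ E] [FiniteDimensional ℝ E]

theorem exists_planeE {grp : ι → κ} {A : E →ₗ[ℝ] (ι → ℝ)} {n : κ → E →ₗ[ℝ] ℝ} {dh : ι → ℝ}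
    (hd : DirE grp A n dh) {e1 : E} (he : ∀ i, 0 < A e1 i) :
    ∃ (v : E) (g : ι → ℕ) (w : ℕ → ℝ × ℝ), Dg262.Grp (A e1) (A v) g w ∧
      ∀ i j, grp i ≠ grp j → g i ≠ g j := by
  classical
  set J := {x : ι × ι // grp x.1 ≠ grp x.2} with hJ
  have hf : ∀ j : J, (n (grp j.1.1) e1) • n (grp j.1.2) - (n (grp j.1.2) e1) • n (grp j.1.1) ≠
      (0 : E →ₗ[ℝ] ℝ) := by
    rintro ⟨⟨i, j⟩, hij⟩ h0
    obtain ⟨v, hv1, hv2⟩ := hd.det i j hij
    have h1 := LinearMap.congr_fun h0 v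
    simp only [LinearMap.sub_apply, LinearMap.smul_apply, smul_eq_mul, LinearMap.zero_apply, hv1,
      mul_zero, zero_sub, neg_eq_zero] at h1
    have h2 : n (grp j) e1 ≠ 0 := by
      intro h3
      have := he j
      rw [hd.eq, h3, mul_zero] at this
      exact lt_irrefl _ this
    exact (mul_ne_zero h2 hv2) h1
  obtain ⟨v, hv⟩ := exists_avoid _ hf
  obtain ⟨g, w, hG, hgg⟩ := exists_grp (a := A e1) (b := A v) (p := 1) (q := 0)
    (fun i => by have := he i; simpa using this)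
  refine ⟨v, g, w, hG, ?_⟩
  intro i j hij hg
  have h1 := hgg i j hg
  have h2 := hv ⟨(i, j), hij⟩
  apply h2
  simp only [LinearMap.sub_apply, LinearMap.smul_apply, smul_eq_mul]
  simp only [hd.eq] at h1
  have h3 : dh i * dh j * (n (grp i) e1 * n (grp j) v - n (grp j) e1 * n (grp i) v) = 0 := by
    linear_combination h1
  exact (mul_eq_zero.1 h3).resolve_left (mul_pos (hd.pos i) (hd.pos j)).ne'

variable [MeasurableSpace E] [BorelSpace E]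

/-- **GENERAL DECOUPLING THEOREM over `E`** -/
theorem ae_outE {W : Type*} [Fintype W] (Q : Walls ι W) {x0 lo hi : ι → ℝ}
    {A : E →ₗ[ℝ] (ι → ℝ)} (μ : Measure E) [μ.IsAddHaarMeasure] {ν : (ι → ℝ) → ℝ} {K : ℝ}
    (hK : 0 ≤ K)
    (hν : ∀ p ∈ Q.P lo hi, ∀ q ∈ Q.P lo hi, |ν p - ν q| ≤ K * dist p q)
    (hm : ∀ p ∈ Q.P lo hi, ∀ q ∈ Q.P lo hi, p ≤ q →
      0 ≤ ν p - ν q ∧ ν p - ν q ≤ ∑ i, (q i - p i))
    (hs : SupOn ν (Q.P lo hi)) {grp : ι → κ} {n : κ → E →ₗ[ℝ] ℝ} {dh : ι → ℝ}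
    (hd : DirE grp A n dh) {e1 : E} (he : ∀ i, 0 < A e1 i) :
    ∀ᵐ z : E ∂μ, z ∈ OE Q lo hi x0 A → ∃ T : E →L[ℝ] ℝ,
      HasFDerivAt (fun z => ν (XE x0 A z)) T z ∧
      ∀ (h : ℕ → ℝ) (lam : (ι → ℝ) → ℝ),
        BUp (Q.P lo hi) (LE Q x0 A) ν (XE x0 A z) h lam →
        ∃ (φ : κ → (ι → ℝ) → ℝ) (r : κ → ℝ),
          OutE grp (LE Q x0 A) dh n lam (T : E →ₗ[ℝ] ℝ) φ r := by
  obtain ⟨v, g, w, hG, hgg⟩ := exists_planeE hd he
  have hc := crossAE μ hK hν hs hG (isOpen_OE (Q := Q) (lo := lo) (hi := hi) (x0 := x0) (A := A))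
    (isOpen_DE (Q := Q) (x0 := x0) (A := A)) (convex_DE (Q := Q) (x0 := x0) (A := A))
    (legUE (Q := Q) (lo := lo) (hi := hi) (x0 := x0) (A := A))
  refine outE_of_cross Q μ hK hν hm hs hd ?_
  unfold CrossAE at hc ⊢
  filter_upwards [hc] with z hz hzO hl h0 ht lam Bf hlam
  have h1 := hz hzO hl h0 ht lam Bf hlam
  exact fun i j hij => h1 i j (hgg i j hij)

/-! ### the region of 191 and the tangents of 926 -/

variable {m : ℕ}

/-- **decoupling on `Leg M R` over `E`** -/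
theorem leg_outE (M : Mons m) {R : ℝ} (μ : Measure E) [μ.IsAddHaarMeasure]
    {ν : (Fin m → ℝ) → ℝ} {K : ℝ} (hK : 0 ≤ K)
    (hν : ∀ p ∈ Leg M R, ∀ q ∈ Leg M R, |ν p - ν q| ≤ K * ‖p - q‖)
    (hm : ∀ p ∈ Leg M R, ∀ q ∈ Leg M R, p ≤ q → ν q ≤ ν p ∧ ν p - ν q ≤ ∑ i, (q i - p i))
    (hs : ∀ p ∈ Leg M R, ∀ q ∈ Leg M R, p ⊓ q ∈ Leg M R → ν p + ν q ≤ ν (p ⊔ q) + ν (p ⊓ q))
    {x0 : Fin m → ℝ} {A : E →ₗ[ℝ] (Fin m → ℝ)} {grp : Fin m → κ} {n : κ → E →ₗ[ℝ] ℝ}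
    {dh : Fin m → ℝ} (hd : DirE grp A n dh) {e1 : E} (he : ∀ i, 0 < A e1 i) :
    ∀ᵐ z : E ∂μ, z ∈ OE (mw M) (fun _ => 0) (fun _ => R) x0 A → ∃ T : E →L[ℝ] ℝ,
      HasFDerivAt (fun z => ν (XE x0 A z)) T z ∧
      ∀ (h : ℕ → ℝ), (∀ l, 0 < h l) → Tendsto h atTop (𝓝 0) → ∀ lam : (Fin m → ℝ) → ℝ,
        Ex926.IsTan (Leg M R) (LE (mw M) x0 A) ν (fun _ => XE x0 A z) h lam →
        ∃ (φ : κ → (Fin m → ℝ) → ℝ) (r : κ → ℝ),
          OutE grp (LE (mw M) x0 A) dh n lam (T : E →ₗ[ℝ] ℝ) φ r := by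
  have e := mw_P M R
  have key := ae_outE (mw M) (lo := fun _ => 0) (hi := fun _ => R) (x0 := x0) (ν := ν) μ hK
    (by rw [e]; intro p hp q hq; rw [dist_eq_norm]; exact hν p hp q hq)
    (by
      rw [e]; intro p hp q hq hpq
      have := hm p hp q hq hpq
      exact ⟨by linarith [this.1], this.2⟩)
    (by rw [e]; intro p hp q hq h1 h2; exact hs p hp q hq h1) hd he
  filter_upwards [key] with z hz hzO
  obtain ⟨T, hT, H⟩ := hz hzO
  refine ⟨T, hT, fun h hpos h0 lam ht => H h lam ?_⟩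
  rw [e]
  exact bup_of_tan hpos h0 ht

/-- local legality at a point of the natural family -/
theorem leg_legalE (M : Mons m) {R : ℝ} {x0 : Fin m → ℝ} {A : E →ₗ[ℝ] (Fin m → ℝ)} {z : E}
    (hz : z ∈ OE (mw M) (fun _ => 0) (fun _ => R) x0 A) (C : ℝ) :
    ∃ h0 : ℝ, 0 < h0 ∧ ∀ h : ℝ, 0 < h → h < h0 → ∀ c ∈ LE (mw M) x0 A, ‖c‖ ≤ C →
      XE x0 A z + h • c ∈ Leg M R := by
  obtain ⟨ε, hε, H⟩ := legalE hz C
  rw [mw_P] at H
  exact ⟨ε, hε, fun h hh hhe c hc hcC => H z (by rw [dist_self]; exact hε) h hh hhe c hc hcC⟩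

/-- **tangents exist** along a subsequence of every sequence of scales -/
theorem leg_tanE (M : Mons m) {R : ℝ} {ν : (Fin m → ℝ) → ℝ} {K : ℝ} (hK : 0 ≤ K)
    (hν : ∀ p ∈ Leg M R, ∀ q ∈ Leg M R, |ν p - ν q| ≤ K * ‖p - q‖)
    {x0 : Fin m → ℝ} {A : E →ₗ[ℝ] (Fin m → ℝ)} {z : E}
    (hz : z ∈ OE (mw M) (fun _ => 0) (fun _ => R) x0 A)
    {h : ℕ → ℝ} (hpos : ∀ l, 0 < h l) (h0 : Tendsto h atTop (𝓝 0)) :
    ∃ ψ : ℕ → ℕ, StrictMono ψ ∧ ∃ lam : (Fin m → ℝ) → ℝ,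
      Ex926.IsTan (Leg M R) (LE (mw M) x0 A) ν (fun _ => XE x0 A z) (fun l => h (ψ l)) lam :=
  AeT501.exists_tangent isClosed_LE hK hν (fun C => leg_legalE M hz C) hpos h0
    (coneE (Q := mw M)).zero

end Crest.Agent.R116.De219
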