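import Crest.Agent.R116.DeDef_295
import Crest.Agent.R138.Wpk13_685

/-!
# R116 (S0155), wave side, DECc, part 2: members with dyadic sides (helper295)

* elementary facts on `TT`, `Adm`, `pbx`; measurability of the members;
* phase space `Ph3`, energy measure `mu3`;
* discrete density `DE3` (dyadic sides, finitely many shapes) ⟹ density `Dsc` (all sides);
* total energy from the discrete density (finite net of flat members).
-/

set_option autoImplicit false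
set_option linter.unusedSectionVars false
set_option linter.unusedVariables false

open MeasureTheory FourierTransform
open scoped ContDiff ENNReal

namespace Crest.Agent.R116.De295

open Crest.Agent.R138.Defs (E2 ee)
open Crest.Agent.R138.Wpk685 (cen caps sg sg_ge sg_mono sg_le_one exists_side rp_facts)
open Crest.Agent.R116.CDef480
open Crest.Agent.R116.WC188
open Crest.Agent.R116.LZg725 (Cf)
open Crest.Agent.R116.Bas367 (Bsc)

/-! ### the function `TT` -/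

theorem TT_sq (κ s r : ℝ) : s ^ 2 ≤ TT κ s r := le_max_left _ _

theorem TT_inv (κ s r : ℝ) : (κ * r)⁻¹ ≤ TT κ s r := le_max_right _ _

theorem TT_pos {κ s r : ℝ} (hs : 0 < s) : 0 < TT κ s r :=
  lt_of_lt_of_le (pow_pos hs 2) (TT_sq κ s r)

theorem TT_mono {κ s s' r : ℝ} (hs : 0 ≤ s) (h : s ≤ s') : TT κ s r ≤ TT κ s' r :=
  max_le_max (pow_le_pow_left₀ hs h 2) le_rfl

theorem TT_two {κ s s' r : ℝ} (hs : 0 < s) (hκ : 0 ≤ (κ * r)⁻¹) (h : s' ≤ 2 * s) (hs' : 0 ≤ s') :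
    TT κ s' r ≤ 4 * TT κ s r := by
  refine max_le ?_ ?_
  · calc s' ^ 2 ≤ (2 * s) ^ 2 := pow_le_pow_left₀ hs' h 2
      _ = 4 * s ^ 2 := by ring
      _ ≤ 4 * TT κ s r := by have := TT_sq κ s r; linarith
  · have := TT_inv κ s r
    linarith

theorem TT_le_one {κ s r : ℝ} (hs : 0 ≤ s) (hs1 : s ≤ 1) (h : 1 ≤ κ * r) : TT κ s r ≤ 1 :=
  max_le (pow_le_one₀ hs hs1) (inv_le_one_of_one_le₀ h)

/-- the ratio `s / TT` loses at most a factor `2` on a dyadic interval. -/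
theorem ratio_two {κ s s' r : ℝ} (hs : 0 < s) (hκ : 0 < κ * r) (h1 : s ≤ s') (h2 : s' ≤ 2 * s) :
    s / TT κ s r ≤ 2 * (s' / TT κ s' r) := by
  have hs' : 0 < s' := hs.trans_le h1
  have hT := TT_pos (κ := κ) (r := r) hs
  have hT' := TT_pos (κ := κ) (r := r) hs'
  rw [← mul_div_assoc, div_le_div_iff₀ hT hT']
  have e1 := TT_sq κ s r
  have e2 := TT_inv κ s r
  rcases le_total (s' ^ 2) ((κ * r)⁻¹) with h | h
  · have e : TT κ s' r = (κ * r)⁻¹ := max_eq_right h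
    rw [e]
    calc s * (κ * r)⁻¹ ≤ s * TT κ s r := by gcongr
      _ ≤ s' * TT κ s r := by gcongr
      _ ≤ 2 * s' * TT κ s r := by nlinarith [mul_pos hs' hT]
  · have e : TT κ s' r = s' ^ 2 := max_eq_left h
    rw [e]
    calc s * s' ^ 2 = s' * (s * s') := by ring
      _ ≤ s' * (s * (2 * s)) := by gcongr
      _ = 2 * s' * s ^ 2 := by ring
      _ ≤ 2 * s' * TT κ s r := by gcongr

/-! ### admissibility -/

theorem adm_mono {M M' κ s1 sg T R : ℝ} {c : E2} {X0 : E3} {f : Cf E2}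
    (h : Adm M κ s1 sg T R c X0 f) (hM : M ≤ M') (hκ : 0 < κ) (h1 : 0 < s1) (hs : 0 < sg)
    (hT : 0 < T) (hR : 0 < R) : Adm M' κ s1 sg T R c X0 f := by
  refine ⟨h.disc, fun s hs' => (h.ny s hs').trans ?_, fun s hs' => (h.cmp s hs').trans ?_,
    h.ld.trans ?_, h.ev.trans ?_⟩
  · gcongr
  · gcongr
  · gcongr
  · gcongr

theorem adm_dya {M κ s1 s2 s1' s2' r : ℝ} {c : E2} {X0 : E3} {f : Cf E2}
    (h : Adm M κ s1 s2 (TT κ s2 r) r c X0 f) (hM : 0 ≤ M) (hκ : 0 < κ) (hr : 0 < r)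
    (h1 : 0 < s1) (hs : 0 < s2) (h11 : s1 ≤ s1') (h21 : s2 ≤ s2') (h22 : s2' ≤ 2 * s2) :
    Adm (2 * M) κ s1' s2' (TT κ s2' r) r c X0 f := by
  have hM2 : M ≤ 2 * M := by linarith
  have hs1' : 0 < s1' := h1.trans_le h11
  have hs2' : 0 < s2' := hs.trans_le h21
  refine ⟨h.disc, fun s hs' => (h.ny s hs').trans ?_, fun s hs' => (h.cmp s hs').trans ?_,
    h.ld.trans ?_, h.ev.trans ?_⟩
  · have e := ratio_two (κ := κ) (r := r) hs (by positivity) h21 h22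
    calc M * s2 / TT κ s2 r = M * (s2 / TT κ s2 r) := by ring
      _ ≤ M * (2 * (s2' / TT κ s2' r)) := by gcongr
      _ = _ := by ring
  · calc M * (κ * s1 * r) ≤ M * (κ * s1' * r) := by gcongr
      _ ≤ 2 * M * (κ * s1' * r) := by gcongr
  · calc M * s2 ≤ M * s2' := by gcongr
      _ ≤ 2 * M * s2' := by gcongr
  · calc M * s2 * r ≤ M * s2' * r := by gcongr
      _ ≤ 2 * M * s2' * r := by gcongr

theorem mset_mono {sg sg' T T' R s1 s1' : ℝ} {c : E2} {X0 : E3} {f : Cf E2} {C : E2}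
    (hR : 0 ≤ R) (h1 : sg ≤ sg') (h2 : T ≤ T') (h3 : s1 ≤ s1') :
    mset sg T R s1 c X0 f C ⊆ mset sg' T' R s1' c X0 f C := by
  rintro X ⟨a1, a2, a3, a4, a5⟩
  exact ⟨a1.trans h1, a2.trans (by gcongr), a3.trans (by gcongr), a4.trans (by gcongr),
    a5.trans h3⟩

theorem ev_cont (f : Cf E2) : Continuous fun X : E3 => f.ev (lat X) (X 2) 0 := by
  have h1 : Continuous fun X : E3 => X 2 := (EuclideanSpace.proj (𝕜 := ℝ) (2 : Fin 3)).continuous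
  have h2 : Continuous fun X : E3 => lat X := latL.continuous
  unfold Cf.ev
  fun_prop

theorem ld_cont (f : Cf E2) (C : E2) : Continuous fun X : E3 => f.ld C (lat X) (X 2) 0 := by
  have h1 : Continuous fun X : E3 => X 2 := (EuclideanSpace.proj (𝕜 := ℝ) (2 : Fin 3)).continuous
  have h2 : Continuous fun X : E3 => lat X := latL.continuous
  unfold Cf.ld
  fun_prop

theorem nrm_cont (C : E2) : Continuous fun X : E3 => nrm C X 0 := by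
  have h1 : Continuous fun X : E3 => X 2 := (EuclideanSpace.proj (𝕜 := ℝ) (2 : Fin 3)).continuous
  have h2 : Continuous fun X : E3 => lat X := latL.continuous
  unfold nrm
  fun_prop

theorem mset_closed (sg T R s1 : ℝ) (c : E2) (X0 : E3) (f : Cf E2) (C : E2) :
    IsClosed (mset sg T R s1 c X0 f C) := by
  have h2 : Continuous fun X : E3 => lat X := latL.continuous
  have e : mset sg T R s1 c X0 f C = {X | ‖C - c‖ ≤ sg} ∩ ({X | ‖lat X - lat X0‖ ≤ sg * R} ∩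
      ({X | |nrm c X 0 - nrm c X0 0| ≤ T * R} ∩ ({X | |f.ev (lat X) (X 2) 0| ≤ s1 * R} ∩
        {X | |f.ld C (lat X) (X 2) 0| ≤ s1}))) := rfl
  rw [e]
  refine isClosed_const.inter ((isClosed_le (h2.sub continuous_const).norm continuous_const).inter
    ((isClosed_le ((nrm_cont c).sub continuous_const).abs continuous_const).inter
    ((isClosed_le (ev_cont f).abs continuous_const).inter
      (isClosed_le (ld_cont f C).abs continuous_const))))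

theorem mset_meas (sg T R s1 : ℝ) (c : E2) (X0 : E3) (f : Cf E2) (C : E2) :
    MeasurableSet (mset sg T R s1 c X0 f C) := (mset_closed sg T R s1 c X0 f C).measurableSet

theorem pbx_meas (κ A r s1 s2 : ℝ) (c : E2) (X0 : E3) (f : Cf E2) (m : ℤ × ℤ) :
    MeasurableSet (pbx κ A r s1 s2 c X0 f m) := mset_meas _ _ _ _ _ _ _ _

theorem pbx_mono {κ A A' r s1 s2 s1' s2' : ℝ} {c : E2} {X0 : E3} {f : Cf E2} {m : ℤ × ℤ}
    (hr : 0 ≤ r) (hA0 : 0 ≤ A) (hA : A ≤ A') (h01 : 0 ≤ s1) (h02 : 0 < s2) (h1 : s1 ≤ s1')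
    (h2 : s2 ≤ s2') : pbx κ A r s1 s2 c X0 f m ⊆ pbx κ A' r s1' s2' c X0 f m := by
  have hT := TT_pos (κ := κ) (r := r) h02
  have hT2 := TT_mono (κ := κ) (r := r) h02.le h2
  have hA' : 0 ≤ A' := hA0.trans hA
  refine mset_mono hr (by gcongr) (by gcongr) (by gcongr)

/-! ### costs -/

theorem scost_pos {κ s1 s2 r : ℝ} (h1 : 0 < s1) (h2 : 0 < s2) (hr : 0 < r) :
    0 < scost κ s1 s2 r := by
  have := TT_pos (κ := κ) (r := r) h2
  unfold scost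
  positivity

theorem scost_two {κ s1 s2 s1' s2' r : ℝ} (h1 : 0 < s1) (h2 : 0 < s2) (hr : 0 < r) (hκ : 0 < κ)
    (h11 : s1' ≤ 2 * s1) (h21 : s2' ≤ 2 * s2) (h12 : 0 ≤ s1') (h22 : 0 ≤ s2') :
    scost κ s1' s2' r ≤ 16 * scost κ s1 s2 r := by
  have hT := TT_pos (κ := κ) (r := r) h2
  have hT2 := TT_two (κ := κ) (r := r) h2 (by positivity) h21 h22
  have hT0 : 0 ≤ TT κ s2' r := (by positivity : (0:ℝ) ≤ s2' ^ 2).trans (TT_sq _ _ _)
  unfold scost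
  calc s1' * s2' * TT κ s2' r * r ^ 3 ≤ (2 * s1) * (2 * s2) * (4 * TT κ s2 r) * r ^ 3 := by gcongr
    _ = _ := by ring

/-! ### phase space -/

/-- phase space. -/
abbrev Ph3 : Type := (ℤ × ℤ) × E3

/-- slices. -/
def sli3 (U : Set Ph3) (m : ℤ × ℤ) : Set E3 := {y | (m, y) ∈ U}

theorem mem_sli3 {U : Set Ph3} {m : ℤ × ℤ} {y : E3} : y ∈ sli3 U m ↔ (m, y) ∈ U := Iff.rfl

theorem sli3_meas {U : Set Ph3} (hU : MeasurableSet U) (m : ℤ × ℤ) : MeasurableSet (sli3 U m) :=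
  measurable_prodMk_left hU

theorem meas_of_sli3 {U : Set Ph3} (h : ∀ m, MeasurableSet (sli3 U m)) : MeasurableSet U := by
  have h1 : U = ⋃ m : ℤ × ℤ, ({m} : Set (ℤ × ℤ)) ×ˢ sli3 U m := by
    ext ⟨m, y⟩
    simp only [Set.mem_iUnion, Set.mem_prod, Set.mem_singleton_iff, exists_eq_left', mem_sli3]
  rw [h1]
  exact MeasurableSet.iUnion fun m => (measurableSet_singleton m).prod (h m)

/-- energy measure on phase space. -/
noncomputable def mu3 (ρ : ℝ) (g : E3 → ℂ) : Measure Ph3 :=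
  ∑ m ∈ caps ρ, (volume.withDensity (fun y : E3 => ‖umc ρ g m y‖ₑ ^ 2)).map (fun y => (m, y))

theorem mu3_apply (ρ : ℝ) (g : E3 → ℂ) {U : Set Ph3} (hU : MeasurableSet U) :
    mu3 ρ g U = enc ρ g (sli3 U) := by
  unfold mu3 enc
  rw [Measure.finsetSum_apply]
  refine Finset.sum_congr rfl fun m _ => ?_
  rw [Measure.map_apply measurable_prodMk_left hU]
  exact withDensity_apply _ (sli3_meas hU m)

/-! ### test sets with dyadic sides -/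

/-- a test set: frame of the member, exponents of the sides. -/
structure Ts where
  c : E2
  X0 : E3
  f : Cf E2
  a0 : ℕ
  a1 : ℕ

/-- phase box of a test set. -/
noncomputable def pbt (κ r : ℝ) (p : Ts) (m : ℤ × ℤ) : Set E3 :=
  pbx κ 1 r (sg (r ^ (-(1/2) : ℝ)) p.a0) (sg (r ^ (-(1/2) : ℝ)) p.a1) p.c p.X0 p.f m

/-- cost of a test set, with the reward. -/
noncomputable def cs3 (q κ r : ℝ) (a0 a1 : ℕ) : ℝ :=
  (sg (r ^ (-(1/2) : ℝ)) a1) ^ q *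
    scost κ (sg (r ^ (-(1/2) : ℝ)) a0) (sg (r ^ (-(1/2) : ℝ)) a1) r

/-- admissible test sets. -/
def OkT (M κ r : ℝ) (n : ℕ) (p : Ts) : Prop := p.a0 ≤ p.a1 ∧ p.a1 ≤ n ∧
  Adm M κ (sg (r ^ (-(1/2) : ℝ)) p.a0) (sg (r ^ (-(1/2) : ℝ)) p.a1)
    (TT κ (sg (r ^ (-(1/2) : ℝ)) p.a1) r) r p.c p.X0 p.f

/-- discrete density. -/
def DE3 (M κ q r : ℝ) (g : E3 → ℂ) (n : ℕ) (S : ℤ × ℤ → Set E3) (Δ : ℝ) : Prop :=
  ∀ p : Ts, OkT M κ r n p →
    enc (r ^ (-(1/2) : ℝ)) g (fun m => S m ∩ pbt κ r p m) ≤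
      ENNReal.ofReal (Δ * cs3 q κ r p.a0 p.a1)

theorem DE3.mono {M κ q r : ℝ} {g : E3 → ℂ} {n : ℕ} {S S' : ℤ × ℤ → Set E3} {Δ : ℝ}
    (H : DE3 M κ q r g n S Δ) (hS : ∀ m ∈ caps (r ^ (-(1/2) : ℝ)), S' m ⊆ S m) :
    DE3 M κ q r g n S' Δ :=
  fun p h1 => (Bas367.enc_mono g fun m hm => Set.inter_subset_inter_left _ (hS m hm)).trans (H p h1)

theorem cs3_pos {q κ r : ℝ} (hr : 1 ≤ r) (a0 a1 : ℕ) : 0 < cs3 q κ r a0 a1 := by
  obtain ⟨hρ, hρ1, hρ2⟩ := rp_facts hr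
  have h0 := hρ.trans_le (sg_ge hρ hρ1 a0)
  have h1 := hρ.trans_le (sg_ge hρ hρ1 a1)
  unfold cs3
  exact mul_pos (Real.rpow_pos_of_pos h1 _) (scost_pos h0 h1 (by linarith))

theorem cs3_ge {q κ r : ℝ} (hq : 0 ≤ q) (hr : 1 ≤ r) (a0 a1 : ℕ) :
    (r ^ (-(1/2) : ℝ)) ^ q ≤ cs3 q κ r a0 a1 := by
  obtain ⟨hρ, hρ1, hρ2⟩ := rp_facts hr
  have hr0 : 0 < r := by linarith
  unfold cs3
  set ρ : ℝ := r ^ (-(1/2) : ℝ) with hρdef
  have e0 := sg_ge hρ hρ1 a0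
  have e1 := sg_ge hρ hρ1 a1
  have e2 : ρ ^ q ≤ (sg ρ a1) ^ q := Real.rpow_le_rpow hρ.le e1 hq
  have e3 : 1 ≤ scost κ (sg ρ a0) (sg ρ a1) r := by
    unfold scost
    have e4 : ρ ^ 2 ≤ TT κ (sg ρ a1) r := (pow_le_pow_left₀ hρ.le e1 2).trans (TT_sq _ _ _)
    calc (1:ℝ) ≤ r := hr
      _ = ρ ^ 2 * ρ ^ 2 * r ^ 3 := by rw [hρ2]; field_simp
      _ = ρ * ρ * ρ ^ 2 * r ^ 3 := by ring
      _ ≤ _ := by
        have hs0 : 0 < sg ρ a0 := hρ.trans_le e0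
        have hs1 : 0 < sg ρ a1 := hρ.trans_le e1
        gcongr
  have e6 : 0 < ρ ^ q := Real.rpow_pos_of_pos hρ _
  calc ρ ^ q = ρ ^ q * 1 := (mul_one _).symm
    _ ≤ _ := mul_le_mul e2 e3 zero_le_one (e6.le.trans e2)

/-- all sides from dyadic sides. -/
theorem dsc_of_de3 {M κ q r : ℝ} (hM : 0 ≤ M) (hκ : 0 < κ) (hq : 0 ≤ q) (hr : 1 ≤ r) {g : E3 → ℂ}
    {n : ℕ} (hn : 1 ≤ 2 ^ n * r ^ (-(1/2) : ℝ)) {S : ℤ × ℤ → Set E3} {Δ : ℝ} (hΔ : 0 ≤ Δ)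
    (H : DE3 (2 * M) κ q r g n S Δ) : Dsc M κ q r g S (2 ^ (q + 4) * Δ) := by
  intro c X0 f s1 s2 hsd hadm
  obtain ⟨hρ, hρ1, hρ2⟩ := rp_facts hr
  have hr0 : 0 < r := by linarith
  have hs1 : 0 < s1 := hρ.trans_le hsd.lo
  have hs2 : 0 < s2 := hs1.trans_le hsd.le
  obtain ⟨a0, ha0n, ha01, ha02, ha03⟩ := exists_side hρ hn hsd.lo (hsd.le.trans hsd.hi)
  obtain ⟨a1, ha1n, ha11, ha12, ha13⟩ := exists_side hρ hn (hsd.lo.trans hsd.le) hsd.hi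
  have ha : a0 ≤ a1 := ha03 a1 (hsd.le.trans ha11)
  have h1 := H ⟨c, X0, f, a0, a1⟩ ⟨ha, ha1n, adm_dya hadm hM hκ hr0 hs1 hs2 ha01 ha11 ha12⟩
  refine ((Bas367.enc_mono g fun m _ => ?_).trans h1).trans (ENNReal.ofReal_le_ofReal ?_)
  · exact Set.inter_subset_inter_right _ (pbx_mono hr0.le zero_le_one le_rfl hs1.le hs2 ha01 ha11)
  · have hg0 : 0 < sg (r ^ (-(1/2) : ℝ)) a0 := hρ.trans_le (sg_ge hρ hρ1 _)
    have hg1 : 0 < sg (r ^ (-(1/2) : ℝ)) a1 := hρ.trans_le (sg_ge hρ hρ1 _)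
    have h14 : (sg (r ^ (-(1/2) : ℝ)) a1) ^ q ≤ (2 * s2) ^ q := by
      gcongr
    have h15 := scost_two (κ := κ) hs1 hs2 hr0 hκ ha02 ha12 hg0.le hg1.le
    have h16 : (2 * s2) ^ q = 2 ^ q * s2 ^ q := Real.mul_rpow (by norm_num) hs2.le
    have h17 : (2:ℝ) ^ (q + 4) = 2 ^ q * 16 := by
      rw [Real.rpow_add (by norm_num)]; norm_num
    have h18 := scost_pos (κ := κ) hg0 hg1 hr0
    have h19 := scost_pos (κ := κ) hs1 hs2 hr0
    unfold cs3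
    calc Δ * ((sg (r ^ (-(1/2) : ℝ)) a1) ^ q *
          scost κ (sg (r ^ (-(1/2) : ℝ)) a0) (sg (r ^ (-(1/2) : ℝ)) a1) r) ≤
        Δ * ((2 * s2) ^ q * (16 * scost κ s1 s2 r)) := by
          gcongr
      _ = _ := by
          rw [h16, h17]; ring

/-! ### total energy -/

/-- the first unit vector. -/
noncomputable def e1v : E2 := EuclideanSpace.single 0 1

theorem norm_e1v : ‖e1v‖ = 1 := by simp [e1v]

/-- flat conformal function vanishing on the ray of slope `c` through `(X0, 0)`. -/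
noncomputable def flt (c : E2) (X0 : E3) : Cf E2 :=
  ⟨-inner ℝ e1v (lat X0), inner ℝ e1v c, e1v, 0, 0⟩

theorem flt_ev (c : E2) (X0 : E3) (x : E2) (y : ℝ) :
    (flt c X0).ev x y 0 = inner ℝ e1v (x - lat X0) := by
  unfold flt Cf.ev
  simp only [inner_sub_right]
  ring

theorem flt_ld (c : E2) (X0 : E3) (C x : E2) (y : ℝ) :
    (flt c X0).ld C x y 0 = -inner ℝ e1v (C - c) := by
  unfold flt Cf.ld Cf.ny
  simp only [inner_sub_right, mul_zero, zero_smul, add_zero, zero_mul]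
  ring

theorem flt_adm {M κ r : ℝ} (hM : 0 ≤ M) (hκ : 0 < κ) (hr : 0 < r) (c : E2) (X0 : E3) :
    Adm M κ 1 1 (TT κ 1 r) r c X0 (flt c X0) := by
  have hT := TT_pos (κ := κ) (r := r) one_pos
  refine ⟨?_, fun s _ => ?_, fun s _ => ?_, ?_, ?_⟩
  · unfold Cf.disc flt
    simp [norm_e1v]
  · have : (flt c X0).ny s = 0 := by unfold flt Cf.ny; simp
    rw [this, abs_zero]
    positivity
  · have : (flt c X0).ny s = 0 := by unfold flt Cf.ny; simp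
    rw [this, abs_zero]
    positivity
  · rw [flt_ld]; simp; exact hM
  · rw [flt_ev]; simp; positivity

/-- nearest lattice point of the plane. -/
theorem exists_lat2 {w : ℝ} (hw : 0 < w) {K : ℝ} (x : E2) (hx : ‖x‖ ≤ K * w) :
    ∃ j ∈ Finset.Icc (-⌈K + 1⌉) ⌈K + 1⌉ ×ˢ Finset.Icc (-⌈K + 1⌉) ⌈K + 1⌉,
      ‖x - w • (!₂[((j : ℤ × ℤ).1 : ℝ), (j.2 : ℝ)] : E2)‖ ≤ w := by
  have key : ∀ t : ℝ, |t| ≤ K * w → |t - w * (round (t / w) : ℤ)| ≤ w / 2 ∧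
      round (t / w) ∈ Finset.Icc (-⌈K + 1⌉) ⌈K + 1⌉ := by
    intro t ht
    have h1 := abs_sub_round (t / w)
    set z := round (t / w) with hz
    constructor
    · have h2 : t - w * z = (t / w - z) * w := by field_simp
      rw [h2, abs_mul, abs_of_pos hw]
      nlinarith
    · have h3 : |t / w| ≤ K := by
        rw [abs_div, abs_of_pos hw, div_le_iff₀ hw]
        exact ht
      have h4 : |(z:ℝ)| ≤ K + 1 := by
        have h5 : (z:ℝ) = t / w - (t / w - z) := by ring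
        rw [h5]
        refine (abs_sub _ _).trans ?_
        linarith
      have h6 : |(z:ℝ)| ≤ ⌈K + 1⌉ := h4.trans (Int.le_ceil _)
      have h7 : |z| ≤ ⌈K + 1⌉ := by exact_mod_cast h6
      rw [Finset.mem_Icc]
      exact abs_le.1 h7
  have hx0 : |x 0| ≤ K * w := (PiLp.norm_apply_le x 0).trans hx
  have hx1 : |x 1| ≤ K * w := (PiLp.norm_apply_le x 1).trans hx
  obtain ⟨h1, h2⟩ := key _ hx0
  obtain ⟨h3, h4⟩ := key _ hx1
  refine ⟨(round (x 0 / w), round (x 1 / w)), Finset.mem_product.2 ⟨h2, h4⟩, ?_⟩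
  refine (sq_le_sq₀ (norm_nonneg _) hw.le).1 ?_
  rw [normsq2]
  simp only [PiLp.sub_apply, PiLp.smul_apply, smul_eq_mul]
  have e0 : (x 0 - w * ((round (x 0 / w) : ℤ) : ℝ)) ^ 2 ≤ (w / 2) ^ 2 := by
    rw [← sq_abs]; exact pow_le_pow_left₀ (abs_nonneg _) h1 2
  have e1 : (x 1 - w * ((round (x 1 / w) : ℤ) : ℝ)) ^ 2 ≤ (w / 2) ^ 2 := by
    rw [← sq_abs]; exact pow_le_pow_left₀ (abs_nonneg _) h3 2
  show (x 0 - w * ((round (x 0 / w) : ℤ) : ℝ)) ^ 2 + (x 1 - w * ((round (x 1 / w) : ℤ) : ℝ)) ^ 2 ≤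
    w ^ 2
  nlinarith

/-- index set of the net of flat members. -/
noncomputable def NJ (K : ℝ) : Finset (((ℤ × ℤ) × (ℤ × ℤ)) × ℤ) :=
  ((Finset.Icc (-⌈(6:ℝ) + 1⌉) ⌈(6:ℝ) + 1⌉ ×ˢ Finset.Icc (-⌈(6:ℝ) + 1⌉) ⌈(6:ℝ) + 1⌉) ×ˢ
    (Finset.Icc (-⌈K + 1⌉) ⌈K + 1⌉ ×ˢ Finset.Icc (-⌈K + 1⌉) ⌈K + 1⌉)) ×ˢ
    Finset.Icc (-⌈9 * K + 1⌉) ⌈9 * K + 1⌉

/-- number of flat members in the net. -/
noncomputable def NB3 (K : ℝ) : ℕ := (NJ K).card

/-- direction of the flat member of index `j`. -/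
noncomputable def cj (j : ((ℤ × ℤ) × (ℤ × ℤ)) × ℤ) : E2 := !₂[(j.1.1.1 : ℝ), (j.1.1.2 : ℝ)]

/-- centre of the flat member of index `j`. -/
noncomputable def Xj (r : ℝ) (j : ((ℤ × ℤ) × (ℤ × ℤ)) × ℤ) : E3 :=
  pt (r • (!₂[(j.1.2.1 : ℝ), (j.1.2.2 : ℝ)] : E2))
    (r * j.2 - inner ℝ (cj j) (r • (!₂[(j.1.2.1 : ℝ), (j.1.2.2 : ℝ)] : E2)))

theorem nrm_Xj (r : ℝ) (j : ((ℤ × ℤ) × (ℤ × ℤ)) × ℤ) : nrm (cj j) (Xj r j) 0 = r * j.2 := by
  unfold nrm Xj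
  rw [lat_pt, pt_two]
  ring

theorem exists_int {w : ℝ} (hw : 0 < w) {K : ℝ} (t : ℝ) (ht : |t| ≤ K * w) :
    ∃ z ∈ Finset.Icc (-⌈K + 1⌉) ⌈K + 1⌉, |t - w * (z : ℤ)| ≤ w := by
  have h1 := abs_sub_round (t / w)
  refine ⟨round (t / w), ?_, ?_⟩
  · have h3 : |t / w| ≤ K := by
      rw [abs_div, abs_of_pos hw, div_le_iff₀ hw]
      exact ht
    have h4 : |((round (t / w) : ℤ):ℝ)| ≤ K + 1 := by
      have h5 : ((round (t / w) : ℤ):ℝ) = t / w - (t / w - (round (t / w) : ℤ)) := by ring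
      rw [h5]
      refine (abs_sub _ _).trans ?_
      linarith
    have h6 : |((round (t / w) : ℤ):ℝ)| ≤ ⌈K + 1⌉ := h4.trans (Int.le_ceil _)
    have h7 : |(round (t / w) : ℤ)| ≤ ⌈K + 1⌉ := by exact_mod_cast h6
    rw [Finset.mem_Icc]
    exact abs_le.1 h7
  · have h2 : t - w * (round (t / w) : ℤ) = (t / w - (round (t / w) : ℤ)) * w := by field_simp
    rw [h2, abs_mul, abs_of_pos hw]
    nlinarith

theorem flat_cover {κ r : ℝ} (hr : 0 < r) {K : ℝ} (hK : 0 ≤ K) {C : E2} (hC : ‖C‖ ≤ 6) {y : E3}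
    (hy : ‖y‖ ≤ K * r) : ∃ j ∈ NJ K,
      y ∈ mset (1 * 1) (1 * TT κ 1 r) r (1 * 1) (cj j) (Xj r j) (flt (cj j) (Xj r j)) C := by
  obtain ⟨j1, hj1, h1⟩ := exists_lat2 (K := 6) one_pos C (by linarith)
  have hly : ‖lat y‖ ≤ ‖y‖ := by
    have h3 := normsq3 y
    have h4 : ‖lat y‖ ^ 2 ≤ ‖y‖ ^ 2 := by nlinarith [sq_nonneg (y 2)]
    exact (sq_le_sq₀ (norm_nonneg _) (norm_nonneg _)).1 h4
  obtain ⟨j2, hj2, h2⟩ := exists_lat2 (K := K) hr (lat y) (hly.trans hy)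
  have hc1 : ‖(!₂[(j1.1 : ℝ), (j1.2 : ℝ)] : E2)‖ ≤ 7 := by
    have e : (!₂[(j1.1 : ℝ), (j1.2 : ℝ)] : E2) = C - (C - (1:ℝ) • (!₂[(j1.1 : ℝ), (j1.2 : ℝ)] : E2)) := by
      rw [one_smul]; abel
    rw [e]
    refine (norm_sub_le _ _).trans ?_
    linarith
  have hn : |nrm (!₂[(j1.1 : ℝ), (j1.2 : ℝ)] : E2) y 0| ≤ (9 * K) * r := by
    unfold nrm
    have e1 : |y 2| ≤ K * r := (PiLp.norm_apply_le y 2).trans hy
    have e2 : |inner ℝ (!₂[(j1.1 : ℝ), (j1.2 : ℝ)] : E2) (lat y)| ≤ 7 * (K * r) := by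
      refine (abs_real_inner_le_norm _ _).trans ?_
      have := hly.trans hy
      gcongr
    have e3 : 0 ≤ K * r := by positivity
    have e4 := abs_add_le (y 2) (inner ℝ (!₂[(j1.1 : ℝ), (j1.2 : ℝ)] : E2) (lat y))
    have e5 : y 2 + inner ℝ (!₂[(j1.1 : ℝ), (j1.2 : ℝ)] : E2) (lat y) +
        0 * ‖(!₂[(j1.1 : ℝ), (j1.2 : ℝ)] : E2)‖ ^ 2 / 2 =
        y 2 + inner ℝ (!₂[(j1.1 : ℝ), (j1.2 : ℝ)] : E2) (lat y) := by ring
    rw [e5]
    linarith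
  obtain ⟨j3, hj3, h3⟩ := exists_int hr _ hn
  refine ⟨((j1, j2), j3), ?_, ?_⟩
  · exact Finset.mem_product.2 ⟨Finset.mem_product.2 ⟨hj1, hj2⟩, hj3⟩
  have hC' : ‖C - cj ((j1, j2), j3)‖ ≤ 1 := by
    unfold cj
    rw [one_smul] at h1
    exact h1
  have hlat : lat (Xj r ((j1, j2), j3)) = r • (!₂[(j2.1 : ℝ), (j2.2 : ℝ)] : E2) := by
    unfold Xj; rw [lat_pt]
  have hT1 : 1 ≤ TT κ 1 r := by
    have := TT_sq κ 1 r
    simpa using this
  refine ⟨by rw [one_mul]; exact hC', ?_, ?_, ?_, ?_⟩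
  · rw [hlat, one_mul, one_mul]; exact h2
  · rw [nrm_Xj, one_mul]
    refine le_trans ?_ (le_mul_of_one_le_left hr.le hT1)
    exact h3
  · rw [flt_ev, hlat]
    refine (abs_real_inner_le_norm _ _).trans ?_
    rw [norm_e1v, one_mul, one_mul, one_mul]
    exact h2
  · rw [flt_ld, abs_neg]
    refine (abs_real_inner_le_norm _ _).trans ?_
    rw [norm_e1v, one_mul, one_mul]
    exact hC'

theorem enc_cover {ρ : ℝ} {g : E3 → ℂ} {κ : Type*} (J : Finset κ) (S : ℤ × ℤ → Set E3)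
    (T : κ → ℤ × ℤ → Set E3) (h : ∀ m ∈ caps ρ, ∀ y ∈ S m, ∃ j ∈ J, y ∈ T j m) :
    enc ρ g S ≤ ∑ j ∈ J, enc ρ g (fun m => S m ∩ T j m) := by
  refine le_trans (Bas367.enc_mono g (T := fun m => ⋃ j ∈ J, (S m ∩ T j m)) fun m hm y hy => ?_)
    (Bas367.enc_biUnion_le ρ g J fun j m => S m ∩ T j m)
  obtain ⟨j, hj, hy2⟩ := h m hm y hy
  exact Set.mem_biUnion hj ⟨hy, hy2⟩

/-- total energy bound from the discrete density. -/
theorem tot_le3 {M κ q r : ℝ} (hM : 0 ≤ M) (hκ : 0 < κ) (hr : 1 ≤ r) (hκr : 1 ≤ κ * r)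
    {g : E3 → ℂ} {n : ℕ} (hn : 1 ≤ 2 ^ n * r ^ (-(1/2) : ℝ)) {S : ℤ × ℤ → Set E3} {K : ℝ}
    (hK : 0 ≤ K) (hS : ∀ m ∈ caps (r ^ (-(1/2) : ℝ)), ∀ y ∈ S m, ‖y‖ ≤ K * r)
    {Δ : ℝ} (hΔ : 0 ≤ Δ) (H : DE3 M κ q r g n S Δ) :
    enc (r ^ (-(1/2) : ℝ)) g S ≤ ENNReal.ofReal (NB3 K * (Δ * r ^ 3)) := by
  classical
  obtain ⟨hρ, hρ1, hρ2⟩ := rp_facts hr
  have hr0 : 0 < r := by linarith
  have hsn : sg (r ^ (-(1/2) : ℝ)) n = 1 := by unfold sg; rw [min_eq_right hn]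
  set tp : ((ℤ × ℤ) × (ℤ × ℤ)) × ℤ → Ts := fun j => ⟨cj j, Xj r j, flt (cj j) (Xj r j), n, n⟩
    with htp
  have hT1 : TT κ 1 r = 1 := le_antisymm (TT_le_one zero_le_one le_rfl hκr) (by
    have := TT_sq κ 1 r
    simpa using this)
  have step : enc (r ^ (-(1/2) : ℝ)) g S ≤ ∑ j ∈ NJ K, enc (r ^ (-(1/2) : ℝ)) g
      (fun m => S m ∩ pbt κ r (tp j) m) := by
    refine enc_cover (NJ K) S _ fun m hm y hy => ?_
    obtain ⟨j, hj, hj'⟩ := flat_cover (κ := κ) hr0 hK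
      (Crest.Agent.R138.Wpk685.caps_norm hρ hρ1 m hm) (hS m hm y hy)
    refine ⟨j, hj, ?_⟩
    unfold pbt pbx
    simp only [htp, hsn]
    exact hj'
  refine step.trans ?_
  have step3 : ∑ j ∈ NJ K, enc (r ^ (-(1/2) : ℝ)) g (fun m => S m ∩ pbt κ r (tp j) m) ≤
      ∑ j ∈ NJ K, ENNReal.ofReal (Δ * r ^ 3) := by
    refine Finset.sum_le_sum fun j _ => (H (tp j) ⟨le_rfl, le_rfl, ?_⟩).trans ?_
    · simp only [htp, hsn]
      exact flt_adm hM hκ hr0 _ _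
    · refine ENNReal.ofReal_le_ofReal (le_of_eq ?_)
      unfold cs3 scost
      simp only [htp, hsn, hT1]
      simp
  refine step3.trans ?_
  rw [Finset.sum_const, nsmul_eq_mul, ← ENNReal.ofReal_natCast,
    ← ENNReal.ofReal_mul (by positivity)]
  exact le_rfl

end Crest.Agent.R116.De295
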