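import Crest.Agent.R116.WDefC_188
import Crest.Agent.R138.Dom_878

/-!
# R116 (S0155), wave side, CHAIN-C (helper210): basic facts on `umc`, `enc`; DOMINATION

Port of `Dom_878`, `RR1_323` (R138). The label `k < n` dominates at the phase point `(m, y)` if
`‖umc ρ (H k) m y‖` is maximal; `argc` = first dominating label.
-/

set_option autoImplicit false

open MeasureTheory FourierTransform
open scoped ContDiff ENNReal

namespace Crest.Agent.R116.GlC210

open Crest.Agent.R138.Defs (E2 ee)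
open Crest.Agent.R138.Wpk685 (cen caps win fat cap)
open Crest.Agent.R116.CDef480 Crest.Agent.R116.WC188

/-! ### windows -/

theorem measurable_cap_slp {w : E2 → ℂ} (hw : Continuous w) (ρ : ℝ) (c : E2) :
    Measurable fun ζ : E3 => cap w c ρ (slp ζ) := by
  have h : Continuous (cap w c ρ) := by
    unfold Crest.Agent.R138.Wpk685.cap
    exact hw.comp (by fun_prop)
  exact h.measurable.comp measurable_slp

theorem measurable_capc (ρ : ℝ) (m : ℤ × ℤ) : Measurable (capc ρ m) :=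
  measurable_cap_slp Crest.Agent.R138.Wpk685.win_contDiff.continuous ρ _

theorem norm_capc_le (ρ : ℝ) (m : ℤ × ℤ) (ζ : E3) : ‖capc ρ m ζ‖ ≤ 1 := by
  unfold capc Crest.Agent.R138.Wpk685.cap
  exact Crest.Agent.R138.Wpk685.norm_win_le _

theorem capc_int {g : E3 → ℂ} (hg : Integrable g) (ρ : ℝ) (m : ℤ × ℤ) :
    Integrable fun ζ => capc ρ m ζ * g ζ :=
  hg.bdd_mul (measurable_capc ρ m).aestronglyMeasurable
    (Filter.Eventually.of_forall fun ζ => norm_capc_le ρ m ζ)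

theorem continuous_umc {ρ : ℝ} {g : E3 → ℂ} (hg : Integrable g) (m : ℤ × ℤ) :
    Continuous (umc ρ g m) :=
  Crest.Agent.R138.Wf448.fourierInv_continuous (capc_int hg ρ m)

theorem measurable_umcsq {ρ : ℝ} {g : E3 → ℂ} (hg : Integrable g) (m : ℤ × ℤ) :
    Measurable fun x => ‖umc ρ g m x‖ₑ ^ 2 :=
  (continuous_umc hg m).measurable.enorm.pow_const 2

theorem umc_sum {ρ : ℝ} {κ : Type*} (s : Finset κ) {G : κ → E3 → ℂ} {e : E3 → ℂ}
    (hG : ∀ k ∈ s, Integrable (G k)) (he : Integrable e) (m : ℤ × ℤ) (x : E3) :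
    umc ρ (fun ξ => ∑ k ∈ s, G k ξ + e ξ) m x = ∑ k ∈ s, umc ρ (G k) m x + umc ρ e m x := by
  unfold umc
  simp only [Real.fourierInv_eq']
  have hmod : ∀ f : E3 → ℂ, Integrable f →
      Integrable fun ζ => Complex.exp (((2 * Real.pi * inner ℝ ζ x : ℝ) : ℂ) * Complex.I) •
        (capc ρ m ζ * f ζ) := by
    intro f hf
    simp only [smul_eq_mul]
    refine (capc_int hf ρ m).bdd_mul (c := 1) (Continuous.aestronglyMeasurable (by fun_prop)) ?_
    refine Filter.Eventually.of_forall fun ζ => ?_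
    rw [Complex.norm_exp_ofReal_mul_I]
  rw [← integral_finsetSum _ fun k hk => hmod _ (hG k hk),
    ← integral_add (integrable_finsetSum _ fun k hk => hmod _ (hG k hk)) (hmod _ he)]
  congr 1
  funext ζ
  rw [mul_add, smul_add, Finset.mul_sum, Finset.smul_sum]

/-- **LIN**: the packet energy of a sum. -/
theorem enc_sum {ρ : ℝ} {κ : Type*} (s : Finset κ) {G : κ → E3 → ℂ} {e : E3 → ℂ}
    (hG : ∀ k ∈ s, Integrable (G k)) (he : Integrable e) (S : ℤ × ℤ → Set E3) :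
    enc ρ (fun ξ => ∑ k ∈ s, G k ξ + e ξ) S ≤
      ((s.card : ℝ≥0∞) + 1) * (∑ k ∈ s, enc ρ (G k) S + enc ρ e S) := by
  unfold enc
  rw [Finset.sum_comm, ← Finset.sum_add_distrib, Finset.mul_sum]
  refine Finset.sum_le_sum fun m _ => ?_
  calc ∫⁻ x in S m, ‖umc ρ (fun ξ => ∑ k ∈ s, G k ξ + e ξ) m x‖ₑ ^ 2
      ≤ ∫⁻ x in S m, ((s.card : ℝ≥0∞) + 1) *
          (∑ k ∈ s, ‖umc ρ (G k) m x‖ₑ ^ 2 + ‖umc ρ e m x‖ₑ ^ 2) := by
        refine lintegral_mono fun x => ?_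
        dsimp only
        rw [umc_sum s hG he m x]
        exact Crest.Agent.R138.W323.enorm_sum_sq' s _ _
    _ = _ := by
        have m1 : Measurable fun x => ∑ k ∈ s, ‖umc ρ (G k) m x‖ₑ ^ 2 :=
          Finset.measurable_fun_sum s fun k hk => measurable_umcsq (hG k hk) m
        have m2 : Measurable fun x => ∑ k ∈ s, ‖umc ρ (G k) m x‖ₑ ^ 2 + ‖umc ρ e m x‖ₑ ^ 2 :=
          m1.add (measurable_umcsq he m)
        rw [lintegral_const_mul _ m2, lintegral_add_right _ (measurable_umcsq he m),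
          lintegral_finsetSum s fun k hk => measurable_umcsq (hG k hk) m]

theorem enc_mono {ρ : ℝ} {g : E3 → ℂ} {S T : ℤ × ℤ → Set E3} (h : ∀ m, S m ⊆ T m) :
    enc ρ g S ≤ enc ρ g T :=
  Finset.sum_le_sum fun m _ => lintegral_mono_set (h m)

/-- the energies of disjoint selections add up. -/
theorem enc_union {ρ : ℝ} {g : E3 → ℂ} {ι : Type*} (s : Finset ι) (S : ι → ℤ × ℤ → Set E3)
    (T : ℤ × ℤ → Set E3) (hm : ∀ i ∈ s, ∀ m, MeasurableSet (S i m))
    (hd : ∀ i ∈ s, ∀ j ∈ s, i ≠ j → ∀ m, Disjoint (S i m) (S j m))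
    (hT : ∀ i ∈ s, ∀ m, S i m ⊆ T m) :
    ∑ i ∈ s, enc ρ g (S i) ≤ enc ρ g T := by
  unfold enc
  rw [Finset.sum_comm]
  refine Finset.sum_le_sum fun m _ => ?_
  rw [← lintegral_biUnion_finset (fun i hi j hj hij => hd i hi j hj hij m) (fun i hi => hm i hi m)]
  exact lintegral_mono_set (Set.iUnion₂_subset fun i hi => hT i hi m)

/-! ### domination -/

/-- `k` dominates at the phase point `(m, y)` among the labels `< n`. -/
def Domc (ρ : ℝ) (H : ℕ → E3 → ℂ) (n k : ℕ) (m : ℤ × ℤ) (y : E3) : Prop :=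
  ∀ k' < n, ‖umc ρ (H k') m y‖ ≤ ‖umc ρ (H k) m y‖

open Classical in
/-- the first dominating label. -/
noncomputable def argc (ρ : ℝ) (H : ℕ → E3 → ℂ) (n : ℕ) (m : ℤ × ℤ) (y : E3) : ℕ :=
  if h : ∃ i, i < n ∧ Domc ρ H n i m y then Nat.find h else 0

theorem exists_domc (ρ : ℝ) (H : ℕ → E3 → ℂ) {n : ℕ} (hn : 1 ≤ n) (m : ℤ × ℤ) (y : E3) :
    ∃ i, i < n ∧ Domc ρ H n i m y := by
  obtain ⟨k, hk, hmax⟩ := Finset.exists_max_image (Finset.range n)
    (fun k => ‖umc ρ (H k) m y‖) ⟨0, Finset.mem_range.2 hn⟩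
  exact ⟨k, Finset.mem_range.1 hk, fun k' hk' => hmax k' (Finset.mem_range.2 hk')⟩

theorem argc_lt (ρ : ℝ) (H : ℕ → E3 → ℂ) {n : ℕ} (hn : 1 ≤ n) (m : ℤ × ℤ) (y : E3) :
    argc ρ H n m y < n := by
  classical
  unfold argc
  rw [dif_pos (exists_domc ρ H hn m y)]
  exact (Nat.find_spec (exists_domc ρ H hn m y)).1

theorem argc_dom (ρ : ℝ) (H : ℕ → E3 → ℂ) {n : ℕ} (hn : 1 ≤ n) (m : ℤ × ℤ) (y : E3) :
    Domc ρ H n (argc ρ H n m y) m y := by
  classical
  unfold argc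
  rw [dif_pos (exists_domc ρ H hn m y)]
  exact (Nat.find_spec (exists_domc ρ H hn m y)).2

theorem measurableSet_domc {ρ : ℝ} {H : ℕ → E3 → ℂ} {n k : ℕ}
    (hH : ∀ k < n, Integrable (H k)) (hk : k < n) (m : ℤ × ℤ) :
    MeasurableSet {y | Domc ρ H n k m y} := by
  have h1 : {y | Domc ρ H n k m y} =
      ⋂ k' ∈ Finset.range n, {y | ‖umc ρ (H k') m y‖ ≤ ‖umc ρ (H k) m y‖} := by
    ext y
    simp [Domc]
  rw [h1]
  refine Finset.measurableSet_biInter _ fun k' hk' => ?_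
  exact measurableSet_le (continuous_umc (hH k' (Finset.mem_range.1 hk')) m).norm.measurable
    (continuous_umc (hH k hk) m).norm.measurable

theorem measurable_argc {ρ : ℝ} {H : ℕ → E3 → ℂ} {n : ℕ} (hn : 1 ≤ n)
    (hH : ∀ k < n, Integrable (H k)) (m : ℤ × ℤ) : Measurable (argc ρ H n m) := by
  classical
  refine measurable_to_countable' fun j => ?_
  have hset : ∀ i, MeasurableSet {y | i < n ∧ Domc ρ H n i m y} := by
    intro i
    by_cases hi : i < n
    · simp only [hi, true_and]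
      exact measurableSet_domc hH hi m
    · simp [hi]
  have h1 : argc ρ H n m ⁻¹' {j} = {y | j < n ∧ Domc ρ H n j m y} \
      ⋃ i ∈ Finset.range j, {y | i < n ∧ Domc ρ H n i m y} := by
    ext y
    have hex := exists_domc ρ H hn m y
    have e1 : argc ρ H n m y = Nat.find hex := by
      unfold argc
      rw [dif_pos hex]
    simp only [Set.mem_preimage, Set.mem_singleton_iff, e1, Nat.find_eq_iff, Set.mem_sdiff,
      Set.mem_ofPred_eq, Set.mem_iUnion, Finset.mem_range, exists_prop, not_exists, not_and]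
  rw [h1]
  exact (hset j).diff (Finset.measurableSet_biUnion _ fun i _ => hset i)

/-- **domination, pointwise**: `f = ∑_{k<n} H k + e`. -/
theorem norm_domc {ρ : ℝ} {n : ℕ} {H : ℕ → E3 → ℂ} {e : E3 → ℂ}
    (hH : ∀ k ∈ Finset.range n, Integrable (H k)) (he : Integrable e) {k : ℕ} {m : ℤ × ℤ} {y : E3}
    (hd : Domc ρ H n k m y) :
    ‖umc ρ (fun ξ => ∑ k' ∈ Finset.range n, H k' ξ + e ξ) m y‖ ≤
      n * ‖umc ρ (H k) m y‖ + ‖umc ρ e m y‖ := by
  rw [umc_sum _ hH he m y]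
  refine (norm_add_le _ _).trans (add_le_add ((norm_sum_le _ _).trans ?_) le_rfl)
  calc ∑ k' ∈ Finset.range n, ‖umc ρ (H k') m y‖ ≤ ∑ k' ∈ Finset.range n, ‖umc ρ (H k) m y‖ :=
        Finset.sum_le_sum fun k' hk' => hd k' (Finset.mem_range.1 hk')
    _ = _ := by rw [Finset.sum_const, Finset.card_range, nsmul_eq_mul]

/-- **domination**: energy of a selection. -/
theorem enc_dom {ρ : ℝ} {n : ℕ} {H : ℕ → E3 → ℂ} {e : E3 → ℂ}
    (hH : ∀ k ∈ Finset.range n, Integrable (H k)) (he : Integrable e) {k : ℕ} (hk : k < n)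
    {S : ℤ × ℤ → Set E3} (hSm : ∀ m ∈ caps ρ, MeasurableSet (S m))
    (hS : ∀ m ∈ caps ρ, ∀ y ∈ S m, Domc ρ H n k m y) :
    enc ρ (fun ξ => ∑ k' ∈ Finset.range n, H k' ξ + e ξ) S ≤
      2 * (n : ℝ≥0∞) ^ 2 * enc ρ (H k) S + 2 * enc ρ e S := by
  have hHk := hH k (Finset.mem_range.2 hk)
  unfold enc
  rw [Finset.mul_sum, Finset.mul_sum, ← Finset.sum_add_distrib]
  refine Finset.sum_le_sum fun m hm => ?_
  calc ∫⁻ x in S m, ‖umc ρ (fun ξ => ∑ k' ∈ Finset.range n, H k' ξ + e ξ) m x‖ₑ ^ 2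
      ≤ ∫⁻ x in S m, (2 * (n : ℝ≥0∞) ^ 2 * ‖umc ρ (H k) m x‖ₑ ^ 2 +
          2 * ‖umc ρ e m x‖ₑ ^ 2) := by
        refine setLIntegral_mono' (hSm m hm) fun x hx => ?_
        have h0 := norm_domc hH he (hS m hm x hx)
        have h1 : ‖umc ρ (fun ξ => ∑ k' ∈ Finset.range n, H k' ξ + e ξ) m x‖ₑ ≤
            (n : ℝ≥0∞) * ‖umc ρ (H k) m x‖ₑ + ‖umc ρ e m x‖ₑ := by
          rw [← ofReal_norm, ← ofReal_norm, ← ofReal_norm]
          refine (ENNReal.ofReal_le_ofReal h0).trans ?_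
          rw [ENNReal.ofReal_add (by positivity) (norm_nonneg _), ENNReal.ofReal_mul (by positivity),
            ENNReal.ofReal_natCast]
        have h2 := ENNReal.rpow_add_le_mul_rpow_add_rpow ((n : ℝ≥0∞) * ‖umc ρ (H k) m x‖ₑ)
          (‖umc ρ e m x‖ₑ) (p := 2) (by norm_num)
        have h3 : ∀ x : ℝ≥0∞, x ^ (2 : ℝ) = x ^ 2 := fun x => by
          rw [show (2 : ℝ) = ((2 : ℕ) : ℝ) by norm_num, ENNReal.rpow_natCast]
        simp only [h3] at h2
        refine (pow_le_pow_left' h1 2).trans (h2.trans (le_of_eq ?_))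
        rw [show (2 : ℝ) - 1 = 1 by norm_num, ENNReal.rpow_one, mul_pow]
        ring
    _ = _ := by
        have m1 : Measurable fun x => 2 * (n : ℝ≥0∞) ^ 2 * ‖umc ρ (H k) m x‖ₑ ^ 2 :=
          (measurable_umcsq hHk m).const_mul _
        rw [lintegral_add_left m1, lintegral_const_mul _ (measurable_umcsq hHk m),
          lintegral_const_mul _ (measurable_umcsq he m)]

/-! ### translations -/

theorem measurable_hc' : Measurable hc := measurable_hc

theorem measurable_trc {g : E3 → ℂ} (hg : Measurable g) (z : E3 × ℝ) : Measurable (trc z g) := by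
  unfold trc
  refine hg.mul (continuous_ee'.measurable.comp ?_)
  exact (Continuous.measurable (by fun_prop)).add (measurable_hc.const_mul _)

theorem norm_trc (z : E3 × ℝ) (g : E3 → ℂ) (ζ : E3) : ‖trc z g ζ‖ = ‖g ζ‖ := by
  unfold trc
  rw [norm_mul, Crest.Agent.R138.Wpk685.norm_ee, mul_one]

theorem Enc_trc (z : E3 × ℝ) (g : E3 → ℂ) : Enc (trc z g) = Enc g := by
  unfold Enc
  simp only [norm_trc]

theorem trc_trc (z w : E3 × ℝ) (g : E3 → ℂ) : trc w (trc z g) = trc (z + w) g := by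
  funext ζ
  unfold trc
  rw [mul_assoc, ← Crest.Agent.R138.Wpk685.ee_add, Prod.fst_add, Prod.snd_add, inner_add_left]
  congr 2
  ring

theorem trc_zero (g : E3 → ℂ) : trc 0 g = g := by
  funext ζ
  unfold trc
  simp [ee]

theorem trc_sum {κ : Type*} (s : Finset κ) (z : E3 × ℝ) (G : κ → E3 → ℂ) (e : E3 → ℂ) :
    trc z (fun ξ => ∑ k ∈ s, G k ξ + e ξ) = fun ξ => ∑ k ∈ s, trc z (G k) ξ + trc z e ξ := by
  funext ζ
  unfold trc
  rw [add_mul, Finset.sum_mul]

/-- good functions: measurable, bounded, with compact support away from `η = 0`. -/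
structure Gdc (g : E3 → ℂ) : Prop where
  meas : Measurable g
  bdd : ∃ L : ℝ, ∀ ζ, ‖g ζ‖ ≤ L
  supp : ∃ ρ : ℝ, ∀ ζ, g ζ ≠ 0 → ‖ζ‖ ≤ ρ

theorem Gdc.int {g : E3 → ℂ} (hg : Gdc g) : Integrable g := by
  obtain ⟨L, hL⟩ := hg.bdd
  obtain ⟨ρ, hρ⟩ := hg.supp
  have h1 : IntegrableOn g (Metric.closedBall 0 ρ) := by
    refine Measure.integrableOn_of_bounded (M := L) measure_closedBall_lt_top.ne
      hg.meas.aestronglyMeasurable (Filter.Eventually.of_forall hL)
  rw [integrableOn_iff_integrable_of_support_subset] at h1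
  · exact h1
  · intro ζ hζ
    rw [Metric.mem_closedBall, dist_zero_right]
    exact hρ ζ hζ

theorem Gdc.l2 {g : E3 → ℂ} (hg : Gdc g) : MemLp g 2 := by
  obtain ⟨L, hL⟩ := hg.bdd
  rw [memLp_two_iff_integrable_sq_norm hg.meas.aestronglyMeasurable]
  have h1 : Integrable fun ζ => ‖g ζ‖ * ‖g ζ‖ :=
    hg.int.norm.bdd_mul (c := L) hg.meas.norm.aestronglyMeasurable
      (Filter.Eventually.of_forall fun ζ => by rw [norm_norm]; exact hL ζ)
  refine h1.congr (Filter.Eventually.of_forall fun ζ => ?_)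
  simp only [pow_two]

theorem Gdc.trc {g : E3 → ℂ} (hg : Gdc g) (z : E3 × ℝ) : Gdc (CDef480.trc z g) := by
  obtain ⟨L, hL⟩ := hg.bdd
  obtain ⟨ρ, hρ⟩ := hg.supp
  refine ⟨measurable_trc hg.meas z, ⟨L, fun ζ => by rw [norm_trc]; exact hL ζ⟩, ⟨ρ, fun ζ hζ => ?_⟩⟩
  exact hρ ζ fun h => hζ (by unfold CDef480.trc; rw [h, zero_mul])

end Crest.Agent.R116.GlC210
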