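import Crest.Agent.R138.Fr1_665

/-!
R116: the literal interface `(C3w)` between the outer shell (S0155 ⇐ (C3w), helper927) and the
front.
-/

set_option autoImplicit false

open MeasureTheory FourierTransform
open scoped ContDiff Real

namespace Crest.Agent.R116.Sh927

/-- Three-space. -/
abbrev V := EuclideanSpace ℝ (Fin 3)

/-- the half-wave symbol at frequency scale `R` and time `t`. -/
noncomputable def mW (φ : ℝ → ℝ) (R t : ℝ) (ξ : V) : ℂ :=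
  ((φ (‖ξ‖ / R) : ℝ) : ℂ) * Complex.exp (((2 * π * t * ‖ξ‖ : ℝ) : ℂ) * Complex.I)

/-- its convolution kernel. -/
noncomputable def KW (φ : ℝ → ℝ) (R t : ℝ) : V → ℂ := 𝓕⁻ (mW φ R t)

/-- restricted type at `p = 3` with loss `R^ε`, for one cut-off. -/
def C3p (φ : ℝ → ℝ) : Prop :=
  ∀ ε : ℝ, 0 < ε → ∃ C : ℝ, ∀ R : ℝ, 1 ≤ R → ∀ Ω : Set V, MeasurableSet Ω → volume Ω ≠ ⊤ →
    ∀ f : V → ℂ, Measurable f → (∀ x, ‖f x‖ ≤ Ω.indicator (fun _ => (1:ℝ)) x) →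
      ∫⁻ t in Set.Icc (1:ℝ) 2, ∫⁻ x, ENNReal.ofReal
        (‖Crest.Agent.R138.Fr665.cv (KW φ R t) f x‖ ^ (3:ℝ))
          ≤ ENNReal.ofReal (C * R ^ ε) * volume Ω

/-- `(C3w)`: all cut-offs supported in `[1/2, 2]`. -/
def C3w : Prop :=
  ∀ φ : ℝ → ℝ, ContDiff ℝ ∞ φ → (∀ r, r < 1 / 2 → φ r = 0) → (∀ r, 2 < r → φ r = 0) → C3p φ

end Crest.Agent.R116.Sh927
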