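import Crest.Agent.R116.WDefC_188
import Crest.Agent.R116.ShDefs_927
import Crest.Agent.R138.Fq3_665

/-!
# R116 (S0155): literals of the front (helper665)

`C3w ⇐ GlobW ⇐ LocW ⇐ WC188.EBc M` (any `M`).
`Kt a t` = unit frequency half-wave kernel of the piece `a` at time `t`.
PRODUCER of `WC188.EBc M`: the wave side (188).  CONSUMER of `GlobW`: helper927 (C3w).
-/

set_option autoImplicit false

open MeasureTheory FourierTransform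
open scoped ContDiff ENNReal

namespace Crest.Agent.R116.EB665

open Crest.Agent.R138.Defs (E2 ee)
open Crest.Agent.R138.Fr665 (cv)
open Crest.Agent.R138.Fq665 (PR up)
open Crest.Agent.R116.Sh927 (V)

/-- unit frequency half-wave kernel of the piece `a` at time `t`. -/
noncomputable def Kt (a : V → ℂ) (t : ℝ) : V → ℂ := 𝓕⁻ (fun v => a v * ee (t * ‖v‖))

/-- **(LocW)**: local estimate for one small piece of the cone (centre `3/4 up J 0 1`). -/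
def LocW : Prop :=
  ∃ ρ : ℝ, 0 < ρ ∧ ρ ≤ 1/8 ∧ ∀ (J : PR ≃ₗᵢ[ℝ] V) (a : V → ℂ), ContDiff ℝ ∞ a →
    (∀ v, a v ≠ 0 → ‖v - up J 0 (3/4)‖ ≤ ρ) → ∀ δ : ℝ, 0 < δ → δ ≤ 1 →
    ∃ C : ℝ, 0 ≤ C ∧ ∀ R : ℝ, 1 ≤ R → ∀ f : V → ℂ, Measurable f → (∀ v, ‖f v‖ ≤ 1) →
      (∀ v, 2 * R ^ (1 + δ) < ‖v‖ → f v = 0) →
      ∫⁻ t in Set.Icc (0 : ℝ) (2 * R), ∫⁻ v in Metric.closedBall (0 : V) (R ^ (1 + δ)),
        ‖cv (Kt a t) f v‖ₑ ^ 3 ≤ ENNReal.ofReal (C * R ^ (1 + 8 * δ)) * ∫⁻ v, ‖f v‖ₑ ^ 2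

/-- **(GlobW)**: global restricted estimate for one small piece of the cone. -/
def GlobW : Prop :=
  ∃ ρ : ℝ, 0 < ρ ∧ ρ ≤ 1/8 ∧ ∀ (J : PR ≃ₗᵢ[ℝ] V) (a : V → ℂ), ContDiff ℝ ∞ a →
    (∀ v, a v ≠ 0 → ‖v - up J 0 (3/4)‖ ≤ ρ) → ∀ ε : ℝ, 0 < ε →
    ∃ C : ℝ, 0 ≤ C ∧ ∀ R : ℝ, 1 ≤ R → ∀ Ω : Set V, MeasurableSet Ω → volume Ω ≠ ⊤ →
      ∀ f : V → ℂ, Measurable f → (∀ v, ‖f v‖ ≤ Ω.indicator (fun _ => (1:ℝ)) v) →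
        ∫⁻ t in Set.Icc (0 : ℝ) (2 * R), ∫⁻ v, ‖cv (Kt a t) f v‖ₑ ^ 3 ≤
          ENNReal.ofReal (C * R ^ (1 + ε)) * volume Ω

end Crest.Agent.R116.EB665
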