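import Mathlib.Tactic

/-!
# R116, K-TEXT II-c: the algebraic end of the table for tied records (helper460)

Text: helper647 (14887), checked by 90, 943, 708, 460.  Everything happens on the natural plane of
the tie; `A` = open side below the record, `B` = open side above, in the record blow-up all rates are
constant on each side (741).  `x n h` = losses of `X_a, N, H`, `m r` = rates of `C_a, C_b`,
`e` = excess of `z`.  `k` = rotation rate of the tie, `θ` = slope of the record, `s` = shading loss,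
`b` = growth (`> 2 s`), `qa qb` = rewards on the wide / narrow exponent.
-/

set_option autoImplicit false

namespace Crest.Agent.R116.Ec460

/-- constants of one open side of the record -/
structure Side where
  x : ℝ
  n : ℝ
  h : ℝ
  m : ℝ
  r : ℝ
  e : ℝ

/-- window facts (Kaufman / Falconer), no resonance -/
structure Win (s : ℝ) (S : Side) : Prop where
  x0 : 0 ≤ S.x
  n0 : 0 ≤ S.n
  h0 : 0 ≤ S.h
  m0 : 0 ≤ S.m
  e0 : 0 ≤ S.e
  mr : S.m ≤ S.r
  kx : 0 < S.m → S.x ≤ s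
  kh : 0 < S.m → S.h ≤ s
  fx : s < S.m → S.x = 0
  fh : s < S.m → S.h = 0
  kn : 0 < S.r → S.n ≤ s
  fn : s < S.r → S.n = 0

/-- `v`-derivative of `f` on the `e`-tie plane `y = t + k v` -/
def fv (k b qb : ℝ) (S : Side) : ℝ :=
  S.x + S.h + (1 + k) * S.n - k * S.r - S.e - b + k * qb

/-- `t`-derivative of `f` on the `e`-tie plane -/
def ft (qa qb : ℝ) (S : Side) : ℝ := S.x + 2 * S.h + S.n - S.m - S.r + qa + qb

/-- `t`-derivative of `f` on the `κ`-tie plane `y = 2 t + k v` -/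
def ft2 (qa qb : ℝ) (S : Side) : ℝ := S.x + 2 * S.h + 2 * S.n - S.m - 2 * S.r + qa + 2 * qb

/-- exits on the side below: `m ≤ s` and `r ≤ s` -/
theorem exits {k s b qa qb : ℝ} {A : Side} (hk : 0 ≤ k) (hs : 0 ≤ s) (hb : 2 * s < b)
    (hq : qb ≤ qa) (hA : Win s A) (hm : qa ≤ A.m) (hqa : 0 < qa) (hfv : 0 ≤ fv k b qb A) :
    A.m ≤ s ∧ A.r ≤ s ∧ A.x ≤ s ∧ A.h ≤ s ∧ A.n ≤ s := by
  have hm0 : 0 < A.m := by linarith
  have hr0 : 0 < A.r := by linarith [hA.mr]
  have hx := hA.kx hm0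
  have hh := hA.kh hm0
  have hn := hA.kn hr0
  have hkr : 0 ≤ k * (A.r - qb) := mul_nonneg hk (by linarith [hA.mr])
  unfold fv at hfv
  have hrs : A.r ≤ s := by
    by_contra hc
    push Not at hc
    have := hA.fn hc
    rw [this] at hfv
    nlinarith [hA.e0]
  exact ⟨by linarith [hA.mr], hrs, hx, hh, hn⟩

/-- **`e`-tie, `0 ≤ k ≤ 1`** (`μ = 1`). -/
theorem etie_low {k θ s b qa qb : ℝ} {A B : Side} (hk : 0 ≤ k) (hk1 : k ≤ 1) (hθ : 0 < θ)
    (hs : 0 ≤ s) (hb : 2 * s < b) (hqa : 0 < qa) (hqb : 0 ≤ qb) (hq : qb ≤ qa)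
    (hA : Win s A) (hB : Win s B)
    (tanA : fv k b qb A = θ * ft qa qb A) (tanB : fv k b qb B = θ * ft qa qb B)
    (verA : 0 ≤ ft qa qb A) (verB : ft qa qb B ≤ 0)
    (hm : qa ≤ A.m) (hanti : B.m ≤ A.m)
    (hNZ : B.n = 0 → (1 + k - θ) * A.n ≤ A.e) : False := by
  have hfvA : 0 ≤ fv k b qb A := by rw [tanA]; positivity
  obtain ⟨hAm, hAr, hAx, hAh, hAn⟩ := exits hk hs hb hq hA hm hqa hfvA
  rcases le_or_gt 1 θ with h1 | h1
  · -- side below, `μ = 1`
    have h2 : 0 ≤ (θ - 1) * ft qa qb A := mul_nonneg (by linarith) verA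
    have h3 : fv k b qb A - ft qa qb A = (θ - 1) * ft qa qb A := by rw [tanA]; ring
    rw [← h3] at h2
    unfold fv ft at h2
    nlinarith [hA.e0, hA.h0, mul_le_mul_of_nonneg_left hAn hk,
      mul_le_mul_of_nonneg_left hAr (by linarith : (0 : ℝ) ≤ 1 - k),
      mul_nonneg (by linarith : (0 : ℝ) ≤ 1 - k) hqb]
  · have hBm : B.m ≤ s := by linarith
    have hBr0 : 0 < B.r := by
      unfold ft at verB
      linarith [hB.x0, hB.h0, hB.n0, hB.mr]
    have hBn := hB.kn hBr0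
    rcases le_or_gt B.r s with h2 | h2
    · have h3 : 0 ≤ (θ - 1) * ft qa qb B := mul_nonneg_of_nonpos_of_nonpos (by linarith) verB
      have h4 : fv k b qb B - ft qa qb B = (θ - 1) * ft qa qb B := by rw [tanB]; ring
      rw [← h4] at h3
      unfold fv ft at h3
      nlinarith [hB.e0, hB.h0, mul_le_mul_of_nonneg_left hBn hk,
        mul_le_mul_of_nonneg_left h2 (by linarith : (0 : ℝ) ≤ 1 - k),
        mul_nonneg (by linarith : (0 : ℝ) ≤ 1 - k) hqb]
    · have hN := hNZ (hB.fn h2)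
      have hrq : 0 ≤ A.r - qb := by linarith [hA.mr]
      have hrq' : A.r - qb ≤ s := by linarith
      have e1 : (1 - θ) * A.x ≤ (1 - θ) * s := mul_le_mul_of_nonneg_left hAx (by linarith)
      have e2 : θ * A.m ≤ θ * s := mul_le_mul_of_nonneg_left hAm hθ.le
      have e3 : 0 ≤ θ * qa := by positivity
      have e4 : (1 - 2 * θ) * A.h ≤ max 0 ((1 - 2 * θ) * s) := by
        rcases le_or_gt (1 - 2 * θ) 0 with h | h
        · exact (mul_nonpos_of_nonpos_of_nonneg h hA.h0).trans (le_max_left _ _)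
        · exact (mul_le_mul_of_nonneg_left hAh h.le).trans (le_max_right _ _)
      have e5 : (θ - k) * (A.r - qb) ≤ θ * s := by
        rcases le_or_gt (θ - k) 0 with h | h
        · exact (mul_nonpos_of_nonpos_of_nonneg h hrq).trans (by positivity)
        · calc (θ - k) * (A.r - qb) ≤ (θ - k) * s := mul_le_mul_of_nonneg_left hrq' h.le
            _ ≤ θ * s := mul_le_mul_of_nonneg_right (by linarith) hs
      have e6 : b ≤ (1 - θ) * A.x + (1 - 2 * θ) * A.h + (θ - k) * (A.r - qb) + θ * A.m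
          - θ * qa := by
        unfold fv ft at tanA
        linarith
      rcases le_or_gt ((1 - 2 * θ) * s) 0 with h | h
      · rw [max_eq_left h] at e4
        nlinarith
      · rw [max_eq_right h.le] at e4
        nlinarith [mul_nonneg hθ.le hs]

/-- **`e`-tie, `k ≥ 1`** (`μ = k / 2`); needs `n ≤ x` and `m > 0` above. -/
theorem etie_high {k θ s b qa qb : ℝ} {A B : Side} (hk1 : 1 ≤ k) (hθ : 0 < θ)
    (hs : 0 ≤ s) (hb : 2 * s < b) (hqa : 0 < qa) (hq : qb ≤ qa)
    (hA : Win s A) (hB : Win s B) (hAnx : A.n ≤ A.x) (hBnx : B.n ≤ B.x)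
    (tanA : fv k b qb A = θ * ft qa qb A) (tanB : fv k b qb B = θ * ft qa qb B)
    (verA : 0 ≤ ft qa qb A) (verB : ft qa qb B ≤ 0)
    (hm : qa ≤ A.m) (hBm : θ < k → 0 < B.m) : False := by
  have key : ∀ S : Side, Win s S → S.n ≤ S.x → S.x ≤ s →
      0 ≤ fv k b qb S - (k / 2) * ft qa qb S → False := by
    intro S hS hnx hx h
    unfold fv ft at h
    have e1 : 0 ≤ (k / 2) * (S.r - S.m) := mul_nonneg (by linarith) (by linarith [hS.mr])
    have e2 : 0 ≤ (k / 2) * (S.x - S.n) := mul_nonneg (by linarith) (by linarith)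
    have e3 : 0 ≤ (k / 2) * (qa - qb) := mul_nonneg (by linarith) (by linarith)
    have e4 : 0 ≤ (k - 1) * S.h := mul_nonneg (by linarith) hS.h0
    nlinarith [hS.e0]
  rcases le_or_gt (k / 2) θ with h | h
  · refine key A hA hAnx (hA.kx (by linarith)) ?_
    have h3 : fv k b qb A - (k / 2) * ft qa qb A = (θ - k / 2) * ft qa qb A := by rw [tanA]; ring
    rw [h3]
    exact mul_nonneg (by linarith) verA
  · refine key B hB hBnx (hB.kx (hBm (by linarith))) ?_
    have h3 : fv k b qb B - (k / 2) * ft qa qb B = (θ - k / 2) * ft qa qb B := by rw [tanB]; ring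
    rw [h3]
    exact mul_nonneg_of_nonpos_of_nonpos (by linarith) verB

/-- **`κ`-tie, `0 ≤ k ≤ 1`** (`μ = 1/2`, and `μ = 1` if the fan above is empty). -/
theorem ktie_low {k θ s b qa qb : ℝ} {A B : Side} (hk : 0 ≤ k) (hk1 : k ≤ 1) (hθ : 0 < θ)
    (hs : 0 ≤ s) (hb : 2 * s < b) (hqa : 0 < qa) (hqb : 0 ≤ qb) (hq : qb ≤ qa)
    (hA : Win s A) (hB : Win s B)
    (tanA : fv k b qb A = θ * ft2 qa qb A) (tanB : fv k b qb B = θ * ft2 qa qb B)
    (verA : 0 ≤ ft2 qa qb A) (verB : ft2 qa qb B ≤ 0)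
    (hm : qa ≤ A.m) (hanti : B.m ≤ A.m)
    (hNZ : B.n = 0 → (1 + k - 2 * θ) * A.n ≤ A.e) : False := by
  have hfvA : 0 ≤ fv k b qb A := by rw [tanA]; positivity
  obtain ⟨hAm, hAr, hAx, hAh, hAn⟩ := exits hk hs hb hq hA hm hqa hfvA
  have half : ∀ S : Side, Win s S → S.x ≤ s → S.n ≤ s → S.r ≤ s → S.m ≤ s →
      0 ≤ fv k b qb S - (1 / 2) * ft2 qa qb S → False := by
    intro S hS h1 h2 h3 h4 h
    unfold fv ft2 at h
    nlinarith [hS.e0, mul_le_mul_of_nonneg_left h2 hk,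
      mul_le_mul_of_nonneg_left h3 (by linarith : (0 : ℝ) ≤ 1 - k),
      mul_nonneg (by linarith : (0 : ℝ) ≤ 1 - k) hqb]
  rcases le_or_gt (1 / 2) θ with h1 | h1
  · refine half A hA hAx hAn hAr hAm ?_
    have h3 : fv k b qb A - (1 / 2) * ft2 qa qb A = (θ - 1 / 2) * ft2 qa qb A := by
      rw [tanA]; ring
    rw [h3]
    exact mul_nonneg (by linarith) verA
  · have hBm : B.m ≤ s := by linarith
    have hBr0 : 0 < B.r := by
      unfold ft2 at verB
      linarith [hB.x0, hB.h0, hB.n0, hB.mr]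
    have hBn := hB.kn hBr0
    rcases le_or_gt B.r s with h2 | h2
    · rcases hB.m0.lt_or_eq with h5 | h5
      · refine half B hB (hB.kx h5) hBn h2 hBm ?_
        have h3 : fv k b qb B - (1 / 2) * ft2 qa qb B = (θ - 1 / 2) * ft2 qa qb B := by
          rw [tanB]; ring
        rw [h3]
        exact mul_nonneg_of_nonpos_of_nonpos (by linarith) verB
      · have h3 : 0 ≤ (θ - 1) * ft2 qa qb B := mul_nonneg_of_nonpos_of_nonpos (by linarith) verB
        have h4 : fv k b qb B - ft2 qa qb B = (θ - 1) * ft2 qa qb B := by rw [tanB]; ring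
        rw [← h4] at h3
        unfold fv ft2 at h3
        nlinarith [hB.e0, hB.h0, mul_nonneg (by linarith : (0 : ℝ) ≤ 1 - k) hB.n0,
          mul_le_mul_of_nonneg_left h2 (by linarith : (0 : ℝ) ≤ 2 - k),
          mul_nonneg (by linarith : (0 : ℝ) ≤ 2 - k) hqb, mul_nonneg hk hs]
    · have hN := hNZ (hB.fn h2)
      have hrq : 0 ≤ A.r - qb := by linarith [hA.mr]
      have hrq' : A.r - qb ≤ s := by linarith
      have e1 : (1 - θ) * A.x ≤ (1 - θ) * s := mul_le_mul_of_nonneg_left hAx (by linarith)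
      have e2 : θ * A.m ≤ θ * s := mul_le_mul_of_nonneg_left hAm hθ.le
      have e3 : 0 ≤ θ * qa := by positivity
      have e4 : (1 - 2 * θ) * A.h ≤ (1 - 2 * θ) * s :=
        mul_le_mul_of_nonneg_left hAh (by linarith)
      have e5 : (2 * θ - k) * (A.r - qb) ≤ 2 * θ * s := by
        rcases le_or_gt (2 * θ - k) 0 with h | h
        · exact (mul_nonpos_of_nonpos_of_nonneg h hrq).trans (by positivity)
        · calc (2 * θ - k) * (A.r - qb) ≤ (2 * θ - k) * s := mul_le_mul_of_nonneg_left hrq' h.le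
            _ ≤ 2 * θ * s := mul_le_mul_of_nonneg_right (by linarith) hs
      have e6 : b ≤ (1 - θ) * A.x + (1 - 2 * θ) * A.h + (2 * θ - k) * (A.r - qb) + θ * A.m
          - θ * qa := by
        unfold fv ft2 at tanA
        linarith
      nlinarith [mul_nonneg hθ.le hs]

/-- **`κ`-tie, `1 ≤ k ≤ 2`** (`μ = 1`). -/
theorem ktie_mid {k θ s b qa qb : ℝ} {A B : Side} (hk : 1 ≤ k) (hk1 : k ≤ 2) (hθ : 0 < θ)
    (hs : 0 ≤ s) (hb : 2 * s < b) (hqa : 0 < qa) (hqb : 0 ≤ qb) (hq : qb ≤ qa)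
    (hA : Win s A) (hB : Win s B)
    (tanA : fv k b qb A = θ * ft2 qa qb A) (tanB : fv k b qb B = θ * ft2 qa qb B)
    (verA : 0 ≤ ft2 qa qb A) (verB : ft2 qa qb B ≤ 0)
    (hm : qa ≤ A.m) (hanti : B.m ≤ A.m)
    (hNZ : B.n = 0 → (1 + k - 2 * θ) * A.n ≤ A.e) : False := by
  have hfvA : 0 ≤ fv k b qb A := by rw [tanA]; positivity
  obtain ⟨hAm, hAr, hAx, hAh, hAn⟩ := exits (by linarith) hs hb hq hA hm hqa hfvA
  have one : ∀ S : Side, Win s S → S.n ≤ s → S.r ≤ s → S.m ≤ s →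
      0 ≤ fv k b qb S - ft2 qa qb S → False := by
    intro S hS h2 h3 h4 h
    unfold fv ft2 at h
    nlinarith [hS.e0, hS.h0, mul_le_mul_of_nonneg_left h2 (by linarith : (0 : ℝ) ≤ k - 1),
      mul_le_mul_of_nonneg_left h3 (by linarith : (0 : ℝ) ≤ 2 - k),
      mul_nonneg (by linarith : (0 : ℝ) ≤ 2 - k) hqb]
  rcases le_or_gt 1 θ with h1 | h1
  · refine one A hA hAn hAr hAm ?_
    have h3 : fv k b qb A - ft2 qa qb A = (θ - 1) * ft2 qa qb A := by rw [tanA]; ring
    rw [h3]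
    exact mul_nonneg (by linarith) verA
  · have hBm : B.m ≤ s := by linarith
    have hBr0 : 0 < B.r := by
      unfold ft2 at verB
      linarith [hB.x0, hB.h0, hB.n0, hB.mr]
    have hBn := hB.kn hBr0
    rcases le_or_gt B.r s with h2 | h2
    · refine one B hB hBn h2 hBm ?_
      have h3 : fv k b qb B - ft2 qa qb B = (θ - 1) * ft2 qa qb B := by rw [tanB]; ring
      rw [h3]
      exact mul_nonneg_of_nonpos_of_nonpos (by linarith) verB
    · have hN := hNZ (hB.fn h2)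
      have hrq : 0 ≤ A.r - qb := by linarith [hA.mr]
      have hrq' : A.r - qb ≤ s := by linarith
      have e1 : (1 - θ) * A.x ≤ (1 - θ) * s := mul_le_mul_of_nonneg_left hAx (by linarith)
      have e2 : θ * A.m ≤ θ * s := mul_le_mul_of_nonneg_left hAm hθ.le
      have e3 : 0 ≤ θ * qa := by positivity
      have e4 : (1 - 2 * θ) * A.h ≤ max 0 ((1 - 2 * θ) * s) := by
        rcases le_or_gt (1 - 2 * θ) 0 with h | h
        · exact (mul_nonpos_of_nonpos_of_nonneg h hA.h0).trans (le_max_left _ _)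
        · exact (mul_le_mul_of_nonneg_left hAh h.le).trans (le_max_right _ _)
      have e5 : (2 * θ - k) * (A.r - qb) ≤ max 0 ((2 * θ - k) * s) := by
        rcases le_or_gt (2 * θ - k) 0 with h | h
        · exact (mul_nonpos_of_nonpos_of_nonneg h hrq).trans (le_max_left _ _)
        · exact (mul_le_mul_of_nonneg_left hrq' h.le).trans (le_max_right _ _)
      have e6 : b ≤ (1 - θ) * A.x + (1 - 2 * θ) * A.h + (2 * θ - k) * (A.r - qb) + θ * A.m
          - θ * qa := by
        unfold fv ft2 at tanA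
        linarith
      have e7 : max 0 ((2 * θ - k) * s) ≤ s :=
        max_le hs (by nlinarith)
      rcases le_or_gt ((1 - 2 * θ) * s) 0 with h | h
      · rw [max_eq_left h] at e4
        nlinarith
      · rw [max_eq_right h.le] at e4
        have e8 : max 0 ((2 * θ - k) * s) ≤ 0 := by
          refine max_le le_rfl ?_
          have : 0 < 1 - 2 * θ := by
            by_contra hc
            push Not at hc
            have := mul_nonpos_of_nonpos_of_nonneg hc hs
            linarith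
          exact mul_nonpos_of_nonpos_of_nonneg (by linarith) hs
        nlinarith [mul_nonneg hθ.le hs]

/-- **`κ`-tie, `k ≥ 2`**; needs `n ≤ x`, `n ≤ h`. -/
theorem ktie_high {k θ s b qa qb : ℝ} {A B : Side} (hk : 2 ≤ k) (hθ : 0 < θ)
    (hs : 0 ≤ s) (hb : 2 * s < b) (hqa : 0 < qa) (hqb : 0 ≤ qb) (hq : qb ≤ qa)
    (hA : Win s A) (hB : Win s B) (hAx : A.n ≤ A.x) (hBx : B.n ≤ B.x)
    (hAh : A.n ≤ A.h) (hBh : B.n ≤ B.h)
    (tanA : fv k b qb A = θ * ft2 qa qb A) (tanB : fv k b qb B = θ * ft2 qa qb B)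
    (verA : 0 ≤ ft2 qa qb A) (verB : ft2 qa qb B ≤ 0)
    (hm : qa ≤ A.m) (hanti : B.m ≤ A.m) : False := by
  have hfvA : 0 ≤ fv k b qb A := by rw [tanA]; positivity
  obtain ⟨hAm, hAr, -, -, hAn⟩ := exits (by linarith) hs hb hq hA hm hqa hfvA
  have hBm : B.m ≤ s := by linarith
  have hBr0 : 0 < B.r := by
    unfold ft2 at verB
    linarith [hB.x0, hB.h0, hB.n0, hB.mr]
  have hBn := hB.kn hBr0
  have one : ∀ μ : ℝ, 1 ≤ μ → k / 3 ≤ μ → μ ≤ k / 2 → ∀ S : Side, Win s S → S.n ≤ S.x →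
      S.n ≤ S.h → S.n ≤ s → S.m ≤ s → (μ = 1 ∧ k ≤ 3 ∨ μ = k / 3) →
      0 ≤ fv k b qb S - μ * ft2 qa qb S → False := by
    intro μ h1 h2 h3 S hS hx hh hn hm hor h
    unfold fv ft2 at h
    rcases hor with ⟨rfl, h4⟩ | rfl
    · have e1 : 0 ≤ (k - 2) * (S.r - S.m) := mul_nonneg (by linarith) (by linarith [hS.mr])
      have e2 : (3 - k) * S.m ≤ (3 - k) * s := mul_le_mul_of_nonneg_left hm (by linarith)
      have e3 : (k - 2) * S.n ≤ (k - 2) * s := mul_le_mul_of_nonneg_left hn (by linarith)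
      have e4 : (k - 2) * qb ≤ (k - 2) * qa := mul_le_mul_of_nonneg_left hq (by linarith)
      nlinarith [hS.e0]
    · have e1 : 0 ≤ (k / 3) * (S.r - S.m) := mul_nonneg (by linarith) (by linarith [hS.mr])
      have e2 : 0 ≤ (k / 3 - 1) * (S.x - S.n) := mul_nonneg (by linarith) (by linarith)
      have e3 : 0 ≤ (2 * k / 3 - 1) * (S.h - S.n) := mul_nonneg (by linarith) (by linarith)
      have e4 : 0 ≤ (k / 3) * (qa - qb) := mul_nonneg (by linarith) (by linarith)
      nlinarith [hS.e0, hS.n0, mul_nonneg (by linarith : (0 : ℝ) ≤ k / 3 - 1) hS.n0]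
  have main : ∀ μ : ℝ, 1 ≤ μ → k / 3 ≤ μ → μ ≤ k / 2 → (μ = 1 ∧ k ≤ 3 ∨ μ = k / 3) → False := by
    intro μ h1 h2 h3 hor
    rcases le_or_gt μ θ with h | h
    · refine one μ h1 h2 h3 A hA hAx hAh hAn hAm hor ?_
      have h3 : fv k b qb A - μ * ft2 qa qb A = (θ - μ) * ft2 qa qb A := by rw [tanA]; ring
      rw [h3]
      exact mul_nonneg (by linarith) verA
    · refine one μ h1 h2 h3 B hB hBx hBh hBn hBm hor ?_
      have h3 : fv k b qb B - μ * ft2 qa qb B = (θ - μ) * ft2 qa qb B := by rw [tanB]; ring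
      rw [h3]
      exact mul_nonneg_of_nonpos_of_nonpos (by linarith) verB
  rcases le_or_gt k 3 with h | h
  · exact main 1 le_rfl (by linarith) (by linarith) (Or.inl ⟨rfl, h⟩)
  · exact main (k / 3) (by linarith) le_rfl (by linarith) (Or.inr rfl)

end Crest.Agent.R116.Ec460
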