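import Crest.Agent.R116.Ec1_460

/-!
# R116, K-TEXT II-c: more rows (helper460)

`etie_mid` (`1 ≤ k ≤ 2`, `μ = 1`) and `etie_high'` (`k ≥ 2`, `μ = k/2`): no `m > 0` above, no `NZ`.
`etie_one`: the resonance `k = 1` (`C_b ∥ X_a`): only the pair sum `r - x` of the coupled group
enters.  `dtie`: the double tie `k' = k + θ` (above = `e`-plane, below = `κ`-plane).
-/

set_option autoImplicit false

namespace Crest.Agent.R116.Ec460

/-- **`e`-tie, `1 ≤ k ≤ 2`** (`μ = 1`): only `n, m ≤ s` and `m ≤ r`. -/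
theorem etie_mid {k θ s b qa qb : ℝ} {A B : Side} (hk : 1 ≤ k) (hk2 : k ≤ 2) (hθ : 0 < θ)
    (hs : 0 ≤ s) (hb : 2 * s < b) (hqa : 0 < qa) (hq : qb ≤ qa)
    (hA : Win s A) (hB : Win s B)
    (tanA : fv k b qb A = θ * ft qa qb A) (tanB : fv k b qb B = θ * ft qa qb B)
    (verA : 0 ≤ ft qa qb A) (verB : ft qa qb B ≤ 0) (hqb : 0 ≤ qb)
    (hm : qa ≤ A.m) (hanti : B.m ≤ A.m) : False := by
  have hfvA : 0 ≤ fv k b qb A := by rw [tanA]; positivity
  obtain ⟨hAm, hAr, hAx, hAh, hAn⟩ := exits (by linarith) hs hb hq hA hm hqa hfvA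
  have one : ∀ S : Side, Win s S → S.n ≤ s → S.m ≤ s → 0 ≤ fv k b qb S - ft qa qb S → False := by
    intro S hS h2 h4 h
    unfold fv ft at h
    nlinarith [hS.e0, hS.h0, mul_le_mul_of_nonneg_left h2 (by linarith : (0 : ℝ) ≤ k),
      mul_le_mul_of_nonneg_left h4 (by linarith : (0 : ℝ) ≤ 2 - k),
      mul_nonneg (by linarith : (0 : ℝ) ≤ k - 1) (by linarith [hS.mr] : (0 : ℝ) ≤ S.r - S.m),
      mul_le_mul_of_nonneg_left hq (by linarith : (0 : ℝ) ≤ k - 1),
      mul_nonneg (by linarith : (0 : ℝ) ≤ 2 - k) hqa.le]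
  rcases le_or_gt 1 θ with h1 | h1
  · refine one A hA hAn hAm ?_
    have h3 : fv k b qb A - ft qa qb A = (θ - 1) * ft qa qb A := by rw [tanA]; ring
    rw [h3]
    exact mul_nonneg (by linarith) verA
  · have hBr0 : 0 < B.r := by
      unfold ft at verB
      linarith [hB.x0, hB.h0, hB.n0, hB.mr]
    refine one B hB (hB.kn hBr0) (by linarith) ?_
    have h3 : fv k b qb B - ft qa qb B = (θ - 1) * ft qa qb B := by rw [tanB]; ring
    rw [h3]
    exact mul_nonneg_of_nonpos_of_nonpos (by linarith) verB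

/-- **`e`-tie, `k ≥ 2`** (`μ = k / 2`): only `n ≤ x`, `n ≤ s`, `m ≤ r`. -/
theorem etie_high' {k θ s b qa qb : ℝ} {A B : Side} (hk : 2 ≤ k) (hθ : 0 < θ)
    (hs : 0 ≤ s) (hb : 2 * s < b) (hqa : 0 < qa) (hqb : 0 ≤ qb) (hq : qb ≤ qa)
    (hA : Win s A) (hB : Win s B) (hAnx : A.n ≤ A.x) (hBnx : B.n ≤ B.x)
    (tanA : fv k b qb A = θ * ft qa qb A) (tanB : fv k b qb B = θ * ft qa qb B)
    (verA : 0 ≤ ft qa qb A) (verB : ft qa qb B ≤ 0)
    (hm : qa ≤ A.m) : False := by
  have hfvA : 0 ≤ fv k b qb A := by rw [tanA]; positivity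
  obtain ⟨-, -, -, -, hAn⟩ := exits (by linarith) hs hb hq hA hm hqa hfvA
  have key : ∀ S : Side, Win s S → S.n ≤ S.x → S.n ≤ s →
      0 ≤ fv k b qb S - (k / 2) * ft qa qb S → False := by
    intro S hS hnx hn h
    unfold fv ft at h
    have e1 : 0 ≤ (k / 2) * (S.r - S.m) := mul_nonneg (by linarith) (by linarith [hS.mr])
    have e2 : 0 ≤ (k / 2 - 1) * (S.x - S.n) := mul_nonneg (by linarith) (by linarith)
    have e3 : 0 ≤ (k / 2) * (qa - qb) := mul_nonneg (by linarith) (by linarith)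
    have e4 : 0 ≤ (k - 1) * S.h := mul_nonneg (by linarith) hS.h0
    nlinarith [hS.e0]
  rcases le_or_gt (k / 2) θ with h | h
  · refine key A hA hAnx hAn ?_
    have h3 : fv k b qb A - (k / 2) * ft qa qb A = (θ - k / 2) * ft qa qb A := by rw [tanA]; ring
    rw [h3]
    exact mul_nonneg (by linarith) verA
  · have hBr0 : 0 < B.r := by
      unfold ft at verB
      linarith [hB.x0, hB.h0, hB.n0, hB.mr]
    refine key B hB hBnx (hB.kn hBr0) ?_
    have h3 : fv k b qb B - (k / 2) * ft qa qb B = (θ - k / 2) * ft qa qb B := by rw [tanB]; ring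
    rw [h3]
    exact mul_nonneg_of_nonpos_of_nonpos (by linarith) verB

/-- **`e`-tie, resonance `k = 1`** (`C_b ∥ X_a`): only `g = x - r` of the coupled group occurs
(`P_v = g + h + 2 n - e`, `P_t = g + 2 h + n - m`); inputs `n, m ≤ s` on the side used. -/
theorem etie_one {θ s b qa qb : ℝ} {A B : Side} 
    (hb : 2 * s < b) (hqa : 0 < qa)
    (hAe : 0 ≤ A.e) (hBe : 0 ≤ B.e) (hAh : 0 ≤ A.h) (hBh : 0 ≤ B.h)
    (tanA : fv 1 b qb A = θ * ft qa qb A) (tanB : fv 1 b qb B = θ * ft qa qb B)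
    (verA : 0 ≤ ft qa qb A) (verB : ft qa qb B ≤ 0)
    (hA : 1 ≤ θ → A.n ≤ s ∧ A.m ≤ s) (hB : θ < 1 → B.n ≤ s ∧ B.m ≤ s) : False := by
  rcases le_or_gt 1 θ with h1 | h1
  · obtain ⟨h2, h3⟩ := hA h1
    have h4 : 0 ≤ (θ - 1) * ft qa qb A := mul_nonneg (by linarith) verA
    have h5 : fv 1 b qb A - ft qa qb A = (θ - 1) * ft qa qb A := by rw [tanA]; ring
    rw [← h5] at h4
    unfold fv ft at h4
    nlinarith
  · obtain ⟨h2, h3⟩ := hB h1
    have h4 : 0 ≤ (θ - 1) * ft qa qb B := mul_nonneg_of_nonpos_of_nonpos (by linarith) verB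
    have h5 : fv 1 b qb B - ft qa qb B = (θ - 1) * ft qa qb B := by rw [tanB]; ring
    rw [← h5] at h4
    unfold fv ft at h4
    nlinarith

set_option maxHeartbeats 3200000 in
/-- **double tie** `b ≤ min (a + k v) (2 a + k' v)`, `k' = k + θ`: above = `e`-plane, below =
`κ`-plane; `k' ≥ 1`. -/
theorem dtie {k k' θ s b qa qb : ℝ} {A B : Side} (hk : 0 ≤ k) (hkk : k' = k + θ) (hk1 : 1 ≤ k')
    (hθ : 0 < θ) (hs : 0 ≤ s) (hb : 2 * s < b) (hqa : 0 < qa) (hqb : 0 ≤ qb) (hq : qb ≤ qa)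
    (hA : Win s A) (hB : Win s B)
    (hAh : 2 < k → A.n ≤ A.h) (hBx : 2 < k → B.n ≤ B.x)
    (hAh' : 2 < k' → A.n ≤ A.h)
    (tanA : fv k' b qb A = θ * ft2 qa qb A) (tanB : fv k b qb B = θ * ft qa qb B)
    (verA : 0 ≤ ft2 qa qb A) (verB : ft qa qb B ≤ 0)
    (hm : qa ≤ A.m) (hanti : B.m ≤ A.m)
    (hNZ : B.n = 0 → (1 + k - θ) * A.n ≤ A.e) : False := by
  have hfvA : 0 ≤ fv k' b qb A := by rw [tanA]; positivity
  obtain ⟨hAm, hAr, hAxs, hAhs, hAn⟩ := exits (by linarith) hs hb hq hA hm hqa hfvA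
  have hBm : B.m ≤ s := by linarith
  have hBr0 : 0 < B.r := by
    unfold ft at verB
    linarith [hB.x0, hB.h0, hB.n0, hB.mr]
  have hBn := hB.kn hBr0
  rcases le_or_gt k 2 with h2 | h2
  · -- `μ = 1` on both sides
    rcases le_or_gt 1 θ with h1 | h1
    · have h4 : 0 ≤ (θ - 1) * ft2 qa qb A := mul_nonneg (by linarith) verA
      have h5 : fv k' b qb A - ft2 qa qb A = (θ - 1) * ft2 qa qb A := by rw [tanA]; ring
      rw [← h5] at h4
      rcases le_or_gt k' 2 with h6 | h6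
      · unfold fv ft2 at h4
        nlinarith [hA.e0, hA.h0, mul_le_mul_of_nonneg_left hAn (by linarith : (0 : ℝ) ≤ k' - 1),
          mul_le_mul_of_nonneg_left hAr (by linarith : (0 : ℝ) ≤ 2 - k'),
          mul_nonneg (by linarith : (0 : ℝ) ≤ 2 - k') hqb]
      · rcases le_or_gt k' 3 with h7 | h7
        · unfold fv ft2 at h4
          nlinarith [hA.e0, hAh' h6,
            mul_nonneg (by linarith : (0 : ℝ) ≤ k' - 2) (by linarith [hA.mr] : (0 : ℝ) ≤ A.r - A.m),
            mul_le_mul_of_nonneg_left hAm (by linarith : (0 : ℝ) ≤ 3 - k'),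
            mul_le_mul_of_nonneg_left hAn (by linarith : (0 : ℝ) ≤ k' - 2),
            mul_le_mul_of_nonneg_left hq (by linarith : (0 : ℝ) ≤ k' - 2)]
        · -- `k' > 3`, `k ≤ 2`: `μ = k'/3 ≤ θ`
          have h8 : 0 ≤ (θ - k' / 3) * ft2 qa qb A := mul_nonneg (by linarith) verA
          have h9 : fv k' b qb A - (k' / 3) * ft2 qa qb A = (θ - k' / 3) * ft2 qa qb A := by
            rw [tanA]; ring
          rw [← h9] at h8
          unfold fv ft2 at h8
          have e1 : 0 ≤ (k' / 3) * (A.r - A.m) := mul_nonneg (by linarith) (by linarith [hA.mr])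
          have e2 : 0 ≤ (k' / 3 - 1) * A.x := mul_nonneg (by linarith) hA.x0
          have e3 : 0 ≤ (2 * k' / 3 - 1) * (A.h - A.n) :=
            mul_nonneg (by linarith) (by linarith [hAh' h6])
          have e4 : 0 ≤ (k' / 3) * (qa - qb) := mul_nonneg (by linarith) (by linarith)
          have e5 : 0 ≤ (k' / 3 - 1) * A.n := mul_nonneg (by linarith) hA.n0
          nlinarith [hA.e0, hA.n0]
    · have h4 : 0 ≤ (θ - 1) * ft qa qb B := mul_nonneg_of_nonpos_of_nonpos (by linarith) verB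
      have h5 : fv k b qb B - ft qa qb B = (θ - 1) * ft qa qb B := by rw [tanB]; ring
      rw [← h5] at h4
      rcases le_or_gt 1 k with h6 | h6
      · unfold fv ft at h4
        nlinarith [hB.e0, hB.h0, mul_le_mul_of_nonneg_left hBn (by linarith : (0 : ℝ) ≤ k),
          mul_le_mul_of_nonneg_left hBm (by linarith : (0 : ℝ) ≤ 2 - k),
          mul_nonneg (by linarith : (0 : ℝ) ≤ k - 1) (by linarith [hB.mr] : (0 : ℝ) ≤ B.r - B.m),
          mul_le_mul_of_nonneg_left hq (by linarith : (0 : ℝ) ≤ k - 1),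
          mul_nonneg (by linarith : (0 : ℝ) ≤ 2 - k) hqa.le]
      · rcases le_or_gt B.r s with h7 | h7
        · unfold fv ft at h4
          nlinarith [hB.e0, hB.h0, mul_le_mul_of_nonneg_left hBn hk,
            mul_le_mul_of_nonneg_left h7 (by linarith : (0 : ℝ) ≤ 1 - k),
            mul_nonneg (by linarith : (0 : ℝ) ≤ 1 - k) hqb]
        · have hN := hNZ (hB.fn h7)
          have hrq : 0 ≤ A.r - qb := by linarith [hA.mr]
          have hrq' : A.r - qb ≤ s := by linarith
          have e1 : (1 - θ) * A.x ≤ (1 - θ) * s := mul_le_mul_of_nonneg_left hAxs (by linarith)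
          have e2 : θ * A.m ≤ θ * s := mul_le_mul_of_nonneg_left hAm hθ.le
          have e3 : 0 ≤ θ * qa := by positivity
          have e4 : (1 - 2 * θ) * A.h ≤ max 0 ((1 - 2 * θ) * s) := by
            rcases le_or_gt (1 - 2 * θ) 0 with h | h
            · exact (mul_nonpos_of_nonpos_of_nonneg h hA.h0).trans (le_max_left _ _)
            · exact (mul_le_mul_of_nonneg_left hAhs h.le).trans (le_max_right _ _)
          have e5 : (θ - k) * (A.r - qb) ≤ θ * s := by
            rcases le_or_gt (θ - k) 0 with h | h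
            · exact (mul_nonpos_of_nonpos_of_nonneg h hrq).trans (by positivity)
            · calc (θ - k) * (A.r - qb) ≤ (θ - k) * s := mul_le_mul_of_nonneg_left hrq' h.le
                _ ≤ θ * s := mul_le_mul_of_nonneg_right (by linarith) hs
          have e6 : b ≤ (1 - θ) * A.x + (1 - 2 * θ) * A.h + (θ - k) * (A.r - qb) + θ * A.m
              - θ * qa := by
            unfold fv ft2 at tanA
            subst hkk
            linarith
          rcases le_or_gt ((1 - 2 * θ) * s) 0 with h | h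
          · rw [max_eq_left h] at e4
            nlinarith
          · rw [max_eq_right h.le] at e4
            nlinarith [mul_nonneg hθ.le hs]
  · -- `k > 2`: thresholds `k / 2` and `k' / 3` agree
    rcases le_or_gt (k / 2) θ with h | h
    · have h8 : 0 ≤ (θ - k' / 3) * ft2 qa qb A := mul_nonneg (by linarith) verA
      have h9 : fv k' b qb A - (k' / 3) * ft2 qa qb A = (θ - k' / 3) * ft2 qa qb A := by
        rw [tanA]; ring
      rw [← h9] at h8
      unfold fv ft2 at h8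
      have e1 : 0 ≤ (k' / 3) * (A.r - A.m) := mul_nonneg (by linarith) (by linarith [hA.mr])
      have e2 : 0 ≤ (k' / 3 - 1) * A.x := mul_nonneg (by linarith) hA.x0
      have e3 : 0 ≤ (2 * k' / 3 - 1) * (A.h - A.n) :=
        mul_nonneg (by linarith) (by linarith [hAh h2])
      have e4 : 0 ≤ (k' / 3) * (qa - qb) := mul_nonneg (by linarith) (by linarith)
      have e5 : 0 ≤ (k' / 3 - 1) * A.n := mul_nonneg (by linarith) hA.n0
      nlinarith [hA.e0, hA.n0]
    · have h8 : 0 ≤ (θ - k / 2) * ft qa qb B := mul_nonneg_of_nonpos_of_nonpos (by linarith) verB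
      have h9 : fv k b qb B - (k / 2) * ft qa qb B = (θ - k / 2) * ft qa qb B := by rw [tanB]; ring
      rw [← h9] at h8
      unfold fv ft at h8
      have e1 : 0 ≤ (k / 2) * (B.r - B.m) := mul_nonneg (by linarith) (by linarith [hB.mr])
      have e2 : 0 ≤ (k / 2 - 1) * (B.x - B.n) := mul_nonneg (by linarith) (by linarith [hBx h2])
      have e3 : 0 ≤ (k / 2) * (qa - qb) := mul_nonneg (by linarith) (by linarith)
      have e4 : 0 ≤ (k - 1) * B.h := mul_nonneg (by linarith) hB.h0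
      nlinarith [hB.e0]

end Crest.Agent.R116.Ec460
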