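import Crest.Agent.R116.Ec1_460

/-!
# R116, K-TEXT II-c (doc 2364), section 3: the rows of the lower half `T⁻` of the tie plane,
with the flag terms and the resonance rows (helper460)

Only the side below the record is used (`A : Side`, `tan` and `ver` on it).
`w` = rate of the flag slot `E` (`κ`-tie only: slope `(k,1)`); the flag slots `G`, `D` and the `E` of
the `e`-tie are parallel to `z` and are contained in `e ≥ 0`.
* `low_e_half`   `e`-tie, `0 ≤ k ≤ 1`, `1/2 ≤ θ`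
* `low_e_mid`    `e`-tie, `1 ≤ k ≤ 2`, `k/2 ≤ θ`
* `low_e_high`   `e`-tie, `2 ≤ k`, `k/2 ≤ θ` (`n ≤ x`)
* `low_e_res1`   `e`-tie, `k = 1`, `1 ≤ θ` (`C_b ∥ X_a`)
* `low_e_resh`   `e`-tie, `k = 1/2`, `1/2 ≤ θ` (`C_b ∥ H`)
* `low_k_a`      `κ`-tie, `1 ≤ k ≤ 3/2`, `1/2 ≤ θ`
* `low_k_b`      `κ`-tie, `3/2 ≤ k ≤ 3`, `k/3 ≤ θ`
* `low_k_c`      `κ`-tie, `3 ≤ k`, `k/3 ≤ θ` (`n ≤ h` or `n ≤ x`)
* `low_k_res2`   `κ`-tie, `k = 2`, `1 ≤ θ` (`C_b ∥ X_a`)
-/

set_option autoImplicit false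

namespace Crest.Agent.R116.Ec460

/-- from the tangential identity and the vertical inequality: all directions `(-1, μ)`, `μ ≤ θ` -/
theorem lin_of {θ μ Fv Ft : ℝ} (tan : Fv = θ * Ft) (ver : 0 ≤ Ft) (hμ : μ ≤ θ) :
    0 ≤ Fv - μ * Ft := by
  have : Fv - μ * Ft = (θ - μ) * Ft := by rw [tan]; ring
  rw [this]
  exact mul_nonneg (by linarith) ver

theorem low_e_half {k θ s b qa qb : ℝ} {A : Side} (hk : 0 ≤ k) (hk1 : k ≤ 1) (hθ : 1 / 2 ≤ θ)
    (hs : 0 ≤ s) (hb : 2 * s < b) (hqa : 0 < qa) (hqb : 0 ≤ qb) (hq : qb ≤ qa) (hA : Win s A)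
    (tanA : fv k b qb A = θ * ft qa qb A) (verA : 0 ≤ ft qa qb A) (hm : qa ≤ A.m) : False := by
  have hfvA : 0 ≤ fv k b qb A := by rw [tanA]; exact mul_nonneg (by linarith) verA
  obtain ⟨hAm, hAr, hAx, hAh, hAn⟩ := exits hk hs hb hq hA hm hqa hfvA
  have h := lin_of tanA verA hθ
  unfold fv ft at h
  have h1 : (1 / 2 + k) * A.n ≤ (1 / 2 + k) * s := mul_le_mul_of_nonneg_left hAn (by linarith)
  rcases le_or_gt k (1 / 2) with h2 | h2
  · have h3 : (1 / 2 - k) * (A.r - qb) ≤ (1 / 2 - k) * s :=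
      mul_le_mul_of_nonneg_left (by linarith) (by linarith)
    nlinarith [hA.e0]
  · have h3 : 0 ≤ (k - 1 / 2) * (A.r - A.m) := mul_nonneg (by linarith) (by linarith [hA.mr])
    have h4 : (1 - k) * A.m ≤ (1 - k) * s := mul_le_mul_of_nonneg_left hAm (by linarith)
    have h5 : 0 ≤ (k - 1 / 2) * (qa - qb) := mul_nonneg (by linarith) (by linarith)
    have h6 : 0 ≤ (1 - k) * qa := mul_nonneg (by linarith) hqa.le
    nlinarith [hA.e0]

theorem low_e_mid {k θ s b qa qb : ℝ} {A : Side} (hk : 1 ≤ k) (hk2 : k ≤ 2) (hθ : k / 2 ≤ θ)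
    (hs : 0 ≤ s) (hb : 2 * s < b) (hqa : 0 < qa) (hq : qb ≤ qa) (hA : Win s A)
    (tanA : fv k b qb A = θ * ft qa qb A) (verA : 0 ≤ ft qa qb A) (hm : qa ≤ A.m) : False := by
  have hfvA : 0 ≤ fv k b qb A := by rw [tanA]; exact mul_nonneg (by linarith) verA
  obtain ⟨hAm, hAr, hAx, hAh, hAn⟩ := exits (by linarith) hs hb hq hA hm hqa hfvA
  have h := lin_of tanA verA hθ
  unfold fv ft at h
  have h1 : (1 + k / 2) * A.n ≤ (1 + k / 2) * s := mul_le_mul_of_nonneg_left hAn (by linarith)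
  have h2 : (1 - k / 2) * A.x ≤ (1 - k / 2) * s := mul_le_mul_of_nonneg_left hAx (by linarith)
  have h3 : 0 ≤ (k / 2) * (A.r - A.m) := mul_nonneg (by linarith) (by linarith [hA.mr])
  have h4 : 0 ≤ (k / 2) * (qa - qb) := mul_nonneg (by linarith) (by linarith)
  have h5 : 0 ≤ (k - 1) * A.h := mul_nonneg (by linarith) hA.h0
  nlinarith [hA.e0]

theorem low_e_high {k θ s b qa qb : ℝ} {A : Side} (hk : 2 ≤ k) (hθ : k / 2 ≤ θ)
    (hs : 0 ≤ s) (hb : 2 * s < b) (hqa : 0 < qa) (hq : qb ≤ qa) (hA : Win s A)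
    (hnx : A.n ≤ A.x)
    (tanA : fv k b qb A = θ * ft qa qb A) (verA : 0 ≤ ft qa qb A) (hm : qa ≤ A.m) : False := by
  have hfvA : 0 ≤ fv k b qb A := by rw [tanA]; exact mul_nonneg (by linarith) verA
  obtain ⟨hAm, hAr, hAx, hAh, hAn⟩ := exits (by linarith) hs hb hq hA hm hqa hfvA
  have h := lin_of tanA verA hθ
  unfold fv ft at h
  have h2 : 0 ≤ (k / 2 - 1) * (A.x - A.n) := mul_nonneg (by linarith) (by linarith)
  have h3 : 0 ≤ (k / 2) * (A.r - A.m) := mul_nonneg (by linarith) (by linarith [hA.mr])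
  have h4 : 0 ≤ (k / 2) * (qa - qb) := mul_nonneg (by linarith) (by linarith)
  have h5 : 0 ≤ (k - 1) * A.h := mul_nonneg (by linarith) hA.h0
  nlinarith [hA.e0]

/-- resonance `k = 1`: the coupled group `(C_b, X_a)` enters only through `g` (`= x - r`), and
`g ≤ x₀` (`x₀` = loss of `X_a` alone). -/
theorem low_e_res1 {θ s b qa qb g x₀ h n m e : ℝ} (hθ : 1 ≤ θ) (hs : 0 ≤ s) (hb : 2 * s + qb < b)
    (hqa : 0 < qa) (hqb : 0 ≤ qb) (hh0 : 0 ≤ h) (he : 0 ≤ e) (hg : g ≤ x₀)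
    (hn : 0 < m → n ≤ s) (fx : s < m → x₀ = 0) (fh : s < m → h = 0)
    (tan : g + h + 2 * n - e - b + qb = θ * (g + 2 * h + n - m + qa + qb))
    (ver : 0 ≤ g + 2 * h + n - m + qa + qb) (hm : qa ≤ m) : False := by
  have h1 := lin_of tan ver hθ
  have h0 := lin_of tan ver (by linarith : (0 : ℝ) ≤ θ)
  have hn' := hn (by linarith)
  rcases le_or_gt m s with h2 | h2
  · nlinarith
  · have := fx h2
    have := fh h2
    nlinarith

/-- resonance `k = 1/2`: the coupled group `(C_b, H)` enters only through its rate `Q` per unit of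
the `C_b`-level (`Q = r + 2 (1 - h)`); `r₀` = rate of `C_b` alone. -/
theorem low_e_resh {θ s b qa qb Q x n m r₀ e : ℝ} (hθ : 1 / 2 ≤ θ) (hs : 0 ≤ s)
    (hb : 2 * s < b) (hbq : qb < b) (hqa : 0 < qa) (hqb : 0 ≤ qb) (he : 0 ≤ e)
    (mr : m ≤ r₀) (kx : 0 < m → x ≤ s) (fx : s < m → x = 0) (fQ : s < m → 2 ≤ Q)
    (kn : 0 < r₀ → n ≤ s) (fn : s < r₀ → n = 0)
    (tan : x + 3 / 2 * n + (1 - Q / 2) - e - b + qb / 2
      = θ * (x + n - m + (2 - Q) + qa + qb))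
    (ver : 0 ≤ x + n - m + (2 - Q) + qa + qb) (hm : qa ≤ m) : False := by
  have h1 := lin_of tan ver hθ
  have h0 := lin_of tan ver (by linarith : (0 : ℝ) ≤ θ)
  have hx := kx (by linarith)
  have hn := kn (by linarith)
  rcases le_or_gt m s with h2 | h2
  · nlinarith
  · have := fx h2
    have := fQ h2
    have := fn (by linarith)
    nlinarith

/-- `v`-derivative on the `κ`-tie plane with the `E`-rate `w` -/
def fvw (k b qb w : ℝ) (S : Side) : ℝ := fv k b qb S - k * w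

/-- `t`-derivative on the `κ`-tie plane with the `E`-rate `w` -/
def ft2w (qa qb w : ℝ) (S : Side) : ℝ := ft2 qa qb S - w

theorem low_k_a {k θ s b qa qb w : ℝ} {A : Side} (hk : 1 ≤ k) (hk2 : k ≤ 3 / 2) (hθ : 1 / 2 ≤ θ)
    (hs : 0 ≤ s) (hb : 2 * s < b) (hqa : 0 < qa) (hqb : 0 ≤ qb) (hq : qb ≤ qa) (hw : 0 ≤ w)
    (hA : Win s A) (tanA : fvw k b qb w A = θ * ft2w qa qb w A) (verA : 0 ≤ ft2w qa qb w A)
    (hm : qa ≤ A.m) : False := by
  have h0 : 0 ≤ fvw k b qb w A := by rw [tanA]; exact mul_nonneg (by linarith) verA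
  have hkw : 0 ≤ k * w := mul_nonneg (by linarith) hw
  have hfvA : 0 ≤ fv k b qb A := by unfold fvw at h0; linarith
  obtain ⟨hAm, hAr, hAx, hAh, hAn⟩ := exits (by linarith) hs hb hq hA hm hqa hfvA
  have h := lin_of tanA verA hθ
  unfold fvw ft2w fv ft2 at h
  have h1 : k * A.n ≤ k * s := mul_le_mul_of_nonneg_left hAn (by linarith)
  have h2 : 0 ≤ (k - 1) * (A.r - A.m) := mul_nonneg (by linarith) (by linarith [hA.mr])
  have h3 : (3 / 2 - k) * A.m ≤ (3 / 2 - k) * s := mul_le_mul_of_nonneg_left hAm (by linarith)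
  have h4 : (k - 1) * qb ≤ (k - 1) * qa := mul_le_mul_of_nonneg_left hq (by linarith)
  have h5 : 0 ≤ (k - 1 / 2) * w := mul_nonneg (by linarith) hw
  nlinarith [hA.e0]

theorem low_k_b {k θ s b qa qb w : ℝ} {A : Side} (hk : 3 / 2 ≤ k) (hk2 : k ≤ 3) (hθ : k / 3 ≤ θ)
    (hs : 0 ≤ s) (hb : 2 * s < b) (hqa : 0 < qa) (hq : qb ≤ qa) (hw : 0 ≤ w)
    (hA : Win s A) (tanA : fvw k b qb w A = θ * ft2w qa qb w A) (verA : 0 ≤ ft2w qa qb w A)
    (hm : qa ≤ A.m) : False := by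
  have h0 : 0 ≤ fvw k b qb w A := by rw [tanA]; exact mul_nonneg (by linarith) verA
  have hkw : 0 ≤ k * w := mul_nonneg (by linarith) hw
  have hfvA : 0 ≤ fv k b qb A := by unfold fvw at h0; linarith
  obtain ⟨hAm, hAr, hAx, hAh, hAn⟩ := exits (by linarith) hs hb hq hA hm hqa hfvA
  have h := lin_of tanA verA hθ
  unfold fvw ft2w fv ft2 at h
  have h1 : (1 + k / 3) * A.n ≤ (1 + k / 3) * s := mul_le_mul_of_nonneg_left hAn (by linarith)
  have h2 : (1 - k / 3) * A.x ≤ (1 - k / 3) * s := mul_le_mul_of_nonneg_left hAx (by linarith)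
  have h3 : 0 ≤ (k / 3) * (A.r - A.m) := mul_nonneg (by linarith) (by linarith [hA.mr])
  have h4 : 0 ≤ (k / 3) * (qa - qb) := mul_nonneg (by linarith) (by linarith)
  have h5 : 0 ≤ (2 * k / 3) * w := mul_nonneg (by linarith) hw
  have h6 : 0 ≤ (2 * k / 3 - 1) * A.h := mul_nonneg (by linarith) hA.h0
  nlinarith [hA.e0]

theorem low_k_c {k θ s b qa qb w : ℝ} {A : Side} (hk : 3 ≤ k) (hθ : k / 3 ≤ θ)
    (hs : 0 ≤ s) (hb : 2 * s < b) (hqa : 0 < qa) (hq : qb ≤ qa) (hw : 0 ≤ w)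
    (hA : Win s A) (hn : A.n ≤ A.h ∨ A.n ≤ A.x)
    (tanA : fvw k b qb w A = θ * ft2w qa qb w A) (verA : 0 ≤ ft2w qa qb w A)
    (hm : qa ≤ A.m) : False := by
  have h0 : 0 ≤ fvw k b qb w A := by rw [tanA]; exact mul_nonneg (by linarith) verA
  have hkw : 0 ≤ k * w := mul_nonneg (by linarith) hw
  have hfvA : 0 ≤ fv k b qb A := by unfold fvw at h0; linarith
  obtain ⟨hAm, hAr, hAx, hAh, hAn⟩ := exits (by linarith) hs hb hq hA hm hqa hfvA
  have h := lin_of tanA verA hθ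
  unfold fvw ft2w fv ft2 at h
  have h3 : 0 ≤ (k / 3) * (A.r - A.m) := mul_nonneg (by linarith) (by linarith [hA.mr])
  have h4 : 0 ≤ (k / 3) * (qa - qb) := mul_nonneg (by linarith) (by linarith)
  have h5 : 0 ≤ (2 * k / 3) * w := mul_nonneg (by linarith) hw
  have h7 : 0 ≤ (k / 3 - 1) * A.x := mul_nonneg (by linarith) hA.x0
  have h8 : 0 ≤ (k / 3 - 1) * A.n := mul_nonneg (by linarith) hA.n0
  have h9 : 0 ≤ (2 * k / 3 - 1) * A.h := mul_nonneg (by linarith) hA.h0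
  rcases hn with hn | hn
  · have h6 : 0 ≤ (2 * k / 3 - 1) * (A.h - A.n) := mul_nonneg (by linarith) (by linarith)
    nlinarith [hA.e0]
  · have h6 : 0 ≤ (k / 3 - 1) * (A.x - A.n) := mul_nonneg (by linarith) (by linarith)
    nlinarith [hA.e0]

/-- resonance `k' = 2` (`C_b ∥ X_a`): the coupled group enters through `g` (`= x - 2 r`),
`g ≤ x₀`. -/
theorem low_k_res2 {θ s b qa qb g x₀ h n m w e : ℝ} (hθ : 1 ≤ θ) (hs : 0 ≤ s) (hb : 2 * s < b)
    (hbq : 2 * qb < b) (hqa : 0 < qa) (hqb : 0 ≤ qb) (he : 0 ≤ e) (hw : 0 ≤ w) (hg : g ≤ x₀)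
    (hnh : n ≤ h) (fx : s < m → x₀ = 0) (fh : s < m → h = 0)
    (tan : g + h + 3 * n - 2 * w - e - b + 2 * qb = θ * (g + 2 * h + 2 * n - m - w + qa + 2 * qb))
    (ver : 0 ≤ g + 2 * h + 2 * n - m - w + qa + 2 * qb) (hm : qa ≤ m) : False := by
  have h1 := lin_of tan ver hθ
  have h0 := lin_of tan ver (by linarith : (0 : ℝ) ≤ θ)
  rcases le_or_gt m s with h2 | h2
  · nlinarith
  · have := fx h2
    have := fh h2
    nlinarith

end Crest.Agent.R116.Ec460
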