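import Crest.Agent.R116.LZg4_725

/-!
# R116, K2 (ENEMY), part 1 (helper618): anisotropic scaling of light rays and conformal functions

`Φ (x, y, s) = (lam x, (lam²/mu) y, mu s + tau)`: rays `(C, a, k)` go to rays
`sR lam mu tau (C, a, k)`, of slope `(lam/mu) C`; a conformal function `p` of the new coordinates
is pulled back to `back lam mu tau p = lam⁻¹ p ∘ Φ`, with the same Klein form.
-/

set_option autoImplicit false
set_option linter.unusedSectionVars false

namespace Crest.Agent.R116.Ene618

open Crest.Agent.R116.LZg725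

variable {E : Type*} [NormedAddCommGroup E] [InnerProductSpace ℝ E]

/-- slope of the new ray. -/
noncomputable def sC (lam mu : ℝ) (C : E) : E := (lam / mu) • C

/-- lateral position at time `0` of the new ray. -/
noncomputable def sa (lam mu tau : ℝ) (C a : E) : E := lam • a + tau • sC lam mu C

/-- null position at time `0` of the new ray. -/
noncomputable def sk (lam mu tau : ℝ) (C : E) (k : ℝ) : ℝ :=
  lam ^ 2 / mu * k - tau * ‖sC lam mu C‖ ^ 2 / 2

theorem rx_sR (lam : ℝ) {mu : ℝ} (hmu : mu ≠ 0) (tau : ℝ) (C a : E) (s : ℝ) :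
    rx (sC lam mu C) (sa lam mu tau C a) (mu * s + tau) = lam • rx C a s := by
  unfold rx sa sC
  rw [smul_smul, smul_smul, smul_sub, smul_smul,
    show (mu * s + tau) * (lam / mu) = lam * s + tau * (lam / mu) by field_simp, add_smul]
  abel

theorem ry_sR (lam : ℝ) {mu : ℝ} (hmu : mu ≠ 0) (tau : ℝ) (C : E) (k s : ℝ) :
    ry (sC lam mu C) (sk lam mu tau C k) (mu * s + tau) = lam ^ 2 / mu * ry C k s := by
  unfold ry sk sC
  rw [norm_smul, mul_pow, Real.norm_eq_abs, sq_abs]
  field_simp
  ring

/-- pull-back of a conformal function under the scaling (divided by `lam`). -/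
noncomputable def back (lam mu tau : ℝ) (p : Cf E) : Cf E where
  a0 := (p.a0 + p.a1 * tau) / lam
  a1 := p.a1 * mu / lam
  be := p.be
  g := lam / mu * (p.g - 2 * p.d * tau)
  d := lam * p.d

theorem back_ev {lam mu : ℝ} (hlam : lam ≠ 0) (hmu : mu ≠ 0) (tau : ℝ) (p : Cf E) (x : E)
    (y s : ℝ) :
    lam * (back lam mu tau p).ev x y s = p.ev (lam • x) (lam ^ 2 / mu * y) (mu * s + tau) := by
  unfold back Cf.ev
  simp only []
  rw [real_inner_smul_right, norm_smul, mul_pow, Real.norm_eq_abs, sq_abs]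
  field_simp
  ring

theorem back_disc {lam mu : ℝ} (hlam : lam ≠ 0) (hmu : mu ≠ 0) (tau : ℝ) (p : Cf E) :
    (back lam mu tau p).disc = p.disc := by
  unfold back Cf.disc
  simp only []
  field_simp
  ring

theorem back_ny {mu : ℝ} (lam : ℝ) (hmu : mu ≠ 0) (tau : ℝ) (p : Cf E) (s : ℝ) :
    (back lam mu tau p).ny s = lam / mu * p.ny (mu * s + tau) := by
  unfold back Cf.ny
  simp only []
  field_simp
  ring

/-- values of the pull-back along a ray. -/
theorem back_ray {lam mu : ℝ} (hlam : lam ≠ 0) (hmu : mu ≠ 0) (tau : ℝ) (p : Cf E) (C a : E)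
    (k s : ℝ) :
    lam * (back lam mu tau p).ev (rx C a s) (ry C k s) s =
      p.ev (rx (sC lam mu C) (sa lam mu tau C a) (mu * s + tau))
        (ry (sC lam mu C) (sk lam mu tau C k) (mu * s + tau)) (mu * s + tau) := by
  rw [rx_sR lam hmu, ry_sR lam hmu, back_ev hlam hmu]

/-- the normal under the scaling. -/
theorem nrm_sR {lam mu : ℝ} (hmu : mu ≠ 0) (C x : E) (y s : ℝ) :
    nrm (sC lam mu C) (lam • x) (lam ^ 2 / mu * y) (mu * s) = lam ^ 2 / mu * nrm C x y s := by
  unfold nrm sC
  rw [real_inner_smul_left, real_inner_smul_right, norm_smul, mul_pow, Real.norm_eq_abs, sq_abs]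
  field_simp

end Crest.Agent.R116.Ene618
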