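import Crest.Agent.R116.Ene1_618

/-!
# R116, K2 (ENEMY), part 2 (helper618): the density bound at level `0`

`up_count`: a member of level `0` of the scaled coordinates (`lam = 1/64`, `mu = 1/4`, `tau = 1/2`)
contains at most `K0 * A * cost` rays, if all members of length `1` of the old coordinates do.
-/

set_option autoImplicit false
set_option linter.unusedVariables false

open Finset

namespace Crest.Agent.R116.Ene618

open Crest.Agent.R116.LZg725
open Crest.Agent.R138.Defs (E2)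
open Crest.Agent.R116.CDef480 (E3 lat pt vel)

/-! ### elementary -/

theorem norm2_le (v : E2) : ‖v‖ ≤ |v 0| + |v 1| := by
  have h := CDef480.normsq2 v
  have h0 := abs_nonneg (v 0)
  have h1 := abs_nonneg (v 1)
  have h2 : ‖v‖ ^ 2 ≤ (|v 0| + |v 1|) ^ 2 := by
    rw [h, ← sq_abs (v 0), ← sq_abs (v 1)]
    nlinarith
  exact (sq_le_sq₀ (norm_nonneg _) (by linarith)).1 h2

theorem abs_coord_le (v : E2) (i : Fin 2) : |v i| ≤ ‖v‖ := by
  have h := CDef480.normsq2 v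
  have h2 : |v i| ^ 2 ≤ ‖v‖ ^ 2 := by
    rw [h, sq_abs]
    fin_cases i
    · show v 0 ^ 2 ≤ _
      nlinarith [sq_nonneg (v 1)]
    · show v 1 ^ 2 ≤ _
      nlinarith [sq_nonneg (v 0)]
  exact (sq_le_sq₀ (abs_nonneg _) (norm_nonneg _)).1 h2

theorem abs_le_of_floor {x y w : ℝ} (hw : 0 < w) (h : ⌊x / w⌋ = ⌊y / w⌋) : |x - y| ≤ w := by
  have h1 := Int.abs_sub_lt_one_of_floor_eq_floor h
  have h2 : |x / w - y / w| = |x - y| / w := by rw [← sub_div, abs_div, abs_of_pos hw]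
  rw [h2, div_lt_one hw] at h1
  exact h1.le

theorem floor_mem_Icc {x y w : ℝ} {n : ℕ} (hw : 0 < w) (h : |x - y| ≤ n * w) :
    ⌊x / w⌋ ∈ Icc (⌊y / w⌋ - n) (⌊y / w⌋ + n) := by
  have h1 : |x / w - y / w| ≤ n := by
    rw [← sub_div, abs_div, abs_of_pos hw, div_le_iff₀ hw]; exact h
  rw [abs_le] at h1
  rw [mem_Icc]
  constructor
  · rw [Int.le_floor]
    push_cast
    have := Int.floor_le (y / w)
    linarith
  · have h3 := Int.floor_le (x / w)
    have h4 := Int.lt_floor_add_one (y / w)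
    have : ((⌊x / w⌋ : ℤ) : ℝ) < ((⌊y / w⌋ + n + 1 : ℤ) : ℝ) := by push_cast; linarith
    have := Int.cast_lt.1 this
    omega

open Classical in
/-- counting by grid cells -/
theorem card_le_cells {ι : Type*} {k : ℕ} (S : Finset ι) (g : ι → Fin k → ℤ) {n : ℕ} (i0 : ι)
    (hg : ∀ i ∈ S, ∀ j, g i j ∈ Icc (g i0 j - n) (g i0 j + n)) {A : ℝ} (hA0 : 0 ≤ A)
    (hA : ∀ i ∈ S, ((S.filter fun t => g t = g i).card : ℝ) ≤ A) :
    (S.card : ℝ) ≤ (2 * n + 1) ^ k * A := by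
  have h1 : (S.card : ℝ) ≤ (S.image g).card * A := by
    have : S.card = ∑ c ∈ S.image g, (S.filter fun t => g t = c).card :=
      card_eq_sum_card_image g S
    rw [this]
    push_cast
    calc ∑ c ∈ S.image g, ((S.filter fun t => g t = c).card : ℝ) ≤ ∑ c ∈ S.image g, A := by
          refine sum_le_sum fun c hc => ?_
          obtain ⟨t0, ht0, rfl⟩ := mem_image.1 hc
          exact hA t0 ht0
      _ = (S.image g).card * A := by rw [sum_const, nsmul_eq_mul]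
  have h2 : S.image g ⊆ Fintype.piFinset fun j => Icc (g i0 j - n) (g i0 j + n) := by
    intro c hc
    obtain ⟨t, ht, rfl⟩ := mem_image.1 hc
    rw [Fintype.mem_piFinset]
    exact hg t ht
  have h3 : ((S.image g).card : ℝ) ≤ (2 * n + 1) ^ k := by
    have := card_le_card h2
    rw [Fintype.card_piFinset] at this
    have h5 : ∀ j : Fin k, (Icc (g i0 j - n) (g i0 j + n)).card = 2 * n + 1 := by
      intro j; rw [Int.card_Icc]; omega
    simp only [h5, prod_const, card_univ, Fintype.card_fin] at this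
    exact_mod_cast this
  exact h1.trans (mul_le_mul_of_nonneg_right h3 hA0)

/-! ### the linear function through a ray -/

/-- `⟨e, x - a + s C⟩`. -/
noncomputable def linf (e C a : E2) : Cf E2 where
  a0 := -inner ℝ e a
  a1 := inner ℝ e C
  be := e
  g := 0
  d := 0

theorem linf_ev (e C a x : E2) (y s : ℝ) : (linf e C a).ev x y s = inner ℝ e (x - a + s • C) := by
  unfold linf Cf.ev
  simp only []
  rw [inner_add_right, inner_sub_right, real_inner_smul_right]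
  ring

theorem linf_disc {e : E2} (he : ‖e‖ = 1) (C a : E2) : (linf e C a).disc = 1 := by
  unfold linf Cf.disc
  simp only []
  rw [he]; ring

theorem linf_ny (e C a : E2) (s : ℝ) : (linf e C a).ny s = 0 := by
  unfold linf Cf.ny; ring

/-! ### the member of length `1` based at a ray -/

/-- member of length `1` based at the ray `r`, aperture `sg`, slab `|phi| ≤ s1` -/
noncomputable def mem1 (sg s1 : ℝ) (phi : Cf E2) (r : E2 × E2 × ℝ) : Mem where
  c := r.1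
  sg := sg
  s1 := s1
  R := 1
  X0 := rpos r 0
  s0 := 0
  phi := phi

theorem ld_of_ray {p : Cf E2} {C a : E2} {k w : ℝ}
    (h : ∀ s : ℝ, |s| ≤ 1 → |p.ev (rx C a s) (ry C k s) s| ≤ w) :
    |p.ld C (rx C a 0) (ry C k 0) 0| ≤ w := by
  have h1 := Cf.ev_along p C (rx C a 0) (ry C k 0) 0 1
  have h2 := Cf.ev_along p C (rx C a 0) (ry C k 0) 0 (-1)
  have e1 : rx C a 0 - (1:ℝ) • C = rx C a 1 := by unfold rx; simp
  have e2 : ry C k 0 + 1 * ‖C‖ ^ 2 / 2 = ry C k 1 := by unfold ry; ring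
  have e3 : rx C a 0 - (-1:ℝ) • C = rx C a (-1) := by unfold rx; simp
  have e4 : ry C k 0 + -1 * ‖C‖ ^ 2 / 2 = ry C k (-1) := by unfold ry; ring
  rw [e1, e2, zero_add] at h1
  rw [e3, e4, zero_add] at h2
  have h3 := abs_le.1 (h 1 (by norm_num))
  have h4 := abs_le.1 (h (-1) (by norm_num))
  rw [h1] at h3
  rw [h2] at h4
  rw [abs_le]
  constructor <;> linarith [h3.1, h3.2, h4.1, h4.2]

/-! ### splitting into cells -/

/-- relative null position of `r` in the frame of `r0`. -/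
noncomputable def rn (r r0 : E2 × E2 × ℝ) : ℝ := (r.2.2 - r0.2.2) + inner ℝ r0.1 (r.2.1 - r0.2.1)

/-- the number of cells. -/
def nK : ℕ := 2097152

open Classical in
theorem cells_bound {ι : Type*} (S : Finset ι) (L : ι → E2 × E2 × ℝ) (i0 : ι) {σ T0 : ℝ}
    (hσ : 0 < σ) (hT : σ ^ 2 ≤ T0)
    (hC : ∀ i ∈ S, ‖(L i).1 - (L i0).1‖ ≤ 24 * σ)
    (ha : ∀ i ∈ S, ‖(L i).2.1 - (L i0).2.1‖ ≤ 24 * σ)
    (hn : ∀ i ∈ S, |rn (L i) (L i0)| ≤ 262144 * T0) {A : ℝ} (hA0 : 0 ≤ A)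
    (hA : ∀ i ∈ S, ((S.filter fun t => ‖(L t).1 - (L i).1‖ ≤ σ / 128 ∧
      ‖(L t).2.1 - (L i).2.1‖ ≤ σ / 128 ∧ |rn (L t) (L i)| ≤ T0 / 2).card : ℝ) ≤ A) :
    (S.card : ℝ) ≤ (2 * nK + 1) ^ 5 * A := by
  have hT0 : 0 < T0 := lt_of_lt_of_le (pow_pos hσ 2) hT
  set et : ι → ℝ := fun i => (L i).2.2 + inner ℝ (L i0).1 (L i).2.1 with het
  set g : ι → Fin 5 → ℤ := fun i => ![⌊(L i).1 0 / (σ / 256)⌋, ⌊(L i).1 1 / (σ / 256)⌋,
    ⌊(L i).2.1 0 / (σ / 256)⌋, ⌊(L i).2.1 1 / (σ / 256)⌋, ⌊et i / (T0 / 8)⌋] with hg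
  have hs64 : (0:ℝ) < σ / 256 := by positivity
  have hT8 : (0:ℝ) < T0 / 8 := by positivity
  have hnK : (nK : ℝ) = 2097152 := by unfold nK; norm_num
  refine card_le_cells S g (n := nK) i0 ?_ hA0 ?_
  · intro i hi j
    have c1 := hC i hi
    have a1 := ha i hi
    have n1 := hn i hi
    have b : ∀ {x y : ℝ}, |x - y| ≤ 24 * σ → |x - y| ≤ nK * (σ / 256) := by
      intro x y h
      rw [hnK]
      linarith
    fin_cases j
    · exact floor_mem_Icc hs64 (b ((abs_coord_le ((L i).1 - (L i0).1) 0).trans c1))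
    · exact floor_mem_Icc hs64 (b ((abs_coord_le ((L i).1 - (L i0).1) 1).trans c1))
    · exact floor_mem_Icc hs64 (b ((abs_coord_le ((L i).2.1 - (L i0).2.1) 0).trans a1))
    · exact floor_mem_Icc hs64 (b ((abs_coord_le ((L i).2.1 - (L i0).2.1) 1).trans a1))
    · refine floor_mem_Icc hT8 ?_
      have e : et i - et i0 = rn (L i) (L i0) := by
        simp only [het, rn, inner_sub_right]; ring
      rw [e, hnK]
      linarith
  · intro i hi
    refine le_trans (Nat.cast_le.2 (card_le_card fun t ht => ?_)) (hA i hi)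
    rw [mem_filter] at ht ⊢
    refine ⟨ht.1, ?_⟩
    have h0 := congrFun ht.2 0
    have h1 := congrFun ht.2 1
    have h2 := congrFun ht.2 2
    have h3 := congrFun ht.2 3
    have h4 := congrFun ht.2 4
    simp only [hg, Matrix.cons_val_zero, Matrix.cons_val_one, Matrix.cons_val] at h0 h1 h2 h3 h4
    have k0 := abs_le_of_floor hs64 h0
    have k1 := abs_le_of_floor hs64 h1
    have k2 := abs_le_of_floor hs64 h2
    have k3 := abs_le_of_floor hs64 h3
    have k4 := abs_le_of_floor hT8 h4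
    have d1 : ‖(L t).1 - (L i).1‖ ≤ σ / 128 := by
      refine (norm2_le _).trans ?_
      simp only [PiLp.sub_apply]
      linarith
    have d2 : ‖(L t).2.1 - (L i).2.1‖ ≤ σ / 128 := by
      refine (norm2_le _).trans ?_
      simp only [PiLp.sub_apply]
      linarith
    refine ⟨d1, d2, ?_⟩
    have e : rn (L t) (L i) = (et t - et i) +
        inner ℝ ((L i).1 - (L i0).1) ((L t).2.1 - (L i).2.1) := by
      simp only [het, rn, inner_sub_right, inner_sub_left]; ring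
    rw [e]
    refine (abs_add_le _ _).trans ?_
    have h5 : |inner ℝ ((L i).1 - (L i0).1) ((L t).2.1 - (L i).2.1)| ≤ 24 * σ * (σ / 128) :=
      (abs_real_inner_le_norm _ _).trans
        (mul_le_mul (hC i hi) d2 (norm_nonneg _) (by positivity))
    nlinarith

/-! ### old coordinates: membership in `mem1` -/

theorem mem1_T {σ s1 : ℝ} {phi : Cf E2} {r : E2 × E2 × ℝ} :
    (mem1 σ s1 phi r).T 0 = σ ^ 2 := by
  unfold Mem.T mem1
  simp only [zero_div]
  exact max_eq_left (sq_nonneg σ)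

theorem mem1_rays {σ s1 : ℝ} {phi : Cf E2} {r r0 : E2 × E2 × ℝ} (hσ : 0 < σ)
    (h1 : ‖r.1 - r0.1‖ ≤ σ / 128) (h2 : ‖r.2.1 - r0.2.1‖ ≤ σ / 128)
    (h3 : |rn r r0| ≤ σ ^ 2 / 2)
    (h4 : ∀ s : ℝ, |s| ≤ 1 → |phi.ev (rx r.1 r.2.1 s) (ry r.1 r.2.2 s) s| ≤ s1) :
    r ∈ (mem1 σ s1 phi r0).rays 0 := by
  rw [Mem.mem_rays, mem1_T]
  refine ⟨?_, ?_⟩
  · show ‖r.1 - r0.1‖ ≤ σ
    linarith
  · intro s hs
    have hs' : |s| ≤ 1 := by
      have : |s - 0| ≤ 1 := hs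
      rwa [sub_zero] at this
    refine ⟨⟨hs, ?_, ?_⟩, ?_⟩
    · show ‖rx r.1 r.2.1 s - lat (rpos r0 0) + (s - 0) • r0.1‖ ≤ σ * 1
      have e : rx r.1 r.2.1 s - lat (rpos r0 0) + (s - 0) • r0.1 =
          (r.2.1 - r0.2.1) - s • (r.1 - r0.1) := by
        rw [lat_rpos]; unfold rx; module
      rw [e]
      refine (norm_sub_le _ _).trans ?_
      rw [norm_smul, Real.norm_eq_abs]
      have : |s| * ‖r.1 - r0.1‖ ≤ 1 * (σ / 128) := mul_le_mul hs' h1 (norm_nonneg _) zero_le_one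
      linarith
    · show |nrm r0.1 (rx r.1 r.2.1 s) (ry r.1 r.2.2 s) s - nrm r0.1 (lat (rpos r0 0)) (rpos r0 0 2) 0|
        ≤ σ ^ 2 * 1
      rw [lat_rpos, rpos_two, nrm_ray', nrm_ray']
      have e : r.2.2 + inner ℝ r0.1 r.2.1 + s * ‖r.1 - r0.1‖ ^ 2 / 2 -
          (r0.2.2 + inner ℝ r0.1 r0.2.1 + 0 * ‖r0.1 - r0.1‖ ^ 2 / 2) =
          rn r r0 + s * (‖r.1 - r0.1‖ ^ 2 / 2) := by
        unfold rn; rw [inner_sub_right]; ring
      rw [e]
      refine (abs_add_le _ _).trans ?_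
      rw [abs_mul, abs_of_nonneg (a := ‖r.1 - r0.1‖ ^ 2 / 2) (by positivity)]
      have h5 : ‖r.1 - r0.1‖ ^ 2 ≤ (σ / 128) ^ 2 := pow_le_pow_left₀ (norm_nonneg _) h1 2
      have h6 : |s| * (‖r.1 - r0.1‖ ^ 2 / 2) ≤ 1 * ((σ / 128) ^ 2 / 2) :=
        mul_le_mul hs' (by linarith) (by positivity) zero_le_one
      nlinarith
    · show |phi.ev (rx r.1 r.2.1 s) (ry r.1 r.2.2 s) s| ≤ s1 * 1
      rw [mul_one]
      exact h4 s hs'

theorem mem1_ok {M σ s1 : ℝ} {phi : Cf E2} {r : E2 × E2 × ℝ} (hM : 1 ≤ M) (hs1 : 0 < s1)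
    (hsσ : s1 ≤ σ) (hdisc : phi.disc = 1)
    (hny : ∀ s : ℝ, |s| ≤ 1 → |phi.ny s| * σ ^ 2 ≤ M * σ)
    (h4 : ∀ s : ℝ, |s| ≤ 1 → |phi.ev (rx r.1 r.2.1 s) (ry r.1 r.2.2 s) s| ≤ s1) :
    (mem1 σ s1 phi r).Ok M 0 := by
  have hσ : 0 < σ := hs1.trans_le hsσ
  have h5 : s1 ≤ M * σ := by nlinarith
  refine ⟨one_pos, hs1, hsσ, ?_⟩
  rw [mem1_T]
  refine ⟨hdisc, fun s hs => hny s ?_, ?_, ?_⟩
  · have : |s - 0| ≤ 1 := hs
    rwa [sub_zero] at this
  · show |phi.ld r.1 (lat (rpos r 0)) (rpos r 0 2) 0| ≤ M * σ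
    rw [lat_rpos, rpos_two]
    exact (ld_of_ray h4).trans h5
  · show |phi.ev (lat (rpos r 0)) (rpos r 0 2) 0| ≤ M * σ * 1
    rw [lat_rpos, rpos_two, mul_one]
    exact (h4 0 (by norm_num)).trans h5

end Crest.Agent.R116.Ene618
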