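import Crest.Agent.R116.Ene2_618

/-!
# R116, K2 (ENEMY), part 3 (helper618): `up_count`
-/

set_option autoImplicit false
set_option linter.unusedVariables false

open Finset

namespace Crest.Agent.R116.Ene618

open Crest.Agent.R116.LZg725
open Crest.Agent.R138.Defs (E2)
open Crest.Agent.R116.CDef480 (E3 lat pt vel)

/-- the new ray: `lam = 1/64`, `mu = 1/4`, `tau = 1/2`. -/
noncomputable def nr (r : E2 × E2 × ℝ) : E2 × E2 × ℝ :=
  (sC (1 / 64) (1 / 4) r.1, sa (1 / 64) (1 / 4) (1 / 2) r.1 r.2.1,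
    sk (1 / 64) (1 / 4) (1 / 2) r.1 r.2.2)

theorem nr_rx (r : E2 × E2 × ℝ) (s : ℝ) :
    rx (nr r).1 (nr r).2.1 (1 / 4 * s + 1 / 2) = (1 / 64 : ℝ) • rx r.1 r.2.1 s :=
  rx_sR (1 / 64) (by norm_num) (1 / 2) r.1 r.2.1 s

theorem nr_ry (r : E2 × E2 × ℝ) (s : ℝ) :
    ry (nr r).1 (nr r).2.2 (1 / 4 * s + 1 / 2) = 1 / 1024 * ry r.1 r.2.2 s := by
  have := ry_sR (1 / 64) (mu := 1 / 4) (by norm_num) (1 / 2) r.1 r.2.2 s
  rw [show ((1 / 64 : ℝ) ^ 2 / (1 / 4)) = 1 / 1024 by norm_num] at this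
  exact this

/-- the slope of the new ray. -/
theorem nr_C (r : E2 × E2 × ℝ) : (nr r).1 = (1 / 16 : ℝ) • r.1 := by
  unfold nr sC; norm_num

theorem nr_back (p : Cf E2) (r : E2 × E2 × ℝ) (s : ℝ) :
    (back (1 / 64) (1 / 4) (1 / 2) p).ev (rx r.1 r.2.1 s) (ry r.1 r.2.2 s) s =
      64 * p.ev (rx (nr r).1 (nr r).2.1 (1 / 4 * s + 1 / 2))
        (ry (nr r).1 (nr r).2.2 (1 / 4 * s + 1 / 2)) (1 / 4 * s + 1 / 2) := by
  have := back_ray (lam := 1 / 64) (mu := 1 / 4) (by norm_num) (by norm_num) (1 / 2) p r.1 r.2.1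
    r.2.2 s
  unfold nr
  simp only []
  rw [← this]
  ring

section

variable {M' : ℝ} {m : Mem}

theorem T_zero (m : Mem) : m.T 0 = m.sg ^ 2 := by
  unfold Mem.T
  rw [zero_div]
  exact max_eq_left (sq_nonneg _)

theorem scost_zero (m : Mem) : m.scost 0 = m.s1 * m.sg * m.sg ^ 2 * m.R ^ 3 := by
  unfold Mem.scost
  rw [T_zero]

/-- consequences of membership in the new member. -/
theorem in_new (hm : m.Ok M' 0) (hR : ∀ s : ℝ, |s| ≤ 1 → |1 / 4 * s + 1 / 2 - m.s0| ≤ m.R)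
    {r r0 : E2 × E2 × ℝ} (h : nr r ∈ m.rays 0) (h0 : nr r0 ∈ m.rays 0) :
    ‖r.1 - r0.1‖ ≤ 32 * m.sg ∧ ‖r.2.1 - r0.2.1‖ ≤ 128 * (m.sg * m.R) ∧
      |rn r r0| ≤ 4096 * (m.sg ^ 2 * m.R) ∧
      ∀ s : ℝ, |s| ≤ 1 → |(back (1 / 64) (1 / 4) (1 / 2) m.phi).ev (rx r.1 r.2.1 s)
        (ry r.1 r.2.2 s) s| ≤ 64 * (m.s1 * m.R) := by
  rw [Mem.mem_rays, T_zero] at h h0
  obtain ⟨hc, hk⟩ := h
  obtain ⟨hc0, hk0⟩ := h0
  have hsg := hm.sg_pos
  have hRp := hm.hR
  have hhalf : |(1 / 2 : ℝ) - m.s0| ≤ m.R := by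
    have := hR 0 (by norm_num)
    simpa using this
  obtain ⟨⟨-, p1, p2⟩, -⟩ := hk _ hhalf
  obtain ⟨⟨-, q1, q2⟩, -⟩ := hk0 _ hhalf
  have ex : ∀ r : E2 × E2 × ℝ, rx (nr r).1 (nr r).2.1 (1 / 2) = (1 / 64 : ℝ) • r.2.1 := by
    intro r
    have := nr_rx r 0
    simpa [rx] using this
  have ey : ∀ r : E2 × E2 × ℝ, ry (nr r).1 (nr r).2.2 (1 / 2) = 1 / 1024 * r.2.2 := by
    intro r
    have := nr_ry r 0
    simpa [ry] using this
  rw [ex] at p1 p2 q1 q2
  rw [ey] at p2 q2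
  -- slopes
  have eC : (nr r).1 - (nr r0).1 = (1 / 16 : ℝ) • (r.1 - r0.1) := by
    rw [nr_C, nr_C, smul_sub]
  have f1 : ‖r.1 - r0.1‖ ≤ 32 * m.sg := by
    have e1 : ‖(nr r).1 - (nr r0).1‖ ≤ 2 * m.sg := by
      have e2 : (nr r).1 - (nr r0).1 = ((nr r).1 - m.c) - ((nr r0).1 - m.c) := by abel
      rw [e2]
      exact (norm_sub_le _ _).trans (by linarith)
    rw [eC, norm_smul, Real.norm_of_nonneg (by norm_num)] at e1
    linarith
  -- lateral positions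
  have d1 : ‖(1 / 64 : ℝ) • (r.2.1 - r0.2.1)‖ ≤ 2 * (m.sg * m.R) := by
    have e2 : (1 / 64 : ℝ) • (r.2.1 - r0.2.1) =
        ((1 / 64 : ℝ) • r.2.1 - lat m.X0 + (1 / 2 - m.s0) • m.c) -
        ((1 / 64 : ℝ) • r0.2.1 - lat m.X0 + (1 / 2 - m.s0) • m.c) := by
      rw [smul_sub]; abel
    rw [e2]
    exact (norm_sub_le _ _).trans (by linarith)
  have f2 : ‖r.2.1 - r0.2.1‖ ≤ 128 * (m.sg * m.R) := by
    rw [norm_smul, Real.norm_of_nonneg (by norm_num)] at d1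
    linarith
  refine ⟨f1, f2, ?_, ?_⟩
  · -- null positions
    set x := (1 / 64 : ℝ) • r.2.1 with hx
    set x0 := (1 / 64 : ℝ) • r0.2.1 with hx0
    have n1 := nrm_sub m.c (nr r0).1 x (1 / 1024 * r.2.2) (1 / 2)
    have n0 := nrm_sub m.c (nr r0).1 x0 (1 / 1024 * r0.2.2) (1 / 2)
    have e3 : nrm (nr r0).1 x (1 / 1024 * r.2.2) (1 / 2) -
        nrm (nr r0).1 x0 (1 / 1024 * r0.2.2) (1 / 2) = 1 / 1024 * rn r r0 := by
      unfold nrm rn
      rw [nr_C, hx, hx0]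
      simp only [real_inner_smul_left, real_inner_smul_right, inner_sub_right]
      ring
    have e4 : inner ℝ ((nr r0).1 - m.c) (x + (1 / 2 : ℝ) • m.c) -
        inner ℝ ((nr r0).1 - m.c) (x0 + (1 / 2 : ℝ) • m.c) =
        inner ℝ ((nr r0).1 - m.c) (x - x0) := by
      rw [← inner_sub_right]
      congr 1
      abel
    have e5 : |inner ℝ ((nr r0).1 - m.c) (x - x0)| ≤ m.sg * (2 * (m.sg * m.R)) := by
      refine (abs_real_inner_le_norm _ _).trans (mul_le_mul hc0 ?_ (norm_nonneg _) hsg.le)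
      rw [hx, hx0, ← smul_sub]
      exact d1
    have e6 : |1 / 1024 * rn r r0| ≤ 2 * (m.sg ^ 2 * m.R) + m.sg * (2 * (m.sg * m.R)) := by
      rw [← e3]
      rw [abs_le] at p2 q2 e5 ⊢
      constructor <;> linarith [p2.1, p2.2, q2.1, q2.2, e5.1, e5.2]
    rw [abs_mul, abs_of_pos (by norm_num : (0:ℝ) < 1 / 1024)] at e6
    nlinarith
  · intro s hs
    rw [nr_back, abs_mul, abs_of_pos (by norm_num : (0:ℝ) < 64)]
    have := (hk _ (hR s hs)).2
    linarith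

open Classical in
/-- **the density bound at level `0`** (`B = 0`). -/
theorem up_count {ι : Type*} (S : Finset ι) (L : ι → E2 × E2 × ℝ) {δ A : ℝ} (hδ : 0 < δ)
    (hδ1 : δ ≤ 1 / 8) (hA : 0 ≤ A) (hM : 1 ≤ M')
    (hb1 : ∀ i ∈ S, ‖(L i).1‖ ≤ 3 / 2) (hb2 : ∀ i ∈ S, ‖(L i).2.1‖ ≤ 3 / 2)
    (hd : ∀ p : Mem, p.Ok (16 * M') 0 → p.R = 1 → p.s0 = 0 → δ ≤ p.s1 → p.sg ≤ 1 / 8 →
      ((S.filter fun i => L i ∈ p.rays 0).card : ℝ) ≤ A * p.scost 0)
    (hm : m.Ok M' 0) (hR : ∀ s : ℝ, |s| ≤ 1 → |1 / 4 * s + 1 / 2 - m.s0| ≤ m.R) (hR1 : m.R ≤ 1)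
    (hδs1 : δ ≤ 64 * (m.s1 * m.R)) (hsg1 : m.sg ≤ 1)
    (hS : ∀ i ∈ S, nr (L i) ∈ m.rays 0) :
    (S.card : ℝ) ≤ (2 * nK + 1) ^ 5 * (A * (2 ^ 30 * (m.s1 * m.R * m.sg ^ 3))) := by
  have hsg := hm.sg_pos
  have hRp := hm.hR
  have hs1 := hm.hs1
  have hs1sg := hm.hsg
  set σ : ℝ := min (1 / 8) (256 * m.sg) with hσd
  have hσ : 0 < σ := lt_min (by norm_num) (by positivity)
  have hσ1 : σ ≤ 1 / 8 := min_le_left _ _
  have hσ2 : σ ≤ 256 * m.sg := min_le_right _ _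
  have hσ3 : m.sg ≤ 8 * σ := by
    rcases le_total (256 * m.sg) (1 / 8) with h | h
    · have : σ = 256 * m.sg := min_eq_right h
      linarith
    · have : σ = 1 / 8 := min_eq_left h
      linarith
  have hsgR : m.sg * m.R ≤ m.sg := by nlinarith
  have hs1R : m.s1 * m.R ≤ m.sg := by nlinarith
  have hδσ : δ ≤ σ := le_min hδ1 (by linarith)
  rcases S.eq_empty_or_nonempty with rfl | ⟨i0, hi0⟩
  · simp only [card_empty, Nat.cast_zero]
    positivity
  have hin := fun i (hi : i ∈ S) j (hj : j ∈ S) => in_new hm hR (hS i hi) (hS j hj)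
  have hcost : ∀ w : ℝ, 0 ≤ w → w ≤ 64 * (m.s1 * m.R) →
      w * σ * σ ^ 2 * 1 ^ 3 ≤ 2 ^ 30 * (m.s1 * m.R * m.sg ^ 3) := by
    intro w hw0 hw
    calc w * σ * σ ^ 2 * 1 ^ 3
        ≤ (64 * (m.s1 * m.R)) * (256 * m.sg) * (256 * m.sg) ^ 2 * 1 ^ 3 := by gcongr
      _ = 2 ^ 30 * (m.s1 * m.R * m.sg ^ 3) := by ring
  refine cells_bound S L i0 (σ := σ) (T0 := σ ^ 2) hσ le_rfl ?_ ?_ ?_ (by positivity) ?_
  · intro i hi
    rcases le_total (256 * m.sg) (1 / 8) with h | h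
    · have : σ = 256 * m.sg := min_eq_right h
      have := (hin i hi i0 hi0).1
      linarith
    · have : σ = 1 / 8 := min_eq_left h
      have := norm_sub_le (L i).1 (L i0).1
      linarith [hb1 i hi, hb1 i0 hi0]
  · intro i hi
    rcases le_total (256 * m.sg) (1 / 8) with h | h
    · have : σ = 256 * m.sg := min_eq_right h
      have h2 := (hin i hi i0 hi0).2.1
      linarith
    · have : σ = 1 / 8 := min_eq_left h
      have := norm_sub_le (L i).2.1 (L i0).2.1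
      linarith [hb2 i hi, hb2 i0 hi0]
  · intro i hi
    have h2 := (hin i hi i0 hi0).2.2.1
    have h3 : m.sg ^ 2 * m.R ≤ m.sg ^ 2 := by nlinarith [sq_nonneg m.sg]
    have h4 : m.sg ^ 2 ≤ (8 * σ) ^ 2 := pow_le_pow_left₀ hsg.le hσ3 2
    nlinarith
  · intro i hi
    -- the slab function and its width
    have hi' := hin i hi i hi
    by_cases hw : 64 * (m.s1 * m.R) ≤ σ
    · -- curved slab
      set phi := back (1 / 64) (1 / 4) (1 / 2) m.phi with hphi
      have hok : (mem1 σ (64 * (m.s1 * m.R)) phi (L i)).Ok (16 * M') 0 := by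
        refine mem1_ok (by linarith) (by positivity) hw ?_ ?_ ?_
        · rw [hphi, back_disc (by norm_num) (by norm_num)]
          exact hm.adm.disc
        · intro s hs
          rw [hphi, back_ny _ (by norm_num)]
          have h3 := hm.adm.ny (1 / 4 * s + 1 / 2) (hR s hs)
          rw [T_zero] at h3
          set a := |m.phi.ny (1 / 4 * s + 1 / 2)| with ha
          have ha0 : 0 ≤ a := abs_nonneg _
          have h5 : a * m.sg ≤ M' := by
            have h6 : (a * m.sg) * m.sg ≤ M' * m.sg := by nlinarith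
            exact le_of_mul_le_mul_right h6 hsg
          rw [abs_mul, show |((1:ℝ) / 64 / (1 / 4))| = 1 / 16 by
            rw [abs_of_pos (by norm_num)]; norm_num]
          calc 1 / 16 * a * σ ^ 2 = 1 / 16 * (a * σ) * σ := by ring
            _ ≤ 1 / 16 * (a * (256 * m.sg)) * σ := by gcongr
            _ = 16 * (a * m.sg) * σ := by ring
            _ ≤ 16 * M' * σ := by gcongr
        · exact hi'.2.2.2
      have hD := hd _ hok rfl rfl (by exact hδs1) hσ1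
      refine le_trans (Nat.cast_le.2 (card_le_card fun t ht => ?_)) (hD.trans ?_)
      · rw [mem_filter] at ht ⊢
        obtain ⟨ht0, ht1, ht2, ht3⟩ := ht
        exact ⟨ht0, mem1_rays hσ ht1 ht2 ht3 (hin t ht0 i hi).2.2.2⟩
      · rw [scost_zero]
        exact mul_le_mul_of_nonneg_left (hcost _ (mul_nonneg (by norm_num) (mul_nonneg hs1.le hRp.le)) le_rfl) hA
    · -- no slab
      push Not at hw
      set e : E2 := !₂[1, 0] with he
      have he1 : ‖e‖ = 1 := by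
        have : ‖e‖ ^ 2 = 1 := by rw [CDef480.normsq2]; simp [he]
        exact (pow_eq_one_iff_of_nonneg (norm_nonneg e) two_ne_zero).1 this
      set phi := linf e (L i).1 (L i).2.1 with hphi
      have hev : ∀ t : E2 × E2 × ℝ, ‖t.1 - (L i).1‖ ≤ σ / 128 → ‖t.2.1 - (L i).2.1‖ ≤ σ / 128 →
          ∀ s : ℝ, |s| ≤ 1 → |phi.ev (rx t.1 t.2.1 s) (ry t.1 t.2.2 s) s| ≤ σ := by
        intro t h1 h2 s hs
        rw [hphi, linf_ev]
        refine (abs_real_inner_le_norm _ _).trans ?_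
        rw [he1, one_mul]
        have e2 : rx t.1 t.2.1 s - (L i).2.1 + s • (L i).1 =
            (t.2.1 - (L i).2.1) - s • (t.1 - (L i).1) := by
          unfold rx; module
        rw [e2]
        refine (norm_sub_le _ _).trans ?_
        rw [norm_smul, Real.norm_eq_abs]
        have : |s| * ‖t.1 - (L i).1‖ ≤ 1 * (σ / 128) :=
          mul_le_mul hs h1 (norm_nonneg _) zero_le_one
        linarith
      have hzero : ‖(0 : E2)‖ ≤ σ / 128 := by rw [norm_zero]; positivity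
      have hok : (mem1 σ σ phi (L i)).Ok (16 * M') 0 := by
        refine mem1_ok (by linarith) hσ le_rfl ?_ ?_ ?_
        · rw [hphi]; exact linf_disc he1 _ _
        · intro s hs
          rw [hphi, linf_ny, abs_zero, zero_mul]
          positivity
        · exact hev (L i) (by rw [sub_self]; exact hzero) (by rw [sub_self]; exact hzero)
      have hD := hd _ hok rfl rfl (by exact hδσ) hσ1
      refine le_trans (Nat.cast_le.2 (card_le_card fun t ht => ?_)) (hD.trans ?_)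
      · rw [mem_filter] at ht ⊢
        obtain ⟨ht0, ht1, ht2, ht3⟩ := ht
        exact ⟨ht0, mem1_rays hσ ht1 ht2 ht3 (hev _ ht1 ht2)⟩
      · rw [scost_zero]
        exact mul_le_mul_of_nonneg_left (hcost σ hσ.le hw.le) hA

end

end Crest.Agent.R116.Ene618
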