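import Crest.Agent.R116.Ks4_79

/-!
# R116, [FILL-COUNT] (helper337)

The enemy's grid rays `(C, X, H)` are filled by `(C, X, H + j / N²)`, `|j| ≤ J N`.  A density bound
over the class with `B = 1/N` (79's `DensL`) gives a density bound over members with `B = 0`.
`FillGeo M C M1` = the geometric input (139).  Output: `fill_count`.
-/

set_option autoImplicit false

open Finset

namespace Crest.Agent.R116.Fl337

open Crest.Agent.R138.Defs (E2)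
open Crest.Agent.R116.CDef480 (E3 lat pt)
open Crest.Agent.R116.LZg725 (Cf Mem rpos rx ry InK nrm)
open Crest.Agent.R116.LKMDef299 (LRay Cpt)
open Crest.Agent.R116.Ks79

/-- **FILL-GEO** (439's 15783 with `|t| ≤ r/2` and `Cpt`). -/
def FillGeo (M C M1 : ℝ) : Prop :=
  ∀ r : ℝ, 0 < r → r ≤ 1 → ∀ m : Mem, m.Ok M 0 → m.R = 1 → m.s0 = 0 → r ≤ m.s1 →
    m.sg ≤ 1 / 8 →
    ∃ (m2 : Mem) (l : ℝ), m2.Ok M1 r ∧ Cpt M1 r m2 ∧ m2.R = 1 ∧ m2.s0 = 0 ∧ r ≤ m2.s1 ∧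
      m2.sg ≤ 1 ∧ 0 < l ∧
      (∀ (c a : E2) (k t : ℝ), |t| ≤ r / 2 → (c, a, k + t) ∈ m.rays 0 → (c, a, k) ∈ m2.rays r) ∧
      (∀ (c a : E2) (k t t' : ℝ), |t| ≤ r / 2 → |t'| ≤ r / 2 → (c, a, k + t) ∈ m.rays 0 →
        (c, a, k + t') ∈ m.rays 0 → |t - t'| ≤ l) ∧
      r ^ 2 ≤ C * l ∧ l * m2.scost r ≤ C * (r * m.scost 0)

/-! ### translation in the null direction -/

/-- the member translated so that `(c, a, k + t0) ∈ m ↔ (c, a, k) ∈ ytr t0 m`. -/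
noncomputable def ytr (t0 : ℝ) (m : Mem) : Mem where
  c := m.c
  sg := m.sg
  s1 := m.s1
  R := m.R
  X0 := pt (lat m.X0) (m.X0 2 - t0)
  s0 := m.s0
  phi := Cf.tr 0 t0 0 m.phi

theorem ytr_T (B t0 : ℝ) (m : Mem) : (ytr t0 m).T B = m.T B := rfl

theorem ytr_scost (B t0 : ℝ) (m : Mem) : (ytr t0 m).scost B = m.scost B := rfl

theorem nrm_add_y (c x : E2) (y t s : ℝ) : nrm c x (y + t) s = nrm c x y s + t := by
  unfold nrm; ring

theorem ev_ytr (t0 : ℝ) (p : Cf E2) (x : E2) (y s : ℝ) :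
    (Cf.tr 0 t0 0 p).ev x y s = p.ev x (y + t0) s := by
  rw [Cf.ev_tr, add_zero, add_zero]

theorem ytr_rays (B t0 : ℝ) (m : Mem) (c a : E2) (k : ℝ) :
    (c, a, k) ∈ (ytr t0 m).rays B ↔ (c, a, k + t0) ∈ m.rays B := by
  rw [LZg725.Mem.mem_rays, LZg725.Mem.mem_rays]
  unfold LZg725.RayIn LZg725.InK
  rw [ytr_T]
  have h1 : lat (ytr t0 m).X0 = lat m.X0 := CDef480.lat_pt _ _
  have h2 : (ytr t0 m).X0 2 = m.X0 2 - t0 := CDef480.pt_two _ _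
  rw [h1, h2]
  change (‖c - m.c‖ ≤ m.sg ∧ ∀ s : ℝ, |s - m.s0| ≤ m.R →
    (|s - m.s0| ≤ m.R ∧ ‖rx c a s - lat m.X0 + (s - m.s0) • m.c‖ ≤ m.sg * m.R ∧
      |nrm m.c (rx c a s) (ry c k s) s - nrm m.c (lat m.X0) (m.X0 2 - t0) m.s0| ≤
        m.T B * m.R) ∧
    |(Cf.tr 0 t0 0 m.phi).ev (rx c a s) (ry c k s) s| ≤ m.s1 * m.R) ↔ _
  have e1 : ∀ s, ry c (k + t0) s = ry c k s + t0 := by intro s; unfold ry; ring
  have e2 : ∀ s, nrm m.c (rx c a s) (ry c k s) s - nrm m.c (lat m.X0) (m.X0 2 - t0) m.s0 =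
      nrm m.c (rx c a s) (ry c (k + t0) s) s - nrm m.c (lat m.X0) (m.X0 2) m.s0 := by
    intro s
    rw [e1, nrm_add_y, sub_eq_add_neg (m.X0 2) t0, nrm_add_y]
    ring
  simp only [e2, ev_ytr, ← e1]

theorem ytr_ok {M B t0 : ℝ} {m : Mem} (h : m.Ok M B) : (ytr t0 m).Ok M B := by
  obtain ⟨h1, h2, h3, h4⟩ := h.adm
  refine ⟨h.hR, h.hs1, h.hsg, ?_, ?_, ?_, ?_⟩
  · show (Cf.tr 0 t0 0 m.phi).disc = 1
    rw [Cf.disc_tr]; exact h1
  · intro s hs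
    show |(Cf.tr 0 t0 0 m.phi).ny s| * m.T B ≤ M * m.sg
    rw [Cf.ny_tr, add_zero]
    exact h2 s hs
  · show |(Cf.tr 0 t0 0 m.phi).ld m.c (lat (ytr t0 m).X0) ((ytr t0 m).X0 2) m.s0| ≤ M * m.sg
    have h1 : lat (ytr t0 m).X0 = lat m.X0 := CDef480.lat_pt _ _
    have h2 : (ytr t0 m).X0 2 = m.X0 2 - t0 := CDef480.pt_two _ _
    rw [h1, h2, Cf.ld_tr, add_zero, add_zero, sub_add_cancel]
    exact h3
  · show |(Cf.tr 0 t0 0 m.phi).ev (lat (ytr t0 m).X0) ((ytr t0 m).X0 2) m.s0| ≤ M * m.sg * m.R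
    have h1 : lat (ytr t0 m).X0 = lat m.X0 := CDef480.lat_pt _ _
    have h2 : (ytr t0 m).X0 2 = m.X0 2 - t0 := CDef480.pt_two _ _
    rw [h1, h2, ev_ytr, sub_add_cancel]
    exact h4

/-! ### counting -/

/-- integers with pairwise distances at most `L`. -/
theorem card_close {A : Finset ℤ} {L : ℝ} (hL : 0 ≤ L)
    (h : ∀ i ∈ A, ∀ j ∈ A, |(i : ℝ) - j| ≤ L) : (A.card : ℝ) ≤ L + 1 := by
  rcases A.eq_empty_or_nonempty with rfl | hA
  · simp; linarith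
  have h1 : A ⊆ Finset.Icc (A.min' hA) (A.max' hA) := fun i hi =>
    Finset.mem_Icc.2 ⟨A.min'_le i hi, A.le_max' i hi⟩
  have h2 := Finset.card_le_card h1
  rw [Int.card_Icc] at h2
  have h3 : A.min' hA ≤ A.max' hA := A.min'_le _ (A.max'_mem hA)
  have h4 : ((A.max' hA : ℝ) - A.min' hA) ≤ L :=
    (le_abs_self _).trans (h _ (A.max'_mem hA) _ (A.min'_mem hA))
  have h5 : ((A.max' hA + 1 - A.min' hA).toNat : ℝ) = (A.max' hA : ℝ) + 1 - A.min' hA := by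
    have : (0 : ℤ) ≤ A.max' hA + 1 - A.min' hA := by linarith
    have h6 : ((A.max' hA + 1 - A.min' hA).toNat : ℤ) = A.max' hA + 1 - A.min' hA :=
      Int.toNat_of_nonneg this
    have h7 : (((A.max' hA + 1 - A.min' hA).toNat : ℤ) : ℝ) =
        ((A.max' hA + 1 - A.min' hA : ℤ) : ℝ) := by rw [h6]
    push_cast at h7
    exact_mod_cast h7
  have h8 : (A.card : ℝ) ≤ ((A.max' hA + 1 - A.min' hA).toNat : ℝ) := by exact_mod_cast h2
  rw [h5] at h8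
  linarith

open Classical in
/-- one block `|j| ≤ N/2` of the filling. -/
theorem fill_block {M C M1 : ℝ} (hC : 0 ≤ C) (hG : FillGeo M C M1) {N : ℕ} (hN : 1 ≤ N)
    {s : Finset GRay} {Δ : ℝ} (hΔ : 0 ≤ Δ) (hD : DensL M1 N s Δ) {m : Mem} (hm : m.Ok M 0)
    (hR : m.R = 1) (hs0 : m.s0 = 0) (hs1 : 1 / (N : ℝ) ≤ m.s1) (hsg : m.sg ≤ 1 / 8)
    (J : Finset ℤ) (hJ : ∀ j ∈ J, |(j : ℝ)| ≤ N / 2) :
    (((s ×ˢ J).filter (fun x => (-(gC N x.1), gX N x.1, gH N x.1 + (x.2 : ℝ) / (N : ℝ) ^ 2) ∈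
      m.rays 0)).card : ℝ) ≤ (1 + C) * C * Δ * (N : ℝ) ^ 4 * m.scost 0 := by
  have hN0 : (0 : ℝ) < N := by exact_mod_cast hN
  have hN1 : (1 : ℝ) ≤ N := by exact_mod_cast hN
  have hr0 : 0 < 1 / (N : ℝ) := by positivity
  have hr1 : 1 / (N : ℝ) ≤ 1 := by rw [div_le_one hN0]; exact hN1
  obtain ⟨m2, l, g1, g2, g3, g4, g5, g6, g7, g8, g9, g10, g11⟩ :=
    hG (1 / N) hr0 hr1 m hm hR hs0 hs1 hsg
  have hpar := hD m2 ⟨g1, g2, g3, g4, g5, g6⟩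
  have hsc : 0 < m2.scost (1 / (N : ℝ)) := g1.scost_pos
  have ht : ∀ j ∈ J, |(j : ℝ) / (N : ℝ) ^ 2| ≤ 1 / (N : ℝ) / 2 := by
    intro j hj
    rw [abs_div, abs_of_pos (pow_pos hN0 2), div_le_iff₀ (pow_pos hN0 2)]
    have := hJ j hj
    have e : 1 / (N : ℝ) / 2 * (N : ℝ) ^ 2 = N / 2 := by field_simp
    rw [e]; exact this
  set P := s.filter (fun x => gray N x ∈ m2.rays (1 / (N : ℝ))) with hP
  set F := (s ×ˢ J).filter (fun x => (-(gC N x.1), gX N x.1, gH N x.1 + (x.2 : ℝ) / (N : ℝ) ^ 2) ∈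
      m.rays 0) with hF
  have hmaps : ∀ x ∈ F, x.1 ∈ P := by
    intro x hx
    rw [hF, Finset.mem_filter, Finset.mem_product] at hx
    rw [hP, Finset.mem_filter]
    exact ⟨hx.1.1, g8 _ _ _ _ (ht _ hx.1.2) hx.2⟩
  have hfib : ∀ y ∈ P, ((F.filter (fun x => x.1 = y)).card : ℝ) ≤ l * (N : ℝ) ^ 2 + 1 := by
    intro y _
    have hinj : Set.InjOn (fun x : GRay × ℤ => x.2) (F.filter (fun x => x.1 = y) : Finset _) := by
      intro x hx x' hx' hxx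
      rw [Finset.mem_coe, Finset.mem_filter] at hx hx'
      exact Prod.ext (hx.2.trans hx'.2.symm) hxx
    rw [← Finset.card_image_of_injOn hinj]
    refine card_close (by positivity) ?_
    intro i hi j hj
    rw [Finset.mem_image] at hi hj
    obtain ⟨x, hx, rfl⟩ := hi
    obtain ⟨x', hx', rfl⟩ := hj
    rw [Finset.mem_filter, hF, Finset.mem_filter, Finset.mem_product] at hx hx'
    obtain ⟨⟨⟨-, hxJ⟩, hxr⟩, rfl⟩ := hx
    obtain ⟨⟨⟨-, hxJ'⟩, hxr'⟩, hxy⟩ := hx'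
    rw [hxy] at hxr'
    have h1 := g9 _ _ _ _ _ (ht _ hxJ) (ht _ hxJ') hxr hxr'
    have h2 : (x.2 : ℝ) / (N : ℝ) ^ 2 - (x'.2 : ℝ) / (N : ℝ) ^ 2 =
        ((x.2 : ℝ) - x'.2) / (N : ℝ) ^ 2 := by ring
    rw [h2, abs_div, abs_of_pos (pow_pos hN0 2), div_le_iff₀ (pow_pos hN0 2)] at h1
    exact h1
  have hcard : (F.card : ℝ) ≤ (P.card : ℝ) * (l * (N : ℝ) ^ 2 + 1) := by
    rw [Finset.card_eq_sum_card_fiberwise (t := P) (f := fun x : GRay × ℤ => x.1)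
      (fun x hx => hmaps x hx)]
    push_cast
    calc ∑ b ∈ P, ((F.filter (fun x => x.1 = b)).card : ℝ)
        ≤ ∑ b ∈ P, (l * (N : ℝ) ^ 2 + 1) := Finset.sum_le_sum hfib
      _ = (P.card : ℝ) * (l * (N : ℝ) ^ 2 + 1) := by rw [Finset.sum_const, nsmul_eq_mul]
  have h1 : (1 : ℝ) ≤ C * (l * (N : ℝ) ^ 2) := by
    have h2 := mul_le_mul_of_nonneg_right g10 (pow_pos hN0 2).le
    have e : (1 / (N : ℝ)) ^ 2 * (N : ℝ) ^ 2 = 1 := by field_simp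
    rw [e] at h2
    linarith
  have h3 : l * (N : ℝ) ^ 2 + 1 ≤ (1 + C) * (l * (N : ℝ) ^ 2) := by linarith
  calc (F.card : ℝ) ≤ (P.card : ℝ) * (l * (N : ℝ) ^ 2 + 1) := hcard
    _ ≤ (Δ * (m2.scost (1 / (N : ℝ)) * (N : ℝ) ^ 3)) * ((1 + C) * (l * (N : ℝ) ^ 2)) := by
        refine mul_le_mul hpar h3 (by positivity) (by positivity)
    _ = (1 + C) * Δ * (N : ℝ) ^ 5 * (l * m2.scost (1 / (N : ℝ))) := by ring
    _ ≤ (1 + C) * Δ * (N : ℝ) ^ 5 * (C * (1 / (N : ℝ) * m.scost 0)) :=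
        mul_le_mul_of_nonneg_left g11 (by positivity)
    _ = (1 + C) * C * Δ * (N : ℝ) ^ 4 * m.scost 0 := by field_simp

open Classical in
/-- **[FILL-COUNT]**: the filled rays `(C, X, H + j / N²)`, `l ∈ s`, `|j| ≤ J N`, in a member with
`B = 0`. -/
theorem fill_count {M C M1 : ℝ} (hC : 0 ≤ C) (hG : FillGeo M C M1) {N : ℕ} (hN : 1 ≤ N)
    {s : Finset GRay} {Δ : ℝ} (hΔ : 0 ≤ Δ) (hD : DensL M1 N s Δ) {m : Mem} (hm : m.Ok M 0)
    (hR : m.R = 1) (hs0 : m.s0 = 0) (hs1 : 1 / (N : ℝ) ≤ m.s1) (hsg : m.sg ≤ 1 / 8) (J : ℕ) :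
    (((s ×ˢ Finset.Icc (-((J : ℤ) * N)) ((J : ℤ) * N)).filter (fun x =>
      (-(gC N x.1), gX N x.1, gH N x.1 + (x.2 : ℝ) / (N : ℝ) ^ 2) ∈ m.rays 0)).card : ℝ) ≤
      (2 * J + 1) * ((1 + C) * C * Δ * (N : ℝ) ^ 4 * m.scost 0) := by
  have hN0 : (0 : ℝ) < N := by exact_mod_cast hN
  have hNZ : (0 : ℤ) < N := by exact_mod_cast hN
  set F := (s ×ˢ Finset.Icc (-((J : ℤ) * N)) ((J : ℤ) * N)).filter (fun x =>
      (-(gC N x.1), gX N x.1, gH N x.1 + (x.2 : ℝ) / (N : ℝ) ^ 2) ∈ m.rays 0) with hF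
  set I0 := Finset.Icc (-(J : ℤ)) (J : ℤ) with hI0
  set B0 : Finset ℤ := (Finset.Icc (-(N : ℤ)) (N : ℤ)).filter (fun j : ℤ => |(j : ℝ)| ≤ (N : ℝ) / 2) with hB0
  have hrd : ∀ j : ℤ, |(j : ℝ) - N * round ((j : ℝ) / N)| ≤ N / 2 := by
    intro j
    have h1 := abs_sub_round ((j : ℝ) / N)
    have h2 : (j : ℝ) - N * round ((j : ℝ) / N) = N * ((j : ℝ) / N - round ((j : ℝ) / N)) := by
      field_simp
    rw [h2, abs_mul, abs_of_pos hN0]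
    have := mul_le_mul_of_nonneg_left h1 hN0.le
    linarith
  have hmaps : ∀ x ∈ F, round ((x.2 : ℝ) / N) ∈ I0 := by
    intro x hx
    rw [hF, Finset.mem_filter, Finset.mem_product, Finset.mem_Icc] at hx
    obtain ⟨⟨-, h1, h2⟩, -⟩ := hx
    have h1' : -((J : ℝ) * N) ≤ (x.2 : ℝ) := by exact_mod_cast h1
    have h2' : (x.2 : ℝ) ≤ (J : ℝ) * N := by exact_mod_cast h2
    have h3 := abs_le.1 (abs_sub_round ((x.2 : ℝ) / N))
    have h4 : -(J : ℝ) ≤ (x.2 : ℝ) / N := by rw [le_div_iff₀ hN0]; linarith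
    have h5 : (x.2 : ℝ) / N ≤ J := by rw [div_le_iff₀ hN0]; linarith
    rw [hI0, Finset.mem_Icc]
    constructor
    · have h6 : (-(J : ℝ) - 1 : ℝ) < (round ((x.2 : ℝ) / N) : ℝ) := by linarith [h3.2]
      have h7 : -(J : ℤ) - 1 < round ((x.2 : ℝ) / N) := by exact_mod_cast h6
      omega
    · have h6 : (round ((x.2 : ℝ) / N) : ℝ) < (J : ℝ) + 1 := by linarith [h3.1]
      have h7 : round ((x.2 : ℝ) / N) < (J : ℤ) + 1 := by exact_mod_cast h6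
      omega
  have hfib : ∀ i ∈ I0, ((F.filter (fun x => round ((x.2 : ℝ) / N) = i)).card : ℝ) ≤
      (1 + C) * C * Δ * (N : ℝ) ^ 4 * m.scost 0 := by
    intro i _
    have hb := fill_block hC hG hN hΔ hD (m := ytr ((i : ℝ) / N) m) (ytr_ok hm) hR hs0 hs1 hsg B0
      (fun j hj => (Finset.mem_filter.1 hj).2)
    rw [ytr_scost] at hb
    refine le_trans ?_ hb
    have hinj : Set.InjOn (fun x : GRay × ℤ => (x.1, x.2 - N * i))
        (F.filter (fun x => round ((x.2 : ℝ) / N) = i) : Finset _) := by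
      intro x _ x' _ hxx
      have h1 := congrArg Prod.fst hxx
      have h2 := congrArg Prod.snd hxx
      exact Prod.ext h1 (by simpa using h2)
    have hle : (F.filter (fun x => round ((x.2 : ℝ) / N) = i)).card ≤
        ((s ×ˢ B0).filter (fun x => (-(gC N x.1), gX N x.1, gH N x.1 + (x.2 : ℝ) / (N : ℝ) ^ 2) ∈
          (ytr ((i : ℝ) / N) m).rays 0)).card := by
      refine Finset.card_le_card_of_injOn (fun x : GRay × ℤ => (x.1, x.2 - N * i)) ?_ hinj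
      intro x hx
      rw [Finset.mem_coe, Finset.mem_filter, hF, Finset.mem_filter, Finset.mem_product] at hx
      obtain ⟨⟨⟨hxs, -⟩, hxr⟩, hxi⟩ := hx
      have h1 := hrd x.2
      rw [hxi] at h1
      have h1' : |((x.2 - N * i : ℤ) : ℝ)| ≤ N / 2 := by push_cast; exact h1
      rw [Finset.mem_coe, Finset.mem_filter, Finset.mem_product]
      refine ⟨⟨hxs, ?_⟩, ?_⟩
      · rw [hB0, Finset.mem_filter, Finset.mem_Icc]
        refine ⟨?_, h1'⟩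
        have h2 := abs_le.1 h1'
        have h3 : (-(N : ℝ)) ≤ ((x.2 - N * i : ℤ) : ℝ) := by linarith [h2.1]
        have h4 : ((x.2 - N * i : ℤ) : ℝ) ≤ N := by linarith [h2.2]
        exact ⟨by exact_mod_cast h3, by exact_mod_cast h4⟩
      · rw [ytr_rays]
        have e : gH N x.1 + ((x.2 - N * i : ℤ) : ℝ) / (N : ℝ) ^ 2 + (i : ℝ) / N =
            gH N x.1 + (x.2 : ℝ) / (N : ℝ) ^ 2 := by
          push_cast; field_simp; ring
        show (-(gC N x.1), gX N x.1,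
          gH N x.1 + ((x.2 - N * i : ℤ) : ℝ) / (N : ℝ) ^ 2 + (i : ℝ) / N) ∈ m.rays 0
        rw [e]; exact hxr
    exact_mod_cast hle
  rw [Finset.card_eq_sum_card_fiberwise (t := I0) (f := fun x : GRay × ℤ => round ((x.2 : ℝ) / N))
      (fun x hx => hmaps x hx)]
  push_cast
  refine (Finset.sum_le_sum hfib).trans (le_of_eq ?_)
  rw [Finset.sum_const, nsmul_eq_mul]
  congr 1
  rw [hI0, Int.card_Icc]
  have : ((J : ℤ) + 1 - -(J : ℤ)).toNat = 2 * J + 1 := by omega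
  rw [this]
  push_cast; ring

end Crest.Agent.R116.Fl337
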