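import Crest.Agent.R116.Ene3_618
import Crest.Agent.R116.FlC_337

/-!
# R116, K2 (ENEMY), part 4 (helper618): the top members and the unit container

`fr N l j` = the filled grid ray `(-(gC), gX, gH + j/N²)`; `nr (fr N l j)` = the line of the
configuration.  `topm` = round member of aperture `1` based at a line; it contains all lines which
pass through the same cell (`top_mem`).  `unitm` contains all lines.
-/

set_option autoImplicit false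
set_option linter.unusedVariables false

open Finset

namespace Crest.Agent.R116.Ene618

open Crest.Agent.R116.LZg725
open Crest.Agent.R138.Defs (E2)
open Crest.Agent.R116.CDef480 (E3 lat pt vel)
open Crest.Agent.R116.Ks79

/-- the filled grid ray. -/
noncomputable def fr (N : ℕ) (l : GRay) (j : ℤ) : E2 × E2 × ℝ :=
  (-(gC N l), gX N l, gH N l + (j : ℝ) / (N : ℝ) ^ 2)

/-- a unit vector. -/
noncomputable def ue : E2 := e1

theorem norm_ue : ‖ue‖ = 1 := norm_e1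

section

variable {N : ℕ}

theorem norm_gC (hN : 1 ≤ N) {l : GRay} (h : Bd N l) : ‖gC N l‖ ≤ 2 := by
  have hN0 : (0 : ℝ) < N := by exact_mod_cast hN
  obtain ⟨h1, h2, -, -, -⟩ := h
  have h1' : |(l.1.1.1 : ℝ)| ≤ N := by exact_mod_cast h1
  have h2' : |(l.1.1.2 : ℝ)| ≤ N := by exact_mod_cast h2
  refine (norm2_le _).trans ?_
  have e1 : |(gC N l) 0| ≤ 1 := by
    show |(l.1.1.1 : ℝ) / N| ≤ 1
    rw [abs_div, abs_of_pos hN0, div_le_one hN0]; exact h1'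
  have e2 : |(gC N l) 1| ≤ 1 := by
    show |(l.1.1.2 : ℝ) / N| ≤ 1
    rw [abs_div, abs_of_pos hN0, div_le_one hN0]; exact h2'
  linarith

theorem norm_gC' (hN : 1 ≤ N) {l : GRay} (h : Bd N l) : ‖gC N l‖ ≤ 3 / 2 := by
  have hN0 : (0 : ℝ) < N := by exact_mod_cast hN
  obtain ⟨h1, h2, -, -, -⟩ := h
  have h1' : |(l.1.1.1 : ℝ)| ≤ N := by exact_mod_cast h1
  have h2' : |(l.1.1.2 : ℝ)| ≤ N := by exact_mod_cast h2
  have e1 : |(gC N l) 0| ≤ 1 := by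
    show |(l.1.1.1 : ℝ) / N| ≤ 1
    rw [abs_div, abs_of_pos hN0, div_le_one hN0]; exact h1'
  have e2 : |(gC N l) 1| ≤ 1 := by
    show |(l.1.1.2 : ℝ) / N| ≤ 1
    rw [abs_div, abs_of_pos hN0, div_le_one hN0]; exact h2'
  have h := CDef480.normsq2 (gC N l)
  have a1 : (gC N l) 0 ^ 2 ≤ 1 := by rw [← sq_abs]; nlinarith [abs_nonneg ((gC N l) 0)]
  have a2 : (gC N l) 1 ^ 2 ≤ 1 := by rw [← sq_abs]; nlinarith [abs_nonneg ((gC N l) 1)]
  nlinarith [norm_nonneg (gC N l)]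

theorem norm_gX' (hN : 1 ≤ N) {l : GRay} (h : Bd N l) : ‖gX N l‖ ≤ 3 / 2 := by
  have hN0 : (0 : ℝ) < N := by exact_mod_cast hN
  obtain ⟨-, -, h1, h2, -⟩ := h
  have h1' : |(l.1.2.1 : ℝ)| ≤ N := by exact_mod_cast h1
  have h2' : |(l.1.2.2 : ℝ)| ≤ N := by exact_mod_cast h2
  have e1 : |(gX N l) 0| ≤ 1 := by
    show |(l.1.2.1 : ℝ) / N| ≤ 1
    rw [abs_div, abs_of_pos hN0, div_le_one hN0]; exact h1'
  have e2 : |(gX N l) 1| ≤ 1 := by
    show |(l.1.2.2 : ℝ) / N| ≤ 1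
    rw [abs_div, abs_of_pos hN0, div_le_one hN0]; exact h2'
  have h := CDef480.normsq2 (gX N l)
  have a1 : (gX N l) 0 ^ 2 ≤ 1 := by rw [← sq_abs]; nlinarith [abs_nonneg ((gX N l) 0)]
  have a2 : (gX N l) 1 ^ 2 ≤ 1 := by rw [← sq_abs]; nlinarith [abs_nonneg ((gX N l) 1)]
  nlinarith [norm_nonneg (gX N l)]

theorem abs_gH (hN : 1 ≤ N) {l : GRay} (h : Bd N l) : |gH N l| ≤ 1 := by
  have hN0 : (0 : ℝ) < N := by exact_mod_cast hN
  obtain ⟨-, -, -, -, h1⟩ := h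
  have h1' : |(l.2 : ℝ)| ≤ N := by exact_mod_cast h1
  unfold gH
  rw [abs_div, abs_of_pos hN0, div_le_one hN0]; exact h1'

/-- lateral distance of two rays of one cell at the height of the cell (old coordinates). -/
theorem lat_cell (hN : 1 ≤ N) {l l' : GRay} {h : ℤ} (hc : cell N l h = cell N l' h) (j j' : ℤ) :
    ‖rx (fr N l j).1 (fr N l j).2.1 ((h : ℝ) / N) - rx (fr N l' j').1 (fr N l' j').2.1 ((h : ℝ) / N)‖ ≤
      2 / N := by
  have hN0 : (0 : ℝ) < N := by exact_mod_cast hN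
  unfold cell at hc
  rw [Prod.mk.injEq, Prod.mk.injEq] at hc
  obtain ⟨⟨h1, h2⟩, -⟩ := hc
  have h1' := (Int.abs_sub_lt_one_of_floor_eq_floor h1).le
  have h2' := (Int.abs_sub_lt_one_of_floor_eq_floor h2).le
  refine (norm2_le _).trans ?_
  have e1 : |(rx (fr N l j).1 (fr N l j).2.1 ((h : ℝ) / N) -
      rx (fr N l' j').1 (fr N l' j').2.1 ((h : ℝ) / N)) 0| ≤ 1 / N := by
    have e : (rx (fr N l j).1 (fr N l j).2.1 ((h : ℝ) / N) -
      rx (fr N l' j').1 (fr N l' j').2.1 ((h : ℝ) / N)) 0 =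
      (1 / N) * (((l.1.2.1 : ℝ) + l.1.1.1 * (h : ℝ) / N) -
        ((l'.1.2.1 : ℝ) + l'.1.1.1 * (h : ℝ) / N)) := by
      simp only [rx, fr, gC, gX, PiLp.sub_apply, PiLp.smul_apply, PiLp.neg_apply, smul_eq_mul,
        Matrix.cons_val_zero]
      field_simp
      ring
    rw [e, abs_mul, abs_of_pos (by positivity : (0:ℝ) < 1 / N)]
    calc 1 / (N : ℝ) * _ ≤ 1 / N * 1 := by gcongr
      _ = 1 / N := mul_one _
  have e2 : |(rx (fr N l j).1 (fr N l j).2.1 ((h : ℝ) / N) -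
      rx (fr N l' j').1 (fr N l' j').2.1 ((h : ℝ) / N)) 1| ≤ 1 / N := by
    have e : (rx (fr N l j).1 (fr N l j).2.1 ((h : ℝ) / N) -
      rx (fr N l' j').1 (fr N l' j').2.1 ((h : ℝ) / N)) 1 =
      (1 / N) * (((l.1.2.2 : ℝ) + l.1.1.2 * (h : ℝ) / N) -
        ((l'.1.2.2 : ℝ) + l'.1.1.2 * (h : ℝ) / N)) := by
      simp only [rx, fr, gC, gX, PiLp.sub_apply, PiLp.smul_apply, PiLp.neg_apply, smul_eq_mul,
        Matrix.cons_val_one, Matrix.cons_val]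
      field_simp
      ring
    rw [e, abs_mul, abs_of_pos (by positivity : (0:ℝ) < 1 / N)]
    calc 1 / (N : ℝ) * _ ≤ 1 / N * 1 := by gcongr
      _ = 1 / N := mul_one _
  have : (2 : ℝ) / N = 1 / N + 1 / N := by ring
  linarith

/-- null distance of two rays of one cell at the height of the cell (old coordinates). -/
theorem null_cell (hN : 1 ≤ N) {l l' : GRay} {h : ℤ} (hc : cell N l h = cell N l' h) {j j' : ℤ}
    (hj : |j - j'| ≤ (N : ℤ)) :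
    |ry (fr N l j).1 (fr N l j).2.2 ((h : ℝ) / N) - ry (fr N l' j').1 (fr N l' j').2.2 ((h : ℝ) / N)| ≤
      2 / N := by
  have hN0 : (0 : ℝ) < N := by exact_mod_cast hN
  unfold cell at hc
  rw [Prod.mk.injEq, Prod.mk.injEq] at hc
  obtain ⟨-, h3⟩ := hc
  have h3' := (Int.abs_sub_lt_one_of_floor_eq_floor h3).le
  have hj' : |(j : ℝ) - j'| ≤ N := by exact_mod_cast hj
  have n1 : ∀ l : GRay, ‖-(gC N l)‖ ^ 2 = ((l.1.1.1 : ℝ) ^ 2 + (l.1.1.2 : ℝ) ^ 2) / N ^ 2 := by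
    intro l
    rw [norm_neg, CDef480.normsq2]
    show ((l.1.1.1 : ℝ) / N) ^ 2 + ((l.1.1.2 : ℝ) / N) ^ 2 = _
    ring
  have e : ry (fr N l j).1 (fr N l j).2.2 ((h : ℝ) / N) -
      ry (fr N l' j').1 (fr N l' j').2.2 ((h : ℝ) / N) =
      (1 / N) * (((l.2 : ℝ) + ((l.1.1.1 : ℝ) ^ 2 + (l.1.1.2 : ℝ) ^ 2) * (h : ℝ) / (2 * (N : ℝ) ^ 2)) -
        ((l'.2 : ℝ) + ((l'.1.1.1 : ℝ) ^ 2 + (l'.1.1.2 : ℝ) ^ 2) * (h : ℝ) / (2 * (N : ℝ) ^ 2))) +
      ((j : ℝ) - j') / N ^ 2 := by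
    unfold ry fr gH
    simp only []
    rw [n1, n1]
    field_simp
    ring
  rw [e]
  refine (abs_add_le _ _).trans ?_
  rw [abs_mul, abs_of_pos (by positivity : (0:ℝ) < 1 / N), abs_div,
    abs_of_pos (by positivity : (0:ℝ) < (N:ℝ) ^ 2)]
  have e1 : |(j : ℝ) - j'| / (N : ℝ) ^ 2 ≤ 1 / N := by
    rw [div_le_div_iff₀ (by positivity) hN0, one_mul, sq]
    exact mul_le_mul_of_nonneg_right hj' hN0.le
  have e2 : 1 / (N : ℝ) * |((l.2 : ℝ) + ((l.1.1.1 : ℝ) ^ 2 + (l.1.1.2 : ℝ) ^ 2) * (h : ℝ) /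
      (2 * (N : ℝ) ^ 2)) - ((l'.2 : ℝ) + ((l'.1.1.1 : ℝ) ^ 2 + (l'.1.1.2 : ℝ) ^ 2) * (h : ℝ) /
      (2 * (N : ℝ) ^ 2))| ≤ 1 / N * 1 := by gcongr
  have : (2 : ℝ) / N = 1 / N + 1 / N := by ring
  linarith

end

/-! ### the top member -/

/-- round member of aperture `1` based at a ray. -/
noncomputable def topm (R s0 : ℝ) (r : E2 × E2 × ℝ) : Mem where
  c := r.1
  sg := 1
  s1 := 1
  R := R
  X0 := rpos r s0
  s0 := s0
  phi := linf ue r.1 r.2.1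

theorem linf_own (C a : E2) (y s : ℝ) : (linf ue C a).ev (rx C a s) y s = 0 := by
  rw [linf_ev]
  unfold rx
  rw [sub_right_comm, sub_self, zero_sub, neg_add_cancel, inner_zero_right]

theorem linf_ld (C a x : E2) (y s : ℝ) : (linf ue C a).ld C x y s = 0 := by
  unfold Cf.ld linf Cf.ny
  simp

theorem topm_ok {M R s0 : ℝ} (hM : 0 ≤ M) (hR : 0 < R) (r : E2 × E2 × ℝ) :
    (topm R s0 r).Ok M 0 := by
  refine ⟨hR, one_pos, le_rfl, ?_⟩
  refine ⟨linf_disc norm_ue _ _, ?_, ?_, ?_⟩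
  · intro s _
    show |(linf ue r.1 r.2.1).ny s| * _ ≤ M * 1
    rw [linf_ny, abs_zero, zero_mul, mul_one]; exact hM
  · show |(linf ue r.1 r.2.1).ld r.1 _ _ _| ≤ M * 1
    rw [linf_ld, abs_zero, mul_one]; exact hM
  · show |(linf ue r.1 r.2.1).ev (lat (rpos r s0)) _ s0| ≤ M * 1 * R
    rw [lat_rpos, linf_own, abs_zero]
    positivity

/-- membership in the top member. -/
theorem mem_topm {R s0 : ℝ} {r r' : E2 × E2 × ℝ} (hC : ‖r'.1 - r.1‖ ≤ 1)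
    (hx : ∀ s : ℝ, |s - s0| ≤ R → ‖rx r'.1 r'.2.1 s - rx r.1 r.2.1 s‖ ≤ R)
    (hn : ∀ s : ℝ, |s - s0| ≤ R →
      |nrm r.1 (rx r'.1 r'.2.1 s) (ry r'.1 r'.2.2 s) s - (r.2.2 + inner ℝ r.1 r.2.1)| ≤ R) :
    r' ∈ (topm R s0 r).rays 0 := by
  rw [Mem.mem_rays, T_zero]
  refine ⟨hC, fun s hs => ⟨⟨hs, ?_, ?_⟩, ?_⟩⟩
  · show ‖rx r'.1 r'.2.1 s - lat (rpos r s0) + (s - s0) • r.1‖ ≤ 1 * R
    have e : rx r'.1 r'.2.1 s - lat (rpos r s0) + (s - s0) • r.1 =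
        rx r'.1 r'.2.1 s - rx r.1 r.2.1 s := by
      rw [lat_rpos]; unfold rx; module
    rw [e, one_mul]
    exact hx s hs
  · show |nrm r.1 (rx r'.1 r'.2.1 s) (ry r'.1 r'.2.2 s) s -
      nrm r.1 (lat (rpos r s0)) (rpos r s0 2) s0| ≤ 1 ^ 2 * R
    rw [lat_rpos, rpos_two, nrm_ray, one_pow, one_mul]
    exact hn s hs
  · show |(linf ue r.1 r.2.1).ev (rx r'.1 r'.2.1 s) (ry r'.1 r'.2.2 s) s| ≤ 1 * R
    rw [linf_ev, one_mul]
    refine (abs_real_inner_le_norm _ _).trans ?_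
    rw [norm_ue, one_mul]
    have e : rx r'.1 r'.2.1 s - r.2.1 + s • r.1 = rx r'.1 r'.2.1 s - rx r.1 r.2.1 s := by
      unfold rx; module
    rw [e]
    exact hx s hs

/-- **the top member contains all lines of the cell.** -/
theorem top_mem {N : ℕ} (hN : 1 ≤ N) {l l' : GRay} (hl : Bd N l) (hl' : Bd N l') {h : ℤ}
    (hc : cell N l h = cell N l' h) {j j' : ℤ} (hj : |j - j'| ≤ (N : ℤ)) {R s0 : ℝ}
    (hR : 1 / (16 * (N : ℝ)) ≤ R) (hs0 : |((h : ℝ) / N * (1 / 4) + 1 / 2) - s0| ≤ R) :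
    nr (fr N l j) ∈ (topm R s0 (nr (fr N l' j'))).rays 0 := by
  have hN0 : (0 : ℝ) < N := by exact_mod_cast hN
  set z : ℝ := (h : ℝ) / N with hz
  set w : ℝ := 1 / 4 * z + 1 / 2 with hw
  have hws : |w - s0| ≤ R := by
    have : w = z * (1 / 4) + 1 / 2 := by rw [hw]; ring
    rw [this]; exact hs0
  set r := fr N l j with hr
  set r' := fr N l' j' with hr'
  have hRp : 0 < R := lt_of_lt_of_le (by positivity) hR
  have hR2 : 1 / (N : ℝ) ≤ 16 * R := by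
    have : 1 / (N : ℝ) = 16 * (1 / (16 * (N : ℝ))) := by field_simp
    rw [this]; linarith
  -- slopes
  have c1 : ‖r.1‖ ≤ 2 := by
    show ‖-(gC N l)‖ ≤ 2
    rw [norm_neg]; exact norm_gC hN hl
  have c2 : ‖r'.1‖ ≤ 2 := by
    show ‖-(gC N l')‖ ≤ 2
    rw [norm_neg]; exact norm_gC hN hl'
  have hC : ‖(nr r).1 - (nr r').1‖ ≤ 1 / 4 := by
    rw [nr_C, nr_C, ← smul_sub, norm_smul, Real.norm_of_nonneg (by norm_num)]
    have := norm_sub_le r.1 r'.1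
    linarith
  have hC' : ‖(nr r').1‖ ≤ 1 / 8 := by
    rw [nr_C, norm_smul, Real.norm_of_nonneg (by norm_num)]
    linarith
  -- at the height of the cell
  have x0 : ‖rx (nr r).1 (nr r).2.1 w - rx (nr r').1 (nr r').2.1 w‖ ≤ R / 2 := by
    rw [hw, nr_rx, nr_rx, ← smul_sub, norm_smul, Real.norm_of_nonneg (by norm_num)]
    have h1 := lat_cell hN hc j j'
    have h2 : 2 / (N : ℝ) = 2 * (1 / N) := by ring
    have h3 : ‖rx r.1 r.2.1 z - rx r'.1 r'.2.1 z‖ ≤ 2 / N := h1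
    linarith
  have y0 : |ry (nr r).1 (nr r).2.2 w - ry (nr r').1 (nr r').2.2 w| ≤ R / 32 := by
    rw [hw, nr_ry, nr_ry, ← mul_sub, abs_mul, abs_of_pos (by norm_num : (0:ℝ) < 1 / 1024)]
    have h1 := null_cell hN hc hj
    have h2 : 2 / (N : ℝ) = 2 * (1 / N) := by ring
    have h3 : |ry r.1 r.2.2 z - ry r'.1 r'.2.2 z| ≤ 2 / N := h1
    linarith
  have hd : ∀ s : ℝ, |s - s0| ≤ R → |s - w| ≤ 2 * R := by
    intro s hs
    rw [abs_le] at hs hws ⊢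
    constructor <;> linarith [hs.1, hs.2, hws.1, hws.2]
  refine mem_topm (by linarith) ?_ ?_
  · intro s hs
    have e : rx (nr r).1 (nr r).2.1 s - rx (nr r').1 (nr r').2.1 s =
        (rx (nr r).1 (nr r).2.1 w - rx (nr r').1 (nr r').2.1 w) - (s - w) • ((nr r).1 - (nr r').1) := by
      unfold rx; module
    rw [e]
    refine (norm_sub_le _ _).trans ?_
    rw [norm_smul, Real.norm_eq_abs]
    have := mul_le_mul (hd s hs) hC (norm_nonneg _) (by linarith)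
    linarith
  · intro s hs
    rw [nrm_ray']
    have e1 := nrm_ray' (nr r').1 (nr r).1 (nr r).2.1 (nr r).2.2 w
    have e2 := nrm_ray (nr r').1 (nr r').2.1 (nr r').2.2 w
    have e3 : (nr r).2.2 + inner ℝ (nr r').1 (nr r).2.1 + s * ‖(nr r).1 - (nr r').1‖ ^ 2 / 2 -
        ((nr r').2.2 + inner ℝ (nr r').1 (nr r').2.1) =
        (ry (nr r).1 (nr r).2.2 w - ry (nr r').1 (nr r').2.2 w) +
        inner ℝ (nr r').1 (rx (nr r).1 (nr r).2.1 w - rx (nr r').1 (nr r').2.1 w) +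
        (s - w) * (‖(nr r).1 - (nr r').1‖ ^ 2 / 2) := by
      rw [← e2]
      have e4 : (nr r).2.2 + inner ℝ (nr r').1 (nr r).2.1 + s * ‖(nr r).1 - (nr r').1‖ ^ 2 / 2 =
          nrm (nr r').1 (rx (nr r).1 (nr r).2.1 w) (ry (nr r).1 (nr r).2.2 w) w +
          (s - w) * (‖(nr r).1 - (nr r').1‖ ^ 2 / 2) := by
        rw [e1]; ring
      rw [e4]
      unfold nrm
      rw [inner_sub_right]
      ring
    rw [e3]
    refine (abs_add_le _ _).trans ?_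
    have f1 : |inner ℝ (nr r').1 (rx (nr r).1 (nr r).2.1 w - rx (nr r').1 (nr r').2.1 w)| ≤
        1 / 8 * (R / 2) :=
      (abs_real_inner_le_norm _ _).trans (mul_le_mul hC' x0 (norm_nonneg _) (by norm_num))
    have f2 : |(s - w) * (‖(nr r).1 - (nr r').1‖ ^ 2 / 2)| ≤ 2 * R * ((1 / 4) ^ 2 / 2) := by
      rw [abs_mul, abs_of_nonneg (a := ‖(nr r).1 - (nr r').1‖ ^ 2 / 2) (by positivity)]
      have h5 : ‖(nr r).1 - (nr r').1‖ ^ 2 ≤ (1 / 4) ^ 2 := pow_le_pow_left₀ (norm_nonneg _) hC 2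
      exact mul_le_mul (hd s hs) (by linarith) (by positivity) (by linarith)
    have f3 := abs_add_le (ry (nr r).1 (nr r).2.2 w - ry (nr r').1 (nr r').2.2 w)
      (inner ℝ (nr r').1 (rx (nr r).1 (nr r).2.1 w - rx (nr r').1 (nr r').2.1 w))
    linarith

/-! ### the unit container -/

/-- the unit member. -/
noncomputable def unitm : Mem where
  c := 0
  sg := 1
  s1 := 1
  R := 1
  X0 := 0
  s0 := 1 / 2
  phi := linf ue 0 0

theorem lat_zero : lat (0 : E3) = 0 := by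
  ext i; fin_cases i <;> simp [lat]

theorem unitm_ok {M : ℝ} (hM : 0 ≤ M) : unitm.Ok M 0 := by
  refine ⟨one_pos, one_pos, le_rfl, ?_⟩
  refine ⟨linf_disc norm_ue _ _, ?_, ?_, ?_⟩
  · intro s _
    show |(linf ue 0 0).ny s| * _ ≤ M * 1
    rw [linf_ny, abs_zero, zero_mul, mul_one]; exact hM
  · show |(linf ue 0 0).ld 0 _ _ _| ≤ M * 1
    rw [linf_ld, abs_zero, mul_one]; exact hM
  · show |(linf ue 0 0).ev (lat 0) _ (1 / 2)| ≤ M * 1 * 1
    rw [linf_ev, lat_zero]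
    simpa using hM

/-- **the unit member contains all lines.** -/
theorem unit_mem {N : ℕ} (hN : 1 ≤ N) {l : GRay} (hl : Bd N l) {j : ℤ} (hj : |j| ≤ (N : ℤ)) :
    nr (fr N l j) ∈ unitm.rays 0 := by
  have hN0 : (0 : ℝ) < N := by exact_mod_cast hN
  have hN1 : (1 : ℝ) ≤ N := by exact_mod_cast hN
  set r := fr N l j with hr
  have c1 : ‖r.1‖ ≤ 3 / 2 := by
    show ‖-(gC N l)‖ ≤ 3 / 2
    rw [norm_neg]; exact norm_gC' hN hl
  have c2 : ‖r.2.1‖ ≤ 3 / 2 := norm_gX' hN hl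
  have c3 : |r.2.2| ≤ 2 := by
    show |gH N l + (j : ℝ) / (N : ℝ) ^ 2| ≤ 2
    have h1 := abs_gH hN hl
    have hj' : |(j : ℝ)| ≤ N := by exact_mod_cast hj
    have h2 : |(j : ℝ) / (N : ℝ) ^ 2| ≤ 1 := by
      rw [abs_div, abs_of_pos (by positivity : (0:ℝ) < (N:ℝ) ^ 2), div_le_one (by positivity)]
      nlinarith
    have := abs_add_le (gH N l) ((j : ℝ) / (N : ℝ) ^ 2)
    linarith
  rw [Mem.mem_rays, T_zero]
  have hz : ∀ s : ℝ, |s - 1 / 2| ≤ 1 → ∃ z : ℝ, |z| ≤ 4 ∧ s = 1 / 4 * z + 1 / 2 := by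
    intro s hs
    refine ⟨4 * (s - 1 / 2), ?_, by ring⟩
    rw [abs_mul, abs_of_pos (by norm_num : (0:ℝ) < 4)]; linarith
  have hx : ∀ s : ℝ, |s - 1 / 2| ≤ 1 → ‖rx (nr r).1 (nr r).2.1 s‖ ≤ 1 := by
    intro s hs
    obtain ⟨z, hz1, rfl⟩ := hz s hs
    rw [nr_rx, norm_smul, Real.norm_of_nonneg (by norm_num)]
    have h1 : ‖rx r.1 r.2.1 z‖ ≤ 3 / 2 + 4 * (3 / 2) := by
      unfold rx
      refine (norm_sub_le _ _).trans ?_
      rw [norm_smul, Real.norm_eq_abs]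
      have := mul_le_mul hz1 c1 (norm_nonneg _) (by norm_num)
      linarith
    linarith
  refine ⟨?_, fun s hs => ⟨⟨hs, ?_, ?_⟩, ?_⟩⟩
  · show ‖(nr r).1 - 0‖ ≤ 1
    rw [sub_zero, nr_C, norm_smul, Real.norm_of_nonneg (by norm_num)]
    linarith
  · show ‖rx (nr r).1 (nr r).2.1 s - lat 0 + (s - 1 / 2) • (0 : E2)‖ ≤ 1 * 1
    rw [smul_zero, add_zero, lat_zero, sub_zero, one_mul]
    exact hx s hs
  · show |nrm 0 (rx (nr r).1 (nr r).2.1 s) (ry (nr r).1 (nr r).2.2 s) s -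
      nrm 0 (lat 0) ((0 : E3) 2) (1 / 2)| ≤ 1 ^ 2 * 1
    obtain ⟨z, hz1, rfl⟩ := hz s hs
    rw [nr_ry]
    unfold nrm ry
    simp only [inner_zero_left, norm_zero, PiLp.zero_apply]
    have h1 : ‖r.1‖ ^ 2 ≤ (3 / 2) ^ 2 := pow_le_pow_left₀ (norm_nonneg _) c1 2
    have h2 : |z * ‖r.1‖ ^ 2 / 2| ≤ 4 * (3 / 2) ^ 2 / 2 := by
      rw [abs_div, abs_mul, abs_of_nonneg (a := ‖r.1‖ ^ 2) (by positivity), abs_two]
      have := mul_le_mul hz1 h1 (by positivity) (by norm_num)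
      linarith
    have h3 := abs_add_le r.2.2 (z * ‖r.1‖ ^ 2 / 2)
    rw [show (1:ℝ) / 1024 * (r.2.2 + z * ‖r.1‖ ^ 2 / 2) + 0 + (1 / 4 * z + 1 / 2) * 0 ^ 2 / 2 -
      (0 + 0 + 1 / 2 * 0 ^ 2 / 2) = 1 / 1024 * (r.2.2 + z * ‖r.1‖ ^ 2 / 2) by ring, abs_mul,
      abs_of_pos (by norm_num : (0:ℝ) < 1 / 1024)]
    linarith
  · show |(linf ue 0 0).ev (rx (nr r).1 (nr r).2.1 s) _ s| ≤ 1 * 1
    rw [linf_ev, sub_zero, smul_zero, add_zero, one_mul]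
    refine (abs_real_inner_le_norm _ _).trans ?_
    rw [norm_ue, one_mul]
    exact hx s hs

end Crest.Agent.R116.Ene618
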