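import Crest.Agent.R116.Fil1_139
import Crest.Agent.R116.FlC_337

/-!
# R116 (S0155), K side: FILL-GEO in the form of 337's `FillGeo`, and FILL-COUNT without hypothesis
-/

set_option autoImplicit false

namespace Crest.Agent.R116.Fil139

open Crest.Agent.R138.Defs (E2)
open Crest.Agent.R116.CDef480 (E3 lat pt)
open Crest.Agent.R116.LZg725
open Crest.Agent.R116.LKMDef299 (Cpt LRay)

/-- **337's `FillGeo`**. -/
theorem fillGeo {M : ℝ} (hM : 0 ≤ M) : Fl337.FillGeo M (256 + M) (4 * (M + 1)) := by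
  intro r hr hr1 m h hR hs0 h1 h8
  obtain ⟨m2, l, a1, a2, a3, a4, a5, a6, a7, a8, a9, a10, a11⟩ := fill_geo hM hr hr1 h hR hs0 h1 h8
  refine ⟨m2, l, a1, a2, a3, a4, a5, a6, a7, fun c a k t ht hk => a8 c a k t ht hk,
    fun c a k t t' ht ht' hk hk' => a9 c a k t t' ht ht' hk hk', a10.trans ?_, a11.trans ?_⟩
  · nlinarith
  · have := h.scost_pos
    nlinarith [mul_pos hr this]

end Crest.Agent.R116.Fil139
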