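import Crest.Agent.R116.Ene4_618
import Crest.Agent.R116.Fil2_139
import Crest.Agent.R138.MkDef_163

/-!
# R116, K2 (ENEMY), part 5 (helper618): the configuration of a grid family

`exists_raw`: raw data of the configuration of a grid family (no structure of configurations used).
-/

set_option autoImplicit false
set_option linter.unusedVariables false

open Finset

namespace Crest.Agent.R116.Ene618

open Crest.Agent.R116.LZg725
open Crest.Agent.R138.Defs (E2)
open Crest.Agent.R116.CDef480 (E3 lat pt vel)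
open Crest.Agent.R116.Ks79
open Crest.Agent.R138.Mk163 (zc alive own)

/-- the new height of the grid height `j`. -/
noncomputable def rh (N : ℕ) (j : ℤ) : ℝ := (j : ℝ) / N * (1 / 4) + 1 / 2

/-- centre of the cell `J` of level `M`. -/
noncomputable def ctr (M : ℕ) (J : ℤ) : ℝ := ((J : ℝ) + 1 / 2) / 2 ^ M

theorem rh_mem {N : ℕ} (hN : 1 ≤ N) {j : ℤ} (hj : |j| ≤ (N : ℤ)) :
    1 / 4 ≤ rh N j ∧ rh N j ≤ 3 / 4 := by
  have hN0 : (0:ℝ) < N := by exact_mod_cast hN
  have h1 : |(j:ℝ)| ≤ N := by exact_mod_cast hj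
  rw [abs_le] at h1
  have h2 : -1 ≤ (j:ℝ) / N := by rw [le_div_iff₀ hN0]; linarith [h1.1]
  have h3 : (j:ℝ) / N ≤ 1 := by rw [div_le_one hN0]; exact h1.2
  unfold rh
  constructor <;> linarith

theorem zc0 {z : ℝ} (h : 0 ≤ z) (h1 : z < 1) : zc 0 z = 0 := by
  unfold zc
  rw [pow_zero, one_mul, Int.floor_eq_zero_iff]
  exact ⟨h, h1⟩

theorem zc0_rh {N : ℕ} (hN : 1 ≤ N) {j : ℤ} (hj : |j| ≤ (N : ℤ)) : zc 0 (rh N j) = 0 := by
  obtain ⟨h1, h2⟩ := rh_mem hN hj
  exact zc0 (by linarith) (by linarith)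

theorem zc_rh_inj {N M : ℕ} (hN : 1 ≤ N) (hM : 4 * N ≤ 2 ^ M) {j j' : ℤ}
    (h : zc M (rh N j) = zc M (rh N j')) : j = j' := by
  have hN0 : (0:ℝ) < N := by exact_mod_cast hN
  have h1 := Int.abs_sub_lt_one_of_floor_eq_floor h
  have h2 : (2:ℝ) ^ M * rh N j - 2 ^ M * rh N j' = (2 ^ M / (4 * N)) * ((j:ℝ) - j') := by
    unfold rh; field_simp; ring
  have h3 : (1:ℝ) ≤ 2 ^ M / (4 * N) := by
    rw [le_div_iff₀ (by positivity)]
    have : ((4 * N : ℕ) : ℝ) ≤ ((2 ^ M : ℕ) : ℝ) := by exact_mod_cast hM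
    push_cast at this; linarith
  rw [h2, abs_mul, abs_of_pos (by linarith)] at h1
  have h4 : |(j:ℝ) - j'| < 1 := by
    have : |(j:ℝ) - j'| ≤ 2 ^ M / (4 * N) * |(j:ℝ) - j'| :=
      le_mul_of_one_le_left (abs_nonneg _) h3
    linarith
  have h5 : |j - j'| < 1 := by exact_mod_cast h4
  have := Int.abs_lt_one_iff.1 h5
  omega

theorem abs_sub_ctr (M : ℕ) (z : ℝ) : |z - ctr M (zc M z)| ≤ 1 / 2 ^ M := by
  have hp : (0:ℝ) < 2 ^ M := by positivity
  have h1 := Int.floor_le ((2:ℝ) ^ M * z)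
  have h2 := Int.lt_floor_add_one ((2:ℝ) ^ M * z)
  unfold ctr zc
  set n : ℝ := ((⌊(2:ℝ) ^ M * z⌋ : ℤ) : ℝ) with hn
  have e : z - (n + 1 / 2) / 2 ^ M = (2 ^ M * z - n - 1 / 2) / 2 ^ M := by field_simp; ring
  rw [e, abs_div, abs_of_pos hp]
  apply div_le_div_of_nonneg_right _ hp.le
  rw [abs_le]
  constructor <;> linarith

/-- number of a filled line. -/
def code (x : GRay × ℤ) : ℕ := Encodable.encode x

theorem code_inj {x y : GRay × ℤ} (h : code x = code y) : x = y := Encodable.encode_injective h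

/-- the line of a number. -/
noncomputable def lin (N : ℕ) (n : ℕ) : E2 × E2 × ℝ :=
  match (Encodable.decode n : Option (GRay × ℤ)) with
  | some x => nr (fr N x.1 x.2)
  | none => (0, 0, 0)

theorem lin_code (N : ℕ) (x : GRay × ℤ) : lin N (code x) = nr (fr N x.1 x.2) := by
  unfold lin code
  rw [Encodable.encodek]

open Classical in
/-- the class of a line over a cell of level `M`. -/
noncomputable def cls (N M : ℕ) (t : ℕ) (J : ℤ) : ℕ :=
  if h : ∃ y : (GRay × ℤ) × ℤ, code y.1 = t ∧ zc M (rh N y.2) = J then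
    Encodable.encode (keyL N (h.choose.1.1, h.choose.2)) else 0

theorem cls_code {N M : ℕ} (hN : 1 ≤ N) (hM : 4 * N ≤ 2 ^ M) (x : GRay × ℤ) (h : ℤ) :
    cls N M (code x) (zc M (rh N h)) = Encodable.encode (keyL N (x.1, h)) := by
  have hex : ∃ y : (GRay × ℤ) × ℤ, code y.1 = code x ∧ zc M (rh N y.2) = zc M (rh N h) :=
    ⟨(x, h), rfl, rfl⟩
  unfold cls
  rw [dif_pos hex]
  have h1 := code_inj hex.choose_spec.1
  have h2 := zc_rh_inj hN hM hex.choose_spec.2
  rw [h1, h2]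

open Classical in
/-- test set of a class. -/
noncomputable def tst (N M : ℕ) (I : Finset (GRay × ℤ)) (c : ℕ) : Mem :=
  if h : ∃ y ∈ I, Encodable.encode (keyL N y) = c then
    topm (1 / 2 ^ M) (ctr M (zc M (rh N h.choose.2))) (nr (fr N h.choose.1 0))
  else unitm

theorem tst_eq {N : ℕ} (M : ℕ) {I : Finset (GRay × ℤ)} {x : GRay × ℤ} (hx : x ∈ I) :
    ∃ y ∈ I, keyL N y = keyL N x ∧ tst N M I (Encodable.encode (keyL N x)) =
      topm (1 / 2 ^ M) (ctr M (zc M (rh N x.2))) (nr (fr N y.1 0)) := by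
  have hex : ∃ y ∈ I, Encodable.encode (keyL N y) = Encodable.encode (keyL N x) := ⟨x, hx, rfl⟩
  have hk : keyL N hex.choose = keyL N x := Encodable.encode_injective hex.choose_spec.2
  have h2 : hex.choose.2 = x.2 := by
    have := congrArg Prod.snd hk; simpa [keyL] using this
  refine ⟨hex.choose, hex.choose_spec.1, hk, ?_⟩
  unfold tst
  rw [dif_pos hex, h2]

/-- the incidences of the configuration. -/
noncomputable def inc (N : ℕ) (x : (GRay × ℤ) × ℤ) : ℕ × ℝ := (code (x.1.1, x.2), rh N x.1.2)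

theorem inc_inj {N : ℕ} (hN : 1 ≤ N) : Function.Injective (inc N) := by
  intro x y h
  unfold inc at h
  rw [Prod.mk.injEq] at h
  have h1 := code_inj h.1
  rw [Prod.mk.injEq] at h1
  have h2 : x.1.2 = y.1.2 := by
    refine zc_rh_inj hN (M := 4 * N) ?_ (by rw [h.2])
    exact (Nat.lt_pow_self (by norm_num)).le
  exact Prod.ext (Prod.ext h1.1 h2) h1.2

open Classical in
/-- the set of incidences. -/
noncomputable def incs (N : ℕ) (I : Finset (GRay × ℤ)) : Finset (ℕ × ℝ) :=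
  (I ×ˢ Icc (0 : ℤ) ((N : ℤ) - 1)).image (inc N)

/-- the constant. -/
noncomputable def KK : ℝ := (2 * nK + 1) ^ 5 * (3 * ((1 + 272) * 272) * 2 ^ 30)

section

variable {N M : ℕ} {s : Finset GRay} {I : Finset (GRay × ℤ)} {Δ μ ν : ℝ}

theorem mem_incs {x : ℕ × ℝ} : x ∈ incs N I ↔ ∃ l h j, (l, h) ∈ I ∧ 0 ≤ j ∧ j ≤ (N : ℤ) - 1 ∧
    x = (code (l, j), rh N h) := by
  classical
  unfold incs inc
  simp only [mem_image, mem_product, mem_Icc]
  constructor
  · rintro ⟨⟨⟨l, h⟩, j⟩, ⟨h1, h2, h3⟩, rfl⟩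
    exact ⟨l, h, j, h1, h2, h3, rfl⟩
  · rintro ⟨l, h, j, h1, h2, h3, rfl⟩
    exact ⟨⟨⟨l, h⟩, j⟩, ⟨h1, h2, h3⟩, rfl⟩

theorem incs_card (hN : 1 ≤ N) : (incs N I).card = I.card * N := by
  classical
  unfold incs
  rw [card_image_of_injective _ (inc_inj hN), card_product, Int.card_Icc]
  congr 1
  omega

theorem mem_alive {i : ℕ} {J : ℤ} {t : ℕ} : t ∈ alive (incs N I) i J ↔
    ∃ l h j, (l, h) ∈ I ∧ 0 ≤ j ∧ j ≤ (N : ℤ) - 1 ∧ zc i (rh N h) = J ∧ t = code (l, j) := by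
  classical
  unfold alive
  rw [mem_image]
  constructor
  · rintro ⟨x, hx, rfl⟩
    rw [mem_filter, mem_incs] at hx
    obtain ⟨⟨l, h, j, h1, h2, h3, rfl⟩, h4⟩ := hx
    exact ⟨l, h, j, h1, h2, h3, h4, rfl⟩
  · rintro ⟨l, h, j, h1, h2, h3, h4, rfl⟩
    exact ⟨(code (l, j), rh N h), mem_filter.2 ⟨mem_incs.2 ⟨l, h, j, h1, h2, h3, rfl⟩, h4⟩, rfl⟩

/-- the top classes -/
theorem raw_top (hN : 1 ≤ N) (hM : 4 * N ≤ 2 ^ M) (hM' : 2 ^ M ≤ 8 * N)
    (hBd : ∀ x ∈ I, Bd N x.1) {J : ℤ} {t : ℕ} (ht : t ∈ alive (incs N I) M J) :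
    ∃ r, tst N M I (cls N M t J) = topm (1 / 2 ^ M) (ctr M J) r ∧
      lin N t ∈ (tst N M I (cls N M t J)).rays 0 := by
  obtain ⟨l, h, j, h1, h2, h3, h4, rfl⟩ := mem_alive.1 ht
  rw [← h4, cls_code hN hM]
  obtain ⟨y, hy, hk, he⟩ := tst_eq (N := N) M h1
  refine ⟨nr (fr N y.1 0), he, ?_⟩
  rw [he, lin_code]
  have hN0 : (0:ℝ) < N := by exact_mod_cast hN
  have hk2 : y.2 = h := by
    have := congrArg Prod.snd hk; simpa [keyL] using this
  have hk1 : cell N l h = cell N y.1 h := by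
    have := congrArg Prod.fst hk
    simp only [keyL] at this
    rw [← this, hk2]
  refine top_mem hN (hBd _ h1) (hBd _ hy) hk1 ?_ ?_ ?_
  · rw [sub_zero, abs_of_nonneg h2]; omega
  · have hp : (0:ℝ) < 2 ^ M := by positivity
    have hMr' : (2:ℝ) ^ M ≤ 8 * N := by
      have : ((2 ^ M : ℕ) : ℝ) ≤ ((8 * N : ℕ) : ℝ) := by exact_mod_cast hM'
      push_cast at this; exact this
    apply one_div_le_one_div_of_le hp
    linarith
  · exact abs_sub_ctr M (rh N h)

open Classical in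
/-- number of lines of a class -/
theorem raw_low (hN : 1 ≤ N) (hM : 4 * N ≤ 2 ^ M)
    (hmul : ∀ x ∈ I, μ ≤ ((I.filter (fun y => keyL N y = keyL N x)).card : ℝ))
    {J : ℤ} {t : ℕ} (ht : t ∈ alive (incs N I) M J) :
    μ * N ≤ (((alive (incs N I) M J).filter fun s => cls N M s J = cls N M t J).card : ℝ) := by
  obtain ⟨l, h, j, h1, h2, h3, h4, rfl⟩ := mem_alive.1 ht
  have hcard : (I.filter (fun y => keyL N y = keyL N (l, h))).card * N ≤
      ((alive (incs N I) M J).filter fun s => cls N M s J = cls N M (code (l, j)) J).card := by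
    have e : ((I.filter (fun y => keyL N y = keyL N (l, h))) ×ˢ Icc (0 : ℤ) ((N : ℤ) - 1)).card =
        (I.filter (fun y => keyL N y = keyL N (l, h))).card * N := by
      rw [card_product, Int.card_Icc]
      congr 1
      omega
    rw [← e]
    refine card_le_card_of_injOn (fun z : (GRay × ℤ) × ℤ => code (z.1.1, z.2)) ?_ ?_
    · intro z hz
      rw [mem_coe, mem_product, mem_filter, mem_Icc] at hz
      obtain ⟨⟨hz1, hz2⟩, hz3, hz4⟩ := hz
      have hk2 : z.1.2 = h := by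
        have := congrArg Prod.snd hz2; simpa [keyL] using this
      rw [mem_coe, mem_filter]
      refine ⟨mem_alive.2 ⟨z.1.1, z.1.2, z.2, hz1, hz3, hz4, by rw [hk2]; exact h4, rfl⟩, ?_⟩
      show cls N M (code (z.1.1, z.2)) J = cls N M (code (l, j)) J
      rw [← h4, cls_code hN hM, cls_code hN hM]
      rw [← hz2]
      show Encodable.encode (keyL N (z.1.1, h)) = Encodable.encode (keyL N z.1)
      rw [← hk2]
    · intro z hz z' hz' hzz
      rw [mem_coe, mem_product, mem_filter, mem_Icc] at hz hz'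
      have hk2 : z.1.2 = h := by
        have := congrArg Prod.snd hz.1.2; simpa [keyL] using this
      have hk2' : z'.1.2 = h := by
        have := congrArg Prod.snd hz'.1.2; simpa [keyL] using this
      have h5 := code_inj hzz
      rw [Prod.mk.injEq] at h5
      exact Prod.ext (Prod.ext h5.1 (hk2.trans hk2'.symm)) h5.2
  have h6 := hmul _ h1
  have hN0 : (0:ℝ) ≤ N := by positivity
  calc μ * N ≤ ((I.filter (fun y => keyL N y = keyL N (l, h))).card : ℝ) * N :=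
        mul_le_mul_of_nonneg_right h6 hN0
    _ ≤ _ := by exact_mod_cast hcard

open Classical in
/-- own counts -/
theorem raw_own (hN : 1 ≤ N) (hM : 4 * N ≤ 2 ^ M) (hI : ∀ x ∈ I, |x.2| ≤ (N : ℤ))
    (hown : ∀ x ∈ I, ν ≤ ((I.filter (fun y => y.1 = x.1)).card : ℝ))
    {x : ℕ × ℝ} (hx : x ∈ incs N I) : ν ≤ ((own (incs N I) 0 M x).card : ℝ) := by
  obtain ⟨l, h, j, h1, h2, h3, rfl⟩ := mem_incs.1 hx
  refine (hown _ h1).trans (Nat.cast_le.2 ?_)
  unfold own
  refine card_le_card_of_injOn (fun y : GRay × ℤ => zc M (rh N y.2)) ?_ ?_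
  · intro y hy
    rw [mem_coe, mem_filter] at hy
    rw [mem_coe, mem_image]
    refine ⟨(code (l, j), rh N y.2), ?_, rfl⟩
    rw [mem_filter]
    refine ⟨mem_incs.2 ⟨l, y.2, j, ?_, h2, h3, rfl⟩, rfl, ?_⟩
    · have : (l, y.2) = y := Prod.ext hy.2.symm rfl
      rw [this]; exact hy.1
    · show zc 0 (rh N y.2) = zc 0 (rh N h)
      rw [zc0_rh hN (hI _ hy.1), zc0_rh hN (hI _ h1)]
  · intro y hy y' hy' hyy
    rw [mem_coe, mem_filter] at hy hy'
    exact Prod.ext (hy.2.trans hy'.2.symm) (zc_rh_inj hN hM hyy)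

theorem KK_pos : 0 < KK := by
  unfold KK nK
  positivity

open Classical in
/-- **the density at level `0`** -/
theorem raw_up (hN : 8 ≤ N) (hM' : 2 ^ M ≤ 8 * N) (hΔ : 0 ≤ Δ)
    (hBd : ∀ l ∈ s, Bd N l) (hI : ∀ x ∈ I, x.1 ∈ s) (hD : DensL 68 N s Δ)
    {m : Mem} (hm : m.Ok 1 0) (hR : m.R = 1) (hs0 : m.s0 = 1 / 2) (hs1 : 1 / 2 ^ M ≤ m.s1)
    (hsg : m.sg ≤ 1) {J : ℤ} :
    (((alive (incs N I) 0 J).filter fun t => lin N t ∈ m.rays 0).card : ℝ) ≤
      KK * Δ * (N : ℝ) ^ 4 * (m.s1 * m.sg ^ 3) := by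
  have hN1 : 1 ≤ N := by omega
  have hN0 : (0:ℝ) < N := by exact_mod_cast hN1
  have hN8 : (8:ℝ) ≤ N := by exact_mod_cast hN
  have hp : (0:ℝ) < 2 ^ M := by positivity
  have hMr' : (2:ℝ) ^ M ≤ 8 * N := by
    have : ((2 ^ M : ℕ) : ℝ) ≤ ((8 * N : ℕ) : ℝ) := by exact_mod_cast hM'
    push_cast at this; exact this
  set S := (s ×ˢ Icc (-(((1 : ℕ) : ℤ) * N)) (((1 : ℕ) : ℤ) * N)).filter (fun x =>
    nr (fr N x.1 x.2) ∈ m.rays 0) with hS
  have h1 : ((alive (incs N I) 0 J).filter fun t => lin N t ∈ m.rays 0).card ≤ S.card := by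
    have h2 : ((alive (incs N I) 0 J).filter fun t => lin N t ∈ m.rays 0) ⊆ S.image code := by
      intro t ht
      rw [mem_filter] at ht
      obtain ⟨ht1, ht2⟩ := ht
      obtain ⟨l, h, j, a1, a2, a3, a4, rfl⟩ := mem_alive.1 ht1
      rw [mem_image]
      refine ⟨(l, j), ?_, rfl⟩
      rw [hS, mem_filter, mem_product, mem_Icc]
      rw [lin_code] at ht2
      refine ⟨⟨(hI (l, h) a1 : l ∈ s), ?_, ?_⟩, ht2⟩
      · show -(((1 : ℕ) : ℤ) * N) ≤ j
        push_cast; omega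
      · show j ≤ ((1 : ℕ) : ℤ) * N
        push_cast; omega
    exact (card_le_card h2).trans card_image_le
  refine (Nat.cast_le.2 h1).trans ?_
  have hA : (0:ℝ) ≤ 3 * ((1 + 272) * 272 * Δ * (N : ℝ) ^ 4) := by positivity
  have h3 := up_count S (fun x => fr N x.1 x.2) (δ := 1 / N)
    (A := 3 * ((1 + 272) * 272 * Δ * (N : ℝ) ^ 4)) (M' := 1) (m := m) (by positivity)
    (one_div_le_one_div_of_le (by norm_num) hN8) hA le_rfl ?_ ?_ ?_ hm ?_ hR.le ?_ hsg ?_
  · rw [hR] at h3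
    refine h3.trans (le_of_eq ?_)
    unfold KK
    ring
  · intro x hx
    rw [hS, mem_filter, mem_product] at hx
    show ‖-(gC N x.1)‖ ≤ 3 / 2
    rw [norm_neg]
    exact norm_gC' hN1 (hBd _ hx.1.1)
  · intro x hx
    rw [hS, mem_filter, mem_product] at hx
    exact norm_gX' hN1 (hBd _ hx.1.1)
  · intro p hp hpR hps0 hps1 hpsg
    have hG : Fl337.FillGeo (16 * 1) 272 68 := by
      have := Fil139.fillGeo (M := 16) (by norm_num)
      norm_num at this ⊢
      exact this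
    have h4 := Fl337.fill_count (by norm_num) hG hN1 hΔ hD hp hpR hps0 hps1 hpsg 1
    refine le_trans (Nat.cast_le.2 (card_le_card fun x hx => ?_)) (h4.trans (le_of_eq ?_))
    · rw [mem_filter, hS, mem_filter] at hx
      rw [mem_filter]
      exact ⟨hx.1.1, hx.2⟩
    · push_cast; ring
  · intro z hz
    rw [hs0, hR, add_sub_cancel_right, abs_mul, abs_of_pos (by norm_num : (0:ℝ) < 1 / 4)]
    linarith
  · rw [hR, mul_one]
    have : 1 / (N : ℝ) ≤ 64 * (1 / 2 ^ M) := by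
      rw [mul_one_div, div_le_div_iff₀ hN0 hp]
      linarith
    linarith
  · intro x hx
    rw [hS, mem_filter] at hx
    exact hx.2

/-- all lines lie in the unit member -/
theorem raw_unit (hN : 1 ≤ N) (hBd : ∀ x ∈ I, Bd N x.1) {i : ℕ} {J : ℤ} {t : ℕ}
    (ht : t ∈ alive (incs N I) i J) : lin N t ∈ unitm.rays 0 := by
  obtain ⟨l, h, j, h1, h2, h3, h4, rfl⟩ := mem_alive.1 ht
  rw [lin_code]
  refine unit_mem hN (hBd _ h1) ?_
  rw [abs_of_nonneg h2]; omega

end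

end Crest.Agent.R116.Ene618
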