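import Crest.Agent.R116.Ene5_618
import Crest.Agent.R116.KIDef_439
import Crest.Agent.R116.XcDef_794

/-!
# R116, K2 (ENEMY), part 6 (helper618): `¬ LKMseq 68 → Enemy TSS` (Enemy of XcDef_794)
-/

set_option autoImplicit false
set_option linter.unusedVariables false

open Finset Filter Topology

namespace Crest.Agent.R116.Ene618

open Crest.Agent.R116.LZg725
open Crest.Agent.R138.Defs (E2)
open Crest.Agent.R116.Ks79
open Crest.Agent.R138.Mk163 (zc alive own)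
open Crest.Agent.R138.Ex926 (Base U)
open Crest.Agent.R116.KI439 (kM0 AdmL volL TSL TSS)
open Crest.Agent.R116.Xa794 (TS)
open Crest.Agent.R116.Xc794 (Cfg capP Enemy)

theorem kM0_nonneg : 0 ≤ kM0 := by unfold kM0; norm_num

theorem half_pow (M : ℕ) : (1 / 2 : ℝ) ^ M = 1 / 2 ^ M := by rw [one_div_pow]

theorem unit_adm (r : ℝ) (hr : r ≤ 1) : AdmL r 0 0 (fun _ => 0) unitm := by
  refine ⟨unitm_ok kM0_nonneg, ?_, ?_, le_rfl, ?_, ?_, ?_, ?_, ?_⟩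
  · show (1:ℝ) = (1 / 2) ^ 0; norm_num
  · show (1 / 2 : ℝ) = (((0 : ℤ) : ℝ) + 1 / 2) * (1 / 2) ^ 0; norm_num
  · show (1:ℝ) * 1 = (1 / 2) ^ 0; norm_num
  · show (1:ℝ) * 1 = (1 / 2) ^ 0; norm_num
  · show r ≤ 1 * 1; linarith
  · show |(0 : ℝ)| * (1 * 1) ≤ KI439.kD
    unfold KI439.kD; rw [abs_zero]; norm_num
  · show |(linf ue 0 0).ny (1 / 2)| * 1 ≤ 2 * KI439.kD
    unfold KI439.kD; rw [linf_ny, abs_zero]; norm_num

theorem topm_adm (M : ℕ) (J : ℤ) (r : E2 × E2 × ℝ) :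
    AdmL (1 / 2 ^ M) M J (fun _ => M) (topm (1 / 2 ^ M) (ctr M J) r) := by
  have hp : (0:ℝ) < 2 ^ M := by positivity
  refine ⟨topm_ok kM0_nonneg (by positivity) r, ?_, ?_, le_rfl, ?_, ?_, ?_, ?_, ?_⟩
  · show (1:ℝ) / 2 ^ M = (1 / 2) ^ M; rw [half_pow]
  · show ctr M J = ((J : ℝ) + 1 / 2) * (1 / 2) ^ M
    unfold ctr; rw [half_pow]; ring
  · show (1:ℝ) * (1 / 2 ^ M) = (1 / 2) ^ M; rw [half_pow, one_mul]
  · show (1:ℝ) * (1 / 2 ^ M) = (1 / 2) ^ M; rw [half_pow, one_mul]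
  · show (1:ℝ) / 2 ^ M ≤ 1 * (1 / 2 ^ M); rw [one_mul]
  · show |(0 : ℝ)| * (1 * (1 / 2 ^ M)) ≤ KI439.kD
    unfold KI439.kD; rw [abs_zero]; norm_num
  · show |(linf ue r.1 r.2.1).ny (ctr M J)| * 1 ≤ 2 * KI439.kD
    unfold KI439.kD; rw [linf_ny, abs_zero]; norm_num

theorem capP_zero {r : ℝ} (m' : ℕ) (a : Fin 2 → ℕ) (i : ℕ) (s : Fin 2 → ℕ) :
    capP (TSL r) (fun _ _ => 0) m' a i s = volL i s := by
  unfold capP TSL
  simp

/-- all admissible exponents are at most the resolution. -/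
theorem adm_fin {M : ℕ} {i : ℕ} {J : ℤ} {a : Fin 2 → ℕ} {m : Mem}
    (h : AdmL (1 / 2 ^ M) i J a m) (j : Fin 2) : a j ≤ M := by
  have h1 : (1 / 2 : ℝ) ^ M ≤ (1 / 2) ^ (a 1) := by
    rw [← h.thin, half_pow]; exact h.res
  have h2 : (1 / 2 : ℝ) ^ (a 1) ≤ (1 / 2) ^ (a 0) := by
    rw [← h.thin, ← h.wide]
    exact mul_le_mul_of_nonneg_right h.ok.hsg h.ok.hR.le
  have k1 : a 1 ≤ M := (pow_le_pow_iff_right_of_lt_one₀ (by norm_num) (by norm_num)).1 h1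
  have k2 : a 0 ≤ a 1 := (pow_le_pow_iff_right_of_lt_one₀ (by norm_num) (by norm_num)).1 h2
  fin_cases j
  · exact k2.trans k1
  · exact k1

theorem volL_top (M : ℕ) : volL M (fun _ => M) = 1 / 8 ^ M := by
  unfold volL
  rw [half_pow, show 3 * M + M = M + 3 * M by ring, pow_add, pow_mul]
  norm_num

open Classical in
/-- **the configuration of a grid family** -/
theorem exists_cfg {N : ℕ} (hN : 8 ≤ N) (s : Finset GRay) (I : Finset (GRay × ℤ)) (Δ μ ν : ℝ)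
    (hI : I.Nonempty) (hΔ : 0 < Δ) (hμ : 0 < μ) (hν : 0 < ν) (hBd : ∀ l ∈ s, Bd N l)
    (hmem : ∀ x ∈ I, x.1 ∈ s ∧ |x.2| ≤ (N : ℤ))
    (hown : ∀ l ∈ s, ν ≤ ((I.filter (fun x => x.1 = l)).card : ℝ))
    (hmul : ∀ x ∈ I, μ ≤ ((I.filter (fun y => keyL N y = keyL N x)).card : ℝ))
    (hd : DensL 68 N s Δ) :
    ∃ F : Cfg (E2 × E2 × ℝ) (Fin 2) Mem, F.Ok (TSL (1 / 2 ^ F.M)) (fun _ _ => 0) ∧
      4 * N ≤ 2 ^ F.M ∧ 2 ^ F.M ≤ 8 * N ∧ F.I.card = I.card * N ∧ F.D1 = μ * N * 8 ^ F.M ∧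
      F.nu = ν ∧ F.D0 = KK * Δ * (N : ℝ) ^ 4 ∧ F.m = 0 ∧ F.N = F.M ∧ F.a = fun _ => F.M := by
  have hN1 : 1 ≤ N := by omega
  have hN0 : (0:ℝ) < N := by exact_mod_cast hN1
  set M : ℕ := Nat.clog 2 (4 * N) with hMdef
  have hM : 4 * N ≤ 2 ^ M := Nat.le_pow_clog one_lt_two _
  have hM1 : 1 ≤ M := by
    by_contra h
    have : M = 0 := by omega
    rw [this] at hM; omega
  have hM' : 2 ^ M ≤ 8 * N := by
    have h1 : 2 ^ (M - 1) < 4 * N := Nat.pow_pred_clog_lt_self one_lt_two (by omega)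
    have h2 : 2 ^ M = 2 * 2 ^ (M - 1) := by
      rw [← pow_succ']; congr 1; omega
    omega
  have hp : (0:ℝ) < 2 ^ M := by positivity
  have hBd' : ∀ x ∈ I, Bd N x.1 := fun x hx => hBd _ (hmem x hx).1
  have hz : ∀ x ∈ incs N I, zc 0 x.2 = 0 := by
    intro x hx
    obtain ⟨l, h, j, h1, h2, h3, rfl⟩ := mem_incs.1 hx
    exact zc0_rh hN1 (hmem _ h1).2
  refine ⟨⟨0, M, incs N I, lin N, cls N M, fun c => (fun _ => M, tst N M I c), fun _ => M,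
    KK * Δ * (N : ℝ) ^ 4, μ * N * 8 ^ M, ν, M⟩, ?_, hM, hM',
    incs_card hN1, rfl, rfl, rfl, rfl, rfl, rfl⟩
  have htop : 0 + M = M := by omega
  constructor
  · exact hM1
  · obtain ⟨⟨l, h⟩, hx⟩ := hI
    exact ⟨_, mem_incs.2 ⟨l, h, 0, hx, le_rfl, by omega, rfl⟩⟩
  · intro x hx y hy
    show zc 0 x.2 = zc 0 y.2
    rw [hz x hx, hz y hy]
  · show 0 < μ * N * 8 ^ M; positivity
  · exact hν
  · intro i J S hS j
    exact adm_fin hS j
  · intro J t ht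
    show lin N t ∈ (tst N M I (cls N M t J)).rays 0 ∧ AdmL (1 / 2 ^ M) (0 + M) J (fun _ => M)
      (tst N M I (cls N M t J)) ∧ (fun _ => M : Fin 2 → ℕ) = fun _ => M
    have ht' : t ∈ alive (incs N I) (0 + M) J := ht
    rw [htop] at ht' ⊢
    obtain ⟨r, h1, h2⟩ := raw_top hN1 hM hM' hBd' ht'
    refine ⟨h2, ?_, rfl⟩
    rw [h1]
    exact topm_adm M J r
  · intro J t ht
    show μ * N * 8 ^ M * volL (0 + M) (fun _ => M) ≤
      (((alive (incs N I) (0 + M) J).filter fun s => cls N M s J = cls N M t J).card : ℝ)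
    have ht' : t ∈ alive (incs N I) (0 + M) J := ht
    rw [htop] at ht' ⊢
    have e : μ * N * 8 ^ M * (1 / 8 ^ M) = μ * N := by field_simp
    rw [volL_top, e]
    exact raw_low hN1 hM hmul ht'
  · intro x hx
    show ν ≤ ((own (incs N I) 0 (0 + M) x).card : ℝ)
    rw [htop]
    exact raw_own hN1 hM (fun y hy => (hmem y hy).2) (fun y hy => hown _ (hmem y hy).1) hx
  · intro J S hS
    show (((alive (incs N I) 0 J).filter fun t => lin N t ∈ S.2.rays 0).card : ℝ) ≤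
      KK * Δ * (N : ℝ) ^ 4 * capP (TSL (1 / 2 ^ M)) (fun _ _ => 0) (0 + M) (fun _ => M) 0 S.1
    have hA : AdmL (1 / 2 ^ M) 0 J S.1 S.2 := hS
    have hKK := KK_pos
    rw [capP_zero]
    by_cases hJ : J = 0
    · subst hJ
      have hR : S.2.R = 1 := by rw [hA.hR]; norm_num
      have hs0 : S.2.s0 = 1 / 2 := by rw [hA.hs0]; norm_num
      have hsg : S.2.sg = (1 / 2) ^ (S.1 0) := by
        have := hA.wide; rwa [hR, mul_one] at this
      have hs1 : S.2.s1 = (1 / 2) ^ (S.1 1) := by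
        have := hA.thin; rwa [hR, mul_one] at this
      have hres : 1 / 2 ^ M ≤ S.2.s1 := by
        have := hA.res; rwa [hR, mul_one] at this
      have h1 := raw_up (M := M) hN hM' hΔ.le hBd (fun x hx => (hmem x hx).1) hd
        (LKMDef299.Ok.mono hA.ok (by unfold kM0; norm_num)) hR hs0 hres hA.sg1 (J := 0)
      refine h1.trans (le_of_eq ?_)
      rw [hs1, hsg]
      unfold volL
      rw [pow_add, mul_comm 3, pow_mul, pow_zero]
      ring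
    · have : alive (incs N I) 0 J = ∅ := by
        apply Finset.eq_empty_of_forall_notMem
        intro t ht
        obtain ⟨l, h, j, h1, h2, h3, h4, rfl⟩ := mem_alive.1 ht
        apply hJ
        rw [← h4]
        exact zc0_rh hN1 (hmem _ h1).2
      rw [this]
      have hv := KI439.volL_pos 0 S.1
      simp only [filter_empty, card_empty, Nat.cast_zero]
      positivity

/-- growth -/
theorem exists_large (δ : ℝ) (hδ : 0 < δ) (K : ℝ) : ∃ M1 : ℕ, ∀ M : ℕ, M1 ≤ M →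
    (17 : ℝ) * M ≤ 2 ^ (δ * M) ∧ K < 2 ^ (δ * M) := by
  have h1 : (1:ℝ) < 2 ^ δ := Real.one_lt_rpow (by norm_num) hδ
  have h2 := tendsto_pow_const_div_const_pow_of_one_lt 1 h1
  have h3 : ∀ᶠ M : ℕ in atTop, (M : ℝ) ^ 1 / (2 ^ δ) ^ M < 1 / 17 :=
    h2.eventually_lt_const (by norm_num)
  have h4 := (tendsto_pow_atTop_atTop_of_one_lt h1).eventually_gt_atTop K
  obtain ⟨M1, hM1⟩ := eventually_atTop.1 (h3.and h4)
  refine ⟨M1, fun M hM => ?_⟩
  obtain ⟨a1, a2⟩ := hM1 M hM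
  have e : (2:ℝ) ^ (δ * M) = (2 ^ δ) ^ M := by
    rw [Real.rpow_mul (by norm_num), Real.rpow_natCast]
  rw [e]
  refine ⟨?_, a2⟩
  rw [pow_one, div_lt_div_iff₀ (by positivity) (by norm_num)] at a1
  linarith

/-- **K2 (ENEMY)** -/
theorem enemy (h : ¬ LKMseq 68) : Enemy TSS := by
  classical
  unfold LKMseq at h
  push Not at h
  obtain ⟨B, N, s, I, Δ, μ, ν, hN2, hBd, hs, hI, hΔ, hμ, hν, hlBd, hmem, hown, hmul, -, -, hd,
    ε, hε, hfail⟩ := h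
  refine ⟨ε / 2, by linarith, fun δ hδ M0 => ?_⟩
  obtain ⟨Ma, hMa⟩ := exists_large δ hδ 1
  obtain ⟨Mb, hMb⟩ := exists_large (ε / 2) (by linarith) (8 ^ ε * KK)
  -- large `N`
  have hNlarge : ∀ A : ℝ, ∀ᶠ n in (U : Filter ℕ), A ≤ (N n : ℝ) := by
    intro A
    have h1 : ∀ᶠ n in (U : Filter ℕ), B.d n < 1 / (|A| + 1) :=
      B.lim0.eventually_lt_const (by positivity)
    filter_upwards [h1] with n hn
    rw [hBd n, div_lt_div_iff₀ (by have := hN2 n; positivity) (by positivity)] at hn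
    have := le_abs_self A
    linarith
  have hfail' : ∀ᶠ n in (U : Filter ℕ), (N n : ℝ) ^ ε * Δ n * (N n : ℝ) ^ 2 < μ n * ν n ^ 2 :=
    hfail
  obtain ⟨n, hn1, hn2, hn3⟩ := (hfail'.and ((hNlarge 8).and
    (hNlarge (2 ^ (M0 + Ma + Mb))))).exists
  have hN8 : 8 ≤ N n := by exact_mod_cast hn2
  obtain ⟨F, hF, hM, hM', hcard, hD1, hnu, hD0, hm, hN, ha⟩ := exists_cfg hN8 (s n) (I n) (Δ n)
    (μ n) (ν n) (hI n) (by linarith [hΔ n]) (hμ n) (hν n) (hlBd n) (hmem n) (hown n) (hmul n)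
    (hd n)
  have hN0 : (0:ℝ) < N n := by linarith
  have hMr : (4:ℝ) * N n ≤ 2 ^ F.M := by
    have : ((4 * N n : ℕ) : ℝ) ≤ ((2 ^ F.M : ℕ) : ℝ) := by exact_mod_cast hM
    push_cast at this; exact this
  have hMr' : (2:ℝ) ^ F.M ≤ 8 * N n := by
    have : ((2 ^ F.M : ℕ) : ℝ) ≤ ((8 * N n : ℕ) : ℝ) := by exact_mod_cast hM'
    push_cast at this; exact this
  have hp : (0:ℝ) < 2 ^ F.M := by positivity
  have hM1 : (1:ℝ) ≤ F.M := by exact_mod_cast hF.M1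
  have hMbig : M0 + Ma + Mb ≤ F.M := by
    have h1 : (2:ℝ) ^ (M0 + Ma + Mb) ≤ 2 ^ F.M := by linarith
    exact (pow_le_pow_iff_right₀ one_lt_two).1 h1
  have hT : TSL (1 / 2 ^ F.M) ∈ TSS :=
    ⟨1 / 2 ^ F.M, by positivity, by rw [div_le_one hp]; exact one_le_pow₀ (by norm_num), rfl⟩
  -- cardinality
  have hlog : Real.log (F.I.card : ℝ) ≤ (2 : ℝ) ^ (δ * F.M) := by
    have h1 : I n ⊆ s n ×ˢ Icc (-(N n : ℤ)) (N n) := by
      intro x hx
      obtain ⟨a1, a2⟩ := hmem n x hx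
      rw [mem_product, mem_Icc]
      exact ⟨a1, abs_le.1 a2⟩
    have h2 := card_le_card h1
    rw [card_product] at h2
    have h3 := card_Icc_le (N := N n) (by omega)
    have h4 := card_le_of_Bd (N := N n) (by omega) (hlBd n)
    have h5 : F.I.card ≤ 729 * N n ^ 7 := by
      rw [hcard]
      calc (I n).card * N n ≤ ((s n).card * (Icc (-(N n : ℤ)) (N n)).card) * N n :=
            Nat.mul_le_mul_right _ h2
        _ ≤ ((243 * N n ^ 5) * (3 * N n)) * N n := by gcongr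
        _ = 729 * N n ^ 7 := by ring
    have h6 : F.I.card ≤ 2 ^ (17 * F.M) := by
      calc F.I.card ≤ 729 * N n ^ 7 := h5
        _ ≤ 2 ^ 10 * (2 ^ F.M) ^ 7 := by
          have : N n ≤ 2 ^ F.M := by omega
          gcongr
          norm_num
        _ = 2 ^ (10 + 7 * F.M) := by rw [pow_add, ← pow_mul]; ring_nf
        _ ≤ 2 ^ (17 * F.M) := by
          apply Nat.pow_le_pow_right (by norm_num)
          have := hF.M1
          omega
    have h7 : (0:ℝ) < F.I.card := by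
      have := hF.ne.card_pos
      exact_mod_cast this
    calc Real.log (F.I.card : ℝ) ≤ Real.log (2 ^ (17 * F.M)) := by
          apply Real.log_le_log h7
          exact_mod_cast h6
      _ = (17 * F.M) * Real.log 2 := by rw [Real.log_pow]; push_cast; ring
      _ ≤ (17 * F.M) * 1 := by
          have : Real.log 2 ≤ 1 := by linarith [Real.log_two_lt_d9]
          gcongr
      _ ≤ _ := by
          rw [mul_one]
          exact (hMa F.M (by omega)).1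
  refine ⟨_, hT, F, hF, by omega, hlog, by rw [hN]; omega, fun j => by rw [ha, hm]; simp, ?_⟩
  rw [hD1, hnu, hD0]
  have hΔ0 : 0 < Δ n := by linarith [hΔ n]
  have hKK := KK_pos
  have hX : (0:ℝ) < Δ n * (N n : ℝ) ^ 3 * 4 ^ F.M := by positivity
  have hNε : (0:ℝ) < (N n : ℝ) ^ ε := Real.rpow_pos_of_pos hN0 ε
  have e1 : (2:ℝ) ^ (ε / 2 * F.M) * 4 ^ F.M * (KK * Δ n * (N n : ℝ) ^ 4) =
      (Δ n * (N n : ℝ) ^ 3 * 4 ^ F.M) * ((2 ^ (ε / 2 * F.M) * KK) * N n) := by ring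
  have e2 : μ n * N n * 8 ^ F.M * ν n ^ 2 = (μ n * ν n ^ 2) * (N n * 8 ^ F.M) := by ring
  have e3 : (N n : ℝ) ^ ε * Δ n * (N n : ℝ) ^ 2 * (N n * 8 ^ F.M) =
      (Δ n * (N n : ℝ) ^ 3 * 4 ^ F.M) * ((N n : ℝ) ^ ε * 2 ^ F.M) := by
    rw [show (8:ℝ) = 4 * 2 by norm_num, mul_pow]; ring
  have h1 : (N n : ℝ) ^ ε * Δ n * (N n : ℝ) ^ 2 * (N n * 8 ^ F.M) <
      (μ n * ν n ^ 2) * (N n * 8 ^ F.M) := mul_lt_mul_of_pos_right hn1 (by positivity)
  rw [e1, e2]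
  refine lt_of_le_of_lt ?_ h1
  rw [e3]
  refine mul_le_mul_of_nonneg_left ?_ hX.le
  have h4 : (2:ℝ) ^ (ε * F.M) ≤ 8 ^ ε * (N n : ℝ) ^ ε := by
    rw [← Real.mul_rpow (by norm_num) hN0.le, mul_comm ε, Real.rpow_mul (by norm_num),
      Real.rpow_natCast]
    exact Real.rpow_le_rpow hp.le hMr' hε.le
  have h5 : (2:ℝ) ^ (ε * F.M) = 2 ^ (ε / 2 * F.M) * 2 ^ (ε / 2 * F.M) := by
    rw [← Real.rpow_add (by norm_num)]; congr 1; ring
  have h6 := (hMb F.M (by omega)).2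
  have hP : (0:ℝ) < 2 ^ (ε / 2 * F.M) := Real.rpow_pos_of_pos (by norm_num) _
  have h8 : (0:ℝ) < 8 ^ ε := Real.rpow_pos_of_pos (by norm_num) _
  have h7 : 2 ^ (ε / 2 * F.M) * KK ≤ (N n : ℝ) ^ ε := by
    have h9 : 8 ^ ε * (2 ^ (ε / 2 * F.M) * KK) ≤ 8 ^ ε * (N n : ℝ) ^ ε := by
      calc 8 ^ ε * (2 ^ (ε / 2 * F.M) * KK) = 2 ^ (ε / 2 * F.M) * (8 ^ ε * KK) := by ring
        _ ≤ 2 ^ (ε / 2 * F.M) * 2 ^ (ε / 2 * F.M) := mul_le_mul_of_nonneg_left h6.le hP.le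
        _ = 2 ^ (ε * F.M) := h5.symm
        _ ≤ _ := h4
    exact le_of_mul_le_mul_left h9 h8
  exact mul_le_mul h7 (by linarith) hN0.le hNε.le

end Crest.Agent.R116.Ene618
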