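import Mathlib

/-!
# R116, K side: lemma HALF on the upper half of the `e`-tie plane, `D` finer by `e` (helper171)

Surface with the offset `(z, C, P, X, F, H, B, G, D) = (0, 1, 1, 1, 1, 2, 0, 0, e)` through the
record `(1; -θ, -(θ-k))`; `ρz` = rate of the class of `z`, `ρD` = rate of `D`, `β` = slope of `D`
along the record.

* `eHalfS_le` : `c + (1+k)/2 qa + (1-k)/2 qb ≤ 1 + ((1+k)/2 - θ) e`;
* `eHalfS` : `1/2 ≤ s`, `2 s + e ≤ c` ⊢ `False`.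

Hypothesis on `D` : `0 ≤ β * ρD` (`0 ≤ β`, or `D` dead above the record).
-/

set_option autoImplicit false

namespace Crest.Agent.R116.Et171

variable {θ k s c qa qb e β ρz ρD m r ρX ρN ρH : ℝ}

/-- **the row of the direction `(-1; μ, μ - k)`, `μ = (1+k)/2`, above the record** -/
theorem eHalfS_le (hk : 0 ≤ k) (hk1 : k ≤ 1) (hθ : θ ≤ (1 + k) / 2) (hβ : 0 ≤ β * ρD) (he : 0 ≤ e)
    (hT : ρz - θ * m - (θ - k) * r + (1 - θ) * ρX + (1 - (θ - k)) * ρN + (1 - 2 * θ) * ρH +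
      β * ρD = (4 - s - c) - θ * (3 + qa) - (θ - k) * (1 + qb))
    (hV : 4 + qa + qb ≤ m + r + ρX + ρN + 2 * ρH + e * ρD)
    (hz : 1 - s ≤ ρz) (hD0 : 0 ≤ ρD) (hD1 : ρD ≤ 1) (hH : ρH ≤ 1)
    (p1 : m ≤ ρX) (p2 : r ≤ ρN) (mr : m ≤ r) :
    c + (1 + k) / 2 * qa + (1 - k) / 2 * qb ≤ 1 + ((1 + k) / 2 - θ) * e := by
  have h1 : 0 ≤ ((1 + k) / 2 - θ) * (m + r + ρX + ρN + 2 * ρH + e * ρD - (4 + qa + qb)) :=
    mul_nonneg (by linarith) (by linarith)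
  have h2 : 0 ≤ (1 - k) / 2 * (ρX - m) := mul_nonneg (by linarith) (by linarith)
  have h3 : 0 ≤ (1 + k) / 2 * (ρN - r) := mul_nonneg (by linarith) (by linarith)
  have h4 : 0 ≤ k * (1 - ρH) := mul_nonneg hk (by linarith)
  have h5 : 0 ≤ k * (r - m) := mul_nonneg hk (by linarith)
  have h7 : 0 ≤ ((1 + k) / 2 - θ) * e * (1 - ρD) :=
    mul_nonneg (mul_nonneg (by linarith) he) (by linarith)
  nlinarith

/-- **contradiction for `1/2 ≤ s`** -/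
theorem eHalfS (hk : 0 ≤ k) (hk1 : k ≤ 1) (hθ0 : 0 < θ) (hθ : θ ≤ (1 + k) / 2) (hβ : 0 ≤ β * ρD)
    (he : 0 < e) (hs : 1 / 2 ≤ s) (hc : 2 * s + e ≤ c) (hqa : 0 ≤ qa) (hqb : 0 ≤ qb)
    (hT : ρz - θ * m - (θ - k) * r + (1 - θ) * ρX + (1 - (θ - k)) * ρN + (1 - 2 * θ) * ρH +
      β * ρD = (4 - s - c) - θ * (3 + qa) - (θ - k) * (1 + qb))
    (hV : 4 + qa + qb ≤ m + r + ρX + ρN + 2 * ρH + e * ρD)
    (hz : 1 - s ≤ ρz) (hD0 : 0 ≤ ρD) (hD1 : ρD ≤ 1) (hH : ρH ≤ 1)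
    (p1 : m ≤ ρX) (p2 : r ≤ ρN) (mr : m ≤ r) : False := by
  have h := eHalfS_le hk hk1 hθ hβ he.le hT hV hz hD0 hD1 hH p1 p2 mr
  have h1 : 0 ≤ (1 + k) / 2 * qa := mul_nonneg (by linarith) hqa
  have h2 : 0 ≤ (1 - k) / 2 * qb := mul_nonneg (by linarith) hqb
  have h3 : ((1 + k) / 2 - θ) * e < e := by nlinarith
  linarith

end Crest.Agent.R116.Et171
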