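import Crest.Agent.R116.EvL6_504

/-!
# R116, ties (helper369): 710's `LLaw` for windows with DROPPED slots

`Dr` = dropped slots (`D`, or `D` and `E`): the units of these slots are `≤ ρ^tp` times the natural ones
(base raised in these slots); they need not be resolved.

* `NatX W K Dr tp n` : units at `n` : natural off `Dr`, `≤ ρ^tp` natural on `Dr`;
* `llawD` : `LLaw` for every configuration with `rel` and `own` of `W.cfg E` put to `0` on `Dr`.
-/

set_option autoImplicit false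
set_option linter.unusedVariables false
set_option linter.unusedSectionVars false

open Filter Topology Finset

namespace Crest.Agent.R116.EvD369

open Crest.Agent.R138.Ex926 (Base U)
open Crest.Agent.R136.Net191 Crest.Agent.R136.Qg926 Crest.Agent.R136.Gf356
open Crest.Agent.R116.ChL222 Crest.Agent.R116.PL504 Crest.Agent.R116.EvL504
open Crest.Agent.R116.Kr710 (LLaw Thin)

/-! ### `evoS` is Lipschitz -/

theorem evoS_lip {S : Finset (Fin 12)} {a a' c c' : Fin 12 → ℝ} {r : ℝ} (ha : ∀ k, |a k| ≤ 1)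
    (ha' : ∀ k, |a' k| ≤ 1) (hc : ∀ k, |LnS S c k| ≤ 1) (hc' : ∀ k, |LnS S c' k| ≤ 1)
    (h1 : ∀ k, |a k - a' k| ≤ r) (h2 : ∀ k, |LnS S c k - LnS S c' k| ≤ r) {s : Fin 12}
    (hs : s ≠ 0) : |evoS S a c s - evoS S a' c' s| ≤ 56 * r := by
  have hr : 0 ≤ r := (abs_nonneg _).trans (h1 0)
  have l1 : ∀ k, |LvS S a k - LvS S a' k| ≤ r := fun k => by
    unfold LvS
    split_ifs
    · exact h1 k
    · simpa using hr
  rw [evoS_apply S _ _ hs, evoS_apply S _ _ hs]
  have t1 := comp_lip (abs_LvS_one (S := S) ha) (abs_LvS_one (S := S) ha') hc hc' l1 h2 s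
  split_ifs with hs2
  · have b1 : |LvS S a 1 + LnS S c 1| ≤ 2 := (abs_add_le _ _).trans (by
      have := abs_LvS_one (S := S) ha 1
      have := hc 1
      linarith)
    have b2 : |(LvS S a 1 + LnS S c 1) - (LvS S a' 1 + LnS S c' 1)| ≤ 2 * r := by
      have e : (LvS S a 1 + LnS S c 1) - (LvS S a' 1 + LnS S c' 1) =
          (LvS S a 1 - LvS S a' 1) + (LnS S c 1 - LnS S c' 1) := by ring
      rw [e]
      refine (abs_add_le _ _).trans ?_
      have := l1 1
      have := h2 1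
      linarith
    have b3 : |(LvS S a 1 + LnS S c 1) * a 0 - (LvS S a' 1 + LnS S c' 1) * a' 0| ≤ 4 * r := by
      have e : (LvS S a 1 + LnS S c 1) * a 0 - (LvS S a' 1 + LnS S c' 1) * a' 0 =
          (LvS S a 1 + LnS S c 1) * (a 0 - a' 0) +
            ((LvS S a 1 + LnS S c 1) - (LvS S a' 1 + LnS S c' 1)) * a' 0 := by ring
      rw [e]
      refine (abs_add_le _ _).trans ?_
      rw [abs_mul, abs_mul]
      have m1 := mul_le_mul b1 (h1 0) (abs_nonneg _) (by norm_num : (0 : ℝ) ≤ 2)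
      have m2 := mul_le_mul b2 (ha' 0) (abs_nonneg _) (by linarith : (0 : ℝ) ≤ 2 * r)
      linarith
    rw [abs_le] at t1 b3 ⊢
    constructor <;> linarith [t1.1, t1.2, b3.1, b3.2]
  · rw [add_zero, add_zero]
    linarith

/-- forget the slots of `Dr` in the level part and in the line part -/
theorem evoS_zero {S Dr : Finset (Fin 12)} (hDr : ∀ s ∈ Dr, s = 1 ∨ s = 2) {a c : Fin 12 → ℝ}
    {T : Finset (Fin 12)} (hT : ∀ s, s ∈ T ↔ s ∈ S ∨ s ∈ Dr) (ha : ∀ s ∈ Dr, a s = 0)
    (hc : ∀ s ∈ Dr, c s = 0) : evoS T a c = evoS S a c := by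
  have e1 : LvS T a = LvS S a := by
    funext k
    unfold LvS
    by_cases h1 : k ∈ Dr
    · simp [ha k h1]
    · simp [hT, h1]
  have e2 : LnS T c = LnS S c := by
    funext k
    unfold LnS
    by_cases h1 : k ∈ Dr
    · simp [hc k h1]
    · simp [hT, h1]
  unfold evoS
  rw [e1, e2]

variable {ι : ℕ → Type*} [∀ n, DecidableEq (ι n)] {W : Wnd 12 ι} {K tp : ℝ}
  {Dr : Finset (Fin 12)}

/-- the units at `n` : natural off `Dr`, small on `Dr` -/
def NatX (W : Wnd 12 ι) (K : ℝ) (Dr : Finset (Fin 12)) (tp : ℝ) (n : ℕ) : Prop :=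
  ∃ z c p : ℝ, Legal monL (eL z c p) ∧ (∀ s, s ∉ Dr → side W n s = natD K (W.B.d n) z c p s) ∧
    ∀ s ∈ Dr, side W n s ≤ W.B'.d n ^ tp * natD K (W.B.d n) z c p s

/-- bounds in the units `N`, at one `n` -/
structure NatU (W : Wnd 12 ι) (Dr : Finset (Fin 12)) (N : Fin 12 → ℝ) (r : ℝ) (n : ℕ) : Prop where
  sd : Sides N
  r0 : 0 ≤ r
  r1 : r ≤ 1
  eq : ∀ s, s ∉ Dr → side W n s = N s
  le : ∀ s ∈ Dr, side W n s ≤ r * N s

theorem NatU.le' {N : Fin 12 → ℝ} {r : ℝ} {n : ℕ} (u : NatU W Dr N r n) (s : Fin 12) :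
    side W n s ≤ N s := by
  by_cases h : s ∈ Dr
  · refine (u.le s h).trans ?_
    have := mul_le_mul_of_nonneg_right u.r1 (u.sd.pos s).le
    linarith
  · exact (u.eq s h).le

/-- normalised natural coordinates -/
noncomputable def cn (N v : Fin 12 → ℝ) : Fin 12 → ℝ := fun k => v k / N k

theorem cn_mul {N : Fin 12 → ℝ} (hN : ∀ s, 0 < N s) (v : Fin 12 → ℝ) :
    (fun k => N k * cn N v k) = v := by
  funext k
  unfold cn
  have := (hN k).ne'
  field_simp

theorem abs_cn {N v : Fin 12 → ℝ} {k : Fin 12} {r : ℝ} (hN : 0 < N k) (h : |v k| ≤ r * N k) :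
    |cn N v k| ≤ r := by
  unfold cn
  rw [abs_div, abs_of_pos hN, div_le_iff₀ hN]
  exact h

section laws

variable {n : ℕ} {E : ∀ n, Finset (ι n)} (h : WL W K tp)

include h

/-- `NatX` gives the bounds -/
theorem exists_natU (htp : 0 ≤ tp) (hX : NatX W K Dr tp n) :
    ∃ z c p : ℝ, NatU W Dr (natD K (W.B.d n) z c p) (W.B'.d n ^ tp) n := by
  obtain ⟨z, c, p, h1, h2, h3⟩ := hX
  exact ⟨z, c, p, Sides.of h1 (W.B.pos n) (W.B.lt n).le h.K1, h.r0 n,
    Real.rpow_le_one (W.B'.pos n).le (W.B'.lt n).le htp, h2, h3⟩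

variable {N : Fin 12 → ℝ} (u : NatU W Dr N (W.B'.d n ^ tp) n)
  (hom : ∀ a b : Fin 12 → ℝ, comp (fun j => N j * a j) (fun j => N j * b j) =
    fun s => N s * comp a b s)
  (homE : ∀ (S : Finset (Fin 12)) (a b : Fin 12 → ℝ),
    evoS S (fun j => N j * a j) (fun j => N j * b j) = fun s => N s * evoS S a b s)

include u

/-- the dropped coordinates are small, the others are the window coordinates -/
theorem cn_crd (g : W.Good n) {i j : ι n} (hi : i ∈ W.Cl n) (hj : j ∈ W.Cl n) (k : Fin 12) :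
    |cn N (W.co n i j) k - LnS Dr (W.crd n i j) k| ≤ W.B'.d n ^ tp ∧ |cn N (W.co n i j) k| ≤ 1 := by
  have hN := u.sd.pos k
  have b := h.bd0 g hi hj k
  have sp := h.side_pos' n k
  constructor
  · unfold LnS
    by_cases hk : k ∈ Dr
    · rw [if_pos hk, sub_zero]
      exact abs_cn hN (b.trans (u.le k hk))
    · rw [if_neg hk]
      have e : W.crd n i j k = cn N (W.co n i j) k := by
        show W.co n i j k / side W n k = W.co n i j k / N k
        rw [u.eq k hk]
      rw [e, sub_self, abs_zero]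
      exact u.r0
  · refine abs_cn (r := 1) hN ?_
    rw [one_mul]
    exact b.trans (u.le' k)

include hom in
/-- **composition at one height**, slots off `Dr` -/
theorem cocD {k i j l : ℕ} (r : Reg W E n) (hi : (i, k) ∈ (W.cfg E n).I)
    (hj : (j, k) ∈ (W.cfg E n).I) (hl : (l, k) ∈ (W.cfg E n).I) {s : Fin 12} (hs : s ∉ W.S)
    (hd : s ∉ Dr) :
    |(W.cfg E n).rel k i l s - comp (LnS Dr ((W.cfg E n).rel k i j))
      (LnS Dr ((W.cfg E n).rel k j l)) s| ≤ 96 * W.B'.d n ^ tp := by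
  obtain ⟨a1, a2, a3⟩ := r.spec hi
  obtain ⟨b1, b2, b3⟩ := r.spec hj
  obtain ⟨c1, c2, c3⟩ := r.spec hl
  have g := r.good
  have hN := u.sd.pos
  set x := W.rep n i k with hx
  set y := W.rep n j k with hy
  set z := W.rep n l k with hz
  have e0 : cn N (W.co n x z) s = comp (cn N (W.co n x y)) (cn N (W.co n y z)) s := by
    have e1 := (h.coc n).add x y z
    have e2 := hom (cn N (W.co n x y)) (cn N (W.co n y z))
    rw [cn_mul hN, cn_mul hN] at e2
    have e3 : W.co n x z s = N s * comp (cn N (W.co n x y)) (cn N (W.co n y z)) s := by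
      rw [e1, e2]
    unfold cn at e3 ⊢
    have := (hN s).ne'
    rw [e3]
    field_simp
  have e4 : (W.cfg E n).rel k i l s = cn N (W.co n x z) s := by
    rw [r.rel_of hs]
    show W.co n x z s / side W n s = W.co n x z s / N s
    rw [u.eq s hd]
  rw [e4, e0]
  have hr0 := u.r0
  -- rel against the normalised coordinates
  have key : ∀ {p q : ℕ}, (p, k) ∈ (W.cfg E n).I → (q, k) ∈ (W.cfg E n).I → ∀ t : Fin 12,
      |cn N (W.co n (W.rep n p k) (W.rep n q k)) t - LnS Dr ((W.cfg E n).rel k p q) t| ≤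
        W.B'.d n ^ tp ∧ |LnS Dr ((W.cfg E n).rel k p q) t| ≤ 1 := by
    intro p q hp hq t
    obtain ⟨p1, p2, p3⟩ := r.spec hp
    obtain ⟨q1, q2, q3⟩ := r.spec hq
    constructor
    · unfold LnS
      by_cases ht : t ∈ Dr
      · rw [if_pos ht, sub_zero]
        exact abs_cn (hN t) ((h.bd0 g p1 q1 t).trans (u.le t ht))
      · rw [if_neg ht]
        by_cases htS : t ∈ W.S
        · rw [r.rel_S htS, sub_zero]
          refine abs_cn (hN t) ?_
          rw [← u.eq t ht]
          exact h.bdz g p1 q1 (p3.trans q3.symm) htS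
        · rw [r.rel_of htS]
          have e : W.crd n (W.rep n p k) (W.rep n q k) t =
              cn N (W.co n (W.rep n p k) (W.rep n q k)) t := by
            show _ / side W n t = _ / N t
            rw [u.eq t ht]
          rw [e, sub_self, abs_zero]
          exact hr0
    · unfold LnS
      split_ifs
      · simp
      · exact r.rel_le h hp hq t
  have t1 := comp_lip (fun t => (cn_crd h u g a1 b1 t).2) (fun t => (key hi hj t).2)
    (fun t => (cn_crd h u g b1 c1 t).2) (fun t => (key hj hl t).2) (fun t => (key hi hj t).1)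
    (fun t => (key hj hl t).1) s
  linarith

include homE in
/-- **evolution**, slots off `Dr`; the slots of `Dr` need not be resolved -/
theorem evoDr (hS : W.S ⊆ SL) (hres : ∀ s, s ∉ Dr → tp ≤ W.top s) {k k' i l : ℕ}
    (r : Reg W E n) (hi : (i, k) ∈ (W.cfg E n).I)
    (hl : (l, k) ∈ (W.cfg E n).I) (hi' : (i, k') ∈ (W.cfg E n).I) (hl' : (l, k') ∈ (W.cfg E n).I)
    {s : Fin 12} (hs : s ∉ W.S) (hd : s ∉ Dr) :
    |(W.cfg E n).rel k' i l s - evoS W.S (LnS Dr (EvL504.own W n i k' k))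
      (LnS Dr ((W.cfg E n).rel k i l)) s| ≤ 300 * W.B'.d n ^ tp := by
  obtain ⟨a1, a2, a3⟩ := r.spec hi
  obtain ⟨b1, b2, b3⟩ := r.spec hl
  obtain ⟨c1, c2, c3⟩ := r.spec hi'
  obtain ⟨d1, d2, d3⟩ := r.spec hl'
  have g := r.good
  have hN := u.sd.pos
  have hr0 := u.r0
  set x := W.rep n i k with hx
  set y := W.rep n l k with hy
  set x' := W.rep n i k' with hx'
  set y' := W.rep n l k' with hy'
  have hs0 : s ≠ 0 := fun e => hs (e ▸ h.z0)
  have ub : ∀ {p q : ι n}, p ∈ W.Cl n → q ∈ W.Cl n → ∀ t, |W.co n p q t| ≤ N t :=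
    fun hp hq t => (h.bd0 g hp hq t).trans (u.le' t)
  have fl : ∀ {p q : ι n}, p ∈ W.Cl n → q ∈ W.Cl n → W.lc n p = W.lc n q → ∀ t, t ∉ W.S →
      |W.co n p q t| ≤ W.B'.d n ^ tp * N t := by
    intro p q hp hq hpq t ht
    by_cases hD : t ∈ Dr
    · exact (h.bd0 g hp hq t).trans (u.le t hD)
    · rw [← u.eq t hD]
      exact h.bdl g hp hq hpq ht (hres t hD)
  have fz : ∀ {p q : ι n}, p ∈ W.Cl n → q ∈ W.Cl n → W.zc n p = W.zc n q → ∀ t, t ∈ W.S →
      |W.co n p q t| ≤ W.B'.d n ^ tp * N t := by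
    intro p q hp hq hpq t ht
    by_cases hD : t ∈ Dr
    · exact (h.bd0 g hp hq t).trans (u.le t hD)
    · rw [← u.eq t hD]
      exact h.bdz g hp hq hpq ht
  have t0 := (h.coc n).evoD u.sd hS h.z0 hr0 (ub c1 a1) (ub a1 b1) (ub c1 b1) (ub b1 d1)
    (fl c1 a1 (c2.trans a2.symm)) (fl b1 d1 (b2.trans d2.symm))
    (fz a1 b1 (a3.trans b3.symm)) (fz c1 d1 (c3.trans d3.symm) 0 h.z0) hs
  -- normalised
  have e2 := homE W.S (cn N (W.co n x' x)) (cn N (W.co n x y))
  rw [cn_mul hN, cn_mul hN] at e2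
  rw [e2] at t0
  have t1 : |cn N (W.co n x' y') s - evoS W.S (cn N (W.co n x' x)) (cn N (W.co n x y)) s| ≤
      200 * W.B'.d n ^ tp := by
    have e3 : cn N (W.co n x' y') s - evoS W.S (cn N (W.co n x' x)) (cn N (W.co n x y)) s =
        (W.co n x' y' s - N s * evoS W.S (cn N (W.co n x' x)) (cn N (W.co n x y)) s) / N s := by
      unfold cn
      have := (hN s).ne'
      field_simp
    rw [e3, abs_div, abs_of_pos (hN s), div_le_iff₀ (hN s)]
    linarith
  have e4 : (W.cfg E n).rel k' i l s = cn N (W.co n x' y') s := by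
    rw [r.rel_of hs]
    show W.co n x' y' s / side W n s = W.co n x' y' s / N s
    rw [u.eq s hd]
  have o1 : ∀ t, |LnS Dr (EvL504.own W n i k' k) t| ≤ 1 := fun t => by
    unfold LnS
    split_ifs
    · simp
    · exact r.own_le h hi hi' t
  have e5 : ∀ t, LnS W.S (LnS Dr ((W.cfg E n).rel k i l)) t =
      LnS W.S (LnS Dr (W.crd n x y)) t := by
    intro t
    rw [r.rel_eq]
    unfold LnS
    split_ifs <;> rfl
  have q1 : ∀ t, |LnS W.S (cn N (W.co n x y)) t| ≤ 1 := fun t => by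
    unfold LnS
    split_ifs
    · simp
    · exact (cn_crd h u g a1 b1 t).2
  have q2 : ∀ t, |LnS W.S (LnS Dr ((W.cfg E n).rel k i l)) t| ≤ 1 := fun t => by
    unfold LnS
    split_ifs
    · simp
    · simp
    · exact r.rel_le h hi hl t
  have q3 : ∀ t, |LnS W.S (cn N (W.co n x y)) t -
      LnS W.S (LnS Dr ((W.cfg E n).rel k i l)) t| ≤ W.B'.d n ^ tp := fun t => by
    rw [e5]
    by_cases ht : t ∈ W.S
    · simp only [LnS, if_pos ht, sub_zero, abs_zero]
      exact hr0
    · have := (cn_crd h u g a1 b1 t).1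
      simp only [LnS, if_neg ht] at this ⊢
      exact this
  have t2 := evoS_lip (S := W.S) (s := s) (fun t => (cn_crd h u g c1 a1 t).2) o1 q1 q2
    (fun t => (cn_crd h u g c1 a1 t).1) q3 hs0
  rw [e4]
  rw [abs_le] at t1 t2 ⊢
  constructor <;> linarith [t1.1, t1.2, t2.1, t2.2]

end laws

/-- **`LLaw` with the slots of `Dr` forgotten**; `S'` = level slots of the window and dropped slots -/
theorem llawD (h : WL W K tp) (htp : 0 ≤ tp) (hDr : ∀ s ∈ Dr, s = 1 ∨ s = 2)
    (hres : ∀ s, s ∉ Dr → tp ≤ W.top s) {E : ∀ n, Finset (ι n)}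
    (hE : ∀ᶠ n in (U : Filter ℕ), Reg W E n) (hX : ∀ᶠ n in (U : Filter ℕ), NatX W K Dr tp n)
    {G : ℕ → RCfg (Fin 12)} {ow : ℕ → ℕ → ℕ → ℕ → Fin 12 → ℝ}
    (hI : ∀ n, (G n).I = (W.cfg E n).I) (hz : ∀ n, (G n).z = (W.cfg E n).z)
    (hrel : ∀ n k i l, (G n).rel k i l = LnS Dr ((W.cfg E n).rel k i l))
    (hown : ∀ n i k0 k, ow n i k0 k = LnS Dr (ownL W n i k0 k)) {S' : Finset (Fin 12)}
    (hS' : ∀ s, s ∈ S' ↔ s ∈ W.S ∨ s ∈ Dr) :
    LLaw W.B' G S' ow tp where
  S0 := (hS' 0).2 (Or.inl h.z0)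
  SSL := by
    intro s hs
    rcases (hS' s).1 hs with h1 | h1
    · exact h.hS h1
    · rcases hDr s h1 with rfl | rfl <;> decide
  relS := by
    intro n k i l s hs
    rw [hrel]
    unfold LnS
    split_ifs with h1
    · rfl
    · exact cfg_rel_S E n k i l (((hS' s).1 hs).resolve_right h1)
  bd := by
    intro ε hε
    filter_upwards [hE] with n r
    intro k i l hi hl s
    rw [hI] at hi hl
    have t : (1 : ℝ) ≤ W.B'.d n ^ (-ε) :=
      Real.one_le_rpow_of_pos_of_le_one_of_nonpos (W.B'.pos n) (W.B'.lt n).le (by linarith)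
    rw [hrel]
    unfold LnS
    split_ifs
    · rw [abs_zero]; linarith
    · exact (r.rel_le h hi hl s).trans t
  coc := by
    intro ε hε
    filter_upwards [hE, hX, ev_up W 96 tp hε] with n r f hu
    intro k i j l hi hj hl s hs
    rw [hI] at hi hj hl
    rw [hS', not_or] at hs
    obtain ⟨z, c, p, hN⟩ := exists_natU h htp f
    rw [hrel, hrel, hrel]
    have e : LnS Dr ((W.cfg E n).rel k i l) s = (W.cfg E n).rel k i l s := if_neg hs.2
    rw [e]
    have hK : 0 < K := by have := h.K1; linarith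
    exact (cocD h hN (comp_natD hK (W.B.pos n) z c p) r hi hj hl hs.1 hs.2).trans hu
  ownbd := by
    intro ε hε
    filter_upwards [hE] with n r
    intro i k0 k hi hi' s
    rw [hI] at hi hi'
    have t : (1 : ℝ) ≤ W.B'.d n ^ (-ε) :=
      Real.one_le_rpow_of_pos_of_le_one_of_nonpos (W.B'.pos n) (W.B'.lt n).le (by linarith)
    rw [hown]
    unfold LnS
    split_ifs
    · rw [abs_zero]; linarith
    · exact (r.own_le h hi hi' s).trans t
  own0 := by
    intro ε hε
    filter_upwards [hE, ev_up W 2 tp hε] with n r hu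
    intro i k0 k hi hi'
    rw [hI] at hi hi'
    have := r.own_z h hi hi'
    refine le_trans (le_of_eq ?_) (this.trans hu)
    congr 1
    have h0 : (0 : Fin 12) ∉ Dr := fun h0 => by rcases hDr 0 h0 with h1 | h1 <;> exact absurd h1 (by decide)
    have e : ow n i k0 k 0 = EvL504.own W n i k k0 0 := by
      rw [hown]
      exact if_neg h0
    rw [e, hz]
    show EvL504.own W n i k k0 0 + ((W.cfg E n).z k - (W.cfg E n).z k0) = _
    ring
  evo := by
    intro ε hε
    filter_upwards [hE, hX, ev_up W 300 tp hε] with n r f hu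
    intro k0 k i l hi hl hi' hl' s hs
    rw [hI] at hi hl hi' hl'
    rw [hS', not_or] at hs
    obtain ⟨z, c, p, hN⟩ := exists_natU h htp f
    have hK : 0 < K := by have := h.K1; linarith
    rw [hrel, hrel, hown]
    have e : LnS Dr ((W.cfg E n).rel k i l) s = (W.cfg E n).rel k i l s := if_neg hs.2
    rw [e, evoS_zero (a := LnS Dr (ownL W n i k0 k)) (c := LnS Dr ((W.cfg E n).rel k0 i l)) hDr hS'
      (fun s hs => if_pos hs) (fun s hs => if_pos hs)]
    exact (evoDr h hN (evoS_natD hK (W.B.pos n) z c p) h.hS hres r hi hl hi' hl' hs.1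
      hs.2).trans hu

end Crest.Agent.R116.EvD369
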