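import Crest.Agent.R116.GlC_210
import Crest.Agent.R116.A1k2_229

/-!
# R116 (S0155), wave side: tools for `EXL` (helper963)

* `exists_net` : maximal net of frames with nearest-frame map.
* `exists_enum` : enumeration of a finite set of labels.
* `relabel` : `DecOut` with labels `range n`.
* `DecOut.mono` : monotonicity of `DecOut` in the constants `A'`, `Cn`.
-/

set_option autoImplicit false

open MeasureTheory FourierTransform
open scoped ENNReal

namespace Crest.Agent.R116.Ex963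

open Crest.Agent.R138.Defs (E2 ee)
open Crest.Agent.R138.Wpk685 (cen caps)
open Crest.Agent.R116.CDef480 Crest.Agent.R116.WC188 Crest.Agent.R116.GlC210
open Crest.Agent.R116.LZg725 (Cf)

/-! ### nets -/

theorem exists_net_aux {r R : ℝ} (hr : 1 ≤ r) (hR : r ≤ R) :
    ∃ (Z : Finset (E3 × ℝ)) (ζ : E3 × ℝ → E3 × ℝ), Net r R Z ∧
      ∀ p ∈ cylc R, ζ p ∈ Z ∧ p - ζ p ∈ cylc r := by
  classical
  have hr0 : 0 < r := by linarith
  -- the cardinalities of nets are bounded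
  set S : Set ℕ := {n | ∃ Z : Finset (E3 × ℝ), Net r R Z ∧ Z.card = n} with hS
  have hne : S.Nonempty := ⟨0, ∅, ⟨by simp, by simp⟩, rfl⟩
  have hbd : BddAbove S := by
    refine ⟨⌈(11 * R) ^ 4⌉₊, ?_⟩
    rintro n ⟨Z, hZ, rfl⟩
    have h1 := Crest.Agent.R116.A1k229.net_card hr hR hZ
    exact_mod_cast h1.trans (Nat.le_ceil _)
  obtain ⟨Z, hZ, hcard⟩ := Nat.sSup_mem hne hbd
  have hmax : ∀ Z' : Finset (E3 × ℝ), Net r R Z' → Z'.card ≤ Z.card := by
    intro Z' hZ'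
    rw [hcard]
    exact le_csSup hbd ⟨Z', hZ', rfl⟩
  have hnear : ∀ p ∈ cylc R, ∃ z ∈ Z, p - z ∈ cylc r := by
    intro p hp
    by_contra hc
    push Not at hc
    have hfar : ∀ z ∈ Z, r ≤ ‖p.1 - z.1‖ ∨ r ≤ |p.2 - z.2| := by
      intro z hz
      by_contra h
      push Not at h
      exact hc z hz ⟨h.1.le, h.2.le⟩
    have hpZ : p ∉ Z := by
      intro h
      rcases hfar p h with h1 | h1
      · simp at h1; linarith
      · simp at h1; linarith
    have hnet : Net r R (insert p Z) := by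
      refine ⟨?_, ?_⟩
      · intro z hz
        rcases Finset.mem_insert.1 hz with rfl | h
        · exact hp
        · exact hZ.mem z h
      · intro z hz z' hz'
        rcases Finset.mem_insert.1 hz with rfl | h
        · rcases Finset.mem_insert.1 hz' with rfl | h'
          · exact Or.inl rfl
          · exact Or.inr (hfar z' h')
        · rcases Finset.mem_insert.1 hz' with rfl | h'
          · right
            rcases hfar z h with h2 | h2
            · left; rwa [norm_sub_rev]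
            · right; rwa [abs_sub_comm]
          · exact hZ.sep z h z' h'
    have h3 := hmax _ hnet
    rw [Finset.card_insert_of_notMem hpZ] at h3
    omega
  choose! ζ hζ1 hζ2 using hnear
  exact ⟨Z, ζ, hZ, fun p hp => ⟨hζ1 p hp, hζ2 p hp⟩⟩

/-- maximal nets of frames. -/
theorem exists_net {r R : ℝ} (hr : 1 ≤ r) (hR : 0 ≤ R) :
    ∃ (Z : Finset (E3 × ℝ)) (ζ : E3 × ℝ → E3 × ℝ), Net r R Z ∧
      ∀ p ∈ cylc R, ζ p ∈ Z ∧ p - ζ p ∈ cylc r := by
  rcases le_total r R with h | h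
  · exact exists_net_aux hr h
  · refine ⟨{0}, fun _ => 0, ⟨?_, ?_⟩, ?_⟩
    · intro z hz
      rw [Finset.mem_singleton.1 hz]
      exact ⟨by simpa using hR, by simpa using hR⟩
    · intro z hz z' hz'
      exact Or.inl ((Finset.mem_singleton.1 hz).trans (Finset.mem_singleton.1 hz').symm)
    · intro p hp
      refine ⟨Finset.mem_singleton_self _, ?_⟩
      rw [sub_zero]
      exact ⟨hp.1.trans h, hp.2.trans h⟩

/-! ### enumeration of the labels -/

/-- enumeration of a finite set of labels. -/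
structure Enum (Λ : Finset ℕ) (e : ℕ → ℕ) : Prop where
  mem : ∀ i < Λ.card, e i ∈ Λ
  inj : ∀ i < Λ.card, ∀ j < Λ.card, e i = e j → i = j
  sur : ∀ k ∈ Λ, ∃ i < Λ.card, e i = k

theorem exists_enum (Λ : Finset ℕ) : ∃ e : ℕ → ℕ, Enum Λ e := by
  classical
  refine ⟨fun i => if h : i < Λ.card then Λ.orderEmbOfFin rfl ⟨i, h⟩ else 0, ?_, ?_, ?_⟩
  · intro i hi
    simp only [hi, dif_pos]
    exact Finset.orderEmbOfFin_mem Λ rfl ⟨i, hi⟩
  · intro i hi j hj h
    simp only [hi, hj, dif_pos] at h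
    have := (Λ.orderEmbOfFin rfl).injective h
    simpa using this
  · intro k hk
    have : k ∈ Set.range (Λ.orderEmbOfFin rfl) := by
      rw [Finset.range_orderEmbOfFin]; exact hk
    obtain ⟨⟨i, hi⟩, h⟩ := this
    exact ⟨i, hi, by simp only [hi, dif_pos]; exact h⟩

/-! ### relabelling of a decomposition -/

theorem sum_enum {Λ : Finset ℕ} {n : ℕ} {e : ℕ → ℕ} (he : ∀ i < n, e i ∈ Λ)
    (hi : ∀ i < n, ∀ j < n, e i = e j → i = j) (hs : ∀ k ∈ Λ, ∃ i < n, e i = k)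
    {β : Type*} [AddCommMonoid β] (f : ℕ → β) :
    ∑ k ∈ Λ, f k = ∑ i ∈ Finset.range n, f (e i) := by
  classical
  have h1 : Λ = (Finset.range n).image e := by
    ext k
    rw [Finset.mem_image]
    constructor
    · intro hk
      obtain ⟨i, hi', h⟩ := hs k hk
      exact ⟨i, Finset.mem_range.2 hi', h⟩
    · rintro ⟨i, hi', rfl⟩
      exact he i (Finset.mem_range.1 hi')
  rw [h1, Finset.sum_image]
  intro i hi' j hj h
  exact hi i (Finset.mem_range.1 hi') j (Finset.mem_range.1 hj) h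

theorem relabel {M κ q A A' a b Cn : ℝ} {nb K : ℕ} {η0 : ℝ} {C0 : E2} {σ : ℝ} {g : E3 → ℂ}
    {R r : ℝ} {z : E3 × ℝ} {cls : Cf E2 → ℤ × ℤ → E3 → ℕ} {Λ : Finset ℕ} {s : ℕ → ℝ × ℝ}
    {cl : ℕ → ℕ} {G : ℕ → E3 → ℂ} {D' : ℕ → ℝ} {rest : E3 → ℂ} {I : ℕ → Finset ℕ}
    {P : ℕ → ℕ → Plate}
    (h : DecOut M κ q A A' a b Cn nb K η0 C0 σ g R r z cls Λ s cl G D' rest I P)
    {n : ℕ} {e : ℕ → ℕ} (he : ∀ i < n, e i ∈ Λ)
    (hi : ∀ i < n, ∀ j < n, e i = e j → i = j) (hs : ∀ k ∈ Λ, ∃ i < n, e i = k) :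
    DecOut M κ q A A' a b Cn nb K η0 C0 σ g R r z cls (Finset.range n) (fun k => s (e k))
      (fun k => cl (e k)) (fun k => G (e k)) (fun k => D' (e k)) rest (fun k => I (e k))
      (fun k => P (e k)) where
  sum := fun ζ => by rw [h.sum ζ, sum_enum he hi hs]
  eq := fun k hk => h.eq _ (he k (Finset.mem_range.1 hk))
  st := fun k hk => h.st _ (he k (Finset.mem_range.1 hk))
  slc := fun k hk => h.slc _ (he k (Finset.mem_range.1 hk))
  sub := fun k hk => h.sub _ (he k (Finset.mem_range.1 hk))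
  dens := fun k hk => h.dens _ (he k (Finset.mem_range.1 hk))
  bd := fun k hk => h.bd _ (he k (Finset.mem_range.1 hk))
  cp := fun k hk => h.cp _ (he k (Finset.mem_range.1 hk))
  disj := fun k hk k' hk' hne => h.disj _ (he k (Finset.mem_range.1 hk)) _
    (he k' (Finset.mem_range.1 hk'))
    (fun h' => hne (hi k (Finset.mem_range.1 hk) k' (Finset.mem_range.1 hk') h'))
  pl := fun k hk => h.pl _ (he k (Finset.mem_range.1 hk))
  cls := fun k hk => h.cls _ (he k (Finset.mem_range.1 hk))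
  dense := fun k hk => h.dense _ (he k (Finset.mem_range.1 hk))
  energy := fun k hk => h.energy _ (he k (Finset.mem_range.1 hk))
  ss := fun k hk => h.ss _ (he k (Finset.mem_range.1 hk))
  rmeas := h.rmeas
  rbdd := h.rbdd
  rsupp := h.rsupp
  ren := h.ren
  small := h.small

/-! ### monotonicity in the constants -/

theorem pbx_mono {κ A A' r s1 s2 : ℝ} (hA : A ≤ A') (hr : 0 ≤ r) (hκ : 0 ≤ κ) (h1 : 0 ≤ s1)
    (h2 : 0 ≤ s2) (c : E2) (X0 : E3) (f : Cf E2) (m : ℤ × ℤ) :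
    pbx κ A r s1 s2 c X0 f m ⊆ pbx κ A' r s1 s2 c X0 f m := by
  have hT : 0 ≤ TT κ s2 r := le_trans (sq_nonneg s2) (le_max_left _ _)
  rintro X ⟨e1, e2, e3, e4, e5⟩
  refine ⟨e1.trans ?_, e2.trans ?_, e3.trans ?_, e4.trans ?_, e5.trans ?_⟩
  · exact mul_le_mul_of_nonneg_right hA h2
  · exact mul_le_mul_of_nonneg_right (mul_le_mul_of_nonneg_right hA h2) hr
  · exact mul_le_mul_of_nonneg_right (mul_le_mul_of_nonneg_right hA hT) hr
  · exact mul_le_mul_of_nonneg_right (mul_le_mul_of_nonneg_right hA h1) hr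
  · exact mul_le_mul_of_nonneg_right hA h1

theorem plates_mono {M κ A A' r s1 s2 R : ℝ} {I : Finset ℕ} {P : ℕ → Plate} (hA : A ≤ A')
    (hr : 0 ≤ r) (hκ : 0 ≤ κ) (h1 : 0 ≤ s1) (h2 : 0 ≤ s2) (h : Plates M κ A r s1 s2 R I P) :
    Plates M κ A' r s1 s2 R I P where
  mem := h.mem
  sep := h.sep
  X0 := fun i hi => (h.X0 i hi).trans (mul_le_mul_of_nonneg_right hA hr)
  c := fun i hi => (h.c i hi).trans hA
  adm := h.adm
  meas := h.meas
  box := fun i hi m => (h.box i hi m).trans (pbx_mono hA hr hκ h1 h2 _ _ _ m)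
  disj := h.disj

/-- monotonicity in `A'`, `Cn`. -/
theorem decOut_mono {M κ q A A' A'' a b Cn Cn' : ℝ} {nb K : ℕ} {η0 : ℝ} {C0 : E2} {σ : ℝ}
    {g : E3 → ℂ} {R r : ℝ} {z : E3 × ℝ} {cls : Cf E2 → ℤ × ℤ → E3 → ℕ} {Λ : Finset ℕ}
    {s : ℕ → ℝ × ℝ} {cl : ℕ → ℕ} {G : ℕ → E3 → ℂ} {D' : ℕ → ℝ} {rest : E3 → ℂ}
    {I : ℕ → Finset ℕ} {P : ℕ → ℕ → Plate} (hA : A' ≤ A'') (hC : Cn ≤ Cn') (hr : 1 ≤ r)
    (hR : 0 ≤ R) (hκ : 0 ≤ κ) (hs : ∀ k ∈ Λ, 0 ≤ (s k).1 ∧ 0 ≤ (s k).2)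
    (h : DecOut M κ q A A' a b Cn nb K η0 C0 σ g R r z cls Λ s cl G D' rest I P) :
    DecOut M κ q A A'' a b Cn' nb K η0 C0 σ g R r z cls Λ s cl G D' rest I P where
  sum := h.sum
  eq := h.eq
  st := h.st
  slc := h.slc
  sub := h.sub
  dens := h.dens
  bd := fun k hk m => (h.bd k hk m).trans (Metric.closedBall_subset_closedBall
    (mul_le_mul_of_nonneg_right hA (by linarith)))
  cp := h.cp
  disj := h.disj
  pl := fun k hk => ⟨plates_mono hA (by linarith) hκ (hs k hk).1 (hs k hk).2 (h.pl k hk).1,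
    (h.pl k hk).2⟩
  cls := h.cls
  dense := fun k hk i hi => (h.dense k hk i hi).trans (by gcongr)
  energy := fun k hk => (h.energy k hk).trans (by gcongr)
  ss := fun k hk => (h.ss k hk).trans (by gcongr)
  rmeas := h.rmeas
  rbdd := h.rbdd
  rsupp := h.rsupp
  ren := h.ren.trans (mul_le_mul_of_nonneg_right hC (integral_nonneg fun _ => by positivity))
  small := fun r' h1 h2 z' hz' m y hy => (h.small r' h1 h2 z' hz' m y hy).trans (by
    have : 0 ≤ R ^ (-(K : ℝ)) := Real.rpow_nonneg hR _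
    gcongr)

/-- monotonicity in `Cn`. -/
theorem mono_Cn {M κ q A A' a b Cn Cn' : ℝ} {nb K : ℕ} {η0 : ℝ} {C0 : E2} {σ : ℝ}
    {g : E3 → ℂ} {R r : ℝ} {z : E3 × ℝ} {cls : Cf E2 → ℤ × ℤ → E3 → ℕ} {Λ : Finset ℕ}
    {s : ℕ → ℝ × ℝ} {cl : ℕ → ℕ} {G : ℕ → E3 → ℂ} {D' : ℕ → ℝ} {rest : E3 → ℂ}
    {I : ℕ → Finset ℕ} {P : ℕ → ℕ → Plate} (hC : Cn ≤ Cn') (hR : 0 ≤ R)
    (h : DecOut M κ q A A' a b Cn nb K η0 C0 σ g R r z cls Λ s cl G D' rest I P) :
    DecOut M κ q A A' a b Cn' nb K η0 C0 σ g R r z cls Λ s cl G D' rest I P where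
  sum := h.sum
  eq := h.eq
  st := h.st
  slc := h.slc
  sub := h.sub
  dens := h.dens
  bd := h.bd
  cp := h.cp
  disj := h.disj
  pl := h.pl
  cls := h.cls
  dense := fun k hk i hi => (h.dense k hk i hi).trans (by gcongr)
  energy := fun k hk => (h.energy k hk).trans (by gcongr)
  ss := fun k hk => (h.ss k hk).trans (by gcongr)
  rmeas := h.rmeas
  rbdd := h.rbdd
  rsupp := h.rsupp
  ren := h.ren.trans (mul_le_mul_of_nonneg_right hC (integral_nonneg fun _ => by positivity))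
  small := fun r' h1 h2 z' hz' m y hy => (h.small r' h1 h2 z' hz' m y hy).trans (by
    have : 0 ≤ R ^ (-(K : ℝ)) := Real.rpow_nonneg hR _
    gcongr)

end Crest.Agent.R116.Ex963
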