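import Crest.Agent.R116.Lk1_367
import Crest.Agent.R116.Bas2_367
import Crest.Agent.R116.Ex1_963

/-!
# R116 (S0155), wave side, CHAIN-C (helper299): existence of levels, `EXL` from `DECc`

* `pad`: an empty decomposition gets one empty label (`1 ≤ L.n`).
* `build`: a level from `DECc` at every frame of a net, relabelled by `range n`.
* `exl : DECc M q → EXL M q`.
-/

set_option autoImplicit false

open MeasureTheory FourierTransform
open scoped ENNReal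

namespace Crest.Agent.R116.Ex299

open Crest.Agent.R138.Defs (E2 ee)
open Crest.Agent.R138.Wpk685 (cen caps)
open Crest.Agent.R116.CDef480 Crest.Agent.R116.WC188 Crest.Agent.R116.GlC210
open Crest.Agent.R116.LZg725 (Cf)

/-! ### the zero function -/

theorem enc_zero (ρ : ℝ) (S : ℤ × ℤ → Set E3) : enc ρ (fun _ => 0) S = 0 := by
  unfold enc
  refine Finset.sum_eq_zero fun m _ => ?_
  have h : umc ρ (fun _ => 0) m = fun _ => 0 := by
    funext x
    unfold umc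
    simp [Real.fourierInv_eq']
  simp [h]

theorem enc_empty (ρ : ℝ) (g : E3 → ℂ) {S : ℤ × ℤ → Set E3} (h : ∀ m, S m ⊆ ∅) :
    enc ρ g S = 0 := by
  unfold enc
  refine Finset.sum_eq_zero fun m _ => ?_
  rw [Set.subset_empty_iff.1 (h m)]
  simp

theorem Enc_zero : Enc (fun _ : E3 => (0 : ℂ)) = 0 := by
  unfold Enc
  simp

theorem pbx_zero (M κ q r D : ℝ) : PBx M κ q r (fun _ => 0) D := by
  intro c X0 f s1 s2 _ _
  rw [enc_zero]
  exact zero_le

theorem uS_empty (P : ℕ → Plate) : uS ∅ P = fun _ => ∅ := by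
  funext m
  simp [uS]

/-- an empty plate. -/
noncomputable def plt0 : Plate := ⟨0, 0, 0, ⟨0, 0, 0, 0, 0⟩, fun _ => ∅⟩

/-- padding of an empty decomposition by one empty label. -/
theorem pad {M κ q A A' a b Cn : ℝ} {nb K : ℕ} {η0 : ℝ} {C0 : E2} {σ : ℝ} {g : E3 → ℂ} {R r : ℝ}
    (hr : 1 ≤ r) {z : E3 × ℝ} {cls : Cf E2 → ℤ × ℤ → E3 → ℕ} {s : ℕ → ℝ × ℝ} {cl : ℕ → ℕ}
    {G : ℕ → E3 → ℂ} {D' : ℕ → ℝ} {rest : E3 → ℂ} {I : ℕ → Finset ℕ} {P : ℕ → ℕ → Plate}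
    (h : DecOut M κ q A A' a b Cn nb K η0 C0 σ g R r z cls ∅ s cl G D' rest I P)
    (s' : ℕ → ℝ × ℝ) (cl' : ℕ → ℕ) :
    DecOut M κ q A A' a b Cn nb K η0 C0 σ g R r z cls (Finset.range 1) s' cl'
      (fun _ _ => 0) (fun _ => 0) rest (fun _ => ∅) (fun _ _ => plt0) where
  sum := fun ζ => by
    have := h.sum ζ
    simpa using this
  eq := fun k _ => by
    rw [uS_empty, Bas367.selc_empty]
  st := fun k _ =>
    { meas := measurable_const
      bdd := ⟨0, fun ζ => by simp⟩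
      supp := fun ζ hζ => absurd rfl hζ
      R1 := hr
      D0 := le_rfl
      box := pbx_zero _ _ _ _ _
      nd := by rw [Enc_zero, mul_zero] }
  slc := fun k _ ζ hζ => absurd rfl hζ
  sub := fun k _ S' _ hS' => by
    have h1 : S' = fun _ => ∅ := by
      funext m
      have := hS' m
      rw [uS_empty] at this
      exact Set.subset_empty_iff.1 this
    rw [h1, Bas367.selc_empty]
    exact pbx_zero _ _ _ _ _
  dens := fun k _ c X0 f s1 s2 _ _ => by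
    rw [enc_empty]
    · exact zero_le
    · intro m
      rw [uS_empty]
      exact Set.inter_subset_left
  bd := fun k _ m => by
    rw [uS_empty]
    exact Set.empty_subset _
  cp := fun k _ m _ => by rw [uS_empty]
  disj := fun k hk k' hk' hne => by
    rw [Finset.mem_range] at hk hk'
    omega
  pl := fun k _ => ⟨⟨by simp, by simp, by simp, by simp, by simp, by simp, by simp, by simp⟩,
    by simp⟩
  cls := fun k _ i hi => by simp at hi
  dense := fun k _ i hi => by simp at hi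
  energy := fun k _ => by
    rw [Enc_zero, ENNReal.ofReal_zero]
    exact zero_le
  ss := fun k _ => by
    unfold SS
    rw [Enc_zero, mul_zero, zero_mul, ENNReal.ofReal_zero]
    exact zero_le
  rmeas := h.rmeas
  rbdd := h.rbdd
  rsupp := h.rsupp
  ren := h.ren
  small := h.small

/-! ### one level -/

theorem build {M κ q A A' a b Cn : ℝ} {K : ℕ} {η0 : ℝ} {C0 : E2} {σ : ℝ} {g : E3 → ℂ} {R : ℝ}
    {r' : ℝ} {nb : ℕ} (hnb : 1 ≤ nb) (hR : 1 ≤ R) (hlo : R ^ (1/2 : ℝ) ≤ r') (hhi : r' ≤ R)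
    {Λ : Finset ℕ} {s : ℕ → ℝ × ℝ} {cl : ℕ → ℕ} {B : ℝ} (hB : 1 ≤ B) (hcard : (Λ.card : ℝ) ≤ B)
    (hsd : ∀ k ∈ Λ, Sd r' (s k).1 (s k).2) (hcl : ∀ k ∈ Λ, cl k < nb)
    {Z : Finset (E3 × ℝ)} {ζ : E3 × ℝ → E3 × ℝ} (hnet : Net r' R Z)
    (hnear : ∀ p ∈ cylc R, ζ p ∈ Z ∧ p - ζ p ∈ cylc r')
    (fpar : ℕ → ℕ) (cls : E3 × ℝ → Cf E2 → ℤ × ℤ → E3 → ℕ)
    (hdec : ∀ z ∈ Z, ∃ (G : ℕ → E3 → ℂ) (D' : ℕ → ℝ) (rest : E3 → ℂ) (I : ℕ → Finset ℕ)
      (P : ℕ → ℕ → Plate),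
      DecOut M κ q A A' a b Cn nb K η0 C0 σ g R r' z (cls z) Λ s cl G D' rest I P) :
    ∃ L' : Lev, L'.r = r' ∧ LevOk M κ q A A' a b Cn K η0 C0 σ g R L' ∧ L'.nb = nb ∧
      (L'.n : ℝ) ≤ B ∧ (∀ k < L'.n, L'.cl k < nb) ∧ (∀ k, L'.par k = fpar (L'.cl k)) ∧ L'.Z = Z ∧
      ∀ z ∈ Z, ∀ k < L'.n, ∀ i ∈ L'.I z k, ∀ m, ∀ y ∈ (L'.P z k i).S m,
        cls z (L'.P z k i).f m y = L'.cl k := by
  classical
  have hr1 : 1 ≤ r' := le_trans (Real.one_le_rpow hR (by norm_num)) hlo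
  -- relabelled data
  obtain ⟨n, s', cl', hn1, hnB, hsd', hcl', hdec'⟩ : ∃ (n : ℕ) (s' : ℕ → ℝ × ℝ) (cl' : ℕ → ℕ),
      1 ≤ n ∧ (n : ℝ) ≤ B ∧ (∀ k < n, Sd r' (s' k).1 (s' k).2) ∧ (∀ k < n, cl' k < nb) ∧
      ∀ z ∈ Z, ∃ (G : ℕ → E3 → ℂ) (D' : ℕ → ℝ) (rest : E3 → ℂ) (I : ℕ → Finset ℕ)
        (P : ℕ → ℕ → Plate), DecOut M κ q A A' a b Cn nb K η0 C0 σ g R r' z (cls z)
          (Finset.range n) s' cl' G D' rest I P := by
    by_cases hΛ : Λ = ∅
    · refine ⟨1, fun _ => (1, 1), fun _ => 0, le_rfl, by simpa using hB, fun k _ => ?_,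
        fun k _ => hnb, fun z hz => ?_⟩
      · exact ⟨Real.rpow_le_one_of_one_le_of_nonpos hr1 (by norm_num), le_rfl, le_rfl⟩
      · obtain ⟨G, D', rest, I, P, h⟩ := hdec z hz
        rw [hΛ] at h
        exact ⟨_, _, _, _, _, pad hr1 h _ _⟩
    · have hc : 1 ≤ Λ.card := Finset.card_pos.2 (Finset.nonempty_iff_ne_empty.2 hΛ)
      set e0 := Λ.equivFin.symm with he0
      obtain ⟨x0, hx0⟩ := Finset.nonempty_iff_ne_empty.2 hΛ
      set e : ℕ → ℕ := fun i => if hi : i < Λ.card then (e0 ⟨i, hi⟩ : ℕ) else x0 with he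
      have hee : ∀ i (hi : i < Λ.card), e i = (e0 ⟨i, hi⟩ : ℕ) := fun i hi => by
        simp only [he, dif_pos hi]
      have hmem : ∀ i < Λ.card, e i ∈ Λ := fun i hi => by
        rw [hee i hi]
        exact (e0 ⟨i, hi⟩).2
      have hinj : ∀ i < Λ.card, ∀ j < Λ.card, e i = e j → i = j := fun i hi j hj hij => by
        rw [hee i hi, hee j hj] at hij
        have := e0.injective (Subtype.ext hij)
        simpa using this
      have hsur : ∀ k ∈ Λ, ∃ i < Λ.card, e i = k := fun k hk => by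
        refine ⟨(e0.symm ⟨k, hk⟩ : ℕ), (e0.symm ⟨k, hk⟩).2, ?_⟩
        rw [hee _ (e0.symm ⟨k, hk⟩).2]
        simp
      refine ⟨Λ.card, fun i => s (e i), fun i => cl (e i), hc, hcard,
        fun k hk => hsd _ (hmem k hk), fun k hk => hcl _ (hmem k hk), fun z hz => ?_⟩
      obtain ⟨G, D', rest, I, P, h⟩ := hdec z hz
      exact ⟨_, _, _, _, _, Ex963.relabel h hmem hinj hsur⟩
  have : Inhabited Plate := ⟨plt0⟩
  choose! G D rest I P h using hdec'
  refine ⟨{ r := r', n := n, nb := nb, s := s', cl := cl', par := fun k => fpar (cl' k), Z := Z,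
            ζ := ζ, G := G, D := D, rest := rest, I := I, P := P }, rfl, ?_, rfl, hnB, hcl',
          fun k => rfl, rfl, ?_⟩
  · exact ⟨hlo, hhi, hn1, hnb, hnet, hnear, hsd', fun z hz => ⟨cls z, h z hz⟩⟩
  · intro z hz k hk i hi m y hy
    exact (h z hz).cls k (Finset.mem_range.2 hk) i hi m y hy

/-- **EXL from DECc**. -/
theorem exl {M q : ℝ} (hD : DECc M q) : EXL M q := by
  intro a b A ε M0 hg K
  obtain ⟨A', Cn, R0, hA', hCn, hR0, H⟩ := hD a b A ε M0 hg.a1 hg.b0 hg.b2 hg.A1 hg.e0 K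
  have ha0 : 0 < a := lt_of_lt_of_le one_pos hg.a1
  set Cm : ℝ := max (max Cn 1) R0 with hCm
  have h1m : 1 ≤ Cm := (le_max_right Cn 1).trans (le_max_left _ _)
  have hnm : Cn ≤ Cm := (le_max_left Cn 1).trans (le_max_left _ _)
  have h0m : R0 ≤ Cm := le_max_right _ _
  refine ⟨A', Cm, hA', h1m, ?_⟩
  intro κ η0 C0 σ g R D hS hκ hCR
  have hR1 : 1 ≤ R := hS.R1
  have hR0' : 0 < R := lt_of_lt_of_le one_pos hR1
  have hκ8 : R ^ (-(1/8) : ℝ) ≤ κ :=
    le_trans (Real.rpow_le_rpow_of_exponent_le hR1 (by norm_num)) hκ.kR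
  have hRe : 1 ≤ R ^ ε := Real.one_le_rpow hR1 hg.e0.le
  -- one level with given classes
  have step : ∀ r', R ^ (1/2 : ℝ) ≤ r' → r' ≤ R → ∀ nb : ℕ, 1 ≤ nb → ∀ (fpar : ℕ → ℕ)
      (cls : E3 × ℝ → Cf E2 → ℤ × ℤ → E3 → ℕ),
      (∀ z ∈ cylc R, (∀ f m, Measurable (cls z f m)) ∧ ∀ f m y, cls z f m y < nb) →
      ∃ L' : Lev, L'.r = r' ∧ LevOk M κ q A A' a b Cm K η0 C0 σ g R L' ∧ L'.nb = nb ∧
        (L'.n : ℝ) ≤ Cm * R ^ ε * nb ∧ (∀ k < L'.n, L'.cl k < nb) ∧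
        (∀ k, L'.par k = fpar (L'.cl k)) ∧
        ∀ z ∈ L'.Z, z ∈ cylc R ∧ ∀ k < L'.n, ∀ i ∈ L'.I z k, ∀ m, ∀ y ∈ (L'.P z k i).S m,
          cls z (L'.P z k i).f m y = L'.cl k := by
    intro r' hlo hhi nb hnb fpar cls hcls
    have hr1 : 1 ≤ r' := le_trans (Real.one_le_rpow hR1 (by norm_num)) hlo
    obtain ⟨Λ, s, cl, hcard, hsd, hcl, hdec⟩ :=
      H R r' κ (h0m.trans hCR) hlo hhi hκ.k0 hκ.ka hκ8 nb hnb
    obtain ⟨Z, ζ, hnet, hnear⟩ := Ex963.exists_net (R := R) hr1 hR0'.le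
    have hnb' : (1 : ℝ) ≤ nb := by exact_mod_cast hnb
    have hB : (1 : ℝ) ≤ Cm * R ^ ε * nb :=
      one_le_mul_of_one_le_of_one_le (one_le_mul_of_one_le_of_one_le h1m hRe) hnb'
    have hcard' : (Λ.card : ℝ) ≤ Cm * R ^ ε * nb := by
      refine hcard.trans ?_
      gcongr
    obtain ⟨L', e1, e2, e3, e4, e5, e6, e7, e8⟩ := build (A' := A') (Cn := Cm) (M := M) (κ := κ)
      (q := q) (A := A) (a := a) (b := b) (K := K) (η0 := η0) (C0 := C0) (σ := σ) (g := g)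
      hnb hR1 hlo hhi hB hcard' hsd hcl hnet hnear fpar cls (fun z hz => by
        obtain ⟨hm, hl⟩ := hcls z (hnet.mem z hz)
        obtain ⟨G, D', rest, I, P, h⟩ := hdec η0 C0 σ g D hS z (hnet.mem z hz) (cls z) hm hl
        exact ⟨G, D', rest, I, P, Ex963.mono_Cn hnm hR0'.le h⟩)
    refine ⟨L', e1, e2, e3, e4, e5, e6, fun z hz => ?_⟩
    rw [e7] at hz
    exact ⟨hnet.mem z hz, e8 z hz⟩
  constructor
  · intro r' hlo hhi
    obtain ⟨L', e1, e2, e3, e4, -, -, -⟩ := step r' hlo hhi 1 le_rfl id (fun _ _ _ _ => 0)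
      (fun z _ => ⟨fun _ _ => measurable_const, fun _ _ _ => one_pos⟩)
    refine ⟨L', e1, e2, e3, ?_⟩
    simpa using e4
  · intro L hL r' hlo hhi na aux hna haux hmeas
    have hhi' : r' ≤ R := hhi.trans hL.hi
    have hnb : 1 ≤ L.n * na := Nat.mul_pos hL.n1 hna
    have hlt : ∀ x y : ℕ, x < L.n → y < na → x * na + y < L.n * na := by
      intro x y hx hy
      calc x * na + y < x * na + na := by omega
        _ = (x + 1) * na := by ring
        _ ≤ L.n * na := Nat.mul_le_mul_right _ hx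
    obtain ⟨L', e1, e2, e3, e4, e5, e6, e7⟩ := step r' hlo hhi' (L.n * na) hnb (fun x => x / na)
      (fun z f m y => argc (r' ^ (-(1/2) : ℝ)) (L.pf z) L.n m y * na + aux z f m y)
      (fun z hz => ⟨fun f m => by
          have hI : ∀ k < L.n, Integrable (L.pf z k) := fun k hk => by
            have h1 := Lk367.lev_G_int hL ha0 (hL.near z hz).1 hk
            exact Bas367.trc_int h1 _
          have h2 : Measurable (argc (r' ^ (-(1/2) : ℝ)) (L.pf z) L.n m) :=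
            measurable_argc hL.n1 hI m
          exact (h2.mul_const na).add (hmeas z f m),
        fun f m y => hlt _ _ (argc_lt _ _ hL.n1 m y) (haux z f m y)⟩)
    have hdm : ∀ x y : ℕ, y < na → (x * na + y) / na = x ∧ (x * na + y) % na = y := by
      intro x y hy
      constructor
      · rw [add_comm, Nat.add_mul_div_right _ _ hna, Nat.div_eq_of_lt hy, zero_add]
      · rw [add_comm, Nat.add_mul_mod_self_right, Nat.mod_eq_of_lt hy]
    refine ⟨L', fun k => L'.cl k % na, e1, e2, ⟨fun k hk => ?_, ?_⟩, ?_,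
      fun k => Nat.mod_lt _ hna, e3, ?_⟩
    · rw [e6 k]
      exact Nat.div_lt_of_lt_mul (by rw [mul_comm]; exact e5 k hk)
    · intro z hz k hk i hi m y hy
      have h1 := (e7 z hz).2 k hk i hi m y hy
      rw [e6 k, ← h1, (hdm _ _ (haux z _ m y)).1, e1]
    · intro z hz k hk i hi m y hy
      have h1 := (e7 z hz).2 k hk i hi m y hy
      show _ = L'.cl k % na
      rw [← h1, (hdm _ _ (haux z _ m y)).2]
    · rw [e3]
      exact e4

end Crest.Agent.R116.Ex299
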