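import Crest.Agent.R116.KIDef_439

/-!
# R116 (K side), block K1, part 1: extension of a mark to a longer cell (helper803)

`frm C0 p0 B G D` : the conformal function `⟨B, w⟩ + G ΔN + D (|w|² - 2 Δs ΔN)` in the frame of the
ray of slope `C0` through `p0`; it vanishes along that ray and `disc = ‖B‖²`.
`Flat m` : `0 < s1 ≤ sg`, `disc φ = 1`, `|d| sg R ≤ kD`, `|ny φ s0| sg ≤ 2 kD`, `kD = 1/400`
(absolute width `w = sg R`).  This class is closed under extension to longer cells with the same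
absolute widths:
* `ext m t0 R1 s01 w0 w1` : member based at the ray `t0` of `m`, over `|s - s01| ≤ R1`, absolute
  widths `w0, w1`;
* `ext_flat`, `ext_ok` : it is `Flat` and `Ok kM0 0`;
* `mem_ext` : it contains the rays close to `t0` (data at the time `m.s0`).
-/

set_option autoImplicit false

namespace Crest.Agent.R116.Ext803

open Crest.Agent.R138.Defs (E2)
open Crest.Agent.R116.CDef480 (E3 lat pt vel)
open Crest.Agent.R116.LZg725
open Crest.Agent.R116.KI439 (LRay kM0 kD)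

section frm

variable {E : Type*} [NormedAddCommGroup E] [InnerProductSpace ℝ E]

/-- the conformal function `⟨B, w⟩ + G ΔN + D (|w|² - 2 Δs ΔN)` of a frame. -/
noncomputable def frm (C0 x0 : E) (y0 s0 : ℝ) (B : E) (G D : ℝ) : Cf E where
  a0 := -inner ℝ B x0 + s0 * inner ℝ B (-C0) - G * nrm C0 x0 y0 s0 + D * (‖x0‖ ^ 2 - 2 * s0 * y0)
  a1 := inner ℝ B C0 + G * ‖C0‖ ^ 2 / 2 + 2 * D * y0
  be := B + G • C0 - (2 * D) • x0
  g := G + 2 * D * s0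
  d := D

theorem ev_frm (C0 x0 : E) (y0 s0 : ℝ) (B : E) (G D : ℝ) (x : E) (y s : ℝ) :
    (frm C0 x0 y0 s0 B G D).ev x y s = inner ℝ B ((x - x0) + (s - s0) • C0) +
      G * (nrm C0 x y s - nrm C0 x0 y0 s0) +
      D * (‖(x - x0) + (s - s0) • C0‖ ^ 2 -
        2 * (s - s0) * (nrm C0 x y s - nrm C0 x0 y0 s0)) := by
  rw [quad_frame]
  unfold frm Cf.ev nrm
  simp only [inner_add_right, inner_sub_right, inner_add_left, inner_sub_left,
    real_inner_smul_left, real_inner_smul_right, inner_neg_right]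
  rw [norm_sub_sq_real, real_inner_comm x x0]
  ring

theorem ny_frm (C0 x0 : E) (y0 s0 : ℝ) (B : E) (G D : ℝ) (s : ℝ) :
    (frm C0 x0 y0 s0 B G D).ny s = G - 2 * D * (s - s0) := by
  unfold frm Cf.ny; ring

theorem gr_frm (C0 x0 : E) (y0 s0 : ℝ) (B : E) (G D : ℝ) :
    (frm C0 x0 y0 s0 B G D).gr C0 x0 s0 = B := by
  unfold Cf.gr
  rw [ny_frm]
  unfold frm
  simp only []
  module

/-- it vanishes along its ray. -/
theorem ev_frm_ray (C0 a : E) (k s0 : ℝ) (B : E) (G D : ℝ) (s : ℝ) :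
    (frm C0 (rx C0 a s0) (ry C0 k s0) s0 B G D).ev (rx C0 a s) (ry C0 k s) s = 0 := by
  rw [ev_frm, nrm_ray, nrm_ray]
  have e : rx C0 a s - rx C0 a s0 + (s - s0) • C0 = 0 := by unfold rx; module
  rw [e, inner_zero_right, norm_zero]
  ring

theorem rB_frm_ray (C0 a : E) (k s0 : ℝ) (B : E) (G D : ℝ) :
    (frm C0 (rx C0 a s0) (ry C0 k s0) s0 B G D).rB C0 a k = 0 := by
  have h0 := ev_frm_ray C0 a k s0 B G D 0
  have h1 := ev_frm_ray C0 a k s0 B G D 1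
  rw [Cf.ev_ray] at h0 h1
  linarith

theorem disc_frm (C0 a : E) (k s0 : ℝ) (B : E) (G D : ℝ) :
    (frm C0 (rx C0 a s0) (ry C0 k s0) s0 B G D).disc = ‖B‖ ^ 2 := by
  have h := Cf.norm_gr_sq (frm C0 (rx C0 a s0) (ry C0 k s0) s0 B G D) C0 (rx C0 a s0)
    (ry C0 k s0) s0
  rw [gr_frm, ev_frm_ray, Cf.ld_ray, rB_frm_ray] at h
  linarith

end frm

/-! ### values along rays -/

/-- value along a ray. -/
theorem val_rpos (p : Cf E2) (t : LRay) (s s0 : ℝ) :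
    p.val (rpos t s, s) = p.val (rpos t s0, s0) + (s - s0) * p.rB t.1 t.2.1 t.2.2 := by
  unfold Cf.val
  simp only [lat_rpos, rpos_two]
  rw [Cf.ev_ray, Cf.ev_ray]
  ring

/-- slope of a conformal function along a ray of the slab. -/
theorem rB_le {p : Cf E2} {t : LRay} {R s0 w : ℝ} (hR : 0 < R)
    (h : ∀ s, |s - s0| ≤ R → |p.val (rpos t s, s)| ≤ w) :
    |p.rB t.1 t.2.1 t.2.2| * R ≤ w := by
  have h1 := h (s0 + R) (by rw [add_sub_cancel_left, abs_of_pos hR])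
  have h2 := h (s0 - R) (by rw [sub_sub_cancel_left, abs_neg, abs_of_pos hR])
  rw [val_rpos p t _ s0] at h1 h2
  rw [add_sub_cancel_left] at h1
  rw [sub_sub_cancel_left] at h2
  set D := p.rB t.1 t.2.1 t.2.2
  set V := p.val (rpos t s0, s0)
  rw [abs_le] at h1 h2
  have h3 : |D * R| ≤ w := by
    rw [abs_le]; constructor <;> nlinarith
  rwa [abs_mul, abs_of_pos hR] at h3

/-! ### the class -/

/-- flat members. -/
structure Flat (m : Mem) : Prop where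
  hR : 0 < m.R
  hs1 : 0 < m.s1
  hsg : m.s1 ≤ m.sg
  disc : m.phi.disc = 1
  dd : |m.phi.d| * (m.sg * m.R) ≤ kD
  nn : |m.phi.ny m.s0| * m.sg ≤ 2 * kD

theorem T_zero (m : Mem) : m.T 0 = m.sg ^ 2 := by
  unfold Mem.T
  rw [zero_div]
  exact max_eq_left (by positivity)

namespace Flat

variable {m : Mem}

theorem sg_pos (h : Flat m) : 0 < m.sg := h.hs1.trans_le h.hsg

theorem ny_le (h : Flat m) {s : ℝ} (hs : |s - m.s0| ≤ m.R) : |m.phi.ny s| * m.sg ≤ kM0 := by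
  have e : m.phi.ny s = m.phi.ny m.s0 - 2 * m.phi.d * (s - m.s0) := by unfold Cf.ny; ring
  have h1 : |m.phi.ny s| ≤ |m.phi.ny m.s0| + 2 * |m.phi.d| * m.R := by
    rw [e]
    refine (abs_sub _ _).trans ?_
    rw [abs_mul, abs_mul, abs_of_pos (two_pos : (0:ℝ) < 2)]
    have := mul_le_mul_of_nonneg_left hs (by positivity : 0 ≤ 2 * |m.phi.d|)
    linarith
  have h2 := mul_le_mul_of_nonneg_right h1 h.sg_pos.le
  have h3 := h.dd
  have h4 := h.nn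
  unfold kD at h3 h4
  unfold kM0
  nlinarith

/-- a flat member with small value and slope at its centre is `Ok kM0 0`. -/
theorem ok (h : Flat m) (hld : |m.phi.ld m.c (lat m.X0) (m.X0 2) m.s0| ≤ kM0 * m.sg)
    (hev : |m.phi.ev (lat m.X0) (m.X0 2) m.s0| ≤ kM0 * m.sg * m.R) : m.Ok kM0 0 := by
  refine ⟨h.hR, h.hs1, h.hsg, ⟨h.disc, fun s hs => ?_, hld, hev⟩⟩
  rw [T_zero]
  have := mul_le_mul_of_nonneg_right (h.ny_le hs) h.sg_pos.le
  nlinarith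

end Flat

/-! ### the extended member -/

/-- gradient of the conformal function on the ray `t0` at the time `m.s0`. -/
noncomputable def G0 (m : Mem) (t0 : LRay) : E2 :=
  m.phi.gr t0.1 (rx t0.1 t0.2.1 m.s0) m.s0

/-- the reduction factor. -/
noncomputable def lam (m : Mem) (t0 : LRay) : ℝ := min 1 ‖G0 m t0‖⁻¹

/-- the member based at the ray `t0` of `m`, over `|s - s01| ≤ R1`, absolute widths `w0, w1`. -/
noncomputable def ext (m : Mem) (t0 : LRay) (R1 s01 w0 w1 : ℝ) : Mem where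
  c := t0.1
  sg := w0 / R1
  s1 := w1 / R1
  R := R1
  X0 := rpos t0 s01
  s0 := s01
  phi := frm t0.1 (rx t0.1 t0.2.1 m.s0) (ry t0.1 t0.2.2 m.s0) m.s0 (‖G0 m t0‖⁻¹ • G0 m t0)
    (lam m t0 * m.phi.ny m.s0) (lam m t0 * m.phi.d)

section

variable {m : Mem} {t0 : LRay}

/-- `|‖G‖² - 1| ≤ (1/50) w1/w0`. -/
theorem G0_sq (h : Flat m) (hφ : ∀ s, |s - m.s0| ≤ m.R → |m.phi.val (rpos t0 s, s)| ≤ m.s1 * m.R) :
    |‖G0 m t0‖ ^ 2 - 1| * m.sg ≤ m.s1 / 50 := by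
  have hR := h.hR
  have hsg := h.sg_pos
  have hL := rB_le hR hφ
  have hA := hφ m.s0 (by rw [sub_self, abs_zero]; exact hR.le)
  have hL' : |m.phi.rB t0.1 t0.2.1 t0.2.2| ≤ m.s1 := le_of_mul_le_mul_right hL hR
  have e := Cf.norm_gr_sq m.phi t0.1 (rx t0.1 t0.2.1 m.s0) (ry t0.1 t0.2.2 m.s0) m.s0
  rw [Cf.ld_ray, h.disc] at e
  have hA' : |m.phi.ev (rx t0.1 t0.2.1 m.s0) (ry t0.1 t0.2.2 m.s0) m.s0| ≤ m.s1 * m.R := by
    unfold Cf.val at hA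
    simpa only [lat_rpos, rpos_two] using hA
  set A := m.phi.ev (rx t0.1 t0.2.1 m.s0) (ry t0.1 t0.2.2 m.s0) m.s0
  set L := m.phi.rB t0.1 t0.2.1 t0.2.2
  unfold G0
  rw [e]
  have e2 : (1 + 2 * m.phi.ny m.s0 * L + 4 * m.phi.d * A - 1) * m.sg =
      2 * (m.phi.ny m.s0 * m.sg * L) + 4 * (m.phi.d * m.sg * A) := by ring
  have e3 : |1 + 2 * m.phi.ny m.s0 * L + 4 * m.phi.d * A - 1| * m.sg =
      |2 * (m.phi.ny m.s0 * m.sg * L) + 4 * (m.phi.d * m.sg * A)| := by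
    rw [← e2, abs_mul, abs_of_pos hsg]
  rw [e3]
  refine (abs_add_le _ _).trans ?_
  rw [abs_mul, abs_mul, abs_mul, abs_mul, abs_mul, abs_mul, abs_of_pos hsg,
    abs_of_pos (by norm_num : (0:ℝ) < 2), abs_of_pos (by norm_num : (0:ℝ) < 4)]
  have h1 : |m.phi.ny m.s0| * m.sg * |L| ≤ 2 * kD * m.s1 :=
    mul_le_mul h.nn hL' (abs_nonneg _) (by unfold kD; norm_num)
  have h2 : |m.phi.d| * m.sg * |A| ≤ kD * m.s1 := by
    calc |m.phi.d| * m.sg * |A| ≤ |m.phi.d| * m.sg * (m.s1 * m.R) :=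
          mul_le_mul_of_nonneg_left hA' (by positivity)
      _ = |m.phi.d| * (m.sg * m.R) * m.s1 := by ring
      _ ≤ _ := mul_le_mul_of_nonneg_right h.dd h.hs1.le
  unfold kD at h1 h2
  linarith

theorem G0_near (h : Flat m)
    (hφ : ∀ s, |s - m.s0| ≤ m.R → |m.phi.val (rpos t0 s, s)| ≤ m.s1 * m.R) :
    49 / 50 ≤ ‖G0 m t0‖ ∧ ‖G0 m t0‖ ≤ 51 / 50 := by
  have h1 := G0_sq h hφ
  have hsg := h.sg_pos
  have h2 : |‖G0 m t0‖ ^ 2 - 1| ≤ 1 / 50 := by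
    have h3 : |‖G0 m t0‖ ^ 2 - 1| * m.sg ≤ 1 / 50 * m.sg := by
      have := h.hsg
      linarith
    exact le_of_mul_le_mul_right h3 hsg
  rw [abs_le] at h2
  have h0 := norm_nonneg (G0 m t0)
  constructor <;> nlinarith

theorem lam_le_one : lam m t0 ≤ 1 := min_le_left _ _

theorem lam_nonneg : 0 ≤ lam m t0 := le_min zero_le_one (by positivity)

/-- difference of the reduction factor and the normalisation. -/
theorem lam_sub (h : Flat m)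
    (hφ : ∀ s, |s - m.s0| ≤ m.R → |m.phi.val (rpos t0 s, s)| ≤ m.s1 * m.R) :
    |lam m t0 - ‖G0 m t0‖⁻¹| * m.sg ≤ m.s1 / 50 := by
  have hsg := h.sg_pos
  obtain ⟨h1, h2⟩ := G0_near h hφ
  have h3 := G0_sq h hφ
  set g := ‖G0 m t0‖ with hg
  have hg0 : 0 < g := by linarith
  have hs1 := h.hs1
  unfold lam
  rw [← hg]
  rcases le_total g⁻¹ 1 with h4 | h4
  · rw [min_eq_right h4, sub_self, abs_zero, zero_mul]
    positivity
  · rw [min_eq_left h4, abs_sub_comm, abs_of_nonneg (by linarith)]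
    have h5 : g ≤ 1 := by
      by_contra hc
      push Not at hc
      have := inv_lt_one_of_one_lt₀ hc
      linarith
    have h6 : g⁻¹ - 1 ≤ |g ^ 2 - 1| := by
      rw [abs_sub_comm, abs_of_nonneg (by nlinarith)]
      have e : g⁻¹ - 1 = (1 - g) / g := by field_simp
      rw [e, div_le_iff₀ hg0]
      nlinarith [mul_nonneg (by linarith : 0 ≤ 1 - g) (by linarith : 0 ≤ g - 49 / 50)]
    exact (mul_le_mul_of_nonneg_right h6 hsg.le).trans h3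

variable {R1 s01 w0 w1 : ℝ}

/-- `∂_y` of the extended function. -/
theorem ny_ext (s : ℝ) : (ext m t0 R1 s01 w0 w1).phi.ny s = lam m t0 * m.phi.ny s := by
  change (frm _ _ _ _ _ _ _).ny s = _
  rw [ny_frm]
  unfold Cf.ny
  ring

/-- **the extended member is flat**. -/
theorem ext_flat (h : Flat m)
    (hφ : ∀ s, |s - m.s0| ≤ m.R → |m.phi.val (rpos t0 s, s)| ≤ m.s1 * m.R)
    (hR1 : m.R ≤ R1) (hs : |s01 - m.s0| ≤ (R1 - m.R) / 2) (hw1 : 0 < w1) (hw : w1 ≤ w0)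
    (hw0 : w0 ≤ m.sg * m.R) : Flat (ext m t0 R1 s01 w0 w1) := by
  have hR := h.hR
  have hR1' : 0 < R1 := hR.trans_le hR1
  obtain ⟨g1, g2⟩ := G0_near h hφ
  have hg0 : 0 < ‖G0 m t0‖ := by linarith
  refine ⟨hR1', div_pos hw1 hR1', div_le_div_of_nonneg_right hw hR1'.le, ?_, ?_, ?_⟩
  · change (frm _ _ _ _ _ _ _).disc = 1
    rw [disc_frm, norm_smul, norm_inv, norm_norm, inv_mul_cancel₀ hg0.ne', one_pow]
  · change |lam m t0 * m.phi.d| * (w0 / R1 * R1) ≤ kD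
    rw [div_mul_cancel₀ _ hR1'.ne', abs_mul, abs_of_nonneg lam_nonneg]
    have h1 : |m.phi.d| * w0 ≤ kD := (mul_le_mul_of_nonneg_left hw0 (abs_nonneg _)).trans h.dd
    have h2 : 0 ≤ |m.phi.d| * w0 := mul_nonneg (abs_nonneg _) (by linarith)
    have h3 := mul_le_mul_of_nonneg_right (lam_le_one (m := m) (t0 := t0)) h2
    linarith
  · rw [ny_ext]
    change |lam m t0 * m.phi.ny s01| * (w0 / R1) ≤ 2 * kD
    rw [abs_mul, abs_of_nonneg lam_nonneg, mul_assoc]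
    have hw00 : 0 ≤ w0 := by linarith
    have h0 : 0 ≤ |m.phi.ny s01| * (w0 / R1) := by positivity
    have h1 := mul_le_mul_of_nonneg_right (lam_le_one (m := m) (t0 := t0)) h0
    refine h1.trans ?_
    rw [one_mul, ← mul_div_assoc, div_le_iff₀ hR1']
    have e : m.phi.ny s01 = m.phi.ny m.s0 - 2 * m.phi.d * (s01 - m.s0) := by unfold Cf.ny; ring
    have h2 : |m.phi.ny s01| ≤ |m.phi.ny m.s0| + 2 * |m.phi.d| * ((R1 - m.R) / 2) := by
      rw [e]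
      refine (abs_sub _ _).trans ?_
      rw [abs_mul, abs_mul, abs_of_pos (two_pos : (0:ℝ) < 2)]
      have := mul_le_mul_of_nonneg_left hs (by positivity : 0 ≤ 2 * |m.phi.d|)
      linarith
    have h3 : |m.phi.ny s01| * w0 ≤
        (|m.phi.ny m.s0| + 2 * |m.phi.d| * ((R1 - m.R) / 2)) * (m.sg * m.R) :=
      mul_le_mul h2 hw0 hw00 (by
        have : 0 ≤ R1 - m.R := by linarith
        positivity)
    have h4 := mul_le_mul_of_nonneg_right h.nn hR.le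
    have h5 := mul_le_mul_of_nonneg_right h.dd (by linarith : 0 ≤ R1 - m.R)
    unfold kD at h4 h5 ⊢
    nlinarith

theorem ext_ld : (ext m t0 R1 s01 w0 w1).phi.ld (ext m t0 R1 s01 w0 w1).c
    (lat (ext m t0 R1 s01 w0 w1).X0) ((ext m t0 R1 s01 w0 w1).X0 2)
    (ext m t0 R1 s01 w0 w1).s0 = 0 := by
  change (frm t0.1 (rx t0.1 t0.2.1 m.s0) (ry t0.1 t0.2.2 m.s0) m.s0 _ _ _).ld t0.1
    (lat (rpos t0 s01)) (rpos t0 s01 2) s01 = 0
  rw [lat_rpos, rpos_two, Cf.ld_ray, rB_frm_ray]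

theorem ext_ev : (ext m t0 R1 s01 w0 w1).phi.ev
    (lat (ext m t0 R1 s01 w0 w1).X0) ((ext m t0 R1 s01 w0 w1).X0 2)
    (ext m t0 R1 s01 w0 w1).s0 = 0 := by
  change (frm t0.1 (rx t0.1 t0.2.1 m.s0) (ry t0.1 t0.2.2 m.s0) m.s0 _ _ _).ev
    (lat (rpos t0 s01)) (rpos t0 s01 2) s01 = 0
  rw [lat_rpos, rpos_two, ev_frm_ray]

/-- **the extended member is admissible**. -/
theorem ext_ok (h : Flat m)
    (hφ : ∀ s, |s - m.s0| ≤ m.R → |m.phi.val (rpos t0 s, s)| ≤ m.s1 * m.R)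
    (hR1 : m.R ≤ R1) (hs : |s01 - m.s0| ≤ (R1 - m.R) / 2) (hw1 : 0 < w1) (hw : w1 ≤ w0)
    (hw0 : w0 ≤ m.sg * m.R) : (ext m t0 R1 s01 w0 w1).Ok kM0 0 := by
  have hf := ext_flat (s01 := s01) h hφ hR1 hs hw1 hw hw0
  have hk : (0:ℝ) ≤ kM0 := by unfold kM0; norm_num
  refine hf.ok ?_ ?_
  · rw [ext_ld, abs_zero]
    exact mul_nonneg hk hf.sg_pos.le
  · rw [ext_ev, abs_zero]
    exact mul_nonneg (mul_nonneg hk hf.sg_pos.le) hf.hR.le

/-- the slab estimate. -/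
theorem slab_est {A A0 L L0 ds R R1 sg s1 w0 w1 N mu la ny d wn Q : ℝ} (hR : 0 < R) (hR1 : R ≤ R1)
    (hw1' : 0 < w1) (hw0' : 0 < w0) (hw0 : w0 ≤ sg * R) (hw1 : s1 * R ≤ w1)
    (hss : |ds| ≤ 3 / 2 * R1) (hwn : |wn| ≤ 5 / 8 * w0) (hN : |N| * R1 ≤ 3 / 10 * w0 ^ 2)
    (c4 : |A - A0| ≤ w1 / 8) (c5 : |L - L0| * R1 ≤ w1 / 8) (hmu0 : 0 ≤ mu) (hmu : mu ≤ 26 / 25)
    (hls : |la - mu| * sg ≤ s1 / 50) (hny : |ny| * sg ≤ 2 * kD) (hd : |d| * (sg * R) ≤ kD)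
    (hQ : Q = wn ^ 2 - 2 * ds * N) :
    |mu * ((A - A0) + (L - L0) * ds) + (la - mu) * (ny * N + d * Q)| ≤ w1 := by
  have hR1' : 0 < R1 := hR.trans_le hR1
  have hkD : (0:ℝ) ≤ kD := by unfold kD; norm_num
  have b1 : |(A - A0) + (L - L0) * ds| ≤ 5 / 16 * w1 := by
    refine (abs_add_le _ _).trans ?_
    rw [abs_mul]
    have := mul_le_mul_of_nonneg_left hss (abs_nonneg (L - L0))
    linarith
  have k1 : |ny| * |N| ≤ 2 * kD * (3 / 10 * w0) := by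
    have q1 : |ny| * w0 ≤ 2 * kD * R1 := by
      calc |ny| * w0 ≤ |ny| * (sg * R) := mul_le_mul_of_nonneg_left hw0 (abs_nonneg _)
        _ = |ny| * sg * R := by ring
        _ ≤ 2 * kD * R := mul_le_mul_of_nonneg_right hny hR.le
        _ ≤ _ := mul_le_mul_of_nonneg_left hR1 (by linarith)
    have q2 : |ny| * (|N| * R1) ≤ |ny| * (3 / 10 * w0 ^ 2) :=
      mul_le_mul_of_nonneg_left hN (abs_nonneg _)
    have q3 : (|ny| * |N|) * R1 ≤ (2 * kD * (3 / 10 * w0)) * R1 := by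
      calc (|ny| * |N|) * R1 = |ny| * (|N| * R1) := by ring
        _ ≤ |ny| * (3 / 10 * w0 ^ 2) := q2
        _ = (|ny| * w0) * (3 / 10 * w0) := by ring
        _ ≤ (2 * kD * R1) * (3 / 10 * w0) := mul_le_mul_of_nonneg_right q1 (by positivity)
        _ = _ := by ring
    exact le_of_mul_le_mul_right q3 hR1'
  have k2 : |d| * |Q| ≤ kD * (13 / 10 * w0) := by
    have q1 : |d| * w0 ≤ kD := (mul_le_mul_of_nonneg_left hw0 (abs_nonneg _)).trans hd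
    have q2 : |Q| ≤ 13 / 10 * w0 ^ 2 := by
      rw [hQ]
      refine (abs_sub _ _).trans ?_
      rw [abs_of_nonneg (sq_nonneg wn), abs_mul, abs_mul, abs_of_pos (two_pos : (0:ℝ) < 2)]
      have r1 : wn ^ 2 ≤ (5 / 8 * w0) ^ 2 := by
        rw [← sq_abs]
        exact pow_le_pow_left₀ (abs_nonneg _) hwn 2
      have r2 : 2 * |ds| * |N| ≤ 3 * (3 / 10 * w0 ^ 2) := by
        have := mul_le_mul_of_nonneg_right hss (abs_nonneg N)
        linarith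
      nlinarith
    calc |d| * |Q| ≤ |d| * (13 / 10 * w0 ^ 2) := mul_le_mul_of_nonneg_left q2 (abs_nonneg _)
      _ = |d| * w0 * (13 / 10 * w0) := by ring
      _ ≤ _ := mul_le_mul_of_nonneg_right q1 (by positivity)
  have hk : 0 ≤ kD * w0 := mul_nonneg hkD hw0'.le
  have b2 : |ny * N + d * Q| ≤ 3 * kD * w0 := by
    refine (abs_add_le _ _).trans ?_
    rw [abs_mul, abs_mul]
    linarith
  have b3 : |la - mu| * w0 ≤ w1 / 50 := by
    have q1 : |la - mu| * w0 ≤ |la - mu| * (sg * R) :=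
      mul_le_mul_of_nonneg_left hw0 (abs_nonneg _)
    have q2 := mul_le_mul_of_nonneg_right hls hR.le
    linarith
  refine (abs_add_le _ _).trans ?_
  rw [abs_mul, abs_mul, abs_of_nonneg hmu0]
  have b4 : mu * |(A - A0) + (L - L0) * ds| ≤ 26 / 25 * (5 / 16 * w1) :=
    mul_le_mul hmu b1 (abs_nonneg _) (by norm_num)
  have b5 : |la - mu| * |ny * N + d * Q| ≤ 3 * kD * (w1 / 50) := by
    calc _ ≤ |la - mu| * (3 * kD * w0) := mul_le_mul_of_nonneg_left b2 (abs_nonneg _)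
      _ = 3 * kD * (|la - mu| * w0) := by ring
      _ ≤ _ := mul_le_mul_of_nonneg_left b3 (by linarith)
  unfold kD at b5
  linarith

/-- displacement of the rays `t`, `t0` at the time `s` (from the data at the time `u`). -/
noncomputable def dW (t t0 : LRay) (u s : ℝ) : E2 :=
  (rx t.1 t.2.1 u - rx t0.1 t0.2.1 u) - (s - u) • (t.1 - t0.1)

/-- null displacement of the rays `t`, `t0` in the frame of `t0` at the time `u`. -/
noncomputable def dN (t t0 : LRay) (u : ℝ) : ℝ :=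
  nrm t0.1 (rx t.1 t.2.1 u) (ry t.1 t.2.2 u) u - nrm t0.1 (rx t0.1 t0.2.1 u) (ry t0.1 t0.2.2 u) u

theorem dW_eq (t t0 : LRay) (u s v : ℝ) :
    rx t.1 t.2.1 s - rx t0.1 t0.2.1 v + (s - v) • t0.1 = dW t t0 u s := by
  unfold rx dW rx
  module

theorem dN_eq (t t0 : LRay) (u s v : ℝ) : nrm t0.1 (rx t.1 t.2.1 s) (ry t.1 t.2.2 s) s -
      nrm t0.1 (rx t0.1 t0.2.1 v) (ry t0.1 t0.2.2 v) v =
      dN t t0 u + (s - u) * (‖t.1 - t0.1‖ ^ 2 / 2) := by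
  unfold dN
  rw [nrm_ray', nrm_ray', nrm_ray', nrm_ray']
  simp only [sub_self, norm_zero]
  ring

theorem dW_le {t : LRay} {u s R1 w0 : ℝ} (hss : |s - u| ≤ 3 / 2 * R1)
    (c1 : ‖t.1 - t0.1‖ * R1 ≤ w0 / 4)
    (c2 : ‖rx t.1 t.2.1 u - rx t0.1 t0.2.1 u‖ ≤ w0 / 4) : ‖dW t t0 u s‖ ≤ 5 / 8 * w0 := by
  unfold dW
  refine (norm_sub_le _ _).trans ?_
  rw [norm_smul, Real.norm_eq_abs]
  have h1 := mul_le_mul_of_nonneg_right hss (norm_nonneg (t.1 - t0.1))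
  linarith

theorem dN_le {t : LRay} {u s R1 w0 : ℝ} (hR1' : 0 < R1) (hss : |s - u| ≤ 3 / 2 * R1)
    (c1 : ‖t.1 - t0.1‖ * R1 ≤ w0 / 4) (c3 : |dN t t0 u| * R1 ≤ w0 ^ 2 / 4) :
    |dN t t0 u + (s - u) * (‖t.1 - t0.1‖ ^ 2 / 2)| * R1 ≤ 3 / 10 * w0 ^ 2 := by
  have h1 : |dN t t0 u + (s - u) * (‖t.1 - t0.1‖ ^ 2 / 2)| ≤
      |dN t t0 u| + 3 / 2 * R1 * (‖t.1 - t0.1‖ ^ 2 / 2) := by
    refine (abs_add_le _ _).trans ?_
    rw [abs_mul, abs_of_nonneg (a := ‖t.1 - t0.1‖ ^ 2 / 2) (by positivity)]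
    have := mul_le_mul_of_nonneg_right hss (by positivity : 0 ≤ ‖t.1 - t0.1‖ ^ 2 / 2)
    linarith
  have h2 := mul_le_mul_of_nonneg_right h1 hR1'.le
  have h3 : (‖t.1 - t0.1‖ * R1) ^ 2 ≤ (w0 / 4) ^ 2 :=
    pow_le_pow_left₀ (by positivity) c1 2
  have h4 : 3 / 2 * R1 * (‖t.1 - t0.1‖ ^ 2 / 2) * R1 = 3 / 4 * (‖t.1 - t0.1‖ * R1) ^ 2 := by ring
  have h5 : 0 ≤ w0 ^ 2 := sq_nonneg _
  linarith

/-- **rays of the extended member**: closeness to `t0` measured at the time `m.s0`. -/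
theorem mem_ext (h : Flat m)
    (hφ : ∀ s, |s - m.s0| ≤ m.R → |m.phi.val (rpos t0 s, s)| ≤ m.s1 * m.R)
    (hR1 : m.R ≤ R1) (hs : |s01 - m.s0| ≤ (R1 - m.R) / 2) (hw : w1 ≤ w0)
    (hw0 : w0 ≤ m.sg * m.R) (hw1 : m.s1 * m.R ≤ w1) {t : LRay}
    (c1 : ‖t.1 - t0.1‖ * R1 ≤ w0 / 4)
    (c2 : ‖rx t.1 t.2.1 m.s0 - rx t0.1 t0.2.1 m.s0‖ ≤ w0 / 4)
    (c3 : |dN t t0 m.s0| * R1 ≤ w0 ^ 2 / 4)
    (c4 : |m.phi.val (rpos t m.s0, m.s0) - m.phi.val (rpos t0 m.s0, m.s0)| ≤ w1 / 8)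
    (c5 : |m.phi.rB t.1 t.2.1 t.2.2 - m.phi.rB t0.1 t0.2.1 t0.2.2| * R1 ≤ w1 / 8) :
    t ∈ (ext m t0 R1 s01 w0 w1).rays 0 := by
  have hR := h.hR
  have hR1' : 0 < R1 := hR.trans_le hR1
  have hw1' : 0 < w1 := lt_of_lt_of_le (mul_pos h.hs1 hR) hw1
  have hw0' : 0 < w0 := hw1'.trans_le hw
  obtain ⟨g1, g2⟩ := G0_near h hφ
  have hls := lam_sub h hφ
  rw [Mem.mem_rays]
  have hT : (ext m t0 R1 s01 w0 w1).T 0 = (w0 / R1) ^ 2 := T_zero _
  rw [hT]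
  change RayIn t0.1 (w0 / R1) ((w0 / R1) ^ 2) R1 (lat (rpos t0 s01)) (rpos t0 s01 2) s01
    (frm t0.1 (rx t0.1 t0.2.1 m.s0) (ry t0.1 t0.2.2 m.s0) m.s0 (‖G0 m t0‖⁻¹ • G0 m t0)
    (lam m t0 * m.phi.ny m.s0) (lam m t0 * m.phi.d)) (w1 / R1 * R1) t.1 t.2.1 t.2.2
  rw [lat_rpos, rpos_two, div_mul_cancel₀ _ hR1'.ne']
  have hC0 := norm_nonneg (t.1 - t0.1)
  refine ⟨?_, fun s hs' => ?_⟩
  · rw [le_div_iff₀ hR1']
    linarith
  -- data at time s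
  have hss : |s - m.s0| ≤ 3 / 2 * R1 := by
    have e : s - m.s0 = (s - s01) + (s01 - m.s0) := by ring
    rw [e]
    refine (abs_add_le _ _).trans ?_
    linarith
  have hwn := dW_le hss c1 c2
  have hNn := dN_le hR1' hss c1 c3
  refine ⟨⟨hs', ?_, ?_⟩, ?_⟩
  · rw [dW_eq t t0 m.s0 s s01, div_mul_cancel₀ _ hR1'.ne']
    linarith
  · rw [dN_eq t t0 m.s0 s s01]
    have e : (w0 / R1) ^ 2 * R1 = w0 ^ 2 / R1 := by field_simp
    rw [e, le_div_iff₀ hR1']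
    linarith [sq_nonneg w0]
  -- the slab
  have hexp := Cf.ev_expand m.phi t0.1 (rx t0.1 t0.2.1 m.s0) (ry t0.1 t0.2.2 m.s0) m.s0
    (rx t.1 t.2.1 s) (ry t.1 t.2.2 s) s
  rw [ev_frm]
  rw [dW_eq t t0 m.s0 s m.s0, dN_eq t t0 m.s0 s m.s0] at hexp ⊢
  rw [Cf.ld_ray] at hexp
  have hval := val_rpos m.phi t s m.s0
  have e1 : m.phi.val (rpos t s, s) = m.phi.ev (rx t.1 t.2.1 s) (ry t.1 t.2.2 s) s := by
    unfold Cf.val; simp only [lat_rpos, rpos_two]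
  have e2 : m.phi.val (rpos t0 m.s0, m.s0) =
      m.phi.ev (rx t0.1 t0.2.1 m.s0) (ry t0.1 t0.2.2 m.s0) m.s0 := by
    unfold Cf.val; simp only [lat_rpos, rpos_two]
  rw [← e1, ← e2, hval] at hexp
  have hG : m.phi.gr t0.1 (rx t0.1 t0.2.1 m.s0) m.s0 = G0 m t0 := rfl
  rw [hG] at hexp
  rw [real_inner_smul_left]
  have hmu1 : ‖G0 m t0‖⁻¹ ≤ 26 / 25 := by
    rw [inv_le_comm₀ (by linarith) (by norm_num)]
    linarith
  have key := slab_est (Q := ‖dW t t0 m.s0 s‖ ^ 2 - 2 * (s - m.s0) *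
    (dN t t0 m.s0 + (s - m.s0) * (‖t.1 - t0.1‖ ^ 2 / 2))) (wn := ‖dW t t0 m.s0 s‖) hR hR1
    hw1' hw0' hw0 hw1 hss (by rw [abs_of_nonneg (norm_nonneg _)]; exact hwn) hNn c4 c5
    (by positivity : 0 ≤ ‖G0 m t0‖⁻¹) hmu1 hls h.nn h.dd rfl
  refine le_trans (le_of_eq ?_) key
  congr 1
  generalize inner ℝ (G0 m t0) (dW t t0 m.s0 s) = g at hexp ⊢
  generalize ‖dW t t0 m.s0 s‖ ^ 2 = W at hexp ⊢
  generalize dN t t0 m.s0 + (s - m.s0) * (‖t.1 - t0.1‖ ^ 2 / 2) = N at hexp ⊢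
  have e3 : g = m.phi.val (rpos t m.s0, m.s0) + (s - m.s0) * m.phi.rB t.1 t.2.1 t.2.2 -
      m.phi.val (rpos t0 m.s0, m.s0) - m.phi.rB t0.1 t0.2.1 t0.2.2 * (s - m.s0) -
      m.phi.ny m.s0 * N - m.phi.d * (W - 2 * (s - m.s0) * N) := by linarith
  rw [e3]
  ring

end

end Crest.Agent.R116.Ext803
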