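import Crest.Agent.R116.Ext1_803

/-!
# R116 (K side), block K1, part 2: cells of rays, cover by extended members (helper803)

* `ext_adm` : the extension of a mark of `AdmL r i J a` at one of its rays, over the ancestor cell
  `J1` of level `i1 ≤ i`, with a narrower (or equal) box and a thicker (or equal) slab, is again
  `AdmL r i1 J1 a'`.
* `cell_close` : rays of a mark with close coordinates `u1 .. u5` are close to each other.
* `cover_one` : a finite set `S` of rays of a mark has a part `S'` with `#S ≤ KC 8^(i - i1) #S'`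
  inside ONE admissible member of level `i1` of the same absolute widths.
-/

set_option autoImplicit false

namespace Crest.Agent.R116.Ext803

open Crest.Agent.R138.Defs (E2)
open Crest.Agent.R116.CDef480 (E3 lat pt vel)
open Crest.Agent.R116.LZg725
open Crest.Agent.R116.KI439 (LRay kM0 kD AdmL)

/-! ### `AdmL` -/

section adm

variable {r : ℝ} {i : ℕ} {J : ℤ} {a : Fin 2 → ℕ} {m : Mem}

theorem flat_of_adm (h : AdmL r i J a m) : Flat m :=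
  ⟨h.ok.hR, h.ok.hs1, h.ok.hsg, h.ok.adm.disc, h.dd, h.nn⟩

theorem val_of_mem {t : LRay} (ht : t ∈ m.rays 0) :
    ∀ s, |s - m.s0| ≤ m.R → |m.phi.val (rpos t s, s)| ≤ m.s1 * m.R :=
  fun s hs => (ht.2 s hs).2

/-- the cell `J1` of level `i1` contains the cell `J` of level `i` (centres). -/
def Anc (i : ℕ) (J : ℤ) (i1 : ℕ) (J1 : ℤ) : Prop :=
  |((J1 : ℝ) + 1 / 2) * (1 / 2 : ℝ) ^ i1 - ((J : ℝ) + 1 / 2) * (1 / 2 : ℝ) ^ i| ≤
    ((1 / 2 : ℝ) ^ i1 - (1 / 2 : ℝ) ^ i) / 2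

theorem anc_of_zc {i1 : ℕ} {J1 : ℤ} (hi : i1 ≤ i) {z : ℝ} (h : ⌊(2 : ℝ) ^ i * z⌋ = J)
    (h1 : ⌊(2 : ℝ) ^ i1 * z⌋ = J1) : Anc i J i1 J1 := by
  obtain ⟨k, rfl⟩ := Nat.exists_eq_add_of_le hi
  have hJ := Int.floor_eq_iff.1 h
  have hJ1 := Int.floor_eq_iff.1 h1
  have hk : (0:ℝ) < 2 ^ k := by positivity
  have e : (2:ℝ) ^ (i1 + k) * z = 2 ^ k * (2 ^ i1 * z) := by rw [pow_add]; ring
  rw [e] at hJ
  have q1 : J1 * 2 ^ k ≤ J := by
    rw [← h, Int.le_floor, e]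
    push_cast
    nlinarith [hJ1.1]
  have q2 : J + 1 ≤ (J1 + 1) * 2 ^ k := by
    have : (J : ℝ) < ((J1 + 1) * 2 ^ k : ℤ) := by
      push_cast
      calc (J : ℝ) ≤ 2 ^ k * (2 ^ i1 * z) := hJ.1
        _ < 2 ^ k * (J1 + 1) := mul_lt_mul_of_pos_left hJ1.2 hk
        _ = _ := by ring
    have := Int.cast_lt.1 this
    omega
  have q1' : (J1 : ℝ) * 2 ^ k ≤ J := by exact_mod_cast q1
  have q2' : (J : ℝ) + 1 ≤ (J1 + 1) * 2 ^ k := by exact_mod_cast q2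
  unfold Anc
  have e1 : (1 / 2 : ℝ) ^ i1 = (1 / 2 : ℝ) ^ (i1 + k) * 2 ^ k := by
    rw [pow_add, mul_assoc, ← mul_pow]; norm_num
  rw [e1]
  have hp : (0:ℝ) < (1 / 2 : ℝ) ^ (i1 + k) := by positivity
  have e2 : ((J1 : ℝ) + 1 / 2) * ((1 / 2 : ℝ) ^ (i1 + k) * 2 ^ k) -
      ((J : ℝ) + 1 / 2) * (1 / 2 : ℝ) ^ (i1 + k) =
      (1 / 2 : ℝ) ^ (i1 + k) * (((J1 : ℝ) + 1 / 2) * 2 ^ k - ((J : ℝ) + 1 / 2)) := by ring
  rw [e2, abs_mul, abs_of_pos hp]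
  have e3 : ((1 / 2 : ℝ) ^ (i1 + k) * 2 ^ k - (1 / 2 : ℝ) ^ (i1 + k)) / 2 =
      (1 / 2 : ℝ) ^ (i1 + k) * ((2 ^ k - 1) / 2) := by ring
  rw [e3]
  refine mul_le_mul_of_nonneg_left ?_ hp.le
  rw [abs_le]
  constructor <;> linarith

/-- **extension of a mark**. -/
theorem ext_adm (h : AdmL r i J a m) {t0 : LRay} (ht0 : t0 ∈ m.rays 0) {i1 : ℕ} {J1 : ℤ}
    (hi : i1 ≤ i) (hJ : Anc i J i1 J1) {a' : Fin 2 → ℕ} (ha0 : a 0 ≤ a' 0) (ha1 : a' 1 ≤ a 1)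
    (ha : a' 0 ≤ a' 1) :
    AdmL r i1 J1 a' (ext m t0 ((1 / 2 : ℝ) ^ i1) (((J1 : ℝ) + 1 / 2) * (1 / 2 : ℝ) ^ i1)
      ((1 / 2 : ℝ) ^ (a' 0)) ((1 / 2 : ℝ) ^ (a' 1))) := by
  have hf := flat_of_adm h
  have hφ := val_of_mem ht0
  have hR1 : m.R ≤ (1 / 2 : ℝ) ^ i1 := by
    rw [h.hR]
    exact pow_le_pow_of_le_one (by norm_num) (by norm_num) hi
  have hp : (0:ℝ) < (1 / 2 : ℝ) ^ i1 := by positivity
  have hs : |((J1 : ℝ) + 1 / 2) * (1 / 2 : ℝ) ^ i1 - m.s0| ≤ ((1 / 2 : ℝ) ^ i1 - m.R) / 2 := by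
    rw [h.hs0, h.hR]; exact hJ
  have hw1 : (0:ℝ) < (1 / 2 : ℝ) ^ (a' 1) := by positivity
  have hw : (1 / 2 : ℝ) ^ (a' 1) ≤ (1 / 2 : ℝ) ^ (a' 0) :=
    pow_le_pow_of_le_one (by norm_num) (by norm_num) ha
  have hw0 : (1 / 2 : ℝ) ^ (a' 0) ≤ m.sg * m.R := by
    rw [h.wide]
    exact pow_le_pow_of_le_one (by norm_num) (by norm_num) ha0
  have hfl := ext_flat (s01 := ((J1 : ℝ) + 1 / 2) * (1 / 2 : ℝ) ^ i1) hf hφ hR1 hs hw1 hw hw0
  refine ⟨ext_ok hf hφ hR1 hs hw1 hw hw0, rfl, rfl, ?_, ?_, ?_, ?_, hfl.dd, hfl.nn⟩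
  · change (1 / 2 : ℝ) ^ (a' 0) / (1 / 2 : ℝ) ^ i1 ≤ 1
    rw [div_le_one hp]
    refine hw0.trans ?_
    calc m.sg * m.R ≤ 1 * m.R := mul_le_mul_of_nonneg_right h.sg1 hf.hR.le
      _ ≤ _ := by rw [one_mul]; exact hR1
  · change (1 / 2 : ℝ) ^ (a' 0) / (1 / 2 : ℝ) ^ i1 * (1 / 2 : ℝ) ^ i1 = _
    rw [div_mul_cancel₀ _ hp.ne']
  · change (1 / 2 : ℝ) ^ (a' 1) / (1 / 2 : ℝ) ^ i1 * (1 / 2 : ℝ) ^ i1 = _
    rw [div_mul_cancel₀ _ hp.ne']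
  · change r ≤ (1 / 2 : ℝ) ^ (a' 1) / (1 / 2 : ℝ) ^ i1 * (1 / 2 : ℝ) ^ i1
    rw [div_mul_cancel₀ _ hp.ne']
    refine h.res.trans ?_
    rw [h.thin]
    exact pow_le_pow_of_le_one (by norm_num) (by norm_num) ha1

end adm

/-! ### pigeonhole -/

theorem pigeon {ι : Type*} (S : Finset ι) (f : ι → ℝ) (c X δ : ℝ) (hδ : 0 < δ) (hX : 0 ≤ X)
    (h : ∀ t ∈ S, |f t - c| ≤ X) : ∃ S' ⊆ S, (S.card : ℝ) ≤ (2 * X / δ + 2) * S'.card ∧
      ∀ t ∈ S', ∀ t' ∈ S', |f t - f t'| ≤ δ := by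
  classical
  set T := Finset.Icc ⌊-X / δ⌋ ⌊X / δ⌋ with hT
  set g : ι → ℤ := fun t => ⌊(f t - c) / δ⌋ with hg
  have hle : ⌊-X / δ⌋ ≤ ⌊X / δ⌋ := by
    apply Int.floor_le_floor
    exact div_le_div_of_nonneg_right (by linarith) hδ.le
  have hTne : T.Nonempty := Finset.nonempty_Icc.2 hle
  have hmap : ∀ t ∈ S, g t ∈ T := by
    intro t ht
    have := abs_le.1 (h t ht)
    rw [hT, Finset.mem_Icc]
    exact ⟨Int.floor_le_floor (div_le_div_of_nonneg_right this.1 hδ.le),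
      Int.floor_le_floor (div_le_div_of_nonneg_right this.2 hδ.le)⟩
  have hTcard : (T.card : ℝ) ≤ 2 * X / δ + 2 := by
    rw [hT, Int.card_Icc]
    have h0 : (0:ℤ) ≤ ⌊X / δ⌋ + 1 - ⌊-X / δ⌋ := by omega
    have h1 : (((⌊X / δ⌋ + 1 - ⌊-X / δ⌋).toNat : ℤ) : ℝ) = ((⌊X / δ⌋ + 1 - ⌊-X / δ⌋ : ℤ) : ℝ) := by
      rw [Int.toNat_of_nonneg h0]
    have h2 : (((⌊X / δ⌋ + 1 - ⌊-X / δ⌋).toNat : ℕ) : ℝ) =
        (((⌊X / δ⌋ + 1 - ⌊-X / δ⌋).toNat : ℤ) : ℝ) := by norm_cast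
    rw [h2, h1]
    push_cast
    have h3 := Int.floor_le (X / δ)
    have h4 := Int.lt_floor_add_one (-X / δ)
    have e : 2 * X / δ = X / δ - -X / δ := by ring
    rw [e]
    linarith
  obtain ⟨y, hy, hmax⟩ := Finset.exists_max_image T
    (fun y => (S.filter fun t => g t = y).card) hTne
  refine ⟨S.filter fun t => g t = y, Finset.filter_subset _ _, ?_, ?_⟩
  · have h1 : S.card = ∑ b ∈ T, (S.filter fun t => g t = b).card :=
      Finset.card_eq_sum_card_fiberwise hmap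
    have h2 : S.card ≤ T.card * (S.filter fun t => g t = y).card := by
      rw [h1]
      refine (Finset.sum_le_sum hmax).trans ?_
      rw [Finset.sum_const, smul_eq_mul]
    have h3 : (S.card : ℝ) ≤ T.card * (S.filter fun t => g t = y).card := by exact_mod_cast h2
    exact h3.trans (mul_le_mul_of_nonneg_right hTcard (Nat.cast_nonneg _))
  · intro t ht t' ht'
    have e1 := (Finset.mem_filter.1 ht).2
    have e2 := (Finset.mem_filter.1 ht').2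
    have q1 := Int.floor_eq_iff.1 e1
    have q2 := Int.floor_eq_iff.1 e2
    have e : f t - f t' = δ * ((f t - c) / δ - (f t' - c) / δ) := by
      field_simp
      ring
    rw [e, abs_mul, abs_of_pos hδ]
    have : |(f t - c) / δ - (f t' - c) / δ| ≤ 1 := by
      rw [abs_le]; constructor <;> linarith [q1.1, q1.2, q2.1, q2.2]
    calc δ * _ ≤ δ * 1 := mul_le_mul_of_nonneg_left this hδ.le
      _ = δ := mul_one _

/-! ### the perpendicular direction -/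

/-- rotation by a right angle. -/
noncomputable def perp (G : E2) : E2 := !₂[-G 1, G 0]

theorem norm_perp (G : E2) : ‖perp G‖ = ‖G‖ := by
  unfold perp
  rw [EuclideanSpace.norm_eq, EuclideanSpace.norm_eq]
  congr 1
  simp only [Fin.sum_univ_two, Real.norm_eq_abs, sq_abs]
  simp
  ring

theorem perp_id (G v : E2) :
    (inner ℝ G v) ^ 2 + (inner ℝ (perp G) v) ^ 2 = ‖G‖ ^ 2 * ‖v‖ ^ 2 := by
  rw [EuclideanSpace.norm_sq_eq, EuclideanSpace.norm_sq_eq]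
  unfold perp
  simp only [PiLp.inner_apply, Fin.sum_univ_two, Real.norm_eq_abs, sq_abs]
  simp
  ring

theorem perp_le (G v : E2) : ‖G‖ * ‖v‖ ≤ |inner ℝ (perp G) v| + |inner ℝ G v| := by
  have h := perp_id G v
  have h0 : 0 ≤ |inner ℝ (perp G) v| + |inner ℝ G v| := by positivity
  refine abs_le_of_sq_le_sq' ?_ h0 |>.2
  have e1 := sq_abs (inner ℝ (perp G) v)
  have e2 := sq_abs (inner ℝ G v)
  have e3 : 0 ≤ |inner ℝ (perp G) v| * |inner ℝ G v| := by positivity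
  nlinarith

/-! ### coordinates of rays -/

/-- gradient at the centre. -/
noncomputable def Gc (m : Mem) : E2 := m.phi.gr m.c (lat m.X0) m.s0

noncomputable def u1 (m : Mem) (t : LRay) : ℝ := inner ℝ (perp (Gc m)) t.1

noncomputable def u2 (m : Mem) (t : LRay) : ℝ := inner ℝ (perp (Gc m)) (rx t.1 t.2.1 m.s0)

noncomputable def u3 (m : Mem) (t : LRay) : ℝ := m.phi.rB t.1 t.2.1 t.2.2

noncomputable def u4 (m : Mem) (t : LRay) : ℝ := m.phi.val (rpos t m.s0, m.s0)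

noncomputable def u5 (m : Mem) (t : LRay) : ℝ :=
  nrm m.c (rx t.1 t.2.1 m.s0) (ry t.1 t.2.2 m.s0) m.s0 +
    inner ℝ (t.1 - m.c) (rx t.1 t.2.1 m.s0 - lat m.X0)

section coord

variable {m : Mem}

/-- bounds of a ray of a member. -/
theorem ray_bd (hR : 0 < m.R) {t : LRay} (ht : t ∈ m.rays 0) : ‖t.1 - m.c‖ ≤ m.sg ∧
    ‖rx t.1 t.2.1 m.s0 - lat m.X0‖ ≤ m.sg * m.R ∧
    |nrm m.c (rx t.1 t.2.1 m.s0) (ry t.1 t.2.2 m.s0) m.s0 - nrm m.c (lat m.X0) (m.X0 2) m.s0| ≤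
      m.sg ^ 2 * m.R := by
  rw [Mem.mem_rays, T_zero] at ht
  obtain ⟨h1, h2⟩ := ht
  obtain ⟨⟨-, h3, h4⟩, -⟩ := h2 m.s0 (by rw [sub_self, abs_zero]; exact hR.le)
  rw [sub_self, zero_smul, add_zero] at h3
  exact ⟨h1, h3, h4⟩

theorem Gc_near (h : Flat m) (hok : m.Ok kM0 0) : 49 / 50 ≤ ‖Gc m‖ ∧ ‖Gc m‖ ≤ 51 / 50 := by
  have e := Cf.norm_gr_sq m.phi m.c (lat m.X0) (m.X0 2) m.s0
  have h1 := hok.adm.ld
  have h2 := hok.adm.ev
  rw [h.disc] at e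
  have hR := h.hR
  have hsg := h.sg_pos
  have hny := h.nn
  have hd := h.dd
  set A := m.phi.ev (lat m.X0) (m.X0 2) m.s0
  set L := m.phi.ld m.c (lat m.X0) (m.X0 2) m.s0
  have k1 : |m.phi.ny m.s0 * L| ≤ 2 * kD * kM0 := by
    rw [abs_mul]
    calc |m.phi.ny m.s0| * |L| ≤ |m.phi.ny m.s0| * (kM0 * m.sg) :=
          mul_le_mul_of_nonneg_left h1 (abs_nonneg _)
      _ = |m.phi.ny m.s0| * m.sg * kM0 := by ring
      _ ≤ _ := mul_le_mul_of_nonneg_right hny (by unfold kM0; norm_num)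
  have k2 : |m.phi.d * A| ≤ kD * kM0 := by
    rw [abs_mul]
    calc |m.phi.d| * |A| ≤ |m.phi.d| * (kM0 * m.sg * m.R) :=
          mul_le_mul_of_nonneg_left h2 (abs_nonneg _)
      _ = |m.phi.d| * (m.sg * m.R) * kM0 := by ring
      _ ≤ _ := mul_le_mul_of_nonneg_right hd (by unfold kM0; norm_num)
  change ‖Gc m‖ ^ 2 = _ at e
  unfold kD kM0 at k1 k2
  have k1' := abs_le.1 k1
  have k2' := abs_le.1 k2
  have h0 := norm_nonneg (Gc m)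
  constructor <;> nlinarith

/-- the gradient rotates little. -/
theorem gr_rot (h : Flat m) {C x : E2} (hC : ‖C - m.c‖ ≤ m.sg)
    (hx : ‖x - lat m.X0‖ ≤ m.sg * m.R) : ‖m.phi.gr C x m.s0 - Gc m‖ ≤ 1 / 100 := by
  have e : m.phi.gr C x m.s0 - Gc m =
      (2 * m.phi.d) • (x - lat m.X0) - (m.phi.ny m.s0) • (C - m.c) := by
    unfold Gc
    rw [Cf.gr_dir m.phi m.c C x m.s0, Cf.gr_move m.phi m.c (lat m.X0) x m.s0 m.s0]
    module
  rw [e]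
  refine (norm_sub_le _ _).trans ?_
  rw [norm_smul, norm_smul, Real.norm_eq_abs, Real.norm_eq_abs, abs_mul,
    abs_of_pos (two_pos : (0:ℝ) < 2)]
  have hd := h.dd
  have hny := h.nn
  have h1 : |m.phi.d| * ‖x - lat m.X0‖ ≤ kD :=
    (mul_le_mul_of_nonneg_left hx (abs_nonneg _)).trans hd
  have h2 : |m.phi.ny m.s0| * ‖C - m.c‖ ≤ 2 * kD :=
    (mul_le_mul_of_nonneg_left hC (abs_nonneg _)).trans hny
  unfold kD at h1 h2
  linarith

/-- difference of the contact coordinate. -/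
theorem u5_sub (t t' : LRay) : u5 m t - u5 m t' =
    dN t t' m.s0 + inner ℝ (t.1 - t'.1) (rx t.1 t.2.1 m.s0 - lat m.X0) := by
  unfold u5 dN
  have h1 := nrm_sub m.c t'.1 (rx t.1 t.2.1 m.s0) (ry t.1 t.2.2 m.s0) m.s0
  have h2 := nrm_sub m.c t'.1 (rx t'.1 t'.2.1 m.s0) (ry t'.1 t'.2.2 m.s0) m.s0
  have e1 : inner ℝ (t.1 - t'.1) (rx t.1 t.2.1 m.s0 - lat m.X0) =
      inner ℝ (t.1 - m.c) (rx t.1 t.2.1 m.s0 - lat m.X0) -
        inner ℝ (t'.1 - m.c) (rx t.1 t.2.1 m.s0 - lat m.X0) := by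
    rw [← inner_sub_left]; congr 1; abel
  have e2 : inner ℝ (t'.1 - m.c) (rx t.1 t.2.1 m.s0 - lat m.X0) -
      inner ℝ (t'.1 - m.c) (rx t'.1 t'.2.1 m.s0 - lat m.X0) =
      inner ℝ (t'.1 - m.c) (rx t.1 t.2.1 m.s0 + m.s0 • m.c) -
        inner ℝ (t'.1 - m.c) (rx t'.1 t'.2.1 m.s0 + m.s0 • m.c) := by
    rw [← inner_sub_right, ← inner_sub_right]; congr 1; abel
  rw [e1]
  linarith

/-- difference of the slopes. -/
theorem u3_sub (t t' : LRay) : inner ℝ (m.phi.gr t'.1 (rx t.1 t.2.1 m.s0) m.s0) (t.1 - t'.1) =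
    -(u3 m t - u3 m t') - 2 * m.phi.d * dN t t' m.s0 +
      m.phi.ny m.s0 * ‖t.1 - t'.1‖ ^ 2 / 2 := by
  have h1 := Cf.ld_dir m.phi t'.1 t.1 (rx t.1 t.2.1 m.s0) (ry t.1 t.2.2 m.s0) m.s0
  have h2 := Cf.ld_move m.phi t'.1 (rx t'.1 t'.2.1 m.s0) (rx t.1 t.2.1 m.s0)
    (ry t'.1 t'.2.2 m.s0) (ry t.1 t.2.2 m.s0) m.s0 m.s0
  rw [Cf.ld_ray] at h1
  rw [Cf.ld_ray m.phi t'.1] at h2
  unfold u3 dN
  linarith

/-- difference of the values. -/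
theorem u4_sub (t t' : LRay) : u4 m t - u4 m t' =
    inner ℝ (m.phi.gr t'.1 (rx t'.1 t'.2.1 m.s0) m.s0) (rx t.1 t.2.1 m.s0 - rx t'.1 t'.2.1 m.s0) +
      m.phi.ny m.s0 * dN t t' m.s0 +
      m.phi.d * ‖rx t.1 t.2.1 m.s0 - rx t'.1 t'.2.1 m.s0‖ ^ 2 := by
  have h := Cf.ev_expand m.phi t'.1 (rx t'.1 t'.2.1 m.s0) (ry t'.1 t'.2.2 m.s0) m.s0
    (rx t.1 t.2.1 m.s0) (ry t.1 t.2.2 m.s0) m.s0
  simp only [sub_self, zero_smul, add_zero, mul_zero, zero_mul, sub_zero] at h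
  have e1 : u4 m t = m.phi.ev (rx t.1 t.2.1 m.s0) (ry t.1 t.2.2 m.s0) m.s0 := by
    unfold u4 Cf.val; simp only [lat_rpos, rpos_two]
  have e2 : u4 m t' = m.phi.ev (rx t'.1 t'.2.1 m.s0) (ry t'.1 t'.2.2 m.s0) m.s0 := by
    unfold u4 Cf.val; simp only [lat_rpos, rpos_two]
  rw [e1, e2, h]
  unfold dN
  ring

/-- real arithmetic of `cell_close`, directions. -/
theorem arith_C {g a n w0 w1 R R1 sg d ny p q : ℝ} (hg : 49 / 50 ≤ g)
    (ha : 0 ≤ a) (ha2 : a ≤ 2 * sg) (hR : 0 < R) (hR1 : R ≤ R1) (hw0 : w0 = sg * R) (hw1 : w1 ≤ w0)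
    (hsg : 0 < sg) (hd : |d| * (sg * R) ≤ kD) (hny : |ny| * sg ≤ 2 * kD) (hn0 : 0 ≤ n)
    (hn : n * R1 ≤ w0 ^ 2 / 16 + a * w0 * R1) (hp : p * R1 ≤ w0 / 16)
    (hq : q * R1 ≤ w1 / 16)
    (h : g * a ≤ p + (q + 2 * |d| * n + |ny| * a ^ 2 / 2) + 1 / 100 * a) :
    a * R1 ≤ 21 / 160 * w0 := by
  have hR1' : 0 < R1 := hR.trans_le hR1
  have hw : 0 < w0 := by rw [hw0]; positivity
  have k1 : |d| * n * R1 ≤ kD * (w0 / 16 + a * R1) := by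
    calc |d| * n * R1 = |d| * (n * R1) := by ring
      _ ≤ |d| * (w0 ^ 2 / 16 + a * w0 * R1) := mul_le_mul_of_nonneg_left hn (abs_nonneg _)
      _ = |d| * w0 * (w0 / 16 + a * R1) := by ring
      _ ≤ _ := mul_le_mul_of_nonneg_right (by rw [hw0]; exact hd) (by positivity)
  have k2 : |ny| * a ^ 2 / 2 ≤ 2 * kD * a := by
    have : |ny| * a ≤ 4 * kD := by
      calc |ny| * a ≤ |ny| * (2 * sg) := mul_le_mul_of_nonneg_left ha2 (abs_nonneg _)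
        _ = 2 * (|ny| * sg) := by ring
        _ ≤ _ := by linarith
    calc |ny| * a ^ 2 / 2 = |ny| * a * a / 2 := by ring
      _ ≤ 4 * kD * a / 2 := by
        have := mul_le_mul_of_nonneg_right this ha
        linarith
      _ = _ := by ring
  have h1 := mul_le_mul_of_nonneg_right h hR1'.le
  have h2 := mul_le_mul_of_nonneg_right k2 hR1'.le
  have h3 : 49 / 50 * (a * R1) ≤ g * (a * R1) := mul_le_mul_of_nonneg_right hg (by positivity)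
  unfold kD at k1 h2
  nlinarith

/-- real arithmetic of `cell_close`, positions. -/
theorem arith_x {g b n w0 w1 R R1 sg d ny p q : ℝ} (hg : 49 / 50 ≤ g)
    (hb : 0 ≤ b) (hb2 : b ≤ 2 * w0) (hR : 0 < R) (hR1 : R ≤ R1) (hw0 : w0 = sg * R)
    (hw1 : w1 ≤ w0)
    (hsg : 0 < sg) (hd : |d| * (sg * R) ≤ kD) (hny : |ny| * sg ≤ 2 * kD) (hn0 : 0 ≤ n)
    (hn : n * R1 ≤ w0 ^ 2 / 4) (hp : p ≤ w0 / 16) (hq : q ≤ w1 / 16)
    (h : g * b ≤ p + (q + |ny| * n + |d| * b ^ 2) + 1 / 100 * b) :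
    b ≤ w0 / 4 := by
  have hR1' : 0 < R1 := hR.trans_le hR1
  have hw : 0 < w0 := by rw [hw0]; positivity
  have k1 : |ny| * n ≤ kD / 2 * w0 := by
    have q1 : |ny| * w0 ≤ 2 * kD * R1 := by
      calc |ny| * w0 = |ny| * sg * R := by rw [hw0]; ring
        _ ≤ 2 * kD * R := mul_le_mul_of_nonneg_right hny hR.le
        _ ≤ _ := mul_le_mul_of_nonneg_left hR1 (by unfold kD; norm_num)
    have q3 : (|ny| * n) * R1 ≤ (kD / 2 * w0) * R1 := by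
      calc (|ny| * n) * R1 = |ny| * (n * R1) := by ring
        _ ≤ |ny| * (w0 ^ 2 / 4) := mul_le_mul_of_nonneg_left hn (abs_nonneg _)
        _ = (|ny| * w0) * (w0 / 4) := by ring
        _ ≤ (2 * kD * R1) * (w0 / 4) := mul_le_mul_of_nonneg_right q1 (by positivity)
        _ = _ := by ring
    exact le_of_mul_le_mul_right q3 hR1'
  have k2 : |d| * b ^ 2 ≤ 2 * kD * b := by
    calc |d| * b ^ 2 = |d| * b * b := by ring
      _ ≤ |d| * (2 * w0) * b :=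
        mul_le_mul_of_nonneg_right (mul_le_mul_of_nonneg_left hb2 (abs_nonneg _)) hb
      _ = 2 * (|d| * (sg * R)) * b := by rw [hw0]; ring
      _ ≤ _ := mul_le_mul_of_nonneg_right (by linarith) hb
  have h3 : 49 / 50 * b ≤ g * b := mul_le_mul_of_nonneg_right hg hb
  unfold kD at k1 k2
  linarith

/-- **rays with close coordinates are close.** -/
theorem cell_close (h : Flat m) (hok : m.Ok kM0 0) {R1 : ℝ} (hR1 : m.R ≤ R1) {t t' : LRay}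
    (ht : t ∈ m.rays 0) (ht' : t' ∈ m.rays 0)
    (d1 : |u1 m t - u1 m t'| * R1 ≤ m.sg * m.R / 16)
    (d2 : |u2 m t - u2 m t'| ≤ m.sg * m.R / 16)
    (d3 : |u3 m t - u3 m t'| * R1 ≤ m.s1 * m.R / 16)
    (d4 : |u4 m t - u4 m t'| ≤ m.s1 * m.R / 16)
    (d5 : |u5 m t - u5 m t'| * R1 ≤ (m.sg * m.R) ^ 2 / 16) :
    ‖t.1 - t'.1‖ * R1 ≤ m.sg * m.R / 4 ∧
    ‖rx t.1 t.2.1 m.s0 - rx t'.1 t'.2.1 m.s0‖ ≤ m.sg * m.R / 4 ∧
    |dN t t' m.s0| * R1 ≤ (m.sg * m.R) ^ 2 / 4 := by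
  have hR := h.hR
  have hsg := h.sg_pos
  have hR1' : 0 < R1 := hR.trans_le hR1
  obtain ⟨g1, g2⟩ := Gc_near h hok
  obtain ⟨a1, a2, a3⟩ := ray_bd hR ht
  obtain ⟨b1, b2, b3⟩ := ray_bd hR ht'
  have hw1 : m.s1 * m.R ≤ m.sg * m.R := mul_le_mul_of_nonneg_right h.hsg hR.le
  have hn : |dN t t' m.s0| * R1 ≤ (m.sg * m.R) ^ 2 / 16 + ‖t.1 - t'.1‖ * (m.sg * m.R) * R1 := by
    have e : dN t t' m.s0 = (u5 m t - u5 m t') -
        inner ℝ (t.1 - t'.1) (rx t.1 t.2.1 m.s0 - lat m.X0) := by rw [u5_sub]; ring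
    have h1 : |dN t t' m.s0| ≤ |u5 m t - u5 m t'| + ‖t.1 - t'.1‖ * (m.sg * m.R) := by
      rw [e]
      refine (abs_sub _ _).trans (add_le_add le_rfl ?_)
      exact (abs_real_inner_le_norm _ _).trans (mul_le_mul_of_nonneg_left a2 (norm_nonneg _))
    have := mul_le_mul_of_nonneg_right h1 hR1'.le
    linarith
  have hC2 : ‖t.1 - t'.1‖ ≤ 2 * m.sg := by
    have e : t.1 - t'.1 = (t.1 - m.c) - (t'.1 - m.c) := by abel
    rw [e]
    exact (norm_sub_le _ _).trans (by linarith)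
  have hx2 : ‖rx t.1 t.2.1 m.s0 - rx t'.1 t'.2.1 m.s0‖ ≤ 2 * (m.sg * m.R) := by
    have e : rx t.1 t.2.1 m.s0 - rx t'.1 t'.2.1 m.s0 =
      (rx t.1 t.2.1 m.s0 - lat m.X0) - (rx t'.1 t'.2.1 m.s0 - lat m.X0) := by abel
    rw [e]
    exact (norm_sub_le _ _).trans (by linarith)
  have hCb : ‖t.1 - t'.1‖ * R1 ≤ 21 / 160 * (m.sg * m.R) := by
    have k1 := perp_le (Gc m) (t.1 - t'.1)
    have k2 : inner ℝ (perp (Gc m)) (t.1 - t'.1) = u1 m t - u1 m t' := by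
      unfold u1; rw [inner_sub_right]
    have k3 : |inner ℝ (Gc m) (t.1 - t'.1)| ≤
        (|u3 m t - u3 m t'| + 2 * |m.phi.d| * |dN t t' m.s0| +
          |m.phi.ny m.s0| * ‖t.1 - t'.1‖ ^ 2 / 2) + 1 / 100 * ‖t.1 - t'.1‖ := by
      have e : inner ℝ (Gc m) (t.1 - t'.1) =
          inner ℝ (m.phi.gr t'.1 (rx t.1 t.2.1 m.s0) m.s0) (t.1 - t'.1) -
          inner ℝ (m.phi.gr t'.1 (rx t.1 t.2.1 m.s0) m.s0 - Gc m) (t.1 - t'.1) := by
        rw [inner_sub_left]; ring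
      rw [e]
      refine (abs_sub _ _).trans (add_le_add ?_ ?_)
      · rw [u3_sub]
        refine (abs_add_le _ _).trans (add_le_add ?_ (le_of_eq ?_))
        · refine (abs_sub _ _).trans (add_le_add (le_of_eq (abs_neg _)) (le_of_eq ?_))
          rw [abs_mul, abs_mul, abs_of_pos (two_pos : (0:ℝ) < 2)]
        · rw [abs_div, abs_mul, abs_of_nonneg (sq_nonneg ‖t.1 - t'.1‖),
            abs_of_pos (two_pos : (0:ℝ) < 2)]
      · refine (abs_real_inner_le_norm _ _).trans ?_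
        exact mul_le_mul_of_nonneg_right (gr_rot h b1 a2) (norm_nonneg _)
    rw [k2] at k1
    exact arith_C (w1 := m.s1 * m.R) g1 (norm_nonneg _) hC2 hR hR1 rfl hw1 hsg h.dd h.nn
      (abs_nonneg _) hn d1 d3 (by linarith)
  have hw0 : 0 < m.sg * m.R := mul_pos hsg hR
  have hnb : |dN t t' m.s0| * R1 ≤ (m.sg * m.R) ^ 2 / 4 := by
    have h1 : ‖t.1 - t'.1‖ * (m.sg * m.R) * R1 ≤ 21 / 160 * (m.sg * m.R) ^ 2 := by
      calc ‖t.1 - t'.1‖ * (m.sg * m.R) * R1 = ‖t.1 - t'.1‖ * R1 * (m.sg * m.R) := by ring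
        _ ≤ 21 / 160 * (m.sg * m.R) * (m.sg * m.R) := mul_le_mul_of_nonneg_right hCb hw0.le
        _ = _ := by ring
    have := sq_nonneg (m.sg * m.R)
    linarith
  refine ⟨by linarith, ?_, hnb⟩
  have k1 := perp_le (Gc m) (rx t.1 t.2.1 m.s0 - rx t'.1 t'.2.1 m.s0)
  have k2 : inner ℝ (perp (Gc m)) (rx t.1 t.2.1 m.s0 - rx t'.1 t'.2.1 m.s0) =
      u2 m t - u2 m t' := by
    unfold u2; rw [inner_sub_right]
  have k3 : |inner ℝ (Gc m) (rx t.1 t.2.1 m.s0 - rx t'.1 t'.2.1 m.s0)| ≤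
      (|u4 m t - u4 m t'| + |m.phi.ny m.s0| * |dN t t' m.s0| +
        |m.phi.d| * ‖rx t.1 t.2.1 m.s0 - rx t'.1 t'.2.1 m.s0‖ ^ 2) +
        1 / 100 * ‖rx t.1 t.2.1 m.s0 - rx t'.1 t'.2.1 m.s0‖ := by
    have e : inner ℝ (Gc m) (rx t.1 t.2.1 m.s0 - rx t'.1 t'.2.1 m.s0) =
        ((u4 m t - u4 m t') - m.phi.ny m.s0 * dN t t' m.s0 -
          m.phi.d * ‖rx t.1 t.2.1 m.s0 - rx t'.1 t'.2.1 m.s0‖ ^ 2) -
        inner ℝ (m.phi.gr t'.1 (rx t'.1 t'.2.1 m.s0) m.s0 - Gc m)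
          (rx t.1 t.2.1 m.s0 - rx t'.1 t'.2.1 m.s0) := by
      rw [inner_sub_left, u4_sub]; ring
    rw [e]
    refine (abs_sub _ _).trans (add_le_add ?_ ?_)
    · refine (abs_sub _ _).trans (add_le_add ?_ (le_of_eq ?_))
      · refine (abs_sub _ _).trans (add_le_add le_rfl (le_of_eq ?_))
        rw [abs_mul]
      · rw [abs_mul, abs_of_nonneg (sq_nonneg ‖rx t.1 t.2.1 m.s0 - rx t'.1 t'.2.1 m.s0‖)]
    · refine (abs_real_inner_le_norm _ _).trans ?_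
      exact mul_le_mul_of_nonneg_right (gr_rot h b1 b2) (norm_nonneg _)
  rw [k2] at k1
  exact arith_x (w1 := m.s1 * m.R) g1 (norm_nonneg _) hx2 hR hR1 rfl hw1 hsg h.dd h.nn
    (abs_nonneg _) hnb d2 d4 (by linarith)

end coord

end Crest.Agent.R116.Ext803
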