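import Crest.Agent.R116.Ext2_803
import Crest.Agent.R116.XcDef_794

/-!
# R116 (K side), block K1, part 3: the trivial bound (helper803)

`cover_one` : a finite set `S` of rays of a mark of level `i` has a part `S'` with
`#S ≤ KC 8^(i - i1) #S'` inside ONE admissible member of level `i1 ≤ i` of the same absolute widths.
`trivB` : `Xc794.TrivB KI439.TSS`.
-/

set_option autoImplicit false

namespace Crest.Agent.R116.Ext803

open Crest.Agent.R138.Defs (E2)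
open Crest.Agent.R116.CDef480 (E3 lat pt vel)
open Crest.Agent.R116.LZg725
open Crest.Agent.R116.KI439 (LRay kM0 kD AdmL TSL TSS volL)
open Crest.Agent.R138.Mk163 (zc alive)

/-- the constant of the cover. -/
noncomputable def KC : ℝ := 35 ^ 4 * 66

/-- five pigeonholes. -/
theorem cells {m : Mem} (h : Flat m) (hok : m.Ok kM0 0) {Q : ℝ} (hQ : 1 ≤ Q) {ι : Type*}
    (S : Finset ι) (L : ι → LRay) (hS : ∀ t ∈ S, L t ∈ m.rays 0) :
    ∃ S' ⊆ S, (S.card : ℝ) ≤ KC * Q ^ 3 * S'.card ∧ ∀ t ∈ S', ∀ t' ∈ S',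
      |u1 m (L t) - u1 m (L t')| ≤ m.sg / (16 * Q) ∧
      |u2 m (L t) - u2 m (L t')| ≤ m.sg * m.R / 16 ∧
      |u3 m (L t) - u3 m (L t')| ≤ m.s1 / (16 * Q) ∧
      |u4 m (L t) - u4 m (L t')| ≤ m.s1 * m.R / 16 ∧
      |u5 m (L t) - u5 m (L t')| ≤ m.sg ^ 2 * m.R / (16 * Q) := by
  have hR := h.hR
  have hsg := h.sg_pos
  have hs1 := h.hs1
  have hQ0 : 0 < Q := by linarith
  obtain ⟨g1, g2⟩ := Gc_near h hok
  have hw0 : 0 < m.sg * m.R := mul_pos hsg hR
  have hw1 : 0 < m.s1 * m.R := mul_pos hs1 hR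
  obtain ⟨S1, s1, c1, p1⟩ := pigeon S (fun t => u1 m (L t)) (inner ℝ (perp (Gc m)) m.c)
    (51 / 50 * m.sg) (m.sg / (16 * Q)) (by positivity) (by positivity) (by
      intro t ht
      have := (ray_bd hR (hS t ht)).1
      change |inner ℝ (perp (Gc m)) (L t).1 - _| ≤ _
      rw [← inner_sub_right]
      refine (abs_real_inner_le_norm _ _).trans ?_
      rw [norm_perp]
      exact mul_le_mul g2 this (norm_nonneg _) (by norm_num))
  obtain ⟨S2, s2, c2, p2⟩ := pigeon S1 (fun t => u2 m (L t)) (inner ℝ (perp (Gc m)) (lat m.X0))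
    (51 / 50 * (m.sg * m.R)) (m.sg * m.R / 16) (by positivity) (by positivity) (by
      intro t ht
      have := (ray_bd hR (hS t (s1 ht))).2.1
      change |inner ℝ (perp (Gc m)) (rx (L t).1 (L t).2.1 m.s0) - _| ≤ _
      rw [← inner_sub_right]
      refine (abs_real_inner_le_norm _ _).trans ?_
      rw [norm_perp]
      exact mul_le_mul g2 this (norm_nonneg _) (by norm_num))
  obtain ⟨S3, s3, c3, p3⟩ := pigeon S2 (fun t => u3 m (L t)) 0 m.s1 (m.s1 / (16 * Q))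
    (by positivity) hs1.le (by
      intro t ht
      rw [sub_zero]
      exact le_of_mul_le_mul_right (rB_le hR (val_of_mem (hS t (s1 (s2 ht))))) hR)
  obtain ⟨S4, s4, c4, p4⟩ := pigeon S3 (fun t => u4 m (L t)) 0 (m.s1 * m.R) (m.s1 * m.R / 16)
    (by positivity) hw1.le (by
      intro t ht
      rw [sub_zero]
      exact val_of_mem (hS t (s1 (s2 (s3 ht)))) m.s0 (by rw [sub_self, abs_zero]; exact hR.le))
  obtain ⟨S5, s5, c5, p5⟩ := pigeon S4 (fun t => u5 m (L t)) (nrm m.c (lat m.X0) (m.X0 2) m.s0)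
    (2 * (m.sg ^ 2 * m.R)) (m.sg ^ 2 * m.R / (16 * Q)) (by positivity) (by positivity) (by
      intro t ht
      obtain ⟨b1, b2, b3⟩ := ray_bd hR (hS t (s1 (s2 (s3 (s4 ht)))))
      unfold u5
      have e : ∀ A B C : ℝ, A + B - C = (A - C) + B := fun A B C => by ring
      rw [e]
      refine (abs_add_le _ _).trans ?_
      have h2 : |inner ℝ ((L t).1 - m.c) (rx (L t).1 (L t).2.1 m.s0 - lat m.X0)| ≤
          m.sg * (m.sg * m.R) :=
        (abs_real_inner_le_norm _ _).trans (mul_le_mul b1 b2 (norm_nonneg _) hsg.le)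
      nlinarith)
  refine ⟨S5, s5.trans (s4.trans (s3.trans (s2.trans s1))), ?_, fun t ht t' ht' => ?_⟩
  · have f1 : 2 * (51 / 50 * m.sg) / (m.sg / (16 * Q)) + 2 ≤ 35 * Q := by
      have e : 2 * (51 / 50 * m.sg) / (m.sg / (16 * Q)) = 816 / 25 * Q := by field_simp; ring
      rw [e]; linarith
    have f2 : 2 * (51 / 50 * (m.sg * m.R)) / (m.sg * m.R / 16) + 2 ≤ 35 := by
      have e : 2 * (51 / 50 * (m.sg * m.R)) / (m.sg * m.R / 16) = 816 / 25 := by
        field_simp; ring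
      rw [e]; norm_num
    have f3 : 2 * m.s1 / (m.s1 / (16 * Q)) + 2 ≤ 35 * Q := by
      have e : 2 * m.s1 / (m.s1 / (16 * Q)) = 32 * Q := by field_simp; ring
      rw [e]; linarith
    have f4 : 2 * (m.s1 * m.R) / (m.s1 * m.R / 16) + 2 ≤ 35 := by
      have e : 2 * (m.s1 * m.R) / (m.s1 * m.R / 16) = 32 := by field_simp; ring
      rw [e]; norm_num
    have f5 : 2 * (2 * (m.sg ^ 2 * m.R)) / (m.sg ^ 2 * m.R / (16 * Q)) + 2 ≤ 66 * Q := by
      have e : 2 * (2 * (m.sg ^ 2 * m.R)) / (m.sg ^ 2 * m.R / (16 * Q)) = 64 * Q := by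
        field_simp; ring
      rw [e]; linarith
    have n1 : (0:ℝ) ≤ S1.card := Nat.cast_nonneg _
    have n2 : (0:ℝ) ≤ S2.card := Nat.cast_nonneg _
    have n3 : (0:ℝ) ≤ S3.card := Nat.cast_nonneg _
    have n4 : (0:ℝ) ≤ S4.card := Nat.cast_nonneg _
    have n5 : (0:ℝ) ≤ S5.card := Nat.cast_nonneg _
    have l5 : (S4.card : ℝ) ≤ 66 * Q * S5.card := c5.trans (mul_le_mul_of_nonneg_right f5 n5)
    have l4 : (S3.card : ℝ) ≤ 35 * S4.card := c4.trans (mul_le_mul_of_nonneg_right f4 n4)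
    have l3 : (S2.card : ℝ) ≤ 35 * Q * S3.card := c3.trans (mul_le_mul_of_nonneg_right f3 n3)
    have l2 : (S1.card : ℝ) ≤ 35 * S2.card := c2.trans (mul_le_mul_of_nonneg_right f2 n2)
    have l1 : (S.card : ℝ) ≤ 35 * Q * S1.card := c1.trans (mul_le_mul_of_nonneg_right f1 n1)
    unfold KC
    calc (S.card : ℝ) ≤ 35 * Q * S1.card := l1
      _ ≤ 35 * Q * (35 * S2.card) := by gcongr
      _ ≤ 35 * Q * (35 * (35 * Q * S3.card)) := by gcongr
      _ ≤ 35 * Q * (35 * (35 * Q * (35 * S4.card))) := by gcongr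
      _ ≤ 35 * Q * (35 * (35 * Q * (35 * (66 * Q * S5.card)))) := by gcongr
      _ = _ := by ring
  · exact ⟨p1 t (s2 (s3 (s4 (s5 ht)))) t' (s2 (s3 (s4 (s5 ht')))),
      p2 t (s3 (s4 (s5 ht))) t' (s3 (s4 (s5 ht'))), p3 t (s4 (s5 ht)) t' (s4 (s5 ht')),
      p4 t (s5 ht) t' (s5 ht'), p5 t ht t' ht'⟩

/-- **cover of the rays of a mark by admissible members of a longer cell**, same absolute widths. -/
theorem cover_one {r : ℝ} {i : ℕ} {J : ℤ} {a : Fin 2 → ℕ} {m : Mem} (h : AdmL r i J a m) {i1 : ℕ}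
    {J1 : ℤ} (hi : i1 ≤ i) (hJ : Anc i J i1 J1) {ι : Type*} (S : Finset ι) (hne : S.Nonempty)
    (L : ι → LRay) (hS : ∀ t ∈ S, L t ∈ m.rays 0) :
    ∃ m1 : Mem, AdmL r i1 J1 a m1 ∧ ∃ S' ⊆ S, (∀ t ∈ S', L t ∈ m1.rays 0) ∧
      (S.card : ℝ) ≤ KC * 8 ^ (i - i1) * S'.card := by
  have hf := flat_of_adm h
  have hR := hf.hR
  have hsg := hf.sg_pos
  have hs1 := hf.hs1
  have hQ : (1:ℝ) ≤ 2 ^ (i - i1) := one_le_pow₀ (by norm_num)
  have hR1 : m.R * 2 ^ (i - i1) = (1 / 2 : ℝ) ^ i1 := by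
    rw [h.hR]
    obtain ⟨k, rfl⟩ := Nat.exists_eq_add_of_le hi
    rw [Nat.add_sub_cancel_left, pow_add, mul_assoc, ← mul_pow]
    norm_num
  have hQ0 : (0:ℝ) < 2 ^ (i - i1) := by positivity
  obtain ⟨S5, s5, c5, p5⟩ := cells hf h.ok hQ S L hS
  have hne5 : S5.Nonempty := by
    rw [Finset.nonempty_iff_ne_empty]
    rintro rfl
    rw [Finset.card_empty, Nat.cast_zero, mul_zero] at c5
    have : (0:ℝ) < S.card := by exact_mod_cast hne.card_pos
    linarith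
  obtain ⟨t0, ht0⟩ := hne5
  have ht0m := hS t0 (s5 ht0)
  have hab : a 0 ≤ a 1 := by
    by_contra hc
    push Not at hc
    have h1 : m.s1 * m.R ≤ m.sg * m.R := mul_le_mul_of_nonneg_right hf.hsg hR.le
    rw [h.wide, h.thin] at h1
    have h2 : (1 / 2 : ℝ) ^ (a 0) < (1 / 2 : ℝ) ^ (a 1) :=
      pow_lt_pow_right_of_lt_one₀ (by norm_num) (by norm_num) hc
    linarith
  refine ⟨_, ext_adm h ht0m hi hJ le_rfl le_rfl hab, S5, s5, fun t ht => ?_, ?_⟩
  · obtain ⟨d1, d2, d3, d4, d5⟩ := p5 t ht t0 ht0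
    have hR1' : (0:ℝ) < (1 / 2 : ℝ) ^ i1 := by positivity
    have hRle : m.R ≤ (1 / 2 : ℝ) ^ i1 := by rw [← hR1]; nlinarith
    have hs : |((J1 : ℝ) + 1 / 2) * (1 / 2 : ℝ) ^ i1 - m.s0| ≤ ((1 / 2 : ℝ) ^ i1 - m.R) / 2 := by
      rw [h.hs0, h.hR]; exact hJ
    have d1' : |u1 m (L t) - u1 m (L t0)| * (1 / 2 : ℝ) ^ i1 ≤ m.sg * m.R / 16 := by
      have := mul_le_mul_of_nonneg_right d1 hR1'.le
      refine this.trans (le_of_eq ?_)
      rw [← hR1]; field_simp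
    have d3' : |u3 m (L t) - u3 m (L t0)| * (1 / 2 : ℝ) ^ i1 ≤ m.s1 * m.R / 16 := by
      have := mul_le_mul_of_nonneg_right d3 hR1'.le
      refine this.trans (le_of_eq ?_)
      rw [← hR1]; field_simp
    have d5' : |u5 m (L t) - u5 m (L t0)| * (1 / 2 : ℝ) ^ i1 ≤ (m.sg * m.R) ^ 2 / 16 := by
      have := mul_le_mul_of_nonneg_right d5 hR1'.le
      refine this.trans (le_of_eq ?_)
      rw [← hR1]; field_simp
    obtain ⟨k1, k2, k3⟩ := cell_close hf h.ok hRle (hS t (s5 ht)) ht0m d1' d2 d3' d4 d5'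
    have hw1 : 0 < m.s1 * m.R := mul_pos hs1 hR
    rw [← h.wide, ← h.thin]
    refine mem_ext hf (val_of_mem ht0m) hRle hs (mul_le_mul_of_nonneg_right hf.hsg hR.le) le_rfl
      le_rfl k1 k2 k3 ?_ ?_
    · change |u4 m (L t) - u4 m (L t0)| ≤ _
      linarith
    · change |u3 m (L t) - u3 m (L t0)| * _ ≤ _
      linarith
  · have e : ((2:ℝ) ^ (i - i1)) ^ 3 = 8 ^ (i - i1) := by
      rw [← pow_mul, mul_comm, pow_mul]; norm_num
    rw [← e]
    exact c5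

/-- **(V), one class of test sets**: members of `AdmL r` only, closed under extension to ancestor
cells with the same absolute widths. -/
theorem trivB_one {T : Xa794.TS LRay (Fin 2) Mem} {r : ℝ}
    (hmem : ∀ i J s l, T.mem i J s l ↔ l ∈ s.2.rays 0)
    (hadm : ∀ i J s, T.adm i J s → AdmL r i J s.1 s.2)
    (hext : ∀ i J s i1 J1 m1, T.adm i J s → i1 ≤ i → AdmL r i1 J1 s.1 m1 → T.adm i1 J1 (s.1, m1))
    (hvol : T.vol = volL) (Ψ : ℝ → (Fin 2 → ℝ) → ℝ) (F : Xc794.Cfg LRay (Fin 2) Mem)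
    (hF : F.Ok T Ψ) :
    F.D1 ≤ KC * (2 : ℝ) ^ (2 * (F.M : ℝ) - Ψ F.M (fun _ => (F.M : ℝ))) * F.D0 := by
  classical
  obtain ⟨x, hx⟩ := hF.ne
  set i := F.m + F.M with hi
  set J := zc i x.2 with hJ
  set J1 := zc F.m x.2 with hJ1
  have hal : x.1 ∈ alive F.I i J := by
    unfold alive
    exact Finset.mem_image_of_mem _ (Finset.mem_filter.2 ⟨hx, rfl⟩)
  set S := (alive F.I i J).filter fun s => F.f s J = F.f x.1 J with hS
  have hlow := hF.low J x.1 hal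
  have hne : S.Nonempty := ⟨x.1, Finset.mem_filter.2 ⟨hal, rfl⟩⟩
  obtain ⟨-, hadm0, hshape⟩ := hF.top J x.1 hal
  have hmem' : ∀ t ∈ S, F.L t ∈ (F.b (F.f x.1 J)).2.rays 0 := by
    intro t ht
    obtain ⟨h1, h2⟩ := Finset.mem_filter.1 ht
    have := (hF.top J t h1).1
    rw [h2] at this
    exact (hmem _ _ _ _).1 this
  have hadm' : AdmL r i J F.a (F.b (F.f x.1 J)).2 := by
    rw [← hshape]
    exact hadm _ _ _ hadm0
  have hanc : Anc i J F.m J1 := anc_of_zc (Nat.le_add_right _ _) rfl rfl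
  obtain ⟨m1, hm1, S', hS', hmS', hcard⟩ := cover_one hadm' (Nat.le_add_right _ _) hanc S hne
    F.L hmem'
  have hm1' : T.adm F.m J1 (F.a, m1) := by
    have := hext i J (F.b (F.f x.1 J)) F.m J1 m1 hadm0 (Nat.le_add_right _ _)
      (by rw [hshape]; exact hm1)
    rw [hshape] at this
    exact this
  have hup := hF.up J1 (F.a, m1) hm1'
  have hsub : S' ⊆ (alive F.I F.m J1).filter fun t => T.mem F.m J1 (F.a, m1) (F.L t) := by
    intro t ht
    have h1 := (Finset.mem_filter.1 (hS' ht)).1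
    refine Finset.mem_filter.2 ⟨?_, (hmem _ _ _ _).2 (hmS' t ht)⟩
    unfold alive at h1 ⊢
    obtain ⟨y, hy, hyt⟩ := Finset.mem_image.1 h1
    refine Finset.mem_image.2 ⟨y, ?_, hyt⟩
    have hy1 := (Finset.mem_filter.1 hy).1
    exact Finset.mem_filter.2 ⟨hy1, hF.cell y hy1 x hx⟩
  have hc1 : (S'.card : ℝ) ≤ F.D0 * Xc794.capP T Ψ i F.a F.m F.a :=
    (by exact_mod_cast Finset.card_le_card hsub : (S'.card : ℝ) ≤ _).trans hup
  have hiF : i - F.m = F.M := by omega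
  rw [hiF] at hcard
  have hK : (0:ℝ) ≤ KC * 8 ^ F.M := by unfold KC; positivity
  rw [hvol] at hlow
  have h3 : F.D1 * volL i F.a ≤ KC * 8 ^ F.M * (F.D0 * Xc794.capP T Ψ i F.a F.m F.a) :=
    hlow.trans (hcard.trans (mul_le_mul_of_nonneg_left hc1 hK))
  have hrel : Xc794.rel F.m F.a i F.a = fun _ => (F.M : ℝ) := by
    funext j
    unfold Xc794.rel
    rw [hi]; push_cast; ring
  have hlen : ((i : ℝ) - F.m) = F.M := by rw [hi]; push_cast; ring
  have hcap : Xc794.capP T Ψ i F.a F.m F.a =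
      volL F.m F.a * (2 : ℝ) ^ (-(Ψ F.M fun _ => (F.M : ℝ))) := by
    unfold Xc794.capP
    rw [hrel, hlen, hvol]
  have hvol2 : volL i F.a = volL F.m F.a * 2 ^ F.M := by
    unfold volL
    rw [hi, pow_add]; ring
  rw [hcap, hvol2] at h3
  have hv : 0 < volL F.m F.a := KI439.volL_pos _ _
  have h2M : (0:ℝ) < 2 ^ F.M := by positivity
  have e4 : (2 : ℝ) ^ (2 * (F.M : ℝ) - Ψ F.M (fun _ => (F.M : ℝ))) =
      4 ^ F.M * (2 : ℝ) ^ (-(Ψ F.M fun _ => (F.M : ℝ))) := by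
    rw [sub_eq_add_neg, Real.rpow_add (by norm_num), Real.rpow_mul (by norm_num)]
    norm_num
  rw [e4]
  have e8 : (8:ℝ) ^ F.M = 4 ^ F.M * 2 ^ F.M := by rw [← mul_pow]; norm_num
  rw [e8] at h3
  have h4 : F.D1 * (volL F.m F.a * 2 ^ F.M) ≤
      (KC * (4 ^ F.M * (2 : ℝ) ^ (-(Ψ F.M fun _ => (F.M : ℝ)))) * F.D0) *
        (volL F.m F.a * 2 ^ F.M) := by
    refine h3.trans (le_of_eq ?_)
    ring
  exact le_of_mul_le_mul_right h4 (by positivity)

/-- the property of a class of test sets used by `trivB_one`. -/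
structure ExtCl (T : Xa794.TS LRay (Fin 2) Mem) (r : ℝ) : Prop where
  mem : ∀ i J s l, T.mem i J s l ↔ l ∈ s.2.rays 0
  adm : ∀ i J s, T.adm i J s → AdmL r i J s.1 s.2
  ext : ∀ i J s i1 J1 m1, T.adm i J s → i1 ≤ i → AdmL r i1 J1 s.1 m1 → T.adm i1 J1 (s.1, m1)
  vol : T.vol = volL

/-- **(V) for every family of classes closed under extension.** -/
theorem trivB_of {𝒯 : Set (Xa794.TS LRay (Fin 2) Mem)} (h : ∀ T ∈ 𝒯, ∃ r, ExtCl T r) :
    Xc794.TrivB 𝒯 := by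
  refine ⟨KC, by unfold KC; norm_num, fun Ψ T hT F hF => ?_⟩
  obtain ⟨r, hr⟩ := h T hT
  exact trivB_one hr.mem hr.adm hr.ext hr.vol Ψ F hF

/-- the light-ray classes. -/
theorem extCl_TSL (r : ℝ) : ExtCl (TSL r) r :=
  ⟨fun _ _ _ _ => Iff.rfl, fun _ _ _ h => h, fun _ _ _ _ _ _ _ _ h => h, rfl⟩

/-- **(V), the trivial bound for the light-ray class.** -/
theorem trivB : Xc794.TrivB TSS := by
  refine trivB_of ?_
  rintro T ⟨r, -, -, rfl⟩
  exact ⟨r, extCl_TSL r⟩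

end Crest.Agent.R116.Ext803
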