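import Crest.Agent.R116.Ext3_803

/-!
# R116 (K side): cover of the rays of a FAT member (helper803)

`Fat m Y X t` : the ray `t` lies in the `Y`-fold box of the mark `m` (at the time `m.s0`) and in the
slab `|φ| ≤ X s1 R` over `|s - s0| ≤ R`.
`fat_cover` : a finite set of rays of the fat member has a part of size `≥ 1 / (KF Y^6)` inside ONE
admissible member of the same cell and the same wide width, thin exponent `b1`, `a 0 ≤ b1 ≤ a 1`,
`2^(a 1 - b1) ≤ 2 X`.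
-/

set_option autoImplicit false

namespace Crest.Agent.R116.Ext803

open Crest.Agent.R138.Defs (E2)
open Crest.Agent.R116.CDef480 (E3 lat pt vel)
open Crest.Agent.R116.LZg725
open Crest.Agent.R116.KI439 (LRay kM0 kD AdmL TSL TSS volL)

/-! ### isotropic members -/

/-- the isotropic member based at the ray `t0`. -/
noncomputable def iso (t0 : LRay) (R s0 w : ℝ) : Mem where
  c := t0.1
  sg := w / R
  s1 := w / R
  R := R
  X0 := rpos t0 s0
  s0 := s0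
  phi := frm t0.1 (rx t0.1 t0.2.1 s0) (ry t0.1 t0.2.2 s0) s0 (EuclideanSpace.single 0 1) 0 0

section iso

variable {t0 : LRay} {R s0 w : ℝ}

theorem iso_ny (s : ℝ) : (iso t0 R s0 w).phi.ny s = 0 := by
  change (frm _ _ _ _ _ _ _).ny s = 0
  rw [ny_frm]; ring

theorem iso_flat (hR : 0 < R) (hw : 0 < w) : Flat (iso t0 R s0 w) := by
  refine ⟨hR, div_pos hw hR, le_rfl, ?_, ?_, ?_⟩
  · change (frm _ _ _ _ _ _ _).disc = 1
    rw [disc_frm]
    simp
  · change |(0:ℝ)| * _ ≤ kD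
    rw [abs_zero, zero_mul]
    unfold kD; norm_num
  · rw [iso_ny, abs_zero, zero_mul]
    unfold kD; norm_num

theorem iso_ok (hR : 0 < R) (hw : 0 < w) : (iso t0 R s0 w).Ok kM0 0 := by
  have hf := iso_flat (t0 := t0) (s0 := s0) hR hw
  have hk : (0:ℝ) ≤ kM0 := by unfold kM0; norm_num
  refine hf.ok ?_ ?_
  · have : (iso t0 R s0 w).phi.ld (iso t0 R s0 w).c (lat (iso t0 R s0 w).X0)
      ((iso t0 R s0 w).X0 2) (iso t0 R s0 w).s0 = 0 := by
      change (frm t0.1 (rx t0.1 t0.2.1 s0) (ry t0.1 t0.2.2 s0) s0 _ _ _).ld t0.1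
        (lat (rpos t0 s0)) (rpos t0 s0 2) s0 = 0
      rw [lat_rpos, rpos_two, Cf.ld_ray, rB_frm_ray]
    rw [this, abs_zero]
    exact mul_nonneg hk hf.sg_pos.le
  · have : (iso t0 R s0 w).phi.ev (lat (iso t0 R s0 w).X0)
      ((iso t0 R s0 w).X0 2) (iso t0 R s0 w).s0 = 0 := by
      change (frm t0.1 (rx t0.1 t0.2.1 s0) (ry t0.1 t0.2.2 s0) s0 _ _ _).ev
        (lat (rpos t0 s0)) (rpos t0 s0 2) s0 = 0
      rw [lat_rpos, rpos_two, ev_frm_ray]
    rw [this, abs_zero]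
    exact mul_nonneg (mul_nonneg hk hf.sg_pos.le) hf.hR.le

theorem mem_iso (hR : 0 < R) (hw : 0 < w) {t : LRay} (c1 : ‖t.1 - t0.1‖ * R ≤ w / 4)
    (c2 : ‖rx t.1 t.2.1 s0 - rx t0.1 t0.2.1 s0‖ ≤ w / 4)
    (c3 : |dN t t0 s0| * R ≤ w ^ 2 / 4) : t ∈ (iso t0 R s0 w).rays 0 := by
  rw [Mem.mem_rays]
  have hT : (iso t0 R s0 w).T 0 = (w / R) ^ 2 := T_zero _
  rw [hT]
  change RayIn t0.1 (w / R) ((w / R) ^ 2) R (lat (rpos t0 s0)) (rpos t0 s0 2) s0
    (frm t0.1 (rx t0.1 t0.2.1 s0) (ry t0.1 t0.2.2 s0) s0 (EuclideanSpace.single 0 1) 0 0)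
    (w / R * R) t.1 t.2.1 t.2.2
  rw [lat_rpos, rpos_two, div_mul_cancel₀ _ hR.ne']
  refine ⟨?_, fun s hs => ?_⟩
  · rw [le_div_iff₀ hR]; linarith
  have hss : |s - s0| ≤ 3 / 2 * R := by linarith
  have hwn := dW_le hss c1 c2
  have hNn := dN_le hR hss c1 c3
  refine ⟨⟨hs, ?_, ?_⟩, ?_⟩
  · rw [dW_eq t t0 s0 s s0, div_mul_cancel₀ _ hR.ne']
    linarith
  · rw [dN_eq t t0 s0 s s0]
    have e : (w / R) ^ 2 * R = w ^ 2 / R := by field_simp
    rw [e, le_div_iff₀ hR]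
    linarith [sq_nonneg w]
  · rw [ev_frm, dW_eq t t0 s0 s s0, zero_mul, zero_mul, add_zero, add_zero]
    refine (abs_real_inner_le_norm _ _).trans ?_
    rw [PiLp.norm_single, norm_one, one_mul]
    linarith

end iso

/-! ### fat members -/

/-- the ray lies in the `Y`-fold box and the `X`-fold slab of the member. -/
structure Fat (m : Mem) (Y X : ℝ) (t : LRay) : Prop where
  dir : ‖t.1 - m.c‖ ≤ Y * m.sg
  pos : ‖rx t.1 t.2.1 m.s0 - lat m.X0‖ ≤ Y * (m.sg * m.R)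
  nul : |nrm m.c (rx t.1 t.2.1 m.s0) (ry t.1 t.2.2 m.s0) m.s0 - nrm m.c (lat m.X0) (m.X0 2) m.s0| ≤
    Y ^ 2 * (m.sg ^ 2 * m.R)
  val : ∀ s, |s - m.s0| ≤ m.R → |m.phi.val (rpos t s, s)| ≤ X * (m.s1 * m.R)

/-- the constant of the fat cover. -/
noncomputable def KF : ℝ := 130 ^ 4 * 400 * 35 ^ 2

theorem norm_le_two {v : E2} {δ : ℝ} (h0 : |v 0| ≤ δ) (h1 : |v 1| ≤ δ) : ‖v‖ ≤ 2 * δ := by
  have hδ : 0 ≤ δ := (abs_nonneg _).trans h0
  rw [EuclideanSpace.norm_eq]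
  refine Real.sqrt_le_iff.2 ⟨by linarith, ?_⟩
  rw [Fin.sum_univ_two, Real.norm_eq_abs, Real.norm_eq_abs]
  nlinarith [abs_nonneg (v 0), abs_nonneg (v 1)]

theorem comp_le {v : E2} (k : Fin 2) : |v k| ≤ ‖v‖ := by
  have := EuclideanSpace.norm_eq v
  have h := PiLp.norm_apply_le v k
  simpa using h

/-- seven pigeonholes. -/
theorem fat_cells {m : Mem} (h : Flat m) {Y X : ℝ} (hY : 1 ≤ Y) (hX : 1 ≤ X) {ι : Type*}
    (S : Finset ι) (hne : S.Nonempty) (L : ι → LRay) (hS : ∀ t ∈ S, Fat m Y X (L t)) :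
    ∃ S' ⊆ S, S'.Nonempty ∧ (S.card : ℝ) ≤ KF * Y ^ 6 * S'.card ∧ ∀ t ∈ S', ∀ t' ∈ S',
      ‖(L t).1 - (L t').1‖ * m.R ≤ m.sg * m.R / 4 ∧
      ‖rx (L t).1 (L t).2.1 m.s0 - rx (L t').1 (L t').2.1 m.s0‖ ≤ m.sg * m.R / 4 ∧
      |dN (L t) (L t') m.s0| * m.R ≤ (m.sg * m.R) ^ 2 / 4 ∧
      |u4 m (L t) - u4 m (L t')| ≤ X * (m.s1 * m.R) / 16 ∧
      |u3 m (L t) - u3 m (L t')| * m.R ≤ X * (m.s1 * m.R) / 16 := by
  have hR := h.hR
  have hsg := h.sg_pos
  have hs1 := h.hs1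
  have hY0 : 0 < Y := by linarith
  have hX0 : 0 < X := by linarith
  have hw0 : 0 < m.sg * m.R := mul_pos hsg hR
  have hw1 : 0 < m.s1 * m.R := mul_pos hs1 hR
  have cc : ∀ δ : ℝ, 0 < δ → 2 * (Y * δ) / (δ / 64) + 2 ≤ 130 * Y := by
    intro δ hδ
    have e : 2 * (Y * δ) / (δ / 64) = 128 * Y := by field_simp; ring
    rw [e]; linarith
  have card_pos : ∀ {A B : Finset ι} {c : ℝ}, A.Nonempty → (A.card : ℝ) ≤ c * B.card →
      B.Nonempty := by
    intro A B c hA hAB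
    rw [Finset.nonempty_iff_ne_empty]
    rintro rfl
    rw [Finset.card_empty, Nat.cast_zero, mul_zero] at hAB
    have : (0:ℝ) < A.card := by exact_mod_cast hA.card_pos
    linarith
  obtain ⟨S1, s1, c1, p1⟩ := pigeon S (fun t => (L t).1 0) (m.c 0) (Y * m.sg) (m.sg / 64)
    (by positivity) (by positivity) (fun t ht => (comp_le (v := (L t).1 - m.c) 0).trans (hS t ht).dir)
  obtain ⟨S2, s2, c2, p2⟩ := pigeon S1 (fun t => (L t).1 1) (m.c 1) (Y * m.sg) (m.sg / 64)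
    (by positivity) (by positivity)
    (fun t ht => (comp_le (v := (L t).1 - m.c) 1).trans (hS t (s1 ht)).dir)
  obtain ⟨S3, s3, c3, p3⟩ := pigeon S2 (fun t => (rx (L t).1 (L t).2.1 m.s0) 0) ((lat m.X0) 0)
    (Y * (m.sg * m.R)) (m.sg * m.R / 64) (by positivity) (by positivity)
    (fun t ht => (comp_le (v := rx (L t).1 (L t).2.1 m.s0 - lat m.X0) 0).trans
      (hS t (s1 (s2 ht))).pos)
  obtain ⟨S4, s4, c4, p4⟩ := pigeon S3 (fun t => (rx (L t).1 (L t).2.1 m.s0) 1) ((lat m.X0) 1)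
    (Y * (m.sg * m.R)) (m.sg * m.R / 64) (by positivity) (by positivity)
    (fun t ht => (comp_le (v := rx (L t).1 (L t).2.1 m.s0 - lat m.X0) 1).trans
      (hS t (s1 (s2 (s3 ht)))).pos)
  have k1 : (S.card : ℝ) ≤ 130 * Y * S1.card :=
    c1.trans (mul_le_mul_of_nonneg_right (cc _ hsg) (Nat.cast_nonneg _))
  have k2 : (S1.card : ℝ) ≤ 130 * Y * S2.card :=
    c2.trans (mul_le_mul_of_nonneg_right (cc _ hsg) (Nat.cast_nonneg _))
  have k3 : (S2.card : ℝ) ≤ 130 * Y * S3.card :=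
    c3.trans (mul_le_mul_of_nonneg_right (cc _ hw0) (Nat.cast_nonneg _))
  have k4 : (S3.card : ℝ) ≤ 130 * Y * S4.card :=
    c4.trans (mul_le_mul_of_nonneg_right (cc _ hw0) (Nat.cast_nonneg _))
  have hne4 : S4.Nonempty := card_pos (card_pos (card_pos (card_pos hne k1) k2) k3) k4
  obtain ⟨t1, ht1⟩ := hne4
  have hCd : ∀ t ∈ S4, ∀ t' ∈ S4, ‖(L t).1 - (L t').1‖ ≤ m.sg / 32 := by
    intro t ht t' ht'
    refine (norm_le_two (δ := m.sg / 64) ?_ ?_).trans (by linarith)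
    · exact p1 t (s2 (s3 (s4 ht))) t' (s2 (s3 (s4 ht')))
    · exact p2 t (s3 (s4 ht)) t' (s3 (s4 ht'))
  have hxd : ∀ t ∈ S4, ∀ t' ∈ S4, ‖rx (L t).1 (L t).2.1 m.s0 - rx (L t').1 (L t').2.1 m.s0‖ ≤
      m.sg * m.R / 32 := by
    intro t ht t' ht'
    refine (norm_le_two (δ := m.sg * m.R / 64) ?_ ?_).trans (by linarith)
    · exact p3 t (s4 ht) t' (s4 ht')
    · exact p4 t ht t' ht'
  -- frame changes
  have hfr : ∀ (c' c'' : E2) (t t' : LRay),
      nrm c' (rx t.1 t.2.1 m.s0) (ry t.1 t.2.2 m.s0) m.s0 -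
        nrm c' (rx t'.1 t'.2.1 m.s0) (ry t'.1 t'.2.2 m.s0) m.s0 =
      (nrm c'' (rx t.1 t.2.1 m.s0) (ry t.1 t.2.2 m.s0) m.s0 -
        nrm c'' (rx t'.1 t'.2.1 m.s0) (ry t'.1 t'.2.2 m.s0) m.s0) +
      inner ℝ (c' - c'') (rx t.1 t.2.1 m.s0 - rx t'.1 t'.2.1 m.s0) := by
    intro c' c'' t t'
    have h1 := nrm_sub c'' c' (rx t.1 t.2.1 m.s0) (ry t.1 t.2.2 m.s0) m.s0
    have h2 := nrm_sub c'' c' (rx t'.1 t'.2.1 m.s0) (ry t'.1 t'.2.2 m.s0) m.s0
    rw [inner_add_right] at h1 h2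
    rw [inner_sub_right]
    linarith
  have hY2 : Y ≤ Y ^ 2 := by nlinarith
  obtain ⟨S5, s5, c5, p5⟩ := pigeon S4
    (fun t => nrm (L t1).1 (rx (L t).1 (L t).2.1 m.s0) (ry (L t).1 (L t).2.2 m.s0) m.s0)
    (nrm (L t1).1 (rx (L t1).1 (L t1).2.1 m.s0) (ry (L t1).1 (L t1).2.2 m.s0) m.s0)
    (3 * Y ^ 2 * (m.sg ^ 2 * m.R)) (m.sg ^ 2 * m.R / 64) (by positivity) (by positivity) (by
      intro t ht
      rw [hfr (L t1).1 m.c (L t) (L t1)]
      have q1 := (hS t (s1 (s2 (s3 (s4 ht))))).nul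
      have q2 := (hS t1 (s1 (s2 (s3 (s4 ht1))))).nul
      have q3 := (hS t1 (s1 (s2 (s3 (s4 ht1))))).dir
      have q4 : |inner ℝ ((L t1).1 - m.c) (rx (L t).1 (L t).2.1 m.s0 -
          rx (L t1).1 (L t1).2.1 m.s0)| ≤ Y * m.sg * (m.sg * m.R / 32) :=
        (abs_real_inner_le_norm _ _).trans
          (mul_le_mul q3 (hxd t ht t1 ht1) (norm_nonneg _) (by positivity))
      refine (abs_add_le _ _).trans ?_
      have q5 : |nrm m.c (rx (L t).1 (L t).2.1 m.s0) (ry (L t).1 (L t).2.2 m.s0) m.s0 -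
          nrm m.c (rx (L t1).1 (L t1).2.1 m.s0) (ry (L t1).1 (L t1).2.2 m.s0) m.s0| ≤
          2 * (Y ^ 2 * (m.sg ^ 2 * m.R)) := by
        have e : ∀ A B C : ℝ, A - B = (A - C) - (B - C) := fun A B C => by ring
        rw [e _ _ (nrm m.c (lat m.X0) (m.X0 2) m.s0)]
        exact (abs_sub _ _).trans (by linarith)
      have q6 : Y * m.sg * (m.sg * m.R / 32) ≤ Y ^ 2 * (m.sg ^ 2 * m.R) := by
        have : Y * m.sg * (m.sg * m.R / 32) = Y * (m.sg ^ 2 * m.R) / 32 := by ring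
        rw [this]
        have h8 : 0 < m.sg ^ 2 * m.R := by positivity
        nlinarith [mul_le_mul_of_nonneg_right hY2 h8.le]
      linarith)
  obtain ⟨S6, s6, c6, p6⟩ := pigeon S5 (fun t => u3 m (L t)) 0 (X * m.s1) (X * m.s1 / 16)
    (by positivity) (by positivity) (by
      intro t ht
      rw [sub_zero]
      have := rB_le hR (hS t (s1 (s2 (s3 (s4 (s5 ht)))))).val
      rw [← mul_assoc] at this
      exact le_of_mul_le_mul_right this hR)
  obtain ⟨S7, s7, c7, p7⟩ := pigeon S6 (fun t => u4 m (L t)) 0 (X * (m.s1 * m.R))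
    (X * (m.s1 * m.R) / 16) (by positivity) (by positivity) (by
      intro t ht
      rw [sub_zero]
      exact (hS t (s1 (s2 (s3 (s4 (s5 (s6 ht))))))).val m.s0
        (by rw [sub_self, abs_zero]; exact hR.le))
  have k5 : (S4.card : ℝ) ≤ 400 * Y ^ 2 * S5.card := by
    refine c5.trans (mul_le_mul_of_nonneg_right ?_ (Nat.cast_nonneg _))
    have e : 2 * (3 * Y ^ 2 * (m.sg ^ 2 * m.R)) / (m.sg ^ 2 * m.R / 64) = 384 * Y ^ 2 := by
      field_simp; ring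
    rw [e]; nlinarith
  have k6 : (S5.card : ℝ) ≤ 35 * S6.card := by
    refine c6.trans (mul_le_mul_of_nonneg_right ?_ (Nat.cast_nonneg _))
    have e : 2 * (X * m.s1) / (X * m.s1 / 16) = 32 := by field_simp; ring
    rw [e]; norm_num
  have k7 : (S6.card : ℝ) ≤ 35 * S7.card := by
    refine c7.trans (mul_le_mul_of_nonneg_right ?_ (Nat.cast_nonneg _))
    have e : 2 * (X * (m.s1 * m.R)) / (X * (m.s1 * m.R) / 16) = 32 := by field_simp; ring
    rw [e]; norm_num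
  have hne7 : S7.Nonempty := card_pos (card_pos (card_pos ⟨t1, ht1⟩ k5) k6) k7
  refine ⟨S7, s7.trans (s6.trans (s5.trans (s4.trans (s3.trans (s2.trans s1))))), hne7, ?_,
    fun t ht t' ht' => ?_⟩
  · have n1 : (0:ℝ) ≤ S7.card := Nat.cast_nonneg _
    unfold KF
    calc (S.card : ℝ) ≤ 130 * Y * S1.card := k1
      _ ≤ 130 * Y * (130 * Y * S2.card) := by gcongr
      _ ≤ 130 * Y * (130 * Y * (130 * Y * S3.card)) := by gcongr
      _ ≤ 130 * Y * (130 * Y * (130 * Y * (130 * Y * S4.card))) := by gcongr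
      _ ≤ 130 * Y * (130 * Y * (130 * Y * (130 * Y * (400 * Y ^ 2 * S5.card)))) := by gcongr
      _ ≤ 130 * Y * (130 * Y * (130 * Y * (130 * Y * (400 * Y ^ 2 * (35 * S6.card))))) := by
        gcongr
      _ ≤ 130 * Y * (130 * Y * (130 * Y * (130 * Y * (400 * Y ^ 2 * (35 * (35 * S7.card)))))) := by
        gcongr
      _ = _ := by ring
  · have h4 := s5 (s6 (s7 ht))
    have h4' := s5 (s6 (s7 ht'))
    have q1 := hCd t h4 t' h4'
    have q2 := hxd t h4 t' h4'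
    refine ⟨?_, by linarith, ?_, p7 t ht t' ht', ?_⟩
    · have := mul_le_mul_of_nonneg_right q1 hR.le
      linarith
    · have e : dN (L t) (L t') m.s0 =
          (nrm (L t1).1 (rx (L t).1 (L t).2.1 m.s0) (ry (L t).1 (L t).2.2 m.s0) m.s0 -
          nrm (L t1).1 (rx (L t').1 (L t').2.1 m.s0) (ry (L t').1 (L t').2.2 m.s0) m.s0) +
          inner ℝ ((L t').1 - (L t1).1) (rx (L t).1 (L t).2.1 m.s0 -
            rx (L t').1 (L t').2.1 m.s0) := by
        unfold dN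
        rw [hfr (L t').1 (L t1).1 (L t) (L t')]
      have q3 := hCd t' h4' t1 ht1
      have q4 : |inner ℝ ((L t').1 - (L t1).1) (rx (L t).1 (L t).2.1 m.s0 -
          rx (L t').1 (L t').2.1 m.s0)| ≤ m.sg / 32 * (m.sg * m.R / 32) :=
        (abs_real_inner_le_norm _ _).trans (mul_le_mul q3 q2 (norm_nonneg _) (by positivity))
      have q5 : |dN (L t) (L t') m.s0| ≤ m.sg ^ 2 * m.R / 4 := by
        rw [e]
        refine (abs_add_le _ _).trans ?_
        have := p5 t (s6 (s7 ht)) t' (s6 (s7 ht'))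
        have h8 : 0 < m.sg ^ 2 * m.R := by positivity
        have e9 : m.sg / 32 * (m.sg * m.R / 32) = m.sg ^ 2 * m.R / 1024 := by ring
        rw [e9] at q4
        linarith
      have := mul_le_mul_of_nonneg_right q5 hR.le
      refine this.trans (le_of_eq ?_)
      ring
    · have := mul_le_mul_of_nonneg_right (p6 t (s7 ht) t' (s7 ht')) hR.le
      refine this.trans (le_of_eq ?_)
      ring

/-- **cover of the rays of a fat member.** -/
theorem fat_cover {r : ℝ} {i : ℕ} {J : ℤ} {a : Fin 2 → ℕ} {m : Mem} (h : AdmL r i J a m)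
    {Y X : ℝ} (hY : 1 ≤ Y) (hX : 1 ≤ X) {ι : Type*} (S : Finset ι) (hne : S.Nonempty)
    (L : ι → LRay) (hS : ∀ t ∈ S, Fat m Y X (L t)) :
    ∃ b1 : ℕ, a 0 ≤ b1 ∧ b1 ≤ a 1 ∧ (2:ℝ) ^ (a 1 - b1) ≤ 2 * X ∧
    ∃ m1 : Mem, AdmL r i J ![a 0, b1] m1 ∧ ∃ S' ⊆ S, (∀ t ∈ S', L t ∈ m1.rays 0) ∧
      (S.card : ℝ) ≤ KF * Y ^ 6 * S'.card := by
  have hf := flat_of_adm h
  have hR := hf.hR
  have hsg := hf.sg_pos
  have hs1 := hf.hs1
  have hw0 : 0 < m.sg * m.R := mul_pos hsg hR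
  have hw1 : 0 < m.s1 * m.R := mul_pos hs1 hR
  have hab : a 0 ≤ a 1 := by
    by_contra hc
    push Not at hc
    have h1 : m.s1 * m.R ≤ m.sg * m.R := mul_le_mul_of_nonneg_right hf.hsg hR.le
    rw [h.wide, h.thin] at h1
    have h2 : (1 / 2 : ℝ) ^ (a 0) < (1 / 2 : ℝ) ^ (a 1) :=
      pow_lt_pow_right_of_lt_one₀ (by norm_num) (by norm_num) hc
    linarith
  obtain ⟨S7, s7, ⟨t0, ht0⟩, hcard, hcl⟩ := fat_cells hf hY hX S hne L hS
  obtain ⟨n, hn1, hn2⟩ := exists_nat_pow_near hX (by norm_num : (1:ℝ) < 2)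
  have hk1 : X ≤ 2 ^ (n + 1) := hn2.le
  have hk2 : (2:ℝ) ^ (n + 1) ≤ 2 * X := by rw [pow_succ]; linarith
  rcases le_or_gt (a 0 + (n + 1)) (a 1) with hc | hc
  · -- thin member
    refine ⟨a 1 - (n + 1), by omega, by omega, ?_, ?_⟩
    · have : a 1 - (a 1 - (n + 1)) = n + 1 := by omega
      rw [this]; exact hk2
    set w1 : ℝ := (1 / 2 : ℝ) ^ (a 1 - (n + 1)) with hw1d
    have hw1e : w1 = 2 ^ (n + 1) * (m.s1 * m.R) := by
      rw [h.thin, hw1d]
      have : (1 / 2 : ℝ) ^ (a 1) = (1 / 2 : ℝ) ^ (a 1 - (n + 1)) * (1 / 2 : ℝ) ^ (n + 1) := by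
        rw [← pow_add]; congr 1; omega
      rw [this, mul_left_comm, ← mul_pow]
      norm_num
    have hXw : X * (m.s1 * m.R) ≤ w1 := by
      rw [hw1e]; exact mul_le_mul_of_nonneg_right hk1 hw1.le
    have hw1p : 0 < w1 := by positivity
    have hww : w1 ≤ m.sg * m.R := by
      rw [h.wide]
      exact pow_le_pow_of_le_one (by norm_num) (by norm_num) (by omega)
    set mh : Mem := { m with s1 := w1 / m.R } with hmh
    have hsR : w1 / m.R * m.R = w1 := div_mul_cancel₀ _ hR.ne'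
    have hfh : Flat mh := by
      refine ⟨hR, div_pos hw1p hR, ?_, hf.disc, hf.dd, hf.nn⟩
      change w1 / m.R ≤ m.sg
      rw [div_le_iff₀ hR]; exact hww
    have hφ : ∀ s, |s - mh.s0| ≤ mh.R → |mh.phi.val (rpos (L t0) s, s)| ≤ mh.s1 * mh.R := by
      intro s hs
      change |m.phi.val (rpos (L t0) s, s)| ≤ w1 / m.R * m.R
      rw [hsR]
      exact ((hS t0 (s7 ht0)).val s hs).trans hXw
    have hss : |m.s0 - mh.s0| ≤ (m.R - mh.R) / 2 := by
      change |m.s0 - m.s0| ≤ (m.R - m.R) / 2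
      simp
    have hfl := ext_flat (R1 := m.R) (s01 := m.s0) (w0 := m.sg * m.R) (w1 := w1) hfh hφ le_rfl
      hss hw1p hww le_rfl
    have hok := ext_ok (R1 := m.R) (s01 := m.s0) (w0 := m.sg * m.R) (w1 := w1) hfh hφ le_rfl
      hss hw1p hww le_rfl
    refine ⟨ext mh (L t0) m.R m.s0 (m.sg * m.R) w1, ?_, S7, s7, fun t ht => ?_, hcard⟩
    · refine ⟨hok, h.hR, h.hs0, ?_, ?_, ?_, ?_, hfl.dd, hfl.nn⟩
      · change m.sg * m.R / m.R ≤ 1
        rw [mul_div_assoc, div_self hR.ne', mul_one]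
        exact h.sg1
      · change m.sg * m.R / m.R * m.R = _
        rw [div_mul_cancel₀ _ hR.ne']
        exact h.wide
      · change w1 / m.R * m.R = _
        rw [hsR]
        rfl
      · change r ≤ w1 / m.R * m.R
        rw [hsR]
        refine h.res.trans (le_trans ?_ hXw)
        nlinarith
    · obtain ⟨q1, q2, q3, q4, q5⟩ := hcl t ht t0 ht0
      refine mem_ext (w0 := m.sg * m.R) (w1 := w1) (s01 := m.s0) hfh hφ le_rfl hss hww le_rfl
        (le_of_eq hsR) q1 q2 q3 ?_ ?_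
      · change |u4 m (L t) - u4 m (L t0)| ≤ _
        linarith
      · change |u3 m (L t) - u3 m (L t0)| * m.R ≤ _
        linarith
  · -- isotropic member
    refine ⟨a 0, le_rfl, hab, ?_, iso (L t0) m.R m.s0 (m.sg * m.R), ?_, S7, s7,
      fun t ht => ?_, hcard⟩
    · refine le_trans ?_ hk2
      exact pow_le_pow_right₀ (by norm_num) (by omega)
    · have hfl := iso_flat (t0 := L t0) (s0 := m.s0) hR hw0
      refine ⟨iso_ok hR hw0, h.hR, h.hs0, ?_, ?_, ?_, ?_, hfl.dd, hfl.nn⟩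
      · change m.sg * m.R / m.R ≤ 1
        rw [mul_div_assoc, div_self hR.ne', mul_one]
        exact h.sg1
      · change m.sg * m.R / m.R * m.R = _
        rw [div_mul_cancel₀ _ hR.ne']
        exact h.wide
      · change m.sg * m.R / m.R * m.R = _
        rw [div_mul_cancel₀ _ hR.ne']
        exact h.wide
      · change r ≤ m.sg * m.R / m.R * m.R
        rw [div_mul_cancel₀ _ hR.ne']
        exact h.res.trans (mul_le_mul_of_nonneg_right hf.hsg hR.le)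
    · obtain ⟨q1, q2, q3, -, -⟩ := hcl t ht t0 ht0
      exact mem_iso hR hw0 q1 q2 q3

end Crest.Agent.R116.Ext803
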