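import Crest.Agent.R116.Ext3_803
import Crest.Agent.R116.XcCut_794

/-!
# R116 (K side), block K1: the trivial bound for the classes with a level dependent range (helper803)
-/

set_option autoImplicit false

namespace Crest.Agent.R116.Ext803

open Crest.Agent.R116.LZg725
open Crest.Agent.R116.KI439 (LRay TSL TSS)
open Crest.Agent.R116.Xc794 (cut Cut)

/-- the range condition is compatible with extensions. -/
theorem ExtCl.cut {T : Xa794.TS LRay (Fin 2) Mem} {r : ℝ} (h : ExtCl T r) (K0 R : ℕ) :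
    ExtCl (cut K0 R T) r := by
  refine ⟨h.mem, fun i J s hs => h.adm i J s hs.1, fun i J s i1 J1 m1 hs hi hm => ?_, h.vol⟩
  refine ⟨h.ext i J s i1 J1 m1 hs.1 hi hm, fun j => ?_⟩
  have h1 := hs.2 j
  have h2 : K0 * i1 ≤ K0 * i := Nat.mul_le_mul_left _ hi
  change s.1 j + K0 * i1 ≤ R
  omega

/-- **(V) for the light-ray classes with range.** -/
theorem trivB_cut (K0 : ℕ) : Xc794.TrivB (Cut K0 TSS) := by
  refine trivB_of ?_
  rintro T ⟨T', ⟨r, -, -, rfl⟩, R, rfl⟩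
  exact ⟨r, (extCl_TSL r).cut K0 R⟩

/-- smaller families. -/
theorem trivB_mono {𝒯 𝒯' : Set (Xa794.TS LRay (Fin 2) Mem)} (h : Xc794.TrivB 𝒯) (hs : 𝒯' ⊆ 𝒯) :
    Xc794.TrivB 𝒯' := by
  obtain ⟨c, hc, h1⟩ := h
  exact ⟨c, hc, fun Ψ T hT F hF => h1 Ψ T (hs hT) F hF⟩

/-- **(V) for the tied family** `cut K0 R (TSL r)`, `r ≤ 2^-R` (any family of such classes). -/
theorem trivB_sub (K0 : ℕ) {𝒯 : Set (Xa794.TS LRay (Fin 2) Mem)}
    (h : ∀ T ∈ 𝒯, ∃ r R, T = cut K0 R (TSL r)) : Xc794.TrivB 𝒯 := by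
  refine trivB_of fun T hT => ?_
  obtain ⟨r, R, rfl⟩ := h T hT
  exact ⟨r, (extCl_TSL r).cut K0 R⟩

end Crest.Agent.R116.Ext803
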