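import Crest.Agent.R116.Ext5_803

/-!
# R116 (K side): closure of the classes of test sets inside one cell (helper803)

`TiltCl T r` : `ExtCl` + every member of `AdmL r` of the same cell whose exponents are at most the
thin exponent of an admissible test set is admissible.  Instances: `TSL r`, `cut K0 R (TSL r)`.
-/

set_option autoImplicit false

namespace Crest.Agent.R116.Ext803

open Crest.Agent.R116.LZg725
open Crest.Agent.R116.KI439 (LRay TSL TSS AdmL)
open Crest.Agent.R116.Xc794 (cut Cut)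

/-- class of test sets closed under extensions, narrower boxes and thicker slabs. -/
structure TiltCl (T : Xa794.TS LRay (Fin 2) Mem) (r : ℝ) : Prop extends ExtCl T r where
  cl : ∀ i J s a' m', T.adm i J s → AdmL r i J a' m' → (∀ j, a' j ≤ s.1 1) → T.adm i J (a', m')

theorem tiltCl_TSL (r : ℝ) : TiltCl (TSL r) r :=
  ⟨extCl_TSL r, fun _ _ _ _ _ _ h _ => h⟩

theorem TiltCl.cut {T : Xa794.TS LRay (Fin 2) Mem} {r : ℝ} (h : TiltCl T r) (K0 R : ℕ) :
    TiltCl (cut K0 R T) r := by
  refine ⟨h.toExtCl.cut K0 R, fun i J s a' m' hs hm ha => ⟨h.cl i J s a' m' hs.1 hm ha,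
    fun j => ?_⟩⟩
  have h1 := hs.2 1
  have h2 := ha j
  change a' j + K0 * i ≤ R
  omega

/-- every class of the official family. -/
theorem tiltCl_of_mem {K0 : ℕ} {T : Xa794.TS LRay (Fin 2) Mem} (h : T ∈ Cut K0 TSS) :
    ∃ r, 0 < r ∧ r ≤ 1 ∧ TiltCl T r := by
  obtain ⟨T', ⟨r, h0, h1, rfl⟩, R, rfl⟩ := h
  exact ⟨r, h0, h1, (tiltCl_TSL r).cut K0 R⟩

end Crest.Agent.R116.Ext803
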