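import Crest.Agent.R116.CWd1_480
import Crest.Agent.R138.Loc1_878

/-!
# R116 (S0155): (F1) in `l^1` form for the cone packets, part 1 (helper124)

`kc N ρ κ C x = ρ² κ (1 + |(ρ x', κ (y + C.x'))|)^(-N)` = kernel profile of the plate of slope `C`.
`Kn e ρ ρ' τ C C'` = kernel from the fat window of the cap `(C, ρ)` (scalar window `e`) to the
window of the cap `(C', ρ')`, time shift `τ`.
`exists_pc` : uniformly in all parameters (`ρ ≤ ρ'`, `|C - C'| ≤ 3 ρ'`, `|τ| ρ² ≤ T`) the product of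
the windows is a window of the frame of `C`; `kn_sliced`, `kn_unsliced` : bounds
`|Kn (x)| ≤ K kc (x + τ vel C)`.
-/

set_option autoImplicit false
set_option linter.unusedSectionVars false

open MeasureTheory FourierTransform
open scoped ContDiff ENNReal

namespace Crest.Agent.R116.F1c124

open Crest.Agent.R138.Wf448
open Crest.Agent.R138.Defs (E2 ee)
open Crest.Agent.R138.Wpk685 (win fat cen caps)
open Crest.Agent.R116.CWp480 Crest.Agent.R116.CDef480 Crest.Agent.R116.CWc480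
open Crest.Agent.R116.CWd480

/-! ### the kernel profile -/

/-- kernel profile of the plate of slope `C`. -/
noncomputable def kc (N : ℕ) (ρ κ : ℝ) (C : E2) (x : E3) : ℝ :=
  ρ ^ 2 * κ * ((1 + ‖pt (ρ • lat x) (κ * (x 2 + inner ℝ C (lat x)))‖) ^ N)⁻¹

theorem kc_nonneg (N : ℕ) {ρ κ : ℝ} (hκ : 0 ≤ κ) (C : E2) (x : E3) : 0 ≤ kc N ρ κ C x := by
  unfold kc; positivity

theorem adet_Pl {ρ κ : ℝ} (hρ : 0 < ρ) (hκ : 0 < κ) (C : E2) :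
    adet (Pl ρ κ hρ hκ C : E3 →L[ℝ] E3) = ρ ^ 2 * κ := by
  unfold adet
  have h1 : LinearMap.det ((Pl ρ κ hρ hκ C : E3 →L[ℝ] E3) : E3 →ₗ[ℝ] E3) = ρ ^ 2 * κ := by
    rw [← LinearMap.det_toMatrix (EuclideanSpace.basisFun (Fin 3) ℝ).toBasis, Matrix.det_fin_three]
    simp only [LinearMap.toMatrix_apply, OrthonormalBasis.coe_toBasis_repr_apply,
      OrthonormalBasis.coe_toBasis, EuclideanSpace.basisFun_apply, EuclideanSpace.basisFun_repr,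
      ContinuousLinearMap.coe_coe, ContinuousLinearEquiv.coe_coe, Pl_apply, pt_zero, pt_one, pt_two,
      PiLp.smul_apply, lat_zero, lat_one, inner2, smul_eq_mul]
    simp
    left
    ring
  rw [h1, abs_of_pos (by positivity)]

theorem kc_eq (N : ℕ) {ρ κ : ℝ} (hρ : 0 < ρ) (hκ : 0 < κ) (C : E2) (x : E3) :
    kc N ρ κ C x = adet (Pl ρ κ hρ hκ C : E3 →L[ℝ] E3) * ((1 + ‖Pl ρ κ hρ hκ C x‖) ^ N)⁻¹ := by
  rw [adet_Pl, Pl_apply]; rfl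

/-! ### the composite window -/

/-- parameters `((σ, μ), (t, (η0, κ)))`. -/
abbrev PP : Type := (ℝ × E2) × (ℝ × (ℝ × ℝ))

/-- the composite window. -/
noncomputable def cwE (J : ℝ → ℝ) (l : ℝ) (E : ℝ → ℂ) (p : PP) (z : E3) : ℂ :=
  win (p.1.2 + p.2.1 • (J (p.2.2.1 + p.2.2.2 * (l * z 2)) • (l • lat z))) *
    (wnE J l E fat p.2.2 z * trE J l (p.1.1, p.2.2) z)

theorem cw1_smooth {J : ℝ → ℝ} (hJ : ContDiff ℝ ∞ J) (l : ℝ) : ContDiff ℝ ∞ (fun x : PP × E3 =>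
    x.1.1.2 + x.1.2.1 • (J (x.1.2.2.1 + x.1.2.2.2 * (l * x.2 2)) • (l • lat x.2))) := by
  have hz : ContDiff ℝ ∞ (fun x : PP × E3 => x.2) := contDiff_snd
  have hp0 : ContDiff ℝ ∞ (fun x : PP × E3 => x.1) := contDiff_fst
  have hp1 : ContDiff ℝ ∞ (fun x : PP × E3 => x.1.2) := contDiff_snd.comp hp0
  have hp : ContDiff ℝ ∞ (fun x : PP × E3 => x.1.2.2) := contDiff_snd.comp hp1
  have hpa : ContDiff ℝ ∞ (fun x : PP × E3 => x.1.2.2.1) := contDiff_fst.comp hp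
  have hpb : ContDiff ℝ ∞ (fun x : PP × E3 => x.1.2.2.2) := contDiff_snd.comp hp
  have hq1 : ContDiff ℝ ∞ (fun x : PP × E3 => x.1.1) := contDiff_fst.comp hp0
  have hμ : ContDiff ℝ ∞ (fun x : PP × E3 => x.1.1.2) := contDiff_snd.comp hq1
  have ht : ContDiff ℝ ∞ (fun x : PP × E3 => x.1.2.1) := contDiff_fst.comp hp1
  have h2 : ContDiff ℝ ∞ (fun x : PP × E3 => l * x.2 2) :=
    contDiff_const.mul ((coord_smooth 2).comp hz)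
  have h1 : ContDiff ℝ ∞ (fun x : PP × E3 => x.1.2.2.1 + x.1.2.2.2 * (l * x.2 2)) :=
    hpa.add (hpb.mul h2)
  have h3 : ContDiff ℝ ∞ (fun x : PP × E3 => l • lat x.2) :=
    ContDiff.const_smul l (lat_smooth.comp hz)
  exact hμ.add (ht.smul ((hJ.comp h1).smul h3))

theorem cw2_smooth {J : ℝ → ℝ} (hJ : ContDiff ℝ ∞ J) (l : ℝ) {E : ℝ → ℂ} (hE : ContDiff ℝ ∞ E) :
    ContDiff ℝ ∞ (fun x : PP × E3 => wnE J l E fat x.1.2.2 x.2) := by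
  unfold wnE
  have hz : ContDiff ℝ ∞ (fun x : PP × E3 => x.2) := contDiff_snd
  have hp0 : ContDiff ℝ ∞ (fun x : PP × E3 => x.1) := contDiff_fst
  have hp1 : ContDiff ℝ ∞ (fun x : PP × E3 => x.1.2) := contDiff_snd.comp hp0
  have hp : ContDiff ℝ ∞ (fun x : PP × E3 => x.1.2.2) := contDiff_snd.comp hp1
  have hpa : ContDiff ℝ ∞ (fun x : PP × E3 => x.1.2.2.1) := contDiff_fst.comp hp
  have hpb : ContDiff ℝ ∞ (fun x : PP × E3 => x.1.2.2.2) := contDiff_snd.comp hp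
  have h2 : ContDiff ℝ ∞ (fun x : PP × E3 => l * x.2 2) :=
    contDiff_const.mul ((coord_smooth 2).comp hz)
  have h1 : ContDiff ℝ ∞ (fun x : PP × E3 => x.1.2.2.1 + x.1.2.2.2 * (l * x.2 2)) :=
    hpa.add (hpb.mul h2)
  have h3 : ContDiff ℝ ∞ (fun x : PP × E3 => l • lat x.2) :=
    ContDiff.const_smul l (lat_smooth.comp hz)
  exact (Crest.Agent.R138.Wpk685.fat_contDiff.comp ((hJ.comp h1).smul h3)).mul (hE.comp h2)

theorem cw3_smooth {J : ℝ → ℝ} (hJ : ContDiff ℝ ∞ J) (l : ℝ) :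
    ContDiff ℝ ∞ (fun x : PP × E3 => trE J l (x.1.1.1, x.1.2.2) x.2) := by
  unfold trE
  have hz : ContDiff ℝ ∞ (fun x : PP × E3 => x.2) := contDiff_snd
  have hp0 : ContDiff ℝ ∞ (fun x : PP × E3 => x.1) := contDiff_fst
  have hp1 : ContDiff ℝ ∞ (fun x : PP × E3 => x.1.2) := contDiff_snd.comp hp0
  have hp : ContDiff ℝ ∞ (fun x : PP × E3 => x.1.2.2) := contDiff_snd.comp hp1
  have hpa : ContDiff ℝ ∞ (fun x : PP × E3 => x.1.2.2.1) := contDiff_fst.comp hp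
  have hpb : ContDiff ℝ ∞ (fun x : PP × E3 => x.1.2.2.2) := contDiff_snd.comp hp
  have hq1 : ContDiff ℝ ∞ (fun x : PP × E3 => x.1.1) := contDiff_fst.comp hp0
  have h0 : ContDiff ℝ ∞ (fun x : PP × E3 => x.1.1.1) := contDiff_fst.comp hq1
  have h2 : ContDiff ℝ ∞ (fun x : PP × E3 => l * x.2 2) :=
    contDiff_const.mul ((coord_smooth 2).comp hz)
  have h1 : ContDiff ℝ ∞ (fun x : PP × E3 => x.1.2.2.1 + x.1.2.2.2 * (l * x.2 2)) :=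
    hpa.add (hpb.mul h2)
  have h3 : ContDiff ℝ ∞ (fun x : PP × E3 => ‖l • lat x.2‖ ^ 2) :=
    (contDiff_norm_sq ℝ).comp (ContDiff.const_smul l (lat_smooth.comp hz))
  exact (b57_smooth.comp hz).mul (contDiff_ee.comp (h0.mul
    ((h3.mul (hJ.comp h1)).div_const 2)))

theorem cw_smooth {J : ℝ → ℝ} (hJ : ContDiff ℝ ∞ J) (l : ℝ) {E : ℝ → ℂ} (hE : ContDiff ℝ ∞ E) :
    ContDiff ℝ ∞ (fun x : PP × E3 => cwE J l E x.1 x.2) := by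
  unfold cwE
  exact (Crest.Agent.R138.Wpk685.win_contDiff.comp (cw1_smooth hJ l)).mul
    ((cw2_smooth hJ l hE).mul (cw3_smooth hJ l))

theorem cw_unif {a M : ℝ} {E : ℝ → ℂ} {P : Set (ℝ × ℝ)} (h : EW a M E P) {J : ℝ → ℝ}
    (hJs : ContDiff ℝ ∞ J) (N : ℕ) (T : ℝ) :
    ∃ Q : ℝ, 0 ≤ Q ∧ ∀ σ : ℝ, |σ| ≤ T → ∀ μ : E2, ‖μ‖ ≤ 3 → ∀ t : ℝ, 0 ≤ t → t ≤ 1 →
      ∀ p ∈ P, Win N Q (cwE J (lam a M) E ((σ, μ), (t, p))) := by
  obtain ⟨Q, hQ, hw⟩ := unif_win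
    (F := fun x : PP × E3 => cwE J (lam a M) E x.1 x.2) (cw_smooth hJs _ h.sm)
    (K := (Set.Icc (-T) T ×ˢ Metric.closedBall (0 : E2) 3) ×ˢ (Set.Icc (0:ℝ) 1 ×ˢ P))
    ((isCompact_Icc.prod (isCompact_closedBall _ _)).prod (isCompact_Icc.prod h.cp)) (by
      intro p _ z hz
      show cwE J (lam a M) E p z = 0
      unfold cwE trE
      rw [b57_zero (by linarith), zero_mul, mul_zero, mul_zero]) N
  exact ⟨Q, hQ, fun σ hσ μ hμ t ht0 ht1 p hp => hw ((σ, μ), (t, p))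
    ⟨⟨abs_le.1 hσ, by simpa using hμ⟩, ⟨⟨ht0, ht1⟩, hp⟩⟩⟩

/-- **the identity of the composite window**. -/
theorem cw_id {a M : ℝ} {E : ℝ → ℂ} {P : Set (ℝ × ℝ)} (h : EW a M E P) {J : ℝ → ℝ}
    (hJ : ∀ t, a⁻¹ ≤ t → t ≤ a → J t = t⁻¹) {p : ℝ × ℝ} (hp : p ∈ P) (hκ : 0 < p.2)
    {ρ ρ' : ℝ} (hρ : 0 < ρ) (hρ' : 0 < ρ') (C C' : E2) (τ : ℝ) (ζ : E3) :
    Crest.Agent.R138.Wpk685.cap win C' ρ' (slp ζ) *
      (Crest.Agent.R138.Wpk685.cap fat C ρ (slp ζ) * E ((ζ 2 - p.1) / p.2)) * ee (τ * hc ζ) =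
      CWp480.cap (cwE J (lam a M) E ((τ * ρ ^ 2, ρ'⁻¹ • (C - C')), (ρ / ρ', p))) (ctr p.1 C)
        (Fr (lam a M) ρ p.2 (lam_pos h.one h.M0) hρ hκ C) ζ * ee (inner ℝ (τ • vel C) ζ) := by
  have hl := lam_pos h.one h.M0
  have hid := cap_wnE h hJ fat hp hl hρ hκ C ζ
  by_cases hne : Crest.Agent.R138.Wpk685.cap fat C ρ (slp ζ) * E ((ζ 2 - p.1) / p.2) = 0
  · have e2 : CWp480.cap (cwE J (lam a M) E ((τ * ρ ^ 2, ρ'⁻¹ • (C - C')), (ρ / ρ', p))) (ctr p.1 C)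
        (Fr (lam a M) ρ p.2 hl hρ hκ C) ζ = 0 := by
      unfold CWp480.cap at hid ⊢
      unfold cwE
      simp only
      rw [hid, hne, zero_mul, mul_zero]
    rw [e2, hne, mul_zero, zero_mul, zero_mul]
  · have hS := mem_Sd h fat_supp hp hρ hκ hne
    have hph := phase_Sd h.one h.M0 hJ hρ hκ hS τ
    have h7 : ζ 2 ≠ 0 := (lt_of_lt_of_le (inv_pos.2 (by linarith [h.one])) hS.1).ne'
    have e1 : p.1 + p.2 * ((ζ 2 - p.1) / p.2) = ζ 2 := by field_simp; ring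
    have e0 : lam a M * ((ζ 2 - p.1) / (lam a M * p.2)) = (ζ 2 - p.1) / p.2 := by field_simp
    have e2 : lam a M • ((lam a M * ρ)⁻¹ • (lat ζ - ζ 2 • C)) = ρ⁻¹ • (lat ζ - ζ 2 • C) := by
      rw [smul_smul]
      congr 1
      field_simp
    have e3 : CWp480.cap (cwE J (lam a M) E ((τ * ρ ^ 2, ρ'⁻¹ • (C - C')), (ρ / ρ', p))) (ctr p.1 C)
        (Fr (lam a M) ρ p.2 hl hρ hκ C) ζ =
        Crest.Agent.R138.Wpk685.cap win C' ρ' (slp ζ) *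
          ((Crest.Agent.R138.Wpk685.cap fat C ρ (slp ζ) * E ((ζ 2 - p.1) / p.2)) *
          CWp480.cap (trE J (lam a M) (τ * ρ ^ 2, p.1, p.2)) (ctr p.1 C)
            (Fr (lam a M) ρ p.2 hl hρ hκ C) ζ) := by
      rw [← hid]
      unfold CWp480.cap cwE
      simp only
      congr 1
      rw [symm_Fr, pt_two, lat_pt, e0, e2, e1, hJ _ hS.1 hS.2.1]
      unfold Crest.Agent.R138.Wpk685.cap
      congr 1
      rw [lat_sub_eq h7, smul_smul, smul_smul, smul_smul]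
      have e4 : ρ / ρ' * (ζ 2)⁻¹ * ρ⁻¹ * ζ 2 = ρ'⁻¹ := by field_simp
      rw [e4, ← smul_add]
      congr 1
      abel
    rw [e3, hph]
    ring

/-- **composite packets**: window of the cap `(C', ρ')` times the fat window of the cap `(C, ρ)`
times the transport `τ`. -/
structure Pc (N : ℕ) (Q ρ ρ' τ : ℝ) (e : E3 → ℂ) (C C' : E2) (B : E3 ≃L[ℝ] E3) (c : E3) : Prop where
  wn : ∃ a, Win N Q a ∧ ∀ ζ, Crest.Agent.R138.Wpk685.cap win C' ρ' (slp ζ) *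
    (Crest.Agent.R138.Wpk685.cap fat C ρ (slp ζ) * e ζ) * ee (τ * hc ζ) =
      CWp480.cap a c B ζ * ee (inner ℝ (τ • vel C) ζ)

theorem exists_pc {a M : ℝ} {E : ℝ → ℂ} {P : Set (ℝ × ℝ)} (h : EW a M E P) (N : ℕ) (T : ℝ) :
    ∃ Q : ℝ, 0 < Q ∧ ∀ p ∈ P, ∀ (hκ : 0 < p.2) (ρ ρ' τ : ℝ) (hρ : 0 < ρ), ρ ≤ ρ' →
      |τ| * ρ ^ 2 ≤ T → ∀ C C' : E2, ‖C - C'‖ ≤ 3 * ρ' →
      Pc N Q ρ ρ' τ (fun ζ => E ((ζ 2 - p.1) / p.2)) C C'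
        (Fr (lam a M) ρ p.2 (lam_pos h.one h.M0) hρ hκ C) (ctr p.1 C) := by
  obtain ⟨J, hJs, hJ⟩ := exists_inv h.one
  obtain ⟨Q, hQ, hw⟩ := cw_unif h hJs N T
  refine ⟨Q + 1, by linarith, ?_⟩
  intro p hp hκ ρ ρ' τ hρ hρ' hτ C C' hC
  have hρ'0 : 0 < ρ' := lt_of_lt_of_le hρ hρ'
  refine ⟨cwE J (lam a M) E ((τ * ρ ^ 2, ρ'⁻¹ • (C - C')), (ρ / ρ', p)), ?_, ?_⟩
  · refine (hw _ ?_ _ ?_ _ (by positivity) ?_ _ hp).mono le_rfl (by linarith)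
    · rw [abs_mul, abs_of_nonneg (by positivity : (0:ℝ) ≤ ρ ^ 2)]
      exact hτ
    · rw [norm_smul, Real.norm_eq_abs, abs_of_pos (inv_pos.2 hρ'0), inv_mul_le_iff₀ hρ'0]
      linarith
    · rw [div_le_one hρ'0]; exact hρ'
  · intro ζ
    exact cw_id h hJ hp hκ hρ hρ'0 C C' τ ζ

/-! ### the kernel -/

/-- the kernel of the pair of caps. -/
noncomputable def Kn (e : E3 → ℂ) (ρ ρ' τ : ℝ) (C C' : E2) : E3 → ℂ :=
  𝓕⁻ (fun ζ => Crest.Agent.R138.Wpk685.cap win C' ρ' (slp ζ) *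
    (Crest.Agent.R138.Wpk685.cap fat C ρ (slp ζ) * e ζ) * ee (τ * hc ζ))

/-- modulation is translation. -/
theorem fourierInv_mod (f : E3 → ℂ) (v x : E3) :
    𝓕⁻ (fun ζ => f ζ * ee (inner ℝ v ζ)) x = 𝓕⁻ f (x + v) := by
  rw [fourierInv_eq_int, fourierInv_eq_int]
  congr 1
  ext ζ
  rw [inner_add_left, ee_add]
  ring

section Pc

variable {N : ℕ} {Q ρ ρ' τ : ℝ} {e : E3 → ℂ} {C C' : E2} {B : E3 ≃L[ℝ] E3} {c : E3}

theorem Pc.kn (h : Pc N Q ρ ρ' τ e C C' B c) : ∃ a, Win N Q a ∧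
    (∀ x, Kn e ρ ρ' τ C C' x = 𝓕⁻ (CWp480.cap a c B) (x + τ • vel C)) ∧
    ∀ ζ, Crest.Agent.R138.Wpk685.cap win C' ρ' (slp ζ) *
      (Crest.Agent.R138.Wpk685.cap fat C ρ (slp ζ) * e ζ) * ee (τ * hc ζ) =
      CWp480.cap a c B ζ * ee (inner ℝ (τ • vel C) ζ) := by
  obtain ⟨a, ha, hid⟩ := h.wn
  refine ⟨a, ha, fun x => ?_, hid⟩
  unfold Kn
  have e1 : (fun ζ => Crest.Agent.R138.Wpk685.cap win C' ρ' (slp ζ) *
      (Crest.Agent.R138.Wpk685.cap fat C ρ (slp ζ) * e ζ) * ee (τ * hc ζ)) =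
      fun ζ => CWp480.cap a c B ζ * ee (inner ℝ (τ • vel C) ζ) := funext hid
  rw [e1, fourierInv_mod]

theorem Pc.cont (h : Pc N Q ρ ρ' τ e C C' B c) : Continuous (Kn e ρ ρ' τ C C') := by
  obtain ⟨a, ha, hk, _⟩ := h.kn
  have e1 : Kn e ρ ρ' τ C C' = fun x => 𝓕⁻ (CWp480.cap a c B) (x + τ • vel C) := funext hk
  rw [e1]
  exact (Kf_cont ha c B).comp (continuous_id.add continuous_const)

/-- the composite window is integrable against bounded functions. -/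
theorem Pc.int_bdd (h : Pc N Q ρ ρ' τ e C C' B c) {F : E3 → ℂ} (hF : AEStronglyMeasurable F)
    {K : ℝ} (hb : ∀ ζ, ‖F ζ‖ ≤ K) :
    Integrable (fun ζ => Crest.Agent.R138.Wpk685.cap win C' ρ' (slp ζ) *
      (Crest.Agent.R138.Wpk685.cap fat C ρ (slp ζ) * e ζ) * ee (τ * hc ζ) * F ζ) := by
  obtain ⟨a, ha, _, hid⟩ := h.kn
  have h3 : Integrable (fun ζ => CWp480.cap a c B ζ * (ee (inner ℝ (τ • vel C) ζ) * F ζ)) := by
    refine (cap_int ha c B).mul_bdd (c := K) ((mod_cont _).aestronglyMeasurable.mul hF) ?_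
    refine Filter.Eventually.of_forall fun ζ => ?_
    rw [norm_mul, Crest.Agent.R138.Wpk685.norm_ee, one_mul]
    exact hb ζ
  refine h3.congr (Filter.Eventually.of_forall fun ζ => ?_)
  simp only
  rw [hid ζ]
  ring

theorem Pc.int_mul (h : Pc N Q ρ ρ' τ e C C' B c) {F : E3 → ℂ} (hF : Integrable F) (x : E3) :
    ∫ ζ, Crest.Agent.R138.Wpk685.cap win C' ρ' (slp ζ) *
      (Crest.Agent.R138.Wpk685.cap fat C ρ (slp ζ) * e ζ) * ee (τ * hc ζ) * F ζ *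
        ee (inner ℝ x ζ) = ∫ y, 𝓕⁻ F y * Kn e ρ ρ' τ C C' (x - y) := by
  obtain ⟨a, ha, hk, hid⟩ := h.kn
  have h3 := rep_mul (contDiff_cap ha.smooth c B).continuous (cap_int ha c B) (Kf_int ha c B)
    (Kf_int' ha c B) hF (x + τ • vel C)
  have e1 : ∀ y, Kn e ρ ρ' τ C C' (x - y) = 𝓕⁻ (CWp480.cap a c B) (x + τ • vel C - y) := by
    intro y
    rw [hk, show x - y + τ • vel C = x + τ • vel C - y by abel]
  simp only [e1]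
  rw [← h3, fourierInv_eq_int]
  congr 1
  ext ζ
  rw [hid ζ, inner_add_left, ee_add]
  ring

theorem Pc.int_ind (h : Pc N Q ρ ρ' τ e C C' B c) {v : E3 → ℂ} (hv : Integrable v) (x : E3) :
    ∫ ζ, Crest.Agent.R138.Wpk685.cap win C' ρ' (slp ζ) *
      (Crest.Agent.R138.Wpk685.cap fat C ρ (slp ζ) * e ζ) * ee (τ * hc ζ) * 𝓕 v ζ *
        ee (inner ℝ x ζ) = ∫ y, v y * Kn e ρ ρ' τ C C' (x - y) := by
  obtain ⟨a, ha, hk, hid⟩ := h.kn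
  have h3 := rep_ind (cap_int ha c B) hv (x + τ • vel C)
  have e1 : ∀ y, Kn e ρ ρ' τ C C' (x - y) = 𝓕⁻ (CWp480.cap a c B) (x + τ • vel C - y) := by
    intro y
    rw [hk, show x - y + τ • vel C = x + τ • vel C - y by abel]
  simp only [e1]
  rw [← h3, fourierInv_eq_int]
  congr 1
  ext ζ
  rw [hid ζ, inner_add_left, ee_add]
  ring

end Pc

/-! ### bounds of the kernel -/

theorem Kn_bound {a M : ℝ} {E : ℝ → ℂ} {P : Set (ℝ × ℝ)} (h : EW a M E P) (N : ℕ) (T : ℝ) :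
    ∃ K : ℝ, 0 ≤ K ∧ ∀ p ∈ P, 0 < p.2 → ∀ (ρ ρ' τ : ℝ), 0 < ρ → ρ ≤ ρ' → |τ| * ρ ^ 2 ≤ T →
      ∀ C C' : E2, ‖C - C'‖ ≤ 3 * ρ' → ∀ x,
      ‖Kn (fun ζ => E ((ζ 2 - p.1) / p.2)) ρ ρ' τ C C' x‖ ≤ K * kc N ρ p.2 C (x + τ • vel C) := by
  obtain ⟨Q, hQ, hp⟩ := exists_pc h N T
  obtain ⟨c, hc, hk⟩ := Kf_bound E3 N
  have hl := lam_pos h.one h.M0
  refine ⟨c * Q * lam a M ^ 3, by positivity, ?_⟩
  intro p hpP hκ ρ ρ' τ hρ hρ' hτ C C' hC x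
  obtain ⟨b, hb, hkn, _⟩ := (hp p hpP hκ ρ ρ' τ hρ hρ' hτ C C' hC).kn
  rw [hkn]
  refine (hk Q b hb _ _ _).trans ?_
  have h1 : adet (Fr (lam a M) ρ p.2 hl hρ hκ C : E3 →L[ℝ] E3) = lam a M ^ 3 * (ρ ^ 2 * p.2) := by
    unfold Fr
    rw [adet_Pl]
    ring
  have h2 : 1 ≤ lam a M := by unfold lam; linarith [h.one, h.M0]
  have h3 : ‖Pl ρ p.2 hρ hκ C (x + τ • vel C)‖ ≤
      ‖Fr (lam a M) ρ p.2 hl hρ hκ C (x + τ • vel C)‖ := by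
    rw [norm_Fr]
    exact le_mul_of_one_le_left (norm_nonneg _) h2
  rw [h1, kc_eq N hρ hκ, adet_Pl]
  calc c * Q * (lam a M ^ 3 * (ρ ^ 2 * p.2)) *
        ((1 + ‖Fr (lam a M) ρ p.2 hl hρ hκ C (x + τ • vel C)‖) ^ N)⁻¹
      ≤ c * Q * (lam a M ^ 3 * (ρ ^ 2 * p.2)) *
        ((1 + ‖Pl ρ p.2 hρ hκ C (x + τ • vel C)‖) ^ N)⁻¹ := by gcongr
    _ = _ := by ring

/-! ### the two instances -/

theorem kn_sliced {a : ℝ} (ha : 1 ≤ a) (N : ℕ) (T : ℝ) :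
    ∃ Q K : ℝ, 0 ≤ K ∧ ∀ (η0 κ : ℝ), a⁻¹ ≤ η0 → η0 ≤ a → ∀ (hκ : 0 < κ), κ ≤ (4 * a)⁻¹ →
      ∀ (ρ ρ' τ : ℝ) (hρ : 0 < ρ), ρ ≤ ρ' → |τ| * ρ ^ 2 ≤ T → ∀ C C' : E2, ‖C - C'‖ ≤ 3 * ρ' →
      Pc N Q ρ ρ' τ (etw η0 κ) C C'
        (Fr (lam (2 * a) 2) ρ κ (lam_pos (by linarith) (by norm_num)) hρ hκ C) (ctr η0 C) ∧
      ∀ x, ‖Kn (etw η0 κ) ρ ρ' τ C C' x‖ ≤ K * kc N ρ κ C (x + τ • vel C) := by
  obtain ⟨K, hK, hb⟩ := Kn_bound (ew_sliced ha) N T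
  obtain ⟨Q, hQ, hp⟩ := exists_pc (ew_sliced ha) N T
  refine ⟨Q, K, hK, ?_⟩
  intro η0 κ h1 h2 hκ h3 ρ ρ' τ hρ hρ' hτ C C' hC
  exact ⟨hp (η0, κ) ⟨⟨h1, h2⟩, hκ.le, h3⟩ hκ ρ ρ' τ hρ hρ' hτ C C' hC,
    hb (η0, κ) ⟨⟨h1, h2⟩, hκ.le, h3⟩ hκ ρ ρ' τ hρ hρ' hτ C C' hC⟩

theorem kn_unsliced {a : ℝ} (ha : 1 ≤ a) (N : ℕ) (T : ℝ) :
    ∃ Q K : ℝ, 0 ≤ K ∧ ∀ (ρ ρ' τ : ℝ) (hρ : 0 < ρ), ρ ≤ ρ' → |τ| * ρ ^ 2 ≤ T →
      ∀ C C' : E2, ‖C - C'‖ ≤ 3 * ρ' →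
      Pc N Q ρ ρ' τ (eaw a) C C'
        (Fr (lam (2 * a) (2 * a)) ρ 1 (lam_pos (by linarith) (by linarith)) hρ one_pos C)
        (ctr 0 C) ∧
      ∀ x, ‖Kn (eaw a) ρ ρ' τ C C' x‖ ≤ K * kc N ρ 1 C (x + τ • vel C) := by
  obtain ⟨K, hK, hb⟩ := Kn_bound (ew_unsliced ha) N T
  obtain ⟨Q, hQ, hp⟩ := exists_pc (ew_unsliced ha) N T
  refine ⟨Q, K, hK, ?_⟩
  intro ρ ρ' τ hρ hρ' hτ C C' hC
  have h1 := hp (0, 1) (Set.mem_singleton _) one_pos ρ ρ' τ hρ hρ' hτ C C' hC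
  have h2 := hb (0, 1) (Set.mem_singleton _) one_pos ρ ρ' τ hρ hρ' hτ C C' hC
  have e1 : (fun ζ : E3 => (((bu a ha ((ζ 2 - ((0:ℝ), (1:ℝ)).1) / ((0:ℝ), (1:ℝ)).2)) : ℝ) : ℂ)) =
      eaw a := by
    funext ζ
    unfold eaw
    rw [dif_pos ha]
    simp
  rw [e1] at h1 h2
  exact ⟨h1, h2⟩

end Crest.Agent.R116.F1c124
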