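import Crest.Agent.R138.Fal6_658

/-!
# R116, leaf (A3): Falconer for planes in `ℝ³`, part 1 (helper389)

Gaussian Fourier identities on `ℝ × ℝ × ℝ` and grid sums. Port of `Fal1_658`, `Fal2_658` to
`1`-dimensional projections of point sets in `ℝ³`, directions `(1, t, u)`.
-/

set_option autoImplicit false
set_option linter.unusedVariables false

namespace Crest.Agent.R116.F3a389

open Real MeasureTheory Finset Complex
open Crest.Agent.R138.Fal658 (ft1 int1 sum_int_half exp_le_half floor_dist grid1 grid2)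

noncomputable section

/-- shifted one dimensional Gaussian Fourier transform -/
theorem ft1s {p : ℝ} (hp : 0 < p) (u a : ℝ) :
    ∫ x : ℝ, cexp (-(π * p ^ 2 * (x - a) ^ 2 : ℝ)) * cexp (2 * π * u * x * I)
      = cexp (2 * π * u * a * I) * ((p⁻¹ * rexp (-(π * u ^ 2 / p ^ 2)) : ℝ) : ℂ) := by
  rw [← ft1 hp u, ← integral_const_mul,
    ← integral_sub_right_eq_self (fun x : ℝ => cexp (2 * π * u * a * I) *
      (cexp (-(π * p ^ 2 * x ^ 2 : ℝ)) * cexp (2 * π * u * x * I))) a]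
  refine integral_congr_ae (Filter.Eventually.of_forall fun y => ?_)
  simp only
  rw [← Complex.exp_add, ← Complex.exp_add, ← Complex.exp_add]
  congr 1
  push_cast
  ring

/-- the character -/
def ch (n c d : ℝ) (ξ : ℝ × ℝ × ℝ) : ℂ := cexp (2 * π * (n * ξ.1 + c * ξ.2.1 + d * ξ.2.2) * I)

theorem norm_ch (n c d : ℝ) (ξ : ℝ × ℝ × ℝ) : ‖ch n c d ξ‖ = 1 := by
  unfold ch
  have : (2 * (π : ℂ) * ((n : ℂ) * ξ.1 + c * ξ.2.1 + d * ξ.2.2) * I)
      = ((2 * π * (n * ξ.1 + c * ξ.2.1 + d * ξ.2.2) : ℝ) : ℂ) * I := by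
    push_cast; ring
  rw [this, Complex.norm_exp_ofReal_mul_I]

theorem continuous_ch (n c d : ℝ) : Continuous (ch n c d) := by
  unfold ch; fun_prop

/-- the sheared Gaussian -/
def gs (p q t u : ℝ) (ξ : ℝ × ℝ × ℝ) : ℝ :=
  rexp (-(π * (p ^ 2 * ξ.1 ^ 2 + q ^ 2 * (ξ.2.1 - t * ξ.1) ^ 2 + q ^ 2 * (ξ.2.2 - u * ξ.1) ^ 2)))

theorem continuous_gs (p q t u : ℝ) : Continuous (gs p q t u) := by
  unfold gs; fun_prop

theorem gs_pos (p q t u : ℝ) (ξ : ℝ × ℝ × ℝ) : 0 < gs p q t u ξ := Real.exp_pos _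

theorem gs_split (p q t u x y z : ℝ) : gs p q t u (x, y, z) =
    rexp (-(π * p ^ 2 * x ^ 2)) *
      (rexp (-(π * q ^ 2 * (y - t * x) ^ 2)) * rexp (-(π * q ^ 2 * (z - u * x) ^ 2))) := by
  unfold gs
  rw [← Real.exp_add, ← Real.exp_add]
  congr 1
  ring

theorem int1s {p : ℝ} (hp : 0 < p) (a : ℝ) :
    Integrable (fun x : ℝ => rexp (-(π * p ^ 2 * (x - a) ^ 2))) :=
  (int1 hp).comp_sub_right a

theorem integrable_gs {p q : ℝ} (hp : 0 < p) (hq : 0 < q) (t u : ℝ) :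
    Integrable (gs p q t u) (volume.prod (volume.prod volume)) := by
  rw [integrable_prod_iff (continuous_gs p q t u).aestronglyMeasurable]
  constructor
  · refine Filter.Eventually.of_forall fun x => ?_
    have h := ((int1s hq (t * x)).mul_prod (int1s hq (u * x))).const_mul (rexp (-(π * p ^ 2 * x ^ 2)))
    refine h.congr (Filter.Eventually.of_forall fun y => ?_)
    simp only
    rw [gs_split]
  · have e : (fun x : ℝ => ∫ y : ℝ × ℝ, ‖gs p q t u (x, y)‖ ∂(volume.prod volume))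
        = fun x : ℝ => rexp (-(π * p ^ 2 * x ^ 2)) *
          ((∫ y : ℝ, rexp (-(π * q ^ 2 * y ^ 2))) * ∫ y : ℝ, rexp (-(π * q ^ 2 * y ^ 2))) := by
      funext x
      have h1 : ∫ y : ℝ, rexp (-(π * q ^ 2 * (y - t * x) ^ 2)) = ∫ y : ℝ, rexp (-(π * q ^ 2 * y ^ 2)) :=
        integral_sub_right_eq_self (fun y : ℝ => rexp (-(π * q ^ 2 * y ^ 2))) (t * x)
      have h2 : ∫ y : ℝ, rexp (-(π * q ^ 2 * (y - u * x) ^ 2)) = ∫ y : ℝ, rexp (-(π * q ^ 2 * y ^ 2)) :=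
        integral_sub_right_eq_self (fun y : ℝ => rexp (-(π * q ^ 2 * y ^ 2))) (u * x)
      rw [← h1]
      nth_rewrite 2 [h1]
      rw [← h2, ← integral_prod_mul, ← integral_const_mul]
      refine integral_congr_ae (Filter.Eventually.of_forall fun y => ?_)
      simp only
      rw [Real.norm_eq_abs, abs_of_pos (gs_pos _ _ _ _ _), gs_split]
    rw [e]
    exact (int1 hp).mul_const _

theorem integrable_gs_ch {p q : ℝ} (hp : 0 < p) (hq : 0 < q) (t u n c d : ℝ) :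
    Integrable (fun ξ : ℝ × ℝ × ℝ => (gs p q t u ξ : ℂ) * ch n c d ξ)
      (volume.prod (volume.prod volume)) := by
  refine (integrable_gs hp hq t u).mono' ?_ ?_
  · exact ((Complex.continuous_ofReal.comp (continuous_gs p q t u)).mul
      (continuous_ch n c d)).aestronglyMeasurable
  · refine Filter.Eventually.of_forall fun ξ => ?_
    rw [norm_mul, norm_ch, mul_one, Complex.norm_real, Real.norm_eq_abs, abs_of_pos (gs_pos p q t u ξ)]

/-- Fourier transform of the sheared Gaussian -/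
theorem ft3 {p q : ℝ} (hp : 0 < p) (hq : 0 < q) (t u n c d : ℝ) :
    ∫ ξ : ℝ × ℝ × ℝ, (gs p q t u ξ : ℂ) * ch n c d ξ ∂(volume.prod (volume.prod volume))
      = ((p⁻¹ * q⁻¹ * q⁻¹ *
        rexp (-(π * ((n + t * c + u * d) ^ 2 / p ^ 2 + c ^ 2 / q ^ 2 + d ^ 2 / q ^ 2))) : ℝ) : ℂ) := by
  rw [integral_prod _ (integrable_gs_ch hp hq t u n c d)]
  have e : ∀ x : ℝ, ∫ y : ℝ × ℝ, (gs p q t u (x, y) : ℂ) * ch n c d (x, y) ∂(volume.prod volume)
      = (cexp (-(π * p ^ 2 * x ^ 2 : ℝ)) * cexp (2 * π * ((n + t * c + u * d : ℝ) : ℂ) * x * I)) *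
        (((q⁻¹ * rexp (-(π * c ^ 2 / q ^ 2)) : ℝ) : ℂ) * ((q⁻¹ * rexp (-(π * d ^ 2 / q ^ 2)) : ℝ) : ℂ)) := by
    intro x
    have h1 : (fun y : ℝ × ℝ => (gs p q t u (x, y) : ℂ) * ch n c d (x, y)) = fun y : ℝ × ℝ =>
        (cexp (-(π * p ^ 2 * x ^ 2 : ℝ)) * cexp (2 * π * (n : ℂ) * x * I)) *
          ((cexp (-(π * q ^ 2 * (y.1 - t * x) ^ 2 : ℝ)) * cexp (2 * π * (c : ℂ) * y.1 * I)) *
            (cexp (-(π * q ^ 2 * (y.2 - u * x) ^ 2 : ℝ)) * cexp (2 * π * (d : ℂ) * y.2 * I))) := by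
      funext y
      simp only [gs, ch]
      rw [Complex.ofReal_exp, ← Complex.exp_add, ← Complex.exp_add, ← Complex.exp_add,
        ← Complex.exp_add, ← Complex.exp_add, ← Complex.exp_add]
      congr 1
      push_cast
      ring
    rw [h1, integral_const_mul,
      integral_prod_mul (fun y : ℝ => cexp (-(π * q ^ 2 * (y - t * x) ^ 2 : ℝ)) * cexp (2 * π * (c : ℂ) * y * I))
        (fun y : ℝ => cexp (-(π * q ^ 2 * (y - u * x) ^ 2 : ℝ)) * cexp (2 * π * (d : ℂ) * y * I)),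
      ft1s hq c (t * x), ft1s hq d (u * x)]
    have e2 : cexp (2 * π * ((n + t * c + u * d : ℝ) : ℂ) * x * I) =
        cexp (2 * π * (n : ℂ) * x * I) * (cexp (2 * π * (c : ℂ) * ((t * x : ℝ) : ℂ) * I) *
          cexp (2 * π * (d : ℂ) * ((u * x : ℝ) : ℂ) * I)) := by
      rw [← Complex.exp_add, ← Complex.exp_add]
      congr 1
      push_cast
      ring
    rw [e2]
    ring
  simp only [e]
  rw [integral_mul_const]
  have h1 := ft1 hp (n + t * c + u * d)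
  rw [h1]
  rw [← Complex.ofReal_mul, ← Complex.ofReal_mul]
  congr 1
  rw [show -(π * ((n + t * c + u * d) ^ 2 / p ^ 2 + c ^ 2 / q ^ 2 + d ^ 2 / q ^ 2)) =
    -(π * (n + t * c + u * d) ^ 2 / p ^ 2) + (-(π * c ^ 2 / q ^ 2) + -(π * d ^ 2 / q ^ 2)) by ring,
    Real.exp_add, Real.exp_add]
  ring

/-- exponential sum of a finite weighted point set -/
def es {ι : Type*} (I' : Finset ι) (w n c d : ι → ℝ) (ξ : ℝ × ℝ × ℝ) : ℂ :=
  ∑ i ∈ I', (w i : ℂ) * ch (n i) (c i) (d i) ξ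

theorem continuous_es {ι : Type*} (I' : Finset ι) (w n c d : ι → ℝ) :
    Continuous (es I' w n c d) := by
  unfold es
  exact continuous_finsetSum _ fun i _ => continuous_const.mul (continuous_ch _ _ _)

theorem norm_sq_es {ι : Type*} (I' : Finset ι) (w n c d : ι → ℝ) (ξ : ℝ × ℝ × ℝ) :
    ((‖es I' w n c d ξ‖ ^ 2 : ℝ) : ℂ) =
      ∑ i ∈ I', ∑ j ∈ I', ((w i * w j : ℝ) : ℂ) * ch (n i - n j) (c i - c j) (d i - d j) ξ := by
  have h0 : ((‖es I' w n c d ξ‖ ^ 2 : ℝ) : ℂ) = es I' w n c d ξ * (starRingEnd ℂ) (es I' w n c d ξ) := by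
    rw [Complex.mul_conj, Complex.normSq_eq_norm_sq]
  rw [h0]
  unfold es
  rw [map_sum, Finset.sum_mul_sum]
  refine Finset.sum_congr rfl fun i _ => Finset.sum_congr rfl fun j _ => ?_
  have hc : (starRingEnd ℂ) ((w j : ℂ) * ch (n j) (c j) (d j) ξ) =
      (w j : ℂ) * ch (-(n j)) (-(c j)) (-(d j)) ξ := by
    rw [map_mul, Complex.conj_ofReal]
    congr 1
    unfold ch
    rw [← Complex.exp_conj]
    congr 1
    simp only [map_mul, map_add, Complex.conj_ofReal, Complex.conj_I, map_ofNat]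
    push_cast
    ring
  rw [hc]
  unfold ch
  rw [show (w i : ℂ) * cexp (2 * π * ((n i : ℂ) * ξ.1 + (c i : ℂ) * ξ.2.1 + (d i : ℂ) * ξ.2.2) * I) *
      ((w j : ℂ) * cexp (2 * π * (((-(n j) : ℝ) : ℂ) * ξ.1 + ((-(c j) : ℝ) : ℂ) * ξ.2.1 +
        ((-(d j) : ℝ) : ℂ) * ξ.2.2) * I))
      = ((w i * w j : ℝ) : ℂ) * (cexp (2 * π * ((n i : ℂ) * ξ.1 + (c i : ℂ) * ξ.2.1 + (d i : ℂ) * ξ.2.2) * I) *
        cexp (2 * π * (((-(n j) : ℝ) : ℂ) * ξ.1 + ((-(c j) : ℝ) : ℂ) * ξ.2.1 +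
          ((-(d j) : ℝ) : ℂ) * ξ.2.2) * I)) by push_cast; ring]
  rw [← Complex.exp_add]
  congr 2
  push_cast
  ring

theorem norm_es_le {ι : Type*} (I' : Finset ι) (w n c d : ι → ℝ) (ξ : ℝ × ℝ × ℝ) :
    ‖es I' w n c d ξ‖ ≤ ∑ i ∈ I', |w i| := by
  unfold es
  refine (norm_sum_le _ _).trans (Finset.sum_le_sum fun i _ => ?_)
  rw [norm_mul, norm_ch, mul_one, Complex.norm_real, Real.norm_eq_abs]

theorem integrable_gs_es {ι : Type*} (I' : Finset ι) (w n c d : ι → ℝ) {p q : ℝ} (hp : 0 < p)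
    (hq : 0 < q) (t u : ℝ) :
    Integrable (fun ξ : ℝ × ℝ × ℝ => gs p q t u ξ * ‖es I' w n c d ξ‖ ^ 2)
      (volume.prod (volume.prod volume)) := by
  refine ((integrable_gs hp hq t u).mul_const ((∑ i ∈ I', |w i|) ^ 2)).mono' ?_ ?_
  · exact ((continuous_gs p q t u).mul ((continuous_es I' w n c d).norm.pow 2)).aestronglyMeasurable
  · refine Filter.Eventually.of_forall fun ξ => ?_
    rw [norm_mul, Real.norm_eq_abs, abs_of_pos (gs_pos p q t u ξ), Real.norm_eq_abs,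
      abs_of_nonneg (by positivity)]
    have := norm_es_le I' w n c d ξ
    have h2 := gs_pos p q t u ξ
    gcongr

/-- quadratic form identity -/
theorem quad {ι : Type*} (I' : Finset ι) (w n c d : ι → ℝ) {p q : ℝ} (hp : 0 < p) (hq : 0 < q)
    (t u : ℝ) :
    ∑ i ∈ I', ∑ j ∈ I', w i * w j *
        rexp (-(π * (((n i - n j) + t * (c i - c j) + u * (d i - d j)) ^ 2 / p ^ 2 +
          (c i - c j) ^ 2 / q ^ 2 + (d i - d j) ^ 2 / q ^ 2)))
      = p * q * q * ∫ ξ : ℝ × ℝ × ℝ, gs p q t u ξ * ‖es I' w n c d ξ‖ ^ 2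
        ∂(volume.prod (volume.prod volume)) := by
  have h1 : ((∫ ξ : ℝ × ℝ × ℝ, gs p q t u ξ * ‖es I' w n c d ξ‖ ^ 2
      ∂(volume.prod (volume.prod volume)) : ℝ) : ℂ)
      = ∑ i ∈ I', ∑ j ∈ I', ((w i * w j : ℝ) : ℂ) *
        ((p⁻¹ * q⁻¹ * q⁻¹ * rexp (-(π * (((n i - n j) + t * (c i - c j) + u * (d i - d j)) ^ 2 / p ^ 2 +
          (c i - c j) ^ 2 / q ^ 2 + (d i - d j) ^ 2 / q ^ 2))) : ℝ) : ℂ) := by
    rw [← integral_complex_ofReal]
    have e : (fun ξ : ℝ × ℝ × ℝ => ((gs p q t u ξ * ‖es I' w n c d ξ‖ ^ 2 : ℝ) : ℂ))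
        = fun ξ => ∑ i ∈ I', ∑ j ∈ I', ((w i * w j : ℝ) : ℂ) *
          ((gs p q t u ξ : ℂ) * ch (n i - n j) (c i - c j) (d i - d j) ξ) := by
      funext ξ
      rw [Complex.ofReal_mul, norm_sq_es, Finset.mul_sum]
      refine Finset.sum_congr rfl fun i _ => ?_
      rw [Finset.mul_sum]
      refine Finset.sum_congr rfl fun j _ => ?_
      ring
    rw [e]
    rw [integral_finsetSum _ fun i _ => integrable_finsetSum _ fun j _ =>
      (integrable_gs_ch hp hq t u _ _ _).const_mul _]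
    refine Finset.sum_congr rfl fun i _ => ?_
    rw [integral_finsetSum _ fun j _ => (integrable_gs_ch hp hq t u _ _ _).const_mul _]
    refine Finset.sum_congr rfl fun j _ => ?_
    rw [integral_const_mul, ft3 hp hq]
  have h2 : (∫ ξ : ℝ × ℝ × ℝ, gs p q t u ξ * ‖es I' w n c d ξ‖ ^ 2
      ∂(volume.prod (volume.prod volume)))
      = ∑ i ∈ I', ∑ j ∈ I', (w i * w j) *
        (p⁻¹ * q⁻¹ * q⁻¹ * rexp (-(π * (((n i - n j) + t * (c i - c j) + u * (d i - d j)) ^ 2 / p ^ 2 +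
          (c i - c j) ^ 2 / q ^ 2 + (d i - d j) ^ 2 / q ^ 2)))) := by
    exact_mod_cast h1
  rw [h2, Finset.mul_sum]
  refine Finset.sum_congr rfl fun i _ => ?_
  rw [Finset.mul_sum]
  refine Finset.sum_congr rfl fun j _ => ?_
  field_simp

/-- three dimensional grid sum of a Gaussian -/
theorem grid3 {ι : Type*} (I' : Finset ι) (w n c d : ι → ℝ) (hw : ∀ i ∈ I', 0 ≤ w i) {M f : ℝ}
    (hM : 0 ≤ M)
    (hf : ∀ a b e : ℤ, ∑ i ∈ I' with ⌊M * n i⌋ = a ∧ ⌊M * c i⌋ = b ∧ ⌊M * d i⌋ = e, w i ≤ f)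
    {x : ℝ} (hx : M ≤ |x|) (n0 c0 d0 : ℝ) :
    ∑ i ∈ I', w i * rexp (-(π * ((x * (n i - n0)) ^ 2 + (x * (c i - c0)) ^ 2 +
      (x * (d i - d0)) ^ 2))) ≤ 216 * f := by
  classical
  have hb : ∀ i ∈ I', w i * rexp (-(π * ((x * (n i - n0)) ^ 2 + (x * (c i - c0)) ^ 2 +
        (x * (d i - d0)) ^ 2)))
      ≤ (2 * ((1 : ℝ) / 2) ^ (⌊M * n i⌋ - ⌊M * n0⌋).natAbs) *
        (w i * rexp (-(π * ((x * (c i - c0)) ^ 2 + (x * (d i - d0)) ^ 2)))) := by
    intro i hi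
    have h1 := floor_dist (M * n i) (M * n0)
    have h2 : |M * n i - M * n0| = M * |n i - n0| := by rw [← mul_sub, abs_mul, abs_of_nonneg hM]
    have h3 := exp_le_half (h1.trans_eq h2) (by positivity)
    have h4 : (M * |n i - n0|) ^ 2 ≤ (x * (n i - n0)) ^ 2 := by
      rw [← sq_abs (x * (n i - n0)), abs_mul]
      exact pow_le_pow_left₀ (by positivity) (mul_le_mul_of_nonneg_right hx (abs_nonneg _)) 2
    have h5 : rexp (-(π * (x * (n i - n0)) ^ 2)) ≤ 2 * ((1 : ℝ) / 2) ^ (⌊M * n i⌋ - ⌊M * n0⌋).natAbs := by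
      refine le_trans (Real.exp_le_exp.2 ?_) h3
      have := Real.pi_pos
      nlinarith
    have h6 : rexp (-(π * ((x * (n i - n0)) ^ 2 + (x * (c i - c0)) ^ 2 + (x * (d i - d0)) ^ 2)))
        = rexp (-(π * (x * (n i - n0)) ^ 2)) *
          rexp (-(π * ((x * (c i - c0)) ^ 2 + (x * (d i - d0)) ^ 2))) := by
      rw [← Real.exp_add]; congr 1; ring
    rw [h6]
    have h7 : 0 ≤ w i * rexp (-(π * ((x * (c i - c0)) ^ 2 + (x * (d i - d0)) ^ 2))) :=
      mul_nonneg (hw i hi) (Real.exp_pos _).le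
    calc w i * (rexp (-(π * (x * (n i - n0)) ^ 2)) *
          rexp (-(π * ((x * (c i - c0)) ^ 2 + (x * (d i - d0)) ^ 2))))
        = rexp (-(π * (x * (n i - n0)) ^ 2)) *
          (w i * rexp (-(π * ((x * (c i - c0)) ^ 2 + (x * (d i - d0)) ^ 2)))) := by ring
      _ ≤ _ := mul_le_mul_of_nonneg_right h5 h7
  refine (Finset.sum_le_sum hb).trans ?_
  rw [← Finset.sum_fiberwise_of_maps_to (g := fun i => ⌊M * n i⌋) (t := I'.image (fun i => ⌊M * n i⌋))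
    (fun i hi => Finset.mem_image_of_mem _ hi)]
  have hb2 : ∀ a ∈ I'.image (fun i => ⌊M * n i⌋), ∑ i ∈ I' with ⌊M * n i⌋ = a,
      (2 * ((1 : ℝ) / 2) ^ (⌊M * n i⌋ - ⌊M * n0⌋).natAbs) *
        (w i * rexp (-(π * ((x * (c i - c0)) ^ 2 + (x * (d i - d0)) ^ 2))))
      ≤ 72 * f * ((1 : ℝ) / 2) ^ (a - ⌊M * n0⌋).natAbs := by
    intro a _
    have : ∑ i ∈ I' with ⌊M * n i⌋ = a,
        (2 * ((1 : ℝ) / 2) ^ (⌊M * n i⌋ - ⌊M * n0⌋).natAbs) *
          (w i * rexp (-(π * ((x * (c i - c0)) ^ 2 + (x * (d i - d0)) ^ 2))))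
        = (2 * ((1 : ℝ) / 2) ^ (a - ⌊M * n0⌋).natAbs) * ∑ i ∈ I' with ⌊M * n i⌋ = a,
          w i * rexp (-(π * ((x * (c i - c0)) ^ 2 + (x * (d i - d0)) ^ 2))) := by
      rw [Finset.mul_sum]
      refine Finset.sum_congr rfl fun i hi => ?_
      rw [(Finset.mem_filter.1 hi).2]
    rw [this]
    have h1 := grid2 (I'.filter (fun i => ⌊M * n i⌋ = a)) w c d
      (fun i hi => hw i (Finset.mem_filter.1 hi).1) hM
      (f := f) (fun b e => by
        rw [Finset.filter_filter]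
        exact hf a b e) hx c0 d0
    have h2 := mul_le_mul_of_nonneg_left h1
      (show (0 : ℝ) ≤ 2 * ((1 : ℝ) / 2) ^ (a - ⌊M * n0⌋).natAbs by positivity)
    refine h2.trans_eq (by ring)
  refine (Finset.sum_le_sum hb2).trans ?_
  rw [← Finset.mul_sum]
  have hf0 : 0 ≤ f := by
    refine le_trans ?_ (hf 0 0 0)
    exact Finset.sum_nonneg fun i hi => hw i (Finset.mem_filter.1 hi).1
  have := sum_int_half (I'.image (fun i => ⌊M * n i⌋)) ⌊M * n0⌋
  nlinarith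

end

end Crest.Agent.R116.F3a389
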