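import Crest.Agent.R116.F3a_389

/-!
# R116, leaf (A3): Falconer for planes in `ℝ³`, part 2 (helper389)

`∑_z v_z ∑_{i,j : |Δn + t_z Δc + u_z Δd| ≤ 2^-L} w_i w_j ≤ C 2^-L W ∑_{k ≤ L} 8^k f_k g_k`,
`f_k` = maximal mass of a grid cube of side `2^-k`, `g_k` = maximal mass of a grid square of
directions of side `2^-k`; energy form with a sup bound at a real scale.
-/

set_option autoImplicit false
set_option linter.unusedVariables false

namespace Crest.Agent.R116.F3a389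

open Real MeasureTheory Finset
open Crest.Agent.R138.Fal658 (total_le grid2 one_third_le cell_close)

noncomputable section

variable {ι κ : Type*}

theorem total2_le (J : Finset κ) (v t u : κ → ℝ) (hv : ∀ z ∈ J, 0 ≤ v z) (ht : ∀ z ∈ J, |t z| ≤ 1)
    (hu : ∀ z ∈ J, |u z| ≤ 1) {g0 : ℝ}
    (hg : ∀ a b : ℤ, ∑ z ∈ J with ⌊t z⌋ = a ∧ ⌊u z⌋ = b, v z ≤ g0) : ∑ z ∈ J, v z ≤ 9 * g0 := by
  classical
  have h := total_le J v t hv ht (g0 := 3 * g0) (fun a => by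
    have := total_le (J.filter fun z => ⌊t z⌋ = a) v u (fun z hz => hv z (Finset.mem_filter.1 hz).1)
      (fun z hz => hu z (Finset.mem_filter.1 hz).1) (g0 := g0) (fun b => by
        rw [Finset.filter_filter]; exact hg a b)
    exact this)
  linarith

/-- the dominating multiplier -/
def Dm (L : ℕ) (g : ℕ → ℝ) (ξ : ℝ × ℝ × ℝ) : ℝ :=
  ∑ k ∈ Finset.range (L + 1), g k * gs (((1 : ℝ) / 2) ^ (k + 4)) (((1 : ℝ) / 2) ^ (k + 4)) 0 0 ξ

theorem gs_iso (k : ℕ) (ξ : ℝ × ℝ × ℝ) : gs (((1 : ℝ) / 2) ^ k) (((1 : ℝ) / 2) ^ k) 0 0 ξ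
    = rexp (-(π * ((1 / 4) ^ k * (ξ.1 ^ 2 + ξ.2.1 ^ 2 + ξ.2.2 ^ 2)))) := by
  unfold gs
  congr 2
  rw [zero_mul, sub_zero, sub_zero, ← pow_mul, mul_comm k 2, pow_mul]
  norm_num
  ring

theorem le_Dm (L : ℕ) (g : ℕ → ℝ) (hg0 : ∀ k ≤ L, 0 ≤ g k) (ξ : ℝ × ℝ × ℝ) {k : ℕ} (hk : k ≤ L) :
    g k * rexp (-(π * ((1 / 4) ^ (k + 4) * (ξ.1 ^ 2 + ξ.2.1 ^ 2 + ξ.2.2 ^ 2)))) ≤ Dm L g ξ := by
  unfold Dm
  rw [← gs_iso]
  exact Finset.single_le_sum
    (f := fun k => g k * gs (((1 : ℝ) / 2) ^ (k + 4)) (((1 : ℝ) / 2) ^ (k + 4)) 0 0 ξ)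
    (fun i hi => mul_nonneg (hg0 i (by have := Finset.mem_range.1 hi; omega)) (gs_pos _ _ _ _ _).le)
    (Finset.mem_range.2 (by omega))

/-- a steep coordinate is visible -/
theorem steep {a b t : ℝ} (ht : |t| ≤ 1) (hA : 2 * |a| < |b|) : b ^ 2 / 4 ≤ (b - t * a) ^ 2 := by
  have h2 : |b| / 2 ≤ |b - t * a| := by
    have h3 : |b| - |t * a| ≤ |b - t * a| := abs_sub_abs_le_abs_sub _ _
    have h4 : |t * a| ≤ |a| := by
      rw [abs_mul]
      have := mul_le_mul_of_nonneg_right ht (abs_nonneg a)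
      linarith
    linarith
  have := pow_le_pow_left₀ (by positivity) h2 2
  rw [sq_abs, div_pow, sq_abs] at this
  linarith

/-- the multiplier bound -/
theorem mult_le (J : Finset κ) (v t u : κ → ℝ) (hv : ∀ z ∈ J, 0 ≤ v z) (ht : ∀ z ∈ J, |t z| ≤ 1)
    (hu : ∀ z ∈ J, |u z| ≤ 1) (L : ℕ) (g : ℕ → ℝ)
    (hg : ∀ k ≤ L, ∀ a b : ℤ, ∑ z ∈ J with ⌊(2 : ℝ) ^ k * t z⌋ = a ∧ ⌊(2 : ℝ) ^ k * u z⌋ = b, v z ≤ g k)
    (ξ : ℝ × ℝ × ℝ) :
    ∑ z ∈ J, v z * gs (((1 : ℝ) / 2) ^ L) 1 (t z) (u z) ξ ≤ 108 * Dm L g ξ := by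
  classical
  have hg0 : ∀ k ≤ L, 0 ≤ g k := fun k hk =>
    le_trans (Finset.sum_nonneg fun z hz => hv z (Finset.mem_filter.1 hz).1) (hg k hk 0 0)
  have hV : ∑ z ∈ J, v z ≤ 9 * g 0 :=
    total2_le J v t u hv ht hu (fun a b => by simpa using hg 0 (Nat.zero_le _) a b)
  have hπ := Real.pi_pos
  have hπ32 : π < 3.2 := by have := Real.pi_lt_d2; linarith
  have hπ3 := Real.pi_gt_three
  have hg00 := hg0 0 (Nat.zero_le _)
  have hq : (((1 : ℝ) / 2) ^ L) ^ 2 = (1 / 4) ^ L := by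
    rw [← pow_mul, mul_comm, pow_mul]; norm_num
  have hDm0 : 0 ≤ Dm L g ξ := by
    have h1 := le_Dm L g hg0 ξ (Nat.zero_le L)
    have h2 := mul_nonneg hg00 (Real.exp_pos (-(π * ((1 / 4) ^ (0 + 4) * (ξ.1 ^ 2 + ξ.2.1 ^ 2 + ξ.2.2 ^ 2))))).le
    linarith
  -- the steep case, abstractly
  have hsteep : (∀ z ∈ J, (1 / 4 : ℝ) ^ (0 + 4) * (ξ.1 ^ 2 + ξ.2.1 ^ 2 + ξ.2.2 ^ 2) ≤
      (((1 : ℝ) / 2) ^ L) ^ 2 * ξ.1 ^ 2 + 1 ^ 2 * (ξ.2.1 - t z * ξ.1) ^ 2 +
        1 ^ 2 * (ξ.2.2 - u z * ξ.1) ^ 2) →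
      ∑ z ∈ J, v z * gs (((1 : ℝ) / 2) ^ L) 1 (t z) (u z) ξ ≤ 108 * Dm L g ξ := by
    intro H
    have h1 : ∀ z ∈ J, v z * gs (((1 : ℝ) / 2) ^ L) 1 (t z) (u z) ξ ≤
        v z * rexp (-(π * ((1 / 4) ^ (0 + 4) * (ξ.1 ^ 2 + ξ.2.1 ^ 2 + ξ.2.2 ^ 2)))) := by
      intro z hz
      refine mul_le_mul_of_nonneg_left (Real.exp_le_exp.2 ?_) (hv z hz)
      have := mul_le_mul_of_nonneg_left (H z hz) hπ.le
      linarith
    refine (Finset.sum_le_sum h1).trans ?_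
    rw [← Finset.sum_mul]
    have h9 := le_Dm L g hg0 ξ (Nat.zero_le L)
    have h10 := Real.exp_pos (-(π * ((1 / 4) ^ (0 + 4) * (ξ.1 ^ 2 + ξ.2.1 ^ 2 + ξ.2.2 ^ 2))))
    have h11 := mul_le_mul_of_nonneg_right hV h10.le
    nlinarith [mul_nonneg hg00 h10.le]
  by_cases hA : 2 * |ξ.1| < |ξ.2.1|
  · -- steep frequencies
    refine hsteep fun z hz => ?_
    have h5 := steep (ht z hz) hA
    have h6 : ξ.1 ^ 2 ≤ ξ.2.1 ^ 2 / 4 := by
      have := pow_le_pow_left₀ (by positivity) hA.le 2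
      rw [mul_pow, sq_abs, sq_abs] at this
      linarith
    have h7 : (0 : ℝ) ≤ (((1 : ℝ) / 2) ^ L) ^ 2 * ξ.1 ^ 2 := by positivity
    by_cases hA2 : 2 * |ξ.1| < |ξ.2.2|
    · have h8 := steep (hu z hz) hA2
      norm_num at *
      nlinarith [sq_nonneg ξ.2.1, sq_nonneg ξ.1, sq_nonneg ξ.2.2]
    · push Not at hA2
      have h8 : ξ.2.2 ^ 2 ≤ 4 * ξ.1 ^ 2 := by
        have := pow_le_pow_left₀ (by positivity) hA2 2
        rw [mul_pow, sq_abs, sq_abs] at this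
        linarith
      have h9 := sq_nonneg (ξ.2.2 - u z * ξ.1)
      norm_num at *
      nlinarith [sq_nonneg ξ.2.1, sq_nonneg ξ.1, sq_nonneg ξ.2.2]
  · push Not at hA
    have hB : ξ.2.1 ^ 2 ≤ 4 * ξ.1 ^ 2 := by
      have := pow_le_pow_left₀ (by positivity) hA 2
      rw [mul_pow, sq_abs, sq_abs] at this
      linarith
    by_cases hA2 : 2 * |ξ.1| < |ξ.2.2|
    · refine hsteep fun z hz => ?_
      have h5 := steep (hu z hz) hA2
      have h6 : ξ.1 ^ 2 ≤ ξ.2.2 ^ 2 / 4 := by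
        have := pow_le_pow_left₀ (by positivity) hA2.le 2
        rw [mul_pow, sq_abs, sq_abs] at this
        linarith
      have h7 : (0 : ℝ) ≤ (((1 : ℝ) / 2) ^ L) ^ 2 * ξ.1 ^ 2 := by positivity
      have h9 := sq_nonneg (ξ.2.1 - t z * ξ.1)
      norm_num at *
      nlinarith [sq_nonneg ξ.2.1, sq_nonneg ξ.1, sq_nonneg ξ.2.2]
    push Not at hA2
    have hB2 : ξ.2.2 ^ 2 ≤ 4 * ξ.1 ^ 2 := by
      have := pow_le_pow_left₀ (by positivity) hA2 2
      rw [mul_pow, sq_abs, sq_abs] at this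
      linarith
    rcases lt_or_ge |ξ.1| 1 with h1 | h1
    · -- small frequencies
      have h2 : ∀ z ∈ J, v z * gs (((1 : ℝ) / 2) ^ L) 1 (t z) (u z) ξ ≤ v z := by
        intro z hz
        have : gs (((1 : ℝ) / 2) ^ L) 1 (t z) (u z) ξ ≤ 1 := by
          unfold gs
          rw [Real.exp_le_one_iff]
          have : 0 ≤ π * ((((1 : ℝ) / 2) ^ L) ^ 2 * ξ.1 ^ 2 + 1 ^ 2 * (ξ.2.1 - t z * ξ.1) ^ 2 +
            1 ^ 2 * (ξ.2.2 - u z * ξ.1) ^ 2) := by positivity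
          linarith
        have := mul_le_mul_of_nonneg_left this (hv z hz)
        linarith
      refine (Finset.sum_le_sum h2).trans ?_
      have h9 := le_Dm L g hg0 ξ (Nat.zero_le L)
      have h3 : ξ.1 ^ 2 ≤ 1 := by
        rw [← sq_abs]
        exact pow_le_one₀ (abs_nonneg _) h1.le
      have h4 : rexp (-1) ≤ rexp (-(π * ((1 / 4) ^ (0 + 4) * (ξ.1 ^ 2 + ξ.2.1 ^ 2 + ξ.2.2 ^ 2)))) := by
        refine Real.exp_le_exp.2 ?_
        have h5 : (1 / 4 : ℝ) ^ (0 + 4) * (ξ.1 ^ 2 + ξ.2.1 ^ 2 + ξ.2.2 ^ 2) ≤ 9 / 256 := by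
          norm_num
          linarith
        have h6 : π * ((1 / 4 : ℝ) ^ (0 + 4) * (ξ.1 ^ 2 + ξ.2.1 ^ 2 + ξ.2.2 ^ 2)) ≤ 3.2 * (9 / 256) :=
          mul_le_mul hπ32.le h5 (by positivity) (by norm_num)
        norm_num at h6 ⊢
        linarith
      have h5 := one_third_le
      have h6 := mul_le_mul_of_nonneg_left (h5.trans h4) hg00
      nlinarith
    · have hne : ξ.1 ≠ 0 := by
        intro h; rw [h] at h1; norm_num at h1
      -- rewrite every Gaussian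
      have key : ∀ (M : ℝ) (gk : ℝ), 0 ≤ M → M ≤ |ξ.1| →
          (∀ a b : ℤ, ∑ z ∈ J with ⌊M * t z⌋ = a ∧ ⌊M * u z⌋ = b, v z ≤ gk) →
          ∑ z ∈ J, v z * gs (((1 : ℝ) / 2) ^ L) 1 (t z) (u z) ξ ≤
            rexp (-(π * ((1 / 4) ^ L * ξ.1 ^ 2))) * (36 * gk) := by
        intro M gk hM0 hM hMg
        have h2 := grid2 J v t u hv hM0 hMg hM (ξ.2.1 / ξ.1) (ξ.2.2 / ξ.1)
        have h3 : ∑ z ∈ J, v z * gs (((1 : ℝ) / 2) ^ L) 1 (t z) (u z) ξ
            = rexp (-(π * ((1 / 4) ^ L * ξ.1 ^ 2))) * ∑ z ∈ J, v z *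
              rexp (-(π * ((ξ.1 * (t z - ξ.2.1 / ξ.1)) ^ 2 + (ξ.1 * (u z - ξ.2.2 / ξ.1)) ^ 2))) := by
          rw [Finset.mul_sum]
          refine Finset.sum_congr rfl fun z _ => ?_
          have : gs (((1 : ℝ) / 2) ^ L) 1 (t z) (u z) ξ
              = rexp (-(π * ((1 / 4) ^ L * ξ.1 ^ 2))) *
                rexp (-(π * ((ξ.1 * (t z - ξ.2.1 / ξ.1)) ^ 2 + (ξ.1 * (u z - ξ.2.2 / ξ.1)) ^ 2))) := by
            unfold gs
            rw [← Real.exp_add, hq]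
            congr 1
            field_simp
            ring
          rw [this]; ring
        rw [h3]
        exact mul_le_mul_of_nonneg_left h2 (Real.exp_pos _).le
      rcases lt_or_ge |ξ.1| ((2 : ℝ) ^ L) with h2 | h2
      · -- middle frequencies
        obtain ⟨k, hk1, hk2⟩ : ∃ k : ℕ, (2 : ℝ) ^ k ≤ |ξ.1| ∧ |ξ.1| < (2 : ℝ) ^ (k + 1) :=
          exists_nat_pow_near h1 (by norm_num)
        have hkL : k < L := by
          by_contra hcon
          push Not at hcon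
          have : (2 : ℝ) ^ L ≤ 2 ^ k := pow_le_pow_right₀ (by norm_num) hcon
          linarith
        have h3 := key (2 ^ k) (g k) (by positivity) hk1 (hg k hkL.le)
        have h4 : rexp (-(π * ((1 / 4) ^ L * ξ.1 ^ 2))) ≤ 1 := by
          rw [Real.exp_le_one_iff]
          have : 0 ≤ π * ((1 / 4) ^ L * ξ.1 ^ 2) := by positivity
          linarith
        have hgk := hg0 k hkL.le
        have h5 := le_Dm L g hg0 ξ hkL.le
        have h6 : rexp (-1) ≤ rexp (-(π * ((1 / 4) ^ (k + 4) * (ξ.1 ^ 2 + ξ.2.1 ^ 2 + ξ.2.2 ^ 2)))) := by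
          refine Real.exp_le_exp.2 ?_
          have h7 : ξ.1 ^ 2 ≤ 4 ^ (k + 1) := by
            rw [← sq_abs]
            have := pow_le_pow_left₀ (abs_nonneg _) hk2.le 2
            refine this.trans_eq ?_
            rw [← pow_mul, mul_comm, pow_mul]; norm_num
          have h8 : (1 / 4 : ℝ) ^ (k + 4) * (ξ.1 ^ 2 + ξ.2.1 ^ 2 + ξ.2.2 ^ 2) ≤ 9 / 64 := by
            have h9 : ξ.1 ^ 2 + ξ.2.1 ^ 2 + ξ.2.2 ^ 2 ≤ 9 * 4 ^ (k + 1) := by linarith
            have h10 := mul_le_mul_of_nonneg_left h9 (show (0 : ℝ) ≤ (1 / 4) ^ (k + 4) by positivity)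
            refine h10.trans_eq ?_
            rw [show (1 / 4 : ℝ) ^ (k + 4) = (1 / 4) ^ (k + 1) * (1 / 64) by ring]
            have : (1 / 4 : ℝ) ^ (k + 1) * 4 ^ (k + 1) = 1 := by rw [← mul_pow]; norm_num
            linear_combination (9 / 64) * this
          have h9 : π * ((1 / 4 : ℝ) ^ (k + 4) * (ξ.1 ^ 2 + ξ.2.1 ^ 2 + ξ.2.2 ^ 2)) ≤ 3.2 * (9 / 64) :=
            mul_le_mul hπ32.le h8 (by positivity) (by norm_num)
          norm_num at h9 ⊢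
          linarith
        have h7 := one_third_le
        have h8 := mul_le_mul_of_nonneg_left (h7.trans h6) hgk
        have h9 := mul_le_mul_of_nonneg_right h4 (show (0 : ℝ) ≤ 36 * g k by positivity)
        nlinarith
      · -- high frequencies
        have h3 := key (2 ^ L) (g L) (by positivity) h2 (hg L le_rfl)
        have hgk := hg0 L le_rfl
        have h5 := le_Dm L g hg0 ξ (le_refl L)
        have h6 : rexp (-(π * ((1 / 4) ^ L * ξ.1 ^ 2))) ≤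
            rexp (-(π * ((1 / 4) ^ (L + 4) * (ξ.1 ^ 2 + ξ.2.1 ^ 2 + ξ.2.2 ^ 2)))) := by
          refine Real.exp_le_exp.2 ?_
          have h7 : (1 / 4 : ℝ) ^ (L + 4) * (ξ.1 ^ 2 + ξ.2.1 ^ 2 + ξ.2.2 ^ 2) ≤ (1 / 4) ^ L * ξ.1 ^ 2 := by
            rw [show (1 / 4 : ℝ) ^ (L + 4) = (1 / 4) ^ L * (1 / 256) by ring, mul_assoc]
            refine mul_le_mul_of_nonneg_left ?_ (by positivity)
            nlinarith [sq_nonneg ξ.1]
          have := mul_le_mul_of_nonneg_left h7 hπ.le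
          linarith
        have h8 := mul_le_mul_of_nonneg_left h6 hgk
        have h9 : 0 ≤ g L * rexp (-(π * ((1 / 4) ^ (L + 4) * (ξ.1 ^ 2 + ξ.2.1 ^ 2 + ξ.2.2 ^ 2)))) :=
          mul_nonneg hgk (Real.exp_pos _).le
        nlinarith

theorem integrable_Dm_es (I' : Finset ι) (w n c d : ι → ℝ) (L : ℕ) (g : ℕ → ℝ) :
    Integrable (fun ξ : ℝ × ℝ × ℝ => Dm L g ξ * ‖es I' w n c d ξ‖ ^ 2)
      (volume.prod (volume.prod volume)) := by
  have : (fun ξ : ℝ × ℝ × ℝ => Dm L g ξ * ‖es I' w n c d ξ‖ ^ 2)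
      = fun ξ => ∑ k ∈ Finset.range (L + 1), g k *
        (gs (((1 : ℝ) / 2) ^ (k + 4)) (((1 : ℝ) / 2) ^ (k + 4)) 0 0 ξ * ‖es I' w n c d ξ‖ ^ 2) := by
    funext ξ
    unfold Dm
    rw [Finset.sum_mul]
    exact Finset.sum_congr rfl fun k _ => by ring
  rw [this]
  exact integrable_finsetSum _ fun k _ =>
    (integrable_gs_es I' w n c d (by positivity) (by positivity) 0 0).const_mul _

/-- **Falconer inequality for planes in `ℝ³`**, finite weighted form, no exponents. -/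
theorem falconer3 (I' : Finset ι) (w n c d : ι → ℝ) (J : Finset κ) (v t u : κ → ℝ) (L : ℕ)
    (f g : ℕ → ℝ)
    (hw : ∀ i ∈ I', 0 ≤ w i) (hv : ∀ z ∈ J, 0 ≤ v z) (hc : ∀ i ∈ I', |c i| ≤ 1)
    (hd : ∀ i ∈ I', |d i| ≤ 1) (ht : ∀ z ∈ J, |t z| ≤ 1) (hu : ∀ z ∈ J, |u z| ≤ 1)
    (hf : ∀ k ≤ L, ∀ a b e : ℤ, ∑ i ∈ I' with ⌊(2 : ℝ) ^ k * n i⌋ = a ∧ ⌊(2 : ℝ) ^ k * c i⌋ = b ∧
      ⌊(2 : ℝ) ^ k * d i⌋ = e, w i ≤ f k)
    (hg : ∀ k ≤ L, ∀ a b : ℤ, ∑ z ∈ J with ⌊(2 : ℝ) ^ k * t z⌋ = a ∧ ⌊(2 : ℝ) ^ k * u z⌋ = b,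
      v z ≤ g k) :
    ∑ z ∈ J, v z * ∑ i ∈ I', ∑ j ∈ I' with
        |(n i - n j) + t z * (c i - c j) + u z * (d i - d j)| ≤ (1 / 2) ^ L, w i * w j
      ≤ rexp 32 * 95551488 * (1 / 2) ^ L * (∑ i ∈ I', w i) *
        ∑ k ∈ Finset.range (L + 1), 8 ^ k * f k * g k := by
  classical
  have hπ := Real.pi_pos
  have hπ4 : π < 3.2 := by have := Real.pi_lt_d2; linarith
  set δ : ℝ := (1 / 2) ^ L with hδ
  have hδ0 : 0 < δ := by positivity
  have hW : 0 ≤ ∑ i ∈ I', w i := Finset.sum_nonneg hw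
  have hg0 : ∀ k ≤ L, 0 ≤ g k := fun k hk =>
    le_trans (Finset.sum_nonneg fun z hz => hv z (Finset.mem_filter.1 hz).1) (hg k hk 0 0)
  -- step 1: indicator by Gaussian
  have s1 : ∀ z ∈ J, v z * ∑ i ∈ I', ∑ j ∈ I' with
        |(n i - n j) + t z * (c i - c j) + u z * (d i - d j)| ≤ δ, w i * w j
      ≤ rexp 32 * (v z * ∑ i ∈ I', ∑ j ∈ I', w i * w j *
        rexp (-(π * (((n i - n j) + t z * (c i - c j) + u z * (d i - d j)) ^ 2 / δ ^ 2 +
          (c i - c j) ^ 2 / 1 ^ 2 + (d i - d j) ^ 2 / 1 ^ 2)))) := by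
    intro z hz
    have h1 : ∑ i ∈ I', ∑ j ∈ I' with
          |(n i - n j) + t z * (c i - c j) + u z * (d i - d j)| ≤ δ, w i * w j
        ≤ rexp 32 * ∑ i ∈ I', ∑ j ∈ I', w i * w j *
        rexp (-(π * (((n i - n j) + t z * (c i - c j) + u z * (d i - d j)) ^ 2 / δ ^ 2 +
          (c i - c j) ^ 2 / 1 ^ 2 + (d i - d j) ^ 2 / 1 ^ 2))) := by
      rw [Finset.mul_sum]
      refine Finset.sum_le_sum fun i hi => ?_
      rw [Finset.mul_sum, Finset.sum_filter]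
      refine Finset.sum_le_sum fun j hj => ?_
      have hww : 0 ≤ w i * w j := mul_nonneg (hw i hi) (hw j hj)
      split_ifs with hcond
      · have h2 : ((n i - n j) + t z * (c i - c j) + u z * (d i - d j)) ^ 2 / δ ^ 2 ≤ 1 := by
          rw [div_le_one (by positivity), ← sq_abs]
          exact pow_le_pow_left₀ (abs_nonneg _) hcond 2
        have h3 : (c i - c j) ^ 2 / 1 ^ 2 ≤ 4 := by
          have h4 := abs_le.1 (hc i hi)
          have h5 := abs_le.1 (hc j hj)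
          have : (c i - c j) ^ 2 ≤ 4 := by nlinarith
          linarith [show (c i - c j) ^ 2 / 1 ^ 2 = (c i - c j) ^ 2 by ring]
        have h3' : (d i - d j) ^ 2 / 1 ^ 2 ≤ 4 := by
          have h4 := abs_le.1 (hd i hi)
          have h5 := abs_le.1 (hd j hj)
          have : (d i - d j) ^ 2 ≤ 4 := by nlinarith
          linarith [show (d i - d j) ^ 2 / 1 ^ 2 = (d i - d j) ^ 2 by ring]
        have h6 : rexp (-32) ≤ rexp (-(π * (((n i - n j) + t z * (c i - c j) +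
            u z * (d i - d j)) ^ 2 / δ ^ 2 +
            (c i - c j) ^ 2 / 1 ^ 2 + (d i - d j) ^ 2 / 1 ^ 2))) := by
          refine Real.exp_le_exp.2 ?_
          have : π * (((n i - n j) + t z * (c i - c j) + u z * (d i - d j)) ^ 2 / δ ^ 2 +
            (c i - c j) ^ 2 / 1 ^ 2 + (d i - d j) ^ 2 / 1 ^ 2) ≤ π * 9 :=
            mul_le_mul_of_nonneg_left (by linarith) hπ.le
          linarith
        have h7 := mul_le_mul_of_nonneg_left h6 hww
        have h8 := mul_le_mul_of_nonneg_left h7 (Real.exp_pos 32).le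
        refine le_trans (le_of_eq ?_) h8
        have : rexp 32 * rexp (-32) = 1 := by rw [← Real.exp_add]; norm_num
        linear_combination (-(w i * w j)) * this
      · have := Real.exp_pos (-(π * (((n i - n j) + t z * (c i - c j) +
            u z * (d i - d j)) ^ 2 / δ ^ 2 +
            (c i - c j) ^ 2 / 1 ^ 2 + (d i - d j) ^ 2 / 1 ^ 2)))
        have := Real.exp_pos 32
        positivity
    have h2 := mul_le_mul_of_nonneg_left h1 (hv z hz)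
    refine h2.trans_eq (by ring)
  refine (Finset.sum_le_sum s1).trans ?_
  rw [← Finset.mul_sum]
  -- step 2: Fourier
  have s2 : ∑ z ∈ J, v z * ∑ i ∈ I', ∑ j ∈ I', w i * w j *
        rexp (-(π * (((n i - n j) + t z * (c i - c j) + u z * (d i - d j)) ^ 2 / δ ^ 2 +
          (c i - c j) ^ 2 / 1 ^ 2 + (d i - d j) ^ 2 / 1 ^ 2)))
      = δ * ∫ ξ : ℝ × ℝ × ℝ, (∑ z ∈ J, v z * gs δ 1 (t z) (u z) ξ) * ‖es I' w n c d ξ‖ ^ 2
        ∂(volume.prod (volume.prod volume)) := by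
    have e : (fun ξ : ℝ × ℝ × ℝ => (∑ z ∈ J, v z * gs δ 1 (t z) (u z) ξ) * ‖es I' w n c d ξ‖ ^ 2)
        = fun ξ => ∑ z ∈ J, v z * (gs δ 1 (t z) (u z) ξ * ‖es I' w n c d ξ‖ ^ 2) := by
      funext ξ
      rw [Finset.sum_mul]
      exact Finset.sum_congr rfl fun z _ => by ring
    rw [e, integral_finsetSum _ fun z _ =>
      (integrable_gs_es I' w n c d hδ0 one_pos (t z) (u z)).const_mul _, Finset.mul_sum]
    refine Finset.sum_congr rfl fun z _ => ?_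
    rw [integral_const_mul, quad I' w n c d hδ0 one_pos (t z) (u z)]
    ring
  rw [s2]
  -- step 3: multiplier bound
  have s3 : ∫ ξ : ℝ × ℝ × ℝ, (∑ z ∈ J, v z * gs δ 1 (t z) (u z) ξ) * ‖es I' w n c d ξ‖ ^ 2
        ∂(volume.prod (volume.prod volume))
      ≤ 108 * ∫ ξ : ℝ × ℝ × ℝ, Dm L g ξ * ‖es I' w n c d ξ‖ ^ 2
        ∂(volume.prod (volume.prod volume)) := by
    rw [← integral_const_mul]
    refine integral_mono_of_nonneg ?_ ((integrable_Dm_es I' w n c d L g).const_mul _) ?_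
    · refine Filter.Eventually.of_forall fun ξ => ?_
      exact mul_nonneg (Finset.sum_nonneg fun z hz => mul_nonneg (hv z hz) (gs_pos _ _ _ _ _).le)
        (by positivity)
    · refine Filter.Eventually.of_forall fun ξ => ?_
      have h1 := mult_le J v t u hv ht hu L g hg ξ
      have h2 := mul_le_mul_of_nonneg_right h1 (show (0 : ℝ) ≤ ‖es I' w n c d ξ‖ ^ 2 by positivity)
      simp only
      refine h2.trans_eq (by ring)
  -- step 4: back to physical space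
  have s4 : ∫ ξ : ℝ × ℝ × ℝ, Dm L g ξ * ‖es I' w n c d ξ‖ ^ 2 ∂(volume.prod (volume.prod volume))
      ≤ ∑ k ∈ Finset.range (L + 1), g k * (8 ^ (k + 4) * ((∑ i ∈ I', w i) * (216 * f k))) := by
    have e : (fun ξ : ℝ × ℝ × ℝ => Dm L g ξ * ‖es I' w n c d ξ‖ ^ 2)
        = fun ξ => ∑ k ∈ Finset.range (L + 1), g k *
          (gs (((1 : ℝ) / 2) ^ (k + 4)) (((1 : ℝ) / 2) ^ (k + 4)) 0 0 ξ * ‖es I' w n c d ξ‖ ^ 2) := by
      funext ξ
      unfold Dm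
      rw [Finset.sum_mul]
      exact Finset.sum_congr rfl fun k _ => by ring
    rw [e, integral_finsetSum _ fun k _ =>
      (integrable_gs_es I' w n c d (by positivity) (by positivity) 0 0).const_mul _]
    refine Finset.sum_le_sum fun k hk => ?_
    have hkL : k ≤ L := by have := Finset.mem_range.1 hk; omega
    rw [integral_const_mul]
    refine mul_le_mul_of_nonneg_left ?_ (hg0 k hkL)
    have hp : (0 : ℝ) < (1 / 2) ^ (k + 4) := by positivity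
    have hq := quad I' w n c d hp hp 0 0
    have h1 : ∫ ξ : ℝ × ℝ × ℝ, gs (((1 : ℝ) / 2) ^ (k + 4)) (((1 : ℝ) / 2) ^ (k + 4)) 0 0 ξ *
          ‖es I' w n c d ξ‖ ^ 2 ∂(volume.prod (volume.prod volume))
        = 8 ^ (k + 4) * ∑ i ∈ I', ∑ j ∈ I', w i * w j *
        rexp (-(π * (((n i - n j) + 0 * (c i - c j) + 0 * (d i - d j)) ^ 2 / ((1 / 2) ^ (k + 4)) ^ 2 +
          (c i - c j) ^ 2 / ((1 / 2) ^ (k + 4)) ^ 2 + (d i - d j) ^ 2 / ((1 / 2) ^ (k + 4)) ^ 2))) := by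
      rw [hq]
      have : (8 : ℝ) ^ (k + 4) * ((1 / 2) ^ (k + 4) * (1 / 2) ^ (k + 4) * (1 / 2) ^ (k + 4)) = 1 := by
        rw [← mul_pow, ← mul_pow, ← mul_pow]; norm_num
      linear_combination (-(∫ ξ : ℝ × ℝ × ℝ, gs (((1 : ℝ) / 2) ^ (k + 4)) (((1 : ℝ) / 2) ^ (k + 4)) 0 0 ξ *
        ‖es I' w n c d ξ‖ ^ 2 ∂(volume.prod (volume.prod volume)))) * this
    rw [h1]
    refine mul_le_mul_of_nonneg_left ?_ (by positivity)
    rw [Finset.sum_mul]
    refine Finset.sum_le_sum fun i hi => ?_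
    have h2 : ∑ j ∈ I', w i * w j *
        rexp (-(π * (((n i - n j) + 0 * (c i - c j) + 0 * (d i - d j)) ^ 2 / ((1 / 2) ^ (k + 4)) ^ 2 +
          (c i - c j) ^ 2 / ((1 / 2) ^ (k + 4)) ^ 2 + (d i - d j) ^ 2 / ((1 / 2) ^ (k + 4)) ^ 2)))
        = w i * ∑ j ∈ I', w j * rexp (-(π * ((2 ^ (k + 4) * (n j - n i)) ^ 2 +
          (2 ^ (k + 4) * (c j - c i)) ^ 2 + (2 ^ (k + 4) * (d j - d i)) ^ 2))) := by
      rw [Finset.mul_sum]
      refine Finset.sum_congr rfl fun j _ => ?_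
      rw [mul_assoc]
      congr 3
      have h3 : ((1 : ℝ) / 2) ^ (k + 4) = (2 ^ (k + 4))⁻¹ := by rw [one_div, inv_pow]
      rw [h3]
      have h4 : (2 : ℝ) ^ (k + 4) ≠ 0 := by positivity
      field_simp
      ring
    rw [h2]
    refine mul_le_mul_of_nonneg_left ?_ (hw i hi)
    refine grid3 I' w n c d hw (M := 2 ^ k) (by positivity) (hf k hkL) (x := 2 ^ (k + 4)) ?_
      (n i) (c i) (d i)
    rw [abs_of_pos (by positivity)]
    exact pow_le_pow_right₀ (by norm_num) (by omega)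
  have s5 : δ * ∫ ξ : ℝ × ℝ × ℝ, (∑ z ∈ J, v z * gs δ 1 (t z) (u z) ξ) * ‖es I' w n c d ξ‖ ^ 2
        ∂(volume.prod (volume.prod volume))
      ≤ δ * (108 * ∑ k ∈ Finset.range (L + 1), g k * (8 ^ (k + 4) * ((∑ i ∈ I', w i) * (216 * f k)))) :=
    mul_le_mul_of_nonneg_left (s3.trans (mul_le_mul_of_nonneg_left s4 (by norm_num))) hδ0.le
  refine (mul_le_mul_of_nonneg_left s5 (Real.exp_pos 32).le).trans_eq ?_
  rw [Finset.mul_sum, Finset.mul_sum, Finset.mul_sum, Finset.mul_sum]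
  refine Finset.sum_congr rfl fun k _ => ?_
  ring

/-- the mass of the centred cube -/
def mB (I' : Finset ι) (w n c d : ι → ℝ) (r : ℝ) (i : ι) : ℝ :=
  ∑ j ∈ I' with |n j - n i| ≤ r ∧ |c j - c i| ≤ r ∧ |d j - d i| ≤ r, w j

/-- the mass of the centred square -/
def mI (J : Finset κ) (v t u : κ → ℝ) (r : ℝ) (z : κ) : ℝ :=
  ∑ z' ∈ J with |t z' - t z| ≤ r ∧ |u z' - u z| ≤ r, v z'

/-- the constant -/
def CF3 : ℝ := rexp 32 * 95551488

theorem CF3_pos : 0 < CF3 := by unfold CF3; positivity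

/-- **Falconer in `ℝ³`, energy form with a sup bound.** -/
theorem falconer3_sup (I' : Finset ι) (w n c d : ι → ℝ) (J : Finset κ) (v t u : κ → ℝ) (δ E : ℝ)
    (hδ : 0 < δ) (hδ1 : δ ≤ 1) (hE : 0 ≤ E)
    (hw : ∀ i ∈ I', 0 ≤ w i) (hv : ∀ z ∈ J, 0 ≤ v z) (hc : ∀ i ∈ I', |c i| ≤ 1)
    (hd : ∀ i ∈ I', |d i| ≤ 1) (ht : ∀ z ∈ J, |t z| ≤ 1) (hu : ∀ z ∈ J, |u z| ≤ 1)
    (hm : ∀ r, δ ≤ r → r ≤ 1 → ∀ i ∈ I', ∀ z ∈ J, mB I' w n c d r i * mI J v t u r z ≤ E * r ^ 3) :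
    ∑ z ∈ J, v z * ∑ i ∈ I', ∑ j ∈ I' with
        |(n i - n j) + t z * (c i - c j) + u z * (d i - d j)| ≤ δ, w i * w j
      ≤ 4 * CF3 * δ * (1 + Real.log (1 / δ)) * (∑ i ∈ I', w i) * E := by
  classical
  have hCF := CF3_pos
  have hW : 0 ≤ ∑ i ∈ I', w i := Finset.sum_nonneg hw
  have hlog : 0 ≤ Real.log (1 / δ) := Real.log_nonneg (by rw [le_div_iff₀ hδ]; linarith)
  have hR0 : 0 ≤ 4 * CF3 * δ * (1 + Real.log (1 / δ)) * (∑ i ∈ I', w i) * E := by positivity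
  rcases I'.eq_empty_or_nonempty with rfl | hI
  · simpa using hR0
  rcases J.eq_empty_or_nonempty with rfl | hJ
  · simpa using hR0
  obtain ⟨L, hL1, hL2⟩ : ∃ L : ℕ, (2 : ℝ) ^ L ≤ 1 / δ ∧ 1 / δ < (2 : ℝ) ^ (L + 1) :=
    exists_nat_pow_near (by rw [le_div_iff₀ hδ]; linarith) (by norm_num)
  have hk : ∀ k ≤ L, δ ≤ (1 / 2 : ℝ) ^ k := by
    intro k hk
    have h1 : (2 : ℝ) ^ k ≤ 1 / δ := (pow_le_pow_right₀ (by norm_num) hk).trans hL1
    rw [one_div, inv_pow, ← one_div, le_div_iff₀ (by positivity)]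
    rw [le_div_iff₀ hδ] at h1
    linarith
  have hk1 : ∀ k : ℕ, (1 / 2 : ℝ) ^ k ≤ 1 := fun k => pow_le_one₀ (by norm_num) (by norm_num)
  set f : ℕ → ℝ := fun k => I'.sup' hI (mB I' w n c d ((1 / 2) ^ k)) with hf
  set g : ℕ → ℝ := fun k => J.sup' hJ (mI J v t u ((1 / 2) ^ k)) with hg
  have hB0 : ∀ r, ∀ i, 0 ≤ mB I' w n c d r i := fun r i =>
    Finset.sum_nonneg fun j hj => hw j (Finset.mem_filter.1 hj).1
  have hI0 : ∀ r, ∀ z, 0 ≤ mI J v t u r z := fun r z =>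
    Finset.sum_nonneg fun j hj => hv j (Finset.mem_filter.1 hj).1
  have hf0 : ∀ k, 0 ≤ f k := by
    intro k
    obtain ⟨i, hi⟩ := hI
    exact (hB0 _ i).trans (Finset.le_sup' (mB I' w n c d ((1 / 2) ^ k)) hi)
  have hg0 : ∀ k, 0 ≤ g k := by
    intro k
    obtain ⟨i, hi⟩ := hJ
    exact (hI0 _ i).trans (Finset.le_sup' (mI J v t u ((1 / 2) ^ k)) hi)
  have h0 := falconer3 I' w n c d J v t u L f g hw hv hc hd ht hu
    (fun k hkL a b e => by
      rcases (I'.filter fun i => ⌊(2 : ℝ) ^ k * n i⌋ = a ∧ ⌊(2 : ℝ) ^ k * c i⌋ = b ∧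
        ⌊(2 : ℝ) ^ k * d i⌋ = e).eq_empty_or_nonempty with h | ⟨i0, hi0⟩
      · rw [h, Finset.sum_empty]
        exact hf0 k
      · have hi0' := Finset.mem_filter.1 hi0
        refine le_trans ?_ (Finset.le_sup' (mB I' w n c d ((1 / 2) ^ k)) hi0'.1)
        refine Finset.sum_le_sum_of_subset_of_nonneg ?_ ?_
        · intro j hj
          have hj' := Finset.mem_filter.1 hj
          exact Finset.mem_filter.2 ⟨hj'.1, cell_close k _ _ (hj'.2.1.trans hi0'.2.1.symm),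
            cell_close k _ _ (hj'.2.2.1.trans hi0'.2.2.1.symm),
            cell_close k _ _ (hj'.2.2.2.trans hi0'.2.2.2.symm)⟩
        · intro j hj _
          exact hw j (Finset.mem_filter.1 hj).1)
    (fun k hkL a b => by
      rcases (J.filter fun z => ⌊(2 : ℝ) ^ k * t z⌋ = a ∧
        ⌊(2 : ℝ) ^ k * u z⌋ = b).eq_empty_or_nonempty with h | ⟨i0, hi0⟩
      · rw [h, Finset.sum_empty]
        exact hg0 k
      · have hi0' := Finset.mem_filter.1 hi0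
        refine le_trans ?_ (Finset.le_sup' (mI J v t u ((1 / 2) ^ k)) hi0'.1)
        refine Finset.sum_le_sum_of_subset_of_nonneg ?_ ?_
        · intro j hj
          have hj' := Finset.mem_filter.1 hj
          exact Finset.mem_filter.2 ⟨hj'.1, cell_close k _ _ (hj'.2.1.trans hi0'.2.1.symm),
            cell_close k _ _ (hj'.2.2.trans hi0'.2.2.symm)⟩
        · intro j hj _
          exact hv j (Finset.mem_filter.1 hj).1)
  have h1 : ∑ k ∈ Finset.range (L + 1), (8 : ℝ) ^ k * f k * g k ≤ (L + 1) * E := by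
    have h2 : ∀ k ∈ Finset.range (L + 1), (8 : ℝ) ^ k * f k * g k ≤ E := by
      intro k hk'
      have hkL : k ≤ L := by have := Finset.mem_range.1 hk'; omega
      obtain ⟨i, hi, hi2⟩ := Finset.exists_mem_eq_sup' hI (mB I' w n c d ((1 / 2) ^ k))
      obtain ⟨z, hz, hz2⟩ := Finset.exists_mem_eq_sup' hJ (mI J v t u ((1 / 2) ^ k))
      have h3 := hm ((1 / 2) ^ k) (hk k hkL) (hk1 k) i hi z hz
      rw [← hi2, ← hz2] at h3
      have h4 := mul_le_mul_of_nonneg_left h3 (show (0 : ℝ) ≤ 8 ^ k by positivity)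
      have h5 : (8 : ℝ) ^ k * (E * ((1 / 2) ^ k) ^ 3) = E := by
        rw [← pow_mul, mul_comm k 3, pow_mul]
        have : (8 : ℝ) ^ k * ((1 / 2 : ℝ) ^ 3) ^ k = 1 := by rw [← mul_pow]; norm_num
        linear_combination E * this
      rw [h5] at h4
      simp only [hf, hg]
      linarith
    refine (Finset.sum_le_sum h2).trans ?_
    rw [Finset.sum_const, Finset.card_range, nsmul_eq_mul]
    push_cast
    exact le_rfl
  have h2 : (L : ℝ) + 1 ≤ 2 * (1 + Real.log (1 / δ)) := by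
    have h3 : (L : ℝ) * Real.log 2 ≤ Real.log (1 / δ) := by
      rw [← Real.log_pow]
      exact Real.log_le_log (by positivity) hL1
    have h4 : (1 / 2 : ℝ) < Real.log 2 := by have := Real.log_two_gt_d9; linarith
    have h5 : (0 : ℝ) ≤ L := Nat.cast_nonneg _
    nlinarith
  have h3 : (1 / 2 : ℝ) ^ L ≤ 2 * δ := by
    rw [div_lt_iff₀ hδ] at hL2
    rw [one_div, inv_pow, ← one_div, div_le_iff₀ (by positivity)]
    rw [pow_succ] at hL2
    linarith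
  have h4 : ∑ z ∈ J, v z * ∑ i ∈ I', ∑ j ∈ I' with
        |(n i - n j) + t z * (c i - c j) + u z * (d i - d j)| ≤ δ, w i * w j
      ≤ ∑ z ∈ J, v z * ∑ i ∈ I', ∑ j ∈ I' with
        |(n i - n j) + t z * (c i - c j) + u z * (d i - d j)| ≤ (1 / 2) ^ L, w i * w j := by
    refine Finset.sum_le_sum fun z hz => mul_le_mul_of_nonneg_left ?_ (hv z hz)
    refine Finset.sum_le_sum fun i hi => ?_
    refine Finset.sum_le_sum_of_subset_of_nonneg ?_ ?_
    · intro j hj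
      have hj' := Finset.mem_filter.1 hj
      exact Finset.mem_filter.2 ⟨hj'.1, hj'.2.trans (hk L le_rfl)⟩
    · intro j hj _
      exact mul_nonneg (hw i hi) (hw j (Finset.mem_filter.1 hj).1)
  refine h4.trans (h0.trans ?_)
  have h5 : 0 ≤ ∑ k ∈ Finset.range (L + 1), (8 : ℝ) ^ k * f k * g k :=
    Finset.sum_nonneg fun k _ => by have := hf0 k; have := hg0 k; positivity
  have h6 : ∑ k ∈ Finset.range (L + 1), (8 : ℝ) ^ k * f k * g k ≤ 2 * (1 + Real.log (1 / δ)) * E :=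
    h1.trans (mul_le_mul_of_nonneg_right h2 hE)
  have h7 : (1 / 2 : ℝ) ^ L * ∑ k ∈ Finset.range (L + 1), (8 : ℝ) ^ k * f k * g k
      ≤ (2 * δ) * (2 * (1 + Real.log (1 / δ)) * E) := mul_le_mul h3 h6 h5 (by positivity)
  have h8 := mul_le_mul_of_nonneg_left h7 (show 0 ≤ CF3 * ∑ i ∈ I', w i by positivity)
  unfold CF3 at *
  refine le_trans (le_of_eq (by ring)) (h8.trans (le_of_eq (by ring)))

end

end Crest.Agent.R116.F3a389
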