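import Crest.Agent.R116.Kr2_710

/-!
# R116, K side: exponent forms of Kaufman and Falconer with `ε`-dependent incidence (helper710)
-/

set_option autoImplicit false
set_option linter.unusedVariables false
set_option linter.unusedSectionVars false

open Filter Topology Finset

namespace Crest.Agent.R116.Kr710

open Crest.Agent.R138.Ex926 (Base U)
open Crest.Agent.R138.Fal658 Crest.Agent.R136.Gf356

/-- Kaufman in exponent form, `alive` may depend on `ε` (copy of 356's `kauf_exE`). -/
theorem kauf_exA (B : Base) {ι : Type*} [DecidableEq ι] (S : ℝ → ℕ → Finset ι)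
    (Z : ℝ → ℕ → Finset ℕ)
    (φ : ℕ → ℕ → ℝ) (al : ℝ → ℕ → ι → ℕ → Prop)
    [∀ ε n i, DecidablePred (al ε n i)]
    (F : ℕ → ι → ℕ → ℝ) (A V : ℕ → ι → ℝ) {x σ α κ C C2 C0 : ℝ} (hx : 0 < x) (hσ0 : 0 ≤ σ)
    (hσ1 : σ ≤ 1) (hC : 1 ≤ C) (hC2 : 1 ≤ C2) {J : ℕ} (hJ : 0 < J) (π : ℕ → ℝ)
    (hZ : ∀ ε : ℝ, 0 < ε → ∀ᶠ n in (U : Filter ℕ), (Z ε n).Nonempty)
    (hφ : ∀ ε : ℝ, 0 < ε → ∀ᶠ n in (U : Filter ℕ), ∀ k ∈ Z ε n, |φ n k| ≤ B.d n ^ (-(C * ε)))
    (hF : ∀ ε : ℝ, 0 < ε → ∀ᶠ n in (U : Filter ℕ), ∀ k ∈ Z ε n, ∀ i ∈ S ε n, ∀ i' ∈ S ε n,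
      |F n i k - F n i' k - ((A n i - A n i') + φ n k * (V n i - V n i'))|
        ≤ B.d n ^ (x - C * ε))
    (hS : ∀ ε : ℝ, 0 < ε → ∀ᶠ n in (U : Filter ℕ), B.d n ^ (-α + C * ε) ≤ ((S ε n).card : ℝ))
    (hcell : ∀ ε : ℝ, 0 < ε → ∀ᶠ n in (U : Filter ℕ), ∀ k ∈ Z ε n,
      ((((S ε n).filter fun i => al ε n i k).image fun i => ⌊F n i k / B.d n ^ (x - C * ε)⌋).card : ℝ)
        ≤ C0 * B.d n ^ (-κ - C2 * ε))
    (hal : ∀ ε : ℝ, 0 < ε → ∀ᶠ n in (U : Filter ℕ), ∀ i ∈ S ε n,
      B.d n ^ (C * ε) * ((Z ε n).card : ℝ) ≤ (((Z ε n).filter fun k => al ε n i k).card : ℝ))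
    (hV0 : ∀ ε : ℝ, 0 < ε → ∀ᶠ n in (U : Filter ℕ), ∀ i ∈ S ε n, ∀ i' ∈ S ε n,
      |V n i - V n i'| ≤ B.d n ^ (-(C * ε)))
    (hP : ∀ j ≤ J, ∀ ε : ℝ, 0 < ε → ∀ᶠ n in (U : Filter ℕ), ∀ i ∈ S ε n,
      (((S ε n).filter fun i' => |V n i' - V n i| ≤ B.d n ^ (sc x J j - C * ε) ∧
        |A n i' - A n i| ≤ B.d n ^ (sc x J j - (2 * C + 1) * ε)).card : ℝ)
          ≤ B.d n ^ (-π j - C2 * ε))
    (hQ : ∀ y : ℝ, 0 ≤ y → y ≤ x → ∀ ε : ℝ, 0 < ε → ∀ᶠ n in (U : Filter ℕ), ∀ k ∈ Z ε n,
      (((Z ε n).filter fun k' => |φ n k' - φ n k| ≤ B.d n ^ (y - ε)).card : ℝ)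
        ≤ B.d n ^ (σ * y - C2 * ε) * ((Z ε n).card : ℝ)) :
    ∃ j ≤ J, α - π j + σ * (x - sc x J (j + 1)) ≤ κ := by
  classical
  obtain ⟨j, hj, h⟩ := exists_le_of_ev B J
    (fun j => -κ - π j + σ * (x - sc x J (j + 1))) (- α) (3 * C + 3 * C2) (3 * |C0| + 1) (by
    intro ε hε
    have hCε : 0 ≤ C * ε := by positivity
    have ev1 : ∀ᶠ n in (U : Filter ℕ), ∀ j ∈ range (J + 1), ∀ i ∈ S ε n,
        (((S ε n).filter fun i' => |V n i' - V n i| ≤ B.d n ^ (sc x J j - C * ε) ∧
          |A n i' - A n i| ≤ B.d n ^ (sc x J j - (2 * C + 1) * ε)).card : ℝ)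
            ≤ B.d n ^ (-π j - C2 * ε) := by
      rw [Filter.eventually_all_finset]
      intro j hj
      exact hP j (by simpa [Nat.lt_succ_iff] using hj) ε hε
    have ev2 : ∀ᶠ n in (U : Filter ℕ), ∀ j ∈ range J, ∀ k ∈ Z ε n,
        (((Z ε n).filter fun k' =>
          |φ n k' - φ n k| ≤ B.d n ^ (x - sc x J (j + 1) - ε)).card : ℝ)
          ≤ B.d n ^ (σ * (x - sc x J (j + 1)) - C2 * ε) * ((Z ε n).card : ℝ) := by
      rw [Filter.eventually_all_finset]
      intro j hj
      have hj' : j + 1 ≤ J := by simpa using hj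
      exact hQ (x - sc x J (j + 1)) (by linarith [sc_le hx.le hJ hj'])
        (by linarith [sc_nonneg hx.le J (j + 1)]) ε hε
    filter_upwards [ev1, ev2, hZ ε hε, hφ ε hε, hF ε hε, hS ε hε, hcell ε hε, hal ε hε, hV0 ε hε,
      ev_const_le B hε 8] with n h1 h2 hZn hφn hFn hSn hcn haln hVn h7
    have hpow : ∀ t : ℝ, 0 < B.d n ^ t := fun t => rpos B n t
    have hSne : (S ε n).Nonempty := by
      rw [← Finset.card_pos]
      have : (0 : ℝ) < ((S ε n).card : ℝ) := lt_of_lt_of_le (hpow _) hSn
      exact_mod_cast this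
    -- rescaled multiplier and velocity
    set u := B.d n ^ (C * ε) with hu
    have hu0 : 0 < u := hpow _
    have huv : u * B.d n ^ (-(C * ε)) = 1 := by
      rw [hu, ← rpow_add', add_neg_cancel, Real.rpow_zero]
    set v := B.d n ^ (-(C * ε)) with hv
    have hv0 : 0 < v := hpow _
    set r := B.d n ^ (x - C * ε) with hr
    have key := Crest.Agent.R138.Tw829.kaufman_abs (S ε n) (Z ε n) (fun k => u * φ n k) (al ε n)
      (fun i k => F n i k)
      (A n) (fun i => v * V n i) 0 r r (|C0| * B.d n ^ (-κ - C2 * ε)) (B.d n ^ (C * ε)) J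
      (fun j => B.d n ^ (sc x J j - 2 * (C * ε))) (fun j => B.d n ^ (-π j - C2 * ε))
      (fun j => B.d n ^ (σ * (x - sc x J (j + 1)) - C2 * ε))
      (hpow _) (hpow _).le (mul_nonneg (abs_nonneg _) (hpow _).le) (hpow _).le hSne hZn
      (by
        intro k hk
        have := hφn k hk
        rw [sub_zero, abs_mul, abs_of_pos hu0]
        calc u * |φ n k| ≤ u * v := mul_le_mul_of_nonneg_left this hu0.le
          _ = 1 := huv
          _ ≤ 2 := by norm_num)
      (by
        intro k hk i hi i' hi'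
        have := hFn k hk i hi i' hi'
        have e : (u * φ n k - 0) * (v * V n i - v * V n i') =
            φ n k * (V n i - V n i') := by
          have : (u * φ n k - 0) * (v * V n i - v * V n i') =
            (u * v) * (φ n k * (V n i - V n i')) := by ring
          rw [this, huv, one_mul]
        simp only [e]
        exact this)
      (by
        intro k hk
        refine (hcn k hk).trans ?_
        exact mul_le_mul_of_nonneg_right (le_abs_self _) (hpow _).le)
      (by
        calc B.d n ^ (C * ε) * (((S ε n).card : ℝ) * (Z ε n).card)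
            = ∑ i ∈ S ε n, B.d n ^ (C * ε) * ((Z ε n).card : ℝ) := by
              rw [Finset.sum_const, nsmul_eq_mul]; ring
          _ ≤ _ := Finset.sum_le_sum fun i hi => haln i hi)
      (fun j => hpow _)
      (by
        intro i hi i' hi'
        have := hVn i hi i' hi'
        simp only [sc_zero]
        rw [← mul_sub, abs_mul, abs_of_pos hv0]
        have e1 : B.d n ^ (0 - 2 * (C * ε)) = v * v := by
          rw [hv, ← rpow_add']; congr 1; ring
        rw [e1]
        exact mul_le_mul_of_nonneg_left this hv0.le)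
      (fun j => (hpow _).le) (fun j => (hpow _).le)
      (by
        intro j hj i hi
        have b1 := h1 j (Finset.mem_range.2 (by omega)) i hi
        refine le_trans ?_ b1
        have : ((S ε n).filter fun i' => |v * V n i' - v * V n i| ≤
              B.d n ^ (sc x J j - 2 * (C * ε)) ∧
            |A n i' - A n i| ≤ r + r + 2 * B.d n ^ (sc x J j - 2 * (C * ε))) ⊆
            (S ε n).filter fun i' => |V n i' - V n i| ≤ B.d n ^ (sc x J j - C * ε) ∧
              |A n i' - A n i| ≤ B.d n ^ (sc x J j - (2 * C + 1) * ε) := by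
          intro i' hi'
          obtain ⟨c1, c2, c3⟩ := Finset.mem_filter.1 hi'
          refine Finset.mem_filter.2 ⟨c1, ?_, c3.trans ?_⟩
          · rw [← mul_sub, abs_mul, abs_of_pos hv0] at c2
            have e1 : B.d n ^ (sc x J j - 2 * (C * ε)) = v * B.d n ^ (sc x J j - C * ε) := by
              rw [hv, ← rpow_add']; congr 1; ring
            rw [e1] at c2
            exact le_of_mul_le_mul_left c2 hv0
          · have e1 : r ≤ B.d n ^ (sc x J j - 2 * (C * ε)) :=
              rpow_anti B n (by linarith [sc_le hx.le hJ hj])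
            have e3 : B.d n ^ (sc x J j - (2 * C + 1) * ε) =
                B.d n ^ (sc x J j - 2 * (C * ε)) * B.d n ^ (-ε) := by
              rw [← rpow_add']; congr 1; ring
            rw [e3]
            have e4 := hpow (sc x J j - 2 * (C * ε))
            nlinarith
        exact_mod_cast Finset.card_le_card this)
      (by
        intro j hj k hk
        have b1 := h2 j (Finset.mem_range.2 hj) k hk
        refine le_trans ?_ b1
        have : ((Z ε n).filter fun k' => |u * φ n k' - u * φ n k| ≤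
            2 * (r + r) / B.d n ^ (sc x J (j + 1) - 2 * (C * ε))) ⊆
            (Z ε n).filter fun k' => |φ n k' - φ n k| ≤
              B.d n ^ (x - sc x J (j + 1) - ε) := by
          intro k' hk'
          obtain ⟨c1, c2⟩ := Finset.mem_filter.1 hk'
          refine Finset.mem_filter.2 ⟨c1, ?_⟩
          rw [← mul_sub, abs_mul, abs_of_pos hu0] at c2
          have e1 : 2 * (r + r) / B.d n ^ (sc x J (j + 1) - 2 * (C * ε)) =
              u * (4 * B.d n ^ (x - sc x J (j + 1))) := by
            have : B.d n ^ (x - C * ε) = u * B.d n ^ (x - sc x J (j + 1)) *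
                B.d n ^ (sc x J (j + 1) - 2 * (C * ε)) := by
              rw [hu, ← rpow_add', ← rpow_add']; congr 1; ring
            rw [hr, this]
            have e0 := (hpow (sc x J (j + 1) - 2 * (C * ε))).ne'
            rw [div_eq_iff e0]
            ring
          rw [e1] at c2
          have c3 := le_of_mul_le_mul_left c2 hu0
          refine c3.trans ?_
          have e3 : B.d n ^ (x - sc x J (j + 1) - ε) =
              B.d n ^ (x - sc x J (j + 1)) * B.d n ^ (-ε) := by
            rw [← rpow_add', ← sub_eq_add_neg]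
          rw [e3]
          nlinarith [hpow (x - sc x J (j + 1))]
        exact_mod_cast Finset.card_le_card this)
      (by
        apply Real.one_le_rpow_of_pos_of_le_one_of_nonpos (B.pos n) (B.lt n).le
        rw [sc_succ x hJ, sc_top x hJ]
        have : 0 ≤ σ * (x / J) := by positivity
        have : 0 ≤ C2 * ε := by positivity
        nlinarith)
    have k1 : B.d n ^ (-α + 3 * C * ε) ≤ (B.d n ^ (C * ε)) ^ 2 * ((S ε n).card : ℝ) := by
      have : B.d n ^ (-α + 3 * C * ε) = (B.d n ^ (C * ε)) ^ 2 * B.d n ^ (-α + C * ε) := by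
        rw [sq, ← rpow_add', ← rpow_add']; congr 1; ring
      rw [this]
      exact mul_le_mul_of_nonneg_left hSn (by positivity)
    calc B.d n ^ (-α + (3 * C + 3 * C2) * ε) ≤ B.d n ^ (-α + 3 * C * ε) :=
          rpow_anti B n (by nlinarith)
      _ ≤ _ := k1
      _ ≤ _ := key
      _ = |C0| * ∑ j ∈ range (J + 1), B.d n ^ (-κ - π j + σ * (x - sc x J (j + 1))
            - 3 * C2 * ε) := by
          rw [mul_assoc, Finset.mul_sum]
          congr 1
          refine Finset.sum_congr rfl fun j _ => ?_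
          rw [← rpow_add', ← rpow_add']
          congr 1
          ring
      _ ≤ (3 * |C0| + 1) * ∑ j ∈ range (J + 1), B.d n ^ (-κ - π j + σ * (x - sc x J (j + 1))
            - 3 * C2 * ε) := by
          refine mul_le_mul_of_nonneg_right (by linarith [abs_nonneg C0]) ?_
          exact Finset.sum_nonneg fun j _ => (hpow _).le
      _ ≤ _ := by
          refine mul_le_mul_of_nonneg_left ?_ (by positivity)
          refine Finset.sum_le_sum fun j _ => rpow_anti B n ?_
          nlinarith)
  refine ⟨j, hj, ?_⟩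
  linarith

set_option maxHeartbeats 1600000 in
/-- Falconer in exponent form, `alive` may depend on `ε`. -/
theorem falc_exA (B : Base) {ι : Type*} [DecidableEq ι] (S : ℝ → ℕ → Finset ι)
    (Z : ℝ → ℕ → Finset ℕ)
    (φ : ℕ → ℕ → ℝ) (al : ℝ → ℕ → ι → ℕ → Prop)
    [∀ ε n i, DecidablePred (al ε n i)]
    (F : ℕ → ι → ℕ → ℝ) (A V : ℕ → ι → ℝ) {x σ α κ C C2 C0 : ℝ} (hx : 0 < x) (hσ0 : 0 ≤ σ)
    (hσ1 : σ ≤ 1) (hC : 1 ≤ C) (hC2 : 1 ≤ C2) {J : ℕ} (hJ : 0 < J) (π : ℕ → ℝ)
    (hZ : ∀ ε : ℝ, 0 < ε → ∀ᶠ n in (U : Filter ℕ), (Z ε n).Nonempty)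
    (hφ : ∀ ε : ℝ, 0 < ε → ∀ᶠ n in (U : Filter ℕ), ∀ k ∈ Z ε n, |φ n k| ≤ B.d n ^ (-(C * ε)))
    (hF : ∀ ε : ℝ, 0 < ε → ∀ᶠ n in (U : Filter ℕ), ∀ k ∈ Z ε n, ∀ i ∈ S ε n, ∀ i' ∈ S ε n,
      |F n i k - F n i' k - ((A n i - A n i') + φ n k * (V n i - V n i'))|
        ≤ B.d n ^ (x - C * ε))
    (hS : ∀ ε : ℝ, 0 < ε → ∀ᶠ n in (U : Filter ℕ), B.d n ^ (-α + C * ε) ≤ ((S ε n).card : ℝ))
    (hcell : ∀ ε : ℝ, 0 < ε → ∀ᶠ n in (U : Filter ℕ), ∀ k ∈ Z ε n,
      ((((S ε n).filter fun i => al ε n i k).image fun i => ⌊F n i k / B.d n ^ (x - C * ε)⌋).card : ℝ)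
        ≤ C0 * B.d n ^ (-κ - C2 * ε))
    (hal : ∀ ε : ℝ, 0 < ε → ∀ᶠ n in (U : Filter ℕ), ∀ i ∈ S ε n,
      B.d n ^ (C * ε) * ((Z ε n).card : ℝ) ≤ (((Z ε n).filter fun k => al ε n i k).card : ℝ))
    (hV0 : ∀ ε : ℝ, 0 < ε → ∀ᶠ n in (U : Filter ℕ), ∀ i ∈ S ε n, ∀ i' ∈ S ε n,
      |V n i - V n i'| ≤ B.d n ^ (-(C * ε)))
    (hP : ∀ j ≤ J, ∀ ε : ℝ, 0 < ε → ∀ᶠ n in (U : Filter ℕ), ∀ i ∈ S ε n,
      (((S ε n).filter fun i' => |V n i' - V n i| ≤ B.d n ^ (sc x J j - C * ε) ∧
        |A n i' - A n i| ≤ B.d n ^ (sc x J j - (2 * C + 1) * ε)).card : ℝ)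
          ≤ B.d n ^ (-π j - C2 * ε))
    (hQ : ∀ y : ℝ, 0 ≤ y → y ≤ x → ∀ ε : ℝ, 0 < ε → ∀ᶠ n in (U : Filter ℕ), ∀ k ∈ Z ε n,
      (((Z ε n).filter fun k' => |φ n k' - φ n k| ≤ B.d n ^ (y - ε)).card : ℝ)
        ≤ B.d n ^ (σ * y - C2 * ε) * ((Z ε n).card : ℝ)) :
    ∃ j ≤ J, α - π j + σ * sc x J j + x - 2 * sc x J (j + 1) ≤ κ := by
  classical
  obtain ⟨j, hj, h⟩ := exists_le_of_ev B J
    (fun j => -κ + x - π j + σ * sc x J j - 2 * sc x J (j + 1)) (-α)
    (20 * C + 3 * C2 + 12) (|C0|) (by
    intro ε hε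
    have hCε : 0 ≤ C * ε := by positivity
    have hC2ε : 0 ≤ C2 * ε := by positivity
    have ev1 : ∀ᶠ n in (U : Filter ℕ), ∀ j ∈ range (J + 1), ∀ i ∈ S ε n,
        (((S ε n).filter fun i' => |V n i' - V n i| ≤ B.d n ^ (sc x J j - C * ε) ∧
          |A n i' - A n i| ≤ B.d n ^ (sc x J j - (2 * C + 1) * ε)).card : ℝ)
            ≤ B.d n ^ (-π j - C2 * ε) := by
      rw [Filter.eventually_all_finset]
      intro j hj
      exact hP j (by simpa [Nat.lt_succ_iff] using hj) ε hε
    have ev2 : ∀ᶠ n in (U : Filter ℕ), ∀ j ∈ range (J + 1), ∀ k ∈ Z ε n,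
        (((Z ε n).filter fun k' =>
          |φ n k' - φ n k| ≤ B.d n ^ (max (sc x J j - C * ε) 0 - ε)).card : ℝ)
          ≤ B.d n ^ (σ * max (sc x J j - C * ε) 0 - C2 * ε) * ((Z ε n).card : ℝ) := by
      rw [Filter.eventually_all_finset]
      intro j hj
      have hj' : j ≤ J := by simpa [Nat.lt_succ_iff] using hj
      exact hQ (max (sc x J j - C * ε) 0) (le_max_right _ _)
        (max_le (by linarith [sc_le hx.le hJ hj']) hx.le) ε hε
    filter_upwards [ev1, ev2, hZ ε hε, hφ ε hε, hF ε hε, hS ε hε, hcell ε hε, hal ε hε, hV0 ε hε,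
      ev_const_le B hε 8, ev_log_le B (x := x + C * ε) hε (4 * CF)] with
      n h1 h2 hZn hφn hFn hSn hcn haln hVn h7 hlog
    have hpow : ∀ t : ℝ, 0 < B.d n ^ t := fun t => rpos B n t
    have hCF := CF_pos
    have hSne : (S ε n).Nonempty := by
      rw [← Finset.card_pos]
      have : (0 : ℝ) < ((S ε n).card : ℝ) := lt_of_lt_of_le (hpow _) hSn
      exact_mod_cast this
    have hZ0 : (0 : ℝ) < ((Z ε n).card : ℝ) := by exact_mod_cast hZn.card_pos
    -- rescaling
    set u := B.d n ^ (C * ε) with hu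
    have hu0 : 0 < u := hpow _
    have huv : u * B.d n ^ (-(C * ε)) = 1 := by
      rw [hu, ← rpow_add', add_neg_cancel, Real.rpow_zero]
    set r := B.d n ^ (x + C * ε) with hr
    have hr1 : r ≤ 1 := Real.rpow_le_one (B.pos n).le (B.lt n).le (by linarith)
    have hru : r = u ^ 2 * B.d n ^ (x - C * ε) := by
      rw [hr, hu, sq, ← rpow_add', ← rpow_add']; congr 1; ring
    set e : ℕ → ℝ := fun j => -π j - 2 * C2 * ε + σ * (sc x J j - C * ε) -
      2 * (sc x J (j + 1) + C * ε) with he
    set E : ℝ := ((Z ε n).card : ℝ) * ∑ j ∈ range (J + 1), B.d n ^ e j with hE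
    have hsum0 : 0 ≤ ∑ j ∈ range (J + 1), B.d n ^ e j := Finset.sum_nonneg fun j _ => (hpow _).le
    have hE0 : 0 ≤ E := mul_nonneg hZ0.le hsum0
    have key := falc_abs (S ε n) (Z ε n) (fun k => u * φ n k) (al ε n)
      (fun i k => u ^ 2 * F n i k) (fun i => u ^ 2 * A n i) (fun i => u * V n i) r
      (|C0| * B.d n ^ (-κ - C2 * ε)) (B.d n ^ (C * ε)) E (hpow _) hr1
      (mul_nonneg (abs_nonneg _) (hpow _).le) (hpow _).le hE0 hSne hZn
      (by
        intro k hk
        have := hφn k hk
        rw [abs_mul, abs_of_pos hu0]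
        calc u * |φ n k| ≤ u * B.d n ^ (-(C * ε)) := mul_le_mul_of_nonneg_left this hu0.le
          _ = 1 := huv
          _ ≤ 2 := by norm_num)
      (by
        intro k hk i hi i' hi'
        have := hFn k hk i hi i' hi'
        have e1 : u ^ 2 * F n i k - u ^ 2 * F n i' k -
            ((u ^ 2 * A n i - u ^ 2 * A n i') + u * φ n k * (u * V n i - u * V n i')) =
            u ^ 2 * (F n i k - F n i' k - ((A n i - A n i') + φ n k * (V n i - V n i'))) := by ring
        rw [e1, abs_mul, abs_of_pos (by positivity), hru]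
        exact mul_le_mul_of_nonneg_left this (by positivity))
      (by
        intro k hk
        refine le_trans (le_of_eq ?_) ((hcn k hk).trans
          (mul_le_mul_of_nonneg_right (le_abs_self _) (hpow _).le))
        congr 2
        refine Finset.image_congr ?_
        intro i _
        simp only
        rw [hru, mul_div_mul_left _ _ (by positivity)])
      (by
        calc B.d n ^ (C * ε) * (((S ε n).card : ℝ) * (Z ε n).card)
            = ∑ i ∈ S ε n, B.d n ^ (C * ε) * ((Z ε n).card : ℝ) := by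
              rw [Finset.sum_const, nsmul_eq_mul]; ring
          _ ≤ _ := Finset.sum_le_sum fun i hi => haln i hi)
      (by
        intro i hi i' hi'
        have := hVn i hi i' hi'
        rw [← mul_sub, abs_mul, abs_of_pos hu0]
        calc u * |V n i - V n i'| ≤ u * B.d n ^ (-(C * ε)) := mul_le_mul_of_nonneg_left this hu0.le
          _ = 1 := huv)
      (by
        intro t ht1 ht2 i hi k hk
        have ht0 : 0 < t := lt_of_lt_of_le (hpow _) ht1
        have hlρ : Real.log (B.d n) < 0 := Real.log_neg (B.pos n) (B.lt n)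
        set w : ℝ := Real.log t / Real.log (B.d n) with hw
        have hrw : t = B.d n ^ w := by
          rw [Real.rpow_def_of_pos (B.pos n), hw, mul_div_cancel₀ _ hlρ.ne, Real.exp_log ht0]
        have hw0 : 0 ≤ w := div_nonneg_of_nonpos (Real.log_nonpos ht0.le ht2) hlρ.le
        have hwx : w ≤ x + C * ε := by
          have h3 := Real.log_le_log (hpow _) ht1
          rw [Real.log_rpow (B.pos n)] at h3
          rw [hw, div_le_iff_of_neg hlρ]
          exact h3
        have hJr : (0 : ℝ) < J := by exact_mod_cast hJ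
        obtain ⟨j, hjJ, hj1, hj2⟩ : ∃ j ≤ J, sc x J j ≤ w ∧ w ≤ sc x J (j + 1) + C * ε := by
          rcases le_total w x with hle | hle
          · refine ⟨⌊w * J / x⌋₊, ?_, ?_, ?_⟩
            · have h3 : w * J / x ≤ J := by
                rw [div_le_iff₀ hx]
                nlinarith
              have h4 := Nat.floor_le_floor h3
              simpa using h4
            · have h3 := Nat.floor_le (show 0 ≤ w * J / x by positivity)
              rw [le_div_iff₀ hx] at h3
              unfold sc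
              rw [div_le_iff₀ hJr]
              linarith
            · have h3 := Nat.lt_floor_add_one (w * J / x)
              rw [div_lt_iff₀ hx] at h3
              have h4 : w ≤ sc x J (⌊w * J / x⌋₊ + 1) := by
                unfold sc
                rw [le_div_iff₀ hJr]
                push_cast
                linarith
              linarith
          · refine ⟨J, le_rfl, ?_, ?_⟩
            · rw [sc_top x hJ]; exact hle
            · rw [sc_succ x hJ, sc_top x hJ]
              have : 0 ≤ x / J := by positivity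
              linarith
        have hjr : j ∈ range (J + 1) := Finset.mem_range.2 (by omega)
        have htj : t ≤ B.d n ^ sc x J j := by rw [hrw]; exact rpow_anti B n hj1
        have hinv : u * B.d n ^ (sc x J j - C * ε) = B.d n ^ sc x J j := by
          rw [hu, ← rpow_add']; congr 1; ring
        have c1 : (((S ε n).filter fun i' => |u * V n i' - u * V n i| ≤ t ∧
            |u ^ 2 * A n i' - u ^ 2 * A n i| ≤ 2 * t).card : ℝ) ≤ B.d n ^ (-π j - C2 * ε) := by
          refine le_trans ?_ (h1 j hjr i hi)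
          exact_mod_cast Finset.card_le_card (by
            intro i' hi'
            obtain ⟨b1, b2, b3⟩ := Finset.mem_filter.1 hi'
            rw [← mul_sub, abs_mul, abs_of_pos hu0] at b2
            rw [← mul_sub, abs_mul, abs_of_pos (show 0 < u ^ 2 by positivity)] at b3
            refine Finset.mem_filter.2 ⟨b1, ?_, ?_⟩
            · refine le_of_mul_le_mul_left (a := u) ?_ hu0
              rw [hinv]
              exact b2.trans htj
            · refine le_of_mul_le_mul_left (a := u ^ 2) ?_ (by positivity)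
              have e1 : u ^ 2 * B.d n ^ (sc x J j - (2 * C + 1) * ε) =
                  B.d n ^ sc x J j * B.d n ^ (-ε) := by
                rw [hu, sq, ← rpow_add', ← rpow_add', ← rpow_add']; congr 1; ring
              rw [e1]
              refine b3.trans ?_
              nlinarith [hpow (sc x J j)])
        have h2t : 2 * t ≤ u * B.d n ^ (sc x J j - C * ε - ε) := by
          have e3 : u * B.d n ^ (sc x J j - C * ε - ε) = B.d n ^ sc x J j * B.d n ^ (-ε) := by
            rw [hu, ← rpow_add', ← rpow_add']; congr 1; ring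
          rw [e3]
          nlinarith [hpow (sc x J j)]
        have c2 : (((Z ε n).filter fun k' => |u * φ n k' - u * φ n k| ≤ 2 * t).card : ℝ)
            ≤ B.d n ^ (σ * (sc x J j - C * ε) - C2 * ε) * ((Z ε n).card : ℝ) := by
          rcases le_total (sc x J j - C * ε) 0 with hle | hle
          · have b3 : (((Z ε n).filter fun k' => |u * φ n k' - u * φ n k| ≤ 2 * t).card : ℝ) ≤
                (Z ε n).card := by
              exact_mod_cast Finset.card_le_card (Finset.filter_subset _ _)
            refine b3.trans ?_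
            have b4 : (1 : ℝ) ≤ B.d n ^ (σ * (sc x J j - C * ε) - C2 * ε) := by
              apply Real.one_le_rpow_of_pos_of_le_one_of_nonpos (B.pos n) (B.lt n).le
              have : σ * (sc x J j - C * ε) ≤ 0 := mul_nonpos_of_nonneg_of_nonpos hσ0 hle
              linarith
            nlinarith
          · have b1 := h2 j hjr k hk
            rw [max_eq_left hle] at b1
            refine le_trans ?_ b1
            exact_mod_cast Finset.card_le_card (by
              intro k' hk'
              rw [Finset.mem_filter] at hk' ⊢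
              refine ⟨hk'.1, ?_⟩
              have b5 := hk'.2
              rw [← mul_sub, abs_mul, abs_of_pos hu0] at b5
              exact le_of_mul_le_mul_left (b5.trans h2t) hu0)
        calc _ ≤ B.d n ^ (-π j - C2 * ε) *
              (B.d n ^ (σ * (sc x J j - C * ε) - C2 * ε) * ((Z ε n).card : ℝ)) :=
              mul_le_mul c1 c2 (Nat.cast_nonneg _) (hpow _).le
          _ = ((Z ε n).card : ℝ) * (B.d n ^ e j * B.d n ^ (2 * (sc x J (j + 1) + C * ε))) := by
              rw [← mul_assoc, ← rpow_add', ← rpow_add', he]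
              simp only
              rw [mul_comm]
              congr 2
              ring
          _ ≤ ((Z ε n).card : ℝ) * (B.d n ^ e j * t ^ 2) := by
              refine mul_le_mul_of_nonneg_left ?_ hZ0.le
              refine mul_le_mul_of_nonneg_left ?_ (hpow _).le
              rw [hrw, ← Real.rpow_natCast (B.d n ^ w) 2, ← Real.rpow_mul (B.pos n).le]
              refine rpow_anti B n ?_
              push_cast
              linarith
          _ ≤ E * t ^ 2 := by
              have : B.d n ^ e j ≤ ∑ j ∈ range (J + 1), B.d n ^ e j :=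
                Finset.single_le_sum (f := fun j => B.d n ^ e j) (fun i _ => (hpow _).le) hjr
              rw [hE]
              have ht2 : 0 ≤ t ^ 2 := sq_nonneg t
              have := mul_le_mul_of_nonneg_left (mul_le_mul_of_nonneg_right this ht2) hZ0.le
              refine this.trans (le_of_eq ?_)
              ring)
    -- the logarithm
    have hl : Real.log (1 / r) = (x + C * ε) * B.L n := by
      rw [one_div, Real.log_inv, hr, Real.log_rpow (B.pos n)]
      unfold Base.L
      ring
    have hl2 : 4 * CF * (1 + Real.log (1 / r)) ≤ B.d n ^ (-ε) := by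
      rw [hl]
      exact hlog
    have k2 : (B.d n ^ (C * ε)) ^ 2 * ((S ε n).card : ℝ) ≤
        |C0| * B.d n ^ (-κ - C2 * ε) * (r * B.d n ^ (-ε) * ∑ j ∈ range (J + 1), B.d n ^ e j) := by
      have k3 : ((Z ε n).card : ℝ) * ((B.d n ^ (C * ε)) ^ 2 * ((S ε n).card : ℝ)) ≤
          ((Z ε n).card : ℝ) * (|C0| * B.d n ^ (-κ - C2 * ε) *
            (r * B.d n ^ (-ε) * ∑ j ∈ range (J + 1), B.d n ^ e j)) := by
        calc _ = (B.d n ^ (C * ε)) ^ 2 * ((S ε n).card : ℝ) * ((Z ε n).card : ℝ) := by ring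
          _ ≤ _ := key
          _ = (|C0| * B.d n ^ (-κ - C2 * ε)) * (r * E) * (4 * CF * (1 + Real.log (1 / r))) := by ring
          _ ≤ (|C0| * B.d n ^ (-κ - C2 * ε)) * (r * E) * B.d n ^ (-ε) := by
              refine mul_le_mul_of_nonneg_left hl2 ?_
              exact mul_nonneg (mul_nonneg (abs_nonneg _) (hpow _).le) (mul_nonneg (hpow _).le hE0)
          _ = _ := by rw [hE]; ring
      exact le_of_mul_le_mul_left k3 hZ0
    calc B.d n ^ (-α + (20 * C + 3 * C2 + 12) * ε) ≤ B.d n ^ (-α + 3 * C * ε) :=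
          rpow_anti B n (by nlinarith)
      _ = (B.d n ^ (C * ε)) ^ 2 * B.d n ^ (-α + C * ε) := by
          rw [sq, ← rpow_add', ← rpow_add']; congr 1; ring
      _ ≤ (B.d n ^ (C * ε)) ^ 2 * ((S ε n).card : ℝ) := mul_le_mul_of_nonneg_left hSn (by positivity)
      _ ≤ _ := k2
      _ = |C0| * ∑ j ∈ range (J + 1), B.d n ^ (-κ + x - π j + σ * sc x J j - 2 * sc x J (j + 1)
            - (3 * C2 + C + σ * C + 1) * ε) := by
          rw [mul_assoc, Finset.mul_sum, Finset.mul_sum]
          congr 1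
          refine Finset.sum_congr rfl fun j _ => ?_
          rw [hr, ← rpow_add', ← rpow_add', ← rpow_add']
          congr 1
          simp only [he]
          ring
      _ ≤ _ := by
          refine mul_le_mul_of_nonneg_left ?_ (abs_nonneg _)
          refine Finset.sum_le_sum fun j _ => rpow_anti B n ?_
          have : σ * C ≤ C := by nlinarith
          nlinarith)
  refine ⟨j, hj, ?_⟩
  linarith

end Crest.Agent.R116.Kr710
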