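import Crest.Agent.R116.F3b_389
import Crest.Agent.R116.Kr3_710

/-!
# R116, K side: Falconer with two-dimensional time, finite and exponent forms (helper389)

Lines `(A, V)` in `ℝ × ℝ²`, times `φ` in `ℝ²`, positions `F = A + φ · V`.
`falc3_abs` finite form, `falc3_exA'` exponent form at the scales, `falc3_exA` with a Frostman
function `g`, `falc3_rate` the limit `J → ∞`.
-/

set_option autoImplicit false
set_option linter.unusedVariables false
set_option linter.unusedSectionVars false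

open Filter Topology Finset

namespace Crest.Agent.R116.F3a389

open Crest.Agent.R138.Ex926 (Base U)
open Crest.Agent.R138.Fal658 (sq_le_card_mul_energy)
open Crest.Agent.R136.Gf356 Crest.Agent.R116.Kr710

/-- **Falconer in `ℝ³`, finite form.** -/
theorem falc3_abs {ι : Type*} [DecidableEq ι] (S : Finset ι) (Z : Finset ℕ) (φ : ℕ → Fin 2 → ℝ)
    (al : ι → ℕ → Prop) [∀ i, DecidablePred (al i)] (F : ι → ℕ → ℝ) (A : ι → ℝ) (V : ι → Fin 2 → ℝ)
    (r K lam E : ℝ) (hr : 0 < r) (hr1 : r ≤ 1) (hK : 0 ≤ K) (hlam : 0 ≤ lam) (hE : 0 ≤ E)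
    (hSn : S.Nonempty) (hZn : Z.Nonempty) (hφ : ∀ k ∈ Z, ∀ s, |φ k s| ≤ 2)
    (hF : ∀ k ∈ Z, ∀ i ∈ S, ∀ i' ∈ S,
      |F i k - F i' k - ((A i - A i') + ∑ s, φ k s * (V i s - V i' s))| ≤ r)
    (hcell : ∀ k ∈ Z,
      (((S.filter fun i => al i k).image fun i => ⌊F i k / r⌋).card : ℝ) ≤ K)
    (hal : lam * ((S.card : ℝ) * Z.card) ≤ ∑ i ∈ S, ((Z.filter fun k => al i k).card : ℝ))
    (hV0 : ∀ i ∈ S, ∀ i' ∈ S, ∀ s, |V i s - V i' s| ≤ 1)
    (hm : ∀ t, r ≤ t → t ≤ 1 → ∀ i ∈ S, ∀ k ∈ Z,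
      ((S.filter fun i' => (∀ s, |V i' s - V i s| ≤ t) ∧ |A i' - A i| ≤ 2 * t).card : ℝ) *
        ((Z.filter fun k' => ∀ s, |φ k' s - φ k s| ≤ 2 * t).card : ℝ) ≤ E * t ^ 3) :
    lam ^ 2 * (S.card : ℝ) * (Z.card : ℝ) ≤ K * (4 * CF3 * r * (1 + Real.log (1 / r)) * E) := by
  classical
  obtain ⟨i0, hi0⟩ := hSn
  set Sk : ℕ → Finset ι := fun k => S.filter fun i => al i k with hSk
  have hS0 : 0 < (S.card : ℝ) := by exact_mod_cast Finset.card_pos.2 ⟨i0, hi0⟩
  have hZ0 : 0 < (Z.card : ℝ) := by exact_mod_cast hZn.card_pos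
  have e1 : ∑ i ∈ S, ((Z.filter fun k => al i k).card : ℝ) = ∑ k ∈ Z, ((Sk k).card : ℝ) := by
    have : ∑ i ∈ S, (Z.filter fun k => al i k).card = ∑ k ∈ Z, (Sk k).card := by
      simp only [hSk, Finset.card_filter]
      exact Finset.sum_comm
    exact_mod_cast this
  have e2 : (∑ k ∈ Z, ((Sk k).card : ℝ)) ^ 2 ≤ (Z.card : ℝ) * ∑ k ∈ Z, ((Sk k).card : ℝ) ^ 2 :=
    sq_sum_le_card_mul_sum_sq
  have h2pos : (0:ℝ) < 2 := by norm_num
  have key := falconer3_sup S (fun _ => (1 : ℝ)) (fun i => A i / 2) (fun i => V i 0 - V i0 0)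
    (fun i => V i 1 - V i0 1) Z
    (fun _ => (1 : ℝ)) (fun k => φ k 0 / 2) (fun k => φ k 1 / 2) r E hr hr1 hE
    (fun _ _ => zero_le_one)
    (fun _ _ => zero_le_one) (fun i hi => hV0 i hi i0 hi0 0) (fun i hi => hV0 i hi i0 hi0 1)
    (fun k hk => by
      have := hφ k hk 0
      rw [abs_div, abs_of_pos h2pos]
      linarith)
    (fun k hk => by
      have := hφ k hk 1
      rw [abs_div, abs_of_pos h2pos]
      linarith)
    (by
      intro t ht1 ht2 i hi k hk
      refine le_trans (le_of_eq ?_) (hm t ht1 ht2 i hi k hk)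
      unfold mB mI
      rw [Finset.sum_const, nsmul_eq_mul, mul_one, Finset.sum_const, nsmul_eq_mul, mul_one]
      congr 3
      · refine Finset.filter_congr fun j _ => ?_
        have a1 : |A j / 2 - A i / 2| ≤ t ↔ |A j - A i| ≤ 2 * t := by
          rw [← sub_div, abs_div, abs_of_pos h2pos, div_le_iff₀ h2pos, mul_comm t 2]
        have a2 : ∀ s, V j s - V i0 s - (V i s - V i0 s) = V j s - V i s := fun s => by ring
        rw [a1, a2, a2, Fin.forall_fin_two]
        tauto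
      · refine Finset.filter_congr fun j _ => ?_
        have a1 : ∀ s, |φ j s / 2 - φ k s / 2| ≤ t ↔ |φ j s - φ k s| ≤ 2 * t := fun s => by
          rw [← sub_div, abs_div, abs_of_pos h2pos, div_le_iff₀ h2pos, mul_comm t 2]
        rw [a1, a1, Fin.forall_fin_two])
  have e3 : ∑ k ∈ Z, ((Sk k).card : ℝ) ^ 2 ≤
      K * ∑ k ∈ Z, (1 : ℝ) * ∑ i ∈ S, ∑ j ∈ S with
        |(A i / 2 - A j / 2) + φ k 0 / 2 * ((V i 0 - V i0 0) - (V j 0 - V i0 0)) +
          φ k 1 / 2 * ((V i 1 - V i0 1) - (V j 1 - V i0 1))| ≤ r, (1 : ℝ) * 1 := by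
    rw [Finset.mul_sum]
    refine Finset.sum_le_sum fun k hk => ?_
    have h1 := sq_le_card_mul_energy S (Sk k) (Finset.filter_subset _ _) (fun _ => (1 : ℝ))
      (fun _ _ => zero_le_one) (fun i => A i / 2 + φ k 0 / 2 * (V i 0 - V i0 0) +
        φ k 1 / 2 * (V i 1 - V i0 1)) r
      (fun i => ⌊F i k / r⌋) (by
        intro i hi j hj hij
        have a1 := Int.abs_sub_lt_one_of_floor_eq_floor hij
        rw [← sub_div, abs_div, abs_of_pos hr, div_lt_one hr] at a1
        have a2 := hF k hk i (Finset.mem_filter.1 hi).1 j (Finset.mem_filter.1 hj).1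
        rw [Fin.sum_univ_two] at a2
        have a3 : |(A i - A j) + (φ k 0 * (V i 0 - V j 0) + φ k 1 * (V i 1 - V j 1))| ≤ 2 * r := by
          have e : (A i - A j) + (φ k 0 * (V i 0 - V j 0) + φ k 1 * (V i 1 - V j 1)) =
              (F i k - F j k) -
              (F i k - F j k - ((A i - A j) +
                (φ k 0 * (V i 0 - V j 0) + φ k 1 * (V i 1 - V j 1)))) := by ring
          rw [e]
          refine (abs_sub _ _).trans ?_
          linarith
        have e : A i / 2 + φ k 0 / 2 * (V i 0 - V i0 0) + φ k 1 / 2 * (V i 1 - V i0 1) -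
            (A j / 2 + φ k 0 / 2 * (V j 0 - V i0 0) + φ k 1 / 2 * (V j 1 - V i0 1)) =
            ((A i - A j) + (φ k 0 * (V i 0 - V j 0) + φ k 1 * (V i 1 - V j 1))) / 2 := by ring
        rw [e, abs_div, abs_of_pos h2pos]
        linarith)
    rw [Finset.sum_const, nsmul_eq_mul, mul_one] at h1
    refine h1.trans ?_
    have h2 : ∑ i ∈ S, ∑ j ∈ S with
        |(A i / 2 + φ k 0 / 2 * (V i 0 - V i0 0) + φ k 1 / 2 * (V i 1 - V i0 1)) -
          (A j / 2 + φ k 0 / 2 * (V j 0 - V i0 0) + φ k 1 / 2 * (V j 1 - V i0 1))| ≤ r,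
          (1 : ℝ) * 1 =
        ∑ i ∈ S, ∑ j ∈ S with
        |(A i / 2 - A j / 2) + φ k 0 / 2 * ((V i 0 - V i0 0) - (V j 0 - V i0 0)) +
          φ k 1 / 2 * ((V i 1 - V i0 1) - (V j 1 - V i0 1))| ≤ r, (1 : ℝ) * 1 := by
      refine Finset.sum_congr rfl fun i _ => ?_
      refine Finset.sum_congr ?_ fun _ _ => rfl
      refine Finset.filter_congr fun j _ => ?_
      rw [show (A i / 2 + φ k 0 / 2 * (V i 0 - V i0 0) + φ k 1 / 2 * (V i 1 - V i0 1)) -
          (A j / 2 + φ k 0 / 2 * (V j 0 - V i0 0) + φ k 1 / 2 * (V j 1 - V i0 1)) =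
        (A i / 2 - A j / 2) + φ k 0 / 2 * ((V i 0 - V i0 0) - (V j 0 - V i0 0)) +
          φ k 1 / 2 * ((V i 1 - V i0 1) - (V j 1 - V i0 1)) by ring]
    have h3 : 0 ≤ ∑ i ∈ S, ∑ j ∈ S with
        |(A i / 2 - A j / 2) + φ k 0 / 2 * ((V i 0 - V i0 0) - (V j 0 - V i0 0)) +
          φ k 1 / 2 * ((V i 1 - V i0 1) - (V j 1 - V i0 1))| ≤ r, (1 : ℝ) * 1 :=
      Finset.sum_nonneg fun i _ => Finset.sum_nonneg fun j _ => by norm_num
    rw [h2]
    refine le_trans (mul_le_mul_of_nonneg_right (hcell k hk) h3) (le_of_eq ?_)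
    ring
  have e4 : K * ∑ k ∈ Z, (1 : ℝ) * ∑ i ∈ S, ∑ j ∈ S with
        |(A i / 2 - A j / 2) + φ k 0 / 2 * ((V i 0 - V i0 0) - (V j 0 - V i0 0)) +
          φ k 1 / 2 * ((V i 1 - V i0 1) - (V j 1 - V i0 1))| ≤ r, (1 : ℝ) * 1 ≤
      K * (4 * CF3 * r * (1 + Real.log (1 / r)) * (S.card : ℝ) * E) := by
    refine mul_le_mul_of_nonneg_left ?_ hK
    refine key.trans (le_of_eq ?_)
    rw [Finset.sum_const, nsmul_eq_mul, mul_one]
  have h1 : (lam * ((S.card : ℝ) * Z.card)) ^ 2 ≤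
      (Z.card : ℝ) * (K * (4 * CF3 * r * (1 + Real.log (1 / r)) * (S.card : ℝ) * E)) := by
    refine (pow_le_pow_left₀ (by positivity) (hal.trans (le_of_eq e1)) 2).trans (e2.trans ?_)
    exact mul_le_mul_of_nonneg_left (e3.trans e4) hZ0.le
  have h2 : ((S.card : ℝ) * Z.card) * (lam ^ 2 * (S.card : ℝ) * (Z.card : ℝ)) ≤
      ((S.card : ℝ) * Z.card) * (K * (4 * CF3 * r * (1 + Real.log (1 / r)) * E)) := by
    refine le_trans (le_of_eq ?_) (h1.trans (le_of_eq ?_))
    · ring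
    · ring
  exact le_of_mul_le_mul_left h2 (by positivity)

set_option maxHeartbeats 1600000 in
/-- Falconer in `ℝ³`, exponent form, Frostman bounds at the scales. -/
theorem falc3_exA' (B : Base) {ι : Type*} [DecidableEq ι] (S : ℝ → ℕ → Finset ι)
    (Z : ℝ → ℕ → Finset ℕ)
    (φ : ℕ → ℕ → Fin 2 → ℝ) (al : ℝ → ℕ → ι → ℕ → Prop)
    [∀ ε n i, DecidablePred (al ε n i)]
    (F : ℕ → ι → ℕ → ℝ) (A : ℕ → ι → ℝ) (V : ℕ → ι → Fin 2 → ℝ) {x α κ C C2 C0 : ℝ}
    (hx : 0 < x) (hC : 1 ≤ C) (hC2 : 1 ≤ C2) {J : ℕ} (hJ : 0 < J) (π g : ℕ → ℝ)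
    (hZ : ∀ ε : ℝ, 0 < ε → ∀ᶠ n in (U : Filter ℕ), (Z ε n).Nonempty)
    (hφ : ∀ ε : ℝ, 0 < ε → ∀ᶠ n in (U : Filter ℕ), ∀ k ∈ Z ε n, ∀ s,
      |φ n k s| ≤ B.d n ^ (-(C * ε)))
    (hF : ∀ ε : ℝ, 0 < ε → ∀ᶠ n in (U : Filter ℕ), ∀ k ∈ Z ε n, ∀ i ∈ S ε n, ∀ i' ∈ S ε n,
      |F n i k - F n i' k - ((A n i - A n i') + ∑ s, φ n k s * (V n i s - V n i' s))|
        ≤ B.d n ^ (x - C * ε))
    (hS : ∀ ε : ℝ, 0 < ε → ∀ᶠ n in (U : Filter ℕ), B.d n ^ (-α + C * ε) ≤ ((S ε n).card : ℝ))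
    (hcell : ∀ ε : ℝ, 0 < ε → ∀ᶠ n in (U : Filter ℕ), ∀ k ∈ Z ε n,
      ((((S ε n).filter fun i => al ε n i k).image fun i => ⌊F n i k / B.d n ^ (x - C * ε)⌋).card : ℝ)
        ≤ C0 * B.d n ^ (-κ - C2 * ε))
    (hal : ∀ ε : ℝ, 0 < ε → ∀ᶠ n in (U : Filter ℕ), ∀ i ∈ S ε n,
      B.d n ^ (C * ε) * ((Z ε n).card : ℝ) ≤ (((Z ε n).filter fun k => al ε n i k).card : ℝ))
    (hV0 : ∀ ε : ℝ, 0 < ε → ∀ᶠ n in (U : Filter ℕ), ∀ i ∈ S ε n, ∀ i' ∈ S ε n, ∀ s,
      |V n i s - V n i' s| ≤ B.d n ^ (-(C * ε)))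
    (hP : ∀ j ≤ J, ∀ ε : ℝ, 0 < ε → ∀ᶠ n in (U : Filter ℕ), ∀ i ∈ S ε n,
      (((S ε n).filter fun i' => (∀ s, |V n i' s - V n i s| ≤ B.d n ^ (sc x J j - C * ε)) ∧
        |A n i' - A n i| ≤ B.d n ^ (sc x J j - (2 * C + 1) * ε)).card : ℝ)
          ≤ B.d n ^ (-π j - C2 * ε))
    (hQ : ∀ j ≤ J, ∀ ε : ℝ, 0 < ε → ∀ᶠ n in (U : Filter ℕ), ∀ k ∈ Z ε n,
      (((Z ε n).filter fun k' => ∀ s, |φ n k' s - φ n k s| ≤
        B.d n ^ (sc x J j - (C + 1) * ε)).card : ℝ)
        ≤ B.d n ^ (g j - C2 * ε) * ((Z ε n).card : ℝ)) :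
    ∃ j ≤ J, α - π j + g j + x - 3 * sc x J (j + 1) ≤ κ := by
  classical
  obtain ⟨j, hj, h⟩ := exists_le_of_ev B J
    (fun j => -κ + x - π j + g j - 3 * sc x J (j + 1)) (-α)
    (20 * C + 3 * C2 + 12) (|C0|) (by
    intro ε hε
    have hCε : 0 ≤ C * ε := by positivity
    have hC2ε : 0 ≤ C2 * ε := by positivity
    have ev1 : ∀ᶠ n in (U : Filter ℕ), ∀ j ∈ range (J + 1), ∀ i ∈ S ε n,
        (((S ε n).filter fun i' => (∀ s, |V n i' s - V n i s| ≤ B.d n ^ (sc x J j - C * ε)) ∧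
          |A n i' - A n i| ≤ B.d n ^ (sc x J j - (2 * C + 1) * ε)).card : ℝ)
            ≤ B.d n ^ (-π j - C2 * ε) := by
      rw [Filter.eventually_all_finset]
      intro j hj
      exact hP j (by simpa [Nat.lt_succ_iff] using hj) ε hε
    have ev2 : ∀ᶠ n in (U : Filter ℕ), ∀ j ∈ range (J + 1), ∀ k ∈ Z ε n,
        (((Z ε n).filter fun k' => ∀ s, |φ n k' s - φ n k s| ≤
          B.d n ^ (sc x J j - (C + 1) * ε)).card : ℝ)
          ≤ B.d n ^ (g j - C2 * ε) * ((Z ε n).card : ℝ) := by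
      rw [Filter.eventually_all_finset]
      intro j hj
      exact hQ j (by simpa [Nat.lt_succ_iff] using hj) ε hε
    filter_upwards [ev1, ev2, hZ ε hε, hφ ε hε, hF ε hε, hS ε hε, hcell ε hε, hal ε hε, hV0 ε hε,
      ev_const_le B hε 8, ev_log_le B (x := x + C * ε) hε (4 * CF3)] with
      n h1 h2 hZn hφn hFn hSn hcn haln hVn h7 hlog
    have hpow : ∀ t : ℝ, 0 < B.d n ^ t := fun t => rpos B n t
    have hCF := CF3_pos
    have hSne : (S ε n).Nonempty := by
      rw [← Finset.card_pos]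
      have : (0 : ℝ) < ((S ε n).card : ℝ) := lt_of_lt_of_le (hpow _) hSn
      exact_mod_cast this
    have hZ0 : (0 : ℝ) < ((Z ε n).card : ℝ) := by exact_mod_cast hZn.card_pos
    -- rescaling
    set u := B.d n ^ (C * ε) with hu
    have hu0 : 0 < u := hpow _
    have huv : u * B.d n ^ (-(C * ε)) = 1 := by
      rw [hu, ← rpow_add', add_neg_cancel, Real.rpow_zero]
    set r := B.d n ^ (x + C * ε) with hr
    have hr1 : r ≤ 1 := Real.rpow_le_one (B.pos n).le (B.lt n).le (by linarith)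
    have hru : r = u ^ 2 * B.d n ^ (x - C * ε) := by
      rw [hr, hu, sq, ← rpow_add', ← rpow_add']; congr 1; ring
    set e : ℕ → ℝ := fun j => -π j - 2 * C2 * ε + g j -
      3 * (sc x J (j + 1) + C * ε) with he
    set E : ℝ := ((Z ε n).card : ℝ) * ∑ j ∈ range (J + 1), B.d n ^ e j with hE
    have hsum0 : 0 ≤ ∑ j ∈ range (J + 1), B.d n ^ e j := Finset.sum_nonneg fun j _ => (hpow _).le
    have hE0 : 0 ≤ E := mul_nonneg hZ0.le hsum0
    have key := falc3_abs (S ε n) (Z ε n) (fun k s => u * φ n k s) (al ε n)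
      (fun i k => u ^ 2 * F n i k) (fun i => u ^ 2 * A n i) (fun i s => u * V n i s) r
      (|C0| * B.d n ^ (-κ - C2 * ε)) (B.d n ^ (C * ε)) E (hpow _) hr1
      (mul_nonneg (abs_nonneg _) (hpow _).le) (hpow _).le hE0 hSne hZn
      (by
        intro k hk s
        have := hφn k hk s
        rw [abs_mul, abs_of_pos hu0]
        calc u * |φ n k s| ≤ u * B.d n ^ (-(C * ε)) := mul_le_mul_of_nonneg_left this hu0.le
          _ = 1 := huv
          _ ≤ 2 := by norm_num)
      (by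
        intro k hk i hi i' hi'
        have := hFn k hk i hi i' hi'
        have e0 : ∑ s, u * φ n k s * (u * V n i s - u * V n i' s) =
            u ^ 2 * ∑ s, φ n k s * (V n i s - V n i' s) := by
          rw [Finset.mul_sum]
          exact Finset.sum_congr rfl fun s _ => by ring
        have e1 : u ^ 2 * F n i k - u ^ 2 * F n i' k -
            ((u ^ 2 * A n i - u ^ 2 * A n i') +
              ∑ s, u * φ n k s * (u * V n i s - u * V n i' s)) =
            u ^ 2 * (F n i k - F n i' k - ((A n i - A n i') +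
              ∑ s, φ n k s * (V n i s - V n i' s))) := by rw [e0]; ring
        rw [e1, abs_mul, abs_of_pos (by positivity), hru]
        exact mul_le_mul_of_nonneg_left this (by positivity))
      (by
        intro k hk
        refine le_trans (le_of_eq ?_) ((hcn k hk).trans
          (mul_le_mul_of_nonneg_right (le_abs_self _) (hpow _).le))
        congr 2
        refine Finset.image_congr ?_
        intro i _
        simp only
        rw [hru, mul_div_mul_left _ _ (by positivity)])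
      (by
        calc B.d n ^ (C * ε) * (((S ε n).card : ℝ) * (Z ε n).card)
            = ∑ i ∈ S ε n, B.d n ^ (C * ε) * ((Z ε n).card : ℝ) := by
              rw [Finset.sum_const, nsmul_eq_mul]; ring
          _ ≤ _ := Finset.sum_le_sum fun i hi => haln i hi)
      (by
        intro i hi i' hi' s
        have := hVn i hi i' hi' s
        rw [← mul_sub, abs_mul, abs_of_pos hu0]
        calc u * |V n i s - V n i' s| ≤ u * B.d n ^ (-(C * ε)) :=
              mul_le_mul_of_nonneg_left this hu0.le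
          _ = 1 := huv)
      (by
        intro t ht1 ht2 i hi k hk
        have ht0 : 0 < t := lt_of_lt_of_le (hpow _) ht1
        have hlρ : Real.log (B.d n) < 0 := Real.log_neg (B.pos n) (B.lt n)
        set w : ℝ := Real.log t / Real.log (B.d n) with hw
        have hrw : t = B.d n ^ w := by
          rw [Real.rpow_def_of_pos (B.pos n), hw, mul_div_cancel₀ _ hlρ.ne, Real.exp_log ht0]
        have hw0 : 0 ≤ w := div_nonneg_of_nonpos (Real.log_nonpos ht0.le ht2) hlρ.le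
        have hwx : w ≤ x + C * ε := by
          have h3 := Real.log_le_log (hpow _) ht1
          rw [Real.log_rpow (B.pos n)] at h3
          rw [hw, div_le_iff_of_neg hlρ]
          exact h3
        have hJr : (0 : ℝ) < J := by exact_mod_cast hJ
        obtain ⟨j, hjJ, hj1, hj2⟩ : ∃ j ≤ J, sc x J j ≤ w ∧ w ≤ sc x J (j + 1) + C * ε := by
          rcases le_total w x with hle | hle
          · refine ⟨⌊w * J / x⌋₊, ?_, ?_, ?_⟩
            · have h3 : w * J / x ≤ J := by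
                rw [div_le_iff₀ hx]
                nlinarith
              have h4 := Nat.floor_le_floor h3
              simpa using h4
            · have h3 := Nat.floor_le (show 0 ≤ w * J / x by positivity)
              rw [le_div_iff₀ hx] at h3
              unfold sc
              rw [div_le_iff₀ hJr]
              linarith
            · have h3 := Nat.lt_floor_add_one (w * J / x)
              rw [div_lt_iff₀ hx] at h3
              have h4 : w ≤ sc x J (⌊w * J / x⌋₊ + 1) := by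
                unfold sc
                rw [le_div_iff₀ hJr]
                push_cast
                linarith
              linarith
          · refine ⟨J, le_rfl, ?_, ?_⟩
            · rw [sc_top x hJ]; exact hle
            · rw [sc_succ x hJ, sc_top x hJ]
              have : 0 ≤ x / J := by positivity
              linarith
        have hjr : j ∈ range (J + 1) := Finset.mem_range.2 (by omega)
        have htj : t ≤ B.d n ^ sc x J j := by rw [hrw]; exact rpow_anti B n hj1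
        have hinv : u * B.d n ^ (sc x J j - C * ε) = B.d n ^ sc x J j := by
          rw [hu, ← rpow_add']; congr 1; ring
        have c1 : (((S ε n).filter fun i' => (∀ s, |u * V n i' s - u * V n i s| ≤ t) ∧
            |u ^ 2 * A n i' - u ^ 2 * A n i| ≤ 2 * t).card : ℝ) ≤ B.d n ^ (-π j - C2 * ε) := by
          refine le_trans ?_ (h1 j hjr i hi)
          exact_mod_cast Finset.card_le_card (by
            intro i' hi'
            obtain ⟨b1, b2, b3⟩ := Finset.mem_filter.1 hi'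
            rw [← mul_sub, abs_mul, abs_of_pos (show 0 < u ^ 2 by positivity)] at b3
            refine Finset.mem_filter.2 ⟨b1, ?_, ?_⟩
            · intro s
              have b4 := b2 s
              rw [← mul_sub, abs_mul, abs_of_pos hu0] at b4
              refine le_of_mul_le_mul_left (a := u) ?_ hu0
              rw [hinv]
              exact b4.trans htj
            · refine le_of_mul_le_mul_left (a := u ^ 2) ?_ (by positivity)
              have e1 : u ^ 2 * B.d n ^ (sc x J j - (2 * C + 1) * ε) =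
                  B.d n ^ sc x J j * B.d n ^ (-ε) := by
                rw [hu, sq, ← rpow_add', ← rpow_add', ← rpow_add']; congr 1; ring
              rw [e1]
              refine b3.trans ?_
              nlinarith [hpow (sc x J j)])
        have h2t : 2 * t ≤ u * B.d n ^ (sc x J j - (C + 1) * ε) := by
          have e3 : u * B.d n ^ (sc x J j - (C + 1) * ε) = B.d n ^ sc x J j * B.d n ^ (-ε) := by
            rw [hu, ← rpow_add', ← rpow_add']; congr 1; ring
          rw [e3]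
          nlinarith [hpow (sc x J j)]
        have c2 : (((Z ε n).filter fun k' => ∀ s, |u * φ n k' s - u * φ n k s| ≤ 2 * t).card : ℝ)
            ≤ B.d n ^ (g j - C2 * ε) * ((Z ε n).card : ℝ) := by
          refine le_trans ?_ (h2 j hjr k hk)
          exact_mod_cast Finset.card_le_card (by
            intro k' hk'
            rw [Finset.mem_filter] at hk' ⊢
            refine ⟨hk'.1, fun s => ?_⟩
            have b5 := hk'.2 s
            rw [← mul_sub, abs_mul, abs_of_pos hu0] at b5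
            exact le_of_mul_le_mul_left (b5.trans h2t) hu0)
        calc _ ≤ B.d n ^ (-π j - C2 * ε) *
              (B.d n ^ (g j - C2 * ε) * ((Z ε n).card : ℝ)) :=
              mul_le_mul c1 c2 (Nat.cast_nonneg _) (hpow _).le
          _ = ((Z ε n).card : ℝ) * (B.d n ^ e j * B.d n ^ (3 * (sc x J (j + 1) + C * ε))) := by
              rw [← mul_assoc, ← rpow_add', ← rpow_add', he]
              simp only
              rw [mul_comm]
              congr 2
              ring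
          _ ≤ ((Z ε n).card : ℝ) * (B.d n ^ e j * t ^ 3) := by
              refine mul_le_mul_of_nonneg_left ?_ hZ0.le
              refine mul_le_mul_of_nonneg_left ?_ (hpow _).le
              rw [hrw, ← Real.rpow_natCast (B.d n ^ w) 3, ← Real.rpow_mul (B.pos n).le]
              refine rpow_anti B n ?_
              push_cast
              linarith
          _ ≤ E * t ^ 3 := by
              have : B.d n ^ e j ≤ ∑ j ∈ range (J + 1), B.d n ^ e j :=
                Finset.single_le_sum (f := fun j => B.d n ^ e j) (fun i _ => (hpow _).le) hjr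
              rw [hE]
              have ht2 : 0 ≤ t ^ 3 := by positivity
              have := mul_le_mul_of_nonneg_left (mul_le_mul_of_nonneg_right this ht2) hZ0.le
              refine this.trans (le_of_eq ?_)
              ring)
    -- the logarithm
    have hl : Real.log (1 / r) = (x + C * ε) * B.L n := by
      rw [one_div, Real.log_inv, hr, Real.log_rpow (B.pos n)]
      unfold Base.L
      ring
    have hl2 : 4 * CF3 * (1 + Real.log (1 / r)) ≤ B.d n ^ (-ε) := by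
      rw [hl]
      exact hlog
    have k2 : (B.d n ^ (C * ε)) ^ 2 * ((S ε n).card : ℝ) ≤
        |C0| * B.d n ^ (-κ - C2 * ε) * (r * B.d n ^ (-ε) * ∑ j ∈ range (J + 1), B.d n ^ e j) := by
      have k3 : ((Z ε n).card : ℝ) * ((B.d n ^ (C * ε)) ^ 2 * ((S ε n).card : ℝ)) ≤
          ((Z ε n).card : ℝ) * (|C0| * B.d n ^ (-κ - C2 * ε) *
            (r * B.d n ^ (-ε) * ∑ j ∈ range (J + 1), B.d n ^ e j)) := by
        calc _ = (B.d n ^ (C * ε)) ^ 2 * ((S ε n).card : ℝ) * ((Z ε n).card : ℝ) := by ring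
          _ ≤ _ := key
          _ = (|C0| * B.d n ^ (-κ - C2 * ε)) * (r * E) * (4 * CF3 * (1 + Real.log (1 / r))) := by
              ring
          _ ≤ (|C0| * B.d n ^ (-κ - C2 * ε)) * (r * E) * B.d n ^ (-ε) := by
              refine mul_le_mul_of_nonneg_left hl2 ?_
              exact mul_nonneg (mul_nonneg (abs_nonneg _) (hpow _).le) (mul_nonneg (hpow _).le hE0)
          _ = _ := by rw [hE]; ring
      exact le_of_mul_le_mul_left k3 hZ0
    calc B.d n ^ (-α + (20 * C + 3 * C2 + 12) * ε) ≤ B.d n ^ (-α + 3 * C * ε) :=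
          rpow_anti B n (by nlinarith)
      _ = (B.d n ^ (C * ε)) ^ 2 * B.d n ^ (-α + C * ε) := by
          rw [sq, ← rpow_add', ← rpow_add']; congr 1; ring
      _ ≤ (B.d n ^ (C * ε)) ^ 2 * ((S ε n).card : ℝ) := mul_le_mul_of_nonneg_left hSn (by positivity)
      _ ≤ _ := k2
      _ = |C0| * ∑ j ∈ range (J + 1), B.d n ^ (-κ + x - π j + g j - 3 * sc x J (j + 1)
            - (3 * C2 + 2 * C + 1) * ε) := by
          rw [mul_assoc, Finset.mul_sum, Finset.mul_sum]
          congr 1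
          refine Finset.sum_congr rfl fun j _ => ?_
          rw [hr, ← rpow_add', ← rpow_add', ← rpow_add']
          congr 1
          simp only [he]
          ring
      _ ≤ _ := by
          refine mul_le_mul_of_nonneg_left ?_ (abs_nonneg _)
          refine Finset.sum_le_sum fun j _ => rpow_anti B n ?_
          nlinarith)
  refine ⟨j, hj, ?_⟩
  linarith

/-- Falconer in `ℝ³`, exponent form, with a Lipschitz Frostman function `g`. -/
theorem falc3_exA (B : Base) {ι : Type*} [DecidableEq ι] (S : ℝ → ℕ → Finset ι)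
    (Z : ℝ → ℕ → Finset ℕ)
    (φ : ℕ → ℕ → Fin 2 → ℝ) (al : ℝ → ℕ → ι → ℕ → Prop)
    [∀ ε n i, DecidablePred (al ε n i)]
    (F : ℕ → ι → ℕ → ℝ) (A : ℕ → ι → ℝ) (V : ℕ → ι → Fin 2 → ℝ) {x α κ C C2 C0 Lg : ℝ}
    (g : ℝ → ℝ)
    (hx : 0 < x) (hC : 1 ≤ C) (hC2 : 1 ≤ C2) (hLg : 0 ≤ Lg) (hg0 : g 0 ≤ 0)
    (hg : ∀ y, 0 ≤ y → y ≤ x → ∀ y', 0 ≤ y' → y' ≤ x → |g y - g y'| ≤ Lg * |y - y'|)
    {J : ℕ} (hJ : 0 < J) (π : ℕ → ℝ)
    (hZ : ∀ ε : ℝ, 0 < ε → ∀ᶠ n in (U : Filter ℕ), (Z ε n).Nonempty)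
    (hφ : ∀ ε : ℝ, 0 < ε → ∀ᶠ n in (U : Filter ℕ), ∀ k ∈ Z ε n, ∀ s,
      |φ n k s| ≤ B.d n ^ (-(C * ε)))
    (hF : ∀ ε : ℝ, 0 < ε → ∀ᶠ n in (U : Filter ℕ), ∀ k ∈ Z ε n, ∀ i ∈ S ε n, ∀ i' ∈ S ε n,
      |F n i k - F n i' k - ((A n i - A n i') + ∑ s, φ n k s * (V n i s - V n i' s))|
        ≤ B.d n ^ (x - C * ε))
    (hS : ∀ ε : ℝ, 0 < ε → ∀ᶠ n in (U : Filter ℕ), B.d n ^ (-α + C * ε) ≤ ((S ε n).card : ℝ))
    (hcell : ∀ ε : ℝ, 0 < ε → ∀ᶠ n in (U : Filter ℕ), ∀ k ∈ Z ε n,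
      ((((S ε n).filter fun i => al ε n i k).image fun i => ⌊F n i k / B.d n ^ (x - C * ε)⌋).card : ℝ)
        ≤ C0 * B.d n ^ (-κ - C2 * ε))
    (hal : ∀ ε : ℝ, 0 < ε → ∀ᶠ n in (U : Filter ℕ), ∀ i ∈ S ε n,
      B.d n ^ (C * ε) * ((Z ε n).card : ℝ) ≤ (((Z ε n).filter fun k => al ε n i k).card : ℝ))
    (hV0 : ∀ ε : ℝ, 0 < ε → ∀ᶠ n in (U : Filter ℕ), ∀ i ∈ S ε n, ∀ i' ∈ S ε n, ∀ s,
      |V n i s - V n i' s| ≤ B.d n ^ (-(C * ε)))
    (hP : ∀ j ≤ J, ∀ ε : ℝ, 0 < ε → ∀ᶠ n in (U : Filter ℕ), ∀ i ∈ S ε n,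
      (((S ε n).filter fun i' => (∀ s, |V n i' s - V n i s| ≤ B.d n ^ (sc x J j - C * ε)) ∧
        |A n i' - A n i| ≤ B.d n ^ (sc x J j - (2 * C + 1) * ε)).card : ℝ)
          ≤ B.d n ^ (-π j - C2 * ε))
    (hQ : ∀ y : ℝ, 0 ≤ y → y ≤ x → ∀ ε : ℝ, 0 < ε → ∀ᶠ n in (U : Filter ℕ), ∀ k ∈ Z ε n,
      (((Z ε n).filter fun k' => ∀ s, |φ n k' s - φ n k s| ≤ B.d n ^ (y - ε)).card : ℝ)
        ≤ B.d n ^ (g y - C2 * ε) * ((Z ε n).card : ℝ)) :
    ∃ j ≤ J, α - π j + g (sc x J j) + x - 3 * sc x J (j + 1) ≤ κ := by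
  refine falc3_exA' B S Z φ al F A V (C := C) (C2 := C2 + Lg * C) (C0 := |C0|) hx hC (by nlinarith)
    hJ π (fun j => g (sc x J j)) hZ hφ hF hS ?_ hal hV0 ?_ ?_
  · intro ε hε
    filter_upwards [hcell ε hε] with n hn k hk
    refine (hn k hk).trans ((mul_le_mul_of_nonneg_right (le_abs_self C0) (rpos B n _).le).trans ?_)
    refine mul_le_mul_of_nonneg_left (rpow_anti B n ?_) (abs_nonneg _)
    have : 0 ≤ Lg * C * ε := by positivity
    nlinarith
  · intro j hj ε hε
    filter_upwards [hP j hj ε hε] with n hn i hi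
    refine (hn i hi).trans (rpow_anti B n ?_)
    have : 0 ≤ Lg * C * ε := by positivity
    nlinarith
  · intro j hj ε hε
    have hs0 := sc_nonneg hx.le J j
    have hs1 := sc_le hx.le hJ hj
    have hCε : 0 ≤ C * ε := by positivity
    rcases le_total (sc x J j - C * ε) 0 with hle | hle
    · filter_upwards with n k hk
      have b3 : (((Z ε n).filter fun k' => ∀ s, |φ n k' s - φ n k s| ≤
          B.d n ^ (sc x J j - (C + 1) * ε)).card : ℝ) ≤ (Z ε n).card := by
        exact_mod_cast Finset.card_le_card (Finset.filter_subset _ _)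
      refine b3.trans ?_
      have b4 : (1 : ℝ) ≤ B.d n ^ (g (sc x J j) - (C2 + Lg * C) * ε) := by
        apply Real.one_le_rpow_of_pos_of_le_one_of_nonpos (B.pos n) (B.lt n).le
        have h1 := hg (sc x J j) hs0 hs1 0 le_rfl hx.le
        rw [sub_zero, abs_of_nonneg hs0] at h1
        have h2 := (le_abs_self _).trans h1
        have h3 : Lg * sc x J j ≤ Lg * (C * ε) := mul_le_mul_of_nonneg_left (by linarith) hLg
        nlinarith
      have b5 : (0 : ℝ) ≤ ((Z ε n).card : ℝ) := Nat.cast_nonneg _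
      nlinarith
    · filter_upwards [hQ (sc x J j - C * ε) hle (by linarith) ε hε] with n hn k hk
      have b1 := hn k hk
      have e1 : sc x J j - C * ε - ε = sc x J j - (C + 1) * ε := by ring
      rw [e1] at b1
      refine b1.trans ?_
      refine mul_le_mul_of_nonneg_right (rpow_anti B n ?_) (Nat.cast_nonneg _)
      have h1 := hg (sc x J j) hs0 hs1 (sc x J j - C * ε) hle (by linarith)
      have e2 : sc x J j - (sc x J j - C * ε) = C * ε := by ring
      rw [e2, abs_of_nonneg hCε] at h1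
      have h2 := (le_abs_self _).trans h1
      nlinarith

/-- the limit `J → ∞` -/
theorem exists_rate {x κ : ℝ} (hx : 0 < x) (f : ℝ → ℝ) (hf : ContinuousOn f (Set.Icc 0 x)) (m : ℝ)
    (hm : 0 ≤ m)
    (h : ∀ J : ℕ, 0 < J → ∃ j ≤ J, f (sc x J j) - m * (x / J) ≤ κ) :
    ∃ t, 0 ≤ t ∧ t ≤ x ∧ f t ≤ κ := by
  obtain ⟨t0, ht0, hmin⟩ := isCompact_Icc.exists_isMinOn (Set.nonempty_Icc.2 hx.le) hf
  refine ⟨t0, ht0.1, ht0.2, ?_⟩
  refine le_of_forall_pos_le_add fun η hη => ?_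
  obtain ⟨J, hJ⟩ := exists_nat_gt (m * x / η)
  have hJ0 : (0 : ℝ) ≤ m * x / η := by positivity
  have hJp : 0 < J := by
    have : (0 : ℝ) < J := lt_of_le_of_lt hJ0 hJ
    exact_mod_cast this
  obtain ⟨j, hj, hj2⟩ := h J hJp
  have h1 : f t0 ≤ f (sc x J j) := hmin ⟨sc_nonneg hx.le J j, sc_le hx.le hJp hj⟩
  have hJr : (0 : ℝ) < J := by exact_mod_cast hJp
  have h2 : m * (x / J) ≤ η := by
    rw [div_lt_iff₀ hη] at hJ
    rw [← mul_div_assoc, div_le_iff₀ hJr]
    linarith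
  linarith

end Crest.Agent.R116.F3a389
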