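import Crest.Agent.R116.IIr2_460

/-!
# R116, K-TEXT II-c v3, part C (ties): the final statements, version with regions (helper460)

At the resonances the facts are read at different positions (741's 21841): at `k = 1` on the `e`-plane
only the decomposition with `C_b` COARSE is used (`x` = loss of `X` at `C_b` coarse, (K1) (F1) (H1)
there), the fact `m ≤ r` is not needed; at `k = 1` on the `κ`-plane the fact `m ≤ w` is not needed.
Both are replaced by `m ≤ s` on `T⁻` (row `μ = 0`) and `B.m ≤ A.m`.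
-/

set_option autoImplicit false

namespace Crest.Agent.R116.Tie460

variable {k k' θ s c qa qb : ℝ} {A B : Pl}

/-- facts of a half plane of an `e`-tie plane, `k = 1` : only `P`, `mn` -/
structure EF' (s k : ℝ) (S : Pl) : Prop where
  P : S.Pos
  kx : k ≠ 1 → 0 < S.m → S.x ≤ s
  mn : 0 < S.m → S.n ≤ s
  mr : k ≠ 1 → S.m ≤ S.r
  nx : 2 < k → S.n ≤ S.x
  FA : k < 1 → S.FanA s
  FB : k < 1 → S.FanB s

theorem EF.prime (h : EF s k A) : EF' s k A :=
  ⟨h.P, fun _ => h.kx, h.mn, fun _ => h.mr, h.nx, h.FA, h.FB⟩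

theorem EF'.toEF (h : EF' s k A) (hk : k ≠ 1) : EF s k A :=
  ⟨h.P, h.kx hk, h.mn, h.mr hk, h.nx, h.FA, h.FB⟩

/-- facts of a half plane of a `κ`-tie (or `D`-tie) plane, `k = 1` : only `P`, `FA`, `n1` -/
structure KF' (s k : ℝ) (S : Pl) : Prop where
  P : S.Pos
  FA : S.FanA s
  mw : k ≠ 1 → S.m ≤ S.w
  nx : k ≠ 1 → 0 < S.w → S.n ≤ S.x
  n1 : k = 1 → 0 < S.m → S.n ≤ s
  FB : k < 1 → S.FanB s

theorem KF.prime (h : KF s k A) : KF' s k A := by
  refine ⟨h.P, h.FA, fun hk => ?_, h.nx, h.n1, h.FB⟩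
  rcases h.mw with h1 | ⟨h1, _⟩
  · exact h1
  · exact absurd h1 hk

theorem KF'.toKF (h : KF' s k A) (hm : k = 1 → A.m ≤ s) : KF s k A := by
  refine ⟨h.P, h.FA, ?_, h.nx, h.n1, h.FB⟩
  by_cases hk : k = 1
  · exact Or.inr ⟨hk, hm hk⟩
  · exact Or.inl (h.mw hk)

/-! ### `k = 1` -/

/-- exit on `T⁻`, `e`-plane, `k = 1` -/
theorem e1_exit (N : Num θ s c qa qb) (P : A.Pos) (FA : A.FanA s) (hn : A.n ≤ s)
    (tan : A.Tan c θ (θ - 1) qa qb) (ver : 0 ≤ A.Fa qa + A.Fb qb) : A.m ≤ s := by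
  have := N.hs; have := N.hc; have := N.ha; have := N.hb; have := N.hq
  have := P.e0; have := P.w0; have := P.u0; have := P.r0
  by_contra hcon
  push Not at hcon
  have h5 := FA.fx hcon
  have h6 := FA.fh hcon
  have h := rowE (k := 1) (μ := 0) tan (lowμ ver N.hθ.le)
  rw [h5, h6] at h
  nlinarith

/-- exit on `T⁻`, `κ`-plane, `k = 1` -/
theorem k1_exit (N : Num θ s c qa qb) (P : A.Pos) (FA : A.FanA s) (hn : A.n ≤ s)
    (tan : A.Tan c θ (2 * θ - 1) qa qb) (ver : 0 ≤ A.Fa qa + 2 * A.Fb qb) : A.m ≤ s := by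
  have := N.hs; have := N.hc; have := N.ha; have := N.hb; have := N.hq
  have := P.e0; have := P.w0; have := P.u0; have := P.r0
  by_contra hcon
  push Not at hcon
  have h5 := FA.fx hcon
  have h6 := FA.fh hcon
  have h := rowK (k := 1) (μ := 0) tan (lowμ ver N.hθ.le)
  rw [h5, h6] at h
  nlinarith

/-- `e`-plane, `k = 1`, row `μ = 1` (either side) -/
theorem e1_row (N : Num θ s c qa qb) (P : A.Pos) (hn : A.n ≤ s) (hm : A.m ≤ s)
    (tan : A.Tan c θ (θ - 1) qa qb) (hμ : 0 ≤ (θ - 1) * (A.Fa qa + A.Fb qb)) : False := by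
  have := N.hs; have := N.hc; have := N.ha; have := N.hb; have := N.hq
  have := P.e0; have := P.w0; have := P.u0; have := P.d0; have := P.h0
  have h := rowE (k := 1) (μ := 1) tan hμ
  nlinarith

/-! ### `e`-tie -/

/-- side above, `θ < k` (`θb < 0`); `k = 1` : only `P`, `n ≤ s` of `F` -/
structure EUp' (k θ s c qa qb : ℝ) (A B : Pl) : Prop where
  F : EF' s k B
  tan : B.Tan c θ (θ - k) qa qb
  ver : B.Fa qa + B.Fb qb ≤ 0
  ant : B.m ≤ A.m
  pos : qa ≤ B.m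

theorem EUp.prime (h : EUp k θ s c qa qb A B) : EUp' k θ s c qa qb A B :=
  ⟨h.F.prime, h.tan, h.ver, h.ant, h.pos⟩

theorem EUp'.toEUp (h : EUp' k θ s c qa qb A B) (hk : k ≠ 1) : EUp k θ s c qa qb A B :=
  ⟨h.F.toEF hk, h.tan, h.ver, h.ant, h.pos⟩

/-- **`e`-tie ⇒ False** -/
theorem eTie_false' (N : Num θ s c qa qb) (hk : 0 < k) (F : EF' s k A)
    (F1 : k = 1 → A.FanA s) (hd : k < 1 → A.d = 0)
    (tan : A.Tan c θ (θ - k) qa qb) (ver : 0 ≤ A.Fa qa + A.Fb qb) (hm : qa ≤ A.m)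
    (nz : k ≤ θ → θ < 1 / 2 → ∃ B, EUpNZ k θ s c qa qb A B)
    (up : θ < k → θ < 1 / 2 ∨ θ < k / 2 ∨ k = 1 →
      ∃ B, EUp' k θ s c qa qb A B ∧ (k < 1 → B.d = 0)) : False := by
  have ha := N.ha
  have hm0 : 0 < A.m := by linarith
  by_cases h1 : k = 1
  · subst h1
    have hms := e1_exit N F.P (F1 rfl) (F.mn hm0) tan ver
    rcases le_or_gt 1 θ with h2 | h2
    · exact e1_row N F.P (F.mn hm0) hms tan (lowμ ver h2)
    · obtain ⟨B, hB, -⟩ := up h2 (Or.inr (Or.inr rfl))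
      have hB0 : 0 < B.m := by linarith [hB.pos]
      exact e1_row N hB.F.P (hB.F.mn hB0) (hB.ant.trans hms) hB.tan (upμ hB.ver h2.le)
  · refine eTie_false N hk (F.toEF h1) hd tan ver hm nz fun h2 h3 => ?_
    obtain ⟨B, hB, hd⟩ := up h2 (h3.imp_right Or.inl)
    exact ⟨B, hB.toEUp h1, hd⟩

/-! ### `κ`-tie and `D`-tie -/

/-- side above, `2 θ < k` (`θb < 0`), `1 ≤ k` -/
structure KUp' (k θ s c qa qb : ℝ) (A B : Pl) : Prop where
  F : KF' s k B
  tan : B.Tan c θ (2 * θ - k) qa qb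
  ver : B.Fa qa + 2 * B.Fb qb ≤ 0
  ant : k = 1 → B.m ≤ A.m
  pos : qa ≤ B.m

theorem KUp.prime (h : KUp k θ s c qa qb B) (ha : k = 1 → B.m ≤ A.m) :
    KUp' k θ s c qa qb A B :=
  ⟨h.F.prime, h.tan, h.ver, ha, h.pos⟩

/-- **`κ`-tie and `D`-tie ⇒ False** -/
theorem kTie_false' (N : Num θ s c qa qb) (hk : 0 < k) (F : KF' s k A) (hd : k < 1 → A.d = 0)
    (tan : A.Tan c θ (2 * θ - k) qa qb) (ver : 0 ≤ A.Fa qa + 2 * A.Fb qb) (hm : qa ≤ A.m)
    (sum : k ≤ θ → k < 1 → c + qa + qb ≤ A.m + A.r)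
    (s1 : θ < k → k < 1 → ∃ B, S1 k θ s c qa qb A B)
    (up : 2 * θ < k → 1 ≤ k → ∃ B, KUp' k θ s c qa qb A B) : False := by
  have ha := N.ha
  have hm0 : 0 < A.m := by linarith
  have hms : k = 1 → A.m ≤ s := by
    rintro rfl
    exact k1_exit N F.P F.FA (F.n1 rfl hm0) tan ver
  refine kTie_false N hk (F.toKF hms) hd tan ver hm sum s1 fun h2 h3 => ?_
  obtain ⟨B, hB⟩ := up h2 h3
  exact ⟨B, hB.F.toKF fun h => (hB.ant h).trans (hms h), hB.tan, hB.ver, hB.pos⟩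

/-! ### double tie -/

/-- **double tie ⇒ False** -/
theorem dTie_false' (N : Num θ s c qa qb) (hk : 0 < k) (hkk : k' = k + θ) (F : KF' s k' A)
    (hd : k' < 1 → A.d = 0)
    (tan : A.Tan c θ (θ - k) qa qb) (ver : 0 ≤ A.Fa qa + 2 * A.Fb qb) (hm : qa ≤ A.m)
    (nz : k' < 1 → ∃ B, DUpNZ k k' θ s c qa qb A B)
    (up : 1 ≤ k' → θ < k → k ≤ 1 ∨ θ ≤ k / 2 → ∃ B, EUp' k θ s c qa qb A B) : False := by
  have ha := N.ha
  have hθ0 := N.hθ
  have hm0 : 0 < A.m := by linarith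
  have hk'0 : 0 ≤ k' := by linarith
  have eb : θ - k = 2 * θ - k' := by rw [hkk]; ring
  have tan' : A.Tan c θ (2 * θ - k') qa qb := by rw [← eb]; exact tan
  have hms1 : k' = 1 → A.m ≤ s := by
    intro h
    have F1 := F.n1 h hm0
    rw [h] at tan'
    exact k1_exit N F.P F.FA F1 tan' ver
  have F0 : KF s k' A := F.toKF hms1
  by_cases h1 : k = 1
  · subst h1
    rcases le_or_gt 1 θ with h2 | h2
    · exact dTie_false N hk hkk F0 hd tan ver hm
        (fun h => absurd h (by linarith)) (fun _ h => absurd h (by linarith))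
    · have hms := exit_m N hk'0 F0 hd tan' ver hm
      obtain ⟨B, hB⟩ := up (by linarith) h2 (Or.inl le_rfl)
      have hB0 : 0 < B.m := by linarith [hB.pos]
      exact e1_row N hB.F.P (hB.F.mn hB0) (hB.ant.trans hms) hB.tan (upμ hB.ver h2.le)
  · refine dTie_false N hk hkk F0 hd tan ver hm nz fun h2 h3 h4 => ?_
    obtain ⟨B, hB⟩ := up h2 h3 (h4.imp_left le_of_lt)
    exact ⟨B, hB.toEUp h1⟩

end Crest.Agent.R116.Tie460
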