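import Crest.Agent.R116.Tm2_741
import Crest.Agent.R116.IIr3_460

/-!
# R116 (K side, ties): classes and rates of the `κ`-plane `b = 2 a + k v` (helper741)

Natural sizes `(v, a)` of the slots: `z (1,0) | C_a (0,1) | C_b (k,2) | X (1,1) | N (k+1,2) |
H (1,2) | B (k,1) | G (k,0) | D (k-1,0)`.
* `PlK k`  : `D` frozen, `k < 1` : class `{z, G}`, at `k = 1/2` class `{H, B}`
* `PlK1`   : `D` frozen, `k = 1` : classes `{z, G}`, `{C_b, H}`, `{X, N, B}`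
* `PlK9 k` : `D` live, `k > 1` : class `{z, G, D}`, at `k = 2` class `{C_b, X}`
* `plK`, `plK1`, `plK9` : the rates as a `Tie460.Pl`
-/

set_option autoImplicit false

namespace Crest.Agent.R116.Tq741

open Tie460 (Pl)

/-- parallel slots of the `κ`-plane, `D` frozen, `k ≠ 1` -/
def PK (k : ℝ) (t t' : Fin 9) : Prop :=
  t = t' ∨ (t = 0 ∧ t' = 7) ∨ (t = 7 ∧ t' = 0) ∨
    (k = 1 / 2 ∧ ((t = 5 ∧ t' = 6) ∨ (t = 6 ∧ t' = 5)))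

structure PlK (k : ℝ) (c : Fin 9 → Fin 9) (dl : V9) : Prop where
  par : ∀ t t', c t = c t' ↔ PK k t t'
  d7 : dl 7 = k * dl 0
  d5 : k = 1 / 2 → dl 5 = 2 * dl 6

/-- parallel slots of the `κ`-plane, `D` frozen, `k = 1` -/
def PK1 (t t' : Fin 9) : Prop :=
  t = t' ∨ (t = 0 ∧ t' = 7) ∨ (t = 7 ∧ t' = 0) ∨ (t = 2 ∧ t' = 5) ∨ (t = 5 ∧ t' = 2) ∨
    (t = 3 ∧ t' = 4) ∨ (t = 4 ∧ t' = 3) ∨ (t = 3 ∧ t' = 6) ∨ (t = 6 ∧ t' = 3) ∨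
    (t = 4 ∧ t' = 6) ∨ (t = 6 ∧ t' = 4)

structure PlK1 (c : Fin 9 → Fin 9) (dl : V9) : Prop where
  par : ∀ t t', c t = c t' ↔ PK1 t t'
  d7 : dl 7 = dl 0
  d5 : dl 5 = dl 2
  d4 : dl 4 = 2 * dl 3
  d6 : dl 6 = dl 3

/-- parallel slots of the `κ`-plane, `D` live, `k > 1` -/
def PK9 (k : ℝ) (t t' : Fin 9) : Prop :=
  t = t' ∨ (t = 0 ∧ t' = 7) ∨ (t = 7 ∧ t' = 0) ∨ (t = 0 ∧ t' = 8) ∨ (t = 8 ∧ t' = 0) ∨
    (t = 7 ∧ t' = 8) ∨ (t = 8 ∧ t' = 7) ∨ (k = 2 ∧ ((t = 2 ∧ t' = 3) ∨ (t = 3 ∧ t' = 2)))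

structure PlK9 (k : ℝ) (c : Fin 9 → Fin 9) (dl : V9) : Prop where
  par : ∀ t t', c t = c t' ↔ PK9 k t t'
  d7 : dl 7 = k * dl 0
  d8 : dl 8 = (k - 1) * dl 0
  d2 : k = 2 → dl 2 = 2 * dl 3

/-- `D` frozen, `k < 1`; at `k = 1/2` : `w` at `H` coarse, `h` at `B` fine -/
noncomputable def plK (s : ℝ) (c : Fin 9 → Fin 9) (φ : Fin 9 → V9 → ℝ) (ρ : V9) : Pl where
  x := 1 - ρ 3
  n := 1 - ρ 4
  h := 1 - (φ (c 5) (e9 6) - φ (c 5) (e9 6 + (2:ℝ) • e9 5)) / 2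
  m := ρ 1
  r := ρ 2
  e := ρ 0 - (1 - s)
  w := φ (c 6) 0 - φ (c 6) (0 + (1:ℝ) • e9 6)
  u := 0
  d := ρ 8

/-- `k = 1` : `x` at `N, B` coarse, `w` at `X` fine, `N` coarse, `n` at `X, B` fine,
`h` at `C_b` coarse, `r` at `H` fine -/
noncomputable def plK1 (s : ℝ) (c : Fin 9 → Fin 9) (φ : Fin 9 → V9 → ℝ) (ρ : V9) : Pl where
  x := 1 - (φ (c 3) 0 - φ (c 3) (0 + (1:ℝ) • e9 3))
  n := 1 - (φ (c 4) (e9 3 + e9 6) - φ (c 4) (e9 3 + e9 6 + (2:ℝ) • e9 4)) / 2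
  h := 1 - (φ (c 5) 0 - φ (c 5) (0 + (2:ℝ) • e9 5)) / 2
  m := ρ 1
  r := (φ (c 2) (e9 5 + e9 5) - φ (c 2) (e9 5 + e9 5 + (2:ℝ) • e9 2)) / 2
  e := ρ 0 - (1 - s)
  w := φ (c 6) (e9 3) - φ (c 6) (e9 3 + (1:ℝ) • e9 6)
  u := 0
  d := ρ 8

/-- `D` live, `k > 1`; at `k = 2` : `x` at `C_b` coarse, `r` at `X` fine -/
noncomputable def plK9 (s : ℝ) (c : Fin 9 → Fin 9) (φ : Fin 9 → V9 → ℝ) (ρ : V9) : Pl where
  x := 1 - (φ (c 3) 0 - φ (c 3) (0 + (1:ℝ) • e9 3))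
  n := 1 - ρ 4
  h := 1 - ρ 5
  m := ρ 1
  r := (φ (c 2) (e9 3) - φ (c 2) (e9 3 + (2:ℝ) • e9 2)) / 2
  e := ρ 0 - (1 - s)
  w := ρ 6
  u := 0
  d := 0

/-- `T` and `V` in the letters of a `Pl`, `κ`-plane -/
structure TVk (k θ s g qa qb v a : ℝ) (A : Pl) : Prop where
  T : A.e + (1 - s) - θ * A.m - (2 * θ - k) * A.r + (1 - A.x) * (1 - θ) +
      (1 - A.n) * (1 - (2 * θ - k)) + (1 - A.h) * (1 - 2 * θ) + A.w * (θ - (2 * θ - k)) +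
      A.u * (2 * θ - (2 * θ - k)) + A.d * (2 * θ - (2 * θ - k) - 1) =
    -((g - (1 - s)) - (3 + (3 + qa) * (-θ) + (1 + qb) * (-(2 * θ - k))))
  V : -((g - (1 - s)) * v - (3 * v + (3 + qa) * a + (1 + qb) * (2 * a + k * v))) ≤
    (A.e + (1 - s)) * v + A.m * a + A.r * (2 * a + k * v) + (1 - A.x) * (v + a) +
      (1 - A.n) * (v + (2 * a + k * v)) + (1 - A.h) * (v + 2 * a) + A.w * (a + k * v) +
      A.u * (k * v) + A.d * (k * v - v)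

variable {k θ s g qa qb v a : ℝ} {A : Pl}

theorem TVk.tan (h : TVk k θ s g qa qb v a A) : A.Tan g θ (2 * θ - k) qa qb := by
  have := h.T
  unfold Pl.Tan Pl.Fa Pl.Fb
  linarith

theorem TVk.ver (h : TVk k θ s g qa qb v a A) (hva : a + θ * v < 0) :
    0 ≤ A.Fa qa + 2 * A.Fb qb := by
  have h1 := h.tan
  have h2 := h.V
  have key : 0 ≤ -(a + θ * v) * (A.Fa qa + 2 * A.Fb qb) := by
    unfold Pl.Tan at h1
    unfold Pl.Fa Pl.Fb at *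
    have h3 := congrArg (fun x => v * x) h1
    linarith
  by_contra hcon
  push Not at hcon
  nlinarith

end Crest.Agent.R116.Tq741
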