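import Crest.Agent.R116.NZ10_90
import Crest.Agent.R116.Tk0_741

/-!
# R116, K-TEXT II-c: (NZ) in the letters of 741's `plK` and of `Half8` (helper90)

* `plK_w`, `plK_w_half` : the entry `w` of `plK`
* **`nzK_pl`** : field `nz` of `S1` / `DUpNZ` for `A = plK s c φ (sn8 ρ2 0)`
* **`nzE_pl`** : field `nz` of `EUpNZ` over `Half8`
-/

set_option autoImplicit false
set_option linter.unusedVariables false

open Set Filter Topology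

namespace Crest.Agent.R116.NZ90

open Crest.Agent.R136
open Crest.Agent.R138
open Dg219 (Walls mw Cone)
open Sl741 (slice xt rs)
open RbK219 RbM219
open ChL222 (monL mfL)
open Tp139
open Rcx363
open Kz647
open Tq741
open Tq126 (cut leg8_cut sn8 sn8_cast)
open Tie460 (Pl)

/-- `B` alone -/
theorem plK_w {c : Fin 9 → Fin 9} {dl : V9} {s : ℝ} {Λ : V9 → ℝ} {φ : Fin 9 → V9 → ℝ} {ρ : V9}
    (C : Cl9 c dl s Λ φ ρ) {k : ℝ} (P : PlK k c dl) (hk : k ≠ 1 / 2) :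
    (plK s c φ ρ).w = ρ 6 := by
  have al : ∀ t', c t' = c 6 → t' = 6 := by
    intro t' h
    have h1 := (P.par t' 6).1 h
    unfold PK at h1
    rcases h1 with h1 | ⟨_, h1⟩ | ⟨_, h1⟩ | ⟨h1, _⟩
    · exact h1
    · exact absurd h1 (by decide)
    · exact absurd h1 (by decide)
    · exact absurd h1 hk
  show φ (c 6) 0 - φ (c 6) (0 + (1:ℝ) • e9 6) = ρ 6
  rw [C.rate 6 0 fun t' ht => by rw [al t' ht],
    C.rate 6 (0 + (1:ℝ) • e9 6) fun t' ht => by rw [al t' ht]]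
  simp only [Pi.add_apply, Pi.smul_apply, smul_eq_mul, e9_same, Pi.zero_apply]
  ring

section half

variable {θ θb k t : ℝ} (ht : t ≠ 0) (hθ : 0 < θ) (hθk : θ < k) (hk : k = 1 / 2)
  (hb : θb = 2 * θ - k) {ch : ℝ} (hch : 0 < ch) {J : Type*} {lam : J → (Fin 12 → ℝ) → ℝ}
  {j0 : J} {K own : ℝ} (hl : LamOk (L8 θ θb t) (lam j0) K own) {ρh : Fin 8 → ℝ}
  (rh : Rates8 θ θb t kH (-1) ch (lam j0) ρh) {ρ : Fin 8 → ℝ} {κ l α : ℝ} {h : ℕ → ℝ}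
  {lam2 : J → (Fin 12 → ℝ) → ℝ} {ρ2 : Fin 8 → ℝ}
  (H : Half8 θ θb t kD (-1) lam j0 ρ κ l α h lam2 ρ2)
include ht hθ hθk hk hb hch hl rh H

/-- `B` at `H` coarse -/
theorem plK_w_half {c : Fin 9 → Fin 9} {dl : V9} {s : ℝ} {φ : Fin 9 → V9 → ℝ} {ρ9 : V9}
    (C : Cl9 c dl s (Lam8 (lam2 j0)) φ ρ9) (P : PlK k c dl) : ρh 6 ≤ (plK s c φ ρ9).w := by
  obtain ⟨d, hd⟩ : ∃ d : V9, d = ![0, 1, 0, 0, 0, 0, 0, 0, 1] := ⟨_, rfl⟩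
  have hde : d + (1:ℝ) • e9 6 = ![0, 1, 0, 0, 0, 0, 1, 0, 1] := by
    rw [hd]; funext i; fin_cases i <;> simp [e9]
  have l1 : LegM 0 d := by rw [hd]; constructor <;> simp
  have l2 : LegM 0 (d + (1:ℝ) • e9 6) := by rw [hde]; constructor <;> simp
  have al : ∀ t', c t' = c 6 → t' = 5 ∨ t' = 6 := by
    intro t' h
    have h1 := (P.par t' 6).1 h
    unfold PK at h1
    rcases h1 with h1 | ⟨_, h1⟩ | ⟨_, h1⟩ | ⟨_, ⟨h1, _⟩ | ⟨_, h1⟩⟩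
    · exact Or.inr h1
    · exact absurd h1 (by decide)
    · exact absurd h1 (by decide)
    · exact Or.inl h1
    · exact absurd h1 (by decide)
  have z : ∀ t', c t' = c 6 → d t' = 0 := fun t' ht' => by
    rcases al t' ht' with rfl | rfl <;> rw [hd] <;> rfl
  have key := kH_Lam ht hθ hθk hk hb hch hl rh H (w := d) (y := 1) l1 l2 zero_le_one
  rw [mul_one] at key
  show ρh 6 ≤ φ (c 6) 0 - φ (c 6) (0 + (1:ℝ) • e9 6)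
  rw [C.loc (c 6) 0 d fun t' ht' => (z t' ht').symm,
    C.loc (c 6) (0 + (1:ℝ) • e9 6) (d + (1:ℝ) • e9 6) fun t' ht' => by
      rw [Pi.add_apply, Pi.add_apply, z t' ht', Pi.zero_apply],
    C.incr l1 l2 (c 6) fun i hi => add_e9_ne (fun h' => hi (by rw [h']))]
  exact key

end half

/-- **field `nz` of `S1` and of `DUpNZ`**, `A = plK s c φ (sn8 ρ2 0)`, `B.n = 1 - ρ2' 4` -/
theorem nzK_pl {θ θb k t : ℝ} (ht : t ≠ 0) (hθ : 0 < θ) (hθk : θ < k) (hk1 : k < 1)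
    (hb : θb = 2 * θ - k) {cp cm ch : ℝ} (hcp : 0 < cp) (hcm : 0 < cm) (hch : 0 < ch)
    {J : Type*} {lam : J → (Fin 12 → ℝ) → ℝ} {j0 : J} {K s : ℝ}
    (hl : LamOk (L8 θ θb t) (lam j0) K (1 - s)) {ρp ρm ρh : Fin 8 → ℝ}
    (rp : Rates8 θ θb t oS 1 cp (lam j0) ρp) (rm : Rates8 θ θb t kD (-1) cm (lam j0) ρm)
    (rh : Rates8 θ θb t kH (-1) ch (lam j0) ρh)
    {κ l α : ℝ} {h : ℕ → ℝ} {lam2 : J → (Fin 12 → ℝ) → ℝ} {ρ2 : Fin 8 → ℝ}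
    (H : Half8 θ θb t kD (-1) lam j0 ρm κ l α h lam2 ρ2)
    {κ' l' α' : ℝ} {h' : ℕ → ℝ} {lam2' : J → (Fin 12 → ℝ) → ℝ} {ρ2' : Fin 8 → ℝ}
    (H' : Half8 θ θb t oS 1 lam j0 ρp κ' l' α' h' lam2' ρ2')
    {c : Fin 9 → Fin 9} {dl : V9} {φ : Fin 9 → V9 → ℝ}
    (C : Cl9 c dl s (Lam8 (lam2 j0)) φ (sn8 ρ2 0)) (P : PlK k c dl) {B : Pl}
    (hB : B.n = 1 - ρ2' 4) : B.n = 0 →
    (1 + k - 2 * θ) * (plK s c φ (sn8 ρ2 0)).n ≤ (plK s c φ (sn8 ρ2 0)).e +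
      (k - θ) * (plK s c φ (sn8 ρ2 0)).w + k * (plK s c φ (sn8 ρ2 0)).u := by
  intro h0
  have n4 : nat8 1 (-θ) (-θb) 4 ≠ 0 := by
    show (1:ℝ) + -θb ≠ 0
    intro h; rw [hb] at h; linarith
  have n0 : nat8 1 (-θ) (-θb) 0 ≠ 0 := one_ne_zero
  have n6 : nat8 1 (-θ) (-θb) 6 ≠ 0 := by
    show -θb - -θ ≠ 0
    intro h; rw [hb] at h; linarith
  have e4 : ρ2 4 = ρm 4 := H.eq 4 n4
  have e0 : ρ2 0 = ρm 0 := H.eq 0 n0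
  have e6 : ρ2 6 = ρm 6 := H.eq 6 n6
  have e4' : ρ2' 4 = ρp 4 := H'.eq 4 n4
  refine nzK ht hθ hθk hk1 hb hcp hcm hch hl rp rm rh ?_ ?_ (fun h => ?_)
    (fun h => plK_w_half ht hθ hθk h hb hch hl rh H C P) (le_refl (0:ℝ)) ?_
  · show 1 - sn8 ρ2 0 4 = 1 - ρm 4
    rw [← e4]; rfl
  · show ρm 0 - (1 - s) ≤ sn8 ρ2 0 0 - (1 - s)
    rw [← e0]; exact le_rfl
  · rw [plK_w C P h, ← e6]; exact le_rfl
  · rw [← e4']; linarith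

/-- **field `nz` of `EUpNZ`**, `A.n = 1 - ρ2 4`, `A.e = ρ2 0 - (1 - s)`, `A.u = ρ2 7`,
`B.n = 1 - ρ2' 4` -/
theorem nzE_pl {θ θb k t : ℝ} (ht : t ≠ 0) (hθ : 0 < θ) (hk : 0 < k) (hθ1 : θ < 1 + k)
    (hb : θb = θ - k) {cp cm : ℝ} (hcp : 0 < cp) (hcm : 0 < cm)
    {J : Type*} {lam : J → (Fin 12 → ℝ) → ℝ} {j0 : J} {K s : ℝ}
    (hl : LamOk (L8 θ θb t) (lam j0) K (1 - s)) {ρp ρm : Fin 8 → ℝ}
    (rp : Rates8 θ θb t oS 1 cp (lam j0) ρp) (rm : Rates8 θ θb t (eD k) (-1) cm (lam j0) ρm)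
    {κ l α : ℝ} {h : ℕ → ℝ} {lam2 : J → (Fin 12 → ℝ) → ℝ} {ρ2 : Fin 8 → ℝ}
    (H : Half8 θ θb t (eD k) (-1) lam j0 ρm κ l α h lam2 ρ2)
    {κ' l' α' : ℝ} {h' : ℕ → ℝ} {lam2' : J → (Fin 12 → ℝ) → ℝ} {ρ2' : Fin 8 → ℝ}
    (H' : Half8 θ θb t oS 1 lam j0 ρp κ' l' α' h' lam2' ρ2') {A B : Pl}
    (hn : A.n = 1 - ρ2 4) (he : A.e = ρ2 0 - (1 - s)) (hw : 0 ≤ A.w) (hu : A.u = ρ2 7)
    (hB : B.n = 1 - ρ2' 4) : B.n = 0 →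
    (1 + k - θ) * A.n ≤ A.e + k * A.w + (k + θ) * A.u := by
  intro h0
  have n4 : nat8 1 (-θ) (-θb) 4 ≠ 0 := by
    show (1:ℝ) + -θb ≠ 0
    intro h; rw [hb] at h; linarith
  have n0 : nat8 1 (-θ) (-θb) 0 ≠ 0 := one_ne_zero
  have n7 : nat8 1 (-θ) (-θb) 7 ≠ 0 := by
    show -θb - 2 * -θ ≠ 0
    intro h; rw [hb] at h; linarith
  have e4 : ρ2 4 = ρm 4 := H.eq 4 n4
  have e0 : ρ2 0 = ρm 0 := H.eq 0 n0
  have e7 : ρ2 7 = ρm 7 := H.eq 7 n7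
  have e4' : ρ2' 4 = ρp 4 := H'.eq 4 n4
  refine nzE ht hθ hk hθ1 hb hcp hcm hl rp rm ?_ ?_ hw ?_ ?_
  · rw [hn, e4]
  · rw [he, e0]
  · rw [hu, e7]
  · rw [← e4']; linarith

end Crest.Agent.R116.NZ90
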