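import Crest.Agent.R116.Kg1_330

/-!
# R116, K side (helper330): the fact RM with the slot `D` frozen

* `linRM` : tight wall `10 = 7 + 3` : `0 < gB → gC ≤ gP` (and `1 - gC < gB → 1 ≤ gP`), over `BsF`.
-/

set_option autoImplicit false
set_option linter.unusedVariables false
set_option linter.unusedSectionVars false

open Filter Topology Finset

namespace Crest.Agent.R116.Kg330

open Crest.Agent.R138.Ex926 (Base U IsTan)
open Crest.Agent.R136.Net191 Crest.Agent.R136.Qg926 Crest.Agent.R136.Gf356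
open Crest.Agent.R116.ChL222 Crest.Agent.R116.PL504 Crest.Agent.R116.EvL504
open Crest.Agent.R116.Kr710 Crest.Agent.R116.Kf330 Crest.Agent.R116.WinG954
open Crest.Agent.R116.SgF665 Crest.Agent.R116.Sg337

variable {B : Base} {I J : ℕ → Finset (ℕ × ℝ)}
    {co : ∀ n : ℕ, ℕ × ℝ → ℕ × ℝ → Fin 12 → ℝ} {C R : ℝ} {ν : (Fin 12 → ℝ) → ℝ} {s : ℝ}
    {X : ℕ → Fin 12 → ℝ} {h : ℕ → ℝ} {Jt : Type*} {f : Jt → (Fin 12 → ℝ) → ℝ} {j0 : Jt}
    {rz rX rH rF gC gP gE gB : ℝ}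

/-- the rate of `C` of a monotone profile is nonnegative -/
theorem rateC_nonneg (hN : NProf B I J co monL C R ν) (hf : f j0 = ν)
    (L : LinTan (Leg monL R) f j0 X h rz rX rH rF gC gP gE gB) : 0 ≤ gC := by
  obtain ⟨D, lam, hD, htan, hlin⟩ := L.ex
  have ht : IsTan (Leg monL R) D ν X h (lam j0) := hf ▸ htan j0
  have anti := ht.anti L.hpos (fun l c c' hc => by
    refine add_le_add_right ?_ _
    exact smul_le_smul_of_nonneg_left hc (L.hpos l).le) hN.anti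
  have m1 : bx9 0 0 0 0 0 0 0 0 0 ∈ LM0 := bx9_mem.2 (by norm_num)
  have m2 : bx9 0 0 0 1 0 0 0 0 0 ∈ LM0 := bx9_mem.2 (by norm_num)
  have l1 : bx9 0 0 0 0 0 0 0 0 0 ≤ bx9 0 0 0 1 0 0 0 0 0 := by
    intro k; fin_cases k <;> simp [bx9]
  have i1 := anti _ (hD m1) _ (hD m2) l1
  rw [hlin _ _ _ _ _ _ _ _ m1, hlin _ _ _ _ _ _ _ _ m2] at i1
  linarith

variable {k' : ℕ → ℕ} {D : Set (Fin 12 → ℝ)} {lam : (Fin 12 → ℝ) → ℝ}
    {W : Wnd 12 (fun _ : ℕ => ℕ × ℝ)} {E : ∀ _ : ℕ, Finset (ℕ × ℝ)} {b : ℕ → Fin 2 → ℝ}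

theorem WD.rm (w : WD B I J co C ν s X h rX rH rF gC gP gE gB k' D lam W E b) (hC : 0 ≤ gC)
    (h10 : ∀ n, X n 10 = X n 7 + X n 3) :
    (0 < gB → gC ≤ gP) ∧ (1 - gC < gB → 1 ≤ gP) := by
  have hS : ∀ k : Fin 12, k ≠ 0 → k ∉ W.S := fun k hk hm => hk (by
    rw [w.win.hS, Finset.mem_singleton] at hm; exact hm)
  exact RM_lin w.mod.toRUnif w.law w.thin (y := 1) one_pos le_rfl (hS 7 (by decide))
    (hS 8 (by decide)) (w.tight rfl h10) (d := 0) (e := 1) (X0 := 1) (N0 := 1) (F0 := 0)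
    (Or.inr le_rfl) (Or.inr (by norm_num)) (Or.inr (by norm_num))
    (A := rF + gC + gP + gB) hC
    (fun B1 C1 P1 a1 a2 a3 a4 a5 a6 a7 => by
      have m := w.mem (E' := 1) (C' := C1) (X' := 1) (B' := B1) (N := 1) (P := P1) (F := 0)
        ⟨zero_le_one, a3, zero_le_one, a1, zero_le_one, a5, le_rfl⟩
        ⟨by linarith, by linarith, by linarith, by linarith, by linarith⟩
        ⟨le_rfl, a4, le_rfl, a2, le_rfl, a6, by linarith⟩
      exact ⟨m.1, by rw [m.2]; ring⟩)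

/-- **RM, slot `D` frozen** -/
theorem linRM (hN : NProf B I J co monL C R ν) (hcoc : ∀ n, Coc (co n)) (hs0 : 0 ≤ s)
    (hs1 : s ≤ 1) (hf : f j0 = ν) (HB : BsF B I J co C R ν s X h)
    (L : LinTan (Leg monL R) f j0 X h rz rX rH rF gC gP gE gB)
    (h10 : ∀ n, X n 10 = X n 7 + X n 3) :
    (0 < gB → gC ≤ gP) ∧ (1 - gC < gB → 1 ≤ gP) := by
  obtain ⟨k', D, lam, W, E, b, w⟩ := exists_wd hN hcoc hs0 hs1 hf HB L
  exact w.rm (rateC_nonneg hN hf L) h10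

end Crest.Agent.R116.Kg330
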