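import Crest.Agent.R116.Kg6_330
import Crest.Agent.R116.Kg5_330

/-!
# R116, K side (helper330): facts at the bases of the ties

* `LinFactsR` = 665's `LinFacts` and RM (slot `D` frozen); `linFactsR`.
* `tan_uniq` : uniqueness of tangents; `BsF.of_lin`, `BsM.of_lin`, `BsMC.of_lin` : the own rate read
  from the linear tangent itself.
* `bsF_shift`, `bsM_shift` : the bases `X (ψ m) + H (ψ m) • c0` of 794's `fct8`, `fct9`.
-/

set_option autoImplicit false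
set_option linter.unusedVariables false
set_option linter.unusedSectionVars false

open Filter Topology Finset

namespace Crest.Agent.R116.Kg330

open Crest.Agent.R138.Ex926 (Base U IsTan)
open Crest.Agent.R136.Net191 Crest.Agent.R136.Qg926 Crest.Agent.R136.Gf356
open Crest.Agent.R116.ChL222 Crest.Agent.R116.PL504 Crest.Agent.R116.EvL504
open Crest.Agent.R116.WinG954 Crest.Agent.R116.SgF665 Crest.Agent.R116.Sg337

/-- the facts of LEMMA SIG and RM -/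
structure LinFactsR {J : Type*} (P : Set (Fin 12 → ℝ)) (f : J → (Fin 12 → ℝ) → ℝ) (j0 : J)
    (Bs : (ℕ → Fin 12 → ℝ) → (ℕ → ℝ) → Prop) (s : ℝ) : Prop extends LinFacts P f j0 Bs s where
  RM : ∀ X h rz rX rH rF gC gP gE gB, Bs X h → LinTan P f j0 X h rz rX rH rF gC gP gE gB →
    (∀ n, X n 10 = X n 7 + X n 3) → (∀ n, X n 10 = X n 8 + X n 4) → 0 < gB → gC ≤ gP

variable {B : Base} {I J : ℕ → Finset (ℕ × ℝ)}
    {co : ∀ n : ℕ, ℕ × ℝ → ℕ × ℝ → Fin 12 → ℝ} {C R : ℝ} {ν : (Fin 12 → ℝ) → ℝ} {s : ℝ}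
    {X : ℕ → Fin 12 → ℝ} {h : ℕ → ℝ} {Jt : Type*} {f : Jt → (Fin 12 → ℝ) → ℝ} {j0 : Jt}
    {rz rX rH rF gC gP gE gB gD : ℝ}

theorem linFactsR (hN : NProf B I J co monL C R ν) (hcoc : ∀ n, Coc (co n)) (hs0 : 0 ≤ s)
    (hs1 : s ≤ 1) (hf : f j0 = ν) {Bs : (ℕ → Fin 12 → ℝ) → (ℕ → ℝ) → Prop}
    (hBs : ∀ X h, Bs X h → BsF B I J co C R ν s X h) :
    LinFactsR (Leg monL R) f j0 Bs s where
  toLinFacts := linFacts hN hcoc hs0 hs1 hf hBs
  RM := fun X h rz rX rH rF gC gP gE gB b L h10 _ =>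
    (linRM hN hcoc hs0 hs1 hf (hBs X h b) L h10).1

/-- **uniqueness of tangents** -/
theorem tan_uniq {P D D' : Set (Fin 12 → ℝ)} {g lam : (Fin 12 → ℝ) → ℝ} (hpos : ∀ l, 0 < h l)
    (ht : IsTan P D ν X h g) (ht' : IsTan P D' ν X h lam) {c : Fin 12 → ℝ} (hc : c ∈ D)
    (hc' : c ∈ D') : g c = lam c := by
  have key : ∀ ε : ℝ, 0 < ε → |g c - lam c| ≤ ε := by
    intro ε hε
    obtain ⟨l, ⟨-, h1⟩, ⟨-, h2⟩⟩ := ((ht.ev hc (ε := ε / 2) (by positivity)).and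
      (ht'.ev hc' (ε := ε / 2) (by positivity))).exists
    have hl := hpos l
    have e : h l * |g c - lam c| ≤ h l * ε := by
      rw [← abs_of_pos hl, ← abs_mul, abs_of_pos hl, mul_sub, abs_le]
      rw [abs_le] at h1 h2
      constructor <;> nlinarith
    exact le_of_mul_le_mul_left e hl
  have h0 : |g c - lam c| ≤ 0 := le_of_forall_pos_le_add fun ε hε => by
    rw [zero_add]; exact key ε hε
  have := abs_nonpos_iff.1 h0
  linarith

/-- **the own rate read from the linear tangent**, slot `D` frozen -/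
theorem BsF.of_lin (hf : f j0 = ν) (L : LinTan (Leg monL R) f j0 X h rz rX rH rF gC gP gE gB)
    (hrz : 1 - s ≤ rz) (e4 : ∀ᶠ l in atTop, X l 4 = X l 3) (e6 : ∀ᶠ l in atTop, X l 6 = X l 5)
    (e8 : ∀ᶠ l in atTop, X l 8 = X l 7) (hth : ThinB B I J co C ν X h) :
    BsF B I J co C R ν s X h where
  e4 := e4
  e6 := e6
  e8 := e8
  thin := hth
  own := by
    intro D g hD ht y hy
    obtain ⟨D', lam, hD', htan, hlin⟩ := L.ex
    have ht' : IsTan (Leg monL R) D' ν X h (lam j0) := hf ▸ htan j0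
    have hm : bx9 y 0 0 0 0 0 0 0 0 ∈ LM0 := bx9_mem.2 ⟨by linarith, by linarith, by linarith,
      by linarith, by linarith, by linarith, by linarith⟩
    rw [tan_uniq L.hpos ht ht' (hD hm) (hD' hm), hlin _ _ _ _ _ _ _ _ hm]
    have := mul_le_mul_of_nonneg_right hrz hy.le
    linarith

theorem bxz_LM {y : ℝ} (hy : 0 ≤ y) : bx9 y 0 0 0 0 0 0 0 0 ∈ LM :=
  leg_LM y (bx9_leg.2 ⟨⟨hy, le_rfl, le_rfl, le_rfl, le_rfl, le_rfl, le_rfl, le_rfl, le_rfl⟩,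
    ⟨by linarith, by linarith, by linarith, by linarith, by linarith, by linarith, by linarith,
      by linarith, by linarith, by linarith⟩,
    ⟨le_rfl, hy, hy, hy, hy, hy, hy, hy, hy⟩⟩)

theorem own_of_linM (hf : f j0 = ν)
    (L : LinTanM (Leg monL R) f j0 X h rz rX rH rF gC gP gE gB gD) (hrz : 1 - s ≤ rz)
    (D : Set (Fin 12 → ℝ)) (g : (Fin 12 → ℝ) → ℝ) (hD : LM ⊆ D)
    (ht : IsTan (Leg monL R) D ν X h g) (y : ℝ) (hy : 0 < y) :
    (1 - s) * y ≤ -(g (bx9 y 0 0 0 0 0 0 0 0)) := by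
  obtain ⟨D', lam, hD', htan, hlin⟩ := L.ex
  have ht' : IsTan (Leg monL R) D' ν X h (lam j0) := hf ▸ htan j0
  have hm := bxz_LM hy.le
  rw [tan_uniq L.hpos ht ht' (hD hm) (hD' hm), hlin _ _ _ _ _ _ _ _ _ hm]
  have := mul_le_mul_of_nonneg_right hrz hy.le
  linarith

/-- **the own rate read from the linear tangent**, slot `D` live -/
theorem BsM.of_lin (hf : f j0 = ν)
    (L : LinTanM (Leg monL R) f j0 X h rz rX rH rF gC gP gE gB gD)
    (hrz : 1 - s ≤ rz) (e4 : ∀ᶠ l in atTop, X l 4 = X l 3) (e6 : ∀ᶠ l in atTop, X l 6 = X l 5)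
    (e8 : ∀ᶠ l in atTop, X l 8 = X l 7) (hth : ThinM B I J co C ν X h) :
    BsM B I J co C R ν s X h :=
  ⟨e4, e6, e8, own_of_linM hf L hrz, hth⟩

theorem BsMC.of_lin (hf : f j0 = ν)
    (L : LinTanM (Leg monL R) f j0 X h rz rX rH rF gC gP gE gB gD)
    (hrz : 1 - s ≤ rz) (e4 : ∀ᶠ l in atTop, X l 4 = X l 3) (e6 : ∀ᶠ l in atTop, X l 6 = X l 5)
    (e8 : ∀ᶠ l in atTop, X l 8 = X l 7) (hth : ThinMC B I J co C ν X h) :
    BsMC B I J co C R ν s X h :=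
  ⟨e4, e6, e8, own_of_linM hf L hrz, hth⟩

/-- pairs of slots -/
def Pr2 (c : Fin 12 → ℝ) : Prop := c 4 = c 3 ∧ c 6 = c 5 ∧ c 8 = c 7

theorem pr2_bx9 (z D E C X B N P F : ℝ) : Pr2 (bx9 z D E C X B N P F) := ⟨rfl, rfl, rfl⟩

theorem Pr2.shift {c d : Fin 12 → ℝ} (hc : Pr2 c) (hd : Pr2 d) (t : ℝ) : Pr2 (c + t • d) := by
  refine ⟨?_, ?_, ?_⟩
  · simp only [Pi.add_apply, Pi.smul_apply, hc.1, hd.1]
  · simp only [Pi.add_apply, Pi.smul_apply, hc.2.1, hd.2.1]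
  · simp only [Pi.add_apply, Pi.smul_apply, hc.2.2, hd.2.2]

/-- the shifted bases converge to the same point -/
theorem shift_lim {X : ℕ → Fin 12 → ℝ} {H : ℕ → ℝ} {x0 : Fin 12 → ℝ}
    (hX : Tendsto X atTop (𝓝 x0)) (hH : Tendsto H atTop (𝓝 0)) {ψ : ℕ → ℕ} (hψ : StrictMono ψ)
    (c0 : Fin 12 → ℝ) : Tendsto (fun m => X (ψ m) + H (ψ m) • c0) atTop (𝓝 x0) := by
  have h1 := hX.comp hψ.tendsto_atTop
  have h2 := (hH.comp hψ.tendsto_atTop).smul_const c0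
  have h3 := h1.add h2
  rwa [zero_smul, add_zero] at h3

/-- **the bases of 794's `fct8`** (slot `D` frozen), from the dead direction near `x0` -/
theorem bsF_shift {x0 : Fin 12 → ℝ} {X : ℕ → Fin 12 → ℝ} {H : ℕ → ℝ}
    (hth : ∀ (Y : ℕ → Fin 12 → ℝ) (k : ℕ → ℝ), Tendsto Y atTop (𝓝 x0) →
      (∀ l, Y l 4 = Y l 3) → (∀ l, Y l 6 = Y l 5) → (∀ l, Y l 8 = Y l 7) →
      ThinB B I J co C ν Y k)
    (hf : f j0 = ν) (hX : Tendsto X atTop (𝓝 x0)) (hH : Tendsto H atTop (𝓝 0))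
    (hp : ∀ l, Pr2 (X l)) {c0 : Fin 12 → ℝ} (hc : Pr2 c0) {ψ : ℕ → ℕ} (hψ : StrictMono ψ)
    {h1 : ℕ → ℝ} (L : LinTan (Leg monL R) f j0 (fun m => X (ψ m) + H (ψ m) • c0)
      (fun m => H (ψ m) * h1 m) rz rX rH rF gC gP gE gB) (hrz : 1 - s ≤ rz) :
    BsF B I J co C R ν s (fun m => X (ψ m) + H (ψ m) • c0) (fun m => H (ψ m) * h1 m) := by
  have hs : ∀ m, Pr2 (X (ψ m) + H (ψ m) • c0) := fun m => (hp (ψ m)).shift hc _
  exact BsF.of_lin hf L hrz (Eventually.of_forall fun l => (hs l).1)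
    (Eventually.of_forall fun l => (hs l).2.1) (Eventually.of_forall fun l => (hs l).2.2)
    (hth _ _ (shift_lim hX hH hψ c0) (fun l => (hs l).1) (fun l => (hs l).2.1)
      (fun l => (hs l).2.2))

/-- **the bases of 794's `fct9`** (slot `D` live) -/
theorem bsM_shift {x0 : Fin 12 → ℝ} {X : ℕ → Fin 12 → ℝ} {H : ℕ → ℝ}
    (hth : ∀ (Y : ℕ → Fin 12 → ℝ) (k : ℕ → ℝ), Tendsto Y atTop (𝓝 x0) →
      (∀ l, Y l 4 = Y l 3) → (∀ l, Y l 6 = Y l 5) → (∀ l, Y l 8 = Y l 7) →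
      ThinM B I J co C ν Y k)
    (hf : f j0 = ν) (hX : Tendsto X atTop (𝓝 x0)) (hH : Tendsto H atTop (𝓝 0))
    (hp : ∀ l, Pr2 (X l)) {c0 : Fin 12 → ℝ} (hc : Pr2 c0) {ψ : ℕ → ℕ} (hψ : StrictMono ψ)
    {h1 : ℕ → ℝ} (L : LinTanM (Leg monL R) f j0 (fun m => X (ψ m) + H (ψ m) • c0)
      (fun m => H (ψ m) * h1 m) rz rX rH rF gC gP gE gB gD) (hrz : 1 - s ≤ rz) :
    BsM B I J co C R ν s (fun m => X (ψ m) + H (ψ m) • c0) (fun m => H (ψ m) * h1 m) := by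
  have hs : ∀ m, Pr2 (X (ψ m) + H (ψ m) • c0) := fun m => (hp (ψ m)).shift hc _
  exact BsM.of_lin hf L hrz (Eventually.of_forall fun l => (hs l).1)
    (Eventually.of_forall fun l => (hs l).2.1) (Eventually.of_forall fun l => (hs l).2.2)
    (hth _ _ (shift_lim hX hH hψ c0) (fun l => (hs l).1) (fun l => (hs l).2.1)
      (fun l => (hs l).2.2))

/-- the same with 388's `ThinC` -/
theorem bsMC_shift {x0 : Fin 12 → ℝ} {X : ℕ → Fin 12 → ℝ} {H : ℕ → ℝ}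
    (hth : ∀ (Y : ℕ → Fin 12 → ℝ) (k : ℕ → ℝ), Tendsto Y atTop (𝓝 x0) →
      (∀ l, Y l 4 = Y l 3) → (∀ l, Y l 6 = Y l 5) → (∀ l, Y l 8 = Y l 7) →
      ThinMC B I J co C ν Y k)
    (hf : f j0 = ν) (hX : Tendsto X atTop (𝓝 x0)) (hH : Tendsto H atTop (𝓝 0))
    (hp : ∀ l, Pr2 (X l)) {c0 : Fin 12 → ℝ} (hc : Pr2 c0) {ψ : ℕ → ℕ} (hψ : StrictMono ψ)
    {h1 : ℕ → ℝ} (L : LinTanM (Leg monL R) f j0 (fun m => X (ψ m) + H (ψ m) • c0)
      (fun m => H (ψ m) * h1 m) rz rX rH rF gC gP gE gB gD) (hrz : 1 - s ≤ rz) :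
    BsMC B I J co C R ν s (fun m => X (ψ m) + H (ψ m) • c0) (fun m => H (ψ m) * h1 m) := by
  have hs : ∀ m, Pr2 (X (ψ m) + H (ψ m) • c0) := fun m => (hp (ψ m)).shift hc _
  exact BsMC.of_lin hf L hrz (Eventually.of_forall fun l => (hs l).1)
    (Eventually.of_forall fun l => (hs l).2.1) (Eventually.of_forall fun l => (hs l).2.2)
    (hth _ _ (shift_lim hX hH hψ c0) (fun l => (hs l).1) (fun l => (hs l).2.1)
      (fun l => (hs l).2.2))

end Crest.Agent.R116.Kg330
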