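import Crest.Agent.R116.Tq3_794
import Crest.Agent.R116.Kg7_330
import Crest.Agent.R116.Rcx6_363
import Crest.Agent.R116.RowUb_388

/-!
# R116 (K side, TIES), Tq5 (helper794): the facts at a natural plane, over the context

* **`fct8_ctx`** : `CtxT` + plane data of a natural offset, `D` raised, `⊢ Fct9 Sk s Λ`
* **`fct9_ctx`** : the same, `D` live
The dead direction (710's `Kt1`) is the binder `hth`, in 388's / 330's form.
-/

set_option autoImplicit false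
set_option linter.unusedSectionVars false
set_option linter.unusedVariables false

open Set Filter Topology

namespace Crest.Agent.R116.Tq794

open Crest.Agent.R138
open Crest.Agent.R138.Ex926 (Base U IsTan)
open Crest.Agent.R136
open Crest.Agent.R136.MkA627
open Crest.Agent.R136.TD627
open Crest.Agent.R136.Net191
open Crest.Agent.R136.Lq196
open Crest.Agent.R136.Qg926 Crest.Agent.R136.Gf356 Crest.Agent.R116.EvL504
open Crest.Agent.R116.ChL222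
open Crest.Agent.R116.PL504 (nb rL DN eL βL oL Shift eL_wall)
open Crest.Agent.R116.Sg337 (bx9)
open Crest.Agent.R116.Gd222 (TSet sN PDL DT)
open Crest.Agent.R116.KI439
open Crest.Agent.R116.KF439 (PL)
open Crest.Agent.R116.CtxB468
open Crest.Agent.R116.Rcx363 (fo fo_lip Prf)
open Crest.Agent.R116.RbM219
open Crest.Agent.R116.RbK219 (RS)
open Crest.Agent.R116.SgF665 (wl wl_add wl_smul LM0 mem_LM0 bx9_mem LinTan LinFacts)
open Crest.Agent.R116.Kg330 (LinTanM ThinB ThinM BsF BsM LinFactsR linFactsR bsF_shift bsM_shift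
  Pr2 pr2_bx9)
open Crest.Agent.R116.WinG954 (LM)
open Crest.Agent.R116.Tq741

theorem wl_eL (z c p : ℝ) (k : Fin 12) {e : Fin 12 → ℕ} (he : e ∈ monL.mon k) :
    wl e (eL z c p) = eL z c p k := eL_wall z c p k he

theorem mon_one {k : Fin 12} {e : Fin 12 → ℕ} (he : e ∈ monL.mon k) : k ≠ 1 := by
  rintro rfl
  change e ∈ mfL 1 at he
  simp [mfL] at he

theorem wl_single (e : Fin 12 → ℕ) (t : ℝ) :
    wl e (t • (Pi.single 1 1 : Fin 12 → ℝ)) = t * e 1 := by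
  rw [wl_smul]
  congr 1
  unfold wl
  rw [Finset.sum_eq_single (1 : Fin 12)]
  · rw [Pi.single_eq_same, mul_one]
  · intro s _ hs
    rw [Pi.single_eq_of_ne hs, mul_zero]
  · intro h
    exact absurd (Finset.mem_univ _) h

theorem pr2_nat (z c p t : ℝ) : Pr2 (eL z c p + t • (Pi.single 1 1 : Fin 12 → ℝ)) :=
  ⟨by simp [eL], by simp [eL], by simp [eL]⟩

theorem pr2_nat' (z c p : ℝ) : Pr2 (eL z c p) := ⟨rfl, rfl, rfl⟩

theorem e9_nonneg8 : 0 ≤ E8 (e9 0) := by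
  intro i; fin_cases i <;> simp [E8, bx9, e9]

theorem e9_nonneg9 : 0 ≤ E9 (e9 0) := by
  intro i; fin_cases i <;> simp [E9, bx9, e9]

section ctx

variable {G : Geo TSet (Fin 2)} {L : ℕ → ℕ → LRay} {r : ℕ → ℝ} {c s : ℝ} {θ q : Fin 2 → ℝ}
    {Rg : ℝ} {B : Base} {I : ℕ → Finset (ℕ × ℝ)} {lev : ℕ → ℚ → ℕ} {A : ℕ → ℝ}
    {f : ℕ → ℚ → ℕ → ℤ → ℕ} {b : ℕ → ℚ → ℕ → TSet} {vm : ℕ → ℚ → ℝ} {w : Fin 2 → ℕ → ℚ → ℝ}
    {fr : ℕ → ℚ → ℕ × ℝ → LInc} {fl : ℕ → ℕ × ℝ → LInc} {sc : Fin 12 → ℕ → ℝ}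
    {w0 sa sb δ R : ℝ} {I0 I' : ℕ → Finset (ℕ × ℝ)} {ν own : (Fin 12 → ℝ) → ℝ} {c₀ : ℝ}
    {x0 : Fin 12 → ℝ} {X : ℕ → Fin 12 → ℝ} {H : ℕ → ℝ} {lam2 : Fin 2 → (Fin 12 → ℝ) → ℝ}
    {zz cc pp dd : ℕ → ℝ} {Vis' : Fin 12 → Prop} {a b' : Fin 2} {Sk : V9 → Prop}

/-- **the facts at a natural plane, `D` raised** -/
theorem fct8_ctx
    (C : CtxT G L r c s θ q Rg B I lev A f b vm w fr fl sc w0 sa sb δ R I0 I' ν own c₀)
    (hs0 : 0 ≤ s) (hs1 : s ≤ 1)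
    (hth : ∀ (Y : ℕ → Fin 12 → ℝ) (k : ℕ → ℝ), Tendsto Y atTop (𝓝 x0) →
      (∀ l, Y l 4 = Y l 3) → (∀ l, Y l 6 = Y l 5) → (∀ l, Y l 8 = Y l 7) →
      ThinB B I0 I' (PL504.coN B lev w w0 sa sb fl) 2 ν Y k)
    (hpos : ∀ l, 0 < H l) (h0 : Tendsto H atTop (𝓝 0)) (hX : Tendsto X atTop (𝓝 x0))
    (ht : ∀ j, IsTan (Leg monL R) LM0 (fo ν own j) X H (lam2 j))
    (hXn : ∀ l, X l = eL (zz l) (cc l) (pp l) + dd l • (Pi.single 1 1 : Fin 12 → ℝ))
    (hdd : ∀ K : ℝ, ∀ᶠ l in atTop, K * H l ≤ dd l)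
    (Hp : Prf LM0 s a b' Vis' (βL (θ 0) (θ 1)) (lam2 0))
    (hSk : ∀ w, LegM 0 w → Sk w → ∀ k, Vis' k → E8 w k ≤ w 0 * βL (θ 0) (θ 1) k) :
    Fct9 Sk s (fun w => lam2 0 (E8 w)) := by
  have hN := RowU388.nprof_T C
  have hcoc : ∀ n, Coc (PL504.coN B lev w w0 sa sb fl n) :=
    fun n => Sd369.coc_N B lev w w0 sa sb fl n
  have hp : ∀ l, Pr2 (X l) := fun l => by rw [hXn l]; exact pr2_nat _ _ _ _
  have hx : ∀ l k, ∀ e ∈ monL.mon k, e 1 = 0 → X l k = wl e (X l) := by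
    intro l k e he h1
    rw [hXn l, wl_add, wl_eL _ _ _ k he, wl_single, h1]
    simp only [Pi.add_apply, Pi.smul_apply, smul_eq_mul, Pi.single_eq_of_ne (mon_one he)]
    simp
  have hxD : ∀ k, ∀ e ∈ monL.mon k, e 1 ≠ 0 → ∀ K : ℝ, ∀ᶠ n in atTop,
      X n k + K * H n ≤ wl e (X n) := by
    intro k e he h1 K
    filter_upwards [hdd K, hdd 0] with l hl hl0
    rw [hXn l, wl_add, wl_eL _ _ _ k he, wl_single]
    simp only [Pi.add_apply, Pi.smul_apply, smul_eq_mul, Pi.single_eq_of_ne (mon_one he)]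
    have h2 : (1:ℝ) ≤ e 1 := by exact_mod_cast Nat.one_le_iff_ne_zero.2 h1
    nlinarith
  have hlip : ∃ K : ℝ, 0 ≤ K ∧ ∀ j, ∀ p ∈ LM0, ∀ q ∈ LM0,
      |lam2 j p - lam2 j q| ≤ K * ‖p - q‖ := by
    refine ⟨12, by norm_num, fun j p hp' q hq' => ?_⟩
    have := SgO219.tan_lip hpos (ht j) (K := 12) (fo_lip C j) p hp' q hq'
    rwa [dist_eq_norm] at this
  have F := linFactsR (f := fo ν own) (j0 := (0 : Fin 2)) hN hcoc hs0 hs1 rfl
    (Bs := fun X h => BsF B I0 I' (PL504.coN B lev w w0 sa sb fl) 2 R ν s X h) fun _ _ h => h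
  have F1 := linFactsR (f := fo ν own) (j0 := (0 : Fin 2)) hN hcoc zero_le_one le_rfl rfl
    (Bs := fun X h => BsF B I0 I' (PL504.coN B lev w w0 sa sb fl) 2 R ν 1 X h) fun _ _ h => h
  refine fct8 (Pr := fun _ _ => True) hpos h0 ht hlip hx hxD F.toLinFacts F1.toLinFacts F1.RM
    (fun w R' hw hS hL => ?_) (fun w R' hw hL => ?_) (fun _ => Eventually.of_forall fun _ => trivial)
    (fun w R' ψ h1 hw hS hψ _ hp1 h01 hr hT => ?_) (fun w R' ψ h1 hw hψ _ hp1 h01 hr hT => ?_)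
  · exact own_R (s := s) (M := LM0) (fun d hd => E8_mem hd) E8_add hw hL fun t ht' =>
      own_prf Hp (fun d hd => E8_mem hd) E8_add (fun _ => rfl) e9_nonneg8 hw
        (hSk w hw hS) ht'
  · refine own_R (s := s) (M := LM0) (fun d hd => E8_mem hd) E8_add hw hL fun t ht' => ?_
    have hl : LegM 0 (e9 0) := by
      constructor <;> simp [e9]
    have h2 := (Hp.anti (E8 w) (E8_mem hw) (E8 (w + t • e9 0))
      (E8_mem (hw.add_smul hl ht'.le)) (by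
        rw [E8_add]
        intro i
        simp only [Pi.add_apply, Pi.smul_apply, smul_eq_mul]
        have := e9_nonneg8 i
        simp only [Pi.zero_apply] at this
        nlinarith)).1
    linarith
  · exact bsF_shift hth rfl hX h0 hp (pr2_bx9 _ _ _ _ _ _ _ _ _) hψ hT hr
  · exact bsF_shift hth rfl hX h0 hp (pr2_bx9 _ _ _ _ _ _ _ _ _) hψ hT (by linarith)

/-- **the facts at a natural plane, `D` live** -/
theorem fct9_ctx
    (C : CtxT G L r c s θ q Rg B I lev A f b vm w fr fl sc w0 sa sb δ R I0 I' ν own c₀)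
    (hs0 : 0 ≤ s) (hs1 : s ≤ 1)
    (hth : ∀ (Y : ℕ → Fin 12 → ℝ) (k : ℕ → ℝ), Tendsto Y atTop (𝓝 x0) →
      (∀ l, Y l 4 = Y l 3) → (∀ l, Y l 6 = Y l 5) → (∀ l, Y l 8 = Y l 7) →
      ThinM B I0 I' (PL504.coN B lev w w0 sa sb fl) 2 ν Y k)
    (hpos : ∀ l, 0 < H l) (h0 : Tendsto H atTop (𝓝 0)) (hX : Tendsto X atTop (𝓝 x0))
    (ht : ∀ j, IsTan (Leg monL R) LM (fo ν own j) X H (lam2 j))
    (hXn : ∀ l, X l = eL (zz l) (cc l) (pp l))
    (Hp : Prf LM s a b' Vis' (βL (θ 0) (θ 1)) (lam2 0))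
    (hSk : ∀ w, LegM 0 w → Sk w → ∀ k, Vis' k → E9 w k ≤ w 0 * βL (θ 0) (θ 1) k) :
    Fct9 Sk s (fun w => lam2 0 (E9 w)) := by
  have hN := RowU388.nprof_T C
  have hcoc : ∀ n, Coc (PL504.coN B lev w w0 sa sb fl n) :=
    fun n => Sd369.coc_N B lev w w0 sa sb fl n
  have hp : ∀ l, Pr2 (X l) := fun l => by rw [hXn l]; exact pr2_nat' _ _ _
  have hx : ∀ l k, ∀ e ∈ monL.mon k, e 1 = 0 → X l k = wl e (X l) := by
    intro l k e he h1
    rw [hXn l, wl_eL _ _ _ k he]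
  have hlip : ∃ K : ℝ, 0 ≤ K ∧ ∀ j, ∀ p ∈ LM, ∀ q ∈ LM,
      |lam2 j p - lam2 j q| ≤ K * ‖p - q‖ := by
    refine ⟨12, by norm_num, fun j p hp' q hq' => ?_⟩
    have := SgO219.tan_lip hpos (ht j) (K := 12) (fo_lip C j) p hp' q hq'
    rwa [dist_eq_norm] at this
  have F : FactsM (Leg monL R) (fo ν own) (0 : Fin 2)
      (fun X h => BsM B I0 I' (PL504.coN B lev w w0 sa sb fl) 2 R ν s X h) s :=
    factsM_of hN hcoc hs0 hs1 rfl fun _ _ h => h
  have F1 : FactsM (Leg monL R) (fo ν own) (0 : Fin 2)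
      (fun X h => BsM B I0 I' (PL504.coN B lev w w0 sa sb fl) 2 R ν 1 X h) 1 :=
    factsM_of hN hcoc zero_le_one le_rfl rfl fun _ _ h => h
  refine fct9 (Pr := fun _ _ => True) hpos h0 ht hlip hx F F1
    (fun w R' hw hS hL => ?_) (fun w R' hw hL => ?_) (fun _ => Eventually.of_forall fun _ => trivial)
    (fun w R' ψ h1 hw hS hψ _ hp1 h01 hr hT => ?_) (fun w R' ψ h1 hw hψ _ hp1 h01 hr hT => ?_)
  · exact own_R (s := s) (M := LM) (fun d hd => E9_mem hd) E9_add hw hL fun t ht' =>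
      own_prf Hp (fun d hd => E9_mem hd) E9_add (fun _ => rfl) e9_nonneg9 hw
        (hSk w hw hS) ht'
  · refine own_R (s := s) (M := LM) (fun d hd => E9_mem hd) E9_add hw hL fun t ht' => ?_
    have hl : LegM 0 (e9 0) := by
      constructor <;> simp [e9]
    have h2 := (Hp.anti (E9 w) (E9_mem hw) (E9 (w + t • e9 0))
      (E9_mem (hw.add_smul hl ht'.le)) (by
        rw [E9_add]
        intro i
        simp only [Pi.add_apply, Pi.smul_apply, smul_eq_mul]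
        have := e9_nonneg9 i
        simp only [Pi.zero_apply] at this
        nlinarith)).1
    linarith
  · exact bsM_shift hth rfl hX h0 hp (pr2_bx9 _ _ _ _ _ _ _ _ _) hψ hT hr
  · exact bsM_shift hth rfl hX h0 hp (pr2_bx9 _ _ _ _ _ _ _ _ _) hψ hT (by linarith)

end ctx

end Crest.Agent.R116.Tq794
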