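import Crest.Agent.R116.Pd1_363
import Crest.Agent.R116.Tq5_794

/-!
# R116 (K side, TIES), plane data 2 (helper363): natural offsets

* `L8B_nat`, `L9B_nat` : the cone of a natural plane is `LM0` (`D` frozen), `LM` (`D` live);
* `Pd8.nat`, `Pd9.nat` : the window bases are natural boxes (`+` a large raise of `D`);
* **`Pd8.fct`, `Pd9.fct`** : the static facts (794's `fct8_ctx`, `fct9_ctx`) on plane data.
-/

set_option autoImplicit false
set_option linter.unusedVariables false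

open Set Filter Topology MeasureTheory

namespace Crest.Agent.R116.Pd363

open Crest.Agent.R138.Ex926 (Base U IsTan)
open Crest.Agent.R136
open Crest.Agent.R136.MkA627
open Crest.Agent.R136.TD627
open Crest.Agent.R136.Net191
open Crest.Agent.R116.ChL222
open Crest.Agent.R116.PL504 (eL βL rL eL_wall)
open Crest.Agent.R116.Sg337 (coneL DL natB eL_bx9)
open Crest.Agent.R116.Gd222 (TSet sN)
open Crest.Agent.R116.KI439
open Crest.Agent.R116.CtxB468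
open Crest.Agent.R116.RbM219
open Crest.Agent.R116.RbK219 (SOk RS Par dl)
open Crest.Agent.R116.SgO219 (PP)
open Crest.Agent.R116.Kz647
open Crest.Agent.R116.Rcx363
open Crest.Agent.R116.SgF665 (wl LM0)
open Crest.Agent.R116.WinG954 (LM)
open Crest.Agent.R116.Kg330 (ThinB ThinM)
open Crest.Agent.R116.Tq741
open Crest.Agent.R116.Tq794 (E8 E9 wl_eL mon_one fct8_ctx fct9_ctx)
open Dg219 (mw)
open Sl741 (slice xt rs)

theorem wl_upd (e : Fin 12 → ℕ) (x : Fin 12 → ℝ) (y : ℝ) :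
    wl e (Function.update x 1 y) = wl e x + (e 1 : ℝ) * (y - x 1) := by
  unfold wl
  have h : ∀ s : Fin 12, (e s : ℝ) * Function.update x 1 y s =
      (e s : ℝ) * x s + (if s = 1 then (e 1 : ℝ) * (y - x 1) else 0) := by
    intro s
    by_cases hs : s = 1
    · subst hs
      rw [Function.update_self, if_pos rfl]; ring
    · rw [Function.update_of_ne hs, if_neg hs, add_zero]
  rw [Finset.sum_congr rfl fun s _ => h s, Finset.sum_add_distrib,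
    Finset.sum_ite_eq' Finset.univ (1 : Fin 12), if_pos (Finset.mem_univ _)]

theorem nat8_smul (y v c p : ℝ) : y • nat8 v c p = nat8 (y * v) (y * c) (y * p) := by
  funext i
  fin_cases i <;> simp [nat8] <;> ring

theorem nat9_smul (y v c p : ℝ) : y • nat9 v c p = nat9 (y * v) (y * c) (y * p) := by
  funext i
  fin_cases i <;> simp [nat9] <;> ring

/-- **cone of a natural plane, `D` frozen** -/
theorem L8B_nat {θa θb t : ℝ} (ht : t ≠ 0) (v c p sg : ℝ) :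
    L8B θa θb t (nat8 v c p) sg = LM0 := by
  have hA : ∀ (k : Fin 12) (e : Fin 12 → ℕ) (he : e ∈ monL.mon k),
      (mw monL).Act (y8 t) (xt kp 0 (RL8.vec (sg • nat8 v c p))) (r8 θa θb) ⟨k, e, he⟩ ↔
        e 1 = 0 := by
    intro k e he
    have hk1 : k ≠ 1 := mon_one he
    have r1 : ∀ x : Fin 12 → ℝ, (mw monL).rhs ⟨k, e, he⟩ x = wl e x := fun x => rfl
    have y1 : wl e (y8 t) = (e 1 : ℝ) * t := by
      unfold y8
      rw [wl_upd]
      have : wl e 0 = 0 := by unfold wl; simp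
      rw [this]
      simp
    constructor
    · rintro ⟨h1, -, -⟩
      rw [r1, y1] at h1
      have h2 : y8 t ((mw monL).hd ⟨k, e, he⟩) = 0 := y8_at hk1
      rw [h2] at h1
      have h3 : (mw monL).cst ⟨k, e, he⟩ = 0 := rfl
      rw [h3, add_zero] at h1
      have h4 := (mul_eq_zero.1 h1.symm).resolve_right ht
      exact_mod_cast h4
    · intro h1
      refine ⟨?_, ?_, ?_⟩
      · rw [r1, y1, h1]
        have h2 : y8 t ((mw monL).hd ⟨k, e, he⟩) = 0 := y8_at hk1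
        have h3 : (mw monL).cst ⟨k, e, he⟩ = 0 := rfl
        rw [h2, h3]; simp
      · rw [r1, nat8_smul]
        have e1 : xt kp 0 (RL8.vec (nat8 (sg * v) (sg * c) (sg * p))) =
            Function.update (eL (sg * v) (sg * c) (sg * p)) 1 0 := b8_nat _ _ _
        rw [e1, wl_upd, h1, wl_eL _ _ _ k he]
        show Function.update (eL (sg * v) (sg * c) (sg * p)) 1 0 k = _
        rw [Function.update_of_ne hk1]; simp
      · rw [r1]
        unfold r8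
        rw [wl_upd, h1, wl_eL _ _ _ k he]
        show Function.update (eL 1 (-θa) (-θb)) 1 0 k = _
        rw [Function.update_of_ne hk1]; simp
  ext d
  constructor
  · intro h k e he h1
    exact h ⟨k, e, he⟩ ((hA k e he).2 h1)
  · rintro h ⟨k, e, he⟩ hw
    exact h k e he ((hA k e he).1 hw)

/-- **cone of a natural plane, `D` live** -/
theorem L9B_nat {θa θb : ℝ} (v c p sg : ℝ) : L9B θa θb (nat9 v c p) sg = LM := by
  ext d
  constructor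
  · intro h k e he
    refine h ⟨k, e, he⟩ ⟨?_, ?_, ?_⟩
    · have r1 : (mw monL).rhs ⟨k, e, he⟩ (0 : Fin 12 → ℝ) = 0 := by unfold Dg219.Walls.rhs; simp
      have h3 : (mw monL).cst ⟨k, e, he⟩ = 0 := rfl
      rw [r1, h3]; simp
    · rw [nat9_smul, RL9_nat]
      exact (wl_eL _ _ _ k he).symm
    · exact (wl_eL _ _ _ k he).symm
  · rintro h ⟨k, e, he⟩ hw
    exact h k e he

theorem nat8_cl8 (v c p : ℝ) {k : Fin 12} (hk : k ≠ 1) : nat8 v c p (cl8 k) = eL v c p k := by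
  fin_cases k <;> first | exact absurd rfl hk | rfl

theorem nat9_cl9 (v c p : ℝ) (k : Fin 12) : nat9 v c p (cl9 k) = eL v c p k := by
  fin_cases k <;> rfl

theorem eL_add' (v c p v' c' p' : ℝ) (k : Fin 12) :
    eL v c p k + eL v' c' p' k = eL (v + v') (c + c') (p + p') k := by
  fin_cases k <;> simp [eL] <;> ring

section eight

variable {R s : ℝ} {a b : Fin 2} {Vis' : Fin 12 → Prop} {θa θb w0 sa sb v0 t κ : ℝ}
    {f : Fin 2 → (Fin 12 → ℝ) → ℝ}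
    {X : ℕ → Fin 12 → ℝ} {h' H : ℕ → ℝ} {lam lam2 : Fin 2 → (Fin 12 → ℝ) → ℝ}
    {sg l α v c p : ℝ} {ρ ρ2 : Fin 8 → ℝ}

/-- tangents on `LM0` -/
theorem Pd8.tan0
    (P : Pd8 R s a b Vis' θa θb w0 sa sb v0 t κ (nat8 v c p) sg f lam ρ l α h' X H lam2 ρ2)
    (ht : 0 < t) : ∀ j, IsTan (Leg monL R) LM0 (f j) X H (lam2 j) := by
  have h := P.tan
  rw [L8B_nat ht.ne'] at h
  exact h

theorem Pd8.prf0
    (P : Pd8 R s a b Vis' θa θb w0 sa sb v0 t κ (nat8 v c p) sg f lam ρ l α h' X H lam2 ρ2)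
    (ht : 0 < t) : Prf LM0 s a b Vis' (βL θa θb) (lam2 0) := by
  have h := P.prf
  rw [L8B_nat ht.ne'] at h
  exact h

/-- **the window bases of a natural plane, `D` raised** -/
theorem Pd8.nat
    (P : Pd8 R s a b Vis' θa θb w0 sa sb v0 t κ (nat8 v c p) sg f lam ρ l α h' X H lam2 ρ2)
    (ht : 0 < t) :
    ∃ zz cc pp dd : ℕ → ℝ,
      (∀ l, X l = eL (zz l) (cc l) (pp l) + dd l • (Pi.single 1 1 : Fin 12 → ℝ)) ∧
      ∀ K : ℝ, ∀ᶠ l in atTop, K * H l ≤ dd l := by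
  obtain ⟨V, E, -, -, -, hb⟩ := P.base
  set zz : ℕ → ℝ := fun m => w0 + (v0 + V m) + E m * v with hzz
  set cc : ℕ → ℝ := fun m => (θa * (1 - (v0 + V m)) + sa) + E m * c with hcc
  set pp : ℕ → ℝ := fun m => (θb * (1 - (v0 + V m)) + sb) + E m * p with hpp
  have hx : ∀ m k, k ≠ 1 → X m k = eL (zz m) (cc m) (pp m) k := by
    intro m k hk
    rw [hb m k hk, nat8_cl8 v c p hk]
    have e1 : E m * eL v c p k = eL (E m * v) (E m * c) (E m * p) k := by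
      rw [PL504.eL_smul]; rfl
    rw [e1]
    show eL (w0 + (v0 + V m)) (θa * (1 - (v0 + V m)) + sa) (θb * (1 - (v0 + V m)) + sb) k + _ = _
    rw [eL_add']
  have hXe : ∀ m, X m = eL (zz m) (cc m) (pp m) +
      (X m 1 - eL (zz m) (cc m) (pp m) 1) • (Pi.single 1 1 : Fin 12 → ℝ) := by
    intro m
    funext k
    rw [Pi.add_apply, Pi.smul_apply, smul_eq_mul]
    by_cases hk : k = 1
    · subst hk; rw [Pi.single_eq_same]; ring
    · rw [Pi.single_eq_of_ne hk, mul_zero, add_zero, hx m k hk]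
  refine ⟨zz, cc, pp, fun m => X m 1 - eL (zz m) (cc m) (pp m) 1, hXe, fun K => ?_⟩
  have hp : (-K) • (Pi.single 1 1 : Fin 12 → ℝ) ∈ LM0 := by
    intro k e he h1
    have hk1 : k ≠ 1 := mon_one he
    rw [Pi.smul_apply, Pi.single_eq_of_ne hk1, smul_zero, Tq794.wl_single, h1]
    simp
  filter_upwards [SgO219.tan_ev (P.tan0 ht 0) hp] with m hm
  have he : (![1, 1, 0, 0, 0, 0, 0, 0, 0, 0, 0, 0] : Fin 12 → ℕ) ∈ monL.mon 2 := by
    show _ ∈ mfL 2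
    simp [mfL]
  have h2 := hm.1.wall 2 _ he
  have h3 : ∑ s, ((![1, 1, 0, 0, 0, 0, 0, 0, 0, 0, 0, 0] : Fin 12 → ℕ) s : ℝ) *
      (X m + H m • (-K) • (Pi.single 1 1 : Fin 12 → ℝ)) s =
      X m 0 + (X m 1 - K * H m) := by
    simp [Fin.sum_univ_succ]
    ring
  rw [h3] at h2
  have h4 : (X m + H m • (-K) • (Pi.single 1 1 : Fin 12 → ℝ)) 2 = X m 2 := by
    simp
  rw [h4, hx m 2 (by decide), hx m 0 (by decide)] at h2
  have h5 : eL (zz m) (cc m) (pp m) 2 = eL (zz m) (cc m) (pp m) 0 + eL (zz m) (cc m) (pp m) 1 := by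
    simp [eL]
  linarith

end eight

section nine

variable {R s : ℝ} {a b : Fin 2} {Vis' : Fin 12 → Prop} {θa θb w0 sa sb v0 κ : ℝ}
    {f : Fin 2 → (Fin 12 → ℝ) → ℝ}
    {X : ℕ → Fin 12 → ℝ} {h' H : ℕ → ℝ} {lam lam2 : Fin 2 → (Fin 12 → ℝ) → ℝ}
    {sg l α v c p : ℝ} {ρ ρ2 : Fin 9 → ℝ}

theorem Pd9.tan0
    (P : Pd9 R s a b Vis' θa θb w0 sa sb v0 κ (nat9 v c p) sg f lam ρ l α h' X H lam2 ρ2) :
    ∀ j, IsTan (Leg monL R) LM (f j) X H (lam2 j) := by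
  have h := P.tan
  rw [L9B_nat] at h
  exact h

theorem Pd9.prf0
    (P : Pd9 R s a b Vis' θa θb w0 sa sb v0 κ (nat9 v c p) sg f lam ρ l α h' X H lam2 ρ2) :
    Prf LM s a b Vis' (βL θa θb) (lam2 0) := by
  have h := P.prf
  rw [L9B_nat] at h
  exact h

/-- **the window bases of a natural plane, `D` live** -/
theorem Pd9.nat
    (P : Pd9 R s a b Vis' θa θb w0 sa sb v0 κ (nat9 v c p) sg f lam ρ l α h' X H lam2 ρ2) :
    ∃ zz cc pp : ℕ → ℝ, ∀ l, X l = eL (zz l) (cc l) (pp l) := by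
  obtain ⟨V, E, -, -, -, hb⟩ := P.base
  refine ⟨fun m => w0 + (v0 + V m) + E m * v, fun m => (θa * (1 - (v0 + V m)) + sa) + E m * c,
    fun m => (θb * (1 - (v0 + V m)) + sb) + E m * p, fun m => ?_⟩
  funext k
  rw [hb m k, nat9_cl9]
  have e1 : E m * eL v c p k = eL (E m * v) (E m * c) (E m * p) k := by
    rw [PL504.eL_smul]; rfl
  rw [e1]
  show eL (w0 + (v0 + V m)) (θa * (1 - (v0 + V m)) + sa) (θb * (1 - (v0 + V m)) + sb) k + _ = _
  rw [eL_add']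

end nine

section ctx

variable {G : Geo TSet (Fin 2)} {L : ℕ → ℕ → LRay} {r : ℕ → ℝ} {c s : ℝ} {θ q : Fin 2 → ℝ}
    {Rg : ℝ} {B : Base} {I : ℕ → Finset (ℕ × ℝ)} {lev : ℕ → ℚ → ℕ} {A : ℕ → ℝ}
    {f : ℕ → ℚ → ℕ → ℤ → ℕ} {b : ℕ → ℚ → ℕ → TSet} {vm : ℕ → ℚ → ℝ} {w : Fin 2 → ℕ → ℚ → ℝ}
    {fr : ℕ → ℚ → ℕ × ℝ → LInc} {fl : ℕ → ℕ × ℝ → LInc} {sc : Fin 12 → ℕ → ℝ}
    {w0 sa sb δ R : ℝ} {I0 I' : ℕ → Finset (ℕ × ℝ)} {ν own : (Fin 12 → ℝ) → ℝ} {c₀ : ℝ}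
    {a b' : Fin 2} {Vis' : Fin 12 → Prop} {v0 t κ : ℝ} {X : ℕ → Fin 12 → ℝ} {h' H : ℕ → ℝ}
    {lam lam2 : Fin 2 → (Fin 12 → ℝ) → ℝ} {sg l α v1 c1 p1 : ℝ} {Sk : V9 → Prop}

/-- **static facts at a natural plane, `D` frozen** -/
theorem Pd8.fct
    (C : CtxT G L r c s θ q Rg B I lev A f b vm w fr fl sc w0 sa sb δ R I0 I' ν own c₀)
    (hs0 : 0 ≤ s) (hs1 : s ≤ 1)
    (hth : ∀ (Y : ℕ → Fin 12 → ℝ) (k : ℕ → ℝ),
      Tendsto Y atTop (𝓝 (rL (θ 0) (θ 1) w0 sa sb v0)) →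
      (∀ l, Y l 4 = Y l 3) → (∀ l, Y l 6 = Y l 5) → (∀ l, Y l 8 = Y l 7) →
      ThinB B I0 I' (PL504.coN B lev w w0 sa sb fl) 2 ν Y k) {ρ ρ2 : Fin 8 → ℝ}
    (P : Pd8 R s a b' Vis' (θ 0) (θ 1) w0 sa sb v0 t κ (nat8 v1 c1 p1) sg (fo ν own) lam ρ l α h'
      X H lam2 ρ2) (ht : 0 < t)
    (hSk : ∀ w, LegM 0 w → Sk w → ∀ k, Vis' k → E8 w k ≤ w 0 * βL (θ 0) (θ 1) k) :
    Fct9 Sk s (fun w => lam2 0 (E8 w)) := by
  obtain ⟨zz, cc, pp, dd, hX, hd⟩ := P.nat ht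
  exact fct8_ctx C hs0 hs1 hth P.pos P.lim P.xlim (P.tan0 ht) hX hd (P.prf0 ht) hSk

/-- **static facts at a natural plane, `D` live** -/
theorem Pd9.fct
    (C : CtxT G L r c s θ q Rg B I lev A f b vm w fr fl sc w0 sa sb δ R I0 I' ν own c₀)
    (hs0 : 0 ≤ s) (hs1 : s ≤ 1)
    (hth : ∀ (Y : ℕ → Fin 12 → ℝ) (k : ℕ → ℝ),
      Tendsto Y atTop (𝓝 (rL (θ 0) (θ 1) w0 sa sb v0)) →
      (∀ l, Y l 4 = Y l 3) → (∀ l, Y l 6 = Y l 5) → (∀ l, Y l 8 = Y l 7) →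
      ThinM B I0 I' (PL504.coN B lev w w0 sa sb fl) 2 ν Y k) {ρ ρ2 : Fin 9 → ℝ}
    (P : Pd9 R s a b' Vis' (θ 0) (θ 1) w0 sa sb v0 κ (nat9 v1 c1 p1) sg (fo ν own) lam ρ l α h'
      X H lam2 ρ2)
    (hSk : ∀ w, LegM 0 w → Sk w → ∀ k, Vis' k → E9 w k ≤ w 0 * βL (θ 0) (θ 1) k) :
    Fct9 Sk s (fun w => lam2 0 (E9 w)) := by
  obtain ⟨zz, cc, pp, hX⟩ := P.nat
  exact fct9_ctx C hs0 hs1 hth P.pos P.lim P.xlim P.tan0 hX P.prf0 hSk

end ctx

end Crest.Agent.R116.Pd363
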