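import Crest.Agent.R116.Tp5_139

/-!
# R116 (K side, ties), the planes above the record: fields of `EF'` (helper139)

`PlU k c dl` : classes of a half plane of the `e`-type (`k = θ - θb`), the class of `z` is contained
in `{0, 6, 7, 8}`; numbers `rE, xE, hE` of `Tm1_741`.
* `FctU k Sg Λ` : (W3), (W2) for tangents which are linear off `{0, 6, 7, 8}`
* `mr_of`, `nx_of`, `knU`, `fnU`, `khU`, `fhU`, `posU`
* **`efU`** : `EF' s k (plS ..)`; **`fanBU`**, **`posU`**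
-/

set_option autoImplicit false
set_option linter.unusedVariables false
set_option linter.unusedSimpArgs false
set_option linter.unusedSectionVars false

open Set Filter Topology Metric MeasureTheory
open scoped NNReal

namespace Crest.Agent.R116.Tp139

open Crest.Agent.R116.Tq741
open Tie460

variable {c : Fin 9 → Fin 9} {dl : V9} {s : ℝ} {Λ : V9 → ℝ} {φ : Fin 9 → V9 → ℝ} {ρ : V9}
  {k k' k'' : ℝ} {Sk Sg : V9 → Prop}

/-- own-strip facts of `B`, the other flags are slack (`Sg`) or free -/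
structure FctU (k : ℝ) (Sg : V9 → Prop) (Λ : V9 → ℝ) : Prop where
  W3 : ∀ w R, One 5 w → w 6 = k * w 0 → Sg w → LinS {0, 6, 7, 8} Λ w R → R 1 ≤ R 2
  W2 : ∀ w R, One 8 w → w 6 = k * w 0 → Sg w → LinS {0, 6, 7, 8} Λ w R → R 3 ≤ R 4

/-- classes of a half plane of the `e`-type -/
structure PlU (k : ℝ) (c : Fin 9 → Fin 9) (dl : V9) : Prop where
  z : ∀ t, c t = c 0 → t = 0 ∨ t = 6 ∨ t = 7 ∨ t = 8
  a1 : Al c 1
  a4 : Al c 4
  a3 : k ≠ 1 → Al c 3
  a5 : k ≠ 1 / 2 → Al c 5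
  a2 : k ≠ 1 → k ≠ 1 / 2 → Al c 2
  c3 : k = 1 → c 3 = c 2 ∧ (∀ t, c t = c 2 → t = 2 ∨ t = 3) ∧ dl 3 = dl 2
  c5 : k = 1 / 2 → c 5 = c 2 ∧ (∀ t, c t = c 2 → t = 2 ∨ t = 5) ∧ dl 5 = 2 * dl 2
  z678 : ∀ t, c t = c 6 ∨ c t = c 7 ∨ c t = c 8 → t = 0 ∨ t = 6 ∨ t = 7 ∨ t = 8

/-- the flags are slack -/
def SgU (k' k'' : ℝ) (Sg : V9 → Prop) : Prop := ∀ w : V9, w 7 < k' * w 0 → w 8 < k'' * w 0 → Sg w

section

variable (H : Cl9 c dl s Λ φ ρ)
include H

/-- `LinS {0, 6, 7, 8}` from rates in the classes of the line slots -/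
theorem linU {w w' : V9} {R2 : V9}
    (hz : ∀ t, c t = c 0 → t = 0 ∨ t = 6 ∨ t = 7 ∨ t = 8)
    (ha : ∀ t, ¬ Al c t → c t ≠ c 0 → c t = c 2)
    (hR : RtAt (φ (c 2)) w R2) (hw : ∀ t, c t = c 2 → ¬ Al c t → w' t = w t) (h2 : c 2 ≠ c 0)
    (hl : LegM 0 w') :
    ∃ R, LinS {0, 6, 7, 8} Λ w' R ∧ (∀ t, Al c t → c t ≠ c 0 → R t = ρ t) ∧
      ∀ t, c t = c 2 → ¬ Al c t → R t = R2 t := by
  obtain ⟨R, h1, h3, h4⟩ := rts_adj H (Zc := fun k => k = c 0) (w := w) (w' := w')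
    (fun k hk hn => by
      by_cases hk2 : k = c 2
      · exact ⟨R2, by rw [hk2]; exact hR⟩
      · refine ⟨0, rt_emp H (fun t ht => hk2 ?_) w⟩
        rw [← ht]
        exact ha t (hn t ht) (by rw [ht]; exact hk))
    (fun i hi hni => hw i (ha i hni hi) hni)
  refine ⟨R, ?_, h3, fun t ht hnt => h4 (c 2) R2 h2 hR t ht hnt⟩
  have h5 := H.linZ (Z := Finset.univ.filter fun t => c t = c 0) (kz := c 0)
    (fun t => by simp) hl h1
  refine LinS.mono (fun t ht => ?_) h5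
  rw [Finset.mem_filter] at ht
  have := hz t ht.2
  simp only [Finset.mem_insert, Finset.mem_singleton]
  exact this

end

theorem Al.ne0 {t : Fin 9} (ht : Al c t) (h : t ≠ 0) : c t ≠ c 0 :=
  fun h' => h (ht 0 h'.symm).symm

/-- all slots of the line are alone or in the class of `C_b` -/
theorem PlU.two (P : PlU k c dl) (t : Fin 9) (ht : ¬ Al c t) (h0 : c t ≠ c 0)
    (h8 : c 8 = c 0 ∨ Al c 8) (h7 : c 7 = c 0 ∨ Al c 7) (h6 : c 6 = c 0 ∨ Al c 6) :
    c t = c 2 := by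
  fin_cases t
  · exact absurd rfl h0
  · exact absurd P.a1 ht
  · rfl
  · by_cases hk : k = 1
    · exact (P.c3 hk).1
    · exact absurd (P.a3 hk) ht
  · exact absurd P.a4 ht
  · by_cases hk : k = 1 / 2
    · exact (P.c5 hk).1
    · exact absurd (P.a5 hk) ht
  · rcases h6 with h | h
    · exact absurd h h0
    · exact absurd h ht
  · rcases h7 with h | h
    · exact absurd h h0
    · exact absurd h ht
  · rcases h8 with h | h
    · exact absurd h h0
    · exact absurd h ht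

/-- bounds of a point near a path of one slot -/
theorem nearp {w wb : V9} {t : Fin 9} {x η : ℝ} (h : ‖w - (wb + x • e9 t)‖ < η) (i : Fin 9) :
    (i ≠ t → wb i - η < w i ∧ w i < wb i + η) ∧
      (i = t → wb i + x - η < w i ∧ w i < wb i + x + η) := by
  have h1 := near h i
  constructor
  · intro hi
    rwa [add_e9_ne hi] at h1
  · intro hi
    subst hi
    rwa [add_e9_same] at h1

/-! ### (W3), (W2) for lonely slots -/

noncomputable def tW3 : V9 := ![0, 10, 10, 5, -10, 12, 0, -1, -1 / 2]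
noncomputable def tW2 : V9 := ![0, 10, 5, 1, 1, 8, 0, -1, -1 / 2]

theorem one_tW3 : One 5 tW3 := by
  obtain ⟨t0, t1, t2, t3, t4, t5, t6, t7, t8⟩ := v9_val 0 10 10 5 (-10) 12 0 (-1) (-1 / 2)
  change tW3 0 = _ at t0; change tW3 1 = _ at t1; change tW3 2 = _ at t2; change tW3 3 = _ at t3
  change tW3 4 = _ at t4; change tW3 5 = _ at t5; change tW3 6 = _ at t6; change tW3 7 = _ at t7
  change tW3 8 = _ at t8
  refine one_iff (show tW3 1 + tW3 6 - tW3 2 = 0 by rw [t1, t6, t2]; norm_num) ?_ ?_ ?_ ?_ ?_ ?_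
    ?_ ?_ ?_ ?_ <;> intro hj <;> first
    | exact absurd rfl hj
    | (simp only [t0, t1, t2, t3, t4, t5, t6, t7, t8]; norm_num)

theorem one_tW2 : One 8 tW2 := by
  obtain ⟨t0, t1, t2, t3, t4, t5, t6, t7, t8⟩ := v9_val 0 10 5 1 1 8 0 (-1) (-1 / 2)
  change tW2 0 = _ at t0; change tW2 1 = _ at t1; change tW2 2 = _ at t2; change tW2 3 = _ at t3
  change tW2 4 = _ at t4; change tW2 5 = _ at t5; change tW2 6 = _ at t6; change tW2 7 = _ at t7
  change tW2 8 = _ at t8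
  refine one_iff (show tW2 3 + tW2 6 - tW2 4 = 0 by rw [t3, t6, t4]; norm_num) ?_ ?_ ?_ ?_ ?_ ?_
    ?_ ?_ ?_ ?_ <;> intro hj <;> first
    | exact absurd rfl hj
    | (simp only [t0, t1, t2, t3, t4, t5, t6, t7, t8]; norm_num)

section

variable (H : Cl9 c dl s Λ φ ρ) (P : PlU k c dl) (h8 : c 8 = c 0 ∨ Al c 8)
  (h7 : c 7 = c 0 ∨ Al c 7) (h6 : c 6 = c 0 ∨ Al c 6)
include H P h8 h7 h6

theorem mr_al (F : FctU k Sg Λ) (hG : SgU k' k'' Sg) (h2 : Al c 2) : ρ 1 ≤ ρ 2 := by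
  obtain ⟨t0, -, -, -, -, -, t6, t7, t8⟩ := v9_val 0 10 10 5 (-10) 12 0 (-1) (-1 / 2)
  change tW3 0 = _ at t0; change tW3 6 = _ at t6; change tW3 7 = _ at t7; change tW3 8 = _ at t8
  obtain ⟨R, hL, hR, -⟩ := linU H (w := tW3) (w' := tW3) P.z (fun t h h' => P.two t h h' h8 h7 h6)
    (H.rt_alone h2 tW3) (fun t _ _ => rfl) (h2.ne0 (by decide)) (One.leg one_tW3)
  have := F.W3 tW3 R one_tW3 (by rw [t6, t0]; ring) (hG _ (by rw [t7, t0]; norm_num)
    (by rw [t8, t0]; norm_num)) hL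
  rwa [hR 1 P.a1 (P.a1.ne0 (by decide)), hR 2 h2 (h2.ne0 (by decide))] at this

theorem nx_al (F : FctU k Sg Λ) (hG : SgU k' k'' Sg) (h2 : Al c 2) (h3 : Al c 3) :
    ρ 3 ≤ ρ 4 := by
  obtain ⟨t0, -, -, -, -, -, t6, t7, t8⟩ := v9_val 0 10 5 1 1 8 0 (-1) (-1 / 2)
  change tW2 0 = _ at t0; change tW2 6 = _ at t6; change tW2 7 = _ at t7; change tW2 8 = _ at t8
  obtain ⟨R, hL, hR, -⟩ := linU H (w := tW2) (w' := tW2) P.z (fun t h h' => P.two t h h' h8 h7 h6)
    (H.rt_alone h2 tW2) (fun t _ _ => rfl) (h2.ne0 (by decide)) (One.leg one_tW2)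
  have := F.W2 tW2 R one_tW2 (by rw [t6, t0]; ring) (hG _ (by rw [t7, t0]; norm_num)
    (by rw [t8, t0]; norm_num)) hL
  rwa [hR 3 h3 (h3.ne0 (by decide)), hR 4 P.a4 (P.a4.ne0 (by decide))] at this

end

/-! ### `k = 1/2` : `C_b ∥ H` -/

theorem PlU.n2 (P : PlU k c dl) (hk : k = 1 / 2) : ¬ Al c 2 := fun h =>
  absurd (h 5 (P.c5 hk).1) (by decide)

theorem PlU.n5 (P : PlU k c dl) (hk : k = 1 / 2) : ¬ Al c 5 := fun h =>
  absurd (h 2 (P.c5 hk).1.symm) (by decide)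

theorem PlU.c20 (P : PlU k c dl) : c 2 ≠ c 0 := fun h => by
  have := P.z 2 h
  revert this; decide


section half

variable (H : Cl9 c dl s Λ φ ρ) (P : PlU k c dl)
include H P

theorem rE_half (hk : k = 1 / 2) {wb : V9} (w2 : wb 2 = 0) (w5 : wb 5 = 0) :
    rE c φ = φ (c 2) wb - φ (c 2) (wb + (1:ℝ) • e9 2) := by
  obtain ⟨-, hc, -⟩ := P.c5 hk
  unfold rE
  rw [H.loc (c 2) (e9 3) wb fun t ht => by
      rcases hc t ht with rfl | rfl
      · rw [w2, e9_ne (by decide)]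
      · rw [w5, e9_ne (by decide)],
    H.loc (c 2) (e9 3 + (1:ℝ) • e9 2) (wb + (1:ℝ) • e9 2) fun t ht => by
      rcases hc t ht with rfl | rfl
      · rw [add_e9_same, add_e9_same, w2, e9_ne (by decide)]
      · rw [add_e9_ne (by decide), add_e9_ne (by decide), w5, e9_ne (by decide)]]

theorem hE_half (hk : k = 1 / 2) {wb : V9} (w2 : wb 2 = 1) (w5 : wb 5 = 0) :
    hE c φ = 1 - (φ (c 5) wb - φ (c 5) (wb + (2:ℝ) • e9 5)) / 2 := by
  obtain ⟨hc5, hc, -⟩ := P.c5 hk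
  unfold hE
  rw [H.loc (c 5) (e9 2) wb fun t ht => by
      rcases hc t (ht.trans hc5) with rfl | rfl
      · rw [w2, e9_same]
      · rw [w5, e9_ne (by decide)],
    H.loc (c 5) (e9 2 + (2:ℝ) • e9 5) (wb + (2:ℝ) • e9 5) fun t ht => by
      rcases hc t (ht.trans hc5) with rfl | rfl
      · rw [add_e9_ne (by decide), add_e9_ne (by decide), w2, e9_same]
      · rw [add_e9_same, add_e9_same, w5, e9_ne (by decide)]]

end half

section half2

variable (H : Cl9 c dl s Λ φ ρ) (P : PlU k c dl)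

/-- base of the `C_b`-path, `H` coarse, for (W3) -/
def wbW : V9 := ![0, 50, 0, 20, -100, 0, 0, 0, 50]

theorem leg_wbW : LegM 1 wbW ∧ LegM 1 (wbW + (1:ℝ) • e9 2) := by
  obtain ⟨t0, t1, t2, t3, t4, t5, t6, t7, t8⟩ := v9_val 0 50 0 20 (-100) 0 0 0 50
  change wbW 0 = _ at t0; change wbW 1 = _ at t1; change wbW 2 = _ at t2; change wbW 3 = _ at t3
  change wbW 4 = _ at t4; change wbW 5 = _ at t5; change wbW 6 = _ at t6; change wbW 7 = _ at t7
  change wbW 8 = _ at t8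
  have e : ∀ i : Fin 9, i ≠ 2 → (wbW + (1:ℝ) • e9 2) i = wbW i := fun i hi => add_e9_ne hi
  have e2 : (wbW + (1:ℝ) • e9 2) 2 = 1 := by rw [add_e9_same, t2]; norm_num
  have e0 := e 0 (by decide)
  have e1 := e 1 (by decide)
  have e3 := e 3 (by decide)
  have e4 := e 4 (by decide)
  have e5 := e 5 (by decide)
  have e6 := e 6 (by decide)
  have e7 := e 7 (by decide)
  have e8 := e 8 (by decide)
  constructor
  · constructor <;> simp only [t0, t1, t2, t3, t4, t5, t6, t7, t8] <;> norm_num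
  · constructor <;> simp only [e0, e1, e2, e3, e4, e5, e6, e7, e8, t0, t1, t2, t3, t4, t5, t6,
      t7, t8] <;> norm_num

theorem mr_half (H : Cl9 c dl s Λ φ ρ) (P : PlU k c dl) (h8 : c 8 = c 0 ∨ Al c 8)
    (h7 : c 7 = c 0 ∨ Al c 7) (h6 : c 6 = c 0 ∨ Al c 6) (hk : k = 1 / 2) (F : FctU k Sg Λ)
    (hG : ∀ w : V9, w 7 < k' * w 0 → Sg w) : ρ 1 ≤ rE c φ := by
  obtain ⟨-, -, t2, -, -, t5, -, -, -⟩ := v9_val 0 50 0 20 (-100) 0 0 0 50
  change wbW 2 = _ at t2; change wbW 5 = _ at t5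
  rw [rE_half H P hk t2 t5]
  have h1 := H.mv_ge' (t := 2) (w0 := wbW) (y := 1) (q := ρ 1) (m := 1) one_pos one_pos
    (Cl9.nonneg H P.a1) leg_wbW.1 leg_wbW.2 (N := Set.univ) (Eventually.of_forall fun _ => trivial)
    (fun δ hδ hδ1 x hx w _ hw _ R hR => ?_)
  · linarith
  · have b2 := (nearp hw 2).2 rfl
    have b5 := (nearp hw 5).1 (by decide)
    rw [t2] at b2
    rw [t5] at b5
    have hx1 := hx.1
    have hx2 := hx.2
    have p2 : 0 < w 2 := by linarith [b2.1]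
    obtain ⟨a0, a1, a2, a3, a4, a5, a6, a7, a8⟩ :=
      v9_val 0 (w 2) (w 2) (w 2 / 2) (-100) (w 5) 0 (-(w 2 / 2)) 50
    set w' : V9 := ![0, w 2, w 2, w 2 / 2, -100, w 5, 0, -(w 2 / 2), 50] with hw'
    have hO : One 5 w' := by
      refine one_iff (show w' 1 + w' 6 - w' 2 = 0 by rw [a1, a6, a2]; ring) ?_ ?_ ?_ ?_ ?_ ?_
        ?_ ?_ ?_ ?_ <;> intro hj <;> first
        | exact absurd rfl hj
        | (simp only [a0, a1, a2, a3, a4, a5, a6, a7, a8]; linarith [b2.1, b2.2, b5.1, b5.2])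
    obtain ⟨R', hL, hR1, hR2⟩ := linU H (w := w) (w' := w') P.z
      (fun t h h' => P.two t h h' h8 h7 h6) hR (fun t ht _ => by
        rcases (P.c5 hk).2.1 t ht with rfl | rfl
        · exact a2
        · exact a5) P.c20 (One.leg hO)
    have h2 := F.W3 w' R' hO (by rw [a6, a0]; ring) (hG w' (by rw [a7, a0]; linarith)) hL
    rwa [hR1 1 P.a1 (P.a1.ne0 (by decide)), hR2 2 rfl (P.n2 hk)] at h2

/-- base of the `C_b`-path, `H` coarse, for (K2), (F2) -/
noncomputable def wbK (M u : ℝ) : V9 :=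
  ![-M, 10 * M + 100, 0, 3 * M + 10, -M - 1, 0, -M, -((M + u) / 2), 10 * M + 100]

theorem leg_wbK {M u : ℝ} (hM : 10 ≤ M) (hu0 : 0 ≤ u) (hu : M - u = 10) :
    LegM (1 / 2) (wbK M u) ∧ LegM (1 / 2) (wbK M u + (1:ℝ) • e9 2) := by
  obtain ⟨t0, t1, t2, t3, t4, t5, t6, t7, t8⟩ :=
    v9_val (-M) (10 * M + 100) 0 (3 * M + 10) (-M - 1) 0 (-M) (-((M + u) / 2)) (10 * M + 100)
  change wbK M u 0 = _ at t0; change wbK M u 1 = _ at t1; change wbK M u 2 = _ at t2
  change wbK M u 3 = _ at t3; change wbK M u 4 = _ at t4; change wbK M u 5 = _ at t5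
  change wbK M u 6 = _ at t6; change wbK M u 7 = _ at t7; change wbK M u 8 = _ at t8
  have e : ∀ i : Fin 9, i ≠ 2 → (wbK M u + (1:ℝ) • e9 2) i = wbK M u i := fun i hi => add_e9_ne hi
  have e2 : (wbK M u + (1:ℝ) • e9 2) 2 = 1 := by rw [add_e9_same, t2]; norm_num
  have e0 := e 0 (by decide)
  have e1 := e 1 (by decide)
  have e3 := e 3 (by decide)
  have e4 := e 4 (by decide)
  have e5 := e 5 (by decide)
  have e6 := e 6 (by decide)
  have e7 := e 7 (by decide)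
  have e8 := e 8 (by decide)
  constructor
  · constructor <;> simp only [t0, t1, t2, t3, t4, t5, t6, t7, t8] <;> linarith
  · constructor <;> simp only [e0, e1, e2, e3, e4, e5, e6, e7, e8, t0, t1, t2, t3, t4, t5, t6,
      t7, t8] <;> linarith

/-- a position of (K2) with a large rate of `C_b` -/
theorem pt_K2h (H : Cl9 c dl s Λ φ ρ) (P : PlU k c dl) (hk : k = 1 / 2) (hk0 : 0 < k')
    (hk1 : k' < 1) (hS : ∀ w : V9, w 6 < 1 / 2 * w 0 → w 7 < k' * w 0 → Sk w) {q : ℝ}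
    (hq : q < rE c φ) :
    ∃ w R, One 7 w ∧ Sk w ∧ LinS ∅ Λ w R ∧ q < R 2 ∧ R 4 = ρ 4 := by
  obtain ⟨M, hM, hM1⟩ : ∃ M : ℝ, 10 ≤ M ∧ M - k' * M = 10 := by
    refine ⟨10 / (1 - k'), ?_, ?_⟩
    · rw [le_div_iff₀ (by linarith)]; linarith
    · have : 1 - k' ≠ 0 := by linarith
      field_simp
  set u := k' * M with hu
  have hu0 : 0 ≤ u := by positivity
  obtain ⟨t0, t1, t2, t3, t4, t5, t6, t7, t8⟩ :=
    v9_val (-M) (10 * M + 100) 0 (3 * M + 10) (-M - 1) 0 (-M) (-((M + u) / 2)) (10 * M + 100)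
  change wbK M u 0 = _ at t0; change wbK M u 1 = _ at t1; change wbK M u 2 = _ at t2
  change wbK M u 3 = _ at t3; change wbK M u 4 = _ at t4; change wbK M u 5 = _ at t5
  change wbK M u 6 = _ at t6; change wbK M u 7 = _ at t7; change wbK M u 8 = _ at t8
  rw [rE_half H P hk t2 t5] at hq
  obtain ⟨hl0, hl1⟩ := leg_wbK hM hu0 hM1
  obtain ⟨x, hx, w, hwN, hw, -, R, hR, hqR⟩ := H.pos_gt (t := 2) (w0 := wbK M u) (y := 1)
    (q := q) (η := 1 / 10) one_pos (by norm_num) (hl0.mono (by norm_num)) (hl1.mono (by norm_num))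
    (by rw [mul_one]; exact hq) H.nG
  have hg := gen_of hwN (hl0.seg hl1 hx.1.le hx.2.le) (by norm_num) hw
  have b0 := (nearp hw 0).1 (by decide)
  have b1 := (nearp hw 1).1 (by decide)
  have b2 := (nearp hw 2).2 rfl
  have b3 := (nearp hw 3).1 (by decide)
  have b5 := (nearp hw 5).1 (by decide)
  have b6 := (nearp hw 6).1 (by decide)
  have b7 := (nearp hw 7).1 (by decide)
  have b8 := (nearp hw 8).1 (by decide)
  rw [t0] at b0; rw [t1] at b1; rw [t2] at b2; rw [t3] at b3; rw [t5] at b5; rw [t6] at b6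
  rw [t7] at b7; rw [t8] at b8
  have hx1 := hx.1
  have hx2 := hx.2
  obtain ⟨R', h1, h2, h3⟩ := rts_adj H (w := w) (w' := Function.update w 4 (w 0 + w 2))
    (Zc := fun _ => False) (fun k _ _ => hg k) (fun i _ hi =>
      Function.update_of_ne (fun h => hi (by rw [h]; exact P.a4)) _ _)
  set w' := Function.update w 4 (w 0 + w 2) with hw'
  have u4 : w' 4 = w 0 + w 2 := Function.update_self _ _ _
  have u0 : w' 0 = w 0 := Function.update_of_ne (by decide) _ _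
  have u1 : w' 1 = w 1 := Function.update_of_ne (by decide) _ _
  have u2 : w' 2 = w 2 := Function.update_of_ne (by decide) _ _
  have u3 : w' 3 = w 3 := Function.update_of_ne (by decide) _ _
  have u5 : w' 5 = w 5 := Function.update_of_ne (by decide) _ _
  have u6 : w' 6 = w 6 := Function.update_of_ne (by decide) _ _
  have u7 : w' 7 = w 7 := Function.update_of_ne (by decide) _ _
  have u8 : w' 8 = w 8 := Function.update_of_ne (by decide) _ _
  have hO : One 7 w' := by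
    refine one_iff (show w' 0 + w' 2 - w' 4 = 0 by rw [u0, u2, u4]; ring) ?_ ?_ ?_ ?_ ?_ ?_
      ?_ ?_ ?_ ?_ <;> intro hj <;> first
      | exact absurd rfl hj
      | (simp only [u0, u1, u2, u3, u4, u5, u6, u7, u8]
         linarith [b0.1, b0.2, b1.1, b1.2, b2.1, b2.2, b3.1, b3.2, b5.1, b5.2, b6.1, b6.2, b7.1,
           b7.2, b8.1, b8.2])
  have hkw : -u - 1 / 10 ≤ k' * w 0 := by
    have h4 : 0 ≤ w 0 + M + 1 / 10 := by linarith [b0.1]
    have h5 := mul_nonneg hk0.le h4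
    have h6 : k' * (1 / 10) ≤ 1 / 10 := by linarith
    rw [hu]; nlinarith
  refine ⟨w', R', hO, hS w' (by rw [u6, u0]; linarith [b6.2, b0.1])
    (by rw [u7, u0]; linarith [b7.2]), H.lin0 (One.leg hO) h1, ?_, h2 4 P.a4 not_false⟩
  rw [h3 (c 2) R not_false hR 2 rfl (P.n2 hk)]
  exact hqR

/-- base of the `H`-path, `C_b` fine, for (H1) -/
def wbH : V9 := ![0, 30, 1, -20, -100, 0, 0, 0, 50]

theorem leg_wbH : LegM 1 wbH ∧ LegM 1 (wbH + (2:ℝ) • e9 5) := by
  obtain ⟨t0, t1, t2, t3, t4, t5, t6, t7, t8⟩ := v9_val 0 30 1 (-20) (-100) 0 0 0 50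
  change wbH 0 = _ at t0; change wbH 1 = _ at t1; change wbH 2 = _ at t2; change wbH 3 = _ at t3
  change wbH 4 = _ at t4; change wbH 5 = _ at t5; change wbH 6 = _ at t6; change wbH 7 = _ at t7
  change wbH 8 = _ at t8
  have e : ∀ i : Fin 9, i ≠ 5 → (wbH + (2:ℝ) • e9 5) i = wbH i := fun i hi => add_e9_ne hi
  have e5 : (wbH + (2:ℝ) • e9 5) 5 = 2 := by rw [add_e9_same, t5]; norm_num
  have e0 := e 0 (by decide)
  have e1 := e 1 (by decide)
  have e2 := e 2 (by decide)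
  have e3 := e 3 (by decide)
  have e4 := e 4 (by decide)
  have e6 := e 6 (by decide)
  have e7 := e 7 (by decide)
  have e8 := e 8 (by decide)
  constructor
  · constructor <;> simp only [t0, t1, t2, t3, t4, t5, t6, t7, t8] <;> norm_num
  · constructor <;> simp only [e0, e1, e2, e3, e4, e5, e6, e7, e8, t0, t1, t2, t3, t4, t5, t6,
      t7, t8] <;> norm_num

/-- a position of (H1) with a small rate of `H` -/
theorem pt_H1h (H : Cl9 c dl s Λ φ ρ) (P : PlU k c dl) (hk : k = 1 / 2) {q : ℝ}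
    (hq : 1 - hE c φ < q) :
    ∃ w R, One 4 w ∧ LinS ∅ Λ w R ∧ R 5 < q ∧ R 1 = ρ 1 ∧ R 3 = ρ 3 := by
  have hk1 : k ≠ 1 := by rw [hk]; norm_num
  obtain ⟨t0, t1, t2, t3, t4, t5, t6, t7, t8⟩ := v9_val 0 30 1 (-20) (-100) 0 0 0 50
  change wbH 0 = _ at t0; change wbH 1 = _ at t1; change wbH 2 = _ at t2; change wbH 3 = _ at t3
  change wbH 4 = _ at t4; change wbH 5 = _ at t5; change wbH 6 = _ at t6; change wbH 7 = _ at t7
  change wbH 8 = _ at t8
  rw [hE_half H P hk t2 t5] at hq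
  obtain ⟨x, hx, w, hwN, hw, -, R, hR, hqR⟩ := H.pos_lt (t := 5) (w0 := wbH) (y := 2)
    (q := q) (η := 1 / 10) two_pos (by norm_num) (leg_wbH.1.mono (by norm_num))
    (leg_wbH.2.mono (by norm_num)) (by linarith) H.nG
  have hg := gen_of hwN (leg_wbH.1.seg leg_wbH.2 hx.1.le hx.2.le) (by norm_num) hw
  have b0 := (nearp hw 0).1 (by decide)
  have b2 := (nearp hw 2).1 (by decide)
  have b3 := (nearp hw 3).1 (by decide)
  have b4 := (nearp hw 4).1 (by decide)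
  have b5 := (nearp hw 5).2 rfl
  have b6 := (nearp hw 6).1 (by decide)
  have b7 := (nearp hw 7).1 (by decide)
  have b8 := (nearp hw 8).1 (by decide)
  rw [t0] at b0; rw [t2] at b2; rw [t3] at b3; rw [t4] at b4; rw [t5] at b5; rw [t6] at b6
  rw [t7] at b7; rw [t8] at b8
  have hx1 := hx.1
  have hx2 := hx.2
  obtain ⟨R', h1, h2, h3⟩ := rts_adj H (w := w) (w' := Function.update w 1 (w 5 - w 3))
    (Zc := fun _ => False) (fun k _ _ => hg k) (fun i _ hi =>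
      Function.update_of_ne (fun h => hi (by rw [h]; exact P.a1)) _ _)
  set w' := Function.update w 1 (w 5 - w 3) with hw'
  have u1 : w' 1 = w 5 - w 3 := Function.update_self _ _ _
  have u0 : w' 0 = w 0 := Function.update_of_ne (by decide) _ _
  have u2 : w' 2 = w 2 := Function.update_of_ne (by decide) _ _
  have u3 : w' 3 = w 3 := Function.update_of_ne (by decide) _ _
  have u4 : w' 4 = w 4 := Function.update_of_ne (by decide) _ _
  have u5 : w' 5 = w 5 := Function.update_of_ne (by decide) _ _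
  have u6 : w' 6 = w 6 := Function.update_of_ne (by decide) _ _
  have u7 : w' 7 = w 7 := Function.update_of_ne (by decide) _ _
  have u8 : w' 8 = w 8 := Function.update_of_ne (by decide) _ _
  have hO : One 4 w' := by
    refine one_iff (show w' 1 + w' 3 - w' 5 = 0 by rw [u1, u3, u5]; ring) ?_ ?_ ?_ ?_ ?_ ?_
      ?_ ?_ ?_ ?_ <;> intro hj <;> first
      | exact absurd rfl hj
      | (simp only [u0, u1, u2, u3, u4, u5, u6, u7, u8]
         linarith [b0.1, b0.2, b2.1, b2.2, b3.1, b3.2, b4.1, b4.2, b5.1, b5.2, b6.1, b6.2, b7.1,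
           b7.2, b8.1, b8.2])
  refine ⟨w', R', hO, H.lin0 (One.leg hO) h1, ?_, h2 1 P.a1 not_false, h2 3 (P.a3 hk1) not_false⟩
  rw [h3 (c 5) R not_false hR 5 rfl (P.n5 hk)]
  exact hqR

end half2

end Crest.Agent.R116.Tp139
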