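import Crest.Agent.R116.Tp3_139

/-!
# R116 (K side, ties), the plane `oSe e` : `D` finer than at the record by `e` times the offset
(helper139)

Offset `![0,1,1,1,1,2,0,0,e]`, `0 < e`: admissible for every sign of `β_D = 2 θ - θb - 1`.
`C_b ∥ X` if `θ - θb = 1`, `C_b ∥ H` if `θ - θb = 1/2`; `D` is alone if
`e (1 + |θ| + |θb|) < |β_D|` or `β_D = 0`, except `θ = 1/2, θb = 0` (class `{C_b, H, D}`).
* `sok_oSe`, `leg_oSe`, `aln_oSe`, `kap_oSe`
* `TVe`, `tve`, `tve_1`, `tve_h`, `tve_d`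
* `aln_oSe`, `ant_ee`, `ant_de` : rate of `C_a` on `oSe` ≤ rate on `T⁻` (`k > 1`, `k' > 1`)
-/

set_option autoImplicit false
set_option linter.unusedVariables false
set_option linter.unusedSimpArgs false
set_option linter.unusedSectionVars false

open Set Filter Topology

namespace Crest.Agent.R116.Tp139

open Crest.Agent.R136
open Dg219 (Walls mw)
open Sl741 (slice xt rs)
open Dg262 (SupOn)
open RbK219 RbM219 Kz647
open ChL222 (monL)
open Tie460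
open Sg337 (DL)

/-- `S₁` or `T⁺` of an `e`-plane, flags frozen at the record, `D` finer by `e` times the offset -/
def oSe (e : ℝ) : Fin 9 → ℝ := ![0, 1, 1, 1, 1, 2, 0, 0, e]

section vals
variable (e : ℝ)
theorem u0 : oSe e 0 = 0 := rfl
theorem u1 : oSe e 1 = 1 := rfl
theorem u2 : oSe e 2 = 1 := rfl
theorem u3 : oSe e 3 = 1 := rfl
theorem u4 : oSe e 4 = 1 := rfl
theorem u5 : oSe e 5 = 2 := rfl
theorem u6 : oSe e 6 = 0 := rfl
theorem u7 : oSe e 7 = 0 := rfl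
theorem u8 : oSe e 8 = e := rfl
end vals

/-- evaluate all entries -/
macro "eve" : tactic => `(tactic| simp only [eD9, kU9, kD9, m0, m1, m2, m3, m4, m5, m6, m7, m8,
  u0, u1, u2, u3, u4, u5, u6, u7, u8] at *)

variable {θ θb k k' s c qa qb e : ℝ}

theorem sok_oSe (he : 0 < e) (hb : θb < θ) (hb2 : θb < 2 * θ) :
    SOk (nat9 1 (-θ) (-θb)) (oSe e) 1 where
  sg1 := Or.inl rfl
  nn := by refine all9 ?_ ?_ ?_ ?_ ?_ ?_ ?_ ?_ ?_ <;> eve <;> linarith
  zero := by refine all9 ?_ ?_ ?_ ?_ ?_ ?_ ?_ ?_ ?_ <;> intro h <;> eve <;> linarith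

theorem leg_oSe (he : 0 < e) : Leg9 (oSe e) := by constructor <;> eve <;> linarith

/-- `D` is not parallel to the line slots -/
def DAl (θ θb e : ℝ) : Prop :=
  (2 * θ - θb - 1 ≠ 0 → e * (1 + |θ| + |θb|) < |2 * θ - θb - 1|) ∧
    (2 * θ - θb - 1 = 0 → θ ≠ 1 / 2)

theorem DAl.ne (h : DAl θ θb e) (he : 0 < e) {a : ℝ} (ha : |a| ≤ 1 + |θ| + |θb|)
    (h0 : 2 * θ - θb - 1 = 0 → a ≠ 0) : 2 * θ - θb - 1 ≠ e * a := by
  intro h1
  by_cases h2 : 2 * θ - θb - 1 = 0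
  · rw [h2] at h1
    rcases mul_eq_zero.1 h1.symm with h3 | h3
    · linarith
    · exact h0 h2 h3
  · have h3 := h.1 h2
    rw [h1, abs_mul, abs_of_pos he] at h3
    have := mul_le_mul_of_nonneg_left ha he.le
    linarith

theorem exists_DAl (θ θb : ℝ) {e0 : ℝ} (he0 : 0 < e0) (h : 2 * θ - θb - 1 = 0 → θ ≠ 1 / 2) :
    ∃ e, 0 < e ∧ e < e0 ∧ DAl θ θb e := by
  have hM : 0 < 1 + |θ| + |θb| := by positivity
  by_cases h2 : 2 * θ - θb - 1 = 0
  · exact ⟨e0 / 2, by positivity, by linarith, fun h' => absurd h2 h', h⟩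
  · have h3 : 0 < |2 * θ - θb - 1| := abs_pos.2 h2
    refine ⟨min (e0 / 2) (|2 * θ - θb - 1| / (2 * (1 + |θ| + |θb|))),
      lt_min (by positivity) (by positivity), ?_, fun _ => ?_, h⟩
    · exact (min_le_left _ _).trans_lt (by linarith)
    · calc min (e0 / 2) (|2 * θ - θb - 1| / (2 * (1 + |θ| + |θb|))) * (1 + |θ| + |θb|)
          ≤ (|2 * θ - θb - 1| / (2 * (1 + |θ| + |θb|))) * (1 + |θ| + |θb|) :=
            mul_le_mul_of_nonneg_right (min_le_right _ _) hM.le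
        _ = |2 * θ - θb - 1| / 2 := by field_simp
        _ < _ := by linarith

section abs
variable (θ θb)
theorem ab1 : |-θ| ≤ 1 + |θ| + |θb| := by
  rw [abs_neg]; linarith [abs_nonneg θ, abs_nonneg θb]
theorem ab2 : |-θb| ≤ 1 + |θ| + |θb| := by
  rw [abs_neg]; linarith [abs_nonneg θ, abs_nonneg θb]
theorem ab3 : |1 - θ| ≤ 1 + |θ| + |θb| := by
  have := abs_sub (1:ℝ) θ
  rw [abs_one] at this; linarith [abs_nonneg θb]
theorem ab4 : |1 - θb| ≤ 1 + |θ| + |θb| := by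
  have := abs_sub (1:ℝ) θb
  rw [abs_one] at this; linarith [abs_nonneg θ]
theorem ab5 : |(1 - 2 * θ) / 2| ≤ 1 + |θ| + |θb| := by
  have := abs_sub (1:ℝ) (2 * θ)
  rw [abs_one, abs_mul, abs_two] at this
  rw [abs_div, abs_two]; linarith [abs_nonneg θ, abs_nonneg θb]
end abs

theorem mem7' {P : Fin 9 → Prop} (h0 : P 0) (h1 : P 1) (h2 : P 2) (h3 : P 3) (h4 : P 4)
    (h5 : P 5) (h8 : P 8) : ∀ t ∈ ({0, 1, 2, 3, 4, 5, 8} : Finset (Fin 9)), P t := by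
  intro t h
  simp only [Finset.mem_insert, Finset.mem_singleton] at h
  rcases h with rfl | rfl | rfl | rfl | rfl | rfl | rfl <;> assumption

theorem mem6d {P : Fin 9 → Prop} (h0 : P 0) (h1 : P 1) (h3 : P 3) (h4 : P 4)
    (h5 : P 5) (h8 : P 8) : ∀ t ∈ ({0, 1, 3, 4, 5, 8} : Finset (Fin 9)), P t := by
  intro t h
  simp only [Finset.mem_insert, Finset.mem_singleton] at h
  rcases h with rfl | rfl | rfl | rfl | rfl | rfl <;> assumption

/-- `D` against the line slots -/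
theorem d_ne (hd : DAl θ θb e) (he : 0 < e) (hθ : 0 < θ) (hb : θb < θ)
    (hθ2 : 2 * θ - θb - 1 = 0 → θb ≠ 0 ∨ θ = 1 / 2) :
    2 * θ - θb - 1 ≠ e * -θ ∧ 2 * θ - θb - 1 ≠ e * -θb ∧ 2 * θ - θb - 1 ≠ e * (1 - θ) ∧
      2 * θ - θb - 1 ≠ e * (1 - θb) ∧ 2 * θ - θb - 1 ≠ e * ((1 - 2 * θ) / 2) := by
  refine ⟨hd.ne he (ab1 _ _) fun h => ?_, hd.ne he (ab2 _ _) fun h => ?_,
    hd.ne he (ab3 _ _) fun h => ?_, hd.ne he (ab4 _ _) fun h => ?_,
    hd.ne he (ab5 _ _) fun h => ?_⟩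
  · linarith
  · intro h2
    rcases hθ2 h with h3 | h3
    · exact h3 (by linarith)
    · exact hd.2 h h3
  · intro h2; linarith
  · intro h2; linarith
  · intro h2; exact hd.2 h (by linarith)

theorem d_ne' (hd : DAl θ θb e) (he : 0 < e) (hθ : 0 < θ) (hb : θb < θ) :
    2 * θ - θb - 1 ≠ e * -θ ∧ 2 * θ - θb - 1 ≠ e * -θb ∧ 2 * θ - θb - 1 ≠ e * (1 - θ) ∧
      2 * θ - θb - 1 ≠ e * (1 - θb) ∧ 2 * θ - θb - 1 ≠ e * ((1 - 2 * θ) / 2) := by
  refine d_ne hd he hθ hb fun h => ?_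
  by_cases h2 : θb = 0
  · right; linarith
  · exact Or.inl h2

/-- `oSe`, `C_b` alone -/
theorem rep_oSe (he : 0 < e) (hθ : 0 < θ) (hb : θb < θ) (hb2 : θb < 2 * θ) (hd : DAl θ θb e)
    (h1 : θ - θb ≠ 1) (h2 : θ - θb ≠ 1 / 2) :
    ∀ t, ∃! t', t' ∈ ({0, 1, 2, 3, 4, 5, 8} : Finset (Fin 9)) ∧
      Par (nat9 1 (-θ) (-θb)) (oSe e) t t' := by
  obtain ⟨d1, d2, d3, d4, d5⟩ := d_ne' hd he hθ hb
  refine rep_of (sok_oSe he hb hb2) ![0, 1, 2, 3, 4, 5, 0, 0, 8] (by decide) ?_ ?_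
  · refine all9 rfl rfl rfl rfl rfl rfl ?_ ?_ rfl
    · change Par _ _ 6 0
      simp only [Par]; eve; ring
    · change Par _ _ 7 0
      simp only [Par]; eve; ring
  · refine mem7' ?_ ?_ ?_ ?_ ?_ ?_ ?_ <;> refine mem7' ?_ ?_ ?_ ?_ ?_ ?_ ?_ <;>
      intro hp <;> first
        | rfl
        | (exfalso; simp only [Par] at hp; eve; linarith)
        | (exfalso; simp only [Par] at hp; eve; exact h1 (by linarith))
        | (exfalso; simp only [Par] at hp; eve; exact h2 (by linarith))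
        | (exfalso; simp only [Par] at hp; eve; exact d1 (by linarith))
        | (exfalso; simp only [Par] at hp; eve; exact d2 (by linarith))
        | (exfalso; simp only [Par] at hp; eve; exact d3 (by linarith))
        | (exfalso; simp only [Par] at hp; eve; exact d4 (by linarith))
        | (exfalso; simp only [Par] at hp; eve; exact d5 (by linarith))

/-- `oSe`, `C_b ∥ X` -/
theorem rep_oSe1 (he : 0 < e) (hθ : 0 < θ) (hb2 : θb < 2 * θ) (hd : DAl θ θb e)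
    (hb : θ - θb = 1) :
    ∀ t, ∃! t', t' ∈ ({0, 1, 3, 4, 5, 8} : Finset (Fin 9)) ∧
      Par (nat9 1 (-θ) (-θb)) (oSe e) t t' := by
  obtain ⟨d1, d2, d3, d4, d5⟩ := d_ne' hd he hθ (by linarith)
  refine rep_of (sok_oSe he (by linarith) hb2) ![0, 1, 3, 3, 4, 5, 0, 0, 8] (by decide) ?_ ?_
  · refine all9 rfl rfl ?_ rfl rfl rfl ?_ ?_ rfl
    · change Par _ _ 2 3
      simp only [Par]; eve; linarith
    · change Par _ _ 6 0
      simp only [Par]; eve; ring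
    · change Par _ _ 7 0
      simp only [Par]; eve; ring
  · refine mem6d ?_ ?_ ?_ ?_ ?_ ?_ <;> refine mem6d ?_ ?_ ?_ ?_ ?_ ?_ <;>
      intro hp <;> first
        | rfl
        | (exfalso; simp only [Par] at hp; eve; linarith)
        | (exfalso; simp only [Par] at hp; eve; exact d1 (by linarith))
        | (exfalso; simp only [Par] at hp; eve; exact d2 (by linarith))
        | (exfalso; simp only [Par] at hp; eve; exact d3 (by linarith))
        | (exfalso; simp only [Par] at hp; eve; exact d4 (by linarith))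
        | (exfalso; simp only [Par] at hp; eve; exact d5 (by linarith))

/-- `oSe`, `C_b ∥ H` -/
theorem rep_oSeh (he : 0 < e) (hθ : 0 < θ) (hb2 : θb < 2 * θ) (hd : DAl θ θb e)
    (hb : θ - θb = 1 / 2) :
    ∀ t, ∃! t', t' ∈ ({0, 1, 3, 4, 5, 8} : Finset (Fin 9)) ∧
      Par (nat9 1 (-θ) (-θb)) (oSe e) t t' := by
  obtain ⟨d1, d2, d3, d4, d5⟩ := d_ne' hd he hθ (by linarith)
  refine rep_of (sok_oSe he (by linarith) hb2) ![0, 1, 5, 3, 4, 5, 0, 0, 8] (by decide) ?_ ?_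
  · refine all9 rfl rfl ?_ rfl rfl rfl ?_ ?_ rfl
    · change Par _ _ 2 5
      simp only [Par]; eve; linarith
    · change Par _ _ 6 0
      simp only [Par]; eve; ring
    · change Par _ _ 7 0
      simp only [Par]; eve; ring
  · refine mem6d ?_ ?_ ?_ ?_ ?_ ?_ <;> refine mem6d ?_ ?_ ?_ ?_ ?_ ?_ <;>
      intro hp <;> first
        | rfl
        | (exfalso; simp only [Par] at hp; eve; linarith)
        | (exfalso; simp only [Par] at hp; eve; exact d1 (by linarith))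
        | (exfalso; simp only [Par] at hp; eve; exact d2 (by linarith))
        | (exfalso; simp only [Par] at hp; eve; exact d3 (by linarith))
        | (exfalso; simp only [Par] at hp; eve; exact d4 (by linarith))
        | (exfalso; simp only [Par] at hp; eve; exact d5 (by linarith))

/-- `oSe`, `θ = 1/2`, `θb = 0` : class `{C_b, H, D}` -/
theorem rep_oSed (he : 0 < e) (hθ : θ = 1 / 2) (hb : θb = 0) :
    ∀ t, ∃! t', t' ∈ ({0, 1, 3, 4, 5} : Finset (Fin 9)) ∧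
      Par (nat9 1 (-θ) (-θb)) (oSe e) t t' := by
  subst hθ hb
  refine rep_of (sok_oSe he (by norm_num) (by norm_num)) ![0, 1, 5, 3, 4, 5, 0, 0, 5] (by decide)
    ?_ ?_
  · refine all9 rfl rfl ?_ rfl rfl rfl ?_ ?_ ?_
    · change Par _ _ 2 5
      simp only [Par]; eve; norm_num
    · change Par _ _ 6 0
      simp only [Par]; eve; ring
    · change Par _ _ 7 0
      simp only [Par]; eve; ring
    · change Par _ _ 8 5
      simp only [Par]; eve; norm_num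
  · refine mem5' ?_ ?_ ?_ ?_ ?_ <;> refine mem5' ?_ ?_ ?_ ?_ ?_ <;>
      intro hp <;> first
        | rfl
        | (exfalso; simp only [Par] at hp; eve; linarith)

theorem aln_oSe (he : 0 < e) (hθ : 0 < θ) (hb : θb < θ) (hb2 : θb < 2 * θ) (hd : DAl θ θb e) :
    Aln (nat9 1 (-θ) (-θb)) (oSe e) 1 := by
  obtain ⟨d1, -⟩ := d_ne' hd he hθ hb
  refine all9 ?_ ?_ ?_ ?_ ?_ ?_ ?_ ?_ ?_ <;> intro ht h <;>
    first | exact ht rfl | (exfalso; eve; nlinarith) | (exfalso; eve; exact d1 (by linarith))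

section cmpe

variable {lam : (Fin 12 → ℝ) → ℝ} {M : Set (Fin 12 → ℝ)}
  {c₁ c₂ : ℝ} {ρ₁ ρ₂ : Fin 9 → ℝ}
  (hs : SupOn lam M) (he : 0 < e) (hθ : 0 < θ) (hd : DAl θ θb e) (hc₁ : 0 < c₁) (hc₂ : 0 < c₂)
include hs he hθ hd hc₁ hc₂

/-- `e`-tie, `k > 1` : rate of `C_a` on `oSe` ≤ rate on `T⁻` -/
theorem ant_ee (hk : 1 < k) (hb : θb = θ - k)
    (hM₁ : (srf9 θ θb (eD9 k) (-1)).LW (mw monL) c₁ ⊆ M)
    (hM₂ : (srf9 θ θb (oSe e) 1).LW (mw monL) c₂ ⊆ M)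
    (r₁ : Rates9 θ θb (eD9 k) (-1) c₁ lam ρ₁) (r₂ : Rates9 θ θb (oSe e) 1 c₂ lam ρ₂) :
    ρ₂ 1 ≤ ρ₁ 1 := by
  have hk1 : 0 < k - 1 := by linarith
  have h1 := mul_pos hθ hk1
  have h2 := mul_pos hk1 hk1
  have h3 := mul_pos hθ hθ
  have h4 := mul_pos h1 he
  refine cl9' hs hθ (sok_eD9 hθ hk hb) (sok_oSe he (by linarith) (by linarith))
    (aln_eD9 hθ hk hb) (aln_oSe he hθ (by linarith) (by linarith) hd) hc₁ hc₂ hM₁ hM₂ r₁ r₂
    (-(2 * (k - 1))) 0 θ (θ * (k - 1)) hθ h1 ?_ ?_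
  · subst hb
    refine all9 ?_ ?_ ?_ ?_ ?_ ?_ ?_ ?_ ?_ <;> eve <;> nlinarith
  · eve; ring

/-- double tie, `k' > 1` : rate of `C_a` on `oSe` ≤ rate on `T⁻` (`κ`-plane) -/
theorem ant_de (hk : 1 < k) (hb : θb = 2 * θ - k) (hb1 : θb < θ)
    (hM₁ : (srf9 θ θb kD9 (-1)).LW (mw monL) c₁ ⊆ M)
    (hM₂ : (srf9 θ θb (oSe e) 1).LW (mw monL) c₂ ⊆ M)
    (r₁ : Rates9 θ θb kD9 (-1) c₁ lam ρ₁) (r₂ : Rates9 θ θb (oSe e) 1 c₂ lam ρ₂) :
    ρ₂ 1 ≤ ρ₁ 1 := by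
  have h1 := mul_pos hθ (by linarith : 0 < k)
  have h2 := mul_pos (by linarith : 0 < k) (by linarith : 0 < k)
  have h3 := mul_pos hθ hθ
  have h4 := mul_pos hθ (by linarith : 0 < k - 1)
  have h5 := mul_pos (by linarith : 0 < k) (by linarith : 0 < k - 1)
  have h6 := mul_pos h1 he
  refine cl9' hs hθ (sok_kD9 hk hb) (sok_oSe he hb1 (by linarith)) (aln_kD9 hθ hk hb)
    (aln_oSe he hθ hb1 (by linarith) hd) hc₁ hc₂ hM₁ hM₂ r₁ r₂ (-(2 * (θ + k))) 0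
    (θ * (2 * θ + k)) (θ * k) (by nlinarith) h1 ?_ ?_
  · subst hb
    refine all9 ?_ ?_ ?_ ?_ ?_ ?_ ?_ ?_ ?_ <;> eve <;> nlinarith
  · eve; ring

end cmpe

/-- D-max on `oSe` -/
theorem kap_oSe {lam : (Fin 12 → ℝ) → ℝ}
    (hanti : ∀ w w' : Fin 9 → ℝ, Leg9 w → Leg9 w' → w ≤ w' →
      lam (RL9.vec w') ≤ lam (RL9.vec w))
    (hD : ∀ v a b : ℝ, lam (RL9.vec (nat9 v a b)) ≤ DL c s qa qb v a b) {y : ℝ}
    (he : 0 < e) (hy : 0 ≤ y) : lam (RL9.vec (y • oSe e)) ≤ -(4 + qa + qb) * y := by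
  have h3 : 0 ≤ y * e := mul_nonneg hy he.le
  have h1 : Leg9 (y • oSe e) := by
    constructor <;> simp only [Pi.smul_apply, smul_eq_mul] <;> eve <;> nlinarith
  have h2 := hanti (nat9 0 y y) (y • oSe e) (leg9_nat _ _ _) h1 (by
    refine all9 ?_ ?_ ?_ ?_ ?_ ?_ ?_ ?_ ?_ <;> simp only [Pi.smul_apply, smul_eq_mul] <;> eve <;>
      nlinarith)
  refine h2.trans ((hD 0 y y).trans (le_of_eq ?_))
  unfold DL; ring

/-- the two relations of the plane `oSe` -/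
structure TVe (θ θb s c qa qb e ρz m r ρX ρN ρH ρD : ℝ) : Prop where
  T : ρz - θ * m - θb * r + (1 - θ) * ρX + (1 - θb) * ρN + (1 - 2 * θ) * ρH +
    (2 * θ - θb - 1) * ρD = (4 - s - c) - θ * (3 + qa) - θb * (1 + qb)
  V : 4 + qa + qb ≤ m + r + ρX + ρN + 2 * ρH + e * ρD

section tve

variable {J : Type*} {lam lam2 : J → (Fin 12 → ℝ) → ℝ} {j0 : J} {ρ ρ2 : Fin 9 → ℝ}
  {l α : ℝ} {h : ℕ → ℝ}

theorem tve (H : Half9 θ θb (oSe e) 1 lam j0 ρ (-(4 + qa + qb)) l α h lam2 ρ2)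
    (h0 : lam j0 0 = 0)
    (hrec : lam j0 (RL9.vec (nat9 1 (-θ) (-θb))) = DL c s qa qb 1 (-θ) (-θb))
    (he : 0 < e) (hθ : 0 < θ) (hb : θb < θ) (hb2 : θb < 2 * θ) (hd : DAl θ θb e)
    (h1 : θ - θb ≠ 1) (h2 : θ - θb ≠ 1 / 2) :
    TVe θ θb s c qa qb e (ρ2 0) (ρ2 1) (ρ2 2) (ρ2 3) (ρ2 4) (ρ2 5) (ρ2 8) := by
  have a1 := cls_T H (rep_oSe he hθ hb hb2 hd h1 h2)
  have a2 := cls_V H (rep_oSe he hθ hb hb2 hd h1 h2)
  simp only [h0, hrec] at a1
  rw [Finset.sum_insert (by decide), Finset.sum_insert (by decide), Finset.sum_insert (by decide),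
    Finset.sum_insert (by decide), Finset.sum_insert (by decide), Finset.sum_insert (by decide),
    Finset.sum_singleton] at a1 a2
  unfold DL at a1
  eve
  exact ⟨by linarith, by linarith⟩

/-- `C_b ∥ X` : any split of the joint rate -/
theorem tve_1 (H : Half9 θ θb (oSe e) 1 lam j0 ρ (-(4 + qa + qb)) l α h lam2 ρ2)
    (h0 : lam j0 0 = 0)
    (hrec : lam j0 (RL9.vec (nat9 1 (-θ) (-θb))) = DL c s qa qb 1 (-θ) (-θb))
    (he : 0 < e) (hθ : 0 < θ) (hb2 : θb < 2 * θ) (hd : DAl θ θb e)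
    (hb : θ - θb = 1) {r ρX : ℝ} (hr : r + ρX = ρ2 3) :
    TVe θ θb s c qa qb e (ρ2 0) (ρ2 1) r ρX (ρ2 4) (ρ2 5) (ρ2 8) := by
  have a1 := cls_T H (rep_oSe1 he hθ hb2 hd hb)
  have a2 := cls_V H (rep_oSe1 he hθ hb2 hd hb)
  simp only [h0, hrec] at a1
  rw [Finset.sum_insert (by decide), Finset.sum_insert (by decide), Finset.sum_insert (by decide),
    Finset.sum_insert (by decide), Finset.sum_insert (by decide), Finset.sum_singleton] at a1 a2
  unfold DL at a1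
  have e : θb = θ - 1 := by linarith
  rw [← hr] at a1 a2
  eve
  exact ⟨by rw [e] at a1 ⊢; linarith, by linarith⟩

/-- `C_b ∥ H` : any split of the joint rate -/
theorem tve_h (H : Half9 θ θb (oSe e) 1 lam j0 ρ (-(4 + qa + qb)) l α h lam2 ρ2)
    (h0 : lam j0 0 = 0)
    (hrec : lam j0 (RL9.vec (nat9 1 (-θ) (-θb))) = DL c s qa qb 1 (-θ) (-θb))
    (he : 0 < e) (hθ : 0 < θ) (hb2 : θb < 2 * θ) (hd : DAl θ θb e)
    (hb : θ - θb = 1 / 2) {r ρH : ℝ} (hr : r / 2 + ρH = ρ2 5) :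
    TVe θ θb s c qa qb e (ρ2 0) (ρ2 1) r (ρ2 3) (ρ2 4) ρH (ρ2 8) := by
  have a1 := cls_T H (rep_oSeh he hθ hb2 hd hb)
  have a2 := cls_V H (rep_oSeh he hθ hb2 hd hb)
  simp only [h0, hrec] at a1
  rw [Finset.sum_insert (by decide), Finset.sum_insert (by decide), Finset.sum_insert (by decide),
    Finset.sum_insert (by decide), Finset.sum_insert (by decide), Finset.sum_singleton] at a1 a2
  unfold DL at a1
  have e : θb = θ - 1 / 2 := by linarith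
  rw [← hr] at a1 a2
  eve
  exact ⟨by rw [e] at a1 ⊢; linarith, by linarith⟩

/-- `θ = 1/2, θb = 0`, class `{C_b, H, D}` : any split of the joint rate -/
theorem tve_d (H : Half9 θ θb (oSe e) 1 lam j0 ρ (-(4 + qa + qb)) l α h lam2 ρ2)
    (h0 : lam j0 0 = 0)
    (hrec : lam j0 (RL9.vec (nat9 1 (-θ) (-θb))) = DL c s qa qb 1 (-θ) (-θb))
    (he : 0 < e) (hθ : θ = 1 / 2) (hb : θb = 0) {r ρH ρD : ℝ}
    (hr : r / 2 + ρH + e / 2 * ρD = ρ2 5) :
    TVe θ θb s c qa qb e (ρ2 0) (ρ2 1) r (ρ2 3) (ρ2 4) ρH ρD := by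
  have a1 := cls_T H (rep_oSed he hθ hb)
  have a2 := cls_V H (rep_oSed he hθ hb)
  simp only [h0, hrec] at a1
  rw [Finset.sum_insert (by decide), Finset.sum_insert (by decide), Finset.sum_insert (by decide),
    Finset.sum_insert (by decide), Finset.sum_singleton] at a1 a2
  unfold DL at a1
  rw [← hr] at a1 a2
  subst hθ hb
  eve
  exact ⟨by linarith, by linarith⟩

end tve

end Crest.Agent.R116.Tp139
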