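import Crest.Agent.R116.Tq2_126
import Crest.Agent.R116.Tp4_139
import Crest.Agent.R116.Rcx5_363

/-!
# R116 (K side, ties), class tables (helper126)

* `PZ.of_prf8`, `PZ.of_prf9` : `PZ` from 363's `Prf`
* `par_of`      : parallel classes in any basis of the plane
* `cE k`, `cK k`, `cS κ` (`D` alone), `cK9 k`, `cS9 κ` (`D` in the class of `z`) : class functions
* `hc_eD`, `hc_eU`, `hc_kD`, `hc_kU`, `hc_oS`; `hc_eD9`, `hc_kD9`, `hc_kU9`, `hc_oS9` : they are the parallel classes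
* `h8_*`, `hz_*`, `hG_*` : the other hypotheses of `cl9_of8`, `cl9_of9`
-/

set_option autoImplicit false
set_option linter.unusedSectionVars false
set_option linter.unusedVariables false

open Set Filter Topology

namespace Crest.Agent.R116.Tq126

open Crest.Agent.R136
open Dg219 (Walls mw)
open Sl741 (slice xt rs)
open RbK219 RbM219
open Kz647
open ChL222 (monL)
open Tp139
open Tq741
open SgO219 (PP)
open Crest.Agent.R116.Xd954 (cs xs)
open Crest.Agent.R116.Pos126 (mem8 mem9 xt8_apply vec9_apply xt8_le vec9_le cost_sum8 cost_sum9)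
open Crest.Agent.R116.Rcx363 (Prf)

/-! ### `PZ` from `Prf` -/

theorem PZ.of_prf {L : Set (Fin 12 → ℝ)} {s : ℝ} {a b : Fin 2} {Vis : Fin 12 → Prop}
    {β : Fin 12 → ℝ} {g : (Fin 12 → ℝ) → ℝ} (P : Prf L s a b Vis β g)
    (hV : ∀ k, Vis k → k = 0 ∨ k = 1 ∨ k = 2 ∨ k = 7 ∨ k = 8) : PZ L s a b g where
  ab := P.ab
  cost := P.cost
  own := fun p hp q hq hpq h0 h1 h2 h7 h8 => by
    have := P.own p hp q hq hpq 0 h0.le fun k hk => by
      rw [zero_mul]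
      rcases hV k hk with rfl | rfl | rfl | rfl | rfl
      · exact h0.le
      · exact h1.le
      · exact h2.le
      · exact h7.le
      · exact h8.le
    rwa [sub_zero] at this

/-! ### parallel classes in any basis -/

theorem par_of {τ : Type*} {A B E : τ → ℝ} {x y : ℝ} (hB : ∀ t, B t = x * A t + y * E t)
    (hy : y ≠ 0) (i j : τ) : Par A B i j ↔ A i * E j = A j * E i := by
  unfold Par
  rw [hB, hB]
  constructor
  · intro h
    have h1 : y * (A i * E j - A j * E i) = 0 := by linear_combination h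
    have h2 := (mul_eq_zero.1 h1).resolve_left hy
    linarith
  · intro h
    linear_combination y * h

/-! ### class functions -/

/-- classes of the `e`-plane -/
noncomputable def cE (k : ℝ) : Fin 9 → Fin 9 :=
  ![0, 1, 2, if k = 1 then 2 else 3, 4, if k = 1 / 2 then 2 else 5, 0, 7, 8]

/-- classes of the `κ`-plane, `D` frozen -/
noncomputable def cK (k : ℝ) : Fin 9 → Fin 9 :=
  ![0, 1, 2, if k = 2 then 2 else 3, if k = 1 then 3 else 4, if k = 1 then 2 else 5,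
    if k = 1 then 3 else if k = 1 / 2 then 5 else 6, 0, 8]

/-- classes of the `κ`-plane, `D` live -/
noncomputable def cK9 (k : ℝ) : Fin 9 → Fin 9 :=
  ![0, 1, 2, if k = 2 then 2 else 3, if k = 1 then 3 else 4, if k = 1 then 2 else 5,
    if k = 1 then 3 else if k = 1 / 2 then 5 else 6, 0, 0]

/-- classes of the plane `S₁`, `κ = θ - θb`, `D` frozen -/
noncomputable def cS (k : ℝ) : Fin 9 → Fin 9 :=
  ![0, 1, 2, if k = 1 then 2 else 3, 4, if k = 1 / 2 then 2 else 5, 0, 0, 8]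

/-- classes of the plane `S₁`, `D` at the record with positive slope -/
noncomputable def cS9 (k : ℝ) : Fin 9 → Fin 9 :=
  ![0, 1, 2, if k = 1 then 2 else 3, 4, if k = 1 / 2 then 2 else 5, 0, 0, 0]

/-- classes of `oSe`, `θ = 1 / 2`, `θb = 0` -/
def cSd : Fin 9 → Fin 9 := ![0, 1, 2, 3, 4, 2, 0, 0, 2]

/-- evaluate `castSucc` of numerals -/
theorem cs0 : (Fin.castSucc (0 : Fin 8)) = 0 := rfl
theorem cs1 : (Fin.castSucc (1 : Fin 8)) = 1 := rfl
theorem cs2 : (Fin.castSucc (2 : Fin 8)) = 2 := rfl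
theorem cs3 : (Fin.castSucc (3 : Fin 8)) = 3 := rfl
theorem cs4 : (Fin.castSucc (4 : Fin 8)) = 4 := rfl
theorem cs5 : (Fin.castSucc (5 : Fin 8)) = 5 := rfl
theorem cs6 : (Fin.castSucc (6 : Fin 8)) = 6 := rfl
theorem cs7 : (Fin.castSucc (7 : Fin 8)) = 7 := rfl

section vals
variable (k : ℝ)
theorem cE0 : cE k 0 = 0 := rfl
theorem cE1 : cE k 1 = 1 := rfl
theorem cE2 : cE k 2 = 2 := rfl
theorem cE3 : cE k 3 = if k = 1 then 2 else 3 := rfl
theorem cE4 : cE k 4 = 4 := rfl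
theorem cE5 : cE k 5 = if k = 1 / 2 then 2 else 5 := rfl
theorem cE6 : cE k 6 = 0 := rfl
theorem cE7 : cE k 7 = 7 := rfl
theorem cE8 : cE k 8 = 8 := rfl
theorem cK0 : cK k 0 = 0 := rfl
theorem cK1 : cK k 1 = 1 := rfl
theorem cK2 : cK k 2 = 2 := rfl
theorem cK3 : cK k 3 = if k = 2 then 2 else 3 := rfl
theorem cK4 : cK k 4 = if k = 1 then 3 else 4 := rfl
theorem cK5 : cK k 5 = if k = 1 then 2 else 5 := rfl
theorem cK6 : cK k 6 = if k = 1 then 3 else if k = 1 / 2 then 5 else 6 := rfl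
theorem cK7 : cK k 7 = 0 := rfl
theorem cK8 : cK k 8 = 8 := rfl
theorem cL0 : cK9 k 0 = 0 := rfl
theorem cL1 : cK9 k 1 = 1 := rfl
theorem cL2 : cK9 k 2 = 2 := rfl
theorem cL3 : cK9 k 3 = if k = 2 then 2 else 3 := rfl
theorem cL4 : cK9 k 4 = if k = 1 then 3 else 4 := rfl
theorem cL5 : cK9 k 5 = if k = 1 then 2 else 5 := rfl
theorem cL6 : cK9 k 6 = if k = 1 then 3 else if k = 1 / 2 then 5 else 6 := rfl
theorem cL7 : cK9 k 7 = 0 := rfl
theorem cL8 : cK9 k 8 = 0 := rfl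
theorem cS0 : cS k 0 = 0 := rfl
theorem cS1 : cS k 1 = 1 := rfl
theorem cS2 : cS k 2 = 2 := rfl
theorem cS3 : cS k 3 = if k = 1 then 2 else 3 := rfl
theorem cS4 : cS k 4 = 4 := rfl
theorem cS5 : cS k 5 = if k = 1 / 2 then 2 else 5 := rfl
theorem cS6 : cS k 6 = 0 := rfl
theorem cS7 : cS k 7 = 0 := rfl
theorem cS8 : cS k 8 = 8 := rfl
theorem cT0 : cS9 k 0 = 0 := rfl
theorem cT1 : cS9 k 1 = 1 := rfl
theorem cT2 : cS9 k 2 = 2 := rfl
theorem cT3 : cS9 k 3 = if k = 1 then 2 else 3 := rfl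
theorem cT4 : cS9 k 4 = 4 := rfl
theorem cT5 : cS9 k 5 = if k = 1 / 2 then 2 else 5 := rfl
theorem cT6 : cS9 k 6 = 0 := rfl
theorem cT7 : cS9 k 7 = 0 := rfl
theorem cT8 : cS9 k 8 = 0 := rfl
theorem cU0 : cSd 0 = 0 := rfl
theorem cU1 : cSd 1 = 1 := rfl
theorem cU2 : cSd 2 = 2 := rfl
theorem cU3 : cSd 3 = 3 := rfl
theorem cU4 : cSd 4 = 4 := rfl
theorem cU5 : cSd 5 = 2 := rfl
theorem cU6 : cSd 6 = 0 := rfl
theorem cU7 : cSd 7 = 0 := rfl
theorem cU8 : cSd 8 = 2 := rfl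
end vals

/-- evaluate the class functions -/
macro "evc" : tactic => `(tactic| simp only [cs0, cs1, cs2, cs3, cs4, cs5, cs6, cs7, cE0, cE1, cE2,
  cE3, cE4, cE5, cE6, cE7, cE8, cK0, cK1, cK2, cK3, cK4, cK5, cK6, cK7, cK8, cL0, cL1, cL2, cL3,
  cL4, cL5, cL6, cL7, cL8, cS0, cS1, cS2, cS3, cS4, cS5, cS6, cS7, cS8, cT0, cT1, cT2, cT3, cT4,
  cT5, cT6, cT7, cT8, cU0, cU1, cU2, cU3, cU4, cU5, cU6, cU7, cU8])

section tables

variable {θ θb k e : ℝ}

theorem vE (t : Fin 8) (hb : θb = θ - k) :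
    eD k t = (-1) * nat8 1 (-θ) (-θb) t + (-(θ + k)) * nat8 0 1 1 t := by
  subst hb; revert t; refine all8 ?_ ?_ ?_ ?_ ?_ ?_ ?_ ?_ <;> ev8 <;> ring

theorem vEU (t : Fin 8) (hb : θb = θ - k) :
    eU k t = 1 * nat8 1 (-θ) (-θb) t + (θ + k) * nat8 0 1 1 t := by
  subst hb; revert t; refine all8 ?_ ?_ ?_ ?_ ?_ ?_ ?_ ?_ <;> ev8 <;> ring

theorem vKD (t : Fin 8) :
    kD t = 0 * nat8 1 (-θ) (-θb) t + (-1) * nat8 0 1 2 t := by
  revert t; refine all8 ?_ ?_ ?_ ?_ ?_ ?_ ?_ ?_ <;> ev8 <;> ring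

theorem vKU (t : Fin 8) :
    kU t = 0 * nat8 1 (-θ) (-θb) t + 1 * nat8 0 1 2 t := by
  revert t; refine all8 ?_ ?_ ?_ ?_ ?_ ?_ ?_ ?_ <;> ev8 <;> ring

theorem vOS (t : Fin 8) : oS t = 0 * nat8 1 (-θ) (-θb) t + 1 * oS t := by ring

theorem tabE (hθ : 0 < θ) (hk : 0 < k) (hb : θb = θ - k) (i j : Fin 8) :
    cE k i.castSucc = cE k j.castSucc ↔
      nat8 1 (-θ) (-θb) i * nat8 0 1 1 j = nat8 1 (-θ) (-θb) j * nat8 0 1 1 i := by
  by_cases h1 : k = 1
  · have n1 : ¬ k = 1 / 2 := by rw [h1]; norm_num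
    revert i j
    refine all8 ?_ ?_ ?_ ?_ ?_ ?_ ?_ ?_ <;> refine all8 ?_ ?_ ?_ ?_ ?_ ?_ ?_ ?_ <;> evc <;> ev8 <;>
      (try simp only [if_pos h1, if_neg n1]) <;> first
        | exact iff_of_true (by decide) (by linarith)
        | exact iff_of_false (by decide) (fun h => by linarith)
  by_cases h2 : k = 1 / 2
  · have n1 : ¬ k = 1 := h1
    revert i j
    refine all8 ?_ ?_ ?_ ?_ ?_ ?_ ?_ ?_ <;> refine all8 ?_ ?_ ?_ ?_ ?_ ?_ ?_ ?_ <;> evc <;> ev8 <;>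
      (try simp only [if_pos h2, if_neg n1]) <;> first
        | exact iff_of_true (by decide) (by linarith)
        | exact iff_of_false (by decide) (fun h => by linarith)
  · have n1 : ¬ k = 1 := h1
    revert i j
    refine all8 ?_ ?_ ?_ ?_ ?_ ?_ ?_ ?_ <;> refine all8 ?_ ?_ ?_ ?_ ?_ ?_ ?_ ?_ <;> evc <;> ev8 <;>
      (try simp only [if_neg h1, if_neg h2]) <;> first
        | exact iff_of_true (by decide) (by linarith)
        | exact iff_of_false (by decide) (fun h => by linarith)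
        | exact iff_of_false (by decide) (fun h => h1 (by linarith))
        | exact iff_of_false (by decide) (fun h => h2 (by linarith))

theorem tabK (hθ : 0 < θ) (hk : 0 < k) (hb : θb = 2 * θ - k) (i j : Fin 8) :
    cK k i.castSucc = cK k j.castSucc ↔
      nat8 1 (-θ) (-θb) i * nat8 0 1 2 j = nat8 1 (-θ) (-θb) j * nat8 0 1 2 i := by
  by_cases h1 : k = 1
  · have n1 : ¬ k = 1 / 2 := by rw [h1]; norm_num
    have n2 : ¬ k = 2 := by rw [h1]; norm_num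
    revert i j
    refine all8 ?_ ?_ ?_ ?_ ?_ ?_ ?_ ?_ <;> refine all8 ?_ ?_ ?_ ?_ ?_ ?_ ?_ ?_ <;> evc <;> ev8 <;>
      (try simp only [if_pos h1, if_neg n1, if_neg n2]) <;> first
        | exact iff_of_true (by decide) (by linarith)
        | exact iff_of_false (by decide) (fun h => by linarith)
  by_cases h2 : k = 1 / 2
  · have n2 : ¬ k = 2 := by rw [h2]; norm_num
    revert i j
    refine all8 ?_ ?_ ?_ ?_ ?_ ?_ ?_ ?_ <;> refine all8 ?_ ?_ ?_ ?_ ?_ ?_ ?_ ?_ <;> evc <;> ev8 <;>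
      (try simp only [if_pos h2, if_neg h1, if_neg n2]) <;> first
        | exact iff_of_true (by decide) (by linarith)
        | exact iff_of_false (by decide) (fun h => by linarith)
  by_cases h3 : k = 2
  · have n1 : ¬ k = 1 := h1
    revert i j
    refine all8 ?_ ?_ ?_ ?_ ?_ ?_ ?_ ?_ <;> refine all8 ?_ ?_ ?_ ?_ ?_ ?_ ?_ ?_ <;> evc <;> ev8 <;>
      (try simp only [if_pos h3, if_neg h1, if_neg h2]) <;> first
        | exact iff_of_true (by decide) (by linarith)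
        | exact iff_of_false (by decide) (fun h => by linarith)
  · have n1 : ¬ k = 1 := h1
    revert i j
    refine all8 ?_ ?_ ?_ ?_ ?_ ?_ ?_ ?_ <;> refine all8 ?_ ?_ ?_ ?_ ?_ ?_ ?_ ?_ <;> evc <;> ev8 <;>
      (try simp only [if_neg h1, if_neg h2, if_neg h3]) <;> first
        | exact iff_of_true (by decide) (by linarith)
        | exact iff_of_false (by decide) (fun h => by linarith)
        | exact iff_of_false (by decide) (fun h => h1 (by linarith))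
        | exact iff_of_false (by decide) (fun h => h2 (by linarith))
        | exact iff_of_false (by decide) (fun h => h3 (by linarith))

theorem tabS (hθ : 0 < θ) (hk : 0 < k) (hb : θb = θ - k) (i j : Fin 8) :
    cS k i.castSucc = cS k j.castSucc ↔
      nat8 1 (-θ) (-θb) i * oS j = nat8 1 (-θ) (-θb) j * oS i := by
  by_cases h1 : k = 1
  · have n1 : ¬ k = 1 / 2 := by rw [h1]; norm_num
    revert i j
    refine all8 ?_ ?_ ?_ ?_ ?_ ?_ ?_ ?_ <;> refine all8 ?_ ?_ ?_ ?_ ?_ ?_ ?_ ?_ <;> evc <;> ev8 <;>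
      (try simp only [if_pos h1, if_neg n1]) <;> first
        | exact iff_of_true (by decide) (by linarith)
        | exact iff_of_false (by decide) (fun h => by linarith)
  by_cases h2 : k = 1 / 2
  · have n1 : ¬ k = 1 := h1
    revert i j
    refine all8 ?_ ?_ ?_ ?_ ?_ ?_ ?_ ?_ <;> refine all8 ?_ ?_ ?_ ?_ ?_ ?_ ?_ ?_ <;> evc <;> ev8 <;>
      (try simp only [if_pos h2, if_neg n1]) <;> first
        | exact iff_of_true (by decide) (by linarith)
        | exact iff_of_false (by decide) (fun h => by linarith)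
  · have n1 : ¬ k = 1 := h1
    revert i j
    refine all8 ?_ ?_ ?_ ?_ ?_ ?_ ?_ ?_ <;> refine all8 ?_ ?_ ?_ ?_ ?_ ?_ ?_ ?_ <;> evc <;> ev8 <;>
      (try simp only [if_neg h1, if_neg h2]) <;> first
        | exact iff_of_true (by decide) (by linarith)
        | exact iff_of_false (by decide) (fun h => by linarith)
        | exact iff_of_false (by decide) (fun h => h1 (by linarith))
        | exact iff_of_false (by decide) (fun h => h2 (by linarith))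

theorem tabE9 (hθ : 0 < θ) (hk : 1 < k) (hb : θb = θ - k) (i j : Fin 9) :
    cE k i = cE k j ↔
      nat9 1 (-θ) (-θb) i * nat9 0 1 1 j = nat9 1 (-θ) (-θb) j * nat9 0 1 1 i := by
  by_cases h1 : k = 1
  · have n1 : ¬ k = 1 / 2 := by rw [h1]; norm_num
    revert i j
    refine all9 ?_ ?_ ?_ ?_ ?_ ?_ ?_ ?_ ?_ <;> refine all9 ?_ ?_ ?_ ?_ ?_ ?_ ?_ ?_ ?_ <;> evc <;> ev9 <;>
      (try simp only [if_pos h1, if_neg n1]) <;> first
        | exact iff_of_true (by decide) (by linarith)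
        | exact iff_of_false (by decide) (fun h => by linarith)
  by_cases h2 : k = 1 / 2
  · have n1 : ¬ k = 1 := h1
    revert i j
    refine all9 ?_ ?_ ?_ ?_ ?_ ?_ ?_ ?_ ?_ <;> refine all9 ?_ ?_ ?_ ?_ ?_ ?_ ?_ ?_ ?_ <;> evc <;> ev9 <;>
      (try simp only [if_pos h2, if_neg n1]) <;> first
        | exact iff_of_true (by decide) (by linarith)
        | exact iff_of_false (by decide) (fun h => by linarith)
  · have n1 : ¬ k = 1 := h1
    revert i j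
    refine all9 ?_ ?_ ?_ ?_ ?_ ?_ ?_ ?_ ?_ <;> refine all9 ?_ ?_ ?_ ?_ ?_ ?_ ?_ ?_ ?_ <;> evc <;> ev9 <;>
      (try simp only [if_neg h1, if_neg h2]) <;> first
        | exact iff_of_true (by decide) (by linarith)
        | exact iff_of_false (by decide) (fun h => by linarith)
        | exact iff_of_false (by decide) (fun h => h1 (by linarith))
        | exact iff_of_false (by decide) (fun h => h2 (by linarith))

theorem tabK9 (hθ : 0 < θ) (hk : 1 < k) (hb : θb = 2 * θ - k) (i j : Fin 9) :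
    cK9 k i = cK9 k j ↔
      nat9 1 (-θ) (-θb) i * nat9 0 1 2 j = nat9 1 (-θ) (-θb) j * nat9 0 1 2 i := by
  by_cases h1 : k = 1
  · have n1 : ¬ k = 1 / 2 := by rw [h1]; norm_num
    have n2 : ¬ k = 2 := by rw [h1]; norm_num
    revert i j
    refine all9 ?_ ?_ ?_ ?_ ?_ ?_ ?_ ?_ ?_ <;> refine all9 ?_ ?_ ?_ ?_ ?_ ?_ ?_ ?_ ?_ <;> evc <;> ev9 <;>
      (try simp only [if_pos h1, if_neg n1, if_neg n2]) <;> first
        | exact iff_of_true (by decide) (by linarith)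
        | exact iff_of_false (by decide) (fun h => by linarith)
  by_cases h2 : k = 1 / 2
  · have n2 : ¬ k = 2 := by rw [h2]; norm_num
    revert i j
    refine all9 ?_ ?_ ?_ ?_ ?_ ?_ ?_ ?_ ?_ <;> refine all9 ?_ ?_ ?_ ?_ ?_ ?_ ?_ ?_ ?_ <;> evc <;> ev9 <;>
      (try simp only [if_pos h2, if_neg h1, if_neg n2]) <;> first
        | exact iff_of_true (by decide) (by linarith)
        | exact iff_of_false (by decide) (fun h => by linarith)
  by_cases h3 : k = 2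
  · have n1 : ¬ k = 1 := h1
    revert i j
    refine all9 ?_ ?_ ?_ ?_ ?_ ?_ ?_ ?_ ?_ <;> refine all9 ?_ ?_ ?_ ?_ ?_ ?_ ?_ ?_ ?_ <;> evc <;> ev9 <;>
      (try simp only [if_pos h3, if_neg h1, if_neg h2]) <;> first
        | exact iff_of_true (by decide) (by linarith)
        | exact iff_of_false (by decide) (fun h => by linarith)
  · have n1 : ¬ k = 1 := h1
    revert i j
    refine all9 ?_ ?_ ?_ ?_ ?_ ?_ ?_ ?_ ?_ <;> refine all9 ?_ ?_ ?_ ?_ ?_ ?_ ?_ ?_ ?_ <;> evc <;> ev9 <;>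
      (try simp only [if_neg h1, if_neg h2, if_neg h3]) <;> first
        | exact iff_of_true (by decide) (by linarith)
        | exact iff_of_false (by decide) (fun h => by linarith)
        | exact iff_of_false (by decide) (fun h => h1 (by linarith))
        | exact iff_of_false (by decide) (fun h => h2 (by linarith))
        | exact iff_of_false (by decide) (fun h => h3 (by linarith))

theorem tabS9 (hθ : 0 < θ) (hk : 0 < k) (hk1 : 1 < θ + k) (hb : θb = θ - k) (i j : Fin 9) :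
    cS9 k i = cS9 k j ↔
      nat9 1 (-θ) (-θb) i * oS9 j = nat9 1 (-θ) (-θb) j * oS9 i := by
  by_cases h1 : k = 1
  · have n1 : ¬ k = 1 / 2 := by rw [h1]; norm_num
    revert i j
    refine all9 ?_ ?_ ?_ ?_ ?_ ?_ ?_ ?_ ?_ <;> refine all9 ?_ ?_ ?_ ?_ ?_ ?_ ?_ ?_ ?_ <;> evc <;> ev9 <;>
      (try simp only [if_pos h1, if_neg n1]) <;> first
        | exact iff_of_true (by decide) (by linarith)
        | exact iff_of_false (by decide) (fun h => by linarith)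
  by_cases h2 : k = 1 / 2
  · have n1 : ¬ k = 1 := h1
    revert i j
    refine all9 ?_ ?_ ?_ ?_ ?_ ?_ ?_ ?_ ?_ <;> refine all9 ?_ ?_ ?_ ?_ ?_ ?_ ?_ ?_ ?_ <;> evc <;> ev9 <;>
      (try simp only [if_pos h2, if_neg n1]) <;> first
        | exact iff_of_true (by decide) (by linarith)
        | exact iff_of_false (by decide) (fun h => by linarith)
  · have n1 : ¬ k = 1 := h1
    revert i j
    refine all9 ?_ ?_ ?_ ?_ ?_ ?_ ?_ ?_ ?_ <;> refine all9 ?_ ?_ ?_ ?_ ?_ ?_ ?_ ?_ ?_ <;> evc <;> ev9 <;>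
      (try simp only [if_neg h1, if_neg h2]) <;> first
        | exact iff_of_true (by decide) (by linarith)
        | exact iff_of_false (by decide) (fun h => by linarith)
        | exact iff_of_false (by decide) (fun h => h1 (by linarith))
        | exact iff_of_false (by decide) (fun h => h2 (by linarith))

theorem tabSe (he : 0 < e) (hθ : 0 < θ) (hk : 0 < k) (hb : θb = θ - k) (hd : DAl θ θb e)
    (i j : Fin 9) :
    cS k i = cS k j ↔
      nat9 1 (-θ) (-θb) i * oSe e j = nat9 1 (-θ) (-θb) j * oSe e i := by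
  obtain ⟨d1, d2, d3, d4, d5⟩ := d_ne' hd he hθ (by linarith)
  have z1 : e * θ = e * θ := rfl
  have z2 : 0 < k * e := mul_pos hk he
  have z3 : 0 < θ * e := mul_pos hθ he
  subst hb
  by_cases h1 : k = 1
  · have n1 : ¬ k = 1 / 2 := by rw [h1]; norm_num
    revert i j
    refine all9 ?_ ?_ ?_ ?_ ?_ ?_ ?_ ?_ ?_ <;> refine all9 ?_ ?_ ?_ ?_ ?_ ?_ ?_ ?_ ?_ <;> evc <;> eve <;>
      (try simp only [if_pos h1, if_neg n1]) <;> first
        | exact iff_of_true (by decide) (by linarith)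
        | exact iff_of_false (by decide) (fun h => by linarith)
        | exact iff_of_false (by decide) (fun h => d1 (by linarith))
        | exact iff_of_false (by decide) (fun h => d2 (by linarith))
        | exact iff_of_false (by decide) (fun h => d3 (by linarith))
        | exact iff_of_false (by decide) (fun h => d4 (by linarith))
        | exact iff_of_false (by decide) (fun h => d5 (by linarith))
  by_cases h2 : k = 1 / 2
  · have n1 : ¬ k = 1 := h1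
    revert i j
    refine all9 ?_ ?_ ?_ ?_ ?_ ?_ ?_ ?_ ?_ <;> refine all9 ?_ ?_ ?_ ?_ ?_ ?_ ?_ ?_ ?_ <;> evc <;> eve <;>
      (try simp only [if_pos h2, if_neg n1]) <;> first
        | exact iff_of_true (by decide) (by linarith)
        | exact iff_of_false (by decide) (fun h => by linarith)
        | exact iff_of_false (by decide) (fun h => d1 (by linarith))
        | exact iff_of_false (by decide) (fun h => d2 (by linarith))
        | exact iff_of_false (by decide) (fun h => d3 (by linarith))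
        | exact iff_of_false (by decide) (fun h => d4 (by linarith))
        | exact iff_of_false (by decide) (fun h => d5 (by linarith))
  · have n1 : ¬ k = 1 := h1
    revert i j
    refine all9 ?_ ?_ ?_ ?_ ?_ ?_ ?_ ?_ ?_ <;> refine all9 ?_ ?_ ?_ ?_ ?_ ?_ ?_ ?_ ?_ <;> evc <;> eve <;>
      (try simp only [if_neg h1, if_neg h2]) <;> first
        | exact iff_of_true (by decide) (by linarith)
        | exact iff_of_false (by decide) (fun h => by linarith)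
        | exact iff_of_false (by decide) (fun h => h1 (by linarith))
        | exact iff_of_false (by decide) (fun h => h2 (by linarith))
        | exact iff_of_false (by decide) (fun h => d1 (by linarith))
        | exact iff_of_false (by decide) (fun h => d2 (by linarith))
        | exact iff_of_false (by decide) (fun h => d3 (by linarith))
        | exact iff_of_false (by decide) (fun h => d4 (by linarith))
        | exact iff_of_false (by decide) (fun h => d5 (by linarith))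

theorem tabSd (he : 0 < e) (hθ : θ = 1 / 2) (hb : θb = 0) (i j : Fin 9) :
    cSd i = cSd j ↔ nat9 1 (-θ) (-θb) i * oSe e j = nat9 1 (-θ) (-θb) j * oSe e i := by
  subst hθ; subst hb
  revert i j
  refine all9 ?_ ?_ ?_ ?_ ?_ ?_ ?_ ?_ ?_ <;> refine all9 ?_ ?_ ?_ ?_ ?_ ?_ ?_ ?_ ?_ <;> evc <;> eve <;>
    first
        | exact iff_of_true (by decide) (by linarith)
        | exact iff_of_false (by decide) (fun h => by linarith)

/-! ### the class functions are the parallel classes -/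

theorem hc_eD (hθ : 0 < θ) (hk : 0 < k) (hb : θb = θ - k) (i j : Fin 8) :
    cE k i.castSucc = cE k j.castSucc ↔ Par (nat8 1 (-θ) (-θb)) (eD k) i j :=
  (tabE hθ hk hb i j).trans (par_of (x := -1) (y := -(θ + k)) (fun t => vE t hb)
    (by linarith : -(θ + k) < 0).ne i j).symm

theorem hc_eU (hθ : 0 < θ) (hk : 0 < k) (hb : θb = θ - k) (i j : Fin 8) :
    cE k i.castSucc = cE k j.castSucc ↔ Par (nat8 1 (-θ) (-θb)) (eU k) i j :=
  (tabE hθ hk hb i j).trans (par_of (x := 1) (y := θ + k) (fun t => vEU t hb)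
    (by linarith : 0 < θ + k).ne' i j).symm

theorem hc_kD (hθ : 0 < θ) (hk : 0 < k) (hb : θb = 2 * θ - k) (i j : Fin 8) :
    cK k i.castSucc = cK k j.castSucc ↔ Par (nat8 1 (-θ) (-θb)) kD i j :=
  (tabK hθ hk hb i j).trans (par_of (x := 0) (y := -1) (fun t => vKD t)
    (by norm_num) i j).symm

theorem hc_kU (hθ : 0 < θ) (hk : 0 < k) (hb : θb = 2 * θ - k) (i j : Fin 8) :
    cK k i.castSucc = cK k j.castSucc ↔ Par (nat8 1 (-θ) (-θb)) kU i j :=
  (tabK hθ hk hb i j).trans (par_of (x := 0) (y := 1) (fun t => vKU t)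
    (by norm_num) i j).symm

theorem hc_oS (hθ : 0 < θ) (hk : 0 < k) (hb : θb = θ - k) (i j : Fin 8) :
    cS k i.castSucc = cS k j.castSucc ↔ Par (nat8 1 (-θ) (-θb)) oS i j :=
  tabS hθ hk hb i j

theorem vE9 (t : Fin 9) (hb : θb = θ - k) :
    eD9 k t = (-1) * nat9 1 (-θ) (-θb) t + (-(θ + k - 1)) * nat9 0 1 1 t := by
  subst hb; revert t; refine all9 ?_ ?_ ?_ ?_ ?_ ?_ ?_ ?_ ?_ <;> ev9 <;> ring

theorem vKD9 (t : Fin 9) :
    kD9 t = 0 * nat9 1 (-θ) (-θb) t + (-1) * nat9 0 1 2 t := by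
  revert t; refine all9 ?_ ?_ ?_ ?_ ?_ ?_ ?_ ?_ ?_ <;> ev9 <;> ring

theorem vKU9 (t : Fin 9) :
    kU9 t = 0 * nat9 1 (-θ) (-θb) t + 1 * nat9 0 1 2 t := by
  revert t; refine all9 ?_ ?_ ?_ ?_ ?_ ?_ ?_ ?_ ?_ <;> ev9 <;> ring

theorem hc_eD9 (hθ : 0 < θ) (hk : 1 < k) (hb : θb = θ - k) (i j : Fin 9) :
    cE k i = cE k j ↔ Par (nat9 1 (-θ) (-θb)) (eD9 k) i j :=
  (tabE9 hθ hk hb i j).trans (par_of (x := -1) (y := -(θ + k - 1)) (fun t => vE9 t hb)
    (by linarith : -(θ + k - 1) < 0).ne i j).symm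

theorem hc_kD9 (hθ : 0 < θ) (hk : 1 < k) (hb : θb = 2 * θ - k) (i j : Fin 9) :
    cK9 k i = cK9 k j ↔ Par (nat9 1 (-θ) (-θb)) kD9 i j :=
  (tabK9 hθ hk hb i j).trans (par_of (x := 0) (y := -1) (fun t => vKD9 t)
    (by norm_num) i j).symm

theorem hc_kU9 (hθ : 0 < θ) (hk : 1 < k) (hb : θb = 2 * θ - k) (i j : Fin 9) :
    cK9 k i = cK9 k j ↔ Par (nat9 1 (-θ) (-θb)) kU9 i j :=
  (tabK9 hθ hk hb i j).trans (par_of (x := 0) (y := 1) (fun t => vKU9 t)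
    (by norm_num) i j).symm

theorem hc_oS9 (hθ : 0 < θ) (hk : 0 < k) (hk1 : 1 < θ + k) (hb : θb = θ - k) (i j : Fin 9) :
    cS9 k i = cS9 k j ↔ Par (nat9 1 (-θ) (-θb)) oS9 i j :=
  tabS9 hθ hk hk1 hb i j

theorem hc_oSe (he : 0 < e) (hθ : 0 < θ) (hk : 0 < k) (hb : θb = θ - k) (hd : DAl θ θb e)
    (i j : Fin 9) : cS k i = cS k j ↔ Par (nat9 1 (-θ) (-θb)) (oSe e) i j :=
  tabSe he hθ hk hb hd i j

theorem hc_oSd (he : 0 < e) (hθ : θ = 1 / 2) (hb : θb = 0) (i j : Fin 9) :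
    cSd i = cSd j ↔ Par (nat9 1 (-θ) (-θb)) (oSe e) i j :=
  tabSd he hθ hb i j

/-! ### slot `D` is a class of its own; the class of `z` -/

theorem h8_cE (i : Fin 8) : cE k i.castSucc ≠ cE k 8 := by
  revert i; refine all8 ?_ ?_ ?_ ?_ ?_ ?_ ?_ ?_ <;> evc <;> (try split_ifs) <;> decide

theorem h8_cK (i : Fin 8) : cK k i.castSucc ≠ cK k 8 := by
  revert i; refine all8 ?_ ?_ ?_ ?_ ?_ ?_ ?_ ?_ <;> evc <;> (try split_ifs) <;> decide

theorem h8_cS (i : Fin 8) : cS k i.castSucc ≠ cS k 8 := by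
  revert i; refine all8 ?_ ?_ ?_ ?_ ?_ ?_ ?_ ?_ <;> evc <;> (try split_ifs) <;> decide

theorem z_cE (i : Fin 9) (h : cE k 0 = cE k i) : i = 0 ∨ i = 6 := by
  revert i; refine all9 ?_ ?_ ?_ ?_ ?_ ?_ ?_ ?_ ?_ <;> intro h <;>
    revert h <;> evc <;> (try split_ifs) <;> decide

theorem z_cK (i : Fin 9) (h : cK k 0 = cK k i) : i = 0 ∨ i = 7 := by
  revert i; refine all9 ?_ ?_ ?_ ?_ ?_ ?_ ?_ ?_ ?_ <;> intro h <;>
    revert h <;> evc <;> (try split_ifs) <;> decide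

theorem z_cK9 (i : Fin 9) (h : cK9 k 0 = cK9 k i) : i = 0 ∨ i = 7 ∨ i = 8 := by
  revert i; refine all9 ?_ ?_ ?_ ?_ ?_ ?_ ?_ ?_ ?_ <;> intro h <;>
    revert h <;> evc <;> (try split_ifs) <;> decide

theorem z_cS (i : Fin 9) (h : cS k 0 = cS k i) : i = 0 ∨ i = 6 ∨ i = 7 := by
  revert i; refine all9 ?_ ?_ ?_ ?_ ?_ ?_ ?_ ?_ ?_ <;> intro h <;>
    revert h <;> evc <;> (try split_ifs) <;> decide

theorem z_cS9 (i : Fin 9) (h : cS9 k 0 = cS9 k i) : i = 0 ∨ i = 6 ∨ i = 7 ∨ i = 8 := by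
  revert i; refine all9 ?_ ?_ ?_ ?_ ?_ ?_ ?_ ?_ ?_ <;> intro h <;>
    revert h <;> evc <;> (try split_ifs) <;> decide

theorem z_cSd (i : Fin 9) (h : cSd 0 = cSd i) : i = 0 ∨ i = 6 ∨ i = 7 := by
  revert i; refine all9 ?_ ?_ ?_ ?_ ?_ ?_ ?_ ?_ ?_ <;> intro h <;>
    revert h <;> evc <;> decide

theorem hz_eD (hθ : 0 < θ) (hk : 0 < k) (hb : θb = θ - k) (i : Fin 8)
    (h : Par (nat8 1 (-θ) (-θb)) (eD k) 0 i) : i = 0 ∨ i = 6 ∨ i = 7 := by
  have h1 := z_cE (k := k) _ ((hc_eD hθ hk hb 0 i).2 h)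
  revert h1; revert i; refine all8 ?_ ?_ ?_ ?_ ?_ ?_ ?_ ?_ <;> intro _ <;> decide

theorem hz_eU (hθ : 0 < θ) (hk : 0 < k) (hb : θb = θ - k) (i : Fin 8)
    (h : Par (nat8 1 (-θ) (-θb)) (eU k) 0 i) : i = 0 ∨ i = 6 ∨ i = 7 := by
  have h1 := z_cE (k := k) _ ((hc_eU hθ hk hb 0 i).2 h)
  revert h1; revert i; refine all8 ?_ ?_ ?_ ?_ ?_ ?_ ?_ ?_ <;> intro _ <;> decide

theorem hz_kD (hθ : 0 < θ) (hk : 0 < k) (hb : θb = 2 * θ - k) (i : Fin 8)
    (h : Par (nat8 1 (-θ) (-θb)) kD 0 i) : i = 0 ∨ i = 6 ∨ i = 7 := by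
  have h1 := z_cK (k := k) _ ((hc_kD hθ hk hb 0 i).2 h)
  revert h1; revert i; refine all8 ?_ ?_ ?_ ?_ ?_ ?_ ?_ ?_ <;> intro _ <;> decide

theorem hz_kU (hθ : 0 < θ) (hk : 0 < k) (hb : θb = 2 * θ - k) (i : Fin 8)
    (h : Par (nat8 1 (-θ) (-θb)) kU 0 i) : i = 0 ∨ i = 6 ∨ i = 7 := by
  have h1 := z_cK (k := k) _ ((hc_kU hθ hk hb 0 i).2 h)
  revert h1; revert i; refine all8 ?_ ?_ ?_ ?_ ?_ ?_ ?_ ?_ <;> intro _ <;> decide

theorem hz_oS (hθ : 0 < θ) (hk : 0 < k) (hb : θb = θ - k) (i : Fin 8)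
    (h : Par (nat8 1 (-θ) (-θb)) oS 0 i) : i = 0 ∨ i = 6 ∨ i = 7 := by
  have h1 := z_cS (k := k) _ ((hc_oS hθ hk hb 0 i).2 h)
  revert h1; revert i; refine all8 ?_ ?_ ?_ ?_ ?_ ?_ ?_ ?_ <;> intro _ <;> decide

theorem hz_eD9 (hθ : 0 < θ) (hk : 1 < k) (hb : θb = θ - k) (i : Fin 9)
    (h : Par (nat9 1 (-θ) (-θb)) (eD9 k) 0 i) : i = 0 ∨ i = 6 ∨ i = 7 ∨ i = 8 := by
  rcases z_cE (k := k) _ ((hc_eD9 hθ hk hb 0 i).2 h) with h1 | h1
  · exact Or.inl h1
  · exact Or.inr (Or.inl h1)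

theorem hz_kD9 (hθ : 0 < θ) (hk : 1 < k) (hb : θb = 2 * θ - k) (i : Fin 9)
    (h : Par (nat9 1 (-θ) (-θb)) kD9 0 i) : i = 0 ∨ i = 6 ∨ i = 7 ∨ i = 8 := by
  rcases z_cK9 (k := k) _ ((hc_kD9 hθ hk hb 0 i).2 h) with h1 | h1
  · exact Or.inl h1
  · exact Or.inr (Or.inr h1)

theorem hz_kU9 (hθ : 0 < θ) (hk : 1 < k) (hb : θb = 2 * θ - k) (i : Fin 9)
    (h : Par (nat9 1 (-θ) (-θb)) kU9 0 i) : i = 0 ∨ i = 6 ∨ i = 7 ∨ i = 8 := by
  rcases z_cK9 (k := k) _ ((hc_kU9 hθ hk hb 0 i).2 h) with h1 | h1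
  · exact Or.inl h1
  · exact Or.inr (Or.inr h1)

theorem hz_oS9 (hθ : 0 < θ) (hk : 0 < k) (hk1 : 1 < θ + k) (hb : θb = θ - k) (i : Fin 9)
    (h : Par (nat9 1 (-θ) (-θb)) oS9 0 i) : i = 0 ∨ i = 6 ∨ i = 7 ∨ i = 8 :=
  z_cS9 (k := k) _ ((hc_oS9 hθ hk hk1 hb 0 i).2 h)

theorem hz_oSe (he : 0 < e) (hθ : 0 < θ) (hk : 0 < k) (hb : θb = θ - k) (hd : DAl θ θb e)
    (i : Fin 9) (h : Par (nat9 1 (-θ) (-θb)) (oSe e) 0 i) : i = 0 ∨ i = 6 ∨ i = 7 :=
  z_cS (k := k) _ ((hc_oSe he hθ hk hb hd 0 i).2 h)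

theorem hz_oSd (he : 0 < e) (hθ : θ = 1 / 2) (hb : θb = 0) (i : Fin 9)
    (h : Par (nat9 1 (-θ) (-θb)) (oSe e) 0 i) : i = 0 ∨ i = 6 ∨ i = 7 :=
  z_cSd _ ((hc_oSd he hθ hb 0 i).2 h)

/-! ### the wall of `G` -/

theorem hG_eD9 (hθ : 0 < θ) (hk : 1 < k) (hb : θb = θ - k)
    (h : Par (nat9 1 (-θ) (-θb)) (eD9 k) 0 7) : Par (nat9 1 (-θ) (-θb)) (eD9 k) 0 8 ∧
      dl (nat9 1 (-θ) (-θb)) (eD9 k) (-1) 7 ≤ dl (nat9 1 (-θ) (-θb)) (eD9 k) (-1) 0 +
        dl (nat9 1 (-θ) (-θb)) (eD9 k) (-1) 8 := by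
  exact absurd (z_cE (k := k) _ ((hc_eD9 hθ hk hb 0 7).2 h)) (by decide)

theorem hG_kD9 (hθ : 0 < θ) (hk : 1 < k) (hb : θb = 2 * θ - k)
    (h : Par (nat9 1 (-θ) (-θb)) kD9 0 7) : Par (nat9 1 (-θ) (-θb)) kD9 0 8 ∧
      dl (nat9 1 (-θ) (-θb)) kD9 (-1) 7 ≤ dl (nat9 1 (-θ) (-θb)) kD9 (-1) 0 +
        dl (nat9 1 (-θ) (-θb)) kD9 (-1) 8 := by
  refine ⟨(hc_kD9 hθ hk hb 0 8).1 rfl, ?_⟩
  have e0 : kD9 0 = 0 := by ev9
  have e7 : kD9 7 = 0 := by ev9; norm_num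
  have e8 : kD9 8 = 0 := by ev9; norm_num
  unfold dl
  rw [if_pos e0, if_pos e7, if_pos e8]
  ev9
  linarith

theorem hG_kU9 (hθ : 0 < θ) (hk : 1 < k) (hb : θb = 2 * θ - k)
    (h : Par (nat9 1 (-θ) (-θb)) kU9 0 7) : Par (nat9 1 (-θ) (-θb)) kU9 0 8 ∧
      dl (nat9 1 (-θ) (-θb)) kU9 1 7 ≤ dl (nat9 1 (-θ) (-θb)) kU9 1 0 +
        dl (nat9 1 (-θ) (-θb)) kU9 1 8 := by
  refine ⟨(hc_kU9 hθ hk hb 0 8).1 rfl, ?_⟩
  have e0 : kU9 0 = 0 := by ev9
  have e7 : kU9 7 = 0 := by ev9; norm_num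
  have e8 : kU9 8 = 0 := by ev9; norm_num
  unfold dl
  rw [if_pos e0, if_pos e7, if_pos e8]
  ev9
  linarith

theorem hG_oS9 (hθ : 0 < θ) (hk : 0 < k) (hk1 : 1 < θ + k) (hb : θb = θ - k)
    (h : Par (nat9 1 (-θ) (-θb)) oS9 0 7) : Par (nat9 1 (-θ) (-θb)) oS9 0 8 ∧
      dl (nat9 1 (-θ) (-θb)) oS9 1 7 ≤ dl (nat9 1 (-θ) (-θb)) oS9 1 0 +
        dl (nat9 1 (-θ) (-θb)) oS9 1 8 := by
  refine ⟨(hc_oS9 hθ hk hk1 hb 0 8).1 rfl, ?_⟩
  have e0 : oS9 0 = 0 := rfl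
  have e7 : oS9 7 = 0 := rfl
  have e8 : oS9 8 = 0 := rfl
  unfold dl
  rw [if_pos e0, if_pos e7, if_pos e8]
  ev9
  linarith

end tables

/-! ### `Cl9` when `G` is in the class of `z` and `D` is not -/

/-- as `PZ`, the slot `D` is free -/
structure PZi (L : Set (Fin 12 → ℝ)) (s : ℝ) (a b : Fin 2) (g : (Fin 12 → ℝ) → ℝ) : Prop where
  ab : a ≠ b
  cost : ∀ p ∈ L, ∀ q ∈ L, p ≤ q → (q (cs b) ≤ p (cs b) ∨ q (cs b) ≤ q (cs a)) →
    (q (xs b) ≤ p (xs b) ∨ q (xs b) ≤ q (xs a)) →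
    g p - g q ≤ ∑ k ∈ ({cs b, xs b} : Finset (Fin 12))ᶜ, (q k - p k)
  own : ∀ p ∈ L, ∀ q ∈ L, p ≤ q → p 0 = 0 → p 2 = 0 → p 7 = 0 → p 8 = 0 →
    (1 - s) * q 0 ≤ g p - g q

theorem PZi.pz {L : Set (Fin 12 → ℝ)} {s : ℝ} {a b : Fin 2} {g : (Fin 12 → ℝ) → ℝ}
    (P : PZi L s a b g) : PZ L s a b g :=
  ⟨P.ab, P.cost, fun p hp q hq hpq h0 _ h2 h7 h8 => P.own p hp q hq hpq h0 h2 h7 h8⟩

theorem PZi.of_prf {L : Set (Fin 12 → ℝ)} {s : ℝ} {a b : Fin 2} {Vis : Fin 12 → Prop}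
    {β : Fin 12 → ℝ} {g : (Fin 12 → ℝ) → ℝ} (P : Prf L s a b Vis β g)
    (hV : ∀ k, Vis k → k = 0 ∨ k = 2 ∨ k = 7 ∨ k = 8) : PZi L s a b g where
  ab := P.ab
  cost := P.cost
  own := fun p hp q hq hpq h0 h2 h7 h8 => by
    have := P.own p hp q hq hpq 0 h0.le fun k hk => by
      rw [zero_mul]
      rcases hV k hk with rfl | rfl | rfl | rfl
      · exact h0.le
      · exact h2.le
      · exact h7.le
      · exact h8.le
    rwa [sub_zero] at this

section nine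

variable {θa θb s sg : ℝ} {B : Fin 9 → ℝ} {a b : Fin 2}

/-- room off the class of `z`, slot `D` free -/
def w9i (K : ℝ) : Fin 9 → ℝ := ![0, K, K, K, K, K, 0, 0, K]

theorem leg_w9i {K : ℝ} (hK : 0 ≤ K) : Leg9 (w9i K) := by
  constructor <;> simp [w9i] <;> linarith

theorem leg_w9iz (hS : SOk (nat9 1 (-θa) (-θb)) B sg)
    (hz : ∀ i : Fin 9, Par (nat9 1 (-θa) (-θb)) B 0 i → i = 0 ∨ i = 6 ∨ i = 7)
    {K : ℝ} (hK : dz9 θa θb sg B 6 ≤ K) (hK7 : dz9 θa θb sg B 7 ≤ K) :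
    Leg9 (w9i K + dz9 θa θb sg B) := by
  have hz' : ∀ i : Fin 9, Par (nat9 1 (-θa) (-θb)) B 0 i → i = 0 ∨ i = 6 ∨ i = 7 ∨ i = 8 :=
    fun i h => by
      rcases hz i h with h1 | h1 | h1
      · exact Or.inl h1
      · exact Or.inr (Or.inl h1)
      · exact Or.inr (Or.inr (Or.inl h1))
  have h0 := dz9_zero hS
  have h1 := dz9_off (sg := sg) hz' (i := 1) (by decide)
  have h2 := dz9_off (sg := sg) hz' (i := 2) (by decide)
  have h3 := dz9_off (sg := sg) hz' (i := 3) (by decide)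
  have h4 := dz9_off (sg := sg) hz' (i := 4) (by decide)
  have h5 := dz9_off (sg := sg) hz' (i := 5) (by decide)
  have h6 := dz9_nonneg hS 6
  have h7 := dz9_nonneg hS 7
  have h8 := dz9_nonneg hS 8
  constructor <;> simp [w9i, h0, h1, h2, h3, h4, h5] <;> linarith

/-- **`Cl9` at `z0`, `D` live and invisible, outside the class of `z`** -/
theorem cl9_of9i (hS : SOk (nat9 1 (-θa) (-θb)) B sg) {J : Type*}
    {lam lam2 : J → (Fin 12 → ℝ) → ℝ} {j0 : J} {ρ ρ2 : Fin 9 → ℝ} {κ l α : ℝ} {h : ℕ → ℝ}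
    (hH : Half9 θa θb B sg lam j0 ρ κ l α h lam2 ρ2)
    (P : PZi (L9B θa θb B sg) s a b (lam2 j0)) {c : Fin 9 → Fin 9}
    (hc : ∀ i j : Fin 9, c i = c j ↔ Par (nat9 1 (-θa) (-θb)) B i j)
    (hz : ∀ i : Fin 9, Par (nat9 1 (-θa) (-θb)) B 0 i → i = 0 ∨ i = 6 ∨ i = 7) :
    ∃ φ, Cl9 c (dl (nat9 1 (-θa) (-θb)) B sg) s (fun w => lam2 j0 (RL9.vec w)) φ ρ2 := by
  obtain ⟨D, φ0, r, hO⟩ := hH.out
  obtain ⟨Φ, C⟩ := core_of (R := RL9) hS RL9_full hO hH.rates (c := c) hc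
  have hmem : ∀ w : V9, LegM 0 w → RL9.vec w ∈
      (RL9.srf 0 (nat9 1 (-θa) (-θb)) B sg).L (mw monL) := fun w hw => mem9L (leg9_of hw)
  have hcx : ∀ w : Fin 9 → ℝ, RL9.vec w (cs b) = RL9.vec w (cs a) ∧
      RL9.vec w (xs b) = RL9.vec w (xs a) := by
    intro w
    rw [vec9_apply, vec9_apply, vec9_apply, vec9_apply]
    fin_cases a <;> fin_cases b <;> exact ⟨rfl, rfl⟩
  refine ⟨Φ, ⟨fun w hw => C.sum _ (hmem w hw), C.loc, fun k hk w => C.empty k w hk, C.rate, ?_,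
    fun w w' hw hw' hww => ?_, ?_, fun w w' hw hw' hww => ?_⟩⟩
  · -- Lipschitz
    refine ⟨⟨∑ i, RL9.mu i, Finset.sum_nonneg fun i _ => (RL9.pos i).le⟩, fun k => ?_⟩
    refine LipschitzOnWith.of_dist_le_mul fun w hw w' hw' => ?_
    rw [Real.dist_eq, dist_eq_norm]
    exact C.lip (M := {w | LegM 0 w}) (fun v hv => hmem v hv)
      (fun v hv v' hv' => legM_sup hv hv') k hw hw'
  · -- anti
    have h1 := C.sum _ (hmem w hw)
    have h2 := C.sum _ (hmem w' hw')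
    have h3 : 0 ≤ ∑ k, (Φ k w - Φ k w') := Finset.sum_nonneg fun k _ =>
      (C.mono k _ _ (hmem w hw) (hmem w' hw') fun i _ => hww i).1
    rw [Finset.sum_sub_distrib] at h3
    change lam2 j0 (RL9.vec w') ≤ lam2 j0 (RL9.vec w)
    linarith
  · -- own
    obtain ⟨K, hK0, hK, hK7⟩ : ∃ K : ℝ, 0 ≤ K ∧ dz9 θa θb sg B 6 ≤ K ∧ dz9 θa θb sg B 7 ≤ K :=
      ⟨dz9 θa θb sg B 6 + dz9 θa θb sg B 7, add_nonneg (dz9_nonneg hS 6) (dz9_nonneg hS 7),
        by linarith [dz9_nonneg hS 7], by linarith [dz9_nonneg hS 6]⟩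
    have hl1 := leg_w9i hK0
    have hl2 := leg_w9iz hS hz hK hK7
    have e : RL9.vec (w9i K + dz9 θa θb sg B) =
        RL9.vec (w9i K) + (1:ℝ) • RL9.eG (nat9 1 (-θa) (-θb)) B sg 0 := by
      rw [vec_dz9, one_smul, RS.vec_add]
    have k1 := hH.rates.grp 0 (RL9.vec (w9i K)) 0 1 (fun i hi => by
      have h1 := hz _ hi
      simp only [RS.vec, mul_zero]
      rcases h1 with h1 | h1 | h1 <;> rw [h1] <;> simp [w9i]) (mem9L hl1) (by
      rw [← e]; exact mem9L hl2)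
    rw [← e, mul_one] at k1
    have k2 := P.own _ (mem9B hl1) _ (mem9B hl2) (vec9_le fun i => by
      rw [Pi.add_apply]; linarith [dz9_nonneg hS i]) (by rw [vec9_apply]; simp [cl9, w9i])
      (by rw [vec9_apply]; simp [cl9, w9i])
      (by rw [vec9_apply]; simp [cl9, w9i]) (by rw [vec9_apply]; simp [cl9, w9i])
    have k3 : RL9.vec (w9i K + dz9 θa θb sg B) 0 = 1 := by
      rw [vec9_apply]
      simp [cl9, w9i, dz9_zero hS]
    rw [k3, mul_one] at k2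
    linarith
  · -- cost
    have h1 := P.cost _ (mem9B (leg9_of hw)) _ (mem9B (leg9_of hw'))
      (vec9_le hww) (Or.inr (hcx _).1.le) (Or.inr (hcx _).2.le)
    rw [cost_sum9 P.ab] at h1
    refine h1.trans (le_of_eq ?_)
    refine Finset.sum_congr rfl fun i _ => ?_
    congr 1
    fin_cases i <;> rfl

end nine

end Crest.Agent.R116.Tq126
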