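import Crest.Agent.R116.Tm8_647
import Crest.Agent.R116.NZ11_90
import Crest.Agent.R116.Tp6_139
import Crest.Agent.R116.Pd2_363
import Crest.Agent.R116.Tq4_126

/-!
# R116, `κ`-tie (helper363): tables and values of the planes `kD` and `oS`

* `plK_kD`      : 741's table `PlK` of `kD`, `k < 1`
* `plU_oS`      : 139's table `PlU` of `oS`, `κ = θ - θb`
* `T8`, `V8`    : record identity and D-max of the class function of a plane
* `tvS`         : 139's `TV` of the plane `oS`, `κ ≠ 1`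
-/

set_option autoImplicit false
set_option linter.unusedVariables false
set_option linter.unusedSectionVars false

open Set Filter Topology MeasureTheory

namespace Crest.Agent.R116.FlK363

open Crest.Agent.R138
open Crest.Agent.R138.Ex926 (Base U IsTan)
open Crest.Agent.R136
open Crest.Agent.R116.PL504 (nb rL eL βL)
open Crest.Agent.R116.Sg337 (DL coneL)
open Crest.Agent.R116.RbM219
open Crest.Agent.R116.RbK219
open Crest.Agent.R116.Kz647
open Crest.Agent.R116.Tp139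
open Crest.Agent.R116.Tq741
open Crest.Agent.R116.Tq126
open Crest.Agent.R116.Rcx363
open Crest.Agent.R116.Pd363
open Crest.Agent.R116.NZ90 (Lam8)
open ChL222 (monL)
open Tie460 (Pl KF' S1 KUp')
open Dg219 (mw Walls)
open Sl741 (slice xt rs)

theorem nat_cut (v c p : ℝ) : (fun i : Fin 8 => nat9 v c p i.castSucc) = nat8 v c p := by
  funext i
  fin_cases i <;> rfl

/-! ### tables -/

theorem cK_half : cK (1 / 2) = ![0, 1, 2, 3, 4, 5, 5, 0, 8] := by
  funext i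
  fin_cases i <;> evc <;> norm_num [cK]

theorem cK_gen {k : ℝ} (h1 : k ≠ 1) (h2 : k ≠ 2) (h : k ≠ 1 / 2) :
    cK k = ![0, 1, 2, 3, 4, 5, 6, 0, 8] := by
  unfold cK
  rw [if_neg h2, if_neg h1, if_neg h1, if_neg h1, if_neg h]

theorem par_half : ∀ t t' : Fin 9, (![0, 1, 2, 3, 4, 5, 5, 0, 8] : Fin 9 → Fin 9) t =
    (![0, 1, 2, 3, 4, 5, 5, 0, 8] : Fin 9 → Fin 9) t' ↔ (t = t' ∨ (t = 0 ∧ t' = 7) ∨
      (t = 7 ∧ t' = 0) ∨ ((t = 5 ∧ t' = 6) ∨ (t = 6 ∧ t' = 5))) := by decide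

theorem par_gen : ∀ t t' : Fin 9, (![0, 1, 2, 3, 4, 5, 6, 0, 8] : Fin 9 → Fin 9) t =
    (![0, 1, 2, 3, 4, 5, 6, 0, 8] : Fin 9 → Fin 9) t' ↔ (t = t' ∨ (t = 0 ∧ t' = 7) ∨
      (t = 7 ∧ t' = 0)) := by decide

theorem plK_kD {θ θb k : ℝ} (hk1 : k < 1) (hb : θb = 2 * θ - k) :
    PlK k (cK k) (sn8 (dl (nat8 1 (-θ) (-θb)) kD (-1)) 1) where
  par := fun t t' => by
    unfold PK
    by_cases h : k = 1 / 2
    · rw [h, cK_half, par_half]
      simp
    · rw [cK_gen hk1.ne (by linarith) h, par_gen]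
      constructor
      · rintro (h1 | h1 | h1)
        · exact Or.inl h1
        · exact Or.inr (Or.inl h1)
        · exact Or.inr (Or.inr (Or.inl h1))
      · rintro (h1 | h1 | h1 | ⟨h1, -⟩)
        · exact Or.inl h1
        · exact Or.inr (Or.inl h1)
        · exact Or.inr (Or.inr h1)
        · exact absurd h1 h
  d7 := by
    show dl _ _ _ 7 = k * dl _ _ _ 0
    have b7 : kD 7 = 0 := by ev8; ring
    have b0 : kD 0 = 0 := by ev8
    unfold dl
    rw [if_pos b7, if_pos b0]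
    ev8; rw [hb]; ring
  d5 := fun _ => by
    show dl _ _ _ 5 = 2 * dl _ _ _ 6
    have b5 : kD 5 = -2 := by ev8; ring
    have b6 : kD 6 = -1 := by ev8; ring
    unfold dl
    rw [b5, b6, if_neg (by norm_num), if_neg (by norm_num)]; ring

theorem cS_half : cS (1 / 2) = ![0, 1, 2, 3, 4, 2, 0, 0, 8] := by
  funext i
  fin_cases i <;> evc <;> norm_num [cS]

theorem cS_one : cS 1 = ![0, 1, 2, 2, 4, 5, 0, 0, 8] := by
  funext i
  fin_cases i <;> evc <;> norm_num [cS]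

theorem cS_gen {k : ℝ} (h1 : k ≠ 1) (h : k ≠ 1 / 2) :
    cS k = ![0, 1, 2, 3, 4, 5, 0, 0, 8] := by
  unfold cS
  rw [if_neg h1, if_neg h]

/-- 139's table of `oS` -/
theorem plU_oS {θ θb k : ℝ} : PlU k (cS k) (sn8 (dl (nat8 1 (-θ) (-θb)) oS 1) 1) := by
  have d2 : sn8 (dl (nat8 1 (-θ) (-θb)) oS 1) 1 2 = 1 := by
    show dl _ _ _ 2 = 1
    unfold dl; rw [s2, if_neg one_ne_zero, mul_one]
  have d3 : sn8 (dl (nat8 1 (-θ) (-θb)) oS 1) 1 3 = 1 := by
    show dl _ _ _ 3 = 1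
    unfold dl; rw [s3, if_neg one_ne_zero, mul_one]
  have d5 : sn8 (dl (nat8 1 (-θ) (-θb)) oS 1) 1 5 = 2 := by
    show dl _ _ _ 5 = 2
    unfold dl; rw [s5, if_neg two_ne_zero, one_mul]
  by_cases h1 : k = 1
  · subst h1
    rw [cS_one]
    refine ⟨by decide, by unfold Tp139.Al; decide, by unfold Tp139.Al; decide, fun h => absurd rfl h,
      fun _ => by unfold Tp139.Al; decide, fun h => absurd rfl h, fun _ => ⟨by decide, by decide, ?_⟩,
      fun h => absurd h (by norm_num), by decide⟩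
    rw [d3, d2]
  by_cases h2 : k = 1 / 2
  · subst h2
    rw [cS_half]
    refine ⟨by decide, by unfold Tp139.Al; decide, by unfold Tp139.Al; decide, fun _ => by unfold Tp139.Al; decide,
      fun h => absurd rfl h, fun _ h => absurd rfl h, fun h => absurd h h1,
      fun _ => ⟨by decide, by decide, ?_⟩, by decide⟩
    rw [d5, d2]; norm_num
  · rw [cS_gen h1 h2]
    exact ⟨by decide, by unfold Tp139.Al; decide, by unfold Tp139.Al; decide, fun _ => by unfold Tp139.Al; decide,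
      fun _ => by unfold Tp139.Al; decide, fun _ _ => by unfold Tp139.Al; decide, fun h => absurd h h1,
      fun h => absurd h h2, by decide⟩

/-! ### values -/

section val

variable {L : Set (Fin 12 → ℝ)} {s : ℝ} {a b : Fin 2} {Vis : Fin 12 → Prop}
    {θ θb g qa qb t : ℝ} {lam lam2 : Fin 2 → (Fin 12 → ℝ) → ℝ} {ρ ρ2 : Fin 8 → ℝ}
    {κ l α sg v c p : ℝ} {h : ℕ → ℝ} {B : Fin 8 → ℝ}

theorem b8_nat' (v c p : ℝ) : xt kp 0 (RL8.vec (nat8 v c p)) = ntD 0 v c p := b8_nat _ _ _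

/-- record identity of the record tangent -/
theorem rec8 (hrx : Rx (L8 θ θb t) (ntD 0) s a b Vis θ θb g qa qb (lam 0)) :
    lam 0 (xt kp 0 (RL8.vec (nat8 1 (-θ) (-θb)))) = DL g s qa qb 1 (-θ) (-θb) := by
  have h1 := hrx.rcd 1
  rw [mul_one, mul_one] at h1
  rw [b8_nat']; exact h1

/-- record identity of the class function of a plane -/
theorem T8 (H : Half8 θ θb t B sg lam 0 ρ κ l α h lam2 ρ2) (h0 : lam 0 0 = 0)
    (hrx : Rx (L8 θ θb t) (ntD 0) s a b Vis θ θb g qa qb (lam 0)) :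
    Lam8 (lam2 0) (nat9 1 (-θ) (-θb)) = DL g s qa qb 1 (-θ) (-θb) := by
  have h1 := H.rcd 1
  rw [one_smul] at h1
  show lam2 0 (xt kp 0 (RL8.vec (fun i : Fin 8 => nat9 1 (-θ) (-θb) i.castSucc))) = _
  rw [nat_cut]
  rw [h1, xt_zero8, h0, sub_zero]
  exact rec8 hrx

/-- D-max of the class function of a natural plane -/
theorem V8 (H : Half8 θ θb t (nat8 v c p) sg lam 0 ρ (DL g s qa qb v c p) l α h lam2 ρ2) :
    Lam8 (lam2 0) (nat9 v c p) ≤ DL g s qa qb v c p := by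
  show lam2 0 (xt kp 0 (RL8.vec (fun i : Fin 8 => nat9 v c p i.castSucc))) ≤ _
  rw [nat_cut]
  exact H.row

/-- 139's `TV` of the plane `oS`, `κ ≠ 1` -/
theorem tvS (H : Half8 θ θb t oS 1 lam 0 ρ (DL g s qa qb 0 1 1) l α h lam2 ρ2) (h0 : lam 0 0 = 0)
    (hrx : Rx (L8 θ θb t) (ntD 0) s a b Vis θ θb g qa qb (lam 0)) (hb : θb < θ) (hb2 : θb < 2 * θ)
    (h1 : θ - θb ≠ 1) {φ : Fin 9 → V9 → ℝ} {dl' : V9}
    (C : Cl9 (cS (θ - θb)) dl' s (Lam8 (lam2 0)) φ (sn8 ρ2 0))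
    (hh : θ - θb = 1 / 2 → rE (cS (θ - θb)) φ / 2 + (1 - hE (cS (θ - θb)) φ) = ρ2 5) :
    TV θ θb s g qa qb (ρ2 0) (ρ2 1) (rE (cS (θ - θb)) φ) (1 - xE (cS (θ - θb)) φ) (ρ2 4)
      (1 - hE (cS (θ - θb)) φ) := by
  have eκ : DL g s qa qb 0 1 1 = -(4 + qa + qb) := by unfold DL; ring
  rw [eκ] at H
  have hx : (1 - xE (cS (θ - θb)) φ) = ρ2 3 := by
    rw [xE_al C (by
      by_cases h2 : θ - θb = 1 / 2
      · rw [h2, cS_half]; decide
      · rw [cS_gen h1 h2]; decide)]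
    show 1 - (1 - ρ2 3) = _
    ring
  rw [hx]
  by_cases h2 : θ - θb = 1 / 2
  · exact tv8_h H h0 (rec8 hrx) hb2 h2 (hh h2)
  · have hr : rE (cS (θ - θb)) φ = ρ2 2 := by
      rw [rE_al C (by rw [cS_gen h1 h2]; decide)]; rfl
    have hH : (1 - hE (cS (θ - θb)) φ) = ρ2 5 := by
      rw [hE_al C (by rw [cS_gen h1 h2]; decide)]
      show 1 - (1 - ρ2 5) = _
      ring
    rw [hr, hH]
    exact Tp139.tv8 H h0 (rec8 hrx) hb hb2 h1 h2

end val

end Crest.Agent.R116.FlK363
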