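import Crest.Agent.R116.KTie_794
import Crest.Agent.R116.IIr3_460

/-!
# R116, ROW TIE: the data of `eTie_false'`, `kTie_false'`, `dTie_false'` as fills (helper460)

`falseE_of'`, `falseK_of'`, `falseD_of'` : drop-in replacements of 794's `falseE_of`, `falseK_of`,
`falseD_of` for the primed data (IIr3).
-/

set_option autoImplicit false
set_option linter.unusedVariables false

open Finset Filter Topology

namespace Crest.Agent.R116.Tie460

open Crest.Agent.R116.KTop387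
open Crest.Agent.R116.KTie794

/-- the data of `eTie_false'`, `k = θa - θb` -/
def ETie' (k θ s c qa qb : ℝ) : Prop :=
  ∃ A : Pl, EF' s k A ∧ (k = 1 → A.FanA s) ∧ (k < 1 → A.d = 0) ∧ A.Tan c θ (θ - k) qa qb ∧
    0 ≤ A.Fa qa + A.Fb qb ∧ qa ≤ A.m ∧
    (k ≤ θ → θ < 1 / 2 → ∃ B, EUpNZ k θ s c qa qb A B) ∧
    (θ < k → θ < 1 / 2 ∨ θ < k / 2 ∨ k = 1 →
      ∃ B, EUp' k θ s c qa qb A B ∧ (k < 1 → B.d = 0))

/-- the data of `kTie_false'`, `k = 2 θa - θb` -/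
def KTie' (k θ s c qa qb : ℝ) : Prop :=
  ∃ A : Pl, KF' s k A ∧ (k < 1 → A.d = 0) ∧ A.Tan c θ (2 * θ - k) qa qb ∧
    0 ≤ A.Fa qa + 2 * A.Fb qb ∧ qa ≤ A.m ∧
    (k ≤ θ → k < 1 → c + qa + qb ≤ A.m + A.r) ∧
    (θ < k → k < 1 → ∃ B, S1 k θ s c qa qb A B) ∧
    (2 * θ < k → 1 ≤ k → ∃ B, KUp' k θ s c qa qb A B)

/-- the data of `dTie_false'`, `k = θa - θb`, `k' = 2 θa - θb` -/
def DTie' (k k' θ s c qa qb : ℝ) : Prop :=
  ∃ A : Pl, KF' s k' A ∧ (k' < 1 → A.d = 0) ∧ A.Tan c θ (θ - k) qa qb ∧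
    0 ≤ A.Fa qa + 2 * A.Fb qb ∧ qa ≤ A.m ∧
    (k' < 1 → ∃ B, DUpNZ k k' θ s c qa qb A B) ∧
    (1 ≤ k' → θ < k → k ≤ 1 ∨ θ ≤ k / 2 → ∃ B, EUp' k θ s c qa qb A B)

section

variable {k k' θ s c qa qb : ℝ}

theorem ETie'.false (N : Num θ s c qa qb) (hk : 0 < k) (h : ETie' k θ s c qa qb) : False := by
  obtain ⟨A, h1, h1', h2, h3, h4, h5, h6, h7⟩ := h
  exact eTie_false' N hk h1 h1' h2 h3 h4 h5 h6 h7

theorem KTie'.false (N : Num θ s c qa qb) (hk : 0 < k) (h : KTie' k θ s c qa qb) : False := by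
  obtain ⟨A, h1, h2, h3, h4, h5, h6, h7, h8⟩ := h
  exact kTie_false' N hk h1 h2 h3 h4 h5 h6 h7 h8

theorem DTie'.false (N : Num θ s c qa qb) (hk : 0 < k) (hkk : k' = k + θ)
    (h : DTie' k k' θ s c qa qb) : False := by
  obtain ⟨A, h1, h2, h3, h4, h5, h6, h7⟩ := h
  exact dTie_false' N hk hkk h1 h2 h3 h4 h5 h6 h7

end

/-- primed table for the `e`-tie -/
theorem falseE_of' {η : ℝ} (hη : η < 1)
    (h : Fill η (fun θ B I lev fl sc => VisB θ B I lev fl sc ∧ InvE B I fl sc)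
      fun g s θ q => θ 1 < θ 0 → ETie' (θ 0 - θ 1) (θ 0) s (g + 2 * s) (q 0) (q 1)) :
    FalseE η := by
  intro g s θ q hN
  obtain ⟨R1, h⟩ := h g s θ q hN
  refine ⟨R1, fun Rg hRg => ?_⟩
  intro G L r B I lev A f b vm w fr fl sc w0 sa sb δ R I0 I' ν own c₀ C hV
  have hk := TieT.kB hV.1
  exact (h Rg hRg G L r B I lev A f b vm w fr fl sc w0 sa sb δ R I0 I' ν own c₀
    C hV (by linarith)).false (num_of hη hN) hk

/-- primed table for the `κ`-tie -/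
theorem falseK_of' {η : ℝ} (hη : η < 1)
    (h : Fill η (fun θ B I lev fl sc => InvB B I fl sc ∧ VisE θ B I lev fl sc)
      fun g s θ q => θ 1 < 2 * θ 0 → KTie' (2 * θ 0 - θ 1) (θ 0) s (g + 2 * s) (q 0) (q 1)) :
    FalseK η := by
  intro g s θ q hN
  obtain ⟨R1, h⟩ := h g s θ q hN
  refine ⟨R1, fun Rg hRg => ?_⟩
  intro G L r B I lev A f b vm w fr fl sc w0 sa sb δ R I0 I' ν own c₀ C hV
  have hk := TieT.kE hV.2
  exact (h Rg hRg G L r B I lev A f b vm w fr fl sc w0 sa sb δ R I0 I' ν own c₀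
    C hV (by linarith)).false (num_of hη hN) hk

/-- primed table for the double tie -/
theorem falseD_of' {η : ℝ} (hη : η < 1)
    (h : Fill η (fun θ B I lev fl sc => VisB θ B I lev fl sc ∧ VisE θ B I lev fl sc)
      fun g s θ q => θ 1 < θ 0 →
        DTie' (θ 0 - θ 1) (2 * θ 0 - θ 1) (θ 0) s (g + 2 * s) (q 0) (q 1)) :
    FalseD η := by
  intro g s θ q hN
  obtain ⟨R1, h⟩ := h g s θ q hN
  refine ⟨R1, fun Rg hRg => ?_⟩
  intro G L r B I lev A f b vm w fr fl sc w0 sa sb δ R I0 I' ν own c₀ C hV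
  have hk := TieT.kB hV.1
  exact (h Rg hRg G L r B I lev A f b vm w fr fl sc w0 sa sb δ R I0 I' ν own c₀
    C hV (by linarith)).false (num_of hη hN) hk (by ring)

end Crest.Agent.R116.Tie460
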