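import Crest.Agent.R116.NZ8_90
import Crest.Agent.R116.Rcx5_363

/-!
# R116, K-TEXT II-c: the `N`-`z` chain rule over the record output of 363 (helper90)

* `lamOk_of`  : `Prf` + Lipschitz ⊢ `LamOk`
* `Out8.lamOk`
* `kH_half`   : `kH_le` over 647's `Half8`
-/

set_option autoImplicit false
set_option linter.unusedVariables false

open Set Filter Topology

namespace Crest.Agent.R116.NZ90

open Crest.Agent.R136
open Crest.Agent.R138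
open Dg219 (Walls mw Cone)
open Dg262 (SupOn)
open Sl741 (slice xt rs)
open RbK219 RbM219
open ChL222 (monL mfL)
open Tp139
open Rcx363
open Kz647

theorem lamOk_of {L : Set (Fin 12 → ℝ)} {s : ℝ} {a b : Fin 2} {Vis : Fin 12 → Prop}
    {β : Fin 12 → ℝ} {lam : (Fin 12 → ℝ) → ℝ} {K : ℝ} (hK : 0 ≤ K) (H : Prf L s a b Vis β lam)
    (lip : ∀ p ∈ L, ∀ q ∈ L, |lam p - lam q| ≤ K * dist p q)
    (hV : ∀ k, Vis k → k = 0 ∨ k = 1 ∨ k = 2 ∨ k = 7 ∨ k = 8) : LamOk L lam K (1 - s) where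
  K0 := hK
  sup := H.sm
  anti := fun p hp q hq hle => by linarith [(H.anti p hp q hq hle).1]
  lip := lip
  own := fun p hp q hq hle h0 h1 h2 h7 h8 => by
    have := H.own p hp q hq hle 0 h0.le fun k hk => by
      rw [zero_mul]
      rcases hV k hk with rfl | rfl | rfl | rfl | rfl
      · exact h0.le
      · exact h1.le
      · exact h2.le
      · exact h7.le
      · exact h8.le
    rwa [sub_zero] at this

/-- over 363's record output -/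
theorem Out8.lamOk {R s : ℝ} {a b : Fin 2} {Vis : Fin 12 → Prop} {θa θb g qa qb t : ℝ}
    {T : Type*} {B : T → Fin 8 → ℝ} {sg : T → ℝ} {x0 : Fin 12 → ℝ}
    {f : Fin 2 → (Fin 12 → ℝ) → ℝ} {x : ℕ → Fin 12 → ℝ} {hh : ℕ → ℝ}
    {lam : Fin 2 → (Fin 12 → ℝ) → ℝ}
    (O : Rcx363.Out8 R s a b Vis θa θb g qa qb t B sg x0 f x hh lam)
    (hV : ∀ k, Vis k → k = 0 ∨ k = 1 ∨ k = 2 ∨ k = 7 ∨ k = 8) :
    LamOk (L8 θa θb t) (lam 0) 12 (1 - s) :=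
  lamOk_of (by norm_num) O.rx.prf (O.lip 0) hV

/-- `kH_le` at the generic point of 647 -/
theorem kH_half {θ θb k t : ℝ} (ht : t ≠ 0) (hθ : 0 < θ) (hθk : θ < k) (hk : k = 1 / 2)
    (hb : θb = 2 * θ - k) {ch : ℝ} (hch : 0 < ch) {J : Type*} {lam : J → (Fin 12 → ℝ) → ℝ}
    {j0 : J} {K own : ℝ} (hl : LamOk (L8 θ θb t) (lam j0) K own) {ρh : Fin 8 → ℝ}
    (rh : Rates8 θ θb t kH (-1) ch (lam j0) ρh) {ρ : Fin 8 → ℝ} {κ l α : ℝ} {h : ℕ → ℝ}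
    {lam2 : J → (Fin 12 → ℝ) → ℝ} {ρ2 : Fin 8 → ℝ}
    (H : Half8 θ θb t kD (-1) lam j0 ρ κ l α h lam2 ρ2) {c : K8 → ℝ} {b y : ℝ}
    (hcb : ∀ i : K8, cl8 i.1 = 6 → c i = b) (hy : 0 ≤ y)
    (hc : c ∈ (srf8 θ θb t kD (-1)).L (Q8 t))
    (hc' : c + y • RL8.e 6 ∈ (srf8 θ θb t kD (-1)).L (Q8 t)) :
    ρh 6 * y ≤ lam2 j0 (xt kp 0 c) - lam2 j0 (xt kp 0 (c + y • RL8.e 6)) :=
  kH_le ht hθ hθk hk hb hch hl rh H.lpos H.hpos H.lim (H.tan j0) hcb hy hc hc'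

end Crest.Agent.R116.NZ90
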