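import Crest.Agent.R116.Pe0_794
import Crest.Agent.R116.Pd2_363
import Crest.Agent.R116.Kt2_710
import Crest.Agent.R116.Tp4_139

/-!
# R116 (K side, TIES), Pd3 (helper363): the static facts at the planes above the record

The flag `G` (slot `2`) of `oS`, `oS9`, `oSe` stands above its natural value, so the walls which
contain it are slack.
* `W9 X`                : the nine walls without `D`, `E` are tight
* **`fct8U`**, **`fct9U`** : 794's `fct8`, `fct9` without the other walls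
* `fct8U_ctx`, `fct9U_ctx` : over the context
* **`pd8_fctS`**, **`pd9_fctS`**, **`pd9_fctSe`** : the facts of the planes `oS`, `oS9`, `oSe`
-/

set_option autoImplicit false
set_option linter.unusedSectionVars false
set_option linter.unusedVariables false

open Set Filter Topology

namespace Crest.Agent.R116.Pd3x363

open Crest.Agent.R138
open Crest.Agent.R138.Ex926 (Base U IsTan)
open Crest.Agent.R136
open Crest.Agent.R136.MkA627
open Crest.Agent.R136.TD627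
open Crest.Agent.R136.Net191
open Crest.Agent.R136.Lq196
open Crest.Agent.R136.Qg926 Crest.Agent.R136.Gf356 Crest.Agent.R116.EvL504
open Crest.Agent.R116.ChL222
open Crest.Agent.R116.PL504 (nb rL DN eL βL oL Shift eL_wall)
open Crest.Agent.R116.Sg337 (bx9)
open Crest.Agent.R116.Gd222 (TSet sN PDL DT)
open Crest.Agent.R116.KI439
open Crest.Agent.R116.KF439 (PL)
open Crest.Agent.R116.CtxB468
open Crest.Agent.R116.Rcx363 (fo fo_lip Prf)
open Crest.Agent.R116.RbM219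
open Crest.Agent.R116.RbK219 (RS)
open Crest.Agent.R116.Kz647
open Crest.Agent.R116.Pd363
open Crest.Agent.R116.SgF665 (wl wl_add wl_smul LM0 mem_LM0 bx9_mem LinTan LinFacts)
open Crest.Agent.R116.Kg330 (LinTanM ThinB ThinM BsF BsM LinFactsR linFactsR bsF_shift bsM_shift
  Pr2 pr2_bx9)
open Crest.Agent.R116.WinG954 (LM)
open Crest.Agent.R116.Tq741
open Crest.Agent.R116.Tq794
open Crest.Agent.R116.Tp139 (oS oS9 oSe)
open Dg219 (mw Walls)
open Sl741 (slice xt rs)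

/-- the nine walls without `D` and `E` are tight -/
structure W9 (X : ℕ → Fin 12 → ℝ) : Prop where
  x1 : ∀ n, X n 5 = X n 0 + X n 3
  x2 : ∀ n, X n 6 = X n 0 + X n 4
  x3 : ∀ n, X n 9 = X n 3 + X n 5
  x4 : ∀ n, X n 9 = X n 4 + X n 6
  x5 : ∀ n, X n 11 = X n 0 + X n 10
  x6 : ∀ n, X n 11 = X n 7 + X n 5
  x7 : ∀ n, X n 11 = X n 8 + X n 6
  x8 : ∀ n, X n 10 = X n 7 + X n 3
  x9 : ∀ n, X n 10 = X n 8 + X n 4

theorem xval {X : ℕ → Fin 12 → ℝ} {zz cc pp dd ee : ℕ → ℝ}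
    (hXn : ∀ l, X l = eL (zz l) (cc l) (pp l) + dd l • (Pi.single 1 1 : Fin 12 → ℝ) +
      ee l • (Pi.single 2 1 : Fin 12 → ℝ)) (l : ℕ) :
    X l 0 = zz l ∧ X l 1 = pp l - 2 * cc l - zz l + dd l ∧ X l 2 = pp l - 2 * cc l + ee l ∧
    X l 3 = cc l ∧ X l 4 = cc l ∧ X l 5 = zz l + cc l ∧ X l 6 = zz l + cc l ∧
    X l 7 = pp l - cc l ∧ X l 8 = pp l - cc l ∧ X l 9 = zz l + 2 * cc l ∧ X l 10 = pp l ∧
    X l 11 = zz l + pp l := by
  have key : ∀ k, X l k = eL (zz l) (cc l) (pp l) k + dd l * (if k = 1 then 1 else 0) +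
      ee l * (if k = 2 then 1 else 0) := by
    intro k
    rw [hXn l]
    simp only [Pi.add_apply, Pi.smul_apply, smul_eq_mul, Pi.single_apply]
  have v0 : eL (zz l) (cc l) (pp l) 0 = zz l := rfl
  have v1 : eL (zz l) (cc l) (pp l) 1 = pp l - 2 * cc l - zz l := rfl
  have v2 : eL (zz l) (cc l) (pp l) 2 = pp l - 2 * cc l := rfl
  have v3 : eL (zz l) (cc l) (pp l) 3 = cc l := rfl
  have v4 : eL (zz l) (cc l) (pp l) 4 = cc l := rfl
  have v5 : eL (zz l) (cc l) (pp l) 5 = zz l + cc l := rfl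
  have v6 : eL (zz l) (cc l) (pp l) 6 = zz l + cc l := rfl
  have v7 : eL (zz l) (cc l) (pp l) 7 = pp l - cc l := rfl
  have v8 : eL (zz l) (cc l) (pp l) 8 = pp l - cc l := rfl
  have v9 : eL (zz l) (cc l) (pp l) 9 = zz l + 2 * cc l := rfl
  have v10 : eL (zz l) (cc l) (pp l) 10 = pp l := rfl
  have v11 : eL (zz l) (cc l) (pp l) 11 = zz l + pp l := rfl
  refine ⟨?_, ?_, ?_, ?_, ?_, ?_, ?_, ?_, ?_, ?_, ?_, ?_⟩
  · rw [key, v0, if_neg (by decide), if_neg (by decide)]; ring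
  · rw [key, v1, if_pos rfl, if_neg (by decide)]; ring
  · rw [key, v2, if_neg (by decide), if_pos rfl]; ring
  · rw [key, v3, if_neg (by decide), if_neg (by decide)]; ring
  · rw [key, v4, if_neg (by decide), if_neg (by decide)]; ring
  · rw [key, v5, if_neg (by decide), if_neg (by decide)]; ring
  · rw [key, v6, if_neg (by decide), if_neg (by decide)]; ring
  · rw [key, v7, if_neg (by decide), if_neg (by decide)]; ring
  · rw [key, v8, if_neg (by decide), if_neg (by decide)]; ring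
  · rw [key, v9, if_neg (by decide), if_neg (by decide)]; ring
  · rw [key, v10, if_neg (by decide), if_neg (by decide)]; ring
  · rw [key, v11, if_neg (by decide), if_neg (by decide)]; ring

theorem w9_eL {X : ℕ → Fin 12 → ℝ} {zz cc pp dd ee : ℕ → ℝ}
    (hXn : ∀ l, X l = eL (zz l) (cc l) (pp l) + dd l • (Pi.single 1 1 : Fin 12 → ℝ) +
      ee l • (Pi.single 2 1 : Fin 12 → ℝ)) : W9 X := by
  constructor <;> intro n <;>
    obtain ⟨g0, g1, g2, g3, g4, g5, g6, g7, g8, g9, g10, g11⟩ := xval hXn n <;> linarith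

theorem pr2_eL {X : ℕ → Fin 12 → ℝ} {zz cc pp dd ee : ℕ → ℝ}
    (hXn : ∀ l, X l = eL (zz l) (cc l) (pp l) + dd l • (Pi.single 1 1 : Fin 12 → ℝ) +
      ee l • (Pi.single 2 1 : Fin 12 → ℝ)) (l : ℕ) : Pr2 (X l) := by
  obtain ⟨g0, g1, g2, g3, g4, g5, g6, g7, g8, g9, g10, g11⟩ := xval hXn l
  exact ⟨by rw [g4, g3], by rw [g6, g5], by rw [g8, g7]⟩

section frozen

variable {J : Type*} [Finite J] {P : Set (Fin 12 → ℝ)} {f lam2 : J → (Fin 12 → ℝ) → ℝ}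
  {j0 : J} {X : ℕ → Fin 12 → ℝ} {H : ℕ → ℝ} {w R : V9}

/-- 665's `LinTan` at a linear point, some walls slack -/
theorem linTan8U (hpos : ∀ l, 0 < H l) (h0 : Tendsto H atTop (𝓝 0))
    (ht : ∀ j, IsTan P LM0 (f j) X H (lam2 j))
    (hlip : ∃ K : ℝ, 0 ≤ K ∧ ∀ j, ∀ p ∈ LM0, ∀ q ∈ LM0, |lam2 j p - lam2 j q| ≤ K * ‖p - q‖)
    (hx : ∀ k, ∀ e ∈ monL.mon k, e 1 = 0 → (∀ l, X l k = wl e (X l)) ∨
      ∀ K : ℝ, ∀ᶠ n in atTop, X n k + K * H n ≤ wl e (X n))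
    (hxD : ∀ k, ∀ e ∈ monL.mon k, e 1 ≠ 0 → ∀ K : ℝ, ∀ᶠ n in atTop,
      X n k + K * H n ≤ wl e (X n))
    (hw : LegM 0 w) (hL : LinS ∅ (fun w => lam2 j0 (E8 w)) w R)
    {Pr : ℕ → ℕ → Prop} (hPr : ∀ m, ∀ᶠ l in atTop, Pr m l) :
    ∃ (ψ : ℕ → ℕ) (h' : ℕ → ℝ), StrictMono ψ ∧ (∀ m, Pr m (ψ m)) ∧ (∀ m, 0 < h' m) ∧
      Tendsto h' atTop (𝓝 0) ∧
      LinTan P f j0 (fun m => X (ψ m) + H (ψ m) • E8 w) (fun m => H (ψ m) * h' m) (R 0) (R 3)
        (R 5) (R 4) (R 1) (R 2) (R 7) (R 6) := by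
  obtain ⟨ψ, h', lam3, hψ, hPψ, hp', h0', hT, hT', hv⟩ := tan_core (E := E8) LM0_closed
    (by rw [← E8_zero]; exact E8_mem leg_zero) (fun p hp q hq => LM0_add hp hq)
    (fun t ht p hp => LM0_smul ht hp) hpos ht hlip E8_add E8_zero (E8_mem hw) hL hPr
  have hM0 : (0 : Fin 12 → ℝ) ∈ LM0 := by rw [← E8_zero]; exact E8_mem leg_zero
  have hR8 : R 8 = 0 := by
    have hl : LegM 0 (e9 8) := by
      constructor <;> simp [e9]
    have e : E8 (e9 8) = 0 := by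
      funext i; fin_cases i <;> simp [E8, bx9, e9]
    have h1 := hv (e9 8) hl (by rw [e]; exact hM0)
    rw [e, Finset.sum_eq_single 8 (fun i _ hi => by rw [e9_ne hi, mul_zero])
      (fun h => absurd (Finset.mem_univ _) h), e9_same, mul_one,
      tan_zero (fun m => mul_pos (hpos _) (hp' m)) (hT j0) hM0] at h1
    linarith
  have hsum : ∀ (c : ℝ) (m : ℕ) (k : Fin 12), (X (ψ m) + H (ψ m) • E8 w) k =
      X (ψ m) k + H (ψ m) * E8 w k := fun c m k => rfl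
  refine ⟨ψ, h', hψ, hPψ, hp', h0', ⟨fun m => mul_pos (hpos _) (hp' m), tend_mul h0 hψ h0', ?_, ?_,
    LM0, lam3, Subset.rfl, hT, ?_⟩⟩
  · intro k e he
    have slk : (∀ K : ℝ, ∀ᶠ n in atTop, X n k + K * H n ≤ wl e (X n)) → ∀ K : ℝ, ∀ᶠ m in atTop,
        (X (ψ m) + H (ψ m) • E8 w) k + K * (H (ψ m) * h' m) ≤
          wl e (X (ψ m) + H (ψ m) • E8 w) := by
      intro hs K
      have h3 := hψ.tendsto_atTop.eventually (hs (|E8 w k - wl e (E8 w)| + 1))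
      have h4 : ∀ᶠ m in atTop, K * h' m < 1 := by
        have : Tendsto (fun m => K * h' m) atTop (𝓝 0) := by
          simpa using h0'.const_mul K
        exact this.eventually_lt_const (by norm_num)
      filter_upwards [h3, h4] with m m3 m4
      simp only [wl_add, wl_smul, Pi.add_apply, Pi.smul_apply, smul_eq_mul]
      have h5 := mul_le_mul_of_nonneg_left m4.le (hpos (ψ m)).le
      have h6 := mul_le_mul_of_nonneg_left (le_abs_self (E8 w k - wl e (E8 w))) (hpos (ψ m)).le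
      nlinarith
    by_cases h1 : e 1 = 0
    · rcases hx k e he h1 with hxx | hxx
      · rcases (E8_mem hw k e he h1).eq_or_lt with h2 | h2
        · left
          intro n
          simp only [wl_add, wl_smul, Pi.add_apply, Pi.smul_apply, smul_eq_mul]
          rw [hxx, h2]
        · right
          intro K
          have h3 : ∀ᶠ m in atTop, K * h' m < wl e (E8 w) - E8 w k := by
            have : Tendsto (fun m => K * h' m) atTop (𝓝 0) := by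
              simpa using h0'.const_mul K
            exact this.eventually_lt_const (by linarith)
          filter_upwards [h3] with m hm
          simp only [wl_add, wl_smul, Pi.add_apply, Pi.smul_apply, smul_eq_mul]
          rw [hxx]
          have := mul_le_mul_of_nonneg_left hm.le (hpos (ψ m)).le
          nlinarith
      · exact Or.inr (slk hxx)
    · right
      intro K
      have h3 := hψ.tendsto_atTop.eventually (hxD k e he h1 (|E8 w k - wl e (E8 w)| + 1))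
      have h4 : ∀ᶠ m in atTop, K * h' m < 1 := by
        have : Tendsto (fun m => K * h' m) atTop (𝓝 0) := by
          simpa using h0'.const_mul K
        exact this.eventually_lt_const (by norm_num)
      filter_upwards [h3, h4] with m m3 m4
      simp only [wl_add, wl_smul, Pi.add_apply, Pi.smul_apply, smul_eq_mul]
      have h5 := mul_le_mul_of_nonneg_left m4.le (hpos (ψ m)).le
      have h6 := mul_le_mul_of_nonneg_left (le_abs_self (E8 w k - wl e (E8 w))) (hpos (ψ m)).le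
      nlinarith
  · intro k e he h1 K
    have h3 := hψ.tendsto_atTop.eventually (hxD k e he h1 (|E8 w k - wl e (E8 w)| + 1))
    have h4 : ∀ᶠ m in atTop, K * h' m < 1 := by
      have : Tendsto (fun m => K * h' m) atTop (𝓝 0) := by
        simpa using h0'.const_mul K
      exact this.eventually_lt_const (by norm_num)
    filter_upwards [h3, h4] with m m3 m4
    simp only [wl_add, wl_smul, Pi.add_apply, Pi.smul_apply, smul_eq_mul]
    have h5 := mul_le_mul_of_nonneg_left m4.le (hpos (ψ m)).le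
    have h6 := mul_le_mul_of_nonneg_left (le_abs_self (E8 w k - wl e (E8 w))) (hpos (ψ m)).le
    nlinarith
  · intro z C p E B x Hh F hm
    obtain ⟨a1, a2, a3, a4, a5, a6, a7⟩ := bx9_mem.1 hm
    set N : ℝ := |z| + |C| + |p| + |E| + |B| + |x| + |Hh| + |F| with hN
    set d : V9 := ![z, C, p, x, F, Hh, B, E, N] with hd
    have k1 := abs_nonneg z
    have k2 := abs_nonneg C
    have k3 := abs_nonneg p
    have k4 := abs_nonneg E
    have k5 := abs_nonneg B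
    have k6 := abs_nonneg x
    have k7 := abs_nonneg Hh
    have k8 := abs_nonneg F
    have j1 := neg_abs_le z
    have j4 := le_abs_self E
    have j5 := le_abs_self B
    have j6 := neg_abs_le x
    have j3 := le_abs_self p
    have j7 := neg_abs_le Hh
    have hdl : LegM 0 d := by
      constructor
      · show E + 0 ≤ z + N
        linarith
      · show x + 0 ≤ z + C
        linarith
      · show B + 0 ≤ E + C
        linarith
      · show B + 0 ≤ N + x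
        linarith
      · show Hh + 0 ≤ C + x
        linarith
      · show p + 0 ≤ C + B
        linarith
      · show p + 0 ≤ N + Hh
        linarith
      · show F + 0 ≤ z + p
        linarith
      · show F + 0 ≤ x + B
        linarith
      · show F + 0 ≤ E + Hh
        linarith
    have e1 : E8 d = bx9 z 0 E C x B Hh p F := rfl
    have h1 := hv d hdl (by rw [e1]; exact hm)
    rw [← e1, h1]
    simp only [Fin.sum_univ_succ, Fin.sum_univ_zero]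
    have g0 : d 0 = z := rfl
    have g1 : d 1 = C := rfl
    have g2 : d 2 = p := rfl
    have g3 : d 3 = x := rfl
    have g4 : d 4 = F := rfl
    have g5 : d 5 = Hh := rfl
    have g6 : d 6 = B := rfl
    have g7 : d 7 = E := rfl
    change -(R 0 * d 0 + (R 1 * d 1 + (R 2 * d 2 + (R 3 * d 3 + (R 4 * d 4 + (R 5 * d 5 +
      (R 6 * d 6 + (R 7 * d 7 + (R 8 * d 8 + 0))))))))) = _
    rw [g0, g1, g2, g3, g4, g5, g6, g7, hR8]
    ring

/-- **the facts above the record, `D` frozen** -/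
theorem fct8U {s : ℝ} {Sk : V9 → Prop} {Pr : ℕ → ℕ → Prop}
    {Bs Bs1 : (ℕ → Fin 12 → ℝ) → (ℕ → ℝ) → Prop}
    (hpos : ∀ l, 0 < H l) (h0 : Tendsto H atTop (𝓝 0))
    (ht : ∀ j, IsTan P LM0 (f j) X H (lam2 j))
    (hlip : ∃ K : ℝ, 0 ≤ K ∧ ∀ j, ∀ p ∈ LM0, ∀ q ∈ LM0, |lam2 j p - lam2 j q| ≤ K * ‖p - q‖)
    (hW : W9 X) (hx : ∀ k, ∀ e ∈ monL.mon k, e 1 = 0 → (∀ l, X l k = wl e (X l)) ∨
      ∀ K : ℝ, ∀ᶠ n in atTop, X n k + K * H n ≤ wl e (X n))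
    (hxD : ∀ k, ∀ e ∈ monL.mon k, e 1 ≠ 0 → ∀ K : ℝ, ∀ᶠ n in atTop,
      X n k + K * H n ≤ wl e (X n))
    (HL : LinFacts P f j0 Bs s) (HL1 : LinFacts P f j0 Bs1 1)
    (HR : ∀ X h rz rX rH rF gC gP gE gB, Bs1 X h → LinTan P f j0 X h rz rX rH rF gC gP gE gB →
      (∀ n, X n 10 = X n 7 + X n 3) → (∀ n, X n 10 = X n 8 + X n 4) → 0 < gB → gC ≤ gP)
    (hown : ∀ w R, LegM 0 w → Sk w → LinS ∅ (fun w => lam2 j0 (E8 w)) w R → 1 - s ≤ R 0)
    (hnn : ∀ w R, LegM 0 w → LinS ∅ (fun w => lam2 j0 (E8 w)) w R → 0 ≤ R 0)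
    (hPr : ∀ m, ∀ᶠ l in atTop, Pr m l)
    (hBs : ∀ (w R : V9) (ψ : ℕ → ℕ) (h1 : ℕ → ℝ), LegM 0 w → Sk w → StrictMono ψ →
      (∀ m, Pr m (ψ m)) → (∀ m, 0 < h1 m) → Tendsto h1 atTop (𝓝 0) → 1 - s ≤ R 0 →
      LinTan P f j0 (fun m => X (ψ m) + H (ψ m) • E8 w) (fun m => H (ψ m) * h1 m) (R 0) (R 3)
        (R 5) (R 4) (R 1) (R 2) (R 7) (R 6) →
      Bs (fun m => X (ψ m) + H (ψ m) • E8 w) (fun m => H (ψ m) * h1 m))
    (hBs1 : ∀ (w R : V9) (ψ : ℕ → ℕ) (h1 : ℕ → ℝ), LegM 0 w → StrictMono ψ →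
      (∀ m, Pr m (ψ m)) → (∀ m, 0 < h1 m) → Tendsto h1 atTop (𝓝 0) → 0 ≤ R 0 →
      LinTan P f j0 (fun m => X (ψ m) + H (ψ m) • E8 w) (fun m => H (ψ m) * h1 m) (R 0) (R 3)
        (R 5) (R 4) (R 1) (R 2) (R 7) (R 6) →
      Bs1 (fun m => X (ψ m) + H (ψ m) • E8 w) (fun m => H (ψ m) * h1 m)) :
    Fct9 Sk s (fun w => lam2 j0 (E8 w)) := by
  obtain ⟨x1, x2, x3, x4, x5, x6, x7, x8, x9⟩ := hW
  have key : ∀ w R, LegM 0 w → Sk w → LinS ∅ (fun w => lam2 j0 (E8 w)) w R →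
      ∃ (ψ : ℕ → ℕ) (h1 : ℕ → ℝ),
        Bs (fun m => X (ψ m) + H (ψ m) • E8 w) (fun m => H (ψ m) * h1 m) ∧
        LinTan P f j0 (fun m => X (ψ m) + H (ψ m) • E8 w) (fun m => H (ψ m) * h1 m) (R 0) (R 3)
          (R 5) (R 4) (R 1) (R 2) (R 7) (R 6) := by
    intro w R hw hS hL
    obtain ⟨ψ, h1, hψ, hP, hp, h0', hT⟩ := linTan8U hpos h0 ht hlip hx hxD hw hL hPr
    exact ⟨ψ, h1, hBs w R ψ h1 hw hS hψ hP hp h0' (hown w R hw hS hL) hT, hT⟩
  have key1 : ∀ w R, LegM 0 w → LinS ∅ (fun w => lam2 j0 (E8 w)) w R →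
      ∃ (ψ : ℕ → ℕ) (h1 : ℕ → ℝ),
        Bs1 (fun m => X (ψ m) + H (ψ m) • E8 w) (fun m => H (ψ m) * h1 m) ∧
        LinTan P f j0 (fun m => X (ψ m) + H (ψ m) • E8 w) (fun m => H (ψ m) * h1 m) (R 0) (R 3)
          (R 5) (R 4) (R 1) (R 2) (R 7) (R 6) := by
    intro w R hw hL
    obtain ⟨ψ, h1, hψ, hP, hp, h0', hT⟩ := linTan8U hpos h0 ht hlip hx hxD hw hL hPr
    exact ⟨ψ, h1, hBs1 w R ψ h1 hw hψ hP hp h0' (hnn w R hw hL) hT, hT⟩
  refine ⟨?_, ?_, ?_, ?_, ?_, ?_, ?_⟩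
  · intro w R ho hS hL hR
    obtain ⟨ψ, h1, hB, hT⟩ := key w R (one_leg ho) hS hL
    have g : w 0 + w 1 - w 3 = 0 := ho.1
    exact (HL.K1 _ _ _ _ _ _ _ _ _ _ hB hT
      (wall_add (E := E8) (i := 0) (j := 3) (k := 5) x1 (by show w 3 = w 0 + w 1; linarith))
      (wall_add (E := E8) (i := 0) (j := 4) (k := 6) x2 (by show w 3 = w 0 + w 1; linarith))).1 hR
  · intro w R ho hS hL hR
    obtain ⟨ψ, h1, hB, hT⟩ := key w R (one_leg ho) hS hL
    have g : w 0 + w 1 - w 3 = 0 := ho.1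
    exact (HL.K1 _ _ _ _ _ _ _ _ _ _ hB hT
      (wall_add (E := E8) (i := 0) (j := 3) (k := 5) x1 (by show w 3 = w 0 + w 1; linarith))
      (wall_add (E := E8) (i := 0) (j := 4) (k := 6) x2 (by show w 3 = w 0 + w 1; linarith))).2 hR
  · intro w R ho hL hR
    obtain ⟨ψ, h1, hB, hT⟩ := key1 w R (one_leg ho) hL
    have g : w 1 + w 3 - w 5 = 0 := ho.1
    exact HL1.H1 _ _ _ _ _ _ _ _ _ _ hB hT
      (wall_add (E := E8) (i := 3) (j := 5) (k := 9) x3 (by show w 5 = w 1 + w 3; linarith))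
      (wall_add (E := E8) (i := 4) (j := 6) (k := 9) x4 (by show w 5 = w 1 + w 3; linarith)) hR
  · intro w R ho hS hL hR
    obtain ⟨ψ, h1, hB, hT⟩ := key w R (one_leg ho) hS hL
    have g : w 0 + w 2 - w 4 = 0 := ho.1
    exact (HL.K2 _ _ _ _ _ _ _ _ _ _ hB hT
      (wall_add (E := E8) (i := 0) (j := 10) (k := 11) x5 (by show w 4 = w 0 + w 2; linarith))).1 hR
  · intro w R ho hS hL hR
    obtain ⟨ψ, h1, hB, hT⟩ := key w R (one_leg ho) hS hL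
    have g : w 0 + w 2 - w 4 = 0 := ho.1
    exact (HL.K2 _ _ _ _ _ _ _ _ _ _ hB hT
      (wall_add (E := E8) (i := 0) (j := 10) (k := 11) x5 (by show w 4 = w 0 + w 2; linarith))).2 hR
  · intro w R ho hL hR
    obtain ⟨ψ, h1, hB, hT⟩ := key1 w R (one_leg ho) hL
    have g : w 3 + w 6 - w 4 = 0 := ho.1
    exact HL1.S1 _ _ _ _ _ _ _ _ _ _ hB hT
      (wall_add (E := E8) (i := 7) (j := 5) (k := 11) x6 (by show w 4 = w 6 + w 3; linarith))
      (wall_add (E := E8) (i := 8) (j := 6) (k := 11) x7 (by show w 4 = w 6 + w 3; linarith)) hR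
  · intro w R ho hL hR
    obtain ⟨ψ, h1, hB, hT⟩ := key1 w R (one_leg ho) hL
    have g : w 1 + w 6 - w 2 = 0 := ho.1
    exact HR _ _ _ _ _ _ _ _ _ _ hB hT
      (wall_add (E := E8) (i := 7) (j := 3) (k := 10) x8 (by show w 2 = w 6 + w 1; linarith))
      (wall_add (E := E8) (i := 8) (j := 4) (k := 10) x9 (by show w 2 = w 6 + w 1; linarith)) hR

end frozen

section live

variable {J : Type*} [Finite J] {P : Set (Fin 12 → ℝ)} {f lam2 : J → (Fin 12 → ℝ) → ℝ}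
  {j0 : J} {X : ℕ → Fin 12 → ℝ} {H : ℕ → ℝ} {w R : V9}

/-- **the facts above the record, `D` live** -/
theorem fct9U {s : ℝ} {Sk : V9 → Prop} {Pr : ℕ → ℕ → Prop}
    {Bs Bs1 : (ℕ → Fin 12 → ℝ) → (ℕ → ℝ) → Prop}
    (hpos : ∀ l, 0 < H l) (h0 : Tendsto H atTop (𝓝 0))
    (ht : ∀ j, IsTan P LM (f j) X H (lam2 j))
    (hlip : ∃ K : ℝ, 0 ≤ K ∧ ∀ j, ∀ p ∈ LM, ∀ q ∈ LM, |lam2 j p - lam2 j q| ≤ K * ‖p - q‖)
    (hW : W9 X)
    (HL : FactsM P f j0 Bs s) (HL1 : FactsM P f j0 Bs1 1)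
    (hown : ∀ w R, LegM 0 w → Sk w → LinS ∅ (fun w => lam2 j0 (E9 w)) w R → 1 - s ≤ R 0)
    (hnn : ∀ w R, LegM 0 w → LinS ∅ (fun w => lam2 j0 (E9 w)) w R → 0 ≤ R 0)
    (hPr : ∀ m, ∀ᶠ l in atTop, Pr m l)
    (hBs : ∀ (w R : V9) (ψ : ℕ → ℕ) (h1 : ℕ → ℝ), LegM 0 w → Sk w → StrictMono ψ →
      (∀ m, Pr m (ψ m)) → (∀ m, 0 < h1 m) → Tendsto h1 atTop (𝓝 0) → 1 - s ≤ R 0 →
      LinTanM P f j0 (fun m => X (ψ m) + H (ψ m) • E9 w) (fun m => H (ψ m) * h1 m) (R 0) (R 3)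
        (R 5) (R 4) (R 1) (R 2) (R 7) (R 6) (R 8) →
      Bs (fun m => X (ψ m) + H (ψ m) • E9 w) (fun m => H (ψ m) * h1 m))
    (hBs1 : ∀ (w R : V9) (ψ : ℕ → ℕ) (h1 : ℕ → ℝ), LegM 0 w → StrictMono ψ →
      (∀ m, Pr m (ψ m)) → (∀ m, 0 < h1 m) → Tendsto h1 atTop (𝓝 0) → 0 ≤ R 0 →
      LinTanM P f j0 (fun m => X (ψ m) + H (ψ m) • E9 w) (fun m => H (ψ m) * h1 m) (R 0) (R 3)
        (R 5) (R 4) (R 1) (R 2) (R 7) (R 6) (R 8) →
      Bs1 (fun m => X (ψ m) + H (ψ m) • E9 w) (fun m => H (ψ m) * h1 m)) :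
    Fct9 Sk s (fun w => lam2 j0 (E9 w)) := by
  obtain ⟨x1, x2, x3, x4, x5, x6, x7, x8, x9⟩ := hW
  have key : ∀ w R, LegM 0 w → Sk w → LinS ∅ (fun w => lam2 j0 (E9 w)) w R →
      ∃ (ψ : ℕ → ℕ) (h1 : ℕ → ℝ),
        Bs (fun m => X (ψ m) + H (ψ m) • E9 w) (fun m => H (ψ m) * h1 m) ∧
        LinTanM P f j0 (fun m => X (ψ m) + H (ψ m) • E9 w) (fun m => H (ψ m) * h1 m) (R 0) (R 3)
          (R 5) (R 4) (R 1) (R 2) (R 7) (R 6) (R 8) := by
    intro w R hw hS hL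
    obtain ⟨ψ, h1, hψ, hP, hp, h0', hT⟩ := linTan9 hpos h0 ht hlip hw hL hPr
    exact ⟨ψ, h1, hBs w R ψ h1 hw hS hψ hP hp h0' (hown w R hw hS hL) hT, hT⟩
  have key1 : ∀ w R, LegM 0 w → LinS ∅ (fun w => lam2 j0 (E9 w)) w R →
      ∃ (ψ : ℕ → ℕ) (h1 : ℕ → ℝ),
        Bs1 (fun m => X (ψ m) + H (ψ m) • E9 w) (fun m => H (ψ m) * h1 m) ∧
        LinTanM P f j0 (fun m => X (ψ m) + H (ψ m) • E9 w) (fun m => H (ψ m) * h1 m) (R 0) (R 3)
          (R 5) (R 4) (R 1) (R 2) (R 7) (R 6) (R 8) := by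
    intro w R hw hL
    obtain ⟨ψ, h1, hψ, hP, hp, h0', hT⟩ := linTan9 hpos h0 ht hlip hw hL hPr
    exact ⟨ψ, h1, hBs1 w R ψ h1 hw hψ hP hp h0' (hnn w R hw hL) hT, hT⟩
  refine ⟨?_, ?_, ?_, ?_, ?_, ?_, ?_⟩
  · intro w R ho hS hL hR
    obtain ⟨ψ, h1, hB, hT⟩ := key w R (one_leg ho) hS hL
    have g : w 0 + w 1 - w 3 = 0 := ho.1
    exact ((HL _ _ _ _ _ _ _ _ _ _ _ hB hT).1
      (wall_add (E := E9) (i := 0) (j := 3) (k := 5) x1 (by show w 3 = w 0 + w 1; linarith))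
      (wall_add (E := E9) (i := 0) (j := 4) (k := 6) x2 (by show w 3 = w 0 + w 1; linarith))).1 hR
  · intro w R ho hS hL hR
    obtain ⟨ψ, h1, hB, hT⟩ := key w R (one_leg ho) hS hL
    have g : w 0 + w 1 - w 3 = 0 := ho.1
    exact ((HL _ _ _ _ _ _ _ _ _ _ _ hB hT).1
      (wall_add (E := E9) (i := 0) (j := 3) (k := 5) x1 (by show w 3 = w 0 + w 1; linarith))
      (wall_add (E := E9) (i := 0) (j := 4) (k := 6) x2 (by show w 3 = w 0 + w 1; linarith))).2 hR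
  · intro w R ho hL hR
    obtain ⟨ψ, h1, hB, hT⟩ := key1 w R (one_leg ho) hL
    have g : w 1 + w 3 - w 5 = 0 := ho.1
    exact (HL1 _ _ _ _ _ _ _ _ _ _ _ hB hT).2.2.1
      (wall_add (E := E9) (i := 3) (j := 5) (k := 9) x3 (by show w 5 = w 1 + w 3; linarith)) hR
  · intro w R ho hS hL hR
    obtain ⟨ψ, h1, hB, hT⟩ := key w R (one_leg ho) hS hL
    have g : w 0 + w 2 - w 4 = 0 := ho.1
    exact ((HL _ _ _ _ _ _ _ _ _ _ _ hB hT).2.1
      (wall_add (E := E9) (i := 0) (j := 10) (k := 11) x5 (by show w 4 = w 0 + w 2; linarith))).1 hR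
  · intro w R ho hS hL hR
    obtain ⟨ψ, h1, hB, hT⟩ := key w R (one_leg ho) hS hL
    have g : w 0 + w 2 - w 4 = 0 := ho.1
    exact ((HL _ _ _ _ _ _ _ _ _ _ _ hB hT).2.1
      (wall_add (E := E9) (i := 0) (j := 10) (k := 11) x5 (by show w 4 = w 0 + w 2; linarith))).2 hR
  · intro w R ho hL hR
    obtain ⟨ψ, h1, hB, hT⟩ := key1 w R (one_leg ho) hL
    have g : w 3 + w 6 - w 4 = 0 := ho.1
    exact (HL1 _ _ _ _ _ _ _ _ _ _ _ hB hT).2.2.2.1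
      (wall_add (E := E9) (i := 7) (j := 5) (k := 11) x6 (by show w 4 = w 6 + w 3; linarith)) hR
  · intro w R ho hL hR
    obtain ⟨ψ, h1, hB, hT⟩ := key1 w R (one_leg ho) hL
    have g : w 1 + w 6 - w 2 = 0 := ho.1
    exact (HL1 _ _ _ _ _ _ _ _ _ _ _ hB hT).2.2.2.2
      (wall_add (E := E9) (i := 7) (j := 3) (k := 10) x8 (by show w 2 = w 6 + w 1; linarith)) hR

end live

theorem wl_single2 (e : Fin 12 → ℕ) (t : ℝ) :
    wl e (t • (Pi.single 2 1 : Fin 12 → ℝ)) = t * e 2 := by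
  rw [wl_smul]
  congr 1
  unfold wl
  rw [Finset.sum_eq_single (2 : Fin 12)]
  · rw [Pi.single_eq_same, mul_one]
  · intro s _ hs
    rw [Pi.single_eq_of_ne hs, mul_zero]
  · intro h
    exact absurd (Finset.mem_univ _) h

theorem mon_two {k : Fin 12} {e : Fin 12 → ℕ} (he : e ∈ monL.mon k) (h1 : e 1 = 0) : k ≠ 2 := by
  rintro rfl
  change e ∈ mfL 2 at he
  have : e = ![1, 1, 0, 0, 0, 0, 0, 0, 0, 0, 0, 0] := by simpa [mfL] using he
  rw [this] at h1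
  simp at h1

section ctx

variable {G : Geo TSet (Fin 2)} {L : ℕ → ℕ → LRay} {r : ℕ → ℝ} {c s : ℝ} {θ q : Fin 2 → ℝ}
    {Rg : ℝ} {B : Base} {I : ℕ → Finset (ℕ × ℝ)} {lev : ℕ → ℚ → ℕ} {A : ℕ → ℝ}
    {f : ℕ → ℚ → ℕ → ℤ → ℕ} {b : ℕ → ℚ → ℕ → TSet} {vm : ℕ → ℚ → ℝ} {w : Fin 2 → ℕ → ℚ → ℝ}
    {fr : ℕ → ℚ → ℕ × ℝ → LInc} {fl : ℕ → ℕ × ℝ → LInc} {sc : Fin 12 → ℕ → ℝ}
    {w0 sa sb δ R : ℝ} {I0 I' : ℕ → Finset (ℕ × ℝ)} {ν own : (Fin 12 → ℝ) → ℝ} {c₀ : ℝ}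
    {x0 : Fin 12 → ℝ} {X : ℕ → Fin 12 → ℝ} {H : ℕ → ℝ} {lam2 : Fin 2 → (Fin 12 → ℝ) → ℝ}
    {zz cc pp dd ee : ℕ → ℝ} {Vis' : Fin 12 → Prop} {a b' : Fin 2} {Sk : V9 → Prop}

/-- **the facts above the record over the context, `D` raised** -/
theorem fct8U_ctx
    (C : CtxT G L r c s θ q Rg B I lev A f b vm w fr fl sc w0 sa sb δ R I0 I' ν own c₀)
    (hs0 : 0 ≤ s) (hs1 : s ≤ 1)
    (hth : ∀ (Y : ℕ → Fin 12 → ℝ) (k : ℕ → ℝ), Tendsto Y atTop (𝓝 x0) →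
      (∀ l, Y l 4 = Y l 3) → (∀ l, Y l 6 = Y l 5) → (∀ l, Y l 8 = Y l 7) →
      ThinB B I0 I' (PL504.coN B lev w w0 sa sb fl) 2 ν Y k)
    (hpos : ∀ l, 0 < H l) (h0 : Tendsto H atTop (𝓝 0)) (hX : Tendsto X atTop (𝓝 x0))
    (ht : ∀ j, IsTan (Leg monL R) LM0 (fo ν own j) X H (lam2 j))
    (hXn : ∀ l, X l = eL (zz l) (cc l) (pp l) + dd l • (Pi.single 1 1 : Fin 12 → ℝ) +
      ee l • (Pi.single 2 1 : Fin 12 → ℝ))
    (hdd : ∀ K : ℝ, ∀ᶠ l in atTop, K * H l + ee l ≤ dd l)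
    (hee : ∀ K : ℝ, ∀ᶠ l in atTop, K * H l ≤ ee l)
    (Hp : Prf LM0 s a b' Vis' (βL (θ 0) (θ 1)) (lam2 0))
    (hSk : ∀ w, LegM 0 w → Sk w → ∀ k, Vis' k → E8 w k ≤ w 0 * βL (θ 0) (θ 1) k) :
    Fct9 Sk s (fun w => lam2 0 (E8 w)) := by
  have hN := RowU388.nprof_T C
  have hcoc : ∀ n, Coc (PL504.coN B lev w w0 sa sb fl n) :=
    fun n => Sd369.coc_N B lev w w0 sa sb fl n
  have hp : ∀ l, Pr2 (X l) := pr2_eL hXn
  have hX1 : ∀ l k, ∀ e ∈ monL.mon k, X l k = eL (zz l) (cc l) (pp l) k +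
      ee l * (if k = 2 then 1 else 0) ∧
      wl e (X l) = eL (zz l) (cc l) (pp l) k + dd l * e 1 + ee l * e 2 := by
    intro l k e he
    rw [hXn l, wl_add, wl_add, wl_eL _ _ _ k he, wl_single, wl_single2]
    refine ⟨?_, rfl⟩
    simp only [Pi.add_apply, Pi.smul_apply, smul_eq_mul, Pi.single_eq_of_ne (mon_one he)]
    by_cases hk : k = 2
    · subst hk; simp
    · rw [if_neg hk, Pi.single_eq_of_ne hk]; simp
  have hx : ∀ k, ∀ e ∈ monL.mon k, e 1 = 0 → (∀ l, X l k = wl e (X l)) ∨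
      ∀ K : ℝ, ∀ᶠ n in atTop, X n k + K * H n ≤ wl e (X n) := by
    intro k e he h1
    have hk2 : k ≠ 2 := mon_two he h1
    by_cases h2 : e 2 = 0
    · left
      intro l
      obtain ⟨a1, a2⟩ := hX1 l k e he
      rw [a1, a2, h1, h2, if_neg hk2]
      simp
    · right
      intro K
      filter_upwards [hee K, hee 0] with l hl hl0
      obtain ⟨a1, a2⟩ := hX1 l k e he
      rw [a1, a2, h1, if_neg hk2]
      have h3 : (1:ℝ) ≤ e 2 := by exact_mod_cast Nat.one_le_iff_ne_zero.2 h2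
      push_cast
      nlinarith
  have hxD : ∀ k, ∀ e ∈ monL.mon k, e 1 ≠ 0 → ∀ K : ℝ, ∀ᶠ n in atTop,
      X n k + K * H n ≤ wl e (X n) := by
    intro k e he h1 K
    filter_upwards [hdd K, hdd 0, hee 0] with l hl hl0 hl1
    obtain ⟨a1, a2⟩ := hX1 l k e he
    rw [a1, a2]
    have h2 : (1:ℝ) ≤ e 1 := by exact_mod_cast Nat.one_le_iff_ne_zero.2 h1
    have h3 : (0:ℝ) ≤ e 2 := by positivity
    have h4 : ee l * (if k = 2 then (1:ℝ) else 0) ≤ ee l := by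
      split_ifs <;> linarith
    have h5 : 0 ≤ ee l * e 2 := mul_nonneg (by linarith) h3
    have h6 : dd l ≤ dd l * e 1 := by nlinarith
    linarith
  have hlip : ∃ K : ℝ, 0 ≤ K ∧ ∀ j, ∀ p ∈ LM0, ∀ q ∈ LM0,
      |lam2 j p - lam2 j q| ≤ K * ‖p - q‖ := by
    refine ⟨12, by norm_num, fun j p hp' q hq' => ?_⟩
    have := SgO219.tan_lip hpos (ht j) (K := 12) (fo_lip C j) p hp' q hq'
    rwa [dist_eq_norm] at this
  have F := linFactsR (f := fo ν own) (j0 := (0 : Fin 2)) hN hcoc hs0 hs1 rfl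
    (Bs := fun X h => BsF B I0 I' (PL504.coN B lev w w0 sa sb fl) 2 R ν s X h) fun _ _ h => h
  have F1 := linFactsR (f := fo ν own) (j0 := (0 : Fin 2)) hN hcoc zero_le_one le_rfl rfl
    (Bs := fun X h => BsF B I0 I' (PL504.coN B lev w w0 sa sb fl) 2 R ν 1 X h) fun _ _ h => h
  refine fct8U (Pr := fun _ _ => True) hpos h0 ht hlip (w9_eL hXn) hx hxD F.toLinFacts F1.toLinFacts F1.RM
    (fun w R' hw hS hL => ?_) (fun w R' hw hL => ?_) (fun _ => Eventually.of_forall fun _ => trivial)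
    (fun w R' ψ h1 hw hS hψ _ hp1 h01 hr hT => ?_) (fun w R' ψ h1 hw hψ _ hp1 h01 hr hT => ?_)
  · exact own_R (s := s) (M := LM0) (fun d hd => E8_mem hd) E8_add hw hL fun t ht' =>
      own_prf Hp (fun d hd => E8_mem hd) E8_add (fun _ => rfl) e9_nonneg8 hw
        (hSk w hw hS) ht'
  · refine own_R (s := s) (M := LM0) (fun d hd => E8_mem hd) E8_add hw hL fun t ht' => ?_
    have hl : LegM 0 (e9 0) := by
      constructor <;> simp [e9]
    have h2 := (Hp.anti (E8 w) (E8_mem hw) (E8 (w + t • e9 0))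
      (E8_mem (hw.add_smul hl ht'.le)) (by
        rw [E8_add]
        intro i
        simp only [Pi.add_apply, Pi.smul_apply, smul_eq_mul]
        have := e9_nonneg8 i
        simp only [Pi.zero_apply] at this
        nlinarith)).1
    linarith
  · exact bsF_shift hth rfl hX h0 hp (pr2_bx9 _ _ _ _ _ _ _ _ _) hψ hT hr
  · exact bsF_shift hth rfl hX h0 hp (pr2_bx9 _ _ _ _ _ _ _ _ _) hψ hT (by linarith)

/-- **the facts above the record over the context, `D` live** -/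
theorem fct9U_ctx
    (C : CtxT G L r c s θ q Rg B I lev A f b vm w fr fl sc w0 sa sb δ R I0 I' ν own c₀)
    (hs0 : 0 ≤ s) (hs1 : s ≤ 1)
    (hth : ∀ (Y : ℕ → Fin 12 → ℝ) (k : ℕ → ℝ), Tendsto Y atTop (𝓝 x0) →
      (∀ l, Y l 4 = Y l 3) → (∀ l, Y l 6 = Y l 5) → (∀ l, Y l 8 = Y l 7) →
      ThinM B I0 I' (PL504.coN B lev w w0 sa sb fl) 2 ν Y k)
    (hpos : ∀ l, 0 < H l) (h0 : Tendsto H atTop (𝓝 0)) (hX : Tendsto X atTop (𝓝 x0))
    (ht : ∀ j, IsTan (Leg monL R) LM (fo ν own j) X H (lam2 j))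
    (hXn : ∀ l, X l = eL (zz l) (cc l) (pp l) + dd l • (Pi.single 1 1 : Fin 12 → ℝ) +
      ee l • (Pi.single 2 1 : Fin 12 → ℝ))
    (Hp : Prf LM s a b' Vis' (βL (θ 0) (θ 1)) (lam2 0))
    (hSk : ∀ w, LegM 0 w → Sk w → ∀ k, Vis' k → E9 w k ≤ w 0 * βL (θ 0) (θ 1) k) :
    Fct9 Sk s (fun w => lam2 0 (E9 w)) := by
  have hN := RowU388.nprof_T C
  have hcoc : ∀ n, Coc (PL504.coN B lev w w0 sa sb fl n) :=
    fun n => Sd369.coc_N B lev w w0 sa sb fl n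
  have hp : ∀ l, Pr2 (X l) := pr2_eL hXn
  have hlip : ∃ K : ℝ, 0 ≤ K ∧ ∀ j, ∀ p ∈ LM, ∀ q ∈ LM,
      |lam2 j p - lam2 j q| ≤ K * ‖p - q‖ := by
    refine ⟨12, by norm_num, fun j p hp' q hq' => ?_⟩
    have := SgO219.tan_lip hpos (ht j) (K := 12) (fo_lip C j) p hp' q hq'
    rwa [dist_eq_norm] at this
  have F : FactsM (Leg monL R) (fo ν own) (0 : Fin 2)
      (fun X h => BsM B I0 I' (PL504.coN B lev w w0 sa sb fl) 2 R ν s X h) s :=
    factsM_of hN hcoc hs0 hs1 rfl fun _ _ h => h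
  have F1 : FactsM (Leg monL R) (fo ν own) (0 : Fin 2)
      (fun X h => BsM B I0 I' (PL504.coN B lev w w0 sa sb fl) 2 R ν 1 X h) 1 :=
    factsM_of hN hcoc zero_le_one le_rfl rfl fun _ _ h => h
  refine fct9U (Pr := fun _ _ => True) hpos h0 ht hlip (w9_eL hXn) F F1
    (fun w R' hw hS hL => ?_) (fun w R' hw hL => ?_) (fun _ => Eventually.of_forall fun _ => trivial)
    (fun w R' ψ h1 hw hS hψ _ hp1 h01 hr hT => ?_) (fun w R' ψ h1 hw hψ _ hp1 h01 hr hT => ?_)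
  · exact own_R (s := s) (M := LM) (fun d hd => E9_mem hd) E9_add hw hL fun t ht' =>
      own_prf Hp (fun d hd => E9_mem hd) E9_add (fun _ => rfl) e9_nonneg9 hw
        (hSk w hw hS) ht'
  · refine own_R (s := s) (M := LM) (fun d hd => E9_mem hd) E9_add hw hL fun t ht' => ?_
    have hl : LegM 0 (e9 0) := by
      constructor <;> simp [e9]
    have h2 := (Hp.anti (E9 w) (E9_mem hw) (E9 (w + t • e9 0))
      (E9_mem (hw.add_smul hl ht'.le)) (by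
        rw [E9_add]
        intro i
        simp only [Pi.add_apply, Pi.smul_apply, smul_eq_mul]
        have := e9_nonneg9 i
        simp only [Pi.zero_apply] at this
        nlinarith)).1
    linarith
  · exact bsM_shift hth rfl hX h0 hp (pr2_bx9 _ _ _ _ _ _ _ _ _) hψ hT hr
  · exact bsM_shift hth rfl hX h0 hp (pr2_bx9 _ _ _ _ _ _ _ _ _) hψ hT (by linarith)

end ctx

section planes

variable {R s : ℝ} {a b : Fin 2} {Vis' : Fin 12 → Prop} {θa θb w0 sa sb v0 t κ : ℝ}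
    {f : Fin 2 → (Fin 12 → ℝ) → ℝ} {X : ℕ → Fin 12 → ℝ} {h' H : ℕ → ℝ}
    {lam lam2 : Fin 2 → (Fin 12 → ℝ) → ℝ} {sg l α ε : ℝ}

/-- the plane `oS` as a box -/
def vN : Fin 12 → ℕ := ![0, 0, 0, 1, 1, 1, 1, 0, 0, 2, 1, 1]

/-- a direction which only the walls with `E` forbid -/
def uN : Fin 12 → ℕ := ![1, 0, 0, 0, 0, 0, 0, 1, 1, 0, 0, 1]

theorem wallsV : ∀ k, ∀ e ∈ mfL k, e 1 = 0 → ∑ i, e i * vN i = vN k → e 2 = 0 := by decide

theorem wallsU : ∀ k, ∀ e ∈ mfL k, e 1 = 0 → e 2 = 0 → uN k ≤ ∑ i, e i * uN i := by decide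

theorem wl_nat (e : Fin 12 → ℕ) (x : Fin 12 → ℕ) :
    wl e (fun i => (x i : ℝ)) = ((∑ i, e i * x i : ℕ) : ℝ) := by
  unfold wl
  push_cast
  rfl

theorem xt_oS : xt kp 0 (RL8.vec oS) = fun i => (vN i : ℝ) := by
  funext i
  by_cases hi : i = 1
  · subst hi
    rw [Sl741.xt_off (p := kp) _ _ (by simp [kp])]
    simp [vN]
  · rw [Sl741.xt_in (p := kp) _ _ hi]
    fin_cases i <;> first | exact absurd rfl hi | simp [RS.vec, RL8, cl8, oS, vN]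

/-- the direction `uN` is in the cone of `oS` -/
theorem uN_mem (ht : t ≠ 0) {K : ℝ} (hK : 0 ≤ K) :
    (K • fun i => (uN i : ℝ)) ∈ L8B θa θb t oS 1 := by
  rintro ⟨k, e, he⟩ ⟨h1, h2, -⟩
  have hk1 : k ≠ 1 := mon_one he
  have r1 : ∀ x : Fin 12 → ℝ, (mw monL).rhs ⟨k, e, he⟩ x = wl e x := fun x => rfl
  have y1 : wl e (y8 t) = (e 1 : ℝ) * t := by
    unfold y8
    rw [wl_upd]
    have : wl e 0 = 0 := by unfold wl; simp
    rw [this]
    simp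
  rw [r1, y1] at h1
  have g2 : y8 t ((mw monL).hd ⟨k, e, he⟩) = 0 := y8_at hk1
  rw [g2] at h1
  have g3 : (mw monL).cst ⟨k, e, he⟩ = 0 := rfl
  rw [g3, add_zero] at h1
  have g4 := (mul_eq_zero.1 h1.symm).resolve_right ht
  have e1 : e 1 = 0 := by exact_mod_cast g4
  have e2 : e 2 = 0 := by
    refine wallsV k e he e1 ?_
    rw [one_smul, r1, xt_oS, wl_nat] at h2
    have h3 : (mw monL).hd ⟨k, e, he⟩ = k := rfl
    rw [h3] at h2
    exact Nat.cast_injective (R := ℝ) h2.symm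
  have h5 := wallsU k e he e1 e2
  rw [r1, wl_smul, wl_nat]
  change K * (uN k : ℝ) ≤ _
  exact mul_le_mul_of_nonneg_left (by exact_mod_cast h5) hK

/-- the bases of the plane `oS` -/
theorem pd8_baseS {ρ ρ2 : Fin 8 → ℝ}
    (P : Pd8 R s a b Vis' θa θb w0 sa sb v0 t κ oS sg f lam ρ l α h' X H lam2 ρ2) :
    ∃ zz cc pp dd ee : ℕ → ℝ, ∀ m, X m = eL (zz m) (cc m) (pp m) +
      dd m • (Pi.single 1 1 : Fin 12 → ℝ) + ee m • (Pi.single 2 1 : Fin 12 → ℝ) := by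
  obtain ⟨V, E, -, -, -, hb⟩ := P.base
  refine ⟨fun m => w0 + (v0 + V m), fun m => θa * (1 - (v0 + V m)) + sa + E m,
    fun m => θb * (1 - (v0 + V m)) + sb + E m,
    fun m => X m 1 - eL (w0 + (v0 + V m)) (θa * (1 - (v0 + V m)) + sa + E m)
      (θb * (1 - (v0 + V m)) + sb + E m) 1, E, fun m => ?_⟩
  funext k
  by_cases hk : k = 1
  · subst hk
    simp only [Pi.add_apply, Pi.smul_apply, smul_eq_mul, Pi.single_apply, if_true]
    rw [if_neg (by decide)]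
    ring
  · rw [hb m k hk]
    have key : ∀ k, k ≠ 1 → rL θa θb w0 sa sb (v0 + V m) k + E m * oS (cl8 k) =
        (eL (w0 + (v0 + V m)) (θa * (1 - (v0 + V m)) + sa + E m)
          (θb * (1 - (v0 + V m)) + sb + E m) k + E m * (if k = 2 then 1 else 0)) := by
      intro k hk
      fin_cases k <;> first | exact absurd rfl hk | (simp [rL, eL, oS, cl8]; try ring)
    rw [key k hk]
    simp only [Pi.add_apply, Pi.smul_apply, smul_eq_mul, Pi.single_apply, if_neg hk]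
    ring

/-- the bases of the planes `oS9`, `oSe e` -/
theorem pd9_baseS {ρ ρ2 : Fin 9 → ℝ}
    (P : Pd9 R s a b Vis' θa θb w0 sa sb v0 κ (oSe ε) sg f lam ρ l α h' X H lam2 ρ2) :
    ∃ zz cc pp dd ee : ℕ → ℝ, ∀ m, X m = eL (zz m) (cc m) (pp m) +
      dd m • (Pi.single 1 1 : Fin 12 → ℝ) + ee m • (Pi.single 2 1 : Fin 12 → ℝ) := by
  obtain ⟨V, E, -, -, -, hb⟩ := P.base
  refine ⟨fun m => w0 + (v0 + V m), fun m => θa * (1 - (v0 + V m)) + sa + E m,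
    fun m => θb * (1 - (v0 + V m)) + sb + E m, fun m => (ε + 1) * E m, E, fun m => ?_⟩
  funext k
  rw [hb m k]
  have key : ∀ k, rL θa θb w0 sa sb (v0 + V m) k + E m * oSe ε (cl9 k) =
      (eL (w0 + (v0 + V m)) (θa * (1 - (v0 + V m)) + sa + E m)
        (θb * (1 - (v0 + V m)) + sb + E m) k + (ε + 1) * E m * (if k = 1 then 1 else 0) +
        E m * (if k = 2 then 1 else 0)) := by
    intro k
    fin_cases k <;> (simp [rL, eL, oSe, cl9]; try ring)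
  rw [key k]
  simp only [Pi.add_apply, Pi.smul_apply, smul_eq_mul, Pi.single_apply]

theorem oSe_zero : oSe 0 = oS9 := rfl

/-- `D` is slack -/
theorem slack_D {ν g : (Fin 12 → ℝ) → ℝ} {M : Set (Fin 12 → ℝ)} (hM : LM0 ⊆ M)
    (ht : IsTan (Leg monL R) M ν X H g) {zz cc pp dd ee : ℕ → ℝ}
    (hXn : ∀ l, X l = eL (zz l) (cc l) (pp l) + dd l • (Pi.single 1 1 : Fin 12 → ℝ) +
      ee l • (Pi.single 2 1 : Fin 12 → ℝ)) (hpos : ∀ l, 0 < H l) (K : ℝ) :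
    ∀ᶠ l in atTop, K * H l + ee l ≤ dd l := by
  have hm : bx9 0 0 (max K 0) 0 0 0 0 0 0 ∈ LM0 := by
    rw [bx9_mem]
    have := le_max_right K 0
    refine ⟨?_, ?_, ?_, ?_, ?_, ?_, ?_⟩ <;> linarith
  filter_upwards [SgO219.tan_ev ht (hM hm)] with l hl
  have h1 : (X l + H l • bx9 0 0 (max K 0) 0 0 0 0 0 0) 2 ≤
      wl ![1, 1, 0, 0, 0, 0, 0, 0, 0, 0, 0, 0] (X l + H l • bx9 0 0 (max K 0) 0 0 0 0 0 0) :=
    hl.1.wall 2 ![1, 1, 0, 0, 0, 0, 0, 0, 0, 0, 0, 0] (by decide)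
  obtain ⟨g0, g1, g2, g3, g4, g5, g6, g7, g8, g9, g10, g11⟩ := xval hXn l
  have q0 : (X l + H l • bx9 0 0 (max K 0) 0 0 0 0 0 0) 0 = zz l := by
    show X l 0 + H l * 0 = _
    rw [g0]; ring
  have q1 : (X l + H l • bx9 0 0 (max K 0) 0 0 0 0 0 0) 1 =
      pp l - 2 * cc l - zz l + dd l := by
    show X l 1 + H l * 0 = _
    rw [g1]; ring
  have q2 : (X l + H l • bx9 0 0 (max K 0) 0 0 0 0 0 0) 2 =
      pp l - 2 * cc l + ee l + H l * max K 0 := by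
    show X l 2 + H l * max K 0 = _
    rw [g2]
  have e : wl ![1, 1, 0, 0, 0, 0, 0, 0, 0, 0, 0, 0] (X l + H l • bx9 0 0 (max K 0) 0 0 0 0 0 0) =
      (X l + H l • bx9 0 0 (max K 0) 0 0 0 0 0 0) 0 +
        (X l + H l • bx9 0 0 (max K 0) 0 0 0 0 0 0) 1 := by
    rw [wl12]; simp
  rw [e, q0, q1, q2] at h1
  have h2 := mul_le_mul_of_nonneg_left (le_max_left K 0) (hpos l).le
  linarith

/-- `E` is raised by more than every multiple of the unit -/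
theorem slack_E {ν g : (Fin 12 → ℝ) → ℝ} (ht0 : t ≠ 0)
    (ht : IsTan (Leg monL R) (L8B θa θb t oS 1) ν X H g) {zz cc pp dd ee : ℕ → ℝ}
    (hXn : ∀ l, X l = eL (zz l) (cc l) (pp l) + dd l • (Pi.single 1 1 : Fin 12 → ℝ) +
      ee l • (Pi.single 2 1 : Fin 12 → ℝ)) (hpos : ∀ l, 0 < H l) (K : ℝ) :
    ∀ᶠ l in atTop, K * H l ≤ ee l := by
  have hm := uN_mem (θa := θa) (θb := θb) ht0 (le_max_right K 0)
  filter_upwards [SgO219.tan_ev ht hm] with l hl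
  have h1 : (X l + H l • ((max K 0) • fun i => (uN i : ℝ))) 7 ≤
      wl ![0, 0, 1, 1, 0, 0, 0, 0, 0, 0, 0, 0]
        (X l + H l • ((max K 0) • fun i => (uN i : ℝ))) :=
    hl.1.wall 7 ![0, 0, 1, 1, 0, 0, 0, 0, 0, 0, 0, 0] (by decide)
  obtain ⟨g0, g1, g2, g3, g4, g5, g6, g7, g8, g9, g10, g11⟩ := xval hXn l
  have q7 : (X l + H l • ((max K 0) • fun i => (uN i : ℝ))) 7 =
      pp l - cc l + H l * max K 0 := by
    show X l 7 + H l * (max K 0 * ((1 : ℕ) : ℝ)) = _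
    rw [g7]; push_cast; ring
  have q2 : (X l + H l • ((max K 0) • fun i => (uN i : ℝ))) 2 =
      pp l - 2 * cc l + ee l := by
    show X l 2 + H l * (max K 0 * ((0 : ℕ) : ℝ)) = _
    rw [g2]; push_cast; ring
  have q3 : (X l + H l • ((max K 0) • fun i => (uN i : ℝ))) 3 = cc l := by
    show X l 3 + H l * (max K 0 * ((0 : ℕ) : ℝ)) = _
    rw [g3]; push_cast; ring
  have e : wl ![0, 0, 1, 1, 0, 0, 0, 0, 0, 0, 0, 0]
        (X l + H l • ((max K 0) • fun i => (uN i : ℝ))) =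
      (X l + H l • ((max K 0) • fun i => (uN i : ℝ))) 2 +
        (X l + H l • ((max K 0) • fun i => (uN i : ℝ))) 3 := by
    rw [wl12]; simp
  rw [e, q7, q2, q3] at h1
  have h2 := mul_le_mul_of_nonneg_left (le_max_left K 0) (hpos l).le
  linarith

end planes

section last

variable {G : Geo TSet (Fin 2)} {L : ℕ → ℕ → LRay} {r : ℕ → ℝ} {g s : ℝ} {θ q : Fin 2 → ℝ}
    {Rg : ℝ} {B : Base} {I : ℕ → Finset (ℕ × ℝ)} {lev : ℕ → ℚ → ℕ} {A : ℕ → ℝ}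
    {f : ℕ → ℚ → ℕ → ℤ → ℕ} {b : ℕ → ℚ → ℕ → TSet} {vm : ℕ → ℚ → ℝ} {w : Fin 2 → ℕ → ℚ → ℝ}
    {fr : ℕ → ℚ → ℕ × ℝ → LInc} {fl : ℕ → ℕ × ℝ → LInc} {sc : Fin 12 → ℕ → ℝ}
    {w0 sa sb δ R : ℝ} {I0 I' : ℕ → Finset (ℕ × ℝ)} {ν own : (Fin 12 → ℝ) → ℝ} {c₀ : ℝ}
    {v0 t κ l α ε sg : ℝ} {a b' : Fin 2} {Vis' : Fin 12 → Prop} {X : ℕ → Fin 12 → ℝ}
    {h' H : ℕ → ℝ} {lam lam2 : Fin 2 → (Fin 12 → ℝ) → ℝ} {Sk : V9 → Prop}

/-- **the facts of the plane `oS`** -/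
theorem pd8_fctS {ρ ρ2 : Fin 8 → ℝ}
    (P : Pd8 R s a b' Vis' (θ 0) (θ 1) w0 sa sb v0 t κ oS 1 (fo ν own) lam ρ l α h' X H
      lam2 ρ2)
    (C : CtxT G L r g s θ q Rg B I lev A f b vm w fr fl sc w0 sa sb δ R I0 I' ν own c₀)
    (hs0 : 0 ≤ s) (hs1 : s ≤ 1) (ht : t ≠ 0) (hθ : 0 < θ 0) (hv0 : 0 < v0) (hv1 : v0 < 1)
    (hSk : ∀ w, LegM 0 w → Sk w → ∀ k, Vis' k → E8 w k ≤ w 0 * βL (θ 0) (θ 1) k) :
    Fct9 Sk s (fun w => lam2 0 (xt kp 0 (RL8.vec (fun i : Fin 8 => w i.castSucc)))) := by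
  obtain ⟨zz, cc, pp, dd, ee, hXn⟩ := pd8_baseS P
  have ht' : ∀ j, IsTan (Leg monL R) LM0 (fo ν own j) X H (lam2 j) := fun j =>
    Rc683.tan_mono (P.tan j) Subset.rfl (LM0_L8B ht)
  have h1 := fct8U_ctx C hs0 hs1 (Kt710.hthB C hv0 hv1 hθ) P.pos P.lim P.xlim ht' hXn
    (slack_D Subset.rfl (ht' 0) hXn P.pos) (slack_E ht (P.tan 0) hXn P.pos)
    (P.prf.mono (LM0_L8B ht)) hSk
  simpa only [E8_eq] using h1

/-- **the facts of the plane `oSe e`** -/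
theorem pd9_fctSe {ρ ρ2 : Fin 9 → ℝ}
    (P : Pd9 R s a b' Vis' (θ 0) (θ 1) w0 sa sb v0 κ (oSe ε) sg (fo ν own) lam ρ l α h' X H
      lam2 ρ2)
    (C : CtxT G L r g s θ q Rg B I lev A f b vm w fr fl sc w0 sa sb δ R I0 I' ν own c₀)
    (hs0 : 0 ≤ s) (hs1 : s ≤ 1) (hθ : 0 < θ 0) (hv0 : 0 < v0) (hv1 : v0 < 1)
    (hSk : ∀ w, LegM 0 w → Sk w → ∀ k, Vis' k → E9 w k ≤ w 0 * βL (θ 0) (θ 1) k) :
    Fct9 Sk s (fun w => lam2 0 (RL9.vec w)) := by
  obtain ⟨zz, cc, pp, dd, ee, hXn⟩ := pd9_baseS P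
  have ht' : ∀ j, IsTan (Leg monL R) LM (fo ν own j) X H (lam2 j) := fun j =>
    Rc683.tan_mono (P.tan j) Subset.rfl LM_L9B
  have h1 := fct9U_ctx C hs0 hs1 (Kt710.hthM C hv0 hv1 hθ) P.pos P.lim P.xlim ht' hXn
    (P.prf.mono LM_L9B) hSk
  simpa only [E9_eq] using h1

/-- **the facts of the plane `oS9`** -/
theorem pd9_fctS {ρ ρ2 : Fin 9 → ℝ}
    (P : Pd9 R s a b' Vis' (θ 0) (θ 1) w0 sa sb v0 κ oS9 sg (fo ν own) lam ρ l α h' X H
      lam2 ρ2)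
    (C : CtxT G L r g s θ q Rg B I lev A f b vm w fr fl sc w0 sa sb δ R I0 I' ν own c₀)
    (hs0 : 0 ≤ s) (hs1 : s ≤ 1) (hθ : 0 < θ 0) (hv0 : 0 < v0) (hv1 : v0 < 1)
    (hSk : ∀ w, LegM 0 w → Sk w → ∀ k, Vis' k → E9 w k ≤ w 0 * βL (θ 0) (θ 1) k) :
    Fct9 Sk s (fun w => lam2 0 (RL9.vec w)) := by
  rw [← oSe_zero] at P
  exact pd9_fctSe P C hs0 hs1 hθ hv0 hv1 hSk

end last

end Crest.Agent.R116.Pd3x363
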