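import Crest.Agent.R116.SgR2_337

/-!
# R116, K-TEXT II-c, Lemma SIG (helper194, doc 2383) over the RECORD TANGENT (helper337), part 1

`coneL` = all walls of `monL`, homogeneous.  `ProfL` = what is used of the record tangent `g`
(antitone, supermodular, own profile, cost of a refinement).  For `D` frozen at `lam` (natural level
at most `lam - y`): the three inequalities at the record and at all coarser heights.
-/

set_option autoImplicit false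

open Finset

namespace Crest.Agent.R116.Sg337

open Crest.Agent.R136.Net191
open Crest.Agent.R116.ChL222
open Crest.Agent.R116.PL504 (eL)
open Crest.Agent.R116.Xd954 (cs xs)

/-- the cone of all walls -/
def coneL : Set (Fin 12 → ℝ) := {p | ∀ k, ∀ e ∈ monL.mon k, p k ≤ ∑ s, (e s : ℝ) * p s}

set_option maxHeartbeats 2000000 in
theorem mem_coneL {p : Fin 12 → ℝ} : p ∈ coneL ↔ p 2 ≤ p 0 + p 1 ∧
    p 5 ≤ p 0 + p 3 ∧
    p 6 ≤ p 0 + p 4 ∧
    p 7 ≤ p 2 + p 3 ∧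
    p 7 ≤ p 1 + p 5 ∧
    p 8 ≤ p 2 + p 4 ∧
    p 8 ≤ p 1 + p 6 ∧
    p 9 ≤ p 3 + p 5 ∧
    p 9 ≤ p 4 + p 6 ∧
    p 10 ≤ p 3 + p 7 ∧
    p 10 ≤ p 4 + p 8 ∧
    p 10 ≤ p 1 + p 9 ∧
    p 11 ≤ p 0 + p 10 ∧
    p 11 ≤ p 5 + p 7 ∧
    p 11 ≤ p 6 + p 8 ∧
    p 11 ≤ p 2 + p 9 := by
  have hs : ∀ e : Fin 12 → ℕ, ∑ s, (e s : ℝ) * p s = e 0 * p 0 + e 1 * p 1 + e 2 * p 2 +
      e 3 * p 3 + e 4 * p 4 + e 5 * p 5 + e 6 * p 6 + e 7 * p 7 + e 8 * p 8 + e 9 * p 9 +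
      e 10 * p 10 + e 11 * p 11 := by
    intro e
    simp [Fin.sum_univ_succ]
    ring
  constructor
  · intro w
    change ∀ k, ∀ e ∈ monL.mon k, p k ≤ ∑ s, (e s : ℝ) * p s at w
    simp only [hs] at w
    refine ⟨?_, ?_, ?_, ?_, ?_, ?_, ?_, ?_, ?_, ?_, ?_, ?_, ?_, ?_, ?_, ?_⟩
    · simpa using w 2 ![1, 1, 0, 0, 0, 0, 0, 0, 0, 0, 0, 0] (by decide)
    · simpa using w 5 ![1, 0, 0, 1, 0, 0, 0, 0, 0, 0, 0, 0] (by decide)
    · simpa using w 6 ![1, 0, 0, 0, 1, 0, 0, 0, 0, 0, 0, 0] (by decide)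
    · simpa using w 7 ![0, 0, 1, 1, 0, 0, 0, 0, 0, 0, 0, 0] (by decide)
    · simpa using w 7 ![0, 1, 0, 0, 0, 1, 0, 0, 0, 0, 0, 0] (by decide)
    · simpa using w 8 ![0, 0, 1, 0, 1, 0, 0, 0, 0, 0, 0, 0] (by decide)
    · simpa using w 8 ![0, 1, 0, 0, 0, 0, 1, 0, 0, 0, 0, 0] (by decide)
    · simpa using w 9 ![0, 0, 0, 1, 0, 1, 0, 0, 0, 0, 0, 0] (by decide)
    · simpa using w 9 ![0, 0, 0, 0, 1, 0, 1, 0, 0, 0, 0, 0] (by decide)
    · simpa using w 10 ![0, 0, 0, 1, 0, 0, 0, 1, 0, 0, 0, 0] (by decide)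
    · simpa using w 10 ![0, 0, 0, 0, 1, 0, 0, 0, 1, 0, 0, 0] (by decide)
    · simpa using w 10 ![0, 1, 0, 0, 0, 0, 0, 0, 0, 1, 0, 0] (by decide)
    · simpa using w 11 ![1, 0, 0, 0, 0, 0, 0, 0, 0, 0, 1, 0] (by decide)
    · simpa using w 11 ![0, 0, 0, 0, 0, 1, 0, 1, 0, 0, 0, 0] (by decide)
    · simpa using w 11 ![0, 0, 0, 0, 0, 0, 1, 0, 1, 0, 0, 0] (by decide)
    · simpa using w 11 ![0, 0, 1, 0, 0, 0, 0, 0, 0, 1, 0, 0] (by decide)
  · rintro ⟨w0, w1, w2, w3, w4, w5, w6, w7, w8, w9, w10, w11, w12, w13, w14, w15⟩ k e he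
    rw [hs]
    change e ∈ mfL k at he
    fin_cases k <;> simp [mfL] at he
    · subst he; simp; linarith
    · subst he; simp; linarith
    · subst he; simp; linarith
    · rcases he with rfl | rfl <;> simp <;> linarith
    · rcases he with rfl | rfl <;> simp <;> linarith
    · rcases he with rfl | rfl | rfl | rfl <;> simp <;> linarith
    · rcases he with rfl | rfl | rfl | rfl | rfl | rfl | rfl <;> simp <;> linarith
    · rcases he with rfl | rfl | rfl | rfl | rfl | rfl | rfl | rfl | rfl | rfl | rfl | rfl | rfl <;>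
        simp <;> linarith

theorem cone9 {z D E C X B N P F : ℝ}
    (h1 : E ≤ z + D ∧ X ≤ z + C ∧ B ≤ E + C ∧ B ≤ D + X ∧ N ≤ C + X ∧ P ≤ C + B ∧ P ≤ D + N ∧
      F ≤ z + P ∧ F ≤ X + B ∧ F ≤ E + N) :
    bx9 z D E C X B N P F ∈ coneL := by
  obtain ⟨b1, b2, b3, b4, b5, b6, b7, b8, b9, b10⟩ := h1
  exact mem_coneL.2 ⟨b1, b2, b2, b3, b4, b3, b4, b5, b5, b6, b6, b7, b8, b9, b9, b10⟩

/-- the natural direction is a `bx9` -/
theorem eL_bx9 (v a b : ℝ) : eL v a b = natB v a b := by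
  funext k
  fin_cases k <;> rfl

/-- what is used of the record tangent -/
structure ProfL (s : ℝ) (a b : Fin 2) (g : (Fin 12 → ℝ) → ℝ) : Prop where
  ab : a ≠ b
  anti : ∀ p ∈ coneL, ∀ q ∈ coneL, p ≤ q → 0 ≤ g p - g q ∧ g p - g q ≤ ∑ k, (q k - p k)
  sm : ∀ p ∈ coneL, ∀ q ∈ coneL, p ⊓ q ∈ coneL → g p + g q ≤ g (p ⊔ q) + g (p ⊓ q)
  own : ∀ p ∈ coneL, ∀ q ∈ coneL, p ≤ q → (1 - s) * (q 0 - p 0) ≤ g p - g q
  cost : ∀ p ∈ coneL, ∀ q ∈ coneL, p ≤ q → (q (cs b) ≤ p (cs b) ∨ q (cs b) ≤ q (cs a)) →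
    (q (xs b) ≤ p (xs b) ∨ q (xs b) ≤ q (xs a)) →
    g p - g q ≤ ∑ k ∈ ({cs b, xs b} : Finset (Fin 12))ᶜ, (q k - p k)

/-- the linear D-max function -/
def DL (g s q0 q1 v a b : ℝ) : ℝ := (g - (1 - s)) * v - (3 * v + (3 + q0) * a + (1 + q1) * b)

/-- conditions on the perturbation -/
structure PtL (y1 y2 y3 y4 y5 y6 y7 y8 : ℝ) : Prop where
  X : y4 ≤ y1 + y3
  B : y5 ≤ y2 + y3
  N : y6 ≤ y3 + y4
  P : y7 ≤ y3 + y5
  F : y8 ≤ y1 + y7 ∧ y8 ≤ y4 + y5 ∧ y8 ≤ y2 + y6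

section core

variable {s q0 q1 c lam z C P y : ℝ} {a b : Fin 2} {g : (Fin 12 → ℝ) → ℝ}

theorem natB_cone (z C P : ℝ) : natB z C P ∈ coneL := by
  refine cone9 ⟨?_, ?_, ?_, ?_, ?_, ?_, ?_, ?_, ?_, ?_⟩ <;> linarith

theorem pB_cone {y1 y2 y3 y4 y5 y6 y7 y8 : ℝ} (t : PtL y1 y2 y3 y4 y5 y6 y7 y8)
    (l1 : P - 2 * C - z + (y2 - y1) ≤ lam) (l2 : P - 2 * C - z + (y5 - y4) ≤ lam)
    (l3 : P - 2 * C - z + (y7 - y6) ≤ lam) :
    pB lam z C P y1 y2 y3 y4 y5 y6 y7 y8 ∈ coneL := by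
  obtain ⟨hX, hB, hN, hP, hF1, hF2, hF3⟩ := t
  refine cone9 ⟨?_, ?_, ?_, ?_, ?_, ?_, ?_, ?_, ?_, ?_⟩ <;> linarith

/-- cost of a refinement between perturbed natural boxes over the same point -/
theorem pBL_cost (H : ProfL s a b g) {y1 y2 y3 y4 y5 y6 y7 y8 x1 x2 x3 x4 x5 x6 x7 x8 : ℝ}
    (t : pB lam z C P y1 y2 y3 y4 y5 y6 y7 y8 ∈ coneL)
    (t' : pB lam z C P x1 x2 x3 x4 x5 x6 x7 x8 ∈ coneL)
    (hl : y1 ≤ x1 ∧ y2 ≤ x2 ∧ y3 ≤ x3 ∧ y4 ≤ x4 ∧ y5 ≤ x5 ∧ y6 ≤ x6 ∧ y7 ≤ x7 ∧ y8 ≤ x8) :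
    g (pB lam z C P y1 y2 y3 y4 y5 y6 y7 y8) - g (pB lam z C P x1 x2 x3 x4 x5 x6 x7 x8) ≤
      (x1 - y1) + (x2 - y2) + (x3 - y3) + (x4 - y4) + 2 * (x5 - y5) + (x6 - y6) + (x7 - y7) +
        (x8 - y8) := by
  obtain ⟨i1, i2, i3, i4, i5, i6, i7, i8⟩ := hl
  have hab := H.ab
  refine (H.cost _ t _ t' ?_ (Or.inr ?_) (Or.inr ?_)).trans (le_of_eq ?_)
  · exact bx9_le (by linarith) le_rfl (by linarith) (by linarith) (by linarith) (by linarith)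
      (by linarith) (by linarith) (by linarith)
  · fin_cases a <;> fin_cases b <;> exact le_rfl
  · fin_cases a <;> fin_cases b <;> exact le_rfl
  · unfold pB
    rw [bx9_sum hab]
    ring

theorem ptL0 : PtL 0 0 0 0 0 0 0 0 := by
  constructor <;> (try refine ⟨?_, ?_, ?_⟩) <;> linarith

theorem ptLC (y0 : 0 ≤ y) : PtL 0 0 y 0 0 0 0 0 := by
  constructor <;> (try refine ⟨?_, ?_, ?_⟩) <;> linarith

theorem ptLP (y0 : 0 ≤ y) : PtL 0 y 0 0 y 0 y 0 := by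
  constructor <;> (try refine ⟨?_, ?_, ?_⟩) <;> linarith

theorem ptLCP (y0 : 0 ≤ y) : PtL 0 0 y 0 0 0 y 0 := by
  constructor <;> (try refine ⟨?_, ?_, ?_⟩) <;> linarith

/-- **(iii)** at the record: the slots `C` cost at least `q0 y` -/
theorem recL_C (H : ProfL s a b g) (hl : P - 2 * C - z ≤ lam) (y0 : 0 ≤ y)
    (hrec : DL c s q0 q1 z C P ≤ g (frz lam z C P))
    (hD : g (natB z (C + y) P) ≤ DL c s q0 q1 z (C + y) P) :
    q0 * y ≤ g (frz lam z C P) - g (fC lam z C P y) := by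
  have t2 : PtL 0 0 y y 0 (2 * y) 0 0 := by
    constructor <;> (try refine ⟨?_, ?_, ?_⟩) <;> linarith
  have m1 : pB lam z C P 0 0 y 0 0 0 0 0 ∈ coneL :=
    pB_cone (ptLC y0) (by linarith) (by linarith) (by linarith)
  have m2 : pB lam z C P 0 0 y y 0 (2 * y) 0 0 ∈ coneL :=
    pB_cone t2 (by linarith) (by linarith) (by linarith)
  have hc := pBL_cost H m1 m2 ⟨le_rfl, le_rfl, le_rfl, y0, le_rfl, by linarith, le_rfl, le_rfl⟩
  have hl : natB z (C + y) P ≤ pB lam z C P 0 0 y y 0 (2 * y) 0 0 := by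
    refine natB_le_pB hl ?_ ?_ ?_ ?_ ?_ ?_ ?_ ?_ ?_ <;> linarith
  have ha := (H.anti _ (natB_cone _ _ _) _ m2 hl).1
  rw [fC_eq]
  unfold DL at hrec hD
  nlinarith

/-- **(ii)** at the record: the slots `E, B, P` cost at least `q1 y` -/
theorem recL_P (H : ProfL s a b g) (hl : P - 2 * C - z + y ≤ lam) (y0 : 0 ≤ y)
    (hrec : DL c s q0 q1 z C P ≤ g (frz lam z C P))
    (hD : g (natB z C (P + y)) ≤ DL c s q0 q1 z C (P + y)) :
    q1 * y ≤ g (frz lam z C P) - g (fP lam z C P y) := by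
  have t2 : PtL 0 y 0 0 y 0 y y := by
    constructor <;> (try refine ⟨?_, ?_, ?_⟩) <;> linarith
  have m1 : pB lam z C P 0 y 0 0 y 0 y 0 ∈ coneL :=
    pB_cone (ptLP y0) (by linarith) (by linarith) (by linarith)
  have m2 : pB lam z C P 0 y 0 0 y 0 y y ∈ coneL :=
    pB_cone t2 (by linarith) (by linarith) (by linarith)
  have hc := pBL_cost H m1 m2 ⟨le_rfl, le_rfl, le_rfl, le_rfl, le_rfl, le_rfl, le_rfl, y0⟩
  have hl : natB z C (P + y) ≤ pB lam z C P 0 y 0 0 y 0 y y := by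
    refine natB_le_pB (by linarith) ?_ ?_ ?_ ?_ ?_ ?_ ?_ ?_ ?_ <;> linarith
  have ha := (H.anti _ (natB_cone _ _ _) _ m2 hl).1
  rw [fP_eq]
  unfold DL at hrec hD
  nlinarith

/-- **(iv)** at the record: the slots `C, P` cost at least `(c + q0 + q1) y` -/
theorem recL_CP (H : ProfL s a b g) (hl : P - 2 * C - z + y ≤ lam) (y0 : 0 ≤ y)
    (hrec : DL c s q0 q1 z C P ≤ g (frz lam z C P))
    (hD : g (natB (z - y) (C + y) (P + y)) ≤ DL c s q0 q1 (z - y) (C + y) (P + y)) :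
    (c + q0 + q1) * y ≤ g (frz lam z C P) - g (fCP lam z C P y) := by
  have t1 : PtL (-y) 0 y 0 0 0 y 0 := by
    constructor <;> (try refine ⟨?_, ?_, ?_⟩) <;> linarith
  have t2 : PtL (-y) 0 y 0 0 y y 0 := by
    constructor <;> (try refine ⟨?_, ?_, ?_⟩) <;> linarith
  have m1 : pB lam z C P (-y) 0 y 0 0 0 y 0 ∈ coneL :=
    pB_cone t1 (by linarith) (by linarith) (by linarith)
  have m2 : pB lam z C P (-y) 0 y 0 0 y y 0 ∈ coneL :=
    pB_cone t2 (by linarith) (by linarith) (by linarith)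
  have m3 : pB lam z C P 0 0 y 0 0 0 y 0 ∈ coneL :=
    pB_cone (ptLCP y0) (by linarith) (by linarith) (by linarith)
  have hc := pBL_cost H m1 m2 ⟨le_rfl, le_rfl, le_rfl, le_rfl, le_rfl, y0, le_rfl, le_rfl⟩
  have hl : natB (z - y) (C + y) (P + y) ≤ pB lam z C P (-y) 0 y 0 0 y y 0 := by
    refine natB_le_pB (by linarith) ?_ ?_ ?_ ?_ ?_ ?_ ?_ ?_ ?_ <;> linarith
  have ha := (H.anti _ (natB_cone _ _ _) _ m2 hl).1
  have ho := H.own _ m1 _ m3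
    (bx9_le (by linarith) le_rfl le_rfl le_rfl le_rfl le_rfl le_rfl le_rfl le_rfl)
  have e1 : pB lam z C P 0 0 y 0 0 0 y 0 0 - pB lam z C P (-y) 0 y 0 0 0 y 0 0 = y := by
    show (z + 0) - (z + -y) = y
    ring
  rw [e1] at ho
  rw [fCP_eq]
  unfold DL at hrec hD
  nlinarith

/-- increments over the frozen natural boxes grow when the height is coarser -/
theorem coarseL (H : ProfL s a b g) {z' : ℝ} (hz : z' ≤ z) {y2 y3 y5 y7 : ℝ}
    (h2 : 0 ≤ y2) (h3 : 0 ≤ y3) (h5 : 0 ≤ y5) (h7 : 0 ≤ y7)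
    (t : PtL 0 y2 y3 0 y5 0 y7 0) (l0 : P - 2 * C - z' ≤ lam)
    (l1 : P - 2 * C - z' + y2 ≤ lam) (l2 : P - 2 * C - z' + y5 ≤ lam)
    (l3 : P - 2 * C - z' + y7 ≤ lam) :
    g (frz lam z C P) - g (pB lam z C P 0 y2 y3 0 y5 0 y7 0) ≤
      g (frz lam z' C P) - g (pB lam z' C P 0 y2 y3 0 y5 0 y7 0) := by
  have e1 : frz lam z C P ⊓ pB lam z' C P 0 y2 y3 0 y5 0 y7 0 = frz lam z' C P := by
    unfold frz pB
    rw [bx9_inf, min_eq_right (by linarith), min_self, min_eq_left (by linarith),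
      min_eq_left (by linarith), min_eq_right (by linarith), min_eq_left (by linarith),
      min_eq_right (by linarith), min_eq_left (by linarith), min_eq_right (by linarith)]
    simp only [add_zero]
  have e2 : frz lam z C P ⊔ pB lam z' C P 0 y2 y3 0 y5 0 y7 0 =
      pB lam z C P 0 y2 y3 0 y5 0 y7 0 := by
    unfold frz pB
    rw [bx9_sup, max_eq_left (by linarith), max_self, max_eq_right (by linarith),
      max_eq_right (by linarith), max_eq_left (by linarith), max_eq_right (by linarith),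
      max_eq_left (by linarith), max_eq_right (by linarith), max_eq_left (by linarith)]
    simp only [add_zero]
  have g1 : frz lam z C P ∈ coneL := by
    rw [frz_eq]; exact pB_cone ptL0 (by linarith) (by linarith) (by linarith)
  have g2 : frz lam z' C P ∈ coneL := by
    rw [frz_eq]; exact pB_cone ptL0 (by linarith) (by linarith) (by linarith)
  have g3 : pB lam z' C P 0 y2 y3 0 y5 0 y7 0 ∈ coneL :=
    pB_cone t (by linarith) (by linarith) (by linarith)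
  have h1 := H.sm _ g1 _ g3 (by rw [e1]; exact g2)
  rw [e1, e2] at h1
  linarith

end core

end Crest.Agent.R116.Sg337
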