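import Crest.Agent.R116.Pos2_126
import Crest.Agent.R116.SgL1_337

/-!
# R116, K-TEXT II-c (ties), `posB`, plug (helper126)

* `memL8`, `memC9`  : class vectors are in the cones
* **`posB8`, `posB9`** : `q_a ≤ ρ 1` on the plane `(1, 0)` (`θb < 0`) from `anti`, `cost`, D-max of
  the record tangent (letters of `Prf`, `Rx` of 363)
-/

set_option autoImplicit false
set_option linter.unusedSectionVars false
set_option linter.unusedVariables false

open Set Filter Topology Metric MeasureTheory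

namespace Crest.Agent.R116.Pos126

open Crest.Agent.R136
open Dg219 (Tn lf Cone Walls mw)
open SgO219 (PP)
open Sl741 (slice xt rs)
open Crest.Agent.R116.RbK219
open Crest.Agent.R116.RbM219
open ChL222 (monL)
open Crest.Agent.R116.PL504 (eL)
open Crest.Agent.R116.Xd954 (cs xs)
open Crest.Agent.R116.Sg337 (coneL DL)

section

variable {θa θb t c0 s g qa qb : ℝ} {a b : Fin 2} {lam : (Fin 12 → ℝ) → ℝ}

theorem memL8 (ht : t ≠ 0) {d : Fin 8 → ℝ} (hd : Leg8 d) : xt kp 0 (RL8.vec d) ∈ L8 θa θb t := by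
  have hρ : ∀ i, ¬ kp i → r8 θa θb i = 0 := fun i hi => by
    have hi' : i = 1 := not_not.1 hi
    subst hi'
    unfold r8; rw [Function.update_self]
  have h := Sl741.mem_slice_L (Q := mw monL) (p := kp) (v := y8 t) (hp := kp_hd) (x0 := y8 t)
    (a := r8 θa θb) (b := 0) (fun _ _ => rfl) hρ (fun _ _ => rfl) (c := RL8.vec d)
  exact h.1 (RL8_mem (a := rs kp (r8 θa θb)) ht hd)

/-- the box of a class vector, `D` frozen -/
theorem xt8_apply (d : Fin 8 → ℝ) (i : Fin 12) :
    xt kp 0 (RL8.vec d) i = if i = 1 then 0 else d (cl8 i) := by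
  by_cases hi : i = 1
  · subst hi
    rw [if_pos rfl, Sl741.xt_off (p := kp) _ _ (by simp [kp])]; rfl
  · rw [if_neg hi, Sl741.xt_in (p := kp) _ _ hi]
    simp [RS.vec, RL8]

theorem xt8_le {w w' : Fin 8 → ℝ} (h : w ≤ w') :
    xt kp 0 (RL8.vec w) ≤ xt kp 0 (RL8.vec w') := by
  intro i
  rw [xt8_apply, xt8_apply]
  split_ifs
  · exact le_rfl
  · exact h _

/-- cost of a class vector -/
theorem cost_sum8 (ab : a ≠ b) (w w' : Fin 8 → ℝ) :
    ∑ k ∈ ({cs b, xs b} : Finset (Fin 12))ᶜ,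
      (xt kp 0 (RL8.vec w') k - xt kp 0 (RL8.vec w) k) =
      ∑ t, (if t = 6 then 2 else 1) * (w' t - w t) := by
  have h0 : ∀ k, xt kp 0 (RL8.vec w') k - xt kp 0 (RL8.vec w) k =
      if k = 1 then 0 else w' (cl8 k) - w (cl8 k) := by
    intro k
    rw [xt8_apply, xt8_apply]
    split_ifs
    · exact sub_self _
    · rfl
  have hb : b = 0 ∨ b = 1 := by fin_cases b <;> simp
  rcases hb with rfl | rfl
  · have e : (({cs 0, xs 0} : Finset (Fin 12))ᶜ) = {0, 1, 2, 4, 6, 7, 8, 9, 10, 11} := by decide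
    rw [e]
    simp only [h0]
    rw [Finset.sum_insert (by decide), Finset.sum_insert (by decide), Finset.sum_insert (by decide),
      Finset.sum_insert (by decide), Finset.sum_insert (by decide), Finset.sum_insert (by decide),
      Finset.sum_insert (by decide), Finset.sum_insert (by decide), Finset.sum_insert (by decide),
      Finset.sum_singleton]
    simp [cl8, Fin.sum_univ_eight]
    ring
  · have e : (({cs 1, xs 1} : Finset (Fin 12))ᶜ) = {0, 1, 2, 3, 5, 7, 8, 9, 10, 11} := by decide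
    rw [e]
    simp only [h0]
    rw [Finset.sum_insert (by decide), Finset.sum_insert (by decide), Finset.sum_insert (by decide),
      Finset.sum_insert (by decide), Finset.sum_insert (by decide), Finset.sum_insert (by decide),
      Finset.sum_insert (by decide), Finset.sum_insert (by decide), Finset.sum_insert (by decide),
      Finset.sum_singleton]
    simp [cl8, Fin.sum_univ_eight]
    ring

/-- **`q_a ≤` rate of `C_a` on the plane `(1, 0)`**, `D` frozen, letters of `Prf` / `Rx` -/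
theorem posB8 (ab : a ≠ b)
    (anti : ∀ p ∈ L8 θa θb t, ∀ q ∈ L8 θa θb t, p ≤ q →
      0 ≤ lam p - lam q ∧ lam p - lam q ≤ ∑ k, (q k - p k))
    (cost : ∀ p ∈ L8 θa θb t, ∀ q ∈ L8 θa θb t, p ≤ q →
      (q (cs b) ≤ p (cs b) ∨ q (cs b) ≤ q (cs a)) → (q (xs b) ≤ p (xs b) ∨ q (xs b) ≤ q (xs a)) →
      lam p - lam q ≤ ∑ k ∈ ({cs b, xs b} : Finset (Fin 12))ᶜ, (q k - p k))
    (zero : lam 0 = 0)
    (dmax : ∀ v c p, lam (Function.update (eL v c p) 1 0) ≤ DL g s qa qb v c p)
    {ρ : Fin 8 → ℝ} (ht : 0 < t) (hc0 : 0 < c0) (ha : 0 < θa) (hb : θb < 0)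
    (hR : Rates8 θa θb t B10 1 c0 lam ρ) : qa ≤ ρ 1 := by
  have hCx : ∀ w : Fin 8 → ℝ, xt kp 0 (RL8.vec w) (cs b) = xt kp 0 (RL8.vec w) (cs a) ∧
      xt kp 0 (RL8.vec w) (xs b) = xt kp 0 (RL8.vec w) (xs a) := by
    intro w
    rw [xt8_apply, xt8_apply, xt8_apply, xt8_apply]
    fin_cases a <;> fin_cases b <;> exact ⟨rfl, rfl⟩
  refine pos8 ht hc0 ha hb hR (fun w w' h h' hw => ?_) (fun w w' h h' hw => ?_) zero
    (fun l hl => ?_)
  · rw [← cost_sum8 ab w w']
    exact cost _ (memL8 ht.ne' h) _ (memL8 ht.ne' h') (xt8_le hw) (Or.inr (hCx w').1.le)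
      (Or.inr (hCx w').2.le)
  · have := (anti _ (memL8 ht.ne' h) _ (memL8 ht.ne' h') (xt8_le hw)).1
    linarith
  · rw [RL8_nat]
    refine (dmax 0 l 0).trans (le_of_eq ?_)
    unfold DL
    ring

theorem memC9 {d : Fin 9 → ℝ} (hd : Leg9 d) : RL9.vec d ∈ coneL := by
  have h := RL9_mem hd
  rw [RbM219.mem_PP] at h
  exact h

theorem vec9_apply (d : Fin 9 → ℝ) (i : Fin 12) : RL9.vec d i = d (cl9 i) := by
  simp [RS.vec, RL9]

theorem vec9_le {w w' : Fin 9 → ℝ} (h : w ≤ w') : RL9.vec w ≤ RL9.vec w' := by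
  intro i
  rw [vec9_apply, vec9_apply]
  exact h _

/-- cost of a class vector -/
theorem cost_sum9 (ab : a ≠ b) (w w' : Fin 9 → ℝ) :
    ∑ k ∈ ({cs b, xs b} : Finset (Fin 12))ᶜ, (RL9.vec w' k - RL9.vec w k) =
      ∑ t, (if t = 6 then 2 else 1) * (w' t - w t) := by
  have h9 : ∀ f : Fin 9 → ℝ, ∑ t, f t =
      f 0 + f 1 + f 2 + f 3 + f 4 + f 5 + f 6 + f 7 + f 8 := by
    intro f
    rw [Fin.sum_univ_castSucc, Fin.sum_univ_eight]
    rfl
  have hb : b = 0 ∨ b = 1 := by fin_cases b <;> simp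
  rw [h9]
  rcases hb with rfl | rfl
  · have e : (({cs 0, xs 0} : Finset (Fin 12))ᶜ) = {0, 1, 2, 4, 6, 7, 8, 9, 10, 11} := by decide
    rw [e]
    simp only [vec9_apply]
    rw [Finset.sum_insert (by decide), Finset.sum_insert (by decide), Finset.sum_insert (by decide),
      Finset.sum_insert (by decide), Finset.sum_insert (by decide), Finset.sum_insert (by decide),
      Finset.sum_insert (by decide), Finset.sum_insert (by decide), Finset.sum_insert (by decide),
      Finset.sum_singleton]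
    simp [cl9]
    ring
  · have e : (({cs 1, xs 1} : Finset (Fin 12))ᶜ) = {0, 1, 2, 3, 5, 7, 8, 9, 10, 11} := by decide
    rw [e]
    simp only [vec9_apply]
    rw [Finset.sum_insert (by decide), Finset.sum_insert (by decide), Finset.sum_insert (by decide),
      Finset.sum_insert (by decide), Finset.sum_insert (by decide), Finset.sum_insert (by decide),
      Finset.sum_insert (by decide), Finset.sum_insert (by decide), Finset.sum_insert (by decide),
      Finset.sum_singleton]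
    simp [cl9]
    ring

/-- **`q_a ≤` rate of `C_a` on the plane `(1, 0)`**, `D` live, letters of `Prf` / `Rx` -/
theorem posB9 (ab : a ≠ b)
    (anti : ∀ p ∈ coneL, ∀ q ∈ coneL, p ≤ q →
      0 ≤ lam p - lam q ∧ lam p - lam q ≤ ∑ k, (q k - p k))
    (cost : ∀ p ∈ coneL, ∀ q ∈ coneL, p ≤ q →
      (q (cs b) ≤ p (cs b) ∨ q (cs b) ≤ q (cs a)) → (q (xs b) ≤ p (xs b) ∨ q (xs b) ≤ q (xs a)) →
      lam p - lam q ≤ ∑ k ∈ ({cs b, xs b} : Finset (Fin 12))ᶜ, (q k - p k))
    (zero : lam 0 = 0) (dmax : ∀ v c p, lam (eL v c p) ≤ DL g s qa qb v c p)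
    {ρ : Fin 9 → ℝ} (hc0 : 0 < c0) (ha : 0 < θa) (hb : θb < 0) (hDb : 0 < 2 * θa - θb - 1)
    (hR : Rates9 θa θb B10' 1 c0 lam ρ) : qa ≤ ρ 1 := by
  have hCx : ∀ w : Fin 9 → ℝ, RL9.vec w (cs b) = RL9.vec w (cs a) ∧
      RL9.vec w (xs b) = RL9.vec w (xs a) := by
    intro w
    rw [vec9_apply, vec9_apply, vec9_apply, vec9_apply]
    fin_cases a <;> fin_cases b <;> exact ⟨rfl, rfl⟩
  refine pos9 hc0 ha hb hDb hR (fun w w' h h' hw => ?_) (fun w w' h h' hw => ?_) zero
    (fun l hl => ?_)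
  · rw [← cost_sum9 ab w w']
    exact cost _ (memC9 h) _ (memC9 h') (vec9_le hw) (Or.inr (hCx w').1.le)
      (Or.inr (hCx w').2.le)
  · have := (anti _ (memC9 h) _ (memC9 h') (vec9_le hw)).1
    linarith
  · rw [RL9_nat]
    refine (dmax 0 l 0).trans (le_of_eq ?_)
    unfold DL
    ring

end

end Crest.Agent.R116.Pos126
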