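import Crest.Agent.R116.RbM1_219
import Crest.Agent.R116.SgO3_219

/-!
# R116 (K side), ties: class-level layer (helper741)

Slots of a class vector `w : Fin 9 → ℝ`: `0 z | 1 C_a | 2 C_b | 3 X | 4 N | 5 H | 6 B | 7 G | 8 D`.
* `LegM m w`    : the ten class inequalities with the margin `m` (`Leg9 = LegM 0`)
* `RtAt φ w R`  : one-sided directional derivatives of `φ` at `w`
* `Cl9`         : a decoupled function of class vectors (`c t` = label of the class of `t`)
* `Cl9.pos_gt`, `Cl9.pos_lt` : generic positions on a path of one slot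
* `Cl9.mv_ge`, `Cl9.mv_le`   : mean value forms
* `LinS Z Λ w R` : `Λ` is linear at `w` along some scales, up to a function of the slots of `Z`
* `Cl9.lin0`, `Cl9.linZ`     : `LinS` from positions in every class
* `Fct9`     : the window facts as hypotheses (own-strip facts: `Tq4_741`); `One j w` = the wall `j` is tight at
  `w`, all other walls are slack
-/

set_option autoImplicit false
set_option linter.unusedSectionVars false
set_option linter.unusedVariables false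

open Set Filter Topology Metric MeasureTheory
open scoped NNReal

namespace Crest.Agent.R116.Tq741

open Crest.Agent.R136
open Crest.Agent.R138
open SgO219 (dir_of_fderiv clm_eq_sum)
open Sg388 (exists_rate_on)

abbrev V9 := Fin 9 → ℝ

/-- unit vectors -/
def e9 (t : Fin 9) : V9 := Pi.single t 1

theorem e9_same (t : Fin 9) : e9 t t = 1 := Pi.single_eq_same _ _

theorem e9_ne {t i : Fin 9} (h : i ≠ t) : e9 t i = 0 := Pi.single_eq_of_ne h _

/-- the ten class inequalities, with a margin -/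
structure LegM (m : ℝ) (w : V9) : Prop where
  G : w 7 + m ≤ w 0 + w 8
  X : w 3 + m ≤ w 0 + w 1
  B : w 6 + m ≤ w 7 + w 1
  B' : w 6 + m ≤ w 8 + w 3
  H : w 5 + m ≤ w 1 + w 3
  P : w 2 + m ≤ w 1 + w 6
  P' : w 2 + m ≤ w 8 + w 5
  N1 : w 4 + m ≤ w 0 + w 2
  N2 : w 4 + m ≤ w 3 + w 6
  N3 : w 4 + m ≤ w 7 + w 5

theorem LegM.mono {m m' : ℝ} {w : V9} (h : LegM m w) (hm : m' ≤ m) : LegM m' w := by
  obtain ⟨a, b, c, d, e, f, g, i, j, k⟩ := h
  constructor <;> linarith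

theorem LegM.ball {m η : ℝ} {w w' : V9} (h : LegM m w) (hm : 3 * η ≤ m) (hw : ‖w' - w‖ ≤ η) :
    LegM 0 w' := by
  have hb : ∀ i, w i - η ≤ w' i ∧ w' i ≤ w i + η := fun i => by
    have h1 := norm_le_pi_norm (w' - w) i
    rw [Real.norm_eq_abs, Pi.sub_apply] at h1
    have h2 := abs_le.1 (h1.trans hw)
    constructor <;> linarith [h2.1, h2.2]
  obtain ⟨a, b, c, d, e, f, g, i, j, k⟩ := h
  have b0 := hb 0
  have b1 := hb 1
  have b2 := hb 2
  have b3 := hb 3
  have b4 := hb 4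
  have b5 := hb 5
  have b6 := hb 6
  have b7 := hb 7
  have b8 := hb 8
  constructor <;> linarith [b0.1, b0.2, b1.1, b1.2, b2.1, b2.2, b3.1, b3.2, b4.1, b4.2, b5.1, b5.2,
    b6.1, b6.2, b7.1, b7.2, b8.1, b8.2]

theorem LegM.add {m m' : ℝ} {w w' : V9} (h : LegM m w) (h' : LegM m' w') :
    LegM (m + m') (w + w') := by
  obtain ⟨a, b, c, d, e, f, g, i, j, k⟩ := h
  obtain ⟨a', b', c', d', e', f', g', i', j', k'⟩ := h'
  constructor <;> simp only [Pi.add_apply] <;> linarith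

theorem LegM.smul {m x : ℝ} {w : V9} (h : LegM m w) (hx : 0 ≤ x) : LegM (x * m) (x • w) := by
  obtain ⟨a, b, c, d, e, f, g, i, j, k⟩ := h
  constructor <;> simp only [Pi.smul_apply, smul_eq_mul] <;> nlinarith

theorem LegM.add_smul {x : ℝ} {w d : V9} (h : LegM 0 w) (hd : LegM 0 d) (hx : 0 ≤ x) :
    LegM 0 (w + x • d) := by
  have := h.add (hd.smul hx)
  simpa using this

/-- segments -/
theorem LegM.seg {m : ℝ} {w v : V9} {y x : ℝ} (h0 : LegM m w) (h1 : LegM m (w + y • v))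
    (hx0 : 0 ≤ x) (hxy : x ≤ y) : LegM m (w + x • v) := by
  rcases hx0.eq_or_lt with rfl | hx
  · simpa using h0
  have hy : 0 < y := hx.trans_le hxy
  have e : w + x • v = (1 - x / y) • w + (x / y) • (w + y • v) := by
    funext i
    simp only [Pi.add_apply, Pi.smul_apply, smul_eq_mul]
    field_simp
    ring
  have h2 : x / y ≤ 1 := (div_le_one hy).2 hxy
  have h3 : 0 ≤ x / y := by positivity
  have := (h0.smul (sub_nonneg.2 h2)).add (h1.smul h3)
  rw [e]
  convert this using 1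
  ring

theorem isClosed_leg : IsClosed {w : V9 | LegM 0 w} := by
  have e : {w : V9 | LegM 0 w} = {w : V9 | (w 7 + 0 ≤ w 0 + w 8 ∧ w 3 + 0 ≤ w 0 + w 1 ∧
      w 6 + 0 ≤ w 7 + w 1 ∧ w 6 + 0 ≤ w 8 + w 3 ∧ w 5 + 0 ≤ w 1 + w 3 ∧ w 2 + 0 ≤ w 1 + w 6 ∧
      w 2 + 0 ≤ w 8 + w 5 ∧ w 4 + 0 ≤ w 0 + w 2 ∧ w 4 + 0 ≤ w 3 + w 6 ∧
      w 4 + 0 ≤ w 7 + w 5)} := by
    ext w
    exact ⟨fun h => ⟨h.G, h.X, h.B, h.B', h.H, h.P, h.P', h.N1, h.N2, h.N3⟩,
      fun ⟨a, b, c, d, e, f, g, i, j, k⟩ => ⟨a, b, c, d, e, f, g, i, j, k⟩⟩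
  rw [e]
  simp only [Set.ofPred_and]
  refine IsClosed.inter ?_ <| IsClosed.inter ?_ <| IsClosed.inter ?_ <| IsClosed.inter ?_ <|
    IsClosed.inter ?_ <| IsClosed.inter ?_ <| IsClosed.inter ?_ <| IsClosed.inter ?_ <|
    IsClosed.inter ?_ ?_ <;> exact isClosed_le (by fun_prop) (by fun_prop)

theorem leg_zero : LegM 0 (0 : V9) := by constructor <;> simp

/-! ### directional derivatives -/

/-- one-sided directional derivatives -/
def RtAt (φ : V9 → ℝ) (w R : V9) : Prop :=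
  ∀ d : V9, Tendsto (fun x : ℝ => (φ (w + x • d) - φ w) / x) (𝓝[>] 0) (𝓝 (-∑ t, R t * d t))

theorem rtAt_of_diff {φ : V9 → ℝ} {w : V9} (h : DifferentiableAt ℝ φ w) :
    RtAt φ w (fun t => -fderiv ℝ φ w (e9 t)) := by
  intro d
  have h1 := dir_of_fderiv h d
  rw [clm_eq_sum (fderiv ℝ φ w) d] at h1
  convert h1 using 2
  rw [← Finset.sum_neg_distrib]
  exact Finset.sum_congr rfl fun t _ => by unfold e9; ring

theorem RtAt.uniq {φ : V9 → ℝ} {w R R' : V9} (h : RtAt φ w R) (h' : RtAt φ w R') : R = R' := by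
  funext t
  have h1 := tendsto_nhds_unique (h (e9 t)) (h' (e9 t))
  have e : ∀ R : V9, ∑ i, R i * e9 t i = R t := fun R => by
    rw [Finset.sum_eq_single t (fun i _ hi => by rw [e9_ne hi, mul_zero])
      (fun h => absurd (Finset.mem_univ _) h), e9_same, mul_one]
  rw [e, e] at h1
  linarith

/-! ### decoupled functions of class vectors -/

/-- costs of the slots -/
def cst : V9 := ![1, 1, 1, 1, 1, 1, 2, 1, 1]

/-- a decoupled function; `c t` = label of the class of `t`, `dl` = size of the slots along the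
natural direction of the class, `ρ t` = rate of the class of `t` in units of `t` -/
structure Cl9 (c : Fin 9 → Fin 9) (dl : V9) (s : ℝ) (Λ : V9 → ℝ) (φ : Fin 9 → V9 → ℝ) (ρ : V9) :
    Prop where
  sum : ∀ w, LegM 0 w → Λ w = ∑ k, φ k w
  loc : ∀ k w w', (∀ t, c t = k → w t = w' t) → φ k w = φ k w'
  emp : ∀ k, (∀ t, c t ≠ k) → ∀ w, φ k w = 0
  rate : ∀ t w, (∀ t', c t' = c t → w t' * dl t = w t * dl t') → φ (c t) w = -(ρ t * w t)
  lip : ∃ K : ℝ≥0, ∀ k, LipschitzOnWith K (φ k) {w | LegM 0 w}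
  anti : ∀ w w', LegM 0 w → LegM 0 w' → w ≤ w' → Λ w' ≤ Λ w
  own : 1 - s ≤ ρ 0
  cost : ∀ w w', LegM 0 w → LegM 0 w' → w ≤ w' → Λ w - Λ w' ≤ ∑ t, cst t * (w' t - w t)

section

variable {c : Fin 9 → Fin 9} {dl : V9} {s : ℝ} {Λ : V9 → ℝ} {φ : Fin 9 → V9 → ℝ} {ρ : V9}

theorem Cl9.zero_of (H : Cl9 c dl s Λ φ ρ) (t : Fin 9) {w : V9}
    (hw : ∀ t', c t' = c t → w t' = 0) : φ (c t) w = 0 := by
  rw [H.rate t w fun t' ht' => by rw [hw t' ht', hw t rfl]; ring, hw t rfl]; ring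

/-- increment of one slot -/
theorem Cl9.incr (H : Cl9 c dl s Λ φ ρ) {w w' : V9} (hw : LegM 0 w) (hw' : LegM 0 w') (k : Fin 9)
    (he : ∀ i, c i ≠ k → w' i = w i) : φ k w - φ k w' = Λ w - Λ w' := by
  rw [H.sum w hw, H.sum w' hw', ← Finset.sum_sub_distrib,
    Finset.sum_eq_single k (fun k' _ hk' => ?_) (fun h => absurd (Finset.mem_univ _) h)]
  rw [H.loc k' w w' fun t ht => (he t (by rw [ht]; exact hk')).symm, sub_self]

theorem Cl9.incr_nonneg (H : Cl9 c dl s Λ φ ρ) {w w' : V9} (hw : LegM 0 w) (hw' : LegM 0 w')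
    (k : Fin 9) (he : ∀ i, c i ≠ k → w' i = w i) (hle : w ≤ w') : 0 ≤ φ k w - φ k w' := by
  rw [H.incr hw hw' k he]
  have := H.anti w w' hw hw' hle
  linarith

theorem Cl9.incr_cost (H : Cl9 c dl s Λ φ ρ) {w : V9} {t : Fin 9} {y : ℝ} (hy : 0 ≤ y)
    (hw : LegM 0 w) (hw' : LegM 0 (w + y • e9 t)) :
    φ (c t) w - φ (c t) (w + y • e9 t) ≤ cst t * y := by
  rw [H.incr hw hw' (c t) fun i hi => by
    rw [Pi.add_apply, Pi.smul_apply, e9_ne (fun h => hi (by rw [h])), smul_zero, add_zero]]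
  refine (H.cost w _ hw hw' fun i => ?_).trans (le_of_eq ?_)
  · rw [Pi.add_apply, Pi.smul_apply, smul_eq_mul]
    by_cases hi : i = t
    · subst hi; rw [e9_same]; linarith
    · rw [e9_ne hi]; linarith
  · rw [Finset.sum_eq_single t (fun i _ hi => by
      rw [Pi.add_apply, Pi.smul_apply, e9_ne hi]; simp) (fun h => absurd (Finset.mem_univ _) h)]
    rw [Pi.add_apply, Pi.smul_apply, e9_same]
    simp

theorem le_add_e9 {w : V9} {t : Fin 9} {y : ℝ} (hy : 0 ≤ y) : w ≤ w + y • e9 t := fun i => by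
  rw [Pi.add_apply, Pi.smul_apply, smul_eq_mul]
  by_cases hi : i = t
  · subst hi; rw [e9_same]; linarith
  · rw [e9_ne hi]; linarith

theorem add_e9_ne {w : V9} {t i : Fin 9} {y : ℝ} (hi : i ≠ t) : (w + y • e9 t) i = w i := by
  rw [Pi.add_apply, Pi.smul_apply, e9_ne hi, smul_zero, add_zero]

theorem add_e9_same {w : V9} {t : Fin 9} {y : ℝ} : (w + y • e9 t) t = w t + y := by
  rw [Pi.add_apply, Pi.smul_apply, e9_same, smul_eq_mul, mul_one]

theorem RtAt.loc (H : Cl9 c dl s Λ φ ρ) {k : Fin 9} {w w' R : V9} (h : RtAt (φ k) w R)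
    (hw : ∀ t, c t = k → w' t = w t) : RtAt (φ k) w' R := by
  intro d
  refine (h d).congr fun x => ?_
  rw [H.loc k (w + x • d) (w' + x • d) fun t ht => by
    simp only [Pi.add_apply]; rw [hw t ht], H.loc k w w' fun t ht => (hw t ht).symm]

theorem RtAt.off (H : Cl9 c dl s Λ φ ρ) {k : Fin 9} {w R : V9} (h : RtAt (φ k) w R) {t : Fin 9}
    (ht : c t ≠ k) : R t = 0 := by
  have h1 : Tendsto (fun x : ℝ => (φ k (w + x • e9 t) - φ k w) / x) (𝓝[>] 0) (𝓝 0) := by
    refine tendsto_const_nhds.congr fun x => ?_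
    rw [H.loc k (w + x • e9 t) w fun i hi => add_e9_ne (fun h' => ht (by rw [← h']; exact hi)),
      sub_self, zero_div]
  have h2 := tendsto_nhds_unique (h (e9 t)) h1
  have e : ∑ i, R i * e9 t i = R t := by
    rw [Finset.sum_eq_single t (fun i _ hi => by rw [e9_ne hi, mul_zero])
      (fun h => absurd (Finset.mem_univ _) h), e9_same, mul_one]
  rw [e] at h2
  linarith

/-- rates of a slot which is alone in its class -/
theorem Cl9.rt_alone (H : Cl9 c dl s Λ φ ρ) {t : Fin 9} (ht : ∀ t', c t' = c t → t' = t) (w : V9) :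
    RtAt (φ (c t)) w (fun i => if i = t then ρ t else 0) := by
  have hr : ∀ w, φ (c t) w = -(ρ t * w t) := fun w => H.rate t w fun t' ht' => by rw [ht t' ht']
  intro d
  have e : (∑ i, (if i = t then ρ t else 0) * d i) = ρ t * d t := by
    rw [Finset.sum_eq_single t (fun i _ hi => by rw [if_neg hi, zero_mul])
      (fun h => absurd (Finset.mem_univ _) h), if_pos rfl]
  rw [e]
  refine (tendsto_const_nhds (x := -(ρ t * d t))).congr' ?_
  filter_upwards [self_mem_nhdsWithin] with x hx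
  have hx' : (0:ℝ) < x := hx
  rw [hr, hr, Pi.add_apply, Pi.smul_apply, smul_eq_mul]
  field_simp
  ring

/-! ### positions -/

theorem Cl9.lipD (H : Cl9 c dl s Λ φ ρ) : ∃ K : ℝ≥0, ∀ k, LipschitzOnWith K (φ k) {w | LegM 0 w} :=
  H.lip

/-- **position with a large rate** -/
theorem Cl9.pos_gt (H : Cl9 c dl s Λ φ ρ) {t : Fin 9} {w0 : V9} {y q η : ℝ} (hy : 0 < y)
    (hη : 0 < η) (h0 : LegM (3 * η) w0) (h1 : LegM (3 * η) (w0 + y • e9 t))
    (hq : q * y < φ (c t) w0 - φ (c t) (w0 + y • e9 t)) {N : Set V9} (hN : ∀ᵐ u, u ∈ N) :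
    ∃ x ∈ Ioo 0 y, ∃ w ∈ N, ‖w - (w0 + x • e9 t)‖ < η ∧ LegM 0 w ∧
      ∃ R, RtAt (φ (c t)) w R ∧ q < R t := by
  obtain ⟨K, hK⟩ := H.lip
  set I : ℝ := φ (c t) w0 - φ (c t) (w0 + y • e9 t) with hI
  have hqI : q < I / y := by rw [lt_div_iff₀ hy]; exact hq
  have hΦ : LipschitzOnWith K (fun w => -φ (c t) w) {w | LegM 0 w} := by
    intro a ha b hb
    have := hK (c t) ha hb
    simpa [edist_neg_neg] using this
  obtain ⟨w, hwN, hwD, ⟨x, hx, hwx⟩, hd, hle⟩ := exists_rate_on (μ := volume) hΦ (p := w0)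
    (v := e9 t) (a := I / y) (δ := (I / y - q) / 2) hy hη (fun x hx w hw => by
      have h2 := h0.seg h1 hx.1 hx.2
      rw [Metric.mem_ball, dist_eq_norm] at hw
      exact h2.ball le_rfl hw.le) (by
      rw [div_mul_cancel₀ _ hy.ne', hI]; linarith) (by linarith) hN
  refine ⟨x, hx, w, hwN, hwx, hwD, ?_⟩
  have hd' : DifferentiableAt ℝ (φ (c t)) w := by
    have := hd.neg
    simpa using this
  refine ⟨_, rtAt_of_diff hd', ?_⟩
  have e : fderiv ℝ (fun w => -φ (c t) w) w = -fderiv ℝ (φ (c t)) w := fderiv_neg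
  rw [e] at hle
  simp only [_root_.neg_apply] at hle
  linarith

/-- **position with a small rate** -/
theorem Cl9.pos_lt (H : Cl9 c dl s Λ φ ρ) {t : Fin 9} {w0 : V9} {y q η : ℝ} (hy : 0 < y)
    (hη : 0 < η) (h0 : LegM (3 * η) w0) (h1 : LegM (3 * η) (w0 + y • e9 t))
    (hq : φ (c t) w0 - φ (c t) (w0 + y • e9 t) < q * y) {N : Set V9} (hN : ∀ᵐ u, u ∈ N) :
    ∃ x ∈ Ioo 0 y, ∃ w ∈ N, ‖w - (w0 + x • e9 t)‖ < η ∧ LegM 0 w ∧
      ∃ R, RtAt (φ (c t)) w R ∧ R t < q := by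
  obtain ⟨K, hK⟩ := H.lip
  set I : ℝ := φ (c t) w0 - φ (c t) (w0 + y • e9 t) with hI
  have hqI : I / y < q := by rw [div_lt_iff₀ hy]; exact hq
  obtain ⟨w, hwN, hwD, ⟨x, hx, hwx⟩, hd, hle⟩ := exists_rate_on (μ := volume) (hK (c t)) (p := w0)
    (v := e9 t) (a := -(I / y)) (δ := (q - I / y) / 2) hy hη (fun x hx w hw => by
      have h2 := h0.seg h1 hx.1 hx.2
      rw [Metric.mem_ball, dist_eq_norm] at hw
      exact h2.ball le_rfl hw.le) (by
      rw [neg_mul, div_mul_cancel₀ _ hy.ne', hI]; linarith) (by linarith) hN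
  refine ⟨x, hx, w, hwN, hwx, hwD, ?_⟩
  refine ⟨_, rtAt_of_diff hd, ?_⟩
  linarith

/-- almost every strictly legal vector is a position of every class -/
theorem Cl9.ae_rt (H : Cl9 c dl s Λ φ ρ) :
    ∀ᵐ w : V9, (∃ m : ℝ, 0 < m ∧ LegM m w) → ∀ k, ∃ R, RtAt (φ k) w R := by
  obtain ⟨K, hK⟩ := H.lip
  have h1 : ∀ᵐ w : V9, ∀ k, w ∈ {w : V9 | LegM 0 w} →
      DifferentiableWithinAt ℝ (φ k) {w | LegM 0 w} w :=
    ae_all_iff.2 fun k => (hK k).ae_differentiableWithinAt_of_mem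
  filter_upwards [h1] with w hw ⟨m, hm, hwm⟩ k
  have hnb : {w : V9 | LegM 0 w} ∈ 𝓝 w := by
    refine Metric.mem_nhds_iff.2 ⟨m / 3, by positivity, fun v hv => ?_⟩
    rw [Metric.mem_ball, dist_eq_norm] at hv
    exact hwm.ball (by linarith) hv.le
  have h2 := (hw k (mem_of_mem_nhds hnb)).differentiableAt hnb
  exact ⟨_, rtAt_of_diff h2⟩

/-- a position near any strictly legal vector -/
theorem Cl9.pos_near (H : Cl9 c dl s Λ φ ρ) {w0 : V9} {η : ℝ} (hη : 0 < η)
    (h0 : LegM (6 * η) w0) {N : Set V9} (hN : ∀ᵐ u, u ∈ N) :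
    ∃ w ∈ N, ‖w - w0‖ < η ∧ LegM 0 w ∧ ∀ k, ∃ R, RtAt (φ k) w R := by
  have h1 := hN.and H.ae_rt
  have h2 : ∃ w ∈ Metric.ball w0 η, w ∈ N ∧ ((∃ m : ℝ, 0 < m ∧ LegM m w) →
      ∀ k, ∃ R, RtAt (φ k) w R) := by
    by_contra hcon
    push Not at hcon
    have h3 : Metric.ball w0 η ⊆ {w | ¬ (w ∈ N ∧ ((∃ m : ℝ, 0 < m ∧ LegM m w) →
        ∀ k, ∃ R, RtAt (φ k) w R))} := by
      intro w hw h4
      obtain ⟨h5, k, h6⟩ := hcon w hw h4.1
      obtain ⟨R, hR⟩ := h4.2 h5 k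
      exact h6 R hR
    have h4 : volume (Metric.ball w0 η) = 0 := measure_mono_null h3 (ae_iff.1 h1)
    exact (Metric.measure_ball_pos volume w0 hη).ne' h4
  obtain ⟨w, hw, hwN, hwR⟩ := h2
  rw [Metric.mem_ball, dist_eq_norm] at hw
  have h5 : LegM (3 * η) w := by
    have hb : ∀ i, w0 i - η ≤ w i ∧ w i ≤ w0 i + η := fun i => by
      have h1 := norm_le_pi_norm (w - w0) i
      rw [Real.norm_eq_abs, Pi.sub_apply] at h1
      have h2 := abs_le.1 (h1.trans hw.le)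
      constructor <;> linarith [h2.1, h2.2]
    obtain ⟨a, b, c, d, e, f, g, i, j, k⟩ := h0
    have b0 := hb 0
    have b1 := hb 1
    have b2 := hb 2
    have b3 := hb 3
    have b4 := hb 4
    have b5 := hb 5
    have b6 := hb 6
    have b7 := hb 7
    have b8 := hb 8
    constructor <;> linarith [b0.1, b0.2, b1.1, b1.2, b2.1, b2.2, b3.1, b3.2, b4.1, b4.2, b5.1,
      b5.2, b6.1, b6.2, b7.1, b7.2, b8.1, b8.2]
  exact ⟨w, hwN, hw, h5.mono (by positivity), hwR ⟨3 * η, by positivity, h5⟩⟩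

/-- **mean value, from below** -/
theorem Cl9.mv_ge (H : Cl9 c dl s Λ φ ρ) {t : Fin 9} {w0 : V9} {y q η : ℝ} (hy : 0 < y)
    (hη : 0 < η) (h0 : LegM (3 * η) w0) (h1 : LegM (3 * η) (w0 + y • e9 t)) {N : Set V9}
    (hN : ∀ᵐ u, u ∈ N)
    (h : ∀ x ∈ Ioo 0 y, ∀ w ∈ N, ‖w - (w0 + x • e9 t)‖ < η → LegM 0 w →
      ∀ R, RtAt (φ (c t)) w R → q ≤ R t) :
    q * y ≤ φ (c t) w0 - φ (c t) (w0 + y • e9 t) := by
  by_contra hcon
  push Not at hcon
  obtain ⟨x, hx, w, hwN, hwx, hwD, R, hR, hlt⟩ := H.pos_lt hy hη h0 h1 hcon hN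
  exact absurd (h x hx w hwN hwx hwD R hR) (not_le.2 hlt)

/-- **mean value, from above** -/
theorem Cl9.mv_le (H : Cl9 c dl s Λ φ ρ) {t : Fin 9} {w0 : V9} {y q η : ℝ} (hy : 0 < y)
    (hη : 0 < η) (h0 : LegM (3 * η) w0) (h1 : LegM (3 * η) (w0 + y • e9 t)) {N : Set V9}
    (hN : ∀ᵐ u, u ∈ N)
    (h : ∀ x ∈ Ioo 0 y, ∀ w ∈ N, ‖w - (w0 + x • e9 t)‖ < η → LegM 0 w →
      ∀ R, RtAt (φ (c t)) w R → R t ≤ q) :
    φ (c t) w0 - φ (c t) (w0 + y • e9 t) ≤ q * y := by
  by_contra hcon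
  push Not at hcon
  obtain ⟨x, hx, w, hwN, hwx, hwD, R, hR, hlt⟩ := H.pos_gt hy hη h0 h1 hcon hN
  exact absurd (h x hx w hwN hwx hwD R hR) (not_le.2 hlt)

/-! ### linear points -/

/-- `Λ` is linear at `w` along some scales, up to a function of the slots of `Z` -/
def LinS (Z : Finset (Fin 9)) (Λ : V9 → ℝ) (w R : V9) : Prop :=
  ∃ (h : ℕ → ℝ) (Ψ : V9 → ℝ), (∀ m, 0 < h m) ∧ Tendsto h atTop (𝓝 0) ∧
    (∀ d d', (∀ t ∈ Z, d t = d' t) → LegM 0 d → LegM 0 d' → Ψ d = Ψ d') ∧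
    ∀ d, LegM 0 d → Tendsto (fun m => (Λ (w + h m • d) - Λ w) / h m) atTop
      (𝓝 (-(Ψ d + ∑ t ∈ Zᶜ, R t * d t)))

/-- the rates of `w`, class by class; classes in `Zc` are not asked for -/
def Rts (c : Fin 9 → Fin 9) (φ : Fin 9 → V9 → ℝ) (Zc : Fin 9 → Prop) (w R : V9) : Prop :=
  ∀ k, ¬ Zc k → RtAt (φ k) w (fun t => if c t = k then R t else 0)

theorem Rts.of (H : Cl9 c dl s Λ φ ρ) {Zc : Fin 9 → Prop} {w : V9} {Rk : Fin 9 → V9}
    (h : ∀ k, ¬ Zc k → RtAt (φ k) w (Rk k)) : Rts c φ Zc w (fun t => Rk (c t) t) := by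
  intro k hk
  have h1 := h k hk
  have e : (fun t => if c t = k then Rk (c t) t else 0) = Rk k := by
    funext t
    by_cases ht : c t = k
    · rw [if_pos ht, ht]
    · rw [if_neg ht, h1.off H ht]
  rw [e]
  exact h1

theorem Cl9.lin0 (H : Cl9 c dl s Λ φ ρ) {w R : V9} (hw : LegM 0 w)
    (hR : Rts c φ (fun _ => False) w R) : LinS ∅ Λ w R := by
  have hs : Tendsto (fun m : ℕ => ((m : ℝ) + 1)⁻¹) atTop (𝓝[>] 0) := by
    refine tendsto_nhdsWithin_iff.2 ⟨?_, Eventually.of_forall fun m => ?_⟩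
    · have := tendsto_one_div_add_atTop_nhds_zero_nat (𝕜 := ℝ)
      simpa [one_div] using this
    · show (0:ℝ) < _
      positivity
  refine ⟨fun m : ℕ => ((m : ℝ) + 1)⁻¹, fun _ => 0, fun m => by positivity,
    hs.mono_right nhdsWithin_le_nhds, fun _ _ _ _ _ => rfl, fun d hd => ?_⟩
  have h1 : Tendsto (fun m : ℕ => ∑ k, (φ k (w + ((m : ℝ) + 1)⁻¹ • d) - φ k w) / ((m : ℝ) + 1)⁻¹)
      atTop (𝓝 (∑ k, -∑ t, (if c t = k then R t else 0) * d t)) :=
    tendsto_finsetSum _ fun k _ => (hR k not_false d).comp hs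
  have e : (∑ k, -∑ t, (if c t = k then R t else 0) * d t) =
      -((0:ℝ) + ∑ t ∈ (∅ : Finset (Fin 9))ᶜ, R t * d t) := by
    rw [Finset.sum_neg_distrib, Finset.sum_comm, zero_add, Finset.compl_empty]
    congr 1
    refine Finset.sum_congr rfl fun t _ => ?_
    rw [Finset.sum_eq_single (c t) (fun k _ hk => by rw [if_neg (Ne.symm hk), zero_mul])
      (fun h => absurd (Finset.mem_univ _) h), if_pos rfl]
  rw [e] at h1
  refine h1.congr fun m => ?_
  rw [H.sum _ (hw.add_smul hd (by positivity)), H.sum w hw, ← Finset.sum_sub_distrib,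
    Finset.sum_div]

/-- **linear up to the class `kz`** -/
theorem Cl9.linZ (H : Cl9 c dl s Λ φ ρ) {Z : Finset (Fin 9)} {kz : Fin 9}
    (hZ : ∀ t, t ∈ Z ↔ c t = kz) {w R : V9} (hw : LegM 0 w)
    (hR : Rts c φ (fun k => k = kz) w R) : LinS Z Λ w R := by
  obtain ⟨K, hK⟩ := H.lip
  have hs : Tendsto (fun m : ℕ => ((m : ℝ) + 1)⁻¹) atTop (𝓝[>] 0) := by
    refine tendsto_nhdsWithin_iff.2 ⟨?_, Eventually.of_forall fun m => ?_⟩
    · have := tendsto_one_div_add_atTop_nhds_zero_nat (𝕜 := ℝ)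
      simpa [one_div] using this
    · show (0:ℝ) < _
      positivity
  obtain ⟨θ, hθ, lam, hlam⟩ := Rc683.exists_tan (J := Unit) (P := fun _ => {w : V9 | LegM 0 w})
    (D := fun _ => {w : V9 | LegM 0 w}) (fun _ => isClosed_leg) (ν := fun _ => φ kz) (K := K)
    K.2 (fun _ p hp q hq => by
      have := (hK kz).dist_le_mul p hp q hq
      rwa [Real.dist_eq, dist_eq_norm] at this)
    (x := fun _ => w) (h := fun m : ℕ => ((m : ℝ) + 1)⁻¹) (fun m => by positivity)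
    (fun _ C => Eventually.of_forall fun m d hd _ => hw.add_smul hd (by positivity))
    (fun _ => leg_zero)
  set h' : ℕ → ℝ := fun m => ((θ m : ℝ) + 1)⁻¹ with hh'
  have hpos : ∀ m, 0 < h' m := fun m => by simp only [hh']; positivity
  have hs' : Tendsto h' atTop (𝓝[>] 0) := hs.comp hθ.tendsto_atTop
  have hl : ∀ d, LegM 0 d → Tendsto (fun m => (φ kz (w + h' m • d) - φ kz w) / h' m) atTop
      (𝓝 (lam () d)) := by
    intro d hd
    rw [Metric.tendsto_nhds]
    intro ε hε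
    filter_upwards [hlam () ‖d‖ (ε / 2) (by positivity)] with m hm
    have h3 := (hm d hd le_rfl).2
    have hh := hpos m
    rw [Real.dist_eq]
    have e : (φ kz (w + h' m • d) - φ kz w) / h' m - lam () d =
        (φ kz (w + h' m • d) - φ kz w - h' m * lam () d) / h' m := by field_simp
    rw [e, abs_div, abs_of_pos hh]
    calc _ ≤ (ε / 2 * h' m) / h' m := div_le_div_of_nonneg_right h3 hh.le
      _ = ε / 2 := by field_simp
      _ < ε := by linarith
  refine ⟨h', fun d => -lam () d, hpos, hs'.mono_right nhdsWithin_le_nhds, ?_, ?_⟩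
  · intro d d' hdd hd hd'
    have h1 := hl d hd
    have h2 := hl d' hd'
    have h3 := tendsto_nhds_unique h1 (h2.congr fun m => by
      rw [H.loc kz (w + h' m • d') (w + h' m • d) fun t ht => by
        simp only [Pi.add_apply, Pi.smul_apply, hdd t ((hZ t).2 ht)]])
    simp only [h3]
  · intro d hd
    have h1 : Tendsto (fun m : ℕ => ∑ k, (φ k (w + h' m • d) - φ k w) / h' m)
        atTop (𝓝 (∑ k, (if k = kz then lam () d else -∑ t, (if c t = k then R t else 0) * d t))) := by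
      refine tendsto_finsetSum _ fun k _ => ?_
      by_cases hk : k = kz
      · subst hk
        rw [if_pos rfl]
        exact hl d hd
      · rw [if_neg hk]
        exact (hR k hk d).comp hs'
    have e : (∑ k, (if k = kz then lam () d else -∑ t, (if c t = k then R t else 0) * d t)) =
        -(-lam () d + ∑ t ∈ Zᶜ, R t * d t) := by
      have e1 : ∀ k, (if k = kz then lam () d else -∑ t, (if c t = k then R t else 0) * d t) =
          (if k = kz then lam () d else 0) +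
            -∑ t, (if c t = k ∧ k ≠ kz then R t * d t else 0) := by
        intro k
        by_cases hk : k = kz
        · simp [hk]
        · rw [if_neg hk, if_neg hk, zero_add]
          congr 1
          refine Finset.sum_congr rfl fun t _ => ?_
          by_cases ht : c t = k
          · rw [if_pos ht, if_pos ⟨ht, hk⟩]
          · rw [if_neg ht, if_neg (fun h => ht h.1), zero_mul]
      rw [Finset.sum_congr rfl fun k _ => e1 k, Finset.sum_add_distrib,
        Finset.sum_ite_eq' Finset.univ kz, if_pos (Finset.mem_univ _), Finset.sum_neg_distrib,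
        Finset.sum_comm]
      have e2 : ∑ t, ∑ k, (if c t = k ∧ k ≠ kz then R t * d t else 0) =
          ∑ t ∈ Zᶜ, R t * d t := by
        have e3 : ∀ t, ∑ k, (if c t = k ∧ k ≠ kz then R t * d t else 0) =
            if t ∈ Zᶜ then R t * d t else 0 := by
          intro t
          by_cases ht : c t = kz
          · have h5 : t ∉ Zᶜ := by
              rw [Finset.mem_compl, not_not]; exact (hZ t).2 ht
            rw [if_neg h5]
            refine Finset.sum_eq_zero fun k _ => ?_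
            rw [if_neg]
            rintro ⟨h6, h7⟩
            exact h7 (by rw [← h6]; exact ht)
          · have h5 : t ∈ Zᶜ := by
              rw [Finset.mem_compl]; exact fun h => ht ((hZ t).1 h)
            rw [if_pos h5, Finset.sum_eq_single (c t) (fun k _ hk => if_neg (fun h => hk h.1.symm))
              (fun h => absurd (Finset.mem_univ _) h), if_pos ⟨rfl, ht⟩]
        rw [Finset.sum_congr rfl fun t _ => e3 t, Finset.sum_ite_mem, Finset.univ_inter]
      rw [e2]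
      ring
    rw [e] at h1
    refine h1.congr fun m => ?_
    rw [H.sum _ (hw.add_smul hd (hpos m).le), H.sum w hw, ← Finset.sum_sub_distrib,
      Finset.sum_div]

/-- **mean value from below**, the hypothesis holds away from the ends of the path -/
theorem Cl9.mv_ge' (H : Cl9 c dl s Λ φ ρ) {t : Fin 9} {w0 : V9} {y q m : ℝ} (hy : 0 < y)
    (hm : 0 < m) (hq : 0 ≤ q) (h0 : LegM m w0) (h1 : LegM m (w0 + y • e9 t)) {N : Set V9}
    (hN : ∀ᵐ u, u ∈ N)
    (h : ∀ δ : ℝ, 0 < δ → δ ≤ m → ∀ x ∈ Ioo δ (y - δ), ∀ w ∈ N,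
      ‖w - (w0 + x • e9 t)‖ < δ / 100 → LegM 0 w → ∀ R, RtAt (φ (c t)) w R → q ≤ R t) :
    q * y ≤ φ (c t) w0 - φ (c t) (w0 + y • e9 t) := by
  have key : ∀ δ : ℝ, 0 < δ → δ ≤ m → 4 * δ < y →
      q * (y - 2 * δ) ≤ φ (c t) w0 - φ (c t) (w0 + y • e9 t) := by
    intro δ hδ hδm hδy
    have a0 : LegM m (w0 + δ • e9 t) := h0.seg h1 hδ.le (by linarith)
    have e1 : w0 + δ • e9 t + (y - 2 * δ) • e9 t = w0 + (y - δ) • e9 t := by
      rw [add_assoc, ← add_smul]; congr 2; ring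
    have a1 : LegM m (w0 + δ • e9 t + (y - 2 * δ) • e9 t) := by
      rw [e1]; exact h0.seg h1 (by linarith) (by linarith)
    have h2 := H.mv_ge (t := t) (w0 := w0 + δ • e9 t) (y := y - 2 * δ) (q := q) (η := δ / 100)
      (by linarith) (by positivity) (a0.mono (by linarith)) (a1.mono (by linarith)) hN
      (fun x hx w hwN hwx hwD R hR => by
        have e2 : w0 + δ • e9 t + x • e9 t = w0 + (δ + x) • e9 t := by
          rw [add_assoc, ← add_smul]
        rw [e2] at hwx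
        exact h δ hδ hδm (δ + x) ⟨by linarith [hx.1], by linarith [hx.2]⟩ w hwN hwx hwD R hR)
    rw [e1] at h2
    have b1 : 0 ≤ φ (c t) w0 - φ (c t) (w0 + δ • e9 t) :=
      H.incr_nonneg (h0.mono hm.le) (a0.mono hm.le) (c t) (fun i hi =>
        add_e9_ne (fun h => hi (by rw [h]))) (le_add_e9 hδ.le)
    have e3 : w0 + y • e9 t = w0 + (y - δ) • e9 t + δ • e9 t := by
      rw [add_assoc, ← add_smul]; congr 2; ring
    have a2 : LegM m (w0 + (y - δ) • e9 t) := h0.seg h1 (by linarith) (by linarith)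
    have b2 : 0 ≤ φ (c t) (w0 + (y - δ) • e9 t) - φ (c t) (w0 + y • e9 t) := by
      rw [e3]
      exact H.incr_nonneg (a2.mono hm.le) (by rw [← e3]; exact h1.mono hm.le) (c t)
        (fun i hi => add_e9_ne (fun h => hi (by rw [h]))) (le_add_e9 hδ.le)
    linarith
  by_contra hcon
  push Not at hcon
  set I := φ (c t) w0 - φ (c t) (w0 + y • e9 t) with hI
  obtain ⟨δ, hδ, h2⟩ : ∃ δ : ℝ, 0 < δ ∧ (δ ≤ m ∧ 4 * δ < y ∧ I < q * (y - 2 * δ)) := by
    refine ⟨min m (min (y / 8) ((q * y - I) / (4 * (q + 1)))), ?_, min_le_left _ _, ?_, ?_⟩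
    · refine lt_min hm (lt_min (by positivity) (div_pos (by linarith) (by linarith)))
    · have := (min_le_right m (min (y / 8) ((q * y - I) / (4 * (q + 1))))).trans (min_le_left _ _)
      linarith
    · have h3 := (min_le_right m (min (y / 8) ((q * y - I) / (4 * (q + 1))))).trans
        (min_le_right _ _)
      rw [le_div_iff₀ (by linarith)] at h3
      set δ := min m (min (y / 8) ((q * y - I) / (4 * (q + 1)))) with hδ'
      have h4 : 0 < δ := lt_min hm (lt_min (by positivity) (div_pos (by linarith) (by linarith)))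
      nlinarith
  exact absurd (key δ hδ h2.1 h2.2.1) (not_le.2 h2.2.2)

end

/-! ### the window facts -/

/-- gaps of the ten walls: `0 G | 1 X | 2 B | 3 B' | 4 H | 5 P | 6 P' | 7 N1 | 8 N2 | 9 N3` -/
def gap (w : V9) : Fin 10 → ℝ :=
  ![w 0 + w 8 - w 7, w 0 + w 1 - w 3, w 7 + w 1 - w 6, w 8 + w 3 - w 6, w 1 + w 3 - w 5,
    w 1 + w 6 - w 2, w 8 + w 5 - w 2, w 0 + w 2 - w 4, w 3 + w 6 - w 4, w 7 + w 5 - w 4]

/-- the wall `j` is tight, all other walls are slack -/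
def One (j : Fin 10) (w : V9) : Prop := gap w j = 0 ∧ ∀ i, i ≠ j → 0 < gap w i

/-- **static facts** at every linear point; `Sk w` = the visible slots of `w` are coarser than their
own level -/
structure Fct9 (Sk : V9 → Prop) (s : ℝ) (Λ : V9 → ℝ) : Prop where
  K1 : ∀ w R, One 1 w → Sk w → LinS ∅ Λ w R → 0 < R 1 → 1 - s ≤ R 3
  F1 : ∀ w R, One 1 w → Sk w → LinS ∅ Λ w R → s < R 1 → 1 ≤ R 3
  H1 : ∀ w R, One 4 w → LinS ∅ Λ w R → 0 < R 1 → R 3 ≤ R 5
  K2 : ∀ w R, One 7 w → Sk w → LinS ∅ Λ w R → 0 < R 2 → 1 - s ≤ R 4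
  F2 : ∀ w R, One 7 w → Sk w → LinS ∅ Λ w R → s < R 2 → 1 ≤ R 4
  S1 : ∀ w R, One 8 w → LinS ∅ Λ w R → 0 < R 6 → R 3 ≤ R 4
  RM : ∀ w R, One 5 w → LinS ∅ Λ w R → 0 < R 6 → R 1 ≤ R 2

end Crest.Agent.R116.Tq741
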