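import Crest.Agent.R116.Kz3_647
import Crest.Agent.R116.Tq1_741
import Crest.Agent.R116.Pos3_126

/-!
# R116 (K side, ties), `Cl9` from `Half` (helper126)

* `Core`   : class functions over the ray slots; `core_of` : `OutS` + `FRates` ⊢ `Core`
* `PZ`     : what is used of `Prf` (363) at `z0`
* **`cl9_of8`**, **`cl9_of9`** : `Half8`, `Half9` (647) + `PZ` ⊢ `Cl9` (741)
-/

set_option autoImplicit false
set_option linter.unusedSectionVars false
set_option linter.unusedVariables false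

open Set Filter Topology Metric MeasureTheory
open scoped NNReal

namespace Crest.Agent.R116.Tq126

open Crest.Agent.R136
open Crest.Agent.R138
open Dg262 (X X_cont SupOn)
open Dg219 (Tn lf det2 zz lf_zz Cone Sep Geo gset mem_gset Walls gC nC dhC gC_zero gC_eq nC_zero
  nC_of dirC exists_grpC OutS mw)
open Rc683 (Srf)
open RbK219
open RbM219
open SgO219 (PP)
open Sl741 (slice xt rs)
open Kz647
open ChL222 (monL)
open Crest.Agent.R116.PL504 (eL)
open Crest.Agent.R116.Xd954 (cs xs)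
open Crest.Agent.R116.Sg337 (coneL DL)
open Crest.Agent.R116.Pos126 (mem8 mem9 xt8_apply vec9_apply xt8_le vec9_le cost_sum8 cost_sum9)
open Crest.Agent.R116.Tq741

section gen

variable {ι W τ κ' : Type*} [Fintype ι] [DecidableEq ι] [Fintype W] [Fintype τ] [DecidableEq τ]
  [Fintype κ'] [DecidableEq κ']

/-- class functions over the ray slots -/
structure Core (R : RS ι τ) (A B : τ → ℝ) (sg : ℝ) (L : Set (ι → ℝ)) (lam : (ι → ℝ) → ℝ)
    (ρ : τ → ℝ) (c : τ → κ') (φ : κ' → (τ → ℝ) → ℝ) : Prop where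
  sum : ∀ w, R.vec w ∈ L → lam (R.vec w) = ∑ k, φ k w
  loc : ∀ k w w', (∀ t, c t = k → w t = w' t) → φ k w = φ k w'
  empty : ∀ k w, (∀ t, c t ≠ k) → φ k w = 0
  rate : ∀ t w, (∀ t', c t' = c t → w t' * dl A B sg t = w t * dl A B sg t') →
    φ (c t) w = -(ρ t * w t)
  mono : ∀ k w w', R.vec w ∈ L → R.vec w' ∈ L → (∀ t, c t = k → w t ≤ w' t) →
    0 ≤ φ k w - φ k w' ∧ φ k w - φ k w' ≤ ∑ i, R.mu i * |w' (R.cls i) - w (R.cls i)|

variable {R : RS ι τ} {A B : τ → ℝ} {sg : ℝ} {y0 : ι → ℝ} {Q : Walls ι W}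

theorem core_of (h : SOk A B sg) (hF : Q.Full y0 (R.vec (sg • B)) (R.vec A))
    {lam : (ι → ℝ) → ℝ} {D : ℝ × ℝ} {φ : ℕ → (ι → ℝ) → ℝ} {r : ℕ → ℝ}
    (H : OutS (R.srf y0 A B sg).g ((R.srf y0 A B sg).L Q) (R.srf y0 A B sg).dh
      (R.srf y0 A B sg).n lam D φ r) {ρ : τ → ℝ}
    (F : FRates R A B sg lam ((R.srf y0 A B sg).L Q) ρ) {c : τ → κ'}
    (hc : ∀ i j, c i = c j ↔ Par A B i j) :
    ∃ Φ : κ' → (τ → ℝ) → ℝ, Core R A B sg ((R.srf y0 A B sg).L Q) lam ρ c Φ := by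
  classical
  choose j hj using R.sur
  set g := (R.srf y0 A B sg).g with hg
  have hgp : ∀ i i', g i = g i' ↔ c (R.cls i) = c (R.cls i') := by
    intro i i'
    rw [hc, hg, h.grp_par (R := R) (y0 := y0)]
    exact ⟨fun h => h.symm', fun h => h.symm'⟩
  set Φ : κ' → (τ → ℝ) → ℝ := fun k w =>
    if hk : ∃ t, c t = k then φ (g (j hk.choose)) (R.vec w) else 0 with hΦ
  have e1 : ∀ t w, Φ (c t) w = φ (g (j t)) (R.vec w) := by
    intro t w
    have hk : ∃ t', c t' = c t := ⟨t, rfl⟩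
    have h1 : g (j hk.choose) = g (j t) := by
      rw [hgp, hj, hj]; exact hk.choose_spec
    simp only [hΦ]
    rw [dif_pos hk, h1]
  have e0 : ∀ k w, (∀ t, c t ≠ k) → Φ k w = 0 := by
    intro k w hk
    simp only [hΦ]
    rw [dif_neg]
    rintro ⟨t, ht⟩
    exact hk t ht
  have hdh : ∀ i, 0 < (R.srf y0 A B sg).dh i := srf_dh_pos h
  refine ⟨Φ, ⟨fun w hw => ?_, fun k w w' hww => ?_, e0, fun t w hw => ?_,
    fun k w w' hw hw' hle => ?_⟩⟩
  · -- sum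
    rw [H.sum _ hw]
    have e2 : ∑ k, Φ k w = ∑ k ∈ Finset.univ.image c, Φ k w := by
      symm
      refine Finset.sum_subset (Finset.subset_univ _) fun k _ hk => e0 k w fun t ht => hk ?_
      exact Finset.mem_image.2 ⟨t, Finset.mem_univ _, ht⟩
    rw [e2]
    refine Finset.sum_bij
      (fun κ hκ => c (R.cls (Classical.choose (Finset.mem_image.1 hκ)))) (fun κ hκ => ?_)
      (fun κ hκ κ₂ hκ₂ he => ?_) (fun k hk => ?_) (fun κ hκ => ?_)
    · exact Finset.mem_image_of_mem _ (Finset.mem_univ _)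
    · have a1 := (Classical.choose_spec (Finset.mem_image.1 hκ)).2
      have a2 := (Classical.choose_spec (Finset.mem_image.1 hκ₂)).2
      rw [← a1, ← a2]
      exact (hgp _ _).2 he
    · obtain ⟨t, -, rfl⟩ := Finset.mem_image.1 hk
      refine ⟨g (j t), mem_gset (j t), ?_⟩
      have a1 := (Classical.choose_spec (Finset.mem_image.1 (mem_gset (grp := g) (j t)))).2
      have a2 := (hgp _ _).1 a1
      rw [a2, hj]
    · have a1 := (Classical.choose_spec (Finset.mem_image.1 hκ)).2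
      rw [e1]
      have a3 : g (j (R.cls (Classical.choose (Finset.mem_image.1 hκ)))) = κ :=
        ((hgp _ _).2 (by rw [hj])).trans a1
      rw [a3]
  · -- loc
    by_cases hk : ∃ t, c t = k
    · obtain ⟨t, rfl⟩ := hk
      rw [e1, e1]
      refine H.loc _ _ _ fun i hi => ?_
      have := (hgp _ _).1 hi
      rw [hj] at this
      simp only [RS.vec]
      rw [hww _ this]
    · push Not at hk
      rw [e0 k w hk, e0 k w' hk]
  · -- rate
    have hd := (h.dl_pos t).ne'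
    obtain ⟨z, hz⟩ := exists_lvl (R := R) (y0 := y0) h (j t) (w t / dl A B sg t)
    have hL : Tn (R.srf y0 A B sg).a (R.srf y0 A B sg).b z ∈ (R.srf y0 A B sg).L Q :=
      Walls.Tn_mem z
    rw [e1, H.loc _ (R.vec w) (Tn (R.srf y0 A B sg).a (R.srf y0 A B sg).b z) fun i hi => by
      rw [hz i hi, h.dh_eq]
      have := (hgp _ _).1 hi
      rw [hj] at this
      have h2 := hw _ this
      simp only [RS.vec]
      have h3 : w (R.cls i) = w t * dl A B sg (R.cls i) / dl A B sg t := by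
        rw [eq_div_iff hd]; exact h2
      rw [h3]; ring]
    rw [H.rate _ _ hL _ hz]
    -- the constant
    obtain ⟨p, hp, hpe, hp0⟩ := roomGrp (R := R) (y0 := y0) (Q := Q) h hF t
    have k1 := F.grp t p 0 1 (fun i hi => by rw [hp0 i hi]; ring) hp (by rwa [one_smul])
    have hgi : ∀ i, g i = g (j t) ↔ Par A B t (R.cls i) := fun i => by
      rw [hgp, hj, hc]; exact ⟨fun h => h.symm', fun h => h.symm'⟩
    have k2 := rate_incS H (mem_gset (j t)) hp hpe (u := 0) (t := 1 / dl A B sg t)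
      (fun i hi => by rw [hp0 i ((hgi i).1 hi)]; ring)
      (fun i hi => by
        rw [RS.eG, if_pos ((hgi i).1 hi), h.dh_eq]; field_simp)
      (fun i hi => by
        rw [RS.eG, if_neg (fun h' => hi ((hgi i).2 h'))])
    rw [one_smul, mul_one] at k1
    rw [k1] at k2
    rw [k2]
    change -(r (g (j t)) * (w t / dl A B sg t)) = -(r (g (j t)) * (1 / dl A B sg t) * w t)
    ring
  · -- mono
    by_cases hk : ∃ t, c t = k
    · obtain ⟨t, rfl⟩ := hk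
      rw [e1, e1]
      have h1 := H.mono (g (j t)) _ hw _ hw' fun i hi => by
        have := (hgp _ _).1 hi
        rw [hj] at this
        simp only [RS.vec]
        exact mul_le_mul_of_nonneg_left (hle _ this) (R.pos i).le
      refine ⟨h1.1, h1.2.trans ?_⟩
      have h2 : ∑ i ∈ Finset.univ.filter (fun i => g i = g (j t)),
          (R.vec w' i - R.vec w i) ≤ ∑ i ∈ Finset.univ.filter (fun i => g i = g (j t)),
          R.mu i * |w' (R.cls i) - w (R.cls i)| := by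
        refine Finset.sum_le_sum fun i _ => ?_
        simp only [RS.vec]
        rw [← mul_sub]
        exact mul_le_mul_of_nonneg_left (le_abs_self _) (R.pos i).le
      refine h2.trans ?_
      exact Finset.sum_le_sum_of_subset_of_nonneg (Finset.filter_subset _ _) fun i _ _ =>
        mul_nonneg (R.pos i).le (abs_nonneg _)
    · push Not at hk
      rw [e0 k w hk, e0 k w' hk]
      simp only [sub_zero, le_refl, true_and]
      exact Finset.sum_nonneg fun i _ => mul_nonneg (R.pos i).le (abs_nonneg _)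

/-- the class functions are Lipschitz -/
theorem Core.lip {L : Set (ι → ℝ)} {lam : (ι → ℝ) → ℝ} {ρ : τ → ℝ} {c : τ → κ'}
    {Φ : κ' → (τ → ℝ) → ℝ} (H : Core R A B sg L lam ρ c Φ) {M : Set (τ → ℝ)}
    (hM : ∀ w ∈ M, R.vec w ∈ L) (hsup : ∀ w ∈ M, ∀ w' ∈ M, w ⊔ w' ∈ M) (k : κ') {w w' : τ → ℝ}
    (hw : w ∈ M) (hw' : w' ∈ M) : |Φ k w - Φ k w'| ≤ (∑ i, R.mu i) * ‖w - w'‖ := by
  have hs := hsup w hw w' hw'
  have h1 := H.mono k w (w ⊔ w') (hM _ hw) (hM _ hs) fun t _ => le_sup_left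
  have h2 := H.mono k w' (w ⊔ w') (hM _ hw') (hM _ hs) fun t _ => le_sup_right
  have b1 : ∑ i, R.mu i * |(w ⊔ w') (R.cls i) - w (R.cls i)| ≤ (∑ i, R.mu i) * ‖w - w'‖ := by
    rw [Finset.sum_mul]
    refine Finset.sum_le_sum fun i _ => mul_le_mul_of_nonneg_left ?_ (R.pos i).le
    have h3 := norm_le_pi_norm (w - w') (R.cls i)
    rw [Real.norm_eq_abs, Pi.sub_apply] at h3
    refine le_trans ?_ h3
    rw [Pi.sup_apply]
    rcases le_total (w (R.cls i)) (w' (R.cls i)) with h4 | h4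
    · rw [sup_eq_right.2 h4, abs_sub_comm]
    · rw [sup_eq_left.2 h4, sub_self, abs_zero]; exact abs_nonneg _
  have b2 : ∑ i, R.mu i * |(w ⊔ w') (R.cls i) - w' (R.cls i)| ≤ (∑ i, R.mu i) * ‖w - w'‖ := by
    rw [Finset.sum_mul]
    refine Finset.sum_le_sum fun i _ => mul_le_mul_of_nonneg_left ?_ (R.pos i).le
    have h3 := norm_le_pi_norm (w - w') (R.cls i)
    rw [Real.norm_eq_abs, Pi.sub_apply] at h3
    refine le_trans ?_ h3
    rw [Pi.sup_apply]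
    rcases le_total (w (R.cls i)) (w' (R.cls i)) with h4 | h4
    · rw [sup_eq_right.2 h4, sub_self, abs_zero]; exact abs_nonneg _
    · rw [sup_eq_left.2 h4]
  rw [abs_le]
  constructor <;> linarith [h1.1, h1.2, h2.1, h2.2]

end gen

/-- what is used of the profile at `z0` -/
structure PZ (L : Set (Fin 12 → ℝ)) (s : ℝ) (a b : Fin 2) (g : (Fin 12 → ℝ) → ℝ) : Prop where
  ab : a ≠ b
  cost : ∀ p ∈ L, ∀ q ∈ L, p ≤ q → (q (cs b) ≤ p (cs b) ∨ q (cs b) ≤ q (cs a)) →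
    (q (xs b) ≤ p (xs b) ∨ q (xs b) ≤ q (xs a)) →
    g p - g q ≤ ∑ k ∈ ({cs b, xs b} : Finset (Fin 12))ᶜ, (q k - p k)
  own : ∀ p ∈ L, ∀ q ∈ L, p ≤ q → p 0 = 0 → p 1 = 0 → p 2 = 0 → p 7 = 0 → p 8 = 0 →
    (1 - s) * q 0 ≤ g p - g q

/-- a nine-vector from an eight-vector and the slot `D` -/
def sn8 (f : Fin 8 → ℝ) (x : ℝ) : V9 := ![f 0, f 1, f 2, f 3, f 4, f 5, f 6, f 7, x]

theorem sn8_cast (f : Fin 8 → ℝ) (x : ℝ) (i : Fin 8) : sn8 f x i.castSucc = f i := by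
  fin_cases i <;> rfl

theorem sn8_last (f : Fin 8 → ℝ) (x : ℝ) : sn8 f x 8 = x := rfl

/-- the slots but `D` -/
def cut (w : V9) : Fin 8 → ℝ := fun i => w i.castSucc

theorem leg8_cut {w : V9} (h : LegM 0 w) : Leg8 (cut w) := by
  obtain ⟨a, b, c, d, e, f, g, i, j, k⟩ := h
  constructor <;> simp only [cut, Fin.reduceCastSucc] <;> simp only [add_zero] at * <;> assumption

theorem leg9_of {w : V9} (h : LegM 0 w) : Leg9 w := by
  obtain ⟨a, b, c, d, e, f, g, i, j, k⟩ := h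
  constructor <;> simp only [add_zero] at * <;> assumption

theorem legM_sup {w w' : V9} (h : LegM 0 w) (h' : LegM 0 w') : LegM 0 (w ⊔ w') := by
  obtain ⟨a, b, c, d, e, f, g, i, j, k⟩ := h
  obtain ⟨a', b', c', d', e', f', g', i', j', k'⟩ := h'
  simp only [add_zero] at *
  constructor <;> simp only [Pi.sup_apply, add_zero] <;> refine sup_le ?_ ?_ <;>
    first
    | exact (by assumption : _ ≤ _).trans (add_le_add le_sup_left le_sup_left)
    | exact (by assumption : _ ≤ _).trans (add_le_add le_sup_right le_sup_right)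

/-! ### `D` frozen -/

section eight

variable {θa θb t s sg : ℝ} {B : Fin 8 → ℝ} {a b : Fin 2}

theorem mem8B (ht : t ≠ 0) {d : Fin 8 → ℝ} (hd : Leg8 d) :
    xt kp 0 (RL8.vec d) ∈ L8B θa θb t B sg := by
  have hρ : ∀ i, ¬ kp i → r8 θa θb i = 0 := fun i hi => by
    have hi' : i = 1 := not_not.1 hi
    subst hi'
    unfold r8; rw [Function.update_self]
  have ha' : ∀ i, ¬ kp i → xt kp 0 (RL8.vec (sg • B)) i = 0 := fun i hi => by
    rw [Sl741.xt_off _ _ hi]; rfl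
  have h := Sl741.mem_slice_L (Q := mw monL) (p := kp) (v := y8 t) (hp := kp_hd) (x0 := y8 t)
    (a := xt kp 0 (RL8.vec (sg • B))) (b := r8 θa θb) (fun _ _ => rfl) ha' hρ (c := RL8.vec d)
  rw [rs_r8, Sl741.rs_xt] at h
  exact h.1 (mem8 ht hd)

/-- room off the class of `z` -/
def w8 (K : ℝ) : Fin 8 → ℝ := ![0, K, K, K, K, K, 0, 0]

open Classical in
/-- direction of the class of `z` -/
noncomputable def dz8 (θa θb sg : ℝ) (B : Fin 8 → ℝ) (i : Fin 8) : ℝ :=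
  if Par (nat8 1 (-θa) (-θb)) B 0 i then dl (nat8 1 (-θa) (-θb)) B sg i /
    dl (nat8 1 (-θa) (-θb)) B sg 0 else 0

theorem dz8_nonneg (hS : SOk (nat8 1 (-θa) (-θb)) B sg) (i : Fin 8) : 0 ≤ dz8 θa θb sg B i := by
  unfold dz8
  split_ifs
  · exact div_nonneg (hS.dl_pos i).le (hS.dl_pos 0).le
  · exact le_rfl

theorem dz8_zero (hS : SOk (nat8 1 (-θa) (-θb)) B sg) : dz8 θa θb sg B 0 = 1 := by
  unfold dz8
  rw [if_pos (Par.refl' 0), div_self (hS.dl_pos 0).ne']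

theorem dz8_off (hz : ∀ i : Fin 8, Par (nat8 1 (-θa) (-θb)) B 0 i → i = 0 ∨ i = 6 ∨ i = 7)
    {i : Fin 8} (hi : ¬ (i = 0 ∨ i = 6 ∨ i = 7)) : dz8 θa θb sg B i = 0 := by
  unfold dz8
  rw [if_neg fun h => hi (hz i h)]

theorem leg_w8 {K : ℝ} (hK : 0 ≤ K) : Leg8 (w8 K) := by
  constructor <;> simp [w8] <;> linarith

theorem leg_w8z (hS : SOk (nat8 1 (-θa) (-θb)) B sg)
    (hz : ∀ i : Fin 8, Par (nat8 1 (-θa) (-θb)) B 0 i → i = 0 ∨ i = 6 ∨ i = 7) {K : ℝ}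
    (hK : dz8 θa θb sg B 6 ≤ K) : Leg8 (w8 K + dz8 θa θb sg B) := by
  have h0 := dz8_zero hS
  have h1 := dz8_off (sg := sg) hz (i := 1) (by decide)
  have h2 := dz8_off (sg := sg) hz (i := 2) (by decide)
  have h3 := dz8_off (sg := sg) hz (i := 3) (by decide)
  have h4 := dz8_off (sg := sg) hz (i := 4) (by decide)
  have h5 := dz8_off (sg := sg) hz (i := 5) (by decide)
  have h6 := dz8_nonneg hS 6
  have h7 := dz8_nonneg hS 7
  constructor <;> simp [w8, h0, h1, h2, h3, h4, h5] <;> linarith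

theorem vec_dz8 : RL8.eG (nat8 1 (-θa) (-θb)) B sg 0 = RL8.vec (dz8 θa θb sg B) := by
  funext i
  simp only [RS.eG, RS.vec, dz8]
  by_cases h : Par (nat8 1 (-θa) (-θb)) B 0 (RL8.cls i)
  · rw [if_pos h, if_pos h]
  · rw [if_neg h, if_neg h, mul_zero]

/-- **`Cl9` at `z0`, `D` frozen** -/
theorem cl9_of8 (ht : 0 < t) (hS : SOk (nat8 1 (-θa) (-θb)) B sg) {J : Type*}
    {lam lam2 : J → (Fin 12 → ℝ) → ℝ} {j0 : J} {ρ ρ2 : Fin 8 → ℝ} {κ l α : ℝ} {h : ℕ → ℝ}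
    (hH : Half8 θa θb t B sg lam j0 ρ κ l α h lam2 ρ2)
    (P : PZ (L8B θa θb t B sg) s a b (lam2 j0)) {c : Fin 9 → Fin 9}
    (hc : ∀ i j : Fin 8, c i.castSucc = c j.castSucc ↔ Par (nat8 1 (-θa) (-θb)) B i j)
    (h8 : ∀ i : Fin 8, c i.castSucc ≠ c 8)
    (hz : ∀ i : Fin 8, Par (nat8 1 (-θa) (-θb)) B 0 i → i = 0 ∨ i = 6 ∨ i = 7) :
    ∃ φ, Cl9 c (sn8 (dl (nat8 1 (-θa) (-θb)) B sg) 1) s
      (fun w => lam2 j0 (xt kp 0 (RL8.vec (fun i => w i.castSucc)))) φ (sn8 ρ2 0) := by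
  obtain ⟨D, φ0, r, hO⟩ := hH.out
  obtain ⟨Φ, C⟩ := core_of (R := RL8) hS RL8_full hO hH.rates (c := fun i => c i.castSucc) hc
  have hmem : ∀ w : V9, LegM 0 w → RL8.vec (cut w) ∈
      (RL8.srf (rs kp (y8 t)) (nat8 1 (-θa) (-θb)) B sg).L (Q8 t) := fun w hw =>
    mem8 ht.ne' (leg8_cut hw)
  have hcx : ∀ w : Fin 8 → ℝ, xt kp 0 (RL8.vec w) (cs b) = xt kp 0 (RL8.vec w) (cs a) ∧
      xt kp 0 (RL8.vec w) (xs b) = xt kp 0 (RL8.vec w) (xs a) := by
    intro w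
    rw [xt8_apply, xt8_apply, xt8_apply, xt8_apply]
    fin_cases a <;> fin_cases b <;> exact ⟨rfl, rfl⟩
  have hle : ∀ {w w' : V9}, w ≤ w' → cut w ≤ cut w' := fun h i => h _
  refine ⟨fun k w => Φ k (cut w), ⟨fun w hw => C.sum _ (hmem w hw), fun k w w' hww =>
    C.loc k _ _ fun i hi => hww _ hi, fun k hk w => C.empty k _ fun i => hk _,
    fun i w hw => ?_, ?_, fun w w' hw hw' hww => ?_, ?_,
    fun w w' hw hw' hww => ?_⟩⟩
  · -- rate
    refine Fin.lastCases ?_ (fun i => ?_) i (motive := fun i => (∀ t', c t' = c i →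
      w t' * sn8 (dl (nat8 1 (-θa) (-θb)) B sg) 1 i =
        w i * sn8 (dl (nat8 1 (-θa) (-θb)) B sg) 1 t') → Φ (c i) (cut w) = -(sn8 ρ2 0 i * w i)) hw
    · intro _
      have e : (Fin.last 8 : Fin 9) = 8 := rfl
      rw [e, C.empty _ _ fun i => h8 i, sn8_last]; ring
    · intro hw
      rw [sn8_cast]
      refine C.rate i (cut w) fun i' hi' => ?_
      have := hw i'.castSucc hi'
      rw [sn8_cast, sn8_cast] at this
      exact this
  · -- Lipschitz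
    refine ⟨⟨∑ i, RL8.mu i, Finset.sum_nonneg fun i _ => (RL8.pos i).le⟩, fun k => ?_⟩
    refine LipschitzOnWith.of_dist_le_mul fun w hw w' hw' => ?_
    rw [Real.dist_eq, dist_eq_norm]
    have h1 := C.lip (M := cut '' {w | LegM 0 w}) (by
      rintro _ ⟨v, hv, rfl⟩; exact hmem v hv) (by
      rintro _ ⟨v, hv, rfl⟩ _ ⟨v', hv', rfl⟩
      exact ⟨v ⊔ v', legM_sup hv hv', by funext i; rfl⟩) k (w := cut w) (w' := cut w')
      ⟨w, hw, rfl⟩ ⟨w', hw', rfl⟩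
    refine h1.trans ?_
    refine mul_le_mul_of_nonneg_left ?_ (Finset.sum_nonneg fun i _ => (RL8.pos i).le)
    rw [pi_norm_le_iff_of_nonneg (norm_nonneg _)]
    exact fun i => norm_le_pi_norm (w - w') i.castSucc
  · -- anti
    have h1 := C.sum _ (hmem w hw)
    have h2 := C.sum _ (hmem w' hw')
    have h3 : 0 ≤ ∑ k, (Φ k (cut w) - Φ k (cut w')) := Finset.sum_nonneg fun k _ =>
      (C.mono k _ _ (hmem w hw) (hmem w' hw') fun i _ => hle hww i).1
    rw [Finset.sum_sub_distrib] at h3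
    change lam2 j0 (xt kp 0 (RL8.vec (cut w'))) ≤ lam2 j0 (xt kp 0 (RL8.vec (cut w)))
    linarith
  · -- own
    obtain ⟨K, hK0, hK⟩ : ∃ K : ℝ, 0 ≤ K ∧ dz8 θa θb sg B 6 ≤ K :=
      ⟨_, dz8_nonneg hS 6, le_rfl⟩
    have hl1 := leg_w8 hK0
    have hl2 := leg_w8z hS hz hK
    have e : RL8.vec (w8 K + dz8 θa θb sg B) =
        RL8.vec (w8 K) + (1:ℝ) • RL8.eG (nat8 1 (-θa) (-θb)) B sg 0 := by
      rw [vec_dz8, one_smul, RS.vec_add]
    have k1 := hH.rates.grp 0 (RL8.vec (w8 K)) 0 1 (fun i hi => by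
      have h1 := hz _ hi
      simp only [RS.vec, mul_zero]
      rcases h1 with h1 | h1 | h1 <;> rw [h1] <;> simp [w8]) (mem8 ht.ne' hl1) (by
      rw [← e]; exact mem8 ht.ne' hl2)
    rw [← e, mul_one] at k1
    have k2 := P.own _ (mem8B ht.ne' hl1) _ (mem8B ht.ne' hl2) (xt8_le fun i => by
      rw [Pi.add_apply]; linarith [dz8_nonneg hS i]) (by rw [xt8_apply]; simp [cl8, w8])
      (by rw [xt8_apply]; simp) (by rw [xt8_apply]; simp [cl8, w8])
      (by rw [xt8_apply]; simp [cl8, w8]) (by rw [xt8_apply]; simp [cl8, w8])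
    have k3 : xt kp 0 (RL8.vec (w8 K + dz8 θa θb sg B)) 0 = 1 := by
      rw [xt8_apply]
      simp [cl8, w8, dz8_zero hS]
    rw [k3, mul_one] at k2
    have e0 : sn8 ρ2 0 0 = ρ2 0 := rfl
    rw [e0]
    have k4 : lam2 j0 (xt kp 0 (RL8.vec (w8 K))) -
        lam2 j0 (xt kp 0 (RL8.vec (w8 K + dz8 θa θb sg B))) = ρ2 0 := k1
    linarith
  · -- cost
    have h1 := P.cost _ (mem8B ht.ne' (leg8_cut hw)) _ (mem8B ht.ne' (leg8_cut hw'))
      (xt8_le (hle hww)) (Or.inr (hcx _).1.le) (Or.inr (hcx _).2.le)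
    rw [cost_sum8 P.ab] at h1
    refine h1.trans ?_
    rw [Fin.sum_univ_eight]
    have e9 : ∀ f : Fin 9 → ℝ, ∑ t, f t =
        f 0 + f 1 + f 2 + f 3 + f 4 + f 5 + f 6 + f 7 + f 8 := by
      intro f
      rw [Fin.sum_univ_castSucc, Fin.sum_univ_eight]
      rfl
    rw [e9]
    have h8' : 0 ≤ w' 8 - w 8 := sub_nonneg.2 (hww 8)
    simp [cst, cut]
    linarith

end eight

/-! ### `D` live -/

section nine

variable {θa θb s sg : ℝ} {B : Fin 9 → ℝ} {a b : Fin 2}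

theorem mem9L {d : Fin 9 → ℝ} (hd : Leg9 d) :
    RL9.vec d ∈ (RL9.srf 0 (nat9 1 (-θa) (-θb)) B sg).L (mw monL) := mem9 hd

theorem mem9B {d : Fin 9 → ℝ} (hd : Leg9 d) : RL9.vec d ∈ L9B θa θb B sg := mem9 hd

/-- room off the class of `z` -/
def w9 (K : ℝ) : Fin 9 → ℝ := ![0, K, K, K, K, K, 0, 0, 0]

open Classical in
/-- direction of the class of `z` -/
noncomputable def dz9 (θa θb sg : ℝ) (B : Fin 9 → ℝ) (i : Fin 9) : ℝ :=
  if Par (nat9 1 (-θa) (-θb)) B 0 i then dl (nat9 1 (-θa) (-θb)) B sg i /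
    dl (nat9 1 (-θa) (-θb)) B sg 0 else 0

theorem dz9_nonneg (hS : SOk (nat9 1 (-θa) (-θb)) B sg) (i : Fin 9) : 0 ≤ dz9 θa θb sg B i := by
  unfold dz9
  split_ifs
  · exact div_nonneg (hS.dl_pos i).le (hS.dl_pos 0).le
  · exact le_rfl

theorem dz9_zero (hS : SOk (nat9 1 (-θa) (-θb)) B sg) : dz9 θa θb sg B 0 = 1 := by
  unfold dz9
  rw [if_pos (Par.refl' 0), div_self (hS.dl_pos 0).ne']

theorem dz9_off
    (hz : ∀ i : Fin 9, Par (nat9 1 (-θa) (-θb)) B 0 i → i = 0 ∨ i = 6 ∨ i = 7 ∨ i = 8)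
    {i : Fin 9} (hi : ¬ (i = 0 ∨ i = 6 ∨ i = 7 ∨ i = 8)) : dz9 θa θb sg B i = 0 := by
  unfold dz9
  rw [if_neg fun h => hi (hz i h)]

theorem dz9_G (hS : SOk (nat9 1 (-θa) (-θb)) B sg)
    (hG : Par (nat9 1 (-θa) (-θb)) B 0 7 → Par (nat9 1 (-θa) (-θb)) B 0 8 ∧
      dl (nat9 1 (-θa) (-θb)) B sg 7 ≤ dl (nat9 1 (-θa) (-θb)) B sg 0 +
        dl (nat9 1 (-θa) (-θb)) B sg 8) :
    dz9 θa θb sg B 7 ≤ 1 + dz9 θa θb sg B 8 := by
  by_cases h : Par (nat9 1 (-θa) (-θb)) B 0 7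
  · obtain ⟨h8, hle⟩ := hG h
    unfold dz9
    rw [if_pos h, if_pos h8]
    have h0 := hS.dl_pos 0
    rw [div_le_iff₀ h0, add_mul, div_mul_cancel₀ _ h0.ne', one_mul]
    exact hle
  · have := dz9_nonneg hS 8
    have e : dz9 θa θb sg B 7 = 0 := by unfold dz9; rw [if_neg h]
    rw [e]; linarith

theorem leg_w9 {K : ℝ} (hK : 0 ≤ K) : Leg9 (w9 K) := by
  constructor <;> simp [w9] <;> linarith

theorem leg_w9z (hS : SOk (nat9 1 (-θa) (-θb)) B sg)
    (hz : ∀ i : Fin 9, Par (nat9 1 (-θa) (-θb)) B 0 i → i = 0 ∨ i = 6 ∨ i = 7 ∨ i = 8)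
    (hG : dz9 θa θb sg B 7 ≤ 1 + dz9 θa θb sg B 8) {K : ℝ}
    (hK : dz9 θa θb sg B 6 ≤ K) : Leg9 (w9 K + dz9 θa θb sg B) := by
  have h0 := dz9_zero hS
  have h1 := dz9_off (sg := sg) hz (i := 1) (by decide)
  have h2 := dz9_off (sg := sg) hz (i := 2) (by decide)
  have h3 := dz9_off (sg := sg) hz (i := 3) (by decide)
  have h4 := dz9_off (sg := sg) hz (i := 4) (by decide)
  have h5 := dz9_off (sg := sg) hz (i := 5) (by decide)
  have h6 := dz9_nonneg hS 6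
  have h7 := dz9_nonneg hS 7
  have h8 := dz9_nonneg hS 8
  constructor <;> simp [w9, h0, h1, h2, h3, h4, h5] <;> linarith

theorem vec_dz9 : RL9.eG (nat9 1 (-θa) (-θb)) B sg 0 = RL9.vec (dz9 θa θb sg B) := by
  funext i
  simp only [RS.eG, RS.vec, dz9]
  by_cases h : Par (nat9 1 (-θa) (-θb)) B 0 (RL9.cls i)
  · rw [if_pos h, if_pos h]
  · rw [if_neg h, if_neg h, mul_zero]

/-- **`Cl9` at `z0`, `D` live** -/
theorem cl9_of9 (hS : SOk (nat9 1 (-θa) (-θb)) B sg) {J : Type*}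
    {lam lam2 : J → (Fin 12 → ℝ) → ℝ} {j0 : J} {ρ ρ2 : Fin 9 → ℝ} {κ l α : ℝ} {h : ℕ → ℝ}
    (hH : Half9 θa θb B sg lam j0 ρ κ l α h lam2 ρ2)
    (P : PZ (L9B θa θb B sg) s a b (lam2 j0)) {c : Fin 9 → Fin 9}
    (hc : ∀ i j : Fin 9, c i = c j ↔ Par (nat9 1 (-θa) (-θb)) B i j)
    (hz : ∀ i : Fin 9, Par (nat9 1 (-θa) (-θb)) B 0 i → i = 0 ∨ i = 6 ∨ i = 7 ∨ i = 8)
    (hG : Par (nat9 1 (-θa) (-θb)) B 0 7 → Par (nat9 1 (-θa) (-θb)) B 0 8 ∧
      dl (nat9 1 (-θa) (-θb)) B sg 7 ≤ dl (nat9 1 (-θa) (-θb)) B sg 0 +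
        dl (nat9 1 (-θa) (-θb)) B sg 8) :
    ∃ φ, Cl9 c (dl (nat9 1 (-θa) (-θb)) B sg) s (fun w => lam2 j0 (RL9.vec w)) φ ρ2 := by
  obtain ⟨D, φ0, r, hO⟩ := hH.out
  obtain ⟨Φ, C⟩ := core_of (R := RL9) hS RL9_full hO hH.rates (c := c) hc
  have hmem : ∀ w : V9, LegM 0 w → RL9.vec w ∈
      (RL9.srf 0 (nat9 1 (-θa) (-θb)) B sg).L (mw monL) := fun w hw => mem9L (leg9_of hw)
  have hcx : ∀ w : Fin 9 → ℝ, RL9.vec w (cs b) = RL9.vec w (cs a) ∧
      RL9.vec w (xs b) = RL9.vec w (xs a) := by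
    intro w
    rw [vec9_apply, vec9_apply, vec9_apply, vec9_apply]
    fin_cases a <;> fin_cases b <;> exact ⟨rfl, rfl⟩
  refine ⟨Φ, ⟨fun w hw => C.sum _ (hmem w hw), C.loc, fun k hk w => C.empty k w hk, C.rate, ?_,
    fun w w' hw hw' hww => ?_, ?_, fun w w' hw hw' hww => ?_⟩⟩
  · -- Lipschitz
    refine ⟨⟨∑ i, RL9.mu i, Finset.sum_nonneg fun i _ => (RL9.pos i).le⟩, fun k => ?_⟩
    refine LipschitzOnWith.of_dist_le_mul fun w hw w' hw' => ?_
    rw [Real.dist_eq, dist_eq_norm]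
    exact C.lip (M := {w | LegM 0 w}) (fun v hv => hmem v hv)
      (fun v hv v' hv' => legM_sup hv hv') k hw hw'
  · -- anti
    have h1 := C.sum _ (hmem w hw)
    have h2 := C.sum _ (hmem w' hw')
    have h3 : 0 ≤ ∑ k, (Φ k w - Φ k w') := Finset.sum_nonneg fun k _ =>
      (C.mono k _ _ (hmem w hw) (hmem w' hw') fun i _ => hww i).1
    rw [Finset.sum_sub_distrib] at h3
    change lam2 j0 (RL9.vec w') ≤ lam2 j0 (RL9.vec w)
    linarith
  · -- own
    obtain ⟨K, hK0, hK⟩ : ∃ K : ℝ, 0 ≤ K ∧ dz9 θa θb sg B 6 ≤ K :=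
      ⟨_, dz9_nonneg hS 6, le_rfl⟩
    have hl1 := leg_w9 hK0
    have hl2 := leg_w9z hS hz (dz9_G hS hG) hK
    have e : RL9.vec (w9 K + dz9 θa θb sg B) =
        RL9.vec (w9 K) + (1:ℝ) • RL9.eG (nat9 1 (-θa) (-θb)) B sg 0 := by
      rw [vec_dz9, one_smul, RS.vec_add]
    have k1 := hH.rates.grp 0 (RL9.vec (w9 K)) 0 1 (fun i hi => by
      have h1 := hz _ hi
      simp only [RS.vec, mul_zero]
      rcases h1 with h1 | h1 | h1 | h1 <;> rw [h1] <;> simp [w9]) (mem9L hl1) (by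
      rw [← e]; exact mem9L hl2)
    rw [← e, mul_one] at k1
    have k2 := P.own _ (mem9B hl1) _ (mem9B hl2) (vec9_le fun i => by
      rw [Pi.add_apply]; linarith [dz9_nonneg hS i]) (by rw [vec9_apply]; simp [cl9, w9])
      (by rw [vec9_apply]; simp [cl9, w9]) (by rw [vec9_apply]; simp [cl9, w9])
      (by rw [vec9_apply]; simp [cl9, w9]) (by rw [vec9_apply]; simp [cl9, w9])
    have k3 : RL9.vec (w9 K + dz9 θa θb sg B) 0 = 1 := by
      rw [vec9_apply]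
      simp [cl9, w9, dz9_zero hS]
    rw [k3, mul_one] at k2
    linarith
  · -- cost
    have h1 := P.cost _ (mem9B (leg9_of hw)) _ (mem9B (leg9_of hw'))
      (vec9_le hww) (Or.inr (hcx _).1.le) (Or.inr (hcx _).2.le)
    rw [cost_sum9 P.ab] at h1
    refine h1.trans (le_of_eq ?_)
    refine Finset.sum_congr rfl fun i _ => ?_
    congr 1
    fin_cases i <;> rfl

end nine

end Crest.Agent.R116.Tq126
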