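import Crest.Agent.R116.NZ9_90
import Crest.Agent.R116.Tq2_126
import Crest.Agent.R116.IIr2_460

/-!
# R116, K-TEXT II-c: (NZ) in the letters of 460's planes (helper90)

* `kH_Lam`, `kH_lin` : rate of `B` at any position of the class function on `kD` (741's `LinS`)
* **`nzE`**          : field `nz` of `EUpNZ`
* **`nzK`**          : field `nz` of `S1` and `DUpNZ`, every `k < 1`
-/

set_option autoImplicit false
set_option linter.unusedVariables false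

open Set Filter Topology

namespace Crest.Agent.R116.NZ90

open Crest.Agent.R136
open Crest.Agent.R138
open Dg219 (Walls mw Cone)
open Sl741 (slice xt rs)
open RbK219 RbM219
open ChL222 (monL mfL)
open Tp139
open Rcx363
open Kz647
open Tq741
open Tq126 (cut leg8_cut)
open Tie460 (Pl)
open Pos126 (mem8)

/-- the class function of 741 -/
noncomputable abbrev Lam8 (lam2 : (Fin 12 → ℝ) → ℝ) (w : V9) : ℝ :=
  lam2 (xt kp 0 (RL8.vec (fun i : Fin 8 => w i.castSucc)))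

section

variable {θ θb k t : ℝ} (ht : t ≠ 0) (hθ : 0 < θ) (hθk : θ < k) (hk : k = 1 / 2)
  (hb : θb = 2 * θ - k) {ch : ℝ} (hch : 0 < ch) {J : Type*} {lam : J → (Fin 12 → ℝ) → ℝ}
  {j0 : J} {K own : ℝ} (hl : LamOk (L8 θ θb t) (lam j0) K own) {ρh : Fin 8 → ℝ}
  (rh : Rates8 θ θb t kH (-1) ch (lam j0) ρh) {ρ : Fin 8 → ℝ} {κ l α : ℝ} {h : ℕ → ℝ}
  {lam2 : J → (Fin 12 → ℝ) → ℝ} {ρ2 : Fin 8 → ℝ}
  (H : Half8 θ θb t kD (-1) lam j0 ρ κ l α h lam2 ρ2)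
include ht hθ hθk hk hb hch hl rh H

/-- increments of `B` of the class function -/
theorem kH_Lam {w : V9} {y : ℝ} (hw : LegM 0 w) (hw' : LegM 0 (w + y • e9 6)) (hy : 0 ≤ y) :
    ρh 6 * y ≤ Lam8 (lam2 j0) w - Lam8 (lam2 j0) (w + y • e9 6) := by
  have e : RL8.vec (cut (w + y • e9 6)) = RL8.vec (cut w) + y • RL8.e 6 := by
    funext i
    simp only [RS.vec, Pi.add_apply, Pi.smul_apply, smul_eq_mul, RS.e, cut]
    by_cases hi : RL8.cls i = 6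
    · rw [if_pos hi, hi]
      have : e9 6 (Fin.castSucc (6 : Fin 8)) = 1 := e9_same 6
      rw [this]; ring
    · have h6 : e9 6 (Fin.castSucc (RL8.cls i)) = 0 := e9_ne (fun h' =>
        hi (Fin.castSucc_injective 8 (h'.trans (rfl : (6 : Fin 9) = Fin.castSucc (6 : Fin 8)))))
      rw [if_neg hi, h6]
      ring
  have key := kH_half ht hθ hθk hk hb hch hl rh H (c := RL8.vec (cut w)) (b := w 6) (y := y)
    (fun i hi => by
      change 1 * w (Fin.castSucc (cl8 i.1)) = w 6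
      rw [hi, one_mul]; rfl) hy (mem8 ht (leg8_cut hw)) (by
      rw [← e]; exact mem8 ht (leg8_cut hw'))
  rw [← e] at key
  exact key

/-- rate of `B` at any position -/
theorem kH_lin {Z : Finset (Fin 9)} (hZ : (6 : Fin 9) ∉ Z) {w R : V9} (hw : LegM 0 w)
    (hR : LinS Z (Lam8 (lam2 j0)) w R) : ρh 6 ≤ R 6 := by
  obtain ⟨u, Ψ, hu, hu0, hΨ, hT⟩ := hR
  obtain ⟨d, hd⟩ : ∃ d : V9, d = e9 1 + e9 8 := ⟨_, rfl⟩
  have hd' : d = ![0, 1, 0, 0, 0, 0, 0, 0, 1] := by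
    rw [hd]; funext i; fin_cases i <;> simp [e9]
  have hde : d + e9 6 = ![0, 1, 0, 0, 0, 0, 1, 0, 1] := by
    rw [hd]; funext i; fin_cases i <;> simp [e9]
  have l1 : LegM 0 d := by rw [hd']; constructor <;> simp
  have l2 : LegM 0 (d + e9 6) := by rw [hde]; constructor <;> simp
  have t1 := hT d l1
  have t2 := hT (d + e9 6) l2
  have eΨ : Ψ (d + e9 6) = Ψ d := hΨ _ _ (fun i hi => by
    have : i ≠ 6 := fun h => hZ (h ▸ hi)
    rw [Pi.add_apply, e9_ne this, add_zero]) l2 l1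
  have eS : ∑ i ∈ Zᶜ, R i * (d + e9 6) i = ∑ i ∈ Zᶜ, R i * d i + R 6 := by
    have h1 : ∑ i ∈ Zᶜ, R i * (d + e9 6) i = ∑ i ∈ Zᶜ, R i * d i + ∑ i ∈ Zᶜ, R i * e9 6 i := by
      rw [← Finset.sum_add_distrib]
      exact Finset.sum_congr rfl fun i _ => by rw [Pi.add_apply]; ring
    have h2 : ∑ i ∈ Zᶜ, R i * e9 6 i = R 6 := by
      rw [Finset.sum_eq_single (6 : Fin 9) (fun i _ hi => by rw [e9_ne hi, mul_zero])
        (fun h => absurd (Finset.mem_compl.2 hZ) h), e9_same, mul_one]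
    rw [h1, h2]
  have t3 := t1.sub t2
  rw [eΨ, eS] at t3
  have e3 : -(Ψ d + ∑ i ∈ Zᶜ, R i * d i) - -(Ψ d + (∑ i ∈ Zᶜ, R i * d i + R 6)) = R 6 := by ring
  rw [e3] at t3
  refine ge_of_tendsto' t3 fun m => ?_
  have hm := hu m
  have e4 : w + u m • (d + e9 6) = w + u m • d + u m • e9 6 := by
    rw [smul_add, add_assoc]
  have key := kH_Lam ht hθ hθk hk hb hch hl rh H (w := w + u m • d) (y := u m)
    (hw.add_smul l1 hm.le) (by rw [← e4]; exact hw.add_smul l2 hm.le) hm.le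
  rw [e4, ← sub_div, le_div_iff₀ hm]
  linarith

end

/-! ### the fields of 460 -/

/-- field `nz` of `EUpNZ` -/
theorem nzE {θ θb k t : ℝ} (ht : t ≠ 0) (hθ : 0 < θ) (hk : 0 < k) (hθ1 : θ < 1 + k)
    (hb : θb = θ - k) {cp cm : ℝ} (hcp : 0 < cp) (hcm : 0 < cm) {lam : (Fin 12 → ℝ) → ℝ}
    {K s : ℝ} (hl : LamOk (L8 θ θb t) lam K (1 - s)) {ρp ρm : Fin 8 → ℝ}
    (rp : Rates8 θ θb t oS 1 cp lam ρp) (rm : Rates8 θ θb t (eD k) (-1) cm lam ρm) {A : Pl}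
    (hn : A.n = 1 - ρm 4) (he : ρm 0 - (1 - s) ≤ A.e) (hw : 0 ≤ A.w) (hu : ρm 7 ≤ A.u)
    (hp : ρp 4 = 1) : (1 + k - θ) * A.n ≤ A.e + k * A.w + (k + θ) * A.u := by
  have key := nz8_e ht hθ hk hθ1 hb hcp hcm hl rp rm
  have h1 := mul_nonneg hk.le hw
  have h2 := mul_le_mul_of_nonneg_left hu (by linarith : 0 ≤ k + θ)
  rw [hp] at key
  rw [hn]
  linarith

/-- field `nz` of `S1` and of `DUpNZ` -/
theorem nzK {θ θb k t : ℝ} (ht : t ≠ 0) (hθ : 0 < θ) (hθk : θ < k) (hk1 : k < 1)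
    (hb : θb = 2 * θ - k) {cp cm ch : ℝ} (hcp : 0 < cp) (hcm : 0 < cm) (hch : 0 < ch)
    {lam : (Fin 12 → ℝ) → ℝ} {K s : ℝ} (hl : LamOk (L8 θ θb t) lam K (1 - s))
    {ρp ρm ρh : Fin 8 → ℝ} (rp : Rates8 θ θb t oS 1 cp lam ρp)
    (rm : Rates8 θ θb t kD (-1) cm lam ρm) (rh : Rates8 θ θb t kH (-1) ch lam ρh) {A : Pl}
    (hn : A.n = 1 - ρm 4) (he : ρm 0 - (1 - s) ≤ A.e) (hw : k ≠ 1 / 2 → ρm 6 ≤ A.w)
    (hw' : k = 1 / 2 → ρh 6 ≤ A.w) (hu : 0 ≤ A.u) (hp : ρp 4 = 1) :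
    (1 + k - 2 * θ) * A.n ≤ A.e + (k - θ) * A.w + k * A.u := by
  have h1 := mul_nonneg (by linarith : 0 ≤ k) hu
  rw [hn]
  by_cases h : k = 1 / 2
  · have key := nz8_half ht hθ hθk h hb hcp hcm hch hl rp rm rh
    have h2 := mul_le_mul_of_nonneg_left (hw' h) (by linarith : 0 ≤ k - θ)
    rw [hp] at key
    linarith
  · have key := nz8_k ht hθ hθk hk1 h hb hcp hcm hl rp rm
    have h2 := mul_le_mul_of_nonneg_left (hw h) (by linarith : 0 ≤ k - θ)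
    rw [hp] at key
    linarith

end Crest.Agent.R116.NZ90
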