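import Crest.Agent.R116.Rcx5_363
import Crest.Agent.R116.Rcx6_363
import Crest.Agent.R116.Tq2_126

/-!
# R116 (K side, TIES), plane data (helper363)

* `Pd8`, `Pd9`   : everything at the generic point of one half plane (window bases, tangents of
  `(ν, own)`, `Half`, `Prf`);
* `plane8`, `plane9` : from `Out8`, `Out9` (363) and the rates of the surface;
* `Pd8.cls`, `Pd9.cls` : the decoupled class function (126);
* `Pd8.pairs`, `Pd8.tb` : equal pairs; tied slots of the shifted bases.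
-/

set_option autoImplicit false
set_option linter.unusedVariables false

open Set Filter Topology MeasureTheory

namespace Crest.Agent.R116.Pd363

open Crest.Agent.R138.Ex926 (IsTan)
open Crest.Agent.R136
open Crest.Agent.R136.Net191
open Crest.Agent.R116.ChL222
open Crest.Agent.R116.PL504 (eL βL rL)
open Crest.Agent.R116.Xd954 (cs xs)
open Crest.Agent.R116.Sg337 (coneL DL natB eL_bx9)
open Crest.Agent.R116.RbM219
open Crest.Agent.R116.RbK219 (SOk RS Par dl)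
open Crest.Agent.R116.SgO219 (PP)
open Crest.Agent.R116.Kz647
open Crest.Agent.R116.Rcx363
open Crest.Agent.R116.Tq741 (Cl9)
open Crest.Agent.R116.Tq126 (PZ sn8 cl9_of8 cl9_of9)
open Dg219 (mw)
open Sl741 (slice xt rs)

/-- `PZ` (own law at `u = 0`) from `Prf` -/
theorem pz_of {L : Set (Fin 12 → ℝ)} {s : ℝ} {a b : Fin 2} {Vis : Fin 12 → Prop}
    {β : Fin 12 → ℝ} {g : (Fin 12 → ℝ) → ℝ} (H : Prf L s a b Vis β g)
    (hV : ∀ k, Vis k → k = 0 ∨ k = 1 ∨ k = 2 ∨ k = 7 ∨ k = 8) : PZ L s a b g where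
  ab := H.ab
  cost := H.cost
  own := fun p hp q hq hpq h0 h1 h2 h7 h8 => by
    have h := H.own p hp q hq hpq 0 h0.le fun k hk => by
      rw [zero_mul]
      rcases hV k hk with rfl | rfl | rfl | rfl | rfl
      · exact h0.le
      · exact h1.le
      · exact h2.le
      · exact h7.le
      · exact h8.le
    rwa [sub_zero] at h

/-! ### `D` frozen -/

/-- **plane data, `D` frozen**: `lam` = record tangents, `ρ` = rates of the surface `B`,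
`z8 .. l α` = the generic point, `lam2` = tangents there, `X`, `H` = window bases and units -/
structure Pd8 (R s : ℝ) (a b : Fin 2) (Vis' : Fin 12 → Prop) (θa θb w0 sa sb v0 t κ : ℝ)
    (B : Fin 8 → ℝ) (sg : ℝ) (f : Fin 2 → (Fin 12 → ℝ) → ℝ) (lam : Fin 2 → (Fin 12 → ℝ) → ℝ)
    (ρ : Fin 8 → ℝ) (l α : ℝ) (h' : ℕ → ℝ) (X : ℕ → Fin 12 → ℝ) (H : ℕ → ℝ)
    (lam2 : Fin 2 → (Fin 12 → ℝ) → ℝ) (ρ2 : Fin 8 → ℝ) : Prop where
  half : Half8 θa θb t B sg lam 0 ρ κ l α h' lam2 ρ2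
  tan2 : ∀ j, IsTan (L8 θa θb t) (L8B θa θb t B sg) (lam j) (fun _ => z8 θa θb B l α) h' (lam2 j)
  pos : ∀ m, 0 < H m
  lim : Tendsto H atTop (𝓝 0)
  xlim : Tendsto X atTop (𝓝 (rL θa θb w0 sa sb v0))
  base : ∃ V E : ℕ → ℝ, Tendsto V atTop (𝓝 0) ∧ Tendsto E atTop (𝓝 0) ∧ (∀ m, 0 < E m) ∧
    ∀ m, ∀ k, k ≠ 1 → X m k = rL θa θb w0 sa sb (v0 + V m) k + E m * B (cl8 k)
  tan : ∀ j, IsTan (Leg monL R) (L8B θa θb t B sg) (f j) X H (lam2 j)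
  prf : Prf (L8B θa θb t B sg) s a b Vis' (βL θa θb) (lam2 0)

section eight

variable {R s : ℝ} {a b : Fin 2} {Vis Vis' : Fin 12 → Prop} {θa θb g qa qb w0 sa sb v0 t κ : ℝ}
    {T : Type*} {Bs : T → Fin 8 → ℝ} {sgs : T → ℝ} {f : Fin 2 → (Fin 12 → ℝ) → ℝ}
    {x X : ℕ → Fin 12 → ℝ} {hh h' H : ℕ → ℝ} {lam lam2 : Fin 2 → (Fin 12 → ℝ) → ℝ}
    {B : Fin 8 → ℝ} {sg l α : ℝ} {ρ ρ2 : Fin 8 → ℝ}

/-- **plane data exist** -/
theorem plane8 (O : Out8 R s a b Vis θa θb g qa qb t Bs sgs (rL θa θb w0 sa sb v0) f x hh lam)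
    (ht0 : 0 < t) (hS : SOk (nat8 1 (-θa) (-θb)) B sg) (hL : Leg8 B) {c0 : ℝ} (hc0 : 0 < c0)
    (hR : Rates8 θa θb t B sg c0 (lam 0) ρ) {v c p : ℝ} (hn : nat8 v c p ≤ B) (hV1 : ¬ Vis 1)
    (hV : ∀ k, Vis k → (Vis' k ∧ B (cl8 k) ≤ B 0 * βL θa θb k) ∨ B (cl8 k) < B 0 * βL θa θb k)
    {N : Set (ℝ × ℝ)} (hN : ∀ᵐ z : ℝ × ℝ, z ∈ N) {y : ℝ} (hy : 0 < y) :
    ∃ (l α : ℝ) (h' : ℕ → ℝ) (X : ℕ → Fin 12 → ℝ) (H : ℕ → ℝ)
      (lam2 : Fin 2 → (Fin 12 → ℝ) → ℝ) (ρ2 : Fin 8 → ℝ),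
      0 < l ∧ l < y ∧ ((l * sg, α) : ℝ × ℝ) ∈ N ∧
      Pd8 R s a b Vis' θa θb w0 sa sb v0 t (DL g s qa qb v c p) B sg f lam ρ l α h' X H lam2 ρ2 := by
  obtain ⟨l, α, h', lam2, ρ2, ψ, hl, hly, hlN, hzL, hH, hT2, hp', h0', hψ, -, hT, hP⟩ :=
    z8_out (Vis' := Vis') O ht0 hS hL hc0 hR hn hV1 hV hN hy
      (Pr := fun _ _ => True) (fun _ => Eventually.of_forall fun _ => trivial)
  obtain ⟨Hf, yy, ξ, hHp, hH0, hy0, -, hx⟩ := O.base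
  have hψt := hψ.tendsto_atTop
  have hhl : Tendsto (fun m => hh (ψ m)) atTop (𝓝 0) := O.lim.comp hψt
  refine ⟨l, α, h', fun m => x (ψ m) + hh (ψ m) • z8 θa θb B l α, fun m => hh (ψ m) * h' m, lam2,
    ρ2, hl, hly, hlN, hH, hT2, fun m => mul_pos (O.pos _) (hp' m), ?_, ?_,
    ⟨fun m => Hf (ψ m) * yy (ψ m) + hh (ψ m) * α, fun m => hh (ψ m) * l, ?_, ?_,
      fun m => mul_pos (O.pos _) hl, fun m k hk => ?_⟩, hT, hP⟩
  · have := hhl.mul h0'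
    simpa using this
  · have h1 := (O.xlim.comp hψt).add (hhl.smul_const (z8 θa θb B l α))
    rw [zero_smul, add_zero] at h1
    exact h1
  · have h1 := ((hH0.comp hψt).mul (hy0.comp hψt)).add (hhl.mul_const α)
    simp only [zero_mul, add_zero] at h1
    exact h1
  · have h1 := hhl.mul_const l
    simp only [zero_mul] at h1
    exact h1
  · show (x (ψ m) + hh (ψ m) • z8 θa θb B l α) k = _
    rw [hx, base8_val hk]

/-- **the decoupled class function** -/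
theorem Pd8.cls (P : Pd8 R s a b Vis' θa θb w0 sa sb v0 t κ B sg f lam ρ l α h' X H lam2 ρ2)
    (ht : 0 < t) (hS : SOk (nat8 1 (-θa) (-θb)) B sg)
    (hVis : ∀ k, Vis' k → k = 0 ∨ k = 1 ∨ k = 2 ∨ k = 7 ∨ k = 8) {c : Fin 9 → Fin 9}
    (hc : ∀ i j : Fin 8, c i.castSucc = c j.castSucc ↔ Par (nat8 1 (-θa) (-θb)) B i j)
    (h8 : ∀ i : Fin 8, c i.castSucc ≠ c 8)
    (hz : ∀ i : Fin 8, Par (nat8 1 (-θa) (-θb)) B 0 i → i = 0 ∨ i = 6 ∨ i = 7) :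
    ∃ φ, Cl9 c (sn8 (dl (nat8 1 (-θa) (-θb)) B sg) 1) s
      (fun w => lam2 0 (xt kp 0 (RL8.vec (fun i => w i.castSucc)))) φ (sn8 ρ2 0) :=
  cl9_of8 ht hS P.half (pz_of P.prf hVis) hc h8 hz

/-- equal pairs -/
theorem Pd8.pairs (P : Pd8 R s a b Vis' θa θb w0 sa sb v0 t κ B sg f lam ρ l α h' X H lam2 ρ2)
    (m : ℕ) : X m 4 = X m 3 ∧ X m 6 = X m 5 ∧ X m 8 = X m 7 := by
  obtain ⟨V, E, -, -, -, hb⟩ := P.base
  refine ⟨?_, ?_, ?_⟩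
  · rw [hb m 4 (by decide), hb m 3 (by decide)]; rfl
  · rw [hb m 6 (by decide), hb m 5 (by decide)]; rfl
  · rw [hb m 8 (by decide), hb m 7 (by decide)]; rfl

/-- **tied slots of the shifted bases** (369's `TBase`) -/
theorem Pd8.tb (P : Pd8 R s a b Vis' θa θb w0 sa sb v0 t κ B sg f lam ρ l α h' X H lam2 ρ2)
    {S : Finset (Fin 12)} (hS : ∀ k ∈ S, k ≠ 1 ∧ B (cl8 k) = B 0 * βL θa θb k)
    {c : Fin 12 → ℝ} (hc : ∀ k ∈ S, c k = c 0 * βL θa θb k) {ψ : ℕ → ℕ} (hψ : StrictMono ψ)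
    {u : ℕ → ℝ} (hu : Tendsto u atTop (𝓝 0)) :
    ∃ v : ℕ → ℝ, Tendsto v atTop (𝓝 v0) ∧ (∀ m, (X (ψ m) + u m • c) 0 = w0 + v m) ∧
      ∀ m, ∀ k ∈ S, (X (ψ m) + u m • c) k = rL θa θb w0 sa sb (v m) k := by
  obtain ⟨V, E, hV0, hE0, -, hb⟩ := P.base
  have hψt := hψ.tendsto_atTop
  have hb0 : ∀ m, X (ψ m) 0 = w0 + (v0 + V (ψ m)) + E (ψ m) * B 0 := fun m => by
    rw [hb (ψ m) 0 (by decide)]; rfl
  refine ⟨fun m => v0 + V (ψ m) + E (ψ m) * B 0 + u m * c 0, ?_, fun m => ?_, fun m k hk => ?_⟩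
  · have h1 := (((hV0.comp hψt).const_add v0).add ((hE0.comp hψt).mul_const (B 0))).add
      (hu.mul_const (c 0))
    simp only [zero_mul, add_zero] at h1
    exact h1
  · rw [Pi.add_apply, Pi.smul_apply, smul_eq_mul, hb0]; ring
  · have e : v0 + V (ψ m) + E (ψ m) * B 0 + u m * c 0 =
        (v0 + V (ψ m)) + (E (ψ m) * B 0 + u m * c 0) := by ring
    show (X (ψ m) + u m • c) k = rL θa θb w0 sa sb (v0 + V (ψ m) + E (ψ m) * B 0 + u m * c 0) k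
    rw [e, rL_add, Pi.add_apply, Pi.smul_apply, smul_eq_mul, hb (ψ m) k (hS k hk).1, (hS k hk).2,
      Pi.add_apply, Pi.smul_apply, smul_eq_mul, hc k hk]
    ring

end eight

/-! ### `D` live -/

/-- **plane data, `D` live** -/
structure Pd9 (R s : ℝ) (a b : Fin 2) (Vis' : Fin 12 → Prop) (θa θb w0 sa sb v0 κ : ℝ)
    (B : Fin 9 → ℝ) (sg : ℝ) (f : Fin 2 → (Fin 12 → ℝ) → ℝ) (lam : Fin 2 → (Fin 12 → ℝ) → ℝ)
    (ρ : Fin 9 → ℝ) (l α : ℝ) (h' : ℕ → ℝ) (X : ℕ → Fin 12 → ℝ) (H : ℕ → ℝ)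
    (lam2 : Fin 2 → (Fin 12 → ℝ) → ℝ) (ρ2 : Fin 9 → ℝ) : Prop where
  half : Half9 θa θb B sg lam 0 ρ κ l α h' lam2 ρ2
  tan2 : ∀ j, IsTan (PP (mw monL)) (L9B θa θb B sg) (lam j) (fun _ => z9 θa θb B l α) h' (lam2 j)
  pos : ∀ m, 0 < H m
  lim : Tendsto H atTop (𝓝 0)
  xlim : Tendsto X atTop (𝓝 (rL θa θb w0 sa sb v0))
  base : ∃ V E : ℕ → ℝ, Tendsto V atTop (𝓝 0) ∧ Tendsto E atTop (𝓝 0) ∧ (∀ m, 0 < E m) ∧
    ∀ m, ∀ k, X m k = rL θa θb w0 sa sb (v0 + V m) k + E m * B (cl9 k)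
  tan : ∀ j, IsTan (Leg monL R) (L9B θa θb B sg) (f j) X H (lam2 j)
  prf : Prf (L9B θa θb B sg) s a b Vis' (βL θa θb) (lam2 0)

section nine

variable {R s : ℝ} {a b : Fin 2} {Vis Vis' : Fin 12 → Prop} {θa θb g qa qb w0 sa sb v0 κ : ℝ}
    {T : Type*} {Bs : T → Fin 9 → ℝ} {sgs : T → ℝ} {f : Fin 2 → (Fin 12 → ℝ) → ℝ}
    {x X : ℕ → Fin 12 → ℝ} {hh h' H : ℕ → ℝ} {lam lam2 : Fin 2 → (Fin 12 → ℝ) → ℝ}
    {B : Fin 9 → ℝ} {sg l α : ℝ} {ρ ρ2 : Fin 9 → ℝ}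

/-- **plane data exist** -/
theorem plane9 (O : Out9 R s a b Vis θa θb g qa qb Bs sgs (rL θa θb w0 sa sb v0) f x hh lam)
    (hS : SOk (nat9 1 (-θa) (-θb)) B sg) (hL : Leg9 B) {c0 : ℝ} (hc0 : 0 < c0)
    (hR : Rates9 θa θb B sg c0 (lam 0) ρ) {v c p : ℝ} (hn : nat9 v c p ≤ B)
    (hV : ∀ k, Vis k → (Vis' k ∧ B (cl9 k) ≤ B 0 * βL θa θb k) ∨ B (cl9 k) < B 0 * βL θa θb k)
    {N : Set (ℝ × ℝ)} (hN : ∀ᵐ z : ℝ × ℝ, z ∈ N) {y : ℝ} (hy : 0 < y) :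
    ∃ (l α : ℝ) (h' : ℕ → ℝ) (X : ℕ → Fin 12 → ℝ) (H : ℕ → ℝ)
      (lam2 : Fin 2 → (Fin 12 → ℝ) → ℝ) (ρ2 : Fin 9 → ℝ),
      0 < l ∧ l < y ∧ ((l * sg, α) : ℝ × ℝ) ∈ N ∧
      Pd9 R s a b Vis' θa θb w0 sa sb v0 (DL g s qa qb v c p) B sg f lam ρ l α h' X H lam2 ρ2 := by
  obtain ⟨l, α, h', lam2, ρ2, ψ, hl, hly, hlN, hzL, hH, hT2, hp', h0', hψ, -, hT, hP⟩ :=
    z9_out (Vis' := Vis') O hS hL hc0 hR hn hV hN hy
      (Pr := fun _ _ => True) (fun _ => Eventually.of_forall fun _ => trivial)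
  obtain ⟨Hf, yy, ξ, hHp, hH0, hy0, hx⟩ := O.base
  have hψt := hψ.tendsto_atTop
  have hhl : Tendsto (fun m => hh (ψ m)) atTop (𝓝 0) := O.lim.comp hψt
  refine ⟨l, α, h', fun m => x (ψ m) + hh (ψ m) • z9 θa θb B l α, fun m => hh (ψ m) * h' m, lam2,
    ρ2, hl, hly, hlN, hH, hT2, fun m => mul_pos (O.pos _) (hp' m), ?_, ?_,
    ⟨fun m => Hf (ψ m) * yy (ψ m) + hh (ψ m) * α, fun m => hh (ψ m) * l, ?_, ?_,
      fun m => mul_pos (O.pos _) hl, fun m k => ?_⟩, hT, hP⟩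
  · have := hhl.mul h0'
    simpa using this
  · have h1 := (O.xlim.comp hψt).add (hhl.smul_const (z9 θa θb B l α))
    rw [zero_smul, add_zero] at h1
    exact h1
  · have h1 := ((hH0.comp hψt).mul (hy0.comp hψt)).add (hhl.mul_const α)
    simp only [zero_mul, add_zero] at h1
    exact h1
  · have h1 := hhl.mul_const l
    simp only [zero_mul] at h1
    exact h1
  · show (x (ψ m) + hh (ψ m) • z9 θa θb B l α) k = _
    rw [hx, base9_val]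

/-- **the decoupled class function** -/
theorem Pd9.cls (P : Pd9 R s a b Vis' θa θb w0 sa sb v0 κ B sg f lam ρ l α h' X H lam2 ρ2)
    (hS : SOk (nat9 1 (-θa) (-θb)) B sg)
    (hVis : ∀ k, Vis' k → k = 0 ∨ k = 1 ∨ k = 2 ∨ k = 7 ∨ k = 8) {c : Fin 9 → Fin 9}
    (hc : ∀ i j : Fin 9, c i = c j ↔ Par (nat9 1 (-θa) (-θb)) B i j)
    (hz : ∀ i : Fin 9, Par (nat9 1 (-θa) (-θb)) B 0 i → i = 0 ∨ i = 6 ∨ i = 7 ∨ i = 8)
    (hG : Par (nat9 1 (-θa) (-θb)) B 0 7 → Par (nat9 1 (-θa) (-θb)) B 0 8 ∧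
      dl (nat9 1 (-θa) (-θb)) B sg 7 ≤ dl (nat9 1 (-θa) (-θb)) B sg 0 +
        dl (nat9 1 (-θa) (-θb)) B sg 8) :
    ∃ φ, Cl9 c (dl (nat9 1 (-θa) (-θb)) B sg) s (fun w => lam2 0 (RL9.vec w)) φ ρ2 :=
  cl9_of9 hS P.half (pz_of P.prf hVis) hc hz hG

/-- equal pairs -/
theorem Pd9.pairs (P : Pd9 R s a b Vis' θa θb w0 sa sb v0 κ B sg f lam ρ l α h' X H lam2 ρ2)
    (m : ℕ) : X m 4 = X m 3 ∧ X m 6 = X m 5 ∧ X m 8 = X m 7 := by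
  obtain ⟨V, E, -, -, -, hb⟩ := P.base
  refine ⟨?_, ?_, ?_⟩
  · rw [hb m 4, hb m 3]; rfl
  · rw [hb m 6, hb m 5]; rfl
  · rw [hb m 8, hb m 7]; rfl

/-- **tied slots of the shifted bases** (369's `TBase`) -/
theorem Pd9.tb (P : Pd9 R s a b Vis' θa θb w0 sa sb v0 κ B sg f lam ρ l α h' X H lam2 ρ2)
    {S : Finset (Fin 12)} (hS : ∀ k ∈ S, B (cl9 k) = B 0 * βL θa θb k)
    {c : Fin 12 → ℝ} (hc : ∀ k ∈ S, c k = c 0 * βL θa θb k) {ψ : ℕ → ℕ} (hψ : StrictMono ψ)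
    {u : ℕ → ℝ} (hu : Tendsto u atTop (𝓝 0)) :
    ∃ v : ℕ → ℝ, Tendsto v atTop (𝓝 v0) ∧ (∀ m, (X (ψ m) + u m • c) 0 = w0 + v m) ∧
      ∀ m, ∀ k ∈ S, (X (ψ m) + u m • c) k = rL θa θb w0 sa sb (v m) k := by
  obtain ⟨V, E, hV0, hE0, -, hb⟩ := P.base
  have hψt := hψ.tendsto_atTop
  have hb0 : ∀ m, X (ψ m) 0 = w0 + (v0 + V (ψ m)) + E (ψ m) * B 0 := fun m => by
    rw [hb (ψ m) 0]; rfl
  refine ⟨fun m => v0 + V (ψ m) + E (ψ m) * B 0 + u m * c 0, ?_, fun m => ?_, fun m k hk => ?_⟩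
  · have h1 := (((hV0.comp hψt).const_add v0).add ((hE0.comp hψt).mul_const (B 0))).add
      (hu.mul_const (c 0))
    simp only [zero_mul, add_zero] at h1
    exact h1
  · rw [Pi.add_apply, Pi.smul_apply, smul_eq_mul, hb0]; ring
  · have e : v0 + V (ψ m) + E (ψ m) * B 0 + u m * c 0 =
        (v0 + V (ψ m)) + (E (ψ m) * B 0 + u m * c 0) := by ring
    show (X (ψ m) + u m • c) k = rL θa θb w0 sa sb (v0 + V (ψ m) + E (ψ m) * B 0 + u m * c 0) k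
    rw [e, rL_add, Pi.add_apply, Pi.smul_apply, smul_eq_mul, hb (ψ m) k, hS k hk,
      Pi.add_apply, Pi.smul_apply, smul_eq_mul, hc k hk]
    ring

end nine

end Crest.Agent.R116.Pd363
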