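import Crest.Agent.R116.Tq5_794
import Crest.Agent.R116.Pd1_363
import Crest.Agent.R116.Kt1_710

/-!
# R116 (K side, TIES), Pe0 (helper794): the static facts of 363's natural planes

* `LM0_L8B`, `LM_L9B`     : the cones
* `hthB`, `hthM`          : 710's dead directions near a record point
* **`Pd8.fct`**, **`Pd9.fct`** : `CtxT` + `Pd8` / `Pd9` of a natural offset `⊢ Fct9`
-/

set_option autoImplicit false
set_option linter.unusedSectionVars false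
set_option linter.unusedVariables false

open Set Filter Topology

namespace Crest.Agent.R116.Tq794

open Crest.Agent.R138
open Crest.Agent.R138.Ex926 (Base U IsTan)
open Crest.Agent.R136
open Crest.Agent.R136.MkA627
open Crest.Agent.R136.TD627
open Crest.Agent.R136.Net191
open Crest.Agent.R136.Lq196
open Crest.Agent.R136.Qg926 Crest.Agent.R136.Gf356 Crest.Agent.R116.EvL504
open Crest.Agent.R116.ChL222
open Crest.Agent.R116.PL504 (nb rL DN eL βL oL Shift eL_wall)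
open Crest.Agent.R116.Sg337 (bx9)
open Crest.Agent.R116.Gd222 (TSet sN PDL DT)
open Crest.Agent.R116.KI439
open Crest.Agent.R116.KF439 (PL)
open Crest.Agent.R116.CtxB468
open Crest.Agent.R116.Rcx363 (fo fo_lip Prf)
open Crest.Agent.R116.RbM219
open Crest.Agent.R116.RbK219 (RS)
open Crest.Agent.R116.Kz647
open Crest.Agent.R116.Pd363
open Crest.Agent.R116.SgF665 (wl wl_add wl_smul LM0 mem_LM0 bx9_mem LinTan LinFacts)
open Crest.Agent.R116.Kg330 (LinTanM ThinB ThinM BsF BsM LinFactsR linFactsR bsF_shift bsM_shift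
  Pr2 pr2_bx9)
open Crest.Agent.R116.WinG954 (LM)
open Crest.Agent.R116.Tq741
open Dg219 (mw Walls)
open Sl741 (slice xt rs)

theorem LM0_L8B {θa θb t : ℝ} (ht : t ≠ 0) {B : Fin 8 → ℝ} {sg : ℝ} :
    LM0 ⊆ L8B θa θb t B sg := by
  intro c hc w hw
  have h1 := hw.1
  have hk : w.1 ≠ 1 := mon_one w.2.2
  have h2 : (mw monL).rhs w (y8 t) = (w.2.1 1 : ℝ) * t := by
    change ∑ s, (w.2.1 s : ℝ) * y8 t s = _
    rw [Finset.sum_eq_single (1 : Fin 12)]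
    · unfold y8; rw [Function.update_self]
    · intro s _ hs; rw [y8_at hs, mul_zero]
    · intro h; exact absurd (Finset.mem_univ _) h
  have h3 : y8 t ((mw monL).hd w) = 0 := y8_at hk
  rw [h2, h3] at h1
  have h4 : (w.2.1 1 : ℝ) * t = 0 := by
    have h5 : (mw monL).cst w = 0 := rfl
    rw [h5, add_zero] at h1
    exact h1.symm
  have h6 : w.2.1 1 = 0 := by
    have := (mul_eq_zero.1 h4).resolve_right ht
    exact_mod_cast this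
  exact hc w.1 w.2.1 w.2.2 h6

theorem LM_L9B {θa θb : ℝ} {B : Fin 9 → ℝ} {sg : ℝ} : LM ⊆ L9B θa θb B sg := by
  intro c hc w hw
  exact hc w.1 w.2.1 w.2.2

section ctx

variable {G : Geo TSet (Fin 2)} {L : ℕ → ℕ → LRay} {r : ℕ → ℝ} {c s : ℝ} {θ q : Fin 2 → ℝ}
    {Rg : ℝ} {B : Base} {I : ℕ → Finset (ℕ × ℝ)} {lev : ℕ → ℚ → ℕ} {A : ℕ → ℝ}
    {f : ℕ → ℚ → ℕ → ℤ → ℕ} {b : ℕ → ℚ → ℕ → TSet} {vm : ℕ → ℚ → ℝ} {w : Fin 2 → ℕ → ℚ → ℝ}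
    {fr : ℕ → ℚ → ℕ × ℝ → LInc} {fl : ℕ → ℕ × ℝ → LInc} {sc : Fin 12 → ℕ → ℝ}
    {w0 sa sb δ R : ℝ} {I0 I' : ℕ → Finset (ℕ × ℝ)} {ν own : (Fin 12 → ℝ) → ℝ} {c₀ : ℝ}
    {v0 ζ C' : ℝ}

theorem nb_rL : nb w0 sa sb v0 (θ 0 * (1 - v0)) (θ 1 * (1 - v0)) = rL (θ 0) (θ 1) w0 sa sb v0 := by
  unfold nb rL
  rw [add_comm sa, add_comm sb]

/-- 710's dead direction near a record point, `D` frozen -/
theorem hthB
    (C : CtxT G L r c s θ q Rg B I lev A f b vm w fr fl sc w0 sa sb δ R I0 I' ν own c₀)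
    (hz : Kz710.FlagZ B I fl (sN lev w) ζ) (hθ : 0 < θ 0) (hv0 : 0 < v0) (hv1 : v0 < 1)
    (hζ : θ 1 * (1 - v0) < ζ + θ 0 * (1 - v0)) (Y : ℕ → Fin 12 → ℝ) (k : ℕ → ℝ)
    (hY : Tendsto Y atTop (𝓝 (rL (θ 0) (θ 1) w0 sa sb v0)))
    (e4 : ∀ l, Y l 4 = Y l 3) (e6 : ∀ l, Y l 6 = Y l 5) (e8 : ∀ l, Y l 8 = Y l 7) :
    ThinB B I0 I' (PL504.coN B lev w w0 sa sb fl) C' ν Y k := by
  have h1 : 0 < θ 0 * (1 - v0) := mul_pos hθ (by linarith)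
  refine Kt710.thinB C hz (t := θ 0 * (1 - v0)) (v := v0) (y := θ 1 * (1 - v0)) h1 (by linarith) hζ
    (fun i _ => ?_) (Eventually.of_forall e4) (Eventually.of_forall e6) (Eventually.of_forall e8)
  rw [nb_rL]
  exact (tendsto_pi_nhds.1 hY) i

/-- 710's dead direction near a record point, `D` live -/
theorem hthM
    (C : CtxT G L r c s θ q Rg B I lev A f b vm w fr fl sc w0 sa sb δ R I0 I' ν own c₀)
    (hz : Kz710.FlagZ B I fl (sN lev w) ζ) (hθ : 0 < θ 0) (hv0 : 0 < v0) (hv1 : v0 < 1)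
    (hζ : θ 1 * (1 - v0) < ζ + θ 0 * (1 - v0)) (Y : ℕ → Fin 12 → ℝ) (k : ℕ → ℝ)
    (hY : Tendsto Y atTop (𝓝 (rL (θ 0) (θ 1) w0 sa sb v0)))
    (e4 : ∀ l, Y l 4 = Y l 3) (e6 : ∀ l, Y l 6 = Y l 5) (e8 : ∀ l, Y l 8 = Y l 7) :
    ThinM B I0 I' (PL504.coN B lev w w0 sa sb fl) C' ν Y k := by
  have h1 : 0 < θ 0 * (1 - v0) := mul_pos hθ (by linarith)
  refine Kt710.thinM C hz (t := θ 0 * (1 - v0)) (v := v0) (y := θ 1 * (1 - v0)) h1 (by linarith) hζ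
    (fun i _ => ?_) (Eventually.of_forall e4) (Eventually.of_forall e6) (Eventually.of_forall e8)
  rw [nb_rL]
  exact (tendsto_pi_nhds.1 hY) i

end ctx

section planes

variable {R s : ℝ} {a b : Fin 2} {Vis' : Fin 12 → Prop} {θa θb w0 sa sb v0 t κ : ℝ}
    {f : Fin 2 → (Fin 12 → ℝ) → ℝ} {X : ℕ → Fin 12 → ℝ} {h' H : ℕ → ℝ}
    {lam lam2 : Fin 2 → (Fin 12 → ℝ) → ℝ} {sg l α v c p : ℝ}

theorem eL_lin (z c p z' c' p' E : ℝ) (k : Fin 12) :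
    eL z c p k + E * eL z' c' p' k = eL (z + E * z') (c + E * c') (p + E * p') k := by
  fin_cases k <;> simp [eL] <;> ring

/-- the bases of a natural plane, `D` frozen -/
theorem pd8_natural {ρ ρ2 : Fin 8 → ℝ}
    (P : Pd8 R s a b Vis' θa θb w0 sa sb v0 t κ (nat8 v c p) sg f lam ρ l α h' X H lam2 ρ2) :
    ∃ zz cc pp dd : ℕ → ℝ,
      ∀ m, X m = eL (zz m) (cc m) (pp m) + dd m • (Pi.single 1 1 : Fin 12 → ℝ) := by
  obtain ⟨V, E, -, -, -, hb⟩ := P.base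
  set zz : ℕ → ℝ := fun m => w0 + (v0 + V m) + E m * v with hzz
  set cc : ℕ → ℝ := fun m => θa * (1 - (v0 + V m)) + sa + E m * c with hcc
  set pp : ℕ → ℝ := fun m => θb * (1 - (v0 + V m)) + sb + E m * p with hpp
  refine ⟨zz, cc, pp, fun m => X m 1 - eL (zz m) (cc m) (pp m) 1, fun m => ?_⟩
  funext k
  by_cases hk : k = 1
  · subst hk
    simp
  · rw [hb m k hk]
    simp only [Pi.add_apply, Pi.smul_apply, smul_eq_mul, Pi.single_eq_of_ne hk, mul_zero, add_zero]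
    have e1 : nat8 v c p (cl8 k) = eL v c p k := by
      fin_cases k <;> first | exact absurd rfl hk | simp [nat8, cl8, eL]
    rw [e1]
    exact eL_lin _ _ _ _ _ _ _ _

/-- the bases of a natural plane, `D` live -/
theorem pd9_natural {ρ ρ2 : Fin 9 → ℝ}
    (P : Pd9 R s a b Vis' θa θb w0 sa sb v0 κ (nat9 v c p) sg f lam ρ l α h' X H lam2 ρ2) :
    ∃ zz cc pp : ℕ → ℝ, ∀ m, X m = eL (zz m) (cc m) (pp m) := by
  obtain ⟨V, E, -, -, -, hb⟩ := P.base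
  refine ⟨fun m => w0 + (v0 + V m) + E m * v, fun m => θa * (1 - (v0 + V m)) + sa + E m * c,
    fun m => θb * (1 - (v0 + V m)) + sb + E m * p, fun m => ?_⟩
  funext k
  rw [hb m k]
  have e1 : nat9 v c p (cl9 k) = eL v c p k := by
    fin_cases k <;> simp [nat9, cl9, eL]
  rw [e1]
  exact eL_lin _ _ _ _ _ _ _ _

/-- `D` is slack: it is read from the tangent itself -/
theorem slack_of_tan {ν g : (Fin 12 → ℝ) → ℝ} (hpos : ∀ l, 0 < H l)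
    (ht : IsTan (Leg monL R) LM0 ν X H g) {zz cc pp dd : ℕ → ℝ}
    (hXn : ∀ l, X l = eL (zz l) (cc l) (pp l) + dd l • (Pi.single 1 1 : Fin 12 → ℝ)) (K : ℝ) :
    ∀ᶠ l in atTop, K * H l ≤ dd l := by
  have hm : bx9 0 0 (max K 0) 0 0 0 0 0 0 ∈ LM0 := by
    rw [bx9_mem]
    have := le_max_right K 0
    refine ⟨?_, ?_, ?_, ?_, ?_, ?_, ?_⟩ <;> linarith
  filter_upwards [SgO219.tan_ev ht hm] with l hl
  have h1 : (X l + H l • bx9 0 0 (max K 0) 0 0 0 0 0 0) 2 ≤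
      wl ![1, 1, 0, 0, 0, 0, 0, 0, 0, 0, 0, 0] (X l + H l • bx9 0 0 (max K 0) 0 0 0 0 0 0) :=
    hl.1.wall 2 ![1, 1, 0, 0, 0, 0, 0, 0, 0, 0, 0, 0] (by decide)
  have s2 : (Pi.single 1 1 : Fin 12 → ℝ) 2 = 0 := Pi.single_eq_of_ne (by decide) _
  have s1 : (Pi.single 1 1 : Fin 12 → ℝ) 1 = 1 := Pi.single_eq_same _ _
  have s0 : (Pi.single 1 1 : Fin 12 → ℝ) 0 = 0 := Pi.single_eq_of_ne (by decide) _
  have q0 : (X l + H l • bx9 0 0 (max K 0) 0 0 0 0 0 0) 0 = zz l := by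
    rw [hXn l]
    simp only [Pi.add_apply, Pi.smul_apply, smul_eq_mul, s0, mul_zero, add_zero]
    show zz l + H l * 0 = zz l
    ring
  have q1 : (X l + H l • bx9 0 0 (max K 0) 0 0 0 0 0 0) 1 =
      pp l - 2 * cc l - zz l + dd l := by
    rw [hXn l]
    simp only [Pi.add_apply, Pi.smul_apply, smul_eq_mul, s1, mul_one]
    show pp l - 2 * cc l - zz l + dd l + H l * 0 = _
    ring
  have q2 : (X l + H l • bx9 0 0 (max K 0) 0 0 0 0 0 0) 2 =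
      pp l - 2 * cc l + H l * max K 0 := by
    rw [hXn l]
    simp only [Pi.add_apply, Pi.smul_apply, smul_eq_mul, s2, mul_zero, add_zero]
    show pp l - 2 * cc l + H l * max K 0 = _
    ring
  have e : wl ![1, 1, 0, 0, 0, 0, 0, 0, 0, 0, 0, 0] (X l + H l • bx9 0 0 (max K 0) 0 0 0 0 0 0) =
      (X l + H l • bx9 0 0 (max K 0) 0 0 0 0 0 0) 0 +
        (X l + H l • bx9 0 0 (max K 0) 0 0 0 0 0 0) 1 := by
    rw [wl12]; simp
  rw [e, q0, q1, q2] at h1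
  have h2 := mul_le_mul_of_nonneg_left (le_max_left K 0) (hpos l).le
  linarith

end planes

section ctx

variable {G : Geo TSet (Fin 2)} {L : ℕ → ℕ → LRay} {r : ℕ → ℝ} {g s : ℝ} {θ q : Fin 2 → ℝ}
    {Rg : ℝ} {B : Base} {I : ℕ → Finset (ℕ × ℝ)} {lev : ℕ → ℚ → ℕ} {A : ℕ → ℝ}
    {f : ℕ → ℚ → ℕ → ℤ → ℕ} {b : ℕ → ℚ → ℕ → TSet} {vm : ℕ → ℚ → ℝ} {w : Fin 2 → ℕ → ℚ → ℝ}
    {fr : ℕ → ℚ → ℕ × ℝ → LInc} {fl : ℕ → ℕ × ℝ → LInc} {sc : Fin 12 → ℕ → ℝ}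
    {w0 sa sb δ R : ℝ} {I0 I' : ℕ → Finset (ℕ × ℝ)} {ν own : (Fin 12 → ℝ) → ℝ} {c₀ : ℝ}
    {v0 ζ t κ sg l α v c p : ℝ} {a b' : Fin 2} {Vis' : Fin 12 → Prop} {X : ℕ → Fin 12 → ℝ}
    {h' H : ℕ → ℝ} {lam lam2 : Fin 2 → (Fin 12 → ℝ) → ℝ} {Sk : V9 → Prop}

/-- **the facts of a natural plane, `D` frozen** -/
theorem pd8_fct {ρ ρ2 : Fin 8 → ℝ}
    (P : Pd8 R s a b' Vis' (θ 0) (θ 1) w0 sa sb v0 t κ (nat8 v c p) sg (fo ν own) lam ρ l α h' X H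
      lam2 ρ2)
    (C : CtxT G L r g s θ q Rg B I lev A f b vm w fr fl sc w0 sa sb δ R I0 I' ν own c₀)
    (hs0 : 0 ≤ s) (hs1 : s ≤ 1) (ht : t ≠ 0) (hz : Kz710.FlagZ B I fl (sN lev w) ζ)
    (hθ : 0 < θ 0) (hv0 : 0 < v0) (hv1 : v0 < 1) (hζ : θ 1 * (1 - v0) < ζ + θ 0 * (1 - v0))
    (hSk : ∀ w, LegM 0 w → Sk w → ∀ k, Vis' k → E8 w k ≤ w 0 * βL (θ 0) (θ 1) k) :
    Fct9 Sk s (fun w => lam2 0 (xt kp 0 (RL8.vec (fun i : Fin 8 => w i.castSucc)))) := by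
  obtain ⟨zz, cc, pp, dd, hXn⟩ := pd8_natural P
  have ht' : ∀ j, IsTan (Leg monL R) LM0 (fo ν own j) X H (lam2 j) := fun j =>
    Rc683.tan_mono (P.tan j) Subset.rfl (LM0_L8B ht)
  have h1 := fct8_ctx C hs0 hs1 (hthB C hz hθ hv0 hv1 hζ) P.pos P.lim P.xlim ht' hXn
    (slack_of_tan P.pos (ht' 0) hXn) (P.prf.mono (LM0_L8B ht)) hSk
  simpa only [E8_eq] using h1

/-- **the facts of a natural plane, `D` live** -/
theorem pd9_fct {ρ ρ2 : Fin 9 → ℝ}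
    (P : Pd9 R s a b' Vis' (θ 0) (θ 1) w0 sa sb v0 κ (nat9 v c p) sg (fo ν own) lam ρ l α h' X H
      lam2 ρ2)
    (C : CtxT G L r g s θ q Rg B I lev A f b vm w fr fl sc w0 sa sb δ R I0 I' ν own c₀)
    (hs0 : 0 ≤ s) (hs1 : s ≤ 1) (hz : Kz710.FlagZ B I fl (sN lev w) ζ)
    (hθ : 0 < θ 0) (hv0 : 0 < v0) (hv1 : v0 < 1) (hζ : θ 1 * (1 - v0) < ζ + θ 0 * (1 - v0))
    (hSk : ∀ w, LegM 0 w → Sk w → ∀ k, Vis' k → E9 w k ≤ w 0 * βL (θ 0) (θ 1) k) :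
    Fct9 Sk s (fun w => lam2 0 (RL9.vec w)) := by
  obtain ⟨zz, cc, pp, hXn⟩ := pd9_natural P
  have ht' : ∀ j, IsTan (Leg monL R) LM (fo ν own j) X H (lam2 j) := fun j =>
    Rc683.tan_mono (P.tan j) Subset.rfl LM_L9B
  have h1 := fct9_ctx C hs0 hs1 (hthM C hz hθ hv0 hv1 hζ) P.pos P.lim P.xlim ht' hXn
    (P.prf.mono LM_L9B) hSk
  simpa only [E9_eq] using h1

end ctx

end Crest.Agent.R116.Tq794
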