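import Crest.Agent.R116.Tq1_741

/-!
# R116, ties: the two-height facts on class vectors (helper171)
-/

set_option autoImplicit false

namespace Crest.Agent.R116.Pu171

open Crest.Agent.R116.Tq741

/-- the two-height facts at the points of `K1` and `K2` -/
structure FctP (Sk : V9 → Prop) (Λ : V9 → ℝ) : Prop where
  P1 : ∀ w R, One 1 w → Sk w → LinS ∅ Λ w R → R 1 ≤ R 3
  P2 : ∀ w R, One 7 w → Sk w → LinS ∅ Λ w R → R 2 ≤ R 4

end Crest.Agent.R116.Pu171
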