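import Crest.Agent.R116.Tq1_741
import Crest.Agent.R116.Rcx5_363
import Crest.Agent.R116.Kg2_330

/-!
# R116 (K side, TIES), Tq3 (helper794): the window facts at linear points of the class vectors

* `E8 w`, `E9 w`      : the box of a class vector, `D` frozen / live (`E8_eq`, `E9_eq`: 219's letters)
* `tan_core`          : `LinS ∅ Λ w R` gives tangents of `f j` at the moving base
                        `X (ψ m) + H (ψ m) • E w`, unit `H (ψ m) * h m`, with `lam j0 (E d) = -Σ R t d t`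
* `linTan8`, `linTan9`: the same as 665's `LinTan` (`D` frozen), 330's `LinTanM` (`D` live)
* `own_R`             : the own law at the linear point (visible slots at most their own level)
* **`fct8`**, **`fct9`** : facts `⊢ Fct9 Sk s Λ`
-/

set_option autoImplicit false
set_option linter.unusedSectionVars false
set_option linter.unusedVariables false

open Set Filter Topology

namespace Crest.Agent.R116.Tq794

open Crest.Agent.R138
open Crest.Agent.R138.Ex926 (Base IsTan)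
open Crest.Agent.R136
open Crest.Agent.R136.Net191
open Crest.Agent.R136.Qg926 Crest.Agent.R136.Gf356 Crest.Agent.R116.EvL504
open Crest.Agent.R116.ChL222
open Crest.Agent.R116.Sg337 (bx9)
open Crest.Agent.R116.RbM219
open Crest.Agent.R116.RbK219 (RS)
open Crest.Agent.R116.SgF665 (wl wl_add wl_smul LM0 mem_LM0 bx9_mem LinTan LinFacts)
open Crest.Agent.R116.Kg330 (LinTanM)
open Crest.Agent.R116.WinG954 (LM)
open Crest.Agent.R116.Tq741
open Sl741 (xt)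

/-- box of a class vector, `D` frozen -/
def E8 (w : V9) : Fin 12 → ℝ := bx9 (w 0) 0 (w 7) (w 1) (w 3) (w 6) (w 5) (w 2) (w 4)

/-- box of a class vector, `D` live -/
def E9 (w : V9) : Fin 12 → ℝ := bx9 (w 0) (w 8) (w 7) (w 1) (w 3) (w 6) (w 5) (w 2) (w 4)

theorem E8_eq (w : V9) : xt kp 0 (RL8.vec (fun i : Fin 8 => w i.castSucc)) = E8 w := by
  funext i
  by_cases hi : i = 1
  · subst hi
    rw [Sl741.xt_off (p := kp) _ _ (by simp [kp])]; rfl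
  · rw [Sl741.xt_in (p := kp) _ _ hi]
    fin_cases i <;> first | exact absurd rfl hi | simp [RS.vec, RL8, cl8, E8, bx9]

theorem E9_eq (w : V9) : RL9.vec w = E9 w := by
  funext i
  fin_cases i <;> simp [RS.vec, RL9, cl9, E9, bx9]

theorem E8_add (w d : V9) (t : ℝ) : E8 (w + t • d) = E8 w + t • E8 d := by
  funext i
  fin_cases i <;> simp [E8, bx9]

theorem E9_add (w d : V9) (t : ℝ) : E9 (w + t • d) = E9 w + t • E9 d := by
  funext i
  fin_cases i <;> simp [E9, bx9]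

/-! ### the cones -/

theorem LM0_closed : IsClosed LM0 := by
  have : LM0 = ⋂ k, ⋂ e ∈ monL.mon k, ⋂ (_ : e 1 = 0), {p : Fin 12 → ℝ | p k ≤ wl e p} := by
    ext p; simp [LM0]
  rw [this]
  refine isClosed_iInter fun k => isClosed_iInter fun e => isClosed_iInter fun _ =>
    isClosed_iInter fun _ => isClosed_le (by fun_prop) (by unfold wl; fun_prop)

theorem LM_closed : IsClosed LM := by
  have : LM = ⋂ k, ⋂ e ∈ monL.mon k, {p : Fin 12 → ℝ | p k ≤ ∑ s, (e s : ℝ) * p s} := by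
    ext p; simp [LM]
  rw [this]
  refine isClosed_iInter fun k => isClosed_iInter fun e => isClosed_iInter fun _ =>
    isClosed_le (by fun_prop) (by fun_prop)

theorem LM0_add {p q : Fin 12 → ℝ} (hp : p ∈ LM0) (hq : q ∈ LM0) : p + q ∈ LM0 :=
  fun k e he h1 => by
    rw [wl_add, Pi.add_apply]; exact add_le_add (hp k e he h1) (hq k e he h1)

theorem LM0_smul {t : ℝ} (ht : 0 ≤ t) {p : Fin 12 → ℝ} (hp : p ∈ LM0) : t • p ∈ LM0 :=
  fun k e he h1 => by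
    rw [wl_smul, Pi.smul_apply, smul_eq_mul]; exact mul_le_mul_of_nonneg_left (hp k e he h1) ht

theorem LM_wl {p : Fin 12 → ℝ} : p ∈ LM ↔ ∀ k, ∀ e ∈ monL.mon k, p k ≤ wl e p := Iff.rfl

theorem LM_add {p q : Fin 12 → ℝ} (hp : p ∈ LM) (hq : q ∈ LM) : p + q ∈ LM :=
  LM_wl.2 fun k e he => by
    rw [wl_add, Pi.add_apply]; exact add_le_add (hp k e he) (hq k e he)

theorem LM_smul {t : ℝ} (ht : 0 ≤ t) {p : Fin 12 → ℝ} (hp : p ∈ LM) : t • p ∈ LM :=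
  LM_wl.2 fun k e he => by
    rw [wl_smul, Pi.smul_apply, smul_eq_mul]; exact mul_le_mul_of_nonneg_left (hp k e he) ht

theorem E8_mem {w : V9} (hw : LegM 0 w) : E8 w ∈ LM0 := by
  obtain ⟨a, b, c, d, e, f, g, i, j, k⟩ := hw
  exact bx9_mem.2 ⟨by linarith, by linarith, by linarith, by linarith, by linarith, by linarith,
    by linarith⟩

theorem wl12 (e : Fin 12 → ℕ) (p : Fin 12 → ℝ) : wl e p =
    e 0 * p 0 + e 1 * p 1 + e 2 * p 2 + e 3 * p 3 + e 4 * p 4 + e 5 * p 5 + e 6 * p 6 +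
      e 7 * p 7 + e 8 * p 8 + e 9 * p 9 + e 10 * p 10 + e 11 * p 11 :=
  WinG954.sum12 e p

/-- the ten class walls of a box with all the walls -/
theorem bx9_LM {z D E C X B H P F : ℝ} (h : bx9 z D E C X B H P F ∈ LM) :
    E ≤ z + D ∧ X ≤ z + C ∧ B ≤ E + C ∧ B ≤ D + X ∧ H ≤ C + X ∧ P ≤ C + B ∧ P ≤ D + H ∧
      F ≤ z + P ∧ F ≤ X + B ∧ F ≤ E + H := by
  have g : ∀ (k : Fin 12) (e : Fin 12 → ℕ), e ∈ mfL k → bx9 z D E C X B H P F k ≤
      wl e (bx9 z D E C X B H P F) := h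
  have a1 := g 2 ![1, 1, 0, 0, 0, 0, 0, 0, 0, 0, 0, 0] (by decide)
  have a2 := g 5 ![1, 0, 0, 1, 0, 0, 0, 0, 0, 0, 0, 0] (by decide)
  have a3 := g 7 ![0, 0, 1, 1, 0, 0, 0, 0, 0, 0, 0, 0] (by decide)
  have a4 := g 7 ![0, 1, 0, 0, 0, 1, 0, 0, 0, 0, 0, 0] (by decide)
  have a5 := g 9 ![0, 0, 0, 1, 0, 1, 0, 0, 0, 0, 0, 0] (by decide)
  have a6 := g 10 ![0, 0, 0, 1, 0, 0, 0, 1, 0, 0, 0, 0] (by decide)
  have a7 := g 10 ![0, 1, 0, 0, 0, 0, 0, 0, 0, 1, 0, 0] (by decide)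
  have a8 := g 11 ![1, 0, 0, 0, 0, 0, 0, 0, 0, 0, 1, 0] (by decide)
  have a9 := g 11 ![0, 0, 0, 0, 0, 1, 0, 1, 0, 0, 0, 0] (by decide)
  have a10 := g 11 ![0, 0, 1, 0, 0, 0, 0, 0, 0, 1, 0, 0] (by decide)
  rw [wl12] at a1 a2 a3 a4 a5 a6 a7 a8 a9 a10
  simp [bx9] at a1 a2 a3 a4 a5 a6 a7 a8 a9 a10
  refine ⟨?_, ?_, ?_, ?_, ?_, ?_, ?_, ?_, ?_, ?_⟩ <;> linarith

theorem E9_mem {w : V9} (hw : LegM 0 w) : E9 w ∈ LM := by
  obtain ⟨a, b, c, d, e, f, g, i, j, k⟩ := hw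
  have h : Leg9 w := by constructor <;> linarith
  rw [← E9_eq]
  exact mem_PP.1 (RL9_mem h)

theorem LM_eq : LM = Crest.Agent.R116.Sg337.coneL := rfl

/-! ### tangents at a linear point -/

theorem tan_zero {P D : Set (Fin 12 → ℝ)} {ν lam : (Fin 12 → ℝ) → ℝ} {x : ℕ → Fin 12 → ℝ}
    {h : ℕ → ℝ} (hpos : ∀ l, 0 < h l) (ht : IsTan P D ν x h lam) (h0 : (0 : Fin 12 → ℝ) ∈ D) :
    lam 0 = 0 := by
  by_contra hne
  have h1 := ht 0 (|lam 0| / 2) (by positivity)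
  obtain ⟨l, hl⟩ := h1.exists
  have h2 := (hl 0 h0 (by simp)).2
  have h3 := hpos l
  rw [smul_zero, add_zero, sub_self, zero_sub, abs_neg, abs_mul, abs_of_pos h3] at h2
  have h4 : 0 < |lam 0| := abs_pos.2 hne
  nlinarith

section

variable {J : Type*} [Finite J] {P M : Set (Fin 12 → ℝ)} {f lam2 : J → (Fin 12 → ℝ) → ℝ}
  {j0 : J} {X : ℕ → Fin 12 → ℝ} {H : ℕ → ℝ} {E : V9 → Fin 12 → ℝ} {w R : V9}

theorem tan_core (hMc : IsClosed M) (hM0 : (0 : Fin 12 → ℝ) ∈ M)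
    (hMa : ∀ p ∈ M, ∀ q ∈ M, p + q ∈ M) (hMs : ∀ t : ℝ, 0 ≤ t → ∀ p ∈ M, t • p ∈ M)
    (hpos : ∀ l, 0 < H l) (ht : ∀ j, IsTan P M (f j) X H (lam2 j))
    (hlip : ∃ K : ℝ, 0 ≤ K ∧ ∀ j, ∀ p ∈ M, ∀ q ∈ M, |lam2 j p - lam2 j q| ≤ K * ‖p - q‖)
    (hE : ∀ (w d : V9) (t : ℝ), E (w + t • d) = E w + t • E d) (hE0 : E 0 = 0) (hw : E w ∈ M)
    (hL : LinS ∅ (fun w => lam2 j0 (E w)) w R)
    {Pr : ℕ → ℕ → Prop} (hPr : ∀ m, ∀ᶠ l in atTop, Pr m l) :
    ∃ (ψ : ℕ → ℕ) (h' : ℕ → ℝ) (lam3 : J → (Fin 12 → ℝ) → ℝ), StrictMono ψ ∧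
      (∀ m, Pr m (ψ m)) ∧ (∀ m, 0 < h' m) ∧ Tendsto h' atTop (𝓝 0) ∧
      (∀ j, IsTan P M (f j) (fun m => X (ψ m) + H (ψ m) • E w) (fun m => H (ψ m) * h' m)
        (lam3 j)) ∧
      (∀ j, IsTan M M (lam2 j) (fun _ => E w) h' (lam3 j)) ∧
      ∀ d, LegM 0 d → E d ∈ M → lam3 j0 (E d) = -∑ t, R t * d t := by
  obtain ⟨h, Ψ, hp, h0, hΨ, hd⟩ := hL
  obtain ⟨K, hK, hlip⟩ := hlip
  have hΨ0 : Ψ 0 = 0 := by
    have h1 := hd 0 leg_zero
    have h2 : Tendsto (fun m => (lam2 j0 (E (w + h m • 0)) - lam2 j0 (E w)) / h m) atTop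
        (𝓝 0) := by
      refine tendsto_const_nhds.congr fun m => ?_
      rw [smul_zero, add_zero, sub_self, zero_div]
    have h3 := tendsto_nhds_unique h1 h2
    simp only [Pi.zero_apply, mul_zero, Finset.sum_const_zero, add_zero] at h3
    linarith
  have hd' : ∀ d, LegM 0 d → Tendsto (fun m => (lam2 j0 (E (w + h m • d)) - lam2 j0 (E w)) / h m)
      atTop (𝓝 (-∑ t, R t * d t)) := by
    intro d hdl
    have h1 := hd d hdl
    rw [hΨ d 0 (fun t ht => absurd ht (Finset.notMem_empty _)) hdl leg_zero, hΨ0, zero_add,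
      Finset.compl_empty] at h1
    exact h1
  obtain ⟨φ, hφ, lam3, hT⟩ := Rc683.exists_tan (J := J) (P := fun _ => M) (D := fun _ => M)
    (fun _ => hMc) (ν := lam2) hK hlip (x := fun _ => E w) (h := h) hp
    (fun _ C => Eventually.of_forall fun l c hc _ => hMa _ hw _ (hMs _ (hp l).le _ hc))
    (fun _ => hM0)
  have hp' : ∀ m, 0 < h (φ m) := fun m => hp _
  obtain ⟨ψ, hψ, hPψ, hTT⟩ := Kz647.diag_at hpos ht hw hp' hT hPr
  refine ⟨ψ, fun m => h (φ m), lam3, hψ, hPψ, hp', h0.comp hφ.tendsto_atTop, hTT, hT,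
    fun d hdl hdM => ?_⟩
  have h1 := SgO219.tan_lim hp' (hT j0) hdM hM0
  rw [tan_zero hp' (hT j0) hM0, sub_zero] at h1
  refine tendsto_nhds_unique h1 (((hd' d hdl).comp hφ.tendsto_atTop).congr fun m => ?_)
  simp only [Function.comp]
  rw [hE, smul_zero, add_zero]

/-- the own law at a linear point -/
theorem own_R {s σ : ℝ} (hM : ∀ d, LegM 0 d → E d ∈ M)
    (hE : ∀ (w d : V9) (t : ℝ), E (w + t • d) = E w + t • E d)
    (hw : LegM 0 w) (hL : LinS ∅ (fun w => lam2 j0 (E w)) w R)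
    (ho : ∀ t : ℝ, 0 < t → σ * t ≤ lam2 j0 (E w) - lam2 j0 (E (w + t • e9 0))) : σ ≤ R 0 := by
  obtain ⟨h, Ψ, hp, h0, hΨ, hd⟩ := hL
  have hΨ0 : Ψ 0 = 0 := by
    have h1 := hd 0 leg_zero
    have h2 : Tendsto (fun m => (lam2 j0 (E (w + h m • 0)) - lam2 j0 (E w)) / h m) atTop
        (𝓝 0) := by
      refine tendsto_const_nhds.congr fun m => ?_
      rw [smul_zero, add_zero, sub_self, zero_div]
    have h3 := tendsto_nhds_unique h1 h2
    simp only [Pi.zero_apply, mul_zero, Finset.sum_const_zero, add_zero] at h3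
    linarith
  have hl : LegM 0 (e9 0) := by
    constructor <;> simp [e9]
  have h1 := hd (e9 0) hl
  rw [hΨ (e9 0) 0 (fun t ht => absurd ht (Finset.notMem_empty _)) hl leg_zero, hΨ0, zero_add,
    Finset.compl_empty, Finset.sum_eq_single 0 (fun i _ hi => by rw [e9_ne hi, mul_zero])
      (fun h => absurd (Finset.mem_univ _) h), e9_same, mul_one] at h1
  have h2 := le_of_tendsto h1 (b := -σ) (Eventually.of_forall fun m => by
    have h3 := ho (h m) (hp m)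
    rw [div_le_iff₀ (hp m)]
    simp only
    linarith)
  linarith

end

/-- the own law of 363's `Prf` at a class vector (`E 0`-slot, visible slots at most their own
level) -/
theorem own_prf {M : Set (Fin 12 → ℝ)} {E : V9 → Fin 12 → ℝ} {s : ℝ} {a b : Fin 2}
    {Vis : Fin 12 → Prop} {β : Fin 12 → ℝ} {g : (Fin 12 → ℝ) → ℝ}
    (Hp : Rcx363.Prf M s a b Vis β g) (hM : ∀ d, LegM 0 d → E d ∈ M)
    (hE : ∀ (w d : V9) (t : ℝ), E (w + t • d) = E w + t • E d) (h00 : ∀ w, E w 0 = w 0)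
    (h1 : 0 ≤ E (e9 0)) {w : V9} (hw : LegM 0 w) (hV : ∀ k, Vis k → E w k ≤ w 0 * β k)
    {t : ℝ} (ht : 0 < t) : (1 - s) * t ≤ g (E w) - g (E (w + t • e9 0)) := by
  have hl : LegM 0 (e9 0) := by
    constructor <;> simp [e9]
  have h2 := Hp.own (E w) (hM w hw) (E (w + t • e9 0)) (hM _ (hw.add_smul hl ht.le)) (by
    rw [hE]
    intro i
    simp only [Pi.add_apply, Pi.smul_apply, smul_eq_mul]
    have := h1 i
    simp only [Pi.zero_apply] at this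
    nlinarith) (w 0) (by rw [h00]) hV
  rw [h00, add_e9_same] at h2
  linarith

/-! ### `D` frozen -/

section frozen

variable {J : Type*} [Finite J] {P : Set (Fin 12 → ℝ)} {f lam2 : J → (Fin 12 → ℝ) → ℝ}
  {j0 : J} {X : ℕ → Fin 12 → ℝ} {H : ℕ → ℝ} {w R : V9}

theorem E8_zero : E8 0 = 0 := by
  funext i; fin_cases i <;> simp [E8, bx9]

theorem E9_zero : E9 0 = 0 := by
  funext i; fin_cases i <;> simp [E9, bx9]

theorem tend_mul {ψ : ℕ → ℕ} {h' : ℕ → ℝ} (h0 : Tendsto H atTop (𝓝 0)) (hψ : StrictMono ψ)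
    (h0' : Tendsto h' atTop (𝓝 0)) : Tendsto (fun m => H (ψ m) * h' m) atTop (𝓝 0) := by
  have := (h0.comp hψ.tendsto_atTop).mul h0'
  simpa using this

/-- **665's `LinTan` at a linear point, `D` frozen** -/
theorem linTan8 (hpos : ∀ l, 0 < H l) (h0 : Tendsto H atTop (𝓝 0))
    (ht : ∀ j, IsTan P LM0 (f j) X H (lam2 j))
    (hlip : ∃ K : ℝ, 0 ≤ K ∧ ∀ j, ∀ p ∈ LM0, ∀ q ∈ LM0, |lam2 j p - lam2 j q| ≤ K * ‖p - q‖)
    (hx : ∀ l k, ∀ e ∈ monL.mon k, e 1 = 0 → X l k = wl e (X l))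
    (hxD : ∀ k, ∀ e ∈ monL.mon k, e 1 ≠ 0 → ∀ K : ℝ, ∀ᶠ n in atTop,
      X n k + K * H n ≤ wl e (X n))
    (hw : LegM 0 w) (hL : LinS ∅ (fun w => lam2 j0 (E8 w)) w R)
    {Pr : ℕ → ℕ → Prop} (hPr : ∀ m, ∀ᶠ l in atTop, Pr m l) :
    ∃ (ψ : ℕ → ℕ) (h' : ℕ → ℝ), StrictMono ψ ∧ (∀ m, Pr m (ψ m)) ∧ (∀ m, 0 < h' m) ∧
      Tendsto h' atTop (𝓝 0) ∧
      LinTan P f j0 (fun m => X (ψ m) + H (ψ m) • E8 w) (fun m => H (ψ m) * h' m) (R 0) (R 3)
        (R 5) (R 4) (R 1) (R 2) (R 7) (R 6) := by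
  obtain ⟨ψ, h', lam3, hψ, hPψ, hp', h0', hT, hT', hv⟩ := tan_core (E := E8) LM0_closed
    (by rw [← E8_zero]; exact E8_mem leg_zero) (fun p hp q hq => LM0_add hp hq)
    (fun t ht p hp => LM0_smul ht hp) hpos ht hlip E8_add E8_zero (E8_mem hw) hL hPr
  have hM0 : (0 : Fin 12 → ℝ) ∈ LM0 := by rw [← E8_zero]; exact E8_mem leg_zero
  have hR8 : R 8 = 0 := by
    have hl : LegM 0 (e9 8) := by
      constructor <;> simp [e9]
    have e : E8 (e9 8) = 0 := by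
      funext i; fin_cases i <;> simp [E8, bx9, e9]
    have h1 := hv (e9 8) hl (by rw [e]; exact hM0)
    rw [e, Finset.sum_eq_single 8 (fun i _ hi => by rw [e9_ne hi, mul_zero])
      (fun h => absurd (Finset.mem_univ _) h), e9_same, mul_one,
      tan_zero (fun m => mul_pos (hpos _) (hp' m)) (hT j0) hM0] at h1
    linarith
  have hsum : ∀ (c : ℝ) (m : ℕ) (k : Fin 12), (X (ψ m) + H (ψ m) • E8 w) k =
      X (ψ m) k + H (ψ m) * E8 w k := fun c m k => rfl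
  refine ⟨ψ, h', hψ, hPψ, hp', h0', ⟨fun m => mul_pos (hpos _) (hp' m), tend_mul h0 hψ h0', ?_, ?_,
    LM0, lam3, Subset.rfl, hT, ?_⟩⟩
  · intro k e he
    by_cases h1 : e 1 = 0
    · rcases (E8_mem hw k e he h1).eq_or_lt with h2 | h2
      · left
        intro n
        simp only [wl_add, wl_smul, Pi.add_apply, Pi.smul_apply, smul_eq_mul]
        rw [hx _ k e he h1, h2]
      · right
        intro K
        have h3 : ∀ᶠ m in atTop, K * h' m < wl e (E8 w) - E8 w k := by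
          have : Tendsto (fun m => K * h' m) atTop (𝓝 0) := by
            simpa using h0'.const_mul K
          exact this.eventually_lt_const (by linarith)
        filter_upwards [h3] with m hm
        simp only [wl_add, wl_smul, Pi.add_apply, Pi.smul_apply, smul_eq_mul]
        rw [hx _ k e he h1]
        have := mul_le_mul_of_nonneg_left hm.le (hpos (ψ m)).le
        nlinarith
    · right
      intro K
      have h3 := hψ.tendsto_atTop.eventually (hxD k e he h1 (|E8 w k - wl e (E8 w)| + 1))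
      have h4 : ∀ᶠ m in atTop, K * h' m < 1 := by
        have : Tendsto (fun m => K * h' m) atTop (𝓝 0) := by
          simpa using h0'.const_mul K
        exact this.eventually_lt_const (by norm_num)
      filter_upwards [h3, h4] with m m3 m4
      simp only [wl_add, wl_smul, Pi.add_apply, Pi.smul_apply, smul_eq_mul]
      have h5 := mul_le_mul_of_nonneg_left m4.le (hpos (ψ m)).le
      have h6 := mul_le_mul_of_nonneg_left (le_abs_self (E8 w k - wl e (E8 w))) (hpos (ψ m)).le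
      nlinarith
  · intro k e he h1 K
    have h3 := hψ.tendsto_atTop.eventually (hxD k e he h1 (|E8 w k - wl e (E8 w)| + 1))
    have h4 : ∀ᶠ m in atTop, K * h' m < 1 := by
      have : Tendsto (fun m => K * h' m) atTop (𝓝 0) := by
        simpa using h0'.const_mul K
      exact this.eventually_lt_const (by norm_num)
    filter_upwards [h3, h4] with m m3 m4
    simp only [wl_add, wl_smul, Pi.add_apply, Pi.smul_apply, smul_eq_mul]
    have h5 := mul_le_mul_of_nonneg_left m4.le (hpos (ψ m)).le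
    have h6 := mul_le_mul_of_nonneg_left (le_abs_self (E8 w k - wl e (E8 w))) (hpos (ψ m)).le
    nlinarith
  · intro z C p E B x Hh F hm
    obtain ⟨a1, a2, a3, a4, a5, a6, a7⟩ := bx9_mem.1 hm
    set N : ℝ := |z| + |C| + |p| + |E| + |B| + |x| + |Hh| + |F| with hN
    set d : V9 := ![z, C, p, x, F, Hh, B, E, N] with hd
    have k1 := abs_nonneg z
    have k2 := abs_nonneg C
    have k3 := abs_nonneg p
    have k4 := abs_nonneg E
    have k5 := abs_nonneg B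
    have k6 := abs_nonneg x
    have k7 := abs_nonneg Hh
    have k8 := abs_nonneg F
    have j1 := neg_abs_le z
    have j4 := le_abs_self E
    have j5 := le_abs_self B
    have j6 := neg_abs_le x
    have j3 := le_abs_self p
    have j7 := neg_abs_le Hh
    have hdl : LegM 0 d := by
      constructor
      · show E + 0 ≤ z + N
        linarith
      · show x + 0 ≤ z + C
        linarith
      · show B + 0 ≤ E + C
        linarith
      · show B + 0 ≤ N + x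
        linarith
      · show Hh + 0 ≤ C + x
        linarith
      · show p + 0 ≤ C + B
        linarith
      · show p + 0 ≤ N + Hh
        linarith
      · show F + 0 ≤ z + p
        linarith
      · show F + 0 ≤ x + B
        linarith
      · show F + 0 ≤ E + Hh
        linarith
    have e1 : E8 d = bx9 z 0 E C x B Hh p F := rfl
    have h1 := hv d hdl (by rw [e1]; exact hm)
    rw [← e1, h1]
    simp only [Fin.sum_univ_succ, Fin.sum_univ_zero]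
    have g0 : d 0 = z := rfl
    have g1 : d 1 = C := rfl
    have g2 : d 2 = p := rfl
    have g3 : d 3 = x := rfl
    have g4 : d 4 = F := rfl
    have g5 : d 5 = Hh := rfl
    have g6 : d 6 = B := rfl
    have g7 : d 7 = E := rfl
    change -(R 0 * d 0 + (R 1 * d 1 + (R 2 * d 2 + (R 3 * d 3 + (R 4 * d 4 + (R 5 * d 5 +
      (R 6 * d 6 + (R 7 * d 7 + (R 8 * d 8 + 0))))))))) = _
    rw [g0, g1, g2, g3, g4, g5, g6, g7, hR8]
    ring

theorem one_leg {j : Fin 10} {w : V9} (h : One j w) : LegM 0 w := by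
  have g : ∀ i, 0 ≤ gap w i := fun i => by
    by_cases hi : i = j
    · rw [hi, h.1]
    · exact (h.2 i hi).le
  have g0 := g 0
  have g1 := g 1
  have g2 := g 2
  have g3 := g 3
  have g4 := g 4
  have g5 := g 5
  have g6 := g 6
  have g7 := g 7
  have g8 := g 8
  have g9 := g 9
  change 0 ≤ w 0 + w 8 - w 7 at g0
  change 0 ≤ w 0 + w 1 - w 3 at g1
  change 0 ≤ w 7 + w 1 - w 6 at g2
  change 0 ≤ w 8 + w 3 - w 6 at g3
  change 0 ≤ w 1 + w 3 - w 5 at g4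
  change 0 ≤ w 1 + w 6 - w 2 at g5
  change 0 ≤ w 8 + w 5 - w 2 at g6
  change 0 ≤ w 0 + w 2 - w 4 at g7
  change 0 ≤ w 3 + w 6 - w 4 at g8
  change 0 ≤ w 7 + w 5 - w 4 at g9
  constructor <;> linarith

/-- an equality of walls of the base and of the box -/
theorem wall_add {E : V9 → Fin 12 → ℝ} {i j k : Fin 12} (hX : ∀ n, X n k = X n i + X n j)
    (hw : E w k = E w i + E w j) {ψ : ℕ → ℕ} (n : ℕ) :
    (X (ψ n) + H (ψ n) • E w) k = (X (ψ n) + H (ψ n) • E w) i + (X (ψ n) + H (ψ n) • E w) j := by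
  simp only [Pi.add_apply, Pi.smul_apply, smul_eq_mul]
  rw [hX, hw]
  ring

theorem wall_of (hx : ∀ l k, ∀ e ∈ monL.mon k, e 1 = 0 → X l k = wl e (X l)) :
    (∀ n, X n 5 = X n 0 + X n 3) ∧ (∀ n, X n 6 = X n 0 + X n 4) ∧
    (∀ n, X n 9 = X n 3 + X n 5) ∧ (∀ n, X n 9 = X n 4 + X n 6) ∧
    (∀ n, X n 11 = X n 0 + X n 10) ∧ (∀ n, X n 11 = X n 7 + X n 5) ∧
    (∀ n, X n 11 = X n 8 + X n 6) ∧ (∀ n, X n 10 = X n 7 + X n 3) ∧
    (∀ n, X n 10 = X n 8 + X n 4) := by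
  have g : ∀ (l : ℕ) (k : Fin 12) (e : Fin 12 → ℕ), e ∈ mfL k → e 1 = 0 → X l k = wl e (X l) := hx
  refine ⟨fun n => ?_, fun n => ?_, fun n => ?_, fun n => ?_, fun n => ?_, fun n => ?_,
    fun n => ?_, fun n => ?_, fun n => ?_⟩
  · have := g n 5 ![1, 0, 0, 1, 0, 0, 0, 0, 0, 0, 0, 0] (by decide) rfl
    rw [wl12] at this; simpa using this
  · have := g n 6 ![1, 0, 0, 0, 1, 0, 0, 0, 0, 0, 0, 0] (by decide) rfl
    rw [wl12] at this; simpa using this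
  · have := g n 9 ![0, 0, 0, 1, 0, 1, 0, 0, 0, 0, 0, 0] (by decide) rfl
    rw [wl12] at this; simpa using this
  · have := g n 9 ![0, 0, 0, 0, 1, 0, 1, 0, 0, 0, 0, 0] (by decide) rfl
    rw [wl12] at this; simpa using this
  · have := g n 11 ![1, 0, 0, 0, 0, 0, 0, 0, 0, 0, 1, 0] (by decide) rfl
    rw [wl12] at this; simpa using this
  · have := g n 11 ![0, 0, 0, 0, 0, 1, 0, 1, 0, 0, 0, 0] (by decide) rfl
    rw [wl12] at this
    simp at this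
    linarith
  · have := g n 11 ![0, 0, 0, 0, 0, 0, 1, 0, 1, 0, 0, 0] (by decide) rfl
    rw [wl12] at this
    simp at this
    linarith
  · have := g n 10 ![0, 0, 0, 1, 0, 0, 0, 1, 0, 0, 0, 0] (by decide) rfl
    rw [wl12] at this
    simp at this
    linarith
  · have := g n 10 ![0, 0, 0, 0, 1, 0, 0, 0, 1, 0, 0, 0] (by decide) rfl
    rw [wl12] at this
    simp at this
    linarith

/-- **THE FACTS AT A `T⁻` PLANE, `D` FROZEN** -/
theorem fct8 {s : ℝ} {Sk : V9 → Prop} {Pr : ℕ → ℕ → Prop}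
    {Bs Bs1 : (ℕ → Fin 12 → ℝ) → (ℕ → ℝ) → Prop}
    (hpos : ∀ l, 0 < H l) (h0 : Tendsto H atTop (𝓝 0))
    (ht : ∀ j, IsTan P LM0 (f j) X H (lam2 j))
    (hlip : ∃ K : ℝ, 0 ≤ K ∧ ∀ j, ∀ p ∈ LM0, ∀ q ∈ LM0, |lam2 j p - lam2 j q| ≤ K * ‖p - q‖)
    (hx : ∀ l k, ∀ e ∈ monL.mon k, e 1 = 0 → X l k = wl e (X l))
    (hxD : ∀ k, ∀ e ∈ monL.mon k, e 1 ≠ 0 → ∀ K : ℝ, ∀ᶠ n in atTop,
      X n k + K * H n ≤ wl e (X n))
    (HL : LinFacts P f j0 Bs s) (HL1 : LinFacts P f j0 Bs1 1)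
    (HR : ∀ X h rz rX rH rF gC gP gE gB, Bs1 X h → LinTan P f j0 X h rz rX rH rF gC gP gE gB →
      (∀ n, X n 10 = X n 7 + X n 3) → (∀ n, X n 10 = X n 8 + X n 4) → 0 < gB → gC ≤ gP)
    (hown : ∀ w R, LegM 0 w → Sk w → LinS ∅ (fun w => lam2 j0 (E8 w)) w R → 1 - s ≤ R 0)
    (hnn : ∀ w R, LegM 0 w → LinS ∅ (fun w => lam2 j0 (E8 w)) w R → 0 ≤ R 0)
    (hPr : ∀ m, ∀ᶠ l in atTop, Pr m l)
    (hBs : ∀ (w R : V9) (ψ : ℕ → ℕ) (h1 : ℕ → ℝ), LegM 0 w → Sk w → StrictMono ψ →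
      (∀ m, Pr m (ψ m)) → (∀ m, 0 < h1 m) → Tendsto h1 atTop (𝓝 0) → 1 - s ≤ R 0 →
      LinTan P f j0 (fun m => X (ψ m) + H (ψ m) • E8 w) (fun m => H (ψ m) * h1 m) (R 0) (R 3)
        (R 5) (R 4) (R 1) (R 2) (R 7) (R 6) →
      Bs (fun m => X (ψ m) + H (ψ m) • E8 w) (fun m => H (ψ m) * h1 m))
    (hBs1 : ∀ (w R : V9) (ψ : ℕ → ℕ) (h1 : ℕ → ℝ), LegM 0 w → StrictMono ψ →
      (∀ m, Pr m (ψ m)) → (∀ m, 0 < h1 m) → Tendsto h1 atTop (𝓝 0) → 0 ≤ R 0 →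
      LinTan P f j0 (fun m => X (ψ m) + H (ψ m) • E8 w) (fun m => H (ψ m) * h1 m) (R 0) (R 3)
        (R 5) (R 4) (R 1) (R 2) (R 7) (R 6) →
      Bs1 (fun m => X (ψ m) + H (ψ m) • E8 w) (fun m => H (ψ m) * h1 m)) :
    Fct9 Sk s (fun w => lam2 j0 (E8 w)) := by
  obtain ⟨x1, x2, x3, x4, x5, x6, x7, x8, x9⟩ := wall_of hx
  have key : ∀ w R, LegM 0 w → Sk w → LinS ∅ (fun w => lam2 j0 (E8 w)) w R →
      ∃ (ψ : ℕ → ℕ) (h1 : ℕ → ℝ),
        Bs (fun m => X (ψ m) + H (ψ m) • E8 w) (fun m => H (ψ m) * h1 m) ∧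
        LinTan P f j0 (fun m => X (ψ m) + H (ψ m) • E8 w) (fun m => H (ψ m) * h1 m) (R 0) (R 3)
          (R 5) (R 4) (R 1) (R 2) (R 7) (R 6) := by
    intro w R hw hS hL
    obtain ⟨ψ, h1, hψ, hP, hp, h0', hT⟩ := linTan8 hpos h0 ht hlip hx hxD hw hL hPr
    exact ⟨ψ, h1, hBs w R ψ h1 hw hS hψ hP hp h0' (hown w R hw hS hL) hT, hT⟩
  have key1 : ∀ w R, LegM 0 w → LinS ∅ (fun w => lam2 j0 (E8 w)) w R →
      ∃ (ψ : ℕ → ℕ) (h1 : ℕ → ℝ),
        Bs1 (fun m => X (ψ m) + H (ψ m) • E8 w) (fun m => H (ψ m) * h1 m) ∧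
        LinTan P f j0 (fun m => X (ψ m) + H (ψ m) • E8 w) (fun m => H (ψ m) * h1 m) (R 0) (R 3)
          (R 5) (R 4) (R 1) (R 2) (R 7) (R 6) := by
    intro w R hw hL
    obtain ⟨ψ, h1, hψ, hP, hp, h0', hT⟩ := linTan8 hpos h0 ht hlip hx hxD hw hL hPr
    exact ⟨ψ, h1, hBs1 w R ψ h1 hw hψ hP hp h0' (hnn w R hw hL) hT, hT⟩
  refine ⟨?_, ?_, ?_, ?_, ?_, ?_, ?_⟩
  · intro w R ho hS hL hR
    obtain ⟨ψ, h1, hB, hT⟩ := key w R (one_leg ho) hS hL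
    have g : w 0 + w 1 - w 3 = 0 := ho.1
    exact (HL.K1 _ _ _ _ _ _ _ _ _ _ hB hT
      (wall_add (E := E8) (i := 0) (j := 3) (k := 5) x1 (by show w 3 = w 0 + w 1; linarith))
      (wall_add (E := E8) (i := 0) (j := 4) (k := 6) x2 (by show w 3 = w 0 + w 1; linarith))).1 hR
  · intro w R ho hS hL hR
    obtain ⟨ψ, h1, hB, hT⟩ := key w R (one_leg ho) hS hL
    have g : w 0 + w 1 - w 3 = 0 := ho.1
    exact (HL.K1 _ _ _ _ _ _ _ _ _ _ hB hT
      (wall_add (E := E8) (i := 0) (j := 3) (k := 5) x1 (by show w 3 = w 0 + w 1; linarith))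
      (wall_add (E := E8) (i := 0) (j := 4) (k := 6) x2 (by show w 3 = w 0 + w 1; linarith))).2 hR
  · intro w R ho hL hR
    obtain ⟨ψ, h1, hB, hT⟩ := key1 w R (one_leg ho) hL
    have g : w 1 + w 3 - w 5 = 0 := ho.1
    exact HL1.H1 _ _ _ _ _ _ _ _ _ _ hB hT
      (wall_add (E := E8) (i := 3) (j := 5) (k := 9) x3 (by show w 5 = w 1 + w 3; linarith))
      (wall_add (E := E8) (i := 4) (j := 6) (k := 9) x4 (by show w 5 = w 1 + w 3; linarith)) hR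
  · intro w R ho hS hL hR
    obtain ⟨ψ, h1, hB, hT⟩ := key w R (one_leg ho) hS hL
    have g : w 0 + w 2 - w 4 = 0 := ho.1
    exact (HL.K2 _ _ _ _ _ _ _ _ _ _ hB hT
      (wall_add (E := E8) (i := 0) (j := 10) (k := 11) x5 (by show w 4 = w 0 + w 2; linarith))).1 hR
  · intro w R ho hS hL hR
    obtain ⟨ψ, h1, hB, hT⟩ := key w R (one_leg ho) hS hL
    have g : w 0 + w 2 - w 4 = 0 := ho.1
    exact (HL.K2 _ _ _ _ _ _ _ _ _ _ hB hT
      (wall_add (E := E8) (i := 0) (j := 10) (k := 11) x5 (by show w 4 = w 0 + w 2; linarith))).2 hR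
  · intro w R ho hL hR
    obtain ⟨ψ, h1, hB, hT⟩ := key1 w R (one_leg ho) hL
    have g : w 3 + w 6 - w 4 = 0 := ho.1
    exact HL1.S1 _ _ _ _ _ _ _ _ _ _ hB hT
      (wall_add (E := E8) (i := 7) (j := 5) (k := 11) x6 (by show w 4 = w 6 + w 3; linarith))
      (wall_add (E := E8) (i := 8) (j := 6) (k := 11) x7 (by show w 4 = w 6 + w 3; linarith)) hR
  · intro w R ho hL hR
    obtain ⟨ψ, h1, hB, hT⟩ := key1 w R (one_leg ho) hL
    have g : w 1 + w 6 - w 2 = 0 := ho.1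
    exact HR _ _ _ _ _ _ _ _ _ _ hB hT
      (wall_add (E := E8) (i := 7) (j := 3) (k := 10) x8 (by show w 2 = w 6 + w 1; linarith))
      (wall_add (E := E8) (i := 8) (j := 4) (k := 10) x9 (by show w 2 = w 6 + w 1; linarith)) hR

end frozen

/-! ### `D` live -/

section live

variable {J : Type*} [Finite J] {P : Set (Fin 12 → ℝ)} {f lam2 : J → (Fin 12 → ℝ) → ℝ}
  {j0 : J} {X : ℕ → Fin 12 → ℝ} {H : ℕ → ℝ} {w R : V9}

/-- **330's `LinTanM` at a linear point, `D` live** -/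
theorem linTan9 (hpos : ∀ l, 0 < H l) (h0 : Tendsto H atTop (𝓝 0))
    (ht : ∀ j, IsTan P LM (f j) X H (lam2 j))
    (hlip : ∃ K : ℝ, 0 ≤ K ∧ ∀ j, ∀ p ∈ LM, ∀ q ∈ LM, |lam2 j p - lam2 j q| ≤ K * ‖p - q‖)
    (hw : LegM 0 w) (hL : LinS ∅ (fun w => lam2 j0 (E9 w)) w R)
    {Pr : ℕ → ℕ → Prop} (hPr : ∀ m, ∀ᶠ l in atTop, Pr m l) :
    ∃ (ψ : ℕ → ℕ) (h' : ℕ → ℝ), StrictMono ψ ∧ (∀ m, Pr m (ψ m)) ∧ (∀ m, 0 < h' m) ∧
      Tendsto h' atTop (𝓝 0) ∧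
      LinTanM P f j0 (fun m => X (ψ m) + H (ψ m) • E9 w) (fun m => H (ψ m) * h' m) (R 0) (R 3)
        (R 5) (R 4) (R 1) (R 2) (R 7) (R 6) (R 8) := by
  obtain ⟨ψ, h', lam3, hψ, hPψ, hp', h0', hT, hT', hv⟩ := tan_core (E := E9) LM_closed
    (by rw [← E9_zero]; exact E9_mem leg_zero) (fun p hp q hq => LM_add hp hq)
    (fun t ht p hp => LM_smul ht hp) hpos ht hlip E9_add E9_zero (E9_mem hw) hL hPr
  refine ⟨ψ, h', hψ, hPψ, hp', h0', ⟨fun m => mul_pos (hpos _) (hp' m), tend_mul h0 hψ h0',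
    LM, lam3, Subset.rfl, hT, ?_⟩⟩
  intro z D C p E B x Hh F hm
  obtain ⟨a1, a2, a3, a4, a5, a6, a7, a8, a9, a10⟩ := bx9_LM hm
  set d : V9 := ![z, C, p, x, F, Hh, B, E, D] with hd
  have hdl : LegM 0 d := by
    constructor
    · show E + 0 ≤ z + D
      linarith
    · show x + 0 ≤ z + C
      linarith
    · show B + 0 ≤ E + C
      linarith
    · show B + 0 ≤ D + x
      linarith
    · show Hh + 0 ≤ C + x
      linarith
    · show p + 0 ≤ C + B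
      linarith
    · show p + 0 ≤ D + Hh
      linarith
    · show F + 0 ≤ z + p
      linarith
    · show F + 0 ≤ x + B
      linarith
    · show F + 0 ≤ E + Hh
      linarith
  have e1 : E9 d = bx9 z D E C x B Hh p F := rfl
  have h1 := hv d hdl (by rw [e1]; exact hm)
  rw [← e1, h1]
  simp only [Fin.sum_univ_succ, Fin.sum_univ_zero]
  have g0 : d 0 = z := rfl
  have g1 : d 1 = C := rfl
  have g2 : d 2 = p := rfl
  have g3 : d 3 = x := rfl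
  have g4 : d 4 = F := rfl
  have g5 : d 5 = Hh := rfl
  have g6 : d 6 = B := rfl
  have g7 : d 7 = E := rfl
  have g8 : d 8 = D := rfl
  change -(R 0 * d 0 + (R 1 * d 1 + (R 2 * d 2 + (R 3 * d 3 + (R 4 * d 4 + (R 5 * d 5 +
    (R 6 * d 6 + (R 7 * d 7 + (R 8 * d 8 + 0))))))))) = _
  rw [g0, g1, g2, g3, g4, g5, g6, g7, g8]
  ring

/-- the facts with `D` live, one predicate (330's `factsM`) -/
def FactsM {J : Type*} (P : Set (Fin 12 → ℝ)) (f : J → (Fin 12 → ℝ) → ℝ) (j0 : J)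
    (Bs : (ℕ → Fin 12 → ℝ) → (ℕ → ℝ) → Prop) (s : ℝ) : Prop :=
  ∀ (X : ℕ → Fin 12 → ℝ) (h : ℕ → ℝ) (rz rX rH rF gC gP gE gB gD : ℝ), Bs X h →
    LinTanM P f j0 X h rz rX rH rF gC gP gE gB gD →
    ((∀ n, X n 5 = X n 0 + X n 3) → (∀ n, X n 6 = X n 0 + X n 4) →
      (0 < gC → 1 - s ≤ rX) ∧ (s < gC → 1 ≤ rX)) ∧
    ((∀ n, X n 11 = X n 0 + X n 10) → (0 < gP → 1 - s ≤ rF) ∧ (s < gP → 1 ≤ rF)) ∧
    ((∀ n, X n 9 = X n 3 + X n 5) → (0 < gC → rX ≤ rH)) ∧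
    ((∀ n, X n 11 = X n 7 + X n 5) → (0 < gB → rX ≤ rF)) ∧
    ((∀ n, X n 10 = X n 7 + X n 3) → (0 < gB → gC ≤ gP))

/-- **THE FACTS AT A `T⁻` PLANE, `D` LIVE** -/
theorem fct9 {s : ℝ} {Sk : V9 → Prop} {Pr : ℕ → ℕ → Prop}
    {Bs Bs1 : (ℕ → Fin 12 → ℝ) → (ℕ → ℝ) → Prop}
    (hpos : ∀ l, 0 < H l) (h0 : Tendsto H atTop (𝓝 0))
    (ht : ∀ j, IsTan P LM (f j) X H (lam2 j))
    (hlip : ∃ K : ℝ, 0 ≤ K ∧ ∀ j, ∀ p ∈ LM, ∀ q ∈ LM, |lam2 j p - lam2 j q| ≤ K * ‖p - q‖)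
    (hx : ∀ l k, ∀ e ∈ monL.mon k, e 1 = 0 → X l k = wl e (X l))
    (HL : FactsM P f j0 Bs s) (HL1 : FactsM P f j0 Bs1 1)
    (hown : ∀ w R, LegM 0 w → Sk w → LinS ∅ (fun w => lam2 j0 (E9 w)) w R → 1 - s ≤ R 0)
    (hnn : ∀ w R, LegM 0 w → LinS ∅ (fun w => lam2 j0 (E9 w)) w R → 0 ≤ R 0)
    (hPr : ∀ m, ∀ᶠ l in atTop, Pr m l)
    (hBs : ∀ (w R : V9) (ψ : ℕ → ℕ) (h1 : ℕ → ℝ), LegM 0 w → Sk w → StrictMono ψ →
      (∀ m, Pr m (ψ m)) → (∀ m, 0 < h1 m) → Tendsto h1 atTop (𝓝 0) → 1 - s ≤ R 0 →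
      LinTanM P f j0 (fun m => X (ψ m) + H (ψ m) • E9 w) (fun m => H (ψ m) * h1 m) (R 0) (R 3)
        (R 5) (R 4) (R 1) (R 2) (R 7) (R 6) (R 8) →
      Bs (fun m => X (ψ m) + H (ψ m) • E9 w) (fun m => H (ψ m) * h1 m))
    (hBs1 : ∀ (w R : V9) (ψ : ℕ → ℕ) (h1 : ℕ → ℝ), LegM 0 w → StrictMono ψ →
      (∀ m, Pr m (ψ m)) → (∀ m, 0 < h1 m) → Tendsto h1 atTop (𝓝 0) → 0 ≤ R 0 →
      LinTanM P f j0 (fun m => X (ψ m) + H (ψ m) • E9 w) (fun m => H (ψ m) * h1 m) (R 0) (R 3)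
        (R 5) (R 4) (R 1) (R 2) (R 7) (R 6) (R 8) →
      Bs1 (fun m => X (ψ m) + H (ψ m) • E9 w) (fun m => H (ψ m) * h1 m)) :
    Fct9 Sk s (fun w => lam2 j0 (E9 w)) := by
  obtain ⟨x1, x2, x3, x4, x5, x6, x7, x8, x9⟩ := wall_of hx
  have key : ∀ w R, LegM 0 w → Sk w → LinS ∅ (fun w => lam2 j0 (E9 w)) w R →
      ∃ (ψ : ℕ → ℕ) (h1 : ℕ → ℝ),
        Bs (fun m => X (ψ m) + H (ψ m) • E9 w) (fun m => H (ψ m) * h1 m) ∧
        LinTanM P f j0 (fun m => X (ψ m) + H (ψ m) • E9 w) (fun m => H (ψ m) * h1 m) (R 0) (R 3)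
          (R 5) (R 4) (R 1) (R 2) (R 7) (R 6) (R 8) := by
    intro w R hw hS hL
    obtain ⟨ψ, h1, hψ, hP, hp, h0', hT⟩ := linTan9 hpos h0 ht hlip hw hL hPr
    exact ⟨ψ, h1, hBs w R ψ h1 hw hS hψ hP hp h0' (hown w R hw hS hL) hT, hT⟩
  have key1 : ∀ w R, LegM 0 w → LinS ∅ (fun w => lam2 j0 (E9 w)) w R →
      ∃ (ψ : ℕ → ℕ) (h1 : ℕ → ℝ),
        Bs1 (fun m => X (ψ m) + H (ψ m) • E9 w) (fun m => H (ψ m) * h1 m) ∧
        LinTanM P f j0 (fun m => X (ψ m) + H (ψ m) • E9 w) (fun m => H (ψ m) * h1 m) (R 0) (R 3)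
          (R 5) (R 4) (R 1) (R 2) (R 7) (R 6) (R 8) := by
    intro w R hw hL
    obtain ⟨ψ, h1, hψ, hP, hp, h0', hT⟩ := linTan9 hpos h0 ht hlip hw hL hPr
    exact ⟨ψ, h1, hBs1 w R ψ h1 hw hψ hP hp h0' (hnn w R hw hL) hT, hT⟩
  refine ⟨?_, ?_, ?_, ?_, ?_, ?_, ?_⟩
  · intro w R ho hS hL hR
    obtain ⟨ψ, h1, hB, hT⟩ := key w R (one_leg ho) hS hL
    have g : w 0 + w 1 - w 3 = 0 := ho.1
    exact ((HL _ _ _ _ _ _ _ _ _ _ _ hB hT).1
      (wall_add (E := E9) (i := 0) (j := 3) (k := 5) x1 (by show w 3 = w 0 + w 1; linarith))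
      (wall_add (E := E9) (i := 0) (j := 4) (k := 6) x2 (by show w 3 = w 0 + w 1; linarith))).1 hR
  · intro w R ho hS hL hR
    obtain ⟨ψ, h1, hB, hT⟩ := key w R (one_leg ho) hS hL
    have g : w 0 + w 1 - w 3 = 0 := ho.1
    exact ((HL _ _ _ _ _ _ _ _ _ _ _ hB hT).1
      (wall_add (E := E9) (i := 0) (j := 3) (k := 5) x1 (by show w 3 = w 0 + w 1; linarith))
      (wall_add (E := E9) (i := 0) (j := 4) (k := 6) x2 (by show w 3 = w 0 + w 1; linarith))).2 hR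
  · intro w R ho hL hR
    obtain ⟨ψ, h1, hB, hT⟩ := key1 w R (one_leg ho) hL
    have g : w 1 + w 3 - w 5 = 0 := ho.1
    exact (HL1 _ _ _ _ _ _ _ _ _ _ _ hB hT).2.2.1
      (wall_add (E := E9) (i := 3) (j := 5) (k := 9) x3 (by show w 5 = w 1 + w 3; linarith)) hR
  · intro w R ho hS hL hR
    obtain ⟨ψ, h1, hB, hT⟩ := key w R (one_leg ho) hS hL
    have g : w 0 + w 2 - w 4 = 0 := ho.1
    exact ((HL _ _ _ _ _ _ _ _ _ _ _ hB hT).2.1
      (wall_add (E := E9) (i := 0) (j := 10) (k := 11) x5 (by show w 4 = w 0 + w 2; linarith))).1 hR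
  · intro w R ho hS hL hR
    obtain ⟨ψ, h1, hB, hT⟩ := key w R (one_leg ho) hS hL
    have g : w 0 + w 2 - w 4 = 0 := ho.1
    exact ((HL _ _ _ _ _ _ _ _ _ _ _ hB hT).2.1
      (wall_add (E := E9) (i := 0) (j := 10) (k := 11) x5 (by show w 4 = w 0 + w 2; linarith))).2 hR
  · intro w R ho hL hR
    obtain ⟨ψ, h1, hB, hT⟩ := key1 w R (one_leg ho) hL
    have g : w 3 + w 6 - w 4 = 0 := ho.1
    exact (HL1 _ _ _ _ _ _ _ _ _ _ _ hB hT).2.2.2.1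
      (wall_add (E := E9) (i := 7) (j := 5) (k := 11) x6 (by show w 4 = w 6 + w 3; linarith)) hR
  · intro w R ho hL hR
    obtain ⟨ψ, h1, hB, hT⟩ := key1 w R (one_leg ho) hL
    have g : w 1 + w 6 - w 2 = 0 := ho.1
    exact (HL1 _ _ _ _ _ _ _ _ _ _ _ hB hT).2.2.2.2
      (wall_add (E := E9) (i := 7) (j := 3) (k := 10) x8 (by show w 2 = w 6 + w 1; linarith)) hR

/-- 330's `factsM` gives `FactsM` -/
theorem factsM_of {B : Base} {I J' : ℕ → Finset (ℕ × ℝ)}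
    {co : ∀ n : ℕ, ℕ × ℝ → ℕ × ℝ → Fin 12 → ℝ} {C Rb : ℝ} {ν : (Fin 12 → ℝ) → ℝ} {s : ℝ}
    (hN : NProf B I J' co monL C Rb ν) (hcoc : ∀ n, Coc (co n)) (hs0 : 0 ≤ s)
    (hs1 : s ≤ 1) (hf : f j0 = ν) {Bs : (ℕ → Fin 12 → ℝ) → (ℕ → ℝ) → Prop}
    (hBs : ∀ X h, Bs X h → Kg330.BsM B I J' co C Rb ν s X h) :
    FactsM (Leg monL Rb) f j0 Bs s := by
  intro X h rz rX rH rF gC gP gE gB gD hb L
  obtain ⟨a1, a2, a3, a4, a5, a6, a7, a8⟩ := Kg330.factsM hN hcoc hs0 hs1 hf (hBs X h hb) L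
  exact ⟨a1, a2, fun h => (a3 h).1, fun h => (a4 h).1, fun h => (a8 h).1⟩

end live

end Crest.Agent.R116.Tq794
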