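import Crest.Agent.R116.Pu1_171
import Crest.Agent.R116.Pu3_171
import Crest.Agent.R116.Tq3_794

/-!
# R116, ties: the two-height facts at class vectors (helper171)

* `pWD`, `pWM` : P1, P2 for a linear tangent at any legal base with one tight wall, `D` frozen /
  live; no condition on the base (no thinness, no `BsF`), only `0 < σ ≤ rz`;
* **`fctP8`**, **`fctP9`** : `FctP Sk Λ` at any plane (cone `M` of the tangents `⊇ LM0` / `⊇ LM`).
-/

set_option autoImplicit false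
set_option linter.unusedVariables false
set_option linter.unusedSectionVars false

open Set Filter Topology

namespace Crest.Agent.R116.Pu171

open Crest.Agent.R138
open Crest.Agent.R138.Ex926 (Base U IsTan)
open Crest.Agent.R136.Net191 Crest.Agent.R136.Qg926 Crest.Agent.R136.Gf356
open Crest.Agent.R116.ChL222 Crest.Agent.R116.PL504 Crest.Agent.R116.EvL504
open Crest.Agent.R116.Kr710 Crest.Agent.R116.WinG954 Crest.Agent.R116.Sg337
open Crest.Agent.R116.Tq741 Crest.Agent.R116.Tq794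

section win

variable {ι : ℕ → Type*} [∀ n, DecidableEq (ι n)] {B : Base} {I J : ∀ n, Finset (ι n)}
  {co : ∀ n, ι n → ι n → Fin 12 → ℝ} {C R : ℝ} {ν : (Fin 12 → ℝ) → ℝ}
  {x : ℕ → Fin 12 → ℝ} {h : ℕ → ℝ} {D : Set (Fin 12 → ℝ)} {lam : (Fin 12 → ℝ) → ℝ}
  {rz rX rH rF gC gP gE gB gD σ : ℝ}

/-- **P1, P2**, slot `D` frozen -/
theorem pWD (hN : NProf B I J co monL C R ν) (hcoc : ∀ n, Coc (co n))
    (hpos : ∀ l, 0 < h l) (hh : Tendsto h atTop (𝓝 0))
    (htan : IsTan (Leg monL R) D ν x h lam) (hD : LMd ⊆ D)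
    (hlin : LinD lam rz rX rH rF gC gP gE gB) (hσ : 0 < σ) (hrz : σ ≤ rz) (i₀ : ∀ n, ι n) :
    ((∀ᶠ n in atTop, x n 5 = x n 0 + x n 3) → (∀ᶠ n in atTop, x n 6 = x n 0 + x n 4) →
      gC ≤ rX) ∧ ((∀ᶠ n in atTop, x n 11 = x n 0 + x n 10) → gP ≤ rF) := by
  set σ' : ℝ := min σ 1 with hσ'
  have hσ0 : 0 < σ' := lt_min hσ one_pos
  obtain ⟨k, W, E, a1, w, a3, a4, a5, a6, a7, a8, a9⟩ := exists_winD hN hcoc hpos hh htan hD hlin
    hσ0.le (min_le_right _ _) ((min_le_left _ _).trans hrz) (t := 1) one_pos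
    (fun _ _ => 1) (fun _ => Base.Sub.const one_pos) i₀
  have mem : ∀ {E' C' X' B' N P F : ℝ}, (0 ≤ E' ∧ 0 ≤ C' ∧ 0 ≤ X' ∧ 0 ≤ B' ∧ 0 ≤ N ∧ 0 ≤ P ∧
      0 ≤ F) → (B' ≤ E' + C' ∧ N ≤ C' + X' ∧ P ≤ C' + B' ∧ F ≤ X' + B' ∧ F ≤ E' + N) →
      (E' ≤ 1 ∧ C' ≤ 1 ∧ X' ≤ 1 ∧ B' ≤ 1 ∧ N ≤ 1 ∧ P ≤ 1 ∧ F ≤ 1) →
      bx9 0 0 E' C' X' B' N P F ∈ W.legW ∧ W.nu (bx9 0 0 E' C' X' B' N P F) =
        rX * (1 - X') + rH * (1 - N) + rF * (1 - F) + gC * (1 - C') + gP * (1 - P) +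
          gE * (1 - E') + gB * (1 - B') := by
    intro E' C' X' B' N P F h0 h1 h2
    have hm := (w.memD zero_le_one (z := 0) (D := 0)).2 ⟨rfl, h0, h1, h2⟩
    exact ⟨hm, a9 _ _ _ _ _ _ _ _ hm⟩
  have m0 := mem (E' := 0) (C' := 0) (X' := 0) (B' := 0) (N := 0) (P := 0) (F := 0)
    (by norm_num) (by norm_num) (by norm_num)
  refine ⟨fun h5 h6 => ?_, fun h11 => ?_⟩
  · have T5 : ∀ᶠ n in (U : Filter ℕ), side W n 0 * side W n 3 = side W n 5 := by
      filter_upwards [w.ev_of (P := fun c _ => c 5 = c 0 + c 3) h5 a1] with n hn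
      exact Kg330.tight_side w.wl rfl hn
    have T6 : ∀ᶠ n in (U : Filter ℕ), side W n 0 * side W n 4 = side W n 6 := by
      filter_upwards [w.ev_of (P := fun c _ => c 6 = c 0 + c 4) h6 a1] with n hn
      exact Kg330.tight_side w.wl rfl hn
    have mX := mem (E' := 0) (C' := 0) (X' := 1) (B' := 0) (N := 0) (P := 0) (F := 0)
      (by norm_num) (by norm_num) (by norm_num)
    have mC := mem (E' := 0) (C' := 1) (X' := 1) (B' := 0) (N := 0) (P := 0) (F := 0)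
      (by norm_num) (by norm_num) (by norm_num)
    have key := p1w w.wl a7 a8 hσ0 one_pos T5 T6
      (y := 1) zero_le_one le_rfl
      (p := bx9 0 0 0 0 1 0 0 0 0) (p' := bx9 0 0 0 1 1 0 0 0 0) (pT := bx9 0 0 0 0 0 0 0 0 0)
      (r := bx9 0 0 0 0 1 0 0 0 0) mX.1 mC.1 m0.1 mX.1
      (fun j => by fin_cases j <;> simp [bx9]) (fun j => by fin_cases j <;> simp [bx9])
      (by simp [bx9]) (by simp [bx9]) (by simp [bx9]) (by simp [bx9])
      (fun j => by fin_cases j <;> simp [bx9])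
    rw [mX.2, mC.2, m0.2] at key
    linarith
  · have T1 : ∀ᶠ n in (U : Filter ℕ), side W n 0 * side W n 10 = side W n 11 := by
      filter_upwards [w.ev_of (P := fun c _ => c 11 = c 0 + c 10) h11 a1] with n hn
      exact Kg330.tight_side w.wl rfl hn
    have mT := mem (E' := 0) (C' := 1) (X' := 1) (B' := 0) (N := 1) (P := 0) (F := 0)
      (by norm_num) (by norm_num) (by norm_num)
    have mF := mem (E' := 0) (C' := 1) (X' := 1) (B' := 0) (N := 1) (P := 0) (F := 1)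
      (by norm_num) (by norm_num) (by norm_num)
    have mP := mem (E' := 0) (C' := 1) (X' := 1) (B' := 0) (N := 1) (P := 1) (F := 1)
      (by norm_num) (by norm_num) (by norm_num)
    have key := p2w w.wl a7 a8 hσ0 one_pos T1
      (y := 1) zero_le_one le_rfl
      (p := bx9 0 0 0 1 1 0 1 0 1) (p' := bx9 0 0 0 1 1 0 1 1 1) (pT := bx9 0 0 0 1 1 0 1 0 0)
      (r := bx9 0 0 0 1 1 0 1 0 1) mF.1 mP.1 mT.1 mF.1
      (fun j => by fin_cases j <;> simp [bx9]) (fun j => by fin_cases j <;> simp [bx9])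
      (by simp [bx9]) (by simp [bx9]) (by simp [bx9]) (by simp [bx9]) (Or.inl (by simp [bx9]))
      (by simp [bx9]) (by simp [bx9])
      (fun j => by fin_cases j <;> simp [bx9])
    rw [mF.2, mP.2, mT.2] at key
    linarith

/-- **P1, P2**, slot `D` live -/
theorem pWM (hN : NProf B I J co monL C R ν) (hcoc : ∀ n, Coc (co n))
    (hpos : ∀ l, 0 < h l) (hh : Tendsto h atTop (𝓝 0))
    (htan : IsTan (Leg monL R) D ν x h lam) (hD : LM ⊆ D)
    (hlin : LinM lam rz rX rH rF gC gP gE gB gD) (hσ : 0 < σ) (hrz : σ ≤ rz) (i₀ : ∀ n, ι n) :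
    ((∀ᶠ n in atTop, x n 5 = x n 0 + x n 3) → (∀ᶠ n in atTop, x n 6 = x n 0 + x n 4) →
      gC ≤ rX) ∧ ((∀ᶠ n in atTop, x n 11 = x n 0 + x n 10) → gP ≤ rF) := by
  set σ' : ℝ := min σ 1 with hσ'
  have hσ0 : 0 < σ' := lt_min hσ one_pos
  obtain ⟨k, W, E, a1, w, a3, a4, a5, a6, a7, a8, a9⟩ := exists_winM hN hcoc hpos hh htan hD hlin
    hσ0.le (min_le_right _ _) ((min_le_left _ _).trans hrz) (t := 1) one_pos
    (fun _ _ => 1) (fun _ => Base.Sub.const one_pos) i₀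
  have mem : ∀ {z D E C X B N P F : ℝ}, 
      (0 ≤ D ∧ 0 ≤ E ∧ 0 ≤ C ∧ 0 ≤ X ∧ 0 ≤ B ∧ 0 ≤ N ∧ 0 ≤ P ∧ 0 ≤ F) →
      (B ≤ E + C ∧ B ≤ D + X ∧ N ≤ C + X ∧ P ≤ C + B ∧ P ≤ D + N ∧ F ≤ X + B ∧ F ≤ E + N) →
      (D ≤ 1 ∧ E ≤ 1 ∧ C ≤ 1 ∧ X ≤ 1 ∧ B ≤ 1 ∧ N ≤ 1 ∧ P ≤ 1 ∧ F ≤ 1) →
      bx9 z D E C X B N P F ∈ W.legW := fun h1 h2 h3 => (w.memL zero_le_one).2 ⟨h1, h2, h3⟩
  have m0 : bx9 0 0 0 0 0 0 0 0 0 ∈ W.legW := mem (by norm_num) (by norm_num) (by norm_num)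
  refine ⟨fun h5 h6 => ?_, fun h11 => ?_⟩
  · have T5 : ∀ᶠ n in (U : Filter ℕ), side W n 0 * side W n 3 = side W n 5 := by
      filter_upwards [w.ev_of (P := fun c _ => c 5 = c 0 + c 3) h5 a1] with n hn
      exact Kg330.tight_side w.wl rfl hn
    have T6 : ∀ᶠ n in (U : Filter ℕ), side W n 0 * side W n 4 = side W n 6 := by
      filter_upwards [w.ev_of (P := fun c _ => c 6 = c 0 + c 4) h6 a1] with n hn
      exact Kg330.tight_side w.wl rfl hn
    have mp : bx9 0 0 0 0 1 0 0 0 0 ∈ W.legW := mem (by norm_num) (by norm_num) (by norm_num)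
    have mp' : bx9 0 0 0 1 1 0 0 0 0 ∈ W.legW := mem (by norm_num) (by norm_num) (by norm_num)
    have key := p1w w.wl a7 a8 hσ0 one_pos T5 T6 (y := 1) zero_le_one le_rfl
      (p := bx9 0 0 0 0 1 0 0 0 0) (p' := bx9 0 0 0 1 1 0 0 0 0) (pT := bx9 0 0 0 0 0 0 0 0 0)
      (r := bx9 0 0 0 0 1 0 0 0 0) mp mp' m0 mp
      (fun j => by fin_cases j <;> simp [bx9]) (fun j => by fin_cases j <;> simp [bx9])
      (by simp [bx9]) (by simp [bx9]) (by simp [bx9]) (by simp [bx9])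
      (fun j => by fin_cases j <;> simp [bx9])
    rw [a9 _ _ _ _ _ _ _ _ _ mp, a9 _ _ _ _ _ _ _ _ _ mp', a9 _ _ _ _ _ _ _ _ _ m0] at key
    linarith
  · have T1 : ∀ᶠ n in (U : Filter ℕ), side W n 0 * side W n 10 = side W n 11 := by
      filter_upwards [w.ev_of (P := fun c _ => c 11 = c 0 + c 10) h11 a1] with n hn
      exact Kg330.tight_side w.wl rfl hn
    have mT : bx9 0 0 0 1 1 0 1 0 0 ∈ W.legW := mem (by norm_num) (by norm_num) (by norm_num)
    have mp : bx9 0 0 0 1 1 0 1 0 1 ∈ W.legW := mem (by norm_num) (by norm_num) (by norm_num)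
    have mp' : bx9 0 0 0 1 1 0 1 1 1 ∈ W.legW := mem (by norm_num) (by norm_num) (by norm_num)
    have key := p2w w.wl a7 a8 hσ0 one_pos T1 (y := 1) zero_le_one le_rfl
      (p := bx9 0 0 0 1 1 0 1 0 1) (p' := bx9 0 0 0 1 1 0 1 1 1) (pT := bx9 0 0 0 1 1 0 1 0 0)
      (r := bx9 0 0 0 1 1 0 1 0 1) mp mp' mT mp
      (fun j => by fin_cases j <;> simp [bx9]) (fun j => by fin_cases j <;> simp [bx9])
      (by simp [bx9]) (by simp [bx9]) (by simp [bx9]) (by simp [bx9]) (Or.inl (by simp [bx9]))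
      (by simp [bx9]) (by simp [bx9])
      (fun j => by fin_cases j <;> simp [bx9])
    rw [a9 _ _ _ _ _ _ _ _ _ mp, a9 _ _ _ _ _ _ _ _ _ mp', a9 _ _ _ _ _ _ _ _ _ mT] at key
    linarith

end win

/-! ### class vectors -/

section cls

open Crest.Agent.R116.SgF665 (LM0 bx9_mem)

variable {ι : ℕ → Type*} [∀ n, DecidableEq (ι n)] {B : Base} {I J' : ∀ n, Finset (ι n)}
  {co : ∀ n, ι n → ι n → Fin 12 → ℝ} {C Rb : ℝ} {ν : (Fin 12 → ℝ) → ℝ}
  {J : Type*} [Finite J] {M : Set (Fin 12 → ℝ)} {f lam2 : J → (Fin 12 → ℝ) → ℝ}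
  {j0 : J} {X : ℕ → Fin 12 → ℝ} {H : ℕ → ℝ} {w R : V9} {σ : ℝ}

/-- **the two-height facts at class vectors, `D` frozen**; `M` = any closed cone `⊇ LM0` -/
theorem fctP8 (hN : NProf B I J' co monL C Rb ν) (hcoc : ∀ n, Coc (co n)) (i₀ : ∀ n, ι n)
    (hMc : IsClosed M) (hM0 : (0 : Fin 12 → ℝ) ∈ M)
    (hMa : ∀ p ∈ M, ∀ q ∈ M, p + q ∈ M) (hMs : ∀ t : ℝ, 0 ≤ t → ∀ p ∈ M, t • p ∈ M)
    (hML : LM0 ⊆ M) (hpos : ∀ l, 0 < H l) (h0 : Tendsto H atTop (𝓝 0))
    (ht : ∀ j, IsTan (Leg monL Rb) M (f j) X H (lam2 j)) (hf : f j0 = ν)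
    (hlip : ∃ K : ℝ, 0 ≤ K ∧ ∀ j, ∀ p ∈ M, ∀ q ∈ M, |lam2 j p - lam2 j q| ≤ K * ‖p - q‖)
    (x1 : ∀ᶠ n in atTop, X n 5 = X n 0 + X n 3) (x2 : ∀ᶠ n in atTop, X n 6 = X n 0 + X n 4)
    (x5 : ∀ᶠ n in atTop, X n 11 = X n 0 + X n 10) {Sk : V9 → Prop} (hσ : 0 < σ)
    (hown : ∀ w R, LegM 0 w → Sk w → LinS ∅ (fun w => lam2 j0 (E8 w)) w R → σ ≤ R 0) :
    FctP Sk (fun w => lam2 j0 (E8 w)) := by
  have key : ∀ w R, LegM 0 w → Sk w → LinS ∅ (fun w => lam2 j0 (E8 w)) w R →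
      (w 3 = w 0 + w 1 → R 1 ≤ R 3) ∧ (w 4 = w 0 + w 2 → R 2 ≤ R 4) := by
    intro w R hw hS hL
    obtain ⟨ψ, h', lam3, hψ, -, hp', h0', hT, hT', hv⟩ := tan_core (E := E8) hMc hM0 hMa hMs hpos
      ht hlip E8_add E8_zero (hML (E8_mem hw)) hL (Pr := fun _ _ => True)
      (fun _ => Eventually.of_forall fun _ => trivial)
    have hR8 : R 8 = 0 := by
      have hl : LegM 0 (e9 8) := by
        constructor <;> simp [e9]
      have e : E8 (e9 8) = 0 := by
        funext i; fin_cases i <;> simp [E8, bx9, e9]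
      have h1 := hv (e9 8) hl (by rw [e]; exact hM0)
      rw [e, Finset.sum_eq_single 8 (fun i _ hi => by rw [e9_ne hi, mul_zero])
        (fun h => absurd (Finset.mem_univ _) h), e9_same, mul_one,
        Crest.Agent.R116.Tq794.tan_zero (fun m => mul_pos (hpos _) (hp' m)) (hT j0) hM0] at h1
      linarith
    have hlin : LinD (lam3 j0) (R 0) (R 3) (R 5) (R 4) (R 1) (R 2) (R 7) (R 6) := by
      intro z C p E B x Hh F hm'
      have hm : bx9 z 0 E C x B Hh p F ∈ LM0 := hm'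
      obtain ⟨a1, a2, a3, a4, a5, a6, a7⟩ := bx9_mem.1 hm
      set N : ℝ := |z| + |C| + |p| + |E| + |B| + |x| + |Hh| + |F| with hN
      set d : V9 := ![z, C, p, x, F, Hh, B, E, N] with hd
      have k1 := abs_nonneg z
      have k2 := abs_nonneg C
      have k3 := abs_nonneg p
      have k4 := abs_nonneg E
      have k5 := abs_nonneg B
      have k6 := abs_nonneg x
      have k7 := abs_nonneg Hh
      have k8 := abs_nonneg F
      have j1 := neg_abs_le z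
      have j4 := le_abs_self E
      have j5 := le_abs_self B
      have j6 := neg_abs_le x
      have j3 := le_abs_self p
      have j7 := neg_abs_le Hh
      have hdl : LegM 0 d := by
        constructor
        · show E + 0 ≤ z + N
          linarith
        · show x + 0 ≤ z + C
          linarith
        · show B + 0 ≤ E + C
          linarith
        · show B + 0 ≤ N + x
          linarith
        · show Hh + 0 ≤ C + x
          linarith
        · show p + 0 ≤ C + B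
          linarith
        · show p + 0 ≤ N + Hh
          linarith
        · show F + 0 ≤ z + p
          linarith
        · show F + 0 ≤ x + B
          linarith
        · show F + 0 ≤ E + Hh
          linarith
      have e1 : E8 d = bx9 z 0 E C x B Hh p F := rfl
      have h1 := hv d hdl (by rw [e1]; exact hML hm)
      rw [← e1, h1]
      simp only [Fin.sum_univ_succ, Fin.sum_univ_zero]
      have g0 : d 0 = z := rfl
      have g1 : d 1 = C := rfl
      have g2 : d 2 = p := rfl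
      have g3 : d 3 = x := rfl
      have g4 : d 4 = F := rfl
      have g5 : d 5 = Hh := rfl
      have g6 : d 6 = B := rfl
      have g7 : d 7 = E := rfl
      change -(R 0 * d 0 + (R 1 * d 1 + (R 2 * d 2 + (R 3 * d 3 + (R 4 * d 4 + (R 5 * d 5 +
        (R 6 * d 6 + (R 7 * d 7 + (R 8 * d 8 + 0))))))))) = _
      rw [g0, g1, g2, g3, g4, g5, g6, g7, hR8]
      ring
    have P := pWD hN hcoc (fun m => mul_pos (hpos _) (hp' m)) (tend_mul h0 hψ h0')
      (hf ▸ hT j0) (show LMd ⊆ M from hML) hlin hσ (hown w R hw hS hL) i₀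
    have ev : ∀ {i j k : Fin 12}, (∀ᶠ n in atTop, X n k = X n i + X n j) →
        E8 w k = E8 w i + E8 w j → ∀ᶠ n in atTop, (X (ψ n) + H (ψ n) • E8 w) k =
          (X (ψ n) + H (ψ n) • E8 w) i + (X (ψ n) + H (ψ n) • E8 w) j := by
      intro i j k h1 h2
      filter_upwards [hψ.tendsto_atTop.eventually h1] with n hn
      simp only [Pi.add_apply, Pi.smul_apply, smul_eq_mul]
      rw [hn, h2]
      ring
    exact ⟨fun e => P.1 (ev x1 e) (ev x2 e), fun e => P.2 (ev x5 e)⟩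
  refine ⟨fun w R ho hS hL => (key w R (one_leg ho) hS hL).1 ?_,
    fun w R ho hS hL => (key w R (one_leg ho) hS hL).2 ?_⟩
  · have g : w 0 + w 1 - w 3 = 0 := ho.1
    linarith
  · have g : w 0 + w 2 - w 4 = 0 := ho.1
    linarith

/-- **the two-height facts at class vectors, `D` live**; `M` = any closed cone `⊇ LM` -/
theorem fctP9 (hN : NProf B I J' co monL C Rb ν) (hcoc : ∀ n, Coc (co n)) (i₀ : ∀ n, ι n)
    (hMc : IsClosed M) (hM0 : (0 : Fin 12 → ℝ) ∈ M)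
    (hMa : ∀ p ∈ M, ∀ q ∈ M, p + q ∈ M) (hMs : ∀ t : ℝ, 0 ≤ t → ∀ p ∈ M, t • p ∈ M)
    (hML : LM ⊆ M) (hpos : ∀ l, 0 < H l) (h0 : Tendsto H atTop (𝓝 0))
    (ht : ∀ j, IsTan (Leg monL Rb) M (f j) X H (lam2 j)) (hf : f j0 = ν)
    (hlip : ∃ K : ℝ, 0 ≤ K ∧ ∀ j, ∀ p ∈ M, ∀ q ∈ M, |lam2 j p - lam2 j q| ≤ K * ‖p - q‖)
    (x1 : ∀ᶠ n in atTop, X n 5 = X n 0 + X n 3) (x2 : ∀ᶠ n in atTop, X n 6 = X n 0 + X n 4)
    (x5 : ∀ᶠ n in atTop, X n 11 = X n 0 + X n 10) {Sk : V9 → Prop} (hσ : 0 < σ)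
    (hown : ∀ w R, LegM 0 w → Sk w → LinS ∅ (fun w => lam2 j0 (E9 w)) w R → σ ≤ R 0) :
    FctP Sk (fun w => lam2 j0 (E9 w)) := by
  have key : ∀ w R, LegM 0 w → Sk w → LinS ∅ (fun w => lam2 j0 (E9 w)) w R →
      (w 3 = w 0 + w 1 → R 1 ≤ R 3) ∧ (w 4 = w 0 + w 2 → R 2 ≤ R 4) := by
    intro w R hw hS hL
    obtain ⟨ψ, h', lam3, hψ, -, hp', h0', hT, hT', hv⟩ := tan_core (E := E9) hMc hM0 hMa hMs hpos
      ht hlip E9_add E9_zero (hML (E9_mem hw)) hL (Pr := fun _ _ => True)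
      (fun _ => Eventually.of_forall fun _ => trivial)
    have hlin : LinM (lam3 j0) (R 0) (R 3) (R 5) (R 4) (R 1) (R 2) (R 7) (R 6) (R 8) := by
      intro z D C p E B x Hh F hm
      obtain ⟨a1, a2, a3, a4, a5, a6, a7, a8, a9, a10⟩ := bx9_LM hm
      set d : V9 := ![z, C, p, x, F, Hh, B, E, D] with hd
      have hdl : LegM 0 d := by
        constructor
        · show E + 0 ≤ z + D
          linarith
        · show x + 0 ≤ z + C
          linarith
        · show B + 0 ≤ E + C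
          linarith
        · show B + 0 ≤ D + x
          linarith
        · show Hh + 0 ≤ C + x
          linarith
        · show p + 0 ≤ C + B
          linarith
        · show p + 0 ≤ D + Hh
          linarith
        · show F + 0 ≤ z + p
          linarith
        · show F + 0 ≤ x + B
          linarith
        · show F + 0 ≤ E + Hh
          linarith
      have e1 : E9 d = bx9 z D E C x B Hh p F := rfl
      have h1 := hv d hdl (by rw [e1]; exact hML hm)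
      rw [← e1, h1]
      simp only [Fin.sum_univ_succ, Fin.sum_univ_zero]
      have g0 : d 0 = z := rfl
      have g1 : d 1 = C := rfl
      have g2 : d 2 = p := rfl
      have g3 : d 3 = x := rfl
      have g4 : d 4 = F := rfl
      have g5 : d 5 = Hh := rfl
      have g6 : d 6 = B := rfl
      have g7 : d 7 = E := rfl
      have g8 : d 8 = D := rfl
      change -(R 0 * d 0 + (R 1 * d 1 + (R 2 * d 2 + (R 3 * d 3 + (R 4 * d 4 + (R 5 * d 5 +
        (R 6 * d 6 + (R 7 * d 7 + (R 8 * d 8 + 0))))))))) = _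
      rw [g0, g1, g2, g3, g4, g5, g6, g7, g8]
      ring
    have P := pWM hN hcoc (fun m => mul_pos (hpos _) (hp' m)) (tend_mul h0 hψ h0')
      (hf ▸ hT j0) hML hlin hσ (hown w R hw hS hL) i₀
    have ev : ∀ {i j k : Fin 12}, (∀ᶠ n in atTop, X n k = X n i + X n j) →
        E9 w k = E9 w i + E9 w j → ∀ᶠ n in atTop, (X (ψ n) + H (ψ n) • E9 w) k =
          (X (ψ n) + H (ψ n) • E9 w) i + (X (ψ n) + H (ψ n) • E9 w) j := by
      intro i j k h1 h2
      filter_upwards [hψ.tendsto_atTop.eventually h1] with n hn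
      simp only [Pi.add_apply, Pi.smul_apply, smul_eq_mul]
      rw [hn, h2]
      ring
    exact ⟨fun e => P.1 (ev x1 e) (ev x2 e), fun e => P.2 (ev x5 e)⟩
  refine ⟨fun w R ho hS hL => (key w R (one_leg ho) hS hL).1 ?_,
    fun w R ho hS hL => (key w R (one_leg ho) hS hL).2 ?_⟩
  · have g : w 0 + w 1 - w 3 = 0 := ho.1
    linarith
  · have g : w 0 + w 2 - w 4 = 0 := ho.1
    linarith

end cls

end Crest.Agent.R116.Pu171
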