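import Crest.Agent.R116.PosA_348
import Crest.Agent.R116.Pe0_794
import Crest.Agent.R116.Kt2_710
import Crest.Agent.R116.Tq4_126
import Crest.Agent.R116.NZ10_90
import Crest.Agent.R116.Fk1_647
import Crest.Agent.R116.Pu4_171

/-!
# R116 (K side, TIES), the `κ`-plane BELOW the record, class data (helper348)

Any visible slots among `0, 1, 2, 7, 8` are allowed: on `kD`, `kD9` the level of `B` is strictly coarser
than its own level, so `7, 8` drop out of the visible slots of the plane (`VisK`).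
* `KDat8`, `kdat8`  : `D` frozen, `k < 1` (every `k > 0` is allowed here)
* `KDat9`, `kdat9`  : `D` live, `k > 1`
-/

set_option autoImplicit false
set_option linter.unusedSectionVars false
set_option linter.unusedVariables false

open Set Filter Topology MeasureTheory

namespace Crest.Agent.R116.Pk348

open Crest.Agent.R138
open Crest.Agent.R138.Ex926 (Base U IsTan)
open Crest.Agent.R136
open Crest.Agent.R136.MkA627
open Crest.Agent.R136.TD627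
open Crest.Agent.R136.Net191
open Crest.Agent.R136.Lq196
open Crest.Agent.R116.ChL222
open Crest.Agent.R116.PL504 (nb rL DN eL βL oL Shift)
open Crest.Agent.R116.Sg337 (bx9 coneL DL natB)
open Crest.Agent.R116.Gd222 (TSet sN PDL DT)
open Crest.Agent.R116.KI439 hiding kD
open Crest.Agent.R116.KF439 (PL)
open Crest.Agent.R116.CtxB468
open Crest.Agent.R116.Rcx363
open Crest.Agent.R116.RbM219
open Crest.Agent.R116.RbK219 (RS SOk Par dl Aln)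
open Crest.Agent.R116.SgO219 (PP)
open Crest.Agent.R116.Kz647
open Crest.Agent.R116.Pd363
open Crest.Agent.R116.SgF665 (LM0)
open Crest.Agent.R116.WinG954 (LM)
open Crest.Agent.R116.Tq741
open Crest.Agent.R116.Tq794
open Crest.Agent.R116.Tq126
open Crest.Agent.R116.Tp139 hiding cl8
open Crest.Agent.R116.PosA348
open Crest.Agent.R116.Tie460 (Pl)
open Dg219 (mw Walls)
open Sl741 (slice xt rs)

/-- visible slots of the plane -/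
def VisK (Vis : Fin 12 → Prop) (k : Fin 12) : Prop := Vis k ∧ k ≠ 7 ∧ k ≠ 8

theorem natcut (v c p : ℝ) : (fun i : Fin 8 => nat9 v c p i.castSucc) = nat8 v c p := by
  funext i; fin_cases i <;> rfl

section ctx

variable {G : Geo TSet (Fin 2)} {L : ℕ → ℕ → LRay} {r : ℕ → ℝ} {g s : ℝ} {θ q : Fin 2 → ℝ}
    {Rg : ℝ} {B : Base} {I : ℕ → Finset (ℕ × ℝ)} {lev : ℕ → ℚ → ℕ} {A : ℕ → ℝ}
    {f : ℕ → ℚ → ℕ → ℤ → ℕ} {b : ℕ → ℚ → ℕ → TSet} {vm : ℕ → ℚ → ℝ} {w : Fin 2 → ℕ → ℚ → ℝ}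
    {fr : ℕ → ℚ → ℕ × ℝ → LInc} {fl : ℕ → ℕ × ℝ → LInc} {sc : Fin 12 → ℕ → ℝ}
    {w0 sa sb δ R : ℝ} {I0 I' : ℕ → Finset (ℕ × ℝ)} {ν own : (Fin 12 → ℝ) → ℝ} {c₀ : ℝ}
    {v0 t k c0 : ℝ} {a b' : Fin 2} {x : ℕ → Fin 12 → ℝ} {hh : ℕ → ℝ}
    {lam : Fin 2 → (Fin 12 → ℝ) → ℝ} {T : Type*}

/-- the class data, `D` frozen -/
structure KDat8 (R s : ℝ) (a b' : Fin 2) (Vis : Fin 12 → Prop) (θ q : Fin 2 → ℝ)
    (g w0 sa sb v0 t k : ℝ) (f : Fin 2 → (Fin 12 → ℝ) → ℝ) (lam : Fin 2 → (Fin 12 → ℝ) → ℝ)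
    (ρ : Fin 8 → ℝ) (l α : ℝ) (h' : ℕ → ℝ) (X : ℕ → Fin 12 → ℝ) (H : ℕ → ℝ)
    (lam2 : Fin 2 → (Fin 12 → ℝ) → ℝ) (ρ2 : Fin 8 → ℝ) (φ : Fin 9 → V9 → ℝ) : Prop where
  pd : Pd8 R s a b' (VisK Vis) (θ 0) (θ 1) w0 sa sb v0 t (DL g s (q 0) (q 1) 0 (-1) (-2)) kD (-1) f
    lam ρ l α h' X H lam2 ρ2
  cl : Cl9 (cK k) (sn8 (dl (nat8 1 (-(θ 0)) (-(θ 1))) kD (-1)) 1) s
    (fun w => lam2 0 (xt kp 0 (RL8.vec (fun i : Fin 8 => w i.castSucc)))) φ (sn8 ρ2 0)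
  fct : Fct9 (fun w => w 7 ≤ k * w 0) s
    (fun w => lam2 0 (xt kp 0 (RL8.vec (fun i : Fin 8 => w i.castSucc))))
  T : (fun w : V9 => lam2 0 (xt kp 0 (RL8.vec (fun i : Fin 8 => w i.castSucc))))
    (nat9 1 (-(θ 0)) (-(θ 1))) = DL g s (q 0) (q 1) 1 (-(θ 0)) (-(θ 1))
  V : (fun w : V9 => lam2 0 (xt kp 0 (RL8.vec (fun i : Fin 8 => w i.castSucc))))
    (nat9 0 (-1) (-2)) ≤ DL g s (q 0) (q 1) 0 (-1) (-2)
  r0 : ρ2 0 = ρ 0
  r1 : ρ2 1 = ρ 1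
  pos : q 0 ≤ ρ 1

theorem kdat8
    (C : CtxT G L r g s θ q Rg B I lev A f b vm w fr fl sc w0 sa sb δ R I0 I' ν own c₀)
    (hs0 : 0 ≤ s) (hs1 : s ≤ 1) (hθ : 0 < θ 0) (hk : 0 < k) (hb : θ 1 = 2 * θ 0 - k)
    (hv0 : 0 < v0) (hv1 : v0 < 1) (ht : 0 < t) (hI : InvT PL B I 1 fl (sc 1))
    {Bs : T → Fin 8 → ℝ} {sgs : T → ℝ}
    (O : Out8 R s a b' (VisT B I fl sc) (θ 0) (θ 1) g (q 0) (q 1) t Bs sgs
      (rL (θ 0) (θ 1) w0 sa sb v0) (fo ν own) x hh lam) (hc0 : 0 < c0)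
    (hM : (srf8 (θ 0) (θ 1) t kD (-1)).LW (Q8 t) c0 ⊆
      (Q8 t).L (rs kp (y8 t)) (rs kp (r8 (θ 0) (θ 1))) 0) {ρ : Fin 8 → ℝ}
    (hR : Rates8 (θ 0) (θ 1) t kD (-1) c0 (lam 0) ρ) :
    ∃ (l α : ℝ) (h' : ℕ → ℝ) (X : ℕ → Fin 12 → ℝ) (H : ℕ → ℝ)
      (lam2 : Fin 2 → (Fin 12 → ℝ) → ℝ) (ρ2 : Fin 8 → ℝ) (φ : Fin 9 → V9 → ℝ),
      KDat8 R s a b' (VisT B I fl sc) θ q g w0 sa sb v0 t k (fo ν own) lam ρ l α h' X H lam2 ρ2
        φ := by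
  have hS := sok_kD hθ hk hb
  have hvis : ∀ i, VisT B I fl sc i → i = 0 ∨ i = 1 ∨ i = 2 ∨ i = 7 ∨ i = 8 :=
    fun i hi => Fk647.vis_flag C.out i hi
  have hV1 : ¬ VisT B I fl sc 1 := not_not.2 hI
  obtain ⟨l, α, h', X, H, lam2, ρ2, hl, -, -, P⟩ := plane8 (Vis' := VisK (VisT B I fl sc)) O ht hS
    leg_kD hc0 hR (v := 0) (c := -1) (p := -2) le_rfl hV1 (fun i hi => by
      have e6 : kD 6 = -1 := by ev8; norm_num
      have e7 : kD 7 = 0 := by ev8; norm_num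
      have e0 : kD 0 = 0 := by ev8
      rcases hvis i hi with rfl | rfl | rfl | rfl | rfl
      · left
        refine ⟨⟨hi, by decide, by decide⟩, ?_⟩
        change kD 0 ≤ kD 0 * βL (θ 0) (θ 1) 0
        rw [e0, zero_mul]
      · exact absurd hi hV1
      · left
        refine ⟨⟨hi, by decide, by decide⟩, ?_⟩
        change kD 7 ≤ kD 0 * βL (θ 0) (θ 1) 2
        rw [e0, zero_mul, e7]
      · right
        change kD 6 < kD 0 * βL (θ 0) (θ 1) 7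
        rw [e0, zero_mul, e6]; norm_num
      · right
        change kD 6 < kD 0 * βL (θ 0) (θ 1) 8
        rw [e0, zero_mul, e6]; norm_num)
    (N := univ) (Eventually.of_forall fun _ => mem_univ _) one_pos
  obtain ⟨φ, hcl⟩ := P.cls ht hS (fun i hi => hvis i hi.1) (hc_kD hθ hk hb) h8_cK
    (hz_kD hθ hk hb)
  refine ⟨l, α, h', X, H, lam2, ρ2, φ, P, hcl, ?_, ?_, ?_, ?_, ?_, ?_⟩
  · refine pd8_fct P C hs0 hs1 ht.ne' (Kt710.flagZ_any C (fun n => Subset.rfl)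
      (θ 1 * (1 - v0) + 1)) hθ hv0 hv1 (by
        have := mul_pos hθ (by linarith : (0:ℝ) < 1 - v0)
        linarith) ?_
    intro w hw hSk i hi
    rcases hvis i hi.1 with rfl | rfl | rfl | rfl | rfl
    · change w 0 ≤ w 0 * βL (θ 0) (θ 1) 0
      have : βL (θ 0) (θ 1) 0 = 1 := rfl
      rw [this, mul_one]
    · exact absurd hi.1 hV1
    · change w 7 ≤ w 0 * βL (θ 0) (θ 1) 2
      have e2 : βL (θ 0) (θ 1) 2 = -(θ 1) - 2 * -(θ 0) := rfl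
      have e3 : βL (θ 0) (θ 1) 2 = k := by rw [e2, hb]; ring
      rw [e3, mul_comm]
      exact hSk
    · exact absurd rfl hi.2.1
    · exact absurd rfl hi.2.2
  · have h1 := P.half.rcd 1
    have h2 := O.rx.rcd 1
    have z8 : xt kp 0 (0 : K8 → ℝ) = 0 := xt_zero8
    show lam2 0 (xt kp 0 (RL8.vec (fun i : Fin 8 => nat9 1 (-(θ 0)) (-(θ 1)) i.castSucc))) = _
    rw [natcut]
    rw [one_smul] at h1
    change lam2 0 (xt kp 0 (RL8.vec (nat8 1 (-(θ 0)) (-(θ 1))))) =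
      lam 0 (xt kp 0 (RL8.vec (nat8 1 (-(θ 0)) (-(θ 1))))) - lam 0 (xt kp 0 0) at h1
    rw [z8, O.zero 0, sub_zero, RL8_nat] at h1
    rw [mul_one, mul_one] at h2
    rw [RL8_nat, h1]
    exact h2
  · show lam2 0 (xt kp 0 (RL8.vec (fun i : Fin 8 => nat9 0 (-1) (-2) i.castSucc))) ≤ _
    rw [natcut]
    exact P.half.row
  · exact P.half.eq 0 (by simp [nat8])
  · exact P.half.eq 1 (by simp [nat8]; exact hθ.ne')
  · exact posA_kD ht.ne' hc0 hθ hk hb hR O.rx.prf (O.zero 0) O.rx.dmax hM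

/-- the class data, `D` live -/
structure KDat9 (R s : ℝ) (a b' : Fin 2) (Vis : Fin 12 → Prop) (θ q : Fin 2 → ℝ)
    (g w0 sa sb v0 k : ℝ) (f : Fin 2 → (Fin 12 → ℝ) → ℝ) (lam : Fin 2 → (Fin 12 → ℝ) → ℝ)
    (ρ : Fin 9 → ℝ) (l α : ℝ) (h' : ℕ → ℝ) (X : ℕ → Fin 12 → ℝ) (H : ℕ → ℝ)
    (lam2 : Fin 2 → (Fin 12 → ℝ) → ℝ) (ρ2 : Fin 9 → ℝ) (φ : Fin 9 → V9 → ℝ) : Prop where
  pd : Pd9 R s a b' (VisK Vis) (θ 0) (θ 1) w0 sa sb v0 (DL g s (q 0) (q 1) 0 (-1) (-2)) kD9 (-1) f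
    lam ρ l α h' X H lam2 ρ2
  cl : Cl9 (cK9 k) (dl (nat9 1 (-(θ 0)) (-(θ 1))) kD9 (-1)) s (fun w => lam2 0 (RL9.vec w)) φ ρ2
  fct : Fct9 (fun w => w 7 ≤ k * w 0 ∧ w 8 ≤ (k - 1) * w 0) s (fun w => lam2 0 (RL9.vec w))
  T : (fun w : V9 => lam2 0 (RL9.vec w)) (nat9 1 (-(θ 0)) (-(θ 1))) =
    DL g s (q 0) (q 1) 1 (-(θ 0)) (-(θ 1))
  V : (fun w : V9 => lam2 0 (RL9.vec w)) (nat9 0 (-1) (-2)) ≤ DL g s (q 0) (q 1) 0 (-1) (-2)
  r0 : ρ2 0 = ρ 0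
  r1 : ρ2 1 = ρ 1
  pos : q 0 ≤ ρ 1

theorem kdat9
    (C : CtxT G L r g s θ q Rg B I lev A f b vm w fr fl sc w0 sa sb δ R I0 I' ν own c₀)
    (hs0 : 0 ≤ s) (hs1 : s ≤ 1) (hθ : 0 < θ 0) (hk : 1 < k) (hb : θ 1 = 2 * θ 0 - k)
    (hv0 : 0 < v0) (hv1 : v0 < 1) {Bs : T → Fin 9 → ℝ} {sgs : T → ℝ}
    (O : Out9 R s a b' (VisT B I fl sc) (θ 0) (θ 1) g (q 0) (q 1) Bs sgs
      (rL (θ 0) (θ 1) w0 sa sb v0) (fo ν own) x hh lam) (hc0 : 0 < c0)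
    (hM : (srf9 (θ 0) (θ 1) kD9 (-1)).LW (mw monL) c0 ⊆ PP (mw monL)) {ρ : Fin 9 → ℝ}
    (hR : Rates9 (θ 0) (θ 1) kD9 (-1) c0 (lam 0) ρ) :
    ∃ (l α : ℝ) (h' : ℕ → ℝ) (X : ℕ → Fin 12 → ℝ) (H : ℕ → ℝ)
      (lam2 : Fin 2 → (Fin 12 → ℝ) → ℝ) (ρ2 : Fin 9 → ℝ) (φ : Fin 9 → V9 → ℝ),
      KDat9 R s a b' (VisT B I fl sc) θ q g w0 sa sb v0 k (fo ν own) lam ρ l α h' X H lam2 ρ2
        φ := by
  have hS := sok_kD9 (θ := θ 0) hk hb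
  have hvis : ∀ i, VisT B I fl sc i → i = 0 ∨ i = 1 ∨ i = 2 ∨ i = 7 ∨ i = 8 :=
    fun i hi => Fk647.vis_flag C.out i hi
  obtain ⟨l, α, h', X, H, lam2, ρ2, hl, -, -, P⟩ := plane9 (Vis' := VisK (VisT B I fl sc)) O hS
    leg_kD9 hc0 hR (v := 0) (c := -1) (p := -2) le_rfl (fun i hi => by
      have e6 : kD9 6 = -1 := by ev9; norm_num
      have e7 : kD9 7 = 0 := by ev9; norm_num
      have e8 : kD9 8 = 0 := by ev9; norm_num
      have e0 : kD9 0 = 0 := by ev9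
      rcases hvis i hi with rfl | rfl | rfl | rfl | rfl
      · left
        refine ⟨⟨hi, by decide, by decide⟩, ?_⟩
        change kD9 0 ≤ kD9 0 * βL (θ 0) (θ 1) 0
        rw [e0, zero_mul]
      · left
        refine ⟨⟨hi, by decide, by decide⟩, ?_⟩
        change kD9 8 ≤ kD9 0 * βL (θ 0) (θ 1) 1
        rw [e0, zero_mul, e8]
      · left
        refine ⟨⟨hi, by decide, by decide⟩, ?_⟩
        change kD9 7 ≤ kD9 0 * βL (θ 0) (θ 1) 2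
        rw [e0, zero_mul, e7]
      · right
        change kD9 6 < kD9 0 * βL (θ 0) (θ 1) 7
        rw [e0, zero_mul, e6]; norm_num
      · right
        change kD9 6 < kD9 0 * βL (θ 0) (θ 1) 8
        rw [e0, zero_mul, e6]; norm_num)
    (N := univ) (Eventually.of_forall fun _ => mem_univ _) one_pos
  obtain ⟨φ, hcl⟩ := P.cls hS (fun i hi => hvis i hi.1) (hc_kD9 hθ hk hb)
    (hz_kD9 hθ hk hb) (hG_kD9 hθ hk hb)
  refine ⟨l, α, h', X, H, lam2, ρ2, φ, P, hcl, ?_, ?_, ?_, ?_, ?_, ?_⟩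
  · refine pd9_fct P C hs0 hs1 (Kt710.flagZ_any C (fun n => Subset.rfl)
      (θ 1 * (1 - v0) + 1)) hθ hv0 hv1 (by
        have := mul_pos hθ (by linarith : (0:ℝ) < 1 - v0)
        linarith) ?_
    intro w hw hSk i hi
    rcases hvis i hi.1 with rfl | rfl | rfl | rfl | rfl
    · change w 0 ≤ w 0 * βL (θ 0) (θ 1) 0
      have : βL (θ 0) (θ 1) 0 = 1 := rfl
      rw [this, mul_one]
    · change w 8 ≤ w 0 * βL (θ 0) (θ 1) 1
      have e2 : βL (θ 0) (θ 1) 1 = -(θ 1) - 2 * -(θ 0) - 1 := rfl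
      have e3 : βL (θ 0) (θ 1) 1 = k - 1 := by rw [e2, hb]; ring
      rw [e3, mul_comm]
      exact hSk.2
    · change w 7 ≤ w 0 * βL (θ 0) (θ 1) 2
      have e2 : βL (θ 0) (θ 1) 2 = -(θ 1) - 2 * -(θ 0) := rfl
      have e3 : βL (θ 0) (θ 1) 2 = k := by rw [e2, hb]; ring
      rw [e3, mul_comm]
      exact hSk.1
    · exact absurd rfl hi.2.1
    · exact absurd rfl hi.2.2
  · have h1 := P.half.rcd 1
    have h2 := O.rx.rcd 1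
    show lam2 0 (RL9.vec (nat9 1 (-(θ 0)) (-(θ 1)))) = _
    rw [one_smul] at h1
    rw [mul_one, mul_one] at h2
    rw [h1, O.zero 0, sub_zero, RL9_nat]
    exact h2
  · exact P.half.row
  · exact P.half.eq 0 (by simp [nat9])
  · exact P.half.eq 1 (by simp [nat9]; exact hθ.ne')
  · exact posA_kD9 hc0 hθ hk hb hR O.rx.prf (O.zero 0) O.rx.dmax hM

end ctx

end Crest.Agent.R116.Pk348
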