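import Crest.Agent.R116.Th5b_658
import Crest.Agent.R116.Fk1_647
import Crest.Agent.R116.D0T_794

/-!
# R116, ROW TIE, `1/2 ≤ s`: the `κ`-plane below the record, `1/2 < k' < 1`, `1 + k' ≤ 3 θ`
(helper658)

* `reg5`        : the region `(s, θ)`
* `PlugK η`     : 369's own-strip fact `FctK` at 363's plane `kD` (binder)
* **`cell5`**   : over the context
* **`fillH5`**  : the `Fill`, for every case `V` with `E` or `D` tied (`κ`-tie and double tie)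
-/

set_option autoImplicit false
set_option linter.unusedSectionVars false
set_option linter.unusedVariables false

open Set Filter Topology

namespace Crest.Agent.R116.Th658

open Crest.Agent.R138
open Crest.Agent.R138.Ex926 (Base U IsTan)
open Crest.Agent.R136
open Crest.Agent.R136.MkA627
open Crest.Agent.R136.TD627
open Crest.Agent.R136.Net191
open Crest.Agent.R136.Lq196
open Crest.Agent.R116.ChL222
open Crest.Agent.R116.PL504 (nb rL DN eL βL oL Shift)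
open Crest.Agent.R116.Sg337 (bx9 DL)
open Crest.Agent.R116.Gd222 (TSet sN PDL DT)
open Crest.Agent.R116.KI439
open Crest.Agent.R116.KF439 (PL)
open Crest.Agent.R116.KTop387
open Crest.Agent.R116.CtxB468
open Crest.Agent.R116.KTie794
open Crest.Agent.R116.Rcx363
open Crest.Agent.R116.RbM219
open Crest.Agent.R116.RbK219 (RS)
open Crest.Agent.R116.Kz647
open Crest.Agent.R116.Pd363
open Crest.Agent.R116.Tq741
open Crest.Agent.R116.Tq794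
open Crest.Agent.R116.Tp139
open Crest.Agent.R116.Pu171
open Crest.Agent.R116.Tie460
open Sl741 (slice xt rs)

/-- the region -/
def reg5 (s : ℝ) (θ : Fin 2 → ℝ) : Prop :=
  1 / 2 ≤ s ∧ 1 / 2 < 2 * θ 0 - θ 1 ∧ 2 * θ 0 - θ 1 < 1 ∧ 1 + (2 * θ 0 - θ 1) ≤ 3 * θ 0

/-- the region of 708's D0H contains `reg5` -/
theorem reg5_le {s : ℝ} {θ : Fin 2 → ℝ} (h : reg5 s θ) : 1 / 2 ≤ s ∧ -θ 0 < 2 * θ 0 - θ 1 - 1 ∧
    2 * θ 0 - θ 1 - 1 < 0 ∧ 3 + (2 * θ 0 - θ 1 - 1) ≤ 5 * θ 0 := by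
  obtain ⟨h1, h2, h3, h4⟩ := h
  refine ⟨h1, by linarith, by linarith, by linarith⟩

/-- **369's own-strip fact at the plane `kD`** (`E` tied, `D` invisible, `k' < 1`) -/
def PlugK (η : ℝ) : Prop :=
  ∀ {G : Geo TSet (Fin 2)} {L : ℕ → ℕ → LRay} {r : ℕ → ℝ} {g s : ℝ} {θ q : Fin 2 → ℝ}
    {Rg : ℝ} {B : Base} {I : ℕ → Finset (ℕ × ℝ)} {lev : ℕ → ℚ → ℕ} {A : ℕ → ℝ}
    {f : ℕ → ℚ → ℕ → ℤ → ℕ} {b : ℕ → ℚ → ℕ → TSet} {vm : ℕ → ℚ → ℝ} {w : Fin 2 → ℕ → ℚ → ℝ}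
    {fr : ℕ → ℚ → ℕ × ℝ → LInc} {fl : ℕ → ℕ × ℝ → LInc} {sc : Fin 12 → ℕ → ℝ}
    {w0 sa sb δ R : ℝ} {I0 I' : ℕ → Finset (ℕ × ℝ)} {ν own : (Fin 12 → ℝ) → ℝ} {c₀ : ℝ}
    {v0 t κ l α : ℝ} {a b' : Fin 2} {Vis' : Fin 12 → Prop} {X : ℕ → Fin 12 → ℝ}
    {h' H : ℕ → ℝ} {lam lam2 : Fin 2 → (Fin 12 → ℝ) → ℝ} {ρ ρ2 : Fin 8 → ℝ},
    CtxT G L r (g + 2 * s) s θ q Rg B I lev A f b vm w fr fl sc w0 sa sb δ R I0 I' ν own c₀ →
    NumL η g s θ q → w0 + (θ 1 + sb) < R → w0 + 1 + sb < R → θ 0 + |θ 1| + 1 ≤ Rg →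
    InvT PL B I 1 fl (sc 1) → TieT θ B I lev fl sc 2 → 2 * θ 0 - θ 1 < 1 →
    0 < v0 → v0 < 1 → 0 < t →
    Pd8 R s a b' Vis' (θ 0) (θ 1) w0 sa sb v0 t κ kD (-1) (fo ν own) lam ρ l α h' X H lam2 ρ2 →
    FctK (2 * θ 0 - θ 1) (fun w => lam2 0 (xt kp 0 (RL8.vec (fun i : Fin 8 => w i.castSucc))))

section ctx

variable {G : Geo TSet (Fin 2)} {L : ℕ → ℕ → LRay} {r : ℕ → ℝ} {g s : ℝ} {θ q : Fin 2 → ℝ}
    {Rg : ℝ} {B : Base} {I : ℕ → Finset (ℕ × ℝ)} {lev : ℕ → ℚ → ℕ} {A : ℕ → ℝ}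
    {f : ℕ → ℚ → ℕ → ℤ → ℕ} {b : ℕ → ℚ → ℕ → TSet} {vm : ℕ → ℚ → ℝ} {w : Fin 2 → ℕ → ℚ → ℝ}
    {fr : ℕ → ℚ → ℕ × ℝ → LInc} {fl : ℕ → ℕ × ℝ → LInc} {sc : Fin 12 → ℕ → ℝ}
    {w0 sa sb δ R : ℝ} {I0 I' : ℕ → Finset (ℕ × ℝ)} {ν own : (Fin 12 → ℝ) → ℝ} {c₀ : ℝ} {η : ℝ}

/-- **the cell over the context** -/
theorem cell5 (hW : PlugK η) (hη : η < 1)
    (C : CtxT G L r (g + 2 * s) s θ q Rg B I lev A f b vm w fr fl sc w0 sa sb δ R I0 I' ν own c₀)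
    (hN : NumL η g s θ q) (hR0 : w0 + (θ 1 + sb) < R) (hR1 : w0 + 1 + sb < R)
    (hRg : θ 0 + |θ 1| + 1 ≤ Rg) (hmic : Mic ν (θ 0) (θ 1) w0 sa sb)
    (hV1 : InvT PL B I 1 fl (sc 1)) (hT : TieT θ B I lev fl sc 2) (h5 : reg5 s θ) : False := by
  obtain ⟨hs, hk, hk1, hθ⟩ := h5
  have hθ0 := hN.θa
  have hk0 : 0 < 2 * θ 0 - θ 1 := by linarith
  have hb : θ 1 = 2 * θ 0 - (2 * θ 0 - θ 1) := by ring
  have hSok := sok_kD hθ0 hk0 hb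
  obtain ⟨v0, -, hv0, hv1, a, b', x, hh, lam, -, -, O⟩ := exists_out8 C hR0 hR1 hθ0 (by linarith)
    hmic hV1 (t := 1) one_pos (T := Unit) (Bs := fun _ => kD) (sg := fun _ => -1)
    (fun _ => hSok) (fun _ => leg_kD) (N := Set.univ) (Eventually.of_forall fun _ => trivial)
  obtain ⟨c0, hc0, -, -, ρ, hR⟩ := O.surf ()
  have e0 : kD 0 = 0 := rfl
  have hVis : ∀ k, VisT B I fl sc k → ((VisT B I fl sc k ∧ k ≠ 7 ∧ k ≠ 8) ∧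
      kD (cl8 k) ≤ kD 0 * βL (θ 0) (θ 1) k) ∨ kD (cl8 k) < kD 0 * βL (θ 0) (θ 1) k := by
    intro k hk'
    rcases Fk647.vis_flag C.out k hk' with rfl | rfl | rfl | rfl | rfl
    · refine Or.inl ⟨⟨hk', by decide, by decide⟩, ?_⟩
      change kD 0 ≤ kD 0 * _
      rw [e0, zero_mul]
    · exact absurd hV1 hk'
    · refine Or.inl ⟨⟨hk', by decide, by decide⟩, ?_⟩
      change kD 7 ≤ kD 0 * _
      rw [e0, zero_mul]
      ev8; norm_num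
    · refine Or.inr ?_
      change kD 6 < kD 0 * _
      rw [e0, zero_mul]
      ev8; norm_num
    · refine Or.inr ?_
      change kD 6 < kD 0 * _
      rw [e0, zero_mul]
      ev8; norm_num
  obtain ⟨l, α, h', X, H, lam2, ρ2, -, -, -, P⟩ :=
    plane8 (Vis' := fun k => VisT B I fl sc k ∧ k ≠ 7 ∧ k ≠ 8) (v := 0) (c := -1) (p := -2) O
      one_pos hSok leg_kD hc0 hR le_rfl (not_not.2 hV1) hVis (N := Set.univ)
      (Eventually.of_forall fun _ => trivial) (y := 1) one_pos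
  have hc : ∀ i j : Fin 8, Tk538.cK i.castSucc = Tk538.cK j.castSucc ↔
      RbK219.Par (nat8 1 (-(θ 0)) (-(θ 1))) kD i j := fun i j => by
    rw [← cK_eq hk hk1]
    exact Tq126.hc_kD hθ0 hk0 hb i j
  obtain ⟨φ, Hc⟩ := P.cls one_pos hSok
    (fun k hk' => Fk647.vis_flag C.out k hk'.1) hc (by decide) (Tq126.hz_kD hθ0 hk0 hb)
  have hSk : ∀ w : V9, LegM 0 w → w 7 < (2 * θ 0 - θ 1) * w 0 →
      ∀ k, (VisT B I fl sc k ∧ k ≠ 7 ∧ k ≠ 8) → E8 w k ≤ w 0 * βL (θ 0) (θ 1) k := by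
    intro w hw hw7 k hk'
    rcases Fk647.vis_flag C.out k hk'.1 with rfl | rfl | rfl | rfl | rfl
    · have e1 : βL (θ 0) (θ 1) 0 = 1 := rfl
      rw [e1, mul_one]; exact le_rfl
    · exact absurd hV1 hk'.1
    · have e2 : βL (θ 0) (θ 1) 2 = -(θ 1) - 2 * -(θ 0) := rfl
      change w 7 ≤ w 0 * _
      rw [e2]
      nlinarith
    · exact absurd rfl hk'.2.1
    · exact absurd rfl hk'.2.2
  have FP := pd8_fctP (Sk := fun w => w 7 < (2 * θ 0 - θ 1) * w 0) (v := 0) (c := -1) (p := -2)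
    P C hN.s1 one_ne_zero hSk
  have FK := hW C hN hR0 hR1 hRg hV1 hT hk1 hv0 hv1 one_pos P
  have hrec : lam 0 (xt kp 0 (RL8.vec (nat8 1 (-(θ 0)) (-(θ 1))))) =
      DL (g + 2 * s) s (q 0) (q 1) 1 (-(θ 0)) (-(θ 1)) := by
    have h1 := O.rx.rcd 1
    rw [RL8_nat]
    simpa only [mul_one, ntD] using h1
  obtain ⟨tan, ver⟩ := tanver_A P.half (O.zero 0) hrec hθ0 hk hk1 hb
  exact kD_false (num_of hη hN) hs hk hk1 (by linarith) Hc FP FK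
    (κ1 := 1) (κ2 := 2 * θ 0 - θ 1) (κ3 := 1) (fun w _ h7 _ => h7) one_pos hk0 one_pos tan ver

end ctx

/-- **THE FILL** : `κ`-tie and double tie, `1/2 ≤ s`, `1/2 < k' < 1`, `1 + k' ≤ 3 θ` -/
theorem fillH5 {η : ℝ} (hη : η < 1) (hD0 : D0T η reg5) (hW : PlugK η)
    {V : (Fin 2 → ℝ) → Base → (ℕ → Finset (ℕ × ℝ)) → (ℕ → ℚ → ℕ) → (ℕ → ℕ × ℝ → LInc) →
      (Fin 12 → ℕ → ℝ) → Prop}
    (hV : ∀ θ B I lev fl sc, V θ B I lev fl sc → VisE θ B I lev fl sc) :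
    Fill η V fun g s θ q => 1 / 2 ≤ s → 1 / 2 < 2 * θ 0 - θ 1 → 2 * θ 0 - θ 1 < 1 →
      1 + (2 * θ 0 - θ 1) ≤ 3 * θ 0 → False := by
  intro g s θ q hN
  refine ⟨θ 0 + |θ 1| + 1, fun Rg hRg => ?_⟩
  intro G L r B I lev A f b vm w fr fl sc w0 sa sb δ R I0 I' ν own c₀ C hV' hs hk hk1 hθ
  obtain ⟨w0, sa, sb, δ, R, I0, I', ν, own, c₀, C, hR0, hR1⟩ := strict_ctx C
  have hV1 : InvT PL B I 1 fl (sc 1) := C.out.invD (by linarith)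
  have hT : TieT θ B I lev fl sc 2 := by
    rcases hV _ _ _ _ _ _ hV' with h | h
    · exact h
    · exact absurd hV1 h.1
  have h5 : reg5 s θ := ⟨hs, hk, hk1, hθ⟩
  have hmic := hD0 C hN h5 hR0 hR1 hRg hV1 (fun _ => by linarith [hN.θa]) (fun _ => hk1)
  exact cell5 hW hη C hN hR0 hR1 hRg hmic hV1 hT h5

/-- `κ`-tie -/
theorem fillH5_k {η : ℝ} (hη : η < 1) (hD0 : D0T η reg5) (hW : PlugK η) :
    Fill η (fun θ B I lev fl sc => InvB B I fl sc ∧ VisE θ B I lev fl sc)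
      fun g s θ q => 1 / 2 ≤ s → 1 / 2 < 2 * θ 0 - θ 1 → 2 * θ 0 - θ 1 < 1 →
        1 + (2 * θ 0 - θ 1) ≤ 3 * θ 0 → False :=
  fillH5 hη hD0 hW fun _ _ _ _ _ _ h => h.2

/-- double tie -/
theorem fillH5_d {η : ℝ} (hη : η < 1) (hD0 : D0T η reg5) (hW : PlugK η) :
    Fill η (fun θ B I lev fl sc => VisB θ B I lev fl sc ∧ VisE θ B I lev fl sc)
      fun g s θ q => 1 / 2 ≤ s → 1 / 2 < 2 * θ 0 - θ 1 → 2 * θ 0 - θ 1 < 1 →
        1 + (2 * θ 0 - θ 1) ≤ 3 * θ 0 → False :=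
  fillH5 hη hD0 hW fun _ _ _ _ _ _ h => h.2

end Crest.Agent.R116.Th658
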