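import Crest.Agent.R116.Tp6_139
import Crest.Agent.R116.IIr3_460
import Crest.Agent.R116.Pu3_171

/-!
# R116 (K side, ties), the planes above the record: `EF'` (helper139)

* `rE0, xE0, hE0` : signs
* `pt_K1x` : position of (K1) at `k = 1` (`X`-path, `C_b` coarse)
* **`efU`**, **`fanAU`**, **`fanBU`**, **`posU`**, **`p1U`**, **`p2U`**
-/

set_option autoImplicit false
set_option linter.unusedVariables false
set_option linter.unusedSimpArgs false
set_option linter.unusedSectionVars false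

open Set Filter Topology Metric MeasureTheory
open scoped NNReal

namespace Crest.Agent.R116.Tp139

open Crest.Agent.R116.Tq741
open Crest.Agent.R116.Pu171 (FctP)
open Tie460

variable {c : Fin 9 → Fin 9} {dl : V9} {s : ℝ} {Λ : V9 → ℝ} {φ : Fin 9 → V9 → ℝ} {ρ : V9}
  {k k' k'' : ℝ} {Sk Sg : V9 → Prop}

/-! ### signs -/

/-- box nine -/
theorem leg_box {w : V9} (h : ∀ i, 9 ≤ w i ∧ w i ≤ 12) : LegM 1 w := by
  have b0 := h 0
  have b1 := h 1
  have b2 := h 2
  have b3 := h 3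
  have b4 := h 4
  have b5 := h 5
  have b6 := h 6
  have b7 := h 7
  have b8 := h 8
  constructor <;> linarith [b0.1, b0.2, b1.1, b1.2, b2.1, b2.2, b3.1, b3.2, b4.1, b4.2, b5.1,
    b5.2, b6.1, b6.2, b7.1, b7.2, b8.1, b8.2]

/-- the two slots of a path: base -/
def wbS (x3 : ℝ) : V9 := ![0, 50, 0, x3, -100, 0, 0, 0, 50]

theorem leg_wbS {x3 y : ℝ} (h0 : 0 ≤ x3) (h1 : x3 ≤ 1) (hy0 : 0 ≤ y) (hy : y ≤ 1) {t : Fin 9}
    (ht : t = 2 ∨ t = 3) : LegM 0 (wbS x3) ∧ LegM 0 (wbS x3 + y • e9 t) := by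
  obtain ⟨t0, t1, t2, t3, t4, t5, t6, t7, t8⟩ := v9_val 0 50 0 x3 (-100) 0 0 0 50
  change wbS x3 0 = _ at t0; change wbS x3 1 = _ at t1; change wbS x3 2 = _ at t2
  change wbS x3 3 = _ at t3; change wbS x3 4 = _ at t4; change wbS x3 5 = _ at t5
  change wbS x3 6 = _ at t6; change wbS x3 7 = _ at t7; change wbS x3 8 = _ at t8
  have e : ∀ i : Fin 9, wbS x3 i ≤ (wbS x3 + y • e9 t) i ∧
      (wbS x3 + y • e9 t) i ≤ wbS x3 i + 1 ∧ (i ≠ t → (wbS x3 + y • e9 t) i = wbS x3 i) := by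
    intro i
    by_cases hi : i = t
    · subst hi
      rw [add_e9_same]
      exact ⟨by linarith, by linarith, fun h => absurd rfl h⟩
    · rw [add_e9_ne hi]
      exact ⟨le_rfl, by linarith, fun _ => rfl⟩
  have n0 := (e 0).2.2 (by rcases ht with rfl | rfl <;> decide)
  have n1 := (e 1).2.2 (by rcases ht with rfl | rfl <;> decide)
  have n4 := (e 4).2.2 (by rcases ht with rfl | rfl <;> decide)
  have n5 := (e 5).2.2 (by rcases ht with rfl | rfl <;> decide)
  have n6 := (e 6).2.2 (by rcases ht with rfl | rfl <;> decide)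
  have n7 := (e 7).2.2 (by rcases ht with rfl | rfl <;> decide)
  have n8 := (e 8).2.2 (by rcases ht with rfl | rfl <;> decide)
  have e2 := e 2
  have e3 := e 3
  rw [t2] at e2
  rw [t3] at e3
  rw [t0] at n0; rw [t1] at n1; rw [t4] at n4; rw [t5] at n5; rw [t6] at n6; rw [t7] at n7
  rw [t8] at n8
  constructor
  · constructor <;> simp only [t0, t1, t2, t3, t4, t5, t6, t7, t8] <;> linarith
  · constructor <;> simp only [n0, n1, n4, n5, n6, n7, n8] <;>
      linarith [e2.1, e2.2.1, e3.1, e3.2.1]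

section sg

variable (H : Cl9 c dl s Λ φ ρ) (P : PlU k c dl)
include H P

theorem rE_nonneg : 0 ≤ rE c φ := by
  by_cases h1 : k = 1
  · obtain ⟨hc3, hc, -⟩ := P.c3 h1
    obtain ⟨-, -, t2, t3, -⟩ := v9_val 0 50 0 1 (-100) 0 0 0 50
    change wbS 1 2 = _ at t2; change wbS 1 3 = _ at t3
    obtain ⟨l0, l1⟩ := leg_wbS zero_le_one le_rfl zero_le_one le_rfl (Or.inl rfl)
    have e : rE c φ = φ (c 2) (wbS 1) - φ (c 2) (wbS 1 + (1:ℝ) • e9 2) := by
      unfold rE
      rw [H.loc (c 2) (e9 3) (wbS 1) fun t ht => by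
          rcases hc t ht with rfl | rfl
          · rw [t2, e9_ne (by decide)]
          · rw [t3, e9_same],
        H.loc (c 2) (e9 3 + (1:ℝ) • e9 2) (wbS 1 + (1:ℝ) • e9 2) fun t ht => by
          rcases hc t ht with rfl | rfl
          · rw [add_e9_same, add_e9_same, t2, e9_ne (by decide)]
          · rw [add_e9_ne (by decide), add_e9_ne (by decide), t3, e9_same]]
    rw [e]
    exact H.incr_nonneg l0 l1 (c 2) (fun i hi => add_e9_ne (fun h => hi (by rw [h])))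
      (le_add_e9 zero_le_one)
  · by_cases h2 : k = 1 / 2
    · obtain ⟨-, -, t2, -, -, t5, -⟩ := v9_val 0 50 0 20 (-100) 0 0 0 50
      change wbW 2 = _ at t2; change wbW 5 = _ at t5
      rw [rE_half H P h2 t2 t5]
      exact H.incr_nonneg (leg_wbW.1.mono zero_le_one) (leg_wbW.2.mono zero_le_one) (c 2)
        (fun i hi => add_e9_ne (fun h => hi (by rw [h]))) (le_add_e9 zero_le_one)
    · rw [rE_al H (P.a2 h1 h2)]
      exact Cl9.nonneg H (P.a2 h1 h2)

theorem xE_nonneg : 0 ≤ xE c φ := by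
  by_cases h1 : k = 1
  · obtain ⟨hc3, hc, -⟩ := P.c3 h1
    obtain ⟨-, -, t2, t3, -⟩ := v9_val 0 50 0 0 (-100) 0 0 0 50
    change wbS 0 2 = _ at t2; change wbS 0 3 = _ at t3
    obtain ⟨l0, l1⟩ := leg_wbS le_rfl zero_le_one zero_le_one le_rfl (Or.inr rfl)
    have e : xE c φ = 1 - (φ (c 3) (wbS 0) - φ (c 3) (wbS 0 + (1:ℝ) • e9 3)) := by
      unfold xE
      rw [H.loc (c 3) 0 (wbS 0) fun t ht => by
          rcases hc t (ht.trans hc3) with rfl | rfl
          · rw [t2]; rfl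
          · rw [t3]; rfl,
        H.loc (c 3) (0 + (1:ℝ) • e9 3) (wbS 0 + (1:ℝ) • e9 3) fun t ht => by
          rcases hc t (ht.trans hc3) with rfl | rfl
          · rw [add_e9_ne (by decide), add_e9_ne (by decide), t2]; rfl
          · rw [add_e9_same, add_e9_same, t3]; rfl]
    rw [e]
    have := H.incr_cost (t := 3) zero_le_one l0 l1
    have e3 : cst 3 = 1 := rfl
    rw [e3] at this
    linarith
  · rw [xE_al H (P.a3 h1)]
    have := Cl9.le_cst H (P.a3 h1)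
    have e3 : cst 3 = 1 := rfl
    rw [e3] at this
    linarith

theorem hE_nonneg : 0 ≤ hE c φ := by
  by_cases h2 : k = 1 / 2
  · obtain ⟨-, -, t2, -, -, t5, -⟩ := v9_val 0 30 1 (-20) (-100) 0 0 0 50
    change wbH 2 = _ at t2; change wbH 5 = _ at t5
    rw [hE_half H P h2 t2 t5]
    have := H.incr_cost (t := 5) zero_le_two (leg_wbH.1.mono zero_le_one)
      (leg_wbH.2.mono zero_le_one)
    have e3 : cst 5 = 1 := rfl
    rw [e3] at this
    linarith
  · rw [hE_al H (P.a5 h2)]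
    have := Cl9.le_cst H (P.a5 h2)
    have e3 : cst 5 = 1 := rfl
    rw [e3] at this
    linarith

/-- **all numbers are nonnegative** -/
theorem posU : (plS s (ρ 0) (ρ 1) (rE c φ) (1 - xE c φ) (ρ 4) (1 - hE c φ)).Pos where
  x0 := by
    have := xE_nonneg H P
    change 0 ≤ 1 - (1 - xE c φ); linarith
  n0 := by
    have := Cl9.le_cst H P.a4
    have e : cst 4 = 1 := rfl
    rw [e] at this
    change 0 ≤ 1 - ρ 4; linarith
  h0 := by
    have := hE_nonneg H P
    change 0 ≤ 1 - (1 - hE c φ); linarith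
  m0 := Cl9.nonneg H P.a1
  r0 := rE_nonneg H P
  e0 := by
    have := H.own
    change 0 ≤ ρ 0 - (1 - s); linarith
  w0 := le_rfl
  u0 := le_rfl
  d0 := le_rfl

end sg

/-! ### `k = 1` : the `X`-path, `C_b` coarse -/

/-- base -/
noncomputable def wbX (δ L : ℝ) : V9 := ![0, L, 0, δ, -100, δ, -(δ / 2), -(δ / 4), -(δ / 8)]

theorem leg_wbX {δ L y : ℝ} (hδ : 0 < δ) (hδ1 : δ ≤ 1) (hL : 100 ≤ L) (hy0 : 0 ≤ y)
    (hy : y ≤ L - 100) : LegM (δ / 8) (wbX δ L) ∧ LegM (δ / 8) (wbX δ L + y • e9 3) := by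
  obtain ⟨t0, t1, t2, t3, t4, t5, t6, t7, t8⟩ :=
    v9_val 0 L 0 δ (-100) δ (-(δ / 2)) (-(δ / 4)) (-(δ / 8))
  change wbX δ L 0 = _ at t0; change wbX δ L 1 = _ at t1; change wbX δ L 2 = _ at t2
  change wbX δ L 3 = _ at t3; change wbX δ L 4 = _ at t4; change wbX δ L 5 = _ at t5
  change wbX δ L 6 = _ at t6; change wbX δ L 7 = _ at t7; change wbX δ L 8 = _ at t8
  have e : ∀ i : Fin 9, i ≠ 3 → (wbX δ L + y • e9 3) i = wbX δ L i := fun i hi => add_e9_ne hi
  have e3 : (wbX δ L + y • e9 3) 3 = δ + y := by rw [add_e9_same, t3]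
  have e0 := e 0 (by decide)
  have e1 := e 1 (by decide)
  have e2 := e 2 (by decide)
  have e4 := e 4 (by decide)
  have e5 := e 5 (by decide)
  have e6 := e 6 (by decide)
  have e7 := e 7 (by decide)
  have e8 := e 8 (by decide)
  constructor
  · constructor <;> simp only [t0, t1, t2, t3, t4, t5, t6, t7, t8] <;> linarith
  · constructor <;> simp only [e0, e1, e2, e3, e4, e5, e6, e7, e8, t0, t1, t2, t3, t4, t5, t6,
      t7, t8] <;> linarith

set_option maxHeartbeats 4000000 in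
/-- a position of (K1) with a small rate of `X` -/
theorem pt_K1x (H : Cl9 c dl s Λ φ ρ) (P : PlU k c dl) (hk : k = 1) (hS : SkU k k' k'' Sk)
    (hk' : 0 < k') (hk'' : 0 < k'') (h3' : k' ≤ 3) (h3'' : k'' ≤ 3) {y q : ℝ} (hy : 0 < y)
    (hq : φ (c 3) 0 - φ (c 3) (y • e9 3) < q * y) :
    ∃ w R, One 1 w ∧ Sk w ∧ LinS ∅ Λ w R ∧ R 3 < q ∧ R 1 = ρ 1 := by
  obtain ⟨hc3, hc, -⟩ := P.c3 hk
  set I : ℝ := φ (c 3) 0 - φ (c 3) (y • e9 3) with hI
  -- a legal base to compare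
  set L : ℝ := 200 + y with hL
  have hI0 : 0 ≤ I := by
    obtain ⟨l0, l1⟩ := leg_wbX (δ := 1) (L := L) (y := y) one_pos le_rfl (by linarith) hy.le
      (by linarith)
    -- the two points `0`, `y` in a legal box
    have l2 : LegM 0 (![0, L, 0, 0, -100, 0, -1, 0, 1] : V9) ∧
        LegM 0 ((![0, L, 0, 0, -100, 0, -1, 0, 1] : V9) + y • e9 3) := by
      obtain ⟨t0, t1, t2, t3, t4, t5, t6, t7, t8⟩ := v9_val 0 L 0 0 (-100) 0 (-1) 0 1
      have e : ∀ i : Fin 9, i ≠ 3 → ((![0, L, 0, 0, -100, 0, -1, 0, 1] : V9) + y • e9 3) i =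
        (![0, L, 0, 0, -100, 0, -1, 0, 1] : V9) i := fun i hi => add_e9_ne hi
      have e3 : ((![0, L, 0, 0, -100, 0, -1, 0, 1] : V9) + y • e9 3) 3 = y := by
        rw [add_e9_same, t3]; ring
      have e0 := e 0 (by decide)
      have e1 := e 1 (by decide)
      have e2 := e 2 (by decide)
      have e4 := e 4 (by decide)
      have e5 := e 5 (by decide)
      have e6 := e 6 (by decide)
      have e7 := e 7 (by decide)
      have e8 := e 8 (by decide)
      constructor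
      · constructor <;> simp only [t0, t1, t2, t3, t4, t5, t6, t7, t8] <;> linarith
      · constructor <;> simp only [e0, e1, e2, e3, e4, e5, e6, e7, e8, t0, t1, t2, t3, t4, t5,
          t6, t7, t8] <;> linarith
    have h1 := H.incr_nonneg l2.1 l2.2 (c 3) (fun i hi => add_e9_ne (fun h => hi (by rw [h])))
      (le_add_e9 hy.le)
    rwa [H.loc (c 3) (![0, L, 0, 0, -100, 0, -1, 0, 1] : V9) 0 fun t ht => by
        rcases hc t (ht.trans hc3) with rfl | rfl <;> rfl,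
      H.loc (c 3) ((![0, L, 0, 0, -100, 0, -1, 0, 1] : V9) + y • e9 3) (y • e9 3) fun t ht => by
        rcases hc t (ht.trans hc3) with rfl | rfl
        · rw [add_e9_ne (by decide)]; simp [e9]
        · rw [add_e9_same]; simp [e9]] at h1
  have hq0 : 0 < q := by
    by_contra h
    push Not at h
    nlinarith
  obtain ⟨δ, hδ, hδ1, hδy, hδI⟩ : ∃ δ : ℝ, 0 < δ ∧ δ ≤ 1 ∧ δ < y ∧ I < q * (y - δ) := by
    refine ⟨min 1 (min (y / 2) ((q * y - I) / (2 * q))), ?_, min_le_left _ _, ?_, ?_⟩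
    · exact lt_min one_pos (lt_min (by linarith) (div_pos (by linarith) (by linarith)))
    · have := (min_le_right 1 (min (y / 2) ((q * y - I) / (2 * q)))).trans (min_le_left _ _)
      linarith
    · have h3 := (min_le_right 1 (min (y / 2) ((q * y - I) / (2 * q)))).trans (min_le_right _ _)
      rw [le_div_iff₀ (by linarith)] at h3
      nlinarith
  obtain ⟨t0, t1, t2, t3, t4, t5, t6, t7, t8⟩ :=
    v9_val 0 L 0 δ (-100) δ (-(δ / 2)) (-(δ / 4)) (-(δ / 8))
  change wbX δ L 0 = _ at t0; change wbX δ L 1 = _ at t1; change wbX δ L 2 = _ at t2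
  change wbX δ L 3 = _ at t3; change wbX δ L 4 = _ at t4; change wbX δ L 5 = _ at t5
  change wbX δ L 6 = _ at t6; change wbX δ L 7 = _ at t7; change wbX δ L 8 = _ at t8
  have hyδ : 0 < y - δ := by linarith
  obtain ⟨l0, l1⟩ := leg_wbX (δ := δ) (L := L) (y := y - δ) hδ hδ1 (by linarith) hyδ.le
    (by linarith)
  have hI2 : φ (c 3) (wbX δ L) - φ (c 3) (wbX δ L + (y - δ) • e9 3) < q * (y - δ) := by
    refine lt_of_le_of_lt ?_ hδI
    have e2 : φ (c 3) (wbX δ L + (y - δ) • e9 3) = φ (c 3) (y • e9 3) :=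
      H.loc _ _ _ fun t ht => by
        rcases hc t (ht.trans hc3) with rfl | rfl
        · rw [add_e9_ne (by decide), t2]; simp [e9]
        · rw [add_e9_same, t3]; simp [e9]
    have h5 : φ (c 3) (wbX δ L) ≤ φ (c 3) 0 := by
      set w1 : V9 := ![0, L, 0, 0, -100, 1, -1, 0, 1] with hw1
      obtain ⟨s0, s1, s2, s3, s4, s5, s6, s7, s8⟩ := v9_val 0 L 0 0 (-100) 1 (-1) 0 1
      rw [← hw1] at s0 s1 s2 s3 s4 s5 s6 s7 s8
      have e : ∀ i : Fin 9, i ≠ 3 → (w1 + δ • e9 3) i = w1 i := fun i hi => add_e9_ne hi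
      have e3 : (w1 + δ • e9 3) 3 = δ := by rw [add_e9_same, s3]; ring
      have e0 := e 0 (by decide)
      have e1 := e 1 (by decide)
      have e2 := e 2 (by decide)
      have e4 := e 4 (by decide)
      have e5 := e 5 (by decide)
      have e6 := e 6 (by decide)
      have e7 := e 7 (by decide)
      have e8 := e 8 (by decide)
      have g1 : LegM 0 w1 := by
        constructor <;> simp only [s0, s1, s2, s3, s4, s5, s6, s7, s8] <;> linarith
      have g2 : LegM 0 (w1 + δ • e9 3) := by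
        constructor <;> simp only [e0, e1, e2, e3, e4, e5, e6, e7, e8, s0, s1, s2, s3, s4, s5,
          s6, s7, s8] <;> linarith
      have h1 := H.incr_nonneg g1 g2 (c 3) (fun i hi => add_e9_ne (fun h => hi (by rw [h])))
        (le_add_e9 hδ.le)
      rw [H.loc (c 3) w1 0 fun t ht => by
          rcases hc t (ht.trans hc3) with rfl | rfl
          · rw [s2]; rfl
          · rw [s3]; rfl,
        H.loc (c 3) (w1 + δ • e9 3) (wbX δ L) fun t ht => by
          rcases hc t (ht.trans hc3) with rfl | rfl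
          · rw [e2, s2, t2]
          · rw [e3, t3]] at h1
      linarith
    rw [e2]; linarith
  obtain ⟨x, hx, w, hwN, hw, -, R, hR, hqR⟩ := H.pos_lt (t := 3) (w0 := wbX δ L) (y := y - δ)
    (q := q) (η := δ / 100) hyδ (by positivity) (l0.mono (by linarith)) (l1.mono (by linarith))
    hI2 H.nG
  have hg := gen_of hwN (l0.seg l1 hx.1.le hx.2.le) (by linarith) hw
  have b0 := (nearp hw 0).1 (by decide)
  have b2 := (nearp hw 2).1 (by decide)
  have b3 := (nearp hw 3).2 rfl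
  have b4 := (nearp hw 4).1 (by decide)
  have b5 := (nearp hw 5).1 (by decide)
  have b6 := (nearp hw 6).1 (by decide)
  have b7 := (nearp hw 7).1 (by decide)
  have b8 := (nearp hw 8).1 (by decide)
  rw [t0] at b0; rw [t2] at b2; rw [t3] at b3; rw [t4] at b4; rw [t5] at b5; rw [t6] at b6
  rw [t7] at b7; rw [t8] at b8
  have hx1 := hx.1
  have hx2 := hx.2
  obtain ⟨R', h1, h2, h3⟩ := rts_adj H (w := w) (w' := Function.update w 1 (w 3 - w 0))
    (Zc := fun _ => False) (fun k _ _ => hg k) (fun i _ hi =>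
      Function.update_of_ne (fun h => hi (by rw [h]; exact P.a1)) _ _)
  set w' := Function.update w 1 (w 3 - w 0) with hw'
  have u1 : w' 1 = w 3 - w 0 := Function.update_self _ _ _
  have u0 : w' 0 = w 0 := Function.update_of_ne (by decide) _ _
  have u2 : w' 2 = w 2 := Function.update_of_ne (by decide) _ _
  have u3 : w' 3 = w 3 := Function.update_of_ne (by decide) _ _
  have u4 : w' 4 = w 4 := Function.update_of_ne (by decide) _ _
  have u5 : w' 5 = w 5 := Function.update_of_ne (by decide) _ _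
  have u6 : w' 6 = w 6 := Function.update_of_ne (by decide) _ _
  have u7 : w' 7 = w 7 := Function.update_of_ne (by decide) _ _
  have u8 : w' 8 = w 8 := Function.update_of_ne (by decide) _ _
  have hO : One 1 w' := by
    refine one_iff (show w' 0 + w' 1 - w' 3 = 0 by rw [u0, u1, u3]; ring) ?_ ?_ ?_ ?_ ?_ ?_
      ?_ ?_ ?_ ?_ <;> intro hj <;> first
      | exact absurd rfl hj
      | (simp only [u0, u1, u2, u3, u4, u5, u6, u7, u8]
         linarith [b0.1, b0.2, b2.1, b2.2, b3.1, b3.2, b4.1, b4.2, b5.1, b5.2, b6.1, b6.2, b7.1,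
           b7.2, b8.1, b8.2])
  have hkw : ∀ κ : ℝ, 0 < κ → κ ≤ 3 → -(3 * (δ / 100)) ≤ κ * w 0 := by
    intro κ h5 h6
    have h7 : 0 ≤ w 0 + δ / 100 := by linarith [b0.1]
    nlinarith [mul_nonneg h5.le h7, mul_nonneg (sub_nonneg.2 h6) hδ.le]
  have hSw : Sk w' := by
    refine hS w' ?_ ?_ ?_
    · rw [u6, u0, hk, one_mul]; linarith [b6.2, b0.1]
    · rw [u7, u0]; linarith [b7.2, hkw k' hk' h3']
    · rw [u8, u0]; linarith [b8.2, hkw k'' hk'' h3'']
  have n3 : ¬ Al c 3 := fun h => absurd (h 2 hc3.symm) (by decide)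
  refine ⟨w', R', hO, hSw, H.lin0 (One.leg hO) h1, ?_, h2 1 P.a1 not_false⟩
  rw [h3 (c 3) R not_false hR 3 rfl n3]
  exact hqR

/-! ### the fields -/

/-- the regions of the positions: `k' k''` = own slopes of `G`, `D` (any positive number where
they are invisible) -/
structure RgU (k k' k'' : ℝ) (Sk Sg : V9 → Prop) : Prop where
  k0 : 0 < k
  k1 : 0 < k'
  k2 : 0 < k''
  sk : SkU k k' k'' Sk
  sg : SgU k' k'' Sg
  h12 : k = 1 / 2 → k' < 1 ∧ (∀ w : V9, w 6 < 1 / 2 * w 0 → w 7 < k' * w 0 → Sk w) ∧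
    ∀ w : V9, w 7 < k' * w 0 → Sg w
  h11 : k = 1 → k' ≤ 3 ∧ k'' ≤ 3

/-- (K3) at `k = 1`, 160's literal -/
def K3U (c : Fin 9 → Fin 9) (s : ℝ) (φ : Fin 9 → V9 → ℝ) (ρ : V9) : Prop :=
  0 < ρ 1 → (∀ y : ℝ, 0 ≤ y → (1 - s) * y ≤ φ (c 3) 0 - φ (c 3) (y • e9 3)) → 1 - s ≤ ρ 4

section fields

variable (H : Cl9 c dl s Λ φ ρ) (P : PlU k c dl) (G : RgU k k' k'' Sk Sg)
include H P G

theorem mrU (h8 : c 8 = c 0 ∨ Al c 8) (h7 : c 7 = c 0 ∨ Al c 7) (h6 : c 6 = c 0 ∨ Al c 6)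
    (FU : FctU k Sg Λ) (hk : k ≠ 1) : ρ 1 ≤ rE c φ := by
  by_cases h2 : k = 1 / 2
  · exact mr_half H P h8 h7 h6 h2 FU (G.h12 h2).2.2
  · rw [rE_al H (P.a2 hk h2)]
    exact mr_al H P h8 h7 h6 FU G.sg (P.a2 hk h2)

variable (F : Fct9 Sk s Λ)
include F

theorem kxU (hk : k ≠ 1) (hm : 0 < ρ 1) : xE c φ ≤ s := by
  rw [xE_al H (P.a3 hk)]
  have := kx_of H F G.sk G.k0 G.k1 G.k2 P.a1 (P.a3 hk) hm
  linarith

theorem fxU (hk : k ≠ 1) (hm : s < ρ 1) : xE c φ = 0 := by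
  refine le_antisymm ?_ (xE_nonneg H P)
  rw [xE_al H (P.a3 hk)]
  have := fx_of H F G.sk G.k0 G.k1 G.k2 P.a1 (P.a3 hk) hm
  linarith

theorem hxU (hk : k ≠ 1) (hm : 0 < ρ 1) : hE c φ ≤ xE c φ := by
  rw [xE_al H (P.a3 hk)]
  by_cases h2 : k = 1 / 2
  · by_contra hcon
    push Not at hcon
    obtain ⟨w, R, a1, a2, a3, a4, a5⟩ := pt_H1h H P h2 (q := ρ 3) (by linarith)
    have := F.H1 w R a1 a2 (by rw [a4]; exact hm)
    rw [a5] at this
    linarith
  · rw [hE_al H (P.a5 h2)]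
    have := hx_of H F P.a1 (P.a3 hk) (P.a5 h2) hm
    linarith

theorem knU (hk : k ≠ 1) (hr : 0 < rE c φ) : 1 - s ≤ ρ 4 := by
  by_cases h2 : k = 1 / 2
  · obtain ⟨h3, h4, -⟩ := G.h12 h2
    obtain ⟨w, R, a1, a2, a3, a4, a5⟩ := pt_K2h H P h2 G.k1 h3 h4 hr
    have := F.K2 w R a1 a2 a3 a4
    rwa [a5] at this
  · have h3 := P.a2 hk h2
    exact kn_of H F G.sk G.k0 G.k1 G.k2 h3 P.a4 (by rwa [← rE_al H h3])

theorem fnU (hk : k ≠ 1) (hr : s < rE c φ) : 1 ≤ ρ 4 := by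
  by_cases h2 : k = 1 / 2
  · obtain ⟨h3, h4, -⟩ := G.h12 h2
    obtain ⟨w, R, a1, a2, a3, a4, a5⟩ := pt_K2h H P h2 G.k1 h3 h4 hr
    have := F.F2 w R a1 a2 a3 a4
    rwa [a5] at this
  · have h3 := P.a2 hk h2
    exact fn_of H F G.sk G.k0 G.k1 G.k2 h3 P.a4 (by rwa [← rE_al H h3])

/-- (K1) along the `X`-path, `k = 1` -/
theorem kx1U (hk : k = 1) (hm : 0 < ρ 1) {y : ℝ} (hy : 0 ≤ y) :
    (1 - s) * y ≤ φ (c 3) 0 - φ (c 3) (y • e9 3) := by
  rcases hy.eq_or_lt with rfl | hy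
  · simp
  by_contra hcon
  push Not at hcon
  obtain ⟨h3, h4⟩ := G.h11 hk
  obtain ⟨w, R, a1, a2, a3, a4, a5⟩ := pt_K1x H P hk G.sk G.k1 G.k2 h3 h4 hy hcon
  have := F.K1 w R a1 a2 a3 (by rw [a5]; exact hm)
  linarith

/-- **(K2), (F2)** -/
theorem fanBU (hk : k ≠ 1) :
    (plS s (ρ 0) (ρ 1) (rE c φ) (1 - xE c φ) (ρ 4) (1 - hE c φ)).FanB s where
  kn := fun h => by
    have := knU H P G F hk h
    change 1 - ρ 4 ≤ s; linarith
  fn := fun h => by
    have h1 := fnU H P G F hk h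
    have h2 := Cl9.le_cst H P.a4
    have e : cst 4 = 1 := rfl
    rw [e] at h2
    change 1 - ρ 4 = 0; linarith

/-- **(K1), (F1), (H1)** -/
theorem fanAU (hs : 0 ≤ s) (hk : k ≠ 1) :
    (plS s (ρ 0) (ρ 1) (rE c φ) (1 - xE c φ) (ρ 4) (1 - hE c φ)).FanA s where
  kx := fun h => by
    have := kxU H P G F hk h
    change 1 - (1 - xE c φ) ≤ s; linarith
  kh := fun h => by
    have h1 := kxU H P G F hk h
    have h2 := hxU H P G F hk h
    change 1 - (1 - hE c φ) ≤ s; linarith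
  fx := fun h => by
    have := fxU H P G F hk h
    change 1 - (1 - xE c φ) = 0; linarith
  fh := fun h => by
    change s < ρ 1 at h
    have h1 := fxU H P G F hk h
    have h3 := hE_nonneg H P
    have h2 := hxU H P G F hk (hs.trans_lt h)
    change 1 - (1 - hE c φ) = 0; linarith

/-- **the fields of `EF'`** -/
theorem efU (hs : 0 ≤ s) (h8 : c 8 = c 0 ∨ Al c 8) (h7 : c 7 = c 0 ∨ Al c 7)
    (h6 : c 6 = c 0 ∨ Al c 6) (FU : k ≠ 1 → FctU k Sg Λ) (K3 : k = 1 → K3U c s φ ρ) :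
    EF' s k (plS s (ρ 0) (ρ 1) (rE c φ) (1 - xE c φ) (ρ 4) (1 - hE c φ)) where
  P := posU H P
  kx := fun hk h => by
    have := kxU H P G F hk h
    change 1 - (1 - xE c φ) ≤ s; linarith
  mn := fun h => by
    change 1 - ρ 4 ≤ s
    by_cases hk : k = 1
    · have := K3 hk h fun y hy => kx1U H P G F hk h hy
      linarith
    · have h1 := mrU H P G h8 h7 h6 (FU hk) hk
      have := knU H P G F hk (lt_of_lt_of_le h h1)
      linarith
  mr := fun hk => mrU H P G h8 h7 h6 (FU hk) hk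
  nx := fun hk => by
    have h1 : k ≠ 1 := by linarith [hk] |> fun h : (0:ℝ) < k - 1 => by intro h'; linarith
    have h2 : k ≠ 1 / 2 := by intro h'; rw [h'] at hk; norm_num at hk
    have := nx_al H P h8 h7 h6 (FU h1) G.sg (P.a2 h1 h2) (P.a3 h1)
    change 1 - ρ 4 ≤ 1 - (1 - xE c φ)
    rw [xE_al H (P.a3 h1)]; linarith
  FA := fun hk => fanAU H P G F hs hk.ne
  FB := fun hk => fanBU H P G F hk.ne

/-- (P1) -/
theorem p1U (FP : FctP Sk Λ) : ρ 1 + xE c φ ≤ 1 := by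
  by_cases hk : k = 1
  · by_contra hcon
    push Not at hcon
    obtain ⟨h3, h4⟩ := G.h11 hk
    have e : xE c φ = 1 - (φ (c 3) 0 - φ (c 3) ((1:ℝ) • e9 3)) := by unfold xE; rw [zero_add]
    obtain ⟨w, R, a1, a2, a3, a4, a5⟩ := pt_K1x H P hk G.sk G.k1 G.k2 h3 h4 one_pos (q := ρ 1)
      (by rw [e] at hcon; linarith)
    have := FP.P1 w R a1 a2 a3
    rw [a5] at this
    linarith
  · obtain ⟨w, R, a1, a2, a3, a4⟩ := pt_K1 H G.sk G.k0 G.k1 G.k2 P.a1
    have := FP.P1 w R a1 a2 a3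
    rw [a4 1 P.a1, a4 3 (P.a3 hk)] at this
    rw [xE_al H (P.a3 hk)]
    linarith

/-- (P2) -/
theorem p2U (FP : FctP Sk Λ) (hk : k ≠ 1) : rE c φ ≤ ρ 4 := by
  by_cases h2 : k = 1 / 2
  · by_contra hcon
    push Not at hcon
    obtain ⟨h3, h4, -⟩ := G.h12 h2
    obtain ⟨w, R, a1, a2, a3, a4, a5⟩ := pt_K2h H P h2 G.k1 h3 h4 hcon
    have := FP.P2 w R a1 a2 a3
    rw [a5] at this
    linarith
  · have h3 := P.a2 hk h2
    obtain ⟨w, R, a1, a2, a3, a4⟩ := pt_K2 H G.sk G.k0 G.k1 G.k2 P.a4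
    have := FP.P2 w R a1 a2 a3
    rwa [a4 2 h3, a4 4 P.a4, ← rE_al H h3] at this

end fields

end Crest.Agent.R116.Tp139
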