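import Crest.Agent.R116.Pk2_348
import Crest.Agent.R116.Pk1_348
import Crest.Agent.R116.FlK1_363
import Crest.Agent.R116.Pd3_363
import Crest.Agent.R116.Tp7_139
import Crest.Agent.R116.NZ9_90
import Crest.Agent.R116.NZ11_90
import Crest.Agent.R116.IIr4_460
import Crest.Agent.R116.Th5c_658
import Crest.Agent.R116.D0T_794

/-!
# R116 (K side, TIES), DOUBLE TIE, cell D1 : `k' = 2 θ0 - θ1 < 1` (helper348)

* `rE_half_sum`  : the two letters of the class `{C_b, H}` at `k = 1/2`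
* **`cellD1`**   : 460's data `DTie'` over the context with (D0)
* **`fillD1`**   : the `Fill`, every region where (D0) is available
-/

set_option autoImplicit false
set_option linter.unusedSectionVars false
set_option linter.unusedVariables false

open Set Filter Topology MeasureTheory

namespace Crest.Agent.R116.Fd348

open Crest.Agent.R138
open Crest.Agent.R138.Ex926 (Base U IsTan)
open Crest.Agent.R136
open Crest.Agent.R136.MkA627
open Crest.Agent.R136.TD627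
open Crest.Agent.R136.Net191
open Crest.Agent.R136.Lq196
open Crest.Agent.R116.ChL222
open Crest.Agent.R116.PL504 (nb rL DN eL βL oL Shift)
open Crest.Agent.R116.Sg337 (bx9 coneL DL natB)
open Crest.Agent.R116.Gd222 (TSet sN PDL DT)
open Crest.Agent.R116.KI439 hiding kD
open Crest.Agent.R116.KF439 (PL)
open Crest.Agent.R116.KTop387
open Crest.Agent.R116.CtxB468
open Crest.Agent.R116.KTie794
open Crest.Agent.R116.Rcx363
open Crest.Agent.R116.RbM219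
open Crest.Agent.R116.RbK219 (RS SOk Par dl Aln)
open Crest.Agent.R116.SgO219 (PP)
open Crest.Agent.R116.Kz647
open Crest.Agent.R116.Pd363
open Crest.Agent.R116.Tq741
open Crest.Agent.R116.Tq794
open Crest.Agent.R116.Tq126
open Crest.Agent.R116.Tp139 hiding cl8
open Crest.Agent.R116.PosA348
open Crest.Agent.R116.Pk348
open Crest.Agent.R116.Tie460
open Crest.Agent.R116.NZ90 (Lam8)
open Dg219 (mw Walls)
open Sl741 (slice xt rs)

/-- `k = 1/2` : the two letters of the class `{C_b, H}` -/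
theorem rE_half_sum {c : Fin 9 → Fin 9} {dl : V9} {s k : ℝ} {Λ : V9 → ℝ} {φ : Fin 9 → V9 → ℝ}
    {ρ : V9} (H : Cl9 c dl s Λ φ ρ) (P : PlU k c dl) (hk : k = 1 / 2) :
    rE c φ / 2 + (1 - hE c φ) = ρ 5 := by
  obtain ⟨hc5, hc, hd⟩ := P.c5 hk
  have e1 : φ (c 2) (e9 3) = 0 := H.zero_of 2 fun t ht => by
    rcases hc t ht with rfl | rfl <;> exact e9_ne (by decide)
  have e2 : φ (c 2) (e9 3 + (1:ℝ) • e9 2) = φ (c 2) (e9 2) := H.loc _ _ _ fun t ht => by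
    rcases hc t ht with rfl | rfl <;> simp [e9]
  have e3 : φ (c 5) (e9 2 + (2:ℝ) • e9 5) = -(ρ 5 * 2) := by
    rw [H.rate 5 _ fun t' ht' => by
      rcases hc t' (ht'.trans hc5) with rfl | rfl
      · simp [e9]; rw [hd]
      · simp [e9]]
    simp [e9]
  unfold rE hE
  rw [e1, e2, e3, hc5]
  ring

section ctx

variable {G : Geo TSet (Fin 2)} {L : ℕ → ℕ → LRay} {r : ℕ → ℝ} {g s : ℝ} {θ q : Fin 2 → ℝ}
    {Rg : ℝ} {B : Base} {I : ℕ → Finset (ℕ × ℝ)} {lev : ℕ → ℚ → ℕ} {A : ℕ → ℝ}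
    {f : ℕ → ℚ → ℕ → ℤ → ℕ} {b : ℕ → ℚ → ℕ → TSet} {vm : ℕ → ℚ → ℝ} {w : Fin 2 → ℕ → ℚ → ℝ}
    {fr : ℕ → ℚ → ℕ × ℝ → LInc} {fl : ℕ → ℕ × ℝ → LInc} {sc : Fin 12 → ℕ → ℝ}
    {w0 sa sb δ R : ℝ} {I0 I' : ℕ → Finset (ℕ × ℝ)} {ν own : (Fin 12 → ℝ) → ℝ} {c₀ : ℝ} {η : ℝ}

/-- the three planes of the cell -/
noncomputable def Bs3 : Fin 3 → Fin 8 → ℝ := ![kD, NZ90.kH, oS]
/-- their sides -/
noncomputable def sg3 : Fin 3 → ℝ := ![-1, -1, 1]

/-- **cell D1 over the context** -/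
theorem cellD1 (hW : Th658.PlugK η)
    (C : CtxT G L r (g + 2 * s) s θ q Rg B I lev A f b vm w fr fl sc w0 sa sb δ R I0 I' ν own c₀)
    (hN : NumL η g s θ q) (hR0 : w0 + (θ 1 + sb) < R) (hR1 : w0 + 1 + sb < R)
    (hRg : θ 0 + |θ 1| + 1 ≤ Rg) (hmic : Mic ν (θ 0) (θ 1) w0 sa sb)
    (hV1 : InvT PL B I 1 fl (sc 1)) (hT : TieT θ B I lev fl sc 2) (hk : θ 1 < θ 0)
    (hk1 : 2 * θ 0 - θ 1 < 1) :
    DTie' (θ 0 - θ 1) (2 * θ 0 - θ 1) (θ 0) s (g + 2 * s) (q 0) (q 1) := by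
  have hθ0 := hN.θa
  have hs0 := hN.s0
  have hs1 := hN.s1
  have hkp : 0 < 2 * θ 0 - θ 1 := by linarith
  have hb : θ 1 = 2 * θ 0 - (2 * θ 0 - θ 1) := by ring
  have hbe : θ 1 = θ 0 - (θ 0 - θ 1) := by ring
  have hvis : ∀ i, VisT B I fl sc i → i = 0 ∨ i = 1 ∨ i = 2 ∨ i = 7 ∨ i = 8 :=
    fun i hi => Fk647.vis_flag C.out i hi
  have hSk : ∀ i, SOk (nat8 1 (-(θ 0)) (-(θ 1))) (Bs3 i) (sg3 i) := by
    intro i
    fin_cases i
    · exact sok_kD hθ0 hkp hb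
    · exact NZ90.sok_kH hkp hb
    · exact sok_oS hk (by linarith)
  have hLg : ∀ i, Leg8 (Bs3 i) := by
    intro i
    fin_cases i
    · exact leg_kD
    · exact NZ90.leg_kH
    · exact leg_oS
  obtain ⟨v0, -, hv0, hv1, a, b', x, hh, lam, -, -, O⟩ := exists_out8 C hR0 hR1 hθ0 (by linarith)
    hmic hV1 (t := 1) one_pos (T := Fin 3) (Bs := Bs3) (sg := sg3) hSk hLg (N := Set.univ)
    (Eventually.of_forall fun _ => trivial)
  obtain ⟨cm, hcm, hMm, -, ρm, hRm⟩ := O.surf 0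
  obtain ⟨ch, hch, hMh, -, ρh, hRh⟩ := O.surf 1
  obtain ⟨cp, hcp, hMp, -, ρp, hRp⟩ := O.surf 2
  change (srf8 (θ 0) (θ 1) 1 kD (-1)).LW (Q8 1) cm ⊆ _ at hMm
  change Rates8 (θ 0) (θ 1) 1 kD (-1) cm (lam 0) ρm at hRm
  change Rates8 (θ 0) (θ 1) 1 NZ90.kH (-1) ch (lam 0) ρh at hRh
  change (srf8 (θ 0) (θ 1) 1 oS 1).LW (Q8 1) cp ⊆ _ at hMp
  change Rates8 (θ 0) (θ 1) 1 oS 1 cp (lam 0) ρp at hRp
  -- below the record
  obtain ⟨l, α, h', X, H, lam2, ρ2, φ, K⟩ := kdat8 C hs0 hs1.le hθ0 hkp hb hv0 hv1 one_pos hV1 O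
    hcm hMm hRm
  have W : FctK (2 * θ 0 - θ 1) (Lam8 (lam2 0)) :=
    hW C hN hR0 hR1 hRg hV1 hT hk1 hv0 hv1 one_pos K.pd
  have KA := K.fin hs0 hθ0 hkp hk1 hb W
  set AA : Pl := plK s (cK (2 * θ 0 - θ 1)) φ (sn8 ρ2 0) with hAA
  refine ⟨AA, KA.F, fun _ => KA.dz, ?_, KA.ver, KA.pos, fun _ => ?_, fun h => absurd h (by linarith)⟩
  · rw [← hbe]; exact KA.tan
  -- above the record
  have hSo := sok_oS hk (by linarith : θ 1 < 2 * θ 0)
  obtain ⟨l', α', h'', X', H', lam2', ρ2', -, -, -, P⟩ :=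
    plane8 (Vis' := VisT B I fl sc) (v := 0) (c := 1) (p := 1) O
      one_pos hSo leg_oS hcp hRp (by
        refine all8 ?_ ?_ ?_ ?_ ?_ ?_ ?_ ?_ <;> ev8 <;> norm_num) (not_not.2 hV1) (fun i hi => by
      have e6 : oS 6 = 0 := rfl
      have e7 : oS 7 = 0 := rfl
      have e0 : oS 0 = 0 := rfl
      left
      refine ⟨hi, ?_⟩
      rcases hvis i hi with rfl | rfl | rfl | rfl | rfl
      · change oS 0 ≤ oS 0 * _
        rw [e0, zero_mul]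
      · exact absurd hV1 hi
      · change oS 7 ≤ oS 0 * _
        rw [e0, zero_mul, e7]
      · change oS 6 ≤ oS 0 * _
        rw [e0, zero_mul, e6]
      · change oS 6 ≤ oS 0 * _
        rw [e0, zero_mul, e6]) (N := Set.univ)
      (Eventually.of_forall fun _ => trivial) (y := 1) one_pos
  have hkk : 0 < θ 0 - θ 1 := by linarith
  obtain ⟨φ', hcl'⟩ := P.cls one_pos hSo (fun i hi => hvis i hi) (hc_oS hθ0 hkk hbe) h8_cS
    (hz_oS hθ0 hkk hbe)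
  have F' : Fct9 (fun w => w 6 ≤ (θ 0 - θ 1) * w 0 ∧ w 7 ≤ (2 * θ 0 - θ 1) * w 0) s
      (Lam8 (lam2' 0)) := by
    refine Pd3x363.pd8_fctS P C hs0 hs1.le one_ne_zero hθ0 hv0 hv1 fun w hw hS i hi => ?_
    rcases hvis i hi with rfl | rfl | rfl | rfl | rfl
    · change w 0 ≤ w 0 * βL (θ 0) (θ 1) 0
      have : βL (θ 0) (θ 1) 0 = 1 := rfl
      rw [this, mul_one]
    · exact absurd hV1 hi
    · change w 7 ≤ w 0 * βL (θ 0) (θ 1) 2
      have e2 : βL (θ 0) (θ 1) 2 = -(θ 1) - 2 * -(θ 0) := rfl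
      rw [e2]; linarith [hS.2]
    · change w 6 ≤ w 0 * βL (θ 0) (θ 1) 7
      have e2 : βL (θ 0) (θ 1) 7 = -(θ 1) - -(θ 0) := rfl
      rw [e2]; linarith [hS.1]
    · change w 6 ≤ w 0 * βL (θ 0) (θ 1) 8
      have e2 : βL (θ 0) (θ 1) 8 = -(θ 1) - -(θ 0) := rfl
      rw [e2]; linarith [hS.1]
  have PU := FlK363.plU_oS (θ := θ 0) (θb := θ 1) (k := θ 0 - θ 1)
  have GU : RgU (θ 0 - θ 1) (2 * θ 0 - θ 1) 1
      (fun w => w 6 ≤ (θ 0 - θ 1) * w 0 ∧ w 7 ≤ (2 * θ 0 - θ 1) * w 0) (fun _ => True) :=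
    { k0 := hkk
      k1 := hkp
      k2 := one_pos
      sk := fun w h1 h2 _ => ⟨h1.le, h2.le⟩
      sg := fun _ _ _ => trivial
      h12 := fun h => ⟨hk1, fun w h1 h2 => ⟨by rw [h]; exact h1.le, h2.le⟩, fun _ _ => trivial⟩
      h11 := fun h => absurd h (by linarith) }
  have hPos := posU hcl' PU
  have hFB := fanBU hcl' PU GU F' (by linarith : θ 0 - θ 1 ≠ 1)
  have hTV := FlK363.tvS P.half (O.zero 0) O.rx hk (by linarith) (by linarith) hcl'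
    (fun h => rE_half_sum hcl' PU h)
  have hant : ρ2' 1 ≤ AA.m := by
    rw [KA.m]
    have e1 : ρ2' 1 = ρp 1 := P.half.eq 1 (A1_ne hθ0)
    rw [e1]
    exact ant_S (k := 2 * θ 0 - θ 1) (supOn8 O.rx.prf.sm) hθ0 hkp hcm hcp hb hk hMm hMp hRm hRp
  have hTV' : TV (θ 0) (θ 0 - (θ 0 - θ 1)) s (g + 2 * s) (q 0) (q 1) (ρ2' 0) (ρ2' 1)
      (rE (cS (θ 0 - θ 1)) φ') (1 - xE (cS (θ 0 - θ 1)) φ') (ρ2' 4)
      (1 - hE (cS (θ 0 - θ 1)) φ') := by
    rw [← hbe]; exact hTV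
  refine ⟨_, dUpNZ_of hTV' hPos hFB hant ?_⟩
  intro h1
  exact NZ90.nzK_pl one_ne_zero hθ0 (by linarith) hk1 hb hcp hcm hch
    (NZ90.Out8.lamOk O hvis) hRp hRm hRh K.pd.half P.half K.cl (plK_cK hθ0 hkp hk1 hb)
    (B := plS s (ρ2' 0) (ρ2' 1) 0 0 (ρ2' 4) 0) rfl (by change 1 - ρ2' 4 = 0; linarith [h1])

end ctx

/-- **THE FILL of the cell D1**, where (D0) is available -/
theorem fillD1 {η : ℝ} (hη : η < 1) {P : ℝ → (Fin 2 → ℝ) → Prop} (hD0 : D0T η P)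
    (hW : Th658.PlugK η) :
    Fill η (fun θ B I lev fl sc => VisB θ B I lev fl sc ∧ VisE θ B I lev fl sc)
      fun g s θ q => P s θ → 2 * θ 0 - θ 1 < 1 → False := by
  intro g s θ q hN
  refine ⟨θ 0 + |θ 1| + 1, fun Rg hRg => ?_⟩
  intro G L r B I lev A f b vm w fr fl sc w0 sa sb δ R I0 I' ν own c₀ C hV hP hk1
  obtain ⟨w0, sa, sb, δ, R, I0, I', ν, own, c₀, C, hR0, hR1⟩ := Rcx363.strict_ctx C
  have hV1 : InvT PL B I 1 fl (sc 1) := C.out.invD (by linarith)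
  have hT : TieT θ B I lev fl sc 2 := by
    rcases hV.2 with h | h
    · exact h
    · exact absurd hV1 h.1
  have hk := TieT.kB hV.1
  have hmic := hD0 C hN hP hR0 hR1 hRg hV1 (fun _ => by linarith [hN.θa]) (fun _ => hk1)
  exact (cellD1 hW C hN hR0 hR1 hRg hmic hV1 hT (by linarith) hk1).false (num_of hη hN) hk (by ring)

end Crest.Agent.R116.Fd348
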