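import Crest.Agent.R116.LZg3_725

/-!
# R116 (S0155), K side: [FILL-GEO] of helper439, core (helper126)

`sg` aperture, `s1` thin side, length `1`, centre `(x0, y0, 0)`, direction `c`, `T = max (sg²) r`.
Rays `(C, a, k + t)`, `|t| ≤ 2 r`, of the member with thickness `sg²` have parents `(C, a, k)` in
members with thickness `T` (same aperture, centres `(x0, y0 + j T, 0)`, `|j| ≤ 3`).
-/

set_option autoImplicit false

namespace Crest.Agent.R116.Fg126

open Crest.Agent.R116.LZg725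

variable {E : Type*} [NormedAddCommGroup E] [InnerProductSpace ℝ E]

theorem ry_add (C : E) (k t s : ℝ) : ry C (k + t) s = ry C k s + t := by unfold ry; ring

theorem nrm_add_y (c x : E) (y t s : ℝ) : nrm c x (y + t) s = nrm c x y s + t := by
  unfold nrm; ring

theorem ev_add_y (p : Cf E) (x : E) (y t s : ℝ) : p.ev x (y + t) s = p.ev x y s + t * p.ny s := by
  unfold Cf.ev Cf.ny; ring

/-- bound of `∂_y φ` on the unit time interval. -/
theorem ny_le (p : Cf E) {s : ℝ} (hs : |s| ≤ 1) : |p.ny s| ≤ |p.g| + 2 * |p.d| := by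
  unfold Cf.ny
  have h1 : |p.g - 2 * p.d * s| ≤ |p.g| + |2 * p.d * s| := abs_sub _ _
  have h2 : |2 * p.d * s| = 2 * |p.d| * |s| := by rw [abs_mul, abs_mul, abs_two]
  have h3 : 2 * |p.d| * |s| ≤ 2 * |p.d| * 1 := mul_le_mul_of_nonneg_left hs (by positivity)
  linarith

/-- the maximum of `|∂_y φ|` on the unit time interval. -/
theorem ny_max (p : Cf E) : ∃ s : ℝ, |s| ≤ 1 ∧ |p.ny s| = |p.g| + 2 * |p.d| := by
  unfold Cf.ny
  rcases le_total 0 p.g with hg | hg <;> rcases le_total 0 p.d with hd | hd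
  · refine ⟨-1, by simp, ?_⟩
    rw [abs_of_nonneg hg, abs_of_nonneg hd, abs_of_nonneg (by linarith)]; ring
  · refine ⟨1, by simp, ?_⟩
    rw [abs_of_nonneg hg, abs_of_nonpos hd, abs_of_nonneg (by linarith)]; ring
  · refine ⟨1, by simp, ?_⟩
    rw [abs_of_nonpos hg, abs_of_nonneg hd, abs_of_nonpos (by linarith)]; ring
  · refine ⟨-1, by simp, ?_⟩
    rw [abs_of_nonpos hg, abs_of_nonpos hd, abs_of_nonpos (by linarith)]; ring

/-! ### the box -/

/-- the parents lie in the boxes with moved centres. -/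
theorem box_cover {c : E} {sg r : ℝ} (hr : 0 < r) {x0 : E} {y0 : ℝ} {p : Cf E} {w : ℝ} {C a : E}
    {k t : ℝ} (h : RayIn c sg (sg ^ 2) 1 x0 y0 0 p w C a (k + t)) (ht : |t| ≤ 2 * r) :
    ∃ j : ℤ, |j| ≤ 3 ∧ ∀ s : ℝ, |s| ≤ 1 →
      InK c sg (max (sg ^ 2) r) 1 x0 (y0 + j * max (sg ^ 2) r) 0 (rx C a s) (ry C k s) s := by
  obtain ⟨hC, h1⟩ := h
  set T := max (sg ^ 2) r with hTdef
  have hT1 : sg ^ 2 ≤ T := le_max_left _ _
  have hT2 : r ≤ T := le_max_right _ _
  have hT0 : 0 < T := lt_of_lt_of_le hr hT2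
  set n0 : ℝ := k + inner ℝ c a - nrm c x0 y0 0 with hn0
  have e1 : ∀ s : ℝ, nrm c (rx C a s) (ry C k s) s - nrm c x0 y0 0 =
      n0 + s * (‖C - c‖ ^ 2 / 2) := by
    intro s
    rw [nrm_ray', hn0]; ring
  have hCsq : ‖C - c‖ ^ 2 ≤ sg ^ 2 := pow_le_pow_left₀ (norm_nonneg _) hC 2
  -- size of `n0`
  have h2 := (h1 0 (by simp)).1.2.2
  rw [ry_add, nrm_add_y, mul_one] at h2
  have h3 := e1 0
  rw [zero_mul, add_zero] at h3
  have h4 : |n0 + t| ≤ sg ^ 2 := by
    rw [← h3]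
    have : nrm c (rx C a 0) (ry C k 0) 0 - nrm c x0 y0 0 + t =
      nrm c (rx C a 0) (ry C k 0) 0 + t - nrm c x0 y0 0 := by ring
    rw [this]; exact h2
  have h5 : |n0| ≤ 3 * T := by
    have : n0 = (n0 + t) - t := by ring
    rw [this]
    refine (abs_sub _ _).trans ?_
    linarith
  -- rounding
  set j : ℤ := round (n0 / T) with hj
  have h6 : |n0 / T - j| ≤ 1 / 2 := abs_sub_round _
  have h7 : |n0 - j * T| ≤ T / 2 := by
    have e : n0 - j * T = (n0 / T - j) * T := by field_simp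
    rw [e, abs_mul, abs_of_pos hT0]
    nlinarith
  have h8 : |j| ≤ 3 := by
    have h9 : |n0 / T| ≤ 3 := by
      rw [abs_div, abs_of_pos hT0, div_le_iff₀ hT0]; exact h5
    have h10 : |(j : ℝ)| < 4 := by
      have : (j : ℝ) = n0 / T - (n0 / T - j) := by ring
      rw [this]
      refine lt_of_le_of_lt (abs_sub _ _) ?_
      linarith
    have h11 : |j| < 4 := by exact_mod_cast h10
    omega
  refine ⟨j, h8, fun s hs => ?_⟩
  have hs0 : |s - 0| ≤ 1 := by rwa [sub_zero]
  refine ⟨hs0, (h1 s hs0).1.2.1, ?_⟩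
  rw [nrm_add_y, mul_one]
  have e2 : nrm c (rx C a s) (ry C k s) s - (nrm c x0 y0 0 + j * T) =
      (n0 - j * T) + s * (‖C - c‖ ^ 2 / 2) := by
    have := e1 s
    linarith
  rw [e2]
  refine (abs_add_le _ _).trans ?_
  rw [abs_mul, abs_of_nonneg (a := ‖C - c‖ ^ 2 / 2) (by positivity)]
  have h12 : |s| * (‖C - c‖ ^ 2 / 2) ≤ 1 * (T / 2) :=
    mul_le_mul hs (by linarith) (by positivity) zero_le_one
  linarith

/-! ### the flat cut and the lateral part -/

/-- the function `α + β s + ⟨v, (x - x0) + s c⟩`. -/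
noncomputable def lp (v c x0 : E) (α β : ℝ) : Cf E :=
  ⟨α - inner ℝ v x0, β + inner ℝ v c, v, 0, 0⟩

theorem lp_ev (v c x0 : E) (α β : ℝ) (x : E) (y s : ℝ) :
    (lp v c x0 α β).ev x y s = α + β * s + inner ℝ v ((x - x0) + s • c) := by
  unfold lp Cf.ev
  rw [inner_add_right, inner_sub_right, real_inner_smul_right]
  ring

theorem lp_disc (v c x0 : E) (α β : ℝ) (hv : ‖v‖ = 1) : (lp v c x0 α β).disc = 1 := by
  unfold lp Cf.disc
  simp [hv]

theorem lp_ny (v c x0 : E) (α β s : ℝ) : (lp v c x0 α β).ny s = 0 := by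
  unfold lp Cf.ny
  simp

theorem lp_ld (v c x0 : E) (α β : ℝ) (x : E) (y s : ℝ) : (lp v c x0 α β).ld c x y s = β := by
  unfold lp Cf.ld Cf.ny
  simp

/-- output of the core. -/
structure Out (M r : ℝ) (c : E) (sg s1 : ℝ) (x0 : E) (y0 : ℝ) (p : Cf E) (l : ℝ) (q : Cf E)
    (s2 : ℝ) : Prop where
  disc : q.disc = 1
  ny : ∀ s, |s| ≤ 1 → |q.ny s| * max (sg ^ 2) r ≤ 4 * M * sg
  ld : ∀ j : ℤ, |j| ≤ 3 → |q.ld c x0 (y0 + j * max (sg ^ 2) r) 0| ≤ 4 * M * sg
  ev : ∀ j : ℤ, |j| ≤ 3 → |q.ev x0 (y0 + j * max (sg ^ 2) r) 0| ≤ 4 * M * sg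
  cpt : ∀ s, |s| ≤ 1 → |q.ny s| * r ≤ s2
  lo : r ≤ s2
  hi : s2 ≤ sg
  cost : l * (s2 * sg * max (sg ^ 2) r) ≤ 16 * M * (r * (s1 * sg * sg ^ 2))
  ray : ∀ (C a : E) (k t : ℝ), RayIn c sg (sg ^ 2) 1 x0 y0 0 p s1 C a (k + t) → |t| ≤ 2 * r →
    ∀ s, |s| ≤ 1 → |q.ev (rx C a s) (ry C k s) s| ≤ s2

/-- the full box (flat cut of thickness `sg`). -/
theorem out_full {M r : ℝ} (hM : 1 ≤ M) (hr : 0 < r) {c : E} {sg s1 : ℝ} (hs1 : r ≤ s1)
    (hsg : s1 ≤ sg) {x0 : E} {y0 : ℝ} {p : Cf E} {e : E} (he : ‖e‖ = 1) {l : ℝ}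
    (hl : l * (sg * max (sg ^ 2) r) ≤ 16 * M * (r * (s1 * sg ^ 2))) :
    Out M r c sg s1 x0 y0 p l (lp e c x0 0 0) sg := by
  have hsg0 : 0 < sg := by linarith
  have h0 : 0 ≤ 4 * M * sg := by positivity
  refine ⟨lp_disc _ _ _ _ _ he, fun s _ => ?_, fun j _ => ?_, fun j _ => ?_, fun s _ => ?_,
    by linarith, le_rfl, ?_, ?_⟩
  · rw [lp_ny, abs_zero, zero_mul]; exact h0
  · rw [lp_ld, abs_zero]; exact h0
  · rw [lp_ev]; simp only [sub_self, zero_smul, add_zero, inner_zero_right, mul_zero, abs_zero]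
    exact h0
  · rw [lp_ny, abs_zero, zero_mul]; exact hsg0.le
  · have := mul_le_mul_of_nonneg_right hl hsg0.le
    calc l * (sg * sg * max (sg ^ 2) r) = l * (sg * max (sg ^ 2) r) * sg := by ring
      _ ≤ 16 * M * (r * (s1 * sg ^ 2)) * sg := this
      _ = _ := by ring
  · intro C a k t h _ s hs
    rw [lp_ev, zero_mul, add_zero, zero_add]
    have hs0 : |s - 0| ≤ 1 := by rwa [sub_zero]
    have h1 := (h.2 s hs0).1.2.1
    rw [sub_zero, mul_one] at h1
    calc _ ≤ ‖e‖ * ‖(rx C a s - x0) + s • c‖ := abs_real_inner_le_norm _ _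
      _ ≤ sg := by rw [he, one_mul]; exact h1

/-- **core**. -/
theorem fill_core {M r : ℝ} (hM : 1 ≤ M) (hr : 0 < r) {c : E} {sg s1 : ℝ} (hs1 : r ≤ s1)
    (hsg : s1 ≤ sg) {x0 : E} {y0 : ℝ} {p : Cf E} (had : Adm M c sg (sg ^ 2) 1 x0 y0 0 p)
    {e : E} (he : ‖e‖ = 1) {l : ℝ} (hl0 : 0 < l) (hl1 : l ≤ 4 * r) (hl2 : l ≤ 2 * sg ^ 2)
    (hl3 : l * (|p.g| + 2 * |p.d|) ≤ 2 * s1) :
    ∃ (q : Cf E) (s2 : ℝ), Out M r c sg s1 x0 y0 p l q s2 := by
  have hs10 : 0 < s1 := by linarith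
  have hsg0 : 0 < sg := by linarith
  have hM0 : 0 < M := by linarith
  set nu : ℝ := |p.g| + 2 * |p.d| with hnu
  have hnu0 : 0 ≤ nu := by positivity
  have hadny : ∀ s, |s| ≤ 1 → |p.ny s| * sg ^ 2 ≤ M * sg := fun s hs =>
    had.ny s (by rwa [sub_zero])
  obtain ⟨sm, hsm, hsm2⟩ := ny_max p
  have hnuM : nu * sg ≤ M := by
    have h1 := hadny sm hsm
    rw [hsm2, ← hnu] at h1
    have h2 : nu * sg * sg ≤ M * sg := by nlinarith
    exact le_of_mul_le_mul_right h2 hsg0
  have hd : 2 * |p.d| * (sg ^ 2 * 1) ≤ M * sg := had.d_le zero_le_one (sq_nonneg _)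
  rw [mul_one] at hd
  have hev0 := had.ev
  have hld0 := had.ld
  rw [mul_one] at hev0
  have hjr : ∀ j : ℤ, |j| ≤ 3 → |(j : ℝ)| ≤ 3 := fun j hj => by exact_mod_cast hj
  rcases le_total r (sg ^ 2) with hc | hc
  · -- dynamic boxes
    have hT : max (sg ^ 2) r = sg ^ 2 := max_eq_left hc
    by_cases hcut : s1 + 2 * r * nu ≤ sg
    · refine ⟨p, s1 + 2 * r * nu, had.disc, fun s hs => ?_, fun j hj => ?_, fun j hj => ?_,
        fun s hs => ?_, ?_, hcut, ?_, ?_⟩
      · rw [hT]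
        have := hadny s hs
        nlinarith
      · rw [hT]
        have e1 := p.ld_move c x0 x0 y0 (y0 + j * sg ^ 2) 0 0
        rw [nrm_add_y, add_sub_cancel_left] at e1
        rw [e1]
        refine (abs_sub _ _).trans ?_
        have h1 : |2 * p.d * (j * sg ^ 2)| = |(j : ℝ)| * (2 * |p.d| * sg ^ 2) := by
          rw [abs_mul, abs_mul, abs_mul, abs_two, abs_of_nonneg (sq_nonneg sg)]; ring
        have h2 : |(j : ℝ)| * (2 * |p.d| * sg ^ 2) ≤ 3 * (M * sg) :=
          mul_le_mul (hjr j hj) hd (by positivity) (by norm_num)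
        rw [h1]
        linarith
      · rw [hT, ev_add_y]
        refine (abs_add_le _ _).trans ?_
        have h1 : |(j : ℝ) * sg ^ 2 * p.ny 0| = |(j : ℝ)| * (|p.ny 0| * sg ^ 2) := by
          rw [abs_mul, abs_mul, abs_of_nonneg (sq_nonneg sg)]; ring
        have h2 : |(j : ℝ)| * (|p.ny 0| * sg ^ 2) ≤ 3 * (M * sg) :=
          mul_le_mul (hjr j hj) (hadny 0 (by simp)) (by positivity) (by norm_num)
        rw [h1]
        linarith
      · have h1 := ny_le p hs
        rw [← hnu] at h1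
        have h2 := mul_le_mul_of_nonneg_right h1 hr.le
        nlinarith [mul_nonneg hr.le hnu0]
      · nlinarith [mul_nonneg hr.le hnu0]
      · rw [hT]
        have h1 : l * (s1 + 2 * r * nu) ≤ 8 * (r * s1) := by
          have a1 : l * s1 ≤ 4 * r * s1 := mul_le_mul_of_nonneg_right hl1 hs10.le
          have a2 : 2 * r * (l * nu) ≤ 2 * r * (2 * s1) :=
            mul_le_mul_of_nonneg_left hl3 (by positivity)
          nlinarith
        have h2 : 0 ≤ sg * sg ^ 2 := by positivity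
        have h3 := mul_le_mul_of_nonneg_right h1 h2
        have h4 : 0 ≤ r * s1 * (sg * sg ^ 2) := by positivity
        nlinarith [mul_nonneg (show (0:ℝ) ≤ M - 1 by linarith) h4]
      · intro C a k t h ht s hs
        have hs0 : |s - 0| ≤ 1 := by rwa [sub_zero]
        have h1 := (h.2 s hs0).2
        rw [ry_add, ev_add_y] at h1
        have h2 := ny_le p hs
        rw [← hnu] at h2
        have h3 : |t * p.ny s| ≤ 2 * r * nu := by
          rw [abs_mul]
          exact mul_le_mul ht h2 (abs_nonneg _) (by positivity)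
        have h4 : p.ev (rx C a s) (ry C k s) s =
            (p.ev (rx C a s) (ry C k s) s + t * p.ny s) - t * p.ny s := by ring
        rw [h4]
        refine (abs_sub _ _).trans ?_
        linarith
    · push Not at hcut
      refine ⟨lp e c x0 0 0, sg, out_full hM hr hs1 hsg he ?_⟩
      rw [hT]
      have h1 : l * sg ≤ 8 * (r * s1) := by
        have a1 : l * s1 ≤ 4 * r * s1 := mul_le_mul_of_nonneg_right hl1 hs10.le
        have a2 : 2 * r * (l * nu) ≤ 2 * r * (2 * s1) :=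
          mul_le_mul_of_nonneg_left hl3 (by positivity)
        have a3 := mul_le_mul_of_nonneg_left hcut.le hl0.le
        nlinarith
      have h2 : 0 ≤ sg ^ 2 := by positivity
      have h3 := mul_le_mul_of_nonneg_right h1 h2
      have h4 : 0 ≤ r * s1 * sg ^ 2 := by positivity
      nlinarith [mul_nonneg (show (0:ℝ) ≤ M - 1 by linarith) h4]
  · -- static boxes
    have hT : max (sg ^ 2) r = r := max_eq_right hc
    by_cases hcut : 8 * M * s1 ≤ sg ∧ 8 * M * (nu * sg) ≤ 1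
    · obtain ⟨hc1, hc2⟩ := hcut
      set A0 : ℝ := p.ev x0 y0 0 with hA0
      set A1 : ℝ := p.ld c x0 y0 0 with hA1
      set G0 : E := p.gr c x0 0 with hG0
      have hny0 : |p.ny 0| ≤ nu := ny_le p (by simp)
      have hG : |‖G0‖ ^ 2 - 1| ≤ 1 / 2 := by
        have e1 := p.norm_gr_sq c x0 y0 0
        rw [← hG0, ← hA0, ← hA1, had.disc] at e1
        have e2 : ‖G0‖ ^ 2 - 1 = 2 * (p.ny 0 * A1) + 4 * (p.d * A0) := by rw [e1]; ring
        rw [e2]
        refine (abs_add_le _ _).trans ?_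
        rw [abs_mul, abs_mul, abs_mul, abs_mul, abs_two, abs_of_pos (by norm_num : (0:ℝ) < 4)]
        have h1 : |p.ny 0| * |A1| ≤ nu * (M * sg) :=
          mul_le_mul hny0 hld0 (abs_nonneg _) hnu0
        have h2 : 2 * |p.d| ≤ nu := by rw [hnu]; have := abs_nonneg p.g; linarith
        have h3 : (2 * |p.d|) * |A0| ≤ nu * (M * sg) :=
          mul_le_mul h2 hev0 (abs_nonneg _) hnu0
        nlinarith
      have hn1 : 1 / 2 ≤ ‖G0‖ := by
        nlinarith [norm_nonneg G0, (abs_le.1 hG).1]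
      have hn0 : 0 < ‖G0‖ := by linarith
      set n : ℝ := ‖G0‖ with hn
      have hninv : n⁻¹ ≤ 2 := by
        rw [inv_le_comm₀ hn0 (by norm_num)]; linarith
      have hninv0 : 0 < n⁻¹ := inv_pos.2 hn0
      set q : Cf E := lp (n⁻¹ • G0) c x0 (n⁻¹ * A0) (n⁻¹ * A1) with hq
      have hq1 : ‖n⁻¹ • G0‖ = 1 := by
        rw [norm_smul, Real.norm_of_nonneg hninv0.le, ← hn]
        exact inv_mul_cancel₀ hn0.ne'
      set s2 : ℝ := 2 * (s1 + 2 * nu * sg ^ 2) with hs2
      have hs2sg : s2 ≤ sg := by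
        have a1 : 8 * s1 ≤ sg := by nlinarith
        have a2 : 8 * (nu * sg) ≤ 1 := by nlinarith [mul_nonneg hnu0 hsg0.le]
        have a3 : 8 * (nu * sg) * sg ≤ 1 * sg := mul_le_mul_of_nonneg_right a2 hsg0.le
        rw [hs2]
        nlinarith
      refine ⟨q, s2, lp_disc _ _ _ _ _ hq1, fun s _ => ?_, fun j _ => ?_, fun j _ => ?_,
        fun s _ => ?_, ?_, hs2sg, ?_, ?_⟩
      · rw [hq, lp_ny, abs_zero, zero_mul]; positivity
      · rw [hq, lp_ld, abs_mul, abs_of_pos hninv0]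
        have := mul_le_mul hninv hld0 (abs_nonneg _) (by norm_num)
        nlinarith [mul_pos hM0 hsg0]
      · rw [hq, lp_ev]
        simp only [sub_self, zero_smul, add_zero, inner_zero_right, mul_zero]
        rw [abs_mul, abs_of_pos hninv0]
        have := mul_le_mul hninv hev0 (abs_nonneg _) (by norm_num)
        nlinarith [mul_pos hM0 hsg0]
      · rw [hq, lp_ny, abs_zero, zero_mul, hs2]; positivity
      · rw [hs2]
        have : 0 ≤ nu * sg ^ 2 := by positivity
        nlinarith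
      · rw [hT, hs2]
        have a1 : l * s1 ≤ 2 * sg ^ 2 * s1 := mul_le_mul_of_nonneg_right hl2 hs10.le
        have a2 : (l * nu) * sg ^ 2 ≤ 2 * s1 * sg ^ 2 :=
          mul_le_mul_of_nonneg_right hl3 (by positivity)
        have h1 : l * (2 * (s1 + 2 * nu * sg ^ 2)) ≤ 12 * (s1 * sg ^ 2) := by nlinarith
        have h2 : 0 ≤ sg * r := by positivity
        have h3 := mul_le_mul_of_nonneg_right h1 h2
        have h4 : 0 ≤ r * (s1 * sg * sg ^ 2) := by positivity
        nlinarith [mul_nonneg (show (0:ℝ) ≤ M - 1 by linarith) h4]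
      · intro C a k t h ht s hs
        have hs0 : |s - 0| ≤ 1 := by rwa [sub_zero]
        obtain ⟨⟨_, b2, b3⟩, b4⟩ := h.2 s hs0
        rw [mul_one] at b2 b3
        set x := rx C a s with hx
        set y := ry C (k + t) s with hy
        have e1 := p.ev_expand c x0 y0 0 x y s
        rw [← hA0, ← hA1, ← hG0] at e1
        set w := (x - x0) + (s - 0) • c with hw
        set N := nrm c x y s - nrm c x0 y0 0 with hN
        have e2 : q.ev x (ry C k s) s = n⁻¹ * (A0 + A1 * (s - 0) + inner ℝ G0 w) := by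
          rw [hq, lp_ev, hw, real_inner_smul_left, sub_zero]; ring
        have e3 : A0 + A1 * (s - 0) + inner ℝ G0 w = p.ev x y s -
            (p.ny 0 * N + p.d * (‖w‖ ^ 2 - 2 * (s - 0) * N)) := by rw [e1]; ring
        have f1 : |p.ny 0 * N| ≤ |p.g| * sg ^ 2 := by
          have : p.ny 0 = p.g := by unfold Cf.ny; ring
          rw [this, abs_mul]
          exact mul_le_mul_of_nonneg_left b3 (abs_nonneg _)
        have f2 : |p.d * (‖w‖ ^ 2 - 2 * (s - 0) * N)| ≤ |p.d| * (3 * sg ^ 2) := by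
          rw [abs_mul]
          refine mul_le_mul_of_nonneg_left ?_ (abs_nonneg _)
          refine (abs_sub _ _).trans ?_
          have g1 : |‖w‖ ^ 2| ≤ sg ^ 2 := by
            rw [abs_of_nonneg (by positivity)]
            exact pow_le_pow_left₀ (norm_nonneg _) b2 2
          have g2 : |2 * (s - 0) * N| ≤ 2 * sg ^ 2 := by
            rw [abs_mul, abs_mul, abs_two]
            have := mul_le_mul hs0 b3 (abs_nonneg _) zero_le_one
            nlinarith
          linarith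
        have f3 : |A0 + A1 * (s - 0) + inner ℝ G0 w| ≤ s1 + 2 * nu * sg ^ 2 := by
          rw [e3]
          refine (abs_sub _ _).trans ?_
          have g3 := abs_add_le (p.ny 0 * N) (p.d * (‖w‖ ^ 2 - 2 * (s - 0) * N))
          have g4 : 0 ≤ |p.g| * sg ^ 2 := by positivity
          have g5 : 0 ≤ |p.d| * sg ^ 2 := by positivity
          have g6 : nu * sg ^ 2 = |p.g| * sg ^ 2 + 2 * (|p.d| * sg ^ 2) := by rw [hnu]; ring
          nlinarith
        rw [e2, abs_mul, abs_of_pos hninv0, hs2]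
        exact mul_le_mul hninv f3 (abs_nonneg _) (by norm_num)
    · refine ⟨lp e c x0 0 0, sg, out_full hM hr hs1 hsg he ?_⟩
      rw [hT]
      have h1 : l ≤ 16 * M * (s1 * sg) := by
        rw [not_and_or, not_le, not_le] at hcut
        rcases hcut with h | h
        · nlinarith
        · have a1 : l * (8 * M * (nu * sg)) ≤ 16 * M * (s1 * sg) := by
            have := mul_le_mul_of_nonneg_right hl3 (show (0:ℝ) ≤ 8 * M * sg by positivity)
            nlinarith
          have a2 : l * 1 ≤ l * (8 * M * (nu * sg)) := mul_le_mul_of_nonneg_left h.le hl0.le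
          linarith
      have h2 : 0 ≤ sg * r := by positivity
      have h3 := mul_le_mul_of_nonneg_right h1 h2
      nlinarith

end Crest.Agent.R116.Fg126
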