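import Crest.Agent.R116.Fg1_126
import Crest.Agent.R116.LKMDef_299

/-!
# R116 (S0155), K side: [FILL-GEO] of helper439 over 725's `Mem` (helper126)
-/

set_option autoImplicit false

namespace Crest.Agent.R116.Fg126

open Crest.Agent.R138.Defs (E2)
open Crest.Agent.R116.CDef480 (E3 lat pt)
open Crest.Agent.R116.LZg725
open Crest.Agent.R116.LKMDef299 (LRay Cpt)

/-- **FILL-GEO**: the parents `(C, a, k)` of the rays `(C, a, k + t)`, `|t| ≤ 2 r`, of a member of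
thickness `sg²` lie in seven members of thickness `max (sg²) r`; the shifts `t` of one parent differ
by at most `l`; `l * cost` is controlled. -/
structure Fill (M r : ℝ) (m : Mem) (F : ℤ → Mem) (l : ℝ) : Prop where
  l0 : 0 < l
  l4 : l ≤ 4 * r
  rl : r ^ 2 ≤ M * l
  ok : ∀ j : ℤ, |j| ≤ 3 → (F j).Ok (4 * M) r
  cpt : ∀ j : ℤ, |j| ≤ 3 → Cpt (4 * M) r (F j)
  R1 : ∀ j : ℤ, |j| ≤ 3 → (F j).R = 1
  s0 : ∀ j : ℤ, |j| ≤ 3 → (F j).s0 = 0
  thin : ∀ j : ℤ, |j| ≤ 3 → r ≤ (F j).s1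
  sg1 : ∀ j : ℤ, |j| ≤ 3 → (F j).sg ≤ 1
  cost : ∀ j : ℤ, |j| ≤ 3 → l * (F j).scost r ≤ 16 * M * (r * m.scost 0)
  ray : ∀ (C a : E2) (k t : ℝ), (C, a, k + t) ∈ m.rays 0 → |t| ≤ 2 * r →
    ∃ j : ℤ, |j| ≤ 3 ∧ (C, a, k) ∈ (F j).rays r
  diff : ∀ (C a : E2) (k t t' : ℝ), (C, a, k + t) ∈ m.rays 0 → (C, a, k + t') ∈ m.rays 0 →
    |t| ≤ 2 * r → |t'| ≤ 2 * r → |t - t'| ≤ l

theorem fill_geo {M : ℝ} (hM : 1 ≤ M) {r : ℝ} (hr : 0 < r) (hr1 : r ≤ 1) {m : Mem}
    (hok : m.Ok M 0) (hR : m.R = 1) (hs0 : m.s0 = 0) (hs1 : r ≤ m.s1) (hsg : m.sg ≤ 1) :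
    ∃ (F : ℤ → Mem) (l : ℝ), Fill M r m F l := by
  obtain ⟨c, sg, s1, R, X0, s0, p⟩ := m
  simp only at hR hs0 hs1 hsg
  subst hR hs0
  have h1sg : s1 ≤ sg := hok.hsg
  have hsg0 : 0 < sg := by linarith
  have hs10 : 0 < s1 := by linarith
  have hM0 : 0 < M := by linarith
  have hT0 : (Mem.T 0 ⟨c, sg, s1, 1, X0, 0, p⟩ : ℝ) = sg ^ 2 := by
    unfold Mem.T
    simp only [zero_div]
    exact max_eq_left (sq_nonneg _)
  have had : Adm M c sg (sg ^ 2) 1 (lat X0) (X0 2) 0 p := by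
    have := hok.adm
    rw [hT0] at this
    exact this
  have hray : ∀ (C a : E2) (k : ℝ), (C, a, k) ∈ Mem.rays 0 ⟨c, sg, s1, 1, X0, 0, p⟩ →
      RayIn c sg (sg ^ 2) 1 (lat X0) (X0 2) 0 p s1 C a k := by
    intro C a k h
    rw [Mem.mem_rays, hT0, mul_one] at h
    exact h
  set nu : ℝ := |p.g| + 2 * |p.d| with hnu
  have hnu0 : 0 ≤ nu := by positivity
  obtain ⟨sm, hsm, hsm2⟩ := ny_max p
  have hnuM : nu * sg ≤ M := by
    have h1 := had.ny sm (by rwa [sub_zero])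
    rw [hsm2, ← hnu] at h1
    have h2 : nu * sg * sg ≤ M * sg := by nlinarith
    exact le_of_mul_le_mul_right h2 hsg0
  -- the number `l`
  obtain ⟨l, hl0, hl1, hl2, hl3, hl4, hl5⟩ : ∃ l : ℝ, 0 < l ∧ l ≤ 4 * r ∧ l ≤ 2 * sg ^ 2 ∧
      l * nu ≤ 2 * s1 ∧ r ^ 2 ≤ M * l ∧
      ∀ τ : ℝ, 0 ≤ τ → τ ≤ 4 * r → τ ≤ 2 * sg ^ 2 → τ * nu ≤ 2 * s1 → τ ≤ l := by
    have hr2 : r ^ 2 ≤ 4 * r := by nlinarith
    have hr3 : r ^ 2 ≤ 2 * sg ^ 2 := by nlinarith
    rcases hnu0.eq_or_lt with h0 | h0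
    · refine ⟨min (4 * r) (2 * sg ^ 2), by positivity, min_le_left _ _, min_le_right _ _, ?_, ?_,
        fun τ _ h1 h2 _ => le_min h1 h2⟩
      · rw [← h0, mul_zero]; linarith
      · have h1 := le_min hr2 hr3
        have h2 : 0 ≤ min (4 * r) (2 * sg ^ 2) := by positivity
        nlinarith
    · refine ⟨min (min (4 * r) (2 * sg ^ 2)) (2 * s1 / nu), by positivity,
        (min_le_left _ _).trans (min_le_left _ _), (min_le_left _ _).trans (min_le_right _ _), ?_,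
        ?_, fun τ _ h1 h2 h3 => le_min (le_min h1 h2) ?_⟩
      · rw [← le_div_iff₀ h0]; exact min_le_right _ _
      · have h1 : r ^ 2 / M ≤ min (min (4 * r) (2 * sg ^ 2)) (2 * s1 / nu) := by
          have h2 : r ^ 2 / M ≤ r ^ 2 := div_le_self (sq_nonneg _) hM
          refine le_min (le_min (h2.trans hr2) (h2.trans hr3)) ?_
          rw [div_le_div_iff₀ hM0 h0]
          have h3 : r ^ 2 * nu ≤ s1 * (sg * nu) := by
            have : r ^ 2 ≤ s1 * sg := by nlinarith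
            nlinarith
          have h4 : s1 * (sg * nu) ≤ s1 * M := by
            have := mul_le_mul_of_nonneg_left hnuM hs10.le
            linarith
          nlinarith
        rw [div_le_iff₀ hM0] at h1
        linarith
      · rw [le_div_iff₀ h0]; exact h3
  have he : ‖(EuclideanSpace.single 0 1 : E2)‖ = 1 := by simp
  obtain ⟨q, s2, hq⟩ := fill_core hM hr hs1 h1sg had he hl0 hl1 hl2 (by rw [← hnu]; exact hl3)
  set T : ℝ := max (sg ^ 2) r with hT
  have hs20 : 0 < s2 := lt_of_lt_of_le hr hq.lo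
  set F : ℤ → Mem := fun j => ⟨c, sg, s2, 1, pt (lat X0) (X0 2 + j * T), 0, q⟩ with hF
  have hFT : ∀ j, (F j).T r = T := by
    intro j
    rw [hF, hT]
    unfold Mem.T
    simp only [div_one]
  have hadq : ∀ j : ℤ, |j| ≤ 3 → Adm (4 * M) c sg T 1 (lat X0) (X0 2 + j * T) 0 q := by
    intro j hj
    refine ⟨hq.disc, fun s hs => ?_, hq.ld j hj, ?_⟩
    · rw [sub_zero] at hs
      exact hq.ny s hs
    · rw [mul_one]
      exact hq.ev j hj
  refine ⟨F, l, hl0, hl1, hl4, fun j hj => ?_, fun j hj => ?_, fun j _ => rfl, fun j _ => rfl,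
    fun j _ => hq.lo, fun j _ => hsg, fun j _ => ?_, ?_, ?_⟩
  · refine ⟨one_pos, hs20, hq.hi, ?_⟩
    have := hadq j hj
    rw [hFT j]
    simp only [hF, CDef480.lat_pt, CDef480.pt_two]
    exact this
  · intro s hs
    simp only [hF] at hs ⊢
    rw [sub_zero] at hs
    have := hq.cpt s hs
    nlinarith
  · unfold Mem.scost
    rw [hFT j, hT0]
    simp only [hF, one_pow, mul_one]
    exact hq.cost
  · intro C a k t h ht
    have h1 := hray C a (k + t) h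
    obtain ⟨j, hj, hbox⟩ := box_cover hr h1 ht
    refine ⟨j, hj, ?_⟩
    rw [Mem.mem_rays, hFT j]
    simp only [hF, CDef480.lat_pt, CDef480.pt_two, mul_one]
    refine ⟨h1.1, fun s hs => ?_⟩
    have hs' : |s| ≤ 1 := by rwa [sub_zero] at hs
    exact ⟨hbox s hs', hq.ray C a k t h1 ht s hs'⟩
  · intro C a k t t' h h' ht ht'
    have h1 := hray C a (k + t) h
    have h2 := hray C a (k + t') h'
    refine hl5 _ (abs_nonneg _) ?_ ?_ ?_
    · refine (abs_sub _ _).trans ?_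
      linarith
    · have a1 := (h1.2 0 (by simp)).1.2.2
      have a2 := (h2.2 0 (by simp)).1.2.2
      rw [ry_add, nrm_add_y, mul_one] at a1 a2
      rw [abs_le] at a1 a2 ⊢
      constructor <;> linarith [a1.1, a1.2, a2.1, a2.2]
    · have a1 := (h1.2 sm (by rwa [sub_zero])).2
      have a2 := (h2.2 sm (by rwa [sub_zero])).2
      rw [ry_add, ev_add_y] at a1 a2
      rw [hnu, ← hsm2, ← abs_mul]
      have e : (t - t') * p.ny sm = (p.ev (rx C a sm) (ry C k sm) sm + t * p.ny sm) -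
        (p.ev (rx C a sm) (ry C k sm) sm + t' * p.ny sm) := by ring
      rw [e]
      refine (abs_sub _ _).trans ?_
      linarith

end Crest.Agent.R116.Fg126
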