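import Crest.Agent.R116.Fg2_126
import Crest.Agent.R116.FlC_337

/-!
# R116 (S0155), K side: `Fl337.FillGeo` (one member, `|t| ≤ r / 2`) (helper126)
-/

set_option autoImplicit false

namespace Crest.Agent.R116.Fg126

open Crest.Agent.R138.Defs (E2)
open Crest.Agent.R116.CDef480 (E3 lat pt)
open Crest.Agent.R116.LZg725
open Crest.Agent.R116.LKMDef299 (LRay Cpt)

/-- choice of `l`. -/
theorem exists_l {M r sg s1 nu : ℝ} (hM : 1 ≤ M) (hr : 0 < r) (hr1 : r ≤ 1) (hs1 : r ≤ s1)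
    (h1sg : s1 ≤ sg) (hnu0 : 0 ≤ nu) (hnuM : nu * sg ≤ M) :
    ∃ l : ℝ, 0 < l ∧ l ≤ 4 * r ∧ l ≤ 2 * sg ^ 2 ∧
      l * nu ≤ 2 * s1 ∧ r ^ 2 ≤ M * l ∧
      ∀ τ : ℝ, 0 ≤ τ → τ ≤ 4 * r → τ ≤ 2 * sg ^ 2 → τ * nu ≤ 2 * s1 → τ ≤ l := by
  have hsg0 : 0 < sg := by linarith
  have hs10 : 0 < s1 := by linarith
  have hM0 : 0 < M := by linarith
  have hr2 : r ^ 2 ≤ 4 * r := by nlinarith
  have hr3 : r ^ 2 ≤ 2 * sg ^ 2 := by nlinarith
  rcases hnu0.eq_or_lt with h0 | h0
  · refine ⟨min (4 * r) (2 * sg ^ 2), by positivity, min_le_left _ _, min_le_right _ _, ?_, ?_,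
      fun τ _ h1 h2 _ => le_min h1 h2⟩
    · rw [← h0, mul_zero]; linarith
    · have h1 := le_min hr2 hr3
      have h2 : 0 ≤ min (4 * r) (2 * sg ^ 2) := by positivity
      nlinarith
  · refine ⟨min (min (4 * r) (2 * sg ^ 2)) (2 * s1 / nu), by positivity,
      (min_le_left _ _).trans (min_le_left _ _), (min_le_left _ _).trans (min_le_right _ _), ?_,
      ?_, fun τ _ h1 h2 h3 => le_min (le_min h1 h2) ?_⟩
    · rw [← le_div_iff₀ h0]; exact min_le_right _ _
    · have h1 : r ^ 2 / M ≤ min (min (4 * r) (2 * sg ^ 2)) (2 * s1 / nu) := by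
        have h2 : r ^ 2 / M ≤ r ^ 2 := div_le_self (sq_nonneg _) hM
        refine le_min (le_min (h2.trans hr2) (h2.trans hr3)) ?_
        rw [div_le_div_iff₀ hM0 h0]
        have h3 : r ^ 2 * nu ≤ s1 * (sg * nu) := by
          have : r ^ 2 ≤ s1 * sg := by nlinarith
          nlinarith
        have h4 : s1 * (sg * nu) ≤ s1 * M := by
          have := mul_le_mul_of_nonneg_left hnuM hs10.le
          linarith
        nlinarith
      rw [div_le_iff₀ hM0] at h1
      linarith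
    · rw [le_div_iff₀ h0]; exact h3

/-- **FILL-GEO** in the form of 337's `FillGeo`. -/
theorem fillGeo {M : ℝ} (hM : 1 ≤ M) : Fl337.FillGeo M (128 * M) (8 * M) := by
  intro r hr hr1 m hok hR hs0 hs1 hsg
  obtain ⟨c, sg, s1, R, X0, s0, p⟩ := m
  simp only at hR hs0 hs1 hsg
  subst hR hs0
  have h1sg : s1 ≤ sg := hok.hsg
  have hsg0 : 0 < sg := by linarith
  have hs10 : 0 < s1 := by linarith
  have hM0 : 0 < M := by linarith
  have hT0 : (Mem.T 0 ⟨c, sg, s1, 1, X0, 0, p⟩ : ℝ) = sg ^ 2 := by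
    unfold Mem.T
    simp only [zero_div]
    exact max_eq_left (sq_nonneg _)
  have had : Adm M c sg (sg ^ 2) 1 (lat X0) (X0 2) 0 p := by
    have := hok.adm
    rw [hT0] at this
    exact this
  have hray : ∀ (C a : E2) (k : ℝ), (C, a, k) ∈ Mem.rays 0 ⟨c, sg, s1, 1, X0, 0, p⟩ →
      RayIn c sg (sg ^ 2) 1 (lat X0) (X0 2) 0 p s1 C a k := by
    intro C a k h
    rw [Mem.mem_rays, hT0, mul_one] at h
    exact h
  set nu : ℝ := |p.g| + 2 * |p.d| with hnu
  have hnu0 : 0 ≤ nu := by positivity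
  obtain ⟨sm, hsm, hsm2⟩ := ny_max p
  have hnuM : nu * sg ≤ M := by
    have h1 := had.ny sm (by rwa [sub_zero])
    rw [hsm2, ← hnu] at h1
    have h2 : nu * sg * sg ≤ M * sg := by nlinarith
    exact le_of_mul_le_mul_right h2 hsg0
  obtain ⟨l, hl0, hl1, hl2, hl3, hl4, hl5⟩ := exists_l hM hr hr1 hs1 h1sg hnu0 hnuM
  have he : ‖(EuclideanSpace.single 0 1 : E2)‖ = 1 := by simp
  obtain ⟨q, s2, hq⟩ := fill_core hM hr hs1 h1sg had he hl0 hl1 hl2 (by rw [← hnu]; exact hl3)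
  have hs20 : 0 < s2 := lt_of_lt_of_le hr hq.lo
  have hdiff : ∀ (C a : E2) (k t t' : ℝ), |t| ≤ r / 2 → |t'| ≤ r / 2 →
      (C, a, k + t) ∈ Mem.rays 0 ⟨c, sg, s1, 1, X0, 0, p⟩ →
      (C, a, k + t') ∈ Mem.rays 0 ⟨c, sg, s1, 1, X0, 0, p⟩ → |t - t'| ≤ l := by
    intro C a k t t' ht ht' h h'
    have h1 := hray C a (k + t) h
    have h2 := hray C a (k + t') h'
    refine hl5 _ (abs_nonneg _) ?_ ?_ ?_
    · refine (abs_sub _ _).trans ?_
      linarith
    · have a1 := (h1.2 0 (by simp)).1.2.2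
      have a2 := (h2.2 0 (by simp)).1.2.2
      rw [ry_add, nrm_add_y, mul_one] at a1 a2
      rw [abs_le] at a1 a2 ⊢
      constructor <;> linarith [a1.1, a1.2, a2.1, a2.2]
    · have a1 := (h1.2 sm (by rwa [sub_zero])).2
      have a2 := (h2.2 sm (by rwa [sub_zero])).2
      rw [ry_add, ev_add_y] at a1 a2
      rw [hnu, ← hsm2, ← abs_mul]
      have e : (t - t') * p.ny sm = (p.ev (rx C a sm) (ry C k sm) sm + t * p.ny sm) -
        (p.ev (rx C a sm) (ry C k sm) sm + t' * p.ny sm) := by ring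
      rw [e]
      refine (abs_sub _ _).trans ?_
      linarith
  -- the parent in the null direction
  have hnull : ∀ (C a : E2) (k t : ℝ), |t| ≤ r / 2 →
      RayIn c sg (sg ^ 2) 1 (lat X0) (X0 2) 0 p s1 C a (k + t) → ∀ s : ℝ, |s - 0| ≤ 1 →
      |nrm c (rx C a s) (ry C k s) s - nrm c (lat X0) (X0 2) 0| ≤ sg ^ 2 + r / 2 := by
    intro C a k t ht h s hs
    have a1 := (h.2 s hs).1.2.2
    rw [ry_add, nrm_add_y, mul_one] at a1
    rw [abs_le] at a1 ht ⊢
    constructor <;> linarith [a1.1, a1.2, ht.1, ht.2]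
  have hev0 := hq.ev 0 (by norm_num)
  have hld0 := hq.ld 0 (by norm_num)
  simp only [Int.cast_zero, zero_mul, add_zero] at hev0 hld0
  have hrl : r ^ 2 ≤ 128 * M * l := by
    have : 0 ≤ M * l := by positivity
    nlinarith
  have hcost := hq.cost
  have hM8 : 0 ≤ M * (r * (s1 * sg * sg ^ 2)) := by positivity
  rcases le_total (sg ^ 2) (r / 2) with hc | hc
  · -- static
    have hT : max (sg ^ 2) r = r := max_eq_right (by linarith)
    have hTm : ∀ X : E3, (Mem.T r ⟨c, sg, s2, 1, X, 0, q⟩ : ℝ) = r := by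
      intro X
      unfold Mem.T
      simp only [div_one]
      exact hT
    refine ⟨⟨c, sg, s2, 1, X0, 0, q⟩, l, ⟨one_pos, hs20, hq.hi, ?_⟩, ?_, rfl, rfl, hq.lo,
      by show sg ≤ 1; linarith, hl0, ?_, hdiff, hrl, ?_⟩
    · rw [hTm]
      refine ⟨hq.disc, fun s hs => ?_, ?_, ?_⟩
      · rw [sub_zero] at hs
        have := hq.ny s hs
        rw [hT] at this
        show |q.ny s| * r ≤ 8 * M * sg
        nlinarith [mul_pos hM0 hsg0]
      · show |q.ld c (lat X0) (X0 2) 0| ≤ 8 * M * sg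
        nlinarith [mul_pos hM0 hsg0]
      · show |q.ev (lat X0) (X0 2) 0| ≤ 8 * M * sg * 1
        nlinarith [mul_pos hM0 hsg0]
    · intro s hs
      simp only [sub_zero] at hs
      have := hq.cpt s hs
      show |q.ny s| * r ≤ 8 * M * (s2 * 1)
      nlinarith
    · intro C a k t ht h
      have h1 := hray C a (k + t) h
      rw [Mem.mem_rays, hTm]
      refine ⟨h1.1, fun s hs => ⟨⟨hs, (h1.2 s hs).1.2.1, ?_⟩, ?_⟩⟩
      · have := hnull C a k t ht h1 s hs
        show _ ≤ r * 1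
        linarith
      · show _ ≤ s2 * 1
        rw [mul_one]
        exact hq.ray C a k t h1 (by linarith) s (by simpa using hs)
    · unfold Mem.scost
      rw [hTm, hT0]
      simp only [one_pow, mul_one]
      rw [hT] at hcost
      nlinarith
  · -- dynamic
    have hT4 : max ((2 * sg) ^ 2) r = 4 * sg ^ 2 := by
      rw [max_eq_left (by nlinarith)]; ring
    have hTm : ∀ X : E3, (Mem.T r ⟨c, 2 * sg, s2, 1, X, 0, q⟩ : ℝ) = 4 * sg ^ 2 := by
      intro X
      unfold Mem.T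
      simp only [div_one]
      exact hT4
    have hTle : sg ^ 2 ≤ max (sg ^ 2) r := le_max_left _ _
    refine ⟨⟨c, 2 * sg, s2, 1, X0, 0, q⟩, l, ⟨one_pos, hs20, ?_, ?_⟩, ?_, rfl, rfl, hq.lo,
      by show 2 * sg ≤ 1; linarith, hl0, ?_, hdiff, hrl, ?_⟩
    · show s2 ≤ 2 * sg
      linarith [hq.hi]
    · rw [hTm]
      refine ⟨hq.disc, fun s hs => ?_, ?_, ?_⟩
      · rw [sub_zero] at hs
        have h1 := hq.ny s hs
        have h2 := mul_le_mul_of_nonneg_left hTle (abs_nonneg (q.ny s))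
        show |q.ny s| * (4 * sg ^ 2) ≤ 8 * M * (2 * sg)
        nlinarith
      · show |q.ld c (lat X0) (X0 2) 0| ≤ 8 * M * (2 * sg)
        nlinarith [mul_pos hM0 hsg0]
      · show |q.ev (lat X0) (X0 2) 0| ≤ 8 * M * (2 * sg) * 1
        nlinarith [mul_pos hM0 hsg0]
    · intro s hs
      simp only [sub_zero] at hs
      have := hq.cpt s hs
      show |q.ny s| * r ≤ 8 * M * (s2 * 1)
      nlinarith
    · intro C a k t ht h
      have h1 := hray C a (k + t) h
      rw [Mem.mem_rays, hTm]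
      refine ⟨h1.1.trans (by show sg ≤ 2 * sg; linarith), fun s hs =>
        ⟨⟨hs, ((h1.2 s hs).1.2.1).trans ?_, ?_⟩, ?_⟩⟩
      · show sg * 1 ≤ 2 * sg * 1
        linarith
      · have := hnull C a k t ht h1 s hs
        show _ ≤ 4 * sg ^ 2 * 1
        nlinarith
      · show _ ≤ s2 * 1
        rw [mul_one]
        exact hq.ray C a k t h1 (by linarith) s (by simpa using hs)
    · unfold Mem.scost
      rw [hTm, hT0]
      simp only [one_pow, mul_one]
      have h2 : l * (s2 * sg * sg ^ 2) ≤ l * (s2 * sg * max (sg ^ 2) r) := by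
        have : 0 ≤ s2 * sg := by positivity
        have := mul_le_mul_of_nonneg_left hTle this
        exact mul_le_mul_of_nonneg_left this hl0.le
      nlinarith

end Crest.Agent.R116.Fg126
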