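import Crest.Agent.R116.LZg4_725

/-!
# R116, (Z4), part 5: closure of the class `SS` (helper725)

Generic (any inner product space `E`): change of centre and direction (`Adm.move`), admissibility
from a ray (`adm_of_ray`), variation of `φ` between neighbouring rays (`ev_near_ray`),
thickening (`rayIn_thick`), two-sided bound of the lateral gradient on slab rays.
-/

set_option autoImplicit false
set_option linter.unusedSectionVars false

namespace Crest.Agent.R116.LZg725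

variable {E : Type*} [NormedAddCommGroup E] [InnerProductSpace ℝ E]
variable {M : ℝ} {c : E} {sg T R : ℝ} {x0 : E} {y0 s0 : ℝ} {p : Cf E}

/-- **change of the centre and of the direction**. -/
theorem Adm.move (h : Adm M c sg T R x0 y0 s0 p) (hR : 0 < R) (hsg : 0 < sg) (hT : sg ^ 2 ≤ T)
    (hM : 1 ≤ M) {c' x1 : E} {y1 s1 : ℝ} (hp : InK c sg T R x0 y0 s0 x1 y1 s1)
    (hc : ‖c' - c‖ ≤ sg) : Adm (8 * M) c' sg T R x1 y1 s1 p := by
  have hM0 : 0 ≤ M := zero_le_one.trans hM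
  have hT0 : 0 ≤ T := (sq_nonneg sg).trans hT
  obtain ⟨h1, h2, h3⟩ := hp
  have hd : 2 * |p.d| * (T * R) ≤ M * sg := h.d_le hR.le hT0
  have hd1 : 2 * |p.d| * R * sg ≤ M :=
    ny_sg_le hsg hT (by positivity) hM0 (by linarith)
  have hny0 := h.ny s0 (by rw [sub_self, abs_zero]; exact hR.le)
  have hny1 := h.ny s1 h1
  have hg := h.gr_le hR hsg hT hM
  have hn0 : |p.ny s1| * sg ≤ M := ny_sg_le hsg hT (abs_nonneg _) hM0 hny1
  have hsR : 0 < sg * R := mul_pos hsg hR
  refine ⟨h.disc, fun s hs => ?_, ?_, ?_⟩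
  · have e : p.ny s = p.ny s1 - 2 * p.d * (s - s1) := by unfold Cf.ny; ring
    have h4 : |p.ny s| ≤ |p.ny s1| + 2 * |p.d| * R := by
      rw [e]
      refine (abs_sub _ _).trans ?_
      rw [abs_mul, abs_mul, abs_of_pos (by norm_num : (0:ℝ) < 2)]
      have := mul_le_mul_of_nonneg_left hs (by positivity : 0 ≤ 2 * |p.d|)
      linarith
    have h5 := mul_le_mul_of_nonneg_right h4 hT0
    nlinarith
  · rw [Cf.ld_dir p c c' x1 y1 s1, Cf.ld_move p c x0 x1 y0 y1 s0 s1]
    have g1 : ‖p.gr c x1 s1‖ ≤ 1 + 3 * M := by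
      rw [Cf.gr_move p c x0 x1 s0 s1]
      refine (norm_add_le _ _).trans ?_
      rw [norm_smul, Real.norm_eq_abs, abs_mul, abs_of_pos (by norm_num : (0:ℝ) < 2)]
      have := mul_le_mul_of_nonneg_left h2 (by positivity : 0 ≤ 2 * |p.d|)
      nlinarith
    have g2 : |inner ℝ (p.gr c x1 s1) (c' - c)| ≤ (1 + 3 * M) * sg :=
      (abs_real_inner_le_norm _ _).trans (mul_le_mul g1 hc (norm_nonneg _) (by linarith))
    have g3 : |p.ny s1 * ‖c' - c‖ ^ 2 / 2| ≤ M * sg := by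
      rw [abs_div, abs_mul, abs_of_nonneg (sq_nonneg ‖c' - c‖), abs_of_pos (two_pos : (0:ℝ) < 2)]
      have a1 : ‖c' - c‖ ^ 2 ≤ sg ^ 2 := pow_le_pow_left₀ (norm_nonneg _) hc 2
      have a2 := mul_le_mul_of_nonneg_left a1 (abs_nonneg (p.ny s1))
      have a3 := mul_le_mul_of_nonneg_right hn0 hsg.le
      nlinarith [abs_nonneg (p.ny s1), sq_nonneg sg]
    have g4 : |2 * p.d * (nrm c x1 y1 s1 - nrm c x0 y0 s0)| ≤ M * sg := by
      rw [abs_mul, abs_mul, abs_of_pos (two_pos : (0:ℝ) < 2)]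
      exact (mul_le_mul_of_nonneg_left h3 (by positivity)).trans hd
    have g5 := h.ld
    calc |p.ld c x0 y0 s0 - 2 * p.d * (nrm c x1 y1 s1 - nrm c x0 y0 s0) -
          inner ℝ (p.gr c x1 s1) (c' - c) + p.ny s1 * ‖c' - c‖ ^ 2 / 2|
        ≤ |p.ld c x0 y0 s0| + |2 * p.d * (nrm c x1 y1 s1 - nrm c x0 y0 s0)| +
          |inner ℝ (p.gr c x1 s1) (c' - c)| + |p.ny s1 * ‖c' - c‖ ^ 2 / 2| := by
          refine (abs_add_le _ _).trans (add_le_add ?_ le_rfl)
          refine (abs_sub _ _).trans (add_le_add ?_ le_rfl)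
          exact abs_sub _ _
      _ ≤ 8 * M * sg := by nlinarith
  · rw [Cf.ev_expand p c x0 y0 s0 x1 y1 s1]
    have g1 : |p.ld c x0 y0 s0 * (s1 - s0)| ≤ M * sg * R := by
      rw [abs_mul]; exact mul_le_mul h.ld h1 (abs_nonneg _) (by positivity)
    have g2 : |inner ℝ (p.gr c x0 s0) ((x1 - x0) + (s1 - s0) • c)| ≤ (1 + 2 * M) * (sg * R) :=
      (abs_real_inner_le_norm _ _).trans (mul_le_mul hg h2 (norm_nonneg _) (by linarith))
    have g3 : |p.ny s0 * (nrm c x1 y1 s1 - nrm c x0 y0 s0)| ≤ M * sg * R := by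
      rw [abs_mul]
      have := mul_le_mul_of_nonneg_left h3 (abs_nonneg (p.ny s0))
      have := mul_le_mul_of_nonneg_right hny0 hR.le
      linarith
    have g4 : |p.d * (‖(x1 - x0) + (s1 - s0) • c‖ ^ 2 -
        2 * (s1 - s0) * (nrm c x1 y1 s1 - nrm c x0 y0 s0))| ≤ 3 / 2 * (M * sg * R) := by
      rw [abs_mul]
      have a1 : ‖(x1 - x0) + (s1 - s0) • c‖ ^ 2 ≤ T * R * R := by
        have b1 := pow_le_pow_left₀ (norm_nonneg _) h2 2
        have b2 := mul_le_mul_of_nonneg_right hT (sq_nonneg R)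
        nlinarith
      have a2 : |2 * (s1 - s0) * (nrm c x1 y1 s1 - nrm c x0 y0 s0)| ≤ 2 * R * (T * R) := by
        rw [abs_mul, abs_mul, abs_of_pos (two_pos : (0:ℝ) < 2)]
        exact mul_le_mul (mul_le_mul_of_nonneg_left h1 two_pos.le) h3 (abs_nonneg _)
          (by positivity)
      have a3 : |‖(x1 - x0) + (s1 - s0) • c‖ ^ 2 -
          2 * (s1 - s0) * (nrm c x1 y1 s1 - nrm c x0 y0 s0)| ≤ 3 * (T * R * R) := by
        refine (abs_sub _ _).trans ?_
        rw [abs_of_nonneg (sq_nonneg ‖(x1 - x0) + (s1 - s0) • c‖)]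
        linarith
      have a4 := mul_le_mul_of_nonneg_left a3 (abs_nonneg p.d)
      have a5 := mul_le_mul_of_nonneg_right hd hR.le
      nlinarith
    have g5 := h.ev
    have e5 : 1 * (sg * R) ≤ M * (sg * R) := mul_le_mul_of_nonneg_right hM hsR.le
    calc _ ≤ |p.ev x0 y0 s0| + |p.ld c x0 y0 s0 * (s1 - s0)| +
          |inner ℝ (p.gr c x0 s0) ((x1 - x0) + (s1 - s0) • c)| +
          |p.ny s0 * (nrm c x1 y1 s1 - nrm c x0 y0 s0)| +
          |p.d * (‖(x1 - x0) + (s1 - s0) • c‖ ^ 2 -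
            2 * (s1 - s0) * (nrm c x1 y1 s1 - nrm c x0 y0 s0))| := by
          refine (abs_add_le _ _).trans (add_le_add ?_ le_rfl)
          refine (abs_add_le _ _).trans (add_le_add ?_ le_rfl)
          refine (abs_add_le _ _).trans (add_le_add ?_ le_rfl)
          exact abs_add_le _ _
      _ ≤ 8 * M * sg * R := by nlinarith

/-- **admissibility from a ray**: normalisation, bound of `∂_y φ`, one ray of the slab. -/
theorem adm_of_ray {m : ℝ} (hR : 0 < R) (hsg : 0 < sg) (hT : sg ^ 2 ≤ T) (hM : 0 ≤ M) (hm : 0 ≤ m)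
    (hdisc : p.disc = 1) (hny : ∀ s, |s - s0| ≤ R → |p.ny s| * T ≤ M * sg) {C a : E} {k : ℝ}
    (hray : RayIn c sg T R x0 y0 s0 p (m * sg * R) C a k) :
    Adm (1 + m + 3 * M + 2 * (M * m)) c sg T R x0 y0 s0 p := by
  have hT0 : 0 ≤ T := (sq_nonneg sg).trans hT
  obtain ⟨hC, hr⟩ := hray
  have hd : 2 * |p.d| * (T * R) ≤ M * sg := d_le_of_ny hR.le hT0 hny
  have hd1 : 2 * |p.d| * R * sg ≤ M :=
    ny_sg_le hsg hT (by positivity) hM (by linarith)
  have hs00 : |s0 - s0| ≤ R := by rw [sub_self, abs_zero]; exact hR.le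
  have hny0 := hny s0 hs00
  have hn0 : |p.ny s0| * sg ≤ M := ny_sg_le hsg hT (abs_nonneg _) hM hny0
  have hsR : 0 < sg * R := mul_pos hsg hR
  have hmM : 0 ≤ M * m := mul_nonneg hM hm
  -- slope along the ray
  have hL : |p.rB C a k| ≤ m * sg := by
    have e1 := (hr (s0 + R) (by rw [add_sub_cancel_left, abs_of_pos hR])).2
    have e2 := (hr (s0 - R) (by rw [sub_sub_cancel_left, abs_neg, abs_of_pos hR])).2
    rw [Cf.ev_ray] at e1 e2
    have e3 : 2 * R * p.rB C a k = (p.rA a k + (s0 + R) * p.rB C a k) -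
        (p.rA a k + (s0 - R) * p.rB C a k) := by ring
    have e4 : |2 * R * p.rB C a k| ≤ 2 * (m * sg * R) := by
      rw [e3]; exact (abs_sub _ _).trans (by linarith)
    rw [abs_mul, abs_of_pos (by linarith : 0 < 2 * R)] at e4
    nlinarith
  have hq := hr s0 hs00
  obtain ⟨⟨-, hq2, hq3⟩, hq4⟩ := hq
  set x := rx C a s0 with hx
  set y := ry C k s0 with hy
  have hLd : p.ld C x y s0 = p.rB C a k := Cf.ld_ray p C a k s0
  rw [sub_self, zero_smul, add_zero] at hq2
  have hgs := gr_sq_near (x := x) (y := y) (C := C) hR hsg hT hM hm hdisc hny0 hd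
    (by rw [hLd]; exact hL) hq4
  have hg : ‖p.gr C x s0‖ ≤ 1 + 2 * (M * m) := norm_le_of_sq_near hmM hgs
  have hCc : ‖c - C‖ ≤ sg := by rw [norm_sub_rev]; exact hC
  have hgc : ‖p.gr c x s0‖ ≤ 1 + 2 * (M * m) + M := by
    rw [Cf.gr_dir p C c x s0]
    refine (norm_sub_le _ _).trans (add_le_add hg ?_)
    rw [norm_smul, Real.norm_eq_abs]
    exact (mul_le_mul_of_nonneg_left hCc (abs_nonneg _)).trans hn0
  have hq3' : |nrm c x0 y0 s0 - nrm c x y s0| ≤ T * R := by rw [abs_sub_comm]; exact hq3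
  refine ⟨hdisc, fun s hs => (hny s hs).trans ?_, ?_, ?_⟩
  · exact mul_le_mul_of_nonneg_right (by linarith) hsg.le
  · rw [Cf.ld_move p c x x0 y y0 s0 s0, Cf.ld_dir p C c x y s0, hLd]
    have g1 : |inner ℝ (p.gr C x s0) (c - C)| ≤ (1 + 2 * (M * m)) * sg :=
      (abs_real_inner_le_norm _ _).trans (mul_le_mul hg hCc (norm_nonneg _) (by linarith))
    have g3 : |p.ny s0 * ‖c - C‖ ^ 2 / 2| ≤ M * sg := by
      rw [abs_div, abs_mul, abs_of_nonneg (sq_nonneg ‖c - C‖), abs_of_pos (two_pos : (0:ℝ) < 2)]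
      have a1 : ‖c - C‖ ^ 2 ≤ sg ^ 2 := pow_le_pow_left₀ (norm_nonneg _) hCc 2
      have a2 := mul_le_mul_of_nonneg_left a1 (abs_nonneg (p.ny s0))
      have a3 := mul_le_mul_of_nonneg_right hn0 hsg.le
      nlinarith [abs_nonneg (p.ny s0), sq_nonneg sg]
    have g4 : |2 * p.d * (nrm c x0 y0 s0 - nrm c x y s0)| ≤ M * sg := by
      rw [abs_mul, abs_mul, abs_of_pos (two_pos : (0:ℝ) < 2)]
      exact (mul_le_mul_of_nonneg_left hq3' (by positivity)).trans hd
    calc |p.rB C a k - inner ℝ (p.gr C x s0) (c - C) + p.ny s0 * ‖c - C‖ ^ 2 / 2 -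
          2 * p.d * (nrm c x0 y0 s0 - nrm c x y s0)|
        ≤ |p.rB C a k| + |inner ℝ (p.gr C x s0) (c - C)| + |p.ny s0 * ‖c - C‖ ^ 2 / 2| +
          |2 * p.d * (nrm c x0 y0 s0 - nrm c x y s0)| := by
          refine (abs_sub _ _).trans (add_le_add ?_ le_rfl)
          refine (abs_add_le _ _).trans (add_le_add ?_ le_rfl)
          exact abs_sub _ _
      _ ≤ (1 + m + 3 * M + 2 * (M * m)) * sg := by nlinarith
  · rw [Cf.ev_expand p c x y s0 x0 y0 s0, sub_self, zero_smul, add_zero, mul_zero, add_zero]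
    have hq2' : ‖x0 - x‖ ≤ sg * R := by rw [norm_sub_rev]; exact hq2
    have g2 : |inner ℝ (p.gr c x s0) (x0 - x)| ≤ (1 + 2 * (M * m) + M) * (sg * R) :=
      (abs_real_inner_le_norm _ _).trans (mul_le_mul hgc hq2' (norm_nonneg _) (by linarith))
    have g3 : |p.ny s0 * (nrm c x0 y0 s0 - nrm c x y s0)| ≤ M * sg * R := by
      rw [abs_mul]
      have := mul_le_mul_of_nonneg_left hq3' (abs_nonneg (p.ny s0))
      have := mul_le_mul_of_nonneg_right hny0 hR.le
      linarith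
    have g4 : |p.d * (‖x0 - x‖ ^ 2 - 2 * 0 * (nrm c x0 y0 s0 - nrm c x y s0))| ≤
        1 / 2 * (M * sg * R) := by
      rw [mul_zero, zero_mul, sub_zero, abs_mul, abs_of_nonneg (sq_nonneg ‖x0 - x‖)]
      have a1 : ‖x0 - x‖ ^ 2 ≤ T * R * R := by
        have b1 := pow_le_pow_left₀ (norm_nonneg _) hq2' 2
        have b2 := mul_le_mul_of_nonneg_right hT (sq_nonneg R)
        nlinarith
      have a4 := mul_le_mul_of_nonneg_left a1 (abs_nonneg p.d)
      have a5 := mul_le_mul_of_nonneg_right hd hR.le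
      nlinarith
    calc _ ≤ |p.ev x y s0| + |inner ℝ (p.gr c x s0) (x0 - x)| +
          |p.ny s0 * (nrm c x0 y0 s0 - nrm c x y s0)| +
          |p.d * (‖x0 - x‖ ^ 2 - 2 * 0 * (nrm c x0 y0 s0 - nrm c x y s0))| := by
          refine (abs_add_le _ _).trans (add_le_add ?_ le_rfl)
          refine (abs_add_le _ _).trans (add_le_add ?_ le_rfl)
          exact abs_add_le _ _
      _ ≤ (1 + m + 3 * M + 2 * (M * m)) * sg * R := by
          have e6 : 0 ≤ M * (sg * R) := mul_nonneg hM hsR.le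
          have e7 : (1 + m + 3 * M + 2 * (M * m)) * sg * R =
              m * sg * R + (1 + 2 * (M * m) + M) * (sg * R) + M * sg * R +
                1 / 2 * (M * sg * R) + 1 / 2 * (M * (sg * R)) := by ring
          rw [e7]
          linarith only [hq4, g2, g3, g4, e6]

end Crest.Agent.R116.LZg725
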