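import Crest.Agent.R116.LKMDef_299
import Crest.Agent.R116.LZg5_725

/-!
# R116 (S0155), K side: FILL-GEO (helper139, literal of helper439)

Every grid ray `(C, a, k)` of the enemy is replaced by the rays `(C, a, k + t)`, `|t| ≤ r/2`.
A member `m` with resolution `B = 0` (`T = sg²`), `R = 1`, `s0 = 0`, `r ≤ s1`, `sg ≤ 1/8`:
the parents of the filled rays of `m` lie in ONE member `m'` with resolution `B = r`
(compatible, `Cpt`), every parent has filled rays in a `t`-interval of length `≤ l`, and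
`l * scost m' ≤ 256 r * scost m`, `r² ≤ (1 + M) l`.
-/

set_option autoImplicit false

namespace Crest.Agent.R116.Fil139

open Crest.Agent.R138.Defs (E2)
open Crest.Agent.R116.CDef480 (E3 lat pt)
open Crest.Agent.R116.LZg725
open Crest.Agent.R116.LKMDef299 (Cpt LRay)

section gen

variable {E : Type*} [NormedAddCommGroup E] [InnerProductSpace ℝ E]

theorem ev_shift (p : Cf E) (x : E) (y t s : ℝ) : p.ev x (y + t) s = p.ev x y s + t * p.ny s := by
  unfold Cf.ev Cf.ny; ring

theorem ry_shift (C : E) (k t s : ℝ) : ry C (k + t) s = ry C k s + t := by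
  unfold ry; ring

theorem nrm_shift (C x : E) (y t s : ℝ) : nrm C x (y + t) s = nrm C x y s + t := by
  unfold nrm; ring

/-- flat conformal function `⟨b, Δx + s c⟩`. -/
noncomputable def flat (b c x0 : E) : Cf E := ⟨-inner ℝ b x0, inner ℝ b c, b, 0, 0⟩

theorem ev_flat (b c x0 x : E) (y s : ℝ) :
    (flat b c x0).ev x y s = inner ℝ b ((x - x0) + s • c) := by
  unfold flat Cf.ev
  simp only []
  rw [inner_add_right, inner_sub_right, real_inner_smul_right]
  ring

theorem disc_flat (b c x0 : E) : (flat b c x0).disc = ‖b‖ ^ 2 := by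
  unfold flat Cf.disc; simp

theorem ny_flat (b c x0 : E) (s : ℝ) : (flat b c x0).ny s = 0 := by
  unfold flat Cf.ny; simp

theorem ld_flat (b c x0 x : E) (y s : ℝ) : (flat b c x0).ld c x y s = 0 := by
  unfold Cf.ld
  rw [ny_flat]
  unfold flat
  simp

theorem ev_flat_self (b c x0 : E) (y : ℝ) : (flat b c x0).ev x0 y 0 = 0 := by
  rw [ev_flat]; simp

/-- the flat function is admissible. -/
theorem adm_flat {b c x0 : E} (hb : ‖b‖ = 1) {M sg T : ℝ} (y0 : ℝ) (hM : 0 ≤ M) (hsg : 0 ≤ sg) :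
    Adm M c sg T 1 x0 y0 0 (flat b c x0) := by
  refine ⟨by rw [disc_flat, hb]; norm_num, fun s _ => ?_, ?_, ?_⟩
  · rw [ny_flat, abs_zero, zero_mul]; positivity
  · rw [ld_flat, abs_zero]; positivity
  · rw [ev_flat_self, abs_zero]; positivity

/-- sup of `|∂_y φ|` on `[-1, 1]`. -/
noncomputable def nu (p : Cf E) : ℝ := max |p.ny 1| |p.ny (-1)|

theorem nu_nonneg (p : Cf E) : 0 ≤ nu p := (abs_nonneg _).trans (le_max_left _ _)

theorem ny_le_nu (p : Cf E) {s : ℝ} (hs : |s| ≤ 1) : |p.ny s| ≤ nu p := by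
  obtain ⟨h1, h2⟩ := abs_le.1 hs
  have e : p.ny s = (1 + s) / 2 * p.ny 1 + (1 - s) / 2 * p.ny (-1) := by unfold Cf.ny; ring
  rw [e]
  refine (abs_add_le _ _).trans ?_
  rw [abs_mul, abs_mul, abs_of_nonneg (by linarith : 0 ≤ (1 + s) / 2),
    abs_of_nonneg (by linarith : 0 ≤ (1 - s) / 2)]
  have h3 : |p.ny 1| ≤ nu p := le_max_left _ _
  have h4 : |p.ny (-1)| ≤ nu p := le_max_right _ _
  nlinarith [nu_nonneg p]

theorem two_d_le_nu (p : Cf E) : 2 * |p.d| ≤ nu p := by
  have e : p.ny (-1) - p.ny 1 = 4 * p.d := by unfold Cf.ny; ring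
  have h1 : |4 * p.d| ≤ |p.ny (-1)| + |p.ny 1| := by rw [← e]; exact abs_sub _ _
  rw [abs_mul, abs_of_pos (by norm_num : (0:ℝ) < 4)] at h1
  have h3 : |p.ny 1| ≤ nu p := le_max_left _ _
  have h4 : |p.ny (-1)| ≤ nu p := le_max_right _ _
  linarith

theorem nu_eq (p : Cf E) : ∃ s : ℝ, |s| ≤ 1 ∧ |p.ny s| = nu p := by
  rcases le_total |p.ny 1| |p.ny (-1)| with h | h
  · exact ⟨-1, by norm_num, (max_eq_right h).symm⟩
  · exact ⟨1, by norm_num, (max_eq_left h).symm⟩

/-- two shifts of one ray in the slab: `|t - t'| ν ≤ 2 w`. -/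
theorem shift_slab {c : E} {sg T : ℝ} {x0 : E} {y0 : ℝ} {p : Cf E} {w : ℝ} {C a : E} {k t t' : ℝ}
    (h : RayIn c sg T 1 x0 y0 0 p w C a (k + t)) (h' : RayIn c sg T 1 x0 y0 0 p w C a (k + t')) :
    |t - t'| * nu p ≤ 2 * w := by
  obtain ⟨s, hs, e⟩ := nu_eq p
  have hs' : |s - 0| ≤ 1 := by rwa [sub_zero]
  have h1 := (h.2 s hs').2
  have h2 := (h'.2 s hs').2
  rw [ry_shift, ev_shift] at h1 h2
  rw [← e, ← abs_mul]
  have e2 : (t - t') * p.ny s = (p.ev (rx C a s) (ry C k s) s + t * p.ny s) -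
      (p.ev (rx C a s) (ry C k s) s + t' * p.ny s) := by ring
  rw [e2]
  exact (abs_sub _ _).trans (by linarith)

/-- two shifts of one ray in the box: `|t - t'| ≤ 2 T`. -/
theorem shift_box {c : E} {sg T : ℝ} {x0 : E} {y0 : ℝ} {p : Cf E} {w : ℝ} {C a : E} {k t t' : ℝ}
    (h : RayIn c sg T 1 x0 y0 0 p w C a (k + t)) (h' : RayIn c sg T 1 x0 y0 0 p w C a (k + t')) :
    |t - t'| ≤ 2 * T := by
  have hs' : |(0:ℝ) - 0| ≤ 1 := by norm_num
  have h1 := (h.2 0 hs').1.2.2
  have h2 := (h'.2 0 hs').1.2.2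
  rw [ry_shift, nrm_shift, mul_one] at h1 h2
  have e2 : t - t' = (nrm c (rx C a 0) (ry C k 0) 0 + t - nrm c x0 y0 0) -
      (nrm c (rx C a 0) (ry C k 0) 0 + t' - nrm c x0 y0 0) := by ring
  rw [e2]
  exact (abs_sub _ _).trans (by linarith)

/-- case (i): `r ≤ 8 sg²`: the parent lies in the fourfold box. -/
theorem inK_parent {c : E} {sg r : ℝ} {x0 : E} {y0 : ℝ} {x : E} {y s t : ℝ}
    (h : InK c sg (sg ^ 2) 1 x0 y0 0 x (y + t) s) (ht : |t| ≤ r / 2) (hr : r ≤ 8 * sg ^ 2)
    (hsg : 0 ≤ sg) : InK c (4 * sg) (16 * sg ^ 2) 1 x0 y0 0 x y s := by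
  obtain ⟨h1, h2, h3⟩ := h
  refine ⟨h1, h2.trans (by linarith), ?_⟩
  rw [nrm_shift] at h3
  have e : nrm c x y s - nrm c x0 y0 0 = (nrm c x y s + t - nrm c x0 y0 0) - t := by ring
  rw [e]
  refine (abs_sub _ _).trans ?_
  nlinarith [sq_nonneg sg]

/-- the null normal w.r.t. a second direction, two points at the same time. -/
theorem nrm_two (c C x x' : E) (y y' s : ℝ) :
    nrm C x y s - nrm C x' y' s = (nrm c x y s - nrm c x' y' s) + inner ℝ (C - c) (x - x') := by
  have h1 := nrm_sub c C x y s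
  have h2 := nrm_sub c C x' y' s
  have e : inner ℝ (C - c) (x - x') = inner ℝ (C - c) (x + s • c) - inner ℝ (C - c) (x' + s • c) := by
    rw [← inner_sub_right]; congr 1; module
  rw [e]
  linarith

/-- displacement from the central ray: `w = x(s) - x*(s)` and null displacement. -/
theorem frame_ray {c : E} {sg T : ℝ} {x0 : E} {y0 : ℝ} {Cs as : E} {ks s : ℝ} {x : E} {y : ℝ}
    (hCs : ‖Cs - c‖ ≤ sg) (hs : InK c sg T 1 x0 y0 0 (rx Cs as s) (ry Cs ks s) s)
    (h : InK c sg T 1 x0 y0 0 x y s) :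
    ‖(x - as) + s • Cs‖ ≤ 2 * sg ∧
      |nrm Cs x y s - nrm Cs as ks 0| ≤ 2 * T + 2 * sg ^ 2 := by
  obtain ⟨-, h2, h3⟩ := h
  obtain ⟨-, g2, g3⟩ := hs
  rw [mul_one] at h2 h3 g2 g3
  have hsg : 0 ≤ sg := (norm_nonneg _).trans hCs
  have e1 : (x - as) + s • Cs = ((x - x0) + (s - 0) • c) - ((rx Cs as s - x0) + (s - 0) • c) := by
    unfold rx; module
  have k1 : ‖(x - as) + s • Cs‖ ≤ 2 * sg := by
    rw [e1]
    exact (norm_sub_le _ _).trans (by linarith)
  refine ⟨k1, ?_⟩
  have e2 : nrm Cs as ks 0 = nrm Cs (rx Cs as s) (ry Cs ks s) s := by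
    rw [nrm_ray]; unfold nrm; ring
  have e3 : x - rx Cs as s = (x - as) + s • Cs := by unfold rx; module
  rw [e2, nrm_two c Cs x (rx Cs as s) y (ry Cs ks s) s, e3]
  refine (abs_add_le _ _).trans ?_
  have a1 : |nrm c x y s - nrm c (rx Cs as s) (ry Cs ks s) s| ≤ 2 * T := by
    have e4 : nrm c x y s - nrm c (rx Cs as s) (ry Cs ks s) s =
        (nrm c x y s - nrm c x0 y0 0) - (nrm c (rx Cs as s) (ry Cs ks s) s - nrm c x0 y0 0) := by
      ring
    rw [e4]
    exact (abs_sub _ _).trans (by linarith)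
  have a2 : |inner ℝ (Cs - c) ((x - as) + s • Cs)| ≤ 2 * sg ^ 2 := by
    refine (abs_real_inner_le_norm _ _).trans ?_
    have := mul_le_mul hCs k1 (norm_nonneg _) hsg
    nlinarith
  linarith

/-- case (ii): the lateral part of `φ` in the frame of a ray of the member is small on the member. -/
theorem lateral_small {c : E} {sg : ℝ} {x0 : E} {y0 : ℝ} {p : Cf E} {w : ℝ} {Cs as : E} {ks : ℝ}
    {s : ℝ} {x : E} {y : ℝ} (hs1 : |s| ≤ 1)
    (hstar : RayIn c sg (sg ^ 2) 1 x0 y0 0 p w Cs as ks)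
    (h : InK c sg (sg ^ 2) 1 x0 y0 0 x y s) (hp : |p.ev x y s| ≤ w) :
    |inner ℝ (p.gr Cs as 0) ((x - as) + s • Cs)| ≤ 3 * w + 10 * (nu p * sg ^ 2) := by
  have hs' : |s - 0| ≤ 1 := by rwa [sub_zero]
  have h0' : |(0:ℝ) - 0| ≤ 1 := by norm_num
  obtain ⟨k1, k2⟩ := frame_ray hstar.1 (hstar.2 s hs').1 h
  have hexp := Cf.ev_expand p Cs as ks 0 x y s
  rw [sub_zero] at hexp
  have c0 : |p.ev as ks 0| ≤ w := by
    have := (hstar.2 0 h0').2
    unfold rx ry at this
    simpa using this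
  have hB : |p.ld Cs as ks 0| ≤ w := by
    have e1 : p.ld Cs as ks 0 = p.rB Cs as ks := by
      have := Cf.ld_ray p Cs as ks 0
      unfold rx ry at this
      simpa using this
    rw [e1]
    have e2 := (hstar.2 1 (by norm_num)).2
    have e3 := (hstar.2 (-1) (by norm_num)).2
    rw [Cf.ev_ray] at e2 e3
    have e4 : 2 * p.rB Cs as ks = (p.rA as ks + 1 * p.rB Cs as ks) -
        (p.rA as ks + -1 * p.rB Cs as ks) := by ring
    have e5 : |2 * p.rB Cs as ks| ≤ 2 * w := by
      rw [e4]; exact (abs_sub _ _).trans (by linarith)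
    rw [abs_mul, abs_of_pos (two_pos : (0:ℝ) < 2)] at e5
    linarith
  have hw : 0 ≤ w := (abs_nonneg _).trans c0
  have hnu := nu_nonneg p
  have hn0 : |p.ny 0| ≤ nu p := ny_le_nu p (by norm_num)
  have hd := two_d_le_nu p
  have a1 : |p.ld Cs as ks 0 * s| ≤ w := by
    rw [abs_mul]
    have := mul_le_mul hB hs1 (abs_nonneg _) hw
    linarith
  have a2 : |p.ny 0 * (nrm Cs x y s - nrm Cs as ks 0)| ≤ nu p * (4 * sg ^ 2) := by
    rw [abs_mul]
    exact mul_le_mul hn0 (k2.trans (by linarith)) (abs_nonneg _) hnu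
  have a3 : |p.d * (‖(x - as) + s • Cs‖ ^ 2 - 2 * s * (nrm Cs x y s - nrm Cs as ks 0))| ≤
      nu p / 2 * (12 * sg ^ 2) := by
    rw [abs_mul]
    have b1 : ‖(x - as) + s • Cs‖ ^ 2 ≤ 4 * sg ^ 2 := by
      have := pow_le_pow_left₀ (norm_nonneg _) k1 2
      nlinarith
    have b2 : |2 * s * (nrm Cs x y s - nrm Cs as ks 0)| ≤ 8 * sg ^ 2 := by
      rw [abs_mul, abs_mul, abs_of_pos (two_pos : (0:ℝ) < 2)]
      have := mul_le_mul hs1 k2 (abs_nonneg _) zero_le_one
      nlinarith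
    have b3 : |‖(x - as) + s • Cs‖ ^ 2 - 2 * s * (nrm Cs x y s - nrm Cs as ks 0)| ≤
        12 * sg ^ 2 := by
      refine (abs_sub _ _).trans ?_
      rw [abs_of_nonneg (sq_nonneg ‖(x - as) + s • Cs‖)]
      linarith
    exact mul_le_mul (by linarith) b3 (abs_nonneg _) (by positivity)
  have e : inner ℝ (p.gr Cs as 0) ((x - as) + s • Cs) = p.ev x y s - p.ev as ks 0 -
      p.ld Cs as ks 0 * s - p.ny 0 * (nrm Cs x y s - nrm Cs as ks 0) -
      p.d * (‖(x - as) + s • Cs‖ ^ 2 - 2 * s * (nrm Cs x y s - nrm Cs as ks 0)) := by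
    rw [hexp]; ring
  rw [e]
  calc _ ≤ |p.ev x y s| + |p.ev as ks 0| + |p.ld Cs as ks 0 * s| +
        |p.ny 0 * (nrm Cs x y s - nrm Cs as ks 0)| +
        |p.d * (‖(x - as) + s • Cs‖ ^ 2 - 2 * s * (nrm Cs x y s - nrm Cs as ks 0))| := by
        refine (abs_sub _ _).trans (add_le_add ?_ le_rfl)
        refine (abs_sub _ _).trans (add_le_add ?_ le_rfl)
        refine (abs_sub _ _).trans (add_le_add ?_ le_rfl)
        exact abs_sub _ _
    _ ≤ 3 * w + 10 * (nu p * sg ^ 2) := by linarith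

/-- if the lateral gradient at the central ray is short, then `20 ν sg² ≥ 2 sg`. -/
theorem short_gr {p : Cf E} {c : E} {sg : ℝ} {x0 : E} {y0 : ℝ} {w : ℝ} {Cs as : E} {ks : ℝ}
    (hdisc : p.disc = 1) (hstar : RayIn c sg (sg ^ 2) 1 x0 y0 0 p w Cs as ks)
    (hw : w ≤ sg) (hsg : 0 < sg) (hB : ‖p.gr Cs as 0‖ < 1 / 2) :
    2 * sg ≤ 20 * (nu p * sg ^ 2) := by
  have h0' : |(0:ℝ) - 0| ≤ 1 := by norm_num
  have c0 : |p.ev as ks 0| ≤ w := by
    have := (hstar.2 0 h0').2
    unfold rx ry at this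
    simpa using this
  have hL : |p.ld Cs as ks 0| ≤ w := by
    have e1 : p.ld Cs as ks 0 = p.rB Cs as ks := by
      have := Cf.ld_ray p Cs as ks 0
      unfold rx ry at this
      simpa using this
    rw [e1]
    have e2 := (hstar.2 1 (by norm_num)).2
    have e3 := (hstar.2 (-1) (by norm_num)).2
    rw [Cf.ev_ray] at e2 e3
    have e4 : 2 * p.rB Cs as ks = (p.rA as ks + 1 * p.rB Cs as ks) -
        (p.rA as ks + -1 * p.rB Cs as ks) := by ring
    have e5 : |2 * p.rB Cs as ks| ≤ 2 * w := by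
      rw [e4]; exact (abs_sub _ _).trans (by linarith)
    rw [abs_mul, abs_of_pos (two_pos : (0:ℝ) < 2)] at e5
    linarith
  have hnu := nu_nonneg p
  have hn0 : |p.ny 0| ≤ nu p := ny_le_nu p (by norm_num)
  have hd := two_d_le_nu p
  have h1 := Cf.norm_gr_sq p Cs as ks 0
  rw [hdisc] at h1
  have h2 : ‖p.gr Cs as 0‖ ^ 2 < 1 / 4 := by nlinarith [norm_nonneg (p.gr Cs as 0)]
  have h3 : |p.ny 0 * p.ld Cs as ks 0| ≤ nu p * sg := by
    rw [abs_mul]; exact mul_le_mul hn0 (hL.trans hw) (abs_nonneg _) hnu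
  have h4 : |p.d * p.ev as ks 0| ≤ nu p / 2 * sg := by
    rw [abs_mul]; exact mul_le_mul (by linarith) (c0.trans hw) (abs_nonneg _) (by positivity)
  have h5 := (abs_le.1 h3).1
  have h6 := (abs_le.1 h4).1
  have h7 : 3 / 4 < 4 * (nu p * sg) := by nlinarith
  nlinarith

end gen

theorem exists_unit : ∃ e : E2, ‖e‖ = 1 := by
  refine ⟨EuclideanSpace.single 0 1, ?_⟩
  simp

/-- **FILL-GEO**. -/
theorem fill_geo {M r : ℝ} (hM : 0 ≤ M) (hr : 0 < r) (hr1 : r ≤ 1) {m : Mem} (h : m.Ok M 0)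
    (hR : m.R = 1) (hs0 : m.s0 = 0) (h1 : r ≤ m.s1) (h8 : m.sg ≤ 1 / 8) :
    ∃ (m' : Mem) (l : ℝ), m'.Ok (4 * (M + 1)) r ∧ Cpt (4 * (M + 1)) r m' ∧ m'.R = 1 ∧ m'.s0 = 0 ∧
      r ≤ m'.s1 ∧ m'.sg ≤ 1 ∧ 0 < l ∧
      (∀ (C a : E2) (k t : ℝ), |t| ≤ r / 2 → ((C, a, k + t) : LRay) ∈ m.rays 0 →
        ((C, a, k) : LRay) ∈ m'.rays r) ∧
      (∀ (C a : E2) (k t t' : ℝ), |t| ≤ r / 2 → |t'| ≤ r / 2 →
        ((C, a, k + t) : LRay) ∈ m.rays 0 → ((C, a, k + t') : LRay) ∈ m.rays 0 → |t - t'| ≤ l) ∧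
      r ^ 2 ≤ (1 + M) * l ∧ l * m'.scost r ≤ 256 * (r * m.scost 0) := by
  obtain ⟨e0, he0⟩ := exists_unit
  have hsg : 0 < m.sg := h.sg_pos
  have hs1 : 0 < m.s1 := h.hs1
  have hle : m.s1 ≤ m.sg := h.hsg
  have hT0 : m.T 0 = m.sg ^ 2 := by
    unfold Mem.T; rw [zero_div]; exact max_eq_left (sq_nonneg _)
  have hadm := h.adm
  rw [hT0, hR, hs0] at hadm
  set sg := m.sg with hsgd
  set s1 := m.s1 with hs1d
  set p := m.phi with hpd
  have hnu := nu_nonneg p
  have hnuM : nu p * sg ≤ M := by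
    obtain ⟨s, hs, e⟩ := nu_eq p
    have h2 := hadm.ny s (by rwa [sub_zero])
    rw [e] at h2
    exact ny_sg_le hsg le_rfl hnu hM h2
  have hmem : ∀ C a k, ((C, a, k) : LRay) ∈ m.rays 0 →
      RayIn m.c sg (sg ^ 2) 1 (lat m.X0) (m.X0 2) 0 p s1 C a k := by
    intro C a k hk
    have h2 := Mem.mem_rays.1 hk
    rw [hT0, hR, hs0, mul_one] at h2
    exact h2
  have hsc : m.scost 0 = s1 * sg ^ 3 := by
    unfold Mem.scost; rw [hT0, hR]; ring
  have hrsg : r ≤ sg := h1.trans hle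
  have hr2 : r ^ 2 ≤ s1 * sg := by nlinarith
  have hM4 : 0 ≤ 4 * (M + 1) := by linarith
  by_cases hcase : r ≤ 8 * sg ^ 2
  · -- case (i)
    set X : ℝ := 2 * s1 + nu p * r with hX
    have hXpos : 0 < X := by positivity
    have hTm : ∀ (m' : Mem), m'.sg = 4 * sg → m'.R = 1 → m'.T r = 16 * sg ^ 2 := by
      intro m' e1 e2
      unfold Mem.T
      rw [e1, e2, div_one]
      rw [max_eq_left (by nlinarith)]
      ring
    have hlpos : 0 < 4 * r * s1 / X := by positivity
    have hlX : 4 * r * s1 / X * X = 4 * r * s1 := by field_simp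
    have hl2 : ∀ (C a : E2) (k t t' : ℝ), |t| ≤ r / 2 → |t'| ≤ r / 2 →
        ((C, a, k + t) : LRay) ∈ m.rays 0 → ((C, a, k + t') : LRay) ∈ m.rays 0 →
        |t - t'| ≤ 4 * r * s1 / X := by
      intro C a k t t' ht ht' hk hk'
      have a1 := shift_slab (hmem _ _ _ hk) (hmem _ _ _ hk')
      have a2 : |t - t'| ≤ r := (abs_sub _ _).trans (by linarith)
      rw [le_div_iff₀ hXpos, hX]
      nlinarith [abs_nonneg (t - t')]
    have hr2l : r ^ 2 ≤ (1 + M) * (4 * r * s1 / X) := by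
      rw [← mul_div_assoc, le_div_iff₀ hXpos, hX]
      have b1 : nu p * r ≤ M := (mul_le_mul_of_nonneg_left hrsg hnu).trans hnuM
      have b2 : nu p * r * r ^ 2 ≤ M * (r * s1) := by
        have b3 : r ^ 2 ≤ r * s1 := by nlinarith
        exact mul_le_mul b1 b3 (by positivity) hM
      have b4 : r ^ 2 * (2 * s1) ≤ 2 * (r * s1) := by nlinarith [mul_pos hr hs1]
      nlinarith [mul_pos hr hs1, mul_nonneg hM (mul_pos hr hs1).le]
    have hbox : ∀ (C a : E2) (k t : ℝ), |t| ≤ r / 2 → ((C, a, k + t) : LRay) ∈ m.rays 0 →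
        ‖C - m.c‖ ≤ 4 * sg ∧ ∀ s, |s - 0| ≤ 1 →
        InK m.c (4 * sg) (16 * sg ^ 2) 1 (lat m.X0) (m.X0 2) 0 (rx C a s) (ry C k s) s := by
      intro C a k t ht hk
      have a1 := hmem _ _ _ hk
      refine ⟨a1.1.trans (by linarith), fun s hs => ?_⟩
      have a2 := (a1.2 s hs).1
      rw [ry_shift] at a2
      exact inK_parent a2 ht hcase hsg.le
    by_cases hcut : X ≤ 4 * sg
    · -- the slab is kept
      refine ⟨⟨m.c, 4 * sg, X, 1, m.X0, 0, p⟩, 4 * r * s1 / X, ⟨one_pos, hXpos, hcut, ?_⟩, ?_, rfl,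
        rfl, ?_, ?_, hlpos, ?_, hl2, hr2l, ?_⟩
      · rw [hTm _ rfl rfl]
        refine ⟨hadm.disc, fun s hs => ?_, ?_, ?_⟩
        · have a1 := hadm.ny s hs
          simp only
          nlinarith
        · have a1 := hadm.ld
          simp only
          nlinarith
        · have a1 := hadm.ev
          simp only
          nlinarith
      · intro s hs
        simp only [sub_zero] at hs ⊢
        have a1 := mul_le_mul_of_nonneg_right (ny_le_nu p hs) hr.le
        nlinarith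
      · simp only; rw [hX]; nlinarith [mul_nonneg hnu hr.le]
      · simp only; linarith
      · intro C a k t ht hk
        obtain ⟨b1, b2⟩ := hbox C a k t ht hk
        rw [Mem.mem_rays, hTm _ rfl rfl]
        refine ⟨b1, fun s hs => ⟨b2 s hs, ?_⟩⟩
        simp only [mul_one]
        have a1 := ((hmem _ _ _ hk).2 s hs).2
        rw [ry_shift, ev_shift] at a1
        have e1 : p.ev (rx C a s) (ry C k s) s = (p.ev (rx C a s) (ry C k s) s + t * p.ny s) -
          t * p.ny s := by ring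
        rw [e1]
        refine (abs_sub _ _).trans ?_
        have a2 : |t * p.ny s| ≤ r / 2 * nu p := by
          rw [abs_mul]
          rw [sub_zero] at hs
          exact mul_le_mul ht (ny_le_nu p hs) (abs_nonneg _) (by linarith)
        rw [hX]
        nlinarith [mul_nonneg hnu hr.le]
      · unfold Mem.scost
        rw [hTm _ rfl rfl, hT0, hR]
        simp only
        have e1 : 4 * r * s1 / X * (X * (4 * sg) * (16 * sg ^ 2) * 1 ^ 3) =
            (4 * r * s1 / X * X) * (64 * sg ^ 3) := by ring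
        rw [e1, hlX]
        nlinarith [mul_pos (mul_pos hr hs1) (pow_pos hsg 3)]
    · -- the cut is dropped
      rw [not_le] at hcut
      refine ⟨⟨m.c, 4 * sg, 4 * sg, 1, m.X0, 0, flat e0 m.c (lat m.X0)⟩, 4 * r * s1 / X,
        ⟨one_pos, by simp only; linarith, le_rfl, ?_⟩, ?_, rfl, rfl, ?_, ?_, hlpos, ?_, hl2, hr2l, ?_⟩
      · exact adm_flat he0 _ hM4 (by simp only; linarith)
      · intro s hs
        simp only
        rw [ny_flat, abs_zero, zero_mul]
        nlinarith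
      · simp only; linarith
      · simp only; linarith
      · intro C a k t ht hk
        obtain ⟨b1, b2⟩ := hbox C a k t ht hk
        rw [Mem.mem_rays, hTm _ rfl rfl]
        refine ⟨b1, fun s hs => ⟨b2 s hs, ?_⟩⟩
        simp only [mul_one]
        rw [ev_flat]
        refine (abs_real_inner_le_norm _ _).trans ?_
        rw [he0, one_mul]
        have a1 := (b2 s hs).2.1
        rw [sub_zero, mul_one] at a1
        exact a1
      · unfold Mem.scost
        rw [hTm _ rfl rfl, hT0, hR]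
        simp only
        have e1 : 4 * r * s1 / X * (4 * sg * (4 * sg) * (16 * sg ^ 2) * 1 ^ 3) =
            (4 * r * s1 / X * (4 * sg)) * (64 * sg ^ 3) := by ring
        have e2 : 4 * r * s1 / X * (4 * sg) ≤ 4 * r * s1 := by
          rw [← hlX]
          have := mul_le_mul_of_nonneg_left hcut.le hlpos.le
          rwa [hlX] at this ⊢
        rw [e1]
        have e3 := mul_le_mul_of_nonneg_right e2 (by positivity : 0 ≤ 64 * sg ^ 3)
        nlinarith [mul_pos (mul_pos hr hs1) (pow_pos hsg 3)]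
  · -- case (ii)
    rw [not_le] at hcase
    have hTm : ∀ (m' : Mem), m'.sg = 2 * sg → m'.R = 1 → m'.T r = r := by
      intro m' e1 e2
      unfold Mem.T
      rw [e1, e2, div_one]
      exact max_eq_right (by nlinarith)
    by_cases hex : ∃ (C a : E2) (k : ℝ), ((C, a, k) : LRay) ∈ m.rays 0
    · obtain ⟨Cs, as, ks, hk0⟩ := hex
      have hstar := hmem _ _ _ hk0
      set Y : ℝ := s1 + nu p * sg ^ 2 with hY
      have hYpos : 0 < Y := by positivity
      have hlpos : 0 < 4 * s1 * sg ^ 2 / Y := by positivity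
      have hlY : 4 * s1 * sg ^ 2 / Y * Y = 4 * s1 * sg ^ 2 := by field_simp
      have hl2 : ∀ (C a : E2) (k t t' : ℝ), |t| ≤ r / 2 → |t'| ≤ r / 2 →
          ((C, a, k + t) : LRay) ∈ m.rays 0 → ((C, a, k + t') : LRay) ∈ m.rays 0 →
          |t - t'| ≤ 4 * s1 * sg ^ 2 / Y := by
        intro C a k t t' _ _ hk hk'
        have a1 := shift_slab (hmem _ _ _ hk) (hmem _ _ _ hk')
        have a2 := shift_box (hmem _ _ _ hk) (hmem _ _ _ hk')
        rw [le_div_iff₀ hYpos, hY]
        have a3 := mul_le_mul_of_nonneg_right a1 (sq_nonneg sg)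
        have a4 := mul_le_mul_of_nonneg_right a2 hs1.le
        nlinarith
      have hr2l : r ^ 2 ≤ (1 + M) * (4 * s1 * sg ^ 2 / Y) := by
        rw [← mul_div_assoc, le_div_iff₀ hYpos, hY]
        have b1 : r ^ 2 * s1 ≤ s1 * sg ^ 2 := by
          have : r ^ 2 ≤ sg ^ 2 := pow_le_pow_left₀ hr.le hrsg 2
          nlinarith
        have b2 : r ^ 2 * (nu p * sg ^ 2) ≤ M * (s1 * sg ^ 2) := by
          calc r ^ 2 * (nu p * sg ^ 2) ≤ (s1 * sg) * (nu p * sg ^ 2) :=
                mul_le_mul_of_nonneg_right hr2 (by positivity)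
            _ = (nu p * sg) * (s1 * sg ^ 2) := by ring
            _ ≤ M * (s1 * sg ^ 2) := mul_le_mul_of_nonneg_right hnuM (by positivity)
        nlinarith [mul_pos hs1 (pow_pos hsg 2), mul_nonneg hM (mul_pos hs1 (pow_pos hsg 2)).le]
      -- the unit vector
      obtain ⟨b, hb, hbs⟩ : ∃ b : E2, ‖b‖ = 1 ∧ ∀ (x : E2) (y s : ℝ), |s| ≤ 1 →
          InK m.c sg (sg ^ 2) 1 (lat m.X0) (m.X0 2) 0 x y s → |p.ev x y s| ≤ s1 →
          |inner ℝ b ((x - as) + s • Cs)| ≤ min (20 * Y) (2 * sg) := by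
        by_cases hB : ‖p.gr Cs as 0‖ < 1 / 2
        · refine ⟨e0, he0, fun x y s hs hx hp => ?_⟩
          have c1 := short_gr hadm.disc hstar hle hsg hB
          have c2 : min (20 * Y) (2 * sg) = 2 * sg := min_eq_right (by rw [hY]; linarith)
          rw [c2]
          refine (abs_real_inner_le_norm _ _).trans ?_
          rw [he0, one_mul]
          exact (frame_ray hstar.1 (hstar.2 s (by rwa [sub_zero])).1 hx).1
        · rw [not_lt] at hB
          have hBpos : 0 < ‖p.gr Cs as 0‖ := by linarith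
          refine ⟨(‖p.gr Cs as 0‖)⁻¹ • p.gr Cs as 0, ?_, fun x y s hs hx hp => ?_⟩
          · rw [norm_smul, norm_inv, norm_norm, inv_mul_cancel₀ hBpos.ne']
          · refine le_min ?_ ?_
            · have c1 := lateral_small hs hstar hx hp
              rw [real_inner_smul_left, abs_mul, abs_of_pos (inv_pos.2 hBpos)]
              have c2 : (‖p.gr Cs as 0‖)⁻¹ ≤ 2 := by
                rw [inv_le_comm₀ hBpos two_pos]; linarith
              have c3 := mul_le_mul c2 c1 (abs_nonneg _) two_pos.le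
              refine c3.trans ?_
              rw [hY]
              nlinarith
            · refine (abs_real_inner_le_norm _ _).trans ?_
              rw [norm_smul, norm_inv, norm_norm, inv_mul_cancel₀ hBpos.ne', one_mul]
              exact (frame_ray hstar.1 (hstar.2 s (by rwa [sub_zero])).1 hx).1
      have hs1' : 0 < min (20 * Y) (2 * sg) := lt_min (by linarith) (by linarith)
      refine ⟨⟨Cs, 2 * sg, min (20 * Y) (2 * sg), 1, pt as ks, 0, flat b Cs as⟩,
        4 * s1 * sg ^ 2 / Y, ⟨one_pos, hs1', min_le_right _ _, ?_⟩, ?_, rfl, rfl, ?_, ?_, hlpos,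
        ?_, hl2, hr2l, ?_⟩
      · simp only [CDef480.lat_pt, CDef480.pt_two]
        exact adm_flat hb _ hM4 (by linarith)
      · intro s hs
        simp only
        rw [ny_flat, abs_zero, zero_mul]
        nlinarith
      · simp only
        refine le_min ?_ (by linarith)
        rw [hY]; nlinarith [mul_nonneg hnu (sq_nonneg sg)]
      · simp only; linarith
      · intro C a k t ht hk
        have a0 := hmem _ _ _ hk
        rw [Mem.mem_rays, hTm _ rfl rfl]
        simp only [CDef480.lat_pt, CDef480.pt_two, mul_one]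
        refine ⟨?_, fun s hs => ⟨⟨hs, ?_, ?_⟩, ?_⟩⟩
        · have e1 : C - Cs = (C - m.c) - (Cs - m.c) := by abel
          rw [e1]
          exact (norm_sub_le _ _).trans (by linarith [a0.1, hstar.1])
        · have a1 := (frame_ray hstar.1 (hstar.2 s hs).1 (a0.2 s hs).1).1
          rw [sub_zero, mul_one]
          exact a1
        · have a1 := (frame_ray hstar.1 (hstar.2 s hs).1 (a0.2 s hs).1).2
          rw [ry_shift, nrm_shift] at a1
          rw [mul_one]
          have e1 : nrm Cs (rx C a s) (ry C k s) s - nrm Cs as ks 0 =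
            (nrm Cs (rx C a s) (ry C k s) s + t - nrm Cs as ks 0) - t := by ring
          rw [e1]
          refine (abs_sub _ _).trans ?_
          nlinarith
        · rw [ev_flat]
          have hs' : |s| ≤ 1 := by rwa [sub_zero] at hs
          exact hbs _ _ s hs' (a0.2 s hs).1 (a0.2 s hs).2
      · unfold Mem.scost
        rw [hTm _ rfl rfl, hT0, hR]
        simp only
        have e2 : 4 * s1 * sg ^ 2 / Y * min (20 * Y) (2 * sg) ≤ 80 * (s1 * sg ^ 2) := by
          have := mul_le_mul_of_nonneg_left (min_le_left (20 * Y) (2 * sg)) hlpos.le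
          refine this.trans (le_of_eq ?_)
          have e3 : 4 * s1 * sg ^ 2 / Y * (20 * Y) = 20 * (4 * s1 * sg ^ 2 / Y * Y) := by ring
          rw [e3, hlY]; ring
        have e1 : 4 * s1 * sg ^ 2 / Y * (min (20 * Y) (2 * sg) * (2 * sg) * r * 1 ^ 3) =
            (4 * s1 * sg ^ 2 / Y * min (20 * Y) (2 * sg)) * (2 * sg * r) := by ring
        rw [e1]
        have e3 := mul_le_mul_of_nonneg_right e2 (by positivity : 0 ≤ 2 * sg * r)
        nlinarith [mul_pos (mul_pos hr hs1) (pow_pos hsg 3)]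
    · -- the member is empty
      have hno : ∀ (C a : E2) (k : ℝ), ((C, a, k) : LRay) ∉ m.rays 0 :=
        fun C a k hk => hex ⟨C, a, k, hk⟩
      refine ⟨⟨m.c, 2 * sg, 2 * sg, 1, m.X0, 0, flat e0 m.c (lat m.X0)⟩, s1 * sg,
        ⟨one_pos, by simp only; linarith, le_rfl, ?_⟩, ?_, rfl, rfl, ?_, ?_, by positivity,
        fun C a k t _ hk => absurd hk (hno _ _ _), fun C a k t t' _ _ hk => absurd hk (hno _ _ _),
        ?_, ?_⟩
      · exact adm_flat he0 _ hM4 (by simp only; linarith)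
      · intro s hs
        simp only
        rw [ny_flat, abs_zero, zero_mul]
        nlinarith
      · simp only; linarith
      · simp only; linarith
      · nlinarith [mul_pos hs1 hsg]
      · unfold Mem.scost
        rw [hTm _ rfl rfl, hT0, hR]
        simp only
        nlinarith [mul_pos (mul_pos hr hs1) (pow_pos hsg 3)]

end Crest.Agent.R116.Fil139
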