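import Crest.Agent.R116.Wk9_927

/-!
R116, outer shell (10): the outer shell theorem `S0155_of_C3w`.
-/

set_option autoImplicit false

open MeasureTheory FourierTransform LineDeriv Set Filter
open scoped ContDiff Real SchwartzMap ENNReal Convolution Topology

namespace Crest.Agent.R116.Sh927

open Crest.Agent.R138.Fr665 (cv)
open Crest.Agent.R138.Sh200

/-- the partial-sum multiplier. -/
noncomputable def sg (N : ℕ) (t : ℝ) (ξ : V) : ℂ :=
  ((bet (‖ξ‖ ^ 2) : ℝ) : ℂ)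
    + (Complex.exp (((2 * π * t * ‖ξ‖ : ℝ) : ℂ) * Complex.I) - 1) *
      ((bet (‖ξ‖ ^ 2) - bet (4 ^ N * ‖ξ‖ ^ 2) : ℝ) : ℂ)
    + Complex.exp (((2 * π * t * ‖ξ‖ : ℝ) : ℂ) * Complex.I) *
      ((bet (‖ξ‖ ^ 2 / 4 ^ N) - bet (‖ξ‖ ^ 2) : ℝ) : ℂ)

theorem continuous_sg (N : ℕ) (t : ℝ) : Continuous (sg N t) := by
  unfold sg
  have := contDiff_bet.continuous
  fun_prop

theorem norm_sg_le (N : ℕ) (t : ℝ) (ξ : V) : ‖sg N t ξ‖ ≤ 4 := by
  unfold sg
  have hb : ∀ a b : ℝ, ‖((bet a - bet b : ℝ) : ℂ)‖ ≤ 1 := by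
    intro a b
    rw [Complex.norm_real, Real.norm_eq_abs, abs_le]
    have h1 := bet_nonneg a
    have h2 := bet_le_one a
    have h3 := bet_nonneg b
    have h4 := bet_le_one b
    constructor <;> linarith
  have he : ‖Complex.exp (((2 * π * t * ‖ξ‖ : ℝ) : ℂ) * Complex.I)‖ = 1 :=
    Complex.norm_exp_ofReal_mul_I _
  have h1 : ‖((bet (‖ξ‖ ^ 2) : ℝ) : ℂ)‖ ≤ 1 := by
    rw [Complex.norm_real, Real.norm_of_nonneg (bet_nonneg _)]
    exact bet_le_one _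
  have h2 : ‖Complex.exp (((2 * π * t * ‖ξ‖ : ℝ) : ℂ) * Complex.I) - 1‖ ≤ 2 := by
    refine (norm_sub_le _ _).trans ?_
    rw [he, norm_one]; norm_num
  refine (norm_add_le _ _).trans ?_
  refine (add_le_add (norm_add_le _ _) le_rfl).trans ?_
  rw [norm_mul, norm_mul, he]
  have h3 := hb (‖ξ‖ ^ 2) (4 ^ N * ‖ξ‖ ^ 2)
  have h4 := hb (‖ξ‖ ^ 2 / 4 ^ N) (‖ξ‖ ^ 2)
  have h5 : ‖Complex.exp (((2 * π * t * ‖ξ‖ : ℝ) : ℂ) * Complex.I) - 1‖ *
      ‖((bet (‖ξ‖ ^ 2) - bet (4 ^ N * ‖ξ‖ ^ 2) : ℝ) : ℂ)‖ ≤ 2 * 1 := by gcongr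
  linarith

theorem tendsto_sg (t : ℝ) (ξ : V) : Tendsto (fun N => sg N t ξ) atTop
    (𝓝 (Complex.exp (((2 * π * t * ‖ξ‖ : ℝ) : ℂ) * Complex.I))) := by
  have hhi : ∀ᶠ N : ℕ in atTop, bet (‖ξ‖ ^ 2 / 4 ^ N) = 1 := by
    have h2 : Tendsto (fun N : ℕ => (4:ℝ) ^ N) atTop atTop :=
      tendsto_pow_atTop_atTop_of_one_lt (by norm_num)
    filter_upwards [h2.eventually_ge_atTop (‖ξ‖ ^ 2)] with N hN
    apply bet_one
    rw [div_le_one (by positivity)]
    exact hN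
  rcases eq_or_ne ξ 0 with rfl | hξ
  · have : ∀ N, sg N t 0 = 1 := by
      intro N
      unfold sg
      simp
      rw [bet_one (by norm_num)]
    simp_rw [this]
    simp
  · have hpos : 0 < ‖ξ‖ ^ 2 := by positivity
    have hlo : ∀ᶠ N : ℕ in atTop, bet (4 ^ N * ‖ξ‖ ^ 2) = 0 := by
      have h2 : Tendsto (fun N : ℕ => (4:ℝ) ^ N * ‖ξ‖ ^ 2) atTop atTop :=
        (tendsto_pow_atTop_atTop_of_one_lt (by norm_num)).atTop_mul_const hpos
      filter_upwards [h2.eventually_ge_atTop 2] with N hN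
      exact bet_zero hN
    have hev : ∀ᶠ N : ℕ in atTop,
        Complex.exp (((2 * π * t * ‖ξ‖ : ℝ) : ℂ) * Complex.I) = sg N t ξ := by
      filter_upwards [hhi, hlo] with N h1 h2
      unfold sg
      rw [h1, h2]
      push_cast
      ring
    exact tendsto_const_nhds.congr' hev

section limit

variable {mz m0 : 𝓢(V, ℂ)} {β : ℝ}
    (hz : ∀ ξ : V, mz ξ = ((bet (‖ξ‖ ^ 2 / 1) * Bb ξ ^ (-β) : ℝ) : ℂ))
    (h0 : ∀ ξ : V, m0 ξ = ((bet (‖ξ‖ ^ 2 / 4) * Bb ξ ^ (-β) : ℝ) : ℂ))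
    {f g : 𝓢(V, ℂ)} (hg : ∀ ξ, (𝓕 g) ξ = ((Bb ξ ^ β : ℝ) : ℂ) * (𝓕 f) ξ)

include hz h0 hg

theorem PN_apply (N : ℕ) (t : ℝ) (x : V) :
    PN mz m0 β g N t x = 𝓕⁻ (fun ξ : V => sg N t ξ * 𝓕 (f : V → ℂ) ξ) x := by
  have h1 : PN mz m0 β g N t = 𝓕⁻ (𝓕 (PN mz m0 β g N t)) :=
    (FourierTransform.fourierInv_fourier_eq _).symm
  rw [h1, SchwartzMap.fourierInv_coe]
  refine congrArg (fun h : V → ℂ => 𝓕⁻ h x) ?_
  funext ξ
  rw [PN_fourier hz h0 hg]
  rfl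

theorem tendsto_PN (t : ℝ) (x : V) :
    Tendsto (fun N => PN mz m0 β g N t x) atTop
      (𝓝 (𝓕⁻ (fun ξ : V => Complex.exp (((2 * π * t * ‖ξ‖ : ℝ) : ℂ) * Complex.I)
        • 𝓕 (f : V → ℂ) ξ) x)) := by
  simp_rw [PN_apply hz h0 hg, Real.fourierInv_eq]
  refine tendsto_integral_of_dominated_convergence (fun ξ => 4 * ‖𝓕 (f : V → ℂ) ξ‖) ?_ ?_ ?_ ?_
  · intro N
    apply Continuous.aestronglyMeasurable
    have h1 : Continuous fun ξ : V => 𝓕 (f : V → ℂ) ξ := by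
      have := (𝓕 f).continuous
      exact this
    have h2 : Continuous fun ξ : V => (𝐞 (inner ℝ ξ x) : ℂ) := by
      have := Real.continuous_fourierChar
      fun_prop
    exact h2.mul ((continuous_sg N t).mul h1)
  · exact (𝓕 f).integrable.norm.const_mul 4
  · intro N
    refine Filter.Eventually.of_forall fun ξ => ?_
    rw [Circle.norm_smul, norm_mul]
    gcongr
    exact norm_sg_le N t ξ
  · refine Filter.Eventually.of_forall fun ξ => ?_
    exact ((tendsto_sg t ξ).mul_const (𝓕 (f : V → ℂ) ξ)).const_smul (𝐞 (inner ℝ ξ x))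

end limit

/-- the space-time pieces. -/
noncomputable def pc0 (mz g : 𝓢(V, ℂ)) (z : V × ℝ) : ℂ := opS mz g z.1

/-- low frequency piece. -/
noncomputable def pc1 (m0 g : 𝓢(V, ℂ)) (j : ℕ) (z : V × ℝ) : ℂ :=
  opS (lT (pwi_pos j) z.2) (opS m0 g) z.1

/-- high frequency piece. -/
noncomputable def pc2 (β : ℝ) (g : 𝓢(V, ℂ)) (k : ℕ) (z : V × ℝ) : ℂ :=
  opS (mT (pw_pos (k + 1)) z.2) (opS (bT β (pw_pos (k + 1))) g) z.1

theorem PN_eq (mz m0 : 𝓢(V, ℂ)) (β : ℝ) (g : 𝓢(V, ℂ)) (N : ℕ) :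
    (fun z : V × ℝ => PN mz m0 β g N z.2 z.1)
      = pc0 mz g + ∑ j ∈ Finset.range N, pc1 m0 g j + ∑ k ∈ Finset.range N, pc2 β g k := by
  funext z
  unfold PN
  rw [add_apply, add_apply, sum_apply, sum_apply]
  simp only [Pi.add_apply, Finset.sum_apply]
  rfl

theorem measurable_pc0 (mz g : 𝓢(V, ℂ)) : Measurable (pc0 mz g) :=
  ((opS mz g).continuous.comp continuous_fst).measurable

theorem measurable_pc1 (m0 g : 𝓢(V, ℂ)) (j : ℕ) : Measurable (pc1 m0 g j) := by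
  unfold pc1
  simp_rw [opS_coe (lT _ _)]
  exact measurable_conv_gen (G := fun z : V × ℝ => ker (lT (pwi_pos j) z.2) z.1)
    (continuous_ker_lT (pwi_pos j)) continuous_id (opS m0 g).continuous.measurable

theorem pc2_eq (β : ℝ) (g : 𝓢(V, ℂ)) (k : ℕ) : pc2 β g k = fun z : V × ℝ =>
    cv (KW phi0 (2 ^ (k + 1)) z.2) (opS (bT β (pw_pos (k + 1))) g) z.1 := by
  unfold pc2
  funext z
  rw [opS_coe (mT _ _), ker_mT]

theorem measurable_pc2 (β : ℝ) (g : 𝓢(V, ℂ)) (k : ℕ) : Measurable (pc2 β g k) := by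
  rw [pc2_eq]
  exact measurable_stcv (pw_pos (k + 1)) continuous_id
    (opS (bT β (pw_pos (k + 1))) g).continuous.measurable

/-- **the outer shell**: `(C3p phi0)` implies the statement. -/
theorem S0155_of_C3p (h3 : C3p phi0) (p : ℝ) (hp : 2 < p) (α : ℝ)
    (hα : max 0 (1 - 3 / p) < α) :
    ∃ C : ℝ, ∀ f : SchwartzMap (EuclideanSpace ℝ (Fin 3)) ℂ,
      MeasureTheory.eLpNorm
          (fun z : (EuclideanSpace ℝ (Fin 3)) × ℝ =>
            𝓕⁻ (fun ξ : EuclideanSpace ℝ (Fin 3) =>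
              Complex.exp (2 * Real.pi * z.2 * ‖ξ‖ * Complex.I) • 𝓕 (⇑f) ξ) z.1)
          (ENNReal.ofReal p)
          ((MeasureTheory.volume : MeasureTheory.Measure (EuclideanSpace ℝ (Fin 3))).prod
            (MeasureTheory.volume.restrict (Set.Icc (1 : ℝ) 2))) ≤
        ENNReal.ofReal C *
          MeasureTheory.eLpNorm
            (𝓕⁻ (fun ξ : EuclideanSpace ℝ (Fin 3) =>
              ((1 + 4 * Real.pi ^ 2 * ‖ξ‖ ^ 2) ^ (α / 2) : ℝ) • 𝓕 (⇑f) ξ))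
            (ENNReal.ofReal p) MeasureTheory.volume := by
  set γ : ℝ := max 0 (1 - 3 / p) with hγ
  have hγ0 : 0 ≤ γ := le_max_left _ _
  have hα0 : 0 < α := lt_of_le_of_lt hγ0 hα
  have hp0 : 0 < p := by linarith
  have hp1 : 1 ≤ p := by linarith
  set θ : ℝ := (α - γ) / 2 with hθ
  have hθ0 : 0 < θ := by rw [hθ]; linarith
  obtain ⟨Ch, hCh, hHi⟩ := high_le h3 hp.le hθ0
  obtain ⟨Cb, hCb, hBe⟩ := L1_bT (β := α / 2) (by linarith)
  obtain ⟨Cl, hCl, hLo⟩ := L1_lT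
  obtain ⟨mz, hmz⟩ := exists_bz (α / 2) 1 one_pos
  obtain ⟨m0, hm0⟩ := exists_bz (α / 2) 4 (by norm_num)
  -- kernel norms of the fixed pieces
  have hKz : ∫⁻ y, ‖ker mz y‖ₑ ≤ ENNReal.ofReal (∫ y, ‖ker mz y‖) := by
    rw [ofReal_integral_norm_eq_lintegral_enorm (integrable_ker mz)]
  have hK0 : ∫⁻ y, ‖ker m0 y‖ₑ ≤ ENNReal.ofReal (∫ y, ‖ker m0 y‖) := by
    rw [ofReal_integral_norm_eq_lintegral_enorm (integrable_ker m0)]
  set Az : ℝ := ∫ y, ‖ker mz y‖ with hAz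
  set A0 : ℝ := ∫ y, ‖ker m0 y‖ with hA0
  have hAz0 : 0 ≤ Az := integral_nonneg fun _ => norm_nonneg _
  have hA00 : 0 ≤ A0 := integral_nonneg fun _ => norm_nonneg _
  have hr1 : (2:ℝ) ^ (-θ) < 1 := Real.rpow_lt_one_of_one_lt_of_neg (by norm_num) (by linarith)
  have hr0 : 0 < (2:ℝ) ^ (-θ) := by positivity
  set r : ℝ := (2:ℝ) ^ (-θ) with hr
  set P : ℝ≥0∞ := ENNReal.ofReal p with hP
  have hP1 : 1 ≤ P := by rw [hP]; simpa using hp1
  -- the geometric sums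
  have hgeo : ∀ (q : ℝ), 0 < q → q < 1 → ∀ N : ℕ, ∑ j ∈ Finset.range N, q ^ j ≤ (1 - q)⁻¹ := by
    intro q hq0 hq1 N
    rw [geom_sum_eq hq1.ne, ← neg_sub, ← neg_sub (1:ℝ), neg_div_neg_eq, div_eq_mul_inv]
    have h4 : (1 - q ^ N) ≤ 1 := by
      have := pow_pos hq0 N
      linarith
    have h5 : 0 < (1 - q)⁻¹ := inv_pos.mpr (by linarith)
    nlinarith
  refine ⟨Az + (Cl * A0) * 2 + (Ch * Cb) * (1 - r)⁻¹, fun f => ?_⟩
  obtain ⟨g, hgF, hgc⟩ := exists_bessel (α / 2) f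
  have hgc' : (g : V → ℂ) = 𝓕⁻ (fun ξ : EuclideanSpace ℝ (Fin 3) =>
      ((1 + 4 * Real.pi ^ 2 * ‖ξ‖ ^ 2) ^ (α / 2) : ℝ) • 𝓕 (⇑f) ξ) := hgc
  rw [← hgc']
  set G : ℝ≥0∞ := eLpNorm (g : V → ℂ) P volume with hG
  -- bounds of the pieces
  have b0 : eLpNorm (pc0 mz g) P nu ≤ ENNReal.ofReal Az * G := by
    refine slab_le (measurable_pc0 mz g) hp0 fun t ht => ?_
    exact young_opS mz g hp1 hKz
  have b1 : ∀ j : ℕ, eLpNorm (pc1 m0 g j) P nu ≤ ENNReal.ofReal (Cl * A0 * (2⁻¹) ^ j) * G := by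
    intro j
    refine slab_le (measurable_pc1 m0 g j) hp0 fun t ht => ?_
    have hR1 : ((2:ℝ) ^ j)⁻¹ ≤ 1 := inv_le_one_of_one_le₀ (one_le_pow₀ (by norm_num))
    have e1 := young_opS (lT (pwi_pos j) t) (opS m0 g) hp1
      (hLo _ (pwi_pos j) t hR1 (by linarith [ht.1]) ht.2)
    refine e1.trans ?_
    calc ENNReal.ofReal (Cl * ((2:ℝ) ^ j)⁻¹) * eLpNorm (opS m0 g) P volume
        ≤ ENNReal.ofReal (Cl * ((2:ℝ) ^ j)⁻¹) * (ENNReal.ofReal A0 * G) := by
          gcongr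
          exact young_opS m0 g hp1 hK0
      _ = _ := by
          rw [← mul_assoc, ← ENNReal.ofReal_mul (by positivity)]
          congr 2
          rw [inv_pow]
          ring
  have b2 : ∀ k : ℕ, eLpNorm (pc2 (α / 2) g k) P nu ≤ ENNReal.ofReal (Ch * Cb * r ^ k) * G := by
    intro k
    rw [pc2_eq]
    have e1 := hHi (2 ^ (k + 1)) (one_le_pow₀ (by norm_num)) _
      (bm_schwartz (opS (bT (α / 2) (pw_pos (k + 1))) g))
    refine e1.trans ?_
    have e2 := young_opS (bT (α / 2) (pw_pos (k + 1))) g hp1 (hBe _ (pw_pos (k + 1)))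
    calc ENNReal.ofReal (Ch * (2 ^ (k + 1)) ^ (γ + θ)) *
          eLpNorm (opS (bT (α / 2) (pw_pos (k + 1))) g) P volume
        ≤ ENNReal.ofReal (Ch * (2 ^ (k + 1)) ^ (γ + θ)) *
          (ENNReal.ofReal (Cb * (2 ^ (k + 1)) ^ (-(2 * (α / 2)))) * G) := by
          gcongr
      _ = ENNReal.ofReal (Ch * Cb * r ^ (k + 1)) * G := by
          rw [← mul_assoc, ← ENNReal.ofReal_mul (by positivity)]
          congr 2
          have e3 : ((2:ℝ) ^ (k + 1)) ^ (γ + θ) * ((2:ℝ) ^ (k + 1)) ^ (-(2 * (α / 2)))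
              = r ^ (k + 1) := by
            rw [← Real.rpow_add (by positivity), hr, ← Real.rpow_natCast, ← Real.rpow_natCast,
              ← Real.rpow_mul (by norm_num), ← Real.rpow_mul (by norm_num)]
            congr 1
            rw [hθ]; ring
          rw [← e3]; ring
      _ ≤ _ := by
          gcongr ENNReal.ofReal ?_ * G
          rw [pow_succ]
          have : 0 < r ^ k := by positivity
          have h7 : r ^ k * r ≤ r ^ k := by nlinarith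
          have : 0 ≤ Ch * Cb := by positivity
          nlinarith
  -- the partial sums
  have hN : ∀ N : ℕ, eLpNorm (fun z : V × ℝ => PN mz m0 (α / 2) g N z.2 z.1) P nu
      ≤ ENNReal.ofReal (Az + (Cl * A0) * 2 + (Ch * Cb) * (1 - r)⁻¹) * G := by
    intro N
    rw [PN_eq]
    have m1 : ∀ j ∈ Finset.range N, AEStronglyMeasurable (pc1 m0 g j) nu :=
      fun j _ => (measurable_pc1 m0 g j).aestronglyMeasurable
    have m2 : ∀ k ∈ Finset.range N, AEStronglyMeasurable (pc2 (α / 2) g k) nu :=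
      fun k _ => (measurable_pc2 (α / 2) g k).aestronglyMeasurable
    have s1 : eLpNorm (∑ j ∈ Finset.range N, pc1 m0 g j) P nu ≤ ENNReal.ofReal (Cl * A0 * 2) * G := by
      calc _ ≤ ∑ j ∈ Finset.range N, eLpNorm (pc1 m0 g j) P nu := eLpNorm_sum_le m1 hP1
        _ ≤ ∑ j ∈ Finset.range N, ENNReal.ofReal (Cl * A0 * (2⁻¹) ^ j) * G :=
            Finset.sum_le_sum fun j _ => b1 j
        _ = ENNReal.ofReal (Cl * A0 * ∑ j ∈ Finset.range N, (2⁻¹) ^ j) * G := by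
            rw [← Finset.sum_mul, ← ENNReal.ofReal_sum_of_nonneg (fun i _ => by positivity),
              Finset.mul_sum]
        _ ≤ _ := by
            gcongr
            have := hgeo (2⁻¹) (by norm_num) (by norm_num) N
            norm_num at this ⊢
            exact this
    have s2 : eLpNorm (∑ k ∈ Finset.range N, pc2 (α / 2) g k) P nu
        ≤ ENNReal.ofReal (Ch * Cb * (1 - r)⁻¹) * G := by
      calc _ ≤ ∑ k ∈ Finset.range N, eLpNorm (pc2 (α / 2) g k) P nu := eLpNorm_sum_le m2 hP1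
        _ ≤ ∑ k ∈ Finset.range N, ENNReal.ofReal (Ch * Cb * r ^ k) * G :=
            Finset.sum_le_sum fun k _ => b2 k
        _ = ENNReal.ofReal (Ch * Cb * ∑ k ∈ Finset.range N, r ^ k) * G := by
            rw [← Finset.sum_mul, ← ENNReal.ofReal_sum_of_nonneg (fun i _ => by positivity),
              Finset.mul_sum]
        _ ≤ _ := by
            gcongr
            exact hgeo r hr0 hr1 N
    have hms1 : AEStronglyMeasurable (∑ j ∈ Finset.range N, pc1 m0 g j) nu :=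
      Finset.aestronglyMeasurable_sum _ m1
    have hms2 : AEStronglyMeasurable (∑ k ∈ Finset.range N, pc2 (α / 2) g k) nu :=
      Finset.aestronglyMeasurable_sum _ m2
    have hm0' : AEStronglyMeasurable (pc0 mz g) nu := (measurable_pc0 mz g).aestronglyMeasurable
    have hinv : 0 < (1 - r)⁻¹ := inv_pos.mpr (by linarith)
    calc _ ≤ eLpNorm (pc0 mz g + ∑ j ∈ Finset.range N, pc1 m0 g j) P nu +
          eLpNorm (∑ k ∈ Finset.range N, pc2 (α / 2) g k) P nu :=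
          eLpNorm_add_le (hm0'.add hms1) hms2 hP1
      _ ≤ (eLpNorm (pc0 mz g) P nu + eLpNorm (∑ j ∈ Finset.range N, pc1 m0 g j) P nu) +
          eLpNorm (∑ k ∈ Finset.range N, pc2 (α / 2) g k) P nu := by
          gcongr
          exact eLpNorm_add_le hm0' hms1 hP1
      _ ≤ (ENNReal.ofReal Az * G + ENNReal.ofReal (Cl * A0 * 2) * G) +
          ENNReal.ofReal (Ch * Cb * (1 - r)⁻¹) * G := by gcongr
      _ = _ := by
          rw [← add_mul, ← add_mul, ← ENNReal.ofReal_add hAz0 (by positivity),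
            ← ENNReal.ofReal_add (by positivity) (by positivity)]
  -- Fatou
  have hmN : ∀ N : ℕ, AEStronglyMeasurable (fun z : V × ℝ => PN mz m0 (α / 2) g N z.2 z.1) nu := by
    intro N
    rw [PN_eq]
    exact (((measurable_pc0 mz g).aestronglyMeasurable).add
      (Finset.aestronglyMeasurable_sum _ fun j _ =>
        (measurable_pc1 m0 g j).aestronglyMeasurable)).add
      (Finset.aestronglyMeasurable_sum _ fun k _ =>
        (measurable_pc2 (α / 2) g k).aestronglyMeasurable)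
  have hlim : ∀ z : V × ℝ, Tendsto (fun N => PN mz m0 (α / 2) g N z.2 z.1) atTop
      (𝓝 (𝓕⁻ (fun ξ : EuclideanSpace ℝ (Fin 3) =>
              Complex.exp (2 * Real.pi * z.2 * ‖ξ‖ * Complex.I) • 𝓕 (⇑f) ξ) z.1)) := by
    intro z
    have := tendsto_PN hmz hm0 hgF z.2 z.1
    simpa only [Complex.ofReal_mul, Complex.ofReal_ofNat] using this
  have h1 := Lp.eLpNorm_lim_le_liminf_eLpNorm (μ := nu) (p := P)
    (f := fun N => fun z : V × ℝ => PN mz m0 (α / 2) g N z.2 z.1) hmN _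
    (Filter.Eventually.of_forall hlim)
  refine h1.trans ?_
  calc liminf (fun N => eLpNorm (fun z : V × ℝ => PN mz m0 (α / 2) g N z.2 z.1) P nu) atTop
      ≤ liminf (fun _ : ℕ => ENNReal.ofReal (Az + (Cl * A0) * 2 + (Ch * Cb) * (1 - r)⁻¹) * G)
        atTop := liminf_le_liminf (Filter.Eventually.of_forall hN)
    _ = _ := by rw [liminf_const]

/-- **the outer shell** from `(C3w)`. -/
theorem S0155_of_C3w (h3 : C3w) (p : ℝ) (hp : 2 < p) (α : ℝ)
    (hα : max 0 (1 - 3 / p) < α) :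
    ∃ C : ℝ, ∀ f : SchwartzMap (EuclideanSpace ℝ (Fin 3)) ℂ,
      MeasureTheory.eLpNorm
          (fun z : (EuclideanSpace ℝ (Fin 3)) × ℝ =>
            𝓕⁻ (fun ξ : EuclideanSpace ℝ (Fin 3) =>
              Complex.exp (2 * Real.pi * z.2 * ‖ξ‖ * Complex.I) • 𝓕 (⇑f) ξ) z.1)
          (ENNReal.ofReal p)
          ((MeasureTheory.volume : MeasureTheory.Measure (EuclideanSpace ℝ (Fin 3))).prod
            (MeasureTheory.volume.restrict (Set.Icc (1 : ℝ) 2))) ≤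
        ENNReal.ofReal C *
          MeasureTheory.eLpNorm
            (𝓕⁻ (fun ξ : EuclideanSpace ℝ (Fin 3) =>
              ((1 + 4 * Real.pi ^ 2 * ‖ξ‖ ^ 2) ^ (α / 2) : ℝ) • 𝓕 (⇑f) ξ))
            (ENNReal.ofReal p) MeasureTheory.volume :=
  S0155_of_C3p (h3 phi0 contDiff_phi0 phi0_lo phi0_hi) p hp α hα

end Crest.Agent.R116.Sh927
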