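import Crest.Agent.R116.TuT_890
import Crest.Agent.R116.A1k3_229

/-!
# R116 (S0155), wave side, Step 4 (FIN), part 1 (helper850)

Decomposition of the value of a plate system of radius `r` into the values of the plate systems of
the functions of a level, plus the rest.
-/

set_option autoImplicit false

open MeasureTheory FourierTransform
open scoped ENNReal

namespace Crest.Agent.R116.Fin850

open Crest.Agent.R138.Defs (E2 ee)
open Crest.Agent.R138.Wpk685 (cen caps)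
open Crest.Agent.R116.CDef480 Crest.Agent.R116.WC188 Crest.Agent.R116.GlC210
open Crest.Agent.R116.LZg725 (Cf)
open Crest.Agent.R116.A1k229 (rpow_sum net_card nice_of_St Nice)

/-! ### size of the phase boxes -/

theorem pbx_norm {κ A r s1 s2 : ℝ} {c : E2} {X0 : E3} {f : Cf E2} {m : ℤ × ℤ} (hA : 1 ≤ A)
    (hr : 0 < r) (hs : s2 ≤ 1) (hT : TT κ s2 r ≤ 1) (hc : ‖c‖ ≤ A)
    (hX0 : ‖X0‖ ≤ A * r) {y : E3} (hy : y ∈ pbx κ A r s1 s2 c X0 f m) :
    ‖y‖ ≤ 6 * A ^ 2 * r := by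
  obtain ⟨-, h2, h3, -, -⟩ := hy
  have hA0 : 0 < A := by linarith
  have e2 : ‖lat y - lat X0‖ ≤ A * r := h2.trans (by
    have : A * s2 ≤ A := by nlinarith
    nlinarith)
  have e3 : |nrm c y 0 - nrm c X0 0| ≤ A * r := h3.trans (by
    have : A * TT κ s2 r ≤ A := by nlinarith
    nlinarith)
  have hX2 : |X0 2| ≤ ‖X0‖ := by
    have := PiLp.norm_apply_le X0 2
    rwa [Real.norm_eq_abs] at this
  have hXl : ‖lat X0‖ ≤ ‖X0‖ := by
    have h1 := normsq3 X0
    have h4 : ‖lat X0‖ ^ 2 ≤ ‖X0‖ ^ 2 := by nlinarith [sq_nonneg (X0 2)]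
    exact le_of_sq_le_sq h4 (norm_nonneg _)
  have hl : ‖lat y‖ ≤ 2 * (A * r) := by
    have := norm_sub_norm_le (lat y) (lat X0)
    linarith
  have e4 : nrm c y 0 - nrm c X0 0 = (y 2 - X0 2) + inner ℝ c (lat y - lat X0) := by
    unfold nrm
    rw [inner_sub_right]
    ring
  have e5 : |inner ℝ c (lat y - lat X0)| ≤ A * (A * r) := by
    refine (abs_real_inner_le_norm _ _).trans ?_
    exact mul_le_mul hc e2 (norm_nonneg _) hA0.le
  have e6 : |y 2| ≤ A * r + A * (A * r) + A * r := by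
    rw [e4] at e3
    obtain ⟨a1, a2⟩ := abs_le.1 e3
    obtain ⟨b1, b2⟩ := abs_le.1 e5
    obtain ⟨c1, c2⟩ := abs_le.1 (hX2.trans hX0)
    rw [abs_le]
    constructor <;> linarith
  have h7 : ‖y‖ ≤ ‖lat y‖ + |y 2| := by
    have h1 := normsq3 y
    have h4 : ‖y‖ ^ 2 ≤ (‖lat y‖ + |y 2|) ^ 2 := by
      rw [h1, ← sq_abs (y 2)]
      nlinarith [norm_nonneg (lat y), abs_nonneg (y 2),
        mul_nonneg (norm_nonneg (lat y)) (abs_nonneg (y 2))]
    exact le_of_sq_le_sq h4 (by positivity)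
  have h8 : A * r ≤ A * (A * r) := by nlinarith [mul_pos hA0 hr]
  calc ‖y‖ ≤ ‖lat y‖ + |y 2| := h7
    _ ≤ 6 * A ^ 2 * r := by nlinarith
where
  le_of_sq_le_sq {x y : ℝ} (h : x ^ 2 ≤ y ^ 2) (hy : 0 ≤ y) : x ≤ y := by
    by_contra hc
    push Not at hc
    nlinarith

/-! ### powers -/

theorem sum_rpow_le {ι : Type*} (s : Finset ι) (f : ι → ℝ≥0∞) :
    ∑ i ∈ s, f i ^ (3 / 2 : ℝ) ≤ (∑ i ∈ s, f i) ^ (3 / 2 : ℝ) := by
  classical
  induction s using Finset.induction_on with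
  | empty => simp
  | insert i s hi ih =>
    rw [Finset.sum_insert hi, Finset.sum_insert hi]
    exact (add_le_add le_rfl ih).trans (ENNReal.add_rpow_le_rpow_add _ _ (by norm_num))

/-- one term. -/
theorem term_dec {ρ r : ℝ} {n : ℕ} {g : E3 → ℂ} {z w : E3 × ℝ} {G : ℕ → E3 → ℂ}
    {rest : E3 → ℂ} (hG : ∀ k ∈ Finset.range n, Integrable (trc w (G k)))
    (he : Integrable (trc w rest))
    (hsum : ∀ ζ, trc z g ζ = ∑ k ∈ Finset.range n, G k ζ + rest ζ) (S : ℤ × ℤ → Set E3) :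
    (ENNReal.ofReal r * enc ρ (trc (z + w) g) S) ^ (3 / 2 : ℝ) ≤ ((n + 1 : ℕ) : ℝ≥0∞) ^ 3 *
      (∑ k ∈ Finset.range n, (ENNReal.ofReal r * enc ρ (trc w (G k)) S) ^ (3 / 2 : ℝ) +
        (ENNReal.ofReal r * enc ρ (trc w rest) S) ^ (3 / 2 : ℝ)) := by
  classical
  have e1 : trc (z + w) g = fun ξ => ∑ k ∈ Finset.range n, trc w (G k) ξ + trc w rest ξ := by
    rw [← GlC210.trc_trc, ← trc_sum]
    congr 1
    funext ζ
    exact hsum ζ
  have e2 := enc_sum (ρ := ρ) (Finset.range n) hG he S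
  rw [← e1, Finset.card_range] at e2
  set X : Option ℕ → ℝ≥0∞ := fun o => o.elim (ENNReal.ofReal r * enc ρ (trc w rest) S)
    (fun k => ENNReal.ofReal r * enc ρ (trc w (G k)) S) with hX
  have hc : (Finset.insertNone (Finset.range n)).card = n + 1 := by
    rw [Finset.card_insertNone, Finset.card_range]
  have e3 : ENNReal.ofReal r * enc ρ (trc (z + w) g) S ≤
      ((n + 1 : ℕ) : ℝ≥0∞) * ∑ o ∈ Finset.insertNone (Finset.range n), X o := by
    rw [Finset.sum_insertNone]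
    simp only [hX, Option.elim]
    rw [← Finset.mul_sum, ← mul_add, mul_left_comm]
    refine mul_le_mul' le_rfl (e2.trans (le_of_eq ?_))
    rw [add_comm (∑ k ∈ Finset.range n, _)]
    push_cast
    rfl
  calc (ENNReal.ofReal r * enc ρ (trc (z + w) g) S) ^ (3 / 2 : ℝ)
      ≤ (((n + 1 : ℕ) : ℝ≥0∞) * ∑ o ∈ Finset.insertNone (Finset.range n), X o) ^ (3 / 2 : ℝ) :=
        ENNReal.rpow_le_rpow e3 (by norm_num)
    _ = ((n + 1 : ℕ) : ℝ≥0∞) ^ (3 / 2 : ℝ) *
        (∑ o ∈ Finset.insertNone (Finset.range n), X o) ^ (3 / 2 : ℝ) :=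
        ENNReal.mul_rpow_of_nonneg _ _ (by norm_num)
    _ ≤ ((n + 1 : ℕ) : ℝ≥0∞) ^ (3 / 2 : ℝ) * (((n + 1 : ℕ) : ℝ≥0∞) ^ (3 / 2 : ℝ) *
        ∑ o ∈ Finset.insertNone (Finset.range n), X o ^ (3 / 2 : ℝ)) := by
        gcongr
        have := rpow_sum (Finset.insertNone (Finset.range n)) X
        rwa [hc] at this
    _ = _ := by
        rw [← mul_assoc, ← ENNReal.rpow_add_of_nonneg _ _ (by norm_num) (by norm_num),
          Finset.sum_insertNone]
        have e3 : (3 / 2 + 3 / 2 : ℝ) = ((3 : ℕ) : ℝ) := by norm_num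
        rw [e3, ENNReal.rpow_natCast, add_comm (∑ k ∈ Finset.range n, _)]
        rfl

/-! ### the plates near a frame -/

/-- the plates of a system, seen from the frame `z`. -/
def nrP (z : E3 × ℝ) (P : ℕ → Plate) (i : ℕ) : Plate := { P i with z := (P i).z - z }

theorem nr_plates {M κ A r s1 s2 R R' : ℝ} {I J : Finset ℕ} {P : ℕ → Plate} {z : E3 × ℝ}
    (hJ : J ⊆ I) (hn : ∀ i ∈ J, (P i).z - z ∈ cylc R') (h : Plates M κ A r s1 s2 R I P) :
    Plates M κ A r s1 s2 R' J (nrP z P) := by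
  constructor
  · intro i hi
    exact hn i hi
  · intro i hi j hj
    rcases h.sep i (hJ hi) j (hJ hj) with h1 | h1 | h1
    · left
      show (P i).z - z = (P j).z - z
      rw [h1]
    · right; left
      show r ≤ ‖((P i).z - z).1 - ((P j).z - z).1‖
      have : ((P i).z - z).1 - ((P j).z - z).1 = (P i).z.1 - (P j).z.1 := by
        rw [Prod.fst_sub, Prod.fst_sub]; abel
      rwa [this]
    · right; right
      show r ≤ |((P i).z - z).2 - ((P j).z - z).2|
      have : ((P i).z - z).2 - ((P j).z - z).2 = (P i).z.2 - (P j).z.2 := by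
        rw [Prod.snd_sub, Prod.snd_sub]; abel
      rwa [this]
  · exact fun i hi => h.X0 i (hJ hi)
  · exact fun i hi => h.c i (hJ hi)
  · exact fun i hi => h.adm i (hJ hi)
  · exact fun i hi => h.meas i (hJ hi)
  · exact fun i hi => h.box i (hJ hi)
  · intro i hi j hj hne hz m
    refine h.disj i (hJ hi) j (hJ hj) hne ?_ m
    exact sub_left_injective (b := z) hz

/-! ### the rest -/

/-- contribution of tiny functions. -/
theorem rest_sum {M κ A B r s1 s2 R t : ℝ} (hr : 1 ≤ r) (hrR : r ≤ R)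
    (hs : Sd r s1 s2) {I : Finset ℕ} {P : ℕ → Plate} (hP : Plates M κ A r s1 s2 R I P)
    (hB : ∀ i ∈ I, ∀ m, (P i).S m ⊆ Metric.closedBall 0 B)
    (H : E3 × ℝ → E3 → ℂ)
    (ht : ∀ i ∈ I, enc (r ^ (-(1/2) : ℝ)) (H (P i).z) (fun _ => Metric.closedBall 0 B) ≤
      ENNReal.ofReal t) :
    ∑ i ∈ I, ENNReal.ofReal ((r * scost κ s1 s2 r) ^ (-(1/2) : ℝ)) *
      (ENNReal.ofReal r * enc (r ^ (-(1/2) : ℝ)) (H (P i).z) (P i).S) ^ (3 / 2 : ℝ) ≤
      ENNReal.ofReal ((11 * R) ^ 4) * ENNReal.ofReal (r * t) ^ (3 / 2 : ℝ) := by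
  classical
  have hr0 : 0 < r := by linarith
  have hc1 : ENNReal.ofReal ((r * scost κ s1 s2 r) ^ (-(1/2) : ℝ)) ≤ 1 := by
    rw [← ENNReal.ofReal_one]
    exact ENNReal.ofReal_le_ofReal
      (Real.rpow_le_one_of_one_le_of_nonpos (TuT890.one_le_cost hr hs.lo hs.le) (by norm_num))
  have hnet : Net r R (I.image fun i => (P i).z) := by
    constructor
    · intro z hz
      obtain ⟨i, hi, rfl⟩ := Finset.mem_image.1 hz
      exact hP.mem i hi
    · intro z hz z' hz'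
      obtain ⟨i, hi, rfl⟩ := Finset.mem_image.1 hz
      obtain ⟨j, hj, rfl⟩ := Finset.mem_image.1 hz'
      exact hP.sep i hi j hj
  have hcard := net_card hr hrR hnet
  calc ∑ i ∈ I, ENNReal.ofReal ((r * scost κ s1 s2 r) ^ (-(1/2) : ℝ)) *
      (ENNReal.ofReal r * enc (r ^ (-(1/2) : ℝ)) (H (P i).z) (P i).S) ^ (3 / 2 : ℝ)
      ≤ ∑ i ∈ I, (ENNReal.ofReal r * enc (r ^ (-(1/2) : ℝ)) (H (P i).z) (P i).S) ^ (3 / 2 : ℝ) :=
        Finset.sum_le_sum fun i _ => by
          calc _ ≤ 1 * (ENNReal.ofReal r * enc (r ^ (-(1/2) : ℝ)) (H (P i).z) (P i).S) ^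
                (3 / 2 : ℝ) := mul_le_mul' hc1 le_rfl
            _ = _ := one_mul _
    _ = ∑ z ∈ I.image fun i => (P i).z, ∑ i ∈ I with (P i).z = z,
        (ENNReal.ofReal r * enc (r ^ (-(1/2) : ℝ)) (H (P i).z) (P i).S) ^ (3 / 2 : ℝ) :=
        (Finset.sum_fiberwise_of_maps_to (fun i hi => Finset.mem_image_of_mem _ hi) _).symm
    _ ≤ ∑ z ∈ I.image fun i => (P i).z, ENNReal.ofReal (r * t) ^ (3 / 2 : ℝ) := by
        refine Finset.sum_le_sum fun z hz => ?_
        refine (sum_rpow_le _ _).trans (ENNReal.rpow_le_rpow ?_ (by norm_num))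
        obtain ⟨i0, hi0, hz0⟩ := Finset.mem_image.1 hz
        rw [← Finset.mul_sum, ENNReal.ofReal_mul hr0.le]
        refine mul_le_mul' le_rfl ?_
        have h1 : ∑ i ∈ I with (P i).z = z, enc (r ^ (-(1/2) : ℝ)) (H (P i).z) (P i).S =
            ∑ i ∈ I with (P i).z = z, enc (r ^ (-(1/2) : ℝ)) (H z) (P i).S :=
          Finset.sum_congr rfl fun i hi => by rw [(Finset.mem_filter.1 hi).2]
        rw [h1]
        refine (enc_union (ρ := r ^ (-(1/2) : ℝ)) (g := H z) (I.filter fun i => (P i).z = z)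
          (fun i => (P i).S)
          (fun _ => Metric.closedBall 0 B) (fun i hi m => hP.meas i (Finset.mem_filter.1 hi).1 m)
          ?_ (fun i hi m => hB i (Finset.mem_filter.1 hi).1 m)).trans ?_
        · intro i hi j hj hne m
          obtain ⟨hi1, hi2⟩ := Finset.mem_filter.1 hi
          obtain ⟨hj1, hj2⟩ := Finset.mem_filter.1 hj
          exact hP.disj i hi1 j hj1 hne (hi2.trans hj2.symm) m
        · have := ht i0 hi0
          rwa [hz0] at this
    _ ≤ ENNReal.ofReal ((11 * R) ^ 4) * ENNReal.ofReal (r * t) ^ (3 / 2 : ℝ) := by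
        rw [Finset.sum_const, nsmul_eq_mul]
        refine mul_le_mul' ?_ le_rfl
        rw [← ENNReal.ofReal_natCast]
        exact ENNReal.ofReal_le_ofReal hcard

end Crest.Agent.R116.Fin850
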