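import Crest.Agent.R116.Fin1_850

/-!
# R116 (S0155), wave side, Step 4 (FIN), part 2 (helper850)

`FIN M q` (GlC_210 v2) from `A2k M q`.
-/

set_option autoImplicit false

open MeasureTheory FourierTransform
open scoped ENNReal

namespace Crest.Agent.R116.Fin850

open Crest.Agent.R138.Defs (E2 ee)
open Crest.Agent.R138.Wpk685 (cen caps)
open Crest.Agent.R116.CDef480 Crest.Agent.R116.WC188 Crest.Agent.R116.GlC210
open Crest.Agent.R116.LZg725 (Cf)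
open Crest.Agent.R116.A1k229 (rpow_sum net_card nice_of_St Nice St_mono)
open Crest.Agent.R116.TuT890 (v3 v3_nonneg enc_tiny Enc_nn)

/-- decomposition of the value of a plate system. -/
theorem val_dec {M κ q A A' a b Cn : ℝ} {K : ℕ} {η0 : ℝ} {C0 : E2} {σ : ℝ} {g : E3 → ℂ} {R : ℝ}
    {L : Lev} (ha : 1 ≤ a) (hL : LevOk M κ q A A' a b Cn K η0 C0 σ g R L)
    {A0 r s1 s2 t : ℝ} (hA0 : 1 ≤ A0) (hr : 1 ≤ r) (hrR : r ≤ R) (hTT : TT κ s2 r ≤ 1)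
    (hs : Sd r s1 s2) {I : Finset ℕ} {P : ℕ → Plate} (hP : Plates M κ A0 r s1 s2 R I P)
    (ht : ∀ p ∈ cylc R, enc (r ^ (-(1/2) : ℝ)) (trc (p - L.ζ p) (L.rest (L.ζ p)))
      (fun _ => Metric.closedBall 0 (6 * A0 ^ 2 * r)) ≤ ENNReal.ofReal t) :
    val κ g r s1 s2 I P ≤ ((L.n + 1 : ℕ) : ℝ≥0∞) ^ 3 *
      (∑ k ∈ Finset.range L.n, ∑ z ∈ L.Z, SIG M κ A0 r s1 s2 (L.G z k) L.r +
        ENNReal.ofReal ((11 * R) ^ 4) * ENNReal.ofReal (r * t) ^ (3 / 2 : ℝ)) := by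
  classical
  have ha0 : 0 < 2 * a := by linarith
  set c0 : ℝ≥0∞ := ENNReal.ofReal ((r * scost κ s1 s2 r) ^ (-(1/2) : ℝ)) with hc0
  set N3 : ℝ≥0∞ := ((L.n + 1 : ℕ) : ℝ≥0∞) ^ 3 with hN3
  set X : ℕ → ℕ → ℝ≥0∞ := fun k i => (ENNReal.ofReal r * enc (r ^ (-(1/2) : ℝ))
    (trc ((P i).z - L.ζ (P i).z) (L.G (L.ζ (P i).z) k)) (P i).S) ^ (3 / 2 : ℝ) with hX
  set Y : ℕ → ℝ≥0∞ := fun i => (ENNReal.ofReal r * enc (r ^ (-(1/2) : ℝ))
    (trc ((P i).z - L.ζ (P i).z) (L.rest (L.ζ (P i).z))) (P i).S) ^ (3 / 2 : ℝ) with hY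
  have h1 : ∀ i ∈ I, (ENNReal.ofReal r * enc (r ^ (-(1/2) : ℝ)) (trc (P i).z g) (P i).S) ^
      (3 / 2 : ℝ) ≤ N3 * (∑ k ∈ Finset.range L.n, X k i + Y i) := by
    intro i hi
    obtain ⟨hz, hw⟩ := hL.near _ (hP.mem i hi)
    obtain ⟨cls, hD⟩ := hL.dec _ hz
    have e : (P i).z = L.ζ (P i).z + ((P i).z - L.ζ (P i).z) := by abel
    have := term_dec (ρ := r ^ (-(1/2) : ℝ)) (r := r) (n := L.n) (g := g) (z := L.ζ (P i).z)
      (w := (P i).z - L.ζ (P i).z) (G := L.G (L.ζ (P i).z)) (rest := L.rest (L.ζ (P i).z))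
      (fun k hk => ((nice_of_St (hD.st k hk)).trc _).int ha0)
      (((⟨hD.rmeas, hD.rbdd, hD.rsupp⟩ : Nice (2 * a) 2 _).trc _).int ha0) hD.sum (P i).S
    rw [← e] at this
    exact this
  calc val κ g r s1 s2 I P ≤ ∑ i ∈ I, c0 * (N3 * (∑ k ∈ Finset.range L.n, X k i + Y i)) :=
        Finset.sum_le_sum fun i hi => mul_le_mul' le_rfl (h1 i hi)
    _ = N3 * (∑ k ∈ Finset.range L.n, ∑ i ∈ I, c0 * X k i + ∑ i ∈ I, c0 * Y i) := by
        rw [Finset.sum_comm, ← Finset.sum_add_distrib, Finset.mul_sum]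
        refine Finset.sum_congr rfl fun i _ => ?_
        rw [← Finset.mul_sum, ← mul_add, mul_left_comm]
    _ ≤ _ := by
        refine mul_le_mul' le_rfl (add_le_add ?_ ?_)
        · refine Finset.sum_le_sum fun k _ => ?_
          rw [← Finset.sum_fiberwise_of_maps_to (s := I) (t := L.Z) (g := fun i => L.ζ (P i).z)
            (fun i hi => (hL.near _ (hP.mem i hi)).1)]
          refine Finset.sum_le_sum fun z _ => ?_
          have hpl : Plates M κ A0 r s1 s2 L.r (I.filter fun i => L.ζ (P i).z = z) (nrP z P) := by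
            refine nr_plates (Finset.filter_subset _ _) (fun i hi => ?_) hP
            obtain ⟨hi1, hi2⟩ := Finset.mem_filter.1 hi
            have := (hL.near _ (hP.mem i hi1)).2
            rwa [hi2] at this
          refine le_trans (le_of_eq ?_) (le_iSup₂_of_le (I.filter fun i => L.ζ (P i).z = z)
            (nrP z P) (le_iSup_of_le hpl le_rfl))
          unfold val
          refine Finset.sum_congr rfl fun i hi => ?_
          have hi2 := (Finset.mem_filter.1 hi).2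
          simp only [hX, hi2]
          rfl
        · exact rest_sum hr hrR hs hP (fun i hi m => by
            refine (hP.box i hi m).trans fun y hy => ?_
            rw [mem_closedBall_zero_iff]
            exact pbx_norm hA0 (by linarith) hs.hi hTT (hP.c i hi) (hP.X0 i hi) hy)
            (fun p => trc (p - L.ζ p) (L.rest (L.ζ p))) (fun i hi => ht _ (hP.mem i hi))

/-- bookkeeping of the rest. -/
theorem tiny_num2 {B v Cn nb ν R r E D Q M0 : ℝ} {K : ℕ} (hB : 0 ≤ B) (hv : 0 ≤ v)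
    (_hCn : 0 ≤ Cn) (hnb : 0 ≤ nb) (hν : nb ≤ ν) (hR : 1 ≤ R) (hr : 0 ≤ r) (hrR : r ≤ R)
    (hE0 : 0 ≤ E) (hE : E ≤ R ^ M0 * D) (hK : 11 + Q + M0 / 2 ≤ K) :
    R ^ Q * (8 * ν ^ 3) * (11 * R) ^ 4 *
      (r * (81 * B ^ 3 * v * R ^ 4 * (Cn * nb * R ^ (-(K : ℝ)) * Real.sqrt E) ^ 2)) ^ (3 / 2 : ℝ) ≤
      (8 * 11 ^ 4 * (81 * B ^ 3 * v * Cn ^ 2) ^ (3 / 2 : ℝ)) * ν ^ 6 * (R * E * Real.sqrt D) := by
  have hR0 : 0 < R := by linarith
  have hν0 : 0 ≤ ν := hnb.trans hν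
  have h1 : r * (81 * B ^ 3 * v * R ^ 4 * (Cn * nb * R ^ (-(K : ℝ)) * Real.sqrt E) ^ 2) ≤
      (81 * B ^ 3 * v * Cn ^ 2) * ν ^ 2 * (R ^ (5 - 2 * (K : ℝ)) * E) := by
    have e2 : R ^ (5 - 2 * (K : ℝ)) = R ^ 5 * (R ^ (-(K : ℝ))) ^ 2 := by
      rw [← Real.rpow_natCast (R ^ (-(K : ℝ))) 2, ← Real.rpow_mul hR0.le, ← Real.rpow_natCast R 5,
        ← Real.rpow_add hR0]
      congr 1
      push_cast
      ring
    rw [e2, mul_pow, mul_pow, mul_pow, Real.sq_sqrt hE0]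
    calc r * (81 * B ^ 3 * v * R ^ 4 * (Cn ^ 2 * nb ^ 2 * (R ^ (-(K : ℝ))) ^ 2 * E))
        ≤ R * (81 * B ^ 3 * v * R ^ 4 * (Cn ^ 2 * ν ^ 2 * (R ^ (-(K : ℝ))) ^ 2 * E)) := by gcongr
      _ = _ := by ring
  have e3 : E ^ (3 / 2 : ℝ) = E * Real.sqrt E := by
    rw [Real.sqrt_eq_rpow]
    rcases hE0.eq_or_lt with h0 | h0
    · rw [← h0, Real.zero_rpow (by norm_num)]; ring
    · nth_rewrite 2 [← Real.rpow_one E]
      rw [← Real.rpow_add h0]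
      norm_num
  have e4 : (ν ^ 2) ^ (3 / 2 : ℝ) = ν ^ 3 := by
    rw [← Real.rpow_natCast ν 2, ← Real.rpow_mul hν0, ← Real.rpow_natCast ν 3]
    congr 1
    push_cast
    ring
  have h2 : (r * (81 * B ^ 3 * v * R ^ 4 * (Cn * nb * R ^ (-(K : ℝ)) * Real.sqrt E) ^ 2)) ^
      (3 / 2 : ℝ) ≤ (81 * B ^ 3 * v * Cn ^ 2) ^ (3 / 2 : ℝ) * ν ^ 3 *
        (R ^ ((5 - 2 * (K : ℝ)) * (3 / 2)) * (E * (R ^ (M0 / 2) * Real.sqrt D))) := by
    refine (Real.rpow_le_rpow (by positivity) h1 (by norm_num)).trans ?_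
    rw [Real.mul_rpow (by positivity) (by positivity), Real.mul_rpow (by positivity) (by positivity),
      Real.mul_rpow (by positivity) hE0, ← Real.rpow_mul hR0.le, e4, e3]
    gcongr
    calc Real.sqrt E ≤ Real.sqrt (R ^ M0 * D) := Real.sqrt_le_sqrt hE
      _ = Real.sqrt (R ^ M0) * Real.sqrt D := Real.sqrt_mul (by positivity) _
      _ = R ^ (M0 / 2) * Real.sqrt D := by
          congr 1
          rw [Real.sqrt_eq_rpow, ← Real.rpow_mul hR0.le]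
          congr 1
          ring
  calc R ^ Q * (8 * ν ^ 3) * (11 * R) ^ 4 *
      (r * (81 * B ^ 3 * v * R ^ 4 * (Cn * nb * R ^ (-(K : ℝ)) * Real.sqrt E) ^ 2)) ^ (3 / 2 : ℝ)
      ≤ R ^ Q * (8 * ν ^ 3) * (11 * R) ^ 4 * ((81 * B ^ 3 * v * Cn ^ 2) ^ (3 / 2 : ℝ) * ν ^ 3 *
        (R ^ ((5 - 2 * (K : ℝ)) * (3 / 2)) * (E * (R ^ (M0 / 2) * Real.sqrt D)))) := by gcongr
    _ = (8 * 11 ^ 4 * (81 * B ^ 3 * v * Cn ^ 2) ^ (3 / 2 : ℝ)) * ν ^ 6 *
        ((R ^ Q * R ^ 4 * R ^ ((5 - 2 * (K : ℝ)) * (3 / 2)) * R ^ (M0 / 2)) *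
          (E * Real.sqrt D)) := by ring
    _ ≤ (8 * 11 ^ 4 * (81 * B ^ 3 * v * Cn ^ 2) ^ (3 / 2 : ℝ)) * ν ^ 6 *
        (R * (E * Real.sqrt D)) := by
        refine mul_le_mul_of_nonneg_left (mul_le_mul_of_nonneg_right ?_ (by positivity))
          (by positivity)
        rw [← Real.rpow_natCast R 4, ← Real.rpow_add hR0, ← Real.rpow_add hR0,
          ← Real.rpow_add hR0]
        nth_rewrite 2 [← Real.rpow_one R]
        refine Real.rpow_le_rpow_of_exponent_le hR ?_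
        have hK0 : (0 : ℝ) ≤ K := Nat.cast_nonneg K
        push_cast
        linarith
    _ = _ := by ring

/-- slopes of the functions of a level. -/
theorem slope_le {b r R : ℝ} (hb2 : b < 2) (hR : (36 / (2 - b) ^ 2) ^ 2 ≤ R)
    (hR1 : 1 ≤ R) (hr : R ^ (1/2 : ℝ) ≤ r) : b + 3 * r ^ (-(1/2) : ℝ) ≤ (b + 2) / 2 := by
  have hr0 : 0 < r := lt_of_lt_of_le (Real.rpow_pos_of_pos (by linarith) _) hr
  have h2b : 0 < 2 - b := by linarith
  have h1 : 6 / (2 - b) ≤ r ^ (1/2 : ℝ) := by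
    have h3 : 36 / (2 - b) ^ 2 ≤ R ^ (1/2 : ℝ) := by
      rw [← Real.sqrt_eq_rpow]
      exact Real.le_sqrt_of_sq_le hR
    rw [← Real.sqrt_eq_rpow]
    refine Real.le_sqrt_of_sq_le (le_trans (le_of_eq ?_) (h3.trans hr))
    rw [div_pow]
    norm_num
  have h4 : r ^ (-(1/2) : ℝ) = (r ^ (1/2 : ℝ))⁻¹ := Real.rpow_neg hr0.le _
  have h5 : (r ^ (1/2 : ℝ))⁻¹ ≤ (6 / (2 - b))⁻¹ := inv_anti₀ (by positivity) h1
  have h6 : (6 / (2 - b))⁻¹ = (2 - b) / 6 := by rw [inv_div]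
  rw [h4]
  rw [h6] at h5
  linarith

set_option maxHeartbeats 800000 in
/-- **FIN**. -/
theorem fin_of_A2k {M q : ℝ} (hA2k : A2k M q) : FIN M q := by
  intro c hc hLB
  obtain ⟨Ka, hKa, hA2⟩ := hA2k c hc hLB
  refine ⟨⌈Ka⌉₊ + 6, ?_⟩
  intro a b A0 ε M0 hrg
  have ha := hrg.a1
  have hA0 := hrg.A1
  have hε := hrg.e0
  obtain ⟨C2, hC2, hA2⟩ := hA2 (2 * a) ((b + 2) / 2) A0 ε 4 (by linarith) (by linarith [hrg.b0])
    (by linarith [hrg.b2]) hA0 hε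
  refine ⟨6 * A0 ^ 2, ⌈11 + |q| / 4 + M0 / 2⌉₊, ?_⟩
  intro A hA K hK A' Cn hA' hCn
  have hv := v3_nonneg
  have h2b : 0 < 2 - b := by linarith [hrg.b2]
  set Ct : ℝ := 8 * 11 ^ 4 * (81 * (6 * A0 ^ 2) ^ 3 * v3 * Cn ^ 2) ^ (3 / 2 : ℝ) with hCt
  have hCt0 : 0 ≤ Ct := by positivity
  set CC : ℝ := 1 + 8 * C2 * Cn + Ct + (36 / (2 - b) ^ 2) ^ 2 with hCC
  have hCCa : 8 * C2 * Cn ≤ CC := by
    have : 0 ≤ (36 / (2 - b) ^ 2) ^ 2 := by positivity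
    linarith
  have hCCb : Ct ≤ CC := by
    have : 0 ≤ (36 / (2 - b) ^ 2) ^ 2 := by positivity
    have : 0 ≤ 8 * C2 * Cn := by positivity
    linarith
  have hCCc : (36 / (2 - b) ^ 2) ^ 2 ≤ CC := by
    have : 0 ≤ 8 * C2 * Cn := by positivity
    linarith
  have hCC1 : 1 ≤ CC := by
    have : 0 ≤ (36 / (2 - b) ^ 2) ^ 2 := by positivity
    have : 0 ≤ 8 * C2 * Cn := by positivity
    linarith
  refine ⟨CC, hCC1, ?_⟩
  intro κ η0 C0 σ g R D hSs hKp hCR L hL ν hν1 hνR hLe r s1 s2 hr hrL hs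
  have hR1 : 1 ≤ R := hSs.R1
  have hR0 : 0 < R := by linarith
  have hk0 := hKp.k0
  have hr12 : 1 ≤ R ^ (1/2 : ℝ) := Real.one_le_rpow hR1 (by norm_num)
  have hr1 : 1 ≤ r := hr12.trans hr
  have hr0 : 0 < r := by linarith
  have hrLr : r ≤ L.r := by
    refine le_trans ?_ hrL
    nlinarith
  have hrR : r ≤ R := hrLr.trans hL.hi
  have hLr1 : 1 ≤ L.r := hr1.trans hrLr
  have hLr0 : 0 < L.r := by linarith
  have hE0 : 0 ≤ Enc g := Enc_nn g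
  have hsp : 0 < s1 := lt_of_lt_of_le (Real.rpow_pos_of_pos hr0 _) hs.lo
  have hsp2 : 0 < s2 := lt_of_lt_of_le hsp hs.le
  -- the thin side
  have hκr : 1 ≤ κ * r := by
    have h1 : R ^ (-(1/16) : ℝ) * R ^ (1/2 : ℝ) ≤ κ * r :=
      mul_le_mul hKp.kR hr (by positivity) hk0.le
    rw [← Real.rpow_add hR0] at h1
    exact (Real.one_le_rpow hR1 (by norm_num)).trans h1
  have hTT : TT κ s2 r ≤ 1 := by
    unfold TT
    refine max_le ?_ (inv_le_one_of_one_le₀ hκr)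
    nlinarith [hs.hi]
  have hBA : 6 * A0 ^ 2 * r ≤ A * L.r := mul_le_mul hA hrLr hr0.le (by nlinarith)
  have hA1 : 1 ≤ A := by nlinarith
  -- the rest
  set x : ℝ := (Cn * ν * R ^ (-(K : ℝ)) * Real.sqrt (Enc g)) ^ 2 with hx
  have hrest : ∀ p ∈ cylc R, enc (r ^ (-(1/2) : ℝ)) (trc (p - L.ζ p) (L.rest (L.ζ p)))
      (fun _ => Metric.closedBall 0 (6 * A0 ^ 2 * r)) ≤
      ENNReal.ofReal (81 * (6 * A0 ^ 2) ^ 3 * v3 * R ^ 4 * x) := by
    intro p hp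
    obtain ⟨hz, hw⟩ := hL.near p hp
    obtain ⟨cls, hD⟩ := hL.dec _ hz
    refine enc_tiny hr1 hrR (by positivity) (by positivity) (fun _ => le_rfl)
      (fun _ => Metric.isClosed_closedBall.measurableSet) ?_
    intro m _ y hy
    rw [mem_closedBall_zero_iff] at hy
    have h1 := hD.small r hr1 hrLr (p - L.ζ p) ⟨hw.1.trans (by nlinarith),
      hw.2.trans (by nlinarith)⟩ m y (hy.trans hBA)
    rw [← ofReal_norm, ← ENNReal.ofReal_pow (norm_nonneg _)]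
    refine ENNReal.ofReal_le_ofReal ?_
    rw [hx]
    refine pow_le_pow_left₀ (norm_nonneg _) (h1.trans ?_) 2
    have := hLe.2
    gcongr
  -- the main term
  set Q : ℝ := C2 * R ^ (Ka * ε) * (L.r / r) ^ (c / 2) with hQ
  have hQ0 : 0 ≤ Q := by positivity
  have hterm : ∀ k ∈ Finset.range L.n, ∀ z ∈ L.Z,
      ENNReal.ofReal (s2 ^ (-q / 2)) * SIG M κ A0 r s1 s2 (L.G z k) L.r ≤
      ENNReal.ofReal (Q * Cn) * (ENNReal.ofReal (L.r * Real.sqrt (L.D z k)) *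
        ∑ i ∈ L.I z k, enc (L.r ^ (-(1/2) : ℝ)) (trc z g) (L.P z k i).S) := by
    intro k hk z hz
    obtain ⟨cls, hD⟩ := hL.dec z hz
    have hst := St_mono (slope_le hrg.b2 (hCCc.trans hCR) hR1 hL.lo) (hD.st k hk)
    have h1 := hA2 κ η0 C0 _ (L.G z k) L.r (L.D z k) hk0 ?_ ?_ hst (hD.slc k hk) r s1 s2 ?_ hrLr hs
    · refine h1.trans ?_
      have h2 : ENNReal.ofReal (SS (L.G z k) L.r (L.D z k)) ≤ ENNReal.ofReal Cn *
          (ENNReal.ofReal (L.r * Real.sqrt (L.D z k)) *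
            ∑ i ∈ L.I z k, enc (L.r ^ (-(1/2) : ℝ)) (trc z g) (L.P z k i).S) := by
        have e1 : SS (L.G z k) L.r (L.D z k) = L.r * Real.sqrt (L.D z k) * Enc (L.G z k) := by
          unfold SS; ring
        rw [e1, ENNReal.ofReal_mul (by positivity), mul_left_comm (ENNReal.ofReal Cn)]
        exact mul_le_mul' le_rfl (hD.energy k hk)
      have h3 : C2 * L.r ^ (Ka * ε) * (max 1 (L.r / (s1 * r) ^ 2)) ^ (c / 2) ≤ Q := by
        have h4 : max 1 (L.r / (s1 * r) ^ 2) ≤ L.r / r := by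
          refine max_le ((one_le_div hr0).2 hrLr) ?_
          have h5 : r ≤ (s1 * r) ^ 2 := by
            have h6 : r ^ (-(1/2) : ℝ) * r ≤ s1 * r := by
              have := hs.lo
              gcongr
            have h7 : r ^ (-(1/2) : ℝ) * r = r ^ (1/2 : ℝ) := by
              nth_rewrite 2 [← Real.rpow_one r]
              rw [← Real.rpow_add hr0]
              norm_num
            rw [h7] at h6
            calc r = (r ^ (1/2 : ℝ)) ^ 2 := by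
                  rw [← Real.rpow_natCast, ← Real.rpow_mul hr0.le]
                  norm_num
              _ ≤ _ := pow_le_pow_left₀ (by positivity) h6 2
          gcongr
        have h8 : 1 ≤ max 1 (L.r / (s1 * r) ^ 2) := le_max_left _ _
        have h9 : L.r ≤ R := hL.hi
        rw [hQ]
        gcongr
      rw [ENNReal.ofReal_mul (by positivity), ENNReal.ofReal_mul hQ0,
        mul_assoc (ENNReal.ofReal Q)]
      exact mul_le_mul' (ENNReal.ofReal_le_ofReal h3) h2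
    · have := hKp.kb
      nlinarith
    · refine le_trans ?_ hKp.kR
      have h2 : L.r ^ (-(1/4) : ℝ) ≤ (R ^ (1/2 : ℝ)) ^ (-(1/4) : ℝ) :=
        Real.rpow_le_rpow_of_nonpos (by positivity) hL.lo (by norm_num)
      refine h2.trans ?_
      rw [← Real.rpow_mul hR0.le]
      exact Real.rpow_le_rpow_of_exponent_le hR1 (by norm_num)
    · refine le_trans ?_ hr
      exact Real.rpow_le_rpow hLr0.le hL.hi (by norm_num)
  -- the value of one system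
  have hn3 : ((L.n + 1 : ℕ) : ℝ≥0∞) ^ 3 ≤ ENNReal.ofReal (8 * ν ^ 3) := by
    rw [← ENNReal.ofReal_natCast, ← ENNReal.ofReal_pow (Nat.cast_nonneg _)]
    refine ENNReal.ofReal_le_ofReal ?_
    have h1 : ((L.n + 1 : ℕ) : ℝ) ≤ 2 * ν := by
      push_cast
      linarith [hLe.1]
    calc ((L.n + 1 : ℕ) : ℝ) ^ 3 ≤ (2 * ν) ^ 3 := pow_le_pow_left₀ (Nat.cast_nonneg _) h1 3
      _ = 8 * ν ^ 3 := by ring
  have hν0 : 0 ≤ ν := by linarith
  have hpow : ∀ j : ℕ, j ≤ 6 → ν ^ j ≤ ν ^ (⌈Ka⌉₊ + 6) := fun j hj =>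
    pow_le_pow_right₀ hν1 (by omega)
  have hmain : ENNReal.ofReal (8 * ν ^ 3) * ENNReal.ofReal (Q * Cn) ≤
      ENNReal.ofReal (CC * ν ^ (⌈Ka⌉₊ + 6) * R ^ (((⌈Ka⌉₊ + 6 : ℕ) : ℝ) * ε) *
        (L.r / r) ^ (c / 2)) := by
    rw [← ENNReal.ofReal_mul (by positivity)]
    refine ENNReal.ofReal_le_ofReal ?_
    have h1 : R ^ (Ka * ε) ≤ R ^ (((⌈Ka⌉₊ + 6 : ℕ) : ℝ) * ε) := by
      refine Real.rpow_le_rpow_of_exponent_le hR1 ?_
      have := Nat.le_ceil Ka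
      push_cast
      nlinarith
    calc 8 * ν ^ 3 * (Q * Cn) = (8 * C2 * Cn) * ν ^ 3 * R ^ (Ka * ε) * (L.r / r) ^ (c / 2) := by
          rw [hQ]; ring
      _ ≤ _ := by
          have := hpow 3 (by norm_num)
          gcongr
  have hs2q : s2 ^ (-q / 2) ≤ R ^ (|q| / 4) := by
    have h0 : 0 < r ^ (-(1/2) : ℝ) := Real.rpow_pos_of_pos hr0 _
    rcases le_total 0 q with h1 | h1
    · rw [abs_of_nonneg h1]
      exact TuT890.s2_pow h1 hr1 hrR (hs.lo.trans hs.le)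
    · calc s2 ^ (-q / 2) ≤ 1 := Real.rpow_le_one hsp2.le hs.hi (by linarith)
        _ ≤ _ := Real.one_le_rpow hR1 (by positivity)
  have hrestn : ENNReal.ofReal (s2 ^ (-q / 2)) * (ENNReal.ofReal (8 * ν ^ 3) *
      (ENNReal.ofReal ((11 * R) ^ 4) *
        ENNReal.ofReal (r * (81 * (6 * A0 ^ 2) ^ 3 * v3 * R ^ 4 * x)) ^ (3 / 2 : ℝ))) ≤
      ENNReal.ofReal (CC * ν ^ (⌈Ka⌉₊ + 6) * SS g R D) := by
    rw [ENNReal.ofReal_rpow_of_nonneg (by positivity) (by norm_num),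
      ← ENNReal.ofReal_mul (by positivity), ← ENNReal.ofReal_mul (by positivity),
      ← ENNReal.ofReal_mul (by positivity)]
    refine ENNReal.ofReal_le_ofReal ?_
    have h1 := tiny_num2 (B := 6 * A0 ^ 2) (v := v3) (Cn := Cn) (nb := ν) (ν := ν) (R := R) (r := r)
      (E := Enc g) (D := D) (Q := |q| / 4) (M0 := M0) (K := K) (by positivity) hv (by linarith) hν0
      le_rfl hR1 hr0.le hrR hE0 hSs.nd (by
        have h2 := Nat.le_ceil (11 + |q| / 4 + M0 / 2)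
        have h3 : ((⌈11 + |q| / 4 + M0 / 2⌉₊ : ℕ) : ℝ) ≤ K := by exact_mod_cast hK
        linarith)
    calc s2 ^ (-q / 2) * (8 * ν ^ 3 * ((11 * R) ^ 4 *
          (r * (81 * (6 * A0 ^ 2) ^ 3 * v3 * R ^ 4 * x)) ^ (3 / 2 : ℝ)))
        ≤ R ^ (|q| / 4) * (8 * ν ^ 3 * ((11 * R) ^ 4 *
          (r * (81 * (6 * A0 ^ 2) ^ 3 * v3 * R ^ 4 * x)) ^ (3 / 2 : ℝ))) := by gcongr
      _ = R ^ (|q| / 4) * (8 * ν ^ 3) * (11 * R) ^ 4 *
          (r * (81 * (6 * A0 ^ 2) ^ 3 * v3 * R ^ 4 * x)) ^ (3 / 2 : ℝ) := by ring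
      _ ≤ Ct * ν ^ 6 * SS g R D := h1
      _ ≤ _ := by
          have h2 : 0 ≤ SS g R D := by unfold SS; positivity
          have := hpow 6 le_rfl
          gcongr
  have key : ∀ (I : Finset ℕ) (P : ℕ → Plate), Plates M κ A0 r s1 s2 R I P →
      ENNReal.ofReal (s2 ^ (-q / 2)) * val κ g r s1 s2 I P ≤
      ENNReal.ofReal (CC * ν ^ (⌈Ka⌉₊ + 6) * R ^ (((⌈Ka⌉₊ + 6 : ℕ) : ℝ) * ε) *
        (L.r / r) ^ (c / 2)) * ∑ k ∈ Finset.range L.n, L.S g k +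
      ENNReal.ofReal (CC * ν ^ (⌈Ka⌉₊ + 6) * SS g R D) := by
    intro I P hP
    have h1 := val_dec ha hL hA0 hr1 hrR hTT hs hP hrest
    calc ENNReal.ofReal (s2 ^ (-q / 2)) * val κ g r s1 s2 I P
        ≤ ENNReal.ofReal (s2 ^ (-q / 2)) * (ENNReal.ofReal (8 * ν ^ 3) *
          (∑ k ∈ Finset.range L.n, ∑ z ∈ L.Z, SIG M κ A0 r s1 s2 (L.G z k) L.r +
            ENNReal.ofReal ((11 * R) ^ 4) * ENNReal.ofReal (r *
              (81 * (6 * A0 ^ 2) ^ 3 * v3 * R ^ 4 * x)) ^ (3 / 2 : ℝ))) :=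
          mul_le_mul' le_rfl (h1.trans (mul_le_mul' hn3 le_rfl))
      _ = ENNReal.ofReal (8 * ν ^ 3) * (∑ k ∈ Finset.range L.n, ∑ z ∈ L.Z,
            ENNReal.ofReal (s2 ^ (-q / 2)) * SIG M κ A0 r s1 s2 (L.G z k) L.r) +
          ENNReal.ofReal (s2 ^ (-q / 2)) * (ENNReal.ofReal (8 * ν ^ 3) *
            (ENNReal.ofReal ((11 * R) ^ 4) * ENNReal.ofReal (r *
              (81 * (6 * A0 ^ 2) ^ 3 * v3 * R ^ 4 * x)) ^ (3 / 2 : ℝ))) := by
          simp_rw [← Finset.mul_sum]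
          ring
      _ ≤ ENNReal.ofReal (8 * ν ^ 3) * (∑ k ∈ Finset.range L.n, ∑ z ∈ L.Z,
            ENNReal.ofReal (Q * Cn) * (ENNReal.ofReal (L.r * Real.sqrt (L.D z k)) *
              ∑ i ∈ L.I z k, enc (L.r ^ (-(1/2) : ℝ)) (trc z g) (L.P z k i).S)) +
          ENNReal.ofReal (CC * ν ^ (⌈Ka⌉₊ + 6) * SS g R D) :=
          add_le_add (mul_le_mul' le_rfl (Finset.sum_le_sum fun k hk =>
            Finset.sum_le_sum fun z hz => hterm k hk z hz)) hrestn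
      _ = ENNReal.ofReal (8 * ν ^ 3) * ENNReal.ofReal (Q * Cn) *
            ∑ k ∈ Finset.range L.n, L.S g k +
          ENNReal.ofReal (CC * ν ^ (⌈Ka⌉₊ + 6) * SS g R D) := by
          simp_rw [← Finset.mul_sum]
          rw [← mul_assoc (ENNReal.ofReal (8 * ν ^ 3)) (ENNReal.ofReal (Q * Cn))]
          rfl
      _ ≤ _ := add_le_add (mul_le_mul' hmain le_rfl) le_rfl
  unfold SIG
  simp_rw [ENNReal.mul_iSup]
  refine iSup_le fun I => iSup_le fun P => iSup_le fun hP => ?_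
  exact key I P hP

end Crest.Agent.R116.Fin850
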