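import Crest.Agent.R116.IIr4_460
import Crest.Agent.R116.D0T_794
import Crest.Agent.R116.Rcx3_363

/-!
# R116, ROW TIE (helper850): the binder of all cells

* `VE`, `VK`, `VD` : the three cases (`e`-tie; `κ`-tie or `D`-tie; double tie)
* `SFill η V X` : the literal which the owners prove (context with room above, range `Rg` large)
* **`fill_of`** : `SFill η V X → Fill η V X`
* `Fill.eta` : `Fill` is monotone in `η`
* `FalseE_cells`, `FalseK_cells`, `FalseD_cells`, **`rowTie_cells`**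

`k = θ 0 - θ 1`, `k' = 2 θ 0 - θ 1`, `θ = θ 0`.
-/

set_option autoImplicit false
set_option linter.unusedVariables false

open Finset Filter Topology MeasureTheory Set

namespace Crest.Agent.R116.FlH850

open Crest.Agent.R138.Ex926 (Base U)
open Crest.Agent.R136.MkA627
open Crest.Agent.R136.TD627
open Crest.Agent.R116.KI439
open Crest.Agent.R116.Gd222 (TSet)
open Crest.Agent.R116.ChL222 (LInc)
open Crest.Agent.R116.Tw468 (OutT OutR)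
open Crest.Agent.R116.KF439 (PL)
open Crest.Agent.R116.KTop387
open Crest.Agent.R116.CtxB468
open Crest.Agent.R116.Tie460
open Crest.Agent.R116.KTie794
open Crest.Agent.R116.PL504 (Shift)
open Crest.Agent.R116.Rcx363 (strict_ctx)

/-- the type of a case -/
abbrev VTy : Type :=
  (Fin 2 → ℝ) → Base → (ℕ → Finset (ℕ × ℝ)) → (ℕ → ℚ → ℕ) → (ℕ → ℕ × ℝ → LInc) →
    (Fin 12 → ℕ → ℝ) → Prop

/-- `e`-tie : `B` tied, `E` and `D` invisible -/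
abbrev VE : VTy := fun θ B I lev fl sc => VisB θ B I lev fl sc ∧ InvE B I fl sc

/-- `κ`-tie, `D`-tie : `B` invisible, `E` or `D` tied -/
abbrev VK : VTy := fun θ B I lev fl sc => InvB B I fl sc ∧ VisE θ B I lev fl sc

/-- double tie -/
abbrev VD : VTy := fun θ B I lev fl sc => VisB θ B I lev fl sc ∧ VisE θ B I lev fl sc

/-- the literal of the owners: a context with room above, a large range -/
def SFill (η : ℝ) (V : VTy) (X : ℝ → ℝ → (Fin 2 → ℝ) → (Fin 2 → ℝ) → Prop) : Prop :=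
  ∀ {G : Geo TSet (Fin 2)} {L : ℕ → ℕ → LRay} {r : ℕ → ℝ} {g s : ℝ} {θ q : Fin 2 → ℝ}
    {Rg : ℝ} {B : Base} {I : ℕ → Finset (ℕ × ℝ)} {lev : ℕ → ℚ → ℕ} {A : ℕ → ℝ}
    {f : ℕ → ℚ → ℕ → ℤ → ℕ} {b : ℕ → ℚ → ℕ → TSet} {vm : ℕ → ℚ → ℝ} {w : Fin 2 → ℕ → ℚ → ℝ}
    {fr : ℕ → ℚ → ℕ × ℝ → LInc} {fl : ℕ → ℕ × ℝ → LInc} {sc : Fin 12 → ℕ → ℝ}
    {w0 sa sb δ R : ℝ} {I0 I' : ℕ → Finset (ℕ × ℝ)} {ν own : (Fin 12 → ℝ) → ℝ} {c₀ : ℝ},
    CtxT G L r (g + 2 * s) s θ q Rg B I lev A f b vm w fr fl sc w0 sa sb δ R I0 I' ν own c₀ →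
    NumL η g s θ q → w0 + (θ 1 + sb) < R → w0 + 1 + sb < R →
    θ 0 + |θ 1| + 1 ≤ Rg → V θ B I lev fl sc → X g s θ q

section

variable {η : ℝ} {V V' : VTy} {X Y : ℝ → ℝ → (Fin 2 → ℝ) → (Fin 2 → ℝ) → Prop}

/-- **the owners' literal is a fill** -/
theorem fill_of (h : SFill η V X) : Fill η V X := by
  intro g s θ q hN
  refine ⟨θ 0 + |θ 1| + 1, fun Rg hRg => ?_⟩
  intro G L r B I lev A f b vm w fr fl sc w0 sa sb δ R I0 I' ν own c₀ C hV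
  obtain ⟨w0, sa, sb, δ, R, I0, I', ν, own, c₀, C, hR0, hR1⟩ := strict_ctx C
  exact h C hN hR0 hR1 hRg hV

theorem SFill.mono (h : SFill η V X)
    (hXY : ∀ g s θ q, NumL η g s θ q → X g s θ q → Y g s θ q) : SFill η V Y := by
  intro G L r g s θ q Rg B I lev A f b vm w fr fl sc w0 sa sb δ R I0 I' ν own c₀ C hN hR0 hR1 hRg hV
  exact hXY _ _ _ _ hN (h C hN hR0 hR1 hRg hV)

theorem SFill.vis (h : SFill η V X)
    (hV : ∀ θ B I lev fl sc, V' θ B I lev fl sc → V θ B I lev fl sc) : SFill η V' X := by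
  intro G L r g s θ q Rg B I lev A f b vm w fr fl sc w0 sa sb δ R I0 I' ν own c₀ C hN hR0 hR1 hRg
    hV'
  exact h C hN hR0 hR1 hRg (hV _ _ _ _ _ _ hV')

theorem numL_mono {η η' g s : ℝ} {θ q : Fin 2 → ℝ} (hη : η' ≤ η) (h : NumL η' g s θ q) :
    NumL η g s θ q :=
  { h with
    qbg := h.qbg.trans (mul_le_mul_of_nonneg_right hη h.gpos.le)
    qba := h.qba.trans (mul_le_mul_of_nonneg_right hη h.qa.le) }

/-- `Fill` is monotone in `η` -/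
theorem fill_eta {η' : ℝ} (hη : η' ≤ η) (h : Fill η V X) : Fill η' V X := by
  intro g s θ q hN
  exact h g s θ q (numL_mono hη hN)

theorem rowTie_eta {η' : ℝ} (hη : η' ≤ η) (h : RowTie η) : RowTie η' := by
  intro g s θ q hN
  exact h g s θ q (numL_mono hη hN)

/-- one case split -/
theorem fill_by {P Q : ℝ → ℝ → (Fin 2 → ℝ) → (Fin 2 → ℝ) → Prop}
    (h1 : Fill η V fun g s θ q => P g s θ q → X g s θ q)
    (h2 : Fill η V fun g s θ q => Q g s θ q → X g s θ q)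
    (hc : ∀ g s θ q, NumL η g s θ q → P g s θ q ∨ Q g s θ q) : Fill η V X := by
  refine (h1.and h2).mono fun g s θ q hN h => ?_
  rcases hc g s θ q hN with hP | hQ
  · exact h.1 hP
  · exact h.2 hQ

end

/-! ### the cells -/

section cells

variable {η : ℝ}

/-- 460's table on a part of the numbers: a contradiction there -/
theorem fillE_tab (hη : η < 1) {P : ℝ → (Fin 2 → ℝ) → Prop}
    (hT : Fill η VE fun g s θ q => P s θ →
      ETie' (θ 0 - θ 1) (θ 0) s (g + 2 * s) (q 0) (q 1)) :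
    Fill η VE fun _ s θ _ => P s θ → False := by
  intro g s θ q hN
  obtain ⟨R1, h⟩ := hT g s θ q hN
  refine ⟨R1, fun Rg hRg => ?_⟩
  intro G L r B I lev A f b vm w fr fl sc w0 sa sb δ R I0 I' ν own c₀ C hV hP
  exact (h Rg hRg G L r B I lev A f b vm w fr fl sc w0 sa sb δ R I0 I' ν own c₀ C hV hP).false
    (num_of hη hN) (TieT.kB hV.1)

theorem fillK_tab (hη : η < 1) {P : ℝ → (Fin 2 → ℝ) → Prop}
    (hT : Fill η VK fun g s θ q => P s θ →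
      KTie' (2 * θ 0 - θ 1) (θ 0) s (g + 2 * s) (q 0) (q 1)) :
    Fill η VK fun _ s θ _ => P s θ → False := by
  intro g s θ q hN
  obtain ⟨R1, h⟩ := hT g s θ q hN
  refine ⟨R1, fun Rg hRg => ?_⟩
  intro G L r B I lev A f b vm w fr fl sc w0 sa sb δ R I0 I' ν own c₀ C hV hP
  exact (h Rg hRg G L r B I lev A f b vm w fr fl sc w0 sa sb δ R I0 I' ν own c₀ C hV hP).false
    (num_of hη hN) (TieT.kE hV.2)

theorem fillD_tab (hη : η < 1) {P : ℝ → (Fin 2 → ℝ) → Prop}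
    (hT : Fill η VD fun g s θ q => P s θ →
      DTie' (θ 0 - θ 1) (2 * θ 0 - θ 1) (θ 0) s (g + 2 * s) (q 0) (q 1)) :
    Fill η VD fun _ s θ _ => P s θ → False := by
  intro g s θ q hN
  obtain ⟨R1, h⟩ := hT g s θ q hN
  refine ⟨R1, fun Rg hRg => ?_⟩
  intro G L r B I lev A f b vm w fr fl sc w0 sa sb δ R I0 I' ν own c₀ C hV hP
  exact (h Rg hRg G L r B I lev A f b vm w fr fl sc w0 sa sb δ R I0 I' ν own c₀ C hV hP).false
    (num_of hη hN) (TieT.kB hV.1) (by ring)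

/-- **`e`-tie** : all cells (`k = θ 0 - θ 1`); `P1` is the part of the line `k = 1`, `1/2 ≤ s`, which
the table takes -/
theorem falseE_cells (hη : η < 1) (P1 : ℝ → Prop)
    -- 794 : 460's table
    (hT : Fill η VE fun g s θ q =>
      (s < 1 / 2 ∨ 1 < θ 0 - θ 1 ∨ (θ 0 - θ 1 = 1 ∧ P1 (θ 0))) →
        ETie' (θ 0 - θ 1) (θ 0) s (g + 2 * s) (q 0) (q 1))
    -- 72 / 101 / 120 : `k = 1`, `1/2 ≤ s`
    (h1 : Fill η VE fun g s θ q => 1 / 2 ≤ s → θ 0 - θ 1 = 1 → ¬ P1 (θ 0) → False)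
    -- 171 : `k < 1`, `1/2 ≤ s`, `T^+` (`fillE_up`)
    (hP : Fill η VE fun g s θ q =>
      1 / 2 ≤ s → θ 0 - θ 1 < 1 → 2 * θ 0 ≤ 1 + (θ 0 - θ 1) → False)
    -- 621 : `k < 1`, `1/2 ≤ s`, `T^-` (`fillE_loW`)
    (hM : Fill η VE fun g s θ q =>
      1 / 2 ≤ s → θ 0 - θ 1 < 1 → 1 + (θ 0 - θ 1) ≤ 2 * θ 0 → False) :
    FalseE η := by
  have e := (((fillE_tab hη (P := fun s θ =>
    (s < 1 / 2 ∨ 1 < θ 0 - θ 1 ∨ (θ 0 - θ 1 = 1 ∧ P1 (θ 0)))) hT).and h1).and hP).and hM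
  refine e.mono fun g s θ q hN h => ?_
  obtain ⟨⟨⟨a, b⟩, c⟩, d⟩ := h
  rcases lt_or_ge s (1 / 2) with hs | hs
  · exact a (Or.inl hs)
  rcases lt_trichotomy (θ 0 - θ 1) 1 with hk | hk | hk
  · rcases le_or_gt (2 * θ 0) (1 + (θ 0 - θ 1)) with ht | ht
    · exact c hs hk ht
    · exact d hs hk ht.le
  · by_cases ht : P1 (θ 0)
    · exact a (Or.inr (Or.inr ⟨hk, ht⟩))
    · exact b hs hk ht
  · exact a (Or.inr (Or.inl hk))

/-- **`κ`-tie, `D`-tie** : all cells (`k' = 2 θ 0 - θ 1`) -/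
theorem falseK_cells (hη : η < 1)
    -- 363 : 460's table
    (hT : Fill η VK fun g s θ q =>
      (s < 1 / 2 ∨ 1 ≤ 2 * θ 0 - θ 1) →
        KTie' (2 * θ 0 - θ 1) (θ 0) s (g + 2 * s) (q 0) (q 1))
    -- 954 : `k' ≤ 1/2`
    (hA : Fill η VK fun g s θ q => 1 / 2 ≤ s → 2 * θ 0 - θ 1 ≤ 1 / 2 → False)
    -- 538 : `1/2 < k' < 1`, `T^+` (`fillH2`)
    (hP : Fill η VK fun g s θ q =>
      1 / 2 ≤ s → 1 / 2 < 2 * θ 0 - θ 1 → 2 * θ 0 - θ 1 < 1 →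
        θ 0 ≤ (1 + (2 * θ 0 - θ 1)) / 3 → False)
    -- 658 : `1/2 < k' < 1`, `T^-` (`fillH5_k`)
    (hM : Fill η VK fun g s θ q =>
      1 / 2 ≤ s → 1 / 2 < 2 * θ 0 - θ 1 → 2 * θ 0 - θ 1 < 1 →
        1 + (2 * θ 0 - θ 1) ≤ 3 * θ 0 → False) :
    FalseK η := by
  have e := (((fillK_tab hη (P := fun s θ =>
    (s < 1 / 2 ∨ 1 ≤ 2 * θ 0 - θ 1)) hT).and hA).and hP).and hM
  refine e.mono fun g s θ q hN h => ?_
  obtain ⟨⟨⟨a, b⟩, c⟩, d⟩ := h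
  rcases lt_or_ge s (1 / 2) with hs | hs
  · exact a (Or.inl hs)
  rcases le_or_gt 1 (2 * θ 0 - θ 1) with hk | hk
  · exact a (Or.inr hk)
  rcases le_or_gt (2 * θ 0 - θ 1) (1 / 2) with hk2 | hk2
  · exact b hs hk2
  rcases le_or_gt (θ 0) ((1 + (2 * θ 0 - θ 1)) / 3) with ht | ht
  · exact c hs hk2 hk ht
  · exact d hs hk2 hk (by linarith)

/-- **double tie** : all cells (`k = θ 0 - θ 1`, `k' = 2 θ 0 - θ 1`) -/
theorem falseD_cells (hη : η < 1)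
    -- 348 : 460's table
    (hT : Fill η VD fun g s θ q =>
      (s < 1 / 2 ∨ 1 ≤ 2 * θ 0 - θ 1) →
        DTie' (θ 0 - θ 1) (2 * θ 0 - θ 1) (θ 0) s (g + 2 * s) (q 0) (q 1))
    -- 171 : `k' < 1`, `T^+` (`fillD_up`)
    (hP : Fill η VD fun g s θ q =>
      1 / 2 ≤ s → 2 * θ 0 - θ 1 < 1 → 2 * θ 0 ≤ 1 + (θ 0 - θ 1) → False)
    -- 658 : `1/2 < k' < 1`, `T^-` (`fillH5_d`)
    (hM : Fill η VD fun g s θ q =>
      1 / 2 ≤ s → 1 / 2 < 2 * θ 0 - θ 1 → 2 * θ 0 - θ 1 < 1 →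
        1 + (2 * θ 0 - θ 1) ≤ 3 * θ 0 → False) :
    FalseD η := by
  -- `0 < k` on the double tie
  have hk0 : Fill η VD fun _ _ θ _ => 0 < θ 0 - θ 1 := by
    intro g s θ q hN
    refine ⟨0, fun Rg hRg => ?_⟩
    intro G L r B I lev A f b vm w fr fl sc w0 sa sb δ R I0 I' ν own c₀ C hV
    exact TieT.kB hV.1
  have e := (((fillD_tab hη (P := fun s θ =>
    (s < 1 / 2 ∨ 1 ≤ 2 * θ 0 - θ 1)) hT).and hk0).and hP).and hM
  refine e.mono fun g s θ q hN h => ?_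
  obtain ⟨⟨⟨a, b⟩, c⟩, d⟩ := h
  rcases lt_or_ge s (1 / 2) with hs | hs
  · exact a (Or.inl hs)
  rcases le_or_gt 1 (2 * θ 0 - θ 1) with hk | hk
  · exact a (Or.inr hk)
  rcases le_or_gt (2 * θ 0) (1 + (θ 0 - θ 1)) with ht | ht
  · exact c hs hk ht
  · exact d hs (by linarith) hk (by linarith)

/-- **the row of the ties from the cells** -/
theorem rowTie_cells (hE : FalseE η) (hK : FalseK η) (hD : FalseD η) :
    RowTie η := rowTie_of3 hE hK hD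

end cells

/-! ### adapters -/

section adapt

variable {η : ℝ}

/-- 954's `aprioriK`, as a Prop -/
def AprioriK : Prop :=
  ∀ {G : Geo TSet (Fin 2)} {L : ℕ → ℕ → LRay} {r : ℕ → ℝ} {g s : ℝ} {θ q : Fin 2 → ℝ}
    {Rg : ℝ} {B : Base} {I : ℕ → Finset (ℕ × ℝ)} {lev : ℕ → ℚ → ℕ} {A : ℕ → ℝ}
    {f : ℕ → ℚ → ℕ → ℤ → ℕ} {b : ℕ → ℚ → ℕ → TSet} {vm : ℕ → ℚ → ℝ} {w : Fin 2 → ℕ → ℚ → ℝ}
    {fr : ℕ → ℚ → ℕ × ℝ → LInc} {fl : ℕ → ℕ × ℝ → LInc} {sc : Fin 12 → ℕ → ℝ}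
    {w0 sa sb δ R : ℝ} {I0 I' : ℕ → Finset (ℕ × ℝ)} {ν own : (Fin 12 → ℝ) → ℝ} {c₀ : ℝ},
    CtxT G L r g s θ q Rg B I lev A f b vm w fr fl sc w0 sa sb δ R I0 I' ν own c₀ →
    InvT PL B I 1 fl (sc 1) → InvT PL B I 7 fl (sc 7) → InvT PL B I 8 fl (sc 8) →
    0 < θ 0 → θ 0 ≤ Rg → |θ 1| ≤ Rg → 0 ≤ q 0 → 0 ≤ q 1 → s < 1 → 0 < 2 * θ 0 - θ 1 →
    2 * θ 0 - θ 1 ≤ 1 / 2 → g + (q 0 + q 1) / 2 ≤ 1

/-- `D` is not tied for `k' ≤ 1` -/
theorem visE_D {θ : Fin 2 → ℝ} {B : Base} {I : ℕ → Finset (ℕ × ℝ)} {lev : ℕ → ℚ → ℕ}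
    {fl : ℕ → ℕ × ℝ → LInc} {sc : Fin 12 → ℕ → ℝ} (hk : 2 * θ 0 - θ 1 ≤ 1) :
    ¬ TieT θ B I lev fl sc 1 := by
  intro h
  have e1 : PL504.βL (θ 0) (θ 1) 1 = -(θ 1) - 2 * -(θ 0) - 1 := rfl
  have h1 := h.2.1
  rw [e1] at h1
  linarith

/-- **954's cell** -/
theorem cellK_apriori (h : AprioriK) :
    Fill η VK fun g s θ q => 1 / 2 ≤ s → 2 * θ 0 - θ 1 ≤ 1 / 2 → False := by
  refine fill_of ?_
  intro G L r g s θ q Rg B I lev A f b vm w fr fl sc w0 sa sb δ R I0 I' ν own c₀ C hN hR0 hR1 hRg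
    hV hs hk
  have hD : InvT PL B I 1 fl (sc 1) := by
    rcases C.out.clsD with h1 | h1
    · exact h1
    · exact (visE_D (by linarith) h1).elim
  have habs := abs_nonneg (θ 1)
  have hθ := hN.θa
  have h1 := h C hD hV.1.1 hV.1.2 hθ (by linarith) (by linarith) hN.qa.le hN.qb.le hN.s1
    (TieT.kE hV.2) hk
  have := hN.gpos
  have := hN.qa
  have := hN.qb
  linarith

end adapt

end Crest.Agent.R116.FlH850
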