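import Mathlib

/-!
# R116 (K side), doc 2383, FREEZE (helper708), part 1: from the micro statement to tangents

* `near_of_mem` : at a.e. point `v` of ANY set `A ⊆ ℝ` the set is dense at all scales:
  `dist (v + s) A = o(s)` (`infDist` is Lipschitz and has a minimum at `v`).
* `freeze_ae`   : `δ v y` Lipschitz in `v`, `δ v y / y → 0` (`y → 0+`) for a.e. `v` ⟹ for a.e. `v`
  `δ (v + h t) (h y) = o(h)`, uniformly in `|t| ≤ K`, `0 < y ≤ K`.
-/

set_option autoImplicit false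

open MeasureTheory Filter Topology Set Metric

namespace Crest.Agent.R116.Fz708

/-- a.e. point of any set is a point of density in the metric sense. -/
theorem near_of_mem (A : Set ℝ) : ∀ᵐ v : ℝ, v ∈ A → ∀ ε : ℝ, 0 < ε → ∃ r : ℝ, 0 < r ∧
    ∀ s : ℝ, |s| < r → ∀ τ : ℝ, 0 < τ → ∃ v' ∈ A, |v + s - v'| ≤ ε * |s| + τ := by
  have h1 : ∀ᵐ v : ℝ, DifferentiableAt ℝ (fun x => infDist x A) v :=
    (lipschitz_infDist_pt A).ae_differentiableAt_real
  filter_upwards [h1] with v hv hvA ε hε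
  have hne : A.Nonempty := ⟨v, hvA⟩
  have h0 : infDist v A = 0 := infDist_zero_of_mem hvA
  have hmin : IsLocalMin (fun x => infDist x A) v := by
    apply Eventually.of_forall
    intro x
    show infDist v A ≤ infDist x A
    rw [h0]
    exact infDist_nonneg
  have hder : HasDerivAt (fun x => infDist x A) 0 v := by
    rw [← hmin.deriv_eq_zero]
    exact hv.hasDerivAt
  have hlo := (hasDerivAt_iff_isLittleO_nhds_zero.1 hder).def hε
  rw [Metric.eventually_nhds_iff] at hlo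
  obtain ⟨r, hr, hb⟩ := hlo
  refine ⟨r, hr, fun s hs τ hτ => ?_⟩
  have h2 := hb (y := s) (by rw [Real.dist_eq, sub_zero]; exact hs)
  rw [h0] at h2
  simp only [sub_zero, smul_zero, Real.norm_eq_abs] at h2
  rw [abs_of_nonneg infDist_nonneg] at h2
  have h3 : infDist (v + s) A < ε * |s| + τ := by linarith
  obtain ⟨v', hv', hd⟩ := (infDist_lt_iff hne).1 h3
  refine ⟨v', hv', ?_⟩
  rw [Real.dist_eq] at hd
  exact hd.le

/-- **micro to tangent.** -/
theorem freeze_ae {δ : ℝ → ℝ → ℝ} {O : Set ℝ} (hO : IsOpen O) {C Y0 : ℝ} (hC : 0 ≤ C)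
    (hY0 : 0 < Y0)
    (hL : ∀ v ∈ O, ∀ v' ∈ O, ∀ y, 0 ≤ y → y ≤ Y0 → |δ v y - δ v' y| ≤ C * |v - v'|)
    (hmic : ∀ᵐ v : ℝ, v ∈ O → Tendsto (fun y => δ v y / y) (𝓝[>] 0) (𝓝 0)) :
    ∀ᵐ v : ℝ, v ∈ O → ∀ K ε : ℝ, 0 < K → 0 < ε → ∃ h0 : ℝ, 0 < h0 ∧ ∀ h : ℝ, 0 < h → h < h0 →
      ∀ t : ℝ, |t| ≤ K → ∀ y : ℝ, 0 < y → y ≤ K → |δ (v + h * t) (h * y)| ≤ ε * h := by
  set A : ℕ → ℕ → Set ℝ := fun k j =>
    {v | v ∈ O ∧ ∀ y : ℝ, 0 < y → y ≤ 1 / ((j : ℝ) + 1) → |δ v y| ≤ y / ((k : ℝ) + 1)} with hA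
  have h1 : ∀ᵐ v : ℝ, ∀ k j : ℕ, v ∈ A k j → ∀ ε : ℝ, 0 < ε → ∃ r : ℝ, 0 < r ∧
      ∀ s : ℝ, |s| < r → ∀ τ : ℝ, 0 < τ → ∃ v' ∈ A k j, |v + s - v'| ≤ ε * |s| + τ := by
    rw [ae_all_iff]
    intro k
    rw [ae_all_iff]
    intro j
    exact near_of_mem (A k j)
  filter_upwards [h1, hmic] with v hv hm hvO K ε hK hε
  -- choice of `k`
  obtain ⟨k, hk⟩ := exists_nat_gt (2 * K / ε)
  have hk1 : (0 : ℝ) < (k : ℝ) + 1 := by positivity
  have hkε : K / ((k : ℝ) + 1) ≤ ε / 2 := by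
    rw [div_lt_iff₀ hε] at hk
    rw [div_le_iff₀ hk1]
    nlinarith
  -- choice of `j`
  have hm' := hm hvO
  rw [Metric.tendsto_nhdsWithin_nhds] at hm'
  obtain ⟨ρ, hρ, hρb⟩ := hm' (1 / ((k : ℝ) + 1)) (by positivity)
  obtain ⟨j, hj⟩ := exists_nat_gt (1 / ρ)
  have hj1 : (0 : ℝ) < (j : ℝ) + 1 := by positivity
  have hjρ : 1 / ((j : ℝ) + 1) < ρ := by
    rw [div_lt_iff₀ hρ] at hj
    rw [div_lt_iff₀ hj1]
    nlinarith
  have hvA : v ∈ A k j := by
    refine ⟨hvO, fun y hy hyj => ?_⟩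
    have h2 := hρb (x := y) hy (by
      rw [Real.dist_eq, sub_zero, abs_of_pos hy]
      exact hyj.trans_lt hjρ)
    rw [Real.dist_eq, sub_zero, abs_div, abs_of_pos hy, div_lt_iff₀ hy] at h2
    have h3 : 1 / ((k : ℝ) + 1) * y = y / ((k : ℝ) + 1) := by ring
    rw [h3] at h2
    exact h2.le
  set ε' : ℝ := ε / (2 * (C + 1) * (K + 1)) with hε'
  have hε'p : 0 < ε' := by positivity
  obtain ⟨r, hr, hrb⟩ := hv k j hvA ε' hε'p
  obtain ⟨r2, hr2, hr2b⟩ := Metric.isOpen_iff.1 hO v hvO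
  refine ⟨min (min (r / (K + 1)) (r2 / (K + 1))) (min (1 / (((j : ℝ) + 1) * (K + 1))) (Y0 / (K + 1))),
    by positivity, fun h hh hlt t ht y hy hyK => ?_⟩
  have c1 : h < r / (K + 1) := hlt.trans_le ((min_le_left _ _).trans (min_le_left _ _))
  have c2 : h < r2 / (K + 1) := hlt.trans_le ((min_le_left _ _).trans (min_le_right _ _))
  have c3 : h < 1 / (((j : ℝ) + 1) * (K + 1)) :=
    hlt.trans_le ((min_le_right _ _).trans (min_le_left _ _))
  have c4 : h < Y0 / (K + 1) := hlt.trans_le ((min_le_right _ _).trans (min_le_right _ _))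
  rw [lt_div_iff₀ (by positivity)] at c1 c2 c3 c4
  have hs : |h * t| ≤ h * K := by
    rw [abs_mul, abs_of_pos hh]
    exact mul_le_mul_of_nonneg_left ht hh.le
  have hsr : |h * t| < r := by nlinarith
  have hsr2 : |h * t| < r2 := by nlinarith
  obtain ⟨v', hv'A, hv'd⟩ := hrb (h * t) hsr (ε' * h) (by positivity)
  have hvtO : v + h * t ∈ O := by
    apply hr2b
    rw [mem_ball, Real.dist_eq]
    have : v + h * t - v = h * t := by ring
    rw [this]
    exact hsr2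
  have hhy : 0 < h * y := mul_pos hh hy
  have hhyK : h * y ≤ h * K := mul_le_mul_of_nonneg_left hyK hh.le
  have hhyY : h * y ≤ Y0 := by nlinarith
  have hhyj : h * y ≤ 1 / ((j : ℝ) + 1) := by
    rw [le_div_iff₀ hj1]
    nlinarith
  have h4 := hL (v + h * t) hvtO v' hv'A.1 (h * y) hhy.le hhyY
  have h5 := hv'A.2 (h * y) hhy hhyj
  have h6 : |δ (v + h * t) (h * y)| ≤ |δ v' (h * y)| + C * |v + h * t - v'| := by
    have h7 : δ (v + h * t) (h * y) = δ v' (h * y) + (δ (v + h * t) (h * y) - δ v' (h * y)) := by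
      ring
    rw [h7]
    refine (abs_add_le _ _).trans ?_
    linarith
  have h8 : |v + h * t - v'| ≤ ε' * ((K + 1) * h) := by
    refine hv'd.trans ?_
    nlinarith
  have h9 : C * |v + h * t - v'| ≤ ε / 2 * h := by
    have h10 : C * |v + h * t - v'| ≤ C * (ε' * ((K + 1) * h)) := mul_le_mul_of_nonneg_left h8 hC
    have h11 : (C + 1) * (ε' * ((K + 1) * h)) = ε / 2 * h := by
      rw [hε']
      field_simp
    have h12 : 0 ≤ ε' * ((K + 1) * h) := by positivity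
    linarith
  have h13 : h * y / ((k : ℝ) + 1) ≤ ε / 2 * h := by
    have h14 : h * y / ((k : ℝ) + 1) ≤ h * (K / ((k : ℝ) + 1)) := by
      rw [mul_div_assoc]
      exact mul_le_mul_of_nonneg_left (div_le_div_of_nonneg_right hyK hk1.le) hh.le
    have h15 : h * (K / ((k : ℝ) + 1)) ≤ h * (ε / 2) := mul_le_mul_of_nonneg_left hkε hh.le
    linarith
  linarith

end Crest.Agent.R116.Fz708
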