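import Crest.Agent.R116.SgO3_219
import Crest.Agent.R116.Fz1_708
import Crest.Agent.R136.Rbw5_219

/-!
# R116 (K side), doc 2383, FREEZE (helper708), part 2: tangents

`e` = direction of the frozen slot (`Pi.single D 1`), `y0 + v • ρ0` = record line.

* `FrzAt`     : `ν (R (ξ + h t)) - ν (R (ξ + h t) + h y e) = o(h)`;
* `ae_frzAt`  : from the micro statement (a.e. `v`, `y → 0+`);
* `frz_tan`   : a tangent of `ν` at `R ξ` does not see `e` along the record line, at all sizes;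
* `frz_sub`   : kept by tangents;
* `ae_rec_fz` : 219's `ae_rec` (all surfaces, moving base) with a frozen slot.
-/

set_option autoImplicit false
set_option linter.unusedSectionVars false
set_option linter.unusedVariables false

open Set Filter Topology Metric MeasureTheory
open scoped NNReal

namespace Crest.Agent.R116.Fz708

open Crest.Agent.R136
open Crest.Agent.R138
open Dg262 (X SupOn X_cont)
open Dg219 (Tn lf Cone Walls gset mem_gset BUp bup_of_tan gC dhC nC Walls.cone Walls.isClosed_L)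
open Rc683
open Rc146 (RecOut)
open Crest.Agent.R116.SgO219 (tan_lim tan_ev)

variable {ι W : Type*} [Fintype ι] [DecidableEq ι] [Fintype W]

/-- the slot direction `e` has zero loss along the record line near `ξ`, to first order. -/
def FrzAt (ν : (ι → ℝ) → ℝ) (y0 ρ0 e : ι → ℝ) (ξ : ℝ) : Prop :=
  ∀ K ε : ℝ, 0 < K → 0 < ε → ∃ h0 : ℝ, 0 < h0 ∧ ∀ h : ℝ, 0 < h → h < h0 →
    ∀ t : ℝ, |t| ≤ K → ∀ y : ℝ, 0 < y → y ≤ K →
      |ν (y0 + (ξ + h * t) • ρ0) - ν (y0 + (ξ + h * t) • ρ0 + (h * y) • e)| ≤ ε * h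

/-- **from the micro statement.** -/
theorem ae_frzAt {ν : (ι → ℝ) → ℝ} {K : ℝ} (hK : 0 ≤ K)
    (hν : ∀ p q, |ν p - ν q| ≤ K * dist p q) {y0 ρ0 e : ι → ℝ} {V : Set ℝ} (hV : IsOpen V)
    (hmic : ∀ᵐ v : ℝ, v ∈ V →
      Tendsto (fun y : ℝ => (ν (y0 + v • ρ0) - ν (y0 + v • ρ0 + y • e)) / y) (𝓝[>] 0) (𝓝 0)) :
    ∀ᵐ ξ : ℝ, ξ ∈ V → FrzAt ν y0 ρ0 e ξ := by
  have h := freeze_ae (δ := fun v y => ν (y0 + v • ρ0) - ν (y0 + v • ρ0 + y • e)) hV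
    (C := 2 * K * ‖ρ0‖) (Y0 := 1) (by positivity) one_pos ?_ hmic
  · filter_upwards [h] with ξ hξ hV'
    exact hξ hV'
  · intro v _ v' _ y _ _
    have h1 := hν (y0 + v • ρ0) (y0 + v' • ρ0)
    have h2 := hν (y0 + v • ρ0 + y • e) (y0 + v' • ρ0 + y • e)
    have e1 : dist (y0 + v • ρ0) (y0 + v' • ρ0) = |v - v'| * ‖ρ0‖ := by
      rw [dist_add_left, dist_eq_norm, ← sub_smul, norm_smul, Real.norm_eq_abs]
    rw [dist_add_right] at h2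
    rw [e1] at h1 h2
    have e2 : ν (y0 + v • ρ0) - ν (y0 + v • ρ0 + y • e) -
        (ν (y0 + v' • ρ0) - ν (y0 + v' • ρ0 + y • e)) =
        (ν (y0 + v • ρ0) - ν (y0 + v' • ρ0)) -
          (ν (y0 + v • ρ0 + y • e) - ν (y0 + v' • ρ0 + y • e)) := by ring
    show |ν (y0 + v • ρ0) - ν (y0 + v • ρ0 + y • e) -
        (ν (y0 + v' • ρ0) - ν (y0 + v' • ρ0 + y • e))| ≤ _
    rw [e2]
    refine (abs_sub _ _).trans ?_
    linarith

/-- **tangents at the fixed base `R ξ`.** -/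
theorem frz_tan {P L : Set (ι → ℝ)} {ν ν' : (ι → ℝ) → ℝ} {y0 ρ0 e : ι → ℝ} {ξ : ℝ}
    (hF : FrzAt ν' y0 ρ0 e ξ) (he : ∀ p ∈ P, ν' p = ν p) {h : ℕ → ℝ} (hpos : ∀ l, 0 < h l)
    (h0 : Tendsto h atTop (𝓝 0)) {g : (ι → ℝ) → ℝ}
    (ht : Ex926.IsTan P L ν (fun _ => y0 + ξ • ρ0) h g) {t y : ℝ} (hy : 0 ≤ y)
    (m1 : t • ρ0 ∈ L) (m2 : t • ρ0 + y • e ∈ L) :
    g (t • ρ0 + y • e) = g (t • ρ0) := by
  rcases hy.eq_or_lt with h1 | h1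
  · rw [← h1, zero_smul, add_zero]
  have hlim := tan_lim hpos ht m1 m2
  have hz : Tendsto (fun l => (ν (y0 + ξ • ρ0 + h l • (t • ρ0)) -
      ν (y0 + ξ • ρ0 + h l • (t • ρ0 + y • e))) / h l) atTop (𝓝 0) := by
    rw [Metric.tendsto_nhds]
    intro ε hε
    obtain ⟨h1', hh1, hb⟩ := hF (max (|t|) y + 1) (ε / 2) (by positivity) (by positivity)
    filter_upwards [h0.eventually_lt_const hh1, tan_ev ht m1, tan_ev ht m2] with l hl k1 k2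
    have hh := hpos l
    have h3 := hb (h l) hh hl t (by linarith [le_max_left |t| y]) y h1
      (by linarith [le_max_right |t| y])
    have e1 : y0 + (ξ + h l * t) • ρ0 = y0 + ξ • ρ0 + h l • (t • ρ0) := by
      rw [add_smul, mul_smul, add_assoc]
    have e2 : y0 + (ξ + h l * t) • ρ0 + (h l * y) • e =
        y0 + ξ • ρ0 + h l • (t • ρ0 + y • e) := by
      rw [e1, smul_add, mul_smul, add_assoc (y0 + ξ • ρ0)]
    rw [e2, e1, he _ k1, he _ k2] at h3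
    rw [Real.dist_eq, sub_zero, abs_div, abs_of_pos hh, div_lt_iff₀ hh]
    have : ε / 2 * h l < ε * h l := by nlinarith
    exact h3.trans_lt this
  have := tendsto_nhds_unique hlim hz
  linarith

/-- the slot `e` is not seen along the line `ℝ ρ0`. -/
def Frz (lam : (ι → ℝ) → ℝ) (ρ0 e : ι → ℝ) : Prop :=
  ∀ t y : ℝ, 0 ≤ y → lam (t • ρ0 + y • e) = lam (t • ρ0)

/-- **kept by tangents at points of the line.** -/
theorem frz_sub {L L' : Set (ι → ℝ)} {g lam : (ι → ℝ) → ℝ} {ρ0 e : ι → ℝ} (hF : Frz g ρ0 e)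
    {σ : ℝ} {k : ℕ → ℝ} (hpos : ∀ l, 0 < k l)
    (ht : Ex926.IsTan L L' g (fun _ => σ • ρ0) k lam)
    (m1 : ∀ t : ℝ, t • ρ0 ∈ L') (m2 : ∀ t y : ℝ, 0 ≤ y → t • ρ0 + y • e ∈ L') :
    Frz lam ρ0 e := by
  intro t y hy
  have hlim := tan_lim hpos ht (m1 t) (m2 t y hy)
  have hz : ∀ l, (g (σ • ρ0 + k l • (t • ρ0)) - g (σ • ρ0 + k l • (t • ρ0 + y • e))) / k l = 0 := by
    intro l
    have e1 : σ • ρ0 + k l • (t • ρ0) = (σ + k l * t) • ρ0 := by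
      rw [add_smul, mul_smul]
    have e2 : σ • ρ0 + k l • (t • ρ0 + y • e) = (σ + k l * t) • ρ0 + (k l * y) • e := by
      rw [smul_add, mul_smul, ← add_assoc, e1]
    rw [e2, e1, hF _ _ (mul_nonneg (hpos l).le hy), sub_self, zero_div]
  have h0 : Tendsto (fun l => (g (σ • ρ0 + k l • (t • ρ0)) -
      g (σ • ρ0 + k l • (t • ρ0 + y • e))) / k l) atTop (𝓝 0) := by
    simp only [hz]
    exact tendsto_const_nhds
  have := tendsto_nhds_unique hlim h0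
  linarith

/-- as `rec_tan2` of 683, with a frozen slot -/
theorem rec_tan2F {Q : Walls ι W} {lo hi y0 ρ0 : ι → ℝ} {T : Type*} [Countable T] {sf : T → Srf ι}
    (ok : ∀ s, (sf s).Ok Q y0 ρ0) {c0 : T → ℝ} (hc0 : ∀ s, 0 < c0 s)
    (hsub : ∀ s, (sf s).LW Q (c0 s) ⊆ Q.L y0 ρ0 0) {J : Type*} [Finite J]
    {f : J → (ι → ℝ) → ℝ} {j0 : J} {ν' : (ι → ℝ) → ℝ} {K : ℝ} (hK : 0 ≤ K)
    (hν : ∀ j, ∀ p ∈ Q.P lo hi, ∀ q ∈ Q.P lo hi, |f j p - f j q| ≤ K * dist p q)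
    (hm : ∀ p ∈ Q.P lo hi, ∀ q ∈ Q.P lo hi, p ≤ q →
      0 ≤ f j0 p - f j0 q ∧ f j0 p - f j0 q ≤ ∑ i, (q i - p i))
    (hs : SupOn (f j0) (Q.P lo hi)) (he : ∀ p ∈ Q.P lo hi, ν' p = f j0 p) {ξ : ℝ}
    (hξ : (ξ, (0:ℝ)) ∈ Q.O lo hi y0 ρ0 0) (hcr : ∀ s, (sf s).CrossAt Q ν' (y0 + ξ • ρ0) (c0 s))
    {e : ι → ℝ} (hmem : ∀ t y : ℝ, 0 ≤ y → t • ρ0 + y • e ∈ Q.L y0 ρ0 0)
    (hfz : FrzAt ν' y0 ρ0 e ξ)
    {h : ℕ → ℝ} (hpos : ∀ l, 0 < h l) (h0 : Tendsto h atTop (𝓝 0)) :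
    ∃ (x h' : ℕ → ℝ) (lam : J → (ι → ℝ) → ℝ), Tendsto x atTop (𝓝 ξ) ∧ (∀ m, 0 < h' m) ∧
      Tendsto h' atTop (𝓝 0) ∧
      (∀ j, Ex926.IsTan (Q.P lo hi) (Q.L y0 ρ0 0) (f j) (fun m => y0 + x m • ρ0) h' (lam j)) ∧
      Frz (lam j0) ρ0 e ∧
      ∀ s, ∃ (φ : ℕ → (ι → ℝ) → ℝ) (r : ℕ → ℝ), RecOut (sf s).g (sf s).S ((sf s).LW Q (c0 s))
        ((sf s).L Q) (sf s).a (sf s).b (sf s).l (sf s).dh (sf s).n (lam j0) φ r := by
  have hM : Dg219.Cone (Q.L y0 ρ0 0) := Walls.cone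
  have hcl : IsClosed (Q.L y0 ρ0 0) := Walls.isClosed_L
  have hlin : ∀ t : ℝ, t • ρ0 ∈ Q.L y0 ρ0 0 := fun t => smul_mem_M t
  -- first blow-up
  obtain ⟨φ1, hφ1, g, hg⟩ := exists_tan (J := J) (P := fun _ => Q.P lo hi)
    (D := fun _ => Q.L y0 ρ0 0) (fun _ => hcl) hK
    (fun j p hp q hq => by rw [← dist_eq_norm]; exact hν j p hp q hq)
    (x := fun _ => y0 + ξ • ρ0) hpos (fun _ C => legal_line hξ hpos h0 C) (fun _ => hM.zero)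
  set h1 : ℕ → ℝ := fun l => h (φ1 l) with hh1
  have h1pos : ∀ l, 0 < h1 l := fun l => hpos _
  have h10 : Tendsto h1 atTop (𝓝 0) := h0.comp hφ1.tendsto_atTop
  have hgF : Frz (g j0) ρ0 e := fun t y hy =>
    frz_tan hfz he h1pos h10 (hg j0) hy (hlin t) (hmem t y hy)
  obtain ⟨G, hGe, hF⟩ := first_of ok hc0 hsub hK (hν j0) hm hs he hcr h1pos h10 (hg j0)
  obtain ⟨σ, hσ⟩ := (hF.ae_good2 ok hK hc0 hsub).exists
  -- second blow-up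
  set k0 : ℕ → ℝ := fun m => 1 / ((m : ℝ) + 1) with hk0
  have k0pos : ∀ m, 0 < k0 m := fun m => by simp only [hk0]; positivity
  have k00 : Tendsto k0 atTop (𝓝 0) := tendsto_one_div_add_atTop_nhds_zero_nat
  have hglip : ∀ j, ∀ p ∈ Q.L y0 ρ0 0, ∀ q ∈ Q.L y0 ρ0 0, |g j p - g j q| ≤ K * ‖p - q‖ := by
    intro j p hp q hq
    have := (bup_of_tan h1pos h10 (hg j)).lip (hν j) p hp q hq
    rwa [dist_eq_norm] at this
  obtain ⟨φ2, hφ2, lam, hlam⟩ := exists_tan (J := J) (P := fun _ => Q.L y0 ρ0 0)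
    (D := fun _ => Q.L y0 ρ0 0) (ν := g) (fun _ => hcl) hK hglip
    (x := fun _ => σ • ρ0) k0pos (fun _ C => Eventually.of_forall fun m c hc _ =>
      hM.add _ (smul_mem_M σ) _ (hM.smul _ hc _ (k0pos m).le)) (fun _ => hM.zero)
  set k1 : ℕ → ℝ := fun m => k0 (φ2 m) with hk1
  have k1pos : ∀ l, 0 < k1 l := fun l => k0pos _
  have k10 : Tendsto k1 atTop (𝓝 0) := k00.comp hφ2.tendsto_atTop
  have hlamF : Frz (lam j0) ρ0 e := frz_sub hgF k1pos (hlam j0) hlin hmem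
  have HG : Ex926.IsTan (Q.L y0 ρ0 0) (Q.L y0 ρ0 0) G (fun _ => σ • ρ0) k1 (lam j0) :=
    Rc146.tan_congr' (hlam j0) (fun _ => smul_mem_M σ) hGe
  -- third blow-up
  have hlamlip : ∀ j, ∀ p ∈ Q.L y0 ρ0 0, ∀ q ∈ Q.L y0 ρ0 0,
      |lam j p - lam j q| ≤ K * ‖p - q‖ := by
    intro j p hp q hq
    have h3 : ∀ p ∈ Q.L y0 ρ0 0, ∀ q ∈ Q.L y0 ρ0 0, |g j p - g j q| ≤ K * dist p q :=
      fun p hp q hq => by rw [dist_eq_norm]; exact hglip j p hp q hq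
    have := (bup_of_tan k1pos k10 (hlam j)).lip h3 p hp q hq
    rwa [dist_eq_norm] at this
  obtain ⟨φ3, hφ3, lam2, hlam2⟩ := exists_tan (J := J) (P := fun _ => Q.L y0 ρ0 0)
    (D := fun _ => Q.L y0 ρ0 0) (ν := lam) (fun _ => hcl) hK hlamlip
    (x := fun _ => (0 : ι → ℝ)) k0pos (fun _ C => Eventually.of_forall fun m c hc _ =>
      hM.add _ hM.zero _ (hM.smul _ hc _ (k0pos m).le)) (fun _ => hM.zero)
  set t1 : ℕ → ℝ := fun m => k0 (φ3 m) with ht1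
  have t1pos : ∀ l, 0 < t1 l := fun l => k0pos _
  have t10 : Tendsto t1 atTop (𝓝 0) := k00.comp hφ3.tendsto_atTop
  have hlam2F : Frz (lam2 j0) ρ0 e := by
    refine frz_sub (L := Q.L y0 ρ0 0) (σ := 0) hlamF t1pos ?_ hlin hmem
    have := hlam2 j0
    rw [zero_smul]
    exact this
  -- diagonal of the second and the third blow-up
  obtain ⟨ψ2, hψ2, -, hT2⟩ := diagF (J := J) (P := fun _ => Q.L y0 ρ0 0)
    (L := fun _ => Q.L y0 ρ0 0) (L' := fun _ => Q.L y0 ρ0 0) k1pos hlam (fun _ => hM.zero)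
    t1pos hlam2 (A := fun _ _ => True) (fun _ => Eventually.of_forall fun _ => trivial)
  set k2 : ℕ → ℝ := fun m => k1 (ψ2 m) * t1 m with hk2
  have k2pos : ∀ l, 0 < k2 l := fun l => mul_pos (k1pos _) (t1pos _)
  have k20 : Tendsto k2 atTop (𝓝 0) := by
    have := (k10.comp hψ2.tendsto_atTop).mul t10
    rwa [zero_mul] at this
  have hT2' : ∀ j, Ex926.IsTan (Q.L y0 ρ0 0) (Q.L y0 ρ0 0) (g j) (fun _ => σ • ρ0) k2
      (lam2 j) := by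
    intro j
    have := hT2 j
    simp only [smul_zero, add_zero] at this
    exact this
  -- diagonal with the first blow-up
  obtain ⟨ψ, hψ, hA, hT⟩ := diagF (J := J) (P := fun _ => Q.P lo hi) (L := fun _ => Q.L y0 ρ0 0)
    (L' := fun _ => Q.L y0 ρ0 0) h1pos hg (fun _ => smul_mem_M σ) k2pos hT2'
    (A := fun _ _ => True) (fun _ => Eventually.of_forall fun _ => trivial)
  have hψ1 : Tendsto (fun m => h1 (ψ m)) atTop (𝓝 0) := h10.comp hψ.tendsto_atTop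
  refine ⟨fun m => ξ + h1 (ψ m) * σ, fun m => h1 (ψ m) * k2 m, lam2, ?_,
    fun m => mul_pos (h1pos _) (k2pos _), ?_, fun j => ?_, hlam2F, fun s => ?_⟩
  · have := (hψ1.mul_const σ).const_add ξ
    rwa [zero_mul, add_zero] at this
  · have := hψ1.mul k20
    rwa [zero_mul] at this
  · have e : (fun m => y0 + (ξ + h1 (ψ m) * σ) • ρ0) =
        fun m => y0 + ξ • ρ0 + h1 (ψ m) • σ • ρ0 := by
      funext m
      rw [add_smul, smul_smul, add_assoc]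
    rw [e]
    exact hT j
  · exact hF.recOut ok hK hc0 hsub hσ (bup_of_tan k1pos k10 HG)
      (bup_of_tan t1pos t10 (hlam2 j0)) s

/-- **RECORD BLOW-UP WITH A FROZEN SLOT** (219's `ae_rec`, all surfaces). -/
theorem ae_rec_fz {Q : Walls ι W} {lo hi y0 ρ0 : ι → ℝ} {T : Type*} [Countable T]
    {sf : T → Srf ι} (ok : ∀ s, (sf s).Ok Q y0 ρ0) (hR : ∀ s, ∃ wv, (sf s).Rok Q wv)
    {J : Type*} [Finite J] {f : J → (ι → ℝ) → ℝ} {j0 : J} {K : ℝ} (hK : 0 ≤ K)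
    (hν : ∀ j, ∀ p ∈ Q.P lo hi, ∀ q ∈ Q.P lo hi, |f j p - f j q| ≤ K * dist p q)
    (hm : ∀ p ∈ Q.P lo hi, ∀ q ∈ Q.P lo hi, p ≤ q →
      0 ≤ f j0 p - f j0 q ∧ f j0 p - f j0 q ≤ ∑ i, (q i - p i))
    (hs : SupOn (f j0) (Q.P lo hi)) {U : Set ℝ}
    (hU : ∀ ξ ∈ U, (ξ, (0:ℝ)) ∈ Q.O lo hi y0 ρ0 0)
    {e : ι → ℝ} (hmem : ∀ t y : ℝ, 0 ≤ y → t • ρ0 + y • e ∈ Q.L y0 ρ0 0)
    {V : Set ℝ} (hV : IsOpen V) (hUV : U ⊆ V)
    (hleg : ∀ v ∈ V, ∃ r : ℝ, 0 < r ∧ ∀ y : ℝ, 0 ≤ y → y ≤ r → y0 + v • ρ0 + y • e ∈ Q.P lo hi)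
    (hmic : ∀ᵐ v : ℝ, v ∈ V → Tendsto (fun y : ℝ =>
      (f j0 (y0 + v • ρ0) - f j0 (y0 + v • ρ0 + y • e)) / y) (𝓝[>] 0) (𝓝 0)) :
    ∀ᵐ ξ : ℝ, ξ ∈ U → ∃ c0 : T → ℝ, (∀ s, 0 < c0 s) ∧
      (∀ s, (sf s).LW Q (c0 s) ⊆ Q.L y0 ρ0 0) ∧
      ∀ h : ℕ → ℝ, (∀ l, 0 < h l) → Tendsto h atTop (𝓝 0) →
      ∃ (x h' : ℕ → ℝ) (lam : J → (ι → ℝ) → ℝ), Tendsto x atTop (𝓝 ξ) ∧ (∀ m, 0 < h' m) ∧
        Tendsto h' atTop (𝓝 0) ∧
        (∀ j, Ex926.IsTan (Q.P lo hi) (Q.L y0 ρ0 0) (f j) (fun m => y0 + x m • ρ0) h'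
          (lam j)) ∧
        Frz (lam j0) ρ0 e ∧
        ∀ s, ∃ (φ : ℕ → (ι → ℝ) → ℝ) (r : ℕ → ℝ), RecOut (sf s).g (sf s).S
          ((sf s).LW Q (c0 s)) ((sf s).L Q) (sf s).a (sf s).b (sf s).l (sf s).dh (sf s).n
          (lam j0) φ r := by
  have hlip : LipschitzOnWith ⟨K, hK⟩ (f j0) (Q.P lo hi) :=
    LipschitzOnWith.of_dist_le_mul fun p hp q hq => by
      rw [Real.dist_eq]; exact hν j0 p hp q hq
  obtain ⟨ν', hν', he⟩ := hlip.extend_real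
  have hν'' : ∀ p q, |ν' p - ν' q| ≤ K * dist p q := fun p q => by
    have := hν'.dist_le_mul p q
    rwa [Real.dist_eq] at this
  have he' : ∀ p ∈ Q.P lo hi, ν' p = f j0 p := fun p hp => (he hp).symm
  have hs' : SupOn ν' (Q.P lo hi) := by
    intro p hp q hq h1 h2
    rw [he' p hp, he' q hq, he' _ h1, he' _ h2]
    exact hs p hp q hq h1 h2
  have hmic' : ∀ᵐ v : ℝ, v ∈ V → Tendsto (fun y : ℝ =>
      (ν' (y0 + v • ρ0) - ν' (y0 + v • ρ0 + y • e)) / y) (𝓝[>] 0) (𝓝 0) := by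
    filter_upwards [hmic] with v hv hvV
    obtain ⟨r, hr, hl⟩ := hleg v hvV
    refine (hv hvV).congr' ?_
    have h1 : ∀ᶠ y in 𝓝[>] (0 : ℝ), y ≤ r := by
      have : Iic r ∈ 𝓝[>] (0 : ℝ) := nhdsWithin_le_nhds (Iic_mem_nhds hr)
      exact this
    filter_upwards [h1, self_mem_nhdsWithin] with y hy1 hy2
    have hy2' : (0 : ℝ) < y := hy2
    have m0 := hl 0 le_rfl hr.le
    rw [zero_smul, add_zero] at m0
    rw [he' _ m0, he' _ (hl y hy2'.le hy1)]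
  have hfz := ae_frzAt (e := e) hK hν'' hV hmic'
  have hP : ∀ s, (sf s).PPU Q ν' U := fun s => by
    obtain ⟨wv, h⟩ := hR s
    exact Srf.ppu (ok s) h hK hν'' hs' hU
  choose c1 hc1 hc1' using fun s => (ok s).sub
  have h1 : ∀ᵐ ξ : ℝ, ∀ s, ξ ∈ U → ∃ c0 : ℝ, 0 < c0 ∧ c0 ≤ c1 s ∧
      (sf s).CrossAt Q ν' (y0 + ξ • ρ0) c0 :=
    ae_all_iff.2 fun s => ae_crossAt (ok s) hK hν'' (hP s) (hc1 s)
  filter_upwards [h1, hfz] with ξ hξ hξF hξU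
  choose c0 hc0 hc01 hcr using fun s => hξ s hξU
  exact ⟨c0, hc0, fun s => hc1' s _ (hc01 s), fun h hpos h0 =>
    rec_tan2F ok hc0 (fun s => hc1' s _ (hc01 s)) hK hν hm hs he' (hU ξ hξU) hcr hmem
      (hξF (hUV hξU)) hpos h0⟩

end Crest.Agent.R116.Fz708
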