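import Mathlib

/-!
# R116: planar (conic) geometry of the slab and MIS steps (helper192)

Functions of the six-dimensional space `W = span (1, s, x', y, |x'|² - 2 s y)` are affine along every
light ray `x' = a - s C`, `y = c + s |C|²/2`; their derivative along the ray of direction `C` is a
quadratic function `L C = a + ⟪b, C⟫ + c |C|²/2`.
-/

set_option autoImplicit false

namespace Crest.Agent.R116.Gc192

/-- the plane of directions. -/
abbrev E2 := EuclideanSpace ℝ (Fin 2)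

/-- quadratic function of the direction. -/
noncomputable def Lq (a : ℝ) (b : E2) (c : ℝ) (C : E2) : ℝ := a + inner ℝ b C + c * ‖C‖ ^ 2 / 2

/-- its gradient. -/
noncomputable def nab (b : E2) (c : ℝ) (C : E2) : E2 := b + c • C

/-- the two-dimensional cross product. -/
def crs (u v : E2) : ℝ := u 0 * v 1 - u 1 * v 0

/-- an element of `W`. -/
noncomputable def Wf (k0 ks : ℝ) (kx : E2) (ky kc : ℝ) (x : E2) (y s : ℝ) : ℝ :=
  k0 + ks * s + inner ℝ kx x + ky * y + kc * (‖x‖ ^ 2 - 2 * s * y)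

lemma inner2 (u v : E2) : inner ℝ u v = u 0 * v 0 + u 1 * v 1 := by
  simp [PiLp.inner_apply, Fin.sum_univ_two, mul_comm]

lemma norm_sq2 (u : E2) : ‖u‖ ^ 2 = u 0 ^ 2 + u 1 ^ 2 := by
  rw [EuclideanSpace.norm_sq_eq, Fin.sum_univ_two]; simp [sq_abs]

/-- elements of `W` are affine along light rays, with derivative `Lq`. -/
theorem Wf_ray (k0 ks : ℝ) (kx : E2) (ky kc : ℝ) (x : E2) (y s u : ℝ) (C : E2) :
    Wf k0 ks kx ky kc (x - u • C) (y + u * ‖C‖ ^ 2 / 2) (s + u) =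
      Wf k0 ks kx ky kc x y s +
        u * Lq (ks - 2 * kc * y) (-(kx + (2 * kc) • x)) (ky - 2 * kc * s) C := by
  unfold Wf Lq
  simp only [inner2, norm_sq2, PiLp.sub_apply, PiLp.smul_apply, PiLp.neg_apply, PiLp.add_apply,
    smul_eq_mul]
  ring

/-- the other convention: rays `X + z C`, `H + z |C|²/2`. -/
theorem Wf_ray' (k0 ks : ℝ) (kx : E2) (ky kc : ℝ) (x : E2) (y s u : ℝ) (C : E2) :
    Wf k0 ks kx ky kc (x + u • C) (y + u * ‖C‖ ^ 2 / 2) (s + u) =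
      Wf k0 ks kx ky kc x y s +
        u * Lq (ks - 2 * kc * y) (kx + (2 * kc) • x) (ky - 2 * kc * s) C := by
  unfold Wf Lq
  simp only [inner2, norm_sq2, PiLp.smul_apply, PiLp.add_apply,
    smul_eq_mul]
  ring

/-- a real affine function bounded at two end points is bounded between them. -/
lemma affine_between {p q b u v t : ℝ} (hu : |p + u * q| ≤ b) (hv : |p + v * q| ≤ b)
    (h1 : u ≤ t) (h2 : t ≤ v) : |p + t * q| ≤ b := by
  rw [abs_le] at hu hv ⊢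
  rcases le_total 0 q with hq | hq
  · constructor
    · nlinarith [hu.1, mul_le_mul_of_nonneg_right h1 hq]
    · nlinarith [hv.2, mul_le_mul_of_nonneg_right h2 hq]
  · constructor
    · nlinarith [hv.1, mul_le_mul_of_nonpos_right h2 hq]
    · nlinarith [hu.2, mul_le_mul_of_nonpos_right h1 hq]

/-- the ray through `(x, y, s)` of direction `C` stays in the slab of a function of `W` during
`[-r, r]` as soon as the value and the derivative are small. -/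
theorem slab_of_small {k0 ks : ℝ} {kx : E2} {ky kc : ℝ} {x : E2} {y s r b1 b2 : ℝ} {C : E2}
    (h1 : |Wf k0 ks kx ky kc x y s| ≤ b1)
    (h2 : |Lq (ks - 2 * kc * y) (-(kx + (2 * kc) • x)) (ky - 2 * kc * s) C| * r ≤ b2)
    {u : ℝ} (hu : |u| ≤ r) :
    |Wf k0 ks kx ky kc (x - u • C) (y + u * ‖C‖ ^ 2 / 2) (s + u)| ≤ b1 + b2 := by
  rw [Wf_ray]
  refine (abs_add_le _ _).trans (add_le_add h1 ?_)
  rw [abs_mul]
  calc _ ≤ r * |Lq (ks - 2 * kc * y) (-(kx + (2 * kc) • x)) (ky - 2 * kc * s) C| := by gcongr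
    _ ≤ b2 := by rw [mul_comm]; exact h2

/-- conversely, the derivative is small if the ray stays in the slab at two times. -/
theorem small_of_slab {k0 ks : ℝ} {kx : E2} {ky kc : ℝ} {x : E2} {y s r b : ℝ} {C : E2}
    (hr : 0 < r) {u v : ℝ} (huv : r ≤ v - u)
    (hu : |Wf k0 ks kx ky kc (x - u • C) (y + u * ‖C‖ ^ 2 / 2) (s + u)| ≤ b)
    (hv : |Wf k0 ks kx ky kc (x - v • C) (y + v * ‖C‖ ^ 2 / 2) (s + v)| ≤ b) :
    |Lq (ks - 2 * kc * y) (-(kx + (2 * kc) • x)) (ky - 2 * kc * s) C| ≤ 2 * b / r := by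
  rw [Wf_ray] at hu hv
  set A := Wf k0 ks kx ky kc x y s
  set L := Lq (ks - 2 * kc * y) (-(kx + (2 * kc) • x)) (ky - 2 * kc * s) C
  rw [le_div_iff₀ hr]
  have h : |(v - u) * L| ≤ 2 * b := by
    have : (v - u) * L = (A + v * L) - (A + u * L) := by ring
    rw [this]; refine (abs_sub _ _).trans ?_; linarith
  rw [abs_mul, abs_of_nonneg (by linarith)] at h
  nlinarith [abs_nonneg L]

/-- exact difference formula for quadratic functions. -/
lemma Lq_sub (a : ℝ) (b : E2) (c : ℝ) (C C' : E2) :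
    Lq a b c C - Lq a b c C' = inner ℝ (nab b c ((1 / 2 : ℝ) • (C + C'))) (C - C') := by
  unfold Lq nab
  simp only [inner2, norm_sq2, PiLp.sub_apply, PiLp.smul_apply, PiLp.add_apply, smul_eq_mul]
  ring

/-- the Jacobian of two quadratic functions is AFFINE. -/
lemma crs_mid (b1 b2 : E2) (c1 c2 : ℝ) (C C' : E2) :
    crs (nab b1 c1 ((1 / 2 : ℝ) • (C + C'))) (nab b2 c2 ((1 / 2 : ℝ) • (C + C'))) =
      (crs (nab b1 c1 C) (nab b2 c2 C) + crs (nab b1 c1 C') (nab b2 c2 C')) / 2 := by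
  unfold crs nab
  simp only [PiLp.smul_apply, PiLp.add_apply, smul_eq_mul]
  ring

/-- a vector is controlled by two inner products and the cross product. -/
lemma norm_mul_crs_le (u v w : E2) :
    ‖w‖ * |crs u v| ≤ |inner ℝ u w| * ‖v‖ + |inner ℝ v w| * ‖u‖ := by
  have key : (‖w‖ * |crs u v|) ^ 2 ≤ (|inner ℝ u w| * ‖v‖ + |inner ℝ v w| * ‖u‖) ^ 2 := by
    have e1 : (‖w‖ * |crs u v|) ^ 2 =
        (inner ℝ u w) ^ 2 * ‖v‖ ^ 2 + (inner ℝ v w) ^ 2 * ‖u‖ ^ 2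
          - 2 * (inner ℝ u w * inner ℝ v w) * inner ℝ u v := by
      rw [mul_pow, sq_abs, norm_sq2, norm_sq2, norm_sq2]
      simp only [inner2, crs]
      ring
    have e2 : (|inner ℝ u w| * ‖v‖ + |inner ℝ v w| * ‖u‖) ^ 2 =
        (inner ℝ u w) ^ 2 * ‖v‖ ^ 2 + (inner ℝ v w) ^ 2 * ‖u‖ ^ 2
          + 2 * (|inner ℝ u w| * |inner ℝ v w|) * (‖u‖ * ‖v‖) := by
      have h1 : |inner ℝ u w| ^ 2 = (inner ℝ u w) ^ 2 := sq_abs _
      have h2 : |inner ℝ v w| ^ 2 = (inner ℝ v w) ^ 2 := sq_abs _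
      calc _ = |inner ℝ u w| ^ 2 * ‖v‖ ^ 2 + |inner ℝ v w| ^ 2 * ‖u‖ ^ 2
          + 2 * (|inner ℝ u w| * |inner ℝ v w|) * (‖u‖ * ‖v‖) := by ring
        _ = _ := by rw [h1, h2]
    rw [e1, e2]
    have h3 : -((inner ℝ u w * inner ℝ v w) * inner ℝ u v) ≤
        (|inner ℝ u w| * |inner ℝ v w|) * (‖u‖ * ‖v‖) := by
      calc -((inner ℝ u w * inner ℝ v w) * inner ℝ u v)
          ≤ |(inner ℝ u w * inner ℝ v w) * inner ℝ u v| := neg_le_abs _
        _ = (|inner ℝ u w| * |inner ℝ v w|) * |inner ℝ u v| := by rw [abs_mul, abs_mul]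
        _ ≤ _ := by gcongr; exact abs_real_inner_le_norm u v
    linarith
  exact abs_le_of_sq_le_sq' key (by positivity) |>.2

lemma abs_half_add {p q g : ℝ} (hg : 0 < g) (hs : 0 < p * q) (hp : g ≤ |p|) (hq : g ≤ |q|) :
    g ≤ |(p + q) / 2| := by
  rcases lt_trichotomy p 0 with h | h | h
  · have hq0 : q < 0 := by
      by_contra hh
      push Not at hh
      nlinarith [mul_nonpos_of_nonpos_of_nonneg h.le hh]
    rw [abs_of_neg h] at hp
    rw [abs_of_neg hq0] at hq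
    rw [abs_of_neg (by linarith)]; linarith
  · simp [h] at hs
  · have hq0 : 0 < q := by
      by_contra hh
      push Not at hh
      nlinarith [mul_nonneg h.le (neg_nonneg.2 hh)]
    rw [abs_of_pos h] at hp
    rw [abs_of_pos hq0] at hq
    rw [abs_of_pos (by linarith)]; linarith

lemma norm_nab_mid_le {b : E2} {c M : ℝ} {C C' : E2} (h : ‖nab b c C‖ ≤ M) (h' : ‖nab b c C'‖ ≤ M) :
    ‖nab b c ((1 / 2 : ℝ) • (C + C'))‖ ≤ M := by
  have e : nab b c ((1 / 2 : ℝ) • (C + C')) = (1 / 2 : ℝ) • (nab b c C + nab b c C') := by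
    unfold nab
    rw [smul_add, smul_add, smul_add, smul_smul, smul_smul, smul_add, smul_add, smul_smul, smul_smul]
    have : b = (1 / 2 : ℝ) • b + (1 / 2 : ℝ) • b := by rw [← add_smul]; norm_num
    nth_rewrite 1 [this]
    rw [mul_comm c (1 / 2)]
    abel
  rw [e, norm_smul, Real.norm_of_nonneg (by norm_num)]
  have := norm_add_le (nab b c C) (nab b c C')
  linarith

/-- **CROSS**: two conic strips cross in two clusters (`J > 0` and `J < 0`). -/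
theorem cross {a1 a2 : ℝ} {b1 b2 : E2} {c1 c2 h g M : ℝ} {C C' : E2} (hg : 0 < g) (hh : 0 ≤ h)
    (h1 : |Lq a1 b1 c1 C| ≤ h) (h1' : |Lq a1 b1 c1 C'| ≤ h)
    (h2 : |Lq a2 b2 c2 C| ≤ h) (h2' : |Lq a2 b2 c2 C'| ≤ h)
    (m1 : ‖nab b1 c1 C‖ ≤ M) (m1' : ‖nab b1 c1 C'‖ ≤ M)
    (m2 : ‖nab b2 c2 C‖ ≤ M) (m2' : ‖nab b2 c2 C'‖ ≤ M)
    (hs : 0 < crs (nab b1 c1 C) (nab b2 c2 C) * crs (nab b1 c1 C') (nab b2 c2 C'))
    (hJ : g ≤ |crs (nab b1 c1 C) (nab b2 c2 C)|) (hJ' : g ≤ |crs (nab b1 c1 C') (nab b2 c2 C')|) :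
    ‖C - C'‖ ≤ 4 * M * h / g := by
  set u := nab b1 c1 ((1 / 2 : ℝ) • (C + C')) with hu
  set v := nab b2 c2 ((1 / 2 : ℝ) • (C + C')) with hv
  have k1 : |inner ℝ u (C - C')| ≤ 2 * h := by
    rw [hu, ← Lq_sub a1]; refine (abs_sub _ _).trans ?_; linarith
  have k2 : |inner ℝ v (C - C')| ≤ 2 * h := by
    rw [hv, ← Lq_sub a2]; refine (abs_sub _ _).trans ?_; linarith
  have k3 : g ≤ |crs u v| := by rw [hu, hv, crs_mid]; exact abs_half_add hg hs hJ hJ'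
  have n1 : ‖u‖ ≤ M := norm_nab_mid_le m1 m1'
  have n2 : ‖v‖ ≤ M := norm_nab_mid_le m2 m2'
  have M0 : 0 ≤ M := (norm_nonneg _).trans n1
  have k4 := norm_mul_crs_le u v (C - C')
  rw [le_div_iff₀ hg]
  calc ‖C - C'‖ * g ≤ ‖C - C'‖ * |crs u v| := by gcongr
    _ ≤ _ := k4
    _ ≤ 2 * h * M + 2 * h * M := by gcongr
    _ = 4 * M * h := by ring

/-- unit normals of a conic strip vary slowly. -/
lemma unit_sub_le {u v : E2} {k d : ℝ} (hk : 0 < k) (hu : k ≤ ‖u‖) (hv : k ≤ ‖v‖)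
    (hd : ‖u - v‖ ≤ d) : ‖(‖u‖⁻¹ • u) - (‖v‖⁻¹ • v)‖ ≤ 2 * d / k := by
  have hu0 : 0 < ‖u‖ := hk.trans_le hu
  have hv0 : 0 < ‖v‖ := hk.trans_le hv
  have e : (‖u‖⁻¹ • u) - (‖v‖⁻¹ • v) = ‖u‖⁻¹ • (u - v) + (‖u‖⁻¹ - ‖v‖⁻¹) • v := by
    rw [smul_sub, sub_smul]; abel
  rw [e]
  refine (norm_add_le _ _).trans ?_
  rw [norm_smul, norm_smul, norm_inv, norm_norm]
  have e2 : ‖‖u‖⁻¹ - ‖v‖⁻¹‖ * ‖v‖ ≤ ‖u‖⁻¹ * ‖u - v‖ := by
    rw [Real.norm_eq_abs]
    have : ‖u‖⁻¹ - ‖v‖⁻¹ = (‖v‖ - ‖u‖) * ‖u‖⁻¹ * ‖v‖⁻¹ := by field_simp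
    rw [this, abs_mul, abs_mul, abs_of_pos (inv_pos.2 hv0), abs_of_pos (inv_pos.2 hu0),
      mul_assoc, inv_mul_cancel₀ hv0.ne', mul_one, mul_comm]
    gcongr
    rw [abs_sub_comm]
    exact abs_norm_sub_norm_le u v
  have e3 : ‖u‖⁻¹ * ‖u - v‖ ≤ d / k := by
    rw [div_eq_inv_mul]
    exact mul_le_mul (inv_anti₀ hk hu) hd (norm_nonneg _) (inv_nonneg.2 hk.le)
  calc _ ≤ d / k + d / k := add_le_add e3 (e2.trans e3)
    _ = 2 * d / k := by ring

/-- **DISJOINT**: segments normal to a conic strip do not meet. -/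
theorem disjoint_normals {a : ℝ} {b : E2} {c h k M b0 th bt bt' : ℝ} {C C' : E2} (hk : 0 < k)
    (hM : 0 ≤ M) (hh : 0 ≤ h)
    (hc : |c| ≤ M) (h1 : |Lq a b c C| ≤ h) (h1' : |Lq a b c C'| ≤ h)
    (hn : k ≤ ‖nab b c C‖) (hn' : k ≤ ‖nab b c C'‖)
    (hbt : |bt| ≤ b0) (hbt' : |bt'| ≤ b0) (hb0 : 16 * (b0 * M) ≤ k) (hth : 8 * (th * M) ≤ k)
    (hr : ‖(C + bt • (‖nab b c C‖⁻¹ • nab b c C)) -
      (C' + bt' • (‖nab b c C'‖⁻¹ • nab b c C'))‖ ≤ th) :
    ‖C - C'‖ ≤ 4 * (h / k + th) := by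
  set u := nab b c C with hu
  set v := nab b c C' with hv
  set e := ‖u‖⁻¹ • u with he
  set e' := ‖v‖⁻¹ • v with he'
  set w := C - C' with hw
  have hb00 : 0 ≤ b0 := (abs_nonneg _).trans hbt
  have hth0 : 0 ≤ th := (norm_nonneg _).trans hr
  have hu0 : 0 < ‖u‖ := hk.trans_le hn
  have hv0 : 0 < ‖v‖ := hk.trans_le hn'
  have ne : ‖e‖ = 1 := by
    rw [he, norm_smul, norm_inv, norm_norm, inv_mul_cancel₀ hu0.ne']
  have ne' : ‖e'‖ = 1 := by
    rw [he', norm_smul, norm_inv, norm_norm, inv_mul_cancel₀ hv0.ne']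
  -- normals
  have huv : ‖u - v‖ ≤ M * ‖w‖ := by
    have : u - v = c • w := by rw [hu, hv, hw]; unfold nab; rw [smul_sub]; abel
    rw [this, norm_smul, Real.norm_eq_abs]; gcongr
  have hee : ‖e - e'‖ ≤ 2 * (M * ‖w‖) / k := unit_sub_le hk hn hn' huv
  -- residual
  set r := (C + bt • e) - (C' + bt' • e') with hrdef
  have hwr : w = (bt' - bt) • e + bt' • (e' - e) + r := by
    rw [hrdef, hw, sub_smul, smul_sub]; abel
  have hW1 : ‖w‖ ≤ 2 * b0 + th := by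
    have : w = bt' • e' - bt • e + r := by rw [hrdef, hw]; abel
    rw [this]
    refine (norm_add_le _ _).trans ?_
    refine add_le_add ((norm_sub_le _ _).trans ?_) hr
    have n1 : ‖bt' • e'‖ = |bt'| := by rw [norm_smul bt' e', ne', mul_one, Real.norm_eq_abs]
    have n2 : ‖bt • e‖ = |bt| := by rw [norm_smul bt e, ne, mul_one, Real.norm_eq_abs]
    rw [n1, n2]
    linarith
  -- inner product with the normal
  have hin : |inner ℝ u w| ≤ 2 * h + M * ‖w‖ ^ 2 / 2 := by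
    have e1 : inner ℝ u w = (Lq a b c C - Lq a b c C') + c * ‖w‖ ^ 2 / 2 := by
      rw [hu, hw]; unfold Lq nab
      simp only [inner2, norm_sq2, PiLp.sub_apply, PiLp.smul_apply, PiLp.add_apply, smul_eq_mul]
      ring
    rw [e1]
    refine (abs_add_le _ _).trans (add_le_add ((abs_sub _ _).trans (by linarith)) ?_)
    rw [abs_div, abs_mul, abs_of_nonneg (sq_nonneg ‖w‖), abs_of_pos (by norm_num : (0:ℝ) < 2)]
    have := mul_le_mul_of_nonneg_right hc (sq_nonneg ‖w‖)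
    linarith
  have hin2 : |inner ℝ e w| ≤ (2 * h + M * ‖w‖ ^ 2 / 2) / k := by
    rw [he, inner_smul_left, abs_mul, div_eq_inv_mul]
    have : |(starRingEnd ℝ) ‖u‖⁻¹| = ‖u‖⁻¹ := by
      simp [abs_of_pos hu0]
    rw [this]
    exact mul_le_mul (inv_anti₀ hk hn) hin (abs_nonneg _) (inv_nonneg.2 hk.le)
  set q := b0 * (2 * (M * ‖w‖) / k) with hq
  have hq1 : ‖bt' • (e' - e)‖ ≤ q := by
    have n1 : ‖bt' • (e' - e)‖ = |bt'| * ‖e - e'‖ := by
      rw [norm_smul bt' (e' - e), Real.norm_eq_abs, norm_sub_rev e' e]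
    rw [n1, hq]
    exact mul_le_mul hbt' hee (norm_nonneg _) hb00
  have hlam : |bt' - bt| ≤ |inner ℝ e w| + q + th := by
    have e1 : inner ℝ e w = (bt' - bt) + inner ℝ e (bt' • (e' - e)) + inner ℝ e r := by
      conv_lhs => rw [hwr]
      rw [inner_add_right, inner_add_right, inner_smul_right, real_inner_self_eq_norm_sq, ne]
      ring
    have e2 : bt' - bt = inner ℝ e w - inner ℝ e (bt' • (e' - e)) - inner ℝ e r := by linarith
    rw [e2]
    refine (abs_sub _ _).trans (add_le_add ((abs_sub _ _).trans (add_le_add le_rfl ?_)) ?_)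
    · refine (abs_real_inner_le_norm _ _).trans ?_
      rw [ne, one_mul]; exact hq1
    · refine (abs_real_inner_le_norm _ _).trans ?_
      rw [ne, one_mul]; exact hr
  have hw2 : ‖w‖ ≤ |bt' - bt| + q + th := by
    calc ‖w‖ = ‖(bt' - bt) • e + bt' • (e' - e) + r‖ := by rw [← hwr]
      _ ≤ ‖(bt' - bt) • e‖ + ‖bt' • (e' - e)‖ + ‖r‖ := norm_add₃_le
      _ ≤ _ := by
        rw [norm_smul, ne, mul_one, Real.norm_eq_abs]
        gcongr
  have hfin : ‖w‖ ≤ (2 * h + M * ‖w‖ ^ 2 / 2) / k + 2 * q + 2 * th := by linarith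
  -- absorb
  have a1 : M * ‖w‖ ^ 2 / 2 / k ≤ ‖w‖ / 8 := by
    rw [div_le_iff₀ hk]
    have : M * ‖w‖ ≤ M * (2 * b0 + th) := by gcongr
    have h4 : M * (2 * b0 + th) ≤ k / 4 := by nlinarith
    nlinarith [norm_nonneg w]
  have a2 : 2 * q ≤ ‖w‖ / 4 := by
    rw [hq]
    have : 2 * (b0 * (2 * (M * ‖w‖) / k)) = 4 * (b0 * M) * ‖w‖ / k := by ring
    rw [this, div_le_iff₀ hk]
    nlinarith [norm_nonneg w]
  have a3 : (2 * h + M * ‖w‖ ^ 2 / 2) / k = 2 * (h / k) + M * ‖w‖ ^ 2 / 2 / k := by ring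
  rw [a3] at hfin
  have hhk : 0 ≤ h / k := by positivity
  linarith

end Crest.Agent.R116.Gc192
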