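import Crest.Agent.R116.Gt3_222

/-!
# R116, [NARROW] (N1), curved strips, flags of a far incidence (helper809), part 1

* `addc` : change of the null derivative (curvature) of the flag.
* `coL_trn0` : the flag of `i` transported to the ray of `j`, in terms of the coordinates seen from `j`.
* `Flg` : the flags of `i` and `j` are related (slots 1, 2, 7, 8 natural), positions arbitrary.
* `curv_err` : `γ |C|² / 2` against `g (t·C)²`.
* `strip_base` : 222's `strip_A` and `strip_B` together, for an arbitrary base flag.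
-/

set_option autoImplicit false

open Finset Filter Topology

namespace Crest.Agent.R116.Gc809

open Crest.Agent.R138.Defs (E2)
open Crest.Agent.R138.Ex926 (Base U QProf)
open Crest.Agent.R138.Mk163 (zc zl rho alive)
open Crest.Agent.R138
open Crest.Agent.R136.MkA627
open Crest.Agent.R136.Net191
open Crest.Agent.R136.PqG464
open Crest.Agent.R116.LZg725
open Crest.Agent.R116.ChL222
open Crest.Agent.R116.PL504 (uL eL)
open Crest.Agent.R116.Gd222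

/-! ### algebra -/

/-- change of the null derivative of the flag -/
noncomputable def addc (γ : ℝ) (i : LInc) : LInc := { i with et := i.et + γ }

theorem coL_addc (γ : ℝ) (i l : LInc) :
    coL (addc γ i) l 0 = coL i l 0 ∧ coL (addc γ i) l 3 = coL i l 3 ∧
    coL (addc γ i) l 4 = coL i l 4 ∧ coL (addc γ i) l 5 = coL i l 5 ∧
    coL (addc γ i) l 6 = coL i l 6 ∧ coL (addc γ i) l 9 = coL i l 9 ∧
    coL (addc γ i) l 10 = coL i l 10 + γ * ((coL i l 3 ^ 2 + coL i l 4 ^ 2) / 2) ∧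
    coL (addc γ i) l 11 = coL i l 11 + γ * coL i l 9 := by
  simp only [coL, nuL, addc, LInc.p1, LInc.p2, LInc.ph, Matrix.cons_val]
  refine ⟨trivial, trivial, trivial, trivial, trivial, trivial, by ring, by ring⟩

/-- the transported flag in terms of the flag of `j` -/
theorem trn_flag (i j : LInc) :
    (trn 1 i j).b1 = j.b1 - coL i j 7 ∧ (trn 1 i j).b2 = j.b2 - coL i j 8 ∧
    (trn 1 i j).et = j.et - coL i j 2 ∧ (trn 1 i j).d = j.d - coL i j 1 := by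
  simp only [coL, nuL, trn, LInc.p1, LInc.p2, LInc.ph, Matrix.cons_val]
  refine ⟨by ring, by ring, by ring, by ring⟩

/-- the slots seen from the transported flag in terms of the slots seen from `j` -/
theorem coL_trn0 (i j l : LInc) :
    coL (trn 1 i j) l 0 = coL j l 0 ∧ coL (trn 1 i j) l 3 = coL j l 3 ∧
    coL (trn 1 i j) l 4 = coL j l 4 ∧ coL (trn 1 i j) l 5 = coL j l 5 ∧
    coL (trn 1 i j) l 6 = coL j l 6 ∧ coL (trn 1 i j) l 9 = coL j l 9 ∧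
    coL (trn 1 i j) l 10 = coL j l 10 - (coL i j 7 * coL j l 3 + coL i j 8 * coL j l 4) -
      coL i j 2 * ((coL j l 3 ^ 2 + coL j l 4 ^ 2) / 2) -
      2 * coL i j 1 * (coL j l 5 * coL j l 3 + coL j l 6 * coL j l 4 - coL j l 9) ∧
    coL (trn 1 i j) l 11 = coL j l 11 - (coL i j 7 * coL j l 5 + coL i j 8 * coL j l 6) -
      coL i j 2 * coL j l 9 - coL i j 1 * (coL j l 5 ^ 2 + coL j l 6 ^ 2) := by
  simp only [coL, nuL, trn, LInc.p1, LInc.p2, LInc.ph, Matrix.cons_val]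
  refine ⟨trivial, trivial, trivial, trivial, trivial, trivial, ?_, ?_⟩ <;> ring

/-- the flags are related -/
structure Flg (i j : LInc) (K R c c' : ℝ) : Prop where
  h1 : |coL i j 1| ≤ K * (c' / (c ^ 2 * R))
  h2 : |coL i j 2| ≤ K * (c' / c ^ 2)
  h7 : |coL i j 7| ≤ K * (c' / c)
  h8 : |coL i j 8| ≤ K * (c' / c)

theorem sq2_le {a b X : ℝ} (h1 : |a| ≤ X) (h2 : |b| ≤ X) : |(a ^ 2 + b ^ 2) / 2| ≤ X ^ 2 := by
  have s1 : a ^ 2 ≤ X ^ 2 := sq_le_sq' (by linarith [(abs_le.1 h1).1]) (abs_le.1 h1).2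
  have s2 : b ^ 2 ≤ X ^ 2 := sq_le_sq' (by linarith [(abs_le.1 h2).1]) (abs_le.1 h2).2
  rw [abs_of_nonneg (by positivity)]
  linarith

theorem ten_le {p1 p2 p7 p8 C1 C2 X1 X2 H F K R c c' : ℝ} (hR : 0 < R) (hc : 0 < c)
    (hc' : 0 < c') (hK : 1 ≤ K) (h1 : |p1| ≤ K * (c' / (c ^ 2 * R)))
    (h2 : |p2| ≤ K * (c' / c ^ 2)) (h7 : |p7| ≤ K * (c' / c)) (h8 : |p8| ≤ K * (c' / c))
    (hC1 : |C1| ≤ K * c) (hC2 : |C2| ≤ K * c) (hX1 : |X1| ≤ K * (c * R))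
    (hX2 : |X2| ≤ K * (c * R)) (hH : |H| ≤ K * (c ^ 2 * R)) (hF : |F| ≤ K * c') :
    |F - (p7 * C1 + p8 * C2) - p2 * ((C1 ^ 2 + C2 ^ 2) / 2) -
      2 * p1 * (X1 * C1 + X2 * C2 - H)| ≤ 10 * K ^ 3 * c' := by
  have hK0 : 0 < K := by linarith
  have hK2 : K ≤ K ^ 2 := le_self_pow₀ hK (by norm_num)
  have hK3 : K ^ 2 ≤ K ^ 3 := pow_le_pow_right₀ hK (by norm_num)
  have a7 : |p7 * C1| ≤ K ^ 2 * c' := by
    rw [abs_mul]
    calc |p7| * |C1| ≤ (K * (c' / c)) * (K * c) := mul_le_mul h7 hC1 (abs_nonneg _) (by positivity)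
      _ = K ^ 2 * c' := by field_simp
  have a8 : |p8 * C2| ≤ K ^ 2 * c' := by
    rw [abs_mul]
    calc |p8| * |C2| ≤ (K * (c' / c)) * (K * c) := mul_le_mul h8 hC2 (abs_nonneg _) (by positivity)
      _ = K ^ 2 * c' := by field_simp
  have a2 : |p2 * ((C1 ^ 2 + C2 ^ 2) / 2)| ≤ K ^ 3 * c' := by
    rw [abs_mul]
    calc _ ≤ (K * (c' / c ^ 2)) * (K * c) ^ 2 :=
          mul_le_mul h2 (sq2_le hC1 hC2) (abs_nonneg _) (by positivity)
      _ = K ^ 3 * c' := by field_simp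
  have XC : |X1 * C1 + X2 * C2 - H| ≤ (2 * K ^ 2 + K) * (c ^ 2 * R) := by
    have b1 : |X1 * C1| ≤ K * (c * R) * (K * c) := by
      rw [abs_mul]; exact mul_le_mul hX1 hC1 (abs_nonneg _) (by positivity)
    have b2 : |X2 * C2| ≤ K * (c * R) * (K * c) := by
      rw [abs_mul]; exact mul_le_mul hX2 hC2 (abs_nonneg _) (by positivity)
    refine (abs_sub _ _).trans ((add_le_add ((abs_add_le _ _).trans (add_le_add b1 b2))
      hH).trans (le_of_eq (by ring)))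
  have a1 : |2 * p1 * (X1 * C1 + X2 * C2 - H)| ≤ (4 * K ^ 3 + 2 * K ^ 2) * c' := by
    rw [abs_mul, abs_mul, abs_two]
    calc 2 * |p1| * |X1 * C1 + X2 * C2 - H|
        ≤ 2 * (K * (c' / (c ^ 2 * R))) * ((2 * K ^ 2 + K) * (c ^ 2 * R)) := by
          refine mul_le_mul ?_ XC (abs_nonneg _) (by positivity)
          exact mul_le_mul_of_nonneg_left h1 (by norm_num)
      _ = (4 * K ^ 3 + 2 * K ^ 2) * c' := by field_simp; ring
  calc _ ≤ |F| + (|p7 * C1| + |p8 * C2|) + |p2 * ((C1 ^ 2 + C2 ^ 2) / 2)| +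
        |2 * p1 * (X1 * C1 + X2 * C2 - H)| := by
        refine (abs_sub _ _).trans (add_le_add ((abs_sub _ _).trans (add_le_add
          ((abs_sub _ _).trans (add_le_add le_rfl (abs_add_le _ _))) le_rfl)) le_rfl)
    _ ≤ K * c' + (K ^ 2 * c' + K ^ 2 * c') + K ^ 3 * c' + (4 * K ^ 3 + 2 * K ^ 2) * c' :=
        add_le_add (add_le_add (add_le_add hF (add_le_add a7 a8)) a2) a1
    _ = (K + 4 * K ^ 2 + 5 * K ^ 3) * c' := by ring
    _ ≤ 10 * K ^ 3 * c' := mul_le_mul_of_nonneg_right (by linarith) hc'.le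

theorem elf_le {p1 p2 p7 p8 X1 X2 H G K R c c' : ℝ} (hR : 0 < R) (hc : 0 < c)
    (hc' : 0 < c') (hK : 1 ≤ K) (h1 : |p1| ≤ K * (c' / (c ^ 2 * R)))
    (h2 : |p2| ≤ K * (c' / c ^ 2)) (h7 : |p7| ≤ K * (c' / c)) (h8 : |p8| ≤ K * (c' / c))
    (hX1 : |X1| ≤ K * (c * R)) (hX2 : |X2| ≤ K * (c * R)) (hH : |H| ≤ K * (c ^ 2 * R))
    (hG : |G| ≤ K * (c' * R)) :
    |G - (p7 * X1 + p8 * X2) - p2 * H - p1 * (X1 ^ 2 + X2 ^ 2)| ≤ 10 * K ^ 3 * (c' * R) := by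
  have hK0 : 0 < K := by linarith
  have hK2 : K ≤ K ^ 2 := le_self_pow₀ hK (by norm_num)
  have hK3 : K ^ 2 ≤ K ^ 3 := pow_le_pow_right₀ hK (by norm_num)
  have a7 : |p7 * X1| ≤ K ^ 2 * (c' * R) := by
    rw [abs_mul]
    calc |p7| * |X1| ≤ (K * (c' / c)) * (K * (c * R)) :=
          mul_le_mul h7 hX1 (abs_nonneg _) (by positivity)
      _ = K ^ 2 * (c' * R) := by field_simp
  have a8 : |p8 * X2| ≤ K ^ 2 * (c' * R) := by
    rw [abs_mul]
    calc |p8| * |X2| ≤ (K * (c' / c)) * (K * (c * R)) :=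
          mul_le_mul h8 hX2 (abs_nonneg _) (by positivity)
      _ = K ^ 2 * (c' * R) := by field_simp
  have a2 : |p2 * H| ≤ K ^ 2 * (c' * R) := by
    rw [abs_mul]
    calc _ ≤ (K * (c' / c ^ 2)) * (K * (c ^ 2 * R)) :=
          mul_le_mul h2 hH (abs_nonneg _) (by positivity)
      _ = K ^ 2 * (c' * R) := by field_simp
  have a1 : |p1 * (X1 ^ 2 + X2 ^ 2)| ≤ 2 * K ^ 3 * (c' * R) := by
    have e : X1 ^ 2 + X2 ^ 2 = 2 * ((X1 ^ 2 + X2 ^ 2) / 2) := by ring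
    rw [abs_mul, e, abs_mul 2, abs_two]
    calc _ ≤ (K * (c' / (c ^ 2 * R))) * (2 * (K * (c * R)) ^ 2) :=
          mul_le_mul h1 (mul_le_mul_of_nonneg_left (sq2_le hX1 hX2) (by norm_num)) (by positivity)
            (by positivity)
      _ = 2 * K ^ 3 * (c' * R) := by field_simp
  calc _ ≤ |G| + (|p7 * X1| + |p8 * X2|) + |p2 * H| + |p1 * (X1 ^ 2 + X2 ^ 2)| := by
        refine (abs_sub _ _).trans (add_le_add ((abs_sub _ _).trans (add_le_add
          ((abs_sub _ _).trans (add_le_add le_rfl (abs_add_le _ _))) le_rfl)) le_rfl)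
    _ ≤ K * (c' * R) + (K ^ 2 * (c' * R) + K ^ 2 * (c' * R)) + K ^ 2 * (c' * R) +
        2 * K ^ 3 * (c' * R) := add_le_add (add_le_add (add_le_add hG (add_le_add a7 a8)) a2) a1
    _ = (K + 3 * K ^ 2 + 2 * K ^ 3) * (c' * R) := by ring
    _ ≤ 10 * K ^ 3 * (c' * R) := mul_le_mul_of_nonneg_right (by linarith) (by positivity)

/-- natural slots seen from the transported flag -/
theorem nat_trn {i j l : LInc} {K R c c' : ℝ} (hR : 0 < R) (hc : 0 < c) (hc' : 0 < c')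
    (hK : 1 ≤ K) (hf : Flg i j K R c c') (hl : Nat8 j l K R c c') :
    Nat8 (trn 1 i j) l (10 * K ^ 3) R c c' := by
  obtain ⟨e0, e3, e4, e5, e6, e9, e10, e11⟩ := coL_trn0 i j l
  have hK2 : K ≤ K ^ 2 := le_self_pow₀ hK (by norm_num)
  have hK3 : K ^ 2 ≤ K ^ 3 := pow_le_pow_right₀ hK (by norm_num)
  have le10 : ∀ {x X : ℝ}, 0 ≤ X → |x| ≤ K * X → |x| ≤ 10 * K ^ 3 * X := by
    intro x X hX hx
    refine hx.trans (mul_le_mul_of_nonneg_right (by linarith) hX)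
  refine ⟨?_, ?_, ?_, ?_, ?_, ?_, ?_, ?_⟩
  · rw [e0]; exact le10 hR.le hl.h0
  · rw [e3]; exact le10 hc.le hl.h3
  · rw [e4]; exact le10 hc.le hl.h4
  · rw [e5]; exact le10 (by positivity) hl.h5
  · rw [e6]; exact le10 (by positivity) hl.h6
  · rw [e9]; exact le10 (by positivity) hl.h9
  · rw [e10]
    exact ten_le hR hc hc' hK hf.h1 hf.h2 hf.h7 hf.h8 hl.h3 hl.h4 hl.h5 hl.h6 hl.h9 hl.h10
  · rw [e11]
    exact elf_le hR hc hc' hK hf.h1 hf.h2 hf.h7 hf.h8 hl.h5 hl.h6 hl.h9 hl.h11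

/-! ### the curvature -/

/-- exact identity: the square of `C` from its components along `b` and `t` -/
theorem sq_comp (b1 b2 t1 t2 C1 C2 : ℝ) :
    (b1 * t2 - b2 * t1) ^ 2 * (C1 ^ 2 + C2 ^ 2) =
      (b1 ^ 2 + b2 ^ 2) * (t1 * C1 + t2 * C2) ^ 2 + (t1 ^ 2 + t2 ^ 2) * (b1 * C1 + b2 * C2) ^ 2 -
      2 * (b1 * C1 + b2 * C2) * (t1 * C1 + t2 * C2) * (b1 * t1 + b2 * t2) := by
  ring

/-- the coefficient of the curvature -/
noncomputable def gco (i : LInc) (t1 t2 ga c c' : ℝ) : ℝ :=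
  2 * ga * (c' / c ^ 2) * ((i.b1 * t2 - i.b2 * t1) ^ 2 / ‖vb i‖ ^ 2)

theorem vbsq (i : LInc) : ‖vb i‖ ^ 2 = i.b1 ^ 2 + i.b2 ^ 2 := normsq2 (vb i)

theorem dlt_le (i : LInc) {t1 t2 : ℝ} (h1 : |t1| ≤ 1) (h2 : |t2| ≤ 1) (hb : 0 < ‖vb i‖) :
    (i.b1 * t2 - i.b2 * t1) ^ 2 / ‖vb i‖ ^ 2 ≤ 2 := by
  rw [div_le_iff₀ (by positivity), vbsq]
  have a1 : t1 ^ 2 ≤ 1 := (sq_le_one_iff_abs_le_one _).2 h1
  have a2 : t2 ^ 2 ≤ 1 := (sq_le_one_iff_abs_le_one _).2 h2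
  have e : (i.b1 * t2 - i.b2 * t1) ^ 2 + (i.b1 * t1 + i.b2 * t2) ^ 2 =
      (i.b1 ^ 2 + i.b2 ^ 2) * (t1 ^ 2 + t2 ^ 2) := by ring
  have h3 : 0 ≤ (i.b1 * t1 + i.b2 * t2) ^ 2 := sq_nonneg _
  have h4 : 0 ≤ i.b1 ^ 2 + i.b2 ^ 2 := by positivity
  nlinarith

theorem gco_le (i : LInc) {t1 t2 ga c c' G : ℝ} (h1 : |t1| ≤ 1) (h2 : |t2| ≤ 1)
    (hb : 0 < ‖vb i‖) (hc : 0 < c) (hc' : 0 < c') (hG : |ga| ≤ G) :
    |gco i t1 t2 ga c c'| ≤ 4 * G * (c' / c ^ 2) := by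
  unfold gco
  have h3 := dlt_le i h1 h2 hb
  have h4 : 0 ≤ (i.b1 * t2 - i.b2 * t1) ^ 2 / ‖vb i‖ ^ 2 := by positivity
  have hG0 : 0 ≤ G := (abs_nonneg _).trans hG
  rw [abs_mul, abs_mul, abs_mul, abs_two, abs_of_nonneg h4,
    abs_of_pos (div_pos hc' (pow_pos hc 2))]
  have h5 : 0 ≤ c' / c ^ 2 := by positivity
  calc 2 * |ga| * (c' / c ^ 2) * _ ≤ 2 * G * (c' / c ^ 2) * 2 := by
        refine mul_le_mul ?_ h3 h4 (by positivity)
        exact mul_le_mul_of_nonneg_right (by linarith) h5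
    _ = _ := by ring

/-- **`γ |C|² / 2` against `g (t·C)²`.** -/
theorem curv_err (i : LInc) {t1 t2 ga c c' C1 C2 β K G : ℝ} (h1 : |t1| ≤ 1) (h2 : |t2| ≤ 1)
    (hb : 1 / 4 ≤ ‖vb i‖) (hc : 0 < c) (hc' : 0 < c') (hG : |ga| ≤ G) (hK : 1 ≤ K)
    (hC1 : |C1| ≤ K * c) (hC2 : |C2| ≤ K * c) (hβ : |i.b1 * C1 + i.b2 * C2| ≤ β * c)
    (hβ1 : β ≤ 1) :
    |gco i t1 t2 ga c c' * ((C1 ^ 2 + C2 ^ 2) / 2) - ga * c' * ((t1 * C1 + t2 * C2) / c) ^ 2| ≤
      G * c' * (64 * K * β) := by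
  have hbp : 0 < ‖vb i‖ := by linarith
  have hG0 : 0 ≤ G := (abs_nonneg _).trans hG
  have hβ0 : 0 ≤ β := by
    have := (abs_nonneg _).trans hβ
    by_contra hneg
    push Not at hneg
    nlinarith
  obtain ⟨n, hn⟩ : ∃ n : ℝ, n = ‖vb i‖ := ⟨_, rfl⟩
  have hn0 : 0 < n := by rw [hn]; exact hbp
  have hn4 : 1 / 4 ≤ n := by rw [hn]; exact hb
  have hnsq : n ^ 2 = i.b1 ^ 2 + i.b2 ^ 2 := by rw [hn]; exact vbsq i
  obtain ⟨T, hT⟩ : ∃ T : ℝ, T = t1 * C1 + t2 * C2 := ⟨_, rfl⟩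
  obtain ⟨bC, hbC⟩ : ∃ bC : ℝ, bC = i.b1 * C1 + i.b2 * C2 := ⟨_, rfl⟩
  obtain ⟨bt, hbt⟩ : ∃ bt : ℝ, bt = i.b1 * t1 + i.b2 * t2 := ⟨_, rfl⟩
  have key := sq_comp i.b1 i.b2 t1 t2 C1 C2
  rw [← hnsq, ← hT, ← hbC, ← hbt] at key
  have e : gco i t1 t2 ga c c' * ((C1 ^ 2 + C2 ^ 2) / 2) - ga * c' * (T / c) ^ 2 =
      ga * c' * (((t1 ^ 2 + t2 ^ 2) * (bC / c) ^ 2 - 2 * (bC / c) * (T / c) * bt) / n ^ 2) := by
    have h3 : gco i t1 t2 ga c c' * ((C1 ^ 2 + C2 ^ 2) / 2) =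
        ga * c' * (((i.b1 * t2 - i.b2 * t1) ^ 2 * (C1 ^ 2 + C2 ^ 2)) / (c ^ 2 * n ^ 2)) := by
      unfold gco
      rw [← hn]
      field_simp
    rw [h3, key]
    field_simp
    ring
  rw [← hT, e]
  have hTle : |T / c| ≤ 2 * K := by
    rw [abs_div, abs_of_pos hc, div_le_iff₀ hc, hT]
    refine (abs_add_le _ _).trans ?_
    rw [abs_mul, abs_mul]
    have a1 : |t1| * |C1| ≤ 1 * (K * c) := mul_le_mul h1 hC1 (abs_nonneg _) zero_le_one
    have a2 : |t2| * |C2| ≤ 1 * (K * c) := mul_le_mul h2 hC2 (abs_nonneg _) zero_le_one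
    linarith
  have hble : |bC / c| ≤ β := by
    rw [abs_div, abs_of_pos hc, div_le_iff₀ hc, hbC]
    exact hβ
  have hbtle : |bt| ≤ 2 * n := by
    obtain ⟨b1le, b2le⟩ := abs_b1_le i
    rw [← hn] at b1le b2le
    rw [hbt]
    refine (abs_add_le _ _).trans ?_
    rw [abs_mul, abs_mul]
    have a1 : |i.b1| * |t1| ≤ n * 1 := mul_le_mul b1le h1 (abs_nonneg _) hn0.le
    have a2 : |i.b2| * |t2| ≤ n * 1 := mul_le_mul b2le h2 (abs_nonneg _) hn0.le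
    linarith
  have ht : |t1 ^ 2 + t2 ^ 2| ≤ 2 := by
    have a1 : t1 ^ 2 ≤ 1 := (sq_le_one_iff_abs_le_one _).2 h1
    have a2 : t2 ^ 2 ≤ 1 := (sq_le_one_iff_abs_le_one _).2 h2
    rw [abs_of_nonneg (by positivity)]
    linarith
  have hnum : |(t1 ^ 2 + t2 ^ 2) * (bC / c) ^ 2 - 2 * (bC / c) * (T / c) * bt| ≤
      2 * β * n * (4 + 4 * K) := by
    have a1 : |(t1 ^ 2 + t2 ^ 2) * (bC / c) ^ 2| ≤ 2 * β := by
      rw [abs_mul, abs_pow]
      have : |bC / c| ^ 2 ≤ β * 1 := by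
        rw [pow_two]
        exact mul_le_mul hble (hble.trans hβ1) (abs_nonneg _) hβ0
      calc _ ≤ 2 * (β * 1) := mul_le_mul ht this (by positivity) (by norm_num)
        _ = 2 * β := by ring
    have a2 : |2 * (bC / c) * (T / c) * bt| ≤ 2 * β * (2 * K) * (2 * n) := by
      rw [abs_mul, abs_mul, abs_mul, abs_two]
      refine mul_le_mul ?_ hbtle (abs_nonneg _) (by positivity)
      refine mul_le_mul ?_ hTle (abs_nonneg _) (by positivity)
      exact mul_le_mul_of_nonneg_left hble (by norm_num)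
    have a3 : 2 * β ≤ 2 * β * n * 4 := by
      have : 2 * β * 1 ≤ 2 * β * (n * 4) := mul_le_mul_of_nonneg_left (by linarith) (by linarith)
      linarith
    calc _ ≤ 2 * β + 2 * β * (2 * K) * (2 * n) := (abs_sub _ _).trans (add_le_add a1 a2)
      _ ≤ 2 * β * n * 4 + 2 * β * (2 * K) * (2 * n) := by linarith
      _ = _ := by ring
  rw [abs_mul, abs_mul, abs_of_pos hc', abs_div, abs_of_pos (pow_pos hn0 2)]
  have h5 : |(t1 ^ 2 + t2 ^ 2) * (bC / c) ^ 2 - 2 * (bC / c) * (T / c) * bt| / n ^ 2 ≤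
      64 * K * β := by
    rw [div_le_iff₀ (pow_pos hn0 2)]
    refine hnum.trans ?_
    have h6 : 2 * β * n * (4 + 4 * K) ≤ 2 * β * n * (8 * K) :=
      mul_le_mul_of_nonneg_left (by linarith) (by positivity)
    have h7 : n * 1 ≤ n * (4 * n) := mul_le_mul_of_nonneg_left (by linarith) hn0.le
    have h8 : 16 * K * β * (n * 1) ≤ 16 * K * β * (n * (4 * n)) :=
      mul_le_mul_of_nonneg_left h7 (by positivity)
    calc _ ≤ 2 * β * n * (8 * K) := h6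
      _ = 16 * K * β * (n * 1) := by ring
      _ ≤ 16 * K * β * (n * (4 * n)) := h8
      _ = _ := by ring
  exact mul_le_mul (mul_le_mul_of_nonneg_right hG hc'.le) h5 (by positivity) (by positivity)

/-- the strip seen from the curved flag -/
theorem stp_le {e1 e2 ga T P Q c c' dz dy dk K N : ℝ} (hc' : 0 < c') (hdz : 0 < dz)
    (hdy : 0 < dy) (hK : 1 ≤ K) (hN : 1 ≤ N) (he2 : |e2| ≤ 1)
    (hst : |e1 * (T / c) + e2 * (P / c' + ga * (T / c) ^ 2)| ≤ K * dy)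
    (g3 : |Q - ga * c' * (T / c) ^ 2| ≤ K * dz * c' * (64 * K * (8 * K ^ 2 * dk)))
    (hfin : 512 * K ^ 4 * (dz * dk) ≤ dy) :
    |e1 / N * (T / c) + e2 * dz / N * ((P + Q) / (c' * dz))| ≤ 5 * K ^ 3 * dy := by
  have hNp : 0 < N := by linarith
  have e3 : e1 / N * (T / c) + e2 * dz / N * ((P + Q) / (c' * dz)) =
      (1 / N) * ((e1 * (T / c) + e2 * (P / c' + ga * (T / c) ^ 2)) +
        e2 * ((Q - ga * c' * (T / c) ^ 2) / c')) := by
    have h1 : e2 * dz / N * ((P + Q) / (c' * dz)) = 1 / N * (e2 * ((P + Q) / c')) := by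
      field_simp
    have h2 : e2 * ((P + Q) / c') = e2 * (P / c' + ga * (T / c) ^ 2) +
        e2 * ((Q - ga * c' * (T / c) ^ 2) / c') := by
      rw [← mul_add]
      congr 1
      rw [sub_div, mul_assoc, mul_div_assoc, mul_div_assoc, add_div]
      field_simp
      ring
    rw [h1, h2]
    ring
  have hKK : K ≤ K ^ 3 := le_self_pow₀ hK (by norm_num)
  rw [e3, abs_mul, abs_of_pos (by positivity : (0 : ℝ) < 1 / N)]
  have g4 : |e2 * ((Q - ga * c' * (T / c) ^ 2) / c')| ≤ dy := by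
    rw [abs_mul, abs_div, abs_of_pos hc']
    calc |e2| * (|Q - ga * c' * (T / c) ^ 2| / c')
        ≤ 1 * ((K * dz * c' * (64 * K * (8 * K ^ 2 * dk))) / c') := by
          refine mul_le_mul he2 ?_ (by positivity) zero_le_one
          exact div_le_div_of_nonneg_right g3 hc'.le
      _ = (512 * K ^ 4) * (dz * dk) := by field_simp; ring
      _ ≤ dy := hfin
  have g5 : |(e1 * (T / c) + e2 * (P / c' + ga * (T / c) ^ 2)) +
      e2 * ((Q - ga * c' * (T / c) ^ 2) / c')| ≤ 5 * K ^ 3 * dy := by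
    refine (abs_add_le _ _).trans ((add_le_add hst g4).trans ?_)
    calc K * dy + dy = (K + 1) * dy := by ring
      _ ≤ 5 * K ^ 3 * dy := mul_le_mul_of_nonneg_right (by linarith) hdy.le
  have g6 : 1 / N ≤ 1 := by
    rw [div_le_one hNp]; exact hN
  calc 1 / N * _ ≤ 1 * (5 * K ^ 3 * dy) := mul_le_mul g6 g5 (abs_nonneg _) zero_le_one
    _ = _ := one_mul _

section base

variable {B : Base} {I : ℕ → Finset (ℕ × ℝ)} {G : Geo TSet (Fin 2)} {lev : ℕ → ℚ → ℕ}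
    {A : ℕ → ℝ} {g s : ℝ} {τ : Fin 2 → ℝ → ℝ} {f : ℕ → ℚ → ℕ → ℤ → ℕ} {b : ℕ → ℚ → ℕ → TSet}
    {vm : ℕ → ℚ → ℝ} {w : Fin 2 → ℕ → ℚ → ℝ}
    {inc : ℕ → ℕ × ℝ → LInc} {σ : Fin 2 → ℕ → ℝ} {q : Fin 2 → ℝ} {M0 c0 Rg θ : ℝ}

open Classical in
/-- **strips for an arbitrary base flag** (222's two cases together) -/
theorem strip_base (hM : MkA B I G lev A (fun v => g * v) (fun v => s * v) τ f b vm w)
    (h : LData B I G lev inc σ q M0 c0 Rg θ) {k0 : ℝ}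
    (hk : ∀ ε : ℝ, 0 < ε → ∀ᶠ n in (U : Filter ℕ), σ 1 n ≤ σ 0 n * B.d n ^ (k0 - ε))
    (w0 sa sb : ℝ) (hq0 : 0 < q 0) (hq1 : 0 < q 1) {i : ℕ → LInc} (hi : BaseOK B lev σ θ i)
    (hb : ∀ᶠ n in (U : Filter ℕ), 3 / 8 ≤ ‖vb (i n)‖) {t1 t2 e1 e2 : ℕ → ℝ} {M1 : ℝ}
    (hM1 : 1 ≤ M1)
    (hdir : ∀ᶠ n in (U : Filter ℕ), |t1 n| ≤ 1 ∧ |t2 n| ≤ 1 ∧
      ‖vb (i n)‖ ≤ M1 * |(i n).b1 * t2 n - (i n).b2 * t1 n|)
    (he : ∀ᶠ n in (U : Filter ℕ), e1 n ^ 2 + e2 n ^ 2 = 1) {v t yy y K : ℝ}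
    (hθ : θ ≤ v) (hv0 : 0 ≤ v) (hv1 : v ≤ 1) (hy : 0 < y) (hyt : y < t) (hRt : t + y < Rg)
    (hRy : |yy| + y < Rg) (hty : t + y < yy + k0) (hK : 1 ≤ K) {ε : ℝ} (hε : 0 < ε) :
    ∀ᶠ n in (U : Filter ℕ), (((I n).filter fun l =>
        Nat8 (i n) (inc n l) K (rho (lev n 0) * B.d n ^ v) (σ 0 n * B.d n ^ t)
          (σ 1 n * B.d n ^ yy) ∧
        |e1 n * ((t1 n * coL (i n) (inc n l) 3 + t2 n * coL (i n) (inc n l) 4) /
            (σ 0 n * B.d n ^ t)) + e2 n * (coL (i n) (inc n l) 10 / (σ 1 n * B.d n ^ yy))| ≤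
          K * B.d n ^ y).card : ℝ) ≤
      (A n * VL σ q lev n * B.d n ^ (-(1 - s))) *
        B.d n ^ (-(DL g s q w0 sa sb (nbS w0 sa sb v t yy) - gam q * y + ε)) := by
  have ht : 0 < t := by linarith
  have hκ := kap_pos hq1
  have hκ1 : kap q ≤ 1 := (kap_le hq1).trans (by norm_num)
  have he1 : ∀ᶠ n in (U : Filter ℕ), |e1 n| ≤ 1 := by
    filter_upwards [he] with n h1
    rw [← sq_le_one_iff_abs_le_one]
    nlinarith [sq_nonneg (e2 n)]
  have hmono : ∀ (n : ℕ) {a b : ℝ}, a ≤ b →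
      (A n * VL σ q lev n * B.d n ^ (-(1 - s))) * B.d n ^ b ≤
      (A n * VL σ q lev n * B.d n ^ (-(1 - s))) * B.d n ^ a := by
    intro n a b hab
    refine mul_le_mul_of_nonneg_left (Dp76.dpow_le B n hab) ?_
    have hA := (hM.Apos n).le
    have s0 := h.σp 0 n
    have s1 := h.σp 1 n
    have r0 := Gd222.rho_pos (lev n 0)
    have hV : 0 ≤ VL σ q lev n := by unfold VL; positivity
    have := Dp76.dpow_pos B n (-(1 - s))
    positivity
  by_cases hc : ∀ᶠ n in (U : Filter ℕ), B.d n ^ (kap q * y) ≤ |e2 n|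
  · have key := strip_A hM h hk w0 sa sb hi hb (hdir.mono fun n hn => ⟨hn.1, hn.2.1⟩) he1
      hκ.le hκ1 hc ht hK hθ (by linarith) hv0 hv1 (by linarith) hy hRy hty hε
    filter_upwards [key] with n h1
    refine h1.trans (hmono n ?_)
    rw [kap_id hq1]
    have : gam q ≤ q 1 / 2 := min_le_left _ _
    nlinarith
  · rw [← Ultrafilter.eventually_not] at hc
    have hc' : ∀ᶠ n in (U : Filter ℕ), |e2 n| ≤ B.d n ^ (kap q * y) := by
      filter_upwards [hc] with n hn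
      exact (not_le.1 hn).le
    have he1' : ∀ᶠ n in (U : Filter ℕ), 1 / 2 ≤ |e1 n| := by
      filter_upwards [hc', he, ev_pow B (K := 1) (κ := 1 / 2) (a := kap q * y) (b := 0) one_pos
        (by norm_num) (by positivity)] with n h1 h2 h3
      rw [Real.rpow_zero, mul_one, one_mul] at h3
      have h4 : |e2 n| ≤ 1 / 2 := h1.trans h3
      have h5 : e2 n ^ 2 ≤ (1 / 2) ^ 2 := sq_le_sq' (by linarith [(abs_le.1 h4).1]) (abs_le.1 h4).2
      have h7 : (1 / 2 : ℝ) ^ 2 ≤ e1 n ^ 2 := by nlinarith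
      have h8 := sq_le_sq.1 h7
      rwa [abs_of_pos (by norm_num : (0 : ℝ) < 1 / 2)] at h8
    have key := strip_B hM h hk w0 sa sb hi hM1 hdir he1' hκ.le hκ1 hc'
      hK hθ hv0 hv1 hy hyt (by linarith) hRt (by linarith) hty hε
    filter_upwards [key] with n h1
    refine h1.trans (hmono n ?_)
    have : gam q ≤ q 0 * kap q := min_le_right _ _
    nlinarith

/-- the curved base flag -/
theorem BaseOK.addc {i : ℕ → LInc} (hi : BaseOK B lev σ θ i) {γ : ℕ → ℝ}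
    (hγ : ∀ ε : ℝ, 0 < ε → ∀ᶠ n in (U : Filter ℕ), |γ n| * σ 0 n ≤ B.d n ^ (-ε))
    (hσ : ∀ j n, 0 < σ j n) :
    BaseOK B lev σ θ (fun n => addc (γ n) (i n)) where
  hb := hi.hb
  he := by
    intro ε hε
    have hε2 : 0 < ε / 2 := by linarith
    filter_upwards [hi.he _ hε2, hγ _ hε2,
      ev_pow B (K := 2) (κ := 1) (a := -(ε / 2)) (b := -ε) (by norm_num) one_pos
        (by linarith)] with n e1 e2 e3
    show |(i n).et + γ n| * σ 0 n ≤ _
    calc |(i n).et + γ n| * σ 0 n ≤ (|(i n).et| + |γ n|) * σ 0 n :=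
          mul_le_mul_of_nonneg_right (abs_add_le _ _) (hσ 0 n).le
      _ = |(i n).et| * σ 0 n + |γ n| * σ 0 n := by ring
      _ ≤ 2 * B.d n ^ (-(ε / 2)) := by linarith
      _ ≤ B.d n ^ (-ε) := by linarith
  hd := hi.hd

set_option maxHeartbeats 1000000 in
open Classical in
/-- **curved strips for an arbitrary base flag** -/
theorem strip_curv (hM : MkA B I G lev A (fun v => g * v) (fun v => s * v) τ f b vm w)
    (h : LData B I G lev inc σ q M0 c0 Rg θ) {k0 : ℝ}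
    (hk : ∀ ε : ℝ, 0 < ε → ∀ᶠ n in (U : Filter ℕ), σ 1 n ≤ σ 0 n * B.d n ^ (k0 - ε))
    (w0 sa sb : ℝ) (hq0 : 0 < q 0) (hq1 : 0 < q 1) {i : ℕ → LInc} (hi : BaseOK B lev σ θ i)
    (hb : ∀ᶠ n in (U : Filter ℕ), 3 / 8 ≤ ‖vb (i n)‖) {t1 t2 e1 e2 ga : ℕ → ℝ} {M1 : ℝ}
    (hM1 : 1 ≤ M1)
    (hdir : ∀ᶠ n in (U : Filter ℕ), |t1 n| ≤ 1 ∧ |t2 n| ≤ 1 ∧
      ‖vb (i n)‖ ≤ M1 * |(i n).b1 * t2 n - (i n).b2 * t1 n|)
    (he : ∀ᶠ n in (U : Filter ℕ), e1 n ^ 2 + e2 n ^ 2 = 1) {v t yy y z K : ℝ}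
    (hg : ∀ᶠ n in (U : Filter ℕ), |ga n| ≤ K * B.d n ^ (-z)) (hz : 0 ≤ z)
    (hθ : θ ≤ v) (hv0 : 0 ≤ v) (hv1 : v ≤ 1) (hy : 0 < y) (hyt : y + z < t) (hRt : t + y < Rg)
    (hRy : |yy| + y + z < Rg) (hty : t + y + z < yy + k0) (hcur : 2 * t + z ≤ yy + k0)
    (hK : 1 ≤ K) {ε : ℝ} (hε : 0 < ε) :
    ∀ᶠ n in (U : Filter ℕ), (((I n).filter fun l =>
        Nat8 (i n) (inc n l) K (rho (lev n 0) * B.d n ^ v) (σ 0 n * B.d n ^ t)
          (σ 1 n * B.d n ^ yy) ∧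
        |e1 n * ((t1 n * coL (i n) (inc n l) 3 + t2 n * coL (i n) (inc n l) 4) /
            (σ 0 n * B.d n ^ t)) + e2 n * (coL (i n) (inc n l) 10 / (σ 1 n * B.d n ^ yy) +
              ga n * ((t1 n * coL (i n) (inc n l) 3 + t2 n * coL (i n) (inc n l) 4) /
                (σ 0 n * B.d n ^ t)) ^ 2)| ≤ K * B.d n ^ y).card : ℝ) ≤
      (A n * VL σ q lev n * B.d n ^ (-(1 - s))) *
        B.d n ^ (-(DL g s q w0 sa sb (nbS w0 sa sb v t yy) - gam q * y + (1 + q 1) * z + ε)) := by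
  have ht : 0 < t := by linarith
  have hK0 : 0 < K := by linarith
  have hKK : K ≤ K ^ 2 := le_self_pow₀ hK (by norm_num)
  have hK3 : K ^ 2 ≤ K ^ 3 := pow_le_pow_right₀ hK (by norm_num)
  -- the curvature
  set γ : ℕ → ℝ := fun n => gco (i n) (t1 n) (t2 n) (ga n) (σ 0 n * B.d n ^ t)
    (σ 1 n * B.d n ^ yy) with hγd
  have hγ1 : ∀ᶠ n in (U : Filter ℕ), |γ n| ≤ 4 * (K * B.d n ^ (-z)) *
      ((σ 1 n * B.d n ^ yy) / (σ 0 n * B.d n ^ t) ^ 2) := by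
    filter_upwards [hi.hb, hdir, hg] with n n1 n2 n3
    exact gco_le (i n) n2.1 n2.2.1 (by linarith) (mul_pos (h.σp 0 n) (Dp76.dpow_pos B n _))
      (mul_pos (h.σp 1 n) (Dp76.dpow_pos B n _)) n3
  have hγ : ∀ ε : ℝ, 0 < ε → ∀ᶠ n in (U : Filter ℕ), |γ n| * σ 0 n ≤ B.d n ^ (-ε) := by
    intro ε hε
    have hε2 : 0 < ε / 2 := by linarith
    filter_upwards [hγ1, hk _ hε2, ev_pow B (K := 4 * K) (κ := 1) (a := -(ε / 2)) (b := -ε)
      (by linarith) one_pos (by linarith)] with n n1 n2 n3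
    have dp := fun a => Dp76.dpow_pos B n a
    have s0 := h.σp 0 n
    have s1 := h.σp 1 n
    have e : (B.d n ^ t) ^ 2 = B.d n ^ (2 * t) := by
      rw [← Real.rpow_natCast, ← Real.rpow_mul (B.pos n).le]; congr 1; push_cast; ring
    calc |γ n| * σ 0 n ≤ 4 * (K * B.d n ^ (-z)) *
          ((σ 1 n * B.d n ^ yy) / (σ 0 n * B.d n ^ t) ^ 2) * σ 0 n :=
          mul_le_mul_of_nonneg_right n1 s0.le
      _ = 4 * K * (σ 1 n / σ 0 n * (B.d n ^ (-z) * B.d n ^ yy / B.d n ^ (2 * t))) := by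
          rw [← e]; field_simp
      _ ≤ 4 * K * (B.d n ^ (k0 - ε / 2) * (B.d n ^ (-z) * B.d n ^ yy / B.d n ^ (2 * t))) := by
          refine mul_le_mul_of_nonneg_left (mul_le_mul_of_nonneg_right ?_ ?_) (by linarith)
          · rw [div_le_iff₀ s0, mul_comm]; exact n2
          · exact (div_pos (mul_pos (dp _) (dp _)) (dp _)).le
      _ = 4 * K * B.d n ^ (k0 - ε / 2 + (-z + yy - 2 * t)) := by
          have e2 : B.d n ^ (-z + yy - 2 * t) = B.d n ^ (-z) * B.d n ^ yy / B.d n ^ (2 * t) := by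
            rw [Real.rpow_sub (B.pos n), Dp76.dpow_add B n (-z)]
          rw [Dp76.dpow_add B n (k0 - ε / 2), e2]
      _ ≤ 4 * K * B.d n ^ (-(ε / 2)) :=
          mul_le_mul_of_nonneg_left (Dp76.dpow_le B n (by linarith)) (by linarith)
      _ ≤ B.d n ^ (-ε) := by linarith
  have hi' := BaseOK.addc hi hγ h.σp
  -- the normalised direction
  set e2' : ℕ → ℝ := fun n => e2 n * B.d n ^ (-z) with he2d
  set N : ℕ → ℝ := fun n => Real.sqrt (e1 n ^ 2 + e2' n ^ 2) with hNd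
  have hN1 : ∀ᶠ n in (U : Filter ℕ), 1 ≤ N n := by
    filter_upwards [he] with n n1
    rw [hNd, Real.one_le_sqrt, he2d]
    have h1 : 1 ≤ B.d n ^ (-z) :=
      Real.one_le_rpow_of_pos_of_le_one_of_nonpos (B.pos n) (B.lt n).le (by linarith)
    have h2 : 1 ≤ (B.d n ^ (-z)) ^ 2 := one_le_pow₀ h1
    simp only [mul_pow]
    nlinarith [sq_nonneg (e2 n)]
  have he' : ∀ᶠ n in (U : Filter ℕ), (e1 n / N n) ^ 2 + (e2' n / N n) ^ 2 = 1 := by
    filter_upwards [hN1] with n n1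
    have h1 : N n ^ 2 = e1 n ^ 2 + e2' n ^ 2 := Real.sq_sqrt (by positivity)
    have h2 : 0 < N n := by linarith
    rw [div_pow, div_pow, ← add_div, ← h1, div_self (by positivity)]
  have hzy : |yy - z| + y < Rg := by
    have : |yy - z| ≤ |yy| + |z| := abs_sub _ _
    rw [abs_of_nonneg hz] at this
    linarith
  have key := strip_base hM h hk w0 sa sb hq0 hq1 hi' (hb.mono fun n hn => hn) hM1
    (t1 := t1) (t2 := t2) (e1 := fun n => e1 n / N n) (e2 := fun n => e2' n / N n)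
    (hdir.mono fun n hn => hn) he' (v := v) (t := t) (yy := yy - z) (y := y) (K := 5 * K ^ 3)
    hθ hv0 hv1 hy (by linarith) hRt hzy (by linarith) (by linarith) hε
  obtain ⟨η, hη, hη1, hη2, hη3⟩ : ∃ η : ℝ, 0 < η ∧ y + z + η ≤ t - η ∧
      y + z + η ≤ v + t - θ - η ∧ y + z + η ≤ yy + k0 - t - η := by
    refine ⟨min ((t - y - z) / 2) ((yy + k0 - t - y - z) / 2), ?_, ?_, ?_, ?_⟩
    · exact lt_min (by linarith) (by linarith)
    · have := min_le_left ((t - y - z) / 2) ((yy + k0 - t - y - z) / 2)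
      linarith
    · have := min_le_left ((t - y - z) / 2) ((yy + k0 - t - y - z) / 2)
      linarith
    · have := min_le_right ((t - y - z) / 2) ((yy + k0 - t - y - z) / 2)
      linarith
  filter_upwards [key, hdir, he, hg, hi.hb, hi.he η hη, hi.hd η hη, hk η hη, hγ1, hN1,
    ev_pow B (K := 8 * K ^ 2) (κ := 1) (a := y + z + η) (b := 0) (by positivity) one_pos
      (by linarith),
    ev_pow B (K := 512 * K ^ 4) (κ := 1) (a := η) (b := 0) (by positivity) one_pos hη]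
    with n n1 n3 n4 n5 n6 n7 n8 n9 n10 n11 n12 n13
  have dp := fun a => Dp76.dpow_pos B n a
  have s0 := h.σp 0 n
  have s1 := h.σp 1 n
  have r0 := Gd222.rho_pos (lev n 0)
  rw [Real.rpow_zero, mul_one] at n12 n13
  obtain ⟨R, hR⟩ : ∃ R : ℝ, R = rho (lev n 0) * B.d n ^ v := ⟨_, rfl⟩
  obtain ⟨c, hc⟩ : ∃ c : ℝ, c = σ 0 n * B.d n ^ t := ⟨_, rfl⟩
  obtain ⟨c', hc'⟩ : ∃ c' : ℝ, c' = σ 1 n * B.d n ^ yy := ⟨_, rfl⟩
  obtain ⟨c2, hc2⟩ : ∃ c2 : ℝ, c2 = σ 1 n * B.d n ^ (yy - z) := ⟨_, rfl⟩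
  have hγn : γ n = gco (i n) (t1 n) (t2 n) (ga n) c c' := by rw [hγd, hc, hc']
  rw [← hR, ← hc, ← hc2] at n1
  rw [← hc, ← hc'] at n10
  rw [← hR, ← hc, ← hc']
  have Rp : 0 < R := by rw [hR]; exact mul_pos r0 (dp _)
  have cp : 0 < c := by rw [hc]; exact mul_pos s0 (dp _)
  have cp' : 0 < c' := by rw [hc']; exact mul_pos s1 (dp _)
  have ec2 : c2 = c' * B.d n ^ (-z) := by
    rw [hc2, hc', sub_eq_add_neg, Dp76.dpow_add]; ring
  have hdz : 1 ≤ B.d n ^ (-z) :=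
    Real.one_le_rpow_of_pos_of_le_one_of_nonpos (B.pos n) (B.lt n).le (by linarith)
  have cp2 : 0 < c2 := by rw [ec2]; exact mul_pos cp' (dp _)
  have hcc2 : c' ≤ c2 := by rw [ec2]; exact le_mul_of_one_le_right cp'.le hdz
  obtain ⟨dk, hdk⟩ : ∃ dk : ℝ, dk = B.d n ^ (y + z + η) := ⟨_, rfl⟩
  rw [← hdk] at n12
  have dkp : 0 < dk := by rw [hdk]; exact dp _
  have hle : ∀ {a : ℝ}, y + z + η ≤ a → B.d n ^ a ≤ dk := fun ha => by
    rw [hdk]; exact Dp76.dpow_le B n ha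
  have hE : |(i n).et| * c ≤ dk := by
    calc |(i n).et| * c = (|(i n).et| * σ 0 n) * B.d n ^ t := by rw [hc]; ring
      _ ≤ B.d n ^ (-η) * B.d n ^ t := mul_le_mul_of_nonneg_right n7 (dp _).le
      _ = B.d n ^ (t - η) := by rw [← Dp76.dpow_add]; congr 1; ring
      _ ≤ dk := hle (by linarith)
  have hD : |(i n).d| * (c * R) ≤ dk := by
    calc |(i n).d| * (c * R) = (|(i n).d| * (σ 0 n * rho (lev n 0))) * (B.d n ^ t * B.d n ^ v) := by
          rw [hc, hR]; ring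
      _ ≤ B.d n ^ (-θ - η) * (B.d n ^ t * B.d n ^ v) :=
          mul_le_mul_of_nonneg_right n8 (mul_pos (dp _) (dp _)).le
      _ = B.d n ^ (v + t - θ - η) := by rw [← Dp76.dpow_add, ← Dp76.dpow_add]; congr 1; ring
      _ ≤ dk := hle (by linarith)
  have hcc : c' ≤ c * dk := by
    calc c' ≤ (σ 0 n * B.d n ^ (k0 - η)) * B.d n ^ yy := by
          rw [hc']; exact mul_le_mul_of_nonneg_right n9 (dp _).le
      _ = c * B.d n ^ (yy + k0 - t - η) := by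
          rw [hc, mul_assoc, mul_assoc, ← Dp76.dpow_add, ← Dp76.dpow_add]; congr 2; ring
      _ ≤ c * dk := mul_le_mul_of_nonneg_left (hle (by linarith)) cp.le
  have he2n : |e2 n| ≤ 1 := by
    rw [← sq_le_one_iff_abs_le_one]; nlinarith [sq_nonneg (e1 n)]
  have hNp : 0 < N n := by linarith
  refine le_trans ?_ (n1.trans ?_)
  · refine Nat.cast_le.2 (Finset.card_le_card fun l hl => ?_)
    rw [mem_filter] at hl ⊢
    obtain ⟨hlI, hN8, hst⟩ := hl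
    obtain ⟨a0, a3, a4, a5, a6, a9, a10, a11⟩ := coL_addc (γ n) (i n) (inc n l)
    have leK : ∀ {x X : ℝ}, 0 ≤ X → |x| ≤ K * X → |x| ≤ 5 * K ^ 3 * X := by
      intro x X hX hx
      exact hx.trans (mul_le_mul_of_nonneg_right (by linarith) hX)
    have hC2 : |(coL (i n) (inc n l) 3 ^ 2 + coL (i n) (inc n l) 4 ^ 2) / 2| ≤ K ^ 2 * c ^ 2 := by
      rw [← mul_pow]
      exact sq2_le hN8.h3 hN8.h4
    refine ⟨hlI, ⟨?_, ?_, ?_, ?_, ?_, ?_, ?_, ?_⟩, ?_⟩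
    · rw [a0]; exact leK Rp.le hN8.h0
    · rw [a3]; exact leK cp.le hN8.h3
    · rw [a4]; exact leK cp.le hN8.h4
    · rw [a5]; exact leK (by positivity) hN8.h5
    · rw [a6]; exact leK (by positivity) hN8.h6
    · rw [a9]; exact leK (by positivity) hN8.h9
    · rw [a10]
      have b1 : |γ n * ((coL (i n) (inc n l) 3 ^ 2 + coL (i n) (inc n l) 4 ^ 2) / 2)| ≤
          4 * K ^ 3 * c2 := by
        rw [abs_mul]
        calc _ ≤ (4 * (K * B.d n ^ (-z)) * (c' / c ^ 2)) * (K ^ 2 * c ^ 2) :=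
              mul_le_mul n10 hC2 (abs_nonneg _) (by have := dp (-z); positivity)
          _ = 4 * K ^ 3 * c2 := by rw [ec2]; field_simp
      have b2 : K * c' ≤ K ^ 3 * c2 := mul_le_mul (by linarith) hcc2 cp'.le (by positivity)
      exact (abs_add_le _ _).trans (by linarith [hN8.h10])
    · rw [a11]
      have b1 : |γ n * coL (i n) (inc n l) 9| ≤ 4 * K ^ 2 * (c2 * R) := by
        rw [abs_mul]
        calc _ ≤ (4 * (K * B.d n ^ (-z)) * (c' / c ^ 2)) * (K * (c ^ 2 * R)) :=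
              mul_le_mul n10 hN8.h9 (abs_nonneg _) (by have := dp (-z); positivity)
          _ = 4 * K ^ 2 * (c2 * R) := by rw [ec2]; field_simp
      have b2 : K * (c' * R) ≤ K ^ 3 * (c2 * R) :=
        mul_le_mul (by linarith) (mul_le_mul_of_nonneg_right hcc2 Rp.le) (by positivity)
          (by positivity)
      have b3 : 4 * K ^ 2 * (c2 * R) ≤ 4 * K ^ 3 * (c2 * R) :=
        mul_le_mul_of_nonneg_right (by linarith) (by positivity)
      exact (abs_add_le _ _).trans (by linarith [hN8.h11])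
    · obtain ⟨g1, -⟩ := comp_b Rp cp hK hN8 hE hD
      have g2 : |(i n).b1 * coL (i n) (inc n l) 3 + (i n).b2 * coL (i n) (inc n l) 4| ≤
          (8 * K ^ 2 * dk) * c := by
        refine g1.trans ?_
        have b1 : K * c' ≤ K ^ 2 * (c * dk) := mul_le_mul hKK hcc cp'.le (by positivity)
        calc K * c' + K ^ 2 * c * (dk + 6 * dk) ≤ K ^ 2 * (c * dk) + K ^ 2 * c * (dk + 6 * dk) := by
              linarith
          _ = (8 * K ^ 2 * dk) * c := by ring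
      have g3 := curv_err (i n) n3.1 n3.2.1 n6 cp cp' n5 hK hN8.h3 hN8.h4 g2 n12
      rw [← hγn] at g3
      simp only [a3, a4, a10, he2d, ec2]
      refine stp_le cp' (dp _) (dp _) hK n11 he2n hst g3 ?_
      calc 512 * K ^ 4 * (B.d n ^ (-z) * dk) = (512 * K ^ 4 * B.d n ^ η) * B.d n ^ y := by
            rw [hdk, ← Dp76.dpow_add, show -z + (y + z + η) = η + y by ring, Dp76.dpow_add]
            ring
        _ ≤ 1 * B.d n ^ y := mul_le_mul_of_nonneg_right n13 (dp _).le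
        _ = _ := one_mul _
  · have hA := (hM.Apos n).le
    have hV : 0 ≤ VL σ q lev n := by unfold VL; positivity
    have h1 := dp (-(1 - s))
    refine mul_le_mul_of_nonneg_left (Dp76.dpow_le B n ?_) (by positivity)
    rw [DL_nbS, DL_nbS]
    unfold FL
    linarith

end base

end Crest.Agent.R116.Gc809
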