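import Mathlib
import Crest.Agent.R116.Gc1_192

/-!
# R116: planar (conic) geometry, part 2: counting, covering and area of strips (helper192)

A strip `{C : |Lq a b c C| ≤ h, k ≤ ‖nab b c C‖}` is a neighbourhood of width `h / k` of a circle (or of
a line); in a disc of radius `ρ` it has at most `289 (4 ρ / δ + 2)` points which are `δ`-separated,
`δ ≥ 8 h / k`.
-/

set_option autoImplicit false

open Finset

namespace Crest.Agent.R116.Gc192

/-- rotation by a quarter turn. -/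
noncomputable def rot (u : E2) : E2 := !₂[-(u 1), u 0]

lemma rot_zero' (u : E2) : rot u 0 = -(u 1) := by simp [rot]
lemma rot_one' (u : E2) : rot u 1 = u 0 := by simp [rot]

lemma frame_sq {e : E2} (he : ‖e‖ = 1) (w : E2) :
    ‖w‖ ^ 2 = (inner ℝ e w) ^ 2 + (inner ℝ (rot e) w) ^ 2 := by
  have h : e 0 ^ 2 + e 1 ^ 2 = 1 := by rw [← norm_sq2, he]; norm_num
  rw [norm_sq2, inner2, inner2, rot_zero', rot_one']
  have : w 0 ^ 2 + w 1 ^ 2 = (e 0 ^ 2 + e 1 ^ 2) * (w 0 ^ 2 + w 1 ^ 2) := by rw [h, one_mul]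
  rw [this]; ring

lemma norm_rot {e : E2} (he : ‖e‖ = 1) : ‖rot e‖ = 1 := by
  have h : e 0 ^ 2 + e 1 ^ 2 = 1 := by rw [← norm_sq2, he]; norm_num
  have h2 : ‖rot e‖ ^ 2 = 1 := by rw [norm_sq2, rot_zero', rot_one']; linarith
  exact (sq_eq_sq₀ (norm_nonneg _) zero_le_one).1 (by rw [h2]; norm_num)

/-- points of a strip whose normals are close to `e`: the difference is almost tangent. -/
lemma inner_small {a c h k : ℝ} {b e C C' : E2} (hk : 0 < k)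
    (h1 : |Lq a b c C| ≤ h) (h1' : |Lq a b c C'| ≤ h)
    (hn : k ≤ ‖nab b c C‖) (hn' : k ≤ ‖nab b c C'‖)
    (hd : ‖nab b c C - ‖nab b c C‖ • e‖ ≤ ‖nab b c C‖ / 4)
    (hd' : ‖nab b c C' - ‖nab b c C'‖ • e‖ ≤ ‖nab b c C'‖ / 4) :
    |inner ℝ e (C - C')| ≤ 2 * h / k + ‖C - C'‖ / 4 := by
  set u := nab b c C with hu
  set v := nab b c C' with hv
  set w := C - C' with hw
  set m : ℝ := (‖u‖ + ‖v‖) / 2 with hm
  have hmk : k ≤ m := by rw [hm]; linarith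
  have hm0 : 0 < m := hk.trans_le hmk
  have e0 : nab b c ((1 / 2 : ℝ) • (C + C')) = (1 / 2 : ℝ) • (u + v) := by
    rw [hu, hv]; unfold nab
    ext i
    simp only [PiLp.smul_apply, PiLp.add_apply, smul_eq_mul]
    ring
  have e1 : inner ℝ ((1 / 2 : ℝ) • (u + v)) w = Lq a b c C - Lq a b c C' := by
    rw [Lq_sub, ← e0]
  have e2 : (m • e : E2) = (1 / 2 : ℝ) • (u + v) -
      (1 / 2 : ℝ) • ((u - ‖u‖ • e) + (v - ‖v‖ • e)) := by
    rw [hm]
    ext i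
    simp only [PiLp.smul_apply, PiLp.add_apply, PiLp.sub_apply, smul_eq_mul]
    ring
  have e3 : m * inner ℝ e w = (Lq a b c C - Lq a b c C') -
      inner ℝ ((1 / 2 : ℝ) • ((u - ‖u‖ • e) + (v - ‖v‖ • e))) w := by
    have : m * inner ℝ e w = inner ℝ (m • e) w := by rw [inner_smul_left]; simp
    rw [this, e2, inner_sub_left, e1]
  have n1 : ‖(1 / 2 : ℝ) • ((u - ‖u‖ • e) + (v - ‖v‖ • e))‖ ≤ m / 4 := by
    rw [norm_smul, Real.norm_of_nonneg (by norm_num : (0:ℝ) ≤ 1 / 2)]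
    have := norm_add_le (u - ‖u‖ • e) (v - ‖v‖ • e)
    rw [hm]; linarith
  have n2 : |m * inner ℝ e w| ≤ 2 * h + m / 4 * ‖w‖ := by
    rw [e3]
    refine (abs_sub _ _).trans (add_le_add ?_ ?_)
    · refine (abs_sub _ _).trans ?_; linarith
    · refine (abs_real_inner_le_norm _ _).trans ?_
      exact mul_le_mul_of_nonneg_right n1 (norm_nonneg _)
  have hh : 0 ≤ h := (abs_nonneg _).trans h1
  rw [abs_mul, abs_of_pos hm0] at n2
  have n3 : |inner ℝ e w| ≤ (2 * h + m / 4 * ‖w‖) / m := by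
    rw [le_div_iff₀ hm0, mul_comm]; exact n2
  refine n3.trans ?_
  have : (2 * h + m / 4 * ‖w‖) / m = 2 * h / m + ‖w‖ / 4 := by field_simp
  rw [this]
  have : 2 * h / m ≤ 2 * h / k := div_le_div_of_nonneg_left (by positivity) hk hmk
  linarith

/-- one-dimensional count. -/
lemma card_le_of_sep {ι : Type*} [DecidableEq ι] (S : Finset ι) (t : ι → ℝ) {d ρ : ℝ} (hd : 0 < d)
    (hρ : 0 ≤ ρ) (ht : ∀ i ∈ S, |t i| ≤ ρ)
    (hs : ∀ i ∈ S, ∀ j ∈ S, i ≠ j → d ≤ |t i - t j|) :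
    (S.card : ℝ) ≤ 2 * ρ / d + 2 := by
  have hinj : Set.InjOn (fun i => ⌊t i / d⌋) S := by
    intro i hi j hj hij
    by_contra hne
    have h1 := hs i hi j hj hne
    have h2 : |t i / d - t j / d| < 1 := Int.abs_sub_lt_one_of_floor_eq_floor hij
    rw [← sub_div, abs_div, abs_of_pos hd, div_lt_one hd] at h2
    linarith
  have hmap : ∀ i ∈ S, (fun i => ⌊t i / d⌋) i ∈ Finset.Icc ⌊-(ρ / d)⌋ ⌊ρ / d⌋ := by
    intro i hi
    have h1 := abs_le.1 (ht i hi)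
    rw [Finset.mem_Icc]
    constructor
    · apply Int.floor_le_floor
      rw [← neg_div]; exact div_le_div_of_nonneg_right h1.1 hd.le
    · apply Int.floor_le_floor
      exact div_le_div_of_nonneg_right h1.2 hd.le
  have hc : S.card ≤ (Finset.Icc ⌊-(ρ / d)⌋ ⌊ρ / d⌋).card :=
    Finset.card_le_card_of_injOn _ hmap hinj
  rw [Int.card_Icc] at hc
  have hx : 0 ≤ ρ / d := div_nonneg hρ hd.le
  have h1 : (⌊ρ / d⌋ : ℝ) ≤ ρ / d := Int.floor_le _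
  have h2 : -(ρ / d) - 1 < (⌊-(ρ / d)⌋ : ℝ) := Int.sub_one_lt_floor _
  have h3 : (0:ℤ) ≤ ⌊ρ / d⌋ + 1 - ⌊-(ρ / d)⌋ := by
    have : ⌊-(ρ / d)⌋ ≤ ⌊ρ / d⌋ := Int.floor_le_floor (by linarith)
    omega
  have h4 : (S.card : ℤ) ≤ ⌊ρ / d⌋ + 1 - ⌊-(ρ / d)⌋ := by
    have := Int.toNat_of_nonneg h3
    omega
  have h5 : (S.card : ℝ) ≤ ⌊ρ / d⌋ + 1 - ⌊-(ρ / d)⌋ := by exact_mod_cast h4
  have h6 : 2 * ρ / d = 2 * (ρ / d) := by ring
  rw [h6]; linarith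

/-- count of `δ`-separated points of a strip with normals close to `e` in a disc. -/
lemma strip_count_dir {a c h k δ ρ : ℝ} {b e C0 : E2} (hk : 0 < k) (hδ : 0 < δ) (hρ : 0 ≤ ρ) (he : ‖e‖ = 1)
    (hh : 8 * h ≤ k * δ) (S : Finset E2)
    (h1 : ∀ C ∈ S, |Lq a b c C| ≤ h) (h2 : ∀ C ∈ S, k ≤ ‖nab b c C‖)
    (h3 : ∀ C ∈ S, ‖C - C0‖ ≤ ρ)
    (h4 : ∀ C ∈ S, ∀ C' ∈ S, C ≠ C' → δ ≤ ‖C - C'‖)
    (h5 : ∀ C ∈ S, ‖nab b c C - ‖nab b c C‖ • e‖ ≤ ‖nab b c C‖ / 4) :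
    (S.card : ℝ) ≤ 4 * ρ / δ + 2 := by
  classical
  rcases S.eq_empty_or_nonempty with hS | ⟨C1, hC1⟩
  · subst hS
    simp only [Finset.card_empty, Nat.cast_zero]
    positivity
  · have key := card_le_of_sep S (fun C => inner ℝ (rot e) (C - C0)) (d := δ / 2) (ρ := ρ)
      (by positivity) hρ ?_ ?_
    · refine key.trans (le_of_eq ?_)
      field_simp; ring
    · intro C hC
      refine (abs_real_inner_le_norm _ _).trans ?_
      rw [norm_rot he, one_mul]; exact h3 C hC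
    · intro C hC C' hC' hne
      have hw := h4 C hC C' hC' hne
      have hs := inner_small hk (h1 C hC) (h1 C' hC') (h2 C hC) (h2 C' hC') (h5 C hC) (h5 C' hC')
      have hs2 : 2 * h / k ≤ ‖C - C'‖ / 4 := by
        rw [div_le_iff₀ hk]; nlinarith
      have hs3 : |inner ℝ e (C - C')| ≤ ‖C - C'‖ / 2 := by linarith
      have hfs := frame_sq he (C - C')
      have e1 : inner ℝ (rot e) (C - C0) - inner ℝ (rot e) (C' - C0) = inner ℝ (rot e) (C - C') := by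
        rw [← inner_sub_right]; congr 1; abel
      simp only [e1]
      have hw0 : 0 < ‖C - C'‖ := hδ.trans_le hw
      have hs4 : (inner ℝ e (C - C')) ^ 2 ≤ (‖C - C'‖ / 2) ^ 2 := by
        rw [← sq_abs (inner ℝ e (C - C'))]
        exact pow_le_pow_left₀ (abs_nonneg _) hs3 2
      have hs5 : (‖C - C'‖ / 2) ^ 2 ≤ (inner ℝ (rot e) (C - C')) ^ 2 := by nlinarith
      have hs6 := sq_le_sq.1 hs5
      rw [abs_of_nonneg (by positivity)] at hs6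
      linarith

/-- the cell of a direction. -/
noncomputable def dcell (e : E2) : ℤ × ℤ := (⌊8 * e 0⌋, ⌊8 * e 1⌋)

lemma abs_coord_le {e : E2} (he : ‖e‖ = 1) (i : Fin 2) : |e i| ≤ 1 := by
  have h := norm_sq2 e
  rw [he] at h
  have : e i ^ 2 ≤ 1 := by
    fin_cases i
    · simp only [Fin.zero_eta]; nlinarith [sq_nonneg (e 1)]
    · simp only [Fin.mk_one]; nlinarith [sq_nonneg (e 0)]
  exact (sq_le_one_iff_abs_le_one _).1 this

lemma dcell_mem {e : E2} (he : ‖e‖ = 1) :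
    dcell e ∈ (Finset.Icc (-8 : ℤ) 8) ×ˢ (Finset.Icc (-8 : ℤ) 8) := by
  have h0 := abs_le.1 (abs_coord_le he 0)
  have h1 := abs_le.1 (abs_coord_le he 1)
  rw [Finset.mem_product, Finset.mem_Icc, Finset.mem_Icc]
  unfold dcell
  refine ⟨⟨?_, ?_⟩, ?_, ?_⟩
  · exact Int.le_floor.2 (by push_cast; linarith [h0.1])
  · have : (⌊8 * e 0⌋ : ℝ) ≤ 8 := (Int.floor_le _).trans (by linarith [h0.2])
    exact_mod_cast this
  · exact Int.le_floor.2 (by push_cast; linarith [h1.1])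
  · have : (⌊8 * e 1⌋ : ℝ) ≤ 8 := (Int.floor_le _).trans (by linarith [h1.2])
    exact_mod_cast this

lemma dcell_close {e e' : E2} (h : dcell e = dcell e') : ‖e - e'‖ ≤ 1 / 4 := by
  unfold dcell at h
  rw [Prod.mk.injEq] at h
  have h0 := Int.abs_sub_lt_one_of_floor_eq_floor h.1
  have h1 := Int.abs_sub_lt_one_of_floor_eq_floor h.2
  have k0 : |e 0 - e' 0| ≤ 1 / 8 := by
    rw [← mul_sub, abs_mul] at h0; norm_num at h0; linarith
  have k1 : |e 1 - e' 1| ≤ 1 / 8 := by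
    rw [← mul_sub, abs_mul] at h1; norm_num at h1; linarith
  have hs : ‖e - e'‖ ^ 2 ≤ (1 / 4) ^ 2 := by
    rw [norm_sq2, PiLp.sub_apply, PiLp.sub_apply, ← sq_abs (e 0 - e' 0), ← sq_abs (e 1 - e' 1)]
    nlinarith [abs_nonneg (e 0 - e' 0), abs_nonneg (e 1 - e' 1)]
  exact (pow_le_pow_iff_left₀ (norm_nonneg _) (by norm_num) (by norm_num)).1 hs

/-- **G4 (count)**: a strip has at most `289 (4 ρ / δ + 2)` `δ`-separated points in a disc. -/
theorem strip_count {a c h k δ ρ : ℝ} {b C0 : E2} (hk : 0 < k) (hδ : 0 < δ) (hρ : 0 ≤ ρ)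
    (hh : 8 * h ≤ k * δ) (S : Finset E2)
    (h1 : ∀ C ∈ S, |Lq a b c C| ≤ h) (h2 : ∀ C ∈ S, k ≤ ‖nab b c C‖)
    (h3 : ∀ C ∈ S, ‖C - C0‖ ≤ ρ)
    (h4 : ∀ C ∈ S, ∀ C' ∈ S, C ≠ C' → δ ≤ ‖C - C'‖) :
    (S.card : ℝ) ≤ 289 * (4 * ρ / δ + 2) := by
  classical
  set f : E2 → ℤ × ℤ := fun C => dcell (‖nab b c C‖⁻¹ • nab b c C) with hf
  have hun : ∀ C ∈ S, ‖‖nab b c C‖⁻¹ • nab b c C‖ = 1 := by
    intro C hC
    have := hk.trans_le (h2 C hC)
    rw [norm_smul, norm_inv, norm_norm, inv_mul_cancel₀ this.ne']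
  have hmap : ∀ C ∈ S, f C ∈ (Finset.Icc (-8 : ℤ) 8) ×ˢ (Finset.Icc (-8 : ℤ) 8) :=
    fun C hC => dcell_mem (hun C hC)
  have hfib : ∀ z ∈ (Finset.Icc (-8 : ℤ) 8) ×ˢ (Finset.Icc (-8 : ℤ) 8),
      (S.filter (fun C => f C = z)).card ≤ ⌊4 * ρ / δ + 2⌋₊ := by
    intro z _
    apply Nat.le_floor
    rcases (S.filter (fun C => f C = z)).eq_empty_or_nonempty with hS | ⟨C1, hC1⟩
    · rw [hS, Finset.card_empty, Nat.cast_zero]; positivity
    · have hm : ∀ C ∈ S.filter (fun C => f C = z), C ∈ S := fun C hC => (Finset.mem_filter.1 hC).1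
      refine strip_count_dir (e := ‖nab b c C1‖⁻¹ • nab b c C1) hk hδ hρ (hun C1 (hm C1 hC1)) hh _
        (fun C hC => h1 C (hm C hC)) (fun C hC => h2 C (hm C hC)) (fun C hC => h3 C (hm C hC))
        (fun C hC C' hC' => h4 C (hm C hC) C' (hm C' hC')) ?_
      intro C hC
      have hk' := hk.trans_le (h2 C (hm C hC))
      have hcl : ‖(‖nab b c C‖⁻¹ • nab b c C) - (‖nab b c C1‖⁻¹ • nab b c C1)‖ ≤ 1 / 4 :=
        dcell_close ((Finset.mem_filter.1 hC).2.trans (Finset.mem_filter.1 hC1).2.symm)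
      have e1 : nab b c C - ‖nab b c C‖ • (‖nab b c C1‖⁻¹ • nab b c C1) =
          ‖nab b c C‖ • ((‖nab b c C‖⁻¹ • nab b c C) - (‖nab b c C1‖⁻¹ • nab b c C1)) := by
        rw [smul_sub, smul_smul ‖nab b c C‖ ‖nab b c C‖⁻¹, mul_inv_cancel₀ hk'.ne', one_smul]
      rw [e1, norm_smul, norm_norm]
      nlinarith
  have hc := Finset.card_le_mul_card_image_of_maps_to hmap _ hfib
  have h289 : ((Finset.Icc (-8 : ℤ) 8) ×ˢ (Finset.Icc (-8 : ℤ) 8)).card = 289 := by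
    rw [Finset.card_product]; simp
  rw [h289] at hc
  have hfl : ((⌊4 * ρ / δ + 2⌋₊ : ℕ) : ℝ) ≤ 4 * ρ / δ + 2 := Nat.floor_le (by positivity)
  calc (S.card : ℝ) ≤ ((⌊4 * ρ / δ + 2⌋₊ * 289 : ℕ) : ℝ) := by exact_mod_cast hc
    _ = 289 * (⌊4 * ρ / δ + 2⌋₊ : ℕ) := by push_cast; ring
    _ ≤ _ := by linarith

/-- maximal separated subsets exist. -/
lemma exists_net {δ : ℝ} (hδ : 0 < δ) (S : Finset E2) :
    ∃ T ⊆ S, (∀ C ∈ T, ∀ C' ∈ T, C ≠ C' → δ ≤ ‖C - C'‖) ∧ ∀ C ∈ S, ∃ C' ∈ T, ‖C - C'‖ < δ := by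
  classical
  induction S using Finset.induction_on with
  | empty => exact ⟨∅, by simp⟩
  | insert a S ha ih =>
    obtain ⟨T, hTS, hT, hcov⟩ := ih
    by_cases h : ∃ C' ∈ T, ‖a - C'‖ < δ
    · refine ⟨T, hTS.trans (Finset.subset_insert _ _), hT, ?_⟩
      intro C hC
      rcases Finset.mem_insert.1 hC with rfl | hC
      · exact h
      · exact hcov C hC
    · push Not at h
      refine ⟨insert a T, Finset.insert_subset_insert _ hTS, ?_, ?_⟩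
      · intro C hC C' hC' hne
        rcases Finset.mem_insert.1 hC with e1 | k1 <;> rcases Finset.mem_insert.1 hC' with e2 | k2
        · exact absurd (e1.trans e2.symm) hne
        · rw [e1]; exact h C' k2
        · rw [e2, norm_sub_rev]; exact h C k1
        · exact hT C k1 C' k2 hne
      · intro C hC
        rcases Finset.mem_insert.1 hC with rfl | hC
        · exact ⟨C, Finset.mem_insert_self _ _, by simpa using hδ⟩
        · obtain ⟨C', hC', hd⟩ := hcov C hC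
          exact ⟨C', Finset.mem_insert_of_mem hC', hd⟩

/-- **G4 (cover)**: a strip in a disc is covered by few balls of radius `δ`. -/
theorem strip_cover {a c h k δ ρ : ℝ} {b C0 : E2} (hk : 0 < k) (hδ : 0 < δ) (hρ : 0 ≤ ρ)
    (hh : 8 * h ≤ k * δ) (S : Finset E2)
    (h1 : ∀ C ∈ S, |Lq a b c C| ≤ h) (h2 : ∀ C ∈ S, k ≤ ‖nab b c C‖)
    (h3 : ∀ C ∈ S, ‖C - C0‖ ≤ ρ) :
    ∃ T ⊆ S, (T.card : ℝ) ≤ 289 * (4 * ρ / δ + 2) ∧ ∀ C ∈ S, ∃ C' ∈ T, ‖C - C'‖ < δ := by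
  obtain ⟨T, hTS, hT, hcov⟩ := exists_net hδ S
  exact ⟨T, hTS, strip_count hk hδ hρ hh T (fun C hC => h1 C (hTS hC)) (fun C hC => h2 C (hTS hC))
    (fun C hC => h3 C (hTS hC)) hT, hcov⟩

/-- **G2 (cover)**: two strips crossing with Jacobian at least `g` meet in two clusters. -/
theorem cross_cover {a1 a2 : ℝ} {b1 b2 : E2} {c1 c2 h g M : ℝ} (hg : 0 < g) (hh : 0 ≤ h)
    (S : Finset E2) (h1 : ∀ C ∈ S, |Lq a1 b1 c1 C| ≤ h) (h2 : ∀ C ∈ S, |Lq a2 b2 c2 C| ≤ h)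
    (m1 : ∀ C ∈ S, ‖nab b1 c1 C‖ ≤ M) (m2 : ∀ C ∈ S, ‖nab b2 c2 C‖ ≤ M)
    (hJ : ∀ C ∈ S, g ≤ |crs (nab b1 c1 C) (nab b2 c2 C)|) :
    ∃ T ⊆ S, T.card ≤ 2 ∧ ∀ C ∈ S, ∃ C' ∈ T, ‖C - C'‖ ≤ 4 * M * h / g := by
  classical
  have half : ∀ (P : E2 → Prop), (∀ C C', P C → P C' →
      0 < crs (nab b1 c1 C) (nab b2 c2 C) * crs (nab b1 c1 C') (nab b2 c2 C')) →
      ∃ T ⊆ S, T.card ≤ 1 ∧ ∀ C ∈ S, P C → ∃ C' ∈ T, ‖C - C'‖ ≤ 4 * M * h / g := by
    intro P hP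
    rcases (S.filter P).eq_empty_or_nonempty with hS | ⟨C1, hC1⟩
    · refine ⟨∅, by simp, by simp, ?_⟩
      intro C hC hPC
      have : C ∈ S.filter P := Finset.mem_filter.2 ⟨hC, hPC⟩
      rw [hS] at this; exact absurd this (Finset.notMem_empty _)
    · obtain ⟨hC1S, hC1P⟩ := Finset.mem_filter.1 hC1
      refine ⟨{C1}, by simpa using hC1S, by simp, ?_⟩
      intro C hC hPC
      exact ⟨C1, by simp, cross hg hh (h1 C hC) (h1 C1 hC1S) (h2 C hC) (h2 C1 hC1S) (m1 C hC)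
        (m1 C1 hC1S) (m2 C hC) (m2 C1 hC1S) (hP C C1 hPC hC1P) (hJ C hC) (hJ C1 hC1S)⟩
  obtain ⟨T1, hT1, c1', d1⟩ := half (fun C => 0 < crs (nab b1 c1 C) (nab b2 c2 C))
    (fun C C' h h' => mul_pos h h')
  obtain ⟨T2, hT2, c2', d2⟩ := half (fun C => crs (nab b1 c1 C) (nab b2 c2 C) < 0)
    (fun C C' h h' => mul_pos_of_neg_of_neg h h')
  refine ⟨T1 ∪ T2, Finset.union_subset hT1 hT2, (Finset.card_union_le _ _).trans (by omega), ?_⟩
  intro C hC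
  rcases lt_trichotomy (crs (nab b1 c1 C) (nab b2 c2 C)) 0 with h | h | h
  · obtain ⟨C', hC', hd⟩ := d2 C hC h
    exact ⟨C', Finset.mem_union_right _ hC', hd⟩
  · have := hJ C hC; rw [h, abs_zero] at this; exact absurd this (not_le.2 hg)
  · obtain ⟨C', hC', hd⟩ := d1 C hC h
    exact ⟨C', Finset.mem_union_left _ hC', hd⟩

end Crest.Agent.R116.Gc192
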