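import Crest.Agent.R116.Gd1_222
import Crest.Agent.R136.PqG_464

/-!
# R116, GEO-D of the light-ray chart (helper222), part 2: `BoxIn`

* `box_geo`, `box_ok` : a chart box of the sizes `c` (aperture), `c'` (slab), `ρ` (length) lies in the
  member `memL i s0 ρ sg s1` as soon as `16 K c ≤ sg`, `16 K c' ≤ s1`, and this member is `Ok M 0`.
* `dyx`, `dyx_le`, `dyx_ge`, `dyx_anti` : dyadic widths.
* `AdmR` : the interface to the (restricted) class of test sets.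
* `boxIn_of` : the field `BoxIn` (464) for the light chart.
-/

set_option autoImplicit false

open Finset Filter Topology

namespace Crest.Agent.R116.Gd222

open Crest.Agent.R138.Defs (E2)
open Crest.Agent.R116.CDef480 (E3 lat pt)
open Crest.Agent.R116.LZg725
open Crest.Agent.R116.ChL222

/-! ### geometry -/

theorem box_geo {i j : LInc} {s0 ρ K c c' sg s1 : ℝ} (hρ : 0 < ρ) (hc : 0 < c) (hc' : 0 < c')
    (hK : 1 ≤ K) (hb : 1 / 2 ≤ ‖vb i‖) (hz : |s0 - i.z| ≤ 2 * ρ)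
    (h3 : |coL i j 3| ≤ K * c) (h4 : |coL i j 4| ≤ K * c)
    (h5 : |coL i j 5| ≤ K * (c * ρ)) (h6 : |coL i j 6| ≤ K * (c * ρ))
    (h9 : |coL i j 9| ≤ K * (c ^ 2 * ρ))
    (h10 : |coL i j 10| ≤ K * c') (h11 : |coL i j 11| ≤ K * (c' * ρ))
    (hsg : 8 * K * c ≤ sg) (hs1 : 8 * K * c' ≤ s1) :
    rayL j ∈ Mem.rays 0 (memL i s0 ρ sg s1) := by
  have hKc : 0 < K * c := by positivity
  have hKc' : 0 < K * c' := by positivity
  refine box_memL (kC := K * c) (kX := K * (c * ρ)) (kN := K * (c ^ 2 * ρ)) (kP := K * c')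
    (kF := K * (c' * ρ)) (D := 2 * ρ) (by linarith) hρ.le hz h3 h4 h5 h6 h9 h10 h11 ?_ ?_ ?_ ?_
  · linarith
  · have : 8 * K * c * ρ ≤ sg * ρ := mul_le_mul_of_nonneg_right hsg hρ.le
    nlinarith
  · have h1 : sg ^ 2 ≤ max (sg ^ 2) (0 / ρ) := le_max_left _ _
    have h2 : (8 * K * c) ^ 2 ≤ sg ^ 2 := by
      have : 0 ≤ 8 * K * c := by positivity
      exact pow_le_pow_left₀ this hsg 2
    have h3 : (8 * K * c) ^ 2 * ρ ≤ max (sg ^ 2) (0 / ρ) * ρ :=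
      mul_le_mul_of_nonneg_right (h2.trans h1) hρ.le
    have h4 : K * (c ^ 2 * ρ) ≤ K ^ 2 * (c ^ 2 * ρ) := by
      have : K * 1 ≤ K * K := mul_le_mul_of_nonneg_left hK (by linarith)
      have h5 : 0 ≤ c ^ 2 * ρ := by positivity
      nlinarith
    have h6 : 0 ≤ K ^ 2 * (c ^ 2 * ρ) := by positivity
    nlinarith
  · have h1 : 8 * K * c' * ρ ≤ s1 * ρ := mul_le_mul_of_nonneg_right hs1 hρ.le
    have h2 : 0 ≤ s1 * ρ := le_trans (by positivity) h1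
    have h3 : s1 * ρ * (1 / 2) ≤ s1 * ρ * ‖vb i‖ := mul_le_mul_of_nonneg_left hb h2
    nlinarith

theorem box_ok {i : LInc} {s0 ρ sg s1 M : ℝ} (hρ : 0 < ρ) (hs1 : 0 < s1) (hsg : s1 ≤ sg)
    (hb : 1 / 2 ≤ ‖vb i‖) (hM : 0 ≤ M) (hz : |s0 - i.z| ≤ 2 * ρ) (he : |i.et| * sg ≤ M / 4)
    (hd : |i.d| * ρ * sg ≤ M / 24) : (memL i s0 ρ sg s1).Ok M 0 := by
  have hsg0 : 0 < sg := hs1.trans_le hsg
  refine memL_ok hρ hs1 hsg (by linarith) hM fun s hs => ?_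
  have e : max (sg ^ 2) (0 / ρ) = sg ^ 2 := by
    rw [zero_div, max_eq_left (by positivity)]
  rw [e]
  have h1 : |s - i.z| ≤ 3 * ρ := by
    have : s - i.z = (s - s0) + (s0 - i.z) := by ring
    rw [this]
    exact (abs_add_le _ _).trans (by linarith)
  have h2 : |i.et - 2 * i.d * (s - i.z)| ≤ |i.et| + 2 * |i.d| * (3 * ρ) := by
    refine (abs_sub _ _).trans ?_
    rw [abs_mul, abs_mul, abs_two]
    have : 0 ≤ 2 * |i.d| := by positivity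
    have := mul_le_mul_of_nonneg_left h1 this
    linarith
  have h3 : |i.et - 2 * i.d * (s - i.z)| * sg ≤ M / 2 := by
    have := mul_le_mul_of_nonneg_right h2 hsg0.le
    nlinarith
  have h4 : |i.et - 2 * i.d * (s - i.z)| * sg ^ 2 ≤ M / 2 * sg := by
    have := mul_le_mul_of_nonneg_right h3 hsg0.le
    nlinarith
  refine h4.trans ?_
  have : 0 ≤ M * sg := by positivity
  nlinarith

/-- the incidence with the linear flag -/
def lin (i : LInc) : LInc := { i with et := 0, d := 0 }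

theorem lin_ok {i : LInc} {s0 ρ sg s1 M : ℝ} (hρ : 0 < ρ) (hs1 : 0 < s1) (hsg : s1 ≤ sg)
    (hb : 1 / 2 ≤ ‖vb i‖) (hM : 0 ≤ M) : (memL (lin i) s0 ρ sg s1).Ok M 0 := by
  have hsg0 : 0 < sg := hs1.trans_le hsg
  have hb' : vb (lin i) = vb i := rfl
  refine memL_ok hρ hs1 hsg (by rw [hb']; linarith) hM fun s _ => ?_
  have : (lin i).et - 2 * (lin i).d * (s - (lin i).z) = 0 := by
    unfold lin
    simp
  rw [this, abs_zero, zero_mul, hb']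
  positivity

/-! ### dyadic widths -/

/-- the dyadic exponent of the width `x` -/
noncomputable def dyx (x : ℝ) : ℕ := ⌊Real.logb 2 x⁻¹⌋₊

theorem dyx_le {x : ℝ} (h0 : 0 < x) (h1 : x ≤ 1) : x ≤ (1 / 2 : ℝ) ^ dyx x := by
  have hx : 1 ≤ x⁻¹ := (one_le_inv₀ h0).2 h1
  have h2 : (dyx x : ℝ) ≤ Real.logb 2 x⁻¹ :=
    Nat.floor_le (Real.logb_nonneg (by norm_num) hx)
  have h3 : (2 : ℝ) ^ (dyx x : ℝ) ≤ x⁻¹ := by
    rw [Real.le_logb_iff_rpow_le (by norm_num) (inv_pos.2 h0)] at h2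
    exact h2
  rw [Real.rpow_natCast] at h3
  rw [one_div, inv_pow]
  exact (le_inv_comm₀ (by positivity) h0).1 h3

theorem dyx_ge {x : ℝ} (h0 : 0 < x) : (1 / 2 : ℝ) ^ dyx x ≤ 2 * x := by
  have h2 : Real.logb 2 x⁻¹ < (dyx x : ℝ) + 1 := Nat.lt_floor_add_one _
  have h3 : x⁻¹ < (2 : ℝ) ^ ((dyx x : ℝ) + 1) := by
    rw [Real.logb_lt_iff_lt_rpow (by norm_num) (inv_pos.2 h0)] at h2
    exact h2
  rw [Real.rpow_add (by norm_num), Real.rpow_one, Real.rpow_natCast] at h3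
  rw [one_div, inv_pow]
  have h4 : (0 : ℝ) < 2 ^ dyx x := by positivity
  rw [inv_le_iff_one_le_mul₀ h4]
  have h5 : x⁻¹ * x = 1 := inv_mul_cancel₀ h0.ne'
  nlinarith

theorem dyx_anti {x y : ℝ} (h0 : 0 < x) (h : x ≤ y) : dyx y ≤ dyx x := by
  unfold dyx
  refine Nat.floor_le_floor ?_
  refine Real.logb_le_logb_of_le (by norm_num) (inv_pos.2 (h0.trans_le h)) ?_
  exact (inv_le_inv₀ (h0.trans_le h) h0).2 h

/-! ### values -/

open Crest.Agent.R138.Mk163 (zc zl rho alive)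

/-- value of a test set: `W³ a / ρ · (W/ρ)^(q 0) (a/ρ)^(q 1)`. -/
noncomputable def valL (q : Fin 2 → ℝ) (i : ℕ) (a : Fin 2 → ℕ) : ℝ :=
  (1 / 2 : ℝ) ^ a 1 * ((1 / 2 : ℝ) ^ a 0) ^ 3 / rho i *
    (((1 / 2 : ℝ) ^ a 0 / rho i) ^ q 0 * ((1 / 2 : ℝ) ^ a 1 / rho i) ^ q 1)

theorem rho_pos (i : ℕ) : 0 < rho i := by unfold rho; positivity

/-- bridge to the capacity of 794's `TS` with `vol i a = 2^(-(3 a0 + a1)) 2^i`. -/
theorem valL_eq (q : Fin 2 → ℝ) (i : ℕ) (a : Fin 2 → ℕ) : valL q i a =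
    ((1 / 2 : ℝ) ^ (3 * a 0 + a 1) * 2 ^ i) *
      (2 : ℝ) ^ (-(∑ j, q j * ((a j : ℝ) - i))) := by
  have key : ∀ (n : ℕ) (r : ℝ), ((1 / 2 : ℝ) ^ n / rho i) ^ r = (2 : ℝ) ^ (-(r * ((n : ℝ) - i))) := by
    intro n r
    have : (1 / 2 : ℝ) ^ n / rho i = (2 : ℝ) ^ (-((n : ℝ) - i)) := by
      unfold rho
      rw [neg_sub, Real.rpow_sub (by norm_num), Real.rpow_natCast, Real.rpow_natCast]
      rw [one_div_pow]
      field_simp
    rw [this, ← Real.rpow_mul (by norm_num)]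
    congr 1; ring
  unfold valL
  rw [key, key, ← Real.rpow_add (by norm_num), Fin.sum_univ_two, pow_add, pow_mul']
  unfold rho
  rw [show -(q 0 * ((a 0 : ℝ) - i)) + -(q 1 * ((a 1 : ℝ) - i)) =
    -(q 0 * ((a 0 : ℝ) - i) + q 1 * ((a 1 : ℝ) - i)) by ring]
  rw [div_div_eq_mul_div, div_one]
  ring

theorem valL_le {q : Fin 2 → ℝ} (hq : ∀ j, 0 ≤ q j) {i : ℕ} {a : Fin 2 → ℕ} {A c c' : ℝ}
    (hA : 0 < A) (hc : 0 < c) (hc' : 0 < c') (h0 : (1 / 2 : ℝ) ^ a 0 ≤ A * (c * rho i))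
    (h1 : (1 / 2 : ℝ) ^ a 1 ≤ A * (c' * rho i)) :
    valL q i a ≤ A ^ (4 + q 0 + q 1) * (c ^ (3 + q 0) * c' ^ (1 + q 1) * rho i ^ 3) := by
  have hρ := rho_pos i
  have p0 : (0 : ℝ) < (1 / 2 : ℝ) ^ a 0 := by positivity
  have p1 : (0 : ℝ) < (1 / 2 : ℝ) ^ a 1 := by positivity
  have e0 : (1 / 2 : ℝ) ^ a 0 / rho i ≤ A * c := by
    rw [div_le_iff₀ hρ]; linarith
  have e1 : (1 / 2 : ℝ) ^ a 1 / rho i ≤ A * c' := by
    rw [div_le_iff₀ hρ]; linarith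
  have b0 : ((1 / 2 : ℝ) ^ a 0 / rho i) ^ q 0 ≤ (A * c) ^ q 0 :=
    Real.rpow_le_rpow (by positivity) e0 (hq 0)
  have b1 : ((1 / 2 : ℝ) ^ a 1 / rho i) ^ q 1 ≤ (A * c') ^ q 1 :=
    Real.rpow_le_rpow (by positivity) e1 (hq 1)
  have b2 : (1 / 2 : ℝ) ^ a 1 * ((1 / 2 : ℝ) ^ a 0) ^ 3 / rho i ≤
      (A * (c' * rho i)) * (A * (c * rho i)) ^ 3 / rho i := by
    refine div_le_div_of_nonneg_right ?_ hρ.le
    exact mul_le_mul h1 (pow_le_pow_left₀ p0.le h0 3) (by positivity) (by positivity)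
  have b3 : valL q i a ≤ (A * (c' * rho i)) * (A * (c * rho i)) ^ 3 / rho i *
      ((A * c) ^ q 0 * (A * c') ^ q 1) := by
    unfold valL
    refine mul_le_mul b2 (mul_le_mul b0 b1 (by positivity) (by positivity)) (by positivity)
      (by positivity)
  refine b3.trans (le_of_eq ?_)
  rw [Real.mul_rpow hA.le hc.le, Real.mul_rpow hA.le hc'.le, Real.rpow_add hA, Real.rpow_add hA,
    Real.rpow_add hc, Real.rpow_add hc', Real.rpow_one]
  have h4 : A ^ (4 : ℝ) = A ^ 4 := by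
    rw [← Real.rpow_natCast]; norm_num
  have h3 : c ^ (3 : ℝ) = c ^ 3 := by
    rw [← Real.rpow_natCast]; norm_num
  rw [h4, h3]
  field_simp

end Crest.Agent.R116.Gd222
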