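import Crest.Agent.R116.Gd3_222
import Crest.Agent.R116.PL2_504
import Crest.Agent.R116.KIDef_439

/-!
# R116, GEO-D of the light-ray chart (helper222), part 4: the field `gD` in the literals of
504 (`PL504.coN`), 468 (`N0 n = A n * vm n 0 * d^(-(1-s))`) and 439 (`KI439.TSL`)

* `sN` : relative widths of the marks of level `1` (positive part), `coN_eq`.
* `vm_eq`, `VL_le` : the size of the marks of level `0` in terms of the widths.
* `DT`, `gD_T` : the field `gD`.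
* `AdmR_of` : `AdmR` from the class `TSL` with a range condition on the dyadic widths.
-/

set_option autoImplicit false

open Finset Filter Topology

namespace Crest.Agent.R116.Gd222

open Crest.Agent.R138.Defs (E2)
open Crest.Agent.R138.Ex926 (Base U QProf)
open Crest.Agent.R138.Mk163 (zc zl rho alive)
open Crest.Agent.R138
open Crest.Agent.R136.MkA627
open Crest.Agent.R136.Net191
open Crest.Agent.R136.PqG464
open Crest.Agent.R116.LZg725
open Crest.Agent.R116.ChL222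
open Crest.Agent.R116.PL504 (uL eL rL ps ps_pos ps_eq ev_ang)
open Crest.Agent.R116.Xa794 (TS)
open Crest.Agent.R116.KI439

/-- relative widths of the marks of level `1` -/
noncomputable def sN (lev : ℕ → ℚ → ℕ) (w : Fin 2 → ℕ → ℚ → ℝ) (j : Fin 2) (n : ℕ) : ℝ :=
  ps (w j n 1 / rho (lev n 1))

theorem sN_pos (lev : ℕ → ℚ → ℕ) (w : Fin 2 → ℕ → ℚ → ℝ) (j : Fin 2) (n : ℕ) : 0 < sN lev w j n :=
  ps_pos _

theorem coN_eq (B : Base) (lev : ℕ → ℚ → ℕ) (w : Fin 2 → ℕ → ℚ → ℝ) (w0 sa sb : ℝ)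
    (fl : ℕ → ℕ × ℝ → LInc) :
    coN B lev fl (sN lev w) w0 sa sb = PL504.coN B lev w w0 sa sb fl := rfl

section mk

variable {B : Base} {I : ℕ → Finset (ℕ × ℝ)} {G : Geo TSet (Fin 2)} {lev : ℕ → ℚ → ℕ}
    {A : ℕ → ℝ} {g s : ℝ} {θ : Fin 2 → ℝ} {f : ℕ → ℚ → ℕ → ℤ → ℕ} {b : ℕ → ℚ → ℕ → TSet}
    {vm : ℕ → ℚ → ℝ} {w : Fin 2 → ℕ → ℚ → ℝ} {q : Fin 2 → ℝ}

/-- the value as a function of the widths -/
noncomputable def valX (q : Fin 2 → ℝ) (ρ : ℝ) (x : Fin 2 → ℝ) : ℝ :=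
  x 1 * x 0 ^ 3 / ρ * ((x 0 / ρ) ^ q 0 * (x 1 / ρ) ^ q 1)

/-- the size of the marks -/
theorem vm_eq {τ : Fin 2 → ℝ → ℝ}
    (hM : MkA B I G lev A (fun v => g * v) (fun v => s * v) τ f b vm w)
    (hval : ∀ n i J (t : TSet), G.val n i J t = valL q i t.1)
    (hwid : ∀ j (t : TSet), G.wid j t = (1 / 2 : ℝ) ^ t.1 j) {v : ℚ} (h0 : 0 ≤ v) (h1 : v ≤ 1) :
    ∀ᶠ n in (U : Filter ℕ), vm n v = valX q (rho (lev n v)) (fun j => w j n v) := by
  filter_upwards [hM.ne, hM.mark v h0 h1] with n hne hm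
  obtain ⟨x, hx⟩ := hne
  have hal : x.1 ∈ alive (I n) (lev n v) (zc (lev n v) x.2) :=
    MkRef627.mem_alive.2 ⟨x, hx, rfl, rfl⟩
  obtain ⟨-, -, h3, h4⟩ := hm _ _ hal
  rw [← h3, hval]
  unfold valL valX
  simp only [← h4, hwid]

/-- units of level `1` against the marks of level `0` -/
theorem VL_le (hM : MkA B I G lev A (fun v => g * v) (fun v => s * v) (fun j v => θ j * (1 - v))
    f b vm w) (hq : ∀ j, 0 ≤ q j)
    (hval : ∀ n i J (t : TSet), G.val n i J t = valL q i t.1)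
    (hwid : ∀ j (t : TSet), G.wid j t = (1 / 2 : ℝ) ^ t.1 j) {ε : ℝ} (hε : 0 < ε) :
    ∀ᶠ n in (U : Filter ℕ), VL (sN lev w) q lev n ≤
      vm n 0 * B.d n ^ (-((3 + q 0) * θ 0 + (1 + q 1) * θ 1) - ε) := by
  have hQ : 0 < 4 + q 0 + q 1 := by linarith [hq 0, hq 1]
  set t : ℝ := ε / (4 + q 0 + q 1) with ht
  have htp : 0 < t := by positivity
  have htQ : t * (4 + q 0 + q 1) = ε := by rw [ht]; field_simp
  filter_upwards [vm_eq hM hval hwid le_rfl zero_le_one, ev_ang hM 0 le_rfl zero_le_one htp,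
    ev_ang hM 1 le_rfl zero_le_one htp, hM.wpos 0 0 le_rfl zero_le_one,
    hM.wpos 1 0 le_rfl zero_le_one] with n e a0 a1 p0 p1
  rw [Rat.cast_zero, sub_zero, mul_one] at a0 a1
  have r0 := rho_pos (lev n 0)
  have dp := fun a => Dp76.dpow_pos B n a
  have s0 := sN_pos lev w 0 n
  have s1 := sN_pos lev w 1 n
  have key : ∀ j : Fin 2, 0 < w j n 0 →
      B.d n ^ (θ j + t) ≤ w j n 0 / rho (lev n 0) / ps (w j n 1 / rho (lev n 1)) →
      sN lev w j n ≤ (w j n 0 / rho (lev n 0)) * B.d n ^ (-(θ j + t)) := by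
    intro j hj h
    have hs := sN_pos lev w j n
    rw [show ps (w j n 1 / rho (lev n 1)) = sN lev w j n from rfl, le_div_iff₀ hs] at h
    rw [Real.rpow_neg (B.pos n).le, ← div_eq_mul_inv, le_div_iff₀ (dp _)]
    linarith
  have k0 := key 0 p0 a0.1
  have k1 := key 1 p1 a1.1
  have hq0 := hq 0
  have hq1 := hq 1
  have b0 := Real.rpow_le_rpow s0.le k0 (show 0 ≤ 3 + q 0 by linarith)
  have b1 := Real.rpow_le_rpow s1.le k1 (show 0 ≤ 1 + q 1 by linarith)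
  have c0 : 0 < w 0 n 0 / rho (lev n 0) := by positivity
  have c1 : 0 < w 1 n 0 / rho (lev n 0) := by positivity
  rw [Real.mul_rpow c0.le (dp _).le, ← Real.rpow_mul (B.pos n).le] at b0
  rw [Real.mul_rpow c1.le (dp _).le, ← Real.rpow_mul (B.pos n).le] at b1
  have hvx : vm n 0 = (w 0 n 0 / rho (lev n 0)) ^ (3 + q 0) * (w 1 n 0 / rho (lev n 0)) ^ (1 + q 1) *
      rho (lev n 0) ^ 3 := by
    rw [e]
    unfold valX
    rw [Real.rpow_add c0, Real.rpow_add c1, Real.rpow_one]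
    have h3 : (w 0 n 0 / rho (lev n 0)) ^ (3 : ℝ) = (w 0 n 0 / rho (lev n 0)) ^ 3 := by
      rw [← Real.rpow_natCast]; norm_num
    rw [h3]
    field_simp
  have hb0 : 0 ≤ sN lev w 0 n ^ (3 + q 0) := Real.rpow_nonneg s0.le _
  have hb1 : 0 ≤ sN lev w 1 n ^ (1 + q 1) := Real.rpow_nonneg s1.le _
  calc VL (sN lev w) q lev n
      = sN lev w 0 n ^ (3 + q 0) * sN lev w 1 n ^ (1 + q 1) * rho (lev n 0) ^ 3 := rfl
    _ ≤ ((w 0 n 0 / rho (lev n 0)) ^ (3 + q 0) * B.d n ^ (-(θ 0 + t) * (3 + q 0))) *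
          ((w 1 n 0 / rho (lev n 0)) ^ (1 + q 1) * B.d n ^ (-(θ 1 + t) * (1 + q 1))) *
          rho (lev n 0) ^ 3 := by
        refine mul_le_mul_of_nonneg_right (mul_le_mul b0 b1 hb1 (hb0.trans b0)) (by positivity)
    _ = vm n 0 * B.d n ^ (-((3 + q 0) * θ 0 + (1 + q 1) * θ 1) - ε) := by
        rw [hvx, show -((3 + q 0) * θ 0 + (1 + q 1) * θ 1) - ε =
          -(θ 0 + t) * (3 + q 0) + -(θ 1 + t) * (1 + q 1) by rw [← htQ]; ring, Dp76.dpow_add]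
        ring

/-- the exponents of the D-max hypothesis, in the unit of the marks of level `0` -/
def DT (g s : ℝ) (q θ : Fin 2 → ℝ) (w0 sa sb : ℝ) (p : Fin 12 → ℝ) : ℝ :=
  (g - (1 - s)) * (p 0 - w0) -
    (3 * (p 0 - w0) + (3 + q 0) * (p 3 - sa - θ 0) + (1 + q 1) * (p 10 - sb - θ 1))

theorem DT_eq (g s : ℝ) (q θ : Fin 2 → ℝ) (w0 sa sb : ℝ) (p : Fin 12 → ℝ) :
    DT g s q θ w0 sa sb p = DL g s q w0 sa sb p + ((3 + q 0) * θ 0 + (1 + q 1) * θ 1) := by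
  unfold DT DL FL
  ring

/-- on the record path -/
theorem DT_rL (g s : ℝ) (q θ : Fin 2 → ℝ) (w0 sa sb v : ℝ) :
    DT g s q θ w0 sa sb (rL (θ 0) (θ 1) w0 sa sb v) =
      (g - (1 - s)) * v - (3 - (3 + q 0) * θ 0 - (1 + q 1) * θ 1) * v := by
  have e0 : rL (θ 0) (θ 1) w0 sa sb v 0 = w0 + v := rfl
  have e3 : rL (θ 0) (θ 1) w0 sa sb v 3 = θ 0 * (1 - v) + sa := rfl
  have e10 : rL (θ 0) (θ 1) w0 sa sb v 10 = θ 1 * (1 - v) + sb := rfl
  unfold DT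
  rw [e0, e3, e10]
  ring

variable {fl : ℕ → ℕ × ℝ → LInc} {M0 c0 Rg ϑ : ℝ}

open Classical in
/-- **the field `gD` of `PreQ` in 504's and 468's literals** -/
theorem gD_T (hM : MkA B I G lev A (fun v => g * v) (fun v => s * v) (fun j v => θ j * (1 - v))
    f b vm w) (h : LData B I G lev fl (sN lev w) q M0 c0 Rg ϑ)
    (hwid : ∀ j (t : TSet), G.wid j t = (1 / 2 : ℝ) ^ t.1 j) {k0 : ℝ}
    (hk : ∀ ε : ℝ, 0 < ε → ∀ᶠ n in (U : Filter ℕ),
      sN lev w 1 n ≤ sN lev w 0 n * B.d n ^ (k0 - ε)) (w0 sa sb R : ℝ) :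
    ∀ p ∈ PDL w0 sa sb Rg ϑ k0 R, ∀ K : ℝ, 1 ≤ K → ∀ ε : ℝ, 0 < ε →
      ∀ᶠ n in (U : Filter ℕ), ∀ x ∈ I n,
      (((I n).filter fun y => Near (PL504.coN B lev w w0 sa sb fl n) (B.d n) p K x y).card : ℝ) ≤
        (A n * vm n 0 * B.d n ^ (-(1 - s))) * B.d n ^ (-(DT g s q θ w0 sa sb p + ε)) := by
  intro p hp K hK ε hε
  filter_upwards [gD_L hM h hk w0 sa sb R p hp K hK (ε / 2) (by linarith),
    VL_le hM h.qp h.val hwid (show 0 < ε / 2 by linarith)] with n h1 h2 x hx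
  have h3 := h1 x hx
  rw [coN_eq] at h3
  refine h3.trans ?_
  have hA := (hM.Apos n).le
  have dp := fun a => Dp76.dpow_pos B n a
  calc (A n * VL (sN lev w) q lev n * B.d n ^ (-(1 - s))) *
        B.d n ^ (-(DL g s q w0 sa sb p + ε / 2))
      ≤ (A n * (vm n 0 * B.d n ^ (-((3 + q 0) * θ 0 + (1 + q 1) * θ 1) - ε / 2)) *
          B.d n ^ (-(1 - s))) * B.d n ^ (-(DL g s q w0 sa sb p + ε / 2)) := by
        refine mul_le_mul_of_nonneg_right (mul_le_mul_of_nonneg_right ?_ (dp _).le) (dp _).le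
        exact mul_le_mul_of_nonneg_left h2 hA
    _ = (A n * vm n 0 * B.d n ^ (-(1 - s))) * B.d n ^ (-(DT g s q θ w0 sa sb p + ε)) := by
        rw [DT_eq, show -(DL g s q w0 sa sb p + ((3 + q 0) * θ 0 + (1 + q 1) * θ 1) + ε) =
          (-((3 + q 0) * θ 0 + (1 + q 1) * θ 1) - ε / 2) + -(DL g s q w0 sa sb p + ε / 2) by ring,
          Dp76.dpow_add B n (-((3 + q 0) * θ 0 + (1 + q 1) * θ 1) - ε / 2)]
        ring

end mk

/-! ### the interface from `TSL` -/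

section adm

variable {B : Base} {G : Geo TSet (Fin 2)} {lev : ℕ → ℚ → ℕ} {σ : Fin 2 → ℕ → ℝ}

theorem rho_half (i : ℕ) : rho i = (1 / 2 : ℝ) ^ i := by
  unfold rho; rw [one_div_pow]

/-- **`AdmR` from `TSL`** with a range condition `rg n i a` on the dyadic widths. -/
theorem AdmR_of {r : ℕ → ℝ} {rg : ℕ → ℕ → (Fin 2 → ℕ) → Prop}
    (hG : ∀ n i J (a : Fin 2 → ℕ) (m : Mem), AdmL (r n) i J a m → rg n i a → G.adm n i J (a, m))
    {Rg : ℝ}
    (hres : ∀ u : ℚ, 0 ≤ u → u ≤ 1 → ∀ᶠ n in (U : Filter ℕ),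
      r n ≤ B.d n ^ Rg * σ 1 n * rho (lev n u))
    (hrg : ∀ u : ℚ, 0 ≤ u → u ≤ 1 → ∀ᶠ n in (U : Filter ℕ), ∀ a : Fin 2 → ℕ,
      (∀ j, B.d n ^ Rg * σ j n * rho (lev n u) ≤ (1 / 2 : ℝ) ^ a j ∧
        (1 / 2 : ℝ) ^ a j ≤ B.d n ^ (-Rg) * σ j n * rho (lev n u)) → rg n (lev n u) a) :
    AdmR B G lev σ (2 * kD) 1 Rg := by
  intro u hu0 hu1
  filter_upwards [hres u hu0 hu1, hrg u hu0 hu1] with n h1 h2 J a m hok hR hs0 hsg e0 e1 l1 l2 l3 l4
  have hρ := rho_pos (lev n u)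
  have hs : 0 < m.sg := hok.hs1.trans_le hok.hsg
  have hRp := hok.hR
  have hT : m.T 0 = m.sg ^ 2 := by
    unfold Mem.T
    rw [zero_div]
    exact max_eq_left (sq_nonneg _)
  have hny : ∀ z, |z - m.s0| ≤ m.R → |m.phi.ny z| * m.sg ≤ 2 * kD := by
    intro z hz
    have h3 := hok.adm.ny z hz
    rw [hT] at h3
    have e : |m.phi.ny z| * m.sg ^ 2 = (|m.phi.ny z| * m.sg) * m.sg := by ring
    rw [e] at h3
    exact le_of_mul_le_mul_right h3 hs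
  have hdd : |m.phi.d| * (m.sg * m.R) ≤ kD := by
    have h3 := d_le_of_ny (T := m.T 0) hRp.le (by rw [hT]; positivity) hok.adm.ny
    rw [hT] at h3
    have e : 2 * |m.phi.d| * (m.sg ^ 2 * m.R) = (2 * |m.phi.d| * (m.sg * m.R)) * m.sg := by ring
    rw [e] at h3
    have h4 := le_of_mul_le_mul_right h3 hs
    linarith
  have hok' : m.Ok kM0 0 := by
    have hM : 2 * kD ≤ kM0 := by unfold kD kM0; norm_num
    refine ⟨hok.hR, hok.hs1, hok.hsg, hok.adm.disc, fun z hz => ?_, ?_, ?_⟩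
    · exact (hok.adm.ny z hz).trans (mul_le_mul_of_nonneg_right hM hs.le)
    · exact hok.adm.ld.trans (mul_le_mul_of_nonneg_right hM hs.le)
    · exact hok.adm.ev.trans
        (mul_le_mul_of_nonneg_right (mul_le_mul_of_nonneg_right hM hs.le) hRp.le)
  refine hG n _ J a m ⟨hok', by rw [hR, rho_half], by rw [hs0, rho_half], hsg, e0, e1, ?_, hdd,
    hny _ (by rw [sub_self, abs_zero]; exact hRp.le)⟩ (h2 a ?_)
  · refine h1.trans ?_
    rw [hR]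
    exact mul_le_mul_of_nonneg_right l3 hρ.le
  · intro j
    fin_cases j
    · show _ ≤ (1 / 2 : ℝ) ^ a 0 ∧ (1 / 2 : ℝ) ^ a 0 ≤ _
      rw [← e0, hR]
      exact ⟨mul_le_mul_of_nonneg_right l1 hρ.le, mul_le_mul_of_nonneg_right l2 hρ.le⟩
    · show _ ≤ (1 / 2 : ℝ) ^ a 1 ∧ (1 / 2 : ℝ) ^ a 1 ≤ _
      rw [← e1, hR]
      exact ⟨mul_le_mul_of_nonneg_right l3 hρ.le, mul_le_mul_of_nonneg_right l4 hρ.le⟩

/-- the capacity of 794's class is `valL` -/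
theorem cap_eq (r : ℝ) (q : Fin 2 → ℝ) (i : ℕ) (a : Fin 2 → ℕ) : (TSL r).cap q i a = valL q i a := by
  rw [valL_eq]; rfl

end adm

end Crest.Agent.R116.Gd222
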