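import Crest.Agent.R116.Gd4_222
import Crest.Agent.R116.KF2_439

/-!
# R116, GEO-D of the light-ray chart (helper222), part 5: [D-FLAT] and the assembly of `LData`

* `spread` : every line has two incidences at distance `> rho (lev n u)`, `u > 0` (own profile, `s < 1`).
* `dflat` : if the slot `E` of the flags is `≤ d^(-ε) / σ` and the flags of one line agree in the slot
  `E` up to `d^(-ε) / σ`, then `|d| σ rho(0) ≤ d^(-ε)`.
* `own_thin` : the second hypothesis from `TSys` and `Thin`.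
* `LData_of` : the interface `LData` from 439's `IsL`.
-/

set_option autoImplicit false

open Finset Filter Topology

namespace Crest.Agent.R116.Gd222

open Crest.Agent.R138.Defs (E2)
open Crest.Agent.R138.Ex926 (Base U QProf)
open Crest.Agent.R138.Mk163 (zc zl rho alive)
open Crest.Agent.R138.MkRef627 (lc kc)
open Crest.Agent.R138
open Crest.Agent.R136.MkA627
open Crest.Agent.R136.TD627
open Crest.Agent.R136.Net191
open Crest.Agent.R136.PqG464
open Crest.Agent.R116.LZg725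
open Crest.Agent.R116.ChL222
open Crest.Agent.R116.PL504 (uL eL rL ps ps_pos ps_eq ev_ang prN βL)
open Crest.Agent.R116.KI439
open Crest.Agent.R116.KF439 (IsL ValL Thin Thick)

section spread

variable {σ κ : Type*} {B : Base} {I : ℕ → Finset (ℕ × ℝ)} {G : Geo σ κ} {lev : ℕ → ℚ → ℕ}
    {A : ℕ → ℝ} {c : ℝ → ℝ} {s : ℝ} {τ : κ → ℝ → ℝ} {f : ℕ → ℚ → ℕ → ℤ → ℕ} {b : ℕ → ℚ → ℕ → σ}
    {vm : ℕ → ℚ → ℝ} {w : κ → ℕ → ℚ → ℝ}

/-- **the incidences of a line are spread over the cell of level `0`.** -/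
theorem spread (hM : MkA B I G lev A c (fun v => s * v) τ f b vm w) (hs : s < 1) {u : ℚ}
    (hu0 : 0 < u) (hu1 : u ≤ 1) : ∀ᶠ n in (U : Filter ℕ), ∀ x ∈ I n, ∃ y ∈ I n, y.1 = x.1 ∧
      rho (lev n u) < |y.2 - x.2| := by
  classical
  have hu0' : (0 : ℝ) < u := by exact_mod_cast hu0
  set ε : ℝ := (1 - s) * u / 4 with hε
  have hεp : 0 < ε := by
    have : 0 < 1 - s := by linarith
    positivity
  have hF0 := fib_bounds hM 0 le_rfl zero_le_one hεp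
  have hFu := fib_bounds hM u hu0.le hu1 hεp
  have hC := ev_const B (c := 4) (by norm_num) (show 0 < 2 * ε by linarith)
  filter_upwards [hF0, hFu, hC] with n f0 fu hc x hx
  by_contra hcon
  push Not at hcon
  have h1 := (f0 x hx).1
  rw [Rat.cast_zero] at h1
  set S := (I n).filter fun y => lc (lev n 0) y = lc (lev n 0) x with hS
  set J0 := zc (lev n u) x.2 with hJ0
  have dp := fun a => Dp76.dpow_pos B n a
  have hmem : ∀ y ∈ S, zc (lev n u) y.2 ∈ Finset.Icc (J0 - 1) (J0 + 1) := by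
    intro y hy
    rw [hS, mem_filter] at hy
    have hy1 : y.1 = x.1 := (Prod.ext_iff.1 hy.2).1
    have h2 := hcon y hy.1 hy1
    refine zc_near ?_
    rw [pow2_eq]
    have := Gd222.rho_pos (lev n u)
    rw [← div_eq_mul_inv, div_le_one this]
    exact h2
  have hone : ∀ J : ℤ, ((S.filter fun y => zc (lev n u) y.2 = J).card : ℝ) ≤
      B.d n ^ (-(1 - (u : ℝ)) + (s * 1 - s * u) - ε) := by
    intro J
    by_cases hne : (S.filter fun y => zc (lev n u) y.2 = J).Nonempty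
    · obtain ⟨y0, hy0⟩ := hne
      rw [mem_filter, hS, mem_filter] at hy0
      refine le_trans ?_ (fu y0 hy0.1.1).2
      norm_cast
      refine Finset.card_le_card fun y hy => ?_
      rw [mem_filter, hS, mem_filter] at hy
      rw [mem_filter]
      refine ⟨hy.1.1, ?_⟩
      have e1 : y.1 = x.1 := (Prod.ext_iff.1 hy.1.2).1
      have e2 : y0.1 = x.1 := (Prod.ext_iff.1 hy0.1.2).1
      unfold lc
      rw [hy.2, hy0.2, e1, e2]
    · rw [Finset.not_nonempty_iff_eq_empty] at hne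
      rw [hne, Finset.card_empty, Nat.cast_zero]
      exact (dp _).le
  have hsum : (S.card : ℝ) ≤ 3 * B.d n ^ (-(1 - (u : ℝ)) + (s * 1 - s * u) - ε) := by
    have h5 : S.card = ∑ J ∈ Finset.Icc (J0 - 1) (J0 + 1),
        (S.filter fun y => zc (lev n u) y.2 = J).card :=
      Finset.card_eq_sum_card_fiberwise fun y hy => hmem y hy
    rw [h5]
    push_cast
    refine (Finset.sum_le_sum fun J _ => hone J).trans ?_
    rw [Finset.sum_const, Int.card_Icc, nsmul_eq_mul]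
    have : ((J0 + 1 + 1 - (J0 - 1)).toNat : ℝ) = 3 := by
      have : J0 + 1 + 1 - (J0 - 1) = 3 := by ring
      rw [this]
      change ((3 : ℕ) : ℝ) = 3
      norm_num
    rw [this]
  have h6 : B.d n ^ (-(1 - (0 : ℝ)) + (s * 1 - s * 0) + ε) ≤
      3 * B.d n ^ (-(1 - (u : ℝ)) + (s * 1 - s * u) - ε) := h1.trans hsum
  have e : -(1 - (u : ℝ)) + (s * 1 - s * u) - ε =
      2 * ε + (-(1 - (0 : ℝ)) + (s * 1 - s * 0) + ε) := by
    have : 4 * ε = (1 - s) * u := by rw [hε]; ring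
    linear_combination this
  rw [e, Dp76.dpow_add B n (2 * ε)] at h6
  have hP := dp (-(1 - (0 : ℝ)) + (s * 1 - s * 0) + ε)
  have h7 : B.d n ^ (2 * ε) ≤ 1 / 4 := by linarith
  have h8 := mul_le_mul_of_nonneg_right h7 hP.le
  generalize B.d n ^ (-(1 - (0 : ℝ)) + (s * 1 - s * 0) + ε) = P at h6 h8 hP
  linarith

end spread

section dflat

variable {B : Base} {I : ℕ → Finset (ℕ × ℝ)} {G : Geo TSet (Fin 2)} {lev : ℕ → ℚ → ℕ}
    {A : ℕ → ℝ} {g s : ℝ} {τ : Fin 2 → ℝ → ℝ} {f : ℕ → ℚ → ℕ → ℤ → ℕ} {b : ℕ → ℚ → ℕ → TSet}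
    {vm : ℕ → ℚ → ℝ} {w : Fin 2 → ℕ → ℚ → ℝ} {fl : ℕ → ℕ × ℝ → LInc} {σ : ℕ → ℝ}

/-- **[D-FLAT]** -/
theorem dflat (hM : MkA B I G lev A (fun v => g * v) (fun v => s * v) τ f b vm w) (hs : s < 1)
    (hσ : ∀ n, 0 < σ n) (hz : ∀ n, ∀ x ∈ I n, (fl n x).z = x.2)
    (he : ∀ ε : ℝ, 0 < ε → ∀ᶠ n in (U : Filter ℕ), ∀ x ∈ I n, |(fl n x).et| * σ n ≤ B.d n ^ (-ε))
    (ho : ∀ ε : ℝ, 0 < ε → ∀ᶠ n in (U : Filter ℕ), ∀ x ∈ I n, ∀ y ∈ I n, y.1 = x.1 →
      |coL (fl n x) (fl n y) 2| * σ n ≤ B.d n ^ (-ε)) :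
    ∀ ε : ℝ, 0 < ε → ∀ᶠ n in (U : Filter ℕ), ∀ x ∈ I n,
      |(fl n x).d| * (σ n * rho (lev n 0)) ≤ B.d n ^ (-ε) := by
  intro ε hε
  obtain ⟨u, hu1, hu2⟩ := exists_rat_btwn (show (0 : ℝ) < min (ε / 4) 1 by positivity)
  have hu0 : (0 : ℚ) < u := by exact_mod_cast hu1
  have huε : (u : ℝ) < ε / 4 := lt_of_lt_of_le hu2 (min_le_left _ _)
  have hu1' : u ≤ 1 := by
    have : (u : ℝ) ≤ 1 := hu2.le.trans (min_le_right _ _)
    exact_mod_cast this
  have hε4 : 0 < ε / 4 := by linarith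
  filter_upwards [spread hM hs hu0 hu1', he _ hε4, ho _ hε4, pow_lev hM u hu0.le hu1' hε4,
    ev_const B (c := 2) (by norm_num) hε4] with n h1 h2 h3 h4 h5 x hx
  obtain ⟨y, hy, hyx, hd⟩ := h1 x hx
  have dp := fun a => Dp76.dpow_pos B n a
  have r0 := Gd222.rho_pos (lev n 0)
  have ru := Gd222.rho_pos (lev n u)
  have hσn := hσ n
  -- the cell of level `u` is not much shorter
  have hlo : rho (lev n 0) * B.d n ^ (ε / 2) ≤ rho (lev n u) := by
    have h6 := h4.1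
    rw [pow2_eq, pow2_eq] at h6
    have e : B.d n ^ (-((u : ℝ) + ε / 4)) = (B.d n ^ ((u : ℝ) + ε / 4))⁻¹ :=
      Real.rpow_neg (B.pos n).le _
    rw [e, ← mul_inv] at h6
    have h7 := (inv_le_inv₀ ru (mul_pos r0 (dp _))).1 h6
    refine le_trans ?_ h7
    exact mul_le_mul_of_nonneg_left (Dp76.dpow_le B n (by linarith)) r0.le
  have e2 : coL (fl n x) (fl n y) 2 =
      (fl n y).et - (fl n x).et + 2 * (fl n x).d * (y.2 - x.2) := by
    show (fl n y).et - (fl n x).et + 2 * (fl n x).d * ((fl n y).z - (fl n x).z) = _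
    rw [hz n x hx, hz n y hy]
  have h6 := h3 x hx y hy hyx
  rw [e2] at h6
  have h7 : 2 * |(fl n x).d| * |y.2 - x.2| ≤
      |(fl n y).et - (fl n x).et + 2 * (fl n x).d * (y.2 - x.2)| + |(fl n y).et| +
        |(fl n x).et| := by
    have e3 : 2 * |(fl n x).d| * |y.2 - x.2| = |2 * (fl n x).d * (y.2 - x.2)| := by
      rw [abs_mul, abs_mul, abs_two]
    rw [e3]
    have e4 : 2 * (fl n x).d * (y.2 - x.2) =
        ((fl n y).et - (fl n x).et + 2 * (fl n x).d * (y.2 - x.2)) + (-(fl n y).et) +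
          (fl n x).et := by ring
    rw [e4]
    refine (abs_add_le _ _).trans ?_
    refine add_le_add ((abs_add_le _ _).trans ?_) le_rfl
    rw [abs_neg]
    rw [← e4]
  have h8 : 2 * |(fl n x).d| * |y.2 - x.2| * σ n ≤ 3 * B.d n ^ (-(ε / 4)) := by
    have := mul_le_mul_of_nonneg_right h7 hσn.le
    have a1 := h2 x hx
    have a2 := h2 y hy
    nlinarith
  have h9 : |(fl n x).d| * (σ n * rho (lev n 0)) * B.d n ^ (ε / 2) ≤ 2 * B.d n ^ (-(ε / 4)) := by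
    have a1 : |(fl n x).d| * σ n * (rho (lev n 0) * B.d n ^ (ε / 2)) ≤
        |(fl n x).d| * σ n * |y.2 - x.2| :=
      mul_le_mul_of_nonneg_left (hlo.trans hd.le) (mul_nonneg (abs_nonneg _) hσn.le)
    have := dp (-(ε / 4))
    nlinarith
  have h10 : |(fl n x).d| * (σ n * rho (lev n 0)) ≤ 2 * B.d n ^ (-(3 * ε / 4)) := by
    have e5 : B.d n ^ (-(ε / 4)) = B.d n ^ (-(3 * ε / 4)) * B.d n ^ (ε / 2) := by
      rw [← Dp76.dpow_add]; congr 1; ring
    have h9' : |(fl n x).d| * (σ n * rho (lev n 0)) * B.d n ^ (ε / 2) ≤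
        2 * B.d n ^ (-(3 * ε / 4)) * B.d n ^ (ε / 2) := by
      rw [e5] at h9; linarith
    exact le_of_mul_le_mul_right h9' (dp _)
  refine h10.trans ?_
  have e6 : B.d n ^ (-(3 * ε / 4)) = B.d n ^ (ε / 4) * B.d n ^ (-ε) := by
    rw [← Dp76.dpow_add]; congr 1; ring
  rw [e6]
  have := mul_le_mul_of_nonneg_right h5 (dp (-ε)).le
  linarith

end dflat

/-! ### flags of one line in the slot `E`, thin marks -/

section thin

variable {P : TDist LInc 12} {B : Base} {I : ℕ → Finset (ℕ × ℝ)} {G : Geo TSet (Fin 2)}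
    {lev : ℕ → ℚ → ℕ} {A : ℕ → ℝ} {g s : ℝ} {θ : Fin 2 → ℝ} {f : ℕ → ℚ → ℕ → ℤ → ℕ}
    {b : ℕ → ℚ → ℕ → TSet} {vm : ℕ → ℚ → ℝ} {w : Fin 2 → ℕ → ℚ → ℝ}
    {fr : ℕ → ℚ → ℕ × ℝ → LInc} {pr : Fin 12 → ℕ → ℚ → ℝ} {fl : ℕ → ℕ × ℝ → LInc}
    {sc : Fin 12 → ℕ → ℝ}

/-- **the hypothesis of `dflat` from `TSys` and `Thin`.** -/
theorem own_thin (hP : ∀ k n a b, P.d k n a b = |coL a b k|)
    (h : TSys P G g s θ (βL (θ 0) (θ 1)) B I lev A f b vm w fr pr fl sc)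
    (hpr : ∀ k n v, pr k n v = prN lev w k n v) (hthin : Thin B w) :
    ∀ ε : ℝ, 0 < ε → ∀ᶠ n in (U : Filter ℕ), ∀ x ∈ I n, ∀ y ∈ I n, y.1 = x.1 →
      |coL (fl n x) (fl n y) 2| * sN lev w 0 n ≤ B.d n ^ (-ε) := by
  intro ε hε
  have hε4 : 0 < ε / 4 := by linarith
  filter_upwards [h.same_cell 2 le_rfl zero_le_one hε4, h.pr_le 2 le_rfl zero_le_one hε4,
    hthin (θ 0 + 1) 0 le_rfl zero_le_one, ev_ang h.mka 0 le_rfl zero_le_one hε4,
    h.mka.wpos 0 0 le_rfl zero_le_one, h.mka.wpos 1 0 le_rfl zero_le_one,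
    h.mka.cell0] with n h1 h2 h3 h4 p0 p1 h5 x hx y hy hyx
  have dp := fun a => Dp76.dpow_pos B n a
  have r0 := Gd222.rho_pos (lev n 0)
  have hs := sN_pos lev w 0 n
  have a1 := h1 x hx y hy hyx (h5 y hy x hx)
  rw [hP, Rat.cast_zero, mul_zero, zero_sub] at a1
  rw [Rat.cast_zero, mul_zero, zero_add, hpr] at h2
  rw [Rat.cast_zero, sub_zero, mul_one] at h4
  have e2 : prN lev w 2 n 0 = w 1 n 0 / rho (lev n 0) / (w 0 n 0 / rho (lev n 0)) ^ 2 := rfl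
  rw [e2] at h2
  set W := w 0 n 0 / rho (lev n 0) with hW
  set V := w 1 n 0 / rho (lev n 0) with hV
  have hWp : 0 < W := by positivity
  have hVp : 0 < V := by positivity
  have h6 : B.d n ^ (θ 0 + ε / 4) * sN lev w 0 n ≤ W := by
    have h7 := h4.1
    rw [show ps (w 0 n 1 / rho (lev n 1)) = sN lev w 0 n from rfl, le_div_iff₀ hs] at h7
    exact h7
  have h7 : V ≤ B.d n ^ (θ 0 + 1) * W := by
    rw [hV, hW, div_le_iff₀ r0]
    have : B.d n ^ (θ 0 + 1) * (w 0 n 0 / rho (lev n 0)) * rho (lev n 0) =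
      B.d n ^ (θ 0 + 1) * w 0 n 0 := by field_simp
    rw [this]; exact h3
  -- `V / W² * σ ≤ d^(1 - ε/4)`
  have h8 : V / W ^ 2 * sN lev w 0 n ≤ B.d n ^ (1 - ε / 4) := by
    have e3 : B.d n ^ (θ 0 + 1) = B.d n ^ (1 - ε / 4) * B.d n ^ (θ 0 + ε / 4) := by
      rw [← Dp76.dpow_add]; congr 1; ring
    rw [div_mul_eq_mul_div, div_le_iff₀ (by positivity)]
    calc V * sN lev w 0 n ≤ (B.d n ^ (θ 0 + 1) * W) * sN lev w 0 n :=
          mul_le_mul_of_nonneg_right h7 hs.le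
      _ = B.d n ^ (1 - ε / 4) * W * (B.d n ^ (θ 0 + ε / 4) * sN lev w 0 n) := by rw [e3]; ring
      _ ≤ B.d n ^ (1 - ε / 4) * W * W :=
          mul_le_mul_of_nonneg_left h6 (mul_nonneg (dp _).le hWp.le)
      _ = B.d n ^ (1 - ε / 4) * W ^ 2 := by ring
  have h9 : sc 2 n ≤ V / W ^ 2 * B.d n ^ (-(ε / 4)) := by
    have e4 : B.d n ^ (ε / 4) * B.d n ^ (-(ε / 4)) = 1 := by
      rw [← Dp76.dpow_add, add_neg_cancel, Real.rpow_zero]
    have := mul_le_mul_of_nonneg_right h2.2 (dp (-(ε / 4))).le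
    rw [mul_assoc, e4, mul_one] at this
    exact this
  calc |coL (fl n x) (fl n y) 2| * sN lev w 0 n
      ≤ (sc 2 n * B.d n ^ (-(ε / 4))) * sN lev w 0 n := mul_le_mul_of_nonneg_right a1 hs.le
    _ ≤ ((V / W ^ 2 * B.d n ^ (-(ε / 4))) * B.d n ^ (-(ε / 4))) * sN lev w 0 n := by
        refine mul_le_mul_of_nonneg_right ?_ hs.le
        exact mul_le_mul_of_nonneg_right h9 (dp _).le
    _ = (V / W ^ 2 * sN lev w 0 n) * (B.d n ^ (-(ε / 4)) * B.d n ^ (-(ε / 4))) := by ring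
    _ ≤ B.d n ^ (1 - ε / 4) * (B.d n ^ (-(ε / 4)) * B.d n ^ (-(ε / 4))) :=
        mul_le_mul_of_nonneg_right h8 (mul_pos (dp _) (dp _)).le
    _ = B.d n ^ (1 - 3 * ε / 4) := by
        rw [← Dp76.dpow_add, ← Dp76.dpow_add]; congr 1; ring
    _ ≤ B.d n ^ (-ε) := Dp76.dpow_le B n (by linarith)

end thin

/-! ### the interface -/

section data

variable {B : Base} {I : ℕ → Finset (ℕ × ℝ)} {G : Geo TSet (Fin 2)}
    {lev : ℕ → ℚ → ℕ} {A : ℕ → ℝ} {g s : ℝ} {τ : Fin 2 → ℝ → ℝ} {f : ℕ → ℚ → ℕ → ℤ → ℕ}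
    {b : ℕ → ℚ → ℕ → TSet} {vm : ℕ → ℚ → ℝ} {w : Fin 2 → ℕ → ℚ → ℝ}
    {fl : ℕ → ℕ × ℝ → LInc} {L : ℕ → ℕ → LRay} {r : ℕ → ℝ} {q : Fin 2 → ℝ}

/-- relative widths of level `1` are at most `1`. -/
theorem sN_le_one (hM : MkA B I G lev A (fun v => g * v) (fun v => s * v) τ f b vm w)
    (hG : IsL G L r) : ∀ᶠ n in (U : Filter ℕ), sN lev w 0 n ≤ 1 := by
  filter_upwards [KF439.mark_L hM hG zero_le_one le_rfl, hM.ne, hM.wpos 0 1 zero_le_one le_rfl]
    with n h1 hne hp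
  obtain ⟨x, hx⟩ := hne
  have h2 := (h1 x hx).le.2.2
  have hr := Gd222.rho_pos (lev n 1)
  unfold sN
  rw [ps_eq (div_pos hp hr), div_le_one hr]
  exact h2

/-- **the interface `LData` from 439's `IsL`.** -/
theorem LData_of (hM : MkA B I G lev A (fun v => g * v) (fun v => s * v) τ f b vm w)
    (hG : IsL G L r) (hv : ValL G q) (hq : ∀ j, 0 ≤ q j) {Rg ϑ : ℝ} (hϑ : 0 ≤ ϑ)
    (hadm : AdmR B G lev (sN lev w) (2 * kD) 1 Rg)
    (hz : ∀ n, ∀ x ∈ I n, (fl n x).z = x.2)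
    (hray : ∀ n, ∀ x ∈ I n, rayL (fl n x) = L n x.1)
    (hb : ∀ᶠ n in (U : Filter ℕ), ∀ x ∈ I n, 1 / 2 ≤ ‖vb (fl n x)‖)
    (he : ∀ ε : ℝ, 0 < ε → ∀ᶠ n in (U : Filter ℕ), ∀ x ∈ I n,
      |(fl n x).et| * sN lev w 0 n ≤ B.d n ^ (-ε))
    (hd : ∀ ε : ℝ, 0 < ε → ∀ᶠ n in (U : Filter ℕ), ∀ x ∈ I n,
      |(fl n x).d| * (sN lev w 0 n * rho (lev n 0)) ≤ B.d n ^ (-ϑ - ε)) :
    LData B I G lev fl (sN lev w) q (2 * kD) 1 Rg ϑ where
  qp := hq
  Mp := by unfold kD; norm_num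
  cp := one_pos
  σp := fun j n => sN_pos lev w j n
  mem := fun n x hx i J a m hm => by
    rw [hG.mem]
    rw [← hray n x hx]
    exact hm
  adm := hadm
  val := fun n i J t => by
    rw [hv, valL_eq]
    rfl
  hz := hz
  hb := hb
  he := he
  hd := hd
  hσ := fun ε hε => by
    filter_upwards [sN_le_one hM hG] with n hn
    exact hn.trans (Real.one_le_rpow_of_pos_of_le_one_of_nonpos (B.pos n) (B.lt n).le (by linarith))
  hW := fun ε hε => by
    filter_upwards [sN_le_one hM hG] with n hn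
    have hr := Gd222.rho_pos (lev n 0)
    have hr1 : rho (lev n 0) ≤ 1 := by
      rw [rho_half]
      exact pow_le_one₀ (by norm_num) (by norm_num)
    have h1 : sN lev w 0 n * rho (lev n 0) ≤ 1 := mul_le_one₀ hn hr.le hr1
    exact h1.trans
      (Real.one_le_rpow_of_pos_of_le_one_of_nonpos (B.pos n) (B.lt n).le (by linarith))

end data

end Crest.Agent.R116.Gd222
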