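import Crest.Agent.R116.TuL_890

/-!
# R116 (S0155), wave side: the local half of GEN / ROOT / FIN (helper126)

* `SS_le_sl` : `SS (G w k) r D ≤ Cn (r √D) enc (sl w k)` for a label of a level.
* `St.mono_b` : larger slopes.
* **`loc_A2k`** : `A2k` applied to the parent piece `L.G w k` of a level: every plate system of a finer
  level `r2` in the frame `w` is bounded by the normalised energy of the parent selection.
-/

set_option autoImplicit false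

open MeasureTheory FourierTransform
open scoped ENNReal

namespace Crest.Agent.R116.Gen126

open Crest.Agent.R138.Defs (E2 ee)
open Crest.Agent.R138.Wpk685 (cen caps)
open Crest.Agent.R116.CDef480 Crest.Agent.R116.WC188 Crest.Agent.R116.GlC210
open Crest.Agent.R116.LZg725 (Cf)

/-- enlarging the bound of the slopes. -/
theorem St_mono_b {M κ q a b b' M0 : ℝ} {C0 : E2} {σ : ℝ} {g : E3 → ℂ} {R D : ℝ}
    (h : St M κ q a b M0 C0 σ g R D) (hb : b ≤ b') : St M κ q a b' M0 C0 σ g R D :=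
  { meas := h.meas
    bdd := h.bdd
    supp := fun ζ hζ => ⟨(h.supp ζ hζ).1, (h.supp ζ hζ).2.1, (h.supp ζ hζ).2.2.1.trans hb,
      (h.supp ζ hζ).2.2.2⟩
    R1 := h.R1
    D0 := h.D0
    box := h.box
    nd := h.nd }

section lev

variable {M κ q A A' a b Cn : ℝ} {K : ℕ} {η0 : ℝ} {C0 : E2} {σ : ℝ} {g : E3 → ℂ} {R : ℝ} {L : Lev}

/-- the normalising quantity of a piece is bounded by the energy of its selection. -/
theorem SS_le_sl (h : LevOk M κ q A A' a b Cn K η0 C0 σ g R L) (hR : 1 ≤ R) {k : ℕ}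
    (hk : k < L.n) {w : E3 × ℝ} (hw : w ∈ L.Z) :
    ENNReal.ofReal (SS (L.G w k) L.r (L.D w k)) ≤ ENNReal.ofReal Cn *
      (ENNReal.ofReal (L.r * √(L.D w k)) * enc (L.r ^ (-(1/2) : ℝ)) (trc w g) (L.sl w k)) := by
  have hr := TuL890.lev_r1 h hR
  have hr0 : 0 < L.r := by linarith
  obtain ⟨cls, hd⟩ := h.dec w hw
  have hkΛ : k ∈ Finset.range L.n := Finset.mem_range.2 hk
  have he := hd.energy k hkΛ
  rw [← TuL890.enc_sl h hk hw] at he
  have e1 : SS (L.G w k) L.r (L.D w k) = (L.r * √(L.D w k)) * Enc (L.G w k) := by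
    unfold SS; ring
  rw [e1, ENNReal.ofReal_mul (by positivity)]
  calc _ ≤ ENNReal.ofReal (L.r * √(L.D w k)) * (ENNReal.ofReal Cn *
        enc (L.r ^ (-(1/2) : ℝ)) (trc w g) (L.sl w k)) := by gcongr
    _ = _ := by ring

end lev

/-- the plate value is at most `SIG`. -/
theorem val_le_SIG {M κ A r s1 s2 : ℝ} {g : E3 → ℂ} {R : ℝ} {I : Finset ℕ} {P : ℕ → Plate}
    (h : Plates M κ A r s1 s2 R I P) : val κ g r s1 s2 I P ≤ SIG M κ A r s1 s2 g R := by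
  unfold SIG
  exact le_iSup_of_le I (le_iSup_of_le P (le_iSup_of_le h le_rfl))

/-- **the local half of GEN**: `A2k` for the parent piece. -/
theorem loc_A2k {M q : ℝ} (hA2 : A2k M q) {c : ℝ} (hc : 0 ≤ c) (hLB : LB M q c) :
    ∃ K2 : ℝ, 0 ≤ K2 ∧ ∀ a b A ε : ℝ, Rg a b A ε → ∀ A' Cn : ℝ, 1 ≤ A' → 1 ≤ Cn →
    ∃ C : ℝ, 1 ≤ C ∧ ∀ (κ η0 : ℝ) (C0 : E2) (σ : ℝ) (g : E3 → ℂ) (R : ℝ), Kp a R κ → C ≤ R →
      ∀ (K : ℕ) (L : Lev), LevOk M κ q A A' a b Cn K η0 C0 σ g R L →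
      ∀ w ∈ L.Z, ∀ k < L.n, ∀ r2 s1 s2 : ℝ, R ^ (1/2 : ℝ) ≤ r2 → r2 ≤ L.r → Sd r2 s1 s2 →
      ∀ (I' : Finset ℕ) (P' : ℕ → Plate), Plates M κ A' r2 s1 s2 L.r I' P' →
      ENNReal.ofReal (s2 ^ (-q / 2)) * val κ (L.G w k) r2 s1 s2 I' P' ≤
        ENNReal.ofReal (C * L.r ^ (K2 * ε) * (max 1 (L.r / (s1 * r2) ^ 2)) ^ (c / 2)) *
        (ENNReal.ofReal (L.r * √(L.D w k)) *
          enc (L.r ^ (-(1/2) : ℝ)) (trc w g) (L.sl w k)) := by
  obtain ⟨K2, hK2, h2⟩ := hA2 c hc hLB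
  refine ⟨K2, hK2, ?_⟩
  intro a b A ε hRg A' Cn hA' hCn
  have ha := hRg.a1
  have hb := hRg.b0
  have hb2 := hRg.b2
  obtain ⟨C2, hC2, h3⟩ := h2 (2 * a) ((b + 2) / 2) A' ε 4 (by linarith) (by linarith)
    (by linarith) hA' hRg.e0
  refine ⟨C2 * Cn + (6 / (2 - b)) ^ 4 + 1, by
    have h1 : 0 ≤ C2 * Cn := by positivity
    have h4 : 0 ≤ (6 / (2 - b)) ^ 4 := by positivity
    linarith, ?_⟩
  intro κ η0 C0 σ g R hKp hCR K L hL w hw k hk r2 s1 s2 hr2 hr2L hSd I' P' hP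
  have hb4 : 0 ≤ (6 / (2 - b)) ^ 4 := by positivity
  have hCC : 0 ≤ C2 * Cn := by positivity
  have hR1 : 1 ≤ R := by linarith
  have hR0 : 0 < R := by linarith
  have hr := TuL890.lev_r1 hL hR1
  have hr0 : 0 < L.r := by linarith
  obtain ⟨cls, hd⟩ := hL.dec w hw
  have hkΛ : k ∈ Finset.range L.n := Finset.mem_range.2 hk
  have hρ1 : L.r ^ (-(1/2) : ℝ) ≤ R ^ (-(1/4) : ℝ) := by
    have e1 : R ^ (-(1/4) : ℝ) = (R ^ (1/2 : ℝ)) ^ (-(1/2) : ℝ) := by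
      rw [← Real.rpow_mul hR0.le]; norm_num
    rw [e1]
    exact Real.rpow_le_rpow_of_nonpos (Real.rpow_pos_of_pos hR0 _) hL.lo (by norm_num)
  have hρ2 : 3 * L.r ^ (-(1/2) : ℝ) ≤ (2 - b) / 2 := by
    have h5 : 6 / (2 - b) ≤ R ^ (1/4 : ℝ) := by
      have h6 : (6 / (2 - b)) ^ 4 ≤ R := by linarith
      have h7 : ((6 / (2 - b)) ^ 4) ^ (1/4 : ℝ) ≤ R ^ (1/4 : ℝ) :=
        Real.rpow_le_rpow hb4 h6 (by norm_num)
      rw [← Real.rpow_natCast, ← Real.rpow_mul (by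
        have : 0 < 2 - b := by linarith
        positivity)] at h7
      norm_num at h7
      exact h7
    have h8 : 0 < 6 / (2 - b) := by
      have : 0 < 2 - b := by linarith
      positivity
    have h9 : R ^ (-(1/4) : ℝ) ≤ (6 / (2 - b))⁻¹ := by
      rw [Real.rpow_neg hR0.le]
      exact inv_anti₀ h8 h5
    rw [inv_div] at h9
    linarith
  have hst : St M κ q (2 * a) ((b + 2) / 2) 4 C0 (σ + 3 * L.r ^ (-(1/2) : ℝ))
      (L.G w k) L.r (L.D w k) := St_mono_b (hd.st k hkΛ) (by linarith)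
  have hκr : L.r ^ (-(1/4) : ℝ) ≤ κ := by
    refine le_trans ?_ hKp.kR
    have e1 : (R ^ (1/2 : ℝ)) ^ (-(1/4) : ℝ) = R ^ (-(1/8) : ℝ) := by
      rw [← Real.rpow_mul hR0.le]; norm_num
    calc L.r ^ (-(1/4) : ℝ) ≤ (R ^ (1/2 : ℝ)) ^ (-(1/4) : ℝ) :=
          Real.rpow_le_rpow_of_nonpos (Real.rpow_pos_of_pos hR0 _) hL.lo (by norm_num)
      _ = R ^ (-(1/8) : ℝ) := e1
      _ ≤ R ^ (-(1/16) : ℝ) := Real.rpow_le_rpow_of_exponent_le hR1 (by norm_num)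
  have hκa : 8 * (2 * a) * κ ≤ 1 := by
    have := hKp.kb
    have h0 := hKp.k0
    nlinarith [mul_pos (by linarith : (0:ℝ) < a) h0]
  have hr2' : L.r ^ (1/2 : ℝ) ≤ r2 :=
    (Real.rpow_le_rpow hr0.le hL.hi (by norm_num)).trans hr2
  have h4 := h3 κ η0 C0 _ (L.G w k) L.r (L.D w k) hKp.k0 hκa hκr hst (hd.slc k hkΛ) r2 s1 s2
    hr2' hr2L hSd
  have hm0 : 0 ≤ (max 1 (L.r / (s1 * r2) ^ 2)) ^ (c / 2) := by positivity
  calc ENNReal.ofReal (s2 ^ (-q / 2)) * val κ (L.G w k) r2 s1 s2 I' P'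
      ≤ ENNReal.ofReal (s2 ^ (-q / 2)) * SIG M κ A' r2 s1 s2 (L.G w k) L.r := by
        gcongr
        exact val_le_SIG hP
    _ ≤ ENNReal.ofReal (C2 * L.r ^ (K2 * ε) * (max 1 (L.r / (s1 * r2) ^ 2)) ^ (c / 2) *
        SS (L.G w k) L.r (L.D w k)) := h4
    _ = ENNReal.ofReal (C2 * L.r ^ (K2 * ε) * (max 1 (L.r / (s1 * r2) ^ 2)) ^ (c / 2)) *
        ENNReal.ofReal (SS (L.G w k) L.r (L.D w k)) := by
        rw [ENNReal.ofReal_mul (by positivity)]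
    _ ≤ ENNReal.ofReal (C2 * L.r ^ (K2 * ε) * (max 1 (L.r / (s1 * r2) ^ 2)) ^ (c / 2)) *
        (ENNReal.ofReal Cn * (ENNReal.ofReal (L.r * √(L.D w k)) *
          enc (L.r ^ (-(1/2) : ℝ)) (trc w g) (L.sl w k))) := by
        gcongr
        exact SS_le_sl hL hR1 hk hw
    _ = ENNReal.ofReal (C2 * Cn * L.r ^ (K2 * ε) * (max 1 (L.r / (s1 * r2) ^ 2)) ^ (c / 2)) *
        (ENNReal.ofReal (L.r * √(L.D w k)) *
          enc (L.r ^ (-(1/2) : ℝ)) (trc w g) (L.sl w k)) := by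
        rw [← mul_assoc, ← ENNReal.ofReal_mul (by positivity)]
        congr 2
        ring
    _ ≤ _ := by
        gcongr
        linarith

end Crest.Agent.R116.Gen126
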