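import Crest.Agent.R116.TuT_890

/-!
# R116 (S0155), wave side (helper367): the LINK between two consecutive levels

Port of `GenRoot2..5_639` (`exists_sys`, `link_core`, `step_en`) to the cone, over `GlC_210`:
a local estimate (one parent frame, one parent label, any plate system made of the plates of the child
label seen from the parent frame) gives the step for the label functional `Lev.S`.
-/

set_option autoImplicit false

open MeasureTheory FourierTransform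
open scoped ENNReal

namespace Crest.Agent.R116.Lk367

open Crest.Agent.R138.Defs (E2 ee)
open Crest.Agent.R138.Wpk685 (cen caps)
open Crest.Agent.R116.CDef480 Crest.Agent.R116.WC188 Crest.Agent.R116.GlC210
open Crest.Agent.R116.TuL890 Crest.Agent.R116.TuT890

/-- the plate seen from the frame `w`. -/
def shf (w : E3 × ℝ) (P : Plate) : Plate := { P with z := P.z - w }

/-- contribution of one plate. -/
noncomputable def tm (κ : ℝ) (f : E3 → ℂ) (r s1 s2 : ℝ) (P : Plate) : ℝ≥0∞ :=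
  ENNReal.ofReal ((r * scost κ s1 s2 r) ^ (-(1/2) : ℝ)) *
    (ENNReal.ofReal r * enc (r ^ (-(1/2) : ℝ)) (trc P.z f) P.S) ^ (3 / 2 : ℝ)

theorem val_eq (κ : ℝ) (f : E3 → ℂ) (r s1 s2 : ℝ) (I : Finset ℕ) (P : ℕ → Plate) :
    val κ f r s1 s2 I P = ∑ i ∈ I, tm κ f r s1 s2 (P i) := rfl

/-- the plates of all frames `z` with `ζ z = w`, as one system in the frame `w`. -/
theorem exists_sys {M κ A R r1 r2 s1 s2 : ℝ} (Z2 : Finset (E3 × ℝ))
    (hsep : ∀ z ∈ Z2, ∀ z' ∈ Z2, z = z' ∨ r2 ≤ ‖z.1 - z'.1‖ ∨ r2 ≤ |z.2 - z'.2|)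
    (ζ : E3 × ℝ → E3 × ℝ) (hζ : ∀ z ∈ Z2, z - ζ z ∈ cylc r1)
    (I : E3 × ℝ → Finset ℕ) (P : E3 × ℝ → ℕ → Plate)
    (hP : ∀ z ∈ Z2, Plates M κ A r2 s1 s2 R (I z) (P z)) (hz : ∀ z ∈ Z2, ∀ i ∈ I z, (P z i).z = z)
    (w : E3 × ℝ) :
    ∃ (I' : Finset ℕ) (P' : ℕ → Plate), Plates M κ A r2 s1 s2 r1 I' P' ∧
      (∀ j ∈ I', ∃ z ∈ Z2, ζ z = w ∧ ∃ i ∈ I z, P' j = shf w (P z i)) ∧
      ∀ F : Plate → ℝ≥0∞, ∑ z ∈ Z2.filter (fun z => ζ z = w), ∑ i ∈ I z, F (shf w (P z i)) =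
        ∑ j ∈ I', F (P' j) := by
  classical
  set s : Finset (Σ _ : E3 × ℝ, ℕ) := (Z2.filter fun z => ζ z = w).sigma I with hs
  set Q : (Σ _ : E3 × ℝ, ℕ) → Plate := fun j => shf w (P j.1 j.2) with hQ
  have hmem : ∀ j ∈ s, j.1 ∈ Z2 ∧ ζ j.1 = w ∧ j.2 ∈ I j.1 := fun j hj => by
    obtain ⟨h1, h2⟩ := Finset.mem_sigma.1 hj
    obtain ⟨h3, h4⟩ := Finset.mem_filter.1 h1
    exact ⟨h3, h4, h2⟩
  have hQz : ∀ j ∈ s, (Q j).z = j.1 - w := fun j hj => by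
    obtain ⟨h1, -, h3⟩ := hmem j hj
    show (P j.1 j.2).z - w = j.1 - w
    rw [hz _ h1 _ h3]
  set n := s.card with hn
  set e := s.equivFin with he
  set P' : ℕ → Plate := fun j => if hj : j < n then Q (e.symm ⟨j, hj⟩) else P 0 0 with hPdef
  have hPe : ∀ j (hj : j < n), P' j = Q (e.symm ⟨j, hj⟩) := fun j hj => by
    simp only [hPdef, dif_pos hj]
  have key : ∀ j ∈ Finset.range n, ∃ i : s, P' j = Q i ∧ (e i : ℕ) = j := by
    intro j hj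
    have hj' := Finset.mem_range.1 hj
    exact ⟨e.symm ⟨j, hj'⟩, hPe j hj', by simp⟩
  have hPl : Plates M κ A r2 s1 s2 r1 (Finset.range n) P' := by
    refine ⟨fun j hj => ?_, fun j hj j' hj' => ?_, fun j hj => ?_, fun j hj => ?_, fun j hj => ?_,
      fun j hj m => ?_, fun j hj m => ?_, fun j hj j' hj' hne hzz m => ?_⟩
    · obtain ⟨i, h1, -⟩ := key j hj
      obtain ⟨h2, h3, -⟩ := hmem i i.2
      rw [h1, hQz i i.2, ← h3]
      exact hζ _ h2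
    · obtain ⟨i, h1, -⟩ := key j hj
      obtain ⟨i', h1', -⟩ := key j' hj'
      rw [h1, h1', hQz i i.2, hQz i' i'.2]
      rcases hsep _ (hmem i i.2).1 _ (hmem i' i'.2).1 with h | h | h
      · left; rw [h]
      · right; left
        rw [Prod.fst_sub, Prod.fst_sub, sub_sub_sub_cancel_right]
        exact h
      · right; right
        rw [Prod.snd_sub, Prod.snd_sub, sub_sub_sub_cancel_right]
        exact h
    · obtain ⟨i, h1, -⟩ := key j hj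
      obtain ⟨h2, -, h3⟩ := hmem i i.2
      rw [h1]; exact (hP _ h2).X0 _ h3
    · obtain ⟨i, h1, -⟩ := key j hj
      obtain ⟨h2, -, h3⟩ := hmem i i.2
      rw [h1]; exact (hP _ h2).c _ h3
    · obtain ⟨i, h1, -⟩ := key j hj
      obtain ⟨h2, -, h3⟩ := hmem i i.2
      rw [h1]; exact (hP _ h2).adm _ h3
    · obtain ⟨i, h1, -⟩ := key j hj
      obtain ⟨h2, -, h3⟩ := hmem i i.2
      rw [h1]; exact (hP _ h2).meas _ h3 m
    · obtain ⟨i, h1, -⟩ := key j hj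
      obtain ⟨h2, -, h3⟩ := hmem i i.2
      rw [h1]; exact (hP _ h2).box _ h3 m
    · obtain ⟨i, h1, h2⟩ := key j hj
      obtain ⟨i', h1', h2'⟩ := key j' hj'
      rw [h1, h1', hQz i i.2, hQz i' i'.2] at hzz
      rw [h1, h1']
      obtain ⟨⟨z, i⟩, hi⟩ := i
      obtain ⟨⟨z', i'⟩, hi'⟩ := i'
      have hzz' : z = z' := sub_left_injective hzz
      subst hzz'
      obtain ⟨h3, -, h4⟩ := hmem _ hi
      obtain ⟨-, -, h4'⟩ := hmem _ hi'
      refine (hP _ h3).disj i h4 i' h4' (fun hii => hne ?_) ?_ m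
      · subst hii
        rw [← h2, ← h2']
      · rw [hz _ h3 _ h4, hz _ h3 _ h4']
  refine ⟨Finset.range n, P', hPl, fun j hj => ?_, fun F => ?_⟩
  · obtain ⟨i, h1, -⟩ := key j hj
    obtain ⟨h2, h3, h4⟩ := hmem i i.2
    exact ⟨_, h2, h3, _, h4, h1⟩
  · have h1 : ∑ z ∈ Z2.filter (fun z => ζ z = w), ∑ i ∈ I z, F (shf w (P z i)) =
        ∑ j ∈ s, F (Q j) := by rw [hs, Finset.sum_sigma]
    rw [h1, Finset.sum_range, ← Finset.sum_coe_sort s]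
    refine Fintype.sum_equiv e _ _ fun i => ?_
    rw [hPe _ (e i).2]
    simp

/-! ### domination for one plate -/

theorem pow32_two (a b r n : ℝ≥0∞) :
    (r * (2 * n ^ 2 * (a + b))) ^ (3 / 2 : ℝ) ≤
      8 * n ^ 3 * ((r * a) ^ (3 / 2 : ℝ) + (r * b) ^ (3 / 2 : ℝ)) := by
  have e1 : r * (2 * n ^ 2 * (a + b)) = 2 * (n ^ 2 * (r * a + r * b)) := by ring
  rw [e1, ENNReal.mul_rpow_of_nonneg 2 (n ^ 2 * (r * a + r * b)) (by norm_num : (0:ℝ) ≤ 3 / 2),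
    ENNReal.mul_rpow_of_nonneg (n ^ 2) (r * a + r * b) (by norm_num : (0:ℝ) ≤ 3 / 2)]
  have h3 : (n ^ 2) ^ (3 / 2 : ℝ) = n ^ 3 := by
    rw [← ENNReal.rpow_natCast, ← ENNReal.rpow_mul, ← ENNReal.rpow_natCast]
    norm_num
  have h4 : (2 : ℝ≥0∞) ^ ((3 / 2 : ℝ) - 1) ≤ 2 := by
    calc (2 : ℝ≥0∞) ^ ((3 / 2 : ℝ) - 1) ≤ 2 ^ (1 : ℝ) :=
          ENNReal.rpow_le_rpow_of_exponent_le (by norm_num) (by norm_num)
      _ = 2 := ENNReal.rpow_one _
  have h5 : (2 : ℝ≥0∞) ^ (3 / 2 : ℝ) ≤ 4 := by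
    calc (2 : ℝ≥0∞) ^ (3 / 2 : ℝ) ≤ 2 ^ (2 : ℝ) :=
          ENNReal.rpow_le_rpow_of_exponent_le (by norm_num) (by norm_num)
      _ = 4 := by
          rw [show (2 : ℝ) = ((2 : ℕ) : ℝ) by norm_num, ENNReal.rpow_natCast]; norm_num
  rw [h3]
  calc 2 ^ (3 / 2 : ℝ) * (n ^ 3 * (r * a + r * b) ^ (3 / 2 : ℝ))
      ≤ 4 * (n ^ 3 * (2 ^ ((3 / 2 : ℝ) - 1) * ((r * a) ^ (3 / 2 : ℝ) + (r * b) ^ (3 / 2 : ℝ)))) := by
        gcongr
        have := ENNReal.rpow_add_le_mul_rpow_add_rpow (r * a) (r * b) (p := 3 / 2) (by norm_num)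
        exact this
    _ ≤ 4 * (n ^ 3 * (2 * ((r * a) ^ (3 / 2 : ℝ) + (r * b) ^ (3 / 2 : ℝ)))) := by gcongr
    _ = _ := by ring

section lev

variable {M κ q A A' a b Cn : ℝ} {K : ℕ} {η0 : ℝ} {C0 : E2} {σ : ℝ} {g : E3 → ℂ} {R : ℝ} {L : Lev}

theorem lev_G_int (h : LevOk M κ q A A' a b Cn K η0 C0 σ g R L) (ha : 0 < a) {z : E3 × ℝ}
    (hz : z ∈ L.Z) {k : ℕ} (hk : k < L.n) : Integrable (L.G z k) := by
  obtain ⟨cls, hd⟩ := h.dec z hz
  exact (Bas367.St.gd (a := 2 * a) (by linarith) (hd.st k (Finset.mem_range.2 hk))).int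

theorem lev_rest_int (h : LevOk M κ q A A' a b Cn K η0 C0 σ g R L) (ha : 0 < a) {z : E3 × ℝ}
    (hz : z ∈ L.Z) : Integrable (L.rest z) := by
  obtain ⟨cls, hd⟩ := h.dec z hz
  exact (Bas367.gd_of_supp (a := 2 * a) (b := 2) hd.rmeas hd.rbdd fun ζ hζ =>
    ⟨(inv_pos.2 (by linarith)).trans_le (hd.rsupp ζ hζ).1, (hd.rsupp ζ hζ).2.1,
      (hd.rsupp ζ hζ).2.2⟩).int

/-- the decomposition of the root seen from a finer frame. -/
theorem trc_dec (h : LevOk M κ q A A' a b Cn K η0 C0 σ g R L) {z : E3 × ℝ} (hz : z ∈ cylc R) :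
    trc z g = fun ξ => ∑ k ∈ Finset.range L.n, L.pf z k ξ + trc (z - L.ζ z) (L.rest (L.ζ z)) ξ := by
  obtain ⟨cls, hd⟩ := h.dec _ (h.near z hz).1
  rw [trc_group L z g]
  have e : trc (L.ζ z) g = fun ξ => ∑ k ∈ Finset.range L.n, L.G (L.ζ z) k ξ + L.rest (L.ζ z) ξ :=
    funext hd.sum
  rw [e, trc_sum]
  rfl

/-- contribution of one plate under domination. -/
theorem tm_dom (h : LevOk M κ q A A' a b Cn K η0 C0 σ g R L) (ha : 0 < a) {z : E3 × ℝ}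
    (hz : z ∈ cylc R) {k1 : ℕ} (hk1 : k1 < L.n) {r2 s1 s2 κ' : ℝ} {P : Plate} (hPz : P.z = z)
    (hm : ∀ m, MeasurableSet (P.S m))
    (harg : ∀ m, ∀ y ∈ P.S m, argc (r2 ^ (-(1/2) : ℝ)) (L.pf z) L.n m y = k1) :
    tm κ' g r2 s1 s2 P ≤ 8 * ((L.n : ℝ≥0∞) + 1) ^ 3 *
      (tm κ' (L.G (L.ζ z) k1) r2 s1 s2 (shf (L.ζ z) P) +
        tm κ' (L.rest (L.ζ z)) r2 s1 s2 (shf (L.ζ z) P)) := by
  have hw := (h.near z hz).1
  have h1 := enc_dom (ρ := r2 ^ (-(1/2) : ℝ)) (n := L.n) (H := L.pf z)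
    (e := trc (z - L.ζ z) (L.rest (L.ζ z)))
    (fun k hk => Bas367.trc_int (lev_G_int h ha hw (Finset.mem_range.1 hk)) _)
    (Bas367.trc_int (lev_rest_int h ha hw) _) hk1 (S := P.S) (fun m _ => hm m)
    (fun m _ y hy => by
      have := argc_dom (r2 ^ (-(1/2) : ℝ)) (L.pf z) h.n1 m y
      rwa [harg m y hy] at this)
  rw [← trc_dec h hz] at h1
  set X := enc (r2 ^ (-(1/2) : ℝ)) (L.pf z k1) P.S with hX
  set W := enc (r2 ^ (-(1/2) : ℝ)) (trc (z - L.ζ z) (L.rest (L.ζ z))) P.S with hW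
  have h2 : enc (r2 ^ (-(1/2) : ℝ)) (trc z g) P.S ≤ 2 * ((L.n : ℝ≥0∞) + 1) ^ 2 * (X + W) := by
    refine h1.trans ?_
    rw [mul_add]
    refine add_le_add ?_ ?_
    · gcongr
      exact le_self_add
    · refine mul_le_mul' ?_ le_rfl
      calc (2 : ℝ≥0∞) = 2 * 1 := (mul_one _).symm
        _ ≤ _ := by
          gcongr
          exact one_le_pow₀ le_add_self
  unfold tm
  rw [hPz]
  calc _ ≤ ENNReal.ofReal ((r2 * scost κ' s1 s2 r2) ^ (-(1/2) : ℝ)) *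
        (ENNReal.ofReal r2 * (2 * ((L.n : ℝ≥0∞) + 1) ^ 2 * (X + W))) ^ (3 / 2 : ℝ) := by gcongr
    _ ≤ ENNReal.ofReal ((r2 * scost κ' s1 s2 r2) ^ (-(1/2) : ℝ)) *
        (8 * ((L.n : ℝ≥0∞) + 1) ^ 3 * ((ENNReal.ofReal r2 * X) ^ (3 / 2 : ℝ) +
          (ENNReal.ofReal r2 * W) ^ (3 / 2 : ℝ))) := by
        gcongr
        exact pow32_two _ _ _ _
    _ = _ := by
        simp only [shf, hPz]
        rw [hX, hW]
        unfold Lev.pf
        ring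

/-- the contribution of the rest in one frame. -/
theorem rest_le (h : LevOk M κ q A A' a b Cn K η0 C0 σ g R L) (hA : 1 ≤ A) (hA' : 0 ≤ A')
    (hR : 1 ≤ R) (hCn : 0 ≤ Cn)
    {L' : Lev} (h' : LevOk M κ q A A' a b Cn K η0 C0 σ g R L') (hr : A' * L'.r ≤ L.r)
    (hr' : L'.r ≤ L.r) {z : E3 × ℝ}
    (hz : z ∈ L'.Z) {k : ℕ} (hk : k < L'.n) :
    ∑ i ∈ L'.I z k, tm κ (L.rest (L.ζ z)) L'.r (L'.s k).1 (L'.s k).2 (shf (L.ζ z) (L'.P z k i)) ≤
      (ENNReal.ofReal (81 * A' ^ 3 * v3 * (Cn * L.nb * R ^ (-(K : ℝ))) ^ 2 * R ^ (5 : ℝ) * Enc g))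
          ^ (1/2 : ℝ) *
        ENNReal.ofReal (81 * A' ^ 3 * v3 * (Cn * L.nb * R ^ (-(K : ℝ))) ^ 2 * R ^ (5 : ℝ) *
          Enc g) := by
  have hv := v3_nonneg
  have hE := Enc_nn g
  have hR0 : 0 < R := by linarith
  have hr1 := lev_r1 h' hR
  have hr0 : 0 < L'.r := by linarith
  have hsd := h'.sd k hk
  have hzR := h'.net.mem z hz
  have hw := h.near z hzR
  obtain ⟨cls, hd⟩ := h.dec _ hw.1
  obtain ⟨cls', hd'⟩ := h'.dec z hz
  have hkΛ : k ∈ Finset.range L'.n := Finset.mem_range.2 hk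
  obtain ⟨hp, hpz⟩ := hd'.pl k hkΛ
  set θ := L'.r ^ (-(1/2) : ℝ) with hθ
  set f := trc (z - L.ζ z) (L.rest (L.ζ z)) with hf
  set B : ℝ := Cn * L.nb * R ^ (-(K : ℝ)) with hB
  have hB0 : 0 ≤ B := by positivity
  set X : ℝ := 81 * A' ^ 3 * v3 * B ^ 2 * R ^ (5 : ℝ) * Enc g with hX
  have hL0 : 0 ≤ L.r := by linarith
  -- energy of the rest on the selection
  have hball : ∀ m, L'.sl z k m ⊆ Metric.closedBall 0 (A' * L'.r) := fun m => hd'.bd k hkΛ m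
  have hmeas : ∀ m, MeasurableSet (L'.sl z k m) := fun m => by
    unfold Lev.sl uS
    exact Finset.measurableSet_biUnion _ fun i hi => hp.meas i hi m
  have hcyl : z - L.ζ z ∈ cylc (A * L.r) := by
    have h1 := hw.2
    have h2 : L.r ≤ A * L.r := by nlinarith
    exact ⟨h1.1.trans h2, h1.2.trans h2⟩
  have hen : enc θ f (L'.sl z k) ≤ ENNReal.ofReal (81 * A' ^ 3 * v3 * R ^ 4 * (B ^ 2 * Enc g)) := by
    refine enc_tiny hr1 h'.hi hA' (by positivity) hball hmeas fun m _ y hy => ?_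
    have h1 : ‖y‖ ≤ A * L.r := by
      have h2 := mem_closedBall_zero_iff.1 (hball m hy)
      have h3 : L.r ≤ A * L.r := by nlinarith
      linarith
    have h2 := hd.small L'.r hr1 hr' _ hcyl m y h1
    rw [← ofReal_norm, ← ENNReal.ofReal_pow (norm_nonneg _)]
    refine ENNReal.ofReal_le_ofReal ?_
    calc ‖umc (L'.r ^ (-(1/2) : ℝ)) (trc (z - L.ζ z) (L.rest (L.ζ z))) m y‖ ^ 2
        ≤ (B * √(Enc g)) ^ 2 := by
          refine pow_le_pow_left₀ (norm_nonneg _) h2 2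
      _ = B ^ 2 * Enc g := by rw [mul_pow, Real.sq_sqrt hE]
  have hen2 : ENNReal.ofReal L'.r * enc θ f (L'.sl z k) ≤ ENNReal.ofReal X := by
    calc _ ≤ ENNReal.ofReal R * ENNReal.ofReal (81 * A' ^ 3 * v3 * R ^ 4 * (B ^ 2 * Enc g)) :=
          mul_le_mul' (ENNReal.ofReal_le_ofReal h'.hi) hen
      _ = ENNReal.ofReal X := by
          rw [← ENNReal.ofReal_mul hR0.le, hX]
          congr 1
          have e : R ^ (5 : ℝ) = R * R ^ 4 := by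
            rw [show (5 : ℝ) = ((5 : ℕ) : ℝ) by norm_num, Real.rpow_natCast]; ring
          rw [e]; ring
  have hsum := enc_sl h' hk hz θ f
  have hcost := one_le_cost (κ := κ) hr1 hsd.lo hsd.le
  have hc1 : ENNReal.ofReal ((L'.r * scost κ (L'.s k).1 (L'.s k).2 L'.r) ^ (-(1/2) : ℝ)) ≤ 1 := by
    rw [← ENNReal.ofReal_one]
    exact ENNReal.ofReal_le_ofReal (Real.rpow_le_one_of_one_le_of_nonpos hcost (by norm_num))
  calc ∑ i ∈ L'.I z k, tm κ (L.rest (L.ζ z)) L'.r (L'.s k).1 (L'.s k).2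
        (shf (L.ζ z) (L'.P z k i))
      ≤ ∑ i ∈ L'.I z k, ENNReal.ofReal X ^ (1/2 : ℝ) *
          (ENNReal.ofReal L'.r * enc θ f (L'.P z k i).S) := by
        refine Finset.sum_le_sum fun i hi => ?_
        have hle : ENNReal.ofReal L'.r * enc θ f (L'.P z k i).S ≤ ENNReal.ofReal X := by
          refine le_trans (mul_le_mul' le_rfl ?_) hen2
          rw [hsum]
          exact Finset.single_le_sum (f := fun i => enc θ f (L'.P z k i).S)
            (fun _ _ => zero_le) hi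
        have e1 : tm κ (L.rest (L.ζ z)) L'.r (L'.s k).1 (L'.s k).2 (shf (L.ζ z) (L'.P z k i)) =
            ENNReal.ofReal ((L'.r * scost κ (L'.s k).1 (L'.s k).2 L'.r) ^ (-(1/2) : ℝ)) *
              (ENNReal.ofReal L'.r * enc θ f (L'.P z k i).S) ^ (3 / 2 : ℝ) := by
          unfold tm shf
          simp only [hpz i hi]
          rw [hf, hθ]
        rw [e1, pow32]
        calc _ ≤ 1 * ((ENNReal.ofReal X) ^ (1/2 : ℝ) *
              (ENNReal.ofReal L'.r * enc θ f (L'.P z k i).S)) := by gcongr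
          _ = _ := one_mul _
    _ = ENNReal.ofReal X ^ (1/2 : ℝ) * (ENNReal.ofReal L'.r * enc θ f (L'.sl z k)) := by
        rw [← Finset.mul_sum, ← Finset.mul_sum, ← hsum]
    _ ≤ _ := mul_le_mul' le_rfl hen2

end lev

/-! ### the link -/

/-- **LINK**: a local estimate gives the step for the label functional. -/
theorem link (q a b A' Cn M0 T : ℝ) (ha : 1 ≤ a) (_hb : b ≤ 2) (hq : 0 ≤ q) (hA' : 1 ≤ A')
    (hCn : 0 ≤ Cn) : ∃ C : ℝ, 1 ≤ C ∧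
    ∀ (M κ A : ℝ) (K : ℕ) (η0 : ℝ) (C0 : E2) (σ : ℝ) (g : E3 → ℂ) (R D : ℝ),
      1 ≤ A → St M κ q a b M0 C0 σ g R D → 15 + |M0| + |T| + q ≤ K →
    ∀ L1 L2 : Lev, LevOk M κ q A A' a b Cn K η0 C0 σ g R L1 →
      LevOk M κ q A A' a b Cn K η0 C0 σ g R L2 → Next L1 L2 → A' * L2.r ≤ L1.r →
    ∀ ν : ℝ, 1 ≤ ν → ν ≤ R → L1.Le ν → L2.Le ν → ∀ k < L2.n, ∀ Q T' : ℝ≥0∞,
      (∀ w ∈ L1.Z, ∀ (I' : Finset ℕ) (P' : ℕ → Plate),
        Plates M κ A' L2.r (L2.s k).1 (L2.s k).2 L1.r I' P' →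
        (∀ j ∈ I', ∃ z ∈ L2.Z, L1.ζ z = w ∧ ∃ i ∈ L2.I z k, P' j = shf w (L2.P z k i)) →
        ENNReal.ofReal ((L2.s k).2 ^ (-q / 2)) *
            val κ (L1.G w (L2.par k)) L2.r (L2.s k).1 (L2.s k).2 I' P' ≤
          Q * (ENNReal.ofReal (L1.r * √(L1.D w (L2.par k))) *
            enc (L1.r ^ (-(1/2) : ℝ)) (trc w g) (L1.sl w (L2.par k))) + T') →
      L2.S g k ≤ ENNReal.ofReal (C * ν ^ 4) *
          (Q * L1.S g (L2.par k) + (L1.Z.card : ℝ≥0∞) * T') +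
        ENNReal.ofReal (C * ν ^ 4 * R ^ (-T) * SS g R D) := by
  have hv := v3_nonneg
  set c1 : ℝ := 81 * A' ^ 3 * v3 * Cn ^ 2 with hc1
  have hc10 : 0 ≤ c1 := by positivity
  set C : ℝ := 1 + √Cn * 64 + √Cn * 64 * (√c1 * c1 * 1296) with hC
  have hC0 : 0 ≤ √Cn * 64 := by positivity
  have hC1 : 0 ≤ √Cn * 64 * (√c1 * c1 * 1296) := by positivity
  refine ⟨C, by linarith, ?_⟩
  intro M κ A K η0 C0 σ g R D hA hst hK L1 L2 h1 h2 hN hr ν hν hνR hl1 hl2 k hk Q T' hloc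
  have hR := hst.R1
  have hR0 : 0 < R := by linarith
  have hE := Enc_nn g
  have ha0 : 0 < a := by linarith
  have hr2 := lev_r1 h2 hR
  have hr20 : 0 < L2.r := by linarith
  have hr21 : L2.r ≤ L1.r := le_trans (by nlinarith) hr
  have hsd := h2.sd k hk
  have hπ := hN.par_lt k hk
  set π := L2.par k with hπd
  set u : ℝ≥0∞ := ENNReal.ofReal ((L2.s k).2 ^ (-q / 2)) with hu
  -- domination
  have hdom : ∑ z ∈ L2.Z, val κ g L2.r (L2.s k).1 (L2.s k).2 (L2.I z k) (L2.P z k) ≤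
      8 * ((L1.n : ℝ≥0∞) + 1) ^ 3 *
        (∑ z ∈ L2.Z, ∑ i ∈ L2.I z k, tm κ (L1.G (L1.ζ z) π) L2.r (L2.s k).1 (L2.s k).2
            (shf (L1.ζ z) (L2.P z k i)) +
          ∑ z ∈ L2.Z, ∑ i ∈ L2.I z k, tm κ (L1.rest (L1.ζ z)) L2.r (L2.s k).1 (L2.s k).2
            (shf (L1.ζ z) (L2.P z k i))) := by
    rw [← Finset.sum_add_distrib, Finset.mul_sum]
    refine Finset.sum_le_sum fun z hz => ?_
    rw [val_eq, ← Finset.sum_add_distrib, Finset.mul_sum]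
    refine Finset.sum_le_sum fun i hi => ?_
    obtain ⟨cls, hd⟩ := h2.dec z hz
    obtain ⟨hp, hpz⟩ := hd.pl k (Finset.mem_range.2 hk)
    exact tm_dom h1 ha0 (h2.net.mem z hz) hπ (hpz i hi) (fun m => hp.meas i hi m)
      (fun m y hy => hN.arg z hz k hk i hi m y hy)
  -- main part
  have hmain : u * ∑ z ∈ L2.Z, ∑ i ∈ L2.I z k, tm κ (L1.G (L1.ζ z) π) L2.r (L2.s k).1 (L2.s k).2
      (shf (L1.ζ z) (L2.P z k i)) ≤ Q * L1.S g π + (L1.Z.card : ℝ≥0∞) * T' := by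
    rw [group h1 h2, Finset.mul_sum]
    have hw : ∀ w ∈ L1.Z, u * ∑ z ∈ L2.Z.filter (fun z => L1.ζ z = w), ∑ i ∈ L2.I z k,
        tm κ (L1.G (L1.ζ z) π) L2.r (L2.s k).1 (L2.s k).2 (shf (L1.ζ z) (L2.P z k i)) ≤
        Q * (ENNReal.ofReal (L1.r * √(L1.D w π)) *
            enc (L1.r ^ (-(1/2) : ℝ)) (trc w g) (L1.sl w π)) + T' := by
      intro w hw
      obtain ⟨I', P', hpl, hP', hsum⟩ := exists_sys (M := M) (κ := κ) (A := A') (R := R)
        (r1 := L1.r) (r2 := L2.r) (s1 := (L2.s k).1) (s2 := (L2.s k).2) L2.Z h2.net.sep L1.ζ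
        (fun z hz => (h1.near z (h2.net.mem z hz)).2) (fun z => L2.I z k) (fun z => L2.P z k)
        (fun z hz => by
          obtain ⟨cls, hd⟩ := h2.dec z hz
          exact (hd.pl k (Finset.mem_range.2 hk)).1)
        (fun z hz => by
          obtain ⟨cls, hd⟩ := h2.dec z hz
          exact (hd.pl k (Finset.mem_range.2 hk)).2) w
      have e1 : ∑ z ∈ L2.Z.filter (fun z => L1.ζ z = w), ∑ i ∈ L2.I z k,
          tm κ (L1.G (L1.ζ z) π) L2.r (L2.s k).1 (L2.s k).2 (shf (L1.ζ z) (L2.P z k i)) =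
          val κ (L1.G w π) L2.r (L2.s k).1 (L2.s k).2 I' P' := by
        rw [val_eq, ← hsum (tm κ (L1.G w π) L2.r (L2.s k).1 (L2.s k).2)]
        refine Finset.sum_congr rfl fun z hz => ?_
        rw [(Finset.mem_filter.1 hz).2]
      rw [e1]
      exact hloc w hw I' P' hpl hP'
    refine (Finset.sum_le_sum hw).trans (le_of_eq ?_)
    rw [Finset.sum_add_distrib, ← Finset.mul_sum, Finset.sum_const, nsmul_eq_mul]
    unfold Lev.S
    congr 2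
    refine Finset.sum_congr rfl fun w hw => ?_
    rw [enc_sl h1 hπ hw]
  -- rests
  have hK' := abs_nonneg M0
  have hT' := abs_nonneg T
  have hM0 := le_abs_self M0
  have hT0 := le_abs_self T
  have hnb : (L1.nb : ℝ) ≤ R := hl1.2.trans hνR
  have hX : 81 * A' ^ 3 * v3 * (Cn * L1.nb * R ^ (-(K : ℝ))) ^ 2 * R ^ (5 : ℝ) * Enc g ≤
      c1 * R ^ (7 - 2 * (K : ℝ)) * Enc g := by
    have e1 : R ^ (7 - 2 * (K : ℝ)) = R ^ 2 * (R ^ (-(K : ℝ))) ^ 2 * R ^ (5 : ℝ) := by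
      rw [show (7 - 2 * (K : ℝ)) = ((2 : ℕ) : ℝ) + (-(K : ℝ)) * ((2 : ℕ) : ℝ) + 5 by push_cast; ring,
        Real.rpow_add hR0, Real.rpow_add hR0, Real.rpow_natCast, Real.rpow_mul hR0.le,
        Real.rpow_natCast]
    rw [e1, hc1]
    calc _ = 81 * A' ^ 3 * v3 * Cn ^ 2 * ((L1.nb : ℝ) ^ 2 * (R ^ (-(K : ℝ))) ^ 2 * R ^ (5 : ℝ)) *
          Enc g := by ring
      _ ≤ _ := by gcongr
  have hrest : ∑ z ∈ L2.Z, ∑ i ∈ L2.I z k, tm κ (L1.rest (L1.ζ z)) L2.r (L2.s k).1 (L2.s k).2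
      (shf (L1.ζ z) (L2.P z k i)) ≤
      ENNReal.ofReal (√c1 * c1 * 1296 * (R ^ (-(T + q / 4)) * (R * Enc g * √D))) := by
    refine (Finset.sum_le_sum fun z hz =>
      rest_le h1 hA (by linarith) hR hCn h2 hr hr21 hz hk).trans ?_
    refine tail_sum (M0 := M0) (T := T + q / 4) (α := 7 - 2 * (K : ℝ)) (β := 7 - 2 * (K : ℝ))
      (γ := 4) hR hE hst.nd (c1 := c1) (c2 := c1) (c3 := 1296) hc10 hc10 L2.Z
      (card_net' hr2 h2.hi h2.net) (x := fun _ => ENNReal.ofReal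
        (81 * A' ^ 3 * v3 * (Cn * L1.nb * R ^ (-(K : ℝ))) ^ 2 * R ^ (5 : ℝ) * Enc g))
      (y := fun _ => ENNReal.ofReal
        (81 * A' ^ 3 * v3 * (Cn * L1.nb * R ^ (-(K : ℝ))) ^ 2 * R ^ (5 : ℝ) * Enc g))
      (fun _ _ => ENNReal.ofReal_le_ofReal hX) (fun _ _ => ENNReal.ofReal_le_ofReal hX) ?_
    linarith
  have hs2' := s2_pow hq hr2 h2.hi (hsd.lo.trans hsd.le)
  have hRq : 0 ≤ R ^ (q / 4) := Real.rpow_nonneg hR0.le _
  have hurest : u * ∑ z ∈ L2.Z, ∑ i ∈ L2.I z k, tm κ (L1.rest (L1.ζ z)) L2.r (L2.s k).1 (L2.s k).2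
      (shf (L1.ζ z) (L2.P z k i)) ≤
      ENNReal.ofReal (√c1 * c1 * 1296 * (R ^ (-T) * SS g R D)) := by
    calc _ ≤ ENNReal.ofReal (R ^ (q / 4)) *
          ENNReal.ofReal (√c1 * c1 * 1296 * (R ^ (-(T + q / 4)) * (R * Enc g * √D))) :=
          mul_le_mul' (ENNReal.ofReal_le_ofReal hs2') hrest
      _ = _ := by
          rw [← ENNReal.ofReal_mul hRq]
          congr 1
          have e : R ^ (q / 4) * R ^ (-(T + q / 4)) = R ^ (-T) := by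
            rw [← Real.rpow_add hR0]; congr 1; ring
          unfold SS
          rw [← e]; ring
  -- constants
  have hν0 : 0 ≤ ν := by linarith
  have hpre : ENNReal.ofReal (√(Cn * L2.nb)) * (8 * ((L1.n : ℝ≥0∞) + 1) ^ 3) ≤
      ENNReal.ofReal (√Cn * 64 * ν ^ 4) := by
    have e1 : (8 * ((L1.n : ℝ≥0∞) + 1) ^ 3) = ENNReal.ofReal (8 * ((L1.n : ℝ) + 1) ^ 3) := by
      rw [ENNReal.ofReal_mul (by norm_num), ENNReal.ofReal_pow (by positivity),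
        ENNReal.ofReal_add (by positivity) (by norm_num), ENNReal.ofReal_natCast,
        ENNReal.ofReal_ofNat, ENNReal.ofReal_one]
    rw [e1, ← ENNReal.ofReal_mul (Real.sqrt_nonneg _)]
    refine ENNReal.ofReal_le_ofReal ?_
    have h3 : √(Cn * L2.nb) ≤ √Cn * ν := by
      rw [Real.sqrt_mul hCn]
      refine mul_le_mul_of_nonneg_left ?_ (Real.sqrt_nonneg _)
      refine (Real.sqrt_le_sqrt hl2.2).trans ?_
      rw [Real.sqrt_le_left hν0]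
      nlinarith
    have h4 : ((L1.n : ℝ) + 1) ^ 3 ≤ (2 * ν) ^ 3 := by
      have := hl1.1
      gcongr
      linarith
    calc √(Cn * L2.nb) * (8 * ((L1.n : ℝ) + 1) ^ 3) ≤ (√Cn * ν) * (8 * (2 * ν) ^ 3) := by gcongr
      _ = √Cn * 64 * ν ^ 4 := by ring
  have hSS : 0 ≤ SS g R D := by
    unfold SS; positivity
  have hRT : 0 ≤ R ^ (-T) * SS g R D := mul_nonneg (Real.rpow_nonneg hR0.le _) hSS
  calc L2.S g k ≤ ENNReal.ofReal (√(Cn * L2.nb)) * (u *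
        ∑ z ∈ L2.Z, val κ g L2.r (L2.s k).1 (L2.s k).2 (L2.I z k) (L2.P z k)) := S_le_val h2 hR hk
    _ ≤ ENNReal.ofReal (√(Cn * L2.nb)) * (u * (8 * ((L1.n : ℝ≥0∞) + 1) ^ 3 *
        (∑ z ∈ L2.Z, ∑ i ∈ L2.I z k, tm κ (L1.G (L1.ζ z) π) L2.r (L2.s k).1 (L2.s k).2
            (shf (L1.ζ z) (L2.P z k i)) +
          ∑ z ∈ L2.Z, ∑ i ∈ L2.I z k, tm κ (L1.rest (L1.ζ z)) L2.r (L2.s k).1 (L2.s k).2
            (shf (L1.ζ z) (L2.P z k i))))) := by gcongr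
    _ = (ENNReal.ofReal (√(Cn * L2.nb)) * (8 * ((L1.n : ℝ≥0∞) + 1) ^ 3)) *
        (u * ∑ z ∈ L2.Z, ∑ i ∈ L2.I z k, tm κ (L1.G (L1.ζ z) π) L2.r (L2.s k).1 (L2.s k).2
            (shf (L1.ζ z) (L2.P z k i)) +
          u * ∑ z ∈ L2.Z, ∑ i ∈ L2.I z k, tm κ (L1.rest (L1.ζ z)) L2.r (L2.s k).1 (L2.s k).2
            (shf (L1.ζ z) (L2.P z k i))) := by ring
    _ ≤ ENNReal.ofReal (√Cn * 64 * ν ^ 4) * ((Q * L1.S g π + (L1.Z.card : ℝ≥0∞) * T') +
          ENNReal.ofReal (√c1 * c1 * 1296 * (R ^ (-T) * SS g R D))) :=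
        mul_le_mul' hpre (add_le_add hmain hurest)
    _ = ENNReal.ofReal (√Cn * 64 * ν ^ 4) * (Q * L1.S g π + (L1.Z.card : ℝ≥0∞) * T') +
          ENNReal.ofReal (√Cn * 64 * (√c1 * c1 * 1296) * (ν ^ 4 * (R ^ (-T) * SS g R D))) := by
        rw [mul_add, ← ENNReal.ofReal_mul (by positivity)]
        congr 2
        ring
    _ ≤ _ := by
        refine add_le_add (mul_le_mul' (ENNReal.ofReal_le_ofReal ?_) le_rfl)
          (ENNReal.ofReal_le_ofReal ?_)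
        · have : 0 ≤ ν ^ 4 := by positivity
          nlinarith
        · have h5 : 0 ≤ ν ^ 4 * (R ^ (-T) * SS g R D) := by positivity
          calc √Cn * 64 * (√c1 * c1 * 1296) * (ν ^ 4 * (R ^ (-T) * SS g R D))
              ≤ C * (ν ^ 4 * (R ^ (-T) * SS g R D)) :=
                mul_le_mul_of_nonneg_right (by linarith) h5
            _ = _ := by ring

end Crest.Agent.R116.Lk367
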