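import Crest.Agent.R116.Gen1_126
import Crest.Agent.R116.Lk1_367

/-!
# R116 (S0155), wave side: `GEN` of `GlC_210` from `A2k` (helper126)

`gen_of_A2k : 0 ≤ q → A2k M q → GEN M q`, from 367's `link` and `loc_A2k`.
-/

set_option autoImplicit false

open MeasureTheory FourierTransform
open scoped ENNReal

namespace Crest.Agent.R116.Gen126

open Crest.Agent.R138.Defs (E2 ee)
open Crest.Agent.R116.CDef480 Crest.Agent.R116.WC188 Crest.Agent.R116.GlC210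

/-- **GEN**. -/
theorem gen_of_A2k {M q : ℝ} (hq : 0 ≤ q) (hA2 : A2k M q) : GEN M q := by
  intro c hc hLB
  obtain ⟨K2, hK2, hloc⟩ := loc_A2k hA2 hc hLB
  refine ⟨4 + ⌈K2⌉₊, ?_⟩
  intro a b A ε M0 T hRg
  refine ⟨⌈15 + |M0| + |T| + q⌉₊, ?_⟩
  intro K hK A' Cn hA' hCn
  have ha := hRg.a1
  have hb2 := hRg.b2
  have hε := hRg.e0
  obtain ⟨C1, hC1, hl⟩ := hloc a b A ε hRg A' Cn hA' hCn
  obtain ⟨C2, hC2, hlk⟩ := Lk367.link q a b A' Cn M0 T ha hb2.le hq hA' (by linarith)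
  have hC12 : 1 ≤ C1 * C2 := by nlinarith
  refine ⟨C1 * C2 + C1 + C2 + A', by linarith, ?_⟩
  intro κ η0 C0 σ g R D hSs hKp hCR L L' hL hL' hN hr ν hν hνR hl1 hl2 k hk
  have hR := hSs.R1
  have hR0 : 0 < R := by linarith
  have hr1 := TuL890.lev_r1 hL hR
  have hr1' := TuL890.lev_r1 hL' hR
  have hKK : 15 + |M0| + |T| + q ≤ K := (Nat.le_ceil _).trans (by exact_mod_cast hK)
  have hAr : A' * L'.r ≤ L.r := le_trans (by nlinarith) hr
  have hrr : L'.r ≤ L.r := le_trans (by nlinarith) hAr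
  have hR1C : C1 ≤ R := by linarith
  have key := hlk M κ A K η0 C0 σ g R D hRg.A1 hSs.toSt hKK L L' hL hL' hN hAr ν hν hνR hl1 hl2 k
    hk (ENNReal.ofReal (C1 * L.r ^ (K2 * ε) *
      (max 1 (L.r / ((L'.s k).1 * L'.r) ^ 2)) ^ (c / 2))) 0 (by
      intro w hw I' P' hP _
      rw [add_zero]
      exact hl κ η0 C0 σ g R hKp hR1C K L hL w hw (L'.par k) (hN.par_lt k hk) L'.r (L'.s k).1
        (L'.s k).2 hL'.lo hrr (hL'.sd k hk) I' P' hP)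
  refine key.trans ?_
  rw [mul_zero, add_zero, ← mul_assoc, ← ENNReal.ofReal_mul (by positivity)]
  have hE : 0 ≤ SS g R D := by
    unfold SS
    have := Tr126.Enc_nonneg g
    positivity
  set X : ℝ := (max 1 (L.r / ((L'.s k).1 * L'.r) ^ 2)) ^ (c / 2) with hX
  have hX0 : 0 ≤ X := by positivity
  have h1 : L.r ^ (K2 * ε) ≤ R ^ (((4 + ⌈K2⌉₊ : ℕ) : ℝ) * ε) := by
    refine (Real.rpow_le_rpow (by linarith) hL.hi (by positivity)).trans ?_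
    refine Real.rpow_le_rpow_of_exponent_le hR ?_
    have h2 := Nat.le_ceil K2
    have h3 : K2 ≤ ((4 + ⌈K2⌉₊ : ℕ) : ℝ) := by push_cast; linarith
    exact mul_le_mul_of_nonneg_right h3 hε.le
  have h4 : ν ^ 4 ≤ ν ^ (4 + ⌈K2⌉₊) := pow_le_pow_right₀ hν (by omega)
  have hCpos : 0 ≤ C1 * C2 + C1 + C2 + A' := by linarith
  refine add_le_add ?_ ?_
  · refine mul_le_mul_left (ENNReal.ofReal_le_ofReal ?_) _
    calc C2 * ν ^ 4 * (C1 * L.r ^ (K2 * ε) * X)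
        ≤ C2 * ν ^ (4 + ⌈K2⌉₊) * (C1 * R ^ (((4 + ⌈K2⌉₊ : ℕ) : ℝ) * ε) * X) := by gcongr
      _ = (C1 * C2) * ν ^ (4 + ⌈K2⌉₊) * R ^ (((4 + ⌈K2⌉₊ : ℕ) : ℝ) * ε) * X := by ring
      _ ≤ (C1 * C2 + C1 + C2 + A') * ν ^ (4 + ⌈K2⌉₊) * R ^ (((4 + ⌈K2⌉₊ : ℕ) : ℝ) * ε) * X := by
          have : 0 ≤ R ^ (((4 + ⌈K2⌉₊ : ℕ) : ℝ) * ε) := by positivity
          gcongr
          linarith
  · apply ENNReal.ofReal_le_ofReal
    have : 0 ≤ R ^ (-T) := by positivity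
    gcongr
    linarith

end Crest.Agent.R116.Gen126
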