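import Crest.Agent.R116.Gt3_222

/-!
# R116, GEO-D of the light-ray chart (helper222), part 10: tilted strips, isotropic (flat) case

* `strip_iso_L`, `strip_iso_T` : D-max for strips of any direction in the velocity plane, flat flags,
  round marks, isotropic boxes.
-/

set_option autoImplicit false

open Finset Filter Topology

namespace Crest.Agent.R116.Gd222

open Crest.Agent.R138.Defs (E2)
open Crest.Agent.R138.Ex926 (Base U QProf)
open Crest.Agent.R138.Mk163 (zc zl rho alive)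
open Crest.Agent.R138
open Crest.Agent.R136.MkA627
open Crest.Agent.R136.Net191
open Crest.Agent.R136.PqG464
open Crest.Agent.R116.LZg725
open Crest.Agent.R116.ChL222
open Crest.Agent.R116.PL504 (uL eL)

/-- lower bound of `|a τ + e b|` -/
theorem comb_low {b1 b2 t1 t2 a e N nb : ℝ} (hb : b1 ^ 2 + b2 ^ 2 = nb ^ 2) (hnb : 1 / 4 ≤ nb)
    (ht1 : |t1| ≤ 1) (ht2 : |t2| ≤ 1) (hD : nb ≤ 32 * |b1 * t2 - b2 * t1|)
    (hN : (a * t1 + e * b1) ^ 2 + (a * t2 + e * b2) ^ 2 = N ^ 2) (hN0 : 0 ≤ N) :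
    |a| ≤ 32 * N ∧ |e| ≤ 256 * N := by
  have hnb0 : 0 < nb := by linarith
  have e1 : a * (b1 * t2 - b2 * t1) = b1 * (a * t2 + e * b2) - b2 * (a * t1 + e * b1) := by ring
  have e2 : e * (b1 * t2 - b2 * t1) = (a * t1 + e * b1) * t2 - (a * t2 + e * b2) * t1 := by ring
  have c1 : |a| * |b1 * t2 - b2 * t1| ≤ nb * N := by
    rw [← abs_mul, e1]
    refine abs_le_of_sq_le_sq ?_ (by positivity)
    have : (nb * N) ^ 2 = (b1 ^ 2 + b2 ^ 2) * ((a * t1 + e * b1) ^ 2 + (a * t2 + e * b2) ^ 2) := by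
      rw [hb, hN]; ring
    rw [this]
    nlinarith [sq_nonneg (b1 * (a * t1 + e * b1) + b2 * (a * t2 + e * b2))]
  have c2 : |e| * |b1 * t2 - b2 * t1| ≤ 2 * N := by
    rw [← abs_mul, e2]
    have f1 : |a * t1 + e * b1| ≤ N := abs_le_of_sq_le_sq (by nlinarith [sq_nonneg (a * t2 + e * b2)]) hN0
    have f2 : |a * t2 + e * b2| ≤ N := abs_le_of_sq_le_sq (by nlinarith [sq_nonneg (a * t1 + e * b1)]) hN0
    refine (abs_sub _ _).trans ?_
    rw [abs_mul, abs_mul]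
    have g1 : |a * t1 + e * b1| * |t2| ≤ N * 1 := mul_le_mul f1 ht2 (abs_nonneg _) hN0
    have g2 : |a * t2 + e * b2| * |t1| ≤ N * 1 := mul_le_mul f2 ht1 (abs_nonneg _) hN0
    linarith
  constructor
  · have h1 : nb * |a| ≤ nb * (32 * N) := by
      have := mul_le_mul_of_nonneg_right hD (abs_nonneg a)
      nlinarith
    exact le_of_mul_le_mul_left h1 hnb0
  · have h1 : 1 / 4 * |e| ≤ nb * |e| := mul_le_mul_of_nonneg_right hnb (abs_nonneg _)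
    have h2 : nb * |e| ≤ 32 * |b1 * t2 - b2 * t1| * |e| :=
      mul_le_mul_of_nonneg_right hD (abs_nonneg e)
    nlinarith

section strips

variable {B : Base} {I : ℕ → Finset (ℕ × ℝ)} {G : Geo TSet (Fin 2)} {lev : ℕ → ℚ → ℕ}
    {A : ℕ → ℝ} {g s : ℝ} {τ : Fin 2 → ℝ → ℝ} {f : ℕ → ℚ → ℕ → ℤ → ℕ} {b : ℕ → ℚ → ℕ → TSet}
    {vm : ℕ → ℚ → ℝ} {w : Fin 2 → ℕ → ℚ → ℝ}
    {inc : ℕ → ℕ × ℝ → LInc} {σ : Fin 2 → ℕ → ℝ} {q : Fin 2 → ℝ} {M0 c0 Rg θ : ℝ}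

set_option maxHeartbeats 1000000 in
open Classical in
/-- **strips, isotropic case, seen from one flat base flag.** -/
theorem strip_C (hM : MkA B I G lev A (fun v => g * v) (fun v => s * v) τ f b vm w)
    (h : LData B I G lev inc σ q M0 c0 Rg θ)
    (hk : ∀ ε : ℝ, 0 < ε → ∀ᶠ n in (U : Filter ℕ), σ 1 n ≤ σ 0 n * B.d n ^ (-ε))
    (hk' : ∀ ε : ℝ, 0 < ε → ∀ᶠ n in (U : Filter ℕ), σ 0 n ≤ σ 1 n * B.d n ^ (-ε))
    (w0 sa sb : ℝ) {i : ℕ → LInc} (hflat : ∀ᶠ n in (U : Filter ℕ), (i n).et = 0 ∧ (i n).d = 0)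
    (hb : ∀ᶠ n in (U : Filter ℕ), 1 / 4 ≤ ‖vb (i n)‖) {t1 t2 e1 e2 : ℕ → ℝ}
    (hdir : ∀ᶠ n in (U : Filter ℕ), |t1 n| ≤ 1 ∧ |t2 n| ≤ 1 ∧
      ‖vb (i n)‖ ≤ 32 * |(i n).b1 * t2 n - (i n).b2 * t1 n|)
    (hunit : ∀ᶠ n in (U : Filter ℕ), e1 n ^ 2 + e2 n ^ 2 = 1) {v t y K : ℝ}
    (hK : 1 ≤ K) (hθ : θ ≤ v) (hv0 : 0 ≤ v) (hv1 : v ≤ 1) (hy : 0 < y) (ht : 0 < t)
    (hRt : t + y < Rg) {ε : ℝ} (hε : 0 < ε) :
    ∀ᶠ n in (U : Filter ℕ), (((I n).filter fun l =>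
        Nat8 (i n) (inc n l) K (rho (lev n 0) * B.d n ^ v) (σ 0 n * B.d n ^ t)
          (σ 1 n * B.d n ^ t) ∧
        |e1 n * ((t1 n * coL (i n) (inc n l) 3 + t2 n * coL (i n) (inc n l) 4) /
            (σ 0 n * B.d n ^ t)) + e2 n * (coL (i n) (inc n l) 10 / (σ 1 n * B.d n ^ t))| ≤
          K * B.d n ^ y).card : ℝ) ≤
      (A n * VL σ q lev n * B.d n ^ (-(1 - s))) *
        B.d n ^ (-(DL g s q w0 sa sb (nbS w0 sa sb v t t) - q 1 * y + ε)) := by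
  have hq1 := h.qp 1
  obtain ⟨η, hη, hη1, hη2⟩ : ∃ η : ℝ, 0 < η ∧ (1 + q 1) * η ≤ ε / 4 ∧ η ≤ y / 2 := by
    refine ⟨min (ε / 4 / (1 + q 1)) (y / 2), lt_min (by positivity) (by linarith), ?_,
      min_le_right _ _⟩
    have := min_le_left (ε / 4 / (1 + q 1)) (y / 2)
    rw [le_div_iff₀ (by linarith)] at this
    linarith
  have hη3 : 0 < η / 4 := by linarith
  set y' : ℝ := t + (y - η) with hy'
  -- the base
  set u1 : ℕ → ℝ := fun n => e1 n * ((σ 1 n * B.d n ^ t) / (σ 0 n * B.d n ^ t)) with hu1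
  set N : ℕ → ℝ := fun n => ‖(!₂[u1 n * t1 n + e2 n * (i n).b1, u1 n * t2 n + e2 n * (i n).b2] : E2)‖
    with hN
  have hNsq : ∀ n, (u1 n * t1 n + e2 n * (i n).b1) ^ 2 + (u1 n * t2 n + e2 n * (i n).b2) ^ 2 =
      N n ^ 2 := by
    intro n
    rw [hN]
    simp only []
    rw [normsq2]
    simp
  have hbsq : ∀ n, (i n).b1 ^ 2 + (i n).b2 ^ 2 = ‖vb (i n)‖ ^ 2 := by
    intro n
    rw [normsq2]
    simp [vb]
  -- lower bound of the norm
  have hNlow : ∀ᶠ n in (U : Filter ℕ), B.d n ^ (η / 4) ≤ 512 * N n := by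
    filter_upwards [hdir, hunit, hk' _ hη3, hb] with n a1 a2 a3 a4
    have dp := fun a => Dp76.dpow_pos B n a
    have s0 := h.σp 0 n
    have s1 := h.σp 1 n
    obtain ⟨g1, g2⟩ := comb_low (hbsq n) a4 a1.1 a1.2.1 a1.2.2 (hNsq n) (norm_nonneg _)
    have hd1 : B.d n ^ (η / 4) ≤ 1 := Real.rpow_le_one (B.pos n).le (B.lt n).le hη3.le
    have hω : B.d n ^ (η / 4) ≤ (σ 1 n * B.d n ^ t) / (σ 0 n * B.d n ^ t) := by
      rw [mul_div_mul_right _ _ (dp t).ne', le_div_iff₀ s0]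
      have := mul_le_mul_of_nonneg_left a3 (dp (η / 4)).le
      rw [mul_left_comm, ← Dp76.dpow_add, show η / 4 + -(η / 4) = 0 by ring, Real.rpow_zero,
        mul_one] at this
      exact this
    have g3 : |e1 n| * B.d n ^ (η / 4) ≤ 32 * N n := by
      refine le_trans ?_ g1
      rw [hu1]
      simp only []
      rw [abs_mul, abs_of_pos (div_pos (mul_pos s1 (dp t)) (mul_pos s0 (dp t)))]
      exact mul_le_mul_of_nonneg_left hω (abs_nonneg _)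
    have g4 : |e2 n| * B.d n ^ (η / 4) ≤ 256 * N n := by
      refine le_trans ?_ g2
      calc |e2 n| * B.d n ^ (η / 4) ≤ |e2 n| * 1 := mul_le_mul_of_nonneg_left hd1 (abs_nonneg _)
        _ = |e2 n| := mul_one _
    have g5 : 1 ≤ |e1 n| + |e2 n| := by
      have h1 : |e1 n| ^ 2 + |e2 n| ^ 2 = 1 := by rw [sq_abs, sq_abs]; exact a2
      nlinarith [abs_nonneg (e1 n), abs_nonneg (e2 n)]
    have g6 := mul_le_mul_of_nonneg_right g5 (dp (η / 4)).le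
    have g7 : 0 ≤ N n := norm_nonneg _
    linarith
  set i' : ℕ → LInc := fun n => addb ((u1 n * t1 n + e2 n * (i n).b1) / N n - (i n).b1)
    ((u1 n * t2 n + e2 n * (i n).b2) / N n - (i n).b2) (i n) with hi'
  have hi'OK : BaseOK B lev σ θ i' := by
    refine ⟨?_, fun e he => ?_, fun e he => ?_⟩
    · filter_upwards [hNlow] with n a1
      have hNp : 0 < N n := by
        have := Dp76.dpow_pos B n (η / 4)
        linarith
      have e : ‖vb (i' n)‖ ^ 2 = 1 := by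
        rw [normsq2]
        have e0 : vb (i' n) 0 = (u1 n * t1 n + e2 n * (i n).b1) / N n := by
          show (i n).b1 + ((u1 n * t1 n + e2 n * (i n).b1) / N n - (i n).b1) = _
          ring
        have e1' : vb (i' n) 1 = (u1 n * t2 n + e2 n * (i n).b2) / N n := by
          show (i n).b2 + ((u1 n * t2 n + e2 n * (i n).b2) / N n - (i n).b2) = _
          ring
        rw [e0, e1', div_pow, div_pow, ← add_div, hNsq]
        exact div_self (by positivity)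
      have h1 := norm_nonneg (vb (i' n))
      nlinarith
    · filter_upwards [hflat] with n a1
      show |(i n).et| * σ 0 n ≤ _
      rw [a1.1, abs_zero, zero_mul]
      exact (Dp76.dpow_pos B n _).le
    · filter_upwards [hflat] with n a1
      show |(i n).d| * (σ 0 n * rho (lev n 0)) ≤ _
      rw [a1.2, abs_zero, zero_mul]
      exact (Dp76.dpow_pos B n _).le
  have hy'R : |y'| < Rg := by
    rw [hy', abs_of_pos (by linarith)]; linarith
  have hε4 : 0 < ε / 4 := by linarith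
  have hfc := fine_count hM h (k0 := 0) (fun e he => by
      filter_upwards [hk e he] with n hn
      rwa [zero_sub]) w0 sa sb hi'OK (v := v) (t := t) (t0 := t) (y := y') (K := 2 * K)
    ht (by linarith) hθ (by linarith) hv0 hv1 (by linarith) hy'R (by rw [hy']; linarith) hε4
  filter_upwards [hfc, hNlow, hdir, hflat, hk' _ hη3,
    ev_pow B (K := 512) (κ := 1) (a := η / 4) (b := 0) (by norm_num) one_pos hη3,
    ev_pow B (K := 6 * K) (κ := 1) (a := ε / 4) (b := 0) (by linarith) one_pos hε4]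
    with n n1 n2 n3 n4 n5 n6 n7
  have dp := fun a => Dp76.dpow_pos B n a
  have s0 := h.σp 0 n
  have s1 := h.σp 1 n
  have r0 := rho_pos (lev n 0)
  have hNp : 0 < N n := by
    have := dp (η / 4)
    linarith
  obtain ⟨R, hR⟩ : ∃ R : ℝ, R = rho (lev n 0) * B.d n ^ v := ⟨_, rfl⟩
  obtain ⟨c, hc⟩ : ∃ c : ℝ, c = σ 0 n * B.d n ^ t := ⟨_, rfl⟩
  obtain ⟨c', hc'⟩ : ∃ c' : ℝ, c' = σ 1 n * B.d n ^ t := ⟨_, rfl⟩
  obtain ⟨cf, hcf⟩ : ∃ cf : ℝ, cf = σ 1 n * B.d n ^ y' := ⟨_, rfl⟩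
  rw [← hR, ← hc, ← hcf] at n1
  rw [← hR, ← hc, ← hc']
  have Rp : 0 < R := by rw [hR]; exact mul_pos r0 (dp _)
  have cp : 0 < c := by rw [hc]; exact mul_pos s0 (dp _)
  have cp' : 0 < c' := by rw [hc']; exact mul_pos s1 (dp _)
  have cfp : 0 < cf := by rw [hcf]; exact mul_pos s1 (dp _)
  have ecf : cf = c' * B.d n ^ (y - η) := by
    rw [hcf, hc', hy', Dp76.dpow_add]; ring
  have ecc : c ≤ c' * B.d n ^ (-(η / 4)) := by
    rw [hc, hc']
    have := mul_le_mul_of_nonneg_right n5 (dp t).le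
    linarith
  have hK0 : 0 < K := by linarith
  rw [Real.rpow_zero, mul_one] at n6 n7
  have hu1' : u1 n = e1 n * (c' / c) := by rw [hu1, hc, hc']
  set S := (I n).filter fun l => Nat8 (i n) (inc n l) K R c c' ∧
    |e1 n * ((t1 n * coL (i n) (inc n l) 3 + t2 n * coL (i n) (inc n l) 4) / c) +
      e2 n * (coL (i n) (inc n l) 10 / c')| ≤ K * B.d n ^ y with hS
  have hvb : ∀ x1 x2 : ℝ, (i' n).b1 * x1 + (i' n).b2 * x2 =
      (u1 n * (t1 n * x1 + t2 n * x2) + e2 n * ((i n).b1 * x1 + (i n).b2 * x2)) / N n := by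
    intro x1 x2
    have e0 : (i' n).b1 = (u1 n * t1 n + e2 n * (i n).b1) / N n := by
      show (i n).b1 + ((u1 n * t1 n + e2 n * (i n).b1) / N n - (i n).b1) = _
      ring
    have e1' : (i' n).b2 = (u1 n * t2 n + e2 n * (i n).b2) / N n := by
      show (i n).b2 + ((u1 n * t2 n + e2 n * (i n).b2) / N n - (i n).b2) = _
      ring
    rw [e0, e1']
    field_simp
    ring
  have hunitn : |(i' n).b1| ≤ 1 ∧ |(i' n).b2| ≤ 1 := by
    have e0 : (i' n).b1 = (u1 n * t1 n + e2 n * (i n).b1) / N n := by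
      show (i n).b1 + ((u1 n * t1 n + e2 n * (i n).b1) / N n - (i n).b1) = _
      ring
    have e1' : (i' n).b2 = (u1 n * t2 n + e2 n * (i n).b2) / N n := by
      show (i n).b2 + ((u1 n * t2 n + e2 n * (i n).b2) / N n - (i n).b2) = _
      ring
    have f1 : |u1 n * t1 n + e2 n * (i n).b1| ≤ N n :=
      abs_le_of_sq_le_sq (by have := hNsq n; nlinarith [sq_nonneg (u1 n * t2 n + e2 n * (i n).b2)])
        hNp.le
    have f2 : |u1 n * t2 n + e2 n * (i n).b2| ≤ N n :=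
      abs_le_of_sq_le_sq (by have := hNsq n; nlinarith [sq_nonneg (u1 n * t1 n + e2 n * (i n).b1)])
        hNp.le
    constructor
    · rw [e0, abs_div, abs_of_pos hNp, div_le_one hNp]; exact f1
    · rw [e1', abs_div, abs_of_pos hNp, div_le_one hNp]; exact f2
  -- slots of the new base
  have s10 : ∀ l, coL (i' n) l 10 = (i' n).b1 * coL (i n) l 3 + (i' n).b2 * coL (i n) l 4 := by
    intro l
    rw [coL_ten]
    have e3 : coL (i' n) l 3 = coL (i n) l 3 := (coL_addb _ _ (i n) l).2.1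
    have e4 : coL (i' n) l 4 = coL (i n) l 4 := (coL_addb _ _ (i n) l).2.2.1
    have e5 : (i' n).et = 0 := n4.1
    have e6 : (i' n).d = 0 := n4.2
    rw [e3, e4, e5, e6]
    ring
  have s11 : ∀ l, coL (i' n) l 11 = (i' n).b1 * coL (i n) l 5 + (i' n).b2 * coL (i n) l 6 := by
    intro l
    rw [coL_elf]
    have e3 : coL (i' n) l 5 = coL (i n) l 5 := (coL_addb _ _ (i n) l).2.2.2.1
    have e4 : coL (i' n) l 6 = coL (i n) l 6 := (coL_addb _ _ (i n) l).2.2.2.2.1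
    have e5 : (i' n).et = 0 := n4.1
    have e6 : (i' n).d = 0 := n4.2
    rw [e3, e4, e5, e6]
    ring
  have hreg : ∀ l ∈ S, Reg (i' n) (inc n l) (2 * K) R c (c * R) cf ∧
      |coL (i' n) (inc n l) 9| ≤ K * (c ^ 2 * R) ∧ |coL (i' n) (inc n l) 5| ≤ K * (c * R) ∧
      |coL (i' n) (inc n l) 6| ≤ K * (c * R) ∧
      |coL (i' n) (inc n l) 11| ≤ 2 * K * (c * R) := by
    intro l hl
    rw [hS, mem_filter] at hl
    obtain ⟨hl, hNt, hst⟩ := hl
    obtain ⟨c0', c3, c4, c5, c6, c9, -, -⟩ := coL_addb ((u1 n * t1 n + e2 n * (i n).b1) / N n - (i n).b1)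
      ((u1 n * t2 n + e2 n * (i n).b2) / N n - (i n).b2) (i n) (inc n l)
    have le2 : ∀ {x X : ℝ}, 0 ≤ X → |x| ≤ K * X → |x| ≤ 2 * K * X := by
      intro x X hX hx
      have : 0 ≤ K * X := by positivity
      linarith
    have h10 : |coL (i' n) (inc n l) 10| ≤ K * cf := by
      have e : coL (i' n) (inc n l) 10 = (c' / N n) *
          (e1 n * ((t1 n * coL (i n) (inc n l) 3 + t2 n * coL (i n) (inc n l) 4) / c) +
            e2 n * (coL (i n) (inc n l) 10 / c')) := by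
        rw [s10, hvb, hu1', coL_ten (i n), n4.1, n4.2]
        field_simp
        ring
      rw [e, abs_mul, abs_div, abs_of_pos cp', abs_of_pos hNp]
      have h1 : 1 / N n ≤ 512 * B.d n ^ (-(η / 4)) := by
        rw [div_le_iff₀ hNp, Real.rpow_neg (B.pos n).le]
        have h2 := mul_le_mul_of_nonneg_left n2 (inv_pos.2 (dp (η / 4))).le
        rw [inv_mul_cancel₀ (dp (η / 4)).ne'] at h2
        linarith
      have h3 : 512 * B.d n ^ (-(η / 4)) ≤ B.d n ^ (-η) := by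
        have e' : B.d n ^ (-(η / 4)) = B.d n ^ (η / 4) * B.d n ^ (-(η / 2)) := by
          rw [← Dp76.dpow_add]; congr 1; ring
        rw [e']
        calc 512 * (B.d n ^ (η / 4) * B.d n ^ (-(η / 2))) =
              (512 * B.d n ^ (η / 4)) * B.d n ^ (-(η / 2)) := by ring
          _ ≤ 1 * B.d n ^ (-(η / 2)) := mul_le_mul_of_nonneg_right n6 (dp _).le
          _ ≤ B.d n ^ (-η) := by rw [one_mul]; exact Dp76.dpow_le B n (by linarith)
      calc c' / N n * _ ≤ (c' * B.d n ^ (-η)) * (K * B.d n ^ y) := by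
            refine mul_le_mul ?_ hst (abs_nonneg _) (mul_pos cp' (dp _)).le
            rw [div_eq_mul_one_div]
            exact mul_le_mul_of_nonneg_left (h1.trans h3) cp'.le
        _ = K * cf := by
            rw [ecf, show y - η = -η + y by ring, Dp76.dpow_add]; ring
    refine ⟨⟨?_, ?_, ?_, ?_, ?_, le2 cfp.le h10⟩, ?_, ?_, ?_, ?_⟩
    · rw [hi', c0']; exact le2 Rp.le hNt.h0
    · rw [hi', c3]; exact le2 cp.le hNt.h3
    · rw [hi', c4]; exact le2 cp.le hNt.h4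
    · rw [hi', c5]; exact le2 (by positivity) hNt.h5
    · rw [hi', c6]; exact le2 (by positivity) hNt.h6
    · rw [hi', c9]; exact hNt.h9
    · rw [hi', c5]; exact hNt.h5
    · rw [hi', c6]; exact hNt.h6
    · rw [s11]
      refine (abs_add_le _ _).trans ?_
      rw [abs_mul, abs_mul]
      have a1 : |(i' n).b1| * |coL (i n) (inc n l) 5| ≤ 1 * (K * (c * R)) :=
        mul_le_mul hunitn.1 hNt.h5 (abs_nonneg _) zero_le_one
      have a2 : |(i' n).b2| * |coL (i n) (inc n l) 6| ≤ 1 * (K * (c * R)) :=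
        mul_le_mul hunitn.2 hNt.h6 (abs_nonneg _) zero_le_one
      linarith
  set M : ℝ := (A n * VL σ q lev n * B.d n ^ (-(1 - s))) *
    B.d n ^ (-(DL g s q w0 sa sb (nbS w0 sa sb v t y') + ε / 4)) with hMd
  have hM0 : 0 ≤ M := by
    have hA := (hM.Apos n).le
    have hV : 0 ≤ VL σ q lev n := by unfold VL; positivity
    have := dp (-(1 - s))
    have := dp (-(DL g s q w0 sa sb (nbS w0 sa sb v t y') + ε / 4))
    positivity
  have hcells := cells1 S (fun l => coL (i' n) (inc n l) 11)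
    (R := 2 * K * (c * R)) (δ := cf * R) (M := M) (by positivity)
    (by positivity) hM0 (fun l hl => (hreg l hl).2.2.2.2) (by
      intro j hj
      have hjI : j ∈ I n := (mem_filter.1 hj).1
      refine le_trans ?_ (n1 j hjI (hreg j hj).1)
      refine Nat.cast_le.2 (Finset.card_le_card fun l hl => ?_)
      rw [mem_filter] at hl
      obtain ⟨hl, hcell⟩ := hl
      have hlI : l ∈ I n := (mem_filter.1 hl).1
      obtain ⟨gl, gl9, gl5, gl6, -⟩ := hreg l hl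
      obtain ⟨gj, gj9, gj5, gj6, -⟩ := hreg j hj
      have two : ∀ {a b X : ℝ}, 0 ≤ X → |a| ≤ K * X → |b| ≤ K * X → |a - b| ≤ 2 * K * X := by
        intro a b X hX ha hb
        exact (abs_sub _ _).trans (by linarith)
      rw [mem_filter]
      refine ⟨hlI, gl, two (by positivity) gl5 gj5, two (by positivity) gl6 gj6,
        two (by positivity) gl9 gj9, ?_⟩
      refine hcell.trans ?_
      have hcR : 0 ≤ cf * R := by positivity
      have h4 : 1 * (cf * R) ≤ 2 * K * (cf * R) := mul_le_mul_of_nonneg_right (by linarith) hcR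
      rwa [one_mul] at h4)
  refine hcells.trans ?_
  have hratio : 2 * K * (c * R) / (cf * R) ≤ 2 * K * B.d n ^ (-y) := by
    rw [← mul_assoc, mul_div_mul_right _ _ Rp.ne', ecf, div_le_iff₀ (mul_pos cp' (dp _))]
    have h1 : c' * B.d n ^ (-(η / 4)) ≤ B.d n ^ (-y) * (c' * B.d n ^ (y - η)) := by
      have e' : B.d n ^ (-y) * (c' * B.d n ^ (y - η)) = c' * B.d n ^ (-η) := by
        rw [mul_left_comm, ← Dp76.dpow_add]; congr 2; ring
      rw [e']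
      exact mul_le_mul_of_nonneg_left (Dp76.dpow_le B n (by linarith)) cp'.le
    have h2 := mul_le_mul_of_nonneg_left (ecc.trans h1) (show 0 ≤ 2 * K by linarith)
    linarith
  have h1 : 1 ≤ B.d n ^ (-y) :=
    Real.one_le_rpow_of_pos_of_le_one_of_nonpos (B.pos n) (B.lt n).le (by linarith)
  have h2 : 2 * (2 * K * (c * R) / (cf * R)) + 2 ≤ 6 * K * B.d n ^ (-y) := by
    have : 1 * 1 ≤ K * B.d n ^ (-y) := mul_le_mul hK h1 zero_le_one hK0.le
    linarith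
  have h3 : 6 * K * B.d n ^ (-y) ≤ B.d n ^ (-y - ε / 4) := by
    have e : B.d n ^ (-y) = B.d n ^ (ε / 4) * B.d n ^ (-y - ε / 4) := by
      rw [← Dp76.dpow_add]; congr 1; ring
    rw [e]
    calc 6 * K * (B.d n ^ (ε / 4) * B.d n ^ (-y - ε / 4)) =
          (6 * K * B.d n ^ (ε / 4)) * B.d n ^ (-y - ε / 4) := by ring
      _ ≤ 1 * B.d n ^ (-y - ε / 4) := mul_le_mul_of_nonneg_right n7 (dp _).le
      _ = _ := one_mul _
  have hN0 : 0 ≤ A n * VL σ q lev n * B.d n ^ (-(1 - s)) := by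
    have hA := (hM.Apos n).le
    have hV : 0 ≤ VL σ q lev n := by unfold VL; positivity
    have := dp (-(1 - s))
    positivity
  calc (2 * (2 * K * (c * R) / (cf * R)) + 2) * M ≤ B.d n ^ (-y - ε / 4) * M :=
        mul_le_mul_of_nonneg_right (h2.trans h3) hM0
    _ = (A n * VL σ q lev n * B.d n ^ (-(1 - s))) *
          B.d n ^ ((-y - ε / 4) + -(DL g s q w0 sa sb (nbS w0 sa sb v t y') + ε / 4)) := by
        rw [hMd, Dp76.dpow_add B n (-y - ε / 4)]; ring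
    _ ≤ _ := by
        refine mul_le_mul_of_nonneg_left (Dp76.dpow_le B n ?_) hN0
        rw [DL_nbS, DL_nbS, hy']
        unfold FL
        nlinarith

open Classical in
set_option maxHeartbeats 1000000 in
/-- reduction to one sequence of base flags -/
theorem strip_red (h : LData B I G lev inc σ q M0 c0 Rg θ) (w0 sa sb : ℝ) {v t yy y : ℝ}
    (hθ : θ ≤ v) (ht : 0 < t) {p : Fin 12 → ℝ} (p0 : p 0 = w0 + v) (p3 : p 3 = sa + t)
    (p10 : p 10 = sb + yy) (hp : ∀ k, Vf k → nbS w0 sa sb v t yy k ≤ p k) {K : ℝ} (hK : 1 ≤ K)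
    {Bd : ℕ → ℝ} (hBd : ∀ n, 0 ≤ Bd n)
    (key : ∀ (x y0 : ℕ → ℕ × ℝ) (t1 t2 e1 e2 : ℕ → ℝ), (∀ᶠ n in (U : Filter ℕ), x n ∈ I n) →
      BaseOK B lev σ θ (fun n => trn 1 (inc n (x n)) (inc n (y0 n))) →
      (∀ᶠ n in (U : Filter ℕ), 3 / 8 ≤ ‖vb (trn 1 (inc n (x n)) (inc n (y0 n)))‖) →
      (∀ᶠ n in (U : Filter ℕ), |t1 n| ≤ 1 ∧ |t2 n| ≤ 1 ∧
        ‖vb (trn 1 (inc n (x n)) (inc n (y0 n)))‖ ≤ 32 *
          |(trn 1 (inc n (x n)) (inc n (y0 n))).b1 * t2 n -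
            (trn 1 (inc n (x n)) (inc n (y0 n))).b2 * t1 n|) →
      (∀ᶠ n in (U : Filter ℕ), e1 n ^ 2 + e2 n ^ 2 = 1) →
      ∀ᶠ n in (U : Filter ℕ), (((I n).filter fun l =>
        Nat8 (trn 1 (inc n (x n)) (inc n (y0 n))) (inc n l) (64 * K ^ 3)
          (rho (lev n 0) * B.d n ^ v) (σ 0 n * B.d n ^ t) (σ 1 n * B.d n ^ yy) ∧
        |e1 n * ((t1 n * coL (trn 1 (inc n (x n)) (inc n (y0 n))) (inc n l) 3 +
            t2 n * coL (trn 1 (inc n (x n)) (inc n (y0 n))) (inc n l) 4) /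
            (σ 0 n * B.d n ^ t)) + e2 n * (coL (trn 1 (inc n (x n)) (inc n (y0 n))) (inc n l) 10 /
              (σ 1 n * B.d n ^ yy))| ≤ (64 * K ^ 3) * B.d n ^ y).card : ℝ) ≤ Bd n) :
    ∀ᶠ n in (U : Filter ℕ), ∀ x ∈ I n, ∀ t1 t2 e1 e2 u : ℝ, |t1| ≤ 1 → |t2| ≤ 1 →
      ‖vb (inc n x)‖ ≤ 16 * |(inc n x).b1 * t2 - (inc n x).b2 * t1| → e1 ^ 2 + e2 ^ 2 = 1 →
      ((stripS B I lev inc σ w0 sa sb p K (K * B.d n ^ y) n x t1 t2 e1 e2 u).card : ℝ) ≤ Bd n := by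
  classical
  have hK3 : 1 ≤ K ^ 3 := one_le_pow₀ hK
  have hKK : K ≤ K ^ 3 := le_self_pow₀ hK (by norm_num)
  by_contra hcon
  rw [← Ultrafilter.eventually_not] at hcon
  -- the bad data
  have hex : ∀ᶠ n in (U : Filter ℕ), ∃ z : (ℕ × ℝ) × (ℕ × ℝ) × (ℝ × ℝ × ℝ × ℝ × ℝ),
      (z.1 ∈ I n ∧ z.2.1 ∈ stripS B I lev inc σ w0 sa sb p K (K * B.d n ^ y) n z.1 z.2.2.1
        z.2.2.2.1 z.2.2.2.2.1 z.2.2.2.2.2.1 z.2.2.2.2.2.2) ∧
      (|z.2.2.1| ≤ 1 ∧ |z.2.2.2.1| ≤ 1 ∧ ‖vb (inc n z.1)‖ ≤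
        16 * |(inc n z.1).b1 * z.2.2.2.1 - (inc n z.1).b2 * z.2.2.1|) ∧
      z.2.2.2.2.1 ^ 2 + z.2.2.2.2.2.1 ^ 2 = 1 ∧
      Bd n <
        ((stripS B I lev inc σ w0 sa sb p K (K * B.d n ^ y) n z.1 z.2.2.1
        z.2.2.2.1 z.2.2.2.2.1 z.2.2.2.2.2.1 z.2.2.2.2.2.2).card : ℝ) := by
    filter_upwards [hcon] with n hn
    push Not at hn
    obtain ⟨x, hx, t1, t2, e1, e2, u, h1, h2, h3, h4, h5⟩ := hn
    have hpos : (0 : ℝ) < ((stripS B I lev inc σ w0 sa sb p K (K * B.d n ^ y) n x t1 t2 e1 e2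
        u).card : ℝ) := by
      exact lt_of_le_of_lt (hBd n) h5
    obtain ⟨y0, hy0⟩ := Finset.card_pos.1 (by exact_mod_cast hpos)
    exact ⟨(x, y0, t1, t2, e1, e2, u), ⟨hx, hy0⟩, ⟨h1, h2, h3⟩, h4, h5⟩
  obtain ⟨F, hF⟩ := hex.choice
  obtain ⟨x, hxd⟩ : ∃ x : ℕ → ℕ × ℝ, x = fun n => (F n).1 := ⟨_, rfl⟩
  obtain ⟨y0, hyd⟩ : ∃ y0 : ℕ → ℕ × ℝ, y0 = fun n => (F n).2.1 := ⟨_, rfl⟩
  obtain ⟨t1, ht1⟩ : ∃ t1 : ℕ → ℝ, t1 = fun n => (F n).2.2.1 := ⟨_, rfl⟩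
  obtain ⟨t2, ht2⟩ : ∃ t2 : ℕ → ℝ, t2 = fun n => (F n).2.2.2.1 := ⟨_, rfl⟩
  obtain ⟨e1, he1⟩ : ∃ e1 : ℕ → ℝ, e1 = fun n => (F n).2.2.2.2.1 := ⟨_, rfl⟩
  obtain ⟨e2, he2⟩ : ∃ e2 : ℕ → ℝ, e2 = fun n => (F n).2.2.2.2.2.1 := ⟨_, rfl⟩
  obtain ⟨u, hu⟩ : ∃ u : ℕ → ℝ, u = fun n => (F n).2.2.2.2.2.2 := ⟨_, rfl⟩
  have hF' : ∀ᶠ n in (U : Filter ℕ), (x n ∈ I n ∧ y0 n ∈ stripS B I lev inc σ w0 sa sb p K
        (K * B.d n ^ y) n (x n) (t1 n) (t2 n) (e1 n) (e2 n) (u n)) ∧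
      (|t1 n| ≤ 1 ∧ |t2 n| ≤ 1 ∧ ‖vb (inc n (x n))‖ ≤
        16 * |(inc n (x n)).b1 * t2 n - (inc n (x n)).b2 * t1 n|) ∧
      e1 n ^ 2 + e2 n ^ 2 = 1 ∧
      Bd n <
        ((stripS B I lev inc σ w0 sa sb p K (K * B.d n ^ y) n (x n) (t1 n) (t2 n) (e1 n) (e2 n)
          (u n)).card : ℝ) := by
    rw [hxd, hyd, ht1, ht2, he1, he2, hu]
    exact hF
  clear hF hxd hyd ht1 ht2 he1 he2 hu
  -- near pairs are natural
  have hnat : ∀ᶠ n in (U : Filter ℕ), x n ∈ I n ∧ Nat8 (inc n (x n)) (inc n (y0 n)) K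
      (rho (lev n 0) * B.d n ^ v) (σ 0 n * B.d n ^ t) (σ 1 n * B.d n ^ yy) := by
    filter_upwards [hF'] with n hn
    refine ⟨hn.1.1, ?_⟩
    have h1 := hn.1.2
    unfold stripS at h1
    rw [mem_filter] at h1
    exact nat8_of_near B h.σp (by linarith) p0 hp h1.2.1
  obtain ⟨hbase, hbase2, hbase3⟩ := baseOK_trn h ht hK hθ hnat
  have hdir : ∀ᶠ n in (U : Filter ℕ), |t1 n| ≤ 1 ∧ |t2 n| ≤ 1 ∧
      ‖vb (trn 1 (inc n (x n)) (inc n (y0 n)))‖ ≤ 32 *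
        |(trn 1 (inc n (x n)) (inc n (y0 n))).b1 * t2 n -
          (trn 1 (inc n (x n)) (inc n (y0 n))).b2 * t1 n| := by
    filter_upwards [hF', hbase3] with n h1 h2
    exact ⟨h1.2.1.1, h1.2.1.2.1, h2 _ _ h1.2.1.1 h1.2.1.2.1 h1.2.1.2.2⟩
  have he1 : ∀ᶠ n in (U : Filter ℕ), |e1 n| ≤ 1 := by
    filter_upwards [hF'] with n h1
    have := h1.2.2.1
    rw [← sq_le_one_iff_abs_le_one]
    nlinarith [sq_nonneg (e2 n)]
  -- the strip lies in the strip seen from the new base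
  have hsub : ∀ᶠ n in (U : Filter ℕ),
      stripS B I lev inc σ w0 sa sb p K (K * B.d n ^ y) n (x n) (t1 n) (t2 n) (e1 n) (e2 n) (u n) ⊆
      (I n).filter fun l =>
        Nat8 (trn 1 (inc n (x n)) (inc n (y0 n))) (inc n l) (64 * K ^ 3)
          (rho (lev n 0) * B.d n ^ v) (σ 0 n * B.d n ^ t) (σ 1 n * B.d n ^ yy) ∧
        |e1 n * ((t1 n * coL (trn 1 (inc n (x n)) (inc n (y0 n))) (inc n l) 3 +
            t2 n * coL (trn 1 (inc n (x n)) (inc n (y0 n))) (inc n l) 4) /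
            (σ 0 n * B.d n ^ t)) + e2 n * (coL (trn 1 (inc n (x n)) (inc n (y0 n))) (inc n l) 10 /
              (σ 1 n * B.d n ^ yy))| ≤ (64 * K ^ 3) * B.d n ^ y := by
    filter_upwards [hF', hnat] with n h1 h2 l hl
    have h3 := h1.1.2
    unfold stripS at hl h3
    rw [mem_filter] at hl h3 ⊢
    have dp := fun a => Dp76.dpow_pos B n a
    have s0 := h.σp 0 n
    have s1 := h.σp 1 n
    have r0 := rho_pos (lev n 0)
    have hN := nat8_of_near B h.σp (by linarith) p0 hp hl.2.1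
    refine ⟨hl.1, Nat8.move (mul_pos r0 (dp _)) (mul_pos s0 (dp _)) (mul_pos s1 (dp _)) hK h2.2 hN,
      ?_⟩
    obtain ⟨c0, c3, c4, c5, c6, c9, c10, c11⟩ :=
      coL_trn 1 (inc n (x n)) (inc n (y0 n)) (inc n l)
    rw [c3, c4, c10]
    have u3 : ∀ z, coN B lev inc σ w0 sa sb n (x n) z 3 * B.d n ^ (-(p 3)) =
        coL (inc n (x n)) (inc n z) 3 / (σ 0 n * B.d n ^ t) := by
      intro z
      show B.d n ^ sa / σ 0 n * coL (inc n (x n)) (inc n z) 3 * B.d n ^ (-(p 3)) = _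
      rw [p3, show -(sa + t) = -sa + -t by ring, Dp76.dpow_add, Real.rpow_neg (B.pos n).le,
        Real.rpow_neg (B.pos n).le]
      have := (dp sa).ne'
      have := (dp t).ne'
      field_simp
    have u4 : ∀ z, coN B lev inc σ w0 sa sb n (x n) z 4 * B.d n ^ (-(p 3)) =
        coL (inc n (x n)) (inc n z) 4 / (σ 0 n * B.d n ^ t) := by
      intro z
      show B.d n ^ sa / σ 0 n * coL (inc n (x n)) (inc n z) 4 * B.d n ^ (-(p 3)) = _
      rw [p3, show -(sa + t) = -sa + -t by ring, Dp76.dpow_add, Real.rpow_neg (B.pos n).le,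
        Real.rpow_neg (B.pos n).le]
      have := (dp sa).ne'
      have := (dp t).ne'
      field_simp
    have u10 : ∀ z, coN B lev inc σ w0 sa sb n (x n) z 10 * B.d n ^ (-(p 10)) =
        coL (inc n (x n)) (inc n z) 10 / (σ 1 n * B.d n ^ yy) := by
      intro z
      show B.d n ^ sb / σ 1 n * coL (inc n (x n)) (inc n z) 10 * B.d n ^ (-(p 10)) = _
      rw [p10, show -(sb + yy) = -sb + -yy by ring, Dp76.dpow_add, Real.rpow_neg (B.pos n).le,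
        Real.rpow_neg (B.pos n).le]
      have := (dp sb).ne'
      have := (dp yy).ne'
      field_simp
    have hform : ∀ z, e1 n * ((t1 n * coN B lev inc σ w0 sa sb n (x n) z 3 +
        t2 n * coN B lev inc σ w0 sa sb n (x n) z 4) * B.d n ^ (-(p 3))) +
      e2 n * (coN B lev inc σ w0 sa sb n (x n) z 10 * B.d n ^ (-(p 10))) =
      e1 n * ((t1 n * coL (inc n (x n)) (inc n z) 3 + t2 n * coL (inc n (x n)) (inc n z) 4) /
        (σ 0 n * B.d n ^ t)) + e2 n * (coL (inc n (x n)) (inc n z) 10 / (σ 1 n * B.d n ^ yy)) := by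
      intro z
      rw [u10, add_mul, mul_assoc (t1 n), mul_assoc (t2 n), u3, u4]
      ring
    have h4 := hl.2.2
    have h5 := h3.2.2
    rw [hform] at h4 h5
    have e : e1 n * ((t1 n * (coL (inc n (x n)) (inc n l) 3 - coL (inc n (x n)) (inc n (y0 n)) 3) +
        t2 n * (coL (inc n (x n)) (inc n l) 4 - coL (inc n (x n)) (inc n (y0 n)) 4)) /
        (σ 0 n * B.d n ^ t)) +
      e2 n * (1 * (coL (inc n (x n)) (inc n l) 10 - coL (inc n (x n)) (inc n (y0 n)) 10) /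
        (σ 1 n * B.d n ^ yy)) =
      (e1 n * ((t1 n * coL (inc n (x n)) (inc n l) 3 + t2 n * coL (inc n (x n)) (inc n l) 4) /
        (σ 0 n * B.d n ^ t)) + e2 n * (coL (inc n (x n)) (inc n l) 10 / (σ 1 n * B.d n ^ yy)) -
          u n) -
      (e1 n * ((t1 n * coL (inc n (x n)) (inc n (y0 n)) 3 +
        t2 n * coL (inc n (x n)) (inc n (y0 n)) 4) /
        (σ 0 n * B.d n ^ t)) + e2 n * (coL (inc n (x n)) (inc n (y0 n)) 10 /
          (σ 1 n * B.d n ^ yy)) - u n) := by ring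
    rw [e]
    refine (abs_sub _ _).trans ?_
    have h6 := mul_le_mul_of_nonneg_right hKK (dp y).le
    have h7 := mul_pos (by linarith : (0 : ℝ) < K ^ 3) (dp y)
    linarith
  have hfin := key x y0 t1 t2 e1 e2 (hnat.mono fun n hn => hn.1) hbase hbase2 hdir
    (hF'.mono fun n hn => hn.2.2.1)
  obtain ⟨n, h1, h2, h3⟩ := (hfin.and (hF'.and hsub)).exists
  have h4 : ((stripS B I lev inc σ w0 sa sb p K (K * B.d n ^ y) n (x n) (t1 n) (t2 n) (e1 n) (e2 n)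
        (u n)).card : ℝ) ≤ Bd n := by
    refine le_trans ?_ h1
    exact_mod_cast Finset.card_le_card h3
  exact absurd h2.2.2.2 (not_lt.2 h4)

/-- **(N1) of [NARROW], isotropic case.** -/
theorem strip_iso_L (hM : MkA B I G lev A (fun v => g * v) (fun v => s * v) τ f b vm w)
    (h : LData B I G lev inc σ q M0 c0 Rg θ)
    (hk : ∀ ε : ℝ, 0 < ε → ∀ᶠ n in (U : Filter ℕ), σ 1 n ≤ σ 0 n * B.d n ^ (-ε))
    (hk' : ∀ ε : ℝ, 0 < ε → ∀ᶠ n in (U : Filter ℕ), σ 0 n ≤ σ 1 n * B.d n ^ (-ε))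
    (hflat : ∀ᶠ n in (U : Filter ℕ), ∀ x ∈ I n, (inc n x).et = 0 ∧ (inc n x).d = 0)
    (w0 sa sb : ℝ) {v t y : ℝ} (hθ : θ ≤ v) (hv0 : 0 ≤ v)
    (hv1 : v ≤ 1) (hy : 0 < y) (ht : 0 < t) (hRt : t + y < Rg) {p : Fin 12 → ℝ}
    (p0 : p 0 = w0 + v) (p3 : p 3 = sa + t)
    (p10 : p 10 = sb + t) (hp : ∀ k, Vf k → nbS w0 sa sb v t t k ≤ p k) {K : ℝ} (hK : 1 ≤ K)
    {ε : ℝ} (hε : 0 < ε) :
    ∀ᶠ n in (U : Filter ℕ), ∀ x ∈ I n, ∀ t1 t2 e1 e2 u : ℝ, |t1| ≤ 1 → |t2| ≤ 1 →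
      ‖vb (inc n x)‖ ≤ 16 * |(inc n x).b1 * t2 - (inc n x).b2 * t1| → e1 ^ 2 + e2 ^ 2 = 1 →
      ((stripS B I lev inc σ w0 sa sb p K (K * B.d n ^ y) n x t1 t2 e1 e2 u).card : ℝ) ≤
        (A n * VL σ q lev n * B.d n ^ (-(1 - s))) *
          B.d n ^ (-(DL g s q w0 sa sb p - q 1 * y + ε)) := by
  have hDL : DL g s q w0 sa sb p = DL g s q w0 sa sb (nbS w0 sa sb v t t) := by
    rw [DL_nbS]
    unfold DL
    rw [p0, p3, p10, add_sub_cancel_left, add_sub_cancel_left, add_sub_cancel_left]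
  rw [hDL]
  have hK3 : 1 ≤ K ^ 3 := one_le_pow₀ hK
  refine strip_red h w0 sa sb hθ ht p0 p3 p10 hp hK ?_ ?_
  · intro n
    have hA := (hM.Apos n).le
    have s0 := h.σp 0 n
    have s1 := h.σp 1 n
    have r0 := rho_pos (lev n 0)
    have hV : 0 ≤ VL σ q lev n := by unfold VL; positivity
    have := Dp76.dpow_pos B n (-(1 - s))
    have := Dp76.dpow_pos B n (-(DL g s q w0 sa sb (nbS w0 sa sb v t t) - q 1 * y + ε))
    positivity
  · intro x y0 t1 t2 e1 e2 hx hb hb2 hdir hunit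
    refine strip_C hM h hk hk' w0 sa sb (i := fun n => trn 1 (inc n (x n)) (inc n (y0 n))) ?_
      (hb2.mono fun n hn => by linarith) hdir hunit (by linarith) hθ hv0 hv1 hy ht hRt hε
    filter_upwards [hflat, hx] with n h1 h2
    obtain ⟨g1, g2⟩ := h1 _ h2
    constructor
    · show 1 * ((inc n (x n)).et - 2 * (inc n (x n)).d * _) = 0
      rw [g1, g2]; ring
    · show 1 * (inc n (x n)).d = 0
      rw [g2]; ring

end strips

section mk

variable {B : Base} {I : ℕ → Finset (ℕ × ℝ)} {G : Geo TSet (Fin 2)} {lev : ℕ → ℚ → ℕ}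
    {A : ℕ → ℝ} {g s : ℝ} {θ : Fin 2 → ℝ} {f : ℕ → ℚ → ℕ → ℤ → ℕ} {b : ℕ → ℚ → ℕ → TSet}
    {vm : ℕ → ℚ → ℝ} {w : Fin 2 → ℕ → ℚ → ℝ} {q : Fin 2 → ℝ}
    {fl : ℕ → ℕ × ℝ → LInc} {M0 c0 Rg ϑ : ℝ}

/-- **(N1) of [NARROW], isotropic case, in the literals of 504 and 468.** -/
theorem strip_iso_T (hM : MkA B I G lev A (fun v => g * v) (fun v => s * v)
    (fun j v => θ j * (1 - v)) f b vm w) (h : LData B I G lev fl (sN lev w) q M0 c0 Rg ϑ)
    (hwid : ∀ j (t : TSet), G.wid j t = (1 / 2 : ℝ) ^ t.1 j)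
    (hk : ∀ ε : ℝ, 0 < ε → ∀ᶠ n in (U : Filter ℕ), sN lev w 1 n ≤ sN lev w 0 n * B.d n ^ (-ε))
    (hk' : ∀ ε : ℝ, 0 < ε → ∀ᶠ n in (U : Filter ℕ), sN lev w 0 n ≤ sN lev w 1 n * B.d n ^ (-ε))
    (hflat : ∀ᶠ n in (U : Filter ℕ), ∀ x ∈ I n, (fl n x).et = 0 ∧ (fl n x).d = 0)
    (w0 sa sb : ℝ) {v t y : ℝ} (hθ : ϑ ≤ v) (hv0 : 0 ≤ v)
    (hv1 : v ≤ 1) (hy : 0 < y) (ht : 0 < t) (hRt : t + y < Rg) {p : Fin 12 → ℝ}
    (p0 : p 0 = w0 + v) (p3 : p 3 = sa + t)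
    (p10 : p 10 = sb + t) (hp : ∀ k, Vf k → nbS w0 sa sb v t t k ≤ p k) {K : ℝ} (hK : 1 ≤ K)
    {ε : ℝ} (hε : 0 < ε) :
    ∀ᶠ n in (U : Filter ℕ), ∀ x ∈ I n, ∀ t1 t2 e1 e2 u : ℝ, |t1| ≤ 1 → |t2| ≤ 1 →
      ‖vb (fl n x)‖ ≤ 16 * |(fl n x).b1 * t2 - (fl n x).b2 * t1| → e1 ^ 2 + e2 ^ 2 = 1 →
      ((stripS B I lev fl (sN lev w) w0 sa sb p K (K * B.d n ^ y) n x t1 t2 e1 e2 u).card : ℝ) ≤
        (A n * vm n 0 * B.d n ^ (-(1 - s))) *
          B.d n ^ (-(DT g s q θ w0 sa sb p - q 1 * y + ε)) := by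
  filter_upwards [strip_iso_L hM h hk hk' hflat w0 sa sb hθ hv0 hv1 hy ht hRt p0 p3 p10 hp hK
    (show 0 < ε / 2 by linarith), N0_le hM h hwid w0 sa sb p (q 1 * y) hε] with n h1 h2
    x hx t1 t2 e1 e2 u g1 g2 g3 g4
  exact (h1 x hx t1 t2 e1 e2 u g1 g2 g3 g4).trans h2

theorem gam_le {q : Fin 2 → ℝ} (h1 : 0 ≤ q 1) : gam q ≤ q 1 :=
  (min_le_left _ _).trans (by linarith)

end mk

end Crest.Agent.R116.Gd222
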