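import Crest.Agent.R116.Nar4_192
import Crest.Agent.R116.Gt4_222

/-!
# R116, GEO-D of the light-ray chart (helper222), part 11: velocity strips, flat flags, slots 3, 4

* `iso_seq` : D-max for the strips `|e1 C1 + e2 C2| ≤ K c d^y`, seen from a sequence of members.
* `N34` : uniform form in normalised coordinates; `n34_of` : it holds (504's, 468's letters).
* `prof_dead` : slots which vanish identically cost nothing.
-/

set_option autoImplicit false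
set_option linter.unusedVariables false
set_option linter.unusedSectionVars false

open Finset Filter Topology

namespace Crest.Agent.R116.Gi222

open Crest.Agent.R138.Defs (E2)
open Crest.Agent.R138.Ex926
open Crest.Agent.R138.Mk163 (zc zl rho alive)
open Crest.Agent.R138.Dp76 (dpow_pos dpow_add dpow_le)
open Crest.Agent.R138
open Crest.Agent.R136.MkA627
open Crest.Agent.R136.Net191
open Crest.Agent.R136.PqG464
open Crest.Agent.R136.Qg926
open Crest.Agent.R136.Lq196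
open Crest.Agent.R136.NSt107 (NsW)
open Crest.Agent.R116.LZg725
open Crest.Agent.R116.ChL222
open Crest.Agent.R116.PL504 (uL eL)
open Crest.Agent.R116.Gd222
open Crest.Agent.R116.Nar192

section seq

variable {B : Base} {I : ℕ → Finset (ℕ × ℝ)} {G : Geo TSet (Fin 2)} {lev : ℕ → ℚ → ℕ}
    {A : ℕ → ℝ} {g s : ℝ} {τ : Fin 2 → ℝ → ℝ} {f : ℕ → ℚ → ℕ → ℤ → ℕ} {b : ℕ → ℚ → ℕ → TSet}
    {vm : ℕ → ℚ → ℝ} {w : Fin 2 → ℕ → ℚ → ℝ}
    {inc : ℕ → ℕ × ℝ → LInc} {σ : Fin 2 → ℕ → ℝ} {q : Fin 2 → ℝ} {M0 c0 Rg θ : ℝ}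

/-- the flat flag of direction `(e1, e2)` at `i` -/
def flb (e1 e2 : ℝ) (i : LInc) : LInc := { i with b1 := e1, b2 := e2 }

theorem coL_flb (e1 e2 : ℝ) {i : LInc} (l : LInc) (h : i.et = 0 ∧ i.d = 0) :
    coL (flb e1 e2 i) l 0 = coL i l 0 ∧ coL (flb e1 e2 i) l 3 = coL i l 3 ∧
    coL (flb e1 e2 i) l 4 = coL i l 4 ∧ coL (flb e1 e2 i) l 5 = coL i l 5 ∧
    coL (flb e1 e2 i) l 6 = coL i l 6 ∧ coL (flb e1 e2 i) l 9 = coL i l 9 ∧
    coL (flb e1 e2 i) l 10 = e1 * coL i l 3 + e2 * coL i l 4 ∧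
    coL (flb e1 e2 i) l 11 = e1 * coL i l 5 + e2 * coL i l 6 := by
  obtain ⟨h1, h2⟩ := h
  simp only [coL, nuL, flb, LInc.p1, LInc.p2, LInc.ph, Matrix.cons_val, h1, h2]
  refine ⟨trivial, trivial, trivial, trivial, trivial, trivial, by ring, by ring⟩

set_option maxHeartbeats 1000000 in
open Classical in
/-- **velocity strips seen from a sequence of members** -/
theorem iso_seq (hM : MkA B I G lev A (fun v => g * v) (fun v => s * v) τ f b vm w)
    (h : LData B I G lev inc σ q M0 c0 Rg θ)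
    (hk : ∀ ε : ℝ, 0 < ε → ∀ᶠ n in (U : Filter ℕ), σ 1 n ≤ σ 0 n * B.d n ^ (-ε))
    (hk' : ∀ ε : ℝ, 0 < ε → ∀ᶠ n in (U : Filter ℕ), σ 0 n ≤ σ 1 n * B.d n ^ (-ε))
    (w0 sa sb : ℝ) {i : ℕ → LInc} (hflat : ∀ᶠ n in (U : Filter ℕ), (i n).et = 0 ∧ (i n).d = 0)
    {e1 e2 : ℕ → ℝ} (hunit : ∀ᶠ n in (U : Filter ℕ), e1 n ^ 2 + e2 n ^ 2 = 1) {v t y K : ℝ}
    (hK : 1 ≤ K) (hθ : θ ≤ v) (hv0 : 0 ≤ v) (hv1 : v ≤ 1) (hy : 0 < y) (ht : 0 < t)
    (hRt : t + y < Rg) {ε : ℝ} (hε : 0 < ε) :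
    ∀ᶠ n in (U : Filter ℕ), (((I n).filter fun l =>
        Nat8 (i n) (inc n l) K (rho (lev n 0) * B.d n ^ v) (σ 0 n * B.d n ^ t)
          (σ 1 n * B.d n ^ t) ∧
        |e1 n * coL (i n) (inc n l) 3 + e2 n * coL (i n) (inc n l) 4| ≤
          K * ((σ 0 n * B.d n ^ t) * B.d n ^ y)).card : ℝ) ≤
      (A n * VL σ q lev n * B.d n ^ (-(1 - s))) *
        B.d n ^ (-(DL g s q w0 sa sb (nbS w0 sa sb v t t) - q 1 * y + ε)) := by
  have hq0 := h.qp 0
  have hq1 := h.qp 1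
  obtain ⟨η, hη, hη1, hη2⟩ : ∃ η : ℝ, 0 < η ∧ (4 + q 0 + q 1) * η ≤ ε / 4 ∧ η ≤ t / 2 := by
    refine ⟨min (ε / 4 / (4 + q 0 + q 1)) (t / 2), lt_min (by positivity) (by linarith), ?_,
      min_le_right _ _⟩
    have := min_le_left (ε / 4 / (4 + q 0 + q 1)) (t / 2)
    rw [le_div_iff₀ (by linarith)] at this
    linarith
  have key := strip_C hM h hk hk' w0 sa sb (i := fun n => flb (e1 n) (e2 n) (i n))
    (hflat.mono fun n hn => hn) (by
      filter_upwards [hunit] with n hn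
      have e : ‖vb (flb (e1 n) (e2 n) (i n))‖ ^ 2 = 1 := by
        rw [normsq2]
        have a0 : vb (flb (e1 n) (e2 n) (i n)) 0 = e1 n := rfl
        have a1 : vb (flb (e1 n) (e2 n) (i n)) 1 = e2 n := rfl
        rw [a0, a1, hn]
      have h1 := norm_nonneg (vb (flb (e1 n) (e2 n) (i n)))
      nlinarith) (t1 := fun n => -(e2 n)) (t2 := fun n => e1 n) (e1 := fun _ => 0)
    (e2 := fun _ => 1) (by
      filter_upwards [hunit] with n hn
      have b1 : |e1 n| ≤ 1 := by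
        rw [← sq_le_one_iff_abs_le_one]; nlinarith [sq_nonneg (e2 n)]
      have b2 : |e2 n| ≤ 1 := by
        rw [← sq_le_one_iff_abs_le_one]; nlinarith [sq_nonneg (e1 n)]
      refine ⟨by rwa [abs_neg], b1, ?_⟩
      have e : ‖vb (flb (e1 n) (e2 n) (i n))‖ ^ 2 = 1 := by
        rw [normsq2]
        have a0 : vb (flb (e1 n) (e2 n) (i n)) 0 = e1 n := rfl
        have a1 : vb (flb (e1 n) (e2 n) (i n)) 1 = e2 n := rfl
        rw [a0, a1, hn]
      have h1 := norm_nonneg (vb (flb (e1 n) (e2 n) (i n)))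
      have h2 : ‖vb (flb (e1 n) (e2 n) (i n))‖ ≤ 1 := by nlinarith
      have h3 : (flb (e1 n) (e2 n) (i n)).b1 * e1 n - (flb (e1 n) (e2 n) (i n)).b2 * -(e2 n) = 1 := by
        show e1 n * e1 n - e2 n * -(e2 n) = 1
        nlinarith
      rw [h3, abs_one]
      linarith)
    (Eventually.of_forall fun n => by norm_num) (v := v) (t := t - η) (y := y) (K := 2 * K)
    (by linarith) hθ hv0 hv1 hy (by linarith) (by linarith) (ε := ε / 4) (by linarith)
  filter_upwards [key, hk' η hη, hflat, hunit] with n n1 n2 n3 n4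
  have dp := fun a => Dp76.dpow_pos B n a
  have s0 := h.σp 0 n
  have s1 := h.σp 1 n
  have r0 := rho_pos (lev n 0)
  obtain ⟨R, hR⟩ : ∃ R : ℝ, R = rho (lev n 0) * B.d n ^ v := ⟨_, rfl⟩
  obtain ⟨c, hc⟩ : ∃ c : ℝ, c = σ 0 n * B.d n ^ t := ⟨_, rfl⟩
  obtain ⟨c', hc'⟩ : ∃ c' : ℝ, c' = σ 1 n * B.d n ^ t := ⟨_, rfl⟩
  obtain ⟨C, hC⟩ : ∃ C : ℝ, C = σ 0 n * B.d n ^ (t - η) := ⟨_, rfl⟩
  obtain ⟨C', hC'⟩ : ∃ C' : ℝ, C' = σ 1 n * B.d n ^ (t - η) := ⟨_, rfl⟩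
  rw [← hR, ← hC, ← hC'] at n1
  rw [← hR, ← hc, ← hc']
  have Rp : 0 < R := by rw [hR]; exact mul_pos r0 (dp _)
  have cp : 0 < c := by rw [hc]; exact mul_pos s0 (dp _)
  have cp' : 0 < c' := by rw [hc']; exact mul_pos s1 (dp _)
  have Cp : 0 < C := by rw [hC]; exact mul_pos s0 (dp _)
  have Cp' : 0 < C' := by rw [hC']; exact mul_pos s1 (dp _)
  have hK0 : 0 < K := by linarith
  have cC : c ≤ C := by
    rw [hc, hC]; exact mul_le_mul_of_nonneg_left (Dp76.dpow_le B n (by linarith)) s0.le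
  have cC' : c' ≤ C' := by
    rw [hc', hC']; exact mul_le_mul_of_nonneg_left (Dp76.dpow_le B n (by linarith)) s1.le
  have ccC : c ≤ C' := by
    rw [hc, hC']
    calc σ 0 n * B.d n ^ t ≤ (σ 1 n * B.d n ^ (-η)) * B.d n ^ t :=
          mul_le_mul_of_nonneg_right n2 (dp _).le
      _ = σ 1 n * B.d n ^ (t - η) := by
          rw [mul_assoc, ← Dp76.dpow_add, show -η + t = t - η by ring]
  refine le_trans (Nat.cast_le.2 (card_le_card fun l hl => ?_)) (n1.trans ?_)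
  · rw [mem_filter] at hl ⊢
    obtain ⟨l1, l2, l3⟩ := hl
    obtain ⟨f0, f3, f4, f5, f6, f9, f10, f11⟩ := coL_flb (e1 n) (e2 n) (inc n l) n3
    have a1 : |e1 n| ≤ 1 := by
      rw [← sq_le_one_iff_abs_le_one]; nlinarith [sq_nonneg (e2 n)]
    have a2 : |e2 n| ≤ 1 := by
      rw [← sq_le_one_iff_abs_le_one]; nlinarith [sq_nonneg (e1 n)]
    have hd1 : B.d n ^ y ≤ 1 := Real.rpow_le_one (B.pos n).le (B.lt n).le hy.le
    have up : ∀ {x X Y : ℝ}, 0 ≤ X → X ≤ Y → |x| ≤ K * X → |x| ≤ 2 * K * Y := by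
      intro x X Y hX hXY hx
      have h1 : K * X ≤ K * Y := mul_le_mul_of_nonneg_left hXY hK0.le
      have h2 : 0 ≤ K * Y := mul_nonneg hK0.le (hX.trans hXY)
      linarith
    have g10 : |coL (flb (e1 n) (e2 n) (i n)) (inc n l) 10| ≤ K * (C' * B.d n ^ y) := by
      rw [f10]
      exact l3.trans (mul_le_mul_of_nonneg_left (mul_le_mul_of_nonneg_right ccC (dp _).le) hK0.le)
    refine ⟨l1, ⟨by rw [f0]; exact up Rp.le le_rfl l2.h0, by rw [f3]; exact up cp.le cC l2.h3,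
      by rw [f4]; exact up cp.le cC l2.h4,
      by rw [f5]; exact up (by positivity) (mul_le_mul_of_nonneg_right cC Rp.le) l2.h5,
      by rw [f6]; exact up (by positivity) (mul_le_mul_of_nonneg_right cC Rp.le) l2.h6,
      by rw [f9]; exact up (by positivity) (mul_le_mul_of_nonneg_right
        (pow_le_pow_left₀ cp.le cC 2) Rp.le) l2.h9, ?_, ?_⟩, ?_⟩
    · refine g10.trans ?_
      have h1 : C' * B.d n ^ y ≤ C' * 1 := mul_le_mul_of_nonneg_left hd1 Cp'.le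
      have h2 := mul_le_mul_of_nonneg_left h1 hK0.le
      have h3 : 0 ≤ K * C' := by positivity
      linarith
    · rw [f11]
      refine (abs_add_le _ _).trans ?_
      rw [abs_mul, abs_mul]
      have b1 : |e1 n| * |coL (i n) (inc n l) 5| ≤ 1 * (K * (c * R)) :=
        mul_le_mul a1 l2.h5 (abs_nonneg _) zero_le_one
      have b2 : |e2 n| * |coL (i n) (inc n l) 6| ≤ 1 * (K * (c * R)) :=
        mul_le_mul a2 l2.h6 (abs_nonneg _) zero_le_one
      have b3 : K * (c * R) ≤ K * (C' * R) :=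
        mul_le_mul_of_nonneg_left (mul_le_mul_of_nonneg_right ccC Rp.le) hK0.le
      linarith
    · rw [zero_mul, zero_add, one_mul, abs_div, abs_of_pos Cp', div_le_iff₀ Cp']
      refine g10.trans ?_
      have h3 : 0 ≤ K * (B.d n ^ y * C') := mul_nonneg hK0.le (mul_nonneg (dp _).le Cp'.le)
      nlinarith
  · have hN0 : 0 ≤ A n * VL σ q lev n * B.d n ^ (-(1 - s)) := by
      have hA := (hM.Apos n).le
      have hV : 0 ≤ VL σ q lev n := by unfold VL; positivity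
      have := dp (-(1 - s))
      positivity
    refine mul_le_mul_of_nonneg_left (Dp76.dpow_le B n ?_) hN0
    rw [DL_nbS, DL_nbS]
    unfold FL
    nlinarith

end seq

/-! ### the uniform form -/

open Classical in
/-- **D-max for velocity strips at the box `rc`**, seen from a member -/
def N34 (B : Base) (I : ℕ → Finset (ℕ × ℝ)) (co : ∀ n : ℕ, ℕ × ℝ → ℕ × ℝ → Fin 12 → ℝ)
    (N0 : ℕ → ℝ) (rc : Fin 12 → ℝ) (y t : ℝ) : Prop :=
  ∀ K : ℝ, 1 ≤ K → ∀ ε : ℝ, 0 < ε → ∀ᶠ n in (U : Filter ℕ), ∀ y0 ∈ I n, ∀ e1 e2 : ℝ,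
    e1 ^ 2 + e2 ^ 2 = 1 →
      (((I n).filter fun j => (∀ k, Vf k → |co n y0 j k| ≤ K * B.d n ^ rc k) ∧
        |e1 * (co n y0 j 3 / B.d n ^ rc 3) + e2 * (co n y0 j 4 / B.d n ^ rc 3)| ≤
          K * B.d n ^ y).card : ℝ) ≤ N0 n * B.d n ^ (-(t + ε))

open Classical in
theorem N34.mono_set {B : Base} {I I0 : ℕ → Finset (ℕ × ℝ)}
    {co : ∀ n : ℕ, ℕ × ℝ → ℕ × ℝ → Fin 12 → ℝ} {N0 : ℕ → ℝ} {rc : Fin 12 → ℝ} {y t : ℝ}
    (h : N34 B I co N0 rc y t) (hsub : ∀ n, I0 n ⊆ I n) : N34 B I0 co N0 rc y t := by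
  intro K hK ε hε
  filter_upwards [h K hK ε hε] with n hn y0 hy0 e1 e2 he
  refine le_trans ?_ (hn y0 (hsub n hy0) e1 e2 he)
  exact Nat.cast_le.2 (card_le_card (filter_subset_filter _ (hsub n)))

section unif

variable {B : Base} {I : ℕ → Finset (ℕ × ℝ)} {G : Geo TSet (Fin 2)} {lev : ℕ → ℚ → ℕ}
    {A : ℕ → ℝ} {g s : ℝ} {θ : Fin 2 → ℝ} {f : ℕ → ℚ → ℕ → ℤ → ℕ} {b : ℕ → ℚ → ℕ → TSet}
    {vm : ℕ → ℚ → ℝ} {w : Fin 2 → ℕ → ℚ → ℝ} {q : Fin 2 → ℝ}
    {fl : ℕ → ℕ × ℝ → LInc} {M0 c0 Rg ϑ : ℝ}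

set_option maxHeartbeats 1000000 in
open Classical in
/-- **velocity strips, uniform form** -/
theorem n34_of (hM : MkA B I G lev A (fun v => g * v) (fun v => s * v)
    (fun j v => θ j * (1 - v)) f b vm w) (h : LData B I G lev fl (sN lev w) q M0 c0 Rg ϑ)
    (hwid : ∀ j (t : TSet), G.wid j t = (1 / 2 : ℝ) ^ t.1 j)
    (hk : ∀ ε : ℝ, 0 < ε → ∀ᶠ n in (U : Filter ℕ), sN lev w 1 n ≤ sN lev w 0 n * B.d n ^ (-ε))
    (hk' : ∀ ε : ℝ, 0 < ε → ∀ᶠ n in (U : Filter ℕ), sN lev w 0 n ≤ sN lev w 1 n * B.d n ^ (-ε))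
    (hflat : ∀ n x, (fl n x).et = 0 ∧ (fl n x).d = 0)
    (w0 sa sb : ℝ) {v t y : ℝ} (hθ : ϑ ≤ v) (hv0 : 0 ≤ v) (hv1 : v ≤ 1) (hy : 0 < y) (ht : 0 < t)
    (hRt : t + y < Rg) {rc : Fin 12 → ℝ}
    (r0 : rc 0 = w0 + v) (r3 : rc 3 = sa + t) (r10 : rc 10 = sb + t)
    (hr : ∀ k, Vf k → nbS w0 sa sb v t t k ≤ rc k) :
    N34 B I (PL504.coN B lev w w0 sa sb fl) (fun n => A n * vm n 0 * B.d n ^ (-(1 - s))) rc y
      (DT g s q θ w0 sa sb rc - q 1 * y) := by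
  intro K hK ε hε
  have hK0 : 0 < K := by linarith
  set Bd : ℕ → ℝ := fun n => (A n * vm n 0 * B.d n ^ (-(1 - s))) *
    B.d n ^ (-(DT g s q θ w0 sa sb rc - q 1 * y + ε)) with hBd
  have hN0 := N0_le hM h hwid w0 sa sb rc (q 1 * y) hε
  have hDL : DL g s q w0 sa sb rc = DL g s q w0 sa sb (nbS w0 sa sb v t t) := by
    rw [DL_nbS]
    unfold DL
    rw [r0, r3, r10, add_sub_cancel_left, add_sub_cancel_left, add_sub_cancel_left]
  rw [hDL] at hN0
  by_contra hcon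
  rw [← Ultrafilter.eventually_not] at hcon
  obtain ⟨S, hS⟩ : ∃ S : ∀ (n : ℕ) (y0 : ℕ × ℝ) (e1 e2 : ℝ), Finset (ℕ × ℝ),
      S = fun n y0 e1 e2 => (I n).filter fun j =>
        (∀ k, Vf k → |PL504.coN B lev w w0 sa sb fl n y0 j k| ≤ K * B.d n ^ rc k) ∧
        |e1 * (PL504.coN B lev w w0 sa sb fl n y0 j 3 / B.d n ^ rc 3) +
          e2 * (PL504.coN B lev w w0 sa sb fl n y0 j 4 / B.d n ^ rc 3)| ≤ K * B.d n ^ y :=
    ⟨_, rfl⟩
  have hex : ∀ᶠ n in (U : Filter ℕ), ∃ Z : (ℕ × ℝ) × (ℝ × ℝ),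
      Z.1 ∈ I n ∧ Z.2.1 ^ 2 + Z.2.2 ^ 2 = 1 ∧ Bd n < ((S n Z.1 Z.2.1 Z.2.2).card : ℝ) := by
    filter_upwards [hcon] with n hn
    push Not at hn
    obtain ⟨y0, hy0, e1, e2, h3, h4⟩ := hn
    refine ⟨(y0, e1, e2), hy0, h3, ?_⟩
    rw [hS]
    exact h4
  obtain ⟨F, hF⟩ := hex.choice
  have hfin := iso_seq hM h hk hk' w0 sa sb (i := fun n => fl n (F n).1)
    (Eventually.of_forall fun n => hflat n _) (e1 := fun n => (F n).2.1) (e2 := fun n => (F n).2.2)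
    (hF.mono fun n hn => hn.2.1) (v := v) (t := t) (y := y) hK hθ hv0 hv1 hy ht hRt
    (ε := ε / 2) (by linarith)
  obtain ⟨n, g1, g2, g4⟩ := (hfin.and (hF.and hN0)).exists
  have dp := fun a => Dp76.dpow_pos B n a
  have s0 := h.σp 0 n
  have s1 := h.σp 1 n
  have hsub : S n (F n).1 (F n).2.1 (F n).2.2 ⊆ (I n).filter fun l =>
        Nat8 (fl n (F n).1) (fl n l) K (rho (lev n 0) * B.d n ^ v)
          (sN lev w 0 n * B.d n ^ t) (sN lev w 1 n * B.d n ^ t) ∧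
        |(F n).2.1 * coL (fl n (F n).1) (fl n l) 3 + (F n).2.2 * coL (fl n (F n).1) (fl n l) 4| ≤
          K * ((sN lev w 0 n * B.d n ^ t) * B.d n ^ y) := by
    intro l hl
    rw [hS] at hl
    obtain ⟨l1, l2, l3⟩ := mem_filter.1 hl
    refine mem_filter.2 ⟨l1, nat8_of_near B h.σp hK0.le r0 hr l2, ?_⟩
    have u3 : ∀ k, k = 3 ∨ k = 4 → PL504.coN B lev w w0 sa sb fl n (F n).1 l k / B.d n ^ rc 3 =
        coL (fl n (F n).1) (fl n l) k / (sN lev w 0 n * B.d n ^ t) := by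
      intro k hk
      rw [r3, Dp76.dpow_add]
      have z1 := (dp sa).ne'
      have z2 := (dp t).ne'
      have z3 := s0.ne'
      rcases hk with rfl | rfl
      · show B.d n ^ sa / sN lev w 0 n * coL (fl n (F n).1) (fl n l) 3 / _ = _
        field_simp
      · show B.d n ^ sa / sN lev w 0 n * coL (fl n (F n).1) (fl n l) 4 / _ = _
        field_simp
    rw [u3 3 (Or.inl rfl), u3 4 (Or.inr rfl)] at l3
    have hc : 0 < sN lev w 0 n * B.d n ^ t := mul_pos s0 (dp _)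
    have e : (F n).2.1 * (coL (fl n (F n).1) (fl n l) 3 / (sN lev w 0 n * B.d n ^ t)) +
        (F n).2.2 * (coL (fl n (F n).1) (fl n l) 4 / (sN lev w 0 n * B.d n ^ t)) =
        ((F n).2.1 * coL (fl n (F n).1) (fl n l) 3 + (F n).2.2 * coL (fl n (F n).1) (fl n l) 4) /
          (sN lev w 0 n * B.d n ^ t) := by ring
    rw [e, abs_div, abs_of_pos hc, div_le_iff₀ hc] at l3
    refine l3.trans (le_of_eq (by ring))
  have h4 : ((S n (F n).1 (F n).2.1 (F n).2.2).card : ℝ) ≤ Bd n :=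
    (Nat.cast_le.2 (card_le_card hsub)).trans (g1.trans (by
      refine le_trans (le_of_eq ?_) g4
      rfl))
  exact absurd g2.2.2 (not_lt.2 h4)

end unif

/-! ### dead slots -/

/-- slots of the second box cost nothing if near pairs of the first box are near pairs of the
second one -/
theorem prof_dead {m : ℕ} {B : Base} {ι : ℕ → Type*} [∀ n, DecidableEq (ι n)]
    {I0 I : ∀ n, Finset (ι n)} {co : ∀ n, ι n → ι n → Fin m → ℝ} {M : Mons m} {C R : ℝ}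
    {ν : (Fin m → ℝ) → ℝ} (hne : ∀ᶠ n in (U : Filter ℕ), (I n).Nonempty)
    (hsub : ∀ n, I n ⊆ I0 n) (hch : ∀ n, Chart (I0 n) (co n) M C)
    (hP : QProf B I (nlab B I0 co M C) (Leg M R) ν) {p p' : Fin m → ℝ} (hp : p ∈ Leg M R)
    (hp' : p' ∈ Leg M R) (hd : ∀ n, ∀ i ∈ I0 n, ∀ j ∈ I0 n, ∀ k, p k < p' k → co n i j k = 0) :
    ν p ≤ ν p' := by
  classical
  refine le_of_forall_pos_le_add fun ε hε => ?_
  have hC : 0 ≤ C := (hch 0).C0
  have hK0 : 1 ≤ cK0 M C := cK0_one hC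
  have hN := cN_pos M hC hK0
  have hε4 : 0 < ε / 4 := by linarith
  obtain ⟨n, hn1, hn2, hn3, hn4⟩ := ((hP.up _ hε4).and ((hP.root _ hε4).and
    ((B.ev_const_log (Real.log (cN M C (cK0 M C))) hε4).and hne))).exists
  have hd0 := B.pos n
  have hd1 := (B.lt n).le
  have dp := fun a => Dp76.dpow_pos B n a
  have hcN : cN M C (cK0 M C) ≤ B.d n ^ (-(ε / 4)) := by
    rw [← B.exp_eq, ← Real.log_le_iff_le_exp hN]
    exact hn3
  -- labels of `p'` against labels of `p`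
  have h1 : (((I n).image (nlab B I0 co M C n p')).card : ℝ) ≤
      cN M C (cK0 M C) * ((I n).image (nlab B I0 co M C n p)).card := by
    refine card_image_le_mul (I n) _ _ fun x hx => ?_
    have hxI := hsub n hx
    have h2 := card_nlab_le (B := B) hch (n := n) hp'.1 hp'.1 le_rfl hK0 hxI
    simp only [sub_self, Finset.sum_const_zero, neg_zero, Real.rpow_zero, mul_one] at h2
    refine le_trans ?_ h2
    refine Nat.cast_le.2 (card_le_card (image_subset_image fun z hz => ?_))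
    obtain ⟨z1, z2⟩ := mem_cls.1 hz
    have hzI := hsub n z1
    rw [mem_filter]
    refine ⟨hzI, fun k => ?_⟩
    have h3 := near_of_nlab hch hp.1 hxI hzI z2.symm k
    rcases lt_or_ge (p k) (p' k) with hlt | hge
    · rw [hd n x hxI z hzI k hlt, abs_zero]
      exact mul_nonneg (by linarith) (dp _).le
    · exact h3.trans (mul_le_mul_of_nonneg_left (Dp76.dpow_le B n hge) (by linarith))
  have h2 := hn2 p hp
  -- the classes of `p'` are small
  have h3 : ((I n).card : ℝ) ≤ ((I n).image (nlab B I0 co M C n p')).card *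
      B.d n ^ (-(ν p' + ε / 4)) :=
    card_le_image_mul (I n) (I n) (nlab B I0 co M C n p') subset_rfl (dp _).le fun y hy => by
      have := hn1 p' hp' y hy
      unfold cls at this
      exact this
  have hI : (0 : ℝ) < (I n).card := by exact_mod_cast card_pos.2 hn4
  have h5 : ((I n).card : ℝ) ≤ (I n).card * B.d n ^ (-(ε / 4) + (ν p - ε / 4) + -(ν p' + ε / 4)) := by
    calc ((I n).card : ℝ) ≤ ((I n).image (nlab B I0 co M C n p')).card *
          B.d n ^ (-(ν p' + ε / 4)) := h3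
      _ ≤ (B.d n ^ (-(ε / 4)) * ((I n).card * B.d n ^ (ν p - ε / 4))) *
          B.d n ^ (-(ν p' + ε / 4)) := by
          refine mul_le_mul_of_nonneg_right (h1.trans ?_) (dp _).le
          exact mul_le_mul hcN h2 (Nat.cast_nonneg _) (dp _).le
      _ = _ := by rw [Dp76.dpow_add, Dp76.dpow_add]; ring
  have h6 : 1 ≤ B.d n ^ (-(ε / 4) + (ν p - ε / 4) + -(ν p' + ε / 4)) := by
    by_contra h7
    have := mul_lt_mul_of_pos_left (not_le.1 h7) hI
    linarith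
  by_contra h7
  have h8 : 0 < -(ε / 4) + (ν p - ε / 4) + -(ν p' + ε / 4) := by
    have := not_le.1 h7
    linarith
  exact absurd h6 (not_le.2 (Real.rpow_lt_one hd0.le (B.lt n) h8))

end Crest.Agent.R116.Gi222
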