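import Crest.Agent.R116.Gi1_222

/-!
# R116, GEO-D of the light-ray chart (helper222), part 12: velocity strips, round case

* `strB_34` : `N34` at the record box ⊢ strips of the slots `3`, `4` of the classes of the sample.
* `nsW_34` : windows with base points `x l`, record boxes `rc l`, scales `h l`: `NsW W 3 4 q R0`.
-/

set_option autoImplicit false
set_option linter.unusedVariables false
set_option linter.unusedSectionVars false

open Finset Filter Topology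

namespace Crest.Agent.R116.Gi222

open Crest.Agent.R138.Defs (E2)
open Crest.Agent.R138.Ex926
open Crest.Agent.R138.Mk163 (zc zl rho alive)
open Crest.Agent.R138.Dp76 (dpow_pos dpow_add dpow_le)
open Crest.Agent.R138
open Crest.Agent.R136.MkA627
open Crest.Agent.R136.Net191
open Crest.Agent.R136.Qg926
open Crest.Agent.R136.Lq196
open Crest.Agent.R136.NSt107 (NsW)
open Crest.Agent.R116.LZg725
open Crest.Agent.R116.ChL222
open Crest.Agent.R116.PL504 (rL eL coN)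
open Crest.Agent.R116.EvL504
open Crest.Agent.R116.Gd222 (Vf NearS TSet sN DT nbS LData)
open Crest.Agent.R116.Nar192

/-- differences of the functional of the slots `3`, `4` -/
theorem sfN34 {cf : ℕ × ℝ → ℕ × ℝ → Fin 12 → ℝ} {x j l : ℕ × ℝ}
    (hadd : cf x l = comp (cf x j) (cf j l)) {θ : Par3} (hg : θ.2.2 = 0) {κA κB d : ℝ}
    (hκA : 0 < κA) (hκB : 0 < κB) {p : Fin 12 → ℝ} (h34 : p 4 = p 3) (hd : 0 < d ^ p 3) :
    SfN cf 3 4 Phi3 κA κB d p θ x l - SfN cf 3 4 Phi3 κA κB d p θ x j =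
      θ.1 / κA * (cf j l 3 / d ^ p 3) + θ.2.1 / κB * (cf j l 4 / d ^ p 3) := by
  have e3 : cf x l 3 = cf x j 3 + cf j l 3 := by rw [hadd]; rfl
  have e4 : cf x l 4 = cf x j 4 + cf j l 4 := by rw [hadd]; rfl
  unfold SfN Phi3
  rw [hg, h34, e3, e4]
  have h1 := hκA.ne'
  have h2 := hκB.ne'
  have h3 := hd.ne'
  field_simp
  ring

section light

variable {B : Base} {I0 I' : ℕ → Finset (ℕ × ℝ)} {lev : ℕ → ℚ → ℕ} {w : Fin 2 → ℕ → ℚ → ℝ}
    {w0 sa sb : ℝ} {fl : ℕ → ℕ × ℝ → LInc} {C R w0' s s' : ℝ} {kz : Fin 12}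
    {PD : Set (Fin 12 → ℝ)} {D : (Fin 12 → ℝ) → ℝ} {r o : ℝ → Fin 12 → ℝ} {E : ℝ → ℝ}
    {T : Fin 12 → Prop} {ν own : (Fin 12 → ℝ) → ℝ} {c₀ : ℝ} {N0 : ℕ → ℝ}

set_option maxHeartbeats 1000000 in
open Classical in
/-- **velocity strips of the classes of the sample** -/
theorem strB_34
    (hx : ExtQ B I0 I' (coN B lev w w0 sa sb fl) monL C R kz w0' s PD D r o E T ν own c₀)
    (hR : 0 ≤ R) (hc : CombQ B I0 I' lev (coN B lev w w0 sa sb fl) monL C R N0 c₀)
    {κA κB : ℝ} (hκA : 0 < κA) (hκB : 0 < κB) {p rc : Fin 12 → ℝ} (hp : p ∈ Leg monL R)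
    (hrc : rc ∈ Leg monL R) (h3 : p 3 = rc 3) (h4 : p 4 = rc 3) {y z t : ℝ}
    (hyR : p 3 + y ≤ R) (h1 : N34 B I0 (coN B lev w w0 sa sb fl) N0 rc y t) :
    StrB B I0 I' (coN B lev w w0 sa sb fl) monL C 3 4 Phi3 (Ok3 0) κA κB p y z
      (ν p - ν (p ⊔ rc) + c₀ + t) := by
  intro ε hε
  have hcoc := Crest.Agent.R116.Sd369.coc_N B lev w w0 sa sb fl
  have h34 : p 4 = p 3 := by rw [h3, h4]
  have hg0 : ∀ {D : ℝ} {θ : Par3}, Ok3 0 D θ → θ.2.2 = 0 := fun {D θ} h => by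
    have h2 := h.2
    rw [zero_mul] at h2
    exact abs_eq_zero.1 (le_antisymm h2 (abs_nonneg _))
  have key := strip_p (Θ := Par3) (Ok := fun n => Ok3 0 (B.d n ^ (-z)))
    (Sf := fun n θ x j => SfN (coN B lev w w0 sa sb fl n) 3 4 Phi3 κA κB (B.d n) p θ x j)
    hx hR hc Vf hp hrc (y := y) (t := t) ?_ ?_ 1 le_rfl ε hε
  · filter_upwards [key] with n hn x hxn θ hθ u
    have := hn x hxn θ hθ u
    rw [one_mul] at this
    exact this
  · -- Lipschitz at the top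
    intro K hK
    have hK0 : 0 < K := by linarith
    have hsum : 0 ≤ K / κA + K / κB := by positivity
    refine ⟨K / κA + K / κB + 1, by linarith, fun n θ hθ x hxn j hj l hl hxj hjl => ?_⟩
    have dp := fun a => dpow_pos B n a
    have e0 := sfN34 (cf := coN B lev w w0 sa sb fl n) (x := x) (j := j) (l := l)
      ((hcoc n).add x j l) (hg0 hθ) hκA hκB (p := p) h34 (dp (p 3))
    show |SfN (coN B lev w w0 sa sb fl n) 3 4 Phi3 κA κB (B.d n) p θ x l -
        SfN (coN B lev w w0 sa sb fl n) 3 4 Phi3 κA κB (B.d n) p θ x j| ≤ _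
    rw [e0]
    have he1 : |θ.1| ≤ 1 := abs_le_one_iff_mul_self_le_one.2 (by
      have := hθ.1
      nlinarith [sq_nonneg θ.2.1])
    have he2 : |θ.2.1| ≤ 1 := abs_le_one_iff_mul_self_le_one.2 (by
      have := hθ.1
      nlinarith [sq_nonneg θ.1])
    have f0 : ∀ k, |coN B lev w w0 sa sb fl n j l k / B.d n ^ p 3| ≤ K * B.d n ^ y := fun k => by
      rw [abs_div, abs_of_pos (dp _), div_le_iff₀ (dp _), mul_assoc, ← dpow_add]
      exact (hjl k).trans (mul_le_mul_of_nonneg_left (dpow_le B n (by linarith)) hK0.le)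
    have r1 : |θ.1 / κA * (coN B lev w w0 sa sb fl n j l 3 / B.d n ^ p 3)| ≤
        K / κA * B.d n ^ y := by
      rw [abs_mul, abs_div, abs_of_pos hκA]
      calc |θ.1| / κA * |coN B lev w w0 sa sb fl n j l 3 / B.d n ^ p 3| ≤
            1 / κA * (K * B.d n ^ y) :=
            mul_le_mul (div_le_div_of_nonneg_right he1 hκA.le) (f0 3) (abs_nonneg _)
              (by positivity)
        _ = _ := by ring
    have r2 : |θ.2.1 / κB * (coN B lev w w0 sa sb fl n j l 4 / B.d n ^ p 3)| ≤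
        K / κB * B.d n ^ y := by
      rw [abs_mul, abs_div, abs_of_pos hκB]
      calc |θ.2.1| / κB * |coN B lev w w0 sa sb fl n j l 4 / B.d n ^ p 3| ≤
            1 / κB * (K * B.d n ^ y) :=
            mul_le_mul (div_le_div_of_nonneg_right he2 hκB.le) (f0 4) (abs_nonneg _)
              (by positivity)
        _ = _ := by ring
    have e9 : (K / κA + K / κB + 1) * B.d n ^ y =
        K / κA * B.d n ^ y + K / κB * B.d n ^ y + B.d n ^ y := by ring
    rw [e9]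
    have := (dp y).le
    exact (abs_add_le _ _).trans (by linarith)
  · -- the count at the record box
    intro K hK ε' hε'
    have hK0 : 0 < K := by linarith
    set K2 : ℝ := κA + κB with hK2
    have hK20 : 0 < K2 := by rw [hK2]; positivity
    set K1 : ℝ := K + K * K2 with hK1
    have z2 : 0 < K * K2 := by positivity
    have hK11 : 1 ≤ K1 := by rw [hK1]; linarith
    have hKK1 : K ≤ K1 := by rw [hK1]; linarith
    have hKK2 : K * K2 ≤ K1 := by rw [hK1]; linarith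
    filter_upwards [h1 K1 hK11 ε' hε'] with n hn θ hθ x hxn y0 hy0 hnear
    have dp := fun a => dpow_pos B n a
    have b1 := e_low (e1 := θ.1) (e2 := θ.2.1) (m := 0) (M := 0) hκA hκB hθ.1 (by
      rw [abs_zero])
    rw [mul_zero, mul_zero, add_zero, add_zero, ← hK2] at b1
    set N := Real.sqrt ((θ.1 / κA) ^ 2 + (θ.2.1 / κB) ^ 2) with hN
    have hNn : 0 ≤ N := Real.sqrt_nonneg _
    have hN0 : 0 < N := by
      rcases hNn.lt_or_eq with h | h
      · exact h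
      · rw [← h, mul_zero] at b1; linarith
    have hN2 : N ^ 2 = (θ.1 / κA) ^ 2 + (θ.2.1 / κB) ^ 2 := Real.sq_sqrt (by positivity)
    have hE : ((θ.1 / κA) / N) ^ 2 + ((θ.2.1 / κB) / N) ^ 2 = 1 := by
      rw [div_pow (θ.1 / κA), div_pow (θ.2.1 / κB), ← add_div, ← hN2]
      exact div_self (pow_pos hN0 2).ne'
    refine le_trans ?_ (hn y0 hy0 _ _ hE)
    refine Nat.cast_le.2 (card_le_card fun j hj => ?_)
    have hj' : j ∈ (I0 n).filter fun j => (∀ k, Vf k → |coN B lev w w0 sa sb fl n y0 j k| ≤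
        K * B.d n ^ rc k) ∧ |SfN (coN B lev w w0 sa sb fl n) 3 4 Phi3 κA κB (B.d n) p θ x j -
          SfN (coN B lev w w0 sa sb fl n) 3 4 Phi3 κA κB (B.d n) p θ x y0| ≤ K * B.d n ^ y := by
      convert hj
    obtain ⟨j1, j2, j3⟩ := mem_filter.1 hj'
    refine mem_filter.2 ⟨j1, fun k hk => (j2 k hk).trans
      (mul_le_mul_of_nonneg_right hKK1 (dp _).le), ?_⟩
    rw [sfN34 (cf := coN B lev w w0 sa sb fl n) (x := x) (j := y0) (l := j)
      ((hcoc n).add x y0 j) (hg0 hθ) hκA hκB (p := p) h34 (dp (p 3)), h3] at j3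
    have e3 : (θ.1 / κA) / N * (coN B lev w w0 sa sb fl n y0 j 3 / B.d n ^ rc 3) +
        (θ.2.1 / κB) / N * (coN B lev w w0 sa sb fl n y0 j 4 / B.d n ^ rc 3) =
        (θ.1 / κA * (coN B lev w w0 sa sb fl n y0 j 3 / B.d n ^ rc 3) +
          θ.2.1 / κB * (coN B lev w w0 sa sb fl n y0 j 4 / B.d n ^ rc 3)) / N := by ring
    rw [e3, abs_div, abs_of_pos hN0, div_le_iff₀ hN0]
    refine j3.trans ?_
    calc K * B.d n ^ y ≤ K * B.d n ^ y * (K2 * N) :=
          le_mul_of_one_le_right (mul_pos hK0 (dp _)).le b1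
      _ = (K * K2) * B.d n ^ y * N := by ring
      _ ≤ K1 * B.d n ^ y * N :=
          mul_le_mul_of_nonneg_right (mul_le_mul_of_nonneg_right hKK2 (dp _).le) hNn

/-- side data of the stage `l` : class `p`, record box `rc`, scale `h` -/
structure St34 (B : Base) (I0 : ℕ → Finset (ℕ × ℝ))
    (co : ∀ n : ℕ, ℕ × ℝ → ℕ × ℝ → Fin 12 → ℝ) (N0 : ℕ → ℝ) (R q R0 Dv : ℝ)
    (p rc : Fin 12 → ℝ) (h : ℝ) : Prop where
  p_leg : p ∈ Leg monL R
  rc_leg : rc ∈ Leg monL R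
  e3 : p 3 = rc 3
  e4 : p 4 = rc 3
  r3 : p 3 + R0 * h ≤ R
  n34 : ∀ y : ℝ, 0 < y → y ≤ R0 * h → N34 B I0 co N0 rc y (Dv - q * y)

/-- **velocity strips of the windows** -/
theorem nsW_34
    (hx : ExtQ B I0 I' (coN B lev w w0 sa sb fl) monL C R kz w0' s PD D r o E T ν own c₀)
    (hR : 0 ≤ R) (hc : CombQ B I0 I' lev (coN B lev w w0 sa sb fl) monL C R N0 c₀)
    {κA κB : ℝ} (hκA : 0 < κA) (hκB : 0 < κB) {q R0 : ℝ} (hq : 0 ≤ q) (hR0 : 0 < R0)
    {x rc : ℕ → Fin 12 → ℝ} {h Dv : ℕ → ℝ} (hh : ∀ l, 0 < h l)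
    (hst : ∀ᶠ l in (atTop : Filter ℕ), St34 B I0 (coN B lev w w0 sa sb fl) N0 R q R0
      (Dv l) (x l) (rc l) (h l))
    (hfr : ∀ ε : ℝ, 0 < ε → ∀ᶠ l in (atTop : Filter ℕ),
      c₀ + Dv l - ν (x l ⊔ rc l) ≤ ε * h l) :
    ∃ k : ℕ → ℕ, Tendsto k U atTop ∧ ∀ k' : ℕ → ℕ, Tendsto k' U atTop →
      (∀ᶠ n in (U : Filter ℕ), k' n ≤ k n) → ∀ W : Wnd 12 (fun _ => ℕ × ℝ), W.Ok → W.I = I0 →
        W.J = I' → W.B = B → W.co = coN B lev w w0 sa sb fl → W.M = monL → W.C = C →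
        (∀ n, W.X n = x (k' n)) →
        (∀ n, W.B'.d n = B.d n ^ h (k' n)) → W.kap 3 = κA → W.kap 4 = κB →
        (∀ ε : ℝ, 0 < ε → ∀ᶠ n in (U : Filter ℕ),
          B.d n ^ (-ν (x (k' n))) * W.B'.d n ^ ε ≤ ((W.Cl n).card : ℝ)) →
        NsW W 3 4 q R0 := by
  obtain ⟨k, hk, hk2⟩ := nsG_of_stages (B := B) (I0 := I0) (I' := I')
    (co := coN B lev w w0 sa sb fl) (M := monL) (C := C) (A := 3) (Bk := 4) (Φ := Phi3)
    (Ok := Ok3 0) (κA := κA) (κB := κB) (x := x) (h := h) (ν := ν)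
    (loss := fun l => c₀ + Dv l - ν (x l ⊔ rc l)) (C1 := 0) hq le_rfl hR0 hh
    (fun D D' hDD θ hθ => ⟨hθ.1, by
      have := hθ.2
      rwa [zero_mul] at this ⊢⟩) hfr (by
      filter_upwards [hst] with l hl y hy hyR z hz hzR
      have h1 := strB_34 (y := y) (z := z) (t := Dv l - q * y) hx hR hc hκA hκB hl.p_leg
        hl.rc_leg hl.e3 hl.e4 (by linarith [hl.r3]) (hl.n34 y hy hyR)
      have e0 : ν (x l) - ν (x l ⊔ rc l) + c₀ + (Dv l - q * y) =
          ν (x l) + (c₀ + Dv l - ν (x l ⊔ rc l)) - q * y + 0 * z := by ring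
      rw [e0] at h1
      exact h1)
  refine ⟨k, hk, fun k' h1 h2 W g1 g2 g3 g4 g5 g6 g7 g8 g9 g10 g11 g12 => ?_⟩
  exact (hk2 k' h1 h2 W g1 g2 g3 g4 g5 g6 g7 g8 g9 g10 g11 g12).toNsW le_rfl (by linarith)

end light

end Crest.Agent.R116.Gi222
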