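import Crest.Agent.R116.Tw5_468

/-!
# R116 (K side), I-c (helper439): round marks have equal exponents

`theta_eq_of_thick` : `Thick` ⊢ `θ 0 = θ 1`;  `OutR.theta_eq`.
-/

set_option autoImplicit false
set_option linter.unusedVariables false

open Finset Filter Topology

namespace Crest.Agent.R116.KS439

open Crest.Agent.R138.Ex926 (Base U)
open Crest.Agent.R138.Dp76 (dpow_pos)
open Crest.Agent.R138.ArgM163 (log_dpow)
open Crest.Agent.R138.Mk163 (zc zl rho alive own)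
open Crest.Agent.R136.MkA627
open Crest.Agent.R116.LZg725
open Crest.Agent.R116.Gd222 (TSet)
open Crest.Agent.R116.KI439
open Crest.Agent.R116.KF439 (IsL ValL Thin Thick mark_L SL)
open Crest.Agent.R116.Tw468 (OutT OutR)

variable {r : ℕ → ℝ} {L : ℕ → ℕ → LRay} {B : Base} {I : ℕ → Finset (ℕ × ℝ)}
    {G : Geo SL (Fin 2)} {lev : ℕ → ℚ → ℕ} {A : ℕ → ℝ} {c Λ : ℝ → ℝ} {τ : Fin 2 → ℝ → ℝ}
    {f : ℕ → ℚ → ℕ → ℤ → ℕ} {b : ℕ → ℚ → ℕ → SL} {vm : ℕ → ℚ → ℝ} {w : Fin 2 → ℕ → ℚ → ℝ}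

/-- in the round case `log (w 0 / w 1) = o(L)` at every level. -/
theorem round_lim (h : MkA B I G lev A c Λ τ f b vm w) (hG : IsL G L r) (hT : Thick B w)
    {v : ℚ} (h0 : 0 ≤ v) (h1 : v ≤ 1) :
    Tendsto (fun n => Real.log (w 0 n v / w 1 n v) / B.L n) U (𝓝 0) := by
  rw [Metric.tendsto_nhds]
  intro ε hε
  filter_upwards [hT (ε / 2) (half_pos hε) v h0 h1, mark_L h hG h0 h1, h.ne,
    h.wpos 0 v h0 h1, h.wpos 1 v h0 h1] with n a1 a2 hne p0 p1
  obtain ⟨x, hx⟩ := hne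
  obtain ⟨-, b2, -⟩ := (a2 x hx).le
  have hL := B.L_pos n
  have k1 : 0 ≤ Real.log (w 0 n v / w 1 n v) :=
    Real.log_nonneg ((one_le_div p1).2 b2)
  have k2 : Real.log (w 0 n v / w 1 n v) ≤ ε / 2 * B.L n := by
    have h3 := Real.log_le_log (mul_pos (dpow_pos B n (ε / 2)) p0) a1
    rw [Real.log_mul (dpow_pos B n _).ne' p0.ne', log_dpow] at h3
    rw [Real.log_div p0.ne' p1.ne']
    linarith
  rw [Real.dist_eq, sub_zero, abs_of_nonneg (div_nonneg k1 hL.le), div_lt_iff₀ hL]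
  have : ε / 2 * B.L n < ε * B.L n := mul_lt_mul_of_pos_right (by linarith) hL
  linarith

/-- **the exponents of the two widths agree in the round case** (all levels). -/
theorem tau_eq_of_thick (h : MkA B I G lev A c Λ τ f b vm w) (hG : IsL G L r) (hT : Thick B w)
    {v : ℚ} (h0 : 0 ≤ v) (h1 : v ≤ 1) : τ 0 v = τ 1 v := by
  have t0 := h.tau 0 v h0 h1
  have t1 := h.tau 1 v h0 h1
  have s0 := round_lim h hG hT h0 h1
  have s1 := round_lim h hG hT (v := 1) zero_le_one le_rfl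
  have key : Tendsto (fun n => Real.log (rho (lev n v) / w 1 n v / (rho (lev n 1) / w 1 n 1)) /
      B.L n - Real.log (rho (lev n v) / w 0 n v / (rho (lev n 1) / w 0 n 1)) / B.L n) U
      (𝓝 (0 - 0)) := by
    refine (s0.sub s1).congr' ?_
    filter_upwards [h.wpos 0 v h0 h1, h.wpos 1 v h0 h1, h.wpos 0 1 zero_le_one le_rfl,
      h.wpos 1 1 zero_le_one le_rfl] with n p0 p1 q0 q1
    have r1 : 0 < rho (lev n v) := by unfold rho; positivity
    have r2 : 0 < rho (lev n 1) := by unfold rho; positivity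
    rw [← sub_div, ← sub_div, Real.log_div (div_pos r1 p1).ne' (div_pos r2 q1).ne',
      Real.log_div (div_pos r1 p0).ne' (div_pos r2 q0).ne', Real.log_div r1.ne' p1.ne',
      Real.log_div r1.ne' p0.ne', Real.log_div r2.ne' q1.ne', Real.log_div r2.ne' q0.ne',
      Real.log_div p0.ne' p1.ne', Real.log_div q0.ne' q1.ne']
    congr 1
    ring
  have := tendsto_nhds_unique key (t1.sub t0)
  linarith

/-- **`θ 0 = θ 1` in the round case.** -/
theorem theta_eq_of_thick {θ : Fin 2 → ℝ}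
    (h : MkA B I G lev A c Λ (fun j v => θ j * (1 - v)) f b vm w) (hG : IsL G L r)
    (hT : Thick B w) : θ 0 = θ 1 := by
  have := tau_eq_of_thick h hG hT (v := 0) le_rfl zero_le_one
  simpa using this

/-- the output `OutR` has equal exponents. -/
theorem OutR.theta_eq {g s : ℝ} {θ q : Fin 2 → ℝ} {Rg : ℝ} {a : Fin 2} {A : ℕ → ℝ}
    (h : OutR G L r g s θ q Rg a B I lev A f b vm w) : θ 0 = θ 1 :=
  theta_eq_of_thick h.win.sys.mka h.win.isL h.thick

end Crest.Agent.R116.KS439
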