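import Crest.Agent.R116.CtxB_468
import Crest.Agent.R116.KS3_439

/-!
# R116, isotropic row (helper468), part 1: the chart of the flat flags

In the round case (`OutR`, `CtxR`) the flags are flat: `et = 0`, `d = 0`, `(b1, b2) = e_a`.  Hence, for
ALL pairs: slots `1, 2, 7, 8` are `0`, slot `10` = component `a` of `C`, slot `11` = component `a` of
`X` (`flat_zero`, `flat_P`, `flat_F`; normalised: `coN_flat0`, `coN_flatP`, `coN_flatF`).
-/

set_option autoImplicit false
set_option linter.unusedVariables false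

open Finset Filter Topology

namespace Crest.Agent.R116.RfF468

open Crest.Agent.R138.Defs (E2)
open Crest.Agent.R138.Ex926 (Base U)
open Crest.Agent.R136.MkA627
open Crest.Agent.R136.Net191
open Crest.Agent.R136.TD627
open Crest.Agent.R136.Lq196
open Crest.Agent.R116.LZg725
open Crest.Agent.R116.ChL222
open Crest.Agent.R116.PL504 (βL eL rL oL Shift nb DN)
open Crest.Agent.R116.Gd222 (TSet sN PDL DT vb)
open Crest.Agent.R116.KI439
open Crest.Agent.R116.KF439 (PL Thin Thick frF flF scN flatc flatc_grr flatc_ny flatc_d)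
open Crest.Agent.R116.Tw468
open Crest.Agent.R116.CtxB468
open Crest.Agent.R116.Xd954 (cs xs bb)

variable {a : Fin 2} {L : ℕ → ℕ → LRay} {n : ℕ} {x y : ℕ × ℝ}

theorem flF_et : (flF a L n x).et = 0 := flatc_ny a x.2

theorem flF_d : (flF a L n x).d = 0 := flatc_d a

theorem flF_b1 : (flF a L n x).b1 = if a = 0 then 1 else 0 := by
  show Crest.Agent.R116.Bm903.grr (flatc a) (L n x.1) 0 = _
  rw [flatc_grr]
  fin_cases a <;> simp

theorem flF_b2 : (flF a L n x).b2 = if a = 0 then 0 else 1 := by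
  show Crest.Agent.R116.Bm903.grr (flatc a) (L n x.1) 1 = _
  rw [flatc_grr]
  fin_cases a <;> simp

/-- slots `1, 2, 7, 8` vanish -/
theorem flat_zero {k : Fin 12} (hk : k = 1 ∨ k = 2 ∨ k = 7 ∨ k = 8) :
    coL (flF a L n x) (flF a L n y) k = 0 := by
  unfold coL
  rcases hk with rfl | rfl | rfl | rfl
  · simp [flF_d]
  · simp [flF_d, flF_et]
  · simp [flF_d, flF_et, flF_b1]
  · simp [flF_d, flF_et, flF_b2]

/-- slot `10` is the component `a` of `C` -/
theorem flat_P : coL (flF a L n x) (flF a L n y) 10 = coL (flF a L n x) (flF a L n y) (cs a) := by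
  have h : coL (flF a L n x) (flF a L n y) 10 =
      (flF a L n x).b1 * ((flF a L n y).c1 - (flF a L n x).c1) +
        (flF a L n x).b2 * ((flF a L n y).c2 - (flF a L n x).c2) := by
    unfold coL
    simp [flF_d, flF_et]
  rw [h, flF_b1, flF_b2]
  fin_cases a <;> simp [cs, coL]

/-- slot `11` is the component `a` of `X` -/
theorem flat_F : coL (flF a L n x) (flF a L n y) 11 = coL (flF a L n x) (flF a L n y) (xs a) := by
  have h : coL (flF a L n x) (flF a L n y) 11 =
      (flF a L n x).b1 * ((flF a L n y).p1 (flF a L n x).z - (flF a L n x).p1 (flF a L n x).z) +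
        (flF a L n x).b2 *
          ((flF a L n y).p2 (flF a L n x).z - (flF a L n x).p2 (flF a L n x).z) := by
    unfold coL
    simp [flF_d, flF_et]
  rw [h, flF_b1, flF_b2]
  fin_cases a <;> simp [xs, coL]

variable {B : Base} {lev : ℕ → ℚ → ℕ} {w : Fin 2 → ℕ → ℚ → ℝ} {w0 sa sb : ℝ}

theorem coN_flat0 {k : Fin 12} (hk : k = 1 ∨ k = 2 ∨ k = 7 ∨ k = 8) :
    PL504.coN B lev w w0 sa sb (flF a L) n x y k = 0 := by
  unfold PL504.coN
  rw [flat_zero hk, mul_zero]

/-- ratio of the units of the slab and of the velocity -/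
noncomputable def rat (B : Base) (lev : ℕ → ℚ → ℕ) (w : Fin 2 → ℕ → ℚ → ℝ) (sa sb : ℝ) (n : ℕ) : ℝ :=
  (B.d n ^ sb / sN lev w 1 n) / (B.d n ^ sa / sN lev w 0 n)

end Crest.Agent.R116.RfF468
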