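import Crest.Agent.R116.Gi2_222
import Crest.Agent.R116.RfF_468

/-!
# R116, GEO-D of the light-ray chart (helper222), part 13: velocity strips, round case

* **`CtxR.nsW34`** : `nsW_34` over 468's `CtxR` (flat flags, `θ 0 = θ 1`), exponent `q 1`; the flag
  slots `1, 2, 7, 8` of the base points are arbitrary (they vanish identically).
-/

set_option autoImplicit false
set_option linter.unusedVariables false
set_option linter.unusedSectionVars false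

open Finset Filter Topology

namespace Crest.Agent.R116.Gi222

open Crest.Agent.R138.Defs (E2)
open Crest.Agent.R138.Ex926
open Crest.Agent.R138.Mk163 (zc zl rho alive)
open Crest.Agent.R138.Dp76 (dpow_pos dpow_add dpow_le)
open Crest.Agent.R138
open Crest.Agent.R136.MkA627
open Crest.Agent.R136.Net191
open Crest.Agent.R136.Qg926
open Crest.Agent.R136.Lq196
open Crest.Agent.R136.NSt107 (NsW)
open Crest.Agent.R116.LZg725
open Crest.Agent.R116.ChL222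
open Crest.Agent.R116.PL504 (rL eL coN)
open Crest.Agent.R116.EvL504
open Crest.Agent.R116.Gd222 (Vf NearS TSet sN DT nbS LData)
open Crest.Agent.R116.Nar192
open Crest.Agent.R116.KF439 (Thick flF)
open Crest.Agent.R116.Tw468
open Crest.Agent.R116.KI439
open Crest.Agent.R116.CtxB468

section ctx

variable {G : Geo TSet (Fin 2)} {L : ℕ → ℕ → LRay} {r : ℕ → ℝ} {g s : ℝ} {θ q : Fin 2 → ℝ}
    {Rg : ℝ} {a : Fin 2} {B : Base}
    {I : ℕ → Finset (ℕ × ℝ)} {lev : ℕ → ℚ → ℕ} {A : ℕ → ℝ}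
    {f : ℕ → ℚ → ℕ → ℤ → ℕ} {b : ℕ → ℚ → ℕ → TSet} {vm : ℕ → ℚ → ℝ} {w : Fin 2 → ℕ → ℚ → ℝ}
    {w0 sa sb δ R : ℝ} {I0 I' : ℕ → Finset (ℕ × ℝ)} {ν own : (Fin 12 → ℝ) → ℝ} {c₀ : ℝ}

/-- the marks of level `1` are round -/
theorem hk_thick {c Λ : ℝ → ℝ} {τ : Fin 2 → ℝ → ℝ} (h : MkA B I G lev A c Λ τ f b vm w)
    (ht : Thick B w) : ∀ ε : ℝ, 0 < ε → ∀ᶠ n in (U : Filter ℕ),
      sN lev w 0 n ≤ sN lev w 1 n * B.d n ^ (-ε) := by
  intro ε hε
  filter_upwards [ht ε hε 1 zero_le_one le_rfl, h.wpos 0 1 zero_le_one le_rfl,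
    h.wpos 1 1 zero_le_one le_rfl] with n a1 p0 p1
  have r1 : 0 < rho (lev n 1) := by unfold rho; positivity
  have dp := fun a => dpow_pos B n a
  unfold sN
  rw [PL504.ps_eq (div_pos p0 r1), PL504.ps_eq (div_pos p1 r1), div_le_iff₀ r1]
  have e : w 1 n 1 / rho (lev n 1) * B.d n ^ (-ε) * rho (lev n 1) = w 1 n 1 * B.d n ^ (-ε) := by
    field_simp
  rw [e]
  have e2 : w 0 n 1 = (B.d n ^ ε * w 0 n 1) * B.d n ^ (-ε) := by
    have : B.d n ^ ε * B.d n ^ (-ε) = 1 := by rw [← dpow_add, add_neg_cancel, Real.rpow_zero]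
    calc w 0 n 1 = (B.d n ^ ε * B.d n ^ (-ε)) * w 0 n 1 := by rw [this, one_mul]
      _ = _ := by ring
  rw [e2]
  exact mul_le_mul_of_nonneg_right a1 (dp _).le

theorem nbS_eL (w0 sa sb v t : ℝ) {k : Fin 12} (hk : Vf k) :
    nbS w0 sa sb v t t k = eL (w0 + v) (sa + t) (sb + t) k := by
  obtain ⟨k1, k2, k7, k8⟩ := hk
  fin_cases k
  · have h1 : nbS w0 sa sb v t t 0 = w0 + v := rfl
    have h2 : eL (w0 + v) (sa + t) (sb + t) 0 = w0 + v := rfl
    exact h1.trans h2.symm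
  · exact absurd rfl k1
  · exact absurd rfl k2
  · have h1 : nbS w0 sa sb v t t 3 = sa + t := rfl
    have h2 : eL (w0 + v) (sa + t) (sb + t) 3 = sa + t := rfl
    exact h1.trans h2.symm
  · have h1 : nbS w0 sa sb v t t 4 = sa + t := rfl
    have h2 : eL (w0 + v) (sa + t) (sb + t) 4 = sa + t := rfl
    exact h1.trans h2.symm
  · have h1 : nbS w0 sa sb v t t 5 = w0 + v + (sa + t) := rfl
    have h2 : eL (w0 + v) (sa + t) (sb + t) 5 = w0 + v + (sa + t) := rfl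
    exact h1.trans h2.symm
  · have h1 : nbS w0 sa sb v t t 6 = w0 + v + (sa + t) := rfl
    have h2 : eL (w0 + v) (sa + t) (sb + t) 6 = w0 + v + (sa + t) := rfl
    exact h1.trans h2.symm
  · exact absurd rfl k7
  · exact absurd rfl k8
  · have h1 : nbS w0 sa sb v t t 9 = w0 + v + 2 * (sa + t) := rfl
    have h2 : eL (w0 + v) (sa + t) (sb + t) 9 = w0 + v + 2 * (sa + t) := rfl
    exact h1.trans h2.symm
  · have h1 : nbS w0 sa sb v t t 10 = sb + t := rfl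
    have h2 : eL (w0 + v) (sa + t) (sb + t) 10 = sb + t := rfl
    exact h1.trans h2.symm
  · have h1 : nbS w0 sa sb v t t 11 = w0 + v + (sb + t) := rfl
    have h2 : eL (w0 + v) (sa + t) (sb + t) 11 = w0 + v + (sb + t) := rfl
    exact h1.trans h2.symm

/-- **velocity strips at the record box, round case** -/
theorem _root_.Crest.Agent.R116.CtxB468.CtxR.n34
    (hC : CtxR G L r g s θ q Rg a B I lev A f b vm w w0 sa sb δ R I0 I' ν own c₀)
    {v y : ℝ} (hv0 : 0 ≤ v) (hv1 : v ≤ 1) (hy : 0 < y) (ht : 0 < θ 0 * (1 - v))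
    (hRt : θ 0 * (1 - v) + y < Rg) :
    N34 B I0 (coN B lev w w0 sa sb (flF a L)) (N0T B s A vm) (rL (θ 0) (θ 1) w0 sa sb v) y
      (DT g s q θ w0 sa sb (rL (θ 0) (θ 1) w0 sa sb v) - q 1 * y) := by
  have hθ := KS439.OutR.theta_eq hC.out
  have hk : ∀ ε : ℝ, 0 < ε → ∀ᶠ n in (U : Filter ℕ), sN lev w 1 n ≤ sN lev w 0 n * B.d n ^ (-ε) :=
    fun ε hε => by
      have := hC.out.win.hk0 ε hε
      rwa [zero_sub] at this
  have hr : rL (θ 0) (θ 1) w0 sa sb v = eL (w0 + v) (sa + θ 0 * (1 - v)) (sb + θ 0 * (1 - v)) := by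
    unfold rL
    rw [← hθ, add_comm (θ 0 * (1 - v)) sa, add_comm (θ 0 * (1 - v)) sb]
  refine (n34_of (q := q) hC.out.win.sys.mka hC.out.win.dat hC.out.win.isL.wid hk
    (hk_thick hC.out.win.sys.mka hC.out.thick)
    (fun n x => ⟨RfF468.flF_et, RfF468.flF_d⟩) w0 sa sb (v := v) (t := θ 0 * (1 - v)) (y := y)
    hv0 hv0 hv1 hy ht hRt (rc := rL (θ 0) (θ 1) w0 sa sb v) rfl ?_ ?_ ?_).mono_set hC.sub0
  · rw [hr]; rfl
  · rw [hr]; rfl
  · intro k hk
    rw [hr]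
    exact (nbS_eL w0 sa sb v _ hk).le

/-- **(NARROW), round case**: velocity strips of the windows; the flag slots of the base points are
arbitrary -/
theorem _root_.Crest.Agent.R116.CtxB468.CtxR.nsW34
    (hC : CtxR G L r g s θ q Rg a B I lev A f b vm w w0 sa sb δ R I0 I' ν own c₀)
    (hq : 0 < q 1) (hθ0 : 0 < θ 0) (hθR : θ 0 < Rg) {x : ℕ → Fin 12 → ℝ} {h v : ℕ → ℝ}
    (hh : ∀ l, 0 < h l) (hh0 : Tendsto h atTop (𝓝 0)) {v1 : ℝ} (hv1 : v1 < 1)
    (hx : ∀ᶠ l in (atTop : Filter ℕ), x l ∈ Leg monL R ∧ 0 ≤ v l ∧ v l ≤ v1 ∧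
      x l 3 = rL (θ 0) (θ 1) w0 sa sb (v l) 3 ∧ x l 4 = rL (θ 0) (θ 1) w0 sa sb (v l) 3 ∧
      ∀ k, Vf k → x l k ≤ rL (θ 0) (θ 1) w0 sa sb (v l) k)
    {R0 : ℝ} (hR0 : 0 < R0) {κ3 κ4 : ℝ} (hκ3 : 0 < κ3) (hκ4 : 0 < κ4) :
    ∃ k : ℕ → ℕ, Tendsto k U atTop ∧ ∀ k' : ℕ → ℕ, Tendsto k' U atTop →
      (∀ᶠ n in (U : Filter ℕ), k' n ≤ k n) → ∀ W : Wnd 12 (fun _ => ℕ × ℝ), W.Ok → W.I = I0 →
        W.J = I' → W.B = B → W.co = coN B lev w w0 sa sb (flF a L) → W.M = monL → W.C = 2 →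
        (∀ n, W.X n = x (k' n)) →
        (∀ n, W.B'.d n = B.d n ^ h (k' n)) → W.kap 3 = κ3 → W.kap 4 = κ4 →
        (∀ ε : ℝ, 0 < ε → ∀ᶠ n in (U : Filter ℕ),
          B.d n ^ (-ν (x (k' n))) * W.B'.d n ^ ε ≤ ((W.Cl n).card : ℝ)) →
        NsW W 3 4 (q 1) R0 := by
  have hRp : 0 < R := hC.sh.d0.trans_le hC.sh.R_pos
  have hθ := KS439.OutR.theta_eq hC.out
  refine nsW_34 (Dv := fun l => DT g s q θ w0 sa sb (rL (θ 0) (θ 1) w0 sa sb (v l)))
    (rc := fun l => rL (θ 0) (θ 1) w0 sa sb (v l)) hC.ext hRp.le hC.comb hκ3 hκ4 hq.le hR0 hh ?_ ?_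
  · -- the stages
    have hsm : ∀ ε : ℝ, 0 < ε → ∀ᶠ l in (atTop : Filter ℕ), R0 * h l ≤ ε := fun ε hε => by
      have h1 : Tendsto (fun l => R0 * h l) atTop (𝓝 0) := by
        simpa using hh0.const_mul R0
      exact (h1.eventually (gt_mem_nhds hε)).mono fun l hl => hl.le
    filter_upwards [hx, hsm _ hC.sh.d0, hsm _ (show 0 < (Rg - θ 0) / 2 by linarith)] with
      l hl h1 h2
    obtain ⟨a1, a2, a3, a4, a5, a6⟩ := hl
    have hv1' : v l ≤ 1 := a3.trans hv1.le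
    have hleg := hC.sh.rL_leg a2 hv1'
    refine ⟨a1, hleg, a4, a5, ?_, fun y hy hyR => ?_⟩
    · -- `rc 3 + δ ≤ R`
      rw [a4]
      have b1 := hC.sh.bD a2 hv1'
      have b2 := hC.sh.bR a2 hv1'
      have b3 := hC.sh.bc a2 hv1'
      have b4 := hC.sh.bz a2
      have b5 := hC.sh.d0
      have e : rL (θ 0) (θ 1) w0 sa sb (v l) 3 = θ 0 * (1 - v l) + sa := rfl
      rw [e]
      linarith
    · refine hC.n34 a2 hv1' hy (mul_pos hθ0 (by linarith)) ?_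
      have : θ 0 * (1 - v l) ≤ θ 0 := by nlinarith
      linarith
  · -- the freeze
    intro ε hε
    filter_upwards [hx] with l hl
    obtain ⟨a1, a2, a3, a4, a5, a6⟩ := hl
    have hv1' : v l ≤ 1 := a3.trans hv1.le
    have hleg := hC.sh.rL_leg a2 hv1'
    have h1 : ν (rL (θ 0) (θ 1) w0 sa sb (v l)) ≤ ν (x l ⊔ rL (θ 0) (θ 1) w0 sa sb (v l)) := by
      refine prof_dead hC.ext.ne hC.ext.sub hC.ext.chart hC.ext.prof hleg (Leg.sup a1 hleg) ?_
      intro n i _ j _ k hk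
      refine RfF468.coN_flat0 ?_
      by_contra hcon
      have h2 : Vf k := by
        refine ⟨fun e => hcon ?_, fun e => hcon ?_, fun e => hcon ?_, fun e => hcon ?_⟩
        · exact Or.inl e
        · exact Or.inr (Or.inl e)
        · exact Or.inr (Or.inr (Or.inl e))
        · exact Or.inr (Or.inr (Or.inr e))
      have h3 := a6 k h2
      have h4 : (x l ⊔ rL (θ 0) (θ 1) w0 sa sb (v l)) k = rL (θ 0) (θ 1) w0 sa sb (v l) k := by
        rw [Pi.sup_apply]; exact sup_eq_right.2 h3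
      rw [h4] at hk
      exact lt_irrefl _ hk
    have h2 := hC.ext.record (v l) a2 hv1'
    rw [EL_eq g s q θ w0 sa sb] at h2
    have h3 : 0 ≤ ε * h l := mul_nonneg hε.le (hh l).le
    linarith

end ctx

end Crest.Agent.R116.Gi222
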