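import Crest.Agent.R116.Gi3_222
import Crest.Agent.R116.Nar3f_863

/-!
# R116, GEO-D of the light-ray chart (helper222), part 14: velocity strips, 863's form

* **`CtxR.nsT34`** : `CtxR.nsW34` as 863's `NsT B I0 I' (coN ..) 2 D ν lam X h t 3 4 (q 1)`, for
  every set of directions `D` and every function `lam`.
-/

set_option autoImplicit false
set_option linter.unusedVariables false
set_option linter.unusedSectionVars false

open Finset Filter Topology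

namespace Crest.Agent.R116.Gi222

open Crest.Agent.R138.Ex926
open Crest.Agent.R136.MkA627
open Crest.Agent.R136.Net191
open Crest.Agent.R136.Qg926
open Crest.Agent.R136.Lq196
open Crest.Agent.R136.NSt107 (NsW)
open Crest.Agent.R116.ChL222
open Crest.Agent.R116.PL504 (rL eL coN)
open Crest.Agent.R116.EvL504
open Crest.Agent.R116.Gd222 (Vf TSet sN DT)
open Crest.Agent.R116.KF439 (Thick flF)
open Crest.Agent.R116.KI439
open Crest.Agent.R116.CtxB468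
open Crest.Agent.R116.WinU954 (WinU)

variable {G : Geo TSet (Fin 2)} {L : ℕ → ℕ → LRay} {r : ℕ → ℝ} {g s : ℝ} {θ q : Fin 2 → ℝ}
    {Rg : ℝ} {a : Fin 2} {B : Base}
    {I : ℕ → Finset (ℕ × ℝ)} {lev : ℕ → ℚ → ℕ} {A : ℕ → ℝ}
    {f : ℕ → ℚ → ℕ → ℤ → ℕ} {b : ℕ → ℚ → ℕ → TSet} {vm : ℕ → ℚ → ℝ} {w : Fin 2 → ℕ → ℚ → ℝ}
    {w0 sa sb δ R : ℝ} {I0 I' : ℕ → Finset (ℕ × ℝ)} {ν own : (Fin 12 → ℝ) → ℝ} {c₀ : ℝ}

/-- **velocity strips of the windows, round case**, 863's form -/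
theorem _root_.Crest.Agent.R116.CtxB468.CtxR.nsT34
    (hC : CtxR G L r g s θ q Rg a B I lev A f b vm w w0 sa sb δ R I0 I' ν own c₀)
    (hq : 0 < q 1) (hθ0 : 0 < θ 0) (hθR : θ 0 < Rg) {X : ℕ → Fin 12 → ℝ} {h v : ℕ → ℝ}
    (hh : ∀ l, 0 < h l) (hh0 : Tendsto h atTop (𝓝 0)) {v1 : ℝ} (hv1 : v1 < 1)
    (hx : ∀ᶠ l in (atTop : Filter ℕ), X l ∈ Leg monL R ∧ 0 ≤ v l ∧ v l ≤ v1 ∧
      X l 3 = rL (θ 0) (θ 1) w0 sa sb (v l) 3 ∧ X l 4 = rL (θ 0) (θ 1) w0 sa sb (v l) 3 ∧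
      ∀ k, Vf k → X l k ≤ rL (θ 0) (θ 1) w0 sa sb (v l) k)
    {t : ℝ} (ht : 0 < t) (D : Set (Fin 12 → ℝ)) (lam : (Fin 12 → ℝ) → ℝ) :
    Nar863.NsT B I0 I' (coN B lev w w0 sa sb (flF a L)) 2 D ν lam X h t 3 4 (q 1) := by
  have hK1 : 1 ≤ cK0 monL 2 := cK0_one (by norm_num)
  have hK0 : 0 < cK0 monL 2 := by linarith
  obtain ⟨k, hk, hk2⟩ := hC.nsW34 hq hθ0 hθR hh hh0 hv1 hx ht
    (κ3 := cK0 monL 2 ^ PL504.wtL 3) (κ4 := cK0 monL 2 ^ PL504.wtL 4) (pow_pos hK0 _) (pow_pos hK0 _)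
  refine ⟨k, hk, fun k' h1 h2 W hW => ?_⟩
  refine hk2 k' h1 h2 W hW.wl.ok hW.hI hW.hJ hW.hB hW.hco hW.hM hW.hC
    (fun n => by rw [hW.hX]) hW.base (by rw [hW.hkap]) (by rw [hW.hkap]) ?_
  intro ε hε
  filter_upwards [hW.wl.ok.cls.big ε hε] with n hn
  rw [hW.hT] at hn
  exact hn

end Crest.Agent.R116.Gi222
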