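import Crest.Agent.R116.Gd6_222

/-!
# R116, GEO-D of the light-ray chart (helper222), part 7: tilted strips (N1 of [NARROW])

* `addb` : change of the gradient of the flag; `trn mu i j` : the flag of `i` transported to the ray of
  `j` (times `mu`).
* `cells1` : pigeonhole in the cells of one function.
* `fine_count` : D-max count in cells seen by the transported flags of one base incidence.
-/

set_option autoImplicit false

open Finset Filter Topology

namespace Crest.Agent.R116.Gd222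

open Crest.Agent.R138.Defs (E2)
open Crest.Agent.R138.Ex926 (Base U QProf)
open Crest.Agent.R138.Mk163 (zc zl rho alive)
open Crest.Agent.R138
open Crest.Agent.R136.MkA627
open Crest.Agent.R136.Net191
open Crest.Agent.R136.PqG464
open Crest.Agent.R116.LZg725
open Crest.Agent.R116.ChL222
open Crest.Agent.R116.PL504 (uL eL)

/-! ### algebra -/

/-- change of the gradient of the flag -/
noncomputable def addb (u1 u2 : ℝ) (i : LInc) : LInc := { i with b1 := i.b1 + u1, b2 := i.b2 + u2 }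

/-- the flag of `i` transported to the ray of `j`, multiplied by `mu` -/
noncomputable def trn (mu : ℝ) (i j : LInc) : LInc :=
  { j with
    b1 := mu * (i.b1 + i.et * coL i j 3 + 2 * i.d * coL i j 5)
    b2 := mu * (i.b2 + i.et * coL i j 4 + 2 * i.d * coL i j 6)
    et := mu * (i.et - 2 * i.d * coL i j 0)
    d := mu * i.d }

theorem coL_addb (u1 u2 : ℝ) (i l : LInc) :
    coL (addb u1 u2 i) l 0 = coL i l 0 ∧ coL (addb u1 u2 i) l 3 = coL i l 3 ∧
    coL (addb u1 u2 i) l 4 = coL i l 4 ∧ coL (addb u1 u2 i) l 5 = coL i l 5 ∧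
    coL (addb u1 u2 i) l 6 = coL i l 6 ∧ coL (addb u1 u2 i) l 9 = coL i l 9 ∧
    coL (addb u1 u2 i) l 10 = coL i l 10 + (u1 * coL i l 3 + u2 * coL i l 4) ∧
    coL (addb u1 u2 i) l 11 = coL i l 11 + (u1 * coL i l 5 + u2 * coL i l 6) := by
  simp only [coL, nuL, addb, LInc.p1, LInc.p2, LInc.ph, Matrix.cons_val]
  refine ⟨trivial, trivial, trivial, trivial, trivial, trivial, by ring, by ring⟩

/-- slots seen from the transported flag -/
theorem coL_trn (mu : ℝ) (i j l : LInc) :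
    coL (trn mu i j) l 0 = coL i l 0 - coL i j 0 ∧
    coL (trn mu i j) l 3 = coL i l 3 - coL i j 3 ∧
    coL (trn mu i j) l 4 = coL i l 4 - coL i j 4 ∧
    coL (trn mu i j) l 5 = coL i l 5 - coL i j 5 + coL i j 0 * (coL i l 3 - coL i j 3) ∧
    coL (trn mu i j) l 6 = coL i l 6 - coL i j 6 + coL i j 0 * (coL i l 4 - coL i j 4) ∧
    coL (trn mu i j) l 9 = coL i l 9 - coL i j 9 +
      coL i j 0 * (((coL i l 3 - coL i j 3) ^ 2 + (coL i l 4 - coL i j 4) ^ 2) / 2) -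
      coL i j 3 * (coL i l 5 - coL i j 5) - coL i j 4 * (coL i l 6 - coL i j 6) ∧
    coL (trn mu i j) l 10 = mu * (coL i l 10 - coL i j 10) ∧
    coL (trn mu i j) l 11 = mu * (coL i l 11 - coL i j 11 +
      coL i j 0 * (coL i l 10 - coL i j 10)) := by
  simp only [coL, nuL, trn, LInc.p1, LInc.p2, LInc.ph, Matrix.cons_val]
  refine ⟨by ring, by ring, by ring, by ring, by ring, by ring, by ring, by ring⟩

/-- two incidences of a cell are near for the transported flag -/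
theorem cell_near {i j l : LInc} {mu R c c' K : ℝ} (hmu : 1 ≤ mu) (hR : 0 < R) (hc : 0 < c)
    (hc' : 0 < c') (hK : 1 ≤ K)
    (j0 : |coL i j 0| ≤ K * R) (j3 : |coL i j 3| ≤ K * c) (j4 : |coL i j 4| ≤ K * c)
    (j10 : |coL i j 10| ≤ K * c')
    (l0 : |coL i l 0| ≤ K * R) (l3 : |coL i l 3| ≤ K * c) (l4 : |coL i l 4| ≤ K * c)
    (l10 : |coL i l 10| ≤ K * c')
    (d5 : |coL i l 5 - coL i j 5| ≤ K * (c * R)) (d6 : |coL i l 6 - coL i j 6| ≤ K * (c * R))
    (d9 : |coL i l 9 - coL i j 9| ≤ K * (c ^ 2 * R))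
    (d11 : |coL i l 11 - coL i j 11| ≤ K * (c' * R)) :
    |coL (trn mu i j) l 0| ≤ 8 * mu * K ^ 3 * R ∧ |coL (trn mu i j) l 3| ≤ 8 * mu * K ^ 3 * c ∧
    |coL (trn mu i j) l 4| ≤ 8 * mu * K ^ 3 * c ∧
    |coL (trn mu i j) l 5| ≤ 8 * mu * K ^ 3 * (c * R) ∧
    |coL (trn mu i j) l 6| ≤ 8 * mu * K ^ 3 * (c * R) ∧
    |coL (trn mu i j) l 9| ≤ 8 * mu * K ^ 3 * (c ^ 2 * R) ∧
    |coL (trn mu i j) l 10| ≤ 8 * mu * K ^ 3 * c' ∧
    |coL (trn mu i j) l 11| ≤ 8 * mu * K ^ 3 * (c' * R) := by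
  obtain ⟨e0, e3, e4, e5, e6, e9, e10, e11⟩ := coL_trn mu i j l
  have hK0 : 0 < K := by linarith
  have hK2 : K ≤ K ^ 2 := le_self_pow₀ hK (by norm_num)
  have hK3 : K ^ 2 ≤ K ^ 3 := pow_le_pow_right₀ hK (by norm_num)
  have hK3p : 0 < K ^ 3 := by positivity
  have hmK : K ^ 3 ≤ mu * K ^ 3 := le_mul_of_one_le_left hK3p.le hmu
  have f0 : |coL i l 0 - coL i j 0| ≤ 2 * K * R := (abs_sub _ _).trans (by linarith)
  have f3 : |coL i l 3 - coL i j 3| ≤ 2 * K * c := (abs_sub _ _).trans (by linarith)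
  have f4 : |coL i l 4 - coL i j 4| ≤ 2 * K * c := (abs_sub _ _).trans (by linarith)
  have f10 : |coL i l 10 - coL i j 10| ≤ 2 * K * c' := (abs_sub _ _).trans (by linarith)
  -- from `C * X` with `C ≤ 8 K^3`
  have fin : ∀ {a X C : ℝ}, 0 ≤ X → |a| ≤ C * X → C ≤ 8 * K ^ 3 → |a| ≤ 8 * mu * K ^ 3 * X := by
    intro a X C hX h1 h2
    refine h1.trans (mul_le_mul_of_nonneg_right ?_ hX)
    linarith
  have m0 : ∀ {a Y : ℝ}, |a| ≤ Y → |coL i j 0 * a| ≤ K * R * Y := fun h => by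
    rw [abs_mul]; exact mul_le_mul j0 h (abs_nonneg _) (by positivity)
  refine ⟨?_, ?_, ?_, ?_, ?_, ?_, ?_, ?_⟩
  · rw [e0]; exact fin hR.le f0 (by linarith)
  · rw [e3]; exact fin hc.le f3 (by linarith)
  · rw [e4]; exact fin hc.le f4 (by linarith)
  · rw [e5]
    refine fin (C := K + 2 * K ^ 2) (by positivity) ((abs_add_le _ _).trans
      ((add_le_add d5 (m0 f3)).trans (le_of_eq (by ring)))) (by linarith)
  · rw [e6]
    refine fin (C := K + 2 * K ^ 2) (by positivity) ((abs_add_le _ _).trans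
      ((add_le_add d6 (m0 f4)).trans (le_of_eq (by ring)))) (by linarith)
  · rw [e9]
    have q3 : (coL i l 3 - coL i j 3) ^ 2 ≤ (2 * K * c) ^ 2 :=
      sq_le_sq' (by linarith [(abs_le.1 f3).1]) (abs_le.1 f3).2
    have q4 : (coL i l 4 - coL i j 4) ^ 2 ≤ (2 * K * c) ^ 2 :=
      sq_le_sq' (by linarith [(abs_le.1 f4).1]) (abs_le.1 f4).2
    have q : |((coL i l 3 - coL i j 3) ^ 2 + (coL i l 4 - coL i j 4) ^ 2) / 2| ≤ (2 * K * c) ^ 2 := by
      rw [abs_of_nonneg (by positivity)]; linarith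
    have g3 : |coL i j 3 * (coL i l 5 - coL i j 5)| ≤ K * c * (K * (c * R)) := by
      rw [abs_mul]; exact mul_le_mul j3 d5 (abs_nonneg _) (by positivity)
    have g4 : |coL i j 4 * (coL i l 6 - coL i j 6)| ≤ K * c * (K * (c * R)) := by
      rw [abs_mul]; exact mul_le_mul j4 d6 (abs_nonneg _) (by positivity)
    refine fin (C := K + 4 * K ^ 3 + 2 * K ^ 2) (by positivity) ?_ (by linarith)
    refine (abs_sub _ _).trans ((add_le_add ((abs_sub _ _).trans (add_le_add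
      ((abs_add_le _ _).trans (add_le_add d9 (m0 q))) g3)) g4).trans (le_of_eq (by ring)))
  · rw [e10, abs_mul, abs_of_pos (by linarith : (0 : ℝ) < mu)]
    have := mul_le_mul_of_nonneg_left f10 (by linarith : (0 : ℝ) ≤ mu)
    refine this.trans ?_
    have h2 : 2 * K ≤ 8 * K ^ 3 := by linarith
    have h3 : 2 * K * c' ≤ 8 * K ^ 3 * c' := mul_le_mul_of_nonneg_right h2 hc'.le
    have := mul_le_mul_of_nonneg_left h3 (by linarith : (0 : ℝ) ≤ mu)
    linarith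
  · rw [e11, abs_mul, abs_of_pos (by linarith : (0 : ℝ) < mu)]
    have h1 : |coL i l 11 - coL i j 11 + coL i j 0 * (coL i l 10 - coL i j 10)| ≤
        (K + 2 * K ^ 2) * (c' * R) :=
      (abs_add_le _ _).trans ((add_le_add d11 (m0 f10)).trans (le_of_eq (by ring)))
    have h2 : K + 2 * K ^ 2 ≤ 8 * K ^ 3 := by linarith
    have h3 := h1.trans (mul_le_mul_of_nonneg_right h2 (by positivity))
    have := mul_le_mul_of_nonneg_left h3 (by linarith : (0 : ℝ) ≤ mu)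
    linarith

/-! ### cells -/

theorem cells1 {α : Type*} (S : Finset α) (f : α → ℝ) {R δ M : ℝ} (hδ : 0 < δ) (hR : 0 ≤ R)
    (hM : 0 ≤ M) (hf : ∀ l ∈ S, |f l| ≤ R)
    (hc : ∀ j ∈ S, (((S.filter fun l => |f l - f j| ≤ δ).card : ℕ) : ℝ) ≤ M) :
    (S.card : ℝ) ≤ (2 * (R / δ) + 2) * M := by
  classical
  set k : α → ℤ := fun l => ⌊f l / δ⌋ with hk
  have himg : S.image k ⊆ Finset.Icc ⌊-(R / δ)⌋ ⌊R / δ⌋ := by
    intro a ha
    obtain ⟨l, hl, rfl⟩ := Finset.mem_image.1 ha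
    have h1 := abs_le.1 (hf l hl)
    rw [Finset.mem_Icc]
    constructor
    · refine Int.floor_le_floor ?_
      rw [← neg_div]
      exact div_le_div_of_nonneg_right h1.1 hδ.le
    · exact Int.floor_le_floor (div_le_div_of_nonneg_right h1.2 hδ.le)
  have hcard : ((S.image k).card : ℝ) ≤ 2 * (R / δ) + 2 := by
    have h1 : ((S.image k).card : ℝ) ≤ ((Finset.Icc ⌊-(R / δ)⌋ ⌊R / δ⌋).card : ℝ) := by
      exact_mod_cast Finset.card_le_card himg
    refine h1.trans ?_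
    rw [Int.card_Icc]
    have a1 := Int.floor_le (R / δ)
    have a2 := Int.lt_floor_add_one (-(R / δ))
    have a3 : 0 ≤ R / δ := by positivity
    have a4 : (0 : ℤ) ≤ ⌊R / δ⌋ + 1 - ⌊-(R / δ)⌋ := by
      have b1 : (0 : ℤ) ≤ ⌊R / δ⌋ := Int.floor_nonneg.2 a3
      have b2 : ⌊-(R / δ)⌋ ≤ 0 := by
        have : ⌊-(R / δ)⌋ ≤ ⌊(0 : ℝ)⌋ := Int.floor_le_floor (by linarith)
        simpa using this
      linarith
    have a5 : (((⌊R / δ⌋ + 1 - ⌊-(R / δ)⌋).toNat : ℕ) : ℝ) = ((⌊R / δ⌋ + 1 - ⌊-(R / δ)⌋ : ℤ) : ℝ) := by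
      have := Int.toNat_of_nonneg a4
      exact_mod_cast this
    rw [a5]
    push_cast
    linarith
  rw [Finset.card_eq_sum_card_image k S]
  push_cast
  calc ∑ b ∈ S.image k, ((S.filter fun a => k a = b).card : ℝ) ≤ ∑ b ∈ S.image k, M := by
        refine Finset.sum_le_sum fun b hb => ?_
        obtain ⟨j, hj, rfl⟩ := Finset.mem_image.1 hb
        refine le_trans ?_ (hc j hj)
        norm_cast
        refine Finset.card_le_card fun l hl => ?_
        rw [mem_filter] at hl ⊢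
        refine ⟨hl.1, ?_⟩
        have h1 : ⌊f l / δ⌋ = ⌊f j / δ⌋ := hl.2
        have h2 := Int.abs_sub_lt_one_of_floor_eq_floor h1
        rw [← sub_div, abs_div, abs_of_pos hδ, div_lt_one hδ] at h2
        exact h2.le
    _ = ((S.image k).card : ℝ) * M := by rw [Finset.sum_const, nsmul_eq_mul]
    _ ≤ _ := mul_le_mul_of_nonneg_right hcard hM

/-! ### the transported flags -/

theorem coL_snd8 (mu : ℝ) (a i l : LInc) :
    coL a (trn mu i l) 0 = coL a l 0 ∧ coL a (trn mu i l) 3 = coL a l 3 ∧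
    coL a (trn mu i l) 4 = coL a l 4 ∧ coL a (trn mu i l) 5 = coL a l 5 ∧
    coL a (trn mu i l) 6 = coL a l 6 ∧ coL a (trn mu i l) 9 = coL a l 9 ∧
    coL a (trn mu i l) 10 = coL a l 10 ∧ coL a (trn mu i l) 11 = coL a l 11 := by
  simp only [coL, nuL, trn, LInc.p1, LInc.p2, LInc.ph, Matrix.cons_val]
  exact ⟨trivial, trivial, trivial, trivial, trivial, trivial, trivial, trivial⟩

theorem coL_snd (mu : ℝ) (a i l : LInc) {k : Fin 12} (hk : Vf k) :
    coL a (trn mu i l) k = coL a l k := by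
  obtain ⟨h1, h2, h7, h8⟩ := hk
  obtain ⟨e0, e3, e4, e5, e6, e9, e10, e11⟩ := coL_snd8 mu a i l
  fin_cases k
  · exact e0
  · exact absurd rfl h1
  · exact absurd rfl h2
  · exact e3
  · exact e4
  · exact e5
  · exact e6
  · exact absurd rfl h7
  · exact absurd rfl h8
  · exact e9
  · exact e10
  · exact e11

theorem rayL_trn (mu : ℝ) (i l : LInc) : rayL (trn mu i l) = rayL l := rfl

/-- position of `j` relative to the base -/
structure Reg (i j : LInc) (K R c X c' : ℝ) : Prop where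
  h0 : |coL i j 0| ≤ K * R
  h3 : |coL i j 3| ≤ K * c
  h4 : |coL i j 4| ≤ K * c
  h5 : |coL i j 5| ≤ K * X
  h6 : |coL i j 6| ≤ K * X
  h10 : |coL i j 10| ≤ K * c'

theorem vb_trn {mu : ℝ} (hmu : 0 < mu) {i j : LInc} {K R c X c' : ℝ} (h : Reg i j K R c X c')
    {m : ℝ} (hb : m ≤ ‖vb i‖) : mu * (m - |i.et| * (2 * (K * c)) - |i.d| * (4 * (K * X))) ≤
      ‖vb (trn mu i j)‖ := by
  have e : vb (trn mu i j) = mu • (vb i + (i.et • (!₂[coL i j 3, coL i j 4] : E2) +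
      (2 * i.d) • (!₂[coL i j 5, coL i j 6] : E2))) := by
    ext k
    fin_cases k
    · simp [vb, trn]; ring
    · simp [vb, trn]; ring
  rw [e, norm_smul, Real.norm_eq_abs, abs_of_pos hmu]
  refine mul_le_mul_of_nonneg_left ?_ hmu.le
  have n1 : ‖(!₂[coL i j 3, coL i j 4] : E2)‖ ≤ K * c + K * c :=
    norm_le2 _ (by simpa using h.h3) (by simpa using h.h4)
  have n2 : ‖(!₂[coL i j 5, coL i j 6] : E2)‖ ≤ K * X + K * X :=
    norm_le2 _ (by simpa using h.h5) (by simpa using h.h6)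
  have n3 : ‖i.et • (!₂[coL i j 3, coL i j 4] : E2) +
      (2 * i.d) • (!₂[coL i j 5, coL i j 6] : E2)‖ ≤
      |i.et| * (2 * (K * c)) + |i.d| * (4 * (K * X)) := by
    refine (norm_add_le _ _).trans ?_
    rw [norm_smul, norm_smul, Real.norm_eq_abs, Real.norm_eq_abs, abs_mul, abs_two]
    have a1 := mul_le_mul_of_nonneg_left n1 (abs_nonneg i.et)
    have a2 := mul_le_mul_of_nonneg_left n2 (abs_nonneg i.d)
    linarith
  have n4 := norm_sub_le (vb i + (i.et • (!₂[coL i j 3, coL i j 4] : E2) +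
      (2 * i.d) • (!₂[coL i j 5, coL i j 6] : E2))) (i.et • (!₂[coL i j 3, coL i j 4] : E2) +
      (2 * i.d) • (!₂[coL i j 5, coL i j 6] : E2))
  rw [add_sub_cancel_right] at n4
  linarith

/-- natural box in the visible slots -/
def nbS (w0 sa sb v t y : ℝ) : Fin 12 → ℝ :=
  ![w0 + v, 0, 0, sa + t, sa + t, w0 + v + (sa + t), w0 + v + (sa + t), 0, 0,
    w0 + v + 2 * (sa + t), sb + y, w0 + v + (sb + y)]

theorem near_nbS (B : Base) {lev : ℕ → ℚ → ℕ} {inc : ℕ → ℕ × ℝ → LInc} {σ : Fin 2 → ℕ → ℝ}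
    (hσ : ∀ j n, 0 < σ j n) {w0 sa sb v t y K : ℝ} {n : ℕ} {x z : ℕ × ℝ}
    (h0 : |coL (inc n x) (inc n z) 0| ≤ K * (rho (lev n 0) * B.d n ^ v))
    (h3 : |coL (inc n x) (inc n z) 3| ≤ K * (σ 0 n * B.d n ^ t))
    (h4 : |coL (inc n x) (inc n z) 4| ≤ K * (σ 0 n * B.d n ^ t))
    (h5 : |coL (inc n x) (inc n z) 5| ≤
      K * ((σ 0 n * B.d n ^ t) * (rho (lev n 0) * B.d n ^ v)))
    (h6 : |coL (inc n x) (inc n z) 6| ≤
      K * ((σ 0 n * B.d n ^ t) * (rho (lev n 0) * B.d n ^ v)))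
    (h9 : |coL (inc n x) (inc n z) 9| ≤
      K * ((σ 0 n * B.d n ^ t) ^ 2 * (rho (lev n 0) * B.d n ^ v)))
    (h10 : |coL (inc n x) (inc n z) 10| ≤ K * (σ 1 n * B.d n ^ y))
    (h11 : |coL (inc n x) (inc n z) 11| ≤
      K * ((σ 1 n * B.d n ^ y) * (rho (lev n 0) * B.d n ^ v))) :
    NearS (coN B lev inc σ w0 sa sb n) (B.d n) (nbS w0 sa sb v t y) K x z := by
  have r0 := rho_pos (lev n 0)
  have s0 := hσ 0 n
  have s1 := hσ 1 n
  have dp := fun a => Dp76.dpow_pos B n a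
  have e2 : (2 : ℝ) ^ lev n 0 = (rho (lev n 0))⁻¹ := pow2_eq _
  set lz : ℝ := 2 ^ lev n 0 * B.d n ^ w0 with hlz
  set lc : ℝ := B.d n ^ sa / σ 0 n with hlc
  set lp : ℝ := B.d n ^ sb / σ 1 n with hlp
  have hlz0 : 0 < lz := mul_pos (by positivity) (dp _)
  have hlc0 : 0 < lc := div_pos (dp _) s0
  have hlp0 : 0 < lp := div_pos (dp _) s1
  have E3 : B.d n ^ (sa + t) = lc * (σ 0 n * B.d n ^ t) := by
    rw [hlc, Dp76.dpow_add]; field_simp
  have E0 : B.d n ^ (w0 + v) = lz * (rho (lev n 0) * B.d n ^ v) := by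
    rw [hlz, e2, Dp76.dpow_add]; field_simp
  have E10 : B.d n ^ (sb + y) = lp * (σ 1 n * B.d n ^ y) := by
    rw [hlp, Dp76.dpow_add]; field_simp
  have E5 : B.d n ^ (w0 + v + (sa + t)) =
      (lz * lc) * ((σ 0 n * B.d n ^ t) * (rho (lev n 0) * B.d n ^ v)) := by
    rw [Dp76.dpow_add B n (w0 + v), E0, E3]; ring
  have E11 : B.d n ^ (w0 + v + (sb + y)) =
      (lz * lp) * ((σ 1 n * B.d n ^ y) * (rho (lev n 0) * B.d n ^ v)) := by
    rw [Dp76.dpow_add B n (w0 + v), E0, E10]; ring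
  have E9 : B.d n ^ (w0 + v + 2 * (sa + t)) =
      (lz * lc ^ 2) * ((σ 0 n * B.d n ^ t) ^ 2 * (rho (lev n 0) * B.d n ^ v)) := by
    rw [show w0 + v + 2 * (sa + t) = (w0 + v) + (sa + t) + (sa + t) by ring, Dp76.dpow_add,
      Dp76.dpow_add B n (w0 + v), E0, E3]
    ring
  have key : ∀ (k : Fin 12) {u P Y : ℝ}, coN B lev inc σ w0 sa sb n x z k =
      u * coL (inc n x) (inc n z) k → 0 < u → P = u * Y →
      |coL (inc n x) (inc n z) k| ≤ K * Y → |coN B lev inc σ w0 sa sb n x z k| ≤ K * P := by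
    intro k u P Y h1 h2 h3 h4
    rw [h1, abs_mul, abs_of_pos h2, h3]
    have := mul_le_mul_of_nonneg_left h4 h2.le
    linarith
  intro k hk
  obtain ⟨k1, k2, k7, k8⟩ := hk
  fin_cases k
  · exact key 0 rfl hlz0 E0 h0
  · exact absurd rfl k1
  · exact absurd rfl k2
  · exact key 3 rfl hlc0 E3 h3
  · exact key 4 rfl hlc0 E3 h4
  · exact key 5 rfl (mul_pos hlz0 hlc0) E5 h5
  · exact key 6 rfl (mul_pos hlz0 hlc0) E5 h6
  · exact absurd rfl k7
  · exact absurd rfl k8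
  · exact key 9 rfl (mul_pos hlz0 (pow_pos hlc0 2)) E9 h9
  · exact key 10 rfl hlp0 E10 h10
  · exact key 11 rfl (mul_pos hlz0 hlp0) E11 h11

section fine

variable {B : Base} {I : ℕ → Finset (ℕ × ℝ)} {G : Geo TSet (Fin 2)} {lev : ℕ → ℚ → ℕ}
    {A : ℕ → ℝ} {g s : ℝ} {τ : Fin 2 → ℝ → ℝ} {f : ℕ → ℚ → ℕ → ℤ → ℕ} {b : ℕ → ℚ → ℕ → TSet}
    {vm : ℕ → ℚ → ℝ} {w : Fin 2 → ℕ → ℚ → ℝ}
    {inc : ℕ → ℕ × ℝ → LInc} {σ : Fin 2 → ℕ → ℝ} {q : Fin 2 → ℝ} {M0 c0 Rg θ : ℝ}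

/-- conditions on the base flags -/
structure BaseOK (B : Base) (lev : ℕ → ℚ → ℕ) (σ : Fin 2 → ℕ → ℝ) (θ : ℝ) (i : ℕ → LInc) : Prop where
  hb : ∀ᶠ n in (U : Filter ℕ), 1 / 4 ≤ ‖vb (i n)‖
  he : ∀ ε : ℝ, 0 < ε → ∀ᶠ n in (U : Filter ℕ), |(i n).et| * σ 0 n ≤ B.d n ^ (-ε)
  hd : ∀ ε : ℝ, 0 < ε → ∀ᶠ n in (U : Filter ℕ),
    |(i n).d| * (σ 0 n * rho (lev n 0)) ≤ B.d n ^ (-θ - ε)

open Classical in
/-- the flags transported from the base -/
noncomputable def incT (B : Base) (lev : ℕ → ℚ → ℕ) (σ : Fin 2 → ℕ → ℝ) (v t t0 y K : ℝ)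
    (i : ℕ → LInc) (inc : ℕ → ℕ × ℝ → LInc) (n : ℕ) (x : ℕ × ℝ) : LInc :=
  if Reg (i n) (inc n x) K (rho (lev n 0) * B.d n ^ v) (σ 0 n * B.d n ^ t)
    ((σ 0 n * B.d n ^ t0) * (rho (lev n 0) * B.d n ^ v)) (σ 1 n * B.d n ^ y) then
    trn 8 (i n) (inc n x) else inc n x

theorem ldata_T (h : LData B I G lev inc σ q M0 c0 Rg θ) {i : ℕ → LInc} (hi : BaseOK B lev σ θ i)
    {v t t0 y K : ℝ} (ht : 0 < t) (hK : 1 ≤ K) (hθ : θ ≤ v) (hvt : θ < v + t0) :
    LData B I G lev (incT B lev σ v t t0 y K i inc) σ q M0 c0 Rg θ where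
  qp := h.qp
  Mp := h.Mp
  cp := h.cp
  σp := h.σp
  mem := fun n x hx i' J a m hm => by
    refine h.mem n x hx i' J a m ?_
    unfold incT at hm
    split_ifs at hm with hr
    · rwa [rayL_trn] at hm
    · exact hm
  adm := h.adm
  val := h.val
  hz := fun n x hx => by
    unfold incT
    split_ifs with hr
    · exact h.hz n x hx
    · exact h.hz n x hx
  hb := by
    have h1 : 0 < t / 2 := by linarith
    have h2 : 0 < (v + t0 - θ) / 2 := by linarith
    have hK0 : 0 < K := by linarith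
    filter_upwards [h.hb, hi.hb, hi.he _ h1, hi.hd _ h2,
      ev_pow B (K := 2 * K) (κ := 1 / 16) (a := t / 2) (b := 0) (by linarith) (by norm_num) h1,
      ev_pow B (K := 4 * K) (κ := 1 / 16) (a := (v + t0 - θ) / 2) (b := 0) (by linarith)
        (by norm_num) h2] with n e1 e2 e3 e4 e5 e6 x hx
    unfold incT
    split_ifs with hr
    · refine le_trans ?_ (vb_trn (by norm_num : (0 : ℝ) < 8) hr e2)
      rw [Real.rpow_zero, mul_one] at e5 e6
      have dp := fun a => Dp76.dpow_pos B n a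
      have a1 : |(i n).et| * (2 * (K * (σ 0 n * B.d n ^ t))) ≤ 1 / 16 := by
        calc |(i n).et| * (2 * (K * (σ 0 n * B.d n ^ t))) =
              (|(i n).et| * σ 0 n) * (2 * K * B.d n ^ t) := by ring
          _ ≤ B.d n ^ (-(t / 2)) * (2 * K * B.d n ^ t) :=
              mul_le_mul_of_nonneg_right e3 (mul_pos (by linarith) (dp _)).le
          _ = 2 * K * B.d n ^ (t / 2) := by
              rw [show t / 2 = -(t / 2) + t by ring, Dp76.dpow_add, show -(t / 2) + t = t / 2 by ring]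
              ring
          _ ≤ 1 / 16 := e5
      have a2 : |(i n).d| * (4 * (K * ((σ 0 n * B.d n ^ t0) * (rho (lev n 0) * B.d n ^ v)))) ≤
          1 / 16 := by
        calc |(i n).d| * (4 * (K * ((σ 0 n * B.d n ^ t0) * (rho (lev n 0) * B.d n ^ v)))) =
              (|(i n).d| * (σ 0 n * rho (lev n 0))) * (4 * K * (B.d n ^ t0 * B.d n ^ v)) := by ring
          _ ≤ B.d n ^ (-θ - (v + t0 - θ) / 2) * (4 * K * (B.d n ^ t0 * B.d n ^ v)) := by
              refine mul_le_mul_of_nonneg_right e4 ?_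
              exact mul_nonneg (by linarith) (mul_pos (dp _) (dp _)).le
          _ = 4 * K * B.d n ^ ((v + t0 - θ) / 2) := by
              rw [show (v + t0 - θ) / 2 = (-θ - (v + t0 - θ) / 2) + (t0 + v) by ring,
                Dp76.dpow_add B n (-θ - (v + t0 - θ) / 2), Dp76.dpow_add B n t0]
              have : -θ - (-θ - (v + t0 - θ) / 2 + (t0 + v)) = -θ - (v + t0 - θ) / 2 := by ring
              rw [this]
              ring
          _ ≤ 1 / 16 := e6
      linarith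
    · exact e1 x hx
  he := fun ε hε => by
    have hε2 : 0 < ε / 2 := by linarith
    have hK0 : 0 < K := by linarith
    filter_upwards [h.he ε hε, hi.he _ hε2, hi.hd _ hε2,
      ev_pow B (K := 8 + 16 * K) (κ := 1) (a := -(ε / 2)) (b := -ε) (by linarith) one_pos
        (by linarith)] with n e1 e2 e3 e4 x hx
    unfold incT
    split_ifs with hr
    · have dp := fun a => Dp76.dpow_pos B n a
      have s0 := h.σp 0 n
      have a0 : |(i n).et - 2 * (i n).d * coL (i n) (inc n x) 0| ≤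
          |(i n).et| + 2 * |(i n).d| * (K * (rho (lev n 0) * B.d n ^ v)) := by
        refine (abs_sub _ _).trans ?_
        rw [abs_mul, abs_mul, abs_two]
        have := mul_le_mul_of_nonneg_left hr.h0 (show 0 ≤ 2 * |(i n).d| by positivity)
        linarith
      have a1 : B.d n ^ (-θ - ε / 2) * B.d n ^ v ≤ B.d n ^ (-(ε / 2)) := by
        rw [← Dp76.dpow_add]; exact Dp76.dpow_le B n (by linarith)
      show |8 * ((i n).et - 2 * (i n).d * coL (i n) (inc n x) 0)| * σ 0 n ≤ _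
      rw [abs_mul, abs_of_pos (by norm_num : (0 : ℝ) < 8)]
      calc 8 * |(i n).et - 2 * (i n).d * coL (i n) (inc n x) 0| * σ 0 n
          ≤ 8 * (|(i n).et| + 2 * |(i n).d| * (K * (rho (lev n 0) * B.d n ^ v))) * σ 0 n := by
            refine mul_le_mul_of_nonneg_right ?_ s0.le
            exact mul_le_mul_of_nonneg_left a0 (by norm_num)
        _ = 8 * (|(i n).et| * σ 0 n) +
              16 * K * ((|(i n).d| * (σ 0 n * rho (lev n 0))) * B.d n ^ v) := by ring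
        _ ≤ 8 * B.d n ^ (-(ε / 2)) + 16 * K * (B.d n ^ (-θ - ε / 2) * B.d n ^ v) := by
            refine add_le_add (mul_le_mul_of_nonneg_left e2 (by norm_num)) ?_
            refine mul_le_mul_of_nonneg_left ?_ (by linarith)
            exact mul_le_mul_of_nonneg_right e3 (dp _).le
        _ ≤ 8 * B.d n ^ (-(ε / 2)) + 16 * K * B.d n ^ (-(ε / 2)) := by
            have := mul_le_mul_of_nonneg_left a1 (show 0 ≤ 16 * K by linarith)
            linarith
        _ = (8 + 16 * K) * B.d n ^ (-(ε / 2)) := by ring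
        _ ≤ B.d n ^ (-ε) := by linarith
    · exact e1 x hx
  hd := fun ε hε => by
    have hε2 : 0 < ε / 2 := by linarith
    filter_upwards [h.hd ε hε, hi.hd _ hε2,
      ev_pow B (K := 8) (κ := 1) (a := -θ - ε / 2) (b := -θ - ε) (by norm_num) one_pos
        (by linarith)] with n e1 e2 e3 x hx
    unfold incT
    split_ifs with hr
    · show |8 * (i n).d| * (σ 0 n * rho (lev n 0)) ≤ _
      rw [abs_mul, abs_of_pos (by norm_num : (0 : ℝ) < 8), mul_assoc]
      have := mul_le_mul_of_nonneg_left e2 (by norm_num : (0 : ℝ) ≤ 8)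
      linarith
    · exact e1 x hx
  hσ := h.hσ
  hW := h.hW

open Classical in
/-- **D-max count in a cell seen by the transported flags.** -/
theorem fine_count (hM : MkA B I G lev A (fun v => g * v) (fun v => s * v) τ f b vm w)
    (h : LData B I G lev inc σ q M0 c0 Rg θ) {k0 : ℝ}
    (hk : ∀ ε : ℝ, 0 < ε → ∀ᶠ n in (U : Filter ℕ), σ 1 n ≤ σ 0 n * B.d n ^ (k0 - ε))
    (w0 sa sb : ℝ) {i : ℕ → LInc} (hi : BaseOK B lev σ θ i) {v t t0 y K : ℝ} (ht : 0 < t)
    (hK : 1 ≤ K) (hθ : θ ≤ v) (hvt : θ < v + t0) (hv0 : 0 ≤ v) (hv1 : v ≤ 1)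
    (hRt : t < Rg) (hRy : |y| < Rg) (hty : t ≤ y + k0) {ε : ℝ} (hε : 0 < ε) :
    ∀ᶠ n in (U : Filter ℕ), ∀ j ∈ I n,
      Reg (i n) (inc n j) K (rho (lev n 0) * B.d n ^ v) (σ 0 n * B.d n ^ t)
        ((σ 0 n * B.d n ^ t0) * (rho (lev n 0) * B.d n ^ v)) (σ 1 n * B.d n ^ y) →
      (((I n).filter fun l =>
        Reg (i n) (inc n l) K (rho (lev n 0) * B.d n ^ v) (σ 0 n * B.d n ^ t)
          ((σ 0 n * B.d n ^ t0) * (rho (lev n 0) * B.d n ^ v)) (σ 1 n * B.d n ^ y) ∧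
        |coL (i n) (inc n l) 5 - coL (i n) (inc n j) 5| ≤
          K * ((σ 0 n * B.d n ^ t) * (rho (lev n 0) * B.d n ^ v)) ∧
        |coL (i n) (inc n l) 6 - coL (i n) (inc n j) 6| ≤
          K * ((σ 0 n * B.d n ^ t) * (rho (lev n 0) * B.d n ^ v)) ∧
        |coL (i n) (inc n l) 9 - coL (i n) (inc n j) 9| ≤
          K * ((σ 0 n * B.d n ^ t) ^ 2 * (rho (lev n 0) * B.d n ^ v)) ∧
        |coL (i n) (inc n l) 11 - coL (i n) (inc n j) 11| ≤
          K * ((σ 1 n * B.d n ^ y) * (rho (lev n 0) * B.d n ^ v))).card : ℝ) ≤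
        (A n * VL σ q lev n * B.d n ^ (-(1 - s))) *
          B.d n ^ (-(DL g s q w0 sa sb (nbS w0 sa sb v t y) + ε)) := by
  have h'' := ldata_T h hi (v := v) (t := t) (t0 := t0) (y := y) (K := K) ht hK hθ hvt
  have hp : nbS w0 sa sb v t y ∈ PDS w0 sa sb Rg θ k0 := by
    show w0 ≤ w0 + v ∧ w0 + v ≤ w0 + 1 ∧ sa < sa + t ∧ θ < (w0 + v - w0) + (sa + t - sa) ∧
      sa + t - sa < Rg ∧ |sb + y - sb| < Rg ∧ sa + t - sa ≤ (sb + y - sb) + k0 ∧
      sa + t ≤ sa + t ∧ (w0 + v) + (sa + t) ≤ w0 + v + (sa + t) ∧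
      (w0 + v) + (sa + t) ≤ w0 + v + (sa + t) ∧
      (w0 + v) + 2 * (sa + t) ≤ w0 + v + 2 * (sa + t) ∧ (w0 + v) + (sb + y) ≤ w0 + v + (sb + y)
    rw [show sb + y - sb = y by ring]
    refine ⟨by linarith, by linarith, by linarith, by linarith, by linarith, hRy, by linarith,
      le_rfl, le_rfl, le_rfl, le_rfl, le_rfl⟩
  have hK3 : 1 ≤ K ^ 3 := one_le_pow₀ hK
  have key := gDS_L hM h'' hk w0 sa sb _ hp (8 * 8 * K ^ 3) (by linarith) ε hε
  filter_upwards [key] with n hn j hj hrj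
  refine le_trans ?_ (hn j hj)
  refine Nat.cast_le.2 (Finset.card_le_card fun l hl => ?_)
  rw [mem_filter] at hl ⊢
  obtain ⟨hl, hrl, d5, d6, d9, d11⟩ := hl
  refine ⟨hl, ?_⟩
  have dp := fun a => Dp76.dpow_pos B n a
  have r0 := rho_pos (lev n 0)
  have s0 := h.σp 0 n
  have s1 := h.σp 1 n
  obtain ⟨c0, c3, c4, c5, c6, c9, c10, c11⟩ := cell_near (mu := 8) (by norm_num)
    (mul_pos r0 (dp v)) (mul_pos s0 (dp t)) (mul_pos s1 (dp y)) hK hrj.h0 hrj.h3 hrj.h4 hrj.h10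
    hrl.h0 hrl.h3 hrl.h4 hrl.h10 d5 d6 d9 d11
  have ej : incT B lev σ v t t0 y K i inc n j = trn 8 (i n) (inc n j) := if_pos hrj
  have el : incT B lev σ v t t0 y K i inc n l = trn 8 (i n) (inc n l) := if_pos hrl
  have e : ∀ k : Fin 12, Vf k → coL (incT B lev σ v t t0 y K i inc n j)
      (incT B lev σ v t t0 y K i inc n l) k = coL (trn 8 (i n) (inc n j)) (inc n l) k := by
    intro k hk
    rw [ej, el, coL_snd 8 _ _ _ hk]
  refine near_nbS B h.σp ?_ ?_ ?_ ?_ ?_ ?_ ?_ ?_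
  · rw [e 0 (by decide)]; exact c0
  · rw [e 3 (by decide)]; exact c3
  · rw [e 4 (by decide)]; exact c4
  · rw [e 5 (by decide)]; exact c5
  · rw [e 6 (by decide)]; exact c6
  · rw [e 9 (by decide)]; exact c9
  · rw [e 10 (by decide)]; exact c10
  · rw [e 11 (by decide)]; exact c11

end fine

end Crest.Agent.R116.Gd222
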