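import Crest.Agent.R116.Gt1_222

/-!
# R116, GEO-D of the light-ray chart (helper222), part 8: tilted strips, thin case

* `strip_abs` : the class seen from one base flag, a strip of relative width `d^y` in the velocity
  plane (any direction): the D-max count gains `d^(gam y)`.
-/

set_option autoImplicit false

open Finset Filter Topology

namespace Crest.Agent.R116.Gd222

open Crest.Agent.R138.Defs (E2)
open Crest.Agent.R138.Ex926 (Base U QProf)
open Crest.Agent.R138.Mk163 (zc zl rho alive)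
open Crest.Agent.R138
open Crest.Agent.R136.MkA627
open Crest.Agent.R136.Net191
open Crest.Agent.R136.PqG464
open Crest.Agent.R116.LZg725
open Crest.Agent.R116.ChL222
open Crest.Agent.R116.PL504 (uL eL)

/-- the visible slots are natural -/
structure Nat8 (i j : LInc) (K R c c' : ℝ) : Prop where
  h0 : |coL i j 0| ≤ K * R
  h3 : |coL i j 3| ≤ K * c
  h4 : |coL i j 4| ≤ K * c
  h5 : |coL i j 5| ≤ K * (c * R)
  h6 : |coL i j 6| ≤ K * (c * R)
  h9 : |coL i j 9| ≤ K * (c ^ 2 * R)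
  h10 : |coL i j 10| ≤ K * c'
  h11 : |coL i j 11| ≤ K * (c' * R)

/-- solution of the two equations `b·C`, `t·C` -/
theorem solve2 {b1 b2 t1 t2 C1 C2 nb u v M : ℝ} (hb1 : |b1| ≤ nb) (hb2 : |b2| ≤ nb)
    (ht1 : |t1| ≤ 1) (ht2 : |t2| ≤ 1) (hnb : 1 / 4 ≤ nb) (hM : 0 ≤ M)
    (hD : nb ≤ M * |b1 * t2 - b2 * t1|) (hu : |b1 * C1 + b2 * C2| ≤ u)
    (hv : |t1 * C1 + t2 * C2| ≤ v) :
    |C1| ≤ M * (4 * u + v) ∧ |C2| ≤ M * (4 * u + v) := by
  have hu0 := (abs_nonneg _).trans hu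
  have hv0 := (abs_nonneg _).trans hv
  have hnb0 : 0 < nb := by linarith
  have key : ∀ C : ℝ, |b1 * t2 - b2 * t1| * |C| ≤ u + nb * v → |C| ≤ M * (4 * u + v) := by
    intro C h
    have h1 : nb * |C| ≤ M * (u + nb * v) := by
      calc nb * |C| ≤ M * |b1 * t2 - b2 * t1| * |C| := mul_le_mul_of_nonneg_right hD (abs_nonneg _)
        _ = M * (|b1 * t2 - b2 * t1| * |C|) := by ring
        _ ≤ M * (u + nb * v) := mul_le_mul_of_nonneg_left h hM
    have h2 : M * (u + nb * v) ≤ nb * (M * (4 * u + v)) := by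
      have : u ≤ nb * (4 * u) := by nlinarith
      have := mul_le_mul_of_nonneg_left this hM
      nlinarith
    exact le_of_mul_le_mul_left (h1.trans h2) hnb0
  constructor
  · refine key C1 ?_
    rw [← abs_mul]
    have e : (b1 * t2 - b2 * t1) * C1 = t2 * (b1 * C1 + b2 * C2) - b2 * (t1 * C1 + t2 * C2) := by ring
    rw [e]
    refine (abs_sub _ _).trans (add_le_add ?_ ?_)
    · rw [abs_mul]
      calc |t2| * |b1 * C1 + b2 * C2| ≤ 1 * u := mul_le_mul ht2 hu (abs_nonneg _) zero_le_one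
        _ = u := one_mul _
    · rw [abs_mul]; exact mul_le_mul hb2 hv (abs_nonneg _) hnb0.le
  · refine key C2 ?_
    rw [← abs_mul]
    have e : (b1 * t2 - b2 * t1) * C2 = b1 * (t1 * C1 + t2 * C2) - t1 * (b1 * C1 + b2 * C2) := by ring
    rw [e]
    refine (abs_sub _ _).trans ?_
    rw [abs_mul, abs_mul, add_comm]
    refine add_le_add ?_ ?_
    · calc |t1| * |b1 * C1 + b2 * C2| ≤ 1 * u := mul_le_mul ht1 hu (abs_nonneg _) zero_le_one
        _ = u := one_mul _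
    · exact mul_le_mul hb1 hv (abs_nonneg _) hnb0.le

theorem coL_ten (i j : LInc) : coL i j 10 = i.b1 * coL i j 3 + i.b2 * coL i j 4 +
    i.et * ((coL i j 3 ^ 2 + coL i j 4 ^ 2) / 2) +
    2 * i.d * (coL i j 5 * coL i j 3 + coL i j 6 * coL i j 4 - coL i j 9) := rfl

theorem coL_elf (i j : LInc) : coL i j 11 = i.b1 * coL i j 5 + i.b2 * coL i j 6 +
    i.et * coL i j 9 + i.d * (coL i j 5 ^ 2 + coL i j 6 ^ 2) := rfl

theorem abs_b1_le (i : LInc) : |i.b1| ≤ ‖vb i‖ ∧ |i.b2| ≤ ‖vb i‖ := by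
  have h := normsq2 (vb i)
  have e0 : vb i 0 = i.b1 := rfl
  have e1 : vb i 1 = i.b2 := rfl
  rw [e0, e1] at h
  have hn := norm_nonneg (vb i)
  constructor
  · refine abs_le_of_sq_le_sq' ?_ hn |> fun h => abs_le.2 h
    nlinarith [sq_nonneg i.b2]
  · refine abs_le_of_sq_le_sq' ?_ hn |> fun h => abs_le.2 h
    nlinarith [sq_nonneg i.b1]

/-- the component of `C` and `X` along the gradient -/
theorem comp_b {i j : LInc} {K R c c' E D : ℝ} (hR : 0 < R) (hc : 0 < c) (hK : 1 ≤ K)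
    (h : Nat8 i j K R c c') (hE : |i.et| * c ≤ E) (hD : |i.d| * (c * R) ≤ D) :
    |i.b1 * coL i j 3 + i.b2 * coL i j 4| ≤ K * c' + K ^ 2 * c * (E + 6 * D) ∧
    |i.b1 * coL i j 5 + i.b2 * coL i j 6| ≤ K * (c' * R) + K ^ 2 * (c * R) * (E + 6 * D) := by
  have hK0 : 0 < K := by linarith
  have hKK : K ≤ K ^ 2 := le_self_pow₀ hK (by norm_num)
  have hE0 : 0 ≤ E := le_trans (by positivity) hE
  have hD0 : 0 ≤ D := le_trans (by positivity) hD
  have sq : ∀ {a b : ℝ}, |a| ≤ b → a ^ 2 ≤ b ^ 2 := fun h =>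
    sq_le_sq' (by linarith [(abs_le.1 h).1]) (abs_le.1 h).2
  have C2 : |(coL i j 3 ^ 2 + coL i j 4 ^ 2) / 2| ≤ K ^ 2 * c ^ 2 := by
    rw [abs_of_nonneg (by positivity)]
    have := sq h.h3
    have := sq h.h4
    nlinarith
  have XC : |coL i j 5 * coL i j 3 + coL i j 6 * coL i j 4 - coL i j 9| ≤ 3 * K ^ 2 * (c ^ 2 * R) := by
    have a1 : |coL i j 5 * coL i j 3| ≤ K * (c * R) * (K * c) := by
      rw [abs_mul]; exact mul_le_mul h.h5 h.h3 (abs_nonneg _) (by positivity)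
    have a2 : |coL i j 6 * coL i j 4| ≤ K * (c * R) * (K * c) := by
      rw [abs_mul]; exact mul_le_mul h.h6 h.h4 (abs_nonneg _) (by positivity)
    have a3 : K * (c ^ 2 * R) ≤ K ^ 2 * (c ^ 2 * R) := mul_le_mul_of_nonneg_right hKK (by positivity)
    refine (abs_sub _ _).trans ((add_le_add ((abs_add_le _ _).trans (add_le_add a1 a2))
      (h.h9.trans a3)).trans (le_of_eq (by ring)))
  have X2 : |coL i j 5 ^ 2 + coL i j 6 ^ 2| ≤ 2 * K ^ 2 * (c * R) ^ 2 := by
    rw [abs_of_nonneg (by positivity)]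
    have := sq h.h5
    have := sq h.h6
    nlinarith
  constructor
  · have e : i.b1 * coL i j 3 + i.b2 * coL i j 4 = coL i j 10 -
        i.et * ((coL i j 3 ^ 2 + coL i j 4 ^ 2) / 2) -
        2 * (i.d * (coL i j 5 * coL i j 3 + coL i j 6 * coL i j 4 - coL i j 9)) := by
      rw [coL_ten]; ring
    rw [e]
    refine (abs_sub _ _).trans ?_
    have b1 : |i.et * ((coL i j 3 ^ 2 + coL i j 4 ^ 2) / 2)| ≤ K ^ 2 * c * E := by
      rw [abs_mul]
      calc |i.et| * |(coL i j 3 ^ 2 + coL i j 4 ^ 2) / 2| ≤ |i.et| * (K ^ 2 * c ^ 2) :=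
            mul_le_mul_of_nonneg_left C2 (abs_nonneg _)
        _ = K ^ 2 * c * (|i.et| * c) := by ring
        _ ≤ _ := mul_le_mul_of_nonneg_left hE (by positivity)
    have b2 : |2 * (i.d * (coL i j 5 * coL i j 3 + coL i j 6 * coL i j 4 - coL i j 9))| ≤
        K ^ 2 * c * (6 * D) := by
      rw [abs_mul, abs_mul, abs_two]
      calc 2 * (|i.d| * |coL i j 5 * coL i j 3 + coL i j 6 * coL i j 4 - coL i j 9|)
          ≤ 2 * (|i.d| * (3 * K ^ 2 * (c ^ 2 * R))) := by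
            refine mul_le_mul_of_nonneg_left ?_ (by norm_num)
            exact mul_le_mul_of_nonneg_left XC (abs_nonneg _)
        _ = K ^ 2 * c * 6 * (|i.d| * (c * R)) := by ring
        _ ≤ K ^ 2 * c * 6 * D := mul_le_mul_of_nonneg_left hD (by positivity)
        _ = _ := by ring
    refine (add_le_add ((abs_sub _ _).trans (add_le_add h.h10 b1)) b2).trans (le_of_eq (by ring))
  · have e : i.b1 * coL i j 5 + i.b2 * coL i j 6 = coL i j 11 -
        i.et * coL i j 9 - i.d * (coL i j 5 ^ 2 + coL i j 6 ^ 2) := by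
      rw [coL_elf]; ring
    rw [e]
    refine (abs_sub _ _).trans ?_
    have b1 : |i.et * coL i j 9| ≤ K ^ 2 * (c * R) * E := by
      rw [abs_mul]
      calc |i.et| * |coL i j 9| ≤ |i.et| * (K * (c ^ 2 * R)) :=
            mul_le_mul_of_nonneg_left h.h9 (abs_nonneg _)
        _ = K * (c * R) * (|i.et| * c) := by ring
        _ ≤ K * (c * R) * E := mul_le_mul_of_nonneg_left hE (by positivity)
        _ ≤ K ^ 2 * (c * R) * E := by
            refine mul_le_mul_of_nonneg_right ?_ hE0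
            exact mul_le_mul_of_nonneg_right hKK (by positivity)
    have b2 : |i.d * (coL i j 5 ^ 2 + coL i j 6 ^ 2)| ≤ K ^ 2 * (c * R) * (6 * D) := by
      rw [abs_mul]
      calc |i.d| * |coL i j 5 ^ 2 + coL i j 6 ^ 2| ≤ |i.d| * (2 * K ^ 2 * (c * R) ^ 2) :=
            mul_le_mul_of_nonneg_left X2 (abs_nonneg _)
        _ = K ^ 2 * (c * R) * 2 * (|i.d| * (c * R)) := by ring
        _ ≤ K ^ 2 * (c * R) * 2 * D := mul_le_mul_of_nonneg_left hD (by positivity)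
        _ ≤ _ := by
            have : 0 ≤ K ^ 2 * (c * R) := by positivity
            nlinarith
    refine (add_le_add ((abs_sub _ _).trans (add_le_add h.h11 b1)) b2).trans (le_of_eq (by ring))

/-- the gain -/
noncomputable def kap (q : Fin 2 → ℝ) : ℝ := q 1 / (2 * (1 + q 1))

/-- the gain -/
noncomputable def gam (q : Fin 2 → ℝ) : ℝ := min (q 1 / 2) (q 0 * kap q)

theorem kap_pos {q : Fin 2 → ℝ} (h : 0 < q 1) : 0 < kap q := by unfold kap; positivity

theorem kap_le {q : Fin 2 → ℝ} (h : 0 < q 1) : kap q ≤ 1 / 2 := by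
  unfold kap
  rw [div_le_div_iff₀ (by positivity) (by norm_num)]
  linarith

theorem kap_id {q : Fin 2 → ℝ} (h : 0 < q 1) : (1 + q 1) * (1 - kap q) - 1 = q 1 / 2 := by
  unfold kap
  field_simp
  ring

theorem gam_pos {q : Fin 2 → ℝ} (h0 : 0 < q 0) (h : 0 < q 1) : 0 < gam q :=
  lt_min (by linarith) (mul_pos h0 (kap_pos h))

section strips

variable {B : Base} {I : ℕ → Finset (ℕ × ℝ)} {G : Geo TSet (Fin 2)} {lev : ℕ → ℚ → ℕ}
    {A : ℕ → ℝ} {g s : ℝ} {τ : Fin 2 → ℝ → ℝ} {f : ℕ → ℚ → ℕ → ℤ → ℕ} {b : ℕ → ℚ → ℕ → TSet}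
    {vm : ℕ → ℚ → ℝ} {w : Fin 2 → ℕ → ℚ → ℝ}
    {inc : ℕ → ℕ × ℝ → LInc} {σ : Fin 2 → ℕ → ℝ} {q : Fin 2 → ℝ} {M0 c0 Rg θ : ℝ}

theorem DL_nbS (g s : ℝ) (q : Fin 2 → ℝ) (w0 sa sb v t y : ℝ) :
    DL g s q w0 sa sb (nbS w0 sa sb v t y) = (g - (1 - s)) * v - FL q v t y := by
  have e0 : nbS w0 sa sb v t y 0 = w0 + v := rfl
  have e3 : nbS w0 sa sb v t y 3 = sa + t := rfl
  have e10 : nbS w0 sa sb v t y 10 = sb + y := rfl
  unfold DL
  rw [e0, e3, e10, add_sub_cancel_left, add_sub_cancel_left, add_sub_cancel_left]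

theorem BaseOK.addb {i : ℕ → LInc} (hi : BaseOK B lev σ θ i) {m1 m2 : ℕ → ℝ}
    (hb : ∀ᶠ n in (U : Filter ℕ), 3 / 8 ≤ ‖vb (i n)‖)
    (hm : ∀ᶠ n in (U : Filter ℕ), |m1 n| ≤ 1 / 16 ∧ |m2 n| ≤ 1 / 16) :
    BaseOK B lev σ θ (fun n => addb (m1 n) (m2 n) (i n)) where
  hb := by
    filter_upwards [hb, hm] with n h1 h2
    have e : vb (Gd222.addb (m1 n) (m2 n) (i n)) = vb (i n) + (!₂[m1 n, m2 n] : E2) := by
      ext k
      fin_cases k
      · simp [vb, Gd222.addb]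
      · simp [vb, Gd222.addb]
    have n1 : ‖(!₂[m1 n, m2 n] : E2)‖ ≤ 1 / 16 + 1 / 16 :=
      norm_le2 _ (by simpa using h2.1) (by simpa using h2.2)
    have n2 := norm_sub_le (vb (i n) + (!₂[m1 n, m2 n] : E2)) (!₂[m1 n, m2 n] : E2)
    rw [add_sub_cancel_right] at n2
    rw [e]
    linarith
  he := hi.he
  hd := hi.hd

set_option maxHeartbeats 1000000 in
open Classical in
/-- **strips, case A : the direction is not too close to the wide axis.** -/
theorem strip_A (hM : MkA B I G lev A (fun v => g * v) (fun v => s * v) τ f b vm w)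
    (h : LData B I G lev inc σ q M0 c0 Rg θ) {k0 : ℝ}
    (hk : ∀ ε : ℝ, 0 < ε → ∀ᶠ n in (U : Filter ℕ), σ 1 n ≤ σ 0 n * B.d n ^ (k0 - ε))
    (w0 sa sb : ℝ) {i : ℕ → LInc} (hi : BaseOK B lev σ θ i)
    (hb : ∀ᶠ n in (U : Filter ℕ), 3 / 8 ≤ ‖vb (i n)‖) {t1 t2 e1 e2 : ℕ → ℝ}
    (hdir : ∀ᶠ n in (U : Filter ℕ), |t1 n| ≤ 1 ∧ |t2 n| ≤ 1)
    (he1 : ∀ᶠ n in (U : Filter ℕ), |e1 n| ≤ 1) {κ v t yy y K : ℝ} (hκ0 : 0 ≤ κ) (hκ1 : κ ≤ 1)
    (he2 : ∀ᶠ n in (U : Filter ℕ), B.d n ^ (κ * y) ≤ |e2 n|)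
    (ht : 0 < t) (hK : 1 ≤ K) (hθ : θ ≤ v) (hvt : θ < v + t) (hv0 : 0 ≤ v) (hv1 : v ≤ 1)
    (hRt : t < Rg) (hy : 0 < y) (hRy : |yy| + y < Rg) (hty : t + y < yy + k0) {ε : ℝ}
    (hε : 0 < ε) :
    ∀ᶠ n in (U : Filter ℕ), (((I n).filter fun l =>
        Nat8 (i n) (inc n l) K (rho (lev n 0) * B.d n ^ v) (σ 0 n * B.d n ^ t)
          (σ 1 n * B.d n ^ yy) ∧
        |e1 n * ((t1 n * coL (i n) (inc n l) 3 + t2 n * coL (i n) (inc n l) 4) /
            (σ 0 n * B.d n ^ t)) + e2 n * (coL (i n) (inc n l) 10 / (σ 1 n * B.d n ^ yy))| ≤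
          K * B.d n ^ y).card : ℝ) ≤
      (A n * VL σ q lev n * B.d n ^ (-(1 - s))) *
        B.d n ^ (-(DL g s q w0 sa sb (nbS w0 sa sb v t yy) - ((1 + q 1) * (1 - κ) - 1) * y + ε)) := by
  have hκy : κ * y ≤ y := by nlinarith
  have hκy0 : 0 ≤ κ * y := by positivity
  set y' : ℝ := yy + (1 - κ) * y with hy'
  set η : ℝ := (yy + k0 - t - y) / 2 with hη
  have hηp : 0 < η := by rw [hη]; linarith
  -- the tilt
  set lam : ℕ → ℝ := fun n => e1 n / e2 n * ((σ 1 n * B.d n ^ yy) / (σ 0 n * B.d n ^ t)) with hlam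
  have hlam1 : ∀ᶠ n in (U : Filter ℕ), |lam n| * (σ 0 n * B.d n ^ t) ≤
      (σ 1 n * B.d n ^ yy) * B.d n ^ (-(κ * y)) := by
    filter_upwards [he1, he2] with n a1 a2
    have dp := fun a => Dp76.dpow_pos B n a
    have s0 := h.σp 0 n
    have s1 := h.σp 1 n
    have hc : 0 < σ 0 n * B.d n ^ t := mul_pos s0 (dp _)
    have hc' : 0 < σ 1 n * B.d n ^ yy := mul_pos s1 (dp _)
    have e2p : 0 < |e2 n| := (dp _).trans_le a2
    have e : |lam n| * (σ 0 n * B.d n ^ t) = (|e1 n| / |e2 n|) * (σ 1 n * B.d n ^ yy) := by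
      rw [hlam]
      simp only []
      rw [abs_mul, abs_div, abs_of_pos (div_pos hc' hc), mul_assoc, div_mul_cancel₀ _ hc.ne']
    rw [e, mul_comm]
    refine mul_le_mul_of_nonneg_left ?_ hc'.le
    rw [Real.rpow_neg (B.pos n).le, div_le_iff₀ e2p, inv_mul_eq_div, le_div_iff₀ (dp _)]
    calc |e1 n| * B.d n ^ (κ * y) ≤ 1 * B.d n ^ (κ * y) :=
          mul_le_mul_of_nonneg_right a1 (dp _).le
      _ ≤ |e2 n| := by rw [one_mul]; exact a2
  have hlam2 : ∀ᶠ n in (U : Filter ℕ), |lam n| ≤ 1 / 16 := by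
    filter_upwards [hlam1, hk η hηp, ev_pow B (K := 1) (κ := 1 / 16) (a := η) (b := 0) one_pos
      (by norm_num) hηp] with n a1 a2 a3
    have dp := fun a => Dp76.dpow_pos B n a
    have s0 := h.σp 0 n
    have hc : 0 < σ 0 n * B.d n ^ t := mul_pos s0 (dp _)
    rw [Real.rpow_zero, mul_one, one_mul] at a3
    refine le_of_mul_le_mul_right (a := σ 0 n * B.d n ^ t) ?_ hc
    refine a1.trans ?_
    calc σ 1 n * B.d n ^ yy * B.d n ^ (-(κ * y))
        ≤ (σ 0 n * B.d n ^ (k0 - η)) * B.d n ^ yy * B.d n ^ (-(κ * y)) := by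
          refine mul_le_mul_of_nonneg_right ?_ (dp _).le
          exact mul_le_mul_of_nonneg_right a2 (dp _).le
      _ = σ 0 n * B.d n ^ (k0 - η + yy + -(κ * y) - t) * B.d n ^ t := by
          rw [mul_assoc (σ 0 n), mul_assoc (σ 0 n), mul_assoc (σ 0 n), ← Dp76.dpow_add,
            ← Dp76.dpow_add, ← Dp76.dpow_add]
          congr 2; ring
      _ ≤ σ 0 n * B.d n ^ η * B.d n ^ t := by
          refine mul_le_mul_of_nonneg_right ?_ (dp _).le
          exact mul_le_mul_of_nonneg_left (Dp76.dpow_le B n (by rw [hη]; linarith)) s0.le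
      _ ≤ σ 0 n * (1 / 16) * B.d n ^ t := by
          refine mul_le_mul_of_nonneg_right ?_ (dp _).le
          exact mul_le_mul_of_nonneg_left a3 s0.le
      _ = 1 / 16 * (σ 0 n * B.d n ^ t) := by ring
  have hi' : BaseOK B lev σ θ (fun n => addb (lam n * t1 n) (lam n * t2 n) (i n)) := by
    refine hi.addb hb ?_
    filter_upwards [hlam2, hdir] with n a1 a2
    constructor
    · rw [abs_mul]
      calc |lam n| * |t1 n| ≤ 1 / 16 * 1 := mul_le_mul a1 a2.1 (abs_nonneg _) (by norm_num)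
        _ = 1 / 16 := by norm_num
    · rw [abs_mul]
      calc |lam n| * |t2 n| ≤ 1 / 16 * 1 := mul_le_mul a1 a2.2 (abs_nonneg _) (by norm_num)
        _ = 1 / 16 := by norm_num
  have hy'R : |y'| < Rg := by
    have h1 : |(1 - κ) * y| ≤ y := by
      rw [abs_of_nonneg (mul_nonneg (by linarith) hy.le)]
      nlinarith
    exact lt_of_le_of_lt ((abs_add_le _ _).trans (add_le_add le_rfl h1)) hRy
  have hε2 : 0 < ε / 2 := by linarith
  have hfc := fine_count hM h hk w0 sa sb hi' (v := v) (t := t) (t0 := t) (y := y') (K := 4 * K)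
    ht (by linarith) hθ hvt hv0 hv1 hRt hy'R (by rw [hy']; nlinarith) hε2
  filter_upwards [hfc, hlam1, hdir, he1, he2,
    ev_pow B (K := 8 * K) (κ := 1) (a := ε / 2) (b := 0) (by linarith) one_pos hε2]
    with n n1 n2 n3 n4 n5 n6
  have dp := fun a => Dp76.dpow_pos B n a
  have s0 := h.σp 0 n
  have s1 := h.σp 1 n
  have r0 := rho_pos (lev n 0)
  have e2p : 0 < |e2 n| := (dp _).trans_le n5
  obtain ⟨R, hR⟩ : ∃ R : ℝ, R = rho (lev n 0) * B.d n ^ v := ⟨_, rfl⟩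
  obtain ⟨c, hc⟩ : ∃ c : ℝ, c = σ 0 n * B.d n ^ t := ⟨_, rfl⟩
  obtain ⟨c', hc'⟩ : ∃ c' : ℝ, c' = σ 1 n * B.d n ^ yy := ⟨_, rfl⟩
  obtain ⟨cf, hcf⟩ : ∃ cf : ℝ, cf = σ 1 n * B.d n ^ y' := ⟨_, rfl⟩
  rw [← hR, ← hc, ← hcf] at n1
  rw [← hc, ← hc'] at n2
  rw [← hR, ← hc, ← hc']
  have Rp : 0 < R := by rw [hR]; exact mul_pos r0 (dp _)
  have cp : 0 < c := by rw [hc]; exact mul_pos s0 (dp _)
  have cp' : 0 < c' := by rw [hc']; exact mul_pos s1 (dp _)
  have cfp : 0 < cf := by rw [hcf]; exact mul_pos s1 (dp _)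
  have ecf : cf = c' * B.d n ^ ((1 - κ) * y) := by
    rw [hcf, hc', hy', Dp76.dpow_add]; ring
  have hK0 : 0 < K := by linarith
  rw [Real.rpow_zero, mul_one] at n6
  set S := (I n).filter fun l => Nat8 (i n) (inc n l) K R c c' ∧
    |e1 n * ((t1 n * coL (i n) (inc n l) 3 + t2 n * coL (i n) (inc n l) 4) / c) +
      e2 n * (coL (i n) (inc n l) 10 / c')| ≤ K * B.d n ^ y with hS
  set i' : LInc := addb (lam n * t1 n) (lam n * t2 n) (i n) with hi'd
  have co := fun l => coL_addb (lam n * t1 n) (lam n * t2 n) (i n) l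
  -- the members of the strip
  have hreg : ∀ l ∈ S, Reg i' (inc n l) (4 * K) R c (c * R) cf ∧
      |coL i' (inc n l) 9| ≤ K * (c ^ 2 * R) ∧ |coL i' (inc n l) 5| ≤ K * (c * R) ∧
      |coL i' (inc n l) 6| ≤ K * (c * R) ∧
      |coL i' (inc n l) 11| ≤ 3 * K * (c' * B.d n ^ (-(κ * y)) * R) := by
    intro l hl
    rw [hS, mem_filter] at hl
    obtain ⟨hl, hN, hst⟩ := hl
    obtain ⟨c0, c3, c4, c5, c6, c9, c10, c11⟩ := co (inc n l)
    have le4 : ∀ {x X : ℝ}, 0 ≤ X → |x| ≤ K * X → |x| ≤ 4 * K * X := by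
      intro x X hX hx
      have : 0 ≤ K * X := by positivity
      linarith
    have h10 : |coL i' (inc n l) 10| ≤ K * cf := by
      have e : coL i' (inc n l) 10 = (c' / e2 n) *
          (e1 n * ((t1 n * coL (i n) (inc n l) 3 + t2 n * coL (i n) (inc n l) 4) / c) +
            e2 n * (coL (i n) (inc n l) 10 / c')) := by
        rw [hi'd, c10, hlam]
        simp only []
        rw [← hc, ← hc']
        have : e2 n ≠ 0 := abs_pos.1 e2p
        field_simp
        ring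
      rw [e, abs_mul, abs_div, abs_of_pos cp']
      have h1 : c' / |e2 n| ≤ c' * B.d n ^ (-(κ * y)) := by
        rw [Real.rpow_neg (B.pos n).le, ← div_eq_mul_inv]
        exact div_le_div_of_nonneg_left cp'.le (dp _) n5
      calc c' / |e2 n| * _ ≤ (c' * B.d n ^ (-(κ * y))) * (K * B.d n ^ y) :=
            mul_le_mul h1 hst (abs_nonneg _) (mul_pos cp' (dp _)).le
        _ = K * cf := by
            rw [ecf, show (1 - κ) * y = -(κ * y) + y by ring, Dp76.dpow_add]; ring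
    have hX : ∀ u1 u2 : ℝ, |u1| ≤ K * (c * R) → |u2| ≤ K * (c * R) →
        |lam n * t1 n * u1 + lam n * t2 n * u2| ≤ 2 * K * (c' * B.d n ^ (-(κ * y)) * R) := by
      intro u1 u2 g1 g2
      have g3 : |t1 n * u1 + t2 n * u2| ≤ 2 * (K * (c * R)) := by
        refine (abs_add_le _ _).trans ?_
        rw [abs_mul, abs_mul]
        have a1 : |t1 n| * |u1| ≤ 1 * (K * (c * R)) :=
          mul_le_mul n3.1 g1 (abs_nonneg _) zero_le_one
        have a2 : |t2 n| * |u2| ≤ 1 * (K * (c * R)) :=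
          mul_le_mul n3.2 g2 (abs_nonneg _) zero_le_one
        linarith
      have e : lam n * t1 n * u1 + lam n * t2 n * u2 = lam n * (t1 n * u1 + t2 n * u2) := by ring
      rw [e, abs_mul]
      calc |lam n| * |t1 n * u1 + t2 n * u2| ≤ |lam n| * (2 * (K * (c * R))) :=
            mul_le_mul_of_nonneg_left g3 (abs_nonneg _)
        _ = 2 * K * R * (|lam n| * c) := by ring
        _ ≤ 2 * K * R * (c' * B.d n ^ (-(κ * y))) := mul_le_mul_of_nonneg_left n2 (by positivity)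
        _ = _ := by ring
    refine ⟨⟨?_, ?_, ?_, ?_, ?_, ?_⟩, ?_, ?_, ?_, ?_⟩
    · rw [hi'd, c0]; exact le4 Rp.le hN.h0
    · rw [hi'd, c3]; exact le4 cp.le hN.h3
    · rw [hi'd, c4]; exact le4 cp.le hN.h4
    · rw [hi'd, c5]; exact le4 (by positivity) hN.h5
    · rw [hi'd, c6]; exact le4 (by positivity) hN.h6
    · exact le4 cfp.le h10
    · rw [hi'd, c9]; exact hN.h9
    · rw [hi'd, c5]; exact hN.h5
    · rw [hi'd, c6]; exact hN.h6
    · rw [hi'd, c11]
      refine (abs_add_le _ _).trans ((add_le_add hN.h11 (hX _ _ hN.h5 hN.h6)).trans ?_)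
      have h1 : 1 ≤ B.d n ^ (-(κ * y)) :=
        Real.one_le_rpow_of_pos_of_le_one_of_nonpos (B.pos n) (B.lt n).le (by linarith)
      have h2 : K * (c' * R) * 1 ≤ K * (c' * R) * B.d n ^ (-(κ * y)) :=
        mul_le_mul_of_nonneg_left h1 (by positivity)
      have h3 : K * (c' * R) * B.d n ^ (-(κ * y)) = K * (c' * B.d n ^ (-(κ * y)) * R) := by ring
      linarith
  set M : ℝ := (A n * VL σ q lev n * B.d n ^ (-(1 - s))) *
    B.d n ^ (-(DL g s q w0 sa sb (nbS w0 sa sb v t y') + ε / 2)) with hMd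
  have hM0 : 0 ≤ M := by
    have hA := (hM.Apos n).le
    have hV : 0 ≤ VL σ q lev n := by unfold VL; positivity
    have := dp (-(1 - s))
    have := dp (-(DL g s q w0 sa sb (nbS w0 sa sb v t y') + ε / 2))
    positivity
  have hcells := cells1 S (fun l => coL i' (inc n l) 11)
    (R := 3 * K * (c' * B.d n ^ (-(κ * y)) * R)) (δ := cf * R) (M := M) (by positivity)
    (by have := dp (-(κ * y)); positivity) hM0 (fun l hl => (hreg l hl).2.2.2.2) (by
      intro j hj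
      have hjI : j ∈ I n := (mem_filter.1 hj).1
      refine le_trans ?_ (n1 j hjI (hreg j hj).1)
      refine Nat.cast_le.2 (Finset.card_le_card fun l hl => ?_)
      rw [mem_filter] at hl
      obtain ⟨hl, hcell⟩ := hl
      have hlI : l ∈ I n := (mem_filter.1 hl).1
      obtain ⟨gl, gl9, gl5, gl6, -⟩ := hreg l hl
      obtain ⟨gj, gj9, gj5, gj6, -⟩ := hreg j hj
      have two : ∀ {a b X : ℝ}, 0 ≤ X → |a| ≤ K * X → |b| ≤ K * X → |a - b| ≤ 4 * K * X := by
        intro a b X hX ha hb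
        have : 0 ≤ K * X := by positivity
        exact (abs_sub _ _).trans (by linarith)
      rw [mem_filter]
      refine ⟨hlI, gl, two (by positivity) gl5 gj5, two (by positivity) gl6 gj6,
        two (by positivity) gl9 gj9, ?_⟩
      refine hcell.trans ?_
      have hcR : 0 ≤ cf * R := by positivity
      have h4 : 1 * (cf * R) ≤ 4 * K * (cf * R) := mul_le_mul_of_nonneg_right (by linarith) hcR
      rwa [one_mul] at h4)
  refine hcells.trans ?_
  have hratio : 3 * K * (c' * B.d n ^ (-(κ * y)) * R) / (cf * R) = 3 * K * B.d n ^ (-y) := by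
    rw [ecf, show -y = -(κ * y) - (1 - κ) * y by ring, Real.rpow_sub (B.pos n)]
    have := (dp ((1 - κ) * y)).ne'
    field_simp
  rw [hratio]
  have h1 : 1 ≤ B.d n ^ (-y) :=
    Real.one_le_rpow_of_pos_of_le_one_of_nonpos (B.pos n) (B.lt n).le (by linarith)
  have h2 : 2 * (3 * K * B.d n ^ (-y)) + 2 ≤ 8 * K * B.d n ^ (-y) := by
    have : 1 * 1 ≤ K * B.d n ^ (-y) := mul_le_mul hK h1 zero_le_one hK0.le
    linarith
  have h3 : 8 * K * B.d n ^ (-y) ≤ B.d n ^ (-y - ε / 2) := by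
    have e : B.d n ^ (-y) = B.d n ^ (ε / 2) * B.d n ^ (-y - ε / 2) := by
      rw [← Dp76.dpow_add]; congr 1; ring
    rw [e]
    calc 8 * K * (B.d n ^ (ε / 2) * B.d n ^ (-y - ε / 2)) =
          (8 * K * B.d n ^ (ε / 2)) * B.d n ^ (-y - ε / 2) := by ring
      _ ≤ 1 * B.d n ^ (-y - ε / 2) := mul_le_mul_of_nonneg_right n6 (dp _).le
      _ = _ := one_mul _
  calc (2 * (3 * K * B.d n ^ (-y)) + 2) * M ≤ B.d n ^ (-y - ε / 2) * M :=
        mul_le_mul_of_nonneg_right (h2.trans h3) hM0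
    _ = _ := by
        rw [hMd, DL_nbS, DL_nbS]
        rw [show -((g - (1 - s)) * v - FL q v t yy - ((1 + q 1) * (1 - κ) - 1) * y + ε) =
          (-y - ε / 2) + -((g - (1 - s)) * v - FL q v t y' + ε / 2) by
            rw [hy']; unfold FL; ring, Dp76.dpow_add B n (-y - ε / 2)]
        ring

set_option maxHeartbeats 1000000 in
open Classical in
/-- **strips, case B : the direction is close to the wide axis.** -/
theorem strip_B (hM : MkA B I G lev A (fun v => g * v) (fun v => s * v) τ f b vm w)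
    (h : LData B I G lev inc σ q M0 c0 Rg θ) {k0 : ℝ}
    (hk : ∀ ε : ℝ, 0 < ε → ∀ᶠ n in (U : Filter ℕ), σ 1 n ≤ σ 0 n * B.d n ^ (k0 - ε))
    (w0 sa sb : ℝ) {i : ℕ → LInc} (hi : BaseOK B lev σ θ i) {t1 t2 e1 e2 : ℕ → ℝ} {M1 : ℝ}
    (hM1 : 1 ≤ M1)
    (hdir : ∀ᶠ n in (U : Filter ℕ), |t1 n| ≤ 1 ∧ |t2 n| ≤ 1 ∧
      ‖vb (i n)‖ ≤ M1 * |(i n).b1 * t2 n - (i n).b2 * t1 n|)
    (he1 : ∀ᶠ n in (U : Filter ℕ), 1 / 2 ≤ |e1 n|) {κ v t yy y K : ℝ} (hκ0 : 0 ≤ κ) (hκ1 : κ ≤ 1)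
    (he2 : ∀ᶠ n in (U : Filter ℕ), |e2 n| ≤ B.d n ^ (κ * y))
    (hK : 1 ≤ K) (hθ : θ ≤ v) (hv0 : 0 ≤ v) (hv1 : v ≤ 1) (hy : 0 < y) (hyt : y < t)
    (hyv : θ + y < v + t) (hRt : t + y < Rg) (hRy : |yy| < Rg) (hty : t + y < yy + k0) {ε : ℝ}
    (hε : 0 < ε) :
    ∀ᶠ n in (U : Filter ℕ), (((I n).filter fun l =>
        Nat8 (i n) (inc n l) K (rho (lev n 0) * B.d n ^ v) (σ 0 n * B.d n ^ t)
          (σ 1 n * B.d n ^ yy) ∧
        |e1 n * ((t1 n * coL (i n) (inc n l) 3 + t2 n * coL (i n) (inc n l) 4) /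
            (σ 0 n * B.d n ^ t)) + e2 n * (coL (i n) (inc n l) 10 / (σ 1 n * B.d n ^ yy))| ≤
          K * B.d n ^ y).card : ℝ) ≤
      (A n * VL σ q lev n * B.d n ^ (-(1 - s))) *
        B.d n ^ (-(DL g s q w0 sa sb (nbS w0 sa sb v t yy) - q 0 * (κ * y) + ε)) := by
  obtain ⟨ky, hky⟩ : ∃ ky : ℝ, ky = κ * y := ⟨_, rfl⟩
  rw [← hky] at he2 ⊢
  have hkyy : ky ≤ y := by rw [hky]; nlinarith
  have hky0 : 0 ≤ ky := by rw [hky]; positivity
  have ht : 0 < t := by linarith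
  obtain ⟨η, hη, hη1, hη2, hη3⟩ : ∃ η : ℝ, 0 < η ∧ y + η ≤ t - η ∧ y + η ≤ v + t - θ - η ∧
      y + η ≤ yy + k0 - t - η := by
    refine ⟨min (min ((t - y) / 2) ((v + t - θ - y) / 2)) ((yy + k0 - t - y) / 2), ?_, ?_, ?_, ?_⟩
    · exact lt_min (lt_min (by linarith) (by linarith)) (by linarith)
    · have := (min_le_left (min ((t - y) / 2) ((v + t - θ - y) / 2))
        ((yy + k0 - t - y) / 2)).trans (min_le_left _ _)
      linarith
    · have := (min_le_left (min ((t - y) / 2) ((v + t - θ - y) / 2))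
        ((yy + k0 - t - y) / 2)).trans (min_le_right _ _)
      linarith
    · have := min_le_right (min ((t - y) / 2) ((v + t - θ - y) / 2)) ((yy + k0 - t - y) / 2)
      linarith
  have hε2 : 0 < ε / 2 := by linarith
  have hM1K : 1 ≤ M1 * K := by nlinarith
  have hfc := fine_count hM h hk w0 sa sb hi (v := v) (t := t + ky) (t0 := t) (y := yy)
    (K := 16 * (M1 * K)) (by linarith) (by linarith) hθ (by linarith) hv0 hv1 (by linarith) hRy
    (by linarith) hε2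
  filter_upwards [hfc, hdir, he1, he2, hi.hb, hi.he η hη, hi.hd η hη, hk η hη,
    ev_pow B (K := 8 * K ^ 2) (κ := 1) (a := η) (b := 0) (by positivity) one_pos hη,
    ev_pow B (K := 24 * K ^ 2) (κ := 1) (a := ε / 2) (b := 0) (by positivity) one_pos hε2]
    with n n1 n3 n4 n5 n6 n7 n8 n9 n10 n11
  have dp := fun a => Dp76.dpow_pos B n a
  have s0 := h.σp 0 n
  have s1 := h.σp 1 n
  have r0 := rho_pos (lev n 0)
  obtain ⟨R, hR⟩ : ∃ R : ℝ, R = rho (lev n 0) * B.d n ^ v := ⟨_, rfl⟩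
  obtain ⟨c, hc⟩ : ∃ c : ℝ, c = σ 0 n * B.d n ^ t := ⟨_, rfl⟩
  obtain ⟨c', hc'⟩ : ∃ c' : ℝ, c' = σ 1 n * B.d n ^ yy := ⟨_, rfl⟩
  obtain ⟨cf, hcf⟩ : ∃ cf : ℝ, cf = σ 0 n * B.d n ^ (t + ky) := ⟨_, rfl⟩
  rw [← hR, ← hc, ← hc', ← hcf] at n1
  rw [← hR, ← hc, ← hc']
  have Rp : 0 < R := by rw [hR]; exact mul_pos r0 (dp _)
  have cp : 0 < c := by rw [hc]; exact mul_pos s0 (dp _)
  have cp' : 0 < c' := by rw [hc']; exact mul_pos s1 (dp _)
  have cfp : 0 < cf := by rw [hcf]; exact mul_pos s0 (dp _)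
  have ecf : cf = c * B.d n ^ ky := by rw [hcf, hc, Dp76.dpow_add]; ring
  have hK0 : 0 < K := by linarith
  rw [Real.rpow_zero, mul_one] at n10 n11
  obtain ⟨dk, hdk⟩ : ∃ dk : ℝ, dk = B.d n ^ (ky + η) := ⟨_, rfl⟩
  have dkp : 0 < dk := by rw [hdk]; exact dp _
  have hle : ∀ {a : ℝ}, ky + η ≤ a → B.d n ^ a ≤ dk := fun ha => by
    rw [hdk]; exact Dp76.dpow_le B n ha
  have hE : |(i n).et| * c ≤ dk := by
    calc |(i n).et| * c = (|(i n).et| * σ 0 n) * B.d n ^ t := by rw [hc]; ring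
      _ ≤ B.d n ^ (-η) * B.d n ^ t := mul_le_mul_of_nonneg_right n7 (dp _).le
      _ = B.d n ^ (t - η) := by rw [← Dp76.dpow_add]; congr 1; ring
      _ ≤ dk := hle (by linarith)
  have hD : |(i n).d| * (c * R) ≤ dk := by
    calc |(i n).d| * (c * R) = (|(i n).d| * (σ 0 n * rho (lev n 0))) * (B.d n ^ t * B.d n ^ v) := by
          rw [hc, hR]; ring
      _ ≤ B.d n ^ (-θ - η) * (B.d n ^ t * B.d n ^ v) :=
          mul_le_mul_of_nonneg_right n8 (mul_pos (dp _) (dp _)).le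
      _ = B.d n ^ (v + t - θ - η) := by rw [← Dp76.dpow_add, ← Dp76.dpow_add]; congr 1; ring
      _ ≤ dk := hle (by linarith)
  have hcc : c' ≤ c * dk := by
    calc c' ≤ (σ 0 n * B.d n ^ (k0 - η)) * B.d n ^ yy := by
          rw [hc']; exact mul_le_mul_of_nonneg_right n9 (dp _).le
      _ = c * B.d n ^ (yy + k0 - t - η) := by
          rw [hc, mul_assoc, mul_assoc, ← Dp76.dpow_add, ← Dp76.dpow_add]; congr 2; ring
      _ ≤ c * dk := mul_le_mul_of_nonneg_left (hle (by linarith)) cp.le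
  have hdk8 : 8 * K ^ 2 * dk ≤ B.d n ^ ky := by
    rw [hdk, Dp76.dpow_add]
    calc 8 * K ^ 2 * (B.d n ^ ky * B.d n ^ η) = (8 * K ^ 2 * B.d n ^ η) * B.d n ^ ky := by ring
      _ ≤ 1 * B.d n ^ ky := mul_le_mul_of_nonneg_right n10 (dp _).le
      _ = _ := one_mul _
  obtain ⟨hb1, hb2⟩ := abs_b1_le (i n)
  have hKK : K ≤ K ^ 2 := le_self_pow₀ hK (by norm_num)
  set S := (I n).filter fun l => Nat8 (i n) (inc n l) K R c c' ∧
    |e1 n * ((t1 n * coL (i n) (inc n l) 3 + t2 n * coL (i n) (inc n l) 4) / c) +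
      e2 n * (coL (i n) (inc n l) 10 / c')| ≤ K * B.d n ^ y with hS
  -- the members of the strip
  have hreg : ∀ l ∈ S, Reg (i n) (inc n l) (16 * (M1 * K)) R cf (c * R) c' ∧
      |coL (i n) (inc n l) 9| ≤ K * (c ^ 2 * R) ∧ |coL (i n) (inc n l) 11| ≤ K * (c' * R) ∧
      |t1 n * coL (i n) (inc n l) 5 + t2 n * coL (i n) (inc n l) 6| ≤ 2 * K * (c * R) ∧
      |(i n).b1 * coL (i n) (inc n l) 5 + (i n).b2 * coL (i n) (inc n l) 6| ≤ cf * R := by
    intro l hl
    rw [hS, mem_filter] at hl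
    obtain ⟨hl, hN, hst⟩ := hl
    obtain ⟨g1, g2⟩ := comp_b Rp cp hK hN hE hD
    have g3 : K * c' + K ^ 2 * c * (dk + 6 * dk) ≤ cf := by
      have a1 : K * c' ≤ K ^ 2 * (c * dk) := mul_le_mul hKK hcc cp'.le (by positivity)
      have a2 : c * (8 * K ^ 2 * dk) ≤ c * B.d n ^ ky := mul_le_mul_of_nonneg_left hdk8 cp.le
      rw [ecf]
      calc K * c' + K ^ 2 * c * (dk + 6 * dk) ≤ K ^ 2 * (c * dk) + K ^ 2 * c * (dk + 6 * dk) := by
            linarith
        _ = c * (8 * K ^ 2 * dk) := by ring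
        _ ≤ _ := a2
    have g4 : K * (c' * R) + K ^ 2 * (c * R) * (dk + 6 * dk) ≤ cf * R := by
      have := mul_le_mul_of_nonneg_right g3 Rp.le
      linarith
    have le16 : ∀ {x X : ℝ}, 0 ≤ X → |x| ≤ K * X → |x| ≤ 16 * (M1 * K) * X := by
      intro x X hX hx
      have h1 : 0 ≤ K * X := by positivity
      have h2 : 1 * (K * X) ≤ 16 * M1 * (K * X) := mul_le_mul_of_nonneg_right (by linarith) h1
      linarith
    -- the component along `t`
    have h6 : |t1 n * coL (i n) (inc n l) 3 + t2 n * coL (i n) (inc n l) 4| ≤ 4 * K * cf := by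
      obtain ⟨T, hT⟩ : ∃ T : ℝ, T = t1 n * coL (i n) (inc n l) 3 + t2 n * coL (i n) (inc n l) 4 :=
        ⟨_, rfl⟩
      obtain ⟨P, hP⟩ : ∃ P : ℝ, P = coL (i n) (inc n l) 10 := ⟨_, rfl⟩
      rw [← hT, ← hP] at hst
      rw [← hT]
      have a1 : |e2 n * (P / c')| ≤ B.d n ^ ky * K := by
        rw [abs_mul, abs_div, abs_of_pos cp']
        refine mul_le_mul n5 ?_ (by positivity) (dp _).le
        rw [div_le_iff₀ cp', hP]
        exact hN.h10
      have a2 : |e1 n * (T / c)| ≤ 2 * K * B.d n ^ ky := by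
        have e : e1 n * (T / c) = (e1 n * (T / c) + e2 n * (P / c')) - e2 n * (P / c') := by ring
        rw [e]
        have : B.d n ^ y ≤ B.d n ^ ky := Dp76.dpow_le B n hkyy
        have := mul_le_mul_of_nonneg_left this hK0.le
        exact (abs_sub _ _).trans (by linarith)
      rw [abs_mul, abs_div, abs_of_pos cp] at a2
      have a3 : 1 / 2 * (|T| / c) ≤ |e1 n| * (|T| / c) :=
        mul_le_mul_of_nonneg_right n4 (by positivity)
      have a4 : |T| / c ≤ 4 * K * B.d n ^ ky := by linarith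
      rw [div_le_iff₀ cp] at a4
      rw [ecf]
      linarith
    obtain ⟨k3, k4⟩ := solve2 hb1 hb2 n3.1 n3.2.1 n6 (by linarith) n3.2.2 (g1.trans g3) h6
    have h7 : M1 * (4 * cf + 4 * K * cf) ≤ 16 * (M1 * K) * cf := by
      have h1 : M1 * cf * 1 ≤ M1 * cf * K := mul_le_mul_of_nonneg_left hK (by positivity)
      have h2 : 0 ≤ M1 * cf * K := by positivity
      linarith
    refine ⟨⟨le16 Rp.le hN.h0, k3.trans h7, k4.trans h7, le16 (by positivity) hN.h5,
      le16 (by positivity) hN.h6, le16 cp'.le hN.h10⟩, hN.h9, hN.h11, ?_, g2.trans g4⟩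
    refine (abs_add_le _ _).trans ?_
    rw [abs_mul, abs_mul]
    have a1 : |t1 n| * |coL (i n) (inc n l) 5| ≤ 1 * (K * (c * R)) :=
      mul_le_mul n3.1 hN.h5 (abs_nonneg _) zero_le_one
    have a2 : |t2 n| * |coL (i n) (inc n l) 6| ≤ 1 * (K * (c * R)) :=
      mul_le_mul n3.2.1 hN.h6 (abs_nonneg _) zero_le_one
    linarith
  set M : ℝ := (A n * VL σ q lev n * B.d n ^ (-(1 - s))) *
    B.d n ^ (-(DL g s q w0 sa sb (nbS w0 sa sb v (t + ky) yy) + ε / 2)) with hMd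
  have hM0 : 0 ≤ M := by
    have hA := (hM.Apos n).le
    have hV : 0 ≤ VL σ q lev n := by unfold VL; positivity
    have := dp (-(1 - s))
    have := dp (-(DL g s q w0 sa sb (nbS w0 sa sb v (t + ky) yy) + ε / 2))
    positivity
  have hkn : 0 < B.d n ^ ky := dp _
  have r2 : K * (c ^ 2 * R) / (cf ^ 2 * R) = K * B.d n ^ (-(2 * ky)) := by
    have e : B.d n ^ (-(2 * ky)) = ((B.d n ^ ky) ^ 2)⁻¹ := by
      rw [Real.rpow_neg (B.pos n).le, ← Real.rpow_natCast (B.d n ^ ky) 2,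
        ← Real.rpow_mul (B.pos n).le]
      congr 2
      push_cast
      ring
    rw [e, ecf]
    field_simp
  have r1 : 2 * K * (c * R) / (cf * R) = 2 * K * B.d n ^ (-ky) := by
    rw [ecf, Real.rpow_neg (B.pos n).le]
    field_simp
  have hcells := cells1 S (fun l => t1 n * coL (i n) (inc n l) 5 + t2 n * coL (i n) (inc n l) 6)
    (R := 2 * K * (c * R)) (δ := cf * R) (M := (2 * (K * B.d n ^ (-(2 * ky))) + 2) * M)
    (by positivity) (by positivity)
    (by have := dp (-(2 * ky)); positivity) (fun l hl => (hreg l hl).2.2.2.1) (by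
      intro j hj
      rw [← r2]
      refine cells1 _ (fun l => coL (i n) (inc n l) 9) (by positivity) (by positivity) hM0 ?_ ?_
      · intro l hl
        exact (hreg l (mem_filter.1 hl).1).2.1
      · intro j2 hj2
        obtain ⟨hj2S, hj2c⟩ := mem_filter.1 hj2
        have hjI : j2 ∈ I n := (mem_filter.1 hj2S).1
        refine le_trans ?_ (n1 j2 hjI (hreg j2 hj2S).1)
        refine Nat.cast_le.2 (Finset.card_le_card fun l hl => ?_)
        rw [mem_filter, mem_filter] at hl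
        obtain ⟨⟨hlS, hcell1⟩, hcell2⟩ := hl
        have hlI : l ∈ I n := (mem_filter.1 hlS).1
        obtain ⟨gl, gl9, gl11, glt, glb⟩ := hreg l hlS
        obtain ⟨gj, gj9, gj11, gjt, gjb⟩ := hreg j2 hj2S
        have hb' : |(i n).b1 * (coL (i n) (inc n l) 5 - coL (i n) (inc n j2) 5) +
            (i n).b2 * (coL (i n) (inc n l) 6 - coL (i n) (inc n j2) 6)| ≤ 2 * (cf * R) := by
          have e : (i n).b1 * (coL (i n) (inc n l) 5 - coL (i n) (inc n j2) 5) +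
              (i n).b2 * (coL (i n) (inc n l) 6 - coL (i n) (inc n j2) 6) =
              ((i n).b1 * coL (i n) (inc n l) 5 + (i n).b2 * coL (i n) (inc n l) 6) -
              ((i n).b1 * coL (i n) (inc n j2) 5 + (i n).b2 * coL (i n) (inc n j2) 6) := by ring
          rw [e]
          exact (abs_sub _ _).trans (by linarith)
        have ht' : |t1 n * (coL (i n) (inc n l) 5 - coL (i n) (inc n j2) 5) +
            t2 n * (coL (i n) (inc n l) 6 - coL (i n) (inc n j2) 6)| ≤ 2 * (cf * R) := by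
          have e : t1 n * (coL (i n) (inc n l) 5 - coL (i n) (inc n j2) 5) +
              t2 n * (coL (i n) (inc n l) 6 - coL (i n) (inc n j2) 6) =
              ((t1 n * coL (i n) (inc n l) 5 + t2 n * coL (i n) (inc n l) 6) -
                (t1 n * coL (i n) (inc n j) 5 + t2 n * coL (i n) (inc n j) 6)) -
              ((t1 n * coL (i n) (inc n j2) 5 + t2 n * coL (i n) (inc n j2) 6) -
                (t1 n * coL (i n) (inc n j) 5 + t2 n * coL (i n) (inc n j) 6)) := by ring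
          rw [e]
          exact (abs_sub _ _).trans (by linarith [hcell1, hj2c])
        obtain ⟨k5, k6⟩ := solve2 hb1 hb2 n3.1 n3.2.1 n6 (by linarith) n3.2.2 hb' ht'
        have h7 : M1 * (4 * (2 * (cf * R)) + 2 * (cf * R)) ≤ 16 * (M1 * K) * (cf * R) := by
          have h1 : M1 * (cf * R) * 1 ≤ M1 * (cf * R) * K :=
            mul_le_mul_of_nonneg_left hK (by positivity)
          have h2 : 0 ≤ M1 * (cf * R) := by positivity
          linarith
        rw [mem_filter]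
        refine ⟨hlI, gl, k5.trans h7, k6.trans h7, ?_, ?_⟩
        · refine hcell2.trans ?_
          have h1 : 0 ≤ cf ^ 2 * R := by positivity
          have h2 : 1 * (cf ^ 2 * R) ≤ 16 * (M1 * K) * (cf ^ 2 * R) :=
            mul_le_mul_of_nonneg_right (by linarith) h1
          rwa [one_mul] at h2
        · refine (abs_sub _ _).trans ?_
          have h1 : 0 ≤ K * (c' * R) := by positivity
          have h2 : 1 * (K * (c' * R)) ≤ M1 * (K * (c' * R)) :=
            mul_le_mul_of_nonneg_right hM1 h1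
          linarith)
  rw [r1] at hcells
  refine hcells.trans ?_
  have h1 : 1 ≤ B.d n ^ (-ky) :=
    Real.one_le_rpow_of_pos_of_le_one_of_nonpos (B.pos n) (B.lt n).le (by linarith)
  have h1' : 1 ≤ B.d n ^ (-(2 * ky)) :=
    Real.one_le_rpow_of_pos_of_le_one_of_nonpos (B.pos n) (B.lt n).le (by linarith)
  have h2 : 2 * (2 * K * B.d n ^ (-ky)) + 2 ≤ 6 * K * B.d n ^ (-ky) := by
    have : 1 * 1 ≤ K * B.d n ^ (-ky) := mul_le_mul hK h1 zero_le_one hK0.le
    linarith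
  have h2' : 2 * (K * B.d n ^ (-(2 * ky))) + 2 ≤ 4 * K * B.d n ^ (-(2 * ky)) := by
    have : 1 * 1 ≤ K * B.d n ^ (-(2 * ky)) := mul_le_mul hK h1' zero_le_one hK0.le
    linarith
  have p1 := dp (-ky)
  have p2 := dp (-(2 * ky))
  have h3 : (2 * (2 * K * B.d n ^ (-ky)) + 2) * (2 * (K * B.d n ^ (-(2 * ky))) + 2) ≤
      B.d n ^ (-(3 * ky) - ε / 2) := by
    calc (2 * (2 * K * B.d n ^ (-ky)) + 2) * (2 * (K * B.d n ^ (-(2 * ky))) + 2)
        ≤ (6 * K * B.d n ^ (-ky)) * (4 * K * B.d n ^ (-(2 * ky))) :=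
          mul_le_mul h2 h2' (by positivity) (by positivity)
      _ = 24 * K ^ 2 * B.d n ^ (-(3 * ky)) := by
          rw [show -(3 * ky) = -ky + -(2 * ky) by ring, Dp76.dpow_add]; ring
      _ = (24 * K ^ 2 * B.d n ^ (ε / 2)) * B.d n ^ (-(3 * ky) - ε / 2) := by
          rw [show -(3 * ky) = ε / 2 + (-(3 * ky) - ε / 2) by ring, Dp76.dpow_add B n (ε / 2),
            show ε / 2 + (-(3 * ky) - ε / 2) - ε / 2 = -(3 * ky) - ε / 2 by ring]
          ring
      _ ≤ 1 * B.d n ^ (-(3 * ky) - ε / 2) := mul_le_mul_of_nonneg_right n11 (dp _).le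
      _ = _ := one_mul _
  calc (2 * (2 * K * B.d n ^ (-ky)) + 2) * ((2 * (K * B.d n ^ (-(2 * ky))) + 2) * M)
      = ((2 * (2 * K * B.d n ^ (-ky)) + 2) * (2 * (K * B.d n ^ (-(2 * ky))) + 2)) * M := by ring
    _ ≤ B.d n ^ (-(3 * ky) - ε / 2) * M := mul_le_mul_of_nonneg_right h3 hM0
    _ = _ := by
        rw [hMd, DL_nbS, DL_nbS]
        rw [show -((g - (1 - s)) * v - FL q v t yy - q 0 * ky + ε) =
          (-(3 * ky) - ε / 2) + -((g - (1 - s)) * v - FL q v (t + ky) yy + ε / 2) by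
            unfold FL; ring, Dp76.dpow_add B n (-(3 * ky) - ε / 2)]
        ring

end strips

end Crest.Agent.R116.Gd222
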