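import Crest.Agent.R116.Gt2_222

/-!
# R116, GEO-D of the light-ray chart (helper222), part 9: tilted strips, thin case, final form (N1)

* `strip_L`, `strip_T` : D-max for strips of any direction in the velocity plane, uniform in the base
  incidence, the direction and the centre.
-/

set_option autoImplicit false

open Finset Filter Topology

namespace Crest.Agent.R116.Gd222

open Crest.Agent.R138.Defs (E2)
open Crest.Agent.R138.Ex926 (Base U QProf)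
open Crest.Agent.R138.Mk163 (zc zl rho alive)
open Crest.Agent.R138
open Crest.Agent.R136.MkA627
open Crest.Agent.R136.Net191
open Crest.Agent.R136.PqG464
open Crest.Agent.R116.LZg725
open Crest.Agent.R116.ChL222
open Crest.Agent.R116.PL504 (uL eL)

/-- change of the base in a natural class -/
theorem Nat8.move {i j l : LInc} {K R c c' : ℝ} (hR : 0 < R) (hc : 0 < c) (hc' : 0 < c')
    (hK : 1 ≤ K) (hj : Nat8 i j K R c c') (hl : Nat8 i l K R c c') :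
    Nat8 (trn 1 i j) l (64 * K ^ 3) R c c' := by
  have le2 : ∀ {x X : ℝ}, 0 ≤ X → |x| ≤ K * X → |x| ≤ 2 * K * X := by
    intro x X hX hx
    have : 0 ≤ K * X := by positivity
    linarith
  have sub2 : ∀ {x y X : ℝ}, |x| ≤ K * X → |y| ≤ K * X → |x - y| ≤ 2 * K * X := by
    intro x y X h1 h2
    exact (abs_sub _ _).trans (by linarith)
  obtain ⟨g0, g3, g4, g5, g6, g9, g10, g11⟩ := cell_near (mu := 1) (K := 2 * K) le_rfl hR hc hc'
    (by linarith) (le2 hR.le hj.h0) (le2 hc.le hj.h3) (le2 hc.le hj.h4) (le2 hc'.le hj.h10)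
    (le2 hR.le hl.h0) (le2 hc.le hl.h3) (le2 hc.le hl.h4) (le2 hc'.le hl.h10)
    (sub2 hl.h5 hj.h5) (sub2 hl.h6 hj.h6) (sub2 hl.h9 hj.h9) (sub2 hl.h11 hj.h11)
  have e : 8 * 1 * (2 * K) ^ 3 = 64 * K ^ 3 := by ring
  rw [e] at g0 g3 g4 g5 g6 g9 g10 g11
  exact ⟨g0, g3, g4, g5, g6, g9, g10, g11⟩

section strips

variable {B : Base} {I : ℕ → Finset (ℕ × ℝ)} {G : Geo TSet (Fin 2)} {lev : ℕ → ℚ → ℕ}
    {A : ℕ → ℝ} {g s : ℝ} {τ : Fin 2 → ℝ → ℝ} {f : ℕ → ℚ → ℕ → ℤ → ℕ} {b : ℕ → ℚ → ℕ → TSet}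
    {vm : ℕ → ℚ → ℝ} {w : Fin 2 → ℕ → ℚ → ℝ}
    {inc : ℕ → ℕ × ℝ → LInc} {σ : Fin 2 → ℕ → ℝ} {q : Fin 2 → ℝ} {M0 c0 Rg θ : ℝ}

/-- the transported flags of an incidence of the sample are good base flags -/
theorem baseOK_trn (h : LData B I G lev inc σ q M0 c0 Rg θ) {x y : ℕ → ℕ × ℝ} {v t yy K : ℝ}
    (ht : 0 < t) (hK : 1 ≤ K) (hθ : θ ≤ v)
    (hx : ∀ᶠ n in (U : Filter ℕ), x n ∈ I n ∧ Nat8 (inc n (x n)) (inc n (y n)) K
      (rho (lev n 0) * B.d n ^ v) (σ 0 n * B.d n ^ t) (σ 1 n * B.d n ^ yy)) :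
    BaseOK B lev σ θ (fun n => trn 1 (inc n (x n)) (inc n (y n))) ∧
    (∀ᶠ n in (U : Filter ℕ), 3 / 8 ≤ ‖vb (trn 1 (inc n (x n)) (inc n (y n)))‖) ∧
    ∀ᶠ n in (U : Filter ℕ), ∀ t1 t2 : ℝ, |t1| ≤ 1 → |t2| ≤ 1 →
      ‖vb (inc n (x n))‖ ≤ 16 * |(inc n (x n)).b1 * t2 - (inc n (x n)).b2 * t1| →
      ‖vb (trn 1 (inc n (x n)) (inc n (y n)))‖ ≤
        32 * |(trn 1 (inc n (x n)) (inc n (y n))).b1 * t2 -
          (trn 1 (inc n (x n)) (inc n (y n))).b2 * t1| := by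
  have hK0 : 0 < K := by linarith
  -- small change of the gradient
  have hsm : ∀ᶠ n in (U : Filter ℕ),
      |(trn 1 (inc n (x n)) (inc n (y n))).b1 - (inc n (x n)).b1| ≤ 1 / 512 ∧
      |(trn 1 (inc n (x n)) (inc n (y n))).b2 - (inc n (x n)).b2| ≤ 1 / 512 := by
    have h1 : 0 < t / 2 := by linarith
    have h2 : 0 < (v + t - θ) / 2 := by linarith
    filter_upwards [hx, h.he _ h1, h.hd _ h2,
      ev_pow B (K := K) (κ := 1 / 1024) (a := t / 2) (b := 0) hK0 (by norm_num) h1,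
      ev_pow B (K := 2 * K) (κ := 1 / 1024) (a := (v + t - θ) / 2) (b := 0) (by linarith)
        (by norm_num) h2] with n e1 e2 e3 e4 e5
    rw [Real.rpow_zero, mul_one] at e4 e5
    obtain ⟨hxI, hN⟩ := e1
    have dp := fun a => Dp76.dpow_pos B n a
    have s0 := h.σp 0 n
    have r0 := rho_pos (lev n 0)
    have a1 : ∀ {C : ℝ}, |C| ≤ K * (σ 0 n * B.d n ^ t) → |(inc n (x n)).et * C| ≤ 1 / 1024 := by
      intro C hC
      rw [abs_mul]
      calc |(inc n (x n)).et| * |C| ≤ |(inc n (x n)).et| * (K * (σ 0 n * B.d n ^ t)) :=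
            mul_le_mul_of_nonneg_left hC (abs_nonneg _)
        _ = (|(inc n (x n)).et| * σ 0 n) * (K * B.d n ^ t) := by ring
        _ ≤ B.d n ^ (-(t / 2)) * (K * B.d n ^ t) :=
            mul_le_mul_of_nonneg_right (e2 _ hxI) (mul_pos hK0 (dp _)).le
        _ = K * B.d n ^ (t / 2) := by
            rw [show t / 2 = -(t / 2) + t by ring, Dp76.dpow_add, show -(t / 2) + t = t / 2 by ring]
            ring
        _ ≤ _ := e4
    have a2 : ∀ {X : ℝ}, |X| ≤ K * ((σ 0 n * B.d n ^ t) * (rho (lev n 0) * B.d n ^ v)) →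
        |2 * (inc n (x n)).d * X| ≤ 1 / 1024 := by
      intro X hX
      rw [abs_mul, abs_mul, abs_two]
      calc 2 * |(inc n (x n)).d| * |X| ≤ 2 * |(inc n (x n)).d| *
            (K * ((σ 0 n * B.d n ^ t) * (rho (lev n 0) * B.d n ^ v))) :=
            mul_le_mul_of_nonneg_left hX (by positivity)
        _ = (|(inc n (x n)).d| * (σ 0 n * rho (lev n 0))) * (2 * K * (B.d n ^ t * B.d n ^ v)) := by
            ring
        _ ≤ B.d n ^ (-θ - (v + t - θ) / 2) * (2 * K * (B.d n ^ t * B.d n ^ v)) := by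
            refine mul_le_mul_of_nonneg_right (e3 _ hxI) ?_
            exact mul_nonneg (by linarith) (mul_pos (dp _) (dp _)).le
        _ = 2 * K * B.d n ^ ((v + t - θ) / 2) := by
            have e : B.d n ^ ((v + t - θ) / 2) =
                B.d n ^ (-θ - (v + t - θ) / 2) * (B.d n ^ t * B.d n ^ v) := by
              rw [← Dp76.dpow_add, ← Dp76.dpow_add]; congr 1; ring
            rw [e]; ring
        _ ≤ _ := e5
    constructor
    · have e : (trn 1 (inc n (x n)) (inc n (y n))).b1 - (inc n (x n)).b1 =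
          (inc n (x n)).et * coL (inc n (x n)) (inc n (y n)) 3 +
            2 * (inc n (x n)).d * coL (inc n (x n)) (inc n (y n)) 5 := by
        unfold trn
        simp only []
        ring
      rw [e]
      exact (abs_add_le _ _).trans (by linarith [a1 hN.h3, a2 hN.h5])
    · have e : (trn 1 (inc n (x n)) (inc n (y n))).b2 - (inc n (x n)).b2 =
          (inc n (x n)).et * coL (inc n (x n)) (inc n (y n)) 4 +
            2 * (inc n (x n)).d * coL (inc n (x n)) (inc n (y n)) 6 := by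
        unfold trn
        simp only []
        ring
      rw [e]
      exact (abs_add_le _ _).trans (by linarith [a1 hN.h4, a2 hN.h6])
  have hnorm : ∀ᶠ n in (U : Filter ℕ),
      |‖vb (trn 1 (inc n (x n)) (inc n (y n)))‖ - ‖vb (inc n (x n))‖| ≤ 1 / 256 := by
    filter_upwards [hsm] with n h1
    have h2 : ‖vb (trn 1 (inc n (x n)) (inc n (y n))) - vb (inc n (x n))‖ ≤ 1 / 512 + 1 / 512 :=
      norm_le2 _ (by simpa [vb] using h1.1) (by simpa [vb] using h1.2)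
    have h3 := abs_norm_sub_norm_le (vb (trn 1 (inc n (x n)) (inc n (y n)))) (vb (inc n (x n)))
    linarith
  have hlow : ∀ᶠ n in (U : Filter ℕ), 3 / 8 ≤ ‖vb (trn 1 (inc n (x n)) (inc n (y n)))‖ := by
    filter_upwards [hnorm, h.hb, hx] with n h1 h2 h3
    have := (abs_le.1 h1).1
    have := h2 _ h3.1
    linarith
  refine ⟨⟨?_, ?_, ?_⟩, hlow, ?_⟩
  · filter_upwards [hlow] with n h1
    linarith
  · intro ε hε
    have hε2 : 0 < ε / 2 := by linarith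
    filter_upwards [hx, h.he _ hε2, h.hd _ hε2,
      ev_pow B (K := 1 + 2 * K) (κ := 1) (a := -(ε / 2)) (b := -ε) (by linarith) one_pos
        (by linarith)] with n e1 e2 e3 e4
    obtain ⟨hxI, hN⟩ := e1
    have dp := fun a => Dp76.dpow_pos B n a
    have s0 := h.σp 0 n
    have a0 : |(inc n (x n)).et - 2 * (inc n (x n)).d * coL (inc n (x n)) (inc n (y n)) 0| ≤
        |(inc n (x n)).et| + 2 * |(inc n (x n)).d| * (K * (rho (lev n 0) * B.d n ^ v)) := by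
      refine (abs_sub _ _).trans ?_
      rw [abs_mul, abs_mul, abs_two]
      have := mul_le_mul_of_nonneg_left hN.h0 (show 0 ≤ 2 * |(inc n (x n)).d| by positivity)
      linarith
    have a1 : B.d n ^ (-θ - ε / 2) * B.d n ^ v ≤ B.d n ^ (-(ε / 2)) := by
      rw [← Dp76.dpow_add]; exact Dp76.dpow_le B n (by linarith)
    show |1 * ((inc n (x n)).et - 2 * (inc n (x n)).d *
      coL (inc n (x n)) (inc n (y n)) 0)| * σ 0 n ≤ _
    rw [one_mul]
    calc |(inc n (x n)).et - 2 * (inc n (x n)).d * coL (inc n (x n)) (inc n (y n)) 0| * σ 0 n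
        ≤ (|(inc n (x n)).et| + 2 * |(inc n (x n)).d| * (K * (rho (lev n 0) * B.d n ^ v))) *
            σ 0 n := mul_le_mul_of_nonneg_right a0 s0.le
      _ = (|(inc n (x n)).et| * σ 0 n) +
            2 * K * ((|(inc n (x n)).d| * (σ 0 n * rho (lev n 0))) * B.d n ^ v) := by ring
      _ ≤ B.d n ^ (-(ε / 2)) + 2 * K * (B.d n ^ (-θ - ε / 2) * B.d n ^ v) := by
          refine add_le_add (e2 _ hxI) ?_
          refine mul_le_mul_of_nonneg_left ?_ (by linarith)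
          exact mul_le_mul_of_nonneg_right (e3 _ hxI) (dp _).le
      _ ≤ B.d n ^ (-(ε / 2)) + 2 * K * B.d n ^ (-(ε / 2)) := by
          have := mul_le_mul_of_nonneg_left a1 (show 0 ≤ 2 * K by linarith)
          linarith
      _ = (1 + 2 * K) * B.d n ^ (-(ε / 2)) := by ring
      _ ≤ B.d n ^ (-ε) := by linarith
  · intro ε hε
    filter_upwards [hx, h.hd _ hε] with n e1 e2
    show |1 * (inc n (x n)).d| * (σ 0 n * rho (lev n 0)) ≤ _
    rw [one_mul]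
    exact e2 _ e1.1
  · filter_upwards [hsm, hnorm, hlow] with n h1 h2 h3 t1 t2 g1 g2 g3
    set i1 := inc n (x n)
    set i2 := trn 1 (inc n (x n)) (inc n (y n))
    have a1 : |(i1.b1 * t2 - i1.b2 * t1) - (i2.b1 * t2 - i2.b2 * t1)| ≤ 1 / 256 := by
      have e : (i1.b1 * t2 - i1.b2 * t1) - (i2.b1 * t2 - i2.b2 * t1) =
          -((i2.b1 - i1.b1) * t2) + (i2.b2 - i1.b2) * t1 := by ring
      rw [e]
      refine (abs_add_le _ _).trans ?_
      rw [abs_neg, abs_mul, abs_mul]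
      have b1 : |i2.b1 - i1.b1| * |t2| ≤ 1 / 512 * 1 :=
        mul_le_mul h1.1 g2 (abs_nonneg _) (by norm_num)
      have b2 : |i2.b2 - i1.b2| * |t1| ≤ 1 / 512 * 1 :=
        mul_le_mul h1.2 g1 (abs_nonneg _) (by norm_num)
      linarith
    have a2 : |i1.b1 * t2 - i1.b2 * t1| ≤ |i2.b1 * t2 - i2.b2 * t1| + 1 / 256 := by
      have := abs_sub_abs_le_abs_sub (i1.b1 * t2 - i1.b2 * t1) (i2.b1 * t2 - i2.b2 * t1)
      linarith
    have a3 := (abs_le.1 h2).2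
    linarith

theorem nat8_of_near (B : Base) {lev : ℕ → ℚ → ℕ} {inc : ℕ → ℕ × ℝ → LInc} {σ : Fin 2 → ℕ → ℝ}
    (hσ : ∀ j n, 0 < σ j n) {w0 sa sb v t y K : ℝ} {p : Fin 12 → ℝ} (hK : 0 ≤ K)
    (p0 : p 0 = w0 + v) (hp : ∀ k, Vf k → nbS w0 sa sb v t y k ≤ p k) {n : ℕ} {x z : ℕ × ℝ}
    (hn : NearS (coN B lev inc σ w0 sa sb n) (B.d n) p K x z) :
    Nat8 (inc n x) (inc n z) K (rho (lev n 0) * B.d n ^ v) (σ 0 n * B.d n ^ t)
      (σ 1 n * B.d n ^ y) := by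
  obtain ⟨g0, g3, g4, g5, g6, g9, g10, g11⟩ := near_slotsS B hσ hK p0 (hp 3 (by decide))
    (hp 4 (by decide)) (hp 5 (by decide)) (hp 6 (by decide)) (hp 9 (by decide))
    (hp 10 (by decide)) (hp 11 (by decide)) hn (le_refl (rho (lev n 0) * B.d n ^ v))
    (le_refl (σ 0 n * B.d n ^ t)) (le_refl (σ 1 n * B.d n ^ y))
  exact ⟨g0, g3, g4, g5, g6, g9, g10, g11⟩

open Classical in
/-- the strip around the value `u` of the functional `e1 (t·C)/c + e2 P/c'` -/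
noncomputable def stripS (B : Base) (I : ℕ → Finset (ℕ × ℝ)) (lev : ℕ → ℚ → ℕ)
    (inc : ℕ → ℕ × ℝ → LInc) (σ : Fin 2 → ℕ → ℝ) (w0 sa sb : ℝ) (p : Fin 12 → ℝ) (K W : ℝ) (n : ℕ)
    (x : ℕ × ℝ) (t1 t2 e1 e2 u : ℝ) : Finset (ℕ × ℝ) :=
  (I n).filter fun l => NearS (coN B lev inc σ w0 sa sb n) (B.d n) p K x l ∧
    |e1 * ((t1 * coN B lev inc σ w0 sa sb n x l 3 + t2 * coN B lev inc σ w0 sa sb n x l 4) *
        B.d n ^ (-(p 3))) +
      e2 * (coN B lev inc σ w0 sa sb n x l 10 * B.d n ^ (-(p 10))) - u| ≤ W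

set_option maxHeartbeats 1000000 in
/-- **(N1) of [NARROW], thin case.** -/
theorem strip_L (hM : MkA B I G lev A (fun v => g * v) (fun v => s * v) τ f b vm w)
    (h : LData B I G lev inc σ q M0 c0 Rg θ) {k0 : ℝ}
    (hk : ∀ ε : ℝ, 0 < ε → ∀ᶠ n in (U : Filter ℕ), σ 1 n ≤ σ 0 n * B.d n ^ (k0 - ε))
    (w0 sa sb : ℝ) (hq0 : 0 < q 0) (hq1 : 0 < q 1) {v t yy y : ℝ} (hθ : θ ≤ v) (hv0 : 0 ≤ v)
    (hv1 : v ≤ 1) (hy : 0 < y) (hyt : y < t) (hRt : t + y < Rg) (hRy : |yy| + y < Rg)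
    (hty : t + y < yy + k0) {p : Fin 12 → ℝ} (p0 : p 0 = w0 + v) (p3 : p 3 = sa + t)
    (p10 : p 10 = sb + yy) (hp : ∀ k, Vf k → nbS w0 sa sb v t yy k ≤ p k) {K : ℝ} (hK : 1 ≤ K)
    {ε : ℝ} (hε : 0 < ε) :
    ∀ᶠ n in (U : Filter ℕ), ∀ x ∈ I n, ∀ t1 t2 e1 e2 u : ℝ, |t1| ≤ 1 → |t2| ≤ 1 →
      ‖vb (inc n x)‖ ≤ 16 * |(inc n x).b1 * t2 - (inc n x).b2 * t1| → e1 ^ 2 + e2 ^ 2 = 1 →
      ((stripS B I lev inc σ w0 sa sb p K (K * B.d n ^ y) n x t1 t2 e1 e2 u).card : ℝ) ≤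
        (A n * VL σ q lev n * B.d n ^ (-(1 - s))) *
          B.d n ^ (-(DL g s q w0 sa sb p - gam q * y + ε)) := by
  classical
  have hDL : DL g s q w0 sa sb p = DL g s q w0 sa sb (nbS w0 sa sb v t yy) := by
    rw [DL_nbS]
    unfold DL
    rw [p0, p3, p10, add_sub_cancel_left, add_sub_cancel_left, add_sub_cancel_left]
  rw [hDL]
  have ht : 0 < t := by linarith
  have hκ := kap_pos hq1
  have hκ1 : kap q ≤ 1 := (kap_le hq1).trans (by norm_num)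
  have hK3 : 1 ≤ K ^ 3 := one_le_pow₀ hK
  have hKK : K ≤ K ^ 3 := le_self_pow₀ hK (by norm_num)
  by_contra hcon
  rw [← Ultrafilter.eventually_not] at hcon
  -- the bad data
  have hex : ∀ᶠ n in (U : Filter ℕ), ∃ z : (ℕ × ℝ) × (ℕ × ℝ) × (ℝ × ℝ × ℝ × ℝ × ℝ),
      (z.1 ∈ I n ∧ z.2.1 ∈ stripS B I lev inc σ w0 sa sb p K (K * B.d n ^ y) n z.1 z.2.2.1
        z.2.2.2.1 z.2.2.2.2.1 z.2.2.2.2.2.1 z.2.2.2.2.2.2) ∧
      (|z.2.2.1| ≤ 1 ∧ |z.2.2.2.1| ≤ 1 ∧ ‖vb (inc n z.1)‖ ≤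
        16 * |(inc n z.1).b1 * z.2.2.2.1 - (inc n z.1).b2 * z.2.2.1|) ∧
      z.2.2.2.2.1 ^ 2 + z.2.2.2.2.2.1 ^ 2 = 1 ∧
      (A n * VL σ q lev n * B.d n ^ (-(1 - s))) *
          B.d n ^ (-(DL g s q w0 sa sb (nbS w0 sa sb v t yy) - gam q * y + ε)) <
        ((stripS B I lev inc σ w0 sa sb p K (K * B.d n ^ y) n z.1 z.2.2.1
        z.2.2.2.1 z.2.2.2.2.1 z.2.2.2.2.2.1 z.2.2.2.2.2.2).card : ℝ) := by
    filter_upwards [hcon] with n hn
    push Not at hn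
    obtain ⟨x, hx, t1, t2, e1, e2, u, h1, h2, h3, h4, h5⟩ := hn
    have hpos : (0 : ℝ) < ((stripS B I lev inc σ w0 sa sb p K (K * B.d n ^ y) n x t1 t2 e1 e2
        u).card : ℝ) := by
      refine lt_of_le_of_lt ?_ h5
      have hA := (hM.Apos n).le
      have s0 := h.σp 0 n
      have s1 := h.σp 1 n
      have r0 := rho_pos (lev n 0)
      have hV : 0 ≤ VL σ q lev n := by unfold VL; positivity
      have := Dp76.dpow_pos B n (-(1 - s))
      have := Dp76.dpow_pos B n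
        (-(DL g s q w0 sa sb (nbS w0 sa sb v t yy) - gam q * y + ε))
      positivity
    obtain ⟨y0, hy0⟩ := Finset.card_pos.1 (by exact_mod_cast hpos)
    exact ⟨(x, y0, t1, t2, e1, e2, u), ⟨hx, hy0⟩, ⟨h1, h2, h3⟩, h4, h5⟩
  obtain ⟨F, hF⟩ := hex.choice
  obtain ⟨x, hxd⟩ : ∃ x : ℕ → ℕ × ℝ, x = fun n => (F n).1 := ⟨_, rfl⟩
  obtain ⟨y0, hyd⟩ : ∃ y0 : ℕ → ℕ × ℝ, y0 = fun n => (F n).2.1 := ⟨_, rfl⟩
  obtain ⟨t1, ht1⟩ : ∃ t1 : ℕ → ℝ, t1 = fun n => (F n).2.2.1 := ⟨_, rfl⟩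
  obtain ⟨t2, ht2⟩ : ∃ t2 : ℕ → ℝ, t2 = fun n => (F n).2.2.2.1 := ⟨_, rfl⟩
  obtain ⟨e1, he1⟩ : ∃ e1 : ℕ → ℝ, e1 = fun n => (F n).2.2.2.2.1 := ⟨_, rfl⟩
  obtain ⟨e2, he2⟩ : ∃ e2 : ℕ → ℝ, e2 = fun n => (F n).2.2.2.2.2.1 := ⟨_, rfl⟩
  obtain ⟨u, hu⟩ : ∃ u : ℕ → ℝ, u = fun n => (F n).2.2.2.2.2.2 := ⟨_, rfl⟩
  have hF' : ∀ᶠ n in (U : Filter ℕ), (x n ∈ I n ∧ y0 n ∈ stripS B I lev inc σ w0 sa sb p K
        (K * B.d n ^ y) n (x n) (t1 n) (t2 n) (e1 n) (e2 n) (u n)) ∧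
      (|t1 n| ≤ 1 ∧ |t2 n| ≤ 1 ∧ ‖vb (inc n (x n))‖ ≤
        16 * |(inc n (x n)).b1 * t2 n - (inc n (x n)).b2 * t1 n|) ∧
      e1 n ^ 2 + e2 n ^ 2 = 1 ∧
      (A n * VL σ q lev n * B.d n ^ (-(1 - s))) *
          B.d n ^ (-(DL g s q w0 sa sb (nbS w0 sa sb v t yy) - gam q * y + ε)) <
        ((stripS B I lev inc σ w0 sa sb p K (K * B.d n ^ y) n (x n) (t1 n) (t2 n) (e1 n) (e2 n)
          (u n)).card : ℝ) := by
    rw [hxd, hyd, ht1, ht2, he1, he2, hu]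
    exact hF
  clear hF hxd hyd ht1 ht2 he1 he2 hu
  -- near pairs are natural
  have hnat : ∀ᶠ n in (U : Filter ℕ), x n ∈ I n ∧ Nat8 (inc n (x n)) (inc n (y0 n)) K
      (rho (lev n 0) * B.d n ^ v) (σ 0 n * B.d n ^ t) (σ 1 n * B.d n ^ yy) := by
    filter_upwards [hF'] with n hn
    refine ⟨hn.1.1, ?_⟩
    have h1 := hn.1.2
    unfold stripS at h1
    rw [mem_filter] at h1
    exact nat8_of_near B h.σp (by linarith) p0 hp h1.2.1
  obtain ⟨hbase, hbase2, hbase3⟩ := baseOK_trn h ht hK hθ hnat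
  have hdir : ∀ᶠ n in (U : Filter ℕ), |t1 n| ≤ 1 ∧ |t2 n| ≤ 1 ∧
      ‖vb (trn 1 (inc n (x n)) (inc n (y0 n)))‖ ≤ 32 *
        |(trn 1 (inc n (x n)) (inc n (y0 n))).b1 * t2 n -
          (trn 1 (inc n (x n)) (inc n (y0 n))).b2 * t1 n| := by
    filter_upwards [hF', hbase3] with n h1 h2
    exact ⟨h1.2.1.1, h1.2.1.2.1, h2 _ _ h1.2.1.1 h1.2.1.2.1 h1.2.1.2.2⟩
  have he1 : ∀ᶠ n in (U : Filter ℕ), |e1 n| ≤ 1 := by
    filter_upwards [hF'] with n h1
    have := h1.2.2.1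
    rw [← sq_le_one_iff_abs_le_one]
    nlinarith [sq_nonneg (e2 n)]
  -- the strip lies in the strip seen from the new base
  have hsub : ∀ᶠ n in (U : Filter ℕ),
      stripS B I lev inc σ w0 sa sb p K (K * B.d n ^ y) n (x n) (t1 n) (t2 n) (e1 n) (e2 n) (u n) ⊆
      (I n).filter fun l =>
        Nat8 (trn 1 (inc n (x n)) (inc n (y0 n))) (inc n l) (64 * K ^ 3)
          (rho (lev n 0) * B.d n ^ v) (σ 0 n * B.d n ^ t) (σ 1 n * B.d n ^ yy) ∧
        |e1 n * ((t1 n * coL (trn 1 (inc n (x n)) (inc n (y0 n))) (inc n l) 3 +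
            t2 n * coL (trn 1 (inc n (x n)) (inc n (y0 n))) (inc n l) 4) /
            (σ 0 n * B.d n ^ t)) + e2 n * (coL (trn 1 (inc n (x n)) (inc n (y0 n))) (inc n l) 10 /
              (σ 1 n * B.d n ^ yy))| ≤ (64 * K ^ 3) * B.d n ^ y := by
    filter_upwards [hF', hnat] with n h1 h2 l hl
    have h3 := h1.1.2
    unfold stripS at hl h3
    rw [mem_filter] at hl h3 ⊢
    have dp := fun a => Dp76.dpow_pos B n a
    have s0 := h.σp 0 n
    have s1 := h.σp 1 n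
    have r0 := rho_pos (lev n 0)
    have hN := nat8_of_near B h.σp (by linarith) p0 hp hl.2.1
    refine ⟨hl.1, Nat8.move (mul_pos r0 (dp _)) (mul_pos s0 (dp _)) (mul_pos s1 (dp _)) hK h2.2 hN,
      ?_⟩
    obtain ⟨c0, c3, c4, c5, c6, c9, c10, c11⟩ :=
      coL_trn 1 (inc n (x n)) (inc n (y0 n)) (inc n l)
    rw [c3, c4, c10]
    have u3 : ∀ z, coN B lev inc σ w0 sa sb n (x n) z 3 * B.d n ^ (-(p 3)) =
        coL (inc n (x n)) (inc n z) 3 / (σ 0 n * B.d n ^ t) := by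
      intro z
      show B.d n ^ sa / σ 0 n * coL (inc n (x n)) (inc n z) 3 * B.d n ^ (-(p 3)) = _
      rw [p3, show -(sa + t) = -sa + -t by ring, Dp76.dpow_add, Real.rpow_neg (B.pos n).le,
        Real.rpow_neg (B.pos n).le]
      have := (dp sa).ne'
      have := (dp t).ne'
      field_simp
    have u4 : ∀ z, coN B lev inc σ w0 sa sb n (x n) z 4 * B.d n ^ (-(p 3)) =
        coL (inc n (x n)) (inc n z) 4 / (σ 0 n * B.d n ^ t) := by
      intro z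
      show B.d n ^ sa / σ 0 n * coL (inc n (x n)) (inc n z) 4 * B.d n ^ (-(p 3)) = _
      rw [p3, show -(sa + t) = -sa + -t by ring, Dp76.dpow_add, Real.rpow_neg (B.pos n).le,
        Real.rpow_neg (B.pos n).le]
      have := (dp sa).ne'
      have := (dp t).ne'
      field_simp
    have u10 : ∀ z, coN B lev inc σ w0 sa sb n (x n) z 10 * B.d n ^ (-(p 10)) =
        coL (inc n (x n)) (inc n z) 10 / (σ 1 n * B.d n ^ yy) := by
      intro z
      show B.d n ^ sb / σ 1 n * coL (inc n (x n)) (inc n z) 10 * B.d n ^ (-(p 10)) = _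
      rw [p10, show -(sb + yy) = -sb + -yy by ring, Dp76.dpow_add, Real.rpow_neg (B.pos n).le,
        Real.rpow_neg (B.pos n).le]
      have := (dp sb).ne'
      have := (dp yy).ne'
      field_simp
    have hform : ∀ z, e1 n * ((t1 n * coN B lev inc σ w0 sa sb n (x n) z 3 +
        t2 n * coN B lev inc σ w0 sa sb n (x n) z 4) * B.d n ^ (-(p 3))) +
      e2 n * (coN B lev inc σ w0 sa sb n (x n) z 10 * B.d n ^ (-(p 10))) =
      e1 n * ((t1 n * coL (inc n (x n)) (inc n z) 3 + t2 n * coL (inc n (x n)) (inc n z) 4) /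
        (σ 0 n * B.d n ^ t)) + e2 n * (coL (inc n (x n)) (inc n z) 10 / (σ 1 n * B.d n ^ yy)) := by
      intro z
      rw [u10, add_mul, mul_assoc (t1 n), mul_assoc (t2 n), u3, u4]
      ring
    have h4 := hl.2.2
    have h5 := h3.2.2
    rw [hform] at h4 h5
    have e : e1 n * ((t1 n * (coL (inc n (x n)) (inc n l) 3 - coL (inc n (x n)) (inc n (y0 n)) 3) +
        t2 n * (coL (inc n (x n)) (inc n l) 4 - coL (inc n (x n)) (inc n (y0 n)) 4)) /
        (σ 0 n * B.d n ^ t)) +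
      e2 n * (1 * (coL (inc n (x n)) (inc n l) 10 - coL (inc n (x n)) (inc n (y0 n)) 10) /
        (σ 1 n * B.d n ^ yy)) =
      (e1 n * ((t1 n * coL (inc n (x n)) (inc n l) 3 + t2 n * coL (inc n (x n)) (inc n l) 4) /
        (σ 0 n * B.d n ^ t)) + e2 n * (coL (inc n (x n)) (inc n l) 10 / (σ 1 n * B.d n ^ yy)) -
          u n) -
      (e1 n * ((t1 n * coL (inc n (x n)) (inc n (y0 n)) 3 +
        t2 n * coL (inc n (x n)) (inc n (y0 n)) 4) /
        (σ 0 n * B.d n ^ t)) + e2 n * (coL (inc n (x n)) (inc n (y0 n)) 10 /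
          (σ 1 n * B.d n ^ yy)) - u n) := by ring
    rw [e]
    refine (abs_sub _ _).trans ?_
    have h6 := mul_le_mul_of_nonneg_right hKK (dp y).le
    have h7 := mul_pos (by linarith : (0 : ℝ) < K ^ 3) (dp y)
    linarith
  have hK64 : 1 ≤ 64 * K ^ 3 := by linarith
  have hfin : ∀ᶠ n in (U : Filter ℕ),
      ((stripS B I lev inc σ w0 sa sb p K (K * B.d n ^ y) n (x n) (t1 n) (t2 n) (e1 n) (e2 n)
        (u n)).card : ℝ) ≤ (A n * VL σ q lev n * B.d n ^ (-(1 - s))) *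
          B.d n ^ (-(DL g s q w0 sa sb (nbS w0 sa sb v t yy) - gam q * y + ε)) := by
    have hmono : ∀ (n : ℕ) {a b : ℝ}, a ≤ b →
        (A n * VL σ q lev n * B.d n ^ (-(1 - s))) * B.d n ^ b ≤
        (A n * VL σ q lev n * B.d n ^ (-(1 - s))) * B.d n ^ a := by
      intro n a b hab
      refine mul_le_mul_of_nonneg_left (Dp76.dpow_le B n hab) ?_
      have hA := (hM.Apos n).le
      have s0 := h.σp 0 n
      have s1 := h.σp 1 n
      have r0 := rho_pos (lev n 0)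
      have hV : 0 ≤ VL σ q lev n := by unfold VL; positivity
      have := Dp76.dpow_pos B n (-(1 - s))
      positivity
    by_cases hc : ∀ᶠ n in (U : Filter ℕ), B.d n ^ (kap q * y) ≤ |e2 n|
    · have key := strip_A hM h hk w0 sa sb hbase hbase2 (hdir.mono fun n hn => ⟨hn.1, hn.2.1⟩) he1
        hκ.le hκ1 hc ht hK64 hθ (by linarith) hv0 hv1 (by linarith) hy hRy hty hε
      filter_upwards [key, hsub] with n h1 h2
      refine le_trans ?_ (h1.trans (hmono n ?_))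
      · exact_mod_cast Finset.card_le_card h2
      · rw [kap_id hq1]
        have : gam q ≤ q 1 / 2 := min_le_left _ _
        nlinarith
    · rw [← Ultrafilter.eventually_not] at hc
      have hc' : ∀ᶠ n in (U : Filter ℕ), |e2 n| ≤ B.d n ^ (kap q * y) := by
        filter_upwards [hc] with n hn
        exact (not_le.1 hn).le
      have he1' : ∀ᶠ n in (U : Filter ℕ), 1 / 2 ≤ |e1 n| := by
        filter_upwards [hc', hF', ev_pow B (K := 1) (κ := 1 / 2) (a := kap q * y) (b := 0) one_pos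
          (by norm_num) (by positivity)] with n h1 h2 h3
        rw [Real.rpow_zero, mul_one, one_mul] at h3
        have h4 : |e2 n| ≤ 1 / 2 := h1.trans h3
        have h5 : e2 n ^ 2 ≤ (1 / 2) ^ 2 := sq_le_sq' (by linarith [(abs_le.1 h4).1]) (abs_le.1 h4).2
        have h6 := h2.2.2.1
        have h7 : (1 / 2 : ℝ) ^ 2 ≤ e1 n ^ 2 := by nlinarith
        have h8 := sq_le_sq.1 h7
        rwa [abs_of_pos (by norm_num : (0 : ℝ) < 1 / 2)] at h8
      have key := strip_B hM h hk w0 sa sb hbase (M1 := 32) (by norm_num) hdir he1' hκ.le hκ1 hc'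
        hK64 hθ hv0 hv1 hy hyt (by linarith) hRt (by linarith) hty hε
      filter_upwards [key, hsub] with n h1 h2
      refine le_trans ?_ (h1.trans (hmono n ?_))
      · exact_mod_cast Finset.card_le_card h2
      · have : gam q ≤ q 0 * kap q := min_le_right _ _
        nlinarith
  obtain ⟨n, h1, h2⟩ := (hfin.and hF').exists
  exact absurd h2.2.2.2 (not_lt.2 h1)

end strips

section mk

variable {B : Base} {I : ℕ → Finset (ℕ × ℝ)} {G : Geo TSet (Fin 2)} {lev : ℕ → ℚ → ℕ}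
    {A : ℕ → ℝ} {g s : ℝ} {θ : Fin 2 → ℝ} {f : ℕ → ℚ → ℕ → ℤ → ℕ} {b : ℕ → ℚ → ℕ → TSet}
    {vm : ℕ → ℚ → ℝ} {w : Fin 2 → ℕ → ℚ → ℝ} {q : Fin 2 → ℝ}
    {fl : ℕ → ℕ × ℝ → LInc} {M0 c0 Rg ϑ : ℝ}

/-- the factor of the D-max bound in the literals of 504 and 468 -/
theorem N0_le (hM : MkA B I G lev A (fun v => g * v) (fun v => s * v) (fun j v => θ j * (1 - v))
    f b vm w) (h : LData B I G lev fl (sN lev w) q M0 c0 Rg ϑ)
    (hwid : ∀ j (t : TSet), G.wid j t = (1 / 2 : ℝ) ^ t.1 j) (w0 sa sb : ℝ) (p : Fin 12 → ℝ)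
    (γ : ℝ) {ε : ℝ} (hε : 0 < ε) : ∀ᶠ n in (U : Filter ℕ),
      (A n * VL (sN lev w) q lev n * B.d n ^ (-(1 - s))) *
        B.d n ^ (-(DL g s q w0 sa sb p - γ + ε / 2)) ≤
      (A n * vm n 0 * B.d n ^ (-(1 - s))) * B.d n ^ (-(DT g s q θ w0 sa sb p - γ + ε)) := by
  filter_upwards [VL_le hM h.qp h.val hwid (show 0 < ε / 2 by linarith)] with n h2
  have hA := (hM.Apos n).le
  have dp := fun a => Dp76.dpow_pos B n a
  calc (A n * VL (sN lev w) q lev n * B.d n ^ (-(1 - s))) *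
        B.d n ^ (-(DL g s q w0 sa sb p - γ + ε / 2))
      ≤ (A n * (vm n 0 * B.d n ^ (-((3 + q 0) * θ 0 + (1 + q 1) * θ 1) - ε / 2)) *
          B.d n ^ (-(1 - s))) * B.d n ^ (-(DL g s q w0 sa sb p - γ + ε / 2)) := by
        refine mul_le_mul_of_nonneg_right (mul_le_mul_of_nonneg_right ?_ (dp _).le) (dp _).le
        exact mul_le_mul_of_nonneg_left h2 hA
    _ = (A n * vm n 0 * B.d n ^ (-(1 - s))) * B.d n ^ (-(DT g s q θ w0 sa sb p - γ + ε)) := by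
        rw [DT_eq, show -(DL g s q w0 sa sb p + ((3 + q 0) * θ 0 + (1 + q 1) * θ 1) - γ + ε) =
          (-((3 + q 0) * θ 0 + (1 + q 1) * θ 1) - ε / 2) + -(DL g s q w0 sa sb p - γ + ε / 2) by ring,
          Dp76.dpow_add B n (-((3 + q 0) * θ 0 + (1 + q 1) * θ 1) - ε / 2)]
        ring

/-- **(N1) of [NARROW], thin case, in the literals of 504 and 468.** -/
theorem strip_T (hM : MkA B I G lev A (fun v => g * v) (fun v => s * v) (fun j v => θ j * (1 - v))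
    f b vm w) (h : LData B I G lev fl (sN lev w) q M0 c0 Rg ϑ)
    (hwid : ∀ j (t : TSet), G.wid j t = (1 / 2 : ℝ) ^ t.1 j) {k0 : ℝ}
    (hk : ∀ ε : ℝ, 0 < ε → ∀ᶠ n in (U : Filter ℕ),
      sN lev w 1 n ≤ sN lev w 0 n * B.d n ^ (k0 - ε)) (w0 sa sb : ℝ) (hq0 : 0 < q 0)
    (hq1 : 0 < q 1) {v t yy y : ℝ} (hθ : ϑ ≤ v) (hv0 : 0 ≤ v) (hv1 : v ≤ 1) (hy : 0 < y)
    (hyt : y < t) (hRt : t + y < Rg) (hRy : |yy| + y < Rg) (hty : t + y < yy + k0)
    {p : Fin 12 → ℝ} (p0 : p 0 = w0 + v) (p3 : p 3 = sa + t) (p10 : p 10 = sb + yy)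
    (hp : ∀ k, Vf k → nbS w0 sa sb v t yy k ≤ p k) {K : ℝ} (hK : 1 ≤ K) {ε : ℝ} (hε : 0 < ε) :
    ∀ᶠ n in (U : Filter ℕ), ∀ x ∈ I n, ∀ t1 t2 e1 e2 u : ℝ, |t1| ≤ 1 → |t2| ≤ 1 →
      ‖vb (fl n x)‖ ≤ 16 * |(fl n x).b1 * t2 - (fl n x).b2 * t1| → e1 ^ 2 + e2 ^ 2 = 1 →
      ((stripS B I lev fl (sN lev w) w0 sa sb p K (K * B.d n ^ y) n x t1 t2 e1 e2 u).card : ℝ) ≤
        (A n * vm n 0 * B.d n ^ (-(1 - s))) *
          B.d n ^ (-(DT g s q θ w0 sa sb p - gam q * y + ε)) := by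
  filter_upwards [strip_L hM h hk w0 sa sb hq0 hq1 hθ hv0 hv1 hy hyt hRt hRy hty p0 p3 p10 hp hK
    (show 0 < ε / 2 by linarith), N0_le hM h hwid w0 sa sb p (gam q * y) hε] with n h1 h2
    x hx t1 t2 e1 e2 u g1 g2 g3 g4
  exact (h1 x hx t1 t2 e1 e2 u g1 g2 g3 g4).trans h2

end mk

end Crest.Agent.R116.Gd222
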