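import Crest.Agent.R116.EBcDef_665
import Crest.Agent.R138.Fs2_665

/-! R116 front (helper665): decay of the kernel `Kt a t`, `|t| ≤ 2R`. -/

set_option autoImplicit false

open MeasureTheory Filter Topology
open scoped ENNReal FourierTransform ContDiff

noncomputable section

namespace Crest.Agent.R116.EB665

open Crest.Agent.R138.Defs (E2 ee)
open Crest.Agent.R138.Fr665 (cv)
open Crest.Agent.R138.Fq665 (PR up deriv_bdd)
open Crest.Agent.R116.Sh927 (V)

theorem gen_pow {Cd : ℕ → ℝ} (hCd0 : ∀ j, 0 ≤ Cd j) (n : ℕ) :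
    ∃ C : ℝ, 0 ≤ C ∧ ∀ R : ℝ, 1 ≤ R → ∀ G : V → ℂ, ContDiff ℝ ∞ G →
      (∀ v, G v ≠ 0 → ‖v‖ ≤ 2) → (∀ j v, ‖iteratedFDeriv ℝ j G v‖ ≤ Cd j * R ^ j) → ∀ x : V,
        ‖x‖ ^ n * ‖𝓕⁻ G x‖ ≤ C * R ^ n := by
  set vol := (volume (Metric.closedBall (0 : V) 2)).toReal with hvol
  have hvol0 : 0 ≤ vol := ENNReal.toReal_nonneg
  refine ⟨2 ^ n * ∑ j ∈ Finset.range (n + 1), Cd j * vol, by
    have := Finset.sum_nonneg (s := Finset.range (n + 1)) fun j _ => mul_nonneg (hCd0 j) hvol0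
    positivity, fun R hR G hGc hGsupp hGd x => ?_⟩
  have hR0 : 0 < R := by linarith
  have hts : tsupport G ⊆ Metric.closedBall (0 : V) 2 := by
    apply closure_minimal _ Metric.isClosed_closedBall
    intro v hv
    simpa using hGsupp v hv
  have hGs : HasCompactSupport G :=
    HasCompactSupport.of_support_subset_isCompact (isCompact_closedBall (0 : V) 2)
      ((subset_tsupport G).trans hts)
  have hd0 : ∀ (j : ℕ) (v : V), ‖iteratedFDeriv ℝ j G v‖ ≤
      (Metric.closedBall (0 : V) 2).indicator (fun _ => Cd j * R ^ j) v := by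
    intro j v
    by_cases hv : v ∈ Metric.closedBall (0 : V) 2
    · rw [Set.indicator_of_mem hv]; exact hGd j v
    · rw [Set.indicator_of_notMem hv]
      have hz : iteratedFDeriv ℝ j G v = 0 := by
        by_contra hne
        exact hv (hts (support_iteratedFDeriv_subset (𝕜 := ℝ) j (f := G) hne))
      rw [hz, norm_zero]
  have hint : ∀ (k n : ℕ), Integrable (fun v : V ↦ ‖v‖ ^ k * ‖iteratedFDeriv ℝ n G v‖) := by
    intro k n
    apply Continuous.integrable_of_hasCompactSupport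
    · exact (continuous_norm.pow k).mul
        (hGc.continuous_iteratedFDeriv (m := n) (mod_cast le_top)).norm
    · exact (hGs.iteratedFDeriv n).norm.mul_left
  have h1 := Real.pow_mul_norm_iteratedFDeriv_fourier_le (K := 0) (N := ⊤) (f := G) (k := 0)
    (n := n) (mod_cast hGc) (fun k n _ _ => hint k n) le_rfl le_top (-x)
  rw [norm_neg, norm_iteratedFDeriv_zero, ← Real.fourierInv_eq_fourier_neg] at h1
  refine h1.trans ?_
  simp only [pow_zero, Nat.cast_zero, mul_zero, zero_add, one_mul]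
  rw [Finset.sum_product, Finset.sum_range_one, mul_assoc, Finset.sum_mul]
  simp only [pow_zero, one_mul]
  gcongr with j hj
  have h2 : ∫ v, ‖iteratedFDeriv ℝ j G v‖ ≤
      ∫ v, (Metric.closedBall (0 : V) 2).indicator (fun _ => Cd j * R ^ j) v := by
    apply integral_mono
    · simpa using hint 0 j
    · exact (integrable_indicator_iff Metric.isClosed_closedBall.measurableSet).2
        (integrableOn_const measure_closedBall_lt_top.ne)
    · intro v
      exact hd0 j v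
  refine h2.trans ?_
  rw [integral_indicator_const _ Metric.isClosed_closedBall.measurableSet]
  have h3 : R ^ j ≤ R ^ n := pow_le_pow_right₀ hR (by simp at hj; omega)
  have h4 := hCd0 j
  simp only [smul_eq_mul, Measure.real]
  rw [← hvol]
  calc vol * (Cd j * R ^ j) ≤ vol * (Cd j * R ^ n) := by gcongr
    _ = Cd j * vol * R ^ n := by ring

/-- the far part of the kernel is dominated by a fixed integrable function. -/
theorem gen_tail {Cd : ℕ → ℝ} (hCd0 : ∀ j, 0 ≤ Cd j) {δ : ℝ} (hδ : 0 < δ) :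
    ∃ C : ℝ, 0 ≤ C ∧ ∀ R : ℝ, 1 ≤ R → ∀ G : V → ℂ, ContDiff ℝ ∞ G →
      (∀ v, G v ≠ 0 → ‖v‖ ≤ 2) → (∀ j v, ‖iteratedFDeriv ℝ j G v‖ ≤ Cd j * R ^ j) →
      ∫⁻ x : V, ‖({x : V | R ^ (1 + δ) < ‖x‖}.indicator (𝓕⁻ G) x : ℂ)‖ₑ ≤ ENNReal.ofReal C := by
  set n : ℕ := ⌈8 / δ⌉₊ + 4 with hn
  have hn4 : 4 ≤ n := by omega
  have hnδ : 8 ≤ δ * ((n : ℝ) - 4) := by
    have := Nat.le_ceil (8 / δ)
    rw [div_le_iff₀ hδ] at this
    have h2 : (n : ℝ) - 4 = (⌈8 / δ⌉₊ : ℝ) := by rw [hn]; push_cast; ring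
    rw [h2]; linarith
  obtain ⟨C, hC, hk⟩ := gen_pow hCd0 n
  have hint : Integrable (fun x : V => (1 + ‖x‖) ^ (-(4:ℝ))) :=
    integrable_one_add_norm (by simp; norm_num)
  refine ⟨C * 16 * ∫ x : V, (1 + ‖x‖) ^ (-(4:ℝ)), by positivity, fun R hR G hGc hGs hGd => ?_⟩
  have hR0 : 0 < R := by linarith
  have hpt : ∀ x : V, ‖({x : V | R ^ (1 + δ) < ‖x‖}.indicator (𝓕⁻ G) x : ℂ)‖ₑ ≤
      ENNReal.ofReal (C * 16 * (1 + ‖x‖) ^ (-(4:ℝ))) := by
    intro x
    by_cases hx : R ^ (1 + δ) < ‖x‖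
    · have hx' : x ∈ {x : V | R ^ (1 + δ) < ‖x‖} := hx
      rw [Set.indicator_of_mem hx', ← ofReal_norm]
      apply ENNReal.ofReal_le_ofReal
      have hR1 : 1 ≤ R ^ (1 + δ) := Real.one_le_rpow hR (by linarith)
      have hx1 : 1 < ‖x‖ := hR1.trans_lt hx
      have hx0 : 0 < ‖x‖ := by linarith
      have h1 := hk R hR G hGc hGs hGd x
      have h2 : R ^ n ≤ ‖x‖ ^ (n - 4) := by
        calc R ^ n = R ^ ((n : ℝ)) := (Real.rpow_natCast _ _).symm
          _ ≤ R ^ ((1 + δ) * ((n : ℝ) - 4)) := by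
            apply Real.rpow_le_rpow_of_exponent_le hR
            nlinarith
          _ = (R ^ (1 + δ)) ^ (n - 4) := by
            rw [Real.rpow_mul hR0.le, ← Real.rpow_natCast, Nat.cast_sub hn4]
            norm_num
          _ ≤ ‖x‖ ^ (n - 4) := by gcongr
      have h3 : ‖x‖ ^ 4 * ‖𝓕⁻ G x‖ ≤ C := by
        have h4 : 0 < ‖x‖ ^ (n - 4) := by positivity
        refine le_of_mul_le_mul_left ?_ h4
        calc ‖x‖ ^ (n - 4) * (‖x‖ ^ 4 * ‖𝓕⁻ G x‖)
            = ‖x‖ ^ n * ‖𝓕⁻ G x‖ := by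
              rw [← mul_assoc, ← pow_add, Nat.sub_add_cancel hn4]
          _ ≤ C * R ^ n := h1
          _ ≤ C * ‖x‖ ^ (n - 4) := by gcongr
          _ = _ := mul_comm _ _
      have h5 : (1 + ‖x‖) ^ (-(4:ℝ)) = ((1 + ‖x‖) ^ 4)⁻¹ := by
        rw [Real.rpow_neg (by positivity)]; norm_num
      rw [h5, ← div_eq_mul_inv, le_div_iff₀ (by positivity)]
      have h6 : (1 + ‖x‖) ^ 4 ≤ 16 * ‖x‖ ^ 4 := by
        calc (1 + ‖x‖) ^ 4 ≤ (2 * ‖x‖) ^ 4 := by gcongr; linarith
          _ = _ := by ring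
      calc ‖𝓕⁻ G x‖ * (1 + ‖x‖) ^ 4
          ≤ ‖𝓕⁻ G x‖ * (16 * ‖x‖ ^ 4) := by gcongr
        _ = 16 * (‖x‖ ^ 4 * ‖𝓕⁻ G x‖) := by ring
        _ ≤ 16 * C := by gcongr
        _ = C * 16 := by ring
    · have hx' : x ∉ {x : V | R ^ (1 + δ) < ‖x‖} := hx
      rw [Set.indicator_of_notMem hx', enorm_zero]
      exact zero_le
  refine (lintegral_mono hpt).trans ?_
  rw [← integral_const_mul, ofReal_integral_eq_lintegral_ofReal (hint.const_mul _)
    (Eventually.of_forall fun x => by positivity)]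

/-! ### the symbol `a(v) ee(t ‖v‖)` -/

/-- a smooth function equal to the norm for `‖v‖ ≥ 1/2`. -/
def nu (v : V) : ℝ := Real.smoothTransition (8 * ‖v‖ ^ 2 - 1) * ‖v‖

theorem nu_eq {v : V} (hv : 1/2 ≤ ‖v‖) : nu v = ‖v‖ := by
  unfold nu
  rw [Real.smoothTransition.one_of_one_le (by nlinarith), one_mul]

theorem contDiff_nu : ContDiff ℝ ∞ nu := by
  rw [contDiff_iff_contDiffAt]
  intro v
  by_cases hv : v = 0
  · have h1 : nu =ᶠ[𝓝 v] fun _ => 0 := by
      have h2 : ∀ᶠ w : V in 𝓝 v, ‖w‖ < 1/3 := by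
        have := (continuous_norm (E := V)).tendsto v
        rw [hv, norm_zero] at this
        rw [hv]
        exact this.eventually (gt_mem_nhds (by norm_num))
      filter_upwards [h2] with w hw
      unfold nu
      rw [Real.smoothTransition.zero_of_nonpos (by nlinarith [norm_nonneg w]), zero_mul]
    exact contDiffAt_const.congr_of_eventuallyEq h1
  · unfold nu
    refine ContDiffAt.mul ?_ (contDiffAt_norm ℝ hv)
    exact (Real.smoothTransition.contDiff.comp
      ((contDiff_const.mul (contDiff_norm_sq ℝ)).sub contDiff_const)).contDiffAt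

theorem ee_eq_exp (t : ℝ) : ee t = Complex.exp (t • (2 * Real.pi * Complex.I : ℂ)) := by
  unfold ee
  congr 1
  rw [Complex.real_smul]
  push_cast
  ring

theorem contDiff_ee : ContDiff ℝ ∞ ee := by
  have : ee = fun t : ℝ => Complex.exp (t • (2 * Real.pi * Complex.I : ℂ)) := funext ee_eq_exp
  rw [this]
  exact (contDiff_id.smul contDiff_const).cexp

theorem norm_ee (t : ℝ) : ‖ee t‖ = 1 := Crest.Agent.R138.Wpk685.norm_ee t

theorem iterDeriv_ee (n : ℕ) (t : ℝ) : ‖iteratedFDeriv ℝ n ee t‖ = (2 * Real.pi) ^ n := by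
  rw [norm_iteratedFDeriv_eq_norm_iteratedDeriv]
  have h : ∀ n : ℕ, iteratedDeriv n ee = fun t => (2 * Real.pi * Complex.I : ℂ) ^ n * ee t := by
    intro n
    induction n with
    | zero => ext t; simp
    | succ n ih =>
      rw [iteratedDeriv_succ, ih]
      ext t
      have h1 : HasDerivAt ee ((2 * Real.pi * Complex.I : ℂ) * ee t) t := by
        have h2 : HasDerivAt (fun t : ℝ => t • (2 * Real.pi * Complex.I : ℂ))
            (2 * Real.pi * Complex.I : ℂ) t := by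
          simpa using (hasDerivAt_id t).smul_const (2 * Real.pi * Complex.I : ℂ)
        have h3 := h2.cexp
        have : ee = fun t : ℝ => Complex.exp (t • (2 * Real.pi * Complex.I : ℂ)) :=
          funext ee_eq_exp
        rw [this]
        convert h3 using 1
        ring
      rw [(h1.const_mul _).deriv]
      ring
  rw [h n, norm_mul, norm_ee, mul_one, norm_pow]
  congr 1
  rw [norm_mul, norm_mul, Complex.norm_I, Complex.norm_real, mul_one, Real.norm_eq_abs,
    abs_of_pos Real.pi_pos]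
  simp

/-- the symbol. -/
def Gt (a : V → ℂ) (t : ℝ) (v : V) : ℂ := a v * ee (t * nu v)

theorem Gt_eq {a : V → ℂ} (ha : ∀ v, a v ≠ 0 → 1/2 ≤ ‖v‖) (t : ℝ) :
    (fun v => a v * ee (t * ‖v‖)) = Gt a t := by
  ext v
  unfold Gt
  by_cases h : a v = 0
  · rw [h, zero_mul, zero_mul]
  · rw [nu_eq (ha v h)]

theorem contDiff_Gt {a : V → ℂ} (ha : ContDiff ℝ ∞ a) (t : ℝ) : ContDiff ℝ ∞ (Gt a t) :=
  ha.mul (contDiff_ee.comp (contDiff_const.mul contDiff_nu))

theorem deriv_Gt {a : V → ℂ} (hac : ContDiff ℝ ∞ a) (has : ∀ v, a v ≠ 0 → ‖v‖ ≤ 2) (n : ℕ) :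
    ∃ C : ℝ, 0 ≤ C ∧ ∀ R : ℝ, 1 ≤ R → ∀ t : ℝ, |t| ≤ 2 * R → ∀ v : V,
      ‖iteratedFDeriv ℝ n (Gt a t) v‖ ≤ C * R ^ n := by
  have hac0 : HasCompactSupport a := by
    apply HasCompactSupport.of_support_subset_isCompact (isCompact_closedBall (0 : V) 2)
    intro v hv
    simpa using has v hv
  choose Ca hCa0 hCa using deriv_bdd hac hac0
  have hfb : ∀ i : ℕ, ∃ c : ℝ, 0 ≤ c ∧ ∀ v : V, ‖v‖ ≤ 2 → ‖iteratedFDeriv ℝ i nu v‖ ≤ c := by
    intro i
    have hc : Continuous (iteratedFDeriv ℝ i nu) :=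
      contDiff_nu.continuous_iteratedFDeriv (mod_cast le_top)
    obtain ⟨c, hc⟩ := (isCompact_closedBall (0 : V) 2).exists_bound_of_continuousOn hc.continuousOn
    exact ⟨max c 0, le_max_right _ _, fun v hv => (hc v (by simpa using hv)).trans (le_max_left _ _)⟩
  choose cf hcf0 hcf using hfb
  have hE : ∀ m : ℕ, ∃ C : ℝ, 0 ≤ C ∧ ∀ R : ℝ, 1 ≤ R → ∀ t : ℝ, |t| ≤ 2 * R → ∀ v : V, ‖v‖ ≤ 2 →
      ‖iteratedFDeriv ℝ m (fun v => ee (t * nu v)) v‖ ≤ C * R ^ m := by
    intro m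
    set c : ℝ := 1 + ∑ i ∈ Finset.range (m + 1), cf i with hc
    have hc1 : 1 ≤ c := by
      have : 0 ≤ ∑ i ∈ Finset.range (m + 1), cf i := Finset.sum_nonneg fun i _ => hcf0 i
      linarith
    have hpi1 : 1 ≤ 2 * Real.pi := by have := Real.pi_gt_three; linarith
    refine ⟨m.factorial * (2 * Real.pi) ^ m * (2 * c) ^ m, by positivity, fun R hR t ht v hv => ?_⟩
    have hR0 : 0 < R := by linarith
    have hu : (fun v => ee (t * nu v)) = ee ∘ (fun v => t • nu v) := by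
      ext v; simp
    have huc : ContDiff ℝ ∞ fun v => t • nu v := contDiff_nu.const_smul t
    rw [hu]
    have key := norm_iteratedFDeriv_comp_le (𝕜 := ℝ) (g := ee) (f := fun v => t • nu v) (n := m)
      (N := ∞) contDiff_ee huc (mod_cast le_top) v (C := (2 * Real.pi) ^ m) (D := 2 * R * c) ?_ ?_
    · refine key.trans (le_of_eq ?_)
      rw [show 2 * R * c = (2 * c) * R by ring, mul_pow]; ring
    · intro i hi
      rw [iterDeriv_ee]
      exact pow_le_pow_right₀ hpi1 hi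
    · intro i hi1 hin
      rw [iteratedFDeriv_const_smul_apply' (contDiff_nu.contDiffAt.of_le (mod_cast le_top)),
        norm_smul, Real.norm_eq_abs]
      have h1 : ‖iteratedFDeriv ℝ i nu v‖ ≤ c := by
        refine (hcf i v hv).trans ?_
        have := Finset.single_le_sum (f := cf) (s := Finset.range (m + 1)) (fun i _ => hcf0 i)
          (Finset.mem_range.2 (by omega : i < m + 1))
        linarith
      calc |t| * ‖iteratedFDeriv ℝ i nu v‖ ≤ 2 * R * c := by gcongr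
        _ ≤ (2 * R * c) ^ i := by
          apply le_self_pow₀ _ (by omega)
          nlinarith
  choose Cm hCm0 hCm using hE
  refine ⟨∑ i ∈ Finset.range (n + 1), (n.choose i : ℝ) * Ca i * Cm (n - i),
    Finset.sum_nonneg fun i _ => by have := hCa0 i; have := hCm0 (n - i); positivity,
    fun R hR t ht v => ?_⟩
  by_cases hv : ‖v‖ ≤ 2
  · have hcE : ContDiff ℝ ∞ (fun v => ee (t * nu v)) :=
      contDiff_ee.comp (contDiff_const.mul contDiff_nu)
    refine (norm_iteratedFDeriv_mul_le (N := ∞) hac hcE v (mod_cast le_top)).trans ?_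
    rw [Finset.sum_mul]
    refine Finset.sum_le_sum fun i hi => ?_
    have h1 := hCa i v
    have h2 := hCm (n - i) R hR t ht v hv
    have h3 : R ^ (n - i) ≤ R ^ n := pow_le_pow_right₀ hR (by omega)
    have h4 := hCa0 i
    have h5 := hCm0 (n - i)
    calc (n.choose i : ℝ) * ‖iteratedFDeriv ℝ i a v‖ *
          ‖iteratedFDeriv ℝ (n - i) (fun v => ee (t * nu v)) v‖
        ≤ (n.choose i : ℝ) * Ca i * (Cm (n - i) * R ^ n) := by
          gcongr
          exact h2.trans (by gcongr)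
      _ = _ := by ring
  · have hz : iteratedFDeriv ℝ n (Gt a t) v = 0 := by
      by_contra hne
      have h1 := support_iteratedFDeriv_subset (𝕜 := ℝ) n (f := Gt a t) hne
      have h2 : tsupport (Gt a t) ⊆ Metric.closedBall (0 : V) 2 := by
        apply closure_minimal _ Metric.isClosed_closedBall
        intro x hx
        simpa using has x (left_ne_zero_of_mul hx)
      exact hv (by simpa using h2 h1)
    rw [hz, norm_zero]
    have h6 : 0 ≤ ∑ i ∈ Finset.range (n + 1), (n.choose i : ℝ) * Ca i * Cm (n - i) :=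
      Finset.sum_nonneg fun i _ => by have := hCa0 i; have := hCm0 (n - i); positivity
    have : 0 < R := by linarith
    positivity

/-- tail of the kernel of one piece. -/
theorem tail_Kt {a : V → ℂ} (hac : ContDiff ℝ ∞ a) (has : ∀ v, a v ≠ 0 → 1/2 ≤ ‖v‖ ∧ ‖v‖ ≤ 2)
    {δ : ℝ} (hδ : 0 < δ) :
    ∃ C : ℝ, 0 ≤ C ∧ ∀ R : ℝ, 1 ≤ R → ∀ t : ℝ, |t| ≤ 2 * R →
      ∫⁻ x : V, ‖({x : V | R ^ (1 + δ) < ‖x‖}.indicator (Kt a t) x : ℂ)‖ₑ ≤
        ENNReal.ofReal C := by
  choose Cd hCd0 hCd using deriv_Gt hac (fun v hv => (has v hv).2)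
  obtain ⟨C, hC, h⟩ := gen_tail hCd0 hδ
  refine ⟨C, hC, fun R hR t ht => ?_⟩
  have h1 := h R hR (Gt a t) (contDiff_Gt hac t) (fun v hv => (has v (left_ne_zero_of_mul hv)).2)
    (fun j v => hCd j R hR t ht v)
  unfold Kt
  rw [Gt_eq (fun v hv => (has v hv).1) t]
  exact h1

end Crest.Agent.R116.EB665
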