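import Crest.Agent.R116.Gw1_665

/-! R116 front (helper665): from the local to the global estimate, averaging over balls, with time. -/

set_option autoImplicit false

open MeasureTheory Filter Topology
open scoped ENNReal FourierTransform ContDiff

noncomputable section

namespace Crest.Agent.R116.EB665

open Crest.Agent.R138.Defs (E2 ee)
open Crest.Agent.R138.Fr665 (cv)
open Crest.Agent.R138.Fq665 (PR up enorm_add_cube lint_cv_cube cv_add int_cv cv_translate lint_balls
  vol_double measurable_cv)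
open Crest.Agent.R116.Sh927 (V)

/-- one ball at a fixed time. -/
theorem ball_le {K : V → ℂ} (hK : Measurable K) {M : ℝ} (hM : ∀ v, ‖K v‖ ≤ M) {R' : ℝ}
    {Ct : ℝ≥0∞} (htail : ∫⁻ x : V, ‖({x : V | R' < ‖x‖}.indicator K x : ℂ)‖ₑ ≤ Ct)
    {Ω : Set V} (hΩ : MeasurableSet Ω) (hΩf : volume Ω ≠ ⊤) {f : V → ℂ} (hf : Measurable f)
    (hfΩ : ∀ x, ‖f x‖ ≤ Ω.indicator (fun _ => (1:ℝ)) x) (b : V) :
    ∫⁻ x in Metric.closedBall b R', ‖cv ({x : V | R' < ‖x‖}ᶜ.indicator K) f x‖ₑ ^ 3 ≤
      4 * ((∫⁻ x in Metric.closedBall (0 : V) R',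
          ‖cv K (fun y => (Metric.closedBall b (2 * R')).indicator f (y + b)) x‖ₑ ^ 3) +
        Ct ^ 3 * volume (Ω ∩ Metric.closedBall b (2 * R'))) := by
  set K2 : V → ℂ := {x : V | R' < ‖x‖}.indicator K with hK2
  set K1 : V → ℂ := {x : V | R' < ‖x‖}ᶜ.indicator K with hK1
  have hSm : MeasurableSet {x : V | R' < ‖x‖} := measurableSet_lt measurable_const (by fun_prop)
  have hK2m : Measurable K2 := hK.indicator hSm
  have hM2 : ∀ v, ‖K2 v‖ ≤ M := fun v => (norm_indicator_le_norm_self _ _).trans (hM v)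
  have hKs : K = fun v => K1 v + K2 v := by
    ext v
    rw [hK1, hK2, add_comm]
    exact (congrFun (Set.indicator_self_add_compl _ K) v).symm
  have hf1 : ∀ x, ‖f x‖ ≤ 1 := fun x => (hfΩ x).trans (Set.indicator_le_self' (by simp) x)
  have hfi : Integrable f := by
    have h1 : Integrable (Ω.indicator (fun _ => (1:ℝ))) :=
      (integrable_indicator_iff hΩ).2 (integrableOn_const hΩf)
    exact h1.mono' hf.aestronglyMeasurable (Eventually.of_forall hfΩ)
  have hcube : ∀ S : Set V, MeasurableSet S → ∀ k : ℕ, k ≠ 0 →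
      ∫⁻ x, ‖S.indicator f x‖ₑ ^ k ≤ volume (Ω ∩ S) := by
    intro S hS k hk
    rw [← lintegral_indicator_one (hΩ.inter hS)]
    refine lintegral_mono fun x => ?_
    by_cases hx : x ∈ S
    · rw [Set.indicator_of_mem hx]
      by_cases hx2 : x ∈ Ω
      · rw [Set.indicator_of_mem (Set.mem_inter hx2 hx), Pi.one_apply]
        have h1 : ‖f x‖ₑ ≤ 1 := by
          rw [← ofReal_norm, ← ENNReal.ofReal_one]
          exact ENNReal.ofReal_le_ofReal (hf1 x)
        exact pow_le_one₀ zero_le h1
      · have h1 := hfΩ x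
        rw [Set.indicator_of_notMem hx2] at h1
        have h2 : f x = 0 := norm_le_zero_iff.1 h1
        simp [h2, hk]
    · rw [Set.indicator_of_notMem hx]
      simp [hk]
  set B := Metric.closedBall b (2 * R') with hB
  have hBm : MeasurableSet B := Metric.isClosed_closedBall.measurableSet
  set fb := B.indicator f with hfb
  have hfbm : Measurable fb := hf.indicator hBm
  have hfbi : Integrable fb := hfi.indicator hBm
  have hpt : ∀ x ∈ Metric.closedBall b R', cv K1 f x = cv K fb x + cv (fun v => -K2 v) fb x := by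
    intro x hx
    have e1 : cv K1 f x = cv K1 fb x := by
      unfold cv
      refine integral_congr_ae (Eventually.of_forall fun y => ?_)
      simp only
      by_cases hy : y ∈ B
      · rw [hfb, Set.indicator_of_mem hy]
      · rw [hfb, Set.indicator_of_notMem hy]
        have : K1 (x - y) = 0 := by
          rw [hK1]
          apply Set.indicator_of_notMem
          simp only [Set.mem_compl_iff, not_not]
          show R' < ‖x - y‖
          rw [← dist_eq_norm]
          simp only [hB, Metric.mem_closedBall, not_le] at hy hx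
          have := dist_triangle y x b
          rw [dist_comm y x] at this
          linarith
        rw [this]; ring
    rw [e1, ← cv_add (K := K) (K' := fun v => -K2 v) x (int_cv hK hM hfbi x)
      (int_cv (K := fun v => -K2 v) hK2m.neg (fun v => by simpa using hM2 v) hfbi x)]
    congr 1
    ext v
    have hv : K v = K1 v + K2 v := congrFun hKs v
    rw [hv]; ring
  have hneg : ∀ x, ‖cv (fun v => -K2 v) fb x‖ₑ = ‖cv K2 fb x‖ₑ := by
    intro x
    have : cv (fun v => -K2 v) fb x = -cv K2 fb x := by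
      unfold cv
      rw [← integral_neg]
      refine integral_congr_ae (Eventually.of_forall fun y => ?_)
      simp only
      ring
    rw [this, enorm_neg]
  have hm1 : Measurable fun x => ‖cv K fb x‖ₑ ^ 3 := (measurable_cv hK hfbm).enorm.pow_const 3
  have e2 : ∫⁻ x in Metric.closedBall b R', ‖cv K fb x‖ₑ ^ 3 =
      ∫⁻ x in Metric.closedBall (0 : V) R', ‖cv K (fun y => fb (y + b)) x‖ₑ ^ 3 := by
    rw [← lintegral_indicator Metric.isClosed_closedBall.measurableSet,
      ← lintegral_indicator Metric.isClosed_closedBall.measurableSet,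
      ← lintegral_add_right_eq_self _ b]
    refine lintegral_congr fun x => ?_
    by_cases hx : ‖x‖ ≤ R'
    · rw [Set.indicator_of_mem (by simpa [dist_eq_norm] using hx : x + b ∈
          Metric.closedBall b R'), Set.indicator_of_mem (by simpa using hx : x ∈
          Metric.closedBall (0 : V) R'), cv_translate]
    · rw [Set.indicator_of_notMem (by simpa [dist_eq_norm] using hx : x + b ∉
          Metric.closedBall b R'), Set.indicator_of_notMem (by simpa using hx : x ∉
          Metric.closedBall (0 : V) R')]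
  calc ∫⁻ x in Metric.closedBall b R', ‖cv K1 f x‖ₑ ^ 3
      ≤ ∫⁻ x in Metric.closedBall b R', 4 * (‖cv K fb x‖ₑ ^ 3 + ‖cv K2 fb x‖ₑ ^ 3) := by
        refine setLIntegral_mono' Metric.isClosed_closedBall.measurableSet fun x hx => ?_
        rw [hpt x hx, ← hneg x]
        exact enorm_add_cube _ _
    _ = 4 * ((∫⁻ x in Metric.closedBall b R', ‖cv K fb x‖ₑ ^ 3) +
          ∫⁻ x in Metric.closedBall b R', ‖cv K2 fb x‖ₑ ^ 3) := by
        rw [← lintegral_add_left hm1]
        exact lintegral_const_mul' _ _ (by norm_num)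
    _ ≤ _ := by
        rw [e2]
        gcongr
        refine (setLIntegral_le_lintegral _ _).trans ((lint_cv_cube hK2m hfbm).trans ?_)
        gcongr
        exact hcube B hBm 3 (by norm_num)

/-- one time: reduction to balls. -/
theorem time_le {K : V → ℂ} (hK : Measurable K) {M : ℝ} (hM : ∀ v, ‖K v‖ ≤ M) {R' : ℝ}
    {Ct : ℝ≥0∞} (htail : ∫⁻ x : V, ‖({x : V | R' < ‖x‖}.indicator K x : ℂ)‖ₑ ≤ Ct)
    {Ω : Set V} (hΩ : MeasurableSet Ω) (hΩf : volume Ω ≠ ⊤) {f : V → ℂ} (hf : Measurable f)
    (hfΩ : ∀ x, ‖f x‖ ≤ Ω.indicator (fun _ => (1:ℝ)) x) :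
    volume (Metric.closedBall (0 : V) R') * ∫⁻ x, ‖cv K f x‖ₑ ^ 3 ≤
      16 * (∫⁻ b : V, ((∫⁻ x in Metric.closedBall (0 : V) R',
          ‖cv K (fun y => (Metric.closedBall b (2 * R')).indicator f (y + b)) x‖ₑ ^ 3) +
        Ct ^ 3 * volume (Ω ∩ Metric.closedBall b (2 * R')))) +
      4 * Ct ^ 3 * (volume (Metric.closedBall (0 : V) R') * volume Ω) := by
  set K2 : V → ℂ := {x : V | R' < ‖x‖}.indicator K with hK2
  set K1 : V → ℂ := {x : V | R' < ‖x‖}ᶜ.indicator K with hK1
  have hSm : MeasurableSet {x : V | R' < ‖x‖} := measurableSet_lt measurable_const (by fun_prop)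
  have hK2m : Measurable K2 := hK.indicator hSm
  have hK1m : Measurable K1 := hK.indicator hSm.compl
  have hM2 : ∀ v, ‖K2 v‖ ≤ M := fun v => (norm_indicator_le_norm_self _ _).trans (hM v)
  have hM1 : ∀ v, ‖K1 v‖ ≤ M := fun v => (norm_indicator_le_norm_self _ _).trans (hM v)
  have hKs : K = fun v => K1 v + K2 v := by
    ext v
    rw [hK1, hK2, add_comm]
    exact (congrFun (Set.indicator_self_add_compl _ K) v).symm
  have hf1 : ∀ x, ‖f x‖ ≤ 1 := fun x => (hfΩ x).trans (Set.indicator_le_self' (by simp) x)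
  have hfi : Integrable f := by
    have h1 : Integrable (Ω.indicator (fun _ => (1:ℝ))) :=
      (integrable_indicator_iff hΩ).2 (integrableOn_const hΩf)
    exact h1.mono' hf.aestronglyMeasurable (Eventually.of_forall hfΩ)
  have hcube : ∫⁻ x, ‖f x‖ₑ ^ 3 ≤ volume Ω := by
    rw [← lintegral_indicator_one hΩ]
    refine lintegral_mono fun x => ?_
    by_cases hx2 : x ∈ Ω
    · rw [Set.indicator_of_mem hx2, Pi.one_apply]
      have h1 : ‖f x‖ₑ ≤ 1 := by
        rw [← ofReal_norm, ← ENNReal.ofReal_one]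
        exact ENNReal.ofReal_le_ofReal (hf1 x)
      exact pow_le_one₀ zero_le h1
    · have h1 := hfΩ x
      rw [Set.indicator_of_notMem hx2] at h1
      have h2 : f x = 0 := norm_le_zero_iff.1 h1
      simp [h2]
  have h1 : ∫⁻ x, ‖cv K f x‖ₑ ^ 3 ≤ 4 * (∫⁻ x, ‖cv K1 f x‖ₑ ^ 3) + 4 * Ct ^ 3 * volume Ω := by
    calc ∫⁻ x, ‖cv K f x‖ₑ ^ 3 ≤ ∫⁻ x, 4 * (‖cv K1 f x‖ₑ ^ 3 + ‖cv K2 f x‖ₑ ^ 3) := by
          refine lintegral_mono fun x => ?_
          have : cv K f x = cv K1 f x + cv K2 f x := by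
            rw [← cv_add x (int_cv hK1m hM1 hfi x) (int_cv hK2m hM2 hfi x), ← hKs]
          simp only
          rw [this]
          exact enorm_add_cube _ _
      _ = 4 * ((∫⁻ x, ‖cv K1 f x‖ₑ ^ 3) + ∫⁻ x, ‖cv K2 f x‖ₑ ^ 3) := by
          rw [← lintegral_add_left ((measurable_cv hK1m hf).enorm.pow_const 3)]
          exact lintegral_const_mul' _ _ (by norm_num)
      _ ≤ 4 * ((∫⁻ x, ‖cv K1 f x‖ₑ ^ 3) + Ct ^ 3 * volume Ω) := by
          gcongr
          refine (lint_cv_cube hK2m hf).trans ?_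
          gcongr
      _ = _ := by ring
  have h2 := lint_balls R' (u := fun x => ‖cv K1 f x‖ₑ ^ 3)
      ((measurable_cv hK1m hf).enorm.pow_const 3)
  calc volume (Metric.closedBall (0 : V) R') * ∫⁻ x, ‖cv K f x‖ₑ ^ 3
      ≤ volume (Metric.closedBall (0 : V) R') *
        (4 * (∫⁻ x, ‖cv K1 f x‖ₑ ^ 3) + 4 * Ct ^ 3 * volume Ω) := by gcongr
    _ = 4 * (volume (Metric.closedBall (0 : V) R') * ∫⁻ x, ‖cv K1 f x‖ₑ ^ 3) +
        4 * Ct ^ 3 * (volume (Metric.closedBall (0 : V) R') * volume Ω) := by ring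
    _ = 4 * (∫⁻ b : V, ∫⁻ x in Metric.closedBall b R', ‖cv K1 f x‖ₑ ^ 3) +
        4 * Ct ^ 3 * (volume (Metric.closedBall (0 : V) R') * volume Ω) := by rw [h2]
    _ ≤ 4 * (∫⁻ b : V, 4 * ((∫⁻ x in Metric.closedBall (0 : V) R',
          ‖cv K (fun y => (Metric.closedBall b (2 * R')).indicator f (y + b)) x‖ₑ ^ 3) +
        Ct ^ 3 * volume (Ω ∩ Metric.closedBall b (2 * R')))) +
        4 * Ct ^ 3 * (volume (Metric.closedBall (0 : V) R') * volume Ω) := by
          gcongr with b
          exact ball_le hK hM htail hΩ hΩf hf hfΩ b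
    _ = _ := by
          rw [lintegral_const_mul' _ _ (by norm_num), ← mul_assoc]
          norm_num

/-- **local ⟹ global**, with a time parameter. -/
theorem glob_time {K : ℝ → V → ℂ} (hK : Measurable (fun p : ℝ × V => K p.1 p.2)) {M : ℝ}
    (hM : ∀ t v, ‖K t v‖ ≤ M) {I : Set ℝ} {R' : ℝ}
    (hR' : 0 < R') {Ct : ℝ≥0∞}
    (htail : ∀ t ∈ I, ∫⁻ x : V, ‖({x : V | R' < ‖x‖}.indicator (K t) x : ℂ)‖ₑ ≤ Ct)
    (hI : MeasurableSet I) {Cl : ℝ≥0∞}
    (hloc : ∀ f : V → ℂ, Measurable f → (∀ v, ‖f v‖ ≤ 1) → (∀ v, 2 * R' < ‖v‖ → f v = 0) →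
      ∫⁻ t in I, ∫⁻ v in Metric.closedBall (0 : V) R', ‖cv (K t) f v‖ₑ ^ 3 ≤
        Cl * ∫⁻ v, ‖f v‖ₑ ^ 2)
    {Ω : Set V} (hΩ : MeasurableSet Ω) (hΩf : volume Ω ≠ ⊤) {f : V → ℂ} (hf : Measurable f)
    (hfΩ : ∀ x, ‖f x‖ ≤ Ω.indicator (fun _ => (1:ℝ)) x) :
    ∫⁻ t in I, ∫⁻ x, ‖cv (K t) f x‖ₑ ^ 3 ≤
      (128 * (Cl + Ct ^ 3 * volume I) + 4 * Ct ^ 3 * volume I) * volume Ω := by
  have hKt : ∀ t, Measurable (K t) := fun t => hK.comp measurable_prodMk_left
  have hf1 : ∀ x, ‖f x‖ ≤ 1 := fun x => (hfΩ x).trans (Set.indicator_le_self' (by simp) x)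
  set v0 := volume (Metric.closedBall (0 : V) R') with hv0d
  have hv0 : v0 ≠ 0 := (Metric.measure_closedBall_pos volume 0 hR').ne'
  have hvt : v0 ≠ ⊤ := measure_closedBall_lt_top.ne
  set F : ℝ → V → ℝ≥0∞ := fun t b => ∫⁻ x in Metric.closedBall (0 : V) R',
    ‖cv (K t) (fun y => (Metric.closedBall b (2 * R')).indicator f (y + b)) x‖ₑ ^ 3 with hF
  have hS : MeasurableSet {p : V × V | dist p.2 p.1 ≤ 2 * R'} :=
    measurableSet_le (by fun_prop) measurable_const
  have hFm : Measurable (fun p : ℝ × V => F p.1 p.2) := by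
    simp only [hF]
    refine Measurable.lintegral_prod_right' (ν := volume.restrict (Metric.closedBall (0 : V) R'))
      (f := fun q : (ℝ × V) × V => ‖cv (K q.1.1) (fun y =>
        (Metric.closedBall q.1.2 (2 * R')).indicator f (y + q.1.2)) q.2‖ₑ ^ 3) ?_
    refine Measurable.pow_const (Measurable.enorm ?_) 3
    unfold cv
    refine StronglyMeasurable.measurable ?_
    refine StronglyMeasurable.integral_prod_right' (ν := (volume : Measure V))
      (f := fun q : ((ℝ × V) × V) × V => K q.1.1.1 (q.1.2 - q.2) *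
        (Metric.closedBall q.1.1.2 (2 * R')).indicator f (q.2 + q.1.1.2)) ?_
    refine Measurable.stronglyMeasurable ?_
    refine Measurable.mul ?_ ?_
    · exact hK.comp (by fun_prop : Measurable fun q : ((ℝ × V) × V) × V =>
        ((q.1.1.1, q.1.2 - q.2) : ℝ × V))
    · have e : (fun q : ((ℝ × V) × V) × V =>
          (Metric.closedBall q.1.1.2 (2 * R')).indicator f (q.2 + q.1.1.2)) =
          fun q => ({p : V × V | dist p.2 p.1 ≤ 2 * R'}.indicator (fun p => f p.2))
            (q.1.1.2, q.2 + q.1.1.2) := by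
        ext q
        by_cases h : dist (q.2 + q.1.1.2) q.1.1.2 ≤ 2 * R'
        · rw [Set.indicator_of_mem (Metric.mem_closedBall.2 h), Set.indicator_of_mem
            (show ((q.1.1.2, q.2 + q.1.1.2) : V × V) ∈ {p : V × V | dist p.2 p.1 ≤ 2 * R'} from h)]
        · rw [Set.indicator_of_notMem (fun h' => h (Metric.mem_closedBall.1 h')),
            Set.indicator_of_notMem
            (show ((q.1.1.2, q.2 + q.1.1.2) : V × V) ∉ {p : V × V | dist p.2 p.1 ≤ 2 * R'} from h)]
      rw [e]
      exact ((hf.comp measurable_snd).indicator hS).comp (by fun_prop)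
  have hGm : Measurable (fun b : V => volume (Ω ∩ Metric.closedBall b (2 * R'))) := by
    have h5 : (fun b : V => volume (Ω ∩ Metric.closedBall b (2 * R'))) =
        fun b => ∫⁻ x, {p : V × V | dist p.2 p.1 ≤ 2 * R'}.indicator
          (fun p => Ω.indicator (1 : V → ℝ≥0∞) p.2) (b, x) := by
      ext b
      rw [← lintegral_indicator_one
        (hΩ.inter Metric.isClosed_closedBall.measurableSet)]
      refine lintegral_congr fun x => ?_
      by_cases hx : dist x b ≤ 2 * R'
      · rw [Set.indicator_of_mem (show (b, x) ∈ {p : V × V | dist p.2 p.1 ≤ 2 * R'} from hx)]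
        by_cases hx2 : x ∈ Ω
        · have hx3 : x ∈ Ω ∩ Metric.closedBall b (2 * R') :=
            Set.mem_inter hx2 (Metric.mem_closedBall.2 hx)
          rw [Set.indicator_of_mem hx3, Set.indicator_of_mem hx2]
        · rw [Set.indicator_of_notMem (fun h => hx2 h.1), Set.indicator_of_notMem hx2]
      · rw [Set.indicator_of_notMem
          (show (b, x) ∉ {p : V × V | dist p.2 p.1 ≤ 2 * R'} from hx),
          Set.indicator_of_notMem (fun h => hx h.2)]
    rw [h5]
    exact Measurable.lintegral_prod_right' (f := fun q : V × V =>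
      {p : V × V | dist p.2 p.1 ≤ 2 * R'}.indicator
          (fun p => Ω.indicator (1 : V → ℝ≥0∞) p.2) q)
      (((measurable_one.indicator hΩ).comp measurable_snd).indicator hS)
  have h2 : ∫⁻ b : V, volume (Ω ∩ Metric.closedBall b (2 * R')) = 8 * v0 * volume Ω := by
    have h3 := lint_balls (2 * R') (u := Ω.indicator 1) (measurable_one.indicator hΩ)
    rw [lintegral_indicator_one hΩ, vol_double hR'] at h3
    rw [← h3]
    refine lintegral_congr fun b => ?_
    rw [lintegral_indicator_one₀ hΩ.nullMeasurableSet, Measure.restrict_apply hΩ]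
  have hone : ∀ b : V, ∫⁻ t in I, F t b ≤ Cl * volume (Ω ∩ Metric.closedBall b (2 * R')) := by
    intro b
    have hBm : MeasurableSet (Metric.closedBall b (2 * R')) :=
      Metric.isClosed_closedBall.measurableSet
    refine (hloc (fun y => (Metric.closedBall b (2 * R')).indicator f (y + b))
      ((hf.indicator hBm).comp (measurable_add_const b)) (fun v => ?_) (fun v hv => ?_)).trans ?_
    · exact (norm_indicator_le_norm_self _ _).trans (hf1 _)
    · apply Set.indicator_of_notMem
      simp only [Metric.mem_closedBall, not_le, dist_eq_norm, add_sub_cancel_right]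
      exact hv
    · rw [lintegral_add_right_eq_self
        (fun v => ‖(Metric.closedBall b (2 * R')).indicator f v‖ₑ ^ 2) b]
      gcongr
      rw [← lintegral_indicator_one (hΩ.inter hBm)]
      refine lintegral_mono fun x => ?_
      by_cases hx : x ∈ Metric.closedBall b (2 * R')
      · rw [Set.indicator_of_mem hx]
        by_cases hx2 : x ∈ Ω
        · rw [Set.indicator_of_mem (Set.mem_inter hx2 hx), Pi.one_apply]
          have h1 : ‖f x‖ₑ ≤ 1 := by
            rw [← ofReal_norm, ← ENNReal.ofReal_one]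
            exact ENNReal.ofReal_le_ofReal (hf1 x)
          exact pow_le_one₀ zero_le h1
        · have h1 := hfΩ x
          rw [Set.indicator_of_notMem hx2] at h1
          have h2 : f x = 0 := norm_le_zero_iff.1 h1
          simp [h2]
      · rw [Set.indicator_of_notMem hx]
        simp
  have key : v0 * ∫⁻ t in I, ∫⁻ x, ‖cv (K t) f x‖ₑ ^ 3 ≤
      v0 * ((128 * (Cl + Ct ^ 3 * volume I) + 4 * Ct ^ 3 * volume I) * volume Ω) := by
    calc v0 * ∫⁻ t in I, ∫⁻ x, ‖cv (K t) f x‖ₑ ^ 3
        = ∫⁻ t in I, v0 * ∫⁻ x, ‖cv (K t) f x‖ₑ ^ 3 := (lintegral_const_mul' _ _ hvt).symm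
      _ ≤ ∫⁻ t in I, (16 * (∫⁻ b : V, (F t b + Ct ^ 3 *
            volume (Ω ∩ Metric.closedBall b (2 * R')))) + 4 * Ct ^ 3 * (v0 * volume Ω)) := by
          refine setLIntegral_mono' hI fun t ht => ?_
          exact time_le (hKt t) (hM t) (htail t ht) hΩ hΩf hf hfΩ
      _ = 16 * (∫⁻ b : V, ∫⁻ t in I, F t b) + (16 * Ct ^ 3 * (8 * v0 * volume Ω) +
            4 * Ct ^ 3 * (v0 * volume Ω)) * volume I := by
          have e1 : ∀ t, ∫⁻ b : V, (F t b + Ct ^ 3 * volume (Ω ∩ Metric.closedBall b (2 * R'))) =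
              (∫⁻ b : V, F t b) + Ct ^ 3 * (8 * v0 * volume Ω) := by
            intro t
            rw [lintegral_add_right _ (hGm.const_mul _), lintegral_const_mul _ hGm, h2]
          simp only [e1]
          rw [lintegral_add_right _ measurable_const, lintegral_const,
            lintegral_const_mul' _ _ (by norm_num), lintegral_add_right _ measurable_const,
            lintegral_const, Measure.restrict_apply_univ,
            lintegral_lintegral_swap hFm.aemeasurable]
          ring
      _ ≤ 16 * (∫⁻ b : V, Cl * volume (Ω ∩ Metric.closedBall b (2 * R'))) +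
            (16 * Ct ^ 3 * (8 * v0 * volume Ω) +
            4 * Ct ^ 3 * (v0 * volume Ω)) * volume I := by
          gcongr with b
          exact hone b
      _ = _ := by
          rw [lintegral_const_mul _ hGm, h2]
          ring
  exact (ENNReal.mul_le_mul_iff_right hv0 hvt).1 key

end Crest.Agent.R116.EB665
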