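import Crest.Agent.R116.Gw2_665
import Crest.Agent.R116.CWp3_480

/-! R116 front (helper665): `GlobW ⇐ LocW`. -/

set_option autoImplicit false

open MeasureTheory Filter Topology
open scoped ENNReal FourierTransform ContDiff

noncomputable section

namespace Crest.Agent.R116.EB665

open Crest.Agent.R138.Defs (E2 ee)
open Crest.Agent.R138.Fr665 (cv)
open Crest.Agent.R138.Fq665 (PR up norm_up_sq)
open Crest.Agent.R116.Sh927 (V)

theorem norm_up34 (J : PR ≃ₗᵢ[ℝ] V) : ‖up J 0 (3/4)‖ = 3/4 := by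
  have h := norm_up_sq J 0 (3/4)
  rw [norm_zero] at h
  have h2 := norm_nonneg (up J 0 (3/4))
  nlinarith

theorem piece_norm {ρ : ℝ} (hρ1 : ρ ≤ 1/8) {J : PR ≃ₗᵢ[ℝ] V} {a : V → ℂ}
    (ha : ∀ v, a v ≠ 0 → ‖v - up J 0 (3/4)‖ ≤ ρ) (v : V) (hv : a v ≠ 0) :
    1/2 ≤ ‖v‖ ∧ ‖v‖ ≤ 2 := by
  have h1 := ha v hv
  have h3 := norm_up34 J
  constructor
  · have h4 : ‖up J 0 (3/4)‖ ≤ ‖v‖ + ‖v - up J 0 (3/4)‖ := by
      calc ‖up J 0 (3/4)‖ = ‖v - (v - up J 0 (3/4))‖ := by congr 1; abel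
        _ ≤ _ := norm_sub_le _ _
    linarith
  · calc ‖v‖ = ‖(v - up J 0 (3/4)) + up J 0 (3/4)‖ := by rw [sub_add_cancel]
      _ ≤ ‖v - up J 0 (3/4)‖ + ‖up J 0 (3/4)‖ := norm_add_le _ _
      _ ≤ 2 := by rw [h3]; linarith

theorem hcs_of_piece {a : V → ℂ} (ha : ∀ v, a v ≠ 0 → 1/2 ≤ ‖v‖ ∧ ‖v‖ ≤ 2) :
    HasCompactSupport a := by
  apply HasCompactSupport.of_support_subset_isCompact (isCompact_closedBall (0 : V) 2)
  intro v hv
  simpa using (ha v hv).2

theorem Kt_apply (a : V → ℂ) (t : ℝ) (x : V) :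
    Kt a t x = ∫ ξ, a ξ * ee (t * ‖ξ‖) * ee (inner ℝ x ξ) := by
  unfold Kt
  rw [CWp480.fourierInv_eq_int]

theorem norm_Kt_le (a : V → ℂ) (t : ℝ) (x : V) : ‖Kt a t x‖ ≤ ∫ ξ, ‖a ξ‖ := by
  rw [Kt_apply]
  refine (norm_integral_le_integral_norm _).trans (le_of_eq ?_)
  refine integral_congr_ae (Eventually.of_forall fun ξ => ?_)
  simp [norm_ee]

theorem continuous_Kt {a : V → ℂ} (hac : Continuous a) (has : HasCompactSupport a) :
    Continuous (fun p : ℝ × V => Kt a p.1 p.2) := by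
  have hai : Integrable a := hac.integrable_of_hasCompactSupport has
  simp only [Kt_apply]
  refine continuous_of_dominated (bound := fun ξ => ‖a ξ‖) ?_ ?_ hai.norm ?_
  · intro p
    refine Continuous.aestronglyMeasurable ?_
    exact (hac.mul (contDiff_ee.continuous.comp (continuous_const.mul continuous_norm))).mul
      (contDiff_ee.continuous.comp (continuous_const.inner continuous_id))
  · intro p
    refine Eventually.of_forall fun ξ => ?_
    simp [norm_ee]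
  · refine Eventually.of_forall fun ξ => ?_
    exact (continuous_const.mul (contDiff_ee.continuous.comp
      (continuous_fst.mul continuous_const))).mul
      (contDiff_ee.continuous.comp (continuous_snd.inner continuous_const))

/-- **GlobW ⇐ LocW**. -/
theorem GlobW_of_LocW (h : LocW) : GlobW := by
  obtain ⟨ρ, hρ, hρ1, H⟩ := h
  refine ⟨ρ, hρ, hρ1, ?_⟩
  intro J a hac has ε hε
  have hn := piece_norm hρ1 has
  have hcs := hcs_of_piece hn
  set δ : ℝ := min (ε / 8) 1 with hδ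
  have hδ0 : 0 < δ := by positivity
  have hδ1 : δ ≤ 1 := min_le_right _ _
  have h6 : 8 * δ ≤ ε := by
    have : δ ≤ ε / 8 := min_le_left _ _
    linarith
  obtain ⟨Cl, hCl, hloc⟩ := H J a hac has δ hδ0 hδ1
  obtain ⟨Ct, hCt, htail⟩ := tail_Kt hac hn hδ0
  refine ⟨128 * (Cl + Ct ^ 3 * 2) + 4 * Ct ^ 3 * 2, by positivity, ?_⟩
  intro R hR Ω hΩ hΩf f hf hfΩ
  have hR0 : 0 < R := by linarith
  have key := glob_time (K := Kt a) (continuous_Kt hac.continuous hcs).measurable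
    (fun t v => norm_Kt_le a t v) (I := Set.Icc (0 : ℝ) (2 * R)) (R' := R ^ (1 + δ))
    (by positivity)
    (Ct := ENNReal.ofReal Ct)
    (fun t ht => htail R hR t (by rw [abs_of_nonneg ht.1]; exact ht.2)) measurableSet_Icc
    (Cl := ENNReal.ofReal (Cl * R ^ (1 + 8 * δ))) (fun f hf h1 h0 => hloc R hR f hf h1 h0)
    hΩ hΩf hf hfΩ
  refine key.trans ?_
  gcongr
  rw [Real.volume_Icc, sub_zero, ← ENNReal.ofReal_pow hCt,
    show (128 : ℝ≥0∞) = ENNReal.ofReal 128 by simp, show (4 : ℝ≥0∞) = ENNReal.ofReal 4 by simp,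
    ← ENNReal.ofReal_mul (by positivity), ← ENNReal.ofReal_add (by positivity) (by positivity),
    ← ENNReal.ofReal_mul (by norm_num), ← ENNReal.ofReal_mul (by norm_num),
    ← ENNReal.ofReal_mul (by positivity), ← ENNReal.ofReal_add (by positivity) (by positivity)]
  apply ENNReal.ofReal_le_ofReal
  have h1 : R ^ (1 + 8 * δ) ≤ R ^ (1 + ε) := Real.rpow_le_rpow_of_exponent_le hR (by linarith)
  have h2 : R ≤ R ^ (1 + ε) := by
    calc R = R ^ (1:ℝ) := (Real.rpow_one R).symm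
      _ ≤ _ := Real.rpow_le_rpow_of_exponent_le hR (by linarith)
  have h3 : Ct ^ 3 * (2 * R) ≤ Ct ^ 3 * (2 * R ^ (1 + ε)) := by gcongr
  calc 128 * (Cl * R ^ (1 + 8 * δ) + Ct ^ 3 * (2 * R)) + 4 * Ct ^ 3 * (2 * R)
      ≤ 128 * (Cl * R ^ (1 + ε) + Ct ^ 3 * (2 * R ^ (1 + ε))) +
        4 * (Ct ^ 3 * (2 * R ^ (1 + ε))) := by
        have e : 4 * Ct ^ 3 * (2 * R) = 4 * (Ct ^ 3 * (2 * R)) := by ring
        rw [e]
        gcongr
    _ = _ := by ring

end Crest.Agent.R116.EB665
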