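import Crest.Agent.R116.IIr1_460

/-!
# R116, lemma HALF: `1/2 ≤ s` is impossible, rows over `Pl` (helper850; 538 / 389 / 171 / 79 / 850)

`Pl.Row S μ ν` = right side of the inequality of the direction `(-1; μ, ν)`:
`c + μ qa + ν qb ≤ Row μ ν`.  The three one-pin facts are `m + x ≤ 1`, `r + n ≤ 1`, `d ≤ u`
(a flag parallel to `z` on the plane is counted in `e`, its own field is then `0`).

* `UHalf`, `(1/2, 1/2)` : untied, and `κ`-tie `k ≤ 1/2` (this direction is legal there);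
* `EHalf k`, `μ = (1+k)/2`, `ν = (1-k)/2` : `e`-tie plane, extra facts `m ≤ r`, `n ≤ x` (`1 < k`);
* `KHalf k`, `μ = (1+k)/3`, `ν = (2-k)/3`, `1/2 ≤ k` : `κ`-tie plane, extra facts `m ≤ w` or
  `m ≤ r`, and `n ≤ x` or `n ≤ h` (`2 < k`).

Always `Row μ ν ≤ 1`.  `*_row_false` : with a defect `δ` (one generic point, no half plane needed);
`*_false` : half planes (`Tan` and the sign); `eTieH`, `kTieH`, `dTieH` : the final statements.
-/

set_option autoImplicit false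

namespace Crest.Agent.R116.Tie460

/-- right side of the inequality of the direction `(-1; μ, ν)` -/
def Pl.Row (S : Pl) (μ ν : ℝ) : ℝ :=
  (1 - μ) * S.x + μ * S.m + (1 - 2 * μ) * S.h + (1 - ν) * S.n + ν * S.r
    + (1 - 2 * μ + ν) * S.d - (2 * μ - ν) * S.u - (μ - ν) * S.w - S.e

/-- the general row, from the tangential identity and the sign of the offset `(μ - θ, ν - θb)` -/
theorem Pl.row_le {S : Pl} {c θ θb qa qb μ ν : ℝ} (tan : S.Tan c θ θb qa qb)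
    (hv : 0 ≤ (θ - μ) * S.Fa qa + (θb - ν) * S.Fb qb) :
    c + μ * qa + ν * qb ≤ S.Row μ ν := by
  have key : S.Row μ ν - (c + μ * qa + ν * qb) = (θ - μ) * S.Fa qa + (θb - ν) * S.Fb qb := by
    unfold Pl.Tan at tan
    unfold Pl.Row
    unfold Pl.Fa Pl.Fb at *
    linear_combination (-1 : ℝ) * tan
  linarith

variable {k k' θ s c qa qb μ ν δ : ℝ} {A B S : Pl}

/-- the one-pin facts -/
structure UHalf (S : Pl) : Prop where
  P : S.Pos
  p1 : S.m + S.x ≤ 1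
  p2 : S.r + S.n ≤ 1
  p3 : S.d ≤ S.u

/-- facts on the `e`-tie plane -/
structure EHalf (k : ℝ) (S : Pl) : Prop where
  P : S.Pos
  mr : S.m ≤ S.r
  nx : 1 < k → S.n ≤ S.x
  p1 : S.m + S.x ≤ 1
  p2 : S.r + S.n ≤ 1
  p3 : S.d ≤ S.u

/-- facts on the `κ`-tie plane -/
structure KHalf (k : ℝ) (S : Pl) : Prop where
  P : S.Pos
  mw : S.m ≤ S.w ∨ S.m ≤ S.r
  nx : 2 < k → S.n ≤ S.x ∨ S.n ≤ S.h
  p1 : S.m + S.x ≤ 1
  p2 : S.r + S.n ≤ 1
  p3 : S.d ≤ S.u

theorem EHalf.toU (F : EHalf k S) : UHalf S := ⟨F.P, F.p1, F.p2, F.p3⟩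

theorem KHalf.toU (F : KHalf k S) : UHalf S := ⟨F.P, F.p1, F.p2, F.p3⟩

/-- **row (U)** -/
theorem UHalf.row (F : UHalf S) : S.Row (1 / 2) (1 / 2) ≤ 1 := by
  have := F.P.e0; have := F.p1; have := F.p2; have := F.p3
  unfold Pl.Row
  linarith

/-- **row (E)** -/
theorem EHalf.row (F : EHalf k S) (hk : 0 ≤ k) : S.Row ((1 + k) / 2) ((1 - k) / 2) ≤ 1 := by
  have he := F.P.e0
  have h1 : 0 ≤ k * S.h := mul_nonneg hk F.P.h0
  have h2 : 0 ≤ k * S.w := mul_nonneg hk F.P.w0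
  have h3 : 0 ≤ (1 + 3 * k) * (S.u - S.d) :=
    mul_nonneg (by linarith) (by linarith [F.p3])
  have h3' : 0 ≤ k * S.d := mul_nonneg hk F.P.d0
  have h4 : 0 ≤ k * (S.r - S.m) := mul_nonneg hk (by linarith [F.mr])
  have p1 := F.p1
  have p2 := F.p2
  unfold Pl.Row
  rcases le_or_gt k 1 with h | h
  · have h5 : (1 - k) * (S.m + S.x) ≤ (1 - k) * 1 := mul_le_mul_of_nonneg_left p1 (by linarith)
    have h6 : (1 + k) * (S.r + S.n) ≤ (1 + k) * 1 := mul_le_mul_of_nonneg_left p2 (by linarith)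
    nlinarith
  · have h5 : 0 ≤ (k - 1) * (S.x - S.n) := mul_nonneg (by linarith) (by linarith [F.nx h])
    have h6 : 0 ≤ (k - 1) * (S.r - S.m) := mul_nonneg (by linarith) (by linarith [F.mr])
    have h7 := F.mr
    nlinarith

/-- **row (K)** -/
theorem KHalf.row (F : KHalf k S) (hk : 1 / 2 ≤ k) :
    S.Row ((1 + k) / 3) ((2 - k) / 3) ≤ 1 := by
  have he := F.P.e0
  have h1 : 0 ≤ (2 * k - 1) * S.h := mul_nonneg (by linarith) F.P.h0
  have h2 : 0 ≤ (2 * k - 1) * S.w := mul_nonneg (by linarith) F.P.w0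
  have h3 : 0 ≤ k * (S.u - S.d) := mul_nonneg (by linarith) (by linarith [F.p3])
  have h3' : 0 ≤ (2 * k - 1) * S.d := mul_nonneg (by linarith) F.P.d0
  have h8 : 0 ≤ (2 * k - 1) * S.r := mul_nonneg (by linarith) F.P.r0
  have p1 := F.p1
  have p2 := F.p2
  have hr := F.P.r0
  have hn := F.P.n0
  have hm := F.P.m0
  have hx := F.P.x0
  -- `(2k-1) m` is absorbed
  have h4 : (2 * k - 1) * S.m ≤ (2 * k - 1) * S.w + (2 * k - 1) * (1 - S.n) ∧
      (2 * k - 1) * (S.m + S.n) ≤ (2 * k - 1) * S.w + (2 * k - 1) := by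
    have hn1 : S.n ≤ 1 := by linarith
    rcases F.mw with h | h
    · have e1 : 0 ≤ (2 * k - 1) * (S.w - S.m) := mul_nonneg (by linarith) (by linarith)
      have e2 : 0 ≤ (2 * k - 1) * (1 - S.n) := mul_nonneg (by linarith) (by linarith)
      constructor <;> nlinarith
    · have e1 : 0 ≤ (2 * k - 1) * (1 - S.n - S.m) := mul_nonneg (by linarith) (by linarith)
      constructor <;> nlinarith
  unfold Pl.Row
  rcases le_or_gt k 2 with h | h
  · have h5 : (2 - k) * (S.m + S.x) ≤ (2 - k) * 1 := mul_le_mul_of_nonneg_left p1 (by linarith)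
    have h6 : (2 - k) * (S.r + S.n) ≤ (2 - k) * 1 := mul_le_mul_of_nonneg_left p2 (by linarith)
    nlinarith [h4.2]
  · have hk2 : 0 ≤ k - 2 := by linarith
    have k0 : 0 ≤ 1 + k := by linarith
    have hxx : 0 ≤ (k - 2) * S.x := mul_nonneg hk2 hx
    have hrr : 0 ≤ (k - 2) * S.r := mul_nonneg hk2 hr
    have hww : 0 ≤ (k - 2) * S.w := mul_nonneg hk2 F.P.w0
    have hhh : 0 ≤ (k - 2) * S.h := mul_nonneg hk2 F.P.h0
    -- the `m` part
    have hm1 : (1 + k) * S.m - (k - 2) * S.r - (2 * k - 1) * S.w ≤ 3 * S.r := by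
      rcases F.mw with h7 | h7
      · have e1 : 0 ≤ (1 + k) * (S.w - S.m) := mul_nonneg k0 (by linarith)
        nlinarith
      · have e1 : 0 ≤ (1 + k) * (S.r - S.m) := mul_nonneg k0 (by linarith)
        nlinarith
    have hn1 : (1 + k) * S.n - (k - 2) * S.x - (2 * k - 1) * S.h ≤ 3 * S.n := by
      rcases F.nx h with h7 | h7
      · have e1 : 0 ≤ (k - 2) * (S.x - S.n) := mul_nonneg hk2 (by linarith)
        nlinarith
      · have e1 : 0 ≤ (k - 2) * (S.h - S.n) := mul_nonneg hk2 (by linarith)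
        nlinarith [F.P.h0, mul_nonneg k0 F.P.h0]
    nlinarith

/-- one generic point with a defect `δ` -/
theorem half_false {R : ℝ} (N : Num θ s c qa qb) (hs : 1 / 2 ≤ s) (hR : R ≤ 1)
    (row : c + μ * qa + ν * qb - δ ≤ R) (hδ : δ ≤ μ * qa + ν * qb + qb) : False := by
  have := N.hc
  linarith

theorem e_coef (N : Num θ s c qa qb) (hk : 0 ≤ k) :
    0 ≤ (1 + k) / 2 * qa + (1 - k) / 2 * qb := by
  have h1 : 0 ≤ k * (qa - qb) := mul_nonneg hk (by linarith [N.hq])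
  nlinarith [N.ha, N.hb]

theorem k_coef (N : Num θ s c qa qb) (hk : 0 ≤ k) :
    0 ≤ (1 + k) / 3 * qa + (2 - k) / 3 * qb := by
  have h1 : 0 ≤ k * (qa - qb) := mul_nonneg hk (by linarith [N.hq])
  nlinarith [N.ha, N.hb]

/-- row (U), one generic point, defect `δ ≤ qb` -/
theorem UHalf.row_false (N : Num θ s c qa qb) (hs : 1 / 2 ≤ s) (F : UHalf S)
    (row : c + 1 / 2 * qa + 1 / 2 * qb - δ ≤ S.Row (1 / 2) (1 / 2)) (hδ : δ ≤ qb) : False :=
  half_false N hs F.row row (by linarith [N.ha, N.hb])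

/-- row (E), one generic point, defect `δ ≤ qb` -/
theorem EHalf.row_false (N : Num θ s c qa qb) (hs : 1 / 2 ≤ s) (hk : 0 ≤ k) (F : EHalf k S)
    (row : c + (1 + k) / 2 * qa + (1 - k) / 2 * qb - δ ≤ S.Row ((1 + k) / 2) ((1 - k) / 2))
    (hδ : δ ≤ qb) : False :=
  half_false N hs (F.row hk) row (by linarith [e_coef N hk])

/-- row (K), one generic point, defect `δ ≤ qb` -/
theorem KHalf.row_false (N : Num θ s c qa qb) (hs : 1 / 2 ≤ s) (hk : 1 / 2 ≤ k) (F : KHalf k S)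
    (row : c + (1 + k) / 3 * qa + (2 - k) / 3 * qb - δ ≤ S.Row ((1 + k) / 3) ((2 - k) / 3))
    (hδ : δ ≤ qb) : False :=
  half_false N hs (F.row hk) row (by linarith [k_coef N (by linarith : 0 ≤ k)])

/-- half plane `(1/2 - θ, 1/2 - θb)` -/
theorem uHalf_false {θb : ℝ} (N : Num θ s c qa qb) (hs : 1 / 2 ≤ s) (F : UHalf S)
    (tan : S.Tan c θ θb qa qb)
    (hv : 0 ≤ (θ - 1 / 2) * S.Fa qa + (θb - 1 / 2) * S.Fb qb) : False :=
  UHalf.row_false (δ := 0) N hs F (by linarith [Pl.row_le tan hv]) N.hb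

/-- half plane of the `e`-tie plane -/
theorem eHalf_false (N : Num θ s c qa qb) (hs : 1 / 2 ≤ s) (hk : 0 < k) (F : EHalf k S)
    (tan : S.Tan c θ (θ - k) qa qb)
    (hv : 0 ≤ (θ - (1 + k) / 2) * (S.Fa qa + S.Fb qb)) : False := by
  have h := Pl.row_le (μ := (1 + k) / 2) (ν := (1 - k) / 2) tan (by
    have e : (θ - (1 + k) / 2) * S.Fa qa + (θ - k - (1 - k) / 2) * S.Fb qb =
        (θ - (1 + k) / 2) * (S.Fa qa + S.Fb qb) := by ring
    rw [e]; exact hv)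
  exact EHalf.row_false (δ := 0) N hs hk.le F (by linarith) N.hb

/-- half plane of the `κ`-tie plane -/
theorem kHalf_false (N : Num θ s c qa qb) (hs : 1 / 2 ≤ s) (hk : 1 / 2 ≤ k) (F : KHalf k S)
    (tan : S.Tan c θ (2 * θ - k) qa qb)
    (hv : 0 ≤ (θ - (1 + k) / 3) * (S.Fa qa + 2 * S.Fb qb)) : False := by
  have h := Pl.row_le (μ := (1 + k) / 3) (ν := (2 - k) / 3) tan (by
    have e : (θ - (1 + k) / 3) * S.Fa qa + (2 * θ - k - (2 - k) / 3) * S.Fb qb =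
        (θ - (1 + k) / 3) * (S.Fa qa + 2 * S.Fb qb) := by ring
    rw [e]; exact hv)
  exact KHalf.row_false (δ := 0) N hs hk F (by linarith) N.hb

/-- **`e`-tie, `1/2 ≤ s` ⇒ False** : `T⁻` if `(1+k)/2 ≤ θ`, `T⁺` if not -/
theorem eTieH (N : Num θ s c qa qb) (hs : 1 / 2 ≤ s) (hk : 0 < k)
    (lo : (1 + k) / 2 ≤ θ → ∃ A, EHalf k A ∧ A.Tan c θ (θ - k) qa qb ∧ 0 ≤ A.Fa qa + A.Fb qb)
    (up : θ < (1 + k) / 2 → ∃ B, EHalf k B ∧ B.Tan c θ (θ - k) qa qb ∧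
      B.Fa qa + B.Fb qb ≤ 0) : False := by
  rcases le_or_gt ((1 + k) / 2) θ with h | h
  · obtain ⟨A, hA, tan, ver⟩ := lo h
    exact eHalf_false N hs hk hA tan (lowμ ver h)
  · obtain ⟨B, hB, tan, ver⟩ := up h
    exact eHalf_false N hs hk hB tan (upμ ver h.le)

/-- **`κ`-tie (and `D`-tie), `1/2 ≤ s` ⇒ False** : for `k < 1/2` the (legal) half plane
`(1/2 - θ, 1/2 - θb)`; else `T⁻` if `(1+k)/3 ≤ θ`, `T⁺` if not -/
theorem kTieH (N : Num θ s c qa qb) (hs : 1 / 2 ≤ s)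
    (un : k < 1 / 2 → ∃ A, UHalf A ∧ A.Tan c θ (2 * θ - k) qa qb ∧
      0 ≤ (θ - 1 / 2) * A.Fa qa + (2 * θ - k - 1 / 2) * A.Fb qb)
    (lo : 1 / 2 ≤ k → (1 + k) / 3 ≤ θ → ∃ A, KHalf k A ∧ A.Tan c θ (2 * θ - k) qa qb ∧
      0 ≤ A.Fa qa + 2 * A.Fb qb)
    (up : 1 / 2 ≤ k → θ < (1 + k) / 3 → ∃ B, KHalf k B ∧ B.Tan c θ (2 * θ - k) qa qb ∧
      B.Fa qa + 2 * B.Fb qb ≤ 0) : False := by
  rcases lt_or_ge k (1 / 2) with hk | hk
  · obtain ⟨A, hA, tan, ver⟩ := un hk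
    exact uHalf_false N hs hA tan ver
  · rcases le_or_gt ((1 + k) / 3) θ with h | h
    · obtain ⟨A, hA, tan, ver⟩ := lo hk h
      exact kHalf_false N hs hk hA tan (lowμ ver h)
    · obtain ⟨B, hB, tan, ver⟩ := up hk h
      exact kHalf_false N hs hk hB tan (upμ ver h.le)

/-- **double tie, `1/2 ≤ s` ⇒ False** (`k' = k + θ`) : the `e`-row on `T⁺` if `θ < (1+k)/2`, the
`κ`-row on `T⁻` if not -/
theorem dTieH (N : Num θ s c qa qb) (hs : 1 / 2 ≤ s) (hk : 0 < k) (hkk : k' = k + θ)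
    (lo : (1 + k) / 2 ≤ θ → ∃ A, KHalf k' A ∧ A.Tan c θ (θ - k) qa qb ∧
      0 ≤ A.Fa qa + 2 * A.Fb qb)
    (up : θ < (1 + k) / 2 → ∃ B, EHalf k B ∧ B.Tan c θ (θ - k) qa qb ∧
      B.Fa qa + B.Fb qb ≤ 0) : False := by
  rcases le_or_gt ((1 + k) / 2) θ with h | h
  · obtain ⟨A, hA, tan, ver⟩ := lo h
    have eb : θ - k = 2 * θ - k' := by rw [hkk]; ring
    rw [eb] at tan
    exact kHalf_false N hs (by linarith) hA tan (lowμ ver (by linarith))
  · obtain ⟨B, hB, tan, ver⟩ := up h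
    exact eHalf_false N hs hk hB tan (upμ ver h.le)

/-! ### the same with ONE generic point of the tie plane and a defect `δ ≤ qb` -/

/-- `e`-tie, one point -/
theorem eTieHδ (N : Num θ s c qa qb) (hs : 1 / 2 ≤ s) (hk : 0 < k)
    (pt : ∃ A, EHalf k A ∧ c + (1 + k) / 2 * qa + (1 - k) / 2 * qb - qb ≤
      A.Row ((1 + k) / 2) ((1 - k) / 2)) : False := by
  obtain ⟨A, hA, h⟩ := pt
  exact EHalf.row_false (δ := qb) N hs hk.le hA h le_rfl

/-- `κ`-tie, one point -/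
theorem kTieHδ (N : Num θ s c qa qb) (hs : 1 / 2 ≤ s)
    (un : k < 1 / 2 → ∃ A, UHalf A ∧ c + 1 / 2 * qa + 1 / 2 * qb - qb ≤ A.Row (1 / 2) (1 / 2))
    (pt : 1 / 2 ≤ k → ∃ A, KHalf k A ∧ c + (1 + k) / 3 * qa + (2 - k) / 3 * qb - qb ≤
      A.Row ((1 + k) / 3) ((2 - k) / 3)) : False := by
  rcases lt_or_ge k (1 / 2) with hk | hk
  · obtain ⟨A, hA, h⟩ := un hk
    exact UHalf.row_false (δ := qb) N hs hA h le_rfl
  · obtain ⟨A, hA, h⟩ := pt hk
    exact KHalf.row_false (δ := qb) N hs hk hA h le_rfl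

/-- double tie, one point -/
theorem dTieHδ (N : Num θ s c qa qb) (hs : 1 / 2 ≤ s) (hk : 0 < k) (hkk : k' = k + θ)
    (lo : (1 + k) / 2 ≤ θ → ∃ A, KHalf k' A ∧ c + (1 + k') / 3 * qa + (2 - k') / 3 * qb - qb ≤
      A.Row ((1 + k') / 3) ((2 - k') / 3))
    (up : θ < (1 + k) / 2 → ∃ A, EHalf k A ∧ c + (1 + k) / 2 * qa + (1 - k) / 2 * qb - qb ≤
      A.Row ((1 + k) / 2) ((1 - k) / 2)) : False := by
  rcases le_or_gt ((1 + k) / 2) θ with h | h
  · obtain ⟨A, hA, h1⟩ := lo h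
    exact KHalf.row_false (δ := qb) N hs (by linarith) hA h1 le_rfl
  · obtain ⟨A, hA, h1⟩ := up h
    exact EHalf.row_false (δ := qb) N hs hk.le hA h1 le_rfl

end Crest.Agent.R116.Tie460
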