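import Crest.Agent.R116.EvL4_504

/-!
# R116, K side, [II3] (helper538), part 1: the light chart in a window, inequalities only

`Law G K e` : the light chart on ONE configuration with level slots natural or unresolved
(`e = ρ^tp`): bounds, composition at one height, evolution between two heights, for the slots
`C = {3,4}`, `X = {5,6}`, `H = 9`, `P = 10`, `F = 11`; the flags only enter through their bounds.
`Thin2 G K e b1 b2` : `C` and `X` are one-dimensional (direction `τ = (-b2, b1)`).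
`mrg G` : merged configuration over `Fin 5 = (C, X, H, P, F)`.

* `law_of_reg` : 504's `Reg` + `WL`, any legal base point with `unit ratios` `compW`, hence natural
  and flag-frozen base points.
-/

set_option autoImplicit false
set_option linter.unusedVariables false
set_option linter.unusedSectionVars false

open Filter Topology Finset

namespace Crest.Agent.R116.Hk538

open Crest.Agent.R138.Ex926 (Base U)
open Crest.Agent.R136.Gf356 Crest.Agent.R136.Qg926 Crest.Agent.R116.EvL504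
open Crest.Agent.R116.PL504

/-- merged configuration, slots `(C, X, H, P, F)` -/
def mrg (G : RCfg (Fin 12)) : RCfg (Fin 5) where
  ρ := G.ρ
  L := G.L
  Z := G.Z
  I := G.I
  z := G.z
  rel k i l := ![max |G.rel k i l 3| |G.rel k i l 4|, max |G.rel k i l 5| |G.rel k i l 6|,
    G.rel k i l 9, G.rel k i l 10, G.rel k i l 11]

/-- size of the slots `C, X, H` -/
def m5 (v : Fin 12 → ℝ) : ℝ := |v 3| + |v 4| + |v 5| + |v 6| + |v 9|

theorem m5_nonneg (v : Fin 12 → ℝ) : 0 ≤ m5 v := by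
  unfold m5; positivity

/-- the light chart on one configuration -/
structure Law (G : RCfg (Fin 12)) (K e : ℝ) : Prop where
  K1 : 1 ≤ K
  e0 : 0 ≤ e
  bd : ∀ k i l, (i, k) ∈ G.I → (l, k) ∈ G.I → ∀ s, |G.rel k i l s| ≤ K
  zb : ∀ k ∈ G.Z, ∀ k' ∈ G.Z, |G.z k - G.z k'| ≤ K
  add : ∀ k i j l, (i, k) ∈ G.I → (j, k) ∈ G.I → (l, k) ∈ G.I → ∀ s : Fin 12,
    s = 3 ∨ s = 4 ∨ s = 5 ∨ s = 6 → |G.rel k i l s - G.rel k i j s - G.rel k j l s| ≤ K * e
  add9 : ∀ k i j l, (i, k) ∈ G.I → (j, k) ∈ G.I → (l, k) ∈ G.I →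
    |G.rel k i l 9 - G.rel k i j 9 - G.rel k j l 9 -
      (G.rel k i j 3 * G.rel k j l 5 + G.rel k i j 4 * G.rel k j l 6)| ≤ K * e
  addP : ∀ k i j l, (i, k) ∈ G.I → (j, k) ∈ G.I → (l, k) ∈ G.I → ∀ s : Fin 12,
    s = 10 ∨ s = 11 → |G.rel k i l s - G.rel k i j s - G.rel k j l s| ≤
      K * (m5 (G.rel k j l) + e)
  evC : ∀ k k' i l, (i, k) ∈ G.I → (l, k) ∈ G.I → (i, k') ∈ G.I → (l, k') ∈ G.I →
    ∀ s : Fin 12, s = 3 ∨ s = 4 → |G.rel k' i l s - G.rel k i l s| ≤ K * e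
  evX : ∀ k k' i l, (i, k) ∈ G.I → (l, k) ∈ G.I → (i, k') ∈ G.I → (l, k') ∈ G.I →
    |G.rel k' i l 5 - (G.rel k i l 5 - (G.z k - G.z k') * G.rel k i l 3)| ≤ K * e ∧
    |G.rel k' i l 6 - (G.rel k i l 6 - (G.z k - G.z k') * G.rel k i l 4)| ≤ K * e
  ev9 : ∀ k k' i l, (i, k) ∈ G.I → (l, k) ∈ G.I → (i, k') ∈ G.I → (l, k') ∈ G.I →
    |G.rel k' i l 9 - G.rel k i l 9| ≤ K * (m5 (G.rel k i l) + e)
  ev10 : ∀ k k' i l, (i, k) ∈ G.I → (l, k) ∈ G.I → (i, k') ∈ G.I → (l, k') ∈ G.I →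
    |G.rel k' i l 10 - G.rel k i l 10| ≤ K * (m5 (G.rel k i l) + e)
  ev11 : ∀ k k' i l, (i, k) ∈ G.I → (l, k) ∈ G.I → (i, k') ∈ G.I → (l, k') ∈ G.I →
    |G.rel k' i l 11 - (G.rel k i l 11 - (G.z k - G.z k') * G.rel k i l 10)| ≤
      K * (m5 (G.rel k i l) + e)

/-- one-dimensionality of `C` and `X` -/
structure Thin2 (G : RCfg (Fin 12)) (K e b1 b2 : ℝ) : Prop where
  unit : b1 ^ 2 + b2 ^ 2 = 1
  c : ∀ k i l, (i, k) ∈ G.I → (l, k) ∈ G.I →
    |b1 * G.rel k i l 3 + b2 * G.rel k i l 4| ≤ K * e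
  x : ∀ k i l, (i, k) ∈ G.I → (l, k) ∈ G.I →
    |b1 * G.rel k i l 5 + b2 * G.rel k i l 6| ≤ K * e

/-! ### the law `comp` with units of the flags -/

/-- the laws needed here hold for `compW` -/
structure CompOk (f : (Fin 12 → ℝ) → (Fin 12 → ℝ) → Fin 12 → ℝ) : Prop where
  lin : ∀ a c : Fin 12 → ℝ, f a c 3 = a 3 + c 3 ∧ f a c 4 = a 4 + c 4 ∧
    f a c 5 = a 5 + c 5 - a 0 * c 3 ∧ f a c 6 = a 6 + c 6 - a 0 * c 4
  h9 : ∀ a c : Fin 12 → ℝ, f a c 9 = a 9 + c 9 - a 0 * ((c 3 ^ 2 + c 4 ^ 2) / 2) +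
    a 3 * (c 5 - a 0 * c 3) + a 4 * (c 6 - a 0 * c 4)
  h10 : ∀ a c : Fin 12 → ℝ, (∀ s, |a s| ≤ 1) → (∀ s, |c s| ≤ 1) →
    |f a c 10 - (a 10 + c 10)| ≤ 20 * m5 c
  h11 : ∀ a c : Fin 12 → ℝ, (∀ s, |a s| ≤ 1) → (∀ s, |c s| ≤ 1) →
    |f a c 11 - (a 11 + c 11 - a 0 * c 10)| ≤ 20 * m5 c

/-- product bounds -/
theorem ab1 {a c : ℝ} (ha : |a| ≤ 1) : |a * c| ≤ |c| := by
  rw [abs_mul]
  have := mul_le_mul_of_nonneg_right ha (abs_nonneg c)
  linarith

/-- `comp` with a multiplier `γ` of the slot `D` (frozen flag), multiplier `δ`, `ε` of `E`, `B` -/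
theorem compOk_of {f : (Fin 12 → ℝ) → (Fin 12 → ℝ) → Fin 12 → ℝ} {γ : ℝ} (hγ : |γ| ≤ 1)
    (hf : ∀ a c s, s = 3 ∨ s = 4 ∨ s = 5 ∨ s = 6 ∨ s = 9 ∨ s = 10 ∨ s = 11 →
      f a c s = comp (fun j => if j = 1 then γ * a j else a j) c s) : CompOk f := by
  have e3 := fun a c => hf a c 3 (by decide)
  have e4 := fun a c => hf a c 4 (by decide)
  have e5 := fun a c => hf a c 5 (by decide)
  have e6 := fun a c => hf a c 6 (by decide)
  have e9 := fun a c => hf a c 9 (by decide)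
  have e10 := fun a c => hf a c 10 (by decide)
  have e11 := fun a c => hf a c 11 (by decide)
  refine ⟨fun a c => ⟨?_, ?_, ?_, ?_⟩, fun a c => ?_, fun a c ha hc => ?_, fun a c ha hc => ?_⟩
  · rw [e3]; simp [comp]
  · rw [e4]; simp [comp]
  · rw [e5]; simp [comp]
  · rw [e6]; simp [comp]
  · rw [e9]; simp [comp]
  · rw [e10]
    have e : comp (fun j => if j = 1 then γ * a j else a j) c 10 - (a 10 + c 10) =
        -(a 7 * c 3) - a 8 * c 4 - a 2 * ((c 3 ^ 2 + c 4 ^ 2) / 2) -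
          2 * (γ * (a 1 * (c 5 * c 3 + c 6 * c 4 - c 9))) := by
      simp [comp]; ring
    rw [e]
    have h1 : |-(a 7 * c 3)| ≤ |c 3| := by rw [abs_neg]; exact ab1 (ha 7)
    have h2 : |a 8 * c 4| ≤ |c 4| := ab1 (ha 8)
    have h3 : |c 3 ^ 2| ≤ |c 3| := by rw [pow_two]; exact ab1 (hc 3)
    have h4 : |c 4 ^ 2| ≤ |c 4| := by rw [pow_two]; exact ab1 (hc 4)
    have h5 : |a 2 * ((c 3 ^ 2 + c 4 ^ 2) / 2)| ≤ |c 3| + |c 4| := by
      refine (ab1 (ha 2)).trans ?_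
      rw [abs_div, abs_two]
      have := abs_add_le (c 3 ^ 2) (c 4 ^ 2)
      have := abs_nonneg (c 3)
      have := abs_nonneg (c 4)
      linarith
    have h6 : |c 5 * c 3| ≤ |c 3| := ab1 (hc 5)
    have h7 : |c 6 * c 4| ≤ |c 4| := ab1 (hc 6)
    have h8 : |2 * (γ * (a 1 * (c 5 * c 3 + c 6 * c 4 - c 9)))| ≤ 2 * (|c 3| + |c 4| + |c 9|) := by
      rw [abs_mul, abs_two]
      refine mul_le_mul_of_nonneg_left ?_ two_pos.le
      refine (ab1 hγ).trans ((ab1 (ha 1)).trans ?_)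
      have b1 := abs_sub (c 5 * c 3 + c 6 * c 4) (c 9)
      have b2 := abs_add_le (c 5 * c 3) (c 6 * c 4)
      linarith
    have b1 := abs_sub (-(a 7 * c 3) - a 8 * c 4 - a 2 * ((c 3 ^ 2 + c 4 ^ 2) / 2))
      (2 * (γ * (a 1 * (c 5 * c 3 + c 6 * c 4 - c 9))))
    have b2 := abs_sub (-(a 7 * c 3) - a 8 * c 4) (a 2 * ((c 3 ^ 2 + c 4 ^ 2) / 2))
    have b3 := abs_sub (-(a 7 * c 3)) (a 8 * c 4)
    unfold m5
    have n3 := abs_nonneg (c 3)
    have n4 := abs_nonneg (c 4)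
    have n5 := abs_nonneg (c 5)
    have n6 := abs_nonneg (c 6)
    have n9 := abs_nonneg (c 9)
    linarith
  · rw [e11]
    have e : comp (fun j => if j = 1 then γ * a j else a j) c 11 - (a 11 + c 11 - a 0 * c 10) =
        -(a 7 * (c 5 - a 0 * c 3)) - a 8 * (c 6 - a 0 * c 4) -
          a 2 * (c 9 - a 0 * ((c 3 ^ 2 + c 4 ^ 2) / 2)) -
          γ * (a 1 * (c 5 ^ 2 + c 6 ^ 2 - 2 * (a 0 * (c 5 * c 3 + c 6 * c 4 - c 9)))) := by
      simp [comp]; ring
    rw [e]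
    have h3 : |c 3 ^ 2| ≤ |c 3| := by rw [pow_two]; exact ab1 (hc 3)
    have h4 : |c 4 ^ 2| ≤ |c 4| := by rw [pow_two]; exact ab1 (hc 4)
    have h5 : |c 5 ^ 2| ≤ |c 5| := by rw [pow_two]; exact ab1 (hc 5)
    have h6 : |c 6 ^ 2| ≤ |c 6| := by rw [pow_two]; exact ab1 (hc 6)
    have g1 : |-(a 7 * (c 5 - a 0 * c 3))| ≤ |c 5| + |c 3| := by
      rw [abs_neg]
      refine (ab1 (ha 7)).trans ?_
      have := abs_sub (c 5) (a 0 * c 3)
      have := ab1 (c := c 3) (ha 0)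
      linarith
    have g2 : |a 8 * (c 6 - a 0 * c 4)| ≤ |c 6| + |c 4| := by
      refine (ab1 (ha 8)).trans ?_
      have := abs_sub (c 6) (a 0 * c 4)
      have := ab1 (c := c 4) (ha 0)
      linarith
    have g3 : |a 2 * (c 9 - a 0 * ((c 3 ^ 2 + c 4 ^ 2) / 2))| ≤ |c 9| + (|c 3| + |c 4|) := by
      refine (ab1 (ha 2)).trans ?_
      have b1 := abs_sub (c 9) (a 0 * ((c 3 ^ 2 + c 4 ^ 2) / 2))
      have b2 := ab1 (c := (c 3 ^ 2 + c 4 ^ 2) / 2) (ha 0)
      rw [abs_div, abs_two] at b2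
      have := abs_add_le (c 3 ^ 2) (c 4 ^ 2)
      have := abs_nonneg (c 3)
      have := abs_nonneg (c 4)
      linarith
    have g4 : |c 5 * c 3| ≤ |c 3| := ab1 (hc 5)
    have g5 : |c 6 * c 4| ≤ |c 4| := ab1 (hc 6)
    have g6 : |γ * (a 1 * (c 5 ^ 2 + c 6 ^ 2 - 2 * (a 0 * (c 5 * c 3 + c 6 * c 4 - c 9))))| ≤
        |c 5| + |c 6| + 2 * (|c 3| + |c 4| + |c 9|) := by
      refine (ab1 hγ).trans ((ab1 (ha 1)).trans ?_)
      have b1 := abs_sub (c 5 ^ 2 + c 6 ^ 2) (2 * (a 0 * (c 5 * c 3 + c 6 * c 4 - c 9)))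
      have b2 := abs_add_le (c 5 ^ 2) (c 6 ^ 2)
      have b3 : |2 * (a 0 * (c 5 * c 3 + c 6 * c 4 - c 9))| ≤ 2 * (|c 3| + |c 4| + |c 9|) := by
        rw [abs_mul, abs_two]
        refine mul_le_mul_of_nonneg_left ?_ two_pos.le
        refine (ab1 (ha 0)).trans ?_
        have b1 := abs_sub (c 5 * c 3 + c 6 * c 4) (c 9)
        have b2 := abs_add_le (c 5 * c 3) (c 6 * c 4)
        linarith
      linarith
    have b1 := abs_sub (-(a 7 * (c 5 - a 0 * c 3)) - a 8 * (c 6 - a 0 * c 4) -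
          a 2 * (c 9 - a 0 * ((c 3 ^ 2 + c 4 ^ 2) / 2)))
      (γ * (a 1 * (c 5 ^ 2 + c 6 ^ 2 - 2 * (a 0 * (c 5 * c 3 + c 6 * c 4 - c 9)))))
    have b2 := abs_sub (-(a 7 * (c 5 - a 0 * c 3)) - a 8 * (c 6 - a 0 * c 4))
      (a 2 * (c 9 - a 0 * ((c 3 ^ 2 + c 4 ^ 2) / 2)))
    have b3 := abs_sub (-(a 7 * (c 5 - a 0 * c 3))) (a 8 * (c 6 - a 0 * c 4))
    unfold m5
    have n3 := abs_nonneg (c 3)
    have n4 := abs_nonneg (c 4)
    have n5 := abs_nonneg (c 5)
    have n6 := abs_nonneg (c 6)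
    have n9 := abs_nonneg (c 9)
    linarith

theorem compOk_comp : CompOk comp :=
  compOk_of (γ := 1) (by simp) (fun a c s hs => by
    congr 1
    funext j
    split_ifs <;> simp)

/-! ### the law on 926's configurations -/

section reg

variable {ι : ℕ → Type*} [∀ n, DecidableEq (ι n)] {W : Wnd 12 ι} {E : ∀ n, Finset (ι n)} {n : ℕ}
  {K tp : ℝ}

/-- **the law** -/
theorem law_of_reg (r : Reg W E n) (h : WL W K tp) (hc : CompOk (compW W n)) (htp : 0 ≤ tp) :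
    Law (W.cfg E n) 200 (W.B'.d n ^ tp) := by
  set G := W.cfg E n with hG
  set e := W.B'.d n ^ tp with he
  have he0 : 0 ≤ e := h.r0 n
  have he1 : e ≤ 1 := Real.rpow_le_one (W.B'.pos n).le (W.B'.lt n).le htp
  have nS : ∀ s : Fin 12, s ∉ SL → s ∉ W.S := fun s hs => h.notS hs
  have m3 : (3 : Fin 12) ∉ SL := by decide
  have m4 : (4 : Fin 12) ∉ SL := by decide
  have m5' : (5 : Fin 12) ∉ SL := by decide
  have m6 : (6 : Fin 12) ∉ SL := by decide
  have m9 : (9 : Fin 12) ∉ SL := by decide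
  have m10 : (10 : Fin 12) ∉ SL := by decide
  have m11 : (11 : Fin 12) ∉ SL := by decide
  have rel0 : ∀ k i l, G.rel k i l 0 = 0 := fun k i l => r.rel_S h.z0
  have bd : ∀ k i l, (i, k) ∈ G.I → (l, k) ∈ G.I → ∀ s, |G.rel k i l s| ≤ 1 :=
    fun k i l hi hl s => r.rel_le h hi hl s
  have coc : ∀ k i j l, (i, k) ∈ G.I → (j, k) ∈ G.I → (l, k) ∈ G.I → ∀ s : Fin 12, s ∉ SL →
      |G.rel k i l s - compW W n (G.rel k i j) (G.rel k j l) s| ≤ 48 * e :=
    fun k i j l hi hj hl s hs => r.coc h hi hj hl (nS s hs)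
  -- evolution
  have ev : ∀ k k' i l, (i, k) ∈ G.I → (l, k) ∈ G.I → (i, k') ∈ G.I → (l, k') ∈ G.I →
      ∃ a c : Fin 12 → ℝ, (∀ s, |a s| ≤ 1) ∧ (∀ s, |c s| ≤ 1) ∧
        |a 0 - (G.z k - G.z k')| ≤ 2 * e ∧ (∀ s, s ∉ SL → a s = 0) ∧
        (∀ s, s ∉ SL → c s = G.rel k i l s) ∧
        ∀ s, s ∉ SL → |G.rel k' i l s - compW W n a c s| ≤ 96 * e := by
    intro k k' i l hi hl hi' hl'
    refine ⟨LvS SL (own W n i k' k), LnS SL (G.rel k i l), ?_, ?_, ?_, ?_, ?_, ?_⟩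
    · intro s
      unfold LvS
      split_ifs
      · exact r.own_le h hi hi' s
      · simp
    · intro s
      unfold LnS
      split_ifs
      · simp
      · exact bd k i l hi hl s
    · have : LvS SL (own W n i k' k) 0 = own W n i k' k 0 := by
        unfold LvS
        rw [if_pos (by decide)]
      rw [this]
      exact r.own_z h hi hi'
    · intro s hs
      unfold LvS
      rw [if_neg hs]
    · intro s hs
      unfold LnS
      rw [if_neg hs]
    · intro s hs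
      exact r.evoSL h hi hl hi' hl' hs
  have e200 : ∀ t : ℝ, t ≤ 200 * e → t ≤ 200 * e := fun t ht => ht
  refine ⟨by norm_num, he0, fun k i l hi hl s => (bd k i l hi hl s).trans (by norm_num), ?_,
    ?_, ?_, ?_, ?_, ?_, ?_, ?_, ?_⟩
  · intro k hk k' hk'
    have hz : ∀ k ∈ G.Z, |G.z k| ≤ 1 := by
      intro k hk
      rw [hG, r.cfg_eq] at hk
      obtain ⟨x, hx, rfl⟩ := Finset.mem_image.1 (show k ∈ (E n).image (W.zc n) from hk)
      rw [hG, r.z_eq]
      exact h.crd_le r.good r.good.s0 (W.zrep_spec (r.sub hx)).1 _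
    have h1 := hz k hk
    have h2 := hz k' hk'
    refine (abs_sub _ _).trans ?_
    linarith
  · -- add
    intro k i j l hi hj hl s hs
    obtain ⟨c3, c4, c5, c6⟩ := hc.lin (G.rel k i j) (G.rel k j l)
    have r0 := rel0 k i j
    rcases hs with rfl | rfl | rfl | rfl
    · have := coc k i j l hi hj hl 3 m3
      rw [c3] at this
      have e1 : G.rel k i l 3 - G.rel k i j 3 - G.rel k j l 3 =
        G.rel k i l 3 - (G.rel k i j 3 + G.rel k j l 3) := by ring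
      rw [e1]; linarith
    · have := coc k i j l hi hj hl 4 m4
      rw [c4] at this
      have e1 : G.rel k i l 4 - G.rel k i j 4 - G.rel k j l 4 =
        G.rel k i l 4 - (G.rel k i j 4 + G.rel k j l 4) := by ring
      rw [e1]; linarith
    · have := coc k i j l hi hj hl 5 m5'
      rw [c5, r0] at this
      have e1 : G.rel k i l 5 - G.rel k i j 5 - G.rel k j l 5 =
        G.rel k i l 5 - (G.rel k i j 5 + G.rel k j l 5 - 0 * G.rel k j l 3) := by ring
      rw [e1]; linarith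
    · have := coc k i j l hi hj hl 6 m6
      rw [c6, r0] at this
      have e1 : G.rel k i l 6 - G.rel k i j 6 - G.rel k j l 6 =
        G.rel k i l 6 - (G.rel k i j 6 + G.rel k j l 6 - 0 * G.rel k j l 4) := by ring
      rw [e1]; linarith
  · -- add9
    intro k i j l hi hj hl
    have := coc k i j l hi hj hl 9 m9
    rw [hc.h9, rel0 k i j] at this
    have e1 : G.rel k i l 9 - G.rel k i j 9 - G.rel k j l 9 -
        (G.rel k i j 3 * G.rel k j l 5 + G.rel k i j 4 * G.rel k j l 6) =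
        G.rel k i l 9 - (G.rel k i j 9 + G.rel k j l 9 -
          0 * ((G.rel k j l 3 ^ 2 + G.rel k j l 4 ^ 2) / 2) +
          G.rel k i j 3 * (G.rel k j l 5 - 0 * G.rel k j l 3) +
          G.rel k i j 4 * (G.rel k j l 6 - 0 * G.rel k j l 4)) := by ring
    rw [e1]; linarith
  · -- addP
    intro k i j l hi hj hl s hs
    have hm := m5_nonneg (G.rel k j l)
    rcases hs with rfl | rfl
    · have h1 := coc k i j l hi hj hl 10 m10
      have h2 := hc.h10 (G.rel k i j) (G.rel k j l) (bd k i j hi hj) (bd k j l hj hl)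
      have e1 : G.rel k i l 10 - G.rel k i j 10 - G.rel k j l 10 =
          (G.rel k i l 10 - compW W n (G.rel k i j) (G.rel k j l) 10) +
          (compW W n (G.rel k i j) (G.rel k j l) 10 - (G.rel k i j 10 + G.rel k j l 10)) := by ring
      rw [e1]
      refine (abs_add_le _ _).trans ?_
      linarith
    · have h1 := coc k i j l hi hj hl 11 m11
      have h2 := hc.h11 (G.rel k i j) (G.rel k j l) (bd k i j hi hj) (bd k j l hj hl)
      rw [rel0 k i j, zero_mul, sub_zero] at h2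
      have e1 : G.rel k i l 11 - G.rel k i j 11 - G.rel k j l 11 =
          (G.rel k i l 11 - compW W n (G.rel k i j) (G.rel k j l) 11) +
          (compW W n (G.rel k i j) (G.rel k j l) 11 - (G.rel k i j 11 + G.rel k j l 11)) := by ring
      rw [e1]
      refine (abs_add_le _ _).trans ?_
      linarith
  · -- evC
    intro k k' i l hi hl hi' hl' s hs
    obtain ⟨a, c, ha, hcc, h0, ha0, hcr, hev⟩ := ev k k' i l hi hl hi' hl'
    obtain ⟨c3, c4, c5, c6⟩ := hc.lin a c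
    rcases hs with rfl | rfl
    · have := hev 3 m3
      rw [c3, ha0 3 m3, hcr 3 m3, zero_add] at this
      linarith
    · have := hev 4 m4
      rw [c4, ha0 4 m4, hcr 4 m4, zero_add] at this
      linarith
  · -- evX
    intro k k' i l hi hl hi' hl'
    obtain ⟨a, c, ha, hcc, h0, ha0, hcr, hev⟩ := ev k k' i l hi hl hi' hl'
    obtain ⟨c3, c4, c5, c6⟩ := hc.lin a c
    have b3 := bd k i l hi hl 3
    have b4 := bd k i l hi hl 4
    constructor
    · have h1 := hev 5 m5'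
      rw [c5, ha0 5 m5', hcr 5 m5', hcr 3 m3, zero_add] at h1
      have h2 : |(a 0 - (G.z k - G.z k')) * G.rel k i l 3| ≤ 2 * e := by
        rw [abs_mul]
        calc |a 0 - (G.z k - G.z k')| * |G.rel k i l 3| ≤ 2 * e * 1 :=
              mul_le_mul h0 b3 (abs_nonneg _) (by linarith)
          _ = 2 * e := by ring
      have e1 : G.rel k' i l 5 - (G.rel k i l 5 - (G.z k - G.z k') * G.rel k i l 3) =
          (G.rel k' i l 5 - (G.rel k i l 5 - a 0 * G.rel k i l 3)) -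
          (a 0 - (G.z k - G.z k')) * G.rel k i l 3 := by ring
      rw [e1]
      refine (abs_sub _ _).trans ?_
      linarith
    · have h1 := hev 6 m6
      rw [c6, ha0 6 m6, hcr 6 m6, hcr 4 m4, zero_add] at h1
      have h2 : |(a 0 - (G.z k - G.z k')) * G.rel k i l 4| ≤ 2 * e := by
        rw [abs_mul]
        calc |a 0 - (G.z k - G.z k')| * |G.rel k i l 4| ≤ 2 * e * 1 :=
              mul_le_mul h0 b4 (abs_nonneg _) (by linarith)
          _ = 2 * e := by ring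
      have e1 : G.rel k' i l 6 - (G.rel k i l 6 - (G.z k - G.z k') * G.rel k i l 4) =
          (G.rel k' i l 6 - (G.rel k i l 6 - a 0 * G.rel k i l 4)) -
          (a 0 - (G.z k - G.z k')) * G.rel k i l 4 := by ring
      rw [e1]
      refine (abs_sub _ _).trans ?_
      linarith
  · -- ev9
    intro k k' i l hi hl hi' hl'
    obtain ⟨a, c, ha, hcc, h0, ha0, hcr, hev⟩ := ev k k' i l hi hl hi' hl'
    have h1 := hev 9 m9
    rw [hc.h9, ha0 9 m9, ha0 3 m3, ha0 4 m4, hcr 9 m9, hcr 3 m3, hcr 4 m4] at h1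
    have b3 := bd k i l hi hl 3
    have b4 := bd k i l hi hl 4
    have g3 : |G.rel k i l 3 ^ 2| ≤ |G.rel k i l 3| := by rw [pow_two]; exact ab1 b3
    have g4 : |G.rel k i l 4 ^ 2| ≤ |G.rel k i l 4| := by rw [pow_two]; exact ab1 b4
    have h2 : |a 0 * ((G.rel k i l 3 ^ 2 + G.rel k i l 4 ^ 2) / 2)| ≤
        |G.rel k i l 3| + |G.rel k i l 4| := by
      refine (ab1 (ha 0)).trans ?_
      rw [abs_div, abs_two]
      have := abs_add_le (G.rel k i l 3 ^ 2) (G.rel k i l 4 ^ 2)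
      have := abs_nonneg (G.rel k i l 3)
      have := abs_nonneg (G.rel k i l 4)
      linarith
    have e1 : G.rel k' i l 9 - G.rel k i l 9 =
        (G.rel k' i l 9 - (0 + G.rel k i l 9 -
          a 0 * ((G.rel k i l 3 ^ 2 + G.rel k i l 4 ^ 2) / 2) +
          0 * (c 5 - a 0 * G.rel k i l 3) + 0 * (c 6 - a 0 * G.rel k i l 4))) -
        a 0 * ((G.rel k i l 3 ^ 2 + G.rel k i l 4 ^ 2) / 2) := by ring
    rw [e1]
    refine (abs_sub _ _).trans ?_
    unfold m5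
    have n3 := abs_nonneg (G.rel k i l 3)
    have n4 := abs_nonneg (G.rel k i l 4)
    have n5 := abs_nonneg (G.rel k i l 5)
    have n6 := abs_nonneg (G.rel k i l 6)
    have n9 := abs_nonneg (G.rel k i l 9)
    linarith
  · -- ev10
    intro k k' i l hi hl hi' hl'
    obtain ⟨a, c, ha, hcc, h0, ha0, hcr, hev⟩ := ev k k' i l hi hl hi' hl'
    have h1 := hev 10 m10
    have h2 := hc.h10 a c ha hcc
    rw [ha0 10 m10, hcr 10 m10, zero_add] at h2
    have hm : m5 c = m5 (G.rel k i l) := by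
      unfold m5
      rw [hcr 3 m3, hcr 4 m4, hcr 5 m5', hcr 6 m6, hcr 9 m9]
    rw [hm] at h2
    have hm0 := m5_nonneg (G.rel k i l)
    have e1 : G.rel k' i l 10 - G.rel k i l 10 = (G.rel k' i l 10 - compW W n a c 10) +
      (compW W n a c 10 - G.rel k i l 10) := by ring
    rw [e1]
    refine (abs_add_le _ _).trans ?_
    linarith
  · -- ev11
    intro k k' i l hi hl hi' hl'
    obtain ⟨a, c, ha, hcc, h0, ha0, hcr, hev⟩ := ev k k' i l hi hl hi' hl'
    have h1 := hev 11 m11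
    have h2 := hc.h11 a c ha hcc
    rw [ha0 11 m11, hcr 11 m11, hcr 10 m10, zero_add] at h2
    have hm : m5 c = m5 (G.rel k i l) := by
      unfold m5
      rw [hcr 3 m3, hcr 4 m4, hcr 5 m5', hcr 6 m6, hcr 9 m9]
    rw [hm] at h2
    have hm0 := m5_nonneg (G.rel k i l)
    have b10 := bd k i l hi hl 10
    have h3 : |(a 0 - (G.z k - G.z k')) * G.rel k i l 10| ≤ 2 * e := by
      rw [abs_mul]
      calc |a 0 - (G.z k - G.z k')| * |G.rel k i l 10| ≤ 2 * e * 1 :=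
            mul_le_mul h0 b10 (abs_nonneg _) (by linarith)
        _ = 2 * e := by ring
    have e1 : G.rel k' i l 11 - (G.rel k i l 11 - (G.z k - G.z k') * G.rel k i l 10) =
        (G.rel k' i l 11 - compW W n a c 11) +
        (compW W n a c 11 - (G.rel k i l 11 - a 0 * G.rel k i l 10)) -
        (a 0 - (G.z k - G.z k')) * G.rel k i l 10 := by ring
    rw [e1]
    have b1 := abs_sub ((G.rel k' i l 11 - compW W n a c 11) +
        (compW W n a c 11 - (G.rel k i l 11 - a 0 * G.rel k i l 10)))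
        ((a 0 - (G.z k - G.z k')) * G.rel k i l 10)
    have b2 := abs_add_le (G.rel k' i l 11 - compW W n a c 11)
      (compW W n a c 11 - (G.rel k i l 11 - a 0 * G.rel k i l 10))
    linarith

/-- **the law at a natural base point** -/
theorem law_nat (r : Reg W E n) (h : WL W K tp) (htp : 0 ≤ tp) {z c p : ℝ}
    (hX : W.X n = eL z c p) : Law (W.cfg E n) 200 (W.B'.d n ^ tp) :=
  law_of_reg r h (by
    have e : compW W n = comp := by
      funext a b
      exact h.compW_nat hX a b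
    rw [e]
    exact compOk_comp) htp

/-- thinness from the reference incidence: `s₀`-form of 954's literal -/
theorem thin_of_s0 (r : Reg W E n) (h : WL W K tp) (hc : CompOk (compW W n)) {b1 b2 e : ℝ}
    (hb : b1 ^ 2 + b2 ^ 2 = 1) (he : 0 ≤ e)
    (h3 : ∀ y ∈ W.Cl n, |b1 * W.crd n (W.s₀ n) y 3 + b2 * W.crd n (W.s₀ n) y 4| ≤ e)
    (h5 : ∀ y ∈ W.Cl n, |b1 * W.crd n (W.s₀ n) y 5 + b2 * W.crd n (W.s₀ n) y 6| ≤ e) :
    Thin2 (W.cfg E n) 4 e b1 b2 := by
  have key : ∀ x ∈ W.Cl n, ∀ y ∈ W.Cl n,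
      |b1 * W.crd n x y 3 + b2 * W.crd n x y 4| ≤ 2 * e ∧
      |b1 * W.crd n x y 5 + b2 * W.crd n x y 6| ≤ 4 * e := by
    intro x hx y hy
    have a3 := h.crd_add (n := n) (W.s₀ n) x y 3
    have a4 := h.crd_add (n := n) (W.s₀ n) x y 4
    have a5 := h.crd_add (n := n) (W.s₀ n) x y 5
    have a6 := h.crd_add (n := n) (W.s₀ n) x y 6
    obtain ⟨c3, c4, c5, c6⟩ := hc.lin (W.crd n (W.s₀ n) x) (W.crd n x y)
    rw [c3] at a3
    rw [c4] at a4
    rw [c5] at a5
    rw [c6] at a6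
    have hz := h.crd_le r.good r.good.s0 hx 0
    have e1 : b1 * W.crd n x y 3 + b2 * W.crd n x y 4 =
        (b1 * W.crd n (W.s₀ n) y 3 + b2 * W.crd n (W.s₀ n) y 4) -
        (b1 * W.crd n (W.s₀ n) x 3 + b2 * W.crd n (W.s₀ n) x 4) := by
      rw [a3, a4]; ring
    have g1 : |b1 * W.crd n x y 3 + b2 * W.crd n x y 4| ≤ 2 * e := by
      rw [e1]
      refine (abs_sub _ _).trans ?_
      have := h3 y hy
      have := h3 x hx
      linarith
    refine ⟨g1, ?_⟩
    have e2 : b1 * W.crd n x y 5 + b2 * W.crd n x y 6 =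
        (b1 * W.crd n (W.s₀ n) y 5 + b2 * W.crd n (W.s₀ n) y 6) -
        (b1 * W.crd n (W.s₀ n) x 5 + b2 * W.crd n (W.s₀ n) x 6) +
        W.crd n (W.s₀ n) x 0 * (b1 * W.crd n x y 3 + b2 * W.crd n x y 4) := by
      rw [a5, a6]; ring
    rw [e2]
    have g2 : |W.crd n (W.s₀ n) x 0 * (b1 * W.crd n x y 3 + b2 * W.crd n x y 4)| ≤ 2 * e :=
      (ab1 hz).trans g1
    have g3 := abs_add_le ((b1 * W.crd n (W.s₀ n) y 5 + b2 * W.crd n (W.s₀ n) y 6) -
        (b1 * W.crd n (W.s₀ n) x 5 + b2 * W.crd n (W.s₀ n) x 6))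
        (W.crd n (W.s₀ n) x 0 * (b1 * W.crd n x y 3 + b2 * W.crd n x y 4))
    have g4 := abs_sub (b1 * W.crd n (W.s₀ n) y 5 + b2 * W.crd n (W.s₀ n) y 6)
        (b1 * W.crd n (W.s₀ n) x 5 + b2 * W.crd n (W.s₀ n) x 6)
    have := h5 y hy
    have := h5 x hx
    linarith
  refine ⟨hb, fun k i l hi hl => ?_, fun k i l hi hl => ?_⟩
  · rw [r.rel_of (h.notS (by decide)), r.rel_of (h.notS (by decide))]
    have := (key _ (r.spec hi).1 _ (r.spec hl).1).1
    linarith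
  · rw [r.rel_of (h.notS (by decide)), r.rel_of (h.notS (by decide))]
    exact (key _ (r.spec hi).1 _ (r.spec hl).1).2

end reg

end Crest.Agent.R116.Hk538
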