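import Crest.Agent.R116.Hk1_538
import Crest.Agent.R116.Kr5_710

/-!
# R116, K side, [II3] (helper538), part 2: the facts (H1), (H1')

`facts_H` : for the merged configurations with linear profile on the boxes `(t1, t2, t3, 0, 0)`
(rates `rC, rX, rH`):  `rX ≤ 1`,  `0 < rC → rX ≤ rH`,  `1 - rX < rC → 1 ≤ rH`.
-/

set_option autoImplicit false
set_option linter.unusedVariables false
set_option linter.unusedSectionVars false

open Filter Topology Finset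

namespace Crest.Agent.R116.Hk538

open Crest.Agent.R138.Ex926 (Base U)
open Crest.Agent.R136.Gf356 Crest.Agent.R116.Kr710

/-- component along `τ = (-b2, b1)` -/
def tau (b1 b2 u v : ℝ) : ℝ := -(b2 * u) + b1 * v

section vec

variable {b1 b2 : ℝ}

theorem abs_le_one_of_unit (hb : b1 ^ 2 + b2 ^ 2 = 1) : |b1| ≤ 1 ∧ |b2| ≤ 1 := by
  constructor
  · rw [← sq_le_one_iff_abs_le_one]; nlinarith [sq_nonneg b2]
  · rw [← sq_le_one_iff_abs_le_one]; nlinarith [sq_nonneg b1]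

theorem vec_le (hb : b1 ^ 2 + b2 ^ 2 = 1) {u v t : ℝ} (h : |b1 * u + b2 * v| ≤ t) :
    |u| ≤ |tau b1 b2 u v| + t ∧ |v| ≤ |tau b1 b2 u v| + t := by
  obtain ⟨h1, h2⟩ := abs_le_one_of_unit hb
  have e1 : u = b1 * (b1 * u + b2 * v) - b2 * tau b1 b2 u v := by
    unfold tau
    linear_combination (-u) * hb
  have e2 : v = b2 * (b1 * u + b2 * v) + b1 * tau b1 b2 u v := by
    unfold tau
    linear_combination (-v) * hb
  constructor
  · calc |u| = |b1 * (b1 * u + b2 * v) - b2 * tau b1 b2 u v| := by rw [← e1]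
      _ ≤ |b1 * (b1 * u + b2 * v)| + |b2 * tau b1 b2 u v| := abs_sub _ _
      _ ≤ |b1 * u + b2 * v| + |tau b1 b2 u v| := add_le_add (ab1 h1) (ab1 h2)
      _ ≤ _ := by linarith
  · calc |v| = |b2 * (b1 * u + b2 * v) + b1 * tau b1 b2 u v| := by rw [← e2]
      _ ≤ |b2 * (b1 * u + b2 * v)| + |b1 * tau b1 b2 u v| := abs_add_le _ _
      _ ≤ |b1 * u + b2 * v| + |tau b1 b2 u v| := add_le_add (ab1 h2) (ab1 h1)
      _ ≤ _ := by linarith

theorem tau_le (hb : b1 ^ 2 + b2 ^ 2 = 1) (u v : ℝ) : |tau b1 b2 u v| ≤ |u| + |v| := by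
  obtain ⟨h1, h2⟩ := abs_le_one_of_unit hb
  unfold tau
  refine (abs_add_le _ _).trans ?_
  rw [abs_neg]
  exact add_le_add (ab1 h2) (ab1 h1)

theorem tau_sub (u v u' v' : ℝ) :
    tau b1 b2 u v - tau b1 b2 u' v' = tau b1 b2 (u - u') (v - v') := by
  unfold tau; ring

theorem dot_eq (hb : b1 ^ 2 + b2 ^ 2 = 1) (u v u' v' : ℝ) :
    u * u' + v * v' = (b1 * u + b2 * v) * (b1 * u' + b2 * v') +
      tau b1 b2 u v * tau b1 b2 u' v' := by
  unfold tau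
  linear_combination (-(u * u') - v * v') * hb

end vec

/-- **one configuration**: the comparison of the merged slots with `c, x, h` -/
theorem Law.slab {G : RCfg (Fin 12)} {K e b1 b2 : ℝ} (L : Law G K e) (he1 : e ≤ 1)
    (T : Thin2 G K e b1 b2) {k i l l' : ℕ} (hi : (i, k) ∈ G.I) (hl : (l, k) ∈ G.I)
    (hl' : (l', k) ∈ G.I) :
    let c := fun l => tau b1 b2 (G.rel k i l 3) (G.rel k i l 4)
    let x := fun l => tau b1 b2 (G.rel k i l 5) (G.rel k i l 6)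
    let h := fun l => G.rel k i l 9
    |c l| ≤ 2 * K ∧ |x l| ≤ 2 * K ∧
      |max (|G.rel k l l' 3|) (|G.rel k l l' 4|)| ≤ |c l' - c l| + 3 * (K * e) ∧
      |c l' - c l| ≤ 2 * |max (|G.rel k l l' 3|) (|G.rel k l l' 4|)| + 2 * (K * e) ∧
      |max (|G.rel k l l' 5|) (|G.rel k l l' 6|)| ≤ |x l' - x l| + 3 * (K * e) ∧
      |x l' - x l| ≤ 2 * |max (|G.rel k l l' 5|) (|G.rel k l l' 6|)| + 2 * (K * e) ∧
      |G.rel k l l' 9 - ((h l' - h l) - c l * (x l' - x l))| ≤ 7 * (K ^ 2 * e) := by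
  intro c x h
  have hK := L.K1
  have hK0 : 0 ≤ K := by linarith
  have he := L.e0
  have hKe : 0 ≤ K * e := mul_nonneg hK0 he
  have hb := T.unit
  have a3 := L.add k i l l' hi hl hl' 3 (by decide)
  have a4 := L.add k i l l' hi hl hl' 4 (by decide)
  have a5 := L.add k i l l' hi hl hl' 5 (by decide)
  have a6 := L.add k i l l' hi hl hl' 6 (by decide)
  have a9 := L.add9 k i l l' hi hl hl'
  have b3 := L.bd k i l hi hl 3
  have b4 := L.bd k i l hi hl 4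
  have b5 := L.bd k i l hi hl 5
  have b6 := L.bd k i l hi hl 6
  have tc := T.c k l l' hl hl'
  have tx := T.x k l l' hl hl'
  have tc0 := T.c k i l hi hl
  -- general comparison
  have gen : ∀ u u' v v' p q : ℝ, |u' - u - p| ≤ K * e → |v' - v - q| ≤ K * e →
      |b1 * p + b2 * q| ≤ K * e →
      |max (|p|) (|q|)| ≤ |tau b1 b2 u' v' - tau b1 b2 u v| + 3 * (K * e) ∧
      |tau b1 b2 u' v' - tau b1 b2 u v| ≤ 2 * |max (|p|) (|q|)| + 2 * (K * e) ∧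
      |tau b1 b2 p q - (tau b1 b2 u' v' - tau b1 b2 u v)| ≤ 2 * (K * e) := by
    intro u u' v v' p q h1 h2 h3
    have hm0 : 0 ≤ max |p| |q| := (abs_nonneg p).trans (le_max_left _ _)
    have e0 : tau b1 b2 p q - (tau b1 b2 u' v' - tau b1 b2 u v) =
        -tau b1 b2 (u' - u - p) (v' - v - q) := by
      unfold tau; ring
    have h4 : |tau b1 b2 p q - (tau b1 b2 u' v' - tau b1 b2 u v)| ≤ 2 * (K * e) := by
      rw [e0, abs_neg]
      refine (tau_le hb _ _).trans ?_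
      linarith
    obtain ⟨g1, g2⟩ := vec_le hb h3
    have h5 : |tau b1 b2 p q| ≤ |tau b1 b2 u' v' - tau b1 b2 u v| + 2 * (K * e) := by
      have := abs_sub_abs_le_abs_sub (tau b1 b2 p q) (tau b1 b2 u' v' - tau b1 b2 u v)
      linarith
    have h6 : |tau b1 b2 u' v' - tau b1 b2 u v| ≤ |tau b1 b2 p q| + 2 * (K * e) := by
      have := abs_sub_abs_le_abs_sub (tau b1 b2 u' v' - tau b1 b2 u v) (tau b1 b2 p q)
      have h4' := h4
      rw [abs_sub_comm (tau b1 b2 p q)] at h4'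
      linarith
    have h7 := tau_le hb p q
    refine ⟨?_, ?_, h4⟩
    · rw [abs_of_nonneg hm0]
      refine max_le ?_ ?_ <;> linarith
    · rw [abs_of_nonneg hm0]
      have := le_max_left |p| |q|
      have := le_max_right |p| |q|
      linarith
  obtain ⟨c1, c2, c3⟩ := gen (G.rel k i l 3) (G.rel k i l' 3) (G.rel k i l 4) (G.rel k i l' 4)
    (G.rel k l l' 3) (G.rel k l l' 4) a3 a4 tc
  obtain ⟨x1, x2, x3⟩ := gen (G.rel k i l 5) (G.rel k i l' 5) (G.rel k i l 6) (G.rel k i l' 6)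
    (G.rel k l l' 5) (G.rel k l l' 6) a5 a6 tx
  have hc : |c l| ≤ 2 * K := (tau_le hb _ _).trans (by linarith)
  have hx : |x l| ≤ 2 * K := (tau_le hb _ _).trans (by linarith)
  refine ⟨hc, hx, c1, c2, x1, x2, ?_⟩
  have d1 := dot_eq hb (G.rel k i l 3) (G.rel k i l 4) (G.rel k l l' 5) (G.rel k l l' 6)
  have e1 : G.rel k l l' 9 - ((h l' - h l) - c l * (x l' - x l)) =
      -(G.rel k i l' 9 - G.rel k i l 9 - G.rel k l l' 9 -
        (G.rel k i l 3 * G.rel k l l' 5 + G.rel k i l 4 * G.rel k l l' 6)) -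
      (b1 * G.rel k i l 3 + b2 * G.rel k i l 4) * (b1 * G.rel k l l' 5 + b2 * G.rel k l l' 6) -
      c l * (tau b1 b2 (G.rel k l l' 5) (G.rel k l l' 6) - (x l' - x l)) := by
    rw [d1]
    show _ = _
    simp only [c, x, h]
    ring
  rw [e1]
  have f1 : |(b1 * G.rel k i l 3 + b2 * G.rel k i l 4) *
      (b1 * G.rel k l l' 5 + b2 * G.rel k l l' 6)| ≤ K * (K * e) := by
    rw [abs_mul]
    refine mul_le_mul (tc0.trans ?_) tx (abs_nonneg _) hK0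
    calc K * e ≤ K * 1 := mul_le_mul_of_nonneg_left he1 hK0
      _ = K := mul_one K
  have f2 : |c l * (tau b1 b2 (G.rel k l l' 5) (G.rel k l l' 6) - (x l' - x l))| ≤
      2 * K * (2 * (K * e)) := by
    rw [abs_mul]
    exact mul_le_mul hc x3 (abs_nonneg _) (by linarith)
  have g1 := abs_sub (-(G.rel k i l' 9 - G.rel k i l 9 - G.rel k l l' 9 -
        (G.rel k i l 3 * G.rel k l l' 5 + G.rel k i l 4 * G.rel k l l' 6)) -
      (b1 * G.rel k i l 3 + b2 * G.rel k i l 4) * (b1 * G.rel k l l' 5 + b2 * G.rel k l l' 6))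
    (c l * (tau b1 b2 (G.rel k l l' 5) (G.rel k l l' 6) - (x l' - x l)))
  have g2 := abs_sub (-(G.rel k i l' 9 - G.rel k i l 9 - G.rel k l l' 9 -
        (G.rel k i l 3 * G.rel k l l' 5 + G.rel k i l 4 * G.rel k l l' 6)))
    ((b1 * G.rel k i l 3 + b2 * G.rel k i l 4) * (b1 * G.rel k l l' 5 + b2 * G.rel k l l' 6))
  rw [abs_neg] at g2
  have g3 : K * e ≤ K ^ 2 * e := by
    rw [pow_two, mul_assoc]
    nlinarith
  have g4 : K * (K * e) = K ^ 2 * e := by ring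
  have g5 : 2 * K * (2 * (K * e)) = 4 * (K ^ 2 * e) := by ring
  rw [g4] at f1
  rw [g5] at f2
  have : 0 ≤ K ^ 2 * e := by positivity
  linarith

section seq

variable {B : Base} {G : ℕ → RCfg (Fin 12)} {K x : ℝ} {b1 b2 : ℕ → ℝ}
  {Leg : Set (Fin 5 → ℝ)} {ν : (Fin 5 → ℝ) → ℝ} {D : ℝ}

/-- the slot functions seen from the pin -/
noncomputable def cF (G : ℕ → RCfg (Fin 12)) (b1 b2 : ℕ → ℝ) (i0 k0 : ℕ → ℕ) (n l : ℕ) : ℝ :=
  tau (b1 n) (b2 n) ((G n).rel (k0 n) (i0 n) l 3) ((G n).rel (k0 n) (i0 n) l 4)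

noncomputable def xF (G : ℕ → RCfg (Fin 12)) (b1 b2 : ℕ → ℝ) (i0 k0 : ℕ → ℕ) (n l : ℕ) : ℝ :=
  tau (b1 n) (b2 n) ((G n).rel (k0 n) (i0 n) l 5) ((G n).rel (k0 n) (i0 n) l 6)

noncomputable def hF (G : ℕ → RCfg (Fin 12)) (i0 k0 : ℕ → ℕ) (n l : ℕ) : ℝ :=
  (G n).rel (k0 n) (i0 n) l 9

theorem mem_slice_mrg (H : RUnif B (fun n => mrg (G n)) Leg ν D) {n k l : ℕ}
    {p : Fin 5 → ℝ} {ε : ℝ} {i : ℕ} (h : l ∈ (mrg (G n)).box p ε i k) : (l, k) ∈ (G n).I :=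
  (RCfg.mem_slice.1 (RCfg.box_subset_slice h)).2

/-- **the one-slice data** -/
theorem slabH (H : RUnif B (fun n => mrg (G n)) Leg ν D) (i0 k0 : ℕ → ℕ)
    (h0 : ∀ᶠ n in (U : Filter ℕ), (i0 n, k0 n) ∈ (G n).I) {y : ℝ} (hy : 0 < y) (hyx : y ≤ x)
    (hL : ∀ᶠ n in (U : Filter ℕ), Law (G n) K (B.d n ^ x))
    (hT : ∀ᶠ n in (U : Filter ℕ), Thin2 (G n) K (B.d n ^ x) (b1 n) (b2 n)) :
    SlabH B (fun n => mrg (G n)) i0 k0 (0 : Fin 5 → ℝ) 0 1 2 (cF G b1 b2 i0 k0)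
      (xF G b1 b2 i0 k0) (hF G i0 k0) y where
  ne1 := by decide
  ne2 := by decide
  ne3 := by decide
  co := by
    intro C0 hC0
    refine ⟨1, one_pos, fun ε hε => ?_⟩
    filter_upwards [h0, hL, hT, ev_const_le B hε (7 * K ^ 2), ev_const_le B hε (3 * K)] with
      n h0n hLn hTn hK7 hK3 l hl
    have hpow : ∀ t : ℝ, 0 < B.d n ^ t := fun t => rpos B n t
    have hK1 := hLn.K1
    have he1 : B.d n ^ x ≤ 1 := Real.rpow_le_one (B.pos n).le (B.lt n).le (by linarith)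
    have hxy : B.d n ^ x ≤ B.d n ^ y := rpow_anti B n hyx
    have hI := mem_slice_mrg H hl
    have hy0 := hpow y
    have hx0 := hpow x
    obtain ⟨s1, s2, -⟩ := hLn.slab he1 hTn h0n hI hI
    have hq : B.d n ^ (-(1 * ε)) = B.d n ^ (-ε) := by rw [one_mul]
    have h3 : 3 * K ≤ B.d n ^ (-(1 * ε)) := by rw [hq]; exact hK3
    have h7 : 7 * K ^ 2 ≤ B.d n ^ (-(1 * ε)) := by rw [hq]; exact hK7
    have h2K : 2 * K ≤ B.d n ^ (-(1 * ε)) := by linarith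
    refine ⟨s1.trans h2K, s2.trans h2K, fun l' hl' => ?_⟩
    have hI' := mem_slice_mrg H hl'
    obtain ⟨-, -, c1, c2, x1, x2, h1⟩ := hLn.slab he1 hTn h0n hI hI'
    have z0 : (0 : Fin 5 → ℝ) 0 - 1 * ε = -(1 * ε) := by simp
    have z1 : (0 : Fin 5 → ℝ) 1 - 1 * ε = -(1 * ε) := by simp
    have z2 : B.d n ^ (-(0 : Fin 5 → ℝ) 0) = 1 := by simp
    have z3 : B.d n ^ (-(0 : Fin 5 → ℝ) 1) = 1 := by simp
    have z4 : B.d n ^ (-(0 : Fin 5 → ℝ) 2) = 1 := by simp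
    have m0 : (mrg (G n)).rel (k0 n) l l' 0 =
      max |(G n).rel (k0 n) l l' 3| |(G n).rel (k0 n) l l' 4| := rfl
    have m1 : (mrg (G n)).rel (k0 n) l l' 1 =
      max |(G n).rel (k0 n) l l' 5| |(G n).rel (k0 n) l l' 6| := rfl
    have m2 : (mrg (G n)).rel (k0 n) l l' 2 = (G n).rel (k0 n) l l' 9 := rfl
    have Q1 : (1 : ℝ) ≤ B.d n ^ (-(1 * ε)) := by linarith
    have gen : ∀ u v : ℝ, 0 ≤ v → u ≤ v + 3 * (K * B.d n ^ x) →
        u ≤ B.d n ^ (-(1 * ε)) * (v + B.d n ^ y) := by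
      intro u v hv hu
      have g1 : 3 * (K * B.d n ^ x) ≤ B.d n ^ (-(1 * ε)) * B.d n ^ y := by
        calc 3 * (K * B.d n ^ x) = 3 * K * B.d n ^ x := by ring
          _ ≤ B.d n ^ (-(1 * ε)) * B.d n ^ y := mul_le_mul h3 hxy hx0.le (hpow _).le
      have g2 : v ≤ B.d n ^ (-(1 * ε)) * v := le_mul_of_one_le_left hv Q1
      rw [mul_add]
      linarith
    have gen2 : ∀ u v : ℝ, 0 ≤ v → u ≤ 2 * v + 2 * (K * B.d n ^ x) →
        u ≤ B.d n ^ (-(1 * ε)) * (v + B.d n ^ y) := by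
      intro u v hv hu
      have g1 : 2 * (K * B.d n ^ x) ≤ B.d n ^ (-(1 * ε)) * B.d n ^ y := by
        calc 2 * (K * B.d n ^ x) = 2 * K * B.d n ^ x := by ring
          _ ≤ B.d n ^ (-(1 * ε)) * B.d n ^ y := mul_le_mul h2K hxy hx0.le (hpow _).le
      have g2 : 2 * v ≤ B.d n ^ (-(1 * ε)) * v :=
        mul_le_mul_of_nonneg_right (by linarith) hv
      rw [mul_add]
      linarith
    show |(mrg (G n)).rel (k0 n) l l' 0| ≤ _ ∧ _ ≤ B.d n ^ (-(1 * ε)) *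
        (_ * |(mrg (G n)).rel (k0 n) l l' 0| + _) ∧ |(mrg (G n)).rel (k0 n) l l' 1| ≤ _ ∧
      _ ≤ B.d n ^ (-(1 * ε)) * (_ * |(mrg (G n)).rel (k0 n) l l' 1| + _) ∧
      |_ * (mrg (G n)).rel (k0 n) l l' 2 - _| ≤ _
    rw [z0, z1, z2, z3, z4, m0, m1, m2]
    refine ⟨gen _ _ (abs_nonneg _) c1, ?_, gen _ _ (abs_nonneg _) x1, ?_, ?_⟩
    · rw [one_mul (|max _ _|)]
      exact gen2 _ _ (abs_nonneg _) c2
    · rw [one_mul (|max _ _|)]
      exact gen2 _ _ (abs_nonneg _) x2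
    · rw [one_mul ((G n).rel (k0 n) l l' 9)]
      refine h1.trans ?_
      have e : B.d n ^ (y - 1 * ε) = B.d n ^ (-(1 * ε)) * B.d n ^ y := by
        rw [← rpow_add']; congr 1; ring
      rw [e]
      calc 7 * (K ^ 2 * B.d n ^ x) = 7 * K ^ 2 * B.d n ^ x := by ring
        _ ≤ _ := mul_le_mul h7 hxy hx0.le (hpow _).le

theorem Eb5 (t1 t2 t3 : ℝ) : Eb (0 : Fin 5 → ℝ) 0 1 2 t1 t2 t3 = ![t1, t2, t3, 0, 0] := by
  funext j
  fin_cases j <;> simp [Eb]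

theorem zero5 : (0 : Fin 5 → ℝ) = ![0, 0, 0, 0, 0] := by
  funext j
  fin_cases j <;> rfl

/-- **`rX ≤ 1`**: the slot `X` is one-dimensional -/
theorem rX_le_one (H : RUnif B (fun n => mrg (G n)) Leg ν D) (i0 k0 : ℕ → ℕ)
    (h0 : ∀ᶠ n in (U : Filter ℕ), (i0 n, k0 n) ∈ (G n).I) {y : ℝ} (hy : 0 < y) (hyx : y ≤ x)
    (hL : ∀ᶠ n in (U : Filter ℕ), Law (G n) K (B.d n ^ x))
    (hT : ∀ᶠ n in (U : Filter ℕ), Thin2 (G n) K (B.d n ^ x) (b1 n) (b2 n))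
    (l0 : (0 : Fin 5 → ℝ) ∈ Leg) (l1 : ![0, y, 0, 0, 0] ∈ Leg) {rX : ℝ}
    (hr : ν ![0, y, 0, 0, 0] = ν 0 - rX * y) : rX ≤ 1 := by
  have S := slabH H i0 k0 h0 hy hyx hL hT
  have hD := H.D1
  have hD0 : 0 < D := by linarith
  obtain ⟨C1, hC1, hco⟩ := S.co 1 one_pos
  have hDD : 0 < D * D := mul_pos hD0 hD0
  suffices h : -ν ![0, y, 0, 0, 0] - y ≤ -ν 0 by
    rw [hr] at h
    have : rX * y ≤ 1 * y := by linarith
    exact le_of_mul_le_mul_right this hy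
  obtain ⟨C2, hC2⟩ : ∃ C2 : ℝ, C2 = D * D + C1 + 1 := ⟨_, rfl⟩
  have hC2pos : 0 < C2 := by rw [hC2]; linarith
  have hDC : 0 < D * C2 := mul_pos hD0 hC2pos
  refine le_of_ev B (-ν 0) (-ν ![0, y, 0, 0, 0] - y) (D * C2 + C1 + 1) 4 (fun ε hε => ?_)
  have hC2ε : 0 < C2 * ε := mul_pos hC2pos hε
  filter_upwards [hco ε hε, h0, H.low 0 l0 ε hε, H.up _ l1 (C2 * ε) hC2ε, H.symm 0 l0 ε hε,
    H.tri 0 l0 (D * ε) (by positivity), ev_const_le B hε 2] with n hn h0n hlow hup hsy htr h2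
  have hpow : ∀ t : ℝ, 0 < B.d n ^ t := fun t => rpos B n t
  have hd1 := (B.lt n).le
  set S0 := (mrg (G n)).box 0 ε (i0 n) (k0 n) with hS0
  have hone : (1 : ℝ) * ε = ε := one_mul ε
  have hn' : ∀ l ∈ S0, |cF G b1 b2 i0 k0 n l| ≤ B.d n ^ (-(C1 * ε)) ∧
      |xF G b1 b2 i0 k0 n l| ≤ B.d n ^ (-(C1 * ε)) ∧ ∀ l' ∈ S0,
      |(mrg (G n)).rel (k0 n) l l' 1| ≤ B.d n ^ (-(C1 * ε)) *
        (|xF G b1 b2 i0 k0 n l' - xF G b1 b2 i0 k0 n l| + B.d n ^ y) := by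
    intro l hl
    have := hn l (by rw [hone]; exact hl)
    refine ⟨this.1, this.2.1, fun l' hl' => ?_⟩
    have g := (this.2.2 l' (by rw [hone]; exact hl')).2.2.1
    have z1 : (0 : Fin 5 → ℝ) 1 - C1 * ε = -(C1 * ε) := by simp
    rw [z1] at g
    exact g
  have hI : ∀ l ∈ S0, (l, k0 n) ∈ (mrg (G n)).I := fun l hl => mem_slice_mrg H hl
  have hlo : ∀ l ∈ S0, (mrg (G n)).loose 0 ε (k0 n) (i0 n) l := fun l hl => (RCfg.mem_box.1 hl).2
  have hne : S0.Nonempty := ⟨i0 n, H.self_mem_box 0 ε h0n⟩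
  set g := B.d n ^ y with hg
  have hg0 : 0 < g := hpow y
  set M := B.d n ^ (-(C1 * ε)) with hM
  have hM0 : 0 < M := hpow _
  have hg1 : g ≤ 1 := Real.rpow_le_one (B.pos n).le hd1 hy.le
  have hM1 : 1 ≤ M := by
    rw [hM]
    exact Real.one_le_rpow_of_pos_of_le_one_of_nonpos (B.pos n) hd1 (by
      have := mul_pos hC1 hε
      linarith)
  -- number of values
  have hval : ((S0.image fun l => ⌊xF G b1 b2 i0 k0 n l / g⌋).card : ℝ) ≤ 4 * (M / g) := by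
    have hsub : S0.image (fun l => ⌊xF G b1 b2 i0 k0 n l / g⌋) ⊆
        Finset.Icc ⌊-(M / g)⌋ ⌊M / g⌋ := by
      intro v hv
      obtain ⟨l, hl, rfl⟩ := Finset.mem_image.1 hv
      have h1 := abs_le.1 (hn' l hl).2.1
      rw [Finset.mem_Icc]
      constructor
      · refine Int.floor_le_floor ?_
        rw [← neg_div]
        exact div_le_div_of_nonneg_right h1.1 hg0.le
      · exact Int.floor_le_floor (div_le_div_of_nonneg_right h1.2 hg0.le)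
    have h1 : ((S0.image fun l => ⌊xF G b1 b2 i0 k0 n l / g⌋).card : ℝ) ≤
        ((Finset.Icc ⌊-(M / g)⌋ ⌊M / g⌋).card : ℝ) := by
      exact_mod_cast Finset.card_le_card hsub
    refine h1.trans ?_
    rw [Int.card_Icc]
    have hMg : 1 ≤ M / g := by
      rw [le_div_iff₀ hg0]
      linarith
    have f1 := Int.floor_le (M / g)
    have f2 := Int.lt_floor_add_one (-(M / g))
    have h3 : (0 : ℤ) ≤ ⌊M / g⌋ + 1 - ⌊-(M / g)⌋ := by
      have : ⌊-(M / g)⌋ ≤ ⌊M / g⌋ := Int.floor_le_floor (by linarith)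
      omega
    have h4 : (((⌊M / g⌋ + 1 - ⌊-(M / g)⌋).toNat : ℕ) : ℝ) =
        (⌊M / g⌋ : ℝ) + 1 - (⌊-(M / g)⌋ : ℝ) := by
      have : (((⌊M / g⌋ + 1 - ⌊-(M / g)⌋).toNat : ℕ) : ℤ) = ⌊M / g⌋ + 1 - ⌊-(M / g)⌋ :=
        Int.toNat_of_nonneg h3
      exact_mod_cast this
    rw [h4]
    linarith
  obtain ⟨l1', hl1', hfib⟩ := exists_fibre S0 (fun l => ⌊xF G b1 b2 i0 k0 n l / g⌋) hne hval
  have hI1 := hI l1' hl1'
  have hfc : ((S0.filter fun l => ⌊xF G b1 b2 i0 k0 n l / g⌋ =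
      ⌊xF G b1 b2 i0 k0 n l1' / g⌋).card : ℝ) ≤ B.d n ^ (-ν ![0, y, 0, 0, 0] - D * (C2 * ε)) := by
    refine le_trans ?_ (hup l1' (k0 n) hI1)
    refine mod_cast Finset.card_le_card ?_
    intro l hl
    obtain ⟨a1, a2⟩ := Finset.mem_filter.1 hl
    refine RCfg.mem_box.2 ⟨(RCfg.mem_box.1 a1).1, ?_⟩
    have e1 : |xF G b1 b2 i0 k0 n l - xF G b1 b2 i0 k0 n l1'| ≤ g := by
      have := Int.abs_sub_lt_one_of_floor_eq_floor a2
      rw [← sub_div, abs_div, abs_of_pos hg0, div_lt_one hg0] at this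
      exact this.le
    have e2 := (hn' l1' hl1').2.2 l a1
    have e3 : (mrg (G n)).loose 0 (D * (D * ε)) (k0 n) l1' l :=
      htr (k0 n) l1' (i0 n) l hI1 h0n (hI l a1)
        (hsy (k0 n) (i0 n) l1' h0n hI1 (hlo l1' hl1'))
        (H.loose_mono (fun _ => le_rfl) (by nlinarith) (hlo l a1))
    have e4 : B.d n ^ (y - C2 * ε) = B.d n ^ (-(C1 * ε)) * B.d n ^ (-((D * D + 1) * ε)) * g := by
      rw [hg, ← rpow_add', ← rpow_add', hC2]; congr 1; ring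
    have e5 : 2 ≤ B.d n ^ (-((D * D + 1) * ε)) := by
      refine h2.trans (rpow_anti B n ?_)
      nlinarith
    have e6 : |(mrg (G n)).rel (k0 n) l1' l 1| ≤ B.d n ^ (y - C2 * ε) := by
      refine e2.trans ?_
      rw [e4]
      have : |xF G b1 b2 i0 k0 n l - xF G b1 b2 i0 k0 n l1'| + g ≤
          B.d n ^ (-((D * D + 1) * ε)) * g := by nlinarith
      rw [mul_assoc]
      exact mul_le_mul_of_nonneg_left this hM0.le
    have e7 : ∀ j : Fin 5, |(mrg (G n)).rel (k0 n) l1' l j| ≤ B.d n ^ (0 - C2 * ε) := by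
      intro j
      have g1 := e3 j
      have g2 : (mrg (G n)).ρ = B.d n := H.base n
      rw [g2] at g1
      refine g1.trans (rpow_anti B n ?_)
      have : (0 : Fin 5 → ℝ) j = 0 := rfl
      rw [this, hC2]
      have := mul_pos hC1 hε
      nlinarith
    intro j
    have g2 : (mrg (G n)).ρ = B.d n := H.base n
    rw [g2]
    fin_cases j
    · exact e7 0
    · exact e6
    · exact e7 2
    · exact e7 3
    · exact e7 4
  have hdiv : M / g = B.d n ^ (-(C1 * ε) - y) := by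
    rw [hM, hg, ← Real.rpow_sub (B.pos n)]
  calc B.d n ^ (-ν 0 + (D * C2 + C1 + 1) * ε) ≤ B.d n ^ (-ν 0 + ε) := rpow_anti B n (by nlinarith)
    _ ≤ (S0.card : ℝ) := hlow (i0 n) (k0 n) h0n
    _ ≤ _ := hfib
    _ ≤ 4 * (M / g) * B.d n ^ (-ν ![0, y, 0, 0, 0] - D * (C2 * ε)) :=
        mul_le_mul_of_nonneg_left hfc (by positivity)
    _ = 4 * B.d n ^ (-ν ![0, y, 0, 0, 0] - y - (D * C2 + C1) * ε) := by
        rw [hdiv, mul_assoc, ← rpow_add']; congr 2; ring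
    _ ≤ _ := mul_le_mul_of_nonneg_left (rpow_anti B n (by nlinarith)) (by norm_num)

/-- **(H1) and (H1')**, linear profile on the boxes `(t1, t2, t3, 0, 0)` -/
theorem facts_H (H : RUnif B (fun n => mrg (G n)) Leg ν D) (i0 k0 : ℕ → ℕ)
    (h0 : ∀ᶠ n in (U : Filter ℕ), (i0 n, k0 n) ∈ (G n).I) {y : ℝ} (hy : 0 < y) (hyx : y ≤ x)
    (hL : ∀ᶠ n in (U : Filter ℕ), Law (G n) K (B.d n ^ x))
    (hT : ∀ᶠ n in (U : Filter ℕ), Thin2 (G n) K (B.d n ^ x) (b1 n) (b2 n))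
    (hleg : ∀ t1 t2 t3 : ℝ, 0 ≤ t1 → t1 ≤ y → 0 ≤ t2 → t2 ≤ y → 0 ≤ t3 → t3 ≤ y → t3 ≤ t1 + t2 →
      ![t1, t2, t3, 0, 0] ∈ Leg) {rC rX rH : ℝ}
    (hr : ∀ t1 t2 t3 : ℝ, 0 ≤ t1 → t1 ≤ y → 0 ≤ t2 → t2 ≤ y → 0 ≤ t3 → t3 ≤ y → t3 ≤ t1 + t2 →
      ν ![t1, t2, t3, 0, 0] = ν 0 - (rC * t1 + rX * t2 + rH * t3)) :
    rX ≤ 1 ∧ (0 < rC → rX ≤ rH) ∧ (1 - rX < rC → 1 ≤ rH) := by
  have l0 : (0 : Fin 5 → ℝ) ∈ Leg := by
    rw [zero5]
    exact hleg 0 0 0 le_rfl hy.le le_rfl hy.le le_rfl hy.le (by simp)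
  have lX : ![0, y, 0, 0, 0] ∈ Leg :=
    hleg 0 y 0 le_rfl hy.le hy.le le_rfl le_rfl hy.le (by linarith)
  have hX1 : rX ≤ 1 := rX_le_one H i0 k0 h0 hy hyx hL hT l0 lX (by
    rw [hr 0 y 0 le_rfl hy.le hy.le le_rfl le_rfl hy.le (by linarith)]; ring)
  have S := slabH H i0 k0 h0 hy hyx hL hT
  -- `0 ≤ rX`
  have hX0 : 0 ≤ rX := by
    have h1 := H.nu_anti l0 lX (by
      intro j; fin_cases j <;> simp [hy.le])
    rw [hr 0 y 0 le_rfl hy.le hy.le le_rfl le_rfl hy.le (by linarith)] at h1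
    have : 0 ≤ rX * y := by linarith
    exact nonneg_of_mul_nonneg_left this hy
  have m1 : ∀ t, 0 ≤ t → t ≤ y → Eb (0 : Fin 5 → ℝ) 0 1 2 t 0 t ∈ Leg := by
    intro t h1 h2
    rw [Eb5]
    exact hleg t 0 t h1 h2 le_rfl hy.le h1 h2 (by linarith)
  have m2 : ∀ t, 0 ≤ t → t ≤ y → Eb (0 : Fin 5 → ℝ) 0 1 2 0 t 0 ∈ Leg := by
    intro t h1 h2
    rw [Eb5]
    exact hleg 0 t 0 le_rfl hy.le h1 h2 le_rfl hy.le (by linarith)
  have m3 : Eb (0 : Fin 5 → ℝ) 0 1 2 0 y y ∈ Leg := by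
    rw [Eb5]
    exact hleg 0 y y le_rfl hy.le hy.le le_rfl hy.le le_rfl (by linarith)
  have m4 : Eb (0 : Fin 5 → ℝ) 0 1 2 y y y ∈ Leg := by
    rw [Eb5]
    exact hleg y y y hy.le le_rfl hy.le le_rfl hy.le le_rfl (by linarith)
  have r3 : ∀ t, 0 ≤ t → t ≤ y → rX * t ≤ ν 0 - ν (Eb (0 : Fin 5 → ℝ) 0 1 2 0 t 0) := by
    intro t h1 h2
    rw [Eb5, hr 0 t 0 le_rfl hy.le h1 h2 le_rfl hy.le (by linarith)]
    linarith
  have r4 : ν 0 - ν (Eb (0 : Fin 5 → ℝ) 0 1 2 0 y 0) ≤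
      ν (Eb (0 : Fin 5 → ℝ) 0 1 2 y 0 y) - ν (Eb (0 : Fin 5 → ℝ) 0 1 2 y y y) := by
    rw [Eb5, Eb5, Eb5, hr 0 y 0 le_rfl hy.le hy.le le_rfl le_rfl hy.le (by linarith),
      hr y 0 y hy.le le_rfl le_rfl hy.le hy.le le_rfl (by linarith),
      hr y y y hy.le le_rfl hy.le le_rfl hy.le le_rfl (by linarith)]
    linarith
  have r1 : ∀ t, 0 ≤ t → t ≤ y → (rH + rC) * t ≤ ν 0 - ν (Eb (0 : Fin 5 → ℝ) 0 1 2 t 0 t) := by
    intro t h1 h2
    rw [Eb5, hr t 0 t h1 h2 le_rfl hy.le h1 h2 (by linarith)]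
    linarith
  have r2 : ν (Eb (0 : Fin 5 → ℝ) 0 1 2 0 y 0) - ν (Eb (0 : Fin 5 → ℝ) 0 1 2 0 y y) ≤ rH * y := by
    rw [Eb5, Eb5, hr 0 y 0 le_rfl hy.le hy.le le_rfl le_rfl hy.le (by linarith),
      hr 0 y y le_rfl hy.le hy.le le_rfl hy.le le_rfl (by linarith)]
    linarith
  exact ⟨hX1, fun hm => hx_kauf H i0 k0 h0 hy S l0 m1 m2 m3 m4 hX0 hX1 r3 r4 hm r1 r2,
    fun hm => hx_falc H i0 k0 h0 hy S l0 m1 m2 m3 m4 hX0 hX1 r3 r4 hm r1 r2⟩

end seq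

end Crest.Agent.R116.Hk538
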