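import Crest.Agent.R116.Kr6_710

/-!
# R116, K side: Kaufman and Falconer over the heights, functions given AT THE PIN only (helper710)

`pin_forall`, `pin_rates` : fibre = loose box `box pS ε` around `(i0, k0)`; `a n i`, `v n i` = position
and velocity of the line `i` in the slice of the pin; loose `r`-boxes at the other heights satisfy
`|(a i' - a i) + φ k (v i' - v i)| ≤ ρ^(x - C ε)` (`hgeo`).  No coordinate of a line at another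
height is used.  `pin_model` : the same over `RModel` (heights = all heights).
-/

set_option autoImplicit false
set_option linter.unusedVariables false
set_option linter.unusedSectionVars false

open Filter Topology Finset

namespace Crest.Agent.R116.Kr710

open Crest.Agent.R138.Ex926 (Base U)
open Crest.Agent.R138.Fal658 Crest.Agent.R136.Gf356

variable {κ : Type} {B : Base} {G : ℕ → RCfg κ} {Leg : Set (κ → ℝ)} {ν : (κ → ℝ) → ℝ}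
  {σ R D : ℝ}

set_option maxHeartbeats 1600000 in
/-- **Kaufman and Falconer on one fibre, functions at the pin** -/
theorem pin_forall (H : RUnif B G Leg ν D) (i0 k0 : ℕ → ℕ)
    (h0 : ∀ᶠ n in (U : Filter ℕ), (i0 n, k0 n) ∈ (G n).I) (pS pT r : κ → ℝ)
    (hpS : pS ∈ Leg) (hpT : pT ∈ Leg) (hr : r ∈ Leg) (hTr : ∀ j, pT j ≤ r j) {x τ : ℝ}
    (hx : 0 < x) (hτ0 : 0 ≤ τ) (hτ1 : τ ≤ 1)
    (a v : ℕ → ℕ → ℝ) (φ : ℕ → ℕ → ℝ) (Zg : ℕ → Finset ℕ)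
    (hZg : ∀ᶠ n in (U : Filter ℕ), (Zg n).Nonempty) {J : ℕ} (hJ : 0 < J) (Q : ℕ → κ → ℝ)
    (hQm : ∀ j ≤ J, Q j ∈ Leg) {C1 : ℝ} (hC1 : 0 < C1)
    (hφ : ∀ ε : ℝ, 0 < ε → ∀ᶠ n in (U : Filter ℕ), ∀ k ∈ Zg n, |φ n k| ≤ B.d n ^ (-(C1 * ε)))
    (hV : ∀ ε : ℝ, 0 < ε → ∀ᶠ n in (U : Filter ℕ), ∀ i ∈ (G n).box pS ε (i0 n) (k0 n),
      ∀ i' ∈ (G n).box pS ε (i0 n) (k0 n), |v n i - v n i'| ≤ B.d n ^ (-(C1 * ε)))
    (hT : ∀ ε : ℝ, 0 < ε → ∀ᶠ n in (U : Filter ℕ), ∀ k ∈ Zg n,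
      ∀ i ∈ (G n).box pS ε (i0 n) (k0 n), ∀ i' ∈ (G n).box pS ε (i0 n) (k0 n),
      (i, k) ∈ (G n).I → (i', k) ∈ (G n).I → (G n).loose pT (C1 * ε) k i i')
    (hgeo : ∀ C2 : ℝ, 0 < C2 → ∃ C3 : ℝ, 0 < C3 ∧ ∀ ε : ℝ, 0 < ε → ∀ᶠ n in (U : Filter ℕ),
      ∀ k ∈ Zg n, ∀ i ∈ (G n).box pS ε (i0 n) (k0 n), ∀ i' ∈ (G n).box pS ε (i0 n) (k0 n),
      (i, k) ∈ (G n).I → (i', k) ∈ (G n).I → (G n).loose r (C2 * ε) k i i' →
      |(a n i' - a n i) + φ n k * (v n i' - v n i)| ≤ B.d n ^ (x - C3 * ε))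
    (hal : ∀ ε : ℝ, 0 < ε → ∀ᶠ n in (U : Filter ℕ), ∀ i ∈ (G n).box pS ε (i0 n) (k0 n),
      ∀ T ⊆ Zg n, (∀ k ∈ Zg n, (i, k) ∈ (G n).I → k ∈ T) →
      B.d n ^ (C1 * ε) * ((Zg n).card : ℝ) ≤ (T.card : ℝ))
    (hQ : ∀ C3 : ℝ, 0 < C3 → ∃ C4 : ℝ, 0 < C4 ∧ ∀ j ≤ J, ∀ ε : ℝ, 0 < ε →
      ∀ᶠ n in (U : Filter ℕ),
      ∀ i ∈ (G n).box pS ε (i0 n) (k0 n), ∀ i' ∈ (G n).box pS ε (i0 n) (k0 n),
      |v n i' - v n i| ≤ B.d n ^ (sc x J j - C3 * ε) →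
      |a n i' - a n i| ≤ B.d n ^ (sc x J j - C3 * ε) →
      (G n).loose (Q j) (C4 * ε) (k0 n) i i')
    (hfr : ∀ y : ℝ, 0 ≤ y → y ≤ x → ∀ ε : ℝ, 0 < ε → ∀ᶠ n in (U : Filter ℕ), ∀ k ∈ Zg n,
      ∀ T ⊆ Zg n, (∀ k' ∈ T, |φ n k' - φ n k| ≤ B.d n ^ y) →
      (T.card : ℝ) ≤ B.d n ^ (τ * y - ε) * ((Zg n).card : ℝ)) :
    (∃ j ≤ J, ν pS - ν (Q j) + τ * (x - sc x J (j + 1)) ≤ ν pT - ν r) ∧
      ∃ j ≤ J, ν pS - ν (Q j) + τ * sc x J j + x - 2 * sc x J (j + 1) ≤ ν pT - ν r := by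
  classical
  have hD := H.D1
  have hD0 : 0 < D := by linarith
  obtain ⟨C3, hC3, hgeo3⟩ := hgeo (D ^ 5 * C1) (by positivity)
  obtain ⟨C, hC⟩ : ∃ C : ℝ, C = C1 + C3 + 1 := ⟨_, rfl⟩
  have hCpos : 0 < C := by linarith
  have pC : 1 ≤ C := by linarith
  have f1 : C1 ≤ C := by linarith
  have f3 : C3 ≤ C := by linarith
  obtain ⟨C4, hC4, hQ'⟩ := hQ (2 * C + 1) (by positivity)
  obtain ⟨C2, hC2⟩ : ∃ C2 : ℝ, C2 = (D ^ 2 + 1) * C1 + C + D * C4 + 3 := ⟨_, rfl⟩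
  have g1 : 0 < (D ^ 2 + 1) * C1 := by positivity
  have g2 : 0 < D * C4 := by positivity
  have pC2 : 1 ≤ C2 := by linarith
  have f4 : (D ^ 2 + 1) * C1 ≤ C2 := by linarith
  have f5 : D * C4 ≤ C2 := by linarith
  have f6 : (3 : ℝ) ≤ C2 := by linarith
  have e1 : ∀ ε : ℝ, 0 < ε → ∀ᶠ n in (U : Filter ℕ), ∀ k ∈ Zg n,
      |φ n k| ≤ B.d n ^ (-(C * ε)) := by
    intro ε hε
    filter_upwards [hφ ε hε] with n hn k hk
    exact (hn k hk).trans (anN B n hε f1)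
  have e2 : ∀ ε : ℝ, 0 < ε → ∀ᶠ n in (U : Filter ℕ), ∀ k ∈ Zg n,
      ∀ i ∈ (G n).box pS ε (i0 n) (k0 n), ∀ i' ∈ (G n).box pS ε (i0 n) (k0 n),
      |(a n i + φ n k * v n i) - (a n i' + φ n k * v n i') -
        ((a n i - a n i') + φ n k * (v n i - v n i'))| ≤ B.d n ^ (x - C * ε) := by
    intro ε hε
    refine Eventually.of_forall fun n k hk i hi i' hi' => ?_
    have : (a n i + φ n k * v n i) - (a n i' + φ n k * v n i') -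
        ((a n i - a n i') + φ n k * (v n i - v n i')) = 0 := by ring
    rw [this, abs_zero]
    exact (rpos B n _).le
  have e3 : ∀ ε : ℝ, 0 < ε → ∀ᶠ n in (U : Filter ℕ),
      B.d n ^ (-ν pS + C * ε) ≤ (((G n).box pS ε (i0 n) (k0 n)).card : ℝ) := by
    intro ε hε
    filter_upwards [H.low pS hpS ε hε, h0] with n hn h0n
    refine le_trans (rpow_anti B n ?_) (hn _ _ h0n)
    have := le_mul_of_one_le_left hε.le pC
    linarith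
  have e4 : ∀ ε : ℝ, 0 < ε → ∀ᶠ n in (U : Filter ℕ), ∀ k ∈ Zg n,
      (((((G n).box pS ε (i0 n) (k0 n)).filter fun i => (i, k) ∈ (G n).I).image fun i =>
        ⌊(a n i + φ n k * v n i) / B.d n ^ (x - C * ε)⌋).card : ℝ)
        ≤ 11 * B.d n ^ (-(ν pT - ν r) - C2 * ε) := by
    intro ε hε
    have hC1ε : 0 < C1 * ε := by positivity
    filter_upwards [H.exists_lab_loose pT r hpT hr hTr hC1ε, hT ε hε, hgeo3 ε hε]
      with n h1 h2 h3 k hk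
    have hpow : ∀ t : ℝ, 0 < B.d n ^ t := fun t => rpos B n t
    obtain ⟨lab, hl1, hl2⟩ := h1 k
      (((G n).box pS ε (i0 n) (k0 n)).filter fun i => (i, k) ∈ (G n).I)
      (fun i hi => H.memSlice.2 (Finset.mem_filter.1 hi).2)
      (fun i hi i' hi' => h2 k hk i (Finset.mem_filter.1 hi).1 i' (Finset.mem_filter.1 hi').1
        (Finset.mem_filter.1 hi).2 (Finset.mem_filter.1 hi').2)
    have key := floor_labels
      (((G n).box pS ε (i0 n) (k0 n)).filter fun i => (i, k) ∈ (G n).I)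
      (fun i => a n i + φ n k * v n i) lab (hpow (x - C * ε)) (by
        intro i hi i' hi' hl
        obtain ⟨a1, a2⟩ := Finset.mem_filter.1 hi
        obtain ⟨b1, b2⟩ := Finset.mem_filter.1 hi'
        have c1 := hl1 i hi i' hi' hl
        rw [← mul_assoc] at c1
        have c2 := h3 k hk i a1 i' b1 a2 b2 c1
        have c3 : |(a n i + φ n k * v n i) - (a n i' + φ n k * v n i')| =
            |(a n i' - a n i) + φ n k * (v n i' - v n i)| := by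
          rw [abs_sub_comm]; congr 1; ring
        rw [c3]
        have c4 := c2.trans (anK B n hε f3)
        have := hpow (x - C * ε)
        linarith)
    have k2 : B.d n ^ (-(ν pT - ν r) - (D ^ 2 + 1) * (C1 * ε)) ≤
        B.d n ^ (-(ν pT - ν r) - C2 * ε) := rpow_anti B n (by
      have : (D ^ 2 + 1) * (C1 * ε) ≤ C2 * ε := by rw [← mul_assoc]; exact mE hε f4
      linarith)
    have k3 := hl2.trans k2
    linarith
  have e5 : ∀ ε : ℝ, 0 < ε → ∀ᶠ n in (U : Filter ℕ), ∀ i ∈ (G n).box pS ε (i0 n) (k0 n),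
      B.d n ^ (C * ε) * ((Zg n).card : ℝ) ≤
        (((Zg n).filter fun k => (i, k) ∈ (G n).I).card : ℝ) := by
    intro ε hε
    filter_upwards [hal ε hε] with n hn i hi
    refine le_trans ?_ (hn i hi _ (Finset.filter_subset _ _) ?_)
    · refine mul_le_mul_of_nonneg_right (rpow_anti B n (mE hε f1)) (Nat.cast_nonneg _)
    · intro k hk hI
      exact Finset.mem_filter.2 ⟨hk, hI⟩
  have e6 : ∀ ε : ℝ, 0 < ε → ∀ᶠ n in (U : Filter ℕ), ∀ i ∈ (G n).box pS ε (i0 n) (k0 n),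
      ∀ i' ∈ (G n).box pS ε (i0 n) (k0 n), |v n i - v n i'| ≤ B.d n ^ (-(C * ε)) := by
    intro ε hε
    filter_upwards [hV ε hε] with n hn i hi i' hi'
    exact (hn i hi i' hi').trans (anN B n hε f1)
  have e7 : ∀ j ≤ J, ∀ ε : ℝ, 0 < ε → ∀ᶠ n in (U : Filter ℕ),
      ∀ i ∈ (G n).box pS ε (i0 n) (k0 n),
      ((((G n).box pS ε (i0 n) (k0 n)).filter fun i' => |v n i' - v n i| ≤
        B.d n ^ (sc x J j - C * ε) ∧ |a n i' - a n i| ≤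
          B.d n ^ (sc x J j - (2 * C + 1) * ε)).card : ℝ) ≤ B.d n ^ (-ν (Q j) - C2 * ε) := by
    intro j hj ε hε
    have hC4ε : 0 < C4 * ε := by positivity
    filter_upwards [hQ' j hj ε hε, H.up (Q j) (hQm j hj) (C4 * ε) hC4ε] with n h1 h2 i hi
    have hI := H.memSlice.1 (RCfg.box_subset_slice hi)
    have hsub : (((G n).box pS ε (i0 n) (k0 n)).filter fun i' => |v n i' - v n i| ≤
        B.d n ^ (sc x J j - C * ε) ∧ |a n i' - a n i| ≤ B.d n ^ (sc x J j - (2 * C + 1) * ε)) ⊆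
        (G n).box (Q j) (C4 * ε) i (k0 n) := by
      intro i' hi'
      obtain ⟨a1, a2, a3⟩ := Finset.mem_filter.1 hi'
      refine RCfg.mem_box.2 ⟨RCfg.box_subset_slice a1, h1 i hi i' a1 (a2.trans ?_) a3⟩
      exact anK B n hε (by linarith)
    refine le_trans (mod_cast Finset.card_le_card hsub) ((h2 i (k0 n) hI).trans
      (rpow_anti B n ?_))
    have : D * (C4 * ε) ≤ C2 * ε := by rw [← mul_assoc]; exact mE hε f5
    linarith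
  have e8 : ∀ y : ℝ, 0 ≤ y → y ≤ x → ∀ ε : ℝ, 0 < ε → ∀ᶠ n in (U : Filter ℕ), ∀ k ∈ Zg n,
      (((Zg n).filter fun k' => |φ n k' - φ n k| ≤ B.d n ^ (y - ε)).card : ℝ)
        ≤ B.d n ^ (τ * y - C2 * ε) * ((Zg n).card : ℝ) := by
    intro y hy0 hyx ε hε
    have h3ε : 3 * ε ≤ C2 * ε := mE hε f6
    have hτε : τ * ε ≤ ε := mul_le_of_le_one_left hε.le hτ1
    rcases le_total (y - ε) 0 with hle | hle
    · refine Filter.Eventually.of_forall fun n k hk => ?_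
      have b3 : (((Zg n).filter fun k' => |φ n k' - φ n k| ≤ B.d n ^ (y - ε)).card : ℝ) ≤
          (Zg n).card := by
        exact_mod_cast Finset.card_le_card (Finset.filter_subset _ _)
      refine b3.trans ?_
      have b4 : (1 : ℝ) ≤ B.d n ^ (τ * y - C2 * ε) := by
        apply Real.one_le_rpow_of_pos_of_le_one_of_nonpos (B.pos n) (B.lt n).le
        have : τ * y ≤ τ * ε := mul_le_mul_of_nonneg_left (by linarith) hτ0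
        linarith
      exact le_mul_of_one_le_left (Nat.cast_nonneg _) b4
    · filter_upwards [hfr (y - ε) hle (by linarith) ε hε] with n hn k hk
      refine (hn k hk _ (Finset.filter_subset _ _) ?_).trans ?_
      · intro k' hk'
        exact (Finset.mem_filter.1 hk').2
      · refine mul_le_mul_of_nonneg_right (rpow_anti B n ?_) (Nat.cast_nonneg _)
        have : τ * (y - ε) = τ * y - τ * ε := by ring
        linarith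
  refine ⟨kauf_exE B (ι := ℕ) (fun ε n => (G n).box pS ε (i0 n) (k0 n)) (fun _ n => Zg n) φ
    (fun n i k => (i, k) ∈ (G n).I) (fun n i k => a n i + φ n k * v n i)
    a v hx hτ0 hτ1 pC pC2 hJ (fun j => ν (Q j)) (fun _ _ => hZg) e1 ?_ e3 e4 e5 e6 e7 e8,
    falc_exE B (ι := ℕ) (fun ε n => (G n).box pS ε (i0 n) (k0 n)) (fun _ n => Zg n) φ
    (fun n i k => (i, k) ∈ (G n).I) (fun n i k => a n i + φ n k * v n i)
    a v hx hτ0 hτ1 pC pC2 hJ (fun j => ν (Q j)) (fun _ _ => hZg) e1 e2 e3 e4 e5 e6 e7 e8⟩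
  intro ε hε
  filter_upwards [e2 ε hε] with n hn k hk i hi i' hi' _ _
  exact hn k hk i hi i' hi'

/-- **rates, functions at the pin**: `g > 0 ⇒ τ ≤ f` and `g > 1 - τ ⇒ 1 ≤ f` -/
theorem pin_rates (H : RUnif B G Leg ν D) (i0 k0 : ℕ → ℕ)
    (h0 : ∀ᶠ n in (U : Filter ℕ), (i0 n, k0 n) ∈ (G n).I) (pS pT r : κ → ℝ)
    (hpS : pS ∈ Leg) (hpT : pT ∈ Leg) (hr : r ∈ Leg) (hTr : ∀ j, pT j ≤ r j) {x τ : ℝ}
    (hx : 0 < x) (hτ0 : 0 ≤ τ) (hτ1 : τ ≤ 1)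
    (a v : ℕ → ℕ → ℝ) (φ : ℕ → ℕ → ℝ) (Zg : ℕ → Finset ℕ)
    (hZg : ∀ᶠ n in (U : Filter ℕ), (Zg n).Nonempty) (Q : ℝ → κ → ℝ)
    (hQm : ∀ t : ℝ, 0 ≤ t → t ≤ x → Q t ∈ Leg) {C1 : ℝ} (hC1 : 0 < C1)
    (hφ : ∀ ε : ℝ, 0 < ε → ∀ᶠ n in (U : Filter ℕ), ∀ k ∈ Zg n, |φ n k| ≤ B.d n ^ (-(C1 * ε)))
    (hV : ∀ ε : ℝ, 0 < ε → ∀ᶠ n in (U : Filter ℕ), ∀ i ∈ (G n).box pS ε (i0 n) (k0 n),
      ∀ i' ∈ (G n).box pS ε (i0 n) (k0 n), |v n i - v n i'| ≤ B.d n ^ (-(C1 * ε)))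
    (hT : ∀ ε : ℝ, 0 < ε → ∀ᶠ n in (U : Filter ℕ), ∀ k ∈ Zg n,
      ∀ i ∈ (G n).box pS ε (i0 n) (k0 n), ∀ i' ∈ (G n).box pS ε (i0 n) (k0 n),
      (i, k) ∈ (G n).I → (i', k) ∈ (G n).I → (G n).loose pT (C1 * ε) k i i')
    (hgeo : ∀ C2 : ℝ, 0 < C2 → ∃ C3 : ℝ, 0 < C3 ∧ ∀ ε : ℝ, 0 < ε → ∀ᶠ n in (U : Filter ℕ),
      ∀ k ∈ Zg n, ∀ i ∈ (G n).box pS ε (i0 n) (k0 n), ∀ i' ∈ (G n).box pS ε (i0 n) (k0 n),
      (i, k) ∈ (G n).I → (i', k) ∈ (G n).I → (G n).loose r (C2 * ε) k i i' →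
      |(a n i' - a n i) + φ n k * (v n i' - v n i)| ≤ B.d n ^ (x - C3 * ε))
    (hal : ∀ ε : ℝ, 0 < ε → ∀ᶠ n in (U : Filter ℕ), ∀ i ∈ (G n).box pS ε (i0 n) (k0 n),
      ∀ T ⊆ Zg n, (∀ k ∈ Zg n, (i, k) ∈ (G n).I → k ∈ T) →
      B.d n ^ (C1 * ε) * ((Zg n).card : ℝ) ≤ (T.card : ℝ))
    (hQ : ∀ C3 : ℝ, 0 < C3 → ∃ C4 : ℝ, 0 < C4 ∧ ∀ t : ℝ, 0 ≤ t → t ≤ x → ∀ ε : ℝ, 0 < ε →
      ∀ᶠ n in (U : Filter ℕ),
      ∀ i ∈ (G n).box pS ε (i0 n) (k0 n), ∀ i' ∈ (G n).box pS ε (i0 n) (k0 n),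
      |v n i' - v n i| ≤ B.d n ^ (t - C3 * ε) → |a n i' - a n i| ≤ B.d n ^ (t - C3 * ε) →
      (G n).loose (Q t) (C4 * ε) (k0 n) i i')
    (hfr : ∀ y : ℝ, 0 ≤ y → y ≤ x → ∀ ε : ℝ, 0 < ε → ∀ᶠ n in (U : Filter ℕ), ∀ k ∈ Zg n,
      ∀ T ⊆ Zg n, (∀ k' ∈ T, |φ n k' - φ n k| ≤ B.d n ^ y) →
      (T.card : ℝ) ≤ B.d n ^ (τ * y - ε) * ((Zg n).card : ℝ))
    {f g : ℝ} (hlow : ∀ t : ℝ, 0 ≤ t → t ≤ x → (f + g) * t ≤ ν pS - ν (Q t))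
    (hup : ν pT - ν r ≤ f * x) : (0 < g → τ ≤ f) ∧ (1 - τ < g → 1 ≤ f) := by
  have hQj : ∀ J : ℕ, 0 < J → ∀ C3 : ℝ, 0 < C3 → ∃ C4 : ℝ, 0 < C4 ∧ ∀ j ≤ J, ∀ ε : ℝ, 0 < ε →
      ∀ᶠ n in (U : Filter ℕ),
      ∀ i ∈ (G n).box pS ε (i0 n) (k0 n), ∀ i' ∈ (G n).box pS ε (i0 n) (k0 n),
      |v n i' - v n i| ≤ B.d n ^ (sc x J j - C3 * ε) →
      |a n i' - a n i| ≤ B.d n ^ (sc x J j - C3 * ε) →
      (G n).loose (Q (sc x J j)) (C4 * ε) (k0 n) i i' := by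
    intro J hJ C3 hC3
    obtain ⟨C4, hC4, h4⟩ := hQ C3 hC3
    exact ⟨C4, hC4, fun j hj => h4 _ (sc_nonneg hx.le J j) (sc_le hx.le hJ hj)⟩
  have main := fun J (hJ : 0 < J) => pin_forall H i0 k0 h0 pS pT r hpS hpT hr hTr hx hτ0 hτ1 a v φ
    Zg hZg hJ (fun j => Q (sc x J j)) (fun j hj => hQm _ (sc_nonneg hx.le J j) (sc_le hx.le hJ hj))
    hC1 hφ hV hT hgeo hal (hQj J hJ) hfr
  exact ⟨fun hg => rate_of_forall (a := fun t => ν pS - ν (Q t)) hx hτ0 hg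
      (fun J hJ => (main J hJ).1) hlow hup,
    fun hg => frate_of_forall (a := fun t => ν pS - ν (Q t)) hx hτ0 hτ1 hg
      (fun J hJ => (main J hJ).2) hlow hup⟩

/-- **rates over `RModel`**: all heights are used, `φ n k = z k - z k₀`. -/
theorem pin_model (H : RModel B G σ R Leg ν D) (i0 k0 : ℕ → ℕ)
    (h0 : ∀ᶠ n in (U : Filter ℕ), (i0 n, k0 n) ∈ (G n).I) (pS pT r : κ → ℝ)
    (hpS : pS ∈ Leg) (hpT : pT ∈ Leg) (hr : r ∈ Leg) (hTr : ∀ j, pT j ≤ r j) {x : ℝ}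
    (hx : 0 < x) (hxR : x ≤ R)
    (a v : ℕ → ℕ → ℝ) (Q : ℝ → κ → ℝ)
    (hQm : ∀ t : ℝ, 0 ≤ t → t ≤ x → Q t ∈ Leg) {C1 : ℝ} (hC1 : 0 < C1)
    (hφ : ∀ ε : ℝ, 0 < ε → ∀ᶠ n in (U : Filter ℕ), ∀ k ∈ (G n).Z,
      |(G n).z k - (G n).z (k0 n)| ≤ B.d n ^ (-(C1 * ε)))
    (hV : ∀ ε : ℝ, 0 < ε → ∀ᶠ n in (U : Filter ℕ), ∀ i ∈ (G n).box pS ε (i0 n) (k0 n),
      ∀ i' ∈ (G n).box pS ε (i0 n) (k0 n), |v n i - v n i'| ≤ B.d n ^ (-(C1 * ε)))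
    (hT : ∀ ε : ℝ, 0 < ε → ∀ᶠ n in (U : Filter ℕ), ∀ k ∈ (G n).Z,
      ∀ i ∈ (G n).box pS ε (i0 n) (k0 n), ∀ i' ∈ (G n).box pS ε (i0 n) (k0 n),
      (i, k) ∈ (G n).I → (i', k) ∈ (G n).I → (G n).loose pT (C1 * ε) k i i')
    (hgeo : ∀ C2 : ℝ, 0 < C2 → ∃ C3 : ℝ, 0 < C3 ∧ ∀ ε : ℝ, 0 < ε → ∀ᶠ n in (U : Filter ℕ),
      ∀ k ∈ (G n).Z, ∀ i ∈ (G n).box pS ε (i0 n) (k0 n), ∀ i' ∈ (G n).box pS ε (i0 n) (k0 n),
      (i, k) ∈ (G n).I → (i', k) ∈ (G n).I → (G n).loose r (C2 * ε) k i i' →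
      |(a n i' - a n i) + ((G n).z k - (G n).z (k0 n)) * (v n i' - v n i)| ≤
        B.d n ^ (x - C3 * ε))
    (hQ : ∀ C3 : ℝ, 0 < C3 → ∃ C4 : ℝ, 0 < C4 ∧ ∀ t : ℝ, 0 ≤ t → t ≤ x → ∀ ε : ℝ, 0 < ε →
      ∀ᶠ n in (U : Filter ℕ),
      ∀ i ∈ (G n).box pS ε (i0 n) (k0 n), ∀ i' ∈ (G n).box pS ε (i0 n) (k0 n),
      |v n i' - v n i| ≤ B.d n ^ (t - C3 * ε) → |a n i' - a n i| ≤ B.d n ^ (t - C3 * ε) →
      (G n).loose (Q t) (C4 * ε) (k0 n) i i')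
    {f g : ℝ} (hlow : ∀ t : ℝ, 0 ≤ t → t ≤ x → (f + g) * t ≤ ν pS - ν (Q t))
    (hup : ν pT - ν r ≤ f * x) : (0 < g → σ ≤ f) ∧ (1 - σ < g → 1 ≤ f) := by
  classical
  refine pin_rates H.toRUnif i0 k0 h0 pS pT r hpS hpT hr hTr hx H.σ_nonneg H.σ_le a v
    (fun n k => (G n).z k - (G n).z (k0 n)) (fun n => (G n).Z) ?_ Q hQm (C1 := C1 + 1)
    (by linarith) ?_ ?_ ?_ hgeo ?_ hQ ?_ hlow hup
  · filter_upwards [h0] with n g0
    exact ⟨k0 n, H.toRUnif.memZ g0⟩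
  · intro ε hε
    filter_upwards [hφ ε hε] with n g k hk
    exact (g k hk).trans (anN B n hε (by linarith))
  · intro ε hε
    filter_upwards [hV ε hε] with n g i hi i' hi'
    exact (g i hi i' hi').trans (anN B n hε (by linarith))
  · intro ε hε
    filter_upwards [hT ε hε] with n g k hk i hi i' hi' hI hI'
    exact H.toRUnif.loose_mono (fun _ => le_rfl) (mE hε (by linarith)) (g k hk i hi i' hi' hI hI')
  · intro ε hε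
    filter_upwards [H.line ε hε] with n g i hi T hT hTk
    have hIi := H.toRUnif.memSlice.1 (RCfg.box_subset_slice hi)
    have h1 := g i (H.toRUnif.memL hIi)
    have h2 : ((G n).hts i).card ≤ T.card := by
      refine Finset.card_le_card fun k hk => ?_
      obtain ⟨k1, k2⟩ := RCfg.mem_hts.1 hk
      exact hTk k k1 k2
    have h3 : B.d n ^ ((C1 + 1) * ε) ≤ B.d n ^ ε := rpow_anti B n (by
      have := mul_pos hC1 hε
      linarith)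
    calc B.d n ^ ((C1 + 1) * ε) * ((G n).Z.card : ℝ) ≤ B.d n ^ ε * ((G n).Z.card : ℝ) :=
          mul_le_mul_of_nonneg_right h3 (Nat.cast_nonneg _)
      _ ≤ (((G n).hts i).card : ℝ) := h1
      _ ≤ _ := by exact_mod_cast h2
  · intro y hy0 hyx ε hε
    filter_upwards [H.frost y hy0 (hyx.trans hxR) ε hε] with n g k hk T hT hTy
    refine le_trans ?_ (g k hk)
    refine mod_cast Finset.card_le_card fun k' hk' => ?_
    unfold RCfg.hbox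
    refine Finset.mem_filter.2 ⟨hT hk', ?_⟩
    have := hTy k' hk'
    rw [H.base n]
    have e : (G n).z k' - (G n).z (k0 n) - ((G n).z k - (G n).z (k0 n)) =
      (G n).z k' - (G n).z k := by ring
    rwa [e] at this

end Crest.Agent.R116.Kr710
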