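import Crest.Agent.R116.Hk2_538
import Crest.Agent.R116.Kr7_710

/-!
# R116, K side, [II3] (helper538), part 3: the facts (K1), (F1), (K2), (F2)

* `facts_P` : merged model, linear profile on the boxes `(y, y, y, t3, t4)` (rates `rP, rF`):
  `0 < rP → σ ≤ rF`,  `1 - σ < rP → 1 ≤ rF`.
* `facts_C` : linear profile on the boxes `(t1, t2, 0, 0, 0)` (rates `rC, rX`):
  `0 < rC → σ ≤ rX`,  `1 - σ < rC → 1 ≤ rX`.
-/

set_option autoImplicit false
set_option linter.unusedVariables false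
set_option linter.unusedSectionVars false

open Filter Topology Finset

namespace Crest.Agent.R116.Hk538

open Crest.Agent.R138.Ex926 (Base U)
open Crest.Agent.R136.Gf356 Crest.Agent.R116.Kr710

section seq

variable {B : Base} {G : ℕ → RCfg (Fin 12)} {K x : ℝ} {b1 b2 : ℕ → ℝ}
  {Leg : Set (Fin 5 → ℝ)} {ν : (Fin 5 → ℝ) → ℝ} {D σ R : ℝ}

/-- members of one box are pairwise loose -/
theorem pair_loose (H : RUnif B (fun n => mrg (G n)) Leg ν D) (i0 k0 : ℕ → ℕ)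
    (h0 : ∀ᶠ n in (U : Filter ℕ), (i0 n, k0 n) ∈ (G n).I) {p : Fin 5 → ℝ} (hp : p ∈ Leg) {ε : ℝ}
    (hε : 0 < ε) : ∀ᶠ n in (U : Filter ℕ), ∀ i ∈ (mrg (G n)).box p ε (i0 n) (k0 n),
      ∀ i' ∈ (mrg (G n)).box p ε (i0 n) (k0 n), (i, k0 n) ∈ (G n).I ∧ (i', k0 n) ∈ (G n).I ∧
        ∀ j, |(mrg (G n)).rel (k0 n) i i' j| ≤ B.d n ^ (p j - D * D * ε) := by
  have hD := H.D1
  have hD0 : 0 < D := by linarith
  filter_upwards [h0, H.symm p hp ε hε, H.tri p hp (D * ε) (by positivity)] with n h0n hsy htr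
    i hi i' hi'
  have hI := mem_slice_mrg H hi
  have hI' := mem_slice_mrg H hi'
  refine ⟨hI, hI', fun j => ?_⟩
  have e3 : (mrg (G n)).loose p (D * (D * ε)) (k0 n) i i' :=
    htr (k0 n) i (i0 n) i' hI h0n hI' (hsy (k0 n) (i0 n) i h0n hI (RCfg.mem_box.1 hi).2)
      (H.loose_mono (fun _ => le_rfl) (by nlinarith) (RCfg.mem_box.1 hi').2)
  have g1 := e3 j
  have g2 : (mrg (G n)).ρ = B.d n := H.base n
  rw [g2] at g1
  refine g1.trans (rpow_anti B n ?_)
  linarith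

theorem m5_le {v : Fin 12 → ℝ} {t : ℝ} (h0 : |max (|v 3|) (|v 4|)| ≤ t)
    (h1 : |max (|v 5|) (|v 6|)| ≤ t) (h2 : |v 9| ≤ t) : m5 v ≤ 5 * t := by
  have a1 := (le_max_left |v 3| |v 4|).trans ((le_abs_self _).trans h0)
  have a2 := (le_max_right |v 3| |v 4|).trans ((le_abs_self _).trans h0)
  have a3 := (le_max_left |v 5| |v 6|).trans ((le_abs_self _).trans h1)
  have a4 := (le_max_right |v 5| |v 6|).trans ((le_abs_self _).trans h1)
  unfold m5
  linarith

theorem max_abs_le {u v t : ℝ} (hu : |u| ≤ t) (hv : |v| ≤ t) : |max (|u|) (|v|)| ≤ t := by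
  rw [abs_of_nonneg ((abs_nonneg u).trans (le_max_left _ _))]
  exact max_le hu hv

theorem of_max_abs_le {u v t : ℝ} (h : |max (|u|) (|v|)| ≤ t) : |u| ≤ t ∧ |v| ≤ t :=
  ⟨(le_max_left _ _).trans ((le_abs_self _).trans h),
    (le_max_right _ _).trans ((le_abs_self _).trans h)⟩

theorem le_mul_pow {n : ℕ} {M p c ε u : ℝ} (hM : M ≤ B.d n ^ (-ε))
    (h : u ≤ M * B.d n ^ (p - c * ε)) : u ≤ B.d n ^ (p - (c + 1) * ε) := by
  refine h.trans ?_
  have e : B.d n ^ (p - (c + 1) * ε) = B.d n ^ (-ε) * B.d n ^ (p - c * ε) := by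
    rw [← rpow_add']; congr 1; ring
  rw [e]
  exact mul_le_mul_of_nonneg_right hM (rpos B n _).le

/-- **(K2) and (F2)** -/
theorem facts_P (H : RModel B (fun n => mrg (G n)) σ R Leg ν D) (i0 k0 : ℕ → ℕ)
    (h0 : ∀ᶠ n in (U : Filter ℕ), (i0 n, k0 n) ∈ (G n).I) {y : ℝ} (hy : 0 < y) (hyx : y ≤ x)
    (hyR : y ≤ R) (hL : ∀ᶠ n in (U : Filter ℕ), Law (G n) K (B.d n ^ x))
    (hleg : ∀ t1 t2 : ℝ, 0 ≤ t1 → t1 ≤ y → 0 ≤ t2 → t2 ≤ y → ![y, y, y, t1, t2] ∈ Leg)
    {rP rF : ℝ} (hr : ∀ t1 t2 : ℝ, 0 ≤ t1 → t1 ≤ y → 0 ≤ t2 → t2 ≤ y →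
      ν ![y, y, y, t1, t2] = ν ![y, y, y, 0, 0] - (rP * t1 + rF * t2)) :
    (0 < rP → σ ≤ rF) ∧ (1 - σ < rP → 1 ≤ rF) := by
  have hD := H.D1
  have hD0 : 0 < D := by linarith
  have lS : ![y, y, y, 0, 0] ∈ Leg := hleg 0 0 le_rfl hy.le le_rfl hy.le
  obtain ⟨c, hc⟩ : ∃ c : ℝ, c = D * D := ⟨_, rfl⟩
  have hc0 : 0 < c := by rw [hc]; positivity
  have rb : ∀ n : ℕ, (mrg (G n)).ρ = B.d n := fun n => H.toRUnif.base n
  refine pin_model H i0 k0 h0 ![y, y, y, 0, 0] ![y, y, y, 0, 0] ![y, y, y, 0, y] lS lS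
    (hleg 0 y le_rfl hy.le hy.le le_rfl) ?_ hy hyR
    (fun n i => (G n).rel (k0 n) (i0 n) i 11) (fun n i => (G n).rel (k0 n) (i0 n) i 10)
    (fun t => ![y, y, y, t, t]) (fun t h1 h2 => hleg t t h1 h2 h1 h2) (C1 := c + 1)
    (by linarith) ?_ ?_ ?_ ?_ ?_ ?_ ?_
  · intro j
    fin_cases j <;> simp [hy.le]
  · intro ε hε
    filter_upwards [h0, hL, ev_const_le B hε K] with n h0n hLn hK k hk
    refine (hLn.zb k hk (k0 n) (H.toRUnif.memZ h0n)).trans (hK.trans (rpow_anti B n ?_))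
    nlinarith
  · intro ε hε
    filter_upwards [h0, hL, ev_const_le B hε (2 * K)] with n h0n hLn hK i hi i' hi'
    have hI := mem_slice_mrg H.toRUnif hi
    have hI' := mem_slice_mrg H.toRUnif hi'
    have g1 := hLn.bd (k0 n) (i0 n) i h0n hI 10
    have g2 := hLn.bd (k0 n) (i0 n) i' h0n hI' 10
    have g3 := abs_sub ((G n).rel (k0 n) (i0 n) i 10) ((G n).rel (k0 n) (i0 n) i' 10)
    have g4 : B.d n ^ (-ε) ≤ B.d n ^ (-((c + 1) * ε)) := rpow_anti B n (by nlinarith)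
    linarith
  · -- hT
    intro ε hε
    filter_upwards [h0, hL, pair_loose H.toRUnif i0 k0 h0 lS hε, ev_const_le B hε (7 * K)] with
      n h0n hLn hpl hK k hk i hi i' hi' hIk hIk'
    obtain ⟨hI, hI', hrel⟩ := hpl i hi i' hi'
    have hK1 := hLn.K1
    rw [← hc] at hrel
    have hpow : ∀ t : ℝ, 0 < B.d n ^ t := fun t => rpos B n t
    set g := B.d n ^ (y - c * ε) with hg
    have hxg : B.d n ^ x ≤ g := rpow_anti B n (by nlinarith)
    have hg0 : 0 < g := hpow _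
    have q0 : |max (|(G n).rel (k0 n) i i' 3|) (|(G n).rel (k0 n) i i' 4|)| ≤ g := hrel 0
    have q1 : |max (|(G n).rel (k0 n) i i' 5|) (|(G n).rel (k0 n) i i' 6|)| ≤ g := hrel 1
    have q2 : |(G n).rel (k0 n) i i' 9| ≤ g := hrel 2
    have hm := m5_le q0 q1 q2
    obtain ⟨p3, p4⟩ := of_max_abs_le q0
    obtain ⟨p5, p6⟩ := of_max_abs_le q1
    have z1 := hLn.zb (k0 n) (H.toRUnif.memZ h0n) k hk
    have E3 := hLn.evC (k0 n) k i i' hI hI' hIk hIk' 3 (by decide)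
    have E4 := hLn.evC (k0 n) k i i' hI hI' hIk hIk' 4 (by decide)
    obtain ⟨E5, E6⟩ := hLn.evX (k0 n) k i i' hI hI' hIk hIk'
    have E9 := hLn.ev9 (k0 n) k i i' hI hI' hIk hIk'
    have hKe : K * B.d n ^ x ≤ K * g := mul_le_mul_of_nonneg_left hxg (by linarith)
    have gK : g ≤ K * g := le_mul_of_one_le_left hg0.le hK1
    have zz : ∀ u : ℝ, |u| ≤ g → |((G n).z (k0 n) - (G n).z k) * u| ≤ K * g := by
      intro u hu
      rw [abs_mul]
      exact mul_le_mul z1 hu (abs_nonneg _) (by linarith)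
    have up : ∀ u v w M : ℝ, |u - v| ≤ w → |v| + w ≤ M → |u| ≤ M := by
      intro u v w M h1 h2
      have := abs_sub_abs_le_abs_sub u v
      linarith
    have F3 : |(G n).rel k i i' 3| ≤ 7 * K * g := up _ _ _ _ E3 (by linarith)
    have F4 : |(G n).rel k i i' 4| ≤ 7 * K * g := up _ _ _ _ E4 (by linarith)
    have F5 : |(G n).rel k i i' 5| ≤ 7 * K * g := by
      refine up _ _ _ _ E5 ?_
      have := abs_sub ((G n).rel (k0 n) i i' 5)
        (((G n).z (k0 n) - (G n).z k) * (G n).rel (k0 n) i i' 3)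
      have := zz _ p3
      linarith
    have F6 : |(G n).rel k i i' 6| ≤ 7 * K * g := by
      refine up _ _ _ _ E6 ?_
      have := abs_sub ((G n).rel (k0 n) i i' 6)
        (((G n).z (k0 n) - (G n).z k) * (G n).rel (k0 n) i i' 4)
      have := zz _ p4
      linarith
    have F9 : |(G n).rel k i i' 9| ≤ 7 * K * g := by
      refine up _ _ _ _ E9 ?_
      have : K * (m5 ((G n).rel (k0 n) i i') + B.d n ^ x) ≤ K * (6 * g) :=
        mul_le_mul_of_nonneg_left (by linarith) (by linarith)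
      linarith
    have b10 := hLn.bd k i i' hIk hIk' 10
    have b11 := hLn.bd k i i' hIk hIk' 11
    have fin : ∀ u : ℝ, u ≤ 7 * K * g → u ≤ B.d n ^ (y - (c + 1) * ε) :=
      fun u hu => le_mul_pow hK hu
    have fin0 : ∀ u : ℝ, u ≤ K → u ≤ B.d n ^ (0 - (c + 1) * ε) := by
      intro u hu
      refine (hu.trans (by linarith : K ≤ 7 * K)).trans (hK.trans (rpow_anti B n ?_))
      nlinarith
    intro j
    rw [rb n]
    fin_cases j
    · exact fin _ (max_abs_le F3 F4)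
    · exact fin _ (max_abs_le F5 F6)
    · exact fin _ F9
    · exact fin0 _ b10
    · exact fin0 _ b11
  · -- hgeo
    intro C2 hC2
    refine ⟨max C2 c + 1, by positivity, fun ε hε => ?_⟩
    filter_upwards [h0, hL, pair_loose H.toRUnif i0 k0 h0 lS hε,
      ev_const_le B hε (1 + 18 * K ^ 2)] with n h0n hLn hpl hK k hk i hi i' hi' hIk hIk' hlo
    obtain ⟨hI, hI', hrel⟩ := hpl i hi i' hi'
    have hK1 := hLn.K1
    rw [← hc] at hrel
    have hpow : ∀ t : ℝ, 0 < B.d n ^ t := fun t => rpos B n t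
    set g := B.d n ^ (y - max C2 c * ε) with hg
    have hcg : B.d n ^ (y - c * ε) ≤ g := rpow_anti B n (by
      have := mul_le_mul_of_nonneg_right (le_max_right C2 c) hε.le
      linarith)
    have hC2g : B.d n ^ (y - C2 * ε) ≤ g := rpow_anti B n (by
      have := mul_le_mul_of_nonneg_right (le_max_left C2 c) hε.le
      linarith)
    have hxg : B.d n ^ x ≤ g := (rpow_anti B n (by nlinarith)).trans hcg
    have hg0 : 0 < g := hpow _
    have q0 : |max (|(G n).rel (k0 n) i i' 3|) (|(G n).rel (k0 n) i i' 4|)| ≤ g :=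
      (hrel 0).trans hcg
    have q1 : |max (|(G n).rel (k0 n) i i' 5|) (|(G n).rel (k0 n) i i' 6|)| ≤ g :=
      (hrel 1).trans hcg
    have q2 : |(G n).rel (k0 n) i i' 9| ≤ g := (hrel 2).trans hcg
    have hm := m5_le q0 q1 q2
    have z1 := hLn.zb k hk (k0 n) (H.toRUnif.memZ h0n)
    have A10 := hLn.addP (k0 n) (i0 n) i i' h0n hI hI' 10 (by decide)
    have A11 := hLn.addP (k0 n) (i0 n) i i' h0n hI hI' 11 (by decide)
    have E11 := hLn.ev11 (k0 n) k i i' hI hI' hIk hIk'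
    have F := hlo 4
    rw [rb n] at F
    have F' : |(G n).rel k i i' 11| ≤ B.d n ^ (y - C2 * ε) := F
    have hK6 : K * (m5 ((G n).rel (k0 n) i i') + B.d n ^ x) ≤ 6 * K * g := by
      calc K * (m5 ((G n).rel (k0 n) i i') + B.d n ^ x) ≤ K * (6 * g) :=
            mul_le_mul_of_nonneg_left (by linarith) (by linarith)
        _ = 6 * K * g := by ring
    have h10 : |((G n).z k - (G n).z (k0 n)) * ((G n).rel (k0 n) (i0 n) i' 10 -
        (G n).rel (k0 n) (i0 n) i 10 - (G n).rel (k0 n) i i' 10)| ≤ K * (6 * K * g) := by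
      rw [abs_mul]
      exact mul_le_mul z1 (A10.trans hK6) (abs_nonneg _) (by linarith)
    have e1 : ((G n).rel (k0 n) (i0 n) i' 11 - (G n).rel (k0 n) (i0 n) i 11) +
        ((G n).z k - (G n).z (k0 n)) * ((G n).rel (k0 n) (i0 n) i' 10 -
          (G n).rel (k0 n) (i0 n) i 10) =
        (G n).rel k i i' 11 -
        ((G n).rel k i i' 11 - ((G n).rel (k0 n) i i' 11 -
          ((G n).z (k0 n) - (G n).z k) * (G n).rel (k0 n) i i' 10)) +
        ((G n).rel (k0 n) (i0 n) i' 11 - (G n).rel (k0 n) (i0 n) i 11 -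
          (G n).rel (k0 n) i i' 11) +
        ((G n).z k - (G n).z (k0 n)) * ((G n).rel (k0 n) (i0 n) i' 10 -
          (G n).rel (k0 n) (i0 n) i 10 - (G n).rel (k0 n) i i' 10) := by ring
    show |((G n).rel (k0 n) (i0 n) i' 11 - (G n).rel (k0 n) (i0 n) i 11) +
        ((G n).z k - (G n).z (k0 n)) * ((G n).rel (k0 n) (i0 n) i' 10 -
          (G n).rel (k0 n) (i0 n) i 10)| ≤ _
    rw [e1]
    refine le_mul_pow hK ?_
    rw [← hg]
    have t1 := abs_add_le ((G n).rel k i i' 11 -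
        ((G n).rel k i i' 11 - ((G n).rel (k0 n) i i' 11 -
          ((G n).z (k0 n) - (G n).z k) * (G n).rel (k0 n) i i' 10)) +
        ((G n).rel (k0 n) (i0 n) i' 11 - (G n).rel (k0 n) (i0 n) i 11 -
          (G n).rel (k0 n) i i' 11))
      (((G n).z k - (G n).z (k0 n)) * ((G n).rel (k0 n) (i0 n) i' 10 -
          (G n).rel (k0 n) (i0 n) i 10 - (G n).rel (k0 n) i i' 10))
    have t2 := abs_add_le ((G n).rel k i i' 11 -
        ((G n).rel k i i' 11 - ((G n).rel (k0 n) i i' 11 -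
          ((G n).z (k0 n) - (G n).z k) * (G n).rel (k0 n) i i' 10)))
      ((G n).rel (k0 n) (i0 n) i' 11 - (G n).rel (k0 n) (i0 n) i 11 -
          (G n).rel (k0 n) i i' 11)
    have t3 := abs_sub ((G n).rel k i i' 11)
      ((G n).rel k i i' 11 - ((G n).rel (k0 n) i i' 11 -
          ((G n).z (k0 n) - (G n).z k) * (G n).rel (k0 n) i i' 10))
    have k1 : 6 * K * g ≤ 6 * K ^ 2 * g := by
      refine mul_le_mul_of_nonneg_right ?_ hg0.le
      nlinarith
    have k2 : K * (6 * K * g) = 6 * K ^ 2 * g := by ring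
    have k3 : (1 + 18 * K ^ 2) * g = g + 3 * (6 * K ^ 2 * g) := by ring
    rw [k3]
    linarith
  · -- hQ
    intro C3 hC3
    refine ⟨max C3 c + 1, by positivity, fun t ht0 hty ε hε => ?_⟩
    filter_upwards [h0, hL, pair_loose H.toRUnif i0 k0 h0 lS hε,
      ev_const_le B hε (1 + 6 * K)] with n h0n hLn hpl hK i hi i' hi' hv ha
    obtain ⟨hI, hI', hrel⟩ := hpl i hi i' hi'
    have hK1 := hLn.K1
    rw [← hc] at hrel
    have hpow : ∀ t : ℝ, 0 < B.d n ^ t := fun t => rpos B n t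
    set g := B.d n ^ (t - max C3 c * ε) with hg
    have hyt : B.d n ^ (y - c * ε) ≤ g := rpow_anti B n (by
      have := mul_le_mul_of_nonneg_right (le_max_right C3 c) hε.le
      linarith)
    have hC3g : B.d n ^ (t - C3 * ε) ≤ g := rpow_anti B n (by
      have := mul_le_mul_of_nonneg_right (le_max_left C3 c) hε.le
      linarith)
    have hxg : B.d n ^ x ≤ g := (rpow_anti B n (by nlinarith)).trans hyt
    have hg0 : 0 < g := hpow _
    have q0 : |max (|(G n).rel (k0 n) i i' 3|) (|(G n).rel (k0 n) i i' 4|)| ≤ g :=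
      (hrel 0).trans hyt
    have q1 : |max (|(G n).rel (k0 n) i i' 5|) (|(G n).rel (k0 n) i i' 6|)| ≤ g :=
      (hrel 1).trans hyt
    have q2 : |(G n).rel (k0 n) i i' 9| ≤ g := (hrel 2).trans hyt
    have hm := m5_le q0 q1 q2
    have A10 := hLn.addP (k0 n) (i0 n) i i' h0n hI hI' 10 (by decide)
    have A11 := hLn.addP (k0 n) (i0 n) i i' h0n hI hI' 11 (by decide)
    have hK6 : K * (m5 ((G n).rel (k0 n) i i') + B.d n ^ x) ≤ 6 * K * g := by
      calc K * (m5 ((G n).rel (k0 n) i i') + B.d n ^ x) ≤ K * (6 * g) :=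
            mul_le_mul_of_nonneg_left (by linarith) (by linarith)
        _ = 6 * K * g := by ring
    have gen : ∀ s : Fin 12, |(G n).rel (k0 n) (i0 n) i' s - (G n).rel (k0 n) (i0 n) i s -
        (G n).rel (k0 n) i i' s| ≤ K * (m5 ((G n).rel (k0 n) i i') + B.d n ^ x) →
        |(G n).rel (k0 n) (i0 n) i' s - (G n).rel (k0 n) (i0 n) i s| ≤ B.d n ^ (t - C3 * ε) →
        |(G n).rel (k0 n) i i' s| ≤ B.d n ^ (t - (max C3 c + 1) * ε) := by
      intro s h1 h2
      refine le_mul_pow hK ?_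
      rw [← hg]
      have e1 : (G n).rel (k0 n) i i' s = ((G n).rel (k0 n) (i0 n) i' s -
          (G n).rel (k0 n) (i0 n) i s) - ((G n).rel (k0 n) (i0 n) i' s -
          (G n).rel (k0 n) (i0 n) i s - (G n).rel (k0 n) i i' s) := by ring
      rw [e1]
      refine (abs_sub _ _).trans ?_
      linarith
    have fin : ∀ u : ℝ, u ≤ B.d n ^ (y - c * ε) → u ≤ B.d n ^ (y - (max C3 c + 1) * ε) := by
      intro u hu
      refine hu.trans (rpow_anti B n ?_)
      have := mul_le_mul_of_nonneg_right (le_max_right C3 c) hε.le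
      nlinarith
    intro j
    rw [rb n]
    fin_cases j
    · exact fin _ (hrel 0)
    · exact fin _ (hrel 1)
    · exact fin _ (hrel 2)
    · exact gen 10 A10 hv
    · exact gen 11 A11 ha
  · intro t h1 h2
    rw [hr t t h1 h2 h1 h2]
    linarith
  · rw [hr 0 y le_rfl hy.le hy.le le_rfl]
    linarith

/-- **(K1) and (F1)** -/
theorem facts_C (H : RModel B (fun n => mrg (G n)) σ R Leg ν D) (i0 k0 : ℕ → ℕ)
    (h0 : ∀ᶠ n in (U : Filter ℕ), (i0 n, k0 n) ∈ (G n).I) {y : ℝ} (hy : 0 < y) (hyx : y ≤ x)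
    (hyR : y ≤ R) (hL : ∀ᶠ n in (U : Filter ℕ), Law (G n) K (B.d n ^ x))
    (hT : ∀ᶠ n in (U : Filter ℕ), Thin2 (G n) K (B.d n ^ x) (b1 n) (b2 n))
    (hleg : ∀ t1 t2 : ℝ, 0 ≤ t1 → t1 ≤ y → 0 ≤ t2 → t2 ≤ y → ![t1, t2, 0, 0, 0] ∈ Leg)
    {rC rX : ℝ} (hr : ∀ t1 t2 : ℝ, 0 ≤ t1 → t1 ≤ y → 0 ≤ t2 → t2 ≤ y →
      ν ![t1, t2, 0, 0, 0] = ν 0 - (rC * t1 + rX * t2)) :
    (0 < rC → σ ≤ rX) ∧ (1 - σ < rC → 1 ≤ rX) := by
  have hD := H.D1
  have hD0 : 0 < D := by linarith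
  have l0 : (0 : Fin 5 → ℝ) ∈ Leg := by
    rw [zero5]
    exact hleg 0 0 le_rfl hy.le le_rfl hy.le
  have rb : ∀ n : ℕ, (mrg (G n)).ρ = B.d n := fun n => H.toRUnif.base n
  refine pin_model H i0 k0 h0 0 0 ![0, y, 0, 0, 0] l0 l0 (hleg 0 y le_rfl hy.le hy.le le_rfl) ?_
    hy hyR (xF G b1 b2 i0 k0) (cF G b1 b2 i0 k0)
    (fun t => ![t, t, 0, 0, 0]) (fun t h1 h2 => hleg t t h1 h2 h1 h2) (C1 := 1) one_pos
    ?_ ?_ ?_ ?_ ?_ ?_ ?_
  · intro j
    fin_cases j <;> simp [hy.le]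
  · intro ε hε
    filter_upwards [h0, hL, ev_const_le B hε K] with n h0n hLn hK k hk
    rw [one_mul]
    exact (hLn.zb k hk (k0 n) (H.toRUnif.memZ h0n)).trans hK
  · intro ε hε
    filter_upwards [h0, hL, hT, ev_const_le B hε (4 * K)] with n h0n hLn hTn hK i hi i' hi'
    have hI := mem_slice_mrg H.toRUnif hi
    have hI' := mem_slice_mrg H.toRUnif hi'
    have he1 : B.d n ^ x ≤ 1 := Real.rpow_le_one (B.pos n).le (B.lt n).le (by linarith)
    have g1 := (hLn.slab he1 hTn h0n hI hI).1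
    have g2 := (hLn.slab he1 hTn h0n hI' hI').1
    have g1' : |cF G b1 b2 i0 k0 n i| ≤ 2 * K := g1
    have g2' : |cF G b1 b2 i0 k0 n i'| ≤ 2 * K := g2
    have g3 := abs_sub (cF G b1 b2 i0 k0 n i) (cF G b1 b2 i0 k0 n i')
    rw [one_mul]
    linarith
  · -- hT
    intro ε hε
    filter_upwards [hL, ev_const_le B hε K] with n hLn hK k hk i hi i' hi' hIk hIk'
    have bd := hLn.bd k i i' hIk hIk'
    intro j
    rw [rb n]
    have fin0 : ∀ u : ℝ, u ≤ K → u ≤ B.d n ^ (0 - 1 * ε) := by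
      intro u hu
      refine hu.trans (hK.trans (rpow_anti B n ?_))
      linarith
    have e : (0 : Fin 5 → ℝ) j = 0 := rfl
    rw [e]
    fin_cases j
    · exact fin0 _ (max_abs_le (bd 3) (bd 4))
    · exact fin0 _ (max_abs_le (bd 5) (bd 6))
    · exact fin0 _ (bd 9)
    · exact fin0 _ (bd 10)
    · exact fin0 _ (bd 11)
  · -- hgeo
    intro C2 hC2
    refine ⟨C2 + 1, by positivity, fun ε hε => ?_⟩
    filter_upwards [h0, hL, hT, ev_const_le B hε (2 + 6 * K ^ 2)] with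
      n h0n hLn hTn hK k hk i hi i' hi' hIk hIk' hlo
    have hI := mem_slice_mrg H.toRUnif hi
    have hI' := mem_slice_mrg H.toRUnif hi'
    have hK1 := hLn.K1
    have hb := hTn.unit
    have hpow : ∀ t : ℝ, 0 < B.d n ^ t := fun t => rpos B n t
    set g := B.d n ^ (y - C2 * ε) with hg
    have hg0 : 0 < g := hpow _
    have hxg : B.d n ^ x ≤ g := rpow_anti B n (by nlinarith)
    have hKg : K * B.d n ^ x ≤ K * g := mul_le_mul_of_nonneg_left hxg (by linarith)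
    have z1 := hLn.zb k hk (k0 n) (H.toRUnif.memZ h0n)
    have a3 := hLn.add (k0 n) (i0 n) i i' h0n hI hI' 3 (by decide)
    have a4 := hLn.add (k0 n) (i0 n) i i' h0n hI hI' 4 (by decide)
    have a5 := hLn.add (k0 n) (i0 n) i i' h0n hI hI' 5 (by decide)
    have a6 := hLn.add (k0 n) (i0 n) i i' h0n hI hI' 6 (by decide)
    obtain ⟨E5, E6⟩ := hLn.evX (k0 n) k i i' hI hI' hIk hIk'
    have F := hlo 1
    rw [rb n] at F
    have F' : |max (|(G n).rel k i i' 5|) (|(G n).rel k i i' 6|)| ≤ g := F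
    obtain ⟨F5, F6⟩ := of_max_abs_le F'
    have e1 : (xF G b1 b2 i0 k0 n i' - xF G b1 b2 i0 k0 n i) +
        ((G n).z k - (G n).z (k0 n)) * (cF G b1 b2 i0 k0 n i' - cF G b1 b2 i0 k0 n i) =
        tau (b1 n) (b2 n) ((G n).rel k i i' 5) ((G n).rel k i i' 6) -
        tau (b1 n) (b2 n)
          ((G n).rel k i i' 5 - ((G n).rel (k0 n) i i' 5 -
            ((G n).z (k0 n) - (G n).z k) * (G n).rel (k0 n) i i' 3))
          ((G n).rel k i i' 6 - ((G n).rel (k0 n) i i' 6 -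
            ((G n).z (k0 n) - (G n).z k) * (G n).rel (k0 n) i i' 4)) +
        tau (b1 n) (b2 n)
          ((G n).rel (k0 n) (i0 n) i' 5 - (G n).rel (k0 n) (i0 n) i 5 - (G n).rel (k0 n) i i' 5)
          ((G n).rel (k0 n) (i0 n) i' 6 - (G n).rel (k0 n) (i0 n) i 6 - (G n).rel (k0 n) i i' 6) +
        ((G n).z k - (G n).z (k0 n)) * tau (b1 n) (b2 n)
          ((G n).rel (k0 n) (i0 n) i' 3 - (G n).rel (k0 n) (i0 n) i 3 - (G n).rel (k0 n) i i' 3)
          ((G n).rel (k0 n) (i0 n) i' 4 - (G n).rel (k0 n) (i0 n) i 4 -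
            (G n).rel (k0 n) i i' 4) := by
      unfold xF cF tau
      ring
    show |(xF G b1 b2 i0 k0 n i' - xF G b1 b2 i0 k0 n i) +
        ((G n).z k - (G n).z (k0 n)) * (cF G b1 b2 i0 k0 n i' - cF G b1 b2 i0 k0 n i)| ≤ _
    rw [e1]
    refine le_mul_pow hK ?_
    rw [← hg]
    have T0 := (tau_le hb ((G n).rel k i i' 5) ((G n).rel k i i' 6))
    have T1 := (tau_le hb ((G n).rel k i i' 5 - ((G n).rel (k0 n) i i' 5 -
            ((G n).z (k0 n) - (G n).z k) * (G n).rel (k0 n) i i' 3))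
          ((G n).rel k i i' 6 - ((G n).rel (k0 n) i i' 6 -
            ((G n).z (k0 n) - (G n).z k) * (G n).rel (k0 n) i i' 4)))
    have T2 := (tau_le hb
      ((G n).rel (k0 n) (i0 n) i' 5 - (G n).rel (k0 n) (i0 n) i 5 - (G n).rel (k0 n) i i' 5)
      ((G n).rel (k0 n) (i0 n) i' 6 - (G n).rel (k0 n) (i0 n) i 6 - (G n).rel (k0 n) i i' 6))
    have T3 := (tau_le hb
      ((G n).rel (k0 n) (i0 n) i' 3 - (G n).rel (k0 n) (i0 n) i 3 - (G n).rel (k0 n) i i' 3)
      ((G n).rel (k0 n) (i0 n) i' 4 - (G n).rel (k0 n) (i0 n) i 4 - (G n).rel (k0 n) i i' 4))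
    set t0 := tau (b1 n) (b2 n) ((G n).rel k i i' 5) ((G n).rel k i i' 6)
    set t1 := tau (b1 n) (b2 n) ((G n).rel k i i' 5 - ((G n).rel (k0 n) i i' 5 -
            ((G n).z (k0 n) - (G n).z k) * (G n).rel (k0 n) i i' 3))
          ((G n).rel k i i' 6 - ((G n).rel (k0 n) i i' 6 -
            ((G n).z (k0 n) - (G n).z k) * (G n).rel (k0 n) i i' 4))
    set t2 := tau (b1 n) (b2 n)
      ((G n).rel (k0 n) (i0 n) i' 5 - (G n).rel (k0 n) (i0 n) i 5 - (G n).rel (k0 n) i i' 5)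
      ((G n).rel (k0 n) (i0 n) i' 6 - (G n).rel (k0 n) (i0 n) i 6 - (G n).rel (k0 n) i i' 6)
    set t3 := tau (b1 n) (b2 n)
      ((G n).rel (k0 n) (i0 n) i' 3 - (G n).rel (k0 n) (i0 n) i 3 - (G n).rel (k0 n) i i' 3)
      ((G n).rel (k0 n) (i0 n) i' 4 - (G n).rel (k0 n) (i0 n) i 4 - (G n).rel (k0 n) i i' 4)
    have T3' : |t3| ≤ 2 * (K * g) := by linarith
    have T4 : |((G n).z k - (G n).z (k0 n)) * t3| ≤ K * (2 * (K * g)) := by
      rw [abs_mul]
      exact mul_le_mul z1 T3' (abs_nonneg _) (by linarith)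
    have s1 := abs_add_le (t0 - t1 + t2) (((G n).z k - (G n).z (k0 n)) * t3)
    have s2 := abs_add_le (t0 - t1) t2
    have s3 := abs_sub t0 t1
    have k1 : K * g ≤ K ^ 2 * g := by
      refine mul_le_mul_of_nonneg_right ?_ hg0.le
      nlinarith
    have k2 : K * (2 * (K * g)) = 2 * (K ^ 2 * g) := by ring
    have k3 : (2 + 6 * K ^ 2) * g = 2 * g + 6 * (K ^ 2 * g) := by ring
    rw [k3]
    linarith
  · -- hQ
    intro C3 hC3
    refine ⟨C3 + 1, by positivity, fun t ht0 hty ε hε => ?_⟩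
    filter_upwards [h0, hL, hT, ev_const_le B hε (1 + 3 * K)] with
      n h0n hLn hTn hK i hi i' hi' hv ha
    have hI := mem_slice_mrg H.toRUnif hi
    have hI' := mem_slice_mrg H.toRUnif hi'
    have hK1 := hLn.K1
    have hpow : ∀ t : ℝ, 0 < B.d n ^ t := fun t => rpos B n t
    have he1 : B.d n ^ x ≤ 1 := Real.rpow_le_one (B.pos n).le (B.lt n).le (by linarith)
    obtain ⟨-, -, c1, -, x1, -, -⟩ := hLn.slab he1 hTn h0n hI hI'
    set g := B.d n ^ (t - C3 * ε) with hg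
    have hg0 : 0 < g := hpow _
    have hxg : B.d n ^ x ≤ g := rpow_anti B n (by nlinarith)
    have hKg : K * B.d n ^ x ≤ K * g := mul_le_mul_of_nonneg_left hxg (by linarith)
    have bd := hLn.bd (k0 n) i i' hI hI'
    have c1' : |max (|(G n).rel (k0 n) i i' 3|) (|(G n).rel (k0 n) i i' 4|)| ≤
        |cF G b1 b2 i0 k0 n i' - cF G b1 b2 i0 k0 n i| + 3 * (K * B.d n ^ x) := c1
    have x1' : |max (|(G n).rel (k0 n) i i' 5|) (|(G n).rel (k0 n) i i' 6|)| ≤
        |xF G b1 b2 i0 k0 n i' - xF G b1 b2 i0 k0 n i| + 3 * (K * B.d n ^ x) := x1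
    have e3 : (1 + 3 * K) * g = g + 3 * (K * g) := by ring
    have F0 : |max (|(G n).rel (k0 n) i i' 3|) (|(G n).rel (k0 n) i i' 4|)| ≤
        B.d n ^ (t - (C3 + 1) * ε) := by
      refine le_mul_pow hK ?_
      rw [← hg, e3]
      linarith
    have F1 : |max (|(G n).rel (k0 n) i i' 5|) (|(G n).rel (k0 n) i i' 6|)| ≤
        B.d n ^ (t - (C3 + 1) * ε) := by
      refine le_mul_pow hK ?_
      rw [← hg, e3]
      linarith
    have fin0 : ∀ u : ℝ, u ≤ K → u ≤ B.d n ^ (0 - (C3 + 1) * ε) := by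
      intro u hu
      refine (hu.trans (by linarith : K ≤ 1 + 3 * K)).trans (hK.trans (rpow_anti B n ?_))
      nlinarith
    intro j
    rw [rb n]
    fin_cases j
    · exact F0
    · exact F1
    · exact fin0 _ (bd 9)
    · exact fin0 _ (bd 10)
    · exact fin0 _ (bd 11)
  · intro t h1 h2
    rw [hr t t h1 h2 h1 h2]
    linarith
  · rw [hr 0 y le_rfl hy.le hy.le le_rfl]
    linarith

end seq

end Crest.Agent.R116.Hk538
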