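import Crest.Agent.R116.Hk3_538

/-!
# R116, K side, [II3] (helper538), part 4: any legal base with the walls `X = z + C`, `H = C + X`,
`F = z + P` tight

* `compOk_sides` : `CompOk (compW W n)` from `Sides` and the five tight walls;
* `Tight X` : the tight walls; `law_tight` : `Law (W.cfg E n) 200 (ρ^tp)`.
-/

set_option autoImplicit false
set_option linter.unusedVariables false
set_option linter.unusedSectionVars false

open Filter Topology Finset

namespace Crest.Agent.R116.Hk538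

open Crest.Agent.R138.Ex926 (Base U)
open Crest.Agent.R136.Gf356 Crest.Agent.R136.Qg926 Crest.Agent.R116.EvL504
open Crest.Agent.R116.PL504 Crest.Agent.R116.ChL222

theorem rt {p q x : ℝ} (hq : 0 < q) (hp : 0 ≤ p) (h : p ≤ q) : |p * x / q| ≤ |x| := by
  rw [mul_div_assoc, mul_comm, div_mul_eq_mul_div, abs_div, abs_mul, abs_of_pos hq,
    abs_of_nonneg hp, div_le_iff₀ hq]
  exact mul_le_mul_of_nonneg_left h (abs_nonneg x)

theorem rt2 {p q a c : ℝ} (hq : 0 < q) (hp : 0 ≤ p) (h : p ≤ q) (ha : |a| ≤ 1) :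
    |p * (a * c) / q| ≤ |c| := (rt hq hp h).trans (ab1 ha)

theorem rt3 {p q a b c : ℝ} (hq : 0 < q) (hp : 0 ≤ p) (h : p ≤ q) (ha : |a| ≤ 1)
    (hb : |b| ≤ 1) : |p * (a * (b * c)) / q| ≤ |c| := (rt2 hq hp h ha).trans (ab1 hb)

theorem rt4 {p q a b b' c : ℝ} (hq : 0 < q) (hp : 0 ≤ p) (h : p ≤ q) (ha : |a| ≤ 1)
    (hb : |b| ≤ 1) (hb' : |b'| ≤ 1) : |p * (a * (b * (b' * c))) / q| ≤ |c| :=
  (rt3 hq hp h ha hb).trans (ab1 hb')

/-- the law in units with five tight walls -/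
theorem compOk_sides {u : Fin 12 → ℝ} (h : Sides u) (t5 : u 0 * u 3 = u 5) (t6 : u 0 * u 4 = u 6)
    (t9 : u 3 * u 5 = u 9) (t9' : u 4 * u 6 = u 9) (t11 : u 0 * u 10 = u 11) :
    CompOk (fun a c s => comp (fun j => u j * a j) (fun j => u j * c j) s / u s) := by
  have p0 := h.pos 0
  have p1 := h.pos 1
  have p2 := h.pos 2
  have p3 := h.pos 3
  have p4 := h.pos 4
  have p5 := h.pos 5
  have p6 := h.pos 6
  have p7 := h.pos 7
  have p8 := h.pos 8
  have p9 := h.pos 9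
  have p10 := h.pos 10
  have p11 := h.pos 11
  refine ⟨fun a c => ⟨?_, ?_, ?_, ?_⟩, fun a c => ?_, fun a c ha hc => ?_, fun a c ha hc => ?_⟩
  · show comp (fun j => u j * a j) (fun j => u j * c j) 3 / u 3 = _
    simp [comp]; field_simp
  · show comp (fun j => u j * a j) (fun j => u j * c j) 4 / u 4 = _
    simp [comp]; field_simp
  · show comp (fun j => u j * a j) (fun j => u j * c j) 5 / u 5 = _
    rw [div_eq_iff p5.ne']
    simp [comp]
    linear_combination (-(a 0 * c 3)) * t5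
  · show comp (fun j => u j * a j) (fun j => u j * c j) 6 / u 6 = _
    rw [div_eq_iff p6.ne']
    simp [comp]
    linear_combination (-(a 0 * c 4)) * t6
  · show comp (fun j => u j * a j) (fun j => u j * c j) 9 / u 9 = _
    rw [div_eq_iff p9.ne']
    simp [comp]
    linear_combination (-(u 3 * a 0 * c 3 ^ 2 / 2) - u 3 * a 3 * a 0 * c 3) * t5 +
      (-(u 4 * a 0 * c 4 ^ 2 / 2) - u 4 * a 4 * a 0 * c 4) * t6 +
      (-(a 0 * c 3 ^ 2 / 2) + a 3 * (c 5 - a 0 * c 3)) * t9 +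
      (-(a 0 * c 4 ^ 2 / 2) + a 4 * (c 6 - a 0 * c 4)) * t9'
  · show |comp (fun j => u j * a j) (fun j => u j * c j) 10 / u 10 - (a 10 + c 10)| ≤ _
    have e : comp (fun j => u j * a j) (fun j => u j * c j) 10 / u 10 - (a 10 + c 10) =
        -((u 3 * u 7) * (a 7 * c 3) / u 10) - (u 4 * u 8) * (a 8 * c 4) / u 10 -
        (u 2 * u 3 * u 3) * (a 2 * (c 3 * c 3)) / u 10 / 2 -
        (u 2 * u 4 * u 4) * (a 2 * (c 4 * c 4)) / u 10 / 2 -
        2 * ((u 1 * u 5 * u 3) * (a 1 * (c 5 * c 3)) / u 10) -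
        2 * ((u 1 * u 6 * u 4) * (a 1 * (c 6 * c 4)) / u 10) +
        2 * ((u 1 * u 9) * (a 1 * c 9) / u 10) := by
      have : comp (fun j => u j * a j) (fun j => u j * c j) 10 =
          u 10 * a 10 + u 10 * c 10 - u 7 * a 7 * (u 3 * c 3) - u 8 * a 8 * (u 4 * c 4) -
            u 2 * a 2 * (((u 3 * c 3) ^ 2 + (u 4 * c 4) ^ 2) / 2) -
            2 * (u 1 * a 1 * (u 5 * c 5 * (u 3 * c 3) + u 6 * c 6 * (u 4 * c 4) - u 9 * c 9)) := rfl
      rw [this]
      field_simp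
      ring
    rw [e]
    have r33 : u 2 * u 3 * u 3 ≤ u 10 := by
      calc u 2 * u 3 * u 3 ≤ u 7 * u 3 := mul_le_mul_of_nonneg_right h.w7 p3.le
        _ = u 3 * u 7 := mul_comm _ _
        _ ≤ _ := h.w10
    have r44 : u 2 * u 4 * u 4 ≤ u 10 := by
      calc u 2 * u 4 * u 4 ≤ u 8 * u 4 := mul_le_mul_of_nonneg_right h.w8 p4.le
        _ = u 4 * u 8 := mul_comm _ _
        _ ≤ _ := h.w10'
    have r53 : u 1 * u 5 * u 3 ≤ u 10 := by
      calc u 1 * u 5 * u 3 ≤ u 7 * u 3 := mul_le_mul_of_nonneg_right h.w7' p3.le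
        _ = u 3 * u 7 := mul_comm _ _
        _ ≤ _ := h.w10
    have r64 : u 1 * u 6 * u 4 ≤ u 10 := by
      calc u 1 * u 6 * u 4 ≤ u 8 * u 4 := mul_le_mul_of_nonneg_right h.w8' p4.le
        _ = u 4 * u 8 := mul_comm _ _
        _ ≤ _ := h.w10'
    have g1 := abs_le.1 (rt2 (c := c 3) p10 (by positivity) h.w10 (ha 7))
    have g2 := abs_le.1 (rt2 (c := c 4) p10 (by positivity) h.w10' (ha 8))
    have g3 := abs_le.1 (rt3 (c := c 3) p10 (by positivity) r33 (ha 2) (hc 3))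
    have g4 := abs_le.1 (rt3 (c := c 4) p10 (by positivity) r44 (ha 2) (hc 4))
    have g5 := abs_le.1 (rt3 (c := c 3) p10 (by positivity) r53 (ha 1) (hc 5))
    have g6 := abs_le.1 (rt3 (c := c 4) p10 (by positivity) r64 (ha 1) (hc 6))
    have g7 := abs_le.1 (rt2 (c := c 9) p10 (by positivity) h.w10'' (ha 1))
    unfold m5
    have n3 := abs_nonneg (c 3)
    have n4 := abs_nonneg (c 4)
    have n5 := abs_nonneg (c 5)
    have n6 := abs_nonneg (c 6)
    have n9 := abs_nonneg (c 9)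
    exact abs_le.2 ⟨by linarith [g1.1, g1.2, g2.1, g2.2, g3.1, g3.2, g4.1, g4.2, g5.1, g5.2,
      g6.1, g6.2, g7.1, g7.2], by linarith [g1.1, g1.2, g2.1, g2.2, g3.1, g3.2, g4.1, g4.2,
      g5.1, g5.2, g6.1, g6.2, g7.1, g7.2]⟩
  · show |comp (fun j => u j * a j) (fun j => u j * c j) 11 / u 11 -
      (a 11 + c 11 - a 0 * c 10)| ≤ _
    have e : comp (fun j => u j * a j) (fun j => u j * c j) 11 / u 11 -
        (a 11 + c 11 - a 0 * c 10) =
        -((u 5 * u 7) * (a 7 * c 5) / u 11) + (u 7 * u 0 * u 3) * (a 7 * (a 0 * c 3)) / u 11 -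
        (u 6 * u 8) * (a 8 * c 6) / u 11 + (u 8 * u 0 * u 4) * (a 8 * (a 0 * c 4)) / u 11 -
        (u 2 * u 9) * (a 2 * c 9) / u 11 +
        (u 2 * u 0 * u 3 * u 3) * (a 2 * (a 0 * (c 3 * c 3))) / u 11 / 2 +
        (u 2 * u 0 * u 4 * u 4) * (a 2 * (a 0 * (c 4 * c 4))) / u 11 / 2 -
        (u 1 * u 5 * u 5) * (a 1 * (c 5 * c 5)) / u 11 -
        (u 1 * u 6 * u 6) * (a 1 * (c 6 * c 6)) / u 11 +
        2 * ((u 1 * u 0 * u 5 * u 3) * (a 1 * (a 0 * (c 5 * c 3))) / u 11) +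
        2 * ((u 1 * u 0 * u 6 * u 4) * (a 1 * (a 0 * (c 6 * c 4))) / u 11) -
        2 * ((u 1 * u 0 * u 9) * (a 1 * (a 0 * c 9)) / u 11) := by
      have : comp (fun j => u j * a j) (fun j => u j * c j) 11 =
          u 11 * a 11 + u 11 * c 11 - u 0 * a 0 * (u 10 * c 10) -
            u 7 * a 7 * (u 5 * c 5 - u 0 * a 0 * (u 3 * c 3)) -
            u 8 * a 8 * (u 6 * c 6 - u 0 * a 0 * (u 4 * c 4)) -
            u 2 * a 2 * (u 9 * c 9 - u 0 * a 0 * (((u 3 * c 3) ^ 2 + (u 4 * c 4) ^ 2) / 2)) -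
            u 1 * a 1 * ((u 5 * c 5) ^ 2 + (u 6 * c 6) ^ 2 - 2 * (u 0 * a 0 *
              (u 5 * c 5 * (u 3 * c 3) + u 6 * c 6 * (u 4 * c 4) - u 9 * c 9))) := rfl
      rw [this]
      have e10 : u 0 * a 0 * (u 10 * c 10) = u 11 * (a 0 * c 10) := by rw [← t11]; ring
      rw [e10]
      field_simp
      ring
    rw [e]
    have s1 : u 7 * u 0 * u 3 ≤ u 11 := by
      calc u 7 * u 0 * u 3 = u 7 * (u 0 * u 3) := by ring
        _ = u 5 * u 7 := by rw [t5]; ring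
        _ ≤ _ := h.w11a
    have s2 : u 8 * u 0 * u 4 ≤ u 11 := by
      calc u 8 * u 0 * u 4 = u 8 * (u 0 * u 4) := by ring
        _ = u 6 * u 8 := by rw [t6]; ring
        _ ≤ _ := h.w11b
    have s3 : u 2 * u 0 * u 3 * u 3 ≤ u 11 := by
      calc u 2 * u 0 * u 3 * u 3 = u 2 * (u 3 * (u 0 * u 3)) := by ring
        _ = u 2 * u 9 := by rw [t5, t9]
        _ ≤ _ := h.w11c
    have s4 : u 2 * u 0 * u 4 * u 4 ≤ u 11 := by
      calc u 2 * u 0 * u 4 * u 4 = u 2 * (u 4 * (u 0 * u 4)) := by ring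
        _ = u 2 * u 9 := by rw [t6, t9']
        _ ≤ _ := h.w11c
    have s5 : u 1 * u 5 * u 5 ≤ u 11 := by
      calc u 1 * u 5 * u 5 ≤ u 7 * u 5 := mul_le_mul_of_nonneg_right h.w7' p5.le
        _ = u 5 * u 7 := mul_comm _ _
        _ ≤ _ := h.w11a
    have s6 : u 1 * u 6 * u 6 ≤ u 11 := by
      calc u 1 * u 6 * u 6 ≤ u 8 * u 6 := mul_le_mul_of_nonneg_right h.w8' p6.le
        _ = u 6 * u 8 := mul_comm _ _
        _ ≤ _ := h.w11b
    have s7 : u 1 * u 0 * u 5 * u 3 ≤ u 11 := by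
      calc u 1 * u 0 * u 5 * u 3 = u 1 * u 5 * (u 0 * u 3) := by ring
        _ = u 1 * u 5 * u 5 := by rw [t5]
        _ ≤ _ := s5
    have s8 : u 1 * u 0 * u 6 * u 4 ≤ u 11 := by
      calc u 1 * u 0 * u 6 * u 4 = u 1 * u 6 * (u 0 * u 4) := by ring
        _ = u 1 * u 6 * u 6 := by rw [t6]
        _ ≤ _ := s6
    have s9 : u 1 * u 0 * u 9 ≤ u 11 := by
      calc u 1 * u 0 * u 9 = u 0 * (u 1 * u 9) := by ring
        _ ≤ u 0 * u 10 := mul_le_mul_of_nonneg_left h.w10'' p0.le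
        _ = _ := t11
    have g1 := abs_le.1 (rt2 (c := c 5) p11 (by positivity) h.w11a (ha 7))
    have g2 := abs_le.1 (rt3 (c := c 3) p11 (by positivity) s1 (ha 7) (ha 0))
    have g3 := abs_le.1 (rt2 (c := c 6) p11 (by positivity) h.w11b (ha 8))
    have g4 := abs_le.1 (rt3 (c := c 4) p11 (by positivity) s2 (ha 8) (ha 0))
    have g5 := abs_le.1 (rt2 (c := c 9) p11 (by positivity) h.w11c (ha 2))
    have g6 := abs_le.1 (rt4 (c := c 3) p11 (by positivity) s3 (ha 2) (ha 0) (hc 3))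
    have g7 := abs_le.1 (rt4 (c := c 4) p11 (by positivity) s4 (ha 2) (ha 0) (hc 4))
    have g8 := abs_le.1 (rt3 (c := c 5) p11 (by positivity) s5 (ha 1) (hc 5))
    have g9 := abs_le.1 (rt3 (c := c 6) p11 (by positivity) s6 (ha 1) (hc 6))
    have g10 := abs_le.1 (rt4 (c := c 3) p11 (by positivity) s7 (ha 1) (ha 0) (hc 5))
    have g11 := abs_le.1 (rt4 (c := c 4) p11 (by positivity) s8 (ha 1) (ha 0) (hc 6))
    have g12 := abs_le.1 (rt3 (c := c 9) p11 (by positivity) s9 (ha 1) (ha 0))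
    unfold m5
    have n3 := abs_nonneg (c 3)
    have n4 := abs_nonneg (c 4)
    have n5 := abs_nonneg (c 5)
    have n6 := abs_nonneg (c 6)
    have n9 := abs_nonneg (c 9)
    exact abs_le.2 ⟨by linarith [g1.1, g1.2, g2.1, g2.2, g3.1, g3.2, g4.1, g4.2, g5.1, g5.2,
      g6.1, g6.2, g7.1, g7.2, g8.1, g8.2, g9.1, g9.2, g10.1, g10.2, g11.1, g11.2, g12.1, g12.2],
      by linarith [g1.1, g1.2, g2.1, g2.2, g3.1, g3.2, g4.1, g4.2, g5.1, g5.2,
      g6.1, g6.2, g7.1, g7.2, g8.1, g8.2, g9.1, g9.2, g10.1, g10.2, g11.1, g11.2, g12.1, g12.2]⟩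

/-- the tight walls of a base point -/
structure Tight (X : Fin 12 → ℝ) : Prop where
  x5 : X 5 = X 0 + X 3
  x6 : X 6 = X 0 + X 4
  x9 : X 9 = X 3 + X 5
  x9' : X 9 = X 4 + X 6
  x11 : X 11 = X 0 + X 10

section reg

variable {ι : ℕ → Type*} [∀ n, DecidableEq (ι n)] {W : Wnd 12 ι} {E : ∀ n, Finset (ι n)} {n : ℕ}
  {K tp : ℝ}

theorem side_mul (h : WL W K tp) {i j k : Fin 12} (hw : wtL i + wtL j = wtL k)
    (hX : W.X n k = W.X n i + W.X n j) : side W n i * side W n j = side W n k := by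
  unfold side
  rw [h.kap, h.kap, h.kap, ← hw, pow_add, hX, Real.rpow_add (W.B.pos n)]
  ring

theorem compOk_tight (h : WL W K tp) (g : W.Good n) (hX : Tight (W.X n)) :
    CompOk (compW W n) :=
  compOk_sides (h.sides g) (side_mul h rfl hX.x5) (side_mul h rfl hX.x6)
    (side_mul h rfl hX.x9) (side_mul h rfl hX.x9') (side_mul h rfl hX.x11)

/-- **the law at any legal base point with tight walls** -/
theorem law_tight (r : Reg W E n) (h : WL W K tp) (htp : 0 ≤ tp) (hX : Tight (W.X n)) :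
    Law (W.cfg E n) 200 (W.B'.d n ^ tp) :=
  law_of_reg r h (compOk_tight h r.good hX) htp

end reg

end Crest.Agent.R116.Hk538
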