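import Crest.Agent.R116.EvL4_504
import Crest.Agent.R136.Qg7_926

/-!
# R116, K-TEXT II-c, [II3] (helper120), part a: the window model of the light chart

* `bx u v` : window exponents, `u = (z, D, E, B)`, `v = (C, X, H, P, F)`.
* `stL S T K t` : static data of the windows (level slots `S`, refined slots `T`, resolution `t`,
  normalising constants `K ^ wtL`).
* `LinW S T t σ lam G r` : `lam (bx u v) = -(G u + Σ r v)`.
* `tan_shift` : tangents at a shifted base point.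
* **`exists_lmodel`** : from a profile and a tangent to a window `WL` and models.
-/

set_option autoImplicit false
set_option linter.unusedSectionVars false
set_option linter.unusedVariables false

open Filter Topology

namespace Crest.Agent.R116.II120

open Finset Crest.Agent.R138.Ex926 Crest.Agent.R136.Net191 Crest.Agent.R136.Gf356
open Crest.Agent.R136.Qg926 Crest.Agent.R116.ChL222 Crest.Agent.R116.PL504
open Crest.Agent.R116.EvL504

/-! ### exponents -/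

/-- window exponents: `u = (z, D, E, B)`, `v = (C, X, H, P, F)` -/
def bx (u : Fin 4 → ℝ) (v : Fin 5 → ℝ) : Fin 12 → ℝ :=
  ![u 0, u 1, u 2, v 0, v 0, v 1, v 1, u 3, u 3, v 2, v 3, v 4]

theorem bx0 (u : Fin 4 → ℝ) (v : Fin 5 → ℝ) : bx u v 0 = u 0 := rfl
theorem bx1 (u : Fin 4 → ℝ) (v : Fin 5 → ℝ) : bx u v 1 = u 1 := rfl
theorem bx2 (u : Fin 4 → ℝ) (v : Fin 5 → ℝ) : bx u v 2 = u 2 := rfl
theorem bx3 (u : Fin 4 → ℝ) (v : Fin 5 → ℝ) : bx u v 3 = v 0 := rfl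
theorem bx4 (u : Fin 4 → ℝ) (v : Fin 5 → ℝ) : bx u v 4 = v 0 := rfl
theorem bx5 (u : Fin 4 → ℝ) (v : Fin 5 → ℝ) : bx u v 5 = v 1 := rfl
theorem bx6 (u : Fin 4 → ℝ) (v : Fin 5 → ℝ) : bx u v 6 = v 1 := rfl
theorem bx7 (u : Fin 4 → ℝ) (v : Fin 5 → ℝ) : bx u v 7 = u 3 := rfl
theorem bx8 (u : Fin 4 → ℝ) (v : Fin 5 → ℝ) : bx u v 8 = u 3 := rfl
theorem bx9 (u : Fin 4 → ℝ) (v : Fin 5 → ℝ) : bx u v 9 = v 2 := rfl
theorem bx10 (u : Fin 4 → ℝ) (v : Fin 5 → ℝ) : bx u v 10 = v 3 := rfl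
theorem bx11 (u : Fin 4 → ℝ) (v : Fin 5 → ℝ) : bx u v 11 = v 4 := rfl

theorem all12 {p : Fin 12 → Prop} (h0 : p 0) (h1 : p 1) (h2 : p 2) (h3 : p 3) (h4 : p 4)
    (h5 : p 5) (h6 : p 6) (h7 : p 7) (h8 : p 8) (h9 : p 9) (h10 : p 10) (h11 : p 11)
    (k : Fin 12) : p k := by
  fin_cases k <;> assumption

theorem all4 {p : Fin 4 → Prop} (h0 : p 0) (h1 : p 1) (h2 : p 2) (h3 : p 3) (k : Fin 4) :
    p k := by
  fin_cases k <;> assumption

theorem all5 {p : Fin 5 → Prop} (h0 : p 0) (h1 : p 1) (h2 : p 2) (h3 : p 3) (h4 : p 4)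
    (k : Fin 5) : p k := by
  fin_cases k <;> assumption

theorem eq_bx {c : Fin 12 → ℝ} {u : Fin 4 → ℝ} {v : Fin 5 → ℝ} (h0 : c 0 = u 0) (h1 : c 1 = u 1)
    (h2 : c 2 = u 2) (h3 : c 3 = v 0) (h4 : c 4 = v 0) (h5 : c 5 = v 1) (h6 : c 6 = v 1)
    (h7 : c 7 = u 3) (h8 : c 8 = u 3) (h9 : c 9 = v 2) (h10 : c 10 = v 3) (h11 : c 11 = v 4) :
    c = bx u v :=
  funext fun k => all12 (p := fun k => c k = bx u v k) h0 h1 h2 h3 h4 h5 h6 h7 h8 h9 h10 h11 k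

theorem bx_all {u : Fin 4 → ℝ} {v : Fin 5 → ℝ} {p : ℝ → Prop} (hu : ∀ i, p (u i))
    (hv : ∀ i, p (v i)) (k : Fin 12) : p (bx u v k) :=
  all12 (p := fun k => p (bx u v k)) (hu 0) (hu 1) (hu 2) (hv 0) (hv 0) (hv 1) (hv 1) (hu 3)
    (hu 3) (hv 2) (hv 3) (hv 4) k

theorem bx_mem {u : Fin 4 → ℝ} {v : Fin 5 → ℝ} {t : ℝ} : bx u v ∈ Leg monL t ↔
    (∀ i, 0 ≤ u i ∧ u i ≤ t) ∧ (∀ i, 0 ≤ v i ∧ v i ≤ t) ∧ u 2 ≤ u 0 + u 1 ∧ v 1 ≤ u 0 + v 0 ∧
    u 3 ≤ u 2 + v 0 ∧ u 3 ≤ u 1 + v 1 ∧ v 2 ≤ v 0 + v 1 ∧ v 3 ≤ v 0 + u 3 ∧ v 3 ≤ u 1 + v 2 ∧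
    v 4 ≤ u 0 + v 3 ∧ v 4 ≤ v 1 + u 3 ∧ v 4 ≤ u 2 + v 2 := by
  constructor
  · rintro ⟨h1, h2⟩
    obtain ⟨g, w2, w5, -, w7, w7', -, -, w9, -, w10, -, w10', w11, w11', -, w11''⟩ :=
      legalL_iff.1 h1
    exact ⟨all4 ⟨g 0, h2 0⟩ ⟨g 1, h2 1⟩ ⟨g 2, h2 2⟩ ⟨g 7, h2 7⟩,
      all5 ⟨g 3, h2 3⟩ ⟨g 5, h2 5⟩ ⟨g 9, h2 9⟩ ⟨g 10, h2 10⟩ ⟨g 11, h2 11⟩,
      w2, w5, w7, w7', w9, w10, w10', w11, w11', w11''⟩
  · rintro ⟨hu, hv, w2, w5, w7, w7', w9, w10, w10', w11, w11', w11''⟩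
    exact ⟨legalL_iff.2 ⟨bx_all (p := fun a => 0 ≤ a) (fun i => (hu i).1) (fun i => (hv i).1),
      w2, w5, w5, w7, w7', w7, w7', w9, w9, w10, w10, w10', w11,
      w11', w11', w11''⟩, bx_all (p := fun a => a ≤ t) (fun i => (hu i).2) (fun i => (hv i).2)⟩

/-- level slots and refined slots of a light window -/
structure LvOk (S T : Finset (Fin 12)) : Prop where
  z : (0 : Fin 12) ∈ S
  sub : S ⊆ SL
  ST : S ⊆ T
  line : ∀ s, s ∉ SL → s ∈ T
  S78 : (7 : Fin 12) ∈ S ↔ (8 : Fin 12) ∈ S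
  T78 : (7 : Fin 12) ∈ T ↔ (8 : Fin 12) ∈ T
  /-- `B` in the height label needs `D`, `E` there -/
  B : (7 : Fin 12) ∈ S → (1 : Fin 12) ∈ S ∧ (2 : Fin 12) ∈ S
  /-- `E` a refined line slot needs `D` a refined line slot -/
  E : (2 : Fin 12) ∈ T → (2 : Fin 12) ∉ S → (1 : Fin 12) ∈ T ∧ (1 : Fin 12) ∉ S

/-- the line slots -/
def LS : Finset (Fin 12) := {3, 4, 5, 6, 9, 10, 11}

theorem lvOk_z : LvOk {0} (insert 0 LS) := ⟨by decide, by decide, by decide, by decide, by decide,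
  by decide, by decide, by decide⟩

theorem lvOk_SL : LvOk SL Finset.univ := ⟨by decide, by decide, by decide, by decide, by decide,
  by decide, by decide, by decide⟩

open Classical in
/-- `t` on `A`, `0` elsewhere -/
noncomputable def ind (A : Finset (Fin 12)) (t : ℝ) (k : Fin 12) : ℝ := if k ∈ A then t else 0

theorem ind_mem {A : Finset (Fin 12)} {t : ℝ} {k : Fin 12} (h : k ∈ A) : ind A t k = t := if_pos h

theorem ind_not {A : Finset (Fin 12)} {t : ℝ} {k : Fin 12} (h : k ∉ A) : ind A t k = 0 := if_neg h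

theorem ind_bd (A : Finset (Fin 12)) {t : ℝ} (ht : 0 ≤ t) (k : Fin 12) :
    0 ≤ ind A t k ∧ ind A t k ≤ t := by
  by_cases h : k ∈ A
  · rw [ind_mem h]; exact ⟨ht, le_rfl⟩
  · rw [ind_not h]; exact ⟨le_rfl, ht⟩

theorem ind_congr {A : Finset (Fin 12)} {t : ℝ} {k l : Fin 12} (h : k ∈ A ↔ l ∈ A) :
    ind A t k = ind A t l := by
  by_cases hk : k ∈ A
  · rw [ind_mem hk, ind_mem (h.1 hk)]
  · rw [ind_not hk, ind_not (fun hl => hk (h.2 hl))]

/-- indicator exponents of a set of slots, level part -/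
noncomputable def uA (A : Finset (Fin 12)) (t : ℝ) : Fin 4 → ℝ :=
  ![ind A t 0, ind A t 1, ind A t 2, ind A t 7]

theorem uA0 (A : Finset (Fin 12)) (t : ℝ) : uA A t 0 = ind A t 0 := rfl
theorem uA1 (A : Finset (Fin 12)) (t : ℝ) : uA A t 1 = ind A t 1 := rfl
theorem uA2 (A : Finset (Fin 12)) (t : ℝ) : uA A t 2 = ind A t 2 := rfl
theorem uA3 (A : Finset (Fin 12)) (t : ℝ) : uA A t 3 = ind A t 7 := rfl

theorem uA_bd (A : Finset (Fin 12)) {t : ℝ} (ht : 0 ≤ t) (i : Fin 4) :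
    0 ≤ uA A t i ∧ uA A t i ≤ t :=
  all4 (p := fun i => 0 ≤ uA A t i ∧ uA A t i ≤ t) (ind_bd A ht 0) (ind_bd A ht 1) (ind_bd A ht 2)
    (ind_bd A ht 7) i

/-- static data of the light windows -/
noncomputable def stL (S T : Finset (Fin 12)) (K t : ℝ) : WSt 12 where
  S := S
  kz := 0
  top := ind T t
  kap := fun s => K ^ wtL s
  Mw := monL
  R' := t

section

variable {S T : Finset (Fin 12)} {t : ℝ}

theorem top_eq (h : LvOk S T) : ind T t = bx (uA T t) (fun _ => t) := by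
  have hl := h.line
  exact eq_bx rfl rfl rfl (ind_mem (hl 3 (by decide))) (ind_mem (hl 4 (by decide)))
    (ind_mem (hl 5 (by decide))) (ind_mem (hl 6 (by decide))) rfl (ind_congr h.T78.symm)
    (ind_mem (hl 9 (by decide))) (ind_mem (hl 10 (by decide))) (ind_mem (hl 11 (by decide)))

theorem cut_ind0 (S T : Finset (Fin 12)) (t : ℝ) (k : Fin 12) :
    cut S (ind T t) 0 k = ind (T \ S) t k := by
  by_cases h : k ∈ S
  · rw [cut_of_mem h, ind_not (fun h' => (mem_sdiff.1 h').2 h)]; rfl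
  · rw [cut_of_notMem h]
    by_cases h' : k ∈ T
    · rw [ind_mem h', ind_mem (mem_sdiff.2 ⟨h', h⟩)]
    · rw [ind_not h', ind_not (fun h'' => h' (mem_sdiff.1 h'').1)]

theorem cut_0ind (h : LvOk S T) (t : ℝ) (k : Fin 12) : cut S 0 (ind T t) k = ind S t k := by
  by_cases hk : k ∈ S
  · rw [cut_of_mem hk, ind_mem hk, ind_mem (h.ST hk)]
  · rw [cut_of_notMem hk, ind_not hk]; rfl

theorem LvOk.notS (h : LvOk S T) {s : Fin 12} (hs : s ∉ SL) : s ∉ S := fun h' => hs (h.sub h')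

theorem LvOk.mem_sd (h : LvOk S T) {s : Fin 12} (hs : s ∉ SL) : s ∈ T \ S :=
  mem_sdiff.2 ⟨h.line s hs, h.notS hs⟩

theorem cut_lin (h : LvOk S T) : cut S (ind T t) 0 = bx (uA (T \ S) t) (fun _ => t) := by
  have e : cut S (ind T t) 0 = ind (T \ S) t := funext (cut_ind0 S T t)
  have h8 : (8 : Fin 12) ∈ T \ S ↔ (7 : Fin 12) ∈ T \ S := by
    simp only [Finset.mem_sdiff, h.T78, h.S78]
  rw [e]
  exact eq_bx rfl rfl rfl (ind_mem (h.mem_sd (by decide))) (ind_mem (h.mem_sd (by decide)))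
    (ind_mem (h.mem_sd (by decide))) (ind_mem (h.mem_sd (by decide))) rfl (ind_congr h8)
    (ind_mem (h.mem_sd (by decide))) (ind_mem (h.mem_sd (by decide)))
    (ind_mem (h.mem_sd (by decide)))

theorem cut_lev (h : LvOk S T) : cut S 0 (ind T t) = bx (uA S t) (fun _ => 0) := by
  have e : cut S 0 (ind T t) = ind S t := funext (cut_0ind h t)
  rw [e]
  exact eq_bx rfl rfl rfl (ind_not (h.notS (by decide))) (ind_not (h.notS (by decide)))
    (ind_not (h.notS (by decide))) (ind_not (h.notS (by decide))) rfl (ind_congr h.S78.symm)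
    (ind_not (h.notS (by decide))) (ind_not (h.notS (by decide))) (ind_not (h.notS (by decide)))

theorem top_mem (h : LvOk S T) (ht : 0 ≤ t) : ind T t ∈ Leg monL t := by
  rw [top_eq h, bx_mem]
  have b := uA_bd T ht
  have e0 : uA T t 0 = t := ind_mem (h.ST h.z)
  refine ⟨b, fun i => ⟨ht, le_rfl⟩, ?_, ?_, ?_, ?_, ?_, ?_, ?_, ?_, ?_, ?_⟩
  · rw [e0]; linarith [(b 1).1, (b 2).2]
  · linarith [(b 0).1]
  · linarith [(b 2).1, (b 3).2]
  · linarith [(b 1).1, (b 3).2]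
  · linarith
  · linarith [(b 3).1]
  · linarith [(b 1).1]
  · linarith [(b 0).1]
  · linarith [(b 3).1]
  · linarith [(b 2).1]

theorem lin_mem (h : LvOk S T) (ht : 0 ≤ t) : cut S (ind T t) 0 ∈ Leg monL t := by
  rw [cut_lin h, bx_mem]
  have b := uA_bd (T \ S) ht
  refine ⟨b, fun i => ⟨ht, le_rfl⟩, ?_, ?_, ?_, ?_, ?_, ?_, ?_, ?_, ?_, ?_⟩
  · by_cases a : (2 : Fin 12) ∈ T \ S
    · obtain ⟨a1, a2⟩ := mem_sdiff.1 a
      obtain ⟨c1, c2⟩ := h.E a1 a2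
      have e1 : uA (T \ S) t 1 = t := ind_mem (mem_sdiff.2 ⟨c1, c2⟩)
      linarith [(b 0).1, (b 2).2]
    · have e2 : uA (T \ S) t 2 = 0 := ind_not a
      linarith [(b 0).1, (b 1).1]
  · linarith [(b 0).1]
  · linarith [(b 2).1, (b 3).2]
  · linarith [(b 1).1, (b 3).2]
  · linarith
  · linarith [(b 3).1]
  · linarith [(b 1).1]
  · linarith [(b 0).1]
  · linarith [(b 3).1]
  · linarith [(b 2).1]

theorem lev_mem (h : LvOk S T) (ht : 0 ≤ t) : cut S 0 (ind T t) ∈ Leg monL t := by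
  rw [cut_lev h, bx_mem]
  have b := uA_bd S ht
  have e0 : uA S t 0 = t := ind_mem h.z
  refine ⟨b, fun i => ⟨le_rfl, ht⟩, ?_, ?_, ?_, ?_, ?_, ?_, ?_, ?_, ?_, ?_⟩
  · rw [e0]; linarith [(b 1).1, (b 2).2]
  · linarith [(b 0).1]
  · by_cases a : (7 : Fin 12) ∈ S
    · have e2 : uA S t 2 = t := ind_mem (h.B a).2
      linarith [(b 3).2]
    · have e3 : uA S t 3 = 0 := ind_not a
      linarith [(b 2).1]
  · by_cases a : (7 : Fin 12) ∈ S
    · have e2 : uA S t 1 = t := ind_mem (h.B a).1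
      linarith [(b 3).2]
    · have e3 : uA S t 3 = 0 := ind_not a
      linarith [(b 1).1]
  · linarith
  · linarith [(b 3).1]
  · linarith [(b 1).1]
  · linarith [(b 0).1]
  · linarith [(b 3).1]
  · linarith [(b 2).1]

/-- **the windows are legal** -/
theorem stL_ok (h : LvOk S T) {K : ℝ} (hK : 0 < K) (ht : 0 ≤ t) :
    (stL S T K t).Ok monL (Leg monL t) where
  R0 := ht
  leg := Set.Subset.refl _
  top_leg := top_mem h ht
  lin_leg := lin_mem h ht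
  lev_leg := lev_mem h ht
  kzS := h.z
  kz0 := rfl
  kzw := rfl
  kap := fun s => pow_pos hK _

end

/-! ### linear tangents -/

/-- **the tangent in the window**: line slots linear and separated from the level slots -/
structure LinW (S T : Finset (Fin 12)) (t σ : ℝ) (lam : (Fin 12 → ℝ) → ℝ)
    (G : (Fin 4 → ℝ) → ℝ) (r : Fin 5 → ℝ) : Prop where
  σ0 : 0 ≤ σ
  σ1 : σ ≤ 1
  lin : ∀ u v, bx u v ∈ Leg monL t → lam (bx u v) = -(G u + ∑ i, r i * v i)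
  own : ∀ y : ℝ, 0 ≤ y → y ≤ t → σ * y ≤ G ![y, 0, 0, 0]
  sup : G (uA (T \ S) t) + G (uA S t) ≤ G (uA T t)

theorem LinW.dens {S T : Finset (Fin 12)} {t σ : ℝ} {lam : (Fin 12 → ℝ) → ℝ}
    {G : (Fin 4 → ℝ) → ℝ} {r : Fin 5 → ℝ} (h : LinW S T t σ lam G r) (hl : LvOk S T)
    (ht : 0 < t) {K : ℝ} (hK : 0 < K) : (stL S T K t).Dens lam σ t where
  dens := by
    have h1 := top_mem hl ht.le
    have h2 := lin_mem hl ht.le
    have h3 := lev_mem hl ht.le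
    show lam (ind T t) ≤ lam (cut S (ind T t) 0) + lam (cut S 0 (ind T t))
    rw [cut_lin hl] at h2
    rw [cut_lev hl] at h3
    rw [cut_lin hl, cut_lev hl]
    rw [top_eq hl] at h1 ⊢
    rw [h.lin _ _ h1, h.lin _ _ h2, h.lin _ _ h3]
    have := h.sup
    simp only [mul_zero, Finset.sum_const_zero]
    linarith
  σ0 := h.σ0
  σ1 := h.σ1
  hR := le_of_eq (ind_mem (hl.ST hl.z)).symm
  frost := by
    intro y hy0 hyt
    show lam (Pi.single (0 : Fin 12) y) ≤ _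
    have z0 : ∀ k : Fin 12, k ≠ 0 → (Pi.single (0 : Fin 12) y : Fin 12 → ℝ) k = 0 :=
      fun k hk => by simp [hk]
    have z1 : (Pi.single (0 : Fin 12) y : Fin 12 → ℝ) 0 = y := by simp
    have e : (Pi.single (0 : Fin 12) y : Fin 12 → ℝ) = bx ![y, 0, 0, 0] (fun _ => 0) :=
      eq_bx z1 (z0 1 (by decide)) (z0 2 (by decide)) (z0 3 (by decide))
        (z0 4 (by decide)) (z0 5 (by decide)) (z0 6 (by decide)) (z0 7 (by decide))
        (z0 8 (by decide)) (z0 9 (by decide)) (z0 10 (by decide)) (z0 11 (by decide))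
    have hm : bx ![y, 0, 0, 0] (fun _ => 0) ∈ Leg monL t := by
      rw [bx_mem]
      have a0 : (![y, 0, 0, 0] : Fin 4 → ℝ) 0 = y := rfl
      have a1 : (![y, 0, 0, 0] : Fin 4 → ℝ) 1 = 0 := rfl
      have a2 : (![y, 0, 0, 0] : Fin 4 → ℝ) 2 = 0 := rfl
      have a3 : (![y, 0, 0, 0] : Fin 4 → ℝ) 3 = 0 := rfl
      refine ⟨all4 ⟨hy0, hyt⟩ ⟨le_rfl, ht.le⟩ ⟨le_rfl, ht.le⟩ ⟨le_rfl, ht.le⟩,
        fun i => ⟨le_rfl, ht.le⟩, ?_, ?_, ?_, ?_, ?_, ?_, ?_, ?_, ?_, ?_⟩ <;>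
      (first | (rw [a0]; linarith) | linarith [a0, a1, a2, a3])
    rw [e, h.lin _ _ hm]
    have := h.own y hy0 hyt
    simp only [mul_zero, Finset.sum_const_zero]
    linarith

/-- **tangents at a shifted base point** -/
theorem tan_shift {V : Type*} [NormedAddCommGroup V] [NormedSpace ℝ V] {P D D' : Set V}
    {ν lam : V → ℝ} {x : ℕ → V} {h : ℕ → ℝ} (H : IsTan P D ν x h lam) {c0 : V}
    (h0 : (0 : V) ∈ D') (hD : ∀ c ∈ D', c0 + c ∈ D) :
    IsTan P D' ν (fun l => x l + h l • c0) h (fun c => lam (c0 + c) - lam c0) := by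
  intro C ε hε
  have hc0 : c0 ∈ D := by have := hD 0 h0; rwa [add_zero] at this
  filter_upwards [H (‖c0‖ + |C|) (ε / 2) (by positivity)] with l hl c hc hcC
  have a1 := hl (c0 + c) (hD c hc) ((norm_add_le _ _).trans (by
    have := le_abs_self C
    linarith))
  have a2 := hl c0 hc0 (by have := abs_nonneg C; linarith)
  have e1 : x l + h l • (c0 + c) = x l + h l • c0 + h l • c := by
    rw [smul_add, add_assoc]
  rw [e1] at a1
  refine ⟨a1.1, ?_⟩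
  have b1 := abs_le.1 a1.2
  have b2 := abs_le.1 a2.2
  rw [abs_le]
  constructor <;> nlinarith [b1.1, b1.2, b2.1, b2.2]

variable {ι : ℕ → Type*} [∀ n, DecidableEq (ι n)]

/-- **from a profile and a tangent to light windows and models** -/
theorem exists_lmodel {B : Base} {I J : ∀ n, Finset (ι n)} {co : ∀ n, ι n → ι n → Fin 12 → ℝ}
    {C R : ℝ} {ν : (Fin 12 → ℝ) → ℝ} (hN : NProf B I J co monL C R ν)
    (hcoc : ∀ n, Coc (co n)) {x : ℕ → Fin 12 → ℝ} {h : ℕ → ℝ} (hpos : ∀ l, 0 < h l)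
    {D : Set (Fin 12 → ℝ)} {lam : (Fin 12 → ℝ) → ℝ} (htan : IsTan (Leg monL R) D ν x h lam)
    {c0 : Fin 12 → ℝ} {t : ℝ} (ht : 0 < t) (hD : ∀ c ∈ Leg monL t, c0 + c ∈ D)
    {S T : Finset (Fin 12)} (hS : LvOk S T) {σ : ℝ} {G : (Fin 4 → ℝ) → ℝ} {r : Fin 5 → ℝ}
    (hL : LinW S T t σ (fun c => lam (c0 + c) - lam c0) G r)
    (s : ℕ → ℕ → ℝ) (hs : ∀ i, B.Sub (s i)) (i₀ : ∀ n, ι n) :
    ∃ k : ℕ → ℕ, Tendsto k U atTop ∧ ∀ k' : ℕ → ℕ, Tendsto k' U atTop →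
      (∀ᶠ n in (U : Filter ℕ), k' n ≤ k n) → ∃ W : Wnd 12 ι,
        WL W (cK0 monL C) t ∧ W.B = B ∧ W.I = I ∧ W.J = J ∧ W.co = co ∧ W.C = C ∧
        (W.X = fun n => x (k' n) + h (k' n) • c0) ∧ (W.w = fun n => h (k' n)) ∧
        W.D = Leg monL t ∧ (W.lam = fun c => lam (c0 + c) - lam c0) ∧
        W.S = S ∧ W.top = ind T t ∧ W.Mw = monL ∧
        W.R' = t ∧ (W.T = fun n => B.d n ^ (-(ν (x (k' n) + h (k' n) • c0)))) ∧
        (∀ n, W.B'.d n = B.d n ^ h (k' n)) ∧ (∀ n, W.B'.L n = h (k' n) * B.L n) ∧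
        (∀ i, W.B'.Sub (s i)) ∧
        ∀ (E : ∀ n, Finset (ι n)) (Mu : ℕ → ℝ), Wnd.EOk W E Mu →
          ∀ (ex : ℕ → ∀ n, ι n → ℕ) (g₀ : ℕ → ℝ), Tendsto g₀ U atTop →
          ∃ (E' : ∀ n, Finset (ι n)) (g : ℕ → ℝ), Wnd.Pruned W E E' g ex ∧
            (∀ᶠ n in (U : Filter ℕ), g n ≤ g₀ n) ∧
            (∀ᶠ n in (U : Filter ℕ), Reg W E' n) ∧
            RModel W.B' (W.cfg E') σ t W.legW W.nu W.Dc := by
  have hK : 0 < cK0 monL C := by
    have := cK0_one (M := monL) ((hN.chart 0).C0)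
    linarith
  have h0 : (0 : Fin 12 → ℝ) ∈ Leg monL t :=
    ⟨⟨fun _ => le_rfl, fun k e _ => by simp⟩, fun _ => ht.le⟩
  obtain ⟨k, hk, H⟩ := exists_rmodel (st := stL S T (cK0 monL C) t) hN hpos h0
    (tan_shift htan h0 hD) (stL_ok hS hK ht.le) (hL.dens hS ht hK) s hs i₀
  refine ⟨k, hk, fun k' hk' hle => ?_⟩
  obtain ⟨W, ok, e1, e2, e3, e4, e5, e6, e7, e8, e9, e10, e11, e12, e13, e14, e15, e16, e17, e18,
    e19, e20, e21⟩ := H k' hk' hle
  refine ⟨W, ?_, e1, e2, e3, e4, e6, e7, e8, e9, e10, e11, e13, e15, e16, e17, e18, e19, e20, ?_⟩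
  · exact
      { ok := ok
        hM := e5
        coc := fun n => by rw [e4]; exact hcoc n
        hK := by unfold Wnd.K0; rw [e5, e6]
        kap := fun s => by rw [e14]; rfl
        hS := by rw [e11]; exact hS.sub
        kz := by rw [e12]; rfl
        topS := fun s hs => by
          rw [e11] at hs
          rw [e13]
          exact (ind_mem (hS.ST hs)).ge
        topL := fun s hs => by
          rw [e13]
          exact (ind_mem (hS.line s hs)).ge }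
  · intro E Mu hE ex g₀ hg₀
    obtain ⟨E', g, p1, p2, p3⟩ := e21 E Mu hE ex g₀ hg₀
    refine ⟨E', g, p1, p2, ?_, p3⟩
    filter_upwards [Wnd.ev_cfg ok hE p1] with n hn
    exact ⟨hn.1, (p1.sub n).trans hn.2.1, hn.2.2.1⟩

/-! ### the legal set and the profile of the models -/

section Model

variable {W : Wnd 12 ι} {S T : Finset (Fin 12)} {t σ : ℝ} {G : (Fin 4 → ℝ) → ℝ} {r : Fin 5 → ℝ}

/-- level exponents of the model at the flag exponents `u`: the slots of `S` at the top -/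
noncomputable def uS (S : Finset (Fin 12)) (t : ℝ) (u : Fin 4 → ℝ) : Fin 4 → ℝ :=
  ![cut S (fun _ => u 0) (fun _ => t) 0, cut S (fun _ => u 1) (fun _ => t) 1,
    cut S (fun _ => u 2) (fun _ => t) 2, cut S (fun _ => u 3) (fun _ => t) 7]

theorem cut_c {S : Finset (Fin 12)} {a b : ℝ} {p q : Fin 12 → ℝ} {k l : Fin 12} (h : k ∈ S ↔ l ∈ S)
    (ha : p k = a) (hb : k ∈ S → q k = b) :
    cut S p q k = cut S (fun _ => a) (fun _ => b) l := by
  by_cases hk : k ∈ S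
  · rw [cut_of_mem hk, cut_of_mem (h.1 hk), hb hk]
  · rw [cut_of_notMem hk, cut_of_notMem (fun hl => hk (h.2 hl)), ha]

theorem cut_bx (h : LvOk S T) (u : Fin 4 → ℝ) (v : Fin 5 → ℝ) :
    cut S (bx u v) (ind T t) = bx (uS S t u) v := by
  have hb : ∀ k : Fin 12, k ∈ S → ind T t k = t := fun k hk => ind_mem (h.ST hk)
  exact eq_bx (cut_c Iff.rfl rfl (hb 0)) (cut_c Iff.rfl rfl (hb 1)) (cut_c Iff.rfl rfl (hb 2))
    (cut_of_notMem (h.notS (by decide))) (cut_of_notMem (h.notS (by decide)))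
    (cut_of_notMem (h.notS (by decide))) (cut_of_notMem (h.notS (by decide)))
    (cut_c Iff.rfl rfl (hb 7)) (cut_c h.S78.symm rfl (hb 8))
    (cut_of_notMem (h.notS (by decide))) (cut_of_notMem (h.notS (by decide)))
    (cut_of_notMem (h.notS (by decide)))

theorem cut_bd {S : Finset (Fin 12)} {a b t : ℝ} {k : Fin 12} (ha : 0 ≤ a ∧ a ≤ t)
    (hb : 0 ≤ b ∧ b ≤ t) : 0 ≤ cut S (fun _ => a) (fun _ => b) k ∧
      cut S (fun _ => a) (fun _ => b) k ≤ t := by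
  by_cases hk : k ∈ S
  · rw [cut_of_mem hk]; exact hb
  · rw [cut_of_notMem hk]; exact ha

/-- **legal boxes of the model** -/
theorem mem_legW (hS : LvOk S T) (eS : W.S = S) (eT : W.top = ind T t)
    (eM : W.Mw = monL) (eR : W.R' = t) {u : Fin 4 → ℝ} {v : Fin 5 → ℝ}
    (hu : ∀ i : Fin 4, 0 ≤ u i ∧ u i ≤ t) (hv : ∀ i, 0 ≤ v i ∧ v i ≤ t) (ht : 0 ≤ t)
    (h1 : (1 : Fin 12) ∉ T → u 1 = 0) (h2 : (2 : Fin 12) ∉ T → u 2 = 0)
    (h7 : (7 : Fin 12) ∉ T → u 3 = 0)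
    (w7 : uS S t u 3 ≤ uS S t u 2 + v 0) (w7' : uS S t u 3 ≤ uS S t u 1 + v 1)
    (w9 : v 2 ≤ v 0 + v 1) (w10 : v 3 ≤ v 0 + uS S t u 3) (w10' : v 3 ≤ uS S t u 1 + v 2)
    (w11' : v 4 ≤ v 1 + uS S t u 3) (w11'' : v 4 ≤ uS S t u 2 + v 2) :
    bx u v ∈ W.legW := by
  have hb : ∀ i : Fin 4, 0 ≤ uS S t u i ∧ uS S t u i ≤ t :=
    all4 (cut_bd (hu 0) ⟨ht, le_rfl⟩) (cut_bd (hu 1) ⟨ht, le_rfl⟩) (cut_bd (hu 2) ⟨ht, le_rfl⟩)
      (cut_bd (hu 3) ⟨ht, le_rfl⟩)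
  have e0 : uS S t u 0 = t := by
    show cut S (fun _ => u 0) (fun _ => t) 0 = t
    exact cut_of_mem hS.z
  refine ⟨?_, ?_⟩
  · rw [eS, eT, cut_bx hS, eM, eR, bx_mem]
    refine ⟨hb, hv, ?_, ?_, w7, w7', w9, w10, w10', ?_, w11', w11''⟩
    · rw [e0]; linarith [(hb 2).2, (hb 1).1]
    · rw [e0]; linarith [(hv 1).2, (hv 0).1]
    · rw [e0]; linarith [(hv 4).2, (hv 3).1]
  · rw [eS, eT]
    have key : ∀ (k : Fin 12) (a : ℝ), a ≤ t → (k ∉ T → a = 0) → a ≤ ind T t k := by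
      intro k a ha h0
      by_cases hk : k ∈ T
      · rw [ind_mem hk]; exact ha
      · rw [ind_not hk]; exact (h0 hk).le
    have kl : ∀ (k : Fin 12) (a : ℝ), k ∉ SL → a ≤ t → a ≤ ind T t k := by
      intro k a hk ha
      rw [ind_mem (hS.line k hk)]; exact ha
    intro s
    refine all12 (p := fun s => s ∉ S → bx u v s ≤ ind T t s) (fun h => absurd hS.z h)
      (fun _ => key 1 _ (hu 1).2 h1) (fun _ => key 2 _ (hu 2).2 h2)
      (fun _ => kl 3 _ (by decide) (hv 0).2) (fun _ => kl 4 _ (by decide) (hv 0).2)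
      (fun _ => kl 5 _ (by decide) (hv 1).2) (fun _ => kl 6 _ (by decide) (hv 1).2)
      (fun _ => key 7 _ (hu 3).2 h7)
      (fun _ => key 8 _ (hu 3).2 (fun h => h7 fun h' => h (hS.T78.1 h')))
      (fun _ => kl 9 _ (by decide) (hv 2).2) (fun _ => kl 10 _ (by decide) (hv 3).2)
      (fun _ => kl 11 _ (by decide) (hv 4).2) s

/-- **the profile of the model** -/
theorem nu_eq (hS : LvOk S T) (eS : W.S = S) (eT : W.top = ind T t)
    (eM : W.Mw = monL) (eR : W.R' = t) (ht : 0 ≤ t) (hL : LinW S T t σ W.lam G r)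
    {u : Fin 4 → ℝ} {v : Fin 5 → ℝ} (hm : bx u v ∈ W.legW) :
    W.nu (bx u v) = (G (uA T t) + ∑ i, r i * t) - (G (uS S t u) + ∑ i, r i * v i) := by
  unfold Wnd.nu
  have h1 : cut S (bx u v) (ind T t) ∈ Leg monL t := by
    have := hm.1
    rwa [eS, eT, eM, eR] at this
  have htop := top_mem hS ht
  rw [cut_bx hS] at h1
  rw [top_eq hS] at htop
  rw [eS, eT, cut_bx hS, top_eq hS, hL.lin _ _ h1, hL.lin _ _ htop]
  ring

end Model

end Crest.Agent.R116.II120
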