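import Crest.Agent.R116.Hk4_538
import Crest.Agent.R116.II3a_120

/-!
# R116, K side, [II3] (helper538), part 5: the facts from a tangent

* `RModel.mrg` : models of `W.cfg E` give models of the merged configurations.
* **`fan_facts`** : from a tangent of the profile which is linear in `(C, X, H, P, F)` on isotropic
  legal points (`LinW {0} (insert 0 LS)` of 120), at any legal base point with the walls
  `X = z + C`, `H = C + X`, `F = z + P` tight and one-dimensional `C, X`: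
  `rX ≤ 1`, (K1), (F1), (H1), (H1'), (K2), (F2).
-/

set_option autoImplicit false
set_option linter.unusedVariables false
set_option linter.unusedSectionVars false

open Filter Topology Finset

namespace Crest.Agent.R116.Hk538

open Crest.Agent.R138.Ex926 (Base U)
open Crest.Agent.R136.Net191 Crest.Agent.R136.Gf356 Crest.Agent.R136.Qg926
open Crest.Agent.R116.ChL222 Crest.Agent.R116.PL504 Crest.Agent.R116.EvL504
open Crest.Agent.R116.II120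

section merge

variable {B : Base} {G : ℕ → RCfg (Fin 12)} {Leg : Set (Fin 12 → ℝ)} {ν : (Fin 12 → ℝ) → ℝ}
  {D σ R : ℝ}

theorem loose_mrg_iff {G : RCfg (Fin 12)} (h0 : 0 < G.ρ) (h1 : G.ρ ≤ 1) {k i l : ℕ}
    (hb : ∀ s, |G.rel k i l s| ≤ 1) (v : Fin 5 → ℝ) {ε : ℝ} (hε : 0 ≤ ε) :
    (mrg G).loose v ε k i l ↔ G.loose (bx 0 v) ε k i l := by
  have h10 : (1 : ℝ) ≤ G.ρ ^ (0 - ε) :=
    Real.one_le_rpow_of_pos_of_le_one_of_nonpos h0 h1 (by linarith)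
  constructor
  · intro h s
    have e0 : max |G.rel k i l 3| |G.rel k i l 4| ≤ G.ρ ^ (v 0 - ε) := (le_abs_self _).trans (h 0)
    have e1 : max |G.rel k i l 5| |G.rel k i l 6| ≤ G.ρ ^ (v 1 - ε) := (le_abs_self _).trans (h 1)
    refine all12 (p := fun s => |G.rel k i l s| ≤ G.ρ ^ (bx 0 v s - ε)) ((hb 0).trans h10)
      ((hb 1).trans h10) ((hb 2).trans h10) ((le_max_left _ _).trans e0)
      ((le_max_right _ _).trans e0) ((le_max_left _ _).trans e1) ((le_max_right _ _).trans e1)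
      ((hb 7).trans h10) ((hb 8).trans h10) (h 2) (h 3) (h 4) s
  · intro h
    exact all5 (p := fun j => |(mrg G).rel k i l j| ≤ (mrg G).ρ ^ (v j - ε))
      (max_abs_le (h 3) (h 4)) (max_abs_le (h 5) (h 6)) (h 9) (h 10) (h 11)

theorem box_mrg {G : RCfg (Fin 12)} (h0 : 0 < G.ρ) (h1 : G.ρ ≤ 1)
    (hb : ∀ k i l, (i, k) ∈ G.I → (l, k) ∈ G.I → ∀ s, |G.rel k i l s| ≤ 1) (v : Fin 5 → ℝ)
    {ε : ℝ} (hε : 0 ≤ ε) {i k : ℕ} (hi : (i, k) ∈ G.I) :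
    (mrg G).box v ε i k = G.box (bx 0 v) ε i k := by
  ext l
  rw [RCfg.mem_box, RCfg.mem_box]
  constructor
  · rintro ⟨a, b⟩
    have hl : (l, k) ∈ G.I := (RCfg.mem_slice.1 a).2
    exact ⟨a, (loose_mrg_iff h0 h1 (hb k i l hi hl) v hε).1 b⟩
  · rintro ⟨a, b⟩
    have hl : (l, k) ∈ G.I := (RCfg.mem_slice.1 a).2
    exact ⟨a, (loose_mrg_iff h0 h1 (hb k i l hi hl) v hε).2 b⟩

/-- **merged counts** -/
theorem RUnif.mrg (H : RUnif B G Leg ν D)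
    (hb : ∀ᶠ n in (U : Filter ℕ), ∀ k i l, (i, k) ∈ (G n).I → (l, k) ∈ (G n).I →
      ∀ s, |(G n).rel k i l s| ≤ 1) :
    RUnif B (fun n => mrg (G n)) {v | bx 0 v ∈ Leg} (fun v => ν (bx 0 v)) D := by
  have hD := H.D1
  have hρ0 : ∀ n, 0 < (G n).ρ := fun n => by rw [H.base n]; exact B.pos n
  have hρ1 : ∀ n, (G n).ρ ≤ 1 := fun n => by rw [H.base n]; exact (B.lt n).le
  refine
    { D1 := H.D1
      base := H.base
      sub := H.sub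
      nonempty := H.nonempty
      refl := fun n k i hi => ?_
      symm := fun p hp ε hε => ?_
      tri := fun p hp ε hε => ?_
      low := fun p hp ε hε => ?_
      up := fun p hp ε hε => ?_ }
  · have h := H.refl n k i hi
    refine all5 (p := fun j => (Hk538.mrg (G n)).rel k i i j = 0) ?_ ?_ (h 9) (h 10) (h 11)
    · show max |(G n).rel k i i 3| |(G n).rel k i i 4| = 0
      rw [h 3, h 4]; simp
    · show max |(G n).rel k i i 5| |(G n).rel k i i 6| = 0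
      rw [h 5, h 6]; simp
  · filter_upwards [H.symm _ hp ε hε, hb] with n h1 h2 k i l hi hl h3
    have hDε : 0 ≤ D * ε := by positivity
    exact (loose_mrg_iff (hρ0 n) (hρ1 n) (h2 k l i hl hi) p hDε).2
      (h1 k i l hi hl ((loose_mrg_iff (hρ0 n) (hρ1 n) (h2 k i l hi hl) p hε.le).1 h3))
  · filter_upwards [H.tri _ hp ε hε, hb] with n h1 h2 k i l m hi hl hm h3 h4
    have hDε : 0 ≤ D * ε := by positivity
    exact (loose_mrg_iff (hρ0 n) (hρ1 n) (h2 k i m hi hm) p hDε).2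
      (h1 k i l m hi hl hm ((loose_mrg_iff (hρ0 n) (hρ1 n) (h2 k i l hi hl) p hε.le).1 h3)
        ((loose_mrg_iff (hρ0 n) (hρ1 n) (h2 k l m hl hm) p hε.le).1 h4))
  · filter_upwards [H.low _ hp ε hε, hb] with n h1 h2 i k hi
    have := h1 i k hi
    rw [← box_mrg (hρ0 n) (hρ1 n) h2 p hε.le hi] at this
    exact this
  · filter_upwards [H.up _ hp ε hε, hb] with n h1 h2 i k hi
    have := h1 i k hi
    rw [← box_mrg (hρ0 n) (hρ1 n) h2 p hε.le hi] at this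
    exact this

/-- **merged models** -/
theorem RModel.mrg (H : RModel B G σ R Leg ν D)
    (hb : ∀ᶠ n in (U : Filter ℕ), ∀ k i l, (i, k) ∈ (G n).I → (l, k) ∈ (G n).I →
      ∀ s, |(G n).rel k i l s| ≤ 1) :
    RModel B (fun n => mrg (G n)) σ R {v | bx 0 v ∈ Leg} (fun v => ν (bx 0 v)) D :=
  { toRUnif := RUnif.mrg H.toRUnif hb
    σ_nonneg := H.σ_nonneg
    σ_le := H.σ_le
    line := H.line
    slice := H.slice
    frost := H.frost }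

end merge

/-- the seven facts in terms of growths -/
structure Fan (σ rC rX rH rP rF : ℝ) : Prop where
  X1 : rX ≤ 1
  K1 : 0 < rC → σ ≤ rX
  F1 : 1 - σ < rC → 1 ≤ rX
  H1 : 0 < rC → rX ≤ rH
  H1' : 1 - rX < rC → 1 ≤ rH
  K2 : 0 < rP → σ ≤ rF
  F2 : 1 - σ < rP → 1 ≤ rF

section window

variable {ι : ℕ → Type*} [∀ n, DecidableEq (ι n)] {W : Wnd 12 ι} {K t σ D : ℝ}
  {E : ∀ n, Finset (ι n)} {b1 b2 : ℕ → ℝ} {G : (Fin 4 → ℝ) → ℝ} {r : Fin 5 → ℝ}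

/-- line exponents of the model are legal -/
theorem mem_leg5 (eS : W.S = {0}) (eT : W.top = ind (insert 0 LS) t) (eM : W.Mw = monL)
    (eR : W.R' = t) (ht : 0 ≤ t) {v : Fin 5 → ℝ} (hv : ∀ i, 0 ≤ v i ∧ v i ≤ t)
    (w9 : v 2 ≤ v 0 + v 1) (w10 : v 3 ≤ v 0) (w10' : v 3 ≤ v 2) (w11 : v 4 ≤ v 1)
    (w11' : v 4 ≤ v 2) : bx 0 v ∈ W.legW := by
  have key : ∀ s : Fin 12, s ∉ ({0} : Finset (Fin 12)) →
      cut ({0} : Finset (Fin 12)) (fun _ => (0 : ℝ)) (fun _ => t) s = 0 :=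
    fun s hs => cut_of_notMem hs
  have u1 : uS ({0} : Finset (Fin 12)) t (0 : Fin 4 → ℝ) 1 = 0 := key 1 (by decide)
  have u2 : uS ({0} : Finset (Fin 12)) t (0 : Fin 4 → ℝ) 2 = 0 := key 2 (by decide)
  have u3 : uS ({0} : Finset (Fin 12)) t (0 : Fin 4 → ℝ) 3 = 0 := key 7 (by decide)
  refine mem_legW lvOk_z eS eT eM eR (fun i => ⟨le_rfl, ht⟩) hv ht (fun _ => rfl) (fun _ => rfl)
    (fun _ => rfl) ?_ ?_ w9 ?_ ?_ ?_ ?_
  · rw [u3, u2]; linarith [(hv 0).1]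
  · rw [u3, u1]; linarith [(hv 1).1]
  · rw [u3]; linarith
  · rw [u1]; linarith
  · rw [u3]; linarith
  · rw [u2]; linarith

/-- **the facts in a window** -/
theorem fan_window (h : WL W K t) (ht : 0 < t) (eS : W.S = {0})
    (eT : W.top = ind (insert 0 LS) t) (eM : W.Mw = monL) (eR : W.R' = t)
    (hL : LinW {0} (insert 0 LS) t σ W.lam G r)
    (hreg : ∀ᶠ n in (U : Filter ℕ), Reg W E n) (HM : RModel W.B' (W.cfg E) σ t W.legW W.nu D)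
    (hX : ∀ᶠ n in (U : Filter ℕ), Tight (W.X n))
    (hb : ∀ᶠ n in (U : Filter ℕ), b1 n ^ 2 + b2 n ^ 2 = 1)
    (h3 : ∀ᶠ n in (U : Filter ℕ), ∀ y ∈ W.Cl n,
      |b1 n * W.crd n (W.s₀ n) y 3 + b2 n * W.crd n (W.s₀ n) y 4| ≤ W.B'.d n ^ t)
    (h5 : ∀ᶠ n in (U : Filter ℕ), ∀ y ∈ W.Cl n,
      |b1 n * W.crd n (W.s₀ n) y 5 + b2 n * W.crd n (W.s₀ n) y 6| ≤ W.B'.d n ^ t) :
    Fan σ (r 0) (r 1) (r 2) (r 3) (r 4) := by
  have ht0 := ht.le
  have hbd : ∀ᶠ n in (U : Filter ℕ), ∀ k i l, (i, k) ∈ (W.cfg E n).I → (l, k) ∈ (W.cfg E n).I →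
      ∀ s, |(W.cfg E n).rel k i l s| ≤ 1 := by
    filter_upwards [hreg] with n rn k i l hi hl s
    exact rn.rel_le h hi hl s
  have HM5 := RModel.mrg HM hbd
  -- the law
  have hLaw : ∀ᶠ n in (U : Filter ℕ), Law (W.cfg E n) 200 (W.B'.d n ^ t) := by
    filter_upwards [hreg, hX] with n rn xn
    exact law_tight rn h ht0 xn
  have hThin : ∀ᶠ n in (U : Filter ℕ), Thin2 (W.cfg E n) 200 (W.B'.d n ^ t) (b1 n) (b2 n) := by
    filter_upwards [hreg, hX, hb, h3, h5] with n rn xn bn g3 g5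
    have T := thin_of_s0 rn h (compOk_tight h rn.good xn) bn (h.r0 n) g3 g5
    have he := h.r0 n
    exact ⟨T.unit, fun k i l hi hl => (T.c k i l hi hl).trans (by linarith),
      fun k i l hi hl => (T.x k i l hi hl).trans (by linarith)⟩
  -- a pin
  have hne : ∀ n, ∃ q : ℕ × ℕ, q ∈ (W.cfg E n).I := fun n => HM.toRUnif.nonempty n
  choose q hq using hne
  have h0 : ∀ᶠ n in (U : Filter ℕ), ((fun n => (q n).1) n, (fun n => (q n).2) n) ∈ (W.cfg E n).I :=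
    Eventually.of_forall fun n => hq n
  -- the profile
  have hnu : ∀ v : Fin 5 → ℝ, bx 0 v ∈ W.legW → W.nu (bx 0 v) =
      W.nu (bx 0 0) - ∑ i, r i * v i := by
    intro v hv
    have hz : bx (0 : Fin 4 → ℝ) (0 : Fin 5 → ℝ) ∈ W.legW :=
      mem_leg5 eS eT eM eR ht0 (fun i => ⟨le_rfl, ht0⟩) (by simp) le_rfl le_rfl le_rfl le_rfl
    rw [nu_eq lvOk_z eS eT eM eR ht0 hL hv, nu_eq lvOk_z eS eT eM eR ht0 hL hz]
    simp only [Pi.zero_apply, mul_zero, Finset.sum_const_zero]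
    ring
  have s5 : ∀ v : Fin 5 → ℝ, ∑ i, r i * v i =
      r 0 * v 0 + r 1 * v 1 + r 2 * v 2 + r 3 * v 3 + r 4 * v 4 := by
    intro v
    simp [Fin.sum_univ_succ]
    ring
  have lgH : ∀ t1 t2 t3 : ℝ, 0 ≤ t1 → t1 ≤ t → 0 ≤ t2 → t2 ≤ t → 0 ≤ t3 → t3 ≤ t →
      t3 ≤ t1 + t2 → bx 0 ![t1, t2, t3, 0, 0] ∈ W.legW := by
    intro t1 t2 t3 a1 a2 a3 a4 a5 a6 a7
    exact mem_leg5 eS eT eM eR ht0 (all5 ⟨a1, a2⟩ ⟨a3, a4⟩ ⟨a5, a6⟩ ⟨le_rfl, ht0⟩ ⟨le_rfl, ht0⟩)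
      a7 a1 a5 a3 a5
  have lgP : ∀ t1 t2 : ℝ, 0 ≤ t1 → t1 ≤ t → 0 ≤ t2 → t2 ≤ t →
      bx 0 ![t, t, t, t1, t2] ∈ W.legW := by
    intro t1 t2 a1 a2 a3 a4
    exact mem_leg5 eS eT eM eR ht0 (all5 ⟨ht0, le_rfl⟩ ⟨ht0, le_rfl⟩ ⟨ht0, le_rfl⟩ ⟨a1, a2⟩
      ⟨a3, a4⟩) (by show t ≤ t + t; linarith) a2 a2 a4 a4
  have z5 : W.nu (bx 0 0) = (fun v : Fin 5 → ℝ => W.nu (bx 0 v)) 0 := rfl
  obtain ⟨c1, c2, c3⟩ := facts_H (x := t) HM5.toRUnif (fun n => (q n).1) (fun n => (q n).2) h0 ht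
    le_rfl hLaw hThin (fun t1 t2 t3 a1 a2 a3 a4 a5 a6 a7 => lgH t1 t2 t3 a1 a2 a3 a4 a5 a6 a7)
    (rC := r 0) (rX := r 1) (rH := r 2) (fun t1 t2 t3 a1 a2 a3 a4 a5 a6 a7 => by
      show W.nu (bx 0 ![t1, t2, t3, 0, 0]) = W.nu (bx 0 0) - _
      rw [hnu _ (lgH t1 t2 t3 a1 a2 a3 a4 a5 a6 a7), s5]
      show _ - (r 0 * t1 + r 1 * t2 + r 2 * t3 + r 3 * 0 + r 4 * 0) = _
      ring)
  obtain ⟨c4, c5⟩ := facts_C (x := t) HM5 (fun n => (q n).1) (fun n => (q n).2) h0 ht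
    le_rfl le_rfl hLaw hThin
    (fun t1 t2 a1 a2 a3 a4 => lgH t1 t2 0 a1 a2 a3 a4 le_rfl ht0 (by linarith))
    (rC := r 0) (rX := r 1) (fun t1 t2 a1 a2 a3 a4 => by
      show W.nu (bx 0 ![t1, t2, 0, 0, 0]) = W.nu (bx 0 0) - _
      rw [hnu _ (lgH t1 t2 0 a1 a2 a3 a4 le_rfl ht0 (by linarith)), s5]
      show _ - (r 0 * t1 + r 1 * t2 + r 2 * 0 + r 3 * 0 + r 4 * 0) = _
      ring)
  obtain ⟨c6, c7⟩ := facts_P (x := t) HM5 (fun n => (q n).1) (fun n => (q n).2) h0 ht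
    le_rfl le_rfl hLaw (fun t1 t2 a1 a2 a3 a4 => lgP t1 t2 a1 a2 a3 a4)
    (rP := r 3) (rF := r 4) (fun t1 t2 a1 a2 a3 a4 => by
      show W.nu (bx 0 ![t, t, t, t1, t2]) = W.nu (bx 0 ![t, t, t, 0, 0]) - _
      rw [hnu _ (lgP t1 t2 a1 a2 a3 a4), hnu _ (lgP 0 0 le_rfl ht0 le_rfl ht0), s5, s5]
      show _ - (r 0 * t + r 1 * t + r 2 * t + r 3 * t1 + r 4 * t2) =
        _ - (r 0 * t + r 1 * t + r 2 * t + r 3 * 0 + r 4 * 0) - _
      ring)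
  exact ⟨c1, c4, c5, c2, c3, c6, c7⟩

end window

end Crest.Agent.R116.Hk538
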