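import Crest.Agent.R116.Hk5_538
import Crest.Agent.R116.Xd4_954

/-!
# R116, K side, [II3] (helper538), part 6: (K1) (F1) (H1) (H1') (K2) (F2) from a tangent

* `fan_of_tan` : thinness as a hypothesis on the windows.
* **`fan_facts`** : chart `coN`, thinness from 954's `dim_window`.
-/

set_option autoImplicit false
set_option linter.unusedVariables false
set_option linter.unusedSectionVars false

open Filter Topology Finset

namespace Crest.Agent.R116.Hk538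

open Crest.Agent.R138.Ex926
open Crest.Agent.R136.Net191 Crest.Agent.R136.Gf356 Crest.Agent.R136.Qg926
open Crest.Agent.R116.ChL222 Crest.Agent.R116.PL504 Crest.Agent.R116.EvL504
open Crest.Agent.R116.II120 Crest.Agent.R116.Xd954

/-- **the facts from a tangent** -/
theorem fan_of_tan {ι : ℕ → Type*} [∀ n, DecidableEq (ι n)] {B : Base}
    {I J : ∀ n, Finset (ι n)} {co : ∀ n, ι n → ι n → Fin 12 → ℝ}
    {C R : ℝ} {ν : (Fin 12 → ℝ) → ℝ} (hN : NProf B I J co monL C R ν)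
    (hcoc : ∀ n, Coc (co n)) {x : ℕ → Fin 12 → ℝ} {h : ℕ → ℝ} (hpos : ∀ l, 0 < h l)
    {D : Set (Fin 12 → ℝ)} {lam : (Fin 12 → ℝ) → ℝ} (htan : IsTan (Leg monL R) D ν x h lam)
    {c0 : Fin 12 → ℝ} {t : ℝ} (ht : 0 < t) (hD : ∀ c ∈ Leg monL t, c0 + c ∈ D)
    {σ : ℝ} {G : (Fin 4 → ℝ) → ℝ} {r : Fin 5 → ℝ}
    (hL : LinW {0} (insert 0 LS) t σ (fun c => lam (c0 + c) - lam c0) G r)
    (hX : ∀ᶠ l in atTop, Tight (x l + h l • c0)) (i₀ : ∀ n, ι n)
    (hthin : ∀ (k' : ℕ → ℕ), Tendsto k' U atTop → ∀ W : Wnd 12 ι, WL W (cK0 monL C) t →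
      W.B = B → W.I = I → W.J = J → W.co = co → (W.X = fun n => x (k' n) + h (k' n) • c0) →
      (W.w = fun n => h (k' n)) → ∃ b1 b2 : ℕ → ℝ,
        (∀ᶠ n in (U : Filter ℕ), b1 n ^ 2 + b2 n ^ 2 = 1) ∧
        (∀ᶠ n in (U : Filter ℕ), ∀ y ∈ W.Cl n,
          |b1 n * W.crd n (W.s₀ n) y 3 + b2 n * W.crd n (W.s₀ n) y 4| ≤ W.B'.d n ^ t) ∧
        (∀ᶠ n in (U : Filter ℕ), ∀ y ∈ W.Cl n,
          |b1 n * W.crd n (W.s₀ n) y 5 + b2 n * W.crd n (W.s₀ n) y 6| ≤ W.B'.d n ^ t)) :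
    Fan σ (r 0) (r 1) (r 2) (r 3) (r 4) := by
  obtain ⟨k, hk, hk2⟩ := exists_lmodel hN hcoc hpos htan ht hD lvOk_z hL (fun _ _ => 1)
    (fun _ => Base.Sub.const one_pos) i₀
  obtain ⟨W, wl, e1, e2, e3, e4, e5, e6, e7, e8, e9, e10, e11, e12, e13, e14, e15, e16, e17,
    e18⟩ := hk2 k hk (Eventually.of_forall fun n => le_rfl)
  obtain ⟨E', g, p1, p2, p3, p4⟩ := e18 W.Cl _ wl.ok.eok_class (fun _ _ _ => 0)
    (fun n => (n : ℝ)) (by
      have : Tendsto (fun n : ℕ => (n : ℝ)) atTop atTop := tendsto_natCast_atTop_atTop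
      exact this.mono_left U_le_atTop)
  obtain ⟨b1, b2, g1, g2, g3⟩ := hthin k hk W wl e1 e2 e3 e4 e6 e7
  refine fan_window (G := G) wl ht e10 e11 e12 e13 ?_ p3 p4 ?_ g1 g2 g3
  · rw [e9]; exact hL
  · filter_upwards [hk.eventually hX] with n hn
    rw [e6]; exact hn

end Crest.Agent.R116.Hk538
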