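import Crest.Agent.R116.Tm2_741
import Crest.Agent.R116.IIr3_460
import Crest.Agent.R116.Pu3_171

/-!
# R116 (K side, ties): the `e`-plane in the letters of `Tie460.Pl` (helper741)

* `plE s c φ ρ` : the rates; `k = 1` : `x` at `C_b` coarse, `r` at `X` fine; `k = 1/2` : `r` at `H`
  coarse, `h` at `C_b` fine
* `PlE.ef`   : `Cl9`, `Fct9`, `FctE` (`k = 1` : (K3)) ⊢ `EF' s k (plE ..)`, `PlE.fan1`
* `PlE.half` : `FctP` ⊢ `m + x ≤ 1`, `r + n ≤ 1`
* `PlE.tan`, `PlE.ver`, **`tm_e`**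
-/

set_option autoImplicit false
set_option linter.unusedSectionVars false
set_option linter.unusedVariables false

open Set Filter Topology

namespace Crest.Agent.R116.Tq741

open Tie460 (Pl EF' KF')
open Pu171 (FctP)
open RbM219 (nat9)
open Sg337 (DL)

variable {c : Fin 9 → Fin 9} {dl : V9} {s : ℝ} {Λ : V9 → ℝ} {φ : Fin 9 → V9 → ℝ} {ρ : V9}
  {k : ℝ}

/-- rates of the `e`-plane -/
noncomputable def plE (s : ℝ) (c : Fin 9 → Fin 9) (φ : Fin 9 → V9 → ℝ) (ρ : V9) : Pl where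
  x := xE c φ
  n := 1 - ρ 4
  h := hE c φ
  m := ρ 1
  r := rE c φ
  e := ρ 0 - (1 - s)
  w := 0
  u := ρ 7
  d := ρ 8

/-- the window of `X` alone, `C_b` coarse -/
theorem PlE.x_eq (P : PlE k c dl) (H : Cl9 c dl s Λ φ ρ) :
    1 - xE c φ = φ (c 3) wB - φ (c 3) (wB + (1:ℝ) • e9 3) := by
  unfold xE
  rw [sub_sub_cancel]
  by_cases hk1 : k = 1
  · rw [H.loc (c 3) 0 wB fun t ht => by
      rw [P.c3 hk1] at ht
      rcases P.k2 ht with rfl | rfl | rfl <;> simp [wB],
      H.loc (c 3) (0 + (1:ℝ) • e9 3) (wB + (1:ℝ) • e9 3) fun t ht => by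
      rw [P.c3 hk1] at ht
      rcases P.k2 ht with rfl | rfl | rfl <;> simp [wB]]
  · rw [H.loc (c 3) 0 wB fun t ht => by
      rw [P.al3 hk1 t ht]; simp [wB],
      H.loc (c 3) (0 + (1:ℝ) • e9 3) (wB + (1:ℝ) • e9 3) fun t ht => by
      rw [P.al3 hk1 t ht]; simp [wB]]

theorem leg_wB3 : LegM 1 (wB + (1:ℝ) • e9 3) := by constructor <;> vv <;> norm_num

theorem PlE.x_nonneg (P : PlE k c dl) (H : Cl9 c dl s Λ φ ρ) : 0 ≤ xE c φ := by
  have h1 := P.x_eq H
  have h2 := H.incr_cost (t := 3) (y := 1) (by norm_num) (leg_wB.mono (by norm_num))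
    (leg_wB3.mono (by norm_num))
  have h3 : cst 3 = 1 := rfl
  rw [h3] at h2
  linarith

theorem PlE.x_le (P : PlE k c dl) (H : Cl9 c dl s Λ φ ρ) : xE c φ ≤ 1 := by
  have h1 := P.x_eq H
  have h2 := H.incr_nonneg (leg_wB.mono (by norm_num)) (leg_wB3.mono (by norm_num)) (c 3)
    (fun i hi => add_e9_ne fun h => hi (by rw [h])) (le_add_e9 (y := 1) (by norm_num))
  linarith

theorem PlE.r_nonneg (P : PlE k c dl) (H : Cl9 c dl s Λ φ ρ) : 0 ≤ rE c φ := by
  rw [P.rE_eq H]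
  exact H.incr_nonneg (leg_wC.mono (by norm_num)) (leg_wC1.mono (by norm_num)) (c 2)
    (fun i hi => add_e9_ne fun h => hi (by rw [h])) (le_add_e9 (y := 1) (by norm_num))

/-- the base of the path of `H` -/
def wH : V9 := ![0, 200, 1, -50, -200, 0, -1, 60, 1000]

theorem leg_wH : LegM 1 wH := by constructor <;> simp only [wH, Matrix.cons_val] <;> norm_num

theorem leg_wH2 : LegM 1 (wH + (2:ℝ) • e9 5) := by
  constructor <;> simp only [wH] <;> vv <;> norm_num

theorem PlE.h_nonneg (P : PlE k c dl) (H : Cl9 c dl s Λ φ ρ) : 0 ≤ hE c φ := by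
  have h2 := H.incr_cost (t := 5) (y := 2) (by norm_num) (leg_wH.mono (by norm_num))
    (leg_wH2.mono (by norm_num))
  have h3 : cst 5 = 1 := rfl
  rw [h3] at h2
  have e : φ (c 5) (e9 2) - φ (c 5) (e9 2 + (2:ℝ) • e9 5) =
      φ (c 5) wH - φ (c 5) (wH + (2:ℝ) • e9 5) := by
    by_cases hk2 : k = 1 / 2
    · have hk1 : k ≠ 1 := by rw [hk2]; norm_num
      rw [H.loc (c 5) (e9 2) wH fun t ht => by
        rw [P.c5 hk2] at ht
        rcases P.k2 ht with rfl | rfl | rfl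
        · simp [e9, wH]
        · exact absurd (P.al3 hk1 2 ht.symm) (by decide)
        · simp [e9, wH],
        H.loc (c 5) (e9 2 + (2:ℝ) • e9 5) (wH + (2:ℝ) • e9 5) fun t ht => by
        rw [P.c5 hk2] at ht
        rcases P.k2 ht with rfl | rfl | rfl
        · simp [e9, wH]
        · exact absurd (P.al3 hk1 2 ht.symm) (by decide)
        · simp [e9, wH]]
    · rw [H.loc (c 5) (e9 2) wH fun t ht => by
        rw [P.al5 hk2 t ht]; simp [e9, wH],
        H.loc (c 5) (e9 2 + (2:ℝ) • e9 5) (wH + (2:ℝ) • e9 5) fun t ht => by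
        rw [P.al5 hk2 t ht]; simp [e9, wH]]
  unfold hE
  rw [e]
  linarith

theorem PlE.pos (P : PlE k c dl) (H : Cl9 c dl s Λ φ ρ) : (plE s c φ ρ).Pos where
  x0 := P.x_nonneg H
  n0 := sub_nonneg.2 (P.al4.le_cst H)
  h0 := P.h_nonneg H
  m0 := P.al1.nonneg H
  r0 := P.r_nonneg H
  e0 := sub_nonneg.2 H.own
  w0 := le_rfl
  u0 := P.al7.nonneg H
  d0 := P.al8.nonneg H

section facts

variable (P : PlE k c dl) (H : Cl9 c dl s Λ φ ρ) (hk : 0 < k)
  (F : Fct9 (fun w => w 6 < k * w 0) s Λ)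

include P H hk F

theorem PlE.kx (hm : 0 < ρ 1) : xE c φ ≤ s := by
  by_cases hs : s ≤ 1
  · have := P.eX H hk (q := 1 - s) (by linarith) fun w R h1 h2 h3 h4 =>
      F.K1 w R h1 h2 h3 (by rw [h4]; exact hm)
    linarith
  · have := P.x_le H
    linarith

theorem PlE.fx (hm : s < ρ 1) : xE c φ = 0 := by
  have h1 := P.eX H hk (q := 1) (by norm_num) fun w R h1 h2 h3 h4 =>
      F.F1 w R h1 h2 h3 (by rw [h4]; exact hm)
  have := P.x_nonneg H
  linarith

theorem PlE.hx (hm : 0 < ρ 1) : hE c φ ≤ xE c φ := by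
  have := P.eH H fun w R h1 h2 h3 => F.H1 w R h1 h2 (by rw [h3]; exact hm)
  linarith

theorem PlE.fanA (hs0 : 0 ≤ s) : (plE s c φ ρ).FanA s where
  kx := fun hm => P.kx H hk F hm
  kh := fun hm => (P.hx H hk F hm).trans (P.kx H hk F hm)
  fx := fun hm => P.fx H hk F hm
  fh := fun hm => by
    change s < ρ 1 at hm
    have h1 := P.fx H hk F hm
    have h2 := P.hx H hk F (hs0.trans_lt hm)
    have h3 := P.h_nonneg H
    change hE c φ = 0
    linarith

theorem PlE.kn (hr : 0 < rE c φ) : 1 - ρ 4 ≤ s := by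
  by_contra hcon
  push Not at hcon
  refine P.eN H hk hr fun w R h1 h2 h3 h4 h5 => ?_
  have := F.K2 w R h1 h2 h3 h5
  rw [h4] at this
  linarith

theorem PlE.fanB (hs0 : 0 ≤ s) : (plE s c φ ρ).FanB s where
  kn := fun hr => P.kn H hk F hr
  fn := fun hr => by
    change s < rE c φ at hr
    change 1 - ρ 4 = 0
    have h1 : ρ 4 ≤ 1 := P.al4.le_cst H
    refine le_antisymm ?_ (by linarith)
    by_contra hcon
    push Not at hcon
    refine P.eN H hk hr fun w R h1 h2 h3 h4 h5 => ?_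
    have := F.F2 w R h1 h2 h3 h5
    rw [h4] at this
    linarith

/-- **the facts of the `e`-plane** -/
theorem PlE.ef (hs0 : 0 ≤ s) (FE : FctE k Λ)
    (K3 : k = 1 → 0 < ρ 1 →
      (∀ y : ℝ, 0 ≤ y → (1 - s) * y ≤ φ (c 3) 0 - φ (c 3) (y • e9 3)) → 1 - s ≤ ρ 4) :
    EF' s k (plE s c φ ρ) where
  P := P.pos H
  kx := fun _ hm => P.kx H hk F hm
  mn := fun hm => by
    change 0 < ρ 1 at hm
    change 1 - ρ 4 ≤ s
    by_cases hk1 : k = 1
    · have h1 := K3 hk1 hm fun y hy => by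
        subst hk1
        rcases hy.eq_or_lt with rfl | hy
        · simp
        by_cases hs : s ≤ 1
        · have h2 := P.eX1 H (q := 1 - s) (by linarith) hy fun w R h1 h2 h3 h4 =>
            F.K1 w R h1 h2 h3 (by rw [h4]; exact hm)
          rwa [zero_add] at h2
        · have e0 : φ (c 3) 0 - φ (c 3) (y • e9 3) =
              φ (c 3) ![0, 50 + y, 0, 0, -200, 0, -1, 50, 1000] -
                φ (c 3) (![0, 50 + y, 0, 0, -200, 0, -1, 50, 1000] + y • e9 3) := by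
            rw [H.loc (c 3) 0 ![0, 50 + y, 0, 0, -200, 0, -1, 50, 1000] fun t ht => by
              rw [P.c3 rfl] at ht
              rcases P.k2 ht with rfl | rfl | rfl
              · simp
              · simp
              · simp,
              H.loc (c 3) (y • e9 3) (![0, 50 + y, 0, 0, -200, 0, -1, 50, 1000] + y • e9 3)
                fun t ht => by
              rw [P.c3 rfl] at ht
              rcases P.k2 ht with rfl | rfl | rfl
              · simp
              · simp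
              · simp]
          have h2 := H.incr_nonneg (w := ![0, 50 + y, 0, 0, -200, 0, -1, 50, 1000])
            (w' := ![0, 50 + y, 0, 0, -200, 0, -1, 50, 1000] + y • e9 3)
            (by constructor <;> vv <;> linarith) (by constructor <;> vv <;> linarith) (c 3)
            (fun i hi => add_e9_ne fun h => hi (by rw [h])) (le_add_e9 hy.le)
          rw [e0]
          nlinarith
      linarith
    · have h1 := P.eW3 H hk1 FE.W3
      exact P.kn H hk F (by linarith)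
  mr := fun hk1 => P.eW3 H hk1 FE.W3
  nx := fun hk2 => by
    have := P.eW2 H (by linarith) (by linarith) FE.W2
    change 1 - ρ 4 ≤ xE c φ
    linarith
  FA := fun _ => P.fanA H hk F hs0
  FB := fun _ => P.fanB H hk F hs0

end facts

/-- **the facts of half space** -/
theorem PlE.half (P : PlE k c dl) (H : Cl9 c dl s Λ φ ρ) (hk : 0 < k)
    (F : FctP (fun w => w 6 < k * w 0) Λ) :
    (plE s c φ ρ).m + (plE s c φ ρ).x ≤ 1 ∧ (plE s c φ ρ).r + (plE s c φ ρ).n ≤ 1 := by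
  constructor
  · change ρ 1 + xE c φ ≤ 1
    have h1 := P.eX H hk (q := ρ 1) (P.al1.nonneg H) fun w R h1 h2 h3 h4 => by
      rw [← h4]; exact F.P1 w R h1 h2 h3
    linarith
  · change rE c φ + (1 - ρ 4) ≤ 1
    by_contra hcon
    push Not at hcon
    refine P.eN H hk (q := ρ 4) (by linarith) fun w R h1 h2 h3 h4 h5 => ?_
    have := F.P2 w R h1 h2 h3
    rw [h4] at this
    linarith

/-- tangential identity -/
theorem PlE.tan (P : PlE k c dl) (H : Cl9 c dl s Λ φ ρ) {θ g qa qb : ℝ}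
    (T : Λ (nat9 1 (-θ) (-(θ - k))) = DL g s qa qb 1 (-θ) (-(θ - k))) :
    (plE s c φ ρ).Tan g θ (θ - k) qa qb := by
  have h1 := natE H P 1 (-θ)
  have e : -(θ - k) = -θ + k * 1 := by ring
  rw [e] at T
  rw [T] at h1
  unfold DL at h1
  unfold Pl.Tan Pl.Fa Pl.Fb plE
  simp only
  linarith

/-- inequality from the offset -/
theorem PlE.ver (P : PlE k c dl) (H : Cl9 c dl s Λ φ ρ) {θ g qa qb v a : ℝ}
    (T : Λ (nat9 1 (-θ) (-(θ - k))) = DL g s qa qb 1 (-θ) (-(θ - k)))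
    (V : Λ (nat9 v a (a + k * v)) ≤ DL g s qa qb v a (a + k * v)) :
    0 ≤ -(a + θ * v) * ((plE s c φ ρ).Fa qa + (plE s c φ ρ).Fb qb) := by
  have h1 := P.tan H T
  rw [natE H P v a] at V
  unfold DL at V
  unfold Pl.Tan at h1
  unfold Pl.Fa Pl.Fb plE at *
  simp only at *
  have h3 := congrArg (fun x => v * x) h1
  linarith

/-- **the plane below the record, `e`-tie** -/
theorem tm_e (P : PlE k c dl) (H : Cl9 c dl s Λ φ ρ) (hk : 0 < k) (hs0 : 0 ≤ s)
    (F : Fct9 (fun w => w 6 < k * w 0) s Λ) (FE : FctE k Λ)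
    (K3 : k = 1 → 0 < ρ 1 →
      (∀ y : ℝ, 0 ≤ y → (1 - s) * y ≤ φ (c 3) 0 - φ (c 3) (y • e9 3)) → 1 - s ≤ ρ 4)
    {θ g qa qb v a : ℝ} (hva : a + θ * v < 0)
    (T : Λ (nat9 1 (-θ) (-(θ - k))) = DL g s qa qb 1 (-θ) (-(θ - k)))
    (V : Λ (nat9 v a (a + k * v)) ≤ DL g s qa qb v a (a + k * v)) :
    EF' s k (plE s c φ ρ) ∧ (plE s c φ ρ).FanA s ∧ (plE s c φ ρ).Tan g θ (θ - k) qa qb ∧
      0 ≤ (plE s c φ ρ).Fa qa + (plE s c φ ρ).Fb qb := by
  refine ⟨P.ef H hk F hs0 FE K3, P.fanA H hk F hs0, P.tan H T, ?_⟩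
  have h1 := P.ver H T V
  by_contra hcon
  push Not at hcon
  nlinarith

end Crest.Agent.R116.Tq741
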