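import Crest.Agent.R116.Pe0_794
import Crest.Agent.R116.Pd2_363
import Crest.Agent.R116.Pu4_171
import Crest.Agent.R116.Tm3_741
import Crest.Agent.R116.Tq4_126
import Crest.Agent.R116.Hf1_850
import Crest.Agent.R116.D0E_188

/-!
# R116 (K side, TIES), `1/2 ≤ s`, `e`-tie, the side below the record, `D` frozen (helper621)

* `pd8_fctP`  : `CtxT` + plane data of a natural offset `⊢ FctP Sk Λ` (two-height facts)
* `strict_sh` : a strict shift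
* `eD_plE`    : the classes of the plane `eD k`
* `eD_half`   : plane data at `eD k` + (W3) `⊢ EHalf k`, `Tan`, `0 ≤ Fa + Fb`
* `eLo_false` : context `⊢ False` for `1/2 ≤ s`, `(1 + k)/2 ≤ θa`, `k < 1`
-/

set_option autoImplicit false
set_option linter.unusedSectionVars false
set_option linter.unusedVariables false

open Set Filter Topology MeasureTheory

namespace Crest.Agent.R116.Hm621

open Crest.Agent.R138
open Crest.Agent.R138.Ex926 (Base U IsTan)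
open Crest.Agent.R136
open Crest.Agent.R136.MkA627
open Crest.Agent.R136.TD627
open Crest.Agent.R136.Net191
open Crest.Agent.R136.Lq196
open Crest.Agent.R136.Qg926 Crest.Agent.R136.Gf356 Crest.Agent.R116.EvL504
open Crest.Agent.R116.ChL222
open Crest.Agent.R116.PL504 (nb rL DN eL βL oL Shift eL_wall)
open Crest.Agent.R116.Sg337 (bx9 DL)
open Crest.Agent.R116.Gd222 (TSet sN PDL DT)
open Crest.Agent.R116.KI439
open Crest.Agent.R116.KF439 (PL)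
open Crest.Agent.R116.CtxB468
open Crest.Agent.R116.Rcx363
open Crest.Agent.R116.RbM219
open Crest.Agent.R116.RbK219 (RS SOk Par dl)
open Crest.Agent.R116.Kz647
open Crest.Agent.R116.Pd363
open Crest.Agent.R116.Tq794
open Crest.Agent.R116.Tq741
open Crest.Agent.R116.Tq126
open Crest.Agent.R116.Tp139
open Crest.Agent.R116.Pu171 (FctP fctP8)
open Crest.Agent.R116.KTop387
open Crest.Agent.R116.KTie794
open Crest.Agent.R116.SgF665 (wl wl_add wl_smul LM0 bx9_mem)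
open Tie460 (Pl EHalf eHalf_false)
open Dg219 (mw Walls)
open Sl741 (slice xt rs)

section ctx

variable {G : Geo TSet (Fin 2)} {L : ℕ → ℕ → LRay} {r : ℕ → ℝ} {g s : ℝ} {θ q : Fin 2 → ℝ}
    {Rg : ℝ} {B : Base} {I : ℕ → Finset (ℕ × ℝ)} {lev : ℕ → ℚ → ℕ} {A : ℕ → ℝ}
    {f : ℕ → ℚ → ℕ → ℤ → ℕ} {b : ℕ → ℚ → ℕ → TSet} {vm : ℕ → ℚ → ℝ} {w : Fin 2 → ℕ → ℚ → ℝ}
    {fr : ℕ → ℚ → ℕ × ℝ → LInc} {fl : ℕ → ℕ × ℝ → LInc} {sc : Fin 12 → ℕ → ℝ}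
    {w0 sa sb δ R : ℝ} {I0 I' : ℕ → Finset (ℕ × ℝ)} {ν own : (Fin 12 → ℝ) → ℝ} {c₀ : ℝ}
    {v0 t κ sg l α v c p : ℝ} {a b' : Fin 2} {Vis' : Fin 12 → Prop} {X : ℕ → Fin 12 → ℝ}
    {h' H : ℕ → ℝ} {lam lam2 : Fin 2 → (Fin 12 → ℝ) → ℝ} {Sk : V9 → Prop}

/-- **the two-height facts of a natural plane, `D` frozen** -/
theorem pd8_fctP {ρ ρ2 : Fin 8 → ℝ}
    (P : Pd8 R s a b' Vis' (θ 0) (θ 1) w0 sa sb v0 t κ (nat8 v c p) sg (fo ν own) lam ρ l α h' X H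
      lam2 ρ2)
    (C : CtxT G L r g s θ q Rg B I lev A f b vm w fr fl sc w0 sa sb δ R I0 I' ν own c₀)
    (hs1 : s < 1) (ht : t ≠ 0)
    (hSk : ∀ w, LegM 0 w → Sk w → ∀ k, Vis' k → E8 w k ≤ w 0 * βL (θ 0) (θ 1) k) :
    FctP Sk (fun w => lam2 0 (xt kp 0 (RL8.vec (fun i : Fin 8 => w i.castSucc)))) := by
  obtain ⟨zz, cc, pp, dd, hXn⟩ := pd8_natural P
  have ht' : ∀ j, IsTan (Leg monL R) LM0 (fo ν own j) X H (lam2 j) := fun j =>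
    Rc683.tan_mono (P.tan j) Subset.rfl (LM0_L8B ht)
  have Hp := P.prf.mono (LM0_L8B (θa := θ 0) (θb := θ 1) (B := nat8 v c p) (sg := sg) ht)
  have hlip : ∃ K : ℝ, 0 ≤ K ∧ ∀ j, ∀ p ∈ LM0, ∀ q ∈ LM0,
      |lam2 j p - lam2 j q| ≤ K * ‖p - q‖ := by
    refine ⟨12, by norm_num, fun j p hp' q hq' => ?_⟩
    have := SgO219.tan_lip P.pos (ht' j) (K := 12) (fo_lip C j) p hp' q hq'
    rwa [dist_eq_norm] at this
  have h0 : (0 : Fin 12 → ℝ) ∈ LM0 := by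
    rw [← E8_zero]; exact E8_mem leg_zero
  have h1 := fctP8 (Sk := Sk) (lam2 := lam2) (f := fo ν own) (j0 := (0 : Fin 2)) (M := LM0)
    (σ := 1 - s) (RowU388.nprof_T C) (fun n => Sd369.coc_N B lev w w0 sa sb fl n)
    (fun _ => (0, 0)) LM0_closed h0 (fun p hp q hq => LM0_add hp hq)
    (fun t ht p hp => LM0_smul ht hp) Subset.rfl P.pos P.lim ht' rfl hlip
    (Eventually.of_forall fun n => by
      rw [hXn n]; simp [eL])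
    (Eventually.of_forall fun n => by
      rw [hXn n]; simp [eL])
    (Eventually.of_forall fun n => by
      rw [hXn n]; simp [eL]) (by linarith)
    (fun w R' hw hS hL => own_R (s := s) (M := LM0) (fun d hd => E8_mem hd) E8_add hw hL
      fun t ht' => own_prf Hp (fun d hd => E8_mem hd) E8_add (fun _ => rfl) e9_nonneg8 hw
        (hSk w hw hS) ht')
  simpa only [E8_eq] using h1

/-- a strict shift -/
theorem strict_sh {θa θb : ℝ} (sh : Shift θa θb w0 sa sb δ R) :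
    Shift θa θb w0 sa sb δ (R + 1) ∧ w0 + (θb + sb) < R + 1 ∧ w0 + 1 + sb < R + 1 :=
  ⟨⟨sh.d0, sh.z, sh.c0, sh.c1, sh.D0, sh.D1, by linarith [sh.R0], by linarith [sh.R1]⟩,
    by linarith [sh.R0], by linarith [sh.R1]⟩

/-- **the context with a strict shift** -/
theorem strict_ctx
    (C : CtxT G L r g s θ q Rg B I lev A f b vm w fr fl sc w0 sa sb δ R I0 I' ν own c₀) :
    ∃ (R' : ℝ) (I0 I' : ℕ → Finset (ℕ × ℝ)) (ν own : (Fin 12 → ℝ) → ℝ) (c₀ : ℝ),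
      CtxT G L r g s θ q Rg B I lev A f b vm w fr fl sc w0 sa sb δ R' I0 I' ν own c₀ ∧
      w0 + (θ 1 + sb) < R' ∧ w0 + 1 + sb < R' := by
  obtain ⟨sh, h1, h2⟩ := strict_sh C.sh
  obtain ⟨J0, J', ν', own', c', C'⟩ := C.out.ctx C.Rg0 sh
  exact ⟨R + 1, J0, J', ν', own', c', C', h1, h2⟩

end ctx

/-! ### the plane `eD k` -/

section plane

variable {θa θb k : ℝ}

theorem dl_eD (hk : 0 < k) {i : Fin 8} (hi : i ≠ 7) :
    dl (nat8 1 (-θa) (-θb)) (eD k) (-1) i = -eD k i := by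
  have h : ∀ i : Fin 8, i ≠ 7 → eD k i ≠ 0 := by
    refine all8 ?_ ?_ ?_ ?_ ?_ ?_ ?_ ?_ <;> intro hi h <;> first
      | exact hi rfl
      | (ev8; linarith)
  replace h := h i hi
  unfold dl
  rw [if_neg h]; ring

/-- the classes of the `e`-plane -/
theorem eD_plE (hθ : 0 < θa) (hk : 0 < k) (hb : θb = θa - k) {x : ℝ} :
    PlE k (cE k) (sn8 (dl (nat8 1 (-θa) (-θb)) (eD k) (-1)) x) where
  par := by
    intro t t'
    unfold PE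
    by_cases h1 : k = 1
    · have n1 : ¬ k = 1 / 2 := by rw [h1]; norm_num
      revert t t'
      refine all9 ?_ ?_ ?_ ?_ ?_ ?_ ?_ ?_ ?_ <;> refine all9 ?_ ?_ ?_ ?_ ?_ ?_ ?_ ?_ ?_ <;> evc <;>
        simp [h1]
    · by_cases h2 : k = 1 / 2
      · revert t t'
        refine all9 ?_ ?_ ?_ ?_ ?_ ?_ ?_ ?_ ?_ <;> refine all9 ?_ ?_ ?_ ?_ ?_ ?_ ?_ ?_ ?_ <;> evc <;>
          simp [h1, h2]
      · have h3 : ¬ k = 2⁻¹ := by rwa [one_div] at h2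
        revert t t'
        refine all9 ?_ ?_ ?_ ?_ ?_ ?_ ?_ ?_ ?_ <;> refine all9 ?_ ?_ ?_ ?_ ?_ ?_ ?_ ?_ ?_ <;> evc <;>
          simp [h1, h2, h3]
  d6 := by
    show dl (nat8 1 (-θa) (-θb)) (eD k) (-1) 6 = k * dl (nat8 1 (-θa) (-θb)) (eD k) (-1) 0
    rw [dl_eD hk (by decide), dl_eD hk (by decide)]; ev8; ring
  d3 := fun h => by
    show dl (nat8 1 (-θa) (-θb)) (eD k) (-1) 3 = dl (nat8 1 (-θa) (-θb)) (eD k) (-1) 2
    rw [dl_eD hk (by decide), dl_eD hk (by decide)]; ev8; linarith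
  d5 := fun h => by
    show dl (nat8 1 (-θa) (-θb)) (eD k) (-1) 5 = 2 * dl (nat8 1 (-θa) (-θb)) (eD k) (-1) 2
    rw [dl_eD hk (by decide), dl_eD hk (by decide)]; ev8; linarith

/-- **`EHalf` on the side below the record of the `e`-plane** -/
theorem eD_half {c : Fin 9 → Fin 9} {dl : V9} {s : ℝ} {Λ : V9 → ℝ} {φ : Fin 9 → V9 → ℝ} {ρ : V9}
    (P : PlE k c dl) (H : Cl9 c dl s Λ φ ρ) (hk : 0 < k) (hk1 : k < 1)
    (F : FctP (fun w => w 6 < k * w 0) Λ)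
    (W3 : ∀ w R, One 5 w → w 6 = k * w 0 → LinS {0, 6} Λ w R → R 1 ≤ R 2) (h8 : ρ 8 = 0)
    {θ g qa qb v a : ℝ} (hva : a + θ * v < 0)
    (T : Λ (nat9 1 (-θ) (-(θ - k))) = DL g s qa qb 1 (-θ) (-(θ - k)))
    (V : Λ (nat9 v a (a + k * v)) ≤ DL g s qa qb v a (a + k * v)) :
    EHalf k (plE s c φ ρ) ∧ (plE s c φ ρ).Tan g θ (θ - k) qa qb ∧
      0 ≤ (plE s c φ ρ).Fa qa + (plE s c φ ρ).Fb qb := by
  refine ⟨⟨P.pos H, P.eW3 H hk1.ne W3, fun h => absurd h (not_lt.2 hk1.le), (P.half H hk F).1,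
    (P.half H hk F).2, ?_⟩, P.tan H T, ?_⟩
  · show ρ 8 ≤ ρ 7
    rw [h8]
    exact P.al7.nonneg H
  · have h1 := P.ver H T V
    by_contra hcon
    push Not at hcon
    nlinarith

theorem cast_nat9 (v c p : ℝ) : (fun i : Fin 8 => nat9 v c p i.castSucc) = nat8 v c p := by
  funext i
  fin_cases i <;> rfl

end plane

section fin

variable {G : Geo TSet (Fin 2)} {L : ℕ → ℕ → LRay} {r : ℕ → ℝ} {g s : ℝ} {θ q : Fin 2 → ℝ}
    {Rg : ℝ} {B : Base} {I : ℕ → Finset (ℕ × ℝ)} {lev : ℕ → ℚ → ℕ} {A : ℕ → ℝ}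
    {f : ℕ → ℚ → ℕ → ℤ → ℕ} {b : ℕ → ℚ → ℕ → TSet} {vm : ℕ → ℚ → ℝ} {w : Fin 2 → ℕ → ℚ → ℝ}
    {fr : ℕ → ℚ → ℕ × ℝ → LInc} {fl : ℕ → ℕ × ℝ → LInc} {sc : Fin 12 → ℕ → ℝ}
    {w0 sa sb δ R : ℝ} {I0 I' : ℕ → Finset (ℕ × ℝ)} {ν own : (Fin 12 → ℝ) → ℝ} {c₀ : ℝ}

/-- **the cell**: `1/2 ≤ s`, `e`-tie, `k < 1`, `(1 + k)/2 ≤ θa` -/
theorem eLo_false {η : ℝ} (hη : η < 1)
    (C : CtxT G L r (g + 2 * s) s θ q Rg B I lev A f b vm w fr fl sc w0 sa sb δ R I0 I' ν own c₀)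
    (hN : NumL η g s θ q) (hs : 1 / 2 ≤ s) (hk : 0 < θ 0 - θ 1) (hk1 : θ 0 - θ 1 < 1)
    (hθ : 1 + (θ 0 - θ 1) ≤ 2 * θ 0)
    (hR0 : w0 + (θ 1 + sb) < R) (hR1 : w0 + 1 + sb < R) (hRg : θ 0 + |θ 1| < Rg)
    (hmic : Mic ν (θ 0) (θ 1) w0 sa sb)
    (hVis : ∀ k, VisT B I fl sc k → k = 0 ∨ k = 7 ∨ k = 8)
    (hI1 : InvT PL B I 1 fl (sc 1))
    (hW : ∀ {v0 κ l α : ℝ} {a b' : Fin 2} {X : ℕ → Fin 12 → ℝ} {h' H : ℕ → ℝ}
      {lam lam2 : Fin 2 → (Fin 12 → ℝ) → ℝ} {ρ ρ2 : Fin 8 → ℝ}, 0 < v0 → v0 < 1 →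
      Pd8 R s a b' (fun k => k = 0 ∨ k = 7 ∨ k = 8) (θ 0) (θ 1) w0 sa sb v0 1 κ (eD (θ 0 - θ 1)) (-1)
        (fo ν own) lam ρ l α h' X H lam2 ρ2 →
      ∀ w R, One 5 w → w 6 = (θ 0 - θ 1) * w 0 → LinS {0, 6}
        (fun w => lam2 0 (xt kp 0 (RL8.vec (fun i : Fin 8 => w i.castSucc)))) w R → R 1 ≤ R 2) :
    False := by
  set k := θ 0 - θ 1 with hkd
  have hθ0 : 0 < θ 0 := hN.θa
  have hb : θ 1 = θ 0 - k := by rw [hkd]; ring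
  obtain ⟨v0, -, hv0, hv1, a, b', x, hh, lam, hX, hD, O⟩ := exists_out8 (T := Unit) C hR0 hR1 hθ0
    hRg hmic hI1 (t := 1) one_pos (Bs := fun _ => eD k) (sg := fun _ => -1)
    (fun _ => sok_eD hθ0 hk hb) (fun _ => leg_eD) (N := univ) (by simp)
  obtain ⟨c0, hc0, hLW, hrec, ρ, hρ⟩ := O.surf ()
  have hVV : ∀ k', VisT B I fl sc k' → ((k' = 0 ∨ k' = 7 ∨ k' = 8) ∧
      eD k (cl8 k') ≤ eD k 0 * βL (θ 0) (θ 1) k') ∨ eD k (cl8 k') < eD k 0 * βL (θ 0) (θ 1) k' := by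
    intro k' hk'
    left
    refine ⟨hVis k' hk', ?_⟩
    rcases hVis k' hk' with rfl | rfl | rfl
    · change (-1 : ℝ) ≤ -1 * 1
      norm_num
    · change -2 * k - -k ≤ -1 * (-(θ 1) - -(θ 0))
      linarith
    · change -2 * k - -k ≤ -1 * (-(θ 1) - -(θ 0))
      linarith
  obtain ⟨l, α, h', X, H, lam2, ρ2, hl, -, -, P⟩ := plane8 (Vis' := fun k => k = 0 ∨ k = 7 ∨ k = 8)
    (v := -1) (c := -k) (p := -2 * k) (N := univ) (y := 1) O one_pos (sok_eD hθ0 hk hb) leg_eD hc0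
    hρ le_rfl (fun h => by rcases hVis 1 h with h | h | h <;> exact absurd h (by decide)) hVV
    (by simp) one_pos
  obtain ⟨φ, Hc⟩ := P.cls one_pos (sok_eD hθ0 hk hb)
    (fun k' hk' => by rcases hk' with rfl | rfl | rfl <;> simp) (hc_eD hθ0 hk hb) h8_cE
    (hz_eD hθ0 hk hb)
  have PE := eD_plE (x := 1) hθ0 hk hb
  have hF : FctP (fun w => w 6 < k * w 0)
      (fun w => lam2 0 (xt kp 0 (RL8.vec (fun i : Fin 8 => w i.castSucc)))) := by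
    refine pd8_fctP (v := -1) (c := -k) (p := -2 * k) P C hN.s1 one_ne_zero ?_
    intro w' hl' hw' k' hk'
    have h1 : w' 6 < k * w' 0 := hw'
    rcases hk' with rfl | rfl | rfl
    · change w' 0 ≤ w' 0 * 1
      rw [mul_one]
    · change w' 6 ≤ w' 0 * (-(θ 1) - -(θ 0))
      nlinarith
    · change w' 6 ≤ w' 0 * (-(θ 1) - -(θ 0))
      nlinarith
  have hT : (fun w : V9 => lam2 0 (xt kp 0 (RL8.vec (fun i : Fin 8 => w i.castSucc))))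
      (nat9 1 (-(θ 0)) (-(θ 0 - k))) = DL (g + 2 * s) s (q 0) (q 1) 1 (-(θ 0)) (-(θ 0 - k)) := by
    show lam2 0 (xt kp 0 (RL8.vec (fun i : Fin 8 => nat9 1 (-(θ 0)) (-(θ 0 - k)) i.castSucc))) = _
    rw [cast_nat9, ← hb]
    have h1 := P.half.rcd 1
    have h2 := O.rx.rcd 1
    simp only [one_smul, mul_one] at h1 h2
    rw [h1, xt_zero8, O.zero 0, sub_zero, RL8_nat]
    exact h2
  have hV : (fun w : V9 => lam2 0 (xt kp 0 (RL8.vec (fun i : Fin 8 => w i.castSucc))))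
      (nat9 (-1) (-k) (-k + k * (-1))) ≤
        DL (g + 2 * s) s (q 0) (q 1) (-1) (-k) (-k + k * (-1)) := by
    show lam2 0 (xt kp 0 (RL8.vec (fun i : Fin 8 => nat9 (-1) (-k) (-k + k * (-1)) i.castSucc))) ≤ _
    rw [cast_nat9]
    have h1 := P.half.row
    have e : -k + k * (-1) = -2 * k := by ring
    rw [e]
    exact h1
  obtain ⟨h1, h2, h3⟩ := eD_half PE Hc hk hk1 hF (hW hv0 hv1 P) (sn8_last _ _)
    (by linarith) hT hV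
  exact eHalf_false (num_of hη hN) hs hk h1 h2 (mul_nonneg (by linarith) h3)

end fin

/-! ### the fill -/

/-- the region of the cell -/
def XLo (s : ℝ) (θ : Fin 2 → ℝ) : Prop :=
  1 / 2 ≤ s ∧ 0 < θ 0 - θ 1 ∧ θ 0 - θ 1 < 1 ∧ 1 + (θ 0 - θ 1) ≤ 2 * θ 0

/-- **(W3) on the plane `eD k`** over the context (369's plug, `D` frozen) -/
def PlugE (η : ℝ) : Prop :=
  ∀ {G : Geo TSet (Fin 2)} {L : ℕ → ℕ → LRay} {r : ℕ → ℝ} {g s : ℝ} {θ q : Fin 2 → ℝ}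
    {Rg : ℝ} {B : Base} {I : ℕ → Finset (ℕ × ℝ)} {lev : ℕ → ℚ → ℕ} {A : ℕ → ℝ}
    {f : ℕ → ℚ → ℕ → ℤ → ℕ} {b : ℕ → ℚ → ℕ → TSet} {vm : ℕ → ℚ → ℝ} {w : Fin 2 → ℕ → ℚ → ℝ}
    {fr : ℕ → ℚ → ℕ × ℝ → LInc} {fl : ℕ → ℕ × ℝ → LInc} {sc : Fin 12 → ℕ → ℝ}
    {w0 sa sb δ R : ℝ} {I0 I' : ℕ → Finset (ℕ × ℝ)} {ν own : (Fin 12 → ℝ) → ℝ} {c₀ : ℝ},
    CtxT G L r (g + 2 * s) s θ q Rg B I lev A f b vm w fr fl sc w0 sa sb δ R I0 I' ν own c₀ →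
    NumL η g s θ q → XLo s θ → θ 0 + |θ 1| + 1 ≤ Rg →
    w0 + (θ 1 + sb) < R → w0 + 1 + sb < R → InvT PL B I 1 fl (sc 1) → InvT PL B I 2 fl (sc 2) →
    (TieT θ B I lev fl sc 7 ∨ TieT θ B I lev fl sc 8) →
    ∀ {v0 κ l α : ℝ} {a b' : Fin 2} {X : ℕ → Fin 12 → ℝ} {h' H : ℕ → ℝ}
      {lam lam2 : Fin 2 → (Fin 12 → ℝ) → ℝ} {ρ ρ2 : Fin 8 → ℝ}, 0 < v0 → v0 < 1 →
      Pd8 R s a b' (fun k => k = 0 ∨ k = 7 ∨ k = 8) (θ 0) (θ 1) w0 sa sb v0 1 κ (eD (θ 0 - θ 1)) (-1)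
        (fo ν own) lam ρ l α h' X H lam2 ρ2 →
      ∀ w R, One 5 w → w 6 = (θ 0 - θ 1) * w 0 → LinS {0, 6}
        (fun w => lam2 0 (xt kp 0 (RL8.vec (fun i : Fin 8 => w i.castSucc)))) w R → R 1 ≤ R 2

/-- **`e`-tie, `E`, `D` invisible, `k < 1`, `(1 + k)/2 ≤ θa`, `1/2 ≤ s`** -/
theorem fillE_loW {η : ℝ} (hη : η < 1) (hD : D0E η XLo) (hW : PlugE η) :
    Fill η (fun θ B I lev fl sc => VisB θ B I lev fl sc ∧ InvE B I fl sc)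
      fun g s θ q => 1 / 2 ≤ s → θ 0 - θ 1 < 1 → 1 + (θ 0 - θ 1) ≤ 2 * θ 0 → False := by
  intro g s θ q hN
  refine ⟨θ 0 + |θ 1| + 1, fun Rg hRg => ?_⟩
  intro G L r B I lev A f b vm w fr fl sc w0 sa sb δ R I0 I' ν own c₀ C hV hs k1 hθ
  obtain ⟨hB, hE2, hE1⟩ := hV
  obtain ⟨R', J0, J', ν', own', c', C', hR0, hR1⟩ := strict_ctx C
  have hk : 0 < θ 0 - θ 1 := by
    rcases hB with h | h
    · have h1 := h.2.1
      rwa [show βL (θ 0) (θ 1) 7 = θ 0 - θ 1 by change -(θ 1) - -(θ 0) = _; ring] at h1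
    · have h1 := h.2.1
      rwa [show βL (θ 0) (θ 1) 8 = θ 0 - θ 1 by change -(θ 1) - -(θ 0) = _; ring] at h1
  have hX : XLo s θ := ⟨hs, hk, k1, hθ⟩
  refine eLo_false hη C' hN hs hk k1 hθ hR0 hR1 (by linarith)
    (hD C' hN hX hR0 hR1 hRg hE1 hE2 fun _ => k1.le) (fun k hk => ?_) hE1
    (hW C' hN hX hRg hR0 hR1 hE1 hE2 hB)
  by_contra h0
  apply hk
  by_cases h1 : k = 1
  · rw [h1]; exact hE1
  by_cases h2 : k = 2
  · rw [h2]; exact hE2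
  refine C'.out.inv_ray ?_
  clear hk
  revert h0 h1 h2
  revert k
  decide

/-- the same, D0 given on the two parts of the region -/
theorem fillE_loW' {η : ℝ} (hη : η < 1)
    (hD1 : D0T η fun s θ => XLo s θ ∧ 2 * θ 0 - θ 1 ≠ 1)
    (hD2 : D0E η fun s θ => XLo s θ ∧ 2 * θ 0 - θ 1 = 1) (hW : PlugE η) :
    Fill η (fun θ B I lev fl sc => VisB θ B I lev fl sc ∧ InvE B I fl sc)
      fun g s θ q => 1 / 2 ≤ s → θ 0 - θ 1 < 1 → 1 + (θ 0 - θ 1) ≤ 2 * θ 0 → False :=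
  fillE_loW hη (D0E.mono (D0E.or (D0E.of hD1) hD2) fun s θ h => by
    by_cases h' : 2 * θ 0 - θ 1 = 1
    · exact Or.inr ⟨h, h'⟩
    · exact Or.inl ⟨h, h'⟩) hW

end Crest.Agent.R116.Hm621
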