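import Crest.Agent.R116.EBcDef_665

/-!
# R116: the chart `E3 → V` of the half-cone and the change of variables (helper665)
-/

set_option autoImplicit false

open MeasureTheory FourierTransform Set
open scoped ContDiff ENNReal

namespace Crest.Agent.R116.Hx665

open Crest.Agent.R138.Defs (E2 ee)
open Crest.Agent.R138.Fq665 (PR up)
open Crest.Agent.R116.Sh927 (V)
open Crest.Agent.R116.CDef480

/-! ### smooth reciprocal -/

/-- smooth reciprocal: `1/η` for `η ≥ 1/2`. -/
noncomputable def rc (η : ℝ) : ℝ := Real.smoothTransition (4 * η - 1) * η⁻¹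

theorem rc_eq {η : ℝ} (h : 1 / 2 ≤ η) : rc η = η⁻¹ := by
  unfold rc
  rw [Real.smoothTransition.one_of_one_le (by linarith), one_mul]

theorem contDiff_rc : ContDiff ℝ ∞ rc := by
  rw [contDiff_iff_contDiffAt]
  intro η
  rcases eq_or_ne η 0 with h | h
  · subst h
    have : rc =ᶠ[nhds 0] fun _ => 0 := by
      filter_upwards [Iio_mem_nhds (show (0:ℝ) < 1/4 by norm_num)] with x hx
      unfold rc
      rw [Real.smoothTransition.zero_of_nonpos (by simp only [mem_Iio] at hx; linarith), zero_mul]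
    exact contDiffAt_const.congr_of_eventuallyEq this
  · exact (Real.smoothTransition.contDiff.contDiffAt.comp η
      ((contDiffAt_id.const_smul (4:ℝ)).sub contDiffAt_const)).mul (contDiffAt_inv ℝ h)

/-- cut-off in the scalar frequency. -/
noncomputable def chi (η : ℝ) : ℝ := Real.smoothTransition (4 * η - 2)

theorem chi_one {η : ℝ} (h : 3 / 4 ≤ η) : chi η = 1 :=
  Real.smoothTransition.one_of_one_le (by linarith)

theorem chi_zero {η : ℝ} (h : η ≤ 1 / 2) : chi η = 0 :=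
  Real.smoothTransition.zero_of_nonpos (by linarith)

theorem contDiff_chi : ContDiff ℝ ∞ chi :=
  Real.smoothTransition.contDiff.comp ((contDiff_id.const_smul (4:ℝ)).sub contDiff_const)

theorem chi_nonneg (η : ℝ) : 0 ≤ chi η := Real.smoothTransition.nonneg _
theorem chi_le_one (η : ℝ) : chi η ≤ 1 := Real.smoothTransition.le_one _

/-! ### the chart -/

/-- smooth version of `hc`. -/
noncomputable def hs (ζ : E3) : ℝ := ‖lat ζ‖ ^ 2 * rc (ζ 2) / 2

theorem hs_eq {ζ : E3} (h : 1 / 2 ≤ ζ 2) : hs ζ = hc ζ := by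
  unfold hs hc
  rw [rc_eq h]
  field_simp

theorem contDiff_lat : ContDiff ℝ ∞ lat := latL.contDiff
theorem contDiff_two : ContDiff ℝ ∞ (fun ζ : E3 => ζ 2) :=
  (EuclideanSpace.proj (𝕜 := ℝ) (2 : Fin 3)).contDiff

theorem contDiff_hs : ContDiff ℝ ∞ hs :=
  ((contDiff_lat.norm_sq ℝ).mul (contDiff_rc.comp contDiff_two)).div_const 2

/-- the chart. -/
noncomputable def Ph (J : PR ≃ₗᵢ[ℝ] V) (ζ : E3) : V := up J (lat ζ) (ζ 2 / 2 - hs ζ)

theorem contDiff_Ph (J : PR ≃ₗᵢ[ℝ] V) : ContDiff ℝ ∞ (Ph J) :=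
  (Crest.Agent.R138.Fq665.contDiff_up J).comp
    (contDiff_lat.prodMk ((contDiff_two.div_const 2).sub contDiff_hs))

theorem norm_Ph (J : PR ≃ₗᵢ[ℝ] V) {ζ : E3} (h : 1 / 2 ≤ ζ 2) : ‖Ph J ζ‖ = ζ 2 / 2 + hc ζ := by
  have h0 : 0 < ζ 2 := by linarith
  have h1 : 0 ≤ hc ζ := by unfold hc; positivity
  have h2 : ‖Ph J ζ‖ ^ 2 = (ζ 2 / 2 + hc ζ) ^ 2 := by
    unfold Ph
    rw [Crest.Agent.R138.Fq665.norm_up_sq, hs_eq h]
    have : ‖lat ζ‖ ^ 2 = 2 * ζ 2 * hc ζ := by
      unfold hc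
      field_simp
    rw [this]
    ring
  exact (sq_eq_sq₀ (norm_nonneg _) (by positivity)).1 h2

/-- the phase. -/
theorem phase_eq (J : PR ≃ₗᵢ[ℝ] V) {ζ : E3} (h : 1 / 2 ≤ ζ 2) (t x3 : ℝ) (x' : E2) :
    t * ‖Ph J ζ‖ + inner ℝ (up J x' x3) (Ph J ζ) =
      inner ℝ (pt x' ((x3 + t) / 2)) ζ + (t - x3) * hc ζ := by
  rw [norm_Ph J h]
  unfold Ph
  rw [Crest.Agent.R138.Fq665.inner_up, hs_eq h, inner_split, lat_pt, pt_two]
  ring

theorem inner_Ph (J : PR ≃ₗᵢ[ℝ] V) {ζ : E3} (h : 1 / 2 ≤ ζ 2) (v3 : ℝ) (v' : E2) :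
    inner ℝ (up J v' v3) (Ph J ζ) = inner ℝ (pt v' (v3 / 2)) ζ - v3 * hc ζ := by
  have := phase_eq J h 0 v3 v'
  rw [zero_mul, zero_add] at this
  rw [this]
  ring_nf

/-- the Jacobian. -/
noncomputable def jac (ζ : E3) : ℝ := (1 + ‖lat ζ‖ ^ 2 * rc (ζ 2) ^ 2) / 2

theorem jac_pos (ζ : E3) : 0 < jac ζ := by unfold jac; positivity

theorem contDiff_jac : ContDiff ℝ ∞ jac :=
  (contDiff_const.add ((contDiff_lat.norm_sq ℝ).mul ((contDiff_rc.comp contDiff_two).pow 2))).div_const 2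

/-! ### change of variables -/

/-- `E3 = E2 × ℝ`. -/
noncomputable def J0 : PR ≃ₗᵢ[ℝ] E3 where
  toFun p := pt p.fst p.snd
  invFun ζ := WithLp.toLp 2 (lat ζ, ζ 2)
  map_add' p q := by
    ext i; fin_cases i <;> simp [pt]
  map_smul' c p := by
    ext i; fin_cases i <;> simp [pt]
  left_inv p := by
    simp only [lat_pt, pt_two]
    rfl
  right_inv ζ := by
    simp
  norm_map' p := by
    have h1 : ‖pt p.fst p.snd‖ ^ 2 = ‖p‖ ^ 2 := by
      rw [normsq3, lat_pt, pt_two, WithLp.prod_norm_sq_eq_of_L2]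
      simp
    exact (sq_eq_sq₀ (norm_nonneg _) (norm_nonneg _)).1 h1

theorem up_J0 (x : E2) (t : ℝ) : up J0 x t = pt x t := rfl

theorem mp_pt : MeasurePreserving (fun p : E2 × ℝ => pt p.1 p.2) volume volume :=
  Crest.Agent.R138.Fq665.mp_up J0

theorem me_pt : MeasurableEmbedding (fun p : E2 × ℝ => pt p.1 p.2) :=
  Crest.Agent.R138.Fq665.measurableEmbedding_up J0

theorem lintegral_pt (f : E3 → ℝ≥0∞) (hf : Measurable f) :
    ∫⁻ v, f v = ∫⁻ p : E2 × ℝ, f (pt p.1 p.2) :=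
  (mp_pt.lintegral_comp hf).symm

/-- the one dimensional map. -/
noncomputable def psi (q η : ℝ) : ℝ := η / 2 - q / (2 * η)

theorem psi_image {q : ℝ} (hq : 0 ≤ q) : psi q '' Ioi (1/2) = Ioi (1/4 - q) := by
  ext u
  simp only [mem_image, mem_Ioi]
  constructor
  · rintro ⟨η, hη, rfl⟩
    unfold psi
    have h0 : 0 < η := by linarith
    have h1 : q / (2 * η) ≤ q := by
      rw [div_le_iff₀ (by positivity)]
      nlinarith
    linarith
  · intro hu
    have hs : 0 ≤ u ^ 2 + q := by positivity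
    set w := Real.sqrt (u ^ 2 + q) with hw
    have hw2 : w ^ 2 = u ^ 2 + q := Real.sq_sqrt hs
    have hw0 : 0 ≤ w := Real.sqrt_nonneg _
    have h1 : 1 / 2 < u + w := by
      by_contra hcon
      push Not at hcon
      have h2 : w ≤ 1/2 - u := by linarith
      have h3 : w ^ 2 ≤ (1/2 - u) ^ 2 := by
        apply pow_le_pow_left₀ hw0 h2
      nlinarith
    refine ⟨u + w, h1, ?_⟩
    unfold psi
    have h4 : 0 < u + w := by linarith
    rw [div_sub_div _ _ (by norm_num) (by positivity), div_eq_iff (by positivity)]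
    nlinarith

theorem psi_deriv (q : ℝ) {η : ℝ} (h : 0 < η) :
    HasDerivAt (psi q) ((1 + q * (η⁻¹) ^ 2) / 2) η := by
  have h1 : HasDerivAt (fun x : ℝ => x / 2 - q / 2 * x⁻¹) (1 / 2 - q / 2 * (-(η ^ 2)⁻¹)) η :=
    ((hasDerivAt_id η).div_const 2).sub ((hasDerivAt_inv h.ne').const_mul (q / 2))
  have h2 : psi q = fun x : ℝ => x / 2 - q / 2 * x⁻¹ := by
    ext x; unfold psi
    rw [div_mul_eq_div_div, div_eq_mul_inv (q/2)]
  rw [h2]
  convert h1 using 1
  rw [inv_pow]
  ring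

theorem psi_inj {q : ℝ} (hq : 0 ≤ q) : InjOn (psi q) (Ioi (1/2)) := by
  apply StrictMonoOn.injOn
  intro x hx y hy hxy
  simp only [mem_Ioi] at hx hy
  unfold psi
  have h0 : 0 < x := by linarith
  have h1 : q / (2 * y) ≤ q / (2 * x) := by
    apply div_le_div_of_nonneg_left hq (by positivity) (by linarith)
  linarith

/-- change of variables, one fibre. -/
theorem cv_fibre {q : ℝ} (hq : 0 ≤ q) (F : ℝ → ℝ≥0∞) :
    ∫⁻ u in Ioi (1/4 - q), F u =
      ∫⁻ η in Ioi (1/2), ENNReal.ofReal ((1 + q * (η⁻¹) ^ 2) / 2) * F (psi q η) := by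
  rw [← psi_image hq, lintegral_image_eq_lintegral_abs_deriv_mul measurableSet_Ioi
    (fun x hx => (psi_deriv q (by simp only [mem_Ioi] at hx; linarith)).hasDerivWithinAt)
    (psi_inj hq)]
  refine setLIntegral_congr_fun measurableSet_Ioi fun η _ => ?_
  rw [abs_of_nonneg (by positivity)]

theorem Ph_pt (J : PR ≃ₗᵢ[ℝ] V) {x : E2} {η : ℝ} (h : 1 / 2 ≤ η) :
    Ph J (pt x η) = up J x (psi (‖x‖ ^ 2) η) := by
  unfold Ph psi
  rw [lat_pt, pt_two, hs_eq (by rw [pt_two]; exact h)]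
  unfold hc
  rw [lat_pt, pt_two]

theorem measurable_Ph (J : PR ≃ₗᵢ[ℝ] V) : Measurable (Ph J) := (contDiff_Ph J).continuous.measurable

/-- **change of variables** (nonnegative functions). -/
theorem cv_lint (J : PR ≃ₗᵢ[ℝ] V) (F : V → ℝ≥0∞) (hF : Measurable F)
    (hs : ∀ x : E2, ∀ u : ℝ, F (up J x u) ≠ 0 → 1/4 < u) :
    ∫⁻ v, F v = ∫⁻ ζ : E3 in {ζ | 1/2 < ζ 2}, ENNReal.ofReal (jac ζ) * F (Ph J ζ) := by
  have hjm : Measurable fun ζ : E3 => ENNReal.ofReal (jac ζ) :=
    (contDiff_jac.continuous.measurable).ennreal_ofReal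
  have hset : MeasurableSet {ζ : E3 | 1/2 < ζ 2} :=
    measurableSet_lt measurable_const (measurable_coord 2)
  have hup := Crest.Agent.R138.Fq665.continuous_up J
  have hm1 : Measurable fun p : E2 × ℝ => F (up J p.1 p.2) := hF.comp hup.measurable
  have hm2 : Measurable fun p : E2 × ℝ => ({ζ : E3 | 1/2 < ζ 2}.indicator
      (fun ζ => ENNReal.ofReal (jac ζ) * F (Ph J ζ))) (pt p.1 p.2) :=
    ((hjm.mul (hF.comp (measurable_Ph J))).indicator hset).comp mp_pt.measurable
  rw [Crest.Agent.R138.Fq665.lintegral_up J F hF, Measure.volume_eq_prod, lintegral_prod _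
    hm1.aemeasurable]
  have hm3 : Measurable ({ζ : E3 | 1/2 < ζ 2}.indicator
      (fun ζ => ENNReal.ofReal (jac ζ) * F (Ph J ζ))) :=
    (hjm.mul (hF.comp (measurable_Ph J))).indicator hset
  rw [← lintegral_indicator hset, lintegral_pt _ hm3,
    Measure.volume_eq_prod, lintegral_prod _ hm2.aemeasurable]
  refine lintegral_congr fun x => ?_
  simp only
  have e1 : ∫⁻ u, F (up J x u) = ∫⁻ u in Ioi (1/4 - ‖x‖ ^ 2), F (up J x u) := by
    rw [← lintegral_indicator measurableSet_Ioi]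
    refine lintegral_congr fun u => ?_
    by_cases hu : u ∈ Ioi (1/4 - ‖x‖ ^ 2)
    · rw [indicator_of_mem hu]
    · rw [indicator_of_notMem hu]
      by_contra hne
      have := hs x u hne
      apply hu
      simp only [mem_Ioi]
      nlinarith [sq_nonneg ‖x‖]
  rw [e1, cv_fibre (sq_nonneg ‖x‖), ← lintegral_indicator measurableSet_Ioi]
  refine lintegral_congr fun η => ?_
  by_cases hη : η ∈ Ioi (1/2 : ℝ)
  · have h1 : 1 / 2 ≤ η := le_of_lt hη
    rw [indicator_of_mem hη, indicator_of_mem (show pt x η ∈ {ζ : E3 | 1/2 < ζ 2} from hη), Ph_pt J h1]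
    unfold jac
    rw [lat_pt, pt_two, rc_eq h1]
  · rw [indicator_of_notMem hη, indicator_of_notMem (show pt x η ∉ {ζ : E3 | 1/2 < ζ 2} from hη)]

/-- the good region on the side of `V`. -/
def UV (J : PR ≃ₗᵢ[ℝ] V) : Set V := {v | 1/4 < (J.symm v).snd}

theorem meas_UV (J : PR ≃ₗᵢ[ℝ] V) : MeasurableSet (UV J) := by
  have h1 : Continuous fun v : V => (J.symm v).snd :=
    (WithLp.prod_continuous_ofLp 2 E2 ℝ).snd.comp J.symm.continuous
  exact measurableSet_lt measurable_const h1.measurable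

theorem up_mem_UV (J : PR ≃ₗᵢ[ℝ] V) (x : E2) (u : ℝ) : up J x u ∈ UV J ↔ 1/4 < u := by
  unfold UV up
  simp

/-- the measure on the frequency side. -/
noncomputable def mu : Measure E3 :=
  (volume.restrict {ζ : E3 | 1/2 < ζ 2}).withDensity (fun ζ => ENNReal.ofReal (jac ζ))

theorem map_mu (J : PR ≃ₗᵢ[ℝ] V) : (mu.map (Ph J)).restrict (UV J) = volume.restrict (UV J) := by
  ext s hs
  rw [Measure.restrict_apply hs, Measure.restrict_apply hs,
    Measure.map_apply (measurable_Ph J) (hs.inter (meas_UV J))]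
  have hjm : Measurable fun ζ : E3 => ENNReal.ofReal (jac ζ) :=
    (contDiff_jac.continuous.measurable).ennreal_ofReal
  have hm := hs.inter (meas_UV J)
  rw [← lintegral_indicator_one hm, cv_lint J _ (measurable_one.indicator hm)]
  · unfold mu
    rw [withDensity_apply _ (measurable_Ph J hm), ← lintegral_indicator (measurable_Ph J hm)]
    refine lintegral_congr fun ζ => ?_
    by_cases h : Ph J ζ ∈ s ∩ UV J
    · rw [indicator_of_mem (show ζ ∈ Ph J ⁻¹' (s ∩ UV J) from h), indicator_of_mem h]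
      simp
    · rw [indicator_of_notMem (show ζ ∉ Ph J ⁻¹' (s ∩ UV J) from h), indicator_of_notMem h]
      simp
  · intro x u h
    by_contra hcon
    apply h
    rw [indicator_of_notMem]
    rintro ⟨_, h2⟩
    exact hcon ((up_mem_UV J x u).1 h2)

/-- **change of variables** (vector valued). -/
theorem cv_int {W : Type*} [NormedAddCommGroup W] [NormedSpace ℝ W] (J : PR ≃ₗᵢ[ℝ] V) (F : V → W)
    (hF : AEStronglyMeasurable F volume)
    (hs : ∀ v, F v ≠ 0 → v ∈ UV J) :
    ∫ v, F v = ∫ ζ : E3 in {ζ | 1/2 < ζ 2}, jac ζ • F (Ph J ζ) := by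
  have h1 : ∫ v, F v = ∫ v in UV J, F v := by
    rw [setIntegral_eq_integral_of_forall_compl_eq_zero]
    intro v hv
    by_contra h
    exact hv (hs v h)
  have h2 : ∫ v in UV J, F v = ∫ v, F v ∂(mu.map (Ph J)) := by
    rw [← map_mu J, setIntegral_eq_integral_of_forall_compl_eq_zero]
    intro v hv
    by_contra h
    exact hv (hs v h)
  have h3 : AEStronglyMeasurable F (mu.map (Ph J)) := by
    have h4 : AEStronglyMeasurable F ((mu.map (Ph J)).restrict (UV J)) := by
      rw [map_mu J]; exact hF.restrict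
    have h5 : F = (UV J).indicator F := by
      ext v
      by_cases hv : v ∈ UV J
      · rw [indicator_of_mem hv]
      · rw [indicator_of_notMem hv]
        by_contra h
        exact hv (hs v h)
    rw [h5]
    exact (aestronglyMeasurable_indicator_iff (meas_UV J)).2 h4
  rw [h1, h2, integral_map (measurable_Ph J).aemeasurable h3]
  unfold mu
  rw [integral_withDensity_eq_integral_toReal_smul
    (contDiff_jac.continuous.measurable).ennreal_ofReal (Filter.Eventually.of_forall fun _ => ENNReal.ofReal_lt_top)]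
  refine integral_congr_ae (Filter.Eventually.of_forall fun ζ => ?_)
  simp only
  rw [ENNReal.toReal_ofReal (jac_pos ζ).le]

end Crest.Agent.R116.Hx665
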