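import Crest.Agent.R116.Hx1_665
import Crest.Agent.R116.Gw3_665
import Crest.Agent.R138.Fq14_665

/-!
# R116: the function `gf` on the frequency side, the identity with `extc` (helper665)
-/

set_option autoImplicit false

open MeasureTheory FourierTransform Set Filter
open scoped ContDiff ENNReal

namespace Crest.Agent.R116.Hx665

open Crest.Agent.R138.Defs (E2 ee)
open Crest.Agent.R138.Fq665 (PR up)
open Crest.Agent.R138.Fr665 (cv)
open Crest.Agent.R116.Sh927 (V)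
open Crest.Agent.R116.EB665 (Kt)
open Crest.Agent.R116.CDef480

/-- admissible piece. -/
structure Pc (J : PR ≃ₗᵢ[ℝ] V) (a : V → ℂ) : Prop where
  sm : ContDiff ℝ ∞ a
  supp : ∀ v, a v ≠ 0 → ‖v - up J 0 (3/4)‖ ≤ 1/8

variable {J : PR ≃ₗᵢ[ℝ] V} {a : V → ℂ}

theorem Pc.nrm (h : Pc J a) (v : V) (hv : a v ≠ 0) : 1/2 ≤ ‖v‖ ∧ ‖v‖ ≤ 2 :=
  EB665.piece_norm le_rfl h.supp v hv

theorem Pc.hcs (h : Pc J a) : HasCompactSupport a := EB665.hcs_of_piece h.nrm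

theorem Pc.cont (h : Pc J a) : Continuous a := h.sm.continuous

theorem Pc.int (h : Pc J a) : Integrable a := h.cont.integrable_of_hasCompactSupport h.hcs

theorem up_bounds {x : E2} {u : ℝ} (h : ‖up J x u - up J 0 (3/4)‖ ≤ 1/8) :
    ‖x‖ ≤ 1/8 ∧ |u - 3/4| ≤ 1/8 := by
  have h1 : ‖up J x u - up J 0 (3/4)‖ ^ 2 ≤ (1/8) ^ 2 :=
    pow_le_pow_left₀ (norm_nonneg _) h 2
  rw [Crest.Agent.R138.Fq665.up_sub, Crest.Agent.R138.Fq665.norm_up_sq, sub_zero] at h1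
  constructor
  · exact abs_le_of_sq_le_sq' (by nlinarith [sq_nonneg (u - 3/4)]) (by norm_num) |>.2
  · apply abs_le_of_sq_le_sq _ (by norm_num)
    nlinarith [sq_nonneg ‖x‖]

theorem reg {ζ : E3} (h0 : 1/2 < ζ 2) (h : ‖Ph J ζ - up J 0 (3/4)‖ ≤ 1/8) :
    5/4 ≤ ζ 2 ∧ ζ 2 ≤ 2 ∧ ‖lat ζ‖ ≤ 1/8 ∧ ‖slp ζ‖ ≤ 1/10 := by
  obtain ⟨h1, h2⟩ := up_bounds h
  rw [hs_eq h0.le] at h2
  have hpos : 0 < ζ 2 := by linarith
  have h3 : 0 ≤ hc ζ := by unfold hc; positivity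
  rw [abs_le] at h2
  have h4 : 5/4 ≤ ζ 2 := by linarith [h2.1]
  have h5 : hc ζ ≤ 1/8 := by
    unfold hc
    rw [div_le_iff₀ (by positivity)]
    nlinarith [norm_nonneg (lat ζ)]
  refine ⟨h4, by linarith [h2.2], h1, ?_⟩
  unfold slp
  rw [norm_smul, norm_inv, Real.norm_eq_abs, abs_of_pos hpos, inv_mul_le_iff₀ hpos]
  nlinarith

/-- the amplitude in null coordinates. -/
noncomputable def Aa (J : PR ≃ₗᵢ[ℝ] V) (a : V → ℂ) (ζ : E3) : ℂ :=
  a (Ph J ζ) * ((chi (ζ 2) * jac ζ : ℝ) : ℂ)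

theorem Pc.Aa_reg (h : Pc J a) {ζ : E3} (hz : Aa J a ζ ≠ 0) :
    5/4 ≤ ζ 2 ∧ ζ 2 ≤ 2 ∧ ‖lat ζ‖ ≤ 1/8 ∧ ‖slp ζ‖ ≤ 1/10 := by
  unfold Aa at hz
  have h1 : a (Ph J ζ) ≠ 0 := left_ne_zero_of_mul hz
  have h2 : 1/2 < ζ 2 := by
    by_contra hcon
    push Not at hcon
    apply hz
    rw [chi_zero hcon]
    simp
  exact reg h2 (h.supp _ h1)

theorem Aa_eq_zero {ζ : E3} (hz : ζ 2 ≤ 1/2) : Aa J a ζ = 0 := by
  unfold Aa
  rw [chi_zero hz]
  simp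

theorem Pc.Aa_eq (h : Pc J a) {ζ : E3} (hz : 1/2 < ζ 2) :
    Aa J a ζ = a (Ph J ζ) * ((jac ζ : ℝ) : ℂ) := by
  unfold Aa
  by_cases h1 : a (Ph J ζ) = 0
  · rw [h1, zero_mul, zero_mul]
  · rw [chi_one (by linarith [(reg hz (h.supp _ h1)).1]), one_mul]

theorem Pc.contDiff_Aa (h : Pc J a) : ContDiff ℝ ∞ (Aa J a) :=
  (h.sm.comp (contDiff_Ph J)).mul (Complex.ofRealCLM.contDiff.comp
    ((contDiff_chi.comp contDiff_two).mul contDiff_jac))

theorem norm_le_of {ζ : E3} (h1 : 5/4 ≤ ζ 2) (h2 : ζ 2 ≤ 2) (h3 : ‖lat ζ‖ ≤ 1/8) : ‖ζ‖ ≤ 3 := by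
  have : ‖ζ‖ ^ 2 ≤ 3 ^ 2 := by
    rw [normsq3]
    nlinarith [norm_nonneg (lat ζ)]
  exact abs_le_of_sq_le_sq' this (by norm_num) |>.2

theorem Pc.norm_le (h : Pc J a) {ζ : E3} (hz : Aa J a ζ ≠ 0) : ‖ζ‖ ≤ 3 := by
  obtain ⟨h1, h2, h3, _⟩ := h.Aa_reg hz
  exact norm_le_of h1 h2 h3

theorem Pc.hcs_Aa (h : Pc J a) : HasCompactSupport (Aa J a) := by
  apply HasCompactSupport.of_support_subset_isCompact (isCompact_closedBall (0 : E3) 3)
  intro ζ hζ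
  simpa using h.norm_le hζ

theorem jac_le {ζ : E3} (h1 : 5/4 ≤ ζ 2) (h3 : ‖lat ζ‖ ≤ 1/8) : jac ζ ≤ 1 := by
  unfold jac
  rw [rc_eq (by linarith)]
  have h2 : (ζ 2)⁻¹ ≤ 1 := inv_le_one_of_one_le₀ (by linarith)
  have h4 : 0 ≤ (ζ 2)⁻¹ := by positivity
  have h5 : ‖lat ζ‖ ^ 2 ≤ 1 := by nlinarith [norm_nonneg (lat ζ)]
  have h6 : (ζ 2)⁻¹ ^ 2 ≤ 1 := by nlinarith
  nlinarith [mul_le_mul h5 h6 (by positivity) (by norm_num : (0:ℝ) ≤ 1)]

theorem Pc.norm_Aa_le (h : Pc J a) (ζ : E3) : ‖Aa J a ζ‖ ≤ ‖a (Ph J ζ)‖ := by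
  by_cases hz : Aa J a ζ = 0
  · rw [hz, norm_zero]; positivity
  · obtain ⟨h1, _, h3, _⟩ := h.Aa_reg hz
    rw [h.Aa_eq (by linarith), norm_mul, Complex.norm_real, Real.norm_eq_abs,
      abs_of_pos (jac_pos ζ)]
    exact mul_le_of_le_one_right (norm_nonneg _) (jac_le h1 h3)

/-- the function on the frequency side. -/
noncomputable def gf (J : PR ≃ₗᵢ[ℝ] V) (a f : V → ℂ) (ζ : E3) : ℂ := Aa J a ζ * 𝓕 f (Ph J ζ)

theorem gf_ne {f : V → ℂ} {ζ : E3} (hz : gf J a f ζ ≠ 0) : Aa J a ζ ≠ 0 :=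
  left_ne_zero_of_mul hz

/-- **identity**. -/
theorem cv_eq_extc (h : Pc J a) {f : V → ℂ} (hf : Integrable f) (t x3 : ℝ) (x' : E2) :
    cv (Kt a t) f (up J x' x3) = extc (gf J a f) (pt x' ((x3 + t) / 2)) (t - x3) := by
  have hGc : Continuous fun v => a v * ee (t * ‖v‖) :=
    h.cont.mul (Crest.Agent.R138.Fq665.continuous_ee.comp (continuous_const.mul continuous_norm))
  have hG : Integrable fun v => a v * ee (t * ‖v‖) := by
    refine hGc.integrable_of_hasCompactSupport ?_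
    exact h.hcs.mul_right
  unfold EB665.Kt
  rw [Crest.Agent.R138.Fq665.cv_eq hG hf]
  have hFc : Continuous (𝓕 f) := Crest.Agent.R138.Fq665.continuous_fourier hf
  rw [cv_int J (fun ξ => a ξ * ee (t * ‖ξ‖) * 𝓕 f ξ * ee (inner ℝ (up J x' x3) ξ))]
  · unfold extc
    rw [← integral_indicator (measurableSet_lt measurable_const (measurable_coord 2))]
    refine integral_congr_ae (Eventually.of_forall fun ζ => ?_)
    simp only
    by_cases hz : 1/2 < ζ 2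
    · rw [indicator_of_mem (show ζ ∈ {ζ : E3 | 1/2 < ζ 2} from hz), ← phase_eq J hz.le,
        Crest.Agent.R138.Fq665.ee_add]
      unfold gf
      rw [h.Aa_eq hz, Complex.real_smul]
      ring
    · rw [indicator_of_notMem (show ζ ∉ {ζ : E3 | 1/2 < ζ 2} from hz)]
      unfold gf
      rw [Aa_eq_zero (by linarith)]
      simp
  · exact ((hGc.mul hFc).mul (Crest.Agent.R138.Fq665.continuous_ee.comp
      (continuous_const.inner continuous_id))).aestronglyMeasurable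
  · intro v hv
    have h1 : a v ≠ 0 := by
      intro h0
      apply hv
      rw [h0]
      simp
    have h2 := h.supp v h1
    have h3 : v = up J (J.symm v).fst (J.symm v).snd := by
      unfold Crest.Agent.R138.Fq665.up
      rw [show WithLp.toLp 2 ((J.symm v).fst, (J.symm v).snd) = J.symm v from rfl]
      simp
    rw [h3] at h2 ⊢
    rw [up_mem_UV]
    have := (up_bounds h2).2
    rw [abs_le] at this
    linarith [this.1]

theorem up_surj (J : PR ≃ₗᵢ[ℝ] V) (v : V) : v = up J (J.symm v).fst (J.symm v).snd := by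
  unfold Crest.Agent.R138.Fq665.up
  rw [show WithLp.toLp 2 ((J.symm v).fst, (J.symm v).snd) = J.symm v from rfl]
  simp

/-! ### the function `gf` is a state -/

theorem Pc.bdd (h : Pc J a) : ∃ L : ℝ, 0 ≤ L ∧ ∀ v, ‖a v‖ ≤ L := by
  obtain ⟨C, hC⟩ := h.cont.bounded_above_of_compact_support h.hcs
  exact ⟨max C 0, le_max_right _ _, fun v => (hC v).trans (le_max_left _ _)⟩

theorem Pc.gf_cont (h : Pc J a) {f : V → ℂ} (hf : Integrable f) : Continuous (gf J a f) :=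
  h.contDiff_Aa.continuous.mul ((Crest.Agent.R138.Fq665.continuous_fourier hf).comp
    (contDiff_Ph J).continuous)

theorem Pc.gf_hcs (h : Pc J a) (f : V → ℂ) : HasCompactSupport (gf J a f) :=
  h.hcs_Aa.mul_right

theorem Pc.gf_int (h : Pc J a) {f : V → ℂ} (hf : Integrable f) : Integrable (gf J a f) :=
  (h.gf_cont hf).integrable_of_hasCompactSupport (h.gf_hcs f)

/-- energy, as a `lintegral`. -/
theorem Pc.gf_energy (h : Pc J a) {L : ℝ} (hL : ∀ v, ‖a v‖ ≤ L) {f : V → ℂ}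
    (h1 : Integrable f) (h2 : MemLp f 2) :
    ∫⁻ ζ, ‖gf J a f ζ‖ₑ ^ 2 ≤ ENNReal.ofReal (L ^ 2) * ∫⁻ v, ‖f v‖ₑ ^ 2 := by
  have hFc : Continuous (𝓕 f) := Crest.Agent.R138.Fq665.continuous_fourier h1
  have key : ∫⁻ ζ, ‖gf J a f ζ‖ₑ ^ 2 ≤
      ∫⁻ ζ : E3 in {ζ | 1/2 < ζ 2}, ENNReal.ofReal (jac ζ) *
        (‖a (Ph J ζ)‖ₑ ^ 2 * ‖𝓕 f (Ph J ζ)‖ₑ ^ 2) := by
    rw [← lintegral_indicator (measurableSet_lt measurable_const (measurable_coord 2))]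
    refine lintegral_mono fun ζ => ?_
    by_cases hz : Aa J a ζ = 0
    · unfold gf
      rw [hz]
      simp
    · obtain ⟨r1, _, r3, _⟩ := h.Aa_reg hz
      have r0 : 1/2 < ζ 2 := by linarith
      rw [indicator_of_mem (show ζ ∈ {ζ : E3 | 1/2 < ζ 2} from r0)]
      unfold gf
      rw [h.Aa_eq r0, enorm_mul, mul_pow, enorm_mul, mul_pow]
      have e1 : ‖((jac ζ : ℝ) : ℂ)‖ₑ ^ 2 ≤ ENNReal.ofReal (jac ζ) := by
        rw [← ofReal_norm, Complex.norm_real, Real.norm_eq_abs, abs_of_pos (jac_pos ζ),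
          ← ENNReal.ofReal_pow (jac_pos ζ).le]
        apply ENNReal.ofReal_le_ofReal
        have := jac_le r1 r3
        nlinarith [jac_pos ζ]
      calc ‖a (Ph J ζ)‖ₑ ^ 2 * ‖((jac ζ : ℝ) : ℂ)‖ₑ ^ 2 * ‖𝓕 f (Ph J ζ)‖ₑ ^ 2
          ≤ ‖a (Ph J ζ)‖ₑ ^ 2 * ENNReal.ofReal (jac ζ) * ‖𝓕 f (Ph J ζ)‖ₑ ^ 2 := by gcongr
        _ = _ := by ring
  have hm : Measurable fun v : V => ‖a v‖ₑ ^ 2 * ‖𝓕 f v‖ₑ ^ 2 :=
    (h.cont.measurable.enorm.pow_const 2).mul (hFc.measurable.enorm.pow_const 2)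
  rw [← cv_lint J (fun v => ‖a v‖ₑ ^ 2 * ‖𝓕 f v‖ₑ ^ 2) hm] at key
  · refine key.trans ?_
    rw [← Crest.Agent.R138.Fq665.plancherel h1 h2, ← lintegral_const_mul _
      (hFc.measurable.enorm.pow_const 2)]
    refine lintegral_mono fun v => ?_
    simp only
    gcongr
    rw [← ofReal_norm, ← ENNReal.ofReal_pow (norm_nonneg _)]
    apply ENNReal.ofReal_le_ofReal
    exact pow_le_pow_left₀ (norm_nonneg _) (hL v) 2
  · intro x u hne
    have h3 : a (up J x u) ≠ 0 := by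
      intro h0
      apply hne
      rw [h0]
      simp
    have := (up_bounds (h.supp _ h3)).2
    rw [abs_le] at this
    linarith [this.1]

theorem Enc_nonneg (g : E3 → ℂ) : 0 ≤ Enc g := integral_nonneg fun _ => by positivity

end Crest.Agent.R116.Hx665
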