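import Crest.Agent.R116.Hx2_665

/-!
# R116: space-time change of variables (helper665)
-/

set_option autoImplicit false

open MeasureTheory FourierTransform Set Filter
open scoped ContDiff ENNReal

namespace Crest.Agent.R116.Hx665

open Crest.Agent.R138.Defs (E2 ee)
open Crest.Agent.R138.Fq665 (PR up)
open Crest.Agent.R138.Fr665 (cv)
open Crest.Agent.R116.Sh927 (V)
open Crest.Agent.R116.EB665 (Kt)
open Crest.Agent.R116.CDef480

variable {J : PR ≃ₗᵢ[ℝ] V} {a : V → ℂ}

/-- shear in the plane. -/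
theorem shear2 {H : ℝ × ℝ → ℝ≥0∞} (hH : Measurable H) :
    ∫⁻ t : ℝ, ∫⁻ x : ℝ, H ((x + t) / 2, t - x) = ∫⁻ s : ℝ, ∫⁻ y : ℝ, H (y, s) := by
  have h1 : ∀ t : ℝ, ∫⁻ x : ℝ, H ((x + t) / 2, t - x) = ∫⁻ s : ℝ, H (t - s / 2, s) := by
    intro t
    rw [← lintegral_sub_left_eq_self (fun s => H (t - s / 2, s)) t]
    refine lintegral_congr fun x => ?_
    congr 2
    ring
  simp only [h1]
  rw [lintegral_lintegral_swap]
  · refine lintegral_congr fun s => ?_
    exact lintegral_sub_right_eq_self (fun y => H (y, s)) (s / 2)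
  · exact (hH.comp (by fun_prop)).aemeasurable

theorem shear4 {F : E3 × ℝ → ℝ≥0∞} (hF : Measurable F) :
    ∫⁻ t : ℝ, ∫⁻ p : E2 × ℝ, F (pt p.1 ((p.2 + t) / 2), t - p.2) = ∫⁻ q, F q := by
  have hpt : Continuous fun p : E2 × ℝ => pt p.1 p.2 := Crest.Agent.R138.Fq665.continuous_up J0
  have c1 : Measurable fun q : ℝ × (E2 × ℝ) => F (pt q.2.1 ((q.2.2 + q.1) / 2), q.1 - q.2.2) := by
    refine hF.comp (Continuous.measurable ?_)
    exact (hpt.comp (by fun_prop : Continuous fun q : ℝ × (E2 × ℝ) =>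
      (q.2.1, (q.2.2 + q.1) / 2))).prodMk (by fun_prop)
  have h1 : ∫⁻ t : ℝ, ∫⁻ p : E2 × ℝ, F (pt p.1 ((p.2 + t) / 2), t - p.2) =
      ∫⁻ t : ℝ, ∫⁻ x : E2, ∫⁻ u : ℝ, F (pt x ((u + t) / 2), t - u) := by
    refine lintegral_congr fun t => ?_
    have c0 : Measurable fun p : E2 × ℝ => F (pt p.1 ((p.2 + t) / 2), t - p.2) :=
      c1.comp (measurable_const.prodMk measurable_id)
    rw [Measure.volume_eq_prod, lintegral_prod _ c0.aemeasurable]
  have h2 : ∫⁻ t : ℝ, ∫⁻ x : E2, ∫⁻ u : ℝ, F (pt x ((u + t) / 2), t - u) =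
      ∫⁻ x : E2, ∫⁻ t : ℝ, ∫⁻ u : ℝ, F (pt x ((u + t) / 2), t - u) := by
    apply lintegral_lintegral_swap
    refine Measurable.aemeasurable ?_
    have c2 : Measurable fun q : (ℝ × E2) × ℝ => F (pt q.1.2 ((q.2 + q.1.1) / 2), q.1.1 - q.2) :=
      c1.comp (by fun_prop : Measurable fun q : (ℝ × E2) × ℝ => (q.1.1, (q.1.2, q.2)))
    exact c2.lintegral_prod_right'
  have h3 : ∫⁻ x : E2, ∫⁻ t : ℝ, ∫⁻ u : ℝ, F (pt x ((u + t) / 2), t - u) =
      ∫⁻ x : E2, ∫⁻ s : ℝ, ∫⁻ y : ℝ, F (pt x y, s) := by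
    refine lintegral_congr fun x => ?_
    have c3 : Measurable fun p : ℝ × ℝ => F (pt x p.1, p.2) :=
      hF.comp ((hpt.comp (by fun_prop : Continuous fun p : ℝ × ℝ => (x, p.1))).prodMk
        (by fun_prop)).measurable
    exact shear2 c3
  have h4 : ∫⁻ x : E2, ∫⁻ s : ℝ, ∫⁻ y : ℝ, F (pt x y, s) =
      ∫⁻ s : ℝ, ∫⁻ x : E2, ∫⁻ y : ℝ, F (pt x y, s) := by
    apply lintegral_lintegral_swap
    have c2 : Measurable fun q : (E2 × ℝ) × ℝ => F (pt q.1.1 q.2, q.1.2) :=
      hF.comp ((hpt.comp (by fun_prop : Continuous fun q : (E2 × ℝ) × ℝ => (q.1.1, q.2))).prodMk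
        (by fun_prop)).measurable
    exact c2.lintegral_prod_right'.aemeasurable
  rw [h1, h2, h3, h4, Measure.volume_eq_prod E3 ℝ, lintegral_prod_symm _ hF.aemeasurable]
  refine lintegral_congr fun s => ?_
  have c4 : Measurable fun X : E3 => F (X, s) := hF.comp (by fun_prop)
  rw [lintegral_pt _ c4, Measure.volume_eq_prod, lintegral_prod]
  exact (c4.comp hpt.measurable).aemeasurable

theorem continuous_extc {g : E3 → ℂ} (hg : Integrable g) :
    Continuous fun p : E3 × ℝ => extc g p.1 p.2 := by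
  unfold extc
  refine continuous_of_dominated (bound := fun ζ => ‖g ζ‖) ?_ ?_ hg.norm ?_
  · intro p
    refine hg.1.mul (Measurable.aestronglyMeasurable ?_)
    exact continuous_ee'.measurable.comp (by
      have := measurable_hc
      fun_prop)
  · intro p
    refine Eventually.of_forall fun ζ => ?_
    rw [norm_mul, Crest.Agent.R138.Wpk685.norm_ee, mul_one]
  · refine Eventually.of_forall fun ζ => ?_
    exact continuous_const.mul (continuous_ee'.comp (by fun_prop))

theorem meas_cylc (R : ℝ) : MeasurableSet (cylc R) := by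
  have h1 : IsClosed (cylc R) := by
    have e : cylc R = {p : E3 × ℝ | ‖p.1‖ ≤ R} ∩ {p | |p.2| ≤ R} := rfl
    rw [e]
    exact (isClosed_le (by fun_prop) (by fun_prop)).inter (isClosed_le (by fun_prop) (by fun_prop))
  exact h1.measurableSet

/-- **space-time**. -/
theorem st_le (h : Pc J a) {f : V → ℂ} (hf : Integrable f) {R R1 : ℝ} (hR : 0 ≤ R)
    (hR1 : R ≤ R1) :
    ∫⁻ t in Icc (0 : ℝ) (2 * R), ∫⁻ v in Metric.closedBall (0 : V) R1,
        ‖cv (Kt a t) f v‖ₑ ^ 3 ≤
      ∫⁻ p in cylc (3 * R1), ‖extc (gf J a f) p.1 p.2‖ₑ ^ 3 := by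
  have hcont := continuous_extc (h.gf_int hf)
  have hm : Measurable fun p : E3 × ℝ => ‖extc (gf J a f) p.1 p.2‖ₑ ^ 3 :=
    hcont.measurable.enorm.pow_const 3
  rw [← lintegral_indicator (meas_cylc _), ← shear4 (hm.indicator (meas_cylc _)),
    ← lintegral_indicator measurableSet_Icc]
  refine lintegral_mono fun t => ?_
  by_cases ht : t ∈ Icc (0 : ℝ) (2 * R)
  · rw [indicator_of_mem ht, ← lintegral_indicator Metric.isClosed_closedBall.measurableSet,
      ← (Crest.Agent.R138.Fq665.mp_up J).lintegral_comp_emb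
        (Crest.Agent.R138.Fq665.measurableEmbedding_up J)]
    refine lintegral_mono fun p => ?_
    simp only
    by_cases hv : up J p.1 p.2 ∈ Metric.closedBall (0 : V) R1
    · rw [indicator_of_mem hv, cv_eq_extc h hf, indicator_of_mem]
      have h1 : ‖up J p.1 p.2‖ ≤ R1 := by simpa using hv
      have h2 := Crest.Agent.R138.Fq665.norm_up_sq J p.1 p.2
      have h3 : ‖up J p.1 p.2‖ ^ 2 ≤ R1 ^ 2 := pow_le_pow_left₀ (norm_nonneg _) h1 2
      have hR10 : 0 ≤ R1 := hR.trans hR1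
      have h4 : ‖p.1‖ ≤ R1 := by
        apply abs_le_of_sq_le_sq' _ hR10 |>.2
        nlinarith [sq_nonneg p.2]
      have h5 : |p.2| ≤ R1 := by
        apply abs_le_of_sq_le_sq _ hR10
        nlinarith [sq_nonneg ‖p.1‖]
      have h6 : |t| ≤ 2 * R := by rw [abs_of_nonneg ht.1]; exact ht.2
      constructor
      · simp only
        have h7 : ‖pt p.1 ((p.2 + t) / 2)‖ ^ 2 ≤ (3 * R1) ^ 2 := by
          rw [normsq3, lat_pt, pt_two]
          have h8 : |(p.2 + t) / 2| ≤ 3 * R1 / 2 := by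
            rw [abs_div, abs_two]
            have := abs_add_le p.2 t
            linarith
          have h9 : ((p.2 + t) / 2) ^ 2 ≤ (3 * R1 / 2) ^ 2 := by
            rw [← sq_abs ((p.2 + t) / 2)]
            exact pow_le_pow_left₀ (abs_nonneg _) h8 2
          nlinarith [norm_nonneg p.1]
        exact abs_le_of_sq_le_sq' h7 (by linarith) |>.2
      · simp only
        have := abs_sub t p.2
        linarith
    · rw [indicator_of_notMem hv]
      exact zero_le
  · rw [indicator_of_notMem ht]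
    exact zero_le

end Crest.Agent.R116.Hx665
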