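import Crest.Agent.R116.Hx3_665
import Crest.Agent.R116.CWc1_480
import Crest.Agent.R116.Cad1_538

/-!
# R116: the packet kernels of the piece (helper665)
-/

set_option autoImplicit false

open MeasureTheory FourierTransform Set Filter
open scoped ContDiff ENNReal

namespace Crest.Agent.R116.Hx665

open Crest.Agent.R138.Defs (E2 ee)
open Crest.Agent.R138.Fq665 (PR up)
open Crest.Agent.R138.Wpk685 (win cen caps)
open Crest.Agent.R116.Sh927 (V)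
open Crest.Agent.R116.CDef480
open Crest.Agent.R116.CWp480 (adjE Win ee_zero)
open Crest.Agent.R116.CWc480 (unif_win Pl adjE_Pl symm_Pl Pl_apply norm_pt_le lat_sub_eq ctr)

variable {J : PR ≃ₗᵢ[ℝ] V} {a : V → ℂ}

/-- the window in the frame of the slope `C`. -/
noncomputable def Bw (J : PR ≃ₗᵢ[ℝ] V) (a : V → ℂ) (p : E2 × ℝ × ℝ) (w : E3) : ℂ :=
  win (rc (w 2) • lat w) * Aa J a (pt (w 2 • p.1 + p.2.1 • lat w) (w 2)) *
    ee (p.2.2 * (‖lat w‖ ^ 2 * rc (w 2) / 2))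

theorem contDiff_pt : ContDiff ℝ ∞ (fun p : E2 × ℝ => pt p.1 p.2) :=
  Crest.Agent.R138.Fq665.contDiff_up J0

theorem Pc.Bw_smooth (h : Pc J a) :
    ContDiff ℝ ∞ (fun x : (E2 × ℝ × ℝ) × E3 => Bw J a x.1 x.2) := by
  unfold Bw
  have h2 : ContDiff ℝ ∞ (fun x : (E2 × ℝ × ℝ) × E3 => x.2 2) := contDiff_two.comp contDiff_snd
  have hl : ContDiff ℝ ∞ (fun x : (E2 × ℝ × ℝ) × E3 => lat x.2) := contDiff_lat.comp contDiff_snd
  have h3 : ContDiff ℝ ∞ (fun x : (E2 × ℝ × ℝ) × E3 => x.1.1) := contDiff_fst.comp contDiff_fst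
  have h4 : ContDiff ℝ ∞ (fun x : (E2 × ℝ × ℝ) × E3 => x.1.2.1) :=
    contDiff_fst.comp (contDiff_snd.comp contDiff_fst)
  have h5 : ContDiff ℝ ∞ (fun x : (E2 × ℝ × ℝ) × E3 => x.1.2.2) :=
    contDiff_snd.comp (contDiff_snd.comp contDiff_fst)
  have hr := contDiff_rc.comp h2
  refine ((Crest.Agent.R138.Wpk685.win_contDiff.comp (hr.smul hl)).mul
    (h.contDiff_Aa.comp (contDiff_pt.comp (((h2.smul h3).add (h4.smul hl)).prodMk h2)))).mul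
    (EB665.contDiff_ee.comp (h5.mul (((hl.norm_sq ℝ).mul hr).div_const 2)))

theorem Pc.Bw_zero (h : Pc J a) (p : E2 × ℝ × ℝ) {w : E3} (hw : 8 < ‖w‖) : Bw J a p w = 0 := by
  by_contra hc
  unfold Bw at hc
  have h1 := left_ne_zero_of_mul hc
  have h2 := right_ne_zero_of_mul h1
  have h3 := left_ne_zero_of_mul h1
  obtain ⟨r1, r2, _, _⟩ := h.Aa_reg h2
  rw [pt_two] at r1 r2
  have h4 : ‖rc (w 2) • lat w‖ ≤ 71/50 := by
    by_contra hh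
    exact h3 (Crest.Agent.R138.Wpk685.win_zero' (not_le.1 hh))
  rw [rc_eq (by linarith), norm_smul, norm_inv, Real.norm_eq_abs, abs_of_pos (by linarith),
    inv_mul_le_iff₀ (by linarith)] at h4
  have h5 : ‖lat w‖ ≤ 3 := by linarith
  have h6 := normsq3 w
  have h7 : ‖w‖ ^ 2 ≤ 8 ^ 2 := by
    rw [h6]
    nlinarith [norm_nonneg (lat w)]
  have := abs_le_of_sq_le_sq' h7 (by norm_num) |>.2
  linarith

theorem adet_Pl {ρ : ℝ} (hρ : 0 < ρ) (C : E2) :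
    Crest.Agent.R138.Wf448.adet (Pl ρ 1 hρ one_pos C : E3 →L[ℝ] E3) = ρ ^ 2 := by
  have e : ((Pl ρ 1 hρ one_pos C : E3 →L[ℝ] E3) : E3 →ₗ[ℝ] E3) =
      (Cad538.frc ρ 1 C : E3 →ₗ[ℝ] E3) := by
    ext1 X
    show Pl ρ 1 hρ one_pos C X = Cad538.frc ρ 1 C X
    rw [Pl_apply, Cad538.frc_apply]
    unfold nrm
    congr 1
    ring
  unfold Crest.Agent.R138.Wf448.adet
  rw [e, Cad538.det_frc, mul_one, abs_of_pos (by positivity)]

/-- the piece of the cap in its frame. -/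
theorem Pc.cap_Bw (h : Pc J a) {ρ : ℝ} (hρ : 0 < ρ) (C : E2) (s : ℝ) (ζ : E3) :
    Crest.Agent.R138.Wpk685.cap win C ρ (slp ζ) * Aa J a ζ * ee (s * hc ζ) =
      ee (inner ℝ (s • vel C) ζ) *
        CWp480.cap (Bw J a (C, ρ, s * ρ ^ 2)) 0 (Pl ρ 1 hρ one_pos C) ζ := by
  have e0 : ctr 0 C = 0 := by
    unfold ctr
    ext i; fin_cases i <;> simp [pt]
  have e1 : (adjE (Pl ρ 1 hρ one_pos C)).symm (ζ - 0) = pt (ρ⁻¹ • (lat ζ - ζ 2 • C)) (ζ 2) := by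
    have := symm_Pl hρ one_pos 0 C ζ
    rw [e0, sub_zero, div_one, sub_zero] at this
    rw [sub_zero]
    exact this
  unfold CWp480.cap
  rw [e1]
  unfold Bw
  simp only [pt_two, lat_pt]
  have e2 : ζ 2 • C + ρ • ρ⁻¹ • (lat ζ - ζ 2 • C) = lat ζ := by
    rw [smul_smul, mul_inv_cancel₀ hρ.ne', one_smul, add_sub_cancel]
  rw [e2, pt_lat]
  by_cases hA : Aa J a ζ = 0
  · rw [hA]; simp
  obtain ⟨r1, r2, _, _⟩ := h.Aa_reg hA
  have hpos : 0 < ζ 2 := by linarith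
  rw [rc_eq (by linarith)]
  have e3 : (ζ 2)⁻¹ • ρ⁻¹ • (lat ζ - ζ 2 • C) = ρ⁻¹ • (slp ζ - C) := by
    rw [lat_sub_eq hpos.ne', smul_comm, smul_smul (ζ 2)⁻¹, inv_mul_cancel₀ hpos.ne', one_smul]
  rw [e3]
  unfold Crest.Agent.R138.Wpk685.cap
  have e4 : s * hc ζ = inner ℝ (s • vel C) ζ +
      s * ρ ^ 2 * (‖ρ⁻¹ • (lat ζ - ζ 2 • C)‖ ^ 2 * (ζ 2)⁻¹ / 2) := by
    rw [hc_split C hpos.ne', inner_smul_left, norm_smul, mul_pow, norm_inv, Real.norm_eq_abs,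
      abs_of_pos hρ]
    simp only [conj_trivial]
    field_simp
  rw [e4, Crest.Agent.R138.Wpk685.ee_add]
  ring

theorem Pl_vel {ρ : ℝ} (hρ : 0 < ρ) (C : E2) (Y : E3) (s : ℝ) :
    Pl ρ 1 hρ one_pos C (Y + s • vel C) = pt (ρ • (lat Y + s • C)) (nrm C Y s) := by
  rw [Pl_apply]
  unfold vel nrm
  rw [lat_add, lat_smul, lat_pt, inner_add_right, inner_smul_right, real_inner_self_eq_norm_sq]
  simp only [PiLp.add_apply, PiLp.smul_apply, smul_eq_mul, pt_two]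
  congr 1
  ring

/-- packet kernel of the piece. -/
noncomputable def Kp (J : PR ≃ₗᵢ[ℝ] V) (a : V → ℂ) (C : E2) (ρ : ℝ) (Y : E3) (s : ℝ) : ℂ :=
  extc (fun ζ => Crest.Agent.R138.Wpk685.cap win C ρ (slp ζ) * Aa J a ζ) Y s

/-- **decay of the packet kernels**. -/
theorem Pc.ker (h : Pc J a) (N : ℕ) (L : ℝ) : ∃ Cn : ℝ, 0 ≤ Cn ∧ ∀ (ρ : ℝ), 0 < ρ → ρ ≤ 1 →
    ∀ (C : E2), ‖C‖ ≤ 8 → ∀ (Y : E3) (s : ℝ), |s| * ρ ^ 2 ≤ L →
      ‖Kp J a C ρ Y s‖ ≤ Cn * ρ ^ 2 * ((1 + ‖pt (ρ • (lat Y + s • C)) (CDef480.nrm C Y s)‖) ^ N)⁻¹ := by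
  have hK : IsCompact (Metric.closedBall (0:E2) 8 ×ˢ (Icc (0:ℝ) 1 ×ˢ Icc (-L) L)) :=
    (isCompact_closedBall _ _).prod (isCompact_Icc.prod isCompact_Icc)
  obtain ⟨Q, hQ0, hQ⟩ := unif_win (h.Bw_smooth) hK (fun p _ z hz => h.Bw_zero p hz) N
  obtain ⟨C1, hC1, hb⟩ := CWp480.Kf_bound E3 N
  refine ⟨C1 * Q, by positivity, ?_⟩
  intro ρ hρ hρ1 C hC Y s hs
  have hp : ((C, ρ, s * ρ ^ 2) : E2 × ℝ × ℝ) ∈
      (Metric.closedBall (0:E2) 8 ×ˢ (Icc (0:ℝ) 1 ×ˢ Icc (-L) L)) := by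
    refine ⟨by simpa using hC, ⟨hρ.le, hρ1⟩, ?_⟩
    have h1 : |s * ρ ^ 2| ≤ L := by
      rw [abs_mul, abs_of_nonneg (by positivity : (0:ℝ) ≤ ρ ^ 2)]
      exact hs
    exact ⟨(abs_le.1 h1).1, (abs_le.1 h1).2⟩
  have hw : Win N Q (Bw J a (C, ρ, s * ρ ^ 2)) := hQ _ hp
  have h1 := hb Q _ hw 0 (Pl ρ 1 hρ one_pos C) (Y + s • vel C)
  rw [adet_Pl, Pl_vel] at h1
  have h2 : Kp J a C ρ Y s = 𝓕⁻ (CWp480.cap (Bw J a (C, ρ, s * ρ ^ 2)) 0 (Pl ρ 1 hρ one_pos C))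
      (Y + s • vel C) := by
    unfold Kp extc
    rw [CWp480.fourierInv_eq_int]
    refine integral_congr_ae (Eventually.of_forall fun ζ => ?_)
    simp only
    rw [Crest.Agent.R138.Wpk685.ee_add, mul_comm (ee (inner ℝ Y ζ)), ← mul_assoc, h.cap_Bw hρ,
      inner_add_left, Crest.Agent.R138.Wpk685.ee_add]
    ring
  rw [h2]
  exact h1

end Crest.Agent.R116.Hx665
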