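import Crest.Agent.R116.Hx4_665
import Crest.Agent.R116.Ba1_449

/-!
# R116: packets of `gf` in physical form (helper665)
-/

set_option autoImplicit false

open MeasureTheory FourierTransform Set Filter
open scoped ContDiff ENNReal

namespace Crest.Agent.R116.Hx665

open Crest.Agent.R138.Defs (E2 ee)
open Crest.Agent.R138.Fq665 (PR up)
open Crest.Agent.R138.Wpk685 (win cen caps)
open Crest.Agent.R116.Sh927 (V)
open Crest.Agent.R116.CDef480

variable {J : PR ≃ₗᵢ[ℝ] V} {a : V → ℂ}

/-- first component. -/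
noncomputable def fx (J : PR ≃ₗᵢ[ℝ] V) (v : V) : E2 := (J.symm v).fst

/-- second component. -/
noncomputable def fu (J : PR ≃ₗᵢ[ℝ] V) (v : V) : ℝ := (J.symm v).snd

theorem up_fx (v : V) : up J (fx J v) (fu J v) = v := (up_surj J v).symm

theorem fx_up (x : E2) (u : ℝ) : fx J (up J x u) = x := by
  unfold fx Crest.Agent.R138.Fq665.up
  simp

theorem fu_up (x : E2) (u : ℝ) : fu J (up J x u) = u := by
  unfold fu Crest.Agent.R138.Fq665.up
  simp

theorem continuous_fx : Continuous (fx J) :=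
  (WithLp.prod_continuous_ofLp 2 E2 ℝ).fst.comp J.symm.continuous

theorem continuous_fu : Continuous (fu J) :=
  (WithLp.prod_continuous_ofLp 2 E2 ℝ).snd.comp J.symm.continuous

theorem abs_fu_le (v : V) : |fu J v| ≤ ‖v‖ := by
  have h := Crest.Agent.R138.Fq665.norm_up_sq J (fx J v) (fu J v)
  rw [up_fx] at h
  apply abs_le_of_sq_le_sq _ (norm_nonneg _)
  nlinarith [sq_nonneg ‖fx J v‖]

/-- foot of `v`. -/
noncomputable def Pt (J : PR ≃ₗᵢ[ℝ] V) (v : V) : E3 := pt (fx J v) (fu J v / 2)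

/-- the cap times the amplitude. -/
noncomputable def cA (J : PR ≃ₗᵢ[ℝ] V) (a : V → ℂ) (C : E2) (ρ : ℝ) (ζ : E3) : ℂ :=
  Crest.Agent.R138.Wpk685.cap win C ρ (slp ζ) * Aa J a ζ

theorem Pc.cA_int (h : Pc J a) (C : E2) (ρ : ℝ) : Integrable (cA J a C ρ) := by
  have h1 : Integrable (Aa J a) := h.contDiff_Aa.continuous.integrable_of_hasCompactSupport h.hcs_Aa
  refine h1.bdd_mul (c := 1) ?_ (Eventually.of_forall fun ζ => ?_)
  · have h2 : Continuous (fun ξ : E2 => Crest.Agent.R138.Wpk685.cap win C ρ ξ) := by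
      unfold Crest.Agent.R138.Wpk685.cap
      exact Crest.Agent.R138.Wpk685.win_contDiff.continuous.comp (by fun_prop)
    exact (h2.measurable.comp measurable_slp).aestronglyMeasurable
  · exact Crest.Agent.R138.Wpk685.norm_win_le _

theorem umc_eq (h : Pc J a) {f : V → ℂ} (hf : Integrable f) (ρ : ℝ) (k : ℤ × ℤ) (X : E3) :
    umc ρ (gf J a f) k X = ∫ v, f v * Kp J a (cen ρ k) ρ (X - Pt J v) (fu J v) := by
  unfold umc
  rw [CWp480.fourierInv_eq_int]
  have e1 : ∀ ζ, capc ρ k ζ * gf J a f ζ * ee (inner ℝ X ζ) =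
      ∫ v, cA J a (cen ρ k) ρ ζ * ee (inner ℝ X ζ) * (f v * ee (-inner ℝ v (Ph J ζ))) := by
    intro ζ
    rw [integral_const_mul, ← Crest.Agent.R138.Fq665.fourier_eq_ee]
    unfold gf capc cA
    ring
  simp only [e1]
  rw [integral_integral_swap]
  · refine integral_congr_ae (Eventually.of_forall fun v => ?_)
    simp only
    unfold Kp extc
    rw [← integral_const_mul]
    refine integral_congr_ae (Eventually.of_forall fun ζ => ?_)
    simp only
    by_cases hA : Aa J a ζ = 0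
    · unfold cA
      rw [hA]; simp
    · obtain ⟨r1, _, _, _⟩ := h.Aa_reg hA
      have e2 : inner ℝ v (Ph J ζ) = inner ℝ (Pt J v) ζ - fu J v * hc ζ := by
        conv_lhs => rw [← up_fx (J := J) v]
        rw [inner_Ph J (by linarith)]
        rfl
      rw [e2]
      have e3 : inner ℝ (X - Pt J v) ζ + fu J v * hc ζ = inner ℝ X ζ +
          -(inner ℝ (Pt J v) ζ - fu J v * hc ζ) := by
        rw [inner_sub_left]; ring
      rw [e3, Crest.Agent.R138.Wpk685.ee_add]
      unfold cA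
      ring
  · have h1 : Integrable (fun ζ => cA J a (cen ρ k) ρ ζ * ee (inner ℝ X ζ)) := by
      refine (h.cA_int _ ρ).mul_bdd (c := 1) ?_
        (Eventually.of_forall fun ζ => (Crest.Agent.R138.Wpk685.norm_ee _).le)
      exact (continuous_ee'.comp (by fun_prop)).aestronglyMeasurable
    have h2 : Integrable (fun p : E3 × V => cA J a (cen ρ k) ρ p.1 * ee (inner ℝ X p.1) * f p.2)
        (volume.prod volume) := h1.mul_prod hf
    have h3 : AEStronglyMeasurable (fun p : E3 × V => ee (-inner ℝ p.2 (Ph J p.1)))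
        (volume.prod volume) := by
      have := (contDiff_Ph J).continuous
      exact (continuous_ee'.comp (by fun_prop)).aestronglyMeasurable
    have h4 := h2.mul_bdd (c := 1) h3
      (Eventually.of_forall fun p => (Crest.Agent.R138.Wpk685.norm_ee _).le)
    refine h4.congr (Eventually.of_forall fun p => ?_)
    simp only [Function.uncurry]
    ring

/-- the size of a point in the frame of the packet. -/
noncomputable def siz (J : PR ≃ₗᵢ[ℝ] V) (C : E2) (ρ : ℝ) (X : E3) (v : V) : ℝ :=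
  ‖pt (ρ • (lat (X - Pt J v) + fu J v • C)) (nrm C (X - Pt J v) (fu J v))‖

/-- **tail bound**. -/
theorem Pc.umc_tail (h : Pc J a) (N : ℕ) : ∃ Cn : ℝ, 0 ≤ Cn ∧ ∀ (ρ R H : ℝ), 0 < ρ → ρ ≤ 1 →
    0 ≤ R → R * ρ ^ 2 ≤ 1 → 0 < H → ∀ (f : V → ℂ), Measurable f → (∀ v, ‖f v‖ ≤ 1) →
    (∀ v, f v ≠ 0 → ‖v‖ ≤ R) → ∀ k : ℤ × ℤ, ‖cen ρ k‖ ≤ 8 → ∀ X : E3,
    (∀ v, f v ≠ 0 → H ≤ siz J (cen ρ k) ρ X v) →
      ‖umc ρ (gf J a f) k X‖ₑ ≤ ENNReal.ofReal (Cn * (H ^ N)⁻¹ * R ^ 3) := by
  obtain ⟨Cn, hCn, hk⟩ := h.ker N 1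
  set vb : ℝ := (volume (Metric.closedBall (0:V) 1)).toReal with hvb
  refine ⟨Cn * vb, by positivity, ?_⟩
  intro ρ R H hρ hρ1 hR hRρ hH f hfm hf1 hfs k hck X hX
  have hball : volume (Metric.closedBall (0:V) R) = ENNReal.ofReal (R ^ 3 * vb) := by
    rw [Measure.addHaar_closedBall' _ _ hR, ENNReal.ofReal_mul (by positivity), hvb,
      ENNReal.ofReal_toReal measure_closedBall_lt_top.ne]
    congr 3
    simp
  have hfi : Integrable f := by
    have hfb : f = (Metric.closedBall (0:V) R).indicator f := by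
      ext v
      by_cases hv : v ∈ Metric.closedBall (0:V) R
      · rw [indicator_of_mem hv]
      · rw [indicator_of_notMem hv]
        by_contra h0
        exact hv (by simpa using hfs v h0)
    rw [hfb, integrable_indicator_iff Metric.isClosed_closedBall.measurableSet]
    haveI : IsFiniteMeasure (volume.restrict (Metric.closedBall (0:V) R)) :=
      ⟨by rw [Measure.restrict_apply_univ]; exact measure_closedBall_lt_top⟩
    exact Integrable.of_bound hfm.aestronglyMeasurable 1 (Eventually.of_forall hf1)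
  rw [umc_eq h hfi]
  refine (enorm_integral_le_lintegral_enorm _).trans ?_
  have hpt : ∀ v, ‖f v * Kp J a (cen ρ k) ρ (X - Pt J v) (fu J v)‖ₑ ≤
      (Metric.closedBall (0:V) R).indicator (fun _ => ENNReal.ofReal (Cn * (H ^ N)⁻¹)) v := by
    intro v
    by_cases h0 : f v = 0
    · rw [h0, zero_mul, enorm_zero]
      exact zero_le
    · have hv := hfs v h0
      rw [indicator_of_mem (by simpa using hv), ← ofReal_norm]
      apply ENNReal.ofReal_le_ofReal
      rw [norm_mul]
      have h1 : |fu J v| * ρ ^ 2 ≤ 1 := by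
        refine le_trans ?_ hRρ
        gcongr
        exact (abs_fu_le v).trans hv
      have h2 := hk ρ hρ hρ1 (cen ρ k) hck (X - Pt J v) (fu J v) h1
      have h3 := hX v h0
      have h4 : ((1 + siz J (cen ρ k) ρ X v) ^ N)⁻¹ ≤ (H ^ N)⁻¹ := by
        apply inv_anti₀ (by positivity)
        apply pow_le_pow_left₀ hH.le
        linarith
      have h5 : ρ ^ 2 ≤ 1 := pow_le_one₀ hρ.le hρ1
      have h6 : 0 ≤ siz J (cen ρ k) ρ X v := norm_nonneg _
      have h7 : 0 ≤ ((1 + siz J (cen ρ k) ρ X v) ^ N)⁻¹ := by positivity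
      calc ‖f v‖ * ‖Kp J a (cen ρ k) ρ (X - Pt J v) (fu J v)‖
          ≤ 1 * (Cn * ρ ^ 2 * ((1 + siz J (cen ρ k) ρ X v) ^ N)⁻¹) := by
            apply mul_le_mul (hf1 v) h2 (norm_nonneg _) zero_le_one
        _ ≤ 1 * (Cn * 1 * (H ^ N)⁻¹) := by gcongr
        _ = Cn * (H ^ N)⁻¹ := by ring
  refine (lintegral_mono hpt).trans ?_
  rw [lintegral_indicator Metric.isClosed_closedBall.measurableSet, lintegral_const,
    Measure.restrict_apply_univ, hball, ← ENNReal.ofReal_mul (by positivity)]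
  apply ENNReal.ofReal_le_ofReal
  apply le_of_eq
  ring

end Crest.Agent.R116.Hx665
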