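import Crest.Agent.R116.Hx5_665
import Crest.Agent.R116.LZg3_725

/-!
# R116: geometry: rays of the box near `v` put `v` in the dilated member (helper665)
-/

set_option autoImplicit false

open MeasureTheory FourierTransform Set Filter
open scoped ContDiff ENNReal

namespace Crest.Agent.R116.Hx665

open Crest.Agent.R138.Defs (E2 ee)
open Crest.Agent.R138.Fq665 (PR up)
open Crest.Agent.R138.Wpk685 (win cen caps)
open Crest.Agent.R116.Sh927 (V)
open Crest.Agent.R116.CDef480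
open Crest.Agent.R116.LZg725 (Cf InK)

variable {J : PR ≃ₗᵢ[ℝ] V}

/-- the dilated member in the section. -/
def Ud (J : PR ≃ₗᵢ[ℝ] V) (c : E2) (K s1 s2 T R : ℝ) (X0 : E3) (p : Cf E2) : Set V :=
  {v | InK c (K * s2) (K ^ 2 * T) (K * R) (lat X0) (X0 2) 0 (fx J v) (fu J v / 2) (-fu J v) ∧
    |p.ev (fx J v) (fu J v / 2) (-fu J v)| ≤ K * s1 * (K * R)}

theorem lnrm_eq (C : E2) (X : E3) (s : ℝ) : LZg725.nrm C (lat X) (X 2) s = nrm C X s := rfl

theorem nu1 {M H : ℝ} (hM : 1 ≤ M) (hH : 1 ≤ H) : 1 ≤ 8 * M * H ∧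
    2 + H ≤ 8 * M * H * (8 * M * H) ∧ 2 + 2 * H ≤ (8 * M * H) ^ 2 * (8 * M * H) ∧
    2 + (1 + 2 * M) * H + M * H + M / 2 * H ^ 2 + M * H ≤ 64 * M ^ 2 * H ^ 2 := by
  have h1 : 8 * H ≤ 8 * M * H := by nlinarith
  have h2 : 1 ≤ 8 * M * H := by linarith
  have h3 : 8 * M * H ≤ 8 * M * H * (8 * M * H) := by nlinarith
  have h4 : 8 * M * H ≤ (8 * M * H) ^ 2 * (8 * M * H) := by
    have : 1 ≤ (8 * M * H) ^ 2 := one_le_pow₀ h2
    nlinarith
  refine ⟨h2, by linarith, by linarith, ?_⟩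
  have q1 : H ≤ H ^ 2 := by nlinarith
  have q3 : M * H ≤ M * H ^ 2 := by gcongr
  have q2 : M ≤ M ^ 2 := by nlinarith
  have q4 : M * H ^ 2 ≤ M ^ 2 * H ^ 2 := by gcongr
  have q6 : 1 ≤ M ^ 2 := one_le_pow₀ hM
  have q5 : H ^ 2 ≤ M ^ 2 * H ^ 2 := by nlinarith [sq_nonneg H]
  nlinarith

theorem nu2 {R T s1 s2 H : ℝ} (hR : 0 < R) (hH : 0 ≤ H) (h1 : 0 < s1) (h12 : s1 ≤ s2)
    (hT : s2 ^ 2 ≤ T) :
    s2 * (H * (s1 * R)) ≤ H * (T * R) ∧ R * s2 ^ 2 / 2 ≤ T * R := by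
  have h2 : s2 * s1 ≤ T := by nlinarith
  have hT0 : 0 ≤ T := (sq_nonneg s2).trans hT
  refine ⟨?_, ?_⟩
  · calc s2 * (H * (s1 * R)) = (s2 * s1) * (H * R) := by ring
      _ ≤ T * (H * R) := by gcongr
      _ = _ := by ring
  · have h3 : R * s2 ^ 2 ≤ R * T := by gcongr
    have h4 : 0 ≤ R * T := by positivity
    linarith

theorem pos_of {ρ R : ℝ} (h : ρ ^ 2 * R = 1) : 0 < R := by
  by_contra hc
  push Not at hc
  nlinarith [sq_nonneg ρ]

theorem h_le {H T R : ℝ} (hH : 0 ≤ H) (h : 1 ≤ T * R) : H ≤ H * (T * R) := by nlinarith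

theorem k_le {K R : ℝ} (hR : 0 ≤ R) (h : 1 ≤ K) : R ≤ K * R := by nlinarith

section bounds

variable {M s1 s2 T R : ℝ} {c : E2} {X0 : E3} {p : Cf E2}

theorem ny_aff (p : Cf E2) {B : ℝ} (hR : 0 < R) (h : ∀ s, |s| ≤ R → |p.ny s| ≤ B) :
    2 * |p.d| * R ≤ B ∧ ∀ K s, 1 ≤ K → |s| ≤ K * R → |p.ny s| ≤ 2 * K * B := by
  have h1 := h R (by rw [abs_of_pos hR])
  have h2 := h (-R) (by rw [abs_neg, abs_of_pos hR])
  have h0 := h 0 (by rw [abs_zero]; exact hR.le)
  have e : p.ny (-R) - p.ny R = 4 * p.d * R := by unfold Cf.ny; ring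
  have h3 : |4 * p.d * R| ≤ |p.ny (-R)| + |p.ny R| := by
    rw [← e]; exact abs_sub _ _
  rw [abs_mul, abs_mul, abs_of_pos hR, abs_of_pos (by norm_num : (0:ℝ) < 4)] at h3
  have h4 : 2 * |p.d| * R ≤ B := by linarith
  refine ⟨h4, fun K s hK hs => ?_⟩
  have hB : 0 ≤ B := (abs_nonneg _).trans h0
  have e2 : p.ny s = p.ny 0 + -(2 * p.d * s) := by unfold Cf.ny; ring
  rw [e2]
  refine (abs_add_le _ _).trans ?_
  rw [abs_neg, abs_mul, abs_mul, abs_two]
  have h5 : 2 * |p.d| * |s| ≤ 2 * |p.d| * (K * R) := by gcongr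
  have h6 : 2 * |p.d| * (K * R) = K * (2 * |p.d| * R) := by ring
  have h7 : K * (2 * |p.d| * R) ≤ K * B := by gcongr
  nlinarith

/-- the dilated member is admissible. -/
theorem adm_dil (hM : 0 ≤ M) (hR : 0 < R) (hs2 : 0 < s2) (hT : 0 < T) {κ : ℝ}
    (h : WC188.Adm M κ s1 s2 T R c X0 p) {K : ℝ} (hK : 1 ≤ K) :
    LZg725.Adm (2 * K ^ 2 * M) c (K * s2) (K ^ 2 * T) (K * R) (lat X0) (X0 2) 0 p := by
  have hK0 : 0 ≤ K := zero_le_one.trans hK
  have hK2 : 1 ≤ K ^ 2 := one_le_pow₀ hK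
  refine ⟨h.disc, fun s hs => ?_, ?_, ?_⟩
  · rw [sub_zero] at hs
    have h1 := (ny_aff p hR h.ny).2 K s hK hs
    calc |p.ny s| * (K ^ 2 * T) ≤ (2 * K * (M * s2 / T)) * (K ^ 2 * T) := by gcongr
      _ = 2 * K ^ 2 * M * (K * s2) := by field_simp
  · refine h.ld.trans ?_
    have h1 : 0 ≤ M * s2 := by positivity
    nlinarith [mul_le_mul hK2 hK zero_le_one (by positivity)]
  · refine h.ev.trans ?_
    have h1 : 0 ≤ M * s2 * R := by positivity
    have h2 : 1 ≤ 2 * K ^ 2 * K * K := by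
      nlinarith [mul_le_mul hK2 hK2 zero_le_one (by positivity)]
    calc M * s2 * R = 1 * (M * s2 * R) := by ring
      _ ≤ (2 * K ^ 2 * K * K) * (M * s2 * R) := by gcongr
      _ = _ := by ring

/-- **GEO**. -/
theorem geo (hM : 1 ≤ M) {ρ H : ℝ} (hρ : 0 < ρ) (hρR : ρ ^ 2 * R = 1) (hH : 1 ≤ H) (h1ρ : ρ ≤ s1)
    (h12 : s1 ≤ s2) (hT : s2 ^ 2 ≤ T) (hTR : 1 ≤ T * R)
    (h : WC188.Adm M 1 s1 s2 T R c X0 p) {C : E2} {X : E3}
    (hX : X ∈ WC188.mset s2 T R s1 c X0 p C) {v : V} (hv : ‖v‖ ≤ R)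
    (hs : siz J C ρ X v ≤ H) : v ∈ Ud J c (8 * M * H) s1 s2 T R X0 p := by
  obtain ⟨m1, m2, m3, m4, m5⟩ := hX
  have hR : 0 < R := pos_of hρR
  have hs1 : 0 < s1 := hρ.trans_le h1ρ
  have hs2 : 0 < s2 := hs1.trans_le h12
  have hT0 : 0 < T := (by positivity : 0 < s2 ^ 2).trans_le hT
  set u := fu J v with hu
  set x := fx J v with hx
  have hu1 : |u| ≤ R := (abs_fu_le v).trans hv
  set w : E2 := lat X - x + u • C with hw
  set n : ℝ := nrm C X 0 - nrm C (Pt J v) (-u) with hn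
  have hlat : lat (X - Pt J v) + u • C = w := by
    rw [lat_sub]; unfold Pt; rw [lat_pt]
  have hnn : nrm C (X - Pt J v) u = n := by
    rw [hn]
    unfold nrm
    rw [lat_sub, inner_sub_right, PiLp.sub_apply]
    ring
  have hsz := hs
  unfold siz at hsz
  rw [← hu, hlat, hnn] at hsz
  have hw1 : ρ * ‖w‖ ≤ H := by
    have := CWc480.norm_lat_le (pt (ρ • w) n)
    rw [lat_pt, norm_smul, Real.norm_eq_abs, abs_of_pos hρ] at this
    linarith
  have hn1 : |n| ≤ H := by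
    have := CWc480.abs_two_le (pt (ρ • w) n)
    rw [pt_two] at this
    linarith
  have hw2 : ‖w‖ ≤ H * (ρ * R) := by
    have h1 : ‖w‖ = (ρ * ‖w‖) * (ρ * R) := by
      calc ‖w‖ = ‖w‖ * 1 := by ring
        _ = ‖w‖ * (ρ ^ 2 * R) := by rw [hρR]
        _ = _ := by ring
    rw [h1]
    gcongr
  have hρR1 : ρ * R ≤ s1 * R := by gcongr
  have hw3 : ‖w‖ ≤ H * (s1 * R) := hw2.trans (by gcongr)
  -- points
  have hPl : lat (Pt J v) = x := by unfold Pt; rw [lat_pt]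
  have hP2 : (Pt J v) 2 = u / 2 := by unfold Pt; rw [pt_two]
  have hM0 : 0 < M := by linarith
  obtain ⟨hK1, n2, n3, n4⟩ := nu1 hM hH
  have hH0 : 0 < H := by linarith
  refine ⟨⟨?_, ?_, ?_⟩, ?_⟩
  · rw [sub_zero, abs_neg]
    exact hu1.trans (k_le hR.le hK1)
  · -- lateral
    have e : x - lat X0 + (-u - 0) • c = (lat X - lat X0) + u • (C - c) - w := by
      rw [hw]
      module
    rw [e]
    have h1 : ‖u • (C - c)‖ ≤ R * s2 := by
      rw [norm_smul, Real.norm_eq_abs]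
      gcongr
    have h2 : ‖w‖ ≤ H * (s2 * R) := hw3.trans (by gcongr)
    have h3 := norm_sub_le ((lat X - lat X0) + u • (C - c)) w
    have h4 := norm_add_le (lat X - lat X0) (u • (C - c))
    have h5 : 0 < s2 * R := by positivity
    have h6 : (2 + H) * (s2 * R) ≤ (8 * M * H * (8 * M * H)) * (s2 * R) :=
      mul_le_mul_of_nonneg_right n2 h5.le
    calc _ ≤ (2 + H) * (s2 * R) := by linarith
      _ ≤ _ := h6
      _ = _ := by ring
  · -- normal
    have e : LZg725.nrm c x (u / 2) (-u) - LZg725.nrm c (lat X0) (X0 2) 0 =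
        (nrm c X 0 - nrm c X0 0) - n + inner ℝ (c - C) (-w) +
          u * (inner ℝ (c - C) (C - c)) / 2 := by
      rw [hn]
      unfold LZg725.nrm nrm
      rw [hPl, hP2, hw]
      simp only [inner_sub_left, inner_sub_right, inner_neg_right, inner_add_right,
        inner_smul_right, real_inner_self_eq_norm_sq, real_inner_comm c C]
      ring
    rw [e]
    have hcC : ‖c - C‖ ≤ s2 := by rw [norm_sub_rev]; exact m1
    have h1 : |inner ℝ (c - C) (-w)| ≤ s2 * (H * (s1 * R)) := by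
      refine (abs_real_inner_le_norm _ _).trans ?_
      rw [norm_neg]
      gcongr
    have h2 : |u * (inner ℝ (c - C) (C - c)) / 2| ≤ R * s2 ^ 2 / 2 := by
      rw [abs_div, abs_mul, abs_two]
      have h3 : |inner ℝ (c - C) (C - c)| ≤ s2 * s2 := by
        refine (abs_real_inner_le_norm _ _).trans ?_
        gcongr
      have h4 : |u| * |inner ℝ (c - C) (C - c)| ≤ R * (s2 * s2) := by gcongr
      rw [pow_two]
      linarith
    obtain ⟨h5, h6⟩ := nu2 hR hH0.le hs1 h12 hT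
    have h7 := abs_add_le ((nrm c X 0 - nrm c X0 0) - n + inner ℝ (c - C) (-w))
      (u * (inner ℝ (c - C) (C - c)) / 2)
    have h8 := abs_add_le ((nrm c X 0 - nrm c X0 0) - n) (inner ℝ (c - C) (-w))
    have h9 := abs_sub (nrm c X 0 - nrm c X0 0) n
    have h10 : H ≤ H * (T * R) := h_le hH0.le hTR
    have h11 : (2 + 2 * H) * (T * R) ≤ ((8 * M * H) ^ 2 * (8 * M * H)) * (T * R) :=
      mul_le_mul_of_nonneg_right n3 (by positivity)
    calc _ ≤ (2 + 2 * H) * (T * R) := by linarith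
      _ ≤ _ := h11
      _ = _ := by ring
  · -- value
    have hny := ny_aff p hR h.cmp
    have e := LZg725.Cf.ev_expand p C (lat X) (X 2) 0 x (u / 2) (-u)
    have e1 : (x - lat X) + (-u - 0) • C = -w := by rw [hw]; module
    have e2 : LZg725.nrm C x (u / 2) (-u) - LZg725.nrm C (lat X) (X 2) 0 = -n := by
      rw [hn]
      unfold LZg725.nrm nrm
      rw [hPl, hP2]
      ring
    rw [e1, e2] at e
    rw [e]
    have g1 := LZg725.gr_sq_near (m := 1) (C := C) (x := lat X) (y := X 2) (s := 0) hR hs2 hT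
      hM0.le zero_le_one h.disc
      (by
        have := h.ny 0 (by rw [abs_zero]; exact hR.le)
        rwa [le_div_iff₀ hT0] at this)
      (by
        have := (ny_aff p hR h.ny).1
        calc 2 * |p.d| * (T * R) = (2 * |p.d| * R) * T := by ring
          _ ≤ (M * s2 / T) * T := by gcongr
          _ = M * s2 := by field_simp)
      (by linarith)
      (by
        rw [one_mul]
        exact m4.trans (by gcongr))
    rw [mul_one] at g1
    have g2 := LZg725.norm_le_of_sq_near hM0.le g1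
    have t1 : |inner ℝ (p.gr C (lat X) 0) (-w)| ≤ (1 + 2 * M) * (H * (s1 * R)) := by
      refine (abs_real_inner_le_norm _ _).trans ?_
      rw [norm_neg]
      gcongr
    have t2 : |p.ny 0 * (-n)| ≤ (M * (s1 * R)) * H := by
      rw [abs_mul, abs_neg]
      have := h.cmp 0 (by rw [abs_zero]; exact hR.le)
      rw [one_mul] at this
      gcongr
    have hd : 2 * |p.d| * R ≤ M * (s1 * R) := by
      have := hny.1
      rwa [one_mul] at this
    have hd2 : 2 * |p.d| ≤ M * s1 := by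
      have h1 : 2 * |p.d| * R ≤ M * s1 * R := by linarith
      exact le_of_mul_le_mul_right h1 hR
    have t3 : |p.d * (‖-w‖ ^ 2 - 2 * (-u - 0) * (-n))| ≤
        M * s1 / 2 * (H ^ 2 * R) + M * (s1 * R) * H := by
      rw [abs_mul]
      have h1 : |‖-w‖ ^ 2 - 2 * (-u - 0) * (-n)| ≤ H ^ 2 * R + 2 * R * H := by
        refine (abs_sub _ _).trans ?_
        rw [norm_neg, abs_of_nonneg (by positivity : 0 ≤ ‖w‖ ^ 2), abs_mul, abs_mul, abs_two,
          abs_neg, sub_zero, abs_neg]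
        have h2 : ‖w‖ ^ 2 ≤ H ^ 2 * R := by
          calc ‖w‖ ^ 2 ≤ (H * (ρ * R)) ^ 2 := by gcongr
            _ = H ^ 2 * (ρ ^ 2 * R) * R := by ring
            _ = H ^ 2 * R := by rw [hρR, mul_one]
        have h3 : 2 * |u| * |n| ≤ 2 * R * H := by gcongr
        linarith
      calc |p.d| * |‖-w‖ ^ 2 - 2 * (-u - 0) * (-n)| ≤ |p.d| * (H ^ 2 * R + 2 * R * H) := by gcongr
        _ = (2 * |p.d|) * (H ^ 2 * R / 2 + R * H) := by ring
        _ ≤ (M * s1) * (H ^ 2 * R / 2 + R * H) := by gcongr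
        _ = _ := by ring
    have t4 : |p.ld C (lat X) (X 2) 0 * (-u - 0)| ≤ s1 * R := by
      rw [abs_mul, sub_zero, abs_neg]
      gcongr
    have u1 := abs_add_le (p.ev (lat X) (X 2) 0 + p.ld C (lat X) (X 2) 0 * (-u - 0) +
      inner ℝ (p.gr C (lat X) 0) (-w) + p.ny 0 * (-n)) (p.d * (‖-w‖ ^ 2 - 2 * (-u - 0) * (-n)))
    have u2 := abs_add_le (p.ev (lat X) (X 2) 0 + p.ld C (lat X) (X 2) 0 * (-u - 0) +
      inner ℝ (p.gr C (lat X) 0) (-w)) (p.ny 0 * (-n))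
    have u3 := abs_add_le (p.ev (lat X) (X 2) 0 + p.ld C (lat X) (X 2) 0 * (-u - 0))
      (inner ℝ (p.gr C (lat X) 0) (-w))
    have u4 := abs_add_le (p.ev (lat X) (X 2) 0) (p.ld C (lat X) (X 2) 0 * (-u - 0))
    have hsR : 0 < s1 * R := by positivity
    have fin : s1 * R * (2 + (1 + 2 * M) * H + M * H + M / 2 * H ^ 2 + M * H) ≤
        s1 * R * (64 * M ^ 2 * H ^ 2) := mul_le_mul_of_nonneg_left n4 hsR.le
    calc _ ≤ s1 * R * (2 + (1 + 2 * M) * H + M * H + M / 2 * H ^ 2 + M * H) := by linarith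
      _ ≤ _ := fin
      _ = _ := by ring

end bounds

end Crest.Agent.R116.Hx665
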