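import Crest.Agent.R116.LZg3_725
import Mathlib.MeasureTheory.Measure.Lebesgue.VolumeOfBalls

/-!
# R116 (S0155): volume of the space section of a member (helper809)

`vol_section`: the section of (isotropic light box ∩ conformal slab `|φ| ≤ s1 R`) by the spacelike
plane `t = 0` (`x = v.1`, `y = v.2 / 2`, `s = -v.2`) has volume `≤ C0 M s1 sg T R³`.
-/

set_option autoImplicit false
set_option linter.unusedSectionVars false

open MeasureTheory
open scoped ENNReal
open Crest.Agent.R116.LZg725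

namespace Crest.Agent.R116.Vol809

/-- **slicing along a direction**: sets with short slices have small measure. -/
theorem slice {V : Type*} [NormedAddCommGroup V] [NormedSpace ℝ V] [MeasurableSpace V]
    [BorelSpace V] [SecondCountableTopology V] (μ : Measure V) [μ.IsAddRightInvariant] [SFinite μ]
    {S B : Set V} (hS : MeasurableSet S) (u : V) {L : ℝ} {ℓ : ℝ≥0∞}
    (hB : ∀ v : V, ∀ t : ℝ, |t| ≤ L → v + t • u ∈ S → v ∈ B)
    (hℓ : ∀ v : V, volume {t : ℝ | v + t • u ∈ S} ≤ ℓ) :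
    ENNReal.ofReal (2 * L) * μ S ≤ ℓ * μ B := by
  have hmS : Measurable (S.indicator (fun _ => (1 : ℝ≥0∞))) := measurable_const.indicator hS
  have h1 : ENNReal.ofReal (2 * L) * μ S =
      ∫⁻ t in Set.Icc (-L) L, ∫⁻ v, S.indicator (fun _ => (1 : ℝ≥0∞)) (v + t • u) ∂μ := by
    have e : ∀ t : ℝ, ∫⁻ v, S.indicator (fun _ => (1 : ℝ≥0∞)) (v + t • u) ∂μ = μ S := by
      intro t
      rw [lintegral_add_right_eq_self (μ := μ) (S.indicator (fun _ => (1 : ℝ≥0∞))) (t • u),
        lintegral_indicator_const hS, one_mul]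
    simp_rw [e]
    rw [setLIntegral_const, Real.volume_Icc, mul_comm]
    congr 2
    ring
  rw [h1, lintegral_lintegral_swap]
  · refine le_trans (lintegral_mono (g := B.indicator (fun _ => ℓ)) fun v => ?_)
      (lintegral_indicator_const_le _ _)
    by_cases hv : v ∈ B
    · rw [Set.indicator_of_mem hv]
      refine le_trans ?_ (hℓ v)
      refine (setLIntegral_le_lintegral _ _).trans ?_
      have e : (fun t : ℝ => S.indicator (fun _ => (1 : ℝ≥0∞)) (v + t • u)) =
          {t : ℝ | v + t • u ∈ S}.indicator (fun _ => (1 : ℝ≥0∞)) := by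
        funext t
        by_cases ht : v + t • u ∈ S
        · rw [Set.indicator_of_mem ht, Set.indicator_of_mem (by exact ht)]
        · rw [Set.indicator_of_notMem ht, Set.indicator_of_notMem (by exact ht)]
      rw [e]
      exact (lintegral_indicator_const_le _ _).trans (one_mul _).le
    · rw [Set.indicator_of_notMem hv]
      refine le_of_eq ?_
      rw [setLIntegral_congr_fun (g := fun _ => 0) measurableSet_Icc, lintegral_zero]
      intro t ht
      refine Set.indicator_of_notMem (fun h => hv (hB v t (abs_le.2 ht) h)) _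
  · refine Measurable.aemeasurable ?_
    exact hmS.comp (by fun_prop : Measurable fun z : ℝ × V => z.2 + z.1 • u)

/-- one dimensional fact: `|q| ≤ e` and `|q'| ≥ k` for a quadratic polynomial `q`. -/
theorem quad_slice {q h : ℝ → ℝ} {D : ℝ}
    (hq : ∀ a b, q b = q a + (b - a) * h a + (b - a) ^ 2 * D) {e k : ℝ} (hk : 0 < k)
    (he : 0 ≤ e) : volume {t : ℝ | |q t| ≤ e ∧ k ≤ |h t|} ≤ ENNReal.ofReal (4 * e / k) := by
  have key : ∀ a b, q b - q a = (b - a) * (h a + h b) / 2 := by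
    intro a b
    have h1 := hq a b
    have h2 := hq b a
    nlinarith
  have hp : ∀ a b, |q a| ≤ e → |q b| ≤ e → k ≤ h a → k ≤ h b → |b - a| ≤ 2 * e / k := by
    intro a b ha hb h1 h2
    have h3 : |q b - q a| ≤ 2 * e := (abs_sub _ _).trans (by linarith)
    rw [key, abs_div, abs_mul, abs_of_pos (by linarith : 0 < h a + h b),
      abs_of_pos (by norm_num : (0:ℝ) < 2)] at h3
    rw [le_div_iff₀ hk]
    have h4 : |b - a| * (2 * k) ≤ |b - a| * (h a + h b) :=
      mul_le_mul_of_nonneg_left (by linarith) (abs_nonneg _)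
    linarith
  have hm : ∀ a b, |q a| ≤ e → |q b| ≤ e → h a ≤ -k → h b ≤ -k → |b - a| ≤ 2 * e / k := by
    intro a b ha hb h1 h2
    have h3 : |q b - q a| ≤ 2 * e := (abs_sub _ _).trans (by linarith)
    rw [key, abs_div, abs_mul, abs_of_neg (by linarith : h a + h b < 0),
      abs_of_pos (by norm_num : (0:ℝ) < 2)] at h3
    rw [le_div_iff₀ hk]
    have h4 : |b - a| * (2 * k) ≤ |b - a| * (-(h a + h b)) :=
      mul_le_mul_of_nonneg_left (by linarith) (abs_nonneg _)
    linarith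
  have hd : ∀ s : Set ℝ, (∀ a ∈ s, ∀ b ∈ s, |b - a| ≤ 2 * e / k) →
      volume s ≤ ENNReal.ofReal (2 * e / k) := by
    intro s hs
    refine (Real.volume_le_diam s).trans (Metric.ediam_le fun a ha b hb => ?_)
    rw [edist_dist, Real.dist_eq, abs_sub_comm]
    exact ENNReal.ofReal_le_ofReal (hs a ha b hb)
  have hsub : {t : ℝ | |q t| ≤ e ∧ k ≤ |h t|} ⊆
      {t : ℝ | |q t| ≤ e ∧ k ≤ h t} ∪ {t : ℝ | |q t| ≤ e ∧ h t ≤ -k} := by
    rintro t ⟨h1, h2⟩
    rcases le_abs.1 h2 with h3 | h3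
    · exact Or.inl ⟨h1, h3⟩
    · exact Or.inr ⟨h1, by linarith⟩
  refine (measure_mono hsub).trans ((measure_union_le _ _).trans ?_)
  have e1 := hd {t : ℝ | |q t| ≤ e ∧ k ≤ h t} fun a ha b hb => hp a b ha.1 hb.1 ha.2 hb.2
  have e2 := hd {t : ℝ | |q t| ≤ e ∧ h t ≤ -k} fun a ha b hb => hm a b ha.1 hb.1 ha.2 hb.2
  refine (add_le_add e1 e2).trans ?_
  rw [← ENNReal.ofReal_add (by positivity) (by positivity)]
  exact ENNReal.ofReal_le_ofReal (le_of_eq (by ring))

abbrev E := EuclideanSpace ℝ (Fin 2)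

/-- lateral frame coordinate of the point `(v.1, v.2/2, -v.2)`. -/
noncomputable def wc (c x0 : E) (s0 : ℝ) (v : E × ℝ) : E := (v.1 - x0) + (-v.2 - s0) • c

/-- null coordinate of the point `(v.1, v.2/2, -v.2)`. -/
noncomputable def nc (c : E) (v : E × ℝ) : ℝ := nrm c v.1 (v.2 / 2) (-v.2)

/-- volume of the section of a box. -/
theorem vol_box (c x0 : E) (s0 N0 : ℝ) {r h : ℝ} (hr : 0 ≤ r) (hh : 0 ≤ h) :
    volume {v : E × ℝ | ‖wc c x0 s0 v‖ ≤ r ∧ |nc c v - N0| ≤ h} ≤
      ENNReal.ofReal (16 * r ^ 2 * h) := by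
  set S : Set (E × ℝ) := {v : E × ℝ | ‖wc c x0 s0 v‖ ≤ r ∧ |nc c v - N0| ≤ h} with hSdef
  have hS : MeasurableSet S := by
    have c1 : Continuous (fun v : E × ℝ => ‖wc c x0 s0 v‖) := by unfold wc; fun_prop
    have c2 : Continuous (fun v : E × ℝ => |nc c v - N0|) := by unfold nc nrm; fun_prop
    exact ((isClosed_le c1 continuous_const).inter
      (isClosed_le c2 continuous_const)).measurableSet
  have hmS : Measurable (S.indicator (fun _ => (1 : ℝ≥0∞))) := measurable_const.indicator hS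
  have h1 : volume S = ∫⁻ y : ℝ, ∫⁻ x : E, S.indicator (fun _ => (1 : ℝ≥0∞)) (x, y) := by
    rw [← lintegral_prod_symm' _ hmS, ← Measure.volume_eq_prod, lintegral_indicator_const hS,
      one_mul]
  have h2 : ∀ y : ℝ, ∫⁻ x : E, S.indicator (fun _ => (1 : ℝ≥0∞)) (x, y) =
      ∫⁻ x : E, S.indicator (fun _ => (1 : ℝ≥0∞)) (x + (y • c + (x0 + s0 • c)), y) := by
    intro y
    exact (lintegral_add_right_eq_self (μ := volume)
      (fun x : E => S.indicator (fun _ => (1 : ℝ≥0∞)) (x, y)) (y • c + (x0 + s0 • c))).symm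
  rw [h1]
  simp_rw [h2]
  rw [lintegral_lintegral_swap]
  · have h3 : ∀ x : E, ∫⁻ y : ℝ, S.indicator (fun _ => (1 : ℝ≥0∞))
        (x + (y • c + (x0 + s0 • c)), y) ≤
        (Metric.closedBall (0 : E) r).indicator (fun _ => ENNReal.ofReal (4 * h)) x := by
      intro x
      have hw : ∀ y : ℝ, wc c x0 s0 (x + (y • c + (x0 + s0 • c)), y) = x := by
        intro y; unfold wc; simp only; module
      have hN : ∀ y : ℝ, nc c (x + (y • c + (x0 + s0 • c)), y) =
          inner ℝ c (x + (x0 + s0 • c)) + y * ((1 + ‖c‖ ^ 2) / 2) := by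
        intro y
        unfold nc nrm
        simp only
        rw [show x + (y • c + (x0 + s0 • c)) = (x + (x0 + s0 • c)) + y • c by abel,
          inner_add_right, real_inner_smul_right c c, real_inner_self_eq_norm_sq]
        ring
      by_cases hx : x ∈ Metric.closedBall (0 : E) r
      · rw [Set.indicator_of_mem hx]
        have e : (fun y : ℝ => S.indicator (fun _ => (1 : ℝ≥0∞))
            (x + (y • c + (x0 + s0 • c)), y)) =
            {y : ℝ | (x + (y • c + (x0 + s0 • c)), y) ∈ S}.indicator (fun _ => (1 : ℝ≥0∞)) := by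
          funext t
          by_cases ht : (x + (t • c + (x0 + s0 • c)), t) ∈ S
          · rw [Set.indicator_of_mem ht, Set.indicator_of_mem (by exact ht)]
          · rw [Set.indicator_of_notMem ht, Set.indicator_of_notMem (by exact ht)]
        rw [e]
        refine (lintegral_indicator_const_le _ _).trans ?_
        rw [one_mul]
        refine (Real.volume_le_diam _).trans (Metric.ediam_le fun a ha b hb => ?_)
        rw [edist_dist, Real.dist_eq, abs_sub_comm]
        refine ENNReal.ofReal_le_ofReal ?_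
        have ha2 : |nc c (x + (a • c + (x0 + s0 • c)), a) - N0| ≤ h := ha.2
        have hb2 : |nc c (x + (b • c + (x0 + s0 • c)), b) - N0| ≤ h := hb.2
        rw [hN] at ha2 hb2
        have h5 : |(b - a) * ((1 + ‖c‖ ^ 2) / 2)| ≤ 2 * h := by
          have e1 : (b - a) * ((1 + ‖c‖ ^ 2) / 2) =
              (inner ℝ c (x + (x0 + s0 • c)) + b * ((1 + ‖c‖ ^ 2) / 2) - N0) -
              (inner ℝ c (x + (x0 + s0 • c)) + a * ((1 + ‖c‖ ^ 2) / 2) - N0) := by ring
          rw [e1]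
          exact (abs_sub _ _).trans (by linarith)
        rw [abs_mul, abs_of_pos (by positivity : 0 < (1 + ‖c‖ ^ 2) / 2)] at h5
        nlinarith [abs_nonneg (b - a), sq_nonneg ‖c‖,
          mul_nonneg (abs_nonneg (b - a)) (sq_nonneg ‖c‖)]
      · rw [Set.indicator_of_notMem hx]
        refine le_of_eq ?_
        rw [lintegral_congr (g := fun _ => 0), lintegral_zero]
        intro y
        refine Set.indicator_of_notMem (fun hy => hx ?_) _
        have : ‖wc c x0 s0 (x + (y • c + (x0 + s0 • c)), y)‖ ≤ r := hy.1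
        rw [hw] at this
        rwa [mem_closedBall_zero_iff]
    refine (lintegral_mono h3).trans ?_
    refine (lintegral_indicator_const_le _ _).trans ?_
    rw [EuclideanSpace.volume_closedBall_fin_two]
    have hpi : ENNReal.ofReal Real.pi ≤ ENNReal.ofReal 4 :=
      ENNReal.ofReal_le_ofReal Real.pi_le_four
    calc ENNReal.ofReal (4 * h) * (ENNReal.ofReal r ^ 2 * ENNReal.ofReal Real.pi)
        ≤ ENNReal.ofReal (4 * h) * (ENNReal.ofReal r ^ 2 * ENNReal.ofReal 4) := by gcongr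
      _ = ENNReal.ofReal (16 * r ^ 2 * h) := by
        rw [← ENNReal.ofReal_pow hr, ← ENNReal.ofReal_mul (by positivity),
          ← ENNReal.ofReal_mul (by positivity)]
        congr 1
        ring
  · refine Measurable.aemeasurable ?_
    exact hmS.comp (by fun_prop : Measurable fun z : ℝ × E =>
      (z.2 + (z.1 • c + (x0 + s0 • c)), z.1))

/-! ### the two directions -/

section dirs

variable (c : E)

/-- `α = 2 / (1 + |c|²)`. -/
noncomputable def al (c : E) : ℝ := 2 / (1 + ‖c‖ ^ 2)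

/-- the direction of the null coordinate. -/
noncomputable def uN (c : E) : E × ℝ := (al c • c, al c)

/-- the lateral direction `e`. -/
noncomputable def uW (c e : E) : E × ℝ := (e - (al c * inner ℝ c e) • c, -(al c * inner ℝ c e))

theorem al_pos : 0 < al c := by unfold al; positivity

theorem al_mul : al c * (1 + ‖c‖ ^ 2) = 2 := by unfold al; field_simp

theorem wc_uN (x0 : E) (s0 : ℝ) (v : E × ℝ) (t : ℝ) : wc c x0 s0 (v + t • uN c) = wc c x0 s0 v := by
  unfold wc uN
  simp only [Prod.fst_add, Prod.smul_fst, Prod.snd_add, Prod.smul_snd, smul_eq_mul]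
  module

theorem nc_uN (v : E × ℝ) (t : ℝ) : nc c (v + t • uN c) = nc c v + t := by
  have h := al_mul c
  unfold nc nrm uN
  simp only [Prod.fst_add, Prod.smul_fst, Prod.snd_add, Prod.smul_snd, smul_eq_mul]
  rw [inner_add_right, real_inner_smul_right, real_inner_smul_right, real_inner_self_eq_norm_sq]
  linear_combination (t / 2) * h

theorem wc_uW (e x0 : E) (s0 : ℝ) (v : E × ℝ) (t : ℝ) :
    wc c x0 s0 (v + t • uW c e) = wc c x0 s0 v + t • e := by
  unfold wc uW
  simp only [Prod.fst_add, Prod.smul_fst, Prod.snd_add, Prod.smul_snd, smul_eq_mul]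
  module

theorem nc_uW (e : E) (v : E × ℝ) (t : ℝ) : nc c (v + t • uW c e) = nc c v := by
  have h := al_mul c
  unfold nc nrm uW
  simp only [Prod.fst_add, Prod.smul_fst, Prod.snd_add, Prod.smul_snd, smul_eq_mul]
  rw [inner_add_right, real_inner_smul_right, inner_sub_right, real_inner_smul_right,
    real_inner_self_eq_norm_sq]
  linear_combination (-t * inner ℝ c e / 2) * h

/-- the conformal function on the plane. -/
noncomputable def Fv (p : Cf E) (v : E × ℝ) : ℝ := p.ev v.1 (v.2 / 2) (-v.2)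

/-- derivative in the null direction. -/
noncomputable def Hv (p : Cf E) (v : E × ℝ) : ℝ :=
  p.ny (-v.2) - al c * p.ld c v.1 (v.2 / 2) (-v.2)

/-- gradient in the lateral directions. -/
noncomputable def Gv (p : Cf E) (v : E × ℝ) : E :=
  p.gr c v.1 (-v.2) + (al c * p.ld c v.1 (v.2 / 2) (-v.2)) • c

theorem Fv_exp (p : Cf E) (v v' : E × ℝ) : Fv p v' = Fv p v +
    p.ld c v.1 (v.2 / 2) (-v.2) * (-v'.2 + v.2) +
    inner ℝ (p.gr c v.1 (-v.2)) (wc c v.1 (-v.2) v') + p.ny (-v.2) * (nc c v' - nc c v) +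
    p.d * (‖wc c v.1 (-v.2) v'‖ ^ 2 - 2 * (-v'.2 + v.2) * (nc c v' - nc c v)) := by
  unfold Fv
  rw [Cf.ev_expand p c v.1 (v.2 / 2) (-v.2) v'.1 (v'.2 / 2) (-v'.2)]
  unfold wc nc
  rw [show -v'.2 - -v.2 = -v'.2 + v.2 by ring]

theorem wc_self (v : E × ℝ) : wc c v.1 (-v.2) v = 0 := by
  unfold wc; simp

theorem Fv_uN (p : Cf E) (v : E × ℝ) (t : ℝ) :
    Fv p (v + t • uN c) = Fv p v + t * Hv c p v + t ^ 2 * (2 * al c * p.d) := by
  rw [Fv_exp c p v (v + t • uN c), wc_uN, nc_uN, wc_self, inner_zero_right, norm_zero]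
  unfold Hv uN
  simp only [Prod.snd_add, Prod.smul_snd, smul_eq_mul]
  ring

theorem Fv_uW (p : Cf E) (e : E) (v : E × ℝ) (t : ℝ) :
    Fv p (v + t • uW c e) = Fv p v + t * inner ℝ (Gv c p v) e + t ^ 2 * (p.d * ‖e‖ ^ 2) := by
  rw [Fv_exp c p v (v + t • uW c e), wc_uW, nc_uW, wc_self, zero_add, norm_smul, mul_pow,
    Real.norm_eq_abs, sq_abs, real_inner_smul_right]
  unfold Gv uW
  simp only [Prod.snd_add, Prod.smul_snd, smul_eq_mul]
  rw [inner_add_left, real_inner_smul_left]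
  ring

theorem Fv_lineN (p : Cf E) (v : E × ℝ) (a b : ℝ) :
    Fv p (v + b • uN c) = Fv p (v + a • uN c) + (b - a) * Hv c p (v + a • uN c) +
      (b - a) ^ 2 * (2 * al c * p.d) := by
  have h := Fv_uN c p (v + a • uN c) (b - a)
  rwa [show v + a • uN c + (b - a) • uN c = v + b • uN c by module] at h

theorem Fv_lineW (p : Cf E) (e : E) (v : E × ℝ) (a b : ℝ) :
    Fv p (v + b • uW c e) = Fv p (v + a • uW c e) + (b - a) * inner ℝ (Gv c p (v + a • uW c e)) e +
      (b - a) ^ 2 * (p.d * ‖e‖ ^ 2) := by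
  have h := Fv_uW c p e (v + a • uW c e) (b - a)
  rwa [show v + a • uW c e + (b - a) • uW c e = v + b • uW c e by module] at h

/-- **one of the two derivatives is large** (pointwise algebra). -/
theorem large {c : E} (hc : ‖c‖ ≤ 8) {p : Cf E} (hd : p.disc = 1) (v : E × ℝ)
    (h4 : |4 * p.d * Fv p v| ≤ 1 / 2) :
    1 ≤ 130 * ‖Gv c p v‖ ^ 2 + 4 * |Hv c p v| * |p.ld c v.1 (v.2 / 2) (-v.2)| := by
  have h1 := Cf.norm_gr_sq p c v.1 (v.2 / 2) (-v.2)
  rw [hd] at h1
  set l := p.ld c v.1 (v.2 / 2) (-v.2) with hl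
  set α := al c with hα
  have e1 : p.gr c v.1 (-v.2) = Gv c p v - (α * l) • c := by unfold Gv; module
  have e2 : p.ny (-v.2) = Hv c p v + α * l := by unfold Hv; ring
  have e3 : p.ev v.1 (v.2 / 2) (-v.2) = Fv p v := rfl
  rw [e1, e2, e3, norm_sub_sq_real, real_inner_smul_right, norm_smul, mul_pow, Real.norm_eq_abs,
    sq_abs] at h1
  set G := Gv c p v
  set H := Hv c p v
  have hal := al_mul c
  rw [← hα] at hal
  have h5 : |inner ℝ G c| ≤ ‖G‖ * ‖c‖ := abs_real_inner_le_norm _ _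
  have h6 : |inner ℝ G c| ≤ 8 * ‖G‖ :=
    h5.trans (by nlinarith [norm_nonneg G, norm_nonneg c])
  have h7 : -(H * l) ≤ |H| * |l| := by rw [← abs_mul]; exact neg_le_abs _
  have h8 := (abs_le.1 h4).1
  have h9 : -(2 * (α * l) * inner ℝ G c) ≤ (α * l) ^ 2 + 64 * ‖G‖ ^ 2 := by
    have := abs_le.1 h6
    have hb : (inner ℝ G c : ℝ) ^ 2 ≤ (8 * ‖G‖) ^ 2 := sq_le_sq' (by linarith [this.1]) this.2
    nlinarith [sq_nonneg (α * l + inner ℝ G c)]
  -- 1 + α² l² + 2 H l + 4 d F = |G|² - 2 α l ⟨G, c⟩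
  have h10 : 1 + (α * l) ^ 2 + 2 * (H * l) + 4 * p.d * Fv p v =
      ‖G‖ ^ 2 - 2 * (α * l) * inner ℝ G c := by
    have e4 : (α * l) ^ 2 = 2 * α * l ^ 2 - (α * l) ^ 2 * ‖c‖ ^ 2 := by
      linear_combination (α * l ^ 2) * hal
    linear_combination -h1 + e4
  nlinarith [sq_nonneg ‖G‖]

end dirs

theorem le_of_slice {x y : ℝ≥0∞} {a b k : ℝ} (ha : 0 < a) (hb : 0 ≤ b)
    (h : ENNReal.ofReal a * x ≤ ENNReal.ofReal b * y) (hy : y ≤ ENNReal.ofReal k) :
    x ≤ ENNReal.ofReal (b * k / a) := by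
  have h1 : ENNReal.ofReal a * x ≤ ENNReal.ofReal (b * k) := by
    refine h.trans ?_
    rw [ENNReal.ofReal_mul hb]
    gcongr
  rw [ENNReal.ofReal_div_of_pos ha, ENNReal.le_div_iff_mul_le
    (Or.inl (ENNReal.ofReal_pos.2 ha).ne') (Or.inl ENNReal.ofReal_ne_top), mul_comm]
  exact h1

/-- **(VOL)**, with the first power of `M`. -/
theorem vol_section {M : ℝ} (hM : 1 ≤ M) {c : E} (hc : ‖c‖ ≤ 8) {s1 sg T R : ℝ} (hs1 : 0 < s1)
    (h12 : s1 ≤ sg) (hT : sg ^ 2 ≤ T) (hR : 0 < R) {x0 : E} {y0 s0 : ℝ} {p : Cf E}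
    (h : Adm M c sg T R x0 y0 s0 p) :
    volume {v : E × ℝ | InK c sg T R x0 y0 s0 v.1 (v.2 / 2) (-v.2) ∧
      |p.ev v.1 (v.2 / 2) (-v.2)| ≤ s1 * R} ≤
      ENNReal.ofReal (16000 * M * (s1 * sg * T * R ^ 3)) := by
  have hsg : 0 < sg := lt_of_lt_of_le hs1 h12
  have hT0 : 0 < T := lt_of_lt_of_le (pow_pos hsg 2) hT
  have hM0 : 0 < M := lt_of_lt_of_le one_pos hM
  have : (volume : Measure (E × ℝ)).IsAddRightInvariant := by
    rw [Measure.volume_eq_prod]; infer_instance
  set N0 := nrm c x0 y0 s0 with hN0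
  set S : Set (E × ℝ) := {v : E × ℝ | InK c sg T R x0 y0 s0 v.1 (v.2 / 2) (-v.2) ∧
      |p.ev v.1 (v.2 / 2) (-v.2)| ≤ s1 * R} with hSdef
  set B : Set (E × ℝ) := {v : E × ℝ | ‖wc c x0 s0 v‖ ≤ 2 * (sg * R) ∧
    |nc c v - N0| ≤ 2 * (T * R)} with hBdef
  have hB : volume B ≤ ENNReal.ofReal (128 * (sg ^ 2 * T * R ^ 3)) := by
    refine (vol_box c x0 s0 N0 (by positivity) (by positivity)).trans
      (ENNReal.ofReal_le_ofReal (le_of_eq (by ring)))
  have hSB : S ⊆ B := by
    rintro v ⟨⟨_, h2, h3⟩, _⟩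
    exact ⟨le_trans h2 (by nlinarith [mul_pos hsg hR]), le_trans h3 (by nlinarith [mul_pos hT0 hR])⟩
  have hdR : 2 * |p.d| * (T * R) ≤ M * sg := h.d_le hR.le hT0.le
  rcases lt_or_ge sg (4 * M * s1) with hcase | hcase
  · -- trivial case
    refine (measure_mono hSB).trans (hB.trans (ENNReal.ofReal_le_ofReal ?_))
    have h1 : 0 ≤ sg * T * R ^ 3 := by positivity
    have h2 : sg * (sg * T * R ^ 3) ≤ 4 * M * s1 * (sg * T * R ^ 3) :=
      mul_le_mul_of_nonneg_right hcase.le h1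
    have h3 : 0 ≤ M * s1 * (sg * T * R ^ 3) := by positivity
    nlinarith
  -- closedness
  have cF : Continuous (fun v : E × ℝ => |p.ev v.1 (v.2 / 2) (-v.2)|) := by
    unfold Cf.ev; fun_prop
  have cW : Continuous (fun v : E × ℝ => ‖wc c x0 s0 v‖) := by unfold wc; fun_prop
  have cN : Continuous (fun v : E × ℝ => |nc c v - N0|) := by unfold nc nrm; fun_prop
  have cS : Continuous (fun v : E × ℝ => |-v.2 - s0|) := by fun_prop
  have cH : Continuous (fun v : E × ℝ => |Hv c p v|) := by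
    unfold Hv Cf.ny Cf.ld Cf.ny; fun_prop
  have cG : ∀ e : E, Continuous (fun v : E × ℝ => |(inner ℝ (Gv c p v) e : ℝ)|) := by
    intro e
    unfold Gv Cf.gr Cf.ny Cf.ld Cf.ny; fun_prop
  have clS : IsClosed S := by
    have : S = (({v : E × ℝ | |-v.2 - s0| ≤ R} ∩ ({v | ‖wc c x0 s0 v‖ ≤ sg * R} ∩
      {v | |nc c v - N0| ≤ T * R})) ∩ {v | |p.ev v.1 (v.2 / 2) (-v.2)| ≤ s1 * R}) := by
      ext v; rfl
    rw [this]
    exact ((isClosed_le cS continuous_const).inter ((isClosed_le cW continuous_const).inter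
      (isClosed_le cN continuous_const))).inter (isClosed_le cF continuous_const)
  -- the null direction
  set k := 1 / (16 * M * sg) with hk
  have hkpos : 0 < k := by positivity
  set SB : Set (E × ℝ) := S ∩ {v | k ≤ |Hv c p v|} with hSBdef
  have hmB : MeasurableSet SB := (clS.inter (isClosed_le continuous_const cH)).measurableSet
  have volB : volume SB ≤ ENNReal.ofReal (4096 * M * (s1 * sg * T * R ^ 3)) := by
    have h1 := slice (volume : Measure (E × ℝ)) (S := SB) (B := B) hmB (uN c) (L := T * R)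
      (ℓ := ENNReal.ofReal (4 * (s1 * R) / k)) ?_ ?_
    · refine (le_of_slice (by positivity) (by positivity) h1 hB).trans
        (ENNReal.ofReal_le_ofReal ?_)
      rw [hk]
      have e1 : 4 * (s1 * R) / (1 / (16 * M * sg)) * (128 * (sg ^ 2 * T * R ^ 3)) /
          (2 * (T * R)) = 4096 * M * (s1 * sg * sg ^ 2 * R ^ 3) := by
        field_simp
        ring
      rw [e1]
      gcongr
    · rintro v t ht ⟨⟨⟨_, h2, h3⟩, _⟩, _⟩
      have h2' : ‖wc c x0 s0 (v + t • uN c)‖ ≤ sg * R := h2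
      have h3' : |nc c (v + t • uN c) - N0| ≤ T * R := h3
      rw [wc_uN] at h2'
      rw [nc_uN] at h3'
      refine ⟨h2'.trans (by nlinarith [mul_pos hsg hR]), ?_⟩
      have e : nc c v - N0 = (nc c v + t - N0) - t := by ring
      rw [e]
      exact (abs_sub _ _).trans (by linarith)
    · intro v
      refine (measure_mono ?_).trans (quad_slice (q := fun t => Fv p (v + t • uN c))
        (h := fun t => Hv c p (v + t • uN c)) (D := 2 * al c * p.d)
        (fun a b => Fv_lineN c p v a b) hkpos (e := s1 * R) (by positivity))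
      rintro t ⟨⟨_, h1⟩, h2⟩
      exact ⟨h1, h2⟩
  -- the lateral directions
  have volW : ∀ e : E, ‖e‖ = 1 → volume (S ∩ {v | 1 / 23 ≤ |(inner ℝ (Gv c p v) e : ℝ)|}) ≤
      ENNReal.ofReal (5888 * (s1 * sg * T * R ^ 3)) := by
    intro e he
    have h1 := slice (volume : Measure (E × ℝ))
      (S := S ∩ {v | 1 / 23 ≤ |(inner ℝ (Gv c p v) e : ℝ)|}) (B := B)
      (clS.inter (isClosed_le continuous_const (cG e))).measurableSet (uW c e) (L := sg * R)
      (ℓ := ENNReal.ofReal (4 * (s1 * R) / (1 / 23))) ?_ ?_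
    · refine (le_of_slice (by positivity) (by positivity) h1 hB).trans
        (ENNReal.ofReal_le_ofReal (le_of_eq ?_))
      field_simp
      ring
    · rintro v t ht ⟨⟨⟨_, h2, h3⟩, _⟩, _⟩
      have h2' : ‖wc c x0 s0 (v + t • uW c e)‖ ≤ sg * R := h2
      have h3' : |nc c (v + t • uW c e) - N0| ≤ T * R := h3
      rw [wc_uW] at h2'
      rw [nc_uW] at h3'
      refine ⟨?_, h3'.trans (by nlinarith [mul_pos hT0 hR])⟩
      have e1 : wc c x0 s0 v = (wc c x0 s0 v + t • e) - t • e := by abel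
      rw [e1]
      refine (norm_sub_le _ _).trans ?_
      rw [norm_smul, he, mul_one, Real.norm_eq_abs]
      linarith
    · intro v
      refine (measure_mono ?_).trans (quad_slice (q := fun t => Fv p (v + t • uW c e))
        (h := fun t => (inner ℝ (Gv c p (v + t • uW c e)) e : ℝ)) (D := p.d * ‖e‖ ^ 2)
        (fun a b => Fv_lineW c p e v a b) (by norm_num) (e := s1 * R) (by positivity))
      rintro t ⟨⟨_, h1⟩, h2⟩
      exact ⟨h1, h2⟩
  -- covering
  have hcov : S ⊆ SB ∪ ((S ∩ {v | 1 / 23 ≤ |(inner ℝ (Gv c p v) (EuclideanSpace.single 0 1 : E) : ℝ)|}) ∪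
      (S ∩ {v | 1 / 23 ≤ |(inner ℝ (Gv c p v) (EuclideanSpace.single 1 1 : E) : ℝ)|})) := by
    intro v hv
    by_cases hH : k ≤ |Hv c p v|
    · exact Or.inl ⟨hv, hH⟩
    refine Or.inr ?_
    rw [not_le] at hH
    have hvN : |nc c v - N0| ≤ T * R := hv.1.2.2
    have hvF : |Fv p v| ≤ s1 * R := hv.2
    have h4 : |4 * p.d * Fv p v| ≤ 1 / 2 := by
      have e1 : |4 * p.d * Fv p v| = 4 * (|p.d| * |Fv p v|) := by
        rw [abs_mul, abs_mul, abs_of_pos (by norm_num : (0:ℝ) < 4)]; ring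
      have e2 : |p.d| * |Fv p v| ≤ |p.d| * (s1 * R) := mul_le_mul_of_nonneg_left hvF (abs_nonneg _)
      have e3 : (|p.d| * (s1 * R)) * (8 * T) ≤ 1 * T := by
        calc (|p.d| * (s1 * R)) * (8 * T) = 4 * s1 * (2 * |p.d| * (T * R)) := by ring
          _ ≤ 4 * s1 * (M * sg) := mul_le_mul_of_nonneg_left hdR (by positivity)
          _ = (4 * M * s1) * sg := by ring
          _ ≤ sg * sg := mul_le_mul_of_nonneg_right hcase hsg.le
          _ ≤ 1 * T := by nlinarith
      have e4 : 8 * (|p.d| * (s1 * R)) ≤ 1 := by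
        have : (8 * (|p.d| * (s1 * R))) * T ≤ 1 * T := by linarith
        exact le_of_mul_le_mul_right this hT0
      rw [e1]
      linarith
    have h5 := large hc h.disc v h4
    -- bound of the ray derivative
    have hl : |p.ld c v.1 (v.2 / 2) (-v.2)| ≤ 2 * M * sg := by
      rw [Cf.ld_move p c x0 v.1 y0 (v.2 / 2) s0 (-v.2)]
      refine (abs_sub _ _).trans ?_
      have e1 : |2 * p.d * (nrm c v.1 (v.2 / 2) (-v.2) - nrm c x0 y0 s0)| ≤
          2 * |p.d| * (T * R) := by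
        rw [abs_mul, abs_mul, abs_of_pos (by norm_num : (0:ℝ) < 2)]
        exact mul_le_mul_of_nonneg_left hvN (by positivity)
      have := h.ld
      linarith
    have h6 : 4 * |Hv c p v| * |p.ld c v.1 (v.2 / 2) (-v.2)| ≤ 1 / 2 := by
      have e1 : |Hv c p v| * |p.ld c v.1 (v.2 / 2) (-v.2)| ≤ k * (2 * M * sg) :=
        mul_le_mul hH.le hl (abs_nonneg _) hkpos.le
      have e2 : k * (2 * M * sg) = 1 / 8 := by rw [hk]; field_simp; norm_num
      rw [e2] at e1
      linarith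
    have h7 : 1 / 260 ≤ ‖Gv c p v‖ ^ 2 := by linarith
    rw [EuclideanSpace.real_norm_sq_eq, Fin.sum_univ_two] at h7
    have g0 : (inner ℝ (Gv c p v) (EuclideanSpace.single 0 1 : E) : ℝ) = (Gv c p v) 0 := by
      rw [EuclideanSpace.inner_single_right]; simp
    have g1 : (inner ℝ (Gv c p v) (EuclideanSpace.single 1 1 : E) : ℝ) = (Gv c p v) 1 := by
      rw [EuclideanSpace.inner_single_right]; simp
    by_cases hG : 1 / 23 ≤ |(Gv c p v) 0|
    · exact Or.inl ⟨hv, by rw [Set.mem_ofPred_eq, g0]; exact hG⟩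
    · refine Or.inr ⟨hv, ?_⟩
      rw [Set.mem_ofPred_eq, g1]
      rw [not_le] at hG
      by_contra hG1
      rw [not_le] at hG1
      have q0 : (Gv c p v) 0 ^ 2 ≤ (1 / 23) ^ 2 := by
        rw [← sq_abs]; exact pow_le_pow_left₀ (abs_nonneg _) hG.le 2
      have q1 : (Gv c p v) 1 ^ 2 ≤ (1 / 23) ^ 2 := by
        rw [← sq_abs]; exact pow_le_pow_left₀ (abs_nonneg _) hG1.le 2
      norm_num at q0 q1 h7
      linarith
  have n0 : ‖(EuclideanSpace.single 0 1 : E)‖ = 1 := by simp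
  have n1 : ‖(EuclideanSpace.single 1 1 : E)‖ = 1 := by simp
  refine (measure_mono hcov).trans ((measure_union_le _ _).trans ?_)
  refine (add_le_add volB ((measure_union_le _ _).trans
    (add_le_add (volW _ n0) (volW _ n1)))).trans ?_
  have hX : 0 ≤ s1 * sg * T * R ^ 3 := by positivity
  rw [← ENNReal.ofReal_add (by positivity) (by positivity),
    ← ENNReal.ofReal_add (by positivity) (by positivity)]
  refine ENNReal.ofReal_le_ofReal ?_
  have h2 : s1 * sg * T * R ^ 3 ≤ M * (s1 * sg * T * R ^ 3) := by nlinarith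
  nlinarith

/-- **(VOL)**, literal of helper665. -/
theorem vol_literal : ∃ C0 : ℝ, ∀ M : ℝ, 1 ≤ M → ∀ c : E, ‖c‖ ≤ 8 → ∀ s1 sg T R : ℝ, 0 < s1 →
    s1 ≤ sg → sg ^ 2 ≤ T → 0 < R → ∀ (x0 : E) (y0 s0 : ℝ) (p : Cf E),
    Adm M c sg T R x0 y0 s0 p →
    volume {v : E × ℝ | InK c sg T R x0 y0 s0 v.1 (v.2 / 2) (-v.2) ∧
      |p.ev v.1 (v.2 / 2) (-v.2)| ≤ s1 * R} ≤
      ENNReal.ofReal (C0 * M ^ 4 * (s1 * sg * T * R ^ 3)) := by
  refine ⟨16000, fun M hM c hc s1 sg T R hs1 h12 hT hR x0 y0 s0 p h => ?_⟩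
  refine (vol_section hM hc hs1 h12 hT hR h).trans (ENNReal.ofReal_le_ofReal ?_)
  have hsg : 0 < sg := lt_of_lt_of_le hs1 h12
  have hT0 : 0 < T := lt_of_lt_of_le (pow_pos hsg 2) hT
  have h1 : M ≤ M ^ 4 := by
    calc M = M ^ 1 := (pow_one M).symm
      _ ≤ M ^ 4 := pow_le_pow_right₀ hM (by norm_num)
  have hX : 0 ≤ s1 * sg * T * R ^ 3 := by positivity
  gcongr

end Crest.Agent.R116.Vol809
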