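import Crest.Agent.R116.Hx6_665
import Crest.Agent.R116.Vol1_809
import Crest.Agent.R116.Tr1_126
import Crest.Agent.R138.Wpk12_685

/-!
# R116: box bound of `gf` for bounded functions (helper665)
-/

set_option autoImplicit false

open MeasureTheory FourierTransform Set Filter
open scoped ContDiff ENNReal

namespace Crest.Agent.R116.Hx665

open Crest.Agent.R138.Defs (E2 ee)
open Crest.Agent.R138.Fq665 (PR up)
open Crest.Agent.R138.Wpk685 (win cen caps)
open Crest.Agent.R116.Sh927 (V)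
open Crest.Agent.R116.CDef480
open Crest.Agent.R116.LZg725 (Cf InK)

variable {J : PR ≃ₗᵢ[ℝ] V} {a : V → ℂ}

theorem sq_add_le (x y : ℝ≥0∞) : (x + y) ^ 2 ≤ 4 * (x ^ 2 + y ^ 2) := by
  have h1 : x + y ≤ 2 * max x y := by
    rw [two_mul]
    exact add_le_add (le_max_left _ _) (le_max_right _ _)
  have h2 : (max x y) ^ 2 ≤ x ^ 2 + y ^ 2 := by
    rcases le_total x y with h | h
    · rw [max_eq_right h]; exact le_add_self
    · rw [max_eq_left h]; exact le_self_add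
  calc (x + y) ^ 2 ≤ (2 * max x y) ^ 2 := by gcongr
    _ = 4 * (max x y) ^ 2 := by rw [mul_pow]; norm_num
    _ ≤ _ := by gcongr

theorem meas_Ud (c : E2) (K s1 s2 T R : ℝ) (X0 : E3) (p : Cf E2) :
    MeasurableSet (Ud J c K s1 s2 T R X0 p) := by
  have hx : Continuous (fx J) := continuous_fx
  have hu : Continuous (fu J) := continuous_fu
  have h1 : IsClosed {v : V | |-fu J v - 0| ≤ K * R} :=
    isClosed_le (by fun_prop) continuous_const
  have h2 : IsClosed {v : V | ‖(fx J v - lat X0) + (-fu J v - 0) • c‖ ≤ K * s2 * (K * R)} :=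
    isClosed_le (by fun_prop) continuous_const
  have h3 : IsClosed {v : V | |LZg725.nrm c (fx J v) (fu J v / 2) (-fu J v) -
      LZg725.nrm c (lat X0) (X0 2) 0| ≤ K ^ 2 * T * (K * R)} := by
    refine isClosed_le ?_ continuous_const
    unfold LZg725.nrm
    fun_prop
  have h4 : IsClosed {v : V | |p.ev (fx J v) (fu J v / 2) (-fu J v)| ≤ K * s1 * (K * R)} := by
    refine isClosed_le ?_ continuous_const
    unfold LZg725.Cf.ev
    fun_prop
  have e : Ud J c K s1 s2 T R X0 p = ({v : V | |-fu J v - 0| ≤ K * R} ∩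
      ({v : V | ‖(fx J v - lat X0) + (-fu J v - 0) • c‖ ≤ K * s2 * (K * R)} ∩
      {v : V | |LZg725.nrm c (fx J v) (fu J v / 2) (-fu J v) -
      LZg725.nrm c (lat X0) (X0 2) 0| ≤ K ^ 2 * T * (K * R)})) ∩
      {v : V | |p.ev (fx J v) (fu J v / 2) (-fu J v)| ≤ K * s1 * (K * R)} := rfl
  rw [e]
  exact ((h1.inter (h2.inter h3)).inter h4).measurableSet

theorem vol_Ud {M κ s1 s2 T R : ℝ} {c : E2} {X0 : E3} {p : Cf E2} (hM : 1 ≤ M) (hc : ‖c‖ ≤ 8)
    (hs1 : 0 < s1) (h12 : s1 ≤ s2) (hT : s2 ^ 2 ≤ T) (hR : 0 < R)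
    (h : WC188.Adm M κ s1 s2 T R c X0 p) {K : ℝ} (hK : 1 ≤ K) :
    volume (Ud J c K s1 s2 T R X0 p) ≤
      ENNReal.ofReal (32000 * M * K ^ 9 * (s1 * s2 * T * R ^ 3)) := by
  have hK0 : 0 < K := by linarith
  have hs2 : 0 < s2 := hs1.trans_le h12
  have hT0 : 0 < T := (by positivity : 0 < s2 ^ 2).trans_le hT
  have h1 := Vol809.vol_section (M := 2 * K ^ 2 * M) (by nlinarith [one_le_pow₀ hK (n := 2)]) hc
    (s1 := K * s1) (sg := K * s2) (T := K ^ 2 * T) (R := K * R) (by positivity) (by gcongr)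
    (by rw [mul_pow]; gcongr) (by positivity) (adm_dil (by linarith) hR hs2 hT0 h hK)
  rw [← (Crest.Agent.R138.Fq665.mp_up J).measure_preimage
    (meas_Ud c K s1 s2 T R X0 p).nullMeasurableSet]
  have e : (fun q : E2 × ℝ => up J q.1 q.2) ⁻¹' (Ud J c K s1 s2 T R X0 p) =
      {v : E2 × ℝ | InK c (K * s2) (K ^ 2 * T) (K * R) (lat X0) (X0 2) 0 v.1 (v.2 / 2) (-v.2) ∧
        |p.ev v.1 (v.2 / 2) (-v.2)| ≤ K * s1 * (K * R)} := by
    ext q
    unfold Ud
    simp only [mem_preimage, mem_setOf_eq, fx_up, fu_up]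
  rw [e]
  refine h1.trans (ENNReal.ofReal_le_ofReal (le_of_eq ?_))
  ring

theorem umc_add {g1 g2 : E3 → ℂ} (h1 : Integrable g1) (h2 : Integrable g2) (ρ : ℝ) (k : ℤ × ℤ)
    (X : E3) : umc ρ (fun ζ => g1 ζ + g2 ζ) k X = umc ρ g1 k X + umc ρ g2 k X := by
  unfold umc
  rw [CWp480.fourierInv_eq_int, CWp480.fourierInv_eq_int, CWp480.fourierInv_eq_int, ← integral_add]
  · refine integral_congr_ae (Eventually.of_forall fun ζ => ?_)
    simp only
    ring
  all_goals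
    refine Integrable.mul_bdd (c := 1) ?_ ?_ (Eventually.of_forall fun ζ =>
      (Crest.Agent.R138.Wpk685.norm_ee _).le)
    · refine Integrable.bdd_mul (c := 1) (by assumption)
        (Ba449.measurable_capc ρ k).aestronglyMeasurable
        (Eventually.of_forall fun ζ => Ba449.norm_capc_le ρ k ζ)
    · exact (continuous_ee'.comp (by fun_prop)).aestronglyMeasurable

theorem ball_int {f : V → ℂ} (hfm : Measurable f) (hf1 : ∀ v, ‖f v‖ ≤ 1) {R : ℝ}
    (hfs : ∀ v, f v ≠ 0 → ‖v‖ ≤ R) (q : ℝ≥0∞) : MemLp f q := by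
  have hfb : f = (Metric.closedBall (0:V) R).indicator f := by
    ext v
    by_cases hv : v ∈ Metric.closedBall (0:V) R
    · rw [indicator_of_mem hv]
    · rw [indicator_of_notMem hv]
      by_contra h0
      exact hv (by simpa using hfs v h0)
  rw [hfb, memLp_indicator_iff_restrict Metric.isClosed_closedBall.measurableSet]
  have : IsFiniteMeasure (volume.restrict (Metric.closedBall (0:V) R)) :=
    ⟨by rw [Measure.restrict_apply_univ]; exact measure_closedBall_lt_top⟩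
  exact MemLp.of_bound hfm.aestronglyMeasurable 1 (Eventually.of_forall hf1)

theorem gf_add {f1 f2 : V → ℂ} (h1 : Integrable f1) (h2 : Integrable f2) (ζ : E3) :
    gf J a (fun v => f1 v + f2 v) ζ = gf J a f1 ζ + gf J a f2 ζ := by
  unfold gf
  rw [← mul_add]
  congr 1
  rw [CWp480.fourier_eq_int, CWp480.fourier_eq_int, CWp480.fourier_eq_int, ← integral_add]
  · refine integral_congr_ae (Eventually.of_forall fun v => ?_)
    simp only
    ring
  all_goals
    refine Integrable.mul_bdd (c := 1) (by assumption) ?_ (Eventually.of_forall fun ζ =>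
      (Crest.Agent.R138.Wpk685.norm_ee _).le)
    exact (continuous_ee'.comp (by fun_prop)).aestronglyMeasurable

theorem Pc.gd (h : Pc J a) {f : V → ℂ} (hf : Integrable f) : Ba449.Gd 3 (gf J a f) := by
  refine ⟨(h.gf_cont hf).measurable, ?_, fun ζ hz => h.norm_le (gf_ne hz), fun ζ hz => ?_⟩
  · obtain ⟨C, hC⟩ := (h.gf_cont hf).bounded_above_of_compact_support (h.gf_hcs f)
    exact ⟨C, hC⟩
  · exact ((h.Aa_reg (gf_ne hz)).2.2.2).trans (by norm_num)

theorem WC188_meas (sg T R s1 : ℝ) (c : E2) (X0 : E3) (p : Cf E2) (C : E2) :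
    MeasurableSet (WC188.mset sg T R s1 c X0 p C) := by
  have hl : Continuous lat := latL.continuous
  have h2' : Continuous (fun X : E3 => X 2) := (EuclideanSpace.proj (𝕜 := ℝ) (2 : Fin 3)).continuous
  by_cases hC : ‖C - c‖ ≤ sg
  · have h1 : IsClosed {X : E3 | ‖lat X - lat X0‖ ≤ sg * R} :=
      isClosed_le (by fun_prop) continuous_const
    have h2 : IsClosed {X : E3 | |nrm c X 0 - nrm c X0 0| ≤ T * R} := by
      refine isClosed_le ?_ continuous_const
      unfold nrm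
      fun_prop
    have h3 : IsClosed {X : E3 | |p.ev (lat X) (X 2) 0| ≤ s1 * R} := by
      refine isClosed_le ?_ continuous_const
      unfold LZg725.Cf.ev
      fun_prop
    have h4 : IsClosed {X : E3 | |p.ld C (lat X) (X 2) 0| ≤ s1} := by
      refine isClosed_le ?_ continuous_const
      unfold LZg725.Cf.ld LZg725.Cf.ny
      fun_prop
    have e : WC188.mset sg T R s1 c X0 p C = {X : E3 | ‖lat X - lat X0‖ ≤ sg * R} ∩
        ({X : E3 | |nrm c X 0 - nrm c X0 0| ≤ T * R} ∩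
        ({X : E3 | |p.ev (lat X) (X 2) 0| ≤ s1 * R} ∩
        {X : E3 | |p.ld C (lat X) (X 2) 0| ≤ s1})) := by
      ext X
      exact ⟨fun h => h.2, fun h => ⟨hC, h⟩⟩
    rw [e]
    exact (h1.inter (h2.inter (h3.inter h4))).measurableSet
  · have e : WC188.mset sg T R s1 c X0 p C = ∅ := by
      rw [Set.eq_empty_iff_forall_notMem]
      rintro X ⟨m1, _⟩
      exact hC m1
    rw [e]
    exact MeasurableSet.empty

theorem TT_facts {s2 R : ℝ} (hR : 1 ≤ R) (hs2 : 0 ≤ s2) (hs21 : s2 ≤ 1) :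
    s2 ^ 2 ≤ WC188.TT 1 s2 R ∧ 1 ≤ WC188.TT 1 s2 R * R ∧ WC188.TT 1 s2 R ≤ 1 ∧
      R⁻¹ ≤ WC188.TT 1 s2 R := by
  have hR0 : 0 < R := by linarith
  have h2 : R⁻¹ ≤ WC188.TT 1 s2 R := by
    unfold WC188.TT
    rw [one_mul]
    exact le_max_right _ _
  refine ⟨le_max_left _ _, ?_, ?_, h2⟩
  · calc (1:ℝ) = R⁻¹ * R := by field_simp
      _ ≤ _ := by gcongr
  · unfold WC188.TT
    rw [one_mul]
    exact max_le (pow_le_one₀ hs2 hs21) (inv_le_one_of_one_le₀ hR)

/-- the phase box is contained in a ball. -/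
theorem mset_sub {s2 T R s1 : ℝ} {c : E2} {X0 : E3} {p : Cf E2} {C : E2} (hR : 0 ≤ R)
    (hs2 : s2 ≤ 1) (hT : T ≤ 1) (hc : ‖c‖ ≤ 8) :
    WC188.mset s2 T R s1 c X0 p C ⊆ Metric.closedBall X0 (10 * R) := by
  rintro X ⟨_, m2, m3, _, _⟩
  rw [mem_closedBall_iff_norm]
  have h1 : ‖lat (X - X0)‖ ≤ R := by
    rw [lat_sub]
    refine m2.trans ?_
    exact mul_le_of_le_one_left hR hs2
  have h2 : |(X - X0) 2| ≤ 9 * R := by
    have e : (X - X0) 2 = (nrm c X 0 - nrm c X0 0) - inner ℝ c (lat (X - X0)) := by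
      unfold nrm
      rw [lat_sub, inner_sub_right, PiLp.sub_apply]
      ring
    rw [e]
    refine (abs_sub _ _).trans ?_
    have h3 : |inner ℝ c (lat (X - X0))| ≤ 8 * R := by
      refine (abs_real_inner_le_norm _ _).trans ?_
      gcongr
    have h4 : T * R ≤ R := mul_le_of_le_one_left hR hT
    linarith
  have h5 := CWc480.norm_pt_le (lat (X - X0)) ((X - X0) 2)
  rw [pt_lat] at h5
  linarith

theorem ball_vol (X0 : E3) {R : ℝ} (hR : 0 ≤ R) : volume (Metric.closedBall X0 R) =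
    ENNReal.ofReal (R ^ 3 * (volume (Metric.closedBall (0:E3) 1)).toReal) := by
  rw [Measure.addHaar_closedBall' _ _ hR, ENNReal.ofReal_mul (by positivity),
    ENNReal.ofReal_toReal measure_closedBall_lt_top.ne]
  congr 3
  simp

/-- **box bound**. -/
theorem Pc.box (h : Pc J a) {M : ℝ} (hM : 1 ≤ M) {ε : ℝ} (hε : 0 < ε) : ∃ Cb : ℝ, 0 ≤ Cb ∧
    ∀ R : ℝ, 1 ≤ R → ∀ f : V → ℂ, Measurable f → (∀ v, ‖f v‖ ≤ 1) →
      (∀ v, f v ≠ 0 → ‖v‖ ≤ R) → WC188.PBx M 1 0 R (gf J a f) (Cb * R ^ ε) := by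
  obtain ⟨L, hL0, hL⟩ := h.bdd
  obtain ⟨N, hN⟩ := exists_nat_ge (45 / ε)
  obtain ⟨Cn, hCn, htail⟩ := h.umc_tail N
  set vb : ℝ := (volume (Metric.closedBall (0:E3) 1)).toReal with hvb
  set A1 : ℝ := 4 * (L ^ 2 * (32000 * M * (8 * M) ^ 9)) with hA1
  set A2 : ℝ := 4 * (81 * Cn ^ 2 * (1000 * vb)) with hA2
  have hvb0 : 0 ≤ vb := ENNReal.toReal_nonneg
  refine ⟨A1 + A2, by positivity, ?_⟩
  intro R hR f hfm hf1 hfs c X0 p s1 s2 hsd hadm
  have hR0 : 0 < R := by linarith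
  set ρ : ℝ := R ^ (-(1/2) : ℝ) with hρ
  have hρ0 : 0 < ρ := Real.rpow_pos_of_pos hR0 _
  have hρ1 : ρ ≤ 1 := Real.rpow_le_one_of_one_le_of_nonpos hR (by norm_num)
  have hρR : ρ ^ 2 * R = 1 := by
    have h1 : ρ ^ 2 = R⁻¹ := by
      rw [hρ, ← Real.rpow_natCast, ← Real.rpow_mul hR0.le]
      norm_num
      exact Real.rpow_neg_one R
    rw [h1, inv_mul_cancel₀ hR0.ne']
  have hs1 : 0 < s1 := hρ0.trans_le hsd.lo
  have hs2 : 0 < s2 := hs1.trans_le hsd.le
  obtain ⟨t1, t2, t3, t4⟩ := TT_facts hR hs2.le hsd.hi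
  set T := WC188.TT 1 s2 R with hT
  have hcen : ∀ m ∈ caps ρ, ‖cen ρ m‖ ≤ 6 := fun m hm =>
    Crest.Agent.R138.Wpk685.caps_norm hρ0 hρ1 m hm
  have hpb : ∀ m, WC188.pbx 1 1 R s1 s2 c X0 p m = WC188.mset s2 T R s1 c X0 p (cen ρ m) := by
    intro m
    unfold WC188.pbx
    rw [one_mul, one_mul, one_mul, ← hT, ← hρ]
  by_cases hc : ‖c‖ ≤ 8
  swap
  · have h0 : enc ρ (gf J a f) (WC188.pbx 1 1 R s1 s2 c X0 p) = 0 := by
      unfold enc
      refine Finset.sum_eq_zero fun m hm => ?_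
      have he : WC188.pbx 1 1 R s1 s2 c X0 p m = ∅ := by
        rw [hpb, Set.eq_empty_iff_forall_notMem]
        rintro X ⟨m1, _⟩
        apply hc
        have h1 := norm_sub_le (cen ρ m) (cen ρ m - c)
        rw [sub_sub_cancel] at h1
        have h2 := hcen m hm
        have h3 := hsd.hi
        linarith
      rw [he, setLIntegral_empty]
    rw [h0]
    exact zero_le
  -- parameters
  set H : ℝ := R ^ (ε / 9) with hH
  have hH1 : 1 ≤ H := Real.one_le_rpow hR (by positivity)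
  have hH0 : 0 < H := by linarith
  have hH9 : H ^ 9 = R ^ ε := by
    rw [hH, ← Real.rpow_natCast, ← Real.rpow_mul hR0.le]
    congr 1
    push_cast
    field_simp
  have hHN : R ^ 5 ≤ H ^ N := by
    rw [hH, ← Real.rpow_natCast, ← Real.rpow_natCast, ← Real.rpow_mul hR0.le]
    apply Real.rpow_le_rpow_of_exponent_le hR
    rw [div_le_iff₀ hε] at hN
    push_cast
    linarith
  obtain ⟨hK1, -, -, -⟩ := nu1 hM hH1
  set K : ℝ := 8 * M * H with hK
  set U : Set V := Ud J c K s1 s2 T R X0 p with hU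
  have hUm : MeasurableSet U := meas_Ud c K s1 s2 T R X0 p
  set f1 : V → ℂ := U.indicator f with hf1d
  set f2 : V → ℂ := Uᶜ.indicator f with hf2d
  have m1 : Measurable f1 := hfm.indicator hUm
  have m2 : Measurable f2 := hfm.indicator hUm.compl
  have b1 : ∀ v, ‖f1 v‖ ≤ 1 := fun v => (norm_indicator_le_norm_self _ _).trans (hf1 v)
  have b2 : ∀ v, ‖f2 v‖ ≤ 1 := fun v => (norm_indicator_le_norm_self _ _).trans (hf1 v)
  have z1 : ∀ v, f1 v ≠ 0 → v ∈ U ∧ f v ≠ 0 := fun v hv => by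
    by_cases hvU : v ∈ U
    · rw [hf1d, indicator_of_mem hvU] at hv
      exact ⟨hvU, hv⟩
    · rw [hf1d, indicator_of_notMem hvU] at hv
      exact absurd rfl hv
  have z2 : ∀ v, f2 v ≠ 0 → v ∉ U ∧ f v ≠ 0 := fun v hv => by
    by_cases hvU : v ∈ Uᶜ
    · rw [hf2d, indicator_of_mem hvU] at hv
      exact ⟨hvU, hv⟩
    · rw [hf2d, indicator_of_notMem hvU] at hv
      exact absurd rfl hv
  have s1' : ∀ v, f1 v ≠ 0 → ‖v‖ ≤ R := fun v hv => hfs v (z1 v hv).2
  have s2' : ∀ v, f2 v ≠ 0 → ‖v‖ ≤ R := fun v hv => hfs v (z2 v hv).2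
  have i1 : Integrable f1 := memLp_one_iff_integrable.1 (ball_int m1 b1 s1' 1)
  have i2 : Integrable f2 := memLp_one_iff_integrable.1 (ball_int m2 b2 s2' 1)
  have hsum : gf J a f = fun ζ => gf J a f1 ζ + gf J a f2 ζ := by
    ext ζ
    rw [← gf_add i1 i2]
    congr 1
    ext v
    rw [hf1d, hf2d]
    exact (congrFun (indicator_self_add_compl U f) v).symm
  have hg1 := h.gd i1
  have hg2 := h.gd i2
  -- pointwise
  have hpw : ∀ m X, ‖umc ρ (gf J a f) m X‖ₑ ^ 2 ≤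
      4 * (‖umc ρ (gf J a f1) m X‖ₑ ^ 2 + ‖umc ρ (gf J a f2) m X‖ₑ ^ 2) := by
    intro m X
    rw [hsum, umc_add hg1.int hg2.int]
    refine le_trans ?_ (sq_add_le _ _)
    gcongr
    exact enorm_add_le _ _
  have hmeas1 : ∀ m, Measurable fun X => ‖umc ρ (gf J a f1) m X‖ₑ ^ 2 := fun m =>
    (Crest.Agent.R138.Fq665.continuous_fourierInv
      (hg1.cap ρ m).int).measurable.enorm.pow_const 2
  -- the main part
  have hmain : ∑ m ∈ caps ρ, ∫⁻ X, ‖umc ρ (gf J a f1) m X‖ₑ ^ 2 ≤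
      ENNReal.ofReal (L ^ 2 * (32000 * M * K ^ 9 * (s1 * s2 * T * R ^ 3))) := by
    refine (Ba449.sum_lint_umc hg1 hρ0).trans ?_
    rw [← hg1.lint]
    refine (h.gf_energy hL i1 (ball_int m1 b1 s1' 2)).trans ?_
    rw [ENNReal.ofReal_mul (by positivity)]
    gcongr
    calc ∫⁻ v, ‖f1 v‖ₑ ^ 2 ≤ ∫⁻ v, U.indicator (fun _ => (1:ℝ≥0∞)) v := by
          refine lintegral_mono fun v => ?_
          by_cases hv : v ∈ U
          · rw [indicator_of_mem hv]
            have : ‖f1 v‖ₑ ≤ 1 := by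
              rw [← ofReal_norm, ← ENNReal.ofReal_one]
              exact ENNReal.ofReal_le_ofReal (b1 v)
            exact pow_le_one' this 2
          · rw [indicator_of_notMem hv, hf1d, indicator_of_notMem hv]
            simp
      _ = volume U := by rw [lintegral_indicator hUm]; simp
      _ ≤ _ := vol_Ud hM hc hs1 hsd.le t1 hR0 hadm hK1
  -- the tail
  have htl : ∀ m ∈ caps ρ, ∫⁻ X in WC188.pbx 1 1 R s1 s2 c X0 p m,
      ‖umc ρ (gf J a f2) m X‖ₑ ^ 2 ≤ ENNReal.ofReal (Cn ^ 2 * (1000 * vb) * R⁻¹) := by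
    intro m hm
    have hpt : ∀ X ∈ WC188.pbx 1 1 R s1 s2 c X0 p m, ‖umc ρ (gf J a f2) m X‖ₑ ^ 2 ≤
        ENNReal.ofReal ((Cn * (H ^ N)⁻¹ * R ^ 3) ^ 2) := by
      intro X hX
      rw [hpb] at hX
      rw [ENNReal.ofReal_pow (by positivity)]
      gcongr
      refine htail ρ R H hρ0 hρ1 hR0.le (by rw [mul_comm]; exact hρR.le) hH0 f2 m2 b2 s2' m
        ((hcen m hm).trans (by norm_num)) X ?_
      intro v hv
      by_contra hcon
      push Not at hcon
      exact (z2 v hv).1 (geo hM hρ0 hρR hH1 hsd.lo hsd.le t1 t2 hadm hX (s2' v hv) hcon.le)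
    calc ∫⁻ X in WC188.pbx 1 1 R s1 s2 c X0 p m, ‖umc ρ (gf J a f2) m X‖ₑ ^ 2
        ≤ ∫⁻ _ in WC188.pbx 1 1 R s1 s2 c X0 p m,
          ENNReal.ofReal ((Cn * (H ^ N)⁻¹ * R ^ 3) ^ 2) := by
          apply setLIntegral_mono' ?_ hpt
          rw [hpb]
          exact WC188_meas s2 T R s1 c X0 p (cen ρ m)
      _ = ENNReal.ofReal ((Cn * (H ^ N)⁻¹ * R ^ 3) ^ 2) *
          volume (WC188.pbx 1 1 R s1 s2 c X0 p m) := by
          rw [lintegral_const, Measure.restrict_apply_univ]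
      _ ≤ ENNReal.ofReal ((Cn * (H ^ N)⁻¹ * R ^ 3) ^ 2) *
          ENNReal.ofReal ((10 * R) ^ 3 * vb) := by
          gcongr
          rw [← ball_vol X0 (by positivity), hpb]
          exact measure_mono (mset_sub hR0.le hsd.hi t3 hc)
      _ ≤ _ := by
          rw [← ENNReal.ofReal_mul (by positivity)]
          apply ENNReal.ofReal_le_ofReal
          have h1 : (H ^ N)⁻¹ ≤ (R ^ 5)⁻¹ := inv_anti₀ (by positivity) hHN
          calc (Cn * (H ^ N)⁻¹ * R ^ 3) ^ 2 * ((10 * R) ^ 3 * vb)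
              ≤ (Cn * (R ^ 5)⁻¹ * R ^ 3) ^ 2 * ((10 * R) ^ 3 * vb) := by gcongr
            _ = Cn ^ 2 * (1000 * vb) * R⁻¹ := by field_simp; ring
  have hone : 1 ≤ s1 * s2 * T * R ^ 3 / R := by
    have h1 : ρ * ρ * R⁻¹ ≤ s1 * s2 * T := by
      have h2 : ρ ≤ s2 := hsd.lo.trans hsd.le
      have h3 : ρ ≤ s1 := hsd.lo
      gcongr
    have h2 : R⁻¹ * R⁻¹ ≤ s1 * s2 * T := by
      refine le_trans (le_of_eq ?_) h1
      have : ρ * ρ = R⁻¹ := by
        rw [← pow_two, eq_comm]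
        field_simp
        linarith
      rw [this]
    calc (1:ℝ) = (R⁻¹ * R⁻¹) * R ^ 3 / R := by field_simp
      _ ≤ _ := by gcongr
  have hsc : WC188.scost 1 s1 s2 R = s1 * s2 * T * R ^ 3 := by
    unfold WC188.scost
    rw [← hT]
  rw [hsc, Real.rpow_zero, mul_one]
  set Q : ℝ := s1 * s2 * T * R ^ 3 with hQ
  have hQ0 : R ≤ Q := by
    rw [le_div_iff₀ hR0] at hone
    linarith
  have hQpos : 0 < Q := by linarith
  have hRε : 1 ≤ R ^ ε := Real.one_le_rpow hR hε.le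
  calc enc ρ (gf J a f) (WC188.pbx 1 1 R s1 s2 c X0 p)
      ≤ ∑ m ∈ caps ρ, (4 * (∫⁻ X, ‖umc ρ (gf J a f1) m X‖ₑ ^ 2) +
          4 * ENNReal.ofReal (Cn ^ 2 * (1000 * vb) * R⁻¹)) := by
        unfold enc
        refine Finset.sum_le_sum fun m hm => ?_
        calc ∫⁻ X in WC188.pbx 1 1 R s1 s2 c X0 p m, ‖umc ρ (gf J a f) m X‖ₑ ^ 2
            ≤ ∫⁻ X in WC188.pbx 1 1 R s1 s2 c X0 p m,
              4 * (‖umc ρ (gf J a f1) m X‖ₑ ^ 2 + ‖umc ρ (gf J a f2) m X‖ₑ ^ 2) :=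
              lintegral_mono fun X => hpw m X
          _ = 4 * (∫⁻ X in WC188.pbx 1 1 R s1 s2 c X0 p m, ‖umc ρ (gf J a f1) m X‖ₑ ^ 2) +
              4 * (∫⁻ X in WC188.pbx 1 1 R s1 s2 c X0 p m, ‖umc ρ (gf J a f2) m X‖ₑ ^ 2) := by
              rw [lintegral_const_mul' _ _ (by norm_num), lintegral_add_left (hmeas1 m), mul_add]
          _ ≤ _ := by
              gcongr
              · exact Measure.restrict_le_self
              · exact htl m hm
    _ = 4 * (∑ m ∈ caps ρ, ∫⁻ X, ‖umc ρ (gf J a f1) m X‖ₑ ^ 2) +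
          (caps ρ).card * (4 * ENNReal.ofReal (Cn ^ 2 * (1000 * vb) * R⁻¹)) := by
        rw [Finset.sum_add_distrib, ← Finset.mul_sum, Finset.sum_const, nsmul_eq_mul]
    _ ≤ ENNReal.ofReal 4 * ENNReal.ofReal (L ^ 2 * (32000 * M * K ^ 9 * Q)) +
          ENNReal.ofReal (81 * R) *
            (ENNReal.ofReal 4 * ENNReal.ofReal (Cn ^ 2 * (1000 * vb) * R⁻¹)) := by
        have e4 : ENNReal.ofReal 4 = 4 := by norm_num
        rw [e4]
        gcongr
        have h1 := Tr126.card_caps hρ0 hρ1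
        have h2 : (ρ⁻¹) ^ 2 = R := by
          rw [inv_pow, inv_eq_iff_eq_inv]
          field_simp
          linarith
        rw [h2] at h1
        calc ((caps ρ).card : ℝ≥0∞) = ENNReal.ofReal ((caps ρ).card : ℝ) := by
              rw [ENNReal.ofReal_natCast]
          _ ≤ _ := ENNReal.ofReal_le_ofReal h1
    _ = ENNReal.ofReal (4 * (L ^ 2 * (32000 * M * K ^ 9 * Q)) +
          81 * R * (4 * (Cn ^ 2 * (1000 * vb) * R⁻¹))) := by
        rw [ENNReal.ofReal_add (by positivity) (by positivity),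
          ENNReal.ofReal_mul (p := 81 * R) (by positivity),
          ENNReal.ofReal_mul (p := 4) (by norm_num), ENNReal.ofReal_mul (p := 4) (by norm_num)]
    _ ≤ ENNReal.ofReal ((A1 + A2) * R ^ ε * Q) := by
        apply ENNReal.ofReal_le_ofReal
        have e1 : 4 * (L ^ 2 * (32000 * M * K ^ 9 * Q)) = A1 * R ^ ε * Q := by
          rw [hA1, hK, ← hH9]
          ring
        have e2 : 81 * R * (4 * (Cn ^ 2 * (1000 * vb) * R⁻¹)) = A2 := by
          have e3 : 81 * R * (4 * (Cn ^ 2 * (1000 * vb) * R⁻¹)) =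
              4 * (81 * Cn ^ 2 * (1000 * vb)) * (R * R⁻¹) := by ring
          rw [e3, mul_inv_cancel₀ hR0.ne', mul_one, hA2]
        rw [e1, e2]
        have hA20 : 0 ≤ A2 := by positivity
        have h1 : A2 ≤ A2 * R ^ ε * Q := by
          calc A2 = A2 * 1 * 1 := by ring
            _ ≤ A2 * R ^ ε * Q := by
              gcongr
              linarith
        calc A1 * R ^ ε * Q + A2 ≤ A1 * R ^ ε * Q + A2 * R ^ ε * Q := by linarith
          _ = _ := by ring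

end Crest.Agent.R116.Hx665
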