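import Crest.Agent.R116.Hx7_665

/-!
# R116 (S0155): `LocW` from the energy / box inequality of the cone (helper665)
-/

set_option autoImplicit false

open MeasureTheory FourierTransform Set Filter
open scoped ContDiff ENNReal

namespace Crest.Agent.R116.Hx665

open Crest.Agent.R138.Defs (E2 ee)
open Crest.Agent.R138.Fq665 (PR up)
open Crest.Agent.R138.Fr665 (cv)
open Crest.Agent.R116.Sh927 (V)
open Crest.Agent.R116.EB665 (Kt LocW GlobW)
open Crest.Agent.R116.CDef480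

variable {J : PR ≃ₗᵢ[ℝ] V} {a : V → ℂ}

/-- total energy of a bounded function supported in a ball. -/
theorem lint_ball_le {f : V → ℂ} (hf1 : ∀ v, ‖f v‖ ≤ 1) {R : ℝ} (hR : 0 ≤ R)
    (hfs : ∀ v, f v ≠ 0 → ‖v‖ ≤ R) : ∫⁻ v, ‖f v‖ₑ ^ 2 ≤
      ENNReal.ofReal (R ^ 3 * (volume (Metric.closedBall (0:E3) 1)).toReal) := by
  rw [← ball_vol 0 hR]
  calc ∫⁻ v, ‖f v‖ₑ ^ 2 ≤ ∫⁻ v, (Metric.closedBall (0:V) R).indicator (fun _ => (1:ℝ≥0∞)) v := by
        refine lintegral_mono fun v => ?_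
        by_cases hv : v ∈ Metric.closedBall (0:V) R
        · rw [indicator_of_mem hv]
          have : ‖f v‖ₑ ≤ 1 := by
            rw [← ofReal_norm, ← ENNReal.ofReal_one]
            exact ENNReal.ofReal_le_ofReal (hf1 v)
          exact pow_le_one' this 2
        · rw [indicator_of_notMem hv]
          have : f v = 0 := by
            by_contra h0
            exact hv (by simpa using hfs v h0)
          rw [this]
          simp
    _ = _ := by rw [lintegral_indicator Metric.isClosed_closedBall.measurableSet]; simp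

theorem expo {R δ : ℝ} (hR : 1 ≤ R) (hδ : 0 < δ) (hδ1 : δ ≤ 1) :
    (6 * R ^ (1 + δ)) ^ δ * ((6 * R ^ (1 + δ)) * ((6 * R ^ (1 + δ)) ^ (δ / 2))) ≤
      6 ^ (3 : ℝ) * R ^ (1 + 8 * δ) := by
  have hR0 : 0 < R := by linarith
  set S : ℝ := 6 * R ^ (1 + δ) with hS
  have hS0 : 0 < S := by positivity
  have h1 : S ^ δ * (S * S ^ (δ / 2)) = S ^ (1 + 3 / 2 * δ) := by
    rw [show 1 + 3 / 2 * δ = δ + (1 + δ / 2) by ring, Real.rpow_add hS0, Real.rpow_add hS0,
      Real.rpow_one]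
  rw [h1, hS, Real.mul_rpow (by norm_num) (by positivity), ← Real.rpow_mul hR0.le]
  have h2 : (6:ℝ) ^ (1 + 3 / 2 * δ) ≤ 6 ^ (3:ℝ) :=
    Real.rpow_le_rpow_of_exponent_le (by norm_num) (by linarith)
  have h3 : R ^ ((1 + δ) * (1 + 3 / 2 * δ)) ≤ R ^ (1 + 8 * δ) := by
    apply Real.rpow_le_rpow_of_exponent_le hR
    nlinarith
  exact mul_le_mul h2 h3 (by positivity) (by positivity)

/-- **`LocW` from `EBc M`**. -/
theorem LocW_of_EBc {M : ℝ} (hEB : WC188.EBc M) : LocW := by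
  refine ⟨1/8, by norm_num, le_rfl, ?_⟩
  intro J a ha hsupp δ hδ hδ1
  have h : Pc J a := ⟨ha, hsupp⟩
  obtain ⟨L, hL0, hL⟩ := h.bdd
  set M1 : ℝ := max M 1 with hM1
  obtain ⟨Cb, hCb, hbox⟩ := h.box (M := M1) (le_max_right _ _) hδ
  obtain ⟨CE, hCE, hE⟩ := hEB 2 1 δ 4 (by norm_num) (by norm_num) (by norm_num) hδ
  set vb : ℝ := (volume (Metric.closedBall (0:E3) 1)).toReal with hvb
  have hvb0 : 0 ≤ vb := ENNReal.toReal_nonneg
  set Cd : ℝ := Cb + L ^ 2 * vb with hCd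
  have hCd0 : 0 ≤ Cd := by positivity
  refine ⟨CE * (L ^ 2 * Real.sqrt Cd) * 6 ^ (3:ℝ), by positivity, ?_⟩
  intro R hR f hfm hf1 hf0
  have hR0 : 0 < R := by linarith
  set R1 : ℝ := R ^ (1 + δ) with hR1
  have hR11 : 1 ≤ R1 := Real.one_le_rpow hR (by linarith)
  have hRR1 : R ≤ R1 := by
    calc R = R ^ (1:ℝ) := (Real.rpow_one R).symm
      _ ≤ R1 := Real.rpow_le_rpow_of_exponent_le hR (by linarith)
  set S : ℝ := 6 * R1 with hS
  have hS1 : 1 ≤ S := by linarith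
  have hS0 : 0 < S := by linarith
  have hfs : ∀ v, f v ≠ 0 → ‖v‖ ≤ 2 * R1 := fun v hv => by
    by_contra hcon
    exact hv (hf0 v (not_le.1 hcon))
  have hfi : Integrable f := memLp_one_iff_integrable.1 (ball_int hfm hf1 hfs 1)
  have hf2 : MemLp f 2 := ball_int hfm hf1 hfs 2
  have hgd := h.gd hfi
  set D : ℝ := Cd * S ^ δ with hD
  have hSδ : 1 ≤ S ^ δ := Real.one_le_rpow hS1 hδ.le
  have hD0 : 0 ≤ D := by positivity
  -- energy
  have hen : ENNReal.ofReal (Enc (gf J a f)) ≤ ENNReal.ofReal (L ^ 2) * ∫⁻ v, ‖f v‖ₑ ^ 2 := by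
    rw [← hgd.lint]
    exact h.gf_energy hL hfi hf2
  have hen2 : Enc (gf J a f) ≤ L ^ 2 * ((2 * R1) ^ 3 * vb) := by
    have h1 : ENNReal.ofReal (Enc (gf J a f)) ≤
        ENNReal.ofReal (L ^ 2 * ((2 * R1) ^ 3 * vb)) := by
      refine hen.trans ?_
      rw [ENNReal.ofReal_mul (by positivity)]
      gcongr
      exact lint_ball_le hf1 (by positivity) hfs
    exact (ENNReal.ofReal_le_ofReal_iff (by positivity)).1 h1
  have hst : WC188.St M 1 0 2 1 4 0 2 (gf J a f) S D := by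
    refine ⟨hgd.meas, hgd.bdd, fun ζ hz => ?_, hS1, hD0, ?_, ?_⟩
    · obtain ⟨r1, r2, _, r4⟩ := h.Aa_reg (gf_ne hz)
      refine ⟨by linarith, r2, by linarith, ?_⟩
      rw [sub_zero]
      linarith
    · intro c X0 p s1 s2 hsd hadm
      have hadm1 : WC188.Adm M1 1 s1 s2 (WC188.TT 1 s2 S) S c X0 p := by
        have hs1 : 0 < s1 := (Real.rpow_pos_of_pos hS0 _).trans_le hsd.lo
        have hs2 : 0 < s2 := hs1.trans_le hsd.le
        have hTT : 0 < WC188.TT 1 s2 S := (by positivity : (0:ℝ) < s2 ^ 2).trans_le (le_max_left _ _)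
        have hMM : M ≤ M1 := le_max_left _ _
        refine ⟨hadm.disc, fun s hs => (hadm.ny s hs).trans ?_, fun s hs => (hadm.cmp s hs).trans ?_,
          hadm.ld.trans ?_, hadm.ev.trans ?_⟩ <;> gcongr
      have h1 := hbox S hS1 f hfm hf1 (fun v hv => (hfs v hv).trans (by linarith)) c X0 p s1 s2
        hsd hadm1
      refine h1.trans (ENNReal.ofReal_le_ofReal ?_)
      have hs1 : 0 < s1 := (Real.rpow_pos_of_pos hS0 _).trans_le hsd.lo
      have hs2 : 0 < s2 := hs1.trans_le hsd.le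
      have hTT : 0 < WC188.TT 1 s2 S := (by positivity : (0:ℝ) < s2 ^ 2).trans_le (le_max_left _ _)
      have hsc : 0 ≤ WC188.scost 1 s1 s2 S := by
        unfold WC188.scost
        positivity
      have h2 : Cb ≤ Cd := by
        rw [hCd]
        have : 0 ≤ L ^ 2 * vb := by positivity
        linarith
      rw [hD]
      gcongr
    · refine hen2.trans ?_
      have e1 : S ^ (4:ℝ) = S ^ (4:ℕ) := by
        rw [← Real.rpow_natCast]; norm_num
      rw [e1, hD]
      have h2 : L ^ 2 * vb ≤ Cd := by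
        rw [hCd]
        linarith
      have h3 : (2 * R1) ^ 3 ≤ S ^ 4 := by
        calc (2 * R1) ^ 3 ≤ S ^ 3 := by
              apply pow_le_pow_left₀ (by positivity)
              linarith
          _ ≤ S ^ 4 := pow_le_pow_right₀ hS1 (by norm_num)
      calc L ^ 2 * ((2 * R1) ^ 3 * vb) = (2 * R1) ^ 3 * ((L ^ 2 * vb) * 1) := by ring
        _ ≤ S ^ 4 * (Cd * S ^ δ) := by gcongr
  have h1 := hE (gf J a f) S D hst
  have h2 := st_le h hfi hR0.le hRR1
  refine h2.trans ?_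
  have e6 : 3 * R1 = S / 2 := by rw [hS]; ring
  rw [e6]
  refine h1.trans ?_
  have hsq : Real.sqrt D = Real.sqrt Cd * S ^ (δ / 2) := by
    rw [hD, Real.sqrt_mul hCd0, Real.sqrt_eq_rpow (S ^ δ), ← Real.rpow_mul hS0.le]
    congr 2
    ring
  have hEn0 := Enc_nonneg (gf J a f)
  calc ENNReal.ofReal (CE * S ^ δ * WC188.SS (gf J a f) S D)
      = ENNReal.ofReal (CE * Real.sqrt Cd * (S ^ δ * (S * S ^ (δ / 2)))) *
          ENNReal.ofReal (Enc (gf J a f)) := by
        rw [← ENNReal.ofReal_mul (by positivity)]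
        congr 1
        unfold WC188.SS
        rw [hsq]
        ring
    _ ≤ ENNReal.ofReal (CE * Real.sqrt Cd * (6 ^ (3:ℝ) * R ^ (1 + 8 * δ))) *
          (ENNReal.ofReal (L ^ 2) * ∫⁻ v, ‖f v‖ₑ ^ 2) := by
        refine mul_le_mul' (ENNReal.ofReal_le_ofReal ?_) hen
        exact mul_le_mul_of_nonneg_left (expo hR hδ hδ1) (by positivity)
    _ = ENNReal.ofReal (CE * (L ^ 2 * Real.sqrt Cd) * 6 ^ (3:ℝ) * R ^ (1 + 8 * δ)) *
          ∫⁻ v, ‖f v‖ₑ ^ 2 := by
        rw [← mul_assoc, ← ENNReal.ofReal_mul (by positivity)]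
        congr 2
        ring

/-- **`GlobW` from `EBc M`**. -/
theorem GlobW_of_EBc {M : ℝ} (hEB : WC188.EBc M) : GlobW :=
  EB665.GlobW_of_LocW (LocW_of_EBc hEB)

end Crest.Agent.R116.Hx665
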