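import Mathlib.Tactic

/-!
# R116, K-TEXT II-c v3, part C (ties): rows with honest flags, any sign of `θb` (helper460)

Natural boxes `(v; a, b)`, record `(v; -θ v, -θb v)`; levels `z v | C_a a | C_b b | X v+a | N v+b |
H v+2a | E b-a | G b-2a | D b-2a-v`.  `Pl` = constant rates on one open half plane bounded by the
record line: `x n h` = losses of `X_a, N, H`, `m r` = rates of `C_a, C_b`, `e` = excess of `z`,
`w u d` = rates of the flags `E G D`.  A flag parallel to `z` on the plane is counted in `e` (its own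
field is then `0`); a frozen `D` has `d = 0`.

* `e`-tie `b ≤ a + k v` (`θb = θ - k`), tie plane = offsets `± (1, 1)`; fact `m ≤ r`;
* `κ`-tie and `D`-tie `b ≤ 2 a + k v` (`θb = 2 θ - k`), tie plane = offsets `± (1, 2)`;
  facts `m ≤ w` (420) and `w > 0 → n ≤ x`;
* `A` = side below the record (`T⁻`), `B` = side above (`T⁺`), resp. the frozen plane `S₁`.
-/

set_option autoImplicit false

namespace Crest.Agent.R116.Tie460

/-- rates on one open half plane bounded by the record line -/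
structure Pl where
  x : ℝ
  n : ℝ
  h : ℝ
  m : ℝ
  r : ℝ
  e : ℝ
  w : ℝ
  u : ℝ
  d : ℝ

/-- all rates are nonnegative -/
structure Pl.Pos (S : Pl) : Prop where
  x0 : 0 ≤ S.x
  n0 : 0 ≤ S.n
  h0 : 0 ≤ S.h
  m0 : 0 ≤ S.m
  r0 : 0 ≤ S.r
  e0 : 0 ≤ S.e
  w0 : 0 ≤ S.w
  u0 : 0 ≤ S.u
  d0 : 0 ≤ S.d

/-- `P_a + q_a` -/
def Pl.Fa (S : Pl) (qa : ℝ) : ℝ := S.x + 2 * S.h - S.m + S.w + 2 * S.u + 2 * S.d + qa

/-- `P_b + q_b` -/
def Pl.Fb (S : Pl) (qb : ℝ) : ℝ := S.n - S.r - S.w - S.u - S.d + qb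

/-- tangential identity along the record -/
def Pl.Tan (S : Pl) (c θ θb qa qb : ℝ) : Prop :=
  c + S.e = S.x + S.h + S.n + S.d - θ * S.Fa qa - θb * S.Fb qb

/-- numerical constants -/
structure Num (θ s c qa qb : ℝ) : Prop where
  hθ : 0 < θ
  hs : 0 ≤ s
  hc : 2 * s + qb < c
  ha : 0 < qa
  hb : 0 ≤ qb
  hq : qb ≤ qa

/-- fan of `C_a` : (K1), (F1), (H1) -/
structure Pl.FanA (S : Pl) (s : ℝ) : Prop where
  kx : 0 < S.m → S.x ≤ s
  kh : 0 < S.m → S.h ≤ s
  fx : s < S.m → S.x = 0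
  fh : s < S.m → S.h = 0

/-- fan of `C_b` : (K2), (F2) -/
structure Pl.FanB (S : Pl) (s : ℝ) : Prop where
  kn : 0 < S.r → S.n ≤ s
  fn : s < S.r → S.n = 0

variable {k θ s c qa qb μ : ℝ} {A B S : Pl}

/-! ### the inequality of the direction `(-1, μ)` of the tie plane -/

theorem rowE (tan : S.Tan c θ (θ - k) qa qb) (hμ : 0 ≤ (θ - μ) * (S.Fa qa + S.Fb qb)) :
    c + S.e + k * S.w + (k + μ) * S.u + (k - 1 + μ) * S.d + μ * qa + (μ - k) * qb ≤
      (1 - μ) * S.x + (1 + k - μ) * S.n + (1 - 2 * μ) * S.h + (μ - k) * S.r + μ * S.m := by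
  have key : (1 - μ) * S.x + (1 + k - μ) * S.n + (1 - 2 * μ) * S.h + (μ - k) * S.r + μ * S.m -
      (c + S.e + k * S.w + (k + μ) * S.u + (k - 1 + μ) * S.d + μ * qa + (μ - k) * qb) =
      (θ - μ) * (S.Fa qa + S.Fb qb) := by
    unfold Pl.Tan at tan
    unfold Pl.Fa Pl.Fb at *
    linear_combination (-1 : ℝ) * tan
  linarith

theorem rowK (tan : S.Tan c θ (2 * θ - k) qa qb) (hμ : 0 ≤ (θ - μ) * (S.Fa qa + 2 * S.Fb qb)) :
    c + S.e + (k - μ) * S.w + k * S.u + (k - 1) * S.d + μ * qa + (2 * μ - k) * qb ≤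
      (1 - μ) * S.x + (1 + k - 2 * μ) * S.n + (1 - 2 * μ) * S.h + (2 * μ - k) * S.r
        + μ * S.m := by
  have key : (1 - μ) * S.x + (1 + k - 2 * μ) * S.n + (1 - 2 * μ) * S.h + (2 * μ - k) * S.r
        + μ * S.m -
      (c + S.e + (k - μ) * S.w + k * S.u + (k - 1) * S.d + μ * qa + (2 * μ - k) * qb) =
      (θ - μ) * (S.Fa qa + 2 * S.Fb qb) := by
    unfold Pl.Tan at tan
    unfold Pl.Fa Pl.Fb at *
    linear_combination (-1 : ℝ) * tan
  linarith

/-- below the record all `μ ≤ θ` -/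
theorem lowμ {F : ℝ} (h : 0 ≤ F) (hμ : μ ≤ θ) : 0 ≤ (θ - μ) * F :=
  mul_nonneg (by linarith) h

/-- above the record all `μ ≥ θ` -/
theorem upμ {F : ℝ} (h : F ≤ 0) (hμ : θ ≤ μ) : 0 ≤ (θ - μ) * F :=
  mul_nonneg_of_nonpos_of_nonpos (by linarith) h

/-! ### `e`-tie -/

/-- **`e`-plane, `k ≥ 1`, `μ = k/2`** (either side) -/
theorem e_ge (N : Num θ s c qa qb) (hk : 1 ≤ k) (P : S.Pos) (hx : S.x ≤ s) (hn : S.n ≤ s)
    (mr : S.m ≤ S.r) (nx : 2 < k → S.n ≤ S.x) (tan : S.Tan c θ (θ - k) qa qb)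
    (hμ : 0 ≤ (θ - k / 2) * (S.Fa qa + S.Fb qb)) : False := by
  have h := rowE tan hμ
  have := N.hs; have := N.hc; have := N.ha; have := N.hb; have := N.hq
  have := P.e0
  have h1 : 0 ≤ k * S.w := mul_nonneg (by linarith) P.w0
  have h2 : 0 ≤ (k + k / 2) * S.u := mul_nonneg (by linarith) P.u0
  have h3 : 0 ≤ (k - 1 + k / 2) * S.d := mul_nonneg (by linarith) P.d0
  have h4 : 0 ≤ (k / 2) * (qa - qb) := mul_nonneg (by linarith) (by linarith)
  have h5 : 0 ≤ (k / 2) * (S.r - S.m) := mul_nonneg (by linarith) (by linarith)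
  have h6 : 0 ≤ (k - 1) * S.h := mul_nonneg (by linarith) P.h0
  rcases le_or_gt k 2 with hk2 | hk2
  · have h7 : (1 - k / 2) * S.x ≤ (1 - k / 2) * s := mul_le_mul_of_nonneg_left hx (by linarith)
    have h8 : (1 + k / 2) * S.n ≤ (1 + k / 2) * s := mul_le_mul_of_nonneg_left hn (by linarith)
    nlinarith
  · have h7 : 0 ≤ (k / 2 - 1) * (S.x - S.n) := mul_nonneg (by linarith) (by linarith [nx hk2])
    nlinarith

/-- exits on the `e`-plane below the record, `k < 1` -/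
theorem exits_e (N : Num θ s c qa qb) (hk : 0 ≤ k) (P : S.Pos) (FA : S.FanA s) (FB : S.FanB s)
    (mr : S.m ≤ S.r) (hd : 0 ≤ (k - 1) * S.d) (tan : S.Tan c θ (θ - k) qa qb)
    (ver : 0 ≤ S.Fa qa + S.Fb qb) (hm : qa ≤ S.m) :
    S.m ≤ s ∧ S.r ≤ s ∧ S.x ≤ s ∧ S.h ≤ s ∧ S.n ≤ s := by
  have := N.hs; have := N.hc; have := N.ha; have := N.hb; have := N.hq; have := P.e0
  have hm0 : 0 < S.m := by linarith
  have hr0 : 0 < S.r := by linarith
  have hx := FA.kx hm0
  have hh := FA.kh hm0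
  have hn := FB.kn hr0
  have h := rowE (μ := 0) tan (lowμ ver N.hθ.le)
  have h1 : 0 ≤ k * S.w := mul_nonneg hk P.w0
  have h2 : 0 ≤ k * S.u := mul_nonneg hk P.u0
  have h3 : 0 ≤ k * (S.r - qb) := mul_nonneg hk (by linarith)
  have hrs : S.r ≤ s := by
    by_contra hcon
    push Not at hcon
    rw [FB.fn hcon] at h
    nlinarith
  exact ⟨by linarith, hrs, hx, hh, hn⟩

/-- **`e`-tie, `k < 1`, `θ ≥ 1/2`** (`T⁻` only) -/
theorem e_lt_a (N : Num θ s c qa qb) (hk : 0 ≤ k) (hk1 : k < 1) (hθ : 1 / 2 ≤ θ) (P : S.Pos)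
    (FA : S.FanA s) (FB : S.FanB s) (mr : S.m ≤ S.r) (hd : S.d = 0)
    (tan : S.Tan c θ (θ - k) qa qb) (ver : 0 ≤ S.Fa qa + S.Fb qb) (hm : qa ≤ S.m) : False := by
  obtain ⟨hms, hrs, hx, hh, hn⟩ :=
    exits_e N hk P FA FB mr (by rw [hd]; simp) tan ver hm
  have := N.hs; have := N.hc; have := N.ha; have := N.hb; have := N.hq; have := P.e0
  have h := rowE (μ := 1 / 2) tan (lowμ ver hθ)
  rw [hd] at h
  have h1 : 0 ≤ k * S.w := mul_nonneg hk P.w0
  have h2 : 0 ≤ (k + 1 / 2) * S.u := mul_nonneg (by linarith) P.u0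
  have h3 : (1 / 2 + k) * S.n ≤ (1 / 2 + k) * s := mul_le_mul_of_nonneg_left hn (by linarith)
  rcases le_or_gt k (1 / 2) with h4 | h4
  · have h5 : (1 / 2 - k) * (S.r - qb) ≤ (1 / 2 - k) * s :=
      mul_le_mul_of_nonneg_left (by linarith) (by linarith)
    nlinarith
  · have h5 : 0 ≤ (k - 1 / 2) * (S.r - S.m) := mul_nonneg (by linarith) (by linarith)
    have h6 : (1 - k) * S.m ≤ (1 - k) * s := mul_le_mul_of_nonneg_left hms (by linarith)
    have h7 : 0 ≤ (k - 1 / 2) * (qa - qb) := mul_nonneg (by linarith) (by linarith)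
    have h8 : 0 ≤ (1 - k) * qa := mul_nonneg (by linarith) (by linarith)
    nlinarith

/-- **`e`-plane above the record, `θ < k < 1`** (so `θb < 0`); `x, h, m ≤ s`.
`hd` : `D` frozen, or `k ≥ 1/2`. -/
theorem e_lt_b (N : Num θ s c qa qb) (hk1 : k < 1) (hθk : θ ≤ k) (P : S.Pos)
    (FB : S.FanB s) (mr : S.m ≤ S.r) (hd : 0 ≤ (2 * k - 1) * S.d)
    (hx : S.x ≤ s) (hh : S.h ≤ s) (hm : S.m ≤ s) (hm0 : 0 < S.m)
    (tan : S.Tan c θ (θ - k) qa qb) (ver : S.Fa qa + S.Fb qb ≤ 0) : False := by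
  have := N.hs; have := N.hc; have := N.ha; have := N.hb; have := N.hq; have := P.e0
  have hθ0 := N.hθ
  have hk : 0 < k := by linarith
  have hn := FB.kn (by linarith)
  rcases le_or_gt S.r s with hr | hr
  · have h := rowE (μ := 1) tan (upμ ver (by linarith))
    have h1 : 0 ≤ k * S.w := mul_nonneg hk.le P.w0
    have h2 : 0 ≤ (k + 1) * S.u := mul_nonneg (by linarith) P.u0
    have h3 : 0 ≤ k * S.d := mul_nonneg hk.le P.d0
    have h4 : k * S.n ≤ k * s := mul_le_mul_of_nonneg_left hn hk.le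
    have h5 : (1 - k) * S.r ≤ (1 - k) * s := mul_le_mul_of_nonneg_left hr (by linarith)
    have h6 : 0 ≤ (1 - k) * qb := mul_nonneg (by linarith) (by linarith)
    nlinarith [P.h0]
  · have h := rowE (μ := k) tan (upμ ver hθk)
    rw [FB.fn hr] at h
    have h1 : 0 ≤ k * S.w := mul_nonneg hk.le P.w0
    have h2 : 0 ≤ (k + k) * S.u := mul_nonneg (by linarith) P.u0
    have h4 : (1 - k) * S.x ≤ (1 - k) * s := mul_le_mul_of_nonneg_left hx (by linarith)
    have h5 : k * S.m ≤ k * s := mul_le_mul_of_nonneg_left hm hk.le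
    have h6 : 0 ≤ k * qa := mul_nonneg hk.le (by linarith)
    have h7 : (1 - 2 * k) * S.h ≤ s := by
      rcases le_or_gt (1 - 2 * k) 0 with h8 | h8
      · exact (mul_nonpos_of_nonpos_of_nonneg h8 P.h0).trans N.hs
      · calc (1 - 2 * k) * S.h ≤ (1 - 2 * k) * s := mul_le_mul_of_nonneg_left hh h8.le
          _ ≤ 1 * s := mul_le_mul_of_nonneg_right (by linarith) N.hs
          _ = s := one_mul s
    nlinarith

/-- **`e`-tie, `k ≤ θ < 1/2`** (`T⁺` above, (NZ)) -/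
theorem e_lt_c (N : Num θ s c qa qb) (hk : 0 ≤ k) (hkθ : k ≤ θ) (hθ : θ < 1 / 2)
    (PA : A.Pos) (PB : B.Pos) (FA : A.FanA s) (FBA : A.FanB s) (FBB : B.FanB s)
    (mrA : A.m ≤ A.r) (mrB : B.m ≤ B.r) (hd : A.d = 0)
    (tanA : A.Tan c θ (θ - k) qa qb) (verA : 0 ≤ A.Fa qa + A.Fb qb)
    (tanB : B.Tan c θ (θ - k) qa qb) (verB : B.Fa qa + B.Fb qb ≤ 0)
    (hm : qa ≤ A.m) (hBA : B.m ≤ A.m)
    (hNZ : B.n = 0 → (1 + k - θ) * A.n ≤ A.e + k * A.w + (k + θ) * A.u) : False := by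
  obtain ⟨hms, hrs, hx, hh, hn⟩ :=
    exits_e N hk PA FA FBA mrA (by rw [hd]; simp) tanA verA hm
  have := N.hs; have := N.hc; have := N.ha; have := N.hb; have := N.hq; have := N.hθ
  have hBr0 : 0 < B.r := by
    have h := verB
    unfold Pl.Fa Pl.Fb at h
    linarith [PB.x0, PB.h0, PB.n0, PB.u0, PB.d0]
  have hBn := FBB.kn hBr0
  rcases le_or_gt B.r s with hr | hr
  · have h := rowE (μ := 1) tanB (upμ verB (by linarith))
    have h1 : 0 ≤ k * B.w := mul_nonneg hk PB.w0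
    have h2 : 0 ≤ (k + 1) * B.u := mul_nonneg (by linarith) PB.u0
    have h3 : 0 ≤ k * B.d := mul_nonneg hk PB.d0
    have h4 : k * B.n ≤ k * s := mul_le_mul_of_nonneg_left hBn hk
    have h5 : (1 - k) * B.r ≤ (1 - k) * s := mul_le_mul_of_nonneg_left hr (by linarith)
    have h6 : 0 ≤ (1 - k) * qb := mul_nonneg (by linarith) (by linarith)
    nlinarith [PB.h0, PB.e0]
  · have hN := hNZ (FBB.fn hr)
    have h := rowE (μ := θ) tanA (by simp)
    rw [hd] at h
    have h1 : (1 - θ) * A.x ≤ (1 - θ) * s := mul_le_mul_of_nonneg_left hx (by linarith)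
    have h2 : (1 - 2 * θ) * A.h ≤ (1 - 2 * θ) * s := mul_le_mul_of_nonneg_left hh (by linarith)
    have h3 : (θ - k) * (A.r - qb) ≤ (θ - k) * s :=
      mul_le_mul_of_nonneg_left (by linarith) (by linarith)
    have h4 : θ * (A.m - qa) ≤ θ * s := mul_le_mul_of_nonneg_left (by linarith) (by linarith)
    have h5 : 0 ≤ k * s := mul_nonneg hk N.hs
    have h6 : 0 ≤ θ * s := mul_nonneg N.hθ.le N.hs
    nlinarith

/-! ### `κ`-tie and `D`-tie -/

/-- **`κ`-plane, `k ≥ 1`, `μ = k/2`** (either side) -/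
theorem k_ge (N : Num θ s c qa qb) (hk : 1 ≤ k) (P : S.Pos) (hx : S.x ≤ s) (hn : S.n ≤ s)
    (mw : S.m ≤ S.w ∨ (k = 1 ∧ S.m ≤ s)) (tan : S.Tan c θ (2 * θ - k) qa qb)
    (hμ : 0 ≤ (θ - k / 2) * (S.Fa qa + 2 * S.Fb qb)) : False := by
  have h := rowK tan hμ
  have := N.hs; have := N.hc; have := N.ha; have := N.hb; have := N.hq
  have := P.e0
  have h2 : 0 ≤ k * S.u := mul_nonneg (by linarith) P.u0
  have h3 : 0 ≤ (k - 1) * S.d := mul_nonneg (by linarith) P.d0
  have h4 : 0 ≤ (k / 2) * qa := mul_nonneg (by linarith) (by linarith)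
  have h6 : 0 ≤ (k - 1) * S.h := mul_nonneg (by linarith) P.h0
  have h7 : (1 - k / 2) * S.x ≤ s / 2 := by
    rcases le_or_gt (1 - k / 2) 0 with h8 | h8
    · exact (mul_nonpos_of_nonpos_of_nonneg h8 P.x0).trans (by linarith)
    · calc (1 - k / 2) * S.x ≤ (1 - k / 2) * s := mul_le_mul_of_nonneg_left hx h8.le
        _ ≤ (1 / 2) * s := mul_le_mul_of_nonneg_right (by linarith) N.hs
        _ = s / 2 := by ring
  rcases mw with mw | ⟨rfl, hm⟩
  · have h5 : 0 ≤ (k / 2) * (S.w - S.m) := mul_nonneg (by linarith) (by linarith)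
    nlinarith
  · have := P.w0
    nlinarith

/-- exits on the `κ`-plane below the record -/
theorem exits_k (N : Num θ s c qa qb) (hk : 0 ≤ k) (P : S.Pos) (FA : S.FanA s) (FB : S.FanB s)
    (mw : S.m ≤ S.w) (wn : 0 < S.w → S.n ≤ S.x) (hd : 0 ≤ (k - 1) * S.d)
    (tan : S.Tan c θ (2 * θ - k) qa qb) (ver : 0 ≤ S.Fa qa + 2 * S.Fb qb) (hm : qa ≤ S.m) :
    S.m ≤ s ∧ S.r ≤ s ∧ S.x ≤ s ∧ S.h ≤ s ∧ S.n ≤ s := by
  have := N.hs; have := N.hc; have := N.ha; have := N.hb; have := N.hq; have := P.e0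
  have hm0 : 0 < S.m := by linarith
  have hx := FA.kx hm0
  have hh := FA.kh hm0
  have hn := wn (by linarith)
  have h := rowK (μ := 0) tan (lowμ ver N.hθ.le)
  have h2 : 0 ≤ k * S.u := mul_nonneg hk P.u0
  have h3 : 0 ≤ k * (S.w - qb) := mul_nonneg hk (by linarith)
  have h4 : 0 ≤ k * S.r := mul_nonneg hk P.r0
  have hrs : S.r ≤ s := by
    by_contra hcon
    push Not at hcon
    rw [FB.fn hcon] at h
    nlinarith
  have hms : S.m ≤ s := by
    by_contra hcon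
    push Not at hcon
    have h5 := FA.fx hcon
    have h6 := FA.fh hcon
    have h7 : S.n = 0 := le_antisymm (by linarith) P.n0
    rw [h5, h6, h7] at h
    nlinarith
  exact ⟨hms, hrs, hx, hh, by linarith⟩

/-- **`κ`-plane below the record, `3/2 ≤ k`, `k/3 ≤ θ`** (only for the double tie) -/
theorem k_third (N : Num θ s c qa qb) (hk : 3 / 2 ≤ k) (hkθ : k / 3 ≤ θ) (P : S.Pos)
    (hx : S.x ≤ s) (nx : S.n ≤ S.x) (mw : S.m ≤ S.w)
    (tan : S.Tan c θ (2 * θ - k) qa qb) (ver : 0 ≤ S.Fa qa + 2 * S.Fb qb) : False := by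
  have := N.hs; have := N.hc; have := N.ha; have := N.hb; have := N.hq; have := P.e0
  have h := rowK (μ := k / 3) tan (lowμ ver hkθ)
  have h1 : 0 ≤ (k / 3) * (S.w - S.m) := mul_nonneg (by linarith) (by linarith)
  have h2 : 0 ≤ k * S.u := mul_nonneg (by linarith) P.u0
  have h3 : 0 ≤ (k - 1) * S.d := mul_nonneg (by linarith) P.d0
  have h4 : 0 ≤ (k / 3) * (qa - qb) := mul_nonneg (by linarith) (by linarith)
  have h5 : 0 ≤ (k / 3) * S.r := mul_nonneg (by linarith) P.r0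
  have h6 : 0 ≤ (2 * k / 3 - 1) * S.h := mul_nonneg (by linarith) P.h0
  have h8 : 0 ≤ (k / 3) * S.w := mul_nonneg (by linarith) P.w0
  rcases le_or_gt k 3 with hk3 | hk3
  · have h9 : (1 - k / 3) * S.x ≤ (1 - k / 3) * s := mul_le_mul_of_nonneg_left hx (by linarith)
    have h10 : (1 + k / 3) * S.n ≤ (1 + k / 3) * s :=
      mul_le_mul_of_nonneg_left (by linarith) (by linarith)
    nlinarith
  · have h9 : 0 ≤ (k / 3 - 1) * (S.x - S.n) := mul_nonneg (by linarith) (by linarith)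
    nlinarith

/-- **`κ`-tie, `k ≤ θ`, `k ≤ 1`** : 647's inequality `c + qa + qb ≤ m + r` on `T⁻` -/
theorem k_W (N : Num θ s c qa qb) (hms : S.m ≤ s) (hrs : S.r ≤ s)
    (sum : c + qa + qb ≤ S.m + S.r) : False := by
  have := N.hs; have := N.hc; have := N.ha; have := N.hb
  linarith

set_option maxHeartbeats 1600000 in
/-- **`κ`-tie, `θ < k ≤ 1`** (and the double tie with `k' ≤ 1`): `A` = `T⁻`, `B` = `S₁` = offset
`(1, 1)` with the flags `E, G` frozen at the record (resp. the `e`-plane above). -/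
theorem k_S (N : Num θ s c qa qb) (hθk : θ < k) (hk1 : k ≤ 1)
    (PA : A.Pos) (PB : B.Pos) (FA : A.FanA s) (FBA : A.FanB s) (FBB : B.FanB s)
    (mw : A.m ≤ A.w) (wn : 0 < A.w → A.n ≤ A.x) (hdA : A.d = 0) (hdB : B.d = 0)
    (tanA : A.Tan c θ (2 * θ - k) qa qb) (verA : 0 ≤ A.Fa qa + 2 * A.Fb qb) (hm : qa ≤ A.m)
    (tanB : B.Tan c θ (2 * θ - k) qa qb)
    (verB : B.x + 2 * B.h + B.n - B.m - B.r + qa + qb ≤ 0) (hBA : B.m ≤ A.m)
    (hNZ : B.n = 0 → (1 + k - 2 * θ) * A.n ≤ A.e + (k - θ) * A.w + k * A.u) : False := by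
  have hθ0 := N.hθ
  have hk : 0 < k := by linarith
  obtain ⟨hAm, hAr, hAx, hAh, hAn⟩ :=
    exits_k N hk.le PA FA FBA mw wn (by rw [hdA]; simp) tanA verA hm
  have hs := N.hs; have hc := N.hc; have ha := N.ha; have hb := N.hb; have hq := N.hq
  have hBms : B.m ≤ s := hBA.trans hAm
  have hn0 : 0 < B.n := by
    by_contra hcon
    have h0 : B.n = 0 := le_antisymm (not_lt.1 hcon) PB.n0
    have h1 := hNZ h0
    have h := rowK (μ := θ) tanA (by simp)
    rw [hdA] at h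
    have e1 : (1 - θ) * A.x ≤ (1 - θ) * s := mul_le_mul_of_nonneg_left hAx (by linarith)
    have e2 : θ * (A.m - qa) ≤ θ * s := mul_le_mul_of_nonneg_left (by linarith) hθ0.le
    have e4 : (1 - 2 * θ) * A.h ≤ max 0 ((1 - 2 * θ) * s) := by
      rcases le_or_gt (1 - 2 * θ) 0 with h | h
      · exact (mul_nonpos_of_nonpos_of_nonneg h PA.h0).trans (le_max_left _ _)
      · exact (mul_le_mul_of_nonneg_left hAh h.le).trans (le_max_right _ _)
    have e3 : (2 * θ - k) * (A.r - qb) ≤ max 0 ((2 * θ - k) * s) + max 0 ((k - 2 * θ) * qb) := by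
      rcases le_or_gt (2 * θ - k) 0 with h | h
      · have h2 : (2 * θ - k) * (A.r - qb) ≤ (k - 2 * θ) * qb := by
          have := mul_nonneg (by linarith : 0 ≤ k - 2 * θ) PA.r0
          nlinarith
        exact h2.trans (by
          have := le_max_left 0 ((2 * θ - k) * s)
          have := le_max_right 0 ((k - 2 * θ) * qb)
          linarith)
      · have h2 : (2 * θ - k) * (A.r - qb) ≤ (2 * θ - k) * s :=
          mul_le_mul_of_nonneg_left (by linarith) h.le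
        exact h2.trans (by
          have := le_max_left 0 ((k - 2 * θ) * qb)
          have := le_max_right 0 ((2 * θ - k) * s)
          linarith)
    have e5 : max 0 ((k - 2 * θ) * qb) ≤ qb := by
      refine max_le hb ?_
      calc (k - 2 * θ) * qb ≤ 1 * qb := mul_le_mul_of_nonneg_right (by linarith) hb
        _ = qb := one_mul qb
    have e6 : max 0 ((1 - 2 * θ) * s) + max 0 ((2 * θ - k) * s) ≤ s := by
      rcases le_or_gt (1 - 2 * θ) 0 with h2 | h2
      · rw [max_eq_left (mul_nonpos_of_nonpos_of_nonneg h2 hs), zero_add]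
        refine max_le hs ?_
        calc (2 * θ - k) * s ≤ 1 * s := mul_le_mul_of_nonneg_right (by linarith) hs
          _ = s := one_mul s
      · rw [max_eq_right (mul_nonneg h2.le hs)]
        rcases le_or_gt (2 * θ - k) 0 with h3 | h3
        · rw [max_eq_left (mul_nonpos_of_nonpos_of_nonneg h3 hs), add_zero]
          calc (1 - 2 * θ) * s ≤ 1 * s := mul_le_mul_of_nonneg_right (by linarith) hs
            _ = s := one_mul s
        · rw [max_eq_right (mul_nonneg h3.le hs)]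
          calc (1 - 2 * θ) * s + (2 * θ - k) * s = (1 - k) * s := by ring
            _ ≤ 1 * s := mul_le_mul_of_nonneg_right (by linarith) hs
            _ = s := one_mul s
    nlinarith
  have hBr : B.r ≤ s := by
    by_contra hcon
    push Not at hcon
    exact hn0.ne' (FBB.fn hcon)
  have h := rowK (μ := θ) tanB (by simp)
  rw [hdB] at h
  have f5 : 0 ≤ (k - θ) * B.w := mul_nonneg (by linarith) PB.w0
  have f6 : 0 ≤ k * B.u := mul_nonneg hk.le PB.u0
  have f7 := PB.e0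
  rcases PB.r0.lt_or_eq with h0 | h0
  · have hBn := FBB.kn h0
    have e1 : (1 + θ - k) * B.r ≤ (1 + θ - k) * s := mul_le_mul_of_nonneg_left hBr (by linarith)
    have e2 : (k - θ) * B.n ≤ (k - θ) * s := mul_le_mul_of_nonneg_left hBn (by linarith)
    have e3 : 0 ≤ (1 - θ) * (-(B.x + 2 * B.h + B.n - B.m - B.r + qa + qb)) :=
      mul_nonneg (by linarith) (by linarith)
    have e4 : 0 ≤ (1 + θ - k) * qb := mul_nonneg (by linarith) hb
    nlinarith [PB.h0]
  · have h0' : B.r = 0 := h0.symm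
    rw [h0'] at h verB
    have hA0 : 0 ≤ 1 + k - 2 * θ := by linarith
    have f3 : 0 ≤ (1 + k - 2 * θ) * (B.m - B.x - 2 * B.h - B.n - qa - qb) :=
      mul_nonneg hA0 (by linarith)
    have f4 : 0 ≤ (k - θ) * B.x := mul_nonneg (by linarith) PB.x0
    have f8 : (1 + k - θ) * B.m ≤ (1 + k - θ) * s := mul_le_mul_of_nonneg_left hBms (by linarith)
    have f9 : (1 + k - θ) * s ≤ 2 * s := mul_le_mul_of_nonneg_right (by linarith) hs
    have f10 : 0 ≤ (1 + 2 * k - 2 * θ) * B.h := mul_nonneg (by linarith) PB.h0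
    have f11 : 0 ≤ (1 + k - θ) * qa := mul_nonneg (by linarith) ha.le
    nlinarith

end Crest.Agent.R116.Tie460
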