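import Crest.Agent.R116.Rz2_460
import Crest.Agent.R116.D0n2_878

/-!
# R116 (K side, ties, `k' = 1` exactly: `2 θ 0 - θ 1 - 1 = 0`), the slot `D` (helper30)

* `DecD L lam ψ` : `lam (c + d e_D) = lam c - (ψ (c_D + d) - ψ (c_D))` on `L`: `D` is decoupled
* `decD_of_outS` : from `OutS` on a plane with `a i = 0 ↔ i = 1`
* **`ae_dec8`**  : a.e. point of the half plane of an offset `B` (`SOk`, `Leg80`), letters of 460's
  `z8z_out`
* **`ae_dec`**   : the natural plane, all of it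
* **`raise`**    : tangent at the base raised by `h A e_D`, `A → ∞` slowly; `DecD.raise`
-/

set_option autoImplicit false
set_option linter.unusedVariables false

open Set Filter Topology MeasureTheory
open scoped NNReal

namespace Crest.Agent.R116.K1d30

open Crest.Agent.R138
open Crest.Agent.R136
open Crest.Agent.R136.Net191
open Crest.Agent.R136.Dg219 (mw mw_full gC dhC nC gset mem_gset lf gC_eq gC_zero Walls OutS dirC)
open Crest.Agent.R116.ChL222
open Crest.Agent.R116.PL504 (eL βL)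
open Crest.Agent.R116.Sg337 (bx9 natB coneL)
open Crest.Agent.R116.SgF665 (wl LM0)
open Crest.Agent.R116.D0F878
open Crest.Agent.R116.D0n878
open Crest.Agent.R116.SgO219 (PP OO ae_out_lam)
open Crest.Agent.R116.RbM219
open Crest.Agent.R116.RbK219 (SOk RS)
open Crest.Agent.R116.Kz647
open Crest.Agent.R116.Rcx363
open Crest.Agent.R116.Rz460
open Dg262 (SupOn)
open Sl741 (slice xt rs)

/-- unit vector of the slot `D` -/
noncomputable def eD : Fin 12 → ℝ := Pi.single 1 1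

theorem eD_one : eD 1 = 1 := by simp [eD]

theorem eD_ne {k : Fin 12} (hk : k ≠ 1) : eD k = 0 := by simp [eD, hk]

theorem wl_eD (e : Fin 12 → ℕ) : wl e eD = e 1 := by
  unfold wl
  rw [Finset.sum_eq_single (1 : Fin 12)]
  · rw [eD_one, mul_one]
  · intro k _ hk; rw [eD_ne hk, mul_zero]
  · simp

/-- **the slot `D` is decoupled** -/
structure DecD (L : Set (Fin 12 → ℝ)) (lam : (Fin 12 → ℝ) → ℝ) (ψ : ℝ → ℝ) : Prop where
  zero : ψ 0 = 0
  mono : ∀ d d', d ≤ d' → 0 ≤ ψ d' - ψ d ∧ ψ d' - ψ d ≤ d' - d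
  dec : ∀ c ∈ L, ∀ d, 0 ≤ d → lam (c + d • eD) = lam c - (ψ (c 1 + d) - ψ (c 1))

/-- raising `D` by one unit -/
theorem DecD.unit {L : Set (Fin 12 → ℝ)} {lam : (Fin 12 → ℝ) → ℝ} {ψ : ℝ → ℝ}
    (H : DecD L lam ψ) : ∀ c ∈ L, c 1 = 0 → lam (c + Pi.single 1 1) = lam c - ψ 1 := by
  intro c hc h1
  have h := H.dec c hc 1 zero_le_one
  rw [one_smul, h1, zero_add, H.zero, sub_zero] at h
  exact h

theorem add_eD_mem {c : Fin 12 → ℝ} (hc : c ∈ LM) {d : ℝ} (hd : 0 ≤ d) : c + d • eD ∈ LM := by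
  intro k e he
  have h1 := hc k e he
  have hk := wall_hd3 k e he
  rw [Pi.add_apply, Pi.smul_apply, eD_ne hk.1, smul_zero, add_zero]
  rw [SgF665.wl_add, SgF665.wl_smul]
  have h2 : 0 ≤ wl e eD := Finset.sum_nonneg fun s _ => mul_nonneg (Nat.cast_nonneg _) (by
    by_cases hs : s = 1
    · rw [hs, eD_one]; exact zero_le_one
    · rw [eD_ne hs])
  nlinarith [mul_nonneg hd h2]

theorem add_eD_one (c : Fin 12 → ℝ) (d : ℝ) : (c + d • eD) 1 = c 1 + d := by
  rw [Pi.add_apply, Pi.smul_apply, eD_one, smul_eq_mul, mul_one]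

theorem add_eD_ne (c : Fin 12 → ℝ) (d : ℝ) {k : Fin 12} (hk : k ≠ 1) : (c + d • eD) k = c k := by
  rw [Pi.add_apply, Pi.smul_apply, eD_ne hk, smul_zero, add_zero]

/-- an element of the cone with slot `D = -1` -/
noncomputable def vN : Fin 12 → ℝ := bx9 2 (-1) 0 2 2 1 1 0 0

theorem vN_one : vN 1 = -1 := rfl

def vZ : Fin 12 → ℤ := ![2, -1, 0, 2, 2, 2, 2, 1, 1, 1, 0, 0]

theorem vN_mem : vN ∈ LM := by
  have h : ∀ k, ∀ e ∈ mfL k, vZ k ≤ ∑ s, (e s : ℤ) * vZ s := by decide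
  have hv : ∀ k, vN k = (vZ k : ℝ) := fun k => by fin_cases k <;> simp [vN, bx9, vZ]
  intro k e he
  have h1 : ((vZ k : ℤ) : ℝ) ≤ ((∑ s, (e s : ℤ) * vZ s : ℤ) : ℝ) := Int.cast_le.2 (h k e he)
  rw [hv k, wl]
  refine h1.trans (le_of_eq ?_)
  push_cast
  exact Finset.sum_congr rfl fun s _ => by rw [hv s]

theorem smul_mem {c : Fin 12 → ℝ} (hc : c ∈ LM) {t : ℝ} (ht : 0 ≤ t) : t • c ∈ LM := by
  intro k e he
  rw [SgF665.wl_smul, Pi.smul_apply, smul_eq_mul]
  exact mul_le_mul_of_nonneg_left (hc k e he) ht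

theorem rhs_wl (w : Σ k : Fin 12, {e // e ∈ monL.mon k}) (p : Fin 12 → ℝ) :
    (mw monL).rhs w p = wl w.2.1 p := rfl

/-- cones of planes contain `LM` and are stable when `D` is raised -/
theorem L_up {x0 a b c : Fin 12 → ℝ} (hc : c ∈ (mw monL).L x0 a b) {d : ℝ} (hd : 0 ≤ d) :
    c + d • eD ∈ (mw monL).L x0 a b := by
  intro w hw
  have h1 := hc w hw
  have hk := wall_hd3 w.1 w.2.1 w.2.2
  change (c + d • eD) w.1 ≤ wl w.2.1 (c + d • eD)
  change c w.1 ≤ wl w.2.1 c at h1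
  rw [add_eD_ne c d hk.1, SgF665.wl_add, SgF665.wl_smul, wl_eD]
  have := mul_nonneg hd (Nat.cast_nonneg (α := ℝ) (w.2.1 1))
  linarith

theorem LM_L {x0 a b : Fin 12 → ℝ} : LM ⊆ (mw monL).L x0 a b := fun c hc w _ =>
  hc w.1 w.2.1 w.2.2

theorem decD_of_outS {L : Set (Fin 12 → ℝ)} (hL1 : ∀ c ∈ L, ∀ d : ℝ, 0 ≤ d → c + d • eD ∈ L)
    (hL2 : LM ⊆ L) {a b : Fin 12 → ℝ} (ha : ∀ i, a i = 0 ↔ i = 1) {lam : (Fin 12 → ℝ) → ℝ}
    {A : ℝ × ℝ} {φ : ℕ → (Fin 12 → ℝ) → ℝ} {r : ℕ → ℝ}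
    (H : OutS (gC a b) L (dhC a b) (nC a b) lam A φ r) :
    DecD L lam (fun d => -φ 0 (d • eD)) := by
  classical
  have hg : ∀ i, gC a b i = 0 ↔ i = 1 := fun i => gC_zero.trans (ha i)
  have h0 : (0 : ℕ) ∈ gset (gC a b) := by
    have := mem_gset (grp := gC a b) 1
    rwa [(hg 1).2 rfl] at this
  have hloc : ∀ c : Fin 12 → ℝ, φ 0 c = φ 0 (c 1 • eD) := fun c => H.loc 0 _ _ fun i hi => by
    rw [(hg i).1 hi, Pi.smul_apply, eD_one, smul_eq_mul, mul_one]
  have hfil : Finset.univ.filter (fun i => gC a b i = 0) = {1} := by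
    ext i; simp [hg i]
  refine ⟨?_, fun d d' hd => ?_, fun c hc d hd => ?_⟩
  · rw [H.zero 0 _ (fun i _ => by simp), neg_zero]
  · obtain ⟨M, hM0, hM1, hM2⟩ : ∃ M : ℝ, 0 ≤ M ∧ 0 ≤ d + M ∧ 0 ≤ d' + M :=
      ⟨|d|, abs_nonneg d, by linarith [neg_abs_le d], by linarith [neg_abs_le d]⟩
    have m1 := add_eD_mem (smul_mem vN_mem hM0) hM1
    have m2 := add_eD_mem (smul_mem vN_mem hM0) hM2
    have e1 : (M • vN + (d + M) • eD) 1 = d := by
      rw [add_eD_one, Pi.smul_apply, vN_one, smul_eq_mul]; ring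
    have e2 : (M • vN + (d' + M) • eD) 1 = d' := by
      rw [add_eD_one, Pi.smul_apply, vN_one, smul_eq_mul]; ring
    have h1 := H.mono 0 _ (hL2 m1) _ (hL2 m2) (fun i hi => by
      rw [(hg i).1 hi, e1, e2]; exact hd)
    rw [hfil, Finset.sum_singleton, e1, e2, hloc, hloc (M • vN + (d' + M) • eD), e1, e2] at h1
    constructor <;> linarith [h1.1, h1.2]
  · have m1 := hL1 c hc d hd
    rw [H.sum _ m1, H.sum _ hc, ← Finset.add_sum_erase _ _ h0, ← Finset.add_sum_erase _ _ h0]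
    have e : ∑ k ∈ (gset (gC a b)).erase 0, φ k (c + d • eD) =
        ∑ k ∈ (gset (gC a b)).erase 0, φ k c := by
      refine Finset.sum_congr rfl fun k hk => H.loc k _ _ fun i hi => add_eD_ne c d ?_
      rintro rfl
      exact (Finset.mem_erase.1 hk).1 (hi.symm.trans ((hg 1).2 rfl))
    rw [e, hloc, hloc c, add_eD_one]
    ring

/-! ### almost every point of the plane -/

theorem a_zero (i : Fin 12) : natB 1 1 3 i = 0 ↔ i = 1 := by
  fin_cases i <;> simp [natB, bx9] <;> norm_num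

theorem a_nonneg (i : Fin 12) : 0 ≤ natB 1 1 3 i := by
  fin_cases i <;> simp [natB, bx9] <;> norm_num

/-- points of the plane where the slot `D` decouples in every tangent -/
def ND (g : (Fin 12 → ℝ) → ℝ) (θa θb : ℝ) : Set (ℝ × ℝ) :=
  {z | ∀ h : ℕ → ℝ, (∀ l, 0 < h l) → Tendsto h atTop (𝓝 0) → ∀ lam : (Fin 12 → ℝ) → ℝ,
    Ex926.IsTan (PP (mw monL)) LM g
      (fun _ => z.1 • natB 0 1 2 + z.2 • natB 1 (-θa) (-θb)) h lam → ∃ ψ, DecD LM lam ψ}

theorem ae_dec {θa θb : ℝ} (hθ : 0 < θa) (hβ : 2 * θa - θb - 1 = 0) {g : (Fin 12 → ℝ) → ℝ}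
    {K : ℝ} (hK : 0 ≤ K)
    (hν : ∀ p ∈ PP (mw monL), ∀ q ∈ PP (mw monL), |g p - g q| ≤ K * dist p q)
    (hm : ∀ p ∈ PP (mw monL), ∀ q ∈ PP (mw monL), p ≤ q →
      0 ≤ g p - g q ∧ g p - g q ≤ ∑ i, (q i - p i))
    (hs : SupOn g (PP (mw monL))) : ∀ᵐ z : ℝ × ℝ, z ∈ ND g θa θb := by
  have h1 := ae_out_lam (mw monL) (x0 := natB 0 0 0) (a := natB 1 1 3)
    (b := natB 1 (-θa) (-θb)) hK hν hm hs a_nonneg (mw_full monL _ _ _)
  have hθ1 : (1 + θa) ≠ 0 := by linarith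
  -- change of variables
  let T : (ℝ × ℝ) ≃ₗ[ℝ] (ℝ × ℝ) :=
    { toFun := fun z => (z.1 / (1 + θa), z.2 - z.1 / (1 + θa))
      invFun := fun y => ((1 + θa) * y.1, y.1 + y.2)
      map_add' := fun x y => by ext <;> simp <;> ring
      map_smul' := fun t x => by ext <;> simp <;> ring
      left_inv := fun z => by
        ext
        · simp; field_simp
        · simp
      right_inv := fun y => by
        ext
        · simp; field_simp
        · simp; field_simp; ring }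
  have hq : Measure.QuasiMeasurePreserving (T : (ℝ × ℝ) → (ℝ × ℝ)) volume volume :=
    Measure.LinearMap.quasiMeasurePreserving volume (T : (ℝ × ℝ) →ₗ[ℝ] (ℝ × ℝ))
      (LinearEquiv.isUnit_det' T).ne_zero
  have h2 := hq.ae h1
  filter_upwards [h2] with z hz
  intro h hpos h0 lam ht
  obtain ⟨D, -, H⟩ := hz (fun w => Or.inl (act_nat _ _ _ _ _ _ _ _ _ w))
  have eX : Dg262.X (natB 0 0 0) (natB 1 1 3) (natB 1 (-θa) (-θb)) (T z) =
      z.1 • natB 0 1 2 + z.2 • natB 1 (-θa) (-θb) := by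
    rw [show (T z) = (z.1 / (1 + θa), z.2 - z.1 / (1 + θa)) from rfl, X_nat, natB_smul, natB_smul,
      natB_add]
    congr 1
    · ring
    · field_simp; ring
    · have : θb = 2 * θa - 1 := by linarith
      rw [this]; field_simp; ring
  have eL := L_nat 0 0 0 1 1 3 1 (-θa) (-θb)
  obtain ⟨φ, r, hO⟩ := H h hpos h0 lam (by
    show Ex926.IsTan _ _ _ _ _ _
    rw [eL]
    simp only [eX]
    exact ht)
  rw [eL] at hO
  exact ⟨_, decD_of_outS (fun c hc d hd => add_eD_mem hc hd) Subset.rfl a_zero hO⟩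

/-! ### the half plane of an offset -/

/-- points of the half plane of `B` where the slot `D` decouples in every tangent -/
def ND8 (g : (Fin 12 → ℝ) → ℝ) (θa θb : ℝ) (B : Fin 8 → ℝ) (sg : ℝ) : Set (ℝ × ℝ) :=
  {z | ∀ l α : ℝ, 0 < l → z = (l * sg, α) → ∀ h : ℕ → ℝ, (∀ m, 0 < h m) → Tendsto h atTop (𝓝 0) →
    ∀ lam2 : (Fin 12 → ℝ) → ℝ,
    Ex926.IsTan (L8 θa θb 0) (L8B θa θb 0 B sg) g (fun _ => z8 θa θb B l α) h lam2 →
      ∃ ψ, DecD (L8B θa θb 0 B sg) lam2 ψ}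

theorem L_shear (x0 a b : Fin 12 → ℝ) (ε : ℝ) :
    (mw monL).L x0 (a + ε • b) b = (mw monL).L x0 a b := by
  have key : ∀ w, (mw monL).Act x0 (a + ε • b) b w ↔ (mw monL).Act x0 a b w := by
    intro w
    constructor
    · rintro ⟨h1, h2, h3⟩
      refine ⟨h1, ?_, h3⟩
      rw [rhs_wl] at h2 h3 ⊢
      rw [SgF665.wl_add, SgF665.wl_smul, Pi.add_apply, Pi.smul_apply, smul_eq_mul, h3] at h2
      linarith
    · rintro ⟨h1, h2, h3⟩
      refine ⟨h1, ?_, h3⟩
      rw [rhs_wl] at h2 h3 ⊢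
      rw [SgF665.wl_add, SgF665.wl_smul, Pi.add_apply, Pi.smul_apply, smul_eq_mul, h3, h2]
  ext c
  exact ⟨fun h w hw => h w ((key w).2 hw), fun h w hw => h w ((key w).1 hw)⟩

/-- **almost every point of the half plane of `B`** -/
theorem ae_dec8 {θa θb : ℝ} (hβ : 2 * θa - θb - 1 = 0) {J : Type*}
    {lam : J → (Fin 12 → ℝ) → ℝ} {j0 : J} {K : ℝ} (hL : RecTan (L8 θa θb 0) lam j0 K)
    {B : Fin 8 → ℝ} {sg : ℝ} (hS : SOk (nat8 1 (-θa) (-θb)) B sg) (hB : Leg80 B) :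
    ∀ᵐ z : ℝ × ℝ, z ∈ ND8 (lam j0) θa θb B sg := by
  have hr : r8 θa θb = r9 θa θb := r8_eq_r9 hβ
  have hr1 : r9 θa θb 1 = 0 := by
    change -θb - 2 * -θa - 1 = 0
    linarith
  have hrk : ∀ k : Fin 12, k ≠ 1 → r9 θa θb k = nat8 1 (-θa) (-θb) (cl8 k) := fun k hk => by
    fin_cases k <;> first | rfl | exact absurd rfl hk
  have hsg : sg * sg = 1 := by rcases hS.sg1 with h | h <;> rw [h] <;> norm_num
  -- the sheared direction
  obtain ⟨ε, hε0, hε⟩ : ∃ ε : ℝ, 0 < ε ∧ ∀ t, 0 < sg * B t + ε * nat8 1 (-θa) (-θb) t := by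
    have h1 : ∀ᶠ ε in 𝓝[>] (0:ℝ), ∀ t, 0 < sg * B t + ε * nat8 1 (-θa) (-θb) t := by
      refine eventually_all.2 fun t => ?_
      by_cases ht : B t = 0
      · filter_upwards [self_mem_nhdsWithin] with ε hε
        rw [ht, mul_zero, zero_add]
        exact mul_pos hε (hS.zero t ht)
      · have h2 : 0 < sg * B t := by
          refine lt_of_le_of_ne (hS.nn t) fun h => ?_
          rcases hS.sg1 with h' | h' <;> rw [h'] at h
          · exact ht (by linarith)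
          · exact ht (by linarith)
        have h3 : Tendsto (fun ε : ℝ => sg * B t + ε * nat8 1 (-θa) (-θb) t) (𝓝[>] (0:ℝ))
            (𝓝 (sg * B t + 0 * nat8 1 (-θa) (-θb) t)) :=
          ((continuous_const.add (continuous_id.mul continuous_const)).tendsto 0).mono_left
            nhdsWithin_le_nhds
        rw [zero_mul, add_zero] at h3
        exact h3.eventually_const_lt h2
    obtain ⟨ε, h2, h3⟩ := (h1.and self_mem_nhdsWithin).exists
    exact ⟨ε, h3, h2⟩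
  set a : Fin 12 → ℝ := b8 (sg • B) with ha
  set a' : Fin 12 → ℝ := a + ε • r8 θa θb with ha'
  have ha1 : a' 1 = 0 := by
    rw [ha', ha, hr, Pi.add_apply, Pi.smul_apply, b8_one, hr1, smul_zero, add_zero]
  have hak : ∀ k : Fin 12, k ≠ 1 → 0 < a' k := fun k hk => by
    rw [ha', ha, hr, Pi.add_apply, Pi.smul_apply, b8_val _ hk, hrk k hk, smul_eq_mul,
      Pi.smul_apply, smul_eq_mul]
    exact hε _
  have hnn : ∀ k, 0 ≤ a' k := fun k => by
    by_cases hk : k = 1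
    · rw [hk, ha1]
    · exact (hak k hk).le
  have hz : ∀ k, a' k = 0 ↔ k = 1 := fun k => by
    constructor
    · intro h
      by_contra hk
      exact (hak k hk).ne' h
    · rintro rfl; exact ha1
  have hLL : L8 θa θb 0 = PP (mw monL) := L8_z hβ
  have h1 := ae_out_lam (mw monL) (x0 := y8 0) (a := a') (b := r8 θa θb) (g := lam j0) hL.K0
    (by rw [← hLL]; exact hL.lip j0) (by rw [← hLL]; exact hL.mono)
    (by rw [← hLL]; exact hL.sup) hnn (mw_full monL _ _ _)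
  let T : (ℝ × ℝ) ≃ₗ[ℝ] (ℝ × ℝ) :=
    { toFun := fun z => (z.1, z.2 - ε * z.1)
      invFun := fun y => (y.1, y.2 + ε * y.1)
      map_add' := fun x y => by ext <;> simp <;> ring
      map_smul' := fun t x => by ext <;> simp <;> ring
      left_inv := fun z => by ext <;> simp
      right_inv := fun y => by ext <;> simp }
  have hq : Measure.QuasiMeasurePreserving (T : (ℝ × ℝ) → (ℝ × ℝ)) volume volume :=
    Measure.LinearMap.quasiMeasurePreserving volume (T : (ℝ × ℝ) →ₗ[ℝ] (ℝ × ℝ))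
      (LinearEquiv.isUnit_det' T).ne_zero
  filter_upwards [hq.ae h1] with z hz'
  intro l α hl hzz h hpos h0 lam2 ht
  have eX : Dg262.X (y8 0) a' (r8 θa θb) (T z) = z8 θa θb B l α := by
    rw [show (T z) = (z.1, z.2 - ε * z.1) from rfl, hzz, y8_zero, ha']
    funext k
    simp only [Dg262.X, Pi.zero_apply, Pi.add_apply, Pi.smul_apply, smul_eq_mul]
    by_cases hk : k = 1
    · subst hk
      have h2 : z8 θa θb B l α 1 = 0 := b8_one _
      rw [h2, ha, hr, b8_one, hr1]; ring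
    · rw [z8_val l α hk, ha, b8_val _ hk, hr]
      have h3 : r9 θa θb k = βL θa θb k := rfl
      rw [h3]
      simp only [Pi.smul_apply, smul_eq_mul]
      linear_combination (B (cl8 k) * l) * hsg
  have hv : b8 B ∈ PP (mw monL) := by rw [← coneL_PP]; exact b8_mem0 hB
  have hOO : T z ∈ OO (mw monL) (y8 0) a' (r8 θa θb) := by
    intro w
    by_cases hw : (mw monL).Act (y8 0) a' (r8 θa θb) w
    · exact Or.inl hw
    · right
      rw [eX]
      have hA := act9 θa θb w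
      have hA2 : r9 θa θb w.1 = wl w.2.1 (r9 θa θb) := hA.2.1
      have hle : b8 B w.1 ≤ wl w.2.1 (b8 B) := by
        have := hv w
        change b8 B w.1 ≤ wl w.2.1 (b8 B) + 0 at this
        linarith
      have hz8 : z8 θa θb B l α = l • b8 B + α • r9 θa θb := by
        funext k
        simp only [Pi.add_apply, Pi.smul_apply, smul_eq_mul]
        by_cases hk : k = 1
        · subst hk
          have h2 : z8 θa θb B l α 1 = 0 := b8_one _
          rw [h2, b8_one, hr1]; ring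
        · rw [z8_val l α hk, b8_val _ hk]; rfl
      have hlt : b8 B w.1 < wl w.2.1 (b8 B) := by
        refine lt_of_le_of_ne hle fun he => hw ?_
        have hasg : a = sg • b8 B := by
          funext k
          by_cases hk : k = 1
          · subst hk; rw [ha, b8_one, Pi.smul_apply, b8_one, smul_zero]
          · rw [ha, b8_val _ hk]
            change sg * B (cl8 k) = sg * b8 B k
            rw [b8_val _ hk]
        refine ⟨?_, ?_, ?_⟩
        · rw [y8_zero]; exact hA.1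
        · rw [rhs_wl, ha', hr, hasg, SgF665.wl_add, SgF665.wl_smul, SgF665.wl_smul, ← he, ← hA2]
          rfl
        · rw [hr]; exact hA2
      change z8 θa θb B l α w.1 < wl w.2.1 (z8 θa θb B l α) + 0
      rw [hz8, SgF665.wl_add, SgF665.wl_smul, SgF665.wl_smul, ← hA2]
      simp only [Pi.add_apply, Pi.smul_apply, smul_eq_mul]
      nlinarith
  obtain ⟨D, -, H⟩ := hz' hOO
  have eL' : (mw monL).L (y8 0) a' (r8 θa θb) = L8B θa θb 0 B sg := L_shear _ _ _ _
  obtain ⟨φ, r, hO⟩ := H h hpos h0 lam2 (by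
    rw [eL']
    simp only [eX]
    rw [← hLL]
    exact ht)
  rw [eL'] at hO
  exact ⟨_, decD_of_outS (fun c hc d hd => L_up hc hd) LM_L hz hO⟩

/-! ### raising the base -/

theorem norm_eD_le (d : ℝ) : ‖d • eD‖ ≤ |d| := by
  rw [pi_norm_le_iff_of_nonneg (abs_nonneg d)]
  intro k
  by_cases hk : k = 1
  · rw [hk, Pi.smul_apply, eD_one, smul_eq_mul, mul_one, Real.norm_eq_abs]
  · rw [Pi.smul_apply, eD_ne hk, smul_zero, norm_zero]; exact abs_nonneg d

theorem sum_le9 : ∀ k, ∀ e ∈ mfL k, ∑ s, e s ≤ 19 := by decide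

/-- a vector of `LM0` gets into the full cone when `D` is raised -/
theorem raise_mem {c : Fin 12 → ℝ} (hc : c ∈ LM0) {A : ℝ} (hA : 20 * ‖c‖ ≤ A) :
    c + A • eD ∈ LM := by
  intro k e he
  have hk := wall_hd3 k e he
  rw [add_eD_ne c A hk.1, SgF665.wl_add, SgF665.wl_smul, wl_eD]
  by_cases h1 : e 1 = 0
  · have := hc k e he h1
    rw [h1]; simpa using this
  · have h2 : (1 : ℝ) ≤ e 1 := by exact_mod_cast Nat.one_le_iff_ne_zero.2 h1
    have h3 : c k ≤ ‖c‖ := (le_abs_self _).trans (norm_le_pi_norm c k)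
    have h4 : -(19 * ‖c‖) ≤ wl e c := by
      have h5 : ∀ s, -((e s : ℝ) * ‖c‖) ≤ (e s : ℝ) * c s := fun s => by
        have := (abs_le.1 ((Real.norm_eq_abs _).symm.le.trans (norm_le_pi_norm c s))).1
        nlinarith [Nat.cast_nonneg (α := ℝ) (e s)]
      have h6 : -(∑ s, (e s : ℝ) * ‖c‖) ≤ wl e c := by
        unfold wl
        rw [← Finset.sum_neg_distrib]
        exact Finset.sum_le_sum fun s _ => h5 s
      have h7 : (∑ s, (e s : ℝ)) ≤ 19 := by
        have := sum_le9 k e he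
        exact_mod_cast this
      rw [← Finset.sum_mul] at h6
      nlinarith [norm_nonneg c]
    have h8 : 0 ≤ A := by linarith [norm_nonneg c]
    nlinarith

theorem zero_memLM0 : (0 : Fin 12 → ℝ) ∈ LM0 := fun k e he _ => zero_mem k e he

theorem LM_sub : LM ⊆ LM0 := fun c hc k e he _ => hc k e he

theorem isClosed_LM0 : IsClosed LM0 := by
  have e : LM0 = ⋂ k, ⋂ e ∈ monL.mon k, ⋂ (_ : e 1 = 0), {p : Fin 12 → ℝ | p k ≤ wl e p} := by
    ext p; simp [LM0]
  rw [e]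
  refine isClosed_iInter fun k => isClosed_biInter fun e he => isClosed_iInter fun _ => ?_
  refine isClosed_le (continuous_apply k) ?_
  unfold wl
  fun_prop

theorem tan_zero {P D : Set (Fin 12 → ℝ)} {ν lam : (Fin 12 → ℝ) → ℝ} {X : ℕ → Fin 12 → ℝ}
    {H : ℕ → ℝ} (hpos : ∀ m, 0 < H m) (h0 : (0 : Fin 12 → ℝ) ∈ D)
    (ht : Ex926.IsTan P D ν X H lam) : lam 0 = 0 := by
  by_contra hne
  have hp : 0 < |lam 0| := abs_pos.2 hne
  obtain ⟨l, hl⟩ := (ht 0 (|lam 0| / 2) (by linarith)).exists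
  have h1 := (hl 0 h0 (by simp)).2
  rw [smul_zero, add_zero, sub_self, zero_sub, abs_neg, abs_mul, abs_of_pos (hpos l)] at h1
  nlinarith [hpos l]

/-- **tangent at the raised base** -/
theorem raise {J : Type*} [Finite J] {R K : ℝ} {f : J → (Fin 12 → ℝ) → ℝ} (hK : 0 ≤ K)
    (hf : ∀ j, ∀ p ∈ Leg monL R, ∀ q ∈ Leg monL R, |f j p - f j q| ≤ K * ‖p - q‖)
    {X : ℕ → Fin 12 → ℝ} {H : ℕ → ℝ} (hpos : ∀ m, 0 < H m) {lam : J → (Fin 12 → ℝ) → ℝ}
    (ht : ∀ j, Ex926.IsTan (Leg monL R) LM (f j) X H (lam j))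
    {Pr : ℕ → ℕ → Prop} (hPr : ∀ m, ∀ᶠ l in atTop, Pr m l) :
    ∃ (φ : ℕ → ℕ) (A : ℕ → ℝ) (lam3 : J → (Fin 12 → ℝ) → ℝ), StrictMono φ ∧
      (∀ m, Pr m (φ m)) ∧ (∀ m, 0 < A m) ∧ Tendsto A atTop atTop ∧
      (∀ j, Ex926.IsTan (Leg monL R) LM0 (f j) (fun m => X (φ m) + (H (φ m) * A m) • eD)
        (fun m => H (φ m)) (lam3 j)) ∧
      (∀ j, ∀ c ∈ LM0, Tendsto (fun m => lam j (c + A m • eD) - lam j (A m • eD)) atTop
        (𝓝 (lam3 j c))) := by
  classical
  -- choice of the indices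
  have hev : ∀ m : ℕ, ∀ᶠ l in atTop, (∀ i ≤ m, Pr i l) ∧ ∀ j, ∀ c ∈ LM, ‖c‖ ≤ 30 * (m + 1 : ℝ) →
      X l + H l • c ∈ Leg monL R ∧
        |f j (X l + H l • c) - f j (X l) - H l * lam j c| ≤ 1 / (m + 1 : ℝ) * H l := by
    intro m
    have h1 : ∀ᶠ l in atTop, ∀ i ≤ m, Pr i l := by
      have := (Set.finite_le_nat m).eventually_all.2 (fun i (_ : i ∈ {i | i ≤ m}) => hPr i)
      exact this
    exact h1.and (eventually_all.2 fun j => ht j _ _ (by positivity))
  obtain ⟨θ, hθ, hθP⟩ := extraction_forall_of_eventually hev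
  set Y : ℕ → Fin 12 → ℝ := fun m => X (θ m) + (H (θ m) * (m + 1 : ℝ)) • eD with hY
  have hYc : ∀ m c, Y m + H (θ m) • c = X (θ m) + H (θ m) • (c + (m + 1 : ℝ) • eD) := by
    intro m c
    simp only [hY, smul_add, smul_smul]
    abel
  have hY0 : ∀ m, Y m = X (θ m) + H (θ m) • ((m + 1 : ℝ) • eD) := by
    intro m
    simp only [hY, smul_smul]
  have hm1 : ∀ m : ℕ, (m + 1 : ℝ) • eD ∈ LM := fun m => by
    have := add_eD_mem zero_mem (d := (m + 1 : ℝ)) (by positivity)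
    rwa [zero_add] at this
  have hn1 : ∀ m : ℕ, ‖(m + 1 : ℝ) • eD‖ ≤ (m + 1 : ℝ) := fun m =>
    (norm_eD_le _).trans (le_of_eq (abs_of_pos (by positivity)))
  have hN : ∀ C : ℝ, ∀ᶠ m : ℕ in atTop, ∀ c ∈ LM0, ‖c‖ ≤ C →
      c + (m + 1 : ℝ) • eD ∈ LM ∧ ‖c + (m + 1 : ℝ) • eD‖ ≤ 30 * (m + 1 : ℝ) := by
    intro C
    obtain ⟨N, hN⟩ := exists_nat_ge (20 * C)
    filter_upwards [eventually_ge_atTop N] with m hm c hc hcC
    have h1 : 20 * C ≤ (m + 1 : ℝ) := by
      have : (N : ℝ) ≤ m := by exact_mod_cast hm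
      linarith
    have h2 : 20 * ‖c‖ ≤ (m + 1 : ℝ) := by linarith
    refine ⟨raise_mem hc h2, (norm_add_le _ _).trans ?_⟩
    have := hn1 m
    linarith [norm_nonneg c]
  obtain ⟨τ, hτ, lam3, ht3⟩ := Rc683.exists_tan (J := J) (P := fun _ => Leg monL R)
    (D := fun _ => LM0) (fun _ => isClosed_LM0) (ν := f) hK hf (x := Y) (h := fun m => H (θ m))
    (fun m => hpos _) (fun j C => by
      filter_upwards [hN C] with m hm c hc hcC
      obtain ⟨h1, h2⟩ := hm c hc hcC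
      rw [hYc]
      exact ((hθP m).2 j _ h1 h2).1) (fun _ => zero_memLM0)
  have hτi : ∀ m, m ≤ τ m := hτ.id_le
  refine ⟨fun m => θ (τ m), fun m => (τ m : ℝ) + 1, lam3, hθ.comp hτ,
    fun m => (hθP (τ m)).1 m (hτi m), fun m => by positivity, ?_, fun j => ?_, fun j c hc => ?_⟩
  · exact (tendsto_natCast_atTop_atTop.comp hτ.tendsto_atTop).atTop_add tendsto_const_nhds
  · exact ht3 j
  · have h1 := SgO219.tan_lim (fun m => hpos (θ (τ m))) (ht3 j) hc zero_memLM0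
    rw [tan_zero (fun m => hpos (θ (τ m))) zero_memLM0 (ht3 j), sub_zero] at h1
    -- difference tends to zero
    have h2 : Tendsto (fun m : ℕ => 2 * (1 / ((τ m : ℝ) + 1))) atTop (𝓝 0) := by
      have h3 : Tendsto (fun m : ℕ => 1 / ((m : ℝ) + 1)) atTop (𝓝 0) :=
        tendsto_one_div_add_atTop_nhds_zero_nat
      have := (h3.comp hτ.tendsto_atTop).const_mul 2
      simpa using this
    have h4 : Tendsto (fun m => (lam j (c + ((τ m : ℝ) + 1) • eD) - lam j (((τ m : ℝ) + 1) • eD)) -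
        (f j (Y (τ m) + H (θ (τ m)) • c) - f j (Y (τ m) + H (θ (τ m)) • (0 : Fin 12 → ℝ))) /
          H (θ (τ m))) atTop (𝓝 0) := by
      refine squeeze_zero_norm' ?_ h2
      filter_upwards [hτ.tendsto_atTop.eventually (hN ‖c‖)] with m hm
      obtain ⟨m1, n1⟩ := hm c hc le_rfl
      have hh := hpos (θ (τ m))
      have k1 := ((hθP (τ m)).2 j _ m1 n1).2
      have k2 := ((hθP (τ m)).2 j _ (hm1 (τ m)) (by
        have := hn1 (τ m)
        have : (0 : ℝ) ≤ (τ m : ℝ) + 1 := by positivity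
        linarith)).2
      rw [smul_zero, add_zero, hYc, hY0, Real.norm_eq_abs]
      rw [abs_le] at k1 k2 ⊢
      have e : (lam j (c + ((τ m : ℝ) + 1) • eD) - lam j (((τ m : ℝ) + 1) • eD)) -
          (f j (X (θ (τ m)) + H (θ (τ m)) • (c + ((τ m : ℝ) + 1) • eD)) -
            f j (X (θ (τ m)) + H (θ (τ m)) • (((τ m : ℝ) + 1) • eD))) / H (θ (τ m)) =
          -((f j (X (θ (τ m)) + H (θ (τ m)) • (c + ((τ m : ℝ) + 1) • eD)) - f j (X (θ (τ m))) -
              H (θ (τ m)) * lam j (c + ((τ m : ℝ) + 1) • eD)) -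
            (f j (X (θ (τ m)) + H (θ (τ m)) • (((τ m : ℝ) + 1) • eD)) - f j (X (θ (τ m))) -
              H (θ (τ m)) * lam j (((τ m : ℝ) + 1) • eD))) / H (θ (τ m)) := by
        field_simp; ring
      rw [e]
      constructor
      · rw [le_div_iff₀ hh]; linarith [k1.2, k2.1]
      · rw [div_le_iff₀ hh]; linarith [k1.1, k2.2]
    have h5 := h4.add h1
    simpa using h5


/-- the decoupled form of the raised tangent -/
theorem raise_dec {lam : (Fin 12 → ℝ) → ℝ} {ψ : ℝ → ℝ} (H : DecD LM lam ψ) (h0 : lam 0 = 0)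
    {A : ℕ → ℝ} (hA0 : ∀ m, 0 < A m) (hA : Tendsto A atTop atTop) {lam3 : (Fin 12 → ℝ) → ℝ}
    (h3 : ∀ c ∈ LM0, Tendsto (fun m => lam (c + A m • eD) - lam (A m • eD)) atTop
        (𝓝 (lam3 c))) :
    ∀ c ∈ LM0, c 1 = 0 → ∀ a, 0 ≤ a → c + a • eD ∈ LM → lam3 c = lam (c + a • eD) + ψ a := by
  intro c hc hc1 a ha hca
  refine tendsto_nhds_unique (h3 c hc) ?_
  refine tendsto_const_nhds.congr' ?_
  filter_upwards [hA.eventually_ge_atTop a] with m hm
  have h1 := H.dec _ hca (A m - a) (by linarith)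
  have h2 := H.dec 0 zero_mem (A m) (hA0 m).le
  have e1 : c + a • eD + (A m - a) • eD = c + A m • eD := by
    rw [add_assoc, ← add_smul]; congr 2; ring
  have e2 : (c + a • eD) 1 = a := by rw [add_eD_one, hc1, zero_add]
  rw [e1, e2] at h1
  rw [zero_add, h0, Pi.zero_apply, zero_add, H.zero] at h2
  have e3 : a + (A m - a) = A m := by ring
  rw [e3] at h1
  rw [h1, h2]; ring

end Crest.Agent.R116.K1d30
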