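import Crest.Agent.R116.Rz2_460
import Crest.Agent.R116.Kz3_647

/-!
# R116 (K side, TIES), `k' = 1` exactly (`2 θa - θb = 1`): `D` raised in the second level (helper736)

`lam2` = tangents at a generic point of a half plane with the offset `B` (kD, kU, oS ..), `D` at the
record level.  On such a plane `D` is a slot of slope zero, decoupled from all other slots (`hdec`).
The tangents `lam3` of `lam2` at the point `D` raised by one unit (`+` a point of the plane):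

* **`raise8z`** : they are decoupled on the cone without the walls of `D` (`OutS`, `t = 1`), their
  rates are the rates of `lam2` (`FRates`, the same `ρ2`), and they inherit `Prf`.
(`hdec` at almost every point of the plane: K1p2_736)
-/

set_option autoImplicit false
set_option linter.unusedSectionVars false
set_option linter.unusedVariables false

open Set Filter Topology Metric MeasureTheory

namespace Crest.Agent.R116.K1p736

open Crest.Agent.R138
open Crest.Agent.R138.Ex926 (IsTan)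
open Crest.Agent.R136
open Crest.Agent.R136.Net191
open Crest.Agent.R116.ChL222
open Crest.Agent.R116.PL504 (eL βL rL eL_wall)
open Crest.Agent.R116.Xd954 (cs xs)
open Crest.Agent.R116.Sg337 (coneL DL natB eL_bx9)
open Crest.Agent.R116.RbM219
open Crest.Agent.R116.RbK219 (SOk RS Par dl)
open Crest.Agent.R116.SgO219 (PP OO cw cw_PP ae_out_lam exists_tan_OO)
open Crest.Agent.R116.Kz647
open Crest.Agent.R116.Rcx363
open Crest.Agent.R116.Rz460
open Dg262 (X X_cont SupOn)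
open Dg219 (mw Walls OutS)
open Sl741 (slice xt rs)

/-- the raised point -/
noncomputable def zr (θa θb : ℝ) (B : Fin 8 → ℝ) (l α : ℝ) : Fin 12 → ℝ :=
  y8 1 + z8 θa θb B l α

theorem y8_one_one : y8 1 1 = 1 := by unfold y8; rw [Function.update_self]

theorem y8_one : y8 1 = (Pi.single 1 1 : Fin 12 → ℝ) := by
  funext i
  by_cases hi : i = 1
  · subst hi; rw [y8_one_one, Pi.single_eq_same]
  · rw [y8_at hi, Pi.single_eq_of_ne hi]

theorem rhs_y8 (w : Σ k : Fin 12, {e // e ∈ monL.mon k}) :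
    (mw monL).rhs w (y8 1) = (w.2.1 1 : ℝ) := by
  change ∑ s, (w.2.1 s : ℝ) * y8 1 s = _
  rw [Finset.sum_eq_single (1 : Fin 12)]
  · rw [y8_one_one, mul_one]
  · intro s _ hs; rw [y8_at hs, mul_zero]
  · intro h; exact absurd (Finset.mem_univ _) h

/-! ### slices of general walls -/

section gen

variable {ι W : Type*} [Fintype ι] [DecidableEq ι] [Fintype W] {p : ι → Prop} [DecidablePred p]
  {Q : Walls ι W} {v : ι → ℝ} {hp : ∀ w, p (Q.hd w)} {x0 a b : ι → ℝ}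

theorem mem_PP_sl {c : {i // p i} → ℝ} : c ∈ PP (slice Q p v hp) ↔ xt p v c ∈ PP Q := by
  constructor
  · intro h w
    have h3 : c ⟨Q.hd w, hp w⟩ ≤ (slice Q p v hp).rhs w c +
        (Q.cst w + ∑ s : {i // ¬ p i}, (Q.co w s.1 : ℝ) * v s.1) := h w
    rw [Sl741.rhs_xt (v := v) (hp := hp), Sl741.xt_in _ _ (hp w)]
    linarith
  · intro h w
    have := h w
    rw [Sl741.rhs_xt (v := v) (hp := hp), Sl741.xt_in _ _ (hp w)] at this
    change c ⟨Q.hd w, hp w⟩ ≤ (slice Q p v hp).rhs w c +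
        (Q.cst w + ∑ s : {i // ¬ p i}, (Q.co w s.1 : ℝ) * v s.1)
    linarith

theorem OO_sl (h0 : ∀ i, ¬ p i → x0 i = v i) (ha : ∀ i, ¬ p i → a i = 0)
    (hb : ∀ i, ¬ p i → b i = 0) {z : ℝ × ℝ} (hz : z ∈ OO Q x0 a b) :
    z ∈ OO (slice Q p v hp) (rs p x0) (rs p a) (rs p b) := by
  intro w
  rcases hz w with h | h
  · exact Or.inl ((Sl741.slice_Act h0 ha hb).2 h)
  · right
    rw [← Sl741.X_slice (v := v) h0 ha hb z, Sl741.rhs_xt (v := v)
      (hp := hp), Sl741.xt_in _ _ (hp w)] at h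
    change X (rs p x0) (rs p a) (rs p b) z ⟨Q.hd w, hp w⟩ <
      (slice Q p v hp).rhs w (X (rs p x0) (rs p a) (rs p b) z) +
        (Q.cst w + ∑ s : {i // ¬ p i}, (Q.co w s.1 : ℝ) * v s.1)
    linarith

end gen

/-! ### the walls of a plane -/

section plane

variable {θa θb t : ℝ} {B : Fin 8 → ℝ} {sg : ℝ}

theorem a12_off : ∀ i, ¬ kp i → xt kp 0 (RL8.vec (sg • B)) i = 0 := fun i hi => by
  rw [Sl741.xt_off _ _ hi]; rfl

theorem r8_off : ∀ i, ¬ kp i → r8 θa θb i = 0 := fun i hi => by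
  have hi' : i = 1 := not_not.1 hi
  subst hi'
  unfold r8; rw [Function.update_self]

/-- the walls which are tight on the plane -/
noncomputable abbrev QB (θa θb : ℝ) (B : Fin 8 → ℝ) (sg : ℝ) :
    Walls (Fin 12) {w // (mw monL).Act (y8 0) (xt kp 0 (RL8.vec (sg • B))) (r8 θa θb) w} :=
  cw (mw monL) (y8 0) (xt kp 0 (RL8.vec (sg • B))) (r8 θa θb)

noncomputable instance instFinQB :
    Fintype {w // (mw monL).Act (y8 0) (xt kp 0 (RL8.vec (sg • B))) (r8 θa θb) w} :=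
  Fintype.ofFinite _

theorem QB_PP : PP (QB θa θb B sg) = L8B θa θb 0 B sg := cw_PP _ _ _ _

theorem QB_hd (w : {w // (mw monL).Act (y8 0) (xt kp 0 (RL8.vec (sg • B))) (r8 θa θb) w}) :
    kp ((QB θa θb B sg).hd w) := kp_hd w.1

theorem act_zero {w : Σ k : Fin 12, {e // e ∈ monL.mon k}}
    (h : (mw monL).Act (y8 1) (xt kp 0 (RL8.vec (sg • B))) (r8 θa θb) w) :
    w.2.1 1 = 0 ∧ (mw monL).Act (y8 0) (xt kp 0 (RL8.vec (sg • B))) (r8 θa θb) w := by
  have h1 := h.1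
  have hk : w.1 ≠ 1 := kp_hd w
  have e1 : y8 1 ((mw monL).hd w) = 0 := y8_at hk
  have h0 : (mw monL).cst w = 0 := rfl
  rw [e1, rhs_y8, h0, add_zero] at h1
  refine ⟨by exact_mod_cast h1.symm, ?_, h.2.1, h.2.2⟩
  rw [y8_zero, h0]
  unfold Walls.rhs
  simp

theorem QB_L : (QB θa θb B sg).L (y8 1) (xt kp 0 (RL8.vec (sg • B))) (r8 θa θb) =
    L8B θa θb 1 B sg := by
  ext d
  constructor
  · intro h w hw
    obtain ⟨-, h2⟩ := act_zero hw
    have h0 : (mw monL).cst w = 0 := rfl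
    exact h ⟨w, h2⟩ ⟨by
      have := hw.1
      rw [h0] at this
      exact this, hw.2.1, hw.2.2⟩
  · intro h w hw
    exact h w.1 ⟨by
      have h0 : (mw monL).cst w.1 = 0 := rfl
      have h1 : (QB θa θb B sg).cst w = 0 := rfl
      have := hw.1
      rw [h1] at this
      rw [h0]
      exact this, hw.2.1, hw.2.2⟩

theorem L8B_one : L8B θa θb 0 B sg ⊆ L8B θa θb 1 B sg := fun d h w hw => h w (act_zero hw).2

/-- every point of the plane through `y8 1` is an interior point -/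
theorem mem_OO_QB (z : ℝ × ℝ) :
    z ∈ OO (QB θa θb B sg) (y8 1) (xt kp 0 (RL8.vec (sg • B))) (r8 θa θb) := by
  intro w
  obtain ⟨w, hw⟩ := w
  have hk : w.1 ≠ 1 := kp_hd w
  have e1 : y8 1 ((mw monL).hd w) = 0 := y8_at hk
  have ha : xt kp 0 (RL8.vec (sg • B)) ((mw monL).hd w) =
      (mw monL).rhs w (xt kp 0 (RL8.vec (sg • B))) := hw.2.1
  have hb : r8 θa θb ((mw monL).hd w) = (mw monL).rhs w (r8 θa θb) := hw.2.2
  by_cases h1 : w.2.1 1 = 0
  · left
    refine ⟨?_, ha, hb⟩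
    change y8 1 ((mw monL).hd w) = (mw monL).rhs w (y8 1) + 0
    rw [e1, rhs_y8, h1]; simp
  · right
    change X (y8 1) (xt kp 0 (RL8.vec (sg • B))) (r8 θa θb) z ((mw monL).hd w) <
      (mw monL).rhs w (X (y8 1) (xt kp 0 (RL8.vec (sg • B))) (r8 θa θb) z) + 0
    have hX : X (y8 1) (xt kp 0 (RL8.vec (sg • B))) (r8 θa θb) z =
        y8 1 + (z.1 • xt kp 0 (RL8.vec (sg • B)) + z.2 • r8 θa θb) := by
      funext i
      simp only [X, Pi.add_apply, Pi.smul_apply, smul_eq_mul]; ring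
    rw [hX, Walls.rhs_add, Walls.rhs_add, Walls.rhs_smul, Walls.rhs_smul, rhs_y8, ← ha, ← hb]
    simp only [Pi.add_apply, Pi.smul_apply, smul_eq_mul]
    rw [e1]
    have h5 : (1:ℝ) ≤ w.2.1 1 := by exact_mod_cast Nat.one_le_iff_ne_zero.2 h1
    linarith

theorem mem_slice8 {c : K8 → ℝ} :
    c ∈ (srf8 θa θb t B sg).L (Q8 t) ↔ xt kp 0 c ∈ L8B θa θb t B sg := by
  have := Sl741.mem_slice_L (Q := mw monL) (v := y8 t) (hp := kp_hd) (x0 := y8 t)
    (a := xt kp 0 (RL8.vec (sg • B))) (b := r8 θa θb) (fun _ _ => rfl) a12_off r8_off (c := c)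
  rw [rs_r8, Sl741.rs_xt] at this
  exact this

/-- the cone of the slice -/
theorem sl_L : (slice (QB θa θb B sg) kp (y8 1) QB_hd).L (rs kp (y8 1)) (RL8.vec (sg • B))
    (RL8.vec (nat8 1 (-θa) (-θb))) = (srf8 θa θb 1 B sg).L (Q8 1) := by
  ext c
  have := Sl741.mem_slice_L (Q := QB θa θb B sg) (v := y8 1) (hp := QB_hd) (x0 := y8 1)
    (a := xt kp 0 (RL8.vec (sg • B))) (b := r8 θa θb) (fun _ _ => rfl) a12_off r8_off (c := c)
  rw [rs_r8, Sl741.rs_xt, QB_L] at this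
  exact this.trans mem_slice8.symm

theorem sl_full : (slice (QB θa θb B sg) kp (y8 1) QB_hd).Full (rs kp (y8 1))
    (RL8.vec (sg • B)) (RL8.vec (nat8 1 (-θa) (-θb))) := by
  refine Walls.full_of_co fun w => ?_
  obtain ⟨s, hs, hs'⟩ := leg_kept w.1.1 w.1.2.1 w.1.2.2
  exact ⟨⟨s, hs⟩, hs'⟩

/-- point of the plane over the slice -/
theorem X_plane (hS : SOk (nat8 1 (-θa) (-θb)) B sg) (l α : ℝ) :
    X (y8 t) (xt kp 0 (RL8.vec (sg • B))) (r8 θa θb) (l * sg, α) = y8 t + z8 θa θb B l α := by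
  have hρ0 : xt kp 0 (RL8.vec (nat8 1 (-θa) (-θb))) = r8 θa θb := by
    rw [← rs_r8, Sl741.xt_rs fun i hi => by rw [r8_off i hi]; rfl]
  have e : z8 θa θb B l α = l • xt kp 0 (RL8.vec B) + α • r8 θa θb := by
    rw [← hρ0, ← Sl741.xt_smul, ← Sl741.xt_smul, ← RS.vec_smul, ← RS.vec_smul, ← Sl741.xt_add0,
      ← RS.vec_add]
  rw [e, RS.vec_smul, Sl741.xt_smul]
  have hs := hS.sq
  funext i
  simp only [X, Pi.add_apply, Pi.smul_apply, smul_eq_mul]
  linear_combination (l * xt kp 0 (RL8.vec B) i) * hs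

/-- points of the plane are in the cone -/
theorem z8_mem0 (hS : SOk (nat8 1 (-θa) (-θb)) B sg) (l α : ℝ) :
    z8 θa θb B l α ∈ L8B θa θb 0 B sg := by
  intro w hw
  have h1 := X_plane (t := 0) hS l α
  rw [y8_zero, zero_add] at h1
  rw [← h1]
  have hX : X (0 : Fin 12 → ℝ) (xt kp 0 (RL8.vec (sg • B))) (r8 θa θb) (l * sg, α) =
      (l * sg) • xt kp 0 (RL8.vec (sg • B)) + α • r8 θa θb := by
    funext i
    simp only [X, Pi.zero_apply, Pi.add_apply, Pi.smul_apply, smul_eq_mul]; ring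
  rw [hX, Walls.rhs_add, Walls.rhs_smul, Walls.rhs_smul, ← hw.2.1, ← hw.2.2]
  simp

theorem zr_mem0 (hS : SOk (nat8 1 (-θa) (-θb)) B sg) (l α : ℝ) :
    zr θa θb B l α ∈ L8B θa θb 0 B sg := by
  unfold zr
  refine (Walls.cone (Q := mw monL)).add _ ?_ _ (z8_mem0 hS l α)
  intro w hw
  have hk : w.1 ≠ 1 := kp_hd w
  have e1 : y8 1 ((mw monL).hd w) = 0 := y8_at hk
  rw [e1, rhs_y8]
  exact Nat.cast_nonneg _

end plane

/-! ### the raised point -/

/-- a good point of the plane with `l > 0` -/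
theorem exists_good {sg : ℝ} {good : Set (ℝ × ℝ)} (hg : ∀ᵐ z : ℝ × ℝ, z ∈ good)
    (hsg : sg * sg = 1) : ∃ l α : ℝ, 0 < l ∧ ((l * sg, α) : ℝ × ℝ) ∈ good := by
  have hop : IsOpen {z : ℝ × ℝ | 0 < z.1 * sg} :=
    isOpen_lt continuous_const (continuous_fst.mul continuous_const)
  have hne : ((sg, 0) : ℝ × ℝ) ∈ {z : ℝ × ℝ | 0 < z.1 * sg} := by
    change 0 < sg * sg
    rw [hsg]; exact one_pos
  have hpm : 0 < volume {z : ℝ × ℝ | 0 < z.1 * sg} := hop.measure_pos volume ⟨_, hne⟩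
  obtain ⟨z, hz, hzg⟩ : ∃ z : ℝ × ℝ, 0 < z.1 * sg ∧ z ∈ good := by
    by_contra hcon
    push Not at hcon
    have h0 : volume {z : ℝ × ℝ | 0 < z.1 * sg} ≤ 0 := by
      rw [ae_iff] at hg
      exact (measure_mono fun z hz => hcon z hz).trans hg.le
    exact absurd h0 (not_le.2 hpm)
  refine ⟨z.1 * sg, z.2, hz, ?_⟩
  have : ((z.1 * sg * sg, z.2) : ℝ × ℝ) = z := by
    rw [mul_assoc, hsg, mul_one]
  rw [this]
  exact hzg

/-- levels of parallel slots at the natural points -/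
theorem par_lev {sg : ℝ} {A B : Fin 8 → ℝ} (hS : SOk A B sg) {t i : Fin 8} (h : Par A B t i)
    (l α : ℝ) : (l • B + α • A) i * dl A B sg t = (l • B + α • A) t * dl A B sg i := by
  unfold Par at h
  simp only [Pi.add_apply, Pi.smul_apply, smul_eq_mul]
  by_cases ht : B t = 0
  · have hA := hS.zero t ht
    rw [ht, mul_zero] at h
    have hi : B i = 0 := (mul_eq_zero.1 h).resolve_left hA.ne'
    unfold dl
    rw [if_pos ht, if_pos hi, ht, hi]
    ring
  · have hi : B i ≠ 0 := by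
      intro hi
      have hA := hS.zero i hi
      rw [hi, mul_zero] at h
      exact ht ((mul_eq_zero.1 h.symm).resolve_left hA.ne')
    unfold dl
    rw [if_neg ht, if_neg hi]
    linear_combination (-(α * sg)) * h

section raise

variable {s : ℝ} {a b : Fin 2} {Vis Vis' : Fin 12 → Prop} {θa θb sg : ℝ} {B : Fin 8 → ℝ}
    {lam2 : Fin 2 → (Fin 12 → ℝ) → ℝ} {ρ2 : Fin 8 → ℝ}

/-- **THE RAISED POINT** -/
theorem raise8z (hS : SOk (nat8 1 (-θa) (-θb)) B sg)
    (hlip : ∀ j, ∀ p ∈ L8B θa θb 0 B sg, ∀ q ∈ L8B θa θb 0 B sg,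
      |lam2 j p - lam2 j q| ≤ (12:ℝ) * dist p q)
    (hP : Prf (L8B θa θb 0 B sg) s a b Vis (βL θa θb) (lam2 0))
    (hF : FRates RL8 (nat8 1 (-θa) (-θb)) B sg
      (fun d => lam2 0 (xt kp 0 d)) ((srf8 θa θb 0 B sg).L (Q8 0)) ρ2)
    (hdec : ∃ K0 : ℝ, ∀ d ∈ L8B θa θb 0 B sg, d 1 = 0 →
      lam2 0 (d + (Pi.single 1 1 : Fin 12 → ℝ)) = lam2 0 d - K0)
    (hV1 : ¬ Vis 1)
    (hV : ∀ k, Vis k → (Vis' k ∧ B (cl8 k) ≤ B 0 * βL θa θb k) ∨
      B (cl8 k) < B 0 * βL θa θb k) :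
    ∃ l α : ℝ, 0 < l ∧ zr θa θb B l α ∈ L8B θa θb 0 B sg ∧
      ∀ k : ℕ → ℝ, (∀ m, 0 < k m) → Tendsto k atTop (𝓝 0) →
        ∃ (φ : ℕ → ℕ) (lam3 : Fin 2 → (Fin 12 → ℝ) → ℝ), StrictMono φ ∧
          (∀ j, IsTan (L8B θa θb 0 B sg) (L8B θa θb 1 B sg) (lam2 j)
            (fun _ => zr θa θb B l α) (fun m => k (φ m)) (lam3 j)) ∧
          (∃ (D : ℝ × ℝ) (φ0 : ℕ → (K8 → ℝ) → ℝ) (r : ℕ → ℝ),
            OutS (srf8 θa θb 1 B sg).g ((srf8 θa θb 1 B sg).L (Q8 1)) (srf8 θa θb 1 B sg).dh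
              (srf8 θa θb 1 B sg).n (fun d => lam3 0 (xt kp 0 d)) D φ0 r) ∧
          FRates RL8 (nat8 1 (-θa) (-θb)) B sg (fun d => lam3 0 (xt kp 0 d))
            ((srf8 θa θb 1 B sg).L (Q8 1)) ρ2 ∧
          Prf (L8B θa θb 1 B sg) s a b Vis' (βL θa θb) (lam3 0) := by
  classical
  have hxc : ∀ {d : K8 → ℝ}, d ∈ PP (slice (QB θa θb B sg) kp (y8 1) QB_hd) →
      xt kp (y8 1) d ∈ L8B θa θb 0 B sg := fun hd => by
    rw [← QB_PP]; exact mem_PP_sl.1 hd
  have hae := ae_out_lam (slice (QB θa θb B sg) kp (y8 1) QB_hd) (x0 := rs kp (y8 1))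
    (a := RL8.vec (sg • B))
    (b := RL8.vec (nat8 1 (-θa) (-θb))) (g := fun d => lam2 0 (xt kp (y8 1) d)) (K := 12)
    (by norm_num)
    (fun p hp q hq => (hlip 0 _ (hxc hp) _ (hxc hq)).trans
      (mul_le_mul_of_nonneg_left (Sl741.xt_dist _ _ _) (by norm_num)))
    (fun p hp q hq hpq => by
      have := hP.anti _ (hxc hp) _ (hxc hq) (Sl741.xt_mono _ hpq)
      rw [Sl741.xt_sum] at this; exact this)
    (fun p hp q hq h1 h2 => by
      have := hP.sm _ (hxc hp) _ (hxc hq) (by rw [← Sl741.xt_inf]; exact hxc h1)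
        (by rw [← Sl741.xt_sup]; exact hxc h2)
      rw [← Sl741.xt_inf, ← Sl741.xt_sup] at this; exact this)
    (hS.a_nonneg (R := RL8)) sl_full
  obtain ⟨l, α, hl, hgood⟩ := exists_good hae hS.sq
  have hOO : ((l * sg, α) : ℝ × ℝ) ∈ OO (QB θa θb B sg) (y8 1)
      (xt kp 0 (RL8.vec (sg • B))) (r8 θa θb) := mem_OO_QB _
  have hOs := OO_sl (Q := QB θa θb B sg) (v := y8 1) (hp := QB_hd) (x0 := y8 1)
    (fun _ _ => rfl) a12_off r8_off hOO
  rw [rs_r8, Sl741.rs_xt] at hOs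
  obtain ⟨D, -, hout⟩ := hgood hOs
  have hzc : zr θa θb B l α ∈ L8B θa θb 0 B sg := zr_mem0 hS l α
  refine ⟨l, α, hl, hzc, fun k hk hk0 => ?_⟩
  obtain ⟨φ, hφ, lam3, hT⟩ := exists_tan_OO (QB θa θb B sg) (g := lam2) (K := 12) (by norm_num)
    (fun j p hp q hq => by
      rw [← dist_eq_norm]
      rw [QB_PP] at hp hq
      exact hlip j p hp q hq) hOO hk hk0
  rw [X_plane hS, QB_PP, QB_L] at hT
  have hT' : ∀ j, IsTan (L8B θa θb 0 B sg) (L8B θa θb 1 B sg) (lam2 j)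
      (fun _ => zr θa θb B l α) (fun m => k (φ m)) (lam3 j) := hT
  have hpos' : ∀ m, 0 < k (φ m) := fun m => hk _
  have h0' : Tendsto (fun m => k (φ m)) atTop (𝓝 0) := hk0.comp hφ.tendsto_atTop
  -- the slice
  have hXs : xt kp (y8 1) (X (rs kp (y8 1)) (RL8.vec (sg • B)) (RL8.vec (nat8 1 (-θa) (-θb)))
      (l * sg, α)) = zr θa θb B l α := by
    have := Sl741.X_slice (p := kp) (v := y8 1) (x0 := y8 1)
      (a := xt kp 0 (RL8.vec (sg • B))) (b := r8 θa θb) (fun _ _ => rfl) a12_off r8_off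
      (l * sg, α)
    rw [rs_r8, Sl741.rs_xt] at this
    rw [this]
    exact X_plane hS l α
  have hres : IsTan (PP (slice (QB θa θb B sg) kp (y8 1) QB_hd))
      ((slice (QB θa θb B sg) kp (y8 1) QB_hd).L (rs kp (y8 1)) (RL8.vec (sg • B))
      (RL8.vec (nat8 1 (-θa) (-θb)))) (fun d => lam2 0 (xt kp (y8 1) d))
      (fun _ => X (rs kp (y8 1)) (RL8.vec (sg • B)) (RL8.vec (nat8 1 (-θa) (-θb))) (l * sg, α))
      (fun m => k (φ m)) (fun d => lam3 0 (xt kp 0 d)) := by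
    intro C ε hε
    filter_upwards [hT' 0 C ε hε] with m hm d hd hdC
    rw [sl_L] at hd
    obtain ⟨m1, m2⟩ := hm _ (mem_slice8.1 hd) ((Sl741.xt_norm d).trans hdC)
    have e : xt kp (y8 1) (X (rs kp (y8 1)) (RL8.vec (sg • B))
        (RL8.vec (nat8 1 (-θa) (-θb))) (l * sg, α) + k (φ m) • d) =
        zr θa θb B l α + k (φ m) • xt kp 0 d := by
      rw [Sl741.xt_add0, Sl741.xt_smul, hXs]
    refine ⟨mem_PP_sl.2 (by rw [e, QB_PP]; exact m1), ?_⟩
    simp only [e, hXs]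
    exact m2
  obtain ⟨φ0, r, hO⟩ := hout _ hpos' h0' _ hres
  rw [sl_L] at hO
  have hO' : OutS (srf8 θa θb 1 B sg).g ((srf8 θa θb 1 B sg).L (Q8 1)) (srf8 θa θb 1 B sg).dh
      (srf8 θa θb 1 B sg).n (fun d => lam3 0 (xt kp 0 d)) (D (1, 0), D (0, 1)) φ0 r := hO
  obtain ⟨ρ3, hρ3⟩ := frates_of (Q := Q8 1) (y0 := rs kp (y8 1)) hS hO'
  have hcadd : ∀ p ∈ L8B θa θb 0 B sg, ∀ q ∈ L8B θa θb 0 B sg, p + q ∈ L8B θa θb 0 B sg :=
    fun p hp q hq => (Walls.cone (Q := mw monL)).add _ hp _ hq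
  have hcsm : ∀ p ∈ L8B θa θb 0 B sg, ∀ x : ℝ, 0 ≤ x → x • p ∈ L8B θa θb 0 B sg :=
    fun p hp x hx => (Walls.cone (Q := mw monL)).smul _ hp _ hx
  -- the rates are those of `lam2`
  have hρ : ρ3 = ρ2 := by
    funext t
    obtain ⟨K0, hK0⟩ := hdec
    obtain ⟨d, hd, hde, hdz⟩ := roomGrp (R := RL8) (y0 := rs kp (y8 0)) (Q := Q8 0) hS RL8_full t
    have hd0 : xt kp 0 d ∈ L8B θa θb 0 B sg := mem_slice8.1 hd
    have hde0 : xt kp 0 (d + RL8.eG (nat8 1 (-θa) (-θb)) B sg t) ∈ L8B θa θb 0 B sg :=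
      mem_slice8.1 hde
    have k1 := hρ3.grp t d 0 1 (fun i hi => by rw [hdz i hi]; ring)
      (mem_slice8.2 (L8B_one hd0))
      (by rw [one_smul]; exact mem_slice8.2 (L8B_one hde0))
    rw [one_smul, mul_one] at k1
    -- the difference quotient is constant
    have h1 := SgO219.tan_lim hpos' (hT' 0) (L8B_one hd0) (L8B_one hde0)
    have h2 : ∀ m, (lam2 0 (zr θa θb B l α + k (φ m) • xt kp 0 d) -
        lam2 0 (zr θa θb B l α + k (φ m) • xt kp 0 (d + RL8.eG (nat8 1 (-θa) (-θb)) B sg t))) /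
          k (φ m) = ρ2 t := by
      intro m
      have hkm := hpos' m
      have hz : z8 θa θb B l α ∈ L8B θa θb 0 B sg := z8_mem0 hS l α
      have key2 : ∀ d' : K8 → ℝ, xt kp 0 d' ∈ L8B θa θb 0 B sg →
          lam2 0 (zr θa θb B l α + k (φ m) • xt kp 0 d') =
            lam2 0 (xt kp 0 (RL8.vec (l • B + α • nat8 1 (-θa) (-θb)) + k (φ m) • d')) - K0 := by
        intro d' hd'
        have e : zr θa θb B l α + k (φ m) • xt kp 0 d' =
            xt kp 0 (RL8.vec (l • B + α • nat8 1 (-θa) (-θb)) + k (φ m) • d') +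
              (Pi.single 1 1 : Fin 12 → ℝ) := by
          unfold zr
          rw [Sl741.xt_add0, Sl741.xt_smul, y8_one]
          abel
        rw [e]
        refine hK0 _ ?_ ?_
        · rw [Sl741.xt_add0, Sl741.xt_smul]
          exact hcadd _ hz _ (hcsm _ hd' _ hkm.le)
        · rw [Sl741.xt_off (p := kp) _ _ (by simp [kp])]; rfl
      rw [key2 d hd0, key2 _ hde0]
      have hlev : ∀ i, Par (nat8 1 (-θa) (-θb)) B t (RL8.cls i) →
          (RL8.vec (l • B + α • nat8 1 (-θa) (-θb)) + k (φ m) • d) i =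
            RL8.mu i * (dl (nat8 1 (-θa) (-θb)) B sg (RL8.cls i) /
              dl (nat8 1 (-θa) (-θb)) B sg t) *
              ((l • B + α • nat8 1 (-θa) (-θb)) t) := by
        intro i hi
        rw [Pi.add_apply, Pi.smul_apply, hdz i hi, smul_zero, add_zero]
        have hdt := (hS.dl_pos t).ne'
        have hp : (l • B + α • nat8 1 (-θa) (-θb)) (RL8.cls i) *
            dl (nat8 1 (-θa) (-θb)) B sg t = (l • B + α • nat8 1 (-θa) (-θb)) t *
            dl (nat8 1 (-θa) (-θb)) B sg (RL8.cls i) := par_lev hS hi l α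
        simp only [RS.vec]
        field_simp
        linear_combination (RL8.mu i) * hp
      have e : RL8.vec (l • B + α • nat8 1 (-θa) (-θb)) +
          k (φ m) • (d + RL8.eG (nat8 1 (-θa) (-θb)) B sg t) =
          RL8.vec (l • B + α • nat8 1 (-θa) (-θb)) + k (φ m) • d +
            k (φ m) • RL8.eG (nat8 1 (-θa) (-θb)) B sg t := by
        rw [smul_add, add_assoc]
      have k2 := hF.grp t _ _ (k (φ m)) hlev (mem_slice8.2 (by
        rw [Sl741.xt_add0, Sl741.xt_smul]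
        exact hcadd _ hz _ (hcsm _ hd0 _ hkm.le))) (by
        rw [← e]
        refine mem_slice8.2 ?_
        rw [Sl741.xt_add0, Sl741.xt_smul]
        exact hcadd _ hz _ (hcsm _ hde0 _ hkm.le))
      rw [e, div_eq_iff hkm.ne']
      linarith
    have h3 := tendsto_nhds_unique h1 (tendsto_const_nhds.congr fun m => (h2 m).symm)
    have k1' : lam3 0 (xt kp 0 d) - lam3 0 (xt kp 0 (d + RL8.eG (nat8 1 (-θa) (-θb)) B sg t)) =
        ρ3 t := k1
    linarith
  rw [hρ] at hρ3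
  refine ⟨φ, lam3, hφ, hT', ⟨_, φ0, r, hO'⟩, hρ3, ?_⟩
  -- `Prf`
  have hcs : ∀ c : Fin 2, cs c ≠ 1 := by intro c; fin_cases c <;> decide
  have hxs : ∀ c : Fin 2, xs c ≠ 1 := by intro c; fin_cases c <;> decide
  have zv : ∀ k : Fin 12, k ≠ 1 → zr θa θb B l α k = l * B (cl8 k) + α * βL θa θb k := by
    intro k hk
    unfold zr
    rw [Pi.add_apply, y8_at hk, zero_add, z8_val l α hk]
  have z0 : zr θa θb B l α 0 = l * B 0 + α := by
    rw [zv 0 (by decide)]
    have e0 : βL θa θb 0 = 1 := rfl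
    rw [e0, mul_one]; rfl
  refine hP.tan hpos' h0' (hT' 0) (fun _ => ?_) (fun _ => ?_) fun i hi => ?_
  · rw [zv _ (hcs b), zv _ (hcs a)]
    congr 2
    · fin_cases a <;> fin_cases b <;> rfl
    · fin_cases a <;> fin_cases b <;> rfl
  · rw [zv _ (hxs b), zv _ (hxs a)]
    congr 2
    · fin_cases a <;> fin_cases b <;> rfl
    · fin_cases a <;> fin_cases b <;> rfl
  · have hi1 : i ≠ 1 := by rintro rfl; exact hV1 hi
    rcases hV i hi with ⟨h1, h2⟩ | h1
    · refine Or.inl ⟨h1, fun _ => ?_⟩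
      rw [zv i hi1, z0]
      nlinarith
    · refine Or.inr ⟨l * (B 0 * βL θa θb i - B (cl8 i)), mul_pos hl (by linarith),
        Eventually.of_forall fun _ => ?_⟩
      rw [zv i hi1, z0]
      nlinarith

end raise

end Crest.Agent.R116.K1p736
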