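import Crest.Agent.R116.K1p1_736
import Crest.Agent.R116.Pd1_363

/-!
# R116 (K side, TIES), `k' = 1` exactly (`2 θa - θb = 1`): plane data (helper736)

* `ae_dec8`  : `D` is decoupled in every tangent at almost every point of a half plane
* `srates8`  : window rates from all rates
* **`plane8z`** : `Out8z` ⊢ 363's plane data `Pd8` at `t = 1` (`D` raised in the second level)
-/

set_option autoImplicit false
set_option linter.unusedSectionVars false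
set_option linter.unusedVariables false

open Set Filter Topology Metric MeasureTheory

namespace Crest.Agent.R116.K1p736

open Crest.Agent.R138
open Crest.Agent.R138.Ex926 (IsTan)
open Crest.Agent.R136
open Crest.Agent.R136.Net191
open Crest.Agent.R116.ChL222
open Crest.Agent.R116.PL504 (eL βL rL eL_wall)
open Crest.Agent.R116.Xd954 (cs xs)
open Crest.Agent.R116.Sg337 (coneL DL natB eL_bx9)
open Crest.Agent.R116.RbM219
open Crest.Agent.R116.RbK219 (SOk RS Par dl SRates)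
open Crest.Agent.R116.SgO219 (PP OO cw cw_PP ae_out_lam exists_tan_OO)
open Crest.Agent.R116.Kz647
open Crest.Agent.R116.Rcx363
open Crest.Agent.R116.Rz460
open Crest.Agent.R116.Pd363 (Pd8)
open Dg262 (X X_cont SupOn)
open Dg219 (mw Walls OutS gC dhC nC gC_zero gset mem_gset)
open Sl741 (slice xt rs)

/-! ### the shear -/

theorem ae_shear {good : Set (ℝ × ℝ)} (hg : ∀ᵐ z : ℝ × ℝ, z ∈ good) (ε : ℝ) :
    ∀ᵐ z : ℝ × ℝ, ((z.1, z.2 - ε * z.1) : ℝ × ℝ) ∈ good := by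
  have h1 : MeasurePreserving (fun p : ℝ × ℝ => (id p.1, p.2 - ε * p.1))
      ((volume : Measure ℝ).prod volume) ((volume : Measure ℝ).prod volume) := by
    refine MeasurePreserving.skew_product (g := fun x y : ℝ => y - ε * x)
      (MeasurePreserving.id volume) ?_ ?_
    · exact (measurable_snd.sub (measurable_const.mul measurable_fst))
    · exact Eventually.of_forall fun x => (measurePreserving_sub_right volume (ε * x)).map_eq
  exact h1.quasiMeasurePreserving.ae hg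

section dec

variable {θa θb sg : ℝ} {B : Fin 8 → ℝ}

/-- a direction of the plane along which all slots but `D` go up -/
theorem exists_eps (hS : SOk (nat8 1 (-θa) (-θb)) B sg) :
    ∃ ε : ℝ, 0 < ε ∧ ∀ t, 0 < sg * B t + ε * nat8 1 (-θa) (-θb) t := by
  have h : ∀ᶠ ε : ℝ in 𝓝[>] 0, ∀ t, 0 < sg * B t + ε * nat8 1 (-θa) (-θb) t := by
    refine eventually_all.2 fun t => ?_
    by_cases ht : B t = 0
    · filter_upwards [self_mem_nhdsWithin] with ε hε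
      have hε' : (0:ℝ) < ε := hε
      rw [ht, mul_zero, zero_add]
      exact mul_pos hε' (hS.zero t ht)
    · have h1 : 0 < sg * B t := lt_of_le_of_ne (hS.nn t) (Ne.symm (mul_ne_zero hS.ne ht))
      have h2 : Tendsto (fun ε : ℝ => sg * B t + ε * nat8 1 (-θa) (-θb) t) (𝓝[>] 0)
          (𝓝 (sg * B t)) := by
        have h3 : Tendsto (fun ε : ℝ => sg * B t + ε * nat8 1 (-θa) (-θb) t) (𝓝 0)
            (𝓝 (sg * B t + 0 * nat8 1 (-θa) (-θb) t)) :=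
          (tendsto_id.mul_const _).const_add _
        rw [zero_mul, add_zero] at h3
        exact h3.mono_left nhdsWithin_le_nhds
      exact h2.eventually_const_lt h1
  obtain ⟨ε, h1, h2⟩ := (h.and self_mem_nhdsWithin).exists
  exact ⟨ε, h2, h1⟩

theorem b8_lin (B B' : Fin 8 → ℝ) (x y : ℝ) :
    xt kp 0 (RL8.vec (x • B + y • B')) = x • xt kp 0 (RL8.vec B) + y • xt kp 0 (RL8.vec B') := by
  rw [RS.vec_add, RS.vec_smul, RS.vec_smul, Sl741.xt_add0, Sl741.xt_smul, Sl741.xt_smul]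

theorem r8_vec : xt kp 0 (RL8.vec (nat8 1 (-θa) (-θb))) = r8 θa θb := by
  rw [← rs_r8, Sl741.xt_rs fun i hi => by rw [r8_off i hi]; rfl]

/-- **`D` is decoupled in every tangent at almost every point of the plane** -/
theorem ae_dec8 (hβ : 2 * θa - θb - 1 = 0) (hS : SOk (nat8 1 (-θa) (-θb)) B sg) (hL : Leg80 B)
    {g : (Fin 12 → ℝ) → ℝ}
    (hlip : ∀ p ∈ coneL, ∀ q ∈ coneL, |g p - g q| ≤ (12:ℝ) * dist p q)
    (hm : ∀ p ∈ coneL, ∀ q ∈ coneL, p ≤ q → 0 ≤ g p - g q ∧ g p - g q ≤ ∑ i, (q i - p i))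
    (hs : SupOn g coneL) :
    ∀ᵐ z : ℝ × ℝ, z ∈ {z : ℝ × ℝ | ∀ l α : ℝ, 0 < l → z = (l * sg, α) → ∀ h : ℕ → ℝ,
      (∀ m, 0 < h m) → Tendsto h atTop (𝓝 0) → ∀ lam2 : (Fin 12 → ℝ) → ℝ,
      IsTan (L8 θa θb 0) (L8B θa θb 0 B sg) g (fun _ => z8 θa θb B l α) h lam2 →
      ∃ K0 : ℝ, ∀ d ∈ L8B θa θb 0 B sg, d 1 = 0 →
        lam2 (d + (Pi.single 1 1 : Fin 12 → ℝ)) = lam2 d - K0} := by
  classical
  obtain ⟨ε, hε, hpos⟩ := exists_eps hS
  set A : Fin 8 → ℝ := nat8 1 (-θa) (-θb) with hA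
  set a' : Fin 12 → ℝ := xt kp 0 (RL8.vec (sg • B + ε • A)) with ha'
  have ea : a' = xt kp 0 (RL8.vec (sg • B)) + ε • r8 θa θb := by
    rw [ha', RS.vec_add, Sl741.xt_add0, RS.vec_smul, RS.vec_smul, Sl741.xt_smul, Sl741.xt_smul,
      hA, r8_vec]
  have ha1 : a' 1 = 0 := by rw [ha', Sl741.xt_off (p := kp) _ _ (by simp [kp])]; rfl
  have hav : ∀ i : Fin 12, i ≠ 1 → 0 < a' i := by
    intro i hi
    rw [ha', Sl741.xt_in (p := kp) _ _ hi]
    have := hpos (cl8 i)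
    simpa [RS.vec, RL8] using this
  have ha0 : ∀ i, 0 ≤ a' i := fun i => by
    by_cases hi : i = 1
    · rw [hi, ha1]
    · exact (hav i hi).le
  have hact : ∀ w, (mw monL).Act (y8 0) a' (r8 θa θb) w ↔
      (mw monL).Act (y8 0) (xt kp 0 (RL8.vec (sg • B))) (r8 θa θb) w := by
    intro w
    constructor
    · rintro ⟨h1, h2, h3⟩
      refine ⟨h1, ?_, h3⟩
      rw [ea, Walls.rhs_add, Walls.rhs_smul, ← h3] at h2
      simp only [Pi.add_apply, Pi.smul_apply, smul_eq_mul] at h2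
      linarith
    · rintro ⟨h1, h2, h3⟩
      refine ⟨h1, ?_, h3⟩
      rw [ea, Walls.rhs_add, Walls.rhs_smul, ← h3, ← h2]
      simp only [Pi.add_apply, Pi.smul_apply, smul_eq_mul]
  have hLL : (mw monL).L (y8 0) a' (r8 θa θb) = L8B θa θb 0 B sg := by
    ext d
    constructor
    · intro h w hw
      exact h w ((hact w).2 hw)
    · intro h w hw
      exact h w ((hact w).1 hw)
  have hb : ∀ w : Σ k : Fin 12, {e // e ∈ monL.mon k},
      r8 θa θb ((mw monL).hd w) = (mw monL).rhs w (r8 θa θb) := by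
    intro w
    rw [r8_eq_r9 hβ]
    exact (eL_wall 1 (-θa) (-θb) w.1 w.2.2).symm
  have hae := ae_out_lam (mw monL) (x0 := y8 0) (a := a') (b := r8 θa θb) (g := g) (K := 12)
    (by norm_num) (by rw [← coneL_PP]; exact hlip) (by rw [← coneL_PP]; exact hm)
    (by rw [← coneL_PP]; exact hs) ha0 (Dg219.mw_full _ _ _ _)
  have hX : ∀ l α : ℝ, X (y8 0) a' (r8 θa θb) (l * sg, α - ε * (l * sg)) = z8 θa θb B l α := by
    intro l α
    have h1 := X_plane (t := 0) hS l α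
    rw [y8_zero, zero_add] at h1
    rw [← h1, ea, y8_zero]
    funext i
    simp only [X, Pi.add_apply, Pi.smul_apply, smul_eq_mul]
    ring
  filter_upwards [ae_shear (good := {z : ℝ × ℝ | z ∈ OO (mw monL) (y8 0) a' (r8 θa θb) →
    ∃ D : ℝ × ℝ →L[ℝ] ℝ, HasFDerivAt (fun z => g (X (y8 0) a' (r8 θa θb) z)) D z ∧
      ∀ (h : ℕ → ℝ), (∀ l, 0 < h l) → Tendsto h atTop (𝓝 0) → ∀ lam : (Fin 12 → ℝ) → ℝ,
        IsTan (PP (mw monL)) ((mw monL).L (y8 0) a' (r8 θa θb)) g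
          (fun _ => X (y8 0) a' (r8 θa θb) z) h lam →
        ∃ (φ : ℕ → (Fin 12 → ℝ) → ℝ) (r : ℕ → ℝ),
          OutS (gC a' (r8 θa θb)) ((mw monL).L (y8 0) a' (r8 θa θb)) (dhC a' (r8 θa θb))
            (nC a' (r8 θa θb)) lam (D (1, 0), D (0, 1)) φ r}) hae ε]
    with z hz l α hl hzl h hpos' h0 lam2 hT
  subst hzl
  have hOO : ((l * sg, α - ε * (l * sg)) : ℝ × ℝ) ∈ OO (mw monL) (y8 0) a' (r8 θa θb) := by
    intro w
    by_cases hw : (mw monL).Act (y8 0) a' (r8 θa θb) w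
    · exact Or.inl hw
    · right
      have hmem : b8 B ∈ PP (mw monL) := by rw [← coneL_PP]; exact b8_mem0 hL
      have h1 := hmem w
      have hc : (mw monL).cst w = 0 := rfl
      rw [hc, add_zero] at h1
      have hlt : b8 B ((mw monL).hd w) < (mw monL).rhs w (b8 B) := by
        refine lt_of_le_of_ne h1 fun he => hw ((hact w).2 ⟨?_, ?_, hb w⟩)
        · rw [y8_zero, hc]
          unfold Walls.rhs
          simp
        · rw [RS.vec_smul, Sl741.xt_smul, Walls.rhs_smul, Pi.smul_apply, smul_eq_mul]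
          exact congrArg _ he
      rw [hX l α, hc, add_zero]
      have e : z8 θa θb B l α = l • b8 B + α • r8 θa θb := by
        have := b8_lin B A l α
        rw [hA, r8_vec] at this
        exact this
      rw [e, Walls.rhs_add, Walls.rhs_smul, Walls.rhs_smul, ← hb w]
      simp only [Pi.add_apply, Pi.smul_apply, smul_eq_mul]
      have := mul_lt_mul_of_pos_left hlt hl
      linarith
  obtain ⟨D, -, hout⟩ := hz hOO
  have hT' : IsTan (PP (mw monL)) ((mw monL).L (y8 0) a' (r8 θa θb)) g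
      (fun _ => X (y8 0) a' (r8 θa θb) (l * sg, α - ε * (l * sg))) h lam2 := by
    rw [hX l α, hLL, ← coneL_PP, ← L8_cone hβ]
    exact hT
  obtain ⟨φ, r, hO⟩ := hout h hpos' h0 lam2 hT'
  rw [hLL] at hO
  have hg1 : ∀ i : Fin 12, gC a' (r8 θa θb) i = 0 ↔ i = 1 := by
    intro i
    rw [gC_zero]
    constructor
    · intro h1
      by_contra hi
      exact (hav i hi).ne' h1
    · rintro rfl; exact ha1
  refine ⟨φ 0 0 - φ 0 (Pi.single 1 1), fun d hd hd1 => ?_⟩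
  have he : (Pi.single 1 1 : Fin 12 → ℝ) ∈ L8B θa θb 0 B sg := by
    rw [← y8_one]
    intro w hw
    have hk : w.1 ≠ 1 := kp_hd w
    have e1 : y8 1 ((mw monL).hd w) = 0 := y8_at hk
    rw [e1, rhs_y8]
    exact Nat.cast_nonneg _
  have hde : d + (Pi.single 1 1 : Fin 12 → ℝ) ∈ L8B θa θb 0 B sg :=
    (Walls.cone (Q := mw monL)).add _ hd _ he
  rw [hO.sum d hd, hO.sum _ hde]
  have hmem0 : (0 : ℕ) ∈ gset (gC a' (r8 θa θb)) := by
    have := mem_gset (grp := gC a' (r8 θa θb)) 1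
    rwa [(hg1 1).2 rfl] at this
  have key : ∑ k ∈ gset (gC a' (r8 θa θb)), φ k (d + (Pi.single 1 1 : Fin 12 → ℝ)) -
      ∑ k ∈ gset (gC a' (r8 θa θb)), φ k d = φ 0 (Pi.single 1 1) - φ 0 0 := by
    rw [← Finset.sum_sub_distrib, Finset.sum_eq_single_of_mem 0 hmem0]
    · congr 1
      · refine hO.loc 0 _ _ fun i hi => ?_
        rw [(hg1 i).1 hi, Pi.add_apply, hd1, zero_add]
      · refine hO.loc 0 _ _ fun i hi => ?_
        rw [(hg1 i).1 hi, hd1]; rfl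
    · intro k _ hk
      rw [hO.loc k (d + (Pi.single 1 1 : Fin 12 → ℝ)) d fun i hi => ?_, sub_self]
      have hi1 : i ≠ 1 := fun h1 => hk (by rw [← hi]; exact (hg1 i).2 h1)
      rw [Pi.add_apply, Pi.single_eq_of_ne hi1, add_zero]
  linarith

end dec

/-! ### window rates from all rates -/

section srates

variable {θa θb t sg c0 : ℝ} {A B : Fin 8 → ℝ} {ρ : Fin 8 → ℝ}

/-- parallel slots have the same loss -/
theorem par_loss (hS : SOk A B sg) {L : Set (K8 → ℝ)} {lam : (K8 → ℝ) → ℝ}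
    (hF : FRates RL8 A B sg lam L ρ) {i j : Fin 8} (h : Par A B i j) (x y : ℝ) :
    ρ i * (x * B i + y * A i) = ρ j * (x * B j + y * A j) := by
  have h1 := hF.par i j h
  have h2 := par_lev hS h x y
  simp only [Pi.add_apply, Pi.smul_apply, smul_eq_mul] at h2
  have hi := (hS.dl_pos i).ne'
  have hj := (hS.dl_pos j).ne'
  have h3 : dl A B sg i * dl A B sg j * (ρ i * (x * B i + y * A i)) =
      dl A B sg i * dl A B sg j * (ρ j * (x * B j + y * A j)) := by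
    linear_combination (dl A B sg j * (x * B i + y * A i)) * h1 - (ρ j * dl A B sg j) * h2
  exact mul_left_cancel₀ (mul_ne_zero hi hj) h3

theorem srates8 (hS : SOk (nat8 1 (-θa) (-θb)) B sg) {lam : (Fin 12 → ℝ) → ℝ}
    (hF : FRates RL8 (nat8 1 (-θa) (-θb)) B sg (fun d => lam (xt kp 0 d))
      ((srf8 θa θb t B sg).L (Q8 t)) ρ) : Rates8 θa θb t B sg c0 lam ρ := by
  classical
  have hsub : (srf8 θa θb t B sg).LW (Q8 t) c0 ⊆ (srf8 θa θb t B sg).L (Q8 t) := by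
    rintro p ⟨w, c, -, hc, -, rfl⟩
    exact (Walls.cone (Q := Q8 t)).add _ (Walls.Tn_mem _) _ hc
  refine ⟨fun i hi _ p u x hp h1 h2 => hF.alone i hi p u x hp (hsub h1) (hsub h2),
    fun i _ p u x hp h1 h2 => hF.grp i p u x hp (hsub h1) (hsub h2), fun i _ => hF.nn i,
    fun i _ => hF.le i, fun i j _ h => hF.par i j h, fun α l α' l' _ _ hz rep hrep hA => ?_⟩
  obtain ⟨rep0, hrep0⟩ := exists_rep hS
  set S1 : Finset (Fin 8) := rep0.filter fun i => nat8 1 (-θa) (-θb) i = 0 with hS1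
  have hAz : ∀ i j, Par (nat8 1 (-θa) (-θb)) B i j → nat8 1 (-θa) (-θb) i = 0 →
      nat8 1 (-θa) (-θb) j = 0 := by
    intro i j h hi
    unfold Par at h
    rw [hi, zero_mul] at h
    have hBi : B i ≠ 0 := fun h0 => by
      have := hS.zero i h0
      linarith
    exact (mul_eq_zero.1 h.symm).resolve_right hBi
  have hdis : Disjoint rep S1 := by
    rw [Finset.disjoint_left]
    intro i hi hi'
    exact hA i hi (Finset.mem_filter.1 hi').2
  have hfull : ∀ i, ∃! j, j ∈ rep ∪ S1 ∧ Par (nat8 1 (-θa) (-θb)) B i j := by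
    intro i
    by_cases hi : nat8 1 (-θa) (-θb) i = 0
    · obtain ⟨j, ⟨hj, hp⟩, hu⟩ := hrep0 i
      refine ⟨j, ⟨Finset.mem_union_right _ (Finset.mem_filter.2 ⟨hj, hAz i j hp hi⟩), hp⟩, ?_⟩
      rintro j' ⟨hj', hp'⟩
      rcases Finset.mem_union.1 hj' with h1 | h1
      · exact absurd (hAz i j' hp' hi) (hA j' h1)
      · exact hu j' ⟨(Finset.mem_filter.1 h1).1, hp'⟩
    · obtain ⟨j, ⟨hj, hp⟩, hu⟩ := hrep i hi
      refine ⟨j, ⟨Finset.mem_union_left _ hj, hp⟩, ?_⟩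
      rintro j' ⟨hj', hp'⟩
      rcases Finset.mem_union.1 hj' with h1 | h1
      · exact hu j' ⟨h1, hp'⟩
      · exact absurd (hAz j' i (Par.symm' hp') (Finset.mem_filter.1 h1).2) hi
  have n1 := hF.nat α l _ hfull
  have n2 := hF.nat α' l' _ hfull
  rw [n1, n2, Finset.sum_union hdis, Finset.sum_union hdis]
  have e1 : ∑ i ∈ S1, ρ i * (l' * B i + α' * nat8 1 (-θa) (-θb) i) =
      ∑ i ∈ S1, ρ i * (l * B i + α * nat8 1 (-θa) (-θb) i) := by
    refine Finset.sum_congr rfl fun i hi => ?_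
    have h0 := (Finset.mem_filter.1 hi).2
    rw [h0, hz i h0]; ring
  have e2 : ∑ i ∈ rep, ρ i * ((l' - l) * B i + (α' - α) * nat8 1 (-θa) (-θb) i) =
      ∑ i ∈ rep, ρ i * (l' * B i + α' * nat8 1 (-θa) (-θb) i) -
        ∑ i ∈ rep, ρ i * (l * B i + α * nat8 1 (-θa) (-θb) i) := by
    rw [← Finset.sum_sub_distrib]
    exact Finset.sum_congr rfl fun i _ => by ring
  rw [e1, e2]
  ring

/-- values on the plane agree for the same rates -/
theorem nat_eq8 (hS : SOk A B sg) {lam lam' : (K8 → ℝ) → ℝ} {L L' : Set (K8 → ℝ)}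
    (hF : FRates RL8 A B sg lam L ρ) (hF' : FRates RL8 A B sg lam' L' ρ) (α l : ℝ) :
    lam (RL8.vec (l • B + α • A)) = lam' (RL8.vec (l • B + α • A)) := by
  obtain ⟨rep, hrep⟩ := exists_rep hS
  rw [hF.nat α l rep hrep, hF'.nat α l rep hrep]

/-- homogeneous on the plane -/
theorem nat_hom8 (hS : SOk A B sg) {lam : (K8 → ℝ) → ℝ} {L : Set (K8 → ℝ)}
    (hF : FRates RL8 A B sg lam L ρ) (y : ℝ) :
    lam (RL8.vec (y • B)) = y * lam (RL8.vec B) := by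
  obtain ⟨rep, hrep⟩ := exists_rep hS
  have h1 := hF.nat 0 y rep hrep
  have h2 := hF.nat 0 1 rep hrep
  rw [zero_smul, add_zero] at h1
  rw [zero_smul, add_zero, one_smul] at h2
  rw [h1, h2, mul_neg, Finset.mul_sum]
  congr 1
  exact Finset.sum_congr rfl fun i _ => by ring

end srates

/-! ### plane data -/

section out

variable {R s : ℝ} {a b : Fin 2} {Vis Vis' : Fin 12 → Prop} {θa θb g qa qb w0 sa sb v0 : ℝ}
    {T : Type*} {Bs : T → Fin 8 → ℝ} {sgs : T → ℝ} {f : Fin 2 → (Fin 12 → ℝ) → ℝ}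
    {x : ℕ → Fin 12 → ℝ} {hh : ℕ → ℝ} {lam : Fin 2 → (Fin 12 → ℝ) → ℝ}
    {B : Fin 8 → ℝ} {sg : ℝ} {ρ : Fin 8 → ℝ}

theorem L8_sub : L8 θa θb 1 ⊆ L8B θa θb 1 B sg := by
  intro d h w hw
  refine h w ⟨hw.1, hw.2.2, ?_⟩
  unfold Walls.rhs
  simp

/-- **plane data exist, `D` raised in the second level** -/
theorem plane8z (O : Out8z R s a b Vis θa θb g qa qb Bs sgs (rL θa θb w0 sa sb v0) f x hh lam)
    (hβ : 2 * θa - θb - 1 = 0) (hS : SOk (nat8 1 (-θa) (-θb)) B sg) (hL : Leg80 B) {c0 : ℝ}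
    (hc0 : 0 < c0) (hR : Rates8 θa θb 0 B sg c0 (lam 0) ρ) {v c p : ℝ} (hn : nat8 v c p ≤ B)
    (hD : p ≤ 2 * c + v) (hV1 : ¬ Vis 1)
    (hV : ∀ k, Vis k → (Vis' k ∧ B (cl8 k) ≤ B 0 * βL θa θb k) ∨ B (cl8 k) < B 0 * βL θa θb k)
    {N : Set (ℝ × ℝ)} (hN : ∀ᵐ z : ℝ × ℝ, z ∈ N) {y : ℝ} (hy : 0 < y) :
    ∃ (l α : ℝ) (h' : ℕ → ℝ) (X : ℕ → Fin 12 → ℝ) (H : ℕ → ℝ)
      (lam3 lam4 : Fin 2 → (Fin 12 → ℝ) → ℝ) (ρ3 ρ4 : Fin 8 → ℝ),
      0 < l ∧ l < y ∧ ((l * sg, α) : ℝ × ℝ) ∈ N ∧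
      Pd8 R s a b Vis' θa θb w0 sa sb v0 1 (DL g s qa qb v c p) B sg f lam3 ρ3 l α h' X H lam4
        ρ4 ∧
      (∀ t, nat8 1 (-θa) (-θb) t ≠ 0 → ρ4 t = ρ t) ∧
      ∀ τ : ℝ, lam4 0 (xt kp 0 (RL8.vec (τ • nat8 1 (-θa) (-θb)))) =
        DL g s qa qb τ (-(θa * τ)) (-(θb * τ)) := by
  classical
  set Visi : Fin 12 → Prop := fun k => Vis k ∧ Vis' k ∧ B (cl8 k) ≤ B 0 * βL θa θb k with hVi
  have hV1' : ∀ k, Vis k → (Visi k ∧ B (cl8 k) ≤ B 0 * βL θa θb k) ∨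
      B (cl8 k) < B 0 * βL θa θb k := by
    intro k hk
    rcases hV k hk with ⟨h1, h2⟩ | h1
    · exact Or.inl ⟨⟨hk, h1, h2⟩, h2⟩
    · exact Or.inr h1
  have hV2' : ∀ k, Visi k → (Visi k ∧ B (cl8 k) ≤ B 0 * βL θa θb k) ∨
      B (cl8 k) < B 0 * βL θa θb k := fun k hk => Or.inl ⟨hk, hk.2.2⟩
  have hV3' : ∀ k, Visi k → (Vis' k ∧ B (cl8 k) ≤ B 0 * βL θa θb k) ∨
      B (cl8 k) < B 0 * βL θa θb k := fun k hk => Or.inl ⟨hk.2.1, hk.2.2⟩
  have hVi1 : ¬ Visi 1 := fun h => hV1 h.1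
  -- first level
  have hdecN := ae_dec8 (g := lam 0) hβ hS hL (O.lip 0) O.rx.prf.anti O.rx.prf.sm
  obtain ⟨l1, α1, hl1, -, hzN, hz1, H1⟩ := z8z_out (Vis' := Visi) O hβ hS hL hc0 hR hn hD hV1 hV1'
    hdecN one_pos
  set kk : ℕ → ℝ := fun m => 1 / ((m : ℝ) + 1) with hkk
  have kpos : ∀ m, 0 < kk m := fun m => by rw [hkk]; positivity
  have k0 : Tendsto kk atTop (𝓝 0) := tendsto_one_div_add_atTop_nhds_zero_nat
  obtain ⟨φ, lam2, ρ2, ψ, hφ, hH, hT2, hψ, -, hTf, hP2⟩ := H1 kk kpos k0 (fun _ _ => True)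
    (fun _ => Eventually.of_forall fun _ => trivial)
  have kpos' : ∀ m, 0 < kk (φ m) := fun m => kpos _
  have k0' : Tendsto (fun m => kk (φ m)) atTop (𝓝 0) := k0.comp hφ.tendsto_atTop
  have hdec := hzN l1 α1 hl1 rfl (fun m => kk (φ m)) kpos' k0' (lam2 0) (hT2 0)
  have hlip2 : ∀ j, ∀ p ∈ L8B θa θb 0 B sg, ∀ q ∈ L8B θa θb 0 B sg,
      |lam2 j p - lam2 j q| ≤ (12:ℝ) * dist p q := fun j =>
    SgO219.tan_lip kpos' (hT2 j) (by rw [L8_cone hβ]; exact O.lip j)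
  -- raise
  obtain ⟨l2, α2, hl2, hz2, H2⟩ := raise8z (Vis' := Visi) hS hlip2 hP2 hH.rates hdec hVi1 hV2'
  obtain ⟨φ', lam3, hφ', hT3, hO3, hF3, hP3⟩ := H2 kk kpos k0
  have kpos2 : ∀ m, 0 < kk (φ' m) := fun m => kpos _
  have k02 : Tendsto (fun m => kk (φ' m)) atTop (𝓝 0) := k0.comp hφ'.tendsto_atTop
  have hlip3 : ∀ j, ∀ p ∈ L8B θa θb 1 B sg, ∀ q ∈ L8B θa θb 1 B sg,
      |lam3 j p - lam3 j q| ≤ (12:ℝ) * dist p q := fun j =>
    SgO219.tan_lip kpos2 (hT3 j) (hlip2 j)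
  have hpos1 : ∀ m, 0 < hh (ψ m) * kk (φ m) := fun m => mul_pos (O.pos _) (kpos' m)
  obtain ⟨ψ2, hψ2, -, hTf3⟩ := diag_at hpos1 hTf hz2 kpos2 hT3 (Pr := fun _ _ => True)
    (fun _ => Eventually.of_forall fun _ => trivial)
  -- second generic point
  have hsubL : L8 θa θb 1 ⊆ L8B θa θb 1 B sg := L8_sub
  have h00 : (0 : Fin 12 → ℝ) ∈ L8B θa θb 1 B sg := hsubL (L8_zero _ _ _)
  have hz3 : ∀ j, lam3 j 0 = 0 := fun j => SgZ388.tan_zero kpos2 (hT3 j) h00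
  have hRT : RecTan (L8 θa θb 1) lam3 0 12 :=
    ⟨by norm_num, fun j p hp q hq => hlip3 j p (hsubL hp) q (hsubL hq),
      fun p hp q hq => hP3.anti p (hsubL hp) q (hsubL hq),
      fun p hp q hq h1 h2 => hP3.sm p (hsubL hp) q (hsubL hq) (hsubL h1) (hsubL h2), hz3 0⟩
  have hκ : lam3 0 (xt kp 0 (RL8.vec (y • B))) ≤ DL g s qa qb v c p * y := by
    have e1 := nat_hom8 hS hF3 y
    have e2 := nat_eq8 hS hF3 hH.rates 0 1
    rw [zero_smul, add_zero, one_smul] at e2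
    have e1' : lam3 0 (xt kp 0 (RL8.vec (y • B))) = y * lam3 0 (xt kp 0 (RL8.vec B)) := e1
    have e2' : lam3 0 (xt kp 0 (RL8.vec B)) = lam2 0 (xt kp 0 (RL8.vec B)) := e2
    have e3 : lam2 0 (xt kp 0 (RL8.vec B)) ≤ DL g s qa qb v c p := hH.row
    rw [e1', e2', mul_comm]
    exact mul_le_mul_of_nonneg_right e3 hy.le
  obtain ⟨l, α, hl, hly, hlN, hzL, H3⟩ := half8 (t := 1) one_pos hRT hS hL.leg8 one_pos
    (srates8 (c0 := 1) hS hF3) hy hκ hN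
  obtain ⟨φ3, lam4, ρ4, hφ3, hT4, hH4⟩ := H3 kk kpos k0
  have kpos3 : ∀ m, 0 < kk (φ3 m) := fun m => kpos _
  have k03 : Tendsto (fun m => kk (φ3 m)) atTop (𝓝 0) := k0.comp hφ3.tendsto_atTop
  have hpos2 : ∀ m, 0 < hh (ψ (ψ2 m)) * kk (φ (ψ2 m)) * kk (φ' m) := fun m =>
    mul_pos (hpos1 _) (kpos2 m)
  obtain ⟨ψ3, hψ3, -, hTf4⟩ := diag_at hpos2 (fun j => Rc683.tan_mono (hTf3 j) Subset.rfl hsubL)
    hzL kpos3 hT4 (Pr := fun _ _ => True) (fun _ => Eventually.of_forall fun _ => trivial)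
  obtain ⟨Hf, yy, ξ, hHp, hH0, hy0, hx⟩ := O.base
  have t3 := hψ3.tendsto_atTop
  have t2 : Tendsto (fun m => ψ2 (ψ3 m)) atTop atTop := hψ2.tendsto_atTop.comp t3
  have t1 : Tendsto (fun m => ψ (ψ2 (ψ3 m))) atTop atTop := hψ.tendsto_atTop.comp t2
  have hhl : Tendsto (fun m => hh (ψ (ψ2 (ψ3 m)))) atTop (𝓝 0) := O.lim.comp t1
  have hk1 : Tendsto (fun m => kk (φ (ψ2 (ψ3 m)))) atTop (𝓝 0) := k0'.comp t2
  have hk2 : Tendsto (fun m => kk (φ' (ψ3 m))) atTop (𝓝 0) := k02.comp t3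
  have hH1l : Tendsto (fun m => hh (ψ (ψ2 (ψ3 m))) * kk (φ (ψ2 (ψ3 m)))) atTop (𝓝 0) := by
    simpa using hhl.mul hk1
  have hH2l : Tendsto (fun m => hh (ψ (ψ2 (ψ3 m))) * kk (φ (ψ2 (ψ3 m))) * kk (φ' (ψ3 m))) atTop
      (𝓝 0) := by
    simpa using hH1l.mul hk2
  refine ⟨l, α, fun m => kk (φ3 m), _, _, lam3, lam4, ρ2, ρ4, hl, hly, hlN,
    ⟨hH4, hT4, fun m => mul_pos (hpos2 _) (kpos3 m), ?_, ?_, ?_, hTf4,
      prf_z8 (hP3.mono hsubL) hl kpos3 k03 (hT4 0) hVi1 hV3'⟩, fun t ht => ?_, fun τ => ?_⟩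
  · simpa using hH2l.mul k03
  · have h1 := (((O.xlim.comp t1).add (hhl.smul_const (z8 θa θb B l1 α1))).add
      (hH1l.smul_const (zr θa θb B l2 α2))).add (hH2l.smul_const (z8 θa θb B l α))
    simp only [zero_smul, add_zero] at h1
    exact h1
  · refine ⟨fun m => Hf (ψ (ψ2 (ψ3 m))) * yy (ψ (ψ2 (ψ3 m))) + hh (ψ (ψ2 (ψ3 m))) * α1 +
        hh (ψ (ψ2 (ψ3 m))) * kk (φ (ψ2 (ψ3 m))) * α2 +
        hh (ψ (ψ2 (ψ3 m))) * kk (φ (ψ2 (ψ3 m))) * kk (φ' (ψ3 m)) * α,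
      fun m => hh (ψ (ψ2 (ψ3 m))) * l1 + hh (ψ (ψ2 (ψ3 m))) * kk (φ (ψ2 (ψ3 m))) * l2 +
        hh (ψ (ψ2 (ψ3 m))) * kk (φ (ψ2 (ψ3 m))) * kk (φ' (ψ3 m)) * l, ?_, ?_, fun m => ?_,
      fun m k hk => ?_⟩
    · have h1 := ((((hH0.comp t1).mul (hy0.comp t1)).add (hhl.mul_const α1)).add
        (hH1l.mul_const α2)).add (hH2l.mul_const α)
      simp only [zero_mul, add_zero] at h1
      exact h1
    · have h1 := ((hhl.mul_const l1).add (hH1l.mul_const l2)).add (hH2l.mul_const l)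
      simp only [zero_mul, add_zero] at h1
      exact h1
    · have := O.pos (ψ (ψ2 (ψ3 m)))
      have := hpos1 (ψ2 (ψ3 m))
      have := hpos2 (ψ3 m)
      positivity
    · have e1 : (x (ψ (ψ2 (ψ3 m))) + hh (ψ (ψ2 (ψ3 m))) • z8 θa θb B l1 α1) k =
          rL θa θb w0 sa sb (v0 + (Hf (ψ (ψ2 (ψ3 m))) * yy (ψ (ψ2 (ψ3 m))) +
            hh (ψ (ψ2 (ψ3 m))) * α1)) k + hh (ψ (ψ2 (ψ3 m))) * l1 * B (cl8 k) := by
        rw [hx, base8z_val hk]
      have e2 : zr θa θb B l2 α2 k = l2 * B (cl8 k) + α2 * βL θa θb k := by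
        unfold zr
        rw [Pi.add_apply, y8_at hk, zero_add, z8_val l2 α2 hk]
      have e3 : z8 θa θb B l α k = l * B (cl8 k) + α * βL θa θb k := z8_val l α hk
      change (x (ψ (ψ2 (ψ3 m))) + hh (ψ (ψ2 (ψ3 m))) • z8 θa θb B l1 α1) k +
          hh (ψ (ψ2 (ψ3 m))) * kk (φ (ψ2 (ψ3 m))) * zr θa θb B l2 α2 k +
          hh (ψ (ψ2 (ψ3 m))) * kk (φ (ψ2 (ψ3 m))) * kk (φ' (ψ3 m)) * z8 θa θb B l α k = _
      rw [e1, e2, e3, rL_add, rL_add]
      simp only [Pi.add_apply, Pi.smul_apply, smul_eq_mul]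
      ring
  · rw [hH4.eq t ht, hH.eq t ht]
  · have h1 := hH4.rcd τ
    have h2 := hH.rcd τ
    have e0 : xt kp (0 : Fin 12 → ℝ) (0 : K8 → ℝ) = 0 := by
      funext i
      by_cases hi : kp i
      · rw [Sl741.xt_in _ _ hi]; rfl
      · rw [Sl741.xt_off _ _ hi]
    have e1 := nat_eq8 hS hF3 hH.rates τ 0
    rw [zero_smul, zero_add] at e1
    have e1' : lam3 0 (xt kp 0 (RL8.vec (τ • nat8 1 (-θa) (-θb)))) =
        lam2 0 (xt kp 0 (RL8.vec (τ • nat8 1 (-θa) (-θb)))) := e1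
    have h1' : lam4 0 (xt kp 0 (RL8.vec (τ • nat8 1 (-θa) (-θb)))) =
        lam3 0 (xt kp 0 (RL8.vec (τ • nat8 1 (-θa) (-θb)))) - lam3 0 (xt kp 0 0) := h1
    have h2' : lam2 0 (xt kp 0 (RL8.vec (τ • nat8 1 (-θa) (-θb)))) =
        lam 0 (xt kp 0 (RL8.vec (τ • nat8 1 (-θa) (-θb)))) - lam 0 (xt kp 0 0) := h2
    have e2 : xt kp 0 (RL8.vec (τ • nat8 1 (-θa) (-θb))) = eL τ (-(θa * τ)) (-(θb * τ)) := by
      rw [RS.vec_smul, Sl741.xt_smul, r8_vec, r8_eq_r9 hβ]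
      unfold r9
      rw [← PL504.eL_smul]
      congr 1 <;> ring
    rw [h1', e1', h2', e0, hz3 0, O.zero 0, e2, O.rx.rcd τ]
    ring

end out

end Crest.Agent.R116.K1p736
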