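import Crest.Agent.R116.K1p2_736

/-!
# R116 (K side, TIES), `k' = 1` exactly: plane data with the relation of the scales (helper736)

* **`plane8zE`** : `plane8z` with `K * H m ≤ E m` eventually
-/

set_option autoImplicit false
set_option linter.unusedSectionVars false
set_option linter.unusedVariables false

open Set Filter Topology Metric MeasureTheory

namespace Crest.Agent.R116.K1p736

open Crest.Agent.R138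
open Crest.Agent.R138.Ex926 (IsTan)
open Crest.Agent.R136
open Crest.Agent.R136.Net191
open Crest.Agent.R116.ChL222
open Crest.Agent.R116.PL504 (eL βL rL eL_wall)
open Crest.Agent.R116.Xd954 (cs xs)
open Crest.Agent.R116.Sg337 (coneL DL natB eL_bx9)
open Crest.Agent.R116.RbM219
open Crest.Agent.R116.RbK219 (SOk RS Par dl SRates)
open Crest.Agent.R116.SgO219 (PP OO cw cw_PP ae_out_lam exists_tan_OO)
open Crest.Agent.R116.Kz647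
open Crest.Agent.R116.Rcx363
open Crest.Agent.R116.Rz460
open Crest.Agent.R116.Pd363 (Pd8)
open Dg262 (X X_cont SupOn)
open Dg219 (mw Walls OutS gC dhC nC gC_zero gset mem_gset)
open Sl741 (slice xt rs)

section out

variable {R s : ℝ} {a b : Fin 2} {Vis Vis' : Fin 12 → Prop} {θa θb g qa qb w0 sa sb v0 : ℝ}
    {T : Type*} {Bs : T → Fin 8 → ℝ} {sgs : T → ℝ} {f : Fin 2 → (Fin 12 → ℝ) → ℝ}
    {x : ℕ → Fin 12 → ℝ} {hh : ℕ → ℝ} {lam : Fin 2 → (Fin 12 → ℝ) → ℝ}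
    {B : Fin 8 → ℝ} {sg : ℝ} {ρ : Fin 8 → ℝ}

/-- **plane data exist, `D` raised in the second level, offset large against the unit** -/
theorem plane8zE (O : Out8z R s a b Vis θa θb g qa qb Bs sgs (rL θa θb w0 sa sb v0) f x hh lam)
    (hβ : 2 * θa - θb - 1 = 0) (hS : SOk (nat8 1 (-θa) (-θb)) B sg) (hL : Leg80 B) {c0 : ℝ}
    (hc0 : 0 < c0) (hR : Rates8 θa θb 0 B sg c0 (lam 0) ρ) {v c p : ℝ} (hn : nat8 v c p ≤ B)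
    (hD : p ≤ 2 * c + v) (hV1 : ¬ Vis 1)
    (hV : ∀ k, Vis k → (Vis' k ∧ B (cl8 k) ≤ B 0 * βL θa θb k) ∨ B (cl8 k) < B 0 * βL θa θb k)
    {N : Set (ℝ × ℝ)} (hN : ∀ᵐ z : ℝ × ℝ, z ∈ N) {y : ℝ} (hy : 0 < y) :
    ∃ (l α : ℝ) (h' : ℕ → ℝ) (X : ℕ → Fin 12 → ℝ) (H : ℕ → ℝ)
      (lam3 lam4 : Fin 2 → (Fin 12 → ℝ) → ℝ) (ρ3 ρ4 : Fin 8 → ℝ),
      0 < l ∧ l < y ∧ ((l * sg, α) : ℝ × ℝ) ∈ N ∧
      Pd8 R s a b Vis' θa θb w0 sa sb v0 1 (DL g s qa qb v c p) B sg f lam3 ρ3 l α h' X H lam4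
        ρ4 ∧
      (∀ t, nat8 1 (-θa) (-θb) t ≠ 0 → ρ4 t = ρ t) ∧
      (∀ τ : ℝ, lam4 0 (xt kp 0 (RL8.vec (τ • nat8 1 (-θa) (-θb)))) =
        DL g s qa qb τ (-(θa * τ)) (-(θb * τ))) ∧
      ∃ V E : ℕ → ℝ, Tendsto V atTop (𝓝 0) ∧ Tendsto E atTop (𝓝 0) ∧ (∀ m, 0 < E m) ∧
        (∀ K : ℝ, ∀ᶠ m in atTop, K * H m ≤ E m) ∧
        ∀ m, ∀ k, k ≠ 1 → X m k = rL θa θb w0 sa sb (v0 + V m) k + E m * B (cl8 k) := by
  classical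
  set Visi : Fin 12 → Prop := fun k => Vis k ∧ Vis' k ∧ B (cl8 k) ≤ B 0 * βL θa θb k with hVi
  have hV1' : ∀ k, Vis k → (Visi k ∧ B (cl8 k) ≤ B 0 * βL θa θb k) ∨
      B (cl8 k) < B 0 * βL θa θb k := by
    intro k hk
    rcases hV k hk with ⟨h1, h2⟩ | h1
    · exact Or.inl ⟨⟨hk, h1, h2⟩, h2⟩
    · exact Or.inr h1
  have hV2' : ∀ k, Visi k → (Visi k ∧ B (cl8 k) ≤ B 0 * βL θa θb k) ∨
      B (cl8 k) < B 0 * βL θa θb k := fun k hk => Or.inl ⟨hk, hk.2.2⟩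
  have hV3' : ∀ k, Visi k → (Vis' k ∧ B (cl8 k) ≤ B 0 * βL θa θb k) ∨
      B (cl8 k) < B 0 * βL θa θb k := fun k hk => Or.inl ⟨hk.2.1, hk.2.2⟩
  have hVi1 : ¬ Visi 1 := fun h => hV1 h.1
  -- first level
  have hdecN := ae_dec8 (g := lam 0) hβ hS hL (O.lip 0) O.rx.prf.anti O.rx.prf.sm
  obtain ⟨l1, α1, hl1, -, hzN, hz1, H1⟩ := z8z_out (Vis' := Visi) O hβ hS hL hc0 hR hn hD hV1 hV1'
    hdecN one_pos
  set kk : ℕ → ℝ := fun m => 1 / ((m : ℝ) + 1) with hkk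
  have kpos : ∀ m, 0 < kk m := fun m => by rw [hkk]; positivity
  have k0 : Tendsto kk atTop (𝓝 0) := tendsto_one_div_add_atTop_nhds_zero_nat
  obtain ⟨φ, lam2, ρ2, ψ, hφ, hH, hT2, hψ, -, hTf, hP2⟩ := H1 kk kpos k0 (fun _ _ => True)
    (fun _ => Eventually.of_forall fun _ => trivial)
  have kpos' : ∀ m, 0 < kk (φ m) := fun m => kpos _
  have k0' : Tendsto (fun m => kk (φ m)) atTop (𝓝 0) := k0.comp hφ.tendsto_atTop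
  have hdec := hzN l1 α1 hl1 rfl (fun m => kk (φ m)) kpos' k0' (lam2 0) (hT2 0)
  have hlip2 : ∀ j, ∀ p ∈ L8B θa θb 0 B sg, ∀ q ∈ L8B θa θb 0 B sg,
      |lam2 j p - lam2 j q| ≤ (12:ℝ) * dist p q := fun j =>
    SgO219.tan_lip kpos' (hT2 j) (by rw [L8_cone hβ]; exact O.lip j)
  -- raise
  obtain ⟨l2, α2, hl2, hz2, H2⟩ := raise8z (Vis' := Visi) hS hlip2 hP2 hH.rates hdec hVi1 hV2'
  obtain ⟨φ', lam3, hφ', hT3, hO3, hF3, hP3⟩ := H2 kk kpos k0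
  have kpos2 : ∀ m, 0 < kk (φ' m) := fun m => kpos _
  have k02 : Tendsto (fun m => kk (φ' m)) atTop (𝓝 0) := k0.comp hφ'.tendsto_atTop
  have hlip3 : ∀ j, ∀ p ∈ L8B θa θb 1 B sg, ∀ q ∈ L8B θa θb 1 B sg,
      |lam3 j p - lam3 j q| ≤ (12:ℝ) * dist p q := fun j =>
    SgO219.tan_lip kpos2 (hT3 j) (hlip2 j)
  have hpos1 : ∀ m, 0 < hh (ψ m) * kk (φ m) := fun m => mul_pos (O.pos _) (kpos' m)
  obtain ⟨ψ2, hψ2, -, hTf3⟩ := diag_at hpos1 hTf hz2 kpos2 hT3 (Pr := fun _ _ => True)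
    (fun _ => Eventually.of_forall fun _ => trivial)
  -- second generic point
  have hsubL : L8 θa θb 1 ⊆ L8B θa θb 1 B sg := L8_sub
  have h00 : (0 : Fin 12 → ℝ) ∈ L8B θa θb 1 B sg := hsubL (L8_zero _ _ _)
  have hz3 : ∀ j, lam3 j 0 = 0 := fun j => SgZ388.tan_zero kpos2 (hT3 j) h00
  have hRT : RecTan (L8 θa θb 1) lam3 0 12 :=
    ⟨by norm_num, fun j p hp q hq => hlip3 j p (hsubL hp) q (hsubL hq),
      fun p hp q hq => hP3.anti p (hsubL hp) q (hsubL hq),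
      fun p hp q hq h1 h2 => hP3.sm p (hsubL hp) q (hsubL hq) (hsubL h1) (hsubL h2), hz3 0⟩
  have hκ : lam3 0 (xt kp 0 (RL8.vec (y • B))) ≤ DL g s qa qb v c p * y := by
    have e1 := nat_hom8 hS hF3 y
    have e2 := nat_eq8 hS hF3 hH.rates 0 1
    rw [zero_smul, add_zero, one_smul] at e2
    have e1' : lam3 0 (xt kp 0 (RL8.vec (y • B))) = y * lam3 0 (xt kp 0 (RL8.vec B)) := e1
    have e2' : lam3 0 (xt kp 0 (RL8.vec B)) = lam2 0 (xt kp 0 (RL8.vec B)) := e2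
    have e3 : lam2 0 (xt kp 0 (RL8.vec B)) ≤ DL g s qa qb v c p := hH.row
    rw [e1', e2', mul_comm]
    exact mul_le_mul_of_nonneg_right e3 hy.le
  obtain ⟨l, α, hl, hly, hlN, hzL, H3⟩ := half8 (t := 1) one_pos hRT hS hL.leg8 one_pos
    (srates8 (c0 := 1) hS hF3) hy hκ hN
  obtain ⟨φ3, lam4, ρ4, hφ3, hT4, hH4⟩ := H3 kk kpos k0
  have kpos3 : ∀ m, 0 < kk (φ3 m) := fun m => kpos _
  have k03 : Tendsto (fun m => kk (φ3 m)) atTop (𝓝 0) := k0.comp hφ3.tendsto_atTop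
  have hpos2 : ∀ m, 0 < hh (ψ (ψ2 m)) * kk (φ (ψ2 m)) * kk (φ' m) := fun m =>
    mul_pos (hpos1 _) (kpos2 m)
  obtain ⟨ψ3, hψ3, -, hTf4⟩ := diag_at hpos2 (fun j => Rc683.tan_mono (hTf3 j) Subset.rfl hsubL)
    hzL kpos3 hT4 (Pr := fun _ _ => True) (fun _ => Eventually.of_forall fun _ => trivial)
  obtain ⟨Hf, yy, ξ, hHp, hH0, hy0, hx⟩ := O.base
  have t3 := hψ3.tendsto_atTop
  have t2 : Tendsto (fun m => ψ2 (ψ3 m)) atTop atTop := hψ2.tendsto_atTop.comp t3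
  have t1 : Tendsto (fun m => ψ (ψ2 (ψ3 m))) atTop atTop := hψ.tendsto_atTop.comp t2
  have hhl : Tendsto (fun m => hh (ψ (ψ2 (ψ3 m)))) atTop (𝓝 0) := O.lim.comp t1
  have hk1 : Tendsto (fun m => kk (φ (ψ2 (ψ3 m)))) atTop (𝓝 0) := k0'.comp t2
  have hk2 : Tendsto (fun m => kk (φ' (ψ3 m))) atTop (𝓝 0) := k02.comp t3
  have hH1l : Tendsto (fun m => hh (ψ (ψ2 (ψ3 m))) * kk (φ (ψ2 (ψ3 m)))) atTop (𝓝 0) := by
    simpa using hhl.mul hk1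
  have hH2l : Tendsto (fun m => hh (ψ (ψ2 (ψ3 m))) * kk (φ (ψ2 (ψ3 m))) * kk (φ' (ψ3 m))) atTop
      (𝓝 0) := by
    simpa using hH1l.mul hk2
  have hbase : ∀ m, ∀ k, k ≠ 1 → (x (ψ (ψ2 (ψ3 m))) + hh (ψ (ψ2 (ψ3 m))) • z8 θa θb B l1 α1 +
      (hh (ψ (ψ2 (ψ3 m))) * kk (φ (ψ2 (ψ3 m)))) • zr θa θb B l2 α2 +
      (hh (ψ (ψ2 (ψ3 m))) * kk (φ (ψ2 (ψ3 m))) * kk (φ' (ψ3 m))) • z8 θa θb B l α) k =
      rL θa θb w0 sa sb (v0 + (Hf (ψ (ψ2 (ψ3 m))) * yy (ψ (ψ2 (ψ3 m))) +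
        hh (ψ (ψ2 (ψ3 m))) * α1 + hh (ψ (ψ2 (ψ3 m))) * kk (φ (ψ2 (ψ3 m))) * α2 +
        hh (ψ (ψ2 (ψ3 m))) * kk (φ (ψ2 (ψ3 m))) * kk (φ' (ψ3 m)) * α)) k +
      (hh (ψ (ψ2 (ψ3 m))) * l1 + hh (ψ (ψ2 (ψ3 m))) * kk (φ (ψ2 (ψ3 m))) * l2 +
        hh (ψ (ψ2 (ψ3 m))) * kk (φ (ψ2 (ψ3 m))) * kk (φ' (ψ3 m)) * l) * B (cl8 k) := by
    intro m k hk
    have e1 : (x (ψ (ψ2 (ψ3 m))) + hh (ψ (ψ2 (ψ3 m))) • z8 θa θb B l1 α1) k =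
        rL θa θb w0 sa sb (v0 + (Hf (ψ (ψ2 (ψ3 m))) * yy (ψ (ψ2 (ψ3 m))) +
          hh (ψ (ψ2 (ψ3 m))) * α1)) k + hh (ψ (ψ2 (ψ3 m))) * l1 * B (cl8 k) := by
      rw [hx, base8z_val hk]
    have e2 : zr θa θb B l2 α2 k = l2 * B (cl8 k) + α2 * βL θa θb k := by
      unfold zr
      rw [Pi.add_apply, y8_at hk, zero_add, z8_val l2 α2 hk]
    have e3 : z8 θa θb B l α k = l * B (cl8 k) + α * βL θa θb k := z8_val l α hk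
    change (x (ψ (ψ2 (ψ3 m))) + hh (ψ (ψ2 (ψ3 m))) • z8 θa θb B l1 α1) k +
        hh (ψ (ψ2 (ψ3 m))) * kk (φ (ψ2 (ψ3 m))) * zr θa θb B l2 α2 k +
        hh (ψ (ψ2 (ψ3 m))) * kk (φ (ψ2 (ψ3 m))) * kk (φ' (ψ3 m)) * z8 θa θb B l α k = _
    rw [e1, e2, e3, rL_add, rL_add]
    simp only [Pi.add_apply, Pi.smul_apply, smul_eq_mul]
    ring
  have hV0 : Tendsto (fun m => Hf (ψ (ψ2 (ψ3 m))) * yy (ψ (ψ2 (ψ3 m))) +
      hh (ψ (ψ2 (ψ3 m))) * α1 + hh (ψ (ψ2 (ψ3 m))) * kk (φ (ψ2 (ψ3 m))) * α2 +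
      hh (ψ (ψ2 (ψ3 m))) * kk (φ (ψ2 (ψ3 m))) * kk (φ' (ψ3 m)) * α) atTop (𝓝 0) := by
    have h1 := ((((hH0.comp t1).mul (hy0.comp t1)).add (hhl.mul_const α1)).add
      (hH1l.mul_const α2)).add (hH2l.mul_const α)
    simp only [zero_mul, add_zero] at h1
    exact h1
  have hE0 : Tendsto (fun m => hh (ψ (ψ2 (ψ3 m))) * l1 +
      hh (ψ (ψ2 (ψ3 m))) * kk (φ (ψ2 (ψ3 m))) * l2 +
      hh (ψ (ψ2 (ψ3 m))) * kk (φ (ψ2 (ψ3 m))) * kk (φ' (ψ3 m)) * l) atTop (𝓝 0) := by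
    have h1 := ((hhl.mul_const l1).add (hH1l.mul_const l2)).add (hH2l.mul_const l)
    simp only [zero_mul, add_zero] at h1
    exact h1
  have hEp : ∀ m, 0 < hh (ψ (ψ2 (ψ3 m))) * l1 + hh (ψ (ψ2 (ψ3 m))) * kk (φ (ψ2 (ψ3 m))) * l2 +
      hh (ψ (ψ2 (ψ3 m))) * kk (φ (ψ2 (ψ3 m))) * kk (φ' (ψ3 m)) * l := by
    intro m
    have := O.pos (ψ (ψ2 (ψ3 m)))
    have := hpos1 (ψ2 (ψ3 m))
    have := hpos2 (ψ3 m)
    positivity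
  have hKE : ∀ K : ℝ, ∀ᶠ m in atTop, K * (hh (ψ (ψ2 (ψ3 m))) * kk (φ (ψ2 (ψ3 m))) *
      kk (φ' (ψ3 m)) * kk (φ3 m)) ≤ hh (ψ (ψ2 (ψ3 m))) * l1 +
      hh (ψ (ψ2 (ψ3 m))) * kk (φ (ψ2 (ψ3 m))) * l2 +
      hh (ψ (ψ2 (ψ3 m))) * kk (φ (ψ2 (ψ3 m))) * kk (φ' (ψ3 m)) * l := by
    intro K
    have h1 : Tendsto (fun m => K * (kk (φ (ψ2 (ψ3 m))) * kk (φ' (ψ3 m)) * kk (φ3 m))) atTop
        (𝓝 0) := by simpa using ((hk1.mul hk2).mul k03).const_mul K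
    filter_upwards [h1.eventually_lt_const hl1] with m hm
    have p0 := O.pos (ψ (ψ2 (ψ3 m)))
    have p1 := mul_pos (hpos1 (ψ2 (ψ3 m))) hl2
    have p2 := mul_pos (hpos2 (ψ3 m)) hl
    have p3 := mul_le_mul_of_nonneg_left hm.le p0.le
    nlinarith
  refine ⟨l, α, fun m => kk (φ3 m), _, _, lam3, lam4, ρ2, ρ4, hl, hly, hlN,
    ⟨hH4, hT4, fun m => mul_pos (hpos2 _) (kpos3 m), ?_, ?_, ⟨_, _, hV0, hE0, hEp, hbase⟩, hTf4,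
      prf_z8 (hP3.mono hsubL) hl kpos3 k03 (hT4 0) hVi1 hV3'⟩, fun t ht => ?_, fun τ => ?_,
    _, _, hV0, hE0, hEp, hKE, hbase⟩
  · simpa using hH2l.mul k03
  · have h1 := (((O.xlim.comp t1).add (hhl.smul_const (z8 θa θb B l1 α1))).add
      (hH1l.smul_const (zr θa θb B l2 α2))).add (hH2l.smul_const (z8 θa θb B l α))
    simp only [zero_smul, add_zero] at h1
    exact h1
  · rw [hH4.eq t ht, hH.eq t ht]
  · have h1 := hH4.rcd τ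
    have h2 := hH.rcd τ
    have e0 : xt kp (0 : Fin 12 → ℝ) (0 : K8 → ℝ) = 0 := by
      funext i
      by_cases hi : kp i
      · rw [Sl741.xt_in _ _ hi]; rfl
      · rw [Sl741.xt_off _ _ hi]
    have e1 := nat_eq8 hS hF3 hH.rates τ 0
    rw [zero_smul, zero_add] at e1
    have e1' : lam3 0 (xt kp 0 (RL8.vec (τ • nat8 1 (-θa) (-θb)))) =
        lam2 0 (xt kp 0 (RL8.vec (τ • nat8 1 (-θa) (-θb)))) := e1
    have h1' : lam4 0 (xt kp 0 (RL8.vec (τ • nat8 1 (-θa) (-θb)))) =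
        lam3 0 (xt kp 0 (RL8.vec (τ • nat8 1 (-θa) (-θb)))) - lam3 0 (xt kp 0 0) := h1
    have h2' : lam2 0 (xt kp 0 (RL8.vec (τ • nat8 1 (-θa) (-θb)))) =
        lam 0 (xt kp 0 (RL8.vec (τ • nat8 1 (-θa) (-θb)))) - lam 0 (xt kp 0 0) := h2
    have e2 : xt kp 0 (RL8.vec (τ • nat8 1 (-θa) (-θb))) = eL τ (-(θa * τ)) (-(θb * τ)) := by
      rw [RS.vec_smul, Sl741.xt_smul, r8_vec, r8_eq_r9 hβ]
      unfold r9
      rw [← PL504.eL_smul]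
      congr 1 <;> ring
    rw [h1', e1', h2', e0, hz3 0, O.zero 0, e2, O.rx.rcd τ]
    ring

end out

end Crest.Agent.R116.K1p736
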