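import Crest.Agent.R116.Bm2_903
import Crest.Agent.R116.KIDef_439

/-!
# R116 (K side), K7 FLAG-L, part 1 (helper439): one member, signs, distance of two flags on a ray

* `sm σ p = σ p`, `wph m q` = the member with another function; `rays_sm` : `±φ` have the same rays.
* `Ok` facts for `B = 0`: `ny_le`, `d_le`, `gr_sq` (`||gr|² - 1| ≤ 4M` on the rays), `gr_two`
  (the gradient rotates by `≤ 4M` over the member).
* `dsc W ρ p q r z = W |Δgr| + (W²/ρ) |Δny| + W² |Δd|` : distance of two flags on the ray `r` at the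
  height `z` (a sum of the three linear slots in units of a member of width `W`, length `ρ`).
* `nsg a p r` = sign of the component `a` of the gradient; `sgn_cons` : two functions which are close
  up to sign on a common ray of two members are close after normalisation at ANY base rays.
-/

set_option autoImplicit false

namespace Crest.Agent.R116.KF439

open Crest.Agent.R138.Defs (E2)
open Crest.Agent.R116.CDef480 (E3 lat pt normsq2 inner2)
open Crest.Agent.R116.LZg725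
open Crest.Agent.R116.ChL222
open Crest.Agent.R116.Bm903
open Crest.Agent.R116.KI439

/-! ### multiples of a conformal function -/

/-- multiple of a conformal function. -/
noncomputable def sm (σ : ℝ) (p : Cf E2) : Cf E2 := Cf.smul σ p

theorem sm_one (p : Cf E2) : sm 1 p = p := by
  unfold sm Cf.smul
  ext1 <;> simp

theorem sm_sm (σ τ : ℝ) (p : Cf E2) : sm σ (sm τ p) = sm (σ * τ) p := by
  unfold sm Cf.smul
  ext1 <;> simp [mul_assoc, mul_smul]

theorem sm_d (σ : ℝ) (p : Cf E2) : (sm σ p).d = σ * p.d := rfl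

theorem sm_ny (σ : ℝ) (p : Cf E2) (s : ℝ) : (sm σ p).ny s = σ * p.ny s := by
  unfold sm Cf.smul Cf.ny; ring

theorem sm_grr (σ : ℝ) (p : Cf E2) (r : LRay) : grr (sm σ p) r = σ • grr p r := by
  unfold grr Cf.gr sm Cf.smul Cf.ny
  module

theorem sm_evr (σ : ℝ) (p : Cf E2) (r : LRay) (s : ℝ) : evr (sm σ p) r s = σ * evr p r s :=
  Cf.ev_smul σ p _ _ _

theorem sm_val (σ : ℝ) (p : Cf E2) (q : E3 × ℝ) : (sm σ p).val q = σ * p.val q :=
  Cf.ev_smul σ p _ _ _

theorem sm_disc (σ : ℝ) (p : Cf E2) : (sm σ p).disc = σ ^ 2 * p.disc := Cf.disc_smul σ p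

/-- `σ = ±1` -/
def Sg (σ : ℝ) : Prop := σ = 1 ∨ σ = -1

theorem Sg.abs {σ : ℝ} (h : Sg σ) : |σ| = 1 := by
  rcases h with h | h <;> subst h <;> simp

theorem Sg.sq {σ : ℝ} (h : Sg σ) : σ * σ = 1 := by
  rcases h with h | h <;> subst h <;> norm_num

theorem Sg.mul {σ τ : ℝ} (h : Sg σ) (h' : Sg τ) : Sg (σ * τ) := by
  rcases h with h | h <;> rcases h' with h' | h' <;> subst h <;> subst h' <;> unfold Sg <;> norm_num

/-- the member with another function -/
def wph (m : Mem) (q : Cf E2) : Mem := { m with phi := q }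

theorem rays_wph {B : ℝ} (m : Mem) {σ : ℝ} (hσ : Sg σ) :
    (wph m (sm σ m.phi)).rays B = m.rays B := by
  have e : (wph m (sm σ m.phi)).set B = m.set B := by
    ext q
    show (q ∈ m.box B ∧ |(sm σ m.phi).val q| ≤ m.s1 * m.R) ↔ (q ∈ m.box B ∧ |m.phi.val q| ≤ _)
    rw [sm_val, abs_mul, hσ.abs, one_mul]
  ext r
  show (‖r.1 - m.c‖ ≤ m.sg ∧ ∀ s, |s - m.s0| ≤ m.R → (rpos r s, s) ∈ (wph m (sm σ m.phi)).set B) ↔ _
  rw [e]
  exact Iff.rfl

/-! ### facts on one member -/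

section member

variable {M : ℝ} {m : Mem} {r r' : LRay}

theorem T0 (m : Mem) : m.T 0 = m.sg ^ 2 := by
  unfold Mem.T
  rw [zero_div]
  exact max_eq_left (sq_nonneg _)

theorem sg_pos (h : m.Ok M 0) : 0 < m.sg := h.hs1.trans_le h.hsg

theorem ny_le (h : m.Ok M 0) {z : ℝ} (hz : |z - m.s0| ≤ m.R) : |m.phi.ny z| * m.sg ≤ M := by
  have h1 := h.adm.ny z hz
  rw [T0] at h1
  have hs := sg_pos h
  have e : |m.phi.ny z| * m.sg ^ 2 = (|m.phi.ny z| * m.sg) * m.sg := by ring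
  rw [e] at h1
  exact le_of_mul_le_mul_right h1 hs

theorem d_le (h : m.Ok M 0) : 2 * |m.phi.d| * (m.sg * m.R) ≤ M := by
  have h1 := d_le_of_ny (T := m.T 0) h.hR.le (by rw [T0]; positivity) h.adm.ny
  rw [T0] at h1
  have hs := sg_pos h
  have e : 2 * |m.phi.d| * (m.sg ^ 2 * m.R) = (2 * |m.phi.d| * (m.sg * m.R)) * m.sg := by ring
  rw [e] at h1
  exact le_of_mul_le_mul_right h1 hs

theorem M_nonneg (h : m.Ok M 0) : 0 ≤ M := by
  have h1 := d_le h
  have h2 := sg_pos h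
  have h3 := h.hR
  refine le_trans ?_ h1
  positivity

theorem self_s0 (h : m.Ok M 0) : |m.s0 - m.s0| ≤ m.R := by
  rw [sub_self, abs_zero]; exact h.hR.le

/-- the gradient has length about `1` on the rays. -/
theorem gr_sq (h : m.Ok M 0) (hr : r ∈ m.rays 0) : |‖grr m.phi r‖ ^ 2 - 1| ≤ 4 * M := by
  have h0 := self_s0 h
  have hs := sg_pos h
  have hR := h.hR
  have e := Cf.norm_gr_sq m.phi r.1 (rx r.1 r.2.1 m.s0) (ry r.1 r.2.2 m.s0) m.s0
  rw [grr_eq, slr_eq, h.adm.disc] at e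
  have e2 : ‖grr m.phi r‖ ^ 2 - 1 = 2 * m.phi.ny m.s0 * slr m.phi r +
      4 * m.phi.d * evr m.phi r m.s0 := by
    rw [e]; unfold evr; ring
  rw [e2]
  have h1 := ny_le h h0
  have h2 := d_le h
  have h3 := ray_slr h.hR hr
  have h4 := ray_val hr h0
  have a1 : |2 * m.phi.ny m.s0 * slr m.phi r| ≤ 2 * M := by
    rw [abs_mul, abs_mul, abs_two]
    have : |m.phi.ny m.s0| * |slr m.phi r| ≤ |m.phi.ny m.s0| * m.sg :=
      mul_le_mul_of_nonneg_left (h3.trans h.hsg) (abs_nonneg _)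
    nlinarith
  have a2 : |4 * m.phi.d * evr m.phi r m.s0| ≤ 2 * M := by
    rw [abs_mul, abs_mul, abs_of_pos (by norm_num : (0:ℝ) < 4)]
    have h5 : |evr m.phi r m.s0| ≤ m.sg * m.R :=
      h4.trans (mul_le_mul_of_nonneg_right h.hsg hR.le)
    have : |m.phi.d| * |evr m.phi r m.s0| ≤ |m.phi.d| * (m.sg * m.R) :=
      mul_le_mul_of_nonneg_left h5 (abs_nonneg _)
    nlinarith
  refine (abs_add_le _ _).trans ?_
  linarith

/-- the gradient rotates by at most `4M` over the member. -/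
theorem gr_two (h : m.Ok M 0) (hr : r ∈ m.rays 0) (hr' : r' ∈ m.rays 0) :
    ‖grr m.phi r' - grr m.phi r‖ ≤ 4 * M := by
  have h0 := self_s0 h
  have hs := sg_pos h
  have hR := h.hR
  have e : grr m.phi r' - grr m.phi r = -((m.phi.ny m.s0) • (r'.1 - r.1)) +
      (2 * m.phi.d) • (rx r'.1 r'.2.1 m.s0 - rx r.1 r.2.1 m.s0) := by
    rw [grr_frame m.phi r r' m.s0]
    abel
  rw [e]
  have h1 := ny_le h h0
  have h2 := d_le h
  have h3 := two_slope hr hr'
  have h4 := two_lat hr hr' h0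
  refine (norm_add_le _ _).trans ?_
  rw [norm_neg, norm_smul, norm_smul, Real.norm_eq_abs, Real.norm_eq_abs, abs_mul, abs_two]
  have a1 : |m.phi.ny m.s0| * ‖r'.1 - r.1‖ ≤ 2 * M := by
    have := mul_le_mul_of_nonneg_left h3 (abs_nonneg (m.phi.ny m.s0))
    nlinarith
  have a2 : 2 * |m.phi.d| * ‖rx r'.1 r'.2.1 m.s0 - rx r.1 r.2.1 m.s0‖ ≤ 2 * M := by
    have := mul_le_mul_of_nonneg_left h4 (by positivity : 0 ≤ 2 * |m.phi.d|)
    nlinarith
  linarith

theorem comp_two (h : m.Ok M 0) (hr : r ∈ m.rays 0) (hr' : r' ∈ m.rays 0) (a : Fin 2) :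
    |grr m.phi r' a - grr m.phi r a| ≤ 4 * M := by
  have h1 := gr_two h hr hr'
  have h2 : |(grr m.phi r' - grr m.phi r) a| ≤ ‖grr m.phi r' - grr m.phi r‖ := by
    fin_cases a
    · exact abs0_le _
    · exact abs1_le _
  rw [PiLp.sub_apply] at h2
  exact h2.trans h1

end member

/-! ### distance of two flags on a ray -/

/-- distance of two flags on the ray `r`, at the height `z`, in units of width `W`, length `ρ`. -/
noncomputable def dsc (W ρ : ℝ) (p q : Cf E2) (r : LRay) (z : ℝ) : ℝ :=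
  W * ‖grr (dif p q) r‖ + W ^ 2 / ρ * |(dif p q).ny z| + W ^ 2 * |(dif p q).d|

theorem dsc_nonneg {W ρ : ℝ} (hW : 0 ≤ W) (hρ : 0 ≤ ρ) (p q : Cf E2) (r : LRay) (z : ℝ) :
    0 ≤ dsc W ρ p q r z := by
  unfold dsc; positivity

theorem dsc_symm (W ρ : ℝ) (p q : Cf E2) (r : LRay) (z : ℝ) :
    dsc W ρ q p r z = dsc W ρ p q r z := by
  unfold dsc
  rw [dif_grr, dif_grr, dif_ny, dif_ny, dif_d, dif_d, norm_sub_rev, abs_sub_comm (q.ny z),
    abs_sub_comm q.d]

theorem dsc_tri {W ρ : ℝ} (hW : 0 ≤ W) (hρ : 0 ≤ ρ) (p q o : Cf E2) (r : LRay) (z : ℝ) :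
    dsc W ρ p o r z ≤ dsc W ρ p q r z + dsc W ρ q o r z := by
  have h1 : ‖grr (dif p o) r‖ ≤ ‖grr (dif p q) r‖ + ‖grr (dif q o) r‖ := by
    rw [dif_grr, dif_grr, dif_grr]
    exact norm_sub_le_norm_sub_add_norm_sub _ _ _
  have h2 : |(dif p o).ny z| ≤ |(dif p q).ny z| + |(dif q o).ny z| := by
    rw [dif_ny, dif_ny, dif_ny]; exact abs_sub_le _ _ _
  have h3 : |(dif p o).d| ≤ |(dif p q).d| + |(dif q o).d| := by
    rw [dif_d, dif_d, dif_d]; exact abs_sub_le _ _ _
  have h1' := mul_le_mul_of_nonneg_left h1 hW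
  have h2' := mul_le_mul_of_nonneg_left h2 (by positivity : 0 ≤ W ^ 2 / ρ)
  have h3' := mul_le_mul_of_nonneg_left h3 (by positivity : 0 ≤ W ^ 2)
  unfold dsc
  linarith

theorem dsc_sm {σ : ℝ} (hσ : Sg σ) (W ρ : ℝ) (p q : Cf E2) (r : LRay) (z : ℝ) :
    dsc W ρ (sm σ p) (sm σ q) r z = dsc W ρ p q r z := by
  have h1 : ‖grr (dif (sm σ p) (sm σ q)) r‖ = ‖grr (dif p q) r‖ := by
    rw [dif_grr, dif_grr, sm_grr, sm_grr, ← smul_sub, norm_smul, Real.norm_eq_abs, hσ.abs, one_mul]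
  have h2 : |(dif (sm σ p) (sm σ q)).ny z| = |(dif p q).ny z| := by
    rw [dif_ny, dif_ny, sm_ny, sm_ny, ← mul_sub, abs_mul, hσ.abs, one_mul]
  have h3 : |(dif (sm σ p) (sm σ q)).d| = |(dif p q).d| := by
    rw [dif_d, dif_d, sm_d, sm_d, ← mul_sub, abs_mul, hσ.abs, one_mul]
  unfold dsc
  rw [h1, h2, h3]

/-- the three slots from the distance -/
theorem slots_of_dsc {W ρ e : ℝ} (hW : 0 < W) (hρ : 0 < ρ) {p q : Cf E2} {r : LRay} {z : ℝ}
    (h : dsc W ρ p q r z ≤ e) :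
    ‖grr (dif p q) r‖ ≤ e / W ∧ |(dif p q).ny z| ≤ e * ρ / W ^ 2 ∧ |(dif p q).d| ≤ e / W ^ 2 := by
  unfold dsc at h
  have h1 : 0 ≤ W * ‖grr (dif p q) r‖ := by positivity
  have h2 : 0 ≤ W ^ 2 / ρ * |(dif p q).ny z| := by positivity
  have h3 : 0 ≤ W ^ 2 * |(dif p q).d| := by positivity
  refine ⟨?_, ?_, ?_⟩
  · rw [le_div_iff₀ hW]; linarith
  · rw [le_div_iff₀ (by positivity)]
    have h4 : W ^ 2 / ρ * |(dif p q).ny z| ≤ e := by linarith
    rw [div_mul_eq_mul_div, div_le_iff₀ hρ] at h4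
    linarith
  · rw [le_div_iff₀ (by positivity)]; linarith

/-! ### the normalising sign -/

/-- the sign of the component `a` of the gradient on the ray `r` -/
noncomputable def nsg (a : Fin 2) (p : Cf E2) (r : LRay) : ℝ := if 0 ≤ grr p r a then 1 else -1

theorem nsg_sg (a : Fin 2) (p : Cf E2) (r : LRay) : Sg (nsg a p r) := by
  unfold nsg
  split_ifs
  · exact Or.inl rfl
  · exact Or.inr rfl

/-- the sign read at a base ray is the sign at every ray where the component is large. -/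
theorem nsg_mul {M : ℝ} {m : Mem} {r0 r : LRay} (h : m.Ok M 0) (h0 : r0 ∈ m.rays 0)
    (hr : r ∈ m.rays 0) {a : Fin 2} (ha : 4 * M < |grr m.phi r a|) :
    nsg a m.phi r0 * grr m.phi r a = |grr m.phi r a| := by
  have h1 := abs_le.1 (comp_two h h0 hr a)
  unfold nsg
  split_ifs with h2
  · rw [one_mul]
    rcases le_or_gt 0 (grr m.phi r a) with h3 | h3
    · rw [abs_of_nonneg h3]
    · rw [abs_of_neg h3] at ha
      linarith [h1.1]
  · rw [not_le] at h2
    rcases le_or_gt 0 (grr m.phi r a) with h3 | h3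
    · rw [abs_of_nonneg h3] at ha
      linarith [h1.2]
    · rw [abs_of_neg h3]; ring

/-- **sign consistency**: two functions which are close up to the sign `σ` on a common ray are close
after normalisation at any base rays. -/
theorem sgn_cons {M : ℝ} {m m' : Mem} {r0 r0' r : LRay} (h : m.Ok M 0) (h' : m'.Ok M 0)
    (h0 : r0 ∈ m.rays 0) (h0' : r0' ∈ m'.rays 0) (hr : r ∈ m.rays 0) (hr' : r ∈ m'.rays 0)
    {a : Fin 2} {σ η : ℝ} (hσ : Sg σ) (hη : ‖grr (dif m.phi (sm σ m'.phi)) r‖ ≤ η)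
    (ha : 4 * M + η < |grr m.phi r a|) (ha0 : η < |grr m.phi r a| / 2) :
    nsg a m.phi r0 = nsg a m'.phi r0' * σ := by
  have hM := M_nonneg h
  have hη0 : 0 ≤ η := (norm_nonneg _).trans hη
  have h1 : |grr m.phi r a - σ * grr m'.phi r a| ≤ η := by
    have h2 : |(grr (dif m.phi (sm σ m'.phi)) r) a| ≤ ‖grr (dif m.phi (sm σ m'.phi)) r‖ := by
      fin_cases a
      · exact abs0_le _
      · exact abs1_le _
    rw [dif_grr, sm_grr, PiLp.sub_apply, PiLp.smul_apply, smul_eq_mul] at h2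
    rw [dif_grr, sm_grr] at hη
    exact h2.trans hη
  have h3 : |grr m.phi r a| - η ≤ |grr m'.phi r a| := by
    have h4 := abs_sub_abs_le_abs_sub (grr m.phi r a) (σ * grr m'.phi r a)
    rw [abs_mul, hσ.abs, one_mul] at h4
    linarith
  have e1 := nsg_mul h h0 hr (a := a) (by linarith)
  have e2 := nsg_mul h' h0' hr' (a := a) (by linarith)
  set x := grr m.phi r a
  set y := grr m'.phi r a
  have s1 := nsg_sg a m.phi r0
  have s2 := nsg_sg a m'.phi r0'
  set s := nsg a m.phi r0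
  set t := nsg a m'.phi r0'
  rw [abs_le] at h1
  rcases s1 with hs | hs <;> rcases s2 with ht | ht <;> rcases hσ with hσ' | hσ' <;>
    rw [hs, ht, hσ'] <;> rw [hs] at e1 <;> rw [ht] at e2 <;> rw [hσ'] at h1 <;> first
      | (norm_num; done)
      | (exfalso
         have b1 := abs_nonneg x
         have b2 := abs_nonneg y
         linarith [h1.1, h1.2])

end Crest.Agent.R116.KF439
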