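import Crest.Agent.R116.KF2_439
import Crest.Agent.R116.PL2_504

/-!
# R116 (K side), K7 FLAG-L, part 3 (helper439): the flags

* `PL` : 222's chart as triangular pseudo-distances (twelve slots).
* `bray m`, `psm m`, `flM m` : base ray, sign-normalised function, flag of a member (functions of the
  member only, hence stable under windows); `psi n v x`, `frL n v x` : the same for the mark of an
  incidence; `comp`, `flL` : composite flag (slots `B, E, D` from level `1` or level `0`, read on the
  ray of the incidence).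
* `base_close` : `toL (ray x) (height x) psi` and `frL` agree up to the precision in all slots
  (903's `mem_box_unit`).
* `comp_close` : composite flag against `toL (ray x) (height x) psi`: three linear slots.
-/

set_option autoImplicit false
set_option linter.unusedVariables false

open Finset Filter Topology

namespace Crest.Agent.R116.KF439

open Crest.Agent.R138.Defs (E2)
open Crest.Agent.R138.Ex926
open Crest.Agent.R138.Dp76
open Crest.Agent.R138.Mk163 (zc zl rho alive own Negl)
open Crest.Agent.R138.MkRef627 (lc kc mem_alive)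
open Crest.Agent.R136.MkA627
open Crest.Agent.R136.Net191 (Mons Chart)
open Crest.Agent.R136.TD627
open Crest.Agent.R116.LZg725
open Crest.Agent.R116.ChL222
open Crest.Agent.R116.Bm903
open Crest.Agent.R116.KI439
open Crest.Agent.R116.PL504

/-! ### the distance -/

theorem coL_self (a : LInc) (k : Fin 12) : coL a a k = 0 := by
  fin_cases k <;> simp [coL, nuL]

theorem coL_tri (a b c : LInc) (k : Fin 12) :
    |coL a c k - coL a b k - coL b c k| ≤
      2 * ∑ e ∈ monL.mon k, ∏ s, (max |coL a b s| |coL b c s|) ^ e s := by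
  have h := (chartL (Finset.univ : Finset (Fin 3)) ![a, b, c]).add 0 (mem_univ _) 1 (mem_univ _) 2
    (mem_univ _) k
  exact h

/-- the chart of the light rays as triangular distances. -/
noncomputable def PL : TDist LInc 12 :=
  TDist.ofChart monL (fun _ => coL) 2 zero_le_two (fun _ a k => coL_self a k)
    (fun _ a b c k => coL_tri a b c k)

theorem PL_d (k : Fin 12) (n : ℕ) (a b : LInc) : PL.d k n a b = |coL a b k| := rfl

theorem PL_M : PL.M = monL := rfl

/-! ### composite incidence -/

/-- ray, height and the three flag slots from three functions. -/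
noncomputable def comp (r : LRay) (z : ℝ) (pB pE pD : Cf E2) : LInc where
  c1 := -(r.1 0)
  c2 := -(r.1 1)
  x1 := r.2.1 0
  x2 := r.2.1 1
  h := r.2.2
  z := z
  b1 := grr pB r 0
  b2 := grr pB r 1
  et := pE.ny z
  d := pD.d

theorem comp_self (r : LRay) (z : ℝ) (p : Cf E2) : comp r z p p p = toL r z p := rfl

/-- composite incidence against a plain one, same ray, same height. -/
theorem comp_close {r : LRay} {z : ℝ} {pB pE pD p : Cf E2} {eB eE eD : ℝ}
    (hB : ‖grr (dif pB p) r‖ ≤ eB) (hE : |(dif pE p).ny z| ≤ eE) (hD : |(dif pD p).d| ≤ eD)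
    (k : Fin 12) : |coL (comp r z pB pE pD) (toL r z p) k| ≤
      ![0, eD, eE, 0, 0, 0, 0, eB, eB, 0, 0, 0] k := by
  have hB0 : |grr p r 0 - grr pB r 0| ≤ eB := by
    have h1 := (abs0_le (grr (dif pB p) r)).trans hB
    rw [dif_grr, PiLp.sub_apply, abs_sub_comm] at h1
    exact h1
  have hB1 : |grr p r 1 - grr pB r 1| ≤ eB := by
    have h1 := (abs1_le (grr (dif pB p) r)).trans hB
    rw [dif_grr, PiLp.sub_apply, abs_sub_comm] at h1
    exact h1
  rw [dif_ny, abs_sub_comm] at hE
  rw [dif_d, abs_sub_comm] at hD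
  fin_cases k <;> simp [coL, nuL, comp, toL, LInc.p1, LInc.p2, LInc.ph]
  · exact hD
  · exact hE
  · exact hB0
  · exact hB1

/-! ### units -/

theorem un_eq (sg s1 R : ℝ) (k : Fin 12) : un sg s1 R k = uL R sg s1 k := by
  fin_cases k <;> simp [un, uL] <;> ring

section defs

variable (lev : ℕ → ℚ → ℕ) (f : ℕ → ℚ → ℕ → ℤ → ℕ) (b : ℕ → ℚ → ℕ → SL) (ax : Fin 2)

open Classical in
/-- base ray of a member (a chosen one, a function of the member only) -/
noncomputable def bray (m : Mem) : LRay := if h : (m.rays 0).Nonempty then h.some else (0, 0, 0)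

theorem bray_mem {m : Mem} {r : LRay} (h : r ∈ m.rays 0) : bray m ∈ m.rays 0 := by
  have h1 : (m.rays 0).Nonempty := ⟨r, h⟩
  unfold bray
  rw [dif_pos h1]
  exact h1.some_mem

/-- the sign-normalised function of a member -/
noncomputable def psm (m : Mem) : Cf E2 := sm (nsg ax m.phi (bray m)) m.phi

/-- the sign-normalised function of the mark of an incidence -/
noncomputable def psi (n : ℕ) (v : ℚ) (x : ℕ × ℝ) : Cf E2 := psm ax (mkL lev f b n v x)

/-- the flag of a member -/
noncomputable def flM (m : Mem) : LInc := toL (bray m) m.s0 (psm ax m)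

/-- the flag of level `v` of an incidence, a function of the mark only -/
noncomputable def frL (n : ℕ) (v : ℚ) (x : ℕ × ℝ) : LInc := flM ax (mkL lev f b n v x)

theorem frL_kc (n : ℕ) (v : ℚ) (x y : ℕ × ℝ)
    (h : kc (lev n v) (f n v) y = kc (lev n v) (f n v) x) :
    frL lev f b ax n v y = frL lev f b ax n v x := by
  have : f n v y.1 (zc (lev n v) y.2) = f n v x.1 (zc (lev n v) x.2) := (Prod.mk.inj h).1
  unfold frL mkL
  rw [this]

/-- level from which the slot of rate `t` is taken -/
noncomputable def lvl (t : ℝ) : ℚ := if 0 < t then 1 else 0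

/-- the composite flag: rates `tB, tE, tD` -/
noncomputable def flL (L : ℕ → ℕ → LRay) (tB tE tD : ℝ) (n : ℕ) (x : ℕ × ℝ) : LInc :=
  comp (L n x.1) x.2 (psi lev f b ax n (lvl tB) x) (psi lev f b ax n (lvl tE) x)
    (psi lev f b ax n (lvl tD) x)

end defs

section facts

variable {L : ℕ → ℕ → LRay} {lev : ℕ → ℚ → ℕ} {w : Fin 2 → ℕ → ℚ → ℝ} {ax : Fin 2}

/-- **the plain flag and the flag of the mark agree up to the precision.** -/
theorem base_close {n : ℕ} {v : ℚ} {m : Mem} {x : ℕ × ℝ} (h : MkFact L lev w n v m x)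
    (k : Fin 12) :
    |coL (toL (L n x.1) x.2 (psm ax m)) (flM ax m) k| ≤ 4 * prN lev w k n v := by
  have hok := h.ok
  have hsg := sg_pos hok
  set σ := nsg ax m.phi (bray m) with hσd
  have hσ : Sg σ := nsg_sg _ _ _
  have e1 : psm ax m = sm σ m.phi := rfl
  unfold flM
  rw [e1]
  have hr : L n x.1 ∈ (wph m (sm σ m.phi)).rays 0 := by rw [rays_wph m hσ]; exact h.ray
  have hr' : bray m ∈ (wph m (sm σ m.phi)).rays 0 := by rw [rays_wph m hσ]; exact bray_mem h.ray
  have hT : (wph m (sm σ m.phi)).T 0 ≤ 1 * (wph m (sm σ m.phi)).sg ^ 2 := by rw [T0, one_mul]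
  have key := mem_box_unit (m := wph m (sm σ m.phi)) (B := 0) hok.hR hok.hs1 hsg le_rfl hT hr hr'
    (z := x.2) (z' := m.s0) h.z (self_s0 hok) (p := sm σ m.phi) (p' := sm σ m.phi) (κ := 0) le_rfl
    (by simp only [zero_mul]; exact FlN.refl _ _ _) (by simp only [zero_mul]; exact FlN.refl _ _ _) k
  refine key.trans (le_of_eq ?_)
  rw [un_eq]
  have hR := hok.hR
  have e3 : w 0 n v / rho (lev n v) = m.sg := by
    rw [← h.wide, ← h.R]; field_simp
  have e4 : w 1 n v / rho (lev n v) = m.s1 := by
    rw [← h.thin, ← h.R]; field_simp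
  unfold prN
  rw [e3, e4, ← h.R]
  show 1 * (4 + 20 * 0) * uL m.R m.sg m.s1 k = _
  ring

end facts

end Crest.Agent.R116.KF439
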