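import Crest.Agent.R116.KF3_439
import Crest.Agent.R138.ArgM1_163

/-!
# R116 (K side), K7 FLAG-L, part 4 (helper439): closeness of the marks of different levels

* `prN_cmp` : precisions of two levels; `prN_pos`.
* `tilt_norm` : thin marks, tilt up to sign + axis ⊢ the sign-normalised functions are close.
* `triv_close` : round marks, the same with trivial bounds.
* `mesh` : chain over a mesh of levels; `EndClose` : in every flag slot the function of level `v` is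
  close to the one of the end level (`1` if the rate is positive, `0` otherwise).
-/

set_option autoImplicit false
set_option linter.unusedVariables false

open Finset Filter Topology

namespace Crest.Agent.R116.KF439

open Crest.Agent.R138.Defs (E2)
open Crest.Agent.R138.Ex926
open Crest.Agent.R138.Dp76
open Crest.Agent.R138.Ps926 (dpow_small)
open Crest.Agent.R138.Mk163 (zc zl rho alive own Negl)
open Crest.Agent.R138.MkRef627 (lc kc mem_alive)
open Crest.Agent.R138.NatTw76 (exists_avoid)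
open Crest.Agent.R136.MkA627
open Crest.Agent.R136.Net191 (Mons Chart)
open Crest.Agent.R136.TD627
open Crest.Agent.R116.LZg725
open Crest.Agent.R116.ChL222
open Crest.Agent.R116.Bm903
open Crest.Agent.R116.KI439
open Crest.Agent.R116.PL504

/-! ### one slot -/

/-- distance of two functions in the flag slot `k` on the ray `r`, at the height `z`. -/
noncomputable def slt (k : Fin 12) (p q : Cf E2) (r : LRay) (z : ℝ) : ℝ :=
  if k = 1 then |(dif p q).d| else if k = 2 then |(dif p q).ny z| else ‖grr (dif p q) r‖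

theorem slt_nonneg (k : Fin 12) (p q : Cf E2) (r : LRay) (z : ℝ) : 0 ≤ slt k p q r z := by
  unfold slt
  split_ifs <;> positivity

theorem slt_self (k : Fin 12) (p : Cf E2) (r : LRay) (z : ℝ) : slt k p p r z = 0 := by
  unfold slt
  rw [dif_d, dif_ny, dif_grr, sub_self, sub_self, sub_self, abs_zero, norm_zero]
  split_ifs <;> rfl

theorem slt_symm (k : Fin 12) (p q : Cf E2) (r : LRay) (z : ℝ) : slt k q p r z = slt k p q r z := by
  unfold slt
  rw [dif_d, dif_ny, dif_grr, dif_d, dif_ny, dif_grr, abs_sub_comm q.d, abs_sub_comm (q.ny z),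
    norm_sub_rev (grr q r)]

theorem slt_tri (k : Fin 12) (p q o : Cf E2) (r : LRay) (z : ℝ) :
    slt k p o r z ≤ slt k p q r z + slt k q o r z := by
  unfold slt
  simp only [dif_d, dif_ny, dif_grr]
  split_ifs
  · exact abs_sub_le _ _ _
  · exact abs_sub_le _ _ _
  · exact norm_sub_le_norm_sub_add_norm_sub _ _ _

/-- the flag slots -/
def FS (k : Fin 12) : Prop := k = 1 ∨ k = 2 ∨ k = 7 ∨ k = 8

section seq

variable {σ : Type*} {B : Base} {I : ℕ → Finset (ℕ × ℝ)} {G : Geo σ (Fin 2)} {lev : ℕ → ℚ → ℕ}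
    {A : ℕ → ℝ} {g s : ℝ} {θ : Fin 2 → ℝ} {f : ℕ → ℚ → ℕ → ℤ → ℕ} {b : ℕ → ℚ → ℕ → σ}
    {vm : ℕ → ℚ → ℝ} {w : Fin 2 → ℕ → ℚ → ℝ}

theorem prN_pos {n : ℕ} {v : ℚ} (h0 : 0 < w 0 n v) (h1 : 0 < w 1 n v) (k : Fin 12) :
    0 < prN lev w k n v :=
  uL_pos (rho_pos _) (div_pos h0 (rho_pos _)) (div_pos h1 (rho_pos _)) k

theorem ev_prN_pos (h : MkA B I G lev A (fun v => g * v) (fun v => s * v)
    (fun j v => θ j * (1 - v)) f b vm w) {v : ℚ} (h0 : 0 ≤ v) (h1 : v ≤ 1) :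
    ∀ᶠ n in (U : Filter ℕ), ∀ k, 0 < prN lev w k n v := by
  filter_upwards [h.wpos 0 v h0 h1, h.wpos 1 v h0 h1] with n a b k using prN_pos a b k

/-- **comparison of the precisions of two levels** -/
theorem prN_cmp (h : MkA B I G lev A (fun v => g * v) (fun v => s * v)
    (fun j v => θ j * (1 - v)) f b vm w) {u v : ℚ} (hu0 : 0 ≤ u) (hu1 : u ≤ 1) (hv0 : 0 ≤ v)
    (hv1 : v ≤ 1) {ε : ℝ} (hε : 0 < ε) : ∀ᶠ n in (U : Filter ℕ), ∀ k,
      prN lev w k n u ≤ prN lev w k n v * B.d n ^ (βL (θ 0) (θ 1) k * ((u : ℝ) - v) - ε) := by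
  filter_upwards [cN_pr h 0 0 0 hu0 hu1 (half_pos hε), cN_pr h 0 0 0 hv0 hv1 (half_pos hε)]
    with n a1 a2 k
  have hc := cN_pos B lev w 0 0 0 n k
  have b1 := (a1 k).2
  have b2 := (a2 k).1
  rw [rL_lin] at b1 b2
  have e : rL (θ 0) (θ 1) 0 0 0 0 k + βL (θ 0) (θ 1) k * (u : ℝ) - ε / 2 =
      (rL (θ 0) (θ 1) 0 0 0 0 k + βL (θ 0) (θ 1) k * (v : ℝ) + ε / 2) +
        (βL (θ 0) (θ 1) k * ((u : ℝ) - v) - ε) := by ring
  rw [e, dpow_add] at b1
  have b3 := b1.trans (mul_le_mul_of_nonneg_right b2 (dpow_pos B n _).le)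
  rw [mul_assoc] at b3
  exact le_of_mul_le_mul_left b3 hc

/-- the precision of an end level is at most the one of level `v`. -/
theorem prN_end (h : MkA B I G lev A (fun v => g * v) (fun v => s * v)
    (fun j v => θ j * (1 - v)) f b vm w) {k : Fin 12} {u v : ℚ} (hu0 : 0 ≤ u) (hu1 : u ≤ 1)
    (hv0 : 0 ≤ v) (hv1 : v ≤ 1) (hk : 0 ≤ βL (θ 0) (θ 1) k * ((u : ℝ) - v)) {ε : ℝ} (hε : 0 < ε) :
    ∀ᶠ n in (U : Filter ℕ), prN lev w k n u ≤ prN lev w k n v * B.d n ^ (-ε) := by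
  filter_upwards [prN_cmp h hu0 hu1 hv0 hv1 hε, ev_prN_pos h hv0 hv1] with n a1 a2
  refine (a1 k).trans (mul_le_mul_of_nonneg_left (dpow_le B n ?_) (a2 k).le)
  linarith

end seq

/-! ### chain over a mesh -/

/-- **mesh chain** -/
theorem mesh {X : Type*} {B : Base} {J : ℕ → X → Prop} {S : ℕ → ℚ → ℚ → X → ℝ}
    {pr : ℕ → ℚ → ℝ} {C : ℝ} (hself : ∀ n u x, S n u u x = 0)
    (htri : ∀ n u v o x, S n u o x ≤ S n u v x + S n v o x)
    (hS : ∀ u v : ℚ, 0 ≤ u → u < v → v ≤ 1 → ∀ ε : ℝ, 0 < ε → ∀ᶠ n in (U : Filter ℕ), ∀ x, J n x →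
      S n u v x ≤ pr n v * B.d n ^ (-(C * ((v : ℝ) - u)) - ε))
    {a c : ℚ} (ha : 0 ≤ a) (hac : a ≤ c) (hc : c ≤ 1) {T : ℕ → ℝ}
    (hT : ∀ᶠ n in (U : Filter ℕ), 0 ≤ T n)
    (hm : ∀ v : ℚ, a ≤ v → v ≤ c → ∀ ε : ℝ, 0 < ε →
      ∀ᶠ n in (U : Filter ℕ), pr n v ≤ T n * B.d n ^ (-ε)) {ε : ℝ} (hε : 0 < ε) :
    ∀ᶠ n in (U : Filter ℕ), ∀ x, J n x → S n a c x ≤ T n * B.d n ^ (-ε) := by
  rcases hac.eq_or_lt with rfl | hlt
  · filter_upwards [hT] with n hn x hx
    rw [hself]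
    exact mul_nonneg hn (dpow_pos B n _).le
  -- the number of steps
  obtain ⟨K, hK⟩ := exists_nat_gt (4 * (|C| * 1) / ε)
  have hK0 : (0 : ℝ) < K := by
    refine lt_of_le_of_lt ?_ hK
    positivity
  have hKpos : 0 < K := by exact_mod_cast hK0
  have hKq : (0 : ℚ) < K := by exact_mod_cast hKpos
  set v : ℕ → ℚ := fun i => a + (i : ℚ) * ((c - a) / K) with hv
  have hstep : 0 < (c - a) / K := div_pos (by linarith) hKq
  have hv0 : v 0 = a := by simp [hv]
  have hvK : v K = c := by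
    simp only [hv]
    field_simp
    ring
  have hlt' : ∀ i, v i < v (i + 1) := by
    intro i
    simp only [hv]
    push_cast
    nlinarith
  have hva : ∀ i, a ≤ v i := by
    intro i
    simp only [hv]
    have : (0 : ℚ) ≤ (i : ℚ) * ((c - a) / K) := mul_nonneg (Nat.cast_nonneg _) hstep.le
    linarith
  have hvc : ∀ i, i ≤ K → v i ≤ c := by
    intro i hi
    rw [← hvK]
    simp only [hv]
    have h1 : (i : ℚ) ≤ K := by exact_mod_cast hi
    have := mul_le_mul_of_nonneg_right h1 hstep.le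
    linarith
  have hdiff : ∀ i, ((v (i + 1) : ℚ) : ℝ) - v i ≤ 1 / K := by
    intro i
    have e1 : v (i + 1) - v i = (c - a) / K := by simp only [hv]; push_cast; ring
    have e2 : ((v (i + 1) : ℚ) : ℝ) - v i = (((c - a) / K : ℚ) : ℝ) := by rw [← e1]; push_cast; ring
    rw [e2]
    push_cast
    refine div_le_div_of_nonneg_right ?_ hK0.le
    have h1 : ((c : ℚ) : ℝ) ≤ 1 := by exact_mod_cast hc
    have h2 : (0 : ℝ) ≤ a := by exact_mod_cast ha
    linarith
  have hCK : |C| * (1 / K) ≤ ε / 4 := by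
    rw [div_lt_iff₀ hε] at hK
    rw [mul_one_div, div_le_iff₀ hK0]
    linarith
  have hall : ∀ᶠ n in (U : Filter ℕ), ∀ i ∈ range K, ∀ x, J n x →
      S n (v i) (v (i + 1)) x ≤ T n * B.d n ^ (-(3 * ε / 4)) := by
    rw [Filter.eventually_all_finset]
    intro i hi
    have hiK : i + 1 ≤ K := Nat.succ_le_of_lt (mem_range.1 hi)
    filter_upwards [hS (v i) (v (i + 1)) (ha.trans (hva i)) (hlt' i) ((hvc _ hiK).trans hc) (ε / 4)
      (by positivity), hm (v (i + 1)) (hva _) (hvc _ hiK) (ε / 4) (by positivity), hT]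
      with n a1 a2 a3 x hx
    refine (a1 x hx).trans ?_
    have hd0 : 0 ≤ ((v (i + 1) : ℚ) : ℝ) - v i := by
      have : ((v i : ℚ) : ℝ) ≤ v (i + 1) := by exact_mod_cast (hlt' i).le
      linarith
    have h1 : C * (((v (i + 1) : ℚ) : ℝ) - v i) ≤ ε / 4 := by
      calc C * (((v (i + 1) : ℚ) : ℝ) - v i) ≤ |C| * (((v (i + 1) : ℚ) : ℝ) - v i) :=
            mul_le_mul_of_nonneg_right (le_abs_self C) hd0
        _ ≤ |C| * (1 / K) := mul_le_mul_of_nonneg_left (hdiff i) (abs_nonneg C)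
        _ ≤ ε / 4 := hCK
    calc pr n (v (i + 1)) * B.d n ^ (-(C * (((v (i + 1) : ℚ) : ℝ) - v i)) - ε / 4)
        ≤ (T n * B.d n ^ (-(ε / 4))) * B.d n ^ (-(C * (((v (i + 1) : ℚ) : ℝ) - v i)) - ε / 4) :=
          mul_le_mul_of_nonneg_right a2 (dpow_pos B n _).le
      _ = T n * B.d n ^ (-(ε / 4) + (-(C * (((v (i + 1) : ℚ) : ℝ) - v i)) - ε / 4)) := by
          rw [mul_assoc, ← dpow_add]
      _ ≤ _ := by
          refine mul_le_mul_of_nonneg_left (dpow_le B n ?_) a3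
          linarith
  filter_upwards [hall, hT, dpow_small B (show 0 < ε / 4 by positivity) (ε := 1 / K)
    (by positivity)] with n a1 a2 a3 x hx
  have hsum : ∀ i, i ≤ K → S n a (v i) x ≤ (i : ℝ) * (T n * B.d n ^ (-(3 * ε / 4))) := by
    intro i
    induction i with
    | zero => intro _; rw [hv0, hself]; simp
    | succ i ih =>
      intro hi
      have h1 := ih (Nat.le_of_succ_le hi)
      have h2 := a1 i (mem_range.2 hi) x hx
      have h3 := htri n a (v i) (v (i + 1)) x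
      push_cast
      linarith
  have h4 := hsum K le_rfl
  rw [hvK] at h4
  refine h4.trans ?_
  have h5 : (K : ℝ) * B.d n ^ (ε / 4) ≤ 1 := by
    have := mul_le_mul_of_nonneg_left a3.le hK0.le
    rwa [mul_one_div_cancel hK0.ne'] at this
  have e5 : B.d n ^ (-(3 * ε / 4)) = B.d n ^ (ε / 4) * B.d n ^ (-ε) := by
    rw [← dpow_add]; congr 1; ring
  rw [e5]
  have h6 := dpow_pos B n (-ε)
  calc (K : ℝ) * (T n * (B.d n ^ (ε / 4) * B.d n ^ (-ε)))
      = (K * B.d n ^ (ε / 4)) * (T n * B.d n ^ (-ε)) := by ring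
    _ ≤ 1 * (T n * B.d n ^ (-ε)) := mul_le_mul_of_nonneg_right h5 (mul_nonneg a2 h6.le)
    _ = _ := one_mul _

end Crest.Agent.R116.KF439
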