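import Crest.Agent.R116.KF4_439
import Crest.Agent.R138.ArgM1_163
import Crest.Agent.R138.NatTw_76

/-!
# R116 (K side), K7 FLAG-L, part 5 (helper439): from the tilt to the end levels

* `tilt_norm` : thin marks, tilt up to sign + axis of level `1` ⊢ on a dense part the sign-normalised
  functions of the marks of two levels are close.
* `EndClose` : in every flag slot the function of level `v` is close, up to the precision of level
  `v`, to the one of the end level of the slot.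
-/

set_option autoImplicit false
set_option linter.unusedVariables false

open Finset Filter Topology

namespace Crest.Agent.R116.KF439

open Crest.Agent.R138.Defs (E2)
open Crest.Agent.R138.Ex926
open Crest.Agent.R138.Dp76
open Crest.Agent.R138.Ps926 (dpow_small)
open Crest.Agent.R138.Mk163 (zc zl rho alive own Negl)
open Crest.Agent.R138.MkRef627 (lc kc mem_alive)
open Crest.Agent.R138.NatTw76 (exists_avoid)
open Crest.Agent.R136.MkA627
open Crest.Agent.R136.Net191 (Mons Chart)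
open Crest.Agent.R136.TD627
open Crest.Agent.R116.LZg725
open Crest.Agent.R116.ChL222
open Crest.Agent.R116.Bm903
open Crest.Agent.R116.KI439
open Crest.Agent.R116.PL504

section tilt

variable {r : ℕ → ℝ} {L : ℕ → ℕ → LRay} {B : Base} {I : ℕ → Finset (ℕ × ℝ)}
    {G : Geo SL (Fin 2)} {lev : ℕ → ℚ → ℕ} {A : ℕ → ℝ} {c Λ : ℝ → ℝ} {τ : Fin 2 → ℝ → ℝ}
    {f : ℕ → ℚ → ℕ → ℤ → ℕ} {b : ℕ → ℚ → ℕ → SL} {vm : ℕ → ℚ → ℝ} {w : Fin 2 → ℕ → ℚ → ℝ}

/-- the tilt of a dense part, eventually for every incidence -/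
theorem tilt_dense (h : MkA B I G lev A c Λ τ f b vm w) {C : ℝ} (hT : TiltL B I L lev f b w C)
    (hpos : ∀ v : ℚ, 0 ≤ v → v ≤ 1 → ∀ᶠ n in (U : Filter ℕ), 0 < w 1 n v) :
    ∃ J : ℕ → Finset (ℕ × ℝ), (∀ n, J n ⊆ I n) ∧ Dense B J I ∧
      ∀ u v : ℚ, 0 ≤ u → u < v → v ≤ 1 → ∀ ε : ℝ, 0 < ε → ∀ᶠ n in (U : Filter ℕ), ∀ x ∈ J n,
        ∃ σ : ℝ, Sg σ ∧
          dsc (w 0 n v) (rho (lev n v)) (mkL lev f b n u x).phi (sm σ (mkL lev f b n v x).phi)
            (L n x.1) x.2 ≤ w 1 n v * B.d n ^ (-(C * ((v : ℝ) - u)) - ε) := by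
  set T : Type := {p : ℚ × ℚ × ℕ // 0 ≤ p.1 ∧ p.1 < p.2.1 ∧ p.2.1 ≤ 1} with hTd
  have hTc : Countable T := by rw [hTd]; infer_instance
  have hTn : Nonempty T := ⟨⟨(0, 1, 0), le_rfl, by norm_num, le_rfl⟩⟩
  obtain ⟨en, hen⟩ := exists_surjective_nat T
  obtain ⟨J, hJI, hJd, hJ⟩ := exists_avoid (B := B) (I := I)
    (fun j n x => ∀ σ : ℝ, Sg σ →
      w 1 n (en j).1.2.1 * B.d n ^ (-(C * (((en j).1.2.1 : ℝ) - (en j).1.1)) -
        1 / (((en j).1.2.2 : ℝ) + 1)) ≤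
        dsc (w 0 n (en j).1.2.1) (rho (lev n (en j).1.2.1)) (mkL lev f b n (en j).1.1 x).phi
          (sm σ (mkL lev f b n (en j).1.2.1 x).phi) (L n x.1) x.2)
    (fun j => hT (en j).1.1 (en j).1.2.1 (en j).2.1 (en j).2.2.1 (en j).2.2.2 _ (by positivity))
  refine ⟨J, hJI, hJd, fun u v h0 huv h1 ε hε => ?_⟩
  obtain ⟨k, hk⟩ := exists_nat_one_div_lt hε
  obtain ⟨j, hj⟩ := hen ⟨(u, v, k), h0, huv, h1⟩
  have h2 := hJ j
  rw [hj] at h2
  filter_upwards [h2, hpos v (h0.trans huv.le) h1] with n hn hw x hx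
  have h3 := hn x hx
  push Not at h3
  obtain ⟨σ, hσ, h4⟩ := h3
  refine ⟨σ, hσ, h4.le.trans (mul_le_mul_of_nonneg_left (dpow_le B n ?_) hw.le)⟩
  linarith

/-- **the normalised tilt** -/
theorem tilt_norm (h : MkA B I G lev A c Λ τ f b vm w) (hG : IsL G L r) {C : ℝ}
    (hT : TiltL B I L lev f b w C) (hThin : Thin B w) {a : Fin 2}
    (hax : ∀ᶠ n in (U : Filter ℕ), ∀ x ∈ I n, 6 / 10 ≤ |grr (mkL lev f b n 1 x).phi (L n x.1) a|) :
    ∃ J : ℕ → Finset (ℕ × ℝ), (∀ n, J n ⊆ I n) ∧ Dense B J I ∧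
      (∀ v : ℚ, 0 ≤ v → v ≤ 1 → ∀ᶠ n in (U : Filter ℕ), ∀ x ∈ J n,
        59 / 100 ≤ |grr (mkL lev f b n v x).phi (L n x.1) a|) ∧
      ∀ u v : ℚ, 0 ≤ u → u < v → v ≤ 1 → ∀ ε : ℝ, 0 < ε → ∀ᶠ n in (U : Filter ℕ), ∀ x ∈ J n,
        dsc (w 0 n v) (rho (lev n v)) (psi lev f b a n u x) (psi lev f b a n v x) (L n x.1) x.2 ≤
          w 1 n v * B.d n ^ (-(C * ((v : ℝ) - u)) - ε) := by
  have hpos : ∀ v : ℚ, 0 ≤ v → v ≤ 1 → ∀ᶠ n in (U : Filter ℕ), 0 < w 1 n v :=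
    fun v h0 h1 => h.wpos 1 v h0 h1
  have hpos0 : ∀ v : ℚ, 0 ≤ v → v ≤ 1 → ∀ᶠ n in (U : Filter ℕ), 0 < w 0 n v :=
    fun v h0 h1 => h.wpos 0 v h0 h1
  obtain ⟨J, hJI, hJd, hJ⟩ := tilt_dense h hT hpos
  -- up to sign the functions are close
  have hclose : ∀ u v : ℚ, 0 ≤ u → u < v → v ≤ 1 → ∀ ε : ℝ, 0 < ε → ∀ᶠ n in (U : Filter ℕ),
      ∀ x ∈ J n, ∃ σ : ℝ, Sg σ ∧
        dsc (w 0 n v) (rho (lev n v)) (mkL lev f b n u x).phi (sm σ (mkL lev f b n v x).phi)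
          (L n x.1) x.2 ≤ w 1 n v * B.d n ^ (-(C * ((v : ℝ) - u)) - ε) ∧
        ‖grr (dif (mkL lev f b n u x).phi (sm σ (mkL lev f b n v x).phi)) (L n x.1)‖ ≤ 1 / 100 := by
    intro u v h0 huv h1 ε hε
    have hv0 : 0 ≤ v := h0.trans huv.le
    filter_upwards [hJ u v h0 huv h1 ε hε, hpos v hv0 h1, hpos0 v hv0 h1,
      hThin (1 + (C * ((v : ℝ) - u)) + ε) v hv0 h1,
      dpow_small B one_pos (ε := 1 / 100) (by norm_num)] with n a1 a2 a3 a4 a5 x hx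
    obtain ⟨σ, hσ, h4⟩ := a1 x hx
    refine ⟨σ, hσ, h4, ?_⟩
    have h5 := (slots_of_dsc a3 (rho_pos' _) h4).1
    refine h5.trans ?_
    rw [div_le_iff₀ a3]
    have h6 : w 1 n v * B.d n ^ (-(C * ((v : ℝ) - u)) - ε) ≤
        (B.d n ^ (1 + (C * ((v : ℝ) - u)) + ε) * w 0 n v) *
          B.d n ^ (-(C * ((v : ℝ) - u)) - ε) :=
      mul_le_mul_of_nonneg_right a4 (dpow_pos B n _).le
    have e6 : (B.d n ^ (1 + (C * ((v : ℝ) - u)) + ε) * w 0 n v) *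
        B.d n ^ (-(C * ((v : ℝ) - u)) - ε) = B.d n ^ (1 : ℝ) * w 0 n v := by
      have : B.d n ^ (1 : ℝ) = B.d n ^ (1 + (C * ((v : ℝ) - u)) + ε) *
          B.d n ^ (-(C * ((v : ℝ) - u)) - ε) := by
        rw [← dpow_add]; congr 1; ring
      rw [this]; ring
    rw [e6] at h6
    exact h6.trans (mul_le_mul_of_nonneg_right a5.le a3.le)
  -- the component of every level is large
  have hlarge : ∀ v : ℚ, 0 ≤ v → v ≤ 1 → ∀ᶠ n in (U : Filter ℕ), ∀ x ∈ J n,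
      59 / 100 ≤ |grr (mkL lev f b n v x).phi (L n x.1) a| := by
    intro v h0 h1
    rcases h1.eq_or_lt with rfl | hlt
    · filter_upwards [hax] with n hn x hx
      have := hn x (hJI n hx)
      linarith
    · filter_upwards [hax, hclose v 1 h0 hlt le_rfl 1 one_pos] with n hn h2 x hx
      have h3 := hn x (hJI n hx)
      obtain ⟨σ, hσ, -, h4⟩ := h2 x hx
      rw [dif_grr, sm_grr] at h4
      have h5 : |(grr (mkL lev f b n v x).phi (L n x.1) -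
          σ • grr (mkL lev f b n 1 x).phi (L n x.1)) a| ≤ 1 / 100 := by
        refine le_trans ?_ h4
        fin_cases a
        · exact abs0_le _
        · exact abs1_le _
      rw [PiLp.sub_apply, PiLp.smul_apply, smul_eq_mul] at h5
      have h6 := abs_sub_abs_le_abs_sub (σ * grr (mkL lev f b n 1 x).phi (L n x.1) a)
        (grr (mkL lev f b n v x).phi (L n x.1) a)
      rw [abs_mul, hσ.abs, one_mul, abs_sub_comm] at h6
      linarith
  refine ⟨J, hJI, hJd, hlarge, ?_⟩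
  intro u v h0 huv h1 ε hε
  have hv0 : 0 ≤ v := h0.trans huv.le
  have hu1 : u ≤ 1 := huv.le.trans h1
  filter_upwards [hclose u v h0 huv h1 ε hε, hlarge u h0 hu1, mark_L h hG h0 hu1,
    mark_L h hG hv0 h1] with n a1 a2 a3 a4 x hx
  obtain ⟨σ, hσ, h4, h5⟩ := a1 x hx
  have b2 := a2 x hx
  have m1 := a3 x (hJI n hx)
  have m2 := a4 x (hJI n hx)
  have hM : kM0 = 1 / 100 := rfl
  have key := sgn_cons m1.ok m2.ok (bray_mem m1.ray) (bray_mem m2.ray) m1.ray m2.ray hσ h5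
    (a := a) (by rw [hM]; linarith) (by linarith)
  unfold psi psm
  rw [key]
  set t := nsg a (mkL lev f b n v x).phi (bray (mkL lev f b n v x)) with ht
  have ht' : Sg t := nsg_sg _ _ _
  have e1 : sm t (mkL lev f b n v x).phi = sm (t * σ) (sm σ (mkL lev f b n v x).phi) := by
    rw [sm_sm, mul_assoc, hσ.sq, mul_one]
  rw [e1, dsc_sm (ht'.mul hσ)]
  exact h4

end tilt

/-! ### closeness to the end level -/

section ends

variable {r : ℕ → ℝ} {L : ℕ → ℕ → LRay} {B : Base} {I : ℕ → Finset (ℕ × ℝ)}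
    {G : Geo SL (Fin 2)} {lev : ℕ → ℚ → ℕ} {A : ℕ → ℝ} {g s : ℝ} {θ : Fin 2 → ℝ}
    {f : ℕ → ℚ → ℕ → ℤ → ℕ} {b : ℕ → ℚ → ℕ → SL} {vm : ℕ → ℚ → ℝ} {w : Fin 2 → ℕ → ℚ → ℝ}

/-- **closeness to the end level** -/
def EndClose (I : ℕ → Finset (ℕ × ℝ)) (B : Base) (L : ℕ → ℕ → LRay) (lev : ℕ → ℚ → ℕ)
    (f : ℕ → ℚ → ℕ → ℤ → ℕ) (b : ℕ → ℚ → ℕ → SL) (w : Fin 2 → ℕ → ℚ → ℝ) (θ : Fin 2 → ℝ)
    (a : Fin 2) : Prop :=
  ∀ k : Fin 12, FS k → ∀ v : ℚ, 0 ≤ v → v ≤ 1 → ∀ ε : ℝ, 0 < ε → ∀ᶠ n in (U : Filter ℕ),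
    ∀ x ∈ I n, slt k (psi lev f b a n (lvl (βL (θ 0) (θ 1) k)) x) (psi lev f b a n v x)
      (L n x.1) x.2 ≤ prN lev w k n v * B.d n ^ (-ε)

/-- the three slots from the distance, against the precision -/
theorem slt_le {W T ρ e : ℝ} (hW : 0 < W) (hρ : 0 < ρ) {p q : Cf E2} {r : LRay} {z : ℝ}
    (h : dsc W ρ p q r z ≤ T * e) {k : Fin 12} (hk : FS k) :
    slt k p q r z ≤ uL ρ (W / ρ) (T / ρ) k * e := by
  obtain ⟨h1, h2, h3⟩ := slots_of_dsc hW hρ h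
  rcases hk with rfl | rfl | rfl | rfl
  · show |(dif p q).d| ≤ (T / ρ) / ((W / ρ) ^ 2 * ρ) * e
    refine h3.trans (le_of_eq ?_)
    field_simp
  · show |(dif p q).ny z| ≤ (T / ρ) / (W / ρ) ^ 2 * e
    refine h2.trans (le_of_eq ?_)
    field_simp
  · show ‖grr (dif p q) r‖ ≤ (T / ρ) / (W / ρ) * e
    refine h1.trans (le_of_eq ?_)
    field_simp
  · show ‖grr (dif p q) r‖ ≤ (T / ρ) / (W / ρ) * e
    refine h1.trans (le_of_eq ?_)
    field_simp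

theorem lvl_mem (t : ℝ) : 0 ≤ lvl t ∧ lvl t ≤ 1 := by
  unfold lvl
  split_ifs
  · exact ⟨zero_le_one, le_rfl⟩
  · exact ⟨le_rfl, zero_le_one⟩

/-- **thin marks** -/
theorem endClose (h : MkA B I G lev A (fun v => g * v) (fun v => s * v)
    (fun j v => θ j * (1 - v)) f b vm w) {a : Fin 2} {C : ℝ} {J : ℕ → Finset (ℕ × ℝ)}
    (hT : ∀ u v : ℚ, 0 ≤ u → u < v → v ≤ 1 → ∀ ε : ℝ, 0 < ε → ∀ᶠ n in (U : Filter ℕ), ∀ x ∈ J n,
        dsc (w 0 n v) (rho (lev n v)) (psi lev f b a n u x) (psi lev f b a n v x) (L n x.1) x.2 ≤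
          w 1 n v * B.d n ^ (-(C * ((v : ℝ) - u)) - ε)) :
    EndClose J B L lev f b w θ a := by
  intro k hk v h0 h1 ε hε
  set S : ℕ → ℚ → ℚ → ℕ × ℝ → ℝ := fun n u v x =>
    slt k (psi lev f b a n u x) (psi lev f b a n v x) (L n x.1) x.2 with hS
  have hstep : ∀ u v : ℚ, 0 ≤ u → u < v → v ≤ 1 → ∀ ε : ℝ, 0 < ε → ∀ᶠ n in (U : Filter ℕ), ∀ x,
      x ∈ J n → S n u v x ≤ prN lev w k n v * B.d n ^ (-(C * ((v : ℝ) - u)) - ε) := by
    intro u v hu huv hv ε hε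
    filter_upwards [hT u v hu huv hv ε hε, h.wpos 0 v (hu.trans huv.le) hv] with n a1 a2 x hx
    exact slt_le a2 (rho_pos' _) (a1 x hx) hk
  have hTpos : ∀ᶠ n in (U : Filter ℕ), 0 ≤ prN lev w k n v := by
    filter_upwards [ev_prN_pos h h0 h1] with n hn using (hn k).le
  unfold lvl
  split_ifs with hβ
  · -- from `v` to `1`
    have key := mesh (B := B) (J := fun n x => x ∈ J n) (S := S) (pr := fun n u => prN lev w k n u)
      (C := C) (fun n u x => slt_self _ _ _ _) (fun n u v o x => slt_tri _ _ _ _ _ _) hstep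
      h0 h1 le_rfl hTpos (fun u hu hu1 δ hδ => prN_end h (h0.trans hu) hu1 h0 h1
        (mul_nonneg hβ.le (by
          have : (v : ℝ) ≤ u := by exact_mod_cast hu
          linarith)) hδ) hε
    filter_upwards [key] with n hn x hx
    rw [slt_symm]
    exact hn x hx
  · -- from `0` to `v`
    have key := mesh (B := B) (J := fun n x => x ∈ J n) (S := S) (pr := fun n u => prN lev w k n u)
      (C := C) (fun n u x => slt_self _ _ _ _) (fun n u v o x => slt_tri _ _ _ _ _ _) hstep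
      le_rfl h0 h1 hTpos (fun u hu hu1 δ hδ => prN_end h hu (hu1.trans h1) h0 h1
        (mul_nonneg_of_nonpos_of_nonpos (not_lt.1 hβ) (by
          have : (u : ℝ) ≤ v := by exact_mod_cast hu1
          linarith)) hδ) hε
    filter_upwards [key] with n hn x hx using hn x hx

end ends

end Crest.Agent.R116.KF439
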