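import Crest.Agent.R116.KF5_439

/-!
# R116 (K side), K7 FLAG-L, part 6 (helper439): `TSys` over the light-ray chart

* `spN`, `scN` : precisions of one level, made positive; walls, rates.
* `tsys_mk` : closeness in all slots ⊢ `TSys PL G g s θ (βL (θ 0) (θ 1)) B J lev A f b vm w fr prN fl scN`.
* `tsys_thin` : composite flags (thin marks, tilt).
* `tsys_thick` : flat flags (round marks, no tilt).
* `inv_thin`, `inv_thick` : slots of rate `≤ 0` are constant along the lines.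
-/

set_option autoImplicit false
set_option linter.unusedVariables false

open Finset Filter Topology

namespace Crest.Agent.R116.KF439

open Crest.Agent.R138.Defs (E2)
open Crest.Agent.R138.Ex926
open Crest.Agent.R138.Dp76
open Crest.Agent.R138.Ps926 (dpow_small)
open Crest.Agent.R138.Mk163 (zc zl rho alive own Negl)
open Crest.Agent.R138.MkRef627 (lc kc mem_alive)
open Crest.Agent.R136.MkA627
open Crest.Agent.R136.Net191 (Mons Chart)
open Crest.Agent.R136.TD627 (TDist TSys InvT NearE WallE)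
open Crest.Agent.R116.LZg725
open Crest.Agent.R116.ChL222
open Crest.Agent.R116.Bm903
open Crest.Agent.R116.KI439
open Crest.Agent.R116.PL504

/-! ### precisions of one level, made positive -/

/-- precision of level `v`, made positive -/
noncomputable def spN (lev : ℕ → ℚ → ℕ) (w : Fin 2 → ℕ → ℚ → ℝ) (v : ℚ) (k : Fin 12) (n : ℕ) : ℝ :=
  uL (rho (lev n v)) (ps (w 0 n v / rho (lev n v))) (ps (w 1 n v / rho (lev n v))) k

theorem spN_pos (lev : ℕ → ℚ → ℕ) (w : Fin 2 → ℕ → ℚ → ℝ) (v : ℚ) (k : Fin 12) (n : ℕ) :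
    0 < spN lev w v k n := uL_pos (rho_pos _) (ps_pos _) (ps_pos _) k

theorem spN_eq {lev : ℕ → ℚ → ℕ} {w : Fin 2 → ℕ → ℚ → ℝ} {v : ℚ} {n : ℕ} (h0 : 0 < w 0 n v)
    (h1 : 0 < w 1 n v) (k : Fin 12) : spN lev w v k n = prN lev w k n v := by
  unfold spN prN
  rw [ps_eq (div_pos h0 (rho_pos _)), ps_eq (div_pos h1 (rho_pos _))]

/-- scales of the system: the precisions of level `0` -/
noncomputable def scN (lev : ℕ → ℚ → ℕ) (w : Fin 2 → ℕ → ℚ → ℝ) (k : Fin 12) (n : ℕ) : ℝ :=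
  spN lev w 0 k n

theorem dpow_neg_ge (B : Base) (n : ℕ) {ε : ℝ} (hε : 0 ≤ ε) : 1 ≤ B.d n ^ (-ε) := by
  have h := dpow_le B n (a := -ε) (b := 0) (by linarith)
  rwa [Real.rpow_zero] at h

/-- the walls of one level -/
theorem spN_wall (B : Base) (lev : ℕ → ℚ → ℕ) (w : Fin 2 → ℕ → ℚ → ℝ) (v : ℚ) :
    WallE PL B (spN lev w v) (fun _ => 0) := by
  intro j a ha ε hε
  refine Eventually.of_forall fun n => ?_
  simp only [Real.rpow_zero, mul_one, zero_sub]
  have e : ∏ t, spN lev w v t n ^ a t = spN lev w v j n :=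
    uL_mon (rho_pos _) (ps_pos _) (ps_pos _) j ha
  rw [e]
  exact le_mul_of_one_le_right (spN_pos lev w v j n).le (dpow_neg_ge B n hε.le)

section sys

variable {L : ℕ → ℕ → LRay} {B : Base} {I J : ℕ → Finset (ℕ × ℝ)}
    {G : Geo SL (Fin 2)} {lev : ℕ → ℚ → ℕ} {A : ℕ → ℝ} {g s : ℝ} {θ : Fin 2 → ℝ}
    {f : ℕ → ℚ → ℕ → ℤ → ℕ} {b : ℕ → ℚ → ℕ → SL} {vm : ℕ → ℚ → ℝ} {w : Fin 2 → ℕ → ℚ → ℝ}
    {fr : ℕ → ℚ → ℕ × ℝ → LInc} {fl : ℕ → ℕ × ℝ → LInc}

/-- rates of the precisions -/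
theorem prN_rate (h : MkA B J G lev A (fun v => g * v) (fun v => s * v)
    (fun j v => θ j * (1 - v)) f b vm w) (k : Fin 12) {v : ℚ} (h0 : 0 ≤ v) (h1 : v ≤ 1) :
    Tendsto (fun n => Real.log (scN lev w k n / prN lev w k n v) / B.L n) U
      (𝓝 (βL (θ 0) (θ 1) k * v)) := by
  rw [Metric.tendsto_nhds]
  intro ε hε
  filter_upwards [prN_cmp h le_rfl zero_le_one h0 h1 (half_pos hε),
    prN_cmp h h0 h1 le_rfl zero_le_one (half_pos hε), ev_prN_pos h h0 h1,
    ev_prN_pos h le_rfl zero_le_one, h.wpos 0 0 le_rfl zero_le_one,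
    h.wpos 1 0 le_rfl zero_le_one] with n a1 a2 a3 a4 a5 a6
  have b1 := a1 k
  have b2 := a2 k
  have p3 := a3 k
  have p4 := a4 k
  have hL := B.L_pos n
  unfold scN
  rw [spN_eq a5 a6, Real.log_div p4.ne' p3.ne', Real.dist_eq]
  have c1 := Real.log_le_log p4 b1
  have c2 := Real.log_le_log p3 b2
  rw [Real.log_mul p3.ne' (dpow_pos B n _).ne', Crest.Agent.R138.ArgM163.log_dpow] at c1
  rw [Real.log_mul p4.ne' (dpow_pos B n _).ne', Crest.Agent.R138.ArgM163.log_dpow] at c2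
  rw [Rat.cast_zero] at c1 c2
  rw [abs_lt]
  constructor
  · rw [lt_sub_iff_add_lt, lt_div_iff₀ hL]
    nlinarith
  · rw [sub_lt_iff_lt_add, div_lt_iff₀ hL]
    nlinarith

/-- **assembly** -/
theorem tsys_mk (h : MkA B J G lev A (fun v => g * v) (fun v => s * v)
    (fun j v => θ j * (1 - v)) f b vm w)
    (hfr : ∀ n v x y, kc (lev n v) (f n v) y = kc (lev n v) (f n v) x → fr n v y = fr n v x)
    (hclose : ∀ k : Fin 12, ∀ v : ℚ, 0 ≤ v → v ≤ 1 → ∀ ε : ℝ, 0 < ε → ∀ᶠ n in (U : Filter ℕ),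
      ∀ x ∈ J n, |coL (fl n x) (fr n v x) k| ≤ prN lev w k n v * B.d n ^ (-ε)) :
    TSys PL G g s θ (βL (θ 0) (θ 1)) B J lev A f b vm w fr (prN lev w) fl (scN lev w) where
  mka := h
  scpos := fun k n => spN_pos lev w 0 k n
  prpos := fun k v h0 h1 => by
    filter_upwards [ev_prN_pos h h0 h1] with n hn using hn k
  prc := fun k v h0 h1 => prN_rate h k h0 h1
  cell := fun k v h0 h1 ε hε => by
    filter_upwards [ev_prN_pos h h0 h1] with n hn x hx y hy hxy hz
    have e : fr n v y = fr n v x := hfr n v x y (by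
      show (f n v y.1 (zc (lev n v) y.2), zc (lev n v) y.2) =
        (f n v x.1 (zc (lev n v) x.2), zc (lev n v) x.2)
      rw [hxy, hz])
    rw [e, PL_d, coL_self, abs_zero]
    exact mul_nonneg (hn k).le (dpow_pos B n _).le
  close := fun k v h0 h1 ε hε => by
    filter_upwards [hclose k v h0 h1 ε hε] with n hn x hx
    rw [PL_d]
    exact hn x hx
  wpr := fun k a ha v h0 h1 ε hε => by
    filter_upwards [h.wpos 0 v h0 h1, h.wpos 1 v h0 h1] with n a0 a1
    have e : ∏ t, prN lev w t n v ^ a t = prN lev w k n v :=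
      uL_mon (rho_pos _) (div_pos a0 (rho_pos _)) (div_pos a1 (rho_pos _)) k ha
    rw [e]
    exact le_mul_of_one_le_right (prN_pos a0 a1 k).le (dpow_neg_ge B n hε.le)

/-- from closeness through an intermediate flag -/
theorem close_trans (h : MkA B J G lev A (fun v => g * v) (fun v => s * v)
    (fun j v => θ j * (1 - v)) f b vm w) {v : ℚ} (h0 : 0 ≤ v) (h1 : v ≤ 1)
    {p q o : ℕ → ℕ × ℝ → LInc}
    (hpq : ∀ k : Fin 12, ∀ ε : ℝ, 0 < ε → ∀ᶠ n in (U : Filter ℕ),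
      ∀ x ∈ J n, |coL (p n x) (q n x) k| ≤ prN lev w k n v * B.d n ^ (-ε))
    (hqo : ∀ k : Fin 12, ∀ ε : ℝ, 0 < ε → ∀ᶠ n in (U : Filter ℕ),
      ∀ x ∈ J n, |coL (q n x) (o n x) k| ≤ prN lev w k n v * B.d n ^ (-ε))
    (k : Fin 12) {ε : ℝ} (hε : 0 < ε) : ∀ᶠ n in (U : Filter ℕ),
      ∀ x ∈ J n, |coL (p n x) (o n x) k| ≤ prN lev w k n v * B.d n ^ (-ε) := by
  have n1 : NearE PL B (spN lev w v) (fun _ => 0) (fun n x => x ∈ J n) p q := by
    intro k ε hε
    filter_upwards [hpq k ε hε, h.wpos 0 v h0 h1, h.wpos 1 v h0 h1] with n hn a0 a1 x hx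
    rw [PL_d, spN_eq a0 a1, zero_sub]
    exact hn x hx
  have n2 : NearE PL B (spN lev w v) (fun _ => 0) (fun n x => x ∈ J n) q o := by
    intro k ε hε
    filter_upwards [hqo k ε hε, h.wpos 0 v h0 h1, h.wpos 1 v h0 h1] with n hn a0 a1 x hx
    rw [PL_d, spN_eq a0 a1, zero_sub]
    exact hn x hx
  have n3 := n1.trans (spN_wall B lev w v) (fun k n => spN_pos lev w v k n) n2
  filter_upwards [n3 k ε hε, h.wpos 0 v h0 h1, h.wpos 1 v h0 h1] with n hn a0 a1 x hx
  have := hn x hx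
  rwa [PL_d, spN_eq a0 a1, zero_sub] at this

end sys

/-! ### composite flags -/

section thin

variable {r : ℕ → ℝ} {L : ℕ → ℕ → LRay} {B : Base} {I J : ℕ → Finset (ℕ × ℝ)}
    {G : Geo SL (Fin 2)} {lev : ℕ → ℚ → ℕ} {A : ℕ → ℝ} {g s : ℝ} {θ : Fin 2 → ℝ}
    {f : ℕ → ℚ → ℕ → ℤ → ℕ} {b : ℕ → ℚ → ℕ → SL} {vm : ℕ → ℚ → ℝ} {w : Fin 2 → ℕ → ℚ → ℝ}
    {a : Fin 2}

/-- the composite flags of the system -/
noncomputable def flT (lev : ℕ → ℚ → ℕ) (f : ℕ → ℚ → ℕ → ℤ → ℕ) (b : ℕ → ℚ → ℕ → SL) (a : Fin 2)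
    (θ : Fin 2 → ℝ) (L : ℕ → ℕ → LRay) : ℕ → ℕ × ℝ → LInc :=
  flL lev f b a L (βL (θ 0) (θ 1) 7) (βL (θ 0) (θ 1) 2) (βL (θ 0) (θ 1) 1)

theorem close_thin (h : MkA B J G lev A (fun v => g * v) (fun v => s * v)
    (fun j v => θ j * (1 - v)) f b vm w) (hG : IsL G L r)
    (hE : EndClose J B L lev f b w θ a) (k : Fin 12) (v : ℚ) (h0 : 0 ≤ v) (h1 : v ≤ 1) (ε : ℝ)
    (hε : 0 < ε) : ∀ᶠ n in (U : Filter ℕ), ∀ x ∈ J n,
      |coL (flT lev f b a θ L n x) (frL lev f b a n v x) k| ≤ prN lev w k n v * B.d n ^ (-ε) := by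
  refine close_trans h h0 h1 (q := fun n x => toL (L n x.1) x.2 (psi lev f b a n v x)) ?_ ?_ k hε
  · intro k ε hε
    filter_upwards [hE 1 (Or.inl rfl) v h0 h1 ε hε, hE 2 (Or.inr (Or.inl rfl)) v h0 h1 ε hε,
      hE 7 (Or.inr (Or.inr (Or.inl rfl))) v h0 h1 ε hε, ev_prN_pos h h0 h1] with n a1 a2 a7 a0 x hx
    have c1 := a1 x hx
    have c2 := a2 x hx
    have c7 := a7 x hx
    have key := comp_close (r := L n x.1) (z := x.2) (p := psi lev f b a n v x) c7 c2 c1 k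
    refine key.trans ?_
    have hp := dpow_pos B n (-ε)
    have hk : ∀ k, 0 ≤ prN lev w k n v * B.d n ^ (-ε) := fun k => mul_nonneg (a0 k).le hp.le
    have e8 : prN lev w 8 n v = prN lev w 7 n v := rfl
    fin_cases k
    · exact hk 0
    · exact le_rfl
    · exact le_rfl
    · exact hk 3
    · exact hk 4
    · exact hk 5
    · exact hk 6
    · exact le_rfl
    · exact le_of_eq (by rw [← e8]; rfl)
    · exact hk 9
    · exact hk 10
    · exact hk 11
  · intro k ε hε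
    filter_upwards [mark_L h hG h0 h1, ev_prN_pos h h0 h1,
      dpow_small B hε (ε := 1 / 4) (by norm_num)] with n a1 a2 a3 x hx
    have c1 := base_close (ax := a) (a1 x hx) k
    refine c1.trans ?_
    have hp := dpow_pos B n ε
    have h4 : 4 ≤ B.d n ^ (-ε) := by
      rw [Real.rpow_neg (B.pos n).le, le_inv_comm₀ (by norm_num) hp]
      linarith
    have := mul_le_mul_of_nonneg_left h4 (a2 k).le
    linarith

/-- **`TSys` with composite flags** -/
theorem tsys_thin (h : MkA B J G lev A (fun v => g * v) (fun v => s * v)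
    (fun j v => θ j * (1 - v)) f b vm w) (hG : IsL G L r)
    (hE : EndClose J B L lev f b w θ a) :
    TSys PL G g s θ (βL (θ 0) (θ 1)) B J lev A f b vm w (frL lev f b a) (prN lev w)
      (flT lev f b a θ L) (scN lev w) :=
  tsys_mk h (fun n v x y hxy => frL_kc lev f b a n v x y hxy) fun k v h0 h1 ε hε =>
    close_thin h hG hE k v h0 h1 ε hε

theorem ny_move (p : Cf E2) (z z' : ℝ) : p.ny z' - p.ny z + 2 * p.d * (z' - z) = 0 := by
  unfold Cf.ny; ring

/-- the ray slots vanish on a line -/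
theorem comp_line {r : LRay} {z z' : ℝ} {pB pE pD pB' pE' pD' : Cf E2} {k : Fin 12}
    (h0 : k ≠ 0) (h1 : k = 1 → pD' = pD) (h2 : k = 2 → pE' = pE ∧ pD = pE)
    (h7 : k = 7 ∨ k = 8 → pB' = pB) :
    coL (comp r z pB pE pD) (comp r z' pB' pE' pD') k = 0 := by
  fin_cases k
  · exact absurd rfl h0
  · have := h1 rfl
    subst this
    simp [coL, comp]
  · obtain ⟨e1, e2⟩ := h2 rfl
    rw [e1, e2]
    have := ny_move pE z z'
    simpa [coL, comp] using this
  · simp [coL, comp]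
  · simp [coL, comp]
  · simp [coL, comp, LInc.p1, LInc.p2]
  · simp [coL, comp, LInc.p1, LInc.p2]
  · have := h7 (Or.inl rfl)
    subst this
    simp [coL, comp, LInc.p1, LInc.p2]
  · have := h7 (Or.inr rfl)
    subst this
    simp [coL, comp, LInc.p1, LInc.p2]
  · simp [coL, comp, nuL, LInc.p1, LInc.p2, LInc.ph]
  · simp [coL, comp, nuL, LInc.p1, LInc.p2, LInc.ph]
  · simp [coL, comp, nuL, LInc.p1, LInc.p2, LInc.ph]

theorem lvl_zero {t : ℝ} (h : t ≤ 0) : lvl t = 0 := if_neg (not_lt.2 h)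

theorem βL_one (θa θb : ℝ) : βL θa θb 1 = βL θa θb 2 - 1 := by
  show (-θb) - 2 * (-θa) - 1 = (-θb) - 2 * (-θa) - 1
  rfl

/-- **slots of rate at most `0` are constant along the lines** -/
theorem inv_thin (h : MkA B J G lev A (fun v => g * v) (fun v => s * v)
    (fun j v => θ j * (1 - v)) f b vm w) (k : Fin 12) (hk : k ≠ 0)
    (hβ : FS k → βL (θ 0) (θ 1) k ≤ 0) (sc : ℕ → ℝ) (hsc : ∀ n, 0 < sc n) :
    InvT PL B J k (flT lev f b a θ L) sc := by
  intro M
  filter_upwards [h.cell0] with n hn x hx y hy hxy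
  have hz := hn y hy x hx
  have e0 : psi lev f b a n 0 y = psi lev f b a n 0 x := by
    unfold psi mkL
    rw [hxy, hz]
  have key : coL (flT lev f b a θ L n x) (flT lev f b a θ L n y) k = 0 := by
    unfold flT flL
    rw [hxy]
    refine comp_line hk (fun e => ?_) (fun e => ?_) fun e => ?_
    · subst e
      rw [lvl_zero (hβ (Or.inl rfl)), e0]
    · subst e
      have h2 := hβ (Or.inr (Or.inl rfl))
      have h1 : βL (θ 0) (θ 1) 1 ≤ 0 := by rw [βL_one]; linarith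
      rw [lvl_zero h2, lvl_zero h1, e0]
      exact ⟨rfl, rfl⟩
    · have h7 : βL (θ 0) (θ 1) 7 ≤ 0 := by
        rcases e with e | e
        · subst e
          exact hβ (Or.inr (Or.inr (Or.inl rfl)))
        · subst e
          exact hβ (Or.inr (Or.inr (Or.inr rfl)))
      rw [lvl_zero h7, e0]
  rw [PL_d, key, abs_zero]
  exact mul_nonneg (hsc n).le (dpow_pos B n _).le

end thin

end Crest.Agent.R116.KF439
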