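import Mathlib
import Crest.Agent.R136.TD3_627

/-!
# R116, [ROT-LIN] (helper899), part 1: alignment of a real function with affine functions

`Gf n x` = real function of the incidences (for R116 the primitive of the own rotation of the slot `E`
along the line, in a fixed gauge of the slot `D`).  Either a dense marked part is aligned, in every
(line, cell of level `u`), with ONE affine function of the height up to `3 sc d^r`, `r > ρ u`, or on a
dense marked part NO affine function fits more than a `d^γ`-part of a (line, cell) to such a scale.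
-/

set_option autoImplicit false
set_option linter.unusedVariables false
set_option linter.unusedSectionVars false

open Finset Filter Topology

namespace Crest.Agent.R116.Rl899

open Crest.Agent.R138.Ex926
open Crest.Agent.R138.Dp76
open Crest.Agent.R138.Ps926
open Crest.Agent.R138.Mk163 (zc zl rho alive own Negl)
open Crest.Agent.R138.MkRef774 (pl nu nu_pos)
open Crest.Agent.R138.Rot76 (al nu_eq)
open Crest.Agent.R136.MkA627
open Crest.Agent.R136.ExR779 (line_cell)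

section main

variable {σ κ : Type*} {B : Base} {I : ℕ → Finset (ℕ × ℝ)} {G : Geo σ κ}
    {lev : ℕ → ℚ → ℕ} {A : ℕ → ℝ} {c Λ : ℝ → ℝ} {τ : κ → ℝ → ℝ} {f : ℕ → ℚ → ℕ → ℤ → ℕ}
    {b : ℕ → ℚ → ℕ → σ} {vm : ℕ → ℚ → ℝ} {w : κ → ℕ → ℚ → ℝ} {Gf : ℕ → ℕ × ℝ → ℝ} {sc : ℕ → ℝ}

/-- deviation of `y` from the affine function of slope `a` through `x` -/
def dev (Gf : ℕ → ℕ × ℝ → ℝ) (n : ℕ) (x : ℕ × ℝ) (a : ℝ) (y : ℕ × ℝ) : ℝ :=
  Gf n y - Gf n x - a * (y.2 - x.2)

open Classical in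
/-- incidences of `J` in the (line, cell) of `x` close to the affine function of slope `a` through
`x` -/
noncomputable def cntL (B : Base) (lev : ℕ → ℚ → ℕ) (Gf : ℕ → ℕ × ℝ → ℝ) (sc : ℕ → ℝ) (u r : ℚ)
    (n : ℕ) (J : Finset (ℕ × ℝ)) (x : ℕ × ℝ) (a : ℝ) : ℕ :=
  ((cls J (pl (lev n u)) x).filter fun y => |dev Gf n x a y| ≤ sc n * B.d n ^ (r : ℝ)).card

/-- the set of all such numbers -/
def setL (B : Base) (lev : ℕ → ℚ → ℕ) (Gf : ℕ → ℕ × ℝ → ℝ) (sc : ℕ → ℝ) (u r : ℚ)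
    (n : ℕ) (J : Finset (ℕ × ℝ)) : Set ℕ :=
  {k | ∃ x ∈ J, ∃ a : ℝ, k = cntL B lev Gf sc u r n J x a}

/-- the largest such number -/
noncomputable def PhiL (B : Base) (lev : ℕ → ℚ → ℕ) (Gf : ℕ → ℕ × ℝ → ℝ) (sc : ℕ → ℝ) (u r : ℚ)
    (n : ℕ) (J : Finset (ℕ × ℝ)) : ℝ := ((sSup (setL B lev Gf sc u r n J) : ℕ) : ℝ)

theorem cntL_le_cls {u r : ℚ} {n : ℕ} {J : Finset (ℕ × ℝ)} (x : ℕ × ℝ) (a : ℝ) :
    cntL B lev Gf sc u r n J x a ≤ (cls J (pl (lev n u)) x).card := by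
  classical
  unfold cntL
  exact card_le_card (filter_subset _ _)

theorem setL_bdd (u r : ℚ) (n : ℕ) (J : Finset (ℕ × ℝ)) : BddAbove (setL B lev Gf sc u r n J) := by
  refine ⟨J.card, ?_⟩
  rintro k ⟨x, hx, a, rfl⟩
  exact (cntL_le_cls x a).trans (card_le_card (filter_subset _ _))

theorem cntL_le_PhiL {u r : ℚ} {n : ℕ} {J : Finset (ℕ × ℝ)} {x : ℕ × ℝ} (hx : x ∈ J) (a : ℝ) :
    (cntL B lev Gf sc u r n J x a : ℝ) ≤ PhiL B lev Gf sc u r n J := by
  unfold PhiL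
  exact_mod_cast le_csSup (setL_bdd u r n J) ⟨x, hx, a, rfl⟩

theorem PhiL_le {u r : ℚ} {n : ℕ} {J : Finset (ℕ × ℝ)} {X : ℝ} (hX : 0 ≤ X)
    (h : ∀ x ∈ J, ∀ a : ℝ, (cntL B lev Gf sc u r n J x a : ℝ) ≤ X) :
    PhiL B lev Gf sc u r n J ≤ X := by
  unfold PhiL
  rcases (setL B lev Gf sc u r n J).eq_empty_or_nonempty with h0 | h0
  · rw [h0, csSup_empty]
    simpa using hX
  · obtain ⟨x, hx, a, e⟩ := Nat.sSup_mem h0 (setL_bdd u r n J)
    rw [e]
    exact h x hx a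

theorem cntL_mono {u r : ℚ} {n : ℕ} {J J' : Finset (ℕ × ℝ)} (h : J ⊆ J') (x : ℕ × ℝ) (a : ℝ) :
    cntL B lev Gf sc u r n J x a ≤ cntL B lev Gf sc u r n J' x a := by
  classical
  unfold cntL
  refine card_le_card fun y hy => ?_
  rw [mem_filter, mem_cls] at hy ⊢
  exact ⟨⟨h hy.1.1, hy.1.2⟩, hy.2⟩

theorem one_le_cntL {u r : ℚ} {n : ℕ} {J : Finset (ℕ × ℝ)} (hsc : ∀ n, 0 < sc n) {x : ℕ × ℝ}
    (hx : x ∈ J) (a : ℝ) : 1 ≤ cntL B lev Gf sc u r n J x a := by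
  classical
  unfold cntL
  refine card_pos.2 ⟨x, mem_filter.2 ⟨?_, ?_⟩⟩
  · rw [mem_cls]; exact ⟨hx, rfl⟩
  · unfold dev
    have e : Gf n x - Gf n x - a * (x.2 - x.2) = 0 := by ring
    rw [e, abs_zero]
    exact (mul_pos (hsc n) (dpow_pos B n _)).le

theorem monoF_PhiL (hM : MkA B I G lev A c Λ τ f b vm w) (hsc : ∀ n, 0 < sc n) (u r : ℚ) :
    MonoF B I (fun n J => PhiL B lev Gf sc u r n J) := by
  classical
  refine ⟨Eventually.of_forall fun n J J' hJ h h2 => ?_, 2, ?_⟩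
  · refine PhiL_le ?_ fun x hx a => ?_
    · unfold PhiL; positivity
    · refine le_trans ?_ (cntL_le_PhiL (h hx) a)
      exact_mod_cast cntL_mono h x a
  · filter_upwards [line_cell hM (v := 0) le_rfl (by norm_num) one_pos, hM.cell0]
      with n h1 h0 J hJ hJI
    constructor
    · obtain ⟨x, hx⟩ := hJ
      have a1 : (1 : ℝ) ≤ cntL B lev Gf sc u r n J x 0 := by exact_mod_cast one_le_cntL hsc hx 0
      exact (dpow_le_one B n (by norm_num)).trans (a1.trans (cntL_le_PhiL hx 0))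
    · refine PhiL_le (dpow_pos B n _).le fun x hx a => ?_
      have a1 : (cntL B lev Gf sc u r n J x a : ℝ) ≤ ((cls (I n) (pl (lev n 0)) x).card : ℝ) := by
        have a2 : cntL B lev Gf sc u r n J x a ≤ (cls (I n) (pl (lev n 0)) x).card := by
          refine (cntL_le_cls x a).trans (card_le_card fun y hy => ?_)
          rw [mem_cls] at hy ⊢
          refine ⟨hJI hy.1, Prod.ext (congrArg Prod.fst hy.2 : _) ?_⟩
          exact h0 y (hJI hy.1) x (hJI hx)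
        exact_mod_cast a2
      refine a1.trans ((h1 x (hJI hx)).2.trans ?_)
      unfold nu
      rw [← dpow_add]
      apply dpow_le B n
      have := (hM.lam 0 1 le_rfl zero_le_one le_rfl).1
      push_cast
      linarith

theorem pb_PhiL (hM : MkA B I G lev A c Λ τ f b vm w) (hsc : ∀ n, 0 < sc n) (u r : ℚ) :
    B.PB (fun n => PhiL B lev Gf sc u r n (I n)) :=
  (monoF_PhiL hM hsc u r).pb (Eventually.of_forall fun n => Finset.Subset.refl _) hM.ne

theorem ex_PhiL_le (hM : MkA B I G lev A c Λ τ f b vm w) (hsc : ∀ n, 0 < sc n) {u r : ℚ}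
    (h0 : 0 ≤ u) (h1 : u ≤ 1) : B.ex (fun n => PhiL B lev Gf sc u r n (I n)) ≤ al Λ u := by
  refine le_of_forall_pos_le_add fun ε hε => ?_
  have h2 : B.ex (fun n => B.d n ^ (-(al Λ u + ε))) = al Λ u + ε := by
    rw [Base.ex_dpow]; ring
  rw [← h2]
  refine Base.ex_le (pb_PhiL hM hsc u r) (Base.PB.dpow _) ?_
  filter_upwards [line_cell hM h0 h1 hε] with n hn
  refine PhiL_le (dpow_pos B n _).le fun x hx a => ?_
  have a1 : (cntL B lev Gf sc u r n (I n) x a : ℝ) ≤ ((cls (I n) (pl (lev n u)) x).card : ℝ) := by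
    exact_mod_cast cntL_le_cls x a
  refine a1.trans ((hn x hx).2.trans ?_)
  rw [nu_eq, ← dpow_add]
  apply le_of_eq
  congr 1
  ring

/-- all incidences of one line in one cell of level `u` lie close to one affine function -/
def Aligned (B : Base) (J : ℕ → Finset (ℕ × ℝ)) (lev : ℕ → ℚ → ℕ) (Gf : ℕ → ℕ × ℝ → ℝ)
    (sc : ℕ → ℝ) (u : ℚ) (r : ℝ) (a : ℕ → ℕ × ℤ → ℝ) : Prop :=
  ∀ᶠ n in (U : Filter ℕ), ∀ x ∈ J n, ∀ y ∈ J n, pl (lev n u) y = pl (lev n u) x →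
    |dev Gf n x (a n (pl (lev n u) x)) y| ≤ 2 * (sc n * B.d n ^ r)

theorem Aligned.dense {J J' : ℕ → Finset (ℕ × ℝ)} {u : ℚ} {r : ℝ} {a : ℕ → ℕ × ℤ → ℝ}
    (h : Aligned B J lev Gf sc u r a) (hd : Dense B J' J) : Aligned B J' lev Gf sc u r a := by
  unfold Aligned at h ⊢
  filter_upwards [h, hd.1] with n a1 a2 x hx y hy hxy using a1 x (a2 hx) y (a2 hy) hxy

/-- **selection of one affine function per line and cell of level `u`.** -/
theorem good_stepL (hM : MkA B I G lev A c Λ τ f b vm w) (hsc : ∀ n, 0 < sc n) {u r : ℚ}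
    (h0 : 0 ≤ u) (h1 : u ≤ 1)
    (hst : StableF B (fun n J => PhiL B lev Gf sc u r n J) I)
    (hφ : B.ex (fun n => PhiL B lev Gf sc u r n (I n)) = al Λ u) :
    ∃ (K' : ℕ → Finset (ℕ × ℝ)) (a : ℕ → ℕ × ℤ → ℝ), Dense B K' I ∧
      Aligned B K' lev Gf sc u r a := by
  classical
  obtain ⟨mem, hmem⟩ : ∃ mem : ∀ n : ℕ, ℝ → (ℕ × ℝ) × ℝ → ℕ × ℝ → Prop, ∀ n a s y, mem n a s y ↔
      (|dev Gf n s.1 s.2 y| ≤ sc n * B.d n ^ a) := ⟨_, fun _ _ _ _ => Iff.rfl⟩
  have hbad : ∀ c : ℝ, 0 < c → ∀ᶠ n in (U : Filter ℕ),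
      B.d n ^ c * ((I n).card : ℝ) <
        ((bad B (fun n => pl (lev n u)) mem I (r : ℝ) c n).card : ℝ) := by
    intro c hc
    set N : ℕ → Finset (ℕ × ℝ) := fun n => (I n).filter fun x =>
      ∀ a : ℝ, (cntL B lev Gf sc u r n (I n) x a : ℝ) ≤
        B.d n ^ c * ((cls (I n) (pl (lev n u)) x).card : ℝ)
      with hN
    have hnd : ¬ Dense B N I := by
      refine hst.not_dense_of_le (monoF_PhiL hM hsc u r) hM.ne
        (X := fun n => B.d n ^ (-(al Λ u - c / 2))) (Base.PB.dpow _) ?_ ?_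
      · rw [Base.ex_dpow, hφ]; linarith
      · filter_upwards [line_cell hM h0 h1 (half_pos hc)] with n hn hne
        refine PhiL_le (dpow_pos B n _).le fun x hx a => ?_
        obtain ⟨hx1, hx2⟩ := mem_filter.1 hx
        have a1 : (cntL B lev Gf sc u r n (N n) x a : ℝ) ≤ cntL B lev Gf sc u r n (I n) x a := by
          exact_mod_cast cntL_mono (filter_subset _ _) x a
        refine a1.trans ((hx2 a).trans ?_)
        have a2 := mul_le_mul_of_nonneg_left (hn x hx1).2 (dpow_pos B n c).le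
        refine a2.trans ?_
        rw [nu_eq, ← dpow_add, ← dpow_add]
        apply le_of_eq
        congr 1
        ring
    obtain ⟨c', hc', hsmall⟩ := small_of_not_dense
      (Eventually.of_forall fun n => filter_subset _ _) hnd
    filter_upwards [hsmall, dpow_small B hc' (ε := 1 / 2) (by norm_num),
      dpow_small B hc (ε := 1 / 2) (by norm_num), hM.ne] with n hs a1 a2 hne
    have hpos : (0 : ℝ) < (I n).card := by exact_mod_cast card_pos.2 hne
    have a3 : ((N n).card : ℝ) < 1 / 2 * (I n).card :=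
      hs.trans_le (mul_le_mul_of_nonneg_right a1.le hpos.le)
    have a4 : ((I n \ N n).card : ℝ) = (I n).card - (N n).card := by
      rw [card_sdiff_of_subset (filter_subset _ _), Nat.cast_sub (card_le_card (filter_subset _ _))]
    have a5 : I n \ N n ⊆ bad B (fun n => pl (lev n u)) mem I (r : ℝ) c n := by
      intro x hx
      rw [Finset.mem_sdiff] at hx
      obtain ⟨hx1, hx2⟩ := hx
      have hx3 : ∃ a : ℝ, B.d n ^ c * ((cls (I n) (pl (lev n u)) x).card : ℝ) <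
          (cntL B lev Gf sc u r n (I n) x a : ℝ) := by
        by_contra hcon
        push Not at hcon
        exact hx2 (mem_filter.2 ⟨hx1, hcon⟩)
      obtain ⟨a, hx3⟩ := hx3
      unfold bad
      rw [Finset.mem_filter]
      refine ⟨hx1, (x, a), hx3.trans_le ?_⟩
      unfold cntL
      refine Nat.cast_le.2 (card_le_card fun y hy => ?_)
      rw [Finset.mem_filter] at hy ⊢
      exact ⟨hy.1, (hmem n _ (x, a) y).2 hy.2⟩
    have a6 : ((I n \ N n).card : ℝ) ≤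
        ((bad B (fun n => pl (lev n u)) mem I (r : ℝ) c n).card : ℝ) := by
      exact_mod_cast card_le_card a5
    have a7 : B.d n ^ c * ((I n).card : ℝ) ≤ 1 / 2 * (I n).card :=
      mul_le_mul_of_nonneg_right a2.le hpos.le
    linarith
  obtain ⟨K', hK'd, hK'⟩ := exists_of_bad (g := fun n => pl (lev n u)) (mem := mem) (J := I)
    (a := (r : ℝ)) hbad
  -- slope of every (line, cell)
  have hex : ∀ n (p : ℕ × ℤ), ∃ a : ℝ, (∃ s : (ℕ × ℝ) × ℝ, s.2 = a ∧
      ∀ y ∈ K' n, pl (lev n u) y = p → mem n (r : ℝ) s y) ∨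
      ¬ ∃ s : (ℕ × ℝ) × ℝ, ∀ y ∈ K' n, pl (lev n u) y = p → mem n (r : ℝ) s y := by
    intro n p
    by_cases h : ∃ s : (ℕ × ℝ) × ℝ, ∀ y ∈ K' n, pl (lev n u) y = p → mem n (r : ℝ) s y
    · obtain ⟨s, hs⟩ := h
      exact ⟨s.2, Or.inl ⟨s, rfl, hs⟩⟩
    · exact ⟨0, Or.inr h⟩
  choose a ha using hex
  refine ⟨K', a, hK'd, ?_⟩
  unfold Aligned
  filter_upwards [hK'] with n hn x hx y hy hxy
  obtain ⟨s0, hs0⟩ := hn x hx
  have hp : ∃ s : (ℕ × ℝ) × ℝ, ∀ y ∈ K' n, pl (lev n u) y = pl (lev n u) x → mem n (r : ℝ) s y :=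
    ⟨s0, fun y hy hyx => hs0 y (mem_cls.2 ⟨hy, hyx⟩)⟩
  obtain ⟨s, hs1, hs2⟩ := (ha n (pl (lev n u) x)).resolve_right (not_not.2 hp)
  have b1 := (hmem n _ s x).1 (hs2 x hx rfl)
  have b2 := (hmem n _ s y).1 (hs2 y hy hxy)
  rw [← hs1]
  have e : dev Gf n x s.2 y = dev Gf n s.1 s.2 y - dev Gf n s.1 s.2 x := by
    unfold dev; ring
  rw [e]
  refine (abs_sub _ _).trans ?_
  linarith

open Classical in
/-- **strong twist**: no affine function fits more than a `d^γ`-part of a (line, cell of level `u`)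
up to `sc d^r`, `r > ρ u`. -/
def STw (B : Base) (J : ℕ → Finset (ℕ × ℝ)) (lev : ℕ → ℚ → ℕ) (Gf : ℕ → ℕ × ℝ → ℝ)
    (sc : ℕ → ℝ) (ρ : ℝ) : Prop :=
  ∀ u : ℚ, 0 ≤ u → u < 1 → ∀ r : ℝ, ρ * u < r → ∃ γ : ℝ, 0 < γ ∧
    ∀ᶠ n in (U : Filter ℕ), ∀ x ∈ J n, ∀ a : ℝ,
      ((((J n).filter fun y => y.1 = x.1 ∧ zc (lev n u) y.2 = zc (lev n u) x.2 ∧
          |dev Gf n x a y| ≤ sc n * B.d n ^ r).card : ℕ) : ℝ) ≤
        B.d n ^ γ * ((own (J n) (lev n u) (lev n 1) x).card : ℝ)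

/-- **dichotomy**: aligned or strongly twisted on a dense marked part. -/
theorem exists_lin (hM : MkA B I G lev A c Λ τ f b vm w) (hsc : ∀ n, 0 < sc n) (ρ : ℝ) :
    ∃ J : ℕ → Finset (ℕ × ℝ), Dense B J I ∧ MkA B J G lev A c Λ τ f b vm w ∧
      ((∃ (u r : ℚ) (a : ℕ → ℕ × ℤ → ℝ), 0 ≤ u ∧ u < 1 ∧ ρ * u < r ∧
        Aligned B J lev Gf sc u r a) ∨ STw B J lev Gf sc ρ) := by
  classical
  obtain ⟨en, hen⟩ := exists_surjective_nat (ℚ × ℚ)
  obtain ⟨J2, hJ2d, hJ2s⟩ := exists_stableF (B := B) hM.ne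
    (fun j n J => PhiL B lev Gf sc (en j).1 (en j).2 n J)
    (fun j => monoF_PhiL hM hsc (en j).1 (en j).2)
  obtain ⟨X, hXd, hX⟩ := MkA.refine hM hJ2d
  have hXI : Dense B X I := hXd.trans hJ2d
  have hst : ∀ u r : ℚ, StableF B (fun n J => PhiL B lev Gf sc u r n J) X := by
    intro u r
    obtain ⟨j, hj⟩ := hen (u, r)
    have h1 := hJ2s j
    rw [hj] at h1
    exact h1.dense hXd
  set φ' : ℚ → ℚ → ℝ := fun u r => B.ex (fun n => PhiL B lev Gf sc u r n (X n)) with hφ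
  by_cases hg : ∃ u r : ℚ, 0 ≤ u ∧ u < 1 ∧ ρ * u < r ∧ φ' u r = al Λ u
  · obtain ⟨u, r, h0, h1, h2, h3⟩ := hg
    obtain ⟨K, a, hKd, hK⟩ := good_stepL hX hsc h0 h1.le (hst u r) h3
    obtain ⟨J, hJd, hJ⟩ := MkA.refine hX hKd
    exact ⟨J, (hJd.trans hKd).trans hXI, hJ, Or.inl ⟨u, r, a, h0, h1, h2, hK.dense hJd⟩⟩
  · push Not at hg
    refine ⟨X, hXI, hX, Or.inr fun u h0 h1 r hr => ?_⟩
    obtain ⟨r', hr1, hr2⟩ := exists_rat_btwn hr
    have hlt : φ' u r' < al Λ u :=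
      lt_of_le_of_ne (ex_PhiL_le hX hsc h0 h1.le) (hg u r' h0 h1 hr1)
    set γ : ℝ := (al Λ u - φ' u r') / 4 with hγ
    have hγ0 : 0 < γ := by rw [hγ]; linarith
    refine ⟨γ, hγ0, ?_⟩
    have h5 : ∀ᶠ n in (U : Filter ℕ), PhiL B lev Gf sc u r' n (X n) < B.d n ^ (-(φ' u r' + γ)) :=
      Base.ex_lt_iff_dpow (pb_PhiL hX hsc u r') (by
        show B.ex (fun n => PhiL B lev Gf sc u r' n (X n)) < φ' u r' + γ
        have : B.ex (fun n => PhiL B lev Gf sc u r' n (X n)) = φ' u r' := rfl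
        rw [this]; linarith)
    filter_upwards [h5, hX.own u 1 h0 h1.le le_rfl γ hγ0] with n a1 a3 x hx a
    have b1 : ((((X n).filter fun y => y.1 = x.1 ∧ zc (lev n u) y.2 = zc (lev n u) x.2 ∧
          |dev Gf n x a y| ≤ sc n * B.d n ^ r).card : ℕ) : ℝ) ≤
        (cntL B lev Gf sc u r' n (X n) x a : ℝ) := by
      have : ((X n).filter fun y => y.1 = x.1 ∧ zc (lev n u) y.2 = zc (lev n u) x.2 ∧
          |dev Gf n x a y| ≤ sc n * B.d n ^ r) ⊆
          (cls (X n) (pl (lev n u)) x).filter fun y =>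
            |dev Gf n x a y| ≤ sc n * B.d n ^ (r' : ℝ) := by
        intro y hy
        obtain ⟨hy1, hy2, hy3, hy4⟩ := mem_filter.1 hy
        refine mem_filter.2 ⟨mem_cls.2 ⟨hy1, Prod.ext hy2 hy3⟩, hy4.trans ?_⟩
        exact mul_le_mul_of_nonneg_left (dpow_le B n hr2.le) (hsc n).le
      unfold cntL
      exact_mod_cast card_le_card this
    have b2 := (b1.trans (cntL_le_PhiL hx a)).trans a1.le
    have b3 := (a3 x hx).1
    refine b2.trans ?_
    have b4 := mul_le_mul_of_nonneg_left b3 (dpow_pos B n γ).le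
    refine le_trans ?_ b4
    rw [← dpow_add]
    apply dpow_le B n
    have e1 : al Λ u = (1 - (u : ℝ)) - (Λ 1 - Λ u) := rfl
    push_cast
    linarith

end main

end Crest.Agent.R116.Rl899
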