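import Mathlib
import Crest.Agent.R136.TD3_627
import Crest.Agent.R116.Rl1_899

/-!
# R116, [ROT-LIN] (helper899), part 2: slopes of aligned rotations

* `congr_fl` : a change of the flags within all precisions keeps the system;
* `slope_le` : the slopes of an aligned slot `jE` (unit `rho` times the unit of `jD`, rate of `jD`
  zero) are within the precision of the slot `jD`;
* `s_lt` : a tied slot forces own profile slope `s < 1`.
-/

set_option autoImplicit false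
set_option linter.unusedVariables false
set_option linter.unusedSectionVars false

open Finset Filter Topology

namespace Crest.Agent.R116.Rl899

open Crest.Agent.R138.Ex926 (Base U)
open Crest.Agent.R138.Dp76
open Crest.Agent.R138.Ps926
open Crest.Agent.R138.Mk163 (zc zl rho alive own Negl)
open Crest.Agent.R136.MkA627
open Crest.Agent.R136.TD627

theorem exists_far {J : Finset (ℕ × ℝ)} {i j : ℕ} {x : ℕ × ℝ} (h : 3 ≤ (own J i j x).card) :
    ∃ y ∈ J, ∃ y' ∈ J, y.1 = x.1 ∧ y'.1 = x.1 ∧ rho j ≤ y'.2 - y.2 := by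
  classical
  obtain ⟨k1, hk1, k3, hk3, hk⟩ : ∃ k1 ∈ own J i j x, ∃ k3 ∈ own J i j x, k1 + 2 ≤ k3 := by
    have hne : (own J i j x).Nonempty := card_pos.1 (by omega)
    have hsub : own J i j x ⊆ Finset.Icc ((own J i j x).min' hne) ((own J i j x).max' hne) :=
      fun k hk => Finset.mem_Icc.2 ⟨Finset.min'_le _ k hk, Finset.le_max' _ k hk⟩
    have hc := card_le_card hsub
    rw [Int.card_Icc] at hc
    exact ⟨_, Finset.min'_mem _ hne, _, Finset.max'_mem _ hne, by omega⟩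
  unfold own at hk1 hk3
  obtain ⟨y, hy, rfl⟩ := mem_image.1 hk1
  obtain ⟨y', hy', rfl⟩ := mem_image.1 hk3
  rw [mem_filter] at hy hy'
  refine ⟨y, hy.1, y', hy'.1, hy.2.1, hy'.2.1, ?_⟩
  unfold zc at hk
  have h1 := Int.lt_floor_add_one ((2 : ℝ) ^ j * y.2)
  have h2 := Int.floor_le ((2 : ℝ) ^ j * y'.2)
  have h3 : ((⌊(2 : ℝ) ^ j * y.2⌋ : ℤ) : ℝ) + 2 ≤ (⌊(2 : ℝ) ^ j * y'.2⌋ : ℤ) := by exact_mod_cast hk
  have hp : (0 : ℝ) < 2 ^ j := by positivity
  unfold rho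
  rw [div_le_iff₀ hp]
  nlinarith

theorem rho_pos' (i : ℕ) : 0 < rho i := by unfold rho; positivity

section

variable {σ κ φ : Type*} {m : ℕ} {P : TDist φ m} {G : Geo σ κ} {g s : ℝ} {θ : κ → ℝ}
    {β : Fin m → ℝ} {B : Base} {I : ℕ → Finset (ℕ × ℝ)} {lev : ℕ → ℚ → ℕ} {A : ℕ → ℝ}
    {f : ℕ → ℚ → ℕ → ℤ → ℕ} {b : ℕ → ℚ → ℕ → σ} {vm : ℕ → ℚ → ℝ} {w : κ → ℕ → ℚ → ℝ}
    {fr : ℕ → ℚ → ℕ × ℝ → φ} {pr : Fin m → ℕ → ℚ → ℝ} {fl fl' : ℕ → ℕ × ℝ → φ}
    {sc : Fin m → ℕ → ℝ}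

/-- change of the flags within all precisions -/
theorem congr_fl (h : TSys P G g s θ β B I lev A f b vm w fr pr fl sc)
    (hn : ∀ v : ℚ, 0 ≤ v → v ≤ 1 → NearE P B sc (fun t => β t * v) (fun n x => x ∈ I n) fl' fl) :
    TSys P G g s θ β B I lev A f b vm w fr pr fl' sc where
  mka := h.mka
  scpos := h.scpos
  prpos := h.prpos
  prc := h.prc
  cell := h.cell
  close := fun j v h0 h1 ε hε => by
    have h2 := NearE.trans (h.wall h0 h1) h.scpos (hn v h0 h1) (h.near h0 h1)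
    filter_upwards [h2 j (ε / 2) (by positivity), h.pr_le j h0 h1 (ε := ε / 2) (by positivity)]
      with n a1 a2 x hx
    refine (a1 x hx).trans ?_
    have e : sc j n * B.d n ^ (β j * v - ε / 2) =
        (sc j n * B.d n ^ (β j * v + ε / 2)) * B.d n ^ (-ε) := by
      rw [mul_assoc, ← dpow_add]; congr 2; ring
    show sc j n * B.d n ^ (β j * v - ε / 2) ≤ _
    rw [e]
    exact mul_le_mul_of_nonneg_right a2.2 (dpow_pos B n _).le
  wpr := h.wpr

/-- **slopes of an aligned rotation.** -/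
theorem slope_le (h : TSys P G g s θ β B I lev A f b vm w fr pr fl sc) (hs : s < 1)
    {jD jE : Fin m} (hβ : β jD = 0) (hpu : ∀ n (v : ℚ), pr jE n v = rho (lev n v) * pr jD n v)
    {Gf : ℕ → ℕ × ℝ → ℝ}
    (hG : ∀ᶠ n in (U : Filter ℕ), ∀ x ∈ I n, ∀ y ∈ I n, y.1 = x.1 →
      |Gf n y - Gf n x| ≤ P.d jE n (fl n x) (fl n y))
    {cc : ℕ → ℕ → ℝ}
    (hal : ∀ᶠ n in (U : Filter ℕ), ∀ x ∈ I n, ∀ y ∈ I n, y.1 = x.1 →
      |dev Gf n x (cc n x.1) y| ≤ sc jE n) {ε : ℝ} (hε : 0 < ε) :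
    ∀ᶠ n in (U : Filter ℕ), ∀ x ∈ I n, |cc n x.1| ≤ sc jD n * B.d n ^ (-ε) := by
  obtain ⟨q, hq0, hq1⟩ := exists_rat_btwn (show (0 : ℝ) < min 1 (ε / (4 * (|β jE| + 1))) by
    have := abs_nonneg (β jE)
    positivity)
  have hq0' : (0 : ℚ) < q := by exact_mod_cast hq0
  have hq1' : (q : ℝ) < 1 := hq1.trans_le (min_le_left _ _)
  have hq1q : q < 1 := by exact_mod_cast hq1'
  have hq2 : β jE * q ≤ ε / 4 := by
    have h1 : (q : ℝ) < ε / (4 * (|β jE| + 1)) := hq1.trans_le (min_le_right _ _)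
    have h2 := abs_nonneg (β jE)
    rw [lt_div_iff₀ (by positivity)] at h1
    have h3 := mul_le_mul_of_nonneg_right (le_abs_self (β jE)) hq0.le
    nlinarith
  set δ : ℝ := (1 - s) * q / 2 with hδ
  have hδ0 : 0 < δ := by
    have : 0 < 1 - s := by linarith
    positivity
  filter_upwards [h.mka.own 0 q le_rfl hq0'.le hq1q.le δ hδ0, h.mka.cell0,
    dpow_small B hδ0 (ε := 1 / 4) (by norm_num), dpow_small B (show 0 < ε / 8 by positivity)
      (ε := 1 / 2) (by norm_num), h.same_cell jE le_rfl zero_le_one (ε := ε / 8) (by positivity),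
    h.pr_le jE hq0'.le hq1q.le (ε := ε / 8) (by positivity),
    h.pr_le jD hq0'.le hq1q.le (ε := ε / 8) (by positivity), hG, hal]
    with n a1 a2 a3 a4 a5 a6 a7 a8 a9 x hx
  have c1 := (a1 x hx).1
  have e1 : -((q : ℝ) - ((0 : ℚ) : ℝ)) + (s * q - s * ((0 : ℚ) : ℝ)) + δ = -δ := by
    rw [hδ]; push_cast; ring
  rw [e1] at c1
  have c2 : B.d n ^ δ * B.d n ^ (-δ) = 1 := by
    rw [← dpow_add, add_neg_cancel, Real.rpow_zero]
  have c3 : (4 : ℝ) < B.d n ^ (-δ) := by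
    have := dpow_pos B n (-δ)
    nlinarith
  have c4 : 3 ≤ (own (I n) (lev n 0) (lev n q) x).card := by
    have : (3 : ℝ) ≤ ((own (I n) (lev n 0) (lev n q) x).card : ℝ) := by linarith
    exact_mod_cast this
  obtain ⟨y, hy, y', hy', hyx, hyx', hfar⟩ := exists_far c4
  have hyy : y'.1 = y.1 := hyx'.trans hyx.symm
  have d1 := (a8 y hy y' hy' hyy).trans (a5 y hy y' hy' hyy (a2 y' hy' y hy))
  have d2 := a9 y hy y' hy' hyy
  rw [hyx] at d2
  have e2 : β jE * ((0 : ℚ) : ℝ) - ε / 8 = -(ε / 8) := by push_cast; ring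
  rw [e2] at d1
  have hρ := rho_pos' (lev n q)
  set X : ℝ := B.d n ^ (-(ε / 8)) with hX
  have hX1 : (2 : ℝ) ≤ X := by
    have c2' : B.d n ^ (ε / 8) * B.d n ^ (-(ε / 8)) = 1 := by
      rw [← dpow_add, add_neg_cancel, Real.rpow_zero]
    rw [← hX] at c2'
    have : 0 < X := dpow_pos B n _
    nlinarith
  have hscE := h.scpos jE n
  have hscD := h.scpos jD n
  have d3 : rho (lev n q) * |cc n x.1| ≤ 2 * (sc jE n * X) := by
    have t1 : |cc n x.1 * (y'.2 - y.2)| ≤ sc jE n * X + sc jE n := by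
      have e3 : cc n x.1 * (y'.2 - y.2) = (Gf n y' - Gf n y) - dev Gf n y (cc n x.1) y' := by
        unfold dev; ring
      rw [e3]
      exact (abs_sub _ _).trans (add_le_add d1 d2)
    rw [abs_mul, abs_of_pos (hρ.trans_le hfar)] at t1
    have t2 := mul_le_mul_of_nonneg_left hfar (abs_nonneg (cc n x.1))
    nlinarith
  -- units
  rw [hpu n q] at a6
  have d4 : sc jE n * B.d n ^ (β jE * q + ε / 8) ≤
      rho (lev n q) * (sc jD n * B.d n ^ (β jD * q - ε / 8)) :=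
    a6.2.trans (mul_le_mul_of_nonneg_left a7.1 hρ.le)
  have e4 : β jD * (q : ℝ) - ε / 8 = -(ε / 8) := by rw [hβ]; ring
  rw [e4] at d4
  have d5 := mul_le_mul_of_nonneg_right d4 (dpow_pos B n (-(β jE * q) - ε / 4)).le
  have e5 : sc jE n * B.d n ^ (β jE * q + ε / 8) * B.d n ^ (-(β jE * q) - ε / 4) = sc jE n * X := by
    rw [mul_assoc, ← dpow_add, hX]; congr 2; ring
  have e6 : rho (lev n q) * (sc jD n * B.d n ^ (-(ε / 8))) * B.d n ^ (-(β jE * q) - ε / 4) =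
      rho (lev n q) * (sc jD n * B.d n ^ (-(β jE * q) - ε / 4 - ε / 8)) := by
    rw [mul_assoc, mul_assoc, ← dpow_add]; congr 3; ring
  rw [e5, e6] at d5
  have d6 : rho (lev n q) * |cc n x.1| ≤
      rho (lev n q) * (2 * (sc jD n * B.d n ^ (-(β jE * q) - ε / 4 - ε / 8))) := by linarith
  have d7 := le_of_mul_le_mul_left d6 hρ
  have d8 : 2 * B.d n ^ (-(β jE * q) - ε / 4 - ε / 8) ≤ B.d n ^ (-ε) := by
    calc 2 * B.d n ^ (-(β jE * q) - ε / 4 - ε / 8)
        ≤ X * B.d n ^ (-(β jE * q) - ε / 4 - ε / 8) :=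
          mul_le_mul_of_nonneg_right hX1 (dpow_pos B n _).le
      _ = B.d n ^ (-(ε / 8) + (-(β jE * q) - ε / 4 - ε / 8)) := by rw [hX, ← dpow_add]
      _ ≤ _ := dpow_le B n (by linarith)
  calc |cc n x.1| ≤ 2 * (sc jD n * B.d n ^ (-(β jE * q) - ε / 4 - ε / 8)) := d7
    _ = sc jD n * (2 * B.d n ^ (-(β jE * q) - ε / 4 - ε / 8)) := by ring
    _ ≤ _ := mul_le_mul_of_nonneg_left d8 hscD.le

/-- a tied slot forces own profile slope `< 1` -/
theorem s_lt (h : TSys P G g s θ β B I lev A f b vm w fr pr fl sc) {j : Fin m} {C0 : ℝ}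
    (hβ : 0 < β j) (hC : β j ≤ C0)
    (hR : RotT P B I lev j fl (sc j) C0 (fun u => β j * u)) : s < 1 := by
  by_contra hcon
  rw [not_lt] at hcon
  have hs1 : s ≤ 1 := by
    have := (h.mka.lam 0 1 le_rfl zero_le_one le_rfl).2
    simpa using this
  have hs : s = 1 := le_antisymm hs1 hcon
  obtain ⟨γ, hγ, htw⟩ := hR.tw 0 le_rfl one_pos C0 (by
    show β j * ((0 : ℚ) : ℝ) < C0
    rw [Rat.cast_zero, mul_zero]; linarith) le_rfl
  have hfalse : ∀ᶠ n in (U : Filter ℕ), False := by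
    filter_upwards [htw, h.mka.ne, h.mka.own 0 1 le_rfl zero_le_one le_rfl (γ / 2) (by positivity),
      dpow_small B (show 0 < γ / 2 by positivity) one_pos] with n a1 a2 a3 a4
    obtain ⟨x, hx⟩ := a2
    have b1 := a1 x hx
    have b2 := (a3 x hx).2
    have e1 : -(((1 : ℚ) : ℝ) - ((0 : ℚ) : ℝ)) + (s * ((1 : ℚ) : ℝ) - s * ((0 : ℚ) : ℝ)) - γ / 2 =
        -(γ / 2) := by
      rw [hs]; push_cast; ring
    rw [e1] at b2
    have b3 : (1 : ℝ) ≤ ((((I n).filter fun y => y.1 = x.1 ∧ zc (lev n 0) y.2 = zc (lev n 0) x.2 ∧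
          P.d j n (fl n x) (fl n y) ≤ sc j n * B.d n ^ C0).card : ℕ) : ℝ) := by
      have : 1 ≤ ((I n).filter fun y => y.1 = x.1 ∧ zc (lev n 0) y.2 = zc (lev n 0) x.2 ∧
          P.d j n (fl n x) (fl n y) ≤ sc j n * B.d n ^ C0).card := by
        refine card_pos.2 ⟨x, mem_filter.2 ⟨hx, rfl, rfl, ?_⟩⟩
        rw [P.self]
        exact (mul_pos (h.scpos j n) (dpow_pos B n _)).le
      exact_mod_cast this
    have b4 := b3.trans (b1.trans (mul_le_mul_of_nonneg_left b2 (dpow_pos B n γ).le))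
    rw [← dpow_add] at b4
    have e2 : γ + -(γ / 2) = γ / 2 := by ring
    rw [e2] at b4
    linarith
  obtain ⟨n, hn⟩ := hfalse.exists
  exact hn

end

end Crest.Agent.R116.Rl899
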