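import Mathlib
import Crest.Agent.R116.ChL1_222
import Crest.Agent.R116.Rl2_899

/-!
# R116, [ROT-LIN] (helper899), part 3: change of gauge in the light-ray chart

`shL a i` : the flag of `i` in the gauge `d := d - a / 2`; `gfL i = et + 2 d z` : primitive of the own
rotation of the slot `E` along one ray.  `regauge` : if the rotation of `E` is aligned with one affine
function per (line, cell of level `u`) beyond its rate, one zoom and one change of gauge make the slot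
`E` invisible.
-/

set_option autoImplicit false
set_option linter.unusedVariables false
set_option linter.unusedSectionVars false

open Finset Filter Topology

namespace Crest.Agent.R116.Rl899

open Crest.Agent.R138.Ex926 (Base U)
open Crest.Agent.R138.Dp76
open Crest.Agent.R138.Ps926
open Crest.Agent.R138.Mk163 (zc zl rho alive own Negl)
open Crest.Agent.R138.MkRef774 (pl)
open Crest.Agent.R138.TiltU51 (zc_nest)
open Crest.Agent.R136.MkA627
open Crest.Agent.R136.TD627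
open Crest.Agent.R116.ChL222

/-- change of gauge -/
noncomputable def shL (a : ℝ) (i : LInc) : LInc := { i with d := i.d - a / 2 }

/-- primitive of the own rotation of the slot `E` -/
noncomputable def gfL (i : LInc) : ℝ := i.et + 2 * i.d * i.z

/-- same ray, same slot `D` -/
structure SameL (i j : LInc) : Prop where
  c1 : j.c1 = i.c1
  c2 : j.c2 = i.c2
  x1 : j.x1 = i.x1
  x2 : j.x2 = i.x2
  h : j.h = i.h
  d : j.d = i.d

theorem shL_zero (i : LInc) : shL 0 i = i := by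
  unfold shL
  simp

theorem shL_shL (a a' : ℝ) (i : LInc) : shL a (shL a' i) = shL (a' + a) i := by
  unfold shL
  simp only [LInc.mk.injEq, true_and]
  ring

theorem gfL_shL (a : ℝ) (i : LInc) : gfL (shL a i) = gfL i - a * i.z := by
  unfold gfL shL
  simp only
  ring

theorem SameL.shL {i j : LInc} (h : SameL i j) (a : ℝ) : SameL (shL a i) (shL a j) :=
  ⟨h.c1, h.c2, h.x1, h.x2, h.h, by
    show j.d - a / 2 = i.d - a / 2
    rw [h.d]⟩

theorem coL_one {i j : LInc} (h : SameL i j) : coL i j 1 = 0 := by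
  show j.d - i.d = 0
  rw [h.d, sub_self]

theorem coL_two {i j : LInc} (h : SameL i j) : coL i j 2 = gfL j - gfL i := by
  show j.et - i.et + 2 * i.d * (j.z - i.z) = _
  unfold gfL
  rw [h.d]
  ring

theorem coL_shL (a : ℝ) (i : LInc) (k : Fin 12) : coL (shL a i) i k = if k = 1 then a / 2 else 0 := by
  fin_cases k <;> simp [coL, nuL, shL, LInc.p1, LInc.p2, LInc.ph]

theorem coL_shL_shL {i j : LInc} (h : SameL i j) (a : ℝ) {k : Fin 12} (hk : k ≠ 2) :
    coL (shL a i) (shL a j) k = coL i j k := by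
  obtain ⟨h1, h2, h3, h4, h5, h6⟩ := h
  fin_cases k <;> simp [coL, nuL, shL, LInc.p1, LInc.p2, LInc.ph, h1, h2, h3, h4, h5, h6] at hk ⊢

/-- the flags in the gauge `cc` -/
noncomputable def rg (cc : ℕ → ℕ → ℝ) (fl : ℕ → ℕ × ℝ → LInc) (n : ℕ) (x : ℕ × ℝ) : LInc :=
  shL (cc n x.1) (fl n x)

theorem rg_zero (fl : ℕ → ℕ × ℝ → LInc) : rg (fun _ _ => 0) fl = fl := by
  funext n x
  exact shL_zero _

theorem rg_rg (c1 c2 : ℕ → ℕ → ℝ) (fl : ℕ → ℕ × ℝ → LInc) :
    rg c2 (rg c1 fl) = rg (fun n l => c1 n l + c2 n l) fl := by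
  funext n x
  exact shL_shL _ _ _

section

variable {σ κ : Type*} {P : TDist LInc 12} {G : Geo σ κ} {g s : ℝ} {θ : κ → ℝ}
    {β : Fin 12 → ℝ} {B : Base} {I : ℕ → Finset (ℕ × ℝ)} {lev : ℕ → ℚ → ℕ} {A : ℕ → ℝ}
    {f : ℕ → ℚ → ℕ → ℤ → ℕ} {b : ℕ → ℚ → ℕ → σ} {vm : ℕ → ℚ → ℝ} {w : κ → ℕ → ℚ → ℝ}
    {fr : ℕ → ℚ → ℕ × ℝ → LInc} {pr : Fin 12 → ℕ → ℚ → ℝ} {fl : ℕ → ℕ × ℝ → LInc}
    {sc : Fin 12 → ℕ → ℝ}

/-- **one zoom and one change of gauge make the slot `E` invisible.** -/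
theorem regauge [Countable κ] (hP : ∀ k n a b, P.d k n a b = |coL a b k|)
    (h : TSys P G g s θ β B I lev A f b vm w fr pr fl sc) (hsl : Slack P β B sc) (hs : s < 1)
    (hβD : β 1 = 0) (hβE : 0 < β 2)
    (hpu : ∀ n (v : ℚ), pr 2 n v = rho (lev n v) * pr 1 n v)
    (hfl : ∀ᶠ n in (U : Filter ℕ), ∀ x ∈ I n, ∀ y ∈ I n, y.1 = x.1 → SameL (fl n x) (fl n y))
    (hz : ∀ n x, (fl n x).z = x.2)
    {u r : ℚ} {a : ℕ → ℕ × ℤ → ℝ} (hu0 : 0 ≤ u) (hu1 : u < 1) (hr : β 2 * u < r)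
    (hal : Aligned B I lev (fun n x => gfL (fl n x)) (sc 2) u r a) :
    ∃ (H : ℕ → ℝ) (mm : ℕ → ℚ → ℚ) (B' : Base) (I' : ℕ → Finset (ℕ × ℝ)) (A' : ℕ → ℝ)
      (sc' : Fin 12 → ℕ → ℝ) (cc : ℕ → ℕ → ℝ), (∀ n, 0 < H n ∧ H n ≤ 1) ∧
      (∀ n, ∀ x : ℚ, 0 ≤ x → x ≤ 1 → 0 ≤ mm n x ∧ mm n x ≤ 1) ∧
      (∀ n, ∀ x y : ℚ, (mm n y : ℝ) - mm n x = H n * ((y : ℝ) - x)) ∧
      (∀ n, B'.d n = B.d n ^ H n) ∧ (∀ᶠ n in (U : Filter ℕ), I' n ⊆ I n) ∧
      TSys P G g s θ β B' I' (fun n x => lev n (mm n x)) A' (fun n x => f n (mm n x))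
        (fun n x => b n (mm n x)) (fun n x => vm n (mm n x)) (fun j n x => w j n (mm n x))
        (fun n x => fr n (mm n x)) (fun j n x => pr j n (mm n x)) (rg cc fl) sc' ∧
      Slack P β B' sc' ∧ InvT P B' I' 2 (rg cc fl) (sc' 2) ∧
      ∀ j, InvT P B I j fl (sc j) → InvT P B' I' j (rg cc fl) (sc' j) := by
  classical
  have hu0' : (0 : ℝ) ≤ u := by exact_mod_cast hu0
  have hu1' : (u : ℝ) < 1 := by exact_mod_cast hu1
  have hmin : (u : ℝ) < min 1 ((r : ℝ) / β 2) :=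
    lt_min hu1' (by rw [lt_div_iff₀ hβE, mul_comm]; exact hr)
  obtain ⟨v0, hv1, hv2⟩ := exists_between hmin
  have hv3 : v0 < 1 := hv2.trans_le (min_le_left _ _)
  have hv4 : β 2 * v0 < r := by
    have := hv2.trans_le (min_le_right _ _)
    rwa [lt_div_iff₀ hβE, mul_comm] at this
  obtain ⟨H, mm, B', I', A', h1, h2, h3, h4, h5, h6, h7, h8, h9, h10, h11⟩ :=
    h.zoomP (hu0'.trans_lt hv1) hv3 (fun mm k n => u ≤ mm k 0 → lev n u ≤ lev n (mm k 0))
      (fun mm hm k => by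
        by_cases hk : u ≤ mm k 0
        · filter_upwards [h.mka.lev_mono u (mm k 0) hu0 hk (hm k 0 le_rfl zero_le_one).2] with n hn _
            using hn
        · exact Eventually.of_forall fun n hh => absurd hh hk)
  obtain ⟨qc, hqc⟩ : ∃ qc : ℕ → ℤ, ∀ᶠ n in (U : Filter ℕ), ∀ x ∈ I' n, zc (lev n u) x.2 = qc n := by
    refine ⟨fun n => if hne : (I' n).Nonempty then zc (lev n u) (hne.choose).2 else 0, ?_⟩
    have hev : ∀ᶠ n in (U : Filter ℕ), (u : ℝ) < mm n 0 := (h5 0).eventually_const_lt hv1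
    filter_upwards [h9, hev, h8.mka.cell0] with n a1 a2 a3 x hx
    obtain ⟨mm', k, e1, a1⟩ := a1
    rw [e1] at a1
    have hlev := a1 (by exact_mod_cast a2.le)
    have hne : (I' n).Nonempty := ⟨x, hx⟩
    rw [dif_pos hne]
    exact zc_nest hlev (a3 x hx _ hne.choose_spec)
  set cc : ℕ → ℕ → ℝ := fun n l => a n (l, qc n) with hcc
  set sc' : Fin 12 → ℕ → ℝ := fun j n => sc j n * B.d n ^ (β j * mm n 0) with hsc'
  have hBp : ∀ n (y : ℝ), B'.d n ^ y = B.d n ^ (H n * y) := by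
    intro n y
    rw [h6 n, ← Real.rpow_mul (B.pos n).le]
  have hB : ∀ M : ℝ, ∀ᶠ n in (U : Filter ℕ), ∀ x ∈ I' n, ∀ y ∈ I' n, y.1 = x.1 →
      |dev (fun n x => gfL (fl n x)) n x (cc n x.1) y| ≤ sc' 2 n * B'.d n ^ M := by
    intro M
    set δ : ℝ := (r - β 2 * v0) / 2 with hδ
    have hδ0 : 0 < δ := by rw [hδ]; linarith
    have hlim : Tendsto (fun n => β 2 * (mm n 0 : ℝ) + H n * M) U (𝓝 (β 2 * v0 + 0 * M)) :=
      ((h5 0).const_mul (β 2)).add (h2.mul_const M)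
    have hev : ∀ᶠ n in (U : Filter ℕ), β 2 * (mm n 0 : ℝ) + H n * M < r - δ :=
      hlim.eventually_lt_const (by rw [hδ]; linarith)
    filter_upwards [hal, hqc, hev, dpow_small B hδ0 (ε := 1 / 2) (by norm_num)]
      with n a1 a2 a3 a4 x hx y hy hxy
    have e1 : pl (lev n u) y = pl (lev n u) x := by
      unfold pl
      rw [hxy, a2 x hx, a2 y hy]
    have e2 : a n (pl (lev n u) x) = cc n x.1 := by
      rw [hcc]
      unfold pl
      rw [a2 x hx]
    have b1 := a1 x (h7 n hx) y (h7 n hy) e1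
    rw [e2] at b1
    refine b1.trans ?_
    rw [hBp]
    show 2 * (sc 2 n * B.d n ^ (r : ℝ)) ≤ sc 2 n * B.d n ^ (β 2 * (mm n 0 : ℝ)) * B.d n ^ (H n * M)
    rw [mul_assoc (sc 2 n), ← dpow_add]
    have c1 : 2 * B.d n ^ (r : ℝ) ≤ B.d n ^ (β 2 * (mm n 0 : ℝ) + H n * M) := by
      have e3 : (r : ℝ) = δ + (r - δ) := by ring
      rw [e3, dpow_add]
      have c2 : 2 * B.d n ^ δ ≤ 1 := by linarith
      calc 2 * (B.d n ^ δ * B.d n ^ ((r : ℝ) - δ)) = 2 * B.d n ^ δ * B.d n ^ ((r : ℝ) - δ) := by ring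
        _ ≤ 1 * B.d n ^ ((r : ℝ) - δ) := mul_le_mul_of_nonneg_right c2 (dpow_pos B n _).le
        _ = B.d n ^ ((r : ℝ) - δ) := one_mul _
        _ ≤ _ := dpow_le B n a3.le
    calc 2 * (sc 2 n * B.d n ^ (r : ℝ)) = sc 2 n * (2 * B.d n ^ (r : ℝ)) := by ring
      _ ≤ _ := mul_le_mul_of_nonneg_left c1 (h.scpos 2 n).le
  have hflI' : ∀ᶠ n in (U : Filter ℕ), ∀ x ∈ I' n, ∀ y ∈ I' n, y.1 = x.1 →
      SameL (fl n x) (fl n y) := by
    filter_upwards [hfl] with n a1 x hx y hy using a1 x (h7 n hx) y (h7 n hy)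
  have hslope : ∀ ε : ℝ, 0 < ε → ∀ᶠ n in (U : Filter ℕ), ∀ x ∈ I' n,
      |cc n x.1| ≤ sc' 1 n * B'.d n ^ (-ε) := by
    intro ε hε
    refine slope_le (jD := 1) (jE := 2) h8 hs hβD (fun n v => hpu n _)
      (Gf := fun n x => gfL (fl n x)) ?_ ?_ hε
    · filter_upwards [hflI'] with n a1 x hx y hy hxy
      rw [hP, coL_two (a1 x hx y hy hxy)]
    · filter_upwards [hB 0] with n a1 x hx y hy hxy
      have := a1 x hx y hy hxy
      rwa [Real.rpow_zero, mul_one] at this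
  have hS' : TSys P G g s θ β B' I' (fun n x => lev n (mm n x)) A' (fun n x => f n (mm n x))
        (fun n x => b n (mm n x)) (fun n x => vm n (mm n x)) (fun j n x => w j n (mm n x))
        (fun n x => fr n (mm n x)) (fun j n x => pr j n (mm n x)) (rg cc fl) sc' := by
    refine congr_fl h8 fun v hv0 hv1 j ε hε => ?_
    by_cases hj : j = 1
    · subst hj
      filter_upwards [hslope ε hε] with n a1 x hx
      rw [hP]
      unfold rg
      rw [coL_shL, if_pos rfl]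
      have e1 : β 1 * (v : ℝ) - ε = -ε := by rw [hβD]; ring
      show |cc n x.1 / 2| ≤ sc' 1 n * B'.d n ^ (β 1 * (v : ℝ) - ε)
      rw [e1]
      refine le_trans ?_ (a1 x hx)
      rw [abs_div, abs_two]
      linarith [abs_nonneg (cc n x.1)]
    · refine Eventually.of_forall fun n x hx => ?_
      rw [hP]
      unfold rg
      rw [coL_shL, if_neg hj, abs_zero]
      exact (mul_pos (h8.scpos j n) (dpow_pos B' n _)).le
  refine ⟨H, mm, B', I', A', sc', cc, h1, h3, h4, h6, Eventually.of_forall h7, hS', h11 hsl, ?_, ?_⟩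
  · intro M
    filter_upwards [hB M, hflI'] with n a1 a2 x hx y hy hxy
    have e1 : P.d 2 n (rg cc fl n x) (rg cc fl n y) =
        |dev (fun n x => gfL (fl n x)) n x (cc n x.1) y| := by
      rw [hP]
      unfold rg
      rw [hxy, coL_two ((a2 x hx y hy hxy).shL _), gfL_shL, gfL_shL, hz, hz]
      unfold dev
      congr 1
      ring
    rw [e1]
    exact a1 x hx y hy hxy
  · intro j hj
    by_cases hj2 : j = 2
    · subst hj2
      intro M
      filter_upwards [hB M, hflI'] with n a1 a2 x hx y hy hxy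
      have e1 : P.d 2 n (rg cc fl n x) (rg cc fl n y) =
          |dev (fun n x => gfL (fl n x)) n x (cc n x.1) y| := by
        rw [hP]
        unfold rg
        rw [hxy, coL_two ((a2 x hx y hy hxy).shL _), gfL_shL, gfL_shL, hz, hz]
        unfold dev
        congr 1
        ring
      rw [e1]
      exact a1 x hx y hy hxy
    · intro M
      filter_upwards [h10 j hj M, hflI'] with n a1 a2 x hx y hy hxy
      have e1 : P.d j n (rg cc fl n x) (rg cc fl n y) = P.d j n (fl n x) (fl n y) := by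
        rw [hP, hP]
        unfold rg
        rw [hxy, coL_shL_shL (a2 x hx y hy hxy) _ hj2]
      rw [e1]
      exact a1 x hx y hy hxy

end

end Crest.Agent.R116.Rl899
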