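import Mathlib
import Crest.Agent.R116.Rl3_899

/-!
# R116, [ROT-LIN] (helper899), part 4: second zoom of the light-ray chart

`natL` : 627's `TSys.natT` in the light-ray chart.  The output is `NatT` for the flags in a gauge `cc`
constant on lines (`cc = 0` if `β 1 ≠ 0`), and for `β 1 = 0` the slot `E` is invisible or **strongly
twisted** (`STwL`): no affine function of the height fits more than a `d^γ`-part of a (line, cell).
-/

set_option autoImplicit false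
set_option linter.unusedVariables false
set_option linter.unusedSectionVars false

open Finset Filter Topology

namespace Crest.Agent.R116.Rl899

open Crest.Agent.R138.Ex926 (Base U)
open Crest.Agent.R138.Dp76
open Crest.Agent.R138.Ps926
open Crest.Agent.R138.Mk163 (zc zl rho alive own Negl)
open Crest.Agent.R138.MkRef774 (pl)
open Crest.Agent.R136.MkA627
open Crest.Agent.R136.TD627
open Crest.Agent.R116.ChL222

variable {σ κ : Type*}

/-- **strong twist of the slot `E`**: relative to every affine function of the height. -/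
def STwL (B : Base) (I : ℕ → Finset (ℕ × ℝ)) (lev : ℕ → ℚ → ℕ) (fl : ℕ → ℕ × ℝ → LInc)
    (sc : ℕ → ℝ) (ρ : ℝ) : Prop :=
  ∀ u : ℚ, 0 ≤ u → u < 1 → ∀ r : ℝ, ρ * u < r → ∃ γ : ℝ, 0 < γ ∧
    ∀ᶠ n in (U : Filter ℕ), ∀ x ∈ I n, ∀ c : ℝ,
      ((((I n).filter fun y => y.1 = x.1 ∧ zc (lev n u) y.2 = zc (lev n u) x.2 ∧
          |coL (fl n x) (fl n y) 2 - c * (y.2 - x.2)| ≤ sc n * B.d n ^ r).card : ℕ) : ℝ) ≤
        B.d n ^ γ * ((own (I n) (lev n u) (lev n 1) x).card : ℝ)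

theorem STw.toL {B : Base} {I : ℕ → Finset (ℕ × ℝ)} {lev : ℕ → ℚ → ℕ} {fl : ℕ → ℕ × ℝ → LInc}
    {sc : ℕ → ℝ} {ρ : ℝ} (h : STw B I lev (fun n x => gfL (fl n x)) sc ρ)
    (hfl : ∀ᶠ n in (U : Filter ℕ), ∀ x ∈ I n, ∀ y ∈ I n, y.1 = x.1 → SameL (fl n x) (fl n y)) :
    STwL B I lev fl sc ρ := by
  classical
  intro u h0 h1 r hr
  obtain ⟨γ, hγ, h2⟩ := h u h0 h1 r hr
  refine ⟨γ, hγ, ?_⟩
  filter_upwards [h2, hfl] with n a1 a2 x hx c
  refine le_trans ?_ (a1 x hx c)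
  have : ((I n).filter fun y => y.1 = x.1 ∧ zc (lev n u) y.2 = zc (lev n u) x.2 ∧
          |coL (fl n x) (fl n y) 2 - c * (y.2 - x.2)| ≤ sc n * B.d n ^ r) ⊆
      (I n).filter fun y => y.1 = x.1 ∧ zc (lev n u) y.2 = zc (lev n u) x.2 ∧
          |dev (fun n x => gfL (fl n x)) n x c y| ≤ sc n * B.d n ^ r := by
    intro y hy
    obtain ⟨hy1, hy2, hy3, hy4⟩ := mem_filter.1 hy
    refine mem_filter.2 ⟨hy1, hy2, hy3, ?_⟩
    rw [coL_two (a2 x hx y hy1 hy2)] at hy4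
    exact hy4
  exact_mod_cast card_le_card this

/-- output of the second zoom in the light-ray chart -/
def NatL (P : TDist LInc 12) (G : Geo σ κ) (g s : ℝ) (θ : κ → ℝ) (β C0 : Fin 12 → ℝ)
    (fl : ℕ → ℕ × ℝ → LInc) (B : Base) (I : ℕ → Finset (ℕ × ℝ)) (lev : ℕ → ℚ → ℕ)
    (f : ℕ → ℚ → ℕ → ℤ → ℕ) (b : ℕ → ℚ → ℕ → σ) (vm : ℕ → ℚ → ℝ) (w : κ → ℕ → ℚ → ℝ)
    (fr : ℕ → ℚ → ℕ × ℝ → LInc) (pr : Fin 12 → ℕ → ℚ → ℝ) : Prop :=
  ∃ (H : ℕ → ℝ) (mm : ℕ → ℚ → ℚ) (B' : Base) (I' : ℕ → Finset (ℕ × ℝ)) (A' : ℕ → ℝ)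
    (sc' : Fin 12 → ℕ → ℝ) (cc : ℕ → ℕ → ℝ), (∀ n, 0 < H n ∧ H n ≤ 1) ∧
    (∀ n, ∀ x : ℚ, 0 ≤ x → x ≤ 1 → 0 ≤ mm n x ∧ mm n x ≤ 1) ∧
    (∀ n, ∀ x y : ℚ, (mm n y : ℝ) - mm n x = H n * ((y : ℝ) - x)) ∧
    (∀ n, B'.d n = B.d n ^ H n) ∧ (∀ᶠ n in (U : Filter ℕ), I' n ⊆ I n) ∧
    (β 1 ≠ 0 → cc = fun _ _ => 0) ∧
    TSys P G g s θ β B' I' (fun n x => lev n (mm n x)) A' (fun n x => f n (mm n x))
      (fun n x => b n (mm n x)) (fun n x => vm n (mm n x)) (fun j n x => w j n (mm n x))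
      (fun n x => fr n (mm n x)) (fun j n x => pr j n (mm n x)) (rg cc fl) sc' ∧
    Slack P β B' sc' ∧
    (∀ j, InvT P B' I' j (rg cc fl) (sc' j) ∨
      (0 < β j ∧ RotT P B' I' (fun n x => lev n (mm n x)) j (rg cc fl) (sc' j) (C0 j)
        (fun u => β j * u)) ∨
      (0 < β j ∧ ∃ a ∈ P.M.mon j, ∑ t, (a t : ℝ) * β t = β j ∧
        ∀ t, a t ≠ 0 → ¬ InvT P B' I' t (rg cc fl) (sc' t))) ∧
    (β 1 = 0 → InvT P B' I' 2 (rg cc fl) (sc' 2) ∨
      STwL B' I' (fun n x => lev n (mm n x)) (rg cc fl) (sc' 2) (β 2))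

section

variable {P : TDist LInc 12} {G : Geo σ κ} {g s : ℝ} {θ : κ → ℝ} {β C0 : Fin 12 → ℝ}
    {B : Base} {I : ℕ → Finset (ℕ × ℝ)} {lev : ℕ → ℚ → ℕ} {A : ℕ → ℝ}
    {f : ℕ → ℚ → ℕ → ℤ → ℕ} {b : ℕ → ℚ → ℕ → σ} {vm : ℕ → ℚ → ℝ} {w : κ → ℕ → ℚ → ℝ}
    {fr : ℕ → ℚ → ℕ × ℝ → LInc} {pr : Fin 12 → ℕ → ℚ → ℝ} {fl : ℕ → ℕ × ℝ → LInc}
    {sc : Fin 12 → ℕ → ℝ}

/-- composition of windows and gauges -/
theorem NatL.comp {B1 : Base} {I1 : ℕ → Finset (ℕ × ℝ)} {H1 : ℕ → ℝ} {m1 : ℕ → ℚ → ℚ}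
    {c1 : ℕ → ℕ → ℝ} (hc : β 1 ≠ 0 → c1 = fun _ _ => 0)
    (hH : ∀ n, 0 < H1 n ∧ H1 n ≤ 1) (hm : ∀ n, ∀ x : ℚ, 0 ≤ x → x ≤ 1 → 0 ≤ m1 n x ∧ m1 n x ≤ 1)
    (hq : ∀ n, ∀ x y : ℚ, (m1 n y : ℝ) - m1 n x = H1 n * ((y : ℝ) - x))
    (hB : ∀ n, B1.d n = B.d n ^ H1 n) (hI : ∀ᶠ n in (U : Filter ℕ), I1 n ⊆ I n)
    (h : NatL P G g s θ β C0 (rg c1 fl) B1 I1 (fun n x => lev n (m1 n x)) (fun n x => f n (m1 n x))
      (fun n x => b n (m1 n x)) (fun n x => vm n (m1 n x)) (fun j n x => w j n (m1 n x))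
      (fun n x => fr n (m1 n x)) (fun j n x => pr j n (m1 n x))) :
    NatL P G g s θ β C0 fl B I lev f b vm w fr pr := by
  obtain ⟨H2, m2, B2, I2, A2, sc2, c2, h1, h2, h3, h4, h5, hc2, h6, h7, h8, h9⟩ := h
  rw [rg_rg] at h6 h8 h9
  refine ⟨fun n => H1 n * H2 n, fun n x => m1 n (m2 n x), B2, I2, A2, sc2,
    fun n l => c1 n l + c2 n l, fun n => ⟨?_, ?_⟩,
    fun n x hx0 hx1 => ?_, fun n x y => ?_, fun n => ?_, ?_, fun hβ => ?_, h6, h7, h8, h9⟩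
  · exact mul_pos (hH n).1 (h1 n).1
  · exact mul_le_one₀ (hH n).2 (h1 n).1.le (h1 n).2
  · exact hm n _ (h2 n x hx0 hx1).1 (h2 n x hx0 hx1).2
  · rw [hq, h3]; ring
  · rw [h4, hB, ← Real.rpow_mul (B.pos n).le]
  · filter_upwards [hI, h5] with n a1 a2 using a2.trans a1
  · rw [hc hβ, hc2 hβ]
    funext n l
    simp

theorem NatL.mono {J : ℕ → Finset (ℕ × ℝ)} (hJ : ∀ᶠ n in (U : Filter ℕ), J n ⊆ I n)
    (h : NatL P G g s θ β C0 fl B J lev f b vm w fr pr) :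
    NatL P G g s θ β C0 fl B I lev f b vm w fr pr :=
  NatL.comp (H1 := fun _ => 1) (m1 := fun _ x => x) (c1 := fun _ _ => 0) (fun _ => rfl)
    (fun _ => ⟨one_pos, le_rfl⟩)
    (fun n x h0 h1 => ⟨h0, h1⟩) (fun n x y => by ring) (fun n => by rw [Real.rpow_one]) hJ
    (by rw [rg_zero]; exact h)

/-- composition of windows, same gauge -/
theorem NatL.comp0 {B1 : Base} {I1 : ℕ → Finset (ℕ × ℝ)} {H1 : ℕ → ℝ} {m1 : ℕ → ℚ → ℚ}
    (hH : ∀ n, 0 < H1 n ∧ H1 n ≤ 1) (hm : ∀ n, ∀ x : ℚ, 0 ≤ x → x ≤ 1 → 0 ≤ m1 n x ∧ m1 n x ≤ 1)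
    (hq : ∀ n, ∀ x y : ℚ, (m1 n y : ℝ) - m1 n x = H1 n * ((y : ℝ) - x))
    (hB : ∀ n, B1.d n = B.d n ^ H1 n) (hI : ∀ᶠ n in (U : Filter ℕ), I1 n ⊆ I n)
    (h : NatL P G g s θ β C0 fl B1 I1 (fun n x => lev n (m1 n x)) (fun n x => f n (m1 n x))
      (fun n x => b n (m1 n x)) (fun n x => vm n (m1 n x)) (fun j n x => w j n (m1 n x))
      (fun n x => fr n (m1 n x)) (fun j n x => pr j n (m1 n x))) :
    NatL P G g s θ β C0 fl B I lev f b vm w fr pr :=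
  NatL.comp (c1 := fun _ _ => 0) (fun _ => rfl) hH hm hq hB hI (by rw [rg_zero]; exact h)

/-- the flags of one line lie on one ray and have one slot `D` -/
def FlOK (I : ℕ → Finset (ℕ × ℝ)) (fl : ℕ → ℕ × ℝ → LInc) : Prop :=
  (∀ᶠ n in (U : Filter ℕ), ∀ x ∈ I n, ∀ y ∈ I n, y.1 = x.1 → SameL (fl n x) (fl n y)) ∧
    ∀ n x, (fl n x).z = x.2

theorem FlOK.sub {I J : ℕ → Finset (ℕ × ℝ)} {fl : ℕ → ℕ × ℝ → LInc} (h : FlOK I fl)
    (hJ : ∀ᶠ n in (U : Filter ℕ), J n ⊆ I n) : FlOK J fl := by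
  refine ⟨?_, h.2⟩
  filter_upwards [h.1, hJ] with n a1 a2 x hx y hy using a1 x (a2 hx) y (a2 hy)

theorem FlOK.rg {I : ℕ → Finset (ℕ × ℝ)} {fl : ℕ → ℕ × ℝ → LInc} (h : FlOK I fl)
    (cc : ℕ → ℕ → ℝ) : FlOK I (rg cc fl) := by
  refine ⟨?_, fun n x => h.2 n x⟩
  filter_upwards [h.1] with n a1 x hx y hy hxy
  unfold Rl899.rg
  rw [hxy]
  exact (a1 x hx y hy hxy).shL _

theorem FlOK.invD (hP : ∀ k n a b, P.d k n a b = |coL a b k|) (h : FlOK I fl) {sc : ℕ → ℝ}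
    (hsc : ∀ n, 0 < sc n) : InvT P B I 1 fl sc := by
  intro M
  filter_upwards [h.1] with n a1 x hx y hy hxy
  rw [hP, coL_one (a1 x hx y hy hxy), abs_zero]
  exact (mul_pos (hsc n) (dpow_pos B n _)).le

/-- fewer visible slots -/
theorem ncard_lt {B1 B2 : Base} {I1 I2 : ℕ → Finset (ℕ × ℝ)} {fl1 fl2 : ℕ → ℕ × ℝ → LInc}
    {sc1 sc2 : Fin 12 → ℕ → ℝ} (h : ∀ j, InvT P B1 I1 j fl1 (sc1 j) → InvT P B2 I2 j fl2 (sc2 j))
    {j0 : Fin 12} (h1 : ¬ InvT P B1 I1 j0 fl1 (sc1 j0)) (h2 : InvT P B2 I2 j0 fl2 (sc2 j0)) :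
    {j | ¬ InvT P B2 I2 j fl2 (sc2 j)}.ncard < {j | ¬ InvT P B1 I1 j fl1 (sc1 j)}.ncard := by
  refine Set.ncard_lt_ncard ?_ (Set.toFinite _)
  rw [Set.ssubset_iff_of_subset]
  · exact ⟨j0, h1, fun hj => hj h2⟩
  · intro j hj hj2
    exact hj (h j hj2)

/-- **second zoom of the light-ray chart** (induction on the number of visible slots) -/
theorem exists_natL [Countable κ] (hP : ∀ k n a b, P.d k n a b = |coL a b k|)
    (hM : ∀ a ∈ P.M.mon 2, a 1 ≠ 0) (hC : ∀ j, β j ≤ C0 j) :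
    ∀ (N : ℕ) (B : Base) (I : ℕ → Finset (ℕ × ℝ)) (lev : ℕ → ℚ → ℕ) (A : ℕ → ℝ)
      (f : ℕ → ℚ → ℕ → ℤ → ℕ) (b : ℕ → ℚ → ℕ → σ) (vm : ℕ → ℚ → ℝ) (w : κ → ℕ → ℚ → ℝ)
      (fr : ℕ → ℚ → ℕ × ℝ → LInc) (pr : Fin 12 → ℕ → ℚ → ℝ) (fl : ℕ → ℕ × ℝ → LInc)
      (sc : Fin 12 → ℕ → ℝ),
      TSys P G g s θ β B I lev A f b vm w fr pr fl sc → Slack P β B sc →
      (∀ j, InvT P B I j fl (sc j) ∨ 0 < β j) →
      (∀ n (v : ℚ), pr 2 n v = rho (lev n v) * pr 1 n v) → FlOK I fl →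
      {j | ¬ InvT P B I j fl (sc j)}.ncard ≤ N →
      NatL P G g s θ β C0 fl B I lev f b vm w fr pr := by
  classical
  intro N
  induction N with
  | zero =>
    intro B I lev A f b vm w fr pr fl sc h hsl hβ hpu hfl hN
    have hall : ∀ j, InvT P B I j fl (sc j) := by
      intro j
      by_contra hcon
      have h1 : {j | ¬ InvT P B I j fl (sc j)}.ncard = 0 := Nat.le_zero.1 hN
      rw [Set.ncard_eq_zero (Set.toFinite _)] at h1
      have : j ∈ {j | ¬ InvT P B I j fl (sc j)} := hcon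
      rw [h1] at this
      exact this
    refine ⟨fun _ => 1, fun _ x => x, B, I, A, sc, fun _ _ => 0, fun n => ⟨one_pos, le_rfl⟩,
      fun n x h0 h1 => ⟨h0, h1⟩, fun n x y => by ring, fun n => by rw [Real.rpow_one],
      Eventually.of_forall fun n => Finset.Subset.refl _, fun _ => rfl, ?_⟩
    rw [rg_zero]
    exact ⟨h, hsl, fun j => Or.inl (hall j), fun _ => Or.inl (hall 2)⟩
  | succ N ih =>
    intro B I lev A f b vm w fr pr fl sc h hsl hβ hpu hfl hN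
    obtain ⟨J, R, hd, hS, hR⟩ := h.exists_rots hβ hsl hC
    have hInvJ : ∀ j, InvT P B I j fl (sc j) → InvT P B J j fl (sc j) :=
      fun j hj => hj.dense hd
    have hβJ : ∀ j, InvT P B J j fl (sc j) ∨ 0 < β j := fun j => (hβ j).imp (hInvJ j) id
    have hflJ : FlOK J fl := hfl.sub hd.1
    by_cases hV : ∃ j1, ¬ InvT P B I j1 fl (sc j1) ∧ InvT P B J j1 fl (sc j1)
    · obtain ⟨j1, hj1, hj1'⟩ := hV
      refine NatL.mono hd.1 (ih B J lev A f b vm w fr pr fl sc hS hsl hβJ hpu hflJ ?_)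
      have := ncard_lt hInvJ hj1 hj1'
      omega
    push Not at hV
    by_cases hA : ∀ j, InvT P B J j fl (sc j) ∨ ¬ Free P β B I fl sc j ∨
        ∀ u : ℚ, 0 ≤ u → u < 1 → R j u = β j * u
    · by_cases hE : β 1 = 0 ∧ ¬ InvT P B J 2 fl (sc 2)
      · -- the slot `E` is tied
        obtain ⟨hβD, hE⟩ := hE
        have hβE : 0 < β 2 := (hβJ 2).resolve_left hE
        have hD : InvT P B I 1 fl (sc 1) := hfl.invD hP (h.scpos 1)
        have hfE : Free P β B I fl sc 2 := fun a ha => Or.inr ⟨1, hM a ha, hD⟩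
        obtain ⟨r1, r2⟩ := hR 2 hβE hfE
        have r3 := ((hA 2).resolve_left hE).resolve_left (not_not.2 hfE)
        have hrot := r1.lin hβE.le (hC 2) r2 r3
        have hs : s < 1 := s_lt hS hβE (hC 2) hrot
        obtain ⟨J2, hJ2d, hJ2, hdich⟩ := exists_lin (Gf := fun n x => gfL (fl n x)) (sc := sc 2)
          hS.mka (h.scpos 2) (β 2)
        have hS2 := hS.dense hJ2d hJ2
        have hJI : Dense B J2 I := hJ2d.trans hd
        have hInv2 : ∀ j, InvT P B I j fl (sc j) → InvT P B J2 j fl (sc j) :=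
          fun j hj => hj.dense hJI
        have hfl2 : FlOK J2 fl := hfl.sub hJI.1
        have hβ2 : ∀ j, InvT P B J2 j fl (sc j) ∨ 0 < β j := fun j => (hβ j).imp (hInv2 j) id
        by_cases hV2 : ∃ j1, ¬ InvT P B I j1 fl (sc j1) ∧ InvT P B J2 j1 fl (sc j1)
        · obtain ⟨j1, hj1, hj1'⟩ := hV2
          refine NatL.mono hJI.1 (ih B J2 lev A f b vm w fr pr fl sc hS2 hsl hβ2 hpu hfl2 ?_)
          have := ncard_lt hInv2 hj1 hj1'
          omega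
        push Not at hV2
        rcases hdich with ⟨u, r, a, hu0, hu1, hr, hal⟩ | hst
        · -- one more zoom and a change of gauge
          obtain ⟨H, mm, B', I', A', sc', cc, h1, h2, h3, h4, h5, h6, h7, h8, h9⟩ :=
            regauge hP hS2 hsl hs hβD hβE hpu hfl2.1 hfl2.2 hu0 hu1 hr hal
          refine NatL.comp (fun hh => absurd hβD hh) h1 h2 h3 h4
            (by filter_upwards [h5, hJI.1] with n a1 a2 using a1.trans a2)
            (ih B' I' _ A' _ _ _ _ _ _ (rg cc fl) sc' h6 h7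
              (fun j => (hβ2 j).imp (h9 j) id) (fun n v => hpu n _) ((hfl2.sub h5).rg cc) ?_)
          have := ncard_lt (P := P) (fun j hj => h9 j (hInv2 j hj))
            (fun hh => hE (hInvJ 2 hh)) h8
          omega
        · refine ⟨fun _ => 1, fun _ x => x, B, J2, A, sc, fun _ _ => 0, fun n => ⟨one_pos, le_rfl⟩,
            fun n x h0 h1 => ⟨h0, h1⟩, fun n x y => by ring, fun n => by rw [Real.rpow_one],
            hJI.1, fun _ => rfl, ?_⟩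
          rw [rg_zero]
          refine ⟨hS2, hsl, fun j => ?_, fun _ => Or.inr (hst.toL hfl2.1)⟩
          by_cases hj : InvT P B J2 j fl (sc j)
          · exact Or.inl hj
          have hβj : 0 < β j := (hβ2 j).resolve_left hj
          have hjJ : ¬ InvT P B J j fl (sc j) := fun hh => hj (hh.dense hJ2d)
          by_cases hf : Free P β B I fl sc j
          · obtain ⟨k1, k2⟩ := hR j hβj hf
            have k3 := ((hA j).resolve_left hjJ).resolve_left (not_not.2 hf)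
            exact Or.inr (Or.inl ⟨hβj, (k1.lin hβj.le (hC j) k2 k3).dense hS.mka hS2.mka hJ2d⟩)
          · unfold Free at hf
            push Not at hf
            obtain ⟨a, ha, hle, hinv⟩ := hf
            refine Or.inr (Or.inr ⟨hβj, a, ha, hle, fun t ht => ?_⟩)
            exact hV2 t (hinv t ht)
      · refine ⟨fun _ => 1, fun _ x => x, B, J, A, sc, fun _ _ => 0, fun n => ⟨one_pos, le_rfl⟩,
          fun n x h0 h1 => ⟨h0, h1⟩, fun n x y => by ring, fun n => by rw [Real.rpow_one],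
          hd.1, fun _ => rfl, ?_⟩
        rw [rg_zero]
        refine ⟨hS, hsl, fun j => ?_, fun h0 => Or.inl ?_⟩
        · by_cases hj : InvT P B J j fl (sc j)
          · exact Or.inl hj
          have hβj : 0 < β j := (hβJ j).resolve_left hj
          by_cases hf : Free P β B I fl sc j
          · obtain ⟨h1, h2⟩ := hR j hβj hf
            have h3 := ((hA j).resolve_left hj).resolve_left (not_not.2 hf)
            exact Or.inr (Or.inl ⟨hβj, h1.lin hβj.le (hC j) h2 h3⟩)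
          · unfold Free at hf
            push Not at hf
            obtain ⟨a, ha, hle, hinv⟩ := hf
            refine Or.inr (Or.inr ⟨hβj, a, ha, hle, fun t ht => ?_⟩)
            exact hV t (hinv t ht)
        · by_contra hcon
          exact hE ⟨h0, hcon⟩
    · push Not at hA
      obtain ⟨j0, hj0, hf0, hA⟩ := hA
      have hβ0 : 0 < β j0 := (hβJ j0).resolve_left hj0
      obtain ⟨u0, hu0, hu1, hne⟩ := hA
      obtain ⟨hR0, hR1⟩ := hR j0 hβ0 hf0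
      have hu0' : (0 : ℝ) ≤ u0 := by exact_mod_cast hu0
      have hu1' : (u0 : ℝ) < 1 := by exact_mod_cast hu1
      have hlt : β j0 * u0 < R j0 u0 := lt_of_le_of_ne (hR1 u0 hu0' hu1'.le) (Ne.symm hne)
      set D : ℝ := R j0 u0 - β j0 * u0 with hDdef
      have hD : 0 < D := by rw [hDdef]; linarith
      set δ : ℝ := min (D / (2 * β j0)) (1 - u0) with hδdef
      have hδ : 0 < δ := lt_min (by positivity) (by linarith)
      have hδ1 : δ ≤ D / (2 * β j0) := min_le_left _ _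
      have hδ2 : δ ≤ 1 - u0 := min_le_right _ _
      have hgap : ∀ᶠ v in 𝓝 ((u0 : ℝ) + δ / 2), β j0 * v + D / 2 ≤ R j0 v := by
        have hmem : Set.Ioo (u0 : ℝ) (u0 + δ) ∈ 𝓝 ((u0 : ℝ) + δ / 2) :=
          Ioo_mem_nhds (by linarith) (by linarith)
        filter_upwards [hmem] with v hv
        have c1 : R j0 u0 ≤ R j0 v := hR0.mono ⟨hu0', hu1'.le⟩ ⟨by linarith [hv.1], by
          linarith [hv.2]⟩ hv.1.le
        have c2 : β j0 * (v - u0) ≤ β j0 * (D / (2 * β j0)) :=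
          mul_le_mul_of_nonneg_left (by linarith [hv.2]) hβ0.le
        have c3 : β j0 * (D / (2 * β j0)) = D / 2 := by field_simp
        rw [c3] at c2
        have c4 : β j0 * (v - u0) = β j0 * v - β j0 * u0 := by ring
        rw [c4] at c2
        linarith
      obtain ⟨H, mm, B', I', A', sc', h1, h2, h3, h4, h5, h6, h7, h8, h9⟩ :=
        hS.zoom_gap hsl (v0 := (u0 : ℝ) + δ / 2) hR0 (by linarith) (by linarith)
          (D := D / 2) (by positivity) hgap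
      refine NatL.comp0 h1 h2 h3 h4 (by filter_upwards [h5, hd.1] with n a1 a2 using a1.trans a2)
        (ih B' I' _ A' _ _ _ _ _ _ fl sc' h6 h7 (fun j => (hβJ j).imp (h9 j) id)
          (fun n v => hpu n _) (hflJ.sub h5) ?_)
      have := ncard_lt (P := P) (fun j hj => h9 j (hInvJ j hj)) (fun hh => hj0 (hInvJ j0 hh)) h8
      omega

/-- **second zoom of the light-ray chart**, user form. -/
theorem natL [Countable κ] (hP : ∀ k n a b, P.d k n a b = |coL a b k|)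
    (hM : ∀ a ∈ P.M.mon 2, a 1 ≠ 0) (hC : ∀ j, β j ≤ C0 j)
    (h : TSys P G g s θ β B I lev A f b vm w fr pr fl sc)
    (hβ : ∀ j, InvT P B I j fl (sc j) ∨ 0 < β j)
    (hpu : ∀ n (v : ℚ), pr 2 n v = rho (lev n v) * pr 1 n v) (hfl : β 1 = 0 → FlOK I fl) :
    NatL P G g s θ β C0 fl B I lev f b vm w fr pr := by
  by_cases hβD : β 1 = 0
  · obtain ⟨H, mm, B', I', A', sc', h1, h2, h3, h4, h5, h6, h7, h8⟩ := h.zoom_slack
    exact NatL.comp0 h1 h2 h3 h4 h5 (exists_natL hP hM hC _ B' I' _ A' _ _ _ _ _ _ fl sc' h6 h7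
      (fun j => (hβ j).imp (h8 j) id) (fun n v => hpu n _) ((hfl hβD).sub h5) le_rfl)
  · obtain ⟨H, mm, B', I', A', sc', h1, h2, h3, h4, h5, h6, h7, h8⟩ := h.natT hβ hC
    refine ⟨H, mm, B', I', A', sc', fun _ _ => 0, h1, h2, h3, h4, h5, fun _ => rfl, ?_⟩
    rw [rg_zero]
    exact ⟨h6, h7, h8, fun h0 => absurd h0 hβD⟩

/-- `NatL` is `NatT` for a change of gauge -/
theorem NatL.toNatT (h : NatL P G g s θ β C0 fl B I lev f b vm w fr pr) :
    ∃ cc : ℕ → ℕ → ℝ, NatT P G g s θ β C0 (rg cc fl) B I lev f b vm w fr pr := by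
  obtain ⟨H2, m2, B2, I2, A2, sc2, c2, h1, h2, h3, h4, h5, hc2, h6, h7, h8, h9⟩ := h
  exact ⟨c2, H2, m2, B2, I2, A2, sc2, h1, h2, h3, h4, h5, h6, h7, h8⟩

end

end Crest.Agent.R116.Rl899
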