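import Crest.Agent.R116.KF7_439
import Crest.Agent.R116.Rl4_899

/-!
# R116 (K side), K7 FLAG-L, part 8 (helper439): interface with 899's `natL2`

* `flOK_thin`, `flOK_flat` : flags of one line lie on one ray and have one slot `D`.
* `PL_two`, `prN_two` : side conditions of `natL2`.
-/

set_option autoImplicit false
set_option linter.unusedVariables false

open Finset Filter Topology

namespace Crest.Agent.R116.KF439

open Crest.Agent.R138.Defs (E2)
open Crest.Agent.R138.Ex926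
open Crest.Agent.R138.Dp76
open Crest.Agent.R138.Mk163 (zc zl rho alive own Negl)
open Crest.Agent.R136.MkA627
open Crest.Agent.R136.TD627 (TDist TSys InvT NearE WallE)
open Crest.Agent.R116.LZg725
open Crest.Agent.R116.ChL222
open Crest.Agent.R116.Bm903
open Crest.Agent.R116.KI439
open Crest.Agent.R116.PL504
open Crest.Agent.R116.Rl899 (FlOK SameL)

section

variable {L : ℕ → ℕ → LRay} {B : Base} {J : ℕ → Finset (ℕ × ℝ)}
    {G : Geo SL (Fin 2)} {lev : ℕ → ℚ → ℕ} {A : ℕ → ℝ} {θ : Fin 2 → ℝ} {c Λ : ℝ → ℝ}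
    {τ : Fin 2 → ℝ → ℝ}
    {f : ℕ → ℚ → ℕ → ℤ → ℕ} {b : ℕ → ℚ → ℕ → SL} {vm : ℕ → ℚ → ℝ} {w : Fin 2 → ℕ → ℚ → ℝ}
    {a : Fin 2}

theorem flOK_thin (h : MkA B J G lev A c Λ τ f b vm w) (hβ : βL (θ 0) (θ 1) 1 ≤ 0) :
    FlOK J (flT lev f b a θ L) := by
  refine ⟨?_, fun n x => rfl⟩
  filter_upwards [h.cell0] with n hn x hx y hy hxy
  have hz := hn y hy x hx
  have e0 : psi lev f b a n 0 y = psi lev f b a n 0 x := by
    unfold psi mkL
    rw [hxy, hz]
  unfold flT flL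
  rw [hxy, lvl_zero hβ]
  exact ⟨rfl, rfl, rfl, rfl, rfl, by
    show (psi lev f b a n 0 y).d = (psi lev f b a n 0 x).d
    rw [e0]⟩

theorem flOK_flat : FlOK J (flF a L) := by
  refine ⟨Eventually.of_forall fun n x hx y hy hxy => ?_, fun n x => rfl⟩
  unfold flF
  rw [hxy]
  exact ⟨rfl, rfl, rfl, rfl, rfl, rfl⟩

end

end Crest.Agent.R116.KF439
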