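import Crest.Agent.R116.KF2_439
import Crest.Agent.R136.PtA_627
import Crest.Agent.R136.ZoomA_102

/-!
# R116 (K side), leaf [KL1] (helper391): zoom to a linear loss `Λ`

The abstract marked sequence with `c v = g v + 2 Λ v` and linear width exponents has a window in which
`Λ v = s v` and `c v = (g + 2 s) v`; the level maps of the window are affine with rate `H n → 0` and
shrink to a differentiability point of `Λ` (`Win` of `KF2_439`).
-/

set_option autoImplicit false
set_option linter.unusedVariables false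

open Finset Filter Topology

namespace Crest.Agent.R116.KL391

open Crest.Agent.R138.Ex926 (Base U)
open Crest.Agent.R138.MkPoint627 (exists_affine)
open Crest.Agent.R136.MkA627
open Crest.Agent.R136.ZoomA102 (zoomA)
open Crest.Agent.R116.KF439

/-- **[KL1]** zoom to a linear loss. -/
theorem kl1 {σ κ : Type*} [Countable κ] {B : Base} {I : ℕ → Finset (ℕ × ℝ)} {G : Geo σ κ}
    {lev : ℕ → ℚ → ℕ} {A : ℕ → ℝ} {g : ℝ} {Λ : ℝ → ℝ} {θ : κ → ℝ}
    {f : ℕ → ℚ → ℕ → ℤ → ℕ} {b : ℕ → ℚ → ℕ → σ} {vm : ℕ → ℚ → ℝ} {w : κ → ℕ → ℚ → ℝ}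
    (h : MkA B I G lev A (fun v => g * v + 2 * Λ v) Λ (fun j v => θ j * (1 - v)) f b vm w) :
    ∃ (H : ℕ → ℝ) (mm : ℕ → ℚ → ℚ) (B' : Base) (I' : ℕ → Finset (ℕ × ℝ)) (A' : ℕ → ℝ) (s : ℝ),
      0 ≤ s ∧ s ≤ 1 ∧ Win B I B' I' H mm ∧
      MkA B' I' G (fun n x => lev n (mm n x)) A' (fun v => (g + 2 * s) * v) (fun v => s * v)
        (fun j v => θ j * (1 - v)) (fun n x => f n (mm n x)) (fun n x => b n (mm n x))
        (fun n x => vm n (mm n x)) (fun j n x => w j n (mm n x)) := by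
  have hlam : ∀ u v : ℚ, 0 ≤ u → u ≤ v → v ≤ 1 → 0 ≤ Λ v - Λ u ∧ Λ v - Λ u ≤ (v : ℝ) - u := by
    intro u v hu huv hv
    exact h.lam u v (by exact_mod_cast hu) (by exact_mod_cast huv) (by exact_mod_cast hv)
  obtain ⟨F', h1, -, v0, hv0, D, hD⟩ := exists_point_fam (ι := Unit) (F := fun _ => Λ)
    (C := fun _ => 0) (fun _ u v hu huv hv => by
      have := (hlam u v hu huv hv).1
      show -(0 * ((v : ℝ) - u)) ≤ Λ v - Λ u
      linarith)
  obtain ⟨η, m, hη, hη1, hη0, hm, hmono, hq, hpt, hlim⟩ := exists_affine hv0.1 hv0.2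
  -- the difference quotients of `Λ`
  have hΛ : ∀ x y : ℚ, 0 ≤ x → x ≤ 1 → 0 ≤ y → y ≤ 1 →
      Tendsto (fun k => (Λ (m k y) - Λ (m k x)) / η k) atTop (𝓝 (D () * ((y : ℝ) - x))) := by
    intro x y hx0 hx1 hy0 hy1
    refine (hlim (F' ()) (D ()) (hD ()) x y).congr fun k => ?_
    rw [h1 () _ (hm k x hx0 hx1).1 (hm k x hx0 hx1).2, h1 () _ (hm k y hy0 hy1).1 (hm k y hy0 hy1).2]
  have e : D () * (((1 : ℚ) : ℝ) - ((0 : ℚ) : ℝ)) = D () := by push_cast; ring
  have hT := hΛ 0 1 le_rfl zero_le_one zero_le_one le_rfl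
  rw [e] at hT
  have hstep : ∀ k, 0 ≤ Λ (m k 1) - Λ (m k 0) ∧ Λ (m k 1) - Λ (m k 0) ≤ η k := fun k => by
    have h4 := hlam (m k 0) (m k 1) (hm k 0 le_rfl zero_le_one).1 (hmono k 0 1 zero_le_one)
      (hm k 1 zero_le_one le_rfl).2
    have h5 := hq k 0 1
    rw [div_eq_iff (hη k).ne'] at h5
    push_cast at h5
    exact ⟨h4.1, by linarith [h4.2]⟩
  have hs0 : 0 ≤ D () := ge_of_tendsto' hT fun k => div_nonneg (hstep k).1 (hη k).le
  have hs1 : D () ≤ 1 := le_of_tendsto' hT fun k => by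
    rw [div_le_one (hη k)]; exact (hstep k).2
  obtain ⟨s0, hs0t, hz⟩ := zoomA h η m (fun v => (g + 2 * D ()) * v) (fun v => D () * v)
    (fun j v => θ j * (1 - v)) hη hη1 hm
    (fun x y _ hxy _ => Eventually.of_forall fun k => hmono k x y hxy)
    (fun x y _ _ _ => by
      simp only [hq]
      exact tendsto_const_nhds)
    (fun x hx0 hx1 => by
      have a1 := hΛ 0 x le_rfl zero_le_one hx0 hx1
      have a2 : Tendsto (fun k => g * (((m k x : ℝ) - m k 0) / η k)) atTop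
          (𝓝 (g * ((x : ℝ) - ((0 : ℚ) : ℝ)))) := by
        simp only [hq]
        exact tendsto_const_nhds
      have a3 := a2.add (a1.const_mul 2)
      have a4 : g * ((x : ℝ) - ((0 : ℚ) : ℝ)) + 2 * (D () * ((x : ℝ) - ((0 : ℚ) : ℝ))) =
          (g + 2 * D ()) * (x : ℝ) := by push_cast; ring
      rw [a4] at a3
      refine a3.congr fun k => ?_
      ring)
    (fun x hx0 hx1 => by
      have := hΛ 0 x le_rfl zero_le_one hx0 hx1
      simpa using this)
    (fun j x hx0 hx1 => by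
      have a2 : Tendsto (fun k => -(θ j * (((m k x : ℝ) - m k 1) / η k))) atTop
          (𝓝 (-(θ j * ((x : ℝ) - ((1 : ℚ) : ℝ))))) := by
        simp only [hq]
        exact tendsto_const_nhds
      have a4 : -(θ j * ((x : ℝ) - ((1 : ℚ) : ℝ))) = θ j * (1 - (x : ℝ)) := by push_cast; ring
      rw [a4] at a2
      refine a2.congr fun k => ?_
      ring)
    (fun u v hu huv hv => by
      constructor
      · nlinarith
      · nlinarith) (by simp) (by simp) (by simp)
  obtain ⟨B', I', A', hB', hI', hMk⟩ := hz s0 hs0t (Eventually.of_forall fun n => le_rfl)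
  refine ⟨fun n => η (s0 n), fun n => m (s0 n), B', I', A', D (), hs0, hs1, ?_, hMk⟩
  exact
  { pos := fun n => ⟨hη _, hη1 _⟩
    lim := hη0.comp hs0t
    mem := fun n => hm _
    aff := fun n x y => by
      have h5 := hq (s0 n) x y
      rw [div_eq_iff (hη _).ne'] at h5
      linarith
    pt := ⟨v0, hv0, fun x => (hpt x).comp hs0t⟩
    base := hB'
    sub := hI' }

end Crest.Agent.R116.KL391
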