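import Crest.Agent.R116.KL2_388

/-!
# R116 (K side), [KL2] in diagonal form (helper388, request of 139)

`tt_diag` : for windows `m k` which shrink to a point `v0` of `(0,1)` with lengths `η k → 0` there is
`s1 → ∞` such that along every `s → ∞`, `s ≤ s1`, the marks of the window are infinitely thin or
round (w.r.t. the base of the window).
-/

set_option autoImplicit false
set_option linter.unusedVariables false

open Finset Filter Topology

namespace Crest.Agent.R116.KL388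

open Crest.Agent.R138.Ex926 (Base U exists_diag exists_tendsto ev_em U_le_atTop)
open Crest.Agent.R138.Mk163 (rho alive own)
open Crest.Agent.R138.MkZoom779 (Fq Fq_mem ev_mem_Fq)
open Crest.Agent.R136.MkA627
open Crest.Agent.R116.KF439 (Thin Thick Win)

section

variable {σ : Type*} {B : Base} {I : ℕ → Finset (ℕ × ℝ)} {G : Geo σ (Fin 2)} {lev : ℕ → ℚ → ℕ}
    {A : ℕ → ℝ} {f : ℕ → ℚ → ℕ → ℤ → ℕ} {b : ℕ → ℚ → ℕ → σ}
    {vm : ℕ → ℚ → ℝ} {w : Fin 2 → ℕ → ℚ → ℝ} {c Λ : ℝ → ℝ} {θ : Fin 2 → ℝ}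

/-- **[KL2], diagonal form.** -/
theorem tt_diag (h : MkA B I G lev A c Λ (fun j v => θ j * (1 - v)) f b vm w)
    (hle : ∀ v : ℚ, 0 ≤ v → v ≤ 1 → ∀ᶠ n in (U : Filter ℕ), w 1 n v ≤ w 0 n v)
    {v0 : ℝ} (hv0 : 0 < v0) (hv1 : v0 < 1) {η : ℕ → ℝ} {m : ℕ → ℚ → ℚ}
    (hη : ∀ k, 0 < η k) (hη1 : ∀ k, η k ≤ 1) (hη0 : Tendsto η atTop (𝓝 0))
    (hm : ∀ k, ∀ x : ℚ, 0 ≤ x → x ≤ 1 → 0 ≤ m k x ∧ m k x ≤ 1)
    (hmv : ∀ x : ℚ, 0 ≤ x → x ≤ 1 → Tendsto (fun k => ((m k x : ℚ) : ℝ)) atTop (𝓝 v0)) :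
    ∃ s1 : ℕ → ℕ, Tendsto s1 U atTop ∧ ∀ s : ℕ → ℕ, Tendsto s U atTop →
      (∀ᶠ n in (U : Filter ℕ), s n ≤ s1 n) → ∀ B' : Base, (∀ n, B'.d n = B.d n ^ η (s n)) →
        Thin B' (fun j n x => w j n (m (s n) x)) ∨ Thick B' (fun j n x => w j n (m (s n) x)) := by
  classical
  set Δ : ℝ := θ 1 - θ 0 with hΔ
  have hd : ∀ v : ℚ, 0 ≤ v → v ≤ 1 →
      Tendsto (fun n => rr B w n v - rr B w n 1) U (𝓝 (Δ * (1 - v))) := fun v h0 h1 => by
    have := rr_diff h h0 h1
    have e : Δ * (1 - (v : ℝ)) = θ 1 * (1 - v) - θ 0 * (1 - v) := by rw [hΔ]; ring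
    rw [e]
    exact this
  have hpos : ∀ v : ℚ, 0 ≤ v → v ≤ 1 → ∀ᶠ n in (U : Filter ℕ), 0 ≤ rr B w n v := fun v h0 h1 => by
    filter_upwards [h.wpos 1 v h0 h1, hle v h0 h1] with n a1 a2 using rr_nonneg a1 a2
  by_cases hA : Tendsto (fun n => rr B w n 1) U atTop
  · -- infinitely thin at all levels
    obtain ⟨s1, hs1t, hs1'⟩ := exists_diag
      (fun k n => ∀ x ∈ Fq k, (k : ℝ) ≤ rr B w n (m k x) ∧ 0 < w 0 n (m k x) ∧
        0 < w 1 n (m k x)) (by
        intro k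
        rw [Filter.eventually_all_finset]
        intro x hx
        obtain ⟨hx0, hx1⟩ := Fq_mem hx
        obtain ⟨hm0, hm1⟩ := hm k x hx0 hx1
        have e1 := (Metric.tendsto_nhds.1 (hd (m k x) hm0 hm1)) 1 one_pos
        filter_upwards [e1, hA.eventually_ge_atTop ((k : ℝ) + 1 + |Δ * (1 - (m k x : ℝ))|),
          h.wpos 0 (m k x) hm0 hm1, h.wpos 1 (m k x) hm0 hm1] with n a1 a2 a3 a4
        refine ⟨?_, a3, a4⟩
        rw [Real.dist_eq] at a1
        have b1 := (abs_lt.1 a1).1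
        have b2 := neg_abs_le (Δ * (1 - (m k x : ℝ)))
        linarith)
    refine ⟨s1, hs1t, fun s hs hsle B' hB' => Or.inl ?_⟩
    intro M v h0 h1
    have hF : ∀ᶠ n in (U : Filter ℕ), v ∈ Fq (s n) := hs.eventually (ev_mem_Fq h0 h1)
    have hK : ∀ᶠ n in (U : Filter ℕ), |M| ≤ (s n : ℝ) :=
      (tendsto_natCast_atTop_atTop.comp hs).eventually_ge_atTop |M|
    filter_upwards [hF, hK, hs1', hsle] with n a1 a2 a3 a4
    obtain ⟨b1, b2, b3⟩ := a3 (s n) a4 v a1
    have e : B'.d n ^ M = B.d n ^ (η (s n) * M) := by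
      rw [hB', ← Real.rpow_mul (B.pos n).le]
    show w 1 n (m (s n) v) ≤ B'.d n ^ M * w 0 n (m (s n) v)
    rw [e]
    refine thin_of b2 b3 (le_trans ?_ (a2.trans b1))
    calc η (s n) * M ≤ η (s n) * |M| := mul_le_mul_of_nonneg_left (le_abs_self _) (hη _).le
      _ ≤ 1 * |M| := mul_le_mul_of_nonneg_right (hη1 _) (abs_nonneg _)
      _ = |M| := one_mul _
  · -- bounded
    have hbd : ∃ C : ℝ, ∀ᶠ n in (U : Filter ℕ), |rr B w n 1| ≤ C := by
      rw [tendsto_atTop] at hA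
      push Not at hA
      obtain ⟨C, hC⟩ := hA
      refine ⟨C, ?_⟩
      have hC' : ∀ᶠ n in (U : Filter ℕ), ¬ (C ≤ rr B w n 1) := by
        rcases ev_em (fun n => C ≤ rr B w n 1) with h1 | h1
        · exact absurd h1 (by simpa using hC)
        · exact h1
      filter_upwards [hC', hpos 1 zero_le_one le_rfl] with n a1 a2
      rw [abs_of_nonneg a2]
      exact (not_le.1 a1).le
    obtain ⟨C, hC⟩ := hbd
    obtain ⟨r1, hr1, -⟩ := exists_tendsto hC
    have hlim : ∀ v : ℚ, 0 ≤ v → v ≤ 1 →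
        Tendsto (fun n => rr B w n v) U (𝓝 (r1 + Δ * (1 - v))) := fun v h0 h1 => by
      have := (hd v h0 h1).add hr1
      have e : (fun n => rr B w n v - rr B w n 1 + rr B w n 1) = fun n => rr B w n v := by
        funext n; ring
      rw [e] at this
      rwa [add_comm r1]
    have hge : ∀ v : ℚ, 0 ≤ v → v ≤ 1 → 0 ≤ r1 + Δ * (1 - (v : ℝ)) := fun v h0 h1 =>
      ge_of_tendsto (hlim v h0 h1) (hpos v h0 h1)
    have g0 := hge 0 le_rfl zero_le_one
    have g1 := hge 1 zero_le_one le_rfl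
    push_cast at g0 g1
    obtain ⟨s1, hs1t, hQ⟩ := exists_diag
      (fun k n => ∀ x ∈ Fq k, |rr B w n (m k x) - (r1 + Δ * (1 - (m k x : ℝ)))| ≤
        η k / ((k : ℝ) + 1) ∧ 0 < w 0 n (m k x) ∧ 0 < w 1 n (m k x)) (by
        intro k
        rw [Filter.eventually_all_finset]
        intro x hx
        obtain ⟨hx0, hx1⟩ := Fq_mem hx
        obtain ⟨hm0, hm1⟩ := hm k x hx0 hx1
        have hk : 0 < η k / ((k : ℝ) + 1) := div_pos (hη k) (by positivity)
        have e1 := (Metric.tendsto_nhds.1 (hlim (m k x) hm0 hm1)) _ hk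
        filter_upwards [e1, h.wpos 0 (m k x) hm0 hm1, h.wpos 1 (m k x) hm0 hm1] with n a1 a3 a4
        rw [Real.dist_eq] at a1
        exact ⟨a1.le, a3, a4⟩)
    refine ⟨s1, hs1t, fun s hs hsle B' hBb => ?_⟩
    have hB' : ∀ n (y : ℝ), B'.d n ^ y = B.d n ^ (η (s n) * y) := fun n y => by
      rw [hBb, ← Real.rpow_mul (B.pos n).le]
    have hkk : ∀ ε : ℝ, 0 < ε → ∀ᶠ n in (U : Filter ℕ), η (s n) / ((s n : ℝ) + 1) ≤
        ε * η (s n) := fun ε hε => by
      have hK : ∀ᶠ n in (U : Filter ℕ), 1 / ε ≤ (s n : ℝ) :=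
        (tendsto_natCast_atTop_atTop.comp hs).eventually_ge_atTop (1 / ε)
      filter_upwards [hK] with n a2
      have hp := hη (s n)
      have hp' : (0 : ℝ) < (s n : ℝ) + 1 := by positivity
      rw [div_le_iff₀ hp']
      have : 1 ≤ ε * ((s n : ℝ) + 1) := by
        rw [div_le_iff₀ hε] at a2
        nlinarith
      nlinarith
    have hc0 : 0 ≤ r1 + Δ * (1 - v0) := by nlinarith
    rcases hc0.lt_or_eq with hc | hc
    · -- positive at `v0`
      left
      set cc : ℝ := r1 + Δ * (1 - v0) with hcdef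
      intro M v h0 h1
      have hF : ∀ᶠ n in (U : Filter ℕ), v ∈ Fq (s n) := hs.eventually (ev_mem_Fq h0 h1)
      have hlim2 : Tendsto (fun n => r1 + Δ * (1 - (m (s n) v : ℝ))) U (𝓝 cc) :=
        ((((hmv v h0 h1).comp hs).const_sub 1).const_mul Δ).const_add r1
      have hη' : Tendsto (fun n => η (s n)) U (𝓝 0) := hη0.comp hs
      have e1 := hlim2.eventually_const_lt (show cc / 2 < cc by linarith)
      have e2 : ∀ᶠ n in (U : Filter ℕ), η (s n) * (|M| + 1) < cc / 2 := by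
        have h3 := hη'.mul_const (|M| + 1)
        rw [zero_mul] at h3
        exact h3.eventually_lt_const (by positivity)
      filter_upwards [hF, hQ, e1, e2, hkk 1 one_pos, hsle] with n a1 a2 a3 a4 a5 a6
      obtain ⟨b1, b2, b3⟩ := a2 (s n) a6 v a1
      show w 1 n (m (s n) v) ≤ B'.d n ^ M * w 0 n (m (s n) v)
      rw [hB']
      refine thin_of b2 b3 ?_
      have b4 := (abs_le.1 b1).1
      have b5 : η (s n) * M ≤ η (s n) * |M| :=
        mul_le_mul_of_nonneg_left (le_abs_self _) (hη _).le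
      linarith
    · -- identically zero
      right
      have h1v : 0 < 1 - v0 := by linarith
      have k1 : v0 * r1 + (1 - v0) * (r1 + Δ) = 0 := by rw [hc]; ring
      have hr0 : r1 = 0 := by
        have p1 : 0 ≤ (1 - v0) * (r1 + Δ) := mul_nonneg h1v.le (by linarith)
        have p2 : 0 ≤ v0 * r1 := mul_nonneg hv0.le (by linarith)
        have p3 : v0 * r1 = 0 := by linarith
        rcases mul_eq_zero.1 p3 with p4 | p4
        · linarith
        · exact p4
      have hD0 : Δ = 0 := by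
        rw [hr0] at k1
        have p3 : (1 - v0) * Δ = 0 := by linarith
        rcases mul_eq_zero.1 p3 with p4 | p4
        · linarith
        · exact p4
      intro ε hε v h0 h1
      have hF : ∀ᶠ n in (U : Filter ℕ), v ∈ Fq (s n) := hs.eventually (ev_mem_Fq h0 h1)
      filter_upwards [hF, hQ, hkk ε hε, hsle] with n a1 a2 a5 a6
      obtain ⟨b1, b2, b3⟩ := a2 (s n) a6 v a1
      show B'.d n ^ ε * w 0 n (m (s n) v) ≤ w 1 n (m (s n) v)
      rw [hB']
      refine thick_of b2 b3 ?_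
      rw [hD0, hr0] at b1
      have b4 := (abs_le.1 b1).2
      linarith

end

end Crest.Agent.R116.KL388
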