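import Crest.Agent.R116.UpC4_448
import Crest.Agent.R116.CWd3_480
import Crest.Agent.R116.Cad1_538
import Crest.Agent.R116.Ba2_449

/-!
# R116 (S0155), wave side, base `KMt`, part 1: change of level of the plate averages (helper448)

`loc_u` : one child cap of level `ρ'`, unsliced function, seen through the near parent caps.
`plt_le`, `apl_le_Den` : the plate average of level `r` at a frame `z` is at most `C (ρ'/ρ)^3` times
the density of the packets of level `R` (plates `ρ⁻¹ × ρ⁻¹ × ρ'/ρ`) at the translated point.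
-/

set_option autoImplicit false
set_option linter.unusedSectionVars false

open MeasureTheory FourierTransform
open scoped ContDiff ENNReal

namespace Crest.Agent.R116.KMt448

open Crest.Agent.R138.Wf448
open Crest.Agent.R138.Defs (E2 ee)
open Crest.Agent.R138.Wpk685 (win fat cen caps)
open Crest.Agent.R138.Loc878 (nearL mem_nearL Near capwin_prod sum_near_le)
open Crest.Agent.R116.CWp480 Crest.Agent.R116.CDef480 Crest.Agent.R116.CWc480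
  Crest.Agent.R116.CWd480
open Crest.Agent.R116.Up192 (pa pa_pos SV_pa)
open Crest.Agent.R116.Cad538 (frc wt wt_frame wt_ball Den frc_le_frc norm_frc_le)
open Crest.Agent.R116.UpC448 (frc_eq Pl_mono Pl_le_Pl)
open Crest.Agent.R116.WC188

/-- the parts of `g` in the parent caps near `m'`. -/
noncomputable def gnear (ρ ρ' : ℝ) (m' : ℤ × ℤ) (g : E3 → ℂ) (ζ : E3) : ℂ :=
  ∑ m ∈ nearL ρ ρ' m', capc ρ m ζ * g ζ

theorem umc_near {ρ ρ' : ℝ} (hρ : 0 < ρ) (hρρ : ρ ≤ ρ') {g : E3 → ℂ}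
    (hg : ∀ ζ, g ζ ≠ 0 → ‖slp ζ‖ ≤ 2) (z : E3 × ℝ) (m' : ℤ × ℤ) :
    umc ρ' (trc z g) m' = umc ρ' (trc z (gnear ρ ρ' m' g)) m' := by
  unfold umc
  congr 1
  funext ζ
  unfold trc
  rw [← mul_assoc, ← mul_assoc]
  congr 1
  have h1 := sum_capc_mul hρ hg ζ
  have h2 : capc ρ' m' ζ * g ζ = ∑ m ∈ caps ρ, capc ρ' m' ζ * (capc ρ m ζ * g ζ) := by
    rw [← Finset.mul_sum]
    exact congrArg (fun x => capc ρ' m' ζ * x) h1
  rw [h2]
  unfold gnear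
  rw [Finset.mul_sum]
  symm
  refine Finset.sum_subset (fun m hm => (mem_nearL.1 hm).1) fun m hm hm2 => ?_
  have h3 : ¬ Near ρ ρ' m' m := fun h => hm2 (mem_nearL.2 ⟨hm, h⟩)
  have h4 := capwin_prod hρ hρρ h3 (slp ζ)
  have h5 : capc ρ' m' ζ * capc ρ m ζ = 0 := by
    rw [mul_comm]
    exact h4
  rw [← mul_assoc, h5, zero_mul]

/-- **local change of level, unsliced**, one child cap. -/
theorem loc_u {a : ℝ} (ha : 1 ≤ a) (n : ℕ) (T : ℝ) {L : ℝ} (hL : 1 ≤ L) :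
    ∃ C : ℝ, 0 ≤ C ∧ ∀ (ρ ρ' : ℝ) (hρ : 0 < ρ) (hρ' : 0 < ρ'), ρ ≤ ρ' →
    ∀ (A : E3 ≃L[ℝ] E3) (K : ℝ) (w : E3 → ℝ), SV A K n w → ∀ m' : ℤ × ℤ,
    (∀ m ∈ nearL ρ ρ' m', ∀ x, ‖A x‖ ≤ L * ‖Pl ρ 1 hρ one_pos (cen ρ m) x‖) →
    (∀ x, ‖A x‖ ≤ L * ‖Pl ρ' 1 hρ' one_pos (cen ρ' m') x‖) →
    ∀ (t : ℝ) (z : E3 × ℝ), |t| * ρ' ^ 2 ≤ T → |t + z.2| * ρ ^ 2 ≤ T →
    ∀ (g : E3 → ℂ), Integrable g → MemLp g 2 → Rng a g → (∀ ζ, g ζ ≠ 0 → ‖slp ζ‖ ≤ 2) →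
    ∫⁻ y, ENNReal.ofReal (w (y - t • vel (cen ρ' m'))) * ‖umc ρ' (trc z g) m' y‖ₑ ^ 2 ≤
      ENNReal.ofReal (C * K ^ 9) * ∑ m ∈ nearL ρ ρ' m', ∫⁻ y,
        ENNReal.ofReal (w (y - (t + z.2) • vel (cen ρ m) - z.1)) * ‖umc ρ g m y‖ₑ ^ 2 := by
  obtain ⟨C1, hC1, h1⟩ := B_ana_u ha n T hL
  obtain ⟨C2, hC2, h2⟩ := A_ana_u ha n T hL
  refine ⟨C1 * C2, by positivity, ?_⟩
  intro ρ ρ' hρ hρ' hρρ A K w hw m' hA hA' t z ht htz g hg hg2 hr hs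
  have hK := hw.one_le
  have hi : Integrable (gnear ρ ρ' m' g) :=
    integrable_finsetSum _ fun m _ => capc_int hg ρ m
  have hi2 : MemLp (gnear ρ ρ' m' g) 2 := memLp_finsetSum _ fun m _ => capc_l2 hg2 ρ m
  have hne : ∀ ζ, gnear ρ ρ' m' g ζ ≠ 0 → g ζ ≠ 0 := by
    intro ζ h h0
    apply h
    unfold gnear
    simp [h0]
  have b1 := h1 ρ' hρ' A K w hw {m'} (by
    intro m hm x
    rw [Finset.mem_singleton] at hm
    subst hm
    exact hA' x) t ht (trc z (gnear ρ ρ' m' g)) (trc_int' hi z) (trc_l2' hi2 z)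
    (fun ζ hζ => hr ζ (hne ζ (trc_ne hζ)))
  rw [Finset.sum_singleton, ← umc_near hρ hρρ hs z m'] at b1
  have b2 := h2 ρ hρ A K _ (hw.comp_sub z.1) (nearL ρ ρ' m') hA (t + z.2) htz g hg hg2 hr
  have e1 : (fun ζ => ∑ m ∈ nearL ρ ρ' m', capc ρ m ζ * g ζ) = gnear ρ ρ' m' g := rfl
  rw [e1, ← WE_trc] at b2
  refine b1.trans ((mul_le_mul_right b2 _).trans (le_of_eq ?_))
  rw [← mul_assoc, ← ENNReal.ofReal_mul (by positivity)]
  congr 2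
  ring

/-! ### one plate -/

theorem near_dist {ρ ρ' : ℝ} {m m' : ℤ × ℤ} (h : m ∈ nearL ρ ρ' m') :
    ‖cen ρ m - cen ρ' m'‖ ≤ 3 * ρ' := (mem_nearL.1 h).2.le

/-- the plate in the frame. -/
theorem plt_frc {ρ ρ' : ℝ} (hρ : 0 < ρ) (hρ' : 0 < ρ') (hρρ : ρ ≤ ρ') {C : E2} {X Y : E3} {s : ℝ}
    (h : Y ∈ plt ρ'⁻¹ 1 C X s) : ‖frc ρ (ρ / ρ') C (Y - s • vel C - X)‖ ≤ 2 := by
  obtain ⟨h1, h2⟩ := h
  have hk : 0 ≤ ρ / ρ' := by positivity
  have hk1 : ρ / ρ' ≤ 1 := by rw [div_le_one hρ']; exact hρρ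
  refine (norm_frc_le hρ.le hk _ _).trans ?_
  have e1 : lat (Y - s • vel C - X) = lat Y - (lat X + s • C) := by
    rw [lat_sub, lat_sub, lat_smul]
    unfold vel
    rw [lat_pt]
    abel
  have e2 : nrm C (Y - s • vel C - X) 0 = nrm C Y 0 - nrm C X s := by
    unfold nrm
    rw [e1]
    simp only [PiLp.sub_apply, PiLp.smul_apply, smul_eq_mul, inner_sub_right, inner_add_right,
      real_inner_smul_right, real_inner_self_eq_norm_sq]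
    unfold vel
    rw [pt_two]
    ring
  rw [e1, e2]
  have h3 : ρ * ‖lat Y - (lat X + s • C)‖ ≤ 1 := by
    calc ρ * ‖lat Y - (lat X + s • C)‖ ≤ ρ' * ρ'⁻¹ := by gcongr
      _ = 1 := mul_inv_cancel₀ hρ'.ne'
  have h4 : ρ / ρ' * |nrm C Y 0 - nrm C X s| ≤ 1 := by
    calc ρ / ρ' * |nrm C Y 0 - nrm C X s| ≤ 1 * 1 :=
          mul_le_mul hk1 h2 (abs_nonneg _) zero_le_one
      _ = 1 := one_mul _
  linarith

/-- energy of one child cap on a plate. -/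
theorem plt_le {a : ℝ} (ha : 1 ≤ a) (n : ℕ) (T : ℝ) :
    ∃ C : ℝ, 0 ≤ C ∧ ∀ (ρ ρ' : ℝ), 0 < ρ → ρ ≤ ρ' → ∀ (m' : ℤ × ℤ) (z : E3 × ℝ) (X : E3) (s : ℝ),
    |s| * ρ' ^ 2 ≤ T → |s + z.2| * ρ ^ 2 ≤ T →
    ∀ (g : E3 → ℂ), Integrable g → MemLp g 2 → Rng a g → (∀ ζ, g ζ ≠ 0 → ‖slp ζ‖ ≤ 2) →
    ∫⁻ Y in plt ρ'⁻¹ 1 (cen ρ' m') X s, ‖umc ρ' (trc z g) m' Y‖ₑ ^ 2 ≤
      ENNReal.ofReal C * ∑ m ∈ nearL ρ ρ' m', ∫⁻ y, ENNReal.ofReal
        (wt (frc ρ (ρ / ρ') (cen ρ m)) n (y - (X + z.1) - (s + z.2) • vel (cen ρ m))) *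
          ‖umc ρ g m y‖ₑ ^ 2 := by
  obtain ⟨C, hC, h⟩ := loc_u ha n T (L := 5) (by norm_num)
  refine ⟨3 ^ n * (C * 5 ^ n), by positivity, ?_⟩
  intro ρ ρ' hρ hρρ m' z X s hs hsz g hg hg2 hr hsl
  have hρ' : 0 < ρ' := hρ.trans_le hρρ
  have hk : 0 < ρ / ρ' := by positivity
  have hk1 : ρ / ρ' ≤ 1 := by rw [div_le_one hρ']; exact hρρ
  set C' := cen ρ' m' with hC'
  set A : E3 ≃L[ℝ] E3 := Pl ρ (ρ / ρ') hρ hk C' with hA
  have hnear : ∀ m ∈ nearL ρ ρ' m', ρ / ρ' * ‖cen ρ m - C'‖ ≤ 3 * ρ := by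
    intro m hm
    calc ρ / ρ' * ‖cen ρ m - C'‖ ≤ ρ / ρ' * (3 * ρ') := by gcongr; exact near_dist hm
      _ = 3 * ρ := by field_simp
  have hA1 : ∀ m ∈ nearL ρ ρ' m', ∀ x, ‖A x‖ ≤ 5 * ‖Pl ρ 1 hρ one_pos (cen ρ m) x‖ := by
    intro m hm x
    have e1 := Pl_le_Pl hρ hk (D := 3) (by norm_num) (C := C') (C' := cen ρ m)
      (by rw [norm_sub_rev]; exact hnear m hm) x
    have e2 := Pl_mono hρ hk hρ one_pos le_rfl hk1 (cen ρ m) x
    have e3 := norm_nonneg (Pl ρ 1 hρ one_pos (cen ρ m) x)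
    linarith
  have hA2 : ∀ x, ‖A x‖ ≤ 5 * ‖Pl ρ' 1 hρ' one_pos C' x‖ := by
    intro x
    have e2 := Pl_mono hρ hk hρ' one_pos hρρ hk1 C' x
    have e3 := norm_nonneg (Pl ρ' 1 hρ' one_pos C' x)
    linarith
  have key := h ρ ρ' hρ hρ' hρρ A 1 (fun y => pa n A (y - X)) (SV_pa A n X) m' hA1 hA2 s z hs hsz
    g hg hg2 hr hsl
  have h1 : ∫⁻ Y in plt ρ'⁻¹ 1 C' X s, ‖umc ρ' (trc z g) m' Y‖ₑ ^ 2 ≤
      ENNReal.ofReal (3 ^ n) * ∫⁻ y, ENNReal.ofReal (pa n A (y - s • vel C' - X)) *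
        ‖umc ρ' (trc z g) m' y‖ₑ ^ 2 := by
    rw [← lintegral_const_mul' _ _ ENNReal.ofReal_ne_top]
    refine le_trans ?_ (setLIntegral_le_lintegral (plt ρ'⁻¹ 1 C' X s) _)
    have hpm : MeasurableSet (plt ρ'⁻¹ 1 C' X s) := by
      have hc : Continuous lat := latL.continuous
      have h1 : Continuous fun Y : E3 => ‖lat Y - (lat X + s • C')‖ := by fun_prop
      have h2 : Continuous fun Y : E3 => |nrm C' Y 0 - nrm C' X s| := by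
        unfold nrm
        fun_prop
      exact ((isClosed_le h1 continuous_const).inter
        (isClosed_le h2 continuous_const)).measurableSet
    refine setLIntegral_mono' hpm fun y hy => ?_
    rw [← mul_assoc, ← ENNReal.ofReal_mul (by positivity)]
    have h2 := plt_frc hρ hρ' hρρ hy
    have h3 := wt_ball (frc ρ (ρ / ρ') C') (X := 2) (by norm_num) n h2
    have e1 : wt (frc ρ (ρ / ρ') C') n (y - s • vel C' - X) = pa n A (y - s • vel C' - X) := by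
      unfold wt pa
      rw [frc_eq hρ hk]
    rw [e1, show (1 : ℝ) + 2 = 3 by norm_num] at h3
    calc ‖umc ρ' (trc z g) m' y‖ₑ ^ 2 = 1 * ‖umc ρ' (trc z g) m' y‖ₑ ^ 2 := (one_mul _).symm
      _ ≤ _ := by
        refine mul_le_mul' ?_ le_rfl
        rw [← ENNReal.ofReal_one]
        exact ENNReal.ofReal_le_ofReal h3
  refine h1.trans ((mul_le_mul' le_rfl key).trans ?_)
  rw [one_pow, mul_one, ← mul_assoc, ← ENNReal.ofReal_mul (by positivity),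
    show (3:ℝ) ^ n * (C * 5 ^ n) = (3 ^ n * C) * 5 ^ n by ring,
    ENNReal.ofReal_mul (p := 3 ^ n * C) (by positivity), mul_assoc]
  refine mul_le_mul' le_rfl ?_
  rw [Finset.mul_sum]
  refine Finset.sum_le_sum fun m hm => ?_
  rw [← lintegral_const_mul' _ _ ENNReal.ofReal_ne_top]
  refine lintegral_mono fun y => ?_
  rw [← mul_assoc, ← ENNReal.ofReal_mul (by positivity)]
  refine mul_le_mul' (ENNReal.ofReal_le_ofReal ?_) le_rfl
  have e2 : y - (s + z.2) • vel (cen ρ m) - z.1 - X =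
      y - (X + z.1) - (s + z.2) • vel (cen ρ m) := by abel
  rw [e2]
  have e3 : pa n A (y - (X + z.1) - (s + z.2) • vel (cen ρ m)) =
      wt (frc ρ (ρ / ρ') C') n (y - (X + z.1) - (s + z.2) • vel (cen ρ m)) := by
    unfold wt pa
    rw [frc_eq hρ hk]
  rw [e3]
  refine wt_frame (frc ρ (ρ / ρ') (cen ρ m)) (frc ρ (ρ / ρ') C') (by norm_num) n ?_
  have h5 := frc_le_frc hρ.le hk.le (C := C') (C' := cen ρ m) (K := 3) (by norm_num)
    (hnear m hm) (y - (X + z.1) - (s + z.2) • vel (cen ρ m))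
  linarith

end Crest.Agent.R116.KMt448
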