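import Crest.Agent.R116.KMt1_448

/-!
# R116 (S0155), wave side, base `KMt`, part 2: `NP` of level `r` by the density of level `R`
(helper448)
-/

set_option autoImplicit false
set_option linter.unusedSectionVars false

open MeasureTheory FourierTransform
open scoped ContDiff ENNReal

namespace Crest.Agent.R116.KMt448

open Crest.Agent.R138.Defs (E2 ee)
open Crest.Agent.R138.Wpk685 (win fat cen caps)
open Crest.Agent.R138.Loc878 (nearL mem_nearL Near capwin_prod sum_near_le)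
open Crest.Agent.R116.CDef480 Crest.Agent.R116.CWd480
open Crest.Agent.R116.Cad538 (frc wt wt_frame wt_ball Den frc_le_frc norm_frc_le)
open Crest.Agent.R116
open Crest.Agent.R116.WC188

/-- the size of the caps of level `r`. -/
noncomputable abbrev an (r : ℝ) : ℝ := r ^ (-(1/2) : ℝ)

theorem an_pos {r : ℝ} (hr : 0 < r) : 0 < an r := Real.rpow_pos_of_pos hr _

theorem an_anti {r R : ℝ} (hr : 0 < r) (hrR : r ≤ R) : an R ≤ an r :=
  Real.rpow_le_rpow_of_nonpos hr hrR (by norm_num)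

theorem an_le_one {r : ℝ} (hr : 1 ≤ r) : an r ≤ 1 :=
  Real.rpow_le_one_of_one_le_of_nonpos hr (by norm_num)

theorem an_sq {r : ℝ} (hr : 0 < r) : an r ^ 2 = r⁻¹ := by
  unfold an
  rw [← Real.rpow_natCast, ← Real.rpow_mul hr.le]
  norm_num
  rw [Real.rpow_neg_one]

theorem an_inv {r : ℝ} (hr : 0 < r) : (an r)⁻¹ = r ^ (1/2 : ℝ) := by
  unfold an
  rw [Real.rpow_neg hr.le, inv_inv]

/-- thin side of the plates of level `R` seen from the level `r`: `kp = an R / an r = (r/R)^(1/2)`. -/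
noncomputable abbrev kp (r R : ℝ) : ℝ := an R / an r

theorem kp_pos {r R : ℝ} (hr : 0 < r) (hR : 0 < R) : 0 < kp r R := div_pos (an_pos hR) (an_pos hr)

theorem kp_le_one {r R : ℝ} (hr : 0 < r) (hrR : r ≤ R) : kp r R ≤ 1 := by
  unfold kp
  rw [div_le_one (an_pos hr)]
  exact an_anti hr hrR

theorem an_le_kp {r R : ℝ} (hr : 1 ≤ r) (hR : 0 < R) : an R ≤ kp r R := by
  unfold kp
  rw [le_div_iff₀ (an_pos (by linarith))]
  have := an_pos hR
  have h2 := an_le_one hr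
  nlinarith

theorem kp_inv {r R : ℝ} (hr : 0 < r) (hR : 0 < R) : (kp r R)⁻¹ = (R / r) ^ (1/2 : ℝ) := by
  unfold kp
  rw [inv_div, Real.div_rpow hR.le hr.le, ← an_inv hR, ← an_inv hr]
  have := an_pos hr
  have := an_pos hR
  field_simp

/-- the density of the packets of level `R` in the plates `R^(1/2) × R^(1/2) × (R/r)^(1/2)`. -/
noncomputable abbrev Aup (n : ℕ) (r R : ℝ) (g : E3 → ℂ) (S : ℤ × ℤ → Set E3) (X : E3) (t : ℝ) :
    ℝ≥0∞ := Cad538.Acc n (an R) (kp r R) (an R) g S (caps (an R)) X t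

/-- **plate average of level `r` by the density of level `R`**. -/
theorem apl_le {a : ℝ} (ha : 1 ≤ a) (n : ℕ) (T : ℝ) :
    ∃ C : ℝ, 0 ≤ C ∧ ∀ (r R : ℝ), 1 ≤ r → r ≤ R → ∀ (z p : E3 × ℝ), |p.2| ≤ T * r →
    |p.2 + z.2| ≤ T * R →
    ∀ (g : E3 → ℂ), Integrable g → MemLp g 2 → Rng a g → (∀ ζ, g ζ ≠ 0 → ‖slp ζ‖ ≤ 2) →
    apl r (trc z g) p ≤ ENNReal.ofReal (C * (R / r) ^ (3/2 : ℝ)) *
      Aup n r R g (fun _ => Set.univ) (p + z).1 (p + z).2 := by
  obtain ⟨C, hC, h⟩ := plt_le ha n T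
  refine ⟨36 * C, by positivity, ?_⟩
  intro r R hr hrR z p hp hpz g hg hg2 hrg hsl
  have hr0 : 0 < r := by linarith
  have hR0 : 0 < R := by linarith
  have hρ := an_pos hR0
  have hρ' := an_pos hr0
  have h1 : ∀ m' ∈ caps (an r), ∫⁻ Y in plt (r ^ (1/2 : ℝ)) 1 (cen (an r) m') p.1 p.2,
      ‖umc (an r) (trc z g) m' Y‖ₑ ^ 2 ≤ ENNReal.ofReal C * ∑ m ∈ nearL (an R) (an r) m',
        ∫⁻ y, ENNReal.ofReal (wt (frc (an R) (kp r R) (cen (an R) m)) n
          (y - (p.1 + z.1) - (p.2 + z.2) • vel (cen (an R) m))) * ‖umc (an R) g m y‖ₑ ^ 2 := by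
    intro m' _
    have h2 := h (an R) (an r) hρ (an_anti hr0 hrR) m' z p.1 p.2 (by
      rw [an_sq hr0, ← div_eq_mul_inv, div_le_iff₀ hr0]; exact hp) (by
      rw [an_sq hR0, ← div_eq_mul_inv, div_le_iff₀ hR0]; exact hpz) g hg hg2 hrg hsl
    rw [an_inv hr0] at h2
    exact h2
  unfold apl
  refine (mul_le_mul' le_rfl (Finset.sum_le_sum h1)).trans ?_
  rw [← Finset.mul_sum]
  refine (mul_le_mul' le_rfl (mul_le_mul' le_rfl (sum_near_le hρ' _))).trans (le_of_eq ?_)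
  unfold Aup Cad538.Acc Den
  simp only [Measure.restrict_univ, Prod.fst_add, Prod.snd_add]
  have e36 : (36 : ℝ≥0∞) = ENNReal.ofReal 36 := by norm_num
  have hk := kp_pos hr0 hR0
  rw [e36, ← mul_assoc, ← mul_assoc, ← mul_assoc, ← ENNReal.ofReal_mul (by positivity),
    ← ENNReal.ofReal_mul (by positivity), ← ENNReal.ofReal_mul (by positivity)]
  congr 2
  have e1 : (R / r) ^ (3/2 : ℝ) * ((an R) ^ 2 * kp r R) = r⁻¹ := by
    have e2 : (R / r) ^ (3/2 : ℝ) = (R / r) * (kp r R)⁻¹ := by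
      rw [kp_inv hr0 hR0, show (3/2 : ℝ) = 1 + 1/2 by norm_num,
        Real.rpow_add (by positivity), Real.rpow_one]
    rw [e2, an_sq hR0]
    field_simp
  rw [mul_assoc (36 * C), e1]
  ring

theorem cylc_add {A r R : ℝ} (hA : 1 ≤ A) (hrR : r ≤ R) {z p : E3 × ℝ}
    (hz : z ∈ cylc R) (hp : p ∈ cylc (A * r)) : p + z ∈ cylc ((A + 1) * R) := by
  obtain ⟨h1, h2⟩ := hz
  obtain ⟨h3, h4⟩ := hp
  have h5 : A * r ≤ A * R := by nlinarith
  constructor
  · rw [Prod.fst_add]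
    refine (norm_add_le _ _).trans ?_
    linarith
  · rw [Prod.snd_add]
    refine (abs_add_le _ _).trans ?_
    linarith

/-- translation of a function on a region. -/
theorem lint_shift (F : E3 × ℝ → ℝ≥0∞) {S T : Set (E3 × ℝ)} (hS : MeasurableSet S)
    (hT : MeasurableSet T) (z : E3 × ℝ) (h : ∀ p ∈ S, p + z ∈ T) :
    ∫⁻ p in S, F (p + z) ≤ ∫⁻ p in T, F p := by
  have : (volume : Measure (E3 × ℝ)).IsAddRightInvariant := by
    rw [Measure.volume_eq_prod]; infer_instance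
  rw [← lintegral_indicator hS, ← lintegral_indicator hT,
    ← lintegral_add_right_eq_self (T.indicator F) z]
  refine lintegral_mono fun p => ?_
  by_cases hp : p ∈ S
  · rw [Set.indicator_of_mem hp, Set.indicator_of_mem (h p hp)]
  · rw [Set.indicator_of_notMem hp]
    exact bot_le

/-- **`NP` of level `r` by the density of level `R`**. -/
theorem NP_le_Aup {a A : ℝ} (ha : 1 ≤ a) (n : ℕ) (hA : 1 ≤ A) :
    ∃ C : ℝ, 0 ≤ C ∧ ∀ (r R : ℝ), 1 ≤ r → r ≤ R →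
    ∀ (g : E3 → ℂ), Integrable g → MemLp g 2 → Rng a g → (∀ ζ, g ζ ≠ 0 → ‖slp ζ‖ ≤ 2) →
    NP A r g R ≤ ENNReal.ofReal (C * (R / r) ^ (7 : ℝ)) *
      ∫⁻ p in cylc ((A + 1) * R), (Aup n r R g (fun _ => Set.univ) p.1 p.2) ^ (3/2 : ℝ) := by
  obtain ⟨C, hC, h⟩ := apl_le ha n (A + 1)
  refine ⟨256 * C ^ (3/2 : ℝ), by positivity, ?_⟩
  intro r R hr hrR g hg hg2 hrg hsl
  have hr0 : 0 < r := by linarith
  have hR0 : 0 < R := by linarith
  have hRr : 1 ≤ R / r := by rw [le_div_iff₀ hr0, one_mul]; exact hrR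
  set F : E3 × ℝ → ℝ≥0∞ := fun p => (Aup n r R g (fun _ => Set.univ) p.1 p.2) ^ (3/2 : ℝ) with hF
  set I : ℝ≥0∞ := ∫⁻ p in cylc ((A + 1) * R), F p with hI
  unfold NP
  refine iSup_le fun Z => iSup_le fun hZ => ?_
  have h1 : ∀ z ∈ Z, ∫⁻ p in cylc (A * r), (apl r (trc z g) p) ^ (3/2 : ℝ) ≤
      ENNReal.ofReal (C * (R / r) ^ (3/2 : ℝ)) ^ (3/2 : ℝ) * I := by
    intro z hz
    have hzc := hZ.mem z hz
    have h2 : ∀ p ∈ cylc (A * r), (apl r (trc z g) p) ^ (3/2 : ℝ) ≤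
        ENNReal.ofReal (C * (R / r) ^ (3/2 : ℝ)) ^ (3/2 : ℝ) * F (p + z) := by
      intro p hp
      have h3 := cylc_add hA hrR hzc hp
      have h4 : |p.2| ≤ (A + 1) * r := by
        have := hp.2
        nlinarith
      have h5 : |p.2 + z.2| ≤ (A + 1) * R := h3.2
      refine (ENNReal.rpow_le_rpow (h r R hr hrR z p h4 h5 g hg hg2 hrg hsl)
        (by norm_num)).trans (le_of_eq ?_)
      rw [ENNReal.mul_rpow_of_nonneg _ _ (by norm_num)]
    refine (setLIntegral_mono' (Ba449.meas_cylc _) h2).trans ?_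
    rw [lintegral_const_mul' _ _ (ENNReal.rpow_ne_top_of_nonneg (by norm_num)
      ENNReal.ofReal_ne_top)]
    exact mul_le_mul' le_rfl (lint_shift F (Ba449.meas_cylc _) (Ba449.meas_cylc _) z
      fun p hp => cylc_add hA hrR hzc hp)
  refine (Finset.sum_le_sum h1).trans ?_
  rw [Finset.sum_const, nsmul_eq_mul]
  refine (mul_le_mul' (Ba449.card_net hr0 hrR hZ) le_rfl).trans ?_
  rw [← mul_assoc]
  refine mul_le_mul' ?_ le_rfl
  rw [ENNReal.ofReal_rpow_of_nonneg (by positivity) (by norm_num),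
    ← ENNReal.ofReal_mul (by positivity)]
  refine ENNReal.ofReal_le_ofReal ?_
  rw [Real.mul_rpow hC (by positivity), ← Real.rpow_mul (by positivity)]
  have e1 : (R / r) ^ 4 * (R / r) ^ ((3/2 : ℝ) * (3/2)) ≤ (R / r) ^ (7 : ℝ) := by
    rw [← Real.rpow_natCast, ← Real.rpow_add (by positivity)]
    refine Real.rpow_le_rpow_of_exponent_le hRr ?_
    norm_num
  calc 256 * (R / r) ^ 4 * (C ^ (3/2 : ℝ) * (R / r) ^ ((3/2 : ℝ) * (3/2)))
      = 256 * C ^ (3/2 : ℝ) * ((R / r) ^ 4 * (R / r) ^ ((3/2 : ℝ) * (3/2))) := by ring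
    _ ≤ _ := by gcongr

end Crest.Agent.R116.KMt448
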