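import Crest.Agent.R116.KMt2_448
import Crest.Agent.R116.Ckm8_538

/-!
# R116 (S0155), wave side, base `KMt`, part 3 (helper448)

`dens_up` : box hypothesis for a larger thin side.  `Aup_tail` : far packets.
`kmt_of` : **KMt** from the light-ray Kakeya inequality.
-/

set_option autoImplicit false
set_option linter.unusedSectionVars false

open MeasureTheory FourierTransform
open scoped ContDiff ENNReal

namespace Crest.Agent.R116.KMt448

open Crest.Agent.R138.Defs (E2 ee)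
open Crest.Agent.R138.Wpk685 (win fat cen caps)
open Crest.Agent.R116
open Crest.Agent.R116.CDef480 Crest.Agent.R116.CWd480
open Crest.Agent.R116.Cad538 (frc wt wt_frame wt_ball Den frc_le_frc norm_frc_le lat_le_frc nrm_le_frc)
open Crest.Agent.R116.WC188
open Crest.Agent.R116.Ckm538 (DensR M1 Cov thk LKMg cap_box norm3_le_nrm)
open Crest.Agent.R116.LKMDef299 (Cpt SSg)
open Crest.Agent.R116.LZg725 (Mem)

/-- box hypothesis for a larger thin side. -/
theorem dens_up {κ : Type} {M q w R Δ l : ℝ} (hM : 1 ≤ M) (hq : 0 ≤ q) (hw : 0 < w) (hR : 0 < R)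
    (hΔ : 0 ≤ Δ) {F : Finset κ} {C : κ → E2} {U : κ → E3 → ℝ≥0∞} {S : κ → Set E3}
    (hD : DensR (M1 M (2 + 4 * M)) q w 1 R Δ F C U S) (hl : 1 ≤ l) :
    DensR M q w l R (121 * Cov M (2 + 4 * M) 1 * Δ) F C U S := by
  classical
  intro m hOk hCpt hmR hs0 hw1 hsg _
  set A : Set (E2 × E3) := {r | (r.1, lat r.2, r.2 2) ∈ m.rays l} with hA
  set F' : Finset κ := F.filter (fun i => ‖C i - m.c‖ ≤ m.sg) with hF'
  have hsgR : w ≤ m.sg * R := hw1.trans (mul_le_mul_of_nonneg_right hOk.hsg hR.le)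
  have h1 := cap_box hM hq (L := 1) le_rfl hw hR hΔ hD (w' := w) (ρ' := l) le_rfl hl (by linarith)
    (s := m.sg) (Λ := 1) hsgR hsg le_rfl m.c (F' := F') (Finset.filter_subset _ _)
    (fun i hi => by rw [one_mul]; exact (Finset.mem_filter.1 hi).2) (A := A) (c := m.scost l)
    ⟨m, hOk, hCpt, by rw [one_mul]; exact hmR, hs0, by rw [one_mul]; exact hw1, hsg, rfl, rfl⟩
    (by rw [one_mul])
  have h2 : ∑ i ∈ F, ∫⁻ y in S i ∩ {y | (C i, lat y, y 2) ∈ m.rays l}, U i y =
      ∑ i ∈ F', ∫⁻ y in S i ∩ {y | (C i, lat y, y 2) ∈ m.rays l}, U i y := by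
    symm
    refine Finset.sum_subset (Finset.filter_subset _ _) fun i hi hi2 => ?_
    have h3 : S i ∩ {y | (C i, lat y, y 2) ∈ m.rays l} = ∅ := by
      rw [Set.eq_empty_iff_forall_notMem]
      rintro y ⟨_, hy⟩
      exact hi2 (Finset.mem_filter.2 ⟨hi, hy.1⟩)
    rw [h3, Measure.restrict_empty, lintegral_zero_measure]
  rw [h2]
  refine le_trans (Finset.sum_le_sum fun i hi => ?_) (h1.trans (le_of_eq ?_))
  · refine lintegral_mono_set fun y hy => ⟨hy.1, y, hy.2, ?_, ?_⟩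
    · rw [sub_self]
      have e : lat (0 : E3) = 0 := by ext i; fin_cases i <;> rfl
      rw [e, norm_zero]; exact hw.le
    · rw [sub_self, Ckm538.nrm_zero]
      have e : lat (0 : E3) = 0 := by ext i; fin_cases i <;> rfl
      rw [e, inner_zero_right]
      simp
      linarith
  · congr 1
    ring

theorem norm_vel_le {C : E2} (hC : ‖C‖ ≤ 8) : ‖vel C‖ ≤ 40 := by
  have h := Ckm538.norm3_le (vel C)
  unfold vel at h ⊢
  rw [lat_pt, pt_two] at h
  have h1 : |-‖C‖ ^ 2 / 2| ≤ 32 := by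
    rw [abs_div, abs_neg, abs_of_nonneg (sq_nonneg _), abs_of_pos (by norm_num : (0:ℝ) < 2)]
    have := norm_nonneg C
    nlinarith
  linarith

/-- the frame norm far away. -/
theorem frc_far {r R : ℝ} (hr : 1 ≤ r) (hrR : r ≤ R) {C : E2} (hC : ‖C‖ ≤ 8) {v : E3}
    (hv : 9 * R ≤ ‖v‖) : (2 * an R)⁻¹ ≤ ‖frc (an R) (kp r R) C v‖ := by
  have hR : 1 ≤ R := hr.trans hrR
  have hR0 : 0 < R := by linarith
  have hr0 : 0 < r := by linarith
  have hρ := an_pos hR0
  have hk := kp_pos hr0 hR0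
  have h1 := norm3_le_nrm C v
  have h2 := lat_le_frc (kp := kp r R) hρ.le C v
  have h3 := nrm_le_frc (th := an R) hk.le C v
  have h4 := an_le_kp hr hR0
  set N := ‖frc (an R) (kp r R) C v‖ with hN
  have h5 : an R * ‖v‖ ≤ 10 * N := by
    calc an R * ‖v‖ ≤ an R * ((1 + ‖C‖) * ‖lat v‖ + |nrm C v 0|) := by gcongr
      _ = (1 + ‖C‖) * (an R * ‖lat v‖) + an R * |nrm C v 0| := by ring
      _ ≤ (1 + ‖C‖) * N + kp r R * |nrm C v 0| := by gcongr
      _ ≤ 9 * N + N := by
          have : 0 ≤ N := norm_nonneg _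
          have : (1 + ‖C‖) * N ≤ 9 * N := by gcongr; linarith
          linarith
      _ = 10 * N := by ring
  have h6 : an R * R = (an R)⁻¹ := by
    have h7 := an_sq hR0
    field_simp
    rw [h7, inv_mul_cancel₀ hR0.ne']
  have h8 : 9 * (an R)⁻¹ ≤ 10 * N := by
    calc 9 * (an R)⁻¹ = an R * (9 * R) := by rw [← h6]; ring
      _ ≤ an R * ‖v‖ := by gcongr
      _ ≤ _ := h5
  have h9 : 0 < (an R)⁻¹ := inv_pos.2 hρ
  rw [mul_inv]
  linarith

/-- **the packets far from the origin are not seen**. -/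
theorem Aup_tail (n : ℕ) {A : ℝ} (hA : 1 ≤ A) {r R : ℝ} (hr : 1 ≤ r) (hrR : r ≤ R) {L : ℝ}
    {g : E3 → ℂ} (hg : Ba449.Gd L g) {X : E3} {t : ℝ} (hX : ‖X‖ ≤ (A + 1) * R)
    (ht : |t| ≤ (A + 1) * R) :
    Aup n r R g (fun _ => Set.univ) X t ≤
      Aup n r R g (fun _ => Metric.closedBall 0 (50 * (A + 1) * R)) X t +
        ENNReal.ofReal ((2 * an R) ^ n * Enc g) := by
  have hR : 1 ≤ R := hr.trans hrR
  have hR0 : 0 < R := by linarith
  have hr0 : 0 < r := by linarith
  have hρ := an_pos hR0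
  have hρ1 := an_le_one hR
  have hk := kp_pos hr0 hR0
  have hk1 := kp_le_one hr0 hrR
  set B : Set E3 := Metric.closedBall 0 (50 * (A + 1) * R) with hB
  have hBm : MeasurableSet B := Metric.isClosed_closedBall.measurableSet
  unfold Aup Cad538.Acc Den
  have h1 : ∀ m ∈ caps (an R), ∫⁻ y in Set.univ, ENNReal.ofReal
      (wt (frc (an R) (kp r R) (cen (an R) m)) n (y - X - t • vel (cen (an R) m))) *
        ‖umc (an R) g m y‖ₑ ^ 2 ≤
      (∫⁻ y in B, ENNReal.ofReal
      (wt (frc (an R) (kp r R) (cen (an R) m)) n (y - X - t • vel (cen (an R) m))) *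
        ‖umc (an R) g m y‖ₑ ^ 2) + ENNReal.ofReal ((2 * an R) ^ n) *
        ∫⁻ y, ‖umc (an R) g m y‖ₑ ^ 2 := by
    intro m hm
    rw [Measure.restrict_univ, ← lintegral_add_compl _ hBm]
    refine add_le_add le_rfl ?_
    rw [← lintegral_const_mul' _ _ ENNReal.ofReal_ne_top]
    refine le_trans ?_ (setLIntegral_le_lintegral Bᶜ _)
    refine setLIntegral_mono' hBm.compl fun y hy => ?_
    refine mul_le_mul' (ENNReal.ofReal_le_ofReal ?_) le_rfl
    have hC := Ckm538.norm_cen_le hρ hρ1 hm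
    have hv := norm_vel_le hC
    have hy' : 50 * (A + 1) * R < ‖y‖ := by
      rw [hB] at hy
      simpa using hy
    have h2 : 9 * R ≤ ‖y - X - t • vel (cen (an R) m)‖ := by
      have h3 : ‖y‖ ≤ ‖y - X - t • vel (cen (an R) m)‖ + ‖X‖ + ‖t • vel (cen (an R) m)‖ := by
        have e : y = (y - X - t • vel (cen (an R) m)) + X + t • vel (cen (an R) m) := by abel
        calc ‖y‖ = ‖(y - X - t • vel (cen (an R) m)) + X + t • vel (cen (an R) m)‖ := by rw [← e]
          _ ≤ _ := (norm_add_le _ _).trans (add_le_add (norm_add_le _ _) le_rfl)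
      have h4 : ‖t • vel (cen (an R) m)‖ ≤ 40 * ((A + 1) * R) := by
        rw [norm_smul, Real.norm_eq_abs]
        have := mul_le_mul ht hv (norm_nonneg _) (by positivity)
        linarith
      have h5 : R ≤ (A + 1) * R := by nlinarith
      linarith
    have h3 := frc_far hr hrR hC h2
    unfold wt
    have h4 : 0 < (2 * an R)⁻¹ := by positivity
    rw [← inv_inv ((2 * an R) ^ n)]
    refine inv_anti₀ (by positivity) ?_
    rw [← inv_pow]
    refine pow_le_pow_left₀ h4.le ?_ n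
    linarith
  refine (mul_le_mul' le_rfl (Finset.sum_le_sum h1)).trans ?_
  rw [Finset.sum_add_distrib, mul_add]
  refine add_le_add le_rfl ?_
  rw [← Finset.mul_sum, ENNReal.ofReal_mul (p := (2 * an R) ^ n) (by positivity)]
  have h2 := Ba449.sum_lint_umc hg hρ
  calc ENNReal.ofReal (an R ^ 2 * kp r R) * (ENNReal.ofReal ((2 * an R) ^ n) *
        ∑ m ∈ caps (an R), ∫⁻ y, ‖umc (an R) g m y‖ₑ ^ 2)
      ≤ 1 * (ENNReal.ofReal ((2 * an R) ^ n) * ENNReal.ofReal (Enc g)) := by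
        refine mul_le_mul' ?_ (mul_le_mul' le_rfl h2)
        rw [← ENNReal.ofReal_one]
        refine ENNReal.ofReal_le_ofReal ?_
        have : an R ^ 2 ≤ 1 := by nlinarith
        nlinarith
    _ = _ := by rw [one_mul]

end Crest.Agent.R116.KMt448
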