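import Crest.Agent.R116.KMt3_448

/-!
# R116 (S0155), wave side, base `KMt`, part 4: **`kmt_of`** (helper448)
-/

set_option autoImplicit false
set_option linter.unusedSectionVars false

open MeasureTheory FourierTransform
open scoped ContDiff ENNReal

namespace Crest.Agent.R116.KMt448

open Crest.Agent.R138.Defs (E2 ee)
open Crest.Agent.R138.Wpk685 (win fat cen caps)
open Crest.Agent.R116
open Crest.Agent.R116.CDef480 Crest.Agent.R116.CWd480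
open Crest.Agent.R116.Cad538 (frc wt Den Den_meas2)
open Crest.Agent.R116.WC188
open Crest.Agent.R116.Ckm538 (DensR M1 Cov LKMg kmc_core' densR_of_adm norm_cen_le)
open Crest.Agent.R116.LKMDef299 (Cpt SSg)

theorem rpow_add32 (x y : ℝ≥0∞) : (x + y) ^ (3/2 : ℝ) ≤
    ENNReal.ofReal 2 * (x ^ (3/2 : ℝ) + y ^ (3/2 : ℝ)) := by
  refine (ENNReal.rpow_add_le_mul_rpow_add_rpow _ _ (by norm_num)).trans ?_
  refine mul_le_mul' ?_ le_rfl
  rw [show (3/2 : ℝ) - 1 = 1/2 by norm_num, ENNReal.ofReal_ofNat]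
  calc (2 : ℝ≥0∞) ^ (1/2 : ℝ) ≤ 2 ^ (1 : ℝ) :=
        ENNReal.rpow_le_rpow_of_exponent_le (by norm_num) (by norm_num)
    _ = 2 := ENNReal.rpow_one _

/-- the cylinder as a product. -/
theorem lint_cylc_le (F : E3 × ℝ → ℝ≥0∞) (hF : Measurable F) (L : ℝ) :
    ∫⁻ p in cylc L, F p ≤ ∫⁻ t in Set.Icc (-L) L, ∫⁻ X, F (X, t) := by
  have hsub : cylc L ⊆ Set.univ ×ˢ Set.Icc (-L) L := by
    rintro p ⟨_, h2⟩
    exact ⟨Set.mem_univ _, abs_le.1 h2⟩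
  refine (lintegral_mono_set hsub).trans (le_of_eq ?_)
  rw [Measure.volume_eq_prod, ← Measure.prod_restrict, Measure.restrict_univ,
    lintegral_prod_symm _ hF.aemeasurable]

/-- the active caps. -/
noncomputable def act (ρ : ℝ) (g : E3 → ℂ) : Finset (ℤ × ℤ) := by
  classical
  exact (caps ρ).filter (fun m => ∃ ζ, g ζ ≠ 0 ∧ capc ρ m ζ ≠ 0)

theorem mem_act {ρ : ℝ} {g : E3 → ℂ} {m : ℤ × ℤ} :
    m ∈ act ρ g ↔ m ∈ caps ρ ∧ ∃ ζ, g ζ ≠ 0 ∧ capc ρ m ζ ≠ 0 := by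
  classical
  unfold act
  rw [Finset.mem_filter]

theorem umc_act {ρ : ℝ} {g : E3 → ℂ} {m : ℤ × ℤ} (h : ¬ ∃ ζ, g ζ ≠ 0 ∧ capc ρ m ζ ≠ 0)
    (y : E3) : umc ρ g m y = 0 := by
  have e : (fun ζ => capc ρ m ζ * g ζ) = fun _ => 0 := by
    funext ζ
    by_contra hc
    exact h ⟨ζ, right_ne_zero_of_mul hc, left_ne_zero_of_mul hc⟩
  unfold umc
  rw [e]
  simp [Real.fourierInv_eq]

/-- only the active caps count. -/
theorem Aup_act (n : ℕ) {r R : ℝ} (g : E3 → ℂ) (S : ℤ × ℤ → Set E3) (X : E3) (t : ℝ) :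
    Aup n r R g S X t = Cad538.Acc n (an R) (kp r R) (an R) g S (act (an R) g) X t := by
  unfold Aup Cad538.Acc Den
  congr 1
  symm
  refine Finset.sum_subset (fun m hm => (mem_act.1 hm).1) fun m hm hm2 => ?_
  have h : ¬ ∃ ζ, g ζ ≠ 0 ∧ capc (an R) m ζ ≠ 0 := fun h => hm2 (mem_act.2 ⟨hm, h⟩)
  simp [umc_act h]

/-- position of the active caps. -/
theorem act_near {ρ b σ : ℝ} {C0 : E2} (hρ : 0 < ρ) {g : E3 → ℂ}
    (hg : ∀ ζ, g ζ ≠ 0 → ‖slp ζ‖ ≤ b ∧ ‖slp ζ - C0‖ ≤ σ) {m : ℤ × ℤ} (hm : m ∈ act ρ g) :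
    ‖cen ρ m‖ ≤ b + 3 / 2 * ρ ∧ ‖cen ρ m - C0‖ ≤ σ + 3 / 2 * ρ := by
  obtain ⟨_, ζ, h1, h2⟩ := mem_act.1 hm
  obtain ⟨h3, h4⟩ := hg ζ h1
  have h5 : ‖slp ζ - cen ρ m‖ ≤ 3 / 2 * ρ := by
    by_contra hc
    apply h2
    unfold capc Crest.Agent.R138.Wpk685.cap
    apply Crest.Agent.R138.Wpk685.win_zero'
    rw [norm_smul, Real.norm_eq_abs, abs_of_pos (inv_pos.2 hρ), lt_inv_mul_iff₀ hρ]
    linarith [not_le.1 hc]
  rw [norm_sub_rev] at h5
  constructor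
  · have e : cen ρ m = (cen ρ m - slp ζ) + slp ζ := by abel
    rw [e]
    refine (norm_add_le _ _).trans ?_
    linarith
  · have e : cen ρ m - C0 = (cen ρ m - slp ζ) + (slp ζ - C0) := by abel
    rw [e]
    refine (norm_add_le _ _).trans ?_
    linarith

/-- numerology of the tail. -/
theorem tail_num {q M0 R A V C1 Rr E D n' s : ℝ} {n : ℕ} (hq : 0 ≤ q) (hR : 1 ≤ R) (hA : 1 ≤ A)
    (hV : 0 ≤ V) (hC1 : 0 ≤ C1) (hE : 0 ≤ E) (hD : 0 ≤ D) (hnd : E ≤ R ^ M0 * D)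
    (hRr : 0 ≤ Rr) (hn' : n' = n) (hn : 4 + |M0| + q ≤ n') (hs : an R ≤ s) :
    C1 * Rr * (2 * (((2 * an R) ^ n * E) ^ (3/2 : ℝ) * (2 * ((A + 1) * R) ^ 4 * V))) ≤
      (C1 * (4 * (A + 1) ^ 4 * V * (2:ℝ) ^ (3 / 2 * (n:ℝ)))) * (Rr * s ^ (q / 2) *
        (R * E * Real.sqrt D)) := by
  have hR0 : 0 < R := by linarith
  have hρ := an_pos hR0
  have hs0 : 0 < s := hρ.trans_le hs
  have e1 : ((2 * an R) ^ n * E) ^ (3/2 : ℝ) =
      (2:ℝ) ^ (3 / 2 * (n:ℝ)) * R ^ (-(3 / 4 * (n:ℝ))) * E ^ (3/2 : ℝ) := by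
    rw [Real.mul_rpow (by positivity) hE, ← Real.rpow_natCast, ← Real.rpow_mul (by positivity),
      Real.mul_rpow (by norm_num) hρ.le]
    unfold an
    rw [← Real.rpow_mul hR0.le]
    congr 3
    · ring
    · ring
  have e2 : E ^ (3/2 : ℝ) ≤ E * (R ^ (M0 / 2) * Real.sqrt D) := by
    rw [show (3 / 2 : ℝ) = 1 + 1 / 2 by norm_num, Real.rpow_add_of_nonneg hE (by norm_num)
      (by norm_num), Real.rpow_one]
    gcongr
    calc E ^ (1 / 2 : ℝ) ≤ (R ^ M0 * D) ^ (1 / 2 : ℝ) :=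
          Real.rpow_le_rpow hE hnd (by norm_num)
      _ = R ^ (M0 / 2) * Real.sqrt D := by
          rw [Real.mul_rpow (by positivity) hD, ← Real.rpow_mul hR0.le, Real.sqrt_eq_rpow]
          congr 2
          ring
  have e3 : R ^ (-(3 / 4 * (n:ℝ))) * R ^ 4 * R ^ (M0 / 2) ≤ R * s ^ (q / 2) := by
    have h1 : (an R) ^ (q / 2) ≤ s ^ (q / 2) := Real.rpow_le_rpow hρ.le hs (by positivity)
    have h2 : R * (an R) ^ (q / 2) = R ^ (1 - q / 4) := by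
      unfold an
      rw [← Real.rpow_mul hR0.le]
      nth_rewrite 1 [← Real.rpow_one R]
      rw [← Real.rpow_add hR0]
      congr 1
      ring
    refine le_trans ?_ (mul_le_mul_of_nonneg_left h1 hR0.le)
    rw [h2, ← Real.rpow_natCast R 4, ← Real.rpow_add hR0, ← Real.rpow_add hR0]
    refine Real.rpow_le_rpow_of_exponent_le hR ?_
    push_cast
    have h3 := le_abs_self M0
    have h4 := abs_nonneg M0
    rw [hn'] at hn
    linarith
  rw [e1]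
  have hX : 0 ≤ C1 * Rr * (2 * ((2:ℝ) ^ (3 / 2 * (n:ℝ)) * (2 * ((A + 1)) ^ 4 * V))) := by
    positivity
  calc C1 * Rr * (2 * ((2:ℝ) ^ (3 / 2 * (n:ℝ)) * R ^ (-(3 / 4 * (n:ℝ))) * E ^ (3/2 : ℝ) *
        (2 * ((A + 1) * R) ^ 4 * V)))
      = C1 * Rr * (2 * ((2:ℝ) ^ (3 / 2 * (n:ℝ)) * (2 * ((A + 1)) ^ 4 * V))) *
        (R ^ (-(3 / 4 * (n:ℝ))) * R ^ 4 * E ^ (3/2 : ℝ)) := by ring
    _ ≤ C1 * Rr * (2 * ((2:ℝ) ^ (3 / 2 * (n:ℝ)) * (2 * ((A + 1)) ^ 4 * V))) *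
        (R ^ (-(3 / 4 * (n:ℝ))) * R ^ 4 * (E * (R ^ (M0 / 2) * Real.sqrt D))) := by gcongr
    _ = C1 * Rr * (2 * ((2:ℝ) ^ (3 / 2 * (n:ℝ)) * (2 * ((A + 1)) ^ 4 * V))) *
        ((R ^ (-(3 / 4 * (n:ℝ))) * R ^ 4 * R ^ (M0 / 2)) * (E * Real.sqrt D)) := by ring
    _ ≤ C1 * Rr * (2 * ((2:ℝ) ^ (3 / 2 * (n:ℝ)) * (2 * ((A + 1)) ^ 4 * V))) *
        ((R * s ^ (q / 2)) * (E * Real.sqrt D)) := by gcongr
    _ = _ := by ring

set_option maxHeartbeats 1000000 in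
/-- **KMt**: Kakeya at the top, from the light-ray Kakeya inequality for planks. -/
theorem kmt_of {M' M q : ℝ} (hM' : 1 ≤ M') (hM : 1 ≤ M) (hq : 0 ≤ q)
    (hKM : ∀ V : ℝ, LKMg (SSg M') V) : KMt M q := by
  refine ⟨8, by norm_num, ?_⟩
  intro a b A ε M0 ha hb hb2 hA hε
  obtain ⟨n0, h0⟩ := kmc_core' (κ := ℤ × ℤ) hM' hKM (q := q) hq ε hε
  set n : ℕ := max n0 ⌈4 + |M0| + q⌉₊ with hn
  have hnr : 4 + |M0| + q ≤ (n : ℝ) :=
    (Nat.le_ceil _).trans (by exact_mod_cast le_max_right _ _)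
  obtain ⟨C1, hC1, h1⟩ := NP_le_Aup (A := A) ha n hA
  obtain ⟨C2, hC2, h2⟩ := h0 n (le_max_left _ _) (50 * (A + 1)) (A + 1) 4 8 (by positivity)
    (by positivity) (by norm_num) (by norm_num)
  set MA : ℝ := M1 M' (2 + 4 * M') with hMA
  set MB : ℝ := M1 MA (2 + 4 * MA) with hMB
  have hMA1 : 1 ≤ MA := by rw [hMA]; unfold M1; nlinarith
  have hMB1 : 1 ≤ MB := by rw [hMB]; unfold M1; nlinarith
  have hCov : 0 ≤ Cov MA (2 + 4 * MA) 1 := Ckm538.Cov_nonneg hMA1 (by linarith) le_rfl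
  set CD : ℝ := 121 * Cov MA (2 + 4 * MA) 1 * (11 ^ 5 * MB ^ 21) with hCD
  have hCD0 : 0 ≤ CD := by positivity
  set V : ℝ := Ba449.v3.toReal with hV
  have hV0 : 0 ≤ V := ENNReal.toReal_nonneg
  have hVe : Ba449.v3 = ENNReal.ofReal V := (ENNReal.ofReal_toReal Ba449.v3_lt.ne).symm
  set CT : ℝ := 4 * (A + 1) ^ 4 * V * (2:ℝ) ^ (3 / 2 * (n:ℝ)) with hCT
  have hCT0 : 0 ≤ CT := by positivity
  refine ⟨C1 * (2 * (C2 * Real.sqrt CD)) + C1 * CT, by positivity, ?_⟩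
  intro C0 σ g R D hSt r hrε hr hrR hrσ
  have hR : 1 ≤ R := hSt.R1
  have hR0 : 0 < R := by linarith
  have hr0 : 0 < r := by linarith
  have hg := Ba449.St.gd ha hb2.le hSt
  have hE := Ba449.Enc_nonneg g
  have hD := hSt.D0
  have hρ := an_pos hR0
  have hρ1 := an_le_one hR
  have hk := kp_pos hr0 hR0
  have hk1 := kp_le_one hr0 hrR
  have hki : 1 ≤ (kp r R)⁻¹ := (one_le_inv₀ hk).2 hk1
  have hρσ : an R ≤ σ := (an_anti hr0 hrR).trans hrσ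
  have hRr0 : 0 ≤ R / r := by positivity
  set s : ℝ := min 1 σ with hs
  have hρs : an R ≤ s := le_min hρ1 hρσ
  have hs0 : 0 < s := hρ.trans_le hρs
  set ξ : E2 := if σ ≤ 1 then C0 else 0 with hξ
  have hw0 : 0 < R ^ (1/2 : ℝ) := Real.rpow_pos_of_pos hR0 _
  have hwi : (R ^ (1/2 : ℝ))⁻¹ = an R := by rw [← an_inv hR0, inv_inv]
  have hww : R ^ (1/2 : ℝ) * R ^ (1/2 : ℝ) = R := by
    rw [← Real.rpow_add hR0]; norm_num
  have hwR : R ^ (1/2 : ℝ) = an R * R := by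
    have : an R * R ^ (1/2 : ℝ) = 1 := by rw [← hwi]; exact inv_mul_cancel₀ hw0.ne'
    calc R ^ (1/2 : ℝ) = (an R * R ^ (1/2 : ℝ)) * R ^ (1/2 : ℝ) := by rw [this, one_mul]
      _ = an R * R := by rw [mul_assoc, hww]
  set Sb : ℤ × ℤ → Set E3 := fun _ => Metric.closedBall 0 (50 * (A + 1) * R) with hSb
  -- box hypothesis
  have hD1 := densR_of_adm (M := M) (M' := MB) (q := q) (κ := 1) (r := R) (g := g) (S := Sb)
    (Δ := D) hM hMB1 hq one_pos le_rfl hR hD (by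
      intro c X0 f s1 s2 h3 h4
      refine le_trans ?_ (hSt.box c X0 f s1 s2 h3 h4)
      unfold enc
      exact Finset.sum_le_sum fun m _ => lintegral_mono_set Set.inter_subset_right)
  rw [inv_one] at hD1
  have hD2 := dens_up hMA1 hq hw0 hR0 (by positivity) hD1 hki
  have h3 := h2 (R ^ (1/2 : ℝ)) (kp r R)⁻¹ R hw0 (by rw [hwR]; nlinarith)
    (by rw [sq, hww]; nlinarith) (by
      rw [← inv_inv (R ^ (1/2 : ℝ)), hwi]
      exact inv_anti₀ hρ (an_le_kp hr hR0))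
    (caps (an R)) (cen (an R)) (fun m y => ‖umc (an R) g m y‖ₑ ^ 2) Sb
    (fun _ => Metric.isClosed_closedBall.measurableSet)
    (fun i _ => Bas367.umc_meas_sq hg.int (an R) i) (fun i hi => norm_cen_le hρ hρ1 hi)
    (fun i _ z hz => by simpa [hSb] using hz) _ (by positivity) hD2 s
    (by rw [hwR]; exact mul_le_mul_of_nonneg_right hρs hR0.le) (min_le_left _ _) Unit {()}
    (fun _ => ξ) (fun _ => act (an R) g) 1 (by
      intro k _
      refine ⟨fun m hm => (mem_act.1 hm).1, fun m hm => ?_⟩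
      obtain ⟨h4, h5⟩ := act_near (b := b) (σ := σ) (C0 := C0) hρ
        (fun ζ hζ => ⟨(hSt.supp ζ hζ).2.2.1, (hSt.supp ζ hζ).2.2.2⟩) hm
      simp only [hξ]
      split_ifs with h6
      · rw [hs, min_eq_right h6]
        linarith
      · rw [hs, min_eq_left (not_le.1 h6).le, sub_zero]
        linarith) (fun m _ => (Finset.card_le_univ _).trans (by simp))
  rw [Finset.sum_singleton] at h3
  simp only [hwi, inv_inv] at h3
  -- energy
  have hen : ∑ i ∈ caps (an R), ∫⁻ z in Sb i, ‖umc (an R) g i z‖ₑ ^ 2 ≤ ENNReal.ofReal (Enc g) :=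
    Ba449.enc_le hg hρ Sb
  have h4 := h3.trans (mul_le_mul' le_rfl hen)
  -- the region
  set G : E3 × ℝ → ℝ≥0∞ := fun p => (Aup n r R g Sb p.1 p.2) ^ (3/2 : ℝ) with hG
  have hGm : Measurable G :=
    (Den_meas2 fun i _ => Bas367.umc_meas_sq hg.int (an R) i).pow_const _
  set τ : ℝ≥0∞ := ENNReal.ofReal ((2 * an R) ^ n * Enc g) with hτ
  have h5 : ∫⁻ p in cylc ((A + 1) * R), (Aup n r R g (fun _ => Set.univ) p.1 p.2) ^ (3/2 : ℝ) ≤
      ENNReal.ofReal 2 * (∫⁻ p in cylc ((A + 1) * R), G p) +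
        ENNReal.ofReal 2 * (τ ^ (3/2 : ℝ) * (ENNReal.ofReal (2 * ((A + 1) * R) ^ 4) *
          Ba449.v3)) := by
    have h6 : ∀ p ∈ cylc ((A + 1) * R), (Aup n r R g (fun _ => Set.univ) p.1 p.2) ^ (3/2 : ℝ) ≤
        ENNReal.ofReal 2 * G p + ENNReal.ofReal 2 * τ ^ (3/2 : ℝ) := by
      intro p hp
      rw [← mul_add]
      exact (ENNReal.rpow_le_rpow (Aup_tail n hA hr hrR hg hp.1 hp.2) (by norm_num)).trans
        (rpow_add32 _ _)
    refine (setLIntegral_mono' (Ba449.meas_cylc _) h6).trans (le_of_eq ?_)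
    rw [lintegral_add_right _ measurable_const, lintegral_const_mul' _ _ ENNReal.ofReal_ne_top,
      setLIntegral_const, Ba449.vol_cylc (by positivity), mul_assoc]
  have h6 : ∫⁻ p in cylc ((A + 1) * R), G p ≤ ENNReal.ofReal (C2 * (an R * R / R) ^ (-ε) *
      s ^ (q / 2) * Real.sqrt (CD * D) * R * 1) * ENNReal.ofReal (Enc g) := by
    refine (lint_cylc_le G hGm _).trans (le_trans (le_of_eq ?_) (h4.trans (le_of_eq ?_)))
    · refine lintegral_congr fun t => lintegral_congr fun X => ?_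
      rw [hG]
      simp only
      rw [Aup_act]
      rfl
    · have e9 : 121 * Cov MA (2 + 4 * MA) 1 * (11 ^ 5 * MB ^ 21 * D) = CD * D := by
        rw [hCD]; ring
      rw [← hwR, e9, Nat.cast_one]
  have h7 := h1 r R hr hrR g hg.int (hg.memLp 2) (fun ζ hζ => ⟨(hSt.supp ζ hζ).1,
    (hSt.supp ζ hζ).2.1⟩) (fun ζ hζ => hg.slp ζ hζ)
  refine h7.trans ((mul_le_mul' le_rfl (h5.trans (add_le_add (mul_le_mul' le_rfl h6)
    le_rfl))).trans ?_)
  rw [hVe, ENNReal.ofReal_rpow_of_nonneg (by positivity) (by norm_num),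
    ← ENNReal.ofReal_mul (by positivity), ← ENNReal.ofReal_mul (by positivity),
    ← ENNReal.ofReal_mul (by positivity), ← ENNReal.ofReal_mul (by positivity),
    ← ENNReal.ofReal_mul (by positivity), ← ENNReal.ofReal_add (by positivity) (by positivity),
    ← ENNReal.ofReal_mul (by positivity)]
  refine ENNReal.ofReal_le_ofReal ?_
  have hRrε : (R / r) ^ (7 : ℝ) ≤ R ^ (7 * ε) := by
    have h8 : R / r ≤ R ^ ε := by
      rw [div_le_iff₀ hr0]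
      calc R = R ^ ε * R ^ (1 - ε) := by
            rw [← Real.rpow_add hR0]
            norm_num
        _ ≤ R ^ ε * r := by gcongr
    calc (R / r) ^ (7 : ℝ) ≤ (R ^ ε) ^ (7 : ℝ) := Real.rpow_le_rpow hRr0 h8 (by norm_num)
      _ = R ^ (7 * ε) := by rw [← Real.rpow_mul hR0.le]; ring_nf
  have hRε : 1 ≤ R ^ ε := Real.one_le_rpow hR hε.le
  have e8 : R ^ (8 * ε) = R ^ (7 * ε) * R ^ ε := by
    rw [← Real.rpow_add hR0]; ring_nf
  have hane : (an R * R / R) ^ (-ε) ≤ R ^ ε := by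
    rw [mul_div_assoc, div_self hR0.ne', mul_one]
    unfold an
    rw [← Real.rpow_mul hR0.le]
    exact Real.rpow_le_rpow_of_exponent_le hR (by linarith)
  have ht := tail_num (q := q) (M0 := M0) (R := R) (A := A) (V := V) (C1 := C1)
    (Rr := (R / r) ^ (7:ℝ)) (E := Enc g) (D := D) (n' := n) (s := s) (n := n) hq hR hA hV0 hC1 hE
    hD hSt.nd (by positivity) rfl hnr hρs
  have hsq : Real.sqrt (CD * D) = Real.sqrt CD * Real.sqrt D := Real.sqrt_mul hCD0 D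
  unfold SS
  rw [mul_add, hsq]
  have hP : 0 ≤ s ^ (q / 2) * (R * Enc g * Real.sqrt D) := by positivity
  have hm1 : C1 * (R / r) ^ (7:ℝ) * (2 * (C2 * (an R * R / R) ^ (-ε) * s ^ (q / 2) *
      (Real.sqrt CD * Real.sqrt D) * R * 1 * Enc g)) ≤
      (C1 * (2 * (C2 * Real.sqrt CD))) * (R ^ (8 * ε) * (s ^ (q / 2) *
        (R * Enc g * Real.sqrt D))) := by
    calc C1 * (R / r) ^ (7:ℝ) * (2 * (C2 * (an R * R / R) ^ (-ε) * s ^ (q / 2) *
          (Real.sqrt CD * Real.sqrt D) * R * 1 * Enc g))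
        = (C1 * (2 * (C2 * Real.sqrt CD))) * (((R / r) ^ (7:ℝ) * (an R * R / R) ^ (-ε)) *
          (s ^ (q / 2) * (R * Enc g * Real.sqrt D))) := by ring
      _ ≤ (C1 * (2 * (C2 * Real.sqrt CD))) * ((R ^ (7 * ε) * R ^ ε) *
          (s ^ (q / 2) * (R * Enc g * Real.sqrt D))) := by gcongr
      _ = _ := by rw [e8]
  have hm2 : C1 * CT * ((R / r) ^ (7:ℝ) * s ^ (q / 2) * (R * Enc g * Real.sqrt D)) ≤
      (C1 * CT) * (R ^ (8 * ε) * (s ^ (q / 2) * (R * Enc g * Real.sqrt D))) := by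
    rw [mul_assoc ((R / r) ^ (7:ℝ))]
    refine mul_le_mul_of_nonneg_left (mul_le_mul_of_nonneg_right ?_ hP) (by positivity)
    rw [e8]
    calc (R / r) ^ (7:ℝ) ≤ R ^ (7 * ε) := hRrε
      _ = R ^ (7 * ε) * 1 := (mul_one _).symm
      _ ≤ _ := by gcongr
  calc _ ≤ (C1 * (2 * (C2 * Real.sqrt CD))) * (R ^ (8 * ε) * (s ^ (q / 2) *
        (R * Enc g * Real.sqrt D))) +
        (C1 * CT) * (R ^ (8 * ε) * (s ^ (q / 2) * (R * Enc g * Real.sqrt D))) :=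
        add_le_add hm1 (by
          refine le_trans (le_of_eq ?_) (ht.trans hm2)
          ring)
    _ = _ := by ring

end Crest.Agent.R116.KMt448
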