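import Crest.Agent.R116.Tw5_468
import Crest.Agent.R116.Zl4_139

/-!
# R116, K10 (helper468), part 6: from 139's final window `WinL` to the seam `OutT` / `OutR`
-/

set_option autoImplicit false
set_option linter.unusedVariables false

open Finset Filter Topology

namespace Crest.Agent.R116.Tw468

open Crest.Agent.R138.Ex926 (Base U)
open Crest.Agent.R138.Mk163 (zc zl rho alive own)
open Crest.Agent.R138.Dp76 (dpow_pos dpow_add dpow_le Dense)
open Crest.Agent.R136.MkA627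
open Crest.Agent.R116.LZg725
open Crest.Agent.R116.Gd222 (TSet)
open Crest.Agent.R116.KI439
open Crest.Agent.R116.Xa794 (TS)
open Crest.Agent.R116.KF439 (IsL ValL Thin Thick TiltL)
open Crest.Agent.R116.Zl139

section winL

variable {B : Base} {I : ℕ → Finset (ℕ × ℝ)} {T : ℕ → TS LRay (Fin 2) Mem}
    {L : ℕ → ℕ → LRay} {r : ℕ → ℝ}
    {Ψ : ℝ → (Fin 2 → ℝ) → ℝ} {mt : ℕ → ℕ} {atop : ℕ → Fin 2 → ℕ} {lev : ℕ → ℚ → ℕ}
    {f : ℕ → ℚ → ℕ → ℤ → ℕ} {b : ℕ → ℚ → ℕ → TSet} {vm : ℕ → ℚ → ℝ} {w : Fin 2 → ℕ → ℚ → ℝ}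
    {g g0 s : ℝ} {θ p : Fin 2 → ℝ} {B' : Base} {I' : ℕ → Finset (ℕ × ℝ)} {H : ℕ → ℝ}
    {mm : ℕ → ℚ → ℚ} {A' A2 : ℕ → ℝ} {vm2 : ℕ → ℚ → ℝ} {K : ℕ → ℝ}

/-- **the static class of the final window**, every constant `K1`. -/
theorem admS_winL (h : WinL B I T L r Ψ mt atop lev f b vm w g g0 s θ p B' I' H mm A' A2 vm2 K)
    (K1 : ℝ) : AdmS (GW T L w p B' mm K) (fun j n => w j n (mm n 1)) B'.L
      (fun n => lev n (mm n 0)) (fun n => lev n (mm n 1)) K1 := by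
  filter_upwards [h.adm, h.Klim.eventually_ge_atTop K1, h.room,
    h.mkL.wpos 0 1 zero_le_one le_rfl, h.mkL.wpos 1 1 zero_le_one le_rfl]
    with n a1 a2 a3 p0 p1 i i0 i1 J a m hok hR hs0 hsg e0 e1 hin
  have hp : ∀ j, 0 < w j n (mm n 1) := fun j => by
    fin_cases j
    · exact p0
    · exact p1
  have hrg : ∀ j, B'.d n ^ (K n) * w j n (mm n 1) ≤ (1 / 2 : ℝ) ^ (a j) ∧
      (1 / 2 : ℝ) ^ (a j) ≤ B'.d n ^ (-(K n)) * w j n (mm n 1) := fun j =>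
    of_abs_log B' (hp j) (by positivity) a2 (hin j)
  refine ⟨a1 i i0 i1 J a m (admL_of hok (by rw [hR, Gd222.rho_half])
    (by rw [hs0, Gd222.rho_half]) hsg e0 e1 ?_) fun j => (hrg j).1, hrg⟩
  rw [e1]
  exact a3.trans (hrg 1).1

/-- the marks of the final window are in the range -/
theorem goodM_winL (hTL : ∀ n, IsTL (T n) (r n))
    (h : WinL B I T L r Ψ mt atop lev f b vm w g g0 s θ p B' I' H mm A' A2 vm2 K) :
    GoodM I' (fun n x => lev n (mm n x)) (fun n x => f n (mm n x)) (fun n x => b n (mm n x))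
      (GdW (fun j n => w j n (mm n 1)) B'.L (fun n => lev n (mm n 0)) (fun n => lev n (mm n 1))
        (|θ 0| + |θ 1| + 3)) := by
  refine goodM_init h.mkL (isL_GW hTL L w p B' mm K).wid fun j => ?_
  have h0 := abs_nonneg (θ 0)
  have h1 := abs_nonneg (θ 1)
  fin_cases j
  · show |θ 0| + 3 ≤ _
    linarith
  · show |θ 1| + 3 ≤ _
    linarith

/-- **RESULT: the seam I-c / II-c from 139's final window.** -/
theorem out_winL (hTL : ∀ n, IsTL (T n) (r n))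
    (h : WinL B I T L r Ψ mt atop lev f b vm w g g0 s θ p B' I' H mm A' A2 vm2 K)
    (hp : ∀ j, 0 ≤ p j) (hs : s < 1)
    (hT : Thin B' (fun j n x => w j n (mm n x)) → ∃ C : ℝ, TiltL B' I' L
      (fun n x => lev n (mm n x)) (fun n x => f n (mm n x)) (fun n x => b n (mm n x))
      (fun j n x => w j n (mm n x)) C) {Rg : ℝ} (hRg : 0 ≤ Rg) (a : Fin 2) :
    (∃ (B1 : Base) (I1 : ℕ → Finset (ℕ × ℝ)) (lev1 : ℕ → ℚ → ℕ) (A1 : ℕ → ℝ)
      (f1 : ℕ → ℚ → ℕ → ℤ → ℕ) (b1 : ℕ → ℚ → ℕ → TSet) (vm1 : ℕ → ℚ → ℝ)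
      (w1 : Fin 2 → ℕ → ℚ → ℝ) (fr1 : ℕ → ℚ → ℕ × ℝ → ChL222.LInc)
      (fl1 : ℕ → ℕ × ℝ → ChL222.LInc) (sc1 : Fin 12 → ℕ → ℝ),
      OutT (GW T L w p B' mm K) L r (g + g0 + 2 * s) s θ p Rg B1 I1 lev1 A1 f1 b1 vm1 w1 fr1 fl1
        sc1) ∨
    OutR (GW T L w p B' mm K) L r (g + g0 + 2 * s) s θ p Rg a B' I' (fun n x => lev n (mm n x)) A2
      (fun n x => f n (mm n x)) (fun n x => b n (mm n x)) vm2 (fun j n x => w j n (mm n x)) := by
  have hG := isL_GW hTL L w p B' mm K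
  have hv := valL_GW hTL L w p B' mm K
  have hS := admS_winL h (Rg + (|θ 0| + |θ 1| + 3) + 2)
  have hgood := goodM_winL hTL h
  rcases h.tt with ht | ht
  · left
    obtain ⟨C, hC⟩ := hT ht
    exact outT_thin h.mkL hG hv hp hs hC ht hS hgood (Eventually.of_forall fun n => le_rfl) hRg
      le_rfl
  · right
    exact outR_thick h.mkL hG hv hp ht hS hgood (Eventually.of_forall fun n => le_rfl) hRg le_rfl a

end winL

end Crest.Agent.R116.Tw468
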