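import Crest.Agent.R116.KTopA_387

/-!
# R116, K-side skeleton, case split of the second half (helper387)

* `RowI η` : the round row (flat flags).
* `RowU η` : the thin row without visible slots (except the height).
* `RowTie η` : the thin row with a visible slot.
* **`ktopB`** : the three rows ⊢ `TopW η → False`.
-/

set_option autoImplicit false
set_option linter.unusedVariables false

open Finset Filter Topology

namespace Crest.Agent.R116.KTop387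

open Crest.Agent.R138.Ex926 (Base U)
open Crest.Agent.R136.MkA627
open Crest.Agent.R136.TD627
open Crest.Agent.R116.KI439
open Crest.Agent.R116.Gd222 (TSet)
open Crest.Agent.R116.Tw468 (OutT OutR)
open Crest.Agent.R116.KF439 (PL)

/-- **ROW ISO**: round marks -/
def RowI (η : ℝ) : Prop :=
  ∀ (g s : ℝ) (θ q : Fin 2 → ℝ), NumL η g s θ q → ∃ (a : Fin 2) (Rg0 : ℝ), ∀ Rg : ℝ, Rg0 ≤ Rg →
    ∀ (G : Geo TSet (Fin 2)) (L : ℕ → ℕ → LRay) (r : ℕ → ℝ) (B : Base) (I : ℕ → Finset (ℕ × ℝ))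
      (lev : ℕ → ℚ → ℕ) (A : ℕ → ℝ) (f : ℕ → ℚ → ℕ → ℤ → ℕ) (b : ℕ → ℚ → ℕ → TSet)
      (vm : ℕ → ℚ → ℝ) (w : Fin 2 → ℕ → ℚ → ℝ),
      OutR G L r (g + 2 * s) s θ q Rg a B I lev A f b vm w → False

/-- **ROW SIG**: thin marks, all slots except the height are constant along the lines -/
def RowU (η : ℝ) : Prop :=
  ∀ (g s : ℝ) (θ q : Fin 2 → ℝ), NumL η g s θ q → ∃ Rg0 : ℝ, ∀ Rg : ℝ, Rg0 ≤ Rg →
    ∀ (G : Geo TSet (Fin 2)) (L : ℕ → ℕ → LRay) (r : ℕ → ℝ) (B : Base) (I : ℕ → Finset (ℕ × ℝ))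
      (lev : ℕ → ℚ → ℕ) (A : ℕ → ℝ) (f : ℕ → ℚ → ℕ → ℤ → ℕ) (b : ℕ → ℚ → ℕ → TSet)
      (vm : ℕ → ℚ → ℝ) (w : Fin 2 → ℕ → ℚ → ℝ) (fr : ℕ → ℚ → ℕ × ℝ → ChL222.LInc)
      (fl : ℕ → ℕ × ℝ → ChL222.LInc) (sc : Fin 12 → ℕ → ℝ),
      OutT G L r (g + 2 * s) s θ q Rg B I lev A f b vm w fr fl sc →
      (∀ j, j ≠ 0 → InvT PL B I j fl (sc j)) → False

/-- **ROW TIE**: thin marks, a visible slot -/
def RowTie (η : ℝ) : Prop :=
  ∀ (g s : ℝ) (θ q : Fin 2 → ℝ), NumL η g s θ q → ∃ Rg0 : ℝ, ∀ Rg : ℝ, Rg0 ≤ Rg →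
    ∀ (G : Geo TSet (Fin 2)) (L : ℕ → ℕ → LRay) (r : ℕ → ℝ) (B : Base) (I : ℕ → Finset (ℕ × ℝ))
      (lev : ℕ → ℚ → ℕ) (A : ℕ → ℝ) (f : ℕ → ℚ → ℕ → ℤ → ℕ) (b : ℕ → ℚ → ℕ → TSet)
      (vm : ℕ → ℚ → ℝ) (w : Fin 2 → ℕ → ℚ → ℝ) (fr : ℕ → ℚ → ℕ × ℝ → ChL222.LInc)
      (fl : ℕ → ℕ × ℝ → ChL222.LInc) (sc : Fin 12 → ℕ → ℝ),
      OutT G L r (g + 2 * s) s θ q Rg B I lev A f b vm w fr fl sc →
      (∃ j, j ≠ 0 ∧ ¬ InvT PL B I j fl (sc j)) → False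

/-- **second half of the K side from the three rows.** -/
theorem ktopB {η : ℝ} (hU : RowU η) (hI : RowI η) (hT : RowTie η) : TopW η → False := by
  rintro ⟨g, s, θ, q, hN, h⟩
  obtain ⟨R1, hU⟩ := hU g s θ q hN
  obtain ⟨a, R2, hI⟩ := hI g s θ q hN
  obtain ⟨R3, hT⟩ := hT g s θ q hN
  rcases h (max (max R1 R2) (max R3 0)) ((le_max_right _ _).trans (le_max_right _ _)) a with
    ⟨G, L, r, B, I, lev, A, f, b, vm, w, fr, fl, sc, hO⟩ | ⟨G, L, r, B, I, lev, A, f, b, vm, w, hO⟩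
  · by_cases hv : ∀ j, j ≠ 0 → InvT PL B I j fl (sc j)
    · exact hU _ ((le_max_left _ _).trans (le_max_left _ _)) G L r B I lev A f b vm w fr fl sc hO hv
    · push Not at hv
      exact hT _ ((le_max_left _ _).trans (le_max_right _ _)) G L r B I lev A f b vm w fr fl sc hO
        hv
  · exact hI _ ((le_max_right _ _).trans (le_max_left _ _)) G L r B I lev A f b vm w hO

end Crest.Agent.R116.KTop387
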