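import Crest.Agent.R116.Rm4_618

/-!
# R116, K2 (ENEMY with room), part 5 (helper618): five coordinates, `up_count_gen`, `raw_up5`

Children in all five coordinates (79's `count5` as hypothesis `Count5`).
-/

set_option autoImplicit false
set_option linter.unusedVariables false

open Finset

namespace Crest.Agent.R116.Ene618

open Crest.Agent.R116.LZg725
open Crest.Agent.R138.Defs (E2)
open Crest.Agent.R116.CDef480 (E3 lat pt vel)
open Crest.Agent.R116.Ks79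

/-- indices of the children, five coordinates. -/
noncomputable def idx5 (N Q : ℕ) : Finset ((ℤ × ℤ) × ((ℤ × ℤ) × ℤ)) :=
  (Ico (0 : ℤ) Q ×ˢ Ico (0 : ℤ) Q) ×ˢ idx N Q

/-- child in five coordinates. -/
noncomputable def chd5 (rho : ℝ) (r : E2 × E2 × ℝ) (y : (ℤ × ℤ) × ((ℤ × ℤ) × ℤ)) :
    E2 × E2 × ℝ := chd rho (r.1 + pv rho y.1, r.2.1, r.2.2) y.2

open Classical in
/-- **79's `count5`**. -/
def Count5 (K : ℝ) : Prop := ∀ (N Q : ℕ) (s : Finset GRay) (Δ : ℝ) (m : Mem), 1 ≤ N → 1 ≤ Q →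
  (∀ l ∈ s, Bd N l) → 1 ≤ Δ → DensL 64 N s Δ → Sm 16 m → rho0 N Q ≤ m.s1 → m.sg ≤ 1 / 8 →
  (((s ×ˢ idx5 N Q).filter fun x => chd5 (rho0 N Q) (gray N x.1) x.2 ∈ m.rays 0).card : ℝ) ≤
    K * Δ * (N : ℝ) ^ 4 * (Q : ℝ) ^ 6 * (m.s1 * m.sg ^ 3) *
      (min 1 (N * m.s1) * min 1 (N * m.sg))

theorem mem_idx5 {N Q : ℕ} {x : (ℤ × ℤ) × ((ℤ × ℤ) × ℤ)} (hx : x ∈ idx5 N Q) :
    (0 ≤ x.1.1 ∧ x.1.1 < Q) ∧ (0 ≤ x.1.2 ∧ x.1.2 < Q) ∧ x.2 ∈ idx N Q := by
  unfold idx5 at hx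
  rw [mem_product, mem_product, mem_Ico, mem_Ico] at hx
  exact ⟨hx.1.1, hx.1.2, hx.2⟩

theorem idx5_abs {N Q : ℕ} (hN : 1 ≤ N) (hQ : 1 ≤ Q) {x : (ℤ × ℤ) × ((ℤ × ℤ) × ℤ)}
    (hx : x ∈ idx5 N Q) (i : Fin 2) :
    0 ≤ pv (rho0 N Q) x.1 i ∧ pv (rho0 N Q) x.1 i ≤ 1 / (N : ℝ) / 8 := by
  obtain ⟨⟨a1, a2⟩, ⟨b1, b2⟩, -⟩ := mem_idx5 hx
  have hrho := rho0_pos hN hQ
  have a1' : (0:ℝ) ≤ x.1.1 := by exact_mod_cast a1
  have a2' : (x.1.1 : ℝ) ≤ Q := by exact_mod_cast a2.le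
  have b1' : (0:ℝ) ≤ x.1.2 := by exact_mod_cast b1
  have b2' : (x.1.2 : ℝ) ≤ Q := by exact_mod_cast b2.le
  rw [← rho0_Q hN hQ]
  fin_cases i
  · exact ⟨mul_nonneg a1' hrho.le, mul_le_mul_of_nonneg_right a2' hrho.le⟩
  · exact ⟨mul_nonneg b1' hrho.le, mul_le_mul_of_nonneg_right b2' hrho.le⟩

theorem idx_abs {N Q : ℕ} (hN : 1 ≤ N) (hQ : 1 ≤ Q) {x : (ℤ × ℤ) × ℤ}
    (hx : x ∈ idx N Q) (i : Fin 2) :
    0 ≤ pv (rho0 N Q) x.1 i ∧ pv (rho0 N Q) x.1 i ≤ 1 / (N : ℝ) / 8 := by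
  obtain ⟨⟨a1, a2⟩, ⟨b1, b2⟩, -⟩ := mem_idx hx
  have hrho := rho0_pos hN hQ
  have a1' : (0:ℝ) ≤ x.1.1 := by exact_mod_cast a1
  have a2' : (x.1.1 : ℝ) ≤ Q := by exact_mod_cast a2.le
  have b1' : (0:ℝ) ≤ x.1.2 := by exact_mod_cast b1
  have b2' : (x.1.2 : ℝ) ≤ Q := by exact_mod_cast b2.le
  rw [← rho0_Q hN hQ]
  fin_cases i
  · exact ⟨mul_nonneg a1' hrho.le, mul_le_mul_of_nonneg_right a2' hrho.le⟩
  · exact ⟨mul_nonneg b1' hrho.le, mul_le_mul_of_nonneg_right b2' hrho.le⟩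

theorem idx_card (N Q : ℕ) : (idx N Q).card = Q * Q * (8 * N * Q ^ 2) := by
  unfold idx
  rw [card_product, card_product, Int.card_Ico, Int.card_Ico]
  have e1 : ((Q : ℤ) - 0).toNat = Q := by simp
  have e2 : ((8 * N * Q ^ 2 : ℤ) - 0).toNat = 8 * N * Q ^ 2 := by
    rw [sub_zero]; exact_mod_cast Int.toNat_natCast (8 * N * Q ^ 2)
  rw [e1, e2]

theorem idx5_card (N Q : ℕ) : (idx5 N Q).card = Q * Q * (Q * Q * (8 * N * Q ^ 2)) := by
  unfold idx5
  rw [card_product, card_product, Int.card_Ico, idx_card]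
  have e1 : ((Q : ℤ) - 0).toNat = Q := by simp
  rw [e1]

/-- a vector with small coordinates. -/
theorem norm_le_of_coord {v : E2} {b B : ℝ} (h0 : |v 0| ≤ b) (h1 : |v 1| ≤ b) (hB : 0 ≤ B)
    (h : 2 * b ^ 2 ≤ B ^ 2) : ‖v‖ ≤ B := by
  have h2 := CDef480.normsq2 v
  have c1 : v 0 ^ 2 ≤ b ^ 2 := by
    rw [← sq_abs]; exact pow_le_pow_left₀ (abs_nonneg _) h0 2
  have c2 : v 1 ^ 2 ≤ b ^ 2 := by
    rw [← sq_abs]; exact pow_le_pow_left₀ (abs_nonneg _) h1 2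
  exact (abs_le_of_sq_le_sq' (by linarith) hB).2

section

variable {m : Mem}

open Classical in
/-- **the density bound at level `0`** (`B = 0`), from members of small curvature, general bound. -/
theorem up_count_gen {ι : Type*} (S : Finset ι) (L : ι → E2 × E2 × ℝ) {δ A : ℝ} (hδ : 0 < δ)
    (hδ1 : δ ≤ 1 / 8) (hA : 0 ≤ A)
    (Gf : ℝ → ℝ → ℝ)
    (hG : ∀ w : ℝ, 0 < w → w ≤ 64 * (m.s1 * m.R) → Gf w (min (1 / 8) (256 * m.sg)) ≤ A)
    (hb1 : ∀ i ∈ S, ‖(L i).1‖ ≤ 3 / 2) (hb2 : ∀ i ∈ S, ‖(L i).2.1‖ ≤ 3 / 2)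
    (hd : ∀ p : Mem, Sm 16 p → δ ≤ p.s1 → p.sg ≤ 1 / 8 →
      ((S.filter fun i => L i ∈ p.rays 0).card : ℝ) ≤ Gf p.s1 p.sg)
    (hm0 : m.Ok (1 / 100) 0) (hR : ∀ s : ℝ, |s| ≤ 1 → |1 / 4 * s + 1 / 2 - m.s0| ≤ m.R) (hR1 : m.R ≤ 1)
    (hδs1 : δ ≤ 64 * (m.s1 * m.R)) (hsg1 : m.sg ≤ 1)
    (hS : ∀ i ∈ S, nr (L i) ∈ m.rays 0) :
    (S.card : ℝ) ≤ (2 * nK + 1) ^ 5 * A := by
  have hm : m.Ok 1 0 := LKMDef299.Ok.mono hm0 (by norm_num)
  have hsg := hm.sg_pos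
  have hRp := hm.hR
  have hs1 := hm.hs1
  have hs1sg := hm.hsg
  set σ : ℝ := min (1 / 8) (256 * m.sg) with hσd
  have hσ : 0 < σ := lt_min (by norm_num) (by positivity)
  have hσ1 : σ ≤ 1 / 8 := min_le_left _ _
  have hσ2 : σ ≤ 256 * m.sg := min_le_right _ _
  have hσ3 : m.sg ≤ 8 * σ := by
    rcases le_total (256 * m.sg) (1 / 8) with h | h
    · have : σ = 256 * m.sg := min_eq_right h
      linarith
    · have : σ = 1 / 8 := min_eq_left h
      linarith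
  have hsgR : m.sg * m.R ≤ m.sg := by nlinarith
  have hs1R : m.s1 * m.R ≤ m.sg := by nlinarith
  have hδσ : δ ≤ σ := le_min hδ1 (by linarith)
  rcases S.eq_empty_or_nonempty with rfl | ⟨i0, hi0⟩
  · simp only [card_empty, Nat.cast_zero]
    positivity
  have hin := fun i (hi : i ∈ S) j (hj : j ∈ S) => in_new hm hR (hS i hi) (hS j hj)
  refine cells_bound S L i0 (σ := σ) (T0 := σ ^ 2) hσ le_rfl ?_ ?_ ?_ hA ?_
  · intro i hi
    rcases le_total (256 * m.sg) (1 / 8) with h | h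
    · have : σ = 256 * m.sg := min_eq_right h
      have := (hin i hi i0 hi0).1
      linarith
    · have : σ = 1 / 8 := min_eq_left h
      have := norm_sub_le (L i).1 (L i0).1
      linarith [hb1 i hi, hb1 i0 hi0]
  · intro i hi
    rcases le_total (256 * m.sg) (1 / 8) with h | h
    · have : σ = 256 * m.sg := min_eq_right h
      have h2 := (hin i hi i0 hi0).2.1
      linarith
    · have : σ = 1 / 8 := min_eq_left h
      have := norm_sub_le (L i).2.1 (L i0).2.1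
      linarith [hb2 i hi, hb2 i0 hi0]
  · intro i hi
    have h2 := (hin i hi i0 hi0).2.2.1
    have h3 : m.sg ^ 2 * m.R ≤ m.sg ^ 2 := by nlinarith [sq_nonneg m.sg]
    have h4 : m.sg ^ 2 ≤ (8 * σ) ^ 2 := pow_le_pow_left₀ hsg.le hσ3 2
    nlinarith
  · intro i hi
    -- the slab function and its width
    have hi' := hin i hi i hi
    by_cases hw : 64 * (m.s1 * m.R) ≤ σ
    · -- curved slab
      set phi := back (1 / 64) (1 / 4) (1 / 2) m.phi with hphi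
      have hok : (mem1 σ (64 * (m.s1 * m.R)) phi (L i)).Ok 16 0 := by
        refine mem1_ok (by linarith) (by positivity) hw ?_ ?_ ?_
        · rw [hphi, back_disc (by norm_num) (by norm_num)]
          exact hm.adm.disc
        · intro s hs
          rw [hphi, back_ny _ (by norm_num)]
          have h3 := hm.adm.ny (1 / 4 * s + 1 / 2) (hR s hs)
          rw [T_zero] at h3
          set a := |m.phi.ny (1 / 4 * s + 1 / 2)| with ha
          have ha0 : 0 ≤ a := abs_nonneg _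
          have h5 : a * m.sg ≤ 1 := by
            have h6 : (a * m.sg) * m.sg ≤ 1 * m.sg := by nlinarith
            exact le_of_mul_le_mul_right h6 hsg
          rw [abs_mul, show |((1:ℝ) / 64 / (1 / 4))| = 1 / 16 by
            rw [abs_of_pos (by norm_num)]; norm_num]
          calc 1 / 16 * a * σ ^ 2 = 1 / 16 * (a * σ) * σ := by ring
            _ ≤ 1 / 16 * (a * (256 * m.sg)) * σ := by gcongr
            _ = 16 * (a * m.sg) * σ := by ring
            _ ≤ 16 * 1 * σ := by gcongr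
            _ = 16 * σ := by ring
        · exact hi'.2.2.2
      have hSm : Sm 16 (mem1 σ (64 * (m.s1 * m.R)) phi (L i)) := by
        refine ⟨hok, rfl, rfl, fun s hs => ?_⟩
        show |phi.ny s| * σ ≤ 4 / 25
        rw [hphi, back_ny _ (by norm_num)]
        have h3 := hm0.adm.ny (1 / 4 * s + 1 / 2) (hR s hs)
        rw [T_zero] at h3
        set a := |m.phi.ny (1 / 4 * s + 1 / 2)| with ha
        have ha0 : 0 ≤ a := abs_nonneg _
        have h5 : a * m.sg ≤ 1 / 100 := by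
          have h6 : (a * m.sg) * m.sg ≤ 1 / 100 * m.sg := by nlinarith
          exact le_of_mul_le_mul_right h6 hsg
        rw [abs_mul, show |((1:ℝ) / 64 / (1 / 4))| = 1 / 16 by
          rw [abs_of_pos (by norm_num)]; norm_num]
        calc 1 / 16 * a * σ ≤ 1 / 16 * a * (256 * m.sg) := by gcongr
          _ = 16 * (a * m.sg) := by ring
          _ ≤ 16 * (1 / 100) := by gcongr
          _ = 4 / 25 := by norm_num
      have hD := hd _ hSm (by exact hδs1) hσ1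
      refine le_trans (Nat.cast_le.2 (card_le_card fun t ht => ?_)) (hD.trans ?_)
      · rw [mem_filter] at ht ⊢
        obtain ⟨ht0, ht1, ht2, ht3⟩ := ht
        exact ⟨ht0, mem1_rays hσ ht1 ht2 ht3 (hin t ht0 i hi).2.2.2⟩
      · exact hG _ (mul_pos (by norm_num) (mul_pos hs1 hRp)) le_rfl
    · -- no slab
      push Not at hw
      set e : E2 := !₂[1, 0] with he
      have he1 : ‖e‖ = 1 := by
        have : ‖e‖ ^ 2 = 1 := by rw [CDef480.normsq2]; simp [he]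
        exact (pow_eq_one_iff_of_nonneg (norm_nonneg e) two_ne_zero).1 this
      set phi := linf e (L i).1 (L i).2.1 with hphi
      have hev : ∀ t : E2 × E2 × ℝ, ‖t.1 - (L i).1‖ ≤ σ / 128 → ‖t.2.1 - (L i).2.1‖ ≤ σ / 128 →
          ∀ s : ℝ, |s| ≤ 1 → |phi.ev (rx t.1 t.2.1 s) (ry t.1 t.2.2 s) s| ≤ σ := by
        intro t h1 h2 s hs
        rw [hphi, linf_ev]
        refine (abs_real_inner_le_norm _ _).trans ?_
        rw [he1, one_mul]
        have e2 : rx t.1 t.2.1 s - (L i).2.1 + s • (L i).1 =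
            (t.2.1 - (L i).2.1) - s • (t.1 - (L i).1) := by
          unfold rx; module
        rw [e2]
        refine (norm_sub_le _ _).trans ?_
        rw [norm_smul, Real.norm_eq_abs]
        have : |s| * ‖t.1 - (L i).1‖ ≤ 1 * (σ / 128) :=
          mul_le_mul hs h1 (norm_nonneg _) zero_le_one
        linarith
      have hzero : ‖(0 : E2)‖ ≤ σ / 128 := by rw [norm_zero]; positivity
      have hok : (mem1 σ σ phi (L i)).Ok 16 0 := by
        refine mem1_ok (by linarith) hσ le_rfl ?_ ?_ ?_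
        · rw [hphi]; exact linf_disc he1 _ _
        · intro s hs
          rw [hphi, linf_ny, abs_zero, zero_mul]
          positivity
        · exact hev (L i) (by rw [sub_self]; exact hzero) (by rw [sub_self]; exact hzero)
      have hSm : Sm 16 (mem1 σ σ phi (L i)) := by
        refine ⟨hok, rfl, rfl, fun s hs => ?_⟩
        show |phi.ny s| * σ ≤ 4 / 25
        rw [hphi, linf_ny, abs_zero, zero_mul]
        norm_num
      have hD := hd _ hSm (by exact hδσ) hσ1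
      refine le_trans (Nat.cast_le.2 (card_le_card fun t ht => ?_)) (hD.trans ?_)
      · rw [mem_filter] at ht ⊢
        obtain ⟨ht0, ht1, ht2, ht3⟩ := ht
        exact ⟨ht0, mem1_rays hσ ht1 ht2 ht3 (hev _ ht1 ht2)⟩
      · exact hG σ hσ hw.le

end

/-- slopes and positions of the children. -/
theorem chd5_bd {N Q : ℕ} (hN : 8 ≤ N) (hQ : 1 ≤ Q) {l : GRay} (hl : Bd N l)
    {y : (ℤ × ℤ) × ((ℤ × ℤ) × ℤ)} (hy : y ∈ idx5 N Q) :
    ‖(chd5 (rho0 N Q) (gray N l) y).1‖ ≤ 3 / 2 ∧ ‖(chd5 (rho0 N Q) (gray N l) y).2.1‖ ≤ 3 / 2 := by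
  have hN1 : 1 ≤ N := by omega
  have hN0 : (0:ℝ) < N := by exact_mod_cast hN1
  have hN8 : (8:ℝ) ≤ N := by exact_mod_cast hN
  have h8 : 1 / (N : ℝ) ≤ 1 / 8 := one_div_le_one_div_of_le (by norm_num) hN8
  obtain ⟨a1, a2, b1, b2, -⟩ := hl
  have a1' : |(l.1.1.1 : ℝ)| ≤ N := by exact_mod_cast a1
  have a2' : |(l.1.1.2 : ℝ)| ≤ N := by exact_mod_cast a2
  have b1' : |(l.1.2.1 : ℝ)| ≤ N := by exact_mod_cast b1
  have b2' : |(l.1.2.2 : ℝ)| ≤ N := by exact_mod_cast b2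
  have d : ∀ t : ℝ, |t| ≤ N → |t / N| ≤ 1 := fun t ht => by
    rw [abs_div, abs_of_pos hN0, div_le_one hN0]; exact ht
  have k : ∀ u v : ℝ, |u| ≤ 1 → 0 ≤ v → v ≤ 1 / (N : ℝ) / 8 → |u + v| ≤ 65 / 64 := by
    intro u v hu hv hv'
    refine (abs_add_le _ _).trans ?_
    rw [abs_of_nonneg hv]
    linarith
  have hc := idx5_abs hN1 hQ hy
  have hp := idx_abs hN1 hQ (mem_idx5 hy).2.2
  constructor
  · refine norm_le_of_coord (b := 65 / 64) ?_ ?_ (by norm_num) (by norm_num)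
    · have e : (chd5 (rho0 N Q) (gray N l) y).1 0 =
          -((l.1.1.1 : ℝ) / N) + pv (rho0 N Q) y.1 0 := rfl
      rw [e]
      exact k _ _ (by rw [abs_neg]; exact d _ a1') (hc 0).1 (hc 0).2
    · have e : (chd5 (rho0 N Q) (gray N l) y).1 1 =
          -((l.1.1.2 : ℝ) / N) + pv (rho0 N Q) y.1 1 := rfl
      rw [e]
      exact k _ _ (by rw [abs_neg]; exact d _ a2') (hc 1).1 (hc 1).2
  · refine norm_le_of_coord (b := 65 / 64) ?_ ?_ (by norm_num) (by norm_num)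
    · have e : (chd5 (rho0 N Q) (gray N l) y).2.1 0 =
          ((l.1.2.1 : ℝ) / N) + pv (rho0 N Q) y.2.1 0 := rfl
      rw [e]
      exact k _ _ (d _ b1') (hp 0).1 (hp 0).2
    · have e : (chd5 (rho0 N Q) (gray N l) y).2.1 1 =
          ((l.1.2.2 : ℝ) / N) + pv (rho0 N Q) y.2.1 1 := rfl
      rw [e]
      exact k _ _ (d _ b2') (hp 1).1 (hp 1).2

open Classical in
/-- **the density at level `0`** for the children in five coordinates. -/
theorem raw_up5 {K : ℝ} (hK : 0 ≤ K) (hC : Count5 K) (N Q : ℕ) (s : Finset GRay) (Δ : ℝ) (m : Mem)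
    (hN : 8 ≤ N) (hQ : 1 ≤ Q)
    (hΔ : 1 ≤ Δ) (hBd : ∀ l ∈ s, Bd N l) (hD : DensL 68 N s Δ) (hm : m.Ok (1 / 100) 0)
    (hR : m.R = 1) (hs0 : m.s0 = 1 / 2) (hs1 : 1 / (8 * (N : ℝ) * Q) ≤ m.s1) (hsg : m.sg ≤ 1) :
    (((s ×ˢ idx5 N Q).filter fun x =>
      nr (chd5 (1 / (8 * (N : ℝ) * Q)) (gray N x.1) x.2) ∈ m.rays 0).card : ℝ) ≤
      ((2 * nK + 1) ^ 5 * K * 2 ^ 44) * Δ * (N : ℝ) ^ 4 * (Q : ℝ) ^ 6 * (m.s1 * m.sg ^ 3) *
        (min 1 (N * m.s1) * min 1 (N * m.sg)) := by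
  have hN1 : 1 ≤ N := by omega
  have hN0 : (0:ℝ) < N := by exact_mod_cast hN1
  have hN8 : (8:ℝ) ≤ N := by exact_mod_cast hN
  have hQ1 : (1:ℝ) ≤ Q := by exact_mod_cast hQ
  have hrho := rho0_pos hN1 hQ
  have hsg0 := hm.sg_pos
  have hs10 := hm.hs1
  have hrd : (1 / (8 * (N : ℝ) * Q)) = rho0 N Q := rfl
  rw [hrd] at hs1 ⊢
  set S := (s ×ˢ idx5 N Q).filter fun x => nr (chd5 (rho0 N Q) (gray N x.1) x.2) ∈ m.rays 0 with hS
  have hr8 : rho0 N Q ≤ 1 / 8 := by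
    unfold rho0
    refine one_div_le_one_div_of_le (by norm_num) ?_
    nlinarith
  have h64 : DensL 64 N s Δ := hD.mono (by norm_num)
  have hmn : ∀ (x y c : ℝ), 1 ≤ c → 0 ≤ y → x ≤ c * y → min 1 (N * x) ≤ c * min 1 (N * y) := by
    intro x y c hc hy hxy
    rw [mul_min_of_nonneg _ _ (by linarith : (0:ℝ) ≤ c)]
    refine min_le_min (by linarith) ?_
    calc (N : ℝ) * x ≤ N * (c * y) := mul_le_mul_of_nonneg_left hxy hN0.le
      _ = c * (N * y) := by ring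
  have h3 := up_count_gen S (fun x => chd5 (rho0 N Q) (gray N x.1) x.2) (δ := rho0 N Q)
    (A := K * 2 ^ 44 * Δ * (N : ℝ) ^ 4 * (Q : ℝ) ^ 6 * (m.s1 * m.sg ^ 3) *
        (min 1 (N * m.s1) * min 1 (N * m.sg))) (m := m) hrho hr8 (by positivity)
    (fun w σ => K * Δ * (N : ℝ) ^ 4 * (Q : ℝ) ^ 6 * (w * σ ^ 3) * (min 1 (N * w) * min 1 (N * σ)))
    ?_ ?_ ?_ ?_ hm ?_ hR.le ?_ hsg ?_
  · refine h3.trans (le_of_eq ?_)
    ring
  · intro w hw0 hw
    rw [hR, mul_one] at hw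
    set σ : ℝ := min (1 / 8) (256 * m.sg) with hσd
    have hσ0 : 0 < σ := lt_min (by norm_num) (by positivity)
    have hσ : σ ≤ 256 * m.sg := min_le_right _ _
    have e1 := hmn w m.s1 64 (by norm_num) hs10.le hw
    have e2 := hmn σ m.sg 256 (by norm_num) hsg0.le hσ
    have q1 : 0 ≤ min 1 ((N : ℝ) * w) := le_min zero_le_one (by positivity)
    have q2 : 0 ≤ min 1 ((N : ℝ) * σ) := le_min zero_le_one (by positivity)
    have q3 : 0 ≤ min 1 ((N : ℝ) * m.s1) := le_min zero_le_one (by positivity)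
    have q4 : 0 ≤ min 1 ((N : ℝ) * m.sg) := le_min zero_le_one (by positivity)
    show K * Δ * (N : ℝ) ^ 4 * (Q : ℝ) ^ 6 * (w * σ ^ 3) * (min 1 (N * w) * min 1 (N * σ)) ≤ _
    calc K * Δ * (N : ℝ) ^ 4 * (Q : ℝ) ^ 6 * (w * σ ^ 3) * (min 1 (N * w) * min 1 (N * σ))
        ≤ K * Δ * (N : ℝ) ^ 4 * (Q : ℝ) ^ 6 * ((64 * m.s1) * (256 * m.sg) ^ 3) *
          ((64 * min 1 (N * m.s1)) * (256 * min 1 (N * m.sg))) := by gcongr
      _ = _ := by ring
  · intro x hx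
    rw [hS, mem_filter, mem_product] at hx
    exact (chd5_bd hN hQ (hBd _ hx.1.1) hx.1.2).1
  · intro x hx
    rw [hS, mem_filter, mem_product] at hx
    exact (chd5_bd hN hQ (hBd _ hx.1.1) hx.1.2).2
  · intro p hp hps1 hpsg
    have h4 := hC N Q s Δ p hN1 hQ hBd hΔ h64 hp hps1 hpsg
    refine le_trans (Nat.cast_le.2 (card_le_card fun x hx => ?_)) h4
    rw [mem_filter, hS, mem_filter] at hx
    rw [mem_filter]
    exact ⟨hx.1.1, hx.2⟩
  · intro z hz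
    rw [hs0, hR, add_sub_cancel_right, abs_mul, abs_of_pos (by norm_num : (0:ℝ) < 1 / 4)]
    linarith
  · rw [hR, mul_one]
    linarith
  · intro x hx
    rw [hS, mem_filter] at hx
    exact hx.2

end Crest.Agent.R116.Ene618
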