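import Crest.Agent.R116.Rs2_79
import Crest.Agent.R116.Rm5_618

/-!
# R116, K2 (ENEMY with room, five-coordinate fill), part 3 (helper79): `count5 : Count5 KC5`
-/

set_option autoImplicit false
set_option linter.unusedVariables false

open Finset

namespace Crest.Agent.R116.Rs79

open Crest.Agent.R116.LZg725
open Crest.Agent.R138.Defs (E2)
open Crest.Agent.R116.CDef480 (E3 lat pt vel)
open Crest.Agent.R116.Ks79
open Crest.Agent.R116.Ene618

/-- sum over the fibers. -/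
theorem card_le_fib {α β : Type*} [DecidableEq β] (S : Finset α) (f : α → β) {B : ℝ}
    (h : ∀ b ∈ S.image f, ((S.filter fun x => f x = b).card : ℝ) ≤ B) :
    (S.card : ℝ) ≤ (S.image f).card * B := by
  have : S.card = ∑ c ∈ S.image f, (S.filter fun t => f t = c).card :=
    card_eq_sum_card_image f S
  rw [this]
  push_cast
  calc ∑ c ∈ S.image f, ((S.filter fun t => f t = c).card : ℝ) ≤ ∑ c ∈ S.image f, B :=
        sum_le_sum h
    _ = (S.image f).card * B := by rw [sum_const, nsmul_eq_mul]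

section

variable {N Q : ℕ}

theorem rho_le (hN : 1 ≤ N) (hQ : 1 ≤ Q) : rho0 N Q ≤ 1 / N := by
  have hN0 : (0 : ℝ) < N := by exact_mod_cast hN
  have hQ1 : (1 : ℝ) ≤ Q := by exact_mod_cast hQ
  have hrho := rho0_pos hN hQ
  have : rho0 N Q ≤ Q * rho0 N Q := le_mul_of_one_le_left hrho.le hQ1
  rw [rho0_Q hN hQ] at this
  have h2 : 1 / (N : ℝ) / 8 ≤ 1 / N := by
    have : (0:ℝ) ≤ 1 / N := by positivity
    linarith
  linarith

theorem min_bound (hN : 1 ≤ N) (hQ : 1 ≤ Q) {s1 K : ℝ} (hK : 1 ≤ K) (hs1 : rho0 N Q ≤ s1) :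
    min (K * s1) (1 / (N : ℝ) / 8) / rho0 N Q + 1 ≤ (K + 1) * (min s1 (1 / N) / rho0 N Q) := by
  have hN0 : (0 : ℝ) < N := by exact_mod_cast hN
  have hrho := rho0_pos hN hQ
  have hmin : rho0 N Q ≤ min s1 (1 / N) := le_min hs1 (rho_le hN hQ)
  have h0 : (0:ℝ) ≤ 1 / N := by positivity
  have g1 : min (K * s1) (1 / (N : ℝ) / 8) ≤ K * min s1 (1 / N) := by
    rw [mul_min_of_nonneg _ _ (by linarith : (0:ℝ) ≤ K)]
    refine min_le_min le_rfl ?_
    nlinarith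
  have g2 : 1 ≤ min s1 (1 / (N : ℝ)) / rho0 N Q := by rw [le_div_iff₀ hrho, one_mul]; exact hmin
  have g3 : min (K * s1) (1 / (N : ℝ) / 8) / rho0 N Q ≤ K * (min s1 (1 / N) / rho0 N Q) := by
    rw [← mul_div_assoc]
    exact div_le_div_of_nonneg_right g1 hrho.le
  linarith

theorem W_bound (hN : 1 ≤ N) (hQ : 1 ≤ Q) : 1 / (N : ℝ) / 8 / rho0 N Q + 1 ≤ 2 * Q := by
  have hQ1 : (1 : ℝ) ≤ Q := by exact_mod_cast hQ
  rw [← rho0_Q hN hQ, mul_div_cancel_right₀ _ (rho0_pos hN hQ).ne']; linarith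

/-- positions per parent, `1/N ≤ sg`. -/
theorem pos_A (hN : 1 ≤ N) (hQ : 1 ≤ Q) {M : ℝ} {m : Mem} (h : Sm M m)
    (hs1 : rho0 N Q ≤ m.s1) (hrsg : 1 / (N : ℝ) ≤ m.sg) (C a : E2) (k : ℝ) {l : ℝ}
    (hl : 4 * rho0 N Q ^ 2 ≤ l) (S : Finset ((ℤ × ℤ) × ℤ)) (hSi : S ⊆ idx N Q)
    (hS : ∀ x ∈ S, ∃ v : E2, |v 0| ≤ 1 / (N : ℝ) / 8 ∧ |v 1| ≤ 1 / (N : ℝ) / 8 ∧
      (C + v, a + pv (rho0 N Q) x.1, k + (x.2 : ℝ) * rho0 N Q ^ 2) ∈ m.rays 0)
    (hnu : ∀ x ∈ S, ∀ y ∈ S, |nus (rho0 N Q) (C, a, k) x - nus (rho0 N Q) (C, a, k) y| ≤ l) :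
    (S.card : ℝ) ≤ 148 * Q * l * min m.s1 (1 / N) / rho0 N Q ^ 3 := by
  have hN0 : (0 : ℝ) < N := by exact_mod_cast hN
  have hQ1 : (1 : ℝ) ≤ Q := by exact_mod_cast hQ
  have hrho := rho0_pos hN hQ
  have hl0 : 0 < l := lt_of_lt_of_le (by positivity) hl
  have h1 := pos_count h (W := 1 / (N : ℝ) / 8) (lam := l) hrho (by positivity) hl0.le hs1 C a k S
    (fun x hx => by
      obtain ⟨v, -, -, hv⟩ := hS x hx
      exact ⟨_, hv⟩)
    (fun x hx => by
      obtain ⟨v, v0, v1, hv⟩ := hS x hx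
      refine ⟨x, hx, C + v, ?_, hv⟩
      have e : C + v - C = v := by abel
      rw [e]
      have := norm_pv_le v0 v1
      linarith)
    (fun x hx y hy => (idx_diff hN hQ (hSi hx) (hSi hy)).1)
    (fun x hx y hy => (idx_diff hN hQ (hSi hx) (hSi hy)).2) hnu
  refine h1.trans ?_
  have f1 := W_bound hN hQ
  have f2 : l / rho0 N Q ^ 2 + 2 ≤ 2 * (l / rho0 N Q ^ 2) := by
    have : 4 ≤ l / rho0 N Q ^ 2 := by rw [le_div_iff₀ (by positivity)]; exact hl
    linarith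
  have f3 := min_bound (K := 36) hN hQ (by norm_num) hs1
  have hs0 : 0 < m.s1 := h.ok.hs1
  have hm0 : 0 ≤ min m.s1 (1 / (N : ℝ)) := le_min hs0.le (by positivity)
  have h00 : 0 ≤ min (36 * m.s1) (1 / (N : ℝ) / 8) / rho0 N Q + 1 := by
    have : 0 ≤ min (36 * m.s1) (1 / (N : ℝ) / 8) := le_min (by linarith) (by positivity)
    positivity
  calc (1 / (N : ℝ) / 8 / rho0 N Q + 1) * (l / rho0 N Q ^ 2 + 2) *
        (min (36 * m.s1) (1 / (N : ℝ) / 8) / rho0 N Q + 1)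
      ≤ (2 * Q) * (2 * (l / rho0 N Q ^ 2)) * ((36 + 1) * (min m.s1 (1 / N) / rho0 N Q)) := by gcongr
    _ = 148 * Q * l * min m.s1 (1 / N) / rho0 N Q ^ 3 := by field_simp; norm_num

/-- slopes per position, any `sg`. -/
theorem slope_A (hN : 1 ≤ N) (hQ : 1 ≤ Q) {M : ℝ} {m : Mem} (h : Sm M m)
    (hs1 : rho0 N Q ≤ m.s1) (C a : E2) (k : ℝ) (S : Finset (ℤ × ℤ))
    (hSi : S ⊆ Ico (0 : ℤ) Q ×ˢ Ico (0 : ℤ) Q)
    (hS : ∀ c ∈ S, (C + pv (rho0 N Q) c, a, k) ∈ m.rays 0) :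
    (S.card : ℝ) ≤ 42 * Q * min m.s1 (1 / N) / rho0 N Q := by
  have hN0 : (0 : ℝ) < N := by exact_mod_cast hN
  have hQ1 : (1 : ℝ) ≤ Q := by exact_mod_cast hQ
  have hrho := rho0_pos hN hQ
  have hd : ∀ x ∈ S, ∀ y ∈ S, |((x.1 : ℝ) - y.1) * rho0 N Q| ≤ 1 / (N : ℝ) / 8 ∧
      |((x.2 : ℝ) - y.2) * rho0 N Q| ≤ 1 / (N : ℝ) / 8 := by
    intro x hx y hy
    have hx' := hSi hx
    have hy' := hSi hy
    rw [mem_product, mem_Ico, mem_Ico] at hx' hy'
    have e1 : |(x.1 : ℝ) - y.1| ≤ Q := by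
      have : |x.1 - y.1| ≤ (Q : ℤ) := by rw [abs_le]; constructor <;> omega
      exact_mod_cast this
    have e2 : |(x.2 : ℝ) - y.2| ≤ Q := by
      have : |x.2 - y.2| ≤ (Q : ℤ) := by rw [abs_le]; constructor <;> omega
      exact_mod_cast this
    rw [abs_mul, abs_mul, abs_of_pos hrho, ← rho0_Q hN hQ]
    exact ⟨mul_le_mul_of_nonneg_right e1 hrho.le, mul_le_mul_of_nonneg_right e2 hrho.le⟩
  have h1 := slope_count h (W := 1 / (N : ℝ) / 8) hrho (by positivity) C a k S hS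
    (fun x hx y hy => (hd x hx y hy).1) (fun x hx y hy => (hd x hx y hy).2)
  refine h1.trans ?_
  have f1 := W_bound hN hQ
  have f3 := min_bound (K := 20) hN hQ (by norm_num) hs1
  have hs0 : 0 < m.s1 := h.ok.hs1
  have h00 : 0 ≤ min (20 * m.s1) (1 / (N : ℝ) / 8) / rho0 N Q + 1 := by
    have : 0 ≤ min (20 * m.s1) (1 / (N : ℝ) / 8) := le_min (by linarith) (by positivity)
    positivity
  calc (1 / (N : ℝ) / 8 / rho0 N Q + 1) *
        (min (20 * m.s1) (1 / (N : ℝ) / 8) / rho0 N Q + 1)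
      ≤ (2 * Q) * ((20 + 1) * (min m.s1 (1 / N) / rho0 N Q)) := by gcongr
    _ = 42 * Q * min m.s1 (1 / N) / rho0 N Q := by ring

end

/-- slopes per position, small aperture. -/
theorem slope_B {rho : ℝ} (hrho : 0 < rho) {M : ℝ} {m : Mem} (h : Sm M m)
    (hs1 : rho ≤ m.s1) (C a : E2) (k : ℝ) (S : Finset (ℤ × ℤ))
    (hS : ∀ c ∈ S, (C + pv rho c, a, k) ∈ m.rays 0) :
    (S.card : ℝ) ≤ 63 * (m.s1 * m.sg) / rho ^ 2 := by
  have hsg := h.ok.sg_pos
  have hs10 := h.ok.hs1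
  have hle := h.ok.hsg
  have hpos : ∀ x ∈ S, ∀ y ∈ S, ∀ i : Fin 2, |(pv rho x - pv rho y) i| ≤ 2 * m.sg := by
    intro x hx y hy i
    refine (abs_coord_le _ i).trans ?_
    obtain ⟨x1, -⟩ := h.ray (hS x hx)
    obtain ⟨y1, -⟩ := h.ray (hS y hy)
    have e : pv rho x - pv rho y = (C + pv rho x - m.c) - (C + pv rho y - m.c) := by abel
    rw [e]
    exact (norm_sub_le _ _).trans (by linarith)
  have h1 := slope_count h (W := 2 * m.sg) hrho (by positivity) C a k S hS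
    (fun x hx y hy => by
      have := hpos x hx y hy 0
      rw [pv_sub] at this
      exact this)
    (fun x hx y hy => by
      have := hpos x hx y hy 1
      rw [pv_sub] at this
      exact this)
  refine h1.trans ?_
  have hrs : rho ≤ m.sg := hs1.trans hle
  have f1 : 2 * m.sg / rho + 1 ≤ 3 * (m.sg / rho) := by
    have g1 : 1 ≤ m.sg / rho := by rw [le_div_iff₀ hrho, one_mul]; exact hrs
    have g2 : 2 * m.sg / rho = 2 * (m.sg / rho) := by ring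
    linarith
  have f3 : min (20 * m.s1) (2 * m.sg) / rho + 1 ≤ 21 * (m.s1 / rho) := by
    have g1 : min (20 * m.s1) (2 * m.sg) / rho ≤ 20 * (m.s1 / rho) := by
      rw [← mul_div_assoc]
      exact div_le_div_of_nonneg_right (min_le_left _ _) hrho.le
    have g2 : 1 ≤ m.s1 / rho := by rw [le_div_iff₀ hrho, one_mul]; exact hs1
    linarith
  have h00 : 0 ≤ min (20 * m.s1) (2 * m.sg) / rho + 1 := by
    have : 0 ≤ min (20 * m.s1) (2 * m.sg) := le_min (by linarith) (by positivity)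
    positivity
  calc (2 * m.sg / rho + 1) * (min (20 * m.s1) (2 * m.sg) / rho + 1)
      ≤ (3 * (m.sg / rho)) * (21 * (m.s1 / rho)) := by gcongr
    _ = 63 * (m.s1 * m.sg) / rho ^ 2 := by field_simp; norm_num

/-- positions per parent, small aperture. -/
theorem pos_B {rho : ℝ} (hrho : 0 < rho) {M : ℝ} {m : Mem} (h : Sm M m)
    (hs1 : rho ≤ m.s1) (a : E2) (k : ℝ) (S : Finset ((ℤ × ℤ) × ℤ))
    (hS : ∀ x ∈ S, ∃ C' : E2, (C', a + pv rho x.1, k + (x.2 : ℝ) * rho ^ 2) ∈ m.rays 0) :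
    (S.card : ℝ) ≤ 666 * (m.s1 * m.sg ^ 3) / rho ^ 4 := by
  have hsg := h.ok.sg_pos
  have hs10 := h.ok.hs1
  have hle := h.ok.hsg
  rcases S.eq_empty_or_nonempty with rfl | ⟨x0, hx0⟩
  · simp only [card_empty, Nat.cast_zero]
    positivity
  obtain ⟨C, hC⟩ := hS x0 hx0
  obtain ⟨c1, -⟩ := h.ray hC
  have hpos : ∀ x ∈ S, ∀ y ∈ S, ‖pv rho x.1 - pv rho y.1‖ ≤ 2 * m.sg := by
    intro x hx y hy
    obtain ⟨Cx, hCx⟩ := hS x hx
    obtain ⟨Cy, hCy⟩ := hS y hy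
    obtain ⟨-, x2, -, -, -⟩ := h.ray hCx
    obtain ⟨-, y2, -, -, -⟩ := h.ray hCy
    have e : pv rho x.1 - pv rho y.1 = (a + pv rho x.1 - lat m.X0) - (a + pv rho y.1 - lat m.X0) := by
      abel
    rw [e]
    exact (norm_sub_le _ _).trans (by linarith)
  have hco : ∀ x ∈ S, ∀ y ∈ S, ∀ i : Fin 2, |(pv rho x.1 - pv rho y.1) i| ≤ 2 * m.sg :=
    fun x hx y hy i => (abs_coord_le _ i).trans (hpos x hx y hy)
  have h1 := pos_count h (W := 2 * m.sg) (lam := 4 * m.sg ^ 2) hrho (by positivity) (by positivity)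
    hs1 C a k S hS
    (fun x hx => ⟨x0, hx0, C, by rw [sub_self, norm_zero]; positivity, hC⟩)
    (fun x hx y hy => by
      have := hco x hx y hy 0
      rw [pv_sub] at this
      exact this)
    (fun x hx y hy => by
      have := hco x hx y hy 1
      rw [pv_sub] at this
      exact this)
    (fun x hx y hy => by
      obtain ⟨Cx, hCx⟩ := hS x hx
      obtain ⟨Cy, hCy⟩ := hS y hy
      obtain ⟨x1, x2, x3, x4, x5⟩ := h.ray hCx
      obtain ⟨y1, y2, y3, y4, y5⟩ := h.ray hCy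
      have x3' : |nrm m.c (a + pv rho x.1) (k + (x.2 : ℝ) * rho ^ 2) 0 -
        nrm m.c (lat m.X0) (m.X0 2) 0| ≤ m.sg ^ 2 := x3
      have y3' : |nrm m.c (a + pv rho y.1) (k + (y.2 : ℝ) * rho ^ 2) 0 -
        nrm m.c (lat m.X0) (m.X0 2) 0| ≤ m.sg ^ 2 := y3
      have e : nus rho (C, a, k) x - nus rho (C, a, k) y =
          (nrm m.c (a + pv rho x.1) (k + (x.2 : ℝ) * rho ^ 2) 0 -
            nrm m.c (lat m.X0) (m.X0 2) 0) -
          (nrm m.c (a + pv rho y.1) (k + (y.2 : ℝ) * rho ^ 2) 0 -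
            nrm m.c (lat m.X0) (m.X0 2) 0) +
          inner ℝ (C - m.c) (pv rho x.1 - pv rho y.1) := by
        unfold nus nrm
        simp only [inner_add_right, inner_sub_right, inner_sub_left]
        ring
      rw [e]
      have e1 : |inner ℝ (C - m.c) (pv rho x.1 - pv rho y.1)| ≤ m.sg * (2 * m.sg) :=
        (abs_real_inner_le_norm _ _).trans
          (mul_le_mul c1 (hpos x hx y hy) (norm_nonneg _) hsg.le)
      rw [abs_le] at x3' y3' e1 ⊢
      constructor <;> nlinarith [x3'.1, x3'.2, y3'.1, y3'.2, e1.1, e1.2])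
  refine h1.trans ?_
  have hrs : rho ≤ m.sg := hs1.trans hle
  have f1 : 2 * m.sg / rho + 1 ≤ 3 * (m.sg / rho) := by
    have g1 : 1 ≤ m.sg / rho := by rw [le_div_iff₀ hrho, one_mul]; exact hrs
    have g2 : 2 * m.sg / rho = 2 * (m.sg / rho) := by ring
    linarith
  have f2 : 4 * m.sg ^ 2 / rho ^ 2 + 2 ≤ 6 * (m.sg / rho) ^ 2 := by
    have g1 : 1 ≤ m.sg / rho := by rw [le_div_iff₀ hrho, one_mul]; exact hrs
    have g2 : 4 * m.sg ^ 2 / rho ^ 2 = 4 * (m.sg / rho) ^ 2 := by rw [div_pow]; ring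
    rw [g2]
    nlinarith
  have f3 : min (36 * m.s1) (2 * m.sg) / rho + 1 ≤ 37 * (m.s1 / rho) := by
    have g1 : min (36 * m.s1) (2 * m.sg) / rho ≤ 36 * (m.s1 / rho) := by
      rw [← mul_div_assoc]
      exact div_le_div_of_nonneg_right (min_le_left _ _) hrho.le
    have g2 : 1 ≤ m.s1 / rho := by rw [le_div_iff₀ hrho, one_mul]; exact hs1
    linarith
  have h00 : 0 ≤ min (36 * m.s1) (2 * m.sg) / rho + 1 := by
    have : 0 ≤ min (36 * m.s1) (2 * m.sg) := le_min (by linarith) (by positivity)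
    positivity
  calc (2 * m.sg / rho + 1) * (4 * m.sg ^ 2 / rho ^ 2 + 2) *
        (min (36 * m.s1) (2 * m.sg) / rho + 1)
      ≤ (3 * (m.sg / rho)) * (6 * (m.sg / rho) ^ 2) * (37 * (m.s1 / rho)) := by gcongr
    _ = 666 * (m.s1 * m.sg ^ 3) / rho ^ 4 := by field_simp; norm_num

/-- the constant. -/
noncomputable def KC5 : ℝ := 10 ^ 16

theorem KC5_pos : 0 < KC5 := by unfold KC5; positivity

open Classical in
/-- **COUNT5** -/
theorem count5 : Count5 KC5 := by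
  intro N Q s Δ m hN hQ hBd hΔ hD h hs1 hsg
  have hN0 : (0 : ℝ) < N := by exact_mod_cast hN
  have hN1 : (1 : ℝ) ≤ N := by exact_mod_cast hN
  have hQ1 : (1 : ℝ) ≤ Q := by exact_mod_cast hQ
  have hQ0 : (0 : ℝ) < Q := by linarith
  have hrho := rho0_pos hN hQ
  have hsg0 := h.ok.sg_pos
  have hs10 := h.ok.hs1
  have hle := h.ok.hsg
  have hr : (0:ℝ) < 1 / N := by positivity
  have hr1 : 1 / (N : ℝ) ≤ 1 := by rw [div_le_one hN0]; exact hN1
  set rho := rho0 N Q with hrd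
  set T := (s ×ˢ idx5 N Q).filter fun x => chd5 rho (gray N x.1) x.2 ∈ m.rays 0 with hT
  have hmemT : ∀ t ∈ T, t.1 ∈ s ∧ t.2 ∈ idx5 N Q ∧ t.2.2 ∈ idx N Q ∧
      (-(gC N t.1) + pv rho t.2.1, gX N t.1 + pv rho t.2.2.1,
        gH N t.1 + (t.2.2.2 : ℝ) * rho ^ 2) ∈ m.rays 0 := by
    intro t ht
    rw [hT, mem_filter, mem_product] at ht
    exact ⟨ht.1.1, ht.1.2, (mem_idx5 ht.1.2).2.2, ht.2⟩
  -- first projection: forget the slope shift
  set f : GRay × ((ℤ × ℤ) × ((ℤ × ℤ) × ℤ)) → GRay × ((ℤ × ℤ) × ℤ) := fun t => (t.1, t.2.2) with hf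
  set P := T.image f with hP
  have hsl : ∀ B : ℝ, (∀ (l : GRay) (x : (ℤ × ℤ) × ℤ) (S : Finset (ℤ × ℤ)),
      S ⊆ Ico (0 : ℤ) Q ×ˢ Ico (0 : ℤ) Q →
      (∀ c ∈ S, (-(gC N l) + pv rho c, gX N l + pv rho x.1, gH N l + (x.2 : ℝ) * rho ^ 2) ∈
        m.rays 0) → (S.card : ℝ) ≤ B) → (T.card : ℝ) ≤ P.card * B := by
    intro B hB
    refine card_le_fib T f fun b hb => ?_
    have hinj : ((T.filter fun t => f t = b).image fun t => t.2.1).card =
        (T.filter fun t => f t = b).card := by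
      apply card_image_of_injOn
      intro t ht t' ht' htt
      rw [mem_coe, mem_filter] at ht ht'
      have e := ht.2.trans ht'.2.symm
      rw [hf, Prod.mk.injEq] at e
      exact Prod.ext e.1 (Prod.ext htt e.2)
    rw [← hinj]
    refine hB b.1 b.2 _ ?_ ?_
    · intro c hc
      rw [mem_image] at hc
      obtain ⟨t, ht, rfl⟩ := hc
      obtain ⟨-, h2, -, -⟩ := hmemT t (mem_filter.1 ht).1
      obtain ⟨h3, h4, -⟩ := mem_idx5 h2
      rw [mem_product, mem_Ico, mem_Ico]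
      exact ⟨h3, h4⟩
    · intro c hc
      rw [mem_image] at hc
      obtain ⟨t, ht, rfl⟩ := hc
      obtain ⟨-, -, -, h4⟩ := hmemT t (mem_filter.1 ht).1
      have e : f t = b := (mem_filter.1 ht).2
      rw [← e]
      exact h4
  -- second projection: parents
  have hps : ∀ B : ℝ, (∀ l ∈ s, ∀ S : Finset ((ℤ × ℤ) × ℤ), S ⊆ idx N Q →
      (∀ x ∈ S, ∃ c : ℤ × ℤ, |pv rho c 0| ≤ 1 / (N : ℝ) / 8 ∧ |pv rho c 1| ≤ 1 / (N : ℝ) / 8 ∧
        (-(gC N l) + pv rho c, gX N l + pv rho x.1, gH N l + (x.2 : ℝ) * rho ^ 2) ∈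
        m.rays 0) → (S.card : ℝ) ≤ B) → (P.card : ℝ) ≤ (P.image Prod.fst).card * B := by
    intro B hB
    refine card_le_fib P Prod.fst fun b hb => ?_
    have hinj : ((P.filter fun t => t.1 = b).image fun t => t.2).card =
        (P.filter fun t => t.1 = b).card := by
      apply card_image_of_injOn
      intro t ht t' ht' htt
      rw [mem_coe, mem_filter] at ht ht'
      exact Prod.ext (ht.2.trans ht'.2.symm) htt
    rw [← hinj]
    have hbs : b ∈ s := by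
      obtain ⟨y, hy, rfl⟩ := mem_image.1 hb
      rw [hP, mem_image] at hy
      obtain ⟨t, ht, rfl⟩ := hy
      exact (hmemT t ht).1
    refine hB b hbs _ ?_ ?_
    · intro x hx
      rw [mem_image] at hx
      obtain ⟨y, hy, rfl⟩ := hx
      have hy1 := (mem_filter.1 hy).1
      rw [hP, mem_image] at hy1
      obtain ⟨t, ht, rfl⟩ := hy1
      exact (hmemT t ht).2.2.1
    · intro x hx
      rw [mem_image] at hx
      obtain ⟨y, hy, rfl⟩ := hx
      obtain ⟨hy1, hy2⟩ := mem_filter.1 hy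
      rw [hP, mem_image] at hy1
      obtain ⟨t, ht, rfl⟩ := hy1
      obtain ⟨-, h2, -, h4⟩ := hmemT t ht
      have k0 := idx5_abs hN hQ h2 0
      have k1 := idx5_abs hN hQ h2 1
      refine ⟨t.2.1, ?_, ?_, ?_⟩
      · rw [abs_of_nonneg k0.1]; exact k0.2
      · rw [abs_of_nonneg k1.1]; exact k1.2
      · have e : t.1 = b := hy2
        rw [← e]
        exact h4
  have hPpar : ∀ l ∈ P.image Prod.fst, ∃ t ∈ T, t.1 = l := by
    intro l hl
    obtain ⟨y, hy, rfl⟩ := mem_image.1 hl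
    rw [hP, mem_image] at hy
    obtain ⟨t, ht, rfl⟩ := hy
    exact ⟨t, ht, rfl⟩
  have hC2 : ∀ l ∈ s, ‖-(gC N l)‖ ≤ 3 / 2 := by
    intro l hl
    rw [norm_neg]
    exact norm_gC' hN (hBd l hl)
  have hmin0 : 0 ≤ min m.s1 (1 / (N : ℝ)) := le_min hs10.le hr.le
  have hNs1 : N * min m.s1 (1 / (N : ℝ)) = min 1 (N * m.s1) := by
    rw [mul_min_of_nonneg _ _ hN0.le, mul_one_div_cancel hN0.ne', min_comm]
  rcases le_total (1 / (N : ℝ)) m.sg with hcase | hcase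
  · -- `r ≤ sg`
    have hNsg : min 1 ((N : ℝ) * m.sg) = 1 := by
      apply min_eq_left
      rw [div_le_iff₀ hN0] at hcase
      linarith
    rw [hNsg, mul_one, ← hNs1]
    obtain ⟨F, l, hF, hray, hdiff⟩ := parents_big5 (M := 16) (by norm_num) h hr hr1 hcase
      (by linarith)
    have hl : 4 * rho ^ 2 ≤ l := by
      have h1 := hF.rl
      have h2 : rho ≤ 1 / N / 8 := by
        have : rho ≤ Q * rho := le_mul_of_one_le_left hrho.le hQ1
        rwa [rho0_Q hN hQ] at this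
      have h3 : rho ^ 2 ≤ (1 / N / 8) ^ 2 := pow_le_pow_left₀ hrho.le h2 2
      have h4 : (1 / (N : ℝ) / 8) ^ 2 = (1 / N) ^ 2 / 64 := by ring
      rw [h4] at h3
      linarith
    have hl0 := hF.l0
    have hT1 := hsl (42 * Q * min m.s1 (1 / N) / rho) (fun l' x S hSi hS =>
      slope_A hN hQ h hs1 (-(gC N l')) (gX N l' + pv rho x.1) (gH N l' + (x.2 : ℝ) * rho ^ 2)
        S hSi hS)
    have hB := hps (148 * Q * l * min m.s1 (1 / N) / rho ^ 3) (fun l' hl' S hSi hS => by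
      refine pos_A hN hQ h hs1 hcase (-(gC N l')) (gX N l') (gH N l') hl S hSi
        (fun x hx => ?_) (fun x hx y hy => ?_)
      · obtain ⟨c, c0, c1, hc⟩ := hS x hx
        exact ⟨_, c0, c1, hc⟩
      · obtain ⟨c, c0, c1, hc⟩ := hS x hx
        obtain ⟨c', c0', c1', hc'⟩ := hS y hy
        obtain ⟨a1, a2, a3⟩ := idx_abs1 hN hQ (hSi hx)
        obtain ⟨b1, b2, b3⟩ := idx_abs1 hN hQ (hSi hy)
        exact hdiff _ _ _ _ _ _ _ _ _ (hC2 l' hl') c0 c1 c0' c1' a1 a2 a3 b1 b2 b3 hc hc')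
    have hPc : ((P.image Prod.fst).card : ℝ) ≤
        ∑ j ∈ Icc (-3 : ℤ) 3, Δ * ((F j).scost (1 / N) * (N : ℝ) ^ 3) := by
      have h1 : P.image Prod.fst ⊆ (Icc (-3 : ℤ) 3).biUnion fun j =>
          s.filter fun l => gray N l ∈ (F j).rays (1 / N) := by
        intro l' hl'
        obtain ⟨t, ht, rfl⟩ := hPpar l' hl'
        obtain ⟨hx1, hx5, hx2, hx3⟩ := hmemT t ht
        obtain ⟨a1, a2, a3⟩ := idx_abs1 hN hQ hx2
        have k0 := idx5_abs hN hQ hx5 0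
        have k1 := idx5_abs hN hQ hx5 1
        have k0' : |pv rho t.2.1 0| ≤ 1 / (N : ℝ) / 8 := by rw [abs_of_nonneg k0.1]; exact k0.2
        have k1' : |pv rho t.2.1 1| ≤ 1 / (N : ℝ) / 8 := by rw [abs_of_nonneg k1.1]; exact k1.2
        obtain ⟨j, hj, hj2⟩ := hray _ _ _ _ _ _ (hC2 t.1 hx1) k0' k1' a1 a2 a3 hx3
        rw [mem_biUnion]
        refine ⟨j, ?_, mem_filter.2 ⟨hx1, hj2⟩⟩
        rw [mem_Icc]
        exact abs_le.1 hj
      have h2 := (card_le_card h1).trans card_biUnion_le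
      have h3 : ((P.image Prod.fst).card : ℝ) ≤ ∑ j ∈ Icc (-3 : ℤ) 3,
          ((s.filter fun l => gray N l ∈ (F j).rays (1 / N)).card : ℝ) := by
        exact_mod_cast h2
      refine h3.trans (sum_le_sum fun j hj => ?_)
      have hj' : |j| ≤ 3 := by rw [abs_le]; exact mem_Icc.1 hj
      refine hD (F j) ⟨?_, ?_, hF.R1 j hj', hF.s0 j hj', hF.thin j hj', hF.sg1 j hj'⟩
      · have := hF.ok j hj'
        norm_num at this ⊢
        exact this
      · have := hF.cpt j hj'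
        norm_num at this ⊢
        exact this
    have hcs := bigm_scost (r := 1 / (N : ℝ)) h
    have hterm : ∀ j ∈ Icc (-3 : ℤ) 3, (Δ * ((F j).scost (1 / N) * (N : ℝ) ^ 3)) *
        (148 * Q * l * min m.s1 (1 / N) / rho ^ 3) ≤
        148 * 4096 * 512 * (Δ * ((N : ℝ) ^ 4 * (Q : ℝ) ^ 4 * (m.s1 * m.sg ^ 3))) := by
      intro j hj
      have hj' : |j| ≤ 3 := by rw [abs_le]; exact mem_Icc.1 hj
      have hc := hF.cost j hj'
      rw [hcs] at hc
      have hmm : min m.s1 (1 / (N : ℝ)) * max m.s1 (1 / N) = m.s1 * (1 / N) := min_mul_max _ _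
      have e1 : (Δ * ((F j).scost (1 / N) * (N : ℝ) ^ 3)) *
          (148 * Q * l * min m.s1 (1 / N) / rho ^ 3) =
          (148 * Δ * (N : ℝ) ^ 3 * Q * min m.s1 (1 / N) / rho ^ 3) * (l * (F j).scost (1 / N)) := by
        ring
      rw [e1]
      have h5 : (148 * Δ * (N : ℝ) ^ 3 * Q * min m.s1 (1 / N) / rho ^ 3) *
          (l * (F j).scost (1 / N)) ≤ (148 * Δ * (N : ℝ) ^ 3 * Q * min m.s1 (1 / N) / rho ^ 3) *
          (16 * 16 * (1 / N * (16 * max m.s1 (1 / N) * m.sg ^ 3))) :=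
        mul_le_mul_of_nonneg_left hc (by positivity)
      refine h5.trans (le_of_eq ?_)
      have e2 : (148 * Δ * (N : ℝ) ^ 3 * Q * min m.s1 (1 / N) / rho ^ 3) *
          (16 * 16 * (1 / N * (16 * max m.s1 (1 / N) * m.sg ^ 3))) =
          148 * 4096 * Δ * (N : ℝ) ^ 3 * Q / rho ^ 3 * (1 / N) *
          (min m.s1 (1 / N) * max m.s1 (1 / N)) * m.sg ^ 3 := by ring
      rw [e2, hmm, hrd]
      unfold rho0
      field_simp
      norm_num
    have hBp0 : 0 ≤ 148 * Q * l * min m.s1 (1 / N) / rho ^ 3 := by positivity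
    have hPcard : (P.card : ℝ) ≤
        7 * (148 * 4096 * 512) * (Δ * ((N : ℝ) ^ 4 * (Q : ℝ) ^ 4 * (m.s1 * m.sg ^ 3))) := by
      calc (P.card : ℝ) ≤ (P.image Prod.fst).card * (148 * Q * l * min m.s1 (1 / N) / rho ^ 3) := hB
        _ ≤ (∑ j ∈ Icc (-3 : ℤ) 3, Δ * ((F j).scost (1 / N) * (N : ℝ) ^ 3)) *
            (148 * Q * l * min m.s1 (1 / N) / rho ^ 3) := mul_le_mul_of_nonneg_right hPc hBp0
        _ = ∑ j ∈ Icc (-3 : ℤ) 3, (Δ * ((F j).scost (1 / N) * (N : ℝ) ^ 3)) *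
            (148 * Q * l * min m.s1 (1 / N) / rho ^ 3) := by rw [sum_mul]
        _ ≤ ∑ j ∈ Icc (-3 : ℤ) 3,
            148 * 4096 * 512 * (Δ * ((N : ℝ) ^ 4 * (Q : ℝ) ^ 4 * (m.s1 * m.sg ^ 3))) :=
            sum_le_sum hterm
        _ = 7 * (148 * 4096 * 512) * (Δ * ((N : ℝ) ^ 4 * (Q : ℝ) ^ 4 * (m.s1 * m.sg ^ 3))) := by
            have h7 : (Icc (-3 : ℤ) 3).card = 7 := rfl
            rw [sum_const, h7, nsmul_eq_mul]; ring
    have hsl0 : 0 ≤ 42 * Q * min m.s1 (1 / N) / rho := by positivity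
    have e42 : 42 * Q * min m.s1 (1 / (N : ℝ)) / rho =
        336 * (Q : ℝ) ^ 2 * (N * min m.s1 (1 / N)) := by
      rw [hrd]; unfold rho0; field_simp; norm_num
    set Y : ℝ := Δ * ((N : ℝ) ^ 4 * (Q : ℝ) ^ 4 * (m.s1 * m.sg ^ 3)) *
      ((Q : ℝ) ^ 2 * (N * min m.s1 (1 / N))) with hY
    have hY0 : 0 ≤ Y := by rw [hY]; positivity
    calc (T.card : ℝ) ≤ P.card * (42 * Q * min m.s1 (1 / N) / rho) := hT1
      _ ≤ (7 * (148 * 4096 * 512) * (Δ * ((N : ℝ) ^ 4 * (Q : ℝ) ^ 4 * (m.s1 * m.sg ^ 3)))) *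
          (42 * Q * min m.s1 (1 / N) / rho) := mul_le_mul_of_nonneg_right hPcard hsl0
      _ = 7 * (148 * 4096 * 512) * 336 * Y := by rw [e42, hY]; ring
      _ ≤ KC5 * Y := mul_le_mul_of_nonneg_right (by unfold KC5; norm_num) hY0
      _ = KC5 * Δ * (N : ℝ) ^ 4 * (Q : ℝ) ^ 6 * (m.s1 * m.sg ^ 3) *
          (N * min m.s1 (1 / N)) := by rw [hY]; ring
  · -- `sg ≤ r`
    have hNsg1 : (N : ℝ) * m.sg ≤ 1 := by
      rw [le_div_iff₀ hN0] at hcase
      linarith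
    have hNs11 : (N : ℝ) * m.s1 ≤ 1 := by nlinarith
    rw [min_eq_right hNsg1, min_eq_right hNs11]
    have hT1 := hsl (63 * (m.s1 * m.sg) / rho ^ 2) (fun l' x S hSi hS =>
      slope_B hrho h hs1 (-(gC N l')) (gX N l' + pv rho x.1) (gH N l' + (x.2 : ℝ) * rho ^ 2) S hS)
    have hB := hps (666 * (m.s1 * m.sg ^ 3) / rho ^ 4) (fun l' hl' S hSi hS =>
      pos_B hrho h hs1 (gX N l') (gH N l') S (fun x hx => by
        obtain ⟨c, -, -, hc⟩ := hS x hx
        exact ⟨_, hc⟩))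
    have hPc : ((P.image Prod.fst).card : ℝ) ≤ 100000 := by
      refine le_trans (Nat.cast_le.2 (card_le_card ?_))
        (parents_small5 hN hBd h.R1 h.s0 hsg0 hcase)
      intro l' hl'
      obtain ⟨t, ht, rfl⟩ := hPpar l' hl'
      obtain ⟨hx1, hx5, hx2, hx3⟩ := hmemT t ht
      obtain ⟨a1, a2, a3⟩ := idx_abs1 hN hQ hx2
      have k0 := idx5_abs hN hQ hx5 0
      have k1 := idx5_abs hN hQ hx5 1
      have k0' : |pv rho t.2.1 0| ≤ 1 / (N : ℝ) / 8 := by rw [abs_of_nonneg k0.1]; exact k0.2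
      have k1' : |pv rho t.2.1 1| ≤ 1 / (N : ℝ) / 8 := by rw [abs_of_nonneg k1.1]; exact k1.2
      have e8 : 1 / (N : ℝ) / 8 = 1 / (8 * N) := by field_simp
      rw [e8] at a1 a2 a3 k0' k1'
      exact mem_filter.2 ⟨hx1, pv rho t.2.1, pv rho t.2.2.1, (t.2.2.2 : ℝ) * rho ^ 2,
        k0', k1', a1, a2, a3, hx3⟩
    have hp0 : 0 ≤ 666 * (m.s1 * m.sg ^ 3) / rho ^ 4 := by positivity
    have hs0 : 0 ≤ 63 * (m.s1 * m.sg) / rho ^ 2 := by positivity
    set Y : ℝ := (N : ℝ) ^ 4 * (Q : ℝ) ^ 6 * (m.s1 * m.sg ^ 3) *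
      ((N * m.s1) * (N * m.sg)) with hY
    have hY0 : 0 ≤ Y := by rw [hY]; positivity
    calc (T.card : ℝ) ≤ P.card * (63 * (m.s1 * m.sg) / rho ^ 2) := hT1
      _ ≤ (100000 * (666 * (m.s1 * m.sg ^ 3) / rho ^ 4)) * (63 * (m.s1 * m.sg) / rho ^ 2) := by
          refine mul_le_mul_of_nonneg_right (hB.trans ?_) hs0
          exact mul_le_mul_of_nonneg_right hPc hp0
      _ = 100000 * 666 * 63 * 262144 * Y := by
          rw [hY, hrd]; unfold rho0; field_simp; norm_num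
      _ ≤ KC5 * Y := mul_le_mul_of_nonneg_right (by unfold KC5; norm_num) hY0
      _ ≤ KC5 * (Δ * Y) := mul_le_mul_of_nonneg_left (le_mul_of_one_le_left hY0 hΔ) KC5_pos.le
      _ = KC5 * Δ * (N : ℝ) ^ 4 * (Q : ℝ) ^ 6 * (m.s1 * m.sg ^ 3) *
          ((N * m.s1) * (N * m.sg)) := by rw [hY]; ring

end Crest.Agent.R116.Rs79
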