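import Crest.Agent.R116.Rm6_618
import Crest.Agent.R116.Rs3_79

/-!
# R116, K2 (ENEMY with room), part 7 (helper618): `enemy2`
-/

set_option autoImplicit false

namespace Crest.Agent.R116.Ene618

open Crest.Agent.R116.Ks79

/-- **K2 (ENEMY with room).** -/
theorem enemy2 (h : ¬ LKMseq 68) :
    ∃ b0 : ℝ, 0 < b0 ∧ ∀ K0 : ℕ, Yb2635.EnemyAt2 (Rm635.TSK K0) b0 :=
  enemy2_of Rs79.KC5_pos Rs79.count5 h

end Crest.Agent.R116.Ene618
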