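import Crest.Agent.R116.KTopB_387
import Crest.Agent.R116.Rm7_618

/-!
# R116, K side: `LKM` from the three rows (helper387)

`RowU`, `RowI`, `RowTie` ⊢ `LKM` (the enemy is `Ene618.enemy2`). Each row may choose its own `η`.
-/

set_option autoImplicit false

namespace Crest.Agent.R116.KTop387

/-- **the K side.** -/
theorem lkm_of_rows {η : ℝ} (hη : 0 < η) (hη4 : η ≤ 1 / 4)
    (hU : RowU η) (hI : RowI η) (hT : RowTie η) : LKMDef299.LKM :=
  lkm_of hη hη4 (fun h => Ene618.enemy2 h) (ktopB hU hI hT)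

theorem NumL.mono {η η' g s : ℝ} {θ q : Fin 2 → ℝ} (h : NumL η' g s θ q) (hη : η' ≤ η) :
    NumL η g s θ q :=
  ⟨h.gpos, h.s0, h.s1, h.qa, h.qb, h.qbg.trans (mul_le_mul_of_nonneg_right hη h.gpos.le),
    h.qba.trans (mul_le_mul_of_nonneg_right hη h.qa.le), h.θa, h.grow⟩

theorem RowU.mono {η η' : ℝ} (h : RowU η) (hη : η' ≤ η) : RowU η' :=
  fun g s θ q hN => h g s θ q (hN.mono hη)

theorem RowI.mono {η η' : ℝ} (h : RowI η) (hη : η' ≤ η) : RowI η' :=
  fun g s θ q hN => h g s θ q (hN.mono hη)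

theorem RowTie.mono {η η' : ℝ} (h : RowTie η) (hη : η' ≤ η) : RowTie η' :=
  fun g s θ q hN => h g s θ q (hN.mono hη)

/-- **the K side, each row with its own `η`.** -/
theorem lkm_of_rows' (hU : ∃ η : ℝ, 0 < η ∧ RowU η) (hI : ∃ η : ℝ, 0 < η ∧ RowI η)
    (hT : ∃ η : ℝ, 0 < η ∧ RowTie η) : LKMDef299.LKM := by
  obtain ⟨η1, h1, hU⟩ := hU
  obtain ⟨η2, h2, hI⟩ := hI
  obtain ⟨η3, h3, hT⟩ := hT
  have h0 : 0 < min (min η1 η2) (min η3 (1 / 4)) :=
    lt_min (lt_min h1 h2) (lt_min h3 (by norm_num))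
  exact lkm_of_rows h0 ((min_le_right _ _).trans (min_le_right _ _))
    (hU.mono ((min_le_left _ _).trans (min_le_left _ _)))
    (hI.mono ((min_le_left _ _).trans (min_le_right _ _)))
    (hT.mono ((min_le_right _ _).trans (min_le_left _ _)))

end Crest.Agent.R116.KTop387
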