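import Crest.Agent.R136.Gr2_356

/-!
# R116, K-TEXT II-c, section 1, facts (W2), (W3), part 1: two heights of one fibre (helper420)

Over 356's `RUnif` (relative coordinates with walls).

* `two_heights` : lines `S` (at least `ρ^(-a + C ε)` of them) alive at the heights `k0`, `k1`, pairwise
  `pT`-close at `k1`; if `r`-close at `k1` implies `p'`-close at `k0`, then `a - ν p' ≤ ν pT - ν r`.
* `pick_height` : one height which is good for a `θ`-part of the lines.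
* `two_heights_R` : the same in the form of `kauf_R` / `falc_R`: one pinned fibre, good heights `Zg`.
* `thick_part` : the lines of a fibre with `|c i| ≥ ρ^δ` and one sign of `c i`.
-/

set_option autoImplicit false
set_option linter.unusedVariables false
set_option linter.unusedSectionVars false

open Filter Topology Finset

namespace Crest.Agent.R116.KW420

open Crest.Agent.R138.Ex926 (Base U)
open Crest.Agent.R136.Gf356

variable {κ : Type} {B : Base} {G : ℕ → RCfg κ} {Leg : Set (κ → ℝ)} {ν : (κ → ℝ) → ℝ}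
  {σ R D : ℝ}

/-- **two heights.** -/
theorem two_heights (H : RUnif B G Leg ν D) (k0 k1 : ℝ → ℕ → ℕ) (S : ℝ → ℕ → Finset ℕ)
    (p' pT r : κ → ℝ) (hp' : p' ∈ Leg) (hpT : pT ∈ Leg) (hr : r ∈ Leg)
    (hTr : ∀ j, pT j ≤ r j) {a C : ℝ} (hC : 0 < C)
    (hS0 : ∀ ε : ℝ, 0 < ε → ∀ᶠ n in (U : Filter ℕ), ∀ i ∈ S ε n, (i, k0 ε n) ∈ (G n).I)
    (hS1 : ∀ ε : ℝ, 0 < ε → ∀ᶠ n in (U : Filter ℕ), ∀ i ∈ S ε n, (i, k1 ε n) ∈ (G n).I)
    (hcard : ∀ ε : ℝ, 0 < ε → ∀ᶠ n in (U : Filter ℕ),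
      B.d n ^ (-a + C * ε) ≤ ((S ε n).card : ℝ))
    (hT : ∀ ε : ℝ, 0 < ε → ∀ᶠ n in (U : Filter ℕ), ∀ i ∈ S ε n, ∀ i' ∈ S ε n,
      (G n).loose pT (C * ε) (k1 ε n) i i')
    (hgeo : ∀ C2 : ℝ, 0 < C2 → ∃ C3 : ℝ, 0 < C3 ∧ ∀ ε : ℝ, 0 < ε → ∀ᶠ n in (U : Filter ℕ),
      ∀ i ∈ S ε n, ∀ i' ∈ S ε n, (G n).loose r (C2 * ε) (k1 ε n) i i' →
        (G n).loose p' (C3 * ε) (k0 ε n) i i') :
    a - ν p' ≤ ν pT - ν r := by
  classical
  have hD := H.D1
  have hD0 : 0 < D := by linarith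
  obtain ⟨C3, hC3, hg⟩ := hgeo (D ^ 5 * C) (by positivity)
  have key := le_of_ev B (-a) (-(ν pT - ν r) - ν p') ((D ^ 2 + 1) * C + D * C3 + C) 1 (by
    intro ε hε
    have hCε : 0 < C * ε := by positivity
    have hC3ε : 0 < C3 * ε := by positivity
    filter_upwards [hS0 ε hε, hS1 ε hε, hcard ε hε, hT ε hε, hg ε hε,
      H.exists_lab_loose pT r hpT hr hTr hCε, H.up p' hp' (C3 * ε) hC3ε]
      with n h0 h1 hc hTn hgn hcells hup
    have hpow : ∀ t : ℝ, 0 < B.d n ^ t := fun t => rpos B n t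
    have hSsl : S ε n ⊆ (G n).slice (k1 ε n) := fun i hi => H.memSlice.2 (h1 i hi)
    obtain ⟨lab, hlab1, hlab2⟩ := hcells (k1 ε n) (S ε n) hSsl hTn
    have hSpos : (0 : ℝ) < ((S ε n).card : ℝ) := (hpow _).trans_le hc
    have hSne : (S ε n).Nonempty := by rw [← Finset.card_pos]; exact_mod_cast hSpos
    obtain ⟨i2, hi2, hfib⟩ := exists_fibre (S ε n) lab hSne hlab2
    have hfc : (((S ε n).filter fun i => lab i = lab i2).card : ℝ) ≤
        B.d n ^ (-ν p' - D * (C3 * ε)) := by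
      refine le_trans ?_ (hup i2 (k0 ε n) (h0 i2 hi2))
      refine mod_cast Finset.card_le_card ?_
      intro i hi
      obtain ⟨b1, b2⟩ := Finset.mem_filter.1 hi
      refine RCfg.mem_box.2 ⟨H.memSlice.2 (h0 i b1), ?_⟩
      refine hgn i2 hi2 i b1 ?_
      have := hlab1 i2 hi2 i b1 b2.symm
      have e1 : D ^ 5 * (C * ε) = D ^ 5 * C * ε := by ring
      rwa [e1] at this
    calc B.d n ^ (-a + ((D ^ 2 + 1) * C + D * C3 + C) * ε)
        ≤ B.d n ^ (-a + C * ε) := rpow_anti B n (by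
          have : 0 ≤ ((D ^ 2 + 1) * C + D * C3) * ε := by positivity
          nlinarith)
      _ ≤ ((S ε n).card : ℝ) := hc
      _ ≤ _ := hfib
      _ ≤ B.d n ^ (-(ν pT - ν r) - (D ^ 2 + 1) * (C * ε)) * B.d n ^ (-ν p' - D * (C3 * ε)) :=
          mul_le_mul_of_nonneg_left hfc (hpow _).le
      _ = B.d n ^ (-(ν pT - ν r) - ν p' - ((D ^ 2 + 1) * C + D * C3) * ε) := by
          rw [← rpow_add']; congr 1; ring
      _ ≤ B.d n ^ (-(ν pT - ν r) - ν p' - ((D ^ 2 + 1) * C + D * C3 + C) * ε) :=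
          rpow_anti B n (by nlinarith)
      _ = _ := by rw [one_mul])
  linarith

/-- **one height which is good for many lines.** -/
theorem pick_height {ι : Type*} [DecidableEq ι] (S : Finset ι) (Z : Finset ℕ) (gd : ι → ℕ → Prop)
    [∀ i, DecidablePred (gd i)] {θ : ℝ} (hZ : Z.Nonempty)
    (h : ∀ i ∈ S, θ * (Z.card : ℝ) ≤ ((Z.filter fun k => gd i k).card : ℝ)) :
    ∃ k ∈ Z, θ * (S.card : ℝ) ≤ ((S.filter fun i => gd i k).card : ℝ) := by
  classical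
  by_contra hcon
  push Not at hcon
  have hZ0 : (0 : ℝ) < Z.card := by exact_mod_cast hZ.card_pos
  have h1 : ∑ i ∈ S, ((Z.filter fun k => gd i k).card : ℝ) =
      ∑ k ∈ Z, ((S.filter fun i => gd i k).card : ℝ) := by
    have : ∑ i ∈ S, (Z.filter fun k => gd i k).card = ∑ k ∈ Z, (S.filter fun i => gd i k).card := by
      simp only [Finset.card_filter]
      exact Finset.sum_comm
    exact_mod_cast this
  have h2 : (S.card : ℝ) * (θ * (Z.card : ℝ)) ≤ ∑ i ∈ S, ((Z.filter fun k => gd i k).card : ℝ) := by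
    calc (S.card : ℝ) * (θ * (Z.card : ℝ)) = ∑ i ∈ S, θ * (Z.card : ℝ) := by
          rw [Finset.sum_const, nsmul_eq_mul]
      _ ≤ _ := Finset.sum_le_sum h
  have h3 : ∑ k ∈ Z, ((S.filter fun i => gd i k).card : ℝ) < (Z.card : ℝ) * (θ * (S.card : ℝ)) := by
    calc ∑ k ∈ Z, ((S.filter fun i => gd i k).card : ℝ) < ∑ k ∈ Z, θ * (S.card : ℝ) :=
          Finset.sum_lt_sum_of_nonempty hZ hcon
      _ = _ := by rw [Finset.sum_const, nsmul_eq_mul]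
  rw [h1] at h2
  nlinarith

/-- **two heights of one pinned fibre**, form of `kauf_R` / `falc_R`.  `S0 ε n` = a `ρ^(C1 ε)`-part of
the loose box `box pS ε` around the pin `(i0 n, k0 n)`, `good ε n i k` = what is known at the second
height `k` (alive is included in `hal`). -/
theorem two_heights_R (H : RUnif B G Leg ν D) (k0 : ℕ → ℕ)
    (S0 : ℝ → ℕ → Finset ℕ) (p' pT r : κ → ℝ) (hp' : p' ∈ Leg) (hpT : pT ∈ Leg) (hr : r ∈ Leg)
    (hTr : ∀ j, pT j ≤ r j) (Zg : ℕ → Finset ℕ)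
    (hZg : ∀ᶠ n in (U : Filter ℕ), (Zg n).Nonempty) {a C1 : ℝ} (hC1 : 0 < C1)
    (hS0 : ∀ ε : ℝ, 0 < ε → ∀ᶠ n in (U : Filter ℕ), ∀ i ∈ S0 ε n, (i, k0 n) ∈ (G n).I)
    (hcard : ∀ ε : ℝ, 0 < ε → ∀ᶠ n in (U : Filter ℕ),
      B.d n ^ (-a + C1 * ε) ≤ ((S0 ε n).card : ℝ))
    (good : ℝ → ℕ → ℕ → ℕ → Prop)
    (hal : ∀ ε : ℝ, 0 < ε → ∀ᶠ n in (U : Filter ℕ), ∀ i ∈ S0 ε n,
      ∀ T ⊆ Zg n, (∀ k ∈ Zg n, (i, k) ∈ (G n).I → good ε n i k → k ∈ T) →
      B.d n ^ (C1 * ε) * ((Zg n).card : ℝ) ≤ (T.card : ℝ))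
    (hT : ∀ ε : ℝ, 0 < ε → ∀ᶠ n in (U : Filter ℕ), ∀ k ∈ Zg n,
      ∀ i ∈ S0 ε n, ∀ i' ∈ S0 ε n, (i, k) ∈ (G n).I → (i', k) ∈ (G n).I →
      (G n).loose pT (C1 * ε) k i i')
    (hgeo : ∀ C2 : ℝ, 0 < C2 → ∃ C3 : ℝ, 0 < C3 ∧ ∀ ε : ℝ, 0 < ε → ∀ᶠ n in (U : Filter ℕ),
      ∀ k ∈ Zg n, ∀ i ∈ S0 ε n, ∀ i' ∈ S0 ε n, (i, k) ∈ (G n).I → (i', k) ∈ (G n).I →
        good ε n i k → good ε n i' k → (G n).loose r (C2 * ε) k i i' →
        (G n).loose p' (C3 * ε) (k0 n) i i') :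
    a - ν p' ≤ ν pT - ν r := by
  classical
  have hex : ∀ ε : ℝ, 0 < ε → ∀ᶠ n in (U : Filter ℕ), ∃ k ∈ Zg n,
      B.d n ^ (C1 * ε) * ((S0 ε n).card : ℝ) ≤
        (((S0 ε n).filter fun i => (i, k) ∈ (G n).I ∧ good ε n i k).card : ℝ) := by
    intro ε hε
    filter_upwards [hZg, hal ε hε] with n hZn haln
    refine pick_height (S0 ε n) (Zg n) (fun i k => (i, k) ∈ (G n).I ∧ good ε n i k) hZn ?_
    intro i hi
    refine haln i hi _ (Finset.filter_subset _ _) ?_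
    intro k hk h1 h2
    exact Finset.mem_filter.2 ⟨hk, h1, h2⟩
  let k1 : ℝ → ℕ → ℕ := fun ε n => if h : ∃ k ∈ Zg n,
      B.d n ^ (C1 * ε) * ((S0 ε n).card : ℝ) ≤
        (((S0 ε n).filter fun i => (i, k) ∈ (G n).I ∧ good ε n i k).card : ℝ) then h.choose else 0
  have hk1 : ∀ ε : ℝ, 0 < ε → ∀ᶠ n in (U : Filter ℕ), k1 ε n ∈ Zg n ∧
      B.d n ^ (C1 * ε) * ((S0 ε n).card : ℝ) ≤
        (((S0 ε n).filter fun i => (i, k1 ε n) ∈ (G n).I ∧ good ε n i (k1 ε n)).card : ℝ) := by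
    intro ε hε
    filter_upwards [hex ε hε] with n hn
    have e : k1 ε n = hn.choose := dif_pos hn
    rw [e]
    exact hn.choose_spec
  set S : ℝ → ℕ → Finset ℕ := fun ε n =>
    (S0 ε n).filter fun i => (i, k1 ε n) ∈ (G n).I ∧ good ε n i (k1 ε n) with hS
  have hmem : ∀ {ε : ℝ} {n i : ℕ}, i ∈ S ε n → i ∈ S0 ε n ∧ (i, k1 ε n) ∈ (G n).I ∧
      good ε n i (k1 ε n) := fun h => by
    obtain ⟨a1, a2, a3⟩ := Finset.mem_filter.1 h
    exact ⟨a1, a2, a3⟩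
  refine two_heights H (fun _ n => k0 n) k1 S p' pT r hp' hpT hr hTr (C := C1 + C1)
    (by positivity) ?_ ?_ ?_ ?_ ?_
  · intro ε hε
    filter_upwards [hS0 ε hε] with n hn i hi
    exact hn i (hmem hi).1
  · intro ε hε
    exact Filter.Eventually.of_forall fun n i hi => (hmem hi).2.1
  · intro ε hε
    filter_upwards [hk1 ε hε, hcard ε hε] with n h1 h2
    calc B.d n ^ (-a + (C1 + C1) * ε) = B.d n ^ (C1 * ε) * B.d n ^ (-a + C1 * ε) := by
          rw [← rpow_add']; congr 1; ring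
      _ ≤ B.d n ^ (C1 * ε) * ((S0 ε n).card : ℝ) :=
          mul_le_mul_of_nonneg_left h2 (rpos B n _).le
      _ ≤ _ := h1.2
  · intro ε hε
    filter_upwards [hk1 ε hε, hT ε hε] with n h1 h2 i hi i' hi'
    exact H.loose_mono (fun _ => le_rfl) (by nlinarith)
      (h2 _ h1.1 i (hmem hi).1 i' (hmem hi').1 (hmem hi).2.1 (hmem hi').2.1)
  · intro C2 hC2
    obtain ⟨C3, hC3, hg⟩ := hgeo C2 hC2
    refine ⟨C3, hC3, fun ε hε => ?_⟩
    filter_upwards [hk1 ε hε, hg ε hε] with n h1 h2 i hi i' hi' hr'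
    exact h2 _ h1.1 i (hmem hi).1 i' (hmem hi').1 (hmem hi).2.1 (hmem hi').2.1
      (hmem hi).2.2 (hmem hi').2.2 hr'

/-- the lines of the fibre with `|c i| ≥ ρ^δ` and the sign `s` of `c i` -/
noncomputable def thick (B : Base) (G : ℕ → RCfg κ) (p : κ → ℝ) (i0 k0 : ℕ → ℕ)
    (c : ℕ → ℕ → ℝ) (δ s : ℝ) (ε : ℝ) (n : ℕ) : Finset ℕ := by
  classical
  exact ((G n).box p ε (i0 n) (k0 n)).filter fun i => B.d n ^ δ ≤ s * c n i

theorem mem_thick {p : κ → ℝ} {i0 k0 : ℕ → ℕ} {c : ℕ → ℕ → ℝ} {δ s ε : ℝ} {n i : ℕ} :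
    i ∈ thick B G p i0 k0 c δ s ε n ↔
      i ∈ (G n).box p ε (i0 n) (k0 n) ∧ B.d n ^ δ ≤ s * c n i := by
  classical
  unfold thick
  rw [Finset.mem_filter]

/-- **the thick part.**  If `|c i| < ρ^δ` puts the line in a box `q` with `ν q < ν p`, then one sign of
`c i`, fixed along the filter for every `ε`, keeps a `ρ^ε`-part of the fibre. -/
theorem thick_part (H : RUnif B G Leg ν D) (i0 k0 : ℕ → ℕ)
    (h0 : ∀ᶠ n in (U : Filter ℕ), (i0 n, k0 n) ∈ (G n).I) (p q : κ → ℝ) (hp : p ∈ Leg)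
    (hq : q ∈ Leg) (hlt : ν q < ν p) (c : ℕ → ℕ → ℝ) {δ C1 : ℝ} (hC1 : 0 < C1)
    (hthin : ∀ ε : ℝ, 0 < ε → ∀ᶠ n in (U : Filter ℕ), ∀ i ∈ (G n).box p ε (i0 n) (k0 n),
      |c n i| < B.d n ^ δ → (G n).loose q (C1 * ε) (k0 n) (i0 n) i) :
    ∃ s : ℝ → ℝ, (∀ ε, s ε = 1 ∨ s ε = -1) ∧ ∃ ε0 : ℝ, 0 < ε0 ∧ ∀ ε : ℝ, 0 < ε → ε < ε0 →
      ∀ᶠ n in (U : Filter ℕ), B.d n ^ (-ν p + 2 * ε) ≤
        ((thick B G p i0 k0 c δ (s ε) ε n).card : ℝ) := by
  classical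
  have hD := H.D1
  have hD0 : 0 < D := by linarith
  set γ := ν p - ν q with hγ
  have hγ0 : 0 < γ := by rw [hγ]; linarith
  set ε0 : ℝ := γ / (2 * (D * C1 + 2)) with hε0
  have hden : 0 < 2 * (D * C1 + 2) := by positivity
  have hε0p : 0 < ε0 := div_pos hγ0 hden
  have hmain : ∀ ε : ℝ, 0 < ε → ε < ε0 → ∀ᶠ n in (U : Filter ℕ),
      B.d n ^ (-ν p + 2 * ε) ≤ ((thick B G p i0 k0 c δ 1 ε n).card : ℝ) ∨
      B.d n ^ (-ν p + 2 * ε) ≤ ((thick B G p i0 k0 c δ (-1) ε n).card : ℝ) := by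
    intro ε hε hεlt
    have hC1ε : 0 < C1 * ε := by positivity
    filter_upwards [h0, H.low p hp ε hε, H.up q hq (C1 * ε) hC1ε, hthin ε hε,
      ev_const_le B hε 4] with n h0n hlow hup hth h4
    have hpow : ∀ t : ℝ, 0 < B.d n ^ t := fun t => rpos B n t
    by_contra hcon
    push Not at hcon
    obtain ⟨hc1, hc2⟩ := hcon
    set W := (G n).box p ε (i0 n) (k0 n) with hW
    have hcov : W ⊆ ((G n).box q (C1 * ε) (i0 n) (k0 n)) ∪
        (thick B G p i0 k0 c δ 1 ε n ∪ thick B G p i0 k0 c δ (-1) ε n) := by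
      intro i hi
      by_cases hci : |c n i| < B.d n ^ δ
      · refine Finset.mem_union_left _ (RCfg.mem_box.2 ⟨(RCfg.mem_box.1 hi).1, hth i hi hci⟩)
      · refine Finset.mem_union_right _ ?_
        push Not at hci
        rcases le_total 0 (c n i) with h | h
        · refine Finset.mem_union_left _ (mem_thick.2 ⟨hi, ?_⟩)
          rw [abs_of_nonneg h] at hci
          linarith
        · refine Finset.mem_union_right _ (mem_thick.2 ⟨hi, ?_⟩)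
          rw [abs_of_nonpos h] at hci
          linarith
    have hcc : (W.card : ℝ) ≤ (((G n).box q (C1 * ε) (i0 n) (k0 n)).card : ℝ) +
        (((thick B G p i0 k0 c δ 1 ε n).card : ℝ) +
          ((thick B G p i0 k0 c δ (-1) ε n).card : ℝ)) := by
      have e1 := Finset.card_le_card hcov
      have e2 := Finset.card_union_le ((G n).box q (C1 * ε) (i0 n) (k0 n))
        (thick B G p i0 k0 c δ 1 ε n ∪ thick B G p i0 k0 c δ (-1) ε n)
      have e3 := Finset.card_union_le (thick B G p i0 k0 c δ 1 ε n)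
        (thick B G p i0 k0 c δ (-1) ε n)
      have e4 := (e1.trans e2).trans (Nat.add_le_add_left e3 _)
      have e5 : (W.card : ℝ) ≤ ((((G n).box q (C1 * ε) (i0 n) (k0 n)).card +
        ((thick B G p i0 k0 c δ 1 ε n).card + (thick B G p i0 k0 c δ (-1) ε n).card) : ℕ) : ℝ) :=
        Nat.cast_le.2 e4
      rwa [Nat.cast_add, Nat.cast_add] at e5
    have hl := hlow _ _ h0n
    have hu := hup _ _ h0n
    have hqs : B.d n ^ (-ν q - D * (C1 * ε)) ≤ B.d n ^ (-ν p + 2 * ε) := by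
      refine rpow_anti B n ?_
      have e1 : ε * (2 * (D * C1 + 2)) < γ := by
        have := mul_lt_mul_of_pos_right hεlt hden
        rwa [hε0, div_mul_cancel₀ _ hden.ne'] at this
      have e2 : 0 < D * C1 * ε := by positivity
      nlinarith
    have h5 : B.d n ^ (-ν p + ε) < 3 * B.d n ^ (-ν p + 2 * ε) := by linarith
    have h6 : B.d n ^ (-ν p + 2 * ε) * B.d n ^ (-ε) = B.d n ^ (-ν p + ε) := by
      rw [← rpow_add']; congr 1; ring
    rw [← h6] at h5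
    have h7 := hpow (-ν p + 2 * ε)
    nlinarith
  -- choose the sign along the ultrafilter
  have hch : ∀ ε : ℝ, ∃ s : ℝ, (s = 1 ∨ s = -1) ∧ (0 < ε → ε < ε0 →
      ∀ᶠ n in (U : Filter ℕ), B.d n ^ (-ν p + 2 * ε) ≤
        ((thick B G p i0 k0 c δ s ε n).card : ℝ)) := by
    intro ε
    by_cases hε : 0 < ε ∧ ε < ε0
    · rcases Ultrafilter.eventually_or.1 (hmain ε hε.1 hε.2) with h | h
      · exact ⟨1, Or.inl rfl, fun _ _ => h⟩
      · exact ⟨-1, Or.inr rfl, fun _ _ => h⟩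
    · exact ⟨1, Or.inl rfl, fun h1 h2 => absurd ⟨h1, h2⟩ hε⟩
  choose s hs1 hs2 using hch
  exact ⟨s, hs1, ε0, hε0p, fun ε hε hlt => hs2 ε hε hlt⟩

end Crest.Agent.R116.KW420
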