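import Crest.Agent.R116.KW1_420

/-!
# R116, K-TEXT II-c, section 1, facts (W2), (W3), part 2: twist inequalities (helper420)

One pinned fibre `box pS ε (i0, k0)` of an `RUnif`, a second height `k ∈ Zg`, a slot `sP` with the
evolution `rel k i l sP = rel k0 i l sP - τ k (V l - V i) + O(ρ^x)` and `|τ k| ≥ ρ^o(1)` for many
heights of every line:

* `twist_lin` : if `|V l - V i| ≤ ρ^x` implies `p'`-close at `k0`, then `ν pS - ν p' ≤ ν pT - ν r`
  (`r sP ≥ x`).  (W3) for the e-tie: `sP = C_b`, `V = C_a`; (W2) for the e-tie: `sP = N`, `V = X_a`; for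
  the G-tie `sP = N`, `V = H`.
* `twist_quad` : the same with `V = c ^ 2` (G-tie, D-tie), `c` = coordinate relative to the pin; loses
  `δ` in the exponent of `c`.
* `le_of_quad` : `δ → 0` for linear rates.
-/

set_option autoImplicit false
set_option linter.unusedVariables false
set_option linter.unusedSectionVars false

open Filter Topology Finset

namespace Crest.Agent.R116.KW420

open Crest.Agent.R138.Ex926 (Base U)
open Crest.Agent.R136.Gf356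

variable {κ : Type} {B : Base} {G : ℕ → RCfg κ} {Leg : Set (κ → ℝ)} {ν : (κ → ℝ) → ℝ}
  {σ R D : ℝ}

/-- two lines of one box are close to each other -/
theorem box_pair (H : RUnif B G Leg ν D) (i0 k0 : ℕ → ℕ)
    (h0 : ∀ᶠ n in (U : Filter ℕ), (i0 n, k0 n) ∈ (G n).I) (p : κ → ℝ) (hp : p ∈ Leg) {ε : ℝ}
    (hε : 0 < ε) :
    ∀ᶠ n in (U : Filter ℕ), ∀ i ∈ (G n).box p ε (i0 n) (k0 n), ∀ l ∈ (G n).box p ε (i0 n) (k0 n),
      (G n).loose p (D * (D * ε)) (k0 n) i l := by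
  have hD := H.D1
  have hD0 : 0 < D := by linarith
  filter_upwards [h0, H.symm p hp ε hε, H.tri p hp (D * ε) (by positivity)] with n h0n hs ht i hi l hl
  obtain ⟨i1, i2⟩ := RCfg.mem_box.1 hi
  obtain ⟨l1, l2⟩ := RCfg.mem_box.1 hl
  have a1 := H.memSlice.1 i1
  have a2 := H.memSlice.1 l1
  have e1 := hs (k0 n) (i0 n) i h0n a1 i2
  refine ht (k0 n) i (i0 n) l a1 h0n a2 e1 ?_
  exact H.loose_mono (fun _ => le_rfl) (by nlinarith) l2

/-- **linear twist** -/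
theorem twist_lin (H : RUnif B G Leg ν D) (i0 k0 : ℕ → ℕ)
    (h0 : ∀ᶠ n in (U : Filter ℕ), (i0 n, k0 n) ∈ (G n).I) (pS p' pT r : κ → ℝ) (hpS : pS ∈ Leg)
    (hp' : p' ∈ Leg) (hpT : pT ∈ Leg) (hr : r ∈ Leg) (hTr : ∀ j, pT j ≤ r j)
    (sP : κ) {x : ℝ} (hxS : x ≤ pS sP) (hxr : x ≤ r sP)
    (Zg : ℕ → Finset ℕ) (hZg : ∀ᶠ n in (U : Filter ℕ), (Zg n).Nonempty)
    (τ : ℕ → ℕ → ℝ) (V : ℕ → ℕ → ℕ → ℝ) {C1 : ℝ} (hC1 : 0 < C1)
    (hT : ∀ ε : ℝ, 0 < ε → ∀ᶠ n in (U : Filter ℕ), ∀ k ∈ Zg n,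
      ∀ i ∈ (G n).box pS ε (i0 n) (k0 n), ∀ l ∈ (G n).box pS ε (i0 n) (k0 n),
      (i, k) ∈ (G n).I → (l, k) ∈ (G n).I → (G n).loose pT (C1 * ε) k i l)
    (hal : ∀ ε : ℝ, 0 < ε → ∀ᶠ n in (U : Filter ℕ), ∀ i ∈ (G n).box pS ε (i0 n) (k0 n),
      ∀ T ⊆ Zg n, (∀ k ∈ Zg n, (i, k) ∈ (G n).I → B.d n ^ (C1 * ε) ≤ |τ n k| → k ∈ T) →
      B.d n ^ (C1 * ε) * ((Zg n).card : ℝ) ≤ (T.card : ℝ))
    (hevo : ∀ ε : ℝ, 0 < ε → ∀ᶠ n in (U : Filter ℕ), ∀ k ∈ Zg n,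
      ∀ i ∈ (G n).box pS ε (i0 n) (k0 n), ∀ l ∈ (G n).box pS ε (i0 n) (k0 n),
      (i, k) ∈ (G n).I → (l, k) ∈ (G n).I →
      |(G n).rel k i l sP - ((G n).rel (k0 n) i l sP - τ n k * (V n k l - V n k i))|
        ≤ B.d n ^ (x - C1 * ε))
    (hV : ∀ C2 : ℝ, 0 < C2 → ∃ C3 : ℝ, 0 < C3 ∧ ∀ ε : ℝ, 0 < ε → ∀ᶠ n in (U : Filter ℕ),
      ∀ k ∈ Zg n, ∀ i ∈ (G n).box pS ε (i0 n) (k0 n), ∀ l ∈ (G n).box pS ε (i0 n) (k0 n),
      (i, k) ∈ (G n).I → (l, k) ∈ (G n).I →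
      |V n k l - V n k i| ≤ B.d n ^ (x - C2 * ε) → (G n).loose p' (C3 * ε) (k0 n) i l) :
    ν pS - ν p' ≤ ν pT - ν r := by
  classical
  have hD := H.D1
  have hD0 : 0 < D := by linarith
  refine two_heights_R H k0 (fun ε n => (G n).box pS ε (i0 n) (k0 n)) p' pT r hp' hpT hr hTr Zg hZg
    (C1 := C1 + 1) (by linarith) ?_ ?_ (fun ε n i k => B.d n ^ (C1 * ε) ≤ |τ n k|) ?_ ?_ ?_
  · intro ε hε
    exact Filter.Eventually.of_forall fun n i hi => H.memSlice.1 (RCfg.box_subset_slice hi)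
  · intro ε hε
    filter_upwards [H.low pS hpS ε hε, h0] with n hn h0n
    exact (rpow_anti B n (by nlinarith)).trans (hn _ _ h0n)
  · intro ε hε
    filter_upwards [hal ε hε] with n hn i hi T hT1 hT2
    refine le_trans ?_ (hn i hi T hT1 hT2)
    exact mul_le_mul_of_nonneg_right (rpow_anti B n (by nlinarith)) (Nat.cast_nonneg _)
  · intro ε hε
    filter_upwards [hT ε hε] with n hn k hk i hi l hl h1 h2
    exact H.loose_mono (fun _ => le_rfl) (by nlinarith) (hn k hk i hi l hl h1 h2)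
  · intro C2 hC2
    set C4 : ℝ := C1 + C2 + C1 + D * D + 1 with hC4
    obtain ⟨C3, hC3, hg⟩ := hV C4 (by positivity)
    refine ⟨C3, hC3, fun ε hε => ?_⟩
    have hDDε : 0 ≤ D * D * ε := by positivity
    filter_upwards [hg ε hε, hevo ε hε, box_pair H i0 k0 h0 pS hpS hε, ev_const_le B hε 3,
      H.base |> fun hb => Filter.Eventually.of_forall hb]
      with n hgn hen hpn h3 hbn k hk i hi l hl h1 h2 g1 g2 hlr
    have hpow : ∀ t : ℝ, 0 < B.d n ^ t := fun t => rpos B n t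
    refine hgn k hk i hi l hl h1 h2 ?_
    have e0 := hpn i hi l hl sP
    have e1 := hlr sP
    rw [hbn] at e0 e1
    have e2 := hen k hk i hi l hl h1 h2
    have b0 : |(G n).rel (k0 n) i l sP| ≤ B.d n ^ (x - (C1 + C2 + D * D) * ε) :=
      e0.trans (rpow_anti B n (by nlinarith))
    have b1 : |(G n).rel k i l sP| ≤ B.d n ^ (x - (C1 + C2 + D * D) * ε) :=
      e1.trans (rpow_anti B n (by nlinarith))
    have b2 : |(G n).rel k i l sP - ((G n).rel (k0 n) i l sP - τ n k * (V n k l - V n k i))| ≤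
        B.d n ^ (x - (C1 + C2 + D * D) * ε) := e2.trans (rpow_anti B n (by nlinarith))
    have b3 : |τ n k * (V n k l - V n k i)| ≤ 3 * B.d n ^ (x - (C1 + C2 + D * D) * ε) := by
      have e : τ n k * (V n k l - V n k i) =
          ((G n).rel k i l sP - ((G n).rel (k0 n) i l sP - τ n k * (V n k l - V n k i))) -
            (G n).rel k i l sP + (G n).rel (k0 n) i l sP := by ring
      rw [e]
      refine (abs_add_le _ _).trans ?_
      have := abs_sub ((G n).rel k i l sP - ((G n).rel (k0 n) i l sP -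
        τ n k * (V n k l - V n k i))) ((G n).rel k i l sP)
      linarith
    rw [abs_mul] at b3
    have b4 : B.d n ^ (C1 * ε) * |V n k l - V n k i| ≤
        B.d n ^ (-ε) * B.d n ^ (x - (C1 + C2 + D * D) * ε) := by
      refine (mul_le_mul_of_nonneg_right g1 (abs_nonneg _)).trans (b3.trans ?_)
      exact mul_le_mul_of_nonneg_right h3 (hpow _).le
    have b5 : B.d n ^ (-ε) * B.d n ^ (x - (C1 + C2 + D * D) * ε) =
        B.d n ^ (C1 * ε) * B.d n ^ (x - C4 * ε) := by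
      rw [← rpow_add', ← rpow_add', hC4]; congr 1; ring
    rw [b5] at b4
    exact le_of_mul_le_mul_left b4 (hpow _)

/-- two lines of the thick part of the fibre -/
theorem sq_sep {a b s δ' w : ℝ} (hs : s = 1 ∨ s = -1) (ha : δ' ≤ s * a) (hb : δ' ≤ s * b)
    (hδ : 0 < δ') (h : |b ^ 2 - a ^ 2| ≤ w) : δ' * |b - a| ≤ w := by
  have e : b ^ 2 - a ^ 2 = (b - a) * (b + a) := by ring
  rw [e, abs_mul] at h
  have h1 : δ' ≤ |b + a| := by
    rcases hs with rfl | rfl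
    · have : δ' ≤ b + a := by linarith
      exact this.trans (le_abs_self _)
    · have : δ' ≤ -(b + a) := by linarith
      exact this.trans (neg_le_abs _)
  calc δ' * |b - a| ≤ |b + a| * |b - a| := mul_le_mul_of_nonneg_right h1 (abs_nonneg _)
    _ = |b - a| * |b + a| := mul_comm _ _
    _ ≤ w := h

/-- **quadratic twist** -/
theorem twist_quad (H : RUnif B G Leg ν D) (i0 k0 : ℕ → ℕ)
    (h0 : ∀ᶠ n in (U : Filter ℕ), (i0 n, k0 n) ∈ (G n).I) (pS p' pT r q : κ → ℝ) (hpS : pS ∈ Leg)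
    (hp' : p' ∈ Leg) (hpT : pT ∈ Leg) (hr : r ∈ Leg) (hq : q ∈ Leg) (hTr : ∀ j, pT j ≤ r j)
    (sP : κ) {x : ℝ} (hxS : x ≤ pS sP) (hxr : x ≤ r sP)
    (Zg : ℕ → Finset ℕ) (hZg : ∀ᶠ n in (U : Filter ℕ), (Zg n).Nonempty)
    (τ : ℕ → ℕ → ℝ) (c : ℕ → ℕ → ℝ) {C1 δ : ℝ} (hC1 : 0 < C1)
    (hT : ∀ ε : ℝ, 0 < ε → ∀ᶠ n in (U : Filter ℕ), ∀ k ∈ Zg n,
      ∀ i ∈ (G n).box pS ε (i0 n) (k0 n), ∀ l ∈ (G n).box pS ε (i0 n) (k0 n),
      (i, k) ∈ (G n).I → (l, k) ∈ (G n).I → (G n).loose pT (C1 * ε) k i l)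
    (hal : ∀ ε : ℝ, 0 < ε → ∀ᶠ n in (U : Filter ℕ), ∀ i ∈ (G n).box pS ε (i0 n) (k0 n),
      ∀ T ⊆ Zg n, (∀ k ∈ Zg n, (i, k) ∈ (G n).I → B.d n ^ (C1 * ε) ≤ |τ n k| → k ∈ T) →
      B.d n ^ (C1 * ε) * ((Zg n).card : ℝ) ≤ (T.card : ℝ))
    (hevo : ∀ ε : ℝ, 0 < ε → ∀ᶠ n in (U : Filter ℕ), ∀ k ∈ Zg n,
      ∀ i ∈ (G n).box pS ε (i0 n) (k0 n), ∀ l ∈ (G n).box pS ε (i0 n) (k0 n),
      (i, k) ∈ (G n).I → (l, k) ∈ (G n).I →
      |(G n).rel k i l sP - ((G n).rel (k0 n) i l sP - τ n k * (c n l ^ 2 - c n i ^ 2))|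
        ≤ B.d n ^ (x - C1 * ε))
    (hlt : ν q < ν pS)
    (hthin : ∀ ε : ℝ, 0 < ε → ∀ᶠ n in (U : Filter ℕ), ∀ i ∈ (G n).box pS ε (i0 n) (k0 n),
      |c n i| < B.d n ^ δ → (G n).loose q (C1 * ε) (k0 n) (i0 n) i)
    (hV : ∀ C2 : ℝ, 0 < C2 → ∃ C3 : ℝ, 0 < C3 ∧ ∀ ε : ℝ, 0 < ε → ∀ᶠ n in (U : Filter ℕ),
      ∀ k ∈ Zg n, ∀ i ∈ (G n).box pS ε (i0 n) (k0 n), ∀ l ∈ (G n).box pS ε (i0 n) (k0 n),
      (i, k) ∈ (G n).I → (l, k) ∈ (G n).I →
      |c n l - c n i| ≤ B.d n ^ (x - δ - C2 * ε) → (G n).loose p' (C3 * ε) (k0 n) i l) :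
    ν pS - ν p' ≤ ν pT - ν r := by
  classical
  have hD := H.D1
  have hD0 : 0 < D := by linarith
  obtain ⟨s, hs1, ε0, hε0, hs2⟩ := thick_part H i0 k0 h0 pS q hpS hq hlt c hC1 hthin
  -- the exponent used for the thick part
  let e' : ℝ → ℝ := fun ε => min ε (ε0 / 2)
  have he'0 : ∀ ε : ℝ, 0 < ε → 0 < e' ε := fun ε hε => lt_min hε (by linarith)
  have he'1 : ∀ ε : ℝ, e' ε ≤ ε := fun ε => min_le_left _ _
  have he'2 : ∀ ε : ℝ, e' ε < ε0 := fun ε => lt_of_le_of_lt (min_le_right _ _) (by linarith)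
  have hsub : ∀ {ε : ℝ} {n i : ℕ}, i ∈ thick B G pS i0 k0 c δ (s (e' ε)) (e' ε) n →
      i ∈ (G n).box pS ε (i0 n) (k0 n) := by
    intro ε n i hi
    obtain ⟨a1, a2⟩ := mem_thick.1 hi
    obtain ⟨b1, b2⟩ := RCfg.mem_box.1 a1
    exact RCfg.mem_box.2 ⟨b1, H.loose_mono (fun _ => le_rfl) (he'1 ε) b2⟩
  refine two_heights_R H k0 (fun ε n => thick B G pS i0 k0 c δ (s (e' ε)) (e' ε) n)
    p' pT r hp' hpT hr hTr Zg hZg
    (C1 := C1 + 2) (by linarith) ?_ ?_ (fun ε n i k => B.d n ^ (C1 * ε) ≤ |τ n k|) ?_ ?_ ?_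
  · intro ε hε
    exact Filter.Eventually.of_forall fun n i hi =>
      H.memSlice.1 (RCfg.box_subset_slice (mem_thick.1 hi).1)
  · intro ε hε
    filter_upwards [hs2 (e' ε) (he'0 ε hε) (he'2 ε)] with n hn
    refine (rpow_anti B n ?_).trans hn
    have := he'1 ε
    nlinarith
  · intro ε hε
    filter_upwards [hal ε hε] with n hn i hi T hT1 hT2
    refine le_trans ?_ (hn i (hsub hi) T hT1 hT2)
    exact mul_le_mul_of_nonneg_right (rpow_anti B n (by nlinarith)) (Nat.cast_nonneg _)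
  · intro ε hε
    filter_upwards [hT ε hε] with n hn k hk i hi l hl h1 h2
    exact H.loose_mono (fun _ => le_rfl) (by nlinarith) (hn k hk i (hsub hi) l (hsub hl) h1 h2)
  · intro C2 hC2
    set C4 : ℝ := C1 + C2 + C1 + D * D + 1 with hC4
    obtain ⟨C3, hC3, hg⟩ := hV C4 (by positivity)
    refine ⟨C3, hC3, fun ε hε => ?_⟩
    have hDDε : 0 ≤ D * D * ε := by positivity
    filter_upwards [hg ε hε, hevo ε hε, box_pair H i0 k0 h0 pS hpS hε, ev_const_le B hε 3,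
      H.base |> fun hb => Filter.Eventually.of_forall hb]
      with n hgn hen hpn h3 hbn k hk i hi l hl h1 h2 g1 g2 hlr
    have hpow : ∀ t : ℝ, 0 < B.d n ^ t := fun t => rpos B n t
    refine hgn k hk i (hsub hi) l (hsub hl) h1 h2 ?_
    have e0 := hpn i (hsub hi) l (hsub hl) sP
    have e1 := hlr sP
    rw [hbn] at e0 e1
    have e2 := hen k hk i (hsub hi) l (hsub hl) h1 h2
    have b0 : |(G n).rel (k0 n) i l sP| ≤ B.d n ^ (x - (C1 + C2 + D * D) * ε) :=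
      e0.trans (rpow_anti B n (by nlinarith))
    have b1 : |(G n).rel k i l sP| ≤ B.d n ^ (x - (C1 + C2 + D * D) * ε) :=
      e1.trans (rpow_anti B n (by nlinarith))
    have b2 : |(G n).rel k i l sP - ((G n).rel (k0 n) i l sP - τ n k * (c n l ^ 2 - c n i ^ 2))| ≤
        B.d n ^ (x - (C1 + C2 + D * D) * ε) := e2.trans (rpow_anti B n (by nlinarith))
    have b3 : |τ n k * (c n l ^ 2 - c n i ^ 2)| ≤ 3 * B.d n ^ (x - (C1 + C2 + D * D) * ε) := by
      have e : τ n k * (c n l ^ 2 - c n i ^ 2) =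
          ((G n).rel k i l sP - ((G n).rel (k0 n) i l sP - τ n k * (c n l ^ 2 - c n i ^ 2))) -
            (G n).rel k i l sP + (G n).rel (k0 n) i l sP := by ring
      rw [e]
      refine (abs_add_le _ _).trans ?_
      have := abs_sub ((G n).rel k i l sP - ((G n).rel (k0 n) i l sP -
        τ n k * (c n l ^ 2 - c n i ^ 2))) ((G n).rel k i l sP)
      linarith
    rw [abs_mul] at b3
    have b4 : B.d n ^ (C1 * ε) * |c n l ^ 2 - c n i ^ 2| ≤
        B.d n ^ (-ε) * B.d n ^ (x - (C1 + C2 + D * D) * ε) := by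
      refine (mul_le_mul_of_nonneg_right g1 (abs_nonneg _)).trans (b3.trans ?_)
      exact mul_le_mul_of_nonneg_right h3 (hpow _).le
    have b5 : B.d n ^ (-ε) * B.d n ^ (x - (C1 + C2 + D * D) * ε) =
        B.d n ^ (C1 * ε) * (B.d n ^ δ * B.d n ^ (x - δ - C4 * ε)) := by
      rw [← rpow_add', ← rpow_add', ← rpow_add', hC4]; congr 1; ring
    rw [b5] at b4
    have b6 := le_of_mul_le_mul_left b4 (hpow _)
    have b7 := sq_sep (hs1 (e' ε)) (mem_thick.1 hi).2 (mem_thick.1 hl).2 (hpow δ) b6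
    exact le_of_mul_le_mul_left b7 (hpow _)

/-- `δ → 0` in `twist_quad` for linear rates -/
theorem le_of_quad {m r x : ℝ} (hx : 0 < x)
    (h : ∀ δ : ℝ, 0 < δ → δ < x → m * (x - δ) ≤ r * x) : m ≤ r := by
  by_contra hcon
  push Not at hcon
  rcases le_or_gt m 0 with hm | hm
  · have h1 := h (x / 2) (by linarith) (by linarith)
    have : m * (x / 2) ≤ r * x := by
      have e : x - x / 2 = x / 2 := by ring
      rwa [e] at h1
    nlinarith
  · have hδ : 0 < (m - r) * x / (2 * m) := by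
      have : 0 < m - r := by linarith
      positivity
    set δ := min ((m - r) * x / (2 * m)) (x / 2) with hδd
    have h1 := h δ (lt_min hδ (by linarith)) (lt_of_le_of_lt (min_le_right _ _) (by linarith))
    have h2 : m * δ ≤ (m - r) * x / 2 := by
      have h3 : δ ≤ (m - r) * x / (2 * m) := min_le_left _ _
      have h4 := mul_le_mul_of_nonneg_left h3 hm.le
      have h5 : m * ((m - r) * x / (2 * m)) = (m - r) * x / 2 := by field_simp
      linarith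
    have h6 : 0 < (m - r) * x := mul_pos (by linarith) hx
    nlinarith

end Crest.Agent.R116.KW420
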