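import Crest.Agent.R116.KW3_420

/-!
# R116, K-TEXT II-c, section 1, fact (W3k), part 4: the D-tie (helper420)

At a D-tie the own motion of the slot `1` is spread (`OwnThin 1`) and the slot `2` moves with it:
`own k1 k 2 = own k0 k 2 + own k1 k0 2 - 2 own k0 k 1 own k1 k0 0`.

* `line_pins` : for one line, all heights `k0` with `|own k0 k 2| ≤ θ` at more than two thirds of its
  heights `k` lie in one interval of heights.
* `good_pin` : a pin whose fibre consists of good lines (double counting).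
* `two_heights_E`, `twist_core_E` : the pin may depend on `ε`.
* `w3_d` : `w3_k` at a D-tie.
* `w3_e0`, `w2_e0` : `w3_e`, `w2_e` for windows with the slot `1` dropped (`1 ∈ S`, own motion `0`).
-/

set_option autoImplicit false
set_option linter.unusedVariables false
set_option linter.unusedSectionVars false

open Filter Topology Finset

namespace Crest.Agent.R116.KW420

open Crest.Agent.R138.Ex926 (Base U)
open Crest.Agent.R136.Gf356

/-- **the pins of one line** -/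
theorem line_pins (A : Finset ℕ) (z : ℕ → ℝ) (a0 a1 a2 : ℕ → ℕ → ℝ)
    {η θ θ1 d q f : ℝ} (hη : 0 ≤ η) (hθ : 0 ≤ θ) (hd : 0 < d) (hηd : 2 * η ≤ d)
    (h0 : ∀ k1 ∈ A, ∀ k0 ∈ A, |a0 k1 k0 + (z k0 - z k1)| ≤ η)
    (h1 : ∀ k0 ∈ A, ∀ k1 ∈ A, ∀ k ∈ A, |a1 k1 k - (a1 k0 k + a1 k1 k0)| ≤ η)
    (h2 : ∀ k0 ∈ A, ∀ k1 ∈ A, ∀ k ∈ A,
      |a2 k1 k - (a2 k0 k + a2 k1 k0 - 2 * (a1 k0 k * a0 k1 k0))| ≤ η)
    (hθ1 : (4 * θ + 2 * η) / d + 3 * η ≤ θ1)
    (hthin : ∀ k0 ∈ A, ∀ T ⊆ A, (∀ k ∈ T, |a1 k0 k| ≤ θ1) → (T.card : ℝ) ≤ q)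
    (hq : 3 * q < A.card)
    (hfr : ∀ k0 ∈ A, ∀ T ⊆ A, (∀ k ∈ T, |z k - z k0| ≤ d) → (T.card : ℝ) ≤ f) (hf : 0 ≤ f) :
    ((A.filter fun k0 => 2 * (A.card : ℝ) <
      3 * ((A.filter fun k => |a2 k0 k| ≤ θ).card : ℝ)).card : ℝ) ≤ f := by
  classical
  set Bd := A.filter fun k0 => 2 * (A.card : ℝ) <
      3 * ((A.filter fun k => |a2 k0 k| ≤ θ).card : ℝ) with hBd
  rcases Bd.eq_empty_or_nonempty with he | ⟨k0, hk0⟩
  · rw [he]; simpa using hf
  obtain ⟨k0A, k0b⟩ := Finset.mem_filter.1 hk0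
  refine hfr k0 k0A Bd (Finset.filter_subset _ _) ?_
  intro k1 hk1
  obtain ⟨k1A, k1b⟩ := Finset.mem_filter.1 hk1
  by_contra hfar
  push Not at hfar
  set F0 := A.filter fun k => |a2 k0 k| ≤ θ with hF0
  set F1 := A.filter fun k => |a2 k1 k| ≤ θ with hF1
  have hun : F0 ∪ F1 ⊆ A := Finset.union_subset (Finset.filter_subset _ _)
    (Finset.filter_subset _ _)
  have c1 := Finset.card_union_add_card_inter F0 F1
  have c2 := Finset.card_le_card hun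
  have c1' : ((F0 ∪ F1).card : ℝ) + ((F0 ∩ F1).card : ℝ) = (F0.card : ℝ) + (F1.card : ℝ) := by
    exact_mod_cast c1
  have c2' : ((F0 ∪ F1).card : ℝ) ≤ (A.card : ℝ) := by exact_mod_cast c2
  have c3 : (A.card : ℝ) < 3 * ((F0 ∩ F1).card : ℝ) := by linarith
  have hne : (F0 ∩ F1).Nonempty := by
    rw [← Finset.card_pos]
    have : (0 : ℝ) ≤ A.card := Nat.cast_nonneg _
    have h : (0 : ℝ) < ((F0 ∩ F1).card : ℝ) := by linarith
    exact_mod_cast h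
  obtain ⟨ks, hks⟩ := hne
  have mem : ∀ k ∈ F0 ∩ F1, k ∈ A ∧ |a2 k0 k| ≤ θ ∧ |a2 k1 k| ≤ θ := by
    intro k hk
    obtain ⟨g1, g2⟩ := Finset.mem_inter.1 hk
    exact ⟨(Finset.mem_filter.1 g1).1, (Finset.mem_filter.1 g1).2, (Finset.mem_filter.1 g2).2⟩
  obtain ⟨sA, s0, s1⟩ := mem ks hks
  set w := a0 k1 k0 with hw
  set c := a2 k1 k0 with hc
  have hw1 : d / 2 ≤ |w| := by
    have e1 := h0 k1 k1A k0 k0A
    have e2 : |z k1 - z k0| ≤ |w + (z k0 - z k1)| + |w| := by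
      have e : z k1 - z k0 = -(w + (z k0 - z k1)) + w := by ring
      rw [e]
      refine (abs_add_le _ _).trans ?_
      rw [abs_neg]
    linarith
  have key : ∀ k ∈ F0 ∩ F1, |c - 2 * (a1 k0 k * w)| ≤ 2 * θ + η := by
    intro k hk
    obtain ⟨kA, b0, b1⟩ := mem k hk
    have e1 := h2 k0 k0A k1 k1A k kA
    have e : c - 2 * (a1 k0 k * w) = a2 k1 k - a2 k0 k -
        (a2 k1 k - (a2 k0 k + c - 2 * (a1 k0 k * w))) := by ring
    rw [e]
    have t1 := abs_sub (a2 k1 k - a2 k0 k) (a2 k1 k - (a2 k0 k + c - 2 * (a1 k0 k * w)))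
    have t2 := abs_sub (a2 k1 k) (a2 k0 k)
    linarith
  have hle := hthin ks sA (F0 ∩ F1) (Finset.inter_subset_left.trans (Finset.filter_subset _ _))
    (by
      intro k hk
      have b1 := key k hk
      have b2 := key ks hks
      obtain ⟨kA, _, _⟩ := mem k hk
      have b3 : |2 * w * (a1 k0 k - a1 k0 ks)| ≤ 4 * θ + 2 * η := by
        have e : 2 * w * (a1 k0 k - a1 k0 ks) =
            (c - 2 * (a1 k0 ks * w)) - (c - 2 * (a1 k0 k * w)) := by ring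
        rw [e]
        refine (abs_sub _ _).trans ?_
        linarith
      have b4 : |a1 k0 k - a1 k0 ks| ≤ (4 * θ + 2 * η) / d := by
        rw [le_div_iff₀ hd]
        rw [abs_mul, abs_mul, abs_of_pos (two_pos : (0 : ℝ) < 2)] at b3
        have := mul_le_mul_of_nonneg_left hw1 (abs_nonneg (a1 k0 k - a1 k0 ks))
        nlinarith
      have b5 := h1 k0 k0A ks sA k kA
      have b6 := h1 k0 k0A ks sA ks sA
      have b7 : |a1 ks ks| ≤ η := by
        have := h1 ks sA ks sA ks sA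
        have e : a1 ks ks - (a1 ks ks + a1 ks ks) = -a1 ks ks := by ring
        rwa [e, abs_neg] at this
      have e : a1 ks k = (a1 k0 k - a1 k0 ks) + (a1 ks k - (a1 k0 k + a1 ks k0)) -
          (a1 ks ks - (a1 k0 ks + a1 ks k0)) + a1 ks ks := by ring
      rw [e]
      have t1 := abs_add_le ((a1 k0 k - a1 k0 ks) + (a1 ks k - (a1 k0 k + a1 ks k0)) -
          (a1 ks ks - (a1 k0 ks + a1 ks k0))) (a1 ks ks)
      have t2 := abs_sub ((a1 k0 k - a1 k0 ks) + (a1 ks k - (a1 k0 k + a1 ks k0)))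
          (a1 ks ks - (a1 k0 ks + a1 ks k0))
      have t3 := abs_add_le (a1 k0 k - a1 k0 ks) (a1 ks k - (a1 k0 k + a1 ks k0))
      linarith)
  linarith

/-- **a pin whose fibre consists of good lines** -/
theorem good_pin {κ : Type} (G : RCfg κ) (hsub : G.I ⊆ G.L ×ˢ G.Z) (hne : G.I.Nonempty)
    (box box' : ℕ → ℕ → Finset ℕ) (bad : ℕ → ℕ → Prop) {w Lb Ub : ℝ}
    (hbox : ∀ i k, (i, k) ∈ G.I → ∀ l ∈ box i k, l ∈ G.L ∧ (l, k) ∈ G.I ∧ i ∈ box' l k)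
    (hb : ∀ i ∈ G.L, ∀ T ⊆ G.hts i, (∀ k ∈ T, bad i k) → (T.card : ℝ) ≤ w * ((G.hts i).card : ℝ))
    (hup : ∀ i k, (i, k) ∈ G.I → ((box' i k).card : ℝ) ≤ Ub)
    (hlow : ∀ i k, (i, k) ∈ G.I → Lb ≤ ((box i k).card : ℝ)) (hUb : 0 ≤ Ub)
    (hw : 2 * (w * Ub) < Lb) :
    ∃ i k, (i, k) ∈ G.I ∧ ∃ S0 ⊆ box i k, Lb ≤ 2 * (S0.card : ℝ) ∧ ∀ l ∈ S0, ¬ bad l k := by
  classical
  by_contra hcon
  push Not at hcon
  have hI0 : (0 : ℝ) < G.I.card := by exact_mod_cast hne.card_pos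
  -- many bad lines in each fibre
  have hbadf : ∀ p ∈ G.I, Lb / 2 ≤ (((box p.1 p.2).filter fun l => bad l p.2).card : ℝ) := by
    intro p hp
    by_contra h
    push Not at h
    have h1 := hlow p.1 p.2 hp
    have h2 : (((box p.1 p.2).filter fun l => bad l p.2).card : ℝ) +
        (((box p.1 p.2).filter fun l => ¬ bad l p.2).card : ℝ) = ((box p.1 p.2).card : ℝ) := by
      exact_mod_cast Finset.card_filter_add_card_filter_not (s := box p.1 p.2)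
        (fun l => bad l p.2)
    obtain ⟨l, hl1, hl2⟩ := hcon p.1 p.2 hp ((box p.1 p.2).filter fun l => ¬ bad l p.2)
      (Finset.filter_subset _ _) (by linarith)
    exact (Finset.mem_filter.1 hl1).2 hl2
  set Q := (G.I ×ˢ G.L).filter fun q => q.2 ∈ box q.1.1 q.1.2 ∧ bad q.2 q.1.2 with hQ
  have hQm : ∀ q, q ∈ Q ↔ (q.1 ∈ G.I ∧ q.2 ∈ G.L) ∧ q.2 ∈ box q.1.1 q.1.2 ∧ bad q.2 q.1.2 := by
    intro q
    rw [hQ, Finset.mem_filter, Finset.mem_product]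
  -- lower bound of `Q`
  have low : (G.I.card : ℝ) * (Lb / 2) ≤ (Q.card : ℝ) := by
    have e1 : Q.card = ∑ p ∈ G.I, (Q.filter fun q => q.1 = p).card :=
      Finset.card_eq_sum_card_fiberwise fun q hq => ((hQm q).1 hq).1.1
    have e2 : ∀ p ∈ G.I, Lb / 2 ≤ ((Q.filter fun q => q.1 = p).card : ℝ) := by
      intro p hp
      refine (hbadf p hp).trans ?_
      have : ((box p.1 p.2).filter fun l => bad l p.2).card ≤ (Q.filter fun q => q.1 = p).card := by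
        refine Finset.card_le_card_of_injOn (fun l => (p, l)) ?_ ?_
        · intro l hl
          obtain ⟨l1, l2⟩ := Finset.mem_filter.1 hl
          refine Finset.mem_coe.2 (Finset.mem_filter.2 ⟨(hQm _).2 ⟨⟨hp, ?_⟩, l1, l2⟩, rfl⟩)
          exact (hbox p.1 p.2 hp l l1).1
        · intro l _ l' _ h
          exact (Prod.mk.inj h).2
      exact_mod_cast this
    calc (G.I.card : ℝ) * (Lb / 2) = ∑ p ∈ G.I, Lb / 2 := by
          rw [Finset.sum_const, nsmul_eq_mul]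
      _ ≤ ∑ p ∈ G.I, ((Q.filter fun q => q.1 = p).card : ℝ) := Finset.sum_le_sum e2
      _ = (Q.card : ℝ) := by rw [e1]; push_cast; rfl
  -- upper bound of `Q`
  set Ib := G.I.filter fun p => bad p.1 p.2 with hIb
  have up : (Q.card : ℝ) ≤ (Ib.card : ℝ) * Ub := by
    have e1 : Q.card = ∑ p ∈ Ib, (Q.filter fun q => (q.2, q.1.2) = p).card :=
      Finset.card_eq_sum_card_fiberwise fun q hq => by
        obtain ⟨⟨q1, q2⟩, q3, q4⟩ := (hQm q).1 hq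
        exact Finset.mem_coe.2 (Finset.mem_filter.2
          ⟨(hbox q.1.1 q.1.2 q1 q.2 q3).2.1, q4⟩)
    have e2 : ∀ p ∈ Ib, ((Q.filter fun q => (q.2, q.1.2) = p).card : ℝ) ≤ Ub := by
      intro p hp
      have hpI := (Finset.mem_filter.1 hp).1
      refine le_trans ?_ (hup p.1 p.2 hpI)
      have : (Q.filter fun q => (q.2, q.1.2) = p).card ≤ (box' p.1 p.2).card := by
        refine Finset.card_le_card_of_injOn (fun q => q.1.1) ?_ ?_
        · intro q hq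
          obtain ⟨hq1, hq2⟩ := Finset.mem_filter.1 hq
          obtain ⟨⟨q1, q2⟩, q3, q4⟩ := (hQm q).1 hq1
          have := (hbox q.1.1 q.1.2 q1 q.2 q3).2.2
          rw [← hq2]
          exact this
        · intro q hq q' hq' h
          obtain ⟨_, hq2⟩ := Finset.mem_filter.1 (Finset.mem_coe.1 hq)
          obtain ⟨_, hq2'⟩ := Finset.mem_filter.1 (Finset.mem_coe.1 hq')
          have h3 : (q.2, q.1.2) = (q'.2, q'.1.2) := hq2.trans hq2'.symm
          obtain ⟨h4, h5⟩ := Prod.mk.inj h3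
          exact Prod.ext (Prod.ext h h5) h4
      exact_mod_cast this
    calc (Q.card : ℝ) = ∑ p ∈ Ib, ((Q.filter fun q => (q.2, q.1.2) = p).card : ℝ) := by
          rw [e1]; push_cast; rfl
      _ ≤ ∑ p ∈ Ib, Ub := Finset.sum_le_sum e2
      _ = (Ib.card : ℝ) * Ub := by rw [Finset.sum_const, nsmul_eq_mul]
  -- bad incidences
  have hbI : (Ib.card : ℝ) ≤ w * (G.I.card : ℝ) := by
    have e1 : Ib.card = ∑ i ∈ G.L, (Ib.filter fun p => p.1 = i).card :=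
      Finset.card_eq_sum_card_fiberwise fun p hp =>
        (Finset.mem_product.1 (hsub (Finset.mem_filter.1 hp).1)).1
    have e2 : G.I.card = ∑ i ∈ G.L, (G.I.filter fun p => p.1 = i).card :=
      Finset.card_eq_sum_card_fiberwise fun p hp => (Finset.mem_product.1 (hsub hp)).1
    have e3 : ∀ i ∈ G.L, ((Ib.filter fun p => p.1 = i).card : ℝ) ≤
        w * ((G.I.filter fun p => p.1 = i).card : ℝ) := by
      intro i hi
      have h1 : (G.I.filter fun p => p.1 = i).card = (G.hts i).card := by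
        symm
        refine Finset.card_bij (fun k _ => (i, k)) ?_ ?_ ?_
        · intro k hk
          exact Finset.mem_filter.2 ⟨(Finset.mem_filter.1 hk).2, rfl⟩
        · intro k _ k' _ h
          exact (Prod.mk.inj h).2
        · intro p hp
          obtain ⟨p1, p2⟩ := Finset.mem_filter.1 hp
          refine ⟨p.2, ?_, ?_⟩
          · refine Finset.mem_filter.2 ⟨(Finset.mem_product.1 (hsub p1)).2, ?_⟩
            rw [← p2]; exact p1
          · rw [← p2]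
      have h2 := hb i hi ((G.hts i).filter fun k => bad i k) (Finset.filter_subset _ _)
        (fun k hk => (Finset.mem_filter.1 hk).2)
      have h3 : (Ib.filter fun p => p.1 = i).card ≤ ((G.hts i).filter fun k => bad i k).card := by
        refine Finset.card_le_card_of_injOn (fun p => p.2) ?_ ?_
        · intro p hp
          obtain ⟨p1, p2⟩ := Finset.mem_filter.1 hp
          obtain ⟨p3, p4⟩ := Finset.mem_filter.1 p1
          refine Finset.mem_coe.2 (Finset.mem_filter.2 ⟨Finset.mem_filter.2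
            ⟨(Finset.mem_product.1 (hsub p3)).2, ?_⟩, ?_⟩)
          · rw [← p2]; exact p3
          · rw [← p2]; exact p4
        · intro p hp p' hp' h
          obtain ⟨_, p2⟩ := Finset.mem_filter.1 (Finset.mem_coe.1 hp)
          obtain ⟨_, p2'⟩ := Finset.mem_filter.1 (Finset.mem_coe.1 hp')
          exact Prod.ext (p2.trans p2'.symm) h
      have h3' : ((Ib.filter fun p => p.1 = i).card : ℝ) ≤
          (((G.hts i).filter fun k => bad i k).card : ℝ) := by exact_mod_cast h3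
      rw [h1]
      exact h3'.trans h2
    calc (Ib.card : ℝ) = ∑ i ∈ G.L, ((Ib.filter fun p => p.1 = i).card : ℝ) := by
          rw [e1]; push_cast; rfl
      _ ≤ ∑ i ∈ G.L, w * ((G.I.filter fun p => p.1 = i).card : ℝ) := Finset.sum_le_sum e3
      _ = w * (G.I.card : ℝ) := by rw [← Finset.mul_sum, e2]; push_cast; rfl
  have h1 : (G.I.card : ℝ) * (Lb / 2) ≤ w * (G.I.card : ℝ) * Ub :=
    low.trans (up.trans (mul_le_mul_of_nonneg_right hbI hUb))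
  have h2 : (G.I.card : ℝ) * (Lb / 2) ≤ (G.I.card : ℝ) * (w * Ub) := by linarith
  have h3 := le_of_mul_le_mul_left h2 hI0
  linarith

/-! ### pins which depend on `ε` -/

section pinE

variable {κ : Type} {B : Base} {G : ℕ → RCfg κ} {Leg : Set (κ → ℝ)} {ν : (κ → ℝ) → ℝ}
  {σ R D : ℝ}

/-- `two_heights_R` with pins which depend on `ε` -/
theorem two_heights_E (H : RUnif B G Leg ν D) (k0 : ℝ → ℕ → ℕ)
    (S0 : ℝ → ℕ → Finset ℕ) (p' pT r : κ → ℝ) (hp' : p' ∈ Leg) (hpT : pT ∈ Leg) (hr : r ∈ Leg)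
    (hTr : ∀ j, pT j ≤ r j) (Zg : ℕ → Finset ℕ)
    (hZg : ∀ᶠ n in (U : Filter ℕ), (Zg n).Nonempty) {a C1 : ℝ} (hC1 : 0 < C1)
    (hS0 : ∀ ε : ℝ, 0 < ε → ∀ᶠ n in (U : Filter ℕ), ∀ i ∈ S0 ε n, (i, k0 ε n) ∈ (G n).I)
    (hcard : ∀ ε : ℝ, 0 < ε → ∀ᶠ n in (U : Filter ℕ),
      B.d n ^ (-a + C1 * ε) ≤ ((S0 ε n).card : ℝ))
    (good : ℝ → ℕ → ℕ → ℕ → Prop)
    (hal : ∀ ε : ℝ, 0 < ε → ∀ᶠ n in (U : Filter ℕ), ∀ i ∈ S0 ε n,
      ∀ T ⊆ Zg n, (∀ k ∈ Zg n, (i, k) ∈ (G n).I → good ε n i k → k ∈ T) →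
      B.d n ^ (C1 * ε) * ((Zg n).card : ℝ) ≤ (T.card : ℝ))
    (hT : ∀ ε : ℝ, 0 < ε → ∀ᶠ n in (U : Filter ℕ), ∀ k ∈ Zg n,
      ∀ i ∈ S0 ε n, ∀ i' ∈ S0 ε n, (i, k) ∈ (G n).I → (i', k) ∈ (G n).I →
      (G n).loose pT (C1 * ε) k i i')
    (hgeo : ∀ C2 : ℝ, 0 < C2 → ∃ C3 : ℝ, 0 < C3 ∧ ∀ ε : ℝ, 0 < ε → ∀ᶠ n in (U : Filter ℕ),
      ∀ k ∈ Zg n, ∀ i ∈ S0 ε n, ∀ i' ∈ S0 ε n, (i, k) ∈ (G n).I → (i', k) ∈ (G n).I →
        good ε n i k → good ε n i' k → (G n).loose r (C2 * ε) k i i' →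
        (G n).loose p' (C3 * ε) (k0 ε n) i i') :
    a - ν p' ≤ ν pT - ν r := by
  classical
  have hex : ∀ ε : ℝ, 0 < ε → ∀ᶠ n in (U : Filter ℕ), ∃ k ∈ Zg n,
      B.d n ^ (C1 * ε) * ((S0 ε n).card : ℝ) ≤
        (((S0 ε n).filter fun i => (i, k) ∈ (G n).I ∧ good ε n i k).card : ℝ) := by
    intro ε hε
    filter_upwards [hZg, hal ε hε] with n hZn haln
    refine pick_height (S0 ε n) (Zg n) (fun i k => (i, k) ∈ (G n).I ∧ good ε n i k) hZn ?_
    intro i hi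
    refine haln i hi _ (Finset.filter_subset _ _) ?_
    intro k hk h1 h2
    exact Finset.mem_filter.2 ⟨hk, h1, h2⟩
  let k1 : ℝ → ℕ → ℕ := fun ε n => if h : ∃ k ∈ Zg n,
      B.d n ^ (C1 * ε) * ((S0 ε n).card : ℝ) ≤
        (((S0 ε n).filter fun i => (i, k) ∈ (G n).I ∧ good ε n i k).card : ℝ) then h.choose else 0
  have hk1 : ∀ ε : ℝ, 0 < ε → ∀ᶠ n in (U : Filter ℕ), k1 ε n ∈ Zg n ∧
      B.d n ^ (C1 * ε) * ((S0 ε n).card : ℝ) ≤
        (((S0 ε n).filter fun i => (i, k1 ε n) ∈ (G n).I ∧ good ε n i (k1 ε n)).card : ℝ) := by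
    intro ε hε
    filter_upwards [hex ε hε] with n hn
    have e : k1 ε n = hn.choose := dif_pos hn
    rw [e]
    exact hn.choose_spec
  set S : ℝ → ℕ → Finset ℕ := fun ε n =>
    (S0 ε n).filter fun i => (i, k1 ε n) ∈ (G n).I ∧ good ε n i (k1 ε n) with hS
  have hmem : ∀ {ε : ℝ} {n i : ℕ}, i ∈ S ε n → i ∈ S0 ε n ∧ (i, k1 ε n) ∈ (G n).I ∧
      good ε n i (k1 ε n) := fun h => by
    obtain ⟨a1, a2, a3⟩ := Finset.mem_filter.1 h
    exact ⟨a1, a2, a3⟩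
  refine two_heights H k0 k1 S p' pT r hp' hpT hr hTr (C := C1 + C1)
    (by positivity) ?_ ?_ ?_ ?_ ?_
  · intro ε hε
    filter_upwards [hS0 ε hε] with n hn i hi
    exact hn i (hmem hi).1
  · intro ε hε
    exact Filter.Eventually.of_forall fun n i hi => (hmem hi).2.1
  · intro ε hε
    filter_upwards [hk1 ε hε, hcard ε hε] with n h1 h2
    calc B.d n ^ (-a + (C1 + C1) * ε) = B.d n ^ (C1 * ε) * B.d n ^ (-a + C1 * ε) := by
          rw [← rpow_add']; congr 1; ring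
      _ ≤ B.d n ^ (C1 * ε) * ((S0 ε n).card : ℝ) :=
          mul_le_mul_of_nonneg_left h2 (rpos B n _).le
      _ ≤ _ := h1.2
  · intro ε hε
    filter_upwards [hk1 ε hε, hT ε hε] with n h1 h2 i hi i' hi'
    exact H.loose_mono (fun _ => le_rfl) (by nlinarith)
      (h2 _ h1.1 i (hmem hi).1 i' (hmem hi').1 (hmem hi).2.1 (hmem hi').2.1)
  · intro C2 hC2
    obtain ⟨C3, hC3, hg⟩ := hgeo C2 hC2
    refine ⟨C3, hC3, fun ε hε => ?_⟩
    filter_upwards [hk1 ε hε, hg ε hε] with n h1 h2 i hi i' hi' hr'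
    exact h2 _ h1.1 i (hmem hi).1 i' (hmem hi').1 (hmem hi).2.1 (hmem hi').2.1
      (hmem hi).2.2 (hmem hi').2.2 hr'

end pinE

section dtie

open Crest.Agent.R116.EvL504 (evoS LvS SL)
open Crest.Agent.R116.Kr710 (LLaw)

variable {B : Base} {G : ℕ → RCfg (Fin 12)} {Leg : Set (Fin 12 → ℝ)} {ν : (Fin 12 → ℝ) → ℝ}
  {σ R D x0 : ℝ} {S : Finset (Fin 12)} {own : ℕ → ℕ → ℕ → ℕ → Fin 12 → ℝ}

/-- **composition of the own motions of one line**, slots `1`, `2` -/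
def OwnCoc (B : Base) (G : ℕ → RCfg (Fin 12)) (own : ℕ → ℕ → ℕ → ℕ → Fin 12 → ℝ) (x0 : ℝ) :
    Prop :=
  ∀ ε : ℝ, 0 < ε → ∀ᶠ n in (U : Filter ℕ), ∀ i k0 k1 k, (i, k0) ∈ (G n).I → (i, k1) ∈ (G n).I →
    (i, k) ∈ (G n).I →
    |own n i k1 k 1 - (own n i k0 k 1 + own n i k1 k0 1)| ≤ B.d n ^ (x0 - ε) ∧
    |own n i k1 k 2 - (own n i k0 k 2 + own n i k1 k0 2 -
      2 * (own n i k0 k 1 * own n i k1 k0 0))| ≤ B.d n ^ (x0 - ε)

/-- **pins at a D-tie** -/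
theorem d_pin (H : RModel B G σ R Leg ν D) (hσ : 0 < σ) (hR : 0 < R) (hx0 : 0 < x0)
    (L : LLaw B G S own x0) (hoc : OwnCoc B G own x0) {γ x1 : ℝ} (hγ : 0 < γ) (hx1 : 0 < x1)
    (hO : OwnThin B G own 1 γ x1) {pS : Fin 12 → ℝ} (hpS : pS ∈ Leg) :
    ∃ C1 : ℝ, 2 ≤ C1 ∧ ∃ e0 : ℝ, 0 < e0 ∧ ∀ ε : ℝ, 0 < ε → ε ≤ e0 → ∀ᶠ n in (U : Filter ℕ),
      ∃ i0 k0, (i0, k0) ∈ (G n).I ∧ ∃ S0 ⊆ (G n).box pS ε i0 k0,
        B.d n ^ (-ν pS + C1 * ε) ≤ (S0.card : ℝ) ∧ ∀ i ∈ S0, ∀ T ⊆ (G n).Z,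
        (∀ k ∈ (G n).Z, (i, k) ∈ (G n).I → B.d n ^ (C1 * ε) ≤ |own n i k0 k 2| → k ∈ T) →
        B.d n ^ (C1 * ε) * ((G n).Z.card : ℝ) ≤ (T.card : ℝ) := by
  classical
  have hD := H.D1
  have hU := H.toRUnif
  obtain ⟨Cw, hCw⟩ : ∃ Cw : ℝ, Cw = D * D + 2 := ⟨_, rfl⟩
  obtain ⟨c1, hc1⟩ : ∃ c1 : ℝ, c1 = (Cw + 2) / σ := ⟨_, rfl⟩
  obtain ⟨g1, hg1⟩ : ∃ g1 : ℝ, g1 = 4 / γ := ⟨_, rfl⟩
  obtain ⟨c2, hc2⟩ : ∃ c2 : ℝ, c2 = g1 + c1 + 1 := ⟨_, rfl⟩
  have hCw0 : 3 ≤ Cw := by nlinarith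
  have hc10 : 5 ≤ c1 := by
    rw [hc1, le_div_iff₀ hσ]
    have := H.σ_le
    nlinarith
  have hσc : σ * c1 = Cw + 2 := by rw [hc1]; field_simp
  have hg10 : 0 < g1 := by rw [hg1]; positivity
  have hγg : γ * g1 = 4 := by rw [hg1]; field_simp
  have hc20 : 6 ≤ c2 := by linarith
  refine ⟨c2, by linarith, min (x1 / g1) (min (R / c1) (x0 / (c2 + 1))),
    lt_min (by positivity) (lt_min (by positivity) (by positivity)), fun ε hε hεe => ?_⟩
  have e1 : g1 * ε ≤ x1 := by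
    have := hεe.trans (min_le_left _ _)
    rw [le_div_iff₀ hg10] at this
    linarith
  have e2 : c1 * ε ≤ R := by
    have := hεe.trans ((min_le_right _ _).trans (min_le_left _ _))
    rw [le_div_iff₀ (by linarith)] at this
    linarith
  have e3 : (c2 + 1) * ε ≤ x0 := by
    have := hεe.trans ((min_le_right _ _).trans (min_le_right _ _))
    rw [le_div_iff₀ (by linarith)] at this
    linarith
  have hDε : 0 < D * ε := by positivity
  filter_upwards [H.line ε hε, hO (g1 * ε) (by positivity) e1 ε hε,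
    H.frost (c1 * ε) (by positivity) e2 ε hε, ev_const_le B hε 9, L.own0 ε hε, hoc ε hε,
    H.low pS hpS ε hε, H.up pS hpS (D * ε) hDε, H.symm pS hpS ε hε]
    with n hline hthin hfrost h9 hown0 hocn hlow hup hsymm
  have hpow : ∀ t : ℝ, 0 < B.d n ^ t := fun t => rpos B n t
  have gain : ∀ t : ℝ, 9 * B.d n ^ (t + ε) ≤ B.d n ^ t := by
    intro t
    have e : B.d n ^ t = B.d n ^ (-ε) * B.d n ^ (t + ε) := by
      rw [← rpow_add']; congr 1; ring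
    rw [e]
    exact mul_le_mul_of_nonneg_right h9 (hpow _).le
  obtain ⟨⟨iq, kq⟩, hIq⟩ := H.nonempty n
  have hZ0 : (0 : ℝ) < ((G n).Z.card : ℝ) := by
    exact_mod_cast Finset.card_pos.2 ⟨kq, H.memZ hIq⟩
  -- the pins of one line
  set bad : ℕ → ℕ → Prop := fun i k0 => 2 * (((G n).hts i).card : ℝ) <
      3 * ((((G n).hts i).filter fun k => |own n i k0 k 2| ≤ B.d n ^ (c2 * ε)).card : ℝ) with hbad
  have hbl : ∀ i ∈ (G n).L, ∀ T ⊆ (G n).hts i, (∀ k ∈ T, bad i k) →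
      (T.card : ℝ) ≤ B.d n ^ (Cw * ε) * (((G n).hts i).card : ℝ) := by
    intro i hi T hT hTb
    have hA := hline i hi
    have hAm : ∀ k ∈ (G n).hts i, k ∈ (G n).Z ∧ (i, k) ∈ (G n).I := fun k hk => RCfg.mem_hts.1 hk
    have hlp := line_pins ((G n).hts i) (G n).z (fun k0 k => own n i k0 k 0)
      (fun k0 k => own n i k0 k 1) (fun k0 k => own n i k0 k 2) (η := B.d n ^ (x0 - ε))
      (θ := B.d n ^ (c2 * ε)) (θ1 := B.d n ^ (g1 * ε)) (d := B.d n ^ (c1 * ε))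
      (q := B.d n ^ (γ * (g1 * ε) - ε) * ((G n).Z.card : ℝ))
      (f := B.d n ^ (σ * (c1 * ε) - ε) * ((G n).Z.card : ℝ)) (hpow _).le (hpow _).le (hpow _)
      ?_ ?_ ?_ ?_ ?_ ?_ ?_ ?_ ?_
    · have h1 : (T.card : ℝ) ≤ ((((G n).hts i).filter fun k0 => 2 * (((G n).hts i).card : ℝ) <
          3 * ((((G n).hts i).filter fun k => |own n i k0 k 2| ≤ B.d n ^ (c2 * ε)).card : ℝ)).card :
          ℝ) := by
        refine Nat.cast_le.2 (Finset.card_le_card fun k hk => Finset.mem_filter.2 ⟨hT hk, ?_⟩)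
        exact hTb k hk
      refine h1.trans (hlp.trans ?_)
      have h2 : B.d n ^ (σ * (c1 * ε) - ε) = B.d n ^ (Cw * ε) * B.d n ^ ε := by
        rw [← rpow_add']
        congr 1
        rw [← mul_assoc, hσc]; ring
      rw [h2, mul_assoc]
      exact mul_le_mul_of_nonneg_left hA (hpow _).le
    · -- 2 η ≤ d
      have h1 : B.d n ^ (x0 - ε) ≤ B.d n ^ (c1 * ε + ε) := rpow_anti B n (by nlinarith)
      have h2 := gain (c1 * ε)
      have := hpow (c1 * ε + ε)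
      linarith
    · intro k1 hk1 k0 hk0
      exact hown0 i k1 k0 (hAm k1 hk1).2 (hAm k0 hk0).2
    · intro k0 hk0 k1 hk1 k hk
      exact (hocn i k0 k1 k (hAm k0 hk0).2 (hAm k1 hk1).2 (hAm k hk).2).1
    · intro k0 hk0 k1 hk1 k hk
      exact (hocn i k0 k1 k (hAm k0 hk0).2 (hAm k1 hk1).2 (hAm k hk).2).2
    · -- θ1
      have h1 : B.d n ^ (x0 - ε) ≤ B.d n ^ (c2 * ε) := rpow_anti B n (by nlinarith)
      have h2 : (4 * B.d n ^ (c2 * ε) + 2 * B.d n ^ (x0 - ε)) / B.d n ^ (c1 * ε) ≤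
          6 * B.d n ^ (g1 * ε + ε) := by
        rw [div_le_iff₀ (hpow _)]
        have e : 6 * B.d n ^ (g1 * ε + ε) * B.d n ^ (c1 * ε) = 6 * B.d n ^ (c2 * ε) := by
          rw [mul_assoc, ← rpow_add', hc2]
          congr 2; ring
        rw [e]; linarith
      have h3 : B.d n ^ (x0 - ε) ≤ B.d n ^ (g1 * ε + ε) := rpow_anti B n (by nlinarith)
      have h4 := gain (g1 * ε)
      linarith
    · intro k0 hk0 T' hT' hTt
      refine hthin i k0 (hAm k0 hk0).2 T' (fun k hk => (hAm k (hT' hk)).1) ?_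
      intro k hk
      exact ⟨(hAm k (hT' hk)).2, hTt k hk⟩
    · -- 3 q < |A|
      have h1 : B.d n ^ (γ * (g1 * ε) - ε) ≤ B.d n ^ (ε + ε) := rpow_anti B n (by
        rw [← mul_assoc, hγg]; linarith)
      have h2 := gain ε
      have h3 : 9 * (B.d n ^ (γ * (g1 * ε) - ε) * ((G n).Z.card : ℝ)) ≤
          (((G n).hts i).card : ℝ) := by
        refine le_trans ?_ hA
        rw [← mul_assoc]
        exact mul_le_mul_of_nonneg_right (by linarith) hZ0.le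
      have h4 : 0 < B.d n ^ (γ * (g1 * ε) - ε) * ((G n).Z.card : ℝ) := mul_pos (hpow _) hZ0
      linarith
    · intro k0 hk0 T' hT' hTt
      refine le_trans ?_ (hfrost k0 (hAm k0 hk0).1)
      refine Nat.cast_le.2 (Finset.card_le_card fun k hk => ?_)
      unfold RCfg.hbox
      refine Finset.mem_filter.2 ⟨(hAm k (hT' hk)).1, ?_⟩
      rw [H.base n]
      exact hTt k hk
    · exact (mul_pos (hpow _) hZ0).le
  -- the pin
  obtain ⟨i0, k0, hI0, S0, hS0, hS0c, hS0b⟩ := good_pin (G n) (H.sub n) (H.nonempty n)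
    (fun i k => (G n).box pS ε i k) (fun i k => (G n).box pS (D * ε) i k) bad
    (w := B.d n ^ (Cw * ε)) (Lb := B.d n ^ (-ν pS + ε)) (Ub := B.d n ^ (-ν pS - D * (D * ε)))
    (by
      intro i k hik l hl
      obtain ⟨l1, l2⟩ := RCfg.mem_box.1 hl
      have l3 := H.memSlice.1 l1
      refine ⟨(RCfg.mem_slice.1 l1).1, l3, RCfg.mem_box.2 ⟨H.memSlice.2 hik, ?_⟩⟩
      exact hsymm k i l hik l3 l2)
    hbl (fun i k hik => hup i k hik) (fun i k hik => hlow i k hik) (hpow _).le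
    (by
      have h1 : B.d n ^ (Cw * ε) * B.d n ^ (-ν pS - D * (D * ε)) =
          B.d n ^ (-ν pS + ε + ε) := by
        rw [← rpow_add', hCw]; congr 1; ring
      rw [h1]
      have h2 := gain (-ν pS + ε)
      have := hpow (-ν pS + ε + ε)
      linarith)
  refine ⟨i0, k0, hI0, S0, hS0, ?_, ?_⟩
  · have h1 : B.d n ^ (-ν pS + c2 * ε) ≤ B.d n ^ (-ν pS + ε + ε) := rpow_anti B n (by nlinarith)
    have h2 := gain (-ν pS + ε)
    have := hpow (-ν pS + ε)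
    linarith
  · intro i hi T hT hTk
    have hnb := hS0b i hi
    have hib := RCfg.mem_box.1 (hS0 hi)
    have hiL : i ∈ (G n).L := (RCfg.mem_slice.1 hib.1).1
    have hA := hline i hiL
    rw [hbad] at hnb
    simp only [not_lt] at hnb
    have h2 : ((((G n).hts i).filter fun k => |own n i k0 k 2| ≤ B.d n ^ (c2 * ε)).card : ℝ) +
        ((((G n).hts i).filter fun k => ¬ |own n i k0 k 2| ≤ B.d n ^ (c2 * ε)).card : ℝ) =
        (((G n).hts i).card : ℝ) := by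
      exact_mod_cast Finset.card_filter_add_card_filter_not (s := (G n).hts i)
        (fun k => |own n i k0 k 2| ≤ B.d n ^ (c2 * ε))
    have h3 : ((((G n).hts i).filter fun k => ¬ |own n i k0 k 2| ≤ B.d n ^ (c2 * ε)).card : ℝ) ≤
        (T.card : ℝ) := by
      refine Nat.cast_le.2 (Finset.card_le_card fun k hk => ?_)
      obtain ⟨q1, q2⟩ := Finset.mem_filter.1 hk
      obtain ⟨q3, q4⟩ := RCfg.mem_hts.1 q1
      exact hTk k q3 q4 (not_le.1 q2).le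
    have h4 : B.d n ^ (c2 * ε) ≤ B.d n ^ (ε + ε) := rpow_anti B n (by nlinarith)
    have h5 := gain ε
    have h6 : 9 * (B.d n ^ (c2 * ε) * ((G n).Z.card : ℝ)) ≤ (((G n).hts i).card : ℝ) := by
      refine le_trans ?_ hA
      rw [← mul_assoc]
      exact mul_le_mul_of_nonneg_right (by linarith) hZ0.le
    have h7 : 0 < B.d n ^ (c2 * ε) * ((G n).Z.card : ℝ) := mul_pos (hpow _) hZ0
    linarith

/-- `twist_core` with pins which depend on `ε` -/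
theorem twist_core_E (H : RModel B G σ R Leg ν D) (L : LLaw B G S own x0) (i0 k0 : ℝ → ℕ → ℕ)
    (h0 : ∀ ε : ℝ, 0 < ε → ∀ᶠ n in (U : Filter ℕ), (i0 ε n, k0 ε n) ∈ (G n).I)
    (pS p' pT r : Fin 12 → ℝ)
    (hpS : pS ∈ Leg) (hp' : p' ∈ Leg) (hpT : pT ∈ Leg) (hr : r ∈ Leg) (hTr : ∀ j, pT j ≤ r j)
    (hlow : Low S pS pT x0) (τ : ℕ → ℕ → ℕ → ℕ → ℝ) {C1 : ℝ} (hC1 : 2 ≤ C1)
    (S0 : ℝ → ℕ → Finset ℕ)
    (hS0 : ∀ ε : ℝ, 0 < ε → ∀ᶠ n in (U : Filter ℕ), S0 ε n ⊆ (G n).box pS ε (i0 ε n) (k0 ε n))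
    (hcard : ∀ ε : ℝ, 0 < ε → ∀ᶠ n in (U : Filter ℕ),
      B.d n ^ (-ν pS + C1 * ε) ≤ ((S0 ε n).card : ℝ))
    (hal : ∀ ε : ℝ, 0 < ε → ∀ᶠ n in (U : Filter ℕ), ∀ i ∈ S0 ε n, ∀ T ⊆ (G n).Z,
      (∀ k ∈ (G n).Z, (i, k) ∈ (G n).I → B.d n ^ (C1 * ε) ≤ |τ n i (k0 ε n) k| → k ∈ T) →
      B.d n ^ (C1 * ε) * ((G n).Z.card : ℝ) ≤ (T.card : ℝ))
    {m : ℕ} {K0 : ℝ} (hsep : ∀ i1 k1 : ℕ → ℕ, (∀ᶠ n in (U : Filter ℕ), (i1 n, k1 n) ∈ (G n).I) →
      Sep B G pS p' r i1 k1 (fun n i k => τ n i (k1 n) k) K0 m) :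
    ν pS - ν p' ≤ ν pT - ν r := by
  classical
  have hD := H.D1
  have hU := H.toRUnif
  obtain ⟨M, hM⟩ : ∃ M : ℝ, M = 3 * (D * D + 1) + C1 := ⟨_, rfl⟩
  have hM0 : C1 ≤ M := by nlinarith
  refine two_heights_E hU k0 S0 p' pT r hp' hpT hr hTr (fun n => (G n).Z)
    (Eventually.of_forall fun n => ?_) (a := ν pS) (C1 := M) (by linarith) ?_ ?_
    (fun ε n i k => B.d n ^ (C1 * ε) ≤ |τ n i (k0 ε n) k|) ?_ ?_ ?_
  · obtain ⟨⟨i1, k1⟩, hI1⟩ := H.nonempty n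
    exact ⟨k1, H.memZ hI1⟩
  · intro ε hε
    filter_upwards [hS0 ε hε] with n hn i hi
    exact H.memSlice.1 (RCfg.box_subset_slice (hn hi))
  · intro ε hε
    filter_upwards [hcard ε hε] with n hn
    exact (rpow_anti B n (by nlinarith)).trans hn
  · intro ε hε
    filter_upwards [hal ε hε] with n hn i hi T hT1 hT2
    refine le_trans ?_ (hn i hi T hT1 hT2)
    exact mul_le_mul_of_nonneg_right (rpow_anti B n (by nlinarith)) (Nat.cast_nonneg _)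
  · intro ε hε
    filter_upwards [hS0 ε hε, exists_Ev hU L (h0 ε hε) hpS (le_refl (D * D + 1)) hε]
      with n hn hEv k hk i hi l hl h1 h2 j
    have := (hEv k i (hn hi) l (hn hl) h1 h2).low (B.pos n) (B.lt n).le L.S0 hlow j
    rw [H.base n]
    refine this.trans ?_
    rw [pow_eps]
    refine rpow_anti B n ?_
    push_cast
    nlinarith
  · intro C2 hC2
    obtain ⟨K, hK⟩ : ∃ K : ℝ, K = |K0| + C1 + C2 + 1 := ⟨_, rfl⟩
    have hK0 : K0 ≤ K := by linarith [le_abs_self K0]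
    have hKp : 0 < K := by linarith [abs_nonneg K0]
    refine ⟨(m : ℝ) * K + 1, by positivity, fun ε hε => ?_⟩
    filter_upwards [hS0 ε hε, hsep (i0 ε) (k0 ε) (h0 ε hε) K hK0 ε hε]
      with n hn hsn k hk i hi l hl h1 h2 g1 g2 hlr j
    have a1 : (B.d n ^ (-(K * ε)))⁻¹ ≤ |τ n i (k0 ε n) k| := by
      refine le_trans ?_ g1
      rw [← Real.rpow_neg (B.pos n).le, neg_neg]
      exact rpow_anti B n (by nlinarith [abs_nonneg K0])
    have a2 : ∀ s, |(G n).rel k i l s| ≤ B.d n ^ r s * B.d n ^ (-(K * ε)) := by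
      intro s
      have := hlr s
      rw [H.base n] at this
      refine this.trans ?_
      rw [← rpow_add']
      exact rpow_anti B n (by nlinarith [abs_nonneg K0])
    have := hsn k i (hn hi) l (hn hl) h1 h2 a1 a2 j
    rw [H.base n]
    refine this.trans ?_
    rw [pow_eps]
    exact rpow_anti B n (by nlinarith)

/-- **(W3k), D-tie: `m ≤ w`.**  Level slots `{0, 1, 2}`, linear modulus of the own motion of the slot
`1`; the pin is chosen. -/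
theorem w3_d (H : RModel B G σ R Leg ν D) (hσ : 0 < σ) (hR : 0 < R) (L : LLaw B G S own x0)
    (hx0 : 0 < x0) (m2 : (2 : Fin 12) ∈ S) (m7 : (7 : Fin 12) ∉ S) (m8 : (8 : Fin 12) ∉ S)
    (hoc : OwnCoc B G own x0) {γ x1 : ℝ} (hγ : 0 < γ) (hx1 : 0 < x1)
    (hO : OwnThin B G own 1 γ x1)
    (pS p' pT r : Fin 12 → ℝ) (hpS : pS ∈ Leg) (hp' : p' ∈ Leg) (hpT : pT ∈ Leg) (hr : r ∈ Leg)
    (hTr : ∀ j, pT j ≤ r j) (hlow : Low S pS pT x0) {y : ℝ} (hy : y ≤ x0) (hS5 : y ≤ pS 5)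
    (hS6 : y ≤ pS 6) (hS7 : y ≤ pS 7) (hS8 : y ≤ pS 8) (hr7 : y ≤ r 7) (hr8 : y ≤ r 8)
    (hp3 : p' 3 ≤ y) (hp4 : p' 4 ≤ y) (hp : ∀ s, s ≠ 3 → s ≠ 4 → p' s ≤ pS s) :
    ν pS - ν p' ≤ ν pT - ν r := by
  classical
  obtain ⟨C1, hC1, e0, he0, hd⟩ := d_pin H hσ hR hx0 L hoc hγ hx1 hO hpS
  set e' : ℝ → ℝ := fun ε => min ε e0 with he'
  have p1 : ∀ ε : ℝ, 0 < ε → 0 < e' ε := fun ε hε => lt_min hε he0
  have p2 : ∀ ε : ℝ, e' ε ≤ ε := fun ε => min_le_left _ _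
  have p3 : ∀ ε : ℝ, e' ε ≤ e0 := fun ε => min_le_right _ _
  -- the statement chosen at `e' ε`
  let P : ℝ → ℕ → ℕ × ℕ × Finset ℕ → Prop := fun ε n q => (q.1, q.2.1) ∈ (G n).I ∧
    q.2.2 ⊆ (G n).box pS ε q.1 q.2.1 ∧ B.d n ^ (-ν pS + C1 * ε) ≤ (q.2.2.card : ℝ) ∧
    ∀ i ∈ q.2.2, ∀ T ⊆ (G n).Z,
      (∀ k ∈ (G n).Z, (i, k) ∈ (G n).I → B.d n ^ (C1 * ε) ≤ |own n i q.2.1 k 2| → k ∈ T) →
      B.d n ^ (C1 * ε) * ((G n).Z.card : ℝ) ≤ (T.card : ℝ)
  let q : ℝ → ℕ → ℕ × ℕ × Finset ℕ := fun ε n =>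
    if h : ∃ q, P (e' ε) n q then h.choose else (0, 0, ∅)
  have hq : ∀ ε : ℝ, 0 < ε → ∀ᶠ n in (U : Filter ℕ), P (e' ε) n (q ε n) := by
    intro ε hε
    filter_upwards [hd (e' ε) (p1 ε hε) (p3 ε)] with n hn
    obtain ⟨i0, k0, h1, S0, h2, h3, h4⟩ := hn
    have hex : ∃ q, P (e' ε) n q := ⟨(i0, k0, S0), h1, h2, h3, h4⟩
    have e : q ε n = hex.choose := dif_pos hex
    rw [e]
    exact hex.choose_spec
  refine twist_core_E H L (fun ε n => (q ε n).1) (fun ε n => (q ε n).2.1) ?_ pS p' pT r hpS hp'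
    hpT hr hTr hlow (fun n i k0 k => own n i k0 k 2) hC1 (fun ε n => (q ε n).2.2) ?_ ?_ ?_
    (fun i1 k1 h1 => sep_w3k H.toRUnif L m2 m7 m8 h1 hpS hy hS5 hS6 hS7 hS8 hr7 hr8 hp3 hp4 hp)
  · intro ε hε
    filter_upwards [hq ε hε] with n hn
    exact hn.1
  · intro ε hε
    filter_upwards [hq ε hε] with n hn i hi
    obtain ⟨a1, a2⟩ := RCfg.mem_box.1 (hn.2.1 hi)
    exact RCfg.mem_box.2 ⟨a1, H.loose_mono (fun _ => le_rfl) (p2 ε) a2⟩
  · intro ε hε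
    filter_upwards [hq ε hε] with n hn
    refine (rpow_anti B n ?_).trans hn.2.2.1
    have := p2 ε
    nlinarith
  · intro ε hε
    filter_upwards [hq ε hε] with n hn i hi T hT1 hT2
    have h1 : B.d n ^ (C1 * ε) ≤ B.d n ^ (C1 * e' ε) := rpow_anti B n (by
      have := p2 ε
      nlinarith)
    refine le_trans (mul_le_mul_of_nonneg_right h1 (Nat.cast_nonneg _))
      (hn.2.2.2 i hi T hT1 fun k hk hik ht => hT2 k hk hik (h1.trans ht))

end dtie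

end Crest.Agent.R116.KW420
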