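import Crest.Agent.R116.KW4_420
import Crest.Agent.R116.EvL6_504

/-!
# R116, K-TEXT II-c, section 1, facts (W2), (W3), part 5: dropped slot `1`, own composition (helper420)

* `w3_e0`, `w2_e0` : `w3_e`, `w2_e` for windows with the slot `1` dropped (`1 ∈ S`, own motion `0`:
  504's `drop 1`, `ownL0`).
* `ownCoc_of` : `OwnCoc` for `W.cfg E`, `ownL W` (input of `w3_d`).
-/

set_option autoImplicit false
set_option linter.unusedVariables false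
set_option linter.unusedSectionVars false

open Filter Topology Finset

namespace Crest.Agent.R116.KW420

open Crest.Agent.R138.Ex926 (Base U)
open Crest.Agent.R136.Gf356

section drop

open Crest.Agent.R116.EvL504 (evoS LvS LnS hgt comp SL)
open Crest.Agent.R116.Kr710 (LLaw)

variable {B : Base} {G : ℕ → RCfg (Fin 12)} {Leg : Set (Fin 12 → ℝ)} {ν : (Fin 12 → ℝ) → ℝ}
  {σ R D x0 : ℝ} {S : Finset (Fin 12)} {own : ℕ → ℕ → ℕ → ℕ → Fin 12 → ℝ}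

/-- slots which stay fine, slot `1` dropped -/
def Low0 (S : Finset (Fin 12)) (pS pT : Fin 12 → ℝ) (x0 : ℝ) : Prop :=
  ∀ j, j ∈ S ∨ pT j ≤ 0 ∨ (j = 2 ∧ pT j ≤ pS 2 ∧ pT j ≤ x0)

theorem Ev.low0 {pS pT : Fin 12 → ℝ} {ρ β : ℝ} {a c w : Fin 12 → ℝ} (hρ : 0 < ρ) (hρ1 : ρ ≤ 1)
    (h : Ev S pS ρ x0 β a c w) (m1 : (1 : Fin 12) ∈ S) (ha : a 1 = 0)
    (hL : Low0 S pS pT x0) (j : Fin 12) : |w j| ≤ ρ ^ pT j * β ^ 3 := by
  have hβ := h.β8
  have hβ0 : 0 < β := by linarith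
  have p := fun t : ℝ => Real.rpow_pos_of_pos hρ t
  have mono : ∀ {s t : ℝ}, s ≤ t → ρ ^ t ≤ ρ ^ s := fun hst =>
    Real.rpow_le_rpow_of_exponent_ge hρ hρ1 hst
  by_cases hjS : j ∈ S
  · rw [h.wS j hjS, abs_zero]
    have := p (pT j)
    positivity
  rcases hL j with h1 | h1 | ⟨rfl, h1, h2⟩
  · exact absurd h1 hjS
  · refine (h.w1 j).trans ?_
    have e1 : (1 : ℝ) ≤ ρ ^ pT j := by
      have := mono h1
      rwa [Real.rpow_zero] at this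
    have q1 : β ≤ β ^ 3 := by nlinarith [sq_nonneg β, mul_pos hβ0 hβ0]
    nlinarith
  · have e1 := h.e 2 hjS
    have hc : c 1 = 0 := h.cS 1 m1
    have e0 : evoS S a c 2 = c 2 := by
      simp [evoS, comp, LvS, LnS, hgt, m1, hjS, ha]
    rw [e0] at e1
    have e2 := h.cb 2
    have e3 : |w 2| ≤ |w 2 - c 2| + |c 2| := by
      have := abs_add_le (w 2 - c 2) (c 2)
      rwa [sub_add_cancel] at this
    have e4 := mul_le_mul_of_nonneg_right (mono h1) hβ0.le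
    have e5 := mul_le_mul_of_nonneg_right (mono h2) hβ0.le
    have e6 : 2 * β ≤ β ^ 3 := by nlinarith [mul_pos hβ0 hβ0]
    have e7 := mul_le_mul_of_nonneg_left e6 (p (pT 2)).le
    linarith

theorem sep_w30 (H : RUnif B G Leg ν D) (L : LLaw B G S own x0) {u v : ℕ → ℝ}
    (T : Dir B G own u v x0) (m7 : (7 : Fin 12) ∈ S) (m8 : (8 : Fin 12) ∈ S)
    (z1 : ∀ n i k0 k, own n i k0 k 1 = 0) (m2 : (2 : Fin 12) ∉ S) {i0 k0 : ℕ → ℕ}
    (h0 : ∀ᶠ n in (U : Filter ℕ), (i0 n, k0 n) ∈ (G n).I) {pS p' r : Fin 12 → ℝ} (hpS : pS ∈ Leg)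
    {y : ℝ} (hy : y ≤ x0) (hS10 : y ≤ pS 10) (hr10 : y ≤ r 10) (hp3 : p' 3 ≤ y)
    (hp4 : p' 4 ≤ y) (hp : ∀ s, s ≠ 3 → s ≠ 4 → p' s ≤ pS s) :
    Sep B G pS p' r i0 k0
      (fun n i k => -v n * own n i (k0 n) k 7 + u n * own n i (k0 n) k 8) (D * D + 1) 5 := by
  intro K hK ε hε
  have hD := H.D1
  have hK1 : 1 ≤ K := by nlinarith
  filter_upwards [exists_Ev H L h0 hpS hK hε, T.tc ε hε] with n hEv htc k i hi l hl h1 h2 hτ hr s
  have E := hEv k i hi l hl h1 h2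
  have I1 := H.memSlice.1 (RCfg.mem_box.1 hi).1
  have I2 := H.memSlice.1 (RCfg.mem_box.1 hl).1
  set β := B.d n ^ (-(K * ε)) with hβd
  have hβ := E.β8
  have hβ0 : 0 < β := by linarith
  have hpow : ∀ t : ℝ, 0 < B.d n ^ t := fun t => rpos B n t
  have up : ∀ {t : ℝ}, y ≤ t → B.d n ^ t * β ≤ B.d n ^ y * β := fun ht =>
    mul_le_mul_of_nonneg_right (rpow_anti B n ht) hβ0.le
  have e10 := E.e 10 (fun h => absurd (L.SSL h) (by decide))
  rw [evoS_10 _ _ L.SSL] at e10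
  have l7 : LvS S (own n i (k0 n) k) 7 = own n i (k0 n) k 7 := if_pos m7
  have l8 : LvS S (own n i (k0 n) k) 8 = own n i (k0 n) k 8 := if_pos m8
  have l1 : LvS S (own n i (k0 n) k) 1 = 0 := by
    unfold LvS
    split_ifs
    · exact z1 _ _ _ _
    · rfl
  have l2 : LvS S (own n i (k0 n) k) 2 = 0 := if_neg m2
  rw [l7, l8, l1, l2, zero_mul, zero_mul, mul_zero, sub_zero, sub_zero] at e10
  have c1 : |u n * (G n).rel (k0 n) i l 3 + v n * (G n).rel (k0 n) i l 4| ≤ B.d n ^ y * β := by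
    refine (htc _ _ _ I1 I2).trans ?_
    rw [hβd, ← rpow_add']
    exact rpow_anti B n (by nlinarith)
  obtain ⟨r3, r4⟩ := alg_w3 (hpow y) hβ (T.unit n) (E.a1 7) (E.a1 8) c1
    ((E.cb 10).trans (up hS10)) ((hr 10).trans (up hr10)) (e10.trans (up hy)) hτ
  have b5 : β ≤ β ^ 5 := by
    calc β = β ^ 1 := (pow_one β).symm
      _ ≤ β ^ 5 := pow_le_pow_right₀ (by linarith) (by norm_num)
  by_cases hs3 : s = 3
  · subst hs3
    exact r3.trans (mul_le_mul_of_nonneg_right (rpow_anti B n hp3) (by positivity))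
  by_cases hs4 : s = 4
  · subst hs4
    exact r4.trans (mul_le_mul_of_nonneg_right (rpow_anti B n hp4) (by positivity))
  · refine (E.cb s).trans (mul_le_mul (rpow_anti B n (hp s hs3 hs4)) b5 hβ0.le (hpow _).le)

theorem sep_w20 (H : RUnif B G Leg ν D) (L : LLaw B G S own x0) {u v : ℕ → ℝ}
    (T : Dir B G own u v x0) (m7 : (7 : Fin 12) ∈ S) (m8 : (8 : Fin 12) ∈ S)
    (z1 : ∀ n i k0 k, own n i k0 k 1 = 0) (m2 : (2 : Fin 12) ∉ S) {i0 k0 : ℕ → ℕ}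
    (h0 : ∀ᶠ n in (U : Filter ℕ), (i0 n, k0 n) ∈ (G n).I) {pS p' r : Fin 12 → ℝ} (hpS : pS ∈ Leg)
    {y : ℝ} (hy : y ≤ x0) (hS3 : y ≤ pS 3) (hS4 : y ≤ pS 4) (hS10 : y ≤ pS 10)
    (hS11 : y ≤ pS 11) (hr11 : y ≤ r 11) (hp5 : p' 5 ≤ y)
    (hp6 : p' 6 ≤ y) (hp : ∀ s, s ≠ 5 → s ≠ 6 → p' s ≤ pS s) :
    Sep B G pS p' r i0 k0
      (fun n i k => -v n * own n i (k0 n) k 7 + u n * own n i (k0 n) k 8) (D * D + 1) 6 := by
  intro K hK ε hε
  have hD := H.D1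
  have hK1 : 1 ≤ K := by nlinarith
  filter_upwards [exists_Ev H L h0 hpS hK hε, T.tx ε hε] with n hEv htx k i hi l hl h1 h2 hτ hr s
  have E := hEv k i hi l hl h1 h2
  have I1 := H.memSlice.1 (RCfg.mem_box.1 hi).1
  have I2 := H.memSlice.1 (RCfg.mem_box.1 hl).1
  set β := B.d n ^ (-(K * ε)) with hβd
  have hβ := E.β8
  have hβ0 : 0 < β := by linarith
  have hpow : ∀ t : ℝ, 0 < B.d n ^ t := fun t => rpos B n t
  have up : ∀ {t : ℝ}, y ≤ t → B.d n ^ t * β ≤ B.d n ^ y * β := fun ht =>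
    mul_le_mul_of_nonneg_right (rpow_anti B n ht) hβ0.le
  have e11 := E.e 11 (fun h => absurd (L.SSL h) (by decide))
  rw [evoS_11 _ _ L.SSL L.S0] at e11
  have l7 : LvS S (own n i (k0 n) k) 7 = own n i (k0 n) k 7 := if_pos m7
  have l8 : LvS S (own n i (k0 n) k) 8 = own n i (k0 n) k 8 := if_pos m8
  have l1 : LvS S (own n i (k0 n) k) 1 = 0 := by
    unfold LvS
    split_ifs
    · exact z1 _ _ _ _
    · rfl
  have l2 : LvS S (own n i (k0 n) k) 2 = 0 := if_neg m2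
  rw [l7, l8, l1, l2, zero_mul, zero_mul, sub_zero, sub_zero] at e11
  have c1 : |u n * (G n).rel (k0 n) i l 5 + v n * (G n).rel (k0 n) i l 6| ≤ B.d n ^ y * β := by
    refine (htx _ _ _ I1 I2).trans ?_
    rw [hβd, ← rpow_add']
    exact rpow_anti B n (by nlinarith)
  obtain ⟨r3, r4⟩ := alg_w2 (hpow y) hβ (T.unit n) (E.a1 0) (E.a1 7) (E.a1 8) c1
    ((E.cb 3).trans (up hS3)) ((E.cb 4).trans (up hS4)) ((E.cb 10).trans (up hS10))
    ((E.cb 11).trans (up hS11)) ((hr 11).trans (up hr11)) (e11.trans (up hy)) hτ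
  have b5 : β ≤ β ^ 6 := by
    calc β = β ^ 1 := (pow_one β).symm
      _ ≤ β ^ 6 := pow_le_pow_right₀ (by linarith) (by norm_num)
  by_cases hs3 : s = 5
  · subst hs3
    exact r3.trans (mul_le_mul_of_nonneg_right (rpow_anti B n hp5) (by positivity))
  by_cases hs4 : s = 6
  · subst hs4
    exact r4.trans (mul_le_mul_of_nonneg_right (rpow_anti B n hp6) (by positivity))
  · refine (E.cb s).trans (mul_le_mul (rpow_anti B n (hp s hs3 hs4)) b5 hβ0.le (hpow _).le)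

/-- `twist_fib` with slot `1` dropped -/
theorem twist_fib0 (H : RModel B G σ R Leg ν D) (L : LLaw B G S own x0) (hx0 : 0 < x0)
    (m1 : (1 : Fin 12) ∈ S) (z1 : ∀ n i k0 k, own n i k0 k 1 = 0)
    (i0 k0 : ℕ → ℕ) (h0 : ∀ᶠ n in (U : Filter ℕ), (i0 n, k0 n) ∈ (G n).I)
    (pS p' pT r : Fin 12 → ℝ) (hpS : pS ∈ Leg) (hp' : p' ∈ Leg) (hpT : pT ∈ Leg) (hr : r ∈ Leg)
    (hTr : ∀ j, pT j ≤ r j) (hlow : Low0 S pS pT x0) (τ : ℕ → ℕ → ℕ → ℝ) {j : Fin 12}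
    {γ x1 : ℝ} (hγ : 0 < γ) (hx1 : 0 < x1) (hO : OwnThin B G own j γ x1)
    (hcmp : ∀ ε : ℝ, 0 < ε → ∀ᶠ n in (U : Filter ℕ), ∀ i k, (i, k0 n) ∈ (G n).I →
      (i, k) ∈ (G n).I → |own n i (k0 n) k j| ≤ |τ n i k| + B.d n ^ (x0 - ε))
    {m : ℕ} {K0 : ℝ} (hsep : Sep B G pS p' r i0 k0 τ K0 m) :
    ν pS - ν p' ≤ ν pT - ν r := by
  classical
  obtain ⟨C1, hC1, hal⟩ := hal_of_own H hγ hx1 hx0 hO k0 τ hcmp
  have hD := H.D1
  have hU := H.toRUnif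
  obtain ⟨M, hM⟩ : ∃ M : ℝ, M = 3 * (D * D + 1) + C1 := ⟨_, rfl⟩
  have hM0 : C1 ≤ M := by nlinarith
  refine two_heights_R hU k0 (fun ε n => (G n).box pS ε (i0 n) (k0 n)) p' pT r hp' hpT hr hTr
    (fun n => (G n).Z) (Eventually.of_forall fun n => ?_) (a := ν pS) (C1 := M) (by linarith) ?_ ?_
    (fun ε n i k => B.d n ^ (C1 * ε) ≤ |τ n i k|) ?_ ?_ ?_
  · obtain ⟨⟨i1, k1⟩, hI1⟩ := H.nonempty n
    exact ⟨k1, H.memZ hI1⟩
  · intro ε hε
    exact Eventually.of_forall fun n i hi => H.memSlice.1 (RCfg.box_subset_slice hi)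
  · intro ε hε
    filter_upwards [H.low pS hpS ε hε, h0] with n hn h0n
    exact (rpow_anti B n (by nlinarith)).trans (hn _ _ h0n)
  · intro ε hε
    filter_upwards [hal ε hε] with n hn i hi T hT1 hT2
    refine le_trans ?_ (hn i (H.memSlice.1 (RCfg.box_subset_slice hi)) T hT1 hT2)
    exact mul_le_mul_of_nonneg_right (rpow_anti B n (by nlinarith)) (Nat.cast_nonneg _)
  · intro ε hε
    filter_upwards [exists_Ev hU L h0 hpS (le_refl (D * D + 1)) hε]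
      with n hEv k hk i hi l hl h1 h2 j
    have := (hEv k i hi l hl h1 h2).low0 (B.pos n) (B.lt n).le m1 (z1 _ _ _ _) hlow j
    rw [H.base n]
    refine this.trans ?_
    rw [pow_eps]
    refine rpow_anti B n ?_
    push_cast
    nlinarith
  · intro C2 hC2
    obtain ⟨K, hK⟩ : ∃ K : ℝ, K = |K0| + C1 + C2 + 1 := ⟨_, rfl⟩
    have hK0 : K0 ≤ K := by linarith [le_abs_self K0]
    have hKp : 0 < K := by linarith [abs_nonneg K0]
    refine ⟨(m : ℝ) * K + 1, by positivity, fun ε hε => ?_⟩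
    filter_upwards [hsep K hK0 ε hε] with n hsn k hk i hi l hl h1 h2 g1 g2 hlr j
    have a1 : (B.d n ^ (-(K * ε)))⁻¹ ≤ |τ n i k| := by
      refine le_trans ?_ g1
      rw [← Real.rpow_neg (B.pos n).le, neg_neg]
      exact rpow_anti B n (by nlinarith [abs_nonneg K0])
    have a2 : ∀ s, |(G n).rel k i l s| ≤ B.d n ^ r s * B.d n ^ (-(K * ε)) := by
      intro s
      have := hlr s
      rw [H.base n] at this
      refine this.trans ?_
      rw [← rpow_add']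
      exact rpow_anti B n (by nlinarith [abs_nonneg K0])
    have := hsn k i hi l hl h1 h2 a1 a2 j
    rw [H.base n]
    refine this.trans ?_
    rw [pow_eps]
    exact rpow_anti B n (by nlinarith)

/-- **(W3), e-tie, `D` dropped: `m ≤ r`** -/
theorem w3_e0 (H : RModel B G σ R Leg ν D) (L : LLaw B G S own x0) (hx0 : 0 < x0)
    {u v : ℕ → ℝ} (T : Dir B G own u v x0) (m7 : (7 : Fin 12) ∈ S) (m8 : (8 : Fin 12) ∈ S)
    (m1 : (1 : Fin 12) ∈ S) (z1 : ∀ n i k0 k, own n i k0 k 1 = 0) (m2 : (2 : Fin 12) ∉ S)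
    {j : Fin 12} (hj : j = 7 ∨ j = 8)
    {γ x1 : ℝ} (hγ : 0 < γ) (hx1 : 0 < x1) (hO : OwnThin B G own j γ x1)
    (pS p' pT r : Fin 12 → ℝ) (hpS : pS ∈ Leg) (hp' : p' ∈ Leg) (hpT : pT ∈ Leg) (hr : r ∈ Leg)
    (hTr : ∀ j, pT j ≤ r j) (hlow : Low0 S pS pT x0) {y : ℝ} (hy : y ≤ x0) (hS10 : y ≤ pS 10)
    (hr10 : y ≤ r 10) (hp3 : p' 3 ≤ y) (hp4 : p' 4 ≤ y)
    (hp : ∀ s, s ≠ 3 → s ≠ 4 → p' s ≤ pS s) : ν pS - ν p' ≤ ν pT - ν r := by
  choose q hq using H.nonempty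
  have h0 : ∀ᶠ n in (U : Filter ℕ), ((q n).1, (q n).2) ∈ (G n).I :=
    Eventually.of_forall fun n => hq n
  exact twist_fib0 H L hx0 m1 z1 (fun n => (q n).1) (fun n => (q n).2) h0 pS p' pT r hpS hp' hpT
    hr hTr hlow _ hγ hx1 hO (T.cmp _ hj)
    (sep_w30 H.toRUnif L T m7 m8 z1 m2 h0 hpS hy hS10 hr10 hp3 hp4 hp)

/-- **(W2), e-tie, `D` dropped: `n ≤ x`** -/
theorem w2_e0 (H : RModel B G σ R Leg ν D) (L : LLaw B G S own x0) (hx0 : 0 < x0)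
    {u v : ℕ → ℝ} (T : Dir B G own u v x0) (m7 : (7 : Fin 12) ∈ S) (m8 : (8 : Fin 12) ∈ S)
    (m1 : (1 : Fin 12) ∈ S) (z1 : ∀ n i k0 k, own n i k0 k 1 = 0) (m2 : (2 : Fin 12) ∉ S)
    {j : Fin 12} (hj : j = 7 ∨ j = 8)
    {γ x1 : ℝ} (hγ : 0 < γ) (hx1 : 0 < x1) (hO : OwnThin B G own j γ x1)
    (pS p' pT r : Fin 12 → ℝ) (hpS : pS ∈ Leg) (hp' : p' ∈ Leg) (hpT : pT ∈ Leg) (hr : r ∈ Leg)
    (hTr : ∀ j, pT j ≤ r j) (hlow : Low0 S pS pT x0) {y : ℝ} (hy : y ≤ x0) (hS3 : y ≤ pS 3)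
    (hS4 : y ≤ pS 4) (hS10 : y ≤ pS 10) (hS11 : y ≤ pS 11) (hr11 : y ≤ r 11) (hp5 : p' 5 ≤ y)
    (hp6 : p' 6 ≤ y) (hp : ∀ s, s ≠ 5 → s ≠ 6 → p' s ≤ pS s) : ν pS - ν p' ≤ ν pT - ν r := by
  choose q hq using H.nonempty
  have h0 : ∀ᶠ n in (U : Filter ℕ), ((q n).1, (q n).2) ∈ (G n).I :=
    Eventually.of_forall fun n => hq n
  exact twist_fib0 H L hx0 m1 z1 (fun n => (q n).1) (fun n => (q n).2) h0 pS p' pT r hpS hp' hpT
    hr hTr hlow _ hγ hx1 hO (T.cmp _ hj)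
    (sep_w20 H.toRUnif L T m7 m8 z1 m2 h0 hpS hy hS3 hS4 hS10 hS11 hr11 hp5 hp6 hp)

end drop

section owncoc

open Crest.Agent.R136.Net191 Crest.Agent.R136.Qg926
open Crest.Agent.R116.ChL222 Crest.Agent.R116.PL504
open Crest.Agent.R116.EvL504

variable {ι : ℕ → Type*} [∀ n, DecidableEq (ι n)] {W : Wnd 12 ι} {K tp : ℝ}

theorem ownL0_D (W : Wnd 12 ι) (n i k0 k : ℕ) : ownL0 W n i k0 k 1 = 0 := by
  show sc 0 (own W n i k k0) 1 = 0
  rw [sc_D, zero_mul]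

/-- **composition of the own motions**, natural base points -/
theorem ownCoc_of (h : WL W K tp) {E : ∀ n, Finset (ι n)}
    (hE : ∀ᶠ n in (U : Filter ℕ), Reg W E n) (hX : ∀ᶠ n in (U : Filter ℕ), FrX W K 1 tp n) :
    OwnCoc W.B' (W.cfg E) (ownL W) tp := by
  intro ε hε
  filter_upwards [hE, hX, ev_up W 48 tp hε] with n r f hu i k0 k1 k h0 h1 hk
  have e : ∀ s, ownL W n i k1 k s = compW W n (ownL W n i k0 k) (ownL W n i k1 k0) s := fun s =>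
    h.crd_add (W.rep n i k) (W.rep n i k0) (W.rep n i k1) s
  constructor
  · rw [e 1, FrX.compW_D h, sub_self, abs_zero]
    exact (rpos W.B' n _).le
  · rw [e 2]
    have t := f.compW h zero_le_one le_rfl (a := ownL W n i k0 k) (b := ownL W n i k1 k0)
      (fun s => r.own_le h h0 hk s) (fun s => r.own_le h h1 h0 s) (s := 2) (by decide)
    rw [sc_one, sc_one] at t
    exact t.trans hu

end owncoc

end Crest.Agent.R116.KW420
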