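import Crest.Agent.R116.KW5_420

/-!
# R116, K-TEXT II-c, section 1, facts (W2), (W3), part 6 (helper420)

`w3_e00`, `w2_e00` : `w3_e`, `w2_e` for windows in which the slots `1`, `2` are dropped (both in `S`, own
motions `0`), 369's form (base with `D`, `E` raised).
-/

set_option autoImplicit false
set_option linter.unusedVariables false
set_option linter.unusedSectionVars false

open Filter Topology Finset

namespace Crest.Agent.R116.KW420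

open Crest.Agent.R138.Ex926 (Base U)
open Crest.Agent.R136.Gf356

section drop2

open Crest.Agent.R116.EvL504 (evoS LvS LnS hgt comp SL)
open Crest.Agent.R116.Kr710 (LLaw)

variable {B : Base} {G : ℕ → RCfg (Fin 12)} {Leg : Set (Fin 12 → ℝ)} {ν : (Fin 12 → ℝ) → ℝ}
  {σ R D x0 : ℝ} {S : Finset (Fin 12)} {own : ℕ → ℕ → ℕ → ℕ → Fin 12 → ℝ}

theorem sep_w300 (H : RUnif B G Leg ν D) (L : LLaw B G S own x0) {u v : ℕ → ℝ}
    (T : Dir B G own u v x0) (m7 : (7 : Fin 12) ∈ S) (m8 : (8 : Fin 12) ∈ S)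
    (z1 : ∀ n i k0 k, own n i k0 k 1 = 0) (z2 : ∀ n i k0 k, own n i k0 k 2 = 0) {i0 k0 : ℕ → ℕ}
    (h0 : ∀ᶠ n in (U : Filter ℕ), (i0 n, k0 n) ∈ (G n).I) {pS p' r : Fin 12 → ℝ} (hpS : pS ∈ Leg)
    {y : ℝ} (hy : y ≤ x0) (hS10 : y ≤ pS 10) (hr10 : y ≤ r 10) (hp3 : p' 3 ≤ y)
    (hp4 : p' 4 ≤ y) (hp : ∀ s, s ≠ 3 → s ≠ 4 → p' s ≤ pS s) :
    Sep B G pS p' r i0 k0
      (fun n i k => -v n * own n i (k0 n) k 7 + u n * own n i (k0 n) k 8) (D * D + 1) 5 := by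
  intro K hK ε hε
  have hD := H.D1
  have hK1 : 1 ≤ K := by nlinarith
  filter_upwards [exists_Ev H L h0 hpS hK hε, T.tc ε hε] with n hEv htc k i hi l hl h1 h2 hτ hr s
  have E := hEv k i hi l hl h1 h2
  have I1 := H.memSlice.1 (RCfg.mem_box.1 hi).1
  have I2 := H.memSlice.1 (RCfg.mem_box.1 hl).1
  set β := B.d n ^ (-(K * ε)) with hβd
  have hβ := E.β8
  have hβ0 : 0 < β := by linarith
  have hpow : ∀ t : ℝ, 0 < B.d n ^ t := fun t => rpos B n t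
  have up : ∀ {t : ℝ}, y ≤ t → B.d n ^ t * β ≤ B.d n ^ y * β := fun ht =>
    mul_le_mul_of_nonneg_right (rpow_anti B n ht) hβ0.le
  have e10 := E.e 10 (fun h => absurd (L.SSL h) (by decide))
  rw [evoS_10 _ _ L.SSL] at e10
  have l7 : LvS S (own n i (k0 n) k) 7 = own n i (k0 n) k 7 := if_pos m7
  have l8 : LvS S (own n i (k0 n) k) 8 = own n i (k0 n) k 8 := if_pos m8
  have l1 : LvS S (own n i (k0 n) k) 1 = 0 := by
    unfold LvS
    split_ifs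
    · exact z1 _ _ _ _
    · rfl
  have l2 : LvS S (own n i (k0 n) k) 2 = 0 := by
    unfold LvS
    split_ifs
    · exact z2 _ _ _ _
    · rfl
  rw [l7, l8, l1, l2, zero_mul, zero_mul, mul_zero, sub_zero, sub_zero] at e10
  have c1 : |u n * (G n).rel (k0 n) i l 3 + v n * (G n).rel (k0 n) i l 4| ≤ B.d n ^ y * β := by
    refine (htc _ _ _ I1 I2).trans ?_
    rw [hβd, ← rpow_add']
    exact rpow_anti B n (by nlinarith)
  obtain ⟨r3, r4⟩ := alg_w3 (hpow y) hβ (T.unit n) (E.a1 7) (E.a1 8) c1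
    ((E.cb 10).trans (up hS10)) ((hr 10).trans (up hr10)) (e10.trans (up hy)) hτ
  have b5 : β ≤ β ^ 5 := by
    calc β = β ^ 1 := (pow_one β).symm
      _ ≤ β ^ 5 := pow_le_pow_right₀ (by linarith) (by norm_num)
  by_cases hs3 : s = 3
  · subst hs3
    exact r3.trans (mul_le_mul_of_nonneg_right (rpow_anti B n hp3) (by positivity))
  by_cases hs4 : s = 4
  · subst hs4
    exact r4.trans (mul_le_mul_of_nonneg_right (rpow_anti B n hp4) (by positivity))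
  · refine (E.cb s).trans (mul_le_mul (rpow_anti B n (hp s hs3 hs4)) b5 hβ0.le (hpow _).le)

theorem sep_w200 (H : RUnif B G Leg ν D) (L : LLaw B G S own x0) {u v : ℕ → ℝ}
    (T : Dir B G own u v x0) (m7 : (7 : Fin 12) ∈ S) (m8 : (8 : Fin 12) ∈ S)
    (z1 : ∀ n i k0 k, own n i k0 k 1 = 0) (z2 : ∀ n i k0 k, own n i k0 k 2 = 0) {i0 k0 : ℕ → ℕ}
    (h0 : ∀ᶠ n in (U : Filter ℕ), (i0 n, k0 n) ∈ (G n).I) {pS p' r : Fin 12 → ℝ} (hpS : pS ∈ Leg)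
    {y : ℝ} (hy : y ≤ x0) (hS3 : y ≤ pS 3) (hS4 : y ≤ pS 4) (hS10 : y ≤ pS 10)
    (hS11 : y ≤ pS 11) (hr11 : y ≤ r 11) (hp5 : p' 5 ≤ y)
    (hp6 : p' 6 ≤ y) (hp : ∀ s, s ≠ 5 → s ≠ 6 → p' s ≤ pS s) :
    Sep B G pS p' r i0 k0
      (fun n i k => -v n * own n i (k0 n) k 7 + u n * own n i (k0 n) k 8) (D * D + 1) 6 := by
  intro K hK ε hε
  have hD := H.D1
  have hK1 : 1 ≤ K := by nlinarith
  filter_upwards [exists_Ev H L h0 hpS hK hε, T.tx ε hε] with n hEv htx k i hi l hl h1 h2 hτ hr s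
  have E := hEv k i hi l hl h1 h2
  have I1 := H.memSlice.1 (RCfg.mem_box.1 hi).1
  have I2 := H.memSlice.1 (RCfg.mem_box.1 hl).1
  set β := B.d n ^ (-(K * ε)) with hβd
  have hβ := E.β8
  have hβ0 : 0 < β := by linarith
  have hpow : ∀ t : ℝ, 0 < B.d n ^ t := fun t => rpos B n t
  have up : ∀ {t : ℝ}, y ≤ t → B.d n ^ t * β ≤ B.d n ^ y * β := fun ht =>
    mul_le_mul_of_nonneg_right (rpow_anti B n ht) hβ0.le
  have e11 := E.e 11 (fun h => absurd (L.SSL h) (by decide))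
  rw [evoS_11 _ _ L.SSL L.S0] at e11
  have l7 : LvS S (own n i (k0 n) k) 7 = own n i (k0 n) k 7 := if_pos m7
  have l8 : LvS S (own n i (k0 n) k) 8 = own n i (k0 n) k 8 := if_pos m8
  have l1 : LvS S (own n i (k0 n) k) 1 = 0 := by
    unfold LvS
    split_ifs
    · exact z1 _ _ _ _
    · rfl
  have l2 : LvS S (own n i (k0 n) k) 2 = 0 := by
    unfold LvS
    split_ifs
    · exact z2 _ _ _ _
    · rfl
  rw [l7, l8, l1, l2, zero_mul, zero_mul, sub_zero, sub_zero] at e11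
  have c1 : |u n * (G n).rel (k0 n) i l 5 + v n * (G n).rel (k0 n) i l 6| ≤ B.d n ^ y * β := by
    refine (htx _ _ _ I1 I2).trans ?_
    rw [hβd, ← rpow_add']
    exact rpow_anti B n (by nlinarith)
  obtain ⟨r3, r4⟩ := alg_w2 (hpow y) hβ (T.unit n) (E.a1 0) (E.a1 7) (E.a1 8) c1
    ((E.cb 3).trans (up hS3)) ((E.cb 4).trans (up hS4)) ((E.cb 10).trans (up hS10))
    ((E.cb 11).trans (up hS11)) ((hr 11).trans (up hr11)) (e11.trans (up hy)) hτ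
  have b5 : β ≤ β ^ 6 := by
    calc β = β ^ 1 := (pow_one β).symm
      _ ≤ β ^ 6 := pow_le_pow_right₀ (by linarith) (by norm_num)
  by_cases hs3 : s = 5
  · subst hs3
    exact r3.trans (mul_le_mul_of_nonneg_right (rpow_anti B n hp5) (by positivity))
  by_cases hs4 : s = 6
  · subst hs4
    exact r4.trans (mul_le_mul_of_nonneg_right (rpow_anti B n hp6) (by positivity))
  · refine (E.cb s).trans (mul_le_mul (rpow_anti B n (hp s hs3 hs4)) b5 hβ0.le (hpow _).le)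

/-- **(W3), e-tie, `D`, `E` dropped: `m ≤ r`** -/
theorem w3_e00 (H : RModel B G σ R Leg ν D) (L : LLaw B G S own x0) (hx0 : 0 < x0)
    {u v : ℕ → ℝ} (T : Dir B G own u v x0) (m7 : (7 : Fin 12) ∈ S) (m8 : (8 : Fin 12) ∈ S)
    (m1 : (1 : Fin 12) ∈ S) (m2 : (2 : Fin 12) ∈ S) (z1 : ∀ n i k0 k, own n i k0 k 1 = 0)
    (z2 : ∀ n i k0 k, own n i k0 k 2 = 0)
    {j : Fin 12} (hj : j = 7 ∨ j = 8)
    {γ x1 : ℝ} (hγ : 0 < γ) (hx1 : 0 < x1) (hO : OwnThin B G own j γ x1)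
    (pS p' pT r : Fin 12 → ℝ) (hpS : pS ∈ Leg) (hp' : p' ∈ Leg) (hpT : pT ∈ Leg) (hr : r ∈ Leg)
    (hTr : ∀ j, pT j ≤ r j) (hlow : ∀ j, j ∈ S ∨ pT j ≤ 0) {y : ℝ} (hy : y ≤ x0)
    (hS10 : y ≤ pS 10) (hr10 : y ≤ r 10) (hp3 : p' 3 ≤ y) (hp4 : p' 4 ≤ y)
    (hp : ∀ s, s ≠ 3 → s ≠ 4 → p' s ≤ pS s) : ν pS - ν p' ≤ ν pT - ν r := by
  choose q hq using H.nonempty
  have h0 : ∀ᶠ n in (U : Filter ℕ), ((q n).1, (q n).2) ∈ (G n).I :=
    Eventually.of_forall fun n => hq n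
  exact twist_fib0 H L hx0 m1 z1 (fun n => (q n).1) (fun n => (q n).2) h0 pS p' pT r hpS hp' hpT
    hr hTr (fun j => (hlow j).imp_right Or.inl) _ hγ hx1 hO (T.cmp _ hj)
    (sep_w300 H.toRUnif L T m7 m8 z1 z2 h0 hpS hy hS10 hr10 hp3 hp4 hp)

/-- **(W2), e-tie, `D`, `E` dropped: `n ≤ x`** -/
theorem w2_e00 (H : RModel B G σ R Leg ν D) (L : LLaw B G S own x0) (hx0 : 0 < x0)
    {u v : ℕ → ℝ} (T : Dir B G own u v x0) (m7 : (7 : Fin 12) ∈ S) (m8 : (8 : Fin 12) ∈ S)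
    (m1 : (1 : Fin 12) ∈ S) (m2 : (2 : Fin 12) ∈ S) (z1 : ∀ n i k0 k, own n i k0 k 1 = 0)
    (z2 : ∀ n i k0 k, own n i k0 k 2 = 0)
    {j : Fin 12} (hj : j = 7 ∨ j = 8)
    {γ x1 : ℝ} (hγ : 0 < γ) (hx1 : 0 < x1) (hO : OwnThin B G own j γ x1)
    (pS p' pT r : Fin 12 → ℝ) (hpS : pS ∈ Leg) (hp' : p' ∈ Leg) (hpT : pT ∈ Leg) (hr : r ∈ Leg)
    (hTr : ∀ j, pT j ≤ r j) (hlow : ∀ j, j ∈ S ∨ pT j ≤ 0) {y : ℝ} (hy : y ≤ x0)
    (hS3 : y ≤ pS 3) (hS4 : y ≤ pS 4) (hS10 : y ≤ pS 10) (hS11 : y ≤ pS 11) (hr11 : y ≤ r 11)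
    (hp5 : p' 5 ≤ y) (hp6 : p' 6 ≤ y) (hp : ∀ s, s ≠ 5 → s ≠ 6 → p' s ≤ pS s) :
    ν pS - ν p' ≤ ν pT - ν r := by
  choose q hq using H.nonempty
  have h0 : ∀ᶠ n in (U : Filter ℕ), ((q n).1, (q n).2) ∈ (G n).I :=
    Eventually.of_forall fun n => hq n
  exact twist_fib0 H L hx0 m1 z1 (fun n => (q n).1) (fun n => (q n).2) h0 pS p' pT r hpS hp' hpT
    hr hTr (fun j => (hlow j).imp_right Or.inl) _ hγ hx1 hO (T.cmp _ hj)
    (sep_w200 H.toRUnif L T m7 m8 z1 z2 h0 hpS hy hS3 hS4 hS10 hS11 hr11 hp5 hp6 hp)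

end drop2

end Crest.Agent.R116.KW420
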