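import Crest.Agent.R116.Kr7_710
import Crest.Agent.R116.EvL4_504

/-!
# R116, K side (helper330): K1, F1, K2, F2 at any legal base point, part 1: laws of the slots

For `G = W.cfg E n` with `Reg W E n`, `WL W K tp`, `ρ = B'.d n`:

* `coc3 .. coc6` (one height), `coc10`, `coc11` (one height, `C, X, H` fine);
* `evo3 .. evo6`, `evo9`, `evo10`, `evo11` : evolution between two heights; `evo5`, `evo6` need the
  tight wall `X 5 = X 0 + X 3` (`X 6 = X 0 + X 4`), `evo11` the tight wall `X 11 = X 0 + X 10` and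
  `C, X, H` fine; nothing about the flags, no slack wall.
-/

set_option autoImplicit false
set_option linter.unusedVariables false
set_option linter.unusedSectionVars false

open Filter Topology Finset

namespace Crest.Agent.R116.Kf330

open Crest.Agent.R138.Ex926 (Base U)
open Crest.Agent.R136.Net191 Crest.Agent.R136.Qg926 Crest.Agent.R136.Gf356
open Crest.Agent.R116.ChL222 Crest.Agent.R116.PL504 Crest.Agent.R116.EvL504

variable {ι : ℕ → Type*} [∀ n, DecidableEq (ι n)]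

/-- forget `C, X, H` -/
def zr (c : Fin 12 → ℝ) : Fin 12 → ℝ :=
  ![c 0, c 1, c 2, 0, 0, 0, 0, c 7, c 8, 0, c 10, c 11]

section

variable {W : Wnd 12 ι} {K tp : ℝ} (h : WL W K tp) {n : ℕ}

include h

/-- the composition law is Lipschitz in the second argument, all legal base points -/
theorem compW_lip (g : W.Good n) {a c c' : Fin 12 → ℝ} {e : ℝ} (he : 0 ≤ e)
    (ha : ∀ k, |a k| ≤ 1) (hc : ∀ k, |c k| ≤ 1) (hc' : ∀ k, |c' k| ≤ 1)
    (h2 : ∀ k, |c k - c' k| ≤ e) (k : Fin 12) :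
    |compW W n a c k - compW W n a c' k| ≤ 48 * e := by
  have hs := fun s => h.side_pos' n s
  have b : ∀ (u : Fin 12 → ℝ), (∀ k, |u k| ≤ 1) → ∀ k, |side W n k * u k| ≤ side W n k := by
    intro u hu k
    rw [abs_mul, abs_of_pos (hs k)]
    exact mul_le_of_le_one_right (hs k).le (hu k)
  have key := comp_lipD (h.sides g) he (b a ha) (b a ha) (b c hc) (b c' hc')
    (fun k => by rw [sub_self, abs_zero]; exact mul_nonneg he (hs k).le)
    (fun k => by
      rw [← mul_sub, abs_mul, abs_of_pos (hs k), mul_comm]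
      exact mul_le_mul_of_nonneg_right (h2 k) (hs k).le) k
  unfold compW
  rw [← sub_div, abs_div, abs_of_pos (hs k), div_le_iff₀ (hs k)]
  linarith

theorem compW_3 (a c : Fin 12 → ℝ) : compW W n a c 3 = a 3 + c 3 := by
  have hs := (h.side_pos' n 3).ne'
  unfold compW
  have e : comp (fun j => side W n j * a j) (fun j => side W n j * c j) 3 =
    side W n 3 * a 3 + side W n 3 * c 3 := rfl
  rw [e]; field_simp

theorem compW_4 (a c : Fin 12 → ℝ) : compW W n a c 4 = a 4 + c 4 := by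
  have hs := (h.side_pos' n 4).ne'
  unfold compW
  have e : comp (fun j => side W n j * a j) (fun j => side W n j * c j) 4 =
    side W n 4 * a 4 + side W n 4 * c 4 := rfl
  rw [e]; field_simp

theorem compW_5 (a c : Fin 12 → ℝ) : compW W n a c 5 =
    a 5 + c 5 - side W n 0 * side W n 3 / side W n 5 * (a 0 * c 3) := by
  have hs := (h.side_pos' n 5).ne'
  unfold compW
  have e : comp (fun j => side W n j * a j) (fun j => side W n j * c j) 5 =
    side W n 5 * a 5 + side W n 5 * c 5 - side W n 0 * a 0 * (side W n 3 * c 3) := rfl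
  rw [e]; field_simp

theorem compW_6 (a c : Fin 12 → ℝ) : compW W n a c 6 =
    a 6 + c 6 - side W n 0 * side W n 4 / side W n 6 * (a 0 * c 4) := by
  have hs := (h.side_pos' n 6).ne'
  unfold compW
  have e : comp (fun j => side W n j * a j) (fun j => side W n j * c j) 6 =
    side W n 6 * a 6 + side W n 6 * c 6 - side W n 0 * a 0 * (side W n 4 * c 4) := rfl
  rw [e]; field_simp

theorem compW_10 (a c : Fin 12 → ℝ) : compW W n a (zr c) 10 = a 10 + c 10 := by
  have hs := (h.side_pos' n 10).ne'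
  unfold compW
  have e : comp (fun j => side W n j * a j) (fun j => side W n j * zr c j) 10 =
    side W n 10 * a 10 + side W n 10 * c 10 - side W n 7 * a 7 * (side W n 3 * 0) -
      side W n 8 * a 8 * (side W n 4 * 0) -
      side W n 2 * a 2 * (((side W n 3 * 0) ^ 2 + (side W n 4 * 0) ^ 2) / 2) -
      2 * (side W n 1 * a 1 * ((side W n 5 * 0) * (side W n 3 * 0) +
        (side W n 6 * 0) * (side W n 4 * 0) - side W n 9 * 0)) := rfl
  rw [e]; field_simp; ring

theorem compW_9 (a c : Fin 12 → ℝ) : compW W n a (zr c) 9 = a 9 := by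
  have hs := (h.side_pos' n 9).ne'
  unfold compW
  have e : comp (fun j => side W n j * a j) (fun j => side W n j * zr c j) 9 =
    side W n 9 * a 9 + side W n 9 * 0 - side W n 0 * a 0 *
      (((side W n 3 * 0) ^ 2 + (side W n 4 * 0) ^ 2) / 2) +
      side W n 3 * a 3 * (side W n 5 * 0 - side W n 0 * a 0 * (side W n 3 * 0)) +
      side W n 4 * a 4 * (side W n 6 * 0 - side W n 0 * a 0 * (side W n 4 * 0)) := rfl
  rw [e]; field_simp; ring

theorem compW_11 (a c : Fin 12 → ℝ) : compW W n a (zr c) 11 =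
    a 11 + c 11 - side W n 0 * side W n 10 / side W n 11 * (a 0 * c 10) := by
  have hs := (h.side_pos' n 11).ne'
  unfold compW
  have e : comp (fun j => side W n j * a j) (fun j => side W n j * zr c j) 11 =
    side W n 11 * a 11 + side W n 11 * c 11 - side W n 0 * a 0 * (side W n 10 * c 10) -
      side W n 7 * a 7 * (side W n 5 * 0 - side W n 0 * a 0 * (side W n 3 * 0)) -
      side W n 8 * a 8 * (side W n 6 * 0 - side W n 0 * a 0 * (side W n 4 * 0)) -
      side W n 2 * a 2 * (side W n 9 * 0 - side W n 0 * a 0 *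
        (((side W n 3 * 0) ^ 2 + (side W n 4 * 0) ^ 2) / 2)) -
      side W n 1 * a 1 * ((side W n 5 * 0) ^ 2 + (side W n 6 * 0) ^ 2 -
        2 * (side W n 0 * a 0 * ((side W n 5 * 0) * (side W n 3 * 0) +
          (side W n 6 * 0) * (side W n 4 * 0) - side W n 9 * 0))) := rfl
  rw [e]; field_simp; ring

theorem ratio5 (hX : W.X n 5 = W.X n 0 + W.X n 3) :
    side W n 0 * side W n 3 / side W n 5 = 1 := by
  have hs := (h.side_pos' n 5).ne'
  rw [div_eq_one_iff_eq hs]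
  unfold side
  rw [h.kap, h.kap, h.kap, hX, Real.rpow_add (W.B.pos n)]
  have e0 : wtL 0 = 1 := rfl
  have e3 : wtL 3 = 1 := rfl
  have e5 : wtL 5 = 2 := rfl
  rw [e0, e3, e5]; ring

theorem ratio6 (hX : W.X n 6 = W.X n 0 + W.X n 4) :
    side W n 0 * side W n 4 / side W n 6 = 1 := by
  have hs := (h.side_pos' n 6).ne'
  rw [div_eq_one_iff_eq hs]
  unfold side
  rw [h.kap, h.kap, h.kap, hX, Real.rpow_add (W.B.pos n)]
  have e0 : wtL 0 = 1 := rfl
  have e3 : wtL 4 = 1 := rfl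
  have e5 : wtL 6 = 2 := rfl
  rw [e0, e3, e5]; ring

theorem ratio11 (hX : W.X n 11 = W.X n 0 + W.X n 10) :
    side W n 0 * side W n 10 / side W n 11 = 1 := by
  have hs := (h.side_pos' n 11).ne'
  rw [div_eq_one_iff_eq hs]
  unfold side
  rw [h.kap, h.kap, h.kap, hX, Real.rpow_add (W.B.pos n)]
  have e0 : wtL 0 = 1 := rfl
  have e3 : wtL 10 = 4 := rfl
  have e5 : wtL 11 = 5 := rfl
  rw [e0, e3, e5]; ring

end

/-- `zr c` is within `e` of `c` -/
theorem zr_close {c : Fin 12 → ℝ} {e : ℝ} (he : 0 ≤ e) (h3 : |c 3| ≤ e) (h4 : |c 4| ≤ e)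
    (h5 : |c 5| ≤ e) (h6 : |c 6| ≤ e) (h9 : |c 9| ≤ e) (k : Fin 12) : |c k - zr c k| ≤ e := by
  fin_cases k
  · show |c 0 - c 0| ≤ e; rwa [sub_self, abs_zero]
  · show |c 1 - c 1| ≤ e; rwa [sub_self, abs_zero]
  · show |c 2 - c 2| ≤ e; rwa [sub_self, abs_zero]
  · show |c 3 - 0| ≤ e; rwa [sub_zero]
  · show |c 4 - 0| ≤ e; rwa [sub_zero]
  · show |c 5 - 0| ≤ e; rwa [sub_zero]
  · show |c 6 - 0| ≤ e; rwa [sub_zero]
  · show |c 7 - c 7| ≤ e; rwa [sub_self, abs_zero]
  · show |c 8 - c 8| ≤ e; rwa [sub_self, abs_zero]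
  · show |c 9 - 0| ≤ e; rwa [sub_zero]
  · show |c 10 - c 10| ≤ e; rwa [sub_self, abs_zero]
  · show |c 11 - c 11| ≤ e; rwa [sub_self, abs_zero]

theorem zr_le {c : Fin 12 → ℝ} (hc : ∀ k, |c k| ≤ 1) (k : Fin 12) : |zr c k| ≤ 1 := by
  fin_cases k
  · exact hc 0
  · exact hc 1
  · exact hc 2
  · show |(0 : ℝ)| ≤ 1; simp
  · show |(0 : ℝ)| ≤ 1; simp
  · show |(0 : ℝ)| ≤ 1; simp
  · show |(0 : ℝ)| ≤ 1; simp
  · exact hc 7
  · exact hc 8
  · show |(0 : ℝ)| ≤ 1; simp
  · exact hc 10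
  · exact hc 11

section

variable {W : Wnd 12 ι} {E : ∀ n, Finset (ι n)} {n : ℕ} (r : Reg W E n) {K tp : ℝ}
  (h : WL W K tp)

include r h

/-! ### one height -/

theorem coc3 {k i j l : ℕ} (hi : (i, k) ∈ (W.cfg E n).I) (hj : (j, k) ∈ (W.cfg E n).I)
    (hl : (l, k) ∈ (W.cfg E n).I) :
    |(W.cfg E n).rel k i l 3 - ((W.cfg E n).rel k i j 3 + (W.cfg E n).rel k j l 3)| ≤
      48 * W.B'.d n ^ tp := by
  have := r.coc h hi hj hl (h.notS (s := 3) (by decide))
  rwa [compW_3 h] at this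

theorem coc4 {k i j l : ℕ} (hi : (i, k) ∈ (W.cfg E n).I) (hj : (j, k) ∈ (W.cfg E n).I)
    (hl : (l, k) ∈ (W.cfg E n).I) :
    |(W.cfg E n).rel k i l 4 - ((W.cfg E n).rel k i j 4 + (W.cfg E n).rel k j l 4)| ≤
      48 * W.B'.d n ^ tp := by
  have := r.coc h hi hj hl (h.notS (s := 4) (by decide))
  rwa [compW_4 h] at this

theorem coc5 {k i j l : ℕ} (hi : (i, k) ∈ (W.cfg E n).I) (hj : (j, k) ∈ (W.cfg E n).I)
    (hl : (l, k) ∈ (W.cfg E n).I) :
    |(W.cfg E n).rel k i l 5 - ((W.cfg E n).rel k i j 5 + (W.cfg E n).rel k j l 5)| ≤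
      48 * W.B'.d n ^ tp := by
  have := r.coc h hi hj hl (h.notS (s := 5) (by decide))
  rw [compW_5 h, r.rel_S h.z0] at this
  simpa using this

theorem coc6 {k i j l : ℕ} (hi : (i, k) ∈ (W.cfg E n).I) (hj : (j, k) ∈ (W.cfg E n).I)
    (hl : (l, k) ∈ (W.cfg E n).I) :
    |(W.cfg E n).rel k i l 6 - ((W.cfg E n).rel k i j 6 + (W.cfg E n).rel k j l 6)| ≤
      48 * W.B'.d n ^ tp := by
  have := r.coc h hi hj hl (h.notS (s := 6) (by decide))
  rw [compW_6 h, r.rel_S h.z0] at this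
  simpa using this

/-- slot `10` at one height, `C, X, H` fine -/
theorem coc10 {k i j l : ℕ} (hi : (i, k) ∈ (W.cfg E n).I) (hj : (j, k) ∈ (W.cfg E n).I)
    (hl : (l, k) ∈ (W.cfg E n).I) {e : ℝ} (he : 0 ≤ e)
    (hf : ∀ s : Fin 12, s = 3 ∨ s = 4 ∨ s = 5 ∨ s = 6 ∨ s = 9 → |(W.cfg E n).rel k j l s| ≤ e) :
    |(W.cfg E n).rel k i l 10 - ((W.cfg E n).rel k i j 10 + (W.cfg E n).rel k j l 10)| ≤
      48 * W.B'.d n ^ tp + 48 * e := by
  have h1 := r.coc h hi hj hl (h.notS (s := 10) (by decide))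
  have h2 := compW_lip h r.good he (fun s => r.rel_le h hi hj s) (fun s => r.rel_le h hj hl s)
    (zr_le (fun s => r.rel_le h hj hl s))
    (zr_close he (hf 3 (by simp)) (hf 4 (by simp)) (hf 5 (by simp)) (hf 6 (by simp))
      (hf 9 (by simp))) 10
  rw [compW_10 h] at h2
  have e1 : (W.cfg E n).rel k i l 10 - ((W.cfg E n).rel k i j 10 + (W.cfg E n).rel k j l 10) =
    ((W.cfg E n).rel k i l 10 - compW W n ((W.cfg E n).rel k i j) ((W.cfg E n).rel k j l) 10) +
    (compW W n ((W.cfg E n).rel k i j) ((W.cfg E n).rel k j l) 10 -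
      ((W.cfg E n).rel k i j 10 + (W.cfg E n).rel k j l 10)) := by ring
  rw [e1]
  exact (abs_add_le _ _).trans (add_le_add h1 h2)

/-- slot `11` at one height, `C, X, H` fine -/
theorem coc11 {k i j l : ℕ} (hi : (i, k) ∈ (W.cfg E n).I) (hj : (j, k) ∈ (W.cfg E n).I)
    (hl : (l, k) ∈ (W.cfg E n).I) {e : ℝ} (he : 0 ≤ e)
    (hf : ∀ s : Fin 12, s = 3 ∨ s = 4 ∨ s = 5 ∨ s = 6 ∨ s = 9 → |(W.cfg E n).rel k j l s| ≤ e) :
    |(W.cfg E n).rel k i l 11 - ((W.cfg E n).rel k i j 11 + (W.cfg E n).rel k j l 11)| ≤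
      48 * W.B'.d n ^ tp + 48 * e := by
  have h1 := r.coc h hi hj hl (h.notS (s := 11) (by decide))
  have h2 := compW_lip h r.good he (fun s => r.rel_le h hi hj s) (fun s => r.rel_le h hj hl s)
    (zr_le (fun s => r.rel_le h hj hl s))
    (zr_close he (hf 3 (by simp)) (hf 4 (by simp)) (hf 5 (by simp)) (hf 6 (by simp))
      (hf 9 (by simp))) 11
  rw [compW_11 h, r.rel_S h.z0 (k := k) (i := i) (l := j)] at h2
  have e1 : (W.cfg E n).rel k i l 11 - ((W.cfg E n).rel k i j 11 + (W.cfg E n).rel k j l 11) =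
    ((W.cfg E n).rel k i l 11 - compW W n ((W.cfg E n).rel k i j) ((W.cfg E n).rel k j l) 11) +
    (compW W n ((W.cfg E n).rel k i j) ((W.cfg E n).rel k j l) 11 -
      ((W.cfg E n).rel k i j 11 + (W.cfg E n).rel k j l 11 - side W n 0 * side W n 10 /
        side W n 11 * (0 * (W.cfg E n).rel k j l 10))) := by ring
  rw [e1]
  exact (abs_add_le _ _).trans (add_le_add h1 h2)

/-! ### two heights -/

/-- the height component of the own motion, old height `k`, new height `k'` -/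
theorem own_zz {k k' i : ℕ} (hi : (i, k) ∈ (W.cfg E n).I) (hi' : (i, k') ∈ (W.cfg E n).I) :
    |own W n i k' k 0 + ((W.cfg E n).z k' - (W.cfg E n).z k)| ≤ 2 * W.B'.d n ^ tp := by
  have := r.own_z h hi hi'
  have e : own W n i k' k 0 + ((W.cfg E n).z k' - (W.cfg E n).z k) =
    own W n i k' k 0 - ((W.cfg E n).z k - (W.cfg E n).z k') := by ring
  rwa [e]

theorem Lv0 (a : Fin 12 → ℝ) : LvS SL a 0 = a 0 := if_pos (by decide)

theorem evo3 {k k' i l : ℕ} (hi : (i, k) ∈ (W.cfg E n).I) (hl : (l, k) ∈ (W.cfg E n).I)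
    (hi' : (i, k') ∈ (W.cfg E n).I) (hl' : (l, k') ∈ (W.cfg E n).I) :
    |(W.cfg E n).rel k' i l 3 - (W.cfg E n).rel k i l 3| ≤ 96 * W.B'.d n ^ tp := by
  have := r.evoSL h hi hl hi' hl' (s := 3) (by decide)
  rw [compW_3 h] at this
  have e1 : LvS SL (own W n i k' k) 3 = 0 := if_neg (by decide)
  have e2 : LnS SL ((W.cfg E n).rel k i l) 3 = (W.cfg E n).rel k i l 3 := if_neg (by decide)
  rwa [e1, e2, zero_add] at this

theorem evo4 {k k' i l : ℕ} (hi : (i, k) ∈ (W.cfg E n).I) (hl : (l, k) ∈ (W.cfg E n).I)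
    (hi' : (i, k') ∈ (W.cfg E n).I) (hl' : (l, k') ∈ (W.cfg E n).I) :
    |(W.cfg E n).rel k' i l 4 - (W.cfg E n).rel k i l 4| ≤ 96 * W.B'.d n ^ tp := by
  have := r.evoSL h hi hl hi' hl' (s := 4) (by decide)
  rw [compW_4 h] at this
  have e1 : LvS SL (own W n i k' k) 4 = 0 := if_neg (by decide)
  have e2 : LnS SL ((W.cfg E n).rel k i l) 4 = (W.cfg E n).rel k i l 4 := if_neg (by decide)
  rwa [e1, e2, zero_add] at this

/-- combine the own height with the law -/
theorem own_mul {k k' i : ℕ} (hi : (i, k) ∈ (W.cfg E n).I) (hi' : (i, k') ∈ (W.cfg E n).I)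
    {c x y C : ℝ} (hc : |c| ≤ 1) (h1 : |x - (y - own W n i k' k 0 * c)| ≤ C) :
    |x - (y + ((W.cfg E n).z k' - (W.cfg E n).z k) * c)| ≤ C + 2 * W.B'.d n ^ tp := by
  have h2 := own_zz r h hi hi'
  have e : x - (y + ((W.cfg E n).z k' - (W.cfg E n).z k) * c) =
    (x - (y - own W n i k' k 0 * c)) -
      (own W n i k' k 0 + ((W.cfg E n).z k' - (W.cfg E n).z k)) * c := by ring
  rw [e]
  refine (abs_sub _ _).trans (add_le_add h1 ?_)
  rw [abs_mul]
  exact (mul_le_of_le_one_right (abs_nonneg _) hc).trans h2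

theorem evo5 (hX : W.X n 5 = W.X n 0 + W.X n 3) {k k' i l : ℕ} (hi : (i, k) ∈ (W.cfg E n).I)
    (hl : (l, k) ∈ (W.cfg E n).I) (hi' : (i, k') ∈ (W.cfg E n).I)
    (hl' : (l, k') ∈ (W.cfg E n).I) :
    |(W.cfg E n).rel k' i l 5 - ((W.cfg E n).rel k i l 5 +
      ((W.cfg E n).z k' - (W.cfg E n).z k) * (W.cfg E n).rel k i l 3)| ≤
      98 * W.B'.d n ^ tp := by
  have := r.evoSL h hi hl hi' hl' (s := 5) (by decide)
  rw [compW_5 h, ratio5 h hX, one_mul, Lv0 r h] at this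
  have e1 : LvS SL (own W n i k' k) 5 = 0 := if_neg (by decide)
  have e2 : LnS SL ((W.cfg E n).rel k i l) 5 = (W.cfg E n).rel k i l 5 := if_neg (by decide)
  have e3 : LnS SL ((W.cfg E n).rel k i l) 3 = (W.cfg E n).rel k i l 3 := if_neg (by decide)
  rw [e1, e2, e3, zero_add] at this
  refine (own_mul r h hi hi' (r.rel_le h hi hl 3) this).trans (le_of_eq (by ring))

theorem evo6 (hX : W.X n 6 = W.X n 0 + W.X n 4) {k k' i l : ℕ} (hi : (i, k) ∈ (W.cfg E n).I)
    (hl : (l, k) ∈ (W.cfg E n).I) (hi' : (i, k') ∈ (W.cfg E n).I)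
    (hl' : (l, k') ∈ (W.cfg E n).I) :
    |(W.cfg E n).rel k' i l 6 - ((W.cfg E n).rel k i l 6 +
      ((W.cfg E n).z k' - (W.cfg E n).z k) * (W.cfg E n).rel k i l 4)| ≤
      98 * W.B'.d n ^ tp := by
  have := r.evoSL h hi hl hi' hl' (s := 6) (by decide)
  rw [compW_6 h, ratio6 h hX, one_mul, Lv0 r h] at this
  have e1 : LvS SL (own W n i k' k) 6 = 0 := if_neg (by decide)
  have e2 : LnS SL ((W.cfg E n).rel k i l) 6 = (W.cfg E n).rel k i l 6 := if_neg (by decide)
  have e3 : LnS SL ((W.cfg E n).rel k i l) 4 = (W.cfg E n).rel k i l 4 := if_neg (by decide)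
  rw [e1, e2, e3, zero_add] at this
  refine (own_mul r h hi hi' (r.rel_le h hi hl 4) this).trans (le_of_eq (by ring))

/-- the law of the line slots with `C, X, H` forgotten -/
theorem evoz {k k' i l : ℕ} (hi : (i, k) ∈ (W.cfg E n).I)
    (hl : (l, k) ∈ (W.cfg E n).I) (hi' : (i, k') ∈ (W.cfg E n).I)
    (hl' : (l, k') ∈ (W.cfg E n).I) {e : ℝ} (he : 0 ≤ e)
    (hf : ∀ s : Fin 12, s = 3 ∨ s = 4 ∨ s = 5 ∨ s = 6 ∨ s = 9 → |(W.cfg E n).rel k i l s| ≤ e)
    {s : Fin 12} (hs : s ∉ SL) :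
    |(W.cfg E n).rel k' i l s - compW W n (LvS SL (own W n i k' k))
      (zr (LnS SL ((W.cfg E n).rel k i l))) s| ≤ 96 * W.B'.d n ^ tp + 48 * e := by
  have h1 := r.evoSL h hi hl hi' hl' hs
  have ln : ∀ s, |LnS SL ((W.cfg E n).rel k i l) s| ≤ 1 := by
    intro s; unfold LnS
    split_ifs
    · simp
    · exact r.rel_le h hi hl s
  have lv : ∀ s, |LvS SL (own W n i k' k) s| ≤ 1 := by
    intro s; unfold LvS
    split_ifs
    · exact r.own_le h hi hi' s
    · simp
  have h2 := compW_lip h r.good he lv ln (zr_le ln)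
    (zr_close he
      (by rw [show LnS SL ((W.cfg E n).rel k i l) 3 = (W.cfg E n).rel k i l 3 from
            if_neg (by decide)]; exact hf 3 (by simp))
      (by rw [show LnS SL ((W.cfg E n).rel k i l) 4 = (W.cfg E n).rel k i l 4 from
            if_neg (by decide)]; exact hf 4 (by simp))
      (by rw [show LnS SL ((W.cfg E n).rel k i l) 5 = (W.cfg E n).rel k i l 5 from
            if_neg (by decide)]; exact hf 5 (by simp))
      (by rw [show LnS SL ((W.cfg E n).rel k i l) 6 = (W.cfg E n).rel k i l 6 from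
            if_neg (by decide)]; exact hf 6 (by simp))
      (by rw [show LnS SL ((W.cfg E n).rel k i l) 9 = (W.cfg E n).rel k i l 9 from
            if_neg (by decide)]; exact hf 9 (by simp))) s
  have e1 : (W.cfg E n).rel k' i l s - compW W n (LvS SL (own W n i k' k))
      (zr (LnS SL ((W.cfg E n).rel k i l))) s =
    ((W.cfg E n).rel k' i l s - compW W n (LvS SL (own W n i k' k))
      (LnS SL ((W.cfg E n).rel k i l)) s) +
    (compW W n (LvS SL (own W n i k' k)) (LnS SL ((W.cfg E n).rel k i l)) s -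
      compW W n (LvS SL (own W n i k' k)) (zr (LnS SL ((W.cfg E n).rel k i l))) s) := by ring
  rw [e1]
  exact (abs_add_le _ _).trans (add_le_add h1 h2)

/-- `C, X, H` stay fine -/
theorem evof {k k' i l : ℕ} (hi : (i, k) ∈ (W.cfg E n).I)
    (hl : (l, k) ∈ (W.cfg E n).I) (hi' : (i, k') ∈ (W.cfg E n).I)
    (hl' : (l, k') ∈ (W.cfg E n).I) {e : ℝ} (he : 0 ≤ e)
    (hf : ∀ s : Fin 12, s = 3 ∨ s = 4 ∨ s = 5 ∨ s = 6 ∨ s = 9 → |(W.cfg E n).rel k i l s| ≤ e)
    {s : Fin 12} (hs : s = 3 ∨ s = 4 ∨ s = 5 ∨ s = 6 ∨ s = 9) :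
    |(W.cfg E n).rel k' i l s| ≤ 96 * W.B'.d n ^ tp + 48 * e := by
  have key : ∀ s : Fin 12, s ∉ SL → compW W n (LvS SL (own W n i k' k))
      (zr (LnS SL ((W.cfg E n).rel k i l))) s = 0 →
      |(W.cfg E n).rel k' i l s| ≤ 96 * W.B'.d n ^ tp + 48 * e := by
    intro s hs h0
    have := evoz r h hi hl hi' hl' he hf hs
    rwa [h0, sub_zero] at this
  have a3 : LvS SL (own W n i k' k) 3 = 0 := if_neg (by decide)
  have a4 : LvS SL (own W n i k' k) 4 = 0 := if_neg (by decide)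
  have a5 : LvS SL (own W n i k' k) 5 = 0 := if_neg (by decide)
  have a6 : LvS SL (own W n i k' k) 6 = 0 := if_neg (by decide)
  have a9 : LvS SL (own W n i k' k) 9 = 0 := if_neg (by decide)
  rcases hs with rfl | rfl | rfl | rfl | rfl
  · refine key 3 (by decide) ?_
    rw [compW_3 h, a3]
    show (0 : ℝ) + 0 = 0
    ring
  · refine key 4 (by decide) ?_
    rw [compW_4 h, a4]
    show (0 : ℝ) + 0 = 0
    ring
  · refine key 5 (by decide) ?_
    rw [compW_5 h, a5]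
    show (0 : ℝ) + 0 - _ * (_ * 0) = 0
    ring
  · refine key 6 (by decide) ?_
    rw [compW_6 h, a6]
    show (0 : ℝ) + 0 - _ * (_ * 0) = 0
    ring
  · refine key 9 (by decide) ?_
    rw [compW_9 h, a9]

/-- **slot `11` between two heights**, `C, X, H` fine, tight wall `11 = 0 + 10` -/
theorem evo11 (hX : W.X n 11 = W.X n 0 + W.X n 10) {k k' i l : ℕ}
    (hi : (i, k) ∈ (W.cfg E n).I) (hl : (l, k) ∈ (W.cfg E n).I)
    (hi' : (i, k') ∈ (W.cfg E n).I) (hl' : (l, k') ∈ (W.cfg E n).I) {e : ℝ} (he : 0 ≤ e)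
    (hf : ∀ s : Fin 12, s = 3 ∨ s = 4 ∨ s = 5 ∨ s = 6 ∨ s = 9 →
      |(W.cfg E n).rel k i l s| ≤ e) :
    |(W.cfg E n).rel k' i l 11 - ((W.cfg E n).rel k i l 11 +
      ((W.cfg E n).z k' - (W.cfg E n).z k) * (W.cfg E n).rel k i l 10)| ≤
      98 * W.B'.d n ^ tp + 48 * e := by
  have := evoz r h hi hl hi' hl' he hf (s := 11) (by decide)
  rw [compW_11 h, ratio11 h hX, one_mul, Lv0 r h] at this
  have e1 : LvS SL (own W n i k' k) 11 = 0 := if_neg (by decide)
  have e2 : LnS SL ((W.cfg E n).rel k i l) 11 = (W.cfg E n).rel k i l 11 := if_neg (by decide)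
  have e3 : LnS SL ((W.cfg E n).rel k i l) 10 = (W.cfg E n).rel k i l 10 := if_neg (by decide)
  rw [e1, e2, e3, zero_add] at this
  refine (own_mul r h hi hi' (r.rel_le h hi hl 10) this).trans (le_of_eq (by ring))

end

end Crest.Agent.R116.Kf330
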