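import Crest.Agent.R116.Kr8_710
import Crest.Agent.R116.Kf1_330

/-!
# R116, K side (helper330): K1, F1, K2, F2 at any legal base point, part 2

* `k1f1` : tight walls `5 = 0 + 3`, `6 = 0 + 4`, one dimension (`b n`): growths `g` of `{3,4}` and `f`
  of `{5,6}` satisfy `0 < g → σ ≤ f` and `1 - σ < g → 1 ≤ f`.
* `k2f2` : tight wall `11 = 0 + 10`: the same for `{10}`, `{11}`; the fibre is fine in `C, X, H`; no
  condition on the flags and on the other walls.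
* `k1f1_lin`, `k2f2_lin` : for a linear profile.
-/

set_option autoImplicit false
set_option linter.unusedVariables false
set_option linter.unusedSectionVars false

open Filter Topology Finset

namespace Crest.Agent.R116.Kf330

open Crest.Agent.R138.Ex926 (Base U)
open Crest.Agent.R136.Net191 Crest.Agent.R136.Qg926 Crest.Agent.R136.Gf356
open Crest.Agent.R116.ChL222 Crest.Agent.R116.PL504 Crest.Agent.R116.EvL504
open Crest.Agent.R116.Kr710

variable {ι : ℕ → Type*} [∀ n, DecidableEq (ι n)]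

/-- boxes: `x` on `S`, `t` on `T`, `0` elsewhere -/
def bx2 (S T : Finset (Fin 12)) (x t : ℝ) : Fin 12 → ℝ := fun j =>
  if j ∈ S then x else if j ∈ T then t else 0

/-- the fine slots of the fibre of `K2`, `F2` -/
def FCXH : Finset (Fin 12) := {3, 4, 5, 6, 9}

theorem mem_FCXH {s : Fin 12} : s ∈ FCXH ↔ s = 3 ∨ s = 4 ∨ s = 5 ∨ s = 6 ∨ s = 9 := by
  unfold FCXH; simp

/-- from the two components back to the slots -/
theorem from_tb {b0 b1 u v A Bd : ℝ} (hb : b0 ^ 2 + b1 ^ 2 = 1) (h1 : |-b1 * u + b0 * v| ≤ A)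
    (h2 : |b0 * u + b1 * v| ≤ Bd) : |u| ≤ A + Bd ∧ |v| ≤ A + Bd := by
  have c0 : |b0| ≤ 1 := by
    rw [← sq_le_one_iff_abs_le_one]; nlinarith [sq_nonneg b1]
  have c1 : |b1| ≤ 1 := by
    rw [← sq_le_one_iff_abs_le_one]; nlinarith [sq_nonneg b0]
  have eu : u = b0 * (b0 * u + b1 * v) - b1 * (-b1 * u + b0 * v) := by
    have : b0 * (b0 * u + b1 * v) - b1 * (-b1 * u + b0 * v) = (b0 ^ 2 + b1 ^ 2) * u := by ring
    rw [this, hb, one_mul]
  have ev : v = b1 * (b0 * u + b1 * v) + b0 * (-b1 * u + b0 * v) := by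
    have : b1 * (b0 * u + b1 * v) + b0 * (-b1 * u + b0 * v) = (b0 ^ 2 + b1 ^ 2) * v := by ring
    rw [this, hb, one_mul]
  have m : ∀ p q : ℝ, |p| ≤ 1 → |p * q| ≤ |q| := fun p q hp => by
    rw [abs_mul]; exact mul_le_of_le_one_left (abs_nonneg _) hp
  constructor
  · rw [eu]
    refine (abs_sub _ _).trans ?_
    have := m b0 (b0 * u + b1 * v) c0
    have := m b1 (-b1 * u + b0 * v) c1
    linarith
  · rw [ev]
    refine (abs_add_le _ _).trans ?_
    have := m b1 (b0 * u + b1 * v) c1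
    have := m b0 (-b1 * u + b0 * v) c0
    linarith

/-- a combination with a unit vector -/
theorem to_t {b0 b1 u v A : ℝ} (hb : b0 ^ 2 + b1 ^ 2 = 1) (h1 : |u| ≤ A) (h2 : |v| ≤ A) :
    |-b1 * u + b0 * v| ≤ 2 * A := by
  have c0 : |b0| ≤ 1 := by
    rw [← sq_le_one_iff_abs_le_one]; nlinarith [sq_nonneg b1]
  have c1 : |b1| ≤ 1 := by
    rw [← sq_le_one_iff_abs_le_one]; nlinarith [sq_nonneg b0]
  refine (abs_add_le _ _).trans ?_
  rw [abs_mul, abs_mul, abs_neg]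
  have := mul_le_of_le_one_left (abs_nonneg u) c1
  have := mul_le_of_le_one_left (abs_nonneg v) c0
  linarith

theorem ab_of {u w A Bd : ℝ} (h1 : |w - u| ≤ A) (h2 : |w| ≤ Bd) : |u| ≤ A + Bd := by
  have := abs_sub_abs_le_abs_sub u w
  rw [abs_sub_comm u w] at this
  linarith

variable {W : Wnd 12 ι} {E : ∀ n, Finset (ι n)} {K tp σ R D x : ℝ} {Leg : Set (Fin 12 → ℝ)}
  {ν : (Fin 12 → ℝ) → ℝ}

/-- heights are bounded -/
theorem z_bd {n : ℕ} (r : Reg W E n) (h : WL W K tp) {k : ℕ} (hk : k ∈ (W.cfg E n).Z) :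
    |(W.cfg E n).z k| ≤ 1 := by
  have hk' : ∃ l, (l, k) ∈ (W.cfg E n).I := by
    have e := r.cfg_eq
    rw [e] at hk ⊢
    obtain ⟨i, hi, rfl⟩ := Finset.mem_image.1 hk
    exact ⟨W.lc n i, Finset.mem_image.2 ⟨i, hi, rfl⟩⟩
  rw [r.z_eq]
  exact h.crd_le r.good r.good.s0 (r.zspec hk').1 _

set_option maxHeartbeats 1600000 in
/-- **K1, F1 at any base point with the tight walls `5 = 0 + 3`, `6 = 0 + 4`** -/
theorem k1f1 (h : WL W K tp) (hR : ∀ᶠ n in (U : Filter ℕ), Reg W E n)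
    (HM : RModel W.B' (W.cfg E) σ R Leg ν D) {b : ℕ → Fin 2 → ℝ}
    (hb : ∀ᶠ n in (U : Filter ℕ), b n 0 ^ 2 + b n 1 ^ 2 = 1)
    (tc : ∀ ε : ℝ, 0 < ε → ∀ᶠ n in (U : Filter ℕ), ∀ k i l, (i, k) ∈ (W.cfg E n).I →
      (l, k) ∈ (W.cfg E n).I →
      |b n 0 * (W.cfg E n).rel k i l 3 + b n 1 * (W.cfg E n).rel k i l 4| ≤ W.B'.d n ^ (x - ε))
    (tx : ∀ ε : ℝ, 0 < ε → ∀ᶠ n in (U : Filter ℕ), ∀ k i l, (i, k) ∈ (W.cfg E n).I →
      (l, k) ∈ (W.cfg E n).I →
      |b n 0 * (W.cfg E n).rel k i l 5 + b n 1 * (W.cfg E n).rel k i l 6| ≤ W.B'.d n ^ (x - ε))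
    (h5 : ∀ᶠ n in (U : Filter ℕ), W.X n 5 = W.X n 0 + W.X n 3)
    (h6 : ∀ᶠ n in (U : Filter ℕ), W.X n 6 = W.X n 0 + W.X n 4)
    (hx : 0 < x) (hxR : x ≤ R) (hxt : x ≤ tp) (l0 : (0 : Fin 12 → ℝ) ∈ Leg)
    (lQ : ∀ t, 0 ≤ t → t ≤ x → bx2 ∅ {3, 4, 5, 6} 0 t ∈ Leg) (lr : bx2 ∅ {5, 6} 0 x ∈ Leg)
    {f g : ℝ} (hlow : ∀ t, 0 ≤ t → t ≤ x → (f + g) * t ≤ ν 0 - ν (bx2 ∅ {3, 4, 5, 6} 0 t))
    (hup : ν 0 - ν (bx2 ∅ {5, 6} 0 x) ≤ f * x) :
    (0 < g → σ ≤ f) ∧ (1 - σ < g → 1 ≤ f) := by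
  classical
  have hne := HM.nonempty
  choose p0 hp0 using hne
  set G := W.cfg E with hG
  set i0 : ℕ → ℕ := fun n => (p0 n).1 with hi0
  set k0 : ℕ → ℕ := fun n => (p0 n).2 with hk0
  have h0 : ∀ n, (i0 n, k0 n) ∈ (G n).I := hp0
  set v : ℕ → ℕ → ℝ := fun n i => -b n 1 * (G n).rel (k0 n) (i0 n) i 3 +
    b n 0 * (G n).rel (k0 n) (i0 n) i 4 with hv
  set a : ℕ → ℕ → ℝ := fun n i => -b n 1 * (G n).rel (k0 n) (i0 n) i 5 +
    b n 0 * (G n).rel (k0 n) (i0 n) i 6 with ha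
  -- differences at the pin
  have dif : ∀ᶠ n in (U : Filter ℕ), ∀ i i', (i, k0 n) ∈ (G n).I → (i', k0 n) ∈ (G n).I →
      |(v n i' - v n i) - (-b n 1 * (G n).rel (k0 n) i i' 3 + b n 0 * (G n).rel (k0 n) i i' 4)| ≤
        96 * W.B'.d n ^ x ∧
      |(a n i' - a n i) - (-b n 1 * (G n).rel (k0 n) i i' 5 + b n 0 * (G n).rel (k0 n) i i' 6)| ≤
        96 * W.B'.d n ^ x := by
    filter_upwards [hR, hb] with n r hbn i i' hi hi'
    have er : W.B'.d n ^ tp ≤ W.B'.d n ^ x := rpow_anti W.B' n hxt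
    have c3 := coc3 r h (h0 n) hi hi'
    have c4 := coc4 r h (h0 n) hi hi'
    have c5 := coc5 r h (h0 n) hi hi'
    have c6 := coc6 r h (h0 n) hi hi'
    constructor
    · have := to_t hbn (c3.trans (mul_le_mul_of_nonneg_left er (by norm_num)))
        (c4.trans (mul_le_mul_of_nonneg_left er (by norm_num)))
      refine le_of_eq_of_le ?_ (this.trans (le_of_eq (by ring)))
      congr 1
      rw [hv]; ring
    · have := to_t hbn (c5.trans (mul_le_mul_of_nonneg_left er (by norm_num)))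
        (c6.trans (mul_le_mul_of_nonneg_left er (by norm_num)))
      refine le_of_eq_of_le ?_ (this.trans (le_of_eq (by ring)))
      congr 1
      rw [ha]; ring
  have one_le : ∀ (n : ℕ) {s : ℝ}, s ≤ 0 → 1 ≤ W.B'.d n ^ s := fun n s hs => by
    calc (1 : ℝ) = W.B'.d n ^ (0 : ℝ) := (Real.rpow_zero _).symm
      _ ≤ _ := rpow_anti W.B' n hs
  have hbxI : ∀ {n i : ℕ} {p : Fin 12 → ℝ} {ε : ℝ}, i ∈ (G n).box p ε (i0 n) (k0 n) →
      (i, k0 n) ∈ (G n).I := fun hi => HM.toRUnif.memSlice.1 (RCfg.box_subset_slice hi)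
  refine pin_model HM i0 k0 (Eventually.of_forall h0) 0 0 (bx2 ∅ {5, 6} 0 x) l0 l0 lr ?_ hx hxR
    a v (fun t => bx2 ∅ {3, 4, 5, 6} 0 t) lQ (C1 := 1) one_pos ?_ ?_ ?_ ?_ ?_ hlow hup
  · intro j
    show (0 : ℝ) ≤ bx2 ∅ {5, 6} 0 x j
    unfold bx2
    split_ifs <;> linarith
  · intro ε hε
    filter_upwards [hR, ev_const_le W.B' hε 2] with n r h2 k hk
    have z1 := z_bd r h hk
    have z2 := z_bd r h (HM.toRUnif.memZ (h0 n))
    refine (abs_sub _ _).trans ?_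
    rw [one_mul]
    linarith
  · intro ε hε
    filter_upwards [hR, hb, ev_const_le W.B' hε 4] with n r hbn h4 i hi i' hi'
    have q : ∀ j, (j, k0 n) ∈ (G n).I → |v n j| ≤ 2 := by
      intro j hj
      have := to_t hbn (r.rel_le h (h0 n) hj 3) (r.rel_le h (h0 n) hj 4)
      linarith
    have q1 := q i (hbxI hi)
    have q2 := q i' (hbxI hi')
    refine (abs_sub _ _).trans ?_
    rw [one_mul]
    linarith
  · intro ε hε
    filter_upwards [hR] with n r k hk i hi i' hi' hI hI' j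
    rw [HM.base n]
    refine (r.rel_le h hI hI' j).trans (one_le n ?_)
    show (0 : ℝ) - 1 * ε ≤ 0
    linarith
  · intro C2 hC2
    refine ⟨C2 + 1, by linarith, fun ε hε => ?_⟩
    filter_upwards [hR, hb, dif, h5, h6, ev_const_le W.B' hε 500]
      with n r hbn hd e5 e6 hc k hk i hi i' hi' hI hI' hlo
    have Ii := hbxI hi
    have Ii' := hbxI hi'
    obtain ⟨d1, d2⟩ := hd i i' Ii Ii'
    have er : W.B'.d n ^ tp ≤ W.B'.d n ^ x := rpow_anti W.B' n hxt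
    have v5 := evo5 r h e5 Ii Ii' hI hI'
    have v6 := evo6 r h e6 Ii Ii' hI hI'
    have z1 := z_bd r h hk
    have z2 := z_bd r h (HM.toRUnif.memZ (h0 n))
    have hφ : |(G n).z k - (G n).z (k0 n)| ≤ 2 := (abs_sub _ _).trans (by linarith)
    have q5 : |(G n).rel k i i' 5| ≤ W.B'.d n ^ (x - C2 * ε) := by
      have := hlo 5
      rwa [HM.base n, show bx2 ∅ {5, 6} 0 x 5 = x from rfl] at this
    have q6 : |(G n).rel k i i' 6| ≤ W.B'.d n ^ (x - C2 * ε) := by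
      have := hlo 6
      rwa [HM.base n, show bx2 ∅ {5, 6} 0 x 6 = x from rfl] at this
    have t1 := to_t hbn (v5.trans (mul_le_mul_of_nonneg_left er (by norm_num)))
      (v6.trans (mul_le_mul_of_nonneg_left er (by norm_num)))
    have t2 := to_t hbn q5 q6
    have hxe : W.B'.d n ^ x ≤ W.B'.d n ^ (x - C2 * ε) := rpow_anti W.B' n (by
      have := mul_pos hC2 hε; linarith)
    set φ := (G n).z k - (G n).z (k0 n) with hφd
    set Vp := -b n 1 * (G n).rel (k0 n) i i' 3 + b n 0 * (G n).rel (k0 n) i i' 4 with hVp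
    set Ap := -b n 1 * (G n).rel (k0 n) i i' 5 + b n 0 * (G n).rel (k0 n) i i' 6 with hAp
    have e1 : (a n i' - a n i) + φ * (v n i' - v n i) =
        ((a n i' - a n i) - Ap) + φ * ((v n i' - v n i) - Vp) -
        (-b n 1 * ((G n).rel k i i' 5 - ((G n).rel (k0 n) i i' 5 + φ * (G n).rel (k0 n) i i' 3)) +
          b n 0 * ((G n).rel k i i' 6 - ((G n).rel (k0 n) i i' 6 + φ * (G n).rel (k0 n) i i' 4))) +
        (-b n 1 * (G n).rel k i i' 5 + b n 0 * (G n).rel k i i' 6) := by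
      rw [hAp, hVp]; ring
    have hm : |φ * ((v n i' - v n i) - Vp)| ≤ 2 * (96 * W.B'.d n ^ x) := by
      rw [abs_mul]
      exact mul_le_mul hφ d1 (abs_nonneg _) (by norm_num)
    rw [e1]
    refine (abs_add_le _ _).trans ?_
    refine (add_le_add ((abs_sub _ _).trans (add_le_add ((abs_add_le _ _).trans
      (add_le_add d2 hm)) t1)) t2).trans ?_
    have e2 : x - (C2 + 1) * ε = (-ε) + (x - C2 * ε) := by ring
    rw [e2, rpow_add']
    have hpos := rpos W.B' n (x - C2 * ε)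
    have := mul_le_mul_of_nonneg_right hc hpos.le
    linarith
  · intro C3 hC3
    refine ⟨C3 + 2, by linarith, fun t ht0 htx ε hε => ?_⟩
    filter_upwards [hR, hb, dif, tc ε hε, tx ε hε, ev_const_le W.B' hε 98]
      with n r hbn hd htc htx hc i hi i' hi' q1 q2 j
    have Ii := hbxI hi
    have Ii' := hbxI hi'
    obtain ⟨d1, d2⟩ := hd i i' Ii Ii'
    rw [HM.base n]
    have hCε := mul_pos hC3 hε
    have f1 : W.B'.d n ^ x ≤ W.B'.d n ^ (t - (C3 + 1) * ε) := rpow_anti W.B' n (by nlinarith)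
    have f2 : W.B'.d n ^ (x - ε) ≤ W.B'.d n ^ (t - (C3 + 1) * ε) :=
      rpow_anti W.B' n (by nlinarith)
    have f3 : W.B'.d n ^ (t - C3 * ε) ≤ W.B'.d n ^ (t - (C3 + 1) * ε) :=
      rpow_anti W.B' n (by nlinarith)
    have hpos := rpos W.B' n (t - (C3 + 1) * ε)
    have fin : 98 * W.B'.d n ^ (t - (C3 + 1) * ε) ≤ W.B'.d n ^ (t - (C3 + 2) * ε) := by
      have e2 : t - (C3 + 2) * ε = (-ε) + (t - (C3 + 1) * ε) := by ring
      rw [e2, rpow_add']
      exact mul_le_mul_of_nonneg_right hc hpos.le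
    have g1 : |-b n 1 * (G n).rel (k0 n) i i' 3 + b n 0 * (G n).rel (k0 n) i i' 4| ≤
        97 * W.B'.d n ^ (t - (C3 + 1) * ε) := by
      have := ab_of d1 q1
      linarith
    have g2 : |-b n 1 * (G n).rel (k0 n) i i' 5 + b n 0 * (G n).rel (k0 n) i i' 6| ≤
        97 * W.B'.d n ^ (t - (C3 + 1) * ε) := by
      have := ab_of d2 q2
      linarith
    obtain ⟨r3, r4⟩ := from_tb hbn g1 ((htc _ _ _ Ii Ii').trans f2)
    obtain ⟨r5, r6⟩ := from_tb hbn g2 ((htx _ _ _ Ii Ii').trans f2)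
    have oth : bx2 ∅ {3, 4, 5, 6} 0 t j = 0 →
        |(G n).rel (k0 n) i i' j| ≤ W.B'.d n ^ (bx2 ∅ {3, 4, 5, 6} 0 t j - (C3 + 2) * ε) := by
      intro hj
      rw [hj]
      exact (r.rel_le h Ii Ii' j).trans (one_le n (by nlinarith))
    by_cases j3 : j = 3
    · subst j3
      rw [show bx2 ∅ {3, 4, 5, 6} 0 t 3 = t from rfl]
      linarith
    by_cases j4 : j = 4
    · subst j4
      rw [show bx2 ∅ {3, 4, 5, 6} 0 t 4 = t from rfl]
      linarith
    by_cases j5 : j = 5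
    · subst j5
      rw [show bx2 ∅ {3, 4, 5, 6} 0 t 5 = t from rfl]
      linarith
    by_cases j6 : j = 6
    · subst j6
      rw [show bx2 ∅ {3, 4, 5, 6} 0 t 6 = t from rfl]
      linarith
    refine oth ?_
    unfold bx2
    rw [if_neg (by simp), if_neg (by simp [j3, j4, j5, j6])]

set_option maxHeartbeats 1600000 in
/-- **K2, F2 at any base point with the tight wall `11 = 0 + 10`** (fibre: `C, X, H` fine) -/
theorem k2f2 (h : WL W K tp) (hR : ∀ᶠ n in (U : Filter ℕ), Reg W E n)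
    (HM : RModel W.B' (W.cfg E) σ R Leg ν D)
    (h11 : ∀ᶠ n in (U : Filter ℕ), W.X n 11 = W.X n 0 + W.X n 10)
    (hx : 0 < x) (hxR : x ≤ R) (hxt : x ≤ tp) (l0 : bx2 FCXH ∅ x 0 ∈ Leg)
    (lQ : ∀ t, 0 ≤ t → t ≤ x → bx2 FCXH {10, 11} x t ∈ Leg) (lr : bx2 FCXH {11} x x ∈ Leg)
    {f g : ℝ} (hlow : ∀ t, 0 ≤ t → t ≤ x →
      (f + g) * t ≤ ν (bx2 FCXH ∅ x 0) - ν (bx2 FCXH {10, 11} x t))
    (hup : ν (bx2 FCXH ∅ x 0) - ν (bx2 FCXH {11} x x) ≤ f * x) :
    (0 < g → σ ≤ f) ∧ (1 - σ < g → 1 ≤ f) := by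
  classical
  have hD := HM.D1
  have hD0 : 0 < D := by linarith
  have hne := HM.nonempty
  choose p0 hp0 using hne
  set G := W.cfg E with hG
  set i0 : ℕ → ℕ := fun n => (p0 n).1 with hi0
  set k0 : ℕ → ℕ := fun n => (p0 n).2 with hk0
  have h0 : ∀ n, (i0 n, k0 n) ∈ (G n).I := hp0
  set v : ℕ → ℕ → ℝ := fun n i => (G n).rel (k0 n) (i0 n) i 10 with hv
  set a : ℕ → ℕ → ℝ := fun n i => (G n).rel (k0 n) (i0 n) i 11 with ha
  set pS : Fin 12 → ℝ := bx2 FCXH ∅ x 0 with hpS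
  have pSx : ∀ s : Fin 12, s ∈ FCXH → pS s = x := fun s hs => if_pos hs
  have pSo : ∀ s : Fin 12, s ∉ FCXH → pS s = 0 := fun s hs => by
    rw [hpS]; unfold bx2; rw [if_neg hs, if_neg (by simp)]
  have one_le : ∀ (n : ℕ) {s : ℝ}, s ≤ 0 → 1 ≤ W.B'.d n ^ s := fun n s hs => by
    calc (1 : ℝ) = W.B'.d n ^ (0 : ℝ) := (Real.rpow_zero _).symm
      _ ≤ _ := rpow_anti W.B' n hs
  have hbxI : ∀ {n i : ℕ} {p : Fin 12 → ℝ} {ε : ℝ}, i ∈ (G n).box p ε (i0 n) (k0 n) →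
      (i, k0 n) ∈ (G n).I := fun hi => HM.toRUnif.memSlice.1 (RCfg.box_subset_slice hi)
  -- the fibre at the pin
  have fib : ∀ ε : ℝ, 0 < ε → ∀ᶠ n in (U : Filter ℕ), ∀ i ∈ (G n).box pS ε (i0 n) (k0 n),
      ∀ i' ∈ (G n).box pS ε (i0 n) (k0 n),
      ∀ s : Fin 12, s = 3 ∨ s = 4 ∨ s = 5 ∨ s = 6 ∨ s = 9 →
        |(G n).rel (k0 n) i i' s| ≤ W.B'.d n ^ (x - D ^ 2 * ε) := by
    intro ε hε
    filter_upwards [near_pairs HM.toRUnif (Eventually.of_forall h0) l0 one_pos hε]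
      with n hn i hi i' hi' s hs
    have := hn i (by rwa [one_mul]) i' (by rwa [one_mul]) s
    rwa [HM.base n, pSx s (mem_FCXH.2 hs), mul_one] at this
  -- differences at the pin
  have dif : ∀ ε : ℝ, 0 < ε → ∀ᶠ n in (U : Filter ℕ), ∀ i ∈ (G n).box pS ε (i0 n) (k0 n),
      ∀ i' ∈ (G n).box pS ε (i0 n) (k0 n),
      |(v n i' - v n i) - (G n).rel (k0 n) i i' 10| ≤ 96 * W.B'.d n ^ (x - D ^ 2 * ε) ∧
      |(a n i' - a n i) - (G n).rel (k0 n) i i' 11| ≤ 96 * W.B'.d n ^ (x - D ^ 2 * ε) := by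
    intro ε hε
    filter_upwards [hR, fib ε hε] with n r hf i hi i' hi'
    have Ii := hbxI hi
    have Ii' := hbxI hi'
    have hDε : 0 ≤ D ^ 2 * ε := by positivity
    have er : W.B'.d n ^ tp ≤ W.B'.d n ^ (x - D ^ 2 * ε) := rpow_anti W.B' n (by linarith)
    have hp := (rpos W.B' n (x - D ^ 2 * ε)).le
    have c1 := coc10 r h (h0 n) Ii Ii' hp (hf i hi i' hi')
    have c2 := coc11 r h (h0 n) Ii Ii' hp (hf i hi i' hi')
    constructor
    · have e : (v n i' - v n i) - (G n).rel (k0 n) i i' 10 = (G n).rel (k0 n) (i0 n) i' 10 -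
        ((G n).rel (k0 n) (i0 n) i 10 + (G n).rel (k0 n) i i' 10) := by rw [hv]; ring
      rw [e]; linarith
    · have e : (a n i' - a n i) - (G n).rel (k0 n) i i' 11 = (G n).rel (k0 n) (i0 n) i' 11 -
        ((G n).rel (k0 n) (i0 n) i 11 + (G n).rel (k0 n) i i' 11) := by rw [ha]; ring
      rw [e]; linarith
  refine pin_model HM i0 k0 (Eventually.of_forall h0) pS pS (bx2 FCXH {11} x x) l0 l0 lr ?_ hx hxR
    a v (fun t => bx2 FCXH {10, 11} x t) lQ (C1 := D ^ 2 + 1) (by positivity) ?_ ?_ ?_ ?_ ?_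
    hlow hup
  · intro j
    rw [hpS]
    unfold bx2
    split_ifs <;> simp_all <;> linarith
  · intro ε hε
    filter_upwards [hR, ev_const_le W.B' hε 2] with n r h2 k hk
    have z1 := z_bd r h hk
    have z2 := z_bd r h (HM.toRUnif.memZ (h0 n))
    refine (abs_sub _ _).trans ?_
    have : W.B'.d n ^ (-ε) ≤ W.B'.d n ^ (-((D ^ 2 + 1) * ε)) := rpow_anti W.B' n (by
      have : 0 ≤ D ^ 2 * ε := by positivity
      linarith)
    linarith
  · intro ε hε
    filter_upwards [hR, ev_const_le W.B' hε 4] with n r h4 i hi i' hi'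
    have q1 := r.rel_le h (h0 n) (hbxI hi) 10
    have q2 := r.rel_le h (h0 n) (hbxI hi') 10
    refine (abs_sub _ _).trans ?_
    have : W.B'.d n ^ (-ε) ≤ W.B'.d n ^ (-((D ^ 2 + 1) * ε)) := rpow_anti W.B' n (by
      have : 0 ≤ D ^ 2 * ε := by positivity
      linarith)
    show |(G n).rel (k0 n) (i0 n) i 10| + |(G n).rel (k0 n) (i0 n) i' 10| ≤ _
    linarith
  · intro ε hε
    filter_upwards [hR, fib ε hε, ev_const_le W.B' hε 144] with n r hf hc k hk i hi i' hi' hI hI' j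
    rw [HM.base n]
    have Ii := hbxI hi
    have Ii' := hbxI hi'
    have hDε : 0 ≤ D ^ 2 * ε := by positivity
    by_cases hj : j ∈ FCXH
    · rw [pSx j hj]
      have hp := (rpos W.B' n (x - D ^ 2 * ε)).le
      have er : W.B'.d n ^ tp ≤ W.B'.d n ^ (x - D ^ 2 * ε) := rpow_anti W.B' n (by linarith)
      have := evof r h Ii Ii' hI hI' hp (hf i hi i' hi') (mem_FCXH.1 hj)
      have e2 : x - (D ^ 2 + 1) * ε = (-ε) + (x - D ^ 2 * ε) := by ring
      rw [e2, rpow_add']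
      have := mul_le_mul_of_nonneg_right hc hp
      linarith
    · rw [pSo j hj]
      refine (r.rel_le h hI hI' j).trans (one_le n ?_)
      nlinarith
  · intro C2 hC2
    refine ⟨C2 + D ^ 2 + 1, by positivity, fun ε hε => ?_⟩
    filter_upwards [hR, fib ε hε, dif ε hε, h11, ev_const_le W.B' hε 500]
      with n r hf hd e11 hc k hk i hi i' hi' hI hI' hlo
    have Ii := hbxI hi
    have Ii' := hbxI hi'
    obtain ⟨d1, d2⟩ := hd i hi i' hi'
    have hDε : 0 ≤ D ^ 2 * ε := by positivity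
    have hC2ε : 0 ≤ C2 * ε := by positivity
    have hp := (rpos W.B' n (x - D ^ 2 * ε)).le
    have v11 := evo11 r h e11 Ii Ii' hI hI' hp (hf i hi i' hi')
    have z1 := z_bd r h hk
    have z2 := z_bd r h (HM.toRUnif.memZ (h0 n))
    have hφ : |(G n).z k - (G n).z (k0 n)| ≤ 2 := (abs_sub _ _).trans (by linarith)
    have q11 : |(G n).rel k i i' 11| ≤ W.B'.d n ^ (x - C2 * ε) := by
      have := hlo 11
      rwa [HM.base n, show bx2 FCXH {11} x x 11 = x from rfl] at this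
    set φ := (G n).z k - (G n).z (k0 n) with hφd
    have e1 : (a n i' - a n i) + φ * (v n i' - v n i) =
        ((a n i' - a n i) - (G n).rel (k0 n) i i' 11) +
        φ * ((v n i' - v n i) - (G n).rel (k0 n) i i' 10) -
        ((G n).rel k i i' 11 - ((G n).rel (k0 n) i i' 11 + φ * (G n).rel (k0 n) i i' 10)) +
        (G n).rel k i i' 11 := by ring
    have hm : |φ * ((v n i' - v n i) - (G n).rel (k0 n) i i' 10)| ≤
        2 * (96 * W.B'.d n ^ (x - D ^ 2 * ε)) := by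
      rw [abs_mul]
      exact mul_le_mul hφ d1 (abs_nonneg _) (by norm_num)
    rw [e1]
    refine (abs_add_le _ _).trans ?_
    refine (add_le_add ((abs_sub _ _).trans (add_le_add ((abs_add_le _ _).trans
      (add_le_add d2 hm)) v11)) q11).trans ?_
    have e2 : x - (C2 + D ^ 2 + 1) * ε = (-ε) + (x - (C2 + D ^ 2) * ε) := by ring
    rw [e2, rpow_add']
    have g1 : W.B'.d n ^ tp ≤ W.B'.d n ^ (x - (C2 + D ^ 2) * ε) := rpow_anti W.B' n (by nlinarith)
    have g2 : W.B'.d n ^ (x - D ^ 2 * ε) ≤ W.B'.d n ^ (x - (C2 + D ^ 2) * ε) :=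
      rpow_anti W.B' n (by nlinarith)
    have g3 : W.B'.d n ^ (x - C2 * ε) ≤ W.B'.d n ^ (x - (C2 + D ^ 2) * ε) :=
      rpow_anti W.B' n (by nlinarith)
    have hpos := rpos W.B' n (x - (C2 + D ^ 2) * ε)
    have := mul_le_mul_of_nonneg_right hc hpos.le
    linarith
  · intro C3 hC3
    refine ⟨C3 + D ^ 2 + 1, by positivity, fun t ht0 htx ε hε => ?_⟩
    filter_upwards [hR, fib ε hε, dif ε hε, ev_const_le W.B' hε 98]
      with n r hf hd hc i hi i' hi' q1 q2 j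
    have Ii := hbxI hi
    have Ii' := hbxI hi'
    obtain ⟨d1, d2⟩ := hd i hi i' hi'
    rw [HM.base n]
    have hCε := mul_pos hC3 hε
    have hDε : 0 ≤ D ^ 2 * ε := by positivity
    have f1 : W.B'.d n ^ (x - D ^ 2 * ε) ≤ W.B'.d n ^ (t - (C3 + D ^ 2) * ε) :=
      rpow_anti W.B' n (by nlinarith)
    have f3 : W.B'.d n ^ (t - C3 * ε) ≤ W.B'.d n ^ (t - (C3 + D ^ 2) * ε) :=
      rpow_anti W.B' n (by nlinarith)
    have hpos := rpos W.B' n (t - (C3 + D ^ 2) * ε)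
    have fin : 98 * W.B'.d n ^ (t - (C3 + D ^ 2) * ε) ≤ W.B'.d n ^ (t - (C3 + D ^ 2 + 1) * ε) := by
      have e2 : t - (C3 + D ^ 2 + 1) * ε = (-ε) + (t - (C3 + D ^ 2) * ε) := by ring
      rw [e2, rpow_add']
      exact mul_le_mul_of_nonneg_right hc hpos.le
    have g1 : |(G n).rel (k0 n) i i' 10| ≤ 97 * W.B'.d n ^ (t - (C3 + D ^ 2) * ε) := by
      have := ab_of d1 q1
      linarith
    have g2 : |(G n).rel (k0 n) i i' 11| ≤ 97 * W.B'.d n ^ (t - (C3 + D ^ 2) * ε) := by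
      have := ab_of d2 q2
      linarith
    by_cases hj : j ∈ FCXH
    · have e : bx2 FCXH {10, 11} x t j = x := if_pos hj
      rw [e]
      exact (hf i hi i' hi' j (mem_FCXH.1 hj)).trans (rpow_anti W.B' n (by nlinarith))
    by_cases j10 : j = 10
    · subst j10
      rw [show bx2 FCXH {10, 11} x t 10 = t from rfl]
      linarith
    by_cases j11 : j = 11
    · subst j11
      rw [show bx2 FCXH {10, 11} x t 11 = t from rfl]
      linarith
    have e : bx2 FCXH {10, 11} x t j = 0 := by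
      unfold bx2
      rw [if_neg hj, if_neg (by simp [j10, j11])]
    rw [e]
    exact (r.rel_le h Ii Ii' j).trans (one_le n (by nlinarith))

end Crest.Agent.R116.Kf330
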