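import Crest.Agent.R116.Kf2_330

/-!
# R116, K side (helper330): K1, F1, K2, F2 at any legal base point, part 3: linear profiles

`k1f1_lin`, `k2f2_lin` : the profile is `ν p = ∑ s ∈ univ.erase 0, r s * (t - p s)` (954's
`WinU.nu_lin`).
-/

set_option autoImplicit false
set_option linter.unusedVariables false
set_option linter.unusedSectionVars false

open Filter Topology Finset

namespace Crest.Agent.R116.Kf330

open Crest.Agent.R138.Ex926 (Base U)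
open Crest.Agent.R136.Net191 Crest.Agent.R136.Qg926 Crest.Agent.R136.Gf356
open Crest.Agent.R116.ChL222 Crest.Agent.R116.PL504 Crest.Agent.R116.EvL504
open Crest.Agent.R116.Kr710

/-- difference of a linear profile -/
theorem lin_sub {r : Fin 12 → ℝ} {t y : ℝ} {p q : Fin 12 → ℝ} {T : Finset (Fin 12)} (hT : 0 ∉ T)
    (hq : ∀ s, q s = p s + if s ∈ T then y else 0) :
    (∑ s ∈ univ.erase 0, r s * (t - p s)) - (∑ s ∈ univ.erase 0, r s * (t - q s)) =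
      (∑ s ∈ T, r s) * y := by
  rw [← Finset.sum_sub_distrib]
  have h1 : ∀ s ∈ univ.erase (0 : Fin 12), r s * (t - p s) - r s * (t - q s) =
      if s ∈ T then r s * y else 0 := by
    intro s _
    rw [hq s]
    split_ifs <;> ring
  rw [Finset.sum_congr rfl h1, Finset.sum_ite_mem, Finset.sum_mul]
  have h2 : univ.erase (0 : Fin 12) ∩ T = T := by
    ext s
    simp only [Finset.mem_inter, Finset.mem_erase, Finset.mem_univ, and_true]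
    exact ⟨fun h => h.2, fun h => ⟨fun h0 => hT (h0 ▸ h), h⟩⟩
  rw [h2]

variable {ι : ℕ → Type*} [∀ n, DecidableEq (ι n)]
variable {W : Wnd 12 ι} {E : ∀ n, Finset (ι n)} {K tp σ R D x : ℝ} {Leg : Set (Fin 12 → ℝ)}
  {ν : (Fin 12 → ℝ) → ℝ}

/-- **K1, F1**, linear profile -/
theorem k1f1_lin (h : WL W K tp) (hR : ∀ᶠ n in (U : Filter ℕ), Reg W E n)
    (HM : RModel W.B' (W.cfg E) σ R Leg ν D) {b : ℕ → Fin 2 → ℝ}
    (hb : ∀ᶠ n in (U : Filter ℕ), b n 0 ^ 2 + b n 1 ^ 2 = 1)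
    (tc : ∀ ε : ℝ, 0 < ε → ∀ᶠ n in (U : Filter ℕ), ∀ k i l, (i, k) ∈ (W.cfg E n).I →
      (l, k) ∈ (W.cfg E n).I →
      |b n 0 * (W.cfg E n).rel k i l 3 + b n 1 * (W.cfg E n).rel k i l 4| ≤ W.B'.d n ^ (x - ε))
    (tx : ∀ ε : ℝ, 0 < ε → ∀ᶠ n in (U : Filter ℕ), ∀ k i l, (i, k) ∈ (W.cfg E n).I →
      (l, k) ∈ (W.cfg E n).I →
      |b n 0 * (W.cfg E n).rel k i l 5 + b n 1 * (W.cfg E n).rel k i l 6| ≤ W.B'.d n ^ (x - ε))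
    (h5 : ∀ᶠ n in (U : Filter ℕ), W.X n 5 = W.X n 0 + W.X n 3)
    (h6 : ∀ᶠ n in (U : Filter ℕ), W.X n 6 = W.X n 0 + W.X n 4)
    (hx : 0 < x) (hxR : x ≤ R) (hxt : x ≤ tp) (l0 : (0 : Fin 12 → ℝ) ∈ Leg)
    (lQ : ∀ t, 0 ≤ t → t ≤ x → bx2 ∅ {3, 4, 5, 6} 0 t ∈ Leg) (lr : bx2 ∅ {5, 6} 0 x ∈ Leg)
    {r : Fin 12 → ℝ} {t : ℝ} (hν : ∀ p ∈ Leg, ν p = ∑ s ∈ univ.erase 0, r s * (t - p s)) :
    (0 < r 3 + r 4 → σ ≤ r 5 + r 6) ∧ (1 - σ < r 3 + r 4 → 1 ≤ r 5 + r 6) := by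
  refine k1f1 h hR HM hb tc tx h5 h6 hx hxR hxt l0 lQ lr ?_ ?_
  · intro y hy0 hyx
    rw [hν _ l0, hν _ (lQ y hy0 hyx), lin_sub (T := {3, 4, 5, 6}) (y := y) (by decide)
      (fun s => by unfold bx2; simp)]
    refine le_of_eq ?_
    congr 1
    rw [Finset.sum_insert (by decide), Finset.sum_insert (by decide),
      Finset.sum_insert (by decide), Finset.sum_singleton]
    ring
  · rw [hν _ l0, hν _ lr, lin_sub (T := {5, 6}) (y := x) (by decide)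
      (fun s => by unfold bx2; simp)]
    refine le_of_eq ?_
    congr 1
    rw [Finset.sum_insert (by decide), Finset.sum_singleton]

/-- **K2, F2**, linear profile -/
theorem k2f2_lin (h : WL W K tp) (hR : ∀ᶠ n in (U : Filter ℕ), Reg W E n)
    (HM : RModel W.B' (W.cfg E) σ R Leg ν D)
    (h11 : ∀ᶠ n in (U : Filter ℕ), W.X n 11 = W.X n 0 + W.X n 10)
    (hx : 0 < x) (hxR : x ≤ R) (hxt : x ≤ tp) (l0 : bx2 FCXH ∅ x 0 ∈ Leg)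
    (lQ : ∀ t, 0 ≤ t → t ≤ x → bx2 FCXH {10, 11} x t ∈ Leg) (lr : bx2 FCXH {11} x x ∈ Leg)
    {r : Fin 12 → ℝ} {t : ℝ} (hν : ∀ p ∈ Leg, ν p = ∑ s ∈ univ.erase 0, r s * (t - p s)) :
    (0 < r 10 → σ ≤ r 11) ∧ (1 - σ < r 10 → 1 ≤ r 11) := by
  have key : ∀ (T : Finset (Fin 12)), (∀ s ∈ T, s ∉ FCXH) → ∀ (y : ℝ) (s : Fin 12),
      bx2 FCXH T x y s = bx2 FCXH ∅ x 0 s + if s ∈ T then y else 0 := by
    intro T hT y s
    unfold bx2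
    by_cases h1 : s ∈ FCXH
    · rw [if_pos h1, if_pos h1, if_neg (fun h2 => hT s h2 h1), add_zero]
    · rw [if_neg h1, if_neg h1, if_neg (Finset.notMem_empty s), zero_add]
  refine k2f2 h hR HM h11 hx hxR hxt l0 lQ lr ?_ ?_
  · intro y hy0 hyx
    rw [hν _ l0, hν _ (lQ y hy0 hyx), lin_sub (T := {10, 11}) (y := y) (by decide)
      (key _ (by unfold FCXH; decide) y)]
    refine le_of_eq ?_
    congr 1
    rw [Finset.sum_insert (by decide), Finset.sum_singleton]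
    ring
  · rw [hν _ l0, hν _ lr, lin_sub (T := {11}) (y := x) (by decide)
      (key _ (by unfold FCXH; decide) x)]
    refine le_of_eq ?_
    congr 1
    rw [Finset.sum_singleton]

/-! ### legality of the boxes -/

/-- the boxes of `k1f1` in a set given by `0 ≤ p s ≤ t` off the slot `0` and the walls without the
slot `0` -/
theorem mem_of_walls {Leg : Set (Fin 12 → ℝ)} {t : ℝ}
    (hL : ∀ p : Fin 12 → ℝ, (∀ s, s ≠ 0 → 0 ≤ p s ∧ p s ≤ t) →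
      p 7 ≤ p 2 + p 3 → p 7 ≤ p 1 + p 5 → p 8 ≤ p 2 + p 4 → p 8 ≤ p 1 + p 6 →
      p 9 ≤ p 3 + p 5 → p 9 ≤ p 4 + p 6 → p 10 ≤ p 3 + p 7 → p 10 ≤ p 4 + p 8 →
      p 10 ≤ p 1 + p 9 → p 11 ≤ p 5 + p 7 → p 11 ≤ p 6 + p 8 → p 11 ≤ p 2 + p 9 → p ∈ Leg)
    {x : ℝ} (hx : 0 ≤ x) (hxt : x ≤ t) :
    (0 : Fin 12 → ℝ) ∈ Leg ∧ (∀ y, 0 ≤ y → y ≤ x → bx2 ∅ {3, 4, 5, 6} 0 y ∈ Leg) ∧
    bx2 ∅ {5, 6} 0 x ∈ Leg ∧ bx2 FCXH ∅ x 0 ∈ Leg ∧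
    (∀ y, 0 ≤ y → y ≤ x → bx2 FCXH {10, 11} x y ∈ Leg) ∧ bx2 FCXH {11} x x ∈ Leg := by
  have b : ∀ (S T : Finset (Fin 12)) (u y : ℝ), 0 ≤ u → u ≤ t → 0 ≤ y → y ≤ t → ∀ s : Fin 12,
      s ≠ 0 → 0 ≤ bx2 S T u y s ∧ bx2 S T u y s ≤ t := by
    intro S T u y h1 h2 h3 h4 s _
    unfold bx2
    split_ifs <;> constructor <;> linarith
  have e1 : ∀ y : ℝ, bx2 ∅ {3, 4, 5, 6} 0 y = ![0, 0, 0, y, y, y, y, 0, 0, 0, 0, 0] := by
    intro y; funext s; fin_cases s <;> rfl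
  have e2 : bx2 ∅ {5, 6} 0 x = ![0, 0, 0, 0, 0, x, x, 0, 0, 0, 0, 0] := by
    funext s; fin_cases s <;> rfl
  have e3 : bx2 FCXH ∅ x 0 = ![0, 0, 0, x, x, x, x, 0, 0, x, 0, 0] := by
    funext s; fin_cases s <;> rfl
  have e4 : ∀ y : ℝ, bx2 FCXH {10, 11} x y = ![0, 0, 0, x, x, x, x, 0, 0, x, y, y] := by
    intro y; funext s; fin_cases s <;> rfl
  have e5 : bx2 FCXH {11} x x = ![0, 0, 0, x, x, x, x, 0, 0, x, 0, x] := by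
    funext s; fin_cases s <;> rfl
  refine ⟨?_, ?_, ?_, ?_, ?_, ?_⟩
  · refine hL 0 (fun s _ => ⟨le_rfl, hx.trans hxt⟩) ?_ ?_ ?_ ?_ ?_ ?_ ?_ ?_ ?_ ?_ ?_ ?_ <;> simp
  · intro y h1 h2
    have := b ∅ {3, 4, 5, 6} 0 y le_rfl (hx.trans hxt) h1 (h2.trans hxt)
    rw [e1] at this ⊢
    refine hL _ this ?_ ?_ ?_ ?_ ?_ ?_ ?_ ?_ ?_ ?_ ?_ ?_ <;> simp <;> linarith
  · have := b ∅ {5, 6} 0 x le_rfl (hx.trans hxt) hx hxt
    rw [e2] at this ⊢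
    refine hL _ this ?_ ?_ ?_ ?_ ?_ ?_ ?_ ?_ ?_ ?_ ?_ ?_ <;> simp <;> linarith
  · have := b FCXH ∅ x 0 hx hxt le_rfl (hx.trans hxt)
    rw [e3] at this ⊢
    refine hL _ this ?_ ?_ ?_ ?_ ?_ ?_ ?_ ?_ ?_ ?_ ?_ ?_ <;> simp <;> linarith
  · intro y h1 h2
    have := b FCXH {10, 11} x y hx hxt h1 (h2.trans hxt)
    rw [e4] at this ⊢
    refine hL _ this ?_ ?_ ?_ ?_ ?_ ?_ ?_ ?_ ?_ ?_ ?_ ?_ <;> simp <;> linarith
  · have := b FCXH {11} x x hx hxt hx hxt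
    rw [e5] at this ⊢
    refine hL _ this ?_ ?_ ?_ ?_ ?_ ?_ ?_ ?_ ?_ ?_ ?_ ?_ <;> simp <;> linarith

end Crest.Agent.R116.Kf330
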