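import Crest.Agent.R116.Kr12_710
import Crest.Agent.R116.SgR1_337

/-!
# R116, K side: the static facts in linear form (helper710)

`H1_lin`, `S1_lin`, `S2_lin`, `S3_lin`, `TB_lin`, `RM_lin` : over `RUnif` + `LawU` + `ThinU`, boxes
`bx9 z D E C X B N P F` (slots `z, D, E, C, X, B, N = H, P, F`), the exponent linear on the boxes used;
each fact needs ONE tight wall.
-/

set_option autoImplicit false
set_option linter.unusedVariables false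
set_option linter.unusedSectionVars false

open Filter Topology Finset

namespace Crest.Agent.R116.Kr710

open Crest.Agent.R138.Ex926 (Base U)
open Crest.Agent.R138.Fal658 Crest.Agent.R136.Gf356
open Crest.Agent.R116.EvL504 (comp SL Sides)
open Crest.Agent.R116.Sg337 (bx9)

section

variable {κ : Type} [DecidableEq κ] {B : Base} {G : ℕ → RCfg κ} {Leg : Set (κ → ℝ)}
  {ν : (κ → ℝ) → ℝ} {D : ℝ}

/-- the growth of the time is at most `1` -/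
theorem SlabV.time_le (H : RUnif B G Leg ν D) {i0 k0 : ℕ → ℕ}
    (h0 : ∀ᶠ n in (U : Filter ℕ), (i0 n, k0 n) ∈ (G n).I) {pS : κ → ℝ} (lS : pS ∈ Leg)
    {JC JX JH : Finset κ} {c x h : ℕ → ℕ → ℝ} {y : ℝ} (hy : 0 < y)
    (S : SlabV B G i0 k0 pS JC JX JH c x h y) (l2 : EG pS JC JX JH 0 y 0 ∈ Leg) :
    ν pS - ν (EG pS JC JX JH 0 y 0) ≤ y := by
  classical
  have hD := H.D1
  have hD0 : 0 < D := by linarith
  obtain ⟨C1, hC1, h1⟩ := S.co 1 one_pos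
  set q := EG pS JC JX JH 0 y 0 with hq
  set C : ℝ := C1 + 1 + D ^ 2 with hC
  have hC0 : 0 < C := by positivity
  refine le_of_forall_pos_le_add fun e he => ?_
  have hK : 0 < C1 + 2 + D * C := by positivity
  obtain ⟨ε, hε, hεe⟩ : ∃ ε : ℝ, 0 < ε ∧ (C1 + 2 + D * C) * ε ≤ e :=
    ⟨e / (C1 + 2 + D * C), by positivity, le_of_eq (by field_simp)⟩
  have hCε : 0 < C * ε := by positivity
  obtain ⟨n, g0, g1, g2, g3, g4, g5⟩ := (h0.and ((h1 ε hε).and ((ev_const_le B hε 8).and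
    ((near_pairs H h0 lS one_pos hε).and ((H.low pS lS ε hε).and
      (H.up q l2 (C * ε) hCε)))))).exists
  rw [one_mul] at g1 g3
  have hr := rpos B n y
  set r := B.d n ^ y with hrd
  set bx := (G n).box pS ε (i0 n) (k0 n) with hbx
  have c1 := g4 _ _ g0
  -- number of cells
  have c2 : ((bx.image fun l => ⌊x n l / r⌋).card : ℝ) ≤ B.d n ^ (-y - (C1 + 1) * ε) := by
    set M := B.d n ^ (-(C1 * ε)) with hM
    have hM0 : 0 < M := rpos B n _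
    have s1 : bx.image (fun l => ⌊x n l / r⌋) ⊆ Finset.Icc (⌊-(M / r)⌋) (⌊M / r⌋) := by
      intro k hk
      obtain ⟨l, hl, rfl⟩ := mem_image.1 hk
      have := abs_le.1 (g1 l hl).2.1
      rw [mem_Icc]
      constructor
      · refine Int.floor_le_floor ?_
        rw [← neg_div]
        exact div_le_div_of_nonneg_right this.1 hr.le
      · exact Int.floor_le_floor (div_le_div_of_nonneg_right this.2 hr.le)
    have s2 : ((bx.image fun l => ⌊x n l / r⌋).card : ℝ) ≤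
        ((Finset.Icc (⌊-(M / r)⌋) (⌊M / r⌋)).card : ℝ) := by exact_mod_cast card_le_card s1
    have s3 : ((Finset.Icc (⌊-(M / r)⌋) (⌊M / r⌋)).card : ℝ) ≤ 2 * (M / r) + 2 := by
      rw [Int.card_Icc]
      have t1 := Int.floor_le (M / r)
      have t2 := Int.lt_floor_add_one (-(M / r))
      have t3 : 0 ≤ M / r := by positivity
      have t4 : ⌊-(M / r)⌋ ≤ ⌊M / r⌋ := Int.floor_le_floor (by linarith)
      have t5 : ((⌊M / r⌋ + 1 - ⌊-(M / r)⌋).toNat : ℝ) = ((⌊M / r⌋ + 1 - ⌊-(M / r)⌋ : ℤ) : ℝ) := by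
        exact_mod_cast Int.toNat_of_nonneg (by omega)
      rw [t5]
      push_cast
      linarith
    have s4 : 2 * (M / r) + 2 ≤ 4 * (M / r) := by
      have : 1 ≤ M / r := by
        rw [le_div_iff₀ hr, one_mul]
        have e1 : r ≤ 1 := by
          calc r ≤ B.d n ^ (0 : ℝ) := rpow_anti B n hy.le
            _ = 1 := Real.rpow_zero _
        have e2 : (1 : ℝ) ≤ M := by
          calc (1 : ℝ) = B.d n ^ (0 : ℝ) := (Real.rpow_zero _).symm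
            _ ≤ M := rpow_anti B n (by have := mul_pos hC1 hε; linarith)
        linarith
      linarith
    have s5 : 4 * (M / r) ≤ B.d n ^ (-ε) * (M / r) :=
      mul_le_mul_of_nonneg_right (by linarith) (by positivity)
    have s6 : B.d n ^ (-ε) * (M / r) = B.d n ^ (-y - (C1 + 1) * ε) := by
      rw [hM, hrd, div_eq_mul_inv, ← Real.rpow_neg (B.pos n).le, ← rpow_add', ← rpow_add']
      congr 1; ring
    linarith
  -- one cell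
  have c3 : ∀ k ∈ bx.image (fun l => ⌊x n l / r⌋),
      ((bx.filter fun l => ⌊x n l / r⌋ = k).card : ℝ) ≤ B.d n ^ (-ν q - D * (C * ε)) := by
    intro k hk
    obtain ⟨l, hl, rfl⟩ := mem_image.1 hk
    have Il := H.memSlice.1 (RCfg.box_subset_slice hl)
    have sub : (bx.filter fun l' => ⌊x n l' / r⌋ = ⌊x n l / r⌋) ⊆ (G n).box q (C * ε) l (k0 n) := by
      intro l' hl'
      obtain ⟨a1, a2⟩ := mem_filter.1 hl'
      refine RCfg.mem_box.2 ⟨RCfg.box_subset_slice a1, fun j => ?_⟩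
      have hdx : |x n l' - x n l| ≤ r := by
        have := Int.abs_sub_lt_one_of_floor_eq_floor a2
        rw [← sub_div, abs_div, abs_of_pos hr, div_lt_one hr] at this
        exact this.le
      rw [H.base n]
      by_cases hj : j ∈ JX
      · have e1 := ((g1 l hl).2.2 l' a1).2.1.1 j hj
        rw [hq, EG_X (S.dis j hj) hj, S.zX j hj, zero_add]
        have e3 : |x n l' - x n l| + r ≤ B.d n ^ (y - 1 * ε) := by
          have : B.d n ^ (y - 1 * ε) = B.d n ^ (-ε) * r := by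
            rw [hrd, ← rpow_add']; congr 1; ring
          rw [this]
          nlinarith
        calc |(G n).rel (k0 n) l l' j| ≤ B.d n ^ (-(C1 * ε)) * (|x n l' - x n l| + r) := e1
          _ ≤ B.d n ^ (-(C1 * ε)) * B.d n ^ (y - 1 * ε) :=
              mul_le_mul_of_nonneg_left e3 (rpos B n _).le
          _ = B.d n ^ (y - (C1 + 1) * ε) := by rw [← rpow_add']; congr 1; ring
          _ ≤ B.d n ^ (y - C * ε) := anK B n hε (by rw [hC]; have := sq_nonneg D; linarith)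
      · have e1 := g3 l hl l' a1 j
        rw [H.base n] at e1
        have e2 : q j = pS j := by
          rw [hq]
          unfold EG
          split_ifs <;> simp
        rw [e2]
        refine e1.trans ?_
        have : D ^ 2 * 1 * ε = D ^ 2 * ε := by ring
        rw [this]
        exact anK B n hε (by rw [hC]; linarith)
    exact le_trans (mod_cast card_le_card sub) (g5 _ _ Il)
  have c4 : (bx.card : ℝ) ≤ ((bx.image fun l => ⌊x n l / r⌋).card : ℝ) *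
      B.d n ^ (-ν q - D * (C * ε)) := by
    have e1 := Finset.card_eq_sum_card_image (fun l => ⌊x n l / r⌋) bx
    calc (bx.card : ℝ) = ∑ k ∈ bx.image (fun l => ⌊x n l / r⌋),
          ((bx.filter fun l => ⌊x n l / r⌋ = k).card : ℝ) := by exact_mod_cast e1
      _ ≤ ∑ k ∈ bx.image (fun l => ⌊x n l / r⌋), B.d n ^ (-ν q - D * (C * ε)) :=
          sum_le_sum c3
      _ = _ := by rw [sum_const, nsmul_eq_mul]
  have c5 : B.d n ^ (-ν pS + ε) ≤ B.d n ^ (-y - (C1 + 1) * ε + (-ν q - D * (C * ε))) := by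
    rw [rpow_add' B n (-y - (C1 + 1) * ε)]
    exact c1.trans (c4.trans (mul_le_mul_of_nonneg_right c2 (rpos B n _).le))
  have c6 := (Real.rpow_le_rpow_left_iff_of_base_lt_one (B.pos n) (B.lt n)).1 c5
  nlinarith

/-- **static facts, linear exponents**: velocity rate `rV`, time rate `rT`, position rate `rP` -/
theorem SlabV.lin (H : RUnif B G Leg ν D) {i0 k0 : ℕ → ℕ}
    (h0 : ∀ᶠ n in (U : Filter ℕ), (i0 n, k0 n) ∈ (G n).I) {pS : κ → ℝ}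
    {JC JX JH : Finset κ} {c x h : ℕ → ℕ → ℝ} {y : ℝ} (hy : 0 < y)
    (S : SlabV B G i0 k0 pS JC JX JH c x h y) {A rV rT rP : ℝ} (hT : 0 ≤ rT)
    (hL : ∀ t1 t2 t3 : ℝ, 0 ≤ t1 → t1 ≤ y → 0 ≤ t2 → t2 ≤ y → 0 ≤ t3 → t3 ≤ y → t3 ≤ t1 + t2 →
      EG pS JC JX JH t1 t2 t3 ∈ Leg ∧
      ν (EG pS JC JX JH t1 t2 t3) = A - (rV * t1 + rT * t2 + rP * t3)) :
    (0 < rV → rT ≤ rP) ∧ (1 - rT < rV → 1 ≤ rP) := by
  have e0 : EG pS JC JX JH 0 0 0 = pS := by funext j; simp [EG]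
  have z0 := hL 0 0 0 le_rfl hy.le le_rfl hy.le le_rfl hy.le (by simp)
  rw [e0] at z0
  obtain ⟨lS, n0⟩ := z0
  have q1 := fun t (a : 0 ≤ t) (b : t ≤ y) => hL t 0 t a b le_rfl hy.le a b (by linarith)
  have q2 := fun t (a : 0 ≤ t) (b : t ≤ y) => hL 0 t 0 le_rfl hy.le a b le_rfl hy.le (by linarith)
  have q3 := hL 0 y y le_rfl hy.le hy.le le_rfl hy.le le_rfl (by linarith)
  have q4 := hL y y y hy.le le_rfl hy.le le_rfl hy.le le_rfl (by linarith)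
  have hle := S.time_le H h0 lS hy (q2 y hy.le le_rfl).1
  have ha1 : rT ≤ 1 := by
    rw [n0, (q2 y hy.le le_rfl).2] at hle
    by_contra hcon
    push Not at hcon
    nlinarith
  exact hxV_rates H i0 k0 h0 hy S lS (fun t a b => (q1 t a b).1) (fun t a b => (q2 t a b).1) q3.1
    q4.1 hT ha1 (fun t a b => by rw [n0, (q2 t a b).2]; linarith)
    (by rw [n0, (q2 y hy.le le_rfl).2, (q1 y hy.le le_rfl).2, q4.2]; linarith)
    (fun t a b => by rw [n0, (q1 t a b).2]; linarith)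
    (by rw [(q2 y hy.le le_rfl).2, q3.2]; linarith)

end

section

variable {B : Base} {G : ℕ → RCfg (Fin 12)} {Leg : Set (Fin 12 → ℝ)}
  {ν : (Fin 12 → ℝ) → ℝ} {D : ℝ} {S : Finset (Fin 12)} {u : ℕ → Fin 12 → ℝ}
  {b : ℕ → Fin 2 → ℝ} {x y : ℝ}

theorem zero2 {p : Fin 12 → ℝ} {i j : Fin 12} (hi : p i = 0) (hj : p j = 0) :
    ∀ k ∈ ({i, j} : Finset (Fin 12)), p k = 0 := by
  intro k hk
  rcases mem_insert.1 hk with rfl | hk
  · exact hi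
  · rw [mem_singleton] at hk; subst hk; exact hj

theorem zero1 {p : Fin 12 → ℝ} {i : Fin 12} (hi : p i = 0) :
    ∀ k ∈ ({i} : Finset (Fin 12)), p k = 0 := by
  intro k hk
  rw [mem_singleton] at hk; subst hk; exact hi

theorem exists_pin (H : RUnif B G Leg ν D) :
    ∃ i0 k0 : ℕ → ℕ, ∀ᶠ n in (U : Filter ℕ), (i0 n, k0 n) ∈ (G n).I := by
  choose f hf using H.nonempty
  exact ⟨fun n => (f n).1, fun n => (f n).2, Eventually.of_forall fun n => hf n⟩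

theorem abv_16 (L : LawU B G S u x) {p : Fin 12 → ℝ} (h65 : p 6 = p 5)
    (h : Abv B S p y u 1 5 7) : Abv B S p y u 1 6 8 := by
  rcases h with h | h | h
  · exact Or.inl h
  · exact Or.inr (Or.inl (by rwa [h65]))
  · refine Or.inr (Or.inr ?_)
    filter_upwards [h, L.u6, L.u8] with n a b c
    rwa [b, c]

/-- **(H1)**: `gC > 0 ⇒ rX ≤ rH` and `gC > 1 - rX ⇒ 1 ≤ rH`, wall `9 = 3 + 5` tight -/
theorem H1_lin (H : RUnif B G Leg ν D) (L : LawU B G S u x) (T : ThinU B G b x) (hy : 0 < y)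
    (hyx : y ≤ x) (t : ∀ᶠ n in (U : Filter ℕ), u n 3 * u n 5 = u n 9) {d e B0 P0 F0 : ℝ}
    {A gC rX rH : ℝ} (hX : 0 ≤ rX)
    (hL : ∀ C X N : ℝ, 0 ≤ C → C ≤ y → 0 ≤ X → X ≤ y → 0 ≤ N → N ≤ y → N ≤ C + X →
      bx9 0 d e C X B0 N P0 F0 ∈ Leg ∧
      ν (bx9 0 d e C X B0 N P0 F0) = A - (gC * C + rX * X + rH * N)) :
    (0 < gC → rX ≤ rH) ∧ (1 - rX < gC → 1 ≤ rH) := by
  obtain ⟨i0, k0, h0⟩ := exists_pin H
  have eG : ∀ t1 t2 t3 : ℝ, EG (bx9 0 d e 0 0 B0 0 P0 F0) {3, 4} {5, 6} {9} t1 t2 t3 =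
      bx9 0 d e t1 t2 B0 t3 P0 F0 := by
    intro t1 t2 t3
    funext j
    fin_cases j <;> simp [EG, bx9]
  have lS : bx9 0 d e 0 0 B0 0 P0 F0 ∈ Leg :=
    (hL 0 0 0 le_rfl hy.le le_rfl hy.le le_rfl hy.le (by simp)).1
  have SV := mkV H L T h0 lS hy hyx (JC := {3, 4}) (JX := {5, 6}) (JH := {9}) (by decide)
    (by decide) (by decide) (zero2 rfl rfl) (zero2 rfl rfl) (zero1 rfl)
    (fun b a => tt b 3 4 a) (fun b a => tt b 5 6 a) (fun b a => a 9)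
    (fun n => u n 3 * u n 5 = u n 9) t (m := 6) (by norm_num)
    (fun n β a w c hP h => h.key_h1 hP)
  refine SV.lin (A := A) H h0 hy hX fun t1 t2 t3 a1 a2 a3 a4 a5 a6 a7 => ?_
  rw [eG]
  exact hL t1 t2 t3 a1 a2 a3 a4 a5 a6 a7

/-- **S1**: `gB > 0 ⇒ rX ≤ rF`, wall `11 = 7 + 5` tight; `E` fine, `D` fine or slack -/
theorem S1_lin (H : RUnif B G Leg ν D) (L : LawU B G S u x) (T : ThinU B G b x) (hy : 0 < y)
    (hyx : y ≤ x) (h7 : (7 : Fin 12) ∉ S) (h8 : (8 : Fin 12) ∉ S)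
    (t : ∀ᶠ n in (U : Filter ℕ), u n 7 * u n 5 = u n 11) {d e C0 N0 P0 : ℝ}
    (he : 2 ∈ S ∨ (y ≤ e + C0 ∧ y ≤ e + N0))
    (hd : 1 ∈ S ∨ y ≤ d ∨ ∀ᶠ n in (U : Filter ℕ), u n 1 * u n 5 ≤ B.d n ^ y * u n 7)
    {A gB rX rF : ℝ} (hX : 0 ≤ rX)
    (hL : ∀ B1 X F : ℝ, 0 ≤ B1 → B1 ≤ y → 0 ≤ X → X ≤ y → 0 ≤ F → F ≤ y → F ≤ B1 + X →
      bx9 0 d e C0 X B1 N0 P0 F ∈ Leg ∧
      ν (bx9 0 d e C0 X B1 N0 P0 F) = A - (gB * B1 + rX * X + rF * F)) :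
    (0 < gB → rX ≤ rF) ∧ (1 - rX < gB → 1 ≤ rF) := by
  obtain ⟨i0, k0, h0⟩ := exists_pin H
  have eG : ∀ t1 t2 t3 : ℝ, EG (bx9 0 d e C0 0 0 N0 P0 0) {7, 8} {5, 6} {11} t1 t2 t3 =
      bx9 0 d e C0 t2 t1 N0 P0 t3 := by
    intro t1 t2 t3
    funext j
    fin_cases j <;> simp [EG, bx9]
  have lS : bx9 0 d e C0 0 0 N0 P0 0 ∈ Leg :=
    (hL 0 0 0 le_rfl hy.le le_rfl hy.le le_rfl hy.le (by simp)).1
  set p := bx9 0 d e C0 0 0 N0 P0 0 with hp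
  have A1 : Abv B S p y u 1 5 7 := by
    rcases hd with h | h | h
    · exact Or.inl h
    · refine Or.inr (Or.inl ?_)
      have : p 1 + p 5 = d + 0 := rfl
      rw [this, add_zero]; exact h
    · exact Or.inr (Or.inr h)
  have A2 := abv_16 L (p := p) rfl A1
  have A3 : Abv B S p y u 2 3 7 := he.imp id fun h => Or.inl h.1
  have A4 : Abv B S p y u 2 4 8 := he.imp id fun h => Or.inl h.1
  have A5 : Abv B S p y u 2 9 11 := he.imp id fun h => Or.inl h.2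
  have SV := mkV H L T h0 lS hy hyx (JC := {7, 8}) (JX := {5, 6}) (JH := {11}) (by decide)
    (by decide) (by decide) (zero2 rfl rfl) (zero2 rfl rfl) (zero1 rfl)
    (fun b a => -tt b 7 8 a) (fun b a => tt b 5 6 a) (fun b a => a 11)
    (fun n => u n 7 * u n 5 = u n 11 ∧ Ab1 S p y (B.d n ^ y) (u n) 1 5 7 ∧
      Ab1 S p y (B.d n ^ y) (u n) 1 6 8 ∧ Ab1 S p y (B.d n ^ y) (u n) 2 3 7 ∧
      Ab1 S p y (B.d n ^ y) (u n) 2 4 8 ∧ Ab1 S p y (B.d n ^ y) (u n) 2 9 11)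
    (by filter_upwards [t, A1.ev, A2.ev, A3.ev, A4.ev, A5.ev] with n a1 a2 a3 a4 a5 a6
        exact ⟨a1, a2, a3, a4, a5, a6⟩) (m := 6) (by norm_num)
    (fun n β a w c hP h => h.key_s1 (B.pos n) (B.lt n).le rfl h7 h8 hP.1 hP.2.1 hP.2.2.1
      hP.2.2.2.1 hP.2.2.2.2.1 hP.2.2.2.2.2)
  refine SV.lin (A := A) H h0 hy hX fun t1 t2 t3 a1 a2 a3 a4 a5 a6 a7 => ?_
  rw [eG]
  exact hL t1 t2 t3 a1 a2 a3 a4 a5 a6 a7

/-- **S2**: `gE > 0 ⇒ rH ≤ rF`, wall `11 = 2 + 9` tight; `X` fine -/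
theorem S2_lin (H : RUnif B G Leg ν D) (L : LawU B G S u x) (T : ThinU B G b x) (hy : 0 < y)
    (hyx : y ≤ x) (t : ∀ᶠ n in (U : Filter ℕ), u n 2 * u n 9 = u n 11) {d C0 X0 B0 P0 : ℝ}
    (hd : 0 ≤ d) (hC : 0 ≤ C0) (hB : 0 ≤ B0) (hX0 : y ≤ X0)
    {A gE rH rF : ℝ} (hH : 0 ≤ rH)
    (hL : ∀ E N F : ℝ, 0 ≤ E → E ≤ y → 0 ≤ N → N ≤ y → 0 ≤ F → F ≤ y → F ≤ E + N →
      bx9 0 d E C0 X0 B0 N P0 F ∈ Leg ∧
      ν (bx9 0 d E C0 X0 B0 N P0 F) = A - (gE * E + rH * N + rF * F)) :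
    (0 < gE → rH ≤ rF) ∧ (1 - rH < gE → 1 ≤ rF) := by
  obtain ⟨i0, k0, h0⟩ := exists_pin H
  have eG : ∀ t1 t2 t3 : ℝ, EG (bx9 0 d 0 C0 X0 B0 0 P0 0) {2} {9} {11} t1 t2 t3 =
      bx9 0 d t1 C0 X0 B0 t2 P0 t3 := by
    intro t1 t2 t3
    funext j
    fin_cases j <;> simp [EG, bx9]
  have lS : bx9 0 d 0 C0 X0 B0 0 P0 0 ∈ Leg :=
    (hL 0 0 0 le_rfl hy.le le_rfl hy.le le_rfl hy.le (by simp)).1
  set p := bx9 0 d 0 C0 X0 B0 0 P0 0 with hp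
  have ex : ∀ i j k : Fin 12, y ≤ p i + p j → ∀ᶠ n in (U : Filter ℕ),
      Ab1 S p y (B.d n ^ y) (u n) i j k := fun i j k hk =>
    Eventually.of_forall fun n => Or.inr (Or.inl hk)
  have p1 : p 1 = d := rfl
  have p3 : p 3 = C0 := rfl
  have p4 : p 4 = C0 := rfl
  have p5 : p 5 = X0 := rfl
  have p6 : p 6 = X0 := rfl
  have p7 : p 7 = B0 := rfl
  have p8 : p 8 = B0 := rfl
  have SV := mkV H L T h0 lS hy hyx (JC := {2}) (JX := {9}) (JH := {11}) (by decide)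
    (by decide) (by decide) (zero1 rfl) (zero1 rfl) (zero1 rfl)
    (fun b a => -a 2) (fun b a => a 9) (fun b a => a 11)
    (fun n => u n 2 * u n 9 = u n 11 ∧ Ab1 S p y (B.d n ^ y) (u n) 1 5 7 ∧
      Ab1 S p y (B.d n ^ y) (u n) 1 6 8 ∧ Ab1 S p y (B.d n ^ y) (u n) 3 5 9 ∧
      Ab1 S p y (B.d n ^ y) (u n) 4 6 9 ∧ Ab1 S p y (B.d n ^ y) (u n) 7 5 11 ∧
      Ab1 S p y (B.d n ^ y) (u n) 8 6 11)
    (by filter_upwards [t, ex 1 5 7 (by rw [p1, p5]; linarith), ex 1 6 8 (by rw [p1, p6]; linarith),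
          ex 3 5 9 (by rw [p3, p5]; linarith), ex 4 6 9 (by rw [p4, p6]; linarith),
          ex 7 5 11 (by rw [p7, p5]; linarith), ex 8 6 11 (by rw [p8, p6]; linarith)]
          with n a1 a2 a3 a4 a5 a6 a7
        exact ⟨a1, a2, a3, a4, a5, a6, a7⟩) (m := 6) (by norm_num)
    (fun n β a w c hP h => h.key_s2 (B.pos n) (B.lt n).le rfl hP.1 hP.2.1 hP.2.2.1
      hP.2.2.2.1 hP.2.2.2.2.1 hP.2.2.2.2.2.1 hP.2.2.2.2.2.2)
  refine SV.lin (A := A) H h0 hy hH fun t1 t2 t3 a1 a2 a3 a4 a5 a6 a7 => ?_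
  rw [eG]
  exact hL t1 t2 t3 a1 a2 a3 a4 a5 a6 a7

/-- **TB**: `gD > 0 ⇒ rX ≤ gB`, wall `7 = 1 + 5` tight; `E` fine -/
theorem TB_lin (H : RUnif B G Leg ν D) (L : LawU B G S u x) (T : ThinU B G b x) (hy : 0 < y)
    (hyx : y ≤ x) (h7 : (7 : Fin 12) ∉ S) (h8 : (8 : Fin 12) ∉ S)
    (t : ∀ᶠ n in (U : Filter ℕ), u n 1 * u n 5 = u n 7) {e C0 N0 P0 F0 : ℝ}
    (he : 2 ∈ S ∨ y ≤ e + C0) {A gD rX gB : ℝ} (hX : 0 ≤ rX)
    (hL : ∀ D1 X B1 : ℝ, 0 ≤ D1 → D1 ≤ y → 0 ≤ X → X ≤ y → 0 ≤ B1 → B1 ≤ y → B1 ≤ D1 + X →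
      bx9 0 D1 e C0 X B1 N0 P0 F0 ∈ Leg ∧
      ν (bx9 0 D1 e C0 X B1 N0 P0 F0) = A - (gD * D1 + rX * X + gB * B1)) :
    (0 < gD → rX ≤ gB) ∧ (1 - rX < gD → 1 ≤ gB) := by
  obtain ⟨i0, k0, h0⟩ := exists_pin H
  have eG : ∀ t1 t2 t3 : ℝ, EG (bx9 0 0 e C0 0 0 N0 P0 F0) {1} {5, 6} {7, 8} t1 t2 t3 =
      bx9 0 t1 e C0 t2 t3 N0 P0 F0 := by
    intro t1 t2 t3
    funext j
    fin_cases j <;> simp [EG, bx9]
  have lS : bx9 0 0 e C0 0 0 N0 P0 F0 ∈ Leg :=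
    (hL 0 0 0 le_rfl hy.le le_rfl hy.le le_rfl hy.le (by simp)).1
  set p := bx9 0 0 e C0 0 0 N0 P0 F0 with hp
  have A3 : Abv B S p y u 2 3 7 := he.imp id fun h => Or.inl h
  have A4 : Abv B S p y u 2 4 8 := he.imp id fun h => Or.inl h
  have SV := mkV H L T h0 lS hy hyx (JC := {1}) (JX := {5, 6}) (JH := {7, 8}) (by decide)
    (by decide) (by decide) (zero1 rfl) (zero2 rfl rfl) (zero2 rfl rfl)
    (fun b a => 2 * a 1) (fun b a => tt b 5 6 a) (fun b a => tt b 7 8 a)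
    (fun n => u n 1 * u n 5 = u n 7 ∧ Ab1 S p y (B.d n ^ y) (u n) 2 3 7 ∧
      Ab1 S p y (B.d n ^ y) (u n) 2 4 8)
    (by filter_upwards [t, A3.ev, A4.ev] with n a1 a2 a3
        exact ⟨a1, a2, a3⟩) (m := 6) (by norm_num)
    (fun n β a w c hP h => h.key_tb (B.pos n) (B.lt n).le rfl h7 h8 hP.1 hP.2.1 hP.2.2)
  refine SV.lin (A := A) H h0 hy hX fun t1 t2 t3 a1 a2 a3 a4 a5 a6 a7 => ?_
  rw [eG]
  exact hL t1 t2 t3 a1 a2 a3 a4 a5 a6 a7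

/-- **RM**: `gB > 0 ⇒ gC ≤ gP`, wall `10 = 7 + 3` tight; `E`, `X`, `N` fine -/
theorem RM_lin (H : RUnif B G Leg ν D) (L : LawU B G S u x) (T : ThinU B G b x) (hy : 0 < y)
    (hyx : y ≤ x) (h7 : (7 : Fin 12) ∉ S) (h8 : (8 : Fin 12) ∉ S)
    (t : ∀ᶠ n in (U : Filter ℕ), u n 7 * u n 3 = u n 10) {d e X0 N0 F0 : ℝ}
    (he : 2 ∈ S ∨ y ≤ e) (hX0 : 1 ∈ S ∨ y ≤ d + X0) (hN0 : 1 ∈ S ∨ y ≤ d + N0)
    {A gB gC gP : ℝ} (hC : 0 ≤ gC)
    (hL : ∀ B1 C P : ℝ, 0 ≤ B1 → B1 ≤ y → 0 ≤ C → C ≤ y → 0 ≤ P → P ≤ y → P ≤ B1 + C →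
      bx9 0 d e C X0 B1 N0 P F0 ∈ Leg ∧
      ν (bx9 0 d e C X0 B1 N0 P F0) = A - (gB * B1 + gC * C + gP * P)) :
    (0 < gB → gC ≤ gP) ∧ (1 - gC < gB → 1 ≤ gP) := by
  obtain ⟨i0, k0, h0⟩ := exists_pin H
  have eG : ∀ t1 t2 t3 : ℝ, EG (bx9 0 d e 0 X0 0 N0 0 F0) {7, 8} {3, 4} {10} t1 t2 t3 =
      bx9 0 d e t2 X0 t1 N0 t3 F0 := by
    intro t1 t2 t3
    funext j
    fin_cases j <;> simp [EG, bx9]
  have lS : bx9 0 d e 0 X0 0 N0 0 F0 ∈ Leg :=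
    (hL 0 0 0 le_rfl hy.le le_rfl hy.le le_rfl hy.le (by simp)).1
  set p := bx9 0 d e 0 X0 0 N0 0 F0 with hp
  have A1 : Abv B S p y u 1 5 7 := hX0.imp id fun h => Or.inl h
  have A2 : Abv B S p y u 1 6 8 := hX0.imp id fun h => Or.inl h
  have A3 : Abv B S p y u 2 3 7 := he.imp id fun h => Or.inl (by
    have : p 2 + p 3 = e + 0 := rfl
    rw [this, add_zero]; exact h)
  have A4 : Abv B S p y u 2 4 8 := he.imp id fun h => Or.inl (by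
    have : p 2 + p 4 = e + 0 := rfl
    rw [this, add_zero]; exact h)
  have A5 : Abv B S p y u 1 9 10 := hN0.imp id fun h => Or.inl h
  have SV := mkV H L T h0 lS hy hyx (JC := {7, 8}) (JX := {3, 4}) (JH := {10}) (by decide)
    (by decide) (by decide) (zero2 rfl rfl) (zero2 rfl rfl) (zero1 rfl)
    (fun b a => -tt b 7 8 a) (fun b a => tt b 3 4 a) (fun b a => a 10)
    (fun n => u n 7 * u n 3 = u n 10 ∧ Ab1 S p y (B.d n ^ y) (u n) 1 5 7 ∧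
      Ab1 S p y (B.d n ^ y) (u n) 1 6 8 ∧ Ab1 S p y (B.d n ^ y) (u n) 2 3 7 ∧
      Ab1 S p y (B.d n ^ y) (u n) 2 4 8 ∧ Ab1 S p y (B.d n ^ y) (u n) 1 9 10)
    (by filter_upwards [t, A1.ev, A2.ev, A3.ev, A4.ev, A5.ev] with n a1 a2 a3 a4 a5 a6
        exact ⟨a1, a2, a3, a4, a5, a6⟩) (m := 6) (by norm_num)
    (fun n β a w c hP h => h.key_rm (B.pos n) (B.lt n).le rfl h7 h8 hP.1 hP.2.1 hP.2.2.1
      hP.2.2.2.1 hP.2.2.2.2.1 hP.2.2.2.2.2)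
  refine SV.lin (A := A) H h0 hy hC fun t1 t2 t3 a1 a2 a3 a4 a5 a6 a7 => ?_
  rw [eG]
  exact hL t1 t2 t3 a1 a2 a3 a4 a5 a6 a7

/-- **S3**: `gD > 0 ⇒ rH ≤ gP`, wall `10 = 1 + 9` tight; `C`, `X`, fine -/
theorem S3_lin (H : RUnif B G Leg ν D) (L : LawU B G S u x) (T : ThinU B G b x) (hy : 0 < y)
    (hyx : y ≤ x) (t : ∀ᶠ n in (U : Filter ℕ), u n 1 * u n 9 = u n 10) {e C0 X0 B0 F0 : ℝ}
    (hC : 0 ≤ C0) (hX0 : y ≤ X0) (hB : y ≤ B0 + C0) (he : 2 ∈ S ∨ y ≤ e + C0)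
    {A gD rH gP : ℝ} (hH : 0 ≤ rH)
    (hL : ∀ D1 N P : ℝ, 0 ≤ D1 → D1 ≤ y → 0 ≤ N → N ≤ y → 0 ≤ P → P ≤ y → P ≤ D1 + N →
      bx9 0 D1 e C0 X0 B0 N P F0 ∈ Leg ∧
      ν (bx9 0 D1 e C0 X0 B0 N P F0) = A - (gD * D1 + rH * N + gP * P)) :
    (0 < gD → rH ≤ gP) ∧ (1 - rH < gD → 1 ≤ gP) := by
  obtain ⟨i0, k0, h0⟩ := exists_pin H
  have eG : ∀ t1 t2 t3 : ℝ, EG (bx9 0 0 e C0 X0 B0 0 0 F0) {1} {9} {10} t1 t2 t3 =
      bx9 0 t1 e C0 X0 B0 t2 t3 F0 := by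
    intro t1 t2 t3
    funext j
    fin_cases j <;> simp [EG, bx9]
  have lS : bx9 0 0 e C0 X0 B0 0 0 F0 ∈ Leg :=
    (hL 0 0 0 le_rfl hy.le le_rfl hy.le le_rfl hy.le (by simp)).1
  set p := bx9 0 0 e C0 X0 B0 0 0 F0 with hp
  have ex : ∀ i j k : Fin 12, y ≤ p i + p j → ∀ᶠ n in (U : Filter ℕ),
      Ab1 S p y (B.d n ^ y) (u n) i j k := fun i j k hk =>
    Eventually.of_forall fun n => Or.inr (Or.inl hk)
  have p1 : p 1 = 0 := rfl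
  have p3 : p 3 = C0 := rfl
  have p4 : p 4 = C0 := rfl
  have p5 : p 5 = X0 := rfl
  have p6 : p 6 = X0 := rfl
  have p7 : p 7 = B0 := rfl
  have p8 : p 8 = B0 := rfl
  have A3 : Abv B S p y u 2 3 7 := he.imp id fun h => Or.inl h
  have A4 : Abv B S p y u 2 4 8 := he.imp id fun h => Or.inl h
  have SV := mkV H L T h0 lS hy hyx (JC := {1}) (JX := {9}) (JH := {10}) (by decide)
    (by decide) (by decide) (zero1 rfl) (zero1 rfl) (zero1 rfl)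
    (fun b a => 2 * a 1) (fun b a => a 9) (fun b a => a 10)
    (fun n => u n 1 * u n 9 = u n 10 ∧ Ab1 S p y (B.d n ^ y) (u n) 1 5 7 ∧
      Ab1 S p y (B.d n ^ y) (u n) 1 6 8 ∧ Ab1 S p y (B.d n ^ y) (u n) 3 5 9 ∧
      Ab1 S p y (B.d n ^ y) (u n) 4 6 9 ∧ Ab1 S p y (B.d n ^ y) (u n) 7 3 10 ∧
      Ab1 S p y (B.d n ^ y) (u n) 8 4 10 ∧ Ab1 S p y (B.d n ^ y) (u n) 2 3 7 ∧
      Ab1 S p y (B.d n ^ y) (u n) 2 4 8)
    (by filter_upwards [t, ex 1 5 7 (by rw [p1, p5]; linarith), ex 1 6 8 (by rw [p1, p6]; linarith),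
          ex 3 5 9 (by rw [p3, p5]; linarith), ex 4 6 9 (by rw [p4, p6]; linarith),
          ex 7 3 10 (by rw [p7, p3]; linarith), ex 8 4 10 (by rw [p8, p4]; linarith),
          A3.ev, A4.ev] with n a1 a2 a3 a4 a5 a6 a7 a8 a9
        exact ⟨a1, a2, a3, a4, a5, a6, a7, a8, a9⟩) (m := 6) (by norm_num)
    (fun n β a w c hP h => h.key_s3 (B.pos n) (B.lt n).le rfl hP.1 hP.2.1 hP.2.2.1
      hP.2.2.2.1 hP.2.2.2.2.1 hP.2.2.2.2.2.1 hP.2.2.2.2.2.2.1 hP.2.2.2.2.2.2.2.1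
      hP.2.2.2.2.2.2.2.2)
  refine SV.lin (A := A) H h0 hy hH fun t1 t2 t3 a1 a2 a3 a4 a5 a6 a7 => ?_
  rw [eG]
  exact hL t1 t2 t3 a1 a2 a3 a4 a5 a6 a7

end

end Crest.Agent.R116.Kr710
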