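import Crest.Agent.R116.SgO3_219
import Crest.Agent.R116.SgR1_337

/-!
# R116 (K side, LEMMA SIG), literals: linear tangents at a moving base and the facts `LinFacts`
(helper665; doc 2383 of 194, 710 in 18521, 18950: one tight wall per fact)

* `wl e p` : right side of the wall `e`; `LM0` : the cone of all walls without the slot `D`
* `LinTan` : tangent at a moving base, linear on the `bx`-boxes (slot `D` not moved)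
* `LinFacts` : the seven facts, each with its tight wall
-/

set_option autoImplicit false
set_option linter.unusedVariables false

open Set Filter Topology

namespace Crest.Agent.R116.SgF665

open Crest.Agent.R138
open Crest.Agent.R136.Net191
open Crest.Agent.R116.ChL222
open Crest.Agent.R116.Sg337 (bx9)

/-- right side of the wall `e` -/
def wl (e : Fin 12 → ℕ) (p : Fin 12 → ℝ) : ℝ := ∑ s, (e s : ℝ) * p s

theorem wl_add (e : Fin 12 → ℕ) (p q : Fin 12 → ℝ) : wl e (p + q) = wl e p + wl e q := by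
  unfold wl
  rw [← Finset.sum_add_distrib]
  exact Finset.sum_congr rfl fun s _ => by rw [Pi.add_apply]; ring

theorem wl_smul (e : Fin 12 → ℕ) (t : ℝ) (p : Fin 12 → ℝ) : wl e (t • p) = t * wl e p := by
  unfold wl
  rw [Finset.mul_sum]
  exact Finset.sum_congr rfl fun s _ => by rw [Pi.smul_apply, smul_eq_mul]; ring

/-- cone of all the walls without the slot `D` -/
def LM0 : Set (Fin 12 → ℝ) := {p | ∀ k, ∀ e ∈ monL.mon k, e 1 = 0 → p k ≤ wl e p}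

/-- tangent at the moving base `X`, unit `h`, linear on `bx`-boxes -/
structure LinTan {J : Type*} (P : Set (Fin 12 → ℝ)) (f : J → (Fin 12 → ℝ) → ℝ) (j0 : J)
    (X : ℕ → Fin 12 → ℝ) (h : ℕ → ℝ) (rz rX rH rF gC gP gE gB : ℝ) : Prop where
  hpos : ∀ l, 0 < h l
  h0 : Tendsto h atTop (𝓝 0)
  /-- every wall is tight or slack in the unit `h` -/
  dich : ∀ k, ∀ e ∈ monL.mon k, (∀ n, X n k = wl e (X n)) ∨
    ∀ K : ℝ, ∀ᶠ n in atTop, X n k + K * h n ≤ wl e (X n)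
  /-- the walls with `D` are slack -/
  slD : ∀ k, ∀ e ∈ monL.mon k, e 1 ≠ 0 → ∀ K : ℝ, ∀ᶠ n in atTop, X n k + K * h n ≤ wl e (X n)
  ex : ∃ (D : Set (Fin 12 → ℝ)) (lam : J → (Fin 12 → ℝ) → ℝ), LM0 ⊆ D ∧
    (∀ j, Ex926.IsTan P D (f j) X h (lam j)) ∧
    ∀ z C p E B x H F : ℝ, bx9 z 0 E C x B H p F ∈ LM0 →
      lam j0 (bx9 z 0 E C x B H p F) =
        -(rz * z + rX * x + rH * H + rF * F + gC * C + gP * p + gE * E + gB * B)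

/-- **THE FACTS OF LEMMA SIG**, `Bs` = the base sequences which occur -/
structure LinFacts {J : Type*} (P : Set (Fin 12 → ℝ)) (f : J → (Fin 12 → ℝ) → ℝ) (j0 : J)
    (Bs : (ℕ → Fin 12 → ℝ) → (ℕ → ℝ) → Prop) (s : ℝ) : Prop where
  K1 : ∀ X h rz rX rH rF gC gP gE gB, Bs X h → LinTan P f j0 X h rz rX rH rF gC gP gE gB →
    (∀ n, X n 5 = X n 0 + X n 3) → (∀ n, X n 6 = X n 0 + X n 4) →
    (0 < gC → 1 - s ≤ rX) ∧ (s < gC → 1 ≤ rX)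
  H1 : ∀ X h rz rX rH rF gC gP gE gB, Bs X h → LinTan P f j0 X h rz rX rH rF gC gP gE gB →
    (∀ n, X n 9 = X n 3 + X n 5) → (∀ n, X n 9 = X n 4 + X n 6) → 0 < gC → rX ≤ rH
  K2 : ∀ X h rz rX rH rF gC gP gE gB, Bs X h → LinTan P f j0 X h rz rX rH rF gC gP gE gB →
    (∀ n, X n 11 = X n 0 + X n 10) → (0 < gP → 1 - s ≤ rF) ∧ (s < gP → 1 ≤ rF)
  S1 : ∀ X h rz rX rH rF gC gP gE gB, Bs X h → LinTan P f j0 X h rz rX rH rF gC gP gE gB →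
    (∀ n, X n 11 = X n 7 + X n 5) → (∀ n, X n 11 = X n 8 + X n 6) → 0 < gB → rX ≤ rF
  S2 : ∀ X h rz rX rH rF gC gP gE gB, Bs X h → LinTan P f j0 X h rz rX rH rF gC gP gE gB →
    (∀ n, X n 11 = X n 2 + X n 9) → 0 < gE → rH ≤ rF

/-! ### the cone `LM0` on `bx`-boxes -/

theorem mem_LM0 {p : Fin 12 → ℝ} : p ∈ LM0 ↔
    (p 5 ≤ p 0 + p 3 ∧ p 6 ≤ p 0 + p 4) ∧ (p 7 ≤ p 2 + p 3 ∧ p 8 ≤ p 2 + p 4) ∧
    (p 9 ≤ p 0 + 2 * p 3 ∧ p 9 ≤ p 0 + 2 * p 4 ∧ p 9 ≤ p 3 + p 5 ∧ p 9 ≤ p 4 + p 6) ∧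
    (p 10 ≤ p 3 + p 7 ∧ p 10 ≤ p 4 + p 8 ∧ p 10 ≤ p 2 + 2 * p 3 ∧ p 10 ≤ p 2 + 2 * p 4) ∧
    (p 11 ≤ p 0 + p 10 ∧ p 11 ≤ p 5 + p 7 ∧ p 11 ≤ p 6 + p 8 ∧ p 11 ≤ p 0 + p 3 + p 7 ∧
      p 11 ≤ p 0 + p 4 + p 8 ∧ p 11 ≤ p 2 + p 9 ∧ p 11 ≤ p 0 + p 2 + 2 * p 3 ∧
      p 11 ≤ p 0 + p 2 + 2 * p 4) := by
  constructor
  · intro h
    have g : ∀ (k : Fin 12) (e : Fin 12 → ℕ), e ∈ mfL k → e 1 = 0 → p k ≤ wl e p := h
    have a1 := g 5 ![1, 0, 0, 1, 0, 0, 0, 0, 0, 0, 0, 0] (by decide) rfl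
    have a2 := g 6 ![1, 0, 0, 0, 1, 0, 0, 0, 0, 0, 0, 0] (by decide) rfl
    have a3 := g 7 ![0, 0, 1, 1, 0, 0, 0, 0, 0, 0, 0, 0] (by decide) rfl
    have a4 := g 8 ![0, 0, 1, 0, 1, 0, 0, 0, 0, 0, 0, 0] (by decide) rfl
    have b1 := g 9 ![1, 0, 0, 2, 0, 0, 0, 0, 0, 0, 0, 0] (by decide) rfl
    have b2 := g 9 ![1, 0, 0, 0, 2, 0, 0, 0, 0, 0, 0, 0] (by decide) rfl
    have b3 := g 9 ![0, 0, 0, 1, 0, 1, 0, 0, 0, 0, 0, 0] (by decide) rfl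
    have b4 := g 9 ![0, 0, 0, 0, 1, 0, 1, 0, 0, 0, 0, 0] (by decide) rfl
    have c1 := g 10 ![0, 0, 0, 1, 0, 0, 0, 1, 0, 0, 0, 0] (by decide) rfl
    have c2 := g 10 ![0, 0, 0, 0, 1, 0, 0, 0, 1, 0, 0, 0] (by decide) rfl
    have c3 := g 10 ![0, 0, 1, 2, 0, 0, 0, 0, 0, 0, 0, 0] (by decide) rfl
    have c4 := g 10 ![0, 0, 1, 0, 2, 0, 0, 0, 0, 0, 0, 0] (by decide) rfl
    have d1 := g 11 ![1, 0, 0, 0, 0, 0, 0, 0, 0, 0, 1, 0] (by decide) rfl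
    have d2 := g 11 ![0, 0, 0, 0, 0, 1, 0, 1, 0, 0, 0, 0] (by decide) rfl
    have d3 := g 11 ![0, 0, 0, 0, 0, 0, 1, 0, 1, 0, 0, 0] (by decide) rfl
    have d4 := g 11 ![1, 0, 0, 1, 0, 0, 0, 1, 0, 0, 0, 0] (by decide) rfl
    have d5 := g 11 ![1, 0, 0, 0, 1, 0, 0, 0, 1, 0, 0, 0] (by decide) rfl
    have d6 := g 11 ![0, 0, 1, 0, 0, 0, 0, 0, 0, 1, 0, 0] (by decide) rfl
    have d7 := g 11 ![1, 0, 1, 2, 0, 0, 0, 0, 0, 0, 0, 0] (by decide) rfl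
    have d8 := g 11 ![1, 0, 1, 0, 2, 0, 0, 0, 0, 0, 0, 0] (by decide) rfl
    simp [wl, Fin.sum_univ_succ] at a1 a2 a3 a4 b1 b2 b3 b4 c1 c2 c3 c4 d1 d2 d3 d4 d5 d6 d7 d8
    refine ⟨⟨?_, ?_⟩, ⟨?_, ?_⟩, ⟨?_, ?_, ?_, ?_⟩, ⟨?_, ?_, ?_, ?_⟩, ?_, ?_, ?_, ?_, ?_, ?_, ?_, ?_⟩ <;>
      linarith
  · rintro ⟨⟨a1, a2⟩, ⟨a3, a4⟩, ⟨b1, b2, b3, b4⟩, ⟨c1, c2, c3, c4⟩, d1, d2, d3, d4, d5, d6, d7, d8⟩
      k e he h1
    change e ∈ mfL k at he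
    fin_cases k <;> simp [mfL] at he
    all_goals (first
      | (subst he; first | (simp at h1; done) | (simp [wl, Fin.sum_univ_succ]; linarith))
      | (rcases he with rfl | rfl <;>
          first | (simp at h1; done) | (simp [wl, Fin.sum_univ_succ]; linarith))
      | (rcases he with rfl | rfl | rfl | rfl <;>
          first | (simp at h1; done) | (simp [wl, Fin.sum_univ_succ]; linarith))
      | (rcases he with rfl | rfl | rfl | rfl | rfl | rfl | rfl <;>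
          first | (simp at h1; done) | (simp [wl, Fin.sum_univ_succ]; linarith))
      | (rcases he with rfl | rfl | rfl | rfl | rfl | rfl | rfl | rfl | rfl | rfl | rfl | rfl |
          rfl <;>
          first | (simp at h1; done) | (simp [wl, Fin.sum_univ_succ]; linarith)))

theorem bx9_mem {z C p E B x H F : ℝ} : bx9 z 0 E C x B H p F ∈ LM0 ↔
    x ≤ z + C ∧ B ≤ E + C ∧ H ≤ C + x ∧ p ≤ B + C ∧ F ≤ z + p ∧ F ≤ B + x ∧ F ≤ E + H := by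
  rw [mem_LM0]
  change ((x ≤ z + C ∧ x ≤ z + C) ∧ (B ≤ E + C ∧ B ≤ E + C) ∧
    (H ≤ z + 2 * C ∧ H ≤ z + 2 * C ∧ H ≤ C + x ∧ H ≤ C + x) ∧
    (p ≤ C + B ∧ p ≤ C + B ∧ p ≤ E + 2 * C ∧ p ≤ E + 2 * C) ∧
    (F ≤ z + p ∧ F ≤ x + B ∧ F ≤ x + B ∧ F ≤ z + C + B ∧
      F ≤ z + C + B ∧ F ≤ E + H ∧ F ≤ z + E + 2 * C ∧ F ≤ z + E + 2 * C)) ↔ _
  constructor
  · rintro ⟨⟨a1, a2⟩, ⟨a3, a4⟩, ⟨b1, b2, b3, b4⟩, ⟨c1, c2, c3, c4⟩, d1, d2, d3, d4, d5, d6, d7, d8⟩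
    refine ⟨?_, ?_, ?_, ?_, ?_, ?_, ?_⟩ <;> linarith
  · rintro ⟨a1, a2, a3, a4, a5, a6, a7⟩
    refine ⟨⟨?_, ?_⟩, ⟨?_, ?_⟩, ⟨?_, ?_, ?_, ?_⟩, ⟨?_, ?_, ?_, ?_⟩, ?_, ?_, ?_, ?_, ?_, ?_, ?_, ?_⟩ <;>
      linarith

end Crest.Agent.R116.SgF665
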