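import Crest.Agent.R116.ThinD_954
import Crest.Agent.R116.SgF_665
import Crest.Agent.R116.Kf3_330
import Crest.Agent.R116.Kr13_710

/-!
# R116, K side (helper330): the facts `LinFacts` (665) from windows, part 0

* `lawU_of` : 710's `LawU` for the model of a window.
* `tight_side`, `slack_side` : products of units from the base points.
-/

set_option autoImplicit false
set_option linter.unusedVariables false
set_option linter.unusedSectionVars false

open Filter Topology Finset

namespace Crest.Agent.R116.Kg330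

open Crest.Agent.R138.Ex926 (Base U IsTan)
open Crest.Agent.R136.Net191 Crest.Agent.R136.Qg926 Crest.Agent.R136.Gf356
open Crest.Agent.R116.ChL222 Crest.Agent.R116.PL504 Crest.Agent.R116.EvL504
open Crest.Agent.R116.Kr710 Crest.Agent.R116.Kf330

section

variable {ι : ℕ → Type*} [∀ n, DecidableEq (ι n)] {W : Wnd 12 ι} {E : ∀ n, Finset (ι n)}
  {K tp x : ℝ}

theorem side4 (h : WL W K tp) {n : ℕ} (e : W.X n 4 = W.X n 3) : side W n 4 = side W n 3 := by
  unfold side
  rw [h.kap, h.kap, e]; rfl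

theorem side6 (h : WL W K tp) {n : ℕ} (e : W.X n 6 = W.X n 5) : side W n 6 = side W n 5 := by
  unfold side
  rw [h.kap, h.kap, e]; rfl

theorem side8 (h : WL W K tp) {n : ℕ} (e : W.X n 8 = W.X n 7) : side W n 8 = side W n 7 := by
  unfold side
  rw [h.kap, h.kap, e]; rfl

/-- **710's `LawU` for the model of a window** -/
theorem lawU_of (h : WL W K tp) (hR : ∀ᶠ n in (U : Filter ℕ), Reg W E n) (hx : x ≤ tp)
    (e4 : ∀ᶠ n in (U : Filter ℕ), W.X n 4 = W.X n 3)
    (e6 : ∀ᶠ n in (U : Filter ℕ), W.X n 6 = W.X n 5)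
    (e8 : ∀ᶠ n in (U : Filter ℕ), W.X n 8 = W.X n 7) :
    LawU W.B' (W.cfg E) W.S (side W) x where
  S0 := h.z0
  SSL := h.hS
  sd := hR.mono fun n r => h.sides r.good
  u4 := e4.mono fun n e => side4 h e
  u6 := e6.mono fun n e => side6 h e
  u8 := e8.mono fun n e => side8 h e
  relS := hR.mono fun n r k i l s hs => r.rel_S hs
  bd := fun ε hε => hR.mono fun n r k i l hi hl s => (r.rel_le h hi hl s).trans (by
    calc (1 : ℝ) = W.B'.d n ^ (0 : ℝ) := (Real.rpow_zero _).symm
      _ ≤ _ := rpow_anti W.B' n (by linarith))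
  coc := fun ε hε => by
    filter_upwards [hR, ev_const_le W.B' hε 48] with n r c k i j l hi hj hl s hs
    refine (r.coc h hi hj hl hs).trans ?_
    have e : W.B'.d n ^ (x - ε) = W.B'.d n ^ (-ε) * W.B'.d n ^ x := by
      rw [← Real.rpow_add (W.B'.pos n)]; congr 1; ring
    rw [e]
    exact mul_le_mul c (rpow_anti W.B' n hx) (rpos W.B' n _).le (rpos W.B' n _).le

/-- tight wall : the units multiply -/
theorem tight_side (h : WL W K tp) {n : ℕ} {i j k : Fin 12} (hw : wtL i + wtL j = wtL k)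
    (e : W.X n k = W.X n i + W.X n j) : side W n i * side W n j = side W n k := by
  unfold side
  rw [h.kap, h.kap, h.kap, e, Real.rpow_add (W.B.pos n), ← hw, pow_add]
  ring

/-- slack wall -/
theorem slack_side (h : WL W K tp) {n : ℕ} {i j k : Fin 12} (hw : wtL i + wtL j = wtL k)
    {y w : ℝ} (hb : W.B'.d n = W.B.d n ^ w) (e : W.X n k + y * w ≤ W.X n i + W.X n j) :
    side W n i * side W n j ≤ W.B'.d n ^ y * side W n k := by
  have hK : 0 < K := by linarith [h.K1]
  unfold side
  rw [h.kap, h.kap, h.kap, hb, ← hw, pow_add, ← Real.rpow_mul (W.B.pos n).le]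
  have e1 : K ^ wtL i * W.B.d n ^ W.X n i * (K ^ wtL j * W.B.d n ^ W.X n j) =
      K ^ wtL i * K ^ wtL j * W.B.d n ^ (W.X n i + W.X n j) := by
    rw [Real.rpow_add (W.B.pos n)]; ring
  have e2 : W.B.d n ^ (w * y) * (K ^ wtL i * K ^ wtL j * W.B.d n ^ W.X n k) =
      K ^ wtL i * K ^ wtL j * W.B.d n ^ (W.X n k + y * w) := by
    rw [Real.rpow_add (W.B.pos n), mul_comm w y]; ring
  rw [e1, e2]
  exact mul_le_mul_of_nonneg_left (rpow_anti W.B n e) (by positivity)

end

end Crest.Agent.R116.Kg330
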