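import Crest.Agent.R116.Kg2_330
import Crest.Agent.R116.D0F_878

/-!
# R116, K side (helper330): 878's `LinFactsD` (slot `D` live) from windows
-/

set_option autoImplicit false
set_option linter.unusedVariables false
set_option linter.unusedSectionVars false

open Filter Topology Finset

namespace Crest.Agent.R116.Kg330

open Crest.Agent.R138.Ex926 (Base U IsTan)
open Crest.Agent.R136.Net191 Crest.Agent.R136.Qg926 Crest.Agent.R136.Gf356
open Crest.Agent.R116.ChL222 Crest.Agent.R116.PL504 Crest.Agent.R116.EvL504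
open Crest.Agent.R116.Sg337 Crest.Agent.R116.D0F878

variable {B : Base} {I J : ℕ → Finset (ℕ × ℝ)}
    {co : ∀ n : ℕ, ℕ × ℝ → ℕ × ℝ → Fin 12 → ℝ} {C R : ℝ} {ν : (Fin 12 → ℝ) → ℝ} {s : ℝ}
    {X : ℕ → Fin 12 → ℝ} {h : ℕ → ℝ} {Jt : Type*} {f : Jt → (Fin 12 → ℝ) → ℝ} {j0 : Jt}
    {rz rX rH rF gC gP gE gB gD : ℝ}

theorem LinTanM.of_D {P : Set (Fin 12 → ℝ)}
    (L : LinTanD P f j0 X h rz rX rH rF gC gP gE gB gD) :
    LinTanM P f j0 X h rz rX rH rF gC gP gE gB gD where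
  hpos := L.hpos
  h0 := L.h0
  ex := by
    obtain ⟨D, lam, h1, h2, h3⟩ := L.ex
    exact ⟨D, lam, h1, h2, fun z d C p E B x H F hm => h3 z d C p E B x H F hm⟩

/-- **THE FACTS WITH `D` LIVE** -/
theorem linFactsD (hN : NProf B I J co monL C R ν) (hcoc : ∀ n, Coc (co n)) (hs0 : 0 ≤ s)
    (hs1 : s ≤ 1) (hf : f j0 = ν) {Bs : (ℕ → Fin 12 → ℝ) → (ℕ → ℝ) → Prop}
    (hBs : ∀ X h, Bs X h → BsM B I J co C R ν s X h) : LinFactsD (Leg monL R) f j0 Bs s where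
  K1 := fun X h rz rX rH rF gC gP gE gB gD b L h5 h6 =>
    (factsM hN hcoc hs0 hs1 hf (hBs X h b) (LinTanM.of_D L)).1 h5 h6
  K2 := fun X h rz rX rH rF gC gP gE gB gD b L h11 =>
    (factsM hN hcoc hs0 hs1 hf (hBs X h b) (LinTanM.of_D L)).2.1 h11
  H1 := fun X h rz rX rH rF gC gP gE gB gD b L h9 _ =>
    ((factsM hN hcoc hs0 hs1 hf (hBs X h b) (LinTanM.of_D L)).2.2.1 h9).1
  S3 := fun X h rz rX rH rF gC gP gE gB gD b L h10 =>
    ((factsM hN hcoc hs0 hs1 hf (hBs X h b) (LinTanM.of_D L)).2.2.2.2.2.1 h10).1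
  TB := fun X h rz rX rH rF gC gP gE gB gD b L h7 _ =>
    ((factsM hN hcoc hs0 hs1 hf (hBs X h b) (LinTanM.of_D L)).2.2.2.2.2.2.1 h7).1
  RM := fun X h rz rX rH rF gC gP gE gB gD b L h10 _ =>
    ((factsM hN hcoc hs0 hs1 hf (hBs X h b) (LinTanM.of_D L)).2.2.2.2.2.2.2 h10).1

end Crest.Agent.R116.Kg330
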