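import Crest.Agent.R116.Kg3_330
import Crest.Agent.R116.Kc1_388

/-!
# R116, K side (helper330): the static facts from windows, slot `D` live, without the pair `{7,8}`

* `ThinMC`, `BsMC` : as `ThinM`, `BsM` with 388's `ThinC` (no statement on the slots `7, 8`).
* `WMC.k1, k2, h1, s2, s3`; `factsMC`.
-/

set_option autoImplicit false
set_option linter.unusedVariables false
set_option linter.unusedSectionVars false

open Filter Topology Finset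

namespace Crest.Agent.R116.Kg330

open Crest.Agent.R138.Ex926 (Base U IsTan)
open Crest.Agent.R136.Net191 Crest.Agent.R136.Qg926 Crest.Agent.R136.Gf356
open Crest.Agent.R116.ChL222 Crest.Agent.R116.PL504 Crest.Agent.R116.EvL504
open Crest.Agent.R116.Kr710 Crest.Agent.R116.Kf330 Crest.Agent.R116.WinG954
open Crest.Agent.R116.Sg337

/-- all the windows at the base sequence `X`, unit `h` (slot `D` live) have a dead direction -/
def ThinMC (B : Base) (I J : ℕ → Finset (ℕ × ℝ))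
    (co : ∀ n : ℕ, ℕ × ℝ → ℕ × ℝ → Fin 12 → ℝ) (C : ℝ) (ν : (Fin 12 → ℝ) → ℝ)
    (X : ℕ → Fin 12 → ℝ) (h : ℕ → ℝ) : Prop :=
  ∀ (D : Set (Fin 12 → ℝ)) (lam : (Fin 12 → ℝ) → ℝ) (k' : ℕ → ℕ) (T : ℝ)
    (W : Wnd 12 (fun _ : ℕ => ℕ × ℝ)) (E : ∀ _ : ℕ, Finset (ℕ × ℝ)), Tendsto k' U atTop →
    Tendsto h atTop (𝓝 0) →
    WinG W B I J co C D ν lam X h k' T monL (fun _ => T) →
    (∀ᶠ n in (U : Filter ℕ), Reg W E n) → (∀ᶠ n in (U : Filter ℕ), W.Cl n ⊆ J n) →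
    ∃ b : ℕ → Fin 2 → ℝ, Kc388.ThinC W.B' (W.cfg E) b T

/-- **the base sequences of the facts**, slot `D` live -/
structure BsMC (B : Base) (I J : ℕ → Finset (ℕ × ℝ))
    (co : ∀ n : ℕ, ℕ × ℝ → ℕ × ℝ → Fin 12 → ℝ) (C R : ℝ) (ν : (Fin 12 → ℝ) → ℝ) (s : ℝ)
    (X : ℕ → Fin 12 → ℝ) (h : ℕ → ℝ) : Prop where
  e4 : ∀ᶠ l in atTop, X l 4 = X l 3
  e6 : ∀ᶠ l in atTop, X l 6 = X l 5
  e8 : ∀ᶠ l in atTop, X l 8 = X l 7
  own : ∀ (D : Set (Fin 12 → ℝ)) (g : (Fin 12 → ℝ) → ℝ), LM ⊆ D →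
    IsTan (Leg monL R) D ν X h g → ∀ y : ℝ, 0 < y →
      (1 - s) * y ≤ -(g (bx9 y 0 0 0 0 0 0 0 0))
  thin : ThinMC B I J co C ν X h

variable {B : Base} {I J : ℕ → Finset (ℕ × ℝ)}
    {co : ∀ n : ℕ, ℕ × ℝ → ℕ × ℝ → Fin 12 → ℝ} {C R : ℝ} {ν : (Fin 12 → ℝ) → ℝ} {s : ℝ}
    {X : ℕ → Fin 12 → ℝ} {h : ℕ → ℝ} {Jt : Type*} {f : Jt → (Fin 12 → ℝ) → ℝ} {j0 : Jt}
    {rz rX rH rF gC gP gE gB gD : ℝ}

/-- window, model and laws at the base point of a linear tangent, slot `D` live -/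
structure WMC (B : Base) (I J : ℕ → Finset (ℕ × ℝ))
    (co : ∀ n : ℕ, ℕ × ℝ → ℕ × ℝ → Fin 12 → ℝ) (C : ℝ) (ν : (Fin 12 → ℝ) → ℝ) (s : ℝ)
    (X : ℕ → Fin 12 → ℝ) (h : ℕ → ℝ) (rX rH rF gC gP gE gB gD : ℝ)
    (k' : ℕ → ℕ) (D : Set (Fin 12 → ℝ)) (lam : (Fin 12 → ℝ) → ℝ)
    (W : Wnd 12 (fun _ : ℕ => ℕ × ℝ)) (E : ∀ _ : ℕ, Finset (ℕ × ℝ)) (b : ℕ → Fin 2 → ℝ) :
    Prop where
  hk : Tendsto k' U atTop
  win : WinG W B I J co C D ν lam X h k' 1 monL (fun _ => 1)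
  reg : ∀ᶠ n in (U : Filter ℕ), Reg W E n
  mod : RModel W.B' (W.cfg E) (1 - s) 1 W.legW W.nu W.Dc
  thin : Kc388.ThinC W.B' (W.cfg E) b 1
  law : LawU W.B' (W.cfg E) W.S (side W) 1
  nu : ∀ z D' E' C' X' B' N P F : ℝ, bx9 z D' E' C' X' B' N P F ∈ W.legW →
    W.nu (bx9 z D' E' C' X' B' N P F) =
      rX * (1 - X') + rH * (1 - N) + rF * (1 - F) + gC * (1 - C') + gP * (1 - P) +
        gE * (1 - E') + gB * (1 - B') + gD * (1 - D')

/-- **the window**, slot `D` live -/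
theorem exists_wmc (hN : NProf B I J co monL C R ν) (hcoc : ∀ n, Coc (co n)) (hs0 : 0 ≤ s)
    (hs1 : s ≤ 1) (hf : f j0 = ν) (HB : BsMC B I J co C R ν s X h)
    (L : LinTanM (Leg monL R) f j0 X h rz rX rH rF gC gP gE gB gD) :
    ∃ (k' : ℕ → ℕ) (D : Set (Fin 12 → ℝ)) (lam : (Fin 12 → ℝ) → ℝ)
      (W : Wnd 12 (fun _ : ℕ => ℕ × ℝ)) (E : ∀ _ : ℕ, Finset (ℕ × ℝ)) (b : ℕ → Fin 2 → ℝ),
      WMC B I J co C ν s X h rX rH rF gC gP gE gB gD k' D lam W E b := by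
  obtain ⟨D, lam, hD, htan, hlin⟩ := L.ex
  have ht : IsTan (Leg monL R) D ν X h (lam j0) := hf ▸ htan j0
  have hrz : 1 - s ≤ rz := by
    have h1 := HB.own D (lam j0) hD ht 1 one_pos
    rw [hlin 1 0 0 0 0 0 0 0 0 (mem_LM (by norm_num) (by norm_num) (by norm_num))] at h1
    linarith
  obtain ⟨k', W, E, a1, w, a3, a4, a5, a6, a7, a8, a9⟩ := exists_winM hN hcoc L.hpos L.h0 ht hD
    (rz := rz) (rX := rX) (rH := rH) (rF := rF) (gC := gC) (gP := gP) (gE := gE) (gB := gB)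
    (gD := gD) hlin (σ := 1 - s) (by linarith) (by linarith)
    hrz (t := 1) one_pos (fun _ _ => 1) (fun _ => Base.Sub.const one_pos) (fun _ => (0, 0))
  obtain ⟨b, hb⟩ := HB.thin D (lam j0) k' 1 W E a1 L.h0 w a7 a5
  refine ⟨k', D, lam j0, W, E, b, a1, w, a7, a8, hb, ?_, a9⟩
  refine lawU_of w.wl a7 le_rfl ?_ ?_ ?_
  · exact w.ev_of (P := fun c _ => c 4 = c 3) HB.e4 a1
  · exact w.ev_of (P := fun c _ => c 6 = c 5) HB.e6 a1
  · exact w.ev_of (P := fun c _ => c 8 = c 7) HB.e8 a1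

section facts

variable {k' : ℕ → ℕ} {D : Set (Fin 12 → ℝ)} {lam : (Fin 12 → ℝ) → ℝ}
    {W : Wnd 12 (fun _ : ℕ => ℕ × ℝ)} {E : ∀ _ : ℕ, Finset (ℕ × ℝ)} {b : ℕ → Fin 2 → ℝ}

theorem WMC.tight (w : WMC B I J co C ν s X h rX rH rF gC gP gE gB gD k' D lam W E b)
    {i j k : Fin 12} (hw : wtL i + wtL j = wtL k) (e : ∀ n, X n k = X n i + X n j) :
    ∀ᶠ n in (U : Filter ℕ), side W n i * side W n j = side W n k :=
  Eventually.of_forall fun n => tight_side w.win.wl hw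
    (w.win.X_of (P := fun c => c k = c i + c j) e n)

theorem WMC.wall (w : WMC B I J co C ν s X h rX rH rF gC gP gE gB gD k' D lam W E b)
    {i j k : Fin 12} (e : ∀ n, X n k = X n i + X n j) :
    ∀ᶠ n in (U : Filter ℕ), W.X n k = W.X n i + W.X n j :=
  Eventually.of_forall fun n => w.win.X_of (P := fun c => c k = c i + c j) e n

/-- a slack wall, in the unit `h` -/
theorem WMC.slack (w : WMC B I J co C ν s X h rX rH rF gC gP gE gB gD k' D lam W E b)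
    {i j k : Fin 12} (hw : wtL i + wtL j = wtL k) {y : ℝ}
    (hsl : ∀ᶠ n in atTop, X n k + y * h n ≤ X n i + X n j) :
    ∀ᶠ n in (U : Filter ℕ), side W n i * side W n j ≤ W.B'.d n ^ y * side W n k := by
  filter_upwards [w.win.ev_of (P := fun c r => c k + y * r ≤ c i + c j) hsl w.hk] with n hn
  refine slack_side w.win.wl hw (w := W.w n) ?_ hn
  rw [w.win.base, w.win.hw, w.win.hB]

/-- level slots -/
theorem WMC.nS (w : WMC B I J co C ν s X h rX rH rF gC gP gE gB gD k' D lam W E b) {k : Fin 12}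
    (hk : k ≠ 0) : k ∉ W.S := fun hm => hk (by
  rw [w.win.hS, Finset.mem_singleton] at hm; exact hm)

/-- legal boxes -/
theorem WMC.mem (w : WMC B I J co C ν s X h rX rH rF gC gP gE gB gD k' D lam W E b)
    {D' E' C' X' B' N P F : ℝ}
    (h0 : 0 ≤ D' ∧ 0 ≤ E' ∧ 0 ≤ C' ∧ 0 ≤ X' ∧ 0 ≤ B' ∧ 0 ≤ N ∧ 0 ≤ P ∧ 0 ≤ F)
    (h1 : B' ≤ E' + C' ∧ B' ≤ D' + X' ∧ N ≤ C' + X' ∧ P ≤ C' + B' ∧ P ≤ D' + N ∧
      F ≤ X' + B' ∧ F ≤ E' + N)
    (h2 : D' ≤ 1 ∧ E' ≤ 1 ∧ C' ≤ 1 ∧ X' ≤ 1 ∧ B' ≤ 1 ∧ N ≤ 1 ∧ P ≤ 1 ∧ F ≤ 1) :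
    bx9 0 D' E' C' X' B' N P F ∈ W.legW ∧ W.nu (bx9 0 D' E' C' X' B' N P F) =
      rX * (1 - X') + rH * (1 - N) + rF * (1 - F) + gC * (1 - C') + gP * (1 - P) +
        gE * (1 - E') + gB * (1 - B') + gD * (1 - D') := by
  have hm := (w.win.memL zero_le_one (z := 0)).2 ⟨h0, h1, h2⟩
  exact ⟨hm, w.nu _ _ _ _ _ _ _ _ _ hm⟩

/-- **K1, F1** -/
theorem WMC.k1 (w : WMC B I J co C ν s X h rX rH rF gC gP gE gB gD k' D lam W E b)
    (h5 : ∀ n, X n 5 = X n 0 + X n 3) (h6 : ∀ n, X n 6 = X n 0 + X n 4) :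
    (0 < gC → 1 - s ≤ rX) ∧ (s < gC → 1 ≤ rX) := by
  have m0 := w.mem (D' := 0) (E' := 0) (C' := 0) (X' := 0) (B' := 0) (N := 0) (P := 0) (F := 0)
    (by norm_num) (by norm_num) (by norm_num)
  have mQ : ∀ t : ℝ, 0 ≤ t → t ≤ 1 → _ := fun t h0 h1 =>
    w.mem (D' := 0) (E' := 0) (C' := t) (X' := t) (B' := 0) (N := 0) (P := 0) (F := 0)
      ⟨le_rfl, le_rfl, h0, h0, le_rfl, le_rfl, le_rfl, le_rfl⟩
      ⟨by linarith, by linarith, by linarith, by linarith, by linarith, by linarith,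
        by linarith⟩
      ⟨by linarith, by linarith, h1, h1, by linarith, by linarith, by linarith, by linarith⟩
  have mX := w.mem (D' := 0) (E' := 0) (C' := 0) (X' := 1) (B' := 0) (N := 0) (P := 0) (F := 0)
    (by norm_num) (by norm_num) (by norm_num)
  have key := k1f1 w.win.wl w.reg w.mod w.thin.one w.thin.tc w.thin.tx (w.wall h5) (w.wall h6)
    one_pos le_rfl le_rfl (by rw [e_0]; exact m0.1)
    (fun t h0 h1 => by rw [e_CX]; exact (mQ t h0 h1).1) (by rw [e_X]; exact mX.1)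
    (f := rX) (g := gC)
    (fun t h0 h1 => by rw [e_CX, e_0, (mQ t h0 h1).2, m0.2]; linarith)
    (by rw [e_X, e_0, mX.2, m0.2]; linarith)
  refine ⟨key.1, fun hg => key.2 (by linarith)⟩

/-- **K2, F2** -/
theorem WMC.k2 (w : WMC B I J co C ν s X h rX rH rF gC gP gE gB gD k' D lam W E b)
    (h11 : ∀ n, X n 11 = X n 0 + X n 10) :
    (0 < gP → 1 - s ≤ rF) ∧ (s < gP → 1 ≤ rF) := by
  have m0 := w.mem (D' := 0) (E' := 0) (C' := 1) (X' := 1) (B' := 0) (N := 1) (P := 0) (F := 0)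
    (by norm_num) (by norm_num) (by norm_num)
  have mQ : ∀ t : ℝ, 0 ≤ t → t ≤ 1 → _ := fun t h0 h1 =>
    w.mem (D' := 0) (E' := 0) (C' := 1) (X' := 1) (B' := 0) (N := 1) (P := t) (F := t)
      ⟨le_rfl, le_rfl, zero_le_one, zero_le_one, le_rfl, zero_le_one, h0, h0⟩
      ⟨by linarith, by linarith, by linarith, by linarith, by linarith, by linarith,
        by linarith⟩
      ⟨by linarith, by linarith, le_rfl, le_rfl, by linarith, le_rfl, h1, h1⟩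
  have mF := w.mem (D' := 0) (E' := 0) (C' := 1) (X' := 1) (B' := 0) (N := 1) (P := 0) (F := 1)
    (by norm_num) (by norm_num) (by norm_num)
  have key := k2f2 w.win.wl w.reg w.mod (w.wall h11)
    one_pos le_rfl le_rfl (by rw [e_q]; exact m0.1)
    (fun t h0 h1 => by rw [e_qPF]; exact (mQ t h0 h1).1) (by rw [e_qF]; exact mF.1)
    (f := rF) (g := gP)
    (fun t h0 h1 => by rw [e_qPF, e_q, (mQ t h0 h1).2, m0.2]; linarith)
    (by rw [e_qF, e_q, mF.2, m0.2]; linarith)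
  refine ⟨key.1, fun hg => key.2 (by linarith)⟩

/-- **H1** -/
theorem WMC.h1 (w : WMC B I J co C ν s X h rX rH rF gC gP gE gB gD k' D lam W E b) (hX : 0 ≤ rX)
    (h9 : ∀ n, X n 9 = X n 3 + X n 5) :
    (0 < gC → rX ≤ rH) ∧ (1 - rX < gC → 1 ≤ rH) :=
  Kc388.H1_linC w.mod.toRUnif w.law w.thin (y := 1) one_pos le_rfl (w.tight rfl h9) (d := 1)
    (e := 1) (B0 := 1) (P0 := 0) (F0 := 0) le_rfl (A := rX + rH + rF + gC + gP) (gC := gC) hX
    (fun C1 X1 N1 a1 a2 a3 a4 a5 a6 a7 => by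
      have m := w.mem (D' := 1) (E' := 1) (C' := C1) (X' := X1) (B' := 1) (N := N1) (P := 0)
        (F := 0)
        ⟨zero_le_one, zero_le_one, a1, a3, zero_le_one, a5, le_rfl, le_rfl⟩
        ⟨by linarith, by linarith, by linarith, by linarith, by linarith, by linarith,
          by linarith⟩
        ⟨le_rfl, le_rfl, a2, a4, le_rfl, a6, by linarith, by linarith⟩
      exact ⟨m.1, by rw [m.2]; ring⟩)

/-- **S2** -/
theorem WMC.s2 (w : WMC B I J co C ν s X h rX rH rF gC gP gE gB gD k' D lam W E b) (hH : 0 ≤ rH)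
    (h11 : ∀ n, X n 11 = X n 2 + X n 9) :
    (0 < gE → rH ≤ rF) ∧ (1 - rH < gE → 1 ≤ rF) :=
  Kc388.S2_linC w.mod.toRUnif w.law w.thin (y := 1) one_pos le_rfl (w.tight rfl h11) (d := 0)
    (C0 := 1) (X0 := 1) (B0 := 1) (P0 := 0) le_rfl zero_le_one zero_le_one le_rfl le_rfl
    (A := rH + rF + gP + gE + gD) hH
    (fun E1 N1 F1 a1 a2 a3 a4 a5 a6 a7 => by
      have m := w.mem (D' := 0) (E' := E1) (C' := 1) (X' := 1) (B' := 1) (N := N1) (P := 0)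
        (F := F1)
        ⟨le_rfl, a1, zero_le_one, zero_le_one, zero_le_one, a3, le_rfl, a5⟩
        ⟨by linarith, by linarith, by linarith, by linarith, by linarith, by linarith,
          by linarith⟩
        ⟨by linarith, a2, le_rfl, le_rfl, le_rfl, a4, by linarith, a6⟩
      exact ⟨m.1, by rw [m.2]; ring⟩)

/-- **S3** -/
theorem WMC.s3 (w : WMC B I J co C ν s X h rX rH rF gC gP gE gB gD k' D lam W E b) (hH : 0 ≤ rH)
    (h10 : ∀ n, X n 10 = X n 1 + X n 9) :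
    (0 < gD → rH ≤ gP) ∧ (1 - rH < gD → 1 ≤ gP) :=
  Kc388.S3_linC w.mod.toRUnif w.law w.thin (y := 1) one_pos le_rfl (w.tight rfl h10) (e := 0)
    (C0 := 1) (X0 := 1) (B0 := 1) (F0 := 0) le_rfl zero_le_one le_rfl (by norm_num)
    (Or.inr (by norm_num)) (A := rH + rF + gP + gE + gD) hH
    (fun D1 N1 P1 a1 a2 a3 a4 a5 a6 a7 => by
      have m := w.mem (D' := D1) (E' := 0) (C' := 1) (X' := 1) (B' := 1) (N := N1) (P := P1)
        (F := 0)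
        ⟨a1, le_rfl, zero_le_one, zero_le_one, zero_le_one, a3, a5, le_rfl⟩
        ⟨by linarith, by linarith, by linarith, by linarith, by linarith, by linarith,
          by linarith⟩
        ⟨a2, by linarith, le_rfl, le_rfl, le_rfl, a4, a6, by linarith⟩
      exact ⟨m.1, by rw [m.2]; ring⟩)

end facts

/-- **THE FACTS, slot `D` live, without the pair `{7,8}`** -/
theorem factsMC (hN : NProf B I J co monL C R ν) (hcoc : ∀ n, Coc (co n)) (hs0 : 0 ≤ s)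
    (hs1 : s ≤ 1) (hf : f j0 = ν) (HB : BsMC B I J co C R ν s X h)
    (L : LinTanM (Leg monL R) f j0 X h rz rX rH rF gC gP gE gB gD) :
    ((∀ n, X n 5 = X n 0 + X n 3) → (∀ n, X n 6 = X n 0 + X n 4) →
      (0 < gC → 1 - s ≤ rX) ∧ (s < gC → 1 ≤ rX)) ∧
    ((∀ n, X n 11 = X n 0 + X n 10) → (0 < gP → 1 - s ≤ rF) ∧ (s < gP → 1 ≤ rF)) ∧
    ((∀ n, X n 9 = X n 3 + X n 5) → (0 < gC → rX ≤ rH) ∧ (1 - rX < gC → 1 ≤ rH)) ∧
    ((∀ n, X n 11 = X n 2 + X n 9) → (0 < gE → rH ≤ rF) ∧ (1 - rH < gE → 1 ≤ rF)) ∧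
    ((∀ n, X n 10 = X n 1 + X n 9) → (0 < gD → rH ≤ gP) ∧ (1 - rH < gD → 1 ≤ gP)) := by
  obtain ⟨p1, p2, p3⟩ := rates_nonnegM hN hf L
  obtain ⟨k', D, lam, W, E, b, w⟩ := exists_wmc hN hcoc hs0 hs1 hf HB L
  exact ⟨fun a b => w.k1 a b, fun a => w.k2 a, fun a => w.h1 p1 a, fun a => w.s2 p2 a,
    fun a => w.s3 p2 a⟩

/-- `BsM` is stronger -/
theorem BsMC.of (h1 : BsM B I J co C R ν s X h) : BsMC B I J co C R ν s X h where
  e4 := h1.e4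
  e6 := h1.e6
  e8 := h1.e8
  own := h1.own
  thin := fun D lam k' T W E a1 a2 a3 a4 a5 => by
    obtain ⟨b, hb⟩ := h1.thin D lam k' T W E a1 a2 a3 a4 a5
    exact ⟨b, Kc388.ThinC.of hb⟩

end Crest.Agent.R116.Kg330
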