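import Mathlib.Tactic

/-!
# R116, K-TEXT II-c: thin tie `b ≤ 2 a + k v` with `k ≤ 1`, algebraic end (helper194)

Text: helper647 (16015 (1), (2)), re-derived with all flag rates by 194.  Natural boxes `(v; a, b)`,
record `(v; -θ v, -(2θ-k) v)`, levels `z = v`, `C_a = a`, `C_b = b`, `X = v + a`, `H = v + 2a`,
`N = v + b`, `E = b - a`, `G = b - 2a`.  In the record blow-up all rates are constant on an open half
plane bounded by the record line.  `x n h` = losses of `X N H`, `m r` = rates of `C_a C_b`,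
`e` = excess of `z`, `w u` = rates of the flags `E G`.

* `exits`  : on the tie plane below the record all of `m r x h n` are `≤ s`;
* `rowW`   : `k < θ`, half plane through the direction `(-1; 1, 1)`;
* `rowS`   : `θ ≤ k`, half plane through the direction `(0; 1, 1)`, with the exchange `NZ`.
-/

set_option autoImplicit false

namespace Crest.Agent.R116.KpT194

/-- constants of one open half plane bounded by the record line -/
structure Half where
  x : ℝ
  n : ℝ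
  h : ℝ
  m : ℝ
  r : ℝ
  e : ℝ
  w : ℝ
  u : ℝ

/-- all constants are nonnegative -/
structure Half.Pos (S : Half) : Prop where
  x0 : 0 ≤ S.x
  n0 : 0 ≤ S.n
  h0 : 0 ≤ S.h
  m0 : 0 ≤ S.m
  r0 : 0 ≤ S.r
  e0 : 0 ≤ S.e
  w0 : 0 ≤ S.w
  u0 : 0 ≤ S.u

/-- `a`-derivative of the profile at fixed `v, b` -/
def Half.Fa (S : Half) (qa : ℝ) : ℝ := S.x + 2 * S.h - S.m + S.w + 2 * S.u + qa

/-- `b`-derivative of the profile at fixed `v, a` -/
def Half.Fb (S : Half) (qb : ℝ) : ℝ := S.n - S.r - S.w - S.u + qb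

/-- tangential identity along the record with slopes `-θ, -θb` -/
def Half.Tan (S : Half) (c θ θb qa qb : ℝ) : Prop :=
  c + S.e = S.x + S.h + S.n - θ * S.Fa qa - θb * S.Fb qb

/-- facts of the fan `C_a` : Kaufman / Falconer with shading -/
structure Half.FanA (S : Half) (s : ℝ) : Prop where
  kx : 0 < S.m → S.x ≤ s
  kh : 0 < S.m → S.h ≤ s
  fx : s < S.m → S.x = 0
  fh : s < S.m → S.h = 0

/-- facts of the fan `C_b` -/
structure Half.FanB (S : Half) (s : ℝ) : Prop where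
  kn : 0 < S.r → S.n ≤ s
  fn : s < S.r → S.n = 0

variable {k θ s c qa qb : ℝ} {A B : Half}

/-- exits on the tie plane below the record -/
theorem exits (hk : 0 ≤ k) (hθ : 0 < θ) (hc : 2 * s < c) (hqa : 0 < qa)
    (hq : qb ≤ qa) (hP : A.Pos) (hA : A.FanA s) (hB : A.FanB s) (hmr : A.m ≤ A.r)
    (tan : A.Tan c θ (2 * θ - k) qa qb) (ver : 0 ≤ A.Fa qa + 2 * A.Fb qb) (hm : qa ≤ A.m) :
    A.m ≤ s ∧ A.r ≤ s ∧ A.x ≤ s ∧ A.h ≤ s ∧ A.n ≤ s := by
  have hm0 : 0 < A.m := by linarith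
  have hr0 : 0 < A.r := by linarith
  have hx := hA.kx hm0
  have hh := hA.kh hm0
  have hn := hB.kn hr0
  have key : c + A.e + k * (A.r - qb) + k * A.w + k * A.u ≤ A.x + A.h + (1 + k) * A.n := by
    have h1 := mul_nonneg hθ.le ver
    unfold Half.Tan at tan
    unfold Half.Fa Half.Fb at tan h1
    nlinarith
  have hkr : 0 ≤ k * (A.r - qb) := mul_nonneg hk (by linarith)
  have hkw : 0 ≤ k * A.w := mul_nonneg hk hP.w0
  have hku : 0 ≤ k * A.u := mul_nonneg hk hP.u0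
  have hrs : A.r ≤ s := by
    by_contra hcon
    push Not at hcon
    have h2 := hB.fn hcon
    rw [h2] at key
    linarith [hP.e0]
  exact ⟨by linarith, hrs, hx, hh, hn⟩

/-- **`k < θ`** : half plane `B` through the direction `(-1; 1, 1)`; its fans are bounded by those of
the tie plane `A` below the record. -/
theorem rowW (hc : 2 * s < c) (hqa : 0 ≤ qa) (hqb : 0 ≤ qb) (hB : B.Pos)
    (tan : B.Tan c θ (2 * θ - k) qa qb)
    (hF : (1 - θ) * B.Fa qa + (1 - (2 * θ - k)) * B.Fb qb ≤ 0)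
    (hm : B.m ≤ A.m) (hr : B.r ≤ A.r) (hAm : A.m ≤ s) (hAr : A.r ≤ s) : False := by
  unfold Half.Tan at tan
  unfold Half.Fa Half.Fb at tan hF
  nlinarith [hB.h0, hB.u0, hB.e0]

/-- the case `r = 0` of `rowS` -/
theorem rzero (hθ : 0 < θ) (hθ1 : θ < 1) (hθk : θ ≤ k) (hk1 : k ≤ 1 + θ) (hs : 0 ≤ s)
    (hc : 2 * s < c) (hqa : 0 ≤ qa) (hqb : 0 ≤ qb) (hBP : B.Pos) (hr : B.r = 0)
    (tanB : B.Tan c θ (2 * θ - k) qa qb) (hF : B.Fa qa + B.Fb qb ≤ 0) (hBms : B.m ≤ s) :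
    False := by
  obtain ⟨x, n, h, m, r, e, w, u⟩ := B
  obtain ⟨x0, n0, h0, m0, r0, e0, w0, u0⟩ := hBP
  simp only [Half.Tan, Half.Fa, Half.Fb] at *
  subst hr
  have hA0 : 0 ≤ 1 + k - 2 * θ := by linarith
  have f3 : 0 ≤ (1 + k - 2 * θ) * (m - x - 2 * h - n - u - qa - qb) :=
    mul_nonneg hA0 (by linarith)
  have f4 : 0 ≤ (k - θ) * x := mul_nonneg (by linarith) x0
  have f5 : 0 ≤ (k - θ) * w := mul_nonneg (by linarith) w0
  have f6 : 0 ≤ (2 * k + 1 - 2 * θ) * u := mul_nonneg (by linarith) u0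
  have f7 : (1 + k - θ) * m ≤ (1 + k - θ) * s := mul_le_mul_of_nonneg_left hBms (by linarith)
  have f8 : (1 + k - θ) * s ≤ 2 * s := mul_le_mul_of_nonneg_right (by linarith) hs
  have f9 : 0 ≤ (1 + 2 * k - 2 * θ) * h := mul_nonneg (by linarith) h0
  have f10 : 0 ≤ (1 + k - θ) * qa := mul_nonneg (by linarith) hqa
  have key : c + e + (k - θ) * x + (k - θ) * w + (2 * k + 1 - 2 * θ) * u
      + (1 + 2 * k - 2 * θ) * h + (1 + k - θ) * qa + qb =
      (1 + k - θ) * m - (1 + k - 2 * θ) * (m - x - 2 * h - n - u - qa - qb) := by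
    rw [tanB]; ring
  linarith

/-- **`θ ≤ k`** : half plane `B` through the direction `(0; 1, 1)` -/
theorem rowS (hk : 0 ≤ k) (hθ : 0 < θ) (hθ1 : θ < 1) (hθk : θ ≤ k) (hk1 : k ≤ 1 + θ)
    (hs : 0 ≤ s) (hc : 2 * s < c) (hqa : 0 < qa) (hqb : 0 ≤ qb) (hq : qb ≤ qa)
    (hAP : A.Pos) (hAA : A.FanA s) (hAB : A.FanB s) (hmr : A.m ≤ A.r)
    (tanA : A.Tan c θ (2 * θ - k) qa qb) (verA : 0 ≤ A.Fa qa + 2 * A.Fb qb) (hm : qa ≤ A.m)
    (hBP : B.Pos) (hBB : B.FanB s) (tanB : B.Tan c θ (2 * θ - k) qa qb)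
    (hF : B.Fa qa + B.Fb qb ≤ 0) (hBm : B.m ≤ A.m)
    (hNZ : B.n = 0 → (1 + k - 2 * θ) * A.n ≤ A.e + (k - θ) * A.w + k * A.u) : False := by
  obtain ⟨hAm, hAr, hAx, hAh, hAn⟩ := exits hk hθ hc hqa hq hAP hAA hAB hmr tanA verA hm
  have hn0 : 0 < B.n := by
    by_contra hcon
    have h0 : B.n = 0 := le_antisymm (not_lt.1 hcon) hBP.n0
    have h1 := hNZ h0
    have hrq : 0 ≤ A.r - qb := by linarith
    have hrq' : A.r - qb ≤ s := by linarith
    have e1 : (1 - θ) * A.x ≤ (1 - θ) * s := mul_le_mul_of_nonneg_left hAx (by linarith)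
    have e2 : θ * (A.m - qa) ≤ θ * s := mul_le_mul_of_nonneg_left (by linarith) hθ.le
    have e3 : (2 * θ - k) * (A.r - qb) ≤ θ * s := by
      rcases le_or_gt (2 * θ - k) 0 with h | h
      · exact (mul_nonpos_of_nonpos_of_nonneg h hrq).trans (by positivity)
      · calc (2 * θ - k) * (A.r - qb) ≤ (2 * θ - k) * s := mul_le_mul_of_nonneg_left hrq' h.le
          _ ≤ θ * s := mul_le_mul_of_nonneg_right (by linarith) hs
    have e3' : (2 * θ - k) * (A.r - qb) ≤ max 0 ((2 * θ - k) * s) := by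
      rcases le_or_gt (2 * θ - k) 0 with h | h
      · exact (mul_nonpos_of_nonpos_of_nonneg h hrq).trans (le_max_left _ _)
      · exact (mul_le_mul_of_nonneg_left hrq' h.le).trans (le_max_right _ _)
    have e4 : (1 - 2 * θ) * A.h ≤ max 0 ((1 - 2 * θ) * s) := by
      rcases le_or_gt (1 - 2 * θ) 0 with h | h
      · exact (mul_nonpos_of_nonpos_of_nonneg h hAP.h0).trans (le_max_left _ _)
      · exact (mul_le_mul_of_nonneg_left hAh h.le).trans (le_max_right _ _)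
    have key : c ≤ (1 - θ) * A.x + (1 - 2 * θ) * A.h + θ * (A.m - qa)
        + (2 * θ - k) * (A.r - qb) := by
      unfold Half.Tan at tanA
      unfold Half.Fa Half.Fb at tanA
      nlinarith
    have hks : 0 ≤ k * s := mul_nonneg hk hs
    have hts : 0 ≤ θ * s := mul_nonneg hθ.le hs
    rcases max_cases (0 : ℝ) ((1 - 2 * θ) * s) with ⟨h5, _⟩ | ⟨h5, _⟩ <;>
    rcases max_cases (0 : ℝ) ((2 * θ - k) * s) with ⟨h6, _⟩ | ⟨h6, _⟩ <;>
    rw [h5] at e4 <;> rw [h6] at e3' <;> nlinarith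
  have hBr : B.r ≤ s := by
    by_contra hcon
    push Not at hcon
    exact hn0.ne' (hBB.fn hcon)
  have hBms : B.m ≤ s := hBm.trans hAm
  rcases hBP.r0.lt_or_eq with h0 | h0
  · have hBn := hBB.kn h0
    have e1 : (1 + θ - k) * B.r ≤ (1 + θ - k) * s := mul_le_mul_of_nonneg_left hBr (by linarith)
    have e2 : (k - θ) * B.n ≤ (k - θ) * s := mul_le_mul_of_nonneg_left hBn (by linarith)
    have e3 : 0 ≤ (1 - θ) * (-(B.Fa qa + B.Fb qb)) := mul_nonneg (by linarith) (by linarith)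
    have e4 : 0 ≤ (1 + θ - k) * qb := mul_nonneg (by linarith) hqb
    have e5 : 0 ≤ (k - θ) * B.w := mul_nonneg (by linarith) hBP.w0
    have e6 : 0 ≤ (k + 1 - θ) * B.u := mul_nonneg (by linarith) hBP.u0
    unfold Half.Tan at tanB
    unfold Half.Fa Half.Fb at tanB e3
    nlinarith [hBP.h0, hBP.e0]
  · have h0' : B.r = 0 := h0.symm
    exact rzero hθ hθ1 hθk hk1 hs hc hqa.le hqb hBP h0' tanB hF hBms

end Crest.Agent.R116.KpT194
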