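import Crest.Agent.R116.Kr9_710

/-!
# R116, K side: static facts at any legal base point (helper710)

* `SlabV` : data of a static fact by groups of slots (group of the velocity, of the time, of the
  position), `SlabV.toE`, `hxV_rates` (Kaufman and Falconer halves).
* `LawU B G S u x` : composition at one height in the units `u n` (`= side W n`); `ThinU` : the dead
  direction `b n` of the pairs `{3,4}`, `{5,6}`, `{7,8}`; `SlU` : one slice.
-/

set_option autoImplicit false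
set_option linter.unusedVariables false
set_option linter.unusedSectionVars false

open Filter Topology Finset

namespace Crest.Agent.R116.Kr710

open Crest.Agent.R138.Ex926 (Base U)
open Crest.Agent.R138.Fal658 Crest.Agent.R136.Gf356
open Crest.Agent.R116.EvL504 (comp evoS SL Sides)

section

variable {κ : Type} [DecidableEq κ]

/-- the group `J` of `rel` is comparable with the number `d` -/
def Cmp (J : Finset κ) (rel : κ → ℝ) (d r β : ℝ) : Prop :=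
  (∀ j ∈ J, |rel j| ≤ β * (|d| + r)) ∧ ∀ v : ℝ, (∀ j ∈ J, |rel j| ≤ v) → |d| ≤ β * (v + r)

/-- data of the static facts by groups of slots; the base box is `0` on the three groups -/
structure SlabV (B : Base) (G : ℕ → RCfg κ) (i0 k0 : ℕ → ℕ) (pS : κ → ℝ) (JC JX JH : Finset κ)
    (c x h : ℕ → ℕ → ℝ) (y : ℝ) : Prop where
  dis : ∀ j ∈ JX, j ∉ JC
  hC : ∀ j ∈ JH, j ∉ JC
  hX : ∀ j ∈ JH, j ∉ JX
  zC : ∀ j ∈ JC, pS j = 0
  zX : ∀ j ∈ JX, pS j = 0
  zH : ∀ j ∈ JH, pS j = 0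
  co : ∀ C0 : ℝ, 0 < C0 → ∃ C1 : ℝ, 0 < C1 ∧ ∀ ε : ℝ, 0 < ε → ∀ᶠ n in (U : Filter ℕ),
    ∀ l ∈ (G n).box pS (C0 * ε) (i0 n) (k0 n), |c n l| ≤ B.d n ^ (-(C1 * ε)) ∧
      |x n l| ≤ B.d n ^ (-(C1 * ε)) ∧ ∀ l' ∈ (G n).box pS (C0 * ε) (i0 n) (k0 n),
      Cmp JC ((G n).rel (k0 n) l l') (c n l' - c n l) (B.d n ^ y) (B.d n ^ (-(C1 * ε))) ∧
      Cmp JX ((G n).rel (k0 n) l l') (x n l' - x n l) (B.d n ^ y) (B.d n ^ (-(C1 * ε))) ∧
      Cmp JH ((G n).rel (k0 n) l l') ((h n l' - h n l) - c n l * (x n l' - x n l)) (B.d n ^ y)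
        (B.d n ^ (-(C1 * ε)))

theorem SlabV.toE {B : Base} {G : ℕ → RCfg κ} {Leg : Set (κ → ℝ)} {ν : (κ → ℝ) → ℝ} {D : ℝ}
    (H : RUnif B G Leg ν D) {i0 k0 : ℕ → ℕ}
    (h0 : ∀ᶠ n in (U : Filter ℕ), (i0 n, k0 n) ∈ (G n).I) {pS : κ → ℝ} (lS : pS ∈ Leg)
    {JC JX JH : Finset κ} {c x h : ℕ → ℕ → ℝ} {y : ℝ} (hy : 0 < y)
    (S : SlabV B G i0 k0 pS JC JX JH c x h y) :
    SlabE B G i0 k0 pS (EG pS JC JX JH) c x h y := by
  have hD := H.D1
  have hD0 : 0 < D := by linarith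
  -- generic: from `u ≤ ρ^(-C1 ε) (v + ρ^y)`
  have gen : ∀ {n : ℕ} {C1 s K u v ε : ℝ}, 0 < ε → 8 ≤ B.d n ^ (-ε) → s ≤ y → 0 ≤ K →
      u ≤ B.d n ^ (-(C1 * ε)) * (v + B.d n ^ y) →
      v ≤ B.d n ^ (s - K * ε) → u ≤ B.d n ^ (s - (C1 + K + 1) * ε) := by
    intro n C1 s K u v ε hε h8 hs hK hu hv
    have hKε : 0 ≤ K * ε := by positivity
    have e1 : v + B.d n ^ y ≤ B.d n ^ (s - (K + 1) * ε) :=
      pw2 B h8 hv le_rfl (by linarith) (by nlinarith)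
    calc u ≤ B.d n ^ (-(C1 * ε)) * (v + B.d n ^ y) := hu
      _ ≤ B.d n ^ (-(C1 * ε)) * B.d n ^ (s - (K + 1) * ε) :=
          mul_le_mul_of_nonneg_left e1 (rpos B n _).le
      _ = _ := by rw [← rpow_add']; congr 1; ring
  refine ⟨?_, ?_, ?_, ?_, ?_, ?_⟩
  · funext j; simp [EG]
  · intro t1 t2 t3 h1 h2 h3 j
    unfold EG
    split_ifs <;> linarith
  · intro j
    unfold EG
    split_ifs <;> linarith
  · intro C0 hC0
    obtain ⟨C1, hC1, h1⟩ := S.co C0 hC0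
    refine ⟨C1, hC1, fun ε hε => ?_⟩
    filter_upwards [h1 ε hε] with n hn l hl
    exact ⟨(hn l hl).1, (hn l hl).2.1⟩
  · intro C0 hC0 K hK
    obtain ⟨C1, hC1, h1⟩ := S.co C0 hC0
    refine ⟨C1 + K + 1, by linarith, ?_⟩
    intro s1 s2 s3 a1 b1 a2 b2 a3 b3 ε hε
    filter_upwards [h1 ε hε, ev_const_le B hε 8] with n hn h8 l hl l' hl' hlo
    obtain ⟨⟨g1, g2⟩, ⟨g3, g4⟩, ⟨g5, g6⟩⟩ := (hn l hl).2.2 l' hl'
    have hKε : 0 ≤ K * ε := by positivity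
    have hCε : 0 ≤ C1 * ε := by positivity
    have e1 : ∀ j ∈ JC, |(G n).rel (k0 n) l l' j| ≤ B.d n ^ (s1 - K * ε) := by
      intro j hj
      have := hlo j
      rwa [EG_C hj, S.zC _ hj, zero_add, H.base n] at this
    have e2 : ∀ j ∈ JX, |(G n).rel (k0 n) l l' j| ≤ B.d n ^ (s2 - K * ε) := by
      intro j hj
      have := hlo j
      rwa [EG_X (S.dis _ hj) hj, S.zX _ hj, zero_add, H.base n] at this
    have e3 : ∀ j ∈ JH, |(G n).rel (k0 n) l l' j| ≤ B.d n ^ (s3 - K * ε) := by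
      intro j hj
      have := hlo j
      rwa [EG_H (S.hC _ hj) (S.hX _ hj) hj, S.zH _ hj, zero_add, H.base n] at this
    exact ⟨gen hε h8 b1 hK.le (g2 _ e1) le_rfl, gen hε h8 b2 hK.le (g4 _ e2) le_rfl,
      gen hε h8 b3 hK.le (g6 _ e3) le_rfl⟩
  · intro C0 hC0 K hK
    obtain ⟨C1, hC1, h1⟩ := S.co C0 hC0
    have hDC : 0 < D ^ 2 * C0 := by positivity
    refine ⟨C1 + K + 1 + D ^ 2 * C0, by linarith, ?_⟩
    intro s1 s2 s3 a1 b1 a2 b2 a3 b3 ε hε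
    filter_upwards [h1 ε hε, ev_const_le B hε 8, near_pairs H h0 lS hC0 hε]
      with n hn h8 hnear l hl l' hl' q1 q2 q3
    obtain ⟨⟨g1, g2⟩, ⟨g3, g4⟩, ⟨g5, g6⟩⟩ := (hn l hl).2.2 l' hl'
    have hKε : 0 ≤ K * ε := by positivity
    have hCε : 0 ≤ C1 * ε := by positivity
    have hDε : 0 ≤ D ^ 2 * C0 * ε := by positivity
    intro j
    rw [H.base n]
    by_cases j1 : j ∈ JC
    · rw [EG_C j1, S.zC j j1, zero_add]
      exact (gen hε h8 b1 hK.le (g1 j j1) q1).trans (anK B n hε (by linarith))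
    by_cases j2 : j ∈ JX
    · rw [EG_X j1 j2, S.zX j j2, zero_add]
      exact (gen hε h8 b2 hK.le (g3 j j2) q2).trans (anK B n hε (by linarith))
    by_cases j3 : j ∈ JH
    · rw [EG_H j1 j2 j3, S.zH j j3, zero_add]
      exact (gen hε h8 b3 hK.le (g5 j j3) q3).trans (anK B n hε (by linarith))
    · rw [EG_O j1 j2 j3]
      have := hnear l hl l' hl' j
      rw [H.base n] at this
      exact this.trans (anK B n hε (by linarith))

/-- **static Kaufman and Falconer for `SlabV`** (growths: `a` of the time, `b` of the position,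
`m` of the velocity) -/
theorem hxV_rates {B : Base} {G : ℕ → RCfg κ} {Leg : Set (κ → ℝ)} {ν : (κ → ℝ) → ℝ} {D : ℝ}
    (H : RUnif B G Leg ν D) (i0 k0 : ℕ → ℕ)
    (h0 : ∀ᶠ n in (U : Filter ℕ), (i0 n, k0 n) ∈ (G n).I) {pS : κ → ℝ}
    {JC JX JH : Finset κ}
    {c x h : ℕ → ℕ → ℝ} {y : ℝ} (hy : 0 < y) (S : SlabV B G i0 k0 pS JC JX JH c x h y)
    (lS : pS ∈ Leg) (l1 : ∀ t, 0 ≤ t → t ≤ y → EG pS JC JX JH t 0 t ∈ Leg)
    (l2 : ∀ t, 0 ≤ t → t ≤ y → EG pS JC JX JH 0 t 0 ∈ Leg) (l3 : EG pS JC JX JH 0 y y ∈ Leg)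
    (l4 : EG pS JC JX JH y y y ∈ Leg) {a b m : ℝ} (ha0 : 0 ≤ a) (ha1 : a ≤ 1)
    (r3 : ∀ t, 0 ≤ t → t ≤ y → a * t ≤ ν pS - ν (EG pS JC JX JH 0 t 0))
    (r4 : ν pS - ν (EG pS JC JX JH 0 y 0) ≤
      ν (EG pS JC JX JH y 0 y) - ν (EG pS JC JX JH y y y))
    (r1 : ∀ t, 0 ≤ t → t ≤ y → (b + m) * t ≤ ν pS - ν (EG pS JC JX JH t 0 t))
    (r2 : ν (EG pS JC JX JH 0 y 0) - ν (EG pS JC JX JH 0 y y) ≤ b * y) :
    (0 < m → a ≤ b) ∧ (1 - a < m → 1 ≤ b) :=
  ⟨fun hm => hxE_kauf H i0 k0 h0 hy (S.toE H h0 lS hy) lS l1 l2 l3 l4 ha0 ha1 r3 r4 hm r1 r2,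
    fun hm => hxE_falc H i0 k0 h0 hy (S.toE H h0 lS hy) lS l1 l2 l3 l4 ha0 ha1 r3 r4 hm r1 r2⟩

/-- one slot -/
theorem Cmp.one {j : κ} {rel : κ → ℝ} {d r β : ℝ} (hr : 0 ≤ r) (hβ : 1 ≤ β)
    (h : |rel j - d| ≤ β * r) : Cmp {j} rel d r β := by
  have h1 : |rel j| ≤ |d| + β * r := by
    have := abs_sub_abs_le_abs_sub (rel j) d
    linarith
  have h2 : |d| ≤ |rel j| + β * r := by
    have := abs_sub_abs_le_abs_sub d (rel j)
    rw [abs_sub_comm] at this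
    linarith
  refine ⟨fun i hi => ?_, fun v hv => ?_⟩
  · rw [Finset.mem_singleton] at hi
    subst hi
    have := mul_le_mul_of_nonneg_right hβ (abs_nonneg d)
    calc |rel i| ≤ |d| + β * r := h1
      _ ≤ β * |d| + β * r := by linarith
      _ = β * (|d| + r) := by ring
  · have h3 := hv j (Finset.mem_singleton_self j)
    have h4 := mul_le_mul_of_nonneg_right hβ ((abs_nonneg _).trans h3)
    calc |d| ≤ v + β * r := by linarith
      _ ≤ β * v + β * r := by linarith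
      _ = β * (v + r) := by ring

/-- two slots, the direction `(b 0, b 1)` is dead -/
theorem Cmp.two {i j : κ} (hij : i ≠ j) {rel : κ → ℝ} {b : Fin 2 → ℝ}
    (hb : b 0 ^ 2 + b 1 ^ 2 = 1) {d r β : ℝ} (hr : 0 ≤ r) (hβ : 2 ≤ β)
    (h0 : |b 0 * rel i + b 1 * rel j| ≤ β * r) (h : |(-b 1 * rel i + b 0 * rel j) - d| ≤ β * r) :
    Cmp {i, j} rel d r (2 * β) := by
  have b0 : |b 0| ≤ 1 := by
    rw [← sq_le_one_iff_abs_le_one]; nlinarith [sq_nonneg (b 1)]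
  have b1 : |b 1| ≤ 1 := by
    rw [← sq_le_one_iff_abs_le_one]; nlinarith [sq_nonneg (b 0)]
  set s := b 0 * rel i + b 1 * rel j with hs
  set t := -b 1 * rel i + b 0 * rel j with ht
  have h1 : |t| ≤ |d| + β * r := by
    have := abs_sub_abs_le_abs_sub t d
    linarith
  have h2 : |d| ≤ |t| + β * r := by
    have := abs_sub_abs_le_abs_sub d t
    rw [abs_sub_comm] at this
    linarith
  have ei : rel i = b 0 * s - b 1 * t := by
    rw [hs, ht]
    have : b 0 * (b 0 * rel i + b 1 * rel j) - b 1 * (-b 1 * rel i + b 0 * rel j) =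
      (b 0 ^ 2 + b 1 ^ 2) * rel i := by ring
    rw [this, hb, one_mul]
  have ej : rel j = b 1 * s + b 0 * t := by
    rw [hs, ht]
    have : b 1 * (b 0 * rel i + b 1 * rel j) + b 0 * (-b 1 * rel i + b 0 * rel j) =
      (b 0 ^ 2 + b 1 ^ 2) * rel j := by ring
    rw [this, hb, one_mul]
  have p1 : ∀ p q : ℝ, |p| ≤ 1 → |q| ≤ 1 → |p * s + q * t| ≤ |s| + |t| := by
    intro p q hp hq
    refine (abs_add_le _ _).trans ?_
    rw [abs_mul, abs_mul]
    exact add_le_add (mul_le_of_le_one_left (abs_nonneg _) hp)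
      (mul_le_of_le_one_left (abs_nonneg _) hq)
  have k1 : |rel i| ≤ |s| + |t| := by
    rw [ei]
    have := p1 (b 0) (-b 1) b0 (by rwa [abs_neg])
    have e : b 0 * s - b 1 * t = b 0 * s + -b 1 * t := by ring
    rwa [e]
  have k2 : |rel j| ≤ |s| + |t| := by
    rw [ej]; exact p1 (b 1) (b 0) b1 b0
  have hd := abs_nonneg d
  have k3 : |s| + |t| ≤ 2 * β * (|d| + r) := by nlinarith
  refine ⟨fun k hk => ?_, fun v hv => ?_⟩
  · rcases Finset.mem_insert.1 hk with rfl | hk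
    · exact k1.trans k3
    · rw [Finset.mem_singleton] at hk
      subst hk
      exact k2.trans k3
  · have v1 := hv i (Finset.mem_insert_self _ _)
    have v2 := hv j (Finset.mem_insert_of_mem (Finset.mem_singleton_self j))
    have v0 : 0 ≤ v := (abs_nonneg _).trans v1
    have k4 : |t| ≤ 2 * v := by
      rw [ht]
      refine (abs_add_le _ _).trans ?_
      rw [abs_mul, abs_mul, abs_neg]
      have := mul_le_mul b1 v1 (abs_nonneg _) zero_le_one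
      have := mul_le_mul b0 v2 (abs_nonneg _) zero_le_one
      linarith
    nlinarith

theorem Cmp.mono {J : Finset κ} {rel : κ → ℝ} {d r β β' : ℝ} (hr : 0 ≤ r) (hβ : β ≤ β')
    (hβ0 : 0 ≤ β) (h : Cmp J rel d r β) (hJ : J.Nonempty) : Cmp J rel d r β' := by
  refine ⟨fun j hj => (h.1 j hj).trans (mul_le_mul_of_nonneg_right hβ (by positivity)),
    fun v hv => (h.2 v hv).trans (mul_le_mul_of_nonneg_right hβ ?_)⟩
  obtain ⟨j, hj⟩ := hJ
  have := (abs_nonneg _).trans (hv j hj)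
  linarith

end

end Crest.Agent.R116.Kr710
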