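import Crest.Agent.R116.Kr11_710

/-!
# R116, K side: the static facts at any legal base point (helper710)

`LawU.h1`, `s1`, `s2`, `s3`, `tb`, `rm` : the static facts of K-TEXT II-c / doc 2383 as `SlabV`; each
needs ONE tight wall; the other products are absorbed (`Abv`).
-/

set_option autoImplicit false
set_option linter.unusedVariables false
set_option linter.unusedSectionVars false

open Filter Topology Finset

namespace Crest.Agent.R116.Kr710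

open Crest.Agent.R138.Ex926 (Base U)
open Crest.Agent.R138.Fal658 Crest.Agent.R136.Gf356
open Crest.Agent.R116.EvL504 (comp SL Sides)

section CmpL

variable {κ : Type} [DecidableEq κ] {J : Finset κ} {rel : κ → ℝ} {d r β : ℝ}

theorem Cmp.neg (h : Cmp J rel d r β) : Cmp J rel (-d) r β := by
  unfold Cmp
  rw [abs_neg]
  exact h

theorem Cmp.congr {d' : ℝ} (h : Cmp J rel d r β) (e : d = d') : Cmp J rel d' r β := e ▸ h

theorem Cmp.two_mul (hr : 0 ≤ r) (hβ : 0 ≤ β) (hJ : J.Nonempty) (h : Cmp J rel d r β) :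
    Cmp J rel (2 * d) r (2 * β) := by
  have e : |2 * d| = 2 * |d| := by rw [abs_mul]; norm_num
  refine ⟨fun j hj => ?_, fun v hv => ?_⟩
  · have h1 := h.1 j hj
    rw [e]
    have := abs_nonneg d
    nlinarith [mul_nonneg hβ this, mul_nonneg hβ hr]
  · have h1 := h.2 v hv
    rw [e]
    nlinarith

end CmpL

namespace SlU

variable {S : Finset (Fin 12)} {p : Fin 12 → ℝ} {ρ r β y : ℝ} {u : Fin 12 → ℝ} {b : Fin 2 → ℝ}
  {a w c : Fin 12 → ℝ}

theorem pw (h : SlU S p ρ r β u b a w c) {i j : ℕ} (hij : i ≤ j) : β ^ i ≤ β ^ j :=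
  pow_le_pow_right₀ (by linarith [h.β8]) hij

theorem pw8 (h : SlU S p ρ r β u b a w c) (i j : ℕ) (hij : i < j) : 8 * β ^ i ≤ β ^ j := by
  have h1 := h.β8
  have h2 : 0 ≤ β ^ i := pow_nonneg h.β0 _
  have h3 : β ^ (i + 1) ≤ β ^ j := h.pw hij
  rw [pow_succ] at h3
  nlinarith

theorem rb (h : SlU S p ρ r β u b a w c) {i j : ℕ} (hij : i ≤ j) : r * β ^ i ≤ β ^ j * r := by
  rw [mul_comm]
  exact mul_le_mul_of_nonneg_right (h.pw hij) h.r0.le

theorem tt6 (h : SlU S p ρ r β u b a w c) (i j : Fin 12) : |tt b i j a| ≤ β ^ 6 := by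
  have h1 := h.tt_le (h.a1 i) (h.a1 j)
  have h2 := h.pw8 1 2 (by norm_num)
  have h3 := h.pw (i := 2) (j := 6) (by norm_num)
  have := h.β0
  rw [pow_one] at h2
  linarith

theorem a6 (h : SlU S p ρ r β u b a w c) (i : Fin 12) : |a i| ≤ β ^ 6 := by
  have h3 := h.pw (i := 1) (j := 6) (by norm_num)
  rw [pow_one] at h3
  exact (h.a1 i).trans h3

theorem two_le (h : SlU S p ρ r β u b a w c) (i : ℕ) (hi : 1 ≤ i) : 2 ≤ β ^ i := by
  have h3 := h.pw hi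
  rw [pow_one] at h3
  linarith [h.β8]

/-- pair `{i, j}`, live component known up to `r β^3` -/
theorem cmp2 (h : SlU S p ρ r β u b a w c) {i j : Fin 12} (hij : i ≠ j) {d : ℝ}
    (h0 : |bb b i j c| ≤ r * β) (h1 : |tt b i j c - d| ≤ r * β ^ 5) : Cmp {i, j} c d r (β ^ 6) := by
  have hr := h.r0
  have h2 := h.two_le 5 (by norm_num)
  have k := Cmp.two hij h.b1 hr.le h2 (d := d) (rel := c)
    (by
      have e := h.rb (i := 1) (j := 5) (by norm_num)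
      rw [pow_one] at e
      exact h0.trans e)
    (by rw [mul_comm (β ^ 5) r]; exact h1)
  refine k.mono hr.le ?_ (by positivity) ⟨i, mem_insert_self _ _⟩
  have := h.pw8 5 6 (by norm_num)
  have := pow_nonneg h.β0 5
  linarith

/-- one slot -/
theorem cmp1 (h : SlU S p ρ r β u b a w c) {i : Fin 12} {d : ℝ}
    (h1 : |c i - d| ≤ r * β ^ 6) : Cmp {i} c d r (β ^ 6) := by
  have hr := h.r0
  have h2 := h.two_le 6 (by norm_num)
  exact Cmp.one hr.le (by linarith) (by rw [mul_comm]; exact h1)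

/-- time `{5, 6}` -/
theorem x56 (h : SlU S p ρ r β u b a w c) : Cmp {5, 6} c (tt b 5 6 w - tt b 5 6 a) r (β ^ 6) := by
  refine h.cmp2 (by decide) h.t5 ((h.tt_sub h.d5 h.d6).trans ?_)
  have hr := h.r0
  have h1 := h.pw8 1 2 (by norm_num)
  have h2 := h.pw (i := 2) (j := 5) (by norm_num)
  have := h.β0
  rw [pow_one] at h1
  nlinarith [mul_le_mul_of_nonneg_left (h1.trans h2) hr.le, mul_nonneg hr.le h.β0]

/-- time `{3, 4}` -/
theorem x34 (h : SlU S p ρ r β u b a w c) : Cmp {3, 4} c (tt b 3 4 w - tt b 3 4 a) r (β ^ 6) := by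
  refine h.cmp2 (by decide) h.t3 ((h.tt_sub h.d3 h.d4).trans ?_)
  have hr := h.r0
  have h1 := h.pw8 1 2 (by norm_num)
  have h2 := h.pw (i := 2) (j := 5) (by norm_num)
  have := h.β0
  rw [pow_one] at h1
  nlinarith [mul_le_mul_of_nonneg_left (h1.trans h2) hr.le, mul_nonneg hr.le h.β0]

/-- time `{9}`, products absorbed -/
theorem x9' (h : SlU S p ρ r β u b a w c) (hρ : 0 < ρ) (hρ1 : ρ ≤ 1) (hr : r = ρ ^ y)
    (A1 : Ab1 S p y r u 3 5 9) (A2 : Ab1 S p y r u 4 6 9) :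
    |c 9 - (w 9 - a 9)| ≤ r * β ^ 3 := by
  have k1 := h.ab2 hρ hρ1 hr A1 h.sd.w9
  have k2 := h.ab2 hρ hρ1 hr A2 h.sd.w9'
  have g := h.d9
  have hβ := h.β8
  have hr0 := h.r0
  have f1 : r * β ≤ r * β ^ 2 := by
    have : 0 ≤ r * β := by positivity
    nlinarith
  have f2 : 3 * (r * β ^ 2) ≤ r * β ^ 3 := by
    have : 0 ≤ r * β ^ 2 := by positivity
    nlinarith
  rw [abs_le] at g k1 k2 ⊢
  constructor <;> linarith [g.1, g.2, k1.1, k1.2, k2.1, k2.2]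

/-- **(H1)**, one slice: lines `{3,4} | 9`, time `{5,6}`, wall `9 = 3 + 5` -/
theorem key_h1 (h : SlU S p ρ r β u b a w c) (t : u 3 * u 5 = u 9) :
    |tt b 3 4 a| ≤ β ^ 6 ∧ |tt b 5 6 a| ≤ β ^ 6 ∧
    Cmp {3, 4} c (tt b 3 4 w - tt b 3 4 a) r (β ^ 6) ∧
    Cmp {5, 6} c (tt b 5 6 w - tt b 5 6 a) r (β ^ 6) ∧
    Cmp {9} c ((w 9 - a 9) - tt b 3 4 a * (tt b 5 6 w - tt b 5 6 a)) r (β ^ 6) := by
  refine ⟨h.tt6 3 4, h.tt6 5 6, h.x34, h.x56, h.cmp1 ?_⟩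
  have u9 := (h.sd.pos 9).ne'
  have g := h.d9
  rw [h.u4, h.u6, t, div_self u9, one_mul, one_mul] at g
  have k := h.pair 3 4 5 6 h.t5 (h.tt_sub h.d5 h.d6)
  have hβ := h.β8
  have hr0 := h.r0
  have f1 : r * β ≤ r * β ^ 3 := by
    have := h.pw (i := 1) (j := 3) (by norm_num)
    rw [pow_one] at this
    exact mul_le_mul_of_nonneg_left this hr0.le
  have f2 : 2 * (r * β ^ 3) ≤ r * β ^ 6 := by
    have e1 := h.pw8 3 4 (by norm_num)
    have e2 := h.pw (i := 4) (j := 6) (by norm_num)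
    have e3 := mul_le_mul_of_nonneg_left (e1.trans e2) hr0.le
    have : 0 ≤ r * β ^ 3 := by positivity
    linarith
  rw [abs_le] at g k ⊢
  constructor <;> linarith [g.1, g.2, k.1, k.2]

/-- **S1**, one slice: lines `{7,8} | 11`, time `{5,6}`, wall `11 = 7 + 5` -/
theorem key_s1 (h : SlU S p ρ r β u b a w c) (hρ : 0 < ρ) (hρ1 : ρ ≤ 1) (hr : r = ρ ^ y)
    (h7 : (7 : Fin 12) ∉ S) (h8 : (8 : Fin 12) ∉ S) (t : u 7 * u 5 = u 11)
    (A1 : Ab1 S p y r u 1 5 7) (A2 : Ab1 S p y r u 1 6 8) (A3 : Ab1 S p y r u 2 3 7)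
    (A4 : Ab1 S p y r u 2 4 8) (A5 : Ab1 S p y r u 2 9 11) :
    |-tt b 7 8 a| ≤ β ^ 6 ∧ |tt b 5 6 a| ≤ β ^ 6 ∧
    Cmp {7, 8} c (-tt b 7 8 w - -tt b 7 8 a) r (β ^ 6) ∧
    Cmp {5, 6} c (tt b 5 6 w - tt b 5 6 a) r (β ^ 6) ∧
    Cmp {11} c ((w 11 - a 11) - -tt b 7 8 a * (tt b 5 6 w - tt b 5 6 a)) r (β ^ 6) := by
  have hβ := h.β8
  have hr0 := h.r0
  refine ⟨by rw [abs_neg]; exact h.tt6 7 8, h.tt6 5 6, ?_, h.x56, h.cmp1 ?_⟩
  · have k := h.cmp2 (by decide) h.t7 ((h.d78 hρ hρ1 hr h7 h8 A1 A2 A3 A4).trans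
      (mul_le_mul_of_nonneg_left (h.pw (by norm_num : 3 ≤ 5)) hr0.le))
    refine k.neg.congr ?_
    ring
  · have u11 := (h.sd.pos 11).ne'
    have k1 := h.ab2 hρ hρ1 hr A5 h.sd.w11c
    have w1 : u 7 * u 5 ≤ u 11 := t.le
    have w2 : u 8 * u 6 ≤ u 11 := by rw [h.u8, h.u6]; exact t.le
    have k2 := h.ab3 (k := 5) hρ hρ1 hr A1 h.sd.w7' w1
    have k3 := h.ab3 (k := 6) hρ hρ1 hr A2 h.sd.w8' w2
    have g := h.d11
    rw [show u 8 * u 6 = u 11 by rw [h.u8, h.u6]; exact t, t, div_self u11, one_mul, one_mul] at g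
    have k := h.pair 7 8 5 6 h.t5 (h.tt_sub h.d5 h.d6)
    have f1 : r * β ≤ r * β ^ 3 := by
      have := h.pw (i := 1) (j := 3) (by norm_num)
      rw [pow_one] at this
      exact mul_le_mul_of_nonneg_left this hr0.le
    have f1' : r * β ^ 2 ≤ r * β ^ 3 :=
      mul_le_mul_of_nonneg_left (h.pw (by norm_num : 2 ≤ 3)) hr0.le
    have f2 : 8 * (r * β ^ 3) ≤ r * β ^ 6 := by
      have e1 := h.pw8 3 4 (by norm_num)
      have e2 := h.pw (i := 4) (j := 6) (by norm_num)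
      have e3 := mul_le_mul_of_nonneg_left (e1.trans e2) hr0.le
      linarith
    have f3 : 0 ≤ r * β ^ 3 := by positivity
    rw [abs_le] at g k k1 k2 k3 ⊢
    constructor <;>
      linarith [g.1, g.2, k.1, k.2, k1.1, k1.2, k2.1, k2.2, k3.1, k3.2]

/-- **S2**, one slice: lines `2 | 11`, time `9`, wall `11 = 2 + 9` -/
theorem key_s2 (h : SlU S p ρ r β u b a w c) (hρ : 0 < ρ) (hρ1 : ρ ≤ 1) (hr : r = ρ ^ y)
    (t : u 2 * u 9 = u 11)
    (A1 : Ab1 S p y r u 1 5 7) (A2 : Ab1 S p y r u 1 6 8) (A3 : Ab1 S p y r u 3 5 9)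
    (A4 : Ab1 S p y r u 4 6 9) (A5 : Ab1 S p y r u 7 5 11) (A6 : Ab1 S p y r u 8 6 11) :
    |-a 2| ≤ β ^ 6 ∧ |a 9| ≤ β ^ 6 ∧
    Cmp {2} c (-w 2 - -a 2) r (β ^ 6) ∧
    Cmp {9} c (w 9 - a 9) r (β ^ 6) ∧
    Cmp {11} c ((w 11 - a 11) - -a 2 * (w 9 - a 9)) r (β ^ 6) := by
  have hβ := h.β8
  have hr0 := h.r0
  have x9 := h.x9' hρ hρ1 hr A3 A4
  have q36 : r * β ^ 3 ≤ r * β ^ 6 :=
    mul_le_mul_of_nonneg_left (h.pw (by norm_num : 3 ≤ 6)) hr0.le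
  refine ⟨by rw [abs_neg]; exact h.a6 2, h.a6 9, ?_, h.cmp1 (x9.trans q36), h.cmp1 ?_⟩
  · have k := h.cmp1 (i := 2) (h.d2.trans (by
      have := h.pw (i := 1) (j := 6) (by norm_num)
      rw [pow_one] at this
      exact mul_le_mul_of_nonneg_left this hr0.le))
    refine k.neg.congr ?_
    ring
  · have u11 := (h.sd.pos 11).ne'
    have w1 : u 7 * u 5 ≤ u 11 := by have := h.sd.w11a; rwa [mul_comm] at this
    have w2 : u 8 * u 6 ≤ u 11 := by have := h.sd.w11b; rwa [mul_comm] at this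
    have k1 := h.ab2 hρ hρ1 hr A5 w1
    have k1' := h.ab2 hρ hρ1 hr A6 w2
    have k2 := h.ab3 (k := 5) hρ hρ1 hr A1 h.sd.w7' w1
    have k3 := h.ab3 (k := 6) hρ hρ1 hr A2 h.sd.w8' w2
    have g := h.d11
    rw [t, div_self u11, one_mul] at g
    have k : |a 2 * c 9 - a 2 * (w 9 - a 9)| ≤ r * β ^ 4 := by
      rw [← mul_sub, abs_mul]
      have := mul_le_mul (h.a1 2) x9 (abs_nonneg _) h.β0
      calc |a 2| * |c 9 - (w 9 - a 9)| ≤ β * (r * β ^ 3) := this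
        _ = r * β ^ 4 := by ring
    have f1 : r * β ≤ r * β ^ 4 := by
      have := h.pw (i := 1) (j := 4) (by norm_num)
      rw [pow_one] at this
      exact mul_le_mul_of_nonneg_left this hr0.le
    have f1' : r * β ^ 2 ≤ r * β ^ 4 :=
      mul_le_mul_of_nonneg_left (h.pw (by norm_num : 2 ≤ 4)) hr0.le
    have f1'' : r * β ^ 3 ≤ r * β ^ 4 :=
      mul_le_mul_of_nonneg_left (h.pw (by norm_num : 3 ≤ 4)) hr0.le
    have f2 : 8 * (r * β ^ 4) ≤ r * β ^ 6 := by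
      have e1 := h.pw8 4 5 (by norm_num)
      have e2 := h.pw (i := 5) (j := 6) (by norm_num)
      have e3 := mul_le_mul_of_nonneg_left (e1.trans e2) hr0.le
      linarith
    have f3 : 0 ≤ r * β ^ 4 := by positivity
    rw [abs_le] at g k k1 k1' k2 k3 ⊢
    constructor <;>
      linarith [g.1, g.2, k.1, k.2, k1.1, k1.2, k1'.1, k1'.2, k2.1, k2.2, k3.1, k3.2]

/-- **S3**, one slice: lines `1 | 10`, time `9`, wall `10 = 1 + 9` -/
theorem key_s3 (h : SlU S p ρ r β u b a w c) (hρ : 0 < ρ) (hρ1 : ρ ≤ 1) (hr : r = ρ ^ y)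
    (t : u 1 * u 9 = u 10)
    (A1 : Ab1 S p y r u 1 5 7) (A2 : Ab1 S p y r u 1 6 8) (A3 : Ab1 S p y r u 3 5 9)
    (A4 : Ab1 S p y r u 4 6 9) (A5 : Ab1 S p y r u 7 3 10) (A6 : Ab1 S p y r u 8 4 10)
    (A7 : Ab1 S p y r u 2 3 7) (A8 : Ab1 S p y r u 2 4 8) :
    |2 * a 1| ≤ β ^ 6 ∧ |a 9| ≤ β ^ 6 ∧
    Cmp {1} c (2 * w 1 - 2 * a 1) r (β ^ 6) ∧
    Cmp {9} c (w 9 - a 9) r (β ^ 6) ∧
    Cmp {10} c ((w 10 - a 10) - 2 * a 1 * (w 9 - a 9)) r (β ^ 6) := by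
  have hβ := h.β8
  have hr0 := h.r0
  have x9 := h.x9' hρ hρ1 hr A3 A4
  have q36 : r * β ^ 3 ≤ r * β ^ 6 :=
    mul_le_mul_of_nonneg_left (h.pw (by norm_num : 3 ≤ 6)) hr0.le
  have b5 := h.pw8 5 6 (by norm_num)
  have p5 := pow_nonneg h.β0 5
  refine ⟨?_, h.a6 9, ?_, h.cmp1 (x9.trans q36), h.cmp1 ?_⟩
  · rw [abs_mul]
    have e1 := h.a1 1
    have e2 := h.pw8 1 2 (by norm_num)
    have e3 := h.pw (i := 2) (j := 6) (by norm_num)
    rw [pow_one] at e2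
    norm_num
    linarith
  · have k : Cmp {1} c (w 1 - a 1) r (β ^ 5) := by
      refine Cmp.one hr0.le (by linarith [h.two_le 5 (by norm_num)]) (h.d1.trans ?_)
      have e := h.rb (i := 1) (j := 5) (by norm_num)
      rwa [pow_one] at e
    have k2 := (k.two_mul hr0.le p5 ⟨1, mem_singleton_self _⟩).mono hr0.le
      (β' := β ^ 6) (by linarith) (by positivity) ⟨1, mem_singleton_self _⟩
    refine k2.congr ?_
    ring
  · have u11 := (h.sd.pos 10).ne'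
    have w1 : u 7 * u 3 ≤ u 10 := by have := h.sd.w10; rwa [mul_comm] at this
    have w2 : u 8 * u 4 ≤ u 10 := by have := h.sd.w10'; rwa [mul_comm] at this
    have k1 := h.ab2 hρ hρ1 hr A5 w1
    have k1' := h.ab2 hρ hρ1 hr A6 w2
    have k2 := h.ab3 (k := 3) hρ hρ1 hr A1 h.sd.w7' w1
    have k3 := h.ab3 (k := 4) hρ hρ1 hr A2 h.sd.w8' w2
    have k4 := h.ab3 (k := 3) hρ hρ1 hr A7 h.sd.w7 w1
    have k5 := h.ab3 (k := 4) hρ hρ1 hr A8 h.sd.w8 w2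
    have g := h.d10
    rw [t, div_self u11, one_mul] at g
    have k : |a 1 * c 9 - a 1 * (w 9 - a 9)| ≤ r * β ^ 4 := by
      rw [← mul_sub, abs_mul]
      have := mul_le_mul (h.a1 1) x9 (abs_nonneg _) h.β0
      calc |a 1| * |c 9 - (w 9 - a 9)| ≤ β * (r * β ^ 3) := this
        _ = r * β ^ 4 := by ring
    have f1 : r * β ≤ r * β ^ 4 := by
      have := h.pw (i := 1) (j := 4) (by norm_num)
      rw [pow_one] at this
      exact mul_le_mul_of_nonneg_left this hr0.le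
    have f1' : r * β ^ 2 ≤ r * β ^ 4 :=
      mul_le_mul_of_nonneg_left (h.pw (by norm_num : 2 ≤ 4)) hr0.le
    have f1'' : r * β ^ 3 ≤ r * β ^ 4 :=
      mul_le_mul_of_nonneg_left (h.pw (by norm_num : 3 ≤ 4)) hr0.le
    have f2 : 64 * (r * β ^ 4) ≤ r * β ^ 6 := by
      have e1 := h.pw8 4 5 (by norm_num)
      have e2 := h.pw8 5 6 (by norm_num)
      have e3 := mul_le_mul_of_nonneg_left ((mul_le_mul_of_nonneg_left e1
        (by norm_num : (0:ℝ) ≤ 8)).trans e2) hr0.le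
      linarith
    have f3 : 0 ≤ r * β ^ 4 := by positivity
    rw [abs_le] at g k k1 k1' k2 k3 k4 k5 ⊢
    constructor <;>
      linarith [g.1, g.2, k.1, k.2, k1.1, k1.2, k1'.1, k1'.2, k2.1, k2.2, k3.1, k3.2, k4.1, k4.2,
        k5.1, k5.2]

/-- **TB**, one slice: lines `1 | {7,8}`, time `{5,6}`, wall `7 = 1 + 5` -/
theorem key_tb (h : SlU S p ρ r β u b a w c) (hρ : 0 < ρ) (hρ1 : ρ ≤ 1) (hr : r = ρ ^ y)
    (h7 : (7 : Fin 12) ∉ S) (h8 : (8 : Fin 12) ∉ S) (t : u 1 * u 5 = u 7)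
    (A3 : Ab1 S p y r u 2 3 7) (A4 : Ab1 S p y r u 2 4 8) :
    |2 * a 1| ≤ β ^ 6 ∧ |tt b 5 6 a| ≤ β ^ 6 ∧
    Cmp {1} c (2 * w 1 - 2 * a 1) r (β ^ 6) ∧
    Cmp {5, 6} c (tt b 5 6 w - tt b 5 6 a) r (β ^ 6) ∧
    Cmp {7, 8} c ((tt b 7 8 w - tt b 7 8 a) - 2 * a 1 * (tt b 5 6 w - tt b 5 6 a)) r
      (β ^ 6) := by
  have hβ := h.β8
  have hr0 := h.r0
  have b5 := h.pw8 5 6 (by norm_num)
  have p5 := pow_nonneg h.β0 5
  refine ⟨?_, h.tt6 5 6, ?_, h.x56, h.cmp2 (by decide) h.t7 ?_⟩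
  · rw [abs_mul]
    have e1 := h.a1 1
    have e2 := h.pw8 1 2 (by norm_num)
    have e3 := h.pw (i := 2) (j := 6) (by norm_num)
    rw [pow_one] at e2
    norm_num
    linarith
  · have k : Cmp {1} c (w 1 - a 1) r (β ^ 5) := by
      refine Cmp.one hr0.le (by linarith [h.two_le 5 (by norm_num)]) (h.d1.trans ?_)
      have e := h.rb (i := 1) (j := 5) (by norm_num)
      rwa [pow_one] at e
    have k2 := (k.two_mul hr0.le p5 ⟨1, mem_singleton_self _⟩).mono hr0.le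
      (β' := β ^ 6) (by linarith) (by positivity) ⟨1, mem_singleton_self _⟩
    refine k2.congr ?_
    ring
  · have u7 := (h.sd.pos 7).ne'
    have u8 := (h.sd.pos 8).ne'
    have k1 := h.ab2 hρ hρ1 hr A3 h.sd.w7
    have k2 := h.ab2 hρ hρ1 hr A4 h.sd.w8
    have g1 := h.d7 h7
    have g2 := h.d8 h8
    rw [t, div_self u7, one_mul] at g1
    rw [show u 1 * u 6 = u 8 by rw [h.u8, h.u6]; exact t, div_self u8, one_mul] at g2
    have f1 : r * β ≤ r * β ^ 2 := by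
      have : 0 ≤ r * β := by positivity
      nlinarith
    have m1 : |c 7 - (w 7 - a 7 - 2 * (a 1 * c 5))| ≤ 2 * (r * β ^ 2) := by
      rw [abs_le] at g1 k1 ⊢
      constructor <;> linarith [g1.1, g1.2, k1.1, k1.2]
    have m2 : |c 8 - (w 8 - a 8 - 2 * (a 1 * c 6))| ≤ 2 * (r * β ^ 2) := by
      rw [abs_le] at g2 k2 ⊢
      constructor <;> linarith [g2.1, g2.2, k2.1, k2.2]
    have e : tt b 7 8 c - ((tt b 7 8 w - tt b 7 8 a) -
        2 * a 1 * (tt b 5 6 w - tt b 5 6 a)) =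
        (-b 1 * (c 7 - (w 7 - a 7 - 2 * (a 1 * c 5))) +
          b 0 * (c 8 - (w 8 - a 8 - 2 * (a 1 * c 6)))) -
        2 * a 1 * (tt b 5 6 c - (tt b 5 6 w - tt b 5 6 a)) := by
      unfold tt; ring
    have q1 : |-b 1 * (c 7 - (w 7 - a 7 - 2 * (a 1 * c 5))) +
        b 0 * (c 8 - (w 8 - a 8 - 2 * (a 1 * c 6)))| ≤ 4 * (r * β ^ 2) := by
      refine (abs_add_le _ _).trans ?_
      rw [abs_mul, abs_mul, abs_neg]
      have := mul_le_mul h.b1' m1 (abs_nonneg _) zero_le_one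
      have := mul_le_mul h.b0 m2 (abs_nonneg _) zero_le_one
      linarith
    have q2 : |2 * a 1 * (tt b 5 6 c - (tt b 5 6 w - tt b 5 6 a))| ≤ 4 * (r * β ^ 2) := by
      rw [abs_mul, abs_mul, abs_two]
      have := mul_le_mul (h.a1 1) (h.tt_sub h.d5 h.d6) (abs_nonneg _) h.β0
      calc 2 * |a 1| * |tt b 5 6 c - (tt b 5 6 w - tt b 5 6 a)|
          = 2 * (|a 1| * |tt b 5 6 c - (tt b 5 6 w - tt b 5 6 a)|) := by ring
        _ ≤ 2 * (β * (2 * (r * β))) := by linarith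
        _ = 4 * (r * β ^ 2) := by ring
    have f2 : 8 * (r * β ^ 2) ≤ r * β ^ 5 := by
      have e1 := h.pw8 2 3 (by norm_num)
      have e2 := h.pw (i := 3) (j := 5) (by norm_num)
      have e3 := mul_le_mul_of_nonneg_left (e1.trans e2) hr0.le
      linarith
    rw [e]
    refine (abs_sub _ _).trans ?_
    linarith

/-- **RM**, one slice: lines `{7,8} | 10`, time `{3,4}`, wall `10 = 7 + 3` -/
theorem key_rm (h : SlU S p ρ r β u b a w c) (hρ : 0 < ρ) (hρ1 : ρ ≤ 1) (hr : r = ρ ^ y)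
    (h7 : (7 : Fin 12) ∉ S) (h8 : (8 : Fin 12) ∉ S) (t : u 7 * u 3 = u 10)
    (A1 : Ab1 S p y r u 1 5 7) (A2 : Ab1 S p y r u 1 6 8) (A3 : Ab1 S p y r u 2 3 7)
    (A4 : Ab1 S p y r u 2 4 8) (A5 : Ab1 S p y r u 1 9 10) :
    |-tt b 7 8 a| ≤ β ^ 6 ∧ |tt b 3 4 a| ≤ β ^ 6 ∧
    Cmp {7, 8} c (-tt b 7 8 w - -tt b 7 8 a) r (β ^ 6) ∧
    Cmp {3, 4} c (tt b 3 4 w - tt b 3 4 a) r (β ^ 6) ∧
    Cmp {10} c ((w 10 - a 10) - -tt b 7 8 a * (tt b 3 4 w - tt b 3 4 a)) r (β ^ 6) := by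
  have hβ := h.β8
  have hr0 := h.r0
  refine ⟨by rw [abs_neg]; exact h.tt6 7 8, h.tt6 3 4, ?_, h.x34, h.cmp1 ?_⟩
  · have k := h.cmp2 (by decide) h.t7 ((h.d78 hρ hρ1 hr h7 h8 A1 A2 A3 A4).trans
      (mul_le_mul_of_nonneg_left (h.pw (by norm_num : 3 ≤ 5)) hr0.le))
    refine k.neg.congr ?_
    ring
  · have u11 := (h.sd.pos 10).ne'
    have w1 : u 7 * u 3 ≤ u 10 := t.le
    have w2 : u 8 * u 4 ≤ u 10 := by rw [h.u8, h.u4]; exact t.le
    have k1 := h.ab2 hρ hρ1 hr A5 h.sd.w10''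
    have k2 := h.ab3 (k := 3) hρ hρ1 hr A1 h.sd.w7' w1
    have k3 := h.ab3 (k := 4) hρ hρ1 hr A2 h.sd.w8' w2
    have k4 := h.ab3 (k := 3) hρ hρ1 hr A3 h.sd.w7 w1
    have k5 := h.ab3 (k := 4) hρ hρ1 hr A4 h.sd.w8 w2
    have g := h.d10
    rw [show u 8 * u 4 = u 10 by rw [h.u8, h.u4]; exact t, t, div_self u11, one_mul, one_mul] at g
    have k := h.pair 7 8 3 4 h.t3 (h.tt_sub h.d3 h.d4)
    have f1 : r * β ≤ r * β ^ 3 := by
      have := h.pw (i := 1) (j := 3) (by norm_num)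
      rw [pow_one] at this
      exact mul_le_mul_of_nonneg_left this hr0.le
    have f1' : r * β ^ 2 ≤ r * β ^ 3 :=
      mul_le_mul_of_nonneg_left (h.pw (by norm_num : 2 ≤ 3)) hr0.le
    have f2 : 64 * (r * β ^ 3) ≤ r * β ^ 6 := by
      have e1 := h.pw8 3 4 (by norm_num)
      have e2 := h.pw8 4 5 (by norm_num)
      have e4 := h.pw (i := 5) (j := 6) (by norm_num)
      have e3 := mul_le_mul_of_nonneg_left ((mul_le_mul_of_nonneg_left e1
        (by norm_num : (0:ℝ) ≤ 8)).trans (e2.trans e4)) hr0.le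
      linarith
    have f3 : 0 ≤ r * β ^ 3 := by positivity
    rw [abs_le] at g k k1 k2 k3 k4 k5 ⊢
    constructor <;>
      linarith [g.1, g.2, k.1, k.2, k1.1, k1.2, k2.1, k2.2, k3.1, k3.2, k4.1, k4.2, k5.1, k5.2]

end SlU

end Crest.Agent.R116.Kr710
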