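import Crest.Agent.R136.Gf3_356
import Crest.Agent.R138.Fal6_658

/-!
# R116, K side: Falconer on one fibre, chart free (helper710)

Twin of `kauf_ex`, `kauf_G`, `kauf_rate` (R136/Gf1-3_356), with the hypotheses verbatim.
`falc_abs` finite form, `falc_ex` exponent form, `falc_G` in a `GUnif`, `falc_rate` rate form:
a direction fan of dimension `> 1 - τ` makes the positions full.
-/

set_option autoImplicit false
set_option linter.unusedVariables false
set_option linter.unusedSectionVars false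

open Filter Topology Finset

namespace Crest.Agent.R116.Kr710

open Crest.Agent.R138.Ex926 (Base U)
open Crest.Agent.R138.Fal658 Crest.Agent.R136.Gf356

/-- **Falconer, finite form.** -/
theorem falc_abs {ι : Type*} [DecidableEq ι] (S : Finset ι) (Z : Finset ℕ) (φ : ℕ → ℝ)
    (al : ι → ℕ → Prop) [∀ i, DecidablePred (al i)] (F : ι → ℕ → ℝ) (A V : ι → ℝ)
    (r K lam E : ℝ) (hr : 0 < r) (hr1 : r ≤ 1) (hK : 0 ≤ K) (hlam : 0 ≤ lam) (hE : 0 ≤ E)
    (hSn : S.Nonempty) (hZn : Z.Nonempty) (hφ : ∀ k ∈ Z, |φ k| ≤ 2)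
    (hF : ∀ k ∈ Z, ∀ i ∈ S, ∀ i' ∈ S,
      |F i k - F i' k - ((A i - A i') + φ k * (V i - V i'))| ≤ r)
    (hcell : ∀ k ∈ Z,
      (((S.filter fun i => al i k).image fun i => ⌊F i k / r⌋).card : ℝ) ≤ K)
    (hal : lam * ((S.card : ℝ) * Z.card) ≤ ∑ i ∈ S, ((Z.filter fun k => al i k).card : ℝ))
    (hV0 : ∀ i ∈ S, ∀ i' ∈ S, |V i - V i'| ≤ 1)
    (hm : ∀ t, r ≤ t → t ≤ 1 → ∀ i ∈ S, ∀ k ∈ Z,
      ((S.filter fun i' => |V i' - V i| ≤ t ∧ |A i' - A i| ≤ 2 * t).card : ℝ) *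
        ((Z.filter fun k' => |φ k' - φ k| ≤ 2 * t).card : ℝ) ≤ E * t ^ 2) :
    lam ^ 2 * (S.card : ℝ) * (Z.card : ℝ) ≤ K * (4 * CF * r * (1 + Real.log (1 / r)) * E) := by
  classical
  obtain ⟨i0, hi0⟩ := hSn
  set Sk : ℕ → Finset ι := fun k => S.filter fun i => al i k with hSk
  have hS0 : 0 < (S.card : ℝ) := by exact_mod_cast Finset.card_pos.2 ⟨i0, hi0⟩
  have hZ0 : 0 < (Z.card : ℝ) := by exact_mod_cast hZn.card_pos
  have e1 : ∑ i ∈ S, ((Z.filter fun k => al i k).card : ℝ) = ∑ k ∈ Z, ((Sk k).card : ℝ) := by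
    have : ∑ i ∈ S, (Z.filter fun k => al i k).card = ∑ k ∈ Z, (Sk k).card := by
      simp only [hSk, Finset.card_filter]
      exact Finset.sum_comm
    exact_mod_cast this
  have e2 : (∑ k ∈ Z, ((Sk k).card : ℝ)) ^ 2 ≤ (Z.card : ℝ) * ∑ k ∈ Z, ((Sk k).card : ℝ) ^ 2 :=
    sq_sum_le_card_mul_sum_sq
  have key := falconer_sup S (fun _ => (1 : ℝ)) (fun i => A i / 2) (fun i => V i - V i0) Z
    (fun _ => (1 : ℝ)) (fun k => φ k / 2) r E hr hr1 hE (fun _ _ => zero_le_one)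
    (fun _ _ => zero_le_one) (fun i hi => hV0 i hi i0 hi0)
    (fun k hk => by
      have := hφ k hk
      rw [abs_div, abs_of_pos (show (0:ℝ) < 2 by norm_num)]
      linarith)
    (by
      intro t ht1 ht2 i hi k hk
      refine le_trans (le_of_eq ?_) (hm t ht1 ht2 i hi k hk)
      unfold mB mI
      rw [Finset.sum_const, nsmul_eq_mul, mul_one, Finset.sum_const, nsmul_eq_mul, mul_one]
      congr 3
      · refine Finset.filter_congr fun j _ => ?_
        have a1 : |A j / 2 - A i / 2| ≤ t ↔ |A j - A i| ≤ 2 * t := by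
          rw [← sub_div, abs_div, abs_of_pos (show (0:ℝ) < 2 by norm_num), div_le_iff₀ (by norm_num)]
          rw [mul_comm t 2]
        have a2 : V j - V i0 - (V i - V i0) = V j - V i := by ring
        rw [a1, a2]
        tauto
      · refine Finset.filter_congr fun j _ => ?_
        rw [← sub_div, abs_div, abs_of_pos (show (0:ℝ) < 2 by norm_num), div_le_iff₀ (by norm_num)]
        rw [mul_comm t 2])
  have e3 : ∑ k ∈ Z, ((Sk k).card : ℝ) ^ 2 ≤
      K * ∑ k ∈ Z, (1 : ℝ) * ∑ i ∈ S, ∑ j ∈ S with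
        |(A i / 2 - A j / 2) + φ k / 2 * ((V i - V i0) - (V j - V i0))| ≤ r, (1 : ℝ) * 1 := by
    rw [Finset.mul_sum]
    refine Finset.sum_le_sum fun k hk => ?_
    have h1 := sq_le_card_mul_energy S (Sk k) (Finset.filter_subset _ _) (fun _ => (1 : ℝ))
      (fun _ _ => zero_le_one) (fun i => A i / 2 + φ k / 2 * (V i - V i0)) r
      (fun i => ⌊F i k / r⌋) (by
        intro i hi j hj hij
        have a1 := Int.abs_sub_lt_one_of_floor_eq_floor hij
        rw [← sub_div, abs_div, abs_of_pos hr, div_lt_one hr] at a1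
        have a2 := hF k hk i (Finset.mem_filter.1 hi).1 j (Finset.mem_filter.1 hj).1
        have a3 : |(A i - A j) + φ k * (V i - V j)| ≤ 2 * r := by
          have e : (A i - A j) + φ k * (V i - V j) = (F i k - F j k) -
              (F i k - F j k - ((A i - A j) + φ k * (V i - V j))) := by ring
          rw [e]
          refine (abs_sub _ _).trans ?_
          linarith
        have e : A i / 2 + φ k / 2 * (V i - V i0) - (A j / 2 + φ k / 2 * (V j - V i0)) =
            ((A i - A j) + φ k * (V i - V j)) / 2 := by ring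
        rw [e, abs_div, abs_of_pos (show (0:ℝ) < 2 by norm_num)]
        linarith)
    rw [Finset.sum_const, nsmul_eq_mul, mul_one] at h1
    refine h1.trans ?_
    have h2 : ∑ i ∈ S, ∑ j ∈ S with
        |(A i / 2 + φ k / 2 * (V i - V i0)) - (A j / 2 + φ k / 2 * (V j - V i0))| ≤ r, (1 : ℝ) * 1 =
        ∑ i ∈ S, ∑ j ∈ S with
        |(A i / 2 - A j / 2) + φ k / 2 * ((V i - V i0) - (V j - V i0))| ≤ r, (1 : ℝ) * 1 := by
      refine Finset.sum_congr rfl fun i _ => ?_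
      refine Finset.sum_congr ?_ fun _ _ => rfl
      refine Finset.filter_congr fun j _ => ?_
      rw [show (A i / 2 + φ k / 2 * (V i - V i0)) - (A j / 2 + φ k / 2 * (V j - V i0)) =
        (A i / 2 - A j / 2) + φ k / 2 * ((V i - V i0) - (V j - V i0)) by ring]
    have h3 : 0 ≤ ∑ i ∈ S, ∑ j ∈ S with
        |(A i / 2 - A j / 2) + φ k / 2 * ((V i - V i0) - (V j - V i0))| ≤ r, (1 : ℝ) * 1 :=
      Finset.sum_nonneg fun i _ => Finset.sum_nonneg fun j _ => by norm_num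
    rw [h2]
    refine le_trans (mul_le_mul_of_nonneg_right (hcell k hk) h3) (le_of_eq ?_)
    ring
  have e4 : K * ∑ k ∈ Z, (1 : ℝ) * ∑ i ∈ S, ∑ j ∈ S with
        |(A i / 2 - A j / 2) + φ k / 2 * ((V i - V i0) - (V j - V i0))| ≤ r, (1 : ℝ) * 1 ≤
      K * (4 * CF * r * (1 + Real.log (1 / r)) * (S.card : ℝ) * E) := by
    refine mul_le_mul_of_nonneg_left ?_ hK
    refine key.trans (le_of_eq ?_)
    rw [Finset.sum_const, nsmul_eq_mul, mul_one]
  have h1 : (lam * ((S.card : ℝ) * Z.card)) ^ 2 ≤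
      (Z.card : ℝ) * (K * (4 * CF * r * (1 + Real.log (1 / r)) * (S.card : ℝ) * E)) := by
    refine (pow_le_pow_left₀ (by positivity) (hal.trans (le_of_eq e1)) 2).trans (e2.trans ?_)
    exact mul_le_mul_of_nonneg_left (e3.trans e4) hZ0.le
  have h2 : ((S.card : ℝ) * Z.card) * (lam ^ 2 * (S.card : ℝ) * (Z.card : ℝ)) ≤
      ((S.card : ℝ) * Z.card) * (K * (4 * CF * r * (1 + Real.log (1 / r)) * E)) := by
    refine le_trans (le_of_eq ?_) (h1.trans (le_of_eq ?_))
    · ring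
    · ring
  exact le_of_mul_le_mul_left h2 (by positivity)

/-- logarithms are absorbed -/
theorem ev_log_le (B : Base) {x t : ℝ} (ht : 0 < t) (C : ℝ) :
    ∀ᶠ n in (U : Filter ℕ), C * (1 + x * B.L n) ≤ B.d n ^ (-t) := by
  have h1 : ∀ᶠ n in (U : Filter ℕ), (|C| * (1 + |x|) + 1) * (1 + B.L n) ≤ B.d n ^ (-t) := by
    have h2 : B.PB (fun n => (|C| * (1 + |x|) + 1) * (1 + B.L n)) :=
      (Base.PB.const (by positivity)).mul Base.Sub.one_add_L.1
    have h3 : B.ex (fun n => (|C| * (1 + |x|) + 1) * (1 + B.L n)) = 0 := by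
      rw [Base.ex_mul (Base.PB.const (by positivity)) Base.Sub.one_add_L.1, Base.ex_const,
        Base.Sub.one_add_L.2]
      ring
    have h4 := Base.ex_lt_iff_dpow h2 (a := t) (by rw [h3]; exact ht)
    filter_upwards [h4] with n hn
    exact hn.le
  filter_upwards [h1] with n hn
  refine le_trans ?_ hn
  have hL := B.L_pos n
  have h2 : C * (1 + x * B.L n) ≤ |C| * |1 + x * B.L n| := by
    rw [← abs_mul]; exact le_abs_self _
  have h3 : |1 + x * B.L n| ≤ 1 + |x| * B.L n := by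
    refine (abs_add_le _ _).trans ?_
    rw [abs_one, abs_mul, abs_of_pos hL]
  have h4 : 1 + |x| * B.L n ≤ (1 + |x|) * (1 + B.L n) := by
    have := abs_nonneg x
    nlinarith
  have h5 : |C| * |1 + x * B.L n| ≤ |C| * ((1 + |x|) * (1 + B.L n)) :=
    mul_le_mul_of_nonneg_left (h3.trans h4) (abs_nonneg _)
  have h6 : (0:ℝ) < 1 + B.L n := by linarith
  nlinarith

/-- **Falconer in exponent form**, chart free.  Same hypotheses as `kauf_ex`.  Conclusion:
`#S / #(close pairs) * (fan) ≤ #cells` at one of the scales. -/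
theorem falc_ex (B : Base) {ι : Type*} [DecidableEq ι] (S : ℕ → Finset ι) (Z : ℕ → Finset ℕ)
    (φ : ℕ → ℕ → ℝ) (al : ℕ → ι → ℕ → Prop) [∀ n i, DecidablePred (al n i)]
    (F : ℕ → ι → ℕ → ℝ) (A V : ℕ → ι → ℝ) {x σ α κ C C0 : ℝ} (hx : 0 < x) (hσ0 : 0 ≤ σ)
    (hσ1 : σ ≤ 1) (hC : 1 ≤ C) {J : ℕ} (hJ : 0 < J) (π : ℕ → ℝ)
    (hZ : ∀ᶠ n in (U : Filter ℕ), (Z n).Nonempty)
    (hφ : ∀ᶠ n in (U : Filter ℕ), ∀ k ∈ Z n, |φ n k| ≤ 2)
    (hF : ∀ ε : ℝ, 0 < ε → ∀ᶠ n in (U : Filter ℕ), ∀ k ∈ Z n, ∀ i ∈ S n, ∀ i' ∈ S n,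
      |F n i k - F n i' k - ((A n i - A n i') + φ n k * (V n i - V n i'))| ≤ B.d n ^ (x - ε))
    (hS : ∀ ε : ℝ, 0 < ε → ∀ᶠ n in (U : Filter ℕ), B.d n ^ (-α + C * ε) ≤ ((S n).card : ℝ))
    (hcell : ∀ ε : ℝ, 0 < ε → ∀ᶠ n in (U : Filter ℕ), ∀ k ∈ Z n,
      ((((S n).filter fun i => al n i k).image fun i => ⌊F n i k / B.d n ^ (x - ε)⌋).card : ℝ)
        ≤ C0 * B.d n ^ (-κ - C * ε))
    (hal : ∀ ε : ℝ, 0 < ε → ∀ᶠ n in (U : Filter ℕ), ∀ i ∈ S n,
      B.d n ^ ε * ((Z n).card : ℝ) ≤ (((Z n).filter fun k => al n i k).card : ℝ))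
    (hV0 : ∀ᶠ n in (U : Filter ℕ), ∀ i ∈ S n, ∀ i' ∈ S n, |V n i - V n i'| ≤ 1)
    (hP : ∀ j ≤ J, ∀ ε : ℝ, 0 < ε → ∀ᶠ n in (U : Filter ℕ), ∀ i ∈ S n,
      (((S n).filter fun i' => |V n i' - V n i| ≤ B.d n ^ sc x J j ∧
        |A n i' - A n i| ≤ B.d n ^ (sc x J j - ε)).card : ℝ) ≤ B.d n ^ (-π j - C * ε))
    (hQ : ∀ y : ℝ, 0 ≤ y → y ≤ x → ∀ ε : ℝ, 0 < ε → ∀ᶠ n in (U : Filter ℕ), ∀ k ∈ Z n,
      (((Z n).filter fun k' => |φ n k' - φ n k| ≤ B.d n ^ y).card : ℝ)
        ≤ B.d n ^ (σ * y - C * ε) * ((Z n).card : ℝ)) :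
    ∃ j ≤ J, α - π j + σ * sc x J j + x - 2 * sc x J (j + 1) ≤ κ := by
  classical
  obtain ⟨j, hj, h⟩ := exists_le_of_ev B J
    (fun j => -κ + x - π j + σ * sc x J j - 2 * sc x J (j + 1)) (-α) (5 * C + 12) (|C0|) (by
    intro ε₀ hε₀
    -- replace `ε₀` by a smaller one
    set ε : ℝ := min ε₀ (x / 2) with hεdef
    have hε : 0 < ε := lt_min hε₀ (by linarith)
    have hεε : ε ≤ ε₀ := min_le_left _ _
    have hεx : ε ≤ x / 2 := min_le_right _ _
    have ev1 : ∀ᶠ n in (U : Filter ℕ), ∀ j ∈ range (J + 1), ∀ i ∈ S n,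
        (((S n).filter fun i' => |V n i' - V n i| ≤ B.d n ^ sc x J j ∧
          |A n i' - A n i| ≤ B.d n ^ (sc x J j - (2 * ε))).card : ℝ)
            ≤ B.d n ^ (-π j - C * (2 * ε)) := by
      rw [Filter.eventually_all_finset]
      intro j hj
      exact hP j (by simpa [Nat.lt_succ_iff] using hj) (2 * ε) (by linarith)
    have ev2 : ∀ᶠ n in (U : Filter ℕ), ∀ j ∈ range (J + 1), ∀ k ∈ Z n,
        (((Z n).filter fun k' =>
          |φ n k' - φ n k| ≤ B.d n ^ max (sc x J j - ε) 0).card : ℝ)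
          ≤ B.d n ^ (σ * max (sc x J j - ε) 0 - C * ε) * ((Z n).card : ℝ) := by
      rw [Filter.eventually_all_finset]
      intro j hj
      have hj' : j ≤ J := by simpa [Nat.lt_succ_iff] using hj
      exact hQ (max (sc x J j - ε) 0) (le_max_right _ _)
        (max_le (by linarith [sc_le hx.le hJ hj']) hx.le) ε hε
    filter_upwards [ev1, ev2, hZ, hφ, hF ε hε, hS ε hε, hcell ε hε, hal ε hε, hV0,
      ev_const_le B hε 8, ev_log_le B (x := x) hε (4 * CF)] with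
      n h1 h2 hZn hφn hFn hSn hcn haln hVn h7 hlog
    have hpow : ∀ t : ℝ, 0 < B.d n ^ t := fun t => rpos B n t
    have hCF := CF_pos
    have hSne : (S n).Nonempty := by
      rw [← Finset.card_pos]
      have : (0 : ℝ) < ((S n).card : ℝ) := lt_of_lt_of_le (hpow _) hSn
      exact_mod_cast this
    have hZ0 : (0 : ℝ) < ((Z n).card : ℝ) := by exact_mod_cast hZn.card_pos
    set r := B.d n ^ (x - ε) with hr
    have hr1 : r ≤ 1 := Real.rpow_le_one (B.pos n).le (B.lt n).le (by linarith)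
    set e : ℕ → ℝ := fun j => -π j - 3 * C * ε + σ * (sc x J j - ε) - 2 * sc x J (j + 1) with he
    set E : ℝ := ((Z n).card : ℝ) * ∑ j ∈ range (J + 1), B.d n ^ e j with hE
    have hsum0 : 0 ≤ ∑ j ∈ range (J + 1), B.d n ^ e j := Finset.sum_nonneg fun j _ => (hpow _).le
    have hE0 : 0 ≤ E := mul_nonneg hZ0.le hsum0
    have key := falc_abs (S n) (Z n) (φ n) (al n) (fun i k => F n i k) (A n) (V n) r
      (|C0| * B.d n ^ (-κ - C * ε)) (B.d n ^ ε) E (hpow _) hr1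
      (mul_nonneg (abs_nonneg _) (hpow _).le) (hpow _).le hE0 hSne hZn hφn hFn
      (by
        intro k hk
        refine (hcn k hk).trans ?_
        exact mul_le_mul_of_nonneg_right (le_abs_self _) (hpow _).le)
      (by
        calc B.d n ^ ε * (((S n).card : ℝ) * (Z n).card)
            = ∑ i ∈ S n, B.d n ^ ε * ((Z n).card : ℝ) := by
              rw [Finset.sum_const, nsmul_eq_mul]; ring
          _ ≤ _ := Finset.sum_le_sum fun i hi => haln i hi)
      hVn
      (by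
        intro t ht1 ht2 i hi k hk
        have ht0 : 0 < t := lt_of_lt_of_le (hpow _) ht1
        have hlρ : Real.log (B.d n) < 0 := Real.log_neg (B.pos n) (B.lt n)
        set u : ℝ := Real.log t / Real.log (B.d n) with hu
        have hru : t = B.d n ^ u := by
          rw [Real.rpow_def_of_pos (B.pos n), hu, mul_div_cancel₀ _ hlρ.ne, Real.exp_log ht0]
        have hu0 : 0 ≤ u := div_nonneg_of_nonpos (Real.log_nonpos ht0.le ht2) hlρ.le
        have hux : u ≤ x - ε := by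
          have h3 := Real.log_le_log (hpow _) ht1
          rw [Real.log_rpow (B.pos n)] at h3
          rw [hu, div_le_iff_of_neg hlρ]
          exact h3
        have hJr : (0 : ℝ) < J := by exact_mod_cast hJ
        set j := ⌊u * J / x⌋₊ with hjdef
        have hj1 : sc x J j ≤ u := by
          have h3 := Nat.floor_le (show 0 ≤ u * J / x by positivity)
          rw [← hjdef, le_div_iff₀ hx] at h3
          unfold sc
          rw [div_le_iff₀ hJr]
          linarith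
        have hj2 : u ≤ sc x J (j + 1) := by
          have h3 := Nat.lt_floor_add_one (u * J / x)
          rw [← hjdef, div_lt_iff₀ hx] at h3
          unfold sc
          rw [le_div_iff₀ hJr]
          push_cast
          linarith
        have hjJ : j ≤ J := by
          have h3 : u * J / x ≤ J := by
            rw [div_le_iff₀ hx]
            nlinarith
          have h4 := Nat.floor_le_floor h3
          simpa [← hjdef] using h4
        have hjr : j ∈ range (J + 1) := Finset.mem_range.2 (by omega)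
        have htj : t ≤ B.d n ^ sc x J j := by rw [hru]; exact rpow_anti B n hj1
        have h2t : 2 * t ≤ B.d n ^ (sc x J j - ε) := by
          have e3 : B.d n ^ (sc x J j - ε) = B.d n ^ sc x J j * B.d n ^ (-ε) := by
            rw [← rpow_add']; congr 1
          rw [e3]
          nlinarith [hpow (sc x J j)]
        have c1 : (((S n).filter fun i' => |V n i' - V n i| ≤ t ∧ |A n i' - A n i| ≤ 2 * t).card : ℝ)
            ≤ B.d n ^ (-π j - C * (2 * ε)) := by
          refine le_trans ?_ (h1 j hjr i hi)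
          exact_mod_cast Finset.card_le_card (by
            intro i' hi'
            obtain ⟨b1, b2, b3⟩ := Finset.mem_filter.1 hi'
            exact Finset.mem_filter.2 ⟨b1, b2.trans htj,
              (b3.trans h2t).trans (rpow_anti B n (by linarith))⟩)
        have c2 : (((Z n).filter fun k' => |φ n k' - φ n k| ≤ 2 * t).card : ℝ)
            ≤ B.d n ^ (σ * (sc x J j - ε) - C * ε) * ((Z n).card : ℝ) := by
          rcases le_total (sc x J j - ε) 0 with hle | hle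
          · have b3 : (((Z n).filter fun k' => |φ n k' - φ n k| ≤ 2 * t).card : ℝ) ≤ (Z n).card := by
              exact_mod_cast Finset.card_le_card (Finset.filter_subset _ _)
            refine b3.trans ?_
            have b4 : (1 : ℝ) ≤ B.d n ^ (σ * (sc x J j - ε) - C * ε) := by
              apply Real.one_le_rpow_of_pos_of_le_one_of_nonpos (B.pos n) (B.lt n).le
              have : σ * (sc x J j - ε) ≤ 0 := mul_nonpos_of_nonneg_of_nonpos hσ0 hle
              nlinarith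
            nlinarith
          · have b1 := h2 j hjr k hk
            rw [max_eq_left hle] at b1
            refine le_trans ?_ b1
            exact_mod_cast Finset.card_le_card (by
              intro k' hk'
              rw [Finset.mem_filter] at hk' ⊢
              exact ⟨hk'.1, hk'.2.trans h2t⟩)
        calc _ ≤ B.d n ^ (-π j - C * (2 * ε)) *
              (B.d n ^ (σ * (sc x J j - ε) - C * ε) * ((Z n).card : ℝ)) :=
              mul_le_mul c1 c2 (Nat.cast_nonneg _) (hpow _).le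
          _ = ((Z n).card : ℝ) * (B.d n ^ e j * B.d n ^ (2 * sc x J (j + 1))) := by
              rw [← mul_assoc, ← rpow_add', ← rpow_add', he]
              simp only
              rw [mul_comm]
              congr 2
              ring
          _ ≤ ((Z n).card : ℝ) * (B.d n ^ e j * t ^ 2) := by
              refine mul_le_mul_of_nonneg_left ?_ hZ0.le
              refine mul_le_mul_of_nonneg_left ?_ (hpow _).le
              rw [hru, ← Real.rpow_natCast (B.d n ^ u) 2, ← Real.rpow_mul (B.pos n).le]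
              refine rpow_anti B n ?_
              push_cast
              linarith
          _ ≤ E * t ^ 2 := by
              have : B.d n ^ e j ≤ ∑ j ∈ range (J + 1), B.d n ^ e j :=
                Finset.single_le_sum (f := fun j => B.d n ^ e j) (fun i _ => (hpow _).le) hjr
              rw [hE]
              have ht2 : 0 ≤ t ^ 2 := sq_nonneg t
              have := mul_le_mul_of_nonneg_left (mul_le_mul_of_nonneg_right this ht2) hZ0.le
              refine this.trans (le_of_eq ?_)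
              ring)
    -- the logarithm
    have hl : Real.log (1 / r) = (x - ε) * B.L n := by
      rw [one_div, Real.log_inv, hr, Real.log_rpow (B.pos n)]
      unfold Base.L
      ring
    have hl2 : 4 * CF * (1 + Real.log (1 / r)) ≤ B.d n ^ (-ε) := by
      refine le_trans ?_ hlog
      rw [hl]
      refine mul_le_mul_of_nonneg_left ?_ (by positivity)
      have := B.L_pos n
      nlinarith
    have k2 : (B.d n ^ ε) ^ 2 * ((S n).card : ℝ) ≤
        |C0| * B.d n ^ (-κ - C * ε) * (r * B.d n ^ (-ε) * ∑ j ∈ range (J + 1), B.d n ^ e j) := by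
      have k3 : ((Z n).card : ℝ) * ((B.d n ^ ε) ^ 2 * ((S n).card : ℝ)) ≤ ((Z n).card : ℝ) *
          (|C0| * B.d n ^ (-κ - C * ε) * (r * B.d n ^ (-ε) * ∑ j ∈ range (J + 1), B.d n ^ e j)) := by
        calc _ = (B.d n ^ ε) ^ 2 * ((S n).card : ℝ) * ((Z n).card : ℝ) := by ring
          _ ≤ _ := key
          _ = (|C0| * B.d n ^ (-κ - C * ε)) * (r * E) * (4 * CF * (1 + Real.log (1 / r))) := by ring
          _ ≤ (|C0| * B.d n ^ (-κ - C * ε)) * (r * E) * B.d n ^ (-ε) := by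
              refine mul_le_mul_of_nonneg_left hl2 ?_
              exact mul_nonneg (mul_nonneg (abs_nonneg _) (hpow _).le) (mul_nonneg (hpow _).le hE0)
          _ = _ := by rw [hE]; ring
      exact le_of_mul_le_mul_left k3 hZ0
    calc B.d n ^ (-α + (5 * C + 12) * ε₀) ≤ B.d n ^ (-α + (C + 2) * ε) := rpow_anti B n (by nlinarith)
      _ = (B.d n ^ ε) ^ 2 * B.d n ^ (-α + C * ε) := by
          rw [sq, ← rpow_add', ← rpow_add']; congr 1; ring
      _ ≤ (B.d n ^ ε) ^ 2 * ((S n).card : ℝ) := mul_le_mul_of_nonneg_left hSn (by positivity)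
      _ ≤ _ := k2
      _ = |C0| * ∑ j ∈ range (J + 1), B.d n ^ (-κ + x - π j + σ * sc x J j - 2 * sc x J (j + 1)
            - (4 * C + σ + 2) * ε) := by
          rw [mul_assoc, Finset.mul_sum, Finset.mul_sum]
          congr 1
          refine Finset.sum_congr rfl fun j _ => ?_
          rw [hr, ← rpow_add', ← rpow_add', ← rpow_add']
          congr 1
          simp only [he]
          ring
      _ ≤ _ := by
          refine mul_le_mul_of_nonneg_left ?_ (abs_nonneg _)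
          refine Finset.sum_le_sum fun j _ => rpow_anti B n ?_
          nlinarith)
  refine ⟨j, hj, ?_⟩
  linarith

/-! ### in a `GUnif` -/

variable {κ : Type} [Fintype κ] {B : Base} {G : ℕ → GCfg κ} {σ R : ℝ} {ν : (κ → ℝ) → ℝ}

/-- **Falconer on one fibre**, chart free (hypotheses of `kauf_G` verbatim). -/
theorem falc_G [DecidableEq κ] (H : GUnif B G R ν) (i0 k0 : ℕ → ℕ)
    (h0 : ∀ᶠ n in (U : Filter ℕ), (i0 n, k0 n) ∈ (G n).I) (pS pT : κ → ℝ)
    (hpS : ∀ j, 0 ≤ pS j ∧ pS j ≤ R) (hpT : ∀ j, 0 ≤ pT j ∧ pT j ≤ R) (F : κ) {x τ : ℝ}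
    (hx : 0 < x) (hxR : x ≤ R) (hFx : pT F ≤ x) (hτ0 : 0 ≤ τ) (hτ1 : τ ≤ 1)
    (V : ℕ → ℕ → ℝ) (φ : ℕ → ℕ → ℝ) (Zg : ℕ → Finset ℕ)
    (hZg : ∀ᶠ n in (U : Filter ℕ), (Zg n).Nonempty) {J : ℕ} (hJ : 0 < J) (Q : ℕ → κ → ℝ)
    (hQm : ∀ j ≤ J, ∀ c, 0 ≤ Q j c ∧ Q j c ≤ R) {C1 : ℝ} (hC1 : 0 < C1)
    (hφ : ∀ᶠ n in (U : Filter ℕ), ∀ k ∈ Zg n, |φ n k| ≤ 2)
    (hV : ∀ᶠ n in (U : Filter ℕ), ∀ i ∈ (G n).box pS (i0 n) (k0 n),
      ∀ i' ∈ (G n).box pS (i0 n) (k0 n), |V n i - V n i'| ≤ 1)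
    (hF : ∀ ε : ℝ, 0 < ε → ∀ᶠ n in (U : Filter ℕ), ∀ k ∈ Zg n,
      ∀ i ∈ (G n).box pS (i0 n) (k0 n), ∀ i' ∈ (G n).box pS (i0 n) (k0 n),
      |(G n).co k i F - (G n).co k i' F - (((G n).co (k0 n) i F - (G n).co (k0 n) i' F) +
        φ n k * (V n i - V n i'))| ≤ B.d n ^ (x - ε))
    (hT : ∀ ε : ℝ, 0 < ε → ∀ᶠ n in (U : Filter ℕ), ∀ k ∈ Zg n,
      ∀ i ∈ (G n).box pS (i0 n) (k0 n), ∀ i' ∈ (G n).box pS (i0 n) (k0 n),
      (i, k) ∈ (G n).I → (i', k) ∈ (G n).I →
      ∀ j, |(G n).co k i' j - (G n).co k i j| ≤ B.d n ^ (pT j - ε))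
    (hal : ∀ ε : ℝ, 0 < ε → ∀ᶠ n in (U : Filter ℕ), ∀ i ∈ (G n).box pS (i0 n) (k0 n),
      ∀ T ⊆ Zg n, (∀ k ∈ Zg n, (i, k) ∈ (G n).I → k ∈ T) →
      B.d n ^ ε * ((Zg n).card : ℝ) ≤ (T.card : ℝ))
    (hQ : ∀ j ≤ J, ∀ ε : ℝ, 0 < ε → ∀ᶠ n in (U : Filter ℕ),
      ∀ i ∈ (G n).box pS (i0 n) (k0 n), ∀ i' ∈ (G n).box pS (i0 n) (k0 n),
      |V n i' - V n i| ≤ B.d n ^ sc x J j →
      |(G n).co (k0 n) i' F - (G n).co (k0 n) i F| ≤ B.d n ^ (sc x J j - ε) →
      ∀ c, |(G n).co (k0 n) i' c - (G n).co (k0 n) i c| ≤ B.d n ^ (Q j c - C1 * ε))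
    (hfr : ∀ y : ℝ, 0 ≤ y → y ≤ x → ∀ ε : ℝ, 0 < ε → ∀ᶠ n in (U : Filter ℕ), ∀ k ∈ Zg n,
      ∀ T ⊆ Zg n, (∀ k' ∈ T, |φ n k' - φ n k| ≤ B.d n ^ y) →
      (T.card : ℝ) ≤ B.d n ^ (τ * y - ε) * ((Zg n).card : ℝ)) :
    ∃ j ≤ J, ν pS - ν (Q j) + τ * sc x J j + x - 2 * sc x J (j + 1) ≤
      ν pT - ν (Function.update pT F x) := by
  classical
  set m : ℝ := (Fintype.card κ : ℝ) with hm
  have hm0 : 0 ≤ m := Nat.cast_nonneg _
  set r : κ → ℝ := Function.update pT F x with hr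
  have hrm : ∀ j, 0 ≤ r j ∧ r j ≤ R := by
    intro j
    by_cases hj : j = F
    · subst hj; rw [hr, Function.update_self]; exact ⟨hx.le, hxR⟩
    · rw [hr, Function.update_of_ne hj]; exact hpT j
  have hTr : ∀ j, pT j ≤ r j := by
    intro j
    by_cases hj : j = F
    · subst hj; rw [hr, Function.update_self]; exact hFx
    · rw [hr, Function.update_of_ne hj]
  set C : ℝ := 2 * m + 4 + (m + 1) * C1 + 1 with hC
  have hC1' : 1 ≤ C := by
    have : 0 ≤ (m + 1) * C1 := by positivity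
    rw [hC]; linarith
  refine falc_ex B (ι := ℕ) (fun n => (G n).box pS (i0 n) (k0 n)) Zg φ
    (fun n i k => (i, k) ∈ (G n).I) (fun n i k => (G n).co k i F)
    (fun n i => (G n).co (k0 n) i F) V hx hτ0 hτ1 hC1' (C0 := 1) hJ (fun j => ν (Q j)) hZg hφ hF
    ?_ ?_ ?_ hV ?_ ?_
  · -- size of the fibre
    intro ε hε
    filter_upwards [H.unif pS hpS ε hε, h0] with n hn h0n
    refine le_trans (rpow_anti B n ?_) (hn _ _ h0n).1
    nlinarith
  · -- cells
    intro ε hε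
    filter_upwards [H.card_cells_loss pT r hpT hrm hTr hε, hT ε hε] with n h1 h2 k hk
    set T := ((G n).box pS (i0 n) (k0 n)).filter fun i => (i, k) ∈ (G n).I with hTdef
    set w : κ → ℝ := Function.update (fun j => B.d n ^ pT j) F (B.d n ^ (x - ε)) with hw
    have hwm : ∀ j, B.d n ^ r j ≤ w j ∧ w j ≤ B.d n ^ (pT j - ε) := by
      intro j
      by_cases hj : j = F
      · subst hj
        rw [hr, hw, Function.update_self, Function.update_self]
        exact ⟨rpow_anti B n (by linarith), rpow_anti B n (by linarith)⟩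
      · rw [hr, hw, Function.update_of_ne hj, Function.update_of_ne hj]
        exact ⟨le_rfl, rpow_anti B n (by linarith)⟩
    have h3 := h1 k T (by
      intro i hi
      exact H.memSlice.2 (Finset.mem_filter.1 hi).2) (by
      intro i hi i' hi' j
      obtain ⟨a1, a2⟩ := Finset.mem_filter.1 hi
      obtain ⟨b1, b2⟩ := Finset.mem_filter.1 hi'
      exact h2 k hk i a1 i' b1 a2 b2 j) w hwm
    have h4 : (T.image fun i => ⌊(G n).co k i F / B.d n ^ (x - ε)⌋).card ≤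
        (T.image fun i => fun j => ⌊(G n).co k i j / w j⌋).card := by
      have : (T.image fun i => ⌊(G n).co k i F / B.d n ^ (x - ε)⌋) =
          (T.image fun i => fun j => ⌊(G n).co k i j / w j⌋).image fun c => c F := by
        rw [Finset.image_image]
        apply Finset.image_congr
        intro i _
        simp only [Function.comp_apply, hw, Function.update_self]
      rw [this]
      exact Finset.card_image_le
    have h5 : (((T.image fun i => ⌊(G n).co k i F / B.d n ^ (x - ε)⌋).card : ℕ) : ℝ) ≤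
        B.d n ^ (-(ν pT - ν r) - (2 * Fintype.card κ + 4) * ε) :=
      le_trans (by exact_mod_cast h4) h3
    rw [one_mul]
    refine le_trans ?_ (h5.trans (rpow_anti B n ?_))
    · apply le_of_eq
      rw [hTdef]
    · have : 0 ≤ (m + 1) * C1 * ε := by positivity
      rw [hC, ← hm]; nlinarith
  · -- alive
    intro ε hε
    filter_upwards [hal ε hε] with n hn i hi
    refine hn i hi _ (Finset.filter_subset _ _) ?_
    intro k hk hI
    exact Finset.mem_filter.2 ⟨hk, hI⟩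
  · -- close pairs
    intro j hj ε hε
    have hCε : 0 < C1 * ε := by positivity
    filter_upwards [hQ j hj ε hε, H.card_near_loss (Q j) (hQm j hj) hCε] with n h1 h2 i hi
    have hI := H.memSlice.1 (box_subset_slice hi)
    refine (h2 i (k0 n) hI _ ((Finset.filter_subset _ _).trans box_subset_slice) ?_).trans
      (rpow_anti B n ?_)
    · intro i' hi' c
      obtain ⟨a1, a2, a3⟩ := Finset.mem_filter.1 hi'
      exact h1 i hi i' a1 a2 a3 c
    · rw [hC, ← hm]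
      have : 0 ≤ (2 * m + 4 + 1) * ε := by positivity
      nlinarith
  · -- Frostman
    intro y hy0 hyx ε hε
    filter_upwards [hfr y hy0 hyx ε hε] with n hn k hk
    refine (hn k hk _ (Finset.filter_subset _ _) ?_).trans ?_
    · intro k' hk'
      exact (Finset.mem_filter.1 hk').2
    · refine mul_le_mul_of_nonneg_right (rpow_anti B n ?_) (Nat.cast_nonneg _)
      nlinarith

/-- **Falconer, rate form** (hypotheses of `kauf_rate`, with `1 - τ < g` instead of `0 < g`): a pair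
rate `≥ f + g` with `g > 1 - τ` makes the positions full. -/
theorem falc_rate [DecidableEq κ] (H : GUnif B G R ν) (i0 k0 : ℕ → ℕ)
    (h0 : ∀ᶠ n in (U : Filter ℕ), (i0 n, k0 n) ∈ (G n).I) (pS pT : κ → ℝ)
    (hpS : ∀ j, 0 ≤ pS j ∧ pS j ≤ R) (hpT : ∀ j, 0 ≤ pT j ∧ pT j ≤ R) (F : κ) {x τ : ℝ}
    (hx : 0 < x) (hxR : x ≤ R) (hFx : pT F ≤ x) (hτ0 : 0 ≤ τ) (hτ1 : τ ≤ 1)
    (V : ℕ → ℕ → ℝ) (φ : ℕ → ℕ → ℝ) (Zg : ℕ → Finset ℕ)
    (hZg : ∀ᶠ n in (U : Filter ℕ), (Zg n).Nonempty) (Q : ℝ → κ → ℝ)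
    (hQm : ∀ t : ℝ, 0 ≤ t → t ≤ x → ∀ c, 0 ≤ Q t c ∧ Q t c ≤ R) {C1 : ℝ} (hC1 : 0 < C1)
    (hφ : ∀ᶠ n in (U : Filter ℕ), ∀ k ∈ Zg n, |φ n k| ≤ 2)
    (hV : ∀ᶠ n in (U : Filter ℕ), ∀ i ∈ (G n).box pS (i0 n) (k0 n),
      ∀ i' ∈ (G n).box pS (i0 n) (k0 n), |V n i - V n i'| ≤ 1)
    (hF : ∀ ε : ℝ, 0 < ε → ∀ᶠ n in (U : Filter ℕ), ∀ k ∈ Zg n,
      ∀ i ∈ (G n).box pS (i0 n) (k0 n), ∀ i' ∈ (G n).box pS (i0 n) (k0 n),
      |(G n).co k i F - (G n).co k i' F - (((G n).co (k0 n) i F - (G n).co (k0 n) i' F) +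
        φ n k * (V n i - V n i'))| ≤ B.d n ^ (x - ε))
    (hT : ∀ ε : ℝ, 0 < ε → ∀ᶠ n in (U : Filter ℕ), ∀ k ∈ Zg n,
      ∀ i ∈ (G n).box pS (i0 n) (k0 n), ∀ i' ∈ (G n).box pS (i0 n) (k0 n),
      (i, k) ∈ (G n).I → (i', k) ∈ (G n).I →
      ∀ j, |(G n).co k i' j - (G n).co k i j| ≤ B.d n ^ (pT j - ε))
    (hal : ∀ ε : ℝ, 0 < ε → ∀ᶠ n in (U : Filter ℕ), ∀ i ∈ (G n).box pS (i0 n) (k0 n),
      ∀ T ⊆ Zg n, (∀ k ∈ Zg n, (i, k) ∈ (G n).I → k ∈ T) →
      B.d n ^ ε * ((Zg n).card : ℝ) ≤ (T.card : ℝ))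
    (hQ : ∀ t : ℝ, 0 ≤ t → t ≤ x → ∀ ε : ℝ, 0 < ε → ∀ᶠ n in (U : Filter ℕ),
      ∀ i ∈ (G n).box pS (i0 n) (k0 n), ∀ i' ∈ (G n).box pS (i0 n) (k0 n),
      |V n i' - V n i| ≤ B.d n ^ t →
      |(G n).co (k0 n) i' F - (G n).co (k0 n) i F| ≤ B.d n ^ (t - ε) →
      ∀ c, |(G n).co (k0 n) i' c - (G n).co (k0 n) i c| ≤ B.d n ^ (Q t c - C1 * ε))
    (hfr : ∀ y : ℝ, 0 ≤ y → y ≤ x → ∀ ε : ℝ, 0 < ε → ∀ᶠ n in (U : Filter ℕ), ∀ k ∈ Zg n,
      ∀ T ⊆ Zg n, (∀ k' ∈ T, |φ n k' - φ n k| ≤ B.d n ^ y) →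
      (T.card : ℝ) ≤ B.d n ^ (τ * y - ε) * ((Zg n).card : ℝ))
    {f g : ℝ} (hg : 1 - τ < g) (hlow : ∀ t : ℝ, 0 ≤ t → t ≤ x → (f + g) * t ≤ ν pS - ν (Q t))
    (hup : ν pT - ν (Function.update pT F x) ≤ f * x) : 1 ≤ f := by
  by_contra hcon
  push Not at hcon
  set b := min (1 - f) (g - (1 - τ)) with hb
  have hb0 : 0 < b := lt_min (by linarith) (by linarith)
  obtain ⟨J, hJ⟩ := exists_nat_gt (2 / b)
  have hJ0 : 0 < J := by
    rcases Nat.eq_zero_or_pos J with h | h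
    · rw [h] at hJ
      have : 0 ≤ 2 / b := by positivity
      simp at hJ
      linarith
    · exact h
  have hJr : (0 : ℝ) < J := by exact_mod_cast hJ0
  obtain ⟨j, hj, h⟩ := falc_G H i0 k0 h0 pS pT hpS hpT F hx hxR hFx hτ0 hτ1 V φ Zg hZg hJ0
    (fun j => Q (sc x J j)) (fun j hj => hQm _ (sc_nonneg hx.le J j) (sc_le hx.le hJ0 hj)) hC1
    hφ hV hF hT hal (fun j hj => hQ _ (sc_nonneg hx.le J j) (sc_le hx.le hJ0 hj)) hfr
  have h1 := hlow _ (sc_nonneg hx.le J j) (sc_le hx.le hJ0 hj)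
  rw [sc_succ x hJ0] at h
  set t := sc x J j with ht
  have ht0 : 0 ≤ t := sc_nonneg hx.le J j
  have htx : t ≤ x := sc_le hx.le hJ0 hj
  have h2 : (1 - f) * (x - t) + (g - (1 - τ)) * t ≤ 2 * (x / J) := by nlinarith
  have h3 : b * x ≤ (1 - f) * (x - t) + (g - (1 - τ)) * t := by
    have e1 : b ≤ 1 - f := min_le_left _ _
    have e2 : b ≤ g - (1 - τ) := min_le_right _ _
    nlinarith
  have h4 : b * x ≤ 2 * (x / J) := h3.trans h2
  have h5 : 2 < b * J := by rwa [div_lt_iff₀ hb0, mul_comm] at hJ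
  have h6 : 2 * (x / J) < b * x := by
    rw [mul_div_assoc', div_lt_iff₀ hJr]
    nlinarith
  linarith

end Crest.Agent.R116.Kr710
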