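import Crest.Agent.R136.Gr2_356
import Crest.Agent.R116.Kr1_710

/-!
# R116, K side: Falconer on one fibre, relative coordinates with walls (helper710)

Twins of `kauf_exE` (Gr0_356), `kauf_R`, `kauf_rate_R` (Gr2_356), hypotheses verbatim:
`falc_exE`, `falc_R`, `falc_rate_R`: a pair rate `≥ f + g` with `g > 1 - τ` makes the positions full.
-/

set_option autoImplicit false
set_option linter.unusedVariables false
set_option linter.unusedSectionVars false

open Filter Topology Finset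

namespace Crest.Agent.R116.Kr710

open Crest.Agent.R138.Ex926 (Base U)
open Crest.Agent.R138.Fal658 Crest.Agent.R136.Gf356

/-- **Falconer in exponent form, with losses everywhere.** -/
theorem falc_exE (B : Base) {ι : Type*} [DecidableEq ι] (S : ℝ → ℕ → Finset ι)
    (Z : ℝ → ℕ → Finset ℕ)
    (φ : ℕ → ℕ → ℝ) (al : ℕ → ι → ℕ → Prop) [∀ n i, DecidablePred (al n i)]
    (F : ℕ → ι → ℕ → ℝ) (A V : ℕ → ι → ℝ) {x σ α κ C C2 C0 : ℝ} (hx : 0 < x) (hσ0 : 0 ≤ σ)
    (hσ1 : σ ≤ 1) (hC : 1 ≤ C) (hC2 : 1 ≤ C2) {J : ℕ} (hJ : 0 < J) (π : ℕ → ℝ)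
    (hZ : ∀ ε : ℝ, 0 < ε → ∀ᶠ n in (U : Filter ℕ), (Z ε n).Nonempty)
    (hφ : ∀ ε : ℝ, 0 < ε → ∀ᶠ n in (U : Filter ℕ), ∀ k ∈ Z ε n, |φ n k| ≤ B.d n ^ (-(C * ε)))
    (hF : ∀ ε : ℝ, 0 < ε → ∀ᶠ n in (U : Filter ℕ), ∀ k ∈ Z ε n, ∀ i ∈ S ε n, ∀ i' ∈ S ε n,
      |F n i k - F n i' k - ((A n i - A n i') + φ n k * (V n i - V n i'))|
        ≤ B.d n ^ (x - C * ε))
    (hS : ∀ ε : ℝ, 0 < ε → ∀ᶠ n in (U : Filter ℕ), B.d n ^ (-α + C * ε) ≤ ((S ε n).card : ℝ))
    (hcell : ∀ ε : ℝ, 0 < ε → ∀ᶠ n in (U : Filter ℕ), ∀ k ∈ Z ε n,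
      ((((S ε n).filter fun i => al n i k).image fun i => ⌊F n i k / B.d n ^ (x - C * ε)⌋).card : ℝ)
        ≤ C0 * B.d n ^ (-κ - C2 * ε))
    (hal : ∀ ε : ℝ, 0 < ε → ∀ᶠ n in (U : Filter ℕ), ∀ i ∈ S ε n,
      B.d n ^ (C * ε) * ((Z ε n).card : ℝ) ≤ (((Z ε n).filter fun k => al n i k).card : ℝ))
    (hV0 : ∀ ε : ℝ, 0 < ε → ∀ᶠ n in (U : Filter ℕ), ∀ i ∈ S ε n, ∀ i' ∈ S ε n,
      |V n i - V n i'| ≤ B.d n ^ (-(C * ε)))
    (hP : ∀ j ≤ J, ∀ ε : ℝ, 0 < ε → ∀ᶠ n in (U : Filter ℕ), ∀ i ∈ S ε n,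
      (((S ε n).filter fun i' => |V n i' - V n i| ≤ B.d n ^ (sc x J j - C * ε) ∧
        |A n i' - A n i| ≤ B.d n ^ (sc x J j - (2 * C + 1) * ε)).card : ℝ)
          ≤ B.d n ^ (-π j - C2 * ε))
    (hQ : ∀ y : ℝ, 0 ≤ y → y ≤ x → ∀ ε : ℝ, 0 < ε → ∀ᶠ n in (U : Filter ℕ), ∀ k ∈ Z ε n,
      (((Z ε n).filter fun k' => |φ n k' - φ n k| ≤ B.d n ^ (y - ε)).card : ℝ)
        ≤ B.d n ^ (σ * y - C2 * ε) * ((Z ε n).card : ℝ)) :
    ∃ j ≤ J, α - π j + σ * sc x J j + x - 2 * sc x J (j + 1) ≤ κ := by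
  classical
  obtain ⟨j, hj, h⟩ := exists_le_of_ev B J
    (fun j => -κ + x - π j + σ * sc x J j - 2 * sc x J (j + 1)) (-α)
    (20 * C + 3 * C2 + 12) (|C0|) (by
    intro ε hε
    have hCε : 0 ≤ C * ε := by positivity
    have hC2ε : 0 ≤ C2 * ε := by positivity
    have ev1 : ∀ᶠ n in (U : Filter ℕ), ∀ j ∈ range (J + 1), ∀ i ∈ S ε n,
        (((S ε n).filter fun i' => |V n i' - V n i| ≤ B.d n ^ (sc x J j - C * ε) ∧
          |A n i' - A n i| ≤ B.d n ^ (sc x J j - (2 * C + 1) * ε)).card : ℝ)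
            ≤ B.d n ^ (-π j - C2 * ε) := by
      rw [Filter.eventually_all_finset]
      intro j hj
      exact hP j (by simpa [Nat.lt_succ_iff] using hj) ε hε
    have ev2 : ∀ᶠ n in (U : Filter ℕ), ∀ j ∈ range (J + 1), ∀ k ∈ Z ε n,
        (((Z ε n).filter fun k' =>
          |φ n k' - φ n k| ≤ B.d n ^ (max (sc x J j - C * ε) 0 - ε)).card : ℝ)
          ≤ B.d n ^ (σ * max (sc x J j - C * ε) 0 - C2 * ε) * ((Z ε n).card : ℝ) := by
      rw [Filter.eventually_all_finset]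
      intro j hj
      have hj' : j ≤ J := by simpa [Nat.lt_succ_iff] using hj
      exact hQ (max (sc x J j - C * ε) 0) (le_max_right _ _)
        (max_le (by linarith [sc_le hx.le hJ hj']) hx.le) ε hε
    filter_upwards [ev1, ev2, hZ ε hε, hφ ε hε, hF ε hε, hS ε hε, hcell ε hε, hal ε hε, hV0 ε hε,
      ev_const_le B hε 8, ev_log_le B (x := x + C * ε) hε (4 * CF)] with
      n h1 h2 hZn hφn hFn hSn hcn haln hVn h7 hlog
    have hpow : ∀ t : ℝ, 0 < B.d n ^ t := fun t => rpos B n t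
    have hCF := CF_pos
    have hSne : (S ε n).Nonempty := by
      rw [← Finset.card_pos]
      have : (0 : ℝ) < ((S ε n).card : ℝ) := lt_of_lt_of_le (hpow _) hSn
      exact_mod_cast this
    have hZ0 : (0 : ℝ) < ((Z ε n).card : ℝ) := by exact_mod_cast hZn.card_pos
    -- rescaling
    set u := B.d n ^ (C * ε) with hu
    have hu0 : 0 < u := hpow _
    have huv : u * B.d n ^ (-(C * ε)) = 1 := by
      rw [hu, ← rpow_add', add_neg_cancel, Real.rpow_zero]
    set r := B.d n ^ (x + C * ε) with hr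
    have hr1 : r ≤ 1 := Real.rpow_le_one (B.pos n).le (B.lt n).le (by linarith)
    have hru : r = u ^ 2 * B.d n ^ (x - C * ε) := by
      rw [hr, hu, sq, ← rpow_add', ← rpow_add']; congr 1; ring
    set e : ℕ → ℝ := fun j => -π j - 2 * C2 * ε + σ * (sc x J j - C * ε) -
      2 * (sc x J (j + 1) + C * ε) with he
    set E : ℝ := ((Z ε n).card : ℝ) * ∑ j ∈ range (J + 1), B.d n ^ e j with hE
    have hsum0 : 0 ≤ ∑ j ∈ range (J + 1), B.d n ^ e j := Finset.sum_nonneg fun j _ => (hpow _).le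
    have hE0 : 0 ≤ E := mul_nonneg hZ0.le hsum0
    have key := falc_abs (S ε n) (Z ε n) (fun k => u * φ n k) (al n)
      (fun i k => u ^ 2 * F n i k) (fun i => u ^ 2 * A n i) (fun i => u * V n i) r
      (|C0| * B.d n ^ (-κ - C2 * ε)) (B.d n ^ (C * ε)) E (hpow _) hr1
      (mul_nonneg (abs_nonneg _) (hpow _).le) (hpow _).le hE0 hSne hZn
      (by
        intro k hk
        have := hφn k hk
        rw [abs_mul, abs_of_pos hu0]
        calc u * |φ n k| ≤ u * B.d n ^ (-(C * ε)) := mul_le_mul_of_nonneg_left this hu0.le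
          _ = 1 := huv
          _ ≤ 2 := by norm_num)
      (by
        intro k hk i hi i' hi'
        have := hFn k hk i hi i' hi'
        have e1 : u ^ 2 * F n i k - u ^ 2 * F n i' k -
            ((u ^ 2 * A n i - u ^ 2 * A n i') + u * φ n k * (u * V n i - u * V n i')) =
            u ^ 2 * (F n i k - F n i' k - ((A n i - A n i') + φ n k * (V n i - V n i'))) := by ring
        rw [e1, abs_mul, abs_of_pos (by positivity), hru]
        exact mul_le_mul_of_nonneg_left this (by positivity))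
      (by
        intro k hk
        refine le_trans (le_of_eq ?_) ((hcn k hk).trans
          (mul_le_mul_of_nonneg_right (le_abs_self _) (hpow _).le))
        congr 2
        refine Finset.image_congr ?_
        intro i _
        simp only
        rw [hru, mul_div_mul_left _ _ (by positivity)])
      (by
        calc B.d n ^ (C * ε) * (((S ε n).card : ℝ) * (Z ε n).card)
            = ∑ i ∈ S ε n, B.d n ^ (C * ε) * ((Z ε n).card : ℝ) := by
              rw [Finset.sum_const, nsmul_eq_mul]; ring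
          _ ≤ _ := Finset.sum_le_sum fun i hi => haln i hi)
      (by
        intro i hi i' hi'
        have := hVn i hi i' hi'
        rw [← mul_sub, abs_mul, abs_of_pos hu0]
        calc u * |V n i - V n i'| ≤ u * B.d n ^ (-(C * ε)) := mul_le_mul_of_nonneg_left this hu0.le
          _ = 1 := huv)
      (by
        intro t ht1 ht2 i hi k hk
        have ht0 : 0 < t := lt_of_lt_of_le (hpow _) ht1
        have hlρ : Real.log (B.d n) < 0 := Real.log_neg (B.pos n) (B.lt n)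
        set w : ℝ := Real.log t / Real.log (B.d n) with hw
        have hrw : t = B.d n ^ w := by
          rw [Real.rpow_def_of_pos (B.pos n), hw, mul_div_cancel₀ _ hlρ.ne, Real.exp_log ht0]
        have hw0 : 0 ≤ w := div_nonneg_of_nonpos (Real.log_nonpos ht0.le ht2) hlρ.le
        have hwx : w ≤ x + C * ε := by
          have h3 := Real.log_le_log (hpow _) ht1
          rw [Real.log_rpow (B.pos n)] at h3
          rw [hw, div_le_iff_of_neg hlρ]
          exact h3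
        have hJr : (0 : ℝ) < J := by exact_mod_cast hJ
        obtain ⟨j, hjJ, hj1, hj2⟩ : ∃ j ≤ J, sc x J j ≤ w ∧ w ≤ sc x J (j + 1) + C * ε := by
          rcases le_total w x with hle | hle
          · refine ⟨⌊w * J / x⌋₊, ?_, ?_, ?_⟩
            · have h3 : w * J / x ≤ J := by
                rw [div_le_iff₀ hx]
                nlinarith
              have h4 := Nat.floor_le_floor h3
              simpa using h4
            · have h3 := Nat.floor_le (show 0 ≤ w * J / x by positivity)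
              rw [le_div_iff₀ hx] at h3
              unfold sc
              rw [div_le_iff₀ hJr]
              linarith
            · have h3 := Nat.lt_floor_add_one (w * J / x)
              rw [div_lt_iff₀ hx] at h3
              have h4 : w ≤ sc x J (⌊w * J / x⌋₊ + 1) := by
                unfold sc
                rw [le_div_iff₀ hJr]
                push_cast
                linarith
              linarith
          · refine ⟨J, le_rfl, ?_, ?_⟩
            · rw [sc_top x hJ]; exact hle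
            · rw [sc_succ x hJ, sc_top x hJ]
              have : 0 ≤ x / J := by positivity
              linarith
        have hjr : j ∈ range (J + 1) := Finset.mem_range.2 (by omega)
        have htj : t ≤ B.d n ^ sc x J j := by rw [hrw]; exact rpow_anti B n hj1
        have hinv : u * B.d n ^ (sc x J j - C * ε) = B.d n ^ sc x J j := by
          rw [hu, ← rpow_add']; congr 1; ring
        have c1 : (((S ε n).filter fun i' => |u * V n i' - u * V n i| ≤ t ∧
            |u ^ 2 * A n i' - u ^ 2 * A n i| ≤ 2 * t).card : ℝ) ≤ B.d n ^ (-π j - C2 * ε) := by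
          refine le_trans ?_ (h1 j hjr i hi)
          exact_mod_cast Finset.card_le_card (by
            intro i' hi'
            obtain ⟨b1, b2, b3⟩ := Finset.mem_filter.1 hi'
            rw [← mul_sub, abs_mul, abs_of_pos hu0] at b2
            rw [← mul_sub, abs_mul, abs_of_pos (show 0 < u ^ 2 by positivity)] at b3
            refine Finset.mem_filter.2 ⟨b1, ?_, ?_⟩
            · refine le_of_mul_le_mul_left (a := u) ?_ hu0
              rw [hinv]
              exact b2.trans htj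
            · refine le_of_mul_le_mul_left (a := u ^ 2) ?_ (by positivity)
              have e1 : u ^ 2 * B.d n ^ (sc x J j - (2 * C + 1) * ε) =
                  B.d n ^ sc x J j * B.d n ^ (-ε) := by
                rw [hu, sq, ← rpow_add', ← rpow_add', ← rpow_add']; congr 1; ring
              rw [e1]
              refine b3.trans ?_
              nlinarith [hpow (sc x J j)])
        have h2t : 2 * t ≤ u * B.d n ^ (sc x J j - C * ε - ε) := by
          have e3 : u * B.d n ^ (sc x J j - C * ε - ε) = B.d n ^ sc x J j * B.d n ^ (-ε) := by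
            rw [hu, ← rpow_add', ← rpow_add']; congr 1; ring
          rw [e3]
          nlinarith [hpow (sc x J j)]
        have c2 : (((Z ε n).filter fun k' => |u * φ n k' - u * φ n k| ≤ 2 * t).card : ℝ)
            ≤ B.d n ^ (σ * (sc x J j - C * ε) - C2 * ε) * ((Z ε n).card : ℝ) := by
          rcases le_total (sc x J j - C * ε) 0 with hle | hle
          · have b3 : (((Z ε n).filter fun k' => |u * φ n k' - u * φ n k| ≤ 2 * t).card : ℝ) ≤
                (Z ε n).card := by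
              exact_mod_cast Finset.card_le_card (Finset.filter_subset _ _)
            refine b3.trans ?_
            have b4 : (1 : ℝ) ≤ B.d n ^ (σ * (sc x J j - C * ε) - C2 * ε) := by
              apply Real.one_le_rpow_of_pos_of_le_one_of_nonpos (B.pos n) (B.lt n).le
              have : σ * (sc x J j - C * ε) ≤ 0 := mul_nonpos_of_nonneg_of_nonpos hσ0 hle
              linarith
            nlinarith
          · have b1 := h2 j hjr k hk
            rw [max_eq_left hle] at b1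
            refine le_trans ?_ b1
            exact_mod_cast Finset.card_le_card (by
              intro k' hk'
              rw [Finset.mem_filter] at hk' ⊢
              refine ⟨hk'.1, ?_⟩
              have b5 := hk'.2
              rw [← mul_sub, abs_mul, abs_of_pos hu0] at b5
              exact le_of_mul_le_mul_left (b5.trans h2t) hu0)
        calc _ ≤ B.d n ^ (-π j - C2 * ε) *
              (B.d n ^ (σ * (sc x J j - C * ε) - C2 * ε) * ((Z ε n).card : ℝ)) :=
              mul_le_mul c1 c2 (Nat.cast_nonneg _) (hpow _).le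
          _ = ((Z ε n).card : ℝ) * (B.d n ^ e j * B.d n ^ (2 * (sc x J (j + 1) + C * ε))) := by
              rw [← mul_assoc, ← rpow_add', ← rpow_add', he]
              simp only
              rw [mul_comm]
              congr 2
              ring
          _ ≤ ((Z ε n).card : ℝ) * (B.d n ^ e j * t ^ 2) := by
              refine mul_le_mul_of_nonneg_left ?_ hZ0.le
              refine mul_le_mul_of_nonneg_left ?_ (hpow _).le
              rw [hrw, ← Real.rpow_natCast (B.d n ^ w) 2, ← Real.rpow_mul (B.pos n).le]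
              refine rpow_anti B n ?_
              push_cast
              linarith
          _ ≤ E * t ^ 2 := by
              have : B.d n ^ e j ≤ ∑ j ∈ range (J + 1), B.d n ^ e j :=
                Finset.single_le_sum (f := fun j => B.d n ^ e j) (fun i _ => (hpow _).le) hjr
              rw [hE]
              have ht2 : 0 ≤ t ^ 2 := sq_nonneg t
              have := mul_le_mul_of_nonneg_left (mul_le_mul_of_nonneg_right this ht2) hZ0.le
              refine this.trans (le_of_eq ?_)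
              ring)
    -- the logarithm
    have hl : Real.log (1 / r) = (x + C * ε) * B.L n := by
      rw [one_div, Real.log_inv, hr, Real.log_rpow (B.pos n)]
      unfold Base.L
      ring
    have hl2 : 4 * CF * (1 + Real.log (1 / r)) ≤ B.d n ^ (-ε) := by
      rw [hl]
      exact hlog
    have k2 : (B.d n ^ (C * ε)) ^ 2 * ((S ε n).card : ℝ) ≤
        |C0| * B.d n ^ (-κ - C2 * ε) * (r * B.d n ^ (-ε) * ∑ j ∈ range (J + 1), B.d n ^ e j) := by
      have k3 : ((Z ε n).card : ℝ) * ((B.d n ^ (C * ε)) ^ 2 * ((S ε n).card : ℝ)) ≤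
          ((Z ε n).card : ℝ) * (|C0| * B.d n ^ (-κ - C2 * ε) *
            (r * B.d n ^ (-ε) * ∑ j ∈ range (J + 1), B.d n ^ e j)) := by
        calc _ = (B.d n ^ (C * ε)) ^ 2 * ((S ε n).card : ℝ) * ((Z ε n).card : ℝ) := by ring
          _ ≤ _ := key
          _ = (|C0| * B.d n ^ (-κ - C2 * ε)) * (r * E) * (4 * CF * (1 + Real.log (1 / r))) := by ring
          _ ≤ (|C0| * B.d n ^ (-κ - C2 * ε)) * (r * E) * B.d n ^ (-ε) := by
              refine mul_le_mul_of_nonneg_left hl2 ?_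
              exact mul_nonneg (mul_nonneg (abs_nonneg _) (hpow _).le) (mul_nonneg (hpow _).le hE0)
          _ = _ := by rw [hE]; ring
      exact le_of_mul_le_mul_left k3 hZ0
    calc B.d n ^ (-α + (20 * C + 3 * C2 + 12) * ε) ≤ B.d n ^ (-α + 3 * C * ε) :=
          rpow_anti B n (by nlinarith)
      _ = (B.d n ^ (C * ε)) ^ 2 * B.d n ^ (-α + C * ε) := by
          rw [sq, ← rpow_add', ← rpow_add']; congr 1; ring
      _ ≤ (B.d n ^ (C * ε)) ^ 2 * ((S ε n).card : ℝ) := mul_le_mul_of_nonneg_left hSn (by positivity)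
      _ ≤ _ := k2
      _ = |C0| * ∑ j ∈ range (J + 1), B.d n ^ (-κ + x - π j + σ * sc x J j - 2 * sc x J (j + 1)
            - (3 * C2 + C + σ * C + 1) * ε) := by
          rw [mul_assoc, Finset.mul_sum, Finset.mul_sum]
          congr 1
          refine Finset.sum_congr rfl fun j _ => ?_
          rw [hr, ← rpow_add', ← rpow_add', ← rpow_add']
          congr 1
          simp only [he]
          ring
      _ ≤ _ := by
          refine mul_le_mul_of_nonneg_left ?_ (abs_nonneg _)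
          refine Finset.sum_le_sum fun j _ => rpow_anti B n ?_
          have : σ * C ≤ C := by nlinarith
          nlinarith)
  refine ⟨j, hj, ?_⟩
  linarith

variable {κ : Type} {B : Base} {G : ℕ → RCfg κ} {Leg : Set (κ → ℝ)} {ν : (κ → ℝ) → ℝ}
  {σ R D : ℝ}

/-- **Falconer on one fibre**, relative coordinates with walls (hypotheses of `kauf_R`). -/
theorem falc_R (H : RUnif B G Leg ν D) (i0 k0 : ℕ → ℕ)
    (h0 : ∀ᶠ n in (U : Filter ℕ), (i0 n, k0 n) ∈ (G n).I) (pS pT r : κ → ℝ)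
    (hpS : pS ∈ Leg) (hpT : pT ∈ Leg) (hr : r ∈ Leg) (hTr : ∀ j, pT j ≤ r j) {x τ : ℝ}
    (hx : 0 < x) (hτ0 : 0 ≤ τ) (hτ1 : τ ≤ 1)
    (F : ℕ → ℕ → ℕ → ℝ) (A V : ℕ → ℕ → ℝ) (φ : ℕ → ℕ → ℝ) (Zg : ℕ → Finset ℕ)
    (hZg : ∀ᶠ n in (U : Filter ℕ), (Zg n).Nonempty) {J : ℕ} (hJ : 0 < J) (Q : ℕ → κ → ℝ)
    (hQm : ∀ j ≤ J, Q j ∈ Leg) {C1 : ℝ} (hC1 : 0 < C1)
    (hφ : ∀ ε : ℝ, 0 < ε → ∀ᶠ n in (U : Filter ℕ), ∀ k ∈ Zg n, |φ n k| ≤ B.d n ^ (-(C1 * ε)))
    (hV : ∀ ε : ℝ, 0 < ε → ∀ᶠ n in (U : Filter ℕ), ∀ i ∈ (G n).box pS ε (i0 n) (k0 n),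
      ∀ i' ∈ (G n).box pS ε (i0 n) (k0 n), |V n i - V n i'| ≤ B.d n ^ (-(C1 * ε)))
    (hF : ∀ ε : ℝ, 0 < ε → ∀ᶠ n in (U : Filter ℕ), ∀ k ∈ Zg n,
      ∀ i ∈ (G n).box pS ε (i0 n) (k0 n), ∀ i' ∈ (G n).box pS ε (i0 n) (k0 n),
      |F n k i - F n k i' - ((A n i - A n i') + φ n k * (V n i - V n i'))|
        ≤ B.d n ^ (x - C1 * ε))
    (hlink : ∀ ε : ℝ, 0 < ε → ∀ᶠ n in (U : Filter ℕ), ∀ k ∈ Zg n,
      ∀ i ∈ (G n).box pS ε (i0 n) (k0 n), (i, k) ∈ (G n).I → ∀ l, (l, k) ∈ (G n).I →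
      (G n).loose r ε k i l → |F n k l - F n k i| ≤ B.d n ^ (x - C1 * ε))
    (hT : ∀ ε : ℝ, 0 < ε → ∀ᶠ n in (U : Filter ℕ), ∀ k ∈ Zg n,
      ∀ i ∈ (G n).box pS ε (i0 n) (k0 n), ∀ i' ∈ (G n).box pS ε (i0 n) (k0 n),
      (i, k) ∈ (G n).I → (i', k) ∈ (G n).I → (G n).loose pT (C1 * ε) k i i')
    (hal : ∀ ε : ℝ, 0 < ε → ∀ᶠ n in (U : Filter ℕ), ∀ i ∈ (G n).box pS ε (i0 n) (k0 n),
      ∀ T ⊆ Zg n, (∀ k ∈ Zg n, (i, k) ∈ (G n).I → k ∈ T) →
      B.d n ^ (C1 * ε) * ((Zg n).card : ℝ) ≤ (T.card : ℝ))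
    (hQ : ∀ C3 : ℝ, 0 < C3 → ∃ C4 : ℝ, 0 < C4 ∧ ∀ j ≤ J, ∀ ε : ℝ, 0 < ε →
      ∀ᶠ n in (U : Filter ℕ),
      ∀ i ∈ (G n).box pS ε (i0 n) (k0 n), ∀ i' ∈ (G n).box pS ε (i0 n) (k0 n),
      |V n i' - V n i| ≤ B.d n ^ (sc x J j - C3 * ε) →
      |A n i' - A n i| ≤ B.d n ^ (sc x J j - C3 * ε) →
      (G n).loose (Q j) (C4 * ε) (k0 n) i i')
    (hfr : ∀ y : ℝ, 0 ≤ y → y ≤ x → ∀ ε : ℝ, 0 < ε → ∀ᶠ n in (U : Filter ℕ), ∀ k ∈ Zg n,
      ∀ T ⊆ Zg n, (∀ k' ∈ T, |φ n k' - φ n k| ≤ B.d n ^ y) →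
      (T.card : ℝ) ≤ B.d n ^ (τ * y - ε) * ((Zg n).card : ℝ)) :
    ∃ j ≤ J, ν pS - ν (Q j) + τ * sc x J j + x - 2 * sc x J (j + 1) ≤ ν pT - ν r := by
  classical
  have hD := H.D1
  have hD0 : 0 < D := by linarith
  set C : ℝ := C1 + 1 with hC
  have hCpos : 0 < C := by linarith
  obtain ⟨C4, hC4, hQ'⟩ := hQ (2 * C + 1) (by positivity)
  set C2 : ℝ := D * (D * C) + C + D * C4 + 3 with hC2
  have hDDC : 0 ≤ D * (D * C) := by positivity
  have hDC4 : 0 ≤ D * C4 := by positivity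
  refine falc_exE B (ι := ℕ) (fun ε n => (G n).box pS ε (i0 n) (k0 n)) (fun _ n => Zg n) φ
    (fun n i k => (i, k) ∈ (G n).I) (fun n i k => F n k i)
    A V hx hτ0 hτ1 (C := C) (C2 := C2) (by linarith) (by linarith) (C0 := 3) hJ
    (fun j => ν (Q j)) (fun _ _ => hZg) ?_ ?_ ?_ ?_ ?_ ?_ ?_ ?_
  · intro ε hε
    filter_upwards [hφ ε hε] with n hn k hk
    exact (hn k hk).trans (rpow_anti B n (by nlinarith))
  · intro ε hε
    filter_upwards [hF ε hε] with n hn k hk i hi i' hi'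
    exact (hn k hk i hi i' hi').trans (rpow_anti B n (by nlinarith))
  · -- size of the fibre
    intro ε hε
    filter_upwards [H.low pS hpS ε hε, h0] with n hn h0n
    refine le_trans (rpow_anti B n ?_) (hn _ _ h0n)
    nlinarith
  · -- cells
    intro ε hε
    have hCε : 0 < C * ε := by positivity
    have hC1ε : 0 < C1 * ε := by positivity
    filter_upwards [H.sub_loose_box pT r hpT hTr hCε, H.up pT hpT (D * (C * ε)) (by positivity),
      H.low r hr ε hε, hT ε hε, hlink ε hε] with n h1 h2 h3 h4 h5 k hk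
    have hpow : ∀ t : ℝ, 0 < B.d n ^ t := fun t => rpos B n t
    set T := ((G n).box pS ε (i0 n) (k0 n)).filter fun i => (i, k) ∈ (G n).I with hTdef
    have goal : (((T.image fun i => ⌊F n k i / B.d n ^ (x - C * ε)⌋).card : ℕ) : ℝ) ≤
        3 * B.d n ^ (-(ν pT - ν r) - (D * (D * C) + 1) * ε) := by
      rcases T.eq_empty_or_nonempty with hTe | ⟨t0, ht0⟩
      · rw [hTe]; simpa using (hpow _).le
      obtain ⟨b1, b2⟩ := Finset.mem_filter.1 ht0
      have key := cells_le_abs T ((G n).box pT (D * (C * ε)) t0 k) (fun i (_ : Unit) => F n k i)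
        (fun _ => B.d n ^ (x - C * ε)) (fun _ => hpow _) (m0 := B.d n ^ (-ν r + ε)) (by
          intro i hi
          obtain ⟨a1, a2⟩ := Finset.mem_filter.1 hi
          have hloose : (G n).loose pT (C * ε) k t0 i :=
            H.loose_mono (fun _ => le_rfl) (by nlinarith) (h4 k hk t0 b1 i a1 b2 a2)
          have hsub : (G n).box r ε i k ⊆ (G n).box r (C * ε) i k := by
            intro l hl
            obtain ⟨l1, l2⟩ := RCfg.mem_box.1 hl
            exact RCfg.mem_box.2 ⟨l1, H.loose_mono (fun _ => le_rfl) (by nlinarith) l2⟩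
          refine ⟨(G n).box r ε i k, hsub.trans (h1 k t0 i b2 a2 hloose), ?_, h3 i k a2⟩
          intro l hl _
          obtain ⟨l1, l2⟩ := RCfg.mem_box.1 hl
          refine (h5 k hk i a1 a2 l (H.memSlice.1 l1) l2).trans (rpow_anti B n ?_)
          nlinarith)
      simp only [Fintype.card_unit, pow_one] at key
      have e0 : (T.image fun i => ⌊F n k i / B.d n ^ (x - C * ε)⌋).card ≤
          (T.image fun i => fun _ : Unit => ⌊F n k i / B.d n ^ (x - C * ε)⌋).card := by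
        have : (T.image fun i => ⌊F n k i / B.d n ^ (x - C * ε)⌋) =
            (T.image fun i => fun _ : Unit => ⌊F n k i / B.d n ^ (x - C * ε)⌋).image
              fun c => c () := by
          rw [Finset.image_image]
          rfl
        rw [this]
        exact Finset.card_image_le
      have e1 : B.d n ^ (-ν r + ε) * B.d n ^ (ν r - ε) = 1 := by
        rw [← rpow_add']
        have : -ν r + ε + (ν r - ε) = 0 := by ring
        rw [this, Real.rpow_zero]
      calc (((T.image fun i => ⌊F n k i / B.d n ^ (x - C * ε)⌋).card : ℕ) : ℝ)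
          ≤ ((T.image fun i => fun _ : Unit => ⌊F n k i / B.d n ^ (x - C * ε)⌋).card : ℝ) := by
            exact_mod_cast e0
        _ = ((T.image fun i => fun _ : Unit => ⌊F n k i / B.d n ^ (x - C * ε)⌋).card : ℝ) *
            B.d n ^ (-ν r + ε) * B.d n ^ (ν r - ε) := by rw [mul_assoc, e1, mul_one]
        _ ≤ 3 * (((G n).box pT (D * (C * ε)) t0 k).card : ℝ) * B.d n ^ (ν r - ε) :=
            mul_le_mul_of_nonneg_right key (hpow _).le
        _ ≤ 3 * B.d n ^ (-ν pT - D * (D * (C * ε))) * B.d n ^ (ν r - ε) := by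
            refine mul_le_mul_of_nonneg_right ?_ (hpow _).le
            exact mul_le_mul_of_nonneg_left (h2 t0 k b2) (by norm_num)
        _ = _ := by
            rw [mul_assoc, ← rpow_add']
            congr 2
            ring
    refine goal.trans ?_
    refine mul_le_mul_of_nonneg_left (rpow_anti B n ?_) (by norm_num)
    rw [hC2]; nlinarith
  · -- alive
    intro ε hε
    filter_upwards [hal ε hε] with n hn i hi
    refine le_trans ?_ (hn i hi _ (Finset.filter_subset _ _) ?_)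
    · exact mul_le_mul_of_nonneg_right (rpow_anti B n (by nlinarith)) (Nat.cast_nonneg _)
    · intro k hk hI
      exact Finset.mem_filter.2 ⟨hk, hI⟩
  · intro ε hε
    filter_upwards [hV ε hε] with n hn i hi i' hi'
    exact (hn i hi i' hi').trans (rpow_anti B n (by nlinarith))
  · -- close pairs
    intro j hj ε hε
    have hC4ε : 0 < C4 * ε := by positivity
    filter_upwards [hQ' j hj ε hε, H.up (Q j) (hQm j hj) (C4 * ε) hC4ε] with n h1 h2 i hi
    have hI := H.memSlice.1 (RCfg.box_subset_slice hi)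
    have hsub : (((G n).box pS ε (i0 n) (k0 n)).filter fun i' => |V n i' - V n i| ≤
        B.d n ^ (sc x J j - C * ε) ∧ |A n i' - A n i| ≤ B.d n ^ (sc x J j - (2 * C + 1) * ε)) ⊆
        (G n).box (Q j) (C4 * ε) i (k0 n) := by
      intro i' hi'
      obtain ⟨a1, a2, a3⟩ := Finset.mem_filter.1 hi'
      refine RCfg.mem_box.2 ⟨RCfg.box_subset_slice a1, h1 i hi i' a1 (a2.trans ?_) a3⟩
      exact rpow_anti B n (by nlinarith)
    refine le_trans (mod_cast Finset.card_le_card hsub) ((h2 i (k0 n) hI).trans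
      (rpow_anti B n ?_))
    rw [hC2]
    nlinarith
  · -- Frostman
    intro y hy0 hyx ε hε
    rcases le_total (y - ε) 0 with hle | hle
    · refine Filter.Eventually.of_forall fun n k hk => ?_
      have b3 : (((Zg n).filter fun k' => |φ n k' - φ n k| ≤ B.d n ^ (y - ε)).card : ℝ) ≤
          (Zg n).card := by
        exact_mod_cast Finset.card_le_card (Finset.filter_subset _ _)
      refine b3.trans ?_
      have b4 : (1 : ℝ) ≤ B.d n ^ (τ * y - C2 * ε) := by
        apply Real.one_le_rpow_of_pos_of_le_one_of_nonpos (B.pos n) (B.lt n).le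
        have : τ * y ≤ ε := by nlinarith
        rw [hC2]
        nlinarith
      nlinarith [(Nat.cast_nonneg (Zg n).card : (0:ℝ) ≤ _)]
    · filter_upwards [hfr (y - ε) hle (by linarith) ε hε] with n hn k hk
      refine (hn k hk _ (Finset.filter_subset _ _) ?_).trans ?_
      · intro k' hk'
        exact (Finset.mem_filter.1 hk').2
      · refine mul_le_mul_of_nonneg_right (rpow_anti B n ?_) (Nat.cast_nonneg _)
        rw [hC2]
        nlinarith

/-- elementary: from all `J` to the rate -/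
theorem frate_of_forall {x τ f g : ℝ} (hx : 0 < x) (hτ0 : 0 ≤ τ) (hτ1 : τ ≤ 1) (hg : 1 - τ < g)
    {a : ℝ → ℝ} {b : ℝ}
    (h : ∀ J : ℕ, 0 < J → ∃ j ≤ J, a (sc x J j) + τ * sc x J j + x - 2 * sc x J (j + 1) ≤ b)
    (hlow : ∀ t : ℝ, 0 ≤ t → t ≤ x → (f + g) * t ≤ a t) (hup : b ≤ f * x) : 1 ≤ f := by
  by_contra hcon
  push Not at hcon
  set b' := min (1 - f) (g - (1 - τ)) with hb
  have hb0 : 0 < b' := lt_min (by linarith) (by linarith)
  obtain ⟨J, hJ⟩ := exists_nat_gt (2 / b')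
  have hJ0 : 0 < J := by
    rcases Nat.eq_zero_or_pos J with h | h
    · rw [h] at hJ
      have : 0 ≤ 2 / b' := by positivity
      simp at hJ
      linarith
    · exact h
  have hJr : (0 : ℝ) < J := by exact_mod_cast hJ0
  obtain ⟨j, hj, h⟩ := h J hJ0
  have h1 := hlow _ (sc_nonneg hx.le J j) (sc_le hx.le hJ0 hj)
  rw [sc_succ x hJ0] at h
  set t := sc x J j with ht
  have ht0 : 0 ≤ t := sc_nonneg hx.le J j
  have htx : t ≤ x := sc_le hx.le hJ0 hj
  have h2 : (1 - f) * (x - t) + (g - (1 - τ)) * t ≤ 2 * (x / J) := by nlinarith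
  have h3 : b' * x ≤ (1 - f) * (x - t) + (g - (1 - τ)) * t := by
    have e1 : b' ≤ 1 - f := min_le_left _ _
    have e2 : b' ≤ g - (1 - τ) := min_le_right _ _
    nlinarith
  have h4 : b' * x ≤ 2 * (x / J) := h3.trans h2
  have h5 : 2 < b' * J := by rwa [div_lt_iff₀ hb0, mul_comm] at hJ
  have h6 : 2 * (x / J) < b' * x := by
    rw [mul_div_assoc', div_lt_iff₀ hJr]
    nlinarith
  linarith

/-- **Falconer, rate form**, relative coordinates with walls (hypotheses of `kauf_rate_R` with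
`1 - τ < g`). -/
theorem falc_rate_R (H : RUnif B G Leg ν D) (i0 k0 : ℕ → ℕ)
    (h0 : ∀ᶠ n in (U : Filter ℕ), (i0 n, k0 n) ∈ (G n).I) (pS pT r : κ → ℝ)
    (hpS : pS ∈ Leg) (hpT : pT ∈ Leg) (hr : r ∈ Leg) (hTr : ∀ j, pT j ≤ r j) {x τ : ℝ}
    (hx : 0 < x) (hτ0 : 0 ≤ τ) (hτ1 : τ ≤ 1)
    (F : ℕ → ℕ → ℕ → ℝ) (A V : ℕ → ℕ → ℝ) (φ : ℕ → ℕ → ℝ) (Zg : ℕ → Finset ℕ)
    (hZg : ∀ᶠ n in (U : Filter ℕ), (Zg n).Nonempty) (Q : ℝ → κ → ℝ)
    (hQm : ∀ t : ℝ, 0 ≤ t → t ≤ x → Q t ∈ Leg) {C1 : ℝ} (hC1 : 0 < C1)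
    (hφ : ∀ ε : ℝ, 0 < ε → ∀ᶠ n in (U : Filter ℕ), ∀ k ∈ Zg n, |φ n k| ≤ B.d n ^ (-(C1 * ε)))
    (hV : ∀ ε : ℝ, 0 < ε → ∀ᶠ n in (U : Filter ℕ), ∀ i ∈ (G n).box pS ε (i0 n) (k0 n),
      ∀ i' ∈ (G n).box pS ε (i0 n) (k0 n), |V n i - V n i'| ≤ B.d n ^ (-(C1 * ε)))
    (hF : ∀ ε : ℝ, 0 < ε → ∀ᶠ n in (U : Filter ℕ), ∀ k ∈ Zg n,
      ∀ i ∈ (G n).box pS ε (i0 n) (k0 n), ∀ i' ∈ (G n).box pS ε (i0 n) (k0 n),
      |F n k i - F n k i' - ((A n i - A n i') + φ n k * (V n i - V n i'))|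
        ≤ B.d n ^ (x - C1 * ε))
    (hlink : ∀ ε : ℝ, 0 < ε → ∀ᶠ n in (U : Filter ℕ), ∀ k ∈ Zg n,
      ∀ i ∈ (G n).box pS ε (i0 n) (k0 n), (i, k) ∈ (G n).I → ∀ l, (l, k) ∈ (G n).I →
      (G n).loose r ε k i l → |F n k l - F n k i| ≤ B.d n ^ (x - C1 * ε))
    (hT : ∀ ε : ℝ, 0 < ε → ∀ᶠ n in (U : Filter ℕ), ∀ k ∈ Zg n,
      ∀ i ∈ (G n).box pS ε (i0 n) (k0 n), ∀ i' ∈ (G n).box pS ε (i0 n) (k0 n),
      (i, k) ∈ (G n).I → (i', k) ∈ (G n).I → (G n).loose pT (C1 * ε) k i i')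
    (hal : ∀ ε : ℝ, 0 < ε → ∀ᶠ n in (U : Filter ℕ), ∀ i ∈ (G n).box pS ε (i0 n) (k0 n),
      ∀ T ⊆ Zg n, (∀ k ∈ Zg n, (i, k) ∈ (G n).I → k ∈ T) →
      B.d n ^ (C1 * ε) * ((Zg n).card : ℝ) ≤ (T.card : ℝ))
    (hQ : ∀ C3 : ℝ, 0 < C3 → ∃ C4 : ℝ, 0 < C4 ∧ ∀ t : ℝ, 0 ≤ t → t ≤ x → ∀ ε : ℝ, 0 < ε →
      ∀ᶠ n in (U : Filter ℕ),
      ∀ i ∈ (G n).box pS ε (i0 n) (k0 n), ∀ i' ∈ (G n).box pS ε (i0 n) (k0 n),
      |V n i' - V n i| ≤ B.d n ^ (t - C3 * ε) → |A n i' - A n i| ≤ B.d n ^ (t - C3 * ε) →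
      (G n).loose (Q t) (C4 * ε) (k0 n) i i')
    (hfr : ∀ y : ℝ, 0 ≤ y → y ≤ x → ∀ ε : ℝ, 0 < ε → ∀ᶠ n in (U : Filter ℕ), ∀ k ∈ Zg n,
      ∀ T ⊆ Zg n, (∀ k' ∈ T, |φ n k' - φ n k| ≤ B.d n ^ y) →
      (T.card : ℝ) ≤ B.d n ^ (τ * y - ε) * ((Zg n).card : ℝ))
    {f g : ℝ} (hg : 1 - τ < g) (hlow : ∀ t : ℝ, 0 ≤ t → t ≤ x → (f + g) * t ≤ ν pS - ν (Q t))
    (hup : ν pT - ν r ≤ f * x) : 1 ≤ f := by
  refine frate_of_forall hx hτ0 hτ1 hg (a := fun t => ν pS - ν (Q t)) (b := ν pT - ν r) ?_ hlow hup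
  intro J hJ0
  refine falc_R H i0 k0 h0 pS pT r hpS hpT hr hTr hx hτ0 hτ1 F A V φ Zg hZg hJ0
    (fun j => Q (sc x J j)) (fun j hj => hQm _ (sc_nonneg hx.le J j) (sc_le hx.le hJ0 hj)) hC1
    hφ hV hF hlink hT hal ?_ hfr
  intro C3 hC3
  obtain ⟨C4, hC4, h4⟩ := hQ C3 hC3
  exact ⟨C4, hC4, fun j hj => h4 _ (sc_nonneg hx.le J j) (sc_le hx.le hJ0 hj)⟩

end Crest.Agent.R116.Kr710
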