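import Crest.Agent.R116.Kr3_710

/-!
# R116, K side: the one-slice facts for the slot `H` (helper710)

Light rays at ONE height: `H_{ll'} = ΔH - c_l ΔX`.  The lines of one slice in a box are the lines
`P = h - c x` of the plane `(x, h)`, so Kaufman / Falconer with shading apply with NO evolution in
the height:  `hx_forall`, `hx_kauf` (`h ≤ x` as soon as the fan `C` is not empty), `hx_falc`
(`m > x ⇒ h = 0`).
-/

set_option autoImplicit false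
set_option linter.unusedVariables false
set_option linter.unusedSectionVars false

open Filter Topology Finset

namespace Crest.Agent.R116.Kr710

open Crest.Agent.R138.Ex926 (Base U)
open Crest.Agent.R138.Fal658 Crest.Agent.R136.Gf356

variable {κ : Type} [DecidableEq κ]

/-- refine the three slots `jC, jX, jH` -/
def Eb (pS : κ → ℝ) (jC jX jH : κ) (t1 t2 t3 : ℝ) : κ → ℝ := fun j =>
  if j = jC then pS j + t1 else if j = jX then pS j + t2 else if j = jH then pS j + t3 else pS j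

theorem le_Eb {pS : κ → ℝ} {jC jX jH : κ} {t1 t2 t3 : ℝ} (h1 : 0 ≤ t1) (h2 : 0 ≤ t2) (h3 : 0 ≤ t3)
    (j : κ) : pS j ≤ Eb pS jC jX jH t1 t2 t3 j := by
  unfold Eb
  split_ifs <;> linarith

theorem Eb_C {pS : κ → ℝ} {jC jX jH : κ} {t1 t2 t3 : ℝ} :
    Eb pS jC jX jH t1 t2 t3 jC = pS jC + t1 := by simp [Eb]

theorem Eb_X {pS : κ → ℝ} {jC jX jH : κ} {t1 t2 t3 : ℝ} (h : jC ≠ jX) :
    Eb pS jC jX jH t1 t2 t3 jX = pS jX + t2 := by simp [Eb, h.symm]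

theorem Eb_H {pS : κ → ℝ} {jC jX jH : κ} {t1 t2 t3 : ℝ} (h : jC ≠ jH) (h' : jX ≠ jH) :
    Eb pS jC jX jH t1 t2 t3 jH = pS jH + t3 := by simp [Eb, h.symm, h'.symm]

theorem Eb_zero {pS : κ → ℝ} {jC jX jH : κ} : Eb pS jC jX jH 0 0 0 = pS := by
  funext j; simp [Eb]

/-- sums of three powers -/
theorem pw3 (B : Base) {n : ℕ} {ε e a1 a2 a3 x1 x2 x3 : ℝ} (h8 : 8 ≤ B.d n ^ (-ε))
    (h1 : x1 ≤ B.d n ^ a1) (h2 : x2 ≤ B.d n ^ a2) (h3 : x3 ≤ B.d n ^ a3)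
    (e1 : e + ε ≤ a1) (e2 : e + ε ≤ a2) (e3 : e + ε ≤ a3) : x1 + x2 + x3 ≤ B.d n ^ e := by
  have p1 := h1.trans (rpow_anti B n e1)
  have p2 := h2.trans (rpow_anti B n e2)
  have p3 := h3.trans (rpow_anti B n e3)
  have q : B.d n ^ e = B.d n ^ (e + ε) * B.d n ^ (-ε) := by
    rw [← rpow_add']; congr 1; ring
  have q0 := rpos B n (e + ε)
  rw [q]
  nlinarith

theorem pw2 (B : Base) {n : ℕ} {ε e a1 a2 x1 x2 : ℝ} (h8 : 8 ≤ B.d n ^ (-ε))
    (h1 : x1 ≤ B.d n ^ a1) (h2 : x2 ≤ B.d n ^ a2)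
    (e1 : e + ε ≤ a1) (e2 : e + ε ≤ a2) : x1 + x2 ≤ B.d n ^ e := by
  have p1 := h1.trans (rpow_anti B n e1)
  have p2 := h2.trans (rpow_anti B n e2)
  have q : B.d n ^ e = B.d n ^ (e + ε) * B.d n ^ (-ε) := by
    rw [← rpow_add']; congr 1; ring
  have q0 := rpos B n (e + ε)
  rw [q]
  nlinarith

/-- the data of the one-slice facts -/
structure SlabH (B : Base) (G : ℕ → RCfg κ) (i0 k0 : ℕ → ℕ) (pS : κ → ℝ) (jC jX jH : κ)
    (c x h : ℕ → ℕ → ℝ) (y : ℝ) : Prop where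
  ne1 : jC ≠ jX
  ne2 : jC ≠ jH
  ne3 : jX ≠ jH
  co : ∀ C0 : ℝ, 0 < C0 → ∃ C1 : ℝ, 0 < C1 ∧ ∀ ε : ℝ, 0 < ε → ∀ᶠ n in (U : Filter ℕ),
    ∀ l ∈ (G n).box pS (C0 * ε) (i0 n) (k0 n), |c n l| ≤ B.d n ^ (-(C1 * ε)) ∧
      |x n l| ≤ B.d n ^ (-(C1 * ε)) ∧ ∀ l' ∈ (G n).box pS (C0 * ε) (i0 n) (k0 n),
      |(G n).rel (k0 n) l l' jC| ≤ B.d n ^ (pS jC - C1 * ε) * (|c n l' - c n l| + B.d n ^ y) ∧
      |c n l' - c n l| ≤ B.d n ^ (-(C1 * ε)) *
        (B.d n ^ (-pS jC) * |(G n).rel (k0 n) l l' jC| + B.d n ^ y) ∧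
      |(G n).rel (k0 n) l l' jX| ≤ B.d n ^ (pS jX - C1 * ε) * (|x n l' - x n l| + B.d n ^ y) ∧
      |x n l' - x n l| ≤ B.d n ^ (-(C1 * ε)) *
        (B.d n ^ (-pS jX) * |(G n).rel (k0 n) l l' jX| + B.d n ^ y) ∧
      |B.d n ^ (-pS jH) * (G n).rel (k0 n) l l' jH -
        ((h n l' - h n l) - c n l * (x n l' - x n l))| ≤ B.d n ^ (y - C1 * ε)

/-- local comparison of one configuration -/
structure Loc (ρ : ℝ) (rel : ℕ → ℕ → κ → ℝ) (T0 : Finset ℕ) (pS : κ → ℝ) (jC jX jH : κ)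
    (c x h : ℕ → ℝ) (y C1 ε : ℝ) : Prop where
  cbd : ∀ l ∈ T0, |c l| ≤ ρ ^ (-(C1 * ε))
  xbd : ∀ l ∈ T0, |x l| ≤ ρ ^ (-(C1 * ε))
  ca : ∀ l ∈ T0, ∀ l' ∈ T0, ∀ s ≤ y, ∀ K : ℝ, 0 ≤ K → |rel l l' jC| ≤ ρ ^ (pS jC + s - K * ε) →
    |c l' - c l| ≤ ρ ^ (s - (C1 + K + 1) * ε)
  cb : ∀ l ∈ T0, ∀ l' ∈ T0, ∀ s ≤ y, ∀ K : ℝ, 0 ≤ K → |c l' - c l| ≤ ρ ^ (s - K * ε) →
    |rel l l' jC| ≤ ρ ^ (pS jC + s - (C1 + K + 1) * ε)
  xa : ∀ l ∈ T0, ∀ l' ∈ T0, ∀ s ≤ y, ∀ K : ℝ, 0 ≤ K → |rel l l' jX| ≤ ρ ^ (pS jX + s - K * ε) →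
    |x l' - x l| ≤ ρ ^ (s - (C1 + K + 1) * ε)
  xb : ∀ l ∈ T0, ∀ l' ∈ T0, ∀ s ≤ y, ∀ K : ℝ, 0 ≤ K → |x l' - x l| ≤ ρ ^ (s - K * ε) →
    |rel l l' jX| ≤ ρ ^ (pS jX + s - (C1 + K + 1) * ε)
  ha : ∀ l ∈ T0, ∀ l' ∈ T0, ∀ s ≤ y, ∀ K : ℝ, 0 ≤ K → |rel l l' jH| ≤ ρ ^ (pS jH + s - K * ε) →
    |(h l' - h l) - c l * (x l' - x l)| ≤ ρ ^ (s - (C1 + K + 1) * ε)
  hb : ∀ l ∈ T0, ∀ l' ∈ T0, ∀ s ≤ y, ∀ K : ℝ, 0 ≤ K →
    |(h l' - h l) - c l * (x l' - x l)| ≤ ρ ^ (s - K * ε) →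
    |rel l l' jH| ≤ ρ ^ (pS jH + s - (C1 + K + 1) * ε)

theorem SlabH.loc {B : Base} {G : ℕ → RCfg κ} {i0 k0 : ℕ → ℕ} {pS : κ → ℝ} {jC jX jH : κ}
    {c x h : ℕ → ℕ → ℝ} {y : ℝ} (S : SlabH B G i0 k0 pS jC jX jH c x h y) (C0 : ℝ) (hC0 : 0 < C0) :
    ∃ C1 : ℝ, 0 < C1 ∧ ∀ ε : ℝ, 0 < ε → ∀ᶠ n in (U : Filter ℕ),
      Loc (B.d n) ((G n).rel (k0 n)) ((G n).box pS (C0 * ε) (i0 n) (k0 n)) pS jC jX jH
        (c n) (x n) (h n) y C1 ε := by
  obtain ⟨C1, hC1, hco⟩ := S.co C0 hC0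
  refine ⟨C1, hC1, ?_⟩
  intro ε hε
  filter_upwards [hco ε hε, ev_const_le B hε 8] with n hn h8
  have hpow : ∀ t : ℝ, 0 < B.d n ^ t := fun t => rpos B n t
  have hC1ε : 0 < C1 * ε := by positivity
  -- generic: from `u ≤ ρ^p (v + ρ^y)`
  have gen : ∀ p s K u v : ℝ, s ≤ y → 0 ≤ K → u ≤ B.d n ^ p * (v + B.d n ^ y) →
      v ≤ B.d n ^ (s - K * ε) → u ≤ B.d n ^ (p + s - (K + 1) * ε) := by
    intro p s K u v hs hK hu hv
    have hKε : 0 ≤ K * ε := by positivity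
    have e1 : v + B.d n ^ y ≤ B.d n ^ (s - (K + 1) * ε) :=
      pw2 B h8 hv le_rfl (by linarith) (by nlinarith)
    calc u ≤ B.d n ^ p * (v + B.d n ^ y) := hu
      _ ≤ B.d n ^ p * B.d n ^ (s - (K + 1) * ε) := mul_le_mul_of_nonneg_left e1 (hpow _).le
      _ = _ := by rw [← rpow_add']; congr 1; ring
  have scale : ∀ p s K u : ℝ, |u| ≤ B.d n ^ (p + s - K * ε) →
      B.d n ^ (-p) * |u| ≤ B.d n ^ (s - K * ε) := by
    intro p s K u hu
    calc B.d n ^ (-p) * |u| ≤ B.d n ^ (-p) * B.d n ^ (p + s - K * ε) :=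
          mul_le_mul_of_nonneg_left hu (hpow _).le
      _ = _ := by rw [← rpow_add']; congr 1; ring
  refine ⟨fun l hl => (hn l hl).1, fun l hl => (hn l hl).2.1, ?_, ?_, ?_, ?_, ?_, ?_⟩
  · intro l hl l' hl' s hs K hK hrel
    obtain ⟨h1, h2, h3, h4, h5⟩ := (hn l hl).2.2 l' hl'
    refine (gen _ s K _ _ hs hK h2 (scale _ _ _ _ hrel)).trans (rpow_anti B n (by linarith))
  · intro l hl l' hl' s hs K hK hrel
    obtain ⟨h1, h2, h3, h4, h5⟩ := (hn l hl).2.2 l' hl'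
    refine (gen _ s K _ _ hs hK h1 hrel).trans (rpow_anti B n (by linarith))
  · intro l hl l' hl' s hs K hK hrel
    obtain ⟨h1, h2, h3, h4, h5⟩ := (hn l hl).2.2 l' hl'
    refine (gen _ s K _ _ hs hK h4 (scale _ _ _ _ hrel)).trans (rpow_anti B n (by linarith))
  · intro l hl l' hl' s hs K hK hrel
    obtain ⟨h1, h2, h3, h4, h5⟩ := (hn l hl).2.2 l' hl'
    refine (gen _ s K _ _ hs hK h3 hrel).trans (rpow_anti B n (by linarith))
  · intro l hl l' hl' s hs K hK hrel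
    obtain ⟨h1, h2, h3, h4, h5⟩ := (hn l hl).2.2 l' hl'
    have e1 : |B.d n ^ (-pS jH) * (G n).rel (k0 n) l l' jH| ≤ B.d n ^ (s - K * ε) := by
      rw [abs_mul, abs_of_pos (hpow _)]
      exact scale _ _ _ _ hrel
    have e2 : |(h n l' - h n l) - c n l * (x n l' - x n l)| ≤
        |B.d n ^ (-pS jH) * (G n).rel (k0 n) l l' jH| +
        |B.d n ^ (-pS jH) * (G n).rel (k0 n) l l' jH -
          ((h n l' - h n l) - c n l * (x n l' - x n l))| := by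
      have := abs_sub_abs_le_abs_sub ((h n l' - h n l) - c n l * (x n l' - x n l))
        (B.d n ^ (-pS jH) * (G n).rel (k0 n) l l' jH)
      rw [abs_sub_comm ((h n l' - h n l) - c n l * (x n l' - x n l))] at this
      linarith
    refine e2.trans (pw2 B h8 e1 h5 ?_ ?_)
    · have : 0 ≤ C1 * ε := hC1ε.le
      nlinarith
    · have : 0 ≤ K * ε := by positivity
      nlinarith
  · intro l hl l' hl' s hs K hK hrel
    obtain ⟨h1, h2, h3, h4, h5⟩ := (hn l hl).2.2 l' hl'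
    have e2 : |B.d n ^ (-pS jH) * (G n).rel (k0 n) l l' jH| ≤
        |(h n l' - h n l) - c n l * (x n l' - x n l)| +
        |B.d n ^ (-pS jH) * (G n).rel (k0 n) l l' jH -
          ((h n l' - h n l) - c n l * (x n l' - x n l))| := by
      have := abs_sub_abs_le_abs_sub (B.d n ^ (-pS jH) * (G n).rel (k0 n) l l' jH)
        ((h n l' - h n l) - c n l * (x n l' - x n l))
      linarith
    have e3 : |B.d n ^ (-pS jH) * (G n).rel (k0 n) l l' jH| ≤ B.d n ^ (s - (C1 + K + 1) * ε) := by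
      refine e2.trans (pw2 B h8 hrel h5 ?_ ?_)
      · have : 0 ≤ C1 * ε := hC1ε.le
        nlinarith
      · have : 0 ≤ K * ε := by positivity
        nlinarith
    have e4 : |(G n).rel (k0 n) l l' jH| = B.d n ^ (pS jH) *
        |B.d n ^ (-pS jH) * (G n).rel (k0 n) l l' jH| := by
      rw [abs_mul, abs_of_pos (hpow _), ← mul_assoc, ← rpow_add', add_neg_cancel, Real.rpow_zero,
        one_mul]
    rw [e4]
    calc B.d n ^ (pS jH) * |B.d n ^ (-pS jH) * (G n).rel (k0 n) l l' jH|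
        ≤ B.d n ^ (pS jH) * B.d n ^ (s - (C1 + K + 1) * ε) :=
          mul_le_mul_of_nonneg_left e3 (hpow _).le
      _ = _ := by rw [← rpow_add']; congr 1; ring

/-- loose `Eb`-boxes -/
theorem loose_Eb {B : Base} {G : ℕ → RCfg κ} {Leg : Set (κ → ℝ)} {ν : (κ → ℝ) → ℝ} {D : ℝ}
    (H : RUnif B G Leg ν D) {pS : κ → ℝ} {jC jX jH : κ} (ne1 : jC ≠ jX) (ne2 : jC ≠ jH)
    (ne3 : jX ≠ jH) {t1 t2 t3 e1 e : ℝ} {n k l l' : ℕ} (h : (G n).loose pS e1 k l l')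
    (he : e1 ≤ e) (hC : |(G n).rel k l l' jC| ≤ B.d n ^ (pS jC + t1 - e))
    (hX : |(G n).rel k l l' jX| ≤ B.d n ^ (pS jX + t2 - e))
    (hH : |(G n).rel k l l' jH| ≤ B.d n ^ (pS jH + t3 - e)) :
    (G n).loose (Eb pS jC jX jH t1 t2 t3) e k l l' := by
  intro j
  rw [H.base n]
  by_cases h1 : j = jC
  · subst h1; rw [Eb_C]; exact hC
  by_cases h2 : j = jX
  · subst h2; rw [Eb_X ne1]; exact hX
  by_cases h3 : j = jH
  · subst h3; rw [Eb_H ne2 ne3]; exact hH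
  · have : Eb pS jC jX jH t1 t2 t3 j = pS j := by simp [Eb, h1, h2, h3]
    rw [this]
    refine (h j).trans ?_
    rw [H.base n]
    exact rpow_anti B n (by linarith)

/-- floors and labels -/
theorem floor_labels {ι : Type*} [DecidableEq ι] (S : Finset ι) (F : ι → ℝ) (lab : ι → ℕ)
    {g : ℝ} (hg : 0 < g) (h : ∀ i ∈ S, ∀ i' ∈ S, lab i = lab i' → |F i - F i'| ≤ 4 * g) :
    ((S.image fun i => ⌊F i / g⌋).card : ℝ) ≤ 11 * ((S.image lab).card : ℝ) := by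
  classical
  rcases S.eq_empty_or_nonempty with rfl | ⟨i00, _⟩
  · simp
  have : Nonempty ι := ⟨i00⟩
  -- each integer of the image has a witness
  have hw : ∀ v ∈ S.image (fun i => ⌊F i / g⌋), ∃ i ∈ S, ⌊F i / g⌋ = v := by
    intro v hv
    obtain ⟨i, hi, rfl⟩ := Finset.mem_image.1 hv
    exact ⟨i, hi, rfl⟩
  choose! w hw1 hw2 using hw
  have key := Finset.card_le_mul_card_image (f := fun v => lab (w v))
    (S.image (fun i => ⌊F i / g⌋)) 11 (by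
      intro a ha
      obtain ⟨v0, hv0, rfl⟩ := Finset.mem_image.1 ha
      have hsub : (S.image (fun i => ⌊F i / g⌋)).filter (fun v => lab (w v) = lab (w v0)) ⊆
          Finset.Icc (v0 - 5) (v0 + 5) := by
        intro v hv
        obtain ⟨hv1, hv2⟩ := Finset.mem_filter.1 hv
        have e1 := h _ (hw1 v hv1) _ (hw1 v0 hv0) hv2
        have e2 : |F (w v) / g - F (w v0) / g| ≤ 4 := by
          rw [← sub_div, abs_div, abs_of_pos hg, div_le_iff₀ hg]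
          exact e1
        have e3 := hw2 v hv1
        have e4 := hw2 v0 hv0
        have a1 := Int.floor_le (F (w v) / g)
        have a2 := Int.lt_floor_add_one (F (w v) / g)
        have a3 := Int.floor_le (F (w v0) / g)
        have a4 := Int.lt_floor_add_one (F (w v0) / g)
        rw [e3] at a1 a2
        rw [e4] at a3 a4
        obtain ⟨b1, b2⟩ := abs_le.1 e2
        rw [Finset.mem_Icc]
        constructor
        · have : (v0 : ℝ) - 5 ≤ v := by linarith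
          exact_mod_cast this
        · have : (v : ℝ) ≤ v0 + 5 := by linarith
          exact_mod_cast this
      refine (Finset.card_le_card hsub).trans ?_
      rw [Int.card_Icc]
      have : (v0 + 5 + 1 - (v0 - 5)).toNat = 11 := by
        have : v0 + 5 + 1 - (v0 - 5) = 11 := by ring
        rw [this]; rfl
      omega)
  have key2 : ((S.image (fun i => ⌊F i / g⌋)).image fun v => lab (w v)).card ≤
      (S.image lab).card := by
    refine Finset.card_le_card ?_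
    intro a ha
    obtain ⟨v, hv, rfl⟩ := Finset.mem_image.1 ha
    exact Finset.mem_image_of_mem _ (hw1 v hv)
  have : (S.image (fun i => ⌊F i / g⌋)).card ≤ 11 * (S.image lab).card :=
    key.trans (Nat.mul_le_mul_left _ key2)
  exact_mod_cast this

end Crest.Agent.R116.Kr710
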