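import Crest.Agent.R116.Kr5_710

/-!
# R116, K side: the one-slice facts for the slot `H`, boxes with groups of slots (helper710)
-/

set_option autoImplicit false
set_option linter.unusedVariables false
set_option linter.unusedSectionVars false

open Filter Topology Finset

namespace Crest.Agent.R116.Kr710

open Crest.Agent.R138.Ex926 (Base U)
open Crest.Agent.R138.Fal658 Crest.Agent.R136.Gf356

variable {κ : Type}

/-- the data of the one-slice facts, groups of slots: boxes `E t1 t2 t3` (refined by `t1` in `C`, `t2`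
in `X`, `t3` in `H`) and functions `c, x, h` which describe them -/
structure SlabE (B : Base) (G : ℕ → RCfg κ) (i0 k0 : ℕ → ℕ) (pS : κ → ℝ)
    (E : ℝ → ℝ → ℝ → κ → ℝ) (c x h : ℕ → ℕ → ℝ) (y : ℝ) : Prop where
  E0 : E 0 0 0 = pS
  le : ∀ t1 t2 t3 : ℝ, 0 ≤ t1 → 0 ≤ t2 → 0 ≤ t3 → ∀ j, pS j ≤ E t1 t2 t3 j
  le1 : ∀ j, E 0 y 0 j ≤ E 0 y y j
  bd : ∀ C0 : ℝ, 0 < C0 → ∃ K : ℝ, 0 < K ∧ ∀ ε : ℝ, 0 < ε → ∀ᶠ n in (U : Filter ℕ),
    ∀ l ∈ (G n).box pS (C0 * ε) (i0 n) (k0 n), |c n l| ≤ B.d n ^ (-(K * ε)) ∧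
      |x n l| ≤ B.d n ^ (-(K * ε))
  la : ∀ C0 : ℝ, 0 < C0 → ∀ K : ℝ, 0 < K → ∃ K' : ℝ, 0 < K' ∧
    ∀ s1 s2 s3 : ℝ, 0 ≤ s1 → s1 ≤ y → 0 ≤ s2 → s2 ≤ y → 0 ≤ s3 → s3 ≤ y →
    ∀ ε : ℝ, 0 < ε → ∀ᶠ n in (U : Filter ℕ),
    ∀ l ∈ (G n).box pS (C0 * ε) (i0 n) (k0 n), ∀ l' ∈ (G n).box pS (C0 * ε) (i0 n) (k0 n),
    (G n).loose (E s1 s2 s3) (K * ε) (k0 n) l l' →
      |c n l' - c n l| ≤ B.d n ^ (s1 - K' * ε) ∧ |x n l' - x n l| ≤ B.d n ^ (s2 - K' * ε) ∧
      |(h n l' - h n l) - c n l * (x n l' - x n l)| ≤ B.d n ^ (s3 - K' * ε)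
  lb : ∀ C0 : ℝ, 0 < C0 → ∀ K : ℝ, 0 < K → ∃ K' : ℝ, 0 < K' ∧
    ∀ s1 s2 s3 : ℝ, 0 ≤ s1 → s1 ≤ y → 0 ≤ s2 → s2 ≤ y → 0 ≤ s3 → s3 ≤ y →
    ∀ ε : ℝ, 0 < ε → ∀ᶠ n in (U : Filter ℕ),
    ∀ l ∈ (G n).box pS (C0 * ε) (i0 n) (k0 n), ∀ l' ∈ (G n).box pS (C0 * ε) (i0 n) (k0 n),
      |c n l' - c n l| ≤ B.d n ^ (s1 - K * ε) → |x n l' - x n l| ≤ B.d n ^ (s2 - K * ε) →
      |(h n l' - h n l) - c n l * (x n l' - x n l)| ≤ B.d n ^ (s3 - K * ε) →
      (G n).loose (E s1 s2 s3) (K' * ε) (k0 n) l l'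

set_option maxHeartbeats 1600000 in
/-- **one-slice inequality for the slot `H`**, boxes with groups of slots -/
theorem hxE_forall {B : Base} {G : ℕ → RCfg κ} {Leg : Set (κ → ℝ)} {ν : (κ → ℝ) → ℝ} {D : ℝ}
    (H : RUnif B G Leg ν D) (i0 k0 : ℕ → ℕ)
    (h0 : ∀ᶠ n in (U : Filter ℕ), (i0 n, k0 n) ∈ (G n).I) {pS : κ → ℝ}
    {E : ℝ → ℝ → ℝ → κ → ℝ}
    {c x h : ℕ → ℕ → ℝ} {y : ℝ} (hy : 0 < y) (S : SlabE B G i0 k0 pS E c x h y)
    (lS : pS ∈ Leg) (l1 : ∀ t, 0 ≤ t → t ≤ y → E t 0 t ∈ Leg)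
    (l2 : ∀ t, 0 ≤ t → t ≤ y → E 0 t 0 ∈ Leg) (l3 : E 0 y y ∈ Leg)
    (l4 : E y y y ∈ Leg) {a : ℝ} (ha0 : 0 ≤ a) (ha1 : a ≤ 1)
    (r3 : ∀ t, 0 ≤ t → t ≤ y → a * t ≤ ν pS - ν (E 0 t 0))
    (r4 : ν pS - ν (E 0 y 0) ≤ ν (E y 0 y) - ν (E y y y))
    {J : ℕ} (hJ : 0 < J) :
    (∃ j ≤ J, ν pS - ν (E (sc y J j) 0 (sc y J j)) + a * (y - sc y J (j + 1)) ≤
        ν (E 0 y 0) - ν (E 0 y y)) ∧
      ∃ j ≤ J, ν pS - ν (E (sc y J j) 0 (sc y J j)) + a * sc y J j + y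
        - 2 * sc y J (j + 1) ≤ ν (E 0 y 0) - ν (E 0 y y) := by
  classical
  have hD := H.D1
  have hD0 : 0 < D := by linarith
  have hDD : 1 ≤ D ^ 2 := one_le_pow₀ hD
  have hD4 : 1 ≤ D ^ 4 := one_le_pow₀ hD
  have hDle2 : D ≤ D ^ 2 := by nlinarith
  have h24 : D ^ 2 ≤ D ^ 4 := pow_le_pow_right₀ hD (by norm_num)
  have lE0y0 : E 0 y 0 ∈ Leg := l2 y hy.le le_rfl
  have lEy0y : E y 0 y ∈ Leg := l1 y hy.le le_rfl
  have leE := S.le
  have hy0 := hy.le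
  -- constants
  obtain ⟨Kb, hKb, hbd⟩ := S.bd (D ^ 2) (by positivity)
  obtain ⟨L0, hL0, hla0⟩ := S.la (D ^ 2) (by positivity) (D ^ 4) (by positivity)
  obtain ⟨L1, hL1, hla1⟩ := S.la (D ^ 2) (by positivity) 1 one_pos
  obtain ⟨C3, hC3⟩ : ∃ C3 : ℝ, C3 = L1 + 1 := ⟨_, rfl⟩
  have pC3 : 0 < C3 := by rw [hC3]; linarith
  obtain ⟨C5, pC5, hlb5⟩ := S.lb (D ^ 2) (by positivity) (C3 + L0) (by linarith)
  obtain ⟨K1, hK1⟩ : ∃ K1 : ℝ, K1 = D * C5 + 1 := ⟨_, rfl⟩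
  obtain ⟨K2, hK2⟩ : ∃ K2 : ℝ, K2 = D * D ^ 2 + 1 := ⟨_, rfl⟩
  obtain ⟨C6, pC6, hlb6⟩ := S.lb (D ^ 2) (by positivity) (C3 + 1 + L0) (by linarith)
  obtain ⟨K6, pK6, hla6⟩ := S.la (D ^ 2) (by positivity) (D ^ 5 * C6) (by positivity)
  obtain ⟨C7, hC7⟩ : ∃ C7 : ℝ, C7 = Kb + C3 + K6 + L1 + 5 := ⟨_, rfl⟩
  obtain ⟨L5, hL5, hla5⟩ := S.la (D ^ 2) (by positivity) (D ^ 2) (by positivity)
  obtain ⟨C8, pC8, hlb8⟩ := S.lb (D ^ 2) (by positivity) (L5 + C3 + 1) (by linarith)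
  obtain ⟨K8, hK8⟩ : ∃ K8 : ℝ, K8 = D * C8 + 1 := ⟨_, rfl⟩
  obtain ⟨C, hC⟩ : ∃ C : ℝ, C = Kb + C7 + K2 + K8 + 1 := ⟨_, rfl⟩
  have pK1 : 1 ≤ K1 := by rw [hK1]; have : 0 < D * C5 := by positivity
                          linarith
  have pK2 : 1 ≤ K2 := by rw [hK2]; have : 0 < D * D ^ 2 := by positivity
                          linarith
  have pC7 : 0 < C7 := by rw [hC7]; linarith
  have pK8 : 1 ≤ K8 := by rw [hK8]; have : 0 < D * C8 := by positivity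
                          linarith
  have pC : 1 ≤ C := by rw [hC]; linarith
  obtain ⟨C9, pC9, hlb9⟩ := S.lb (D ^ 2) (by positivity) (2 * C + Kb + 2 + L0) (by linarith)
  obtain ⟨C10, pC10, hlb10⟩ := S.lb (D ^ 2) (by positivity) (L1 + 2 + L0) (by linarith)
  obtain ⟨C2, hC2⟩ : ∃ C2 : ℝ, C2 = (D ^ 2 + 1) * C6 + D * C9 + K1 + D * C10 + 2 := ⟨_, rfl⟩
  have pDC9 : 0 < D * C9 := by positivity
  have pDC10 : 0 < D * C10 := by positivity
  have pDC6 : 0 < (D ^ 2 + 1) * C6 := by positivity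
  have pC2 : 1 ≤ C2 := by rw [hC2]; linarith
  have f13 : (D ^ 2 + 1) * C6 ≤ C2 := by rw [hC2]; linarith
  have f14 : D * C9 ≤ C2 := by rw [hC2]; linarith
  have f15 : D * C10 + 1 + K1 ≤ C2 := by rw [hC2]; linarith
  have f16 : K8 + K2 ≤ C := by rw [hC]; linarith
  have f17 : Kb + 1 ≤ C := by rw [hC]; linarith
  have f18 : L1 + Kb + C3 + 1 + 1 ≤ C := by rw [hC, hC7]; linarith
  have f19 : Kb + C3 + K6 + 3 + 1 ≤ C := by rw [hC, hC7]; linarith
  -- the sets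
  obtain ⟨Sf, hSf⟩ : ∃ Sf : ℝ → ℕ → Finset ℕ, Sf = fun ε n => (G n).box pS ε (i0 n) (k0 n) :=
    ⟨_, rfl⟩
  obtain ⟨Tf, hTf⟩ : ∃ Tf : ℝ → ℕ → Finset ℕ, Tf = fun ε n =>
    (G n).box pS (D * ε) (i0 n) (k0 n) := ⟨_, rfl⟩
  obtain ⟨T0, hT0⟩ : ∃ T0 : ℝ → ℕ → Finset ℕ, T0 = fun ε n =>
    (G n).box pS (D ^ 2 * ε) (i0 n) (k0 n) := ⟨_, rfl⟩
  have memI : ∀ {n k i : ℕ} {p : κ → ℝ} {e : ℝ} {l : ℕ}, l ∈ (G n).box p e i k →
      (l, k) ∈ (G n).I := fun hl => H.memSlice.1 (RCfg.box_subset_slice hl)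
  have SsubT : ∀ ε : ℝ, 0 < ε → ∀ n, Sf ε n ⊆ Tf ε n := by
    intro ε hε n l hl
    rw [hSf] at hl; rw [hTf]
    obtain ⟨a1, a2⟩ := RCfg.mem_box.1 hl
    exact RCfg.mem_box.2 ⟨a1, H.loose_mono (fun _ => le_rfl) (le_mul_of_one_le_left hε.le hD) a2⟩
  have TsubT : ∀ ε : ℝ, 0 < ε → ∀ n, Tf ε n ⊆ T0 ε n := by
    intro ε hε n l hl
    rw [hTf] at hl; rw [hT0]
    obtain ⟨a1, a2⟩ := RCfg.mem_box.1 hl
    exact RCfg.mem_box.2 ⟨a1, H.loose_mono (fun _ => le_rfl) (mE hε hDle2) a2⟩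
  have T0I : ∀ {ε : ℝ} {n l : ℕ}, l ∈ T0 ε n → (l, k0 n) ∈ (G n).I := by
    intro ε n l hl; rw [hT0] at hl; exact memI hl
  have hnear : ∀ ε : ℝ, 0 < ε → ∀ᶠ n in (U : Filter ℕ), ∀ l ∈ T0 ε n, ∀ l' ∈ T0 ε n,
      (G n).loose pS (D ^ 4 * ε) (k0 n) l l' := by
    intro ε hε
    filter_upwards [h0, H.symm pS lS (D ^ 2 * ε) (by positivity),
      H.tri pS lS (D ^ 3 * ε) (by positivity)] with n g0 g1 g2 l hl l' hl'
    have I1 := T0I hl
    have I2 := T0I hl'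
    rw [hT0] at hl hl'
    have a1 := (RCfg.mem_box.1 hl).2
    have a2 := (RCfg.mem_box.1 hl').2
    have b1 := g1 (k0 n) (i0 n) l g0 I1 a1
    have e1 : D * (D ^ 2 * ε) = D ^ 3 * ε := by ring
    rw [e1] at b1
    have b2 : (G n).loose pS (D ^ 3 * ε) (k0 n) (i0 n) l' := H.loose_mono (fun _ => le_rfl) (by
      have : D ^ 2 ≤ D ^ 3 := pow_le_pow_right₀ hD (by norm_num)
      exact mul_le_mul_of_nonneg_right this hε.le) a2
    have b3 := g2 (k0 n) l (i0 n) l' I1 g0 I2 b1 b2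
    have e2 : D * (D ^ 3 * ε) = D ^ 4 * ε := by ring
    rwa [e2] at b3
  have hco0 : ∀ ε : ℝ, 0 < ε → ∀ᶠ n in (U : Filter ℕ), ∀ l ∈ T0 ε n, ∀ l' ∈ T0 ε n,
      |c n l' - c n l| ≤ B.d n ^ (0 - L0 * ε) ∧ |x n l' - x n l| ≤ B.d n ^ (0 - L0 * ε) ∧
      |(h n l' - h n l) - c n l * (x n l' - x n l)| ≤ B.d n ^ (0 - L0 * ε) := by
    intro ε hε
    filter_upwards [hnear ε hε, hla0 0 0 0 le_rfl hy0 le_rfl hy0 le_rfl hy0 ε hε]
      with n g1 g2 l hl l' hl'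
    have := g1 l hl l' hl'
    rw [← S.E0] at this
    rw [hT0] at hl hl'
    exact g2 l hl l' hl' this
  have hTT : ∀ ε : ℝ, 0 < ε → ∀ᶠ n in (U : Filter ℕ), ∀ l ∈ Tf ε n, ∀ l', (l', k0 n) ∈ (G n).I →
      (G n).loose pS (D * ε) (k0 n) l l' → l' ∈ T0 ε n := by
    intro ε hε
    filter_upwards [h0, H.tri pS lS (D * ε) (by positivity)] with n g0 g1 l hl l' I' a'
    have I1 := T0I (TsubT ε hε n hl)
    rw [hTf] at hl
    have := g1 (k0 n) (i0 n) l l' g0 I1 I' (RCfg.mem_box.1 hl).2 a'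
    have e1 : D * (D * ε) = D ^ 2 * ε := by ring
    rw [e1] at this
    rw [hT0]
    exact RCfg.mem_box.2 ⟨H.memSlice.2 I', this⟩
  have hST : ∀ ε : ℝ, 0 < ε → ∀ᶠ n in (U : Filter ℕ), ∀ l ∈ Sf ε n, ∀ l', (l', k0 n) ∈ (G n).I →
      (G n).loose pS ε (k0 n) l l' → l' ∈ Tf ε n := by
    intro ε hε
    filter_upwards [h0, H.tri pS lS ε hε] with n g0 g1 l hl l' I' a'
    have I1 := T0I (TsubT ε hε n (SsubT ε hε n hl))
    rw [hSf] at hl
    have := g1 (k0 n) (i0 n) l l' g0 I1 I' (RCfg.mem_box.1 hl).2 a'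
    rw [hTf]
    exact RCfg.mem_box.2 ⟨H.memSlice.2 I', this⟩
  -- the centres
  have hZex : ∀ (ε : ℝ) (n : ℕ), ∃ Z ⊆ Tf ε n,
      (∀ e ∈ Z, ∀ e' ∈ Z, e ≠ e' → ¬ |x n e' - x n e| ≤ B.d n ^ (y - C3 * ε)) ∧
      ∀ t ∈ Tf ε n, t ∉ Z → ∃ e ∈ Z, |x n t - x n e| ≤ B.d n ^ (y - C3 * ε) ∨
        |x n e - x n t| ≤ B.d n ^ (y - C3 * ε) := fun ε n =>
    exists_indep _ (fun e t => |x n t - x n e| ≤ B.d n ^ (y - C3 * ε))
  choose Z hZ1 hZ2 hZ3 using hZex
  have hZnear : ∀ ε : ℝ, ∀ n, ∀ t ∈ Tf ε n, ∃ e ∈ Z ε n, |x n t - x n e| ≤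
      B.d n ^ (y - C3 * ε) := by
    intro ε n t ht
    by_cases htZ : t ∈ Z ε n
    · exact ⟨t, htZ, by rw [sub_self, abs_zero]; exact (rpos B n _).le⟩
    · obtain ⟨e, he, g | g⟩ := hZ3 ε n t ht htZ
      · exact ⟨e, he, g⟩
      · exact ⟨e, he, by rw [abs_sub_comm]; exact g⟩
  -- x-distance inside a small box
  have hxbox : ∀ ε : ℝ, 0 < ε → ∀ᶠ n in (U : Filter ℕ), ∀ z ∈ Tf ε n,
      ∀ l ∈ (G n).box (E 0 y 0) ε z (k0 n), l ∈ T0 ε n ∧
        |x n l - x n z| ≤ B.d n ^ (y - L1 * ε) := by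
    intro ε hε
    filter_upwards [hTT ε hε, hla1 0 y 0 le_rfl hy0 hy0 le_rfl le_rfl hy0 ε hε]
      with n g1 g2 z hz l hl
    obtain ⟨a1, a2⟩ := RCfg.mem_box.1 hl
    have I' := H.memSlice.1 a1
    have hl0 : l ∈ T0 ε n := g1 z hz l I' (H.loose_mono (leE 0 y 0 le_rfl hy.le le_rfl)
      (le_mul_of_one_le_left hε.le hD) a2)
    refine ⟨hl0, ?_⟩
    have hz0 := TsubT ε hε n hz
    rw [hT0] at hl0 hz0
    exact (g2 z hz0 l hl0 (by rwa [one_mul])).2.1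
  have hdisj : ∀ ε : ℝ, 0 < ε → ∀ᶠ n in (U : Filter ℕ), ∀ z ∈ Z ε n, ∀ z' ∈ Z ε n, z ≠ z' →
      Disjoint ((G n).box (E 0 y 0) ε z (k0 n)) ((G n).box (E 0 y 0) ε z' (k0 n)) := by
    intro ε hε
    filter_upwards [hxbox ε hε, ev_const_le B hε 8] with n g1 h8 z hz z' hz' hne
    rw [Finset.disjoint_left]
    intro l hl hl'
    have b1 := (g1 z (hZ1 ε n hz) l hl).2
    have b2 := (g1 z' (hZ1 ε n hz') l hl').2
    refine hZ2 ε n z hz z' hz' hne ?_
    have e1 : |x n z' - x n z| ≤ |x n l - x n z| + |x n l - x n z'| := by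
      have : x n z' - x n z = (x n l - x n z) - (x n l - x n z') := by ring
      rw [this]; exact abs_sub _ _
    exact e1.trans (pwK2 B hε h8 b1 b2 (by linarith) (by linarith))
  -- lower bound for the number of centres
  have hZlow : ∀ ε : ℝ, 0 < ε → ∀ᶠ n in (U : Filter ℕ),
      B.d n ^ (-(ν pS - ν (E 0 y 0)) + K1 * ε) ≤ ((Z ε n).card : ℝ) := by
    intro ε hε
    have hC5ε : 0 < C5 * ε := by positivity
    filter_upwards [h0, hco0 ε hε, hlb5 0 y 0 le_rfl hy0 hy0 le_rfl le_rfl hy0 ε hε,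
      H.low pS lS ε hε, H.up (E 0 y 0) lE0y0 (C5 * ε) hC5ε] with n g0 g1 g2 g3 g4
    have hpow : ∀ t : ℝ, 0 < B.d n ^ t := fun t => rpos B n t
    have hcov := card_le_of_cover (Z := Z ε n) (W := Tf ε n)
      (bx := fun z => (G n).box (E 0 y 0) (C5 * ε) z (k0 n)) (by
        intro w hw
        obtain ⟨z, hz, hzw⟩ := hZnear ε n w hw
        refine ⟨z, hz, ?_⟩
        have hz0 := TsubT ε hε n (hZ1 ε n hz)
        have hw0 := TsubT ε hε n hw
        obtain ⟨q1, q2, q3⟩ := g1 z hz0 w hw0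
        have Iw := T0I hw0
        rw [hT0] at hz0 hw0
        exact RCfg.mem_box.2 ⟨H.memSlice.2 Iw, g2 z hz0 w hw0
          (q1.trans (anK B n hε (by linarith))) (hzw.trans (anK B n hε (by linarith)))
          (q3.trans (anK B n hε (by linarith)))⟩)
      (fun z hz => g4 z (k0 n) (T0I (TsubT ε hε n (hZ1 ε n hz))))
    have hS1 : B.d n ^ (-ν pS + ε) ≤ ((Tf ε n).card : ℝ) := by
      refine (g3 (i0 n) (k0 n) g0).trans ?_
      have := SsubT ε hε n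
      rw [hSf] at this
      exact_mod_cast Finset.card_le_card this
    have h1 := hS1.trans hcov
    have h2 : B.d n ^ (-ν (E 0 y 0) - D * (C5 * ε)) * B.d n ^ (ν (E 0 y 0) + D * (C5 * ε)) = 1 := by
      rw [← rpow_add']
      have : -ν (E 0 y 0) - D * (C5 * ε) + (ν (E 0 y 0) + D * (C5 * ε)) = 0 := by ring
      rw [this, Real.rpow_zero]
    calc B.d n ^ (-(ν pS - ν (E 0 y 0)) + K1 * ε)
        = B.d n ^ (-ν pS + ε) * B.d n ^ (ν (E 0 y 0) + D * (C5 * ε)) := by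
          rw [← rpow_add', hK1]; congr 1; ring
      _ ≤ ((Z ε n).card * B.d n ^ (-ν (E 0 y 0) - D * (C5 * ε))) *
          B.d n ^ (ν (E 0 y 0) + D * (C5 * ε)) := mul_le_mul_of_nonneg_right h1 (hpow _).le
      _ = _ := by rw [mul_assoc, h2, mul_one]
  -- upper bound for the number of centres
  have hZup : ∀ ε : ℝ, 0 < ε → ∀ᶠ n in (U : Filter ℕ),
      ((Z ε n).card : ℝ) ≤ B.d n ^ (-(ν pS - ν (E 0 y 0)) - K2 * ε) := by
    intro ε hε
    filter_upwards [h0, hxbox ε hε, hdisj ε hε, H.low (E 0 y 0) lE0y0 ε hε,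
      H.up pS lS (D ^ 2 * ε) (by positivity)] with n g0 g1 g2 g3 g4
    have hpow : ∀ t : ℝ, 0 < B.d n ^ t := fun t => rpos B n t
    have h1 := card_mul_le_of_disj (Z := Z ε n) (W := T0 ε n)
      (bx := fun z => (G n).box (E 0 y 0) ε z (k0 n)) g2
      (fun z hz l hl => (g1 z (hZ1 ε n hz) l hl).1)
      (fun z hz => g3 z (k0 n) (T0I (TsubT ε hε n (hZ1 ε n hz))))
    have h2 : ((T0 ε n).card : ℝ) ≤ B.d n ^ (-ν pS - D * (D ^ 2 * ε)) := by
      rw [hT0]; exact g4 (i0 n) (k0 n) g0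
    have h3 := h1.trans h2
    have h4 : B.d n ^ (-ν (E 0 y 0) + ε) * B.d n ^ (ν (E 0 y 0) - ε) = 1 := by
      rw [← rpow_add']
      have : -ν (E 0 y 0) + ε + (ν (E 0 y 0) - ε) = 0 := by ring
      rw [this, Real.rpow_zero]
    calc ((Z ε n).card : ℝ) = ((Z ε n).card * B.d n ^ (-ν (E 0 y 0) + ε)) *
          B.d n ^ (ν (E 0 y 0) - ε) := by rw [mul_assoc, h4, mul_one]
      _ ≤ B.d n ^ (-ν pS - D * (D ^ 2 * ε)) * B.d n ^ (ν (E 0 y 0) - ε) :=
          mul_le_mul_of_nonneg_right h3 (hpow _).le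
      _ = _ := by rw [← rpow_add', hK2]; congr 1; ring
  have pZ : ∀ ε : ℝ, 0 < ε → ∀ᶠ n in (U : Filter ℕ), (Z ε n).Nonempty := by
    intro ε hε
    filter_upwards [hZlow ε hε] with n g
    rw [← Finset.card_pos]
    have := lt_of_lt_of_le (rpos B n _) g
    exact_mod_cast this
  -- alive
  obtain ⟨al, hal0⟩ : ∃ al : ℝ → ℕ → ℕ → ℕ → Prop, ∀ ε n i z, al ε n i z ↔
      ∃ l' ∈ Tf ε n, (G n).loose (E y 0 y) ε (k0 n) i l' ∧
        |x n l' - x n z| ≤ B.d n ^ (y - C3 * ε) := ⟨_, fun _ _ _ _ => Iff.rfl⟩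
  have hφ : ∀ ε : ℝ, 0 < ε → ∀ᶠ n in (U : Filter ℕ), ∀ k ∈ Z ε n,
      |x n k| ≤ B.d n ^ (-(C * ε)) := by
    intro ε hε
    filter_upwards [hbd ε hε] with n g z hz
    have hz0 := TsubT ε hε n (hZ1 ε n hz)
    rw [hT0] at hz0
    exact (g z hz0).2.trans (anN B n hε (by linarith))
  have hFF : ∀ ε : ℝ, 0 < ε → ∀ᶠ n in (U : Filter ℕ), ∀ k ∈ Z ε n, ∀ i ∈ Sf ε n,
      ∀ i' ∈ Sf ε n,
      |((h n i - c n i * x n i) + x n k * c n i) - ((h n i' - c n i' * x n i') + x n k * c n i') -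
        (((h n i - c n i * x n i) - (h n i' - c n i' * x n i')) + x n k * (c n i - c n i'))|
        ≤ B.d n ^ (y - C * ε) := by
    intro ε hε
    refine Eventually.of_forall fun n k hk i hi i' hi' => ?_
    have : ((h n i - c n i * x n i) + x n k * c n i) - ((h n i' - c n i' * x n i') + x n k * c n i') -
        (((h n i - c n i * x n i) - (h n i' - c n i' * x n i')) + x n k * (c n i - c n i')) = 0 := by
      ring
    rw [this, abs_zero]
    exact (rpos B n _).le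
  have hSS : ∀ ε : ℝ, 0 < ε → ∀ᶠ n in (U : Filter ℕ),
      B.d n ^ (-ν pS + C * ε) ≤ ((Sf ε n).card : ℝ) := by
    intro ε hε
    filter_upwards [h0, H.low pS lS ε hε] with n g0 g
    rw [hSf]
    refine (rpow_anti B n ?_).trans (g (i0 n) (k0 n) g0)
    have := le_mul_of_one_le_left hε.le pC
    linarith
  have hcell : ∀ ε : ℝ, 0 < ε → ∀ᶠ n in (U : Filter ℕ), ∀ k ∈ Z ε n,
      ((((Sf ε n).filter fun i => al ε n i k).image fun i =>
        ⌊((h n i - c n i * x n i) + x n k * c n i) / B.d n ^ (y - C * ε)⌋).card : ℝ)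
        ≤ 11 * B.d n ^ (-(ν (E 0 y 0) - ν (E 0 y y)) - C2 * ε) := by
    intro ε hε
    have hC6ε : 0 < C6 * ε := by positivity
    filter_upwards [hco0 ε hε, hlb6 0 y 0 le_rfl hy0 hy0 le_rfl le_rfl hy0 ε hε,
      hla6 0 y y le_rfl hy0 hy0 le_rfl hy0 le_rfl ε hε, hla1 y 0 y hy0 le_rfl le_rfl hy0 hy0
        le_rfl ε hε, hbd ε hε,
      H.exists_lab_loose (E 0 y 0) (E 0 y y) lE0y0 l3 S.le1 hC6ε,
      ev_const_le B hε 8] with n g1 g2 ga gb gd g3 h8 z hz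
    have hpow : ∀ t : ℝ, 0 < B.d n ^ t := fun t => rpos B n t
    have hz0 := TsubT ε hε n (hZ1 ε n hz)
    set W := (Tf ε n).filter fun l => |x n l - x n z| ≤ B.d n ^ (y - C3 * ε) with hW
    have hWT : ∀ w ∈ W, w ∈ T0 ε n := fun w hw => TsubT ε hε n (Finset.mem_filter.1 hw).1
    have hxx : ∀ w ∈ W, ∀ w' ∈ W, |x n w' - x n w| ≤ B.d n ^ (y - (C3 + 1) * ε) := by
      intro w hw w' hw'
      have b1 := (Finset.mem_filter.1 hw).2
      have b2 := (Finset.mem_filter.1 hw').2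
      have e1 : |x n w' - x n w| ≤ |x n w' - x n z| + |x n w - x n z| := by
        have : x n w' - x n w = (x n w' - x n z) - (x n w - x n z) := by ring
        rw [this]; exact abs_sub _ _
      exact e1.trans (pwK2 B hε h8 b2 b1 le_rfl le_rfl)
    obtain ⟨lab, hlab1, hlab2⟩ := g3 (k0 n) W (fun w hw => H.memSlice.2 (T0I (hWT w hw))) (by
      intro w hw w' hw'
      obtain ⟨q1, q2, q3⟩ := g1 w (hWT w hw) w' (hWT w' hw')
      have hw0 := hWT w hw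
      have hw0' := hWT w' hw'
      rw [hT0] at hw0 hw0'
      exact g2 w hw0 w' hw0' (q1.trans (anK B n hε (by linarith)))
        ((hxx w hw w' hw').trans (anK B n hε (by linarith)))
        (q3.trans (anK B n hε (by linarith))))
    -- `h` on a class of labels
    have hhh : ∀ w ∈ W, ∀ w' ∈ W, lab w = lab w' → |h n w - h n w'| ≤
        B.d n ^ (y - (Kb + C3 + K6 + 3) * ε) := by
      intro w hw w' hw' hl
      have b1 := hlab1 w hw w' hw' hl
      have hw0 := hWT w hw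
      have hw0' := hWT w' hw'
      rw [hT0] at hw0 hw0'
      rw [← mul_assoc] at b1
      have b2 := (ga w hw0 w' hw0' b1).2.2
      have b3 : |c n w * (x n w' - x n w)| ≤ B.d n ^ (y - (Kb + C3 + 1) * ε) := by
        rw [abs_mul]
        calc |c n w| * |x n w' - x n w| ≤ B.d n ^ (-(Kb * ε)) * B.d n ^ (y - (C3 + 1) * ε) :=
              mul_le_mul (gd w hw0).1 (hxx w hw w' hw') (abs_nonneg _) (hpow _).le
          _ = _ := by rw [← rpow_add']; congr 1; ring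
      have e1 : |h n w - h n w'| ≤ |(h n w' - h n w) - c n w * (x n w' - x n w)| +
          |c n w * (x n w' - x n w)| := by
        have : h n w' - h n w = ((h n w' - h n w) - c n w * (x n w' - x n w)) +
          c n w * (x n w' - x n w) := by ring
        rw [abs_sub_comm, this]
        refine (abs_add_le _ _).trans (le_of_eq ?_)
        ring_nf
      exact e1.trans (pwK2 B hε h8 b2 b3 (by linarith) (by linarith))
    -- witnesses
    have hwit : ∀ i ∈ (Sf ε n).filter (fun i => al ε n i z), ∃ w ∈ W,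
        |((h n i - c n i * x n i) + x n z * c n i) - h n w| ≤
          B.d n ^ (y - (L1 + Kb + C3 + 1) * ε) := by
      intro i hi
      obtain ⟨hi1, hi2⟩ := Finset.mem_filter.1 hi
      obtain ⟨w, hw1, hw2, hw3⟩ := (hal0 ε n i z).1 hi2
      refine ⟨w, Finset.mem_filter.2 ⟨hw1, hw3⟩, ?_⟩
      have hi0 := TsubT ε hε n (SsubT ε hε n hi1)
      have hw0 := TsubT ε hε n hw1
      rw [hT0] at hi0 hw0
      have b2 := (gb i hi0 w hw0 (by rwa [one_mul])).2.2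
      have b3 : |c n i * (x n w - x n z)| ≤ B.d n ^ (y - (Kb + C3) * ε) := by
        rw [abs_mul]
        calc |c n i| * |x n w - x n z| ≤ B.d n ^ (-(Kb * ε)) * B.d n ^ (y - C3 * ε) :=
              mul_le_mul (gd i hi0).1 hw3 (abs_nonneg _) (hpow _).le
          _ = _ := by rw [← rpow_add']; congr 1; ring
      have e1 : |((h n i - c n i * x n i) + x n z * c n i) - h n w| ≤
          |(h n w - h n i) - c n i * (x n w - x n i)| + |c n i * (x n w - x n z)| := by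
        have : ((h n i - c n i * x n i) + x n z * c n i) - h n w =
          -((h n w - h n i) - c n i * (x n w - x n i)) - c n i * (x n w - x n z) := by ring
        rw [this]
        refine (abs_sub _ _).trans (le_of_eq ?_)
        rw [abs_neg]
      exact e1.trans (pwK2 B hε h8 b2 b3 (by linarith) (by linarith))
    choose! wit hwit1 hwit2 using hwit
    have key := floor_labels ((Sf ε n).filter fun i => al ε n i z)
      (fun i => (h n i - c n i * x n i) + x n z * c n i) (fun i => lab (wit i))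
      (hpow (y - C * ε)) (by
        intro i hi i' hi' hl
        have b1 := hwit2 i hi
        have b2 := hwit2 i' hi'
        have b3 := hhh _ (hwit1 i hi) _ (hwit1 i' hi') hl
        have e1 : |((h n i - c n i * x n i) + x n z * c n i) -
            ((h n i' - c n i' * x n i') + x n z * c n i')| ≤
            |((h n i - c n i * x n i) + x n z * c n i) - h n (wit i)| +
            |((h n i' - c n i' * x n i') + x n z * c n i') - h n (wit i')| +
            |h n (wit i) - h n (wit i')| := by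
          have : ((h n i - c n i * x n i) + x n z * c n i) -
            ((h n i' - c n i' * x n i') + x n z * c n i') =
            (((h n i - c n i * x n i) + x n z * c n i) - h n (wit i)) -
            (((h n i' - c n i' * x n i') + x n z * c n i') - h n (wit i')) +
            (h n (wit i) - h n (wit i')) := by ring
          rw [this]
          refine (abs_add_le _ _).trans ?_
          have := abs_sub (((h n i - c n i * x n i) + x n z * c n i) - h n (wit i))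
            (((h n i' - c n i' * x n i') + x n z * c n i') - h n (wit i'))
          linarith
        have e2 : |((h n i - c n i * x n i) + x n z * c n i) -
            ((h n i' - c n i' * x n i') + x n z * c n i')| ≤ B.d n ^ (y - C * ε) := by
          exact e1.trans (pwK3 B hε h8 b1 b2 b3 f18 f18 f19)
        have := hpow (y - C * ε)
        linarith)
    have key2 : ((((Sf ε n).filter fun i => al ε n i z).image fun i => lab (wit i)).card : ℝ) ≤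
        ((W.image lab).card : ℝ) := by
      refine mod_cast Finset.card_le_card ?_
      intro v hv
      obtain ⟨i, hi, rfl⟩ := Finset.mem_image.1 hv
      exact Finset.mem_image_of_mem _ (hwit1 i hi)
    have key3 : B.d n ^ (-(ν (E 0 y 0) - ν (E 0 y y)) - (D ^ 2 + 1) * (C6 * ε)) ≤
        B.d n ^ (-(ν (E 0 y 0) - ν (E 0 y y)) - C2 * ε) := rpow_anti B n (by
      have : (D ^ 2 + 1) * (C6 * ε) ≤ C2 * ε := by
        rw [← mul_assoc]; exact mE hε f13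
      linarith)
    have key4 := key2.trans (hlab2.trans key3)
    linarith
  have hall : ∀ ε : ℝ, 0 < ε → ∀ᶠ n in (U : Filter ℕ), ∀ i ∈ Sf ε n,
      B.d n ^ (C * ε) * ((Z ε n).card : ℝ) ≤ (((Z ε n).filter fun k => al ε n i k).card : ℝ) := by
    intro ε hε
    have hC8ε : 0 < C8 * ε := by positivity
    have hDε : 0 < D * ε := by positivity
    filter_upwards [hla5 y 0 y hy0 le_rfl le_rfl hy0 hy0 le_rfl ε hε,
      hlb8 y y y hy0 le_rfl hy0 le_rfl hy0 le_rfl ε hε, hST ε hε, H.symm (E y 0 y) lEy0y ε hε,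
      H.tri (E y 0 y) lEy0y (D * ε) hDε, H.low (E y 0 y) lEy0y ε hε,
      H.up (E y y y) l4 (C8 * ε) hC8ε, hZup ε hε, ev_const_le B hε 8]
      with n ga gb g3 g4 g5 g6 g7 g8 h8 i hi
    have hpow : ∀ t : ℝ, 0 < B.d n ^ t := fun t => rpos B n t
    have hi0 := TsubT ε hε n (SsubT ε hε n hi)
    have Ii := T0I hi0
    have hBT : ∀ w ∈ (G n).box (E y 0 y) ε i (k0 n), w ∈ Tf ε n := by
      intro w hw
      obtain ⟨a1, a2⟩ := RCfg.mem_box.1 hw
      exact g3 i hi w (H.memSlice.1 a1) (H.loose_mono (leE y 0 y hy.le le_rfl hy.le) le_rfl a2)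
    have hcov := card_le_of_cover (Z := (Z ε n).filter fun k => al ε n i k)
      (W := (G n).box (E y 0 y) ε i (k0 n))
      (bx := fun z => ((G n).box (E y 0 y) ε i (k0 n)).filter
        fun w => |x n w - x n z| ≤ B.d n ^ (y - C3 * ε)) (by
        intro w hw
        obtain ⟨z, hz, hzw⟩ := hZnear ε n w (hBT w hw)
        refine ⟨z, Finset.mem_filter.2 ⟨hz, ?_⟩, Finset.mem_filter.2 ⟨hw, hzw⟩⟩
        exact (hal0 ε n i z).2 ⟨w, hBT w hw, (RCfg.mem_box.1 hw).2, hzw⟩)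
      (M := B.d n ^ (-ν (E y y y) - D * (C8 * ε))) (by
        intro z hz
        rcases (((G n).box (E y 0 y) ε i (k0 n)).filter
          fun w => |x n w - x n z| ≤ B.d n ^ (y - C3 * ε)).eq_empty_or_nonempty with he | ⟨w0, hw0⟩
        · rw [he]; simpa using (hpow _).le
        obtain ⟨hw1, hw2⟩ := Finset.mem_filter.1 hw0
        have Iw0 := T0I (TsubT ε hε n (hBT w0 hw1))
        refine le_trans ?_ (g7 w0 (k0 n) Iw0)
        refine mod_cast Finset.card_le_card ?_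
        intro w hw
        obtain ⟨hw3, hw4⟩ := Finset.mem_filter.1 hw
        have Iw := T0I (TsubT ε hε n (hBT w hw3))
        have a1 := g4 (k0 n) i w0 Ii Iw0 (RCfg.mem_box.1 hw1).2
        have a2 : (G n).loose (E y 0 y) (D * ε) (k0 n) i w :=
          H.loose_mono (fun _ => le_rfl) (le_mul_of_one_le_left hε.le hD) (RCfg.mem_box.1 hw3).2
        have a3 := g5 (k0 n) w0 i w Iw0 Ii Iw a1 a2
        have e1 : D * (D * ε) = D ^ 2 * ε := by ring
        rw [e1] at a3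
        have b0 := TsubT ε hε n (hBT w0 hw1)
        have b1 := TsubT ε hε n (hBT w hw3)
        rw [hT0] at b0 b1
        obtain ⟨q1, q2, q3⟩ := ga w0 b0 w b1 a3
        have e2 : |x n w - x n w0| ≤ B.d n ^ (y - (C3 + 1) * ε) := by
          have e3 : |x n w - x n w0| ≤ |x n w - x n z| + |x n w0 - x n z| := by
            have : x n w - x n w0 = (x n w - x n z) - (x n w0 - x n z) := by ring
            rw [this]; exact abs_sub _ _
          exact e3.trans (pwK2 B hε h8 hw4 hw2 le_rfl le_rfl)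
        exact RCfg.mem_box.2 ⟨H.memSlice.2 Iw, gb w0 b0 w b1 (q1.trans (anK B n hε (by linarith)))
          (e2.trans (anK B n hε (by linarith))) (q3.trans (anK B n hε (by linarith)))⟩)
    have h1 := (g6 i (k0 n) Ii).trans hcov
    have h2 : B.d n ^ (-ν (E y y y) - D * (C8 * ε)) * B.d n ^ (ν (E y y y) + D * (C8 * ε)) = 1 := by
      rw [← rpow_add']
      have : -ν (E y y y) - D * (C8 * ε) + (ν (E y y y) + D * (C8 * ε)) = 0 := by ring
      rw [this, Real.rpow_zero]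
    have h3 : B.d n ^ (-(ν (E y 0 y) - ν (E y y y)) + K8 * ε) ≤
        (((Z ε n).filter fun k => al ε n i k).card : ℝ) := by
      calc B.d n ^ (-(ν (E y 0 y) - ν (E y y y)) + K8 * ε)
          = B.d n ^ (-ν (E y 0 y) + ε) * B.d n ^ (ν (E y y y) + D * (C8 * ε)) := by
            rw [← rpow_add', hK8]; congr 1; ring
        _ ≤ ((((Z ε n).filter fun k => al ε n i k).card : ℝ) *
            B.d n ^ (-ν (E y y y) - D * (C8 * ε))) * B.d n ^ (ν (E y y y) + D * (C8 * ε)) :=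
              mul_le_mul_of_nonneg_right h1 (hpow _).le
        _ = _ := by rw [mul_assoc, h2, mul_one]
    refine le_trans ?_ h3
    calc B.d n ^ (C * ε) * ((Z ε n).card : ℝ)
        ≤ B.d n ^ (C * ε) * B.d n ^ (-(ν pS - ν (E 0 y 0)) - K2 * ε) :=
          mul_le_mul_of_nonneg_left g8 (hpow _).le
      _ = B.d n ^ (C * ε + (-(ν pS - ν (E 0 y 0)) - K2 * ε)) := by rw [← rpow_add']
      _ ≤ _ := rpow_anti B n (by
          have : K8 * ε + K2 * ε ≤ C * ε := by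
            rw [← add_mul]; exact mE hε f16
          linarith)
  have hV0 : ∀ ε : ℝ, 0 < ε → ∀ᶠ n in (U : Filter ℕ), ∀ i ∈ Sf ε n, ∀ i' ∈ Sf ε n,
      |c n i - c n i'| ≤ B.d n ^ (-(C * ε)) := by
    intro ε hε
    filter_upwards [hbd ε hε, ev_const_le B hε 8] with n g h8 i hi i' hi'
    have hi0 := TsubT ε hε n (SsubT ε hε n hi)
    have hi0' := TsubT ε hε n (SsubT ε hε n hi')
    rw [hT0] at hi0 hi0'
    have e1 : -(C * ε) + ε ≤ -(Kb * ε) := by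
      have := mE hε f17
      rw [add_mul, one_mul] at this
      linarith
    exact (abs_sub _ _).trans (pw2 B h8 (g i hi0).1 (g i' hi0').1 e1 e1)
  have hPP : ∀ j ≤ J, ∀ ε : ℝ, 0 < ε → ∀ᶠ n in (U : Filter ℕ), ∀ i ∈ Sf ε n,
      (((Sf ε n).filter fun i' => |c n i' - c n i| ≤ B.d n ^ (sc y J j - C * ε) ∧
        |(h n i' - c n i' * x n i') - (h n i - c n i * x n i)| ≤
          B.d n ^ (sc y J j - (2 * C + 1) * ε)).card : ℝ)
          ≤ B.d n ^ (-ν (E (sc y J j) 0 (sc y J j)) - C2 * ε) := by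
    intro j hj ε hε
    have hC9ε : 0 < C9 * ε := by positivity
    have ht0 := sc_nonneg hy.le J j
    have ht1 := sc_le hy.le hJ hj
    filter_upwards [hco0 ε hε, hlb9 _ 0 _ ht0 ht1 le_rfl hy0 ht0 ht1 ε hε, hbd ε hε,
      H.up (E (sc y J j) 0 (sc y J j)) (l1 _ ht0 ht1)
      (C9 * ε) hC9ε, ev_const_le B hε 8] with n g1 g2 gd g3 h8 i hi
    have hpow : ∀ t : ℝ, 0 < B.d n ^ t := fun t => rpos B n t
    have hi0 := TsubT ε hε n (SsubT ε hε n hi)
    have Ii := T0I hi0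
    refine le_trans ?_ ((g3 i (k0 n) Ii).trans (rpow_anti B n ?_))
    · refine mod_cast Finset.card_le_card ?_
      intro i' hi'
      obtain ⟨a1, a2, a3⟩ := Finset.mem_filter.1 hi'
      have hi0' := TsubT ε hε n (SsubT ε hε n a1)
      obtain ⟨q1, q2, q3⟩ := g1 i hi0 i' hi0'
      have Ii' := T0I hi0'
      rw [hT0] at hi0 hi0'
      refine RCfg.mem_box.2 ⟨H.memSlice.2 Ii', g2 i hi0 i' hi0'
        (a2.trans (anK B n hε (by linarith))) (q2.trans (anK B n hε (by linarith))) ?_⟩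
      · have b1 : |(h n i' - h n i) - c n i * (x n i' - x n i)| ≤
            |(h n i' - c n i' * x n i') - (h n i - c n i * x n i)| +
              |(c n i' - c n i) * x n i'| := by
          have : (h n i' - h n i) - c n i * (x n i' - x n i) =
            ((h n i' - c n i' * x n i') - (h n i - c n i * x n i)) + (c n i' - c n i) * x n i' := by
            ring
          rw [this]; exact abs_add_le _ _
        have b2 : |(c n i' - c n i) * x n i'| ≤ B.d n ^ (sc y J j - (C + Kb) * ε) := by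
          rw [abs_mul]
          calc |c n i' - c n i| * |x n i'| ≤ B.d n ^ (sc y J j - C * ε) * B.d n ^ (-(Kb * ε)) :=
                mul_le_mul a2 (gd i' hi0').2 (abs_nonneg _) (hpow _).le
            _ = _ := by rw [← rpow_add']; congr 1; ring
        have b3 : |(h n i' - h n i) - c n i * (x n i' - x n i)| ≤
            B.d n ^ (sc y J j - (2 * C + Kb + 2) * ε) := by
          exact b1.trans (pwK2 B hε h8 a3 b2 (by linarith) (by linarith))
        exact b3.trans (anK B n hε (by linarith))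
    · have : D * (C9 * ε) ≤ C2 * ε := by
        rw [← mul_assoc]; exact mE hε f14
      linarith
  have hQQ : ∀ s : ℝ, 0 ≤ s → s ≤ y → ∀ ε : ℝ, 0 < ε → ∀ᶠ n in (U : Filter ℕ), ∀ k ∈ Z ε n,
      (((Z ε n).filter fun k' => |x n k' - x n k| ≤ B.d n ^ (s - ε)).card : ℝ)
        ≤ B.d n ^ (a * s - C2 * ε) * ((Z ε n).card : ℝ) := by
    intro s hs0 hs1 ε hε
    have hC10ε : 0 < C10 * ε := by positivity
    filter_upwards [hco0 ε hε, hlb10 0 s 0 le_rfl hy0 hs0 hs1 le_rfl hy0 ε hε, hxbox ε hε,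
      hdisj ε hε, H.low (E 0 y 0) lE0y0 ε hε,
      H.up (E 0 s 0) (l2 s hs0 hs1) (C10 * ε) hC10ε, hZlow ε hε, ev_const_le B hε 8]
      with n g1 g2 g3 g4 g5 g6 g7 h8 z hz
    have hpow : ∀ t : ℝ, 0 < B.d n ^ t := fun t => rpos B n t
    have hz0 := TsubT ε hε n (hZ1 ε n hz)
    have Iz := T0I hz0
    have h1 := card_mul_le_of_disj
      (Z := (Z ε n).filter fun k' => |x n k' - x n z| ≤ B.d n ^ (s - ε))
      (W := (G n).box (E 0 s 0) (C10 * ε) z (k0 n))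
      (bx := fun z' => (G n).box (E 0 y 0) ε z' (k0 n))
      (fun z1 hz1 z2 hz2 hne => g4 z1 (Finset.mem_filter.1 hz1).1 z2 (Finset.mem_filter.1 hz2).1 hne)
      (by
        intro z' hz' l hl
        obtain ⟨c1, c2⟩ := Finset.mem_filter.1 hz'
        obtain ⟨d1, d2⟩ := g3 z' (hZ1 ε n c1) l hl
        obtain ⟨q1, q2, q3⟩ := g1 z hz0 l d1
        have Il := T0I d1
        have e1 : |x n l - x n z| ≤ B.d n ^ (s - (L1 + 2) * ε) := by
          have e2 : |x n l - x n z| ≤ |x n l - x n z'| + |x n z' - x n z| := by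
            have : x n l - x n z = (x n l - x n z') + (x n z' - x n z) := by ring
            rw [this]; exact abs_add_le _ _
          have d3 : |x n l - x n z'| ≤ B.d n ^ (s - L1 * ε) :=
            d2.trans (rpow_anti B n (by linarith))
          have c3 : |x n z' - x n z| ≤ B.d n ^ (s - 1 * ε) := by rwa [one_mul]
          exact e2.trans (pwK2 B hε h8 d3 c3 (by linarith) (by linarith))
        have hz0' := hz0
        rw [hT0] at hz0' d1
        exact RCfg.mem_box.2 ⟨H.memSlice.2 Il, g2 z hz0' l d1 (q1.trans (anK B n hε (by linarith)))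
          (e1.trans (anK B n hε (by linarith))) (q3.trans (anK B n hε (by linarith)))⟩)
      (fun z' hz' => g5 z' (k0 n) (T0I (TsubT ε hε n (hZ1 ε n (Finset.mem_filter.1 hz').1))))
    have h2 := h1.trans (g6 z (k0 n) Iz)
    have h4 : B.d n ^ (-ν (E 0 y 0) + ε) * B.d n ^ (ν (E 0 y 0) - ε) = 1 := by
      rw [← rpow_add']
      have : -ν (E 0 y 0) + ε + (ν (E 0 y 0) - ε) = 0 := by ring
      rw [this, Real.rpow_zero]
    have h5 := r3 s hs0 hs1
    calc (((Z ε n).filter fun k' => |x n k' - x n z| ≤ B.d n ^ (s - ε)).card : ℝ)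
        = ((((Z ε n).filter fun k' => |x n k' - x n z| ≤ B.d n ^ (s - ε)).card : ℝ) *
          B.d n ^ (-ν (E 0 y 0) + ε)) * B.d n ^ (ν (E 0 y 0) - ε) := by rw [mul_assoc, h4, mul_one]
      _ ≤ B.d n ^ (-ν (E 0 s 0) - D * (C10 * ε)) * B.d n ^ (ν (E 0 y 0) - ε) :=
          mul_le_mul_of_nonneg_right h2 (hpow _).le
      _ = B.d n ^ (-ν (E 0 s 0) - D * (C10 * ε) + (ν (E 0 y 0) - ε)) := by rw [← rpow_add']
      _ ≤ B.d n ^ ((a * s - C2 * ε) + (-(ν pS - ν (E 0 y 0)) + K1 * ε)) := rpow_anti B n (by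
          have : D * (C10 * ε) + ε + K1 * ε ≤ C2 * ε := by
            have := mE hε f15
            rw [add_mul, add_mul, one_mul, mul_assoc] at this
            exact this
          linarith)
      _ = B.d n ^ (a * s - C2 * ε) * B.d n ^ (-(ν pS - ν (E 0 y 0)) + K1 * ε) := by
          rw [← rpow_add']
      _ ≤ _ := mul_le_mul_of_nonneg_left g7 (hpow _).le
  exact ⟨kauf_exA B (ι := ℕ) Sf Z x al (fun n i k => (h n i - c n i * x n i) + x n k * c n i)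
      (fun n i => h n i - c n i * x n i) c hy ha0 ha1 pC pC2 hJ
      (fun j => ν (E (sc y J j) 0 (sc y J j))) pZ hφ hFF hSS hcell hall hV0 hPP hQQ,
    falc_exA B (ι := ℕ) Sf Z x al (fun n i k => (h n i - c n i * x n i) + x n k * c n i)
      (fun n i => h n i - c n i * x n i) c hy ha0 ha1 pC pC2 hJ
      (fun j => ν (E (sc y J j) 0 (sc y J j))) pZ hφ hFF hSS hcell hall hV0 hPP hQQ⟩


/-- **one-slice Kaufman for `H`**, groups of slots: `m > 0 ⇒ h ≤ x` (growths: `a` of `X`, `b` of `H`) -/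
theorem hxE_kauf {B : Base} {G : ℕ → RCfg κ} {Leg : Set (κ → ℝ)} {ν : (κ → ℝ) → ℝ} {D : ℝ}
    (H : RUnif B G Leg ν D) (i0 k0 : ℕ → ℕ)
    (h0 : ∀ᶠ n in (U : Filter ℕ), (i0 n, k0 n) ∈ (G n).I) {pS : κ → ℝ}
    {E : ℝ → ℝ → ℝ → κ → ℝ}
    {c x h : ℕ → ℕ → ℝ} {y : ℝ} (hy : 0 < y) (S : SlabE B G i0 k0 pS E c x h y)
    (lS : pS ∈ Leg) (l1 : ∀ t, 0 ≤ t → t ≤ y → E t 0 t ∈ Leg)
    (l2 : ∀ t, 0 ≤ t → t ≤ y → E 0 t 0 ∈ Leg) (l3 : E 0 y y ∈ Leg)
    (l4 : E y y y ∈ Leg) {a b m : ℝ} (ha0 : 0 ≤ a) (ha1 : a ≤ 1)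
    (r3 : ∀ t, 0 ≤ t → t ≤ y → a * t ≤ ν pS - ν (E 0 t 0))
    (r4 : ν pS - ν (E 0 y 0) ≤ ν (E y 0 y) - ν (E y y y))
    (hm : 0 < m) (r1 : ∀ t, 0 ≤ t → t ≤ y → (b + m) * t ≤ ν pS - ν (E t 0 t))
    (r2 : ν (E 0 y 0) - ν (E 0 y y) ≤ b * y) : a ≤ b :=
  rate_of_forall (a := fun t => ν pS - ν (E t 0 t)) hy ha0 hm
    (fun J hJ => (hxE_forall H i0 k0 h0 hy S lS l1 l2 l3 l4 ha0 ha1 r3 r4 hJ).1) r1 r2

/-- **one-slice Falconer for `H`**, groups of slots: `m > x ⇒ h = 0` -/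
theorem hxE_falc {B : Base} {G : ℕ → RCfg κ} {Leg : Set (κ → ℝ)} {ν : (κ → ℝ) → ℝ} {D : ℝ}
    (H : RUnif B G Leg ν D) (i0 k0 : ℕ → ℕ)
    (h0 : ∀ᶠ n in (U : Filter ℕ), (i0 n, k0 n) ∈ (G n).I) {pS : κ → ℝ}
    {E : ℝ → ℝ → ℝ → κ → ℝ}
    {c x h : ℕ → ℕ → ℝ} {y : ℝ} (hy : 0 < y) (S : SlabE B G i0 k0 pS E c x h y)
    (lS : pS ∈ Leg) (l1 : ∀ t, 0 ≤ t → t ≤ y → E t 0 t ∈ Leg)
    (l2 : ∀ t, 0 ≤ t → t ≤ y → E 0 t 0 ∈ Leg) (l3 : E 0 y y ∈ Leg)
    (l4 : E y y y ∈ Leg) {a b m : ℝ} (ha0 : 0 ≤ a) (ha1 : a ≤ 1)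
    (r3 : ∀ t, 0 ≤ t → t ≤ y → a * t ≤ ν pS - ν (E 0 t 0))
    (r4 : ν pS - ν (E 0 y 0) ≤ ν (E y 0 y) - ν (E y y y))
    (hm : 1 - a < m) (r1 : ∀ t, 0 ≤ t → t ≤ y → (b + m) * t ≤ ν pS - ν (E t 0 t))
    (r2 : ν (E 0 y 0) - ν (E 0 y y) ≤ b * y) : 1 ≤ b :=
  frate_of_forall (a := fun t => ν pS - ν (E t 0 t)) hy ha0 ha1 hm
    (fun J hJ => (hxE_forall H i0 k0 h0 hy S lS l1 l2 l3 l4 ha0 ha1 r3 r4 hJ).2) r1 r2

end Crest.Agent.R116.Kr710
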