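import Crest.Agent.R116.Kr7_710

/-!
# R116, K side: static facts, data by groups of slots (helper710)

`SlabG` : `JC` = slots of the velocity, `JX` = slots of the time, `JH` = slots of the position;
`SlabG.toE` : it gives `SlabE` with the boxes `EG`.
-/

set_option autoImplicit false
set_option linter.unusedVariables false
set_option linter.unusedSectionVars false

open Filter Topology Finset

namespace Crest.Agent.R116.Kr710

open Crest.Agent.R138.Ex926 (Base U)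
open Crest.Agent.R138.Fal658 Crest.Agent.R136.Gf356

variable {κ : Type} [DecidableEq κ]

/-- refine the slots of `JC` by `t1`, of `JX` by `t2`, of `JH` by `t3` -/
def EG (pS : κ → ℝ) (JC JX JH : Finset κ) (t1 t2 t3 : ℝ) : κ → ℝ := fun j =>
  if j ∈ JC then pS j + t1 else if j ∈ JX then pS j + t2 else if j ∈ JH then pS j + t3 else pS j

theorem EG_C {pS : κ → ℝ} {JC JX JH : Finset κ} {j : κ} {t1 t2 t3 : ℝ} (h : j ∈ JC) :
    EG pS JC JX JH t1 t2 t3 j = pS j + t1 := by simp [EG, h]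

theorem EG_X {pS : κ → ℝ} {JC JX JH : Finset κ} {j : κ} {t1 t2 t3 : ℝ} (h : j ∉ JC)
    (h' : j ∈ JX) : EG pS JC JX JH t1 t2 t3 j = pS j + t2 := by simp [EG, h, h']

theorem EG_H {pS : κ → ℝ} {JC JX JH : Finset κ} {j : κ} {t1 t2 t3 : ℝ} (h : j ∉ JC)
    (h' : j ∉ JX) (h'' : j ∈ JH) : EG pS JC JX JH t1 t2 t3 j = pS j + t3 := by simp [EG, h, h', h'']

theorem EG_O {pS : κ → ℝ} {JC JX JH : Finset κ} {j : κ} {t1 t2 t3 : ℝ} (h : j ∉ JC)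
    (h' : j ∉ JX) (h'' : j ∉ JH) : EG pS JC JX JH t1 t2 t3 j = pS j := by simp [EG, h, h', h'']

/-- data of the static facts by groups of slots; the base box is `0` on the three groups -/
structure SlabG (B : Base) (G : ℕ → RCfg κ) (i0 k0 : ℕ → ℕ) (pS : κ → ℝ) (JC JX JH : Finset κ)
    (jc jx jh : κ) (c x h : ℕ → ℕ → ℝ) (y : ℝ) : Prop where
  jcC : jc ∈ JC
  jxX : jx ∈ JX
  jhH : jh ∈ JH
  dis : ∀ j ∈ JX, j ∉ JC
  hC : ∀ j ∈ JH, j ∉ JC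
  hX : ∀ j ∈ JH, j ∉ JX
  zC : ∀ j ∈ JC, pS j = 0
  zX : ∀ j ∈ JX, pS j = 0
  zH : ∀ j ∈ JH, pS j = 0
  co : ∀ C0 : ℝ, 0 < C0 → ∃ C1 : ℝ, 0 < C1 ∧ ∀ ε : ℝ, 0 < ε → ∀ᶠ n in (U : Filter ℕ),
    ∀ l ∈ (G n).box pS (C0 * ε) (i0 n) (k0 n), |c n l| ≤ B.d n ^ (-(C1 * ε)) ∧
      |x n l| ≤ B.d n ^ (-(C1 * ε)) ∧ ∀ l' ∈ (G n).box pS (C0 * ε) (i0 n) (k0 n),
      (∀ j ∈ JC, |(G n).rel (k0 n) l l' j| ≤
        B.d n ^ (-(C1 * ε)) * (|c n l' - c n l| + B.d n ^ y)) ∧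
      |c n l' - c n l| ≤ B.d n ^ (-(C1 * ε)) * (|(G n).rel (k0 n) l l' jc| + B.d n ^ y) ∧
      (∀ j ∈ JX, |(G n).rel (k0 n) l l' j| ≤
        B.d n ^ (-(C1 * ε)) * (|x n l' - x n l| + B.d n ^ y)) ∧
      |x n l' - x n l| ≤ B.d n ^ (-(C1 * ε)) * (|(G n).rel (k0 n) l l' jx| + B.d n ^ y) ∧
      (∀ j ∈ JH, |(G n).rel (k0 n) l l' j| ≤
        B.d n ^ (-(C1 * ε)) * (|(h n l' - h n l) - c n l * (x n l' - x n l)| + B.d n ^ y)) ∧
      |(h n l' - h n l) - c n l * (x n l' - x n l)| ≤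
        B.d n ^ (-(C1 * ε)) * (|(G n).rel (k0 n) l l' jh| + B.d n ^ y)

/-- pairs of lines of a loose fibre are close -/
theorem near_pairs {κ : Type} {B : Base} {G : ℕ → RCfg κ} {Leg : Set (κ → ℝ)}
    {ν : (κ → ℝ) → ℝ} {D : ℝ} (H : RUnif B G Leg ν D) {i0 k0 : ℕ → ℕ}
    (h0 : ∀ᶠ n in (U : Filter ℕ), (i0 n, k0 n) ∈ (G n).I) {pS : κ → ℝ} (lS : pS ∈ Leg) {C0 : ℝ}
    (hC0 : 0 < C0) {ε : ℝ} (hε : 0 < ε) : ∀ᶠ n in (U : Filter ℕ),
      ∀ l ∈ (G n).box pS (C0 * ε) (i0 n) (k0 n), ∀ l' ∈ (G n).box pS (C0 * ε) (i0 n) (k0 n),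
      (G n).loose pS (D ^ 2 * C0 * ε) (k0 n) l l' := by
  have hD := H.D1
  have hD0 : 0 < D := by linarith
  filter_upwards [h0, H.symm pS lS (C0 * ε) (by positivity),
    H.tri pS lS (D * (C0 * ε)) (by positivity)] with n g0 g1 g2 l hl l' hl'
  obtain ⟨a1, a2⟩ := RCfg.mem_box.1 hl
  obtain ⟨b1, b2⟩ := RCfg.mem_box.1 hl'
  have I1 := H.memSlice.1 a1
  have I2 := H.memSlice.1 b1
  have c1 := g1 (k0 n) (i0 n) l g0 I1 a2
  have c2 : (G n).loose pS (D * (C0 * ε)) (k0 n) (i0 n) l' :=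
    H.loose_mono (fun _ => le_rfl) (le_mul_of_one_le_left (by positivity) hD) b2
  have c3 := g2 (k0 n) l (i0 n) l' I1 g0 I2 c1 c2
  have e : D * (D * (C0 * ε)) = D ^ 2 * C0 * ε := by ring
  rwa [e] at c3

theorem SlabG.toE {B : Base} {G : ℕ → RCfg κ} {Leg : Set (κ → ℝ)} {ν : (κ → ℝ) → ℝ} {D : ℝ}
    (H : RUnif B G Leg ν D) {i0 k0 : ℕ → ℕ}
    (h0 : ∀ᶠ n in (U : Filter ℕ), (i0 n, k0 n) ∈ (G n).I) {pS : κ → ℝ} (lS : pS ∈ Leg)
    {JC JX JH : Finset κ} {jc jx jh : κ} {c x h : ℕ → ℕ → ℝ} {y : ℝ} (hy : 0 < y)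
    (S : SlabG B G i0 k0 pS JC JX JH jc jx jh c x h y) :
    SlabE B G i0 k0 pS (EG pS JC JX JH) c x h y := by
  have hD := H.D1
  have hD0 : 0 < D := by linarith
  -- generic: from `u ≤ ρ^(-C1 ε) (v + ρ^y)`
  have gen : ∀ {n : ℕ} {C1 s K u v ε : ℝ}, 0 < ε → 8 ≤ B.d n ^ (-ε) → s ≤ y → 0 ≤ K →
      u ≤ B.d n ^ (-(C1 * ε)) * (v + B.d n ^ y) →
      v ≤ B.d n ^ (s - K * ε) → u ≤ B.d n ^ (s - (C1 + K + 1) * ε) := by
    intro n C1 s K u v ε hε h8 hs hK hu hv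
    have hKε : 0 ≤ K * ε := by positivity
    have e1 : v + B.d n ^ y ≤ B.d n ^ (s - (K + 1) * ε) :=
      pw2 B h8 hv le_rfl (by linarith) (by nlinarith)
    calc u ≤ B.d n ^ (-(C1 * ε)) * (v + B.d n ^ y) := hu
      _ ≤ B.d n ^ (-(C1 * ε)) * B.d n ^ (s - (K + 1) * ε) :=
          mul_le_mul_of_nonneg_left e1 (rpos B n _).le
      _ = _ := by rw [← rpow_add']; congr 1; ring
  refine ⟨?_, ?_, ?_, ?_, ?_, ?_⟩
  · funext j; simp [EG]
  · intro t1 t2 t3 h1 h2 h3 j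
    unfold EG
    split_ifs <;> linarith
  · intro j
    unfold EG
    split_ifs <;> linarith
  · intro C0 hC0
    obtain ⟨C1, hC1, h1⟩ := S.co C0 hC0
    refine ⟨C1, hC1, fun ε hε => ?_⟩
    filter_upwards [h1 ε hε] with n hn l hl
    exact ⟨(hn l hl).1, (hn l hl).2.1⟩
  · intro C0 hC0 K hK
    obtain ⟨C1, hC1, h1⟩ := S.co C0 hC0
    refine ⟨C1 + K + 1, by linarith, ?_⟩
    intro s1 s2 s3 a1 b1 a2 b2 a3 b3 ε hε
    filter_upwards [h1 ε hε, ev_const_le B hε 8] with n hn h8 l hl l' hl' hlo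
    obtain ⟨g1, g2, g3, g4, g5, g6⟩ := (hn l hl).2.2 l' hl'
    have hKε : 0 ≤ K * ε := by positivity
    have hCε : 0 ≤ C1 * ε := by positivity
    have e1 : |(G n).rel (k0 n) l l' jc| ≤ B.d n ^ (s1 - K * ε) := by
      have := hlo jc
      rwa [EG_C S.jcC, S.zC _ S.jcC, zero_add, H.base n] at this
    have e2 : |(G n).rel (k0 n) l l' jx| ≤ B.d n ^ (s2 - K * ε) := by
      have := hlo jx
      rwa [EG_X (S.dis _ S.jxX) S.jxX, S.zX _ S.jxX, zero_add, H.base n] at this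
    have e3 : |(G n).rel (k0 n) l l' jh| ≤ B.d n ^ (s3 - K * ε) := by
      have := hlo jh
      rwa [EG_H (S.hC _ S.jhH) (S.hX _ S.jhH) S.jhH, S.zH _ S.jhH, zero_add, H.base n] at this
    exact ⟨gen hε h8 b1 hK.le g2 e1, gen hε h8 b2 hK.le g4 e2, gen hε h8 b3 hK.le g6 e3⟩
  · intro C0 hC0 K hK
    obtain ⟨C1, hC1, h1⟩ := S.co C0 hC0
    have hDC : 0 < D ^ 2 * C0 := by positivity
    refine ⟨C1 + K + 1 + D ^ 2 * C0, by linarith, ?_⟩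
    intro s1 s2 s3 a1 b1 a2 b2 a3 b3 ε hε
    filter_upwards [h1 ε hε, ev_const_le B hε 8, near_pairs H h0 lS hC0 hε]
      with n hn h8 hnear l hl l' hl' q1 q2 q3
    obtain ⟨g1, g2, g3, g4, g5, g6⟩ := (hn l hl).2.2 l' hl'
    have hKε : 0 ≤ K * ε := by positivity
    have hCε : 0 ≤ C1 * ε := by positivity
    have hDε : 0 ≤ D ^ 2 * C0 * ε := by positivity
    intro j
    rw [H.base n]
    by_cases j1 : j ∈ JC
    · rw [EG_C j1, S.zC j j1, zero_add]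
      exact (gen hε h8 b1 hK.le (g1 j j1) q1).trans (anK B n hε (by linarith))
    by_cases j2 : j ∈ JX
    · rw [EG_X j1 j2, S.zX j j2, zero_add]
      exact (gen hε h8 b2 hK.le (g3 j j2) q2).trans (anK B n hε (by linarith))
    by_cases j3 : j ∈ JH
    · rw [EG_H j1 j2 j3, S.zH j j3, zero_add]
      exact (gen hε h8 b3 hK.le (g5 j j3) q3).trans (anK B n hε (by linarith))
    · rw [EG_O j1 j2 j3]
      have := hnear l hl l' hl' j
      rw [H.base n] at this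
      exact this.trans (anK B n hε (by linarith))

end Crest.Agent.R116.Kr710
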