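import Mathlib
import Crest.Agent.R138.Uni_926

/-!
# R116: discrete half of the shell of the Kakeya side, abstract form (helper79)

`GSys` = an abstract system of grid lines: lines, cells, test sets with normalised volumes.
`Reg` = the unweighted two-sided uniform statement, `GrU` = the unweighted `L^{3/2}` inequality,
`GrW` = the weighted one.  Port of `R138/GrW1_294`.
-/

set_option autoImplicit false
set_option linter.unusedVariables false

open Finset

namespace Crest.Agent.R116.Ks79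

open Crest.Agent.R138

/-- an abstract system of grid lines. `V` = volume of the test set in units of one cell tube. -/
structure GSys where
  /-- lines -/
  Lin : Type
  /-- cells of a slice -/
  Q : Type
  /-- test sets at resolution `1/N` -/
  T : ℕ → Type
  /-- the cell of the line at height `j/N` -/
  cell : ℕ → Lin → ℤ → Q
  /-- admissible lines -/
  Bd : ℕ → Lin → Prop
  /-- the line is in the test set -/
  mem : (N : ℕ) → T N → Lin → Prop
  /-- normalised volume -/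
  V : (N : ℕ) → T N → ℝ
  K : ℕ
  k : ℕ
  hK : 1 ≤ K
  hcard : ∀ N : ℕ, 1 ≤ N → ∀ s : Finset Lin, (∀ l ∈ s, Bd N l) → s.card ≤ K * N ^ k
  hpt : ∀ N : ℕ, 1 ≤ N → ∀ l, Bd N l → ∃ σ, mem N σ l ∧ V N σ ≤ 1
  hV : ∀ (N : ℕ) (σ : T N), 0 ≤ V N σ

variable {S : GSys}

/-- the cell of an incidence (a line and a height). -/
def key (S : GSys) (N : ℕ) (x : S.Lin × ℤ) : S.Q × ℤ := (S.cell N x.1 x.2, x.2)

open Classical in
/-- the total weight of the lines of `s` whose cell at height `q.2` is `q.1`. -/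
noncomputable def cw (N : ℕ) (s : Finset S.Lin) (A : S.Lin → ℝ) (q : S.Q × ℤ) : ℝ :=
  ∑ l ∈ s.filter (fun l => S.cell N l q.2 = q.1), A l

open Classical in
/-- all cells met by the lines of `s`. -/
noncomputable def cells (N : ℕ) (s : Finset S.Lin) : Finset (S.Q × ℤ) :=
  (s ×ˢ Finset.Icc (-(N : ℤ)) N).image fun x => (S.cell N x.1 x.2, x.2)

open Classical in
/-- density of a finite set of distinct grid lines. -/
def Dens (N : ℕ) (s : Finset S.Lin) (Δ : ℝ) : Prop :=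
  ∀ σ : S.T N, ((s.filter (fun l => S.mem N σ l)).card : ℝ) ≤ Δ * S.V N σ

open Classical in
/-- **Reg**: the unweighted two-sided uniform form.
`s` distinct grid lines, `I` incidences (line, height); every line has between `ν` and `N^η ν`
incidences, every cell of `I` carries between `μ` and `N^η μ` of them. -/
def Reg (S : GSys) : Prop :=
  ∀ ε : ℝ, 0 < ε → ∃ η : ℝ, 0 < η ∧ ∃ C : ℝ, 0 < C ∧ ∀ N : ℕ, 1 ≤ N →
    ∀ (s : Finset S.Lin) (I : Finset (S.Lin × ℤ)) (Δ μ ν : ℝ), s.Nonempty → 0 < μ → 0 < ν →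
    (∀ l ∈ s, S.Bd N l) →
    (∀ x ∈ I, x.1 ∈ s ∧ |x.2| ≤ (N : ℤ)) →
    (∀ l ∈ s, ν ≤ ((I.filter (fun x => x.1 = l)).card : ℝ) ∧
      ((I.filter (fun x => x.1 = l)).card : ℝ) ≤ (N : ℝ) ^ η * ν) →
    (∀ x ∈ I, μ ≤ ((I.filter (fun y => key S N y = key S N x)).card : ℝ) ∧
      ((I.filter (fun y => key S N y = key S N x)).card : ℝ) ≤ (N : ℝ) ^ η * μ) →
    Dens N s Δ →
    μ * ν ^ 2 ≤ C * (N : ℝ) ^ ε * Δ * (N : ℝ) ^ 2

/-- **GrU**: the unweighted `L^{3/2}` inequality. -/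
def GrU (S : GSys) : Prop :=
  ∀ ε : ℝ, 0 < ε → ∃ C : ℝ, 0 < C ∧ ∀ N : ℕ, 1 ≤ N → ∀ (s : Finset S.Lin) (Δ : ℝ),
    (∀ l ∈ s, S.Bd N l) → Dens N s Δ →
    ∑ q ∈ cells N s, cw N s (fun _ => 1) q ^ (3 / 2 : ℝ) ≤
      C * (N : ℝ) ^ ε * Real.sqrt Δ * N * s.card

open Classical in
/-- **GrW**: the weighted `L^{3/2}` inequality. -/
def GrW (S : GSys) : Prop :=
  ∀ ε : ℝ, 0 < ε → ∃ C : ℝ, 0 ≤ C ∧ ∀ N : ℕ, 1 ≤ N → ∀ (s : Finset S.Lin) (A : S.Lin → ℝ) (Δ : ℝ),
    0 ≤ Δ → (∀ l ∈ s, 0 ≤ A l) → (∀ l ∈ s, S.Bd N l) →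
    (∀ σ : S.T N, ∑ l ∈ s.filter (fun l => S.mem N σ l), A l ≤ Δ * S.V N σ) →
    ∑ q ∈ cells N s, cw N s A q ^ (3 / 2 : ℝ) ≤
      C * (N : ℝ) ^ ε * Real.sqrt Δ * N * ∑ l ∈ s, A l

/-! ### elementary facts -/

theorem card_Icc_le {N : ℕ} (hN : 1 ≤ N) : (Icc (-(N : ℤ)) N).card ≤ 3 * N := by
  rw [Int.card_Icc]; omega

theorem one_le_of_Dens {N : ℕ} (hN : 1 ≤ N) {s : Finset S.Lin} {Δ : ℝ} (h : Dens N s Δ)
    (hs : s.Nonempty) (hbd : ∀ l ∈ s, S.Bd N l) : 1 ≤ Δ := by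
  classical
  obtain ⟨l, hl⟩ := hs
  obtain ⟨σ, hσ, hVσ⟩ := S.hpt N hN l (hbd l hl)
  have h1 := h σ
  have h2 : 1 ≤ (s.filter (fun l' => S.mem N σ l')).card := by
    rw [Nat.succ_le_iff, card_pos]
    exact ⟨l, mem_filter.2 ⟨hl, hσ⟩⟩
  have h3 : (1 : ℝ) ≤ Δ * S.V N σ := by
    refine le_trans ?_ h1
    have h4 : (1 : ℝ) ≤ ((s.filter (fun l' => S.mem N σ l')).card : ℝ) := by exact_mod_cast h2
    convert h4
  have h5 := S.hV N σ
  by_contra hcon
  push Not at hcon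
  rcases le_or_gt 0 Δ with h6 | h6
  · nlinarith
  · nlinarith

theorem Dens.mono {N : ℕ} {s t : Finset S.Lin} {Δ : ℝ} (h : Dens N s Δ) (ht : t ⊆ s) :
    Dens N t Δ := by
  classical
  intro σ
  refine le_trans ?_ (h σ)
  have := card_le_card (filter_subset_filter (fun l => S.mem N σ l) ht)
  exact_mod_cast this

open Classical in
/-- all incidences of `s`. -/
noncomputable def inc (N : ℕ) (s : Finset S.Lin) : Finset (S.Lin × ℤ) :=
  s ×ˢ Icc (-(N : ℤ)) N

open Classical in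
/-- the number of incidences in a cell. -/
theorem cw_one_eq {N : ℕ} {s : Finset S.Lin} {q : S.Q × ℤ} (hq : |q.2| ≤ (N : ℤ)) :
    cw N s (fun _ => 1) q = (((inc N s).filter (fun y => key S N y = q)).card : ℝ) := by
  unfold cw
  rw [sum_const, nsmul_eq_mul, mul_one]
  congr 1
  refine card_bij (fun l _ => (l, q.2)) ?_ ?_ ?_
  · intro l hl
    rw [mem_filter] at hl ⊢
    refine ⟨?_, ?_⟩
    · simp only [inc, mem_product, mem_Icc]
      exact ⟨hl.1, abs_le.1 hq⟩
    · simp only [key, hl.2]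
  · intro a _ b _ h
    exact (Prod.mk.inj h).1
  · rintro ⟨l, j⟩ hx
    rw [mem_filter] at hx
    obtain ⟨h1, h2⟩ := hx
    simp only [inc, mem_product] at h1
    simp only [key] at h2
    have h3 : j = q.2 := by rw [← h2]
    subst h3
    refine ⟨l, ?_, rfl⟩
    rw [mem_filter]
    exact ⟨h1.1, by rw [← h2]⟩

open Classical in
/-- sum over cells = sum over incidences. -/
theorem sum_cells_eq {N : ℕ} {s : Finset S.Lin} (g : S.Q × ℤ → ℝ) :
    ∑ q ∈ cells N s, cw N s (fun _ => 1) q * g q = ∑ x ∈ inc N s, g (key S N x) := by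
  have h1 : ∀ x ∈ inc N s, key S N x ∈ cells N s := by
    intro x hx
    exact mem_image_of_mem (fun x : S.Lin × ℤ => (S.cell N x.1 x.2, x.2)) hx
  rw [← sum_fiberwise_of_maps_to h1 (fun x => g (key S N x))]
  refine sum_congr rfl fun q hq => ?_
  have hq2 : |q.2| ≤ (N : ℤ) := by
    unfold cells at hq
    obtain ⟨x, hx, rfl⟩ := mem_image.1 hq
    simp only [mem_product, mem_Icc] at hx
    exact abs_le.2 hx.2
  rw [cw_one_eq hq2]
  rw [sum_congr rfl (g := fun _ => g q) (fun x hx => by rw [(mem_filter.1 hx).2])]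
  rw [sum_const, nsmul_eq_mul]


/-- upper bound of the number of incidences. -/
def Mx (S : GSys) (N : ℕ) : ℕ := 3 * S.K * N ^ (S.k + 1)

theorem Mx_pos (S : GSys) {N : ℕ} (hN : 1 ≤ N) : 0 < Mx S N := by
  have := S.hK
  unfold Mx
  positivity

theorem card_inc_le {N : ℕ} (hN : 1 ≤ N) {s : Finset S.Lin} (hs : ∀ l ∈ s, S.Bd N l) :
    (inc N s).card ≤ Mx S N := by
  have h1 := S.hcard N hN s hs
  have h2 := card_Icc_le hN
  unfold inc Mx
  rw [card_product]
  calc _ ≤ (S.K * N ^ S.k) * (3 * N) := by gcongr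
    _ = 3 * S.K * N ^ (S.k + 1) := by ring

/-- the number of dyadic scales. -/
def Lg (S : GSys) (N : ℕ) : ℕ := Nat.log 2 (Mx S N) + 1

theorem lt_two_pow_Lg (S : GSys) (N : ℕ) : Mx S N < 2 ^ Lg S N := by
  unfold Lg
  exact Nat.lt_pow_succ_log_self (by norm_num) _

theorem Lg_pos (S : GSys) (N : ℕ) : 1 ≤ Lg S N := by unfold Lg; omega

/-- the constant of `Lg_le`. -/
noncomputable def cL (S : GSys) (a : ℝ) : ℝ :=
  1 + 2 * Real.log (3 * S.K) + 2 * ((S.k : ℝ) + 1) / a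

theorem cL_pos (S : GSys) {a : ℝ} (ha : 0 < a) : 1 ≤ cL S a := by
  have h1 : (1 : ℝ) ≤ S.K := by exact_mod_cast S.hK
  have h2 : 0 ≤ Real.log (3 * (S.K : ℝ)) := Real.log_nonneg (by linarith)
  have h3 : 0 ≤ 2 * ((S.k : ℝ) + 1) / a := by positivity
  unfold cL
  linarith

theorem Lg_le {a : ℝ} (ha : 0 < a) {N : ℕ} (hN : 1 ≤ N) :
    (Lg S N : ℝ) ≤ cL S a * (N : ℝ) ^ a := by
  have hN1 : (1 : ℝ) ≤ N := by exact_mod_cast hN
  have hN0 : (0 : ℝ) < N := by linarith
  have h0 : (1 : ℝ) ≤ (N : ℝ) ^ a := Real.one_le_rpow hN1 ha.le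
  have hK1 : (1 : ℝ) ≤ S.K := by exact_mod_cast S.hK
  have hK2 : 0 ≤ Real.log (3 * (S.K : ℝ)) := Real.log_nonneg (by linarith)
  have hn : Mx S N ≠ 0 := (Mx_pos S hN).ne'
  have hMx : ((Mx S N : ℕ) : ℝ) = 3 * S.K * (N : ℝ) ^ (S.k + 1) := by
    unfold Mx; push_cast; ring
  -- `Nat.log 2 n ≤ 2 log n`
  have h1 : ((Nat.log 2 (Mx S N) : ℕ) : ℝ) * Real.log 2 ≤ Real.log ((Mx S N : ℕ) : ℝ) := by
    have h2 : 2 ^ Nat.log 2 (Mx S N) ≤ Mx S N := Nat.pow_log_le_self 2 hn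
    have h3 : ((2 : ℝ) ^ Nat.log 2 (Mx S N)) ≤ ((Mx S N : ℕ) : ℝ) := by exact_mod_cast h2
    have h4 := Real.log_le_log (by positivity) h3
    rwa [Real.log_pow] at h4
  have h5 : Real.log ((Mx S N : ℕ) : ℝ) =
      Real.log (3 * (S.K : ℝ)) + ((S.k : ℝ) + 1) * Real.log N := by
    rw [hMx, Real.log_mul (by positivity) (by positivity), Real.log_pow]; push_cast; ring
  have h7 : Real.log N ≤ (N : ℝ) ^ a / a := Real.log_le_rpow_div hN0.le ha
  have hl2 : (1 / 2 : ℝ) < Real.log 2 := by have := Real.log_two_gt_d9; linarith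
  rw [h5] at h1
  have h8 : 0 ≤ (N : ℝ) ^ a / a := by positivity
  have hlogN : 0 ≤ Real.log N := Real.log_nonneg hN1
  have hk0 : (0 : ℝ) ≤ (S.k : ℝ) + 1 := by positivity
  have h9 : ((S.k : ℝ) + 1) * Real.log N ≤ ((S.k : ℝ) + 1) * ((N : ℝ) ^ a / a) := by gcongr
  have hL : ((Nat.log 2 (Mx S N) : ℕ) : ℝ) ≤
      2 * Real.log (3 * (S.K : ℝ)) + 2 * (((S.k : ℝ) + 1) * ((N : ℝ) ^ a / a)) := by
    have h10 : ((Nat.log 2 (Mx S N) : ℕ) : ℝ) * (1 / 2) ≤
        ((Nat.log 2 (Mx S N) : ℕ) : ℝ) * Real.log 2 := by gcongr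
    linarith
  have hLg : (Lg S N : ℝ) = ((Nat.log 2 (Mx S N) : ℕ) : ℝ) + 1 := by
    unfold Lg; push_cast; ring
  rw [hLg]
  have h10 : cL S a * (N : ℝ) ^ a = (N : ℝ) ^ a + 2 * Real.log (3 * (S.K : ℝ)) * (N : ℝ) ^ a +
      2 * (((S.k : ℝ) + 1) * ((N : ℝ) ^ a / a)) := by
    unfold cL; ring
  rw [h10]
  have h11 : 2 * Real.log (3 * (S.K : ℝ)) * 1 ≤ 2 * Real.log (3 * (S.K : ℝ)) * (N : ℝ) ^ a := by
    gcongr
  linarith

/-! ### one level set -/

/-- the two partitions: lines and cells. -/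
noncomputable def part (S : GSys) (N : ℕ) (j : Fin 2) (x : S.Lin × ℤ) : S.Lin ⊕ (S.Q × ℤ) :=
  if j = 0 then Sum.inl x.1 else Sum.inr (key S N x)

open Classical in
theorem level {N : ℕ} (hN : 1 ≤ N) {ε η C : ℝ} (hC : 0 < C)
    (hK : 8 * (Lg S N : ℝ) ^ 2 ≤ (N : ℝ) ^ η)
    (hreg : ∀ (s : Finset S.Lin) (I : Finset (S.Lin × ℤ)) (Δ μ ν : ℝ), s.Nonempty → 0 < μ →
      0 < ν → (∀ l ∈ s, S.Bd N l) →
      (∀ x ∈ I, x.1 ∈ s ∧ |x.2| ≤ (N : ℤ)) →
      (∀ l ∈ s, ν ≤ ((I.filter (fun x => x.1 = l)).card : ℝ) ∧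
        ((I.filter (fun x => x.1 = l)).card : ℝ) ≤ (N : ℝ) ^ η * ν) →
      (∀ x ∈ I, μ ≤ ((I.filter (fun y => key S N y = key S N x)).card : ℝ) ∧
        ((I.filter (fun y => key S N y = key S N x)).card : ℝ) ≤ (N : ℝ) ^ η * μ) →
      Dens N s Δ →
      μ * ν ^ 2 ≤ C * (N : ℝ) ^ ε * Δ * (N : ℝ) ^ 2)
    {s : Finset S.Lin} {Δ : ℝ} (hs : ∀ l ∈ s, S.Bd N l) (hΔ : Dens N s Δ)
    {I : Finset (S.Lin × ℤ)} (hI : I ⊆ inc N s) {m : ℝ} (hm0 : 0 ≤ m)
    (hm : ∀ x ∈ I, m ≤ ((I.filter (fun y => key S N y = key S N x)).card : ℝ)) :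
    Real.sqrt m * I.card ≤
      4 * (Lg S N : ℝ) ^ 5 * Real.sqrt (128 * C * (N : ℝ) ^ ε) * Real.sqrt Δ * N * s.card := by
  have hN1 : (1 : ℝ) ≤ N := by exact_mod_cast hN
  have hN0 : (0 : ℝ) < N := by linarith
  rcases I.eq_empty_or_nonempty with rfl | hIne
  · simp only [card_empty, Nat.cast_zero, mul_zero]
    positivity
  have hL1 : (1 : ℝ) ≤ Lg S N := by exact_mod_cast Lg_pos S N
  obtain ⟨H, hH⟩ : ∃ H, Lg S N = H + 1 := ⟨Lg S N - 1, by have := Lg_pos S N; omega⟩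
  have hsum : ∑ i ∈ I, (1 : ℝ) < 2 ^ (H + 1) * 1 := by
    rw [sum_const, nsmul_eq_mul, mul_one, mul_one, ← hH]
    have h1 : I.card < 2 ^ Lg S N :=
      lt_of_le_of_lt ((card_le_card hI).trans (card_inc_le hN hs)) (lt_two_pow_Lg S N)
    exact_mod_cast h1
  obtain ⟨I', hI'I, hI'ne, hIcard, M, hM1, hM⟩ :=
    Ex926.uniformise I hIne (fun _ => (1 : ℝ)) one_pos (fun _ _ => le_rfl) (part S N) hsum
  have hHL : ((H : ℝ) + 1) = Lg S N := by rw [hH]; push_cast; ring
  simp only [sum_const, nsmul_eq_mul, mul_one, Fintype.card_fin, hHL] at hIcard hM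
  set K : ℝ := 4 * (Lg S N : ℝ) ^ 2 with hKdef
  have hK0 : 0 < K := by positivity
  have hc0 : ∀ (A : Finset (S.Lin × ℤ)) (x : S.Lin × ℤ),
      Ex926.cls A (part S N 0) x = A.filter (fun y => y.1 = x.1) := by
    intro A x
    ext y
    simp [Ex926.cls, part]
  have hc1 : ∀ (A : Finset (S.Lin × ℤ)) (x : S.Lin × ℤ),
      Ex926.cls A (part S N 1) x = A.filter (fun y => key S N y = key S N x) := by
    intro A x
    ext y
    simp [Ex926.cls, part]
  have hM0 := hM 0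
  have hM1' := hM 1
  simp only [hc0] at hM0
  simp only [hc1] at hM1'
  have hMp0 : 0 < M 0 := lt_of_lt_of_le one_pos (hM1 0)
  have hMp1 : 0 < M 1 := lt_of_lt_of_le one_pos (hM1 1)
  set s' : Finset S.Lin := I'.image Prod.fst with hs'
  have hs's : s' ⊆ s := by
    intro l hl
    obtain ⟨x, hx, rfl⟩ := mem_image.1 hl
    have := hI (hI'I hx)
    simp only [inc, mem_product] at this
    exact this.1
  have hKK : 2 * K ≤ (N : ℝ) ^ η := by rw [hKdef]; linarith
  have key1 := hreg s' I' Δ (M 1 / K) (M 0 / K) (hI'ne.image _) (by positivity) (by positivity)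
    (fun l hl => hs l (hs's hl))
    (fun x hx => ⟨mem_image_of_mem _ hx, by
      have := hI (hI'I hx)
      simp only [inc, mem_product, mem_Icc] at this
      exact abs_le.2 this.2⟩)
    (by
      intro l hl
      obtain ⟨x, hx, rfl⟩ := mem_image.1 hl
      obtain ⟨h1, h2, h3⟩ := hM0 x hx
      constructor
      · rw [div_le_iff₀ hK0]
        calc M 0 ≤ 2 * ((2 : ℕ) : ℝ) * (Lg S N : ℝ) ^ 2 *
              ((I'.filter (fun y => y.1 = x.1)).card : ℝ) := h3
          _ = _ := by rw [hKdef]; push_cast; ring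
      · have h4 : ((I'.filter (fun y => y.1 = x.1)).card : ℝ) ≤
            ((I.filter (fun y => y.1 = x.1)).card : ℝ) := by
          exact_mod_cast card_le_card (filter_subset_filter _ hI'I)
        calc ((I'.filter (fun y => y.1 = x.1)).card : ℝ) ≤ 2 * M 0 := h4.trans h2
          _ = 2 * K * (M 0 / K) := by field_simp
          _ ≤ (N : ℝ) ^ η * (M 0 / K) := by gcongr)
    (by
      intro x hx
      obtain ⟨h1, h2, h3⟩ := hM1' x hx
      constructor
      · rw [div_le_iff₀ hK0]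
        calc M 1 ≤ 2 * ((2 : ℕ) : ℝ) * (Lg S N : ℝ) ^ 2 *
              ((I'.filter (fun y => key S N y = key S N x)).card : ℝ) := h3
          _ = _ := by rw [hKdef]; push_cast; ring
      · have h4 : ((I'.filter (fun y => key S N y = key S N x)).card : ℝ) ≤
            ((I.filter (fun y => key S N y = key S N x)).card : ℝ) := by
          exact_mod_cast card_le_card (filter_subset_filter _ hI'I)
        calc ((I'.filter (fun y => key S N y = key S N x)).card : ℝ) ≤ 2 * M 1 := h4.trans h2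
          _ = 2 * K * (M 1 / K) := by field_simp
          _ ≤ (N : ℝ) ^ η * (M 1 / K) := by gcongr)
    (hΔ.mono hs's)
  -- the number of incidences
  have hIc : (I.card : ℝ) ≤ K * s.card * M 0 := by
    have h1 : (I'.card : ℝ) ≤ s'.card * (2 * M 0) := by
      have h2 : I'.card = ∑ l ∈ s', (I'.filter (fun y => y.1 = l)).card :=
        card_eq_sum_card_fiberwise fun x hx => mem_image_of_mem _ hx
      rw [h2]
      push_cast
      rw [← nsmul_eq_mul]
      refine sum_le_card_nsmul _ _ _ ?_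
      intro l hl
      obtain ⟨x, hx, rfl⟩ := mem_image.1 hl
      obtain ⟨-, h2, -⟩ := hM0 x hx
      have h4 : ((I'.filter (fun y => y.1 = x.1)).card : ℝ) ≤
          ((I.filter (fun y => y.1 = x.1)).card : ℝ) := by
        exact_mod_cast card_le_card (filter_subset_filter _ hI'I)
      exact h4.trans h2
    have h3 : (s'.card : ℝ) ≤ s.card := by exact_mod_cast card_le_card hs's
    calc (I.card : ℝ) ≤ 2 * (Lg S N : ℝ) ^ 2 * I'.card := hIcard
      _ ≤ 2 * (Lg S N : ℝ) ^ 2 * (s'.card * (2 * M 0)) := by gcongr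
      _ ≤ 2 * (Lg S N : ℝ) ^ 2 * (s.card * (2 * M 0)) := by gcongr
      _ = _ := by rw [hKdef]; ring
  have hmM : m ≤ 2 * M 1 := by
    obtain ⟨x, hx⟩ := hI'ne
    exact (hm x (hI'I hx)).trans (hM1' x hx).2.1
  have hΔ0 : 0 ≤ Δ := by
    have := one_le_of_Dens hN (hΔ.mono hs's) (hI'ne.image _) (fun l hl => hs l (hs's hl))
    linarith
  have hfin : 2 * M 1 * M 0 ^ 2 ≤ 2 * K ^ 3 * (C * (N : ℝ) ^ ε * Δ * (N : ℝ) ^ 2) := by
    have h1 : M 1 * M 0 ^ 2 = K ^ 3 * (M 1 / K * (M 0 / K) ^ 2) := by field_simp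
    calc 2 * M 1 * M 0 ^ 2 = 2 * (M 1 * M 0 ^ 2) := by ring
      _ = 2 * (K ^ 3 * (M 1 / K * (M 0 / K) ^ 2)) := by rw [h1]
      _ ≤ 2 * (K ^ 3 * (C * (N : ℝ) ^ ε * Δ * (N : ℝ) ^ 2)) := by gcongr
      _ = _ := by ring
  have hs0 : (0 : ℝ) ≤ s.card := Nat.cast_nonneg _
  calc Real.sqrt m * I.card ≤ Real.sqrt (2 * M 1) * (K * s.card * M 0) := by
        gcongr
    _ = K * s.card * Real.sqrt (2 * M 1 * M 0 ^ 2) := by
        rw [Real.sqrt_mul (show (0 : ℝ) ≤ 2 * M 1 by positivity) (M 0 ^ 2),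
          Real.sqrt_sq hMp0.le]
        ring
    _ ≤ K * s.card * Real.sqrt (2 * K ^ 3 * (C * (N : ℝ) ^ ε * Δ * (N : ℝ) ^ 2)) := by
        gcongr
    _ = K * s.card * Real.sqrt (((Lg S N : ℝ) ^ 3) ^ 2 * (128 * C * (N : ℝ) ^ ε) * Δ *
          (N : ℝ) ^ 2) := by
        congr 2
        rw [hKdef]; ring
    _ = K * s.card * ((Lg S N : ℝ) ^ 3 * Real.sqrt (128 * C * (N : ℝ) ^ ε) * Real.sqrt Δ * N) := by
        rw [Real.sqrt_mul (by positivity), Real.sqrt_mul (by positivity),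
          Real.sqrt_mul (by positivity), Real.sqrt_sq (by positivity), Real.sqrt_sq hN0.le]
    _ = _ := by rw [hKdef]; ring

/-! ### summing over the level sets -/

open Classical in
/-- multiplicity of an incidence -/
noncomputable def mult (N : ℕ) (s : Finset S.Lin) (x : S.Lin × ℤ) : ℕ :=
  ((inc N s).filter (fun y => key S N y = key S N x)).card

theorem mult_congr {N : ℕ} {s : Finset S.Lin} {x y : S.Lin × ℤ} (h : key S N y = key S N x) :
    mult N s y = mult N s x := by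
  unfold mult; rw [h]

theorem rpow_three_half {x : ℝ} (hx : 0 ≤ x) : x ^ (3 / 2 : ℝ) = x * Real.sqrt x := by
  rw [Real.sqrt_eq_rpow]
  rcases hx.eq_or_lt with rfl | hx
  · rw [Real.zero_rpow (by norm_num), zero_mul]
  · rw [show (3 / 2 : ℝ) = 1 + 1 / 2 by norm_num, Real.rpow_add hx, Real.rpow_one]

open Classical in
theorem sum_cw_eq {N : ℕ} {s : Finset S.Lin} :
    ∑ q ∈ cells N s, cw N s (fun _ => 1) q ^ (3 / 2 : ℝ) =
      ∑ x ∈ inc N s, Real.sqrt (mult N s x) := by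
  have h0 : ∀ q, 0 ≤ cw N s (fun _ => 1) q := fun q => by
    unfold cw; exact sum_nonneg fun _ _ => zero_le_one
  calc _ = ∑ q ∈ cells N s, cw N s (fun _ => 1) q * Real.sqrt (cw N s (fun _ => 1) q) :=
        sum_congr rfl fun q _ => rpow_three_half (h0 q)
    _ = ∑ x ∈ inc N s, Real.sqrt (cw N s (fun _ => 1) (key S N x)) :=
        sum_cells_eq (fun q => Real.sqrt (cw N s (fun _ => 1) q))
    _ = _ := by
        refine sum_congr rfl fun x hx => ?_
        rw [cw_one_eq (q := key S N x) ?_]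
        · rfl
        · simp only [inc, mem_product, mem_Icc] at hx
          exact abs_le.2 hx.2

open Classical in
theorem grU_of_reg (h : Reg S) : GrU S := by
  intro ε hε
  obtain ⟨η, hη, C, hC, hreg⟩ := h ε hε
  set a : ℝ := ε / 12 with ha
  have ha0 : 0 < a := by positivity
  have hcB := cL_pos S (a := η / 4) (by positivity)
  have hca := cL_pos S ha0
  set B : ℝ := 8 * (cL S (η / 4)) ^ 2 with hB
  have hB0 : 0 < B := by positivity
  set N0 : ℝ := B ^ (2 / η) with hN0def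
  have hN00 : 0 < N0 := Real.rpow_pos_of_pos hB0 _
  set D : ℝ := 4 * Real.sqrt 2 * Real.sqrt (128 * C) * (cL S a) ^ 6 with hD
  have hD0 : 0 ≤ D := by positivity
  set E : ℝ := 3 * Real.sqrt (3 * S.K * N0 ^ (S.k + 1)) with hE
  have hE0 : 0 ≤ E := by positivity
  refine ⟨D + E + 1, by positivity, ?_⟩
  intro N hN s Δ hs hΔ
  have hN1 : (1 : ℝ) ≤ N := by exact_mod_cast hN
  have hNp : (0 : ℝ) < N := by linarith
  have hNε : 1 ≤ (N : ℝ) ^ ε := Real.one_le_rpow hN1 hε.le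
  rcases s.eq_empty_or_nonempty with rfl | hne
  · have : cells N (∅ : Finset S.Lin) = ∅ := by simp [cells]
    rw [this]; simp
  have hΔ1 := one_le_of_Dens hN hΔ hne hs
  have hΔ0 : 0 ≤ Δ := by linarith
  have hsq : 1 ≤ Real.sqrt Δ := by rw [Real.one_le_sqrt]; exact hΔ1
  have hs0 : (0 : ℝ) ≤ s.card := Nat.cast_nonneg _
  have hmle : ∀ x, mult N s x ≤ (inc N s).card := fun x => card_le_card (filter_subset _ _)
  have hinc := card_inc_le hN hs
  rw [sum_cw_eq]
  by_cases hK : 8 * (Lg S N : ℝ) ^ 2 ≤ (N : ℝ) ^ η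
  · -- main case
    set F : ℝ := 4 * (Lg S N : ℝ) ^ 5 * Real.sqrt (128 * C * (N : ℝ) ^ ε) * Real.sqrt Δ * N *
      s.card with hF
    have hmap : ∀ x ∈ inc N s, Nat.log 2 (mult N s x) ∈ range (Lg S N) := by
      intro x hx
      rw [mem_range]
      refine Nat.log_lt_of_lt_pow ?_ ?_
      · have : 0 < mult N s x := card_pos.2 ⟨x, mem_filter.2 ⟨hx, rfl⟩⟩
        omega
      · exact lt_of_le_of_lt ((hmle x).trans hinc) (lt_two_pow_Lg S N)
    rw [← sum_fiberwise_of_maps_to hmap]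
    have hlev : ∀ i ∈ range (Lg S N),
        ∑ x ∈ (inc N s).filter (fun x => Nat.log 2 (mult N s x) = i),
          Real.sqrt (mult N s x) ≤ Real.sqrt 2 * F := by
      intro i _
      set I := (inc N s).filter (fun x => Nat.log 2 (mult N s x) = i) with hI
      have hIm : ∀ x ∈ I, (2 : ℝ) ^ i ≤ (mult N s x : ℝ) ∧ (mult N s x : ℝ) ≤ 2 * 2 ^ i := by
        intro x hx
        rw [hI, mem_filter] at hx
        have hpos : 0 < mult N s x := card_pos.2 ⟨x, mem_filter.2 ⟨hx.1, rfl⟩⟩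
        constructor
        · have := Nat.pow_log_le_self 2 hpos.ne'
          rw [hx.2] at this
          exact_mod_cast this
        · have := Nat.lt_pow_succ_log_self (b := 2) (by norm_num) (mult N s x)
          rw [hx.2] at this
          have h2 : (mult N s x : ℝ) < 2 ^ (i + 1) := by exact_mod_cast this
          rw [pow_succ] at h2
          linarith
      have hcl : ∀ x ∈ I, (2 : ℝ) ^ i ≤ ((I.filter (fun y => key S N y = key S N x)).card : ℝ) := by
        intro x hx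
        have h1 : I.filter (fun y => key S N y = key S N x) =
            (inc N s).filter (fun y => key S N y = key S N x) := by
          ext y
          simp only [hI, mem_filter]
          constructor
          · rintro ⟨⟨h1, -⟩, h3⟩; exact ⟨h1, h3⟩
          · rintro ⟨h1, h3⟩
            refine ⟨⟨h1, ?_⟩, h3⟩
            rw [mult_congr h3]
            rw [hI, mem_filter] at hx
            exact hx.2
        rw [h1]
        exact (hIm x hx).1
      have hl := level hN (ε := ε) hC hK (hreg N hN) hs hΔ (filter_subset _ _) (by positivity) hcl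
      calc ∑ x ∈ I, Real.sqrt (mult N s x) ≤ ∑ x ∈ I, Real.sqrt 2 * Real.sqrt (2 ^ i) := by
            refine sum_le_sum fun x hx => ?_
            rw [← Real.sqrt_mul (by norm_num)]
            exact Real.sqrt_le_sqrt (hIm x hx).2
        _ = Real.sqrt 2 * (Real.sqrt (2 ^ i) * I.card) := by
            rw [sum_const, nsmul_eq_mul]; ring
        _ ≤ Real.sqrt 2 * F := by gcongr
    calc _ ≤ ∑ i ∈ range (Lg S N), Real.sqrt 2 * F := sum_le_sum hlev
      _ = (Lg S N : ℝ) * (Real.sqrt 2 * F) := by rw [sum_const, card_range, nsmul_eq_mul]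
      _ = 4 * Real.sqrt 2 * Real.sqrt (128 * C) * (Lg S N : ℝ) ^ 6 * (N : ℝ) ^ (ε / 2) *
            Real.sqrt Δ * N * s.card := by
          rw [hF, Real.sqrt_mul (by positivity) ((N : ℝ) ^ ε),
            Real.sqrt_eq_rpow ((N : ℝ) ^ ε), ← Real.rpow_mul hNp.le,
            show ε * (1 / 2) = ε / 2 by ring]
          ring
      _ ≤ 4 * Real.sqrt 2 * Real.sqrt (128 * C) * ((cL S a) * (N : ℝ) ^ a) ^ 6 *
            (N : ℝ) ^ (ε / 2) * Real.sqrt Δ * N * s.card := by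
          have := Lg_le (S := S) ha0 hN
          gcongr
      _ = D * (N : ℝ) ^ ε * Real.sqrt Δ * N * s.card := by
          have h1 : ((N : ℝ) ^ a) ^ 6 * (N : ℝ) ^ (ε / 2) = (N : ℝ) ^ ε := by
            rw [← Real.rpow_natCast, ← Real.rpow_mul hNp.le, ← Real.rpow_add hNp]
            congr 1
            rw [ha]; push_cast; ring
          rw [hD, mul_pow, ← h1]
          ring
      _ ≤ (D + E + 1) * (N : ℝ) ^ ε * Real.sqrt Δ * N * s.card := by
          gcongr
          linarith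
  · -- small `N`
    push Not at hK
    have hNN0 : (N : ℝ) ≤ N0 := by
      have h1 := Lg_le (S := S) (a := η / 4) (by positivity) hN
      have h2 : 8 * (Lg S N : ℝ) ^ 2 ≤ B * (N : ℝ) ^ (η / 2) := by
        calc 8 * (Lg S N : ℝ) ^ 2 ≤ 8 * ((cL S (η / 4)) * (N : ℝ) ^ (η / 4)) ^ 2 := by gcongr
          _ = B * ((N : ℝ) ^ (η / 4)) ^ 2 := by rw [hB]; ring
          _ = B * (N : ℝ) ^ (η / 2) := by
              rw [← Real.rpow_natCast ((N : ℝ) ^ (η / 4)), ← Real.rpow_mul hNp.le]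
              congr 2
              push_cast; ring
      have h3 : (N : ℝ) ^ η = (N : ℝ) ^ (η / 2) * (N : ℝ) ^ (η / 2) := by
        rw [← Real.rpow_add hNp]; congr 1; ring
      have h4 : (N : ℝ) ^ (η / 2) < B := by
        have h5 : 0 < (N : ℝ) ^ (η / 2) := Real.rpow_pos_of_pos hNp _
        have h6 : (N : ℝ) ^ (η / 2) * (N : ℝ) ^ (η / 2) < B * (N : ℝ) ^ (η / 2) := by
          rw [← h3]; exact hK.trans_le h2
        exact lt_of_mul_lt_mul_right h6 h5.le
      have h5 : ((N : ℝ) ^ (η / 2)) ^ (2 / η) ≤ B ^ (2 / η) :=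
        Real.rpow_le_rpow (by positivity) h4.le (by positivity)
      rw [← Real.rpow_mul hNp.le, show η / 2 * (2 / η) = 1 by field_simp, Real.rpow_one] at h5
      exact h5
    have hm2 : ∀ x ∈ inc N s, Real.sqrt (mult N s x) ≤ Real.sqrt (3 * S.K * N0 ^ (S.k + 1)) := by
      intro x _
      apply Real.sqrt_le_sqrt
      have h1 : (mult N s x : ℝ) ≤ 3 * S.K * (N : ℝ) ^ (S.k + 1) := by
        have h3 := (hmle x).trans hinc
        unfold Mx at h3
        exact_mod_cast h3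
      have h2 : (N : ℝ) ^ (S.k + 1) ≤ N0 ^ (S.k + 1) := by gcongr
      have hK0 : (0 : ℝ) ≤ 3 * S.K := by positivity
      calc (mult N s x : ℝ) ≤ 3 * S.K * (N : ℝ) ^ (S.k + 1) := h1
        _ ≤ 3 * S.K * N0 ^ (S.k + 1) := by gcongr
    have hic : ((inc N s).card : ℝ) ≤ 3 * N * s.card := by
      have h1 := card_Icc_le hN
      have h2 : (inc N s).card ≤ s.card * (3 * N) := by
        unfold inc; rw [card_product]; gcongr
      have h3 : ((inc N s).card : ℝ) ≤ ((s.card * (3 * N) : ℕ) : ℝ) := by exact_mod_cast h2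
      push_cast at h3
      linarith
    calc ∑ x ∈ inc N s, Real.sqrt (mult N s x) ≤ ∑ x ∈ inc N s, Real.sqrt (3 * S.K * N0 ^ (S.k + 1)) :=
          sum_le_sum hm2
      _ = (inc N s).card * Real.sqrt (3 * S.K * N0 ^ (S.k + 1)) := by rw [sum_const, nsmul_eq_mul]
      _ ≤ (3 * N * s.card) * Real.sqrt (3 * S.K * N0 ^ (S.k + 1)) := by gcongr
      _ = E * 1 * 1 * N * s.card := by rw [hE]; ring
      _ ≤ (D + E + 1) * (N : ℝ) ^ ε * Real.sqrt Δ * N * s.card := by
          gcongr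
          linarith

end Crest.Agent.R116.Ks79
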