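import Crest.Agent.R116.Ks3_79
import Crest.Agent.R116.LKMDef_299

/-!
# R116: the grid of light rays and the sequence form `LKMseq` (helper79)

A grid ray `l = ((C, X), H)` with integer coordinates, resolution `1/N`: at height `z` it is at
`(X + z C, H + z |C|²/2)` with `(C, X, H) = l / N`.  In 480's / 725's sign this is the ray
`gray N l = (-C, X, H)`.  Test sets = 725's members of length `1`, all thicknesses `≥ 1/N`.

PRODUCER of `LKMseq M`: K-TEXT I-c / II-c.  CONSUMER: `Ks8_79` (`LKMseq M → LKMtube (SSr M') V`).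
-/

set_option autoImplicit false
set_option linter.unusedVariables false

open Finset Filter Topology

namespace Crest.Agent.R116.Ks79

open Crest.Agent.R138
open Crest.Agent.R138.Defs (E2)
open Crest.Agent.R138.Ex926 (Base U)
open Crest.Agent.R116.CDef480 (E3 lat pt)
open Crest.Agent.R116.LZg725 (Cf Mem rpos rx ry)
open Crest.Agent.R116.LKMDef299 (LRay Cpt)

/-- grid rays `((C, X), H)`. -/
abbrev GRay := ((ℤ × ℤ) × (ℤ × ℤ)) × ℤ

/-- slope. -/
noncomputable def gC (N : ℕ) (l : GRay) : E2 := !₂[(l.1.1.1 : ℝ) / N, (l.1.1.2 : ℝ) / N]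

/-- lateral position at height `0`. -/
noncomputable def gX (N : ℕ) (l : GRay) : E2 := !₂[(l.1.2.1 : ℝ) / N, (l.1.2.2 : ℝ) / N]

/-- null position at height `0`. -/
noncomputable def gH (N : ℕ) (l : GRay) : ℝ := (l.2 : ℝ) / N

/-- the light ray of a grid ray, in the sign of 480 / 725 / 299. -/
noncomputable def gray (N : ℕ) (l : GRay) : LRay := (-(gC N l), gX N l, gH N l)

/-- the cell (cube of side `1/N`) containing the point of `l` at height `j/N`. -/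
noncomputable def cell (N : ℕ) (l : GRay) (j : ℤ) : (ℤ × ℤ) × ℤ :=
  ((⌊(l.1.2.1 : ℝ) + l.1.1.1 * (j : ℝ) / N⌋, ⌊(l.1.2.2 : ℝ) + l.1.1.2 * (j : ℝ) / N⌋),
    ⌊(l.2 : ℝ) + ((l.1.1.1 : ℝ) ^ 2 + (l.1.1.2 : ℝ) ^ 2) * (j : ℝ) / (2 * (N : ℝ) ^ 2)⌋)

/-- all coordinates of the grid ray are at most `N` in absolute value. -/
def Bd (N : ℕ) (l : GRay) : Prop :=
  |l.1.1.1| ≤ (N : ℤ) ∧ |l.1.1.2| ≤ (N : ℤ) ∧ |l.1.2.1| ≤ (N : ℤ) ∧ |l.1.2.2| ≤ (N : ℤ) ∧
    |l.2| ≤ (N : ℤ)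

/-- test member at resolution `1/N`: length `1`, all thicknesses at least `1/N`. -/
structure Tst (M : ℝ) (N : ℕ) (m : Mem) : Prop where
  ok : m.Ok M (1 / (N : ℝ))
  cpt : Cpt M (1 / (N : ℝ)) m
  R1 : m.R = 1
  s0 : m.s0 = 0
  thin : 1 / (N : ℝ) ≤ m.s1
  sg1 : m.sg ≤ 1

open Classical in
/-- density at most `Δ` on every test member. -/
def DensL (M : ℝ) (N : ℕ) (s : Finset GRay) (Δ : ℝ) : Prop :=
  ∀ m : Mem, Tst M N m →
    ((s.filter (fun l => gray N l ∈ m.rays (1 / (N : ℝ)))).card : ℝ) ≤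
      Δ * (m.scost (1 / (N : ℝ)) * (N : ℝ) ^ 3)

/-- the cell of an incidence. -/
noncomputable def keyL (N : ℕ) (x : GRay × ℤ) : ((ℤ × ℤ) × ℤ) × ℤ := (cell N x.1 x.2, x.2)

open Classical in
/-- **LKMseq**: the sequence form.  `d n = 1 / N n` is a base; distinct grid rays `s n`,
incidences `I n`, every ray has `ν` up to `N^o(1)` incidences, every cell of `I n` carries
`μ` up to `N^o(1)` incidences, density `Δ`. -/
def LKMseq (M : ℝ) : Prop :=
  ∀ (B : Base) (N : ℕ → ℕ) (s : ℕ → Finset GRay) (I : ℕ → Finset (GRay × ℤ))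
    (Δ μ ν : ℕ → ℝ),
    (∀ n, 2 ≤ N n) → (∀ n, B.d n = 1 / (N n : ℝ)) →
    (∀ n, (s n).Nonempty) → (∀ n, (I n).Nonempty) → (∀ n, 1 ≤ Δ n) → (∀ n, 0 < μ n) →
    (∀ n, 0 < ν n) →
    (∀ n, ∀ l ∈ s n, Bd (N n) l) →
    (∀ n, ∀ x ∈ I n, x.1 ∈ s n ∧ |x.2| ≤ (N n : ℤ)) →
    (∀ n, ∀ l ∈ s n, ν n ≤ (((I n).filter (fun x => x.1 = l)).card : ℝ)) →
    (∀ n, ∀ x ∈ I n, μ n ≤ (((I n).filter (fun y => keyL (N n) y = keyL (N n) x)).card : ℝ)) →
    (∀ η : ℝ, 0 < η → ∀ᶠ n in (U : Filter ℕ), ∀ l ∈ s n,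
      (((I n).filter (fun x => x.1 = l)).card : ℝ) ≤ (N n : ℝ) ^ η * ν n) →
    (∀ η : ℝ, 0 < η → ∀ᶠ n in (U : Filter ℕ), ∀ x ∈ I n,
      (((I n).filter (fun y => keyL (N n) y = keyL (N n) x)).card : ℝ) ≤ (N n : ℝ) ^ η * μ n) →
    (∀ n, DensL M (N n) (s n) (Δ n)) →
    ∀ ε : ℝ, 0 < ε → ∀ᶠ n in (U : Filter ℕ),
      μ n * ν n ^ 2 ≤ (N n : ℝ) ^ ε * Δ n * (N n : ℝ) ^ 2

/-! ### elementary facts -/

/-- monotonicity in the constant of the class. -/
theorem Tst.mono {M M' : ℝ} {N : ℕ} {m : Mem} (h : Tst M N m) (hM : M ≤ M') : Tst M' N m :=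
  ⟨LKMDef299.Ok.mono h.ok hM,
    LKMDef299.Cpt.mono h.cpt (mul_nonneg h.ok.hs1.le h.ok.hR.le) hM, h.R1, h.s0, h.thin, h.sg1⟩

theorem DensL.mono {M M' : ℝ} {N : ℕ} {s : Finset GRay} {Δ : ℝ} (h : DensL M' N s Δ)
    (hM : M ≤ M') : DensL M N s Δ := fun m hm => h m (hm.mono hM)

/-- a larger class gives a weaker statement. -/
theorem LKMseq.mono {M M' : ℝ} (h : LKMseq M) (hM : M ≤ M') : LKMseq M' := by
  intro B N s I Δ μ ν h1 h2 h3 h4 h5 h6 h7 h8 h9 h10 h11 h12 h13 h14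
  exact h B N s I Δ μ ν h1 h2 h3 h4 h5 h6 h7 h8 h9 h10 h11 h12 h13 fun n => (h14 n).mono hM

/-- the flat conformal function `⟨e, (x - x0) + s c⟩` with a unit vector `e`. -/
noncomputable def flat (e c x0 : E2) : Cf E2 :=
  ⟨-inner ℝ e x0, inner ℝ e c, e, 0, 0⟩

theorem flat_ev (e c x0 x : E2) (y s : ℝ) :
    (flat e c x0).ev x y s = inner ℝ e ((x - x0) + s • c) := by
  unfold flat Cf.ev
  rw [inner_add_right, inner_sub_right, real_inner_smul_right]
  ring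

theorem flat_disc (e c x0 : E2) (he : ‖e‖ = 1) : (flat e c x0).disc = 1 := by
  unfold flat Cf.disc
  simp [he]

theorem flat_ny (e c x0 : E2) (s : ℝ) : (flat e c x0).ny s = 0 := by
  unfold flat Cf.ny
  simp

theorem flat_ld (e c x0 x : E2) (y s : ℝ) : (flat e c x0).ld c x y s = 0 := by
  unfold flat Cf.ld Cf.ny
  simp

/-- a unit vector. -/
noncomputable def e1 : E2 := EuclideanSpace.single 0 1

theorem norm_e1 : ‖e1‖ = 1 := by
  unfold e1
  simp

/-- the flat member around a ray: aperture `σ`. -/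
noncomputable def flatMem (σ s1 : ℝ) (r : LRay) : Mem where
  c := r.1
  sg := σ
  s1 := s1
  R := 1
  X0 := rpos r 0
  s0 := 0
  phi := flat e1 r.1 r.2.1

theorem lat_rpos0 (r : LRay) : lat (rpos r 0) = r.2.1 := by
  rw [LZg725.lat_rpos]; unfold rx; simp

theorem rpos0_two (r : LRay) : rpos r 0 2 = r.2.2 := by
  rw [LZg725.rpos_two]; unfold ry; simp

theorem flatMem_ok {M B σ s1 : ℝ} (hM : 0 ≤ M) (hs1 : 0 < s1) (hσ : s1 ≤ σ) (r : LRay) :
    (flatMem σ s1 r).Ok M B := by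
  have hσ0 : 0 ≤ σ := hs1.le.trans hσ
  refine ⟨one_pos, hs1, hσ, ?_, ?_, ?_, ?_⟩
  · exact flat_disc _ _ _ norm_e1
  · intro s _
    show |(flat e1 r.1 r.2.1).ny s| * _ ≤ M * σ
    rw [flat_ny]; simp only [abs_zero, zero_mul]; positivity
  · show |(flat e1 r.1 r.2.1).ld r.1 _ _ _| ≤ M * σ
    rw [flat_ld]; simp only [abs_zero]; positivity
  · show |(flat e1 r.1 r.2.1).ev (lat (rpos r 0)) _ 0| ≤ M * σ * 1
    rw [flat_ev, lat_rpos0]
    simp only [sub_self, zero_smul, add_zero, inner_zero_right, abs_zero]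
    positivity

/-- every ray lies in its own flat member. -/
theorem mem_flatMem_self {B σ s1 : ℝ} (hB : 0 ≤ B) (hs1 : 0 ≤ s1) (hσ : 0 ≤ σ) (r : LRay) :
    r ∈ (flatMem σ s1 r).rays B := by
  have hT : 0 ≤ (flatMem σ s1 r).T B := le_trans (sq_nonneg _) (le_max_left _ _)
  refine ⟨?_, ?_⟩
  · show ‖r.1 - r.1‖ ≤ σ
    rw [sub_self, norm_zero]; exact hσ
  · intro s hs
    have hs' : |s - 0| ≤ 1 := hs
    refine ⟨⟨hs, ?_, ?_⟩, ?_⟩
    · show ‖lat (rpos r s) - lat (rpos r 0) + (s - 0) • r.1‖ ≤ σ * 1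
      rw [LZg725.lat_rpos, lat_rpos0]
      unfold rx
      rw [sub_zero, sub_right_comm, sub_self, zero_sub, neg_add_cancel, norm_zero]
      linarith
    · show |LZg725.nrm r.1 (lat (rpos r s)) (rpos r s 2) s -
        LZg725.nrm r.1 (lat (rpos r 0)) (rpos r 0 2) 0| ≤ (flatMem σ s1 r).T B * 1
      rw [LZg725.lat_rpos, LZg725.rpos_two, LZg725.lat_rpos, LZg725.rpos_two,
        LZg725.nrm_ray, LZg725.nrm_ray, sub_self, abs_zero]
      linarith
    · show |(flat e1 r.1 r.2.1).ev (lat (rpos r s)) _ s| ≤ s1 * 1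
      rw [flat_ev, LZg725.lat_rpos]
      unfold rx
      rw [sub_right_comm, sub_self, zero_sub, neg_add_cancel, inner_zero_right, abs_zero]
      linarith

/-- number of grid rays. -/
theorem card_le_of_Bd {N : ℕ} (hN : 1 ≤ N) {s : Finset GRay} (hs : ∀ l ∈ s, Bd N l) :
    s.card ≤ 243 * N ^ 5 := by
  have h1 : s ⊆ ((Icc (-(N : ℤ)) N ×ˢ Icc (-(N : ℤ)) N) ×ˢ
      (Icc (-(N : ℤ)) N ×ˢ Icc (-(N : ℤ)) N)) ×ˢ Icc (-(N : ℤ)) N := by
    intro l hl
    obtain ⟨h1, h2, h3, h4, h5⟩ := hs l hl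
    simp only [mem_product, mem_Icc]
    rw [abs_le] at h1 h2 h3 h4 h5
    exact ⟨⟨⟨h1, h2⟩, ⟨h3, h4⟩⟩, h5⟩
  have h3 := card_Icc_le hN
  refine (card_le_card h1).trans ?_
  rw [card_product, card_product, card_product]
  calc _ ≤ (((3 * N) * (3 * N)) * ((3 * N) * (3 * N))) * (3 * N) := by gcongr
    _ = 243 * N ^ 5 := by ring

/-- the system of grid light rays. -/
noncomputable def rsys (M : ℝ) (hM : 0 ≤ M) : GSys where
  Lin := GRay
  Q := (ℤ × ℤ) × ℤ
  T := fun N => {m : Mem // 1 ≤ N ∧ Tst M N m}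
  cell := cell
  Bd := Bd
  mem := fun N m l => gray N l ∈ m.1.rays (1 / (N : ℝ))
  V := fun N m => m.1.scost (1 / (N : ℝ)) * (N : ℝ) ^ 3
  K := 243
  k := 5
  hK := by norm_num
  hcard := fun N hN s hs => card_le_of_Bd hN hs
  hpt := by
    intro N hN l _
    have hN0 : (0 : ℝ) < N := by exact_mod_cast hN
    have hN1 : (1 : ℝ) ≤ N := by exact_mod_cast hN
    have h0 : 0 < 1 / (N : ℝ) := by positivity
    have h1 : 1 / (N : ℝ) ≤ 1 := by rw [div_le_one hN0]; exact hN1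
    refine ⟨⟨flatMem (1 / N) (1 / N) (gray N l), hN, ?_⟩, ?_, ?_⟩
    · refine ⟨flatMem_ok hM h0 le_rfl _, ?_, rfl, rfl, le_rfl, h1⟩
      intro s _
      show |(flat e1 (gray N l).1 (gray N l).2.1).ny s| * _ ≤ M * (1 / N * 1)
      rw [flat_ny]; simp only [abs_zero, zero_mul]; positivity
    · exact mem_flatMem_self h0.le h0.le h0.le _
    · show (flatMem (1 / N) (1 / N) (gray N l)).scost (1 / (N : ℝ)) * (N : ℝ) ^ 3 ≤ 1
      have hT : (flatMem (1 / N) (1 / N) (gray N l)).T (1 / (N : ℝ)) = 1 / N := by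
        unfold Mem.T
        show max ((1 / (N : ℝ)) ^ 2) (1 / (N : ℝ) / 1) = 1 / N
        rw [div_one]
        apply max_eq_right
        calc (1 / (N : ℝ)) ^ 2 = 1 / N * (1 / N) := by ring
          _ ≤ 1 / N * 1 := by gcongr
          _ = 1 / N := by ring
      unfold Mem.scost
      rw [hT]
      show 1 / (N : ℝ) * (1 / N) * (1 / N) * 1 ^ 3 * (N : ℝ) ^ 3 ≤ 1
      apply le_of_eq
      field_simp
  hV := by
    intro N m
    exact mul_nonneg m.2.2.ok.scost_pos.le (by positivity)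

theorem card_filter_inst {α : Type} (p : α → Prop) (i1 i2 : DecidablePred p) (A : Finset α) :
    (@Finset.filter α p i1 A).card = (@Finset.filter α p i2 A).card := by
  congr

/-- `LKMseq` is the sequence form of the system `rsys`. -/
theorem lseq_of_lkmseq {M : ℝ} (hM : 0 ≤ M) (h : LKMseq M) : LSeq (rsys M hM) := by
  intro B N (s : ℕ → Finset GRay) (I : ℕ → Finset (GRay × ℤ)) Δ μ ν h1 h2 h3 h4 h5 h6 h7 h8 h9
    h10 h11 h12 h13 h14
  refine h B N s I Δ μ ν h1 h2 h3 h4 h5 h6 h7 h8 h9 ?_ ?_ ?_ ?_ ?_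
  · intro n l hl
    rw [card_filter_inst _ _ (fun x => Classical.propDecidable _) (I n)]
    exact h10 n l hl
  · intro n x hx
    exact (h11 n x hx).trans_eq (congrArg (Nat.cast (R := ℝ))
      (card_filter_inst (fun y => keyL (N n) y = keyL (N n) x) _ _ (I n)))
  · intro η hη
    filter_upwards [h12 η hη] with n hn l hl
    rw [card_filter_inst _ _ (fun x => Classical.propDecidable _) (I n)]
    exact hn l hl
  · intro η hη
    filter_upwards [h13 η hη] with n hn x hx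
    exact le_trans (le_of_eq (congrArg (Nat.cast (R := ℝ))
      (card_filter_inst (fun y => keyL (N n) y = keyL (N n) x) _ _ (I n)))) (hn x hx)
  · intro n m hm
    rw [card_filter_inst _ _ (fun x => Classical.propDecidable _) (s n)]
    exact h14 n ⟨m, by have := h1 n; omega, hm⟩

/-- **the weighted grid inequality for light rays.** -/
theorem grW_of_lkmseq {M : ℝ} (hM : 0 ≤ M) (h : LKMseq M) : GrW (rsys M hM) :=
  grW_of_lseq (lseq_of_lkmseq hM h)

end Crest.Agent.R116.Ks79
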