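import Crest.Agent.R116.Ks2_79

/-!
# R116: continuous half of the shell of the Kakeya side, abstract part (helper79)

Pointwise bound of a tube sum by cell weights of an abstract system `GSys` and the integral of the
cell weights.  Port of `R138/Gr1-4_63`.
-/

set_option autoImplicit false
set_option linter.unusedVariables false

open MeasureTheory
open scoped ENNReal

namespace Crest.Agent.R116.Ks79

variable {S : GSys}

theorem vol_line {N : ℕ} (hN : 1 ≤ N) (j : ℤ) :
    volume {z : ℝ | ⌊(N : ℝ) * z⌋ = j} ≤ ENNReal.ofReal (1 / (N : ℝ)) := by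
  have hN' : (0 : ℝ) < N := by exact_mod_cast hN
  have hsub : {z : ℝ | ⌊(N : ℝ) * z⌋ = j} ⊆ Set.Icc ((j : ℝ) / N) ((j + 1) / N) := by
    intro z hz
    simp only [Set.mem_ofPred_eq] at hz
    have h1 := Int.floor_le ((N : ℝ) * z)
    have h2 := Int.lt_floor_add_one ((N : ℝ) * z)
    rw [hz] at h1 h2
    constructor
    · rw [div_le_iff₀ hN']; linarith
    · rw [le_div_iff₀ hN']; linarith
  refine (measure_mono hsub).trans ?_
  rw [Real.volume_Icc]
  apply ENNReal.ofReal_le_ofReal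
  rw [← sub_div]; ring_nf; rfl

theorem floor_close {a b : ℝ} {m : ℤ} (h : |a - b| ≤ m) : |⌊a⌋ - ⌊b⌋| ≤ m := by
  rw [abs_le] at *
  have h1 := Int.floor_le a
  have h2 := Int.lt_floor_add_one a
  have h3 := Int.floor_le b
  have h4 := Int.lt_floor_add_one b
  constructor
  · have : (⌊b⌋ : ℝ) < ⌊a⌋ + 1 + m := by linarith [h.1]
    have : ⌊b⌋ < ⌊a⌋ + 1 + m := by exact_mod_cast this
    omega
  · have : (⌊a⌋ : ℝ) < ⌊b⌋ + 1 + m := by linarith [h.2]
    have : ⌊a⌋ < ⌊b⌋ + 1 + m := by exact_mod_cast this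
    omega

theorem cw_eq_zero {N : ℕ} {s : Finset S.Lin} {A : S.Lin → ℝ} {q : S.Q × ℤ}
    (hj : q.2 ∈ Finset.Icc (-(N : ℤ)) N) (hq : q ∉ cells N s) : cw N s A q = 0 := by
  classical
  unfold cw
  apply Finset.sum_eq_zero
  intro l hl
  exfalso
  obtain ⟨h1, h2⟩ := Finset.mem_filter.mp hl
  apply hq
  unfold cells
  rw [Finset.mem_image]
  refine ⟨(l, q.2), Finset.mem_product.mpr ⟨h1, hj⟩, ?_⟩
  simp [h2]

open Classical in
/-- pointwise bound of the tube sum by the cell weights. -/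
theorem point_bound {ι κ : Type} {N : ℕ} (s : Finset ι) (rl : ι → S.Lin) (a : ι → ℝ)
    (ha : ∀ i ∈ s, 0 ≤ a i) (E : Finset κ) (c : κ → S.Q) (j : ℤ) (P : ι → Prop)
    (hP : ∀ i ∈ s, P i → ∃ e ∈ E, S.cell N (rl i) j = c e) :
    (∑ i ∈ s, if P i then ENNReal.ofReal (a i) else 0) ≤
      ∑ e ∈ E, ENNReal.ofReal (cw N (s.image rl)
          (fun l => ∑ i ∈ s.filter (fun i => rl i = l), a i) (c e, j)) := by
  -- value of the cell weight
  have hcw : ∀ q : S.Q × ℤ, cw N (s.image rl)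
      (fun l => ∑ i ∈ s.filter (fun i => rl i = l), a i) q =
      ∑ i ∈ s.filter (fun i => S.cell N (rl i) q.2 = q.1), a i := by
    intro q
    unfold cw
    have h := Finset.sum_fiberwise_of_maps_to (s := s.filter
      (fun i => S.cell N (rl i) q.2 = q.1))
      (t := (s.image rl).filter (fun l => S.cell N l q.2 = q.1))
      (g := rl) (f := a) ?_
    · rw [← h]
      apply Finset.sum_congr rfl
      intro l hl
      apply Finset.sum_congr _ (fun _ _ => rfl)
      ext i
      simp only [Finset.mem_filter]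
      constructor
      · rintro ⟨h1, h2⟩
        refine ⟨⟨h1, ?_⟩, h2⟩
        rw [h2]; exact (Finset.mem_filter.mp hl).2
      · rintro ⟨⟨h1, _⟩, h2⟩
        exact ⟨h1, h2⟩
    · intro i hi
      obtain ⟨h1, h2⟩ := Finset.mem_filter.mp hi
      exact Finset.mem_filter.mpr ⟨Finset.mem_image.mpr ⟨i, h1, rfl⟩, h2⟩
  have step : ∀ i ∈ s, (if P i then ENNReal.ofReal (a i) else 0) ≤
      ∑ e ∈ E, if S.cell N (rl i) j = c e then ENNReal.ofReal (a i) else 0 := by
    intro i hi
    split_ifs with h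
    · obtain ⟨e, he, h2⟩ := hP i hi h
      refine le_trans ?_ (Finset.single_le_sum (f := fun e : κ =>
        if S.cell N (rl i) j = c e then ENNReal.ofReal (a i) else 0)
        (fun _ _ => zero_le) he)
      rw [if_pos h2]
    · exact zero_le
  refine (Finset.sum_le_sum step).trans ?_
  rw [Finset.sum_comm]
  apply Finset.sum_le_sum
  intro e he
  rw [hcw, ENNReal.ofReal_sum_of_nonneg (fun i hi => ha i (Finset.mem_filter.mp hi).1),
    Finset.sum_filter]

open Classical in
/-- the integral of the cell weights. -/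
theorem integral_cells {X : Type} [MeasureSpace X] {N : ℕ} (hN : 1 ≤ N) (s : Finset S.Lin)
    (A : S.Lin → ℝ) (c : X → S.Q) {v : ℝ≥0∞} (hv : v ≠ ⊤)
    (hm : ∀ q, MeasurableSet {x | c x = q}) (hvol : ∀ q, volume {x | c x = q} ≤ v) :
    ∫⁻ z in Set.Icc (-1 : ℝ) 1, ∫⁻ x : X, ENNReal.ofReal (cw N s A
      (c x, ⌊(N : ℝ) * z⌋)) ^ (3 / 2 : ℝ) ≤
    (∑ q ∈ cells N s, ENNReal.ofReal (cw N s A q) ^ (3 / 2 : ℝ)) *
      (v * ENNReal.ofReal (1 / (N : ℝ))) := by
  have hN' : (0 : ℝ) < N := by exact_mod_cast hN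
  -- pointwise domination by a finite sum of indicators
  have dom : ∀ z ∈ Set.Icc (-1 : ℝ) 1, ∀ x : X,
      ENNReal.ofReal (cw N s A (c x, ⌊(N : ℝ) * z⌋)) ^ (3 / 2 : ℝ) ≤
      ∑ q ∈ cells N s, ENNReal.ofReal (cw N s A q) ^ (3 / 2 : ℝ) *
        ({x : X | c x = q.1}.indicator 1 x *
          {z : ℝ | ⌊(N : ℝ) * z⌋ = q.2}.indicator 1 z) := by
    intro z hz x
    set q0 : S.Q × ℤ := (c x, ⌊(N : ℝ) * z⌋) with hq0
    by_cases hq : q0 ∈ cells N s
    · refine le_trans ?_ (Finset.single_le_sum (f := fun q : S.Q × ℤ =>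
        ENNReal.ofReal (cw N s A q) ^ (3 / 2 : ℝ) *
        ({x : X | c x = q.1}.indicator 1 x *
          {z : ℝ | ⌊(N : ℝ) * z⌋ = q.2}.indicator 1 z)) (fun _ _ => zero_le) hq)
      have h1 : x ∈ {x : X | c x = q0.1} := rfl
      have h2 : z ∈ {z : ℝ | ⌊(N : ℝ) * z⌋ = q0.2} := rfl
      simp only [Set.indicator_of_mem h1, Set.indicator_of_mem h2, Pi.one_apply, mul_one, le_refl]
    · have hj : q0.2 ∈ Finset.Icc (-(N : ℤ)) N := by
        simp only [hq0, Finset.mem_Icc]
        constructor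
        · rw [Int.le_floor]; push_cast; nlinarith [hz.1]
        · have : (⌊(N : ℝ) * z⌋ : ℝ) ≤ N := (Int.floor_le _).trans (by nlinarith [hz.2])
          exact_mod_cast this
      rw [cw_eq_zero hj hq]
      simp
  calc _ ≤ ∫⁻ z in Set.Icc (-1 : ℝ) 1, ∑ q ∈ cells N s,
        ENNReal.ofReal (cw N s A q) ^ (3 / 2 : ℝ) * (v *
          {z : ℝ | ⌊(N : ℝ) * z⌋ = q.2}.indicator 1 z) := by
        apply setLIntegral_mono' measurableSet_Icc
        intro z hz
        refine (lintegral_mono (dom z hz)).trans ?_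
        rw [lintegral_finsetSum']
        · apply Finset.sum_le_sum
          intro q hq
          rw [lintegral_const_mul' _ _ (by
            apply ENNReal.rpow_ne_top_of_nonneg (by norm_num) ENNReal.ofReal_ne_top)]
          apply mul_le_mul_right
          rw [lintegral_mul_const' _ _ (by
            by_cases h : z ∈ {z : ℝ | ⌊(N : ℝ) * z⌋ = q.2}
            · simp [Set.indicator_of_mem h]
            · simp [Set.indicator_of_notMem h])]
          apply mul_le_mul_left
          refine (lintegral_indicator_one_le _).trans ?_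
          exact hvol q.1
        · intro q hq
          apply AEMeasurable.const_mul
          apply AEMeasurable.mul_const
          apply Measurable.aemeasurable
          exact Measurable.indicator measurable_one (hm q.1)
    _ ≤ ∑ q ∈ cells N s, ENNReal.ofReal (cw N s A q) ^ (3 / 2 : ℝ) *
        (v * ENNReal.ofReal (1 / (N : ℝ))) := by
        refine (setLIntegral_le_lintegral _ _).trans ?_
        rw [lintegral_finsetSum']
        · apply Finset.sum_le_sum
          intro q hq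
          rw [lintegral_const_mul' _ _ (by
            apply ENNReal.rpow_ne_top_of_nonneg (by norm_num) ENNReal.ofReal_ne_top)]
          apply mul_le_mul_right
          rw [lintegral_const_mul' _ _ hv]
          apply mul_le_mul_right
          refine (lintegral_indicator_one_le _).trans ?_
          exact vol_line hN q.2
        · intro q hq
          apply AEMeasurable.const_mul
          apply AEMeasurable.const_mul
          apply Measurable.aemeasurable
          apply Measurable.indicator measurable_one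
          exact (Int.measurable_floor.comp (by fun_prop)) (MeasurableSet.singleton _)
    _ = _ := by
        rw [Finset.sum_mul]

open Classical in
/-- **from the grid inequality to the integral of a tube sum.** -/
theorem integral_tubes {X ι κ : Type} [MeasureSpace X] {N : ℕ} (hN : 1 ≤ N) (s : Finset ι)
    (rl : ι → S.Lin) (a : ι → ℝ) (ha : ∀ i ∈ s, 0 ≤ a i) (E : Finset κ) (c : κ → X → S.Q)
    {v : ℝ} (hv : 0 ≤ v) [MeasurableSpace S.Q] [Countable S.Q] [MeasurableSingletonClass S.Q]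
    (hm : ∀ e ∈ E, Measurable (c e))
    (hvol : ∀ e ∈ E, ∀ q, volume {x | c e x = q} ≤ ENNReal.ofReal v)
    (P : ι → ℝ → X → Prop)
    (hP : ∀ z ∈ Set.Icc (-1 : ℝ) 1, ∀ x, ∀ i ∈ s, P i z x →
      ∃ e ∈ E, S.cell N (rl i) ⌊(N : ℝ) * z⌋ = c e x) :
    ∫⁻ z in Set.Icc (-1 : ℝ) 1, ∫⁻ x : X,
        (∑ i ∈ s, (if P i z x then ENNReal.ofReal (a i) else 0)) ^ (3/2 : ℝ) ≤
      ENNReal.ofReal ((E.card : ℝ) ^ 2 * ((∑ q ∈ cells N (s.image rl), cw N (s.image rl)
        (fun l => ∑ i ∈ s.filter (fun i => rl i = l), a i) q ^ (3 / 2 : ℝ)) *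
          (v * (1 / (N : ℝ))))) := by
  set s' := s.image rl with hs'
  set A : S.Lin → ℝ := fun l => ∑ i ∈ s.filter (fun i => rl i = l), a i with hA
  have hA0 : ∀ l ∈ s', 0 ≤ A l := fun l _ =>
    Finset.sum_nonneg fun i hi => ha i (Finset.mem_filter.mp hi).1
  have pb : ∀ z ∈ Set.Icc (-1 : ℝ) 1, ∀ x : X,
      (∑ i ∈ s, (if P i z x then ENNReal.ofReal (a i) else 0)) ≤
      ∑ e ∈ E, ENNReal.ofReal (cw N s' A (c e x, ⌊(N : ℝ) * z⌋)) :=
    fun z hz x => point_bound s rl a ha E (fun e => c e x) _ (fun i => P i z x)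
      (fun i hi h => hP z hz x i hi h)
  clear_value A s'
  have cE : (E.card : ℝ≥0∞) ^ (3 / 2 - 1 : ℝ) ≤ E.card := by
    rcases Nat.eq_zero_or_pos E.card with h | h
    · rw [h]
      have : ((0 : ℕ) : ℝ≥0∞) ^ (3 / 2 - 1 : ℝ) = 0 := by
        rw [Nat.cast_zero]
        exact ENNReal.zero_rpow_of_pos (by norm_num)
      rw [this]
      exact zero_le
    · refine (ENNReal.rpow_le_rpow_of_exponent_le (z := 1) (by exact_mod_cast h)
        (by norm_num)).trans ?_
      rw [ENNReal.rpow_one]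
  -- pointwise
  have pw : ∀ z ∈ Set.Icc (-1 : ℝ) 1, ∀ x : X,
      (∑ i ∈ s, (if P i z x then ENNReal.ofReal (a i) else 0)) ^ (3/2 : ℝ) ≤
      (E.card : ℝ≥0∞) * ∑ e ∈ E, ENNReal.ofReal (cw N s' A (c e x, ⌊(N : ℝ) * z⌋)) ^
        (3/2 : ℝ) := by
    intro z hz x
    refine (ENNReal.rpow_le_rpow (pb z hz x) (by norm_num)).trans ?_
    refine (ENNReal.rpow_sum_le_const_mul_sum_rpow _ _ (by norm_num)).trans ?_
    exact mul_le_mul_left cE _
  have meas : ∀ e ∈ E, ∀ z : ℝ, Measurable (fun x : X => ENNReal.ofReal (cw N s' A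
        (c e x, ⌊(N : ℝ) * z⌋)) ^ (3/2 : ℝ)) := by
    intro e he z
    exact (measurable_of_countable (fun q : S.Q => ENNReal.ofReal (cw N s' A
        (q, ⌊(N : ℝ) * z⌋)) ^ (3/2 : ℝ))).comp (hm e he)
  have meas2 : ∀ e ∈ E, Measurable (fun z : ℝ => ∫⁻ x : X, ENNReal.ofReal (cw N s' A
        (c e x, ⌊(N : ℝ) * z⌋)) ^ (3/2 : ℝ)) := by
    intro e he
    have h0 : Measurable (fun z : ℝ => ⌊(N : ℝ) * z⌋) := Int.measurable_floor.comp (by fun_prop)
    exact (Measurable.of_discrete (f := fun y : ℤ => ∫⁻ x : X, ENNReal.ofReal (cw N s' A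
        (c e x, y)) ^ (3/2 : ℝ))).comp h0
  have hcard : (E.card : ℝ≥0∞) ≠ ⊤ := ENNReal.natCast_ne_top _
  calc _ ≤ ∫⁻ z in Set.Icc (-1 : ℝ) 1, (E.card : ℝ≥0∞) * ∑ e ∈ E, ∫⁻ x : X,
        ENNReal.ofReal (cw N s' A (c e x, ⌊(N : ℝ) * z⌋)) ^ (3/2 : ℝ) := by
        apply setLIntegral_mono' measurableSet_Icc
        intro z hz
        refine (lintegral_mono (pw z hz)).trans ?_
        rw [lintegral_const_mul' _ _ hcard, lintegral_finsetSum _ (fun e he => meas e he z)]
    _ = (E.card : ℝ≥0∞) * ∑ e ∈ E, ∫⁻ z in Set.Icc (-1 : ℝ) 1, ∫⁻ x : X,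
        ENNReal.ofReal (cw N s' A (c e x, ⌊(N : ℝ) * z⌋)) ^ (3/2 : ℝ) := by
        rw [lintegral_const_mul' _ _ hcard, lintegral_finsetSum _ (fun e he => meas2 e he)]
    _ ≤ (E.card : ℝ≥0∞) * ∑ e ∈ E, (∑ q ∈ cells N s', ENNReal.ofReal (cw N s' A q) ^
        (3 / 2 : ℝ)) * (ENNReal.ofReal v * ENNReal.ofReal (1 / (N : ℝ))) := by
        apply mul_le_mul_right
        exact Finset.sum_le_sum fun e he => integral_cells hN s' A (c e) ENNReal.ofReal_ne_top
          (fun q => hm e he (measurableSet_singleton q)) (hvol e he)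
    _ = _ := by
        rw [Finset.sum_const, nsmul_eq_mul]
        have e1 : ∑ q ∈ cells N s', ENNReal.ofReal (cw N s' A q) ^ (3 / 2 : ℝ) =
            ENNReal.ofReal (∑ q ∈ cells N s', cw N s' A q ^ (3 / 2 : ℝ)) := by
          rw [ENNReal.ofReal_sum_of_nonneg (fun q _ => Real.rpow_nonneg (cw_nonneg hA0 q) _)]
          apply Finset.sum_congr rfl
          intro q _
          rw [ENNReal.ofReal_rpow_of_nonneg (cw_nonneg hA0 q) (by norm_num)]
        rw [e1, ← ENNReal.ofReal_mul hv, ← ENNReal.ofReal_mul (Finset.sum_nonneg fun q _ =>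
          Real.rpow_nonneg (cw_nonneg hA0 q) _)]
        rw [ENNReal.ofReal_mul (show (0 : ℝ) ≤ (E.card : ℝ) ^ 2 by positivity), ← mul_assoc]
        congr 1
        rw [← ENNReal.ofReal_natCast, ← ENNReal.ofReal_mul (by positivity), sq]

end Crest.Agent.R116.Ks79
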