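import Crest.Agent.R116.Ks4_79

/-!
# R116: rounding of light rays and the class of test sets (helper79)

`enlarge`: if the rounded ray lies in a test member at resolution `1/N`, the true ray lies in an
enlarged member at resolution `δ`, `18/N ≤ δ ≤ 19/N`.  `cover`: rays of a member of aperture
`≥ 1` near a given one lie in a member of aperture `1`.
-/

set_option autoImplicit false
set_option linter.unusedVariables false

open Finset

namespace Crest.Agent.R116.Ks79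

open Crest.Agent.R138.Defs (E2)
open Crest.Agent.R116.CDef480 (E3 lat pt)
open Crest.Agent.R116.LZg725 (Cf Mem rpos rx ry nrm)
open Crest.Agent.R116.LKMDef299 (LRay Cpt)

/-- two light rays at distance at most `~ e`. -/
structure Near (e : ℝ) (r r' : LRay) : Prop where
  C : ‖r.1 - r'.1‖ ≤ 2 * e
  a : ‖r.2.1 - r'.2.1‖ ≤ 2 * e
  k : |r.2.2 - r'.2.2| ≤ e
  b : ‖r.1‖ ≤ 2
  b' : ‖r'.1‖ ≤ 2

theorem near_x {e : ℝ} {r r' : LRay} (h : Near e r r') {s : ℝ} (hs : |s| ≤ 1) :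
    ‖rx r.1 r.2.1 s - rx r'.1 r'.2.1 s‖ ≤ 4 * e := by
  have he : rx r.1 r.2.1 s - rx r'.1 r'.2.1 s = (r.2.1 - r'.2.1) - s • (r.1 - r'.1) := by
    unfold rx; module
  rw [he]
  refine (norm_sub_le _ _).trans ?_
  rw [norm_smul, Real.norm_eq_abs]
  have h1 : |s| * ‖r.1 - r'.1‖ ≤ 1 * (2 * e) :=
    mul_le_mul hs h.C (norm_nonneg _) (by norm_num)
  linarith [h.a]

theorem near_y {e : ℝ} {r r' : LRay} (h : Near e r r') {s : ℝ} (hs : |s| ≤ 1) :
    |ry r.1 r.2.2 s - ry r'.1 r'.2.2 s| ≤ 5 * e := by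
  have he : ry r.1 r.2.2 s - ry r'.1 r'.2.2 s =
      (r.2.2 - r'.2.2) + s * ((‖r.1‖ + ‖r'.1‖) * (‖r.1‖ - ‖r'.1‖) / 2) := by
    unfold ry; ring
  have e0 : 0 ≤ e := (abs_nonneg _).trans h.k
  rw [he]
  refine (abs_add_le _ _).trans ?_
  rw [abs_mul, abs_div, abs_mul, abs_of_pos (two_pos : (0:ℝ) < 2),
    abs_of_nonneg (add_nonneg (norm_nonneg r.1) (norm_nonneg r'.1))]
  have h1 : |‖r.1‖ - ‖r'.1‖| ≤ 2 * e := (abs_norm_sub_norm_le _ _).trans h.C
  have h2 : (‖r.1‖ + ‖r'.1‖) * |‖r.1‖ - ‖r'.1‖| / 2 ≤ 4 * (2 * e) / 2 := by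
    have := mul_le_mul (a := ‖r.1‖ + ‖r'.1‖) (b := 4) (by linarith [h.b, h.b']) h1
      (abs_nonneg _) (by norm_num)
    linarith
  have h3 : |s| * ((‖r.1‖ + ‖r'.1‖) * |‖r.1‖ - ‖r'.1‖| / 2) ≤ 1 * (4 * (2 * e) / 2) :=
    mul_le_mul hs h2 (by positivity) (by norm_num)
  linarith [h.k]

/-- the null normal of slope `c` changes little. -/
theorem near_nrm {e : ℝ} {r r' : LRay} (h : Near e r r') {s : ℝ} (hs : |s| ≤ 1) {c : E2} {K : ℝ}
    (hc : ‖c‖ ≤ K) :
    |nrm c (rx r.1 r.2.1 s) (ry r.1 r.2.2 s) s - nrm c (rx r'.1 r'.2.1 s) (ry r'.1 r'.2.2 s) s| ≤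
      (5 + 4 * K) * e := by
  have he : nrm c (rx r.1 r.2.1 s) (ry r.1 r.2.2 s) s -
      nrm c (rx r'.1 r'.2.1 s) (ry r'.1 r'.2.2 s) s =
      (ry r.1 r.2.2 s - ry r'.1 r'.2.2 s) + inner ℝ c (rx r.1 r.2.1 s - rx r'.1 r'.2.1 s) := by
    unfold nrm; rw [inner_sub_right]; ring
  rw [he]
  refine (abs_add_le _ _).trans ?_
  have e0 : 0 ≤ e := (abs_nonneg _).trans h.k
  have h1 : |inner ℝ c (rx r.1 r.2.1 s - rx r'.1 r'.2.1 s)| ≤ K * (4 * e) :=
    (abs_real_inner_le_norm _ _).trans (mul_le_mul hc (near_x h hs) (norm_nonneg _)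
      ((norm_nonneg _).trans hc))
  linarith [near_y h hs]

/-- the slope of an affine function bounded by `w` on `[-1, 1]`. -/
theorem slope_le {A B w : ℝ} (h : ∀ s : ℝ, |s| ≤ 1 → |A + s * B| ≤ w) : |B| ≤ w := by
  have h1 := h 1 (by norm_num)
  have h2 := h (-1) (by norm_num)
  rw [abs_le] at *
  constructor <;> linarith [h1.1, h1.2, h2.1, h2.2]

/-- **the value of the conformal function on a near ray**. -/
theorem phi_near {M B e : ℝ} (hM : 0 ≤ M) {m : Mem} (hm : m.Ok M B) (hc : Cpt M B m) (hR : m.R = 1)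
    (hs0 : m.s0 = 0) (he : 0 < e) (heB : e = B) (he1 : e ≤ 1) (hes : e ≤ m.s1) {r r' : LRay}
    (h : Near e r r') (hr : r' ∈ m.rays B) {s : ℝ} (hs : |s| ≤ 1) :
    |m.phi.val (rpos r s, s)| ≤ (5 + 37 * M) * m.s1 := by
  subst heB
  have hT := m.sq_le_T e
  have hsg := hm.sg_pos
  have hT0 := hm.T_pos
  have hray : ∀ t : ℝ, |t| ≤ 1 → |m.phi.ev (rx r'.1 r'.2.1 t) (ry r'.1 r'.2.2 t) t| ≤ m.s1 := by
    intro t ht
    have h1 := (hr.2 t (by rw [hs0, hR, sub_zero]; exact ht)).2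
    rw [hR, mul_one] at h1
    unfold Cf.val at h1
    rwa [LZg725.lat_rpos, LZg725.rpos_two] at h1
  have hev := hray s hs
  have hld : |m.phi.ld r'.1 (rx r'.1 r'.2.1 s) (ry r'.1 r'.2.2 s) s| ≤ m.s1 := by
    rw [Cf.ld_ray]
    apply slope_le (A := m.phi.rA r'.2.1 r'.2.2)
    intro t ht
    rw [← Cf.ev_ray]
    exact hray t ht
  have hny : |m.phi.ny s| * m.T e ≤ M * m.sg := hm.adm.ny s (by rw [hs0, hR, sub_zero]; exact hs)
  have hd := hm.adm.d_le hm.hR.le hT0.le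
  have hgr : ‖m.phi.gr r'.1 (rx r'.1 r'.2.1 s) s‖ ≤ 1 + 2 * M := by
    have h1 := LZg725.gr_sq_near (m := 1) hm.hR hsg hT hM zero_le_one hm.adm.disc hny hd
      (hld.trans (by rw [one_mul]; exact hm.hsg))
      (hev.trans (by rw [one_mul, hR, mul_one]; exact hm.hsg))
    rw [mul_one] at h1
    exact LZg725.norm_le_of_sq_near hM h1
  have hny2 : |m.phi.ny s| * e ≤ M * m.s1 := by
    have := hc s (by rw [hs0, hR, sub_zero]; exact hs)
    rwa [hR, mul_one] at this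
  have hd2 : |m.phi.d| * e ≤ M * m.s1 := by
    have h1 := hc 1 (by rw [hs0, hR]; norm_num)
    have h2 := hc (-1) (by rw [hs0, hR]; norm_num)
    rw [hR, mul_one] at h1 h2
    have h3 : |4 * m.phi.d| ≤ |m.phi.ny (-1)| + |m.phi.ny 1| := by
      have e3 : 4 * m.phi.d = m.phi.ny (-1) - m.phi.ny 1 := by unfold Cf.ny; ring
      rw [e3]; exact abs_sub _ _
    rw [abs_mul, abs_of_pos (by norm_num : (0:ℝ) < 4)] at h3
    have h4 := mul_le_mul_of_nonneg_right h3 he.le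
    have h5 : 0 ≤ M * m.s1 := mul_nonneg hM hm.hs1.le
    nlinarith
  have hx := near_x h hs
  have hn := near_nrm h hs (c := r'.1) h.b'
  have hexp := Cf.ev_expand m.phi r'.1 (rx r'.1 r'.2.1 s) (ry r'.1 r'.2.2 s) s
    (rx r.1 r.2.1 s) (ry r.1 r.2.2 s) s
  rw [sub_self, zero_smul, add_zero, mul_zero, add_zero, mul_zero, zero_mul, sub_zero] at hexp
  unfold Cf.val
  rw [LZg725.lat_rpos, LZg725.rpos_two, hexp]
  have t1 : |inner ℝ (m.phi.gr r'.1 (rx r'.1 r'.2.1 s) s)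
      (rx r.1 r.2.1 s - rx r'.1 r'.2.1 s)| ≤ (1 + 2 * M) * (4 * e) :=
    (abs_real_inner_le_norm _ _).trans (mul_le_mul hgr hx (norm_nonneg _) (by positivity))
  have t2 : |m.phi.ny s * (nrm r'.1 (rx r.1 r.2.1 s) (ry r.1 r.2.2 s) s -
      nrm r'.1 (rx r'.1 r'.2.1 s) (ry r'.1 r'.2.2 s) s)| ≤ 13 * (M * m.s1) := by
    rw [abs_mul]
    calc _ ≤ |m.phi.ny s| * ((5 + 4 * 2) * e) := mul_le_mul_of_nonneg_left hn (abs_nonneg _)
      _ = 13 * (|m.phi.ny s| * e) := by ring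
      _ ≤ _ := by linarith
  have t3 : |m.phi.d * ‖rx r.1 r.2.1 s - rx r'.1 r'.2.1 s‖ ^ 2| ≤ 16 * (M * m.s1) := by
    rw [abs_mul, abs_of_nonneg (sq_nonneg ‖rx r.1 r.2.1 s - rx r'.1 r'.2.1 s‖)]
    have h1 : ‖rx r.1 r.2.1 s - rx r'.1 r'.2.1 s‖ ^ 2 ≤ (4 * e) ^ 2 :=
      pow_le_pow_left₀ (norm_nonneg _) hx 2
    have h0 : 0 ≤ M * m.s1 := mul_nonneg hM hm.hs1.le
    calc _ ≤ |m.phi.d| * (4 * e) ^ 2 := mul_le_mul_of_nonneg_left h1 (abs_nonneg _)
      _ = 16 * ((|m.phi.d| * e) * e) := by ring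
      _ ≤ 16 * ((M * m.s1) * 1) := by gcongr
      _ = _ := by ring
  have t1' : (1 + 2 * M) * (4 * e) ≤ (4 + 8 * M) * m.s1 := by
    have : (4 + 8 * M) * e ≤ (4 + 8 * M) * m.s1 := mul_le_mul_of_nonneg_left hes (by positivity)
    linarith
  have tri := abs_add_le (m.phi.ev (rx r'.1 r'.2.1 s) (ry r'.1 r'.2.2 s) s)
    (inner ℝ (m.phi.gr r'.1 (rx r'.1 r'.2.1 s) s) (rx r.1 r.2.1 s - rx r'.1 r'.2.1 s))
  have tri2 := abs_add_le (m.phi.ev (rx r'.1 r'.2.1 s) (ry r'.1 r'.2.2 s) s +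
    inner ℝ (m.phi.gr r'.1 (rx r'.1 r'.2.1 s) s) (rx r.1 r.2.1 s - rx r'.1 r'.2.1 s))
    (m.phi.ny s * (nrm r'.1 (rx r.1 r.2.1 s) (ry r.1 r.2.2 s) s -
      nrm r'.1 (rx r'.1 r'.2.1 s) (ry r'.1 r'.2.2 s) s))
  have tri3 := abs_add_le (m.phi.ev (rx r'.1 r'.2.1 s) (ry r'.1 r'.2.2 s) s +
    inner ℝ (m.phi.gr r'.1 (rx r'.1 r'.2.1 s) s) (rx r.1 r.2.1 s - rx r'.1 r'.2.1 s) +
    (m.phi.ny s * (nrm r'.1 (rx r.1 r.2.1 s) (ry r.1 r.2.2 s) s -
      nrm r'.1 (rx r'.1 r'.2.1 s) (ry r'.1 r'.2.2 s) s)))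
    (m.phi.d * ‖rx r.1 r.2.1 s - rx r'.1 r'.2.1 s‖ ^ 2)
  linarith

/-- the enlarged member. -/
noncomputable def big (A δ : ℝ) (m : Mem) : Mem where
  c := m.c
  sg := A * max m.sg δ
  s1 := A * max m.s1 δ
  R := 1
  X0 := m.X0
  s0 := 0
  phi := m.phi

/-- **enlargement**: a test member at resolution `e = 1/N` is enlarged to a member at resolution
`δ ∈ [18 e, 19 e]` which contains every ray near to a ray of the member. -/
theorem enlarge {M e δ : ℝ} (hM : 1 ≤ M) (he : 0 < e) (he1 : e ≤ 1) (h1 : 18 * e ≤ δ)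
    (h2 : δ ≤ 19 * e) {m : Mem} (hm : m.Ok M e) (hc : Cpt M e m) (hR : m.R = 1) (hs0 : m.s0 = 0)
    (hes : e ≤ m.s1) (hsg1 : m.sg ≤ 1) :
    (big (42 * M) δ m).Ok (15162 * M ^ 2) δ ∧ δ ≤ (big (42 * M) δ m).s1 ∧
      (big (42 * M) δ m).scost δ ≤ 130321 * (42 * M) ^ 4 * m.scost e ∧
      ∀ r r' : LRay, Near e r r' → r' ∈ m.rays e → r ∈ (big (42 * M) δ m).rays δ := by
  have hsg := hm.sg_pos
  have hs1 := hm.hs1
  have hT0 := hm.T_pos
  have hM0 : 0 < M := by linarith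
  set A : ℝ := 42 * M with hA
  have hA42 : 42 ≤ A := by rw [hA]; linarith
  have hA0 : 0 < A := by linarith
  have hδ0 : 0 < δ := by linarith
  have hTe : m.T e = max (m.sg ^ 2) e := by unfold Mem.T; rw [hR, div_one]
  have hTb : (big A δ m).T δ = max ((A * max m.sg δ) ^ 2) δ := by
    unfold Mem.T
    show max ((A * max m.sg δ) ^ 2) (δ / 1) = _
    rw [div_one]
  have hmax : max m.sg δ ≤ 19 * m.sg := max_le (by linarith) (by linarith [hm.hsg])
  have hmax1 : max m.s1 δ ≤ 19 * m.s1 := max_le (by linarith) (by linarith)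
  have hmaxp : 0 < max m.sg δ := lt_max_of_lt_left hsg
  have hTle : (big A δ m).T δ ≤ 361 * A ^ 2 * m.T e := by
    rw [hTb]
    apply max_le
    · calc (A * max m.sg δ) ^ 2 ≤ (A * (19 * m.sg)) ^ 2 := by gcongr
        _ = 361 * A ^ 2 * m.sg ^ 2 := by ring
        _ ≤ 361 * A ^ 2 * m.T e := by gcongr; exact m.sq_le_T e
    · have h3 : e ≤ m.T e := by rw [hTe]; exact le_max_right _ _
      have h4 : (1 : ℝ) ≤ A ^ 2 := one_le_pow₀ (by linarith)
      calc δ ≤ 19 * e := h2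
        _ ≤ 361 * 1 * m.T e := by nlinarith
        _ ≤ 361 * A ^ 2 * m.T e := by gcongr
  have hTb0 : 0 < (big A δ m).T δ := by
    rw [hTb]; exact lt_max_of_lt_left (by positivity)
  refine ⟨⟨one_pos, ?_, ?_, ?_⟩, ?_, ?_, ?_⟩
  · show 0 < A * max m.s1 δ
    have : 0 < max m.s1 δ := lt_max_of_lt_left hs1
    positivity
  · show A * max m.s1 δ ≤ A * max m.sg δ
    have : max m.s1 δ ≤ max m.sg δ := max_le_max_right _ hm.hsg
    gcongr
  · have hsgle : A * m.sg ≤ A * max m.sg δ := by gcongr; exact le_max_left _ _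
    have hsgle1 : m.sg ≤ A * max m.sg δ := by nlinarith
    refine ⟨hm.adm.disc, ?_, ?_, ?_⟩
    · intro s hs
      show |m.phi.ny s| * (big A δ m).T δ ≤ 15162 * M ^ 2 * (A * max m.sg δ)
      have h3 : |m.phi.ny s| * m.T e ≤ M * m.sg := hm.adm.ny s (by rw [hs0, hR]; exact hs)
      calc |m.phi.ny s| * (big A δ m).T δ ≤ |m.phi.ny s| * (361 * A ^ 2 * m.T e) := by gcongr
        _ = 361 * A ^ 2 * (|m.phi.ny s| * m.T e) := by ring
        _ ≤ 361 * A ^ 2 * (M * m.sg) := by gcongr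
        _ = 361 * A * M * (A * m.sg) := by ring
        _ ≤ 361 * A * M * (A * max m.sg δ) := by gcongr
        _ = 15162 * M ^ 2 * (A * max m.sg δ) := by rw [hA]; ring
    · show |m.phi.ld m.c (lat m.X0) (m.X0 2) 0| ≤ 15162 * M ^ 2 * (A * max m.sg δ)
      have h3 := hm.adm.ld
      rw [hs0] at h3
      refine h3.trans ?_
      have h4 : M ≤ 15162 * M ^ 2 := by nlinarith
      calc M * m.sg ≤ (15162 * M ^ 2) * (A * max m.sg δ) := by gcongr
        _ = _ := by ring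
    · show |m.phi.ev (lat m.X0) (m.X0 2) 0| ≤ 15162 * M ^ 2 * (A * max m.sg δ) * 1
      have h3 := hm.adm.ev
      rw [hs0, hR] at h3
      refine h3.trans ?_
      have h4 : M ≤ 15162 * M ^ 2 := by nlinarith
      rw [mul_one, mul_one]
      calc M * m.sg ≤ (15162 * M ^ 2) * (A * max m.sg δ) := by gcongr
        _ = _ := by ring
  · show δ ≤ A * max m.s1 δ
    have : δ ≤ max m.s1 δ := le_max_right _ _
    nlinarith
  · unfold Mem.scost
    show (A * max m.s1 δ) * (A * max m.sg δ) * (big A δ m).T δ * 1 ^ 3 ≤ _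
    rw [hR, one_pow, mul_one, mul_one]
    have hp1 : 0 ≤ max m.s1 δ := le_max_of_le_left hs1.le
    calc (A * max m.s1 δ) * (A * max m.sg δ) * (big A δ m).T δ ≤
          (A * (19 * m.s1)) * (A * (19 * m.sg)) * (361 * A ^ 2 * m.T e) := by gcongr
      _ = 130321 * A ^ 4 * (m.s1 * m.sg * m.T e) := by ring
  · intro r r' hn hr
    have hC' : ‖r'.1 - m.c‖ ≤ m.sg := hr.1
    have hcn : ‖m.c‖ ≤ 3 := by
      have := norm_sub_norm_le m.c r'.1
      rw [norm_sub_rev] at this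
      linarith [hn.b']
    have hsgb : m.sg + 4 * e ≤ A * max m.sg δ := by
      have h3 : m.sg ≤ max m.sg δ := le_max_left _ _
      have h4 : δ ≤ max m.sg δ := le_max_right _ _
      nlinarith
    refine ⟨?_, ?_⟩
    · show ‖r.1 - m.c‖ ≤ A * max m.sg δ
      have : r.1 - m.c = (r.1 - r'.1) + (r'.1 - m.c) := by abel
      rw [this]
      refine (norm_add_le _ _).trans ?_
      linarith [hn.C]
    · intro s hs
      have hs' : |s| ≤ 1 := by
        have h3 : |s - 0| ≤ 1 := hs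
        rwa [sub_zero] at h3
      obtain ⟨⟨h3, h4, h5⟩, h6⟩ := hr.2 s (by rw [hs0, hR, sub_zero]; exact hs')
      rw [hs0, LZg725.lat_rpos] at h4
      rw [hs0, LZg725.lat_rpos, LZg725.rpos_two] at h5
      rw [hR, mul_one] at h4 h5
      refine ⟨⟨hs, ?_, ?_⟩, ?_⟩
      · show ‖lat (rpos r s) - lat m.X0 + (s - 0) • m.c‖ ≤ A * max m.sg δ * 1
        rw [LZg725.lat_rpos]
        have e2 : rx r.1 r.2.1 s - lat m.X0 + (s - 0) • m.c =
            (rx r.1 r.2.1 s - rx r'.1 r'.2.1 s) + (rx r'.1 r'.2.1 s - lat m.X0 + (s - 0) • m.c) := by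
          abel
        rw [e2, mul_one]
        refine (norm_add_le _ _).trans ?_
        have := near_x hn hs'
        linarith
      · show |nrm m.c (lat (rpos r s)) (rpos r s 2) s - nrm m.c (lat m.X0) (m.X0 2) 0| ≤
          (big A δ m).T δ * 1
        rw [LZg725.lat_rpos, LZg725.rpos_two, mul_one]
        have h7 := near_nrm hn hs' hcn
        have e2 : nrm m.c (rx r.1 r.2.1 s) (ry r.1 r.2.2 s) s - nrm m.c (lat m.X0) (m.X0 2) 0 =
            (nrm m.c (rx r.1 r.2.1 s) (ry r.1 r.2.2 s) s -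
              nrm m.c (rx r'.1 r'.2.1 s) (ry r'.1 r'.2.2 s) s) +
            (nrm m.c (rx r'.1 r'.2.1 s) (ry r'.1 r'.2.2 s) s - nrm m.c (lat m.X0) (m.X0 2) 0) := by
          ring
        rw [e2]
        refine (abs_add_le _ _).trans ?_
        have h8 : 17 * e + m.T e ≤ (big A δ m).T δ := by
          rw [hTe, hTb]
          rcases le_total (m.sg ^ 2) e with h9 | h9
          · rw [max_eq_right h9]
            exact le_max_of_le_right (by linarith)
          · rw [max_eq_left h9]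
            apply le_max_of_le_left
            have h10 : m.sg ≤ max m.sg δ := le_max_left _ _
            calc 17 * e + m.sg ^ 2 ≤ 18 * m.sg ^ 2 := by linarith
              _ ≤ 42 ^ 2 * m.sg ^ 2 := by nlinarith [sq_nonneg m.sg]
              _ = (42 * m.sg) ^ 2 := by ring
              _ ≤ (A * max m.sg δ) ^ 2 := by gcongr
        linarith
      · show |m.phi.val (rpos r s, s)| ≤ A * max m.s1 δ * 1
        have h7 := phi_near hM0.le hm hc hR hs0 he rfl he1 hes hn hr hs'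
        have h8 : m.s1 ≤ max m.s1 δ := le_max_left _ _
        have h9 : (5 + 37 * M) ≤ A := by rw [hA]; linarith
        calc _ ≤ (5 + 37 * M) * m.s1 := h7
          _ ≤ A * max m.s1 δ := by gcongr
          _ = _ := by ring

/-- a member of aperture `1` around a ray of a member of aperture at least `1`. -/
noncomputable def small (m : Mem) (l : LRay) : Mem where
  c := l.1
  sg := 1
  s1 := min m.s1 1
  R := 1
  X0 := rpos l 0
  s0 := 0
  phi := if m.s1 ≤ 1 then m.phi else flat e1 l.1 l.2.1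

/-- **covering**: rays of a member of aperture at least `1` near to a given one. -/
theorem cover {M δ : ℝ} (hM : 1 ≤ M) (hδ : 0 < δ) (hδ1 : δ ≤ 1) {m : Mem} (hm : m.Ok M δ)
    (hR : m.R = 1) (hs0 : m.s0 = 0) (hs1 : δ ≤ m.s1) (hsg : 1 ≤ m.sg) {l : LRay}
    (hl : l ∈ m.rays δ) :
    (small m l).Ok M δ ∧ δ ≤ (small m l).s1 ∧ (small m l).scost δ ≤ m.scost δ ∧
      ∀ r : LRay, Near (1 / 8) r l → r ∈ m.rays δ → r ∈ (small m l).rays δ := by
  have hT1 : 1 ≤ m.T δ := le_max_of_le_left (one_le_pow₀ hsg)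
  have hTs : (small m l).T δ = 1 := by
    unfold Mem.T
    show max ((1 : ℝ) ^ 2) (δ / 1) = 1
    rw [div_one, one_pow]
    exact max_eq_left hδ1
  have hm1 : 0 < min m.s1 1 := lt_min hm.hs1 one_pos
  have hM0 : 0 ≤ M := by linarith
  have hray : ∀ r : LRay, r ∈ m.rays δ → ∀ t : ℝ, |t| ≤ 1 → |m.phi.val (rpos r t, t)| ≤ m.s1 := by
    intro r hr t ht
    have h1 := (hr.2 t (by rw [hs0, hR, sub_zero]; exact ht)).2
    rwa [hR, mul_one] at h1
  refine ⟨⟨one_pos, hm1, min_le_right _ _, ?_⟩, ?_, ?_, ?_⟩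
  · by_cases h : m.s1 ≤ 1
    · have hphi : (small m l).phi = m.phi := if_pos h
      have hmin : min m.s1 1 = m.s1 := min_eq_left h
      refine ⟨by rw [hphi]; exact hm.adm.disc, ?_, ?_, ?_⟩
      · intro s hs
        rw [hphi, hTs]
        show |m.phi.ny s| * 1 ≤ M * 1
        have h3 : |m.phi.ny s| * m.T δ ≤ M * m.sg := hm.adm.ny s (by rw [hs0, hR]; exact hs)
        have h4 := LZg725.ny_sg_le hm.sg_pos (m.sq_le_T δ) (abs_nonneg _) hM0 h3
        have h5 : |m.phi.ny s| * 1 ≤ |m.phi.ny s| * m.sg := by gcongr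
        linarith
      · rw [hphi]
        show |m.phi.ld l.1 (lat (rpos l 0)) (rpos l 0 2) 0| ≤ M * 1
        rw [LZg725.lat_rpos, LZg725.rpos_two, Cf.ld_ray]
        have : |m.phi.rB l.1 l.2.1 l.2.2| ≤ m.s1 := by
          apply slope_le (A := m.phi.rA l.2.1 l.2.2)
          intro t ht
          rw [← Cf.ev_ray]
          have := hray l hl t ht
          unfold Cf.val at this
          rwa [LZg725.lat_rpos, LZg725.rpos_two] at this
        linarith
      · rw [hphi]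
        show |m.phi.ev (lat (rpos l 0)) (rpos l 0 2) 0| ≤ M * 1 * 1
        have := hray l hl 0 (by norm_num)
        unfold Cf.val at this
        have h6 : |m.phi.ev (lat (rpos l 0)) (rpos l 0 2) 0| ≤ m.s1 := this
        linarith
    · have hphi : (small m l).phi = flat e1 l.1 l.2.1 := if_neg h
      refine ⟨by rw [hphi]; exact flat_disc _ _ _ norm_e1, ?_, ?_, ?_⟩
      · intro s _
        rw [hphi, flat_ny, abs_zero, zero_mul]
        show 0 ≤ M * 1
        linarith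
      · rw [hphi]
        show |(flat e1 l.1 l.2.1).ld l.1 _ _ _| ≤ M * 1
        rw [flat_ld, abs_zero]; linarith
      · rw [hphi]
        show |(flat e1 l.1 l.2.1).ev (lat (rpos l 0)) _ 0| ≤ M * 1 * 1
        rw [flat_ev, lat_rpos0]
        simp only [sub_self, zero_smul, add_zero, inner_zero_right, abs_zero]
        linarith
  · exact le_min hs1 hδ1
  · unfold Mem.scost
    rw [hTs, hR]
    show min m.s1 1 * 1 * 1 * 1 ^ 3 ≤ m.s1 * m.sg * m.T δ * 1 ^ 3
    have h1 : min m.s1 1 ≤ m.s1 := min_le_left _ _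
    have h0 := hm.hs1.le
    have h2 : (1 : ℝ) ≤ m.sg * m.T δ := by nlinarith
    calc min m.s1 1 * 1 * 1 * 1 ^ 3 = min m.s1 1 * 1 := by ring
      _ ≤ m.s1 * (m.sg * m.T δ) := by gcongr
      _ = _ := by ring
  · intro r hn hr
    have hcn := hn.b'
    refine ⟨?_, ?_⟩
    · show ‖r.1 - l.1‖ ≤ 1
      linarith [hn.C]
    · intro s hs
      have hs' : |s| ≤ 1 := by
        have h3 : |s - 0| ≤ 1 := hs
        rwa [sub_zero] at h3
      have hx : rx r.1 r.2.1 s - l.2.1 + s • l.1 = (r.2.1 - l.2.1) - s • (r.1 - l.1) := by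
        unfold rx; module
      have hxn : ‖rx r.1 r.2.1 s - l.2.1 + s • l.1‖ ≤ 1 / 2 := by
        rw [hx]
        refine (norm_sub_le _ _).trans ?_
        rw [norm_smul, Real.norm_eq_abs]
        have h1 : |s| * ‖r.1 - l.1‖ ≤ 1 * (2 * (1 / 8)) :=
          mul_le_mul hs' hn.C (norm_nonneg _) (by norm_num)
        linarith [hn.a]
      refine ⟨⟨hs, ?_, ?_⟩, ?_⟩
      · show ‖lat (rpos r s) - lat (rpos l 0) + (s - 0) • l.1‖ ≤ 1 * 1
        rw [LZg725.lat_rpos, lat_rpos0, sub_zero]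
        linarith
      · show |nrm l.1 (lat (rpos r s)) (rpos r s 2) s - nrm l.1 (lat (rpos l 0)) (rpos l 0 2) 0| ≤
          (small m l).T δ * 1
        rw [hTs, LZg725.lat_rpos, LZg725.rpos_two, lat_rpos0, rpos0_two, LZg725.nrm_ray']
        have e2 : r.2.2 + inner ℝ l.1 r.2.1 + s * ‖r.1 - l.1‖ ^ 2 / 2 - nrm l.1 l.2.1 l.2.2 0 =
            (r.2.2 - l.2.2) + inner ℝ l.1 (r.2.1 - l.2.1) + s * (‖r.1 - l.1‖ ^ 2 / 2) := by
          unfold nrm; rw [inner_sub_right]; ring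
        rw [e2]
        have h1 : |inner ℝ l.1 (r.2.1 - l.2.1)| ≤ 2 * (2 * (1 / 8)) :=
          (abs_real_inner_le_norm _ _).trans (mul_le_mul hcn hn.a (norm_nonneg _) (by norm_num))
        have h2 : |s * (‖r.1 - l.1‖ ^ 2 / 2)| ≤ 1 / 32 := by
          rw [abs_mul, abs_of_nonneg (a := ‖r.1 - l.1‖ ^ 2 / 2) (by positivity)]
          have h3 : ‖r.1 - l.1‖ ^ 2 ≤ (1 / 4) ^ 2 :=
            pow_le_pow_left₀ (norm_nonneg _) (by linarith [hn.C]) 2
          calc |s| * (‖r.1 - l.1‖ ^ 2 / 2) ≤ 1 * ((1 / 4) ^ 2 / 2) := by gcongr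
            _ = _ := by norm_num
        have h4 := abs_add_le (r.2.2 - l.2.2) (inner ℝ l.1 (r.2.1 - l.2.1))
        have h5 := abs_add_le (r.2.2 - l.2.2 + inner ℝ l.1 (r.2.1 - l.2.1))
          (s * (‖r.1 - l.1‖ ^ 2 / 2))
        linarith [hn.k]
      · by_cases h : m.s1 ≤ 1
        · have hphi : (small m l).phi = m.phi := if_pos h
          rw [hphi]
          show |m.phi.val (rpos r s, s)| ≤ min m.s1 1 * 1
          rw [min_eq_left h, mul_one]
          exact hray r hr s hs'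
        · have hphi : (small m l).phi = flat e1 l.1 l.2.1 := if_neg h
          rw [hphi]
          show |(flat e1 l.1 l.2.1).ev (lat (rpos r s)) _ s| ≤ min m.s1 1 * 1
          rw [flat_ev, LZg725.lat_rpos, min_eq_right (not_le.1 h).le, mul_one]
          refine (abs_real_inner_le_norm _ _).trans ?_
          rw [norm_e1, one_mul]
          linarith

end Crest.Agent.R116.Ks79
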