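import Crest.Agent.R116.Ks5_79
import Crest.Agent.R116.Ks6_79

/-!
# R116: rounding of light rays: cells (helper79)
-/

set_option autoImplicit false
set_option linter.unusedVariables false

open Finset MeasureTheory
open scoped ENNReal

namespace Crest.Agent.R116.Ks79

open Crest.Agent.R138.Defs (E2)
open Crest.Agent.R116.CDef480 (E3 lat pt)
open Crest.Agent.R116.LZg725 (Cf Mem rpos rx ry nrm)
open Crest.Agent.R116.LKMDef299 (LRay Cpt)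

/-- the grid ray of a light ray. -/
noncomputable def rl (N : ℕ) (r : LRay) : GRay :=
  (((⌊(N : ℝ) * (-(r.1 0))⌋, ⌊(N : ℝ) * (-(r.1 1))⌋), (⌊(N : ℝ) * r.2.1 0⌋, ⌊(N : ℝ) * r.2.1 1⌋)),
    ⌊(N : ℝ) * r.2.2⌋)

/-- unit box of light rays. -/
structure Unt (r : LRay) : Prop where
  C : ∀ k, 0 ≤ -(r.1 k) ∧ -(r.1 k) < 1
  a : ∀ k, 0 ≤ r.2.1 k ∧ r.2.1 k < 1
  k : 0 ≤ r.2.2 ∧ r.2.2 < 1

theorem norm_le_abs_add (x : E2) : ‖x‖ ≤ |x 0| + |x 1| := by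
  have h := CDef480.normsq2 x
  have h1 : ‖x‖ ^ 2 ≤ (|x 0| + |x 1|) ^ 2 := by
    rw [h, add_sq, sq_abs, sq_abs]
    have : 0 ≤ 2 * |x 0| * |x 1| := by positivity
    linarith
  exact (sq_le_sq₀ (norm_nonneg _) (by positivity)).1 h1

theorem floor_div_close {N : ℕ} (hN : 1 ≤ N) (x : ℝ) :
    |x - (⌊(N : ℝ) * x⌋ : ℝ) / N| ≤ 1 / N := by
  have hN' : (0 : ℝ) < N := by exact_mod_cast hN
  have h1 := Int.floor_le ((N : ℝ) * x)
  have h2 := Int.lt_floor_add_one ((N : ℝ) * x)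
  have e : x - (⌊(N : ℝ) * x⌋ : ℝ) / N = ((N : ℝ) * x - ⌊(N : ℝ) * x⌋) / N := by field_simp
  rw [e, abs_div, abs_of_pos hN']
  gcongr
  rw [abs_le]; constructor <;> linarith

theorem rl_near {N : ℕ} (hN : 1 ≤ N) {r : LRay} (hr : Unt r) :
    Near (1 / (N : ℝ)) r (gray N (rl N r)) := by
  have hN' : (0 : ℝ) < N := by exact_mod_cast hN
  have hb : ∀ x : ℝ, 0 ≤ x ∧ x < 1 → |(⌊(N : ℝ) * x⌋ : ℝ) / N| ≤ 1 := by
    intro x hx
    have h0 : (0 : ℝ) ≤ (⌊(N : ℝ) * x⌋ : ℝ) := by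
      exact_mod_cast Int.floor_nonneg.mpr (mul_nonneg hN'.le hx.1)
    rw [abs_of_nonneg (div_nonneg h0 hN'.le), div_le_one hN']
    exact (Int.floor_le _).trans (by nlinarith [hx.2])
  refine ⟨?_, ?_, ?_, ?_, ?_⟩
  · refine (norm_le_abs_add _).trans ?_
    have h0 := floor_div_close hN (-(r.1 0))
    have h1 := floor_div_close hN (-(r.1 1))
    have e0 : |(r.1 - (gray N (rl N r)).1) 0| = |-(r.1 0) - (⌊(N : ℝ) * (-(r.1 0))⌋ : ℝ) / N| := by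
      rw [← abs_neg]
      congr 1
      show -(r.1 0 - -((⌊(N : ℝ) * (-(r.1 0))⌋ : ℝ) / N)) = _
      ring
    have e1 : |(r.1 - (gray N (rl N r)).1) 1| = |-(r.1 1) - (⌊(N : ℝ) * (-(r.1 1))⌋ : ℝ) / N| := by
      rw [← abs_neg]
      congr 1
      show -(r.1 1 - -((⌊(N : ℝ) * (-(r.1 1))⌋ : ℝ) / N)) = _
      ring
    rw [e0, e1]; linarith
  · refine (norm_le_abs_add _).trans ?_
    have h0 := floor_div_close hN (r.2.1 0)
    have h1 := floor_div_close hN (r.2.1 1)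
    have e0 : |(r.2.1 - (gray N (rl N r)).2.1) 0| = |r.2.1 0 - (⌊(N : ℝ) * (r.2.1 0)⌋ : ℝ) / N| := rfl
    have e1 : |(r.2.1 - (gray N (rl N r)).2.1) 1| = |r.2.1 1 - (⌊(N : ℝ) * (r.2.1 1)⌋ : ℝ) / N| := rfl
    rw [e0, e1]; linarith
  · exact floor_div_close hN r.2.2
  · refine (norm_le_abs_add _).trans ?_
    have h0 := hr.C 0
    have h1 := hr.C 1
    have e0 : |r.1 0| ≤ 1 := by rw [abs_le]; constructor <;> linarith
    have e1 : |r.1 1| ≤ 1 := by rw [abs_le]; constructor <;> linarith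
    linarith
  · refine (norm_le_abs_add _).trans ?_
    have e0 : |(gray N (rl N r)).1 0| = |(⌊(N : ℝ) * (-(r.1 0))⌋ : ℝ) / N| := by
      rw [← abs_neg]
      congr 1
      show -(-((⌊(N : ℝ) * (-(r.1 0))⌋ : ℝ) / N)) = _
      ring
    have e1 : |(gray N (rl N r)).1 1| = |(⌊(N : ℝ) * (-(r.1 1))⌋ : ℝ) / N| := by
      rw [← abs_neg]
      congr 1
      show -(-((⌊(N : ℝ) * (-(r.1 1))⌋ : ℝ) / N)) = _
      ring
    rw [e0, e1]
    linarith [hb _ (hr.C 0), hb _ (hr.C 1)]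

theorem rl_bd {N : ℕ} (hN : 1 ≤ N) {r : LRay} (hr : Unt r) : Bd N (rl N r) := by
  have hN' : (0 : ℝ) < N := by exact_mod_cast hN
  have key : ∀ x : ℝ, 0 ≤ x ∧ x < 1 → |⌊(N : ℝ) * x⌋| ≤ (N : ℤ) := by
    intro x hx
    rw [abs_of_nonneg (Int.floor_nonneg.mpr (mul_nonneg hN'.le hx.1))]
    have : (⌊(N : ℝ) * x⌋ : ℝ) ≤ N := (Int.floor_le _).trans (by nlinarith [hx.2])
    exact_mod_cast this
  exact ⟨key _ (hr.C 0), key _ (hr.C 1), key _ (hr.a 0), key _ (hr.a 1), key _ hr.k⟩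

/-- one lateral coordinate of the rounding. -/
theorem round_x {N : ℕ} (hN : 1 ≤ N) {x p v z ρ : ℝ} {K : ℤ} (hρ : N * ρ ≤ K) (hz : |z| ≤ 1)
    (hv : 0 ≤ v ∧ v < 1) (h : |x - p - z * v| ≤ ρ) :
    |⌊(N : ℝ) * x⌋ - ⌊(⌊(N : ℝ) * p⌋ : ℝ) + ⌊(N : ℝ) * v⌋ * (⌊(N : ℝ) * z⌋ : ℝ) / N⌋| ≤ K + 3 := by
  have hN' : (0 : ℝ) < N := by exact_mod_cast hN
  apply floor_close
  push_cast
  set a : ℝ := ((⌊(N : ℝ) * p⌋ : ℤ) : ℝ)
  set c : ℝ := ((⌊(N : ℝ) * v⌋ : ℤ) : ℝ)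
  set j : ℝ := ((⌊(N : ℝ) * z⌋ : ℤ) : ℝ)
  have ha1 : a ≤ N * p := Int.floor_le _
  have ha2 : N * p < a + 1 := Int.lt_floor_add_one _
  have hc1 : c ≤ N * v := Int.floor_le _
  have hc2 : N * v < c + 1 := Int.lt_floor_add_one _
  have hj1 : j ≤ N * z := Int.floor_le _
  have hj2 : N * z < j + 1 := Int.lt_floor_add_one _
  have hc0 : 0 ≤ c := by
    have h1 : (0 : ℤ) ≤ ⌊(N : ℝ) * v⌋ := Int.floor_nonneg.mpr (mul_nonneg hN'.le hv.1)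
    have h2 : (0 : ℝ) ≤ ((⌊(N : ℝ) * v⌋ : ℤ) : ℝ) := by exact_mod_cast h1
    exact h2
  have hcN : c ≤ N := by nlinarith [hv.2]
  have e1 : |(N : ℝ) * x - N * p - N * z * v| ≤ K := by
    have : (N : ℝ) * x - N * p - N * z * v = N * (x - p - z * v) := by ring
    rw [this, abs_mul, abs_of_pos hN']
    exact (mul_le_mul_of_nonneg_left h hN'.le).trans hρ
  have e2 : |(N : ℝ) * p - a| ≤ 1 := by rw [abs_le]; constructor <;> linarith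
  have e3 : |(N : ℝ) * z * v - c * j / N| ≤ 2 := by
    have : (N : ℝ) * z * v - c * j / N = z * (N * v - c) + (c / N) * (N * z - j) := by
      field_simp; ring
    rw [this]
    have t1 : |z * (N * v - c)| ≤ 1 := by
      rw [abs_mul]
      have : |(N : ℝ) * v - c| ≤ 1 := by rw [abs_le]; constructor <;> linarith
      calc |z| * |(N : ℝ) * v - c| ≤ 1 * 1 := by
            apply mul_le_mul hz this (abs_nonneg _) (by norm_num)
        _ = 1 := by norm_num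
    have t2 : |(c / N) * (N * z - j)| ≤ 1 := by
      rw [abs_mul]
      have u1 : |(N : ℝ) * z - j| ≤ 1 := by rw [abs_le]; constructor <;> linarith
      have u2 : |c / (N : ℝ)| ≤ 1 := by
        rw [abs_of_nonneg (div_nonneg hc0 hN'.le), div_le_one hN']; exact hcN
      calc |c / (N : ℝ)| * |(N : ℝ) * z - j| ≤ 1 * 1 := by
            apply mul_le_mul u2 u1 (abs_nonneg _) (by norm_num)
        _ = 1 := by norm_num
    exact (abs_add_le _ _).trans (by linarith)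
  have : (N : ℝ) * x - (a + c * j / N) =
      (N * x - N * p - N * z * v) + (N * p - a) + (N * z * v - c * j / N) := by ring
  rw [this]
  calc _ ≤ |(N : ℝ) * x - N * p - N * z * v + (N * p - a)| + |(N : ℝ) * z * v - c * j / N| :=
        abs_add_le _ _
    _ ≤ (|(N : ℝ) * x - N * p - N * z * v| + |(N : ℝ) * p - a|) + |(N : ℝ) * z * v - c * j / N| := by
        gcongr; exact abs_add_le _ _
    _ ≤ K + 3 := by linarith

/-- one square of the rounding of the null coordinate. -/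
theorem round_sq {N : ℕ} (hN : 1 ≤ N) {v z : ℝ} (hz : |z| ≤ 1) (hv : 0 ≤ v ∧ v < 1) :
    |(N : ℝ) * (z * v ^ 2 / 2) - (⌊(N : ℝ) * v⌋ : ℝ) ^ 2 * (⌊(N : ℝ) * z⌋ : ℝ) /
      (2 * (N : ℝ) ^ 2)| ≤ 3 / 2 := by
  have hN' : (0 : ℝ) < N := by exact_mod_cast hN
  set c : ℝ := ((⌊(N : ℝ) * v⌋ : ℤ) : ℝ)
  set j : ℝ := ((⌊(N : ℝ) * z⌋ : ℤ) : ℝ)
  have hc1 : c ≤ N * v := Int.floor_le _
  have hc2 : N * v < c + 1 := Int.lt_floor_add_one _
  have hj1 : j ≤ N * z := Int.floor_le _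
  have hj2 : N * z < j + 1 := Int.lt_floor_add_one _
  have hc0 : 0 ≤ c := by
    have h1 : (0 : ℤ) ≤ ⌊(N : ℝ) * v⌋ := Int.floor_nonneg.mpr (mul_nonneg hN'.le hv.1)
    have h2 : (0 : ℝ) ≤ ((⌊(N : ℝ) * v⌋ : ℤ) : ℝ) := by exact_mod_cast h1
    exact h2
  have hcN : c ≤ N := by nlinarith [hv.2]
  have hd : |v - c / N| ≤ 1 / N := floor_div_close hN v
  have hcN1 : 0 ≤ c / N ∧ c / N ≤ 1 := ⟨div_nonneg hc0 hN'.le, by rw [div_le_one hN']; exact hcN⟩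
  have e : (N : ℝ) * (z * v ^ 2 / 2) - c ^ 2 * j / (2 * (N : ℝ) ^ 2) =
      z * ((N * (v - c / N)) * (v + c / N)) / 2 + (N * z - j) * (c / N) ^ 2 / 2 := by
    field_simp
    ring
  rw [e]
  have h1 : |(N : ℝ) * (v - c / N)| ≤ 1 := by
    rw [abs_mul, abs_of_pos hN']
    calc (N : ℝ) * |v - c / N| ≤ N * (1 / N) := by gcongr
      _ = 1 := by field_simp
  have h2 : |v + c / N| ≤ 2 := by
    rw [abs_of_nonneg (by linarith [hv.1, hcN1.1])]; linarith [hv.2, hcN1.2]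
  have t1 : |z * ((N * (v - c / N)) * (v + c / N)) / 2| ≤ 1 := by
    rw [abs_div, abs_mul, abs_mul, abs_of_pos (two_pos : (0:ℝ) < 2)]
    have h3 : |(N : ℝ) * (v - c / N)| * |v + c / N| ≤ 1 * 2 :=
      mul_le_mul h1 h2 (abs_nonneg _) (by norm_num)
    have h4 : |z| * (|(N : ℝ) * (v - c / N)| * |v + c / N|) ≤ 1 * (1 * 2) :=
      mul_le_mul hz h3 (by positivity) (by norm_num)
    linarith
  have t2 : |(N * z - j) * (c / N) ^ 2 / 2| ≤ 1 / 2 := by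
    rw [abs_div, abs_mul, abs_of_pos (two_pos : (0:ℝ) < 2), abs_of_nonneg (sq_nonneg (c / (N:ℝ)))]
    have u1 : |(N : ℝ) * z - j| ≤ 1 := by rw [abs_le]; constructor <;> linarith
    have u2 : (c / (N : ℝ)) ^ 2 ≤ 1 := pow_le_one₀ hcN1.1 hcN1.2
    have h4 : |(N : ℝ) * z - j| * (c / (N : ℝ)) ^ 2 ≤ 1 * 1 :=
      mul_le_mul u1 u2 (sq_nonneg _) (by norm_num)
    linarith
  refine (abs_add_le _ _).trans ?_
  linarith

/-- the null coordinate of the rounding. -/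
theorem round_y {N : ℕ} (hN : 1 ≤ N) {y k v w z ρ : ℝ} {K : ℤ} (hρ : N * ρ ≤ K) (hz : |z| ≤ 1)
    (hv : 0 ≤ v ∧ v < 1) (hw : 0 ≤ w ∧ w < 1) (h : |y - (k + z * (v ^ 2 + w ^ 2) / 2)| ≤ ρ) :
    |⌊(N : ℝ) * y⌋ - ⌊(⌊(N : ℝ) * k⌋ : ℝ) + ((⌊(N : ℝ) * v⌋ : ℝ) ^ 2 + (⌊(N : ℝ) * w⌋ : ℝ) ^ 2) *
      (⌊(N : ℝ) * z⌋ : ℝ) / (2 * (N : ℝ) ^ 2)⌋| ≤ K + 4 := by
  have hN' : (0 : ℝ) < N := by exact_mod_cast hN
  apply floor_close
  push_cast
  have e1 : |(N : ℝ) * (y - (k + z * (v ^ 2 + w ^ 2) / 2))| ≤ ((K : ℤ) : ℝ) := by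
    rw [abs_mul, abs_of_pos hN']
    exact (mul_le_mul_of_nonneg_left h hN'.le).trans hρ
  have e2 : |(N : ℝ) * k - (⌊(N : ℝ) * k⌋ : ℝ)| ≤ 1 := by
    have h1 := Int.floor_le ((N : ℝ) * k)
    have h2 := Int.lt_floor_add_one ((N : ℝ) * k)
    rw [abs_le]; constructor <;> linarith
  have e3 := round_sq hN hz hv
  have e4 := round_sq hN hz hw
  set kk : ℝ := ((⌊(N : ℝ) * k⌋ : ℤ) : ℝ)
  set c : ℝ := ((⌊(N : ℝ) * v⌋ : ℤ) : ℝ)
  set c' : ℝ := ((⌊(N : ℝ) * w⌋ : ℤ) : ℝ)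
  set j : ℝ := ((⌊(N : ℝ) * z⌋ : ℤ) : ℝ)
  have e : (N : ℝ) * y - (kk + (c ^ 2 + c' ^ 2) * j / (2 * (N : ℝ) ^ 2)) =
      (N : ℝ) * (y - (k + z * (v ^ 2 + w ^ 2) / 2)) + (N * k - kk) +
      (N * (z * v ^ 2 / 2) - c ^ 2 * j / (2 * (N : ℝ) ^ 2)) +
      (N * (z * w ^ 2 / 2) - c' ^ 2 * j / (2 * (N : ℝ) ^ 2)) := by
    field_simp
    ring
  rw [e]
  have a1 := abs_add_le ((N : ℝ) * (y - (k + z * (v ^ 2 + w ^ 2) / 2))) (N * k - kk)
  have a2 := abs_add_le ((N : ℝ) * (y - (k + z * (v ^ 2 + w ^ 2) / 2)) + (N * k - kk))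
    (N * (z * v ^ 2 / 2) - c ^ 2 * j / (2 * (N : ℝ) ^ 2))
  have a3 := abs_add_le ((N : ℝ) * (y - (k + z * (v ^ 2 + w ^ 2) / 2)) + (N * k - kk) +
    (N * (z * v ^ 2 / 2) - c ^ 2 * j / (2 * (N : ℝ) ^ 2)))
    (N * (z * w ^ 2 / 2) - c' ^ 2 * j / (2 * (N : ℝ) ^ 2))
  linarith

/-- shifted cell of a point. -/
noncomputable def cellX (N : ℕ) (e : (ℤ × ℤ) × ℤ) (X : E3) : (ℤ × ℤ) × ℤ :=
  ((⌊(N : ℝ) * X 0⌋ + e.1.1, ⌊(N : ℝ) * X 1⌋ + e.1.2), ⌊(N : ℝ) * X 2⌋ + e.2)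

/-- the box of shifts. -/
noncomputable def shf (K : ℤ) : Finset ((ℤ × ℤ) × ℤ) :=
  (Icc (-(K + 4)) (K + 4) ×ˢ Icc (-(K + 4)) (K + 4)) ×ˢ Icc (-(K + 4)) (K + 4)

/-- the cell of the rounded ray is near the cell of the point. -/
theorem cell_near {N : ℕ} (hN : 1 ≤ N) {r : LRay} (hr : Unt r) {s ρ : ℝ} {K : ℤ} (hρ : N * ρ ≤ K)
    (hs : |s| ≤ 1) {X : E3} (hx : ‖lat X - (r.2.1 - s • r.1)‖ ≤ ρ)
    (hy : |X 2 - (r.2.2 + s * ‖r.1‖ ^ 2 / 2)| ≤ ρ) :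
    ∃ e ∈ shf K, cell N (rl N r) ⌊(N : ℝ) * s⌋ = cellX N e X := by
  have hk : ∀ k : Fin 2, |lat X k - r.2.1 k - s * (-(r.1 k))| ≤ ρ := by
    intro k
    have := PiLp.norm_apply_le (lat X - (r.2.1 - s • r.1)) k
    simp only [PiLp.sub_apply, PiLp.smul_apply, smul_eq_mul, Real.norm_eq_abs] at this
    have e : lat X k - r.2.1 k - s * (-(r.1 k)) = lat X k - (r.2.1 k - s * r.1 k) := by ring
    rw [e]
    exact this.trans hx
  have h0 := round_x hN (p := r.2.1 0) hρ hs (hr.C 0) (hk 0)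
  have h1 := round_x hN (p := r.2.1 1) hρ hs (hr.C 1) (hk 1)
  have h2 := round_y hN (y := X 2) (k := r.2.2) hρ hs (hr.C 0) (hr.C 1) (by
    rw [CDef480.normsq2] at hy
    rw [neg_sq, neg_sq]; exact hy)
  refine ⟨(((cell N (rl N r) ⌊(N : ℝ) * s⌋).1.1 - ⌊(N : ℝ) * X 0⌋,
    (cell N (rl N r) ⌊(N : ℝ) * s⌋).1.2 - ⌊(N : ℝ) * X 1⌋),
    (cell N (rl N r) ⌊(N : ℝ) * s⌋).2 - ⌊(N : ℝ) * X 2⌋), ?_, ?_⟩
  · rw [abs_le] at h0 h1 h2
    simp only [shf, mem_product, mem_Icc]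
    have h0' := h0.1
    have h0'' := h0.2
    have h1' := h1.1
    have h1'' := h1.2
    simp only [CDef480.lat_zero, CDef480.lat_one] at h0' h0'' h1' h1''
    simp only [cell, rl]
    refine ⟨⟨⟨?_, ?_⟩, ⟨?_, ?_⟩⟩, ⟨?_, ?_⟩⟩ <;> omega
  · unfold cellX
    ext <;> simp

theorem vol_cell3 {N : ℕ} (hN : 1 ≤ N) (e q : (ℤ × ℤ) × ℤ) :
    volume {X : E3 | cellX N e X = q} ≤ ENNReal.ofReal ((1 / (N : ℝ)) ^ 3) := by
  have hN' : (0 : ℝ) < N := by exact_mod_cast hN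
  set m : Fin 3 → ℤ := ![q.1.1 - e.1.1, q.1.2 - e.1.2, q.2 - e.2] with hm
  set S : Set (Fin 3 → ℝ) := Set.Icc (fun i => (m i : ℝ) / N) (fun i => ((m i : ℝ) + 1) / N)
    with hS
  have hsub : {X : E3 | cellX N e X = q} ⊆ (MeasurableEquiv.toLp 2 (Fin 3 → ℝ)).symm ⁻¹' S := by
    intro x hx
    have hx' : cellX N e x = q := hx
    have hfl : ∀ i : Fin 3, ⌊(N : ℝ) * x i⌋ = m i := by
      intro i
      fin_cases i
      · show ⌊(N : ℝ) * x 0⌋ = q.1.1 - e.1.1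
        rw [← hx']; simp [cellX]
      · show ⌊(N : ℝ) * x 1⌋ = q.1.2 - e.1.2
        rw [← hx']; simp [cellX]
      · show ⌊(N : ℝ) * x 2⌋ = q.2 - e.2
        rw [← hx']; simp [cellX]
    simp only [Set.mem_preimage, hS, Set.mem_Icc, Pi.le_def]
    constructor
    · intro i
      show (m i : ℝ) / N ≤ x i
      have a1 := Int.floor_le ((N : ℝ) * x i)
      rw [hfl i] at a1
      rw [div_le_iff₀ hN']; linarith
    · intro i
      show x i ≤ ((m i : ℝ) + 1) / N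
      have a2 := Int.lt_floor_add_one ((N : ℝ) * x i)
      rw [hfl i] at a2
      rw [le_div_iff₀ hN']; linarith
  refine (measure_mono hsub).trans ?_
  rw [(EuclideanSpace.volume_preserving_symm_measurableEquiv_toLp (Fin 3)).measure_preimage
    (measurableSet_Icc.nullMeasurableSet)]
  rw [Real.volume_Icc_pi]
  have h1 : ∀ i : Fin 3, ENNReal.ofReal (((m i : ℝ) + 1) / N - (m i : ℝ) / N) =
      ENNReal.ofReal (1 / (N : ℝ)) := by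
    intro i
    congr 1
    rw [← sub_div]; ring
  rw [Finset.prod_congr rfl (fun i _ => h1 i), Finset.prod_const, Finset.card_univ,
    Fintype.card_fin, ← ENNReal.ofReal_pow (by positivity)]

theorem meas_cellX (N : ℕ) (e : (ℤ × ℤ) × ℤ) : Measurable (cellX N e) := by
  have h : ∀ i : Fin 3, Measurable (fun x : E3 => ⌊(N : ℝ) * x i⌋) := fun i =>
    Int.measurable_floor.comp (by fun_prop)
  exact (((h 0).add_const _).prodMk ((h 1).add_const _)).prodMk ((h 2).add_const _)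

end Crest.Agent.R116.Ks79
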