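import Crest.Agent.R116.Ks7_79

/-!
# R116: the unit case: from the grid inequality to tubes of rays in the unit box (helper79)
-/

set_option autoImplicit false
set_option linter.unusedVariables false

open Finset MeasureTheory
open scoped ENNReal

namespace Crest.Agent.R116.Ks79

open Crest.Agent.R138.Defs (E2)
open Crest.Agent.R116.CDef480 (E3 lat pt)
open Crest.Agent.R116.LZg725 (Cf Mem rpos rx ry nrm)
open Crest.Agent.R116.LKMDef299 (LRay Cpt tube)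

theorem abs_sub_of_floor_eq {N : ℕ} (hN : 1 ≤ N) {x y : ℝ}
    (h : ⌊(N : ℝ) * x⌋ = ⌊(N : ℝ) * y⌋) : |x - y| ≤ 1 / N := by
  have hN' : (0 : ℝ) < N := by exact_mod_cast hN
  have h1 := Int.floor_le ((N : ℝ) * x)
  have h2 := Int.lt_floor_add_one ((N : ℝ) * x)
  have h3 := Int.floor_le ((N : ℝ) * y)
  have h4 := Int.lt_floor_add_one ((N : ℝ) * y)
  rw [h] at h1 h2
  have e : x - y = ((N : ℝ) * x - N * y) / N := by field_simp
  rw [e, abs_div, abs_of_pos hN']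
  gcongr
  rw [abs_le]
  constructor <;> linarith

theorem near_of_rl_eq {N : ℕ} (hN : 1 ≤ N) {r r' : LRay} (hr : Unt r) (hr' : Unt r')
    (h : rl N r = rl N r') : Near (1 / (N : ℝ)) r r' := by
  unfold rl at h
  simp only [Prod.mk.injEq] at h
  obtain ⟨⟨⟨h1, h2⟩, h3, h4⟩, h5⟩ := h
  have g1 := abs_sub_of_floor_eq hN h1
  have g2 := abs_sub_of_floor_eq hN h2
  have g3 := abs_sub_of_floor_eq hN h3
  have g4 := abs_sub_of_floor_eq hN h4
  have g5 := abs_sub_of_floor_eq hN h5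
  have bd : ∀ {q : LRay}, Unt q → ‖q.1‖ ≤ 2 := by
    intro q hq
    refine (norm_le_abs_add _).trans ?_
    have h0 := hq.C 0
    have h1 := hq.C 1
    have e0 : |q.1 0| ≤ 1 := by rw [abs_le]; constructor <;> linarith
    have e1 : |q.1 1| ≤ 1 := by rw [abs_le]; constructor <;> linarith
    linarith
  refine ⟨?_, ?_, g5, bd hr, bd hr'⟩
  · refine (norm_le_abs_add _).trans ?_
    have e0 : |(r.1 - r'.1) 0| = |-(r.1 0) - -(r'.1 0)| := by
      rw [← abs_neg]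
      congr 1
      show -(r.1 0 - r'.1 0) = _
      ring
    have e1 : |(r.1 - r'.1) 1| = |-(r.1 1) - -(r'.1 1)| := by
      rw [← abs_neg]
      congr 1
      show -(r.1 1 - r'.1 1) = _
      ring
    rw [e0, e1]; linarith
  · refine (norm_le_abs_add _).trans ?_
    have e0 : |(r.2.1 - r'.2.1) 0| = |r.2.1 0 - r'.2.1 0| := rfl
    have e1 : |(r.2.1 - r'.2.1) 1| = |r.2.1 1 - r'.2.1 1| := rfl
    rw [e0, e1]; linarith

open Classical in
/-- **the density on members of every aperture.** -/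
theorem dens_all {M δ : ℝ} (hM : 1 ≤ M) (hδ : 0 < δ) (hδ1 : δ ≤ 1) {ι : Type} (S : Finset ι)
    (r : ι → LRay) (w : ι → ℝ) (hw : ∀ i ∈ S, 0 ≤ w i) (hr : ∀ i ∈ S, Unt (r i)) {D : ℝ}
    (hD : 0 ≤ D)
    (H : ∀ m : Mem, m.Ok M δ → m.R = 1 → m.s0 = 0 → δ ≤ m.s1 → m.sg ≤ 1 →
      (∑ i ∈ S.filter (fun i => r i ∈ m.rays δ), w i) * δ ^ 3 ≤ D * m.scost δ)
    {m : Mem} (hm : m.Ok M δ) (hR : m.R = 1) (hs0 : m.s0 = 0) (hs1 : δ ≤ m.s1) :
    (∑ i ∈ S.filter (fun i => r i ∈ m.rays δ), w i) * δ ^ 3 ≤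
      7962624 * D * m.scost δ := by
  have hc0 := hm.scost_pos.le
  rcases le_total m.sg 1 with hsg | hsg
  · refine (H m hm hR hs0 hs1 hsg).trans ?_
    have : 0 ≤ D * m.scost δ := mul_nonneg hD hc0
    nlinarith
  · set F := S.filter (fun i => r i ∈ m.rays δ) with hF
    set s' : Finset GRay := F.image (fun i => rl 8 (r i)) with hs'
    have hFS : ∀ i ∈ F, i ∈ S := fun i hi => (Finset.mem_filter.mp hi).1
    have hFr : ∀ i ∈ F, r i ∈ m.rays δ := fun i hi => (Finset.mem_filter.mp hi).2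
    have hcard : s'.card ≤ 243 * 8 ^ 5 := by
      apply card_le_of_Bd (N := 8) (by norm_num)
      intro l hl
      obtain ⟨i, hi, rfl⟩ := Finset.mem_image.mp hl
      exact rl_bd (by norm_num) (hr i (hFS i hi))
    have hsplit : ∑ i ∈ F, w i = ∑ l ∈ s', ∑ i ∈ F.filter (fun i => rl 8 (r i) = l), w i :=
      (Finset.sum_fiberwise_of_maps_to (fun i hi => Finset.mem_image_of_mem _ hi) _).symm
    have hcls : ∀ l ∈ s', (∑ i ∈ F.filter (fun i => rl 8 (r i) = l), w i) * δ ^ 3 ≤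
        D * m.scost δ := by
      intro l hl
      obtain ⟨i0, hi0, rfl⟩ := Finset.mem_image.mp hl
      obtain ⟨c1, c2, c3, c4⟩ := cover hM hδ hδ1 hm hR hs0 hs1 hsg (hFr i0 hi0)
      have h1 := H (small m (r i0)) c1 rfl rfl c2 le_rfl
      have h2 : ∑ i ∈ F.filter (fun i => rl 8 (r i) = rl 8 (r i0)), w i ≤
          ∑ i ∈ S.filter (fun i => r i ∈ (small m (r i0)).rays δ), w i := by
        apply Finset.sum_le_sum_of_subset_of_nonneg
        · intro i hi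
          obtain ⟨hi1, hi2⟩ := Finset.mem_filter.mp hi
          refine Finset.mem_filter.mpr ⟨hFS i hi1, c4 _ ?_ (hFr i hi1)⟩
          have := near_of_rl_eq (N := 8) (by norm_num) (hr i (hFS i hi1)) (hr i0 (hFS i0 hi0)) hi2
          simpa using this
        · intro i hi _
          exact hw i (Finset.mem_filter.mp hi).1
      calc _ ≤ (∑ i ∈ S.filter (fun i => r i ∈ (small m (r i0)).rays δ), w i) * δ ^ 3 := by
            gcongr
        _ ≤ D * (small m (r i0)).scost δ := h1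
        _ ≤ D * m.scost δ := by gcongr
    rw [hsplit, Finset.sum_mul]
    calc _ ≤ ∑ l ∈ s', D * m.scost δ := Finset.sum_le_sum hcls
      _ = (s'.card : ℝ) * (D * m.scost δ) := by rw [Finset.sum_const, nsmul_eq_mul]
      _ ≤ ((243 * 8 ^ 5 : ℕ) : ℝ) * (D * m.scost δ) := by
          have : (s'.card : ℝ) ≤ ((243 * 8 ^ 5 : ℕ) : ℝ) := by exact_mod_cast hcard
          have h0 : 0 ≤ D * m.scost δ := mul_nonneg hD hc0
          gcongr
      _ = 7962624 * D * m.scost δ := by norm_num; ring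

open Classical in
/-- sum over fibres above a subset of the image. -/
theorem sum_fib {G : GSys} {ι : Type} (S : Finset ι) (f : ι → G.Lin) (w : ι → ℝ)
    (p : G.Lin → Prop) :
    ∑ l ∈ (S.image f).filter p, ∑ i ∈ S.filter (fun i => f i = l), w i =
      ∑ i ∈ S.filter (fun i => p (f i)), w i := by
  have h := Finset.sum_fiberwise_of_maps_to (s := S.filter (fun i => p (f i)))
    (t := (S.image f).filter p) (g := f) (f := w) ?_
  · rw [← h]
    apply Finset.sum_congr rfl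
    intro l hl
    apply Finset.sum_congr _ (fun _ _ => rfl)
    ext i
    simp only [Finset.mem_filter]
    constructor
    · rintro ⟨h1, h2⟩
      refine ⟨⟨h1, ?_⟩, h2⟩
      rw [h2]; exact (Finset.mem_filter.mp hl).2
    · rintro ⟨⟨h1, _⟩, h2⟩
      exact ⟨h1, h2⟩
  · intro i hi
    obtain ⟨h1, h2⟩ := Finset.mem_filter.mp hi
    exact Finset.mem_filter.mpr ⟨Finset.mem_image.mpr ⟨i, h1, rfl⟩, h2⟩

open Classical in
/-- **the density of the rounded rays.** -/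
theorem dens_grid {M δ : ℝ} (hM : 1 ≤ M) (hδ : 0 < δ) (hδ1 : δ ≤ 1) {N : ℕ} (hN : 1 ≤ N)
    (hN1 : 18 ≤ N * δ) (hN2 : N * δ ≤ 19) {ι : Type} (S : Finset ι)
    (r : ι → LRay) (w : ι → ℝ) (hw : ∀ i ∈ S, 0 ≤ w i) (hr : ∀ i ∈ S, Unt (r i)) {D : ℝ}
    (hD : 0 ≤ D)
    (H : ∀ m : Mem, m.Ok (15162 * M ^ 2) δ → m.R = 1 → m.s0 = 0 → δ ≤ m.s1 → m.sg ≤ 1 →
      (∑ i ∈ S.filter (fun i => r i ∈ m.rays δ), w i) * δ ^ 3 ≤ D * m.scost δ)
    {m : Mem} (hm : Tst M N m) :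
    ∑ i ∈ S.filter (fun i => gray N (rl N (r i)) ∈ m.rays (1 / (N : ℝ))), w i ≤
      (7962624 * (130321 * (42 * M) ^ 4) * D) * (m.scost (1 / (N : ℝ)) * (N : ℝ) ^ 3) := by
  have hN' : (0 : ℝ) < N := by exact_mod_cast hN
  have hN'' : (1 : ℝ) ≤ N := by exact_mod_cast hN
  have he : 0 < 1 / (N : ℝ) := by positivity
  have he1 : 1 / (N : ℝ) ≤ 1 := by rw [div_le_one hN']; exact hN''
  have h1 : 18 * (1 / (N : ℝ)) ≤ δ := by
    rw [mul_one_div, div_le_iff₀ hN']; linarith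
  have h2 : δ ≤ 19 * (1 / (N : ℝ)) := by
    rw [mul_one_div, le_div_iff₀ hN']; linarith
  obtain ⟨b1, b2, b3, b4⟩ := enlarge hM he he1 h1 h2 hm.ok hm.cpt hm.R1 hm.s0 hm.thin hm.sg1
  have hM1 : (1 : ℝ) ≤ 15162 * M ^ 2 := by nlinarith
  have h3 := dens_all hM1 hδ hδ1 S r w hw hr hD H b1 rfl rfl b2
  have h4 : ∑ i ∈ S.filter (fun i => gray N (rl N (r i)) ∈ m.rays (1 / (N : ℝ))), w i ≤
      ∑ i ∈ S.filter (fun i => r i ∈ (big (42 * M) δ m).rays δ), w i := by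
    apply Finset.sum_le_sum_of_subset_of_nonneg
    · intro i hi
      obtain ⟨hi1, hi2⟩ := Finset.mem_filter.mp hi
      exact Finset.mem_filter.mpr ⟨hi1, b4 _ _ (rl_near hN (hr i hi1)) hi2⟩
    · intro i hi _
      exact hw i (Finset.mem_filter.mp hi).1
  have hδ3 : 0 < δ ^ 3 := by positivity
  have h5 : (1 : ℝ) ≤ (N : ℝ) ^ 3 * δ ^ 3 := by
    rw [← mul_pow]; exact one_le_pow₀ (by linarith)
  have hs0 : 0 ≤ m.scost (1 / (N : ℝ)) := hm.ok.scost_pos.le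
  refine h4.trans ?_
  set W := ∑ i ∈ S.filter (fun i => r i ∈ (big (42 * M) δ m).rays δ), w i
  have h6 : W * δ ^ 3 ≤ (7962624 * (130321 * (42 * M) ^ 4) * D) * m.scost (1 / (N : ℝ)) := by
    calc W * δ ^ 3 ≤ 7962624 * D * (big (42 * M) δ m).scost δ := h3
      _ ≤ 7962624 * D * (130321 * (42 * M) ^ 4 * m.scost (1 / (N : ℝ))) := by gcongr
      _ = _ := by ring
  have hW : 0 ≤ W := Finset.sum_nonneg fun i hi => hw i (Finset.mem_filter.mp hi).1
  calc W = W * 1 := (mul_one _).symm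
    _ ≤ W * ((N : ℝ) ^ 3 * δ ^ 3) := by gcongr
    _ = (W * δ ^ 3) * (N : ℝ) ^ 3 := by ring
    _ ≤ ((7962624 * (130321 * (42 * M) ^ 4) * D) * m.scost (1 / (N : ℝ))) * (N : ℝ) ^ 3 := by
        gcongr
    _ = _ := by ring

open Classical in
/-- **the unit case**. -/
theorem unit_case {M : ℝ} (hM : 1 ≤ M) (hM0 : 0 ≤ M) (hG : GrW (rsys M hM0)) (κ : ℝ) (hκ : 1 ≤ κ)
    (ε : ℝ) (hε : 0 < ε) : ∃ C : ℝ, 0 ≤ C ∧ ∀ δ : ℝ, 0 < δ → δ ≤ 1 →
    ∀ (ι : Type) (S : Finset ι) (r : ι → LRay) (w : ι → ℝ), (∀ i ∈ S, 0 ≤ w i) →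
      (∀ i ∈ S, Unt (r i)) → ∀ D : ℝ, 0 ≤ D →
      (∀ m : Mem, m.Ok (15162 * M ^ 2) δ → m.R = 1 → m.s0 = 0 → δ ≤ m.s1 → m.sg ≤ 1 →
        (∑ i ∈ S.filter (fun i => r i ∈ m.rays δ), w i) * δ ^ 3 ≤ D * m.scost δ) →
      ∫⁻ s in Set.Icc (-1 : ℝ) 1, ∫⁻ X : E3,
          (∑ i ∈ S, (if X ∈ tube (κ * δ) (r i) s then ENNReal.ofReal (w i) else 0)) ^
            (3/2 : ℝ) ≤
        ENNReal.ofReal (C * δ ^ (-ε) * Real.sqrt D * ((∑ i ∈ S, w i) * δ ^ 3)) := by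
  obtain ⟨CG, hCG, hG'⟩ := hG ε hε
  set K : ℤ := ⌈19 * κ⌉ with hK
  set c1 : ℝ := 7962624 * (130321 * (42 * M) ^ 4) with hc1
  have hc10 : 0 ≤ c1 := by rw [hc1]; positivity
  refine ⟨((shf K).card : ℝ) ^ 2 * (19 : ℝ) ^ ε * CG * Real.sqrt c1, by positivity, ?_⟩
  intro δ hδ0 hδ1 ι S r w hw hr D hD H
  -- choice of `N`
  obtain ⟨N, hNdef⟩ : ∃ N : ℕ, N = ⌈18 / δ⌉₊ := ⟨_, rfl⟩
  have hN1' : 18 / δ ≤ (N : ℝ) := by rw [hNdef]; exact Nat.le_ceil _
  have hN2' : (N : ℝ) < 18 / δ + 1 := by rw [hNdef]; exact Nat.ceil_lt_add_one (by positivity)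
  have hN1 : 18 ≤ N * δ := by rwa [div_le_iff₀ hδ0] at hN1'
  have hN2 : N * δ ≤ 19 := by
    have h : (N : ℝ) * δ ≤ (18 / δ + 1) * δ := by gcongr
    have e : (18 / δ + 1) * δ = 18 + δ := by field_simp
    rw [e] at h
    linarith
  have hNr : (1 : ℝ) ≤ N := by
    by_contra hcon
    push Not at hcon
    nlinarith
  have hN : 1 ≤ N := by exact_mod_cast hNr
  have hN' : (0 : ℝ) < N := by linarith
  have hsum : 0 ≤ ∑ i ∈ S, w i := Finset.sum_nonneg hw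
  obtain ⟨rl', hrl'⟩ : ∃ f : ι → (rsys M hM0).Lin, f = fun i => rl N (r i) := ⟨_, rfl⟩
  -- the grid inequality
  have main := hG' N hN (S.image rl') (fun l => ∑ i ∈ S.filter (fun i => rl' i = l), w i)
    (c1 * D) (by positivity) (by
      intro l _
      exact Finset.sum_nonneg fun i hi => hw i (Finset.mem_filter.mp hi).1) (by
      intro l hl
      obtain ⟨i, hi, rfl⟩ := Finset.mem_image.mp hl
      rw [hrl']
      exact rl_bd hN (hr i hi)) (by
      intro σ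
      have h := dens_grid hM hδ0 hδ1 hN hN1 hN2 S r w hw hr hD H σ.2.2
      rw [sum_fib S rl' w (fun l => (rsys M hM0).mem N σ l)]
      subst hrl'
      exact h)
  have sumA : ∑ l ∈ S.image rl', ∑ i ∈ S.filter (fun i => rl' i = l), w i = ∑ i ∈ S, w i :=
    Finset.sum_fiberwise_of_maps_to (fun i hi => Finset.mem_image_of_mem _ hi) _
  rw [sumA] at main
  let i1 : MeasurableSpace (rsys M hM0).Q := inferInstanceAs (MeasurableSpace ((ℤ × ℤ) × ℤ))
  have i2 : Countable (rsys M hM0).Q := inferInstanceAs (Countable ((ℤ × ℤ) × ℤ))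
  have i3 : MeasurableSingletonClass (rsys M hM0).Q :=
    inferInstanceAs (MeasurableSingletonClass ((ℤ × ℤ) × ℤ))
  have it := integral_tubes (S := rsys M hM0) (X := E3) hN S rl' w hw (shf K)
    (cellX N) (v := (1 / (N : ℝ)) ^ 3) (by positivity) (by
      intro e _
      exact meas_cellX N e)
    (fun e _ q => vol_cell3 hN e q) (fun i s X => X ∈ tube (κ * δ) (r i) s) (by
      intro z hz x i hi hx
      obtain ⟨hx1, hx2⟩ := hx
      rw [hrl']
      exact cell_near hN (hr i hi) (ρ := κ * δ) (K := K) (by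
        have h1 : (N : ℝ) * (κ * δ) = κ * (N * δ) := by ring
        rw [h1]
        have h2 : κ * (N * δ) ≤ κ * 19 := by gcongr
        have h3 : 19 * κ ≤ (K : ℝ) := Int.le_ceil _
        linarith) (abs_le.mpr ⟨hz.1, hz.2⟩) hx1 hx2)
  refine it.trans ?_
  · apply ENNReal.ofReal_le_ofReal
    have f1 : Real.sqrt (c1 * D) = Real.sqrt c1 * Real.sqrt D := Real.sqrt_mul hc10 _
    have f2 : (N : ℝ) ^ ε ≤ 19 ^ ε * δ ^ (-ε) := by
      have h19 : (N : ℝ) ≤ 19 / δ := by rw [le_div_iff₀ hδ0]; exact hN2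
      calc (N : ℝ) ^ ε ≤ (19 / δ) ^ ε := Real.rpow_le_rpow hN'.le h19 hε.le
        _ = 19 ^ ε * δ ^ (-ε) := by
            rw [Real.div_rpow (by norm_num) hδ0.le, Real.rpow_neg hδ0.le]; rfl
    have f3 : (N : ℝ) * ((1 / (N : ℝ)) ^ 3 * (1 / (N : ℝ))) ≤ δ ^ 3 := by
      have e : (N : ℝ) * ((1 / (N : ℝ)) ^ 3 * (1 / (N : ℝ))) = (1 / (N : ℝ)) ^ 3 := by
        field_simp
      rw [e]
      apply pow_le_pow_left₀ (by positivity)
      rw [div_le_iff₀ hN']; linarith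
    have hδε : 0 ≤ δ ^ (-ε) := Real.rpow_nonneg hδ0.le _
    rw [f1] at main
    calc ((shf K).card : ℝ) ^ 2 * ((∑ q ∈ cells N (S.image rl'), cw N (S.image rl')
          (fun l => ∑ i ∈ S.filter (fun i => rl' i = l), w i) q ^ (3 / 2 : ℝ)) *
          ((1 / (N : ℝ)) ^ 3 * (1 / (N : ℝ))))
        ≤ ((shf K).card : ℝ) ^ 2 * ((CG * (N : ℝ) ^ ε * (Real.sqrt c1 * Real.sqrt D) * N *
            ∑ i ∈ S, w i) * ((1 / (N : ℝ)) ^ 3 * (1 / (N : ℝ)))) := by gcongr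
      _ = ((shf K).card : ℝ) ^ 2 * CG * Real.sqrt c1 * Real.sqrt D * (∑ i ∈ S, w i) *
            (N : ℝ) ^ ε * ((N : ℝ) * ((1 / (N : ℝ)) ^ 3 * (1 / (N : ℝ)))) := by ring
      _ ≤ ((shf K).card : ℝ) ^ 2 * CG * Real.sqrt c1 * Real.sqrt D * (∑ i ∈ S, w i) *
            (19 ^ ε * δ ^ (-ε)) * δ ^ 3 := by gcongr
      _ = _ := by ring

end Crest.Agent.R116.Ks79
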