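import Crest.Agent.R116.Ks8_79
import Crest.Agent.R116.Mc1_330

/-!
# R116: LKMseq gives LKMtube (helper79)

CONSUMER: `LKMtube (SSr M1) V` (299's literal) for every `M1 ≥ 15162 M²` and every `V`.
PRODUCER: `LKMseq M` (`Ks4_79`).
-/

set_option autoImplicit false
set_option linter.unusedVariables false

open Finset MeasureTheory
open scoped ENNReal

namespace Crest.Agent.R116.Ks79

open Crest.Agent.R138.Defs (E2)
open Crest.Agent.R116.CDef480 (E3 lat pt)
open Crest.Agent.R116.LZg725 (Cf Mem rpos rx ry nrm zR InK)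
open Crest.Agent.R116.LKMDef299 (LRay Cpt tube LKMtube SSr LKM)
open Crest.Agent.R116.Mc330 (shC)

/-! ### the change of coordinates on rays and members -/

/-- null rotation and translation of a ray. -/
noncomputable def mv (C0 P : E2) (h : ℝ) (r : LRay) : LRay :=
  (r.1 - C0, r.2.1 - P, r.2.2 + inner ℝ C0 r.2.1 - h)

/-- translation of a member. -/
noncomputable def trl (P : E2) (h : ℝ) (m : Mem) : Mem where
  c := m.c
  sg := m.sg
  s1 := m.s1
  R := m.R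
  X0 := m.X0 + pt P h
  s0 := m.s0
  phi := Cf.tr (-P) (-h) 0 m.phi

theorem trl_T (B : ℝ) (P : E2) (h : ℝ) (m : Mem) : (trl P h m).T B = m.T B := rfl

theorem lat_X0 (P : E2) (h : ℝ) (m : Mem) : lat (trl P h m).X0 = lat m.X0 + P := by
  show lat (m.X0 + pt P h) = _
  rw [CDef480.lat_add, CDef480.lat_pt]

theorem X0_two (P : E2) (h : ℝ) (m : Mem) : (trl P h m).X0 2 = m.X0 2 + h := rfl

theorem nrm_tr (c x P : E2) (y h s : ℝ) :
    nrm c (x + P) (y + h) s = nrm c x y s + (h + inner ℝ c P) := by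
  unfold nrm
  rw [inner_add_right]
  ring

theorem trl_ok {M B : ℝ} (P : E2) (h : ℝ) {m : Mem} (hm : m.Ok M B) : (trl P h m).Ok M B := by
  refine ⟨hm.hR, hm.hs1, hm.hsg, ?_, ?_, ?_, ?_⟩
  · show (Cf.tr (-P) (-h) 0 m.phi).disc = 1
    rw [Cf.disc_tr]; exact hm.adm.disc
  · intro s hs
    show |(Cf.tr (-P) (-h) 0 m.phi).ny s| * m.T B ≤ M * m.sg
    rw [Cf.ny_tr, add_zero]
    exact hm.adm.ny s hs
  · show |(Cf.tr (-P) (-h) 0 m.phi).ld m.c (lat (trl P h m).X0) ((trl P h m).X0 2) m.s0| ≤ M * m.sg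
    rw [Cf.ld_tr, lat_X0, X0_two, add_neg_cancel_right, add_neg_cancel_right, add_zero]
    exact hm.adm.ld
  · show |(Cf.tr (-P) (-h) 0 m.phi).ev (lat (trl P h m).X0) ((trl P h m).X0 2) m.s0| ≤
      M * m.sg * m.R
    rw [Cf.ev_tr, lat_X0, X0_two, add_neg_cancel_right, add_neg_cancel_right, add_zero]
    exact hm.adm.ev

theorem trl_rays (B : ℝ) (P : E2) (h : ℝ) (m : Mem) (r : LRay) :
    r ∈ (trl P h m).rays B ↔ ((r.1, r.2.1 - P, r.2.2 - h) : LRay) ∈ m.rays B := by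
  rw [Mem.mem_rays, Mem.mem_rays]
  unfold LZg725.RayIn
  show (‖r.1 - m.c‖ ≤ m.sg ∧ ∀ s, |s - m.s0| ≤ m.R →
      InK m.c m.sg (m.T B) m.R (lat (trl P h m).X0) ((trl P h m).X0 2) m.s0 (rx r.1 r.2.1 s)
        (ry r.1 r.2.2 s) s ∧
      |(Cf.tr (-P) (-h) 0 m.phi).ev (rx r.1 r.2.1 s) (ry r.1 r.2.2 s) s| ≤ m.s1 * m.R) ↔ _
  refine and_congr_right fun _ => forall_congr' fun s => imp_congr_right fun _ => ?_
  have e1 : rx r.1 (r.2.1 - P) s = rx r.1 r.2.1 s + -P := by unfold rx; abel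
  have e2 : ry r.1 (r.2.2 - h) s = ry r.1 r.2.2 s + -h := by unfold ry; ring
  rw [Cf.ev_tr, add_zero, lat_X0, X0_two]
  refine and_congr ?_ (by rw [e1, e2])
  unfold InK
  refine and_congr_right fun _ => ?_
  have e3 : rx r.1 r.2.1 s - (lat m.X0 + P) = rx r.1 (r.2.1 - P) s - lat m.X0 := by
    rw [e1]; abel
  have e4 : nrm m.c (rx r.1 r.2.1 s) (ry r.1 r.2.2 s) s - nrm m.c (lat m.X0 + P) (m.X0 2 + h) m.s0 =
      nrm m.c (rx r.1 (r.2.1 - P) s) (ry r.1 (r.2.2 - h) s) s -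
        nrm m.c (lat m.X0) (m.X0 2) m.s0 := by
    rw [nrm_tr, e1, e2, nrm_tr, inner_neg_right]
    ring
  rw [e3, e4]

/-- the member pulled back to the old coordinates. -/
noncomputable def bk (C0 P : E2) (h : ℝ) (m : Mem) : Mem := (trl P h m).zoom (-C0) 1

theorem bk_rays (B : ℝ) (C0 P : E2) (h : ℝ) (m : Mem) (r : LRay) :
    r ∈ (bk C0 P h m).rays B ↔ mv C0 P h r ∈ m.rays B := by
  have h1 := Mem.zoom_rays B (-C0) one_pos (trl P h m) (zR C0 1 r)
  have h2 : zR (-C0) 1 (zR C0 1 r) = r := by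
    unfold zR LZg725.zC
    rw [inv_one, one_smul, one_smul, one_smul, sub_neg_eq_add, sub_add_cancel, inner_neg_left,
      one_smul, add_neg_cancel_right]
  rw [h2] at h1
  unfold bk
  rw [h1, trl_rays]
  unfold zR LZg725.zC mv
  rw [inv_one, one_smul, one_smul]

theorem bk_ok {M B : ℝ} (C0 P : E2) (h : ℝ) {m : Mem} (hm : m.Ok M B) : (bk C0 P h m).Ok M B :=
  Mem.zoom_ok (-C0) one_pos (trl_ok P h hm)

theorem bk_scost (B : ℝ) (C0 P : E2) (h : ℝ) (m : Mem) :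
    (bk C0 P h m).scost B = m.scost B := by
  unfold bk
  rw [Mem.zoom_scost B (-C0) one_pos, one_pow, one_mul]
  rfl

theorem bk_R (C0 P : E2) (h : ℝ) (m : Mem) : (bk C0 P h m).R = m.R := by
  show (1 : ℝ) ^ 2 * m.R = m.R
  rw [one_pow, one_mul]

theorem bk_s0 (C0 P : E2) (h : ℝ) (m : Mem) : (bk C0 P h m).s0 = m.s0 := by
  show (1 : ℝ) ^ 2 * m.s0 = m.s0
  rw [one_pow, one_mul]

theorem bk_s1 (C0 P : E2) (h : ℝ) (m : Mem) : (bk C0 P h m).s1 = m.s1 := by
  show m.s1 / 1 = m.s1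
  rw [div_one]

theorem bk_sg (C0 P : E2) (h : ℝ) (m : Mem) : (bk C0 P h m).sg = m.sg := by
  show m.sg / 1 = m.sg
  rw [div_one]

/-! ### the change of coordinates in space -/

theorem lat_shC (C : E2) (X : E3) : lat (shC C X) = lat X := by
  ext i
  fin_cases i
  · exact Mc330.shC_zero C X
  · exact Mc330.shC_one C X

/-- the shear preserves the measure. -/
theorem lint_shear (C : E2) (v : E3) {G : E3 → ℝ≥0∞} (hG : Measurable G) :
    ∫⁻ X, G (shC C X + v) = ∫⁻ X, G X := by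
  have hd : LinearMap.det (shC C) ≠ 0 := by rw [Mc330.det_shC]; norm_num
  have h1 := Measure.map_linearMap_addHaar_eq_smul_addHaar (volume : Measure E3) hd
  rw [Mc330.det_shC, inv_one, abs_one, ENNReal.ofReal_one, one_smul] at h1
  have hm : Measurable (shC C) := (LinearMap.continuous_of_finiteDimensional (shC C)).measurable
  have hG' : Measurable (fun Y => G (Y + v)) := hG.comp (measurable_id.add_const v)
  have h2 : ∫⁻ X, G (shC C X + v) = ∫⁻ Y, G (Y + v) ∂(Measure.map (shC C) volume) :=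
    (lintegral_map hG' hm).symm
  rw [h2, h1, lintegral_add_right_eq_self]

/-- tubes go into tubes. -/
theorem tube_mv {κ δ : ℝ} (hδ : 0 ≤ δ) {C0 : E2} (hκ : 1 + ‖C0‖ ≤ κ) (P : E2) (h : ℝ) {r : LRay}
    {s : ℝ} {X : E3} (hX : X ∈ tube δ r s) :
    shC C0 X + pt (s • C0 - P) (s * ‖C0‖ ^ 2 / 2 - h) ∈ tube (κ * δ) (mv C0 P h r) s := by
  obtain ⟨h1, h2⟩ := hX
  have hk : δ ≤ κ * δ := by nlinarith [norm_nonneg C0]
  refine ⟨?_, ?_⟩
  · rw [CDef480.lat_add, CDef480.lat_pt, lat_shC]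
    have e : lat X + (s • C0 - P) - ((mv C0 P h r).2.1 - s • (mv C0 P h r).1) =
        lat X - (r.2.1 - s • r.1) := by
      unfold mv
      simp only []
      module
    rw [e]
    exact h1.trans hk
  · have e0 : (shC C0 X + pt (s • C0 - P) (s * ‖C0‖ ^ 2 / 2 - h)) 2 =
        X 2 + inner ℝ C0 (lat X) + (s * ‖C0‖ ^ 2 / 2 - h) := by
      show shC C0 X 2 + (s * ‖C0‖ ^ 2 / 2 - h) = _
      rw [Mc330.shC_two]
      unfold CDef480.nrm
      ring
    have e : (shC C0 X + pt (s • C0 - P) (s * ‖C0‖ ^ 2 / 2 - h)) 2 -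
        ((mv C0 P h r).2.2 + s * ‖(mv C0 P h r).1‖ ^ 2 / 2) =
        (X 2 - (r.2.2 + s * ‖r.1‖ ^ 2 / 2)) + inner ℝ C0 (lat X - (r.2.1 - s • r.1)) := by
      rw [e0]
      unfold mv
      simp only []
      rw [norm_sub_sq_real, inner_sub_right, inner_sub_right, real_inner_smul_right,
        real_inner_comm C0 r.1]
      ring
    rw [e]
    refine (abs_add_le _ _).trans ?_
    have h3 : |inner ℝ C0 (lat X - (r.2.1 - s • r.1))| ≤ ‖C0‖ * δ :=
      (abs_real_inner_le_norm _ _).trans (mul_le_mul_of_nonneg_left h1 (norm_nonneg _))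
    nlinarith

/-- the tube is closed in space-time. -/
theorem closed_tube (δ : ℝ) (r : LRay) : IsClosed {q : ℝ × E3 | q.2 ∈ tube δ r q.1} := by
  have hl : Continuous (fun q : ℝ × E3 => lat q.2) := CDef480.latL.continuous.comp continuous_snd
  have h2 : Continuous (fun q : ℝ × E3 => q.2 2) := by fun_prop
  apply IsClosed.inter
  · exact isClosed_le ((hl.sub (by fun_prop)).norm) continuous_const
  · exact isClosed_le ((h2.sub (by fun_prop)).abs) continuous_const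

open Classical in
theorem meas_sum {ι : Type} (S : Finset ι) (r : ι → LRay) (w : ι → ℝ) (δ : ℝ) :
    Measurable (fun q : ℝ × E3 =>
      (∑ i ∈ S, (if q.2 ∈ tube δ (r i) q.1 then ENNReal.ofReal (w i) else 0)) ^
        (3/2 : ℝ)) := by
  apply Measurable.pow_const
  apply Finset.measurable_fun_sum
  intro i _
  exact Measurable.ite (closed_tube δ (r i)).measurableSet measurable_const measurable_const

open Classical in
theorem meas_sum_x {ι : Type} (S : Finset ι) (r : ι → LRay) (w : ι → ℝ) (δ : ℝ) (s : ℝ) :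
    Measurable (fun X : E3 =>
      (∑ i ∈ S, (if X ∈ tube δ (r i) s then ENNReal.ofReal (w i) else 0)) ^
        (3/2 : ℝ)) := by
  apply Measurable.pow_const
  apply Finset.measurable_fun_sum
  intro i _
  have hc : IsClosed {X : E3 | X ∈ tube δ (r i) s} :=
    (closed_tube δ (r i)).preimage (continuous_const.prodMk continuous_id)
  exact Measurable.ite hc.measurableSet measurable_const measurable_const

theorem card_rpow (n : ℕ) : (n : ℝ≥0∞) ^ (3 / 2 - 1 : ℝ) ≤ n := by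
  rcases Nat.eq_zero_or_pos n with h | h
  · rw [h]
    have : ((0 : ℕ) : ℝ≥0∞) ^ (3 / 2 - 1 : ℝ) = 0 := by
      rw [Nat.cast_zero]
      exact ENNReal.zero_rpow_of_pos (by norm_num)
    rw [this]
    exact zero_le
  · refine (ENNReal.rpow_le_rpow_of_exponent_le (z := 1) (by exact_mod_cast h)
      (by norm_num)).trans ?_
    rw [ENNReal.rpow_one]

open Classical in
/-- splitting in classes. -/
theorem split_int {ι κ : Type} [DecidableEq κ] (S : Finset ι) (K : Finset κ) (g : ι → κ)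
    (hg : ∀ i ∈ S, g i ∈ K) (r : ι → LRay) (w : ι → ℝ) (δ : ℝ) :
    ∫⁻ s in Set.Icc (-1 : ℝ) 1, ∫⁻ X : E3,
      (∑ i ∈ S, (if X ∈ tube δ (r i) s then ENNReal.ofReal (w i) else 0)) ^ (3/2 : ℝ) ≤
    (K.card : ℝ≥0∞) * ∑ m ∈ K, ∫⁻ s in Set.Icc (-1 : ℝ) 1, ∫⁻ X : E3,
        (∑ i ∈ S.filter (fun i => g i = m),
        (if X ∈ tube δ (r i) s then ENNReal.ofReal (w i) else 0)) ^ (3/2 : ℝ) := by
  have pw : ∀ s : ℝ, ∀ X : E3,
      (∑ i ∈ S, (if X ∈ tube δ (r i) s then ENNReal.ofReal (w i) else 0)) ^ (3/2 : ℝ) ≤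
      (K.card : ℝ≥0∞) * ∑ m ∈ K, (∑ i ∈ S.filter (fun i => g i = m),
        (if X ∈ tube δ (r i) s then ENNReal.ofReal (w i) else 0)) ^ (3/2 : ℝ) := by
    intro s X
    have h0 := Finset.sum_fiberwise_of_maps_to hg
      (fun i => (if X ∈ tube δ (r i) s then ENNReal.ofReal (w i) else 0))
    rw [← h0]
    refine (ENNReal.rpow_sum_le_const_mul_sum_rpow _ _ (by norm_num)).trans ?_
    exact mul_le_mul_left (card_rpow _) _
  have m1 : ∀ m : κ, Measurable (fun s : ℝ => ∫⁻ X : E3,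
      (∑ i ∈ S.filter (fun i => g i = m),
        (if X ∈ tube δ (r i) s then ENNReal.ofReal (w i) else 0)) ^ (3/2 : ℝ)) :=
    fun m => (meas_sum (S.filter (fun i => g i = m)) r w δ).lintegral_prod_right'
  have m2 : ∀ (m : κ) (s : ℝ), Measurable (fun X : E3 =>
      (∑ i ∈ S.filter (fun i => g i = m),
        (if X ∈ tube δ (r i) s then ENNReal.ofReal (w i) else 0)) ^ (3/2 : ℝ)) :=
    fun m s => meas_sum_x (S.filter (fun i => g i = m)) r w δ s
  calc _ ≤ ∫⁻ s in Set.Icc (-1 : ℝ) 1, (K.card : ℝ≥0∞) * ∑ m ∈ K, ∫⁻ X : E3,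
        (∑ i ∈ S.filter (fun i => g i = m),
        (if X ∈ tube δ (r i) s then ENNReal.ofReal (w i) else 0)) ^ (3/2 : ℝ) := by
        apply lintegral_mono
        intro s
        refine (lintegral_mono (pw s)).trans ?_
        rw [lintegral_const_mul' _ _ (by simp), lintegral_finsetSum _ (fun m _ => m2 m s)]
    _ = _ := by
        rw [lintegral_const_mul' _ _ (by simp), lintegral_finsetSum _ (fun m _ => m1 m)]

/-! ### the classes -/

/-- integer vector in the plane. -/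
noncomputable def iv (m : ℤ × ℤ) : E2 := !₂[(m.1 : ℝ), (m.2 : ℝ)]

theorem iv_floor (x : E2) (k : Fin 2) :
    0 ≤ x k - iv (⌊x 0⌋, ⌊x 1⌋) k ∧ x k - iv (⌊x 0⌋, ⌊x 1⌋) k < 1 := by
  have hk : k = 0 ∨ k = 1 := by
    rcases k with ⟨j, hj⟩
    interval_cases j
    · left; rfl
    · right; rfl
  rcases hk with rfl | rfl
  · have e : iv (⌊x 0⌋, ⌊x 1⌋) 0 = (⌊x 0⌋ : ℝ) := rfl
    rw [e]
    have h1 := Int.floor_le (x 0)
    have h2 := Int.lt_floor_add_one (x 0)
    constructor <;> linarith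
  · have e : iv (⌊x 0⌋, ⌊x 1⌋) 1 = (⌊x 1⌋ : ℝ) := rfl
    rw [e]
    have h1 := Int.floor_le (x 1)
    have h2 := Int.lt_floor_add_one (x 1)
    constructor <;> linarith

theorem floor_mem {V : ℝ} {x : ℝ} (hx : |x| ≤ V) :
    ⌊x⌋ ∈ Finset.Icc (-(⌈V⌉₊ : ℤ)) ⌈V⌉₊ := by
  rw [abs_le] at hx
  have hV : V ≤ (⌈V⌉₊ : ℝ) := Nat.le_ceil _
  rw [Finset.mem_Icc]
  constructor
  · rw [Int.le_floor]; push_cast; linarith [hx.1]
  · have : (⌊x⌋ : ℝ) ≤ (⌈V⌉₊ : ℝ) := (Int.floor_le _).trans (by linarith [hx.2])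
    exact_mod_cast this

/-- class of a ray. -/
noncomputable def cls (r : LRay) : ((ℤ × ℤ) × (ℤ × ℤ)) × ℤ :=
  (((⌊-(r.1 0)⌋, ⌊-(r.1 1)⌋), (⌊r.2.1 0⌋, ⌊r.2.1 1⌋)),
    ⌊r.2.2 + inner ℝ (-(iv (⌊-(r.1 0)⌋, ⌊-(r.1 1)⌋))) r.2.1⌋)

/-- direction of the class. -/
noncomputable def c0 (m : ((ℤ × ℤ) × (ℤ × ℤ)) × ℤ) : E2 := -(iv m.1.1)

theorem unt_mv (r : LRay) : Unt (mv (c0 (cls r)) (iv (cls r).1.2) (cls r).2 r) := by
  refine ⟨fun k => ?_, fun k => ?_, ?_⟩
  · have e : -((mv (c0 (cls r)) (iv (cls r).1.2) (cls r).2 r).1 k) =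
        (-r.1) k - iv (⌊(-r.1) 0⌋, ⌊(-r.1) 1⌋) k := by
      show -(r.1 k - -(iv (cls r).1.1 k)) = -(r.1 k) - iv (cls r).1.1 k
      ring
    rw [e]
    exact iv_floor (-r.1) k
  · exact iv_floor r.2.1 k
  · have h1 := Int.floor_le (r.2.2 + inner ℝ (c0 (cls r)) r.2.1)
    have h2 := Int.lt_floor_add_one (r.2.2 + inner ℝ (c0 (cls r)) r.2.1)
    have e : (mv (c0 (cls r)) (iv (cls r).1.2) (cls r).2 r).2.2 =
        r.2.2 + inner ℝ (c0 (cls r)) r.2.1 -
          (⌊r.2.2 + inner ℝ (c0 (cls r)) r.2.1⌋ : ℝ) := rfl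
    rw [e]
    constructor <;> linarith

theorem norm_c0_le {V : ℝ} {r : LRay} (h : ‖r.1‖ ≤ V) : ‖c0 (cls r)‖ ≤ V + 2 := by
  have h1 : ‖r.1 - c0 (cls r)‖ ≤ 2 := by
    refine (norm_le_abs_add _).trans ?_
    have h0 := (unt_mv r).C 0
    have h1 := (unt_mv r).C 1
    have e0 : |(r.1 - c0 (cls r)) 0| ≤ 1 := by
      rw [abs_le]
      constructor
      · have : (mv (c0 (cls r)) (iv (cls r).1.2) (cls r).2 r).1 0 = (r.1 - c0 (cls r)) 0 := rfl
        linarith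
      · have : (mv (c0 (cls r)) (iv (cls r).1.2) (cls r).2 r).1 0 = (r.1 - c0 (cls r)) 0 := rfl
        linarith
    have e1 : |(r.1 - c0 (cls r)) 1| ≤ 1 := by
      rw [abs_le]
      constructor
      · have : (mv (c0 (cls r)) (iv (cls r).1.2) (cls r).2 r).1 1 = (r.1 - c0 (cls r)) 1 := rfl
        linarith
      · have : (mv (c0 (cls r)) (iv (cls r).1.2) (cls r).2 r).1 1 = (r.1 - c0 (cls r)) 1 := rfl
        linarith
    linarith
  have e : c0 (cls r) = r.1 - (r.1 - c0 (cls r)) := by abel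
  rw [e]
  exact (norm_sub_le _ _).trans (by linarith)

/-- the box of classes. -/
noncomputable def Kb (V : ℝ) : Finset (((ℤ × ℤ) × (ℤ × ℤ)) × ℤ) :=
  ((Icc (-(⌈V⌉₊ : ℤ)) ⌈V⌉₊ ×ˢ Icc (-(⌈V⌉₊ : ℤ)) ⌈V⌉₊) ×ˢ
    (Icc (-(⌈V⌉₊ : ℤ)) ⌈V⌉₊ ×ˢ Icc (-(⌈V⌉₊ : ℤ)) ⌈V⌉₊)) ×ˢ
    Icc (-(⌈V + (V + 2) * V⌉₊ : ℤ)) ⌈V + (V + 2) * V⌉₊

theorem abs_coord_le (x : E2) (k : Fin 2) : |x k| ≤ ‖x‖ := by
  have := PiLp.norm_apply_le x k
  rwa [Real.norm_eq_abs] at this

theorem cls_mem {V : ℝ} {r : LRay} (h1 : ‖r.1‖ ≤ V) (h2 : ‖r.2.1‖ ≤ V) (h3 : |r.2.2| ≤ V) :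
    cls r ∈ Kb V := by
  have hV : 0 ≤ V := (norm_nonneg _).trans h1
  have g : ∀ k, |-(r.1 k)| ≤ V := fun k => by rw [abs_neg]; exact (abs_coord_le _ k).trans h1
  have g2 : ∀ k, |r.2.1 k| ≤ V := fun k => (abs_coord_le _ k).trans h2
  have g3 : |r.2.2 + inner ℝ (c0 (cls r)) r.2.1| ≤ V + (V + 2) * V := by
    refine (abs_add_le _ _).trans ?_
    have : |inner ℝ (c0 (cls r)) r.2.1| ≤ (V + 2) * V :=
      (abs_real_inner_le_norm _ _).trans (mul_le_mul (norm_c0_le h1) h2 (norm_nonneg _)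
        (by linarith))
    linarith
  exact mem_product.mpr ⟨mem_product.mpr ⟨mem_product.mpr ⟨floor_mem (g 0), floor_mem (g 1)⟩,
    mem_product.mpr ⟨floor_mem (g2 0), floor_mem (g2 1)⟩⟩, floor_mem g3⟩

open Classical in
/-- **the shell of the K side**: the sequence form gives the inequality for tubes. -/
theorem lkmtube_of_lkmseq {M M1 : ℝ} (hM : 1 ≤ M) (h1 : 15162 * M ^ 2 ≤ M1) (h : LKMseq M)
    (V : ℝ) : LKMtube (SSr M1) V := by
  have hM0 : 0 ≤ M := by linarith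
  apply LKMtube.mono (T := SSr (15162 * M ^ 2)) _ (fun δ ρ A v h => h.mono h1)
  intro ε hε
  have hκ : (1 : ℝ) ≤ 3 + |V| := by linarith [abs_nonneg V]
  obtain ⟨C, hC, hU⟩ := unit_case hM hM0 (grW_of_lkmseq hM0 h) (3 + |V|) hκ ε hε
  refine ⟨(Kb V).card * C, by positivity, ?_⟩
  intro δ hδ0 hδ1 ι _ r w hw hr1 hr2 hr3 Δ hΔ H
  have hmaps : ∀ i ∈ (Finset.univ : Finset ι), cls (r i) ∈ Kb V := fun i _ =>
    cls_mem (hr1 i) (hr2 i) (hr3 i)
  have hcl : ∀ m ∈ Kb V, ∫⁻ s in Set.Icc (-1 : ℝ) 1, ∫⁻ X : E3,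
      (∑ i ∈ Finset.univ.filter (fun i => cls (r i) = m),
        (if X ∈ tube δ (r i) s then ENNReal.ofReal (w i) else 0)) ^ (3/2 : ℝ) ≤
      ENNReal.ofReal (C * δ ^ (-ε) * Real.sqrt Δ *
        ((∑ i ∈ Finset.univ.filter (fun i => cls (r i) = m), w i) * δ ^ 3)) := by
    intro m _
    rcases (Finset.univ.filter (fun i => cls (r i) = m)).eq_empty_or_nonempty with he | ⟨i0, hi0⟩
    · rw [he]
      simp
    have hm0 : cls (r i0) = m := (Finset.mem_filter.mp hi0).2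
    have hn : 1 + ‖c0 m‖ ≤ 3 + |V| := by
      have := norm_c0_le (hr1 i0)
      rw [hm0] at this
      linarith [le_abs_self V]
    set S := Finset.univ.filter (fun i => cls (r i) = m) with hS
    refine le_trans ?_ (hU δ hδ0 hδ1 ι S (fun i => mv (c0 m) (iv m.1.2) m.2 (r i)) w
      (fun i _ => hw i) (fun i hi => by
        have := unt_mv (r i)
        rwa [(Finset.mem_filter.mp hi).2] at this) Δ hΔ ?_)
    · apply lintegral_mono
      intro s
      show (∫⁻ X : E3, (∑ i ∈ S, (if X ∈ tube δ (r i) s then ENNReal.ofReal (w i) else 0)) ^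
        (3/2 : ℝ)) ≤ _
      refine le_trans ?_ (lint_shear (c0 m) (pt (s • c0 m - iv m.1.2) (s * ‖c0 m‖ ^ 2 / 2 - m.2))
        (meas_sum_x S (fun i => mv (c0 m) (iv m.1.2) m.2 (r i)) w ((3 + |V|) * δ) s)).le
      apply lintegral_mono
      intro X
      apply ENNReal.rpow_le_rpow _ (by norm_num)
      apply Finset.sum_le_sum
      intro i _
      by_cases hX : X ∈ tube δ (r i) s
      · rw [if_pos hX, if_pos (tube_mv hδ0.le hn _ _ hX)]
      · rw [if_neg hX]; exact zero_le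
    · intro t ht hR hs0 hs1 hsg
      have h2 := H ((bk (c0 m) (iv m.1.2) m.2 t).rays δ) (t.scost δ)
        ⟨bk (c0 m) (iv m.1.2) m.2 t, bk_ok _ _ _ ht, (bk_R _ _ _ _).trans hR,
          (bk_s0 _ _ _ _).trans hs0, by rw [bk_s1]; exact hs1, by rw [bk_sg]; exact hsg, rfl,
          (bk_scost _ _ _ _ _).symm⟩
      refine le_trans ?_ h2
      rw [Finset.sum_mul, ← Finset.sum_filter]
      apply Finset.sum_le_sum_of_subset_of_nonneg
      · intro i hi
        obtain ⟨_, h3⟩ := Finset.mem_filter.mp hi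
        exact Finset.mem_filter.mpr ⟨Finset.mem_univ _, (bk_rays _ _ _ _ _ _).mpr h3⟩
      · intro i _ _
        exact mul_nonneg (hw i) (by positivity)
  refine (split_int Finset.univ (Kb V) (fun i => cls (r i)) hmaps r w δ).trans ?_
  calc _ ≤ ((Kb V).card : ℝ≥0∞) * ∑ m ∈ Kb V, ENNReal.ofReal (C * δ ^ (-ε) * Real.sqrt Δ *
        ((∑ i ∈ Finset.univ.filter (fun i => cls (r i) = m), w i) * δ ^ 3)) := by
        apply mul_le_mul_right
        exact Finset.sum_le_sum hcl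
    _ = _ := by
        have hsum : ∀ m, 0 ≤ ∑ i ∈ Finset.univ.filter (fun i => cls (r i) = m), w i :=
          fun m => Finset.sum_nonneg fun i _ => hw i
        have hδε : 0 ≤ δ ^ (-ε) := Real.rpow_nonneg hδ0.le _
        rw [← ENNReal.ofReal_sum_of_nonneg (fun m _ => by
          have := hsum m
          positivity)]
        have hs : ∑ m ∈ Kb V, ∑ i ∈ Finset.univ.filter (fun i => cls (r i) = m), w i =
            ∑ i, w i := Finset.sum_fiberwise_of_maps_to hmaps _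
        rw [← Finset.mul_sum, ← Finset.sum_mul, hs,
          ← ENNReal.ofReal_natCast, ← ENNReal.ofReal_mul (by positivity)]
        congr 1
        rw [Finset.sum_mul]
        ring

/-- **the K side's output from the sequence form.** -/
theorem lkm_of_lkmseq {M : ℝ} (hM : 1 ≤ M) (h : LKMseq M) : LKM :=
  ⟨15162 * M ^ 2, by nlinarith, fun V => lkmtube_of_lkmseq hM le_rfl h V⟩

end Crest.Agent.R116.Ks79
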