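import Crest.Agent.R136.Qg7_926

/-!
# R116, K side: own strips in a window (helper593), part 1

`E' ⊆ Cl` pruned with the extra partition `ex j` = real lines.  If on every real line a set `T` of
heights carries at most a `κ`-part of the incidences, then `T` is at most a `κ d'^(-o(1))`-part of
all heights (`zshare`).

* `WStrip` : the counts of the strips `|co t - c co kz| <= K d^X_t d'^τ` on single real lines.
* `HCmp` : the label function `f` of the heights is the slot `t` of every real line, up to an affine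
  function of the height.
* `WStrip.zero`, `WStrip.all` : shares of the strips of `f` in the heights of the model.
-/

set_option autoImplicit false
set_option linter.unusedSectionVars false
set_option linter.unusedVariables false

open Filter Topology

namespace Crest.Agent.R116.Kst593

open Finset Crest.Agent.R138.Ex926 Crest.Agent.R136.Net191 Crest.Agent.R136.Gf356
open Crest.Agent.R136.Qg926

/-- double counting over real lines and over heights -/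
theorem share_core {α : Type*} [DecidableEq α] (E : Finset α) (rl zc : α → ℕ) {κ A : ℝ}
    (T : Finset ℕ)
    (h1 : ∀ i ∈ E, ((E.filter fun j => rl j = rl i ∧ zc j ∈ T).card : ℝ) ≤
      κ * ((cls E rl i).card : ℝ))
    (h2 : ∀ k ∈ T, A ≤ ((E.filter fun j => zc j = k).card : ℝ)) :
    (T.card : ℝ) * A ≤ κ * (E.card : ℝ) := by
  set F := E.filter fun j => zc j ∈ T with hF
  have e1 : (T.card : ℝ) * A ≤ ∑ k ∈ T, ((E.filter fun j => zc j = k).card : ℝ) := by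
    rw [← nsmul_eq_mul, ← sum_const]
    exact sum_le_sum h2
  have e2 : (F.card : ℝ) = ∑ k ∈ T, ((E.filter fun j => zc j = k).card : ℝ) := by
    have h3 : F.card = ∑ k ∈ T, (F.filter fun j => zc j = k).card :=
      card_eq_sum_card_fiberwise fun j hj => (mem_filter.1 hj).2
    rw [h3]
    push_cast
    refine sum_congr rfl fun k hk => ?_
    congr 2
    ext j
    simp only [hF, mem_filter]
    constructor
    · rintro ⟨⟨a, _⟩, c⟩; exact ⟨a, c⟩
    · rintro ⟨a, c⟩; exact ⟨⟨a, by rw [c]; exact hk⟩, c⟩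
  have e3 : (F.card : ℝ) = ∑ b ∈ E.image rl, ((F.filter fun j => rl j = b).card : ℝ) := by
    have h3 : F.card = ∑ b ∈ E.image rl, (F.filter fun j => rl j = b).card :=
      card_eq_sum_card_fiberwise fun j hj => mem_image_of_mem _ (mem_filter.1 hj).1
    rw [h3]; push_cast; rfl
  have e4 : (E.card : ℝ) = ∑ b ∈ E.image rl, ((E.filter fun j => rl j = b).card : ℝ) := by
    rw [card_eq_sum_card_image rl E]; push_cast; rfl
  rw [← e2, e3] at e1
  refine e1.trans ?_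
  rw [e4, mul_sum]
  refine sum_le_sum fun b hb => ?_
  obtain ⟨i, hi, rfl⟩ := mem_image.1 hb
  refine le_trans (le_of_eq ?_) (h1 i hi)
  congr 2
  ext j
  simp only [hF, mem_filter]
  tauto

variable {m : ℕ} {ι : ℕ → Type*} [∀ n, DecidableEq (ι n)]

theorem rp_anti (B : Base) (n : ℕ) {a b : ℝ} (h : a ≤ b) : B.d n ^ b ≤ B.d n ^ a :=
  Real.rpow_le_rpow_of_exponent_ge (B.pos n) (B.lt n).le h

theorem rp_pos (B : Base) (n : ℕ) (a : ℝ) : 0 < B.d n ^ a := Real.rpow_pos_of_pos (B.pos n) a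

theorem rp_add (B : Base) (n : ℕ) (a b : ℝ) : B.d n ^ (a + b) = B.d n ^ a * B.d n ^ b :=
  Real.rpow_add (B.pos n) a b

/-- number of heights of a pruned set, from below -/
theorem card_z_ge {W : Wnd m ι} (h : W.Ok) {E' : ∀ n, Finset (ι n)} {g : ℕ → ℝ}
    {ex : ℕ → ∀ n, ι n → ℕ} (hP : Wnd.Pruned W W.Cl E' g ex) {ε : ℝ} (hε : 0 < ε) :
    ∀ᶠ n in (U : Filter ℕ), W.B'.d n ^ (W.lam (cut W.S 0 W.top) + ε) ≤
      (((E' n).image (W.zc n)).card : ℝ) := by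
  have hε3 : 0 < ε / 3 := by positivity
  filter_upwards [h.ev_good, h.cls.csub, h.cls.big _ hε3, h.cls.near_up h.K0_one W.R' hε3,
    ev_const_le W.B' (c := 2) (by norm_num) hε3] with n g1 g2 g3 g4 g5
  classical
  have hTn := h.cls.T0 n
  have hp := fun s => rp_pos W.B' n s
  have hsub : E' n ⊆ W.Cl n := hP.sub n
  have c1 := le_count_mul (E' n) (fun _ => (1 : ℝ)) (W.zc n)
    (m := W.T n * W.B'.d n ^ (-(W.lam (cut W.S 0 W.top) + ε / 3))) (fun i hi => by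
      rw [sum_const, nsmul_eq_mul, mul_one]
      refine le_trans ?_ (g4 (cut W.S 0 W.top) (h.leg h.lev_leg)
        (Wnd.norm_le_of_Leg h.R0 h.lev_leg) i (g1.clI (hsub hi)))
      refine Nat.cast_le.2 (card_le_card fun j hj => mem_filter.2 ?_)
      obtain ⟨hj1, hj2⟩ := mem_cls.1 hj
      exact ⟨g2 (hsub hj1), h.near_zc g1 (hsub hi) (hsub hj1) hj2.symm⟩)
  rw [sum_const, nsmul_eq_mul, mul_one] at c1
  have c2 := hP.half n
  have c3 : W.T n * W.B'.d n ^ (ε / 3) ≤ W.T n * (W.B'.d n ^ (-(ε / 3)) *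
      (W.B'.d n ^ (-(W.lam (cut W.S 0 W.top) + ε / 3)) * (((E' n).image (W.zc n)).card : ℝ))) := by
    calc W.T n * W.B'.d n ^ (ε / 3) ≤ ((W.Cl n).card : ℝ) := g3
      _ ≤ 2 * (E' n).card := c2
      _ ≤ W.B'.d n ^ (-(ε / 3)) * (E' n).card :=
          mul_le_mul_of_nonneg_right g5 (Nat.cast_nonneg _)
      _ ≤ W.B'.d n ^ (-(ε / 3)) * (W.T n * W.B'.d n ^ (-(W.lam (cut W.S 0 W.top) + ε / 3)) *
            (((E' n).image (W.zc n)).card : ℝ)) := mul_le_mul_of_nonneg_left c1 (hp _).le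
      _ = _ := by ring
  have c4 := le_of_mul_le_mul_left c3 hTn
  have c5 := mul_le_mul_of_nonneg_left c4 (hp (W.lam (cut W.S 0 W.top) + 2 * (ε / 3))).le
  rw [← rp_add] at c5
  have e1 : W.lam (cut W.S 0 W.top) + 2 * (ε / 3) + ε / 3 = W.lam (cut W.S 0 W.top) + ε := by ring
  rw [e1] at c5
  refine c5.trans (le_of_eq ?_)
  rw [← mul_assoc, ← mul_assoc, ← rp_add, ← rp_add]
  have e2 : W.lam (cut W.S 0 W.top) + 2 * (ε / 3) + -(ε / 3) +
      -(W.lam (cut W.S 0 W.top) + ε / 3) = 0 := by ring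
  rw [e2, Real.rpow_zero, one_mul]

/-- **from single real lines to all heights** -/
theorem zshare {W : Wnd m ι} (h : W.Ok) {E' : ∀ n, Finset (ι n)} {g : ℕ → ℝ}
    {ex : ℕ → ∀ n, ι n → ℕ} (hP : Wnd.Pruned W W.Cl E' g ex) {j : ℕ} {A : ℕ → ℝ}
    (hA : ∀ n, 0 < A n)
    (hnum : ∀ ε : ℝ, 0 < ε → ∀ᶠ n in (U : Filter ℕ),
      (((W.Cl n).image (ex j n)).card : ℝ) ≤ A n * W.B'.d n ^ (-ε)) (c : ℝ) {ε : ℝ}
    (hε : 0 < ε) :
    ∀ᶠ n in (U : Filter ℕ), ∀ T ⊆ (E' n).image (W.zc n),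
      (∀ i ∈ E' n, (((E' n).filter fun y => ex j n y = ex j n i ∧ W.zc n y ∈ T).card : ℝ) ≤
        W.T n / A n * W.B'.d n ^ c) →
      (T.card : ℝ) ≤ W.B'.d n ^ (c - ε) * (((E' n).image (W.zc n)).card : ℝ) := by
  set δ : ℝ := ε / 5 with hδ
  have hδ0 : 0 < δ := by positivity
  filter_upwards [hP.ex_ge (Mu := fun _ => 1) hA (fun ε hε => h.cls.big ε hε) hnum hδ0, hP.gsub δ hδ0,
    h.card_zc_le hδ0, card_z_ge h hP hδ0, h.ev_good, h.cls.big δ hδ0] with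
    n h1 h2 h3 h4 hg hbig T hT hst
  have hp := fun s => rp_pos W.B' n s
  have hTn := h.cls.T0 n
  set ZE : ℝ := (((W.Cl n).image (W.zc n)).card : ℝ) with hZE
  set CE : ℝ := ((W.Cl n).card : ℝ) with hCE
  have hCE0 : 0 < CE := lt_of_lt_of_le (mul_pos hTn (hp _)) hbig
  have hZE0 : 0 < ZE := by
    rw [hZE]
    exact_mod_cast card_pos.2 ⟨_, mem_image_of_mem _ hg.s0⟩
  have hE'c : ((E' n).card : ℝ) ≤ CE := by
    rw [hCE]; exact_mod_cast card_le_card (hP.sub n)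
  have key := share_core (E' n) (ex j n) (W.zc n) (κ := W.B'.d n ^ (c - δ))
    (A := CE / (W.B'.d n ^ (-δ) * ZE)) T (fun i hi => by
      refine (hst i hi).trans ?_
      have h5 := h1 i hi
      have e1 : W.T n / A n * W.B'.d n ^ c =
          W.B'.d n ^ (c - δ) * (W.T n / A n * W.B'.d n ^ δ) := by
        have : W.B'.d n ^ c = W.B'.d n ^ (c - δ) * W.B'.d n ^ δ := by
          rw [← rp_add]; congr 1; ring
        rw [this]; ring
      rw [e1]
      exact mul_le_mul_of_nonneg_left h5 (hp _).le)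
    (fun k hk => by
      obtain ⟨i, hi, rfl⟩ := mem_image.1 (hT hk)
      rw [div_le_iff₀ (mul_pos (hp _) hZE0)]
      have h6 := hP.slices n i hi
      refine h6.trans ?_
      have h7 : (((E' n).filter fun y => W.zc n y = W.zc n i).card : ℝ) =
          ((R138.Ex926.cls (E' n) (W.zc n) i).card : ℝ) := rfl
      rw [h7]
      have h8 : (0 : ℝ) ≤ ((R138.Ex926.cls (E' n) (W.zc n) i).card : ℝ) := Nat.cast_nonneg _
      calc g n * ZE * ((R138.Ex926.cls (E' n) (W.zc n) i).card : ℝ)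
          ≤ (W.B'.d n ^ (-δ) * ZE) * ((R138.Ex926.cls (E' n) (W.zc n) i).card : ℝ) := by gcongr
        _ = _ := by ring)
  have k1 : (T.card : ℝ) * (CE / (W.B'.d n ^ (-δ) * ZE)) ≤ W.B'.d n ^ (c - δ) * CE :=
    key.trans (mul_le_mul_of_nonneg_left hE'c (hp _).le)
  have k2 : (T.card : ℝ) ≤ W.B'.d n ^ (c - δ) * (W.B'.d n ^ (-δ) * ZE) := by
    have e1 : (T.card : ℝ) * (CE / (W.B'.d n ^ (-δ) * ZE)) =
        ((T.card : ℝ) / (W.B'.d n ^ (-δ) * ZE)) * CE := by ring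
    rw [e1] at k1
    have k3 := le_of_mul_le_mul_right k1 hCE0
    rwa [div_le_iff₀ (mul_pos (hp _) hZE0)] at k3
  have k4 : ZE ≤ W.B'.d n ^ (W.lam (cut W.S 0 W.top) - δ) := h3 _ (Subset.refl _)
  calc (T.card : ℝ) ≤ W.B'.d n ^ (c - δ) * (W.B'.d n ^ (-δ) * ZE) := k2
    _ ≤ W.B'.d n ^ (c - δ) * (W.B'.d n ^ (-δ) * W.B'.d n ^ (W.lam (cut W.S 0 W.top) - δ)) := by
        have := hp (c - δ)
        have := hp (-δ)
        gcongr
    _ = W.B'.d n ^ (c - 4 * δ) * W.B'.d n ^ (W.lam (cut W.S 0 W.top) + δ) := by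
        rw [← rp_add, ← rp_add, ← rp_add]; congr 1; ring
    _ ≤ W.B'.d n ^ (c - 4 * δ) * (((E' n).image (W.zc n)).card : ℝ) :=
        mul_le_mul_of_nonneg_left h4 (hp _).le
    _ ≤ W.B'.d n ^ (c - ε) * (((E' n).image (W.zc n)).card : ℝ) := by
        refine mul_le_mul_of_nonneg_right (rp_anti _ _ ?_) (Nat.cast_nonneg _)
        rw [hδ]; linarith

/-! ### fat lines -/

/-- number of pairs (fat line, height), from above -/
theorem card_pc_le {W : Wnd m ι} (h : W.Ok) {ε : ℝ} (hε : 0 < ε) :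
    ∀ᶠ n in (U : Filter ℕ), (((W.Cl n).image (W.pc n)).card : ℝ) ≤ W.B'.d n ^ (W.lam W.top - ε) := by
  have hN := h.N_pos h.K0_one
  have hlev : cut W.S 0 W.top ≤ W.top := by
    conv_rhs => rw [← cut_self W.S W.top]
    exact cut_mono (fun s _ => h.top_leg.1.nonneg s) (fun s _ => le_rfl)
  filter_upwards [h.card_lab_le (ε := ε / 2) (by positivity), h.ev_good,
    ev_const_le W.B' (mul_pos hN hN) (ε := ε / 2) (by positivity)] with n h1 g h2
  classical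
  have hp := fun s => rp_pos W.B' n s
  have key : (((W.Cl n).image (W.pc n)).card : ℝ) ≤
      W.N W.K0 * W.N W.K0 * ((W.Cl n).image (W.lab n W.top)).card := by
    refine card_image_le_mul _ _ _ fun x hx => ?_
    set O := R138.Ex926.cls (W.Cl n) (W.lab n W.top) x with hO
    have hOC : O ⊆ W.Cl n := cls_subset _ _ _
    have hOI : O ⊆ W.I n := hOC.trans g.clI
    have hbx : ∀ j ∈ O, W.bx n W.top W.K0 x j := fun j hj =>
      h.near_lab g h.top_leg (g.clI hx) (hOI hj) (mem_cls.1 hj).2.symm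
    have c1 := h.card_lc_box g h.K0_one hOI (g.clI hx) hbx
    have c2 := h.card_zc_box g hlev h.K0_one hOI (g.clI hx) hbx
    have c3 : ((O.image (W.pc n)).card : ℝ) ≤ (O.image (W.lc n)).card * (O.image (W.zc n)).card := by
      have : O.image (W.pc n) ⊆ (O.image (W.lc n)) ×ˢ (O.image (W.zc n)) := by
        intro q hq
        obtain ⟨i, hi, rfl⟩ := mem_image.1 hq
        exact mem_product.2 ⟨mem_image_of_mem _ hi, mem_image_of_mem _ hi⟩
      have h3 := card_le_card this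
      rw [card_product] at h3
      exact_mod_cast h3
    exact c3.trans (mul_le_mul c1 c2 (Nat.cast_nonneg _) hN.le)
  calc (((W.Cl n).image (W.pc n)).card : ℝ)
      ≤ W.N W.K0 * W.N W.K0 * ((W.Cl n).image (W.lab n W.top)).card := key
    _ ≤ W.B'.d n ^ (-(ε / 2)) * W.B'.d n ^ (W.lam W.top - ε / 2) :=
        mul_le_mul h2 (h1 _ h.top_leg _ (Subset.refl _)) (Nat.cast_nonneg _) (hp _).le
    _ = W.B'.d n ^ (W.lam W.top - ε) := by rw [← rp_add]; congr 1; ring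

/-- **from single real lines to the heights of one fat line** -/
theorem lshare {W : Wnd m ι} (h : W.Ok) {E' : ∀ n, Finset (ι n)} {g : ℕ → ℝ}
    {ex : ℕ → ∀ n, ι n → ℕ} (hP : Wnd.Pruned W W.Cl E' g ex) {rl : ∀ n, ι n → ℕ} {j₁ j₂ : ℕ}
    (hex1 : ∀ᶠ n in (U : Filter ℕ), ∀ i ∈ W.Cl n, ∀ j ∈ W.Cl n,
      ex j₁ n j = ex j₁ n i → rl n j = rl n i ∧ W.lc n j = W.lc n i)
    (hex2 : ∀ n i, ex j₂ n i = Nat.pair (W.lc n i) (W.zc n i))
    {A : ℕ → ℝ} (hA : ∀ n, 0 < A n)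
    (hnum : ∀ ε : ℝ, 0 < ε → ∀ᶠ n in (U : Filter ℕ),
      (((W.Cl n).image (ex j₁ n)).card : ℝ) ≤ A n * W.B'.d n ^ (-ε)) (c : ℝ) {ε : ℝ}
    (hε : 0 < ε) :
    ∀ᶠ n in (U : Filter ℕ), ∀ l, ∀ T ⊆ (W.cfg0 n (E' n)).hts l,
      (∀ i ∈ E' n, W.lc n i = l → (((E' n).filter fun y => W.lc n y = l ∧ rl n y = rl n i ∧
        W.zc n y ∈ T).card : ℝ) ≤ W.T n / A n * W.B'.d n ^ c) →
      (T.card : ℝ) ≤ W.B'.d n ^ (c - ε) * (((W.cfg0 n (E' n)).hts l).card : ℝ) := by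
  set δ : ℝ := ε / 6 with hδ
  have hδ0 : 0 < δ := by positivity
  filter_upwards [hP.ex_ge (Mu := fun _ => 1) hA (fun ε hε => h.cls.big ε hε) hnum hδ0,
    hP.ex_ge (Mu := fun _ => 1) (j := j₂) (s := W.T) (A := fun n => W.B'.d n ^ W.lam W.top)
      (fun n => rp_pos _ _ _)
      (fun ε hε => h.cls.big ε hε) (fun ε hε => by
        filter_upwards [card_pc_le h hε] with n hn
        refine le_trans (le_of_eq ?_) (hn.trans (le_of_eq ?_))
        · congr 1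
          have : (W.Cl n).image (ex j₂ n) =
              ((W.Cl n).image (W.pc n)).image (fun q => Nat.pair q.1 q.2) := by
            rw [image_image]
            refine image_congr fun i _ => ?_
            simp only [Function.comp, Wnd.pc]
            exact hex2 n i
          rw [this, card_image_of_injective]
          rintro ⟨a, b⟩ ⟨a', b'⟩ he
          obtain ⟨h1, h2⟩ := Nat.pair_eq_pair.1 he
          exact Prod.ext h1 h2
        · rw [← rp_add]; congr 1) hδ0,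
    h.mult_le hδ0, hex1] with n h1 h2 h3 h4 l T hT hst
  have hp := fun s => rp_pos W.B' n s
  have hTn := h.cls.T0 n
  set F := (E' n).filter fun y => W.lc n y = l with hF
  have hFE : F ⊆ E' n := filter_subset _ _
  have hCl : ∀ {y}, y ∈ E' n → y ∈ W.Cl n := fun hy => hP.sub n hy
  have key := share_core F (rl n) (W.zc n) (κ := W.B'.d n ^ (c - δ))
    (A := W.T n / W.B'.d n ^ W.lam W.top * W.B'.d n ^ δ) T (fun i hi => by
      obtain ⟨i1, i2⟩ := mem_filter.1 hi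
      have e0 : (F.filter fun j => rl n j = rl n i ∧ W.zc n j ∈ T) =
          (E' n).filter fun y => W.lc n y = l ∧ rl n y = rl n i ∧ W.zc n y ∈ T := by
        rw [hF, filter_filter]
      rw [e0]
      refine (hst i i1 i2).trans ?_
      have h5 := h1 i i1
      have h6 : ((R138.Ex926.cls (E' n) (ex j₁ n) i).card : ℝ) ≤ ((cls F (rl n) i).card : ℝ) := by
        refine Nat.cast_le.2 (card_le_card fun y hy => ?_)
        obtain ⟨y1, y2⟩ := mem_cls.1 hy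
        obtain ⟨b1, b2⟩ := h4 i (hCl i1) y (hCl y1) y2
        exact mem_cls.2 ⟨mem_filter.2 ⟨y1, b2.trans i2⟩, b1⟩
      have e1 : W.T n / A n * W.B'.d n ^ c =
          W.B'.d n ^ (c - δ) * (W.T n / A n * W.B'.d n ^ δ) := by
        have : W.B'.d n ^ c = W.B'.d n ^ (c - δ) * W.B'.d n ^ δ := by
          rw [← rp_add]; congr 1; ring
        rw [this]; ring
      rw [e1]
      exact mul_le_mul_of_nonneg_left (h5.trans h6) (hp _).le)
    (fun k hk => by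
      obtain ⟨x, hx, hx1, hx2⟩ := Wnd.cfg0_hts.1 (hT hk)
      refine (h2 x hx).trans ?_
      refine Nat.cast_le.2 (card_le_card fun y hy => ?_)
      obtain ⟨y1, y2⟩ := mem_cls.1 hy
      rw [hex2, hex2] at y2
      obtain ⟨b1, b2⟩ := Nat.pair_eq_pair.1 y2
      exact mem_filter.2 ⟨mem_filter.2 ⟨y1, b1.trans hx1⟩, b2.trans hx2⟩)
  have c1 : (F.card : ℝ) ≤ W.T n * W.B'.d n ^ (-W.lam W.top) * W.B'.d n ^ (-δ) *
      (F.image (W.zc n)).card := by
    refine Wnd.card_le_mult (W := W) (fun i hi => ?_) _ (fun i hi j hj he => ?_)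
    · refine le_trans ?_ (h3 i (hCl (hFE hi)))
      exact_mod_cast card_le_card (cls_mono (hFE.trans (hP.sub n)) _ _)
    · have e1 := (mem_filter.1 hi).2.trans (mem_filter.1 hj).2.symm
      unfold Wnd.pc
      rw [e1, he]
  have c2 : ((F.image (W.zc n)).card : ℝ) ≤ (((W.cfg0 n (E' n)).hts l).card : ℝ) := by
    refine Nat.cast_le.2 (card_le_card fun k hk => ?_)
    obtain ⟨y, hy, rfl⟩ := mem_image.1 hk
    obtain ⟨hy1, hy2⟩ := mem_filter.1 hy
    exact Wnd.cfg0_hts.2 ⟨y, hy1, hy2, rfl⟩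
  set H : ℝ := (((W.cfg0 n (E' n)).hts l).card : ℝ) with hH
  have c3 : (T.card : ℝ) * (W.T n / W.B'.d n ^ W.lam W.top * W.B'.d n ^ δ) ≤
      W.B'.d n ^ (c - δ) * (W.T n * W.B'.d n ^ (-W.lam W.top) * W.B'.d n ^ (-δ) * H) :=
    key.trans (mul_le_mul_of_nonneg_left (c1.trans (mul_le_mul_of_nonneg_left c2
      (mul_pos (mul_pos hTn (hp _)) (hp _)).le)) (hp _).le)
  have e2 : (T.card : ℝ) * (W.T n / W.B'.d n ^ W.lam W.top * W.B'.d n ^ δ) =
      ((T.card : ℝ) * W.B'.d n ^ δ) * (W.T n / W.B'.d n ^ W.lam W.top) := by ring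
  have e3 : W.B'.d n ^ (c - δ) * (W.T n * W.B'.d n ^ (-W.lam W.top) * W.B'.d n ^ (-δ) * H) =
      (W.B'.d n ^ (c - 2 * δ) * H) * (W.T n / W.B'.d n ^ W.lam W.top) := by
    have a1 : W.B'.d n ^ (c - 2 * δ) = W.B'.d n ^ (c - δ) * W.B'.d n ^ (-δ) := by
      rw [← rp_add]; congr 1; ring
    rw [a1, Real.rpow_neg (W.B'.pos n).le]
    ring
  rw [e2, e3] at c3
  have c4 := le_of_mul_le_mul_right c3 (div_pos hTn (hp _))
  have c5 : (T.card : ℝ) * W.B'.d n ^ δ ≤ (W.B'.d n ^ (c - 3 * δ) * H) * W.B'.d n ^ δ := by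
    refine c4.trans (le_of_eq ?_)
    have a1 : W.B'.d n ^ (c - 2 * δ) = W.B'.d n ^ (c - 3 * δ) * W.B'.d n ^ δ := by
      rw [← rp_add]; congr 1; ring
    rw [a1]; ring
  refine (le_of_mul_le_mul_right c5 (hp _)).trans ?_
  refine mul_le_mul_of_nonneg_right (rp_anti _ _ ?_) (Nat.cast_nonneg _)
  rw [hδ]; linarith


/-! ### strips -/

/-- **strips of the slot `t` on single real lines** (cells `cw`, slopes in `Sl`): a strip of
width `d'^τ` holds `N d'^(γτ-o(1))` incidences of a real line, `N` = size of the real lines -/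
structure WStrip (W : Wnd m ι) {κ : Type*} [DecidableEq κ] (rl : ∀ n, ι n → ℕ)
    (cw : ∀ n, ι n → κ) (t : Fin m) (Sl : Set ℝ) (N : ℕ → ℝ) (x γ : ℝ) : Prop where
  N0 : ∀ n, 0 < N n
  cells : ∀ K ε : ℝ, 0 < ε → ∀ᶠ n in (U : Filter ℕ), ∀ p ∈ W.I n,
    ((((W.I n).filter fun y => |W.co n p y W.kz| ≤ K * W.B.d n ^ W.X n W.kz).image
      (cw n)).card : ℝ) ≤ W.B'.d n ^ (-ε)
  strip : ∀ τ : ℝ, 0 < τ → τ ≤ x → ∀ K ε : ℝ, 0 < ε → ∀ᶠ n in (U : Filter ℕ), ∀ p ∈ W.I n,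
    ∀ c ∈ Sl, (((W.I n).filter fun y => rl n y = rl n p ∧ cw n y = cw n p ∧
      |W.co n p y t - c * W.co n p y W.kz| ≤ K * (W.B.d n ^ W.X n t * W.B'.d n ^ τ)).card : ℝ) ≤
      N n * W.B'.d n ^ (γ * τ - ε)

/-- smaller `γ` -/
theorem WStrip.mono {W : Wnd m ι} {κ : Type*} [DecidableEq κ] {rl : ∀ n, ι n → ℕ}
    {cw : ∀ n, ι n → κ} {t : Fin m} {Sl : Set ℝ} {N : ℕ → ℝ} {x γ : ℝ}
    (H : WStrip W rl cw t Sl N x γ) {x' γ' : ℝ} (hx : x' ≤ x) (hγ : γ' ≤ γ) {Sl' : Set ℝ}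
    (hS : Sl' ⊆ Sl) : WStrip W rl cw t Sl' N x' γ' where
  N0 := H.N0
  cells := H.cells
  strip := fun τ h0 h1 K ε hε => by
    filter_upwards [H.strip τ h0 (h1.trans hx) K ε hε] with n hn p hp c hc
    refine (hn p hp c (hS hc)).trans (mul_le_mul_of_nonneg_left (rp_anti _ _ ?_) (H.N0 n).le)
    nlinarith

/-- the strip of a real line which carries the incidences of `T` -/
theorem WStrip.line {W : Wnd m ι} (h : W.Ok) {κ : Type*} [DecidableEq κ] {rl : ∀ n, ι n → ℕ}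
    {cw : ∀ n, ι n → κ} {t : Fin m} {Sl : Set ℝ} {N : ℕ → ℝ} {x γ : ℝ}
    (H : WStrip W rl cw t Sl N x γ) {τ : ℝ} (hτ : 0 < τ) (hτx : τ ≤ x) (K : ℝ) {ε : ℝ}
    (hε : 0 < ε) : ∀ᶠ n in (U : Filter ℕ), ∀ F ⊆ W.Cl n,
      (∀ i ∈ F, ∀ j ∈ F, rl n j = rl n i) →
      (∀ i ∈ F, ∃ c ∈ Sl, ∀ j ∈ F, |W.co n i j t - c * W.co n i j W.kz| ≤
        K * (W.B.d n ^ W.X n t * W.B'.d n ^ τ)) →
      (F.card : ℝ) ≤ N n * W.B'.d n ^ (γ * τ - ε) := by
  filter_upwards [h.ev_good, H.cells W.K0 (ε / 2) (by positivity),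
    H.strip τ hτ hτx K (ε / 2) (by positivity)] with n hg h1 h2 F hF hrl hst
  have hp := fun s => rp_pos W.B' n s
  have hN := H.N0 n
  rcases F.eq_empty_or_nonempty with h0 | ⟨i₀, hi₀⟩
  · rw [h0, card_empty, Nat.cast_zero]
    exact (mul_pos hN (hp _)).le
  have c1 := le_count_mul F (fun _ => (1 : ℝ)) (cw n)
    (m := N n * W.B'.d n ^ (γ * τ - ε / 2)) (fun i hi => by
      rw [sum_const, nsmul_eq_mul, mul_one]
      obtain ⟨c, hc, hcj⟩ := hst i hi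
      refine le_trans ?_ (h2 i (hg.clI (hF hi)) c hc)
      refine Nat.cast_le.2 (card_le_card fun j hj => mem_filter.2 ?_)
      obtain ⟨hj1, hj2⟩ := mem_cls.1 hj
      exact ⟨hg.clI (hF hj1), hrl i hi j hj1, hj2, hcj j hj1⟩)
  rw [sum_const, nsmul_eq_mul, mul_one] at c1
  have c2 : ((F.image (cw n)).card : ℝ) ≤ W.B'.d n ^ (-(ε / 2)) := by
    refine le_trans ?_ (h1 i₀ (hg.clI (hF hi₀)))
    refine Nat.cast_le.2 (card_le_card (image_subset_image fun j hj => mem_filter.2 ?_))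
    refine ⟨hg.clI (hF hj), ?_⟩
    have h3 := h.near0 hg (hF hi₀) (hF hj) W.kz
    simpa using h3
  calc (F.card : ℝ) ≤ N n * W.B'.d n ^ (γ * τ - ε / 2) * (F.image (cw n)).card := c1
    _ ≤ N n * W.B'.d n ^ (γ * τ - ε / 2) * W.B'.d n ^ (-(ε / 2)) :=
        mul_le_mul_of_nonneg_left c2 (mul_pos hN (hp _)).le
    _ = _ := by
        rw [mul_assoc, ← rp_add]; congr 2; ring

/-- **comparison of a function `f` of the height label with the slot `t` of the real lines**: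
`f (zc j) - f (zc i)` = normalised slot `t` of `j` seen from `i`, plus a multiple of the height -/
def HCmp (W : Wnd m ι) (rl : ∀ n, ι n → ℕ) (t : Fin m) (Sl : Set ℝ) (f : ℕ → ℕ → ℝ) (x : ℝ) :
    Prop :=
  ∀ ε : ℝ, 0 < ε → ∀ᶠ n in (U : Filter ℕ), ∀ i ∈ W.Cl n, ∃ c ∈ Sl, ∀ j ∈ W.Cl n,
    rl n j = rl n i → |(f n (W.zc n j) - f n (W.zc n i)) - W.crd n i j t -
      c * W.crd n i j W.kz| ≤ W.B'.d n ^ (x - ε)

/-- heights: labels against real heights -/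
theorem z_cmp {W : Wnd m ι} (h : W.Ok) {n : ℕ} (hg : W.Good n) {i j : ι n} (hi : i ∈ W.Cl n)
    (hj : j ∈ W.Cl n) :
    |(W.crd n (W.s₀ n) (W.zrep n (W.zc n j)) W.kz - W.crd n (W.s₀ n) (W.zrep n (W.zc n i)) W.kz) -
      W.crd n i j W.kz| ≤ 3 * (W.K0 / W.kap W.kz) * W.B'.d n ^ W.top W.kz := by
  have hk := h.kap W.kz
  have hX := rp_pos W.B n (W.X n W.kz)
  have hden : 0 < W.kap W.kz * W.B.d n ^ W.X n W.kz := mul_pos hk hX
  obtain ⟨ri1, ri2⟩ := W.zrep_spec hi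
  obtain ⟨rj1, rj2⟩ := W.zrep_spec hj
  set a := W.zrep n (W.zc n i) with ha
  set b := W.zrep n (W.zc n j) with hb
  have bi := h.near_zc hg hi ri1 ri2.symm W.kz
  have bj := h.near_zc hg rj1 hj rj2 W.kz
  rw [cut_of_mem h.kzS] at bi bj
  have a1 := h.add_kz (hg.clI hg.s0) (hg.clI hi) (hg.clI ri1)
  have a2 := h.add_kz (hg.clI hg.s0) (hg.clI rj1) (hg.clI hj)
  have a3 := h.add_kz (hg.clI hg.s0) (hg.clI hi) (hg.clI hj)
  have e1 : (W.crd n (W.s₀ n) b W.kz - W.crd n (W.s₀ n) a W.kz) - W.crd n i j W.kz =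
      (-(W.co n b j W.kz) - W.co n i a W.kz) / (W.kap W.kz * W.B.d n ^ W.X n W.kz) := by
    unfold Wnd.crd
    rw [← sub_div, ← sub_div]
    congr 1
    linarith
  rw [e1, abs_div, abs_of_pos hden, div_le_iff₀ hden]
  have hK0 : 0 ≤ W.K0 := zero_le_one.trans h.K0_one
  have h3 : |-(W.co n b j W.kz) - W.co n i a W.kz| ≤
      2 * (W.K0 * (W.B.d n ^ W.X n W.kz * W.B'.d n ^ W.top W.kz)) := by
    have := abs_sub (-(W.co n b j W.kz)) (W.co n i a W.kz)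
    rw [abs_neg] at this
    linarith
  refine h3.trans ?_
  have e2 : 3 * (W.K0 / W.kap W.kz) * W.B'.d n ^ W.top W.kz *
      (W.kap W.kz * W.B.d n ^ W.X n W.kz) =
      3 * (W.K0 * (W.B.d n ^ W.X n W.kz * W.B'.d n ^ W.top W.kz)) := by
    field_simp
  rw [e2]
  have : 0 ≤ W.K0 * (W.B.d n ^ W.X n W.kz * W.B'.d n ^ W.top W.kz) :=
    mul_nonneg hK0 (mul_nonneg hX.le (rp_pos _ _ _).le)
  linarith

section Shares

variable {W : Wnd m ι} {κ : Type*} [DecidableEq κ] {rl : ∀ n, ι n → ℕ} {cw : ∀ n, ι n → κ}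
  {t : Fin m} {N : ℕ → ℝ} {x γ : ℝ} {E' : ∀ n, Finset (ι n)} {g : ℕ → ℝ}
  {ex : ℕ → ∀ n, ι n → ℕ} {j₀ : ℕ}

/-- shares of strips, general form -/
theorem WStrip.share {Sl : Set ℝ} (h : W.Ok) (H : WStrip W rl cw t Sl N x γ)
    (hP : Wnd.Pruned W W.Cl E' g ex)
    (hex : ∀ᶠ n in (U : Filter ℕ), ∀ i ∈ W.Cl n, ∀ j ∈ W.Cl n,
      ex j₀ n j = ex j₀ n i → rl n j = rl n i)
    (hTN : ∀ n, 0 < W.T n / N n)
    (hnum : ∀ ε : ℝ, 0 < ε → ∀ᶠ n in (U : Filter ℕ),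
      (((W.Cl n).image (ex j₀ n)).card : ℝ) ≤ W.T n / N n * W.B'.d n ^ (-ε))
    {τ : ℝ} (hτ : 0 < τ) (hτx : τ ≤ x) (K : ℝ) {ε : ℝ} (hε : 0 < ε) :
    ∀ᶠ n in (U : Filter ℕ), ∀ T ⊆ (E' n).image (W.zc n),
      (∀ i ∈ E' n, W.zc n i ∈ T → ∃ c ∈ Sl, ∀ j ∈ E' n, W.zc n j ∈ T → rl n j = rl n i →
        |W.co n i j t - c * W.co n i j W.kz| ≤ K * (W.B.d n ^ W.X n t * W.B'.d n ^ τ)) →
      (T.card : ℝ) ≤ W.B'.d n ^ (γ * τ - ε) * (((E' n).image (W.zc n)).card : ℝ) := by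
  filter_upwards [zshare h hP hTN hnum (γ * τ - ε / 2) (ε := ε / 2) (by positivity),
    H.line h hτ hτx K (ε := ε / 2) (by positivity), hex] with n h1 h2 h3 T hT hst
  have e1 : γ * τ - ε / 2 - ε / 2 = γ * τ - ε := by ring
  rw [← e1]
  refine h1 T hT fun i hi => ?_
  have hN := H.N0 n
  have hTn := h.cls.T0 n
  have e2 : W.T n / (W.T n / N n) = N n := by field_simp
  rw [e2]
  have hCl : ∀ {y}, y ∈ E' n → y ∈ W.Cl n := fun hy => hP.sub n hy
  refine h2 _ (fun y hy => hCl (mem_filter.1 hy).1) (fun y hy y' hy' => ?_) (fun y hy => ?_)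
  · obtain ⟨a1, a2, a3⟩ := mem_filter.1 hy
    obtain ⟨b1, b2, b3⟩ := mem_filter.1 hy'
    exact h3 y (hCl a1) y' (hCl b1) (b2.trans a2.symm)
  · obtain ⟨a1, a2, a3⟩ := mem_filter.1 hy
    obtain ⟨c, hc, hcj⟩ := hst y a1 a3
    refine ⟨c, hc, fun y' hy' => ?_⟩
    obtain ⟨b1, b2, b3⟩ := mem_filter.1 hy'
    exact hcj y' b1 b3 (h3 y (hCl a1) y' (hCl b1) (b2.trans a2.symm))

/-- a slightly smaller width exponent -/
theorem exists_width {γ τ ε : ℝ} (hγ : 0 ≤ γ) (hτ : 0 < τ) (hε : 0 < ε) :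
    ∃ τ', 0 < τ' ∧ τ' < τ ∧ γ * τ - ε ≤ γ * τ' := by
  refine ⟨max (τ / 2) (τ - ε / (γ + 1)), lt_of_lt_of_le (by linarith) (le_max_left _ _),
    max_lt (by linarith) (by have : 0 < ε / (γ + 1) := by positivity
                             linarith), ?_⟩
  have e1 : τ - ε / (γ + 1) ≤ max (τ / 2) (τ - ε / (γ + 1)) := le_max_right _ _
  have e2 : γ * (ε / (γ + 1)) ≤ ε := by
    rw [← mul_div_assoc, div_le_iff₀ (by linarith)]
    nlinarith
  have e3 := mul_le_mul_of_nonneg_left e1 hγ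
  linarith

/-- **strips of width `d'^τ` and bounded slope**: their share in the heights -/
theorem WStrip.share_f {Sl : Set ℝ} (h : W.Ok) (H : WStrip W rl cw t Sl N x γ)
    (hP : Wnd.Pruned W W.Cl E' g ex)
    (hex : ∀ᶠ n in (U : Filter ℕ), ∀ i ∈ W.Cl n, ∀ j ∈ W.Cl n,
      ex j₀ n j = ex j₀ n i → rl n j = rl n i)
    (hTN : ∀ n, 0 < W.T n / N n)
    (hnum : ∀ ε : ℝ, 0 < ε → ∀ᶠ n in (U : Filter ℕ),
      (((W.Cl n).image (ex j₀ n)).card : ℝ) ≤ W.T n / N n * W.B'.d n ^ (-ε)) (hγ : 0 ≤ γ)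
    {f : ℕ → ℕ → ℝ} (hf : HCmp W rl t Sl f x) {τ : ℝ} (hτ : 0 < τ) (hτx : τ ≤ x) {ε : ℝ}
    (hε : 0 < ε) :
    ∀ᶠ n in (U : Filter ℕ), ∀ a μ : ℝ,
      (∀ c ∈ Sl, (μ - c) * (W.kap t * W.B.d n ^ W.X n t) / (W.kap W.kz * W.B.d n ^ W.X n W.kz) ∈ Sl) →
      |μ| * W.B'.d n ^ W.top W.kz ≤ W.B'.d n ^ τ →
      ∀ T ⊆ (E' n).image (W.zc n),
      (∀ k ∈ T, |f n k - a - μ * W.crd n (W.s₀ n) (W.zrep n k) W.kz| ≤ W.B'.d n ^ τ) →
      (T.card : ℝ) ≤ W.B'.d n ^ (γ * τ - ε) * (((E' n).image (W.zc n)).card : ℝ) := by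
  obtain ⟨τ', h0, h1, h2⟩ := exists_width hγ hτ (ε := ε / 2) (by positivity)
  set K1 : ℝ := 3 * (W.K0 / W.kap W.kz) with hK1
  have hK1p : 0 ≤ K1 := by
    have := h.kap W.kz
    have := zero_le_one.trans h.K0_one
    positivity
  filter_upwards [H.share h hP hex hTN hnum h0 (h1.le.trans hτx) ((3 + K1) * W.kap t) (ε := ε / 2)
    (by positivity), hf (τ - τ') (by linarith), h.ev_good] with n g1 g2 hg a μ hμ hμb T hT hst
  have hp := fun s => rp_pos W.B' n s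
  refine (g1 T hT fun i hi hiT => ?_).trans
    (mul_le_mul_of_nonneg_right (rp_anti _ _ (by linarith)) (Nat.cast_nonneg _))
  obtain ⟨c, hc, hcj⟩ := g2 i (hP.sub n hi)
  have hk := h.kap W.kz
  have hkt := h.kap t
  have hXz := rp_pos W.B n (W.X n W.kz)
  have hXt := rp_pos W.B n (W.X n t)
  refine ⟨_, hμ c hc, fun j hj hjT hrl => ?_⟩
  have a1 := hcj j (hP.sub n hj) hrl
  have a2 := hst _ hiT
  have a3 := hst _ hjT
  have a4 := z_cmp h hg (hP.sub n hi) (hP.sub n hj)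
  set zi := W.crd n (W.s₀ n) (W.zrep n (W.zc n i)) W.kz with hzi
  set zj := W.crd n (W.s₀ n) (W.zrep n (W.zc n j)) W.kz with hzj
  set u := W.crd n i j W.kz with hu
  set v := W.crd n i j t with hv
  have e1 : W.B'.d n ^ (x - (τ - τ')) ≤ W.B'.d n ^ τ' := rp_anti _ _ (by linarith)
  have e2 : W.B'.d n ^ τ ≤ W.B'.d n ^ τ' := rp_anti _ _ h1.le
  have e3 : |μ| * (K1 * W.B'.d n ^ W.top W.kz) ≤ K1 * W.B'.d n ^ τ' := by
    calc |μ| * (K1 * W.B'.d n ^ W.top W.kz) = K1 * (|μ| * W.B'.d n ^ W.top W.kz) := by ring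
      _ ≤ K1 * W.B'.d n ^ τ := mul_le_mul_of_nonneg_left hμb hK1p
      _ ≤ _ := mul_le_mul_of_nonneg_left e2 hK1p
  have key : |v - (μ - c) * u| ≤ (3 + K1) * W.B'.d n ^ τ' := by
    have e4 : v - (μ - c) * u = -((f n (W.zc n j) - f n (W.zc n i)) - v - c * u) +
        ((f n (W.zc n j) - a - μ * zj) - (f n (W.zc n i) - a - μ * zi)) +
        μ * ((zj - zi) - u) := by ring
    rw [e4]
    have b1 := abs_add_le (-((f n (W.zc n j) - f n (W.zc n i)) - v - c * u) +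
        ((f n (W.zc n j) - a - μ * zj) - (f n (W.zc n i) - a - μ * zi))) (μ * ((zj - zi) - u))
    have b2 := abs_add_le (-((f n (W.zc n j) - f n (W.zc n i)) - v - c * u))
        ((f n (W.zc n j) - a - μ * zj) - (f n (W.zc n i) - a - μ * zi))
    have b3 := abs_sub (f n (W.zc n j) - a - μ * zj) (f n (W.zc n i) - a - μ * zi)
    rw [abs_neg] at b2
    have b4 : |μ * ((zj - zi) - u)| ≤ |μ| * (K1 * W.B'.d n ^ W.top W.kz) := by
      rw [abs_mul]
      exact mul_le_mul_of_nonneg_left a4 (abs_nonneg _)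
    linarith
  have e5 : W.co n i j t - (μ - c) * (W.kap t * W.B.d n ^ W.X n t) /
      (W.kap W.kz * W.B.d n ^ W.X n W.kz) * W.co n i j W.kz =
      (v - (μ - c) * u) * (W.kap t * W.B.d n ^ W.X n t) := by
    rw [hv, hu]
    unfold Wnd.crd
    field_simp
  rw [e5, abs_mul, abs_of_pos (mul_pos hkt hXt)]
  calc |v - (μ - c) * u| * (W.kap t * W.B.d n ^ W.X n t)
      ≤ ((3 + K1) * W.B'.d n ^ τ') * (W.kap t * W.B.d n ^ W.X n t) :=
        mul_le_mul_of_nonneg_right key (mul_pos hkt hXt).le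
    _ = _ := by ring

/-- **slope zero**: share of the heights with `|f - a| ≤ d'^τ` -/
theorem WStrip.zero (h : W.Ok) (H : WStrip W rl cw t {0} N x γ)
    (hP : Wnd.Pruned W W.Cl E' g ex)
    (hex : ∀ᶠ n in (U : Filter ℕ), ∀ i ∈ W.Cl n, ∀ j ∈ W.Cl n,
      ex j₀ n j = ex j₀ n i → rl n j = rl n i)
    (hTN : ∀ n, 0 < W.T n / N n)
    (hnum : ∀ ε : ℝ, 0 < ε → ∀ᶠ n in (U : Filter ℕ),
      (((W.Cl n).image (ex j₀ n)).card : ℝ) ≤ W.T n / N n * W.B'.d n ^ (-ε)) (hγ : 0 ≤ γ)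
    {f : ℕ → ℕ → ℝ} (hf : HCmp W rl t {0} f x) {τ : ℝ} (hτ : 0 < τ) (hτx : τ ≤ x) {ε : ℝ}
    (hε : 0 < ε) :
    ∀ᶠ n in (U : Filter ℕ), ∀ a : ℝ, ∀ T ⊆ (E' n).image (W.zc n),
      (∀ k ∈ T, |f n k - a| ≤ W.B'.d n ^ τ) →
      (T.card : ℝ) ≤ W.B'.d n ^ (γ * τ - ε) * (((E' n).image (W.zc n)).card : ℝ) := by
  filter_upwards [H.share_f h hP hex hTN hnum hγ hf hτ hτx hε] with n hn a T hT hst
  refine hn a 0 (fun c hc => ?_) ?_ T hT fun k hk => ?_
  · rw [Set.mem_singleton_iff.1 hc]; simp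
  · rw [abs_zero, zero_mul]; exact (rp_pos _ _ _).le
  · rw [zero_mul, sub_zero]; exact hst k hk

/-- **all slopes**: share of the strips of the curve `(z, f)` -/
theorem WStrip.all (h : W.Ok) (H : WStrip W rl cw t Set.univ N x γ)
    (hP : Wnd.Pruned W W.Cl E' g ex)
    (hex : ∀ᶠ n in (U : Filter ℕ), ∀ i ∈ W.Cl n, ∀ j ∈ W.Cl n,
      ex j₀ n j = ex j₀ n i → rl n j = rl n i)
    (hTN : ∀ n, 0 < W.T n / N n)
    (hnum : ∀ ε : ℝ, 0 < ε → ∀ᶠ n in (U : Filter ℕ),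
      (((W.Cl n).image (ex j₀ n)).card : ℝ) ≤ W.T n / N n * W.B'.d n ^ (-ε)) (hγ : 0 ≤ γ)
    {σ Rr : ℝ} {Leg : Set (Fin m → ℝ)} {ν : (Fin m → ℝ) → ℝ} {Dc : ℝ}
    (hmod : RModel W.B' (W.cfg E') σ Rr Leg ν Dc)
    (hcfg : ∀ᶠ n in (U : Filter ℕ), W.cfg E' n = W.cfg0 n (E' n))
    (hxR : x ≤ Rr) (hx2 : 2 * x ≤ W.top W.kz)
    {f : ℕ → ℕ → ℝ} (hf : HCmp W rl t Set.univ f x)
    (hfb : ∀ ε : ℝ, 0 < ε → ∀ᶠ n in (U : Filter ℕ), ∀ k ∈ (W.cfg E' n).Z,
      ∀ k' ∈ (W.cfg E' n).Z, |f n k - f n k'| ≤ W.B'.d n ^ (-ε))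
    {τ : ℝ} (hτ : 0 < τ) (hτx : τ ≤ x) {ε : ℝ} (hε : 0 < ε) :
    ∀ᶠ n in (U : Filter ℕ), ∀ a μ : ℝ, ∀ T ⊆ (W.cfg E' n).Z,
      (∀ k ∈ T, |f n k - a - μ * (W.cfg E' n).z k| ≤ W.B'.d n ^ τ) →
      (T.card : ℝ) ≤ W.B'.d n ^ (min γ σ * τ - ε) * ((W.cfg E' n).Z.card : ℝ) := by
  obtain ⟨τ', h0, h1, h2⟩ := exists_width hmod.σ_nonneg hτ (ε := ε / 2) (by positivity)
  filter_upwards [H.share_f h hP hex hTN hnum hγ hf hτ hτx hε,
    hmod.frost τ' h0.le (by linarith) (ε / 2) (by positivity), hcfg,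
    hfb ((τ - τ') / 2) (by linarith), ev_const_le W.B' (c := 3) (by norm_num)
      (ε := (τ - τ') / 2) (by linarith)] with n g1 g2 g3 g4 g5 a μ T hT hst
  have hp := fun s => rp_pos W.B' n s
  by_cases hμ : |μ| * W.B'.d n ^ W.top W.kz ≤ W.B'.d n ^ τ
  · rw [g3] at hT hst ⊢
    refine (g1 a μ (fun _ _ => Set.mem_univ _) hμ T hT hst).trans ?_
    refine mul_le_mul_of_nonneg_right (rp_anti _ _ ?_) (Nat.cast_nonneg _)
    have := min_le_left γ σ
    nlinarith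
  · push Not at hμ
    rcases T.eq_empty_or_nonempty with hT0 | ⟨k₁, hk₁⟩
    · rw [hT0, card_empty, Nat.cast_zero]
      exact mul_nonneg (hp _).le (Nat.cast_nonneg _)
    have hsub : T ⊆ (W.cfg E' n).hbox τ' k₁ := by
      intro k hk
      unfold RCfg.hbox
      rw [mem_filter]
      refine ⟨hT hk, ?_⟩
      rw [hmod.base n]
      have a1 := hst k hk
      have a2 := hst k₁ hk₁
      have a3 := g4 k (hT hk) k₁ (hT hk₁)
      set z := (W.cfg E' n).z with hz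
      have a4 : |μ| * |z k - z k₁| ≤ 3 * W.B'.d n ^ (-((τ - τ') / 2)) := by
        rw [← abs_mul]
        have e1 : μ * (z k - z k₁) = (f n k - f n k₁) -
            ((f n k - a - μ * z k) - (f n k₁ - a - μ * z k₁)) := by ring
        rw [e1]
        have b1 := abs_sub (f n k - f n k₁)
          ((f n k - a - μ * z k) - (f n k₁ - a - μ * z k₁))
        have b2 := abs_sub (f n k - a - μ * z k) (f n k₁ - a - μ * z k₁)
        have b3 : W.B'.d n ^ τ ≤ W.B'.d n ^ (-((τ - τ') / 2)) := rp_anti _ _ (by linarith)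
        linarith
      have a5 : W.B'.d n ^ τ * |z k - z k₁| ≤
          W.B'.d n ^ W.top W.kz * (W.B'.d n ^ (-((τ - τ') / 2)) *
            W.B'.d n ^ (-((τ - τ') / 2))) := by
        calc W.B'.d n ^ τ * |z k - z k₁|
            ≤ (|μ| * W.B'.d n ^ W.top W.kz) * |z k - z k₁| :=
              mul_le_mul_of_nonneg_right hμ.le (abs_nonneg _)
          _ = W.B'.d n ^ W.top W.kz * (|μ| * |z k - z k₁|) := by ring
          _ ≤ W.B'.d n ^ W.top W.kz * (3 * W.B'.d n ^ (-((τ - τ') / 2))) :=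
              mul_le_mul_of_nonneg_left a4 (hp _).le
          _ ≤ _ := by
              refine mul_le_mul_of_nonneg_left ?_ (hp _).le
              exact mul_le_mul_of_nonneg_right g5 (hp _).le
      have a6 : W.B'.d n ^ W.top W.kz * (W.B'.d n ^ (-((τ - τ') / 2)) *
            W.B'.d n ^ (-((τ - τ') / 2))) ≤ W.B'.d n ^ τ * W.B'.d n ^ τ' := by
        rw [← rp_add, ← rp_add, ← rp_add]
        refine rp_anti _ _ ?_
        linarith
      exact le_of_mul_le_mul_left (a5.trans a6) (hp _)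
    have h3 : (T.card : ℝ) ≤ (((W.cfg E' n).hbox τ' k₁).card : ℝ) := by
      exact_mod_cast card_le_card hsub
    refine (h3.trans (g2 k₁ (hT hk₁))).trans ?_
    refine mul_le_mul_of_nonneg_right (rp_anti _ _ ?_) (Nat.cast_nonneg _)
    have := min_le_right γ σ
    nlinarith

/-- **strips on a fat line** (slope zero): `φ` = any function of the height which follows the slot
`t` of the real lines inside the fat line -/
theorem WStrip.fat {j₁ j₂ : ℕ} (h : W.Ok) (H : WStrip W rl cw t {0} N x γ)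
    (hP : Wnd.Pruned W W.Cl E' g ex)
    (hex1 : ∀ᶠ n in (U : Filter ℕ), ∀ i ∈ W.Cl n, ∀ j ∈ W.Cl n,
      ex j₁ n j = ex j₁ n i → rl n j = rl n i ∧ W.lc n j = W.lc n i)
    (hex2 : ∀ n i, ex j₂ n i = Nat.pair (W.lc n i) (W.zc n i))
    (hTN : ∀ n, 0 < W.T n / N n)
    (hnum : ∀ ε : ℝ, 0 < ε → ∀ᶠ n in (U : Filter ℕ),
      (((W.Cl n).image (ex j₁ n)).card : ℝ) ≤ W.T n / N n * W.B'.d n ^ (-ε))
    {τ : ℝ} (hτ : 0 < τ) (hτx : τ ≤ x) (K : ℝ) {ε : ℝ} (hε : 0 < ε) :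
    ∀ᶠ n in (U : Filter ℕ), ∀ l, ∀ φ : ℕ → ℝ,
      (∀ i ∈ E' n, ∀ j ∈ E' n, W.lc n i = l → W.lc n j = l → rl n j = rl n i →
        |φ (W.zc n j) - φ (W.zc n i) - W.crd n i j t| ≤ K * W.B'.d n ^ τ) →
      ∀ a : ℝ, ∀ T ⊆ (W.cfg0 n (E' n)).hts l, (∀ k ∈ T, |φ k - a| ≤ K * W.B'.d n ^ τ) →
      (T.card : ℝ) ≤ W.B'.d n ^ (γ * τ - ε) * (((W.cfg0 n (E' n)).hts l).card : ℝ) := by
  filter_upwards [lshare h hP hex1 hex2 hTN hnum (γ * τ - ε / 2) (ε := ε / 2) (by positivity),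
    H.line h hτ hτx (3 * K * W.kap t) (ε := ε / 2) (by positivity)] with n h1 h2 l φ hφ a T hT hst
  have e1 : γ * τ - ε / 2 - ε / 2 = γ * τ - ε := by ring
  rw [← e1]
  refine h1 l T hT fun i hi hil => ?_
  have hN := H.N0 n
  have hTn := h.cls.T0 n
  have e2 : W.T n / (W.T n / N n) = N n := by field_simp
  rw [e2]
  have hCl : ∀ {y}, y ∈ E' n → y ∈ W.Cl n := fun hy => hP.sub n hy
  refine h2 _ (fun y hy => hCl (mem_filter.1 hy).1) (fun y hy y' hy' => ?_) (fun y hy => ?_)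
  · obtain ⟨a1, a2, a3, a4⟩ := mem_filter.1 hy
    obtain ⟨b1, b2, b3, b4⟩ := mem_filter.1 hy'
    exact b3.trans a3.symm
  · obtain ⟨a1, a2, a3, a4⟩ := mem_filter.1 hy
    refine ⟨0, Set.mem_singleton _, fun y' hy' => ?_⟩
    obtain ⟨b1, b2, b3, b4⟩ := mem_filter.1 hy'
    have c1 := hφ y a1 y' b1 a2 b2 (b3.trans a3.symm)
    have c2 := hst _ a4
    have c3 := hst _ b4
    have hX : 0 < W.kap t * W.B.d n ^ W.X n t := mul_pos (h.kap t) (rp_pos _ _ _)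
    have c4 : |W.crd n y y' t| ≤ 3 * K * W.B'.d n ^ τ := by
      have e3 : W.crd n y y' t = (φ (W.zc n y') - a) - (φ (W.zc n y) - a) -
          (φ (W.zc n y') - φ (W.zc n y) - W.crd n y y' t) := by ring
      rw [e3]
      have d1 := abs_sub (φ (W.zc n y') - a - (φ (W.zc n y) - a))
        (φ (W.zc n y') - φ (W.zc n y) - W.crd n y y' t)
      have d2 := abs_sub (φ (W.zc n y') - a) (φ (W.zc n y) - a)
      linarith
    have e4 : W.co n y y' t - 0 * W.co n y y' W.kz =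
        W.crd n y y' t * (W.kap t * W.B.d n ^ W.X n t) := by
      unfold Wnd.crd
      rw [zero_mul, sub_zero, div_mul_cancel₀ _ hX.ne']
    rw [e4, abs_mul, abs_of_pos hX]
    calc |W.crd n y y' t| * (W.kap t * W.B.d n ^ W.X n t)
        ≤ (3 * K * W.B'.d n ^ τ) * (W.kap t * W.B.d n ^ W.X n t) :=
          mul_le_mul_of_nonneg_right c4 hX.le
      _ = _ := by ring

end Shares

end Crest.Agent.R116.Kst593
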