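import Crest.Agent.R116.Kst1_593

/-!
# R116, K side: own strips in a window (helper593), part 2

* `OStrips` : absolute counts of the strips of the real lines, all levels (input, from TwP / STwL2 of
  helper899; inherited by samples).
* `OStrips.slow` : the counts at slowly moving base points.
* `ownP` : label (real line, net point); `exists_swin` : windows with models, number of real lines
  (`N`-many incidences each) and `WStrip` for all tied slots.
-/

set_option autoImplicit false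
set_option linter.unusedSectionVars false
set_option linter.unusedVariables false

open Filter Topology

namespace Crest.Agent.R116.Kst593

open Finset Crest.Agent.R138.Ex926 Crest.Agent.R136.Net191 Crest.Agent.R136.Gf356
open Crest.Agent.R136.Qg926

variable {m : ℕ} {ι : ℕ → Type*} [∀ n, DecidableEq (ι n)]

theorem fsub {α : Type*} {s : Finset α} {p q : α → Prop} [DecidablePred p] [DecidablePred q]
    (h : ∀ y, p y → q y) : s.filter p ⊆ s.filter q := fun y hy =>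
  mem_filter.2 ⟨(mem_filter.1 hy).1, h y (mem_filter.1 hy).2⟩

/-- **own strips, all levels**: slots `t ∈ Ts`, own closeness `d ^ (o0 t + β t v)` at level `v`,
linear modulus `γ t`, slopes in `Sl t` -/
structure OStrips (B : Base) (I : ∀ n, Finset (ι n)) (co : ∀ n, ι n → ι n → Fin m → ℝ)
    (rl : ∀ n, ι n → ℕ) {κ : Type*} [DecidableEq κ] (cell : ∀ n, ℚ → ι n → κ) (kz : Fin m)
    (Ts : Finset (Fin m)) (w0 s : ℝ) (γ o0 β : Fin m → ℝ) (Sl : Fin m → Set ℝ) : Prop where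
  cells : ∀ u : ℚ, 0 ≤ u → u ≤ 1 → ∀ ε : ℝ, 0 < ε → ∀ᶠ n in (U : Filter ℕ), ∀ p ∈ I n,
    ((((I n).filter fun y => |co n p y kz| ≤ B.d n ^ (w0 + (u : ℝ))).image (cell n u)).card : ℝ) ≤
      B.d n ^ (-ε)
  strip : ∀ t ∈ Ts, ∀ u r : ℚ, 0 ≤ u → u < r → r ≤ 1 → ∀ ε : ℝ, 0 < ε → ∀ᶠ n in (U : Filter ℕ),
    ∀ p ∈ I n, ∀ c ∈ Sl t, (((I n).filter fun y => rl n y = rl n p ∧ cell n u y = cell n u p ∧
      |co n p y t - c * co n p y kz| ≤ B.d n ^ (o0 t + β t * (r : ℝ))).card : ℝ) ≤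
      B.d n ^ (γ t * ((r : ℝ) - u) - (1 - s) * (1 - u) - ε)

/-- **own strips at slowly moving base points** -/
theorem OStrips.slow {B : Base} {I : ∀ n, Finset (ι n)} {co : ∀ n, ι n → ι n → Fin m → ℝ}
    {rl : ∀ n, ι n → ℕ} {κ : Type*} [DecidableEq κ] {cell : ∀ n, ℚ → ι n → κ} {kz : Fin m}
    {Ts : Finset (Fin m)} {w0 s : ℝ} {γ o0 β : Fin m → ℝ} {Sl : Fin m → Set ℝ}
    (H : OStrips B I co rl cell kz Ts w0 s γ o0 β Sl) (hγ : ∀ t ∈ Ts, 0 ≤ γ t)
    (hβ : ∀ t ∈ Ts, 0 < β t) (hs0 : 0 ≤ s) (hs1 : s ≤ 1) {x : ℕ → Fin m → ℝ} {h : ℕ → ℝ}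
    (hpos : ∀ l, 0 < h l) {v : ℕ → ℝ} (hxz : ∀ l, x l kz = w0 + v l) (hv0 : ∀ l, 0 < v l)
    (hv1 : ∀ l, v l ≤ 1) {xs : ℝ}
    (hxs : 0 < xs) (hr1 : ∀ t ∈ Ts, ∀ l, v l + h l * (xs / β t) ≤ 1)
    (hxt : ∀ t ∈ Ts, ∀ l, x l t = o0 t + β t * v l) :
    ∃ (uq : ℕ → ℚ) (k : ℕ → ℕ), Tendsto k U atTop ∧ ∀ k' : ℕ → ℕ, Tendsto k' U atTop →
      (∀ᶠ n in (U : Filter ℕ), k' n ≤ k n) → ∀ B' : Base, (∀ n, B'.d n = B.d n ^ h (k' n)) →
      (∀ K ε : ℝ, 0 < ε → ∀ᶠ n in (U : Filter ℕ), ∀ p ∈ I n,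
        ((((I n).filter fun y => |co n p y kz| ≤ K * B.d n ^ x (k' n) kz).image
          (cell n (uq (k' n)))).card : ℝ) ≤ B'.d n ^ (-ε)) ∧
      ∀ t ∈ Ts, ∀ τ : ℝ, 0 < τ → τ ≤ xs → ∀ K ε : ℝ, 0 < ε → ∀ᶠ n in (U : Filter ℕ), ∀ p ∈ I n,
        ∀ c ∈ Sl t, (((I n).filter fun y => rl n y = rl n p ∧
          cell n (uq (k' n)) y = cell n (uq (k' n)) p ∧
          |co n p y t - c * co n p y kz| ≤ K * (B.d n ^ x (k' n) t * B'.d n ^ τ)).card : ℝ) ≤
          B.d n ^ (-((1 - s) * (1 - v (k' n)))) * B'.d n ^ (γ t / β t * τ - ε) := by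
  classical
  set bs : ℝ := ∑ t ∈ Ts, β t + 1 with hbs
  have hbs1 : 1 ≤ bs := by
    have : 0 ≤ ∑ t ∈ Ts, β t := sum_nonneg fun t ht => (hβ t ht).le
    linarith
  have hβbs : ∀ t ∈ Ts, β t ≤ bs := fun t ht => by
    have := single_le_sum (f := β) (fun i hi => (hβ i hi).le) ht
    linarith
  set δ : ℕ → ℝ := fun l => min (min (xs / (bs * ((l : ℝ) + 1))) (1 / ((l : ℝ) + 1)))
    (v l / h l) with hδ
  have hl1 : ∀ l : ℕ, (0 : ℝ) < (l : ℝ) + 1 := fun l => by positivity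
  have hδ0 : ∀ l, 0 < δ l := fun l => by
    have h1 := hv0 l
    have h2 := hpos l
    have h3 := hl1 l
    exact lt_min (lt_min (by positivity) (by positivity)) (div_pos h1 h2)
  have hδ1 : ∀ l, δ l ≤ 1 / ((l : ℝ) + 1) := fun l => (min_le_left _ _).trans (min_le_right _ _)
  have hδ2 : ∀ l, δ l * h l ≤ v l := fun l => by
    have h1 : δ l ≤ v l / h l := min_le_right _ _
    rwa [le_div_iff₀ (hpos l)] at h1
  have hδ3 : ∀ l, δ l ≤ xs / (bs * ((l : ℝ) + 1)) := fun l =>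
    (min_le_left _ _).trans (min_le_left _ _)
  -- the level of the cells
  have hu : ∀ l, ∃ u : ℚ, v l - δ l * h l < u ∧ (u : ℝ) < v l - δ l * h l / 2 := fun l =>
    exists_rat_btwn (by have := mul_pos (hδ0 l) (hpos l); linarith)
  choose uq hu1 hu2 using hu
  have hu0 : ∀ l, (0 : ℝ) ≤ uq l := fun l => by have := hu1 l; have := hδ2 l; linarith
  have huv : ∀ l, (uq l : ℝ) < v l := fun l => by
    have := hu2 l; have := mul_pos (hδ0 l) (hpos l); linarith
  set P : ℕ → ℕ → Prop := fun l n =>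
    (∀ p ∈ I n, ((((I n).filter fun y => |co n p y kz| ≤ ((l : ℝ) + 1) * B.d n ^ x l kz).image
      (cell n (uq l))).card : ℝ) ≤ B.d n ^ (-(h l * (1 / ((l : ℝ) + 1))))) ∧
    ∀ t ∈ Ts, ∀ i ∈ range (l + 1), ∀ p ∈ I n, ∀ c ∈ Sl t, (((I n).filter fun y =>
      rl n y = rl n p ∧ cell n (uq l) y = cell n (uq l) p ∧
      |co n p y t - c * co n p y kz| ≤
        ((l : ℝ) + 1) * B.d n ^ (x l t + h l * (xs * ((i : ℝ) + 1) / ((l : ℝ) + 1)))).card : ℝ) ≤
      B.d n ^ (-((1 - s) * (1 - v l)) + h l * (γ t / β t * (xs * ((i : ℝ) + 1) / ((l : ℝ) + 1)) -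
        (γ t + 2) * δ l)) with hP
  obtain ⟨k, hk, hk2⟩ := exists_diag P (by
    intro l
    have hhl := hpos l
    have hdh : 0 < δ l * h l := mul_pos (hδ0 l) hhl
    have hll := hl1 l
    refine (Filter.Eventually.and ?_ ?_)
    · filter_upwards [H.cells (uq l) (by exact_mod_cast hu0 l)
        (by have := (huv l).le.trans (hv1 l); exact_mod_cast this) (h l * (1 / ((l : ℝ) + 1)))
        (by positivity), ev_const_le B hll (ε := δ l * h l / 2) (by positivity)] with n g1 g2 p hp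
      refine le_trans ?_ (g1 p hp)
      refine Nat.cast_le.2 (card_le_card (image_subset_image (fsub ?_)))
      intro y hy
      refine hy.trans ?_
      rw [hxz l]
      calc ((l : ℝ) + 1) * B.d n ^ (w0 + v l) ≤ B.d n ^ (-(δ l * h l / 2)) * B.d n ^ (w0 + v l) :=
            mul_le_mul_of_nonneg_right g2 (rp_pos _ _ _).le
        _ = B.d n ^ (w0 + v l - δ l * h l / 2) := by rw [← rp_add]; congr 1; ring
        _ ≤ _ := rp_anti _ _ (by have := hu2 l; linarith)
    · rw [Filter.eventually_all_finset]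
      intro t ht
      rw [Filter.eventually_all_finset]
      intro i hi
      have hil : (i : ℝ) + 1 ≤ (l : ℝ) + 1 := by
        have : i ≤ l := Nat.lt_succ_iff.1 (mem_range.1 hi)
        have : (i : ℝ) ≤ l := by exact_mod_cast this
        linarith
      set τ : ℝ := xs * ((i : ℝ) + 1) / ((l : ℝ) + 1) with hτ
      have hτ1 : xs / ((l : ℝ) + 1) ≤ τ := by
        rw [hτ]
        refine div_le_div_of_nonneg_right ?_ hll.le
        have : (0 : ℝ) ≤ i := Nat.cast_nonneg i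
        nlinarith
      have hτ2 : τ ≤ xs := by
        rw [hτ, div_le_iff₀ hll]
        exact mul_le_mul_of_nonneg_left hil hxs.le
      have hb := hβ t ht
      have hγt := hγ t ht
      have hδτ : δ l ≤ τ / β t := by
        rw [le_div_iff₀ hb]
        have h1 := hδ3 l
        have h2 := hβbs t ht
        have h3 : δ l * β t ≤ δ l * bs := mul_le_mul_of_nonneg_left h2 (hδ0 l).le
        have h4 : δ l * bs ≤ xs / (bs * ((l : ℝ) + 1)) * bs :=
          mul_le_mul_of_nonneg_right h1 (by linarith)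
        have h5 : xs / (bs * ((l : ℝ) + 1)) * bs = xs / ((l : ℝ) + 1) := by
          have : bs ≠ 0 := by linarith
          field_simp
        linarith
      obtain ⟨r, hr1', hr2⟩ : ∃ r : ℚ, v l + h l * (τ / β t) - δ l * h l < r ∧
          (r : ℝ) < v l + h l * (τ / β t) - δ l * h l / 2 := exists_rat_btwn (by linarith)
      have hur : (uq l : ℝ) < r := by
        have h1 : h l * δ l ≤ h l * (τ / β t) := mul_le_mul_of_nonneg_left hδτ hhl.le
        have := huv l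
        linarith
      have hrle : (r : ℝ) ≤ 1 := by
        have h1 := hr1 t ht l
        have h2 : h l * (τ / β t) ≤ h l * (xs / β t) :=
          mul_le_mul_of_nonneg_left (div_le_div_of_nonneg_right hτ2 hb.le) hhl.le
        linarith
      filter_upwards [H.strip t ht (uq l) r (by exact_mod_cast hu0 l) (by exact_mod_cast hur)
        (by exact_mod_cast hrle) (δ l * h l) hdh,
        ev_const_le B hll (ε := β t * (δ l * h l / 2)) (by positivity)] with n g1 g2 p hp c hc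
      refine le_trans ?_ ((g1 p hp c hc).trans (rp_anti _ _ ?_))
      · refine Nat.cast_le.2 (card_le_card (fsub ?_))
        rintro y ⟨y1, y2, y3⟩
        refine ⟨y1, y2, y3.trans ?_⟩
        rw [hxt t ht l]
        calc ((l : ℝ) + 1) * B.d n ^ (o0 t + β t * v l + h l * τ)
            ≤ B.d n ^ (-(β t * (δ l * h l / 2))) * B.d n ^ (o0 t + β t * v l + h l * τ) :=
              mul_le_mul_of_nonneg_right g2 (rp_pos _ _ _).le
          _ = B.d n ^ (o0 t + β t * v l + h l * τ - β t * (δ l * h l / 2)) := by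
              rw [← rp_add]; congr 1; ring
          _ ≤ _ := rp_anti _ _ (by
              have h1 : β t * (r : ℝ) ≤ β t * (v l + h l * (τ / β t) - δ l * h l / 2) :=
                mul_le_mul_of_nonneg_left hr2.le hb.le
              have h2 : β t * (v l + h l * (τ / β t) - δ l * h l / 2) =
                  β t * v l + h l * τ - β t * (δ l * h l / 2) := by
                field_simp
              linarith)
      · have h1 : h l * (τ / β t) - δ l * h l / 2 ≤ (r : ℝ) - uq l := by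
          have := hu2 l
          linarith
        have h2 := mul_le_mul_of_nonneg_left h1 hγt
        have h3 : (1 - s) * (1 - (uq l : ℝ)) ≤ (1 - s) * (1 - v l) + δ l * h l := by
          have h4 := hu1 l
          have h5 : (1 - s) * (v l - uq l) ≤ 1 * (δ l * h l) := by
            refine mul_le_mul (by linarith) (by linarith) (by linarith [huv l]) (by norm_num)
          linarith
        have h6 : h l * (γ t / β t * τ - (γ t + 2) * δ l) =
            γ t * (h l * (τ / β t)) - (γ t + 2) * (δ l * h l) := by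
          field_simp
        have h7 : 0 ≤ γ t * (δ l * h l) := mul_nonneg hγt hdh.le
        rw [h6]
        nlinarith)
  refine ⟨uq, k, hk, fun k' hk' hle B' hB' => ⟨fun K ε hε => ?_, fun t ht τ hτ hτx K ε hε => ?_⟩⟩
  · obtain ⟨N0, hN0⟩ := exists_nat_gt (max K (1 / ε))
    filter_upwards [hk2, hle, hk'.eventually_ge_atTop N0] with n g1 g2 g3 p hp
    set l := k' n with hl
    have hlN : (N0 : ℝ) ≤ l := by exact_mod_cast g3
    have hK : K ≤ (l : ℝ) + 1 := by have := le_max_left K (1 / ε); linarith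
    have hε' : 1 / ((l : ℝ) + 1) ≤ ε := by
      have h1 := le_max_right K (1 / ε)
      rw [div_le_iff₀ (hl1 l)]
      have h2 : 1 / ε < (l : ℝ) + 1 := by linarith
      rw [div_lt_iff₀ hε] at h2
      linarith
    refine le_trans ?_ (((g1 l g2).1 p hp).trans ?_)
    · refine Nat.cast_le.2 (card_le_card (image_subset_image (fsub ?_)))
      intro y hy
      exact hy.trans (mul_le_mul_of_nonneg_right hK (rp_pos _ _ _).le)
    · rw [hB' n, ← Real.rpow_mul (B.pos n).le]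
      refine rp_anti _ _ ?_
      have := hpos l
      nlinarith
  · have hb := hβ t ht
    have hγt := hγ t ht
    obtain ⟨N0, hN0⟩ := exists_nat_gt (max (max K (xs / τ)) ((γ t / β t * xs + (γ t + 2)) / ε))
    filter_upwards [hk2, hle, hk'.eventually_ge_atTop N0] with n g1 g2 g3 p hp c hc
    set l := k' n with hl
    have hll := hl1 l
    have hlN : (N0 : ℝ) ≤ l := by exact_mod_cast g3
    have m1 : max (max K (xs / τ)) ((γ t / β t * xs + (γ t + 2)) / ε) < (l : ℝ) + 1 := by linarith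
    have hK : K ≤ (l : ℝ) + 1 := ((le_max_left _ _).trans (le_max_left _ _)).trans m1.le
    have hτl : xs / τ < (l : ℝ) + 1 := lt_of_le_of_lt ((le_max_right _ _).trans (le_max_left _ _)) m1
    have hεl : (γ t / β t * xs + (γ t + 2)) / ε < (l : ℝ) + 1 :=
      lt_of_le_of_lt (le_max_right _ _) m1
    rw [div_lt_iff₀ hτ] at hτl
    rw [div_lt_iff₀ hε] at hεl
    -- the grid point below `τ`
    set q : ℝ := τ * ((l : ℝ) + 1) / xs with hq
    have hq1 : 1 ≤ q := by rw [hq, le_div_iff₀ hxs]; linarith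
    have hqle : q ≤ (l : ℝ) + 1 := by
      rw [hq, div_le_iff₀ hxs]
      nlinarith
    obtain ⟨i, hi⟩ : ∃ i : ℕ, ⌊q⌋₊ = i + 1 := by
      refine Nat.exists_eq_succ_of_ne_zero ?_
      have : 1 ≤ ⌊q⌋₊ := Nat.le_floor (by simpa using hq1)
      omega
    have hf1 : ((i : ℝ) + 1) ≤ q := by
      have := Nat.floor_le (zero_le_one.trans hq1)
      rw [hi] at this
      push_cast at this
      exact this
    have hf2 : q < ((i : ℝ) + 1) + 1 := by
      have := Nat.lt_floor_add_one q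
      rw [hi] at this
      push_cast at this
      exact this
    have hil : i ∈ range (l + 1) := by
      rw [mem_range]
      have : (i : ℝ) + 1 ≤ (l : ℝ) + 1 := hf1.trans hqle
      have : (i : ℝ) ≤ l := by linarith
      have : i ≤ l := by exact_mod_cast this
      omega
    set τi : ℝ := xs * ((i : ℝ) + 1) / ((l : ℝ) + 1) with hτi
    have hτi1 : τi ≤ τ := by
      rw [hτi, div_le_iff₀ hll]
      rw [hq, le_div_iff₀ hxs] at hf1
      linarith
    have hτi2 : τ - τi ≤ xs / ((l : ℝ) + 1) := by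
      rw [hq, div_lt_iff₀ hxs] at hf2
      have h1 : τ ≤ xs * (((i : ℝ) + 1) + 1) / ((l : ℝ) + 1) := by
        rw [le_div_iff₀ hll]; linarith
      have h2 : xs * (((i : ℝ) + 1) + 1) / ((l : ℝ) + 1) = τi + xs / ((l : ℝ) + 1) := by
        rw [hτi]; ring
      linarith
    have hdB : ∀ a : ℝ, B'.d n ^ a = B.d n ^ (h l * a) := fun a => by
      rw [hB' n, ← Real.rpow_mul (B.pos n).le]
    refine le_trans ?_ (((g1 l g2).2 t ht i hil p hp c hc).trans ?_)
    · refine Nat.cast_le.2 (card_le_card (fsub ?_))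
      rintro y ⟨y1, y2, y3⟩
      refine ⟨y1, y2, y3.trans ?_⟩
      rw [hdB, ← rp_add]
      calc K * B.d n ^ (x l t + h l * τ) ≤ ((l : ℝ) + 1) * B.d n ^ (x l t + h l * τ) :=
            mul_le_mul_of_nonneg_right hK (rp_pos _ _ _).le
        _ ≤ ((l : ℝ) + 1) * B.d n ^ (x l t + h l * τi) := by
            refine mul_le_mul_of_nonneg_left (rp_anti _ _ ?_) hll.le
            have := mul_le_mul_of_nonneg_left hτi1 (hpos l).le
            linarith
    · rw [hdB, ← rp_add]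
      refine rp_anti _ _ ?_
      have h1 : γ t / β t * τ - ε ≤ γ t / β t * τi - (γ t + 2) * δ l := by
        have c1 : 0 ≤ γ t / β t := div_nonneg hγt hb.le
        have c2 : γ t / β t * (τ - τi) ≤ γ t / β t * (xs / ((l : ℝ) + 1)) :=
          mul_le_mul_of_nonneg_left hτi2 c1
        have c3 : (γ t + 2) * δ l ≤ (γ t + 2) * (1 / ((l : ℝ) + 1)) :=
          mul_le_mul_of_nonneg_left (hδ1 l) (by linarith)
        have c4 : γ t / β t * (xs / ((l : ℝ) + 1)) + (γ t + 2) * (1 / ((l : ℝ) + 1)) ≤ ε := by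
          have e1 : γ t / β t * (xs / ((l : ℝ) + 1)) + (γ t + 2) * (1 / ((l : ℝ) + 1)) =
              (γ t / β t * xs + (γ t + 2)) / ((l : ℝ) + 1) := by
            field_simp
          rw [e1, div_le_iff₀ hll]
          linarith
        linarith
      have := mul_le_mul_of_nonneg_left h1 (hpos l).le
      linarith

/-! ### real lines in a window -/

/-- label (real line, net point) -/
noncomputable def olab (B : Base) (I : ∀ n, Finset (ι n)) (co : ∀ n, ι n → ι n → Fin m → ℝ)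
    (M : Mons m) (C : ℝ) (rl : ∀ n, ι n → ℕ) (n : ℕ) (p : Fin m → ℝ) (i : ι n) : ℕ × ι n :=
  (rl n i, nlab B I co M C n p i)

/-- **real lines of a window**: `N n` = number of incidences of a real line in the class; few real
lines, few pairs (real line, fat line) -/
structure RLines (W : Wnd m ι) (rl : ∀ n, ι n → ℕ) (N : ℕ → ℝ) : Prop where
  N0 : ∀ n, 0 < N n
  lines : ∀ ε : ℝ, 0 < ε → ∀ᶠ n in (U : Filter ℕ),
    (((W.Cl n).image (rl n)).card : ℝ) ≤ W.T n / N n * W.B'.d n ^ (-ε)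
  fat : ∀ ε : ℝ, 0 < ε → ∀ᶠ n in (U : Filter ℕ),
    (((W.Cl n).image fun i => Nat.pair (rl n i) (W.lc n i)).card : ℝ) ≤
      W.T n / N n * W.B'.d n ^ (-ε)

section

variable {B B' : Base} {I J : ∀ n, Finset (ι n)} {co : ∀ n, ι n → ι n → Fin m → ℝ}
  {M : Mons m} {C : ℝ} {X : ℕ → Fin m → ℝ} {w : ℕ → ℝ} {D : Set (Fin m → ℝ)} {T : ℕ → ℝ}
  {lam : (Fin m → ℝ) → ℝ} {rl : ∀ n, ι n → ℕ} {N : ℕ → ℝ}

/-- code of (real line, label at the base point) -/
noncomputable def hx0 (B : Base) (I : ∀ n, Finset (ι n)) (co : ∀ n, ι n → ι n → Fin m → ℝ)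
    (M : Mons m) (C : ℝ) (X : ℕ → Fin m → ℝ) (w : ℕ → ℝ) (rl : ∀ n, ι n → ℕ) (n : ℕ) (i : ι n) : ℕ :=
  Nat.pair (rl n i) (enc (I n) (zlab B I co M C X w n 0 i))

/-- code of (real line, label at the base point, label at `c`) -/
noncomputable def hx1 (B : Base) (I : ∀ n, Finset (ι n)) (co : ∀ n, ι n → ι n → Fin m → ℝ)
    (M : Mons m) (C : ℝ) (X : ℕ → Fin m → ℝ) (w : ℕ → ℝ) (rl : ∀ n, ι n → ℕ) (c : Fin m → ℝ)
    (n : ℕ) (i : ι n) : ℕ :=
  Nat.pair (hx0 B I co M C X w rl n i) (enc (I n) (zlab B I co M C X w n c i))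

theorem zlab_mem (h : ZWin B B' I J co M C X w D T lam) {n : ℕ} {c : Fin m → ℝ}
    (hc : Legal M (X n + w n • c)) {i : ι n} (hi : i ∈ I n) : zlab B I co M C X w n c i ∈ I n :=
  net_sub (Crest.Agent.R136.Net191.lab_mem (h.chart n) hc (B.pos n) (B.lt n).le hi)

/-- same code ⟹ same label at the base point -/
theorem few0 (h : ZWin B B' I J co M C X w D T lam) {κ : Type*} [DecidableEq κ]
    {g : ∀ n, ι n → κ} (hg : ∀ n, ∀ i j, g n i = g n j →
      hx0 B I co M C X w rl n i = hx0 B I co M C X w rl n j) {ε : ℝ} (hε : 0 < ε) :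
    ∀ᶠ n in (U : Filter ℕ), ∀ i ∈ J n,
      (((cls (J n) (g n) i).image (zlab B I co M C X w n 0)).card : ℝ) ≤ B'.d n ^ (-ε) := by
  filter_upwards [h.sub, h.legal 0] with n h1 h2 i hi
  have hleg := h2 0 h.zero (by rw [norm_zero])
  have h3 : ((cls (J n) (g n) i).image (zlab B I co M C X w n 0)).card ≤ 1 := by
    rw [card_le_one]
    intro a ha b hb
    obtain ⟨y, hy, rfl⟩ := mem_image.1 ha
    obtain ⟨y', hy', rfl⟩ := mem_image.1 hb
    obtain ⟨y1, y2⟩ := mem_cls.1 hy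
    obtain ⟨z1, z2⟩ := mem_cls.1 hy'
    have h4 := hg n y y' (y2.trans z2.symm)
    exact enc_inj (zlab_mem h hleg (h1 y1)) (zlab_mem h hleg (h1 z1)) (Nat.pair_eq_pair.1 h4).2
  have h4 : (1 : ℝ) ≤ B'.d n ^ (-ε) :=
    Real.one_le_rpow_of_pos_of_le_one_of_nonpos (B'.pos n) (B'.lt n).le (by linarith)
  exact le_trans (by exact_mod_cast h3) h4

/-- number of codes -/
theorem num0 {Do : Set (Fin m → ℝ)} {lo : (Fin m → ℝ) → ℝ} (hN : ∀ n, 0 < N n)
    (hZ : ZProf B' J (fun n c => olab B I co M C rl n (X n + w n • c)) Do N lo)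
    (h0 : (0 : Fin m → ℝ) ∈ Do) (hlo : lo 0 = 0) {ε : ℝ} (hε : 0 < ε) :
    ∀ᶠ n in (U : Filter ℕ), (((J n).image (olab B I co M C rl n (X n + w n • 0))).card : ℝ) ≤
      (J n).card * (1 / N n) * B'.d n ^ (-ε) := by
  filter_upwards [hZ.root 0 ε hε] with n h1
  have h2 := h1 0 h0 (by rw [norm_zero])
  rw [hlo, zero_sub] at h2
  have h3 := hN n
  have e : ((J n).card : ℝ) * (1 / N n) * B'.d n ^ (-ε) = (J n).card * B'.d n ^ (-ε) / N n := by
    ring
  rw [e, le_div_iff₀ h3]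
  exact h2

theorem num_hx0 {Do : Set (Fin m → ℝ)} {lo : (Fin m → ℝ) → ℝ} (hN : ∀ n, 0 < N n)
    (hZ : ZProf B' J (fun n c => olab B I co M C rl n (X n + w n • c)) Do N lo)
    (h0 : (0 : Fin m → ℝ) ∈ Do) (hlo : lo 0 = 0) {ε : ℝ} (hε : 0 < ε) :
    ∀ᶠ n in (U : Filter ℕ), (((J n).image (hx0 B I co M C X w rl n)).card : ℝ) ≤
      (J n).card * (1 / N n) * B'.d n ^ (-ε) := by
  filter_upwards [num0 hN hZ h0 hlo hε] with n h1
  refine le_trans ?_ h1
  have : (J n).image (hx0 B I co M C X w rl n) =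
      ((J n).image (olab B I co M C rl n (X n + w n • 0))).image
        fun q => Nat.pair q.1 (enc (I n) q.2) := by
    rw [image_image]; rfl
  rw [this]
  exact_mod_cast card_image_le

theorem num_hx1 {Do : Set (Fin m → ℝ)} {lo : (Fin m → ℝ) → ℝ} (hN : ∀ n, 0 < N n)
    (hZ : ZProf B' J (fun n c => olab B I co M C rl n (X n + w n • c)) Do N lo)
    (h0 : (0 : Fin m → ℝ) ∈ Do) (hlo : lo 0 = 0) {c : Fin m → ℝ} (hc : c ∈ Do) (hc0 : 0 ≤ c)
    (hloc : lo c = 0) {ε : ℝ} (hε : 0 < ε) :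
    ∀ᶠ n in (U : Filter ℕ), (((J n).image (hx1 B I co M C X w rl c n)).card : ℝ) ≤
      (J n).card * (1 / N n) * B'.d n ^ (-ε) := by
  filter_upwards [num0 hN hZ h0 hlo (ε := ε / 2) (by positivity),
    hZ.num ‖c‖ (ε / 2) (by positivity)] with n h1 h2
  have hp := fun s => rp_pos B' n s
  have h3 : (((J n).image (hx1 B I co M C X w rl c n)).card : ℝ) ≤
      B'.d n ^ (-(ε / 2)) * ((J n).image (olab B I co M C rl n (X n + w n • 0))).card := by
    refine card_image_le_mul _ _ _ fun x hx => ?_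
    have h4 := h2 0 h0 (by rw [norm_zero]; exact norm_nonneg _) c hc le_rfl hc0 x hx
    rw [hlo, hloc] at h4
    refine le_trans ?_ (h4.trans (le_of_eq (by congr 1; ring)))
    have e1 : (cls (J n) (olab B I co M C rl n (X n + w n • 0)) x).image
        (hx1 B I co M C X w rl c n) =
        ((cls (J n) (olab B I co M C rl n (X n + w n • 0)) x).image
          (olab B I co M C rl n (X n + w n • c))).image
          fun q => Nat.pair (hx0 B I co M C X w rl n x) (enc (I n) q.2) := by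
      rw [image_image]
      refine image_congr fun y hy => ?_
      have h5 := (mem_cls.1 (Finset.mem_coe.1 hy)).2
      have h6 : hx0 B I co M C X w rl n y = hx0 B I co M C X w rl n x := by
        have a1 : rl n y = rl n x := congrArg Prod.fst h5
        have a2 : nlab B I co M C n (X n + w n • 0) y = nlab B I co M C n (X n + w n • 0) x :=
          congrArg Prod.snd h5
        unfold hx0 zlab
        rw [a1, a2]
      simp only [hx1, Function.comp, h6]
      rfl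
    rw [e1]
    exact_mod_cast card_image_le
  calc (((J n).image (hx1 B I co M C X w rl c n)).card : ℝ)
      ≤ B'.d n ^ (-(ε / 2)) * ((J n).image (olab B I co M C rl n (X n + w n • 0))).card := h3
    _ ≤ B'.d n ^ (-(ε / 2)) * ((J n).card * (1 / N n) * B'.d n ^ (-(ε / 2))) :=
        mul_le_mul_of_nonneg_left h1 (hp _).le
    _ = (J n).card * (1 / N n) * (B'.d n ^ (-(ε / 2)) * B'.d n ^ (-(ε / 2))) := by ring
    _ = (J n).card * (1 / N n) * B'.d n ^ (-ε) := by rw [← rp_add]; congr 2; ring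

variable {Cl : ∀ n, Finset (ι n)} {s₀ : ∀ n, ι n} {st : WSt m}

/-- **windows with real lines**; `hx`, `a` = further extra partitions of the user -/
theorem exists_rlines (h : ZWin B B' I J co M C X w D T lam) (hst : st.Ok M D)
    (i₀ : ∀ n, ι n) {Gd E : ∀ n, Finset (ι n)}
    (hGd : ∀ᶠ n in (U : Filter ℕ), Gd n ⊆ J n) (hE : ∀ᶠ n in (U : Filter ℕ), E n ⊆ Gd n)
    {Sd : ℕ → ℝ} (hS : B'.Sub Sd)
    (hd : ∀ᶠ n in (U : Filter ℕ), ((J n).card : ℝ) ≤ Sd n * (E n).card)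
    {Do : Set (Fin m → ℝ)} {lo : (Fin m → ℝ) → ℝ} (hN : ∀ n, 0 < N n)
    (hZ : ZProf B' J (fun n c => olab B I co M C rl n (X n + w n • c)) Do N lo)
    (h0 : (0 : Fin m → ℝ) ∈ Do) (hlo : lo 0 = 0) (hc : cut st.S st.top 0 ∈ Do)
    (hloc : lo (cut st.S st.top 0) = 0)
    (hx : ℕ → ∀ n, ι n → ℕ) (a : ℕ → ℕ → ℝ) (ha : ∀ j n, 0 < a j n)
    (hfew : ∀ j, ∀ ε : ℝ, 0 < ε → ∀ᶠ n in (U : Filter ℕ), ∀ i ∈ J n,
      (((cls (J n) (hx j n) i).image (zlab B I co M C X w n 0)).card : ℝ) ≤ B'.d n ^ (-ε))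
    (hnum : ∀ j, ∀ ε : ℝ, 0 < ε → ∀ᶠ n in (U : Filter ℕ),
      (((J n).image (hx j n)).card : ℝ) ≤ (J n).card * a j n * B'.d n ^ (-ε)) :
    ∃ s₀ : ∀ n, ι n, (∀ᶠ n in (U : Filter ℕ), s₀ n ∈ E n) ∧
      (st.wnd B B' I J co M C X w D T lam
        (fun n => cls (Gd n) (zlab B I co M C X w n 0) (s₀ n)) s₀).Ok ∧
      RLines (st.wnd B B' I J co M C X w D T lam
        (fun n => cls (Gd n) (zlab B I co M C X w n 0) (s₀ n)) s₀) rl N ∧
      ∀ j, ∀ ε : ℝ, 0 < ε → ∀ᶠ n in (U : Filter ℕ),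
        (((cls (Gd n) (zlab B I co M C X w n 0) (s₀ n)).image (hx j n)).card : ℝ) ≤
          T n * a j n * B'.d n ^ (-ε) := by
  set hxx : ℕ → ∀ n, ι n → ℕ := fun j => match j with
    | 0 => hx0 B I co M C X w rl
    | 1 => hx1 B I co M C X w rl (cut st.S st.top 0)
    | (j + 2) => hx j with hhxx
  set aa : ℕ → ℕ → ℝ := fun j => match j with
    | 0 => fun n => 1 / N n
    | 1 => fun n => 1 / N n
    | (j + 2) => a j with haa
  have hc0 : (0 : Fin m → ℝ) ≤ cut st.S st.top 0 := fun s => hst.lin_leg.1.nonneg s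
  have ha' : ∀ j n, 0 < aa j n := by
    intro j n
    rcases j with _ | _ | j
    · exact one_div_pos.2 (hN n)
    · exact one_div_pos.2 (hN n)
    · exact ha j n
  have hfew' : ∀ j, ∀ ε : ℝ, 0 < ε → ∀ᶠ n in (U : Filter ℕ), ∀ i ∈ J n,
      (((cls (J n) (hxx j n) i).image (zlab B I co M C X w n 0)).card : ℝ) ≤ B'.d n ^ (-ε) := by
    intro j ε hε
    rcases j with _ | _ | j
    · exact few0 h (rl := rl) (g := hx0 B I co M C X w rl) (fun n i j hij => hij) hε
    · exact few0 h (rl := rl) (g := hx1 B I co M C X w rl (cut st.S st.top 0))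
        (fun n i j hij => (Nat.pair_eq_pair.1 hij).1) hε
    · exact hfew j ε hε
  have hnum' : ∀ j, ∀ ε : ℝ, 0 < ε → ∀ᶠ n in (U : Filter ℕ),
      (((J n).image (hxx j n)).card : ℝ) ≤ (J n).card * aa j n * B'.d n ^ (-ε) := by
    intro j ε hε
    rcases j with _ | _ | j
    · exact num_hx0 hN hZ h0 hlo hε
    · exact num_hx1 hN hZ h0 hlo hc hc0 hloc hε
    · exact hnum j ε hε
  obtain ⟨s₀, g1, g2, g3⟩ := h.exists_zcls_ex i₀ hGd hE hS hd hxx aa ha' hfew' hnum'
  refine ⟨s₀, g1, hst.wnd_ok g2, ⟨hN, fun ε hε => ?_, fun ε hε => ?_⟩, fun j => g3 (j + 2)⟩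
  · filter_upwards [g3 0 ε hε] with n hn
    have e1 : ((st.wnd B B' I J co M C X w D T lam
        (fun n => cls (Gd n) (zlab B I co M C X w n 0) (s₀ n)) s₀).Cl n).image (rl n) =
        ((cls (Gd n) (zlab B I co M C X w n 0) (s₀ n)).image (hxx 0 n)).image
          fun q => (Nat.unpair q).1 := by
      rw [image_image]
      refine image_congr fun y _ => ?_
      show rl n y = (Nat.unpair (hx0 B I co M C X w rl n y)).1
      unfold hx0
      rw [Nat.unpair_pair]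
    rw [e1]
    refine le_trans (by exact_mod_cast card_image_le) (hn.trans (le_of_eq ?_))
    show T n * (1 / N n) * B'.d n ^ (-ε) = T n / N n * B'.d n ^ (-ε)
    ring
  · filter_upwards [g3 1 ε hε] with n hn
    have e1 : (((st.wnd B B' I J co M C X w D T lam
        (fun n => cls (Gd n) (zlab B I co M C X w n 0) (s₀ n)) s₀).Cl n).image fun i =>
          Nat.pair (rl n i) ((st.wnd B B' I J co M C X w D T lam
        (fun n => cls (Gd n) (zlab B I co M C X w n 0) (s₀ n)) s₀).lc n i)) =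
        ((cls (Gd n) (zlab B I co M C X w n 0) (s₀ n)).image (hxx 1 n)).image
          fun q => Nat.pair (Nat.unpair (Nat.unpair q).1).1 (Nat.unpair q).2 := by
      rw [image_image]
      refine image_congr fun y _ => ?_
      show _ = Nat.pair (Nat.unpair (Nat.unpair (hx1 B I co M C X w rl (cut st.S st.top 0) n y)).1).1
        (Nat.unpair (hx1 B I co M C X w rl (cut st.S st.top 0) n y)).2
      unfold hx1 hx0
      rw [Nat.unpair_pair, Nat.unpair_pair]
      rfl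
    rw [e1]
    refine le_trans (by exact_mod_cast card_image_le) (hn.trans (le_of_eq ?_))
    show T n * (1 / N n) * B'.d n ^ (-ε) = T n / N n * B'.d n ^ (-ε)
    ring

end

/-- **zoom windows with the own profile and the own strips** -/
theorem exists_zwin_own {B : Base} {I J : ∀ n, Finset (ι n)} {co : ∀ n, ι n → ι n → Fin m → ℝ}
    {M : Mons m} {C R : ℝ} {ν : (Fin m → ℝ) → ℝ} (hN : NProf B I J co M C R ν)
    {x : ℕ → Fin m → ℝ} {h : ℕ → ℝ} (hpos : ∀ l, 0 < h l) {D : Set (Fin m → ℝ)}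
    (h0 : (0 : Fin m → ℝ) ∈ D) {lam : (Fin m → ℝ) → ℝ} (htan : IsTan (Leg M R) D ν x h lam)
    {rl : ∀ n, ι n → ℕ} {own : (Fin m → ℝ) → ℝ}
    (hO : QProf B J (olab B I co M C rl) (Leg M R) own) {cS : Fin m → ℝ} (hcS : cS ∈ D)
    (hown : ∀ᶠ l in (atTop : Filter ℕ), own (x l + h l • cS) = own (x l))
    {κ : Type*} [DecidableEq κ] {cell : ∀ n, ℚ → ι n → κ} {kz : Fin m}
    {Ts : Finset (Fin m)} {w0 s : ℝ} {γ o0 β : Fin m → ℝ} {Sl : Fin m → Set ℝ}
    (H : OStrips B I co rl cell kz Ts w0 s γ o0 β Sl) (hγ : ∀ t ∈ Ts, 0 ≤ γ t)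
    (hβ : ∀ t ∈ Ts, 0 < β t) (hs0 : 0 ≤ s) (hs1 : s ≤ 1) {v : ℕ → ℝ}
    (hxz : ∀ l, x l kz = w0 + v l) (hv0 : ∀ l, 0 < v l) (hv1 : ∀ l, v l ≤ 1) {xs : ℝ}
    (hxs : 0 < xs) (hr1 : ∀ t ∈ Ts, ∀ l, v l + h l * (xs / β t) ≤ 1)
    (hxt : ∀ t ∈ Ts, ∀ l, x l t = o0 t + β t * v l)
    (hov : ∀ l, own (x l) = (1 - s) * (1 - v l))
    (sS : ℕ → ℕ → ℝ) (hs : ∀ i, B.Sub (sS i)) :
    ∃ (uq : ℕ → ℚ) (k : ℕ → ℕ), Tendsto k U atTop ∧ ∀ k' : ℕ → ℕ, Tendsto k' U atTop →
      (∀ᶠ n in (U : Filter ℕ), k' n ≤ k n) → ∃ B' : Base,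
        (∀ n, B'.d n = B.d n ^ h (k' n)) ∧ (∀ n, B'.L n = h (k' n) * B.L n) ∧
        (∀ i, B'.Sub (sS i)) ∧
        ZWin B B' I J co M C (fun n => x (k' n)) (fun n => h (k' n)) D
          (fun n => B.d n ^ (-(ν (x (k' n))))) lam ∧
        ZProf B' J (fun n c => olab B I co M C rl n (x (k' n) + h (k' n) • c)) {0, cS}
          (fun n => B.d n ^ (-(own (x (k' n))))) (fun _ => 0) ∧
        ∀ (st : WSt m) (Cl : ∀ n, Finset (ι n)) (s₀ : ∀ n, ι n), st.kz = kz → ∀ t ∈ Ts,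
          WStrip (st.wnd B B' I J co M C (fun n => x (k' n)) (fun n => h (k' n)) D
            (fun n => B.d n ^ (-(ν (x (k' n))))) lam Cl s₀) rl (fun n => cell n (uq (k' n))) t
            (Sl t) (fun n => B.d n ^ (-(own (x (k' n))))) xs (γ t / β t) := by
  have htano : IsTan (Leg M R) ({0, cS} : Set (Fin m → ℝ)) own x h (fun _ => 0) := by
    intro K ε hε
    filter_upwards [htan (max K 0) 1 one_pos, hown] with l h1 h2 c hc hcK
    have hcD : c ∈ D := by
      rcases hc with rfl | hc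
      · exact h0
      · rw [Set.mem_singleton_iff.1 hc]; exact hcS
    refine ⟨(h1 c hcD (hcK.trans (le_max_left _ _))).1, ?_⟩
    have h3 : own (x l + h l • c) = own (x l) := by
      rcases hc with rfl | hc
      · rw [smul_zero, add_zero]
      · rw [Set.mem_singleton_iff.1 hc]; exact h2
    rw [h3, sub_self, mul_zero, sub_self, abs_zero]
    exact (mul_pos hε (hpos l)).le
  obtain ⟨k₁, hk₁, hz⟩ := exists_zwin_ex hN hpos h0 htan hO (Set.mem_insert _ _) htano sS hs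
  obtain ⟨uq, k₂, hk₂, hstr⟩ := H.slow hγ hβ hs0 hs1 hpos hxz hv0 hv1 hxs hr1 hxt
  refine ⟨uq, fun n => min (k₁ n) (k₂ n), ?_, fun k' hk' hle => ?_⟩
  · rw [tendsto_atTop] at hk₁ hk₂ ⊢
    intro b
    filter_upwards [hk₁ b, hk₂ b] with n h1 h2 using le_min h1 h2
  · obtain ⟨B', b1, b2, b3, b4, b5⟩ := hz k' hk' (hle.mono fun n hn => hn.trans (min_le_left _ _))
    obtain ⟨c1, c2⟩ := hstr k' hk' (hle.mono fun n hn => hn.trans (min_le_right _ _)) B' b1
    refine ⟨B', b1, b2, b3, b4, b5, fun st Cl s₀ hkz t ht => ?_⟩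
    exact
      { N0 := fun n => rp_pos _ _ _
        cells := fun K ε hε => by
          filter_upwards [c1 K ε hε] with n hn p hp
          show ((((I n).filter fun y => |co n p y st.kz| ≤ K * B.d n ^ x (k' n) st.kz).image
            (cell n (uq (k' n)))).card : ℝ) ≤ _
          rw [hkz]
          exact hn p hp
        strip := fun τ h1 h2 K ε hε => by
          filter_upwards [c2 t ht τ h1 h2 K ε hε] with n hn p hp c hc
          show (((I n).filter fun y => rl n y = rl n p ∧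
            cell n (uq (k' n)) y = cell n (uq (k' n)) p ∧
            |co n p y t - c * co n p y st.kz| ≤ K * (B.d n ^ x (k' n) t * B'.d n ^ τ)).card : ℝ) ≤
            B.d n ^ (-(own (x (k' n)))) * _
          rw [hkz, hov]
          exact hn p hp c hc }

/-- **windows with real lines and own strips**, one theorem -/
theorem exists_swin {B : Base} {I J : ∀ n, Finset (ι n)} {co : ∀ n, ι n → ι n → Fin m → ℝ}
    {M : Mons m} {C R : ℝ} {ν : (Fin m → ℝ) → ℝ} (hN : NProf B I J co M C R ν)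
    {x : ℕ → Fin m → ℝ} {h : ℕ → ℝ} (hpos : ∀ l, 0 < h l) {D : Set (Fin m → ℝ)}
    (h0 : (0 : Fin m → ℝ) ∈ D) {lam : (Fin m → ℝ) → ℝ} (htan : IsTan (Leg M R) D ν x h lam)
    {st : WSt m} (hst : st.Ok M D)
    {rl : ∀ n, ι n → ℕ} {own : (Fin m → ℝ) → ℝ}
    (hO : QProf B J (olab B I co M C rl) (Leg M R) own)
    (hown : ∀ᶠ l in (atTop : Filter ℕ), own (x l + h l • cut st.S st.top 0) = own (x l))
    {κ : Type*} [DecidableEq κ] {cell : ∀ n, ℚ → ι n → κ}
    {Ts : Finset (Fin m)} {w0 s : ℝ} {γ o0 β : Fin m → ℝ} {Sl : Fin m → Set ℝ}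
    (H : OStrips B I co rl cell st.kz Ts w0 s γ o0 β Sl) (hγ : ∀ t ∈ Ts, 0 ≤ γ t)
    (hβ : ∀ t ∈ Ts, 0 < β t) (hs0 : 0 ≤ s) (hs1 : s ≤ 1) {v : ℕ → ℝ}
    (hxz : ∀ l, x l st.kz = w0 + v l) (hv0 : ∀ l, 0 < v l) (hv1 : ∀ l, v l ≤ 1) {xs : ℝ}
    (hxs : 0 < xs) (hr1 : ∀ t ∈ Ts, ∀ l, v l + h l * (xs / β t) ≤ 1)
    (hxt : ∀ t ∈ Ts, ∀ l, x l t = o0 t + β t * v l)
    (hov : ∀ l, own (x l) = (1 - s) * (1 - v l))
    (sS : ℕ → ℕ → ℝ) (hs : ∀ i, B.Sub (sS i)) (i₀ : ∀ n, ι n)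
    {Gd E : ∀ n, Finset (ι n)}
    (hGd : ∀ᶠ n in (U : Filter ℕ), Gd n ⊆ J n) (hE : ∀ᶠ n in (U : Filter ℕ), E n ⊆ Gd n)
    {Sd : ℕ → ℝ} (hS : B.Sub Sd)
    (hd : ∀ᶠ n in (U : Filter ℕ), ((J n).card : ℝ) ≤ Sd n * (E n).card) :
    ∃ (uq : ℕ → ℚ) (k : ℕ → ℕ), Tendsto k U atTop ∧ ∀ k' : ℕ → ℕ, Tendsto k' U atTop →
      (∀ᶠ n in (U : Filter ℕ), k' n ≤ k n) → ∃ (B' : Base) (s₀ : ∀ n, ι n) (W : Wnd m ι),
        W = st.wnd B B' I J co M C (fun n => x (k' n)) (fun n => h (k' n)) D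
          (fun n => B.d n ^ (-(ν (x (k' n))))) lam
          (fun n => cls (Gd n) (zlab B I co M C (fun n => x (k' n)) (fun n => h (k' n)) n 0)
            (s₀ n)) s₀ ∧
        (∀ n, B'.d n = B.d n ^ h (k' n)) ∧ (∀ n, B'.L n = h (k' n) * B.L n) ∧
        (∀ i, B'.Sub (sS i)) ∧ (∀ᶠ n in (U : Filter ℕ), s₀ n ∈ E n) ∧ W.Ok ∧
        RLines W rl (fun n => B.d n ^ (-(own (x (k' n))))) ∧
        ∀ t ∈ Ts, WStrip W rl (fun n => cell n (uq (k' n))) t (Sl t)
          (fun n => B.d n ^ (-(own (x (k' n))))) xs (γ t / β t) := by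
  obtain ⟨uq, k, hk, hk2⟩ := exists_zwin_own hN hpos h0 htan hO (hst.leg hst.lin_leg) hown H hγ hβ
    hs0 hs1 hxz hv0 hv1 hxs hr1 hxt hov (fun i => Nat.casesOn i Sd sS) (fun i => by
      cases i with
      | zero => exact hS
      | succ i => exact hs i)
  refine ⟨uq, k, hk, fun k' hk' hle => ?_⟩
  obtain ⟨B', b1, b2, b3, b4, b5, b6⟩ := hk2 k' hk' hle
  obtain ⟨s₀, c1, c2, c3, -⟩ := exists_rlines b4 hst i₀ hGd hE (b3 0) hd (fun n => rp_pos _ _ _) b5
    (Set.mem_insert _ _) rfl (Set.mem_insert_of_mem _ rfl) rfl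
    (fun _ n i => hx0 B I co M C (fun n => x (k' n)) (fun n => h (k' n)) rl n i)
    (fun _ n => 1 / B.d n ^ (-(own (x (k' n)))))
    (fun _ n => one_div_pos.2 (rp_pos _ _ _))
    (fun _ ε hε => few0 b4 (rl := rl) (fun n i j hij => hij) hε)
    (fun _ ε hε => num_hx0 (fun n => rp_pos _ _ _) b5 (Set.mem_insert _ _) rfl hε)
  exact ⟨B', s₀, _, rfl, b1, b2, fun i => b3 (i + 1), c1, c2, c3,
    fun t ht => b6 st _ s₀ rfl t ht⟩

end Crest.Agent.R116.Kst593
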