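import Mathlib
import Crest.Agent.R116.Rl4_899
import Crest.Agent.R116.PL2_504

/-!
# R116, [ROT-LIN] (helper899), part 5: the hypotheses of `natL` for 504's units and 222's monomials
-/

set_option autoImplicit false
set_option linter.unusedVariables false

open Finset Filter Topology

namespace Crest.Agent.R116.Rl899

open Crest.Agent.R138.Mk163 (rho)
open Crest.Agent.R136.Net191
open Crest.Agent.R136.TD627
open Crest.Agent.R116.ChL222
open Crest.Agent.R116.PL504

/-- unit of `E` = cell length times unit of `D` -/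
theorem prN_two (lev : ℕ → ℚ → ℕ) (w : Fin 2 → ℕ → ℚ → ℝ) (n : ℕ) (v : ℚ) :
    prN lev w 2 n v = rho (lev n v) * prN lev w 1 n v := by
  have hr := (rho_pos' (lev n v)).ne'
  show (w 1 n v / rho (lev n v)) / (w 0 n v / rho (lev n v)) ^ 2 = rho (lev n v) *
    ((w 1 n v / rho (lev n v)) / ((w 0 n v / rho (lev n v)) ^ 2 * rho (lev n v)))
  by_cases hw : w 0 n v = 0
  · rw [hw]; simp
  · field_simp

/-- every monomial of the slot `E` contains the slot `D` -/
theorem monL_two : ∀ a ∈ monL.mon 2, a 1 ≠ 0 := by
  intro a ha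
  change a ∈ mfL 2 at ha
  simp [mfL] at ha
  subst ha
  simp

end Crest.Agent.R116.Rl899
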