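import Mathlib
import Crest.Agent.R116.Rl1_899
import Crest.Agent.R116.Rm1_899

/-!
# R116, [ROT-LIN] (helper899): window sets adapted to heavy strips (finite counting)

`heavy_window` : if most incidences of `X` see a heavy strip (`K1` incidences of their line and cell of
level `i0`), there is a cell `J0`, a window set `I'` of `X` in `J0` and a part `Y` of `I'` of
proportional size all of whose lines lie in one strip.
-/

set_option autoImplicit false
set_option linter.unusedVariables false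
set_option linter.unusedSectionVars false

open Finset Filter Topology

namespace Crest.Agent.R116.Rm899

open Crest.Agent.R138.Ex926
open Crest.Agent.R138.Mk163 (zc zl rho alive own)
open Crest.Agent.R138.MkRef774 (pl)
open Crest.Agent.R138.MkZoom779 (IsWin exists_rep exists_win zc_nested)

/-- double counting, upper bound -/
theorem card_le_mul_image {α β : Type*} [DecidableEq β] (s : Finset α) (f : α → β) {K : ℝ}
    (h : ∀ b ∈ s.image f, ((s.filter fun x => f x = b).card : ℝ) ≤ K) :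
    (s.card : ℝ) ≤ K * ((s.image f).card : ℝ) := by
  rw [card_eq_sum_card_image f s]
  push_cast
  refine (sum_le_sum h).trans (le_of_eq ?_)
  rw [sum_const, nsmul_eq_mul, mul_comm]

/-- double counting, lower bound -/
theorem mul_image_le_card {α β : Type*} [DecidableEq β] (s : Finset α) (f : α → β) {K : ℝ}
    (h : ∀ b ∈ s.image f, K ≤ ((s.filter fun x => f x = b).card : ℝ)) :
    K * ((s.image f).card : ℝ) ≤ (s.card : ℝ) := by
  rw [card_eq_sum_card_image f s]
  push_cast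
  refine le_trans (le_of_eq ?_) (sum_le_sum h)
  rw [sum_const, nsmul_eq_mul, mul_comm]

/-- a cell in which at most half of the incidences are bad -/
theorem exists_cell {X N : Finset (ℕ × ℝ)} (i0 : ℕ) (hX : X.Nonempty)
    (hN : 2 * (N.card : ℝ) ≤ X.card) : ∃ J0 : ℤ, (X.filter fun x => zc i0 x.2 = J0).Nonempty ∧
      2 * (((N.filter fun x => zc i0 x.2 = J0).card : ℕ) : ℝ) ≤
        ((X.filter fun x => zc i0 x.2 = J0).card : ℝ) := by
  classical
  by_contra hcon
  push Not at hcon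
  have h1 : X.card = ∑ J ∈ X.image (fun x => zc i0 x.2), (X.filter fun x => zc i0 x.2 = J).card :=
    card_eq_sum_card_image _ _
  have h2 : ∑ J ∈ X.image (fun x => zc i0 x.2), (N.filter fun x => zc i0 x.2 = J).card ≤ N.card := by
    rw [← card_biUnion]
    · exact card_le_card (by
        intro x hx
        obtain ⟨J, hJ, hx⟩ := mem_biUnion.1 hx
        exact (mem_filter.1 hx).1)
    · intro J hJ J' hJ' hne
      rw [Function.onFun, disjoint_left]
      intro x hx hx'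
      exact hne ((mem_filter.1 hx).2.symm.trans (mem_filter.1 hx').2)
  have h3 : (X.card : ℝ) < 2 * (N.card : ℝ) := by
    rw [h1]
    push_cast
    have h4 : ∑ J ∈ X.image (fun x => zc i0 x.2), ((X.filter fun x => zc i0 x.2 = J).card : ℝ) <
        ∑ J ∈ X.image (fun x => zc i0 x.2), 2 * ((N.filter fun x => zc i0 x.2 = J).card : ℝ) := by
      refine sum_lt_sum_of_nonempty (hX.image _) fun J hJ => hcon J ?_
      obtain ⟨x, hx, rfl⟩ := mem_image.1 hJ
      exact ⟨x, mem_filter.2 ⟨hx, rfl⟩⟩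
    rw [← mul_sum] at h4
    refine h4.trans_le (mul_le_mul_of_nonneg_left ?_ zero_le_two)
    exact_mod_cast h2
  linarith

set_option maxHeartbeats 1000000 in
/-- **window sets adapted to heavy strips.** -/
theorem heavy_window {X N : Finset (ℕ × ℝ)} {i0 i1 : ℕ} (hi : i0 ≤ i1)
    (S : (ℕ × ℝ) × ℝ → ℕ × ℝ → Prop) {K1 K2 K2' K3 K4 : ℝ} (hK1 : 0 ≤ K1) (hK2' : 0 ≤ K2')
    (hK3 : 0 ≤ K3) (hK4 : 0 ≤ K4) (hX : X.Nonempty) (hN : 2 * (N.card : ℝ) ≤ X.card)
    (h1 : ∀ x ∈ X, x ∉ N → ∃ a : ℝ, ∃ T : Finset (ℕ × ℝ), T ⊆ cls X (pl i0) x ∧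
      (∀ y ∈ T, S (x, a) y) ∧ K1 ≤ (T.card : ℝ))
    (h2 : ∀ x ∈ X, K2 ≤ ((cls X (pl i0) x).card : ℝ))
    (h2' : ∀ x ∈ X, ((cls X (pl i0) x).card : ℝ) ≤ K2')
    (h3 : ∀ x ∈ X, ((cls X (pl i1) x).card : ℝ) ≤ K3)
    (h4 : ∀ x ∈ X, ((own X i0 i1 x).card : ℝ) ≤ K4) :
    ∃ (I' Y : Finset (ℕ × ℝ)) (J0 : ℤ) (sel : ℕ → (ℕ × ℝ) × ℝ), IsWin X I' i0 i1 J0 ∧
      I'.Nonempty ∧ Y ⊆ I' ∧ (∀ y ∈ Y, S (sel y.1) y) ∧
      K1 * K2 * (I'.card : ℝ) ≤ 2 * K3 * K2' * K4 * (Y.card : ℝ) := by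
  classical
  obtain ⟨J0, hJ0, hJ0'⟩ := exists_cell i0 hX hN
  set Xc := X.filter fun x => zc i0 x.2 = J0 with hXc
  have hXcX : Xc ⊆ X := filter_subset _ _
  have hXcJ : ∀ x ∈ Xc, zc i0 x.2 = J0 := fun x hx => (mem_filter.1 hx).2
  have hcls : ∀ x ∈ Xc, cls X (pl i0) x = Xc.filter fun y => y.1 = x.1 := by
    intro x hx
    ext y
    rw [mem_cls, mem_filter, hXc, mem_filter]
    unfold pl
    rw [Prod.ext_iff]
    simp only
    rw [hXcJ x hx]
    tauto
  set L := Xc.image Prod.fst with hL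
  set Xg := Xc.filter fun x => x ∉ N with hXg
  have hXgc : Xg ⊆ Xc := filter_subset _ _
  set Lg := Xg.image Prod.fst with hLg
  -- sizes of the sets of lines
  have c1 : K2 * (L.card : ℝ) ≤ (Xc.card : ℝ) := by
    refine mul_image_le_card _ _ fun l hl => ?_
    obtain ⟨x, hx, rfl⟩ := mem_image.1 hl
    rw [← hcls x hx]
    exact h2 x (hXcX hx)
  have c2 : (Xg.card : ℝ) ≤ K2' * (Lg.card : ℝ) := by
    refine card_le_mul_image _ _ fun l hl => ?_
    obtain ⟨x, hx, rfl⟩ := mem_image.1 hl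
    refine le_trans ?_ (h2' x (hXcX (hXgc hx)))
    rw [hcls x (hXgc hx)]
    exact_mod_cast card_le_card (filter_subset_filter _ hXgc)
  have c3 : (Xc.card : ℝ) ≤ 2 * (Xg.card : ℝ) := by
    have e1 : Xc.card = Xg.card + (Xc.filter fun x => x ∈ N).card := by
      rw [hXg, add_comm, card_filter_add_card_filter_not]
    have e2 : (Xc.filter fun x => x ∈ N).card ≤ (N.filter fun x => zc i0 x.2 = J0).card := by
      refine card_le_card fun x hx => ?_
      obtain ⟨hx1, hx2⟩ := mem_filter.1 hx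
      exact mem_filter.2 ⟨hx2, hXcJ x hx1⟩
    have e3 : (Xc.card : ℝ) = Xg.card + (Xc.filter fun x => x ∈ N).card := by exact_mod_cast e1
    have e4 : ((Xc.filter fun x => x ∈ N).card : ℝ) ≤
        ((N.filter fun x => zc i0 x.2 = J0).card : ℝ) := by exact_mod_cast e2
    linarith
  -- selection of the strips
  have hsel : ∀ l : ℕ, ∃ (p : (ℕ × ℝ) × ℝ) (T : Finset (ℕ × ℝ)), l ∈ Lg →
      (T ⊆ Xc.filter (fun y => y.1 = l)) ∧ (∀ y ∈ T, S p y) ∧ K1 ≤ (T.card : ℝ) := by
    intro l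
    by_cases hl : l ∈ Lg
    · obtain ⟨x, hx, rfl⟩ := mem_image.1 hl
      obtain ⟨a, T, hT, hT2, hT3⟩ := h1 x (hXcX (hXgc hx)) (mem_filter.1 hx).2
      rw [hcls x (hXgc hx)] at hT
      exact ⟨(x, a), T, fun _ => ⟨hT, hT2, hT3⟩⟩
    · exact ⟨((0, 0), 0), ∅, fun h => absurd h hl⟩
  choose sel T hselT using hsel
  set St := Xc.filter fun y => y.1 ∈ Lg ∧ y ∈ T y.1 with hSt
  have hStc : St ⊆ Xc := filter_subset _ _
  have hStim : St.image Prod.fst ⊆ Lg := by
    intro l hl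
    obtain ⟨y, hy, rfl⟩ := mem_image.1 hl
    exact (mem_filter.1 hy).2.1
  have c4 : K1 * (Lg.card : ℝ) ≤ (St.card : ℝ) := by
    rcases eq_or_lt_of_le hK1 with hK0 | hK0
    · rw [← hK0, zero_mul]; positivity
    have e1 : St.image Prod.fst = Lg := by
      refine Finset.Subset.antisymm hStim fun l hl => ?_
      obtain ⟨t1, t2, t3⟩ := hselT l hl
      have hTne : (T l).Nonempty := by
        rw [← card_pos]
        have : (0 : ℝ) < ((T l).card : ℝ) := hK0.trans_le t3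
        exact_mod_cast this
      obtain ⟨y, hy⟩ := hTne
      obtain ⟨hy1, hy2⟩ := mem_filter.1 (t1 hy)
      refine mem_image.2 ⟨y, mem_filter.2 ⟨hy1, ?_⟩, hy2⟩
      rw [hy2]
      exact ⟨hl, hy⟩
    rw [← e1]
    refine mul_image_le_card _ _ fun l hl => ?_
    rw [e1] at hl
    obtain ⟨t1, t2, t3⟩ := hselT l hl
    refine t3.trans ?_
    have : T l ⊆ St.filter fun x => x.1 = l := by
      intro y hy
      obtain ⟨hy1, hy2⟩ := mem_filter.1 (t1 hy)
      refine mem_filter.2 ⟨mem_filter.2 ⟨hy1, ?_⟩, hy2⟩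
      rw [hy2]
      exact ⟨hl, hy⟩
    exact_mod_cast card_le_card this
  -- representatives
  obtain ⟨T1, hT1, hT1o, hT1f⟩ := exists_rep St i1
  set R := Xc.filter fun x => ¬ ∃ y ∈ St, y.1 = x.1 ∧ zc i1 y.2 = zc i1 x.2 with hR
  obtain ⟨T2, hT2, hT2o, hT2f⟩ := exists_rep R i1
  have hwin : IsWin X (T1 ∪ T2) i0 i1 J0 := by
    refine ⟨fun x hx => ?_, fun x hx => ?_, fun x hx y hy hxy hz => ?_, fun y hy hyJ => ?_⟩
    · rcases mem_union.1 hx with hx | hx
      · exact hXcX (hStc (hT1 hx))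
      · exact hXcX (mem_filter.1 (hT2 hx)).1
    · rcases mem_union.1 hx with hx | hx
      · exact hXcJ x (hStc (hT1 hx))
      · exact hXcJ x (mem_filter.1 (hT2 hx)).1
    · rcases mem_union.1 hx with hx | hx <;> rcases mem_union.1 hy with hy | hy
      · exact hT1o x hx y hy hxy hz
      · exact absurd ⟨x, hT1 hx, hxy, hz⟩ (mem_filter.1 (hT2 hy)).2
      · exact absurd ⟨y, hT1 hy, hxy.symm, hz.symm⟩ (mem_filter.1 (hT2 hx)).2
      · exact hT2o x hx y hy hxy hz
    · have hyc : y ∈ Xc := mem_filter.2 ⟨hy, hyJ⟩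
      by_cases hc : ∃ y' ∈ St, y'.1 = y.1 ∧ zc i1 y'.2 = zc i1 y.2
      · obtain ⟨y', hy', e1, e2⟩ := hc
        obtain ⟨x, hx, e3, e4⟩ := hT1f y' hy'
        exact ⟨x, mem_union_left _ hx, e3.trans e1, e4.trans e2⟩
      · obtain ⟨x, hx, e3, e4⟩ := hT2f y (mem_filter.2 ⟨hyc, hc⟩)
        exact ⟨x, mem_union_right _ hx, e3, e4⟩
  have hcI : ∀ x ∈ T1 ∪ T2, x ∈ Xc := fun x hx => mem_filter.2 ⟨hwin.sub hx, hwin.cell x hx⟩
  refine ⟨T1 ∪ T2, T1, J0, sel, hwin, ?_, subset_union_left, ?_, ?_⟩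
  · obtain ⟨x, hx⟩ := hJ0
    obtain ⟨y, hy, -⟩ := hwin.full x (mem_filter.1 hx).1 (mem_filter.1 hx).2
    exact ⟨y, hy⟩
  · intro y hy
    obtain ⟨h5, h6, h7⟩ := mem_filter.1 (hT1 hy)
    exact (hselT y.1 h6).2.1 y h7
  · -- `|St| ≤ K3 |T1|`
    have c5 : (St.card : ℝ) ≤ K3 * (T1.card : ℝ) := by
      have hle : (St.image (pl i1)).card ≤ T1.card := by
        have : St.image (pl i1) ⊆ T1.image (pl i1) := by
          intro p hp
          obtain ⟨y, hy, rfl⟩ := mem_image.1 hp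
          obtain ⟨x, hx, e3, e4⟩ := hT1f y hy
          exact mem_image.2 ⟨x, hx, Prod.ext e3 e4⟩
        exact (card_le_card this).trans card_image_le
      have h5 : (St.card : ℝ) ≤ K3 * ((St.image (pl i1)).card : ℝ) := by
        refine card_le_mul_image _ _ fun p hp => ?_
        obtain ⟨y, hy, rfl⟩ := mem_image.1 hp
        refine le_trans ?_ (h3 y (hXcX (hStc hy)))
        have : (St.filter fun x => pl i1 x = pl i1 y) ⊆ cls X (pl i1) y := by
          intro x hx
          obtain ⟨hx1, hx2⟩ := mem_filter.1 hx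
          exact mem_cls.2 ⟨hXcX (hStc hx1), hx2⟩
        exact_mod_cast card_le_card this
      exact h5.trans (mul_le_mul_of_nonneg_left (by exact_mod_cast hle) hK3)
    -- `|I'| ≤ K4 |L|`
    have c6 : ((T1 ∪ T2).card : ℝ) ≤ K4 * (L.card : ℝ) := by
      have hle : ((T1 ∪ T2).image Prod.fst).card ≤ L.card := by
        refine card_le_card fun l hl => ?_
        obtain ⟨x, hx, rfl⟩ := mem_image.1 hl
        exact mem_image.2 ⟨x, hcI x hx, rfl⟩
      have h5 : ((T1 ∪ T2).card : ℝ) ≤ K4 * (((T1 ∪ T2).image Prod.fst).card : ℝ) := by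
        refine card_le_mul_image _ _ fun l hl => ?_
        obtain ⟨x, hx, rfl⟩ := mem_image.1 hl
        refine le_trans ?_ (h4 x (hwin.sub hx))
        have h6 : ((T1 ∪ T2).filter fun y => y.1 = x.1).card ≤ (own X i0 i1 x).card := by
          refine card_le_card_of_injOn (fun y => zc i1 y.2) ?_ ?_
          · intro y hy
            obtain ⟨hy1, hy2⟩ := mem_filter.1 (Finset.mem_coe.1 hy)
            unfold own
            refine Finset.mem_coe.2 (mem_image.2 ⟨y, mem_filter.2 ⟨hwin.sub hy1, hy2, ?_⟩, rfl⟩)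
            rw [hwin.cell y hy1, hwin.cell x hx]
          · intro y hy y' hy' hz
            obtain ⟨hy1, hy2⟩ := mem_filter.1 (Finset.mem_coe.1 hy)
            obtain ⟨hy1', hy2'⟩ := mem_filter.1 (Finset.mem_coe.1 hy')
            exact hwin.one y hy1 y' hy1' (hy2.trans hy2'.symm) hz
        exact_mod_cast h6
      exact h5.trans (mul_le_mul_of_nonneg_left (by exact_mod_cast hle) hK4)
    have hLg0 : (0 : ℝ) ≤ (Lg.card : ℝ) := by positivity
    rcases le_or_gt K2 0 with hK2 | hK2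
    · have h5 : K1 * K2 * ((T1 ∪ T2).card : ℝ) ≤ 0 :=
        mul_nonpos_of_nonpos_of_nonneg (mul_nonpos_of_nonneg_of_nonpos hK1 hK2) (by positivity)
      have h6 : 0 ≤ 2 * K3 * K2' * K4 * (T1.card : ℝ) := by positivity
      linarith
    calc K1 * K2 * ((T1 ∪ T2).card : ℝ) ≤ K1 * K2 * (K4 * (L.card : ℝ)) :=
          mul_le_mul_of_nonneg_left c6 (mul_nonneg hK1 hK2.le)
      _ = K1 * K4 * (K2 * (L.card : ℝ)) := by ring
      _ ≤ K1 * K4 * (2 * (K2' * (Lg.card : ℝ))) := by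
          exact mul_le_mul_of_nonneg_left (c1.trans (c3.trans
            (mul_le_mul_of_nonneg_left c2 zero_le_two))) (mul_nonneg hK1 hK4)
      _ = 2 * K2' * K4 * (K1 * (Lg.card : ℝ)) := by ring
      _ ≤ 2 * K2' * K4 * (K3 * (T1.card : ℝ)) :=
          mul_le_mul_of_nonneg_left (c4.trans c5) (by positivity)
      _ = _ := by ring

end Crest.Agent.R116.Rm899
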