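import Mathlib
import Crest.Agent.R116.Rl5_899
import Crest.Agent.R116.Rm3_899

/-!
# R116, [ROT-LIN] (helper899): second zoom of the light-ray chart, linear modulus

`natL2` : 627's `TSys.natT` in the light-ray chart.  The output is `NatT` for the flags in a gauge `cc`
constant on lines (`cc = 0` if `β 1 ≠ 0`), and for `β 1 = 0` (then `β 2 = 1`) the slot `E` is invisible
or **strongly twisted with a linear modulus** (`STwL2`): an affine function of the height fits at most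
a `d^(γ0 (r - u) - ε)`-part of a (line, cell of level `u`) up to `sc d^r`.
-/

set_option autoImplicit false
set_option linter.unusedVariables false
set_option linter.unusedSectionVars false

open Finset Filter Topology

namespace Crest.Agent.R116.Rm899

open Crest.Agent.R138.Ex926 (Base U)
open Crest.Agent.R138.Dp76
open Crest.Agent.R138.Ps926
open Crest.Agent.R138.Mk163 (zc zl rho alive own Negl)
open Crest.Agent.R138.MkRef774 (pl)
open Crest.Agent.R136.MkA627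
open Crest.Agent.R136.TD627
open Crest.Agent.R116.ChL222
open Crest.Agent.R116.Rl899

variable {σ κ : Type*}

/-- **strong twist of the slot `E` with a linear modulus**: relative to every affine function of the
height. -/
def STwL2 (B : Base) (I : ℕ → Finset (ℕ × ℝ)) (lev : ℕ → ℚ → ℕ) (fl : ℕ → ℕ × ℝ → LInc)
    (sc : ℕ → ℝ) : Prop :=
  ∃ γ0 : ℝ, 0 < γ0 ∧ ∀ u r : ℚ, 0 ≤ u → u < r → r ≤ 1 → ∀ ε : ℝ, 0 < ε →
    ∀ᶠ n in (U : Filter ℕ), ∀ x ∈ I n, ∀ c : ℝ,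
      ((((I n).filter fun y => y.1 = x.1 ∧ zc (lev n u) y.2 = zc (lev n u) x.2 ∧
          |coL (fl n x) (fl n y) 2 - c * (y.2 - x.2)| ≤ sc n * B.d n ^ (r : ℝ)).card : ℕ) : ℝ) ≤
        B.d n ^ (γ0 * ((r : ℝ) - u) - ε) * ((own (I n) (lev n u) (lev n 1) x).card : ℝ)

theorem STw2.toL {B : Base} {I : ℕ → Finset (ℕ × ℝ)} {lev : ℕ → ℚ → ℕ} {fl : ℕ → ℕ × ℝ → LInc}
    {sc : ℕ → ℝ} (h : STw2 B I lev (fun n x => gfL (fl n x)) sc)
    (hfl : ∀ᶠ n in (U : Filter ℕ), ∀ x ∈ I n, ∀ y ∈ I n, y.1 = x.1 → SameL (fl n x) (fl n y)) :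
    STwL2 B I lev fl sc := by
  classical
  obtain ⟨γ0, hγ0, h⟩ := h
  refine ⟨γ0, hγ0, fun u r h0 hur h1 ε hε => ?_⟩
  filter_upwards [h u r h0 hur h1 ε hε, hfl] with n a1 a2 x hx c
  refine le_trans ?_ (a1 x hx c)
  have : ((I n).filter fun y => y.1 = x.1 ∧ zc (lev n u) y.2 = zc (lev n u) x.2 ∧
          |coL (fl n x) (fl n y) 2 - c * (y.2 - x.2)| ≤ sc n * B.d n ^ (r : ℝ)) ⊆
      (I n).filter fun y => y.1 = x.1 ∧ zc (lev n u) y.2 = zc (lev n u) x.2 ∧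
          |dev (fun n x => gfL (fl n x)) n x c y| ≤ sc n * B.d n ^ (r : ℝ) := by
    intro y hy
    obtain ⟨hy1, hy2, hy3, hy4⟩ := mem_filter.1 hy
    refine mem_filter.2 ⟨hy1, hy2, hy3, ?_⟩
    rw [coL_two (a2 x hx y hy1 hy2)] at hy4
    exact hy4
  exact_mod_cast card_le_card this

/-- the linear modulus implies the strong twist at all scales -/
theorem STwL2.toSTwL {B : Base} {I : ℕ → Finset (ℕ × ℝ)} {lev : ℕ → ℚ → ℕ}
    {fl : ℕ → ℕ × ℝ → LInc} {sc : ℕ → ℝ} (hsc : ∀ n, 0 < sc n) (h : STwL2 B I lev fl sc) :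
    STwL B I lev fl sc 1 := by
  classical
  obtain ⟨γ0, hγ0, h⟩ := h
  intro u h0 h1 r hr
  have h1' : (u : ℝ) < 1 := by exact_mod_cast h1
  rw [one_mul] at hr
  obtain ⟨q, hq1, hq2⟩ := exists_rat_btwn (show (u : ℝ) < min r 1 from lt_min hr h1')
  have hq3 : (q : ℝ) < r := hq2.trans_le (min_le_left _ _)
  have hq4 : (q : ℝ) ≤ 1 := (hq2.trans_le (min_le_right _ _)).le
  refine ⟨γ0 * ((q : ℝ) - u) / 2, by
    have : 0 < (q : ℝ) - u := by linarith
    positivity, ?_⟩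
  have hp : 0 < γ0 * ((q : ℝ) - u) / 2 := by
    have : 0 < (q : ℝ) - u := by linarith
    positivity
  filter_upwards [h u q h0 (by exact_mod_cast hq1) (by exact_mod_cast hq4)
    (γ0 * ((q : ℝ) - u) / 2) hp] with n a1 x hx c
  have e1 : γ0 * ((q : ℝ) - u) - γ0 * ((q : ℝ) - u) / 2 = γ0 * ((q : ℝ) - u) / 2 := by ring
  have a2 := a1 x hx c
  rw [e1] at a2
  refine le_trans ?_ a2
  have : ((I n).filter fun y => y.1 = x.1 ∧ zc (lev n u) y.2 = zc (lev n u) x.2 ∧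
          |coL (fl n x) (fl n y) 2 - c * (y.2 - x.2)| ≤ sc n * B.d n ^ r) ⊆
      (I n).filter fun y => y.1 = x.1 ∧ zc (lev n u) y.2 = zc (lev n u) x.2 ∧
          |coL (fl n x) (fl n y) 2 - c * (y.2 - x.2)| ≤ sc n * B.d n ^ (q : ℝ) := by
    intro y hy
    obtain ⟨hy1, hy2, hy3, hy4⟩ := mem_filter.1 hy
    refine mem_filter.2 ⟨hy1, hy2, hy3, hy4.trans ?_⟩
    exact mul_le_mul_of_nonneg_left (dpow_le B n hq3.le) (hsc n).le
  exact_mod_cast card_le_card this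

/-- output of the second zoom in the light-ray chart -/
def NatL2 (P : TDist LInc 12) (G : Geo σ κ) (g s : ℝ) (θ : κ → ℝ) (β C0 : Fin 12 → ℝ)
    (fl : ℕ → ℕ × ℝ → LInc) (B : Base) (I : ℕ → Finset (ℕ × ℝ)) (lev : ℕ → ℚ → ℕ)
    (f : ℕ → ℚ → ℕ → ℤ → ℕ) (b : ℕ → ℚ → ℕ → σ) (vm : ℕ → ℚ → ℝ) (w : κ → ℕ → ℚ → ℝ)
    (fr : ℕ → ℚ → ℕ × ℝ → LInc) (pr : Fin 12 → ℕ → ℚ → ℝ) : Prop :=
  ∃ (H : ℕ → ℝ) (mm : ℕ → ℚ → ℚ) (B' : Base) (I' : ℕ → Finset (ℕ × ℝ)) (A' : ℕ → ℝ)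
    (sc' : Fin 12 → ℕ → ℝ) (cc : ℕ → ℕ → ℝ), (∀ n, 0 < H n ∧ H n ≤ 1) ∧
    (∀ n, ∀ x : ℚ, 0 ≤ x → x ≤ 1 → 0 ≤ mm n x ∧ mm n x ≤ 1) ∧
    (∀ n, ∀ x y : ℚ, (mm n y : ℝ) - mm n x = H n * ((y : ℝ) - x)) ∧
    (∀ n, B'.d n = B.d n ^ H n) ∧ (∀ᶠ n in (U : Filter ℕ), I' n ⊆ I n) ∧
    (β 1 ≠ 0 → cc = fun _ _ => 0) ∧
    TSys P G g s θ β B' I' (fun n x => lev n (mm n x)) A' (fun n x => f n (mm n x))
      (fun n x => b n (mm n x)) (fun n x => vm n (mm n x)) (fun j n x => w j n (mm n x))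
      (fun n x => fr n (mm n x)) (fun j n x => pr j n (mm n x)) (rg cc fl) sc' ∧
    Slack P β B' sc' ∧
    (∀ j, InvT P B' I' j (rg cc fl) (sc' j) ∨
      (0 < β j ∧ RotT P B' I' (fun n x => lev n (mm n x)) j (rg cc fl) (sc' j) (C0 j)
        (fun u => β j * u)) ∨
      (0 < β j ∧ ∃ a ∈ P.M.mon j, ∑ t, (a t : ℝ) * β t = β j ∧
        ∀ t, a t ≠ 0 → ¬ InvT P B' I' t (rg cc fl) (sc' t))) ∧
    (β 1 = 0 → InvT P B' I' 2 (rg cc fl) (sc' 2) ∨
      STwL2 B' I' (fun n x => lev n (mm n x)) (rg cc fl) (sc' 2))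

section

variable {P : TDist LInc 12} {G : Geo σ κ} {g s : ℝ} {θ : κ → ℝ} {β C0 : Fin 12 → ℝ}
    {B : Base} {I : ℕ → Finset (ℕ × ℝ)} {lev : ℕ → ℚ → ℕ} {A : ℕ → ℝ}
    {f : ℕ → ℚ → ℕ → ℤ → ℕ} {b : ℕ → ℚ → ℕ → σ} {vm : ℕ → ℚ → ℝ} {w : κ → ℕ → ℚ → ℝ}
    {fr : ℕ → ℚ → ℕ × ℝ → LInc} {pr : Fin 12 → ℕ → ℚ → ℝ} {fl : ℕ → ℕ × ℝ → LInc}
    {sc : Fin 12 → ℕ → ℝ}

/-- composition of windows and gauges -/
theorem NatL2.comp {B1 : Base} {I1 : ℕ → Finset (ℕ × ℝ)} {H1 : ℕ → ℝ} {m1 : ℕ → ℚ → ℚ}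
    {c1 : ℕ → ℕ → ℝ} (hc : β 1 ≠ 0 → c1 = fun _ _ => 0)
    (hH : ∀ n, 0 < H1 n ∧ H1 n ≤ 1) (hm : ∀ n, ∀ x : ℚ, 0 ≤ x → x ≤ 1 → 0 ≤ m1 n x ∧ m1 n x ≤ 1)
    (hq : ∀ n, ∀ x y : ℚ, (m1 n y : ℝ) - m1 n x = H1 n * ((y : ℝ) - x))
    (hB : ∀ n, B1.d n = B.d n ^ H1 n) (hI : ∀ᶠ n in (U : Filter ℕ), I1 n ⊆ I n)
    (h : NatL2 P G g s θ β C0 (rg c1 fl) B1 I1 (fun n x => lev n (m1 n x)) (fun n x => f n (m1 n x))
      (fun n x => b n (m1 n x)) (fun n x => vm n (m1 n x)) (fun j n x => w j n (m1 n x))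
      (fun n x => fr n (m1 n x)) (fun j n x => pr j n (m1 n x))) :
    NatL2 P G g s θ β C0 fl B I lev f b vm w fr pr := by
  obtain ⟨H2, m2, B2, I2, A2, sc2, c2, h1, h2, h3, h4, h5, hc2, h6, h7, h8, h9⟩ := h
  rw [rg_rg] at h6 h8 h9
  refine ⟨fun n => H1 n * H2 n, fun n x => m1 n (m2 n x), B2, I2, A2, sc2,
    fun n l => c1 n l + c2 n l, fun n => ⟨?_, ?_⟩,
    fun n x hx0 hx1 => ?_, fun n x y => ?_, fun n => ?_, ?_, fun hβ => ?_, h6, h7, h8, h9⟩
  · exact mul_pos (hH n).1 (h1 n).1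
  · exact mul_le_one₀ (hH n).2 (h1 n).1.le (h1 n).2
  · exact hm n _ (h2 n x hx0 hx1).1 (h2 n x hx0 hx1).2
  · rw [hq, h3]; ring
  · rw [h4, hB, ← Real.rpow_mul (B.pos n).le]
  · filter_upwards [hI, h5] with n a1 a2 using a2.trans a1
  · rw [hc hβ, hc2 hβ]
    funext n l
    simp

theorem NatL2.mono {J : ℕ → Finset (ℕ × ℝ)} (hJ : ∀ᶠ n in (U : Filter ℕ), J n ⊆ I n)
    (h : NatL2 P G g s θ β C0 fl B J lev f b vm w fr pr) :
    NatL2 P G g s θ β C0 fl B I lev f b vm w fr pr :=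
  NatL2.comp (H1 := fun _ => 1) (m1 := fun _ x => x) (c1 := fun _ _ => 0) (fun _ => rfl)
    (fun _ => ⟨one_pos, le_rfl⟩)
    (fun n x h0 h1 => ⟨h0, h1⟩) (fun n x y => by ring) (fun n => by rw [Real.rpow_one]) hJ
    (by rw [rg_zero]; exact h)

/-- composition of windows, same gauge -/
theorem NatL2.comp0 {B1 : Base} {I1 : ℕ → Finset (ℕ × ℝ)} {H1 : ℕ → ℝ} {m1 : ℕ → ℚ → ℚ}
    (hH : ∀ n, 0 < H1 n ∧ H1 n ≤ 1) (hm : ∀ n, ∀ x : ℚ, 0 ≤ x → x ≤ 1 → 0 ≤ m1 n x ∧ m1 n x ≤ 1)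
    (hq : ∀ n, ∀ x y : ℚ, (m1 n y : ℝ) - m1 n x = H1 n * ((y : ℝ) - x))
    (hB : ∀ n, B1.d n = B.d n ^ H1 n) (hI : ∀ᶠ n in (U : Filter ℕ), I1 n ⊆ I n)
    (h : NatL2 P G g s θ β C0 fl B1 I1 (fun n x => lev n (m1 n x)) (fun n x => f n (m1 n x))
      (fun n x => b n (m1 n x)) (fun n x => vm n (m1 n x)) (fun j n x => w j n (m1 n x))
      (fun n x => fr n (m1 n x)) (fun j n x => pr j n (m1 n x))) :
    NatL2 P G g s θ β C0 fl B I lev f b vm w fr pr :=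
  NatL2.comp (c1 := fun _ _ => 0) (fun _ => rfl) hH hm hq hB hI (by rw [rg_zero]; exact h)

/-- **second zoom of the light-ray chart** (induction on the number of visible slots) -/
theorem exists_natL2 [Countable κ] (hP : ∀ k n a b, P.d k n a b = |coL a b k|)
    (hM : ∀ a ∈ P.M.mon 2, a 1 ≠ 0) (hβ1 : β 1 = 0 → β 2 = 1)
    (hC : ∀ j, β j ≤ C0 j) :
    ∀ (N : ℕ) (B : Base) (I : ℕ → Finset (ℕ × ℝ)) (lev : ℕ → ℚ → ℕ) (A : ℕ → ℝ)
      (f : ℕ → ℚ → ℕ → ℤ → ℕ) (b : ℕ → ℚ → ℕ → σ) (vm : ℕ → ℚ → ℝ) (w : κ → ℕ → ℚ → ℝ)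
      (fr : ℕ → ℚ → ℕ × ℝ → LInc) (pr : Fin 12 → ℕ → ℚ → ℝ) (fl : ℕ → ℕ × ℝ → LInc)
      (sc : Fin 12 → ℕ → ℝ),
      TSys P G g s θ β B I lev A f b vm w fr pr fl sc → Slack P β B sc →
      (∀ j, InvT P B I j fl (sc j) ∨ 0 < β j) →
      (∀ n (v : ℚ), pr 2 n v = rho (lev n v) * pr 1 n v) → FlOK I fl →
      {j | ¬ InvT P B I j fl (sc j)}.ncard ≤ N →
      NatL2 P G g s θ β C0 fl B I lev f b vm w fr pr := by
  classical
  intro N
  induction N with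
  | zero =>
    intro B I lev A f b vm w fr pr fl sc h hsl hβ hpu hfl hN
    have hall : ∀ j, InvT P B I j fl (sc j) := by
      intro j
      by_contra hcon
      have h1 : {j | ¬ InvT P B I j fl (sc j)}.ncard = 0 := Nat.le_zero.1 hN
      rw [Set.ncard_eq_zero (Set.toFinite _)] at h1
      have : j ∈ {j | ¬ InvT P B I j fl (sc j)} := hcon
      rw [h1] at this
      exact this
    refine ⟨fun _ => 1, fun _ x => x, B, I, A, sc, fun _ _ => 0, fun n => ⟨one_pos, le_rfl⟩,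
      fun n x h0 h1 => ⟨h0, h1⟩, fun n x y => by ring, fun n => by rw [Real.rpow_one],
      Eventually.of_forall fun n => Finset.Subset.refl _, fun _ => rfl, ?_⟩
    rw [rg_zero]
    exact ⟨h, hsl, fun j => Or.inl (hall j), fun _ => Or.inl (hall 2)⟩
  | succ N ih =>
    intro B I lev A f b vm w fr pr fl sc h hsl hβ hpu hfl hN
    obtain ⟨J, R, hd, hS, hR⟩ := h.exists_rots hβ hsl hC
    have hInvJ : ∀ j, InvT P B I j fl (sc j) → InvT P B J j fl (sc j) :=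
      fun j hj => hj.dense hd
    have hβJ : ∀ j, InvT P B J j fl (sc j) ∨ 0 < β j := fun j => (hβ j).imp (hInvJ j) id
    have hflJ : FlOK J fl := hfl.sub hd.1
    by_cases hV : ∃ j1, ¬ InvT P B I j1 fl (sc j1) ∧ InvT P B J j1 fl (sc j1)
    · obtain ⟨j1, hj1, hj1'⟩ := hV
      refine NatL2.mono hd.1 (ih B J lev A f b vm w fr pr fl sc hS hsl hβJ hpu hflJ ?_)
      have := ncard_lt hInvJ hj1 hj1'
      omega
    push Not at hV
    by_cases hA : ∀ j, InvT P B J j fl (sc j) ∨ ¬ Free P β B I fl sc j ∨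
        ∀ u : ℚ, 0 ≤ u → u < 1 → R j u = β j * u
    · by_cases hE : β 1 = 0 ∧ ¬ InvT P B J 2 fl (sc 2)
      · -- the slot `E` is tied
        obtain ⟨hβD, hE⟩ := hE
        have hβE : 0 < β 2 := (hβJ 2).resolve_left hE
        have hD : InvT P B I 1 fl (sc 1) := hfl.invD hP (h.scpos 1)
        have hfE : Free P β B I fl sc 2 := fun a ha => Or.inr ⟨1, hM a ha, hD⟩
        obtain ⟨r1, r2⟩ := hR 2 hβE hfE
        have r3 := ((hA 2).resolve_left hE).resolve_left (not_not.2 hfE)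
        have hrot := r1.lin hβE.le (hC 2) r2 r3
        have hs : s < 1 := s_lt hS hβE (hC 2) hrot
        obtain ⟨J2, hJ2d, hS2, hdich⟩ := exists_linmod hS (jE := 2) (hβ1 hβD)
          (fun n x => gfL (fl n x))
        have hJI : Dense B J2 I := hJ2d.trans hd
        have hInv2 : ∀ j, InvT P B I j fl (sc j) → InvT P B J2 j fl (sc j) :=
          fun j hj => hj.dense hJI
        have hfl2 : FlOK J2 fl := hfl.sub hJI.1
        have hβ2 : ∀ j, InvT P B J2 j fl (sc j) ∨ 0 < β j := fun j => (hβ j).imp (hInv2 j) id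
        by_cases hV2 : ∃ j1, ¬ InvT P B I j1 fl (sc j1) ∧ InvT P B J2 j1 fl (sc j1)
        · obtain ⟨j1, hj1, hj1'⟩ := hV2
          refine NatL2.mono hJI.1 (ih B J2 lev A f b vm w fr pr fl sc hS2 hsl hβ2 hpu hfl2 ?_)
          have := ncard_lt hInv2 hj1 hj1'
          omega
        push Not at hV2
        rcases hdich with hst | hwa
        swap
        · -- one more zoom and a change of gauge
          obtain ⟨H3, m3, B3, I3, A3, sc3, a3, g1, g2, g3, g4, g5, g6, g7, g8, g9⟩ := hwa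
          have hfl3 : FlOK I3 fl := hfl2.sub g5
          obtain ⟨H, mm, B', I', A', sc', cc, h1, h2, h3, h4, h5, h6, h7, h8, h9⟩ :=
            regauge hP g6 (g9 hsl) hs hβD hβE (fun n v => hpu n _) hfl3.1 hfl3.2 (u := 0) (r := 1)
              le_rfl one_pos (by rw [Rat.cast_zero, mul_zero, Rat.cast_one]; exact one_pos) g7
          refine NatL2.comp0 g1 g2 g3 g4
            (by filter_upwards [g5, hJI.1] with n a1 a2 using a1.trans a2)
            (NatL2.comp (fun hh => absurd hβD hh) h1 h2 h3 h4 h5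
            (ih B' I' _ A' _ _ _ _ _ _ (rg cc fl) sc' h6 h7
              (fun j => (hβ2 j).imp (fun hj => h9 j (g8 j hj)) id) (fun n v => hpu n _)
              ((hfl3.sub h5).rg cc) ?_))
          have := ncard_lt (P := P) (fun j hj => h9 j (g8 j (hInv2 j hj)))
            (fun hh => hE (hInvJ 2 hh)) h8
          omega
        · refine ⟨fun _ => 1, fun _ x => x, B, J2, A, sc, fun _ _ => 0, fun n => ⟨one_pos, le_rfl⟩,
            fun n x h0 h1 => ⟨h0, h1⟩, fun n x y => by ring, fun n => by rw [Real.rpow_one],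
            hJI.1, fun _ => rfl, ?_⟩
          rw [rg_zero]
          refine ⟨hS2, hsl, fun j => ?_, fun _ => Or.inr (hst.toL hfl2.1)⟩
          by_cases hj : InvT P B J2 j fl (sc j)
          · exact Or.inl hj
          have hβj : 0 < β j := (hβ2 j).resolve_left hj
          have hjJ : ¬ InvT P B J j fl (sc j) := fun hh => hj (hh.dense hJ2d)
          by_cases hf : Free P β B I fl sc j
          · obtain ⟨k1, k2⟩ := hR j hβj hf
            have k3 := ((hA j).resolve_left hjJ).resolve_left (not_not.2 hf)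
            exact Or.inr (Or.inl ⟨hβj, (k1.lin hβj.le (hC j) k2 k3).dense hS.mka hS2.mka hJ2d⟩)
          · unfold Free at hf
            push Not at hf
            obtain ⟨a, ha, hle, hinv⟩ := hf
            refine Or.inr (Or.inr ⟨hβj, a, ha, hle, fun t ht => ?_⟩)
            exact hV2 t (hinv t ht)
      · refine ⟨fun _ => 1, fun _ x => x, B, J, A, sc, fun _ _ => 0, fun n => ⟨one_pos, le_rfl⟩,
          fun n x h0 h1 => ⟨h0, h1⟩, fun n x y => by ring, fun n => by rw [Real.rpow_one],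
          hd.1, fun _ => rfl, ?_⟩
        rw [rg_zero]
        refine ⟨hS, hsl, fun j => ?_, fun h0 => Or.inl ?_⟩
        · by_cases hj : InvT P B J j fl (sc j)
          · exact Or.inl hj
          have hβj : 0 < β j := (hβJ j).resolve_left hj
          by_cases hf : Free P β B I fl sc j
          · obtain ⟨h1, h2⟩ := hR j hβj hf
            have h3 := ((hA j).resolve_left hj).resolve_left (not_not.2 hf)
            exact Or.inr (Or.inl ⟨hβj, h1.lin hβj.le (hC j) h2 h3⟩)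
          · unfold Free at hf
            push Not at hf
            obtain ⟨a, ha, hle, hinv⟩ := hf
            refine Or.inr (Or.inr ⟨hβj, a, ha, hle, fun t ht => ?_⟩)
            exact hV t (hinv t ht)
        · by_contra hcon
          exact hE ⟨h0, hcon⟩
    · push Not at hA
      obtain ⟨j0, hj0, hf0, hA⟩ := hA
      have hβ0 : 0 < β j0 := (hβJ j0).resolve_left hj0
      obtain ⟨u0, hu0, hu1, hne⟩ := hA
      obtain ⟨hR0, hR1⟩ := hR j0 hβ0 hf0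
      have hu0' : (0 : ℝ) ≤ u0 := by exact_mod_cast hu0
      have hu1' : (u0 : ℝ) < 1 := by exact_mod_cast hu1
      have hlt : β j0 * u0 < R j0 u0 := lt_of_le_of_ne (hR1 u0 hu0' hu1'.le) (Ne.symm hne)
      set D : ℝ := R j0 u0 - β j0 * u0 with hDdef
      have hD : 0 < D := by rw [hDdef]; linarith
      set δ : ℝ := min (D / (2 * β j0)) (1 - u0) with hδdef
      have hδ : 0 < δ := lt_min (by positivity) (by linarith)
      have hδ1 : δ ≤ D / (2 * β j0) := min_le_left _ _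
      have hδ2 : δ ≤ 1 - u0 := min_le_right _ _
      have hgap : ∀ᶠ v in 𝓝 ((u0 : ℝ) + δ / 2), β j0 * v + D / 2 ≤ R j0 v := by
        have hmem : Set.Ioo (u0 : ℝ) (u0 + δ) ∈ 𝓝 ((u0 : ℝ) + δ / 2) :=
          Ioo_mem_nhds (by linarith) (by linarith)
        filter_upwards [hmem] with v hv
        have c1 : R j0 u0 ≤ R j0 v := hR0.mono ⟨hu0', hu1'.le⟩ ⟨by linarith [hv.1], by
          linarith [hv.2]⟩ hv.1.le
        have c2 : β j0 * (v - u0) ≤ β j0 * (D / (2 * β j0)) :=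
          mul_le_mul_of_nonneg_left (by linarith [hv.2]) hβ0.le
        have c3 : β j0 * (D / (2 * β j0)) = D / 2 := by field_simp
        rw [c3] at c2
        have c4 : β j0 * (v - u0) = β j0 * v - β j0 * u0 := by ring
        rw [c4] at c2
        linarith
      obtain ⟨H, mm, B', I', A', sc', h1, h2, h3, h4, h5, h6, h7, h8, h9⟩ :=
        hS.zoom_gap hsl (v0 := (u0 : ℝ) + δ / 2) hR0 (by linarith) (by linarith)
          (D := D / 2) (by positivity) hgap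
      refine NatL2.comp0 h1 h2 h3 h4 (by filter_upwards [h5, hd.1] with n a1 a2 using a1.trans a2)
        (ih B' I' _ A' _ _ _ _ _ _ fl sc' h6 h7 (fun j => (hβJ j).imp (h9 j) id)
          (fun n v => hpu n _) (hflJ.sub h5) ?_)
      have := ncard_lt (P := P) (fun j hj => h9 j (hInvJ j hj)) (fun hh => hj0 (hInvJ j0 hh)) h8
      omega

/-- **second zoom of the light-ray chart**, user form. -/
theorem natL2 [Countable κ] (hP : ∀ k n a b, P.d k n a b = |coL a b k|)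
    (hM : ∀ a ∈ P.M.mon 2, a 1 ≠ 0) (hβ1 : β 1 = 0 → β 2 = 1)
    (hC : ∀ j, β j ≤ C0 j) (h : TSys P G g s θ β B I lev A f b vm w fr pr fl sc)
    (hβ : ∀ j, InvT P B I j fl (sc j) ∨ 0 < β j)
    (hpu : ∀ n (v : ℚ), pr 2 n v = rho (lev n v) * pr 1 n v) (hfl : β 1 = 0 → FlOK I fl) :
    NatL2 P G g s θ β C0 fl B I lev f b vm w fr pr := by
  by_cases hβD : β 1 = 0
  · obtain ⟨H, mm, B', I', A', sc', h1, h2, h3, h4, h5, h6, h7, h8⟩ := h.zoom_slack
    exact NatL2.comp0 h1 h2 h3 h4 h5 (exists_natL2 hP hM hβ1 hC _ B' I' _ A' _ _ _ _ _ _ fl sc' h6 h7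
      (fun j => (hβ j).imp (h8 j) id) (fun n v => hpu n _) ((hfl hβD).sub h5) le_rfl)
  · obtain ⟨H, mm, B', I', A', sc', h1, h2, h3, h4, h5, h6, h7, h8⟩ := h.natT hβ hC
    refine ⟨H, mm, B', I', A', sc', fun _ _ => 0, h1, h2, h3, h4, h5, fun _ => rfl, ?_⟩
    rw [rg_zero]
    exact ⟨h6, h7, h8, fun h0 => absurd h0 hβD⟩

/-- `NatL2` is `NatT` for a change of gauge -/
theorem NatL2.toNatT (h : NatL2 P G g s θ β C0 fl B I lev f b vm w fr pr) :
    ∃ cc : ℕ → ℕ → ℝ, NatT P G g s θ β C0 (rg cc fl) B I lev f b vm w fr pr := by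
  obtain ⟨H2, m2, B2, I2, A2, sc2, c2, h1, h2, h3, h4, h5, hc2, h6, h7, h8, h9⟩ := h
  exact ⟨c2, H2, m2, B2, I2, A2, sc2, h1, h2, h3, h4, h5, h6, h7, h8⟩

end

end Crest.Agent.R116.Rm899
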