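import Mathlib
import Crest.Agent.R116.Rl2_899
import Crest.Agent.R116.Rm2_899

/-!
# R116, [ROT-LIN] (helper899): linear modulus for a general family of sub-fibres

`mem n t (x, a) y` : `y` lies in the strip `(x, a)` at precision `t`.  `exists_linmodG` : on a dense
marked part either the share of the heaviest strip of precision `ρ r` in a (line, cell of level `u`) is
at most `d^(γ0 (r - u) - ε)` for all rational `u < r ≤ 1` (`ModG`), or there is a sequence of windows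
`[u_k, r_k]` on which every line lies in one strip of precision `ρ r_k` (`WinG`).
-/

set_option autoImplicit false
set_option linter.unusedVariables false
set_option linter.unusedSectionVars false

open Finset Filter Topology

namespace Crest.Agent.R116.Rn899

open Crest.Agent.R138.Ex926
open Crest.Agent.R138.Dp76
open Crest.Agent.R138.Ps926
open Crest.Agent.R138.Mk163 (zc zl rho alive own Negl)
open Crest.Agent.R138.MkRef774 (pl nu nu_pos)
open Crest.Agent.R138.Rot76 (al nu_eq)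
open Crest.Agent.R138.MkZoom779 (IsWin exists_rep exists_win)
open Crest.Agent.R136.MkA627
open Crest.Agent.R136.ExR779 (line_cell)
open Crest.Agent.R136.TD627
open Crest.Agent.R116.Rm899 (heavy_window zoomW)

/-- families of strips -/
abbrev Strp := ℕ → ℝ → (ℕ × ℝ) × ℝ → ℕ × ℝ → Prop

section phi

variable {σ κ : Type*} {B : Base} {I : ℕ → Finset (ℕ × ℝ)} {G : Geo σ κ}
    {lev : ℕ → ℚ → ℕ} {A : ℕ → ℝ} {c Λ : ℝ → ℝ} {τ : κ → ℝ → ℝ} {f : ℕ → ℚ → ℕ → ℤ → ℕ}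
    {b : ℕ → ℚ → ℕ → σ} {vm : ℕ → ℚ → ℝ} {w : κ → ℕ → ℚ → ℝ} {mem : Strp}

open Classical in
/-- incidences of `J` in the (line, cell) of `x` in the strip `(x, a)` -/
noncomputable def cntG (mem : Strp) (lev : ℕ → ℚ → ℕ) (u : ℚ) (t : ℝ) (n : ℕ)
    (J : Finset (ℕ × ℝ)) (x : ℕ × ℝ) (a : ℝ) : ℕ :=
  ((cls J (pl (lev n u)) x).filter fun y => mem n t (x, a) y).card

/-- the set of all such numbers -/
def setG (mem : Strp) (lev : ℕ → ℚ → ℕ) (u : ℚ) (t : ℝ) (n : ℕ) (J : Finset (ℕ × ℝ)) : Set ℕ :=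
  {k | ∃ x ∈ J, ∃ a : ℝ, k = cntG mem lev u t n J x a}

/-- the largest such number -/
noncomputable def PhiG (mem : Strp) (lev : ℕ → ℚ → ℕ) (u : ℚ) (t : ℝ) (n : ℕ)
    (J : Finset (ℕ × ℝ)) : ℝ := ((sSup (setG mem lev u t n J) : ℕ) : ℝ)

theorem cntG_le_cls {u : ℚ} {t : ℝ} {n : ℕ} {J : Finset (ℕ × ℝ)} (x : ℕ × ℝ) (a : ℝ) :
    cntG mem lev u t n J x a ≤ (cls J (pl (lev n u)) x).card := by
  classical
  unfold cntG
  exact card_le_card (filter_subset _ _)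

theorem setG_bdd (u : ℚ) (t : ℝ) (n : ℕ) (J : Finset (ℕ × ℝ)) : BddAbove (setG mem lev u t n J) := by
  refine ⟨J.card, ?_⟩
  rintro k ⟨x, hx, a, rfl⟩
  exact (cntG_le_cls x a).trans (card_le_card (filter_subset _ _))

theorem cntG_le_PhiG {u : ℚ} {t : ℝ} {n : ℕ} {J : Finset (ℕ × ℝ)} {x : ℕ × ℝ} (hx : x ∈ J)
    (a : ℝ) : (cntG mem lev u t n J x a : ℝ) ≤ PhiG mem lev u t n J := by
  unfold PhiG
  exact_mod_cast le_csSup (setG_bdd u t n J) ⟨x, hx, a, rfl⟩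

theorem PhiG_le {u : ℚ} {t : ℝ} {n : ℕ} {J : Finset (ℕ × ℝ)} {X : ℝ} (hX : 0 ≤ X)
    (h : ∀ x ∈ J, ∀ a : ℝ, (cntG mem lev u t n J x a : ℝ) ≤ X) : PhiG mem lev u t n J ≤ X := by
  unfold PhiG
  rcases (setG mem lev u t n J).eq_empty_or_nonempty with h0 | h0
  · rw [h0, csSup_empty]
    simpa using hX
  · obtain ⟨x, hx, a, e⟩ := Nat.sSup_mem h0 (setG_bdd u t n J)
    rw [e]
    exact h x hx a

theorem cntG_mono {u : ℚ} {t : ℝ} {n : ℕ} {J J' : Finset (ℕ × ℝ)} (h : J ⊆ J') (x : ℕ × ℝ)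
    (a : ℝ) : cntG mem lev u t n J x a ≤ cntG mem lev u t n J' x a := by
  classical
  unfold cntG
  refine card_le_card fun y hy => ?_
  rw [mem_filter, mem_cls] at hy ⊢
  exact ⟨⟨h hy.1.1, hy.1.2⟩, hy.2⟩

theorem one_le_cntG (hself : ∀ n t x a, mem n t (x, a) x) {u : ℚ} {t : ℝ} {n : ℕ}
    {J : Finset (ℕ × ℝ)} {x : ℕ × ℝ} (hx : x ∈ J) (a : ℝ) : 1 ≤ cntG mem lev u t n J x a := by
  classical
  unfold cntG
  refine card_pos.2 ⟨x, mem_filter.2 ⟨?_, hself n t x a⟩⟩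
  rw [mem_cls]; exact ⟨hx, rfl⟩

theorem monoF_PhiG (hM : MkA B I G lev A c Λ τ f b vm w) (hself : ∀ n t x a, mem n t (x, a) x)
    (u : ℚ) (t : ℝ) : MonoF B I (fun n J => PhiG mem lev u t n J) := by
  classical
  refine ⟨Eventually.of_forall fun n J J' hJ h h2 => ?_, 2, ?_⟩
  · refine PhiG_le ?_ fun x hx a => ?_
    · unfold PhiG; positivity
    · refine le_trans ?_ (cntG_le_PhiG (h hx) a)
      exact_mod_cast cntG_mono h x a
  · filter_upwards [line_cell hM (v := 0) le_rfl (by norm_num) one_pos, hM.cell0]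
      with n h1 h0 J hJ hJI
    constructor
    · obtain ⟨x, hx⟩ := hJ
      have a1 : (1 : ℝ) ≤ cntG mem lev u t n J x 0 := by exact_mod_cast one_le_cntG hself hx 0
      exact (dpow_le_one B n (by norm_num)).trans (a1.trans (cntG_le_PhiG hx 0))
    · refine PhiG_le (dpow_pos B n _).le fun x hx a => ?_
      have a1 : (cntG mem lev u t n J x a : ℝ) ≤ ((cls (I n) (pl (lev n 0)) x).card : ℝ) := by
        have a2 : cntG mem lev u t n J x a ≤ (cls (I n) (pl (lev n 0)) x).card := by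
          refine (cntG_le_cls x a).trans (card_le_card fun y hy => ?_)
          rw [mem_cls] at hy ⊢
          refine ⟨hJI hy.1, Prod.ext (congrArg Prod.fst hy.2 : _) ?_⟩
          exact h0 y (hJI hy.1) x (hJI hx)
        exact_mod_cast a2
      refine a1.trans ((h1 x (hJI hx)).2.trans ?_)
      unfold nu
      rw [← dpow_add]
      apply dpow_le B n
      have := (hM.lam 0 1 le_rfl zero_le_one le_rfl).1
      push_cast
      linarith

theorem pb_PhiG (hM : MkA B I G lev A c Λ τ f b vm w) (hself : ∀ n t x a, mem n t (x, a) x)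
    (u : ℚ) (t : ℝ) : B.PB (fun n => PhiG mem lev u t n (I n)) :=
  (monoF_PhiG hM hself u t).pb (Eventually.of_forall fun n => Finset.Subset.refl _) hM.ne

end phi

/-- linear modulus of the family of strips (rate `ρ`) -/
def ModG (B : Base) (J : ℕ → Finset (ℕ × ℝ)) (lev : ℕ → ℚ → ℕ) (mem : Strp) (ρ : ℝ) : Prop :=
  ∃ γ0 : ℝ, 0 < γ0 ∧ ∀ u r : ℚ, 0 ≤ u → u < r → r ≤ 1 → ∀ ε : ℝ, 0 < ε →
    ∀ᶠ n in (U : Filter ℕ), ∀ x ∈ J n, ∀ a : ℝ, ∀ T : Finset (ℕ × ℝ), T ⊆ J n →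
      (∀ y ∈ T, y.1 = x.1 ∧ zc (lev n u) y.2 = zc (lev n u) x.2 ∧ mem n (ρ * r) (x, a) y) →
      (T.card : ℝ) ≤
        B.d n ^ (γ0 * ((r : ℝ) - u) - ε) * ((own (J n) (lev n u) (lev n 1) x).card : ℝ)

theorem ModG.dense {σ κ : Type*} {B : Base} {I J : ℕ → Finset (ℕ × ℝ)} {G : Geo σ κ}
    {lev : ℕ → ℚ → ℕ} {A : ℕ → ℝ} {c Λ : ℝ → ℝ} {τ : κ → ℝ → ℝ} {f : ℕ → ℚ → ℕ → ℤ → ℕ}
    {b : ℕ → ℚ → ℕ → σ} {vm : ℕ → ℚ → ℝ} {w : κ → ℕ → ℚ → ℝ} {mem : Strp} {ρ : ℝ}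
    (h : ModG B I lev mem ρ) (hI : MkA B I G lev A c Λ τ f b vm w)
    (hJ : MkA B J G lev A c Λ τ f b vm w) (hd : Dense B J I) : ModG B J lev mem ρ := by
  obtain ⟨γ0, hγ0, h⟩ := h
  refine ⟨γ0, hγ0, fun u r h0 hur h1 ε hε => ?_⟩
  filter_upwards [h u r h0 hur h1 (ε / 3) (by positivity), hd.1,
    hI.own u 1 h0 (hur.le.trans h1) le_rfl (ε / 3) (by positivity),
    hJ.own u 1 h0 (hur.le.trans h1) le_rfl (ε / 3) (by positivity)] with n a1 a2 a3 a4 x hx a T hT hTm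
  have b1 := a1 x (a2 hx) a T (hT.trans a2) hTm
  have b2 := (a3 x (a2 hx)).2
  have b3 := (a4 x hx).1
  refine b1.trans ((mul_le_mul_of_nonneg_left b2 (dpow_pos B n _).le).trans ?_)
  refine le_trans ?_ (mul_le_mul_of_nonneg_left b3 (dpow_pos B n _).le)
  rw [← dpow_add, ← dpow_add]
  apply dpow_le B n
  linarith

section stage

variable {σ κ : Type*} {B : Base} {X : ℕ → Finset (ℕ × ℝ)} {G : Geo σ κ}
    {lev : ℕ → ℚ → ℕ} {A : ℕ → ℝ} {c Λ : ℝ → ℝ} {τ : κ → ℝ → ℝ} {f : ℕ → ℚ → ℕ → ℤ → ℕ}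
    {b : ℕ → ℚ → ℕ → σ} {vm : ℕ → ℚ → ℝ} {w : κ → ℕ → ℚ → ℝ} {mem : Strp}

/-- one window, one `n` -/
def Stage (B : Base) (X : ℕ → Finset (ℕ × ℝ)) (lev : ℕ → ℚ → ℕ) (mem : Strp) (u r : ℚ) (t e : ℝ)
    (n : ℕ) : Prop :=
  ∃ (I' Y : Finset (ℕ × ℝ)) (J0 : ℤ) (sel : ℕ → (ℕ × ℝ) × ℝ),
    IsWin (X n) I' (lev n u) (lev n r) J0 ∧ I'.Nonempty ∧ Y ⊆ I' ∧
    (∀ y ∈ Y, (sel y.1).1 ∈ X n ∧ (sel y.1).1.1 = y.1 ∧ mem n t (sel y.1) y) ∧
    B.d n ^ (6 * e) * (I'.card : ℝ) ≤ 2 * (Y.card : ℝ)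

theorem ev_stage (hM : MkA B X G lev A c Λ τ f b vm w) (hself : ∀ n t x a, mem n t (x, a) x)
    {u r : ℚ} {t : ℝ} (h0 : 0 ≤ u) (hur : u < r) (h1 : r ≤ 1)
    (hst : StableF B (fun n J => PhiG mem lev u t n J) X) {e : ℝ} (he : 0 < e)
    (hS : al Λ u - B.ex (fun n => PhiG mem lev u t n (X n)) < e) :
    ∀ᶠ n in (U : Filter ℕ), Stage B X lev mem u r t e n := by
  classical
  set φ : ℝ := B.ex (fun n => PhiG mem lev u t n (X n)) with hφ
  set N : ℕ → Finset (ℕ × ℝ) := fun n => (X n).filter fun x =>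
      ∀ a : ℝ, (cntG mem lev u t n (X n) x a : ℝ) ≤ B.d n ^ (-(φ - e)) with hN
  have hnd : ¬ Dense B N X := by
    refine hst.not_dense_of_le (monoF_PhiG hM hself u t) hM.ne
      (X := fun n => B.d n ^ (-(φ - e))) (Base.PB.dpow _) ?_ ?_
    · rw [Base.ex_dpow, neg_neg]
      show φ - e < φ
      linarith
    · refine Eventually.of_forall fun n hne => ?_
      refine PhiG_le (dpow_pos B n _).le fun x hx a => ?_
      obtain ⟨hx1, hx2⟩ := mem_filter.1 hx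
      have a1 : (cntG mem lev u t n (N n) x a : ℝ) ≤ cntG mem lev u t n (X n) x a := by
        exact_mod_cast cntG_mono (filter_subset _ _) x a
      exact a1.trans (hx2 a)
  obtain ⟨c', hc', hsmall⟩ := small_of_not_dense
    (Eventually.of_forall fun n => filter_subset _ _) hnd
  filter_upwards [hsmall, dpow_small B hc' (ε := 1 / 2) (by norm_num), hM.ne,
    line_cell hM h0 (hur.le.trans h1) he, line_cell hM (h0.trans hur.le) h1 he,
    hM.own u r h0 hur.le h1 e he, hM.lev_mono u r h0 hur.le h1] with n a1 a2 a3 a4 a5 a6 a7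
  have hXpos : (0 : ℝ) < (X n).card := by exact_mod_cast card_pos.2 a3
  have hN2 : 2 * ((N n).card : ℝ) ≤ (X n).card := by
    have := a1.trans_le (mul_le_mul_of_nonneg_right a2.le hXpos.le)
    linarith
  obtain ⟨I', Y, J0, sel, b1, b2, b3, b4, b5⟩ := heavy_window (X := X n) (N := N n)
    (i0 := lev n u) (i1 := lev n r) a7
    (fun p y => p.1 ∈ X n ∧ p.1.1 = y.1 ∧ mem n t p y)
    (K1 := B.d n ^ (-(φ - e))) (K2 := B.d n ^ e * nu B Λ n u) (K2' := B.d n ^ (-e) * nu B Λ n u)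
    (K3 := B.d n ^ (-e) * nu B Λ n r)
    (K4 := B.d n ^ (-((r : ℝ) - u) + (Λ r - Λ u) - e))
    (dpow_pos B n _).le (mul_pos (dpow_pos B n _) (nu_pos B Λ n u)).le
    (mul_pos (dpow_pos B n _) (nu_pos B Λ n r)).le (dpow_pos B n _).le a3 hN2
    (fun x hx hxN => by
      have : ∃ a : ℝ, B.d n ^ (-(φ - e)) < (cntG mem lev u t n (X n) x a : ℝ) := by
        by_contra hcon
        push Not at hcon
        exact hxN (mem_filter.2 ⟨hx, hcon⟩)
      obtain ⟨a, ha⟩ := this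
      refine ⟨a, _, filter_subset _ _, fun y hy => ?_, ha.le⟩
      obtain ⟨hy1, hy2⟩ := mem_filter.1 hy
      have e0 : (pl (lev n u) y).1 = (pl (lev n u) x).1 := by rw [(mem_cls.1 hy1).2]
      exact ⟨hx, e0.symm, hy2⟩)
    (fun x hx => (a4 x hx).1) (fun x hx => (a4 x hx).2) (fun x hx => (a5 x hx).2)
    (fun x hx => (a6 x hx).2)
  refine ⟨I', Y, J0, sel, b1, b2, b3, b4, ?_⟩
  rw [nu_eq, nu_eq] at b5
  have e1 : B.d n ^ (-(φ - e)) * (B.d n ^ e * B.d n ^ (-(al Λ u))) =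
      B.d n ^ (-(φ - e) + (e + -(al Λ u))) := by rw [← dpow_add, ← dpow_add]
  have e2 : 2 * (B.d n ^ (-e) * B.d n ^ (-(al Λ r))) * (B.d n ^ (-e) * B.d n ^ (-(al Λ u))) *
      B.d n ^ (-((r : ℝ) - u) + (Λ r - Λ u) - e) =
      2 * B.d n ^ ((-e + -(al Λ r)) + (-e + -(al Λ u)) + (-((r : ℝ) - u) + (Λ r - Λ u) - e)) := by
    rw [dpow_add, dpow_add, dpow_add, dpow_add]
    ring
  rw [e1, e2] at b5
  set E1 : ℝ := (-e + -(al Λ r)) + (-e + -(al Λ u)) + (-((r : ℝ) - u) + (Λ r - Λ u) - e) with hE1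
  have e3 : al Λ u - φ + 5 * e + E1 = -(φ - e) + (e + -(al Λ u)) := by
    rw [hE1]
    unfold al
    ring
  rw [← e3, dpow_add] at b5
  have b6 : B.d n ^ (al Λ u - φ + 5 * e) * (I'.card : ℝ) ≤ 2 * (Y.card : ℝ) := by
    have hp := dpow_pos B n E1
    have b7 : B.d n ^ E1 * (B.d n ^ (al Λ u - φ + 5 * e) * (I'.card : ℝ)) ≤
        B.d n ^ E1 * (2 * (Y.card : ℝ)) := by linarith
    exact le_of_mul_le_mul_left b7 hp
  refine le_trans ?_ b6
  exact mul_le_mul_of_nonneg_right (dpow_le B n (by linarith)) (by positivity)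

end stage

section main

variable {σ κ φ : Type*} {m : ℕ} {P : TDist φ m} {G : Geo σ κ} {g s : ℝ} {θ : κ → ℝ}
    {β : Fin m → ℝ} {B : Base} {I : ℕ → Finset (ℕ × ℝ)} {lev : ℕ → ℚ → ℕ} {A : ℕ → ℝ}
    {f : ℕ → ℚ → ℕ → ℤ → ℕ} {b : ℕ → ℚ → ℕ → σ} {vm : ℕ → ℚ → ℝ} {w : κ → ℕ → ℚ → ℝ}
    {fr : ℕ → ℚ → ℕ × ℝ → φ} {pr : Fin m → ℕ → ℚ → ℝ} {fl : ℕ → ℕ × ℝ → φ}
    {sc : Fin m → ℕ → ℝ}

/-- a window of the system on which every line lies in one strip of the finest precision -/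
def WinG (P : TDist φ m) (G : Geo σ κ) (g s : ℝ) (θ : κ → ℝ) (β : Fin m → ℝ) (B : Base)
    (I : ℕ → Finset (ℕ × ℝ)) (lev : ℕ → ℚ → ℕ)
    (f : ℕ → ℚ → ℕ → ℤ → ℕ) (b : ℕ → ℚ → ℕ → σ) (vm : ℕ → ℚ → ℝ) (w : κ → ℕ → ℚ → ℝ)
    (fr : ℕ → ℚ → ℕ × ℝ → φ) (pr : Fin m → ℕ → ℚ → ℝ) (fl : ℕ → ℕ × ℝ → φ)
    (sc : Fin m → ℕ → ℝ) (mem : Strp) (ρ : ℝ) : Prop :=
  ∃ (H : ℕ → ℝ) (mm : ℕ → ℚ → ℚ) (B' : Base) (I' : ℕ → Finset (ℕ × ℝ)) (A' : ℕ → ℝ)
    (sel : ℕ → ℕ → (ℕ × ℝ) × ℝ), (∀ n, 0 < H n ∧ H n ≤ 1) ∧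
    (∀ n, ∀ x : ℚ, 0 ≤ x → x ≤ 1 → 0 ≤ mm n x ∧ mm n x ≤ 1) ∧
    (∀ n, ∀ x y : ℚ, (mm n y : ℝ) - mm n x = H n * ((y : ℝ) - x)) ∧
    (∀ n, B'.d n = B.d n ^ H n) ∧ (∀ᶠ n in (U : Filter ℕ), I' n ⊆ I n) ∧
    TSys P G g s θ β B' I' (fun n x => lev n (mm n x)) A' (fun n x => f n (mm n x))
      (fun n x => b n (mm n x)) (fun n x => vm n (mm n x)) (fun j n x => w j n (mm n x))
      (fun n x => fr n (mm n x)) (fun j n x => pr j n (mm n x)) fl
      (fun j n => sc j n * B.d n ^ (β j * mm n 0)) ∧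
    (∀ᶠ n in (U : Filter ℕ), ∀ y ∈ I' n, (sel n y.1).1 ∈ I n ∧ (sel n y.1).1.1 = y.1 ∧
      mem n (ρ * (mm n 1 : ℝ)) (sel n y.1) y) ∧
    (∀ j, InvT P B I j fl (sc j) →
      InvT P B' I' j fl (fun n => sc j n * B.d n ^ (β j * mm n 0))) ∧
    (Slack P β B sc → Slack P β B' (fun j n => sc j n * B.d n ^ (β j * mm n 0)))

/-- **linear modulus or a window inside single strips.** -/
theorem exists_linmodG [Countable κ] (h : TSys P G g s θ β B I lev A f b vm w fr pr fl sc)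
    {mem : Strp} (hself : ∀ n t x a, mem n t (x, a) x) (ρ : ℝ) :
    ∃ J : ℕ → Finset (ℕ × ℝ), Dense B J I ∧
      TSys P G g s θ β B J lev A f b vm w fr pr fl sc ∧
      (ModG B J lev mem ρ ∨ WinG P G g s θ β B J lev f b vm w fr pr fl sc mem ρ) := by
  classical
  set Λ : ℝ → ℝ := fun v => s * v with hΛ
  obtain ⟨en, hen⟩ := exists_surjective_nat (ℚ × ℚ)
  obtain ⟨J2, hJ2d, hJ2s⟩ := exists_stableF (B := B) h.mka.ne
    (fun j n J => PhiG mem lev (en j).1 (ρ * (en j).2) n J)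
    (fun j => monoF_PhiG h.mka hself (en j).1 (ρ * (en j).2))
  obtain ⟨X, hXd, hX⟩ := MkA.refine h.mka hJ2d
  have hXI : Dense B X I := hXd.trans hJ2d
  have hS := h.dense hXI hX
  have hst : ∀ u r : ℚ, StableF B (fun n J => PhiG mem lev u (ρ * r) n J) X := by
    intro u r
    obtain ⟨j, hj⟩ := hen (u, r)
    have h1 := hJ2s j
    rw [hj] at h1
    exact h1.dense hXd
  set φ' : ℚ → ℚ → ℝ := fun u r => B.ex (fun n => PhiG mem lev u (ρ * r) n (X n)) with hφ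
  refine ⟨X, hXI, hS, ?_⟩
  by_cases hg : ∃ γ0 : ℝ, 0 < γ0 ∧ ∀ u r : ℚ, 0 ≤ u → u < r → r ≤ 1 →
      γ0 * ((r : ℝ) - u) ≤ al Λ u - φ' u r
  · -- linear modulus
    obtain ⟨γ0, hγ0, hγ⟩ := hg
    refine Or.inl ⟨γ0, hγ0, fun u r h0 hur h1 ε hε => ?_⟩
    have h5 : ∀ᶠ n in (U : Filter ℕ), PhiG mem lev u (ρ * r) n (X n) <
        B.d n ^ (-(φ' u r + ε / 2)) :=
      Base.ex_lt_iff_dpow (pb_PhiG hX hself u (ρ * r)) (by
        show B.ex (fun n => PhiG mem lev u (ρ * r) n (X n)) < φ' u r + ε / 2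
        have : B.ex (fun n => PhiG mem lev u (ρ * r) n (X n)) = φ' u r := rfl
        rw [this]; linarith)
    filter_upwards [h5, hX.own u 1 h0 (hur.le.trans h1) le_rfl (ε / 2) (by positivity)]
      with n a1 a3 x hx a T hT hTm
    have b1 : (T.card : ℝ) ≤ (cntG mem lev u (ρ * r) n (X n) x a : ℝ) := by
      have : T ⊆ (cls (X n) (pl (lev n u)) x).filter fun y => mem n (ρ * r) (x, a) y := by
        intro y hy
        obtain ⟨hy2, hy3, hy4⟩ := hTm y hy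
        exact mem_filter.2 ⟨mem_cls.2 ⟨hT hy, Prod.ext hy2 hy3⟩, hy4⟩
      unfold cntG
      exact_mod_cast card_le_card this
    have b2 := (b1.trans (cntG_le_PhiG hx a)).trans a1.le
    have b3 := (a3 x hx).1
    refine b2.trans ?_
    have b4 := mul_le_mul_of_nonneg_left b3 (dpow_pos B n (γ0 * ((r : ℝ) - u) - ε)).le
    refine le_trans ?_ b4
    rw [← dpow_add]
    apply dpow_le B n
    have e1 : al Λ u = (1 - (u : ℝ)) - (s * 1 - s * u) := rfl
    have e2 := hγ u r h0 hur h1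
    rw [e1] at e2
    push_cast
    linarith
  · -- heavy strips on windows
    refine Or.inr ?_
    push Not at hg
    have hex : ∀ k : ℕ, ∃ u r : ℚ, 0 ≤ u ∧ u < r ∧ r ≤ 1 ∧
        al Λ u - φ' u r < 1 / ((k : ℝ) + 1) * ((r : ℝ) - u) := fun k =>
      hg (1 / ((k : ℝ) + 1)) (by positivity)
    choose uu rr hu0 hur hr1 hS1 using hex
    have hur' : ∀ k, (uu k : ℝ) < rr k := fun k => by exact_mod_cast hur k
    have hu0' : ∀ k, (0 : ℝ) ≤ uu k := fun k => by exact_mod_cast hu0 k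
    have hr1' : ∀ k, (rr k : ℝ) ≤ 1 := fun k => by exact_mod_cast hr1 k
    set η : ℕ → ℝ := fun k => (rr k : ℝ) - uu k with hη
    set mq : ℕ → ℚ → ℚ := fun k x => uu k + (rr k - uu k) * x with hmq
    have hη0 : ∀ k, 0 < η k := fun k => by
      show 0 < (rr k : ℝ) - uu k
      linarith [hur' k]
    have hη1 : ∀ k, η k ≤ 1 := fun k => by
      show (rr k : ℝ) - uu k ≤ 1
      linarith [hu0' k, hr1' k]
    have hmm : ∀ k, ∀ x : ℚ, 0 ≤ x → x ≤ 1 → 0 ≤ mq k x ∧ mq k x ≤ 1 := by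
      intro k x hx0 hx1
      have h1 := hu0 k
      have h2 := hur k
      have h3 := hr1 k
      show 0 ≤ uu k + (rr k - uu k) * x ∧ uu k + (rr k - uu k) * x ≤ 1
      constructor
      · have := mul_nonneg (sub_nonneg.2 h2.le) hx0
        linarith
      · have := mul_le_mul_of_nonneg_left hx1 (sub_nonneg.2 h2.le)
        linarith
    have hq : ∀ k, ∀ x y : ℚ, (mq k y : ℝ) - mq k x = η k * ((y : ℝ) - x) := by
      intro k x y
      simp only [hmq, hη]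
      push_cast
      ring
    have hm0 : ∀ k, mq k 0 = uu k := fun k => by simp only [hmq]; ring
    have hm1 : ∀ k, mq k 1 = rr k := fun k => by simp only [hmq]; ring
    set e : ℕ → ℝ := fun k => 1 / ((k : ℝ) + 1) * η k with he
    have he0 : ∀ k, 0 < e k := fun k => mul_pos (by positivity) (hη0 k)
    obtain ⟨s0, hs0, hz⟩ := zoomW hS hη0 hη1 hmm hq
    obtain ⟨s3, hs3, hs3'⟩ := exists_diag
      (fun k n => Stage B X lev mem (uu k) (rr k) (ρ * rr k) (e k) n)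
      (fun k => ev_stage hX hself (hu0 k) (hur k) (hr1 k) (hst _ _) (he0 k) (hS1 k))
    set t : ℕ → ℕ := fun n => min (s0 n) (s3 n) with ht
    have htt : Tendsto t U atTop := by
      rw [tendsto_atTop]
      intro c
      filter_upwards [tendsto_atTop.1 hs0 c, tendsto_atTop.1 hs3 c] with n h1 h2
      exact le_min h1 h2
    obtain ⟨B', A', hB', hT⟩ := hz t htt (Eventually.of_forall fun n => min_le_left _ _)
    have hBp : ∀ n (y : ℝ), B'.d n ^ y = B.d n ^ (η (t n) * y) := by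
      intro n y
      rw [hB' n, ← Real.rpow_mul (B.pos n).le]
    -- choice of the window sets
    have hch : ∀ n, ∃ (I' Y : Finset (ℕ × ℝ)) (J0 : ℤ) (sel : ℕ → (ℕ × ℝ) × ℝ),
        IsWin (X n) I' (lev n (mq (t n) 0)) (lev n (mq (t n) 1)) J0 ∧
        ((X n).Nonempty → I'.Nonempty) ∧
        (Stage B X lev mem (uu (t n)) (rr (t n)) (ρ * rr (t n)) (e (t n)) n →
          Y ⊆ I' ∧
          (∀ y ∈ Y, (sel y.1).1 ∈ X n ∧ (sel y.1).1.1 = y.1 ∧
            mem n (ρ * rr (t n)) (sel y.1) y) ∧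
          B.d n ^ (6 * e (t n)) * (I'.card : ℝ) ≤ 2 * (Y.card : ℝ)) := by
      intro n
      by_cases hn : Stage B X lev mem (uu (t n)) (rr (t n)) (ρ * rr (t n)) (e (t n)) n
      · obtain ⟨I', Y, J0, sel, b1, b2, b3, b4, b5⟩ := hn
        refine ⟨I', Y, J0, sel, ?_, fun _ => b2, fun _ => ⟨b3, b4, b5⟩⟩
        rw [hm0, hm1]
        exact b1
      · obtain ⟨I', J0, b1, b2⟩ := exists_win (X n) (lev n (mq (t n) 0)) (lev n (mq (t n) 1))
        exact ⟨I', ∅, J0, fun _ => ((0, 0), 0), b1, b2, fun hh => absurd hh hn⟩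
    choose I' Y J0 sel hwin hne hstage using hch
    have hS' := hT I' J0 hwin hne
    have hev : ∀ᶠ n in (U : Filter ℕ), Y n ⊆ I' n ∧
          (∀ y ∈ Y n, (sel n y.1).1 ∈ X n ∧ (sel n y.1).1.1 = y.1 ∧
            mem n (ρ * rr (t n)) (sel n y.1) y) ∧
          B.d n ^ (6 * e (t n)) * ((I' n).card : ℝ) ≤ 2 * ((Y n).card : ℝ) := by
      filter_upwards [hs3'] with n hn
      exact hstage n (hn (t n) (min_le_right _ _))
    have hYd : Dense B' Y I' := by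
      refine ⟨by filter_upwards [hev] with n hn using hn.1, fun δ hδ => ?_⟩
      have hk : ∀ᶠ n in (U : Filter ℕ), 12 / δ ≤ (t n : ℝ) :=
        (tendsto_natCast_atTop_atTop.comp htt).eventually_ge_atTop _
      filter_upwards [hev, hk, dpow_small B' (half_pos hδ) (ε := 1 / 2) (by norm_num)]
        with n a1 a2 a3
      obtain ⟨-, -, a1⟩ := a1
      have c1 : B'.d n ^ (δ / 2) ≤ B.d n ^ (6 * e (t n)) := by
        rw [hBp]
        refine dpow_le B n ?_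
        have c2 : 6 * e (t n) = η (t n) * (6 / ((t n : ℝ) + 1)) := by
          simp only [he]
          ring
        rw [c2]
        refine mul_le_mul_of_nonneg_left ?_ (hη0 _).le
        rw [div_le_iff₀ (by positivity)]
        rw [div_le_iff₀ hδ] at a2
        nlinarith
      have c3 : B'.d n ^ δ = B'.d n ^ (δ / 2) * B'.d n ^ (δ / 2) := by
        rw [← dpow_add]; congr 1; ring
      rw [c3]
      have c4 := dpow_pos B' n (δ / 2)
      have c5 : (0 : ℝ) ≤ (I' n).card := by positivity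
      calc B'.d n ^ (δ / 2) * B'.d n ^ (δ / 2) * ((I' n).card : ℝ)
          ≤ 1 / 2 * B.d n ^ (6 * e (t n)) * ((I' n).card : ℝ) :=
            mul_le_mul_of_nonneg_right (mul_le_mul a3.le c1 c4.le (by norm_num)) c5
        _ = 1 / 2 * (B.d n ^ (6 * e (t n)) * ((I' n).card : ℝ)) := by ring
        _ ≤ 1 / 2 * (2 * ((Y n).card : ℝ)) := mul_le_mul_of_nonneg_left a1 (by norm_num)
        _ = _ := by ring
    obtain ⟨J', hJ'Y, hJ'⟩ := MkA.refine hS'.mka hYd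
    have hJ'I : Dense B' J' I' := hJ'Y.trans hYd
    have hm00 : ∀ k, (0 : ℝ) ≤ mq k 0 ∧ (mq k 0 : ℝ) ≤ 1 := fun k =>
      ⟨by exact_mod_cast (hmm k 0 le_rfl zero_le_one).1,
        by exact_mod_cast (hmm k 0 le_rfl zero_le_one).2⟩
    have hηM : ∀ n (M : ℝ), η (t n) * M ≤ |M| := fun n M => by
      calc η (t n) * M ≤ η (t n) * |M| := mul_le_mul_of_nonneg_left (le_abs_self _) (hη0 _).le
        _ ≤ 1 * |M| := mul_le_mul_of_nonneg_right (hη1 _) (abs_nonneg _)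
        _ = |M| := one_mul _
    have hβm : ∀ n j, β j * (mq (t n) 0 : ℝ) ≤ |β j| := fun n j => by
      calc β j * (mq (t n) 0 : ℝ) ≤ |β j| * (mq (t n) 0 : ℝ) :=
            mul_le_mul_of_nonneg_right (le_abs_self _) (hm00 _).1
        _ ≤ |β j| * 1 := mul_le_mul_of_nonneg_left (hm00 _).2 (abs_nonneg _)
        _ = |β j| := mul_one _
    have hI'X : ∀ n, I' n ⊆ X n := fun n => (hwin n).sub
    refine ⟨fun n => η (t n), fun n => mq (t n), B', J', A', sel,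
      fun n => ⟨hη0 _, hη1 _⟩, fun n => hmm (t n), fun n => hq (t n), hB',
      ?_, hS'.dense hJ'I hJ', ?_, ?_, ?_⟩
    · filter_upwards [hJ'I.1] with n hn using hn.trans (hI'X n)
    · filter_upwards [hev, hJ'Y.1] with n a1 a2 y hy
      have b1 := a1.2.1 y (a2 hy)
      rw [hm1]
      exact b1
    · intro j hj M
      filter_upwards [hj (|β j| + |M|), hXI.1, hJ'I.1] with n a1 a2 a3 x hx y hy hxy
      refine (a1 x (hI'X n (a3 hx)) y (hI'X n (a3 hy)) hxy).trans ?_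
      rw [hBp, mul_assoc, ← dpow_add]
      refine mul_le_mul_of_nonneg_left (dpow_le B n ?_) (h.scpos j n).le
      have := hβm n j
      have := hηM n M
      linarith
    · intro hsl j a ha hlt M
      filter_upwards [hsl j a ha hlt (|M| + |β j| + |∑ t, (a t : ℝ) * β t|)] with n hn
      rw [prod_dpow, hBp]
      have e1 : ∑ t', (a t' : ℝ) * (β t' * (mq (t n) 0 : ℝ)) = (∑ t', (a t' : ℝ) * β t') *
          (mq (t n) 0 : ℝ) := by
        rw [Finset.sum_mul]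
        exact Finset.sum_congr rfl fun t' _ => by ring
      have e2 : -|∑ t, (a t : ℝ) * β t| ≤ (∑ t', (a t' : ℝ) * β t') * (mq (t n) 0 : ℝ) := by
        have h1 := neg_abs_le ((∑ t', (a t' : ℝ) * β t') * (mq (t n) 0 : ℝ))
        rw [abs_mul, abs_of_nonneg (hm00 (t n)).1] at h1
        have h2 : |∑ t', (a t' : ℝ) * β t'| * (mq (t n) 0 : ℝ) ≤ |∑ t', (a t' : ℝ) * β t'| * 1 :=
          mul_le_mul_of_nonneg_left (hm00 (t n)).2 (abs_nonneg _)
        linarith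
      rw [e1]
      calc (∏ t', sc t' n ^ a t') * B.d n ^ ((∑ t', (a t' : ℝ) * β t') * (mq (t n) 0 : ℝ))
          ≤ sc j n * B.d n ^ (|M| + |β j| + |∑ t, (a t : ℝ) * β t|) *
            B.d n ^ ((∑ t', (a t' : ℝ) * β t') * (mq (t n) 0 : ℝ)) :=
            mul_le_mul_of_nonneg_right hn (dpow_pos B n _).le
        _ = sc j n * B.d n ^ (|M| + |β j| + |∑ t, (a t : ℝ) * β t| +
            (∑ t', (a t' : ℝ) * β t') * (mq (t n) 0 : ℝ)) := by rw [mul_assoc, ← dpow_add]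
        _ ≤ sc j n * B.d n ^ (β j * (mq (t n) 0 : ℝ) + η (t n) * M) := by
            refine mul_le_mul_of_nonneg_left (dpow_le B n ?_) (h.scpos j n).le
            have := hηM n M
            have := hβm n j
            linarith
        _ = _ := by rw [mul_assoc, ← dpow_add]

end main

end Crest.Agent.R116.Rn899
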