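import Mathlib
import Crest.Agent.R116.Rn1_899

/-!
# R116, [ROT-LIN] (helper899): linear modulus of the own twist of a free slot

* `TwP` : the share of the own incidences of a (line, cell of level `u`) whose slot `k` agrees up to
  `sc d^(b0 r)` is at most `d^(γ0 (r - u) - ε)`, all rational `u < r ≤ 1`;
* `win_close` : in a window inside single strips of the slot `j` all flags of one line agree up to the
  finest precision;
* `gap_inv` : then one more zoom makes the slot invisible.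
-/

set_option autoImplicit false
set_option linter.unusedVariables false
set_option linter.unusedSectionVars false

open Finset Filter Topology

namespace Crest.Agent.R116.Rn899

open Crest.Agent.R138.Ex926
open Crest.Agent.R138.Dp76
open Crest.Agent.R138.Ps926
open Crest.Agent.R138.Mk163 (zc zl rho alive own Negl)
open Crest.Agent.R136.MkA627
open Crest.Agent.R136.TD627

variable {σ κ φ : Type*} {m : ℕ}

/-- own twist of the slot `k` with a linear modulus -/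
def TwP (P : TDist φ m) (B : Base) (I : ℕ → Finset (ℕ × ℝ)) (lev : ℕ → ℚ → ℕ) (k : Fin m)
    (fl : ℕ → ℕ × ℝ → φ) (sc : ℕ → ℝ) (b0 : ℝ) : Prop :=
  ∃ γ0 : ℝ, 0 < γ0 ∧ ∀ u r : ℚ, 0 ≤ u → u < r → r ≤ 1 → ∀ ε : ℝ, 0 < ε →
    ∀ᶠ n in (U : Filter ℕ), ∀ x ∈ I n,
      ((((I n).filter fun y => y.1 = x.1 ∧ zc (lev n u) y.2 = zc (lev n u) x.2 ∧
          P.d k n (fl n x) (fl n y) ≤ sc n * B.d n ^ (b0 * (r : ℝ))).card : ℕ) : ℝ) ≤
        B.d n ^ (γ0 * ((r : ℝ) - u) - ε) * ((own (I n) (lev n u) (lev n 1) x).card : ℝ)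

/-- the strips of the slot `k` -/
def memP (P : TDist φ m) (B : Base) (k : Fin m) (fl : ℕ → ℕ × ℝ → φ) (sc : ℕ → ℝ) : Strp :=
  fun n t p y => P.d k n (fl n p.1) (fl n y) ≤ sc n * B.d n ^ t

theorem memP_self {P : TDist φ m} {B : Base} {k : Fin m} {fl : ℕ → ℕ × ℝ → φ} {sc : ℕ → ℝ}
    (hsc : ∀ n, 0 < sc n) : ∀ n t x a, memP P B k fl sc n t (x, a) x := by
  intro n t x a
  show P.d k n (fl n x) (fl n x) ≤ _
  rw [P.self]
  exact (mul_pos (hsc n) (dpow_pos B n _)).le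

theorem twP_of_modG {P : TDist φ m} {B : Base} {I : ℕ → Finset (ℕ × ℝ)} {lev : ℕ → ℚ → ℕ}
    {k : Fin m} {fl : ℕ → ℕ × ℝ → φ} {sc : ℕ → ℝ} {b0 : ℝ}
    (h : ModG B I lev (memP P B k fl sc) b0) : TwP P B I lev k fl sc b0 := by
  classical
  obtain ⟨γ0, hγ0, h⟩ := h
  refine ⟨γ0, hγ0, fun u r h0 hur h1 ε hε => ?_⟩
  filter_upwards [h u r h0 hur h1 ε hε] with n a1 x hx
  exact a1 x hx 0 _ (filter_subset _ _) fun y hy => (mem_filter.1 hy).2

section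

variable {P : TDist φ m} {G : Geo σ κ} {g s : ℝ} {θ : κ → ℝ} {β : Fin m → ℝ}
    {B : Base} {I : ℕ → Finset (ℕ × ℝ)} {lev : ℕ → ℚ → ℕ} {A : ℕ → ℝ}
    {f : ℕ → ℚ → ℕ → ℤ → ℕ} {b : ℕ → ℚ → ℕ → σ} {vm : ℕ → ℚ → ℝ} {w : κ → ℕ → ℚ → ℝ}
    {fr : ℕ → ℚ → ℕ × ℝ → φ} {pr : Fin m → ℕ → ℚ → ℝ} {fl : ℕ → ℕ × ℝ → φ} {sc : Fin m → ℕ → ℝ}

/-- `TwP` passes to dense marked parts -/
theorem TwP.dense {c Λ : ℝ → ℝ} {τ : κ → ℝ → ℝ} {j : Fin m} {sc : ℕ → ℝ} {b0 : ℝ}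
    {J : ℕ → Finset (ℕ × ℝ)} (h : TwP P B I lev j fl sc b0)
    (hI : MkA B I G lev A c Λ τ f b vm w) (hJ : MkA B J G lev A c Λ τ f b vm w)
    (hd : Dense B J I) : TwP P B J lev j fl sc b0 := by
  classical
  obtain ⟨γ0, hγ0, h⟩ := h
  refine ⟨γ0, hγ0, fun u r h0 hur h1 ε hε => ?_⟩
  filter_upwards [h u r h0 hur h1 (ε / 3) (by positivity), hd.1,
    hI.own u 1 h0 (hur.le.trans h1) le_rfl (ε / 3) (by positivity),
    hJ.own u 1 h0 (hur.le.trans h1) le_rfl (ε / 3) (by positivity)] with n a1 a2 a3 a4 x hx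
  have b1 := a1 x (a2 hx)
  have b2 := (a3 x (a2 hx)).2
  have b3 := (a4 x hx).1
  have b0' : ((((J n).filter fun y => y.1 = x.1 ∧ zc (lev n u) y.2 = zc (lev n u) x.2 ∧
        P.d j n (fl n x) (fl n y) ≤ sc n * B.d n ^ (b0 * (r : ℝ))).card : ℕ) : ℝ) ≤
      ((((I n).filter fun y => y.1 = x.1 ∧ zc (lev n u) y.2 = zc (lev n u) x.2 ∧
        P.d j n (fl n x) (fl n y) ≤ sc n * B.d n ^ (b0 * (r : ℝ))).card : ℕ) : ℝ) := by
    exact_mod_cast card_le_card (filter_subset_filter _ a2)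
  refine (b0'.trans b1).trans ((mul_le_mul_of_nonneg_left b2 (dpow_pos B n _).le).trans ?_)
  refine le_trans ?_ (mul_le_mul_of_nonneg_left b3 (dpow_pos B n _).le)
  rw [← dpow_add, ← dpow_add]
  apply dpow_le B n
  linarith

/-- **all flags of one line of the window agree up to the finest precision.** -/
theorem win_close (h : TSys P G g s θ β B I lev A f b vm w fr pr fl sc)
    (hβ : ∀ t, InvT P B I t fl (sc t) ∨ 0 < β t) (hsl : Slack P β B sc) {j : Fin m}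
    (hfree : Free P β B I fl sc j) {H1 : ℕ → ℝ} {m1 : ℕ → ℚ → ℚ} {B1 : Base}
    {I1 : ℕ → Finset (ℕ × ℝ)} {sel : ℕ → ℕ → (ℕ × ℝ) × ℝ}
    (hm : ∀ n, ∀ x : ℚ, 0 ≤ x → x ≤ 1 → 0 ≤ m1 n x ∧ m1 n x ≤ 1)
    (hq : ∀ n, ∀ x y : ℚ, (m1 n y : ℝ) - m1 n x = H1 n * ((y : ℝ) - x))
    (hB : ∀ n, B1.d n = B.d n ^ H1 n) (hI : ∀ᶠ n in (U : Filter ℕ), I1 n ⊆ I n)
    (hmem : ∀ᶠ n in (U : Filter ℕ), ∀ y ∈ I1 n, (sel n y.1).1 ∈ I n ∧ (sel n y.1).1.1 = y.1 ∧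
      memP P B j fl (sc j) n (β j * (m1 n 1 : ℝ)) (sel n y.1) y) :
    ∀ᶠ n in (U : Filter ℕ), ∀ x ∈ I1 n, ∀ y ∈ I1 n, y.1 = x.1 →
      P.d j n (fl n x) (fl n y) ≤
        K3 P j * ((sc j n * B.d n ^ (β j * m1 n 0)) * B1.d n ^ (β j)) := by
  classical
  have hcap := h.capOK hβ hsl hfree (C := |β j| + 3) (by positivity)
  obtain ⟨T, hT⟩ := hcap 0 le_rfl zero_le_one (|β j| + 2) (by show |β j| + 2 < |β j| + 3; linarith)
  filter_upwards [hT, hmem, h.mka.cell0, hI] with n a1 a2 a3 a4 x hx y hy hxy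
  obtain ⟨a1, a1'⟩ := a1
  obtain ⟨p1, p2, p3⟩ := a2 x hx
  obtain ⟨q1, q2, q3⟩ := a2 y hy
  rw [hxy] at q1 q2 q3
  set p : ℕ × ℝ := (sel n x.1).1 with hp
  change P.d j n (fl n p) (fl n x) ≤ _ at p3
  change P.d j n (fl n p) (fl n y) ≤ _ at q3
  have hm1 : (0 : ℝ) ≤ m1 n 1 ∧ (m1 n 1 : ℝ) ≤ 1 :=
    ⟨by exact_mod_cast (hm n 1 zero_le_one le_rfl).1, by exact_mod_cast (hm n 1 zero_le_one le_rfl).2⟩
  set Y0 : ℝ := sc j n * B.d n ^ (β j * (m1 n 1 : ℝ)) with hY0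
  have hY0' : 0 < Y0 := mul_pos (h.scpos j n) (dpow_pos B n _)
  have hX : ∀ e ∈ P.M.mon j, ∏ s, T s n ^ e s ≤ Y0 := by
    intro e he
    refine (a1' e he).trans ?_
    rw [mul_assoc, ← dpow_add]
    refine mul_le_mul_of_nonneg_left (dpow_le B n ?_) (h.scpos j n).le
    have h1 : β j * (m1 n 1 : ℝ) ≤ |β j| * (m1 n 1 : ℝ) :=
      mul_le_mul_of_nonneg_right (le_abs_self _) hm1.1
    have h2 : |β j| * (m1 n 1 : ℝ) ≤ |β j| * 1 := mul_le_mul_of_nonneg_left hm1.2 (abs_nonneg _)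
    linarith
  have hT' : ∀ e ∈ P.M.mon j, ∀ s, e s ≠ 0 → ∀ z ∈ I n, ∀ z' ∈ I n, z'.1 = z.1 →
      P.d s n (fl n z) (fl n z') ≤ T s n := fun e he s hs z hz z' hz' hzz =>
    a1 e he s hs z hz z' hz' hzz (a3 z' hz' z hz)
  have b1 : P.d j n (fl n x) (fl n p) ≤ P.K * (Y0 + P.cn j * Y0) :=
    P.sym_le (T := fun s => T s n)
      (fun e he s hs => hT' e he s hs p p1 x (a4 hx) p2.symm)
      (fun e he s hs => hT' e he s hs x (a4 hx) p p1 p2) hX p3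
  have hK1 := P.K1
  have hcn := P.cn_nonneg j
  have b2 : P.K * (Y0 + P.cn j * Y0) = P.K * (1 + P.cn j) * Y0 := by ring
  rw [b2] at b1
  have b3 : P.d j n (fl n p) (fl n y) ≤ P.K * (1 + P.cn j) * Y0 := by
    refine q3.trans ?_
    have : 1 ≤ P.K * (1 + P.cn j) := by nlinarith
    nlinarith
  have b4 := P.tri_le (k := j) (n := n) (a := fl n x) (b := fl n p) (c := fl n y)
    (T := fun s => T s n) (fun e he s hs => hT' e he s hs x (a4 hx) p p1 p2)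
    (fun e he s hs => hT' e he s hs p p1 y (a4 hy) (hxy.trans p2.symm)) hX b1 b3
  refine b4.trans (le_of_eq ?_)
  have e1 : sc j n * B.d n ^ (β j * (m1 n 0 : ℝ)) * B1.d n ^ β j = Y0 := by
    rw [hY0, hB n, ← Real.rpow_mul (B.pos n).le, mul_assoc, ← dpow_add]
    congr 2
    have := hq n 0 1
    push_cast at this
    have e2 : (m1 n 1 : ℝ) = m1 n 0 + H1 n := by linarith
    rw [e2]; ring
  rw [e1]
  unfold K3
  ring

/-- **closeness beyond the precision of level `0` becomes invisibility after one zoom.** -/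
theorem gap_inv [Countable κ] (h : TSys P G g s θ β B I lev A f b vm w fr pr fl sc)
    (hsl : Slack P β B sc) {j : Fin m} {K b0 : ℝ} (hb : 0 < b0) (hK : 0 ≤ K)
    (hcl : ∀ᶠ n in (U : Filter ℕ), ∀ x ∈ I n, ∀ y ∈ I n, y.1 = x.1 →
      P.d j n (fl n x) (fl n y) ≤ K * (sc j n * B.d n ^ b0)) :
    ∃ (H : ℕ → ℝ) (mm : ℕ → ℚ → ℚ) (B' : Base) (I' : ℕ → Finset (ℕ × ℝ)) (A' : ℕ → ℝ)
      (sc' : Fin m → ℕ → ℝ), (∀ n, 0 < H n ∧ H n ≤ 1) ∧
      (∀ n, ∀ x : ℚ, 0 ≤ x → x ≤ 1 → 0 ≤ mm n x ∧ mm n x ≤ 1) ∧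
      (∀ n, ∀ x y : ℚ, (mm n y : ℝ) - mm n x = H n * ((y : ℝ) - x)) ∧
      (∀ n, B'.d n = B.d n ^ H n) ∧ (∀ᶠ n in (U : Filter ℕ), I' n ⊆ I n) ∧
      TSys P G g s θ β B' I' (fun n x => lev n (mm n x)) A' (fun n x => f n (mm n x))
        (fun n x => b n (mm n x)) (fun n x => vm n (mm n x)) (fun j n x => w j n (mm n x))
        (fun n x => fr n (mm n x)) (fun j n x => pr j n (mm n x)) fl sc' ∧
      Slack P β B' sc' ∧ InvT P B' I' j fl (sc' j) ∧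
      ∀ j, InvT P B I j fl (sc j) → InvT P B' I' j fl (sc' j) := by
  classical
  have hab := abs_nonneg (β j)
  set v0 : ℝ := min (1 / 2) (b0 / (4 * (|β j| + 1))) with hv0
  have hv0p : 0 < v0 := lt_min (by norm_num) (by positivity)
  have hv01 : v0 < 1 := (min_le_left _ _).trans_lt (by norm_num)
  have hv02 : β j * v0 ≤ b0 / 4 := by
    have h1 : v0 ≤ b0 / (4 * (|β j| + 1)) := min_le_right _ _
    rw [le_div_iff₀ (by positivity)] at h1
    have h2 := mul_le_mul_of_nonneg_right (le_abs_self (β j)) hv0p.le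
    nlinarith
  obtain ⟨H, mm, B', I', A', h1, h2, h3, h4, h5, h6, h7, h8, h9, h10, h11⟩ :=
    h.zoomP hv0p hv01 (fun _ _ _ => True) (fun _ _ _ => Eventually.of_forall fun _ => trivial)
  refine ⟨H, mm, B', I', A', _, h1, h3, h4, h6, Eventually.of_forall h7, h8, h11 hsl, ?_, h10⟩
  have hBp : ∀ n (y : ℝ), B'.d n ^ y = B.d n ^ (H n * y) := by
    intro n y
    rw [h6 n, ← Real.rpow_mul (B.pos n).le]
  intro M
  have hlim : Tendsto (fun n => β j * (mm n 0 : ℝ) + H n * M) U (𝓝 (β j * v0 + 0 * M)) :=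
    ((h5 0).const_mul (β j)).add (h2.mul_const M)
  have hev : ∀ᶠ n in (U : Filter ℕ), β j * (mm n 0 : ℝ) + H n * M < b0 / 2 :=
    hlim.eventually_lt_const (by linarith)
  filter_upwards [hcl, hev, dpow_small B (half_pos hb) (ε := 1 / (K + 1)) (by positivity)]
    with n a1 a2 a3 x hx y hy hxy
  refine (a1 x (h7 n hx) y (h7 n hy) hxy).trans ?_
  rw [hBp, mul_assoc (sc j n), ← dpow_add]
  have c1 : K * B.d n ^ b0 ≤ B.d n ^ (b0 / 2) := by
    have e3 : b0 = b0 / 2 + b0 / 2 := by ring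
    have c2 : K * B.d n ^ (b0 / 2) ≤ 1 := by
      have h12 : (K + 1) * B.d n ^ (b0 / 2) ≤ 1 := by
        have := mul_le_mul_of_nonneg_left a3.le (show 0 ≤ K + 1 by positivity)
        rwa [mul_one_div_cancel (by positivity)] at this
      have := dpow_pos B n (b0 / 2)
      nlinarith
    calc K * B.d n ^ b0 = (K * B.d n ^ (b0 / 2)) * B.d n ^ (b0 / 2) := by
          rw [mul_assoc, ← dpow_add, ← e3]
      _ ≤ 1 * B.d n ^ (b0 / 2) := mul_le_mul_of_nonneg_right c2 (dpow_pos B n _).le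
      _ = _ := one_mul _
  calc K * (sc j n * B.d n ^ b0) = sc j n * (K * B.d n ^ b0) := by ring
    _ ≤ sc j n * B.d n ^ (b0 / 2) := mul_le_mul_of_nonneg_left c1 (h.scpos j n).le
    _ ≤ _ := mul_le_mul_of_nonneg_left (dpow_le B n a2.le) (h.scpos j n).le

end

end Crest.Agent.R116.Rn899
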