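import Mathlib
import Crest.Agent.R116.Rm4_899
import Crest.Agent.R116.Rn2_899

/-!
# R116, [ROT-LIN] (helper899): second zoom of the light-ray chart, final form

`natL3` : 627's `TSys.natT` in the light-ray chart.  Every slot is invisible, tied **with a linear
modulus of its own twist** (`TwP`) or capped; the flags are in a gauge `cc` constant on lines (`cc = 0`
if `β 1 ≠ 0`), and for `β 1 = 0` (then `β 2 = 1`) the slot `E` is invisible or strongly twisted modulo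
affine functions, with a linear modulus (`STwL2`).
-/

set_option autoImplicit false
set_option linter.unusedVariables false
set_option linter.unusedSectionVars false

open Finset Filter Topology

namespace Crest.Agent.R116.Rn899

open Crest.Agent.R138.Ex926 (Base U)
open Crest.Agent.R138.Dp76
open Crest.Agent.R138.Ps926
open Crest.Agent.R138.Mk163 (zc zl rho alive own Negl)
open Crest.Agent.R138.MkRef774 (pl)
open Crest.Agent.R136.MkA627
open Crest.Agent.R136.TD627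
open Crest.Agent.R116.ChL222
open Crest.Agent.R116.Rl899
open Crest.Agent.R116.Rm899

variable {σ κ : Type*}

/-- output of the second zoom in the light-ray chart -/
def NatL3 (P : TDist LInc 12) (G : Geo σ κ) (g s : ℝ) (θ : κ → ℝ) (β C0 : Fin 12 → ℝ)
    (fl : ℕ → ℕ × ℝ → LInc) (B : Base) (I : ℕ → Finset (ℕ × ℝ)) (lev : ℕ → ℚ → ℕ)
    (f : ℕ → ℚ → ℕ → ℤ → ℕ) (b : ℕ → ℚ → ℕ → σ) (vm : ℕ → ℚ → ℝ) (w : κ → ℕ → ℚ → ℝ)
    (fr : ℕ → ℚ → ℕ × ℝ → LInc) (pr : Fin 12 → ℕ → ℚ → ℝ) : Prop :=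
  ∃ (H : ℕ → ℝ) (mm : ℕ → ℚ → ℚ) (B' : Base) (I' : ℕ → Finset (ℕ × ℝ)) (A' : ℕ → ℝ)
    (sc' : Fin 12 → ℕ → ℝ) (cc : ℕ → ℕ → ℝ), (∀ n, 0 < H n ∧ H n ≤ 1) ∧
    (∀ n, ∀ x : ℚ, 0 ≤ x → x ≤ 1 → 0 ≤ mm n x ∧ mm n x ≤ 1) ∧
    (∀ n, ∀ x y : ℚ, (mm n y : ℝ) - mm n x = H n * ((y : ℝ) - x)) ∧
    (∀ n, B'.d n = B.d n ^ H n) ∧ (∀ᶠ n in (U : Filter ℕ), I' n ⊆ I n) ∧
    (β 1 ≠ 0 → cc = fun _ _ => 0) ∧
    TSys P G g s θ β B' I' (fun n x => lev n (mm n x)) A' (fun n x => f n (mm n x))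
      (fun n x => b n (mm n x)) (fun n x => vm n (mm n x)) (fun j n x => w j n (mm n x))
      (fun n x => fr n (mm n x)) (fun j n x => pr j n (mm n x)) (rg cc fl) sc' ∧
    Slack P β B' sc' ∧
    (∀ j, InvT P B' I' j (rg cc fl) (sc' j) ∨
      (0 < β j ∧ RotT P B' I' (fun n x => lev n (mm n x)) j (rg cc fl) (sc' j) (C0 j)
        (fun u => β j * u) ∧
        TwP P B' I' (fun n x => lev n (mm n x)) j (rg cc fl) (sc' j) (β j)) ∨
      (0 < β j ∧ ∃ a ∈ P.M.mon j, ∑ t, (a t : ℝ) * β t = β j ∧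
        ∀ t, a t ≠ 0 → ¬ InvT P B' I' t (rg cc fl) (sc' t))) ∧
    (β 1 = 0 → InvT P B' I' 2 (rg cc fl) (sc' 2) ∨
      STwL2 B' I' (fun n x => lev n (mm n x)) (rg cc fl) (sc' 2))

section

variable {P : TDist LInc 12} {G : Geo σ κ} {g s : ℝ} {θ : κ → ℝ} {β C0 : Fin 12 → ℝ}
    {B : Base} {I : ℕ → Finset (ℕ × ℝ)} {lev : ℕ → ℚ → ℕ} {A : ℕ → ℝ}
    {f : ℕ → ℚ → ℕ → ℤ → ℕ} {b : ℕ → ℚ → ℕ → σ} {vm : ℕ → ℚ → ℝ} {w : κ → ℕ → ℚ → ℝ}
    {fr : ℕ → ℚ → ℕ × ℝ → LInc} {pr : Fin 12 → ℕ → ℚ → ℝ} {fl : ℕ → ℕ × ℝ → LInc}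
    {sc : Fin 12 → ℕ → ℝ}

/-- composition of windows and gauges -/
theorem NatL3.comp {B1 : Base} {I1 : ℕ → Finset (ℕ × ℝ)} {H1 : ℕ → ℝ} {m1 : ℕ → ℚ → ℚ}
    {c1 : ℕ → ℕ → ℝ} (hc : β 1 ≠ 0 → c1 = fun _ _ => 0)
    (hH : ∀ n, 0 < H1 n ∧ H1 n ≤ 1) (hm : ∀ n, ∀ x : ℚ, 0 ≤ x → x ≤ 1 → 0 ≤ m1 n x ∧ m1 n x ≤ 1)
    (hq : ∀ n, ∀ x y : ℚ, (m1 n y : ℝ) - m1 n x = H1 n * ((y : ℝ) - x))
    (hB : ∀ n, B1.d n = B.d n ^ H1 n) (hI : ∀ᶠ n in (U : Filter ℕ), I1 n ⊆ I n)
    (h : NatL3 P G g s θ β C0 (rg c1 fl) B1 I1 (fun n x => lev n (m1 n x)) (fun n x => f n (m1 n x))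
      (fun n x => b n (m1 n x)) (fun n x => vm n (m1 n x)) (fun j n x => w j n (m1 n x))
      (fun n x => fr n (m1 n x)) (fun j n x => pr j n (m1 n x))) :
    NatL3 P G g s θ β C0 fl B I lev f b vm w fr pr := by
  obtain ⟨H2, m2, B2, I2, A2, sc2, c2, h1, h2, h3, h4, h5, hc2, h6, h7, h8, h9⟩ := h
  rw [rg_rg] at h6 h8 h9
  refine ⟨fun n => H1 n * H2 n, fun n x => m1 n (m2 n x), B2, I2, A2, sc2,
    fun n l => c1 n l + c2 n l, fun n => ⟨?_, ?_⟩,
    fun n x hx0 hx1 => ?_, fun n x y => ?_, fun n => ?_, ?_, fun hβ => ?_, h6, h7, h8, h9⟩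
  · exact mul_pos (hH n).1 (h1 n).1
  · exact mul_le_one₀ (hH n).2 (h1 n).1.le (h1 n).2
  · exact hm n _ (h2 n x hx0 hx1).1 (h2 n x hx0 hx1).2
  · rw [hq, h3]; ring
  · rw [h4, hB, ← Real.rpow_mul (B.pos n).le]
  · filter_upwards [hI, h5] with n a1 a2 using a2.trans a1
  · rw [hc hβ, hc2 hβ]
    funext n l
    simp

theorem NatL3.mono {J : ℕ → Finset (ℕ × ℝ)} (hJ : ∀ᶠ n in (U : Filter ℕ), J n ⊆ I n)
    (h : NatL3 P G g s θ β C0 fl B J lev f b vm w fr pr) :
    NatL3 P G g s θ β C0 fl B I lev f b vm w fr pr :=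
  NatL3.comp (H1 := fun _ => 1) (m1 := fun _ x => x) (c1 := fun _ _ => 0) (fun _ => rfl)
    (fun _ => ⟨one_pos, le_rfl⟩)
    (fun n x h0 h1 => ⟨h0, h1⟩) (fun n x y => by ring) (fun n => by rw [Real.rpow_one]) hJ
    (by rw [rg_zero]; exact h)

/-- composition of windows, same gauge -/
theorem NatL3.comp0 {B1 : Base} {I1 : ℕ → Finset (ℕ × ℝ)} {H1 : ℕ → ℝ} {m1 : ℕ → ℚ → ℚ}
    (hH : ∀ n, 0 < H1 n ∧ H1 n ≤ 1) (hm : ∀ n, ∀ x : ℚ, 0 ≤ x → x ≤ 1 → 0 ≤ m1 n x ∧ m1 n x ≤ 1)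
    (hq : ∀ n, ∀ x y : ℚ, (m1 n y : ℝ) - m1 n x = H1 n * ((y : ℝ) - x))
    (hB : ∀ n, B1.d n = B.d n ^ H1 n) (hI : ∀ᶠ n in (U : Filter ℕ), I1 n ⊆ I n)
    (h : NatL3 P G g s θ β C0 fl B1 I1 (fun n x => lev n (m1 n x)) (fun n x => f n (m1 n x))
      (fun n x => b n (m1 n x)) (fun n x => vm n (m1 n x)) (fun j n x => w j n (m1 n x))
      (fun n x => fr n (m1 n x)) (fun j n x => pr j n (m1 n x))) :
    NatL3 P G g s θ β C0 fl B I lev f b vm w fr pr :=
  NatL3.comp (c1 := fun _ _ => 0) (fun _ => rfl) hH hm hq hB hI (by rw [rg_zero]; exact h)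

/-- **second zoom of the light-ray chart** (induction on the number of visible slots) -/
theorem exists_natL3 [Countable κ] (hP : ∀ k n a b, P.d k n a b = |coL a b k|)
    (hM : ∀ a ∈ P.M.mon 2, a 1 ≠ 0) (hβ1 : β 1 = 0 → β 2 = 1)
    (hC : ∀ j, β j ≤ C0 j) :
    ∀ (N : ℕ) (B : Base) (I : ℕ → Finset (ℕ × ℝ)) (lev : ℕ → ℚ → ℕ) (A : ℕ → ℝ)
      (f : ℕ → ℚ → ℕ → ℤ → ℕ) (b : ℕ → ℚ → ℕ → σ) (vm : ℕ → ℚ → ℝ) (w : κ → ℕ → ℚ → ℝ)
      (fr : ℕ → ℚ → ℕ × ℝ → LInc) (pr : Fin 12 → ℕ → ℚ → ℝ) (fl : ℕ → ℕ × ℝ → LInc)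
      (sc : Fin 12 → ℕ → ℝ),
      TSys P G g s θ β B I lev A f b vm w fr pr fl sc → Slack P β B sc →
      (∀ j, InvT P B I j fl (sc j) ∨ 0 < β j) →
      (∀ n (v : ℚ), pr 2 n v = rho (lev n v) * pr 1 n v) → (β 1 = 0 → FlOK I fl) →
      {j | ¬ InvT P B I j fl (sc j)}.ncard ≤ N →
      NatL3 P G g s θ β C0 fl B I lev f b vm w fr pr := by
  classical
  intro N
  induction N with
  | zero =>
    intro B I lev A f b vm w fr pr fl sc h hsl hβ hpu hfl hN
    have hall : ∀ j, InvT P B I j fl (sc j) := by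
      intro j
      by_contra hcon
      have h1 : {j | ¬ InvT P B I j fl (sc j)}.ncard = 0 := Nat.le_zero.1 hN
      rw [Set.ncard_eq_zero (Set.toFinite _)] at h1
      have : j ∈ {j | ¬ InvT P B I j fl (sc j)} := hcon
      rw [h1] at this
      exact this
    refine ⟨fun _ => 1, fun _ x => x, B, I, A, sc, fun _ _ => 0, fun n => ⟨one_pos, le_rfl⟩,
      fun n x h0 h1 => ⟨h0, h1⟩, fun n x y => by ring, fun n => by rw [Real.rpow_one],
      Eventually.of_forall fun n => Finset.Subset.refl _, fun _ => rfl, ?_⟩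
    rw [rg_zero]
    exact ⟨h, hsl, fun j => Or.inl (hall j), fun _ => Or.inl (hall 2)⟩
  | succ N ih =>
    intro B I lev A f b vm w fr pr fl sc h hsl hβ hpu hfl hN
    obtain ⟨J, R, hd, hS, hR⟩ := h.exists_rots hβ hsl hC
    have hInvJ : ∀ j, InvT P B I j fl (sc j) → InvT P B J j fl (sc j) :=
      fun j hj => hj.dense hd
    have hβJ : ∀ j, InvT P B J j fl (sc j) ∨ 0 < β j := fun j => (hβ j).imp (hInvJ j) id
    have hflJ : β 1 = 0 → FlOK J fl := fun h0 => (hfl h0).sub hd.1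
    -- a dense part with one more invisible slot
    have hless : ∀ J' : ℕ → Finset (ℕ × ℝ), Dense B J' I →
        TSys P G g s θ β B J' lev A f b vm w fr pr fl sc →
        (∃ j1, ¬ InvT P B I j1 fl (sc j1) ∧ InvT P B J' j1 fl (sc j1)) →
        NatL3 P G g s θ β C0 fl B I lev f b vm w fr pr := by
      intro J' hJ'd hSJ' hV
      obtain ⟨j1, hj1, hj1'⟩ := hV
      refine NatL3.mono hJ'd.1 (ih B J' lev A f b vm w fr pr fl sc hSJ' hsl
        (fun j => (hβ j).imp (fun hh => hh.dense hJ'd) id) hpu (fun h0 => (hfl h0).sub hJ'd.1) ?_)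
      have := ncard_lt (P := P) (fun j hj => InvT.dense hj hJ'd) hj1 hj1'
      omega
    by_cases hV : ∃ j1, ¬ InvT P B I j1 fl (sc j1) ∧ InvT P B J j1 fl (sc j1)
    · exact hless J hd hS hV
    push Not at hV
    by_cases hA : ∀ j, InvT P B J j fl (sc j) ∨ ¬ Free P β B I fl sc j ∨
        ∀ u : ℚ, 0 ≤ u → u < 1 → R j u = β j * u
    · -- linear modulus of the own twists
      have key : ∀ S : Finset (Fin 12), NatL3 P G g s θ β C0 fl B I lev f b vm w fr pr ∨
          ∃ J' : ℕ → Finset (ℕ × ℝ), Dense B J' J ∧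
            TSys P G g s θ β B J' lev A f b vm w fr pr fl sc ∧
            ∀ j ∈ S, 0 < β j → Free P β B I fl sc j →
              InvT P B J' j fl (sc j) ∨ TwP P B J' lev j fl (sc j) (β j) := by
        intro S
        induction S using Finset.induction_on with
        | empty =>
          exact Or.inr ⟨J, Dense.refl B J, hS, fun j hj => absurd hj (Finset.notMem_empty j)⟩
        | insert i S hi ihS =>
          rcases ihS with hgoal | ⟨J', hJ'd, hS', hT'⟩
          · exact Or.inl hgoal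
          have hJ'I : Dense B J' I := hJ'd.trans hd
          by_cases hvis : (0 < β i ∧ Free P β B I fl sc i) ∧ ¬ InvT P B J' i fl (sc i)
          · obtain ⟨⟨hβi, hfi⟩, hni⟩ := hvis
            obtain ⟨J3, hJ3d, hS3, hdich⟩ := exists_linmodG hS'
              (mem := memP P B i fl (sc i)) (memP_self (h.scpos i)) (β i)
            have hJ3I : Dense B J3 I := hJ3d.trans hJ'I
            rcases hdich with hmod | hwin
            · refine Or.inr ⟨J3, hJ3d.trans hJ'd, hS3, fun j hj hβj hfj => ?_⟩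
              rcases Finset.mem_insert.1 hj with rfl | hj
              · exact Or.inr (twP_of_modG hmod)
              · rcases hT' j hj hβj hfj with h5 | h5
                · exact Or.inl (h5.dense hJ3d)
                · exact Or.inr (h5.dense hS'.mka hS3.mka hJ3d)
            · refine Or.inl ?_
              obtain ⟨H1, m1, B1, I1, A1, sel, g1, g2, g3, g4, g5, g6, g7, g8, g9⟩ := hwin
              have hclose := win_close hS3 (fun j => (hβ j).imp (fun hh => hh.dense hJ3I) id) hsl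
                (hfi.dense hJ3I) g2 g3 g4 g5 g7
              obtain ⟨H, mm, B', I', A', sc', h1, h2, h3, h4, h5, h6, h7, h8, h9⟩ :=
                gap_inv g6 (g9 hsl) (j := i) hβi K3_pos.le hclose
              refine NatL3.comp0 g1 g2 g3 g4
                (by filter_upwards [g5, hJ3I.1] with n a1 a2 using a1.trans a2)
                (NatL3.comp0 h1 h2 h3 h4 h5
                (ih B' I' _ A' _ _ _ _ _ _ fl sc' h6 h7
                  (fun j => (hβ j).imp (fun hj => h9 j (g8 j (hj.dense hJ3I))) id)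
                  (fun n v => hpu n _)
                  (fun h0 => (((hfl h0).sub hJ3I.1).sub g5).sub h5) ?_))
              have := ncard_lt (P := P) (fun j hj => h9 j (g8 j (InvT.dense hj hJ3I)))
                (fun hh => hni (InvT.dense hh hJ'I)) h8
              omega
          · refine Or.inr ⟨J', hJ'd, hS', fun j hj hβj hfj => ?_⟩
            rcases Finset.mem_insert.1 hj with rfl | hj
            · by_cases hinv : InvT P B J' j fl (sc j)
              · exact Or.inl hinv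
              · exact absurd ⟨⟨hβj, hfj⟩, hinv⟩ hvis
            · exact hT' j hj hβj hfj
      rcases key Finset.univ with hgoal | ⟨J1, hJ1d, hS1, hT1⟩
      · exact hgoal
      have hJ1I : Dense B J1 I := hJ1d.trans hd
      by_cases hV1 : ∃ j1, ¬ InvT P B I j1 fl (sc j1) ∧ InvT P B J1 j1 fl (sc j1)
      · exact hless J1 hJ1I hS1 hV1
      push Not at hV1
      -- final configuration on a dense part of `J1`
      have hfin : ∀ J2 : ℕ → Finset (ℕ × ℝ), Dense B J2 J1 →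
          TSys P G g s θ β B J2 lev A f b vm w fr pr fl sc →
          (β 1 = 0 → InvT P B J2 2 fl (sc 2) ∨ STwL2 B J2 lev fl (sc 2)) →
          NatL3 P G g s θ β C0 fl B I lev f b vm w fr pr := by
        intro J2 hJ2d hS2 hlast
        have hJ2I : Dense B J2 I := hJ2d.trans hJ1I
        by_cases hV2 : ∃ j1, ¬ InvT P B I j1 fl (sc j1) ∧ InvT P B J2 j1 fl (sc j1)
        · exact hless J2 hJ2I hS2 hV2
        push Not at hV2
        refine ⟨fun _ => 1, fun _ x => x, B, J2, A, sc, fun _ _ => 0, fun n => ⟨one_pos, le_rfl⟩,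
            fun n x h0 h1 => ⟨h0, h1⟩, fun n x y => by ring, fun n => by rw [Real.rpow_one],
            hJ2I.1, fun _ => rfl, ?_⟩
        rw [rg_zero]
        refine ⟨hS2, hsl, fun j => ?_, hlast⟩
        by_cases hj : InvT P B J2 j fl (sc j)
        · exact Or.inl hj
        have hβj : 0 < β j := (hβ j).resolve_left fun hh => hj (hh.dense hJ2I)
        have hjJ1 : ¬ InvT P B J1 j fl (sc j) := fun hh => hj (hh.dense hJ2d)
        have hjJ : ¬ InvT P B J j fl (sc j) := fun hh => hjJ1 (hh.dense hJ1d)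
        by_cases hf : Free P β B I fl sc j
        · obtain ⟨k1, k2⟩ := hR j hβj hf
          have k3 := ((hA j).resolve_left hjJ).resolve_left (not_not.2 hf)
          have k4 := (hT1 j (Finset.mem_univ j) hβj hf).resolve_left hjJ1
          exact Or.inr (Or.inl ⟨hβj, (k1.lin hβj.le (hC j) k2 k3).dense hS.mka hS2.mka
            (hJ2d.trans hJ1d), k4.dense hS1.mka hS2.mka hJ2d⟩)
        · unfold Free at hf
          push Not at hf
          obtain ⟨a, ha, hle, hinv⟩ := hf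
          refine Or.inr (Or.inr ⟨hβj, a, ha, hle, fun t ht => ?_⟩)
          exact hV2 t (hinv t ht)
      by_cases hE : β 1 = 0 ∧ ¬ InvT P B J1 2 fl (sc 2)
      · -- the slot `E` is tied
        obtain ⟨hβD, hE⟩ := hE
        have hflI := hfl hβD
        have hEJ : ¬ InvT P B J 2 fl (sc 2) := fun hh => hE (hh.dense hJ1d)
        have hβE : 0 < β 2 := (hβJ 2).resolve_left hEJ
        have hD : InvT P B I 1 fl (sc 1) := hflI.invD hP (h.scpos 1)
        have hfE : Free P β B I fl sc 2 := fun a ha => Or.inr ⟨1, hM a ha, hD⟩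
        obtain ⟨r1, r2⟩ := hR 2 hβE hfE
        have r3 := ((hA 2).resolve_left hEJ).resolve_left (not_not.2 hfE)
        have hrot := r1.lin hβE.le (hC 2) r2 r3
        have hs : s < 1 := s_lt hS hβE (hC 2) hrot
        obtain ⟨J2, hJ2d, hS2, hdich⟩ := exists_linmod hS1 (jE := 2) (hβ1 hβD)
          (fun n x => gfL (fl n x))
        have hJI : Dense B J2 I := hJ2d.trans hJ1I
        have hfl2 : FlOK J2 fl := hflI.sub hJI.1
        rcases hdich with hst | hwa
        swap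
        · -- one more zoom and a change of gauge
          obtain ⟨H3, m3, B3, I3, A3, sc3, a3, g1, g2, g3, g4, g5, g6, g7, g8, g9⟩ := hwa
          have hfl3 : FlOK I3 fl := hfl2.sub g5
          obtain ⟨H, mm, B', I', A', sc', cc, h1, h2, h3, h4, h5, h6, h7, h8, h9⟩ :=
            regauge hP g6 (g9 hsl) hs hβD hβE (fun n v => hpu n _) hfl3.1 hfl3.2 (u := 0) (r := 1)
              le_rfl one_pos (by rw [Rat.cast_zero, mul_zero, Rat.cast_one]; exact one_pos) g7
          refine NatL3.comp0 g1 g2 g3 g4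
            (by filter_upwards [g5, hJI.1] with n a1 a2 using a1.trans a2)
            (NatL3.comp (fun hh => absurd hβD hh) h1 h2 h3 h4 h5
            (ih B' I' _ A' _ _ _ _ _ _ (rg cc fl) sc' h6 h7
              (fun j => (hβ j).imp (fun hj => h9 j (g8 j (hj.dense hJI))) id)
              (fun n v => hpu n _) (fun _ => (hfl3.sub h5).rg cc) ?_))
          have := ncard_lt (P := P) (fun j hj => h9 j (g8 j (InvT.dense hj hJI)))
            (fun hh => hE (InvT.dense hh hJ1I)) h8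
          omega
        · exact hfin J2 hJ2d hS2 fun _ => Or.inr (hst.toL hfl2.1)
      · refine hfin J1 (Dense.refl B J1) hS1 fun h0 => Or.inl ?_
        by_contra hcon
        exact hE ⟨h0, hcon⟩
    · push Not at hA
      obtain ⟨j0, hj0, hf0, hA⟩ := hA
      have hβ0 : 0 < β j0 := (hβJ j0).resolve_left hj0
      obtain ⟨u0, hu0, hu1, hne⟩ := hA
      obtain ⟨hR0, hR1⟩ := hR j0 hβ0 hf0
      have hu0' : (0 : ℝ) ≤ u0 := by exact_mod_cast hu0
      have hu1' : (u0 : ℝ) < 1 := by exact_mod_cast hu1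
      have hlt : β j0 * u0 < R j0 u0 := lt_of_le_of_ne (hR1 u0 hu0' hu1'.le) (Ne.symm hne)
      set D : ℝ := R j0 u0 - β j0 * u0 with hDdef
      have hD : 0 < D := by rw [hDdef]; linarith
      set δ : ℝ := min (D / (2 * β j0)) (1 - u0) with hδdef
      have hδ : 0 < δ := lt_min (by positivity) (by linarith)
      have hδ1 : δ ≤ D / (2 * β j0) := min_le_left _ _
      have hδ2 : δ ≤ 1 - u0 := min_le_right _ _
      have hgap : ∀ᶠ v in 𝓝 ((u0 : ℝ) + δ / 2), β j0 * v + D / 2 ≤ R j0 v := by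
        have hmem : Set.Ioo (u0 : ℝ) (u0 + δ) ∈ 𝓝 ((u0 : ℝ) + δ / 2) :=
          Ioo_mem_nhds (by linarith) (by linarith)
        filter_upwards [hmem] with v hv
        have c1 : R j0 u0 ≤ R j0 v := hR0.mono ⟨hu0', hu1'.le⟩ ⟨by linarith [hv.1], by
          linarith [hv.2]⟩ hv.1.le
        have c2 : β j0 * (v - u0) ≤ β j0 * (D / (2 * β j0)) :=
          mul_le_mul_of_nonneg_left (by linarith [hv.2]) hβ0.le
        have c3 : β j0 * (D / (2 * β j0)) = D / 2 := by field_simp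
        rw [c3] at c2
        have c4 : β j0 * (v - u0) = β j0 * v - β j0 * u0 := by ring
        rw [c4] at c2
        linarith
      obtain ⟨H, mm, B', I', A', sc', h1, h2, h3, h4, h5, h6, h7, h8, h9⟩ :=
        hS.zoom_gap hsl (v0 := (u0 : ℝ) + δ / 2) hR0 (by linarith) (by linarith)
          (D := D / 2) (by positivity) hgap
      refine NatL3.comp0 h1 h2 h3 h4 (by filter_upwards [h5, hd.1] with n a1 a2 using a1.trans a2)
        (ih B' I' _ A' _ _ _ _ _ _ fl sc' h6 h7 (fun j => (hβJ j).imp (h9 j) id)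
          (fun n v => hpu n _) (fun h0 => (hflJ h0).sub h5) ?_)
      have := ncard_lt (P := P) (fun j hj => h9 j (hInvJ j hj)) (fun hh => hj0 (hInvJ j0 hh)) h8
      omega

/-- **second zoom of the light-ray chart**, final user form. -/
theorem natL3 [Countable κ] (hP : ∀ k n a b, P.d k n a b = |coL a b k|)
    (hM : ∀ a ∈ P.M.mon 2, a 1 ≠ 0) (hβ1 : β 1 = 0 → β 2 = 1)
    (hC : ∀ j, β j ≤ C0 j) (h : TSys P G g s θ β B I lev A f b vm w fr pr fl sc)
    (hβ : ∀ j, InvT P B I j fl (sc j) ∨ 0 < β j)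
    (hpu : ∀ n (v : ℚ), pr 2 n v = rho (lev n v) * pr 1 n v) (hfl : β 1 = 0 → FlOK I fl) :
    NatL3 P G g s θ β C0 fl B I lev f b vm w fr pr := by
  obtain ⟨H, mm, B', I', A', sc', h1, h2, h3, h4, h5, h6, h7, h8⟩ := h.zoom_slack
  exact NatL3.comp0 h1 h2 h3 h4 h5 (exists_natL3 hP hM hβ1 hC _ B' I' _ A' _ _ _ _ _ _ fl sc' h6 h7
    (fun j => (hβ j).imp (h8 j) id) (fun n v => hpu n _) (fun h0 => (hfl h0).sub h5) le_rfl)

/-- `NatL3` is stronger than `NatL2` -/
theorem NatL3.toNatL2 (h : NatL3 P G g s θ β C0 fl B I lev f b vm w fr pr) :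
    NatL2 P G g s θ β C0 fl B I lev f b vm w fr pr := by
  obtain ⟨H2, m2, B2, I2, A2, sc2, c2, h1, h2, h3, h4, h5, hc2, h6, h7, h8, h9⟩ := h
  refine ⟨H2, m2, B2, I2, A2, sc2, c2, h1, h2, h3, h4, h5, hc2, h6, h7, fun j => ?_, h9⟩
  rcases h8 j with k | ⟨k1, k2, -⟩ | k
  · exact Or.inl k
  · exact Or.inr (Or.inl ⟨k1, k2⟩)
  · exact Or.inr (Or.inr k)

end

end Crest.Agent.R116.Rn899
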