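import Crest.Agent.R116.Kst2_593
import Crest.Agent.R116.Rn3_899
import Crest.Agent.R116.PL2_504

/-!
# R116, K side: own strips in a window (helper593), part 4: the input for the light chart

`StC` : strips of a slot with a linear modulus (common form of `TwP`, slopes `{0}`, and `STwL2`,
all slopes, of helper899).  `ostrips_of` : `OStrips` for the normalised chart `coN` of helper504.
-/

set_option autoImplicit false
set_option linter.unusedSectionVars false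
set_option linter.unusedVariables false

open Finset Filter Topology

namespace Crest.Agent.R116.Kst593

open Crest.Agent.R138.Ex926 (Base U)
open Crest.Agent.R138.Mk163 (zc zl rho alive own)
open Crest.Agent.R136.MkA627
open Crest.Agent.R136.TD627
open Crest.Agent.R116.ChL222
open Crest.Agent.R116.PL504

/-- `OStrips` passes to samples -/
theorem OStrips.sub {m : ℕ} {ι : ℕ → Type*} [∀ n, DecidableEq (ι n)] {B : Base}
    {I I' : ∀ n, Finset (ι n)} {co : ∀ n, ι n → ι n → Fin m → ℝ}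
    {rl : ∀ n, ι n → ℕ} {κ : Type*} [DecidableEq κ] {cell : ∀ n, ℚ → ι n → κ} {kz : Fin m}
    {Ts : Finset (Fin m)} {w0 s : ℝ} {γ o0 β : Fin m → ℝ} {Sl : Fin m → Set ℝ}
    (H : OStrips B I co rl cell kz Ts w0 s γ o0 β Sl)
    (hs : ∀ᶠ n in (U : Filter ℕ), I' n ⊆ I n) :
    OStrips B I' co rl cell kz Ts w0 s γ o0 β Sl where
  cells := fun u h0 h1 ε hε => by
    filter_upwards [H.cells u h0 h1 ε hε, hs] with n g1 g2 p hp
    refine le_trans ?_ (g1 p (g2 hp))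
    exact_mod_cast card_le_card (image_subset_image (filter_subset_filter _ g2))
  strip := fun t ht u r h0 hur h1 ε hε => by
    filter_upwards [H.strip t ht u r h0 hur h1 ε hε, hs] with n g1 g2 p hp c hc
    refine le_trans ?_ (g1 p (g2 hp) c hc)
    exact_mod_cast card_le_card (filter_subset_filter _ g2)

/-- less slots, less slopes -/
theorem OStrips.mono {m : ℕ} {ι : ℕ → Type*} [∀ n, DecidableEq (ι n)] {B : Base}
    {I : ∀ n, Finset (ι n)} {co : ∀ n, ι n → ι n → Fin m → ℝ}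
    {rl : ∀ n, ι n → ℕ} {κ : Type*} [DecidableEq κ] {cell : ∀ n, ℚ → ι n → κ} {kz : Fin m}
    {Ts Ts' : Finset (Fin m)} {w0 s : ℝ} {γ o0 β : Fin m → ℝ} {Sl Sl' : Fin m → Set ℝ}
    (H : OStrips B I co rl cell kz Ts w0 s γ o0 β Sl)
    (hT : Ts' ⊆ Ts) (hS : ∀ t, Sl' t ⊆ Sl t) :
    OStrips B I co rl cell kz Ts' w0 s γ o0 β Sl' where
  cells := H.cells
  strip := fun t ht u r h0 hur h1 ε hε => by
    filter_upwards [H.strip t (hT ht) u r h0 hur h1 ε hε] with n g1 p hp c hc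
    exact g1 p hp c (hS t hc)

/-- **strips of the slot `t` with a linear modulus**, slopes `c ∈ Sl` -/
def StC (B : Base) (I : ℕ → Finset (ℕ × ℝ)) (lev : ℕ → ℚ → ℕ) (fl : ℕ → ℕ × ℝ → LInc)
    (sc : ℕ → ℝ) (t : Fin 12) (β : ℝ) (Sl : Set ℝ) : Prop :=
  ∃ γ0 : ℝ, 0 < γ0 ∧ ∀ u r : ℚ, 0 ≤ u → u < r → r ≤ 1 → ∀ ε : ℝ, 0 < ε →
    ∀ᶠ n in (U : Filter ℕ), ∀ x ∈ I n, ∀ c ∈ Sl, ∀ F ⊆ I n, (∀ y ∈ F, y.1 = x.1 ∧
      zc (lev n u) y.2 = zc (lev n u) x.2 ∧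
      |coL (fl n x) (fl n y) t - c * (y.2 - x.2)| ≤ sc n * B.d n ^ (β * (r : ℝ))) →
      (F.card : ℝ) ≤
        B.d n ^ (γ0 * ((r : ℝ) - u) - ε) * ((own (I n) (lev n u) (lev n 1) x).card : ℝ)

theorem stC_of_TwP {P : TDist LInc 12} (hP : ∀ k n a b, P.d k n a b = |coL a b k|) {B : Base}
    {I : ℕ → Finset (ℕ × ℝ)} {lev : ℕ → ℚ → ℕ} {fl : ℕ → ℕ × ℝ → LInc} {sc : ℕ → ℝ}
    {t : Fin 12} {β : ℝ} (h : Rn899.TwP P B I lev t fl sc β) : StC B I lev fl sc t β {0} := by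
  classical
  obtain ⟨γ0, hγ0, h⟩ := h
  refine ⟨γ0, hγ0, fun u r h0 hur h1 ε hε => ?_⟩
  filter_upwards [h u r h0 hur h1 ε hε] with n hn x hx c hc F hF hFy
  refine le_trans ?_ (hn x hx)
  refine Nat.cast_le.2 (card_le_card fun y hy => mem_filter.2 ⟨hF hy, ?_⟩)
  obtain ⟨a1, a2, a3⟩ := hFy y hy
  refine ⟨a1, a2, ?_⟩
  rw [hP]
  rw [Set.mem_singleton_iff.1 hc, zero_mul, sub_zero] at a3
  exact a3

theorem stC_of_STwL2 {B : Base}
    {I : ℕ → Finset (ℕ × ℝ)} {lev : ℕ → ℚ → ℕ} {fl : ℕ → ℕ × ℝ → LInc} {sc : ℕ → ℝ}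
    (h : Rm899.STwL2 B I lev fl sc) : StC B I lev fl sc 2 1 Set.univ := by
  classical
  obtain ⟨γ0, hγ0, h⟩ := h
  refine ⟨γ0, hγ0, fun u r h0 hur h1 ε hε => ?_⟩
  filter_upwards [h u r h0 hur h1 ε hε] with n hn x hx c hc F hF hFy
  refine le_trans ?_ (hn x hx c)
  refine Nat.cast_le.2 (card_le_card fun y hy => mem_filter.2 ⟨hF hy, ?_⟩)
  obtain ⟨a1, a2, a3⟩ := hFy y hy
  rw [one_mul] at a3
  exact ⟨a1, a2, a3⟩

section

variable {σ : Type*} {P : TDist LInc 12} {B : Base} {I : ℕ → Finset (ℕ × ℝ)} {G : Geo σ (Fin 2)}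
    {lev : ℕ → ℚ → ℕ} {A : ℕ → ℝ} {g s : ℝ} {θ : Fin 2 → ℝ} {f : ℕ → ℚ → ℕ → ℤ → ℕ}
    {b : ℕ → ℚ → ℕ → σ} {vm : ℕ → ℚ → ℝ} {w : Fin 2 → ℕ → ℚ → ℝ}
    {fr : ℕ → ℚ → ℕ × ℝ → LInc} {pr : Fin 12 → ℕ → ℚ → ℝ} {fl : ℕ → ℕ × ℝ → LInc}
    {sc : Fin 12 → ℕ → ℝ}

/-- number of cells of level `i` in a ball -/
theorem card_zc_ball (F : Finset (ℕ × ℝ)) (i : ℕ) (a : ℝ) {D : ℝ} (hD : 0 ≤ D)
    (h : ∀ y ∈ F, |(2 : ℝ) ^ i * y.2 - a| ≤ D) :
    ((F.image fun y => zc i y.2).card : ℝ) ≤ 2 * D + 2 := by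
  have h1 : (F.image fun y => zc i y.2) ⊆ Finset.Icc ⌊a - D⌋ ⌊a + D⌋ := by
    intro q hq
    obtain ⟨y, hy, rfl⟩ := mem_image.1 hq
    have h2 := abs_le.1 (h y hy)
    rw [Finset.mem_Icc]
    exact ⟨Int.floor_le_floor (by linarith), Int.floor_le_floor (by linarith)⟩
  have h2 := card_le_card h1
  rw [Int.card_Icc] at h2
  have h3 : ((F.image fun y => zc i y.2).card : ℝ) ≤ ((⌊a + D⌋ + 1 - ⌊a - D⌋).toNat : ℝ) := by
    exact_mod_cast h2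
  refine h3.trans ?_
  have h4 : ⌊a - D⌋ ≤ ⌊a + D⌋ := Int.floor_le_floor (by linarith)
  have h5 : (((⌊a + D⌋ + 1 - ⌊a - D⌋).toNat : ℤ) : ℝ) = ((⌊a + D⌋ + 1 - ⌊a - D⌋ : ℤ) : ℝ) := by
    rw [Int.toNat_of_nonneg (by omega)]
  have h6 : ((⌊a + D⌋ + 1 - ⌊a - D⌋).toNat : ℝ) = ((⌊a + D⌋ + 1 - ⌊a - D⌋ : ℤ) : ℝ) := by
    rw [← h5]; norm_cast
  rw [h6]
  push_cast
  have h7 := Int.floor_le (a + D)
  have h8 := Int.lt_floor_add_one (a - D)
  linarith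

/-- few cells in a ball -/
theorem cells_coN (h : TSys P G g s θ (βL (θ 0) (θ 1)) B I lev A f b vm w fr pr fl sc)
    (hfl : ∀ n x, (fl n x).z = x.2) (w0 sa sb : ℝ) (u : ℚ) (h0 : 0 ≤ u) (h1 : u ≤ 1) {ε : ℝ}
    (hε : 0 < ε) : ∀ᶠ n in (U : Filter ℕ), ∀ p ∈ I n,
    ((((I n).filter fun y => |coN B lev w w0 sa sb fl n p y 0| ≤ B.d n ^ (w0 + (u : ℝ))).image
      (fun y => zc (lev n u) y.2)).card : ℝ) ≤ B.d n ^ (-ε) := by
  filter_upwards [ev_len h.mka h0 h1 (half_pos hε),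
    R136.Qg926.ev_const_le B (c := 4) (by norm_num) (half_pos hε)] with n a1 a2 p hp
  have hd := fun t => rp_pos B n t
  have hr := rho_pos (lev n u)
  have h2 : (0 : ℝ) < (2 : ℝ) ^ lev n 0 := by positivity
  have hρ : rho (lev n u) = 1 / (2 : ℝ) ^ lev n u := rfl
  have h3 : ∀ y ∈ (I n).filter fun y => |coN B lev w w0 sa sb fl n p y 0| ≤
      B.d n ^ (w0 + (u : ℝ)), |(2 : ℝ) ^ lev n u * y.2 - (2 : ℝ) ^ lev n u * p.2| ≤
      B.d n ^ (-(ε / 2)) := by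
    intro y hy
    have h4 := (mem_filter.1 hy).2
    have e1 : coN B lev w w0 sa sb fl n p y 0 =
        B.d n ^ w0 * ((2 : ℝ) ^ lev n 0 * (y.2 - p.2)) := by
      show cN B lev w w0 sa sb n 0 * coL (fl n p) (fl n y) 0 = _
      have e1 : cN B lev w w0 sa sb n 0 = (2 : ℝ) ^ lev n 0 * B.d n ^ w0 := rfl
      have e2 : coL (fl n p) (fl n y) 0 = (fl n y).z - (fl n p).z := rfl
      rw [e1, e2, hfl, hfl]
      ring
    rw [e1, abs_mul, abs_of_pos (hd w0), rp_add, abs_mul, abs_of_pos h2] at h4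
    have h5 : (2 : ℝ) ^ lev n 0 * |y.2 - p.2| ≤ B.d n ^ (u : ℝ) := le_of_mul_le_mul_left h4 (hd _)
    have h6 : B.d n ^ (u : ℝ) ≤ B.d n ^ (-(ε / 2)) * ((2 : ℝ) ^ lev n 0 * rho (lev n u)) := by
      refine le_trans (le_of_eq ?_) (mul_le_mul_of_nonneg_left a1.1 (hd _).le)
      rw [← rp_add]; congr 1; ring
    have h7 : |y.2 - p.2| ≤ B.d n ^ (-(ε / 2)) * rho (lev n u) := by
      have : (2 : ℝ) ^ lev n 0 * |y.2 - p.2| ≤
          (2 : ℝ) ^ lev n 0 * (B.d n ^ (-(ε / 2)) * rho (lev n u)) := by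
        refine (h5.trans h6).trans (le_of_eq ?_); ring
      exact le_of_mul_le_mul_left this h2
    have e3 : (2 : ℝ) ^ lev n u * y.2 - (2 : ℝ) ^ lev n u * p.2 =
        (2 : ℝ) ^ lev n u * (y.2 - p.2) := by ring
    rw [e3, abs_mul, abs_of_pos (by positivity : (0 : ℝ) < (2 : ℝ) ^ lev n u)]
    calc (2 : ℝ) ^ lev n u * |y.2 - p.2| ≤
        (2 : ℝ) ^ lev n u * (B.d n ^ (-(ε / 2)) * rho (lev n u)) :=
          mul_le_mul_of_nonneg_left h7 (by positivity)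
      _ = B.d n ^ (-(ε / 2)) := by rw [hρ]; field_simp
  refine (card_zc_ball _ _ _ (hd _).le h3).trans ?_
  have h4 : (1 : ℝ) ≤ B.d n ^ (-(ε / 2)) :=
    Real.one_le_rpow_of_pos_of_le_one_of_nonpos (B.pos n) (B.lt n).le (by linarith)
  calc 2 * B.d n ^ (-(ε / 2)) + 2 ≤ 4 * B.d n ^ (-(ε / 2)) := by linarith
    _ ≤ B.d n ^ (-(ε / 2)) * B.d n ^ (-(ε / 2)) := mul_le_mul_of_nonneg_right a2 (hd _).le
    _ = B.d n ^ (-ε) := by rw [← rp_add]; congr 1; ring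

/-- strips in the normalised chart -/
theorem strip_coN (h : TSys P G g s θ (βL (θ 0) (θ 1)) B I lev A f b vm w fr pr fl sc)
    (hpr : ∀ k n v, pr k n v = prN lev w k n v) (hfl : ∀ n x, (fl n x).z = x.2)
    (w0 sa sb : ℝ) {t : Fin 12} (hβ : 0 < βL (θ 0) (θ 1) t) {Sl : Set ℝ}
    (hSl : Sl = {0} ∨ Sl = Set.univ)
    {γ0 : ℝ} (hγ0 : 0 < γ0)
    (hS : ∀ u r : ℚ, 0 ≤ u → u < r → r ≤ 1 → ∀ ε : ℝ, 0 < ε →
    ∀ᶠ n in (U : Filter ℕ), ∀ x ∈ I n, ∀ c ∈ Sl, ∀ F ⊆ I n, (∀ y ∈ F, y.1 = x.1 ∧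
      zc (lev n u) y.2 = zc (lev n u) x.2 ∧
      |coL (fl n x) (fl n y) t - c * (y.2 - x.2)| ≤
        sc t n * B.d n ^ (βL (θ 0) (θ 1) t * (r : ℝ))) →
      (F.card : ℝ) ≤
        B.d n ^ (γ0 * ((r : ℝ) - u) - ε) * ((own (I n) (lev n u) (lev n 1) x).card : ℝ))
    (u r : ℚ) (h0 : 0 ≤ u) (hur : u < r) (h1 : r ≤ 1) {ε : ℝ} (hε : 0 < ε) :
    ∀ᶠ n in (U : Filter ℕ), ∀ p ∈ I n, ∀ c ∈ Sl, (((I n).filter fun y => y.1 = p.1 ∧
      zc (lev n u) y.2 = zc (lev n u) p.2 ∧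
      |coN B lev w w0 sa sb fl n p y t - c * coN B lev w w0 sa sb fl n p y 0| ≤
        B.d n ^ (rL (θ 0) (θ 1) w0 sa sb 0 t + βL (θ 0) (θ 1) t * (r : ℝ))).card : ℝ) ≤
      B.d n ^ (γ0 * ((r : ℝ) - u) - (1 - s) * (1 - u) - ε) := by
  have hur' : (u : ℝ) < r := by exact_mod_cast hur
  -- a slightly smaller level
  obtain ⟨r', hr1, hr2⟩ : ∃ r' : ℚ, max (u : ℝ) (r - ε / (4 * γ0)) < r' ∧ (r' : ℝ) < r :=
    exists_rat_btwn (max_lt hur' (by have : 0 < ε / (4 * γ0) := by positivity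
                                     linarith))
  have hur1 : (u : ℝ) < r' := (le_max_left _ _).trans_lt hr1
  have hr3 : (r : ℝ) - ε / (4 * γ0) < r' := (le_max_right _ _).trans_lt hr1
  have hgap : γ0 * ((r : ℝ) - r') ≤ ε / 4 := by
    have h2 : (r : ℝ) - r' ≤ ε / (4 * γ0) := by linarith
    calc γ0 * ((r : ℝ) - r') ≤ γ0 * (ε / (4 * γ0)) := mul_le_mul_of_nonneg_left h2 hγ0.le
      _ = ε / 4 := by field_simp
  have hκ : 0 < βL (θ 0) (θ 1) t * ((r : ℝ) - r') := mul_pos hβ (by linarith)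
  have hu1 : u ≤ 1 := hur.le.trans h1
  filter_upwards [hS u r' h0 (by exact_mod_cast hur1) ((by exact_mod_cast hr2.le : r' ≤ r).trans h1)
      (ε / 4) (by positivity), cN_sc h hpr w0 sa sb t hκ,
    R136.PqG464.hR_own h.mka u h0 hu1 (δ := ε / 4) (by positivity)] with n a1 a2 a3 p hp c hc
  have hd := fun t => rp_pos B n t
  have hcN := cN_pos B lev w w0 sa sb n t
  have hcN0 := cN_pos B lev w w0 sa sb n 0
  set c' : ℝ := c * cN B lev w w0 sa sb n 0 / cN B lev w w0 sa sb n t with hc'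
  have hc'S : c' ∈ Sl := by
    rcases hSl with e | e
    · rw [e] at hc ⊢
      rw [hc', Set.mem_singleton_iff.1 hc]
      simp
    · rw [e]; exact Set.mem_univ _
  have key := a1 p hp c' hc'S ((I n).filter fun y => y.1 = p.1 ∧
      zc (lev n u) y.2 = zc (lev n u) p.2 ∧
      |coN B lev w w0 sa sb fl n p y t - c * coN B lev w w0 sa sb fl n p y 0| ≤
        B.d n ^ (rL (θ 0) (θ 1) w0 sa sb 0 t + βL (θ 0) (θ 1) t * (r : ℝ)))
    (filter_subset _ _) (fun y hy => by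
      obtain ⟨-, y1, y2, y3⟩ := mem_filter.1 hy
      refine ⟨y1, y2, ?_⟩
      have e2 : coL (fl n p) (fl n y) 0 = y.2 - p.2 := by
        have : coL (fl n p) (fl n y) 0 = (fl n y).z - (fl n p).z := rfl
        rw [this, hfl, hfl]
      have e1 : coN B lev w w0 sa sb fl n p y t - c * coN B lev w w0 sa sb fl n p y 0 =
          cN B lev w w0 sa sb n t * (coL (fl n p) (fl n y) t - c' * (y.2 - p.2)) := by
        unfold coN
        rw [e2, hc']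
        field_simp
      rw [e1, abs_mul, abs_of_pos hcN] at y3
      have e3 : B.d n ^ (rL (θ 0) (θ 1) w0 sa sb 0 t + βL (θ 0) (θ 1) t * (r : ℝ)) ≤
          cN B lev w w0 sa sb n t * (sc t n * B.d n ^ (βL (θ 0) (θ 1) t * (r' : ℝ))) := by
        rw [← mul_assoc]
        refine le_trans (le_of_eq ?_) (mul_le_mul_of_nonneg_right a2.1 (hd _).le)
        rw [← rp_add]; congr 1; ring
      exact le_of_mul_le_mul_left (y3.trans e3) hcN)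
  refine key.trans ?_
  calc B.d n ^ (γ0 * ((r' : ℝ) - u) - ε / 4) * ((own (I n) (lev n u) (lev n 1) p).card : ℝ)
      ≤ B.d n ^ (γ0 * ((r' : ℝ) - u) - ε / 4) * B.d n ^ (-(ε / 4) - (1 - s) * (1 - u)) :=
        mul_le_mul_of_nonneg_left (a3 p hp) (hd _).le
    _ = B.d n ^ (γ0 * ((r' : ℝ) - u) - ε / 4 + (-(ε / 4) - (1 - s) * (1 - u))) := by rw [rp_add]
    _ ≤ _ := rp_anti _ _ (by linarith)

/-- **the input for the light chart**: tied slots `Ts` with their linear moduli -/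
theorem ostrips_of (h : TSys P G g s θ (βL (θ 0) (θ 1)) B I lev A f b vm w fr pr fl sc)
    (hpr : ∀ k n v, pr k n v = prN lev w k n v) (hfl : ∀ n x, (fl n x).z = x.2)
    (w0 sa sb : ℝ) (Ts : Finset (Fin 12)) (hβ : ∀ t ∈ Ts, 0 < βL (θ 0) (θ 1) t)
    (Sl : Fin 12 → Set ℝ) (hSl : ∀ t ∈ Ts, Sl t = {0} ∨ Sl t = Set.univ)
    (hS : ∀ t ∈ Ts, StC B I lev fl (sc t) t (βL (θ 0) (θ 1) t) (Sl t)) :
    ∃ γ : Fin 12 → ℝ, (∀ t, 0 < γ t) ∧
      OStrips B I (coN B lev w w0 sa sb fl) (fun _ x => x.1) (fun n u y => zc (lev n u) y.2) 0 Ts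
        w0 s γ (rL (θ 0) (θ 1) w0 sa sb 0) (βL (θ 0) (θ 1)) Sl := by
  have hex : ∀ t : Fin 12, ∃ γ0 : ℝ, 0 < γ0 ∧ (t ∈ Ts → ∀ u r : ℚ, 0 ≤ u → u < r → r ≤ 1 →
      ∀ ε : ℝ, 0 < ε → ∀ᶠ n in (U : Filter ℕ), ∀ x ∈ I n, ∀ c ∈ Sl t, ∀ F ⊆ I n,
      (∀ y ∈ F, y.1 = x.1 ∧ zc (lev n u) y.2 = zc (lev n u) x.2 ∧
      |coL (fl n x) (fl n y) t - c * (y.2 - x.2)| ≤
        sc t n * B.d n ^ (βL (θ 0) (θ 1) t * (r : ℝ))) →
      (F.card : ℝ) ≤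
        B.d n ^ (γ0 * ((r : ℝ) - u) - ε) * ((own (I n) (lev n u) (lev n 1) x).card : ℝ)) := by
    intro t
    by_cases ht : t ∈ Ts
    · obtain ⟨γ0, h1, h2⟩ := hS t ht
      exact ⟨γ0, h1, fun _ => h2⟩
    · exact ⟨1, one_pos, fun h => absurd h ht⟩
  choose γ hγ hγS using hex
  refine ⟨γ, hγ, { cells := ?_, strip := ?_ }⟩
  · intro u h0 h1 ε hε
    exact cells_coN h hfl w0 sa sb u h0 h1 hε
  · intro t ht u r h0 hur h1 ε hε
    filter_upwards [strip_coN h hpr hfl w0 sa sb (hβ t ht) (hSl t ht) (hγ t) (hγS t ht) u r h0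
      hur h1 hε] with n hn p hp c hc
    exact hn p hp c hc

end

end Crest.Agent.R116.Kst593
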