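import Crest.Agent.R116.Ec1_460

/-!
# R116, K-TEXT II-c: untied and isotropic records (helper337)

Untied record `(v; -θ v, -θb v)`, `θ > 0`, `θb` of any sign, `σ = θb / θ`.
`L` = side of `{record, (-1,0,0)}` where `C_b` is coarser, `U` = side where `C_a` is coarser,
`W` = half plane of the direction `(-1, 1, 1)`.
In the interior `P_v = x + n + h - e`, `P_a = x + 2 h - m`, `P_b = n - r`, hence
`P_v - P_a - P_b = m + r - h - e` (only fan rates).
-/

set_option autoImplicit false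

namespace Crest.Agent.R116.Ku337

open Crest.Agent.R116.Ec460 (Side)

/-- window facts at an untied record (no relation between `m` and `r`) -/
structure WinU (s : ℝ) (S : Side) : Prop where
  x0 : 0 ≤ S.x
  n0 : 0 ≤ S.n
  h0 : 0 ≤ S.h
  m0 : 0 ≤ S.m
  r0 : 0 ≤ S.r
  e0 : 0 ≤ S.e
  kx : 0 < S.m → S.x ≤ s
  kh : 0 < S.m → S.h ≤ s
  fx : s < S.m → S.x = 0
  fh : s < S.m → S.h = 0
  kn : 0 < S.r → S.n ≤ s
  fn : s < S.r → S.n = 0

/-- `v`-derivative of `f` in the interior -/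
def fv (b : ℝ) (S : Side) : ℝ := S.x + S.n + S.h - S.e - b

/-- `a`-derivative of `f` in the interior -/
def fa (qa : ℝ) (S : Side) : ℝ := S.x + 2 * S.h - S.m + qa

/-- `b`-derivative of `f` in the interior -/
def fb (qb : ℝ) (S : Side) : ℝ := S.n - S.r + qb

/-- the identity of the direction `(-1, 1, 1)` -/
theorem neutral (b qa qb : ℝ) (S : Side) :
    fv b S - fa qa S - fb qb S = S.m + S.r - S.h - S.e - b - qa - qb := by
  unfold fv fa fb; ring

/-- **`σ < 0`**: both fan rates are maximal on `L`. -/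
theorem untied_neg {s b qa qb : ℝ} {L W : Side} (hb : 2 * s < b) (hs : 0 ≤ s)
    (hqa : 0 < qa) (hqb : 0 < qb) (hL : WinU s L) (hW : WinU s W)
    (hm : qa ≤ L.m) (hr : qb ≤ L.r) (hfL : 0 ≤ fv b L)
    (hWm : W.m ≤ L.m) (hWr : W.r ≤ L.r) (hfW : 0 ≤ fv b W - fa qa W - fb qb W) : False := by
  have h1 := hL.kx (by linarith)
  have h2 := hL.kh (by linarith)
  have h3 := hL.kn (by linarith)
  unfold fv at hfL
  have h4 : L.m ≤ s := by
    by_contra hc
    push Not at hc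
    have := hL.fx hc
    have := hL.fh hc
    linarith [hL.e0]
  have h5 : L.r ≤ s := by
    by_contra hc
    push Not at hc
    have := hL.fn hc
    linarith [hL.e0]
  rw [neutral] at hfW
  linarith [hW.h0, hW.e0]

/-- **`0 ≤ σ < 1`**: `W` lies on the `U` side. -/
theorem untied_lt {s b qa qb : ℝ} {L U W : Side} (hb : 2 * s < b) (hs : 0 ≤ s)
    (hqa : 0 < qa) (hqb : 0 < qb) (hL : WinU s L) (hU : WinU s U) (hW : WinU s W)
    (hm : qa ≤ L.m) (hr : qb ≤ U.r) (hfU : 0 ≤ fv b U)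
    (hx : U.x = L.x) (hh : U.h = L.h)
    (hWm : W.m ≤ U.m) (hWr : W.r ≤ U.r) (hfW : 0 ≤ fv b W - fa qa W - fb qb W) : False := by
  have h1 := hL.kx (by linarith)
  have h2 := hL.kh (by linarith)
  have h3 := hU.kn (by linarith)
  unfold fv at hfU
  have h4 : U.m ≤ s := by
    by_contra hc
    push Not at hc
    have := hU.fx hc
    have := hU.fh hc
    linarith [hU.e0]
  have h5 : U.r ≤ s := by
    by_contra hc
    push Not at hc
    have := hU.fn hc
    linarith [hU.e0]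
  rw [neutral] at hfW
  linarith [hW.h0, hW.e0]

/-- exits on `L`, if `W` lies on the `L` side: `m > s`, `x = h = 0`, `n ≥ b`. -/
theorem untied_L {s b qa qb : ℝ} {L W : Side} (hb : 2 * s < b) (hs : 0 ≤ s)
    (hqa : 0 < qa) (hqb : 0 < qb) (hL : WinU s L) (hW : WinU s W)
    (hm : qa ≤ L.m) (hfL : 0 ≤ fv b L)
    (hWm : W.m ≤ L.m) (hWr : W.r ≤ L.r) (hfW : 0 ≤ fv b W - fa qa W - fb qb W) :
    s < L.m ∧ L.x = 0 ∧ L.h = 0 ∧ b ≤ L.n ∧ L.r = 0 := by
  have h1 := hL.kx (by linarith)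
  have h2 := hL.kh (by linarith)
  unfold fv at hfL
  have h5 : L.r ≤ s := by
    by_contra hc
    push Not at hc
    have := hL.fn hc
    linarith [hL.e0]
  rw [neutral] at hfW
  have h4 : s < L.m := by
    by_contra hc
    push Not at hc
    linarith [hW.h0, hW.e0]
  have h6 := hL.fx h4
  have h7 := hL.fh h4
  have h8 : b ≤ L.n := by linarith [hL.e0]
  refine ⟨h4, h6, h7, h8, ?_⟩
  by_contra hc
  have h9 : 0 < L.r := lt_of_le_of_ne hL.r0 (Ne.symm hc)
  have := hL.kn h9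
  linarith

/-- **`σ > 1`, `σ ≠ 2`**: `N` has no partner on the plane of `(-1,0,0)`. -/
theorem untied_gt {s b qa qb : ℝ} {L U W : Side} (hb : 2 * s < b) (hs : 0 ≤ s)
    (hqa : 0 < qa) (hqb : 0 < qb) (hL : WinU s L) (hU : WinU s U) (hW : WinU s W)
    (hm : qa ≤ L.m) (hr : qb ≤ U.r) (hfL : 0 ≤ fv b L) (hn : L.n = U.n)
    (hWm : W.m ≤ L.m) (hWr : W.r ≤ L.r) (hfW : 0 ≤ fv b W - fa qa W - fb qb W) : False := by
  obtain ⟨-, -, -, h1, -⟩ := untied_L hb hs hqa hqb hL hW hm hfL hWm hWr hfW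
  have := hU.kn (by linarith)
  linarith

/-- **`σ = 2`**: `N ∥ H` and `C_b ∥ C_a` on the plane of `(-1,0,0)`.  `hmix` = the Kaufman bound
`h ≤ x` of the block `(C_a, X_a, H)` in the fibre with `C_b` coarse and `N` fine. -/
theorem untied_two {s b qa qb : ℝ} {L U W : Side} (hb : 2 * s < b) (hs : 0 ≤ s)
    (hqa : 0 < qa) (hqb : 0 < qb) (hL : WinU s L) (hU : WinU s U) (hW : WinU s W)
    (hm : qa ≤ L.m) (hr : qb ≤ U.r) (hfL : 0 ≤ fv b L)
    (hnh : L.n + L.h = U.n + U.h) (hmix : 0 < L.m → U.h ≤ L.x)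
    (hWm : W.m ≤ L.m) (hWr : W.r ≤ L.r) (hfW : 0 ≤ fv b W - fa qa W - fb qb W) : False := by
  obtain ⟨h2, h3, h4, h1, -⟩ := untied_L hb hs hqa hqb hL hW hm hfL hWm hWr hfW
  have h5 := hmix (by linarith)
  have := hU.kn (by linarith)
  linarith [hU.h0]

/-- **`σ = 2`**, form with the joint bound (A2) of K-TEXT II-c. -/
theorem untied_twoA {s b qa qb : ℝ} {L W : Side} (hb : 2 * s < b) (hs : 0 ≤ s)
    (hqa : 0 < qa) (hqb : 0 < qb) (hL : WinU s L) (hW : WinU s W)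
    (hm : qa ≤ L.m) (hfL : 0 ≤ fv b L) (hA2 : L.n + L.h ≤ 2 * s)
    (hWm : W.m ≤ L.m) (hWr : W.r ≤ L.r) (hfW : 0 ≤ fv b W - fa qa W - fb qb W) : False := by
  obtain ⟨-, -, h4, h1, -⟩ := untied_L hb hs hqa hqb hL hW hm hfL hWm hWr hfW
  linarith

/-- **`σ = 1`**: `hbct` = trilinear Kakeya in `(z; X_a, N)`. -/
theorem untied_one {s b qa qb : ℝ} {L W : Side} (hb : 2 * s < b) (hs : 0 ≤ s)
    (hqa : 0 < qa) (hqb : 0 < qb) (hL : WinU s L) (hW : WinU s W)
    (hm : qa ≤ L.m) (hfL : 0 ≤ fv b L) (hbct : L.x + L.n ≤ 2 * s)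
    (hWm : W.m ≤ L.m) (hWr : W.r ≤ L.r) (hfW : 0 ≤ fv b W - fa qa W - fb qb W) : False := by
  obtain ⟨-, h3, -, h1, -⟩ := untied_L hb hs hqa hqb hL hW hm hfL hWm hWr hfW
  linarith

/-! ### isotropic records -/

/-- constants of one side of an isotropic record: `y` = total loss of the lateral position,
`M` = total fan rate. -/
structure SideI where
  y : ℝ
  h : ℝ
  M : ℝ
  e : ℝ

/-- `v`-derivative on the isotropic plane `(v; t, t)` -/
def iv (b : ℝ) (S : SideI) : ℝ := S.y + S.h - S.e - b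

/-- `t`-derivative on the isotropic plane -/
def it (q : ℝ) (S : SideI) : ℝ := S.y + 2 * S.h - S.M + q

/-- **isotropic record**: `A` = below, `B` = above. -/
theorem iso {θ s b q : ℝ} {A B : SideI} (hb : 2 * s < b) (hs : 0 ≤ s) (hq : 0 < q)
    (hA0 : 0 ≤ A.h ∧ 0 ≤ A.e) (hB0 : 0 ≤ B.h ∧ 0 ≤ B.e)
    (tanA : iv b A = θ * it q A) (tanB : iv b B = θ * it q B)
    (verA : 0 ≤ it q A) (verB : it q B ≤ 0)
    (hanti : B.M ≤ A.M) (hF : 2 * s < A.M → A.h = 0) (hθ : 0 < θ) (hbct : A.y ≤ 2 * s) :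
    False := by
  have hM : 2 * s < A.M := by
    rcases le_or_gt 1 θ with h1 | h1
    · have h2 : 0 ≤ (θ - 1) * it q A := mul_nonneg (by linarith) verA
      have h3 : iv b A - it q A = (θ - 1) * it q A := by rw [tanA]; ring
      rw [← h3] at h2
      unfold iv it at h2
      linarith [hA0.1, hA0.2]
    · have h2 : 0 ≤ (θ - 1) * it q B := mul_nonneg_of_nonpos_of_nonpos (by linarith) verB
      have h3 : iv b B - it q B = (θ - 1) * it q B := by rw [tanB]; ring
      rw [← h3] at h2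
      unfold iv it at h2
      linarith [hB0.1, hB0.2]
  have h4 := hF hM
  have h5 : 0 ≤ iv b A := by rw [tanA]; positivity
  unfold iv at h5
  linarith [hA0.2]

end Crest.Agent.R116.Ku337
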