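import Crest.Agent.R116.RbK2_219
import Crest.Agent.R116.KpT_194

/-!
# R116, K-TEXT II-c, sect. 4b (1): thin tie `b ≤ 2 a + k v`, `0 < k ≤ θ`, `k ≤ 1` (helper647)

No half plane except the tie plane `T⁻` below the record is used:
`c + qa + qb ≤ m + r`, `m, r` = rates of `C_a, C_b` on `T⁻`.

* `creep`      : a continuous function with local right increments `≥ - m ε`
* `RS.path_le` : increments of one slot along a path which is finer than natural points of a surface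
* `hexC, hexP` : the two families of tie boxes
* `tie_le`     : the inequality
-/

set_option autoImplicit false
set_option linter.unusedSectionVars false
set_option linter.unusedVariables false

open Set Filter Topology Metric MeasureTheory

namespace Crest.Agent.R116.Kw647

open Crest.Agent.R136
open Dg219 (Tn lf Cone Walls)
open Crest.Agent.R116.RbK219

/-- a continuous function which is locally `≥ - m ε` to the right -/
theorem creep {g : ℝ → ℝ} {m y : ℝ} (hy : 0 ≤ y) (hg : ContinuousOn g (Icc 0 y))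
    (h : ∀ σ, 0 ≤ σ → σ < y → ∃ ε0 : ℝ, 0 < ε0 ∧ ∀ ε, 0 < ε → ε ≤ ε0 → σ + ε ≤ y →
      g σ - g (σ + ε) ≤ m * ε) : g 0 - g y ≤ m * y := by
  set s : Set ℝ := {σ | g 0 - g σ ≤ m * σ} with hs
  have hcl : IsClosed (s ∩ Icc 0 y) := by
    have : s ∩ Icc 0 y = {σ ∈ Icc 0 y | g 0 - g σ ≤ m * σ} := by
      ext σ; simp [hs, and_comm]
    rw [this]
    have h1 : ContinuousOn (fun σ => m * σ - (g 0 - g σ)) (Icc 0 y) :=
      (continuousOn_const.mul continuousOn_id).sub (continuousOn_const.sub hg)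
    have h2 := h1.preimage_isClosed_of_isClosed isClosed_Icc (isClosed_Ici (a := (0:ℝ)))
    convert h2 using 1
    ext σ
    simp only [mem_inter_iff, mem_preimage, mem_Ici, sub_nonneg]
    exact Iff.rfl
  have key : Icc 0 y ⊆ s := by
    refine hcl.Icc_subset_of_forall_exists_gt (by simp [hs]) ?_
    rintro σ ⟨hσ, hσ0, hσy⟩ x hx
    obtain ⟨ε0, he0, he⟩ := h σ hσ0 hσy
    have hx' : σ < x := hx
    set ε := min ε0 (min (y - σ) (x - σ)) with hε
    have hε0 : 0 < ε := lt_min he0 (lt_min (by linarith) (by linarith))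
    have h1 : ε ≤ ε0 := min_le_left _ _
    have h2 : ε ≤ y - σ := (min_le_right _ _).trans (min_le_left _ _)
    have h3 : ε ≤ x - σ := (min_le_right _ _).trans (min_le_right _ _)
    refine ⟨σ + ε, ?_, by simp only [mem_Ioc]; constructor <;> linarith⟩
    have h4 := he ε hε0 h1 (by linarith)
    have h5 : g 0 - g σ ≤ m * σ := hσ
    show g 0 - g (σ + ε) ≤ m * (σ + ε)
    nlinarith
  exact key (right_mem_Icc.2 hy)

variable {ι W τ : Type*} [Fintype ι] [DecidableEq ι] [Fintype W] [Fintype τ] [DecidableEq τ]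

/-- **increments along a path which is finer than natural points of a surface** -/
theorem path_le (R : RS ι τ) {lam : (ι → ℝ) → ℝ} {M : Set (ι → ℝ)}
    (hs : ∀ p ∈ M, ∀ q ∈ M, p ⊓ q ∈ M → p ⊔ q ∈ M → lam p + lam q ≤ lam (p ⊔ q) + lam (p ⊓ q))
    {y0 : ι → ℝ} {A B : τ → ℝ} {sg : ℝ} (h : SOk A B sg)
    {Q : Walls ι W} (hF : Q.Full y0 (R.vec (sg • B)) (R.vec A)) {c : ℝ} (hc : 0 < c)
    (hM : (R.srf y0 A B sg).LW Q c ⊆ M) {t : τ} (ht : Aln A B t) {ρ : ℝ}
    (hr : R.RateAt lam ((R.srf y0 A B sg).LW Q c) t ρ) {P : τ → ℝ} {y : ℝ} (hy : 0 ≤ y)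
    (hPM : ∀ σ : ℝ, 0 ≤ σ → σ ≤ y → R.vec P + σ • R.e t ∈ M)
    (hcont : ContinuousOn (fun σ : ℝ => lam (R.vec P + σ • R.e t)) (Icc 0 y))
    (hex : ∀ σ : ℝ, 0 ≤ σ → σ < y → ∃ l α : ℝ, 0 < l ∧ l * B t + α * A t = P t + σ ∧
      ∀ t', t' ≠ t → l * B t' + α * A t' < P t') :
    lam (R.vec P) - lam (R.vec P + y • R.e t) ≤ ρ * y := by
  obtain ⟨K, hK, m0⟩ := h.room (R := R) (y0 := y0) hF ht
  obtain ⟨a1, a2⟩ := m0 K le_rfl
  set v : ι → ℝ := K • R.rmv Q t with hv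
  have hvt : ∀ i, R.cls i = t → v i = 0 := fun i hi => by
    simp only [hv, Pi.smul_apply, smul_eq_mul, rmv_zero hi, mul_zero]
  have key := creep (g := fun σ : ℝ => lam (R.vec P + σ • R.e t)) (m := ρ) hy hcont ?_
  · simpa using key
  intro σ hσ0 hσy
  obtain ⟨l, α, hl, heq, hlt⟩ := hex σ hσ0 hσy
  -- gap in the other slots
  obtain ⟨δ, hδ, hgap⟩ : ∃ δ : ℝ, 0 < δ ∧ ∀ i, R.cls i ≠ t →
      R.mu i * (l * B (R.cls i) + α * A (R.cls i)) + δ ≤ R.mu i * P (R.cls i) := by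
    classical
    have h1 : ∀ i : ι, ∃ δ : ℝ, 0 < δ ∧ (R.cls i ≠ t →
        R.mu i * (l * B (R.cls i) + α * A (R.cls i)) + δ ≤ R.mu i * P (R.cls i)) := by
      intro i
      by_cases hi : R.cls i = t
      · exact ⟨1, one_pos, fun h' => absurd hi h'⟩
      · refine ⟨R.mu i * P (R.cls i) - R.mu i * (l * B (R.cls i) + α * A (R.cls i)), ?_,
          fun _ => by linarith⟩
        have := mul_lt_mul_of_pos_left (hlt _ hi) (R.pos i)
        linarith
    choose d hd0 hd using h1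
    by_cases hne : (Finset.univ : Finset ι).Nonempty
    · refine ⟨Finset.univ.inf' hne d, ?_, fun i hi => ?_⟩
      · rw [Finset.lt_inf'_iff]; exact fun i _ => hd0 i
      · have := Finset.inf'_le d (Finset.mem_univ i)
        linarith [hd i hi]
    · refine ⟨1, one_pos, fun i _ => ?_⟩
      exact absurd ⟨i, Finset.mem_univ i⟩ hne
  set N : ℝ := 1 + ‖v‖ + ‖v + R.e t‖ with hN
  have hN0 : 0 < N := by positivity
  have nv : ‖v‖ ≤ N := by simp only [hN]; linarith [norm_nonneg (v + R.e t)]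
  have ne : ‖v + R.e t‖ ≤ N := by simp only [hN]; linarith [norm_nonneg v]
  have hcl : 0 < c * l := by positivity
  refine ⟨min (c * l / N) (δ / N), lt_min (by positivity) (by positivity), ?_⟩
  intro ε hε0 hε hεy
  have hsm : ∀ w : ι → ℝ, ‖w‖ ≤ N → ∀ b : ℝ, 0 < b → ε ≤ b / N → ‖ε • w‖ ≤ b := by
    intro w hw b hb h'
    rw [norm_smul, Real.norm_of_nonneg hε0.le]
    rw [le_div_iff₀ hN0] at h'
    exact (mul_le_mul_of_nonneg_left hw hε0.le).trans h'
  have p1 := h.memLW (R := R) (y0 := y0) (Q := Q) (c0 := c) (α := α) hl.le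
    ((Walls.cone (Q := Q)).smul _ a1 _ hε0.le) (hsm v nv _ hcl (hε.trans (min_le_left _ _)))
  have p2 := h.memLW (R := R) (y0 := y0) (Q := Q) (c0 := c) (α := α) hl.le
    ((Walls.cone (Q := Q)).smul _ a2 _ hε0.le) (hsm _ ne _ hcl (hε.trans (min_le_left _ _)))
  rw [smul_add, ← add_assoc] at p2
  have hv2 : ‖ε • v‖ ≤ δ := hsm v nv _ hδ (hε.trans (min_le_right _ _))
  have hval : ∀ i, R.cls i = t → (R.vec (l • B + α • A) + ε • v) i = R.mu i * (P t + σ) := by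
    intro i hi
    rw [Pi.add_apply, Pi.smul_apply, hvt i hi, smul_zero, add_zero]
    simp only [RS.vec, Pi.add_apply, Pi.smul_apply, smul_eq_mul, hi, heq]
  have hle : R.vec (l • B + α • A) + ε • v ≤ R.vec P + σ • R.e t := by
    intro i
    by_cases hi : R.cls i = t
    · rw [hval i hi]
      simp only [Pi.add_apply, RS.vec, Pi.smul_apply, smul_eq_mul, RS.e, hi, if_true]
      linarith
    · have h1 := hgap i hi
      have h2 : (ε • v) i ≤ δ := (le_abs_self _).trans ((norm_le_pi_norm (ε • v) i).trans hv2)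
      rw [Pi.add_apply, Pi.add_apply, Pi.smul_apply (σ : ℝ), mem_e_zero hi, smul_zero, add_zero]
      simp only [RS.vec, Pi.add_apply, Pi.smul_apply, smul_eq_mul] at h1 h2 ⊢
      linarith
  have e1 : (R.vec P + σ • R.e t) + ε • R.e t = R.vec P + (σ + ε) • R.e t := by
    rw [add_smul, add_assoc]
  have key := cl_gen hs (hM p1) (hPM σ hσ0 (by linarith)) (hM p2)
    (by rw [e1]; exact hPM _ (by linarith) hεy) hle
    (fun i => by
      simp only [Pi.smul_apply, smul_eq_mul]; exact mul_nonneg hε0.le (R.e_nonneg t i))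
    (fun i hi => by
      have hi' : R.cls i = t := by
        by_contra h'
        apply hi
        rw [Pi.smul_apply, mem_e_zero h', smul_zero]
      rw [hval i hi']
      simp only [Pi.add_apply, RS.vec, Pi.smul_apply, smul_eq_mul, RS.e, hi', if_true]
      ring)
  rw [hr _ (P t + σ) ε hval p1 p2, e1] at key
  exact key

/-! ### the tie boxes of the plane `T⁻` -/

/-- natural levels of the eight live ray slots `z, C, P, X, N, H, E, G` at `(v; a, b)` -/
def nat8 (v a b : ℝ) : Fin 8 → ℝ := ![v, a, b, v + a, v + b, v + 2 * a, b - a, b - 2 * a]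

/-- levels of the tie boxes: `α` along the record, `l` below it -/
theorem nat8_tie (θ k α l : ℝ) :
    l • nat8 0 (-1) (-2) + α • nat8 1 (-θ) (-(2 * θ - k)) =
      ![α, -θ * α - l, -(2 * θ - k) * α - 2 * l, (1 - θ) * α - l, (1 - (2 * θ - k)) * α - 2 * l,
        (1 - 2 * θ) * α - 2 * l, (k - θ) * α - l, k * α] := by
  funext i
  fin_cases i <;> simp [nat8] <;> ring

/-- tie boxes below the record with `C = σ`, everything else coarser than the record -/
theorem hexC {θ k σ : ℝ} (hθ : 0 < θ) (hk : 0 < k) (hk1 : k ≤ 1) (hkθ : k ≤ θ) (hσ : 0 ≤ σ) :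
    ∃ l α : ℝ, 0 < l ∧ -θ * α - l = σ ∧ α < 0 ∧ -(2 * θ - k) * α - 2 * l < 0 ∧
      (1 - θ) * α - l < 0 ∧ (1 - (2 * θ - k)) * α - 2 * l < 0 ∧ (1 - 2 * θ) * α - 2 * l < 0 ∧
      (k - θ) * α - l < 0 ∧ k * α < 0 := by
  -- `α = -(3 σ / k + 1)`
  set α : ℝ := -(3 * σ / k + 1) with hα
  have hkα : k * α = -(3 * σ + k) := by rw [hα]; field_simp
  have hα0 : α < 0 := by rw [hα]; have : 0 ≤ 3 * σ / k := by positivity
                         linarith
  have hα3 : α ≤ -(3 * σ + k) := by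
    have h1 : k * α ≥ 1 * α := by nlinarith
    linarith
  have hl : 0 < -θ * α - σ := by
    have h1 : θ * α ≤ k * α := by nlinarith
    nlinarith
  refine ⟨-θ * α - σ, α, hl, by ring, hα0, ?_, ?_, ?_, ?_, ?_, ?_⟩ <;> nlinarith

/-- tie boxes below the record with `P = σ`, coarser than `C = H = y`, others at the record -/
theorem hexP {θ k σ y : ℝ} (hk : 0 < k) (hk1 : k ≤ 1) (hkθ : k ≤ θ) (hσ : 0 ≤ σ) (hσy : σ < y) :
    ∃ l α : ℝ, 0 < l ∧ -(2 * θ - k) * α - 2 * l = σ ∧ α < 0 ∧ -θ * α - l < y ∧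
      (1 - θ) * α - l < 0 ∧ (1 - (2 * θ - k)) * α - 2 * l < 0 ∧ (1 - 2 * θ) * α - 2 * l < y ∧
      (k - θ) * α - l < 0 ∧ k * α < 0 := by
  have hy : 0 < y := by linarith
  set α : ℝ := -(y / k) with hα
  have hkα : k * α = -y := by rw [hα]; field_simp
  have hα0 : α < 0 := by rw [hα]; have : 0 < y / k := by positivity
                         linarith
  have hαy : α ≤ -y := by nlinarith
  have hθα : θ * α ≤ -y := by nlinarith
  refine ⟨(-(2 * θ - k) * α - σ) / 2, α, by nlinarith, by ring, hα0, ?_, ?_, ?_, ?_, ?_, ?_⟩ <;>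
    nlinarith

/-! ### the inequality -/

/-- `y` at the slot `t` -/
def lvt (t : τ) (y : ℝ) : τ → ℝ := fun t' => if t' = t then y else 0

theorem vec_lvt (R : RS ι τ) (t : τ) (y : ℝ) : R.vec (lvt t y) = y • R.e t := by
  funext i
  simp only [RS.vec, lvt, RS.e, Pi.smul_apply, smul_eq_mul]
  split_ifs <;> ring

theorem vec_zero (R : RS ι τ) : R.vec (0 : τ → ℝ) = 0 := by funext i; simp [RS.vec]

/-- **`c + qa + qb ≤ m + r`**, any surface `(A, B)` with the two families of coarser natural boxes -/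
theorem tie_gen (R : RS ι τ) {lam : (ι → ℝ) → ℝ} {M : Set (ι → ℝ)}
    (hs : ∀ p ∈ M, ∀ q ∈ M, p ⊓ q ∈ M → p ⊔ q ∈ M → lam p + lam q ≤ lam (p ⊔ q) + lam (p ⊓ q))
    {y0 : ι → ℝ} {A B : τ → ℝ} {sg : ℝ} (h : SOk A B sg) {Q : Walls ι W}
    (hF : Q.Full y0 (R.vec (sg • B)) (R.vec A)) {c0 : ℝ} (hc0 : 0 < c0)
    (hM : (R.srf y0 A B sg).LW Q c0 ⊆ M) {tC tP tH : τ} (htC : Aln A B tC) (htP : Aln A B tP)
    {m r : ℝ} (hrC : R.RateAt lam ((R.srf y0 A B sg).LW Q c0) tC m)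
    (hrP : R.RateAt lam ((R.srf y0 A B sg).LW Q c0) tP r) {y q : ℝ} (hy : 0 < y)
    (hPC : tP ≠ tC) (hPH : tP ≠ tH)
    (hexC : ∀ σ : ℝ, 0 ≤ σ → ∃ l α : ℝ, 0 < l ∧ l * B tC + α * A tC = σ ∧
      ∀ t', t' ≠ tC → l * B t' + α * A t' < 0)
    (hexP : ∀ σ : ℝ, 0 ≤ σ → σ < y → ∃ l α : ℝ, 0 < l ∧ l * B tP + α * A tP = σ ∧
      ∀ t', t' ≠ tP → l * B t' + α * A t' < lvt tC y t' + lvt tH y t')
    (hC : ∀ σ : ℝ, 0 ≤ σ → σ ≤ y → σ • R.e tC ∈ M)
    (hP : ∀ σ : ℝ, 0 ≤ σ → σ ≤ y → y • R.e tC + y • R.e tH + σ • R.e tP ∈ M)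
    (hcC : ContinuousOn (fun σ : ℝ => lam (σ • R.e tC)) (Icc 0 y))
    (hcP : ContinuousOn (fun σ : ℝ => lam (y • R.e tC + y • R.e tH + σ • R.e tP)) (Icc 0 y))
    (hH : lam (y • R.e tC) - lam (y • R.e tC + y • R.e tH) ≤ y)
    (hD : (q + 1) * y ≤ lam 0 - lam (y • R.e tC + y • R.e tH + y • R.e tP)) :
    q ≤ m + r := by
  have v0 := vec_zero (τ := τ) R
  have h1 := path_le R hs h hF hc0 hM htC hrC (P := 0) hy.le
    (by intro σ a b; rw [v0, zero_add]; exact hC σ a b)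
    (by simpa [v0] using hcC)
    (by
      intro σ a b
      obtain ⟨l, α, hl, e1, e2⟩ := hexC σ a
      exact ⟨l, α, hl, by rw [e1]; simp, fun t' ht' => e2 t' ht'⟩)
  rw [v0, zero_add] at h1
  have v2 : R.vec (lvt tC y + lvt tH y) = y • R.e tC + y • R.e tH := by
    rw [R.vec_add, vec_lvt, vec_lvt]
  have h2 := path_le R hs h hF hc0 hM htP hrP (P := lvt tC y + lvt tH y) hy.le
    (by intro σ a b; rw [v2]; exact hP σ a b)
    (by rw [v2]; exact hcP)
    (by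
      intro σ a b
      obtain ⟨l, α, hl, e1, e2⟩ := hexP σ a b
      refine ⟨l, α, hl, ?_, fun t' ht' => e2 t' ht'⟩
      rw [e1]
      simp only [Pi.add_apply, lvt, if_neg hPC, if_neg hPH, zero_add])
  rw [v2] at h2
  have h3 : q * y ≤ (m + r) * y := by nlinarith
  exact le_of_mul_le_mul_right h3 hy

/-- ray slot indices -/
abbrev iC : Fin 8 := 1
abbrev iP : Fin 8 := 2
abbrev iH : Fin 8 := 5

/-- **`c + qa + qb ≤ m + r`** on the tie plane below the record, `0 < k ≤ θ`, `k ≤ 1`; the eight ray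
slots `z, C, P, X, N, H, E, G` (`D` frozen). -/
theorem tie_le (R : RS ι (Fin 8)) {lam : (ι → ℝ) → ℝ} {M : Set (ι → ℝ)}
    (hs : ∀ p ∈ M, ∀ q ∈ M, p ⊓ q ∈ M → p ⊔ q ∈ M → lam p + lam q ≤ lam (p ⊔ q) + lam (p ⊓ q))
    {θ k μ q : ℝ} (hθ : 0 < θ) (hk : 0 < k) (hk1 : k ≤ 1) (hkθ : k ≤ θ)
    {y0 : ι → ℝ} {sg : ℝ} {A B : Fin 8 → ℝ} (hA : A = nat8 1 (-θ) (-(2 * θ - k)))
    (hB : B = nat8 0 (-1) (-2) + μ • nat8 1 (-θ) (-(2 * θ - k)))
    (h : SOk A B sg) {Q : Walls ι W} (hF : Q.Full y0 (R.vec (sg • B)) (R.vec A)) {c0 : ℝ}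
    (hc0 : 0 < c0) (hM : (R.srf y0 A B sg).LW Q c0 ⊆ M) (htC : Aln A B iC) (htP : Aln A B iP)
    {m r : ℝ} (hrC : R.RateAt lam ((R.srf y0 A B sg).LW Q c0) iC m)
    (hrP : R.RateAt lam ((R.srf y0 A B sg).LW Q c0) iP r) {y : ℝ} (hy : 0 < y)
    (hC : ∀ σ : ℝ, 0 ≤ σ → σ ≤ y → σ • R.e iC ∈ M)
    (hP : ∀ σ : ℝ, 0 ≤ σ → σ ≤ y → y • R.e iC + y • R.e iH + σ • R.e iP ∈ M)
    (hcC : ContinuousOn (fun σ : ℝ => lam (σ • R.e iC)) (Icc 0 y))
    (hcP : ContinuousOn (fun σ : ℝ => lam (y • R.e iC + y • R.e iH + σ • R.e iP)) (Icc 0 y))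
    (hH : lam (y • R.e iC) - lam (y • R.e iC + y • R.e iH) ≤ y)
    (hD : (q + 1) * y ≤ lam 0 - lam (y • R.e iC + y • R.e iH + y • R.e iP)) :
    q ≤ m + r := by
  have e9 : ∀ (l α : ℝ) (t' : Fin 8), l * B t' + (α - l * μ) * A t' =
      (![α, -θ * α - l, -(2 * θ - k) * α - 2 * l, (1 - θ) * α - l,
        (1 - (2 * θ - k)) * α - 2 * l, (1 - 2 * θ) * α - 2 * l, (k - θ) * α - l,
        k * α] : Fin 8 → ℝ) t' := by
    intro l α t'
    have := congrFun (nat8_tie θ k α l) t'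
    rw [hA, hB, ← this]
    simp only [Pi.add_apply, Pi.smul_apply, smul_eq_mul]
    ring
  refine tie_gen R hs h hF hc0 hM htC htP hrC hrP hy (by decide) (by decide) ?_ ?_ hC hP hcC hcP
    hH hD
  · intro σ a
    obtain ⟨l, α, hl, e1, e2, e3, e4, e5, e6, e7, e8⟩ := hexC hθ hk hk1 hkθ a
    refine ⟨l, α - l * μ, hl, ?_, ?_⟩
    · rw [e9]; exact e1
    · intro t' ht'
      rw [e9]
      fin_cases t'
      · exact e2
      · exact absurd rfl ht'
      · exact e3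
      · exact e4
      · exact e5
      · exact e6
      · exact e7
      · exact e8
  · intro σ a b
    obtain ⟨l, α, hl, e1, e2, e3, e4, e5, e6, e7, e8⟩ := hexP (θ := θ) hk hk1 hkθ a b
    refine ⟨l, α - l * μ, hl, ?_, ?_⟩
    · rw [e9]; exact e1
    · intro t' ht'
      rw [e9]
      fin_cases t'
      · simpa [lvt, iC, iH] using e2
      · simpa [lvt, iC, iH] using e3
      · exact absurd rfl ht'
      · simpa [lvt, iC, iH] using e4
      · simpa [lvt, iC, iH] using e5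
      · simpa [lvt, iC, iH] using e6
      · simpa [lvt, iC, iH] using e7
      · simpa [lvt, iC, iH] using e8

/-- the hypothesis `hD` from D-max at `(-y; y, y)`, the own profile and monotonicity -/
theorem hD_of (R : RS ι (Fin 8)) {lam : (ι → ℝ) → ℝ} {s c qa qb y : ℝ}
    (hDm : (s + c + qa + qb) * y ≤ lam 0 - lam (R.vec (nat8 (-y) y y)))
    (hz : (1 - s) * y ≤ lam (R.vec (nat8 (-y) y y)) - lam (R.vec (nat8 (-y) y y) + y • R.e 0))
    (hG : lam (R.vec (nat8 (-y) y y) + y • R.e 0 + y • R.e 7) ≤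
      lam (R.vec (nat8 (-y) y y) + y • R.e 0)) :
    (c + qa + qb + 1) * y ≤ lam 0 - lam (y • R.e iC + y • R.e iH + y • R.e iP) := by
  have e : R.vec (nat8 (-y) y y) + y • R.e 0 + y • R.e 7 =
      y • R.e iC + y • R.e iH + y • R.e iP := by
    simp only [← vec_lvt, ← R.vec_add]
    congr 1
    funext t'
    simp only [Pi.add_apply, lvt, nat8]
    fin_cases t' <;> simp [iC, iH, iP] <;> ring
  rw [e] at hG
  nlinarith

/-- **sect. 4b (1)** : `0 < k ≤ θ`, `k ≤ 1` is impossible; `S` = the constants of `T⁻` -/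
theorem kappa_low {k θ s c qa qb : ℝ} {S : KpT194.Half} (hk : 0 ≤ k) (hθ : 0 < θ) (hc : 2 * s < c)
    (hqa : 0 < qa) (hqb : 0 ≤ qb) (hq : qb ≤ qa) (hP : S.Pos) (hA : S.FanA s) (hB : S.FanB s)
    (hmr : S.m ≤ S.r) (tan : S.Tan c θ (2 * θ - k) qa qb) (ver : 0 ≤ S.Fa qa + 2 * S.Fb qb)
    (hm : qa ≤ S.m) (hle : c + qa + qb ≤ S.m + S.r) : False := by
  obtain ⟨h1, h2, -⟩ := KpT194.exits hk hθ hc hqa hq hP hA hB hmr tan ver hm
  linarith

/-- **sect. 4b (1)**, form of 420's correction: live `E` flag, `m ≤ w`, `0 < w → n ≤ x` -/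
theorem kappa_low' {k θ s c qa qb : ℝ} {S : KpT194.Half} (hk : 0 ≤ k) (hθ : 0 < θ) (hs : 0 ≤ s)
    (hc : 2 * s < c) (hqa : 0 < qa) (hqb : 0 ≤ qb) (hkq : k * qb < c - 2 * s) (hP : S.Pos)
    (hA : S.FanA s) (hB : S.FanB s) (hmw : S.m ≤ S.w) (hwn : 0 < S.w → S.n ≤ S.x)
    (tan : S.Tan c θ (2 * θ - k) qa qb) (ver : 0 ≤ S.Fa qa + 2 * S.Fb qb)
    (hm : qa ≤ S.m) (hle : c + qa + qb ≤ S.m + S.r) : False := by
  have hm0 : 0 < S.m := by linarith
  have hx := hA.kx hm0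
  have hh := hA.kh hm0
  have hn := hwn (by linarith)
  have key : c + S.e + k * (S.r - qb) + k * S.w + k * S.u ≤ S.x + S.h + (1 + k) * S.n := by
    have h1 := mul_nonneg hθ.le ver
    unfold KpT194.Half.Tan at tan
    unfold KpT194.Half.Fa KpT194.Half.Fb at tan h1
    nlinarith
  have hkr : 0 ≤ k * S.r := mul_nonneg hk hP.r0
  have hkw : 0 ≤ k * S.w := mul_nonneg hk hP.w0
  have hku : 0 ≤ k * S.u := mul_nonneg hk hP.u0
  have hms : S.m ≤ s := by
    by_contra hcon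
    push Not at hcon
    have h2 := hA.fx hcon
    have h3 := hA.fh hcon
    have h4 : S.n = 0 := le_antisymm (by linarith) hP.n0
    rw [h2, h3, h4] at key
    nlinarith [hP.e0]
  have hrs : S.r ≤ s := by
    by_contra hcon
    push Not at hcon
    have h2 := hB.fn hcon
    rw [h2] at key
    nlinarith [hP.e0]
  linarith

end Crest.Agent.R116.Kw647
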