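import Crest.Agent.R116.RbM1_219
import Crest.Agent.R116.IIr2_460

/-!
# R116 (K side, ties), the planes `T⁺`, `S₁`, `(1, 0)` with `D` frozen (helper139)

Ray slots `0 z, 1 C_a, 2 C_b, 3 X, 4 N, 5 H, 6 B, 7 G`, record `nat8 1 (-θ) (-θb)`; `e`-tie
`θb = θ - k`, `κ`-tie `θb = 2 θ - k`.
* `eU k`, `eD k` : offsets of the two sides of the `e`-plane; `kU`, `kD` : of the `κ`-plane;
  `oS`, `oP` : `S₁` and `(1, 0)`, flags frozen at the record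
* `sok_*`, `leg_*` : admissible; `aln_*` : `C_a` is alone
* `ant_*` : rate of `C_a` above ≤ rate below;  `pos_*` : rate on `(1, 0)` ≤ rate above
-/

set_option autoImplicit false
set_option linter.unusedVariables false
set_option linter.unusedSimpArgs false

open Set Filter Topology

namespace Crest.Agent.R116.Tp139

open Crest.Agent.R136
open Dg219 (Walls mw)
open Sl741 (slice xt rs)
open Dg262 (SupOn)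
open RbK219 RbM219
open ChL222 (monL)

/-- offset of the side above of the `e`-plane -/
def eU (k : ℝ) : Fin 8 → ℝ := nat8 1 k (2 * k)
/-- offset of the side below of the `e`-plane -/
def eD (k : ℝ) : Fin 8 → ℝ := nat8 (-1) (-k) (-2 * k)
/-- offset of the side above of the `κ`-plane -/
def kU : Fin 8 → ℝ := nat8 0 1 2
/-- offset of the side below of the `κ`-plane -/
def kD : Fin 8 → ℝ := nat8 0 (-1) (-2)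
/-- `S₁`: offset `(1, 1)`, flags frozen at the record -/
def oS : Fin 8 → ℝ := ![0, 1, 1, 1, 1, 2, 0, 0]
/-- `(1, 0)`, flags frozen at the record -/
def oP : Fin 8 → ℝ := ![0, 1, 0, 1, 0, 2, 0, 0]

variable {θ θb k k' : ℝ}

theorem all8 {P : Fin 8 → Prop} (h0 : P 0) (h1 : P 1) (h2 : P 2) (h3 : P 3) (h4 : P 4) (h5 : P 5)
    (h6 : P 6) (h7 : P 7) : ∀ t, P t := by
  intro t; fin_cases t <;> assumption

section vals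
variable (v c p : ℝ)
theorem n0 : nat8 v c p 0 = v := rfl
theorem n1 : nat8 v c p 1 = c := rfl
theorem n2 : nat8 v c p 2 = p := rfl
theorem n3 : nat8 v c p 3 = v + c := rfl
theorem n4 : nat8 v c p 4 = v + p := rfl
theorem n5 : nat8 v c p 5 = v + 2 * c := rfl
theorem n6 : nat8 v c p 6 = p - c := rfl
theorem n7 : nat8 v c p 7 = p - 2 * c := rfl
theorem s0 : oS 0 = 0 := rfl
theorem s1 : oS 1 = 1 := rfl
theorem s2 : oS 2 = 1 := rfl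
theorem s3 : oS 3 = 1 := rfl
theorem s4 : oS 4 = 1 := rfl
theorem s5 : oS 5 = 2 := rfl
theorem s6 : oS 6 = 0 := rfl
theorem s7 : oS 7 = 0 := rfl
theorem p0 : oP 0 = 0 := rfl
theorem p1 : oP 1 = 1 := rfl
theorem p2 : oP 2 = 0 := rfl
theorem p3 : oP 3 = 1 := rfl
theorem p4 : oP 4 = 0 := rfl
theorem p5 : oP 5 = 2 := rfl
theorem p6 : oP 6 = 0 := rfl
theorem p7 : oP 7 = 0 := rfl
end vals

/-- evaluate all entries -/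
macro "ev8" : tactic => `(tactic| simp only [eU, eD, kU, kD, n0, n1, n2, n3, n4, n5, n6, n7, s0, s1,
  s2, s3, s4, s5, s6, s7, p0, p1, p2, p3, p4, p5, p6, p7] at *)

/-! ### admissible -/

theorem sok_eU (hθ : 0 < θ) (hk : 0 < k) (hb : θb = θ - k) :
    SOk (nat8 1 (-θ) (-θb)) (eU k) 1 where
  sg1 := Or.inl rfl
  nn := by refine all8 ?_ ?_ ?_ ?_ ?_ ?_ ?_ ?_ <;> ev8 <;> linarith
  zero := by refine all8 ?_ ?_ ?_ ?_ ?_ ?_ ?_ ?_ <;> intro h <;> ev8 <;> linarith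

theorem sok_eD (hθ : 0 < θ) (hk : 0 < k) (hb : θb = θ - k) :
    SOk (nat8 1 (-θ) (-θb)) (eD k) (-1) where
  sg1 := Or.inr rfl
  nn := by refine all8 ?_ ?_ ?_ ?_ ?_ ?_ ?_ ?_ <;> ev8 <;> linarith
  zero := by refine all8 ?_ ?_ ?_ ?_ ?_ ?_ ?_ ?_ <;> intro h <;> ev8 <;> linarith

theorem sok_kU (hθ : 0 < θ) (hk : 0 < k) (hb : θb = 2 * θ - k) :
    SOk (nat8 1 (-θ) (-θb)) kU 1 where
  sg1 := Or.inl rfl
  nn := by refine all8 ?_ ?_ ?_ ?_ ?_ ?_ ?_ ?_ <;> ev8 <;> linarith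
  zero := by refine all8 ?_ ?_ ?_ ?_ ?_ ?_ ?_ ?_ <;> intro h <;> ev8 <;> linarith

theorem sok_kD (hθ : 0 < θ) (hk : 0 < k) (hb : θb = 2 * θ - k) :
    SOk (nat8 1 (-θ) (-θb)) kD (-1) where
  sg1 := Or.inr rfl
  nn := by refine all8 ?_ ?_ ?_ ?_ ?_ ?_ ?_ ?_ <;> ev8 <;> linarith
  zero := by refine all8 ?_ ?_ ?_ ?_ ?_ ?_ ?_ ?_ <;> intro h <;> ev8 <;> linarith

theorem sok_oS (hb : θb < θ) (hb2 : θb < 2 * θ) : SOk (nat8 1 (-θ) (-θb)) oS 1 where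
  sg1 := Or.inl rfl
  nn := by refine all8 ?_ ?_ ?_ ?_ ?_ ?_ ?_ ?_ <;> ev8 <;> linarith
  zero := by refine all8 ?_ ?_ ?_ ?_ ?_ ?_ ?_ ?_ <;> intro h <;> ev8 <;> linarith

theorem sok_oP (hb : θb < θ) (hb2 : θb < 2 * θ) (hb0 : θb < 0) :
    SOk (nat8 1 (-θ) (-θb)) oP 1 where
  sg1 := Or.inl rfl
  nn := by refine all8 ?_ ?_ ?_ ?_ ?_ ?_ ?_ ?_ <;> ev8 <;> linarith
  zero := by refine all8 ?_ ?_ ?_ ?_ ?_ ?_ ?_ ?_ <;> intro h <;> ev8 <;> linarith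

/-! ### legal -/

theorem leg_eU : Leg8 (eU k) := leg8_nat _ _ _
theorem leg_eD : Leg8 (eD k) := leg8_nat _ _ _
theorem leg_kU : Leg8 kU := leg8_nat _ _ _
theorem leg_kD : Leg8 kD := leg8_nat _ _ _
theorem leg_oS : Leg8 oS := by constructor <;> ev8 <;> norm_num
theorem leg_oP : Leg8 oP := by constructor <;> ev8 <;> norm_num

/-! ### `C_a` is alone -/

theorem aln_eU (hθ : 0 < θ) (hk : 0 < k) (hb : θb = θ - k) :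
    Aln (nat8 1 (-θ) (-θb)) (eU k) 1 := by
  have h1 := mul_pos hθ hk
  have h2 := mul_pos hk hk
  subst hb
  refine all8 ?_ ?_ ?_ ?_ ?_ ?_ ?_ ?_ <;> intro ht h <;> first | exact ht rfl | (ev8; nlinarith)

theorem aln_eD (hθ : 0 < θ) (hk : 0 < k) (hb : θb = θ - k) :
    Aln (nat8 1 (-θ) (-θb)) (eD k) 1 := by
  have h1 := mul_pos hθ hk
  have h2 := mul_pos hk hk
  subst hb
  refine all8 ?_ ?_ ?_ ?_ ?_ ?_ ?_ ?_ <;> intro ht h <;> first | exact ht rfl | (ev8; nlinarith)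

theorem aln_kU (hθ : 0 < θ) (hk : 0 < k) (hb : θb = 2 * θ - k) :
    Aln (nat8 1 (-θ) (-θb)) kU 1 := by
  have h1 := mul_pos hθ hk
  have h2 := mul_pos hk hk
  subst hb
  refine all8 ?_ ?_ ?_ ?_ ?_ ?_ ?_ ?_ <;> intro ht h <;> first | exact ht rfl | (ev8; nlinarith)

theorem aln_kD (hθ : 0 < θ) (hk : 0 < k) (hb : θb = 2 * θ - k) :
    Aln (nat8 1 (-θ) (-θb)) kD 1 := by
  have h1 := mul_pos hθ hk
  have h2 := mul_pos hk hk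
  subst hb
  refine all8 ?_ ?_ ?_ ?_ ?_ ?_ ?_ ?_ <;> intro ht h <;> first | exact ht rfl | (ev8; nlinarith)

theorem aln_oS (hb : θb < θ) (hb2 : θb < 2 * θ) : Aln (nat8 1 (-θ) (-θb)) oS 1 := by
  refine all8 ?_ ?_ ?_ ?_ ?_ ?_ ?_ ?_ <;> intro ht h <;> first | exact ht rfl | (ev8; nlinarith)

theorem aln_oP (hb : θb < θ) (hb2 : θb < 2 * θ) (hb0 : θb < 0) :
    Aln (nat8 1 (-θ) (-θb)) oP 1 := by
  refine all8 ?_ ?_ ?_ ?_ ?_ ?_ ?_ ?_ <;> intro ht h <;> first | exact ht rfl | (ev8; nlinarith)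

theorem A1_ne (hθ : 0 < θ) : nat8 1 (-θ) (-θb) 1 ≠ 0 := by ev8; linarith

/-! ### comparison of the rates of `C_a` -/

section cmp

variable {t : ℝ} {lam : (Fin 12 → ℝ) → ℝ} {M : Set (K8 → ℝ)} {B₁ B₂ : Fin 8 → ℝ}
  {sg₁ sg₂ c₁ c₂ : ℝ} {ρ₁ ρ₂ : Fin 8 → ℝ}

/-- (CL) for `C_a` -/
theorem cl8 (hs : SupOn (fun c => lam (xt kp 0 c)) M) (hθ : 0 < θ)
    (h₁ : SOk (nat8 1 (-θ) (-θb)) B₁ sg₁) (h₂ : SOk (nat8 1 (-θ) (-θb)) B₂ sg₂)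
    (a₁ : Aln (nat8 1 (-θ) (-θb)) B₁ 1) (a₂ : Aln (nat8 1 (-θ) (-θb)) B₂ 1)
    (hc₁ : 0 < c₁) (hc₂ : 0 < c₂)
    (hM₁ : (srf8 θ θb t B₁ sg₁).LW (Q8 t) c₁ ⊆ M) (hM₂ : (srf8 θ θb t B₂ sg₂).LW (Q8 t) c₂ ⊆ M)
    (r₁ : Rates8 θ θb t B₁ sg₁ c₁ lam ρ₁) (r₂ : Rates8 θ θb t B₂ sg₂ c₂ lam ρ₂)
    (α₁ α₂ l₁ l₂ : ℝ) (hl₁ : 0 < l₁) (hl₂ : 0 < l₂)
    (hle : ∀ i, l₁ * B₁ i + α₁ * nat8 1 (-θ) (-θb) i ≤ l₂ * B₂ i + α₂ * nat8 1 (-θ) (-θb) i)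
    (heq : l₁ * B₁ 1 + α₁ * nat8 1 (-θ) (-θb) 1 = l₂ * B₂ 1 + α₂ * nat8 1 (-θ) (-θb) 1) :
    ρ₂ 1 ≤ ρ₁ 1 :=
  RL8.cl hs h₁ h₂ RL8_full RL8_full hc₁ hc₂ hM₁ hM₂ a₁ a₂ (r₁.alone 1 a₁ (A1_ne hθ))
    (r₂.alone 1 a₂ (A1_ne hθ)) hl₁ hl₂ hle heq

variable (hs : SupOn (fun c => lam (xt kp 0 c)) M) (hθ : 0 < θ) (hk : 0 < k) (hc₁ : 0 < c₁)
  (hc₂ : 0 < c₂)
include hs hθ hk hc₁ hc₂

/-- `e`-tie : rate of `C_a` on `T⁺` ≤ rate on `T⁻` -/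
theorem ant_e (hb : θb = θ - k)
    (hM₁ : (srf8 θ θb t (eD k) (-1)).LW (Q8 t) c₁ ⊆ M)
    (hM₂ : (srf8 θ θb t (eU k) 1).LW (Q8 t) c₂ ⊆ M)
    (r₁ : Rates8 θ θb t (eD k) (-1) c₁ lam ρ₁) (r₂ : Rates8 θ θb t (eU k) 1 c₂ lam ρ₂) :
    ρ₂ 1 ≤ ρ₁ 1 := by
  have h1 := mul_pos hθ hk
  have h2 := mul_pos hk hk
  refine cl8 hs hθ (sok_eD hθ hk hb) (sok_eU hθ hk hb) (aln_eD hθ hk hb) (aln_eU hθ hk hb) hc₁ hc₂
    hM₁ hM₂ r₁ r₂ (-(2 * k)) 0 θ θ hθ hθ ?_ ?_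
  · subst hb
    refine all8 ?_ ?_ ?_ ?_ ?_ ?_ ?_ ?_ <;> ev8 <;> nlinarith
  · ev8; ring

/-- double tie : rate of `C_a` on `T⁺` (`e`-plane) ≤ rate on `T⁻` (`κ`-plane) -/
theorem ant_d (hb : θb = θ - k)
    (hM₁ : (srf8 θ θb t kD (-1)).LW (Q8 t) c₁ ⊆ M)
    (hM₂ : (srf8 θ θb t (eU k) 1).LW (Q8 t) c₂ ⊆ M)
    (r₁ : Rates8 θ θb t kD (-1) c₁ lam ρ₁) (r₂ : Rates8 θ θb t (eU k) 1 c₂ lam ρ₂) :
    ρ₂ 1 ≤ ρ₁ 1 := by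
  have h1 := mul_pos hθ hk
  have h2 := mul_pos hk hk
  have hb' : θb = 2 * θ - (k + θ) := by rw [hb]; ring
  refine cl8 hs hθ (sok_kD hθ (by linarith) hb') (sok_eU hθ hk hb) (aln_kD hθ (by linarith) hb')
    (aln_eU hθ hk hb) hc₁ hc₂ hM₁ hM₂ r₁ r₂ (-(2 * k)) 0 (θ * k) θ h1 hθ ?_ ?_
  · subst hb
    refine all8 ?_ ?_ ?_ ?_ ?_ ?_ ?_ ?_ <;> ev8 <;> nlinarith
  · ev8; ring

/-- `κ`-tie : rate of `C_a` on `S₁` ≤ rate on `T⁻` -/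
theorem ant_S (hb : θb = 2 * θ - k) (hb1 : θb < θ)
    (hM₁ : (srf8 θ θb t kD (-1)).LW (Q8 t) c₁ ⊆ M)
    (hM₂ : (srf8 θ θb t oS 1).LW (Q8 t) c₂ ⊆ M)
    (r₁ : Rates8 θ θb t kD (-1) c₁ lam ρ₁) (r₂ : Rates8 θ θb t oS 1 c₂ lam ρ₂) :
    ρ₂ 1 ≤ ρ₁ 1 := by
  have h1 := mul_pos hθ hk
  have h2 := mul_pos hk hk
  have h3 := mul_pos hθ hθ
  refine cl8 hs hθ (sok_kD hθ hk hb) (sok_oS hb1 (by linarith)) (aln_kD hθ hk hb)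
    (aln_oS hb1 (by linarith)) hc₁ hc₂ hM₁ hM₂ r₁ r₂ (-(2 * (θ + k))) 0 (θ * (2 * θ + k)) (θ * k)
    (by nlinarith) h1 ?_ ?_
  · subst hb
    refine all8 ?_ ?_ ?_ ?_ ?_ ?_ ?_ ?_ <;> ev8 <;> nlinarith
  · ev8; ring

/-- `e`-tie, `θb < 0` : rate of `C_a` on `(1, 0)` ≤ rate on `T⁺` -/
theorem pos_e (hb : θb = θ - k) (hb0 : θb < 0)
    (hM₁ : (srf8 θ θb t (eU k) 1).LW (Q8 t) c₁ ⊆ M)
    (hM₂ : (srf8 θ θb t oP 1).LW (Q8 t) c₂ ⊆ M)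
    (r₁ : Rates8 θ θb t (eU k) 1 c₁ lam ρ₁) (r₂ : Rates8 θ θb t oP 1 c₂ lam ρ₂) :
    ρ₂ 1 ≤ ρ₁ 1 := by
  have h1 := mul_pos hθ hk
  have h2 := mul_pos h1 (by linarith : 0 < k + θ)
  have h3 := mul_pos hθ (by linarith : 0 < k + θ)
  refine cl8 hs hθ (sok_eU hθ hk hb) (sok_oP (by linarith) (by linarith) hb0) (aln_eU hθ hk hb)
    (aln_oP (by linarith) (by linarith) hb0) hc₁ hc₂ hM₁ hM₂ r₁ r₂ (-(2 * θ * k)) 0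
    (θ * (k - θ)) (θ * k * (k + θ)) (mul_pos hθ (by linarith)) (by nlinarith) ?_ ?_
  · subst hb
    refine all8 ?_ ?_ ?_ ?_ ?_ ?_ ?_ ?_ <;> ev8 <;> nlinarith
  · ev8; ring

/-- `κ`-tie, `θb < 0` : rate of `C_a` on `(1, 0)` ≤ rate on `T⁺` -/
theorem pos_k (hb : θb = 2 * θ - k) (hb0 : θb < 0)
    (hM₁ : (srf8 θ θb t kU 1).LW (Q8 t) c₁ ⊆ M)
    (hM₂ : (srf8 θ θb t oP 1).LW (Q8 t) c₂ ⊆ M)
    (r₁ : Rates8 θ θb t kU 1 c₁ lam ρ₁) (r₂ : Rates8 θ θb t oP 1 c₂ lam ρ₂) :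
    ρ₂ 1 ≤ ρ₁ 1 := by
  refine cl8 hs hθ (sok_kU hθ hk hb) (sok_oP (by linarith) (by linarith) hb0) (aln_kU hθ hk hb)
    (aln_oP (by linarith) (by linarith) hb0) hc₁ hc₂ hM₁ hM₂ r₁ r₂ (-2) 0
    (k - 2 * θ) k (by linarith) hk ?_ ?_
  · subst hb
    refine all8 ?_ ?_ ?_ ?_ ?_ ?_ ?_ ?_ <;> ev8 <;> nlinarith
  · ev8; ring

end cmp

end Crest.Agent.R116.Tp139
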