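import Crest.Agent.R116.Kw1_647
import Crest.Agent.R116.Tp1_139
import Crest.Agent.R116.SgL1_337

/-!
# R116, K-TEXT II-c, thin tie `k < 1`, `k ≤ θ` (helper647): the field `sum : c + qa + qb ≤ m + r` of
`KTie` from `Rates8` on `kD` (`T⁻` of the kappa plane), the profile facts and D-max.
-/

set_option autoImplicit false
set_option linter.unusedSectionVars false
set_option linter.unusedVariables false

open Set Filter Topology Metric MeasureTheory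

namespace Crest.Agent.R116.Kv647

open Crest.Agent.R136
open Crest.Agent.R138
open Dg262 (X X_cont SupOn)
open Dg219 (Tn lf Cone Walls mw mw_P)
open Sl741 (slice xt rs)
open Crest.Agent.R116.RbK219 Crest.Agent.R116.RbM219
open Crest.Agent.R116.Tp139 hiding cl8
open Crest.Agent.R116.Kw647 hiding nat8
open ChL222 (monL)
open PL504 (eL βL)
open Sg337 (DL)

variable {θ k θb t : ℝ} {lam : (Fin 12 → ℝ) → ℝ}

/-- class vectors are legal offsets at the record -/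
theorem mem8 (ht : t ≠ 0) {d : Fin 8 → ℝ} (hd : Leg8 d) :
    RL8.vec d ∈ {c : K8 → ℝ | xt kp 0 c ∈ L8 θ θb t} := by
  have h := RL8_mem (a := rs kp (r8 θ θb)) ht hd
  have hp1 : ∀ i, ¬ kp i → r8 θ θb i = 0 := fun i hi => by
    have hi' : i = 1 := not_not.1 hi
    subst hi'
    unfold r8; rw [Function.update_self]
  exact (Sl741.mem_slice_L (Q := mw monL) (v := y8 t) (hp := kp_hd) (x0 := y8 t)
    (a := r8 θ θb) (b := 0) (fun _ _ => rfl) hp1 (fun _ _ => rfl)).1 h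

theorem aln_kD_P (hθ : 0 < θ) (hk : 0 < k) (hk1 : k < 1) (hb : θb = 2 * θ - k) :
    Aln (nat8 1 (-θ) (-θb)) kD 2 := by
  subst hb
  refine all8 ?_ ?_ ?_ ?_ ?_ ?_ ?_ ?_ <;> intro ht h <;>
    simp only [kD, n0, n1, n2, n3, n4, n5, n6, n7] at h <;> first | exact ht rfl | linarith

/-- **the field `sum`** : `k ≤ θ`, `k < 1`; only the height and the flag slot `E` are visible -/
theorem sum8 (hθ : 0 < θ) (hk : 0 < k) (hk1 : k < 1) (hkθ : k ≤ θ) (hb : θb = 2 * θ - k)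
    (ht : t ≠ 0) {K : ℝ}
    (hlip : ∀ p ∈ L8 θ θb t, ∀ q ∈ L8 θ θb t, |lam p - lam q| ≤ K * dist p q)
    (hanti : ∀ p ∈ L8 θ θb t, ∀ q ∈ L8 θ θb t, p ≤ q →
      0 ≤ lam p - lam q ∧ lam p - lam q ≤ ∑ i, (q i - p i))
    (hsm : SupOn lam (L8 θ θb t)) (h0 : lam 0 = 0) {s g qa qb : ℝ} {Vis : Fin 12 → Prop}
    (hV : ∀ i, Vis i → i = 0 ∨ i = 2)
    (hown : ∀ p ∈ L8 θ θb t, ∀ q ∈ L8 θ θb t, p ≤ q → ∀ u, p 0 ≤ u →
      (∀ i, Vis i → p i ≤ u * βL θ θb i) → (1 - s) * (q 0 - u) ≤ lam p - lam q)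
    (hmax : ∀ v c p, lam (xt kp 0 (RL8.vec (nat8 v c p))) ≤ DL g s qa qb v c p)
    {c0 : ℝ} (hc0 : 0 < c0)
    (hM : (srf8 θ θb t kD (-1)).LW (Q8 t) c0 ⊆ (Q8 t).L (rs kp (y8 t)) (rs kp (r8 θ θb)) 0)
    {ρ : Fin 8 → ℝ} (hR : Rates8 θ θb t kD (-1) c0 lam ρ) :
    g + qa + qb ≤ ρ 1 + ρ 2 := by
  have hS := sok_kD hθ hk hb
  set M : Set (K8 → ℝ) := {c : K8 → ℝ | xt kp 0 c ∈ L8 θ θb t} with hMdef
  have hp1 : ∀ i, ¬ kp i → r8 θ θb i = 0 := fun i hi => by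
    have hi' : i = 1 := not_not.1 hi
    subst hi'
    unfold r8; rw [Function.update_self]
  have hML : (Q8 t).L (rs kp (y8 t)) (rs kp (r8 θ θb)) 0 ⊆ M := fun c hc =>
    (Sl741.mem_slice_L (Q := mw monL) (v := y8 t) (hp := kp_hd) (x0 := y8 t)
      (a := r8 θ θb) (b := 0) (fun _ _ => rfl) hp1 (fun _ _ => rfl)).1 hc
  have hx0 : xt kp (0 : Fin 12 → ℝ) (0 : K8 → ℝ) = 0 := by
    funext i
    by_cases hi : kp i
    · rw [Sl741.xt_in _ _ hi]; rfl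
    · rw [Sl741.xt_off _ _ hi]
  set G : (K8 → ℝ) → ℝ := fun c => lam (xt kp 0 c) with hG
  have hsG : ∀ p ∈ M, ∀ q ∈ M, p ⊓ q ∈ M → p ⊔ q ∈ M → G p + G q ≤ G (p ⊔ q) + G (p ⊓ q) := by
    intro p hp q hq h1 h2
    have := hsm _ hp _ hq (by rw [← Sl741.xt_inf]; exact h1) (by rw [← Sl741.xt_sup]; exact h2)
    rw [← Sl741.xt_inf, ← Sl741.xt_sup] at this
    exact this
  have hmem : ∀ d : Fin 8 → ℝ, Leg8 d → RL8.vec d ∈ M := fun d hd => mem8 ht hd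
  have hA2 : nat8 1 (-θ) (-θb) 2 ≠ 0 := by
    rw [n2, hb]
    have : 0 < 2 * θ - k := by linarith
    linarith
  have hle : ∀ d d' : Fin 8 → ℝ, (∀ i, d i ≤ d' i) → xt kp (0 : Fin 12 → ℝ) (RL8.vec d) ≤
      xt kp 0 (RL8.vec d') := fun d d' hd => Sl741.xt_mono 0 fun i => by
    simp only [RS.vec, RL8, one_mul]; exact hd _
  -- legality of the two segments
  have hCl : ∀ σ : ℝ, 0 ≤ σ → Leg8 (lvt (1 : Fin 8) σ) := by
    intro σ hσ
    constructor <;> simp [lvt] <;> linarith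
  have e2 : ∀ y σ : ℝ, y • RL8.e 1 + y • RL8.e 5 + σ • RL8.e 2 =
      RL8.vec (lvt (1 : Fin 8) y + lvt 5 y + lvt 2 σ) := by
    intro y σ
    rw [RL8.vec_add, RL8.vec_add, vec_lvt, vec_lvt, vec_lvt]
  have hPl : ∀ y σ : ℝ, 0 ≤ σ → σ ≤ y → Leg8 (lvt (1 : Fin 8) y + lvt 5 y + lvt 2 σ) := by
    intro y σ h1 h2
    constructor <;> simp [lvt] <;> linarith
  have hvd : ∀ d d' : Fin 8 → ℝ, dist (RL8.vec d) (RL8.vec d') ≤ dist d d' := by
    intro d d'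
    rw [dist_pi_le_iff dist_nonneg]
    intro i
    simp only [RS.vec, RL8, one_mul]
    exact dist_le_pi_dist d d' _
  have hK : 0 ≤ K := by
    by_contra hcon
    have h1 := hlip _ (hmem (lvt 1 1) (hCl 1 zero_le_one)) _ (hmem (lvt 1 0) (hCl 0 le_rfl))
    have h2 : (0:ℝ) ≤ K * dist (xt kp 0 (RL8.vec (lvt (1 : Fin 8) 1)))
        (xt kp 0 (RL8.vec (lvt (1 : Fin 8) 0))) := (abs_nonneg _).trans h1
    have h3 : (1:ℝ) ≤ dist (xt kp 0 (RL8.vec (lvt (1 : Fin 8) 1)))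
        (xt kp 0 (RL8.vec (lvt (1 : Fin 8) 0))) := by
      have h4 := dist_le_pi_dist (xt kp (0 : Fin 12 → ℝ) (RL8.vec (lvt (1 : Fin 8) 1)))
        (xt kp 0 (RL8.vec (lvt (1 : Fin 8) 0))) 3
      rw [Sl741.xt_in (p := kp) _ _ (by decide : (3 : Fin 12) ≠ 1),
        Sl741.xt_in (p := kp) _ _ (by decide : (3 : Fin 12) ≠ 1)] at h4
      simp [RS.vec, RL8, cl8, lvt, Real.dist_eq] at h4
      exact h4
    nlinarith
  have hGl : ∀ d d' : Fin 8 → ℝ, Leg8 d → Leg8 d' → |G (RL8.vec d) - G (RL8.vec d')| ≤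
      K * dist d d' := by
    intro d d' h1 h2
    refine (hlip _ (hmem d h1) _ (hmem d' h2)).trans ?_
    exact mul_le_mul_of_nonneg_left ((Sl741.xt_dist _ _ _).trans (hvd d d')) hK
  have hld : ∀ (i : Fin 8) (x y : ℝ), dist (lvt i x) (lvt i y) ≤ dist x y := by
    intro i x y
    rw [dist_pi_le_iff dist_nonneg]
    intro j
    unfold lvt
    split_ifs
    · exact le_rfl
    · rw [dist_self]; exact dist_nonneg
  have key := tie_le RL8 (lam := G) (M := M) hsG hθ hk hk1.le hkθ (y0 := rs kp (y8 t))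
    (sg := -1) (A := nat8 1 (-θ) (-θb)) (B := kD) (μ := 0) (q := g + qa + qb)
    (by rw [hb]; rfl) (by rw [zero_smul, add_zero]; rfl) hS (Q := Q8 t) RL8_full hc0
    (fun c hc => hML (hM hc)) (aln_kD hθ hk hb) (aln_kD_P hθ hk hk1 hb)
    (m := ρ 1) (r := ρ 2) (hR.alone 1 (aln_kD hθ hk hb) (A1_ne hθ))
    (hR.alone 2 (aln_kD_P hθ hk hk1 hb) hA2) (y := 1) one_pos
    (fun σ h1 h2 => by rw [← vec_lvt]; exact hmem _ (hCl σ h1))
    (fun σ h1 h2 => by rw [e2]; exact hmem _ (hPl 1 σ h1 h2)) ?_ ?_ ?_ ?_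
  · exact key
  · -- continuity of the first segment
    refine (LipschitzOnWith.of_dist_le_mul (K := ⟨K, hK⟩) fun x hx y hy => ?_).continuousOn
    rw [Real.dist_eq, ← vec_lvt, ← vec_lvt]
    refine (hGl _ _ (hCl x hx.1) (hCl y hy.1)).trans ?_
    exact mul_le_mul_of_nonneg_left (hld _ _ _) hK
  · refine (LipschitzOnWith.of_dist_le_mul (K := ⟨K, hK⟩) fun x hx y hy => ?_).continuousOn
    rw [Real.dist_eq, e2, e2]
    refine (hGl _ _ (hPl 1 x hx.1 hx.2) (hPl 1 y hy.1 hy.2)).trans ?_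
    refine mul_le_mul_of_nonneg_left ?_ hK
    rw [dist_add_left]
    exact hld _ _ _
  · -- cost of `H`
    have e1 : (1:ℝ) • RL8.e 1 = RL8.vec (lvt (1 : Fin 8) 1) := (vec_lvt _ _ _).symm
    have e3 : (1:ℝ) • RL8.e 1 + (1:ℝ) • RL8.e 5 = RL8.vec (lvt (1 : Fin 8) 1 + lvt 5 1) := by
      rw [RL8.vec_add, vec_lvt, vec_lvt]
    have hl3 : Leg8 (lvt (1 : Fin 8) 1 + lvt 5 1) := by
      constructor <;> simp [lvt] <;> norm_num
    change G ((1:ℝ) • RL8.e 1) - G ((1:ℝ) • RL8.e 1 + (1:ℝ) • RL8.e 5) ≤ 1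
    rw [e3, e1]
    have h1 := (hanti _ (hmem _ (hCl 1 zero_le_one)) _ (hmem _ hl3) (hle _ _ fun i => by
      simp only [Pi.add_apply, lvt]; split_ifs <;> linarith)).2
    refine h1.trans (le_of_eq ?_)
    rw [Sl741.xt_sum]
    rw [Finset.sum_eq_single (⟨9, by decide⟩ : K8)]
    · simp [RS.vec, RL8, cl8, lvt]
    · intro i _ hi
      obtain ⟨i, hi1⟩ := i
      fin_cases i <;> simp [RS.vec, RL8, cl8, lvt] at hi hi1 ⊢
    · intro h; exact absurd (Finset.mem_univ _) h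
  · -- D-max, own profile, monotonicity
    have h1 : G 0 = 0 := by simp only [hG, hx0, h0]
    have hnat : Leg8 (nat8 (-1) 1 1) := leg8_nat _ _ _
    have e4 : RL8.vec (nat8 (-1) 1 1) + (1:ℝ) • RL8.e 0 =
        RL8.vec (nat8 (-1) 1 1 + lvt (0 : Fin 8) 1) := by
      rw [RL8.vec_add, vec_lvt]
    have hl4 : Leg8 (nat8 (-1) 1 1 + lvt (0 : Fin 8) 1) := by
      constructor <;> simp [lvt, nat8] <;> norm_num
    have h5 := hmax (-1) 1 1
    have h6 := hown _ (hmem _ hnat) _ (hmem _ hl4) (hle _ _ fun i => by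
      simp only [Pi.add_apply, lvt]; split_ifs <;> linarith) (-1) (by
        rw [Sl741.xt_in (p := kp) _ _ (by decide : (0 : Fin 12) ≠ 1)]
        simp [RS.vec, RL8, cl8, nat8]) (fun i hi => by
        rcases hV i hi with rfl | rfl
        · rw [Sl741.xt_in (p := kp) _ _ (by decide : (0 : Fin 12) ≠ 1)]
          simp [RS.vec, RL8, cl8, nat8, βL, eL]
        · rw [Sl741.xt_in (p := kp) _ _ (by decide : (2 : Fin 12) ≠ 1)]
          simp [RS.vec, RL8, cl8, nat8, βL, eL, hb]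
          linarith)
    have h7 : xt kp (0 : Fin 12 → ℝ) (RL8.vec (nat8 (-1) 1 1 + lvt (0 : Fin 8) 1)) 0 = 0 := by
      rw [Sl741.xt_in (p := kp) _ _ (by decide : (0 : Fin 12) ≠ 1)]
      simp [RS.vec, RL8, cl8, nat8, lvt]
    rw [h7] at h6
    refine hD_of RL8 (lam := G) (s := s) (c := g) (qa := qa) (qb := qb) (y := 1) ?_ ?_ ?_
    · change (s + g + qa + qb) * 1 ≤ G 0 - G (RL8.vec (nat8 (-1) 1 1))
      rw [h1]
      have : G (RL8.vec (nat8 (-1) 1 1)) ≤ DL g s qa qb (-1) 1 1 := h5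
      unfold DL at this
      linarith
    · change (1 - s) * 1 ≤ G (RL8.vec (nat8 (-1) 1 1)) -
        G (RL8.vec (nat8 (-1) 1 1) + (1:ℝ) • RL8.e 0)
      rw [e4]
      have : (1 - s) * (0 - (-1)) ≤ G (RL8.vec (nat8 (-1) 1 1)) -
        G (RL8.vec (nat8 (-1) 1 1 + lvt (0 : Fin 8) 1)) := h6
      linarith
    · change G (RL8.vec (nat8 (-1) 1 1) + (1:ℝ) • RL8.e 0 + (1:ℝ) • RL8.e 7) ≤
        G (RL8.vec (nat8 (-1) 1 1) + (1:ℝ) • RL8.e 0)
      have e5 : RL8.vec (nat8 (-1) 1 1) + (1:ℝ) • RL8.e 0 + (1:ℝ) • RL8.e 7 =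
          RL8.vec (nat8 (-1) 1 1 + lvt (0 : Fin 8) 1 + lvt 7 1) := by
        rw [e4, RL8.vec_add _ (lvt 7 1), vec_lvt]
      have hv5 : nat8 (-1) 1 1 + lvt (0 : Fin 8) 1 + lvt 7 1 =
          (![0, 1, 1, 0, 0, 1, 0, 0] : Fin 8 → ℝ) := by
        funext i
        simp only [Pi.add_apply, lvt, nat8]
        fin_cases i <;> simp <;> norm_num
      have hl5 : Leg8 (nat8 (-1) 1 1 + lvt (0 : Fin 8) 1 + lvt 7 1) := by
        rw [hv5]
        constructor <;> simp <;> norm_num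
      rw [e5, e4]
      have := (hanti _ (hmem _ hl4) _ (hmem _ hl5) (hle _ _ fun i => by
        simp only [Pi.add_apply, lvt]; split_ifs <;> linarith)).1
      linarith

end Crest.Agent.R116.Kv647
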