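import Crest.Agent.R116.Kz1_647
import Crest.Agent.R116.SgZ_388

/-!
# R116 (K side, ties), generic point of a plane of the record tangent, part 2 (helper647)

* `cwL`, `cw_L`, `cw_full`, `mem_OO` : the walls of the cone at the record and the plane of the
  surface
* `plane_add` : additive along the record direction
* `rho_eq`    : the rates at the generic point are the rates of the record window (`A t ≠ 0`)
* **`half_core`** : the generic point `z0`, `δ = 0`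
* `Half`, **`exists_half`**, **`exists_half_xt`** (frozen slots, tangents on all slots)
-/

set_option autoImplicit false
set_option linter.unusedSectionVars false
set_option linter.unusedVariables false

open Set Filter Topology Metric MeasureTheory

namespace Crest.Agent.R116.Kz647

open Crest.Agent.R136
open Crest.Agent.R138
open Dg262 (X X_cont SupOn)
open Dg219 (Tn lf det2 zz lf_zz Cone Sep Geo gset mem_gset Walls gC nC dhC gC_zero gC_eq nC_zero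
  nC_of dirC exists_grpC OutS)
open Rc146 (OutH LH DH SH SDir gapW RecOut)
open Rc683 (Srf)
open Sl741 (slice xt rs)
open RbK219
open SgO219 (cw PP OO cw_PP ae_out_lam exists_tan_OO)
open SgZ388 (Pack)

variable {ι W τ : Type*} [Fintype ι] [DecidableEq ι] [Fintype W] [Fintype τ] [DecidableEq τ]

section cwl

variable {Q : Walls ι W} {y0 a b : ι → ℝ}

/-- walls of the cone at the record line with direction `b` -/
noncomputable abbrev cwl (Q : Walls ι W) (y0 b : ι → ℝ) : Walls ι {w : W // Q.Act y0 b 0 w} :=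
  cw Q y0 b 0

theorem cwl_act {w : {w : W // Q.Act y0 b 0 w}} :
    (cwl Q y0 b).Act 0 a b w ↔ Q.Act y0 a b w.1 := by
  have h0 : (cwl Q y0 b).rhs w 0 = 0 := by
    unfold Walls.rhs; simp
  have hw := w.2
  constructor
  · rintro ⟨-, h2, h3⟩
    exact ⟨hw.1, h2, h3⟩
  · rintro ⟨h1, h2, h3⟩
    refine ⟨?_, h2, h3⟩
    rw [h0]
    change (0:ℝ) = 0 + 0
    ring

theorem cwl_L : (cwl Q y0 b).L 0 a b = Q.L y0 a b := by
  ext c
  constructor
  · intro h w hw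
    exact h ⟨w, ⟨hw.1, hw.2.2, by unfold Walls.rhs; simp⟩⟩ (cwl_act.2 hw)
  · intro h w hw
    exact h w.1 (cwl_act.1 hw)

theorem cwl_full (hF : Q.Full y0 a b) : (cwl Q y0 b).Full 0 a b := by
  intro w hw
  exact hF w.1 (cwl_act.1 hw)

theorem cwl_PP : PP (cwl Q y0 b) = Q.L y0 b 0 := cw_PP Q y0 b 0

end cwl

section

variable {R : RS ι τ} {A B : τ → ℝ} {sg : ℝ} {y0 : ι → ℝ} {Q : Walls ι W}

theorem X_nat (h : SOk A B sg) (l α : ℝ) :
    X 0 (R.vec (sg • B)) (R.vec A) (l * sg, α) = R.vec (l • B + α • A) := by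
  funext i
  have hs := h.sq
  simp only [X, RS.vec, Pi.zero_apply, Pi.add_apply, Pi.smul_apply, smul_eq_mul]
  linear_combination (R.mu i * B (R.cls i) * l) * hs

/-- the points of the open half plane are interior points -/
theorem mem_OO (h : SOk A B sg) (hleg : R.vec B ∈ Q.L y0 (R.vec A) 0) {l α : ℝ} (hl : 0 < l) :
    ((l * sg, α) : ℝ × ℝ) ∈ OO (cwl Q y0 (R.vec A)) 0 (R.vec (sg • B)) (R.vec A) := by
  intro w
  by_cases hw : (cwl Q y0 (R.vec A)).Act 0 (R.vec (sg • B)) (R.vec A) w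
  · exact Or.inl hw
  · right
    have hw2 := w.2
    have h1 := hleg w.1 hw2
    have hA : R.vec A (Q.hd w.1) = Q.rhs w.1 (R.vec A) := hw2.2.1
    have hlt : R.vec B (Q.hd w.1) < Q.rhs w.1 (R.vec B) := by
      refine lt_of_le_of_ne h1 fun he => hw (cwl_act.2 ⟨hw2.1, ?_, hA⟩)
      rw [R.vec_smul, Q.rhs_smul, Pi.smul_apply, smul_eq_mul, he]
    rw [X_nat h, R.vec_add, R.vec_smul, R.vec_smul]
    change (l • R.vec B + α • R.vec A) (Q.hd w.1) < Q.rhs w.1 (l • R.vec B + α • R.vec A) + 0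
    rw [Q.rhs_add, Q.rhs_smul, Q.rhs_smul]
    simp only [Pi.add_apply, Pi.smul_apply, smul_eq_mul]
    rw [hA]
    nlinarith

variable {G : (ι → ℝ) → ℝ} {c0 : ℝ} {ρ : τ → ℝ}

/-- slope along the record -/
theorem plane_add (h : SOk A B sg)
    (hR : SRates R A B sg G ((R.srf y0 A B sg).LW Q c0) ρ) :
    ∃ κA : ℝ, ∀ l α : ℝ, 0 ≤ l →
      G (R.vec (l • B + α • A)) = G (R.vec (l • B)) + α * κA := by
  classical
  obtain ⟨rep, hrep⟩ := exists_rep h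
  obtain ⟨h1, h2⟩ := rep_A h hrep (repA := rep.filter fun t => A t ≠ 0)
    (fun t => by rw [Finset.mem_filter])
  refine ⟨-∑ t ∈ rep.filter (fun t => A t ≠ 0), ρ t * A t, fun l α hl => ?_⟩
  have h3 := hR.nat 0 l α l hl hl (fun _ _ => rfl) _ h1 h2
  have e : l • B + (0:ℝ) • A = l • B := by simp
  rw [e] at h3
  have e2 : ∑ t ∈ rep.filter (fun t => A t ≠ 0), ρ t * ((l - l) * B t + (α - 0) * A t) =
      α * ∑ t ∈ rep.filter (fun t => A t ≠ 0), ρ t * A t := by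
    rw [Finset.mul_sum]
    exact Finset.sum_congr rfl fun t _ => by ring
  rw [e2] at h3
  linarith

/-- **the rates at an interior point of the plane are those of the record window** -/
theorem rho_eq (h : SOk A B sg) (hF : Q.Full y0 (R.vec (sg • B)) (R.vec A)) (hc0 : 0 < c0)
    (hR : SRates R A B sg G ((R.srf y0 A B sg).LW Q c0) ρ) {l α : ℝ} (hl : 0 < l)
    {P : Set (ι → ℝ)} {h' : ℕ → ℝ} (hpos : ∀ m, 0 < h' m) (h0 : Tendsto h' atTop (𝓝 0))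
    {lam : (ι → ℝ) → ℝ}
    (ht : Ex926.IsTan P ((R.srf y0 A B sg).L Q) G (fun _ => R.vec (l • B + α • A)) h' lam)
    {ρ2 : τ → ℝ} (hρ2 : FRates R A B sg lam ((R.srf y0 A B sg).L Q) ρ2) {t : τ} (hA : A t ≠ 0) :
    ρ2 t = ρ t := by
  obtain ⟨c, hc, hce, hcz⟩ := roomGrp (R := R) (y0 := y0) (Q := Q) h hF t
  have k1 := hρ2.grp t c 0 1 (fun i hi => by rw [hcz i hi]; ring) hc (by rwa [one_smul])
  rw [one_smul, mul_one] at k1
  -- natural level of the group at the base point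
  obtain ⟨j, hj⟩ := R.sur t
  have hsd := h.sdir (R := R) (y0 := y0)
  set z : ℝ × ℝ := (l * sg, α) with hz
  have hzT : Tn (R.srf y0 A B sg).a (R.srf y0 A B sg).b z = R.vec (l • B + α • A) :=
    h.Tn_nat α l
  set u : ℝ := lf ((R.srf y0 A B sg).n ((R.srf y0 A B sg).g j)) z * dl A B sg t with hu
  have hlev : ∀ i, Par A B t (R.cls i) → R.vec (l • B + α • A) i =
      R.mu i * (dl A B sg (R.cls i) / dl A B sg t) * u := by
    intro i hi
    have hg : (R.srf y0 A B sg).g i = (R.srf y0 A B sg).g j := by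
      rw [h.grp_par (R := R) (y0 := y0), hj]; exact hi
    have hd := (h.dl_pos t).ne'
    rw [← hzT, hsd.Tn_eq, hg, h.dh_eq, hu]
    field_simp
  have key : ∀ ε : ℝ, 0 < ε → |ρ t - ρ2 t| ≤ 2 * ε := by
    intro ε hε
    set C : ℝ := max ‖c‖ ‖c + R.eG A B sg t‖ with hC
    have hC0 : 0 ≤ C := (norm_nonneg c).trans (le_max_left _ _)
    have hcl : 0 < c0 * l := by positivity
    have e1 : ∀ᶠ m in atTop, h' m * (C + 1) < c0 * l := by
      have : Tendsto (fun m => h' m * (C + 1)) atTop (𝓝 (0 * (C + 1))) := h0.mul_const _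
      rw [zero_mul] at this
      exact this.eventually_lt_const hcl
    obtain ⟨m, hm1, hm2⟩ := ((ht C ε hε).and e1).exists
    have hh := hpos m
    have hsm : ∀ v : ι → ℝ, ‖v‖ ≤ C → ‖h' m • v‖ ≤ c0 * l := by
      intro v hv
      rw [norm_smul, Real.norm_of_nonneg hh.le]
      calc h' m * ‖v‖ ≤ h' m * (C + 1) := mul_le_mul_of_nonneg_left (by linarith) hh.le
        _ ≤ c0 * l := hm2.le
    have m1 := h.memLW (R := R) (y0 := y0) (Q := Q) (c0 := c0) (α := α) hl.le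
      ((Walls.cone (Q := Q)).smul _ hc _ hh.le) (hsm c (le_max_left _ _))
    have m2 := h.memLW (R := R) (y0 := y0) (Q := Q) (c0 := c0) (α := α) hl.le
      ((Walls.cone (Q := Q)).smul _ hce _ hh.le) (hsm _ (le_max_right _ _))
    rw [smul_add, ← add_assoc] at m2
    have k2 := hR.grp t hA _ u (h' m) (fun i hi => by
      rw [Pi.add_apply, Pi.smul_apply, hcz i hi, smul_zero, add_zero]
      exact hlev i hi) m1 m2
    obtain ⟨-, a1⟩ := hm1 c hc (le_max_left _ _)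
    obtain ⟨-, a2⟩ := hm1 _ hce (le_max_right _ _)
    rw [smul_add, ← add_assoc] at a2
    have b1 := abs_le.1 a1
    have b2 := abs_le.1 a2
    have k3 : lam c - lam (c + R.eG A B sg t) = ρ2 t := k1
    have k4 : h' m * (ρ t - ρ2 t) ≤ h' m * (2 * ε) := by nlinarith [b1.1, b1.2, b2.1, b2.2]
    have k5 : h' m * (ρ2 t - ρ t) ≤ h' m * (2 * ε) := by nlinarith [b1.1, b1.2, b2.1, b2.2]
    rw [abs_le]
    have k6 := le_of_mul_le_mul_left k4 hh
    have k7 := le_of_mul_le_mul_left k5 hh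
    constructor <;> linarith
  by_contra hne
  have hpos' : 0 < |ρ t - ρ2 t| := abs_pos.2 (sub_ne_zero.2 (Ne.symm hne))
  have := key (|ρ t - ρ2 t| / 4) (by positivity)
  linarith

/-- values on the natural plane from `OutS` -/
theorem outS_nat (h : SOk A B sg) {lam : (ι → ℝ) → ℝ} {D : ℝ × ℝ} {φ : ℕ → (ι → ℝ) → ℝ}
    {r : ℕ → ℝ}
    (H : OutS (R.srf y0 A B sg).g ((R.srf y0 A B sg).L Q) (R.srf y0 A B sg).dh
      (R.srf y0 A B sg).n lam D φ r) (l α : ℝ) :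
    lam (R.vec (l • B + α • A)) = lf D (l * sg, α) := by
  have hsd := h.sdir (R := R) (y0 := y0)
  have hz : Tn (R.srf y0 A B sg).a (R.srf y0 A B sg).b (l * sg, α) = R.vec (l • B + α • A) :=
    h.Tn_nat α l
  have hL : Tn (R.srf y0 A B sg).a (R.srf y0 A B sg).b (l * sg, α) ∈ (R.srf y0 A B sg).L Q :=
    Walls.Tn_mem _
  rw [H.total, ← hz, H.sum _ hL, ← Finset.sum_neg_distrib]
  refine Finset.sum_congr rfl fun k _ => ?_
  exact H.rate k _ hL _ fun i hi => by rw [hsd.Tn_eq, hi]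

/-- **the generic point** of the open half plane, `δ = 0` -/
theorem half_core (h : SOk A B sg) (hF : Q.Full y0 (R.vec (sg • B)) (R.vec A))
    (hleg : R.vec B ∈ Q.L y0 (R.vec A) 0) {K : ℝ} (hK : 0 ≤ K)
    (hlip : ∀ p ∈ Q.L y0 (R.vec A) 0, ∀ q ∈ Q.L y0 (R.vec A) 0, |G p - G q| ≤ K * dist p q)
    (hm : ∀ p ∈ Q.L y0 (R.vec A) 0, ∀ q ∈ Q.L y0 (R.vec A) 0, p ≤ q →
      0 ≤ G p - G q ∧ G p - G q ≤ ∑ i, (q i - p i))
    (hs : SupOn G (Q.L y0 (R.vec A) 0)) (hc0 : 0 < c0)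
    (hR : SRates R A B sg G ((R.srf y0 A B sg).LW Q c0) ρ) {κ y : ℝ} (hy : 0 < y)
    (hκ : G (R.vec (y • B)) - G 0 ≤ κ * y) {N : Set (ℝ × ℝ)} (hN : ∀ᵐ z : ℝ × ℝ, z ∈ N) :
    ∃ l α : ℝ, 0 < l ∧ l < y ∧ ((l * sg, α) : ℝ × ℝ) ∈ N ∧
      ∃ D : ℝ × ℝ →L[ℝ] ℝ,
        HasFDerivAt (fun z => G (X 0 (R.vec (sg • B)) (R.vec A) z)) D (l * sg, α) ∧
      ∀ (h' : ℕ → ℝ), (∀ m, 0 < h' m) → Tendsto h' atTop (𝓝 0) → ∀ lam : (ι → ℝ) → ℝ,
        Ex926.IsTan (Q.L y0 (R.vec A) 0) ((R.srf y0 A B sg).L Q) G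
          (fun _ => R.vec (l • B + α • A)) h' lam →
        ∃ (φ : ℕ → (ι → ℝ) → ℝ) (r : ℕ → ℝ),
          OutS (R.srf y0 A B sg).g ((R.srf y0 A B sg).L Q) (R.srf y0 A B sg).dh
            (R.srf y0 A B sg).n lam (D (1, 0), D (0, 1)) φ r ∧
          ∃ ρ2 : τ → ℝ, (∀ t, A t ≠ 0 → ρ2 t = ρ t) ∧
            FRates R A B sg lam ((R.srf y0 A B sg).L Q) ρ2 ∧
            lam (R.vec B) ≤ κ ∧ ∀ α' : ℝ, lam (R.vec (α' • A)) = G (R.vec (α' • A)) - G 0 := by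
  classical
  obtain ⟨κA, hadd⟩ := plane_add (Q := Q) (y0 := y0) h hR
  -- points of the half plane are legal
  have hlegl : ∀ l α : ℝ, 0 ≤ l → R.vec (l • B + α • A) ∈ Q.L y0 (R.vec A) 0 := by
    intro l α hl
    have h1 : R.vec A ∈ Q.L y0 (R.vec A) 0 ∧ R.vec (-A) ∈ Q.L y0 (R.vec A) 0 := by
      constructor
      · intro w hw; exact hw.2.1.le
      · intro w hw
        have e : R.vec (-A) = (-1 : ℝ) • R.vec A := by
          rw [← R.vec_smul]; congr 1; simp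
        rw [e, Q.rhs_smul, Pi.smul_apply, smul_eq_mul, hw.2.1]
    have hcone := Walls.cone (Q := Q) (x0 := y0) (a := R.vec A) (b := 0)
    rw [R.vec_add, R.vec_smul]
    refine hcone.add _ (hcone.smul _ hleg _ hl) _ ?_
    rw [R.vec_smul]
    rcases le_total 0 α with hα | hα
    · exact hcone.smul _ h1.1 _ hα
    · have e : α • R.vec A = (-α) • R.vec (-A) := by
        rw [← R.vec_smul, ← R.vec_smul]; congr 1; simp
      rw [e]
      exact hcone.smul _ h1.2 _ (by linarith)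
  -- the good set
  have hPP : PP (cwl Q y0 (R.vec A)) = Q.L y0 (R.vec A) 0 := cwl_PP
  have hLL : (cwl Q y0 (R.vec A)).L 0 (R.vec (sg • B)) (R.vec A) = (R.srf y0 A B sg).L Q :=
    cwl_L
  have hae := ae_out_lam (cwl Q y0 (R.vec A)) (x0 := 0) (a := R.vec (sg • B)) (b := R.vec A)
    (g := G) hK (by rw [hPP]; exact hlip) (by rw [hPP]; exact hm) (by rw [hPP]; exact hs)
    (h.a_nonneg (R := R)) (cwl_full hF)
  set good : Set (ℝ × ℝ) := {z | z ∈ N ∧ (z ∈ OO (cwl Q y0 (R.vec A)) 0 (R.vec (sg • B))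
    (R.vec A) → ∃ D : ℝ × ℝ →L[ℝ] ℝ,
      HasFDerivAt (fun z => G (X 0 (R.vec (sg • B)) (R.vec A) z)) D z ∧
      ∀ (h : ℕ → ℝ), (∀ l, 0 < h l) → Tendsto h atTop (𝓝 0) → ∀ lam : (ι → ℝ) → ℝ,
        Ex926.IsTan (PP (cwl Q y0 (R.vec A)))
          ((cwl Q y0 (R.vec A)).L 0 (R.vec (sg • B)) (R.vec A)) G
          (fun _ => X 0 (R.vec (sg • B)) (R.vec A) z) h lam →
        ∃ (φ : ℕ → (ι → ℝ) → ℝ) (r : ℕ → ℝ),
          OutS (gC (R.vec (sg • B)) (R.vec A))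
            ((cwl Q y0 (R.vec A)).L 0 (R.vec (sg • B)) (R.vec A))
            (dhC (R.vec (sg • B)) (R.vec A)) (nC (R.vec (sg • B)) (R.vec A)) lam
            (D (1, 0), D (0, 1)) φ r)} with hgood
  have hgae : ∀ᵐ z : ℝ × ℝ, z ∈ good := by
    filter_upwards [hae, hN] with z hz hzN
    exact ⟨hzN, hz⟩
  -- Fubini
  have hfub : ∀ᵐ z1 : ℝ, ∀ᵐ z2 : ℝ, ((z1, z2) : ℝ × ℝ) ∈ good := by
    have : ∀ᵐ z ∂((volume : Measure ℝ).prod volume), z ∈ good := hgae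
    exact Measure.ae_ae_of_ae_prod this
  have hfub2 : ∀ᵐ l : ℝ, ∀ᵐ z2 : ℝ, ((l * sg, z2) : ℝ × ℝ) ∈ good := by
    rcases h.sg1 with h1 | h1
    · rw [h1]; simpa using hfub
    · rw [h1]
      have := (Measure.measurePreserving_neg (volume : Measure ℝ)).quasiMeasurePreserving.ae hfub
      simpa using this
  -- slope
  set S : Set ℝ := {l | ∀ᵐ z2 : ℝ, ((l * sg, z2) : ℝ × ℝ) ∈ good} with hSdef
  set ψ : ℝ → ℝ := fun l => G (R.vec (l • B)) with hψ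
  have hlipψ : ∀ u ∈ Icc 0 y, ∀ v ∈ Icc 0 y, |ψ u - ψ v| ≤ K * ‖R.vec B‖ * |u - v| := by
    intro u hu v hv
    have e : ∀ x : ℝ, x • B = x • B + (0:ℝ) • A := fun x => by simp
    have h1 := hlip (R.vec (u • B)) (by rw [e]; exact hlegl u 0 hu.1) (R.vec (v • B))
      (by rw [e]; exact hlegl v 0 hv.1)
    have h2 : dist (R.vec (u • B)) (R.vec (v • B)) = ‖R.vec B‖ * |u - v| := by
      rw [R.vec_smul, R.vec_smul, dist_eq_norm, ← sub_smul, norm_smul, Real.norm_eq_abs,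
        mul_comm]
    rw [h2] at h1
    calc |ψ u - ψ v| ≤ K * (‖R.vec B‖ * |u - v|) := h1
      _ = K * ‖R.vec B‖ * |u - v| := by ring
  have hψ0 : ψ 0 = G 0 := by
    simp only [hψ, zero_smul]
    congr 1
    funext i; simp [RS.vec]
  obtain ⟨l, hl, hlS, d, hd, hdκ⟩ := pos_slope (ψ := ψ) hy (mul_nonneg hK (norm_nonneg (R.vec B)))
    hlipψ (κ := κ) (by rw [hψ0]; exact hκ) (S := S) hfub2
  obtain ⟨α, hα⟩ := (show ∀ᵐ z2 : ℝ, ((l * sg, z2) : ℝ × ℝ) ∈ good from hlS).exists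
  obtain ⟨hzN, hz⟩ := hα
  obtain ⟨D, hD, hout⟩ := hz (mem_OO h hleg hl.1)
  refine ⟨l, α, hl.1, hl.2, hzN, D, hD, fun h' hpos h0 lam ht => ?_⟩
  -- derivative in the direction of the offset
  have hcurve : HasDerivAt (fun x : ℝ => G (X 0 (R.vec (sg • B)) (R.vec A) (x * sg, α)))
      (D (sg, 0)) l := by
    have h1 : HasDerivAt (fun x : ℝ => ((x * sg, α) : ℝ × ℝ)) (1 * sg, 0) l :=
      ((hasDerivAt_id l).mul_const sg).prodMk (hasDerivAt_const l α)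
    rw [one_mul] at h1
    exact hD.comp_hasDerivAt l h1
  have hcurve2 : HasDerivAt (fun x : ℝ => G (X 0 (R.vec (sg • B)) (R.vec A) (x * sg, α))) d l := by
    have h1 : HasDerivAt (fun x : ℝ => ψ x + α * κA) d l := hd.add_const _
    refine h1.congr_of_eventuallyEq ?_
    filter_upwards [Ioi_mem_nhds hl.1] with x hx
    rw [X_nat h]
    exact hadd x α (le_of_lt hx)
  have hDd : D (sg, 0) = d := hcurve.unique hcurve2
  have hcurve3 : HasDerivAt (fun x : ℝ => G (X 0 (R.vec (sg • B)) (R.vec A) (l * sg, x)))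
      (D (0, 1)) α := by
    have h1 : HasDerivAt (fun x : ℝ => ((l * sg, x) : ℝ × ℝ)) (0, 1) α :=
      (hasDerivAt_const α (l * sg)).prodMk (hasDerivAt_id α)
    exact hD.comp_hasDerivAt α h1
  have hcurve4 : HasDerivAt (fun x : ℝ => G (X 0 (R.vec (sg • B)) (R.vec A) (l * sg, x)))
      κA α := by
    have h1 : HasDerivAt (fun x : ℝ => ψ l + x * κA) κA α := by
      simpa using ((hasDerivAt_id α).mul_const κA).const_add (ψ l)
    refine h1.congr_of_eventuallyEq (Eventually.of_forall fun x => ?_)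
    change G (X 0 (R.vec (sg • B)) (R.vec A) (l * sg, x)) = ψ l + x * κA
    rw [X_nat h]
    exact hadd l x hl.1.le
  have hDA : D (0, 1) = κA := hcurve3.unique hcurve4
  have ht' : Ex926.IsTan (PP (cwl Q y0 (R.vec A)))
      ((cwl Q y0 (R.vec A)).L 0 (R.vec (sg • B)) (R.vec A)) G
      (fun _ => X 0 (R.vec (sg • B)) (R.vec A) (l * sg, α)) h' lam := by
    rw [hPP, hLL, X_nat h]; exact ht
  obtain ⟨φ, r, hO⟩ := hout h' hpos h0 lam ht'
  rw [hLL] at hO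
  have hO' : OutS (R.srf y0 A B sg).g ((R.srf y0 A B sg).L Q) (R.srf y0 A B sg).dh
      (R.srf y0 A B sg).n lam (D (1, 0), D (0, 1)) φ r := hO
  obtain ⟨ρ2, hρ2⟩ := frates_of (Q := Q) (y0 := y0) h hO'
  have hlin : ∀ x x' : ℝ, D (x, x') = x * D (1, 0) + x' * D (0, 1) := by
    intro x x'
    have e : ((x, x') : ℝ × ℝ) = x • (1, 0) + x' • (0, 1) := by ext <;> simp
    rw [e, map_add, map_smul, map_smul]; simp
  refine ⟨φ, r, hO', ρ2, fun t hA => rho_eq h hF hc0 hR hl.1 hpos h0 ht hρ2 hA, hρ2, ?_,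
    fun α' => ?_⟩
  · have h1 := outS_nat h hO' 1 0
    have e : (1:ℝ) • B + (0:ℝ) • A = B := by simp
    rw [e] at h1
    rw [h1]
    have h2 : lf (D (1, 0), D (0, 1)) (1 * sg, (0:ℝ)) = D (sg, 0) := by
      rw [hlin sg 0]; simp only [lf]; ring
    rw [h2, hDd]; exact hdκ
  · have h1 := outS_nat h hO' 0 α'
    have e : (0:ℝ) • B + α' • A = α' • A := by simp
    rw [e] at h1
    rw [h1]
    have h2 : lf (D (1, 0), D (0, 1)) (0 * sg, α') = α' * κA := by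
      simp only [lf]; rw [hDA]; ring
    rw [h2]
    have h3 := hadd 0 α' le_rfl
    rw [e] at h3
    have e0 : R.vec ((0:ℝ) • B) = 0 := by
      rw [zero_smul]; funext i; simp [RS.vec]
    rw [e0] at h3
    linarith

/-- **the generic point of a half plane** : base `vec (l B + α A)`, `l > 0`, `lam j` = tangents of
`g j` there (`g j0` = profile tangent at the record, `ρ` its window rates), `ρ2` = rates of all slots -/
structure Half (Q : Walls ι W) (R : RS ι τ) (A B : τ → ℝ) (sg : ℝ) (y0 : ι → ℝ) {J : Type*}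
    (g : J → (ι → ℝ) → ℝ) (j0 : J) (ρ : τ → ℝ) (κ l α : ℝ) (h : ℕ → ℝ)
    (lam : J → (ι → ℝ) → ℝ) (ρ2 : τ → ℝ) : Prop where
  lpos : 0 < l
  hpos : ∀ m, 0 < h m
  lim : Tendsto h atTop (𝓝 0)
  tan : ∀ j, Ex926.IsTan (Q.L y0 (R.vec A) 0) ((R.srf y0 A B sg).L Q) (g j)
    (fun _ => R.vec (l • B + α • A)) h (lam j)
  out : ∃ (D : ℝ × ℝ) (φ : ℕ → (ι → ℝ) → ℝ) (r : ℕ → ℝ),
    OutS (R.srf y0 A B sg).g ((R.srf y0 A B sg).L Q) (R.srf y0 A B sg).dh (R.srf y0 A B sg).n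
      (lam j0) D φ r
  eq : ∀ t, A t ≠ 0 → ρ2 t = ρ t
  rates : FRates R A B sg (lam j0) ((R.srf y0 A B sg).L Q) ρ2
  row : lam j0 (R.vec B) ≤ κ
  rcd : ∀ α' : ℝ, lam j0 (R.vec (α' • A)) = g j0 (R.vec (α' • A)) - g j0 0

/-- **the generic point of a half plane exists** (no frozen slots) -/
theorem exists_half (h : SOk A B sg) (hF : Q.Full y0 (R.vec (sg • B)) (R.vec A))
    (hleg : R.vec B ∈ Q.L y0 (R.vec A) 0) {J : Type*} [Finite J] {g : J → (ι → ℝ) → ℝ} {j0 : J}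
    {K : ℝ} (hK : 0 ≤ K)
    (hlip : ∀ j, ∀ p ∈ Q.L y0 (R.vec A) 0, ∀ q ∈ Q.L y0 (R.vec A) 0,
      |g j p - g j q| ≤ K * dist p q)
    (hm : ∀ p ∈ Q.L y0 (R.vec A) 0, ∀ q ∈ Q.L y0 (R.vec A) 0, p ≤ q →
      0 ≤ g j0 p - g j0 q ∧ g j0 p - g j0 q ≤ ∑ i, (q i - p i))
    (hs : SupOn (g j0) (Q.L y0 (R.vec A) 0)) (hc0 : 0 < c0)
    (hR : SRates R A B sg (g j0) ((R.srf y0 A B sg).LW Q c0) ρ) {κ y : ℝ} (hy : 0 < y)
    (hκ : g j0 (R.vec (y • B)) - g j0 0 ≤ κ * y) {N : Set (ℝ × ℝ)} (hN : ∀ᵐ z : ℝ × ℝ, z ∈ N) :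
    ∃ l α : ℝ, 0 < l ∧ l < y ∧ ((l * sg, α) : ℝ × ℝ) ∈ N ∧
      ∀ h' : ℕ → ℝ, (∀ m, 0 < h' m) → Tendsto h' atTop (𝓝 0) →
        ∃ (θ : ℕ → ℕ) (lam : J → (ι → ℝ) → ℝ) (ρ2 : τ → ℝ), StrictMono θ ∧
          Half Q R A B sg y0 g j0 ρ κ l α (fun m => h' (θ m)) lam ρ2 := by
  classical
  obtain ⟨l, α, hl, hly, hzN, D, hD, H⟩ := half_core h hF hleg hK (hlip j0) hm hs hc0 hR hy hκ hN
  refine ⟨l, α, hl, hly, hzN, fun h' hpos h0 => ?_⟩
  have hPP : PP (cwl Q y0 (R.vec A)) = Q.L y0 (R.vec A) 0 := cwl_PP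
  have hLL : (cwl Q y0 (R.vec A)).L 0 (R.vec (sg • B)) (R.vec A) = (R.srf y0 A B sg).L Q :=
    cwl_L
  obtain ⟨θ, hθ, lam, hlam⟩ := exists_tan_OO (cwl Q y0 (R.vec A)) (g := g) hK
    (fun j p hp q hq => by
      rw [hPP] at hp hq
      rw [← dist_eq_norm]; exact hlip j p hp q hq) (mem_OO h hleg (l := l) (α := α) hl) hpos h0
  rw [X_nat h, hPP, hLL] at hlam
  have hpos' : ∀ m, 0 < h' (θ m) := fun m => hpos _
  have h0' : Tendsto (fun m => h' (θ m)) atTop (𝓝 0) := h0.comp hθ.tendsto_atTop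
  obtain ⟨φ, r, hO, ρ2, he, hf, hrow, hrcd⟩ := H _ hpos' h0' (lam j0) (hlam j0)
  exact ⟨θ, lam, ρ2, hθ, hl, hpos', h0', hlam, ⟨_, φ, r, hO⟩, he, hf, hrow, hrcd⟩

end

/-- interior points, vector form -/
theorem mem_OOv {Q : Walls ι W} {y0 b v : ι → ℝ} {sg : ℝ} (hsg : sg * sg = 1)
    (hleg : v ∈ Q.L y0 b 0) {l α : ℝ} (hl : 0 < l) :
    ((l * sg, α) : ℝ × ℝ) ∈ OO (cwl Q y0 b) 0 (sg • v) b ∧
      X 0 (sg • v) b (l * sg, α) = l • v + α • b := by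
  have hX : X 0 (sg • v) b (l * sg, α) = l • v + α • b := by
    funext i
    simp only [X, Pi.zero_apply, Pi.add_apply, Pi.smul_apply, smul_eq_mul]
    linear_combination (v i * l) * hsg
  refine ⟨fun w => ?_, hX⟩
  by_cases hw : (cwl Q y0 b).Act 0 (sg • v) b w
  · exact Or.inl hw
  · right
    have hw2 := w.2
    have h1 := hleg w.1 hw2
    have hlt : v (Q.hd w.1) < Q.rhs w.1 v := by
      refine lt_of_le_of_ne h1 fun he => hw (cwl_act.2 ⟨hw2.1, ?_, hw2.2.1⟩)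
      rw [Q.rhs_smul, Pi.smul_apply, smul_eq_mul, he]
    rw [hX]
    change (l • v + α • b) (Q.hd w.1) < Q.rhs w.1 (l • v + α • b) + 0
    rw [Q.rhs_add, Q.rhs_smul, Q.rhs_smul]
    simp only [Pi.add_apply, Pi.smul_apply, smul_eq_mul]
    rw [hw2.2.1]
    nlinarith

section frozen

variable {p : ι → Prop} [DecidablePred p] {Q : Walls ι W} {hp : ∀ w, p (Q.hd w)}
  {y0 ρ0 : ι → ℝ} {R : RS {i // p i} τ} {A B : τ → ℝ} {sg c0 : ℝ} {ρ : τ → ℝ}

/-- **the generic point of a half plane exists, frozen slots**: tangents `lam2 j` on ALL slots,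
`Half` for the restrictions to the kept slots -/
theorem exists_half_xt (hA : rs p ρ0 = R.vec A) (hρ : ∀ i, ¬ p i → ρ0 i = 0) (h : SOk A B sg)
    (hF : (slice Q p y0 hp).Full (rs p y0) (R.vec (sg • B)) (R.vec A))
    (hleg : R.vec B ∈ (slice Q p y0 hp).L (rs p y0) (R.vec A) 0)
    {J : Type*} [Finite J] {lam : J → (ι → ℝ) → ℝ} {j0 : J} {K : ℝ} (hK : 0 ≤ K)
    (hlip : ∀ j, ∀ c ∈ Q.L y0 ρ0 0, ∀ c' ∈ Q.L y0 ρ0 0, |lam j c - lam j c'| ≤ K * dist c c')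
    (hm : ∀ c ∈ Q.L y0 ρ0 0, ∀ c' ∈ Q.L y0 ρ0 0, c ≤ c' →
      0 ≤ lam j0 c - lam j0 c' ∧ lam j0 c - lam j0 c' ≤ ∑ i, (c' i - c i))
    (hs : SupOn (lam j0) (Q.L y0 ρ0 0)) (hc0 : 0 < c0)
    (hR : SRates R A B sg (fun c => lam j0 (xt p 0 c))
      ((R.srf (rs p y0) A B sg).LW (slice Q p y0 hp) c0) ρ) {κ y : ℝ} (hy : 0 < y)
    (hκ : lam j0 (xt p 0 (R.vec (y • B))) - lam j0 0 ≤ κ * y)
    {N : Set (ℝ × ℝ)} (hN : ∀ᵐ z : ℝ × ℝ, z ∈ N) :
    ∃ l α : ℝ, 0 < l ∧ l < y ∧ ((l * sg, α) : ℝ × ℝ) ∈ N ∧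
      xt p 0 (R.vec (l • B + α • A)) ∈ Q.L y0 ρ0 0 ∧
      ∀ h' : ℕ → ℝ, (∀ m, 0 < h' m) → Tendsto h' atTop (𝓝 0) →
        ∃ (θ : ℕ → ℕ) (lam2 : J → (ι → ℝ) → ℝ) (ρ2 : τ → ℝ), StrictMono θ ∧
          (∀ j, Ex926.IsTan (Q.L y0 ρ0 0) (Q.L y0 (xt p 0 (R.vec (sg • B))) ρ0) (lam j)
            (fun _ => xt p 0 (R.vec (l • B + α • A))) (fun m => h' (θ m)) (lam2 j)) ∧
          Half (slice Q p y0 hp) R A B sg (rs p y0) (fun j c => lam j (xt p 0 c)) j0 ρ κ l α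
            (fun m => h' (θ m)) (fun j c => lam2 j (xt p 0 c)) ρ2 := by
  classical
  have h00 : ∀ i, ¬ p i → y0 i = y0 i := fun _ _ => rfl
  have hb0 : ∀ i, ¬ p i → (0 : ι → ℝ) i = 0 := fun _ _ => rfl
  have ha' : ∀ i, ¬ p i → xt p 0 (R.vec (sg • B)) i = 0 := fun i hi => by
    rw [Sl741.xt_off _ _ hi]; rfl
  have hL' : ∀ {c : {i // p i} → ℝ}, c ∈ (slice Q p y0 hp).L (rs p y0) (R.vec A) 0 ↔
      xt p 0 c ∈ Q.L y0 ρ0 0 := by
    intro c
    have := Sl741.mem_slice_L (Q := Q) (v := y0) (hp := hp) (x0 := y0) (a := ρ0) (b := 0) h00 hρ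
      hb0 (c := c)
    rwa [hA] at this
  have hL2 : ∀ {c : {i // p i} → ℝ}, c ∈ (R.srf (rs p y0) A B sg).L (slice Q p y0 hp) ↔
      xt p 0 c ∈ Q.L y0 (xt p 0 (R.vec (sg • B))) ρ0 := by
    intro c
    have := Sl741.mem_slice_L (Q := Q) (v := y0) (hp := hp) (x0 := y0)
      (a := xt p 0 (R.vec (sg • B))) (b := ρ0) h00 ha' hρ (c := c)
    rw [hA, Sl741.rs_xt] at this
    exact this
  have hx0 : xt p (0 : ι → ℝ) (0 : {i // p i} → ℝ) = 0 := by
    funext i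
    by_cases hi : p i
    · rw [Sl741.xt_in _ _ hi]; rfl
    · rw [Sl741.xt_off _ _ hi]
  have hρ0 : xt p 0 (R.vec A) = ρ0 := by
    rw [← hA, Sl741.xt_rs fun i hi => by rw [hρ i hi]; rfl]
  obtain ⟨l, α, hl, hly, hzN, D, hD, H⟩ := half_core (G := fun c => lam j0 (xt p 0 c)) h hF hleg
    hK (fun c hc c' hc' => (hlip j0 _ (hL'.1 hc) _ (hL'.1 hc')).trans
      (mul_le_mul_of_nonneg_left (Sl741.xt_dist _ _ _) hK))
    (fun c hc c' hc' hcc => by
      have := hm _ (hL'.1 hc) _ (hL'.1 hc') (Sl741.xt_mono 0 hcc)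
      rw [Sl741.xt_sum] at this; exact this)
    (fun c hc c' hc' h1 h2 => by
      have := hs _ (hL'.1 hc) _ (hL'.1 hc') (by rw [← Sl741.xt_inf]; exact hL'.1 h1)
        (by rw [← Sl741.xt_sup]; exact hL'.1 h2)
      rw [← Sl741.xt_inf, ← Sl741.xt_sup] at this; exact this)
    hc0 hR hy (by rw [hx0]; exact hκ) hN
  have hlegv : xt p 0 (R.vec B) ∈ Q.L y0 ρ0 0 := hL'.1 hleg
  have hsgv : sg • xt p 0 (R.vec B) = xt p 0 (R.vec (sg • B)) := by
    rw [R.vec_smul, Sl741.xt_smul]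
  have hbase : l • xt p 0 (R.vec B) + α • ρ0 = xt p 0 (R.vec (l • B + α • A)) := by
    rw [R.vec_add, R.vec_smul, R.vec_smul, Sl741.xt_add0, Sl741.xt_smul, Sl741.xt_smul, hρ0]
  obtain ⟨hOO, hX⟩ := mem_OOv (Q := Q) (y0 := y0) (b := ρ0) h.sq hlegv (l := l) (α := α) hl
  rw [hsgv] at hOO hX
  rw [hbase] at hX
  have hPP : PP (cwl Q y0 ρ0) = Q.L y0 ρ0 0 := cwl_PP
  have hLL : (cwl Q y0 ρ0).L 0 (xt p 0 (R.vec (sg • B))) ρ0 =
      Q.L y0 (xt p 0 (R.vec (sg • B))) ρ0 := cwl_L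
  refine ⟨l, α, hl, hly, hzN, ?_, fun h' hpos h0 => ?_⟩
  · rw [← hX, ← hPP]
    exact SgZ388.X_mem_PP hOO
  obtain ⟨θ, hθ, lam2, hlam2⟩ := exists_tan_OO (cwl Q y0 ρ0) (g := lam) hK
    (fun j c hc c' hc' => by
      rw [hPP] at hc hc'
      rw [← dist_eq_norm]; exact hlip j c hc c' hc') hOO hpos h0
  rw [hX, hPP, hLL] at hlam2
  have hpos' : ∀ m, 0 < h' (θ m) := fun m => hpos _
  have h0' : Tendsto (fun m => h' (θ m)) atTop (𝓝 0) := h0.comp hθ.tendsto_atTop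
  have hres : ∀ j, Ex926.IsTan ((slice Q p y0 hp).L (rs p y0) (R.vec A) 0)
      ((R.srf (rs p y0) A B sg).L (slice Q p y0 hp)) (fun c => lam j (xt p 0 c))
      (fun _ => R.vec (l • B + α • A)) (fun m => h' (θ m)) (fun c => lam2 j (xt p 0 c)) := by
    intro j C ε hε
    filter_upwards [hlam2 j C ε hε] with m hm' c hc hcC
    obtain ⟨m1, m2⟩ := hm' _ (hL2.1 hc) ((Sl741.xt_norm c).trans hcC)
    have e : xt p 0 (R.vec (l • B + α • A) + h' (θ m) • c) =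
        xt p 0 (R.vec (l • B + α • A)) + h' (θ m) • xt p 0 c := by
      rw [Sl741.xt_add0, Sl741.xt_smul]
    refine ⟨hL'.2 (by rw [e]; exact m1), ?_⟩
    simp only [e]
    exact m2
  obtain ⟨φ, r, hO, ρ2, he, hf, hrow, hrcd⟩ := H _ hpos' h0' _ (hres j0)
  exact ⟨θ, lam2, ρ2, hθ, hlam2, hl, hpos', h0', hres, ⟨_, φ, r, hO⟩, he, hf, hrow, hrcd⟩

end frozen

end Crest.Agent.R116.Kz647
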