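import Crest.Agent.R116.CDef_480

/-!
# R116 (S0155), wave side: LORENTZ ZOOM of the cone, part 1 (helper850): linear maps, phase,
change of variables.

Frequency side `zF C0 θ ζ = (θ ω + η C0, η)`, position side `zA C0 θ X = (θ x', y + C0.x')`
(adjoint), space-time `zX C0 θ (X, s) = (θ (x' + s C0), nrm C0 X s, θ² s)` (725's zoom of LZg1).
`extc g X s = θ² extc (g ∘ zF) (zX (X, s))`.
-/

set_option autoImplicit false

open MeasureTheory FourierTransform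
open scoped ContDiff ENNReal

namespace Crest.Agent.R116.LZ850

open Crest.Agent.R138.Defs (E2 ee)
open Crest.Agent.R138.Wpk685 (th win fat cen caps cap bmp)
open Crest.Agent.R116.CDef480

/-- the zoom on frequencies. -/
noncomputable def zF (C0 : E2) (θ : ℝ) (ζ : E3) : E3 := pt (θ • lat ζ + ζ 2 • C0) (ζ 2)

/-- the zoom on positions (adjoint of `zF`). -/
noncomputable def zA (C0 : E2) (θ : ℝ) (X : E3) : E3 := pt (θ • lat X) (X 2 + inner ℝ C0 (lat X))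

/-- the zoom on space-time. -/
noncomputable def zX (C0 : E2) (θ : ℝ) (p : E3 × ℝ) : E3 × ℝ :=
  (pt (θ • (lat p.1 + p.2 • C0)) (nrm C0 p.1 p.2), θ ^ 2 * p.2)

theorem zF_0 (C0 : E2) (θ : ℝ) (ζ : E3) : zF C0 θ ζ 0 = θ * ζ 0 + ζ 2 * C0 0 := rfl
theorem zF_1 (C0 : E2) (θ : ℝ) (ζ : E3) : zF C0 θ ζ 1 = θ * ζ 1 + ζ 2 * C0 1 := rfl
@[simp] theorem zF_2 (C0 : E2) (θ : ℝ) (ζ : E3) : zF C0 θ ζ 2 = ζ 2 := rfl
theorem lat_zF (C0 : E2) (θ : ℝ) (ζ : E3) : lat (zF C0 θ ζ) = θ • lat ζ + ζ 2 • C0 := by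
  ext i; fin_cases i <;> rfl

theorem zA_0 (C0 : E2) (θ : ℝ) (ζ : E3) : zA C0 θ ζ 0 = θ * ζ 0 := rfl
theorem zA_1 (C0 : E2) (θ : ℝ) (ζ : E3) : zA C0 θ ζ 1 = θ * ζ 1 := rfl
theorem zA_2 (C0 : E2) (θ : ℝ) (ζ : E3) : zA C0 θ ζ 2 = ζ 2 + (C0 0 * ζ 0 + C0 1 * ζ 1) := by
  unfold zA
  rw [pt_two, inner2]
  rfl
theorem lat_zA (C0 : E2) (θ : ℝ) (ζ : E3) : lat (zA C0 θ ζ) = θ • lat ζ := by
  ext i; fin_cases i <;> rfl

theorem ext3 {x y : E3} (h0 : x 0 = y 0) (h1 : x 1 = y 1) (h2 : x 2 = y 2) : x = y := by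
  ext i; fin_cases i <;> assumption

theorem zF_add (C0 : E2) (θ : ℝ) (ζ ξ : E3) : zF C0 θ (ζ + ξ) = zF C0 θ ζ + zF C0 θ ξ := by
  apply ext3 <;> simp only [zF_0, zF_1, zF_2, PiLp.add_apply] <;> ring

theorem zF_smul (C0 : E2) (θ c : ℝ) (ζ : E3) : zF C0 θ (c • ζ) = c • zF C0 θ ζ := by
  apply ext3 <;> simp only [zF_0, zF_1, zF_2, PiLp.smul_apply, smul_eq_mul] <;> ring

theorem zA_add (C0 : E2) (θ : ℝ) (ζ ξ : E3) : zA C0 θ (ζ + ξ) = zA C0 θ ζ + zA C0 θ ξ := by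
  apply ext3 <;> simp only [zA_0, zA_1, zA_2, PiLp.add_apply] <;> ring

theorem zA_smul (C0 : E2) (θ c : ℝ) (ζ : E3) : zA C0 θ (c • ζ) = c • zA C0 θ ζ := by
  apply ext3 <;> simp only [zA_0, zA_1, zA_2, PiLp.smul_apply, smul_eq_mul] <;> ring

/-- composition of zooms. -/
theorem zF_comp (C0 C1 : E2) (θ ϑ : ℝ) (ζ : E3) :
    zF C0 θ (zF C1 ϑ ζ) = zF (C0 + θ • C1) (θ * ϑ) ζ := by
  apply ext3 <;>
    simp only [zF_0, zF_1, zF_2, PiLp.smul_apply, PiLp.add_apply, smul_eq_mul] <;> ring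

theorem zF_one (ζ : E3) : zF 0 1 ζ = ζ := by
  apply ext3 <;> simp only [zF_0, zF_1, zF_2, PiLp.zero_apply] <;> ring

theorem zF_inv (C0 : E2) {θ : ℝ} (hθ : θ ≠ 0) (ζ : E3) :
    zF (-(θ⁻¹ • C0)) θ⁻¹ (zF C0 θ ζ) = ζ := by
  apply ext3 <;>
    simp only [zF_0, zF_1, zF_2, PiLp.smul_apply, PiLp.neg_apply, smul_eq_mul] <;> field_simp <;>
    ring

theorem zF_inv' (C0 : E2) {θ : ℝ} (hθ : θ ≠ 0) (ζ : E3) :
    zF C0 θ (zF (-(θ⁻¹ • C0)) θ⁻¹ ζ) = ζ := by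
  apply ext3 <;>
    simp only [zF_0, zF_1, zF_2, PiLp.smul_apply, PiLp.neg_apply, smul_eq_mul] <;> field_simp <;>
    ring

/-- inverse of `zA`. -/
noncomputable def zAi (C0 : E2) (θ : ℝ) (X : E3) : E3 :=
  pt (θ⁻¹ • lat X) (X 2 - θ⁻¹ * inner ℝ C0 (lat X))

theorem zAi_0 (C0 : E2) (θ : ℝ) (ζ : E3) : zAi C0 θ ζ 0 = θ⁻¹ * ζ 0 := rfl
theorem zAi_1 (C0 : E2) (θ : ℝ) (ζ : E3) : zAi C0 θ ζ 1 = θ⁻¹ * ζ 1 := rfl
theorem zAi_2 (C0 : E2) (θ : ℝ) (ζ : E3) :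
    zAi C0 θ ζ 2 = ζ 2 - θ⁻¹ * (C0 0 * ζ 0 + C0 1 * ζ 1) := by
  unfold zAi
  rw [pt_two, inner2]
  rfl

theorem zA_inv (C0 : E2) {θ : ℝ} (hθ : θ ≠ 0) (X : E3) : zAi C0 θ (zA C0 θ X) = X := by
  apply ext3 <;> simp only [zAi_0, zAi_1, zAi_2, zA_0, zA_1, zA_2] <;> field_simp <;> ring

theorem zA_inv' (C0 : E2) {θ : ℝ} (hθ : θ ≠ 0) (X : E3) : zA C0 θ (zAi C0 θ X) = X := by
  apply ext3 <;> simp only [zAi_0, zAi_1, zAi_2, zA_0, zA_1, zA_2] <;> field_simp <;> ring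

/-- `zF` as a continuous linear equivalence. -/
noncomputable def zFe (C0 : E2) {θ : ℝ} (hθ : θ ≠ 0) : E3 ≃L[ℝ] E3 :=
  LinearEquiv.toContinuousLinearEquiv
    { toFun := zF C0 θ
      map_add' := zF_add C0 θ
      map_smul' := fun c x => zF_smul C0 θ c x
      invFun := zF (-(θ⁻¹ • C0)) θ⁻¹
      left_inv := zF_inv C0 hθ
      right_inv := zF_inv' C0 hθ }

@[simp] theorem zFe_apply (C0 : E2) {θ : ℝ} (hθ : θ ≠ 0) (ζ : E3) : zFe C0 hθ ζ = zF C0 θ ζ := rfl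

/-- `zA` as a continuous linear equivalence. -/
noncomputable def zAe (C0 : E2) {θ : ℝ} (hθ : θ ≠ 0) : E3 ≃L[ℝ] E3 :=
  LinearEquiv.toContinuousLinearEquiv
    { toFun := zA C0 θ
      map_add' := zA_add C0 θ
      map_smul' := fun c x => zA_smul C0 θ c x
      invFun := zAi C0 θ
      left_inv := zA_inv C0 hθ
      right_inv := zA_inv' C0 hθ }

@[simp] theorem zAe_apply (C0 : E2) {θ : ℝ} (hθ : θ ≠ 0) (ζ : E3) : zAe C0 hθ ζ = zA C0 θ ζ := rfl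

/-- adjunction. -/
theorem inner_zA (C0 : E2) (θ : ℝ) (X ζ : E3) :
    inner ℝ (zA C0 θ X) ζ = inner ℝ X (zF C0 θ ζ) := by
  rw [inner3, inner3]
  simp only [zF_0, zF_1, zF_2, zA_0, zA_1, zA_2]
  ring

theorem inner_zF (C0 : E2) (θ : ℝ) (X ζ : E3) :
    inner ℝ (zF C0 θ ζ) X = inner ℝ ζ (zA C0 θ X) := by
  rw [inner3, inner3]
  simp only [zF_0, zF_1, zF_2, zA_0, zA_1, zA_2]
  ring

/-- the phase. -/
theorem hc_zF (C0 : E2) (θ : ℝ) {ζ : E3} (h : ζ 2 ≠ 0) :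
    hc (zF C0 θ ζ) = θ * inner ℝ C0 (lat ζ) + ζ 2 * ‖C0‖ ^ 2 / 2 + θ ^ 2 * hc ζ := by
  unfold hc
  rw [lat_zF, zF_2, normsq2, normsq2, normsq2, inner2]
  simp only [PiLp.add_apply, PiLp.smul_apply, smul_eq_mul]
  field_simp
  ring

theorem slp_zF (C0 : E2) (θ : ℝ) {ζ : E3} (h : ζ 2 ≠ 0) : slp (zF C0 θ ζ) = C0 + θ • slp ζ := by
  unfold slp
  rw [lat_zF, zF_2, smul_add, smul_smul, smul_smul, smul_smul, inv_mul_cancel₀ h, one_smul,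
    add_comm, mul_comm]

theorem zX_fst (C0 : E2) (θ : ℝ) (X : E3) (s : ℝ) :
    (zX C0 θ (X, s)).1 = zA C0 θ X + s • pt (θ • C0) (‖C0‖ ^ 2 / 2) := by
  unfold zX nrm
  apply ext3
  · simp only [pt_zero, PiLp.add_apply, PiLp.smul_apply, smul_eq_mul, zA_0, lat_zero]
    ring
  · simp only [pt_one, PiLp.add_apply, PiLp.smul_apply, smul_eq_mul, zA_1, lat_one]
    ring
  · simp only [pt_two, PiLp.add_apply, PiLp.smul_apply, smul_eq_mul, zA_2, inner2, lat_zero,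
      lat_one]
    ring

theorem zX_snd (C0 : E2) (θ : ℝ) (p : E3 × ℝ) : (zX C0 θ p).2 = θ ^ 2 * p.2 := rfl

/-- the phase function of `extc` under the zoom. -/
theorem phase_zF (C0 : E2) (θ : ℝ) {ζ : E3} (h : ζ 2 ≠ 0) (X : E3) (s : ℝ) :
    inner ℝ X (zF C0 θ ζ) + s * hc (zF C0 θ ζ) =
      inner ℝ (zX C0 θ (X, s)).1 ζ + (zX C0 θ (X, s)).2 * hc ζ := by
  rw [zX_fst, zX_snd, inner_add_left, inner_smul_left, inner_zA, hc_zF C0 θ h, inner_split (pt _ _),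
    lat_pt, pt_two, inner_smul_left]
  simp only [conj_trivial]
  ring

/-! ### change of variables -/

theorem det_zFe (C0 : E2) {θ : ℝ} (hθ : θ ≠ 0) :
    LinearMap.det ((zFe C0 hθ : E3 →L[ℝ] E3) : E3 →ₗ[ℝ] E3) = θ ^ 2 := by
  rw [← LinearMap.det_toMatrix (EuclideanSpace.basisFun (Fin 3) ℝ).toBasis, Matrix.det_fin_three]
  simp only [LinearMap.toMatrix_apply, OrthonormalBasis.coe_toBasis, OrthonormalBasis.coe_toBasis_repr_apply,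
    EuclideanSpace.basisFun_repr, EuclideanSpace.basisFun_apply]
  simp [zF_0, zF_1, zF_2]
  ring

theorem det_zAe (C0 : E2) {θ : ℝ} (hθ : θ ≠ 0) :
    LinearMap.det ((zAe C0 hθ : E3 →L[ℝ] E3) : E3 →ₗ[ℝ] E3) = θ ^ 2 := by
  rw [← LinearMap.det_toMatrix (EuclideanSpace.basisFun (Fin 3) ℝ).toBasis, Matrix.det_fin_three]
  simp only [LinearMap.toMatrix_apply, OrthonormalBasis.coe_toBasis, OrthonormalBasis.coe_toBasis_repr_apply,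
    EuclideanSpace.basisFun_repr, EuclideanSpace.basisFun_apply]
  simp [zA_0, zA_1, zA_2]
  ring

end Crest.Agent.R116.LZ850
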