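import Crest.Agent.R116.LZ1_850

/-!
# R116 (S0155), wave side: LORENTZ ZOOM of the cone, part 2 (helper850): change of variables,
the exact identity `extc g X s = θ² extc (g ∘ zF) (zX (X, s))`, energies, `L^p` norms over sets.
-/

set_option autoImplicit false

open MeasureTheory FourierTransform
open scoped ContDiff ENNReal

namespace Crest.Agent.R116.LZ850

open Crest.Agent.R138.Defs (E2 ee)
open Crest.Agent.R138.Wpk685 (th win fat cen caps cap bmp)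
open Crest.Agent.R116.CDef480

theorem continuous_zF (C0 : E2) {θ : ℝ} (hθ : θ ≠ 0) : Continuous (zF C0 θ) :=
  (zFe C0 hθ).continuous

theorem continuous_zA (C0 : E2) {θ : ℝ} (hθ : θ ≠ 0) : Continuous (zA C0 θ) :=
  (zAe C0 hθ).continuous

theorem map_zF (C0 : E2) {θ : ℝ} (hθ : θ ≠ 0) :
    Measure.map (zF C0 θ) (volume : Measure E3) = ENNReal.ofReal ((θ ^ 2)⁻¹) • volume := by
  have h1 : LinearMap.det ((zFe C0 hθ : E3 →L[ℝ] E3) : E3 →ₗ[ℝ] E3) ≠ 0 := by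
    rw [det_zFe]; positivity
  have h2 := Measure.map_linearMap_addHaar_eq_smul_addHaar (volume : Measure E3) h1
  rw [det_zFe, abs_of_nonneg (by positivity)] at h2
  exact h2

theorem map_zA (C0 : E2) {θ : ℝ} (hθ : θ ≠ 0) :
    Measure.map (zA C0 θ) (volume : Measure E3) = ENNReal.ofReal ((θ ^ 2)⁻¹) • volume := by
  have h1 : LinearMap.det ((zAe C0 hθ : E3 →L[ℝ] E3) : E3 →ₗ[ℝ] E3) ≠ 0 := by
    rw [det_zAe]; positivity
  have h2 := Measure.map_linearMap_addHaar_eq_smul_addHaar (volume : Measure E3) h1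
  rw [det_zAe, abs_of_nonneg (by positivity)] at h2
  exact h2

theorem emb_zF (C0 : E2) {θ : ℝ} (hθ : θ ≠ 0) : MeasurableEmbedding (zF C0 θ) :=
  (zFe C0 hθ).toHomeomorph.measurableEmbedding

theorem emb_zA (C0 : E2) {θ : ℝ} (hθ : θ ≠ 0) : MeasurableEmbedding (zA C0 θ) :=
  (zAe C0 hθ).toHomeomorph.measurableEmbedding

theorem lint_zF (C0 : E2) {θ : ℝ} (hθ : θ ≠ 0) (f : E3 → ℝ≥0∞) :
    ∫⁻ ζ, f (zF C0 θ ζ) = ENNReal.ofReal ((θ ^ 2)⁻¹) * ∫⁻ ζ, f ζ := by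
  rw [← (emb_zF C0 hθ).lintegral_map, map_zF C0 hθ, lintegral_smul_measure, smul_eq_mul]

theorem lint_zA (C0 : E2) {θ : ℝ} (hθ : θ ≠ 0) (f : E3 → ℝ≥0∞) :
    ∫⁻ ζ, f (zA C0 θ ζ) = ENNReal.ofReal ((θ ^ 2)⁻¹) * ∫⁻ ζ, f ζ := by
  rw [← (emb_zA C0 hθ).lintegral_map, map_zA C0 hθ, lintegral_smul_measure, smul_eq_mul]

theorem int_zF {F : Type*} [NormedAddCommGroup F] [NormedSpace ℝ F] (C0 : E2) {θ : ℝ} (hθ : θ ≠ 0)
    (f : E3 → F) : ∫ ζ, f (zF C0 θ ζ) = (θ ^ 2)⁻¹ • ∫ ζ, f ζ := by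
  rw [← (emb_zF C0 hθ).integral_map, map_zF C0 hθ, integral_smul_measure,
    ENNReal.toReal_ofReal (by positivity)]

theorem int_zA {F : Type*} [NormedAddCommGroup F] [NormedSpace ℝ F] (C0 : E2) {θ : ℝ} (hθ : θ ≠ 0)
    (f : E3 → F) : ∫ ζ, f (zA C0 θ ζ) = (θ ^ 2)⁻¹ • ∫ ζ, f ζ := by
  rw [← (emb_zA C0 hθ).integral_map, map_zA C0 hθ, integral_smul_measure,
    ENNReal.toReal_ofReal (by positivity)]

/-- the exceptional plane has measure zero. -/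
theorem plane_null : ∀ᵐ ζ : E3, ζ 2 ≠ 0 := by
  have h1 : (volume : Measure E3) {ζ : E3 | ζ 2 = 0} = 0 := by
    have h2 := Measure.addHaar_submodule (volume : Measure E3)
      (LinearMap.ker ((EuclideanSpace.proj (𝕜 := ℝ) (2 : Fin 3) : E3 →L[ℝ] ℝ) : E3 →ₗ[ℝ] ℝ)) ?_
    · convert h2 using 2
      ext ζ
      simp [LinearMap.mem_ker]
    · intro h
      have h3 : (EuclideanSpace.single (2 : Fin 3) (1 : ℝ) : E3) ∈
          (LinearMap.ker ((EuclideanSpace.proj (𝕜 := ℝ) (2 : Fin 3) : E3 →L[ℝ] ℝ) : E3 →ₗ[ℝ] ℝ)) := by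
        rw [h]; trivial
      rw [LinearMap.mem_ker] at h3
      simp at h3
  rw [ae_iff]
  simpa using h1

/-- **the exact identity.** -/
theorem extc_zoom (C0 : E2) {θ : ℝ} (hθ : θ ≠ 0) (g : E3 → ℂ) (X : E3) (s : ℝ) :
    extc g X s = (θ ^ 2 : ℝ) •
      extc (fun ζ => g (zF C0 θ ζ)) (zX C0 θ (X, s)).1 (zX C0 θ (X, s)).2 := by
  have h1 := int_zF C0 hθ (fun ζ => g ζ * ee (inner ℝ X ζ + s * hc ζ))
  have h2 : ∫ ζ, g (zF C0 θ ζ) * ee (inner ℝ X (zF C0 θ ζ) + s * hc (zF C0 θ ζ)) =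
      ∫ ζ, g (zF C0 θ ζ) *
        ee (inner ℝ (zX C0 θ (X, s)).1 ζ + (zX C0 θ (X, s)).2 * hc ζ) := by
    refine integral_congr_ae (plane_null.mono fun ζ hζ => ?_)
    simp only []
    rw [phase_zF C0 θ hζ]
  rw [h2] at h1
  unfold extc
  rw [h1, smul_smul, mul_inv_cancel₀ (by positivity), one_smul]

theorem enorm_extc_zoom (C0 : E2) {θ : ℝ} (hθ : θ ≠ 0) (g : E3 → ℂ) (p : E3 × ℝ) :
    ‖extc g p.1 p.2‖ₑ = ENNReal.ofReal (θ ^ 2) *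
      ‖extc (fun ζ => g (zF C0 θ ζ)) (zX C0 θ p).1 (zX C0 θ p).2‖ₑ := by
  rw [extc_zoom C0 hθ g p.1 p.2, enorm_smul]
  congr 1
  rw [Real.enorm_eq_ofReal (by positivity)]

/-! ### space-time -/

theorem continuous_zX (C0 : E2) (θ : ℝ) : Continuous (zX C0 θ) := by
  by_cases hθ : θ = 0
  · subst hθ
    have e : zX C0 0 = fun p : E3 × ℝ => (pt 0 (nrm C0 p.1 p.2), 0) := by
      ext p
      · unfold zX; simp
      · unfold zX; simp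
    rw [e]
    have h1 : Continuous fun p : E3 × ℝ => nrm C0 p.1 p.2 := by
      unfold nrm
      have : Continuous lat := latL.continuous
      fun_prop
    have h2 : Continuous fun y : ℝ => pt 0 y := by
      have : (fun y : ℝ => pt 0 y) = fun y : ℝ => y • pt 0 1 := by
        ext y i; fin_cases i <;> simp [pt]
      rw [this]
      fun_prop
    exact (h2.comp h1).prodMk continuous_const
  · have e : zX C0 θ = fun p : E3 × ℝ =>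
        (zA C0 θ p.1 + p.2 • pt (θ • C0) (‖C0‖ ^ 2 / 2), θ ^ 2 * p.2) := by
      ext1 p
      exact Prod.ext (zX_fst C0 θ p.1 p.2) rfl
    rw [e]
    have := continuous_zA C0 hθ
    fun_prop

theorem lint_zX (C0 : E2) {θ : ℝ} (hθ : 0 < θ) {f : E3 × ℝ → ℝ≥0∞} (hf : Measurable f) :
    ∫⁻ p, f (zX C0 θ p) = ENNReal.ofReal ((θ ^ 4)⁻¹) * ∫⁻ p, f p := by
  have hm : Measurable fun p => f (zX C0 θ p) := hf.comp (continuous_zX C0 θ).measurable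
  have e1 : ∀ s : ℝ, ∫⁻ X, f (zX C0 θ (X, s)) =
      ENNReal.ofReal ((θ ^ 2)⁻¹) * ∫⁻ X, f (X, θ ^ 2 * s) := by
    intro s
    have e2 : ∀ X : E3, f (zX C0 θ (X, s)) =
        (fun Y : E3 => f (Y + s • pt (θ • C0) (‖C0‖ ^ 2 / 2), θ ^ 2 * s)) (zA C0 θ X) := by
      intro X
      simp only []
      rw [← zX_fst]
      rfl
    rw [lintegral_congr e2,
      lint_zA C0 hθ.ne' (fun Y : E3 => f (Y + s • pt (θ • C0) (‖C0‖ ^ 2 / 2), θ ^ 2 * s)),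
      lintegral_add_right_eq_self (fun Y : E3 => f (Y, θ ^ 2 * s))]
  have e3 : ∫⁻ s : ℝ, ∫⁻ X, f (X, θ ^ 2 * s) =
      ENNReal.ofReal ((θ ^ 2)⁻¹) * ∫⁻ s : ℝ, ∫⁻ X, f (X, s) := by
    have hm2 : Measurable fun s : ℝ => ∫⁻ X : E3, f (X, s) := hf.lintegral_prod_left'
    have h2 := Measure.map_addHaar_smul (volume : Measure ℝ) (pow_ne_zero 2 hθ.ne')
    have h3 : ∫⁻ s : ℝ, (fun s : ℝ => ∫⁻ X : E3, f (X, s)) ((θ ^ 2) • s) =
        ∫⁻ s, (fun s : ℝ => ∫⁻ X : E3, f (X, s)) s ∂(Measure.map (fun s : ℝ => (θ ^ 2) • s) volume) :=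
      (lintegral_map hm2 (measurable_const_smul _)).symm
    simp only [smul_eq_mul] at h3 h2
    rw [h3, h2, lintegral_smul_measure, Module.finrank_self, pow_one, smul_eq_mul,
      abs_of_nonneg (by positivity)]
  rw [Measure.volume_eq_prod, lintegral_prod_symm _ hm.aemeasurable,
    lintegral_prod_symm _ hf.aemeasurable]
  simp_rw [e1]
  rw [lintegral_const_mul' _ _ ENNReal.ofReal_ne_top, e3, ← mul_assoc,
    ← ENNReal.ofReal_mul (by positivity)]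
  congr 2
  rw [← mul_inv, ← pow_add]

theorem lint_zX_set (C0 : E2) {θ : ℝ} (hθ : 0 < θ) {f : E3 × ℝ → ℝ≥0∞} (hf : Measurable f)
    {S : Set (E3 × ℝ)} (hS : MeasurableSet S) :
    ∫⁻ p in (zX C0 θ) ⁻¹' S, f (zX C0 θ p) = ENNReal.ofReal ((θ ^ 4)⁻¹) * ∫⁻ p in S, f p := by
  rw [← lintegral_indicator ((continuous_zX C0 θ).measurable hS), ← lintegral_indicator hS,
    ← lint_zX C0 hθ (hf.indicator hS)]
  rfl

/-- **`L^p` norms over sets.** -/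
theorem lint_extc_zoom (C0 : E2) {θ : ℝ} (hθ : 0 < θ) {g : E3 → ℂ}
    (hc : Measurable fun p : E3 × ℝ => extc (fun ζ => g (zF C0 θ ζ)) p.1 p.2)
    {S : Set (E3 × ℝ)} (hS : MeasurableSet S) {r : ℝ} (hr : 0 ≤ r) :
    ∫⁻ p in (zX C0 θ) ⁻¹' S, ‖extc g p.1 p.2‖ₑ ^ r = ENNReal.ofReal (θ ^ (2 * r - 4)) *
      ∫⁻ p in S, ‖extc (fun ζ => g (zF C0 θ ζ)) p.1 p.2‖ₑ ^ r := by
  have e1 : ∀ p : E3 × ℝ, ‖extc g p.1 p.2‖ₑ ^ r = ENNReal.ofReal (θ ^ (2 * r)) *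
      (fun p : E3 × ℝ => ‖extc (fun ζ => g (zF C0 θ ζ)) p.1 p.2‖ₑ ^ r) (zX C0 θ p) := by
    intro p
    rw [enorm_extc_zoom C0 hθ.ne' g p, ENNReal.mul_rpow_of_nonneg _ _ hr,
      ENNReal.ofReal_rpow_of_nonneg (by positivity) hr, Real.rpow_mul hθ.le, Real.rpow_two]
  simp_rw [e1]
  rw [lintegral_const_mul' _ _ ENNReal.ofReal_ne_top, lint_zX_set C0 hθ (hc.enorm.pow_const _) hS,
    ← mul_assoc, ← ENNReal.ofReal_mul (by positivity)]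
  congr 2
  rw [Real.rpow_sub hθ, div_eq_mul_inv]
  norm_cast

/-! ### energies and classes -/

theorem Enc_zoom (C0 : E2) {θ : ℝ} (hθ : θ ≠ 0) (g : E3 → ℂ) :
    Enc (fun ζ => g (zF C0 θ ζ)) = (θ ^ 2)⁻¹ * Enc g := by
  unfold Enc
  exact int_zF C0 hθ (fun ζ => ‖g ζ‖ ^ 2)

theorem int_zoom (C0 : E2) {θ : ℝ} (hθ : θ ≠ 0) {g : E3 → ℂ} (hg : Integrable g) :
    Integrable (fun ζ => g (zF C0 θ ζ)) := by
  have h1 := (emb_zF C0 hθ).integrable_map_iff (μ := (volume : Measure E3)) (g := g)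
  rw [map_zF C0 hθ] at h1
  exact h1.1 (hg.smul_measure ENNReal.ofReal_ne_top)

theorem memLp_zoom (C0 : E2) {θ : ℝ} (hθ : θ ≠ 0) {g : E3 → ℂ} {q : ℝ≥0∞} (hg : MemLp g q) :
    MemLp (fun ζ => g (zF C0 θ ζ)) q := by
  have h1 : MemLp g q (Measure.map (zF C0 θ) (volume : Measure E3)) := by
    rw [map_zF C0 hθ]
    exact hg.smul_measure ENNReal.ofReal_ne_top
  exact (emb_zF C0 hθ).memLp_map_measure_iff.1 h1

theorem meas_zoom (C0 : E2) {θ : ℝ} (hθ : θ ≠ 0) {g : E3 → ℂ} (hg : Measurable g) :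
    Measurable (fun ζ => g (zF C0 θ ζ)) := hg.comp (continuous_zF C0 hθ).measurable

theorem Slc_zoom (C0 : E2) (θ : ℝ) {η0 κ : ℝ} {g : E3 → ℂ} (hg : Slc η0 κ g) :
    Slc η0 κ (fun ζ => g (zF C0 θ ζ)) := fun ζ hζ => by
  simpa using hg (zF C0 θ ζ) hζ

/-- slopes in the ball of centre `C0`, radius `θ σ` become slopes at most `σ`. -/
theorem Slp_zoom (C0 : E2) {θ : ℝ} (hθ : 0 < θ) {σ : ℝ} {g : E3 → ℂ}
    (hg0 : ∀ ζ, g ζ ≠ 0 → ζ 2 ≠ 0) (hg : ∀ ζ, g ζ ≠ 0 → ‖slp ζ - C0‖ ≤ θ * σ) :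
    Slp σ (fun ζ => g (zF C0 θ ζ)) := by
  intro ζ hζ
  have h0 : ζ 2 ≠ 0 := by simpa using hg0 _ hζ
  have h1 := hg _ hζ
  rw [slp_zF C0 θ h0, add_sub_cancel_left, norm_smul, Real.norm_of_nonneg hθ.le] at h1
  exact le_of_mul_le_mul_left h1 hθ

/-- windows in slope space. -/
theorem cap_zoom (φ : E2 → ℂ) (c C0 : E2) {θ ρ : ℝ} (hθ : θ ≠ 0) {ζ : E3} (h : ζ 2 ≠ 0) :
    cap φ c ρ (slp (zF C0 θ ζ)) = cap φ (θ⁻¹ • (c - C0)) (ρ / θ) (slp ζ) := by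
  unfold cap
  rw [slp_zF C0 θ h]
  congr 1
  have : C0 + θ • slp ζ - c = θ • (slp ζ - θ⁻¹ • (c - C0)) := by
    rw [smul_sub, smul_smul, mul_inv_cancel₀ hθ, one_smul]
    abel
  rw [this, smul_smul]
  congr 1
  field_simp

/-- translations. -/
theorem trc_zoom (C0 : E2) (θ : ℝ) (z : E3 × ℝ) (g : E3 → ℂ) {ζ : E3} (h : ζ 2 ≠ 0) :
    trc z g (zF C0 θ ζ) = trc (zX C0 θ z) (fun ζ => g (zF C0 θ ζ)) ζ := by
  unfold trc
  rw [phase_zF C0 θ h z.1 z.2]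

/-- time zero: inverse Fourier transforms. -/
theorem fourierInv_zoom (C0 : E2) {θ : ℝ} (hθ : θ ≠ 0) (f : E3 → ℂ) (X : E3) :
    𝓕⁻ f X = (θ ^ 2 : ℝ) • 𝓕⁻ (fun ζ => f (zF C0 θ ζ)) (zA C0 θ X) := by
  rw [Real.fourierInv_eq', Real.fourierInv_eq']
  have h1 := int_zF C0 hθ (fun ζ => Complex.exp (((2 * Real.pi * inner ℝ ζ X : ℝ) : ℂ) * Complex.I) •
    f ζ)
  have h2 : ∫ v, Complex.exp (((2 * Real.pi * inner ℝ v (zA C0 θ X) : ℝ) : ℂ) * Complex.I) •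
      f (zF C0 θ v) = ∫ ζ, Complex.exp (((2 * Real.pi * inner ℝ (zF C0 θ ζ) X : ℝ) : ℂ) * Complex.I) •
      f (zF C0 θ ζ) := by
    congr 1
    ext ζ
    rw [inner_zF]
  rw [h2, h1, smul_smul, mul_inv_cancel₀ (by positivity), one_smul]

/-- energy of one packet family at time zero. -/
theorem lint_fourierInv_zoom (C0 : E2) {θ : ℝ} (hθ : θ ≠ 0) (f : E3 → ℂ) {S : Set E3}
    (hS : MeasurableSet S) :
    ∫⁻ x in (zA C0 θ) ⁻¹' S, ‖𝓕⁻ f x‖ₑ ^ 2 =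
      ENNReal.ofReal (θ ^ 2) * ∫⁻ x in S, ‖𝓕⁻ (fun ζ => f (zF C0 θ ζ)) x‖ₑ ^ 2 := by
  have e1 : ∀ x, ‖𝓕⁻ f x‖ₑ ^ 2 = ENNReal.ofReal (θ ^ 4) *
      (fun x => ‖𝓕⁻ (fun ζ => f (zF C0 θ ζ)) x‖ₑ ^ 2) (zA C0 θ x) := by
    intro x
    rw [fourierInv_zoom C0 hθ f x, enorm_smul, mul_pow, Real.enorm_eq_ofReal (by positivity),
      ← ENNReal.ofReal_pow (by positivity), ← pow_mul]
  simp_rw [e1]
  rw [lintegral_const_mul' _ _ ENNReal.ofReal_ne_top,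
    ← lintegral_indicator ((continuous_zA C0 hθ).measurable hS)]
  have e2 : ∫⁻ x, (zA C0 θ ⁻¹' S).indicator (fun x =>
      ‖𝓕⁻ (fun ζ => f (zF C0 θ ζ)) (zA C0 θ x)‖ₑ ^ 2) x =
      ∫⁻ x, (S.indicator fun x => ‖𝓕⁻ (fun ζ => f (zF C0 θ ζ)) x‖ₑ ^ 2) (zA C0 θ x) := rfl
  rw [e2, lint_zA C0 hθ, ← mul_assoc, ← ENNReal.ofReal_mul (by positivity),
    lintegral_indicator hS]
  congr 2
  field_simp

end Crest.Agent.R116.LZ850
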