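import Mathlib.Analysis.InnerProductSpace.PiL2
import Mathlib.Tactic

/-!
# R116, (Z4): geometry of the Lorentz zoom (helper725)

Coordinates `(x, y, s)`, `x : E` (lateral, `E = ℝ²` for `R^{3+1}`, `E = ℝ` for `R^{2+1}`), `y : ℝ`
(null direction), `s` time.  Light ray `(C; a, c)`: `x = a - s C`, `y = c + s |C|²/2`.
`nrm C x y s = y + ⟨C, x⟩ + s |C|²/2` is constant along the rays of direction `C`.
`W = span(1, s, x, y, |x|² - 2 s y)` = `Cf E` (conformal functions), affine along every light ray,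
stable under zooms, translations, null rotations (zoom with `th = 1`) and rotations.
Light boxes `lbox c b sd R p0` (`sd i` = sides of the aperture, thickness `T R`) go exactly to light
boxes with sides `sd i / th`, length `th² R`.
-/

set_option autoImplicit false

namespace Crest.Agent.R116.LZg725

variable {E : Type*} [NormedAddCommGroup E] [InnerProductSpace ℝ E]

/-- the null normal of direction `C`. -/
noncomputable def nrm (C x : E) (y s : ℝ) : ℝ := y + inner ℝ C x + s * ‖C‖ ^ 2 / 2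

/-- lateral position of the ray `(C; a, c)` at time `s`. -/
noncomputable def rx (C a : E) (s : ℝ) : E := a - s • C

/-- null position of the ray `(C; a, c)` at time `s`. -/
noncomputable def ry (C : E) (c s : ℝ) : ℝ := c + s * ‖C‖ ^ 2 / 2

/-- zoom: lateral coordinate. -/
noncomputable def zx (C0 : E) (th : ℝ) (x : E) (s : ℝ) : E := th • (x + s • C0)

/-- zoom: null coordinate. -/
noncomputable def zy (C0 x : E) (y s : ℝ) : ℝ := y + inner ℝ C0 x + s * ‖C0‖ ^ 2 / 2

/-- zoom: directions. -/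
noncomputable def zC (C0 : E) (th : ℝ) (C : E) : E := th⁻¹ • (C - C0)

theorem zy_eq (C0 x : E) (y s : ℝ) : zy C0 x y s = nrm C0 x y s := rfl

/-- the normal is constant along the rays of its direction. -/
theorem nrm_ray (C a : E) (c s : ℝ) : nrm C (rx C a s) (ry C c s) s = c + inner ℝ C a := by
  unfold nrm rx ry
  rw [inner_sub_right, real_inner_smul_right, real_inner_self_eq_norm_sq]
  ring

/-- the normal of direction `C` along a ray of direction `C'`. -/
theorem nrm_ray' (C C' a : E) (c s : ℝ) :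
    nrm C (rx C' a s) (ry C' c s) s = c + inner ℝ C a + s * ‖C' - C‖ ^ 2 / 2 := by
  unfold nrm rx ry
  rw [inner_sub_right, real_inner_smul_right, norm_sub_sq_real, real_inner_comm C' C]
  ring

/-- difference of two normals at the same point. -/
theorem nrm_sub (C C' x : E) (y s : ℝ) :
    nrm C' x y s - nrm C x y s = inner ℝ (C' - C) (x + s • C) + s * ‖C' - C‖ ^ 2 / 2 := by
  unfold nrm
  rw [inner_add_right, real_inner_smul_right, inner_sub_left, inner_sub_left,
    real_inner_self_eq_norm_sq, norm_sub_sq_real]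
  ring

/-- rays go to rays: lateral coordinate. -/
theorem zx_ray (C0 : E) {th : ℝ} (hth : th ≠ 0) (C a : E) (s : ℝ) :
    zx C0 th (rx C a s) s = rx (zC C0 th C) (th • a) (th ^ 2 * s) := by
  unfold zx rx zC
  rw [smul_smul, show th ^ 2 * s * th⁻¹ = th * s by field_simp]
  module

/-- rays go to rays: null coordinate. -/
theorem zy_ray (C0 : E) {th : ℝ} (hth : th ≠ 0) (C a : E) (c s : ℝ) :
    zy C0 (rx C a s) (ry C c s) s = ry (zC C0 th C) (c + inner ℝ C0 a) (th ^ 2 * s) := by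
  rw [zy_eq, nrm_ray']
  unfold ry zC
  rw [norm_smul, mul_pow, Real.norm_eq_abs, sq_abs]
  field_simp

/-- the normals are invariant. -/
theorem nrm_zoom (C0 : E) {th : ℝ} (hth : th ≠ 0) (C x : E) (y s : ℝ) :
    nrm (zC C0 th C) (zx C0 th x s) (zy C0 x y s) (th ^ 2 * s) = nrm C x y s := by
  have h1 := nrm_sub C0 C x y s
  rw [← zy_eq C0 x y s] at h1
  have h2 : nrm (zC C0 th C) (zx C0 th x s) (zy C0 x y s) (th ^ 2 * s) =
      zy C0 x y s + inner ℝ (C - C0) (x + s • C0) + s * ‖C - C0‖ ^ 2 / 2 := by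
    unfold nrm zC zx
    rw [real_inner_smul_left, real_inner_smul_right, norm_smul, mul_pow, Real.norm_eq_abs, sq_abs]
    field_simp
  rw [h2]
  linarith

/-- the quadratic form is multiplied by `th²`. -/
theorem quad_zoom (C0 : E) (th : ℝ) (x : E) (y s : ℝ) :
    ‖zx C0 th x s‖ ^ 2 - 2 * (th ^ 2 * s) * zy C0 x y s = th ^ 2 * (‖x‖ ^ 2 - 2 * s * y) := by
  unfold zx zy
  rw [norm_smul, mul_pow, Real.norm_eq_abs, sq_abs, norm_add_sq_real, real_inner_smul_right,
    norm_smul, mul_pow, Real.norm_eq_abs, sq_abs, real_inner_comm C0 x]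
  ring

/-- displacement form: `|w|² - 2 Δs ΔN` with `w = Δx + Δs c`, `ΔN` = increment of `nrm c`. -/
theorem quad_frame (c x x0 : E) (y y0 s s0 : ℝ) :
    ‖(x - x0) + (s - s0) • c‖ ^ 2 - 2 * (s - s0) * (nrm c x y s - nrm c x0 y0 s0) =
      ‖x - x0‖ ^ 2 - 2 * (s - s0) * (y - y0) := by
  unfold nrm
  rw [norm_add_sq_real, real_inner_smul_right, norm_smul, mul_pow, Real.norm_eq_abs, sq_abs]
  have : inner ℝ c x - inner ℝ c x0 = inner ℝ (x - x0) c := by
    rw [← inner_sub_right, real_inner_comm]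
  have h : inner ℝ c x = inner ℝ c x0 + inner ℝ (x - x0) c := by linarith
  rw [h]
  ring

/-! ### inverse and composition of the zooms -/

/-- the inverse zoom in the lateral coordinate. -/
theorem zx_inv (C0 : E) {th : ℝ} (hth : th ≠ 0) (x : E) (s : ℝ) :
    zx (-(th⁻¹ • C0)) th⁻¹ (zx C0 th x s) (th ^ 2 * s) = x := by
  unfold zx
  rw [smul_add, smul_smul, inv_mul_cancel₀ hth, one_smul, smul_neg, smul_neg, smul_smul, smul_smul,
    show th⁻¹ * (th ^ 2 * s) * th⁻¹ = s by field_simp]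
  abel

theorem zy_inv (C0 : E) {th : ℝ} (hth : th ≠ 0) (x : E) (y s : ℝ) :
    zy (-(th⁻¹ • C0)) (zx C0 th x s) (zy C0 x y s) (th ^ 2 * s) = y := by
  unfold zx zy
  rw [inner_neg_left, real_inner_smul_left, real_inner_smul_right, inner_add_right,
    real_inner_smul_right, real_inner_self_eq_norm_sq, norm_neg, norm_smul, mul_pow,
    Real.norm_eq_abs, sq_abs]
  field_simp
  ring

/-- two successive zooms. -/
theorem zx_comp (C0 C1 : E) (t0 t1 : ℝ) (x : E) (s : ℝ) :
    zx C1 t1 (zx C0 t0 x s) (t0 ^ 2 * s) = zx (C0 + t0 • C1) (t1 * t0) x s := by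
  unfold zx
  module

theorem zy_comp (C0 C1 : E) (t0 : ℝ) (x : E) (y s : ℝ) :
    zy C1 (zx C0 t0 x s) (zy C0 x y s) (t0 ^ 2 * s) = zy (C0 + t0 • C1) x y s := by
  unfold zx zy
  rw [inner_add_left, real_inner_smul_left, real_inner_smul_right, inner_add_right,
    real_inner_smul_right, norm_add_sq_real, norm_smul, mul_pow, Real.norm_eq_abs, sq_abs,
    real_inner_smul_right, real_inner_comm C1 C0]
  ring

theorem zC_comp (C0 C1 : E) {t0 t1 : ℝ} (h0 : t0 ≠ 0) (h1 : t1 ≠ 0) (C : E) :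
    zC C1 t1 (zC C0 t0 C) = zC (C0 + t0 • C1) (t1 * t0) C := by
  unfold zC
  rw [mul_inv, ← smul_smul t1⁻¹ t0⁻¹, sub_add_eq_sub_sub, smul_sub t0⁻¹ (C - C0),
    smul_smul t0⁻¹ t0, inv_mul_cancel₀ h0, one_smul]

/-! ### conformal functions -/

/-- a conformal function: `a0 + a1 s + ⟨be, x⟩ + g y + d (|x|² - 2 s y)`. -/
@[ext] structure Cf (E : Type*) where
  a0 : ℝ
  a1 : ℝ
  be : E
  g : ℝ
  d : ℝ

namespace Cf

/-- value of a conformal function. -/
noncomputable def ev (p : Cf E) (x : E) (y s : ℝ) : ℝ :=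
  p.a0 + p.a1 * s + inner ℝ p.be x + p.g * y + p.d * (‖x‖ ^ 2 - 2 * s * y)

/-- value at time `0` of the ray. -/
noncomputable def rA (p : Cf E) (a : E) (c : ℝ) : ℝ :=
  p.a0 + inner ℝ p.be a + p.g * c + p.d * ‖a‖ ^ 2

/-- slope along the ray. -/
noncomputable def rB (p : Cf E) (C a : E) (c : ℝ) : ℝ :=
  p.a1 - inner ℝ p.be C + p.g * ‖C‖ ^ 2 / 2 - 2 * p.d * (inner ℝ C a + c)

/-- **conformal functions are affine along every light ray**. -/
theorem ev_ray (p : Cf E) (C a : E) (c s : ℝ) :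
    p.ev (rx C a s) (ry C c s) s = p.rA a c + s * p.rB C a c := by
  unfold ev rx ry rA rB
  rw [inner_sub_right, real_inner_smul_right, norm_sub_sq_real, real_inner_smul_right, norm_smul,
    mul_pow, Real.norm_eq_abs, sq_abs, real_inner_comm C a]
  ring

/-- pull-back under the zoom `(C0, th)`. -/
noncomputable def pull (C0 : E) (th : ℝ) (p : Cf E) : Cf E where
  a0 := p.a0
  a1 := th ^ 2 * p.a1 + th * inner ℝ p.be C0 + p.g * ‖C0‖ ^ 2 / 2
  be := th • p.be + p.g • C0
  g := p.g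
  d := th ^ 2 * p.d

theorem ev_pull (C0 : E) (th : ℝ) (p : Cf E) (x : E) (y s : ℝ) :
    (pull C0 th p).ev x y s = p.ev (zx C0 th x s) (zy C0 x y s) (th ^ 2 * s) := by
  unfold ev
  rw [quad_zoom]
  unfold pull zx zy
  simp only []
  rw [inner_add_left, real_inner_smul_left, real_inner_smul_left, real_inner_smul_right,
    inner_add_right, real_inner_smul_right]
  ring

/-- push-forward under the zoom `(C0, th)`: the inverse of the pull-back. -/
noncomputable def push (C0 : E) (th : ℝ) (p : Cf E) : Cf E := pull (-(th⁻¹ • C0)) th⁻¹ p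

theorem ev_push (C0 : E) {th : ℝ} (hth : th ≠ 0) (p : Cf E) (x : E) (y s : ℝ) :
    (push C0 th p).ev (zx C0 th x s) (zy C0 x y s) (th ^ 2 * s) = p.ev x y s := by
  unfold push
  rw [ev_pull, zx_inv C0 hth, zy_inv C0 hth]
  congr 1
  field_simp

/-- translation. -/
noncomputable def tr (x0 : E) (y0 s0 : ℝ) (p : Cf E) : Cf E where
  a0 := p.a0 + p.a1 * s0 + inner ℝ p.be x0 + p.g * y0 + p.d * (‖x0‖ ^ 2 - 2 * s0 * y0)
  a1 := p.a1 - 2 * p.d * y0
  be := p.be + (2 * p.d) • x0
  g := p.g - 2 * p.d * s0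
  d := p.d

theorem ev_tr (x0 : E) (y0 s0 : ℝ) (p : Cf E) (x : E) (y s : ℝ) :
    (tr x0 y0 s0 p).ev x y s = p.ev (x + x0) (y + y0) (s + s0) := by
  unfold ev tr
  simp only []
  rw [inner_add_left, real_inner_smul_left, inner_add_right, norm_add_sq_real,
    real_inner_comm x x0]
  ring

/-- rotation of the lateral coordinate. -/
noncomputable def rot (U : E ≃ₗᵢ[ℝ] E) (p : Cf E) : Cf E := { p with be := U.symm p.be }

theorem ev_rot (U : E ≃ₗᵢ[ℝ] E) (p : Cf E) (x : E) (y s : ℝ) :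
    (rot U p).ev x y s = p.ev (U x) y s := by
  unfold ev rot
  simp only []
  rw [U.norm_map]
  congr 3
  rw [← U.inner_map_map, U.apply_symm_apply]

/-- multiples. -/
noncomputable def smul (r : ℝ) (p : Cf E) : Cf E := ⟨r * p.a0, r * p.a1, r • p.be, r * p.g, r * p.d⟩

theorem ev_smul (r : ℝ) (p : Cf E) (x : E) (y s : ℝ) : (smul r p).ev x y s = r * p.ev x y s := by
  unfold ev smul
  simp only []
  rw [real_inner_smul_left]
  ring

/-- sums. -/
noncomputable def add (p q : Cf E) : Cf E :=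
  ⟨p.a0 + q.a0, p.a1 + q.a1, p.be + q.be, p.g + q.g, p.d + q.d⟩

theorem ev_add (p q : Cf E) (x : E) (y s : ℝ) :
    (add p q).ev x y s = p.ev x y s + q.ev x y s := by
  unfold ev add
  simp only []
  rw [inner_add_left]
  ring

/-- **frame coordinates**: around `(x0, y0, s0)` and in the frame of direction `c` every conformal
function is `A0 + A1 Δs + ⟨B, w⟩ + G ΔN + d (|w|² - 2 Δs ΔN)`, `w = Δx + Δs c`. -/
noncomputable def fr (c x0 : E) (y0 s0 : ℝ) (p : Cf E) : Cf E :=
  pull (-c) 1 (tr x0 y0 s0 p)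

theorem ev_fr (c x0 : E) (y0 s0 : ℝ) (p : Cf E) (x : E) (y s : ℝ) :
    (fr c x0 y0 s0 p).ev ((x - x0) + (s - s0) • c) (nrm c x y s - nrm c x0 y0 s0) (s - s0) =
      p.ev x y s := by
  unfold fr
  rw [ev_pull, ev_tr]
  have e1 : zx (-c) 1 ((x - x0) + (s - s0) • c) (s - s0) + x0 = x := by
    unfold zx; module
  have e2 : zy (-c) ((x - x0) + (s - s0) • c) (nrm c x y s - nrm c x0 y0 s0) (s - s0) + y0 = y := by
    unfold zy nrm
    rw [inner_neg_left, inner_add_right, inner_sub_right, real_inner_smul_right,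
      real_inner_self_eq_norm_sq, norm_neg]
    ring
  rw [e1, e2]
  congr 1
  ring

theorem fr_d (c x0 : E) (y0 s0 : ℝ) (p : Cf E) : (fr c x0 y0 s0 p).d = p.d := by
  unfold fr pull tr
  simp

theorem fr_a0 (c x0 : E) (y0 s0 : ℝ) (p : Cf E) : (fr c x0 y0 s0 p).a0 = p.ev x0 y0 s0 := by
  unfold fr pull tr ev
  simp

end Cf

/-! ### light boxes -/

section boxes

variable {ι : Type*} [Fintype ι]

/-- light box: aperture centre `c`, frame `b`, sides `sd i * R`, thickness `T * R`, length `R`,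
centre `(x0, y0, s0)`.  (`T = (max sd)²` for `K_{s1,s2}(R)`.) -/
def InLB (c : E) (b : OrthonormalBasis ι ℝ E) (sd : ι → ℝ) (T R : ℝ) (x0 : E) (y0 s0 : ℝ)
    (x : E) (y s : ℝ) : Prop :=
  |s - s0| ≤ R ∧ (∀ i, |inner ℝ (b i) ((x - x0) + (s - s0) • c)| ≤ sd i * R) ∧
    |nrm c x y s - nrm c x0 y0 s0| ≤ T * R

/-- **light boxes go to light boxes**. -/
theorem inLB_zoom (C0 : E) {th : ℝ} (hth : 0 < th) (c : E) (b : OrthonormalBasis ι ℝ E)
    (sd : ι → ℝ) (T R : ℝ) (x0 : E) (y0 s0 : ℝ) (x : E) (y s : ℝ) :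
    InLB (zC C0 th c) b (fun i => sd i / th) (T / th ^ 2) (th ^ 2 * R) (zx C0 th x0 s0)
      (zy C0 x0 y0 s0) (th ^ 2 * s0) (zx C0 th x s) (zy C0 x y s) (th ^ 2 * s) ↔
      InLB c b sd T R x0 y0 s0 x y s := by
  have hne := hth.ne'
  unfold InLB
  rw [nrm_zoom C0 hne, nrm_zoom C0 hne]
  have e0 : |th ^ 2 * s - th ^ 2 * s0| = th ^ 2 * |s - s0| := by
    rw [← mul_sub, abs_mul, abs_of_pos (pow_pos hth 2)]
  have e1 : zx C0 th x s - zx C0 th x0 s0 + (th ^ 2 * s - th ^ 2 * s0) • zC C0 th c =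
      th • ((x - x0) + (s - s0) • c) := by
    unfold zx zC
    rw [smul_smul, show (th ^ 2 * s - th ^ 2 * s0) * th⁻¹ = th * (s - s0) by field_simp]
    module
  have e2 : T / th ^ 2 * (th ^ 2 * R) = T * R := by field_simp
  have e3 : ∀ i, |inner ℝ (b i) (th • ((x - x0) + (s - s0) • c))| =
      th * |inner ℝ (b i) ((x - x0) + (s - s0) • c)| := by
    intro i
    rw [real_inner_smul_right, abs_mul, abs_of_pos hth]
  have e4 : ∀ i, sd i / th * (th ^ 2 * R) = th * (sd i * R) := by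
    intro i; field_simp
  rw [e0, e1, e2]
  simp_rw [e3, e4]
  rw [mul_le_mul_iff_right₀ (pow_pos hth 2)]
  simp_rw [mul_le_mul_iff_right₀ hth]

/-- the rays of the aperture through the centre part stay in the box. -/
theorem inLB_ray {c : E} {b : OrthonormalBasis ι ℝ E} {sd : ι → ℝ} {T R : ℝ} {x0 : E} {y0 s0 : ℝ}
    {C a : E} {c' : ℝ} {s1 : ℝ} (h1 : InLB c b sd T R x0 y0 s0 (rx C a s1) (ry C c' s1) s1)
    (hC : ∀ i, |inner ℝ (b i) (C - c)| ≤ sd i) (hC2 : ‖C - c‖ ^ 2 ≤ 2 * T) {s : ℝ}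
    (hs : |s - s0| ≤ R) :
    InLB c b (fun i => 3 * sd i) (3 * T) R x0 y0 s0 (rx C a s) (ry C c' s) s := by
  obtain ⟨h2, h3, h4⟩ := h1
  have hss : |s - s1| ≤ 2 * R := by
    have e : s - s1 = (s - s0) - (s1 - s0) := by ring
    rw [e]
    refine (abs_sub _ _).trans ?_
    linarith
  refine ⟨hs, fun i => ?_, ?_⟩
  · have e : rx C a s - x0 + (s - s0) • c =
        (rx C a s1 - x0 + (s1 - s0) • c) - (s - s1) • (C - c) := by
      unfold rx; module
    rw [e, inner_sub_right, real_inner_smul_right]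
    refine (abs_sub _ _).trans ?_
    rw [abs_mul]
    have h5 := h3 i
    have h6 := mul_le_mul hss (hC i) (abs_nonneg _) ((abs_nonneg _).trans hss)
    linarith
  · have e1 := nrm_ray' c C a c' s
    have e2 := nrm_ray' c C a c' s1
    have e : nrm c (rx C a s) (ry C c' s) s - nrm c x0 y0 s0 =
        (nrm c (rx C a s1) (ry C c' s1) s1 - nrm c x0 y0 s0) + (s - s1) * (‖C - c‖ ^ 2 / 2) := by
      rw [e1, e2]; ring
    rw [e]
    refine (abs_add_le _ _).trans ?_
    rw [abs_mul, abs_of_nonneg (a := ‖C - c‖ ^ 2 / 2) (by positivity)]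
    have h6 : |s - s1| * (‖C - c‖ ^ 2 / 2) ≤ 2 * R * T :=
      mul_le_mul hss (by linarith) (by positivity) ((abs_nonneg _).trans hss)
    linarith

end boxes

end Crest.Agent.R116.LZg725
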