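import Crest.Agent.R116.LZg6_725
import Crest.Agent.R116.Cad1_538

/-!
# R116, (Z4): volumes of conformal slabs in light boxes (helper725)

`vol1` : sublevel sets of a quadratic polynomial where the derivative is large.
`vol_slices` : volume from the slices in one coordinate.
`vol_slab_gr`, `vol_slab_ny` : slabs in normalised coordinates.
`vol_sec` : section at time `s` of the part of the slab where `|gr_c| ≥ κ` or `|∂_y φ|` is large.
`vol_sec_ray`, `vol_pp` : points of the slab with a slope `C` of the aperture with `|L_p(C)| ≤ h`.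
-/

set_option autoImplicit false
set_option linter.unusedSectionVars false

open MeasureTheory
open scoped ENNReal

namespace Crest.Agent.R116.LZg725

open Crest.Agent.R138.Defs (E2)
open Crest.Agent.R116.CDef480 (E3 lat pt vel)

/-- sublevel sets of a quadratic polynomial on the set where the derivative is large. -/
theorem vol1 {a b d lam kap : ℝ} (hk : 0 < kap) :
    volume {u : ℝ | |a + b * u + d * u ^ 2| ≤ lam ∧ kap ≤ |b + 2 * d * u|} ≤
      ENNReal.ofReal (4 * lam / kap) := by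
  have key : ∀ e : ℝ, (e = 1 ∨ e = -1) →
      volume {u : ℝ | |a + b * u + d * u ^ 2| ≤ lam ∧ kap ≤ e * (b + 2 * d * u)} ≤
        ENNReal.ofReal (2 * lam / kap) := by
    intro e he
    refine (Real.volume_le_diam _).trans (Metric.ediam_le ?_)
    have main : ∀ u ∈ {u : ℝ | |a + b * u + d * u ^ 2| ≤ lam ∧ kap ≤ e * (b + 2 * d * u)},
        ∀ v ∈ {u : ℝ | |a + b * u + d * u ^ 2| ≤ lam ∧ kap ≤ e * (b + 2 * d * u)},
        u ≤ v → v - u ≤ 2 * lam / kap := by
      rintro u ⟨hu1, hu2⟩ v ⟨hv1, hv2⟩ huv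
      rw [le_div_iff₀ hk]
      have h1 := abs_le.1 hu1
      have h2 := abs_le.1 hv1
      have e1 : (a + b * v + d * v ^ 2) - (a + b * u + d * u ^ 2) =
          (v - u) * (((b + 2 * d * u) + (b + 2 * d * v)) / 2) := by ring
      rcases he with rfl | rfl
      · have h3 : (v - u) * kap ≤ (v - u) * (((b + 2 * d * u) + (b + 2 * d * v)) / 2) :=
          mul_le_mul_of_nonneg_left (by linarith) (by linarith)
        linarith [h1.1, h2.2]
      · have h3 : (v - u) * kap ≤ (v - u) * (-(((b + 2 * d * u) + (b + 2 * d * v)) / 2)) :=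
          mul_le_mul_of_nonneg_left (by linarith) (by linarith)
        linarith [h1.2, h2.1]
    intro u hu v hv
    rw [edist_dist, Real.dist_eq]
    refine ENNReal.ofReal_le_ofReal ?_
    rcases le_total u v with h | h
    · rw [abs_sub_comm, abs_of_nonneg (by linarith)]
      exact main u hu v hv h
    · rw [abs_of_nonneg (by linarith)]
      exact main v hv u hu h
  have hsub : {u : ℝ | |a + b * u + d * u ^ 2| ≤ lam ∧ kap ≤ |b + 2 * d * u|} ⊆
      {u : ℝ | |a + b * u + d * u ^ 2| ≤ lam ∧ kap ≤ 1 * (b + 2 * d * u)} ∪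
      {u : ℝ | |a + b * u + d * u ^ 2| ≤ lam ∧ kap ≤ -1 * (b + 2 * d * u)} := by
    rintro u ⟨h1, h2⟩
    rcases le_abs.1 h2 with h3 | h3
    · left; exact ⟨h1, by linarith⟩
    · right; exact ⟨h1, by linarith⟩
  refine (measure_mono hsub).trans ((measure_union_le _ _).trans ?_)
  refine (add_le_add (key 1 (Or.inl rfl)) (key (-1) (Or.inr rfl))).trans (le_of_eq ?_)
  rcases le_total 0 lam with hl | hl
  · rw [← ENNReal.ofReal_add (by positivity) (by positivity)]
    congr 1; ring
  · have e1 : 2 * lam / kap ≤ 0 := div_nonpos_of_nonpos_of_nonneg (by linarith) hk.le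
    have e2 : 4 * lam / kap ≤ 0 := div_nonpos_of_nonpos_of_nonneg (by linarith) hk.le
    rw [ENNReal.ofReal_of_nonpos e1, ENNReal.ofReal_of_nonpos e2, add_zero]

/-- the linear version. -/
theorem vol1_lin {a g lam : ℝ} (hg : g ≠ 0) :
    volume {u : ℝ | |a + g * u| ≤ lam} ≤ ENNReal.ofReal (4 * lam / |g|) := by
  have h := vol1 (a := a) (b := g) (d := 0) (lam := lam) (kap := |g|) (abs_pos.2 hg)
  refine (measure_mono ?_).trans h
  intro u hu
  refine ⟨?_, ?_⟩
  · simpa using hu
  · simp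

/-- volume from the slices in the coordinate `i`. -/
theorem vol_slices (i : Fin 3) {S : Set E3} (hS : MeasurableSet S) {L : Fin 2 → ℝ} {K : ℝ≥0∞}
    (hbox : ∀ X ∈ S, ∀ j : Fin 2, |X (i.succAbove j)| ≤ L j)
    (hsl : ∀ y : Fin 2 → ℝ, volume {u : ℝ | WithLp.toLp 2 (i.insertNth u y : Fin 3 → ℝ) ∈ S} ≤ K) :
    volume S ≤ K * (ENNReal.ofReal (2 * L 0) * ENNReal.ofReal (2 * L 1)) := by
  set S1 : Set (Fin 3 → ℝ) := {x | WithLp.toLp 2 x ∈ S} with hS1
  have hm1 : MeasurableSet S1 := by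
    have : Measurable (fun x : Fin 3 → ℝ => (WithLp.toLp 2 x : E3)) :=
      (MeasurableEquiv.toLp 2 (Fin 3 → ℝ)).measurable
    exact this hS
  have hv1 : volume S = volume S1 := by
    have hp := EuclideanSpace.volume_preserving_symm_measurableEquiv_toLp (Fin 3)
    have := hp.measure_preimage_equiv S1
    rw [← this]
    congr 1
  set S2 : Set (ℝ × (Fin 2 → ℝ)) :=
    {p | WithLp.toLp 2 (i.insertNth p.1 p.2 : Fin 3 → ℝ) ∈ S} with hS2
  have hp2 := volume_preserving_piFinSuccAbove (fun _ : Fin 3 => ℝ) i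
  have hv2 : volume S1 = volume S2 := by
    have := hp2.symm.measure_preimage_equiv S1
    rw [← this]
    congr 1
  have hm2 : MeasurableSet S2 :=
    (MeasurableEquiv.piFinSuccAbove (fun _ : Fin 3 => ℝ) i).symm.measurable hm1
  rw [hv1, hv2, Measure.volume_eq_prod, Measure.prod_apply_symm hm2]
  set B : Set (Fin 2 → ℝ) := {y | ∀ j, |y j| ≤ L j} with hB
  have hBv : volume B ≤ ENNReal.ofReal (2 * L 0) * ENNReal.ofReal (2 * L 1) := by
    have e : B = Set.Icc (fun j => -L j) (fun j => L j) := by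
      ext y
      simp only [hB, Set.mem_ofPred_eq, Set.mem_Icc, Pi.le_def, abs_le]
      exact ⟨fun h => ⟨fun j => (h j).1, fun j => (h j).2⟩, fun h j => ⟨h.1 j, h.2 j⟩⟩
    rw [e, Real.volume_Icc_pi, Fin.prod_univ_two]
    refine le_of_eq ?_
    congr 2 <;> ring
  calc ∫⁻ y, volume ((fun x => (x, y)) ⁻¹' S2)
      ≤ ∫⁻ y, B.indicator (fun _ => K) y := by
        refine lintegral_mono fun y => ?_
        by_cases hy : y ∈ B
        · rw [Set.indicator_of_mem hy]
          exact hsl y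
        · rw [Set.indicator_of_notMem hy]
          have : ((fun x => (x, y)) ⁻¹' S2) = ∅ := by
            ext u
            simp only [Set.mem_preimage, Set.mem_empty_iff_false, iff_false]
            intro hu
            apply hy
            intro j
            have h1 := hbox _ hu j
            have e1 : (WithLp.toLp 2 (i.insertNth u y : Fin 3 → ℝ) : E3) (i.succAbove j) = y j := by
              change (i.insertNth u y : Fin 3 → ℝ) (i.succAbove j) = y j
              rw [Fin.insertNth_apply_succAbove]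
            rwa [e1] at h1
          rw [this, measure_empty]
    _ = K * volume B := by
        rw [lintegral_indicator, setLIntegral_const]
        have : B = ⋂ j, {y | |y j| ≤ L j} := by ext y; simp [hB]
        rw [this]
        exact MeasurableSet.iInter fun j =>
          measurableSet_le ((measurable_pi_apply j).abs) measurable_const
    _ ≤ _ := mul_le_mul_right hBv K

/-- slabs in normalised coordinates, large lateral gradient. -/
theorem vol_slab_gr {al g d A t lam kap : ℝ} {be : E2} (hk : 0 < kap) (hlam : 0 ≤ lam)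
    (hA : 0 ≤ A) (ht : 0 ≤ t) :
    volume {Y : E3 | ‖lat Y‖ ≤ A ∧ |Y 2| ≤ t ∧
      |al + inner ℝ be (lat Y) + g * Y 2 + d * ‖lat Y‖ ^ 2| ≤ lam ∧
      kap ≤ ‖be + (2 * d) • lat Y‖} ≤ ENNReal.ofReal (64 * lam * A * t / kap) := by
  have hmlat : ∀ i : Fin 3, Measurable fun Y : E3 => Y i := CDef480.measurable_coord
  have hmm : Measurable fun Y : E3 =>
      |al + inner ℝ be (lat Y) + g * Y 2 + d * ‖lat Y‖ ^ 2| := by
    have h1 := CDef480.measurable_lat
    have h2 : Measurable fun Y : E3 => inner ℝ be (lat Y) := measurable_const.inner h1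
    exact (((measurable_const.add h2).add ((hmlat 2).const_mul g)).add
      ((h1.norm.pow_const 2).const_mul d)).abs
  have key : ∀ i : Fin 2, volume {Y : E3 | ‖lat Y‖ ≤ A ∧ |Y 2| ≤ t ∧
      |al + inner ℝ be (lat Y) + g * Y 2 + d * ‖lat Y‖ ^ 2| ≤ lam ∧
      kap / 2 ≤ |be i + 2 * d * lat Y i|} ≤ ENNReal.ofReal (32 * lam * A * t / kap) := by
    intro i
    have hmi : Measurable fun Y : E3 => |be i + 2 * d * lat Y i| := by
      have : Measurable fun Y : E3 => lat Y i := by
        fin_cases i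
        · exact hmlat 0
        · exact hmlat 1
      exact (measurable_const.add (this.const_mul _)).abs
    have hS : MeasurableSet {Y : E3 | ‖lat Y‖ ≤ A ∧ |Y 2| ≤ t ∧
        |al + inner ℝ be (lat Y) + g * Y 2 + d * ‖lat Y‖ ^ 2| ≤ lam ∧
        kap / 2 ≤ |be i + 2 * d * lat Y i|} :=
      (measurableSet_le CDef480.measurable_lat.norm measurable_const).inter
        ((measurableSet_le (hmlat 2).abs measurable_const).inter
          ((measurableSet_le hmm measurable_const).inter (measurableSet_le measurable_const hmi)))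
    have hcomp : ∀ (v : E2) (j : Fin 2), |v j| ≤ ‖v‖ := fun v j => by
      have := EuclideanSpace.norm_eq v
      rw [this]
      refine Real.le_sqrt_of_sq_le ?_
      rw [sq_abs, Fin.sum_univ_two, Real.norm_eq_abs, Real.norm_eq_abs, sq_abs, sq_abs]
      fin_cases j
      · exact le_add_of_nonneg_right (sq_nonneg _)
      · exact le_add_of_nonneg_left (sq_nonneg _)
    have hk2 : 0 < kap / 2 := by linarith
    have hfin : ENNReal.ofReal (4 * lam / (kap / 2)) *
        (ENNReal.ofReal (2 * A) * ENNReal.ofReal (2 * t)) =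
          ENNReal.ofReal (32 * lam * A * t / kap) := by
      rw [← ENNReal.ofReal_mul (by positivity), ← ENNReal.ofReal_mul (by positivity)]
      congr 1
      field_simp
      ring
    fin_cases i
    · refine (vol_slices 0 hS (L := ![A, t]) (K := ENNReal.ofReal (4 * lam / (kap / 2)))
        ?_ ?_).trans (le_of_eq hfin)
      · rintro X ⟨h1, h2, -, -⟩ j
        fin_cases j
        · exact (hcomp (lat X) 1).trans h1
        · exact h2
      · intro y
        refine (measure_mono ?_).trans (vol1 (a := al + be 1 * y 0 + g * y 1 + d * y 0 ^ 2)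
          (b := be 0) (d := d) (lam := lam) hk2)
        rintro u ⟨-, -, h3, h4⟩
        have e0 : (WithLp.toLp 2 ((0 : Fin 3).insertNth u y : Fin 3 → ℝ) : E3) 0 = u := rfl
        have e1 : (WithLp.toLp 2 ((0 : Fin 3).insertNth u y : Fin 3 → ℝ) : E3) 1 = y 0 := rfl
        have e2 : (WithLp.toLp 2 ((0 : Fin 3).insertNth u y : Fin 3 → ℝ) : E3) 2 = y 1 := rfl
        rw [CDef480.inner2, CDef480.normsq2, CDef480.lat_zero, CDef480.lat_one, e0, e1, e2] at h3
        refine ⟨?_, h4⟩
        have e : al + be 1 * y 0 + g * y 1 + d * y 0 ^ 2 + be 0 * u + d * u ^ 2 =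
          al + (be 0 * u + be 1 * y 0) + g * y 1 + d * (u ^ 2 + y 0 ^ 2) := by ring
        rw [e]; exact h3
    · refine (vol_slices 1 hS (L := ![A, t]) (K := ENNReal.ofReal (4 * lam / (kap / 2)))
        ?_ ?_).trans (le_of_eq hfin)
      · rintro X ⟨h1, h2, -, -⟩ j
        fin_cases j
        · exact (hcomp (lat X) 0).trans h1
        · exact h2
      · intro y
        refine (measure_mono ?_).trans (vol1 (a := al + be 0 * y 0 + g * y 1 + d * y 0 ^ 2)
          (b := be 1) (d := d) (lam := lam) hk2)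
        rintro u ⟨-, -, h3, h4⟩
        have e0 : (WithLp.toLp 2 ((1 : Fin 3).insertNth u y : Fin 3 → ℝ) : E3) 0 = y 0 := rfl
        have e1 : (WithLp.toLp 2 ((1 : Fin 3).insertNth u y : Fin 3 → ℝ) : E3) 1 = u := rfl
        have e2 : (WithLp.toLp 2 ((1 : Fin 3).insertNth u y : Fin 3 → ℝ) : E3) 2 = y 1 := rfl
        rw [CDef480.inner2, CDef480.normsq2, CDef480.lat_zero, CDef480.lat_one, e0, e1, e2] at h3
        refine ⟨?_, h4⟩
        have e : al + be 0 * y 0 + g * y 1 + d * y 0 ^ 2 + be 1 * u + d * u ^ 2 =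
          al + (be 0 * y 0 + be 1 * u) + g * y 1 + d * (y 0 ^ 2 + u ^ 2) := by ring
        rw [e]; exact h3
  have hsub : {Y : E3 | ‖lat Y‖ ≤ A ∧ |Y 2| ≤ t ∧
      |al + inner ℝ be (lat Y) + g * Y 2 + d * ‖lat Y‖ ^ 2| ≤ lam ∧
      kap ≤ ‖be + (2 * d) • lat Y‖} ⊆
      {Y : E3 | ‖lat Y‖ ≤ A ∧ |Y 2| ≤ t ∧
      |al + inner ℝ be (lat Y) + g * Y 2 + d * ‖lat Y‖ ^ 2| ≤ lam ∧
      kap / 2 ≤ |be 0 + 2 * d * lat Y 0|} ∪ {Y : E3 | ‖lat Y‖ ≤ A ∧ |Y 2| ≤ t ∧
      |al + inner ℝ be (lat Y) + g * Y 2 + d * ‖lat Y‖ ^ 2| ≤ lam ∧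
      kap / 2 ≤ |be 1 + 2 * d * lat Y 1|} := by
    rintro Y ⟨h1, h2, h3, h4⟩
    by_contra hcon
    rw [Set.mem_union, not_or] at hcon
    obtain ⟨c1, c2⟩ := hcon
    have c1' : |be 0 + 2 * d * lat Y 0| < kap / 2 := by
      by_contra hc; exact c1 ⟨h1, h2, h3, not_lt.1 hc⟩
    have c2' : |be 1 + 2 * d * lat Y 1| < kap / 2 := by
      by_contra hc; exact c2 ⟨h1, h2, h3, not_lt.1 hc⟩
    have e1 : ‖be + (2 * d) • lat Y‖ ^ 2 =
        |be 0 + 2 * d * lat Y 0| ^ 2 + |be 1 + 2 * d * lat Y 1| ^ 2 := by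
      rw [CDef480.normsq2, sq_abs, sq_abs]
      simp only [PiLp.add_apply, PiLp.smul_apply, smul_eq_mul]
    have e2 : kap ^ 2 ≤ ‖be + (2 * d) • lat Y‖ ^ 2 := pow_le_pow_left₀ hk.le h4 2
    have e3 : |be 0 + 2 * d * lat Y 0| ^ 2 ≤ (kap / 2) ^ 2 :=
      pow_le_pow_left₀ (abs_nonneg _) c1'.le 2
    have e4 : |be 1 + 2 * d * lat Y 1| ^ 2 ≤ (kap / 2) ^ 2 :=
      pow_le_pow_left₀ (abs_nonneg _) c2'.le 2
    nlinarith [pow_pos hk 2]
  refine (measure_mono hsub).trans ((measure_union_le _ _).trans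
    ((add_le_add (key 0) (key 1)).trans (le_of_eq ?_)))
  rw [← ENNReal.ofReal_add (by positivity) (by positivity)]
  congr 1; ring

/-- slabs in normalised coordinates, large `y`-derivative. -/
theorem vol_slab_ny {al g d A lam : ℝ} {be : E2} (hg : g ≠ 0) (hlam : 0 ≤ lam) (hA : 0 ≤ A) :
    volume {Y : E3 | ‖lat Y‖ ≤ A ∧
      |al + inner ℝ be (lat Y) + g * Y 2 + d * ‖lat Y‖ ^ 2| ≤ lam} ≤
      ENNReal.ofReal (16 * lam * A ^ 2 / |g|) := by
  have hmlat : ∀ i : Fin 3, Measurable fun Y : E3 => Y i := CDef480.measurable_coord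
  have hmm : Measurable fun Y : E3 =>
      |al + inner ℝ be (lat Y) + g * Y 2 + d * ‖lat Y‖ ^ 2| := by
    have h1 := CDef480.measurable_lat
    have h2 : Measurable fun Y : E3 => inner ℝ be (lat Y) := measurable_const.inner h1
    exact (((measurable_const.add h2).add ((hmlat 2).const_mul g)).add
      ((h1.norm.pow_const 2).const_mul d)).abs
  have hS : MeasurableSet {Y : E3 | ‖lat Y‖ ≤ A ∧
      |al + inner ℝ be (lat Y) + g * Y 2 + d * ‖lat Y‖ ^ 2| ≤ lam} :=
    (measurableSet_le CDef480.measurable_lat.norm measurable_const).inter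
      (measurableSet_le hmm measurable_const)
  have hcomp : ∀ (v : E2) (j : Fin 2), |v j| ≤ ‖v‖ := fun v j => by
    have := EuclideanSpace.norm_eq v
    rw [this]
    refine Real.le_sqrt_of_sq_le ?_
    rw [sq_abs, Fin.sum_univ_two, Real.norm_eq_abs, Real.norm_eq_abs, sq_abs, sq_abs]
    fin_cases j
    · exact le_add_of_nonneg_right (sq_nonneg _)
    · exact le_add_of_nonneg_left (sq_nonneg _)
  have hfin : ENNReal.ofReal (4 * lam / |g|) *
      (ENNReal.ofReal (2 * A) * ENNReal.ofReal (2 * A)) =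
        ENNReal.ofReal (16 * lam * A ^ 2 / |g|) := by
    have hg' : 0 < |g| := abs_pos.2 hg
    rw [← ENNReal.ofReal_mul (by positivity), ← ENNReal.ofReal_mul (by positivity)]
    congr 1
    field_simp
    ring
  refine (vol_slices 2 hS (L := ![A, A]) (K := ENNReal.ofReal (4 * lam / |g|))
    ?_ ?_).trans (le_of_eq hfin)
  · rintro X ⟨h1, -⟩ j
    fin_cases j
    · exact (hcomp (lat X) 0).trans h1
    · exact (hcomp (lat X) 1).trans h1
  · intro y
    refine (measure_mono ?_).trans (vol1_lin (a := al + (be 0 * y 0 + be 1 * y 1) +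
      d * (y 0 ^ 2 + y 1 ^ 2)) (lam := lam) hg)
    rintro u ⟨-, h3⟩
    have e0 : (WithLp.toLp 2 ((2 : Fin 3).insertNth u y : Fin 3 → ℝ) : E3) 0 = y 0 := rfl
    have e1 : (WithLp.toLp 2 ((2 : Fin 3).insertNth u y : Fin 3 → ℝ) : E3) 1 = y 1 := rfl
    have e2 : (WithLp.toLp 2 ((2 : Fin 3).insertNth u y : Fin 3 → ℝ) : E3) 2 = u := rfl
    rw [CDef480.inner2, CDef480.normsq2, CDef480.lat_zero, CDef480.lat_one, e0, e1, e2] at h3
    change |al + (be 0 * y 0 + be 1 * y 1) + d * (y 0 ^ 2 + y 1 ^ 2) + g * u| ≤ lam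
    have e : al + (be 0 * y 0 + be 1 * y 1) + d * (y 0 ^ 2 + y 1 ^ 2) + g * u =
      al + (be 0 * y 0 + be 1 * y 1) + g * u + d * (y 0 ^ 2 + y 1 ^ 2) := by ring
    rw [e]; exact h3

/-- normalised coordinates at time `s` around `(x0, y0, s0)` in the frame `c`: a volume preserving
affine change of coordinates. -/
theorem vol_frame (c x0 : E2) (y0 s0 s : ℝ) (S : Set E3) :
    volume {X : E3 | pt ((lat X - x0) + (s - s0) • c) (nrm c (lat X) (X 2) s - nrm c x0 y0 s0) ∈ S}
      = volume S := by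
  set v : E3 := pt ((s - s0) • c - x0) (s * ‖c‖ ^ 2 / 2 - nrm c x0 y0 s0) with hv
  have e : {X : E3 | pt ((lat X - x0) + (s - s0) • c)
      (nrm c (lat X) (X 2) s - nrm c x0 y0 s0) ∈ S} =
      (Cad538.frc 1 1 c : E3 →ₗ[ℝ] E3) ⁻¹' ((fun Y => Y + v) ⁻¹' S) := by
    ext X
    simp only [Set.mem_ofPred_eq, Set.mem_preimage]
    have e1 : ((Cad538.frc 1 1 c : E3 →ₗ[ℝ] E3) X) + v =
        pt ((lat X - x0) + (s - s0) • c) (nrm c (lat X) (X 2) s - nrm c x0 y0 s0) := by
      change Cad538.frc 1 1 c X + v = _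
      rw [Cad538.frc_apply, hv, ← CDef480.pt_add]
      congr 1
      · rw [one_smul]; abel
      · rw [one_mul, nrm_eq]
        unfold nrm
        ring
    rw [e1]
  rw [e, Measure.addHaar_preimage_linearMap, Cad538.det_frc, measure_preimage_add_right]
  · norm_num
  · rw [Cad538.det_frc]; norm_num

end Crest.Agent.R116.LZg725
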