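import Crest.Agent.R116.LZv1_725

/-!
# R116, (Z4): volume of the part of a conformal slab seen by the rays of the aperture (helper725)

`vol_sec`, `vol_sec_ny`: sections at time `s` (any frame `(c, X0, s0)`).
`vol_sec_ray`: `{X : |w| ≤ K sg R, |dN_c| ≤ K T R, |φ| ≤ lam, ∃ C, |C - c| ≤ K sg, |L_p(C)| ≤ h}` has
volume `≤ 256 K³ lam (sg R) (T R)` if `8 M lam ≤ sg R`, `8 M h ≤ sg`.
`vol_pp`: the space-time version, `≤ 512 K³ lam (sg R) (T R) R`.
-/

set_option autoImplicit false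
set_option linter.unusedSectionVars false

open MeasureTheory
open scoped ENNReal

namespace Crest.Agent.R116.LZg725

open Crest.Agent.R138.Defs (E2)
open Crest.Agent.R116.CDef480 (E3 lat pt vel)

variable {M : ℝ} {c x0 : E2} {y0 s0 s sg T R : ℝ} {p : Cf E2}

/-- `φ` in the coordinates `(w, N)` at time `s`. -/
theorem ev_sec (p : Cf E2) (c x0 : E2) (y0 s0 : ℝ) (x : E2) (y s : ℝ) :
    p.ev x y s = (p.ev x0 y0 s0 + p.ld c x0 y0 s0 * (s - s0)) +
      inner ℝ (p.gr c x0 s0) ((x - x0) + (s - s0) • c) +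
      p.ny s * (nrm c x y s - nrm c x0 y0 s0) + p.d * ‖(x - x0) + (s - s0) • c‖ ^ 2 := by
  rw [Cf.ev_expand p c x0 y0 s0 x y s]
  have e : p.ny s = p.ny s0 - 2 * p.d * (s - s0) := by unfold Cf.ny; ring
  rw [e]; ring

theorem vol_sec {A t lam kap : ℝ} (hk : 0 < kap) (hlam : 0 ≤ lam) (hA : 0 ≤ A) (ht : 0 ≤ t) :
    volume {X : E3 | ‖(lat X - x0) + (s - s0) • c‖ ≤ A ∧
      |nrm c (lat X) (X 2) s - nrm c x0 y0 s0| ≤ t ∧ |p.ev (lat X) (X 2) s| ≤ lam ∧
      kap ≤ ‖p.gr c (lat X) s‖} ≤ ENNReal.ofReal (64 * lam * A * t / kap) := by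
  rw [show {X : E3 | ‖(lat X - x0) + (s - s0) • c‖ ≤ A ∧
      |nrm c (lat X) (X 2) s - nrm c x0 y0 s0| ≤ t ∧ |p.ev (lat X) (X 2) s| ≤ lam ∧
      kap ≤ ‖p.gr c (lat X) s‖} = {X : E3 | pt ((lat X - x0) + (s - s0) • c)
        (nrm c (lat X) (X 2) s - nrm c x0 y0 s0) ∈ {Y : E3 | ‖lat Y‖ ≤ A ∧ |Y 2| ≤ t ∧
      |(p.ev x0 y0 s0 + p.ld c x0 y0 s0 * (s - s0)) + inner ℝ (p.gr c x0 s0) (lat Y) +
        p.ny s * Y 2 + p.d * ‖lat Y‖ ^ 2| ≤ lam ∧
      kap ≤ ‖p.gr c x0 s0 + (2 * p.d) • lat Y‖}} from ?_, vol_frame]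
  · exact vol_slab_gr hk hlam hA ht
  · ext X
    simp only [Set.mem_ofPred_eq, CDef480.lat_pt, CDef480.pt_two]
    rw [← ev_sec p c x0 y0 s0 (lat X) (X 2) s, ← Cf.gr_move p c x0 (lat X) s0 s]

theorem vol_sec_ny {A lam : ℝ} (hn : p.ny s ≠ 0) (hlam : 0 ≤ lam) (hA : 0 ≤ A) :
    volume {X : E3 | ‖(lat X - x0) + (s - s0) • c‖ ≤ A ∧ |p.ev (lat X) (X 2) s| ≤ lam} ≤
      ENNReal.ofReal (16 * lam * A ^ 2 / |p.ny s|) := by
  rw [show {X : E3 | ‖(lat X - x0) + (s - s0) • c‖ ≤ A ∧ |p.ev (lat X) (X 2) s| ≤ lam} =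
      {X : E3 | pt ((lat X - x0) + (s - s0) • c)
        (nrm c (lat X) (X 2) s - nrm c x0 0 s0) ∈ {Y : E3 | ‖lat Y‖ ≤ A ∧
      |(p.ev x0 0 s0 + p.ld c x0 0 s0 * (s - s0)) + inner ℝ (p.gr c x0 s0) (lat Y) +
        p.ny s * Y 2 + p.d * ‖lat Y‖ ^ 2| ≤ lam}} from ?_, vol_frame]
  · exact vol_slab_ny hn hlam hA
  · ext X
    simp only [Set.mem_ofPred_eq, CDef480.lat_pt, CDef480.pt_two]
    rw [← ev_sec p c x0 0 s0 (lat X) (X 2) s]

/-- the points with a slope of small derivative have a large lateral gradient for this slope. -/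
theorem gr_ge_half {lam h : ℝ} (hR : 0 < R) (hsg : 0 < sg) (hT : sg ^ 2 ≤ T) (hM : 0 ≤ M)
    (hdisc : p.disc = 1) (hny : |p.ny s| * T ≤ M * sg) (hd : 2 * |p.d| * (T * R) ≤ M * sg)
    (h1 : 8 * M * lam ≤ sg * R) (h2 : 8 * M * h ≤ sg) {C x : E2} {y : ℝ}
    (hev : |p.ev x y s| ≤ lam) (hld : |p.ld C x y s| ≤ h) : 1 / 2 ≤ ‖p.gr C x s‖ := by
  have hn : |p.ny s| * sg ≤ M := ny_sg_le hsg hT (abs_nonneg _) hM hny
  have hd1 : 2 * |p.d| * R * sg ≤ M := ny_sg_le hsg hT (by positivity) hM (by linarith)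
  have hlam : 0 ≤ lam := (abs_nonneg _).trans hev
  have hh : 0 ≤ h := (abs_nonneg _).trans hld
  have e1 : |p.ny s| * |p.ld C x y s| ≤ 1 / 8 := by
    have a1 : |p.ny s| * (8 * h) * sg ≤ M * (8 * h) := by
      have := mul_le_mul_of_nonneg_right hn (by positivity : 0 ≤ 8 * h)
      linarith
    have a2 : |p.ny s| * (8 * h) * sg ≤ 1 * sg := by linarith
    have a3 : |p.ny s| * (8 * h) ≤ 1 := le_of_mul_le_mul_right a2 hsg
    have a4 := mul_le_mul_of_nonneg_left hld (abs_nonneg (p.ny s))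
    linarith
  have e2 : 2 * |p.d| * |p.ev x y s| ≤ 1 / 8 := by
    have a1 : 2 * |p.d| * (8 * lam) * (sg * R) ≤ M * (8 * lam) := by
      have := mul_le_mul_of_nonneg_right hd1 (by positivity : 0 ≤ 8 * lam)
      linarith
    have a2 : 2 * |p.d| * (8 * lam) * (sg * R) ≤ 1 * (sg * R) := by linarith
    have a3 : 2 * |p.d| * (8 * lam) ≤ 1 := le_of_mul_le_mul_right a2 (mul_pos hsg hR)
    have a4 := mul_le_mul_of_nonneg_left hev (by positivity : 0 ≤ 2 * |p.d|)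
    linarith
  have e3 := Cf.norm_gr_sq p C x y s
  rw [hdisc] at e3
  have e4 : -(2 * (|p.ny s| * |p.ld C x y s|)) ≤ 2 * p.ny s * p.ld C x y s := by
    have := neg_abs_le (p.ny s * p.ld C x y s)
    rw [abs_mul] at this
    linarith
  have e5 : -(2 * (2 * |p.d| * |p.ev x y s|)) ≤ 4 * p.d * p.ev x y s := by
    have := neg_abs_le (p.d * p.ev x y s)
    rw [abs_mul] at this
    linarith
  have e6 : 1 / 2 ≤ ‖p.gr C x s‖ ^ 2 := by linarith
  nlinarith [norm_nonneg (p.gr C x s)]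

/-- the dichotomy: in a fixed frame `c` the lateral gradient or the `y`-derivative is large. -/
theorem gr_or_ny {K : ℝ} (hK : 0 ≤ K) (hsg : 0 < sg) {C x : E2} (hC : ‖C - c‖ ≤ K * sg)
    (hg : 1 / 2 ≤ ‖p.gr C x s‖) : 1 / 4 ≤ ‖p.gr c x s‖ ∨ 1 < |p.ny s| * (4 * K * sg) := by
  rcases le_or_gt (|p.ny s| * (4 * K * sg)) 1 with h | h
  · left
    have e := Cf.gr_dir p c C x s
    have h1 : ‖p.gr C x s‖ ≤ ‖p.gr c x s‖ + |p.ny s| * (K * sg) := by
      rw [e]
      refine (norm_sub_le _ _).trans (add_le_add le_rfl ?_)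
      rw [norm_smul, Real.norm_eq_abs]
      exact mul_le_mul_of_nonneg_left hC (abs_nonneg _)
    nlinarith
  · right; exact h

theorem vol_sec_or {K lam : ℝ} (hR : 0 < R) (hsg : 0 < sg) (hT : sg ^ 2 ≤ T) (hK : 1 ≤ K)
    (hlam : 0 ≤ lam) :
    volume {X : E3 | ‖(lat X - x0) + (s - s0) • c‖ ≤ K * sg * R ∧
      |nrm c (lat X) (X 2) s - nrm c x0 y0 s0| ≤ K * T * R ∧ |p.ev (lat X) (X 2) s| ≤ lam ∧
      (1 / 4 ≤ ‖p.gr c (lat X) s‖ ∨ 1 < |p.ny s| * (4 * K * sg))} ≤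
      ENNReal.ofReal (256 * K ^ 3 * (lam * (sg * R) * (T * R))) := by
  have hT0 : 0 < T := lt_of_lt_of_le (pow_pos hsg 2) hT
  have hK0 : 0 < K := by linarith
  have hA : 0 ≤ K * sg * R := by positivity
  have ht : 0 ≤ K * T * R := by positivity
  rcases le_or_gt (|p.ny s| * (4 * K * sg)) 1 with h | h
  · refine (measure_mono ?_).trans ((vol_sec (c := c) (x0 := x0) (y0 := y0) (s0 := s0) (s := s)
      (p := p) (kap := 1 / 4) (by norm_num) hlam hA ht).trans (ENNReal.ofReal_le_ofReal ?_))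
    · rintro X ⟨h1, h2, h3, h4 | h4⟩
      · exact ⟨h1, h2, h3, h4⟩
      · exact absurd h4 (not_lt.2 h)
    · have e : 64 * lam * (K * sg * R) * (K * T * R) / (1 / 4) =
          256 * K ^ 2 * (lam * (sg * R) * (T * R)) := by ring
      rw [e]
      refine mul_le_mul_of_nonneg_right ?_ (by positivity)
      nlinarith [sq_nonneg K]
  · have hn : p.ny s ≠ 0 := by
      intro h0; rw [h0, abs_zero, zero_mul] at h; linarith
    have hn' : 0 < |p.ny s| := abs_pos.2 hn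
    refine (measure_mono ?_).trans ((vol_sec_ny (c := c) (x0 := x0) (s0 := s0) (s := s)
      (p := p) hn hlam hA).trans (ENNReal.ofReal_le_ofReal ?_))
    · rintro X ⟨h1, h2, h3, -⟩
      exact ⟨h1, h3⟩
    · rw [div_le_iff₀ hn']
      have e1 : 16 * lam * (K * sg * R) ^ 2 ≤
          16 * lam * (K * sg * R) ^ 2 * (|p.ny s| * (4 * K * sg)) :=
        le_mul_of_one_le_right (by positivity) h.le
      have e2 : 16 * lam * (K * sg * R) ^ 2 * (|p.ny s| * (4 * K * sg)) =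
          64 * K ^ 3 * (lam * (sg * R) * (sg ^ 2 * R)) * |p.ny s| := by ring
      have e3 : 64 * K ^ 3 * (lam * (sg * R) * (sg ^ 2 * R)) * |p.ny s| ≤
          256 * K ^ 3 * (lam * (sg * R) * (T * R)) * |p.ny s| := by
        refine mul_le_mul_of_nonneg_right ?_ hn'.le
        have e4 : lam * (sg * R) * (sg ^ 2 * R) ≤ lam * (sg * R) * (T * R) :=
          mul_le_mul_of_nonneg_left (mul_le_mul_of_nonneg_right hT hR.le) (by positivity)
        have e5 : 0 ≤ lam * (sg * R) * (T * R) := by positivity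
        nlinarith [pow_pos hK0 3, mul_le_mul_of_nonneg_left e4 (pow_pos hK0 3).le,
          mul_nonneg (pow_pos hK0 3).le e5]
      linarith

/-- **volume of a section of the slab seen by the rays of the aperture**. -/
theorem vol_sec_ray {K lam h : ℝ} (hR : 0 < R) (hsg : 0 < sg) (hT : sg ^ 2 ≤ T) (hK : 1 ≤ K)
    (hM : 0 ≤ M) (hlam : 0 ≤ lam) (hdisc : p.disc = 1) (hny : |p.ny s| * T ≤ M * sg)
    (hd : 2 * |p.d| * (T * R) ≤ M * sg) (h1 : 8 * M * lam ≤ sg * R) (h2 : 8 * M * h ≤ sg) :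
    volume {X : E3 | ‖(lat X - x0) + (s - s0) • c‖ ≤ K * sg * R ∧
      |nrm c (lat X) (X 2) s - nrm c x0 y0 s0| ≤ K * T * R ∧ |p.ev (lat X) (X 2) s| ≤ lam ∧
      ∃ C : E2, ‖C - c‖ ≤ K * sg ∧ |p.ld C (lat X) (X 2) s| ≤ h} ≤
      ENNReal.ofReal (256 * K ^ 3 * (lam * (sg * R) * (T * R))) := by
  refine (measure_mono ?_).trans (vol_sec_or (c := c) (x0 := x0) (y0 := y0) (s0 := s0) (s := s)
    (p := p) hR hsg hT hK hlam)
  rintro X ⟨a1, a2, a3, C, hC, hL⟩
  exact ⟨a1, a2, a3, gr_or_ny (by linarith) hsg hC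
    (gr_ge_half hR hsg hT hM hdisc hny hd h1 h2 a3 hL)⟩

theorem measurable_lat_fst : Measurable fun q : E3 × ℝ => lat q.1 :=
  CDef480.measurable_lat.comp measurable_fst

theorem measurable_two_fst : Measurable fun q : E3 × ℝ => q.1 2 :=
  (CDef480.measurable_coord 2).comp measurable_fst

theorem measurable_nrm_st (c : E2) : Measurable fun q : E3 × ℝ => nrm c (lat q.1) (q.1 2) q.2 := by
  unfold nrm
  have a1 : Measurable fun q : E3 × ℝ => inner ℝ c (lat q.1) :=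
    measurable_const.inner measurable_lat_fst
  have a2 : Measurable fun q : E3 × ℝ => q.2 * ‖c‖ ^ 2 / 2 :=
    (measurable_snd.mul_const (‖c‖ ^ 2)).div_const 2
  exact (measurable_two_fst.add a1).add a2

theorem measurable_val (p : Cf E2) : Measurable fun q : E3 × ℝ => p.val q := by
  unfold Cf.val Cf.ev
  have a0 : Measurable fun q : E3 × ℝ => p.a0 + p.a1 * q.2 :=
    (measurable_snd.const_mul p.a1).const_add p.a0
  have a1 : Measurable fun q : E3 × ℝ => inner ℝ p.be (lat q.1) :=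
    measurable_const.inner measurable_lat_fst
  have a2 : Measurable fun q : E3 × ℝ => p.g * q.1 2 := measurable_two_fst.const_mul p.g
  have a3 : Measurable fun q : E3 × ℝ => ‖lat q.1‖ ^ 2 := measurable_lat_fst.norm.pow_const 2
  have a4 : Measurable fun q : E3 × ℝ => 2 * q.2 * q.1 2 :=
    (measurable_snd.const_mul 2).mul measurable_two_fst
  exact ((a0.add a1).add a2).add ((a3.sub a4).const_mul p.d)

theorem measurable_ny_st (p : Cf E2) : Measurable fun q : E3 × ℝ => |p.ny q.2| := by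
  unfold Cf.ny
  have a1 : Measurable fun q : E3 × ℝ => 2 * p.d * q.2 := measurable_snd.const_mul (2 * p.d)
  exact (a1.const_sub p.g).abs

theorem measurable_gr_st (p : Cf E2) (c : E2) :
    Measurable fun q : E3 × ℝ => ‖p.gr c (lat q.1) q.2‖ := by
  unfold Cf.gr Cf.ny
  have a1 : Measurable fun q : E3 × ℝ => (2 * p.d) • lat q.1 :=
    measurable_lat_fst.const_smul (2 * p.d)
  have a2 : Measurable fun q : E3 × ℝ => (p.g - 2 * p.d * q.2) • c :=
    ((measurable_snd.const_mul (2 * p.d)).const_sub p.g).smul_const c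
  exact ((a1.const_add p.be).sub a2).norm

/-- **space-time volume of the part of the slab seen by the rays of the aperture**. -/
theorem vol_pp {K lam h : ℝ} (hR : 0 < R) (hsg : 0 < sg) (hT : sg ^ 2 ≤ T) (hK : 1 ≤ K)
    (hM : 0 ≤ M) (hlam : 0 ≤ lam) (hdisc : p.disc = 1)
    (hny : ∀ s, |s - s0| ≤ R → |p.ny s| * T ≤ M * sg)
    (h1 : 8 * M * lam ≤ sg * R) (h2 : 8 * M * h ≤ sg) :
    volume {q : E3 × ℝ | |q.2 - s0| ≤ R ∧ ‖(lat q.1 - x0) + (q.2 - s0) • c‖ ≤ K * sg * R ∧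
      |nrm c (lat q.1) (q.1 2) q.2 - nrm c x0 y0 s0| ≤ K * T * R ∧ |p.val q| ≤ lam ∧
      ∃ C : E2, ‖C - c‖ ≤ K * sg ∧ |p.ld C (lat q.1) (q.1 2) q.2| ≤ h} ≤
      ENNReal.ofReal (512 * K ^ 3 * (lam * (sg * R) * (T * R) * R)) := by
  have hT0 : 0 ≤ T := (sq_nonneg sg).trans hT
  have hd : 2 * |p.d| * (T * R) ≤ M * sg := d_le_of_ny hR.le hT0 hny
  have hmlat : Measurable fun q : E3 × ℝ => lat q.1 := measurable_lat_fst
  have hnrm := measurable_nrm_st c
  have hval := measurable_val p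
  have hgr := measurable_gr_st p c
  have hnyM := measurable_ny_st p
  set Q : Set (E3 × ℝ) := {q | |q.2 - s0| ≤ R ∧
    (‖(lat q.1 - x0) + (q.2 - s0) • c‖ ≤ K * sg * R ∧
      |nrm c (lat q.1) (q.1 2) q.2 - nrm c x0 y0 s0| ≤ K * T * R ∧ |p.val q| ≤ lam ∧
      (1 / 4 ≤ ‖p.gr c (lat q.1) q.2‖ ∨ 1 < |p.ny q.2| * (4 * K * sg)))} with hQ
  have hw : Measurable fun q : E3 × ℝ => ‖(lat q.1 - x0) + (q.2 - s0) • c‖ :=
    ((hmlat.sub_const x0).add ((measurable_snd.sub_const s0).smul_const c)).norm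
  have m1 : MeasurableSet {q : E3 × ℝ | |q.2 - s0| ≤ R} :=
    measurableSet_le (measurable_snd.sub_const s0).abs measurable_const
  have m2 : MeasurableSet {q : E3 × ℝ | ‖(lat q.1 - x0) + (q.2 - s0) • c‖ ≤ K * sg * R} :=
    measurableSet_le hw measurable_const
  have m3 : MeasurableSet {q : E3 × ℝ |
      |nrm c (lat q.1) (q.1 2) q.2 - nrm c x0 y0 s0| ≤ K * T * R} :=
    measurableSet_le (hnrm.sub_const _).abs measurable_const
  have m4 : MeasurableSet {q : E3 × ℝ | |p.val q| ≤ lam} :=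
    measurableSet_le hval.abs measurable_const
  have m5 : MeasurableSet {q : E3 × ℝ | 1 / 4 ≤ ‖p.gr c (lat q.1) q.2‖} :=
    measurableSet_le measurable_const hgr
  have m6 : MeasurableSet {q : E3 × ℝ | 1 < |p.ny q.2| * (4 * K * sg)} :=
    measurableSet_lt measurable_const (hnyM.mul_const _)
  have hQm : MeasurableSet Q := by
    have e : Q = {q : E3 × ℝ | |q.2 - s0| ≤ R} ∩
        ({q : E3 × ℝ | ‖(lat q.1 - x0) + (q.2 - s0) • c‖ ≤ K * sg * R} ∩
        ({q : E3 × ℝ | |nrm c (lat q.1) (q.1 2) q.2 - nrm c x0 y0 s0| ≤ K * T * R} ∩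
        ({q : E3 × ℝ | |p.val q| ≤ lam} ∩ ({q : E3 × ℝ | 1 / 4 ≤ ‖p.gr c (lat q.1) q.2‖} ∪
        {q : E3 × ℝ | 1 < |p.ny q.2| * (4 * K * sg)})))) := rfl
    rw [e]
    exact m1.inter (m2.inter (m3.inter (m4.inter (m5.union m6))))
  have hsub : {q : E3 × ℝ | |q.2 - s0| ≤ R ∧ ‖(lat q.1 - x0) + (q.2 - s0) • c‖ ≤ K * sg * R ∧
      |nrm c (lat q.1) (q.1 2) q.2 - nrm c x0 y0 s0| ≤ K * T * R ∧ |p.val q| ≤ lam ∧
      ∃ C : E2, ‖C - c‖ ≤ K * sg ∧ |p.ld C (lat q.1) (q.1 2) q.2| ≤ h} ⊆ Q := by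
    rintro q ⟨a0, a1, a2, a3, C, hC, hL⟩
    exact ⟨a0, a1, a2, a3, gr_or_ny (by linarith) hsg hC
      (gr_ge_half hR hsg hT hM hdisc (hny q.2 a0) hd h1 h2 a3 hL)⟩
  refine (measure_mono hsub).trans ?_
  rw [Measure.volume_eq_prod, Measure.prod_apply_symm hQm]
  calc ∫⁻ s, volume ((fun X => (X, s)) ⁻¹' Q)
      ≤ ∫⁻ s, (Set.Icc (s0 - R) (s0 + R)).indicator (fun _ =>
          ENNReal.ofReal (256 * K ^ 3 * (lam * (sg * R) * (T * R)))) s := by
        refine lintegral_mono fun s => ?_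
        by_cases hs : s ∈ Set.Icc (s0 - R) (s0 + R)
        · rw [Set.indicator_of_mem hs]
          refine (measure_mono ?_).trans (vol_sec_or (c := c) (x0 := x0) (y0 := y0) (s0 := s0)
            (s := s) (p := p) hR hsg hT hK hlam)
          rintro X ⟨-, h⟩
          exact h
        · rw [Set.indicator_of_notMem hs]
          have : ((fun X => (X, s)) ⁻¹' Q) = ∅ := by
            ext X
            simp only [Set.mem_preimage, Set.mem_empty_iff_false, iff_false]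
            rintro ⟨h, -⟩
            apply hs
            have := abs_le.1 h
            exact ⟨by linarith [this.1], by linarith [this.2]⟩
          rw [this, measure_empty]
    _ = ENNReal.ofReal (256 * K ^ 3 * (lam * (sg * R) * (T * R))) *
          volume (Set.Icc (s0 - R) (s0 + R)) := by
        rw [lintegral_indicator measurableSet_Icc, setLIntegral_const]
    _ = ENNReal.ofReal (512 * K ^ 3 * (lam * (sg * R) * (T * R) * R)) := by
        rw [Real.volume_Icc, ← ENNReal.ofReal_mul (by positivity)]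
        congr 1; ring

end Crest.Agent.R116.LZg725
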