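import Mathlib

/-! R116 (L3), part 1: a weight `W` on the line whose Fourier transform lives in `(-1, 1)`. -/

set_option autoImplicit false

open MeasureTheory Filter Topology Complex
open scoped FourierTransform SchwartzMap ContDiff

noncomputable section

namespace Crest.Agent.R116.Lr370

/-- a bump supported in `[-1/16, 1/16]` -/
def bmp : ContDiffBump (0 : ℝ) := ⟨1 / 32, 1 / 16, by norm_num, by norm_num⟩

/-- the normalised bump, complex valued -/
def hC (x : ℝ) : ℂ := ((bmp.normed volume x : ℝ) : ℂ)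

lemma hC_smooth : ContDiff ℝ ∞ hC :=
  Complex.ofRealCLM.contDiff.comp (bmp.contDiff_normed (μ := volume))

lemma hC_supp : HasCompactSupport hC := by
  have h : HasCompactSupport (bmp.normed volume) := bmp.hasCompactSupport_normed
  exact h.comp_left (g := fun x : ℝ => (x : ℂ)) (by simp)

/-- the Schwartz version -/
def hS : 𝓢(ℝ, ℂ) := hC_supp.toSchwartzMap hC_smooth

lemma hS_coe : (hS : ℝ → ℂ) = hC := rfl

lemma hC_zero {x : ℝ} (hx : 1 / 16 ≤ |x|) : hC x = 0 := by
  have h : x ∉ Function.support (bmp.normed volume) := by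
    rw [bmp.support_normed_eq]
    simp only [Metric.mem_ball, dist_zero_right, Real.norm_eq_abs, not_lt]
    exact hx
  simp only [Function.mem_support, not_not] at h
  simp [hC, h]

/-- the weight -/
def W (z : ℝ) : ℝ := ‖𝓕 hC z‖ ^ 2

lemma W_nonneg (z : ℝ) : 0 ≤ W z := by unfold W; positivity

lemma fS (z : ℝ) : 𝓕 hC z = (𝓕 hS : 𝓢(ℝ, ℂ)) z := by
  rw [SchwartzMap.fourier_coe, hS_coe]

lemma W_cont : Continuous W := by
  have h : Continuous (fun z => ‖(𝓕 hS : 𝓢(ℝ, ℂ)) z‖ ^ 2) :=
    ((SchwartzMap.continuous _).norm).pow 2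
  refine h.congr fun z => ?_
  simp [W, fS]

lemma hC_int : Integrable hC := by
  rw [← hS_coe]; exact hS.integrable

lemma hC_integral : ∫ x, hC x = 1 := by
  unfold hC
  rw [integral_complex_ofReal, bmp.integral_normed]
  simp

lemma W_ge {z : ℝ} (hz : |z| ≤ 1) : 1 / 4 ≤ W z := by
  have h1 : ‖𝓕 hC z - 1‖ ≤ 1 / 2 := by
    rw [Real.fourier_eq', ← hC_integral]
    have hi : Integrable (fun v : ℝ => cexp (↑(-2 * Real.pi * inner ℝ v z) * I) • hC v) := by
      have := (Real.fourierIntegral_convergent_iff (f := hC) (μ := volume) z).2 hC_int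
      refine this.congr (ae_of_all _ fun v => ?_)
      simp only [Circle.smul_def, Real.fourierChar_apply]
      congr 2
      push_cast
      ring
    rw [← integral_sub hi hC_int]
    refine (norm_integral_le_integral_norm _).trans ?_
    have h2 : ∀ v : ℝ, ‖cexp (↑(-2 * Real.pi * inner ℝ v z) * I) • hC v - hC v‖ ≤
        (1 / 2) * bmp.normed volume v := by
      intro v
      have hn : 0 ≤ bmp.normed volume v := bmp.nonneg_normed v
      by_cases hv : 1 / 16 ≤ |v|
      · rw [hC_zero hv]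
        simp only [smul_zero, sub_zero, norm_zero]
        positivity
      push Not at hv
      have e1 : cexp (↑(-2 * Real.pi * inner ℝ v z) * I) • hC v - hC v =
          (cexp (↑(-2 * Real.pi * inner ℝ v z) * I) - 1) * hC v := by
        rw [smul_eq_mul]; ring
      rw [e1, norm_mul]
      have e2 : ‖hC v‖ = bmp.normed volume v := by
        unfold hC
        rw [Complex.norm_real, Real.norm_eq_abs, abs_of_nonneg hn]
      rw [e2]
      have e3 : ‖cexp (↑(-2 * Real.pi * inner ℝ v z) * I) - 1‖ ≤ 1 / 2 := by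
        have := Real.norm_exp_I_mul_ofReal_sub_one_le (x := -2 * Real.pi * inner ℝ v z)
        rw [mul_comm I] at this
        refine this.trans ?_
        simp only [Real.norm_eq_abs, RCLike.inner_apply, conj_trivial]
        rw [abs_mul, abs_mul, abs_neg, abs_two, abs_of_pos Real.pi_pos, abs_mul]
        have hp := Real.pi_lt_four
        have hp0 := Real.pi_pos
        have hzv : |z| * |v| ≤ 1 / 16 := by
          nlinarith [abs_nonneg z, abs_nonneg v]
        have hzv' : |v| * |z| ≤ 1 / 16 := by rw [mul_comm]; exact hzv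
        first
        | nlinarith [hzv, abs_nonneg z, abs_nonneg v]
        | nlinarith [hzv', abs_nonneg z, abs_nonneg v]
      exact mul_le_mul_of_nonneg_right e3 hn
    refine (integral_mono_of_nonneg (ae_of_all _ fun v => norm_nonneg _) ?_
      (ae_of_all _ h2)).trans ?_
    · exact (bmp.integrable_normed).const_mul _
    · rw [integral_const_mul, bmp.integral_normed]
      norm_num
  have h3 : (1 : ℝ) - ‖𝓕 hC z‖ ≤ 1 / 2 := by
    have := norm_sub_norm_le (1 : ℂ) (𝓕 hC z)
    rw [norm_one, norm_sub_rev] at this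
    linarith
  have h4 : 1 / 2 ≤ ‖𝓕 hC z‖ := by linarith
  unfold W
  nlinarith

lemma W_int : Integrable W := by
  have h : MemLp (fun z => (𝓕 hS : 𝓢(ℝ, ℂ)) z) 2 volume := SchwartzMap.memLp _ 2 _
  have h2 := h.integrable_norm_pow (p := 2) (by norm_num)
  refine h2.congr (ae_of_all _ fun z => ?_)
  simp [W, fS]

lemma W_int_pow : Integrable (fun z : ℝ => (4 + |z|) ^ 2 * W z) := by
  obtain ⟨K, hK⟩ : ∃ K : ℝ, ∀ z, ‖(𝓕 hS : 𝓢(ℝ, ℂ)) z‖ ≤ K :=
    ⟨‖((𝓕 hS : 𝓢(ℝ, ℂ))).toBoundedContinuousFunction‖, fun z =>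
      BoundedContinuousFunction.norm_coe_le_norm
        ((𝓕 hS : 𝓢(ℝ, ℂ))).toBoundedContinuousFunction z⟩
  have h0 := SchwartzMap.integrable_pow_mul volume (𝓕 hS : 𝓢(ℝ, ℂ)) 0
  have h1 := SchwartzMap.integrable_pow_mul volume (𝓕 hS : 𝓢(ℝ, ℂ)) 1
  have h2 := SchwartzMap.integrable_pow_mul volume (𝓕 hS : 𝓢(ℝ, ℂ)) 2
  have h3 := (((h0.const_mul 16).add (h1.const_mul 8)).add h2).const_mul K
  refine h3.mono' ?_ (ae_of_all _ fun z => ?_)
  · have : Continuous (fun z : ℝ => (4 + |z|) ^ 2 * W z) :=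
      ((continuous_const.add continuous_abs).pow 2).mul W_cont
    exact this.aestronglyMeasurable
  · have hn := norm_nonneg ((𝓕 hS : 𝓢(ℝ, ℂ)) z)
    have hk := hK z
    have e : W z = ‖(𝓕 hS : 𝓢(ℝ, ℂ)) z‖ ^ 2 := by simp [W, fS]
    rw [Real.norm_eq_abs, abs_of_nonneg (mul_nonneg (by positivity) (W_nonneg z)), e]
    simp only [Pi.add_apply, pow_zero, one_mul, pow_one, Real.norm_eq_abs]
    have h5 : 0 ≤ (4 + |z|) ^ 2 * ‖(𝓕 hS : 𝓢(ℝ, ℂ)) z‖ := by positivity
    have h6 : (4 + |z|) ^ 2 * ‖(𝓕 hS : 𝓢(ℝ, ℂ)) z‖ * ‖(𝓕 hS : 𝓢(ℝ, ℂ)) z‖ ≤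
        (4 + |z|) ^ 2 * ‖(𝓕 hS : 𝓢(ℝ, ℂ)) z‖ * K := mul_le_mul_of_nonneg_left hk h5
    nlinarith [h6]

/-- the Fourier transform of `W` vanishes off `(-1, 1)` -/
lemma W_hat {t : ℝ} (ht : 1 ≤ |t|) :
    ∫ z, (W z : ℂ) * cexp (2 * Real.pi * t * z * I) = 0 := by
  have e0 : ∀ z : ℝ, (W z : ℂ) * cexp (2 * Real.pi * t * z * I) =
      ∫ y, 𝓕 hC z * hC y * cexp (2 * Real.pi * (y + t) * z * I) := by
    intro z
    have h1 : (W z : ℂ) = 𝓕 hC z * (starRingEnd ℂ) (𝓕 hC z) := by
      rw [Complex.mul_conj, Complex.normSq_eq_norm_sq]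
      simp [W]
    have h2 : (starRingEnd ℂ) (𝓕 hC z) = ∫ y, hC y * cexp (2 * Real.pi * y * z * I) := by
      rw [Real.fourier_eq', ← integral_conj]
      congr 1
      ext y
      simp only [smul_eq_mul, map_mul, ← Complex.exp_conj, Complex.conj_ofReal, Complex.conj_I]
      have : (starRingEnd ℂ) (hC y) = hC y := by unfold hC; exact Complex.conj_ofReal _
      rw [this, mul_comm]
      congr 2
      simp only [RCLike.inner_apply, conj_trivial]
      push_cast
      ring
    rw [h1, h2, mul_assoc, ← integral_mul_const, ← integral_const_mul]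
    congr 1
    ext y
    rw [mul_assoc (𝓕 hC z), mul_assoc (hC y), ← Complex.exp_add]
    congr 3
    ring
  simp_rw [e0]
  have hint : Integrable (Function.uncurry fun (z y : ℝ) =>
      𝓕 hC z * hC y * cexp (2 * Real.pi * (y + t) * z * I)) (volume.prod volume) := by
    have hF : Integrable (fun z => 𝓕 hC z) := by
      have := (𝓕 hS : 𝓢(ℝ, ℂ)).integrable (μ := volume)
      refine this.congr (ae_of_all _ fun z => ?_)
      simp [fS]
    have hp := hF.mul_prod (f := fun z => 𝓕 hC z) (g := hC) hC_int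
    refine (hp.norm).mono' ?_ (ae_of_all _ fun p => ?_)
    · refine hp.aestronglyMeasurable.mul ?_
      have : Continuous (fun p : ℝ × ℝ => cexp (2 * Real.pi * (p.2 + t) * p.1 * I)) := by
        fun_prop
      exact this.aestronglyMeasurable
    · simp only [Function.uncurry, norm_mul]
      have : ‖cexp (2 * Real.pi * (p.2 + t) * p.1 * I)‖ = 1 := by
        have := Complex.norm_exp_ofReal_mul_I (2 * Real.pi * (p.2 + t) * p.1)
        rw [← this]
        push_cast
        rfl
      rw [this, mul_one]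
  rw [integral_integral_swap hint]
  have e1 : ∀ y : ℝ, ∫ z, 𝓕 hC z * hC y * cexp (2 * Real.pi * (y + t) * z * I) = 0 := by
    intro y
    by_cases hy : 1 / 16 ≤ |y|
    · simp [hC_zero hy]
    push Not at hy
    have h1 : ∀ z : ℝ, 𝓕 hC z * hC y * cexp (2 * Real.pi * (y + t) * z * I) =
        hC y * (cexp (2 * Real.pi * inner ℝ z (y + t) * I) • 𝓕 hC z) := by
      intro z
      simp only [RCLike.inner_apply, conj_trivial, smul_eq_mul]
      push_cast
      ring_nf
    simp_rw [h1]
    rw [integral_const_mul]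
    have h2 : ∫ z, cexp (2 * Real.pi * inner ℝ z (y + t) * I) • 𝓕 hC z = hC (y + t) := by
      have h3 : 𝓕⁻ (𝓕 hC) (y + t) = hC (y + t) := by
        have h4 : 𝓕⁻ (𝓕 hS) = hS := FourierTransform.fourierInv_fourier_eq hS
        have h5 : (𝓕⁻ (𝓕 hS) : 𝓢(ℝ, ℂ)) (y + t) = hS (y + t) := by rw [h4]
        rw [SchwartzMap.fourierInv_coe, SchwartzMap.fourier_coe, hS_coe] at h5
        exact h5
      rw [← h3, Real.fourierInv_eq']
      congr 1
      ext z
      push_cast
      rfl
    rw [h2]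
    have h6 : 1 / 16 ≤ |y + t| := by
      have := abs_sub_abs_le_abs_sub t (-y)
      rw [abs_neg, sub_neg_eq_add, add_comm t y] at this
      linarith
    rw [hC_zero h6, mul_zero]
  simp_rw [e1]
  simp

end Crest.Agent.R116.Lr370
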