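import Crest.Agent.R116.Lr1_370

/-! R116 (L3), part 2: the stopping-time partition of the direction arc at a fixed frequency. -/

set_option autoImplicit false

open MeasureTheory Filter Topology Complex

noncomputable section

namespace Crest.Agent.R116.Lr370

variable {ι : Type*}

/-- the exponential sum -/
def ES (S : Finset ι) (a : ι → ℂ) (ψ : ι → ℝ) (z : ℝ) : ℂ :=
  ∑ i ∈ S, a i * cexp (-(2 * Real.pi * ψ i * z) * I)

/-- energy of a family of exponentials -/
def J (S : Finset ι) (a : ι → ℂ) (ψ : ι → ℝ) : ℝ := ∫ z, W z * ‖ES S a ψ z‖ ^ 2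

lemma ES_cont (S : Finset ι) (a : ι → ℂ) (ψ : ι → ℝ) : Continuous (ES S a ψ) := by
  unfold ES
  fun_prop

lemma norm_e (x z : ℝ) : ‖cexp (-(2 * Real.pi * x * z) * I)‖ = 1 := by
  have := Complex.norm_exp_ofReal_mul_I (-(2 * Real.pi * x * z))
  rw [← this]
  push_cast
  rfl

lemma ES_le (S : Finset ι) (a : ι → ℂ) (ψ : ι → ℝ) (z : ℝ) :
    ‖ES S a ψ z‖ ≤ ∑ i ∈ S, ‖a i‖ := by
  unfold ES
  refine (norm_sum_le _ _).trans (Finset.sum_le_sum fun i _ => ?_)
  rw [norm_mul, norm_e, mul_one]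

lemma W_mul_int {f : ℝ → ℂ} (hf : Continuous f) {K : ℝ} (hK : ∀ z, ‖f z‖ ≤ K) :
    Integrable (fun z => (W z : ℂ) * f z) := by
  refine (W_int.mul_const K).mono' ?_ (ae_of_all _ fun z => ?_)
  · exact ((Complex.continuous_ofReal.comp W_cont).mul hf).aestronglyMeasurable
  · rw [norm_mul, Complex.norm_real, Real.norm_eq_abs, abs_of_nonneg (W_nonneg z)]
    exact mul_le_mul_of_nonneg_left (hK z) (W_nonneg z)

lemma J_int (S : Finset ι) (a : ι → ℂ) (ψ : ι → ℝ) :
    Integrable (fun z => W z * ‖ES S a ψ z‖ ^ 2) := by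
  refine (W_int.mul_const ((∑ i ∈ S, ‖a i‖) ^ 2)).mono' ?_ (ae_of_all _ fun z => ?_)
  · exact (W_cont.mul ((ES_cont S a ψ).norm.pow 2)).aestronglyMeasurable
  · rw [Real.norm_eq_abs, abs_of_nonneg (mul_nonneg (W_nonneg z) (by positivity))]
    exact mul_le_mul_of_nonneg_left
      (pow_le_pow_left₀ (norm_nonneg _) (ES_le S a ψ z) 2) (W_nonneg z)

lemma J_nonneg (S : Finset ι) (a : ι → ℂ) (ψ : ι → ℝ) : 0 ≤ J S a ψ :=
  integral_nonneg fun z => mul_nonneg (W_nonneg z) (by positivity)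

lemma J_empty (a : ι → ℂ) (ψ : ι → ℝ) : J (∅ : Finset ι) a ψ = 0 := by
  simp [J, ES]

/-- Cauchy-Schwarz over finitely many colours -/
lemma J_colors [DecidableEq ι] (S : Finset ι) (a : ι → ℂ) (ψ : ι → ℝ) (N : ℕ) (c : ι → ℕ)
    (hc : ∀ i ∈ S, c i < N) :
    J S a ψ ≤ N * ∑ n ∈ Finset.range N, J (S.filter fun i => c i = n) a ψ := by
  unfold J
  rw [← integral_finsetSum _ fun n _ => J_int _ a ψ, ← integral_const_mul]
  refine integral_mono (J_int S a ψ)
    ((integrable_finsetSum _ fun n _ => J_int _ a ψ).const_mul _) fun z => ?_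
  simp only
  rw [← Finset.mul_sum, mul_left_comm]
  refine mul_le_mul_of_nonneg_left ?_ (W_nonneg z)
  have e : ES S a ψ z = ∑ n ∈ Finset.range N, ES (S.filter fun i => c i = n) a ψ z := by
    unfold ES
    rw [Finset.sum_fiberwise_of_maps_to (g := c) (t := Finset.range N)
      (fun i hi => Finset.mem_range.2 (hc i hi))]
  rw [e]
  have h1 := norm_sum_le (Finset.range N) fun n => ES (S.filter fun i => c i = n) a ψ z
  have h2 := sq_sum_le_card_mul_sum_sq (s := Finset.range N)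
    (f := fun n => ‖ES (S.filter fun i => c i = n) a ψ z‖)
  rw [Finset.card_range] at h2
  exact (pow_le_pow_left₀ (norm_nonneg _) h1 2).trans h2

/-- two orthogonal families -/
lemma J_add {S T : Finset ι} [DecidableEq ι] (hST : Disjoint S T) (a : ι → ℂ) (ψ : ι → ℝ)
    (ho : ∀ i ∈ S, ∀ j ∈ T, 1 ≤ |ψ i - ψ j|) :
    J (S ∪ T) a ψ = J S a ψ + J T a ψ := by
  have e : ∀ z, W z * ‖ES (S ∪ T) a ψ z‖ ^ 2 =
      W z * ‖ES S a ψ z‖ ^ 2 + W z * ‖ES T a ψ z‖ ^ 2 +
        2 * ((W z : ℂ) * (ES S a ψ z * (starRingEnd ℂ) (ES T a ψ z))).re := by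
    intro z
    have e1 : ES (S ∪ T) a ψ z = ES S a ψ z + ES T a ψ z := by
      unfold ES; rw [Finset.sum_union hST]
    rw [e1, Complex.re_ofReal_mul]
    have := Complex.normSq_add (ES S a ψ z) (ES T a ψ z)
    rw [Complex.normSq_eq_norm_sq, Complex.normSq_eq_norm_sq, Complex.normSq_eq_norm_sq] at this
    rw [this]
    ring
  have hcr : Integrable
      (fun z => (W z : ℂ) * (ES S a ψ z * (starRingEnd ℂ) (ES T a ψ z))) := by
    refine W_mul_int (K := (∑ i ∈ S, ‖a i‖) * ∑ i ∈ T, ‖a i‖)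
      ((ES_cont S a ψ).mul (Complex.continuous_conj.comp (ES_cont T a ψ))) fun z => ?_
    rw [norm_mul, RCLike.norm_conj]
    exact mul_le_mul (ES_le S a ψ z) (ES_le T a ψ z) (norm_nonneg _)
      (Finset.sum_nonneg fun i _ => norm_nonneg _)
  have h0 : ∫ z, (W z : ℂ) * (ES S a ψ z * (starRingEnd ℂ) (ES T a ψ z)) = 0 := by
    have e2 : ∀ z, (W z : ℂ) * (ES S a ψ z * (starRingEnd ℂ) (ES T a ψ z)) =
        ∑ i ∈ S, ∑ j ∈ T, (a i * (starRingEnd ℂ) (a j)) *
          ((W z : ℂ) * cexp (2 * Real.pi * ((ψ j - ψ i : ℝ)) * z * I)) := by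
      intro z
      unfold ES
      rw [map_sum, Finset.sum_mul_sum, Finset.mul_sum]
      refine Finset.sum_congr rfl fun i _ => ?_
      rw [Finset.mul_sum]
      refine Finset.sum_congr rfl fun j _ => ?_
      rw [map_mul, ← Complex.exp_conj]
      have e3 : (starRingEnd ℂ) (-(2 * Real.pi * ψ j * z) * I) = (2 * Real.pi * ψ j * z) * I := by
        have h2 : (starRingEnd ℂ) (2 : ℂ) = 2 := by
          have := Complex.conj_ofReal 2
          push_cast at this
          exact this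
        simp [Complex.conj_ofReal, h2]
      rw [e3]
      have e4 : cexp (2 * Real.pi * ((ψ j - ψ i : ℝ)) * z * I) =
          cexp (-(2 * Real.pi * ψ i * z) * I) * cexp ((2 * Real.pi * ψ j * z) * I) := by
        rw [← Complex.exp_add]
        congr 1
        push_cast
        ring
      rw [e4]
      ring
    simp_rw [e2]
    have hii : ∀ t : ℝ, Integrable (fun z : ℝ => (W z : ℂ) * cexp (2 * Real.pi * t * z * I)) := by
      intro t
      refine W_mul_int (K := 1) (by fun_prop) fun z => ?_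
      have := norm_e (-t) z
      rw [← this]
      apply le_of_eq
      congr 2
      push_cast
      ring
    rw [integral_finsetSum _ fun i _ => integrable_finsetSum _ fun j _ =>
      (hii _).const_mul _]
    refine Finset.sum_eq_zero fun i hi => ?_
    rw [integral_finsetSum _ fun j _ => (hii _).const_mul _]
    refine Finset.sum_eq_zero fun j hj => ?_
    rw [integral_const_mul, W_hat (by rw [abs_sub_comm]; exact ho i hi j hj), mul_zero]
  have hre : Integrable
      (fun z => ((W z : ℂ) * (ES S a ψ z * (starRingEnd ℂ) (ES T a ψ z))).re) := hcr.re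
  have h1 : ∫ z, ((W z : ℂ) * (ES S a ψ z * (starRingEnd ℂ) (ES T a ψ z))).re = 0 := by
    have h2 := integral_re hcr
    simp only [RCLike.re_to_complex] at h2
    rw [h2, h0, Complex.zero_re]
  have h3 : ∫ z, (W z * ‖ES S a ψ z‖ ^ 2 + W z * ‖ES T a ψ z‖ ^ 2) =
      J S a ψ + J T a ψ := integral_add (J_int S a ψ) (J_int T a ψ)
  have h4 : Integrable (fun z => W z * ‖ES S a ψ z‖ ^ 2 + W z * ‖ES T a ψ z‖ ^ 2) :=
    (J_int S a ψ).add (J_int T a ψ)
  have h5 : J (S ∪ T) a ψ = ∫ z, (W z * ‖ES S a ψ z‖ ^ 2 + W z * ‖ES T a ψ z‖ ^ 2 +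
      2 * ((W z : ℂ) * (ES S a ψ z * (starRingEnd ℂ) (ES T a ψ z))).re) := by
    unfold J
    exact integral_congr_ae (ae_of_all _ e)
  rw [h5, integral_add h4 (hre.const_mul 2), h3, integral_const_mul, h1, mul_zero, add_zero]

/-- orthogonal classes -/
lemma J_orth [DecidableEq ι] (S : Finset ι) (a : ι → ℂ) (ψ : ι → ℝ) (p : ι → ℤ)
    (ho : ∀ i ∈ S, ∀ j ∈ S, p i ≠ p j → 1 ≤ |ψ i - ψ j|) :
    J S a ψ = ∑ k ∈ S.image p, J (S.filter fun i => p i = k) a ψ := by
  have key : ∀ K : Finset ℤ, J (S.filter fun i => p i ∈ K) a ψ =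
      ∑ k ∈ K, J (S.filter fun i => p i = k) a ψ := by
    intro K
    induction K using Finset.induction_on with
    | empty => simp [J_empty]
    | insert k K hk ih =>
      rw [Finset.sum_insert hk, ← ih, ← J_add]
      · congr 1
        ext i
        simp only [Finset.mem_filter, Finset.mem_insert, Finset.mem_union]
        tauto
      · rw [Finset.disjoint_left]
        intro i hi hi'
        simp only [Finset.mem_filter] at hi hi'
        exact hk (hi.2 ▸ hi'.2)
      · intro i hi j hj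
        simp only [Finset.mem_filter] at hi hj
        refine ho i hi.1 j hj.1 fun h => hk ?_
        rw [← hi.2, h]
        exact hj.2
  rw [← key]
  congr 1
  ext i
  simp only [Finset.mem_filter, Finset.mem_image]
  exact ⟨fun h => ⟨h, i, h, rfl⟩, fun h => h.1⟩

/-- classes with an orthogonal colouring -/
lemma J_colored [DecidableEq ι] (S : Finset ι) (a : ι → ℂ) (ψ : ι → ℝ) (p : ι → ℤ) (N : ℕ)
    (c : ℤ → ℕ) (hc : ∀ k, c k < N)
    (ho : ∀ i ∈ S, ∀ j ∈ S, c (p i) = c (p j) → p i ≠ p j → 1 ≤ |ψ i - ψ j|) :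
    J S a ψ ≤ N * ∑ k ∈ S.image p, J (S.filter fun i => p i = k) a ψ := by
  refine (J_colors S a ψ N (fun i => c (p i)) fun i _ => hc _).trans ?_
  refine mul_le_mul_of_nonneg_left ?_ (Nat.cast_nonneg N)
  have h1 : ∀ n ∈ Finset.range N, J (S.filter fun i => c (p i) = n) a ψ =
      ∑ k ∈ (S.image p).filter (fun k => c k = n), J (S.filter fun i => p i = k) a ψ := by
    intro n _
    rw [J_orth (S.filter fun i => c (p i) = n) a ψ p]
    · refine Finset.sum_congr ?_ fun k hk => ?_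
      · ext k
        simp only [Finset.mem_image, Finset.mem_filter]
        constructor
        · rintro ⟨i, ⟨hi, h⟩, rfl⟩
          exact ⟨⟨i, hi, rfl⟩, h⟩
        · rintro ⟨⟨i, hi, rfl⟩, h⟩
          exact ⟨i, ⟨hi, h⟩, rfl⟩
      · congr 1
        ext i
        simp only [Finset.mem_image, Finset.mem_filter] at hk ⊢
        have hck := hk.2
        constructor
        · rintro ⟨⟨hi, _⟩, h⟩; exact ⟨hi, h⟩
        · rintro ⟨hi, h⟩; exact ⟨⟨hi, by rw [h]; exact hck⟩, h⟩
    · intro i hi j hj hne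
      simp only [Finset.mem_filter] at hi hj
      exact ho i hi.1 j hj.1 (hi.2.trans hj.2.symm) hne
  rw [Finset.sum_congr rfl h1]
  rw [Finset.sum_fiberwise_of_maps_to (g := c) (t := Finset.range N)
      (fun k _ => Finset.mem_range.2 (hc k))]

end Crest.Agent.R116.Lr370
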