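import Crest.Agent.R116.Lr2_370

/-! R116 (L3), part 3: arcs, the frequency condition and the stopping-time inequality. -/

set_option autoImplicit false

open MeasureTheory Filter Topology Complex

noncomputable section

namespace Crest.Agent.R116.Lr370

/-- arc index of a direction at level `m` -/
def kk (c0 φ : ℝ) (m : ℕ) (x : ℝ) : ℤ := ⌊(x - c0) * 2 ^ m / φ⌋

/-- arc centre -/
def cc (c0 φ : ℝ) (m : ℕ) (k : ℤ) : ℝ := c0 + (k + 1 / 2) * (φ / 2 ^ m)

/-- frequency condition of an arc -/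
def U (c0 φ : ℝ) (m : ℕ) (k : ℤ) (ξ η : ℝ) : Prop :=
  |ξ + cc c0 φ m k * η| ≤ 4 * (2 ^ m / φ) ∧ |η| ≤ 4 * (2 ^ m / φ) ^ 2

lemma kk_parent (c0 φ : ℝ) (m : ℕ) (x : ℝ) : kk c0 φ m x = kk c0 φ (m + 1) x / 2 := by
  unfold kk
  have e : (x - c0) * 2 ^ (m + 1) / φ = 2 * ((x - c0) * 2 ^ m / φ) := by ring
  rw [e]
  set y := (x - c0) * 2 ^ m / φ
  have h1 := Int.floor_le y
  have h2 := Int.lt_floor_add_one y
  have h3 : 2 * ⌊y⌋ ≤ ⌊2 * y⌋ := by
    rw [Int.le_floor]; push_cast; linarith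
  have h4 : ⌊2 * y⌋ < 2 * ⌊y⌋ + 2 := by
    rw [Int.floor_lt]; push_cast; linarith
  omega

lemma kk_down {c0 φ : ℝ} {m : ℕ} {x y : ℝ} (h : kk c0 φ m x = kk c0 φ m y) :
    ∀ m', m' ≤ m → kk c0 φ m' x = kk c0 φ m' y := by
  induction m with
  | zero => intro m' hm; obtain rfl : m' = 0 := by omega
            exact h
  | succ m ih =>
    intro m' hm
    rcases Nat.lt_or_ge m' (m + 1) with h1 | h1
    · refine ih ?_ m' (by omega)
      rw [kk_parent c0 φ m x, kk_parent c0 φ m y, h]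
    · obtain rfl : m' = m + 1 := by omega
      exact h

lemma kk_bounds {c0 φ : ℝ} (hφ : 0 < φ) (m : ℕ) (x : ℝ) :
    c0 + kk c0 φ m x * (φ / 2 ^ m) ≤ x ∧ x < c0 + (kk c0 φ m x + 1) * (φ / 2 ^ m) := by
  have h1 := Int.floor_le ((x - c0) * 2 ^ m / φ)
  have h2 := Int.lt_floor_add_one ((x - c0) * 2 ^ m / φ)
  have h3 : (0 : ℝ) < φ / 2 ^ m := by positivity
  have e : (x - c0) * 2 ^ m / φ * (φ / 2 ^ m) = x - c0 := by field_simp
  unfold kk
  constructor
  · have := mul_le_mul_of_nonneg_right h1 h3.le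
    rw [e] at this; linarith
  · have := mul_lt_mul_of_pos_right h2 h3
    rw [e] at this; linarith

lemma kk_center {c0 φ : ℝ} (hφ : 0 < φ) (m : ℕ) (x : ℝ) :
    |x - cc c0 φ m (kk c0 φ m x)| ≤ φ / 2 ^ m / 2 := by
  have h := kk_bounds (c0 := c0) hφ m x
  unfold cc
  rw [abs_le]
  constructor <;> linarith [h.1, h.2]

/-- colour of an arc -/
def col (c0 φ : ℝ) (m : ℕ) (ξ η : ℝ) (k : ℤ) : ℕ :=
  if 2 ^ m / φ ≤ (ξ + cc c0 φ m k * η) - φ / 2 ^ m / 2 * |η| then 3 + (k % 2).toNat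
  else if 2 ^ m / φ ≤ -(ξ + cc c0 φ m k * η) - φ / 2 ^ m / 2 * |η| then 5 + (k % 2).toNat
  else (k % 3).toNat

lemma col_lt (c0 φ : ℝ) (m : ℕ) (ξ η : ℝ) (k : ℤ) : col c0 φ m ξ η k < 7 := by
  unfold col
  split_ifs <;> omega

lemma far_sep {s t ξ η x x' : ℝ} (hs : 0 < s) (ht : s * t = 1) (hx : t ≤ ξ + x * η)
    (hx' : t ≤ ξ + x' * η) (hd : s ≤ |x - x'|) :
    1 ≤ |(x * ξ + x ^ 2 / 2 * η) - (x' * ξ + x' ^ 2 / 2 * η)| := by
  have e : (x * ξ + x ^ 2 / 2 * η) - (x' * ξ + x' ^ 2 / 2 * η) =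
      (x - x') * (((ξ + x * η) + (ξ + x' * η)) / 2) := by ring
  have ht0 : 0 < t := by
    by_contra h
    push Not at h
    nlinarith
  rw [e, abs_mul, ← ht]
  refine mul_le_mul hd ?_ ht0.le (abs_nonneg _)
  rw [abs_of_nonneg (by linarith)]
  linarith

lemma far_sep' {s t ξ η x x' : ℝ} (hs : 0 < s) (ht : s * t = 1) (hx : t ≤ -(ξ + x * η))
    (hx' : t ≤ -(ξ + x' * η)) (hd : s ≤ |x - x'|) :
    1 ≤ |(x * ξ + x ^ 2 / 2 * η) - (x' * ξ + x' ^ 2 / 2 * η)| := by
  have := far_sep (ξ := -ξ) (η := -η) hs ht (x := x) (x' := x') (by linarith) (by linarith) hd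
  have e : (x * -ξ + x ^ 2 / 2 * -η) - (x' * -ξ + x' ^ 2 / 2 * -η) =
      -((x * ξ + x ^ 2 / 2 * η) - (x' * ξ + x' ^ 2 / 2 * η)) := by ring
  rw [e, abs_neg] at this
  exact this

/-- separation of same coloured arcs whose parents fail -/
lemma sep_succ {c0 φ : ℝ} (hφ : 0 < φ) (m : ℕ) (ξ η x x' : ℝ)
    (h1 : ¬ U c0 φ m (kk c0 φ m x) ξ η) (h2 : ¬ U c0 φ m (kk c0 φ m x') ξ η)
    (hc : col c0 φ (m + 1) ξ η (kk c0 φ (m + 1) x) =
      col c0 φ (m + 1) ξ η (kk c0 φ (m + 1) x'))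
    (hne : kk c0 φ (m + 1) x ≠ kk c0 φ (m + 1) x') :
    1 ≤ |(x * ξ + x ^ 2 / 2 * η) - (x' * ξ + x' ^ 2 / 2 * η)| := by
  have hx := kk_bounds (c0 := c0) hφ (m + 1) x
  have hx' := kk_bounds (c0 := c0) hφ (m + 1) x'
  have hcx := kk_center (c0 := c0) hφ (m + 1) x
  have hcx' := kk_center (c0 := c0) hφ (m + 1) x'
  have hp : kk c0 φ m x = kk c0 φ (m + 1) x / 2 := kk_parent _ _ _ _
  have hp' : kk c0 φ m x' = kk c0 φ (m + 1) x' / 2 := kk_parent _ _ _ _
  rw [hp] at h1
  rw [hp'] at h2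
  set k := kk c0 φ (m + 1) x with hk
  set k' := kk c0 φ (m + 1) x' with hk'
  set s := φ / 2 ^ (m + 1) with hs
  set t := 2 ^ (m + 1) / φ with ht
  have hs0 : 0 < s := by positivity
  have ht0 : 0 < t := by positivity
  have hst : s * t = 1 := by rw [hs, ht]; field_simp
  have e2 : (2 : ℝ) ^ m / φ = t / 2 := by rw [ht, pow_succ]; ring
  have e3 : φ / 2 ^ m = 2 * s := by rw [hs, pow_succ]; field_simp
  -- distance of arcs
  have hdist : ∀ a b : ℤ, 2 ≤ |a - b| → ∀ u v : ℝ, (c0 + a * s ≤ u ∧ u < c0 + (a + 1) * s) →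
      (c0 + b * s ≤ v ∧ v < c0 + (b + 1) * s) → s ≤ |u - v| := by
    intro a b hab u v hu hv
    rcases le_abs.1 hab with h | h
    · have h' : (b : ℝ) + 2 ≤ a := by exact_mod_cast (by omega : b + 2 ≤ a)
      rw [le_abs]; left
      nlinarith [hu.1, hv.2]
    · have h' : (a : ℝ) + 2 ≤ b := by exact_mod_cast (by omega : a + 2 ≤ b)
      rw [le_abs]; right
      nlinarith [hu.2, hv.1]
  -- values inside an arc
  have hin : ∀ (j : ℤ) (u : ℝ), |u - cc c0 φ (m + 1) j| ≤ s / 2 →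
      (ξ + cc c0 φ (m + 1) j * η) - s / 2 * |η| ≤ ξ + u * η ∧
      ξ + u * η ≤ (ξ + cc c0 φ (m + 1) j * η) + s / 2 * |η| := by
    intro j u hu
    have h3 : |(u - cc c0 φ (m + 1) j) * η| ≤ s / 2 * |η| := by
      rw [abs_mul]; exact mul_le_mul_of_nonneg_right hu (abs_nonneg _)
    rw [abs_le] at h3
    constructor <;> nlinarith [h3.1, h3.2]
  -- near arcs have large `η`
  have hnear : ∀ j : ℤ, ¬ U c0 φ m (j / 2) ξ η →
      ¬ t ≤ (ξ + cc c0 φ (m + 1) j * η) - s / 2 * |η| →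
      ¬ t ≤ -(ξ + cc c0 φ (m + 1) j * η) - s / 2 * |η| →
      |ξ + cc c0 φ (m + 1) j * η| < t + s / 2 * |η| ∧ t < s * |η| := by
    intro j hU hn1 hn2
    push Not at hn1 hn2
    have hy : |ξ + cc c0 φ (m + 1) j * η| < t + s / 2 * |η| := by
      rw [abs_lt]; constructor <;> linarith
    refine ⟨hy, ?_⟩
    by_contra hcon
    push Not at hcon
    apply hU
    have hη : |η| ≤ t ^ 2 := by
      have : s * |η| * t ≤ t * t := mul_le_mul_of_nonneg_right hcon ht0.le
      have e : s * |η| * t = |η| := by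
        calc s * |η| * t = s * t * |η| := by ring
          _ = |η| := by rw [hst, one_mul]
      rw [e] at this
      nlinarith
    have hcp : |cc c0 φ m (j / 2) - cc c0 φ (m + 1) j| ≤ s / 2 := by
      unfold cc
      rw [e3, ← hs]
      have h5 : c0 + ((j / 2 : ℤ) + 1 / 2) * (2 * s) - (c0 + (j + 1 / 2) * s) =
          ((2 * (j / 2) - j : ℤ) + 1 / 2) * s := by push_cast; ring
      rw [h5, abs_mul, abs_of_pos hs0]
      have h6 : |(((2 * (j / 2) - j : ℤ) : ℝ) + 1 / 2)| ≤ 1 / 2 := by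
        have h7 : (2 * (j / 2) - j : ℤ) = 0 ∨ (2 * (j / 2) - j : ℤ) = -1 := by omega
        rcases h7 with h7 | h7 <;> rw [h7] <;> norm_num [abs_le]
      nlinarith
    constructor
    · rw [e2]
      have h8 : |(cc c0 φ m (j / 2) - cc c0 φ (m + 1) j) * η| ≤ s / 2 * |η| := by
        rw [abs_mul]; exact mul_le_mul_of_nonneg_right hcp (abs_nonneg _)
      have h9 : ξ + cc c0 φ m (j / 2) * η = (ξ + cc c0 φ (m + 1) j * η) +
          (cc c0 φ m (j / 2) - cc c0 φ (m + 1) j) * η := by ring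
      rw [h9]
      refine (abs_add_le _ _).trans ?_
      nlinarith
    · rw [e2]; nlinarith
  unfold col at hc
  rw [← hs, ← ht] at hc
  by_cases a1 : t ≤ (ξ + cc c0 φ (m + 1) k * η) - s / 2 * |η|
  · rw [if_pos a1] at hc
    by_cases b1 : t ≤ (ξ + cc c0 φ (m + 1) k' * η) - s / 2 * |η|
    · rw [if_pos b1] at hc
      have h3 : 2 ≤ |k - k'| := by
        rw [le_abs]; omega
      exact far_sep hs0 hst (a1.trans (hin k x hcx).1) (b1.trans (hin k' x' hcx').1)
        (hdist k k' h3 x x' hx hx')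
    · rw [if_neg b1] at hc
      by_cases b2 : t ≤ -(ξ + cc c0 φ (m + 1) k' * η) - s / 2 * |η|
      · rw [if_pos b2] at hc; omega
      · rw [if_neg b2] at hc; omega
  · rw [if_neg a1] at hc
    by_cases a2 : t ≤ -(ξ + cc c0 φ (m + 1) k * η) - s / 2 * |η|
    · rw [if_pos a2] at hc
      by_cases b1 : t ≤ (ξ + cc c0 φ (m + 1) k' * η) - s / 2 * |η|
      · rw [if_pos b1] at hc; omega
      · rw [if_neg b1] at hc
        by_cases b2 : t ≤ -(ξ + cc c0 φ (m + 1) k' * η) - s / 2 * |η|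
        · rw [if_pos b2] at hc
          have h3 : 2 ≤ |k - k'| := by
            rw [le_abs]; omega
          refine far_sep' hs0 hst ?_ ?_ (hdist k k' h3 x x' hx hx')
          · have := (hin k x hcx).2
            linarith
          · have := (hin k' x' hcx').2
            linarith
        · rw [if_neg b2] at hc; omega
    · rw [if_neg a2] at hc
      by_cases b1 : t ≤ (ξ + cc c0 φ (m + 1) k' * η) - s / 2 * |η|
      · rw [if_pos b1] at hc; omega
      · rw [if_neg b1] at hc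
        by_cases b2 : t ≤ -(ξ + cc c0 φ (m + 1) k' * η) - s / 2 * |η|
        · rw [if_pos b2] at hc; omega
        · rw [if_neg b2] at hc
          exfalso
          obtain ⟨n1, n2⟩ := hnear k h1 a1 a2
          obtain ⟨n3, n4⟩ := hnear k' h2 b1 b2
          have e4 : (ξ + cc c0 φ (m + 1) k * η) - (ξ + cc c0 φ (m + 1) k' * η) =
              ((k - k' : ℤ) : ℝ) * (s * η) := by
            unfold cc
            rw [← hs]; push_cast; ring
          have h3 : |((k - k' : ℤ) : ℝ)| * (s * |η|) < 3 * (s * |η|) := by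
            have h4 : |((k - k' : ℤ) : ℝ) * (s * η)| = |((k - k' : ℤ) : ℝ)| * (s * |η|) := by
              rw [abs_mul, abs_mul, abs_of_pos hs0]
            rw [← h4, ← e4]
            refine lt_of_le_of_lt (abs_sub _ _) ?_
            linarith
          have h5 : |((k - k' : ℤ) : ℝ)| < 3 := by
            have : 0 < s * |η| := ht0.trans n2
            exact lt_of_mul_lt_mul_right h3 this.le
          have h6 : |k - k'| < 3 := by exact_mod_cast h5
          rw [abs_lt] at h6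
          omega

/-- the frequency region of an arc (no condition at the last level) -/
def Us (c0 φ : ℝ) (M m : ℕ) (k : ℤ) (ξ η : ℝ) : Prop := m = M ∨ U c0 φ m k ξ η

open Classical in
/-- the stopping-time inequality -/
theorem J_stop {ι : Type*} [DecidableEq ι] (S : Finset ι) (C : ι → ℝ) (c0 φ : ℝ) (hφ : 0 < φ)
    (hC : ∀ i ∈ S, c0 ≤ C i ∧ C i ≤ c0 + φ) (M : ℕ) (ξ η : ℝ) (a : ι → ℂ) :
    J S a (fun i => C i * ξ + C i ^ 2 / 2 * η) ≤ 7 * (M + 1) *
      ∑ m ∈ Finset.range (M + 1), ∑ k ∈ S.image (fun i => kk c0 φ m (C i)),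
        (if Us c0 φ M m k ξ η then J (S.filter fun i => kk c0 φ m (C i) = k) a
            (fun i => C i * ξ + C i ^ 2 / 2 * η) else 0) := by
  set ψ : ι → ℝ := fun i => C i * ξ + C i ^ 2 / 2 * η with hψ
  have hex : ∀ i, ∃ m, m = M ∨ U c0 φ m (kk c0 φ m (C i)) ξ η := fun i => ⟨M, Or.inl rfl⟩
  set mst : ι → ℕ := fun i => Nat.find (hex i) with hmst
  have hle : ∀ i, mst i ≤ M := fun i => Nat.find_min' (hex i) (Or.inl rfl)
  have hspec : ∀ i, mst i = M ∨ U c0 φ (mst i) (kk c0 φ (mst i) (C i)) ξ η :=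
    fun i => Nat.find_spec (hex i)
  have hmin : ∀ i m', m' < mst i → ¬ (m' = M ∨ U c0 φ m' (kk c0 φ m' (C i)) ξ η) :=
    fun i m' h => Nat.find_min (hex i) h
  have h1 := J_colors S a ψ (M + 1) mst fun i _ => Nat.lt_succ_of_le (hle i)
  have h2 : ∀ m ∈ Finset.range (M + 1), J (S.filter fun i => mst i = m) a ψ ≤
      7 * ∑ k ∈ S.image (fun i => kk c0 φ m (C i)),
        (if Us c0 φ M m k ξ η then J (S.filter fun i => kk c0 φ m (C i) = k) a ψ else 0) := by
    intro m hm
    have hm' : m ≤ M := by simpa [Nat.lt_succ_iff] using hm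
    have hcol : ∃ c : ℤ → ℕ, (∀ k, c k < 7) ∧
        ∀ i ∈ S.filter (fun i => mst i = m), ∀ j ∈ S.filter (fun i => mst i = m),
          c (kk c0 φ m (C i)) = c (kk c0 φ m (C j)) →
          kk c0 φ m (C i) ≠ kk c0 φ m (C j) → 1 ≤ |ψ i - ψ j| := by
      cases m with
      | zero =>
        refine ⟨fun k => (k % 2).toNat, fun k => by show (k % 2).toNat < 7; omega,
          fun i hi j hj hc hne => ?_⟩
        exfalso
        have hr : ∀ i ∈ S, kk c0 φ 0 (C i) = 0 ∨ kk c0 φ 0 (C i) = 1 := by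
          intro i hi
          have h3 := hC i hi
          have h4 : 0 ≤ (C i - c0) * 2 ^ 0 / φ := by
            rw [pow_zero, mul_one]; exact div_nonneg (by linarith) hφ.le
          have h5 : (C i - c0) * 2 ^ 0 / φ ≤ 1 := by
            rw [pow_zero, mul_one, div_le_one hφ]; linarith
          have h6 : 0 ≤ kk c0 φ 0 (C i) := Int.floor_nonneg.2 h4
          have h7 : kk c0 φ 0 (C i) < 2 := by
            unfold kk
            rw [Int.floor_lt]; push_cast; linarith
          omega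
        have hi' := hr i (Finset.mem_filter.1 hi).1
        have hj' := hr j (Finset.mem_filter.1 hj).1
        simp only at hc
        omega
      | succ m =>
        refine ⟨col c0 φ (m + 1) ξ η, fun k => col_lt _ _ _ _ _ _, fun i hi j hj hc hne => ?_⟩
        have hi1 := (Finset.mem_filter.1 hi).2
        have hj1 := (Finset.mem_filter.1 hj).2
        have h3 := hmin i m (by omega)
        have h4 := hmin j m (by omega)
        push Not at h3 h4
        exact sep_succ hφ m ξ η (C i) (C j) h3.2 h4.2 hc hne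
    obtain ⟨c, hc7, hcs⟩ := hcol
    have h3 := J_colored (S.filter fun i => mst i = m) a ψ (fun i => kk c0 φ m (C i)) 7 c hc7 hcs
    refine h3.trans ?_
    push_cast
    refine mul_le_mul_of_nonneg_left ?_ (by norm_num)
    have hsub : (S.filter fun i => mst i = m).image (fun i => kk c0 φ m (C i)) ⊆
        S.image (fun i => kk c0 φ m (C i)) :=
      Finset.image_subset_image (Finset.filter_subset _ _)
    refine le_trans (Finset.sum_le_sum fun k hk => ?_)
      (Finset.sum_le_sum_of_subset_of_nonneg hsub fun k _ _ => by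
        split_ifs
        · exact J_nonneg _ _ _
        · exact le_rfl)
    obtain ⟨i0, hi0, hk0⟩ := Finset.mem_image.1 hk
    have hi0m := (Finset.mem_filter.1 hi0).2
    have hcond : m = M ∨ U c0 φ m k ξ η := by
      have := hspec i0
      rw [hi0m] at this
      rw [← hk0]
      exact this
    have hmem : Us c0 φ M m k ξ η := hcond
    rw [if_pos hmem]
    have hset : (S.filter fun i => mst i = m).filter (fun i => kk c0 φ m (C i) = k) =
        S.filter fun i => kk c0 φ m (C i) = k := by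
      ext i
      simp only [Finset.mem_filter]
      constructor
      · rintro ⟨⟨h, _⟩, h'⟩; exact ⟨h, h'⟩
      · rintro ⟨h, h'⟩
        refine ⟨⟨h, ?_⟩, h'⟩
        have hd := kk_down (h'.trans hk0.symm)
        have ha : mst i ≤ m := by
          refine Nat.find_min' (hex i) ?_
          rw [h']
          exact hcond
        have hb : m ≤ mst i := by
          by_contra hlt
          push Not at hlt
          have h4 := hspec i
          have h5 := hmin i0 (mst i) (by omega)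
          rw [← hd (mst i) (by omega)] at h5
          exact h5 h4
        omega
    rw [hset]
  calc J S a ψ ≤ ((M + 1 : ℕ) : ℝ) * ∑ m ∈ Finset.range (M + 1),
        J (S.filter fun i => mst i = m) a ψ := h1
    _ ≤ ((M + 1 : ℕ) : ℝ) * ∑ m ∈ Finset.range (M + 1),
        (7 * ∑ k ∈ S.image (fun i => kk c0 φ m (C i)),
        (if Us c0 φ M m k ξ η then J (S.filter fun i => kk c0 φ m (C i) = k) a ψ else 0)) :=
        mul_le_mul_of_nonneg_left (Finset.sum_le_sum h2) (Nat.cast_nonneg _)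
    _ = _ := by
        rw [← Finset.mul_sum]
        push_cast
        ring

end Crest.Agent.R116.Lr370
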