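import Crest.Agent.R116.Lr3_370
import Crest.Agent.R138.Fq2_665

/-! R116 (L3), part 4: planks at a fixed height and their Fourier transform. -/

set_option autoImplicit false

open MeasureTheory Filter Topology Complex
open scoped FourierTransform ENNReal

noncomputable section

namespace Crest.Agent.R116.Lr370

/-- the plane -/
abbrev E2 := EuclideanSpace ℝ (Fin 2)

/-- coordinates on the plane -/
def e2 : E2 ≃ᵐ ℝ × ℝ :=
  (MeasurableEquiv.toLp 2 (Fin 2 → ℝ)).symm.trans MeasurableEquiv.finTwoArrow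

lemma e2_apply (p : E2) : e2 p = (p 0, p 1) := rfl

lemma e2_mp : MeasurePreserving e2 (volume : Measure E2) volume :=
  (EuclideanSpace.volume_preserving_symm_measurableEquiv_toLp (Fin 2)).trans
    (volume_preserving_finTwoArrow ℝ)

lemma e2_symm (q : ℝ × ℝ) : e2.symm q = !₂[q.1, q.2] := by
  apply e2.injective
  rw [MeasurableEquiv.apply_symm_apply, e2_apply]
  simp

/-- sheared boxes -/
def bxs (c α β : ℝ) : Set E2 := {p | |p 0| ≤ α ∧ |p 1 - c * p 0| ≤ β}

lemma bxs_closed (c α β : ℝ) : IsClosed (bxs c α β) := by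
  have h1 : IsClosed {p : E2 | |p 0| ≤ α} := isClosed_le (by fun_prop) continuous_const
  have h2 : IsClosed {p : E2 | |p 1 - c * p 0| ≤ β} :=
    isClosed_le (by fun_prop) continuous_const
  exact h1.inter h2

lemma bxs_meas (c α β : ℝ) : MeasurableSet (bxs c α β) := (bxs_closed c α β).measurableSet

lemma vol_bxs (c : ℝ) {α β : ℝ} (hα : 0 ≤ α) (hβ : 0 ≤ β) :
    volume (bxs c α β) = ENNReal.ofReal (4 * α * β) := by
  have h1 : bxs c α β = e2 ⁻¹' {q : ℝ × ℝ | |q.1| ≤ α ∧ |q.2 - c * q.1| ≤ β} := by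
    ext p
    simp [bxs, e2_apply]
  have hm : MeasurableSet {q : ℝ × ℝ | |q.1| ≤ α ∧ |q.2 - c * q.1| ≤ β} := by
    have h1 : IsClosed {q : ℝ × ℝ | |q.1| ≤ α} := isClosed_le (by fun_prop) continuous_const
    have h2 : IsClosed {q : ℝ × ℝ | |q.2 - c * q.1| ≤ β} :=
      isClosed_le (by fun_prop) continuous_const
    exact (h1.inter h2).measurableSet
  rw [h1, e2_mp.measure_preimage hm.nullMeasurableSet, Measure.volume_eq_prod,
    Measure.prod_apply hm]
  have h2 : ∀ x : ℝ, volume (Prod.mk x ⁻¹' {q : ℝ × ℝ | |q.1| ≤ α ∧ |q.2 - c * q.1| ≤ β}) =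
      (Set.Icc (-α) α).indicator (fun _ => ENNReal.ofReal (2 * β)) x := by
    intro x
    by_cases hx : x ∈ Set.Icc (-α) α
    · rw [Set.indicator_of_mem hx]
      have : Prod.mk x ⁻¹' {q : ℝ × ℝ | |q.1| ≤ α ∧ |q.2 - c * q.1| ≤ β} =
          Set.Icc (c * x - β) (c * x + β) := by
        ext y
        simp only [Set.mem_preimage, Set.mem_ofPred_eq, Set.mem_Icc]
        rw [abs_le, abs_le]
        constructor
        · rintro ⟨_, h⟩; constructor <;> linarith [h.1, h.2]
        · rintro h; exact ⟨⟨hx.1, hx.2⟩, by linarith [h.1], by linarith [h.2]⟩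
      rw [this, Real.volume_Icc]
      congr 1
      ring
    · rw [Set.indicator_of_notMem hx]
      have : Prod.mk x ⁻¹' {q : ℝ × ℝ | |q.1| ≤ α ∧ |q.2 - c * q.1| ≤ β} = ∅ := by
        ext y
        simp only [Set.mem_preimage, Set.mem_ofPred_eq, Set.mem_empty_iff_false, iff_false,
          not_and]
        intro h
        exact absurd (abs_le.1 h) hx
      rw [this, measure_empty]
  simp_rw [h2]
  rw [lintegral_indicator measurableSet_Icc, lintegral_const, Measure.restrict_apply_univ,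
    Real.volume_Icc, ← ENNReal.ofReal_mul (by positivity)]
  congr 1
  ring

/-- indicator of a sheared box -/
def bx (c α β : ℝ) : E2 → ℂ := (bxs c α β).indicator fun _ => 1

lemma bx_int (c : ℝ) {α β : ℝ} (hα : 0 ≤ α) (hβ : 0 ≤ β) : Integrable (bx c α β) := by
  unfold bx
  rw [integrable_indicator_iff (bxs_meas c α β)]
  refine integrableOn_const ?_
  rw [vol_bxs c hα hβ]
  exact ENNReal.ofReal_ne_top

lemma bx_memLp (c : ℝ) {α β : ℝ} (hα : 0 ≤ α) (hβ : 0 ≤ β) : MemLp (bx c α β) 2 := by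
  unfold bx
  refine memLp_indicator_const 2 (bxs_meas c α β) 1 (Or.inr ?_)
  rw [vol_bxs c hα hβ]
  exact ENNReal.ofReal_ne_top

lemma norm_bx_le (c α β : ℝ) (p : E2) : ‖bx c α β p‖ ≤ 1 := by
  unfold bx
  by_cases h : p ∈ bxs c α β
  · rw [Set.indicator_of_mem h, norm_one]
  · rw [Set.indicator_of_notMem h, norm_zero]; exact zero_le_one

lemma inner2 (p k : E2) : inner ℝ p k = p 0 * k 0 + p 1 * k 1 := by
  simp [PiLp.inner_apply, Fin.sum_univ_two, mul_comm]

lemma fourier_bx_ge (c : ℝ) {α β : ℝ} (hα : 0 ≤ α) (hβ : 0 ≤ β) (k : E2)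
    (h : α * |k 0 + c * k 1| + β * |k 1| ≤ 1 / 8) : 2 * α * β ≤ ‖𝓕 (bx c α β) k‖ := by
  refine le_trans ?_ (Complex.abs_re_le_norm _)
  refine le_trans ?_ (le_abs_self _)
  rw [Real.fourier_eq']
  have hi : Integrable (fun v : E2 => cexp (↑(-2 * Real.pi * inner ℝ v k) * I) • bx c α β v) := by
    have := (Real.fourierIntegral_convergent_iff (f := bx c α β) (μ := volume) k).2
      (bx_int c hα hβ)
    refine this.congr (ae_of_all _ fun v => ?_)
    simp only [Circle.smul_def, Real.fourierChar_apply]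
    congr 2
    push_cast
    ring
  have e1 : (∫ v : E2, cexp (↑(-2 * Real.pi * inner ℝ v k) * I) • bx c α β v).re =
      ∫ v : E2, (cexp (↑(-2 * Real.pi * inner ℝ v k) * I) • bx c α β v).re := by
    have := integral_re hi
    simp only [RCLike.re_to_complex] at this
    rw [this]
  rw [e1]
  have e2' : ∫ v : E2, (bxs c α β).indicator (fun _ => (1 / 2 : ℝ)) v = 2 * α * β := by
    rw [integral_indicator (bxs_meas c α β), setIntegral_const, Measure.real,
      vol_bxs c hα hβ, ENNReal.toReal_ofReal (by positivity)]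
    simp only [smul_eq_mul]
    ring
  rw [← e2']
  refine integral_mono_of_nonneg (ae_of_all _ fun v => ?_) hi.re (ae_of_all _ fun v => ?_)
  · exact Set.indicator_nonneg (fun _ _ => by norm_num) _
  · simp only
    by_cases hv : v ∈ bxs c α β
    · have hb : bx c α β v = 1 := by unfold bx; rw [Set.indicator_of_mem hv]
      rw [Set.indicator_of_mem hv, hb, smul_eq_mul, mul_one, Complex.exp_ofReal_mul_I_re]
      have h3 : |inner ℝ v k| ≤ 1 / 8 := by
        rw [inner2]
        have e3 : v 0 * k 0 + v 1 * k 1 = v 0 * (k 0 + c * k 1) + (v 1 - c * v 0) * k 1 := by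
          ring
        rw [e3]
        refine (abs_add_le _ _).trans (le_trans (add_le_add ?_ ?_) h)
        · rw [abs_mul]; exact mul_le_mul_of_nonneg_right hv.1 (abs_nonneg _)
        · rw [abs_mul]; exact mul_le_mul_of_nonneg_right hv.2 (abs_nonneg _)
      have h4 := Real.one_sub_sq_div_two_le_cos (x := -2 * Real.pi * inner ℝ v k)
      refine le_trans ?_ h4
      have h5 : (-2 * Real.pi * inner ℝ v k) ^ 2 ≤ 1 := by
        have h6 : |(-2 * Real.pi * inner ℝ v k)| ≤ 1 := by
          rw [abs_mul, abs_mul, abs_neg, abs_two, abs_of_pos Real.pi_pos]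
          have := Real.pi_lt_four
          have := Real.pi_pos
          nlinarith [abs_nonneg (inner ℝ v k)]
        rw [← sq_abs]
        exact pow_le_one₀ (abs_nonneg _) h6
      linarith
    · have hb : bx c α β v = 0 := by unfold bx; rw [Set.indicator_of_notMem hv]
      rw [Set.indicator_of_notMem hv, hb]
      simp

/-- position of a ray at height `z` -/
def ps (c x h z : ℝ) : E2 := !₂[x + z * c, h + z * (c ^ 2 / 2)]

@[simp] lemma ps_zero (c x h z : ℝ) : ps c x h z 0 = x + z * c := by simp [ps]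
@[simp] lemma ps_one (c x h z : ℝ) : ps c x h z 1 = h + z * (c ^ 2 / 2) := by simp [ps]

variable {ι : Type*}

/-- the sum of the planks at height `z` -/
def gg (S : Finset ι) (C X H w : ι → ℝ) (δ z : ℝ) : E2 → ℂ :=
  fun p => ∑ i ∈ S, (w i : ℂ) * bx (C i) δ (δ ^ 2) (p - ps (C i) (X i) (H i) z)

/-- Fourier coefficients -/
def aa (C X H w : ι → ℝ) (δ : ℝ) (k : E2) (i : ι) : ℂ :=
  (w i : ℂ) * 𝓕 (bx (C i) δ (δ ^ 2)) k * cexp (-(2 * Real.pi * (X i * k 0 + H i * k 1)) * I)

/-- phases -/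
def ph (C : ι → ℝ) (k : E2) (i : ι) : ℝ := C i * k 0 + C i ^ 2 / 2 * k 1

lemma fourier_shift {f : E2 → ℂ} (v k : E2) :
    𝓕 (fun p => f (p - v)) k = cexp (-(2 * Real.pi * inner ℝ v k) * I) * 𝓕 f k := by
  rw [Real.fourier_eq', Real.fourier_eq', ← integral_const_mul]
  have h := integral_sub_right_eq_self (μ := (volume : Measure E2))
    (fun p : E2 => cexp (↑(-2 * Real.pi * inner ℝ (p + v) k) * I) • f p) v
  simp only [sub_add_cancel] at h
  rw [h]
  congr 1
  ext p
  rw [inner_add_left, smul_eq_mul, smul_eq_mul, ← mul_assoc, ← Complex.exp_add]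
  congr 2
  push_cast
  ring

lemma shift_int (c : ℝ) {α β : ℝ} (hα : 0 ≤ α) (hβ : 0 ≤ β) (v : E2) :
    Integrable (fun p => bx c α β (p - v)) := (bx_int c hα hβ).comp_sub_right v

lemma gg_int (S : Finset ι) (C X H w : ι → ℝ) {δ : ℝ} (hδ : 0 ≤ δ) (z : ℝ) :
    Integrable (gg S C X H w δ z) := by
  unfold gg
  exact integrable_finsetSum _ fun i _ => (shift_int (C i) hδ (by positivity) _).const_mul _

lemma gg_memLp (S : Finset ι) (C X H w : ι → ℝ) {δ : ℝ} (hδ : 0 ≤ δ) (z : ℝ) :
    MemLp (gg S C X H w δ z) 2 := by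
  unfold gg
  refine memLp_finsetSum _ fun i _ => ?_
  have h := (bx_memLp (C i) hδ (show 0 ≤ δ ^ 2 by positivity)).comp_measurePreserving
    (measurePreserving_sub_right (volume : Measure E2) (ps (C i) (X i) (H i) z))
  exact h.const_mul _

lemma fourier_gg (S : Finset ι) (C X H w : ι → ℝ) {δ : ℝ} (hδ : 0 ≤ δ) (z : ℝ) (k : E2) :
    𝓕 (gg S C X H w δ z) k = ES S (aa C X H w δ k) (ph C k) z := by
  have h1 : 𝓕 (gg S C X H w δ z) k = ∑ i ∈ S,
      (w i : ℂ) * 𝓕 (fun p => bx (C i) δ (δ ^ 2) (p - ps (C i) (X i) (H i) z)) k := by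
    rw [Real.fourier_eq']
    unfold gg
    simp_rw [Finset.smul_sum]
    rw [integral_finsetSum]
    · refine Finset.sum_congr rfl fun i _ => ?_
      rw [Real.fourier_eq', ← integral_const_mul]
      congr 1
      ext p
      simp only [smul_eq_mul]
      ring
    · intro i _
      have h2 := (Real.fourierIntegral_convergent_iff
        (f := fun p => (w i : ℂ) * bx (C i) δ (δ ^ 2) (p - ps (C i) (X i) (H i) z))
        (μ := (volume : Measure E2)) k).2
        ((shift_int (C i) hδ (by positivity) _).const_mul _)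
      refine h2.congr (ae_of_all _ fun v => ?_)
      simp only [Circle.smul_def, Real.fourierChar_apply]
      congr 2
      push_cast
      ring
  rw [h1]
  unfold ES aa ph
  refine Finset.sum_congr rfl fun i _ => ?_
  rw [fourier_shift]
  have e : cexp (-(2 * Real.pi * inner ℝ (ps (C i) (X i) (H i) z) k) * I) =
      cexp (-(2 * Real.pi * (X i * k 0 + H i * k 1)) * I) *
      cexp (-(2 * Real.pi * (C i * k 0 + C i ^ 2 / 2 * k 1 : ℝ) * z) * I) := by
    rw [← Complex.exp_add, inner2, ps_zero, ps_one]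
    congr 1
    push_cast
    ring
  rw [e]
  ring

lemma fourier_cont {f : E2 → ℂ} (hf : Integrable f) : Continuous (𝓕 f) := by
  simpa using! VectorFourier.fourierIntegral_continuous (V := E2) (W := E2)
    Real.continuous_fourierChar (L := innerₗ E2) continuous_inner hf

lemma aa_cont (C X H w : ι → ℝ) {δ : ℝ} (hδ : 0 ≤ δ) (i : ι) :
    Continuous (fun k => aa C X H w δ k i) := by
  unfold aa
  have := fourier_cont (bx_int (C i) hδ (show 0 ≤ δ ^ 2 by positivity))
  fun_prop

lemma ph_cont (C : ι → ℝ) (i : ι) : Continuous (fun k => ph C k i) := by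
  unfold ph
  fun_prop

/-- Tonelli -/
lemma lint_J (S : Finset ι) (C X H w : ι → ℝ) {δ : ℝ} (hδ : 0 ≤ δ) (A : Set E2) :
    ∫⁻ z, ENNReal.ofReal (W z) * ∫⁻ k in A, ‖𝓕 (gg S C X H w δ z) k‖ₑ ^ 2 =
      ∫⁻ k in A, ENNReal.ofReal (J S (aa C X H w δ k) (ph C k)) := by
  have hc : Continuous (fun q : ℝ × E2 => ES S (aa C X H w δ q.2) (ph C q.2) q.1) := by
    unfold ES
    refine continuous_finsetSum _ fun i _ => ?_
    have h1 := (aa_cont C X H w hδ i).comp (continuous_snd (X := ℝ) (Y := E2))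
    have h2 := (ph_cont C i).comp (continuous_snd (X := ℝ) (Y := E2))
    simp only [Function.comp_def] at h1 h2
    fun_prop
  have hmeas : Measurable (fun q : ℝ × E2 =>
      ENNReal.ofReal (W q.1) * ‖ES S (aa C X H w δ q.2) (ph C q.2) q.1‖ₑ ^ 2) := by
    exact ((W_cont.measurable.comp measurable_fst).ennreal_ofReal).mul
      ((hc.measurable.enorm).pow_const 2)
  have e1 : ∀ z, ENNReal.ofReal (W z) * ∫⁻ k in A, ‖𝓕 (gg S C X H w δ z) k‖ₑ ^ 2 =
      ∫⁻ k in A, ENNReal.ofReal (W z) * ‖ES S (aa C X H w δ k) (ph C k) z‖ₑ ^ 2 := by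
    intro z
    rw [← lintegral_const_mul']
    · simp_rw [fourier_gg S C X H w hδ z]
    · exact ENNReal.ofReal_ne_top
  simp_rw [e1]
  rw [lintegral_lintegral_swap hmeas.aemeasurable]
  refine lintegral_congr fun k => ?_
  unfold J
  rw [ofReal_integral_eq_lintegral_ofReal (J_int _ _ _)
    (ae_of_all _ fun z => mul_nonneg (W_nonneg z) (by positivity))]
  refine lintegral_congr fun z => ?_
  rw [ENNReal.ofReal_mul (W_nonneg z), ENNReal.ofReal_pow (norm_nonneg _), ofReal_norm]

end Crest.Agent.R116.Lr370
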