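import Crest.Agent.R116.Lr4_370

/-! R116 (L3), part 5: covering, sup bounds and the estimate for one arc. -/

set_option autoImplicit false

open MeasureTheory Filter Topology Complex
open scoped FourierTransform ENNReal Convolution

noncomputable section

namespace Crest.Agent.R116.Lr370

variable {ι : Type*}

lemma cover1 [DecidableEq ι] (S : Finset ι) (w u : ι → ℝ) (hw : ∀ i ∈ S, 0 ≤ w i) {a K : ℝ}
    (ha : 0 < a) (h : ∀ c, ∑ i ∈ S.filter (fun i => |u i - c| ≤ a), w i ≤ K) (n : ℕ)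
    (hn : 1 ≤ n) (c : ℝ) :
    ∑ i ∈ S.filter (fun i => |u i - c| ≤ n * a), w i ≤ n * K := by
  set j : ι → ℕ := fun i => min ⌊(u i - c + n * a) / (2 * a)⌋₊ (n - 1) with hj
  set ce : ℕ → ℝ := fun l => c - n * a + (2 * l + 1) * a with hce
  have hmap : ∀ i ∈ S.filter (fun i => |u i - c| ≤ n * a), j i ∈ Finset.range n := by
    intro i _
    rw [Finset.mem_range]
    simp only [hj]
    omega
  rw [← Finset.sum_fiberwise_of_maps_to hmap]
  have h1 : ∀ l ∈ Finset.range n,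
      ∑ i ∈ (S.filter (fun i => |u i - c| ≤ n * a)).filter (fun i => j i = l), w i ≤ K := by
    intro l _
    refine le_trans (Finset.sum_le_sum_of_subset_of_nonneg ?_ ?_) (h (ce l))
    · intro i hi
      simp only [Finset.mem_filter] at hi ⊢
      obtain ⟨⟨hiS, hi1⟩, hil⟩ := hi
      refine ⟨hiS, ?_⟩
      rw [abs_le] at hi1
      have hy0 : 0 ≤ (u i - c + n * a) / (2 * a) := div_nonneg (by linarith [hi1.1]) (by positivity)
      have hf1 := Nat.floor_le hy0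
      have hf2 := Nat.lt_floor_add_one ((u i - c + n * a) / (2 * a))
      have h2a : (0 : ℝ) < 2 * a := by positivity
      rw [le_div_iff₀ h2a] at hf1
      rw [div_lt_iff₀ h2a] at hf2
      have hn' : (1 : ℝ) ≤ n := by exact_mod_cast hn
      simp only [hj] at hil
      simp only [hce]
      rcases le_total ⌊(u i - c + n * a) / (2 * a)⌋₊ (n - 1) with hc | hc
      · rw [min_eq_left hc] at hil
        rw [hil] at hf1 hf2
        rw [abs_le]
        constructor <;> nlinarith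
      · rw [min_eq_right hc] at hil
        have hln : (l : ℝ) + 1 = n := by
          have : l + 1 = n := by omega
          exact_mod_cast this
        have hge : (l : ℝ) ≤ ⌊(u i - c + n * a) / (2 * a)⌋₊ := by
          have : l ≤ ⌊(u i - c + n * a) / (2 * a)⌋₊ := by omega
          exact_mod_cast this
        have h5 : (l : ℝ) * (2 * a) ≤ u i - c + n * a :=
          (mul_le_mul_of_nonneg_right hge h2a.le).trans hf1
        rw [abs_le]
        constructor <;> nlinarith [hi1.2]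
    · intro i hi _
      exact hw i (Finset.mem_filter.1 hi).1
  refine (Finset.sum_le_sum h1).trans ?_
  rw [Finset.sum_const, Finset.card_range, nsmul_eq_mul]

/-- density hypothesis -/
def HD (S : Finset ι) (C X H w : ι → ℝ) (δ φ D : ℝ) : Prop :=
  ∀ c x n s : ℝ, δ ≤ s → s ≤ φ →
    (∑ i ∈ S.filter (fun i => |C i - c| ≤ s ∧ |X i - x| ≤ s ∧ |H i - c * X i - n| ≤ s ^ 2), w i)
      * δ ^ 3 ≤ D * s ^ 3

lemma box_sum {S : Finset ι} {C X H w : ι → ℝ} {δ φ D : ℝ} (hw : ∀ i ∈ S, 0 ≤ w i)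
    (hδ : 0 < δ) (hD : HD S C X H w δ φ D) {s : ℝ} (h1 : δ ≤ s) (h2 : s ≤ φ) (c x n : ℝ)
    (n1 n2 : ℕ) (hn1 : 1 ≤ n1) (hn2 : 1 ≤ n2) :
    (∑ i ∈ S.filter (fun i => |C i - c| ≤ s ∧ |X i - x| ≤ n1 * s ∧
      |H i - c * X i - n| ≤ n2 * s ^ 2), w i) ≤ n1 * (n2 * (D * s ^ 3 / δ ^ 3)) := by
  classical
  have hs : 0 < s := hδ.trans_le h1
  have a1 : ∀ x n : ℝ, ∑ i ∈ ((S.filter fun i => |C i - c| ≤ s ∧ |X i - x| ≤ s).filter
      fun i => |(H i - c * X i) - n| ≤ s ^ 2), w i ≤ D * s ^ 3 / δ ^ 3 := by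
    intro x n
    rw [le_div_iff₀ (by positivity)]
    refine le_trans (le_of_eq ?_) (hD c x n s h1 h2)
    rw [Finset.filter_filter]
    simp only [and_assoc]
  have a2 : ∀ x n : ℝ, ∑ i ∈ ((S.filter fun i => |C i - c| ≤ s ∧ |X i - x| ≤ s).filter
      fun i => |(H i - c * X i) - n| ≤ n2 * s ^ 2), w i ≤ n2 * (D * s ^ 3 / δ ^ 3) := by
    intro x n
    exact cover1 _ w (fun i => H i - c * X i) (fun i hi => hw i (Finset.mem_filter.1 hi).1)
      (by positivity) (a1 x) n2 hn2 n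
  have a3 : ∀ x : ℝ, ∑ i ∈ ((S.filter fun i => |C i - c| ≤ s ∧
      |H i - c * X i - n| ≤ n2 * s ^ 2).filter fun i => |X i - x| ≤ s), w i ≤
        n2 * (D * s ^ 3 / δ ^ 3) := by
    intro x
    refine le_trans (le_of_eq ?_) (a2 x n)
    congr 1
    ext i
    simp only [Finset.mem_filter]
    tauto
  have a4 := cover1 (S.filter fun i => |C i - c| ≤ s ∧ |H i - c * X i - n| ≤ n2 * s ^ 2) w X
    (fun i hi => hw i (Finset.mem_filter.1 hi).1) hs a3 n1 hn1 x
  refine le_trans (le_of_eq ?_) a4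
  congr 1
  ext i
  simp only [Finset.mem_filter]
  tauto

/-- rays which pass near a point of height `z` -/
lemma height_sum {S : Finset ι} {C X H w : ι → ℝ} {δ φ D : ℝ} (hw : ∀ i ∈ S, 0 ≤ w i)
    (hδ : 0 < δ) (hD0 : 0 ≤ D) (hD : HD S C X H w δ φ D) {s : ℝ} (h1 : δ ≤ s) (h2 : s ≤ φ)
    (c z : ℝ) (p : E2) (T : Finset ι) (hTS : T ⊆ S)
    (hT : ∀ i ∈ T, |C i - c| ≤ s ∧ |p 0 - (X i + z * C i)| ≤ 2 * s ∧
      |p 1 - (H i + z * (C i ^ 2 / 2)) - c * (p 0 - (X i + z * C i))| ≤ 3 * s ^ 2) :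
    ∑ i ∈ T, w i ≤ (4 + |z|) ^ 2 * (D * s ^ 3 / δ ^ 3) := by
  classical
  have hs : 0 < s := hδ.trans_le h1
  have hz := abs_nonneg z
  set n1 : ℕ := ⌈2 + |z|⌉₊ with hn1
  set n2 : ℕ := ⌈3 + |z|⌉₊ with hn2
  have g1 : 2 + |z| ≤ n1 := Nat.le_ceil _
  have g2 : 3 + |z| ≤ n2 := Nat.le_ceil _
  have g3 : (n1 : ℝ) < 2 + |z| + 1 := Nat.ceil_lt_add_one (by positivity)
  have g4 : (n2 : ℝ) < 3 + |z| + 1 := Nat.ceil_lt_add_one (by positivity)
  have g5 : 1 ≤ n1 := by
    have : (1 : ℝ) ≤ n1 := by linarith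
    exact_mod_cast this
  have g6 : 1 ≤ n2 := by
    have : (1 : ℝ) ≤ n2 := by linarith
    exact_mod_cast this
  have hb := box_sum hw hδ hD h1 h2 c (p 0 - z * c) (p 1 - c * p 0 + z * c ^ 2 / 2) n1 n2 g5 g6
  have hsub : T ⊆ S.filter (fun i => |C i - c| ≤ s ∧ |X i - (p 0 - z * c)| ≤ n1 * s ∧
      |H i - c * X i - (p 1 - c * p 0 + z * c ^ 2 / 2)| ≤ n2 * s ^ 2) := by
    intro i hi
    obtain ⟨e1, e2, e3⟩ := hT i hi
    rw [Finset.mem_filter]
    refine ⟨hTS hi, e1, ?_, ?_⟩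
    · have e : X i - (p 0 - z * c) = -(p 0 - (X i + z * C i)) - z * (C i - c) := by ring
      rw [e]
      refine (abs_sub _ _).trans ?_
      rw [abs_neg, abs_mul]
      have : |z| * |C i - c| ≤ |z| * s := mul_le_mul_of_nonneg_left e1 hz
      nlinarith
    · have e : H i - c * X i - (p 1 - c * p 0 + z * c ^ 2 / 2) =
          -(p 1 - (H i + z * (C i ^ 2 / 2)) - c * (p 0 - (X i + z * C i))) -
            z * ((C i - c) ^ 2 / 2) := by ring
      rw [e]
      refine (abs_sub _ _).trans ?_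
      rw [abs_neg, abs_mul]
      have h5 : |(C i - c) ^ 2 / 2| ≤ s ^ 2 := by
        rw [abs_of_nonneg (by positivity)]
        have := abs_le.1 e1
        nlinarith [sq_nonneg (C i - c)]
      have : |z| * |(C i - c) ^ 2 / 2| ≤ |z| * s ^ 2 := mul_le_mul_of_nonneg_left h5 hz
      have hs2 : 0 < s ^ 2 := by positivity
      nlinarith
  refine (Finset.sum_le_sum_of_subset_of_nonneg hsub fun i hi _ =>
    hw i (Finset.mem_filter.1 hi).1).trans (hb.trans ?_)
  have hK : 0 ≤ D * s ^ 3 / δ ^ 3 := by positivity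
  have h3 : (n1 : ℝ) * (n2 * (D * s ^ 3 / δ ^ 3)) ≤
      (4 + |z|) * ((4 + |z|) * (D * s ^ 3 / δ ^ 3)) := by
    refine mul_le_mul (by linarith) ?_ (by positivity) (by positivity)
    exact mul_le_mul_of_nonneg_right (by linarith) hK
  refine h3.trans (le_of_eq (by ring))

lemma norm_gg_le {T : Finset ι} {C X H w : ι → ℝ} (hw : ∀ i ∈ T, 0 ≤ w i) (δ z : ℝ) (p : E2) :
    ‖gg T C X H w δ z p‖ ≤
      ∑ i ∈ T, w i * (bxs (C i) δ (δ ^ 2)).indicator (fun _ => (1 : ℝ))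
        (p - ps (C i) (X i) (H i) z) := by
  unfold gg
  refine (norm_sum_le _ _).trans (Finset.sum_le_sum fun i hi => ?_)
  rw [norm_mul, Complex.norm_real, Real.norm_eq_abs, abs_of_nonneg (hw i hi)]
  refine mul_le_mul_of_nonneg_left ?_ (hw i hi)
  unfold bx
  by_cases h : p - ps (C i) (X i) (H i) z ∈ bxs (C i) δ (δ ^ 2)
  · rw [Set.indicator_of_mem h, Set.indicator_of_mem h, norm_one]
  · rw [Set.indicator_of_notMem h, Set.indicator_of_notMem h, norm_zero]

lemma lint_gg {T : Finset ι} {C X H w : ι → ℝ} (hw : ∀ i ∈ T, 0 ≤ w i) {δ : ℝ} (hδ : 0 ≤ δ)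
    (z : ℝ) : ∫⁻ p, ‖gg T C X H w δ z p‖ₑ ≤ ENNReal.ofReal (4 * δ ^ 3 * ∑ i ∈ T, w i) := by
  have h1 : ∀ p, ‖gg T C X H w δ z p‖ₑ ≤ ∑ i ∈ T, ENNReal.ofReal (w i) *
      (bxs (C i) δ (δ ^ 2)).indicator (fun _ => (1 : ℝ≥0∞)) (p - ps (C i) (X i) (H i) z) := by
    intro p
    rw [← ofReal_norm]
    refine (ENNReal.ofReal_le_ofReal (norm_gg_le hw δ z p)).trans ?_
    rw [ENNReal.ofReal_sum_of_nonneg]
    · refine Finset.sum_le_sum fun i hi => ?_
      rw [ENNReal.ofReal_mul (hw i hi)]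
      refine mul_le_mul_right ?_ _
      by_cases h : p - ps (C i) (X i) (H i) z ∈ bxs (C i) δ (δ ^ 2)
      · rw [Set.indicator_of_mem h, Set.indicator_of_mem h]; simp
      · rw [Set.indicator_of_notMem h, Set.indicator_of_notMem h]; simp
    · intro i hi
      exact mul_nonneg (hw i hi) (Set.indicator_nonneg (fun _ _ => zero_le_one) _)
  refine (lintegral_mono h1).trans ?_
  have hm : ∀ i, Measurable fun p : E2 =>
      (bxs (C i) δ (δ ^ 2)).indicator (fun _ => (1 : ℝ≥0∞)) (p - ps (C i) (X i) (H i) z) := by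
    intro i
    exact (measurable_const.indicator (bxs_meas _ _ _)).comp (measurable_sub_const _)
  rw [lintegral_finsetSum _ fun i _ => (hm i).const_mul _]
  have h2 : ∀ i ∈ T, ∫⁻ p, ENNReal.ofReal (w i) *
      (bxs (C i) δ (δ ^ 2)).indicator (fun _ => (1 : ℝ≥0∞)) (p - ps (C i) (X i) (H i) z) =
      ENNReal.ofReal (4 * δ ^ 3 * w i) := by
    intro i hi
    rw [lintegral_const_mul _ (hm i)]
    have h3 := lintegral_sub_right_eq_self (μ := (volume : Measure E2))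
      (fun p => (bxs (C i) δ (δ ^ 2)).indicator (fun _ => (1 : ℝ≥0∞)) p)
      (ps (C i) (X i) (H i) z)
    rw [h3, lintegral_indicator (bxs_meas _ _ _), setLIntegral_const, one_mul,
      vol_bxs _ hδ (by positivity), ← ENNReal.ofReal_mul (hw i hi)]
    congr 1
    ring
  rw [Finset.sum_congr rfl h2, ← ENNReal.ofReal_sum_of_nonneg]
  · rw [Finset.mul_sum]
  · intro i hi
    have := hw i hi
    positivity

end Crest.Agent.R116.Lr370
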