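import Crest.Agent.R116.Lr5_370

/-! R116 (L3), part 6: box averages and the estimate for one arc. -/

set_option autoImplicit false

open MeasureTheory Filter Topology Complex
open scoped FourierTransform ENNReal Convolution

noncomputable section

namespace Crest.Agent.R116.Lr370

variable {ι : Type*}

lemma conv_enorm_le (f g : E2 → ℂ) (p : E2) :
    ‖(f ⋆[ContinuousLinearMap.mul ℂ ℂ] g) p‖ₑ ≤ ∫⁻ t, ‖f t‖ₑ * ‖g (p - t)‖ₑ := by
  unfold MeasureTheory.convolution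
  refine (enorm_integral_le_lintegral_enorm _).trans (le_of_eq ?_)
  refine lintegral_congr fun t => ?_
  rw [ContinuousLinearMap.mul_apply', enorm_mul]

lemma young {f g : E2 → ℂ} (hf : Measurable f) (hg : Measurable g) :
    ∫⁻ p, ‖(f ⋆[ContinuousLinearMap.mul ℂ ℂ] g) p‖ₑ ≤ (∫⁻ t, ‖f t‖ₑ) * ∫⁻ p, ‖g p‖ₑ := by
  refine (lintegral_mono fun p => conv_enorm_le f g p).trans ?_
  have hm : Measurable (fun q : E2 × E2 => ‖f q.2‖ₑ * ‖g (q.1 - q.2)‖ₑ) :=
    ((hf.comp measurable_snd).enorm).mul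
      ((hg.comp (measurable_fst.sub measurable_snd)).enorm)
  rw [lintegral_lintegral_swap hm.aemeasurable]
  have h1 : ∀ t : E2, ∫⁻ p, ‖f t‖ₑ * ‖g (p - t)‖ₑ = ‖f t‖ₑ * ∫⁻ p, ‖g p‖ₑ := by
    intro t
    rw [lintegral_const_mul' _ _ enorm_ne_top]
    congr 1
    exact lintegral_sub_right_eq_self (μ := (volume : Measure E2)) (fun p => ‖g p‖ₑ) t
  simp_rw [h1]
  rw [lintegral_mul_const _ hf.enorm]

lemma bx_meas (c α β : ℝ) : Measurable (bx c α β) := by
  unfold bx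
  exact measurable_const.indicator (bxs_meas c α β)

lemma gg_meas (S : Finset ι) (C X H w : ι → ℝ) (δ z : ℝ) : Measurable (gg S C X H w δ z) := by
  unfold gg
  refine Finset.measurable_fun_sum _ fun i _ => ?_
  exact ((bx_meas _ _ _).comp (measurable_sub_const _)).const_mul _

lemma lint_bx (c : ℝ) {α β : ℝ} (hα : 0 ≤ α) (hβ : 0 ≤ β) :
    ∫⁻ t, ‖bx c α β t‖ₑ = ENNReal.ofReal (4 * α * β) := by
  have h1 : ∀ t, ‖bx c α β t‖ₑ = (bxs c α β).indicator (fun _ => (1 : ℝ≥0∞)) t := by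
    intro t
    unfold bx
    by_cases h : t ∈ bxs c α β
    · rw [Set.indicator_of_mem h, Set.indicator_of_mem h]; simp
    · rw [Set.indicator_of_notMem h, Set.indicator_of_notMem h]; simp
  simp_rw [h1]
  rw [lintegral_indicator (bxs_meas _ _ _), setLIntegral_const, one_mul, vol_bxs _ hα hβ]

lemma sq_le_of_sup {f : E2 → ℂ} {B : ℝ} (h : ∀ p, ‖f p‖ ≤ B) (hf : Measurable f) :
    ∫⁻ p, ‖f p‖ₑ ^ 2 ≤ ENNReal.ofReal B * ∫⁻ p, ‖f p‖ₑ := by
  rw [← lintegral_const_mul _ hf.enorm]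
  refine lintegral_mono fun p => ?_
  rw [sq]
  refine mul_le_mul_left ?_ _
  rw [← ofReal_norm]
  exact ENNReal.ofReal_le_ofReal (h p)

/-- sup bound at the finest level -/
lemma gg_sup {S T : Finset ι} {C X H w : ι → ℝ} {δ φ D : ℝ} (hw : ∀ i ∈ S, 0 ≤ w i)
    (hδ : 0 < δ) (hD0 : 0 ≤ D) (hD : HD S C X H w δ φ D) {s : ℝ} (h1 : δ ≤ s) (h2 : s ≤ φ)
    (c : ℝ) (hTS : T ⊆ S) (hT : ∀ i ∈ T, |C i - c| ≤ s / 2) (z : ℝ) (p : E2) :
    ‖gg T C X H w δ z p‖ ≤ (4 + |z|) ^ 2 * (D * s ^ 3 / δ ^ 3) := by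
  classical
  have hs : 0 < s := hδ.trans_le h1
  refine (norm_gg_le (fun i hi => hw i (hTS hi)) δ z p).trans ?_
  have e1 : ∑ i ∈ T, w i * (bxs (C i) δ (δ ^ 2)).indicator (fun _ => (1 : ℝ))
        (p - ps (C i) (X i) (H i) z) =
      ∑ i ∈ T.filter (fun i => p - ps (C i) (X i) (H i) z ∈ bxs (C i) δ (δ ^ 2)), w i := by
    rw [Finset.sum_filter]
    refine Finset.sum_congr rfl fun i _ => ?_
    by_cases h : p - ps (C i) (X i) (H i) z ∈ bxs (C i) δ (δ ^ 2)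
    · rw [Set.indicator_of_mem h, if_pos h, mul_one]
    · rw [Set.indicator_of_notMem h, if_neg h, mul_zero]
  rw [e1]
  refine height_sum hw hδ hD0 hD h1 h2 c z p _ ((Finset.filter_subset _ _).trans hTS) ?_
  intro i hi
  rw [Finset.mem_filter] at hi
  obtain ⟨hiT, hb1, hb2⟩ := hi
  have hc := hT i hiT
  simp only [PiLp.sub_apply, ps_zero, ps_one] at hb1 hb2
  refine ⟨by linarith, by linarith, ?_⟩
  have e : p 1 - (H i + z * (C i ^ 2 / 2)) - c * (p 0 - (X i + z * C i)) =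
      (p 1 - (H i + z * (C i ^ 2 / 2)) - C i * (p 0 - (X i + z * C i))) +
        (C i - c) * (p 0 - (X i + z * C i)) := by ring
  rw [e]
  refine (abs_add_le _ _).trans ?_
  rw [abs_mul]
  have h3 : |C i - c| * |p 0 - (X i + z * C i)| ≤ s / 2 * s :=
    mul_le_mul hc (hb1.trans h1) (abs_nonneg _) (by positivity)
  nlinarith

/-- sup bound of the average -/
lemma conv_sup {S T : Finset ι} {C X H w : ι → ℝ} {δ φ D : ℝ} (hw : ∀ i ∈ S, 0 ≤ w i)
    (hδ : 0 < δ) (hD0 : 0 ≤ D) (hD : HD S C X H w δ φ D) {s : ℝ} (h1 : δ ≤ s) (h2 : s ≤ φ)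
    (c : ℝ) (hTS : T ⊆ S) (hT : ∀ i ∈ T, |C i - c| ≤ s / 2) (z : ℝ) (p : E2) :
    ‖(bx c (s / 64) (s ^ 2 / 64) ⋆[ContinuousLinearMap.mul ℂ ℂ] gg T C X H w δ z) p‖ ≤
      4 * (4 + |z|) ^ 2 * (D * s ^ 3) := by
  classical
  have hs : 0 < s := hδ.trans_le h1
  set B := bxs c (s / 64) (s ^ 2 / 64) with hB
  set T' := T.filter (fun i => ∃ t ∈ B, p - t - ps (C i) (X i) (H i) z ∈ bxs (C i) δ (δ ^ 2))
    with hT'
  have hw' : ∀ i ∈ T, 0 ≤ w i := fun i hi => hw i (hTS hi)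
  have k1 : ‖(bx c (s / 64) (s ^ 2 / 64) ⋆[ContinuousLinearMap.mul ℂ ℂ]
      gg T C X H w δ z) p‖ₑ ≤ ∑ i ∈ T', ENNReal.ofReal (4 * δ ^ 3 * w i) := by
    refine (conv_enorm_le _ _ p).trans ?_
    have m1 : ∀ i : ι, Measurable fun t : E2 => (bxs (C i) δ (δ ^ 2)).indicator
        (fun _ => (1 : ℝ≥0∞)) (p - t - ps (C i) (X i) (H i) z) := by
      intro i
      exact (measurable_const.indicator (bxs_meas _ _ _)).comp
        ((measurable_const.sub measurable_id).sub measurable_const)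
    have k2 : ∀ t : E2, ‖bx c (s / 64) (s ^ 2 / 64) t‖ₑ * ‖gg T C X H w δ z (p - t)‖ₑ ≤
        ∑ i ∈ T', ENNReal.ofReal (w i) * (bxs (C i) δ (δ ^ 2)).indicator
          (fun _ => (1 : ℝ≥0∞)) (p - t - ps (C i) (X i) (H i) z) := by
      intro t
      by_cases ht : t ∈ B
      · have e1 : ‖bx c (s / 64) (s ^ 2 / 64) t‖ₑ = 1 := by
          unfold bx
          rw [Set.indicator_of_mem ht]; simp
        rw [e1, one_mul, ← ofReal_norm]
        refine (ENNReal.ofReal_le_ofReal (norm_gg_le hw' δ z (p - t))).trans ?_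
        rw [ENNReal.ofReal_sum_of_nonneg]
        · rw [hT', Finset.sum_filter]
          refine Finset.sum_le_sum fun i hi => ?_
          rw [ENNReal.ofReal_mul (hw' i hi)]
          by_cases h : p - t - ps (C i) (X i) (H i) z ∈ bxs (C i) δ (δ ^ 2)
          · rw [Set.indicator_of_mem h, if_pos ⟨t, ht, h⟩, Set.indicator_of_mem h]
            simp
          · rw [Set.indicator_of_notMem h]
            simp
        · intro i hi
          exact mul_nonneg (hw' i hi) (Set.indicator_nonneg (fun _ _ => zero_le_one) _)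
      · have e1 : ‖bx c (s / 64) (s ^ 2 / 64) t‖ₑ = 0 := by
          unfold bx
          rw [Set.indicator_of_notMem ht]; simp
        rw [e1, zero_mul]
        exact bot_le
    refine (lintegral_mono k2).trans ?_
    rw [lintegral_finsetSum _ fun i _ => (m1 i).const_mul _]
    refine Finset.sum_le_sum fun i hi => ?_
    have hi' : i ∈ T := (Finset.mem_filter.1 hi).1
    rw [lintegral_const_mul _ (m1 i)]
    have k3 : ∫⁻ t, (bxs (C i) δ (δ ^ 2)).indicator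
        (fun _ => (1 : ℝ≥0∞)) (p - t - ps (C i) (X i) (H i) z) = ENNReal.ofReal (4 * δ * δ ^ 2) := by
      have h3 := lintegral_sub_left_eq_self (μ := (volume : Measure E2))
        (fun q => (bxs (C i) δ (δ ^ 2)).indicator (fun _ => (1 : ℝ≥0∞)) q)
        (p - ps (C i) (X i) (H i) z)
      have h4 : ∀ t : E2, p - t - ps (C i) (X i) (H i) z = p - ps (C i) (X i) (H i) z - t := by
        intro t; abel
      simp_rw [h4]
      rw [h3, lintegral_indicator (bxs_meas _ _ _), setLIntegral_const, one_mul,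
        vol_bxs _ hδ.le (by positivity)]
    rw [k3, ← ENNReal.ofReal_mul (hw' i hi')]
    refine le_of_eq ?_
    congr 1
    ring
  have k4 : ∑ i ∈ T', ENNReal.ofReal (4 * δ ^ 3 * w i) =
      ENNReal.ofReal (4 * δ ^ 3 * ∑ i ∈ T', w i) := by
    rw [← ENNReal.ofReal_sum_of_nonneg]
    · rw [Finset.mul_sum]
    · intro i hi
      have := hw' i (Finset.mem_filter.1 hi).1
      positivity
  rw [k4] at k1
  have hT's : T' ⊆ S := (Finset.filter_subset _ _).trans hTS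
  have hnn : 0 ≤ ∑ i ∈ T', w i := Finset.sum_nonneg fun i hi => hw i (hT's hi)
  rw [← ofReal_norm, ENNReal.ofReal_le_ofReal_iff (by positivity)] at k1
  refine k1.trans ?_
  have k5 : ∑ i ∈ T', w i ≤ (4 + |z|) ^ 2 * (D * s ^ 3 / δ ^ 3) := by
    refine height_sum hw hδ hD0 hD h1 h2 c z p _ hT's ?_
    intro i hi
    rw [hT', Finset.mem_filter] at hi
    obtain ⟨hiT, t, ⟨ht1, ht2⟩, hb1, hb2⟩ := hi
    have hc := hT i hiT
    simp only [PiLp.sub_apply, ps_zero, ps_one] at hb1 hb2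
    have hp0 : p 0 - (X i + z * C i) = (p 0 - t 0 - (X i + z * C i)) + t 0 := by ring
    refine ⟨by linarith, ?_, ?_⟩
    · rw [hp0]
      refine (abs_add_le _ _).trans ?_
      linarith
    · have e : p 1 - (H i + z * (C i ^ 2 / 2)) - c * (p 0 - (X i + z * C i)) =
        (p 1 - t 1 - (H i + z * (C i ^ 2 / 2)) - C i * (p 0 - t 0 - (X i + z * C i))) +
          (C i - c) * (p 0 - t 0 - (X i + z * C i)) + (t 1 - c * t 0) := by ring
      rw [e]
      refine (abs_add_le _ _).trans (add_le_add ((abs_add_le _ _).trans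
        (add_le_add hb2 le_rfl)) ht2 |>.trans ?_)
      rw [abs_mul]
      have h3 : |C i - c| * |p 0 - t 0 - (X i + z * C i)| ≤ s / 2 * s :=
        mul_le_mul hc (hb1.trans h1) (abs_nonneg _) (by positivity)
      nlinarith
  calc 4 * δ ^ 3 * ∑ i ∈ T', w i ≤ 4 * δ ^ 3 * ((4 + |z|) ^ 2 * (D * s ^ 3 / δ ^ 3)) :=
        mul_le_mul_of_nonneg_left k5 (by positivity)
    _ = 4 * (4 + |z|) ^ 2 * (D * s ^ 3) := by field_simp

/-- **estimate for one arc** -/
theorem arc_est {S T : Finset ι} {C X H w : ι → ℝ} {δ φ D : ℝ} (hw : ∀ i ∈ S, 0 ≤ w i)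
    (hδ : 0 < δ) (hD0 : 0 ≤ D) (hD : HD S C X H w δ φ D) {s : ℝ} (h1 : δ ≤ s) (h2 : s ≤ φ)
    (c : ℝ) (hTS : T ⊆ S) (hT : ∀ i ∈ T, |C i - c| ≤ s / 2) (z : ℝ) {A : Set E2}
    (hAm : MeasurableSet A)
    (hA : s ≤ 2 * δ ∨ ∀ k ∈ A, |k 0 + c * k 1| ≤ 4 * s⁻¹ ∧ |k 1| ≤ 4 * s⁻¹ ^ 2) :
    ∫⁻ k in A, ‖𝓕 (gg T C X H w δ z) k‖ₑ ^ 2 ≤
      ENNReal.ofReal (65536 * (4 + |z|) ^ 2 * D * δ ^ 3 * ∑ i ∈ T, w i) := by
  have hs : 0 < s := hδ.trans_le h1
  have hw' : ∀ i ∈ T, 0 ≤ w i := fun i hi => hw i (hTS hi)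
  have hwT : 0 ≤ ∑ i ∈ T, w i := Finset.sum_nonneg hw'
  have hz := abs_nonneg z
  rcases hA with hA | hA
  · have k1 := Crest.Agent.R138.Fq665.plancherel (gg_int T C X H w hδ.le z)
      (gg_memLp T C X H w hδ.le z)
    refine (setLIntegral_le_lintegral _ _).trans ?_
    rw [k1]
    refine (sq_le_of_sup (gg_sup hw hδ hD0 hD h1 h2 c hTS hT z) (gg_meas _ _ _ _ _ _ _)).trans ?_
    refine (mul_le_mul_right (lint_gg hw' hδ.le z) _).trans ?_
    rw [← ENNReal.ofReal_mul (by positivity)]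
    refine ENNReal.ofReal_le_ofReal ?_
    have e1 : s ^ 3 / δ ^ 3 ≤ 8 := by
      rw [div_le_iff₀ (by positivity)]
      have := pow_le_pow_left₀ hs.le hA 3
      nlinarith
    have e2 : (4 + |z|) ^ 2 * (D * s ^ 3 / δ ^ 3) * (4 * δ ^ 3 * ∑ i ∈ T, w i) =
        (4 * (4 + |z|) ^ 2 * D * δ ^ 3 * ∑ i ∈ T, w i) * (s ^ 3 / δ ^ 3) := by ring
    rw [e2]
    have e3 : 0 ≤ (4 + |z|) ^ 2 * D * δ ^ 3 * ∑ i ∈ T, w i := by positivity
    nlinarith [mul_le_mul_of_nonneg_left e1 (show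
      0 ≤ 4 * (4 + |z|) ^ 2 * D * δ ^ 3 * ∑ i ∈ T, w i by positivity)]
  · set m := bx c (s / 64) (s ^ 2 / 64) with hm
    set G := m ⋆[ContinuousLinearMap.mul ℂ ℂ] gg T C X H w δ z with hG
    have hmi : Integrable m := bx_int c (by positivity) (by positivity)
    have hgi := gg_int T C X H w hδ.le z
    have hGi : Integrable G := hmi.integrable_convolution (ContinuousLinearMap.mul ℂ ℂ) hgi
    have hsup : ∀ p, ‖G p‖ ≤ 4 * (4 + |z|) ^ 2 * (D * s ^ 3) :=
      fun p => conv_sup hw hδ hD0 hD h1 h2 c hTS hT z p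
    have hG2 : MemLp G 2 := by
      rw [memLp_two_iff_integrable_sq_norm hGi.aestronglyMeasurable]
      refine (hGi.norm.const_mul (4 * (4 + |z|) ^ 2 * (D * s ^ 3))).mono'
        (hGi.aestronglyMeasurable.norm.pow 2) (ae_of_all _ fun p => ?_)
      rw [Real.norm_eq_abs, abs_of_nonneg (by positivity), sq]
      exact mul_le_mul_of_nonneg_right (hsup p) (norm_nonneg _)
    have hF : ∀ k, 𝓕 G k = 𝓕 m k * 𝓕 (gg T C X H w δ z) k :=
      fun k => Real.fourier_mul_convolution_eq hmi hgi k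
    have hlow : ∀ k ∈ A, 2 * (s / 64) * (s ^ 2 / 64) ≤ ‖𝓕 m k‖ := by
      intro k hk
      refine fourier_bx_ge c (by positivity) (by positivity) k ?_
      obtain ⟨a1, a2⟩ := hA k hk
      have b1 : s / 64 * |k 0 + c * k 1| ≤ s / 64 * (4 * s⁻¹) :=
        mul_le_mul_of_nonneg_left a1 (by positivity)
      have b2 : s ^ 2 / 64 * |k 1| ≤ s ^ 2 / 64 * (4 * s⁻¹ ^ 2) :=
        mul_le_mul_of_nonneg_left a2 (by positivity)
      have b3 : s / 64 * (4 * s⁻¹) = 1 / 16 := by field_simp; norm_num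
      have b4 : s ^ 2 / 64 * (4 * s⁻¹ ^ 2) = 1 / 16 := by field_simp; norm_num
      rw [b3] at b1
      rw [b4] at b2
      linarith
    set q := 2 * (s / 64) * (s ^ 2 / 64) with hq
    have hq0 : 0 < q := by positivity
    have k1 : ∫⁻ k in A, ‖𝓕 (gg T C X H w δ z) k‖ₑ ^ 2 ≤
        ENNReal.ofReal ((q⁻¹) ^ 2) * ∫⁻ k, ‖𝓕 G k‖ₑ ^ 2 := by
      rw [← lintegral_const_mul' _ _ ENNReal.ofReal_ne_top]
      refine (setLIntegral_mono' hAm fun k hk => ?_).trans (setLIntegral_le_lintegral A _)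
      have e1 : ‖𝓕 (gg T C X H w δ z) k‖ ≤ q⁻¹ * ‖𝓕 G k‖ := by
        rw [hF k, norm_mul]
        have := hlow k hk
        have hn := norm_nonneg (𝓕 (gg T C X H w δ z) k)
        rw [← mul_assoc]
        have h3 : 1 ≤ q⁻¹ * ‖𝓕 m k‖ := by
          rw [inv_mul_eq_div, one_le_div hq0]; exact this
        nlinarith
      rw [← ofReal_norm, ← ofReal_norm, ← ENNReal.ofReal_pow (norm_nonneg _),
        ← ENNReal.ofReal_pow (norm_nonneg _), ← ENNReal.ofReal_mul (by positivity)]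
      refine ENNReal.ofReal_le_ofReal ?_
      rw [← mul_pow]
      exact pow_le_pow_left₀ (norm_nonneg _) e1 2
    refine k1.trans ?_
    rw [Crest.Agent.R138.Fq665.plancherel hGi hG2]
    have hGc : ∫⁻ p, ‖G p‖ₑ ^ 2 ≤ ENNReal.ofReal (4 * (4 + |z|) ^ 2 * (D * s ^ 3)) *
        ∫⁻ p, ‖G p‖ₑ := by
      rw [← lintegral_const_mul' _ _ ENNReal.ofReal_ne_top]
      refine lintegral_mono fun p => ?_
      rw [sq]
      refine mul_le_mul_left ?_ _
      rw [← ofReal_norm]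
      exact ENNReal.ofReal_le_ofReal (hsup p)
    have hG1 : ∫⁻ p, ‖G p‖ₑ ≤ ENNReal.ofReal (4 * (s / 64) * (s ^ 2 / 64)) *
        ENNReal.ofReal (4 * δ ^ 3 * ∑ i ∈ T, w i) := by
      refine (young (bx_meas _ _ _) (gg_meas T C X H w δ z)).trans ?_
      rw [lint_bx c (by positivity) (by positivity)]
      exact mul_le_mul_right (lint_gg hw' hδ.le z) _
    refine (mul_le_mul_right (hGc.trans (mul_le_mul_right hG1 _)) _).trans ?_
    rw [← ENNReal.ofReal_mul (by positivity), ← ENNReal.ofReal_mul (by positivity),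
      ← ENNReal.ofReal_mul (by positivity)]
    refine ENNReal.ofReal_le_ofReal (le_of_eq ?_)
    rw [hq]
    field_simp
    ring

end Crest.Agent.R116.Lr370
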