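import Crest.Agent.R116.Lr6_370

/-! R116 (L3), part 7: the `L²` light-ray inequality of `ℝ^{2+1}`. -/

set_option autoImplicit false

open MeasureTheory Filter Topology Complex
open scoped FourierTransform ENNReal

noncomputable section

namespace Crest.Agent.R116.Lr370

variable {ι : Type*}

lemma J_eq_lint (S : Finset ι) (a : ι → ℂ) (ψ : ι → ℝ) :
    ENNReal.ofReal (J S a ψ) = ∫⁻ z, ENNReal.ofReal (W z) * ‖ES S a ψ z‖ₑ ^ 2 := by
  unfold J
  rw [ofReal_integral_eq_lintegral_ofReal (J_int _ _ _)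
    (ae_of_all _ fun z => mul_nonneg (W_nonneg z) (by positivity))]
  refine lintegral_congr fun z => ?_
  rw [ENNReal.ofReal_mul (W_nonneg z), ENNReal.ofReal_pow (norm_nonneg _), ofReal_norm]

lemma J_meas (S : Finset ι) (C X H w : ι → ℝ) {δ : ℝ} (hδ : 0 ≤ δ) :
    Measurable (fun k : E2 => ENNReal.ofReal (J S (aa C X H w δ k) (ph C k))) := by
  have hc : Continuous (fun q : E2 × ℝ => ES S (aa C X H w δ q.1) (ph C q.1) q.2) := by
    unfold ES
    refine continuous_finsetSum _ fun i _ => ?_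
    have h1 := (aa_cont C X H w hδ i).comp (continuous_fst (X := E2) (Y := ℝ))
    have h2 := (ph_cont C i).comp (continuous_fst (X := E2) (Y := ℝ))
    simp only [Function.comp_def] at h1 h2
    fun_prop
  have hmeas : Measurable (fun q : E2 × ℝ =>
      ENNReal.ofReal (W q.2) * ‖ES S (aa C X H w δ q.1) (ph C q.1) q.2‖ₑ ^ 2) :=
    ((W_cont.measurable.comp measurable_snd).ennreal_ofReal).mul
      ((hc.measurable.enorm).pow_const 2)
  have h := hmeas.lintegral_prod_right' (ν := (volume : Measure ℝ))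
  simp_rw [J_eq_lint]
  exact h

/-- region of frequencies of an arc -/
def RG (c0 φ : ℝ) (M m : ℕ) (k : ℤ) : Set E2 := {p | Us c0 φ M m k (p 0) (p 1)}

lemma RG_meas (c0 φ : ℝ) (M m : ℕ) (k : ℤ) : MeasurableSet (RG c0 φ M m k) := by
  by_cases h : m = M
  · have : RG c0 φ M m k = Set.univ := by
      ext p; simp [RG, Us, h]
    rw [this]; exact MeasurableSet.univ
  · have : RG c0 φ M m k = {p : E2 | |p 0 + cc c0 φ m k * p 1| ≤ 4 * (2 ^ m / φ)} ∩
        {p : E2 | |p 1| ≤ 4 * (2 ^ m / φ) ^ 2} := by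
      ext p; simp [RG, Us, U, h]
    rw [this]
    have h1 : IsClosed {p : E2 | |p 0 + cc c0 φ m k * p 1| ≤ 4 * (2 ^ m / φ)} :=
      isClosed_le (by fun_prop) continuous_const
    have h2 : IsClosed {p : E2 | |p 1| ≤ 4 * (2 ^ m / φ) ^ 2} :=
      isClosed_le (by fun_prop) continuous_const
    exact (h1.inter h2).measurableSet

/-- the constant -/
def KW : ℝ := ∫ z, (4 + |z|) ^ 2 * W z

lemma KW_nonneg : 0 ≤ KW := integral_nonneg fun z => mul_nonneg (by positivity) (W_nonneg z)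

lemma weighted_arc {S T : Finset ι} {C X H w : ι → ℝ} {δ φ D : ℝ} (hw : ∀ i ∈ S, 0 ≤ w i)
    (hδ : 0 < δ) (hD0 : 0 ≤ D) (hD : HD S C X H w δ φ D) {s : ℝ} (h1 : δ ≤ s) (h2 : s ≤ φ)
    (c : ℝ) (hTS : T ⊆ S) (hT : ∀ i ∈ T, |C i - c| ≤ s / 2) {A : Set E2}
    (hAm : MeasurableSet A)
    (hA : s ≤ 2 * δ ∨ ∀ k ∈ A, |k 0 + c * k 1| ≤ 4 * s⁻¹ ∧ |k 1| ≤ 4 * s⁻¹ ^ 2) :
    ∫⁻ k in A, ENNReal.ofReal (J T (aa C X H w δ k) (ph C k)) ≤
      ENNReal.ofReal (65536 * KW * D * δ ^ 3 * ∑ i ∈ T, w i) := by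
  have hwT : 0 ≤ ∑ i ∈ T, w i := Finset.sum_nonneg fun i hi => hw i (hTS hi)
  rw [← lint_J T C X H w hδ.le A]
  refine (lintegral_mono fun z => mul_le_mul_right
    (arc_est hw hδ hD0 hD h1 h2 c hTS hT z hAm hA) _).trans ?_
  have e1 : ∀ z, ENNReal.ofReal (W z) *
      ENNReal.ofReal (65536 * (4 + |z|) ^ 2 * D * δ ^ 3 * ∑ i ∈ T, w i) =
      ENNReal.ofReal (65536 * D * δ ^ 3 * ∑ i ∈ T, w i) *
        ENNReal.ofReal ((4 + |z|) ^ 2 * W z) := by
    intro z
    rw [← ENNReal.ofReal_mul (W_nonneg z), ← ENNReal.ofReal_mul (by positivity)]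
    congr 1
    ring
  simp_rw [e1]
  rw [lintegral_const_mul' _ _ ENNReal.ofReal_ne_top, ← ofReal_integral_eq_lintegral_ofReal
    W_int_pow (ae_of_all _ fun z => mul_nonneg (by positivity) (W_nonneg z)),
    ← ENNReal.ofReal_mul (by positivity)]
  refine ENNReal.ofReal_le_ofReal (le_of_eq ?_)
  unfold KW
  ring

/-- **core inequality** -/
theorem core [DecidableEq ι] (S : Finset ι) (C X H w : ι → ℝ) {δ φ D c0 : ℝ}
    (hw : ∀ i ∈ S, 0 ≤ w i) (hδ : 0 < δ) (hφ : 0 < φ) (hD0 : 0 ≤ D)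
    (hC : ∀ i ∈ S, c0 ≤ C i ∧ C i ≤ c0 + φ) (hD : HD S C X H w δ φ D) (M : ℕ)
    (hM1 : δ ≤ φ / 2 ^ M) (hM2 : φ / 2 ^ M ≤ 2 * δ) :
    ∫⁻ z in Set.Icc (-1 : ℝ) 1, ∫⁻ p, ‖gg S C X H w δ z p‖ₑ ^ 2 ≤
      ENNReal.ofReal (4 * (7 * (M + 1) * ((M + 1) *
        (65536 * KW * D * δ ^ 3 * ∑ i ∈ S, w i)))) := by
  classical
  have hKW := KW_nonneg
  have hwS : 0 ≤ ∑ i ∈ S, w i := Finset.sum_nonneg hw
  -- insert the weight
  have a1 : ∫⁻ z in Set.Icc (-1 : ℝ) 1, ∫⁻ p, ‖gg S C X H w δ z p‖ₑ ^ 2 ≤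
      ENNReal.ofReal 4 * ∫⁻ z, ENNReal.ofReal (W z) * ∫⁻ p, ‖gg S C X H w δ z p‖ₑ ^ 2 := by
    rw [← lintegral_const_mul' _ _ ENNReal.ofReal_ne_top]
    refine (setLIntegral_mono' measurableSet_Icc fun z hz => ?_).trans
      (setLIntegral_le_lintegral _ _)
    have h1 := W_ge (z := z) (abs_le.2 ⟨hz.1, hz.2⟩)
    rw [← mul_assoc, ← ENNReal.ofReal_mul (by norm_num)]
    have h2 : (1 : ℝ≥0∞) ≤ ENNReal.ofReal (4 * W z) := by
      rw [← ENNReal.ofReal_one]
      exact ENNReal.ofReal_le_ofReal (by linarith)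
    calc ∫⁻ p, ‖gg S C X H w δ z p‖ₑ ^ 2 = 1 * ∫⁻ p, ‖gg S C X H w δ z p‖ₑ ^ 2 := by rw [one_mul]
      _ ≤ _ := mul_le_mul_left h2 _
  have a2 : ∫⁻ z, ENNReal.ofReal (W z) * ∫⁻ p, ‖gg S C X H w δ z p‖ₑ ^ 2 =
      ∫⁻ k, ENNReal.ofReal (J S (aa C X H w δ k) (ph C k)) := by
    have h := lint_J S C X H w hδ.le Set.univ
    rw [Measure.restrict_univ] at h
    rw [← h]
    refine lintegral_congr fun z => ?_
    rw [Crest.Agent.R138.Fq665.plancherel (gg_int S C X H w hδ.le z)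
      (gg_memLp S C X H w hδ.le z)]
  -- stopping inequality
  have a3 : ∀ k : E2, ENNReal.ofReal (J S (aa C X H w δ k) (ph C k)) ≤
      ENNReal.ofReal (7 * (M + 1)) * ∑ m ∈ Finset.range (M + 1),
        ∑ l ∈ S.image (fun i => kk c0 φ m (C i)), (RG c0 φ M m l).indicator
          (fun k => ENNReal.ofReal
            (J (S.filter fun i => kk c0 φ m (C i) = l) (aa C X H w δ k) (ph C k))) k := by
    intro k
    have h := J_stop S C c0 φ hφ hC M (k 0) (k 1) (aa C X H w δ k)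
    refine (ENNReal.ofReal_le_ofReal h).trans ?_
    rw [ENNReal.ofReal_mul (by positivity)]
    refine mul_le_mul_right ?_ _
    rw [ENNReal.ofReal_sum_of_nonneg]
    · refine Finset.sum_le_sum fun m _ => ?_
      rw [ENNReal.ofReal_sum_of_nonneg]
      · refine Finset.sum_le_sum fun l _ => ?_
        by_cases hU : Us c0 φ M m l (k 0) (k 1)
        · have hmem : k ∈ RG c0 φ M m l := hU
          rw [if_pos hU, Set.indicator_of_mem hmem]
          exact le_rfl
        · rw [if_neg hU, ENNReal.ofReal_zero]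
          exact bot_le
      · intro l _
        split_ifs
        · exact J_nonneg _ _ _
        · exact le_rfl
    · intro m _
      refine Finset.sum_nonneg fun l _ => ?_
      split_ifs
      · exact J_nonneg _ _ _
      · exact le_rfl
  have a4 : ∫⁻ k, ENNReal.ofReal (J S (aa C X H w δ k) (ph C k)) ≤
      ENNReal.ofReal (7 * (M + 1)) * ∑ m ∈ Finset.range (M + 1),
        ∑ l ∈ S.image (fun i => kk c0 φ m (C i)), ∫⁻ k in RG c0 φ M m l, ENNReal.ofReal
            (J (S.filter fun i => kk c0 φ m (C i) = l) (aa C X H w δ k) (ph C k)) := by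
    refine (lintegral_mono a3).trans ?_
    rw [lintegral_const_mul' _ _ ENNReal.ofReal_ne_top]
    refine mul_le_mul_right ?_ _
    have hmm : ∀ m, ∀ l, Measurable ((RG c0 φ M m l).indicator
          (fun k => ENNReal.ofReal
            (J (S.filter fun i => kk c0 φ m (C i) = l) (aa C X H w δ k) (ph C k)))) :=
      fun m l => (J_meas _ C X H w hδ.le).indicator (RG_meas _ _ _ _ _)
    rw [lintegral_finsetSum _ fun m _ => Finset.measurable_fun_sum _ fun l _ => hmm m l]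
    refine Finset.sum_le_sum fun m _ => ?_
    rw [lintegral_finsetSum _ fun l _ => hmm m l]
    refine Finset.sum_le_sum fun l _ => ?_
    rw [lintegral_indicator (RG_meas _ _ _ _ _)]
  have a5 : ∀ m ∈ Finset.range (M + 1), ∑ l ∈ S.image (fun i => kk c0 φ m (C i)),
      ∫⁻ k in RG c0 φ M m l, ENNReal.ofReal
            (J (S.filter fun i => kk c0 φ m (C i) = l) (aa C X H w δ k) (ph C k)) ≤
      ENNReal.ofReal (65536 * KW * D * δ ^ 3 * ∑ i ∈ S, w i) := by
    intro m hm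
    have hmM : m ≤ M := by simpa [Nat.lt_succ_iff] using hm
    have hs0 : 0 < φ / 2 ^ m := by positivity
    have hsM : φ / 2 ^ M ≤ φ / 2 ^ m := by
      refine div_le_div_of_nonneg_left hφ.le (by positivity) ?_
      exact pow_le_pow_right₀ (by norm_num) hmM
    have hsφ : φ / 2 ^ m ≤ φ := by
      refine div_le_self hφ.le ?_
      exact one_le_pow₀ (by norm_num)
    have h1 : ∀ l ∈ S.image (fun i => kk c0 φ m (C i)), ∫⁻ k in RG c0 φ M m l, ENNReal.ofReal
            (J (S.filter fun i => kk c0 φ m (C i) = l) (aa C X H w δ k) (ph C k)) ≤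
        ENNReal.ofReal (65536 * KW * D * δ ^ 3 *
          ∑ i ∈ S.filter (fun i => kk c0 φ m (C i) = l), w i) := by
      intro l _
      refine weighted_arc hw hδ hD0 hD (hM1.trans hsM) hsφ (cc c0 φ m l)
        (Finset.filter_subset _ _) ?_ (RG_meas _ _ _ _ _) ?_
      · intro i hi
        rw [Finset.mem_filter] at hi
        rw [← hi.2]
        exact kk_center hφ m (C i)
      · rcases eq_or_lt_of_le hmM with h | h
        · left; rw [h]; exact hM2
        · right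
          intro k hk
          have hk' : m = M ∨ U c0 φ m l (k 0) (k 1) := hk
          rcases hk' with hk' | hk'
          · omega
          · have e : (φ / 2 ^ m)⁻¹ = 2 ^ m / φ := by rw [inv_div]
            rw [e]
            exact hk'
    refine (Finset.sum_le_sum h1).trans ?_
    rw [← ENNReal.ofReal_sum_of_nonneg]
    · refine ENNReal.ofReal_le_ofReal (le_of_eq ?_)
      rw [← Finset.mul_sum]
      congr 1
      exact Finset.sum_fiberwise_of_maps_to (fun i hi => Finset.mem_image_of_mem _ hi) _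
    · intro l _
      have : 0 ≤ ∑ i ∈ S.filter (fun i => kk c0 φ m (C i) = l), w i :=
        Finset.sum_nonneg fun i hi => hw i (Finset.mem_filter.1 hi).1
      positivity
  set Q : ℝ := 65536 * KW * D * δ ^ 3 * ∑ i ∈ S, w i with hQ
  have hQ0 : 0 ≤ Q := by positivity
  have a6 : ∑ m ∈ Finset.range (M + 1), ∑ l ∈ S.image (fun i => kk c0 φ m (C i)),
      ∫⁻ k in RG c0 φ M m l, ENNReal.ofReal
            (J (S.filter fun i => kk c0 φ m (C i) = l) (aa C X H w δ k) (ph C k)) ≤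
      ENNReal.ofReal ((M + 1) * Q) := by
    refine (Finset.sum_le_sum a5).trans ?_
    have e : ((M : ℝ) + 1) = ((M + 1 : ℕ) : ℝ) := by push_cast; ring
    rw [Finset.sum_const, Finset.card_range, nsmul_eq_mul, e,
      ENNReal.ofReal_mul (Nat.cast_nonneg _), ENNReal.ofReal_natCast]
  calc ∫⁻ z in Set.Icc (-1 : ℝ) 1, ∫⁻ p, ‖gg S C X H w δ z p‖ₑ ^ 2
      ≤ ENNReal.ofReal 4 * ∫⁻ k, ENNReal.ofReal (J S (aa C X H w δ k) (ph C k)) := by
        rw [← a2]; exact a1
    _ ≤ ENNReal.ofReal 4 * (ENNReal.ofReal (7 * (M + 1)) * ENNReal.ofReal ((M + 1) * Q)) := by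
        gcongr
        refine a4.trans ?_
        gcongr
    _ = _ := by
        rw [← ENNReal.ofReal_mul (by positivity), ← ENNReal.ofReal_mul (by positivity)]

end Crest.Agent.R116.Lr370
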