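import Crest.Agent.R116.Lr7_370

/-! R116 (L3), part 8: the user-level form of the L2 inequality for light rays of `R^{2+1}`.

`pl S C X H w δ ρ z x h` is the weighted number of planks (width `δ`, thin side `ρ`) through
the point `(z, x, h)`; ray `i` is `z ↦ (X i + z C i, H i + z (C i)^2/2)`.
`HR` is the density condition on the sheared boxes `s × s × max (s^2) ρ`, `δ ≤ s ≤ φ`. -/

set_option autoImplicit false

open MeasureTheory Filter Topology Complex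
open scoped FourierTransform ENNReal

noncomputable section

namespace Crest.Agent.R116.Lr370

variable {ι : Type*}

/-- number of planks through a point -/
def pl (S : Finset ι) (C X H w : ι → ℝ) (δ ρ z x h : ℝ) : ℝ :=
  ∑ i ∈ S, if |x - X i - z * C i| ≤ δ ∧
    |h - H i - z * (C i ^ 2 / 2) - C i * (x - X i - z * C i)| ≤ ρ then w i else 0

/-- the density condition, thin side `ρ` -/
def HR (S : Finset ι) (C X H w : ι → ℝ) (δ ρ φ D : ℝ) : Prop :=
  ∀ c x n s : ℝ, δ ≤ s → s ≤ φ →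
    (∑ i ∈ S.filter (fun i => |C i - c| ≤ s ∧ |X i - x| ≤ s ∧
      |H i - c * X i - n| ≤ max (s ^ 2) ρ), w i) * (δ * ρ) ≤ D * (s * max (s ^ 2) ρ)

lemma pl_nonneg {S : Finset ι} {C X H w : ι → ℝ} (hw : ∀ i ∈ S, 0 ≤ w i) (δ ρ z x h : ℝ) :
    0 ≤ pl S C X H w δ ρ z x h := by
  refine Finset.sum_nonneg fun i hi => ?_
  split_ifs
  · exact hw i hi
  · exact le_rfl

lemma pl_meas (S : Finset ι) (C X H w : ι → ℝ) (δ ρ : ℝ) :
    Measurable (fun q : ℝ × ℝ × ℝ => pl S C X H w δ ρ q.1 q.2.1 q.2.2) := by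
  unfold pl
  refine Finset.measurable_fun_sum _ fun i _ => Measurable.ite ?_ measurable_const measurable_const
  have h1 : IsClosed {q : ℝ × ℝ × ℝ | |q.2.1 - X i - q.1 * C i| ≤ δ} :=
    isClosed_le (by fun_prop) continuous_const
  have h2 : IsClosed {q : ℝ × ℝ × ℝ |
      |q.2.2 - H i - q.1 * (C i ^ 2 / 2) - C i * (q.2.1 - X i - q.1 * C i)| ≤ ρ} :=
    isClosed_le (by fun_prop) continuous_const
  exact (h1.inter h2).measurableSet

lemma gg_eq (S : Finset ι) (C X H w : ι → ℝ) (δ z : ℝ) (p : E2) :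
    gg S C X H w δ z p = ((pl S C X H w δ (δ ^ 2) z (p 0) (p 1) : ℝ) : ℂ) := by
  unfold gg pl
  rw [Complex.ofReal_sum]
  refine Finset.sum_congr rfl fun i _ => ?_
  unfold bx
  have e : (p - ps (C i) (X i) (H i) z) ∈ bxs (C i) δ (δ ^ 2) ↔
      (|p 0 - X i - z * C i| ≤ δ ∧
      |p 1 - H i - z * (C i ^ 2 / 2) - C i * (p 0 - X i - z * C i)| ≤ δ ^ 2) := by
    simp only [bxs, Set.mem_ofPred_eq, PiLp.sub_apply, ps_zero, ps_one]
    rw [show p 0 - (X i + z * C i) = p 0 - X i - z * C i by ring,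
      show p 1 - (H i + z * (C i ^ 2 / 2)) = p 1 - H i - z * (C i ^ 2 / 2) by ring]
  by_cases h : (p - ps (C i) (X i) (H i) z) ∈ bxs (C i) δ (δ ^ 2)
  · rw [Set.indicator_of_mem h, if_pos (e.1 h), mul_one]
  · rw [Set.indicator_of_notMem h, if_neg (fun h' => h (e.2 h')), mul_zero, Complex.ofReal_zero]

lemma lint_e2 {f : ℝ × ℝ → ℝ≥0∞} (hf : Measurable f) :
    ∫⁻ p : E2, f (p 0, p 1) = ∫⁻ x, ∫⁻ h, f (x, h) := by
  have h1 := e2_mp.lintegral_comp hf
  simp only [e2_apply] at h1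
  rw [h1, Measure.volume_eq_prod, lintegral_prod _ hf.aemeasurable]

/-- number of scales -/
lemma exists_M {δ φ : ℝ} (hδ : 0 < δ) (h : δ ≤ φ) :
    ∃ M : ℕ, δ ≤ φ / 2 ^ M ∧ φ / 2 ^ M ≤ 2 * δ ∧ ((M : ℝ) + 1) ≤ 2 * (1 + Real.log (φ / δ)) := by
  have hφ : 0 < φ := hδ.trans_le h
  have h1 : 1 ≤ φ / δ := (one_le_div hδ).2 h
  obtain ⟨M, hM1, hM2⟩ := exists_nat_pow_near h1 (one_lt_two (α := ℝ))
  refine ⟨M, ?_, ?_, ?_⟩
  · rw [le_div_iff₀ (by positivity), mul_comm, ← le_div_iff₀ hδ]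
    exact hM1
  · rw [div_le_iff₀ (by positivity)]
    rw [div_lt_iff₀ hδ, pow_succ] at hM2
    nlinarith
  · have h2 : (M : ℝ) * Real.log 2 ≤ Real.log (φ / δ) := by
      rw [← Real.log_pow]
      exact Real.log_le_log (by positivity) hM1
    have h3 := Real.log_two_gt_d9
    have h4 : 0 ≤ Real.log (φ / δ) := Real.log_nonneg h1
    have h5 : (0 : ℝ) ≤ M := Nat.cast_nonneg M
    nlinarith

/-- the constant -/
def KL : ℝ := 4 * 7 * 4 * 65536 * KW

lemma KL_nonneg : 0 ≤ KL := by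
  unfold KL
  have := KW_nonneg
  positivity

/-- the case `ρ = δ^2` -/
theorem light_base (S : Finset ι) (C X H w : ι → ℝ) {δ φ D c0 : ℝ}
    (hw : ∀ i ∈ S, 0 ≤ w i) (hδ : 0 < δ) (hδφ : δ ≤ φ) (hD0 : 0 ≤ D)
    (hC : ∀ i ∈ S, c0 ≤ C i ∧ C i ≤ c0 + φ) (hD : HD S C X H w δ φ D) :
    ∫⁻ z in Set.Icc (-1 : ℝ) 1, ∫⁻ x, ∫⁻ h, ENNReal.ofReal (pl S C X H w δ (δ ^ 2) z x h) ^ 2 ≤
      ENNReal.ofReal (KL * (1 + Real.log (φ / δ)) ^ 2 * D * δ ^ 3 * ∑ i ∈ S, w i) := by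
  classical
  obtain ⟨M, hM1, hM2, hM3⟩ := exists_M hδ hδφ
  have hφ : 0 < φ := hδ.trans_le hδφ
  have h := core S C X H w hw hδ hφ hD0 hC hD M hM1 hM2
  have e : ∀ z : ℝ, ∫⁻ p, ‖gg S C X H w δ z p‖ₑ ^ 2 =
      ∫⁻ x, ∫⁻ h, ENNReal.ofReal (pl S C X H w δ (δ ^ 2) z x h) ^ 2 := by
    intro z
    have hm : Measurable (fun q : ℝ × ℝ =>
        ENNReal.ofReal (pl S C X H w δ (δ ^ 2) z q.1 q.2) ^ 2) := by
      have := (pl_meas S C X H w δ (δ ^ 2)).comp (measurable_prodMk_left (x := z))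
      exact (this.ennreal_ofReal).pow_const 2
    rw [← lint_e2 hm]
    refine lintegral_congr fun p => ?_
    rw [gg_eq, ← ofReal_norm, Complex.norm_real, Real.norm_of_nonneg (pl_nonneg hw _ _ _ _ _)]
  simp_rw [e] at h
  refine h.trans (ENNReal.ofReal_le_ofReal ?_)
  have hKW := KW_nonneg
  have hwS : 0 ≤ ∑ i ∈ S, w i := Finset.sum_nonneg hw
  have h6 : ((M : ℝ) + 1) ^ 2 ≤ (2 * (1 + Real.log (φ / δ))) ^ 2 :=
    pow_le_pow_left₀ (by positivity) hM3 2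
  have h7 : 0 ≤ 4 * 7 * 65536 * KW * D * δ ^ 3 * ∑ i ∈ S, w i := by positivity
  calc _ = (4 * 7 * 65536 * KW * D * δ ^ 3 * ∑ i ∈ S, w i) * ((M : ℝ) + 1) ^ 2 := by ring
    _ ≤ (4 * 7 * 65536 * KW * D * δ ^ 3 * ∑ i ∈ S, w i) * (2 * (1 + Real.log (φ / δ))) ^ 2 :=
        mul_le_mul_of_nonneg_left h6 h7
    _ = _ := by unfold KL; ring

/-! ### thick planks: stacking -/

section stack

variable (S : Finset ι) (n : ℕ)

/-- stacked index set -/
def St : Finset (ι × ℤ) := S ×ˢ Finset.Icc (-(n : ℤ)) n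

lemma mem_St {q : ι × ℤ} : q ∈ St S n ↔ q.1 ∈ S ∧ (-(n : ℤ) ≤ q.2 ∧ q.2 ≤ n) := by
  unfold St
  rw [Finset.mem_product, Finset.mem_Icc]

lemma sum_St (w : ι → ℝ) : ∑ q ∈ St S n, w q.1 = (2 * n + 1) * ∑ i ∈ S, w i := by
  unfold St
  rw [Finset.sum_product]
  simp only [Finset.sum_const, Int.card_Icc, nsmul_eq_mul]
  rw [← Finset.mul_sum]
  congr 1
  have : ((n : ℤ) + 1 - -(n : ℤ)).toNat = 2 * n + 1 := by omega
  rw [this]
  push_cast
  ring

lemma pl_le_stack {S : Finset ι} {n : ℕ} {C X H w : ι → ℝ} (hw : ∀ i ∈ S, 0 ≤ w i) {δ ρ : ℝ}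
    (hδ : 0 < δ) (hn : ρ ≤ n * δ ^ 2) (z x h : ℝ) :
    pl S C X H w δ ρ z x h ≤ pl (St S n) (fun q => C q.1) (fun q => X q.1)
      (fun q => H q.1 + q.2 * δ ^ 2) (fun q => w q.1) δ (δ ^ 2) z x h := by
  unfold pl St
  rw [Finset.sum_product]
  refine Finset.sum_le_sum fun i hi => ?_
  have h0 : ∀ k ∈ Finset.Icc (-(n : ℤ)) n, (0 : ℝ) ≤ if |x - X i - z * C i| ≤ δ ∧
      |h - (H i + k * δ ^ 2) - z * (C i ^ 2 / 2) - C i * (x - X i - z * C i)| ≤ δ ^ 2
      then w i else 0 := by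
    intro k _
    split_ifs
    · exact hw i hi
    · exact le_rfl
  split_ifs with hc
  · obtain ⟨hc1, hc2⟩ := hc
    set u := h - H i - z * (C i ^ 2 / 2) - C i * (x - X i - z * C i) with hu
    have hd : (0 : ℝ) < δ ^ 2 := by positivity
    have hu1 : |u / δ ^ 2| ≤ n := by
      rw [abs_div, abs_of_pos hd, div_le_iff₀ hd]
      exact hc2.trans hn
    rw [abs_le] at hu1
    have hk : ⌊u / δ ^ 2⌋ ∈ Finset.Icc (-(n : ℤ)) n := by
      rw [Finset.mem_Icc]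
      constructor
      · rw [Int.le_floor]; push_cast; exact hu1.1
      · have h1 := Int.floor_le (u / δ ^ 2)
        have h2 : ((⌊u / δ ^ 2⌋ : ℤ) : ℝ) ≤ ((n : ℤ) : ℝ) := by
          push_cast; linarith [hu1.2]
        exact_mod_cast h2
    refine le_trans ?_ (Finset.single_le_sum h0 hk)
    rw [if_pos]
    refine ⟨hc1, ?_⟩
    have e : h - (H i + (⌊u / δ ^ 2⌋ : ℤ) * δ ^ 2) - z * (C i ^ 2 / 2) -
        C i * (x - X i - z * C i) = u - (⌊u / δ ^ 2⌋ : ℤ) * δ ^ 2 := by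
      rw [hu]; ring
    rw [e]
    have h1 := Int.floor_le (u / δ ^ 2)
    have h2 := Int.lt_floor_add_one (u / δ ^ 2)
    rw [le_div_iff₀ hd] at h1
    rw [div_lt_iff₀ hd] at h2
    rw [abs_le]
    constructor
    · linarith
    · linarith
  · exact Finset.sum_nonneg h0

/-- integers in an interval -/
lemma card_int (n : ℕ) (v : ℝ) {δ r : ℝ} (hδ : 0 < δ) (hr : 0 ≤ r) :
    (((Finset.Icc (-(n : ℤ)) n).filter fun k : ℤ => |v + k * δ ^ 2| ≤ r).card : ℝ) ≤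
      2 * (r / δ ^ 2) + 1 := by
  have hd : (0 : ℝ) < δ ^ 2 := by positivity
  have hsub : ((Finset.Icc (-(n : ℤ)) n).filter fun k : ℤ => |v + k * δ ^ 2| ≤ r) ⊆
      Finset.Icc ⌈(-r - v) / δ ^ 2⌉ ⌊(r - v) / δ ^ 2⌋ := by
    intro k hk
    rw [Finset.mem_filter] at hk
    have h := abs_le.1 hk.2
    rw [Finset.mem_Icc, Int.ceil_le, Int.le_floor, div_le_iff₀ hd, le_div_iff₀ hd]
    constructor <;> linarith [h.1, h.2]
  have h1 := Finset.card_le_card hsub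
  rw [Int.card_Icc] at h1
  have h2 : (((Finset.Icc (-(n : ℤ)) n).filter fun k : ℤ => |v + k * δ ^ 2| ≤ r).card : ℝ) ≤
      ((⌊(r - v) / δ ^ 2⌋ + 1 - ⌈(-r - v) / δ ^ 2⌉).toNat : ℝ) := by exact_mod_cast h1
  refine h2.trans ?_
  have h3 := Int.floor_le ((r - v) / δ ^ 2)
  have h4 := Int.le_ceil ((-r - v) / δ ^ 2)
  have e : (r - v) / δ ^ 2 - (-r - v) / δ ^ 2 = 2 * (r / δ ^ 2) := by
    field_simp
    ring
  rcases le_total 0 (⌊(r - v) / δ ^ 2⌋ + 1 - ⌈(-r - v) / δ ^ 2⌉) with h | h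
  · have e2 : (((⌊(r - v) / δ ^ 2⌋ + 1 - ⌈(-r - v) / δ ^ 2⌉).toNat : ℕ) : ℝ) =
        ((⌊(r - v) / δ ^ 2⌋ + 1 - ⌈(-r - v) / δ ^ 2⌉ : ℤ) : ℝ) := by
      have := Int.toNat_of_nonneg h
      exact_mod_cast this
    rw [e2]
    push_cast
    linarith
  · rw [Int.toNat_of_nonpos h]
    push_cast
    positivity

/-- three translates in the thin direction -/
lemma HR.three {S : Finset ι} {C X H w : ι → ℝ} {δ ρ φ D : ℝ} (hw : ∀ i ∈ S, 0 ≤ w i)
    (hδ : 0 < δ) (hρ : 0 < ρ) (hD : HR S C X H w δ ρ φ D) {s : ℝ} (h1 : δ ≤ s) (h2 : s ≤ φ)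
    (c x n : ℝ) :
    (∑ i ∈ S.filter (fun i => |C i - c| ≤ s ∧ |X i - x| ≤ s ∧
      |H i - c * X i - n| ≤ 3 * max (s ^ 2) ρ), w i) ≤
        3 * (D * (s * max (s ^ 2) ρ) / (δ * ρ)) := by
  classical
  set m := max (s ^ 2) ρ with hm
  have hm0 : 0 < m := lt_of_lt_of_le hρ (le_max_right _ _)
  have key : ∀ t : ℝ, (∑ i ∈ S.filter (fun i => |C i - c| ≤ s ∧ |X i - x| ≤ s ∧
      |H i - c * X i - t| ≤ m), w i) ≤ D * (s * m) / (δ * ρ) := by
    intro t
    rw [le_div_iff₀ (by positivity)]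
    exact hD c x t s h1 h2
  have hcov : S.filter (fun i => |C i - c| ≤ s ∧ |X i - x| ≤ s ∧
      |H i - c * X i - n| ≤ 3 * m) ⊆
      (S.filter (fun i => |C i - c| ≤ s ∧ |X i - x| ≤ s ∧ |H i - c * X i - (n - 2 * m)| ≤ m)) ∪
      ((S.filter (fun i => |C i - c| ≤ s ∧ |X i - x| ≤ s ∧ |H i - c * X i - n| ≤ m)) ∪
      (S.filter (fun i => |C i - c| ≤ s ∧ |X i - x| ≤ s ∧
        |H i - c * X i - (n + 2 * m)| ≤ m))) := by
    intro i hi
    simp only [Finset.mem_filter, Finset.mem_union] at hi ⊢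
    obtain ⟨hS, hc, hx, hh⟩ := hi
    rw [abs_le] at hh
    simp only [hS, hc, hx, true_and, abs_le]
    rcases le_total (H i - c * X i - n) (-m) with h | h
    · left; constructor <;> linarith [hh.1]
    · rcases le_total (H i - c * X i - n) m with h' | h'
      · right; left; constructor <;> linarith
      · right; right; constructor <;> linarith [hh.2]
  have hpos : ∀ (P : ι → Prop) [DecidablePred P], 0 ≤ ∑ i ∈ S.filter P, w i := by
    intro P _
    exact Finset.sum_nonneg fun i hi => hw i (Finset.mem_filter.1 hi).1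
  have hu : ∀ A B : Finset ι, (∀ i ∈ A ∩ B, 0 ≤ w i) →
      ∑ i ∈ A ∪ B, w i ≤ ∑ i ∈ A, w i + ∑ i ∈ B, w i := by
    intro A B hAB
    have := Finset.sum_union_inter (s₁ := A) (s₂ := B) (f := w)
    have h3 : 0 ≤ ∑ i ∈ A ∩ B, w i := Finset.sum_nonneg hAB
    linarith
  refine (Finset.sum_le_sum_of_subset_of_nonneg hcov fun i hi _ => ?_).trans ?_
  · simp only [Finset.mem_filter, Finset.mem_union] at hi
    rcases hi with h | h | h
    · exact hw i h.1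
    · exact hw i h.1
    · exact hw i h.1
  · refine (hu _ _ fun i hi => ?_).trans ?_
    · exact hw i (Finset.mem_filter.1 (Finset.mem_inter.1 hi).1).1
    · refine (add_le_add_right (hu _ _ fun i hi => ?_) _).trans ?_
      · exact hw i (Finset.mem_filter.1 (Finset.mem_inter.1 hi).1).1
      · have k1 := key (n - 2 * m)
        have k2 := key n
        have k3 := key (n + 2 * m)
        linarith

lemma HD_stack {S : Finset ι} {n : ℕ} {C X H w : ι → ℝ} {δ ρ φ D : ℝ} (hw : ∀ i ∈ S, 0 ≤ w i)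
    (hδ : 0 < δ) (hρ : δ ^ 2 ≤ ρ) (hn : (n : ℝ) ≤ ρ / δ ^ 2 + 1)
    (hD : HR S C X H w δ ρ φ D) :
    HD (St S n) (fun q => C q.1) (fun q => X q.1)
      (fun q => H q.1 + q.2 * δ ^ 2) (fun q => w q.1) δ φ (15 * D) := by
  classical
  intro c x t s h1 h2
  have hd : (0 : ℝ) < δ ^ 2 := by positivity
  have hρ0 : 0 < ρ := hd.trans_le hρ
  have hs : 0 < s := hδ.trans_le h1
  set m := max (s ^ 2) ρ with hm
  have hm0 : 0 < m := lt_of_lt_of_le hρ0 (le_max_right _ _)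
  have hs2 : δ ^ 2 ≤ s ^ 2 := pow_le_pow_left₀ hδ.le h1 2
  -- rewrite the sum as an iterated one
  have e1 : ∑ q ∈ (St S n).filter (fun q : ι × ℤ => |C q.1 - c| ≤ s ∧ |X q.1 - x| ≤ s ∧
      |H q.1 + q.2 * δ ^ 2 - c * X q.1 - t| ≤ s ^ 2), w q.1 =
      ∑ i ∈ S, ∑ k ∈ Finset.Icc (-(n : ℤ)) n, if |C i - c| ≤ s ∧ |X i - x| ≤ s ∧
      |H i + k * δ ^ 2 - c * X i - t| ≤ s ^ 2 then w i else 0 := by
    rw [Finset.sum_filter]
    unfold St
    rw [Finset.sum_product]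
  have e2 : ∀ i ∈ S, (∑ k ∈ Finset.Icc (-(n : ℤ)) n, if |C i - c| ≤ s ∧ |X i - x| ≤ s ∧
      |H i + k * δ ^ 2 - c * X i - t| ≤ s ^ 2 then w i else 0) ≤
      if |C i - c| ≤ s ∧ |X i - x| ≤ s ∧ |H i - c * X i - t| ≤ 3 * m
        then (5 * (min ρ (s ^ 2) / δ ^ 2)) * w i else 0 := by
    intro i hi
    have hwi := hw i hi
    by_cases hcx : |C i - c| ≤ s ∧ |X i - x| ≤ s
    · obtain ⟨hc, hx⟩ := hcx
      simp only [hc, hx, true_and]
      set v := H i - c * X i - t with hv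
      have e3 : ∀ k : ℤ, |H i + k * δ ^ 2 - c * X i - t| = |v + k * δ ^ 2| := by
        intro k
        congr 1
        rw [hv]; ring
      simp_rw [e3]
      rw [← Finset.sum_filter, Finset.sum_const, nsmul_eq_mul]
      by_cases hv3 : |v| ≤ 3 * m
      · rw [if_pos hv3]
        refine mul_le_mul_of_nonneg_right ?_ hwi
        rw [min_def]
        split_ifs with hcase
        · -- use all of Icc
          have c1 : (((Finset.Icc (-(n : ℤ)) n).filter fun k : ℤ =>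
              |v + k * δ ^ 2| ≤ s ^ 2).card : ℝ) ≤ 2 * n + 1 := by
            have h3 := Finset.card_filter_le (Finset.Icc (-(n : ℤ)) n)
              (fun k : ℤ => |v + k * δ ^ 2| ≤ s ^ 2)
            rw [Int.card_Icc] at h3
            have h4 : ((n : ℤ) + 1 - -(n : ℤ)).toNat = 2 * n + 1 := by omega
            rw [h4] at h3
            exact_mod_cast h3
          refine c1.trans ?_
          have h5 : 1 ≤ ρ / δ ^ 2 := (one_le_div hd).2 hρ
          linarith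
        · refine (card_int n v hδ (by positivity)).trans ?_
          have h5 : 1 ≤ s ^ 2 / δ ^ 2 := (one_le_div hd).2 hs2
          linarith
      · rw [if_neg hv3]
        have hemp : ((Finset.Icc (-(n : ℤ)) n).filter fun k : ℤ =>
            |v + k * δ ^ 2| ≤ s ^ 2) = ∅ := by
          rw [Finset.filter_eq_empty_iff]
          intro k hk hk2
          apply hv3
          rw [Finset.mem_Icc] at hk
          have hkn : |(k : ℝ)| ≤ n := by
            rw [abs_le]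
            constructor
            · exact_mod_cast hk.1
            · exact_mod_cast hk.2
          have h3 : |v| ≤ |v + k * δ ^ 2| + |(k : ℝ) * δ ^ 2| := by
            have := abs_sub (v + k * δ ^ 2) (k * δ ^ 2)
            simpa using this
          have h4 : |(k : ℝ) * δ ^ 2| ≤ ρ + δ ^ 2 := by
            rw [abs_mul, abs_of_pos hd]
            calc |(k : ℝ)| * δ ^ 2 ≤ (ρ / δ ^ 2 + 1) * δ ^ 2 :=
                  mul_le_mul_of_nonneg_right (hkn.trans hn) hd.le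
              _ = ρ + δ ^ 2 := by field_simp
          have h5 : s ^ 2 ≤ m := le_max_left _ _
          have h6 : ρ ≤ m := le_max_right _ _
          linarith
        rw [hemp]
        simp
    · have hn1 : ∀ P : Prop, ¬ (|C i - c| ≤ s ∧ |X i - x| ≤ s ∧ P) := by
        intro P h
        exact hcx ⟨h.1, h.2.1⟩
      simp only [hn1, if_false, Finset.sum_const_zero, le_refl]
  have e4 : ∑ q ∈ (St S n).filter (fun q : ι × ℤ => |C q.1 - c| ≤ s ∧ |X q.1 - x| ≤ s ∧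
      |H q.1 + q.2 * δ ^ 2 - c * X q.1 - t| ≤ s ^ 2), w q.1 ≤
      (5 * (min ρ (s ^ 2) / δ ^ 2)) * (3 * (D * (s * m) / (δ * ρ))) := by
    rw [e1]
    refine (Finset.sum_le_sum e2).trans ?_
    rw [← Finset.sum_filter, ← Finset.mul_sum]
    refine mul_le_mul_of_nonneg_left (HR.three hw hδ hρ0 hD h1 h2 c x t) ?_
    have : 0 ≤ min ρ (s ^ 2) := le_min hρ0.le (by positivity)
    positivity
  have e5 : min ρ (s ^ 2) * m = ρ * s ^ 2 := by
    rw [hm, max_comm, min_mul_max]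
  calc _ ≤ (5 * (min ρ (s ^ 2) / δ ^ 2)) * (3 * (D * (s * m) / (δ * ρ))) * δ ^ 3 :=
        mul_le_mul_of_nonneg_right e4 (by positivity)
    _ = 15 * D * s * (min ρ (s ^ 2) * m) / ρ := by
        field_simp
        try ring
    _ = 15 * D * s ^ 3 := by
        rw [e5]
        field_simp

end stack

/-- **(L3)** the L2 inequality for light rays of `R^{2+1}`: `δ × ρ` planks, `δ^2 ≤ ρ`. -/
theorem light_L2 (S : Finset ι) (C X H w : ι → ℝ) {δ ρ φ D c0 : ℝ}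
    (hw : ∀ i ∈ S, 0 ≤ w i) (hδ : 0 < δ) (hδφ : δ ≤ φ) (hρ : δ ^ 2 ≤ ρ) (hD0 : 0 ≤ D)
    (hC : ∀ i ∈ S, c0 ≤ C i ∧ C i ≤ c0 + φ) (hD : HR S C X H w δ ρ φ D) :
    ∫⁻ z in Set.Icc (-1 : ℝ) 1, ∫⁻ x, ∫⁻ h, ENNReal.ofReal (pl S C X H w δ ρ z x h) ^ 2 ≤
      ENNReal.ofReal (75 * KL * (1 + Real.log (φ / δ)) ^ 2 * D * (δ * ρ) * ∑ i ∈ S, w i) := by
  have hd : (0 : ℝ) < δ ^ 2 := by positivity
  have hρ0 : 0 < ρ := hd.trans_le hρ
  obtain ⟨n, hn⟩ : ∃ n : ℕ, n = ⌈ρ / δ ^ 2⌉₊ := ⟨_, rfl⟩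
  have hn1 : ρ / δ ^ 2 ≤ n := by rw [hn]; exact Nat.le_ceil _
  have hn2 : (n : ℝ) ≤ ρ / δ ^ 2 + 1 := by
    rw [hn]; exact (Nat.ceil_lt_add_one (by positivity)).le
  have hw' : ∀ q ∈ St S n, 0 ≤ w q.1 := fun q hq => hw _ ((mem_St S n).1 hq).1
  have h := light_base (St S n) (fun q => C q.1) (fun q => X q.1)
      (fun q => H q.1 + q.2 * δ ^ 2) (fun q => w q.1) (c0 := c0) hw' hδ hδφ
      (show 0 ≤ 15 * D by positivity) (fun q hq => hC _ ((mem_St S n).1 hq).1)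
      (HD_stack hw hδ hρ hn2 hD)
  refine le_trans ?_ (h.trans (ENNReal.ofReal_le_ofReal ?_))
  · refine lintegral_mono fun z => lintegral_mono fun x => lintegral_mono fun y => ?_
    simp only
    gcongr
    exact pl_le_stack hw hδ (by rwa [div_le_iff₀ hd] at hn1) z x y
  · rw [sum_St]
    have hwS : 0 ≤ ∑ i ∈ S, w i := Finset.sum_nonneg hw
    have hK := KL_nonneg
    have h1 : 1 ≤ ρ / δ ^ 2 := (one_le_div hd).2 hρ
    have h2 : (2 * (n : ℝ) + 1) ≤ 5 * (ρ / δ ^ 2) := by linarith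
    have h3 : 0 ≤ KL * (1 + Real.log (φ / δ)) ^ 2 * (15 * D) * δ ^ 3 * ∑ i ∈ S, w i := by
      positivity
    calc _ = (KL * (1 + Real.log (φ / δ)) ^ 2 * (15 * D) * δ ^ 3 * ∑ i ∈ S, w i) *
          (2 * (n : ℝ) + 1) := by ring
      _ ≤ (KL * (1 + Real.log (φ / δ)) ^ 2 * (15 * D) * δ ^ 3 * ∑ i ∈ S, w i) *
          (5 * (ρ / δ ^ 2)) := mul_le_mul_of_nonneg_left h2 h3
      _ = _ := by field_simp; ring

/-- shaded form: shadings `Y i` (measurable parts of the planks, `|z| ≤ 1`) on which the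
multiplicity is at least `μ` and which make up a portion `lam` of all planks. -/
theorem light_mult (S : Finset ι) (C X H w : ι → ℝ) {δ ρ φ D c0 μ lam : ℝ}
    (hw : ∀ i ∈ S, 0 ≤ w i) (hw1 : 0 < ∑ i ∈ S, w i) (hδ : 0 < δ) (hδφ : δ ≤ φ)
    (hρ : δ ^ 2 ≤ ρ) (hD0 : 0 ≤ D) (hC : ∀ i ∈ S, c0 ≤ C i ∧ C i ≤ c0 + φ)
    (hD : HR S C X H w δ ρ φ D) (hμ : 0 ≤ μ) (hlam : 0 ≤ lam)
    (Y : ι → Set (ℝ × ℝ × ℝ)) (hYm : ∀ i ∈ S, MeasurableSet (Y i))
    (hY1 : ∀ i ∈ S, ∀ q ∈ Y i, |q.1| ≤ 1 ∧ |q.2.1 - X i - q.1 * C i| ≤ δ ∧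
      |q.2.2 - H i - q.1 * (C i ^ 2 / 2) - C i * (q.2.1 - X i - q.1 * C i)| ≤ ρ)
    (hY2 : ∀ i ∈ S, ∀ q ∈ Y i, μ ≤ pl S C X H w δ ρ q.1 q.2.1 q.2.2)
    (hY3 : ENNReal.ofReal (lam * (δ * ρ) * ∑ i ∈ S, w i) ≤
      ∑ i ∈ S, ENNReal.ofReal (w i) * volume (Y i)) :
    μ * lam ≤ 75 * KL * (1 + Real.log (φ / δ)) ^ 2 * D := by
  classical
  have hd : (0 : ℝ) < δ ^ 2 := by positivity
  have hρ0 : 0 < ρ := hd.trans_le hρ
  have hL2 := light_L2 S C X H w hw hδ hδφ hρ hD0 hC hD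
  have hK := KL_nonneg
  have hm := pl_meas S C X H w δ ρ
  -- the triple integral as one integral
  have e1 : ∫⁻ z in Set.Icc (-1 : ℝ) 1, ∫⁻ x, ∫⁻ h,
      ENNReal.ofReal (pl S C X H w δ ρ z x h) ^ 2 =
      ∫⁻ q in {q : ℝ × ℝ × ℝ | |q.1| ≤ 1},
        ENNReal.ofReal (pl S C X H w δ ρ q.1 q.2.1 q.2.2) ^ 2 := by
    have hms : MeasurableSet {q : ℝ × ℝ × ℝ | |q.1| ≤ 1} :=
      (isClosed_le (by fun_prop) continuous_const).measurableSet
    have hm2 : Measurable (fun q : ℝ × ℝ × ℝ =>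
        ENNReal.ofReal (pl S C X H w δ ρ q.1 q.2.1 q.2.2) ^ 2) :=
      (hm.ennreal_ofReal).pow_const 2
    rw [← lintegral_indicator hms, Measure.volume_eq_prod,
      lintegral_prod _ (hm2.indicator hms).aemeasurable, ← lintegral_indicator measurableSet_Icc]
    refine lintegral_congr fun z => ?_
    by_cases hz : |z| ≤ 1
    · rw [Set.indicator_of_mem (show z ∈ Set.Icc (-1 : ℝ) 1 from abs_le.1 hz)]
      have h4 : ∀ y : ℝ × ℝ, ({q : ℝ × ℝ × ℝ | |q.1| ≤ 1}).indicator (fun q =>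
          ENNReal.ofReal (pl S C X H w δ ρ q.1 q.2.1 q.2.2) ^ 2) (z, y) =
          ENNReal.ofReal (pl S C X H w δ ρ z y.1 y.2) ^ 2 := fun y =>
        Set.indicator_of_mem (show (z, y) ∈ {q : ℝ × ℝ × ℝ | |q.1| ≤ 1} from hz) _
      simp_rw [h4]
      have hm3 : Measurable (fun q : ℝ × ℝ =>
          ENNReal.ofReal (pl S C X H w δ ρ z q.1 q.2) ^ 2) := by
        have := hm.comp (measurable_prodMk_left (x := z))
        exact (this.ennreal_ofReal).pow_const 2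
      rw [Measure.volume_eq_prod, lintegral_prod _ hm3.aemeasurable]
    · have hz' : z ∉ Set.Icc (-1 : ℝ) 1 := fun h => hz (abs_le.2 h)
      rw [Set.indicator_of_notMem hz']
      have h4 : ∀ y : ℝ × ℝ, ({q : ℝ × ℝ × ℝ | |q.1| ≤ 1}).indicator (fun q =>
          ENNReal.ofReal (pl S C X H w δ ρ q.1 q.2.1 q.2.2) ^ 2) (z, y) = 0 := fun y =>
        Set.indicator_of_notMem (show (z, y) ∉ {q : ℝ × ℝ × ℝ | |q.1| ≤ 1} from hz) _
      simp_rw [h4]
      simp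
  rw [e1] at hL2
  have hms : MeasurableSet {q : ℝ × ℝ × ℝ | |q.1| ≤ 1} :=
    (isClosed_le (by fun_prop) continuous_const).measurableSet
  -- lower bound
  have e2 : ENNReal.ofReal μ * ∑ i ∈ S, ENNReal.ofReal (w i) * volume (Y i) ≤
      ∫⁻ q in {q : ℝ × ℝ × ℝ | |q.1| ≤ 1},
        ENNReal.ofReal (pl S C X H w δ ρ q.1 q.2.1 q.2.2) ^ 2 := by
    have h5 : ∀ i ∈ S, ENNReal.ofReal (w i) * volume (Y i) =
        ∫⁻ q in {q : ℝ × ℝ × ℝ | |q.1| ≤ 1},
          (Y i).indicator (fun _ => ENNReal.ofReal (w i)) q := by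
      intro i hi
      rw [lintegral_indicator (hYm i hi), lintegral_const, Measure.restrict_apply_univ,
        Measure.restrict_apply (hYm i hi)]
      congr 2
      exact (Set.inter_eq_left.2 fun q hq => (hY1 i hi q hq).1).symm
    rw [Finset.sum_congr rfl h5, ← lintegral_finsetSum]
    · rw [← lintegral_const_mul' _ _ ENNReal.ofReal_ne_top]
      refine lintegral_mono fun q => ?_
      simp only
      by_cases hq : ∃ i ∈ S, q ∈ Y i
      · obtain ⟨i0, hi0, hq0⟩ := hq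
        have h6 : ENNReal.ofReal μ ≤ ENNReal.ofReal (pl S C X H w δ ρ q.1 q.2.1 q.2.2) :=
          ENNReal.ofReal_le_ofReal (hY2 i0 hi0 q hq0)
        have h7 : ∑ i ∈ S, (Y i).indicator (fun _ => ENNReal.ofReal (w i)) q ≤
            ENNReal.ofReal (pl S C X H w δ ρ q.1 q.2.1 q.2.2) := by
          unfold pl
          rw [ENNReal.ofReal_sum_of_nonneg]
          · refine Finset.sum_le_sum fun i hi => ?_
            by_cases h8 : q ∈ Y i
            · rw [Set.indicator_of_mem h8, if_pos (hY1 i hi q h8).2]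
            · rw [Set.indicator_of_notMem h8]
              exact bot_le
          · intro i hi
            split_ifs
            · exact hw i hi
            · exact le_rfl
        rw [sq]
        exact mul_le_mul' h6 h7
      · have h9 : ∑ i ∈ S, (Y i).indicator (fun _ => ENNReal.ofReal (w i)) q = 0 := by
          refine Finset.sum_eq_zero fun i hi => ?_
          exact Set.indicator_of_notMem (fun h => hq ⟨i, hi, h⟩) _
        rw [h9, mul_zero]
        exact bot_le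
    · intro i hi
      exact (measurable_const.indicator (hYm i hi))
  have e3 : ENNReal.ofReal (μ * (lam * (δ * ρ) * ∑ i ∈ S, w i)) ≤
      ENNReal.ofReal (75 * KL * (1 + Real.log (φ / δ)) ^ 2 * D * (δ * ρ) * ∑ i ∈ S, w i) := by
    rw [ENNReal.ofReal_mul hμ]
    refine le_trans ?_ (e2.trans hL2)
    gcongr
  have h0 : 0 ≤ 75 * KL * (1 + Real.log (φ / δ)) ^ 2 * D * (δ * ρ) * ∑ i ∈ S, w i := by
    positivity
  have e4 := (ENNReal.ofReal_le_ofReal_iff h0).1 e3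
  have hpos : 0 < δ * ρ * ∑ i ∈ S, w i := by positivity
  refine le_of_mul_le_mul_right ?_ hpos
  calc μ * lam * (δ * ρ * ∑ i ∈ S, w i) = μ * (lam * (δ * ρ) * ∑ i ∈ S, w i) := by ring
    _ ≤ 75 * KL * (1 + Real.log (φ / δ)) ^ 2 * D * (δ * ρ) * ∑ i ∈ S, w i := e4
    _ = _ := by ring

end Crest.Agent.R116.Lr370
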