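import Mathlib

/-!
# R116: MIS, measure-space form (helper448)

`mis_abs`: if every test plank `a` is thin in every own plank (Cordoba inside one arc, at most `N0`
arcs per own plank and point), then many own planks pass through the typical point of `a`, and the
Kakeya estimate makes the total mass of the test planks small.
-/

set_option autoImplicit false
set_option linter.unusedSectionVars false
set_option linter.unusedVariables false

open MeasureTheory
open scoped ENNReal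

namespace Crest.Agent.R116.Ma448

variable {Y ι κ α β : Type*} [MeasurableSpace Y] {ν : Measure Y}

/-- mass of a function on the set where it is small. -/
theorem small_mass (F : Y → ℝ≥0∞) (hF : Measurable F) (Z : Set Y) (c M : ℝ≥0∞)
    (hZ : ∀ x ∉ Z, F x = 0) (hm : c * ν Z ≤ M) :
    ∫⁻ x in {x | F x < c}, F x ∂ν ≤ M := by
  have h1 : ∫⁻ x in {x | F x < c}, F x ∂ν ≤ ∫⁻ x in Z, c ∂ν := by
    have hms : MeasurableSet {x | F x < c} := measurableSet_lt hF measurable_const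
    rw [← lintegral_indicator hms]
    have h2 : ∀ x, {x | F x < c}.indicator F x ≤ (toMeasurable ν Z).indicator (fun _ => c) x := by
      intro x
      by_cases hx : x ∈ {x | F x < c}
      · rw [Set.indicator_of_mem hx]
        by_cases hz : x ∈ toMeasurable ν Z
        · rw [Set.indicator_of_mem hz]
          exact (le_of_lt hx)
        · rw [hZ x fun h => hz (subset_toMeasurable ν Z h)]
          exact zero_le
      · rw [Set.indicator_of_notMem hx]
        exact zero_le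
    refine (lintegral_mono h2).trans ?_
    rw [lintegral_indicator (measurableSet_toMeasurable ν Z), setLIntegral_const,
      measure_toMeasurable, setLIntegral_const]
  refine h1.trans ?_
  rw [setLIntegral_const]
  exact hm

/-- Chebyshev for one packet. -/
theorem cheb (f b : Y → ℝ≥0∞) (hf : Measurable f) (hb : Measurable b) (K0 : ℝ≥0∞) (hK : K0 ≠ 0)
    (hK' : K0 ≠ ∞) (h : ∫⁻ x, f x * b x ∂ν ≤ K0 * ∫⁻ x, f x ∂ν) :
    8 * ∫⁻ x in {x | 8 * K0 < b x}, f x ∂ν ≤ ∫⁻ x, f x ∂ν := by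
  have h1 : K0 * (8 * ∫⁻ x in {x | 8 * K0 < b x}, f x ∂ν) ≤ K0 * ∫⁻ x, f x ∂ν := by
    refine le_trans ?_ h
    rw [← mul_assoc, mul_comm K0 8, ← lintegral_const_mul _ hf]
    have hms : MeasurableSet {x | 8 * K0 < b x} := measurableSet_lt measurable_const hb
    refine (setLIntegral_mono' hms fun x hx => ?_).trans (setLIntegral_le_lintegral _ _)
    rw [mul_comm]
    exact mul_le_mul' le_rfl (le_of_lt hx)
  exact (ENNReal.mul_le_mul_iff_right hK hK').1 h1

/-- super-level sets and the power `3/2`. -/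
theorem level_mass (S : Y → ℝ≥0∞) (hS : Measurable S) (t : ℝ≥0∞) (ht : t ≠ 0) (ht' : t ≠ ∞) :
    ∫⁻ x in {x | t ≤ S x}, S x ∂ν ≤ t ^ (-(1 / 2) : ℝ) * ∫⁻ x, S x ^ (3 / 2 : ℝ) ∂ν := by
  rw [← lintegral_const_mul _ (hS.pow_const _)]
  have hms : MeasurableSet {x | t ≤ S x} := measurableSet_le measurable_const hS
  refine (setLIntegral_mono' hms fun x hx => ?_).trans (setLIntegral_le_lintegral _ _)
  have hx' : t ≤ S x := hx
  by_cases hs : S x = ∞
  · rw [hs, ENNReal.top_rpow_of_pos (by norm_num), ENNReal.mul_top]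
    have : t ^ (-(1 / 2) : ℝ) ≠ 0 := by
      simp [ENNReal.rpow_eq_zero_iff, ht, ht']
    exact this
  · have h0 : S x ≠ 0 := fun h => ht (le_antisymm (h ▸ hx') zero_le)
    have e1 : S x ^ (3 / 2 : ℝ) = S x ^ (1 / 2 : ℝ) * S x := by
      rw [show (3 / 2 : ℝ) = 1 / 2 + 1 by norm_num,
        ENNReal.rpow_add_of_nonneg _ _ (by norm_num) (by norm_num), ENNReal.rpow_one]
    rw [e1, ← mul_assoc]
    have h2 : 1 ≤ t ^ (-(1 / 2) : ℝ) * S x ^ (1 / 2 : ℝ) := by
      have h3 : t ^ (-(1 / 2) : ℝ) * t ^ (1 / 2 : ℝ) = 1 := by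
        rw [← ENNReal.rpow_add _ _ ht ht']
        norm_num
      rw [← h3]
      gcongr
    calc S x = 1 * S x := (one_mul _).symm
      _ ≤ _ := mul_le_mul' h2 le_rfl


section main

variable (I : Finset ι) (f : ι → Y → ℝ≥0∞) (pl : ι → κ) (A : Finset α) (om : α → ι → ℝ≥0∞)
  (arc : α → ι → β)

/-- the density of the test plank. -/
noncomputable def FF (a : α) (x : Y) : ℝ≥0∞ := ∑ i ∈ I, om a i * f i x

open Classical in
/-- the density of the own plank. -/
noncomputable def pe (p : κ) (x : Y) : ℝ≥0∞ := ∑ i ∈ I with pl i = p, f i x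

open Classical in
/-- the density of the own arc. -/
noncomputable def ba (a : α) (i : ι) (x : Y) : ℝ≥0∞ :=
  ∑ i' ∈ I with pl i' = pl i ∧ arc a i' = arc a i, om a i' * f i' x

theorem meas_FF (hf : ∀ i, Measurable (f i)) (a : α) : Measurable (FF I f om a) :=
  Finset.measurable_sum _ fun i _ => (hf i).const_mul _

theorem meas_pe (hf : ∀ i, Measurable (f i)) (p : κ) : Measurable (pe I f pl p) :=
  Finset.measurable_sum _ fun i _ => hf i

theorem meas_ba (hf : ∀ i, Measurable (f i)) (a : α) (i : ι) :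
    Measurable (ba I f pl om arc a i) :=
  Finset.measurable_sum _ fun i _ => (hf i).const_mul _

open Classical in
/-- the sparse incidences. -/
theorem sparse_le (hf : ∀ i, Measurable (f i)) (X : κ → Set Y)
    (hX : ∀ i ∈ I, ∀ x ∉ X (pl i), f i x = 0) (L c0 κ0 : ℝ≥0∞)
    (hdens : ∀ i ∈ I, c0 * L * ν (X (pl i)) ≤ ∑ i' ∈ I with pl i' = pl i, ∫⁻ x, f i' x ∂ν) :
    c0 * ∑ i ∈ I, ∫⁻ x in {x | pe I f pl (pl i) x < κ0 * L}, f i x ∂ν ≤
      κ0 * ∑ i ∈ I, ∫⁻ x, f i x ∂ν := by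
  have h1 : ∀ p ∈ I.image pl, c0 * ∑ i ∈ I with pl i = p,
      ∫⁻ x in {x | pe I f pl (pl i) x < κ0 * L}, f i x ∂ν ≤
      κ0 * ∑ i ∈ I with pl i = p, ∫⁻ x, f i x ∂ν := by
    intro p hp
    obtain ⟨i0, hi0, rfl⟩ := Finset.mem_image.1 hp
    have e1 : ∑ i ∈ I with pl i = pl i0, ∫⁻ x in {x | pe I f pl (pl i) x < κ0 * L}, f i x ∂ν =
        ∫⁻ x in {x | pe I f pl (pl i0) x < κ0 * L}, pe I f pl (pl i0) x ∂ν := by
      unfold pe
      rw [lintegral_finsetSum _ fun i _ => hf i]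
      refine Finset.sum_congr rfl fun i hi => ?_
      rw [(Finset.mem_filter.1 hi).2]
    rw [e1]
    have h2 := small_mass (ν := ν) (pe I f pl (pl i0)) (meas_pe I f pl hf _) (X (pl i0))
      (κ0 * L) (κ0 * L * ν (X (pl i0))) (fun x hx => by
        unfold pe
        refine Finset.sum_eq_zero fun i hi => ?_
        obtain ⟨hi1, hi2⟩ := Finset.mem_filter.1 hi
        exact hX i hi1 x (by rw [hi2]; exact hx)) le_rfl
    calc c0 * _ ≤ c0 * (κ0 * L * ν (X (pl i0))) := mul_le_mul' le_rfl h2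
      _ = κ0 * (c0 * L * ν (X (pl i0))) := by ring
      _ ≤ _ := mul_le_mul' le_rfl (hdens i0 hi0)
  have e2 : ∀ g : ι → ℝ≥0∞, ∑ i ∈ I, g i = ∑ p ∈ I.image pl, ∑ i ∈ I with pl i = p, g i := by
    intro g
    exact (Finset.sum_fiberwise_of_maps_to (fun i hi => Finset.mem_image_of_mem pl hi) g).symm
  rw [e2, e2 (fun i => ∫⁻ x, f i x ∂ν), Finset.mul_sum, Finset.mul_sum]
  exact Finset.sum_le_sum h1


open Classical in
/-- many dense own planks at a typical point. -/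
theorem count_point (a : α) (x : Y) (L L' K0 κ0 : ℝ≥0∞) (N0 : ℕ)
    (hN : ∀ p, ((I.filter fun i => pl i = p ∧ om a i ≠ 0 ∧ f i x ≠ 0).image (arc a)).card ≤ N0)
    (hG : L' ≤ 32 * ∑ i ∈ I with (¬ 8 * K0 < ba I f pl om arc a i x) ∧
      ¬ pe I f pl (pl i) x < κ0 * L, om a i * f i x) :
    L' * (κ0 * L) ≤ 256 * N0 * K0 * ∑ i ∈ I, f i x := by
  set J := I.filter fun i => (¬ 8 * K0 < ba I f pl om arc a i x) ∧
      ¬ pe I f pl (pl i) x < κ0 * L with hJ
  set J' := J.filter fun i => om a i ≠ 0 ∧ f i x ≠ 0 with hJ'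
  have e0 : ∑ i ∈ J, om a i * f i x = ∑ i ∈ J', om a i * f i x :=
    (Finset.sum_filter_of_ne fun i _ h =>
      ⟨left_ne_zero_of_mul h, right_ne_zero_of_mul h⟩).symm
  set Q := J'.image pl with hQ
  have h1 : ∑ i ∈ J', om a i * f i x ≤ ∑ p ∈ Q, (N0 : ℝ≥0∞) * (8 * K0) := by
    rw [← Finset.sum_fiberwise_of_maps_to
      (fun i hi => (Finset.mem_image_of_mem pl hi : pl i ∈ Q)) (fun i => om a i * f i x)]
    refine Finset.sum_le_sum fun p hp => ?_
    set W := (J'.filter fun i => pl i = p).image (arc a) with hW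
    have hWc : W.card ≤ N0 := by
      refine (Finset.card_le_card ?_).trans (hN p)
      intro b hb
      obtain ⟨i, hi, rfl⟩ := Finset.mem_image.1 hb
      refine Finset.mem_image.2 ⟨i, ?_, rfl⟩
      simp only [hJ', hJ, Finset.mem_filter] at hi ⊢
      exact ⟨hi.1.1.1, hi.2, hi.1.2⟩
    rw [← Finset.sum_fiberwise_of_maps_to
      (fun i hi => (Finset.mem_image_of_mem (arc a) hi : arc a i ∈ W)) (fun i => om a i * f i x)]
    calc ∑ b ∈ W, ∑ i ∈ (J'.filter fun i => pl i = p) with arc a i = b, om a i * f i x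
        ≤ ∑ b ∈ W, 8 * K0 := by
          refine Finset.sum_le_sum fun b hb => ?_
          obtain ⟨i, hi, rfl⟩ := Finset.mem_image.1 hb
          have hi2 : ¬ 8 * K0 < ba I f pl om arc a i x := by
            simp only [hJ', hJ, Finset.mem_filter] at hi
            exact hi.1.1.2.1
          have hip : pl i = p := by
            simp only [Finset.mem_filter] at hi
            exact hi.2
          refine le_trans ?_ (not_lt.1 hi2)
          unfold ba
          refine Finset.sum_le_sum_of_subset fun i' hi' => ?_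
          simp only [hJ', hJ, Finset.mem_filter] at hi' ⊢
          exact ⟨hi'.1.1.1.1, by rw [hip]; exact hi'.1.2, hi'.2⟩
      _ = W.card * (8 * K0) := by rw [Finset.sum_const, nsmul_eq_mul]
      _ ≤ N0 * (8 * K0) := by
          refine mul_le_mul' ?_ le_rfl
          exact_mod_cast hWc
  have h2 : ∑ p ∈ Q, κ0 * L ≤ ∑ i ∈ I, f i x := by
    calc ∑ p ∈ Q, κ0 * L ≤ ∑ p ∈ Q, pe I f pl p x := by
          refine Finset.sum_le_sum fun p hp => ?_
          obtain ⟨i, hi, rfl⟩ := Finset.mem_image.1 hp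
          simp only [hJ', hJ, Finset.mem_filter] at hi
          exact not_lt.1 hi.1.2.2
      _ ≤ ∑ p ∈ I.image pl, pe I f pl p x := by
          refine Finset.sum_le_sum_of_subset fun p hp => ?_
          obtain ⟨i, hi, rfl⟩ := Finset.mem_image.1 hp
          simp only [hJ', hJ, Finset.mem_filter] at hi
          exact Finset.mem_image_of_mem pl hi.1.1
      _ = ∑ i ∈ I, f i x := by
          unfold pe
          exact Finset.sum_fiberwise_of_maps_to (fun i hi => Finset.mem_image_of_mem pl hi) _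
  rw [Finset.sum_const, nsmul_eq_mul] at h1 h2
  calc L' * (κ0 * L) ≤ (32 * ∑ i ∈ J, om a i * f i x) * (κ0 * L) := mul_le_mul' hG le_rfl
    _ ≤ (32 * (Q.card * (N0 * (8 * K0)))) * (κ0 * L) := by
        rw [e0]
        gcongr
    _ = 256 * N0 * K0 * (Q.card * (κ0 * L)) := by ring
    _ ≤ _ := mul_le_mul' le_rfl h2


open Classical in
/-- **one test plank**: if its sparse part is small, it lives on the rich set. -/
theorem one_test (hf : ∀ i, Measurable (f i)) (hfin : ∀ i ∈ I, ∀ x, f i x ≠ ∞)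
    (hfi : ∀ i ∈ I, ∫⁻ x, f i x ∂ν ≠ ∞) (a : α) (hom : ∀ i, om a i ≤ 1)
    (L L' K0 κ0 : ℝ≥0∞) (N0 : ℕ) (hK0 : K0 ≠ 0) (hK0' : K0 ≠ ∞)
    (Z : Set Y) (hZ : ∀ i ∈ I, om a i ≠ 0 → ∀ x ∉ Z, f i x = 0)
    (hmass : L' * ν Z ≤ ∑ i ∈ I, om a i * ∫⁻ x, f i x ∂ν)
    (hcord : ∀ i ∈ I, om a i ≠ 0 →
      ∫⁻ x, f i x * ba I f pl om arc a i x ∂ν ≤ K0 * ∫⁻ x, f i x ∂ν)
    (hN : ∀ x p, ((I.filter fun i => pl i = p ∧ om a i ≠ 0 ∧ f i x ≠ 0).image (arc a)).card ≤ N0)
    (hsp : 16 * ∑ i ∈ I, om a i * ∫⁻ x in {x | pe I f pl (pl i) x < κ0 * L}, f i x ∂ν ≤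
      ∑ i ∈ I, om a i * ∫⁻ x, f i x ∂ν) :
    ∑ i ∈ I, om a i * ∫⁻ x, f i x ∂ν ≤
      4 * ∫⁻ x in {x | L' * (κ0 * L) ≤ 256 * N0 * K0 * ∑ i ∈ I, f i x}, FF I f om a x ∂ν := by
  set MM := ∑ i ∈ I, om a i * ∫⁻ x, f i x ∂ν with hMM
  have hMfin : MM ≠ ∞ := by
    refine (ENNReal.sum_lt_top.2 fun i hi => ?_).ne
    exact ENNReal.mul_lt_top ((hom i).trans_lt ENNReal.one_lt_top) (hfi i hi).lt_top
  have hFF : ∫⁻ x, FF I f om a x ∂ν = MM := by
    unfold FF
    rw [lintegral_finsetSum _ fun i _ => (hf i).const_mul _]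
    exact Finset.sum_congr rfl fun i _ => lintegral_const_mul _ (hf i)
  have hFm := meas_FF I f om hf a
  -- the three parts
  set Bd : Y → ℝ≥0∞ := fun x => ∑ i ∈ I, om a i *
    {x | 8 * K0 < ba I f pl om arc a i x}.indicator (f i) x with hBd
  set Sp : Y → ℝ≥0∞ := fun x => ∑ i ∈ I, om a i *
    {x | pe I f pl (pl i) x < κ0 * L}.indicator (f i) x with hSp
  set G : Y → ℝ≥0∞ := fun x => ∑ i ∈ I with (¬ 8 * K0 < ba I f pl om arc a i x) ∧
      ¬ pe I f pl (pl i) x < κ0 * L, om a i * f i x with hG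
  have hms1 : ∀ i, MeasurableSet {x | 8 * K0 < ba I f pl om arc a i x} := fun i =>
    measurableSet_lt measurable_const (meas_ba I f pl om arc hf a i)
  have hms2 : ∀ i, MeasurableSet {x | pe I f pl (pl i) x < κ0 * L} := fun i =>
    measurableSet_lt (meas_pe I f pl hf _) measurable_const
  have hBm : Measurable Bd := Finset.measurable_sum _ fun i _ =>
    ((hf i).indicator (hms1 i)).const_mul _
  have hSm : Measurable Sp := Finset.measurable_sum _ fun i _ =>
    ((hf i).indicator (hms2 i)).const_mul _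
  have hGeq : G = fun x => ∑ i ∈ I, om a i * ({x | 8 * K0 < ba I f pl om arc a i x}ᶜ ∩
      {x | pe I f pl (pl i) x < κ0 * L}ᶜ).indicator (f i) x := by
    funext x
    rw [hG]
    simp only
    rw [Finset.sum_filter]
    refine Finset.sum_congr rfl fun i _ => ?_
    by_cases h1 : 8 * K0 < ba I f pl om arc a i x
    · simp [h1]
    · by_cases h2 : pe I f pl (pl i) x < κ0 * L
      · simp [h2]
      · simp [h1, h2]
  have hGm : Measurable G := by
    rw [hGeq]
    exact Finset.measurable_sum _ fun i _ =>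
      ((hf i).indicator ((hms1 i).compl.inter (hms2 i).compl)).const_mul _
  have hsplit : ∀ x, FF I f om a x ≤ Bd x + Sp x + G x := by
    intro x
    rw [hGeq, hBd, hSp]
    simp only
    unfold FF
    rw [← Finset.sum_add_distrib, ← Finset.sum_add_distrib]
    refine Finset.sum_le_sum fun i _ => ?_
    rw [← mul_add, ← mul_add]
    refine mul_le_mul' le_rfl ?_
    by_cases h1 : 8 * K0 < ba I f pl om arc a i x
    · rw [Set.indicator_of_mem (show x ∈ {x | 8 * K0 < ba I f pl om arc a i x} from h1), add_assoc]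
      exact le_self_add
    · by_cases h2 : pe I f pl (pl i) x < κ0 * L
      · rw [Set.indicator_of_mem (show x ∈ {x | pe I f pl (pl i) x < κ0 * L} from h2)]
        refine le_trans ?_ (le_self_add)
        exact le_add_self
      · rw [Set.indicator_of_mem (show x ∈ {x | 8 * K0 < ba I f pl om arc a i x}ᶜ ∩
          {x | pe I f pl (pl i) x < κ0 * L}ᶜ from ⟨h1, h2⟩)]
        exact le_add_self
  have hB8 : 8 * ∫⁻ x, Bd x ∂ν ≤ MM := by
    rw [hBd]
    simp only
    rw [lintegral_finsetSum _ fun i _ => ((hf i).indicator (hms1 i)).const_mul _, Finset.mul_sum]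
    refine Finset.sum_le_sum fun i hi => ?_
    rw [lintegral_const_mul _ ((hf i).indicator (hms1 i)), lintegral_indicator (hms1 i)]
    by_cases h0 : om a i = 0
    · simp [h0]
    · have := cheb (ν := ν) (f i) (ba I f pl om arc a i) (hf i) (meas_ba I f pl om arc hf a i)
        K0 hK0 hK0' (hcord i hi h0)
      calc 8 * (om a i * ∫⁻ x in {x | 8 * K0 < ba I f pl om arc a i x}, f i x ∂ν) =
          om a i * (8 * ∫⁻ x in {x | 8 * K0 < ba I f pl om arc a i x}, f i x ∂ν) := by ring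
        _ ≤ _ := mul_le_mul' le_rfl this
  have hS16 : 16 * ∫⁻ x, Sp x ∂ν ≤ MM := by
    refine le_trans (le_of_eq ?_) hsp
    rw [hSp]
    simp only
    rw [lintegral_finsetSum _ fun i _ => ((hf i).indicator (hms2 i)).const_mul _]
    congr 1
    refine Finset.sum_congr rfl fun i hi => ?_
    rw [lintegral_const_mul _ ((hf i).indicator (hms2 i)), lintegral_indicator (hms2 i)]
  -- the exceptional sets
  set T1 : Set Y := {x | 8 * FF I f om a x < L'} with hT1
  set T2 : Set Y := {x | 4 * G x < FF I f om a x} with hT2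
  have hT1m : MeasurableSet T1 := measurableSet_lt (hFm.const_mul _) measurable_const
  have hT2m : MeasurableSet T2 := measurableSet_lt (hGm.const_mul _) hFm
  have h1 : 8 * ∫⁻ x in T1, FF I f om a x ∂ν ≤ MM := by
    rw [← lintegral_const_mul _ hFm]
    refine small_mass (fun x => 8 * FF I f om a x) (hFm.const_mul _) Z L' MM (fun x hx => ?_) hmass
    unfold FF
    rw [Finset.sum_eq_zero, mul_zero]
    intro i hi
    by_cases h0 : om a i = 0
    · simp [h0]
    · rw [hZ i hi h0 x hx, mul_zero]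
  have h2 : 4 * ∫⁻ x in T2, FF I f om a x ∂ν ≤ MM := by
    have hBS : Measurable fun x => Bd x + Sp x := hBm.add hSm
    have h3 : 3 * ∫⁻ x in T2, FF I f om a x ∂ν ≤ 4 * (∫⁻ x, Bd x ∂ν + ∫⁻ x, Sp x ∂ν) := by
      rw [← lintegral_const_mul _ hFm, ← lintegral_add_left hBm, ← lintegral_const_mul _ hBS]
      refine (setLIntegral_mono' hT2m fun x hx => ?_).trans (setLIntegral_le_lintegral _ _)
      have hx' : 4 * G x < FF I f om a x := hx
      have hFx : FF I f om a x ≠ ∞ := by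
        unfold FF
        exact (ENNReal.sum_lt_top.2 fun i hi =>
          ENNReal.mul_lt_top ((hom i).trans_lt ENNReal.one_lt_top) (hfin i hi x).lt_top).ne
      have h5 : 3 * FF I f om a x + FF I f om a x ≤ 4 * (Bd x + Sp x) + FF I f om a x := by
        calc 3 * FF I f om a x + FF I f om a x = 4 * FF I f om a x := by ring
          _ ≤ 4 * (Bd x + Sp x + G x) := mul_le_mul' le_rfl (hsplit x)
          _ = 4 * (Bd x + Sp x) + 4 * G x := by ring
          _ ≤ _ := by gcongr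
      exact (ENNReal.add_le_add_iff_right hFx).1 h5
    have h6 : 4 * (3 * (4 * ∫⁻ x in T2, FF I f om a x ∂ν)) ≤ 4 * (3 * MM) := by
      calc 4 * (3 * (4 * ∫⁻ x in T2, FF I f om a x ∂ν)) =
          16 * (3 * ∫⁻ x in T2, FF I f om a x ∂ν) := by ring
        _ ≤ 16 * (4 * (∫⁻ x, Bd x ∂ν + ∫⁻ x, Sp x ∂ν)) := mul_le_mul' le_rfl h3
        _ = 8 * (8 * ∫⁻ x, Bd x ∂ν) + 4 * (16 * ∫⁻ x, Sp x ∂ν) := by ring
        _ ≤ 8 * MM + 4 * MM := by gcongr
        _ = _ := by ring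
    have h7 := (ENNReal.mul_le_mul_iff_right (by norm_num) (by norm_num)).1 h6
    exact (ENNReal.mul_le_mul_iff_right (by norm_num) (by norm_num)).1 h7
  set U : Set Y := {x | L' * (κ0 * L) ≤ 256 * N0 * K0 * ∑ i ∈ I, f i x} with hU
  have hUm : MeasurableSet U := measurableSet_le measurable_const
    ((Finset.measurable_sum _ fun i _ => hf i).const_mul _)
  have hcov : ∀ x, x ∈ T1 ∪ T2 ∪ U := by
    intro x
    by_contra hx
    rw [Set.mem_union, Set.mem_union, not_or, not_or] at hx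
    obtain ⟨⟨hx1, hx2⟩, hx3⟩ := hx
    apply hx3
    refine count_point I f pl om arc a x L L' K0 κ0 N0 (hN x) ?_
    have hx1' : L' ≤ 8 * FF I f om a x := not_lt.1 hx1
    have hx2' : FF I f om a x ≤ 4 * G x := not_lt.1 hx2
    calc L' ≤ 8 * FF I f om a x := hx1'
      _ ≤ 8 * (4 * G x) := mul_le_mul' le_rfl hx2'
      _ = 32 * G x := by ring
  have h8 : MM ≤ ∫⁻ x in T1, FF I f om a x ∂ν + ∫⁻ x in T2, FF I f om a x ∂ν +
      ∫⁻ x in U, FF I f om a x ∂ν := by
    rw [← hFF]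
    calc ∫⁻ x, FF I f om a x ∂ν = ∫⁻ x in T1 ∪ T2 ∪ U, FF I f om a x ∂ν := by
          rw [Set.eq_univ_of_forall hcov, setLIntegral_univ]
      _ ≤ ∫⁻ x in T1 ∪ T2, FF I f om a x ∂ν + ∫⁻ x in U, FF I f om a x ∂ν :=
          lintegral_union_le _ _ _
      _ ≤ _ := by
          gcongr
          exact lintegral_union_le _ _ _
  have h9 : 4 * MM + 4 * MM ≤ 4 * MM + 8 * ∫⁻ x in U, FF I f om a x ∂ν := by
    calc 4 * MM + 4 * MM = 8 * MM := by ring
      _ ≤ 8 * (∫⁻ x in T1, FF I f om a x ∂ν + ∫⁻ x in T2, FF I f om a x ∂ν +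
          ∫⁻ x in U, FF I f om a x ∂ν) := mul_le_mul' le_rfl h8
      _ = 8 * ∫⁻ x in T1, FF I f om a x ∂ν + 2 * (4 * ∫⁻ x in T2, FF I f om a x ∂ν) +
          8 * ∫⁻ x in U, FF I f om a x ∂ν := by ring
      _ ≤ MM + 2 * MM + 8 * ∫⁻ x in U, FF I f om a x ∂ν := by gcongr
      _ = 3 * MM + 8 * ∫⁻ x in U, FF I f om a x ∂ν := by ring
      _ ≤ _ := by
        gcongr
        norm_num
  have h10 : 4 * MM ≤ 8 * ∫⁻ x in U, FF I f om a x ∂ν :=
    (ENNReal.add_le_add_iff_left (ENNReal.mul_ne_top (by norm_num) hMfin)).1 h9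
  have h11 : 4 * MM ≤ 4 * (4 * ∫⁻ x in U, FF I f om a x ∂ν) := by
    refine h10.trans ?_
    rw [← mul_assoc]
    gcongr
    norm_num
  exact (ENNReal.mul_le_mul_iff_right (by norm_num) (by norm_num)).1 h11


open Classical in
/-- **MIS, measure-space form** (multiplied form, no division). `t` = number of own planks times
the density of one of them, `t * (256 N0 K0) ≤ L' κ0 L`. -/
theorem mis_abs (hf : ∀ i, Measurable (f i)) (hfin : ∀ i ∈ I, ∀ x, f i x ≠ ∞)
    (hfi : ∀ i ∈ I, ∫⁻ x, f i x ∂ν ≠ ∞) (hom : ∀ a i, om a i ≤ 1)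
    (L L' K0 κ0 c0 mult KK t : ℝ≥0∞) (N0 : ℕ) (hN0 : N0 ≠ 0) (hK0 : K0 ≠ 0) (hK0' : K0 ≠ ∞)
    (hc0 : c0 ≠ 0) (hc0' : c0 ≠ ∞)
    (X : κ → Set Y) (hX : ∀ i ∈ I, ∀ x ∉ X (pl i), f i x = 0)
    (hdens : ∀ i ∈ I, c0 * L * ν (X (pl i)) ≤ ∑ i' ∈ I with pl i' = pl i, ∫⁻ x, f i' x ∂ν)
    (Z : α → Set Y) (hZ : ∀ a ∈ A, ∀ i ∈ I, om a i ≠ 0 → ∀ x ∉ Z a, f i x = 0)
    (hmass : ∀ a ∈ A, L' * ν (Z a) ≤ ∑ i ∈ I, om a i * ∫⁻ x, f i x ∂ν)
    (hcord : ∀ a ∈ A, ∀ i ∈ I, om a i ≠ 0 →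
      ∫⁻ x, f i x * ba I f pl om arc a i x ∂ν ≤ K0 * ∫⁻ x, f i x ∂ν)
    (hN : ∀ a ∈ A, ∀ x p,
      ((I.filter fun i => pl i = p ∧ om a i ≠ 0 ∧ f i x ≠ 0).image (arc a)).card ≤ N0)
    (hmult : ∀ i ∈ I, ∑ a ∈ A, om a i ≤ mult)
    (hKM : ∫⁻ x, (∑ i ∈ I, f i x) ^ (3 / 2 : ℝ) ∂ν ≤ KK)
    (ht : t ≠ 0) (ht' : t ≠ ∞) (htt : t * (256 * N0 * K0) ≤ L' * (κ0 * L)) :
    ∑ a ∈ A, ∑ i ∈ I, om a i * ∫⁻ x, f i x ∂ν ≤
      4 * mult * (t ^ (-(1 / 2) : ℝ) * KK) +
        16 * mult * (κ0 / c0) * ∑ i ∈ I, ∫⁻ x, f i x ∂ν := by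
  set MM : α → ℝ≥0∞ := fun a => ∑ i ∈ I, om a i * ∫⁻ x, f i x ∂ν with hMM
  set SS : α → ℝ≥0∞ := fun a => ∑ i ∈ I, om a i *
    ∫⁻ x in {x | pe I f pl (pl i) x < κ0 * L}, f i x ∂ν with hSS
  have hSm : Measurable fun x => ∑ i ∈ I, f i x := Finset.measurable_sum _ fun i _ => hf i
  have hsum : ∑ a ∈ A, MM a ≤ ∑ a ∈ A, 4 * ∫⁻ x in
      {x | L' * (κ0 * L) ≤ 256 * N0 * K0 * ∑ i ∈ I, f i x}, FF I f om a x ∂ν +
      ∑ a ∈ A, 16 * SS a := by
    rw [← Finset.sum_add_distrib]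
    refine Finset.sum_le_sum fun a ha => ?_
    by_cases h : 16 * SS a ≤ MM a
    · refine le_trans ?_ le_self_add
      exact one_test I f pl om arc hf hfin hfi a (hom a) L L' K0 κ0 N0 hK0 hK0' (Z a) (hZ a ha)
        (hmass a ha) (hcord a ha) (hN a ha) h
    · exact (not_le.1 h).le.trans le_add_self
  refine hsum.trans (add_le_add ?_ ?_)
  · -- the rich part
    rw [← Finset.mul_sum]
    rw [← lintegral_finsetSum _ fun a _ => meas_FF I f om hf a]
    set U : Set Y := {x | L' * (κ0 * L) ≤ 256 * N0 * K0 * ∑ i ∈ I, f i x} with hU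
    have h1 : ∀ x, ∑ a ∈ A, FF I f om a x ≤ mult * ∑ i ∈ I, f i x := by
      intro x
      unfold FF
      rw [Finset.sum_comm, Finset.mul_sum]
      refine Finset.sum_le_sum fun i hi => ?_
      rw [← Finset.sum_mul]
      exact mul_le_mul' (hmult i hi) le_rfl
    have h2 : U ⊆ {x | t ≤ ∑ i ∈ I, f i x} := by
      intro x hx
      have hx' : L' * (κ0 * L) ≤ 256 * N0 * K0 * ∑ i ∈ I, f i x := hx
      have h3 : t * (256 * N0 * K0) ≤ (∑ i ∈ I, f i x) * (256 * N0 * K0) := by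
        rw [mul_comm (∑ i ∈ I, f i x)]
        exact htt.trans hx'
      exact (ENNReal.mul_le_mul_iff_left
          (mul_ne_zero (mul_ne_zero (by norm_num) (Nat.cast_ne_zero.2 hN0)) hK0)
          (ENNReal.mul_ne_top (ENNReal.mul_ne_top (by norm_num) (ENNReal.natCast_ne_top _))
            hK0')).1 h3
    calc 4 * ∫⁻ x in U, ∑ a ∈ A, FF I f om a x ∂ν ≤
        4 * ∫⁻ x in U, mult * ∑ i ∈ I, f i x ∂ν := by
          gcongr with x
          exact h1 x
      _ = 4 * (mult * ∫⁻ x in U, ∑ i ∈ I, f i x ∂ν) := by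
          rw [lintegral_const_mul _ hSm]
      _ ≤ 4 * (mult * ∫⁻ x in {x | t ≤ ∑ i ∈ I, f i x}, ∑ i ∈ I, f i x ∂ν) := by
          gcongr
      _ ≤ 4 * (mult * (t ^ (-(1 / 2) : ℝ) * KK)) := by
          gcongr
          exact (level_mass _ hSm t ht ht').trans (mul_le_mul' le_rfl hKM)
      _ = _ := by ring
  · have h1 := sparse_le (ν := ν) I f pl hf X hX L c0 κ0 hdens
    have h2 : ∑ i ∈ I, ∫⁻ x in {x | pe I f pl (pl i) x < κ0 * L}, f i x ∂ν ≤
        κ0 / c0 * ∑ i ∈ I, ∫⁻ x, f i x ∂ν := by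
      have h3 : c0 * ∑ i ∈ I, ∫⁻ x in {x | pe I f pl (pl i) x < κ0 * L}, f i x ∂ν ≤
          c0 * (κ0 / c0 * ∑ i ∈ I, ∫⁻ x, f i x ∂ν) := by
        rw [← mul_assoc, ENNReal.mul_div_cancel hc0 hc0']
        exact h1
      exact (ENNReal.mul_le_mul_iff_right hc0 hc0').1 h3
    rw [← Finset.mul_sum]
    calc 16 * ∑ a ∈ A, SS a ≤ 16 * (mult * ∑ i ∈ I,
          ∫⁻ x in {x | pe I f pl (pl i) x < κ0 * L}, f i x ∂ν) := by
          gcongr
          rw [hSS]
          simp only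
          rw [Finset.sum_comm, Finset.mul_sum]
          refine Finset.sum_le_sum fun i hi => ?_
          rw [← Finset.sum_mul]
          exact mul_le_mul' (hmult i hi) le_rfl
      _ ≤ 16 * (mult * (κ0 / c0 * ∑ i ∈ I, ∫⁻ x, f i x ∂ν)) := by gcongr
      _ = _ := by ring

end main

end Crest.Agent.R116.Ma448
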