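import Crest.Agent.R116.CDef_480

/-!
# R116: Cordoba inside one arc for the planks of the cone (helper448)

`PL r w B c a n = {|s| ≤ r, |x' - (a - s c)| ≤ w, |nrm c X s - n| ≤ B}`.
-/

set_option autoImplicit false
set_option linter.unusedSectionVars false
set_option linter.unusedVariables false

open MeasureTheory
open scoped ENNReal

namespace Crest.Agent.R116.Ma448

open Crest.Agent.R138.Defs (E2)
open Crest.Agent.R116.CDef480

/-- the volume of a slice. -/
noncomputable def pv (w B : ℝ) : ℝ≥0∞ := volume {X : E3 | ‖lat X‖ ≤ w ∧ |X 2| ≤ B}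

/-- the plank. -/
def PL (r w B : ℝ) (c a : E2) (n : ℝ) : Set (E3 × ℝ) :=
  {p | |p.2| ≤ r ∧ ‖lat p.1 - (a - p.2 • c)‖ ≤ w ∧ |nrm c p.1 p.2 - n| ≤ B}

theorem vol_shear (c : E2) (S : Set E3) (hS : MeasurableSet S) :
    volume {X : E3 | pt (lat X) (X 2 + inner ℝ c (lat X)) ∈ S} = volume S := by
  set M : Matrix (Fin 3) (Fin 3) ℝ := ![![1, 0, 0], ![0, 1, 0], ![c 0, c 1, 1]] with hM
  have hdet : M.det = 1 := by
    rw [Matrix.det_fin_three]
    simp [hM]
  have hdet' : LinearMap.det (Matrix.toLin' M) ≠ 0 := by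
    rw [LinearMap.det_toLin', hdet]; exact one_ne_zero
  set S' : Set (Fin 3 → ℝ) := (fun x : Fin 3 → ℝ => (WithLp.toLp 2 x : E3)) ⁻¹' S with hS'
  have hmS' : MeasurableSet S' := (PiLp.volume_preserving_toLp (Fin 3)).measurable hS
  have hv : volume S = volume S' :=
    ((PiLp.volume_preserving_toLp (Fin 3)).measure_preimage hS.nullMeasurableSet).symm
  have hset : {X : E3 | pt (lat X) (X 2 + inner ℝ c (lat X)) ∈ S} =
      (fun X : E3 => (WithLp.ofLp X : Fin 3 → ℝ)) ⁻¹' ((Matrix.toLin' M) ⁻¹' S') := by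
    ext X
    simp only [Set.mem_ofPred_eq, Set.mem_preimage, hS']
    have : pt (lat X) (X 2 + inner ℝ c (lat X)) =
        (WithLp.toLp 2 (Matrix.toLin' M (WithLp.ofLp X)) : E3) := by
      rw [Matrix.toLin'_apply]
      ext i
      fin_cases i
      · simp [hM, Matrix.mulVec, dotProduct, Fin.sum_univ_three]
      · simp [hM, Matrix.mulVec, dotProduct, Fin.sum_univ_three]
      · simp [hM, Matrix.mulVec, dotProduct, Fin.sum_univ_three, inner2]
        ring
    rw [this]
  have hm2 : MeasurableSet ((Matrix.toLin' M) ⁻¹' S') :=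
    (Matrix.toLin' M).continuous_of_finiteDimensional.measurable hmS'
  rw [hset, (PiLp.volume_preserving_ofLp (Fin 3)).measure_preimage hm2.nullMeasurableSet,
    Measure.addHaar_preimage_linearMap _ hdet', LinearMap.det_toLin', hdet, hv]
  simp

theorem measurable_nrm (c : E2) : Measurable fun p : E3 × ℝ => nrm c p.1 p.2 := by
  have h : Continuous fun p : E3 × ℝ => nrm c p.1 p.2 := by
    unfold nrm
    have h1 : Continuous fun p : E3 × ℝ => lat p.1 := latL.continuous.comp continuous_fst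
    have h2 : Continuous fun p : E3 × ℝ => p.1 2 :=
      (EuclideanSpace.proj (𝕜 := ℝ) (2 : Fin 3)).continuous.comp continuous_fst
    fun_prop
  exact h.measurable

theorem measurableSet_PL (r w B : ℝ) (c a : E2) (n : ℝ) : MeasurableSet (PL r w B c a n) := by
  have h0 : Measurable fun p : E3 × ℝ => lat p.1 := latL.measurable.comp measurable_fst
  have h1 : MeasurableSet {p : E3 × ℝ | |p.2| ≤ r} :=
    measurableSet_le measurable_snd.abs measurable_const
  have h2 : MeasurableSet {p : E3 × ℝ | ‖lat p.1 - (a - p.2 • c)‖ ≤ w} :=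
    measurableSet_le (h0.sub (measurable_const.sub (measurable_snd.smul_const c))).norm
      measurable_const
  have h3 : MeasurableSet {p : E3 × ℝ | |nrm c p.1 p.2 - n| ≤ B} :=
    measurableSet_le ((measurable_nrm c).sub_const n).abs measurable_const
  exact h1.inter (h2.inter h3)

/-- every slice has volume `pv w B`. -/
theorem vol_slice (w B : ℝ) (c a : E2) (n s : ℝ) :
    volume {X : E3 | ‖lat X - a‖ ≤ w ∧ |nrm c X s - n| ≤ B} = pv w B := by
  have hms : MeasurableSet {X : E3 | ‖lat X‖ ≤ w ∧ |X 2| ≤ B} :=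
    (measurableSet_le latL.measurable.norm measurable_const).inter
      (measurableSet_le (measurable_coord 2).abs measurable_const)
  set z : E3 := pt (-a) (s * ‖c‖ ^ 2 / 2 - n) with hz
  have h1 : {X : E3 | ‖lat X - a‖ ≤ w ∧ |nrm c X s - n| ≤ B} =
      {X : E3 | pt (lat X) (X 2 + inner ℝ c (lat X)) ∈
        (fun Y : E3 => Y + z) ⁻¹' {X : E3 | ‖lat X‖ ≤ w ∧ |X 2| ≤ B}} := by
    ext X
    simp only [Set.mem_ofPred_eq, Set.mem_preimage, lat_add, lat_pt, hz, PiLp.add_apply, pt_two]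
    rw [← sub_eq_add_neg]
    unfold nrm
    rw [show X 2 + inner ℝ c (lat X) + s * ‖c‖ ^ 2 / 2 - n =
      X 2 + inner ℝ c (lat X) + (s * ‖c‖ ^ 2 / 2 - n) by ring]
  rw [h1, vol_shear c _ (measurable_add_const z hms), measure_preimage_add_right]
  rfl

theorem pv_lt_top (w B : ℝ) : pv w B < ∞ := by
  have h : {X : E3 | ‖lat X‖ ≤ w ∧ |X 2| ≤ B} ⊆ Metric.closedBall 0 (|w| + |B|) := by
    rintro X ⟨h1, h2⟩
    rw [mem_closedBall_zero_iff]
    refine (sq_le_sq₀ (norm_nonneg _) (by positivity)).1 ?_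
    rw [normsq3]
    have h3 : ‖lat X‖ ≤ |w| := h1.trans (le_abs_self w)
    have h4 : |X 2| ≤ |B| := h2.trans (le_abs_self B)
    have h5 : X 2 ^ 2 = |X 2| ^ 2 := (sq_abs _).symm
    rw [h5]
    nlinarith [norm_nonneg (lat X), abs_nonneg (X 2), abs_nonneg w, abs_nonneg B]
  exact (measure_mono h).trans_lt measure_closedBall_lt_top


/-- slices of the plank. -/
theorem slice_PL {r w B : ℝ} {c a : E2} {n s : ℝ} (hs : |s| ≤ r) :
    volume {X : E3 | (X, s) ∈ PL r w B c a n} = pv w B := by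
  rw [← vol_slice w B c (a - s • c) n s]
  congr 1
  ext X
  simp only [PL, Set.mem_ofPred_eq]
  exact ⟨fun h => h.2, fun h => ⟨hs, h⟩⟩

/-- Fubini for subsets of space-time. -/
theorem vol_st (S : Set (E3 × ℝ)) (hS : MeasurableSet S) :
    volume S = ∫⁻ s : ℝ, volume {X : E3 | (X, s) ∈ S} := by
  rw [Measure.volume_eq_prod, Measure.prod_apply_symm hS]
  rfl

theorem vol_PL {r : ℝ} (w B : ℝ) (c a : E2) (n : ℝ) :
    volume (PL r w B c a n) = ENNReal.ofReal (2 * r) * pv w B := by
  rw [vol_st _ (measurableSet_PL r w B c a n)]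
  have h1 : ∀ s : ℝ, volume {X : E3 | (X, s) ∈ PL r w B c a n} =
      (Set.Icc (-r) r).indicator (fun _ => pv w B) s := by
    intro s
    by_cases hs : |s| ≤ r
    · rw [slice_PL hs, Set.indicator_of_mem (show s ∈ Set.Icc (-r) r from abs_le.1 hs)]
    · rw [Set.indicator_of_notMem (show s ∉ Set.Icc (-r) r from fun h => hs (abs_le.2 h))]
      have : {X : E3 | (X, s) ∈ PL r w B c a n} = ∅ := by
        ext X
        simp only [PL, Set.mem_ofPred_eq, Set.mem_empty_iff_false, iff_false]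
        exact fun h => hs h.1
      rw [this, measure_empty]
  simp only [h1]
  rw [lintegral_indicator measurableSet_Icc, setLIntegral_const, Real.volume_Icc, mul_comm]
  congr 2
  ring

/-- times at which two moving points are close. -/
theorem time_set (a c : E2) (hc : c ≠ 0) (w : ℝ) (hw : 0 ≤ w) :
    volume {s : ℝ | ‖a + s • c‖ ≤ 2 * w} ≤ ENNReal.ofReal (4 * w / ‖c‖) := by
  have hc0 : 0 < ‖c‖ := norm_pos_iff.2 hc
  set t0 : ℝ := inner ℝ a c / ‖c‖ ^ 2 with ht0
  have hsub : {s : ℝ | ‖a + s • c‖ ≤ 2 * w} ⊆ Set.Icc (-t0 - 2 * w / ‖c‖) (-t0 + 2 * w / ‖c‖) := by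
    intro s hs
    have hs' : ‖a + s • c‖ ≤ 2 * w := hs
    have h1 : |inner ℝ (a + s • c) c| ≤ 2 * w * ‖c‖ :=
      (abs_real_inner_le_norm _ _).trans (mul_le_mul_of_nonneg_right hs' hc0.le)
    rw [inner_add_left, inner_smul_left, real_inner_self_eq_norm_sq] at h1
    simp only [conj_trivial] at h1
    have h2 : inner ℝ a c = t0 * ‖c‖ ^ 2 := by
      rw [ht0]; field_simp
    rw [h2, ← add_mul, abs_mul, abs_of_pos (by positivity : 0 < ‖c‖ ^ 2)] at h1
    have h3 : |t0 + s| ≤ 2 * w / ‖c‖ := by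
      rw [le_div_iff₀ hc0]
      have h4 : |t0 + s| * ‖c‖ * ‖c‖ ≤ 2 * w * ‖c‖ := by
        calc |t0 + s| * ‖c‖ * ‖c‖ = |t0 + s| * ‖c‖ ^ 2 := by ring
          _ ≤ _ := h1
      exact le_of_mul_le_mul_right h4 hc0
    rw [abs_le] at h3
    exact ⟨by linarith [h3.1], by linarith [h3.2]⟩
  refine (measure_mono hsub).trans ?_
  rw [Real.volume_Icc]
  apply ENNReal.ofReal_le_ofReal
  apply le_of_eq
  ring

/-- **two planks meet in a short piece.** -/
theorem inter_le {r w B : ℝ} (hw : 0 ≤ w) {c c' : E2} (hc : c ≠ c') (a a' : E2) (n n' : ℝ) :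
    volume (PL r w B c a n ∩ PL r w B c' a' n') ≤
      ENNReal.ofReal (4 * w / ‖c - c'‖) * pv w B := by
  rw [vol_st _ ((measurableSet_PL r w B c a n).inter (measurableSet_PL r w B c' a' n'))]
  set S : Set ℝ := {s : ℝ | ‖(a' - a) + s • (c - c')‖ ≤ 2 * w} with hS
  have hSm : MeasurableSet S := by
    have : Continuous fun s : ℝ => ‖(a' - a) + s • (c - c')‖ := by fun_prop
    exact measurableSet_le this.measurable measurable_const
  have h1 : ∀ s : ℝ, volume {X : E3 | (X, s) ∈ PL r w B c a n ∩ PL r w B c' a' n'} ≤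
      S.indicator (fun _ => pv w B) s := by
    intro s
    by_cases hs : s ∈ S
    · rw [Set.indicator_of_mem hs]
      by_cases hs' : |s| ≤ r
      · rw [← slice_PL (c := c) (a := a) (n := n) hs']
        refine measure_mono fun X hX => ?_
        exact hX.1
      · have : {X : E3 | (X, s) ∈ PL r w B c a n ∩ PL r w B c' a' n'} = ∅ := by
          ext X
          simp only [PL, Set.mem_ofPred_eq, Set.mem_empty_iff_false, iff_false, Set.mem_inter_iff]
          exact fun h => hs' h.1.1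
        rw [this, measure_empty]
        exact zero_le
    · rw [Set.indicator_of_notMem hs]
      have : {X : E3 | (X, s) ∈ PL r w B c a n ∩ PL r w B c' a' n'} = ∅ := by
        ext X
        simp only [PL, Set.mem_ofPred_eq, Set.mem_empty_iff_false, iff_false, Set.mem_inter_iff]
        rintro ⟨⟨-, h2, -⟩, ⟨-, h3, -⟩⟩
        apply hs
        have e : (a' - a) + s • (c - c') = (lat X - (a - s • c)) - (lat X - (a' - s • c')) := by
          rw [smul_sub]; abel
        show ‖(a' - a) + s • (c - c')‖ ≤ 2 * w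
        rw [e]
        refine (norm_sub_le _ _).trans ?_
        linarith
      rw [this, measure_empty]
  refine (lintegral_mono h1).trans ?_
  rw [lintegral_indicator hSm, setLIntegral_const, mul_comm]
  exact mul_le_mul' (time_set _ _ (sub_ne_zero.2 hc) w hw) le_rfl

/-- **planks that meet are in one box**, in the static regime `w ψ ≤ B`, `r ψ² ≤ B`. -/
theorem meet_box {r w B ψ : ℝ} {c c' a a' : E2} {n n' : ℝ} (hr : 0 < r) (hw : 0 ≤ w)
    (hcc : ‖c' - c‖ ≤ ψ) (hwψ : w ≤ r * ψ) (h1 : w * ψ ≤ B) (h2 : r * ψ ^ 2 ≤ B)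
    (hne : (PL r w B c a n ∩ PL r w B c' a' n').Nonempty) :
    ‖a' - a‖ ≤ 3 * r * ψ ∧ |n' - inner ℝ (c' - c) a' - n| ≤ 4 * B := by
  obtain ⟨⟨X, s⟩, ⟨hs, h3, h4⟩, ⟨-, h5, h6⟩⟩ := hne
  simp only at hs h3 h4 h5 h6
  have hψ : 0 ≤ ψ := (norm_nonneg _).trans hcc
  constructor
  · have e : a' - a = (lat X - (a - s • c)) - (lat X - (a' - s • c')) + s • (c' - c) := by
      rw [smul_sub]; abel
    rw [e]
    refine (norm_add_le _ _).trans ?_
    have e1 := norm_sub_le (lat X - (a - s • c)) (lat X - (a' - s • c'))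
    have e2 : ‖s • (c' - c)‖ ≤ r * ψ := by
      rw [norm_smul, Real.norm_eq_abs]
      exact mul_le_mul hs hcc (norm_nonneg _) hr.le
    nlinarith
  · set d : E2 := c' - c with hd
    set e : E2 := lat X - (a' - s • c') with he
    have k1 : nrm c X s - nrm c' X s = - inner ℝ d a' + s * ‖d‖ ^ 2 / 2 - inner ℝ d e := by
      have e1 : lat X = e + (a' - s • c') := by rw [he]; abel
      have e2 : c' = c + d := by rw [hd]; abel
      unfold nrm
      rw [e1, e2]
      simp only [inner_add_left, inner_add_right, inner_sub_right, inner_smul_right, smul_add,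
        norm_add_sq_real]
      rw [← real_inner_self_eq_norm_sq, ← real_inner_self_eq_norm_sq, real_inner_comm c d]
      ring
    have k2 : n' - inner ℝ d a' - n = (n' - nrm c' X s) + (nrm c X s - n) +
        (- (s * ‖d‖ ^ 2 / 2) + inner ℝ d e) +
        ((nrm c' X s - nrm c X s) - inner ℝ d a' + s * ‖d‖ ^ 2 / 2 - inner ℝ d e) := by ring
    have k3 : (nrm c' X s - nrm c X s) - inner ℝ d a' + s * ‖d‖ ^ 2 / 2 - inner ℝ d e =
        0 := by linarith [k1]
    rw [k2, k3, add_zero]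
    have k4 : |n' - nrm c' X s| ≤ B := by rw [abs_sub_comm]; exact h6
    have k5 : |s * ‖d‖ ^ 2 / 2| ≤ B := by
      rw [abs_div, abs_mul, abs_of_nonneg (sq_nonneg ‖d‖), abs_two]
      have : |s| * ‖d‖ ^ 2 ≤ r * ψ ^ 2 :=
        mul_le_mul hs (pow_le_pow_left₀ (norm_nonneg _) hcc 2) (sq_nonneg _) hr.le
      have := mul_nonneg (abs_nonneg s) (sq_nonneg ‖d‖)
      linarith
    have k6 : |inner ℝ d e| ≤ B := by
      refine (abs_real_inner_le_norm _ _).trans ?_
      calc ‖d‖ * ‖e‖ ≤ ψ * w := mul_le_mul hcc h5 (norm_nonneg _) hψ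
        _ ≤ B := by rw [mul_comm]; exact h1
    have k7 := abs_add_le ((n' - nrm c' X s) + (nrm c X s - n)) (- (s * ‖d‖ ^ 2 / 2) + inner ℝ d e)
    have k8 := abs_add_le (n' - nrm c' X s) (nrm c X s - n)
    have k9 := abs_add_le (- (s * ‖d‖ ^ 2 / 2)) (inner ℝ d e)
    rw [abs_neg] at k9
    linarith


/-- the box of aperture `ψ` around a ray. -/
def BX (r B ψ : ℝ) (c a : E2) (n : ℝ) (c' a' : E2) (n' : ℝ) : Prop :=
  ‖c' - c‖ ≤ ψ ∧ ‖a' - a‖ ≤ 3 * r * ψ ∧ |n' - inner ℝ (c' - c) a' - n| ≤ 4 * B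

/-- one packet. -/
noncomputable def pk (r w B : ℝ) (c a : E2) (n ν : ℝ) : E3 × ℝ → ℝ≥0∞ :=
  (PL r w B c a n).indicator fun _ => ENNReal.ofReal ν

theorem measurable_pk (r w B : ℝ) (c a : E2) (n ν : ℝ) : Measurable (pk r w B c a n ν) :=
  measurable_const.indicator (measurableSet_PL r w B c a n)

theorem lint_pk (r w B : ℝ) (c a : E2) (n ν : ℝ) :
    ∫⁻ p, pk r w B c a n ν p = ENNReal.ofReal ν * (ENNReal.ofReal (2 * r) * pv w B) := by
  unfold pk
  rw [lintegral_indicator (measurableSet_PL r w B c a n), setLIntegral_const, vol_PL]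

theorem lint_pk_mul (r w B : ℝ) (c a c' a' : E2) (n ν n' ν' : ℝ) :
    ∫⁻ p, pk r w B c a n ν p * pk r w B c' a' n' ν' p = ENNReal.ofReal ν *
      (ENNReal.ofReal ν' * volume (PL r w B c a n ∩ PL r w B c' a' n')) := by
  have h : ∀ p, pk r w B c a n ν p * pk r w B c' a' n' ν' p =
      (PL r w B c a n ∩ PL r w B c' a' n').indicator
        (fun _ => ENNReal.ofReal ν * ENNReal.ofReal ν') p := by
    intro p
    unfold pk
    by_cases h1 : p ∈ PL r w B c a n
    · by_cases h2 : p ∈ PL r w B c' a' n'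
      · rw [Set.indicator_of_mem h1, Set.indicator_of_mem h2,
          Set.indicator_of_mem (Set.mem_inter h1 h2)]
      · rw [Set.indicator_of_notMem h2, mul_zero,
          Set.indicator_of_notMem (fun h => h2 h.2)]
    · rw [Set.indicator_of_notMem h1, zero_mul, Set.indicator_of_notMem (fun h => h1 h.1)]
  simp only [h]
  rw [lintegral_indicator ((measurableSet_PL r w B c a n).inter (measurableSet_PL r w B c' a' n')),
    setLIntegral_const, mul_assoc]

theorem shell (φ x : ℝ) (hx : x ≤ φ) (N : ℕ) :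
    ∃ k ≤ N, x ≤ φ / 2 ^ k ∧ (k = N ∨ φ / 2 ^ (k + 1) < x) := by
  induction N with
  | zero => exact ⟨0, le_rfl, by simpa using hx, Or.inl rfl⟩
  | succ N ih =>
    obtain ⟨k, hk, h1, h2⟩ := ih
    rcases h2 with rfl | h2
    · by_cases h3 : φ / 2 ^ (k + 1) < x
      · exact ⟨k, Nat.le_succ k, h1, Or.inr h3⟩
      · exact ⟨k + 1, le_rfl, not_lt.1 h3, Or.inl rfl⟩
    · exact ⟨k, hk.trans (Nat.le_succ N), h1, Or.inr h2⟩

theorem last_shell {φ w : ℝ} (hφ : 0 < φ) (hw : 0 < w) (hwφ : w ≤ φ) :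
    ∃ N : ℕ, w ≤ φ / 2 ^ N ∧ φ / 2 ^ (N + 1) < w := by
  have hex : ∃ n : ℕ, φ / 2 ^ n < w := by
    obtain ⟨n, hn⟩ := exists_nat_gt (φ / w)
    refine ⟨n, ?_⟩
    rw [div_lt_iff₀ (by positivity)]
    rw [div_lt_iff₀ hw] at hn
    have : (n : ℝ) ≤ 2 ^ n := by exact_mod_cast Nat.lt_two_pow_self.le
    nlinarith
  classical
  have h1 := Nat.find_spec hex
  have h2 : Nat.find hex ≠ 0 := by
    intro h
    rw [h] at h1
    simp only [pow_zero, div_one] at h1
    linarith
  obtain ⟨N, hN⟩ := Nat.exists_eq_succ_of_ne_zero h2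
  refine ⟨N, ?_, by rw [hN] at h1; exact h1⟩
  have := Nat.find_min hex (m := N) (by omega)
  exact not_lt.1 this

open Classical in
/-- **Cordoba inside one arc.** -/
theorem cord {ι : Type*} (J : Finset ι) (c a : ι → E2) (n ν : ι → ℝ) (hν : ∀ i, 0 ≤ ν i)
    {r w B φ q Λ : ℝ} (hr : 0 < r) (hw : 0 < w) (hwφ : w ≤ r * φ) (h1 : w * φ ≤ B)
    (h2 : r * φ ^ 2 ≤ B) (hq : 0 < q) (hΛ : 0 ≤ Λ) (i : ι) (hJ : ∀ i' ∈ J, ‖c i' - c i‖ ≤ φ)
    (hbox : ∀ ψ : ℝ, w ≤ r * ψ → ψ ≤ φ →
      ∑ i' ∈ J with BX r B ψ (c i) (a i) (n i) (c i') (a i') (n i'), ν i' ≤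
        Λ * (ψ * ψ ^ q)) :
    ∫⁻ p, pk r w B (c i) (a i) (n i) (ν i) p *
        ∑ i' ∈ J, pk r w B (c i') (a i') (n i') (ν i') p ≤
      ENNReal.ofReal (4 * (w / r) * Λ * φ ^ q * (1 - 2 ^ (-q))⁻¹) *
        ∫⁻ p, pk r w B (c i) (a i) (n i) (ν i) p := by
  have hφ : 0 < φ := by
    by_contra hcon
    have := mul_nonpos_of_nonneg_of_nonpos hr.le (not_lt.1 hcon)
    linarith
  obtain ⟨N, hN1, hN2⟩ := last_shell (mul_pos hr hφ) hw hwφ
  have hψ : ∀ k : ℕ, 0 < φ / 2 ^ k := fun k => by positivity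
  -- one pair
  have hpair : ∀ i' ∈ J, volume (PL r w B (c i) (a i) (n i) ∩ PL r w B (c i') (a i') (n i')) ≤
      ∑ k ∈ Finset.range (N + 1),
        (if BX r B (φ / 2 ^ k) (c i) (a i) (n i) (c i') (a i') (n i') then
          ENNReal.ofReal (4 * w / (r * (φ / 2 ^ k))) * (ENNReal.ofReal (2 * r) * pv w B)
          else 0) := by
    intro i' hi'
    by_cases hne : (PL r w B (c i) (a i) (n i) ∩ PL r w B (c i') (a i') (n i')).Nonempty
    · obtain ⟨k, hk, hk1, hk2⟩ := shell φ ‖c i' - c i‖ (hJ i' hi') N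
      have hkN : φ / 2 ^ N ≤ φ / 2 ^ k := by
        gcongr
        norm_num
      have hkφ : φ / 2 ^ k ≤ φ := by
        rw [div_le_iff₀ (by positivity)]
        have : (1 : ℝ) ≤ 2 ^ k := one_le_pow₀ (by norm_num)
        nlinarith
      have hwk : w ≤ r * (φ / 2 ^ k) := by
        calc w ≤ r * φ / 2 ^ N := hN1
          _ = r * (φ / 2 ^ N) := by ring
          _ ≤ _ := mul_le_mul_of_nonneg_left hkN hr.le
      have hB : BX r B (φ / 2 ^ k) (c i) (a i) (n i) (c i') (a i') (n i') := by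
        refine ⟨hk1, meet_box hr hw.le hk1 hwk ?_ ?_ hne⟩
        · exact (mul_le_mul_of_nonneg_left hkφ hw.le).trans h1
        · refine le_trans (mul_le_mul_of_nonneg_left ?_ hr.le) h2
          exact pow_le_pow_left₀ (hψ k).le hkφ 2
      refine le_trans ?_ (Finset.single_le_sum (fun _ _ => zero_le)
        (Finset.mem_range.2 (Nat.lt_succ_of_le hk)))
      rw [if_pos hB]
      rcases hk2 with rfl | hk2
      · calc volume (PL r w B (c i) (a i) (n i) ∩ PL r w B (c i') (a i') (n i')) ≤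
            volume (PL r w B (c i) (a i) (n i)) := measure_mono Set.inter_subset_left
          _ = 1 * (ENNReal.ofReal (2 * r) * pv w B) := by rw [vol_PL, one_mul]
          _ ≤ _ := by
            refine mul_le_mul' ?_ le_rfl
            rw [← ENNReal.ofReal_one]
            apply ENNReal.ofReal_le_ofReal
            rw [le_div_iff₀ (by positivity)]
            have : r * φ / 2 ^ (k + 1) = r * (φ / 2 ^ k) / 2 := by
              rw [pow_succ]; field_simp
            rw [this] at hN2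
            linarith
      · have hcc : c i ≠ c i' := by
          intro h
          rw [h, sub_self, norm_zero] at hk2
          exact absurd hk2 (not_lt.2 (hψ (k + 1)).le)
        refine (inter_le hw.le hcc (a i) (a i') (n i) (n i')).trans ?_
        rw [← mul_assoc, ← ENNReal.ofReal_mul (by positivity)]
        refine mul_le_mul' (ENNReal.ofReal_le_ofReal ?_) le_rfl
        rw [norm_sub_rev] at hk2
        have hx : 0 < ‖c i - c i'‖ := (hψ (k + 1)).trans hk2
        have e : 4 * w / (r * (φ / 2 ^ k)) * (2 * r) = 4 * w / (φ / 2 ^ (k + 1)) := by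
          rw [pow_succ]; field_simp
        rw [e]
        exact div_le_div_of_nonneg_left (by positivity) (hψ _) hk2.le
    · rw [Set.not_nonempty_iff_eq_empty.1 hne, measure_empty]
      exact zero_le
  have hV : ∀ i', 0 ≤ ν i' := hν
  have e1 : ∫⁻ p, pk r w B (c i) (a i) (n i) (ν i) p *
        ∑ i' ∈ J, pk r w B (c i') (a i') (n i') (ν i') p =
      ∑ i' ∈ J, ENNReal.ofReal (ν i) * (ENNReal.ofReal (ν i') *
        volume (PL r w B (c i) (a i) (n i) ∩ PL r w B (c i') (a i') (n i'))) := by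
    simp only [Finset.mul_sum]
    have hm : ∀ i' ∈ J, Measurable fun p => pk r w B (c i) (a i) (n i) (ν i) p *
        pk r w B (c i') (a i') (n i') (ν i') p := fun i' _ =>
      (measurable_pk _ _ _ _ _ _ _).mul (measurable_pk _ _ _ _ _ _ _)
    rw [lintegral_finsetSum _ hm]
    exact Finset.sum_congr rfl fun i' _ => lint_pk_mul _ _ _ _ _ _ _ _ _ _ _
  rw [e1, lint_pk, ← Finset.mul_sum]
  rw [mul_left_comm]
  refine mul_le_mul' le_rfl ?_
  set V : ℝ≥0∞ := ENNReal.ofReal (2 * r) * pv w B with hVdef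
  calc ∑ i' ∈ J, ENNReal.ofReal (ν i') *
        volume (PL r w B (c i) (a i) (n i) ∩ PL r w B (c i') (a i') (n i')) ≤
      ∑ i' ∈ J, ENNReal.ofReal (ν i') * ∑ k ∈ Finset.range (N + 1),
        (if BX r B (φ / 2 ^ k) (c i) (a i) (n i) (c i') (a i') (n i') then
          ENNReal.ofReal (4 * w / (r * (φ / 2 ^ k))) * V else 0) :=
        Finset.sum_le_sum fun i' hi' => mul_le_mul' le_rfl (hpair i' hi')
    _ = ∑ k ∈ Finset.range (N + 1), (∑ i' ∈ J with
        BX r B (φ / 2 ^ k) (c i) (a i) (n i) (c i') (a i') (n i'), ENNReal.ofReal (ν i')) *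
          (ENNReal.ofReal (4 * w / (r * (φ / 2 ^ k))) * V) := by
        simp only [Finset.mul_sum]
        rw [Finset.sum_comm]
        refine Finset.sum_congr rfl fun k _ => ?_
        rw [Finset.sum_mul, Finset.sum_filter]
        refine Finset.sum_congr rfl fun i' _ => ?_
        split_ifs
        · rfl
        · rw [mul_zero]
    _ ≤ ∑ k ∈ Finset.range (N + 1), ENNReal.ofReal (Λ * (φ / 2 ^ k * (φ / 2 ^ k) ^ q)) *
          (ENNReal.ofReal (4 * w / (r * (φ / 2 ^ k))) * V) := by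
        refine Finset.sum_le_sum fun k hk => mul_le_mul' ?_ le_rfl
        rw [← ENNReal.ofReal_sum_of_nonneg fun i' _ => hν i']
        apply ENNReal.ofReal_le_ofReal
        have hk' : k ≤ N := Nat.lt_succ_iff.1 (Finset.mem_range.1 hk)
        have hkN : φ / 2 ^ N ≤ φ / 2 ^ k := by
          gcongr
          norm_num
        refine hbox _ ?_ ?_
        · calc w ≤ r * φ / 2 ^ N := hN1
            _ = r * (φ / 2 ^ N) := by ring
            _ ≤ _ := mul_le_mul_of_nonneg_left hkN hr.le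
        · rw [div_le_iff₀ (by positivity)]
          have : (1 : ℝ) ≤ 2 ^ k := one_le_pow₀ (by norm_num)
          nlinarith
    _ = (∑ k ∈ Finset.range (N + 1), ENNReal.ofReal (4 * (w / r) * Λ * φ ^ q *
          ((2 : ℝ) ^ (-q)) ^ k)) * V := by
        rw [Finset.sum_mul]
        refine Finset.sum_congr rfl fun k _ => ?_
        rw [← mul_assoc, ← ENNReal.ofReal_mul (by positivity)]
        congr 2
        have h3 : (φ / 2 ^ k) ^ q = φ ^ q * ((2 : ℝ) ^ (-q)) ^ k := by
          rw [Real.div_rpow hφ.le (by positivity), ← Real.rpow_natCast, ← Real.rpow_natCast,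
            ← Real.rpow_mul (by norm_num), ← Real.rpow_mul (by norm_num), div_eq_mul_inv,
            ← Real.rpow_neg (by norm_num)]
          congr 2
          ring
        rw [h3]
        field_simp
    _ ≤ _ := by
        refine mul_le_mul' ?_ le_rfl
        have hx0 : (0 : ℝ) ≤ 2 ^ (-q) := by positivity
        have hx1 : (2 : ℝ) ^ (-q) < 1 := Real.rpow_lt_one_of_one_lt_of_neg (by norm_num) (by linarith)
        rw [← ENNReal.ofReal_sum_of_nonneg fun k _ => by positivity]
        apply ENNReal.ofReal_le_ofReal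
        rw [← Finset.mul_sum]
        refine mul_le_mul_of_nonneg_left ?_ (by positivity)
        rw [← tsum_geometric_of_lt_one hx0 hx1]
        exact Summable.sum_le_tsum _ (fun _ _ => by positivity)
          (summable_geometric_of_lt_one hx0 hx1)

end Crest.Agent.R116.Ma448
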