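import Crest.Agent.R116.Mwc5_748
import Crest.Agent.R116.Cov2_369
import Crest.Agent.R116.DeG2_295
import Crest.Agent.R116.Ma2_448

/-!
# R116 (S0155), wave side: MIS for the cone, part 6 (helper748): the cells as weighted rays

* `iso_cells`: isotropic density of the cells (`hiso` of `Mc330.mis_fin`).
* `plate_mass`: mass of one parent plate.
* `own_slopes`, `test_slopes`: slopes.
-/

set_option autoImplicit false
set_option linter.unusedVariables false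
set_option linter.unusedSectionVars false

open MeasureTheory
open scoped ENNReal

namespace Crest.Agent.R116.Mwc748

open Crest.Agent.R138.Defs (E2)
open Crest.Agent.R138.Wpk685 (cen caps)
open Crest.Agent.R138.Loc878 (nearL nearS mem_nearL mem_nearS)
open Crest.Agent.R116.CDef480
open Crest.Agent.R116.LZg725 (Cf)
open Crest.Agent.R116.PC299
open Crest.Agent.R116.WC188
open Crest.Agent.R116.De295 (flt flt_ev flt_ld)
open Crest.Agent.R116.Ma448 (BX)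

/-- flat members of all sizes. -/
theorem flt_adm' {M κ r ψ : ℝ} (hM : 0 ≤ M) (hκ : 0 < κ) (hr : 0 < r) (hψ : 0 < ψ) (c : E2)
    (X0 : E3) : Adm M κ ψ ψ (TT κ ψ r) r c X0 (flt c X0) := by
  have h1 := De295.flt_adm (M := 0) le_rfl hκ hr c X0
  have hT : 0 < TT κ ψ r := Cov369.TT_pos hκ hr
  refine ⟨h1.disc, fun s _ => ?_, fun s _ => ?_, ?_, ?_⟩
  · have : (flt c X0).ny s = 0 := by unfold flt Cf.ny; simp
    rw [this, abs_zero]
    positivity
  · have : (flt c X0).ny s = 0 := by unfold flt Cf.ny; simp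
    rw [this, abs_zero]
    positivity
  · rw [flt_ld]; simp; positivity
  · rw [flt_ev]; simp; positivity

theorem nrm_sub_dir (C C' : E2) (v : E3) : nrm C v 0 = nrm C' v 0 - inner ℝ (C' - C) (lat v) := by
  rw [Ckm538.nrm_zero, Ckm538.nrm_zero, inner_sub_left]
  ring

theorem nrm_sub0 (C : E2) (x y : E3) : nrm C (x - y) 0 = nrm C x 0 - nrm C y 0 := by
  rw [Ckm538.nrm_zero, Ckm538.nrm_zero, Ckm538.nrm_zero, lat_sub, inner_sub_right, PiLp.sub_apply]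
  ring

section inst

variable {M q a b A c0 κ η0 r1 s1 s2 D : ℝ} {g : E3 → ℂ} {I1 : Finset ℕ} {P1 : ℕ → Plate}

/-- **isotropic density of the cells.** -/
theorem iso_cells (h : ParC M κ q a b A c0 η0 g r1 s1 s2 D I1 P1) (hM : 1 ≤ M) (hq : 0 ≤ q)
    (ha : 1 ≤ a) (hr1 : 1 ≤ r1) (hκ : 0 < κ) (hκ1 : κ ≤ 1) {φ : ℝ}
    (hφ1 : 2 * φ ≤ 1) (hφ2 : (an r1)⁻¹ * (2 * φ) ≤ κ⁻¹) (hφ3 : r1 * (2 * φ) ^ 2 ≤ κ⁻¹)
    (T : Idx) (ψ : ℝ) (hψ1 : (an r1)⁻¹ ≤ r1 * ψ) (hψ2 : ψ ≤ 2 * φ) {K : ℝ} (F : Finset Idx)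
    (hKb : ∀ i ∈ I1, ∀ m, ∀ y ∈ (P1 i).S m, ‖y‖ ≤ K)
    (hF : ∀ T' ∈ F, T' ∈ Ic K (an r1) κ I1 P1 ∧ BX r1 κ⁻¹ ψ (slT (an r1) T)
      (lat (ptT (an r1) κ T)) (nrm (slT (an r1) T) (ptT (an r1) κ T) 0) (slT (an r1) T')
      (lat (ptT (an r1) κ T')) (nrm (slT (an r1) T') (ptT (an r1) κ T') 0)) :
    ∑ T' ∈ F, muT (an r1) κ g P1 T' ≤
      11 ^ 5 * 7 ^ 21 * D * ψ ^ q * (ψ ^ 2 * (κ⁻¹ * r1 ^ 2)) := by
  have hr0 : 0 < r1 := by linarith
  have hth := an_pos hr0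
  have hki : 0 < κ⁻¹ := inv_pos.2 hκ
  set th := an r1 with hthd
  set c := slT th T with hc
  set X0 := ptT th κ T with hX0
  have hψ0 : 0 < ψ := by
    have h1 : 0 < th⁻¹ := inv_pos.2 hth
    have h2 : 0 < r1 * ψ := by linarith
    exact (mul_pos_iff_of_pos_left hr0).1 h2
  have hψth : th ≤ ψ := by
    have h1 : r1 * th = th⁻¹ := by
      have := mul_an_sq hr0
      refine eq_inv_of_mul_eq_one_left ?_
      rw [mul_assoc, ← pow_two]
      exact this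
    rw [← h1] at hψ1
    exact le_of_mul_le_mul_left hψ1 hr0
  have hSd : Sd r1 ψ ψ := ⟨hψth, le_rfl, hψ2.trans hφ1⟩
  have hψψ : ψ ^ 2 ≤ (κ * r1)⁻¹ := by
    have h1 : ψ ^ 2 ≤ (2 * φ) ^ 2 := pow_le_pow_left₀ hψ0.le hψ2 2
    rw [mul_inv, mul_comm, ← div_eq_inv_mul, le_div_iff₀ hr0]
    calc ψ ^ 2 * r1 ≤ (2 * φ) ^ 2 * r1 := mul_le_mul_of_nonneg_right h1 hr0.le
      _ = r1 * (2 * φ) ^ 2 := mul_comm _ _
      _ ≤ κ⁻¹ := hφ3
  have hTT : TT κ ψ r1 = (κ * r1)⁻¹ := max_eq_right hψψ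
  have hTr : TT κ ψ r1 * r1 = κ⁻¹ := by
    rw [hTT, mul_inv, mul_assoc, inv_mul_cancel₀ hr0.ne', mul_one]
  have hwψ : th⁻¹ * ψ ≤ κ⁻¹ :=
    (mul_le_mul_of_nonneg_left hψ2 (inv_pos.2 hth).le).trans hφ2
  have hstab := Cov369.stab_core (A := 7) (M' := 1) hq hκ hκ1 hr1 (by norm_num) le_rfl
    (g := g) (S := uS I1 P1) h.D0 (fun c X0 f u1 u2 hS hadm => by
      have hs1 : 0 < u1 := lt_of_lt_of_le (Real.rpow_pos_of_pos hr0 _) hS.lo
      exact h.dens c X0 f u1 u2 hS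
        (Cov369.adm_mono hκ hr0 hs1 (hs1.trans_le hS.le) hM hadm)) hSd
    (flt_adm' (M := 1) (by norm_num) hκ hr0 hψ0 c X0)
  have hsum := sum_le_enc (th := th) (κ := κ) (g := g) h.meas h.disj F
    (fun T' hT' => ⟨(mem_Ic.1 (hF T' hT').1).1, (mem_Ic.1 (hF T' hT').1).2.1⟩)
    (fun m => uS I1 P1 m ∩ pbx κ 7 r1 ψ ψ c X0 (flt c X0) m) (by
      intro T' hT' y hy
      obtain ⟨hT1, hB1, hB2, hB3⟩ := hF T' hT'
      obtain ⟨hy1, hy2, hy3⟩ := Ic_pt (I1 := ∅) (K := 0) hth hκ hy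
      refine ⟨Set.mem_biUnion (mem_Ic.1 hT1).1 hy1, ?_⟩
      set C' := slT th T' with hC'
      set X' := ptT th κ T' with hX'
      have el : lat y - lat X0 = lat (y - X') + (lat X' - lat X0) := by rw [lat_sub]; abel
      have hl : ‖lat y - lat X0‖ ≤ 5 * (ψ * r1) := by
        rw [el]
        refine (norm_add_le _ _).trans ?_
        linarith
      have hn : |nrm c y 0 - nrm c X0 0| ≤ 7 * κ⁻¹ := by
        have e1 : nrm c y 0 - nrm c X0 0 = (nrm C' (y - X') 0 - inner ℝ (C' - c) (lat (y - X'))) +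
            (nrm C' X' 0 - inner ℝ (C' - c) (lat X') - nrm c X0 0) := by
          rw [← nrm_sub_dir c C' (y - X'), ← nrm_sub_dir c C' X', nrm_sub0]
          ring
        have e2 : |inner ℝ (C' - c) (lat (y - X'))| ≤ 2 * κ⁻¹ := by
          refine (abs_real_inner_le_norm _ _).trans ?_
          calc ‖C' - c‖ * ‖lat (y - X')‖ ≤ ψ * (2 * th⁻¹) :=
                mul_le_mul hB1 hy2 (norm_nonneg _) hψ0.le
            _ = 2 * (th⁻¹ * ψ) := by ring
            _ ≤ 2 * κ⁻¹ := by linarith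
        rw [e1]
        have e3 := abs_sub (nrm C' (y - X') 0) (inner ℝ (C' - c) (lat (y - X')))
        have e4 := abs_add_le (nrm C' (y - X') 0 - inner ℝ (C' - c) (lat (y - X')))
          (nrm C' X' 0 - inner ℝ (C' - c) (lat X') - nrm c X0 0)
        linarith
      have hψr : 0 < ψ * r1 := by positivity
      refine ⟨?_, ?_, ?_, ?_, ?_⟩
      · show ‖C' - c‖ ≤ 7 * ψ
        linarith
      · rw [mul_assoc]
        linarith
      · rw [mul_assoc, hTr]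
        exact hn
      · rw [flt_ev, mul_assoc]
        refine (abs_real_inner_le_norm _ _).trans ?_
        rw [De295.norm_e1v, one_mul]
        linarith
      · rw [flt_ld, abs_neg]
        refine (abs_real_inner_le_norm _ _).trans ?_
        rw [De295.norm_e1v, one_mul]
        show ‖C' - c‖ ≤ 7 * ψ
        linarith)
  have hfin := hsum.trans hstab
  rw [← sum_muT (parC_int h ha) hKb F (fun T' hT' => (hF T' hT').1)] at hfin
  have hD := h.D0
  have hψq : 0 ≤ ψ ^ q := Real.rpow_nonneg hψ0.le q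
  have hsc : scost κ ψ ψ r1 = ψ ^ 2 * (κ⁻¹ * r1 ^ 2) := by
    unfold scost
    calc ψ * ψ * TT κ ψ r1 * r1 ^ 3 = ψ ^ 2 * ((TT κ ψ r1 * r1) * r1 ^ 2) := by ring
      _ = _ := by rw [hTr]
  rw [hsc] at hfin
  refine ((ENNReal.ofReal_le_ofReal_iff (by positivity)).1 hfin).trans (le_of_eq ?_)
  ring

/-- mass of one parent plate. -/
theorem plate_mass (h : ParC M κ q a b A c0 η0 g r1 s1 s2 D I1 P1) (ha : 1 ≤ a) (hA : 0 ≤ A)
    (hr1 : 1 ≤ r1) (hκ : 0 < κ) {i : ℕ} (hi : i ∈ I1) [DecidablePred fun T : Idx => T.1 = i] :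
    c0 * (D * s2 ^ q * scost κ s1 s2 r1) ≤
      ∑ T ∈ (Ic (A * r1) (an r1) κ I1 P1).filter (fun T => T.1 = i), muT (an r1) κ g P1 T := by
  have hr0 : 0 < r1 := by linarith
  have hth := an_pos hr0
  have hth1 := an_le_one hr1
  refine (ENNReal.ofReal_le_ofReal_iff (Finset.sum_nonneg fun T _ => muT_nonneg _ _ _ _ _)).1 ?_
  rw [sum_muT (parC_int h ha) (parC_bd h) _ (Finset.filter_subset _ _),
    plate_muE hth hth1 hκ (by positivity) h.meas h.disj (parC_bd h) hi]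
  exact h.dense i hi

/-- slopes of the cells of one plate. -/
theorem cell_slope (h : ParC M κ q a b A c0 η0 g r1 s1 s2 D I1 P1) {K : ℝ} {T : Idx}
    (hT : T ∈ Ic K (an r1) κ I1 P1) : ‖slT (an r1) T - (P1 T.1).c‖ ≤ A * s2 := by
  obtain ⟨h1, h2, h3, y, hy⟩ := mem_Ic.1 hT
  exact (h.box _ h1 _ hy.1).1

theorem own_slopes (h : ParC M κ q a b A c0 η0 g r1 s1 s2 D I1 P1) {K : ℝ} {T T' : Idx}
    (hT : T ∈ Ic K (an r1) κ I1 P1) (hT' : T' ∈ Ic K (an r1) κ I1 P1) (e : T.1 = T'.1) :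
    ‖slT (an r1) T - slT (an r1) T'‖ ≤ 2 * (A * s2) := by
  have h1 := cell_slope h hT
  have h2 := cell_slope h hT'
  rw [← e] at h2
  have e1 : slT (an r1) T - slT (an r1) T' = (slT (an r1) T - (P1 T.1).c) -
      (slT (an r1) T' - (P1 T.1).c) := by abel
  rw [e1]
  refine (norm_sub_le _ _).trans ?_
  linarith

end inst

/-- slopes of the cells seen by a child plate. -/
theorem test_slopes {M κ A dl r1 s1 s2 δ Y : ℝ} {I : Finset ℕ} {P1 P : ℕ → Plate}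
    (hP : Plates M κ A (dl * r1) s1 s2 r1 I P) (hsd : Sd (dl * r1) s1 s2) {j : ℕ} (hj : j ∈ I)
    {T : Idx} (h : condT (an r1) (an (dl * r1)) κ δ Y P1 P j T) :
    ‖slT (an r1) T - (P j).c‖ ≤ (A + 3) * s2 := by
  obtain ⟨m, hm, hn, y, hy, x, hx, -, -⟩ := h
  have h1 := (hP.box j hj m hy).1
  have h2 : ‖cen (an r1) T.2.1 - cen (an (dl * r1)) m‖ < 3 * an (dl * r1) := (mem_nearL.1 hn).2
  have h3 : an (dl * r1) ≤ s2 := hsd.lo.trans hsd.le
  have e1 : slT (an r1) T - (P j).c = (cen (an r1) T.2.1 - cen (an (dl * r1)) m) +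
      (cen (an (dl * r1)) m - (P j).c) := by
    unfold slT
    abel
  rw [e1]
  refine (norm_add_le _ _).trans ?_
  have h4 : ‖cen (an (dl * r1)) m - (P j).c‖ ≤ A * s2 := h1
  linarith

end Crest.Agent.R116.Mwc748
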