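import Crest.Agent.R116.Mc9_330
import Crest.Agent.R116.Mwc6_748

/-!
# R116 (S0155), misaligned step: inputs of the finite form (helper330)

From `Ctx`: `chn_c` (children, `δ = dl^(1/2)`), `chn_p` (parents, `δ = 1`), `gd_c` (`condT`), `gd_p`
(own points), regions `hX`, `hZ`, the `18` arcs `hN`, static conditions on `φ`.
-/

set_option autoImplicit false

open MeasureTheory
open scoped ENNReal

namespace Crest.Agent.R116.Mc330

open Crest.Agent.R138.Defs (E2)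
open Crest.Agent.R138.Wpk685 (cen caps)
open Crest.Agent.R138.Loc878 (nearL mem_nearL)
open Crest.Agent.R116.CDef480 (E3 lat pt vel umc enc)
open Crest.Agent.R116.LZg725 (Cf)
open Crest.Agent.R116.WC188
open Crest.Agent.R116.Gc192 (un crs)
open Crest.Agent.R116.Ma448 (PL)
open Crest.Agent.R116.PC299
open Mwc748
open ChN

/-- the arc size. -/
noncomputable def phi (M A Y Gm δ θj : ℝ) : ℝ := 448 * Kp M A Y Gm 3 * θj / δ

/-- the big constant of the threshold. -/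
noncomputable def KK (M A : ℝ) : ℝ := 10 ^ 7 * (M * A) ^ 2

section inst

variable {M q a b A d0 G c0 κ η0 r1 dl Y Gm s1' s2' s1 s2 D : ℝ} {g : E3 → ℂ}
  {I1 I : Finset ℕ} {P1 P : ℕ → Plate}

/-- hypotheses of this file. -/
structure HH (M q a b A d0 G c0 κ η0 : ℝ) (g : E3 → ℂ) (r1 dl Y Gm s1' s2' s1 s2 D : ℝ)
    (I1 : Finset ℕ) (P1 : ℕ → Plate) (I : Finset ℕ) (P : ℕ → Plate) : Prop where
  ctx : Ctx M q a b A d0 G c0 κ η0 g r1 dl Y Gm s1' s2' s1 s2 D I1 P1 I P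
  M1 : 1 ≤ M
  A1 : 1 ≤ A
  a1 : 1 ≤ a
  G3 : 3 ≤ G
  d01 : d0 ≤ 1
  kd : KK M A * d0 ^ (1/2 : ℝ) ≤ 1
  wd : dl ^ (-G) * an r1 ≤ s2'

theorem HH.KKn (h : HH M q a b A d0 G c0 κ η0 g r1 dl Y Gm s1' s2' s1 s2 D I1 P1 I P) {K : ℝ}
    (hK : 0 ≤ K) (hKK : K ≤ KK M A) {p p' : ℝ} (hp : p' + 1/2 ≤ p) : K * dl ^ p ≤ dl ^ p' := by
  refine K_dl h.ctx.dlpos h.ctx.dlle h.d01 hK ?_ hp
  exact (mul_le_mul_of_nonneg_right hKK (Real.rpow_nonneg (h.ctx.dlpos.le.trans h.ctx.dlle) _)).trans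
    h.kd

theorem HH.dl1 (h : HH M q a b A d0 G c0 κ η0 g r1 dl Y Gm s1' s2' s1 s2 D I1 P1 I P) :
    dl ≤ 1 := h.ctx.dl1 h.d01

theorem HH.δ0 (h : HH M q a b A d0 G c0 κ η0 g r1 dl Y Gm s1' s2' s1 s2 D I1 P1 I P) :
    0 < dl ^ (1/2 : ℝ) := Real.rpow_pos_of_pos h.ctx.dlpos _

theorem HH.δ1 (h : HH M q a b A d0 G c0 κ η0 g r1 dl Y Gm s1' s2' s1 s2 D I1 P1 I P) :
    dl ^ (1/2 : ℝ) ≤ 1 := Real.rpow_le_one h.ctx.dlpos.le h.dl1 (by norm_num)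

theorem HH.δ2 (h : HH M q a b A d0 G c0 κ η0 g r1 dl Y Gm s1' s2' s1 s2 D I1 P1 I P) :
    (dl ^ (1/2 : ℝ)) ^ 2 = dl := by
  rw [← Real.rpow_natCast, ← Real.rpow_mul h.ctx.dlpos.le]
  norm_num

theorem HH.rj1 (h : HH M q a b A d0 G c0 κ η0 g r1 dl Y Gm s1' s2' s1 s2 D I1 P1 I P) :
    1 ≤ dl * r1 := by
  have h1 := h.ctx.rj_ge
  have h2 := h.ctx.k8 h.a1
  have h3 : κ ^ 4 ≤ 1 := pow_le_one₀ h.ctx.kpos.le (by linarith)
  have h4 := h.ctx.rj0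
  nlinarith

theorem HH.r1ge (h : HH M q a b A d0 G c0 κ η0 g r1 dl Y Gm s1' s2' s1 s2 D I1 P1 I P) :
    1 ≤ r1 := by
  have h1 := h.rj1
  have h2 := h.dl1
  have h3 := h.ctx.r10
  nlinarith

theorem HH.th (h : HH M q a b A d0 G c0 κ η0 g r1 dl Y Gm s1' s2' s1 s2 D I1 P1 I P) :
    dl ^ (1/2 : ℝ) * an (dl * r1) = an r1 := dl_an h.ctx.dlpos h.ctx.r10

theorem HH.GY (h : HH M q a b A d0 G c0 κ η0 g r1 dl Y Gm s1' s2' s1 s2 D I1 P1 I P) :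
    Gm * Y ≤ dl ^ (-(1/2) : ℝ) := by
  have h1 := h.ctx.Gm2
  have h2 := h.ctx.Y2
  have h3 : dl ^ (-(1/2) : ℝ) = dl ^ (-(1/4) : ℝ) * dl ^ (-(1/4) : ℝ) := by
    rw [← Real.rpow_add h.ctx.dlpos]; norm_num
  rw [h3]
  exact mul_le_mul h1 h2 (by have := h.ctx.Y1; linarith) (Real.rpow_nonneg h.ctx.dlpos.le _)

theorem HH.MA (h : HH M q a b A d0 G c0 κ η0 g r1 dl Y Gm s1' s2' s1 s2 D I1 P1 I P) :
    1 ≤ M * A ∧ M ^ 2 * A ≤ (M * A) ^ 2 ∧ M * A ≤ (M * A) ^ 2 := by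
  have hM := h.M1
  have hA := h.A1
  have h1 : 1 ≤ M * A := one_le_mul_of_one_le_of_one_le hM hA
  refine ⟨h1, ?_, ?_⟩
  · have : (M * A) ^ 2 = (M ^ 2 * A) * A := by ring
    rw [this]
    exact le_mul_of_one_le_right (by positivity) hA
  · have : (M * A) ^ 2 = (M * A) * (M * A) := by ring
    rw [this]
    exact le_mul_of_one_le_right (by positivity) h1

/-- **numerical data of a child**. -/
theorem HH.chn_c (h : HH M q a b A d0 G c0 κ η0 g r1 dl Y Gm s1' s2' s1 s2 D I1 P1 I P) {j : ℕ}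
    (hj : j ∈ I) : ChN M κ A s1 s2 (TT κ s2 (dl * r1)) (dl * r1) (an (dl * r1)) (an r1)⁻¹
      (dl ^ (1/2 : ℝ)) Y Gm 3 (dl ^ G) (1/64) r1 (P j).f := by
  have hdl := h.ctx.dlpos
  have hr := h.ctx.r10
  have hrj := h.ctx.rj0
  have hθ := an_pos hr
  have hθj := an_pos hrj
  have hM := h.M1
  have hA := h.A1
  have hY := h.ctx.Y1
  have hG := h.ctx.Gm1
  refine ⟨sf_of h.ctx.sd h.rj1 h.ctx.kpos, ff_of (h.ctx.pl.adm j hj), hM, hA, hY, hG, by norm_num,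
    h.δ0, h.δ1, hθj, by rw [h.δ2], ?_, ?_, h.ctx.thin, h.ctx.sd.lo, ?_, Real.rpow_pos_of_pos hdl _,
    by norm_num, le_rfl, ?_⟩
  · -- `θj rj = δ w`
    have h1 := mul_an_sq hr
    have h2 := h.th
    have h3 : an (dl * r1) * (dl * r1) * an r1 = dl ^ (1/2 : ℝ) := by
      calc an (dl * r1) * (dl * r1) * an r1 = (dl * r1) * (an (dl * r1) * an r1) := by ring
        _ = (dl ^ (1/2 : ℝ)) ^ 2 * r1 * (an (dl * r1) * an r1) := by rw [h.δ2]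
        _ = dl ^ (1/2 : ℝ) * (r1 * ((dl ^ (1/2 : ℝ) * an (dl * r1)) * an r1)) := by ring
        _ = dl ^ (1/2 : ℝ) * (r1 * an r1 ^ 2) := by rw [h2]; ring
        _ = dl ^ (1/2 : ℝ) := by rw [h1, mul_one]
    rw [← h3]
    field_simp
  · have := mul_an_sq hrj
    linarith
  · have h1 := h.ctx.wide
    calc an (dl * r1) = dl ^ G * (dl ^ (-G) * an (dl * r1)) := by
          rw [← mul_assoc, ← Real.rpow_add hdl]; simp
      _ ≤ dl ^ G * s2 := mul_le_mul_of_nonneg_left h1 (Real.rpow_nonneg hdl.le _)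
  · rw [h.δ2]
    have h1 := h.GY
    obtain ⟨m1, m2, m3⟩ := h.MA
    have hG3 := h.G3
    have h2 := h.KKn (K := 9216 * (M ^ 2 * A)) (by positivity) (by
      unfold KK
      have : 9216 * (M ^ 2 * A) ≤ 10 ^ 7 * (M ^ 2 * A) :=
        mul_le_mul_of_nonneg_right (by norm_num) (by positivity)
      linarith) (p := G - 1/2) (p' := 1) (by linarith)
    rw [Real.rpow_one] at h2
    have h3 : dl ^ (G - 1/2) = dl ^ (-(1/2) : ℝ) * dl ^ G := by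
      rw [← Real.rpow_add hdl]; congr 1; ring
    have h4 : 16 * (M ^ 2 * A * Gm * Y * 3 ^ 2) * dl ^ G = 144 * (M ^ 2 * A) * (Gm * Y) * dl ^ G := by
      ring
    have h5 : 144 * (M ^ 2 * A) * (Gm * Y) * dl ^ G ≤
        144 * (M ^ 2 * A) * dl ^ (-(1/2) : ℝ) * dl ^ G :=
      mul_le_mul_of_nonneg_right (mul_le_mul_of_nonneg_left h1 (by positivity))
        (Real.rpow_nonneg hdl.le _)
    rw [h4]
    refine h5.trans ?_
    rw [h3] at h2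
    linarith

/-- **numerical data of a parent**. -/
theorem HH.chn_p (h : HH M q a b A d0 G c0 κ η0 g r1 dl Y Gm s1' s2' s1 s2 D I1 P1 I P) {i : ℕ}
    (hi : i ∈ I1) : ChN M κ A s1' s2' (TT κ s2' r1) r1 (an r1) (an r1)⁻¹ 1 1 Gm 1 (dl ^ G)
      (dl ^ (1/2 : ℝ) / 64) r1 (P1 i).f := by
  have hdl := h.ctx.dlpos
  have hr := h.ctx.r10
  have hθ := an_pos hr
  have hM := h.M1
  have hA := h.A1
  have hG := h.ctx.Gm1
  have hδ := h.δ0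
  have hδ1 := h.δ1
  refine ⟨sf_of h.ctx.par.sd h.r1ge h.ctx.kpos, ff_of (h.ctx.par.adm i hi), hM, hA, le_rfl, hG, le_rfl,
    one_pos, le_rfl, hθ, by ring, ?_, ?_, h.ctx.thin', h.ctx.par.sd.lo, ?_,
    Real.rpow_pos_of_pos hdl _, by positivity, by linarith, ?_⟩
  · have h1 := mul_an_sq hr
    rw [one_mul]
    field_simp
    linarith
  · have := mul_an_sq hr
    linarith
  · have h1 := h.wd
    calc an r1 = dl ^ G * (dl ^ (-G) * an r1) := by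
          rw [← mul_assoc, ← Real.rpow_add hdl]; simp
      _ ≤ dl ^ G * s2' := mul_le_mul_of_nonneg_left h1 (Real.rpow_nonneg hdl.le _)
  · obtain ⟨m1, m2, m3⟩ := h.MA
    have hG3 := h.G3
    have h1 := h.ctx.Gm2
    have h2 := h.KKn (K := 1024 * (M ^ 2 * A)) (by positivity) (by
      unfold KK
      have : 1024 * (M ^ 2 * A) ≤ 10 ^ 7 * (M ^ 2 * A) :=
        mul_le_mul_of_nonneg_right (by norm_num) (by positivity)
      linarith) (p := G - 1/4) (p' := 1/2) (by linarith)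
    have h3 : dl ^ (G - 1/4) = dl ^ (-(1/4) : ℝ) * dl ^ G := by
      rw [← Real.rpow_add hdl]; congr 1; ring
    have h4 : 16 * (M ^ 2 * A * Gm * 1 * 1 ^ 2) * dl ^ G = 16 * (M ^ 2 * A) * Gm * dl ^ G := by
      ring
    have h5 : 16 * (M ^ 2 * A) * Gm * dl ^ G ≤ 16 * (M ^ 2 * A) * dl ^ (-(1/4) : ℝ) * dl ^ G :=
      mul_le_mul_of_nonneg_right (mul_le_mul_of_nonneg_left h1 (by positivity))
        (Real.rpow_nonneg hdl.le _)
    rw [h4]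
    refine h5.trans ?_
    rw [h3] at h2
    linarith

/-- **a phase point seen by a child**. -/
theorem HH.gd_c (h : HH M q a b A d0 G c0 κ η0 g r1 dl Y Gm s1' s2' s1 s2 D I1 P1 I P) {j : ℕ}
    (hj : j ∈ I) {C : E2} {m : ℤ × ℤ} {y x : E3} (hy : y ∈ (P j).S m)
    (hC : ‖C - cen (an (dl * r1)) m‖ ≤ 3 * an (dl * r1))
    (hx : ‖Cad538.frc (an r1) κ C (x - (P j).z.1 - (P j).z.2 • vel C - y)‖ ≤ Y) :
    Gd κ A s1 s2 (TT κ s2 (dl * r1)) (dl * r1) (an (dl * r1)) (an r1)⁻¹ Y 3 r1 (P j).c (P j).X0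
      (P j).f (P j).z (cen (an (dl * r1)) m) y C x := by
  have hb := h.ctx.pl.box j hj m hy
  have hz : |(P j).z.2| ≤ r1 := (h.ctx.pl.mem j hj).2
  have hθ := an_pos h.ctx.r10
  have hκ := h.ctx.kpos
  have h1 := (Cad538.lat_le_frc hθ.le (kp := κ) C (x - (P j).z.1 - (P j).z.2 • vel C - y)).trans hx
  have h2 := (Cad538.nrm_le_frc (th := an r1) hκ.le C
    (x - (P j).z.1 - (P j).z.2 • vel C - y)).trans hx
  refine ⟨hb.1, hb.2.1, hb.2.2.1, hb.2.2.2.1, hb.2.2.2.2, hz, hC, ?_, ?_⟩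
  · have e : lat (vv (P j).z C x) - lat y = lat (x - (P j).z.1 - (P j).z.2 • vel C - y) := by
      unfold vv; rw [CDef480.lat_sub _ y]
    rw [e, ← div_eq_mul_inv, le_div_iff₀ hθ, mul_comm]
    exact h1
  · have e : CDef480.nrm C (vv (P j).z C x) 0 - CDef480.nrm C y 0 =
        CDef480.nrm C (x - (P j).z.1 - (P j).z.2 • vel C - y) 0 := by
      unfold vv; rw [Ckm538.nrm_sub0 C _ y]
    rw [e, ← div_eq_mul_inv, le_div_iff₀ hκ, mul_comm]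
    exact h2

/-- **own phase points**. -/
theorem HH.gd_p (h : HH M q a b A d0 G c0 κ η0 g r1 dl Y Gm s1' s2' s1 s2 D I1 P1 I P) {i : ℕ}
    (hi : i ∈ I1) {m : ℤ × ℤ} {x : E3} (hx : x ∈ (P1 i).S m) :
    Gd κ A s1' s2' (TT κ s2' r1) r1 (an r1) (an r1)⁻¹ 1 1 r1 (P1 i).c (P1 i).X0
      (P1 i).f 0 (cen (an r1) m) x (cen (an r1) m) x := by
  have hb := h.ctx.par.box i hi m hx
  have hr := h.ctx.r10
  have hθ := an_pos hr
  have hκ := h.ctx.kpos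
  have e : vv (0 : E3 × ℝ) (cen (an r1) m) x = x := by
    unfold vv; simp
  refine ⟨hb.1, hb.2.1, hb.2.2.1, hb.2.2.2.1, hb.2.2.2.2, ?_, ?_, ?_, ?_⟩
  · simpa using hr.le
  · rw [sub_self, norm_zero, one_mul]; exact hθ.le
  · rw [e, sub_self, norm_zero, one_mul]; positivity
  · rw [e, sub_self, abs_zero, one_mul]; positivity

/-! ### static conditions -/

theorem HH.Kp_le (h : HH M q a b A d0 G c0 κ η0 g r1 dl Y Gm s1' s2' s1 s2 D I1 P1 I P) :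
    Kp M A Y Gm 3 ≤ 3 * (M * A) * dl ^ (-(1/2) : ℝ) := by
  have h1 := h.GY
  have hMA := h.MA.1
  unfold Kp
  calc M * A * Y * 3 * Gm = 3 * (M * A) * (Gm * Y) := by ring
    _ ≤ _ := mul_le_mul_of_nonneg_left h1 (by positivity)

theorem HH.Kp1 (h : HH M q a b A d0 G c0 κ η0 g r1 dl Y Gm s1' s2' s1 s2 D I1 P1 I P) :
    1 ≤ Kp M A Y Gm 3 := by
  have hM := h.M1
  have hA := h.A1
  have hY := h.ctx.Y1
  have hG := h.ctx.Gm1
  unfold Kp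
  have h1 := one_le_mul_of_one_le_of_one_le hM hA
  have h2 := one_le_mul_of_one_le_of_one_le h1 hY
  have h3 := one_le_mul_of_one_le_of_one_le h2 (by norm_num : (1:ℝ) ≤ 3)
  exact one_le_mul_of_one_le_of_one_le h3 hG

theorem HH.phi_pos (h : HH M q a b A d0 G c0 κ η0 g r1 dl Y Gm s1' s2' s1 s2 D I1 P1 I P) :
    0 < phi M A Y Gm (dl ^ (1/2 : ℝ)) (an (dl * r1)) := by
  have h1 := h.Kp1
  have h2 := an_pos h.ctx.rj0
  have h3 := h.δ0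
  unfold phi
  positivity

/-- `2 φ / θ = 896 Kp / dl`. -/
theorem HH.phi_w (h : HH M q a b A d0 G c0 κ η0 g r1 dl Y Gm s1' s2' s1 s2 D I1 P1 I P) :
    (an r1)⁻¹ * (2 * phi M A Y Gm (dl ^ (1/2 : ℝ)) (an (dl * r1))) =
      896 * Kp M A Y Gm 3 * dl⁻¹ := by
  have h1 := h.th
  have h2 := an_pos h.ctx.rj0
  have h3 := h.δ0
  have h4 := h.δ2
  have hdl := h.ctx.dlpos
  rw [← h1]
  unfold phi
  conv_rhs => rw [← h4]
  field_simp
  ring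

theorem HH.st1 (h : HH M q a b A d0 G c0 κ η0 g r1 dl Y Gm s1' s2' s1 s2 D I1 P1 I P) :
    (an r1)⁻¹ * (2 * phi M A Y Gm (dl ^ (1/2 : ℝ)) (an (dl * r1))) ≤ κ⁻¹ := by
  rw [h.phi_w]
  have hdl := h.ctx.dlpos
  have hκ := h.ctx.kpos
  have h1 := h.Kp_le
  obtain ⟨m1, m2, m3⟩ := h.MA
  have h2 := h.KKn (K := 2688 * (M * A)) (by positivity) (by
      unfold KK
      have : 2688 * (M * A) ≤ 10 ^ 7 * (M * A) :=
        mul_le_mul_of_nonneg_right (by norm_num) (by positivity)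
      linarith) (p := -(3/2)) (p' := -4) (by norm_num)
  have h3 : dl ^ (-(3/2) : ℝ) = dl ^ (-(1/2) : ℝ) * dl⁻¹ := by
    rw [← Real.rpow_neg_one dl, ← Real.rpow_add hdl]; norm_num
  have h4 : dl ^ (-4 : ℝ) ≤ κ⁻¹ := by
    rw [Real.rpow_neg hdl.le]
    refine inv_anti₀ hκ ?_
    have := h.ctx.khi
    rw [← Real.rpow_natCast] at this
    exact_mod_cast this
  have hi : 0 < dl⁻¹ := inv_pos.2 hdl
  calc 896 * Kp M A Y Gm 3 * dl⁻¹ ≤ 896 * (3 * (M * A) * dl ^ (-(1/2) : ℝ)) * dl⁻¹ :=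
        mul_le_mul_of_nonneg_right (mul_le_mul_of_nonneg_left h1 (by norm_num)) hi.le
    _ = 2688 * (M * A) * dl ^ (-(3/2) : ℝ) := by rw [h3]; ring
    _ ≤ dl ^ (-4 : ℝ) := h2
    _ ≤ κ⁻¹ := h4

theorem HH.st2 (h : HH M q a b A d0 G c0 κ η0 g r1 dl Y Gm s1' s2' s1 s2 D I1 P1 I P) :
    r1 * (2 * phi M A Y Gm (dl ^ (1/2 : ℝ)) (an (dl * r1))) ^ 2 ≤ κ⁻¹ := by
  have hdl := h.ctx.dlpos
  have hκ := h.ctx.kpos
  have h1 := h.Kp_le
  have hK1 := h.Kp1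
  have hr := h.ctx.r10
  have hth := an_pos hr
  have e1 : r1 * (2 * phi M A Y Gm (dl ^ (1/2 : ℝ)) (an (dl * r1))) ^ 2 =
      ((an r1)⁻¹ * (2 * phi M A Y Gm (dl ^ (1/2 : ℝ)) (an (dl * r1)))) ^ 2 := by
    have h0 := mul_an_sq hr
    have hr' : (an r1)⁻¹ ^ 2 = r1 := by
      rw [inv_pow]; field_simp; linarith
    have key : ∀ P : ℝ, r1 * P ^ 2 = ((an r1)⁻¹ * P) ^ 2 := fun P => by rw [mul_pow, hr']
    exact key _
  rw [e1, h.phi_w]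
  obtain ⟨m1, m2, m3⟩ := h.MA
  have h2 := h.KKn (K := 7225344 * (M * A) ^ 2) (by positivity) (by
      unfold KK
      exact mul_le_mul_of_nonneg_right (by norm_num) (by positivity))
      (p := -3) (p' := -4) (by norm_num)
  have h3 : dl ^ (-3 : ℝ) = (dl ^ (-(1/2) : ℝ) * dl⁻¹) ^ 2 := by
    rw [← Real.rpow_neg_one dl, ← Real.rpow_add hdl, ← Real.rpow_natCast, ← Real.rpow_mul hdl.le]
    norm_num
  have h4 : dl ^ (-4 : ℝ) ≤ κ⁻¹ := by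
    rw [Real.rpow_neg hdl.le]
    refine inv_anti₀ hκ ?_
    have := h.ctx.khi
    rw [← Real.rpow_natCast] at this
    exact_mod_cast this
  have hi : 0 < dl⁻¹ := inv_pos.2 hdl
  have h5 : 896 * Kp M A Y Gm 3 * dl⁻¹ ≤ 896 * (3 * (M * A) * dl ^ (-(1/2) : ℝ)) * dl⁻¹ :=
        mul_le_mul_of_nonneg_right (mul_le_mul_of_nonneg_left h1 (by norm_num)) hi.le
  calc (896 * Kp M A Y Gm 3 * dl⁻¹) ^ 2 ≤ (896 * (3 * (M * A) * dl ^ (-(1/2) : ℝ)) * dl⁻¹) ^ 2 :=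
        pow_le_pow_left₀ (by positivity) h5 2
    _ = 7225344 * (M * A) ^ 2 * dl ^ (-3 : ℝ) := by rw [h3]; ring
    _ ≤ dl ^ (-4 : ℝ) := h2
    _ ≤ κ⁻¹ := h4

theorem HH.st3 (h : HH M q a b A d0 G c0 κ η0 g r1 dl Y Gm s1' s2' s1 s2 D I1 P1 I P) :
    16 * phi M A Y Gm (dl ^ (1/2 : ℝ)) (an (dl * r1)) ≤ 1 := by
  have hdl := h.ctx.dlpos
  have h1 := h.Kp_le
  have hK1 := h.Kp1
  have hδ := h.δ0
  have hG3 := h.G3
  have hθj := an_pos h.ctx.rj0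
  obtain ⟨m1, m2, m3⟩ := h.MA
  have h2 := h.KKn (K := 21504 * (M * A)) (by positivity) (by
      unfold KK
      have : 21504 * (M * A) ≤ 10 ^ 7 * (M * A) :=
        mul_le_mul_of_nonneg_right (by norm_num) (by positivity)
      linarith) (p := G - 1) (p' := 0) (by linarith)
  rw [Real.rpow_zero] at h2
  have h3 : an (dl * r1) ≤ dl ^ G := by
    have h4 : dl ^ (-G) * an (dl * r1) ≤ 1 := h.ctx.wide.trans h.ctx.sd.hi
    calc an (dl * r1) = dl ^ G * (dl ^ (-G) * an (dl * r1)) := by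
          rw [← mul_assoc, ← Real.rpow_add hdl]; simp
      _ ≤ dl ^ G * 1 := mul_le_mul_of_nonneg_left h4 (Real.rpow_nonneg hdl.le _)
      _ = dl ^ G := mul_one _
  have h5 : dl ^ (G - 1) = dl ^ (-(1/2) : ℝ) * dl ^ G * (dl ^ (1/2 : ℝ))⁻¹ := by
    rw [← Real.rpow_neg hdl.le, ← Real.rpow_add hdl, ← Real.rpow_add hdl]; congr 1; ring
  have hd : 0 ≤ dl ^ (-(1/2) : ℝ) := Real.rpow_nonneg hdl.le _
  have hdG : 0 ≤ dl ^ G := Real.rpow_nonneg hdl.le _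
  have hδi : 0 ≤ (dl ^ (1/2 : ℝ))⁻¹ := by positivity
  unfold phi
  calc 16 * (448 * Kp M A Y Gm 3 * an (dl * r1) / dl ^ (1/2 : ℝ)) =
        7168 * (Kp M A Y Gm 3 * an (dl * r1)) * (dl ^ (1/2 : ℝ))⁻¹ := by
        rw [div_eq_mul_inv]; ring
    _ ≤ 7168 * ((3 * (M * A) * dl ^ (-(1/2) : ℝ)) * dl ^ G) * (dl ^ (1/2 : ℝ))⁻¹ := by
        refine mul_le_mul_of_nonneg_right (mul_le_mul_of_nonneg_left ?_ (by norm_num)) hδi
        exact mul_le_mul h1 h3 hθj.le (by positivity)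
    _ = 21504 * (M * A) * dl ^ (G - 1) := by rw [h5]; ring
    _ ≤ 1 := h2

theorem HH.stw (h : HH M q a b A d0 G c0 κ η0 g r1 dl Y Gm s1' s2' s1 s2 D I1 P1 I P) :
    (an r1)⁻¹ ≤ r1 * (2 * phi M A Y Gm (dl ^ (1/2 : ℝ)) (an (dl * r1))) := by
  have hdl := h.ctx.dlpos
  have hK1 := h.Kp1
  have hr := h.ctx.r10
  have hth := an_pos hr
  have h1 := h.phi_w
  have h0 := mul_an_sq hr
  have hd1 := h.dl1
  have h2 : (1:ℝ) ≤ 896 * Kp M A Y Gm 3 * dl⁻¹ := by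
    have : 1 ≤ dl⁻¹ := (one_le_inv₀ hdl).2 hd1
    nlinarith
  rw [← h1] at h2
  have e : r1 * (2 * phi M A Y Gm (dl ^ (1/2 : ℝ)) (an (dl * r1))) =
      (an r1)⁻¹ * ((an r1)⁻¹ * (2 * phi M A Y Gm (dl ^ (1/2 : ℝ)) (an (dl * r1)))) := by
    have hr' : (an r1)⁻¹ * (an r1)⁻¹ = r1 := by
      field_simp; linarith
    have key : ∀ P : ℝ, r1 * P = (an r1)⁻¹ * ((an r1)⁻¹ * P) := fun P => by
      rw [← mul_assoc, hr']
    exact key _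
  rw [e]
  exact le_mul_of_one_le_right (by positivity) h2

/-! ### regions and arcs -/

/-- region of a parent plate. -/
def Xr (κ M A Gm r1 s2' : ℝ) (P1 : ℕ → Plate) (i : ℕ) : Set (E3 × ℝ) :=
  Zs M A 1 Gm 1 (an r1) s2' (TT κ s2' r1) r1 (P1 i).c (P1 i).X0 (P1 i).f 0

/-- region of a child plate. -/
def Zr (κ M A Y Gm r1 dl s2 : ℝ) (P : ℕ → Plate) (j : ℕ) : Set (E3 × ℝ) :=
  Zs M A Y Gm 3 (an (dl * r1)) s2 (TT κ s2 (dl * r1)) r1 (P j).c (P j).X0 (P j).f (P j).z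

theorem HH.hX (h : HH M q a b A d0 G c0 κ η0 g r1 dl Y Gm s1' s2' s1 s2 D I1 P1 I P) {K : ℝ}
    {T : Idx} (hT : T ∈ Ic K (an r1) κ I1 P1) :
    PLc r1 (an r1)⁻¹ κ⁻¹ (slT (an r1) T) (ptT (an r1) κ T) ⊆ Xr κ M A Gm r1 s2' P1 T.1 := by
  obtain ⟨h1, h2, h3, x, hx⟩ := mem_Ic.1 hT
  intro p hp
  exact mem_Zs (h.chn_p h1) (h.gd_p h1 hx.1) (PLc_sub (an_pos h.ctx.r10) h.ctx.kpos hx hp)

theorem HH.hXv (h : HH M q a b A d0 G c0 κ η0 g r1 dl Y Gm s1' s2' s1 s2 D I1 P1 I P) {i : ℕ}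
    (hi : i ∈ I1) : volume (Xr κ M A Gm r1 s2' P1 i) ≤
      ENNReal.ofReal (512 * (10 * A ^ 2 * 1) ^ 3 *
        ((30 * Kp M A 1 Gm 1 * an r1 * r1) * (s2' * r1) * (TT κ s2' r1 * r1) * r1)) :=
  Zs_vol (h.chn_p hi) (by simpa using h.ctx.r10.le)

theorem HH.hZ (h : HH M q a b A d0 G c0 κ η0 g r1 dl Y Gm s1' s2' s1 s2 D I1 P1 I P) {j : ℕ}
    (hj : j ∈ I) {T : Idx}
    (hc : condT (an r1) (an (dl * r1)) κ (dl ^ (1/2 : ℝ)) Y P1 P j T) :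
    PLc r1 (an r1)⁻¹ κ⁻¹ (slT (an r1) T) (ptT (an r1) κ T) ⊆ Zr κ M A Y Gm r1 dl s2 P j := by
  obtain ⟨m, hm, hn, y, hy, x, hx, hf, -⟩ := hc
  intro p hp
  exact mem_Zs (h.chn_c hj) (h.gd_c hj hy (mem_nearL.1 hn).2.le hf)
    (PLc_sub (an_pos h.ctx.r10) h.ctx.kpos hx hp)

theorem HH.hZv (h : HH M q a b A d0 G c0 κ η0 g r1 dl Y Gm s1' s2' s1 s2 D I1 P1 I P) {j : ℕ}
    (hj : j ∈ I) : volume (Zr κ M A Y Gm r1 dl s2 P j) ≤
      ENNReal.ofReal (512 * (10 * A ^ 2 * Y) ^ 3 * ((30 * Kp M A Y Gm 3 * an (dl * r1) * r1) *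
        (s2 * r1) * (TT κ s2 (dl * r1) * r1) * r1)) :=
  Zs_vol (h.chn_c hj) (h.ctx.pl.mem j hj).2

/-- facts of one cell at a point of its plank. -/
theorem HH.at_pt (h : HH M q a b A d0 G c0 κ η0 g r1 dl Y Gm s1' s2' s1 s2 D I1 P1 I P) {j : ℕ}
    (hj : j ∈ I) {K : ℝ} {T : Idx} (hT : T ∈ Ic K (an r1) κ I1 P1)
    (hc : condT (an r1) (an (dl * r1)) κ (dl ^ (1/2 : ℝ)) Y P1 P j T) {p : E3 × ℝ}
    (hp : p ∈ PLc r1 (an r1)⁻¹ κ⁻¹ (slT (an r1) T) (ptT (an r1) κ T)) :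
    |(P1 T.1).f.ld (slT (an r1) T) (lat p.1) (p.1 2) p.2| ≤ 7 * Kp M A Y Gm 3 * an (dl * r1) ∧
    |(Ft (P j).z (P j).f).ld (slT (an r1) T) (lat p.1) (p.1 2) p.2| ≤
      7 * Kp M A Y Gm 3 * an (dl * r1) ∧
    ‖(P1 T.1).f.gr (slT (an r1) T) (lat p.1) p.2‖ ≤ 2 ∧
    ‖(Ft (P j).z (P j).f).gr (slT (an r1) T) (lat p.1) p.2‖ ≤ 2 ∧
    1/2 ≤ ‖(P1 T.1).f.gr (slT (an r1) T) (lat p.1) p.2‖ ∧
    1/2 ≤ ‖(Ft (P j).z (P j).f).gr (slT (an r1) T) (lat p.1) p.2‖ ∧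
    dl ^ (1/2 : ℝ) / 2 ≤ |crs (un (P1 T.1).f (slT (an r1) T) (lat p.1) p.2)
      (un (Ft (P j).z (P j).f) (slT (an r1) T) (lat p.1) p.2)| := by
  obtain ⟨h1, h2, h3, -⟩ := mem_Ic.1 hT
  obtain ⟨m, hm, hn, y, hy, x, hx, hf, hcr⟩ := hc
  have hnp := h.chn_p h1
  have hnc := h.chn_c hj
  have gp := h.gd_p h1 hx.1
  have gc := h.gd_c hj hy (mem_nearL.1 hn).2.le hf
  have hp' := PLc_sub (an_pos h.ctx.r10) h.ctx.kpos hx hp
  have p1 := pl_ld hnp gp hp'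
  have p2 := pl_ld hnc gc hp'
  have p3 := pl_gr_bd hnp gp hp'
  have p4 := pl_gr_bd hnc gc hp'
  have p5 := pl_un hnp gp hp'
  have p6 := pl_un hnc gc hp'
  rw [Ft_zero] at p1 p3 p5
  have hδ := h.δ0
  have hδ1 := h.δ1
  have hr := h.ctx.r10
  refine ⟨p1.trans ?_, p2, p3.2, p4.2, p3.1, p4.1, ?_⟩
  · have k1 : Kp M A 1 Gm 1 ≤ Kp M A Y Gm 3 := by
      unfold Kp
      have hM := h.M1
      have hA := h.A1
      have hY := h.ctx.Y1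
      have hG := h.ctx.Gm1
      have e : M * A * Y * 3 * Gm = (M * A * 1 * 1 * Gm) * (Y * 3) := by ring
      rw [e]
      exact le_mul_of_one_le_right (by positivity)
        (one_le_mul_of_one_le_of_one_le hY (by norm_num))
    have k2 : an r1 ≤ an (dl * r1) := an_le_an h.ctx.dlpos h.dl1 hr
    have k3 := h.Kp1
    exact mul_le_mul (mul_le_mul_of_nonneg_left k1 (by norm_num)) k2 (an_pos hr).le (by positivity)
  · have hv : ‖nP (an (dl * r1)) (P j).f m y‖ = 1 := by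
      unfold nP
      exact Gc192.norm_un (k := 3/4) (by norm_num) (gy_bd hnc gc).1
    refine cross_of (u := nP (an r1) (P1 T.1).f T.2.1 x) (v := nP (an (dl * r1)) (P j).f m y)
      (e := rnd (dl ^ (1/2 : ℝ)) (nP (an (dl * r1)) (P j).f m y)) hδ.le (norm_nP_le _ _ _ _)
      (norm_un_le _ _ _ _) ?_ hcr p5 p6 ?_
    · exact crs_rnd_le hδ hδ1 (norm_nP_le _ _ _ _) hv
    · linarith

open Classical in
/-- **the `18` arcs**. -/
theorem HH.hN (h : HH M q a b A d0 G c0 κ η0 g r1 dl Y Gm s1' s2' s1 s2 D I1 P1 I P) {j : ℕ}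
    (hj : j ∈ I) {K : ℝ} (k : ℕ) (x : E3 × ℝ) (p : ℕ) :
    (((Ic K (an r1) κ I1 P1).filter fun T => T.1 = p ∧
      om k (an r1) (an (dl * r1)) κ (dl ^ (1/2 : ℝ)) Y P1 P j T ≠ 0 ∧
      x ∈ PLc r1 (an r1)⁻¹ κ⁻¹ (slT (an r1) T) (ptT (an r1) κ T)).image
      (fun T => cel (phi M A Y Gm (dl ^ (1/2 : ℝ)) (an (dl * r1))) (slT (an r1) T))).card ≤ 18 := by
  set F := (Ic K (an r1) κ I1 P1).filter fun T => T.1 = p ∧
      om k (an r1) (an (dl * r1)) κ (dl ^ (1/2 : ℝ)) Y P1 P j T ≠ 0 ∧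
      x ∈ PLc r1 (an r1)⁻¹ κ⁻¹ (slT (an r1) T) (ptT (an r1) κ T) with hF
  have e : F.image (fun T => cel (phi M A Y Gm (dl ^ (1/2 : ℝ)) (an (dl * r1)))
      (slT (an r1) T)) = (F.image (slT (an r1))).image
      (cel (phi M A Y Gm (dl ^ (1/2 : ℝ)) (an (dl * r1)))) := by
    rw [Finset.image_image]; rfl
  rw [e]
  have hδ := h.δ0
  have hθj := an_pos h.ctx.rj0
  have hK := h.Kp1
  have key : ∀ C ∈ F.image (slT (an r1)), ∃ T, T ∈ Ic K (an r1) κ I1 P1 ∧ T.1 = p ∧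
      condT (an r1) (an (dl * r1)) κ (dl ^ (1/2 : ℝ)) Y P1 P j T ∧
      x ∈ PLc r1 (an r1)⁻¹ κ⁻¹ (slT (an r1) T) (ptT (an r1) κ T) ∧ slT (an r1) T = C := by
    intro C hC
    obtain ⟨T, hT, rfl⟩ := Finset.mem_image.1 hC
    obtain ⟨a1, a2, a3, a4⟩ := Finset.mem_filter.1 hT
    exact ⟨T, a1, a2, om_cond a3, a4, rfl⟩
  refine arcs_le (p := (P1 p).f) (q := Ft (P j).z (P j).f) (x := lat x.1) (y := x.1 2) (s := x.2)
    (h := 7 * Kp M A Y Gm 3 * an (dl * r1)) (k := 1/2) (M := 2) (δ := dl ^ (1/2 : ℝ) / 2)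
    (by norm_num) (by positivity) (by positivity) h.phi_pos ?_ (F.image (slT (an r1)))
    ?_ ?_ ?_ ?_ ?_ ?_ ?_
  · refine le_of_eq ?_
    unfold phi
    field_simp
    norm_num
  all_goals
    intro C hC
    obtain ⟨T, t1, t2, t3, t4, rfl⟩ := key C hC
    have hh := h.at_pt hj t1 t3 t4
    rw [t2] at hh
  · exact hh.1
  · exact hh.2.1
  · exact hh.2.2.1
  · exact hh.2.2.2.1
  · exact hh.2.2.2.2.1
  · exact hh.2.2.2.2.2.1
  · exact hh.2.2.2.2.2.2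

end inst

end Crest.Agent.R116.Mc330
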