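import Crest.Agent.R116.Mc10_330

/-!
# R116 (S0155), misaligned step: the rich children (helper330)

`HH.rich` = `mis_fin` for the cells of the parent class and the children whose mass is large.
-/

set_option autoImplicit false

open MeasureTheory
open scoped ENNReal

namespace Crest.Agent.R116.Mc330

open Crest.Agent.R138.Defs (E2)
open Crest.Agent.R138.Wpk685 (cen caps)
open Crest.Agent.R138.Loc878 (nearL mem_nearL)
open Crest.Agent.R116.CDef480 (E3 lat pt vel umc enc)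
open Crest.Agent.R116.LZg725 (Cf)
open Crest.Agent.R116.WC188
open Crest.Agent.R116.Gc192 (un crs)
open Crest.Agent.R116.Ma448 (PL BX)
open Crest.Agent.R116.PC299
open Mwc748
open ChN

section inst

variable {M q a b A d0 G c0 κ η0 r1 dl Y Gm s1' s2' s1 s2 D : ℝ} {g : E3 → ℂ}
  {I1 I : Finset ℕ} {P1 P : ℕ → Plate}

/-- volume bound of a parent region. -/
noncomputable def VXr (κ M A Gm r1 s2' : ℝ) : ℝ := 512 * (10 * A ^ 2 * 1) ^ 3 *
  ((30 * Kp M A 1 Gm 1 * an r1 * r1) * (s2' * r1) * (TT κ s2' r1 * r1) * r1)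

/-- volume bound of a child region. -/
noncomputable def VZr (κ M A Y Gm r1 dl s2 : ℝ) : ℝ := 512 * (10 * A ^ 2 * Y) ^ 3 *
  ((30 * Kp M A Y Gm 3 * an (dl * r1) * r1) * (s2 * r1) * (TT κ s2 (dl * r1) * r1) * r1)

/-- slopes seen by a child. -/
theorem HH.test (h : HH M q a b A d0 G c0 κ η0 g r1 dl Y Gm s1' s2' s1 s2 D I1 P1 I P) {j : ℕ}
    (hj : j ∈ I) {T : Idx}
    (hc : condT (an r1) (an (dl * r1)) κ (dl ^ (1/2 : ℝ)) Y P1 P j T) :
    ‖slT (an r1) T - (P j).c‖ ≤ 2 * A * s2 := by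
  obtain ⟨m, hm, hn, y, hy, x, hx, hf, -⟩ := hc
  exact ext_C (h.chn_c hj) (h.gd_c hj hy (mem_nearL.1 hn).2.le hf)

/-- **the rich children**. -/
theorem HH.rich (h : HH M q a b A d0 G c0 κ η0 g r1 dl Y Gm s1' s2' s1 s2 D I1 P1 I P)
    (hq : 0 < q) (hq1 : q ≤ 1) (hD : 0 < D) (hv0 : 0 < v0 r1 (an r1)⁻¹ κ⁻¹) {KC : ℝ}
    (hKC : 0 ≤ KC) (k : ℕ)
    (hKM : ∀ (C0 : E2) (F : Finset Idx), F ⊆ Ic (A * r1) (an r1) κ I1 P1 →
      (∀ i ∈ F, ‖slT (an r1) i - C0‖ ≤ 16 * A * max s2 s2') →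
      ∫⁻ x, (∑ T ∈ F, pkc r1 (an r1)⁻¹ κ⁻¹ (slT (an r1) T) (ptT (an r1) κ T)
        (muT (an r1) κ g P1 T) x) ^ (3/2 : ℝ) ≤
        ENNReal.ofReal (KC * ∑ T ∈ F, muT (an r1) κ g P1 T))
    (J : Finset ℕ) (hJ : J ⊆ I)
    (hmass : ∀ j ∈ J, dl ^ 10 * (D * s2 ^ q * scost κ s1 s2 (dl * r1)) ≤
      ∑ T ∈ Ic (A * r1) (an r1) κ I1 P1, om k (an r1) (an (dl * r1)) κ (dl ^ (1/2 : ℝ)) Y P1 P j T *
        muT (an r1) κ g P1 T) :
    (∑ j ∈ J, ∑ T ∈ Ic (A * r1) (an r1) κ I1 P1,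
      om k (an r1) (an (dl * r1)) κ (dl ^ (1/2 : ℝ)) Y P1 P j T * muT (an r1) κ g P1 T) *
        v0 r1 (an r1)⁻¹ κ⁻¹ ≤
      225 * (256 * (dl⁻¹) ^ 4) * (4 * ((tt r1 (an r1)⁻¹ κ⁻¹
        (phi M A Y Gm (dl ^ (1/2 : ℝ)) (an (dl * r1))) q (124420096 * D)
        (c0 * (D * s2' ^ q * scost κ s1' s2' r1))
        (dl ^ 10 * (D * s2 ^ q * scost κ s1 s2 (dl * r1)))
        (VXr κ M A Gm r1 s2') (VZr κ M A Y Gm r1 dl s2) (dl ^ 11)) ^ (-(1/2) : ℝ) * KC) +
        16 * dl ^ 11 * v0 r1 (an r1)⁻¹ κ⁻¹) *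
        ∑ T ∈ Ic (A * r1) (an r1) κ I1 P1, muT (an r1) κ g P1 T := by
  classical
  have hr := h.ctx.r10
  have hr1 := h.r1ge
  have hrj := h.ctx.rj0
  have hth := an_pos hr
  have hthj := an_pos hrj
  have hκ := h.ctx.kpos
  have hκ8 := h.ctx.k8 h.a1
  have hdl := h.ctx.dlpos
  have hA := h.A1
  have hM := h.M1
  have hphi := h.phi_pos
  have hs2 := Sd.s20 h.ctx.sd hrj
  have hs1 := Sd.s10 h.ctx.sd hrj
  have hs2' := Sd.s20 h.ctx.par.sd hr
  have hs1' := Sd.s10 h.ctx.par.sd hr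
  have hT : 0 < TT κ s2 (dl * r1) := TT_pos' hs2
  have hT' : 0 < TT κ s2' r1 := TT_pos' hs2'
  have hKp := h.Kp1
  have hY := h.ctx.Y1
  have hGm := h.ctx.Gm1
  have hc0 := h.ctx.c0pos
  have hint : Integrable g := parC_int h.ctx.par h.a1
  have hKp' : 0 < Kp M A 1 Gm 1 := by unfold Kp; positivity
  have hs2q : 0 < s2 ^ q := Real.rpow_pos_of_pos hs2 _
  have hs2q' : 0 < s2' ^ q := Real.rpow_pos_of_pos hs2' _
  have hmx : 0 < max s2 s2' := lt_max_of_lt_left hs2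
  have hsc : 0 < scost κ s1 s2 (dl * r1) := by unfold scost; positivity
  have hsc' : 0 < scost κ s1' s2' r1 := by unfold scost; positivity
  set Ix := Ic (A * r1) (an r1) κ I1 P1 with hIx
  set OM : ℕ → Idx → ℝ := fun j T => if j ∈ J then
    om k (an r1) (an (dl * r1)) κ (dl ^ (1/2 : ℝ)) Y P1 P j T else 0 with hOM
  have hOMJ : ∀ j ∈ J, ∀ T, OM j T =
      om k (an r1) (an (dl * r1)) κ (dl ^ (1/2 : ℝ)) Y P1 P j T := fun j hj T => if_pos hj
  have hmain := mis_fin (r := r1) (w := (an r1)⁻¹) (B := κ⁻¹)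
    (φ := phi M A Y Gm (dl ^ (1/2 : ℝ)) (an (dl * r1))) (q := q) (D := 124420096 * D)
    (s := 2 * A * max s2 s2') (mult := 256 * (dl⁻¹) ^ 4)
    (MX := c0 * (D * s2' ^ q * scost κ s1' s2' r1))
    (MZ := dl ^ 10 * (D * s2 ^ q * scost κ s1 s2 (dl * r1)))
    (VX := VXr κ M A Gm r1 s2') (VZ := VZr κ M A Y Gm r1 dl s2) (K1 := KC) (κ1 := dl ^ 11)
    hr (inv_pos.2 hth) (inv_pos.2 hκ) hphi h.stw h.st1 h.st2 hq (by positivity) (by positivity)
    (by positivity) (by positivity) (by positivity) (by unfold VXr; positivity)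
    (by unfold VZr; positivity) hKC (by positivity) hv0
    Ix (fun T => slT (an r1) T) (fun T => ptT (an r1) κ T) (fun T => muT (an r1) κ g P1 T)
    (fun T => muT_nonneg _ _ _ _ _) (fun T => T.1) J OM
    (fun j T => by
      rw [hOM]; simp only
      split_ifs
      · exact om_nonneg
      · exact le_rfl)
    (fun j T => by
      rw [hOM]; simp only
      split_ifs with hj
      · exact om_le_one hth hthj hκ (h.ctx.pl.meas j (hJ hj))
      · norm_num)
    (fun j => (P j).c)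
    (fun i hi ψ hψ1 hψ2 => iso_cells hM hκ hr rfl h.st3 h.st1 h.st2 h.ctx.par.D0 hq.le hq1 hint
      h.ctx.par.dens h.ctx.par.meas h.ctx.par.disj (parC_bd h.ctx.par) i ψ hψ1 hψ2 _
      (Finset.filter_subset _ _) (fun i' hi' => (Finset.mem_filter.1 hi').2))
    (fun i hi i' hi' e => (own_slopes h.ctx.par hi hi' e).trans (by
      have : A * s2' ≤ A * max s2 s2' := mul_le_mul_of_nonneg_left (le_max_right _ _) (by linarith)
      have : 0 ≤ A * max s2 s2' := by positivity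
      linarith))
    (fun j hj T hT hne => by
      rw [hOMJ j hj] at hne
      refine (h.test (hJ hj) (om_cond hne)).trans ?_
      exact mul_le_mul_of_nonneg_left (le_max_left _ _) (by linarith))
    (fun i => Xr κ M A Gm r1 s2' P1 i) (fun T hT => h.hX hT)
    (fun T hT => h.hXv (mem_Ic.1 hT).1)
    (fun j => Zr κ M A Y Gm r1 dl s2 P j)
    (fun j hj T hT hne => h.hZ (hJ hj) (om_cond (by rw [hOMJ j hj] at hne; exact hne)))
    (fun j hj => h.hZv (hJ hj))
    (fun T hT => by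
      have := plate_mass h.ctx.par h.a1 (by linarith) hr1 hκ (mem_Ic.1 hT).1
      convert this)
    (fun j hj => by
      have := hmass j hj
      rw [Finset.sum_congr rfl fun T _ => by rw [hOMJ j hj T]]
      exact this)
    (fun j hj x p => by
      have := h.hN (hJ hj) (K := A * r1) k x p
      convert this using 5
      rw [hOMJ j hj])
    (fun T hT => by
      have h1 := sum_om (k := k) (T := T) (δ := dl ^ (1/2 : ℝ)) (Y := Y) (P1 := P1) hr hdl h.dl1
        h.ctx.pl hth hthj hκ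
      refine le_trans ?_ h1
      rw [Finset.sum_congr rfl fun j hj => hOMJ j hj T]
      exact Finset.sum_le_sum_of_subset_of_nonneg hJ fun j _ _ => om_nonneg)
    (fun C0 I' hI' hC => hKM C0 I' hI' fun i hi => (hC i hi).trans (le_of_eq (by ring)))
  rw [Finset.sum_congr rfl fun j hj => Finset.sum_congr rfl fun T _ => by rw [hOMJ j hj T]] at hmain
  exact hmain

end inst

end Crest.Agent.R116.Mc330
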