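import Crest.Agent.R116.Mwc4_748
import Crest.Agent.R116.Ba1_449

/-!
# R116 (S0155), wave side: MIS for the cone, wave half, part 5 (helper748): the value

`mis_val`: the value of a misaligned child system is at most the near (finite, real) part plus the
tail; `MIS_C_of_FIN`: `MIS_C` from the finite real incidence estimate `FIN_C`.
-/

set_option autoImplicit false
set_option linter.unusedVariables false
set_option linter.unusedSectionVars false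

open MeasureTheory
open scoped ENNReal

namespace Crest.Agent.R116.Mwc748

open Crest.Agent.R138.Defs (E2)
open Crest.Agent.R138.Wpk685 (cen caps)
open Crest.Agent.R116.CDef480
open Crest.Agent.R116.PC299
open Crest.Agent.R116.WC188

theorem rpow_32 (x : ℝ≥0∞) : x ^ (3/2 : ℝ) = x * x ^ (1/2 : ℝ) := by
  have : (3/2 : ℝ) = 1 + 1/2 := by norm_num
  rw [this, ENNReal.rpow_add_of_nonneg _ _ (by norm_num) (by norm_num), ENNReal.rpow_one]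

theorem sum_rpow_le {ι : Type*} (J : Finset ι) (f : ι → ℝ≥0∞) :
    ∑ j ∈ J, f j ^ (3/2 : ℝ) ≤ (∑ j ∈ J, f j) ^ (3/2 : ℝ) := by
  rw [rpow_32 (∑ j ∈ J, f j), Finset.sum_mul]
  refine Finset.sum_le_sum fun j hj => ?_
  rw [rpow_32]
  refine mul_le_mul' le_rfl (ENNReal.rpow_le_rpow ?_ (by norm_num))
  exact Finset.single_le_sum (f := f) (fun _ _ => zero_le) hj

/-- one term of `val`. -/
theorem val_term {r s : ℝ} (hr : 0 < r) (hs : 0 < s) (e : ℝ≥0∞) :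
    ENNReal.ofReal ((r * s) ^ (-(1/2) : ℝ)) * (ENNReal.ofReal r * e) ^ (3 / 2 : ℝ) =
      ENNReal.ofReal (r * s ^ (-(1/2) : ℝ)) * e ^ (3/2 : ℝ) := by
  rw [ENNReal.mul_rpow_of_nonneg _ _ (by norm_num : (0:ℝ) ≤ 3/2), ENNReal.ofReal_rpow_of_pos hr,
    ← mul_assoc, ← ENNReal.ofReal_mul (by positivity)]
  congr 2
  rw [Real.mul_rpow hr.le hs.le]
  have h1 : r ^ (-(1/2) : ℝ) * r ^ (3/2 : ℝ) = r := by
    rw [← Real.rpow_add hr]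
    norm_num
  calc _ = (r ^ (-(1/2) : ℝ) * r ^ (3/2 : ℝ)) * s ^ (-(1/2) : ℝ) := by ring
    _ = _ := by rw [h1]

/-- power `3/2` of near + far. -/
theorem pow_split {e a f : ℝ≥0∞} {K1 : ℝ} (hK1 : 0 ≤ K1) (h : e ≤ ENNReal.ofReal K1 * (a + f)) :
    e ^ (3/2 : ℝ) ≤ ENNReal.ofReal (2 * K1 ^ (3/2 : ℝ)) * (a ^ (3/2 : ℝ) + f ^ (3/2 : ℝ)) := by
  refine (ENNReal.rpow_le_rpow h (by norm_num : (0:ℝ) ≤ 3/2)).trans ?_
  rw [ENNReal.mul_rpow_of_nonneg _ _ (by norm_num : (0:ℝ) ≤ 3/2),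
    ENNReal.ofReal_rpow_of_nonneg hK1 (by norm_num : (0:ℝ) ≤ 3/2), mul_comm 2 (K1 ^ (3/2 : ℝ)),
    ENNReal.ofReal_mul (by positivity), mul_assoc]
  refine mul_le_mul' le_rfl ?_
  refine (ENNReal.rpow_add_le_mul_rpow_add_rpow a f (by norm_num : (1:ℝ) ≤ 3/2)).trans ?_
  refine mul_le_mul' ?_ le_rfl
  rw [ENNReal.ofReal_ofNat]
  calc (2 : ℝ≥0∞) ^ ((3/2 : ℝ) - 1) ≤ 2 ^ (1 : ℝ) :=
        ENNReal.rpow_le_rpow_of_exponent_le (by norm_num) (by norm_num)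
    _ = 2 := ENNReal.rpow_one 2

/-- sections are not small. -/
theorem scost_ge {κ s1 s2 r : ℝ} (hr : 1 ≤ r) (hs : Sd r s1 s2) : r ≤ scost κ s1 s2 r := by
  have hr0 : 0 < r := by linarith
  have ha := an_pos hr0
  have h1 : an r ≤ s1 := hs.lo
  have h2 : an r ≤ s2 := h1.trans hs.le
  have h3 : s2 ^ 2 ≤ TT κ s2 r := sq_le_TT _ _ _
  have h4 : an r ^ 2 ≤ s2 ^ 2 := pow_le_pow_left₀ ha.le h2 2
  have hs1 : 0 < s1 := ha.trans_le h1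
  have hs2 : 0 < s2 := ha.trans_le h2
  unfold scost
  calc r = an r * an r * an r ^ 2 * r ^ 3 := by
        have := mul_an_sq hr0
        calc r = r * 1 * 1 := by ring
          _ = r * (r * an r ^ 2) * (r * an r ^ 2) := by rw [this]
          _ = _ := by ring
    _ ≤ s1 * s2 * TT κ s2 r * r ^ 3 := by
        have := h4.trans h3
        gcongr

/-- real inequality for the tail. -/
theorem tail_real {q r1 dl s2 S Y C1 : ℝ} {k : ℕ} (hq : 0 ≤ q) (hq1 : q ≤ 4) (hr' : 1 ≤ dl * r1)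
    (hdl : 0 < dl) (hdl1 : dl ≤ 1) (hY : 1 ≤ Y) (h2 : an (dl * r1) ≤ s2)
    (hS : 1 ≤ S) (hC1 : 0 ≤ C1) :
    s2 ^ (-q / 2) * (C1 * (dl⁻¹) ^ (3/2 : ℝ) * (dl * r1 * S ^ (-(1/2) : ℝ))) *
      (C1 * (dl⁻¹) ^ 4 * (Y ^ k)⁻¹) ^ (3/2 : ℝ) ≤
    C1 * (C1 * (1 + C1)) * r1 ^ (20 : ℕ) * (Y ^ k)⁻¹ := by
  have hr0 : 0 < r1 := by
    by_contra h
    push Not at h
    nlinarith
  have hr1 : 1 ≤ r1 := by nlinarith
  have hρ : 0 < an (dl * r1) := an_pos (by linarith)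
  have p2 : 0 < s2 := hρ.trans_le h2
  have hdi : 1 ≤ dl⁻¹ := (one_le_inv₀ hdl).2 hdl1
  have hdr : dl⁻¹ ≤ r1 := by
    rw [inv_le_iff_one_le_mul₀ hdl]
    linarith
  have hYM : 1 ≤ Y ^ k := one_le_pow₀ hY
  have hYi : (Y ^ k)⁻¹ ≤ 1 := inv_le_one_of_one_le₀ hYM
  have hYi0 : 0 < (Y ^ k)⁻¹ := by positivity
  have b1 : s2 ^ (-q / 2) ≤ r1 := by
    calc s2 ^ (-q / 2) ≤ (an (dl * r1)) ^ (-q / 2) :=
          Real.rpow_le_rpow_of_nonpos hρ h2 (by linarith)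
      _ = (dl * r1) ^ (q / 4) := by
          show ((dl * r1) ^ (-(1/2) : ℝ)) ^ (-q / 2) = _
          rw [← Real.rpow_mul (by linarith)]
          congr 1
          ring
      _ ≤ (dl * r1) ^ (1 : ℝ) := Real.rpow_le_rpow_of_exponent_le hr' (by linarith)
      _ = dl * r1 := Real.rpow_one _
      _ ≤ r1 := by nlinarith
  have b2 : dl * r1 * S ^ (-(1/2) : ℝ) ≤ r1 := by
    have h5 : S ^ (-(1/2) : ℝ) ≤ 1 := Real.rpow_le_one_of_one_le_of_nonpos hS (by norm_num)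
    have h6 : 0 ≤ S ^ (-(1/2) : ℝ) := Real.rpow_nonneg (by linarith) _
    calc dl * r1 * S ^ (-(1/2) : ℝ) ≤ 1 * r1 * 1 := by gcongr
      _ = r1 := by ring
  have b3 : (dl⁻¹) ^ (3/2 : ℝ) ≤ r1 ^ 2 := by
    calc (dl⁻¹) ^ (3/2 : ℝ) ≤ (dl⁻¹) ^ (2 : ℝ) :=
          Real.rpow_le_rpow_of_exponent_le hdi (by norm_num)
      _ = (dl⁻¹) ^ 2 := by norm_num
      _ ≤ r1 ^ 2 := pow_le_pow_left₀ (by positivity) hdr 2
  set t : ℝ := C1 * (dl⁻¹) ^ 4 * (Y ^ k)⁻¹ with ht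
  have ht0 : 0 ≤ t := by positivity
  have t2 : t ≤ C1 * r1 ^ 4 * (Y ^ k)⁻¹ := by
    rw [ht]
    have : (dl⁻¹) ^ 4 ≤ r1 ^ 4 := pow_le_pow_left₀ (by positivity) hdr 4
    gcongr
  have t3 : t ≤ C1 * r1 ^ 4 := t2.trans (mul_le_of_le_one_right (by positivity) hYi)
  have hr3 : 1 ≤ r1 ^ 4 := one_le_pow₀ hr1
  have t4 : t ^ (1/2 : ℝ) ≤ (1 + C1) * r1 ^ 4 := by
    have h5 : t ^ (1/2 : ℝ) ≤ 1 + t := by
      rcases le_total t 1 with h6 | h6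
      · exact (Real.rpow_le_one ht0 h6 (by norm_num)).trans (by linarith)
      · calc t ^ (1/2 : ℝ) ≤ t ^ (1 : ℝ) := Real.rpow_le_rpow_of_exponent_le h6 (by norm_num)
          _ = t := Real.rpow_one t
          _ ≤ _ := by linarith
    nlinarith
  have t5 : t ^ (3/2 : ℝ) ≤ C1 * (1 + C1) * r1 ^ 8 * (Y ^ k)⁻¹ := by
    have e : t ^ (3/2 : ℝ) = t * t ^ (1/2 : ℝ) := by
      have : (3/2 : ℝ) = 1 + 1/2 := by norm_num
      rw [this, Real.rpow_add_of_nonneg ht0 (by norm_num) (by norm_num), Real.rpow_one]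
    rw [e]
    calc t * t ^ (1/2 : ℝ) ≤ (C1 * r1 ^ 4 * (Y ^ k)⁻¹) * ((1 + C1) * r1 ^ 4) :=
          mul_le_mul t2 t4 (Real.rpow_nonneg ht0 _) (by positivity)
      _ = _ := by ring
  have p3 : 0 ≤ s2 ^ (-q / 2) := Real.rpow_nonneg p2.le _
  have p4 : 0 ≤ dl * r1 * S ^ (-(1/2) : ℝ) := by positivity
  have p5 : 0 ≤ (dl⁻¹) ^ (3/2 : ℝ) := by positivity
  calc s2 ^ (-q / 2) * (C1 * (dl⁻¹) ^ (3/2 : ℝ) * (dl * r1 * S ^ (-(1/2) : ℝ))) * t ^ (3/2 : ℝ)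
      ≤ r1 * (C1 * r1 ^ 2 * r1) * (C1 * (1 + C1) * r1 ^ 8 * (Y ^ k)⁻¹) := by
        gcongr
    _ = C1 * (C1 * (1 + C1)) * r1 ^ 12 * (Y ^ k)⁻¹ := by ring
    _ ≤ C1 * (C1 * (1 + C1)) * r1 ^ 20 * (Y ^ k)⁻¹ := by
        have : r1 ^ 12 ≤ r1 ^ 20 := pow_le_pow_right₀ hr1 (by norm_num)
        gcongr

/-! ### the value -/

/-- the near value. -/
noncomputable def nnV (k : ℕ) (K th th' κ δ Y : ℝ) (g : E3 → ℂ) (I1 : Finset ℕ) (P1 : ℕ → Plate)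
    (I : Finset ℕ) (P : ℕ → Plate) : ℝ :=
  ∑ i ∈ I, (∑ T ∈ Ic K th κ I1 P1, om k th th' κ δ Y P1 P i T * muT th κ g P1 T) ^ (3/2 : ℝ)

theorem nn0 {k : ℕ} {K th th' κ δ Y : ℝ} {g : E3 → ℂ} {I1 : Finset ℕ} {P1 : ℕ → Plate}
    {P : ℕ → Plate} (i : ℕ) :
    0 ≤ ∑ T ∈ Ic K th κ I1 P1, om k th th' κ δ Y P1 P i T * muT th κ g P1 T :=
  Finset.sum_nonneg fun T _ => mul_nonneg om_nonneg (muT_nonneg _ _ _ _ _)

theorem nnV_nonneg {k : ℕ} {K th th' κ δ Y : ℝ} {g : E3 → ℂ} {I1 : Finset ℕ} {P1 : ℕ → Plate}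
    {I : Finset ℕ} {P : ℕ → Plate} : 0 ≤ nnV k K th th' κ δ Y g I1 P1 I P :=
  Finset.sum_nonneg fun i _ => Real.rpow_nonneg (nn0 i) _

section inst

variable {M q a b A d0 G c0 κ η0 r1 dl Y Gm s1' s2' s1 s2 D : ℝ} {g : E3 → ℂ}
  {I1 I : Finset ℕ} {P1 P : ℕ → Plate}

theorem parC_Gd (h : ParC M κ q a b A c0 η0 g r1 s1 s2 D I1 P1) (ha : 1 ≤ a) (hb : b ≤ 2) :
    Ba449.Gd (b * a + a) g := by
  refine ⟨h.gm, h.gb, fun ζ hζ => ?_, fun ζ hζ => (h.gs ζ hζ).2.2.trans hb⟩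
  obtain ⟨h1, h2, h3⟩ := h.gs ζ hζ
  have hi : 0 < a⁻¹ := inv_pos.2 (by linarith)
  have h4 : 0 < ζ 2 := by linarith
  have h5 : ‖lat ζ‖ = ζ 2 * ‖slp ζ‖ := by
    unfold slp
    rw [norm_smul, norm_inv, Real.norm_eq_abs, abs_of_pos h4, ← mul_assoc,
      mul_inv_cancel₀ h4.ne', one_mul]
  refine (Ckm538.norm3_le ζ).trans (add_le_add ?_ ?_)
  · rw [h5, mul_comm]
    exact mul_le_mul h3 h2 h4.le ((norm_nonneg _).trans h3)
  · rw [abs_of_pos h4]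
    exact h2

/-- total energy of the parent class. -/
theorem parC_enc (h : ParC M κ q a b A c0 η0 g r1 s1 s2 D I1 P1) (ha : 1 ≤ a) (hb : b ≤ 2)
    (hr : 0 < r1) : enc (an r1) g (uS I1 P1) ≤ ENNReal.ofReal (Enc g) :=
  Ba449.enc_le (parC_Gd h ha hb) (an_pos hr) _

/-- **value of the child plates = near + far + tail.** -/
theorem mis_val (k : ℕ) {a q : ℝ} (ha : 1 ≤ a) (hq0 : 0 ≤ q) (hq1 : q ≤ 4) : ∃ C : ℝ, 0 ≤ C ∧
    ∀ (M b A d0 G c0 κ η0 : ℝ) (g : E3 → ℂ) (r1 dl Y Gm s1' s2' s1 s2 D : ℝ)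
    (I1 : Finset ℕ) (P1 : ℕ → Plate) (I : Finset ℕ) (P : ℕ → Plate), b ≤ 2 → d0 ≤ 1 → 0 ≤ A →
    Ctx M q a b A d0 G c0 κ η0 g r1 dl Y Gm s1' s2' s1 s2 D I1 P1 I P →
    IsMis (dl ^ (1/2 : ℝ)) κ η0 g dl r1 I1 P1 I P →
    ENNReal.ofReal (s2 ^ (-q / 2)) *
        val κ (selc η0 κ (an r1) g (uS I1 P1)) (dl * r1) s1 s2 I P ≤
      ENNReal.ofReal (C * (dl⁻¹) ^ (3/2 : ℝ) * (s2 ^ (-q / 2) *
        (dl * r1 * (scost κ s1 s2 (dl * r1)) ^ (-(1/2) : ℝ)) *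
        nnV k (A * r1) (an r1) (an (dl * r1)) κ (dl ^ (1/2 : ℝ)) Y g I1 P1 I P)) +
      Tl C Y k g r1 := by
  obtain ⟨C, hC, hE⟩ := mis_en k ha
  set C1 : ℝ := 2 * C ^ (3/2 : ℝ) + C with hC1
  have hC10 : 0 ≤ C1 := by positivity
  have hCC1 : C ≤ C1 := by
    have : 0 ≤ 2 * C ^ (3/2 : ℝ) := by positivity
    linarith
  refine ⟨C1 + C1 * (C1 * (1 + C1)), by positivity, ?_⟩
  intro M b A d0 G c0 κ η0 g r1 dl Y Gm s1' s2' s1 s2 D I1 P1 I P hb2 hd01 hA h hmis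
  have hr1 := h.r10
  have hdl := h.dlpos
  have hdl1 := h.dl1 hd01
  have hrj := h.rj1 ha
  have hrj0 := h.rj0
  obtain ⟨hE1, hE2⟩ := hE M q b A d0 G c0 κ η0 g r1 dl Y Gm s1' s2' s1 s2 D I1 P1 I P hd01 hA h hmis
  set K := A * r1 with hK
  set th := an r1 with hth
  set th' := an (dl * r1) with hth'
  set δ := dl ^ (1/2 : ℝ) with hδ
  set rj := dl * r1 with hrjd
  set S := scost κ s1 s2 rj with hS
  have hS1 : 1 ≤ S := hrj.trans (scost_ge hrj h.sd)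
  have hS0 : 0 < S := by linarith
  set n1 : ℕ → ℝ := fun i => ∑ T ∈ Ic K th κ I1 P1, om k th th' κ δ Y P1 P i T * muT th κ g P1 T
    with hn1
  set ff : ℕ → ℝ≥0∞ := fun i => Fr k K th th' κ Y g I1 P1 P i with hff
  have hterm : ∀ i ∈ I, (enc th' (trc (P i).z (selc η0 κ th g (uS I1 P1))) (P i).S) ^
      (3/2 : ℝ) ≤ ENNReal.ofReal (C1 * (dl⁻¹) ^ (3/2 : ℝ)) *
        (ENNReal.ofReal (n1 i ^ (3/2 : ℝ)) + ff i ^ (3/2 : ℝ)) := by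
    intro i hi
    have h2 := hE1 i hi
    have hdi0 : 0 ≤ dl⁻¹ := (inv_pos.2 hdl).le
    refine (pow_split (by positivity) h2).trans (mul_le_mul' (ENNReal.ofReal_le_ofReal ?_) ?_)
    · rw [Real.mul_rpow hC hdi0, ← mul_assoc]
      have : 2 * C ^ (3/2 : ℝ) ≤ C1 := by rw [hC1]; linarith
      gcongr
    · rw [ENNReal.ofReal_rpow_of_nonneg (nn0 i) (by norm_num)]
  have hval : val κ (selc η0 κ th g (uS I1 P1)) rj s1 s2 I P ≤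
      ENNReal.ofReal (C1 * (dl⁻¹) ^ (3/2 : ℝ) * (rj * S ^ (-(1/2) : ℝ))) *
        (ENNReal.ofReal (nnV k K th th' κ δ Y g I1 P1 I P) + (∑ i ∈ I, ff i) ^ (3/2 : ℝ)) := by
    unfold val
    calc ∑ i ∈ I, ENNReal.ofReal ((rj * scost κ s1 s2 rj) ^ (-(1/2) : ℝ)) *
          (ENNReal.ofReal rj * enc (rj ^ (-(1/2) : ℝ))
            (trc (P i).z (selc η0 κ th g (uS I1 P1))) (P i).S) ^ (3 / 2 : ℝ)
        = ∑ i ∈ I, ENNReal.ofReal (rj * S ^ (-(1/2) : ℝ)) *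
          (enc th' (trc (P i).z (selc η0 κ th g (uS I1 P1))) (P i).S) ^ (3/2 : ℝ) :=
          Finset.sum_congr rfl fun i _ => val_term hrj0 hS0 _
      _ ≤ ∑ i ∈ I, ENNReal.ofReal (rj * S ^ (-(1/2) : ℝ)) *
          (ENNReal.ofReal (C1 * (dl⁻¹) ^ (3/2 : ℝ)) *
          (ENNReal.ofReal (n1 i ^ (3/2 : ℝ)) + ff i ^ (3/2 : ℝ))) :=
          Finset.sum_le_sum fun i hi => mul_le_mul' le_rfl (hterm i hi)
      _ = ENNReal.ofReal (C1 * (dl⁻¹) ^ (3/2 : ℝ) * (rj * S ^ (-(1/2) : ℝ))) *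
          (ENNReal.ofReal (∑ i ∈ I, n1 i ^ (3/2 : ℝ)) + ∑ i ∈ I, ff i ^ (3/2 : ℝ)) := by
          rw [← Finset.mul_sum, ← Finset.mul_sum, ← mul_assoc, ← ENNReal.ofReal_mul (by positivity),
            Finset.sum_add_distrib, ENNReal.ofReal_sum_of_nonneg fun i _ =>
              Real.rpow_nonneg (nn0 i) _, mul_comm (rj * S ^ (-(1/2) : ℝ))]
      _ ≤ _ := mul_le_mul' le_rfl (add_le_add le_rfl (sum_rpow_le I ff))
  have q1 : 0 ≤ s2 ^ (-q / 2) := Real.rpow_nonneg (Sd.s20 h.sd hrj0).le _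
  set nn : ℝ := nnV k K th th' κ δ Y g I1 P1 I P with hnn
  have hnn0 : 0 ≤ nn := nnV_nonneg
  set X : ℝ := rj * S ^ (-(1/2) : ℝ) with hX
  have hX0 : 0 ≤ X := by positivity
  have hdi : 0 ≤ (dl⁻¹) ^ (3/2 : ℝ) := Real.rpow_nonneg (inv_pos.2 hdl).le _
  calc ENNReal.ofReal (s2 ^ (-q / 2)) * val κ (selc η0 κ th g (uS I1 P1)) rj s1 s2 I P
      ≤ ENNReal.ofReal (s2 ^ (-q / 2)) * (ENNReal.ofReal (C1 * (dl⁻¹) ^ (3/2 : ℝ) * X) *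
        (ENNReal.ofReal nn + (∑ i ∈ I, ff i) ^ (3/2 : ℝ))) := mul_le_mul' le_rfl hval
    _ = ENNReal.ofReal (s2 ^ (-q / 2) * (C1 * (dl⁻¹) ^ (3/2 : ℝ) * X) * nn) +
        ENNReal.ofReal (s2 ^ (-q / 2) * (C1 * (dl⁻¹) ^ (3/2 : ℝ) * X)) *
          (∑ i ∈ I, ff i) ^ (3/2 : ℝ) := by
        rw [← mul_assoc, ← ENNReal.ofReal_mul q1, mul_add, ← ENNReal.ofReal_mul (by positivity)]
    _ ≤ _ := by
        refine add_le_add (ENNReal.ofReal_le_ofReal ?_) ?_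
        · calc s2 ^ (-q / 2) * (C1 * (dl⁻¹) ^ (3/2 : ℝ) * X) * nn
              = C1 * (dl⁻¹) ^ (3/2 : ℝ) * (s2 ^ (-q / 2) * X * nn) := by ring
            _ ≤ (C1 + C1 * (C1 * (1 + C1))) * (dl⁻¹) ^ (3/2 : ℝ) * (s2 ^ (-q / 2) * X * nn) := by
                have : 0 ≤ C1 * (C1 * (1 + C1)) := by positivity
                gcongr
                linarith
        · unfold Tl
          have hF1 : ∑ i ∈ I, ff i ≤ ENNReal.ofReal (C1 * (dl⁻¹) ^ 4 * (Y ^ k)⁻¹) *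
              ENNReal.ofReal (Enc g) := by
            refine hE2.trans (mul_le_mul' (ENNReal.ofReal_le_ofReal ?_)
              (parC_enc h.par ha hb2 hr1))
            have h5 : 0 ≤ (dl⁻¹) ^ 4 := by positivity
            have h6 : 0 ≤ (Y ^ k)⁻¹ := inv_nonneg.2 (pow_nonneg (by linarith [h.Y1]) _)
            gcongr
          have hY0 : 0 < Y := lt_of_lt_of_le one_pos h.Y1
          have hF2 : (∑ i ∈ I, ff i) ^ (3/2 : ℝ) ≤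
              ENNReal.ofReal ((C1 * (dl⁻¹) ^ 4 * (Y ^ k)⁻¹) ^ (3/2 : ℝ)) *
              (ENNReal.ofReal (Enc g)) ^ (3/2 : ℝ) := by
            refine (ENNReal.rpow_le_rpow hF1 (by norm_num : (0:ℝ) ≤ 3/2)).trans (le_of_eq ?_)
            rw [ENNReal.mul_rpow_of_nonneg _ _ (by norm_num : (0:ℝ) ≤ 3/2),
              ENNReal.ofReal_rpow_of_nonneg (by positivity) (by norm_num : (0:ℝ) ≤ 3/2)]
          refine (mul_le_mul' le_rfl hF2).trans ?_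
          rw [← mul_assoc, ← ENNReal.ofReal_mul (by positivity)]
          refine mul_le_mul' (ENNReal.ofReal_le_ofReal ?_) le_rfl
          refine (tail_real hq0 hq1 hrj hdl hdl1 h.Y1 (h.sd.lo.trans h.sd.le) hS1 hC10).trans ?_
          have h7 : 0 ≤ r1 ^ 20 := by positivity
          have h8 : 0 ≤ (Y ^ k)⁻¹ := by positivity
          gcongr
          linarith

end inst

/-! ### `MIS_C` from the finite part -/

/-- **finite real part** of `MIS_C`. -/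
def FIN_C (M q : ℝ) : Prop :=
  ∃ G : ℝ, 1 ≤ G ∧ ∀ ε : ℝ, 0 < ε → ∃ G' : ℝ, 0 ≤ G' ∧
  ∀ a b A : ℝ, 1 ≤ a → 0 < b → b < 2 → 1 ≤ A → ∃ d0 : ℝ, 0 < d0 ∧ d0 ≤ 1 ∧
  ∀ Mt : ℕ, ∃ C : ℝ, 0 ≤ C ∧
  ∀ (c0 κ η0 : ℝ) (g : E3 → ℂ) (r1 dl Y Gm s1' s2' s1 s2 D : ℝ)
    (I1 : Finset ℕ) (P1 : ℕ → Plate) (I : Finset ℕ) (P : ℕ → Plate),
    Ctx M q a b A d0 G c0 κ η0 g r1 dl Y Gm s1' s2' s1 s2 D I1 P1 I P →
    dl ^ (-G) * an r1 ≤ s2' →
    s2 ^ (-q / 2) * (dl * r1 * (scost κ s1 s2 (dl * r1)) ^ (-(1/2) : ℝ)) *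
        nnV Mt (A * r1) (an r1) (an (dl * r1)) κ (dl ^ (1/2 : ℝ)) Y g I1 P1 I P ≤
      C * r1 ^ ε * (Y / c0) ^ G' * Gm ^ G * dl ^ (2 : ℕ) * (r1 * Real.sqrt D) *
        ∑ T ∈ Ic (A * r1) (an r1) κ I1 P1, muT (an r1) κ g P1 T

theorem MIS_C_of_FIN {M q : ℝ} (hq0 : 0 ≤ q) (hq1 : q ≤ 4) (hF : FIN_C M q) : MIS_C M q := by
  obtain ⟨G, hG, hF⟩ := hF
  refine ⟨G, hG, fun ε hε => ?_⟩
  obtain ⟨G', hG', hF⟩ := hF ε hε
  refine ⟨G', hG', fun a b A ha hb hb2 hA => ?_⟩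
  obtain ⟨d0, hd0, hd01, hF⟩ := hF a b A ha hb hb2 hA
  refine ⟨d0, hd0, hd01, fun Mt => ?_⟩
  obtain ⟨C2, hC2, hF⟩ := hF Mt
  obtain ⟨C1, hC1, hV⟩ := mis_val Mt ha hq0 hq1
  refine ⟨C1 * C2 + C1, by positivity, ?_⟩
  intro c0 κ η0 g r1 dl Y Gm s1' s2' s1 s2 D I1 P1 I P h hw hmis
  have hr1 := h.r10
  have hdl := h.dlpos
  have hY := h.Y1
  have hY0 : 0 < Y := by linarith
  have hc0 := h.c0pos
  have hGm := h.Gm1
  have h1 := hV M b A d0 G c0 κ η0 g r1 dl Y Gm s1' s2' s1 s2 D I1 P1 I P hb2.le hd01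
    (by linarith) h hmis
  have h2 := hF c0 κ η0 g r1 dl Y Gm s1' s2' s1 s2 D I1 P1 I P h hw
  refine h1.trans (add_le_add ?_ ?_)
  · have hK : 0 ≤ A * r1 := by positivity
    have htot : ENNReal.ofReal (∑ T ∈ Ic (A * r1) (an r1) κ I1 P1, muT (an r1) κ g P1 T) =
        enc (an r1) g (uS I1 P1) := by
      rw [sum_muT (parC_int h.par ha) (parC_bd h.par) _ (le_refl _),
        tot_muE (an_pos hr1) (an_le_one (h.r11 hd01 ha)) h.kpos hK h.par.meas h.par.disj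
        (parC_bd h.par)]
    have hμ0 : 0 ≤ ∑ T ∈ Ic (A * r1) (an r1) κ I1 P1, muT (an r1) κ g P1 T :=
      Finset.sum_nonneg fun T _ => muT_nonneg _ _ _ _ _
    have hsD := Real.sqrt_nonneg D
    have hGG : 0 ≤ Gm ^ G := Real.rpow_nonneg (by linarith) _
    have hrε : 0 ≤ r1 ^ ε := Real.rpow_nonneg hr1.le _
    have hYc : 0 ≤ (Y / c0) ^ G' := Real.rpow_nonneg (by positivity) _
    have hdh : 0 ≤ dl ^ (1/2 : ℝ) := Real.rpow_nonneg hdl.le _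
    have hdi : 0 ≤ (dl⁻¹) ^ (3/2 : ℝ) := Real.rpow_nonneg (inv_pos.2 hdl).le _
    have e2 : (dl⁻¹) ^ (3/2 : ℝ) * dl ^ (2 : ℕ) = dl ^ (1/2 : ℝ) := by
      rw [Real.inv_rpow hdl.le, ← Real.rpow_neg hdl.le, ← Real.rpow_natCast dl 2,
        ← Real.rpow_add hdl]
      norm_num
    unfold SCo
    rw [← htot, ← ENNReal.ofReal_mul (by positivity), ← ENNReal.ofReal_mul (by positivity)]
    refine ENNReal.ofReal_le_ofReal ((mul_le_mul_of_nonneg_left h2 (by positivity)).trans ?_)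
    set μ := ∑ T ∈ Ic (A * r1) (an r1) κ I1 P1, muT (an r1) κ g P1 T with hμ
    calc C1 * (dl⁻¹) ^ (3/2 : ℝ) * (C2 * r1 ^ ε * (Y / c0) ^ G' * Gm ^ G * dl ^ (2 : ℕ) *
          (r1 * Real.sqrt D) * μ)
        = C1 * C2 * r1 ^ ε * (Y / c0) ^ G' * Gm ^ G * ((dl⁻¹) ^ (3/2 : ℝ) * dl ^ (2 : ℕ)) *
          (r1 * Real.sqrt D * μ) := by ring
      _ = C1 * C2 * r1 ^ ε * (Y / c0) ^ G' * Gm ^ G * dl ^ (1/2 : ℝ) *
          (r1 * Real.sqrt D * μ) := by rw [e2]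
      _ ≤ (C1 * C2 + C1) * r1 ^ ε * (Y / c0) ^ G' * Gm ^ G * dl ^ (1/2 : ℝ) *
          (r1 * Real.sqrt D * μ) := by
          gcongr
          linarith
  · unfold Tl
    refine mul_le_mul' (ENNReal.ofReal_le_ofReal ?_) le_rfl
    have h7 : 0 ≤ r1 ^ 20 := by positivity
    have h8 : 0 ≤ (Y ^ Mt)⁻¹ := by positivity
    have h9 : 0 ≤ C1 * C2 := by positivity
    gcongr
    linarith

end Crest.Agent.R116.Mwc748
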