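import Crest.Agent.R116.Mc11_330
import Crest.Agent.R116.Mwc5_748

/-!
# R116 (S0155), misaligned step: `FIN_C` (helper330)

`NumP q` = numerology (367 / 748); `fin_c : NumP q → KMR M q → FIN_C M q`; `mis_c`.
-/

set_option autoImplicit false

open MeasureTheory
open scoped ENNReal

namespace Crest.Agent.R116.Mc330

open Crest.Agent.R138.Defs (E2)
open Crest.Agent.R138.Wpk685 (cen caps)
open Crest.Agent.R138.Loc878 (nearL mem_nearL)
open Crest.Agent.R116.CDef480 (E3 lat pt vel umc enc)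
open Crest.Agent.R116.LZg725 (Cf)
open Crest.Agent.R116.WC188
open Crest.Agent.R116.PC299
open Mwc748
open ChN

/-- numerology of the gain. -/
def NumP (q : ℝ) : Prop := ∃ (G G' : ℝ), 1 ≤ G ∧ 0 ≤ G' ∧
    ∀ (M A c3 C1 : ℝ), 1 ≤ M → 1 ≤ A → 1 ≤ c3 → 0 ≤ C1 → ∃ C2 : ℝ, 0 ≤ C2 ∧
    ∀ (Y Gm δ dl θ θj r κ s1 s2 T s1' s2' T' D c0 ε : ℝ),
      1 ≤ Y → 1 ≤ Gm → 0 < δ → δ ≤ 1 → dl = δ ^ 2 → 0 < θ → θ = δ * θj → θ ^ 2 * r = 1 → 0 < κ →
      θj ≤ s1 → θ ≤ s1' → 0 < s2 → 0 < s2' → 0 < T → 0 < T' → θ ≤ dl ^ G * s2 →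
      θ ≤ dl ^ G * s2' → 0 < D → 0 < c0 → c0 ≤ 1 →
      (tt r θ⁻¹ κ⁻¹ (448 * Kp M A Y Gm c3 * θj / δ) q (124420096 * D)
          (c0 * (D * s2' ^ q * (s1' * s2' * T' * r ^ 3)))
          (dl ^ 10 * (D * s2 ^ q * (s1 * s2 * T * (dl * r) ^ 3)))
          (512 * (10 * A ^ 2 * 1) ^ 3 * ((30 * Kp M A 1 Gm 1 * θ * r) * (s2' * r) * (T' * r) * r))
          (512 * (10 * A ^ 2 * Y) ^ 3 * ((30 * Kp M A Y Gm c3 * θj * r) * (s2 * r) * (T * r) * r))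
          (dl ^ 11)) ^ (-(1/2) : ℝ) *
        ((r * κ⁻¹) ^ (3/2 : ℝ) * (C1 * r ^ ε * (max s2 s2') ^ (q / 2) * Real.sqrt D * r)) ≤
      C2 * r ^ ε * (Y / c0) ^ G' * Gm ^ G' * dl ^ 12 * v0 r θ⁻¹ κ⁻¹

/-! ### elementary -/

/-- the value of one child in terms of its mass. -/
theorem val_of {E X D q s2 S R : ℝ} (hE : 0 ≤ E) (hX : 0 ≤ X) (hD : 0 ≤ D) (hs2 : 0 < s2)
    (hS : 0 < S) (hR : 0 ≤ R) (h : E ≤ X * (D * s2 ^ q * S)) :
    s2 ^ (-q / 2) * (R * S ^ (-(1/2) : ℝ)) * E ^ (3/2 : ℝ) ≤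
      R * (Real.sqrt X * Real.sqrt D) * E := by
  have hsq : 0 < s2 ^ q := Real.rpow_pos_of_pos hs2 _
  have e1 : E ^ (3/2 : ℝ) = E * E ^ (1/2 : ℝ) := by
    rw [show (3/2 : ℝ) = 1 + 1/2 by norm_num, Real.rpow_add' hE (by norm_num), Real.rpow_one]
  have e2 : E ^ (1/2 : ℝ) ≤ Real.sqrt X * Real.sqrt D * (s2 ^ (q / 2) * S ^ (1/2 : ℝ)) := by
    refine (Real.rpow_le_rpow hE h (by norm_num)).trans (le_of_eq ?_)
    rw [Real.mul_rpow hX (by positivity), Real.mul_rpow (by positivity) hS.le,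
      Real.mul_rpow hD hsq.le, ← Real.sqrt_eq_rpow, ← Real.sqrt_eq_rpow, ← Real.rpow_mul hs2.le]
    rw [show q * (1/2) = q / 2 by ring]
    ring
  have e3 : s2 ^ (-q / 2) * s2 ^ (q / 2) = 1 := by
    rw [← Real.rpow_add hs2, show -q / 2 + q / 2 = 0 by ring, Real.rpow_zero]
  have e4 : S ^ (-(1/2) : ℝ) * S ^ (1/2 : ℝ) = 1 := by
    rw [← Real.rpow_add hS]; norm_num
  have p1 : 0 ≤ s2 ^ (-q / 2) := Real.rpow_nonneg hs2.le _
  have p2 : 0 ≤ S ^ (-(1/2) : ℝ) := Real.rpow_nonneg hS.le _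
  rw [e1]
  calc s2 ^ (-q / 2) * (R * S ^ (-(1/2) : ℝ)) * (E * E ^ (1/2 : ℝ)) =
        (s2 ^ (-q / 2) * (R * S ^ (-(1/2) : ℝ)) * E) * E ^ (1/2 : ℝ) := by ring
    _ ≤ (s2 ^ (-q / 2) * (R * S ^ (-(1/2) : ℝ)) * E) *
        (Real.sqrt X * Real.sqrt D * (s2 ^ (q / 2) * S ^ (1/2 : ℝ))) :=
        mul_le_mul_of_nonneg_left e2 (by positivity)
    _ = R * (Real.sqrt X * Real.sqrt D) * E * ((s2 ^ (-q / 2) * s2 ^ (q / 2)) *
        (S ^ (-(1/2) : ℝ) * S ^ (1/2 : ℝ))) := by ring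
    _ = _ := by rw [e3, e4]; ring

/-- constant in `√Kx`. -/
noncomputable def CX (M A : ℝ) : ℝ := 34 ^ 2 * 1794 ^ 2 * 642 * 90 * (M * A ^ 9)

theorem sqrt_Kx {M A Y Gm dl δ : ℝ} (hM : 1 ≤ M) (hA : 1 ≤ A) (hY : 1 ≤ Y) (hG : 1 ≤ Gm)
    (hδ : 0 < δ) (hδ1 : δ ≤ 1) (hdl : dl = δ ^ 2) :
    Real.sqrt (Kx M A Y Gm 3 δ) ≤ Real.sqrt (CX M A) * (Y * Gm) * (dl⁻¹) ^ 6 := by
  have hdl0 : 0 < dl := by rw [hdl]; positivity
  have h1 : Kx M A Y Gm 3 δ = CX M A * (Y ^ 2 * Gm) * (dl⁻¹) ^ 11 := by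
    unfold Kx CX Kp
    rw [hdl]
    field_simp
    ring
  have hi : 1 ≤ dl⁻¹ := by
    rw [one_le_inv₀ hdl0, hdl]
    exact pow_le_one₀ hδ.le hδ1
  have hCX : 0 ≤ CX M A := by unfold CX; positivity
  have h2 : Kx M A Y Gm 3 δ ≤ CX M A * ((Y * Gm) * (dl⁻¹) ^ 6) ^ 2 := by
    rw [h1]
    have a1 : Y ^ 2 * Gm ≤ (Y * Gm) ^ 2 := by
      have : (Y * Gm) ^ 2 = (Y ^ 2 * Gm) * Gm := by ring
      rw [this]
      exact le_mul_of_one_le_right (by positivity) hG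
    have a2 : (dl⁻¹) ^ 11 ≤ (dl⁻¹) ^ 12 := pow_le_pow_right₀ hi (by norm_num)
    calc CX M A * (Y ^ 2 * Gm) * (dl⁻¹) ^ 11 ≤ CX M A * (Y * Gm) ^ 2 * (dl⁻¹) ^ 12 :=
          mul_le_mul (mul_le_mul_of_nonneg_left a1 hCX) a2 (by positivity) (by positivity)
      _ = _ := by ring
  calc Real.sqrt (Kx M A Y Gm 3 δ) ≤ Real.sqrt (CX M A * ((Y * Gm) * (dl⁻¹) ^ 6) ^ 2) :=
        Real.sqrt_le_sqrt h2
    _ = Real.sqrt (CX M A) * ((Y * Gm) * (dl⁻¹) ^ 6) := by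
        rw [Real.sqrt_mul hCX, Real.sqrt_sq (by positivity)]
    _ = _ := by ring

section inst

variable {M q a b A d0 G c0 κ η0 r1 dl Y Gm s1' s2' s1 s2 D : ℝ} {g : E3 → ℂ}
  {I1 I : Finset ℕ} {P1 P : ℕ → Plate}

/-- **mass of one child**. -/
theorem HH.Ebd (h : HH M q a b A d0 G c0 κ η0 g r1 dl Y Gm s1' s2' s1 s2 D I1 P1 I P)
    (hq : 0 ≤ q) (k : ℕ) {j : ℕ} (hj : j ∈ I) :
    ∑ T ∈ Ic (A * r1) (an r1) κ I1 P1, om k (an r1) (an (dl * r1)) κ (dl ^ (1/2 : ℝ)) Y P1 P j T *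
      muT (an r1) κ g P1 T ≤
      Kx M A Y Gm 3 (dl ^ (1/2 : ℝ)) * (D * s2 ^ q * scost κ s1 s2 (dl * r1)) := by
  classical
  have hr := h.ctx.r10
  have hth := an_pos hr
  have hthj := an_pos h.ctx.rj0
  have hκ := h.ctx.kpos
  have hs2 := Sd.s20 h.ctx.sd h.ctx.rj0
  have hs1 := Sd.s10 h.ctx.sd h.ctx.rj0
  have hint : Integrable g := parC_int h.ctx.par h.a1
  set F := (Ic (A * r1) (an r1) κ I1 P1).filter
    (fun T => condT (an r1) (an (dl * r1)) κ (dl ^ (1/2 : ℝ)) Y P1 P j T) with hF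
  set W : ℤ × ℤ → Set E3 := fun m => {y | ∃ T ∈ F, T.2.1 = m ∧ y ∈ TS (an r1) κ P1 T} with hW
  have h1 : ∑ T ∈ Ic (A * r1) (an r1) κ I1 P1,
      om k (an r1) (an (dl * r1)) κ (dl ^ (1/2 : ℝ)) Y P1 P j T * muT (an r1) κ g P1 T ≤
      ∑ T ∈ F, muT (an r1) κ g P1 T := by
    rw [hF, Finset.sum_filter]
    refine Finset.sum_le_sum fun T _ => ?_
    split_ifs with hc
    · exact mul_le_of_le_one_left (muT_nonneg _ _ _ _ _)
        (om_le_one hth hthj hκ (h.ctx.pl.meas j hj))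
    · rw [om_zero hc, zero_mul]
  refine h1.trans ?_
  have hKx : 0 ≤ Kx M A Y Gm 3 (dl ^ (1/2 : ℝ)) := by
    have h2 := h.Kp1
    have := h.A1
    have := h.ctx.Y1
    have := h.δ0
    unfold Kx
    positivity
  have hsc : 0 ≤ scost κ s1 s2 (dl * r1) := by
    have hT : 0 < TT κ s2 (dl * r1) := TT_pos' hs2
    have := h.ctx.rj0
    unfold scost
    positivity
  have hD := h.ctx.par.D0
  have hs2q : 0 ≤ s2 ^ q := Real.rpow_nonneg hs2.le _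
  refine (ENNReal.ofReal_le_ofReal_iff (by positivity)).1 ?_
  rw [sum_muT (K := A * r1) (I1 := I1) hint (parC_bd h.ctx.par) F (Finset.filter_subset _ _)]
  have h3 : ∑ T ∈ F, muE (an r1) κ g P1 T ≤ enc (an r1) g (fun m => uS I1 P1 m ∩ W m) := by
    refine sum_le_enc h.ctx.par.meas h.ctx.par.disj F (fun T hT => ?_) _ ?_
    · have hh := mem_Ic.1 (Finset.mem_filter.1 hT).1
      exact ⟨hh.1, hh.2.1⟩
    · intro T hT y hy
      exact ⟨Set.mem_biUnion (mem_Ic.1 (Finset.mem_filter.1 hT).1).1 hy.1, T, hT, rfl, hy⟩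
  refine h3.trans ?_
  refine mass_ext (c := (P j).c) (X0 := (P j).X0) (S := uS I1 P1) (W := W) (h.chn_c hj) rfl h.ctx.sd.hi (h.ctx.pl.mem j hj).2 rfl
    (an_le_an h.ctx.dlpos h.dl1 hr) hD hq h.ctx.par.dens ?_
  rintro m - y ⟨-, T, hT, rfl, hy⟩
  obtain ⟨m', hm', hn, y', hy', x, hx, hf, -⟩ := (Finset.mem_filter.1 hT).2
  exact ⟨cen (an (dl * r1)) m', y', x, h.gd_c hj hy' (mem_nearL.1 hn).2.le hf,
    mem_PL0 hr.le hth hκ hx hy⟩

end inst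

/-! ### the theorem -/

/-- `an r1 ≤ κ`. -/
theorem an_le_κ {r1 dl κ : ℝ} (h1 : 1 ≤ dl * r1) (hdl : 0 < dl) (hdl1 : dl ≤ 1)
    (hk : (dl * r1) ^ (-(1/4) : ℝ) ≤ κ) : an r1 ≤ κ := by
  have hr : 0 < r1 := by
    by_contra hn
    push Not at hn
    nlinarith
  have h2 : dl * r1 ≤ r1 := mul_le_of_le_one_left hr.le hdl1
  refine le_trans ?_ hk
  unfold an
  calc r1 ^ (-(1/2) : ℝ) ≤ (dl * r1) ^ (-(1/2) : ℝ) :=
        Real.rpow_le_rpow_of_nonpos (by linarith) h2 (by norm_num)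
    _ ≤ (dl * r1) ^ (-(1/4) : ℝ) := Real.rpow_le_rpow_of_exponent_le h1 (by norm_num)

set_option maxHeartbeats 1000000 in
/-- **FIN_C**. -/
theorem fin_c {M q : ℝ} (hM : 1 ≤ M) (hq : 0 < q) (hq1 : q ≤ 1) (hnum : NumP q)
    (hv0 : ∀ r w B : ℝ, 0 < r → 0 < w → 0 < B → 0 < v0 r w B)
    (hKMR : KMR890.KMR M q) : FIN_C M q := by
  classical
  obtain ⟨Gn, Gp, hGn, hGp, hnum⟩ := hnum
  set G : ℝ := max (max Gn 3) (Gp + 1) with hGdef
  have hG1 : Gn ≤ G := (le_max_left _ _).trans (le_max_left _ _)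
  have hG3 : 3 ≤ G := (le_max_right _ _).trans (le_max_left _ _)
  have hGG : Gp + 1 ≤ G := le_max_right _ _
  refine ⟨G, by linarith, fun ε hε => ⟨Gp + 1, by linarith, fun a b A ha hb hb2 hA => ?_⟩⟩
  have hMA : 1 ≤ M * A := one_le_mul_of_one_le_of_one_le hM hA
  have hKK : 1 ≤ KK M A := by
    unfold KK
    have : 1 ≤ (M * A) ^ 2 := one_le_pow₀ hMA
    linarith
  obtain ⟨C1, hC1, hkmc⟩ := kmc_cells hKMR hA hε
  obtain ⟨C2, hC2, hnum⟩ := hnum M A 3 C1 hM hA (by norm_num) hC1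
  refine ⟨((KK M A) ^ 2)⁻¹, by positivity, inv_le_one_of_one_le₀ (one_le_pow₀ hKK), fun Mt =>
    ⟨57600 * Real.sqrt (CX M A) * (4 * C2 + 16) + 256, by positivity, ?_⟩⟩
  intro c0 κ η0 g r1 dl Y Gm s1' s2' s1 s2 D I1 P1 I P hctx hwd
  have hkd : KK M A * (((KK M A) ^ 2)⁻¹) ^ (1/2 : ℝ) ≤ 1 := by
    have e : (((KK M A) ^ 2)⁻¹) ^ (1/2 : ℝ) = (KK M A)⁻¹ := by
      rw [← inv_pow, ← Real.rpow_natCast, ← Real.rpow_mul (by positivity)]
      norm_num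
    rw [e, mul_inv_cancel₀ (by positivity)]
  have h : HH M q a b A ((KK M A) ^ 2)⁻¹ G c0 κ η0 g r1 dl Y Gm s1' s2' s1 s2 D I1 P1 I P :=
    ⟨hctx, hM, hA, ha, hG3, inv_le_one_of_one_le₀ (one_le_pow₀ hKK), hkd, hwd⟩
  have hr := hctx.r10
  have hr1 := h.r1ge
  have hrj := hctx.rj0
  have hth := an_pos hr
  have hthj := an_pos hrj
  have hκ := hctx.kpos
  have hκ8 := hctx.k8 ha
  have hdl := hctx.dlpos
  have hdl1 := h.dl1
  have hs2 := Sd.s20 hctx.sd hrj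
  have hs1 := Sd.s10 hctx.sd hrj
  have hs2' := Sd.s20 hctx.par.sd hr
  have hs1' := Sd.s10 hctx.par.sd hr
  have hT : 0 < TT κ s2 (dl * r1) := TT_pos' hs2
  have hT' : 0 < TT κ s2' r1 := TT_pos' hs2'
  have hY := hctx.Y1
  have hGm := hctx.Gm1
  have hc0 := hctx.c0pos
  have hc01 := hctx.c0le
  have hD := hctx.par.D0
  have hsc : 0 < scost κ s1 s2 (dl * r1) := by unfold scost; positivity
  set S := scost κ s1 s2 (dl * r1) with hSdef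
  set Ix := Ic (A * r1) (an r1) κ I1 P1 with hIx
  set E : ℕ → ℝ := fun j => ∑ T ∈ Ix,
    om Mt (an r1) (an (dl * r1)) κ (dl ^ (1/2 : ℝ)) Y P1 P j T * muT (an r1) κ g P1 T with hEdef
  have hE0 : ∀ j, 0 ≤ E j := fun j => nn0 j
  set mu := ∑ T ∈ Ix, muT (an r1) κ g P1 T with hmu
  have hmu0 : 0 ≤ mu := Finset.sum_nonneg fun T _ => muT_nonneg _ _ _ _ _
  have hEbd : ∀ j ∈ I, E j ≤ Kx M A Y Gm 3 (dl ^ (1/2 : ℝ)) * (D * s2 ^ q * S) :=
    fun j hj => h.Ebd hq.le Mt hj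
  have hKx : 0 ≤ Kx M A Y Gm 3 (dl ^ (1/2 : ℝ)) := by
    have h2 := h.Kp1
    have := h.δ0
    unfold Kx
    positivity
  have hsumE : ∑ j ∈ I, E j ≤ 256 * (dl⁻¹) ^ 4 * mu := by
    rw [hEdef]
    simp only
    rw [Finset.sum_comm, hmu, Finset.mul_sum]
    refine Finset.sum_le_sum fun T _ => ?_
    rw [← Finset.sum_mul]
    exact mul_le_mul_of_nonneg_right (sum_om hr hdl hdl1 hctx.pl hth hthj hκ)
      (muT_nonneg _ _ _ _ _)
  have hrε : 1 ≤ r1 ^ ε := Real.one_le_rpow hr1 hε.le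
  have hYc : 1 ≤ Y / c0 := by rw [le_div_iff₀ hc0]; linarith
  have hYc1 : 1 ≤ (Y / c0) ^ Gp := Real.one_le_rpow hYc hGp
  have hGm1 : 1 ≤ Gm ^ Gp := Real.one_le_rpow hGm hGp
  have hYY : Y ≤ Y / c0 := by
    rw [le_div_iff₀ hc0]; nlinarith
  -- the factor of the statement
  set Q := r1 ^ ε * (Y / c0) ^ (Gp + 1) * Gm ^ G with hQ
  have hXQ : r1 ^ ε * (Y / c0) ^ Gp * Gm ^ Gp * (Y * Gm) ≤ Q := by
    rw [hQ, Real.rpow_add (by linarith), Real.rpow_one]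
    have a1 : Gm ^ Gp * Gm ≤ Gm ^ G := by
      rw [← Real.rpow_add_one (by linarith)]
      exact Real.rpow_le_rpow_of_exponent_le hGm hGG
    calc r1 ^ ε * (Y / c0) ^ Gp * Gm ^ Gp * (Y * Gm) =
          r1 ^ ε * ((Y / c0) ^ Gp * Y) * (Gm ^ Gp * Gm) := by ring
      _ ≤ r1 ^ ε * ((Y / c0) ^ Gp * (Y / c0)) * Gm ^ G := by
          refine mul_le_mul (mul_le_mul_of_nonneg_left (mul_le_mul_of_nonneg_left hYY
            (by positivity)) (by positivity)) a1 (by positivity) (by positivity)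
  have hQ1 : 1 ≤ Q := by
    rw [hQ]
    have a1 : 1 ≤ (Y / c0) ^ (Gp + 1) := Real.one_le_rpow hYc (by linarith)
    have a2 : 1 ≤ Gm ^ G := Real.one_le_rpow hGm (by linarith)
    exact one_le_mul_of_one_le_of_one_le (one_le_mul_of_one_le_of_one_le hrε a1) a2
  have hsD := Real.sqrt_nonneg D
  -- split
  set J := I.filter (fun j => dl ^ 10 * (D * s2 ^ q * S) ≤ E j) with hJ
  have hsplit : s2 ^ (-q / 2) * (dl * r1 * S ^ (-(1/2) : ℝ)) *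
      nnV Mt (A * r1) (an r1) (an (dl * r1)) κ (dl ^ (1/2 : ℝ)) Y g I1 P1 I P =
      ∑ j ∈ J, s2 ^ (-q / 2) * (dl * r1 * S ^ (-(1/2) : ℝ)) * E j ^ (3/2 : ℝ) +
      ∑ j ∈ I.filter (fun j => ¬ dl ^ 10 * (D * s2 ^ q * S) ≤ E j),
        s2 ^ (-q / 2) * (dl * r1 * S ^ (-(1/2) : ℝ)) * E j ^ (3/2 : ℝ) := by
    rw [hJ, Finset.sum_filter_add_sum_filter_not, ← Finset.mul_sum]
    rfl
  -- poor children
  have hpoor : ∑ j ∈ I.filter (fun j => ¬ dl ^ 10 * (D * s2 ^ q * S) ≤ E j),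
        s2 ^ (-q / 2) * (dl * r1 * S ^ (-(1/2) : ℝ)) * E j ^ (3/2 : ℝ) ≤
      256 * dl ^ 2 * (r1 * Real.sqrt D) * mu := by
    have h1 : ∀ j ∈ I.filter (fun j => ¬ dl ^ 10 * (D * s2 ^ q * S) ≤ E j),
        s2 ^ (-q / 2) * (dl * r1 * S ^ (-(1/2) : ℝ)) * E j ^ (3/2 : ℝ) ≤
        dl * r1 * (dl ^ 5 * Real.sqrt D) * E j := by
      intro j hj
      have hj2 := (Finset.mem_filter.1 hj).2
      push Not at hj2
      have := val_of (hE0 j) (by positivity : 0 ≤ dl ^ 10) hD hs2 hsc hrj.le hj2.le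
      have e : Real.sqrt (dl ^ 10) = dl ^ 5 := by
        rw [show dl ^ 10 = (dl ^ 5) ^ 2 by ring, Real.sqrt_sq (by positivity)]
      rw [e] at this
      exact this
    refine (Finset.sum_le_sum h1).trans ?_
    rw [← Finset.mul_sum]
    have h2 : ∑ j ∈ I.filter (fun j => ¬ dl ^ 10 * (D * s2 ^ q * S) ≤ E j), E j ≤
        256 * (dl⁻¹) ^ 4 * mu :=
      (Finset.sum_le_sum_of_subset_of_nonneg (Finset.filter_subset _ _)
        fun j _ _ => hE0 j).trans hsumE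
    calc _ ≤ dl * r1 * (dl ^ 5 * Real.sqrt D) * (256 * (dl⁻¹) ^ 4 * mu) :=
          mul_le_mul_of_nonneg_left h2 (by positivity)
      _ = 256 * dl ^ 2 * (r1 * Real.sqrt D) * mu := by field_simp
  -- rich children
  have hrich : ∑ j ∈ J, s2 ^ (-q / 2) * (dl * r1 * S ^ (-(1/2) : ℝ)) * E j ^ (3/2 : ℝ) ≤
      57600 * Real.sqrt (CX M A) * (4 * C2 + 16) * Q * dl ^ 2 * (r1 * Real.sqrt D) * mu := by
    have h1 : ∀ j ∈ J, s2 ^ (-q / 2) * (dl * r1 * S ^ (-(1/2) : ℝ)) * E j ^ (3/2 : ℝ) ≤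
        dl * r1 * (Real.sqrt (Kx M A Y Gm 3 (dl ^ (1/2 : ℝ))) * Real.sqrt D) * E j := fun j hj =>
      val_of (hE0 j) hKx hD hs2 hsc hrj.le (hEbd j (Finset.mem_filter.1 hj).1)
    refine (Finset.sum_le_sum h1).trans ?_
    rw [← Finset.mul_sum]
    rcases hD.eq_or_lt with hD0 | hDpos
    · -- `D = 0`
      rw [← hD0, Real.sqrt_zero]
      simp
    · have hw := inv_pos.2 hth
      have hB := inv_pos.2 hκ
      have hv := hv0 r1 (an r1)⁻¹ κ⁻¹ hr hw hB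
      set KC := (r1 * κ⁻¹) ^ (3/2 : ℝ) * (C1 * r1 ^ ε * (max s2 s2') ^ (q / 2) *
        Real.sqrt D * r1) with hKCdef
      have hmx0 : 0 ≤ max s2 s2' := le_max_of_le_left hs2.le
      have hKC : 0 ≤ KC := by rw [hKCdef]; positivity
      have hKM := hkmc κ r1 hκ (by linarith) hr1 (an_le_κ h.rj1 hdl hdl1 hctx.klo) g
        (parC_int hctx.par ha) ((parC_Gd hctx.par ha hb2.le).memLp 2) I1 P1 (A * r1)
        hctx.par.meas hctx.par.disj (parC_bd hctx.par) rfl D hD hctx.par.dens (max s2 s2')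
        (le_max_of_le_right (hctx.par.sd.lo.trans hctx.par.sd.le))
        (max_le hctx.sd.hi hctx.par.sd.hi)
      have hR := h.rich hq hq1 hDpos hv hKC Mt hKM J (Finset.filter_subset _ _)
        (fun j hj => (Finset.mem_filter.1 hj).2)
      have hN := hnum Y Gm (dl ^ (1/2 : ℝ)) dl (an r1) (an (dl * r1)) r1 κ s1 s2
        (TT κ s2 (dl * r1)) s1' s2' (TT κ s2' r1) D c0 ε hY hGm h.δ0 h.δ1 h.δ2.symm hth
        h.th.symm (by rw [mul_comm]; exact mul_an_sq hr) hκ hctx.sd.lo hctx.par.sd.lo hs2 hs2' hT hT'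
        (by
          have a1 := (h.chn_c (j := (0:ℕ)))
          have a2 : dl ^ (-G) * an (dl * r1) ≤ s2 := hctx.wide
          have a3 : an r1 ≤ an (dl * r1) := an_le_an hdl hdl1 hr
          have a4 : dl ^ G ≤ dl ^ Gn := Real.rpow_le_rpow_of_exponent_ge hdl hdl1 hG1
          calc an r1 ≤ an (dl * r1) := a3
            _ = dl ^ G * (dl ^ (-G) * an (dl * r1)) := by
                rw [← mul_assoc, ← Real.rpow_add hdl]; simp
            _ ≤ dl ^ G * s2 := mul_le_mul_of_nonneg_left a2 (Real.rpow_nonneg hdl.le _)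
            _ ≤ dl ^ Gn * s2 := mul_le_mul_of_nonneg_right a4 hs2.le)
        (by
          have a4 : dl ^ G ≤ dl ^ Gn := Real.rpow_le_rpow_of_exponent_ge hdl hdl1 hG1
          calc an r1 = dl ^ G * (dl ^ (-G) * an r1) := by
                rw [← mul_assoc, ← Real.rpow_add hdl]; simp
            _ ≤ dl ^ G * s2' := mul_le_mul_of_nonneg_left hwd (Real.rpow_nonneg hdl.le _)
            _ ≤ dl ^ Gn * s2' := mul_le_mul_of_nonneg_right a4 hs2'.le)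
        hDpos hc0 hc01
      set TTT := (tt r1 (an r1)⁻¹ κ⁻¹
        (phi M A Y Gm (dl ^ (1/2 : ℝ)) (an (dl * r1))) q (124420096 * D)
        (c0 * (D * s2' ^ q * scost κ s1' s2' r1))
        (dl ^ 10 * (D * s2 ^ q * scost κ s1 s2 (dl * r1)))
        (VXr κ M A Gm r1 s2') (VZr κ M A Y Gm r1 dl s2) (dl ^ 11)) ^ (-(1/2) : ℝ) with hTTT
      have hN' : TTT * KC ≤ C2 * r1 ^ ε * (Y / c0) ^ Gp * Gm ^ Gp * dl ^ 12 *
          v0 r1 (an r1)⁻¹ κ⁻¹ := hN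
      -- sum of the masses of the rich children
      have hX1 : 1 ≤ r1 ^ ε * (Y / c0) ^ Gp * Gm ^ Gp :=
        one_le_mul_of_one_le_of_one_le (one_le_mul_of_one_le_of_one_le hrε hYc1) hGm1
      set X := r1 ^ ε * (Y / c0) ^ Gp * Gm ^ Gp with hXdef
      have hd12 : dl ^ 12 ≤ dl ^ 11 := pow_le_pow_of_le_one hdl.le hdl1 (by norm_num)
      have hsum : ∑ j ∈ J, E j ≤ 225 * (256 * (dl⁻¹) ^ 4) * ((4 * C2 + 16) * X * dl ^ 11) * mu := by
        have b1 : 4 * (TTT * KC) + 16 * dl ^ 11 * v0 r1 (an r1)⁻¹ κ⁻¹ ≤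
            ((4 * C2 + 16) * X * dl ^ 11) * v0 r1 (an r1)⁻¹ κ⁻¹ := by
          have c1 : C2 * r1 ^ ε * (Y / c0) ^ Gp * Gm ^ Gp * dl ^ 12 * v0 r1 (an r1)⁻¹ κ⁻¹ ≤
              C2 * X * dl ^ 11 * v0 r1 (an r1)⁻¹ κ⁻¹ := by
            refine mul_le_mul_of_nonneg_right ?_ hv.le
            calc C2 * r1 ^ ε * (Y / c0) ^ Gp * Gm ^ Gp * dl ^ 12 = C2 * X * dl ^ 12 := by
                  rw [hXdef]; ring
              _ ≤ C2 * X * dl ^ 11 := mul_le_mul_of_nonneg_left hd12 (by positivity)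
          have c2 : dl ^ 11 * v0 r1 (an r1)⁻¹ κ⁻¹ ≤ X * (dl ^ 11 * v0 r1 (an r1)⁻¹ κ⁻¹) :=
            le_mul_of_one_le_left (by positivity) hX1
          have c3 := hN'.trans c1
          calc 4 * (TTT * KC) + 16 * dl ^ 11 * v0 r1 (an r1)⁻¹ κ⁻¹ ≤
                4 * (C2 * X * dl ^ 11 * v0 r1 (an r1)⁻¹ κ⁻¹) +
                16 * (X * (dl ^ 11 * v0 r1 (an r1)⁻¹ κ⁻¹)) := by linarith
            _ = _ := by ring
        have b2 : (∑ j ∈ J, E j) * v0 r1 (an r1)⁻¹ κ⁻¹ ≤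
            (225 * (256 * (dl⁻¹) ^ 4) * ((4 * C2 + 16) * X * dl ^ 11) * mu) *
              v0 r1 (an r1)⁻¹ κ⁻¹ := by
          refine hR.trans ?_
          calc 225 * (256 * (dl⁻¹) ^ 4) * (4 * (TTT * KC) + 16 * dl ^ 11 *
                v0 r1 (an r1)⁻¹ κ⁻¹) * mu ≤
                225 * (256 * (dl⁻¹) ^ 4) * (((4 * C2 + 16) * X * dl ^ 11) *
                v0 r1 (an r1)⁻¹ κ⁻¹) * mu :=
                mul_le_mul_of_nonneg_right (mul_le_mul_of_nonneg_left b1 (by positivity)) hmu0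
            _ = _ := by ring
        exact le_of_mul_le_mul_right b2 hv
      have hKs := sqrt_Kx hM hA hY hGm h.δ0 h.δ1 h.δ2.symm
      have hJE : 0 ≤ ∑ j ∈ J, E j := Finset.sum_nonneg fun j _ => hE0 j
      calc dl * r1 * (Real.sqrt (Kx M A Y Gm 3 (dl ^ (1/2 : ℝ))) * Real.sqrt D) * ∑ j ∈ J, E j ≤
            dl * r1 * ((Real.sqrt (CX M A) * (Y * Gm) * (dl⁻¹) ^ 6) * Real.sqrt D) *
            (225 * (256 * (dl⁻¹) ^ 4) * ((4 * C2 + 16) * X * dl ^ 11) * mu) := by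
            refine mul_le_mul ?_ hsum hJE (by positivity)
            exact mul_le_mul_of_nonneg_left (mul_le_mul_of_nonneg_right hKs hsD) (by positivity)
        _ = 57600 * Real.sqrt (CX M A) * (4 * C2 + 16) * (X * (Y * Gm)) * dl ^ 2 *
            (r1 * Real.sqrt D) * mu := by
            field_simp
            ring
        _ ≤ 57600 * Real.sqrt (CX M A) * (4 * C2 + 16) * Q * dl ^ 2 *
            (r1 * Real.sqrt D) * mu := by
            refine mul_le_mul_of_nonneg_right (mul_le_mul_of_nonneg_right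
              (mul_le_mul_of_nonneg_right (mul_le_mul_of_nonneg_left hXQ (by positivity))
              (by positivity)) (by positivity)) hmu0
  rw [hsplit]
  have hfin : 256 * dl ^ 2 * (r1 * Real.sqrt D) * mu ≤
      256 * Q * dl ^ 2 * (r1 * Real.sqrt D) * mu := by
    refine mul_le_mul_of_nonneg_right (mul_le_mul_of_nonneg_right
      (mul_le_mul_of_nonneg_right ?_ (by positivity)) (by positivity)) hmu0
    linarith
  calc _ ≤ 57600 * Real.sqrt (CX M A) * (4 * C2 + 16) * Q * dl ^ 2 * (r1 * Real.sqrt D) * mu +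
        256 * Q * dl ^ 2 * (r1 * Real.sqrt D) * mu := add_le_add hrich (hpoor.trans hfin)
    _ = (57600 * Real.sqrt (CX M A) * (4 * C2 + 16) + 256) * r1 ^ ε * (Y / c0) ^ (Gp + 1) *
        Gm ^ G * dl ^ 2 * (r1 * Real.sqrt D) * mu := by rw [hQ]; ring

/-- **MIS_C**. -/
theorem mis_c {M q : ℝ} (hM : 1 ≤ M) (hq : 0 < q) (hq1 : q ≤ 1) (hnum : NumP q)
    (hv0 : ∀ r w B : ℝ, 0 < r → 0 < w → 0 < B → 0 < v0 r w B)
    (hKMR : KMR890.KMR M q) : MIS_C M q :=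
  MIS_C_of_FIN hq.le (by linarith) (fin_c hM hq hq1 hnum hv0 hKMR)

end Crest.Agent.R116.Mc330
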