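import Crest.Agent.R116.Gc3_192
import Crest.Agent.R116.Ma2_448
import Crest.Agent.R116.LZg4_725

/-!
# R116: MIS on the cone, part 2 (helper330): arcs (cells of slopes) and conformal functions on planks

* `cel φ C` = cell of the slope `C`, `cel_close`, `card_cel` (slopes in two balls meet `≤ 18` cells).
* `plank_ld`, `plank_gr`, `plank_ev` : variation of a conformal function between a ray and the points
  of its plank `PL r w B`.
* `arcs_le` : at one point the slopes common to two strips with transversal normals meet `≤ 18` cells.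
-/

set_option autoImplicit false

open MeasureTheory

namespace Crest.Agent.R116.Mc330

open Crest.Agent.R138.Defs (E2)
open Crest.Agent.R116.CDef480 (E3 lat pt vel)
open Crest.Agent.R116.LZg725 (Cf)
open Crest.Agent.R116.Ma448 (PL)
open Crest.Agent.R116.Gc192 (un crs)

/-- cell of a slope. -/
noncomputable def cel (φ : ℝ) (C : E2) : ℤ × ℤ := (⌊C 0 / φ⌋, ⌊C 1 / φ⌋)

theorem norm2_le' {x : E2} {a : ℝ} (ha : 0 ≤ a) (h0 : |x 0| ≤ a) (h1 : |x 1| ≤ a) : ‖x‖ ≤ 2 * a := by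
  rw [EuclideanSpace.norm_eq, Real.sqrt_le_left (by positivity)]
  simp only [Fin.sum_univ_two, Real.norm_eq_abs, sq_abs]
  have h0' := sq_le_sq' (by linarith [abs_le.mp h0]) (abs_le.mp h0).2
  have h1' := sq_le_sq' (by linarith [abs_le.mp h1]) (abs_le.mp h1).2
  nlinarith

theorem floor_close {φ x y : ℝ} (hφ : 0 < φ) (h : ⌊x / φ⌋ = ⌊y / φ⌋) : |x - y| ≤ φ := by
  have h1 := Int.abs_sub_lt_one_of_floor_eq_floor h
  rw [← sub_div, abs_div, abs_of_pos hφ, div_lt_one hφ] at h1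
  exact h1.le

theorem cel_close {φ : ℝ} (hφ : 0 < φ) {C C' : E2} (h : cel φ C = cel φ C') : ‖C - C'‖ ≤ 2 * φ := by
  unfold cel at h
  obtain ⟨h0, h1⟩ := Prod.mk.inj h
  exact norm2_le' hφ.le (by simpa using floor_close hφ h0) (by simpa using floor_close hφ h1)

theorem floor_near {φ x y : ℝ} (hφ : 0 < φ) (h : |x - y| ≤ φ) :
    ⌊x / φ⌋ ∈ Finset.Icc (⌊y / φ⌋ - 1) (⌊y / φ⌋ + 1) := by
  have h1 := abs_le.1 h
  have h2 : x / φ ≤ y / φ + 1 := by
    rw [div_add_one hφ.ne']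
    exact div_le_div_of_nonneg_right (by linarith) hφ.le
  have h3 : y / φ ≤ x / φ + 1 := by
    rw [div_add_one hφ.ne']
    exact div_le_div_of_nonneg_right (by linarith) hφ.le
  have h4 : ⌊x / φ⌋ ≤ ⌊y / φ⌋ + 1 := by
    rw [← Int.floor_add_one]; exact Int.floor_le_floor h2
  have h5 : ⌊y / φ⌋ ≤ ⌊x / φ⌋ + 1 := by
    rw [← Int.floor_add_one]; exact Int.floor_le_floor h3
  rw [Finset.mem_Icc]
  constructor <;> omega

/-- slopes in two balls of radius `φ` meet at most `18` cells of size `φ`. -/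
theorem card_cel {φ : ℝ} (hφ : 0 < φ) (S T : Finset E2) (hT : T.card ≤ 2)
    (h : ∀ C ∈ S, ∃ C' ∈ T, ‖C - C'‖ ≤ φ) : (S.image (cel φ)).card ≤ 18 := by
  classical
  set bx : E2 → Finset (ℤ × ℤ) := fun C' =>
    Finset.Icc (⌊C' 0 / φ⌋ - 1) (⌊C' 0 / φ⌋ + 1) ×ˢ Finset.Icc (⌊C' 1 / φ⌋ - 1) (⌊C' 1 / φ⌋ + 1)
    with hbx
  have hc : ∀ C', (bx C').card = 9 := by
    intro C'
    rw [hbx, Finset.card_product, Int.card_Icc, Int.card_Icc]
    have e1 : ∀ a : ℤ, (a + 1 + 1 - (a - 1)).toNat = 3 := fun a => by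
      have : a + 1 + 1 - (a - 1) = 3 := by ring
      rw [this]; rfl
    rw [e1, e1]
  have hsub : S.image (cel φ) ⊆ T.biUnion bx := by
    intro k hk
    obtain ⟨C, hC, rfl⟩ := Finset.mem_image.1 hk
    obtain ⟨C', hC', hd⟩ := h C hC
    rw [Finset.mem_biUnion]
    refine ⟨C', hC', ?_⟩
    have h0 : |C 0 - C' 0| ≤ φ := by
      have := (PiLp.norm_apply_le (C - C') 0).trans hd
      simpa using this
    have h1 : |C 1 - C' 1| ≤ φ := by
      have := (PiLp.norm_apply_le (C - C') 1).trans hd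
      simpa using this
    rw [hbx, Finset.mem_product]
    exact ⟨floor_near hφ h0, floor_near hφ h1⟩
  calc (S.image (cel φ)).card ≤ (T.biUnion bx).card := Finset.card_le_card hsub
    _ ≤ ∑ C' ∈ T, (bx C').card := Finset.card_biUnion_le
    _ = T.card * 9 := by rw [Finset.sum_congr rfl fun C' _ => hc C', Finset.sum_const, smul_eq_mul]
    _ ≤ 2 * 9 := Nat.mul_le_mul_right 9 hT
    _ = 18 := rfl

/-! ### conformal functions on planks -/

section plank

variable {r w B : ℝ} {C : E2} {y X : E3} {t : ℝ}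

theorem plank_time (h : (X, t) ∈ PL r w B C (lat y) (CDef480.nrm C y 0)) : |t| ≤ r := h.1

/-- the ray derivative. -/
theorem plank_ld (f : Cf E2) (h : (X, t) ∈ PL r w B C (lat y) (CDef480.nrm C y 0)) :
    |f.ld C (lat X) (X 2) t - f.ld C (lat y) (y 2) 0| ≤ 2 * |f.d| * B := by
  obtain ⟨-, -, h3⟩ := h
  simp only at h3
  rw [f.ld_move C (lat y) (lat X) (y 2) (X 2) 0 t]
  have e : f.ld C (lat y) (y 2) 0 - 2 * f.d * (LZg725.nrm C (lat X) (X 2) t -
      LZg725.nrm C (lat y) (y 2) 0) - f.ld C (lat y) (y 2) 0 =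
      -(2 * f.d * (CDef480.nrm C X t - CDef480.nrm C y 0)) := by
    rw [LZg725.nrm_eq, LZg725.nrm_eq]; ring
  rw [e, abs_neg, abs_mul, abs_mul, abs_two]
  exact mul_le_mul_of_nonneg_left h3 (by positivity)

/-- the lateral gradient. -/
theorem plank_gr (f : Cf E2) (h : (X, t) ∈ PL r w B C (lat y) (CDef480.nrm C y 0)) :
    ‖f.gr C (lat X) t - f.gr C (lat y) 0‖ ≤ 2 * |f.d| * w := by
  obtain ⟨-, h2, -⟩ := h
  simp only at h2
  rw [f.gr_move C (lat y) (lat X) 0 t, add_sub_cancel_left, norm_smul, Real.norm_eq_abs, abs_mul,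
    abs_two]
  refine mul_le_mul_of_nonneg_left ?_ (by positivity)
  have e : lat X - lat y + (t - 0) • C = lat X - (lat y - t • C) := by
    rw [sub_zero]; abel
  rw [e]; exact h2

/-- the value. -/
theorem plank_ev (f : Cf E2) (h : (X, t) ∈ PL r w B C (lat y) (CDef480.nrm C y 0)) {G : ℝ}
    (hG : ‖f.gr C (lat y) 0‖ ≤ G) {η : ℝ} (hη : |f.ny t| ≤ η) :
    |f.ev (lat X) (X 2) t| ≤ |f.ev (lat y) (y 2) 0| + r * |f.ld C (lat y) (y 2) 0| +
      (G * w + η * B + |f.d| * w ^ 2) := by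
  obtain ⟨h1, h2, h3⟩ := h
  simp only at h1 h2 h3
  have hr : 0 ≤ r := (abs_nonneg _).trans h1
  have hw : 0 ≤ w := (norm_nonneg _).trans h2
  have hB : 0 ≤ B := (abs_nonneg _).trans h3
  set x1 : E2 := lat y - t • C with hx1
  set y1 : ℝ := y 2 + t * ‖C‖ ^ 2 / 2 with hy1
  have e1 : f.ev x1 y1 t = f.ev (lat y) (y 2) 0 + t * f.ld C (lat y) (y 2) 0 := by
    have := f.ev_along C (lat y) (y 2) 0 t
    rw [zero_add] at this
    exact this
  have hgr : f.gr C x1 t = f.gr C (lat y) 0 := by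
    rw [f.gr_move C (lat y) x1 0 t, hx1]
    simp
  have hn1 : LZg725.nrm C x1 y1 t = CDef480.nrm C y 0 := by
    rw [LZg725.nrm_eq, hx1, hy1]
    unfold LZg725.nrm
    rw [inner_sub_right, real_inner_smul_right, real_inner_self_eq_norm_sq]
    ring
  have e2 : f.ev (lat X) (X 2) t = f.ev x1 y1 t + inner ℝ (f.gr C x1 t) (lat X - x1) +
      f.ny t * (CDef480.nrm C X t - CDef480.nrm C y 0) + f.d * ‖lat X - x1‖ ^ 2 := by
    rw [← hn1, LZg725.nrm_eq]
    unfold Cf.ev Cf.gr Cf.ny LZg725.nrm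
    simp only [norm_sub_sq_real, inner_sub_right, inner_sub_left, inner_add_left,
      real_inner_smul_left, real_inner_self_eq_norm_sq]
    rw [real_inner_comm x1 (lat X)]
    ring
  rw [e2, e1, hgr]
  have k1 : |inner ℝ (f.gr C (lat y) 0) (lat X - x1)| ≤ G * w :=
    (abs_real_inner_le_norm _ _).trans (mul_le_mul hG h2 (norm_nonneg _) ((norm_nonneg _).trans hG))
  have k2 : |f.ny t * (CDef480.nrm C X t - CDef480.nrm C y 0)| ≤ η * B := by
    rw [abs_mul]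
    exact mul_le_mul hη h3 (abs_nonneg _) ((abs_nonneg _).trans hη)
  have k3 : |f.d * ‖lat X - x1‖ ^ 2| ≤ |f.d| * w ^ 2 := by
    rw [abs_mul, abs_of_nonneg (sq_nonneg ‖lat X - x1‖)]
    exact mul_le_mul_of_nonneg_left (pow_le_pow_left₀ (norm_nonneg _) h2 2) (abs_nonneg _)
  have k4 : |t * f.ld C (lat y) (y 2) 0| ≤ r * |f.ld C (lat y) (y 2) 0| := by
    rw [abs_mul]
    exact mul_le_mul_of_nonneg_right h1 (abs_nonneg _)
  have t1 := abs_add_le (f.ev (lat y) (y 2) 0 + t * f.ld C (lat y) (y 2) 0 +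
    inner ℝ (f.gr C (lat y) 0) (lat X - x1) +
      f.ny t * (CDef480.nrm C X t - CDef480.nrm C y 0)) (f.d * ‖lat X - x1‖ ^ 2)
  have t2 := abs_add_le (f.ev (lat y) (y 2) 0 + t * f.ld C (lat y) (y 2) 0 +
    inner ℝ (f.gr C (lat y) 0) (lat X - x1))
      (f.ny t * (CDef480.nrm C X t - CDef480.nrm C y 0))
  have t3 := abs_add_le (f.ev (lat y) (y 2) 0 + t * f.ld C (lat y) (y 2) 0)
    (inner ℝ (f.gr C (lat y) 0) (lat X - x1))
  have t4 := abs_add_le (f.ev (lat y) (y 2) 0) (t * f.ld C (lat y) (y 2) 0)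
  linarith

/-- the lateral gradient of a ray inside a slab. -/
theorem gr_of_small (f : Cf E2) (hd : f.disc = 1) {C x : E2} {y s e : ℝ}
    (h : |2 * f.ny s * f.ld C x y s| + |4 * f.d * f.ev x y s| ≤ e) :
    |‖f.gr C x s‖ ^ 2 - 1| ≤ e := by
  have e1 := f.norm_gr_sq C x y s
  rw [hd] at e1
  rw [e1]
  have : 1 + 2 * f.ny s * f.ld C x y s + 4 * f.d * f.ev x y s - 1 =
      2 * f.ny s * f.ld C x y s + 4 * f.d * f.ev x y s := by ring
  rw [this]
  exact (abs_add_le _ _).trans h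

end plank

/-! ### arcs at one point -/

/-- **at one point the slopes common to two strips with transversal normals meet at most `18`
cells**. -/
theorem arcs_le {p q : Cf E2} {x : E2} {y s h k M δ φ : ℝ} (hk : 0 < k) (hδ : 0 < δ) (hh : 0 ≤ h)
    (hφ : 0 < φ) (hφ1 : 4 * M * h / (k ^ 2 * δ) ≤ φ) (S : Finset E2)
    (h1 : ∀ C ∈ S, |p.ld C x y s| ≤ h) (h2 : ∀ C ∈ S, |q.ld C x y s| ≤ h)
    (m1 : ∀ C ∈ S, ‖p.gr C x s‖ ≤ M) (m2 : ∀ C ∈ S, ‖q.gr C x s‖ ≤ M)
    (k1 : ∀ C ∈ S, k ≤ ‖p.gr C x s‖) (k2 : ∀ C ∈ S, k ≤ ‖q.gr C x s‖)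
    (hs : ∀ C ∈ S, δ ≤ |crs (un p C x s) (un q C x s)|) : (S.image (cel φ)).card ≤ 18 := by
  obtain ⟨T, -, hT, hcl⟩ := Gc192.mis_two hk hδ hh S h1 h2 m1 m2 k1 k2 hs
  refine card_cel hφ S T hT fun C hC => ?_
  obtain ⟨C', hC', hd⟩ := hcl C hC
  exact ⟨C', hC', hd.trans hφ1⟩

end Crest.Agent.R116.Mc330
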