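import Crest.Agent.R116.Mc2_330
import Crest.Agent.R116.Ma1_448

/-!
# R116: MIS on the cone, part 3 (helper330): the finite form `mis_fin`

Weighted packets (planks `PL r w B` of the rays `(C i, y i)`, masses `μ i`), partitioned into own
plates `pl i` (regions `X p`) and fractionally distributed to test plates `a` (regions `Z a`).
Hypotheses: isotropic D-max (`hiso`), dense own plates, rich test plates, arcs (`hN`), Kakeya for the
slope caps (`hKM`).  Conclusion: the total mass of the test plates is small.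
-/

set_option autoImplicit false

open MeasureTheory
open scoped ENNReal

namespace Crest.Agent.R116.Mc330

open Crest.Agent.R138.Defs (E2)
open Crest.Agent.R116.CDef480 (E3 lat pt vel)
open Crest.Agent.R116.Ma448 (PL BX pv)

/-- the packet of the ray `(C, y)` of mass `ν`. -/
noncomputable def pkc (r w B : ℝ) (C : E2) (y : E3) (ν : ℝ) : E3 × ℝ → ℝ≥0∞ :=
  Ma448.pk r w B C (lat y) (CDef480.nrm C y 0) ν

/-- plank of the ray `(C, y)`. -/
def PLc (r w B : ℝ) (C : E2) (y : E3) : Set (E3 × ℝ) := PL r w B C (lat y) (CDef480.nrm C y 0)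

theorem measurable_pkc (r w B : ℝ) (C : E2) (y : E3) (ν : ℝ) : Measurable (pkc r w B C y ν) :=
  Ma448.measurable_pk _ _ _ _ _ _ _

theorem pkc_zero {r w B : ℝ} {C : E2} {y : E3} {ν : ℝ} {x : E3 × ℝ} (h : x ∉ PLc r w B C y) :
    pkc r w B C y ν x = 0 :=
  Set.indicator_of_notMem (s := PLc r w B C y) h (fun _ => ENNReal.ofReal ν)

theorem mem_of_pkc {r w B : ℝ} {C : E2} {y : E3} {ν : ℝ} {x : E3 × ℝ}
    (h : pkc r w B C y ν x ≠ 0) : x ∈ PLc r w B C y := by
  by_contra hn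
  exact h (pkc_zero hn)

theorem pkc_ne_top (r w B : ℝ) (C : E2) (y : E3) (ν : ℝ) (x : E3 × ℝ) : pkc r w B C y ν x ≠ ∞ := by
  unfold pkc Ma448.pk
  by_cases h : x ∈ PL r w B C (lat y) (CDef480.nrm C y 0)
  · rw [Set.indicator_of_mem h]; exact ENNReal.ofReal_ne_top
  · rw [Set.indicator_of_notMem h]; exact ENNReal.zero_ne_top

/-- volume of a plank, real form. -/
noncomputable def v0 (r w B : ℝ) : ℝ := (ENNReal.ofReal (2 * r) * pv w B).toReal

theorem ofReal_v0 (r w B : ℝ) : ENNReal.ofReal (v0 r w B) = ENNReal.ofReal (2 * r) * pv w B := by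
  unfold v0
  rw [ENNReal.ofReal_toReal]
  exact (ENNReal.mul_lt_top ENNReal.ofReal_lt_top (Ma448.pv_lt_top w B)).ne

theorem lint_pkc (r w B : ℝ) (C : E2) (y : E3) (ν : ℝ) :
    ∫⁻ p, pkc r w B C y ν p = ENNReal.ofReal ν * ENNReal.ofReal (v0 r w B) := by
  rw [ofReal_v0]
  exact Ma448.lint_pk _ _ _ _ _ _ _

theorem vol_PLc (r w B : ℝ) (C : E2) (y : E3) :
    volume (PLc r w B C y) = ENNReal.ofReal (v0 r w B) := by
  rw [ofReal_v0]; exact Ma448.vol_PL _ _ _ _ _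

/-! ### grid of slopes -/

/-- lattice point. -/
noncomputable def ltp (s : ℝ) (k : ℤ × ℤ) : E2 := !₂[s * k.1, s * k.2]

theorem ltp_close {s : ℝ} (hs : 0 < s) (c : E2) : ‖c - ltp s (cel s c)‖ ≤ 2 * s := by
  have key : ∀ t : ℝ, |t - s * (⌊t / s⌋ : ℤ)| ≤ s := by
    intro t
    have h1 := Int.floor_le (t / s)
    have h2 := Int.lt_floor_add_one (t / s)
    rw [le_div_iff₀ hs] at h1
    rw [div_lt_iff₀ hs] at h2
    rw [abs_le]
    constructor <;> nlinarith
  refine norm2_le' hs.le ?_ ?_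
  · simpa [ltp, cel] using key (c 0)
  · simpa [ltp, cel] using key (c 1)

theorem card_ltp {s : ℝ} (hs : 0 < s) (K : Finset (ℤ × ℤ)) (c : E2) :
    (K.filter fun k => ‖c - ltp s k‖ ≤ 7 * s).card ≤ 225 := by
  have hsub : (K.filter fun k => ‖c - ltp s k‖ ≤ 7 * s) ⊆
      Finset.Icc (⌊c 0 / s⌋ - 7) (⌊c 0 / s⌋ + 7) ×ˢ Finset.Icc (⌊c 1 / s⌋ - 7) (⌊c 1 / s⌋ + 7) := by
    intro k hk
    have h := (Finset.mem_filter.1 hk).2
    have key : ∀ (t : ℝ) (a : ℤ), |t - s * a| ≤ 7 * s →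
        a ∈ Finset.Icc (⌊t / s⌋ - 7) (⌊t / s⌋ + 7) := by
      intro t a ht
      obtain ⟨h1, h2⟩ := abs_le.1 ht
      have h3 : t / s ≤ a + 7 := by
        rw [div_le_iff₀ hs]; nlinarith
      have h4 : (a : ℝ) ≤ t / s + 7 := by
        have : (a : ℝ) - 7 ≤ t / s := by
          rw [le_div_iff₀ hs]; nlinarith
        linarith
      have h5 := Int.floor_le (t / s)
      have h6 := Int.lt_floor_add_one (t / s)
      rw [Finset.mem_Icc]
      constructor
      · have : (⌊t / s⌋ : ℝ) ≤ ((a + 7 : ℤ) : ℝ) := by push_cast; linarith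
        have := Int.cast_le.1 this
        omega
      · have : (a : ℝ) < ((⌊t / s⌋ + 8 : ℤ) : ℝ) := by push_cast; linarith
        have := Int.cast_lt.1 this
        omega
    have h0 : |c 0 - s * k.1| ≤ 7 * s := by
      have := (PiLp.norm_apply_le (c - ltp s k) 0).trans h
      simpa [ltp] using this
    have h1 : |c 1 - s * k.2| ≤ 7 * s := by
      have := (PiLp.norm_apply_le (c - ltp s k) 1).trans h
      simpa [ltp] using this
    rw [Finset.mem_product]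
    exact ⟨key _ _ h0, key _ _ h1⟩
  refine (Finset.card_le_card hsub).trans ?_
  rw [Finset.card_product, Int.card_Icc, Int.card_Icc]
  have e : ∀ a : ℤ, (a + 7 + 1 - (a - 7)).toNat = 15 := fun a => by
    have : a + 7 + 1 - (a - 7) = 15 := by ring
    rw [this]; rfl
  rw [e, e]

theorem card_img {ι : Type*} {S T : Finset ι} (g : ι → ℤ × ℤ) (h : S ⊆ T)
    (d : DecidableEq (ℤ × ℤ)) : (@Finset.image _ _ d g S).card ≤
      (@Finset.image _ _ instDecidableEqProd g T).card := by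
  have hd : d = instDecidableEqProd := Subsingleton.elim _ _
  subst hd
  exact Finset.card_le_card (Finset.image_subset_image h)

/-- the Cordoba constant. -/
noncomputable def K0c (r w B φ q D : ℝ) : ℝ :=
  4 * (w / r) * (D * (2 * φ) * (B * r ^ 2)) * (2 * φ) ^ q * (1 - 2 ^ (-q))⁻¹

theorem one_sub_pos {q : ℝ} (hq : 0 < q) : 0 < (1 : ℝ) - 2 ^ (-q) := by
  have : (2 : ℝ) ^ (-q) < 1 := Real.rpow_lt_one_of_one_lt_of_neg (by norm_num) (by linarith)
  linarith

theorem K0c_pos {r w B φ q D : ℝ} (hr : 0 < r) (hw : 0 < w) (hB : 0 < B) (hφ : 0 < φ) (hq : 0 < q)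
    (hD : 0 < D) : 0 < K0c r w B φ q D := by
  have := one_sub_pos hq
  unfold K0c
  positivity

/-- the number of own plates through a typical point of a test plate, times the density. -/
noncomputable def tt (r w B φ q D MX MZ VX VZ κ1 : ℝ) : ℝ :=
  (MZ * v0 r w B / VZ) * (κ1 * (MX * v0 r w B / VX)) / (256 * 18 * K0c r w B φ q D)

open Classical in
/-- sum over the caps. -/
theorem sum_caps {ι β : Type*} (K : Finset β) (Ik : β → Finset ι) (I : Finset ι) {N : ℕ}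
    (hsub : ∀ k ∈ K, Ik k ⊆ I) (hN : ∀ i ∈ I, (K.filter fun k => i ∈ Ik k).card ≤ N)
    (g : ι → ℝ≥0∞) : ∑ k ∈ K, ∑ i ∈ Ik k, g i ≤ N * ∑ i ∈ I, g i := by
  have h1 : ∀ k ∈ K, ∑ i ∈ Ik k, g i = ∑ i ∈ I, if i ∈ Ik k then g i else 0 := by
    intro k hk
    rw [← Finset.sum_filter]
    congr 1
    ext i
    rw [Finset.mem_filter]
    exact ⟨fun h => ⟨hsub k hk h, h⟩, fun h => h.2⟩
  rw [Finset.sum_congr rfl h1, Finset.sum_comm, Finset.mul_sum]
  refine Finset.sum_le_sum fun i hi => ?_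
  rw [← Finset.sum_filter, Finset.sum_const, nsmul_eq_mul]
  exact mul_le_mul' (by exact_mod_cast hN i hi) le_rfl

set_option maxHeartbeats 1000000 in
open Classical in
/-- **MIS, finite form**. -/
theorem mis_fin {ι κ' α : Type*} {r w B φ q D s mult MX MZ VX VZ K1 κ1 : ℝ}
    (hr : 0 < r) (hw : 0 < w) (hB : 0 < B) (hφ : 0 < φ) (hwφ : w ≤ r * (2 * φ))
    (h1 : w * (2 * φ) ≤ B) (h2 : r * (2 * φ) ^ 2 ≤ B) (hq : 0 < q) (hD : 0 < D) (hs : 0 < s)
    (hmult0 : 0 ≤ mult) (hMX : 0 < MX) (hMZ : 0 < MZ) (hVX : 0 < VX) (hVZ : 0 < VZ) (hK1 : 0 ≤ K1)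
    (hκ1 : 0 < κ1) (hv0 : 0 < v0 r w B)
    (I : Finset ι) (C : ι → E2) (y : ι → E3) (μ : ι → ℝ) (hμ : ∀ i, 0 ≤ μ i)
    (pl : ι → κ') (J : Finset α) (om : α → ι → ℝ) (hom0 : ∀ a i, 0 ≤ om a i)
    (hom1 : ∀ a i, om a i ≤ 1) (cA : α → E2)
    (hiso : ∀ i ∈ I, ∀ ψ : ℝ, w ≤ r * ψ → ψ ≤ 2 * φ →
      ∑ i' ∈ I with BX r B ψ (C i) (lat (y i)) (CDef480.nrm (C i) (y i) 0) (C i') (lat (y i'))
        (CDef480.nrm (C i') (y i') 0), μ i' ≤ D * ψ ^ q * (ψ ^ 2 * (B * r ^ 2)))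
    (hown : ∀ i ∈ I, ∀ i' ∈ I, pl i = pl i' → ‖C i - C i'‖ ≤ 4 * s)
    (htest : ∀ a ∈ J, ∀ i ∈ I, om a i ≠ 0 → ‖C i - cA a‖ ≤ s)
    (X : κ' → Set (E3 × ℝ)) (hX : ∀ i ∈ I, PLc r w B (C i) (y i) ⊆ X (pl i))
    (hXv : ∀ i ∈ I, volume (X (pl i)) ≤ ENNReal.ofReal VX)
    (Z : α → Set (E3 × ℝ)) (hZ : ∀ a ∈ J, ∀ i ∈ I, om a i ≠ 0 → PLc r w B (C i) (y i) ⊆ Z a)
    (hZv : ∀ a ∈ J, volume (Z a) ≤ ENNReal.ofReal VZ)
    (hdens : ∀ i ∈ I, MX ≤ ∑ i' ∈ I with pl i' = pl i, μ i')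
    (hmass : ∀ a ∈ J, MZ ≤ ∑ i ∈ I, om a i * μ i)
    (hN : ∀ a ∈ J, ∀ x p, ((I.filter fun i => pl i = p ∧ om a i ≠ 0 ∧
      x ∈ PLc r w B (C i) (y i)).image (fun i => cel φ (C i))).card ≤ 18)
    (hmult : ∀ i ∈ I, ∑ a ∈ J, om a i ≤ mult)
    (hKM : ∀ (C0 : E2) (I' : Finset ι), I' ⊆ I → (∀ i ∈ I', ‖C i - C0‖ ≤ 8 * s) →
      ∫⁻ x, (∑ i ∈ I', pkc r w B (C i) (y i) (μ i) x) ^ (3/2 : ℝ) ≤
        ENNReal.ofReal (K1 * ∑ i ∈ I', μ i)) :
    (∑ a ∈ J, ∑ i ∈ I, om a i * μ i) * v0 r w B ≤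
      225 * mult * (4 * ((tt r w B φ q D MX MZ VX VZ κ1) ^ (-(1/2) : ℝ) * K1) +
        16 * κ1 * v0 r w B) * ∑ i ∈ I, μ i := by
  set K0 : ℝ := K0c r w B φ q D with hK0
  have pK0 : 0 < K0 := K0c_pos hr hw hB hφ hq hD
  set v : ℝ := v0 r w B with hv
  set t : ℝ := tt r w B φ q D MX MZ VX VZ κ1 with ht
  have pt : 0 < t := by
    rw [ht]; unfold tt
    have := hv0
    have := pK0
    positivity
  set f : ι → E3 × ℝ → ℝ≥0∞ := fun i => pkc r w B (C i) (y i) (μ i) with hf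
  have hfm : ∀ i, Measurable (f i) := fun i => measurable_pkc _ _ _ _ _ _
  have hfi : ∀ i, ∫⁻ x, f i x = ENNReal.ofReal (μ i) * ENNReal.ofReal v := fun i =>
    lint_pkc _ _ _ _ _ _
  have hfi' : ∀ i, ∫⁻ x, f i x ≠ ∞ := fun i => by
    rw [hfi]; exact ENNReal.mul_ne_top ENNReal.ofReal_ne_top ENNReal.ofReal_ne_top
  set om' : α → ι → ℝ≥0∞ := fun a i => ENNReal.ofReal (om a i) with hom'
  have hom1' : ∀ a i, om' a i ≤ 1 := fun a i => by
    rw [hom', ← ENNReal.ofReal_one]; exact ENNReal.ofReal_le_ofReal (hom1 a i)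
  have homne : ∀ {a i}, om' a i ≠ 0 → om a i ≠ 0 := fun {a i} h h0 => h (by
    simp only [hom', h0, ENNReal.ofReal_zero])
  -- caps
  set K : Finset (ℤ × ℤ) := J.image (fun a => cel s (cA a)) with hK
  set Ik : ℤ × ℤ → Finset ι := fun k =>
    I.filter (fun i => ∃ i' ∈ I, pl i' = pl i ∧ ‖C i' - ltp s k‖ ≤ 3 * s) with hIk
  have hIkI : ∀ k, Ik k ⊆ I := fun k => Finset.filter_subset _ _
  have hIkc : ∀ k, ∀ i ∈ Ik k, ‖C i - ltp s k‖ ≤ 7 * s := by
    intro k i hi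
    obtain ⟨hiI, i', hi', hpl, hc⟩ := Finset.mem_filter.1 hi
    have h3 := hown i hiI i' hi' hpl.symm
    have e : C i - ltp s k = (C i - C i') + (C i' - ltp s k) := by abel
    rw [e]
    refine (norm_add_le _ _).trans ?_
    linarith
  set Jk : ℤ × ℤ → Finset α := fun k => J.filter (fun a => cel s (cA a) = k) with hJk
  have hin : ∀ k, ∀ a ∈ Jk k, ∀ i ∈ I, om a i ≠ 0 → i ∈ Ik k := by
    intro k a ha i hi h0
    obtain ⟨haJ, hak⟩ := Finset.mem_filter.1 ha
    rw [hIk, Finset.mem_filter]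
    refine ⟨hi, i, hi, rfl, ?_⟩
    have h3 := htest a haJ i hi h0
    have h4 := ltp_close hs (cA a)
    rw [hak] at h4
    have e : C i - ltp s k = (C i - cA a) + (cA a - ltp s k) := by abel
    rw [e]
    refine (norm_add_le _ _).trans ?_
    linarith
  have hsumk : ∀ k, ∀ a ∈ Jk k, ∑ i ∈ I, om' a i * ∫⁻ x, f i x =
      ∑ i ∈ Ik k, om' a i * ∫⁻ x, f i x := by
    intro k a ha
    symm
    apply Finset.sum_subset (hIkI k)
    intro i hi hni
    by_cases h0 : om' a i = 0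
    · rw [h0, zero_mul]
    · exact absurd (hin k a ha i hi (homne h0)) hni
  -- one cap
  have hone : ∀ k ∈ K, ∑ a ∈ Jk k, ∑ i ∈ I, om' a i * ∫⁻ x, f i x ≤
      4 * ENNReal.ofReal mult * (ENNReal.ofReal t ^ (-(1/2) : ℝ) *
        ENNReal.ofReal (K1 * ∑ i ∈ Ik k, μ i)) +
      16 * ENNReal.ofReal mult * (ENNReal.ofReal κ1 / 1) * ∑ i ∈ Ik k, ∫⁻ x, f i x := by
    intro k hk
    rw [Finset.sum_congr rfl (hsumk k)]
    refine Ma448.mis_abs (ν := volume) (Ik k) f pl (Jk k) om' (fun _ i => cel φ (C i)) hfm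
      (fun i _ x => pkc_ne_top _ _ _ _ _ _ _) (fun i _ => hfi' i) hom1'
      (ENNReal.ofReal (MX * v / VX)) (ENNReal.ofReal (MZ * v / VZ)) (ENNReal.ofReal K0)
      (ENNReal.ofReal κ1) 1 (ENNReal.ofReal mult) _ (ENNReal.ofReal t) 18 (by norm_num)
      (ENNReal.ofReal_ne_zero_iff.2 pK0) ENNReal.ofReal_ne_top one_ne_zero ENNReal.one_ne_top
      X ?_ ?_ Z ?_ ?_ ?_ ?_ ?_ ?_ (ENNReal.ofReal_ne_zero_iff.2 pt) ENNReal.ofReal_ne_top ?_
    · intro i hi x hx
      exact pkc_zero fun h => hx (hX i (hIkI k hi) h)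
    · intro i hi
      have e1 : (Ik k).filter (fun i' => pl i' = pl i) = I.filter (fun i' => pl i' = pl i) := by
        ext i'
        simp only [Finset.mem_filter, hIk]
        constructor
        · rintro ⟨⟨h3, -⟩, h4⟩
          exact ⟨h3, h4⟩
        · rintro ⟨h3, h4⟩
          obtain ⟨-, i2, h5, h6, h7⟩ := Finset.mem_filter.1 hi
          exact ⟨⟨h3, i2, h5, h6.trans h4.symm, h7⟩, h4⟩
      rw [e1, one_mul]
      have e2 : ∑ i' ∈ I with pl i' = pl i, ∫⁻ x, f i' x =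
          ENNReal.ofReal ((∑ i' ∈ I with pl i' = pl i, μ i') * v) := by
        rw [Finset.sum_congr rfl fun i' _ => hfi i', ← Finset.sum_mul,
          ← ENNReal.ofReal_sum_of_nonneg fun i' _ => hμ i', ← ENNReal.ofReal_mul
          (Finset.sum_nonneg fun i' _ => hμ i')]
      rw [e2]
      refine (mul_le_mul' le_rfl (hXv i (hIkI k hi))).trans ?_
      rw [← ENNReal.ofReal_mul (by positivity)]
      refine ENNReal.ofReal_le_ofReal ?_
      rw [div_mul_cancel₀ _ hVX.ne']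
      exact mul_le_mul_of_nonneg_right (hdens i (hIkI k hi)) hv0.le
    · intro a ha i hi h0 x hx
      exact pkc_zero fun h => hx (hZ a (Finset.mem_filter.1 ha).1 i (hIkI k hi) (homne h0) h)
    · intro a ha
      have haJ := (Finset.mem_filter.1 ha).1
      rw [← hsumk k a ha]
      have e2 : ∑ i ∈ I, om' a i * ∫⁻ x, f i x =
          ENNReal.ofReal ((∑ i ∈ I, om a i * μ i) * v) := by
        have e3 : ∀ i ∈ I, om' a i * ∫⁻ x, f i x =
            ENNReal.ofReal (om a i * μ i) * ENNReal.ofReal v := fun i _ => by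
          rw [hfi, ENNReal.ofReal_mul (hom0 a i)]; ring
        rw [Finset.sum_congr rfl e3, ← Finset.sum_mul,
          ← ENNReal.ofReal_sum_of_nonneg fun i _ => mul_nonneg (hom0 a i) (hμ i),
          ← ENNReal.ofReal_mul (Finset.sum_nonneg fun i _ => mul_nonneg (hom0 a i) (hμ i))]
      rw [e2]
      refine (mul_le_mul' le_rfl (hZv a haJ)).trans ?_
      rw [← ENNReal.ofReal_mul (by positivity)]
      refine ENNReal.ofReal_le_ofReal ?_
      rw [div_mul_cancel₀ _ hVZ.ne']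
      exact mul_le_mul_of_nonneg_right (hmass a haJ) hv0.le
    · -- Cordoba
      intro a ha i hi h0
      have hiI := hIkI k hi
      set Jc : Finset ι := I.filter (fun i' => ‖C i' - C i‖ ≤ 2 * φ) with hJc
      have hΛ : 0 ≤ D * (2 * φ) * (B * r ^ 2) := by positivity
      have hcd := Ma448.cord Jc C (fun i => lat (y i)) (fun i => CDef480.nrm (C i) (y i) 0) μ hμ
        hr hw hwφ h1 h2 hq hΛ i (fun i' hi' => (Finset.mem_filter.1 hi').2) (fun ψ hψ1 hψ2 => by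
          have hψ0 : 0 < ψ := by
            by_contra hn
            have := mul_nonpos_of_nonneg_of_nonpos hr.le (not_lt.1 hn)
            linarith
          refine le_trans ?_ ((hiso i hiI ψ hψ1 hψ2).trans ?_)
          · refine Finset.sum_le_sum_of_subset_of_nonneg ?_ fun i' _ _ => hμ i'
            intro i' hi'
            rw [Finset.mem_filter] at hi' ⊢
            exact ⟨(Finset.mem_filter.1 hi'.1).1, hi'.2⟩
          · have e : D * (2 * φ) * (B * r ^ 2) * (ψ * ψ ^ q) =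
              D * ψ ^ q * ((ψ * (2 * φ)) * (B * r ^ 2)) := by ring
            rw [e]
            have hq0 : 0 ≤ ψ ^ q := Real.rpow_nonneg hψ0.le _
            refine mul_le_mul_of_nonneg_left (mul_le_mul_of_nonneg_right ?_ (by positivity))
              (by positivity)
            nlinarith)
      refine le_trans (lintegral_mono fun x => mul_le_mul' le_rfl ?_) hcd
      unfold Ma448.ba
      refine (Finset.sum_le_sum (g := fun i' => f i' x) fun i' _ => ?_).trans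
        (Finset.sum_le_sum_of_subset fun i' hi' => ?_)
      · calc om' a i' * f i' x ≤ 1 * f i' x := mul_le_mul' (hom1' a i') le_rfl
          _ = f i' x := one_mul _
      · simp only [Finset.mem_filter] at hi'
        obtain ⟨h3, -, h5⟩ := hi'
        rw [hJc, Finset.mem_filter]
        exact ⟨hIkI k h3, cel_close hφ h5⟩
    · intro a ha x p
      refine le_trans (card_img (fun i => cel φ (C i)) ?_ _) (hN a (Finset.mem_filter.1 ha).1 x p)
      intro i hi
      obtain ⟨h3, h4, h5, h6⟩ := Finset.mem_filter.1 hi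
      rw [Finset.mem_filter]
      exact ⟨hIkI k h3, h4, homne h5, mem_of_pkc h6⟩
    · intro i hi
      rw [← ENNReal.ofReal_sum_of_nonneg fun a _ => hom0 a i]
      refine ENNReal.ofReal_le_ofReal (le_trans ?_ (hmult i (hIkI k hi)))
      exact Finset.sum_le_sum_of_subset_of_nonneg (Finset.filter_subset _ _) fun a _ _ => hom0 a i
    · refine hKM (ltp s k) (Ik k) (hIkI k) fun i hi => (hIkc k i hi).trans ?_
      linarith
    · have e : (256 : ℝ≥0∞) * ((18 : ℕ) : ℝ≥0∞) * ENNReal.ofReal K0 =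
          ENNReal.ofReal (256 * 18 * K0) := by
        rw [ENNReal.ofReal_mul (by norm_num), ENNReal.ofReal_mul (by norm_num)]
        norm_num
      rw [e, ← ENNReal.ofReal_mul pt.le, ← ENNReal.ofReal_mul hκ1.le,
        ← ENNReal.ofReal_mul (by positivity)]
      refine ENNReal.ofReal_le_ofReal (le_of_eq ?_)
      rw [ht]; unfold tt
      rw [← hK0, ← hv]
      field_simp
  -- sum over the caps
  have hfib : ∑ a ∈ J, ∑ i ∈ I, om' a i * ∫⁻ x, f i x =
      ∑ k ∈ K, ∑ a ∈ Jk k, ∑ i ∈ I, om' a i * ∫⁻ x, f i x :=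
    (Finset.sum_fiberwise_of_maps_to (fun a ha => Finset.mem_image_of_mem _ ha) _).symm
  have hcard : ∀ i ∈ I, (K.filter fun k => i ∈ Ik k).card ≤ 225 := by
    intro i _
    refine (Finset.card_le_card ?_).trans (card_ltp hs K (C i))
    intro k hk
    rw [Finset.mem_filter] at hk ⊢
    exact ⟨hk.1, hIkc k i hk.2⟩
  have hcap := sum_caps K Ik I (fun k _ => hIkI k) hcard (fun i => ENNReal.ofReal (μ i))
  set m : ℝ := ∑ i ∈ I, μ i with hm
  have hm0 : 0 ≤ m := Finset.sum_nonneg fun i _ => hμ i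
  have hmE : ∑ i ∈ I, ENNReal.ofReal (μ i) = ENNReal.ofReal m := by
    rw [hm, ENNReal.ofReal_sum_of_nonneg fun i _ => hμ i]
  have htot : ENNReal.ofReal ((∑ a ∈ J, ∑ i ∈ I, om a i * μ i) * v) ≤
      ENNReal.ofReal (225 * mult * (4 * (t ^ (-(1/2) : ℝ) * K1) + 16 * κ1 * v) * m) := by
    have e1 : ENNReal.ofReal ((∑ a ∈ J, ∑ i ∈ I, om a i * μ i) * v) =
        ∑ a ∈ J, ∑ i ∈ I, om' a i * ∫⁻ x, f i x := by
      have h3 : ∀ a ∈ J, 0 ≤ ∑ i ∈ I, om a i * μ i := fun a _ =>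
        Finset.sum_nonneg fun i _ => mul_nonneg (hom0 a i) (hμ i)
      rw [ENNReal.ofReal_mul (Finset.sum_nonneg h3), ENNReal.ofReal_sum_of_nonneg h3,
        Finset.sum_mul]
      refine Finset.sum_congr rfl fun a _ => ?_
      rw [ENNReal.ofReal_sum_of_nonneg fun i _ => mul_nonneg (hom0 a i) (hμ i), Finset.sum_mul]
      refine Finset.sum_congr rfl fun i _ => ?_
      rw [hfi, ENNReal.ofReal_mul (hom0 a i)]
      ring
    rw [e1, hfib]
    refine (Finset.sum_le_sum hone).trans ?_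
    have e2 : ∀ k ∈ K, 4 * ENNReal.ofReal mult * (ENNReal.ofReal t ^ (-(1/2) : ℝ) *
        ENNReal.ofReal (K1 * ∑ i ∈ Ik k, μ i)) +
      16 * ENNReal.ofReal mult * (ENNReal.ofReal κ1 / 1) * ∑ i ∈ Ik k, ∫⁻ x, f i x =
      ENNReal.ofReal (mult * (4 * (t ^ (-(1/2) : ℝ) * K1) + 16 * κ1 * v)) *
        ∑ i ∈ Ik k, ENNReal.ofReal (μ i) := by
      intro k _
      have e3 : ∑ i ∈ Ik k, ∫⁻ x, f i x =
          ENNReal.ofReal v * ∑ i ∈ Ik k, ENNReal.ofReal (μ i) := by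
        rw [Finset.sum_congr rfl fun i _ => hfi i, ← Finset.sum_mul, mul_comm]
      have e4 : ENNReal.ofReal t ^ (-(1/2) : ℝ) = ENNReal.ofReal (t ^ (-(1/2) : ℝ)) :=
        ENNReal.ofReal_rpow_of_pos pt
      have pt' : 0 ≤ t ^ (-(1/2) : ℝ) := Real.rpow_nonneg pt.le _
      rw [e3, e4, ENNReal.ofReal_mul hK1, ENNReal.ofReal_sum_of_nonneg fun i _ => hμ i, div_one,
        ENNReal.ofReal_mul hmult0, ENNReal.ofReal_add (by positivity) (by positivity),
        ENNReal.ofReal_mul (by norm_num : (0:ℝ) ≤ 4), ENNReal.ofReal_mul pt',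
        ENNReal.ofReal_mul (by positivity), ENNReal.ofReal_mul (by norm_num : (0:ℝ) ≤ 16)]
      simp only [ENNReal.ofReal_ofNat]
      ring
    rw [Finset.sum_congr rfl e2, ← Finset.mul_sum]
    refine (mul_le_mul' le_rfl hcap).trans (le_of_eq ?_)
    have pt' : 0 ≤ t ^ (-(1/2) : ℝ) := Real.rpow_nonneg pt.le _
    rw [hmE]
    have e5 : 225 * mult * (4 * (t ^ (-(1/2) : ℝ) * K1) + 16 * κ1 * v) * m =
        (mult * (4 * (t ^ (-(1/2) : ℝ) * K1) + 16 * κ1 * v)) * (225 * m) := by ring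
    rw [e5, ENNReal.ofReal_mul (p := mult * (4 * (t ^ (-(1/2) : ℝ) * K1) + 16 * κ1 * v))
      (by positivity), ENNReal.ofReal_mul (p := (225 : ℝ)) (by norm_num)]
    norm_num
  have pt' : 0 ≤ t ^ (-(1/2) : ℝ) := Real.rpow_nonneg pt.le _
  exact (ENNReal.ofReal_le_ofReal_iff (by positivity)).1 htot

end Crest.Agent.R116.Mc330
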