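import Crest.Agent.R116.PDf1_299
import Crest.Agent.R116.Bas1_367
import Crest.Agent.R116.Mc3_330

/-!
# R116 (S0155), misaligned step: crude cover of a set of phase points by members (helper330)

`ccov`: a set `G` of phase points `(C, y)` seen by one conformal function `f` (`|f| ≤ u1 r`,
`|L_f(C)| ≤ u1`) in a box of extents `(Γ, Λ, N)` is covered by a polynomial number of members of
aperture `σ`, thin side `u1`, based at points of `G`.  `enc_cov`: the energy bound which follows.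
-/

set_option autoImplicit false

open MeasureTheory
open scoped ENNReal

namespace Crest.Agent.R116.Mc330

open Crest.Agent.R138.Defs (E2)
open Crest.Agent.R138.Wpk685 (cen caps)
open Crest.Agent.R116.CDef480 (E3 lat pt vel umc enc)
open Crest.Agent.R116.LZg725 (Cf)
open Crest.Agent.R116.WC188 (TT Adm mset scost pbx Sd)

theorem TT_pos' {κ sg R : ℝ} (hsg : 0 < sg) : 0 < TT κ sg R :=
  lt_of_lt_of_le (pow_pos hsg 2) (le_max_left _ _)

/-! ### counting keys -/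

/-- number of mesh points of an interval. -/
theorem card_Icc_floor {a L m : ℝ} (hm : 0 < m) (hL : 0 ≤ L) :
    ((Finset.Icc ⌊(a - L) / m⌋ ⌊(a + L) / m⌋).card : ℝ) ≤ 2 * L / m + 2 := by
  rw [Int.card_Icc]
  have h1 : ⌊(a - L) / m⌋ ≤ ⌊(a + L) / m⌋ :=
    Int.floor_le_floor (div_le_div_of_nonneg_right (by linarith) hm.le)
  have h2 : ((⌊(a + L) / m⌋ + 1 - ⌊(a - L) / m⌋).toNat : ℤ) =
      ⌊(a + L) / m⌋ + 1 - ⌊(a - L) / m⌋ := Int.toNat_of_nonneg (by omega)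
  have h3 : (((⌊(a + L) / m⌋ + 1 - ⌊(a - L) / m⌋).toNat : ℕ) : ℝ) =
      (⌊(a + L) / m⌋ : ℝ) + 1 - ⌊(a - L) / m⌋ := by
    rw [← Int.cast_natCast (R := ℝ), h2]; push_cast; ring
  rw [h3]
  have h4 := Int.floor_le ((a + L) / m)
  have h5 := Int.lt_floor_add_one ((a - L) / m)
  have h6 : (a + L) / m - (a - L) / m = 2 * L / m := by ring
  linarith

theorem floor_mem_Icc {a L m x : ℝ} (hm : 0 < m) (h : |x - a| ≤ L) :
    ⌊x / m⌋ ∈ Finset.Icc ⌊(a - L) / m⌋ ⌊(a + L) / m⌋ := by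
  obtain ⟨h1, h2⟩ := abs_le.1 h
  rw [Finset.mem_Icc]
  exact ⟨Int.floor_le_floor (div_le_div_of_nonneg_right (by linarith) hm.le),
    Int.floor_le_floor (div_le_div_of_nonneg_right (by linarith) hm.le)⟩

/-- box of cells of a ball. -/
noncomputable def cbx (m L : ℝ) (c : E2) : Finset (ℤ × ℤ) :=
  Finset.Icc ⌊(c 0 - L) / m⌋ ⌊(c 0 + L) / m⌋ ×ˢ Finset.Icc ⌊(c 1 - L) / m⌋ ⌊(c 1 + L) / m⌋

theorem cel_mem_cbx {m L : ℝ} {c C : E2} (hm : 0 < m) (h : ‖C - c‖ ≤ L) : cel m C ∈ cbx m L c := by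
  unfold cbx cel
  rw [Finset.mem_product]
  have h0 : |C 0 - c 0| ≤ L := by
    have := PC299.abs_coord_le (C - c) 0
    simp only [PiLp.sub_apply] at this
    exact this.trans h
  have h1 : |C 1 - c 1| ≤ L := by
    have := PC299.abs_coord_le (C - c) 1
    simp only [PiLp.sub_apply] at this
    exact this.trans h
  exact ⟨floor_mem_Icc hm h0, floor_mem_Icc hm h1⟩

theorem card_cbx {m L : ℝ} (c : E2) (hm : 0 < m) (hL : 0 ≤ L) :
    ((cbx m L c).card : ℝ) ≤ (2 * L / m + 2) ^ 2 := by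
  unfold cbx
  rw [Finset.card_product, Nat.cast_mul, sq]
  have h0 := card_Icc_floor (a := c 0) hm hL
  have h1 := card_Icc_floor (a := c 1) hm hL
  exact mul_le_mul h0 h1 (Nat.cast_nonneg _) ((Nat.cast_nonneg _).trans h0)

/-- key of a phase point. -/
noncomputable def key (σ l ν : ℝ) (c0 : E2) (p : E2 × E3) : (ℤ × ℤ) × (ℤ × ℤ) × ℤ :=
  (cel (σ / 2) p.1, cel (l / 2) (lat p.2), ⌊CDef480.nrm c0 p.2 0 / ν⌋)

/-- number of members in the crude cover. -/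
noncomputable def NC (κ r σ l Γ Λ N : ℝ) : ℝ :=
  (4 * Γ / σ + 2) ^ 2 * ((4 * Λ / l + 2) ^ 2 * (4 * N / (TT κ σ r * r) + 2))

theorem NC_nonneg {κ r σ l Γ Λ N : ℝ} (hr : 0 < r) (hσ : 0 < σ) (hN : 0 ≤ N) :
    0 ≤ NC κ r σ l Γ Λ N := by
  unfold NC
  have hT : 0 < TT κ σ r := TT_pos' hσ
  have := div_nonneg (mul_nonneg (by norm_num : (0:ℝ) ≤ 4) hN) (mul_pos hT hr).le
  positivity

/-- **crude cover**. -/
theorem ccov {M κ r σ u1 l Γ Λ N : ℝ} (hM : 1 ≤ M) (hr : 0 < r) (hσ : 0 < σ)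
    (hu : u1 ≤ σ) (hl : 0 < l) (hlσ : l ≤ σ * r) (hΓ : 0 ≤ Γ) (hΛ : 0 ≤ Λ) (hN : 0 ≤ N)
    (hΓl : Γ * l ≤ TT κ σ r * r / 2) {f : Cf E2} (hdisc : f.disc = 1)
    (hny : ∀ s : ℝ, |s| ≤ r → |f.ny s| ≤ M * σ / TT κ σ r)
    (hcmp : ∀ s : ℝ, |s| ≤ r → |f.ny s| ≤ M * (κ * u1 * r)) (c0 : E2) (X0 : E3)
    (G : Set (E2 × E3)) (hG : ∀ p ∈ G, ‖p.1 - c0‖ ≤ Γ ∧ ‖lat p.2 - lat X0‖ ≤ Λ ∧
      |CDef480.nrm c0 p.2 0 - CDef480.nrm c0 X0 0| ≤ N ∧ |f.ev (lat p.2) (p.2 2) 0| ≤ u1 * r ∧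
      |f.ld p.1 (lat p.2) (p.2 2) 0| ≤ u1) :
    ∃ Ks : Finset (E2 × E3), (∀ k ∈ Ks, k ∈ G) ∧ (Ks.card : ℝ) ≤ NC κ r σ l Γ Λ N ∧
      (∀ k ∈ Ks, Adm M κ u1 σ (TT κ σ r) r k.1 k.2 f) ∧
      (∀ p ∈ G, ∃ k ∈ Ks, p.2 ∈ mset σ (TT κ σ r) r u1 k.1 k.2 f p.1) := by
  classical
  have hT : 0 < TT κ σ r := TT_pos' hσ
  set ν : ℝ := TT κ σ r * r / 2 with hν
  have hν0 : 0 < ν := by positivity
  set Bx : Finset ((ℤ × ℤ) × (ℤ × ℤ) × ℤ) := cbx (σ / 2) Γ c0 ×ˢ (cbx (l / 2) Λ (lat X0) ×ˢ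
    Finset.Icc ⌊(CDef480.nrm c0 X0 0 - N) / ν⌋ ⌊(CDef480.nrm c0 X0 0 + N) / ν⌋) with hBx
  have hmem : ∀ p ∈ G, key σ l ν c0 p ∈ Bx := by
    intro p hp
    obtain ⟨h1, h2, h3, -, -⟩ := hG p hp
    rw [hBx, Finset.mem_product, Finset.mem_product]
    exact ⟨cel_mem_cbx (by positivity) h1, cel_mem_cbx (by positivity) h2,
      floor_mem_Icc hν0 h3⟩
  set Kk := Bx.filter (fun k => ∃ p ∈ G, key σ l ν c0 p = k) with hKk
  have hch : ∀ k ∈ Kk, ∃ p ∈ G, key σ l ν c0 p = k := fun k hk => (Finset.mem_filter.1 hk).2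
  choose! rep hrepG hrepk using hch
  refine ⟨Kk.image rep, ?_, ?_, ?_, ?_⟩
  · intro k hk
    obtain ⟨k', hk', rfl⟩ := Finset.mem_image.1 hk
    exact hrepG k' hk'
  · have h1 : ((Kk.image rep).card : ℝ) ≤ (Bx.card : ℝ) := by
      exact_mod_cast Finset.card_image_le.trans (Finset.card_filter_le _ _)
    refine h1.trans ?_
    rw [hBx, Finset.card_product, Finset.card_product, Nat.cast_mul, Nat.cast_mul]
    unfold NC
    have e1 : 2 * Γ / (σ / 2) = 4 * Γ / σ := by field_simp; ring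
    have e2 : 2 * Λ / (l / 2) = 4 * Λ / l := by field_simp; ring
    have e3 : 2 * N / ν = 4 * N / (TT κ σ r * r) := by rw [hν]; field_simp; ring
    have c1 := card_cbx (m := σ / 2) c0 (by positivity) hΓ
    have c2 := card_cbx (m := l / 2) (lat X0) (by positivity) hΛ
    have c3 := card_Icc_floor (a := CDef480.nrm c0 X0 0) hν0 hN
    rw [e1] at c1
    rw [e2] at c2
    rw [e3] at c3
    exact mul_le_mul c1 (mul_le_mul c2 c3 (Nat.cast_nonneg _) (sq_nonneg _))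
      (mul_nonneg (Nat.cast_nonneg _) (Nat.cast_nonneg _)) (sq_nonneg _)
  · intro k hk
    obtain ⟨k', hk', rfl⟩ := Finset.mem_image.1 hk
    obtain ⟨-, -, -, h4, h5⟩ := hG _ (hrepG k' hk')
    refine ⟨hdisc, hny, hcmp, h5.trans (hu.trans ?_), h4.trans ?_⟩
    · nlinarith
    · have : u1 * r ≤ σ * r := mul_le_mul_of_nonneg_right hu hr.le
      have h6 : 0 ≤ σ * r := by positivity
      nlinarith
  · intro p hp
    have hk : key σ l ν c0 p ∈ Kk := Finset.mem_filter.2 ⟨hmem p hp, p, hp, rfl⟩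
    refine ⟨rep (key σ l ν c0 p), Finset.mem_image_of_mem _ hk, ?_⟩
    set k := rep (key σ l ν c0 p) with hkdef
    have hkG : k ∈ G := hrepG _ hk
    have hkk : key σ l ν c0 k = key σ l ν c0 p := hrepk _ hk
    obtain ⟨h1, h2, h3, h4, h5⟩ := hG p hp
    obtain ⟨g1, -, -, -, -⟩ := hG k hkG
    have hk1 : cel (σ / 2) p.1 = cel (σ / 2) k.1 := (congrArg Prod.fst hkk).symm
    have hk2 : cel (l / 2) (lat p.2) = cel (l / 2) (lat k.2) :=
      (congrArg (fun t => t.2.1) hkk).symm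
    have hk3 : ⌊CDef480.nrm c0 p.2 0 / ν⌋ = ⌊CDef480.nrm c0 k.2 0 / ν⌋ :=
      (congrArg (fun t => t.2.2) hkk).symm
    have d1 := cel_close (by positivity) hk1
    have d2 := cel_close (by positivity) hk2
    have d3 := floor_close hν0 hk3
    have e1 : 2 * (σ / 2) = σ := by ring
    have e2 : 2 * (l / 2) = l := by ring
    rw [e1] at d1
    rw [e2] at d2
    refine ⟨d1, d2.trans hlσ, ?_, h4, h5⟩
    have e : CDef480.nrm k.1 p.2 0 - CDef480.nrm k.1 k.2 0 =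
        (CDef480.nrm c0 p.2 0 - CDef480.nrm c0 k.2 0) +
          inner ℝ (k.1 - c0) (lat p.2 - lat k.2) := by
      simp only [Ckm538.nrm_zero, inner_sub_left, inner_sub_right]
      ring
    rw [e]
    refine (abs_add_le _ _).trans ?_
    have h7 : |inner ℝ (k.1 - c0) (lat p.2 - lat k.2)| ≤ Γ * l :=
      (abs_real_inner_le_norm _ _).trans (mul_le_mul g1 d2 (norm_nonneg _) hΓ)
    linarith

/-- **energy of a covered selection**. -/
theorem enc_cov {M κ r σ u1 D q : ℝ} {th : ℝ} {g : E3 → ℂ} {S W : ℤ × ℤ → Set E3} {f : Cf E2}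
    (hth : th = r ^ (-(1/2) : ℝ))
    (dens : ∀ (c : E2) (X0 : E3) (f : Cf E2) (v1 v2 : ℝ), Sd r v1 v2 →
      Adm M κ v1 v2 (TT κ v2 r) r c X0 f →
      enc th g (fun m => S m ∩ pbx κ 1 r v1 v2 c X0 f m) ≤
        ENNReal.ofReal (D * v2 ^ q * scost κ v1 v2 r))
    (hsd : Sd r u1 σ) (Ks : Finset (E2 × E3))
    (ha : ∀ k ∈ Ks, Adm M κ u1 σ (TT κ σ r) r k.1 k.2 f)
    (hc : ∀ m ∈ caps th, ∀ y ∈ S m ∩ W m, ∃ k ∈ Ks,
      y ∈ mset σ (TT κ σ r) r u1 k.1 k.2 f (cen th m)) :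
    enc th g (fun m => S m ∩ W m) ≤
      ENNReal.ofReal (Ks.card * (D * σ ^ q * scost κ u1 σ r)) := by
  refine (Bas367.enc_mono g (T := fun m => ⋃ k ∈ Ks, S m ∩ pbx κ 1 r u1 σ k.1 k.2 f m)
    fun m hm y hy => ?_).trans ((Bas367.enc_biUnion_le th g Ks _).trans ?_)
  · obtain ⟨k, hk, hy'⟩ := hc m hm y hy
    refine Set.mem_biUnion hk ⟨hy.1, ?_⟩
    unfold pbx
    rw [one_mul, one_mul, one_mul, ← hth]
    exact hy'
  · refine (Finset.sum_le_sum fun k hk => dens k.1 k.2 f u1 σ hsd (ha k hk)).trans ?_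
    rw [Finset.sum_const, nsmul_eq_mul, ENNReal.ofReal_mul (Nat.cast_nonneg _),
      ENNReal.ofReal_natCast]

end Crest.Agent.R116.Mc330
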