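import Crest.Agent.R116.Mc4_330
import Crest.Agent.R116.DeG1_295
import Crest.Agent.R116.LZv2_725

/-!
# R116 (S0155), misaligned step: geometry of one child plate in the frame of the parent (helper330)

`ChN` = numerical data of a thin and wide member of length `rj = δ² r`; `Gd` = phase point `(C, x)` of
the parent frame which is seen by the phase point `(C', y)` of the member.  `Ft z f` = conformal
function of the member in the frame of the parent.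
-/

set_option autoImplicit false

open MeasureTheory
open scoped ENNReal

namespace Crest.Agent.R116.Mc330

open Crest.Agent.R138.Defs (E2)
open Crest.Agent.R116.CDef480 (E3 lat pt vel umc enc)
open Crest.Agent.R116.LZg725 (Cf)
open Crest.Agent.R116.WC188 (TT Adm mset scost pbx Sd)
open Crest.Agent.R116.De295 (SF FF)
open Crest.Agent.R116.Gc192 (un crs)

/-! ### transport -/

/-- the conformal function in the frame of the parent. -/
noncomputable def Ft (z : E3 × ℝ) (f : Cf E2) : Cf E2 := Cf.tr (-(lat z.1)) (-(z.1 2)) (-z.2) f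

/-- the position in the frame of the child. -/
noncomputable def vv (z : E3 × ℝ) (C : E2) (x : E3) : E3 := x - z.1 - z.2 • vel C

theorem lat_vv (z : E3 × ℝ) (C : E2) (x : E3) : lat (vv z C x) = lat x - lat z.1 - z.2 • C := by
  unfold vv vel
  rw [CDef480.lat_sub, CDef480.lat_sub, CDef480.lat_smul, CDef480.lat_pt]

theorem two_vv (z : E3 × ℝ) (C : E2) (x : E3) :
    (vv z C x) 2 = x 2 - z.1 2 + z.2 * ‖C‖ ^ 2 / 2 := by
  unfold vv vel
  simp only [PiLp.sub_apply, PiLp.smul_apply, CDef480.pt_two, smul_eq_mul]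
  ring

theorem Ft_disc (z : E3 × ℝ) (f : Cf E2) : (Ft z f).disc = f.disc := by
  unfold Ft; rw [Cf.disc_tr]

theorem Ft_d (z : E3 × ℝ) (f : Cf E2) : (Ft z f).d = f.d := rfl

theorem Ft_ny (z : E3 × ℝ) (f : Cf E2) (s : ℝ) : (Ft z f).ny s = f.ny (s - z.2) := by
  unfold Ft; rw [Cf.ny_tr, sub_eq_add_neg]

theorem Ft_gr (z : E3 × ℝ) (f : Cf E2) (C : E2) (x : E3) :
    (Ft z f).gr C (lat x) 0 = f.gr C (lat (vv z C x)) 0 := by
  rw [lat_vv]
  unfold Ft Cf.gr Cf.ny Cf.tr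
  module

theorem Ft_ld (z : E3 × ℝ) (f : Cf E2) (C : E2) (x : E3) :
    (Ft z f).ld C (lat x) (x 2) 0 = f.ld C (lat (vv z C x)) ((vv z C x) 2) 0 := by
  unfold Ft
  rw [Cf.ld_tr, f.ld_move C (lat (vv z C x)) (lat x + -(lat z.1)) ((vv z C x) 2)
    (x 2 + -(z.1 2)) 0 (0 + -z.2), lat_vv, two_vv]
  have : LZg725.nrm C (lat x + -(lat z.1)) (x 2 + -(z.1 2)) (0 + -z.2) -
      LZg725.nrm C (lat x - lat z.1 - z.2 • C) (x 2 - z.1 2 + z.2 * ‖C‖ ^ 2 / 2) 0 = 0 := by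
    unfold LZg725.nrm
    rw [inner_sub_right, inner_sub_right, inner_add_right, inner_neg_right,
      real_inner_smul_right, real_inner_self_eq_norm_sq]
    ring
  rw [this, mul_zero, sub_zero]

theorem Ft_ev (z : E3 × ℝ) (f : Cf E2) (C : E2) (x : E3) :
    (Ft z f).ev (lat x) (x 2) 0 = f.ev (lat (vv z C x)) ((vv z C x) 2) 0 -
      z.2 * f.ld C (lat (vv z C x)) ((vv z C x) 2) 0 := by
  unfold Ft
  rw [Cf.ev_tr]
  have h := f.ev_along C (lat (vv z C x)) ((vv z C x) 2) 0 (-z.2)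
  have e1 : lat (vv z C x) - (-z.2) • C = lat x + -(lat z.1) := by rw [lat_vv]; module
  have e2 : (vv z C x) 2 + -z.2 * ‖C‖ ^ 2 / 2 = x 2 + -(z.1 2) := by rw [two_vv]; ring
  rw [e1, e2] at h
  rw [h]
  ring

theorem Ft_zero (f : Cf E2) : Ft 0 f = f := by
  have h : lat (0 : E3) = 0 := by ext i; fin_cases i <;> rfl
  unfold Ft Cf.tr
  cases f
  simp [h]

/-! ### numerical data -/

/-- numerical data of a thin and wide member of length `rj = δ² r`. -/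
structure ChN (M κ A s1 s2 T rj θj w δ Y Gm c3 ι η r : ℝ) (f : Cf E2) : Prop where
  S : SF κ s1 s2 T rj
  F : FF M κ s1 s2 T rj f
  M1 : 1 ≤ M
  A1 : 1 ≤ A
  Y1 : 1 ≤ Y
  Gm1 : 1 ≤ Gm
  c31 : 1 ≤ c3
  δ0 : 0 < δ
  δ1 : δ ≤ 1
  θ0 : 0 < θj
  hrj : rj = δ ^ 2 * r
  hw : θj * rj = δ * w
  hθ : θj ^ 2 * rj = 1
  hs1 : s1 ≤ Gm * θj
  s1θ : θj ≤ s1
  hι : θj ≤ ι * s2
  ι0 : 0 < ι
  η0 : 0 < η
  η1 : η ≤ 1 / 64
  sm : 16 * (M ^ 2 * A * Gm * Y * c3 ^ 2) * ι ≤ η * δ ^ 2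

namespace ChN

variable {M κ A s1 s2 T rj θj w δ Y Gm c3 ι η r : ℝ} {f : Cf E2}

/-- the product of the large constants. -/
noncomputable def Kp (M A Y Gm c3 : ℝ) : ℝ := M * A * Y * c3 * Gm

theorem smX (h : ChN M κ A s1 s2 T rj θj w δ Y Gm c3 ι η r f) {X : ℝ}
    (hX : X ≤ M ^ 2 * A * Gm * Y * c3 ^ 2) : X * ι ≤ η * δ ^ 2 / 16 := by
  have h1 := h.sm
  have h2 := mul_le_mul_of_nonneg_right hX h.ι0.le
  linarith

theorem one_le_Kp (h : ChN M κ A s1 s2 T rj θj w δ Y Gm c3 ι η r f) : 1 ≤ Kp M A Y Gm c3 := by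
  unfold Kp
  have h1 := one_le_mul_of_one_le_of_one_le h.M1 h.A1
  have h2 := one_le_mul_of_one_le_of_one_le h1 h.Y1
  have h3 := one_le_mul_of_one_le_of_one_le h2 h.c31
  exact one_le_mul_of_one_le_of_one_le h3 h.Gm1

/-- partial products. -/
theorem prods (h : ChN M κ A s1 s2 T rj θj w δ Y Gm c3 ι η r f) :
    M * A * Gm * ι ≤ η * δ ^ 2 / 16 ∧ M * Y * ι ≤ η * δ ^ 2 / 16 ∧ M * c3 * ι ≤ η * δ ^ 2 / 16 ∧
      M * Kp M A Y Gm c3 * ι ≤ η * δ ^ 2 / 16 ∧ c3 * ι ≤ η * δ ^ 2 / 16 ∧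
      A * Y * ι ≤ η * δ ^ 2 / 16 ∧ Kp M A Y Gm c3 * ι ≤ η * δ ^ 2 / 16 ∧
      M * Gm * ι ≤ η * δ ^ 2 / 16 ∧ M * ι ≤ η * δ ^ 2 / 16 ∧ Y * ι ≤ η * δ ^ 2 / 16 := by
  have hM := h.M1
  have hA := h.A1
  have hY := h.Y1
  have hG := h.Gm1
  have hc := h.c31
  have hM0 : 0 ≤ M := by linarith
  have hA0 : 0 ≤ A := by linarith
  have hY0 : 0 ≤ Y := by linarith
  have hG0 : 0 ≤ Gm := by linarith
  have hc0 : 0 ≤ c3 := by linarith
  -- the largest product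
  have a1 : M * Kp M A Y Gm c3 ≤ M ^ 2 * A * Gm * Y * c3 ^ 2 := by
    unfold Kp
    have : M * (M * A * Y * c3 * Gm) = (M ^ 2 * A * Gm * Y * c3) * 1 := by ring
    rw [this]
    have e : M ^ 2 * A * Gm * Y * c3 ^ 2 = (M ^ 2 * A * Gm * Y * c3) * c3 := by ring
    rw [e]
    exact mul_le_mul_of_nonneg_left hc (by positivity)
  have hK1 := h.one_le_Kp
  have hK0 : 0 ≤ Kp M A Y Gm c3 := by linarith
  have a2 : Kp M A Y Gm c3 ≤ M * Kp M A Y Gm c3 := le_mul_of_one_le_left hK0 hM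
  have b : ∀ {P Q : ℝ}, 0 ≤ P → 1 ≤ Q → P * Q = Kp M A Y Gm c3 → P ≤ Kp M A Y Gm c3 := by
    intro P Q hP hQ e
    rw [← e]; exact le_mul_of_one_le_right hP hQ
  have o2 : ∀ {P Q : ℝ}, 1 ≤ P → 1 ≤ Q → 1 ≤ P * Q :=
    fun hP hQ => one_le_mul_of_one_le_of_one_le hP hQ
  refine ⟨h.smX ((b (Q := Y * c3) (by positivity) (o2 hY hc) (by unfold Kp; ring)).trans
      (a2.trans a1)),
    h.smX ((b (Q := A * c3 * Gm) (by positivity) (o2 (o2 hA hc) hG) (by unfold Kp; ring)).trans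
      (a2.trans a1)),
    h.smX ((b (Q := A * Y * Gm) (by positivity) (o2 (o2 hA hY) hG) (by unfold Kp; ring)).trans
      (a2.trans a1)), h.smX a1,
    h.smX ((b (Q := M * A * Y * Gm) (by positivity) (o2 (o2 (o2 hM hA) hY) hG)
      (by unfold Kp; ring)).trans (a2.trans a1)),
    h.smX ((b (Q := M * c3 * Gm) (by positivity) (o2 (o2 hM hc) hG) (by unfold Kp; ring)).trans
      (a2.trans a1)), h.smX (a2.trans a1),
    h.smX ((b (Q := A * Y * c3) (by positivity) (o2 (o2 hA hY) hc) (by unfold Kp; ring)).trans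
      (a2.trans a1)),
    h.smX ((b (Q := A * Y * c3 * Gm) (by positivity) (o2 (o2 (o2 hA hY) hc) hG)
      (by unfold Kp; ring)).trans (a2.trans a1)),
    h.smX ((b (Q := M * A * c3 * Gm) (by positivity) (o2 (o2 (o2 hM hA) hc) hG)
      (by unfold Kp; ring)).trans (a2.trans a1))⟩

theorem r0 (h : ChN M κ A s1 s2 T rj θj w δ Y Gm c3 ι η r f) : 0 < r := by
  have h1 := h.S.r0
  rw [h.hrj] at h1
  exact (mul_pos_iff_of_pos_left (pow_pos h.δ0 2)).1 h1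

theorem w0 (h : ChN M κ A s1 s2 T rj θj w δ Y Gm c3 ι η r f) : 0 < w := by
  have h1 := mul_pos h.θ0 h.S.r0
  rw [h.hw] at h1
  exact (mul_pos_iff_of_pos_left h.δ0).1 h1

/-- `w = δ θj r`. -/
theorem w_eq (h : ChN M κ A s1 s2 T rj θj w δ Y Gm c3 ι η r f) : w = δ * θj * r := by
  have h1 := h.hw
  rw [h.hrj] at h1
  have h2 : δ * (δ * θj * r) = δ * w := by rw [← h1]; ring
  exact (mul_left_cancel₀ h.δ0.ne' h2).symm

theorem w_le (h : ChN M κ A s1 s2 T rj θj w δ Y Gm c3 ι η r f) : w ≤ θj * r := by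
  rw [h.w_eq, mul_assoc]
  exact mul_le_of_le_one_left (mul_nonneg h.θ0.le h.r0.le) h.δ1

/-- `s1 rj ≤ Gm w`. -/
theorem s1rj (h : ChN M κ A s1 s2 T rj θj w δ Y Gm c3 ι η r f) : s1 * rj ≤ Gm * w := by
  have h1 : s1 * rj ≤ Gm * θj * rj := mul_le_mul_of_nonneg_right h.hs1 h.S.r0.le
  have h2 : Gm * θj * rj = Gm * (δ * w) := by rw [← h.hw]; ring
  rw [h2] at h1
  refine h1.trans (mul_le_mul_of_nonneg_left ?_ (by have := h.Gm1; linarith))
  exact mul_le_of_le_one_left h.w0.le h.δ1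

/-- `|d| rj s2 ≤ M / 2`. -/
theorem d_s2 (h : ChN M κ A s1 s2 T rj θj w δ Y Gm c3 ι η r f) : |f.d| * rj * s2 ≤ M / 2 := by
  have h1 := h.F.d_le h.S
  have hs2 := h.S.s20
  have hrj := h.S.r0
  have h2 : |f.d| * (s2 ^ 2 * rj) ≤ M * s2 / 2 :=
    (mul_le_mul_of_nonneg_left (mul_le_mul_of_nonneg_right h.S.T1 hrj.le) (abs_nonneg _)).trans h1
  have h3 : (|f.d| * rj * s2) * s2 ≤ (M / 2) * s2 := by
    calc (|f.d| * rj * s2) * s2 = |f.d| * (s2 ^ 2 * rj) := by ring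
      _ ≤ M * s2 / 2 := h2
      _ = (M / 2) * s2 := by ring
  exact le_of_mul_le_mul_right h3 hs2

/-- `|d| rj θj ≤ M ι / 2`. -/
theorem d_θ (h : ChN M κ A s1 s2 T rj θj w δ Y Gm c3 ι η r f) : |f.d| * rj * θj ≤ M * ι / 2 := by
  have h1 := h.d_s2
  have h2 : |f.d| * rj * θj ≤ |f.d| * rj * (ι * s2) :=
    mul_le_mul_of_nonneg_left h.hι (mul_nonneg (abs_nonneg _) h.S.r0.le)
  have h3 := mul_le_mul_of_nonneg_left h1 h.ι0.le
  calc _ ≤ _ := h2
    _ = ι * (|f.d| * rj * s2) := by ring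
    _ ≤ ι * (M / 2) := h3
    _ = M * ι / 2 := by ring

/-- `|d| w ≤ M ι / (2 δ)`. -/
theorem d_w (h : ChN M κ A s1 s2 T rj θj w δ Y Gm c3 ι η r f) : |f.d| * w * δ ≤ M * ι / 2 := by
  have h1 := h.d_θ
  calc |f.d| * w * δ = |f.d| * (δ * w) := by ring
    _ = |f.d| * rj * θj := by rw [← h.hw]; ring
    _ ≤ _ := h1

/-- `|d| Y w ≤ η δ / 32`. -/
theorem d_Yw (h : ChN M κ A s1 s2 T rj θj w δ Y Gm c3 ι η r f) :
    |f.d| * (Y * w) ≤ η * δ / 32 := by
  have h1 := h.d_w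
  have hY := h.Y1
  have h2 := h.prods.2.1
  have h3 : (|f.d| * (Y * w)) * δ ≤ (η * δ / 32) * δ := by
    calc (|f.d| * (Y * w)) * δ = Y * (|f.d| * w * δ) := by ring
      _ ≤ Y * (M * ι / 2) := mul_le_mul_of_nonneg_left h1 (by linarith)
      _ = (M * Y * ι) / 2 := by ring
      _ ≤ (η * δ ^ 2 / 16) / 2 := by linarith
      _ = (η * δ / 32) * δ := by ring
  exact le_of_mul_le_mul_right h3 h.δ0

theorem d_w' (h : ChN M κ A s1 s2 T rj θj w δ Y Gm c3 ι η r f) : |f.d| * w ≤ η * δ / 32 := by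
  refine le_trans ?_ h.d_Yw
  have h1 : |f.d| * (Y * w) = (|f.d| * w) * Y := by ring
  rw [h1]
  exact le_mul_of_one_le_right (mul_nonneg (abs_nonneg _) h.w0.le) h.Y1

/-- `|ny 0| θj ≤ M ι`. -/
theorem ny_θ (h : ChN M κ A s1 s2 T rj θj w δ Y Gm c3 ι η r f) : |f.ny 0| * θj ≤ M * ι := by
  have h1 := h.F.ny_le h.S
  have h2 : |f.ny 0| * θj ≤ |f.ny 0| * (ι * s2) := mul_le_mul_of_nonneg_left h.hι (abs_nonneg _)
  have h3 := mul_le_mul_of_nonneg_left h1 h.ι0.le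
  linarith

/-- `|ny 0| κ⁻¹ ≤ M s1 rj`. -/
theorem ny_κ (h : ChN M κ A s1 s2 T rj θj w δ Y Gm c3 ι η r f) :
    |f.ny 0| * κ⁻¹ ≤ M * (s1 * rj) := by
  have h1 := h.F.cmp 0 (by rw [abs_zero]; exact h.S.r0.le)
  have hk := h.S.k0
  calc |f.ny 0| * κ⁻¹ ≤ M * (κ * s1 * rj) * κ⁻¹ :=
        mul_le_mul_of_nonneg_right h1 (inv_nonneg.2 hk.le)
    _ = M * (s1 * rj) := by field_simp

/-- `|d| κ⁻¹ ≤ M s1 / 2`. -/
theorem d_κ (h : ChN M κ A s1 s2 T rj θj w δ Y Gm c3 ι η r f) : |f.d| * κ⁻¹ ≤ M * s1 / 2 := by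
  have h1 := h.F.d_le' h.S
  have hk := h.S.k0
  calc |f.d| * κ⁻¹ ≤ M * (κ * s1) / 2 * κ⁻¹ :=
        mul_le_mul_of_nonneg_right h1 (inv_nonneg.2 hk.le)
    _ = M * s1 / 2 := by field_simp

end ChN

/-- the phase point `(C, x)` of the parent frame is seen by the phase point `(C', y)` of the
member. -/
structure Gd (κ A s1 s2 T rj θj w Y c3 r : ℝ) (c : E2) (X0 : E3) (f : Cf E2) (z : E3 × ℝ)
    (C' : E2) (y : E3) (C : E2) (x : E3) : Prop where
  yC : ‖C' - c‖ ≤ A * s2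
  yl : ‖lat y - lat X0‖ ≤ A * s2 * rj
  yn : |CDef480.nrm c y 0 - CDef480.nrm c X0 0| ≤ A * T * rj
  yev : |f.ev (lat y) (y 2) 0| ≤ A * s1 * rj
  yld : |f.ld C' (lat y) (y 2) 0| ≤ A * s1
  zr : |z.2| ≤ r
  CC : ‖C - C'‖ ≤ c3 * θj
  vl : ‖lat (vv z C x) - lat y‖ ≤ Y * w
  vn : |CDef480.nrm C (vv z C x) 0 - CDef480.nrm C y 0| ≤ Y * κ⁻¹

section gd

variable {M κ A s1 s2 T rj θj w δ Y Gm c3 ι η r : ℝ} {f : Cf E2} {c : E2} {X0 : E3} {z : E3 × ℝ}
  {C' C : E2} {y x : E3}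

open ChN

/-- gradient at the phase point of the member. -/
theorem gy_sq (h : ChN M κ A s1 s2 T rj θj w δ Y Gm c3 ι η r f)
    (g : Gd κ A s1 s2 T rj θj w Y c3 r c X0 f z C' y C x) :
    |‖f.gr C' (lat y) 0‖ ^ 2 - 1| ≤ η * δ ^ 2 / 4 := by
  refine gr_of_small f h.F.disc (y := y 2) ?_
  have hA0 : 0 ≤ A := by have := h.A1; linarith
  have hG0 : 0 ≤ Gm := by have := h.Gm1; linarith
  have h1 := h.ny_θ
  have h2 := h.d_θ
  have h3 := h.prods.1
  have hld : |f.ld C' (lat y) (y 2) 0| ≤ A * (Gm * θj) :=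
    g.yld.trans (mul_le_mul_of_nonneg_left h.hs1 hA0)
  have hev : |f.ev (lat y) (y 2) 0| ≤ A * (Gm * θj) * rj :=
    g.yev.trans (mul_le_mul_of_nonneg_right (mul_le_mul_of_nonneg_left h.hs1 hA0) h.S.r0.le)
  have k1 : |2 * f.ny 0 * f.ld C' (lat y) (y 2) 0| ≤ 2 * (M * A * Gm * ι) := by
    rw [abs_mul, abs_mul, abs_two]
    calc 2 * |f.ny 0| * |f.ld C' (lat y) (y 2) 0| ≤ 2 * |f.ny 0| * (A * (Gm * θj)) :=
          mul_le_mul_of_nonneg_left hld (by positivity)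
      _ = 2 * (A * Gm) * (|f.ny 0| * θj) := by ring
      _ ≤ 2 * (A * Gm) * (M * ι) := mul_le_mul_of_nonneg_left h1 (by positivity)
      _ = _ := by ring
  have k2 : |4 * f.d * f.ev (lat y) (y 2) 0| ≤ 2 * (M * A * Gm * ι) := by
    rw [abs_mul, abs_mul, abs_of_pos (by norm_num : (0:ℝ) < 4)]
    calc 4 * |f.d| * |f.ev (lat y) (y 2) 0| ≤ 4 * |f.d| * (A * (Gm * θj) * rj) :=
          mul_le_mul_of_nonneg_left hev (by positivity)
      _ = 4 * (A * Gm) * (|f.d| * rj * θj) := by ring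
      _ ≤ 4 * (A * Gm) * (M * ι / 2) := mul_le_mul_of_nonneg_left h2 (by positivity)
      _ = _ := by ring
  linarith

theorem sq_small {t e : ℝ} (ht : 0 ≤ t) (he : e ≤ 1 / 4) (h : |t ^ 2 - 1| ≤ e) :
    3 / 4 ≤ t ∧ t ≤ 5 / 4 := by
  obtain ⟨h1, h2⟩ := abs_le.1 h
  constructor
  · by_contra hn
    push Not at hn
    nlinarith
  · by_contra hn
    push Not at hn
    nlinarith

theorem ηδ_le (h : ChN M κ A s1 s2 T rj θj w δ Y Gm c3 ι η r f) :
    η * δ ^ 2 ≤ 1 / 64 ∧ η * δ ≤ 1 / 64 ∧ η * δ ^ 2 ≤ η * δ := by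
  have h1 := h.δ0
  have h2 := h.δ1
  have h3 := h.η0
  have h4 := h.η1
  have h5 : δ ^ 2 ≤ 1 := pow_le_one₀ h1.le h2
  have h6 : δ ^ 2 ≤ δ := by nlinarith
  refine ⟨?_, ?_, mul_le_mul_of_nonneg_left h6 h3.le⟩
  · calc η * δ ^ 2 ≤ η * 1 := mul_le_mul_of_nonneg_left h5 h3.le
      _ ≤ 1 / 64 := by linarith
  · calc η * δ ≤ η * 1 := mul_le_mul_of_nonneg_left h2 h3.le
      _ ≤ 1 / 64 := by linarith

theorem gy_bd (h : ChN M κ A s1 s2 T rj θj w δ Y Gm c3 ι η r f)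
    (g : Gd κ A s1 s2 T rj θj w Y c3 r c X0 f z C' y C x) :
    3 / 4 ≤ ‖f.gr C' (lat y) 0‖ ∧ ‖f.gr C' (lat y) 0‖ ≤ 5 / 4 := by
  refine sq_small (norm_nonneg _) ?_ (gy_sq h g)
  have := (ηδ_le h).1
  linarith

/-- `|ny 0| ‖C - C'‖ ≤ η δ² / 16`. -/
theorem ny_CC (h : ChN M κ A s1 s2 T rj θj w δ Y Gm c3 ι η r f)
    (g : Gd κ A s1 s2 T rj θj w Y c3 r c X0 f z C' y C x) :
    |f.ny 0| * ‖C - C'‖ ≤ η * δ ^ 2 / 16 := by
  have h1 := h.ny_θ
  have hc : 0 ≤ c3 := by have := h.c31; linarith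
  calc |f.ny 0| * ‖C - C'‖ ≤ |f.ny 0| * (c3 * θj) :=
        mul_le_mul_of_nonneg_left g.CC (abs_nonneg _)
    _ = c3 * (|f.ny 0| * θj) := by ring
    _ ≤ c3 * (M * ι) := mul_le_mul_of_nonneg_left h1 hc
    _ = M * c3 * ι := by ring
    _ ≤ _ := h.prods.2.2.1

/-- gradient at the phase point of the parent, at the base time of the child. -/
theorem gv_sub (h : ChN M κ A s1 s2 T rj θj w δ Y Gm c3 ι η r f)
    (g : Gd κ A s1 s2 T rj θj w Y c3 r c X0 f z C' y C x) :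
    ‖f.gr C (lat (vv z C x)) 0 - f.gr C' (lat y) 0‖ ≤ η * δ / 8 := by
  have e : f.gr C (lat (vv z C x)) 0 - f.gr C' (lat y) 0 =
      (2 * f.d) • (lat (vv z C x) - lat y) - (f.ny 0) • (C - C') := by
    rw [f.gr_move C (lat y) (lat (vv z C x)) 0 0, f.gr_dir C' C (lat y) 0]
    rw [sub_self, zero_smul, add_zero]
    abel
  rw [e]
  refine (norm_sub_le _ _).trans ?_
  rw [norm_smul, norm_smul, Real.norm_eq_abs, Real.norm_eq_abs, abs_mul, abs_two]
  have h1 := ny_CC h g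
  have h2 : 2 * |f.d| * ‖lat (vv z C x) - lat y‖ ≤ 2 * (|f.d| * (Y * w)) := by
    rw [mul_assoc]
    exact mul_le_mul_of_nonneg_left (mul_le_mul_of_nonneg_left g.vl (abs_nonneg _)) (by norm_num)
  have h3 := h.d_Yw
  have h4 := (ηδ_le h).2.2
  linarith

theorem gv_bd (h : ChN M κ A s1 s2 T rj θj w δ Y Gm c3 ι η r f)
    (g : Gd κ A s1 s2 T rj θj w Y c3 r c X0 f z C' y C x) :
    ‖f.gr C (lat (vv z C x)) 0‖ ≤ 2 := by
  have h1 := gv_sub h g
  have h2 := (gy_bd h g).2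
  have h3 := (ηδ_le h).2.1
  have h4 : f.gr C (lat (vv z C x)) 0 = (f.gr C (lat (vv z C x)) 0 - f.gr C' (lat y) 0) +
    f.gr C' (lat y) 0 := by abel
  rw [h4]
  refine (norm_add_le _ _).trans ?_
  linarith

/-- ray derivative at the phase point of the parent. -/
theorem ldv_le (h : ChN M κ A s1 s2 T rj θj w δ Y Gm c3 ι η r f)
    (g : Gd κ A s1 s2 T rj θj w Y c3 r c X0 f z C' y C x) :
    |f.ld C (lat (vv z C x)) ((vv z C x) 2) 0| ≤ 5 * Kp M A Y Gm c3 * θj := by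
  have e1 := f.ld_move C (lat y) (lat (vv z C x)) (y 2) ((vv z C x) 2) 0 0
  have e2 := f.ld_dir C' C (lat y) (y 2) 0
  rw [e1, e2]
  have hM := h.M1
  have hA := h.A1
  have hY := h.Y1
  have hG := h.Gm1
  have hc := h.c31
  have hθ := h.θ0
  have k1 : |f.ld C' (lat y) (y 2) 0| ≤ A * (Gm * θj) :=
    g.yld.trans (mul_le_mul_of_nonneg_left h.hs1 (by linarith))
  have k2 : |inner ℝ (f.gr C' (lat y) 0) (C - C')| ≤ 5 / 4 * (c3 * θj) :=
    (abs_real_inner_le_norm _ _).trans (mul_le_mul (gy_bd h g).2 g.CC (norm_nonneg _) (by norm_num))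
  have k3 : |f.ny 0 * ‖C - C'‖ ^ 2 / 2| ≤ c3 * θj := by
    rw [abs_div, abs_mul, abs_two, abs_of_nonneg (sq_nonneg ‖C - C'‖)]
    have a1 := ny_CC h g
    have a2 := (ηδ_le h).1
    have a3 : |f.ny 0| * ‖C - C'‖ ^ 2 = (|f.ny 0| * ‖C - C'‖) * ‖C - C'‖ := by ring
    rw [a3]
    have a4 : (|f.ny 0| * ‖C - C'‖) * ‖C - C'‖ ≤ 1 * (c3 * θj) :=
      mul_le_mul (by linarith) g.CC (norm_nonneg _) (by norm_num)
    have a5 : 0 ≤ c3 * θj := by positivity
    linarith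
  have k4 : |2 * f.d * (LZg725.nrm C (lat (vv z C x)) ((vv z C x) 2) 0 -
      LZg725.nrm C (lat y) (y 2) 0)| ≤ M * Y * (Gm * θj) := by
    rw [abs_mul, abs_mul, abs_two]
    have b1 : |LZg725.nrm C (lat (vv z C x)) ((vv z C x) 2) 0 -
      LZg725.nrm C (lat y) (y 2) 0| ≤ Y * κ⁻¹ := g.vn
    have b2 := h.d_κ
    calc 2 * |f.d| * _ ≤ 2 * |f.d| * (Y * κ⁻¹) := mul_le_mul_of_nonneg_left b1 (by positivity)
      _ = 2 * Y * (|f.d| * κ⁻¹) := by ring
      _ ≤ 2 * Y * (M * s1 / 2) := mul_le_mul_of_nonneg_left b2 (by positivity)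
      _ = M * Y * s1 := by ring
      _ ≤ M * Y * (Gm * θj) := mul_le_mul_of_nonneg_left h.hs1 (by positivity)
  have t1 := abs_sub (f.ld C' (lat y) (y 2) 0 - inner ℝ (f.gr C' (lat y) 0) (C - C') +
    f.ny 0 * ‖C - C'‖ ^ 2 / 2) (2 * f.d * (LZg725.nrm C (lat (vv z C x)) ((vv z C x) 2) 0 -
      LZg725.nrm C (lat y) (y 2) 0))
  have t2 := abs_add_le (f.ld C' (lat y) (y 2) 0 - inner ℝ (f.gr C' (lat y) 0) (C - C'))
    (f.ny 0 * ‖C - C'‖ ^ 2 / 2)
  have t3 := abs_sub (f.ld C' (lat y) (y 2) 0) (inner ℝ (f.gr C' (lat y) 0) (C - C'))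
  refine t1.trans ?_
  have f1 : A * (Gm * θj) ≤ Kp M A Y Gm c3 * θj := by
    unfold Kp
    have : M * A * Y * c3 * Gm * θj = (A * (Gm * θj)) * (M * Y * c3) := by ring
    rw [this]
    exact le_mul_of_one_le_right (by positivity)
      (one_le_mul_of_one_le_of_one_le (one_le_mul_of_one_le_of_one_le hM hY) hc)
  have f2 : c3 * θj ≤ Kp M A Y Gm c3 * θj := by
    unfold Kp
    have : M * A * Y * c3 * Gm * θj = (c3 * θj) * (M * A * Y * Gm) := by ring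
    rw [this]
    exact le_mul_of_one_le_right (by positivity) (one_le_mul_of_one_le_of_one_le
      (one_le_mul_of_one_le_of_one_le (one_le_mul_of_one_le_of_one_le hM hA) hY) hG)
  have f3 : M * Y * (Gm * θj) ≤ Kp M A Y Gm c3 * θj := by
    unfold Kp
    have : M * A * Y * c3 * Gm * θj = (M * Y * (Gm * θj)) * (A * c3) := by ring
    rw [this]
    exact le_mul_of_one_le_right (by positivity) (one_le_mul_of_one_le_of_one_le hA hc)
  have f0 : 0 ≤ c3 * θj := by positivity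
  linarith

/-- value at the phase point of the parent. -/
theorem evv_le (h : ChN M κ A s1 s2 T rj θj w δ Y Gm c3 ι η r f)
    (g : Gd κ A s1 s2 T rj θj w Y c3 r c X0 f z C' y C x) :
    |f.ev (lat (vv z C x)) ((vv z C x) 2) 0| ≤ 5 * Kp M A Y Gm c3 * w := by
  have e1 := f.ev_expand C (lat y) (y 2) 0 (lat (vv z C x)) ((vv z C x) 2) 0
  simp only [sub_self, mul_zero, zero_smul, add_zero, zero_mul, sub_zero] at e1
  rw [e1]
  have hM := h.M1
  have hA := h.A1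
  have hY := h.Y1
  have hG := h.Gm1
  have hc := h.c31
  have hw := h.w0
  have k1 : |f.ev (lat y) (y 2) 0| ≤ A * (Gm * w) := by
    refine g.yev.trans ?_
    rw [mul_assoc]
    exact mul_le_mul_of_nonneg_left h.s1rj (by linarith)
  have hgr : ‖f.gr C (lat y) 0‖ ≤ 2 := by
    rw [f.gr_dir C' C (lat y) 0]
    refine (norm_sub_le _ _).trans ?_
    rw [norm_smul, Real.norm_eq_abs]
    have a1 := ny_CC h g
    have a2 := (ηδ_le h).1
    have a3 := (gy_bd h g).2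
    linarith
  have k2 : |inner ℝ (f.gr C (lat y) 0) (lat (vv z C x) - lat y)| ≤ 2 * (Y * w) :=
    (abs_real_inner_le_norm _ _).trans (mul_le_mul hgr g.vl (norm_nonneg _) (by norm_num))
  have k3 : |f.ny 0 * (LZg725.nrm C (lat (vv z C x)) ((vv z C x) 2) 0 -
      LZg725.nrm C (lat y) (y 2) 0)| ≤ M * Y * (Gm * w) := by
    rw [abs_mul]
    have b1 : |LZg725.nrm C (lat (vv z C x)) ((vv z C x) 2) 0 -
      LZg725.nrm C (lat y) (y 2) 0| ≤ Y * κ⁻¹ := g.vn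
    calc |f.ny 0| * _ ≤ |f.ny 0| * (Y * κ⁻¹) := mul_le_mul_of_nonneg_left b1 (abs_nonneg _)
      _ = Y * (|f.ny 0| * κ⁻¹) := by ring
      _ ≤ Y * (M * (s1 * rj)) := mul_le_mul_of_nonneg_left h.ny_κ (by linarith)
      _ = M * Y * (s1 * rj) := by ring
      _ ≤ M * Y * (Gm * w) := mul_le_mul_of_nonneg_left h.s1rj (by positivity)
  have k4 : |f.d * ‖lat (vv z C x) - lat y‖ ^ 2| ≤ Y * w := by
    rw [abs_mul, abs_of_nonneg (sq_nonneg ‖lat (vv z C x) - lat y‖)]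
    have hYw : 0 ≤ Y * w := by positivity
    calc |f.d| * ‖lat (vv z C x) - lat y‖ ^ 2 ≤ |f.d| * (Y * w) ^ 2 :=
          mul_le_mul_of_nonneg_left (pow_le_pow_left₀ (norm_nonneg _) g.vl 2) (abs_nonneg _)
      _ = (|f.d| * (Y * w)) * (Y * w) := by ring
      _ ≤ 1 * (Y * w) := mul_le_mul_of_nonneg_right (h.d_Yw.trans
          (by have := (ηδ_le h).2.1; linarith)) hYw
      _ = Y * w := one_mul _
  have t1 := abs_add_le (f.ev (lat y) (y 2) 0 + inner ℝ (f.gr C (lat y) 0)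
    (lat (vv z C x) - lat y) + f.ny 0 * (LZg725.nrm C (lat (vv z C x)) ((vv z C x) 2) 0 -
      LZg725.nrm C (lat y) (y 2) 0)) (f.d * ‖lat (vv z C x) - lat y‖ ^ 2)
  have t2 := abs_add_le (f.ev (lat y) (y 2) 0 + inner ℝ (f.gr C (lat y) 0)
    (lat (vv z C x) - lat y)) (f.ny 0 * (LZg725.nrm C (lat (vv z C x)) ((vv z C x) 2) 0 -
      LZg725.nrm C (lat y) (y 2) 0))
  have t3 := abs_add_le (f.ev (lat y) (y 2) 0) (inner ℝ (f.gr C (lat y) 0)
    (lat (vv z C x) - lat y))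
  have f1 : A * (Gm * w) ≤ Kp M A Y Gm c3 * w := by
    unfold Kp
    have : M * A * Y * c3 * Gm * w = (A * (Gm * w)) * (M * Y * c3) := by ring
    rw [this]
    exact le_mul_of_one_le_right (by positivity)
      (one_le_mul_of_one_le_of_one_le (one_le_mul_of_one_le_of_one_le hM hY) hc)
  have f2 : Y * w ≤ Kp M A Y Gm c3 * w := by
    unfold Kp
    have : M * A * Y * c3 * Gm * w = (Y * w) * (M * A * c3 * Gm) := by ring
    rw [this]
    exact le_mul_of_one_le_right (by positivity) (one_le_mul_of_one_le_of_one_le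
      (one_le_mul_of_one_le_of_one_le (one_le_mul_of_one_le_of_one_le hM hA) hc) hG)
  have f3 : M * Y * (Gm * w) ≤ Kp M A Y Gm c3 * w := by
    unfold Kp
    have : M * A * Y * c3 * Gm * w = (M * Y * (Gm * w)) * (A * c3) := by ring
    rw [this]
    exact le_mul_of_one_le_right (by positivity) (one_le_mul_of_one_le_of_one_le hA hc)
  linarith

/-- **ray derivative in the frame of the parent**. -/
theorem Fld_le (h : ChN M κ A s1 s2 T rj θj w δ Y Gm c3 ι η r f)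
    (g : Gd κ A s1 s2 T rj θj w Y c3 r c X0 f z C' y C x) :
    |(Ft z f).ld C (lat x) (x 2) 0| ≤ 5 * Kp M A Y Gm c3 * θj := by
  rw [Ft_ld]; exact ldv_le h g

/-- **value in the frame of the parent**. -/
theorem Fev_le (h : ChN M κ A s1 s2 T rj θj w δ Y Gm c3 ι η r f)
    (g : Gd κ A s1 s2 T rj θj w Y c3 r c X0 f z C' y C x) :
    |(Ft z f).ev (lat x) (x 2) 0| ≤ 10 * Kp M A Y Gm c3 * θj * r := by
  rw [Ft_ev]
  have hK := h.one_le_Kp
  refine (abs_sub _ _).trans ?_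
  rw [abs_mul]
  have h1 := evv_le h g
  have h2 := mul_le_mul g.zr (ldv_le h g) (abs_nonneg _) h.r0.le
  have h3 : 5 * Kp M A Y Gm c3 * w ≤ 5 * Kp M A Y Gm c3 * (θj * r) :=
    mul_le_mul_of_nonneg_left h.w_le (by linarith)
  linarith

/-- **gradient in the frame of the parent**. -/
theorem Fgr_sub (h : ChN M κ A s1 s2 T rj θj w δ Y Gm c3 ι η r f)
    (g : Gd κ A s1 s2 T rj θj w Y c3 r c X0 f z C' y C x) :
    ‖(Ft z f).gr C (lat x) 0 - f.gr C' (lat y) 0‖ ≤ η * δ / 8 := by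
  rw [Ft_gr]; exact gv_sub h g

theorem Fgr_le (h : ChN M κ A s1 s2 T rj θj w δ Y Gm c3 ι η r f)
    (g : Gd κ A s1 s2 T rj θj w Y c3 r c X0 f z C' y C x) :
    ‖(Ft z f).gr C (lat x) 0‖ ≤ 2 := by
  rw [Ft_gr]; exact gv_bd h g

/-- **null component of the gradient in the frame of the parent**. -/
theorem Fny_le (h : ChN M κ A s1 s2 T rj θj w δ Y Gm c3 ι η r f) (hz : |z.2| ≤ r) {s : ℝ}
    (hs : |s| ≤ r) : |(Ft z f).ny s| * (T * δ ^ 2) ≤ 3 * M * s2 ∧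
      |(Ft z f).ny s| ≤ 3 * M * (κ * s1 * r) := by
  rw [Ft_ny]
  have hr := h.r0
  have hT := h.S.T0
  have hδ := h.δ0
  have hk := h.S.k0
  have hs1 := h.S.s10
  have hM : 0 ≤ M := by have := h.M1; linarith
  have e : f.ny (s - z.2) = f.ny 0 - 2 * f.d * (s - z.2) := by unfold Cf.ny; ring
  have h1 : |s - z.2| ≤ 2 * r := (abs_sub _ _).trans (by linarith)
  have h2 : |f.ny (s - z.2)| ≤ |f.ny 0| + 4 * (|f.d| * r) := by
    rw [e]
    refine (abs_sub _ _).trans ?_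
    rw [abs_mul, abs_mul, abs_two]
    have := mul_le_mul_of_nonneg_left h1 (by positivity : (0:ℝ) ≤ 2 * |f.d|)
    linarith
  have n1 := h.F.ny 0 (by rw [abs_zero]; exact h.S.r0.le)
  have n2 := h.F.cmp 0 (by rw [abs_zero]; exact h.S.r0.le)
  have d1 := h.F.d_le h.S
  have d2 := h.F.d_le' h.S
  rw [h.hrj] at d1 n2
  constructor
  · have hTδ : 0 < T * δ ^ 2 := by positivity
    have n3 : |f.ny 0| * T ≤ M * s2 := by
      calc |f.ny 0| * T ≤ M * s2 / T * T := mul_le_mul_of_nonneg_right n1 hT.le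
        _ = M * s2 := by field_simp
    have n4 : |f.ny 0| * (T * δ ^ 2) ≤ M * s2 := by
      have a : |f.ny 0| * (T * δ ^ 2) = (|f.ny 0| * T) * δ ^ 2 := by ring
      rw [a]
      have b : δ ^ 2 ≤ 1 := pow_le_one₀ hδ.le h.δ1
      exact (mul_le_of_le_one_right (by positivity) b).trans n3
    calc |f.ny (s - z.2)| * (T * δ ^ 2) ≤ (|f.ny 0| + 4 * (|f.d| * r)) * (T * δ ^ 2) :=
          mul_le_mul_of_nonneg_right h2 hTδ.le
      _ = |f.ny 0| * (T * δ ^ 2) + 4 * (|f.d| * (T * (δ ^ 2 * r))) := by ring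
      _ ≤ 3 * M * s2 := by linarith
  · have b : δ ^ 2 ≤ 1 := pow_le_one₀ hδ.le h.δ1
    have n5 : M * (κ * s1 * (δ ^ 2 * r)) ≤ M * (κ * s1 * r) := by
      have : κ * s1 * (δ ^ 2 * r) ≤ κ * s1 * r :=
        mul_le_mul_of_nonneg_left (mul_le_of_le_one_left hr.le b) (by positivity)
      exact mul_le_mul_of_nonneg_left this hM
    have d3 := mul_le_mul_of_nonneg_right d2 hr.le
    calc |f.ny (s - z.2)| ≤ |f.ny 0| + 4 * (|f.d| * r) := h2
      _ ≤ M * (κ * s1 * r) + 4 * (M * (κ * s1) / 2 * r) := by linarith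
      _ = 3 * M * (κ * s1 * r) := by ring

/-! ### extents -/

/-- centre of the member in the frame of the parent. -/
noncomputable def Xt (z : E3 × ℝ) (c : E2) (X0 : E3) : E3 := X0 + z.1 + z.2 • vel c

theorem ext_C (h : ChN M κ A s1 s2 T rj θj w δ Y Gm c3 ι η r f)
    (g : Gd κ A s1 s2 T rj θj w Y c3 r c X0 f z C' y C x) : ‖C - c‖ ≤ 2 * A * s2 := by
  have e : C - c = (C - C') + (C' - c) := by abel
  rw [e]
  refine (norm_add_le _ _).trans ?_
  have hs2 := h.S.s20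
  have h1 : c3 * θj ≤ A * s2 := by
    have a1 := h.prods.2.2.2.2.1
    have a2 := (ηδ_le h).1
    have hc := h.c31
    calc c3 * θj ≤ c3 * (ι * s2) := mul_le_mul_of_nonneg_left h.hι (by linarith)
      _ = (c3 * ι) * s2 := by ring
      _ ≤ A * s2 := mul_le_mul_of_nonneg_right (by have := h.A1; linarith) hs2.le
  have h2 := g.CC
  have h3 := g.yC
  linarith

/-- `w ≤ ι s2 r`. -/
theorem w_s2 (h : ChN M κ A s1 s2 T rj θj w δ Y Gm c3 ι η r f) : w ≤ ι * (s2 * r) := by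
  refine h.w_le.trans ?_
  have := mul_le_mul_of_nonneg_right h.hι h.r0.le
  linarith

theorem rj_le (h : ChN M κ A s1 s2 T rj θj w δ Y Gm c3 ι η r f) : rj ≤ r := by
  rw [h.hrj]
  exact mul_le_of_le_one_left h.r0.le (pow_le_one₀ h.δ0.le h.δ1)

theorem ext_l (h : ChN M κ A s1 s2 T rj θj w δ Y Gm c3 ι η r f)
    (g : Gd κ A s1 s2 T rj θj w Y c3 r c X0 f z C' y C x) :
    ‖lat x - lat (Xt z c X0)‖ ≤ 4 * A * s2 * r := by
  have e : lat x - lat (Xt z c X0) =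
      (lat (vv z C x) - lat y) + (lat y - lat X0) + z.2 • (C - c) := by
    unfold Xt vel
    rw [lat_vv, CDef480.lat_add, CDef480.lat_add, CDef480.lat_smul, CDef480.lat_pt]
    module
  rw [e]
  refine (norm_add_le _ _).trans ?_
  have h0 := norm_add_le (lat (vv z C x) - lat y) (lat y - lat X0)
  rw [norm_smul, Real.norm_eq_abs]
  have hs2 := h.S.s20
  have hr := h.r0
  have hA := h.A1
  have h1 : Y * w ≤ A * s2 * r := by
    have a1 := h.prods.2.2.2.2.2.2.2.2.2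
    have a2 := (ηδ_le h).1
    calc Y * w ≤ Y * (ι * (s2 * r)) := mul_le_mul_of_nonneg_left (w_s2 h) (by
          have := h.Y1; linarith)
      _ = (Y * ι) * (s2 * r) := by ring
      _ ≤ A * (s2 * r) := mul_le_mul_of_nonneg_right (by linarith) (by positivity)
      _ = _ := by ring
  have h2 : A * s2 * rj ≤ A * s2 * r := mul_le_mul_of_nonneg_left (rj_le h) (by positivity)
  have h3 := mul_le_mul g.zr (ext_C h g) (norm_nonneg _) hr.le
  have h4 := g.vl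
  have h5 := g.yl
  linarith

theorem ext_n (h : ChN M κ A s1 s2 T rj θj w δ Y Gm c3 ι η r f)
    (g : Gd κ A s1 s2 T rj θj w Y c3 r c X0 f z C' y C x) :
    |CDef480.nrm c x 0 - CDef480.nrm c (Xt z c X0) 0| ≤ 5 * A ^ 2 * Y * T * r := by
  have e : CDef480.nrm c x 0 - CDef480.nrm c (Xt z c X0) 0 =
      (CDef480.nrm C (vv z C x) 0 - CDef480.nrm C y 0) -
        inner ℝ (C - c) (lat (vv z C x) - lat y) +
        (CDef480.nrm c y 0 - CDef480.nrm c X0 0) - z.2 * ‖C - c‖ ^ 2 / 2 := by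
    simp only [Ckm538.nrm_zero, two_vv, lat_vv]
    unfold Xt vel
    simp only [PiLp.add_apply, PiLp.smul_apply, CDef480.pt_two, smul_eq_mul, CDef480.lat_add,
      CDef480.lat_smul, CDef480.lat_pt, inner_add_right, inner_sub_right, inner_sub_left,
      real_inner_smul_right, norm_sub_sq_real, real_inner_self_eq_norm_sq]
    rw [real_inner_comm c C]
    ring
  rw [e]
  have hs2 := h.S.s20
  have hr := h.r0
  have hA := h.A1
  have hY := h.Y1
  have hT := h.S.T0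
  have hT1 := h.S.T1
  have k1 : Y * κ⁻¹ ≤ Y * (T * r) := by
    refine mul_le_mul_of_nonneg_left (h.S.T2.trans ?_) (by linarith)
    exact mul_le_mul_of_nonneg_left (rj_le h) hT.le
  have k2 : |inner ℝ (C - c) (lat (vv z C x) - lat y)| ≤ T * r := by
    refine (abs_real_inner_le_norm _ _).trans ?_
    have a0 : ‖C - c‖ * ‖lat (vv z C x) - lat y‖ ≤ (2 * A * s2) * (Y * w) :=
      mul_le_mul (ext_C h g) g.vl (norm_nonneg _) (by positivity)
    have a1 := h.prods.2.2.2.2.2.1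
    have a2 := (ηδ_le h).1
    calc _ ≤ _ := a0
      _ ≤ (2 * A * s2) * (Y * (ι * (s2 * r))) :=
          mul_le_mul_of_nonneg_left (mul_le_mul_of_nonneg_left (w_s2 h) (by linarith))
            (by positivity)
      _ = (2 * (A * Y * ι)) * (s2 ^ 2 * r) := by ring
      _ ≤ 1 * (T * r) := mul_le_mul (by linarith) (mul_le_mul_of_nonneg_right hT1 hr.le)
          (by positivity) (by norm_num)
      _ = T * r := one_mul _
  have k3 : A * T * rj ≤ A * (T * r) := by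
    rw [mul_assoc]
    exact mul_le_mul_of_nonneg_left (mul_le_mul_of_nonneg_left (rj_le h) hT.le) (by linarith)
  have k4 : |z.2 * ‖C - c‖ ^ 2 / 2| ≤ 2 * A ^ 2 * (T * r) := by
    rw [abs_div, abs_mul, abs_two, abs_of_nonneg (sq_nonneg ‖C - c‖)]
    have b1 : ‖C - c‖ ^ 2 ≤ (2 * A * s2) ^ 2 := pow_le_pow_left₀ (norm_nonneg _) (ext_C h g) 2
    have b2 := mul_le_mul g.zr b1 (sq_nonneg _) hr.le
    have b3 : r * (2 * A * s2) ^ 2 ≤ r * (4 * A ^ 2 * T) := by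
      refine mul_le_mul_of_nonneg_left ?_ hr.le
      calc (2 * A * s2) ^ 2 = 4 * A ^ 2 * s2 ^ 2 := by ring
        _ ≤ 4 * A ^ 2 * T := mul_le_mul_of_nonneg_left hT1 (by positivity)
    linarith
  have t1 := abs_sub ((CDef480.nrm C (vv z C x) 0 - CDef480.nrm C y 0) -
        inner ℝ (C - c) (lat (vv z C x) - lat y) +
        (CDef480.nrm c y 0 - CDef480.nrm c X0 0)) (z.2 * ‖C - c‖ ^ 2 / 2)
  have t2 := abs_add_le ((CDef480.nrm C (vv z C x) 0 - CDef480.nrm C y 0) -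
        inner ℝ (C - c) (lat (vv z C x) - lat y)) (CDef480.nrm c y 0 - CDef480.nrm c X0 0)
  have t3 := abs_sub (CDef480.nrm C (vv z C x) 0 - CDef480.nrm C y 0)
        (inner ℝ (C - c) (lat (vv z C x) - lat y))
  have t4 := g.vn
  have t5 := g.yn
  have hTr : 0 ≤ T * r := by positivity
  have f1 : Y * (T * r) ≤ (A ^ 2 * Y) * (T * r) :=
    mul_le_mul_of_nonneg_right (le_mul_of_one_le_left (by linarith) (one_le_pow₀ hA)) hTr
  have f2 : A * (T * r) ≤ (A ^ 2 * Y) * (T * r) := by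
    refine mul_le_mul_of_nonneg_right ?_ hTr
    have : A ^ 2 * Y = A * (A * Y) := by ring
    rw [this]
    exact le_mul_of_one_le_right (by linarith) (one_le_mul_of_one_le_of_one_le hA hY)
  have f3 : A ^ 2 * (T * r) ≤ (A ^ 2 * Y) * (T * r) :=
    mul_le_mul_of_nonneg_right (le_mul_of_one_le_right (by positivity) hY) hTr
  have f4 : T * r ≤ A ^ 2 * (T * r) := le_mul_of_one_le_left hTr (one_le_pow₀ hA)
  have e2 : 5 * A ^ 2 * Y * T * r = 5 * ((A ^ 2 * Y) * (T * r)) := by ring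
  rw [e2]
  linarith

end gd

end Crest.Agent.R116.Mc330
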