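import Crest.Agent.R116.Mc5_330

/-!
# R116 (S0155), misaligned step: the member on a plank of the parent frame (helper330)

`pl_ld`, `pl_ev`, `pl_gr`, `pl_lat`, `pl_nrm`: bounds at the points of the plank `PL r (4 w) (2 B)` of a
phase point `(C, x)` seen by the member; `Zs` = the space-time region of the member, `Zs_vol` its
volume; `mem_Zs`; `cross_pl`: transversality at a common point of two planks.
-/

set_option autoImplicit false

open MeasureTheory
open scoped ENNReal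

namespace Crest.Agent.R116.Mc330

open Crest.Agent.R138.Defs (E2)
open Crest.Agent.R116.CDef480 (E3 lat pt vel umc enc)
open Crest.Agent.R116.LZg725 (Cf)
open Crest.Agent.R116.WC188 (TT Adm mset scost pbx Sd)
open Crest.Agent.R116.De295 (SF FF)
open Crest.Agent.R116.Gc192 (un crs)
open Crest.Agent.R116.Ma448 (PL)
open ChN

section pl

variable {M κ A s1 s2 T rj θj w δ Y Gm c3 ι η r : ℝ} {f : Cf E2} {c : E2} {X0 : E3} {z : E3 × ℝ}
  {C' C : E2} {y x X : E3} {t : ℝ}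

theorem pl_ld (h : ChN M κ A s1 s2 T rj θj w δ Y Gm c3 ι η r f)
    (g : Gd κ A s1 s2 T rj θj w Y c3 r c X0 f z C' y C x)
    (hp : (X, t) ∈ PL r (4 * w) (2 * κ⁻¹) C (lat x) (CDef480.nrm C x 0)) :
    |(Ft z f).ld C (lat X) (X 2) t| ≤ 7 * Kp M A Y Gm c3 * θj := by
  have h1 := plank_ld (Ft z f) hp
  have h2 := Fld_le h g
  rw [Ft_d] at h1
  have h3 := h.d_κ
  have h4 : M * s1 ≤ Kp M A Y Gm c3 * θj := by
    have hM := h.M1
    have hA := h.A1
    have hY := h.Y1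
    have hG := h.Gm1
    have hc := h.c31
    have hθ := h.θ0
    have a1 : M * s1 ≤ M * (Gm * θj) := mul_le_mul_of_nonneg_left h.hs1 (by linarith)
    refine a1.trans ?_
    unfold Kp
    have : M * A * Y * c3 * Gm * θj = (M * (Gm * θj)) * (A * Y * c3) := by ring
    rw [this]
    exact le_mul_of_one_le_right (by positivity)
      (one_le_mul_of_one_le_of_one_le (one_le_mul_of_one_le_of_one_le hA hY) hc)
  have e : (Ft z f).ld C (lat X) (X 2) t = ((Ft z f).ld C (lat X) (X 2) t -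
    (Ft z f).ld C (lat x) (x 2) 0) + (Ft z f).ld C (lat x) (x 2) 0 := by ring
  rw [e]
  refine (abs_add_le _ _).trans ?_
  have h5 : 2 * |f.d| * (2 * κ⁻¹) = 4 * (|f.d| * κ⁻¹) := by ring
  rw [h5] at h1
  linarith

/-- `w` in terms of `Kp θj r`. -/
theorem w_Kp (h : ChN M κ A s1 s2 T rj θj w δ Y Gm c3 ι η r f) :
    w ≤ Kp M A Y Gm c3 * θj * r := by
  refine h.w_le.trans ?_
  rw [mul_assoc]
  exact le_mul_of_one_le_left (mul_nonneg h.θ0.le h.r0.le) h.one_le_Kp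

theorem pl_ev (h : ChN M κ A s1 s2 T rj θj w δ Y Gm c3 ι η r f)
    (g : Gd κ A s1 s2 T rj θj w Y c3 r c X0 f z C' y C x)
    (hp : (X, t) ∈ PL r (4 * w) (2 * κ⁻¹) C (lat x) (CDef480.nrm C x 0)) :
    |(Ft z f).ev (lat X) (X 2) t| ≤ 30 * Kp M A Y Gm c3 * θj * r := by
  have ht : |t| ≤ r := plank_time hp
  have h1 := plank_ev (Ft z f) hp (Fgr_le h g) (Fny_le h g.zr ht).2
  rw [Ft_d] at h1
  have h2 := Fev_le h g
  have h3 := Fld_le h g
  have hr := h.r0
  have h3' := mul_le_mul_of_nonneg_left h3 hr.le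
  have hw := w_Kp h
  have hw0 := h.w0
  have hk := h.S.k0
  have h4 : 3 * M * (κ * s1 * r) * (2 * κ⁻¹) ≤ 6 * (Kp M A Y Gm c3 * θj * r) := by
    have hM := h.M1
    have hA := h.A1
    have hY := h.Y1
    have hG := h.Gm1
    have hc := h.c31
    have hθ := h.θ0
    have e : 3 * M * (κ * s1 * r) * (2 * κ⁻¹) = 6 * (M * s1 * r) := by field_simp; ring
    rw [e]
    have a1 : M * s1 * r ≤ M * (Gm * θj) * r :=
      mul_le_mul_of_nonneg_right (mul_le_mul_of_nonneg_left h.hs1 (by linarith)) hr.le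
    have a2 : M * (Gm * θj) * r ≤ Kp M A Y Gm c3 * θj * r := by
      unfold Kp
      have : M * A * Y * c3 * Gm * θj * r = (M * (Gm * θj) * r) * (A * Y * c3) := by ring
      rw [this]
      exact le_mul_of_one_le_right (by positivity)
        (one_le_mul_of_one_le_of_one_le (one_le_mul_of_one_le_of_one_le hA hY) hc)
    linarith
  have h5 : |f.d| * (4 * w) ^ 2 ≤ w := by
    have a1 := h.d_w'
    have a2 := (ηδ_le h).2.1
    calc |f.d| * (4 * w) ^ 2 = 16 * (|f.d| * w) * w := by ring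
      _ ≤ 1 * w := mul_le_mul_of_nonneg_right (by linarith) hw0.le
      _ = w := one_mul _
  linarith

theorem pl_gr (h : ChN M κ A s1 s2 T rj θj w δ Y Gm c3 ι η r f)
    (g : Gd κ A s1 s2 T rj θj w Y c3 r c X0 f z C' y C x)
    (hp : (X, t) ∈ PL r (4 * w) (2 * κ⁻¹) C (lat x) (CDef480.nrm C x 0)) :
    ‖(Ft z f).gr C (lat X) t - f.gr C' (lat y) 0‖ ≤ η * δ / 2 := by
  have h1 := plank_gr (Ft z f) hp
  rw [Ft_d] at h1
  have h2 := Fgr_sub h g
  have h3 := h.d_w'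
  have e : (Ft z f).gr C (lat X) t - f.gr C' (lat y) 0 = ((Ft z f).gr C (lat X) t -
    (Ft z f).gr C (lat x) 0) + ((Ft z f).gr C (lat x) 0 - f.gr C' (lat y) 0) := by abel
  rw [e]
  refine (norm_add_le _ _).trans ?_
  have h4 : 2 * |f.d| * (4 * w) = 8 * (|f.d| * w) := by ring
  rw [h4] at h1
  have hη := h.η0
  have hδ := h.δ0
  have : 0 ≤ η * δ := by positivity
  linarith

theorem pl_gr_bd (h : ChN M κ A s1 s2 T rj θj w δ Y Gm c3 ι η r f)
    (g : Gd κ A s1 s2 T rj θj w Y c3 r c X0 f z C' y C x)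
    (hp : (X, t) ∈ PL r (4 * w) (2 * κ⁻¹) C (lat x) (CDef480.nrm C x 0)) :
    1 / 2 ≤ ‖(Ft z f).gr C (lat X) t‖ ∧ ‖(Ft z f).gr C (lat X) t‖ ≤ 2 := by
  have h1 := pl_gr h g hp
  have h2 := gy_bd h g
  have h3 := (ηδ_le h).2.1
  have h4 := norm_sub_norm_le (f.gr C' (lat y) 0) ((Ft z f).gr C (lat X) t)
  have h5 := norm_sub_norm_le ((Ft z f).gr C (lat X) t) (f.gr C' (lat y) 0)
  rw [norm_sub_rev] at h4
  constructor <;> linarith [h2.1, h2.2]

theorem pl_un (h : ChN M κ A s1 s2 T rj θj w δ Y Gm c3 ι η r f)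
    (g : Gd κ A s1 s2 T rj θj w Y c3 r c X0 f z C' y C x)
    (hp : (X, t) ∈ PL r (4 * w) (2 * κ⁻¹) C (lat x) (CDef480.nrm C x 0)) :
    ‖un (Ft z f) C (lat X) t - un f C' (lat y) 0‖ ≤ 2 * (η * δ) := by
  have h1 := pl_gr h g hp
  have h2 := (gy_bd h g).1
  have h3 := (pl_gr_bd h g hp).1
  have h4 := Gc192.unit_sub_le (k := 1 / 2) (by norm_num) h3 (by linarith) h1
  unfold un
  refine h4.trans (le_of_eq (by ring))

theorem pl_lat (h : ChN M κ A s1 s2 T rj θj w δ Y Gm c3 ι η r f)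
    (g : Gd κ A s1 s2 T rj θj w Y c3 r c X0 f z C' y C x)
    (hp : (X, t) ∈ PL r (4 * w) (2 * κ⁻¹) C (lat x) (CDef480.nrm C x 0)) :
    ‖(lat X - lat (Xt z c X0)) + t • c‖ ≤ 7 * A * s2 * r := by
  have ht : |t| ≤ r := plank_time hp
  obtain ⟨-, h2, -⟩ := hp
  simp only at h2
  have e : (lat X - lat (Xt z c X0)) + t • c = (lat X - (lat x - t • C)) +
      (lat x - lat (Xt z c X0)) - t • (C - c) := by module
  rw [e]
  refine (norm_sub_le _ _).trans ?_
  have h0 := norm_add_le (lat X - (lat x - t • C)) (lat x - lat (Xt z c X0))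
  rw [norm_smul, Real.norm_eq_abs]
  have h3 := ext_l h g
  have h4 := mul_le_mul ht (ext_C h g) (norm_nonneg _) h.r0.le
  have h5 : 4 * w ≤ A * s2 * r := by
    have a1 := w_s2 h
    have a2 := h.prods.2.2.2.2.2.2.2.2.1
    have a3 := (ηδ_le h).1
    have hM := h.M1
    have hA := h.A1
    have hι := h.ι0
    have hs := mul_pos h.S.s20 h.r0
    have a4 : ι ≤ M * ι := le_mul_of_one_le_left hι.le hM
    have a5 : ι * (s2 * r) ≤ (1 / 4) * (s2 * r) := mul_le_mul_of_nonneg_right (by linarith) hs.le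
    have a6 : s2 * r ≤ A * (s2 * r) := le_mul_of_one_le_left hs.le hA
    linarith
  linarith

theorem pl_nrm (h : ChN M κ A s1 s2 T rj θj w δ Y Gm c3 ι η r f)
    (g : Gd κ A s1 s2 T rj θj w Y c3 r c X0 f z C' y C x)
    (hp : (X, t) ∈ PL r (4 * w) (2 * κ⁻¹) C (lat x) (CDef480.nrm C x 0)) :
    |CDef480.nrm c X t - CDef480.nrm c (Xt z c X0) 0| ≤ 10 * A ^ 2 * Y * T * r := by
  have ht : |t| ≤ r := plank_time hp
  obtain ⟨-, h2, h3⟩ := hp
  simp only at h2 h3
  have e : CDef480.nrm c X t - CDef480.nrm c (Xt z c X0) 0 =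
      (CDef480.nrm C X t - CDef480.nrm C x 0) + t * ‖C - c‖ ^ 2 / 2 -
        inner ℝ (C - c) (lat X - (lat x - t • C)) +
        (CDef480.nrm c x 0 - CDef480.nrm c (Xt z c X0) 0) := by
    unfold CDef480.nrm
    simp only [inner_sub_left, inner_sub_right, real_inner_smul_right, norm_sub_sq_real,
      real_inner_self_eq_norm_sq]
    rw [real_inner_comm c C]
    ring
  rw [e]
  have hs2 := h.S.s20
  have hr := h.r0
  have hA := h.A1
  have hY := h.Y1
  have hT := h.S.T0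
  have hT1 := h.S.T1
  have hTr : 0 ≤ T * r := by positivity
  have k1 : 2 * κ⁻¹ ≤ 2 * (T * r) := by
    refine mul_le_mul_of_nonneg_left (h.S.T2.trans ?_) (by norm_num)
    exact mul_le_mul_of_nonneg_left (rj_le h) hT.le
  have k2 : |inner ℝ (C - c) (lat X - (lat x - t • C))| ≤ T * r := by
    refine (abs_real_inner_le_norm _ _).trans ?_
    have a0 : ‖C - c‖ * ‖lat X - (lat x - t • C)‖ ≤ (2 * A * s2) * (4 * w) :=
      mul_le_mul (ext_C h g) h2 (norm_nonneg _) (by positivity)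
    have a1 := h.prods.2.2.2.2.2.1
    have a2 := (ηδ_le h).1
    have hι := h.ι0
    have a3 : A * ι ≤ A * Y * ι := by
      have : A * Y * ι = (A * ι) * Y := by ring
      rw [this]
      exact le_mul_of_one_le_right (by positivity) hY
    calc _ ≤ _ := a0
      _ ≤ (2 * A * s2) * (4 * (ι * (s2 * r))) :=
          mul_le_mul_of_nonneg_left (by linarith [w_s2 h]) (by positivity)
      _ = (8 * (A * ι)) * (s2 ^ 2 * r) := by ring
      _ ≤ 1 * (T * r) := mul_le_mul (by linarith) (mul_le_mul_of_nonneg_right hT1 hr.le)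
          (by positivity) (by norm_num)
      _ = T * r := one_mul _
  have k4 : |t * ‖C - c‖ ^ 2 / 2| ≤ 2 * A ^ 2 * (T * r) := by
    rw [abs_div, abs_mul, abs_two, abs_of_nonneg (sq_nonneg ‖C - c‖)]
    have b1 : ‖C - c‖ ^ 2 ≤ (2 * A * s2) ^ 2 := pow_le_pow_left₀ (norm_nonneg _) (ext_C h g) 2
    have b2 := mul_le_mul ht b1 (sq_nonneg _) hr.le
    have b3 : r * (2 * A * s2) ^ 2 ≤ r * (4 * A ^ 2 * T) := by
      refine mul_le_mul_of_nonneg_left ?_ hr.le
      calc (2 * A * s2) ^ 2 = 4 * A ^ 2 * s2 ^ 2 := by ring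
        _ ≤ 4 * A ^ 2 * T := mul_le_mul_of_nonneg_left hT1 (by positivity)
    linarith
  have t1 := abs_add_le ((CDef480.nrm C X t - CDef480.nrm C x 0) + t * ‖C - c‖ ^ 2 / 2 -
        inner ℝ (C - c) (lat X - (lat x - t • C)))
        (CDef480.nrm c x 0 - CDef480.nrm c (Xt z c X0) 0)
  have t2 := abs_sub ((CDef480.nrm C X t - CDef480.nrm C x 0) + t * ‖C - c‖ ^ 2 / 2)
        (inner ℝ (C - c) (lat X - (lat x - t • C)))
  have t3 := abs_add_le (CDef480.nrm C X t - CDef480.nrm C x 0) (t * ‖C - c‖ ^ 2 / 2)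
  have t4 := ext_n h g
  have f1 : T * r ≤ (A ^ 2 * Y) * (T * r) :=
    le_mul_of_one_le_left hTr (one_le_mul_of_one_le_of_one_le (one_le_pow₀ hA) hY)
  have f3 : A ^ 2 * (T * r) ≤ (A ^ 2 * Y) * (T * r) :=
    mul_le_mul_of_nonneg_right (le_mul_of_one_le_right (by positivity) hY) hTr
  have e2 : 10 * A ^ 2 * Y * T * r = 10 * ((A ^ 2 * Y) * (T * r)) := by ring
  have e3 : 5 * A ^ 2 * Y * T * r = 5 * ((A ^ 2 * Y) * (T * r)) := by ring
  rw [e3] at t4
  rw [e2]
  linarith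

/-! ### the space-time region -/

/-- the space-time region of the member in the frame of the parent. -/
def Zs (M A Y Gm c3 θj s2 T r : ℝ) (c : E2) (X0 : E3) (f : Cf E2) (z : E3 × ℝ) :
    Set (E3 × ℝ) :=
  {q : E3 × ℝ | |q.2 - 0| ≤ r ∧
    ‖(lat q.1 - lat (Xt z c X0)) + (q.2 - 0) • c‖ ≤ (10 * A ^ 2 * Y) * s2 * r ∧
    |LZg725.nrm c (lat q.1) (q.1 2) q.2 - LZg725.nrm c (lat (Xt z c X0)) ((Xt z c X0) 2) 0| ≤
      (10 * A ^ 2 * Y) * T * r ∧ |(Ft z f).val q| ≤ 30 * Kp M A Y Gm c3 * θj * r ∧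
    ∃ C : E2, ‖C - c‖ ≤ (10 * A ^ 2 * Y) * s2 ∧
      |(Ft z f).ld C (lat q.1) (q.1 2) q.2| ≤ 7 * Kp M A Y Gm c3 * θj}

theorem mem_Zs (h : ChN M κ A s1 s2 T rj θj w δ Y Gm c3 ι η r f)
    (g : Gd κ A s1 s2 T rj θj w Y c3 r c X0 f z C' y C x)
    (hp : (X, t) ∈ PL r (4 * w) (2 * κ⁻¹) C (lat x) (CDef480.nrm C x 0)) :
    (X, t) ∈ Zs M A Y Gm c3 θj s2 T r c X0 f z := by
  have hA := h.A1
  have hY := h.Y1
  have hA2 : A ≤ A ^ 2 * Y := by
    have : A ^ 2 * Y = A * (A * Y) := by ring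
    rw [this]
    exact le_mul_of_one_le_right (by linarith) (one_le_mul_of_one_le_of_one_le hA hY)
  have hs2 := h.S.s20
  have hr := h.r0
  refine ⟨?_, ?_, ?_, ?_, C, ?_, ?_⟩
  · rw [sub_zero]; exact plank_time hp
  · rw [sub_zero]
    refine (pl_lat h g hp).trans ?_
    have : 7 * A * s2 * r = (7 * A) * (s2 * r) := by ring
    rw [this]
    have e2 : (10 * A ^ 2 * Y) * s2 * r = (10 * (A ^ 2 * Y)) * (s2 * r) := by ring
    rw [e2]
    exact mul_le_mul_of_nonneg_right (by linarith) (by positivity)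
  · exact (pl_nrm h g hp).trans (le_of_eq (by ring))
  · exact pl_ev h g hp
  · refine (ext_C h g).trans (mul_le_mul_of_nonneg_right ?_ hs2.le)
    have e2 : 10 * A ^ 2 * Y = 10 * (A ^ 2 * Y) := by ring
    rw [e2]; linarith
  · exact pl_ld h g hp

/-- **volume of the region**. -/
theorem Zs_vol (h : ChN M κ A s1 s2 T rj θj w δ Y Gm c3 ι η r f) (hz : |z.2| ≤ r) :
    volume (Zs M A Y Gm c3 θj s2 T r c X0 f z) ≤
      ENNReal.ofReal (512 * (10 * A ^ 2 * Y) ^ 3 *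
        ((30 * Kp M A Y Gm c3 * θj * r) * (s2 * r) * (T * r) * r)) := by
  have hA := h.A1
  have hY := h.Y1
  have hM := h.M1
  have hr := h.r0
  have hs2 := h.S.s20
  have hT := h.S.T0
  have hδ := h.δ0
  have hθ := h.θ0
  have hK := h.one_le_Kp
  have hAY : 1 ≤ A ^ 2 * Y := one_le_mul_of_one_le_of_one_le (one_le_pow₀ hA) hY
  have hsm := h.prods.2.2.2.1
  have hη := h.η1
  have hη0 := h.η0
  have hbase : (M * Kp M A Y Gm c3 * θj) / δ ^ 2 ≤ s2 / 1024 := by
    rw [div_le_iff₀ (by positivity)]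
    have a1 : M * Kp M A Y Gm c3 * θj ≤ M * Kp M A Y Gm c3 * (ι * s2) :=
      mul_le_mul_of_nonneg_left h.hι (by positivity)
    have a2 : M * Kp M A Y Gm c3 * (ι * s2) ≤ (η * δ ^ 2 / 16) * s2 := by
      have : M * Kp M A Y Gm c3 * (ι * s2) = (M * Kp M A Y Gm c3 * ι) * s2 := by ring
      rw [this]
      exact mul_le_mul_of_nonneg_right hsm hs2.le
    have a3 : (η * δ ^ 2 / 16) * s2 ≤ s2 / 1024 * δ ^ 2 := by
      have : (η * δ ^ 2 / 16) * s2 = η * (δ ^ 2 * s2 / 16) := by ring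
      rw [this]
      have b : 0 ≤ δ ^ 2 * s2 / 16 := by positivity
      have := mul_le_mul_of_nonneg_right hη b
      linarith
    linarith
  refine LZg725.vol_pp (M := 3 * M / δ ^ 2) hr hs2 h.S.T1 (by linarith) (by positivity)
    (by positivity) (by rw [Ft_disc]; exact h.F.disc) ?_ ?_ ?_
  · intro s hs
    rw [sub_zero] at hs
    have h1 := (Fny_le h hz hs).1
    rw [div_mul_eq_mul_div, le_div_iff₀ (by positivity)]
    calc |(Ft z f).ny s| * T * δ ^ 2 = |(Ft z f).ny s| * (T * δ ^ 2) := by ring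
      _ ≤ 3 * M * s2 := h1
  · have e : 8 * (3 * M / δ ^ 2) * (30 * Kp M A Y Gm c3 * θj * r) =
      720 * (((M * Kp M A Y Gm c3 * θj) / δ ^ 2) * r) := by ring
    rw [e]
    have := mul_le_mul_of_nonneg_right hbase hr.le
    have h0 : 0 ≤ s2 * r := by positivity
    linarith
  · have e : 8 * (3 * M / δ ^ 2) * (7 * Kp M A Y Gm c3 * θj) =
      168 * ((M * Kp M A Y Gm c3 * θj) / δ ^ 2) := by ring
    rw [e]
    linarith

end pl

/-- **transversality at a common point**: `u`, `v` unit normals at the phase points, `e` the rounded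
one. -/
theorem cross_of {u v e u' v' : E2} {δ a b : ℝ} (hδ : 0 ≤ δ) (hu : ‖u‖ ≤ 1) (hv' : ‖v'‖ ≤ 1)
    (hre : |crs u e - crs u v| ≤ δ / 8) (hc : δ < |crs u e|) (h1 : ‖u' - u‖ ≤ a)
    (h2 : ‖v' - v‖ ≤ b) (hab : a + b ≤ δ / 4) : δ / 2 ≤ |crs u' v'| := by
  have e1 : crs u' v' - crs u v = crs (u' - u) v' + crs u (v' - v) := by
    rw [PC299.crs_sub_left, PC299.crs_sub_right]; ring
  have h3 : |crs u' v' - crs u v| ≤ a + b := by
    rw [e1]
    refine (abs_add_le _ _).trans ?_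
    have k1 := (PC299.abs_crs_le (u' - u) v').trans
      (mul_le_mul h1 hv' (norm_nonneg _) ((norm_nonneg _).trans h1))
    have k2 := (PC299.abs_crs_le u (v' - v)).trans
      (mul_le_mul hu h2 (norm_nonneg _) zero_le_one)
    linarith
  have h4 := abs_sub_abs_le_abs_sub (crs u e) (crs u v)
  have h5 := abs_sub_abs_le_abs_sub (crs u v) (crs u' v')
  rw [abs_sub_comm] at h5
  linarith

end Crest.Agent.R116.Mc330
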