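import Crest.Agent.R116.Mc6_330

/-!
# R116 (S0155), misaligned step: mass of the extension of a child member (helper330)

`Pt` = phase points of the parent frame near the rays seen by the member; `mass_ext` = their energy,
`≤ C A^c Y^c Gm^c δ^(-22) D s2^q scost`.
-/

set_option autoImplicit false

open MeasureTheory
open scoped ENNReal

namespace Crest.Agent.R116.Mc330

open Crest.Agent.R138.Defs (E2)
open Crest.Agent.R138.Wpk685 (cen caps)
open Crest.Agent.R116.CDef480 (E3 lat pt vel umc enc)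
open Crest.Agent.R116.LZg725 (Cf)
open Crest.Agent.R116.WC188 (TT Adm mset scost pbx Sd)
open Crest.Agent.R116.De295 (SF FF)
open Crest.Agent.R116.Gc192 (un crs)
open Crest.Agent.R116.Ma448 (PL)
open ChN

/-- phase points of the parent frame near a ray seen by the member. -/
def Pt (κ A s1 s2 T rj θj w Y c3 r : ℝ) (c : E2) (X0 : E3) (f : Cf E2) (z : E3 × ℝ) (C : E2)
    (y : E3) : Prop :=
  ∃ (C' : E2) (y' x : E3), Gd κ A s1 s2 T rj θj w Y c3 r c X0 f z C' y' C x ∧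
    (y, (0 : ℝ)) ∈ PL r (4 * w) (2 * κ⁻¹) C (lat x) (CDef480.nrm C x 0)

/-- constant of the extension. -/
noncomputable def Kx (M A Y Gm c3 δ : ℝ) : ℝ :=
  ((34 * A / δ ^ 2) ^ 2 * ((1794 * A ^ 2 / δ ^ 4) ^ 2 * (642 * (A ^ 2 * Y) / δ ^ 4))) *
    (30 * Kp M A Y Gm c3 / δ ^ 6)

section mass

variable {M κ A s1 s2 T rj θj w δ Y Gm c3 ι η r : ℝ} {f : Cf E2} {c : E2} {X0 : E3} {z : E3 × ℝ}

/-- aperture of the sub-members. -/
noncomputable def sgx (δ s2 : ℝ) : ℝ := δ ^ 2 * s2 / 4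

theorem sgx_pos (h : ChN M κ A s1 s2 T rj θj w δ Y Gm c3 ι η r f) : 0 < sgx δ s2 := by
  unfold sgx
  have := h.δ0
  have := h.S.s20
  positivity

theorem u1_le (h : ChN M κ A s1 s2 T rj θj w δ Y Gm c3 ι η r f) :
    30 * Kp M A Y Gm c3 * θj ≤ sgx δ s2 := by
  have hs2 := h.S.s20
  have hK := h.one_le_Kp
  have h1 := h.prods.2.2.2.2.2.2.1
  have hη := h.η1
  have hδ := h.δ0
  unfold sgx
  calc 30 * Kp M A Y Gm c3 * θj ≤ 30 * Kp M A Y Gm c3 * (ι * s2) :=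
        mul_le_mul_of_nonneg_left h.hι (by linarith)
    _ = 30 * (Kp M A Y Gm c3 * ι) * s2 := by ring
    _ ≤ 30 * (η * δ ^ 2 / 16) * s2 :=
        mul_le_mul_of_nonneg_right (by linarith) hs2.le
    _ = η * (30 / 16 * (δ ^ 2 * s2)) := by ring
    _ ≤ (1 / 64) * (30 / 16 * (δ ^ 2 * s2)) := mul_le_mul_of_nonneg_right hη (by positivity)
    _ ≤ δ ^ 2 * s2 / 4 := by
        have : 0 ≤ δ ^ 2 * s2 := by positivity
        linarith

theorem s1_le (h : ChN M κ A s1 s2 T rj θj w δ Y Gm c3 ι η r f) : 3 * s1 ≤ sgx δ s2 ∧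
    3 * s1 ≤ 30 * Kp M A Y Gm c3 * θj := by
  have hG := h.Gm1
  have hθ := h.θ0
  have h2 : 3 * s1 ≤ 30 * Kp M A Y Gm c3 * θj := by
    have h1 := h.hs1
    have hM := h.M1
    have hA := h.A1
    have hY := h.Y1
    have hc := h.c31
    have h3 : Gm * θj ≤ Kp M A Y Gm c3 * θj := by
      unfold Kp
      have : M * A * Y * c3 * Gm * θj = (Gm * θj) * (M * A * Y * c3) := by ring
      rw [this]
      exact le_mul_of_one_le_right (by positivity) (one_le_mul_of_one_le_of_one_le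
        (one_le_mul_of_one_le_of_one_le (one_le_mul_of_one_le_of_one_le hM hA) hY) hc)
    have h4 : 0 ≤ Kp M A Y Gm c3 * θj := by
      have := h.one_le_Kp; positivity
    linarith
  exact ⟨h2.trans (u1_le h), h2⟩

theorem sgx_le (h : ChN M κ A s1 s2 T rj θj w δ Y Gm c3 ι η r f) : sgx δ s2 ≤ s2 := by
  unfold sgx
  have h1 : δ ^ 2 ≤ 1 := pow_le_one₀ h.δ0.le h.δ1
  have hs2 := h.S.s20
  have : δ ^ 2 * s2 ≤ 1 * s2 := mul_le_mul_of_nonneg_right h1 hs2.le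
  linarith

theorem TT_x (h : ChN M κ A s1 s2 T rj θj w δ Y Gm c3 ι η r f) (hTT : T = TT κ s2 rj) :
    TT κ (sgx δ s2) r ≤ T ∧ δ ^ 4 / 16 * T ≤ TT κ (sgx δ s2) r := by
  have hδ := h.δ0
  have hδ1 := h.δ1
  have hs2 := h.S.s20
  have hk := h.S.k0
  have hr := h.r0
  have hrj := h.S.r0
  have hd2 : δ ^ 2 ≤ 1 := pow_le_one₀ hδ.le hδ1
  have hd4 : δ ^ 4 ≤ δ ^ 2 := pow_le_pow_of_le_one hδ.le hδ1 (by norm_num)
  have e1 : (κ * rj)⁻¹ = (δ ^ 2)⁻¹ * (κ * r)⁻¹ := by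
    rw [h.hrj, ← mul_inv]; congr 1; ring
  have e2 : (κ * r)⁻¹ = δ ^ 2 * (κ * rj)⁻¹ := by
    rw [e1]; field_simp
  have hk0 : 0 < (κ * rj)⁻¹ := by positivity
  rw [hTT]
  unfold TT
  constructor
  · refine max_le_max (pow_le_pow_left₀ (sgx_pos h).le (sgx_le h) 2) ?_
    rw [e2]
    exact mul_le_of_le_one_left hk0.le hd2
  · rcases le_total ((κ * rj)⁻¹) (s2 ^ 2) with h1 | h1
    · rw [max_eq_left h1]
      refine le_trans (le_of_eq ?_) (le_max_left _ _)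
      unfold sgx; ring
    · rw [max_eq_right h1]
      refine le_trans ?_ (le_max_right _ _)
      rw [e2]
      refine mul_le_mul_of_nonneg_right ?_ hk0.le
      have : 0 ≤ δ ^ 4 := by positivity
      linarith

/-- lateral mesh. -/
noncomputable def lx (A δ s2 r : ℝ) : ℝ := δ ^ 4 * s2 * r / (64 * A)

theorem sc_bd (h : ChN M κ A s1 s2 T rj θj w δ Y Gm c3 ι η r f) (hTT : T = TT κ s2 rj) :
    scost κ (30 * Kp M A Y Gm c3 * θj) (sgx δ s2) r ≤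
      (30 * Kp M A Y Gm c3 / δ ^ 6) * scost κ s1 s2 rj := by
  have hr := h.r0
  have hs2 := h.S.s20
  have hs1 := h.S.s10
  have hT := h.S.T0
  have hδ := h.δ0
  have hK := h.one_le_Kp
  have hσ := sgx_pos h
  obtain ⟨hTx1, hTx2⟩ := TT_x h hTT
  have hTx : 0 < TT κ (sgx δ s2) r := TT_pos' hσ
  unfold scost
  rw [← hTT, h.hrj]
  have a1 : 30 * Kp M A Y Gm c3 * θj ≤ 30 * Kp M A Y Gm c3 * s1 :=
    mul_le_mul_of_nonneg_left h.s1θ (by linarith)
  calc 30 * Kp M A Y Gm c3 * θj * sgx δ s2 * TT κ (sgx δ s2) r * r ^ 3 ≤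
        (30 * Kp M A Y Gm c3 * s1) * s2 * T * r ^ 3 := by
        refine mul_le_mul_of_nonneg_right ?_ (by positivity)
        exact mul_le_mul (mul_le_mul a1 (sgx_le h) hσ.le (by positivity)) hTx1 hTx.le
          (by positivity)
    _ = 30 * Kp M A Y Gm c3 / δ ^ 6 * (s1 * s2 * T * (δ ^ 2 * r) ^ 3) := by
        field_simp

theorem NC_bd (h : ChN M κ A s1 s2 T rj θj w δ Y Gm c3 ι η r f) (hTT : T = TT κ s2 rj) :
    NC κ r (sgx δ s2) (lx A δ s2 r) (2 * A * s2) (7 * A * s2 * r) (10 * A ^ 2 * Y * T * r) ≤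
      (34 * A / δ ^ 2) ^ 2 * ((1794 * A ^ 2 / δ ^ 4) ^ 2 * (642 * (A ^ 2 * Y) / δ ^ 4)) := by
  have hA := h.A1
  have hY := h.Y1
  have hr := h.r0
  have hs2 := h.S.s20
  have hT := h.S.T0
  have hδ := h.δ0
  have hδ1 := h.δ1
  have hσ := sgx_pos h
  obtain ⟨hTx1, hTx2⟩ := TT_x h hTT
  have hTx : 0 < TT κ (sgx δ s2) r := TT_pos' hσ
  unfold NC
  have hd2 : δ ^ 2 ≤ 1 := pow_le_one₀ hδ.le hδ1
  have hd4 : δ ^ 4 ≤ 1 := pow_le_one₀ hδ.le hδ1
  have hAA : 1 ≤ A ^ 2 := one_le_pow₀ hA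
  have hAY : 1 ≤ A ^ 2 * Y := one_le_mul_of_one_le_of_one_le hAA hY
  have b1 : 4 * (2 * A * s2) / sgx δ s2 + 2 ≤ 34 * A / δ ^ 2 := by
    have e : 4 * (2 * A * s2) / sgx δ s2 = 32 * A / δ ^ 2 := by
      unfold sgx; field_simp; ring
    rw [e]
    have : (2:ℝ) ≤ 2 * A / δ ^ 2 := by
      rw [le_div_iff₀ (by positivity)]; nlinarith
    have e2 : 34 * A / δ ^ 2 = 32 * A / δ ^ 2 + 2 * A / δ ^ 2 := by ring
    linarith
  have b2 : 4 * (7 * A * s2 * r) / lx A δ s2 r + 2 ≤ 1794 * A ^ 2 / δ ^ 4 := by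
    have e : 4 * (7 * A * s2 * r) / lx A δ s2 r = 1792 * A ^ 2 / δ ^ 4 := by
      unfold lx; field_simp; ring
    rw [e]
    have : (2:ℝ) ≤ 2 * A ^ 2 / δ ^ 4 := by
      rw [le_div_iff₀ (by positivity)]; nlinarith
    have e2 : 1794 * A ^ 2 / δ ^ 4 = 1792 * A ^ 2 / δ ^ 4 + 2 * A ^ 2 / δ ^ 4 := by ring
    linarith
  have b3 : 4 * (10 * A ^ 2 * Y * T * r) / (TT κ (sgx δ s2) r * r) + 2 ≤
      642 * (A ^ 2 * Y) / δ ^ 4 := by
    have e : 4 * (10 * A ^ 2 * Y * T * r) / (TT κ (sgx δ s2) r * r) ≤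
        640 * (A ^ 2 * Y) / δ ^ 4 := by
      rw [div_le_div_iff₀ (by positivity) (by positivity)]
      have c1 : δ ^ 4 * T ≤ 16 * TT κ (sgx δ s2) r := by linarith
      have c2 := mul_le_mul_of_nonneg_left c1 (by positivity : 0 ≤ 40 * (A ^ 2 * Y) * r)
      calc 4 * (10 * A ^ 2 * Y * T * r) * δ ^ 4 = 40 * (A ^ 2 * Y) * r * (δ ^ 4 * T) := by ring
        _ ≤ _ := c2
        _ = 640 * (A ^ 2 * Y) * (TT κ (sgx δ s2) r * r) := by ring
    have : (2:ℝ) ≤ 2 * (A ^ 2 * Y) / δ ^ 4 := by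
      rw [le_div_iff₀ (by positivity)]; nlinarith
    have e2 : 642 * (A ^ 2 * Y) / δ ^ 4 = 640 * (A ^ 2 * Y) / δ ^ 4 +
      2 * (A ^ 2 * Y) / δ ^ 4 := by ring
    linarith
  have p1 : 0 ≤ 4 * (2 * A * s2) / sgx δ s2 + 2 := by positivity
  have p2 : 0 ≤ 4 * (7 * A * s2 * r) / lx A δ s2 r + 2 := by unfold lx; positivity
  have p3 : 0 ≤ 4 * (10 * A ^ 2 * Y * T * r) / (TT κ (sgx δ s2) r * r) + 2 := by positivity
  exact mul_le_mul (pow_le_pow_left₀ p1 b1 2)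
    (mul_le_mul (pow_le_pow_left₀ p2 b2 2) b3 p3 (by positivity))
    (mul_nonneg (sq_nonneg _) p3) (by positivity)

/-- **energy of the phase points near the rays seen by the member**. -/
theorem mass_ext (h : ChN M κ A s1 s2 T rj θj w δ Y Gm c3 ι η r f) (hTT : T = TT κ s2 rj)
    (hs21 : s2 ≤ 1) (hz : |z.2| ≤ r) {th : ℝ} (hth : th = r ^ (-(1/2) : ℝ)) (hthj : th ≤ θj)
    {D q : ℝ} (hD : 0 ≤ D) (hq : 0 ≤ q) {g : E3 → ℂ} {S W : ℤ × ℤ → Set E3}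
    (dens : ∀ (c : E2) (X0 : E3) (f : Cf E2) (v1 v2 : ℝ), Sd r v1 v2 →
      Adm M κ v1 v2 (TT κ v2 r) r c X0 f →
      enc th g (fun m => S m ∩ pbx κ 1 r v1 v2 c X0 f m) ≤
        ENNReal.ofReal (D * v2 ^ q * scost κ v1 v2 r))
    (hW : ∀ m ∈ caps th, ∀ y ∈ S m ∩ W m,
      Pt κ A s1 s2 T rj θj w Y c3 r c X0 f z (cen th m) y) :
    enc th g (fun m => S m ∩ W m) ≤
      ENNReal.ofReal (Kx M A Y Gm c3 δ * (D * s2 ^ q * scost κ s1 s2 rj)) := by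
  have hA := h.A1
  have hY := h.Y1
  have hM := h.M1
  have hr := h.r0
  have hs2 := h.S.s20
  have hs1 := h.S.s10
  have hT := h.S.T0
  have hδ := h.δ0
  have hδ1 := h.δ1
  have hθ := h.θ0
  have hK := h.one_le_Kp
  have hκ := h.S.k0
  have hσ := sgx_pos h
  obtain ⟨hTx1, hTx2⟩ := TT_x h hTT
  have hTx : 0 < TT κ (sgx δ s2) r := TT_pos' hσ
  have hu1 := u1_le h
  obtain ⟨hs1σ, hs1u⟩ := s1_le h
  set σ := sgx δ s2 with hσdef
  set u1 := 30 * Kp M A Y Gm c3 * θj with hu1def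
  have hl : lx A δ s2 r = δ ^ 4 * s2 * r / (64 * A) := rfl
  set l : ℝ := lx A δ s2 r with hldef
  have hl0 : 0 < l := by rw [hl]; positivity
  -- the cover
  have hlσ : l ≤ σ * r := by
    rw [hl, hσdef]; unfold sgx
    rw [div_le_iff₀ (by positivity)]
    have a1 : δ ^ 4 ≤ δ ^ 2 := pow_le_pow_of_le_one hδ.le hδ1 (by norm_num)
    have a2 : δ ^ 4 * (s2 * r) ≤ δ ^ 2 * (s2 * r) := mul_le_mul_of_nonneg_right a1 (by positivity)
    have a3 : δ ^ 2 * (s2 * r) ≤ δ ^ 2 * (s2 * r) * (16 * A) :=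
      le_mul_of_one_le_right (by positivity) (by linarith)
    calc δ ^ 4 * s2 * r = δ ^ 4 * (s2 * r) := by ring
      _ ≤ δ ^ 2 * (s2 * r) * (16 * A) := a2.trans a3
      _ = δ ^ 2 * s2 / 4 * r * (64 * A) := by ring
  have hΓl : 2 * A * s2 * l ≤ TT κ σ r * r / 2 := by
    have a1 : σ ^ 2 ≤ TT κ σ r := le_max_left _ _
    have a2 : 2 * A * s2 * l = σ ^ 2 * r / 2 := by
      rw [hl, hσdef]; unfold sgx; field_simp; ring
    rw [a2]
    have := mul_le_mul_of_nonneg_right a1 hr.le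
    linarith
  have hny : ∀ s : ℝ, |s| ≤ r → |(Ft z f).ny s| ≤ M * σ / TT κ σ r := by
    intro s hs
    obtain ⟨n1, n2⟩ := Fny_le h hz hs
    rw [le_div_iff₀ hTx]
    have hn0 := abs_nonneg ((Ft z f).ny s)
    have m1 : |(Ft z f).ny s| * σ ^ 2 ≤ M * σ := by
      have a1 : |(Ft z f).ny s| * (s2 ^ 2 * δ ^ 2) ≤ 3 * M * s2 :=
        (mul_le_mul_of_nonneg_left (mul_le_mul_of_nonneg_right h.S.T1 (by positivity)) hn0).trans n1
      have a2 : |(Ft z f).ny s| * σ ^ 2 = (|(Ft z f).ny s| * (s2 ^ 2 * δ ^ 2)) * (δ ^ 2 / 16) := by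
        rw [hσdef]; unfold sgx; ring
      rw [a2]
      have a3 := mul_le_mul_of_nonneg_right a1 (by positivity : 0 ≤ δ ^ 2 / 16)
      refine a3.trans ?_
      rw [hσdef]; unfold sgx
      have a4 : 0 ≤ M * (δ ^ 2 * s2) := by positivity
      have a5 : 3 * M * s2 * (δ ^ 2 / 16) = 3 / 16 * (M * (δ ^ 2 * s2)) := by ring
      have a6 : M * (δ ^ 2 * s2 / 4) = 1 / 4 * (M * (δ ^ 2 * s2)) := by ring
      rw [a5, a6]; linarith
    have m2 : |(Ft z f).ny s| * (κ * r)⁻¹ ≤ M * σ := by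
      have a1 := mul_le_mul_of_nonneg_right n2 (by positivity : 0 ≤ (κ * r)⁻¹)
      have a2 : 3 * M * (κ * s1 * r) * (κ * r)⁻¹ = M * (3 * s1) := by field_simp
      rw [a2] at a1
      exact a1.trans (mul_le_mul_of_nonneg_left hs1σ (by linarith))
    have : TT κ σ r = max (σ ^ 2) ((κ * r)⁻¹) := rfl
    rw [this, mul_max_of_nonneg _ _ hn0]
    exact max_le m1 m2
  have hcmp : ∀ s : ℝ, |s| ≤ r → |(Ft z f).ny s| ≤ M * (κ * u1 * r) := by
    intro s hs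
    obtain ⟨-, n2⟩ := Fny_le h hz hs
    refine n2.trans ?_
    have : M * (κ * (3 * s1) * r) ≤ M * (κ * u1 * r) :=
      mul_le_mul_of_nonneg_left (mul_le_mul_of_nonneg_right
        (mul_le_mul_of_nonneg_left hs1u hκ.le) hr.le) (by linarith)
    linarith
  obtain ⟨Ks, -, hcard, hadm, hcov⟩ := ccov (M := M) (κ := κ) (r := r) (σ := σ) (u1 := u1) (l := l)
    (Γ := 2 * A * s2) (Λ := 7 * A * s2 * r) (N := 10 * A ^ 2 * Y * T * r) hM hr hσ hu1 hl0 hlσ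
    (by positivity) (by positivity) (by positivity) hΓl (f := Ft z f)
    (by rw [Ft_disc]; exact h.F.disc) hny hcmp c (Xt z c X0)
    {p | Pt κ A s1 s2 T rj θj w Y c3 r c X0 f z p.1 p.2} (by
      rintro ⟨C, y⟩ ⟨C', y', x, g1, g2⟩
      have b1 := pl_lat h g1 g2
      have b2 := pl_nrm h g1 g2
      have b3 := pl_ev h g1 g2
      have b4 := pl_ld h g1 g2
      rw [zero_smul, add_zero] at b1
      refine ⟨ext_C h g1, b1, b2, b3, b4.trans ?_⟩
      rw [hu1def]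
      have : 0 ≤ Kp M A Y Gm c3 * θj := by positivity
      linarith)
  -- energy
  have hsd : Sd r u1 σ := by
    refine ⟨?_, hu1, (sgx_le h).trans hs21⟩
    rw [← hth]
    refine hthj.trans ?_
    rw [hu1def]
    have : θj ≤ Kp M A Y Gm c3 * θj := le_mul_of_one_le_left hθ.le hK
    have h0 : 0 ≤ Kp M A Y Gm c3 * θj := by positivity
    linarith
  refine (enc_cov hth dens hsd Ks hadm ?_).trans (ENNReal.ofReal_le_ofReal ?_)
  · intro m hm y hy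
    exact hcov (cen th m, y) (hW m hm y hy)
  -- numbers
  have hq1 : σ ^ q ≤ s2 ^ q := Real.rpow_le_rpow hσ.le (sgx_le h) hq
  have hσq : 0 ≤ σ ^ q := Real.rpow_nonneg hσ.le _
  have hs2q : 0 ≤ s2 ^ q := Real.rpow_nonneg hs2.le _
  have hsc := sc_bd h hTT
  have hNC := NC_bd h hTT
  have hsc0 : 0 ≤ scost κ u1 σ r := by unfold scost; positivity
  have hscj : 0 ≤ scost κ s1 s2 rj := by
    unfold scost
    rw [← hTT]
    have := h.S.r0
    positivity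
  unfold Kx
  set NB := (34 * A / δ ^ 2) ^ 2 * ((1794 * A ^ 2 / δ ^ 4) ^ 2 * (642 * (A ^ 2 * Y) / δ ^ 4)) with hNB
  have hNB0 : 0 ≤ NB := by positivity
  have c1 : D * σ ^ q * scost κ u1 σ r ≤
      D * s2 ^ q * ((30 * Kp M A Y Gm c3 / δ ^ 6) * scost κ s1 s2 rj) :=
    mul_le_mul (mul_le_mul_of_nonneg_left hq1 hD) hsc hsc0 (by positivity)
  calc (Ks.card : ℝ) * (D * σ ^ q * scost κ u1 σ r) ≤
        NB * (D * s2 ^ q * ((30 * Kp M A Y Gm c3 / δ ^ 6) * scost κ s1 s2 rj)) :=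
        mul_le_mul (hcard.trans hNC) c1 (by positivity) hNB0
    _ = _ := by ring

end mass

end Crest.Agent.R116.Mc330
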