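import Crest.Agent.R116.PDefC_299

/-!
# R116, WAVE side: elementary facts about `PDefC_299` (helper299)

* `norm_rnd`, `rnd_sub_le` (`‖rnd δ e - e‖ ≤ δ / 8`), `rdx_near`, `rdx_mem` (finite range);
* `crs` estimates; measurability of `nP`;
* `Sal`, `Smis`: measurable, disjoint, union `uS`.
-/

set_option autoImplicit false

open MeasureTheory
open scoped ENNReal

namespace Crest.Agent.R116.PC299

open Crest.Agent.R138.Defs (E2)
open Crest.Agent.R138.Wpk685 (cen caps)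
open Crest.Agent.R116.CDef480
open Crest.Agent.R116.LZg725 (Cf)
open Crest.Agent.R116.Gc192 (un crs)
open Crest.Agent.R116.WC188

/-! ### rounding -/

/-- the lattice vector. -/
noncomputable def vec (a : ℤ × ℤ) : E2 := WithLp.toLp 2 ![(a.1 : ℝ), (a.2 : ℝ)]

theorem lv_eq (a : ℤ × ℤ) : lv a = ‖vec a‖⁻¹ • vec a := rfl

theorem norm_le_two {x : E2} {t : ℝ} (ht : 0 ≤ t) (h0 : |x 0| ≤ t) (h1 : |x 1| ≤ t) :
    ‖x‖ ≤ 2 * t := by
  have h2 := normsq2 x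
  have h3 : x 0 ^ 2 ≤ t ^ 2 := sq_le_sq' (by linarith [abs_le.1 h0]) (abs_le.1 h0).2
  have h4 : x 1 ^ 2 ≤ t ^ 2 := sq_le_sq' (by linarith [abs_le.1 h1]) (abs_le.1 h1).2
  nlinarith [norm_nonneg x]

theorem abs_coord_le (x : E2) (i : Fin 2) : |x i| ≤ ‖x‖ := by
  have := PiLp.norm_apply_le x i
  simpa using this

theorem floor_close {x η : ℝ} (hη : 0 < η) : |x - η * (⌊x / η⌋ : ℤ)| ≤ η := by
  have h1 := Int.floor_le (x / η)
  have h2 := Int.lt_floor_add_one (x / η)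
  rw [le_div_iff₀ hη] at h1
  rw [div_lt_iff₀ hη] at h2
  rw [abs_le]
  constructor <;> nlinarith

/-- the lattice point close to `e`. -/
theorem sub_vec_le {δ : ℝ} (hδ : 0 < δ) (e : E2) : ‖e - (δ / 32) • vec (rdx δ e)‖ ≤ δ / 16 := by
  have hη : 0 < δ / 32 := by positivity
  have h := norm_le_two (x := e - (δ / 32) • vec (rdx δ e)) hη.le
    (by simpa [vec, rdx] using floor_close (x := e 0) hη)
    (by simpa [vec, rdx] using floor_close (x := e 1) hη)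
  linarith

theorem norm_vec_ge {δ : ℝ} (hδ : 0 < δ) (hδ1 : δ ≤ 1) {e : E2} (he : ‖e‖ = 1) :
    1 - δ / 16 ≤ ‖(δ / 32) • vec (rdx δ e)‖ ∧ ‖(δ / 32) • vec (rdx δ e)‖ ≤ 1 + δ / 16 ∧
      0 < ‖(δ / 32) • vec (rdx δ e)‖ := by
  have h := sub_vec_le hδ e
  have h1 : |‖e‖ - ‖(δ / 32) • vec (rdx δ e)‖| ≤ δ / 16 := (abs_norm_sub_norm_le _ _).trans h
  rw [he, abs_le] at h1
  refine ⟨by linarith, by linarith, by linarith⟩

theorem rnd_eq {δ : ℝ} (hδ : 0 < δ) (e : E2) :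
    rnd δ e = ‖(δ / 32) • vec (rdx δ e)‖⁻¹ • ((δ / 32) • vec (rdx δ e)) := by
  have hη : 0 < δ / 32 := by positivity
  unfold rnd
  rw [lv_eq, norm_smul, Real.norm_of_nonneg hη.le, smul_smul, mul_inv]
  congr 1
  field_simp

theorem norm_rnd {δ : ℝ} (hδ : 0 < δ) (hδ1 : δ ≤ 1) {e : E2} (he : ‖e‖ = 1) : ‖rnd δ e‖ = 1 := by
  obtain ⟨-, -, h⟩ := norm_vec_ge hδ hδ1 he
  rw [rnd_eq hδ, norm_smul, norm_inv, norm_norm, inv_mul_cancel₀ h.ne']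

/-- **the rounded direction is close**. -/
theorem rnd_sub_le {δ : ℝ} (hδ : 0 < δ) (hδ1 : δ ≤ 1) {e : E2} (he : ‖e‖ = 1) :
    ‖rnd δ e - e‖ ≤ δ / 8 := by
  obtain ⟨h1, h2, h3⟩ := norm_vec_ge hδ hδ1 he
  have h4 := sub_vec_le hδ e
  set w := (δ / 32) • vec (rdx δ e) with hw
  have h5 : ‖‖w‖⁻¹ • w - w‖ ≤ δ / 16 := by
    have e1 : ‖w‖⁻¹ • w - w = (‖w‖⁻¹ - 1) • w := by rw [sub_smul, one_smul]
    rw [e1, norm_smul, Real.norm_eq_abs]
    have e2 : |‖w‖⁻¹ - 1| * ‖w‖ = |1 - ‖w‖| := by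
      rw [← abs_of_pos h3, ← abs_mul, abs_of_pos h3, sub_mul, inv_mul_cancel₀ h3.ne', one_mul]
    rw [e2, abs_le]
    constructor <;> linarith
  rw [rnd_eq hδ, ← hw]
  calc ‖‖w‖⁻¹ • w - e‖ = ‖(‖w‖⁻¹ • w - w) - (e - w)‖ := by congr 1; abel
    _ ≤ ‖‖w‖⁻¹ • w - w‖ + ‖e - w‖ := norm_sub_le _ _
    _ ≤ δ / 8 := by linarith

theorem floor_near {x y : ℝ} {k : ℕ} (h : |x - y| ≤ k) : |⌊x⌋ - ⌊y⌋| ≤ (k : ℤ) := by
  obtain ⟨h1, h2⟩ := abs_le.1 h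
  rw [abs_le]
  constructor
  · have : ⌊y - (k : ℤ)⌋ ≤ ⌊x⌋ := Int.floor_le_floor (by push_cast; linarith)
    rw [Int.floor_sub_intCast] at this
    linarith
  · have : ⌊x⌋ ≤ ⌊y + (k : ℤ)⌋ := Int.floor_le_floor (by push_cast; linarith)
    rw [Int.floor_add_intCast] at this
    linarith

/-- nearby directions have nearby indices. -/
theorem rdx_near {δ : ℝ} (hδ : 0 < δ) {e e' : E2} {k : ℕ} (h : ‖e - e'‖ ≤ k * (δ / 32)) :
    |(rdx δ e).1 - (rdx δ e').1| ≤ (k : ℤ) ∧ |(rdx δ e).2 - (rdx δ e').2| ≤ (k : ℤ) := by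
  have hη : 0 < δ / 32 := by positivity
  have key : ∀ i : Fin 2, |e i / (δ / 32) - e' i / (δ / 32)| ≤ k := by
    intro i
    have h1 := (abs_coord_le (e - e') i).trans h
    rw [← sub_div, abs_div, abs_of_pos hη, div_le_iff₀ hη]
    simpa using h1
  exact ⟨floor_near (key 0), floor_near (key 1)⟩

/-- the indices of the directions near `e0`: at most `(2k+1)²`. -/
theorem rdx_mem_near {δ : ℝ} (hδ : 0 < δ) {e0 e : E2} {k : ℕ} (h : ‖e - e0‖ ≤ k * (δ / 32)) :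
    rdx δ e ∈ Finset.Icc ((rdx δ e0).1 - k) ((rdx δ e0).1 + k) ×ˢ
      Finset.Icc ((rdx δ e0).2 - k) ((rdx δ e0).2 + k) := by
  obtain ⟨h1, h2⟩ := rdx_near hδ h
  rw [abs_le] at h1 h2
  rw [Finset.mem_product, Finset.mem_Icc, Finset.mem_Icc]
  omega

theorem card_near (a : ℤ × ℤ) (k : ℕ) :
    (Finset.Icc (a.1 - (k : ℤ)) (a.1 + k) ×ˢ Finset.Icc (a.2 - (k : ℤ)) (a.2 + k)).card =
      (2 * k + 1) ^ 2 := by
  rw [Finset.card_product, Int.card_Icc, Int.card_Icc]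
  have : ∀ b : ℤ, (b + (k : ℤ) + 1 - (b - k)).toNat = 2 * k + 1 := by intro b; omega
  rw [this, this, pow_two]

/-- all unit directions have index in a fixed finite set. -/
theorem rdx_mem {δ : ℝ} (hδ : 0 < δ) {e : E2} (he : ‖e‖ ≤ 1) {N : ℕ} (hN : 32 / δ + 1 ≤ N) :
    rdx δ e ∈ Finset.Icc (-(N : ℤ)) N ×ˢ Finset.Icc (-(N : ℤ)) N := by
  have hη : 0 < δ / 32 := by positivity
  have key : ∀ i : Fin 2, -(N : ℤ) ≤ ⌊e i / (δ / 32)⌋ ∧ ⌊e i / (δ / 32)⌋ ≤ (N : ℤ) := by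
    intro i
    obtain ⟨h1, h2⟩ := abs_le.1 ((abs_coord_le e i).trans he)
    have e1 : e i / (δ / 32) = e i * (32 / δ) := by field_simp
    have h3 : 0 < 32 / δ := by positivity
    rw [e1]
    constructor
    · rw [Int.le_floor]; push_cast; nlinarith
    · rw [← Int.lt_add_one_iff, Int.floor_lt]; push_cast; nlinarith
  rw [Finset.mem_product, Finset.mem_Icc, Finset.mem_Icc]
  exact ⟨key 0, key 1⟩

/-! ### the cross product -/

theorem crs_sub_right (u v w : E2) : crs u (v - w) = crs u v - crs u w := by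
  unfold crs; simp; ring

theorem crs_sub_left (u v w : E2) : crs (u - v) w = crs u w - crs v w := by
  unfold crs; simp; ring

theorem crs_swap (u v : E2) : crs u v = -crs v u := by unfold crs; ring

theorem abs_crs_le (u v : E2) : |crs u v| ≤ ‖u‖ * ‖v‖ := by
  have h : crs u v ^ 2 ≤ (‖u‖ * ‖v‖) ^ 2 := by
    rw [mul_pow, normsq2, normsq2]
    unfold crs
    nlinarith [sq_nonneg (u 0 * v 0 + u 1 * v 1)]
  have h0 : 0 ≤ ‖u‖ * ‖v‖ := by positivity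
  exact abs_le_of_sq_le_sq h h0

/-- own normal against rounded normal. -/
theorem crs_rnd_le {δ : ℝ} (hδ : 0 < δ) (hδ1 : δ ≤ 1) {u e : E2} (hu : ‖u‖ ≤ 1) (he : ‖e‖ = 1) :
    |crs u (rnd δ e) - crs u e| ≤ δ / 8 := by
  rw [← crs_sub_right]
  refine (abs_crs_le _ _).trans ?_
  have h1 := rnd_sub_le hδ hδ1 he
  nlinarith [norm_nonneg u, norm_nonneg (rnd δ e - e)]

theorem norm_un_le (p : Cf E2) (C x : E2) (s : ℝ) : ‖un p C x s‖ ≤ 1 := by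
  unfold un
  rw [norm_smul, norm_inv, norm_norm]
  rcases eq_or_ne ‖p.gr C x s‖ 0 with h | h
  · rw [h]; simp
  · rw [inv_mul_cancel₀ h]

theorem norm_nP_le (th : ℝ) (f : Cf E2) (m : ℤ × ℤ) (y : E3) : ‖nP th f m y‖ ≤ 1 :=
  norm_un_le _ _ _ _

theorem norm_nP {th : ℝ} {f : Cf E2} {m : ℤ × ℤ} {y : E3} {k : ℝ} (hk : 0 < k)
    (h : k ≤ ‖f.gr (cen th m) (lat y) 0‖) : ‖nP th f m y‖ = 1 := Gc192.norm_un hk h

/-! ### measurability -/

theorem continuous_gr (f : Cf E2) (C : E2) (s : ℝ) : Continuous fun x : E2 => f.gr C x s := by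
  unfold LZg725.Cf.gr
  fun_prop

theorem measurable_nP (th : ℝ) (f : Cf E2) (m : ℤ × ℤ) : Measurable (nP th f m) := by
  unfold nP un
  have h : Measurable fun y : E3 => f.gr (cen th m) (lat y) 0 :=
    (continuous_gr f _ _).measurable.comp measurable_lat
  exact h.norm.inv.smul h

theorem measurable_crs (N : E2) : Measurable fun u : E2 => crs u N := by
  unfold crs
  fun_prop

theorem measurableSet_al (δ th : ℝ) (f : Cf E2) (m : ℤ × ℤ) (N : E2) :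
    MeasurableSet {y : E3 | |crs (nP th f m y) N| ≤ δ} :=
  measurableSet_le ((measurable_crs N).comp (measurable_nP th f m)).abs measurable_const

theorem Sal_eq (δ θ : ℝ) (N : E2) (I1 : Finset ℕ) (P1 : ℕ → Plate) (m : ℤ × ℤ) :
    Sal δ θ N I1 P1 m = ⋃ i ∈ I1, ({y : E3 | |crs (nP θ (P1 i).f m y) N| ≤ δ} ∩ (P1 i).S m) := by
  ext y
  rw [Set.mem_iUnion₂]
  constructor
  · rintro ⟨i, hi, h1, hy⟩
    exact ⟨i, hi, h1, hy⟩
  · rintro ⟨i, hi, h1, hy⟩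
    exact ⟨i, hi, h1, hy⟩

theorem Smis_eq (δ θ : ℝ) (N : E2) (I1 : Finset ℕ) (P1 : ℕ → Plate) (m : ℤ × ℤ) :
    Smis δ θ N I1 P1 m = ⋃ i ∈ I1, ({y : E3 | |crs (nP θ (P1 i).f m y) N| ≤ δ}ᶜ ∩ (P1 i).S m) := by
  ext y
  rw [Set.mem_iUnion₂]
  constructor
  · rintro ⟨i, hi, h1, hy⟩
    exact ⟨i, hi, not_le.2 h1, hy⟩
  · rintro ⟨i, hi, h1, hy⟩
    exact ⟨i, hi, not_le.1 h1, hy⟩

variable {δ θ : ℝ} {N : E2} {I1 : Finset ℕ} {P1 : ℕ → Plate}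

theorem measurableSet_Sal (h : ∀ i ∈ I1, ∀ m, MeasurableSet ((P1 i).S m)) (m : ℤ × ℤ) :
    MeasurableSet (Sal δ θ N I1 P1 m) := by
  rw [Sal_eq]
  exact Finset.measurableSet_biUnion _ fun i hi => (measurableSet_al _ _ _ _ _).inter (h i hi m)

theorem measurableSet_Smis (h : ∀ i ∈ I1, ∀ m, MeasurableSet ((P1 i).S m)) (m : ℤ × ℤ) :
    MeasurableSet (Smis δ θ N I1 P1 m) := by
  rw [Smis_eq]
  exact Finset.measurableSet_biUnion _ fun i hi =>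
    (measurableSet_al _ _ _ _ _).compl.inter (h i hi m)

theorem Sal_subset (m : ℤ × ℤ) : Sal δ θ N I1 P1 m ⊆ uS I1 P1 m := by
  rintro y ⟨i, hi, -, hy⟩
  exact Set.mem_biUnion hi hy

theorem Smis_subset (m : ℤ × ℤ) : Smis δ θ N I1 P1 m ⊆ uS I1 P1 m := by
  rintro y ⟨i, hi, -, hy⟩
  exact Set.mem_biUnion hi hy

theorem Sal_mono {δ' : ℝ} (h : δ ≤ δ') (m : ℤ × ℤ) : Sal δ θ N I1 P1 m ⊆ Sal δ' θ N I1 P1 m := by
  rintro y ⟨i, hi, h1, hy⟩
  exact ⟨i, hi, h1.trans h, hy⟩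

/-- the aligned and misaligned parts are the whole selection. -/
theorem Sal_union_Smis (m : ℤ × ℤ) :
    Sal δ θ N I1 P1 m ∪ Smis δ θ N I1 P1 m = uS I1 P1 m := by
  ext y
  constructor
  · rintro (h | h)
    · exact Sal_subset m h
    · exact Smis_subset m h
  · intro h
    unfold uS at h
    rw [Set.mem_iUnion₂] at h
    obtain ⟨i, hi, hy⟩ := h
    by_cases h1 : |crs (nP θ (P1 i).f m y) N| ≤ δ
    · exact Or.inl ⟨i, hi, h1, hy⟩
    · exact Or.inr ⟨i, hi, not_le.1 h1, hy⟩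

theorem disjoint_Sal_Smis
    (hd : ∀ i ∈ I1, ∀ j ∈ I1, i ≠ j → ∀ m, Disjoint ((P1 i).S m) ((P1 j).S m)) (m : ℤ × ℤ) :
    Disjoint (Sal δ θ N I1 P1 m) (Smis δ θ N I1 P1 m) := by
  rw [Set.disjoint_left]
  rintro y ⟨i, hi, h1, hy⟩ ⟨j, hj, h2, hy'⟩
  rcases eq_or_ne i j with rfl | hne
  · exact absurd h1 (not_le.2 h2)
  · exact Set.disjoint_left.1 (hd i hi j hj hne m) hy hy'

end Crest.Agent.R116.PC299
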