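import Crest.Agent.R116.Mwc1_748
import Crest.Agent.R116.PDf1_299
import Crest.Agent.R116.Ckm1_538

/-!
# R116 (S0155), wave side: MIS for the cone, wave half, part 2 (helper748): cells

Index `T = (i, (m, k))`: plate `i`, cap `m`, cell `k` of the frame of the slope `cen th m`, sizes
`w = th⁻¹`, `B = κ⁻¹`.  `slT`, `ptT`, `TS`, `muE`, `muT`, `Ic`; (B1)-(B4).
-/

set_option autoImplicit false
set_option linter.unusedVariables false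
set_option linter.unusedSectionVars false

open MeasureTheory
open scoped ENNReal

namespace Crest.Agent.R116.Mwc748

open Crest.Agent.R138.Defs (E2)
open Crest.Agent.R138.Wpk685 (cen caps)
open Crest.Agent.R116.CDef480
open Crest.Agent.R116.Ckm538 (cix cpt near_cpt measurable_cix)
open Crest.Agent.R116.WC188

/-- index of a cell. -/
abbrev Idx := ℕ × ((ℤ × ℤ) × (ℤ × ℤ × ℤ))

/-- slope. -/
noncomputable def slT (th : ℝ) (T : Idx) : E2 := cen th T.2.1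

/-- reference point. -/
noncomputable def ptT (th κ : ℝ) (T : Idx) : E3 := cpt th⁻¹ κ⁻¹ (cen th T.2.1) T.2.2

/-- the part of the selection of the plate in the cell. -/
def TS (th κ : ℝ) (P1 : ℕ → Plate) (T : Idx) : Set E3 :=
  (P1 T.1).S T.2.1 ∩ {y | cix th⁻¹ κ⁻¹ (cen th T.2.1) y = T.2.2}

/-- energy of the cell. -/
noncomputable def muE (th κ : ℝ) (g : E3 → ℂ) (P1 : ℕ → Plate) (T : Idx) : ℝ≥0∞ :=
  ∫⁻ y in TS th κ P1 T, ‖umc th g T.2.1 y‖ₑ ^ 2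

/-- real version. -/
noncomputable def muT (th κ : ℝ) (g : E3 → ℂ) (P1 : ℕ → Plate) (T : Idx) : ℝ :=
  (muE th κ g P1 T).toReal

theorem muT_nonneg (th κ : ℝ) (g : E3 → ℂ) (P1 : ℕ → Plate) (T : Idx) : 0 ≤ muT th κ g P1 T :=
  ENNReal.toReal_nonneg

/-- box of indices. -/
noncomputable def kb (N : ℕ) : Finset (ℤ × ℤ × ℤ) :=
  Finset.Icc (-(N : ℤ)) N ×ˢ (Finset.Icc (-(N : ℤ)) N ×ˢ Finset.Icc (-(N : ℤ)) N)

/-- number of cells in one direction. -/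
noncomputable def Nc (K th κ : ℝ) : ℕ := ⌈9 * K * (th + κ)⌉₊ + 1

theorem caps_norm {ρ : ℝ} (hρ : 0 < ρ) (hρ1 : ρ ≤ 1) {m : ℤ × ℤ} (hm : m ∈ caps ρ) :
    ‖cen ρ m‖ ≤ 8 := by
  unfold caps at hm
  rw [Finset.mem_product, Finset.mem_Icc, Finset.mem_Icc] at hm
  obtain ⟨⟨a1, a2⟩, ⟨b1, b2⟩⟩ := hm
  have hc : (⌈2 / ρ⌉ : ℝ) < 2 / ρ + 1 := Int.ceil_lt_add_one _
  have key : ∀ k : ℤ, -⌈2 / ρ⌉ - 1 ≤ k → k ≤ ⌈2 / ρ⌉ + 1 → |ρ * (k:ℝ)| ≤ 4 := by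
    intro k h1 h2
    have h1' : (-(⌈2 / ρ⌉ : ℝ)) - 1 ≤ k := by exact_mod_cast h1
    have h2' : (k:ℝ) ≤ (⌈2 / ρ⌉ : ℝ) + 1 := by exact_mod_cast h2
    have h3 : ρ * (2 / ρ) = 2 := by field_simp
    rw [abs_le]
    constructor
    · have := mul_le_mul_of_nonneg_left (show -(2 / ρ + 2) ≤ (k:ℝ) by linarith) hρ.le
      nlinarith
    · have := mul_le_mul_of_nonneg_left (show (k:ℝ) ≤ 2 / ρ + 2 by linarith) hρ.le
      nlinarith
  have h1 := key m.1 a1 a2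
  have h2 := key m.2 b1 b2
  unfold cen
  rw [EuclideanSpace.norm_eq, Fin.sum_univ_two]
  refine Real.sqrt_le_iff.2 ⟨by norm_num, ?_⟩
  simp only [Real.norm_eq_abs, sq_abs]
  have e1 := sq_le_sq' (abs_le.1 h1).1 (abs_le.1 h1).2
  have e2 := sq_le_sq' (abs_le.1 h2).1 (abs_le.1 h2).2
  show (ρ * (m.1:ℝ)) ^ 2 + (ρ * (m.2:ℝ)) ^ 2 ≤ 8 ^ 2
  linarith

theorem cix_mem {th κ K : ℝ} (hth : 0 < th) (hκ : 0 < κ) (hK : 0 ≤ K) {C : E2} (hC : ‖C‖ ≤ 8)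
    {y : E3} (hy : ‖y‖ ≤ K) : cix th⁻¹ κ⁻¹ C y ∈ kb (Nc K th κ) := by
  have hN : 9 * K * (th + κ) + 1 ≤ (Nc K th κ : ℝ) := by
    unfold Nc
    push_cast
    have := Nat.le_ceil (9 * K * (th + κ))
    linarith
  have key : ∀ t : ℝ, |t| ≤ 9 * K * (th + κ) → ⌊t⌋ ∈ Finset.Icc (-(Nc K th κ : ℤ)) (Nc K th κ) := by
    intro t ht
    obtain ⟨h3, h4⟩ := abs_le.1 ht
    have h5 := Int.floor_le t
    have h6 := Int.lt_floor_add_one t
    rw [Finset.mem_Icc]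
    constructor
    · have : (-(Nc K th κ : ℝ)) ≤ ⌊t⌋ := by linarith
      exact_mod_cast this
    · have : ((⌊t⌋ : ℤ) : ℝ) ≤ Nc K th κ := by linarith
      exact_mod_cast this
  have hc : ∀ i : Fin 3, |y i| ≤ K := fun i => by
    have := PiLp.norm_apply_le y i
    rw [Real.norm_eq_abs] at this
    exact this.trans hy
  have hn : |nrm C y 0| ≤ 9 * K := by
    have h1 := Ckm538.nrm0_le C y
    have h2 := hc 2
    have h3 := (Ckm538.lat_norm_le y).trans hy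
    have h4 : ‖C‖ * ‖lat y‖ ≤ 8 * K := mul_le_mul hC h3 (norm_nonneg _) (by norm_num)
    linarith
  unfold cix kb
  rw [Finset.mem_product, Finset.mem_product]
  refine ⟨key _ ?_, key _ ?_, key _ ?_⟩
  · rw [div_inv_eq_mul, abs_mul, abs_of_pos hth]
    have := mul_le_mul_of_nonneg_right (hc 0) hth.le
    nlinarith [mul_nonneg hK hth.le, mul_nonneg hK hκ.le]
  · rw [div_inv_eq_mul, abs_mul, abs_of_pos hth]
    have := mul_le_mul_of_nonneg_right (hc 1) hth.le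
    nlinarith [mul_nonneg hK hth.le, mul_nonneg hK hκ.le]
  · rw [div_inv_eq_mul, abs_mul, abs_of_pos hκ]
    have := mul_le_mul_of_nonneg_right hn hκ.le
    nlinarith [mul_nonneg hK hth.le, mul_nonneg hK hκ.le]

open Classical in
/-- the nonempty cells. -/
noncomputable def Ic (K th κ : ℝ) (I1 : Finset ℕ) (P1 : ℕ → Plate) : Finset Idx :=
  (I1 ×ˢ (caps th ×ˢ kb (Nc K th κ))).filter fun T => (TS th κ P1 T).Nonempty

theorem mem_Ic {K th κ : ℝ} {I1 : Finset ℕ} {P1 : ℕ → Plate} {T : Idx} :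
    T ∈ Ic K th κ I1 P1 ↔ T.1 ∈ I1 ∧ T.2.1 ∈ caps th ∧ T.2.2 ∈ kb (Nc K th κ) ∧
      (TS th κ P1 T).Nonempty := by
  classical
  unfold Ic
  rw [Finset.mem_filter, Finset.mem_product, Finset.mem_product]
  tauto

/-- (B4) -/
theorem Ic_pt {K th κ : ℝ} (hth : 0 < th) (hκ : 0 < κ) {I1 : Finset ℕ} {P1 : ℕ → Plate} {T : Idx}
    {y : E3} (hy : y ∈ TS th κ P1 T) :
    y ∈ (P1 T.1).S T.2.1 ∧ ‖lat (y - ptT th κ T)‖ ≤ 2 * th⁻¹ ∧
      |nrm (slT th T) (y - ptT th κ T) 0| ≤ κ⁻¹ := by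
  have h := near_cpt (w := th⁻¹) (ρ := κ⁻¹) (inv_pos.2 hth) (inv_pos.2 hκ) (cen th T.2.1) y
  have h1 : cix th⁻¹ κ⁻¹ (cen th T.2.1) y = T.2.2 := hy.2
  rw [h1] at h
  exact ⟨hy.1, h.1, h.2⟩

/-- two points of a cell. -/
theorem cell_frc {th κ : ℝ} (hth : 0 < th) (hκ : 0 < κ) {P1 : ℕ → Plate} {T : Idx}
    {y : E3} (hy : y ∈ TS th κ P1 T) : ‖Cad538.frc th κ (slT th T) (y - ptT th κ T)‖ ≤ 3 := by
  obtain ⟨-, h1, h2⟩ := Ic_pt (I1 := ∅) (K := 0) hth hκ hy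
  refine (Cad538.norm_frc_le hth.le hκ.le _ _).trans ?_
  have h3 := mul_le_mul_of_nonneg_left h1 hth.le
  have h4 := mul_le_mul_of_nonneg_left h2 hκ.le
  have e1 : th * (2 * th⁻¹) = 2 := by field_simp
  have e2 : κ * κ⁻¹ = 1 := by field_simp
  rw [e1] at h3
  rw [e2] at h4
  linarith

theorem TS_meas {th κ : ℝ} {P1 : ℕ → Plate} {T : Idx} (h : MeasurableSet ((P1 T.1).S T.2.1)) :
    MeasurableSet (TS th κ P1 T) :=
  h.inter ((measurable_cix th⁻¹ κ⁻¹ (cen th T.2.1)) (measurableSet_singleton T.2.2))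

/-- finiteness. -/
theorem muE_fin {K th κ : ℝ} {g : E3 → ℂ} (hg : Integrable g) {P1 : ℕ → Plate} {T : Idx}
    (hb : ∀ y ∈ (P1 T.1).S T.2.1, ‖y‖ ≤ K) : muE th κ g P1 T ≠ ⊤ := by
  unfold muE
  have h1 : TS th κ P1 T ⊆ Metric.closedBall 0 K := by
    intro y hy
    rw [mem_closedBall_zero_iff]
    exact hb y hy.1
  set M : ℝ := ∫ ζ, ‖capc th T.2.1 ζ * g ζ‖ with hM
  refine ne_top_of_le_ne_top (b := ENNReal.ofReal (M ^ 2) * volume (Metric.closedBall (0 : E3) K))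
    ?_ ?_
  · exact ENNReal.mul_ne_top ENNReal.ofReal_ne_top measure_closedBall_lt_top.ne
  · refine (lintegral_mono_set h1).trans ?_
    rw [← setLIntegral_const]
    refine lintegral_mono fun y => ?_
    rw [← ofReal_norm, ← ENNReal.ofReal_pow (norm_nonneg _)]
    exact ENNReal.ofReal_le_ofReal (pow_le_pow_left₀ (norm_nonneg _) (CWd480.umc_le th T.2.1 y) 2)

section sums

variable {K th κ : ℝ} {g : E3 → ℂ} {I1 : Finset ℕ} {P1 : ℕ → Plate}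

theorem ofReal_muT (hg : Integrable g) {T : Idx} (hb : ∀ y ∈ (P1 T.1).S T.2.1, ‖y‖ ≤ K) :
    ENNReal.ofReal (muT th κ g P1 T) = muE th κ g P1 T :=
  ENNReal.ofReal_toReal (muE_fin hg hb)

/-- mass of a family of cells, upper bound. -/
theorem sum_le_enc (hm : ∀ i ∈ I1, ∀ m, MeasurableSet ((P1 i).S m))
    (hd : ∀ i ∈ I1, ∀ j ∈ I1, i ≠ j → ∀ m, Disjoint ((P1 i).S m) ((P1 j).S m))
    (F : Finset Idx) (hF : ∀ T ∈ F, T.1 ∈ I1 ∧ T.2.1 ∈ caps th) (U : ℤ × ℤ → Set E3)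
    (hU : ∀ T ∈ F, TS th κ P1 T ⊆ U T.2.1) :
    ∑ T ∈ F, muE th κ g P1 T ≤ enc th g U := by
  classical
  unfold enc
  rw [← Finset.sum_fiberwise_of_maps_to (t := caps th) (g := fun T : Idx => T.2.1)
    (fun T hT => (hF T hT).2)]
  refine Finset.sum_le_sum fun m _ => ?_
  have e1 : ∑ T ∈ F with T.2.1 = m, muE th κ g P1 T =
      ∫⁻ y in ⋃ T ∈ F.filter (fun T => T.2.1 = m), TS th κ P1 T, ‖umc th g m y‖ₑ ^ 2 := by
    rw [lintegral_biUnion_finset]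
    · refine Finset.sum_congr rfl fun T hT => ?_
      have h1 := (Finset.mem_filter.1 hT).2
      unfold muE
      rw [h1]
    · intro T hT T' hT' hne
      rw [Function.onFun, Set.disjoint_left]
      rintro y ⟨h1, h2⟩ ⟨h3, h4⟩
      obtain ⟨a1, a2⟩ := Finset.mem_filter.1 (Finset.mem_coe.1 hT)
      obtain ⟨b1, b2⟩ := Finset.mem_filter.1 (Finset.mem_coe.1 hT')
      have h2' : cix th⁻¹ κ⁻¹ (cen th T.2.1) y = T.2.2 := h2
      have h4' : cix th⁻¹ κ⁻¹ (cen th T'.2.1) y = T'.2.2 := h4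
      have hmm : T.2.1 = T'.2.1 := a2.trans b2.symm
      by_cases hab : T.1 = T'.1
      · apply hne
        refine Prod.ext hab (Prod.ext hmm ?_)
        rw [← h2', ← h4', hmm]
      · refine Set.disjoint_left.1 (hd _ (hF T a1).1 _ (hF T' b1).1 hab T.2.1) h1 ?_
        rw [hmm]
        exact h3
    · intro T hT
      obtain ⟨a1, a2⟩ := Finset.mem_filter.1 hT
      exact TS_meas (hm _ (hF T a1).1 _)
  rw [e1]
  refine lintegral_mono_set ?_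
  intro y hy
  simp only [Set.mem_iUnion, exists_prop] at hy
  obtain ⟨T, hT, hyT⟩ := hy
  obtain ⟨a1, a2⟩ := Finset.mem_filter.1 hT
  have := hU T a1 hyT
  rwa [a2] at this

/-- finite subadditivity over a cover of the domain. -/
theorem lint_cover3 {ι : Type*} (J : Finset ι) (U : Set E3) (V : ι → Set E3)
    (h : ∀ y ∈ U, ∃ j ∈ J, y ∈ V j) (f : E3 → ℝ≥0∞) :
    ∫⁻ y in U, f y ≤ ∑ j ∈ J, ∫⁻ y in V j, f y := by
  classical
  have h1 : U ⊆ ⋃ j : {j // j ∈ J}, V j.1 := by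
    intro y hy
    obtain ⟨j, hj, hyj⟩ := h y hy
    exact Set.mem_iUnion.2 ⟨⟨j, hj⟩, hyj⟩
  refine (lintegral_mono_set h1).trans ((lintegral_iUnion_le _ _).trans ?_)
  rw [tsum_fintype, ← Finset.sum_coe_sort J (fun j => ∫⁻ y in V j, f y)]

/-- mass of a family of cells, lower bound. -/
theorem enc_le_sum (F : Finset Idx) (U : ℤ × ℤ → Set E3)
    (hU : ∀ m ∈ caps th, ∀ y ∈ U m, ∃ T ∈ F, T.2.1 = m ∧ y ∈ TS th κ P1 T) :
    enc th g U ≤ ∑ T ∈ F, muE th κ g P1 T := by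
  classical
  unfold enc
  have h1 : ∀ m ∈ caps th, ∫⁻ y in U m, ‖umc th g m y‖ₑ ^ 2 ≤
      ∑ T ∈ F with T.2.1 = m, muE th κ g P1 T := by
    intro m hm
    refine (lint_cover3 (F.filter fun T => T.2.1 = m) (U m) (fun T => TS th κ P1 T) ?_ _).trans
      (le_of_eq ?_)
    · intro y hy
      obtain ⟨T, hT, h2, h3⟩ := hU m hm y hy
      exact ⟨T, Finset.mem_filter.2 ⟨hT, h2⟩, h3⟩
    · refine Finset.sum_congr rfl fun T hT => ?_
      have h2 := (Finset.mem_filter.1 hT).2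
      unfold muE
      rw [h2]
  refine (Finset.sum_le_sum h1).trans ?_
  have h2 : ∑ m ∈ caps th, ∑ T ∈ F with T.2.1 = m, muE th κ g P1 T =
      ∑ T ∈ F with T.2.1 ∈ caps th, muE th κ g P1 T := by
    rw [← Finset.sum_fiberwise_of_maps_to (t := caps th) (g := fun T : Idx => T.2.1)
      (s := F.filter fun T => T.2.1 ∈ caps th) (fun T hT => (Finset.mem_filter.1 hT).2)]
    refine Finset.sum_congr rfl fun m hm => ?_
    refine Finset.sum_congr ?_ fun _ _ => rfl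
    ext T
    simp only [Finset.mem_filter]
    constructor
    · rintro ⟨a, b⟩
      exact ⟨⟨a, b ▸ hm⟩, b⟩
    · rintro ⟨⟨a, _⟩, b⟩
      exact ⟨a, b⟩
  rw [h2]
  exact Finset.sum_le_sum_of_subset (Finset.filter_subset _ _)

theorem exists_cell (hth : 0 < th) (hth1 : th ≤ 1) (hκ : 0 < κ) (hK : 0 ≤ K)
    (hb : ∀ i ∈ I1, ∀ m, ∀ y ∈ (P1 i).S m, ‖y‖ ≤ K) {i : ℕ} (hi : i ∈ I1) {m : ℤ × ℤ}
    (hm : m ∈ caps th) {y : E3} (hy : y ∈ (P1 i).S m) :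
    ∃ T ∈ Ic K th κ I1 P1, T.1 = i ∧ T.2.1 = m ∧ y ∈ TS th κ P1 T := by
  have h1 : y ∈ TS th κ P1 (i, (m, cix th⁻¹ κ⁻¹ (cen th m) y)) := ⟨hy, rfl⟩
  exact ⟨(i, (m, cix th⁻¹ κ⁻¹ (cen th m) y)),
    mem_Ic.2 ⟨hi, hm, cix_mem hth hκ hK (caps_norm hth hth1 hm) (hb i hi m y hy), y, h1⟩,
    rfl, rfl, h1⟩

/-- (B1) in `muE` form. -/
theorem tot_muE (hth : 0 < th) (hth1 : th ≤ 1) (hκ : 0 < κ) (hK : 0 ≤ K)
    (hm : ∀ i ∈ I1, ∀ m, MeasurableSet ((P1 i).S m))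
    (hd : ∀ i ∈ I1, ∀ j ∈ I1, i ≠ j → ∀ m, Disjoint ((P1 i).S m) ((P1 j).S m))
    (hb : ∀ i ∈ I1, ∀ m, ∀ y ∈ (P1 i).S m, ‖y‖ ≤ K) :
    ∑ T ∈ Ic K th κ I1 P1, muE th κ g P1 T = enc th g (uS I1 P1) := by
  refine le_antisymm (sum_le_enc hm hd _ (fun T hT => ⟨(mem_Ic.1 hT).1, (mem_Ic.1 hT).2.1⟩) _ ?_)
    (enc_le_sum _ _ ?_)
  · intro T hT y hy
    exact Set.mem_biUnion (mem_Ic.1 hT).1 hy.1
  · intro m hmm y hy
    unfold uS at hy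
    rw [Set.mem_iUnion₂] at hy
    obtain ⟨i, hi, hyi⟩ := hy
    obtain ⟨T, hT, h1, h2, h3⟩ := exists_cell hth hth1 hκ hK hb hi hmm hyi
    exact ⟨T, hT, h2, h3⟩

/-- (B2) in `muE` form. -/
theorem plate_muE (hth : 0 < th) (hth1 : th ≤ 1) (hκ : 0 < κ) (hK : 0 ≤ K)
    (hm : ∀ i ∈ I1, ∀ m, MeasurableSet ((P1 i).S m))
    (hd : ∀ i ∈ I1, ∀ j ∈ I1, i ≠ j → ∀ m, Disjoint ((P1 i).S m) ((P1 j).S m))
    (hb : ∀ i ∈ I1, ∀ m, ∀ y ∈ (P1 i).S m, ‖y‖ ≤ K) {i : ℕ} (hi : i ∈ I1)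
    [DecidablePred fun T : Idx => T.1 = i] :
    ∑ T ∈ (Ic K th κ I1 P1).filter (fun T => T.1 = i), muE th κ g P1 T = enc th g (P1 i).S := by
  refine le_antisymm (sum_le_enc hm hd _ (fun T hT => ?_) _ ?_) (enc_le_sum _ _ ?_)
  · have h := mem_Ic.1 (Finset.mem_filter.1 hT).1
    exact ⟨h.1, h.2.1⟩
  · intro T hT y hy
    have h1 := (Finset.mem_filter.1 hT).2
    have := hy.1
    rwa [h1] at this
  · intro m hmm y hy
    obtain ⟨T, hT, h1, h2, h3⟩ := exists_cell hth hth1 hκ hK hb hi hmm hy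
    exact ⟨T, Finset.mem_filter.2 ⟨hT, h1⟩, h2, h3⟩

/-- (B3) in `muE` form. -/
theorem box_muE (hm : ∀ i ∈ I1, ∀ m, MeasurableSet ((P1 i).S m))
    (hd : ∀ i ∈ I1, ∀ j ∈ I1, i ≠ j → ∀ m, Disjoint ((P1 i).S m) ((P1 j).S m))
    (V : ℤ × ℤ → Set E3) [DecidablePred fun T : Idx => ptT th κ T ∈ V T.2.1] :
    ∑ T ∈ (Ic K th κ I1 P1).filter (fun T => ptT th κ T ∈ V T.2.1), muE th κ g P1 T ≤
      enc th g (fun m => uS I1 P1 m ∩
        {y | cpt th⁻¹ κ⁻¹ (cen th m) (cix th⁻¹ κ⁻¹ (cen th m) y) ∈ V m}) := by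
  refine sum_le_enc hm hd _ (fun T hT => ?_) _ ?_
  · have h := mem_Ic.1 (Finset.mem_filter.1 hT).1
    exact ⟨h.1, h.2.1⟩
  · intro T hT y hy
    obtain ⟨h1, h2⟩ := Finset.mem_filter.1 hT
    refine ⟨Set.mem_biUnion (mem_Ic.1 h1).1 hy.1, ?_⟩
    have h3 : cix th⁻¹ κ⁻¹ (cen th T.2.1) y = T.2.2 := hy.2
    show cpt th⁻¹ κ⁻¹ (cen th T.2.1) (cix th⁻¹ κ⁻¹ (cen th T.2.1) y) ∈ V T.2.1
    rw [h3]
    exact h2

/-- sums of `muT`. -/
theorem sum_muT (hg : Integrable g) (hb : ∀ i ∈ I1, ∀ m, ∀ y ∈ (P1 i).S m, ‖y‖ ≤ K)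
    (F : Finset Idx) (hF : F ⊆ Ic K th κ I1 P1) :
    ENNReal.ofReal (∑ T ∈ F, muT th κ g P1 T) = ∑ T ∈ F, muE th κ g P1 T := by
  rw [ENNReal.ofReal_sum_of_nonneg fun T _ => muT_nonneg _ _ _ _ _]
  exact Finset.sum_congr rfl fun T hT => ofReal_muT hg (hb _ (mem_Ic.1 (hF hT)).1 _)

end sums

end Crest.Agent.R116.Mwc748
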