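import Crest.Agent.R116.Mc7_330
import Crest.Agent.R116.Ckm3_538
import Crest.Agent.R116.Mwc2_748

/-!
# R116 (S0155), misaligned step: light boxes and cells (helper330)

`iso_mass` = energy of the phase points of a light box of aperture `ψ` (from the box bound with the
linear conformal function); `iso_cells` = the same for the cells of helper748.
-/

set_option autoImplicit false

open MeasureTheory
open scoped ENNReal

namespace Crest.Agent.R116.Mc330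

open Crest.Agent.R138.Defs (E2)
open Crest.Agent.R138.Wpk685 (cen caps)
open Crest.Agent.R116.CDef480 (E3 lat pt vel umc enc)
open Crest.Agent.R116.LZg725 (Cf)
open Crest.Agent.R116.WC188 (TT Adm mset scost pbx Sd Plate uS)
open Crest.Agent.R116.Gc192 (un crs)
open Crest.Agent.R116.Ma448 (PL BX)
open Crest.Agent.R116.Ckm538 (linf linf_ev linf_ny linf_disc linf_ld e0 norm_e0)

/-- energy of a light box. -/
theorem iso_mass {M κ r ψ w D q : ℝ} (hM : 1 ≤ M) (hκ : 0 < κ) (hr : 0 < r) (hψ : 0 < ψ)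
    (hψ1 : 8 * ψ ≤ 1) (hψr : r * ψ ^ 2 ≤ κ⁻¹) {th : ℝ} (hth : th = r ^ (-(1/2) : ℝ))
    (hthψ : th ≤ ψ) (hD : 0 ≤ D) (hq : 0 ≤ q) (hq1 : q ≤ 1) {g : E3 → ℂ} {S W : ℤ × ℤ → Set E3}
    (dens : ∀ (c : E2) (X0 : E3) (f : Cf E2) (v1 v2 : ℝ), Sd r v1 v2 →
      Adm M κ v1 v2 (TT κ v2 r) r c X0 f →
      enc th g (fun m => S m ∩ pbx κ 1 r v1 v2 c X0 f m) ≤
        ENNReal.ofReal (D * v2 ^ q * scost κ v1 v2 r)) (c : E2) (X0 : E3)
    (hW : ∀ m ∈ caps th, ∀ y ∈ S m ∩ W m, ‖cen th m - c‖ ≤ ψ ∧ ‖lat y - lat X0‖ ≤ 5 * r * ψ ∧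
      |CDef480.nrm c y 0 - CDef480.nrm c X0 0| ≤ 7 * κ⁻¹) :
    enc th g (fun m => S m ∩ W m) ≤
      ENNReal.ofReal (124420096 * D * ψ ^ q * (ψ ^ 2 * (κ⁻¹ * r ^ 2))) := by
  have hσ : (0:ℝ) < 8 * ψ := by positivity
  have hTx : 0 < TT κ (8 * ψ) r := TT_pos' hσ
  have hTr : TT κ (8 * ψ) r * r = max (64 * (r * ψ ^ 2)) κ⁻¹ := by
    unfold TT
    rw [max_mul_of_nonneg _ _ hr.le]
    congr 1
    · ring
    · field_simp
  have hTr1 : κ⁻¹ ≤ TT κ (8 * ψ) r * r := by rw [hTr]; exact le_max_right _ _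
  have hB : 0 < κ⁻¹ := inv_pos.2 hκ
  have hTr2 : TT κ (8 * ψ) r * r ≤ 64 * κ⁻¹ := by
    rw [hTr]
    exact max_le (by linarith) (by linarith)
  have hTr3 : 64 * (r * ψ ^ 2) ≤ TT κ (8 * ψ) r * r := by rw [hTr]; exact le_max_left _ _
  set f : Cf E2 := linf c (lat X0) with hf
  have hfny : ∀ s, f.ny s = 0 := fun s => linf_ny c (lat X0) s
  obtain ⟨Ks, -, hcard, hadm, hcov⟩ := ccov (M := M) (κ := κ) (r := r) (σ := 8 * ψ) (u1 := 8 * ψ)
    (l := 8 * ψ * r) (Γ := ψ) (Λ := 5 * r * ψ) (N := 7 * κ⁻¹) hM hr hσ le_rfl (by positivity) le_rfl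
    hψ.le (by positivity) (by positivity) (by nlinarith) (f := f)
    (linf_disc c (lat X0))
    (fun s _ => by rw [hfny, abs_zero]; positivity) (fun s _ => by rw [hfny, abs_zero]; positivity)
    c X0
    {p | ‖p.1 - c‖ ≤ ψ ∧ ‖lat p.2 - lat X0‖ ≤ 5 * r * ψ ∧
      |CDef480.nrm c p.2 0 - CDef480.nrm c X0 0| ≤ 7 * κ⁻¹} (by
      rintro ⟨C, y⟩ ⟨h1, h2, h3⟩
      simp only at h1 h2 h3
      refine ⟨h1, h2, h3, ?_, ?_⟩
      · simp only
        rw [hf, linf_ev, zero_smul, add_zero]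
        refine (abs_real_inner_le_norm _ _).trans ?_
        rw [norm_e0, one_mul]
        refine h2.trans ?_
        have : 0 ≤ r * ψ := by positivity
        linarith
      · simp only
        have e : f.ld C (lat y) (y 2) 0 = - inner ℝ e0 (C - c) := by
          have h4 := f.ld_dir c C (lat y) (y 2) 0
          rw [h4, hfny, hf, linf_ld]
          unfold Cf.gr linf Cf.ny
          simp
        rw [e, abs_neg]
        refine (abs_real_inner_le_norm _ _).trans ?_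
        rw [norm_e0, one_mul]
        linarith)
  have hsd : Sd r (8 * ψ) (8 * ψ) := by
    refine ⟨?_, le_rfl, hψ1⟩
    rw [← hth]; linarith
  refine (enc_cov hth dens hsd Ks hadm ?_).trans (ENNReal.ofReal_le_ofReal ?_)
  · intro m hm y hy
    exact hcov (cen th m, y) (hW m hm y hy)
  have hNC : NC κ r (8 * ψ) (8 * ψ * r) ψ (5 * r * ψ) (7 * κ⁻¹) ≤ 3797 := by
    unfold NC
    have b1 : 4 * ψ / (8 * ψ) + 2 = 5 / 2 := by field_simp; norm_num
    have b2 : 4 * (5 * r * ψ) / (8 * ψ * r) + 2 = 9 / 2 := by field_simp; norm_num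
    have b3 : 4 * (7 * κ⁻¹) / (TT κ (8 * ψ) r * r) ≤ 28 := by
      rw [div_le_iff₀ (by positivity)]; linarith
    rw [b1, b2]
    nlinarith
  have h8 : (8 * ψ) ^ q ≤ 8 * ψ ^ q := by
    rw [Real.mul_rpow (by norm_num) hψ.le]
    refine mul_le_mul_of_nonneg_right ?_ (Real.rpow_nonneg hψ.le _)
    calc (8:ℝ) ^ q ≤ (8:ℝ) ^ (1:ℝ) := Real.rpow_le_rpow_of_exponent_le (by norm_num) hq1
      _ = 8 := Real.rpow_one _
  have hψq : 0 ≤ ψ ^ q := Real.rpow_nonneg hψ.le _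
  have hsc : scost κ (8 * ψ) (8 * ψ) r ≤ 4096 * (ψ ^ 2 * (κ⁻¹ * r ^ 2)) := by
    unfold scost
    calc 8 * ψ * (8 * ψ) * TT κ (8 * ψ) r * r ^ 3 = (64 * ψ ^ 2 * r ^ 2) *
          (TT κ (8 * ψ) r * r) := by ring
      _ ≤ (64 * ψ ^ 2 * r ^ 2) * (64 * κ⁻¹) := mul_le_mul_of_nonneg_left hTr2 (by positivity)
      _ = _ := by ring
  have hsc0 : 0 ≤ scost κ (8 * ψ) (8 * ψ) r := by unfold scost; positivity
  have h8q : 0 ≤ (8 * ψ) ^ q := Real.rpow_nonneg hσ.le _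
  calc (Ks.card : ℝ) * (D * (8 * ψ) ^ q * scost κ (8 * ψ) (8 * ψ) r) ≤
        3797 * (D * (8 * ψ ^ q) * (4096 * (ψ ^ 2 * (κ⁻¹ * r ^ 2)))) :=
        mul_le_mul (hcard.trans hNC) (mul_le_mul (mul_le_mul_of_nonneg_left h8 hD) hsc hsc0
          (by positivity)) (by positivity) (by norm_num)
    _ = _ := by ring

/-! ### cells -/

open Mwc748

/-- two points of one cell. -/
theorem cell_pts {th κ : ℝ} (hth : 0 < th) (hκ : 0 < κ) {P1 : ℕ → Plate} {T : Idx} {y y' : E3}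
    (h : y ∈ TS th κ P1 T) (h' : y' ∈ TS th κ P1 T) :
    ‖lat y' - lat y‖ ≤ 4 * th⁻¹ ∧ |CDef480.nrm (slT th T) y' 0 - CDef480.nrm (slT th T) y 0| ≤
      2 * κ⁻¹ := by
  obtain ⟨-, h1, h2⟩ := Ic_pt (I1 := ∅) (K := 0) hth hκ h
  obtain ⟨-, h1', h2'⟩ := Ic_pt (I1 := ∅) (K := 0) hth hκ h'
  rw [CDef480.lat_sub] at h1 h1'
  rw [Ckm538.nrm_sub0] at h2 h2'
  constructor
  · have e : lat y' - lat y = (lat y' - lat (ptT th κ T)) - (lat y - lat (ptT th κ T)) := by abel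
    rw [e]
    refine (norm_sub_le _ _).trans ?_
    linarith
  · have e : CDef480.nrm (slT th T) y' 0 - CDef480.nrm (slT th T) y 0 =
      (CDef480.nrm (slT th T) y' 0 - CDef480.nrm (slT th T) (ptT th κ T) 0) -
        (CDef480.nrm (slT th T) y 0 - CDef480.nrm (slT th T) (ptT th κ T) 0) := by ring
    rw [e]
    refine (abs_sub _ _).trans ?_
    linarith

/-- the plank of the reference point is inside the large plank of any point of the cell. -/
theorem PLc_sub {th κ r : ℝ} (hth : 0 < th) (hκ : 0 < κ) {P1 : ℕ → Plate} {T : Idx} {x : E3}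
    (h : x ∈ TS th κ P1 T) {p : E3 × ℝ} (hp : p ∈ PLc r th⁻¹ κ⁻¹ (slT th T) (ptT th κ T)) :
    (p.1, p.2) ∈ PL r (4 * th⁻¹) (2 * κ⁻¹) (slT th T) (lat x)
      (CDef480.nrm (slT th T) x 0) := by
  obtain ⟨-, h1, h2⟩ := Ic_pt (I1 := ∅) (K := 0) hth hκ h
  rw [CDef480.lat_sub] at h1
  rw [Ckm538.nrm_sub0] at h2
  obtain ⟨p1, p2, p3⟩ := hp
  have hw : 0 < th⁻¹ := inv_pos.2 hth
  refine ⟨p1, ?_, ?_⟩
  · simp only
    have e : lat p.1 - (lat x - p.2 • slT th T) = (lat p.1 - (lat (ptT th κ T) -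
      p.2 • slT th T)) - (lat x - lat (ptT th κ T)) := by abel
    rw [e]
    refine (norm_sub_le _ _).trans ?_
    linarith
  · simp only
    have e : CDef480.nrm (slT th T) p.1 p.2 - CDef480.nrm (slT th T) x 0 =
      (CDef480.nrm (slT th T) p.1 p.2 - CDef480.nrm (slT th T) (ptT th κ T) 0) -
        (CDef480.nrm (slT th T) x 0 - CDef480.nrm (slT th T) (ptT th κ T) 0) := by ring
    rw [e]
    refine (abs_sub _ _).trans ?_
    linarith

/-- a point of the cell as a point of the large plank of another point, at time `0`. -/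
theorem mem_PL0 {th κ r : ℝ} (hr : 0 ≤ r) (hth : 0 < th) (hκ : 0 < κ) {P1 : ℕ → Plate} {T : Idx}
    {x y : E3} (h : x ∈ TS th κ P1 T) (h' : y ∈ TS th κ P1 T) :
    (y, (0 : ℝ)) ∈ PL r (4 * th⁻¹) (2 * κ⁻¹) (slT th T) (lat x)
      (CDef480.nrm (slT th T) x 0) := by
  obtain ⟨h1, h2⟩ := cell_pts hth hκ h h'
  refine ⟨?_, ?_, h2⟩
  · simpa using hr
  · simp only
    rw [zero_smul, sub_zero]; exact h1

/-- **light boxes, cells**. -/
theorem iso_cells {M κ r th φ D q K : ℝ} (hM : 1 ≤ M) (hκ : 0 < κ) (hr : 0 < r)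
    (hth : th = r ^ (-(1/2) : ℝ)) (hφ1 : 16 * φ ≤ 1)
    (h1 : th⁻¹ * (2 * φ) ≤ κ⁻¹) (h2 : r * (2 * φ) ^ 2 ≤ κ⁻¹)
    (hD : 0 ≤ D) (hq : 0 ≤ q) (hq1 : q ≤ 1) {g : E3 → ℂ} (hg : Integrable g)
    {I1 : Finset ℕ} {P1 : ℕ → Plate}
    (dens : ∀ (c : E2) (X0 : E3) (f : Cf E2) (v1 v2 : ℝ), Sd r v1 v2 →
      Adm M κ v1 v2 (TT κ v2 r) r c X0 f →
      enc th g (fun m => uS I1 P1 m ∩ pbx κ 1 r v1 v2 c X0 f m) ≤
        ENNReal.ofReal (D * v2 ^ q * scost κ v1 v2 r))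
    (hm : ∀ i ∈ I1, ∀ m, MeasurableSet ((P1 i).S m))
    (hd : ∀ i ∈ I1, ∀ j ∈ I1, i ≠ j → ∀ m, Disjoint ((P1 i).S m) ((P1 j).S m))
    (hb : ∀ i ∈ I1, ∀ m, ∀ y ∈ (P1 i).S m, ‖y‖ ≤ K) (i : Idx) (ψ : ℝ) (hψw : th⁻¹ ≤ r * ψ)
    (hψφ : ψ ≤ 2 * φ) (F : Finset Idx) (hF : F ⊆ Ic K th κ I1 P1)
    (hBX : ∀ i' ∈ F, BX r κ⁻¹ ψ (slT th i) (lat (ptT th κ i))
      (CDef480.nrm (slT th i) (ptT th κ i) 0) (slT th i') (lat (ptT th κ i'))
      (CDef480.nrm (slT th i') (ptT th κ i') 0)) :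
    ∑ i' ∈ F, muT th κ g P1 i' ≤ (124420096 * D) * ψ ^ q * (ψ ^ 2 * (κ⁻¹ * r ^ 2)) := by
  have hth0 : 0 < th := by rw [hth]; exact Real.rpow_pos_of_pos hr _
  have hB : 0 < κ⁻¹ := inv_pos.2 hκ
  have hw : 0 < th⁻¹ := inv_pos.2 hth0
  have hψ : 0 < ψ := by
    have : 0 < r * ψ := hw.trans_le hψw
    exact (mul_pos_iff_of_pos_left hr).1 this
  have hthr : th⁻¹ = th * r := by
    rw [hth, ← Real.rpow_neg hr.le]
    conv_rhs => rw [← Real.rpow_one r, ← Real.rpow_mul hr.le]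
    rw [← Real.rpow_add hr]
    norm_num
  have hthψ : th ≤ ψ := by
    rw [hthr, mul_comm] at hψw
    exact le_of_mul_le_mul_left hψw hr
  have hψ2 : r * ψ ^ 2 ≤ κ⁻¹ :=
    (mul_le_mul_of_nonneg_left (pow_le_pow_left₀ hψ.le hψφ 2) hr.le).trans h2
  have hwψ : th⁻¹ * ψ ≤ κ⁻¹ := (mul_le_mul_of_nonneg_left hψφ hw.le).trans h1
  set W : ℤ × ℤ → Set E3 := fun m => {y | ∃ i' ∈ F, i'.2.1 = m ∧ y ∈ TS th κ P1 i'} with hW
  have hmass := iso_mass (w := th⁻¹) (S := uS I1 P1) (W := W) hM hκ hr hψ (by linarith) hψ2 hth hthψ hD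
    hq hq1 dens (slT th i) (ptT th κ i) (by
      rintro m - y ⟨-, i', hi', rfl, hy⟩
      obtain ⟨b1, b2, b3⟩ := hBX i' hi'
      obtain ⟨-, c1, c2⟩ := Ic_pt (I1 := I1) (K := K) hth0 hκ hy
      rw [CDef480.lat_sub] at c1
      rw [Ckm538.nrm_sub0] at c2
      refine ⟨b1, ?_, ?_⟩
      · have e : lat y - lat (ptT th κ i) = (lat y - lat (ptT th κ i')) +
          (lat (ptT th κ i') - lat (ptT th κ i)) := by abel
        rw [e]
        refine (norm_add_le _ _).trans ?_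
        linarith
      · have e : CDef480.nrm (slT th i) y 0 - CDef480.nrm (slT th i) (ptT th κ i) 0 =
            (CDef480.nrm (slT th i') y 0 - CDef480.nrm (slT th i') (ptT th κ i') 0) -
            inner ℝ (slT th i' - slT th i) (lat y - lat (ptT th κ i')) +
            (CDef480.nrm (slT th i') (ptT th κ i') 0 -
              inner ℝ (slT th i' - slT th i) (lat (ptT th κ i')) -
              CDef480.nrm (slT th i) (ptT th κ i) 0) := by
          simp only [Ckm538.nrm_zero, inner_sub_left, inner_sub_right]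
          ring
        rw [e]
        have t1 := abs_add_le ((CDef480.nrm (slT th i') y 0 -
            CDef480.nrm (slT th i') (ptT th κ i') 0) -
            inner ℝ (slT th i' - slT th i) (lat y - lat (ptT th κ i')))
            (CDef480.nrm (slT th i') (ptT th κ i') 0 -
              inner ℝ (slT th i' - slT th i) (lat (ptT th κ i')) -
              CDef480.nrm (slT th i) (ptT th κ i) 0)
        have t2 := abs_sub (CDef480.nrm (slT th i') y 0 -
            CDef480.nrm (slT th i') (ptT th κ i') 0)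
            (inner ℝ (slT th i' - slT th i) (lat y - lat (ptT th κ i')))
        have t3 : |inner ℝ (slT th i' - slT th i) (lat y - lat (ptT th κ i'))| ≤
            ψ * (2 * th⁻¹) :=
          (abs_real_inner_le_norm _ _).trans (mul_le_mul b1 c1 (norm_nonneg _) hψ.le)
        linarith)
  have hle : ∑ i' ∈ F, muE th κ g P1 i' ≤ enc th g (fun m => uS I1 P1 m ∩ W m) := by
    refine sum_le_enc hm hd F (fun T hT => ?_) _ ?_
    · have h := mem_Ic.1 (hF hT)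
      exact ⟨h.1, h.2.1⟩
    · intro T hT y hy
      refine ⟨Set.mem_biUnion (mem_Ic.1 (hF hT)).1 hy.1, T, hT, rfl, hy⟩
  have hsum := sum_muT (th := th) (κ := κ) (I1 := I1) hg hb F hF
  rw [← ENNReal.ofReal_le_ofReal_iff (by
    have := Real.rpow_nonneg hψ.le q
    positivity), hsum]
  exact hle.trans hmass

end Crest.Agent.R116.Mc330
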