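import Crest.Agent.R116.Mc8_330
import Crest.Agent.R116.KMRDef_890

/-!
# R116 (S0155), misaligned step: Kakeya on caps for the cells (helper330)

`pkc_sum_le`: the sum of the planks of the cells is bounded by the coefficient density `Acc`;
`kmc_cells`: from `KMR`, the hypothesis `hKM` of `mis_fin`.
-/

set_option autoImplicit false

open MeasureTheory
open scoped ENNReal

namespace Crest.Agent.R116.Mc330

open Crest.Agent.R138.Defs (E2)
open Crest.Agent.R138.Wpk685 (cen caps)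
open Crest.Agent.R116.CDef480 (E3 lat pt vel umc enc)
open Crest.Agent.R116.LZg725 (Cf)
open Crest.Agent.R116.WC188 (TT Adm mset scost pbx Sd Plate uS)
open Crest.Agent.R116.Cad538 (frc wt Acc Den)
open Mwc748

/-- the union of the cells of a family, at the cap `m`. -/
def SFm (th κ : ℝ) (P1 : ℕ → Plate) (F : Finset Idx) (m : ℤ × ℤ) : Set E3 :=
  ⋃ T ∈ F.filter (fun T => T.2.1 = m), TS th κ P1 T

section fam

variable {th κ K : ℝ} {g : E3 → ℂ} {I1 : Finset ℕ} {P1 : ℕ → Plate}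

theorem mem_SFm {F : Finset Idx} {m : ℤ × ℤ} {y : E3} :
    y ∈ SFm th κ P1 F m ↔ ∃ T ∈ F, T.2.1 = m ∧ y ∈ TS th κ P1 T := by
  unfold SFm
  simp only [Set.mem_iUnion, exists_prop, Finset.mem_filter]
  constructor
  · rintro ⟨T, ⟨h1, h2⟩, h3⟩; exact ⟨T, h1, h2, h3⟩
  · rintro ⟨T, h1, h2, h3⟩; exact ⟨T, ⟨h1, h2⟩, h3⟩

theorem SFm_meas (hm : ∀ i ∈ I1, ∀ m, MeasurableSet ((P1 i).S m)) {F : Finset Idx}
    (hF : F ⊆ Ic K th κ I1 P1) (m : ℤ × ℤ) : MeasurableSet (SFm th κ P1 F m) := by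
  unfold SFm
  refine Finset.measurableSet_biUnion _ fun T hT => ?_
  exact TS_meas (hm _ (mem_Ic.1 (hF (Finset.mem_filter.1 hT).1)).1 _)

/-- weighted sums over the cells. -/
theorem sum_lint_le (hm : ∀ i ∈ I1, ∀ m, MeasurableSet ((P1 i).S m))
    (hd : ∀ i ∈ I1, ∀ j ∈ I1, i ≠ j → ∀ m, Disjoint ((P1 i).S m) ((P1 j).S m))
    (F : Finset Idx) (hF : F ⊆ Ic K th κ I1 P1) (u : ℤ × ℤ → E3 → ℝ≥0∞) :
    ∑ T ∈ F, ∫⁻ y in TS th κ P1 T, u T.2.1 y ≤
      ∑ m ∈ F.image (fun T => T.2.1), ∫⁻ y in SFm th κ P1 F m, u m y := by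
  classical
  rw [← Finset.sum_fiberwise_of_maps_to (t := F.image (fun T => T.2.1))
    (g := fun T : Idx => T.2.1) (fun T hT => Finset.mem_image_of_mem _ hT)]
  refine Finset.sum_le_sum fun m _ => ?_
  refine le_of_eq ?_
  unfold SFm
  rw [lintegral_biUnion_finset]
  · refine Finset.sum_congr rfl fun T hT => ?_
    have h1 := (Finset.mem_filter.1 hT).2
    rw [h1]
  · intro T hT T' hT' hne
    rw [Function.onFun, Set.disjoint_left]
    rintro y ⟨h1, h2⟩ ⟨h3, h4⟩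
    obtain ⟨a1, a2⟩ := Finset.mem_filter.1 (Finset.mem_coe.1 hT)
    obtain ⟨b1, b2⟩ := Finset.mem_filter.1 (Finset.mem_coe.1 hT')
    have h2' : Ckm538.cix th⁻¹ κ⁻¹ (cen th T.2.1) y = T.2.2 := h2
    have h4' : Ckm538.cix th⁻¹ κ⁻¹ (cen th T'.2.1) y = T'.2.2 := h4
    have hmm : T.2.1 = T'.2.1 := a2.trans b2.symm
    by_cases hab : T.1 = T'.1
    · apply hne
      refine Prod.ext hab (Prod.ext hmm ?_)
      rw [← h2', ← h4', hmm]
    · refine Set.disjoint_left.1 (hd _ (mem_Ic.1 (hF a1)).1 _ (mem_Ic.1 (hF b1)).1 hab T.2.1) h1 ?_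
      rw [hmm]
      exact h3
  · intro T hT
    obtain ⟨a1, a2⟩ := Finset.mem_filter.1 hT
    exact TS_meas (hm _ (mem_Ic.1 (hF a1)).1 _)

/-- on the plank of the cell the weight is bounded below. -/
theorem wt_ge (hth : 0 < th) (hκ : 0 < κ) {r : ℝ} {T : Idx} {y : E3} (hy : y ∈ TS th κ P1 T)
    {p : E3 × ℝ} (hp : p ∈ PLc r th⁻¹ κ⁻¹ (slT th T) (ptT th κ T)) (n : ℕ) :
    1 ≤ (6:ℝ) ^ n * wt (frc th κ (cen th T.2.1)) n (y - p.1 - p.2 • vel (cen th T.2.1)) := by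
  obtain ⟨-, h1, h2⟩ := Ic_pt (I1 := ∅) (K := 0) hth hκ hy
  rw [CDef480.lat_sub] at h1
  rw [Ckm538.nrm_sub0] at h2
  obtain ⟨p1, p2, p3⟩ := hp
  have hn : ‖frc th κ (cen th T.2.1) (y - p.1 - p.2 • vel (cen th T.2.1))‖ ≤ 5 := by
    refine (Cad538.norm_frc_le hth.le hκ.le _ _).trans ?_
    have k1 : ‖lat (y - p.1 - p.2 • vel (cen th T.2.1))‖ ≤ 3 * th⁻¹ := by
      have e : lat (y - p.1 - p.2 • vel (cen th T.2.1)) = (lat y - lat (ptT th κ T)) -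
          (lat p.1 - (lat (ptT th κ T) - p.2 • slT th T)) := by
        unfold vel slT
        rw [CDef480.lat_sub, CDef480.lat_sub, CDef480.lat_smul, CDef480.lat_pt]
        abel
      rw [e]
      refine (norm_sub_le _ _).trans ?_
      linarith
    have k2 : |CDef480.nrm (cen th T.2.1) (y - p.1 - p.2 • vel (cen th T.2.1)) 0| ≤ 2 * κ⁻¹ := by
      have e : CDef480.nrm (cen th T.2.1) (y - p.1 - p.2 • vel (cen th T.2.1)) 0 =
          (CDef480.nrm (slT th T) y 0 - CDef480.nrm (slT th T) (ptT th κ T) 0) -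
          (CDef480.nrm (slT th T) p.1 p.2 - CDef480.nrm (slT th T) (ptT th κ T) 0) := by
        unfold slT
        rw [Ckm538.nrm_zero, Ckm538.nrm_zero]
        unfold CDef480.nrm vel
        simp only [PiLp.sub_apply, PiLp.smul_apply, CDef480.pt_two, smul_eq_mul,
          CDef480.lat_sub, CDef480.lat_smul, CDef480.lat_pt, inner_sub_right,
          real_inner_smul_right, real_inner_self_eq_norm_sq]
        ring
      rw [e]
      refine (abs_sub _ _).trans ?_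
      linarith
    have e1 : th * (3 * th⁻¹) = 3 := by field_simp
    have e2 : κ * (2 * κ⁻¹) = 2 := by field_simp
    have k3 := mul_le_mul_of_nonneg_left k1 hth.le
    have k4 := mul_le_mul_of_nonneg_left k2 hκ.le
    linarith
  unfold wt
  have h6 : (1 + ‖frc th κ (cen th T.2.1) (y - p.1 - p.2 • vel (cen th T.2.1))‖) ^ n ≤ 6 ^ n :=
    pow_le_pow_left₀ (by positivity) (by linarith) n
  have h0 : 0 < (1 + ‖frc th κ (cen th T.2.1) (y - p.1 - p.2 • vel (cen th T.2.1))‖) ^ n := by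
    positivity
  rw [← div_eq_mul_inv, le_div_iff₀ h0, one_mul]
  exact h6

/-- **the sum of the planks is bounded by the density**. -/
theorem pkc_sum_le (hth : 0 < th) (hκ : 0 < κ) (hg : Integrable g)
    (hm : ∀ i ∈ I1, ∀ m, MeasurableSet ((P1 i).S m))
    (hd : ∀ i ∈ I1, ∀ j ∈ I1, i ≠ j → ∀ m, Disjoint ((P1 i).S m) ((P1 j).S m))
    (hb : ∀ i ∈ I1, ∀ m, ∀ y ∈ (P1 i).S m, ‖y‖ ≤ K) (F : Finset Idx)
    (hF : F ⊆ Ic K th κ I1 P1) (n : ℕ) (r : ℝ) (p : E3 × ℝ) :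
    ∑ T ∈ F, pkc r th⁻¹ κ⁻¹ (slT th T) (ptT th κ T) (muT th κ g P1 T) p ≤
      ENNReal.ofReal (6 ^ n * (th ^ 2 * κ)⁻¹) *
        Acc n th κ th g (SFm th κ P1 F) (F.image fun T => T.2.1) p.1 p.2 := by
  classical
  set u : ℤ × ℤ → E3 → ℝ≥0∞ := fun m y =>
    ENNReal.ofReal (wt (frc th κ (cen th m)) n (y - p.1 - p.2 • vel (cen th m))) *
      ‖umc th g m y‖ₑ ^ 2 with hu
  have h1 : ∀ T ∈ F, pkc r th⁻¹ κ⁻¹ (slT th T) (ptT th κ T) (muT th κ g P1 T) p ≤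
      ENNReal.ofReal (6 ^ n) * ∫⁻ y in TS th κ P1 T, u T.2.1 y := by
    intro T hT
    by_cases hp : p ∈ PLc r th⁻¹ κ⁻¹ (slT th T) (ptT th κ T)
    · have e1 : pkc r th⁻¹ κ⁻¹ (slT th T) (ptT th κ T) (muT th κ g P1 T) p =
          muE th κ g P1 T := by
        rw [← ofReal_muT hg (hb _ (mem_Ic.1 (hF hT)).1 _)]
        exact Set.indicator_of_mem (s := PLc r th⁻¹ κ⁻¹ (slT th T) (ptT th κ T)) hp
          (fun _ => ENNReal.ofReal (muT th κ g P1 T))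
      rw [e1, ← lintegral_const_mul' _ _ ENNReal.ofReal_ne_top]
      unfold muE
      refine setLIntegral_mono' (TS_meas (hm _ (mem_Ic.1 (hF hT)).1 _)) fun y hy => ?_
      have h2 := wt_ge hth hκ hy hp n
      rw [hu]
      simp only
      rw [← mul_assoc, ← ENNReal.ofReal_mul (by positivity)]
      calc ‖umc th g T.2.1 y‖ₑ ^ 2 = ENNReal.ofReal 1 * ‖umc th g T.2.1 y‖ₑ ^ 2 := by
            rw [ENNReal.ofReal_one, one_mul]
        _ ≤ _ := mul_le_mul' (ENNReal.ofReal_le_ofReal h2) le_rfl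
    · rw [pkc_zero hp]; exact bot_le
  refine (Finset.sum_le_sum h1).trans ?_
  rw [← Finset.mul_sum]
  have h3 := sum_lint_le hm hd F hF u
  refine (mul_le_mul' le_rfl h3).trans (le_of_eq ?_)
  unfold Cad538.Acc Cad538.Den
  rw [← mul_assoc, ← ENNReal.ofReal_mul (by positivity)]
  congr 2
  have : th ^ 2 * κ ≠ 0 := by positivity
  field_simp

theorem exists_cen {s : ℝ} (hs : 0 < s) (c : E2) : ∃ k : ℤ × ℤ, ‖c - cen s k‖ ≤ 2 * s := by
  refine ⟨cel s c, ?_⟩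
  have h := ltp_close hs c
  exact h

/-- **Kakeya on caps for the cells**. -/
theorem kmc_cells {M q A : ℝ} (hKMR : KMR890.KMR M q) (hA : 1 ≤ A) {ε : ℝ} (hε : 0 < ε) :
    ∃ C : ℝ, 0 ≤ C ∧ ∀ κ r : ℝ, 0 < κ → κ ≤ 1 → 1 ≤ r → r ^ (-(1/2) : ℝ) ≤ κ →
    ∀ (g : E3 → ℂ), Integrable g → MemLp g 2 → ∀ (I1 : Finset ℕ) (P1 : ℕ → Plate) (K : ℝ),
    (∀ i ∈ I1, ∀ m, MeasurableSet ((P1 i).S m)) →
    (∀ i ∈ I1, ∀ j ∈ I1, i ≠ j → ∀ m, Disjoint ((P1 i).S m) ((P1 j).S m)) →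
    (∀ i ∈ I1, ∀ m, ∀ y ∈ (P1 i).S m, ‖y‖ ≤ A * r) → K = A * r → ∀ D : ℝ, 0 ≤ D →
    (∀ (c : E2) (X0 : E3) (f : Cf E2) (v1 v2 : ℝ), Sd r v1 v2 →
      Adm M κ v1 v2 (TT κ v2 r) r c X0 f →
      enc (r ^ (-(1/2) : ℝ)) g (fun m => uS I1 P1 m ∩ pbx κ 1 r v1 v2 c X0 f m) ≤
        ENNReal.ofReal (D * v2 ^ q * scost κ v1 v2 r)) →
    ∀ s : ℝ, r ^ (-(1/2) : ℝ) ≤ s → s ≤ 1 → ∀ (C0 : E2) (F : Finset Idx),
      F ⊆ Ic K (r ^ (-(1/2) : ℝ)) κ I1 P1 →
      (∀ i ∈ F, ‖slT (r ^ (-(1/2) : ℝ)) i - C0‖ ≤ 16 * A * s) →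
      ∫⁻ x, (∑ T ∈ F, pkc r (r ^ (-(1/2) : ℝ))⁻¹ κ⁻¹ (slT (r ^ (-(1/2) : ℝ)) T)
        (ptT (r ^ (-(1/2) : ℝ)) κ T) (muT (r ^ (-(1/2) : ℝ)) κ g P1 T) x) ^ (3/2 : ℝ) ≤
        ENNReal.ofReal ((r * κ⁻¹) ^ (3/2 : ℝ) * (C * r ^ ε * s ^ (q / 2) * Real.sqrt D * r) *
          ∑ T ∈ F, muT (r ^ (-(1/2) : ℝ)) κ g P1 T) := by
  obtain ⟨n, hn⟩ := hKMR ε hε
  obtain ⟨C, hC, hmain⟩ := hn n le_rfl A 1 (18 * A) (by linarith) zero_le_one (by linarith)
  refine ⟨(6 ^ n) ^ (3/2 : ℝ) * C, by positivity, ?_⟩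
  intro κ r hκ hκ1 hr hrκ g hg hg2 I1 P1 K hm hd hb hK D hD hdens s hs hs1 C0 F hF hFC
  classical
  set th : ℝ := r ^ (-(1/2) : ℝ) with hth
  have hr0 : 0 < r := by linarith
  have hth0 : 0 < th := Real.rpow_pos_of_pos hr0 _
  have hs0 : 0 < s := hth0.trans_le hs
  have hth2 : th ^ 2 * r = 1 := by
    rw [hth, ← Real.rpow_natCast, ← Real.rpow_mul hr0.le]
    norm_num
    rw [Real.rpow_neg_one]
    exact inv_mul_cancel₀ hr0.ne'
  have hthκ : (th ^ 2 * κ)⁻¹ = r * κ⁻¹ := by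
    rw [mul_inv]
    congr 1
    exact inv_eq_of_mul_eq_one_right hth2
  obtain ⟨k0, hk0⟩ := exists_cen hs0 C0
  set S' : ℤ × ℤ → Set E3 := SFm th κ P1 F with hS'
  have hS'm : ∀ m, MeasurableSet (S' m) := fun m => SFm_meas hm hF m
  have hS'u : ∀ m, S' m ⊆ uS I1 P1 m := by
    intro m y hy
    obtain ⟨T, hT, h1, h2⟩ := mem_SFm.1 hy
    rw [← h1]
    exact Set.mem_biUnion (mem_Ic.1 (hF hT)).1 h2.1
  have hS'b : ∀ m, S' m ⊆ Metric.closedBall 0 (A * r) := by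
    intro m y hy
    obtain ⟨T, hT, h1, h2⟩ := mem_SFm.1 hy
    rw [mem_closedBall_zero_iff]
    exact hb _ (mem_Ic.1 (hF hT)).1 _ y h2.1
  have hsub : F.image (fun T => T.2.1) ⊆ caps th := by
    intro m hmm
    obtain ⟨T, hT, rfl⟩ := Finset.mem_image.1 hmm
    exact (mem_Ic.1 (hF hT)).2.1
  have hk := hmain κ r hκ hκ1 hr hrκ g hg hg2 S' hS'm hS'b D hD (by
      intro c X0 f s1 s2 h1 h2
      exact (Bas367.enc_mono g fun m _ => Set.inter_subset_inter_left _ (hS'u m)).trans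
        (hdens c X0 f s1 s2 h1 h2)) s hs hs1 {k0} (fun _ => F.image (fun T => T.2.1)) (by
      intro k hk
      rw [Finset.mem_singleton] at hk
      subst hk
      refine ⟨hsub, ?_⟩
      intro m hmm
      obtain ⟨T, hT, rfl⟩ := Finset.mem_image.1 hmm
      have e : cen th T.2.1 - cen s k = (slT th T - C0) + (C0 - cen s k) := by
        unfold slT; abel
      rw [e]
      refine (norm_add_le _ _).trans ?_
      have h1 := hFC T hT
      nlinarith)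
  rw [Finset.sum_singleton, one_mul] at hk
  -- Tonelli
  set f : E3 × ℝ → ℝ≥0∞ := fun x => (∑ T ∈ F, pkc r th⁻¹ κ⁻¹ (slT th T) (ptT th κ T)
    (muT th κ g P1 T) x) ^ (3/2 : ℝ) with hf
  have hfm : Measurable f := by
    rw [hf]
    exact (Finset.measurable_sum _ fun T _ => measurable_pkc _ _ _ _ _ _).pow_const _
  have hT1 : ∫⁻ x, f x = ∫⁻ t, ∫⁻ X, f (X, t) := by
    rw [Measure.volume_eq_prod, lintegral_prod_symm' _ hfm]
  have hT2 : ∫⁻ t, ∫⁻ X, f (X, t) = ∫⁻ t in Set.Icc (-r) r, ∫⁻ X, f (X, t) := by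
    symm
    refine setLIntegral_eq_of_support_subset ?_
    intro t ht
    rw [Function.mem_support] at ht
    by_contra hn
    apply ht
    have : ∀ X, f (X, t) = 0 := by
      intro X
      rw [hf]
      simp only
      rw [Finset.sum_eq_zero, ENNReal.zero_rpow_of_pos (by norm_num)]
      intro T _
      refine pkc_zero fun h => hn ?_
      have := h.1
      simp only at this
      exact abs_le.1 this
    simp [this]
  have hpt : ∀ t X, f (X, t) ≤ ENNReal.ofReal ((6 ^ n * (r * κ⁻¹)) ^ (3/2 : ℝ)) *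
      (Acc n th κ th g S' (F.image fun T => T.2.1) X t) ^ (3/2 : ℝ) := by
    intro t X
    rw [hf]
    simp only
    have h1 := pkc_sum_le (g := g) hth0 hκ hg hm hd (by rw [hK]; exact hb) F hF n r (X, t)
    rw [hthκ] at h1
    calc _ ≤ _ := ENNReal.rpow_le_rpow h1 (by norm_num)
      _ = _ := by
        rw [ENNReal.mul_rpow_of_nonneg _ _ (by norm_num : (0:ℝ) ≤ 3/2),
          ENNReal.ofReal_rpow_of_nonneg (by positivity) (by norm_num)]
  have hE : enc th g S' ≤ ENNReal.ofReal (∑ T ∈ F, muT th κ g P1 T) := by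
    rw [sum_muT (K := K) (I1 := I1) hg (by rw [hK]; exact hb) F hF]
    refine enc_le_sum F S' ?_
    intro m _ y hy
    obtain ⟨T, hT, h1, h2⟩ := mem_SFm.1 hy
    exact ⟨T, hT, h1, h2⟩
  have hmu0 : 0 ≤ ∑ T ∈ F, muT th κ g P1 T := Finset.sum_nonneg fun T _ => muT_nonneg _ _ _ _ _
  calc ∫⁻ x, f x = ∫⁻ t in Set.Icc (-r) r, ∫⁻ X, f (X, t) := by rw [hT1, hT2]
    _ ≤ ∫⁻ t in Set.Icc (-r) r, ∫⁻ X, ENNReal.ofReal ((6 ^ n * (r * κ⁻¹)) ^ (3/2 : ℝ)) *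
        (Acc n th κ th g S' (F.image fun T => T.2.1) X t) ^ (3/2 : ℝ) :=
        lintegral_mono fun t => lintegral_mono fun X => hpt t X
    _ = ENNReal.ofReal ((6 ^ n * (r * κ⁻¹)) ^ (3/2 : ℝ)) * ∫⁻ t in Set.Icc (-r) r, ∫⁻ X,
        (Acc n th κ th g S' (F.image fun T => T.2.1) X t) ^ (3/2 : ℝ) := by
        rw [← lintegral_const_mul' _ _ ENNReal.ofReal_ne_top]
        refine lintegral_congr fun t => ?_
        rw [lintegral_const_mul' _ _ ENNReal.ofReal_ne_top]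
    _ ≤ ENNReal.ofReal ((6 ^ n * (r * κ⁻¹)) ^ (3/2 : ℝ)) *
        (ENNReal.ofReal (C * r ^ ε * s ^ (q / 2) * Real.sqrt D * r) *
          ENNReal.ofReal (∑ T ∈ F, muT th κ g P1 T)) :=
        mul_le_mul' le_rfl (hk.trans (mul_le_mul' le_rfl hE))
    _ = _ := by
        rw [← ENNReal.ofReal_mul (by positivity), ← ENNReal.ofReal_mul (by positivity)]
        congr 1
        rw [Real.mul_rpow (by positivity) (by positivity)]
        ring

end fam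

end Crest.Agent.R116.Mc330
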