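import Crest.Agent.R116.Sub2_387
import Crest.Agent.R116.Sup0_858

/-!
# R116 (S0155), wave side: `MulBx` (helper387)

The box bound is stable under smooth slope cut-offs at a scale `s ≥ r^(-1/2)`.
-/

set_option autoImplicit false

open MeasureTheory FourierTransform
open scoped ContDiff ENNReal

namespace Crest.Agent.R116.MulB387

open Crest.Agent.R138.Wf448 (adet)
open Crest.Agent.R138.Defs (E2 ee)
open Crest.Agent.R138.Wpk685 (win fat cen caps)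
open Crest.Agent.R138.Loc878 (Near nearL mem_nearL)
open Crest.Agent.R116.CWp480 Crest.Agent.R116.CWc480 Crest.Agent.R116.CWd480
open Crest.Agent.R116.CDef480 Crest.Agent.R116.WC188 Crest.Agent.R116.De295
open Crest.Agent.R116.F1c124 (kc kc_nonneg kc_eq adet_Pl capfat_one capfat_supp capc_mul_int)
open Crest.Agent.R116.Sup858 (cb chi MulBx)

/-! ### the composite window -/

/-- parameters `(μ, (t, (η0, κ)))`. -/
abbrev PQ : Type := E2 × (ℝ × (ℝ × ℝ))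

/-- the composite window: slope cut-off times fat window. -/
noncomputable def cwB (J : ℝ → ℝ) (l : ℝ) (E : ℝ → ℂ) (A : ℝ) (p : PQ) (z : E3) : ℂ :=
  ((cb A (p.1 + p.2.1 • (J (p.2.2.1 + p.2.2.2 * (l * z 2)) • (l • lat z))) : ℝ) : ℂ) *
    wnE J l E fat p.2.2 z

theorem cwB1_smooth {J : ℝ → ℝ} (hJ : ContDiff ℝ ∞ J) (l : ℝ) : ContDiff ℝ ∞ (fun x : PQ × E3 =>
    x.1.1 + x.1.2.1 • (J (x.1.2.2.1 + x.1.2.2.2 * (l * x.2 2)) • (l • lat x.2))) := by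
  have hz : ContDiff ℝ ∞ (fun x : PQ × E3 => x.2) := contDiff_snd
  have hp0 : ContDiff ℝ ∞ (fun x : PQ × E3 => x.1) := contDiff_fst
  have hμ : ContDiff ℝ ∞ (fun x : PQ × E3 => x.1.1) := contDiff_fst.comp hp0
  have hp1 : ContDiff ℝ ∞ (fun x : PQ × E3 => x.1.2) := contDiff_snd.comp hp0
  have ht : ContDiff ℝ ∞ (fun x : PQ × E3 => x.1.2.1) := contDiff_fst.comp hp1
  have hp : ContDiff ℝ ∞ (fun x : PQ × E3 => x.1.2.2) := contDiff_snd.comp hp1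
  have hpa : ContDiff ℝ ∞ (fun x : PQ × E3 => x.1.2.2.1) := contDiff_fst.comp hp
  have hpb : ContDiff ℝ ∞ (fun x : PQ × E3 => x.1.2.2.2) := contDiff_snd.comp hp
  have h2 : ContDiff ℝ ∞ (fun x : PQ × E3 => l * x.2 2) :=
    contDiff_const.mul ((coord_smooth 2).comp hz)
  have h1 : ContDiff ℝ ∞ (fun x : PQ × E3 => x.1.2.2.1 + x.1.2.2.2 * (l * x.2 2)) :=
    hpa.add (hpb.mul h2)
  have h3 : ContDiff ℝ ∞ (fun x : PQ × E3 => l • lat x.2) :=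
    ContDiff.const_smul l (lat_smooth.comp hz)
  exact hμ.add (ht.smul ((hJ.comp h1).smul h3))

theorem cwB2_smooth {J : ℝ → ℝ} (hJ : ContDiff ℝ ∞ J) (l : ℝ) {E : ℝ → ℂ} (hE : ContDiff ℝ ∞ E) :
    ContDiff ℝ ∞ (fun x : PQ × E3 => wnE J l E fat x.1.2.2 x.2) := by
  unfold wnE
  have hz : ContDiff ℝ ∞ (fun x : PQ × E3 => x.2) := contDiff_snd
  have hp0 : ContDiff ℝ ∞ (fun x : PQ × E3 => x.1) := contDiff_fst
  have hp1 : ContDiff ℝ ∞ (fun x : PQ × E3 => x.1.2) := contDiff_snd.comp hp0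
  have hp : ContDiff ℝ ∞ (fun x : PQ × E3 => x.1.2.2) := contDiff_snd.comp hp1
  have hpa : ContDiff ℝ ∞ (fun x : PQ × E3 => x.1.2.2.1) := contDiff_fst.comp hp
  have hpb : ContDiff ℝ ∞ (fun x : PQ × E3 => x.1.2.2.2) := contDiff_snd.comp hp
  have h2 : ContDiff ℝ ∞ (fun x : PQ × E3 => l * x.2 2) :=
    contDiff_const.mul ((coord_smooth 2).comp hz)
  have h1 : ContDiff ℝ ∞ (fun x : PQ × E3 => x.1.2.2.1 + x.1.2.2.2 * (l * x.2 2)) :=
    hpa.add (hpb.mul h2)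
  have h3 : ContDiff ℝ ∞ (fun x : PQ × E3 => l • lat x.2) :=
    ContDiff.const_smul l (lat_smooth.comp hz)
  exact (Crest.Agent.R138.Wpk685.fat_contDiff.comp ((hJ.comp h1).smul h3)).mul (hE.comp h2)

theorem cbC_smooth (A : ℝ) : ContDiff ℝ ∞ (fun v : E2 => ((cb A v : ℝ) : ℂ)) :=
  Complex.ofRealCLM.contDiff.comp (cb A).contDiff

theorem cwB_smooth {J : ℝ → ℝ} (hJ : ContDiff ℝ ∞ J) (l : ℝ) {E : ℝ → ℂ} (hE : ContDiff ℝ ∞ E)
    (A : ℝ) : ContDiff ℝ ∞ (fun x : PQ × E3 => cwB J l E A x.1 x.2) := by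
  unfold cwB
  exact ((cbC_smooth A).comp (cwB1_smooth hJ l)).mul (cwB2_smooth hJ l hE)

theorem cwB_unif {a M : ℝ} {E : ℝ → ℂ} {P : Set (ℝ × ℝ)} (h : EW a M E P) {J : ℝ → ℝ}
    (hJs : ContDiff ℝ ∞ J) (hJ : ∀ t, a⁻¹ ≤ t → t ≤ a → J t = t⁻¹) (N : ℕ) (A L : ℝ) :
    ∃ Q : ℝ, 0 ≤ Q ∧ ∀ μ : E2, ‖μ‖ ≤ L → ∀ t : ℝ, 0 ≤ t → t ≤ 1 →
      ∀ p ∈ P, Win N Q (cwB J (lam a M) E A (μ, (t, p))) := by
  obtain ⟨Q, hQ, hw⟩ := unif_win
    (F := fun x : PQ × E3 => cwB J (lam a M) E A x.1 x.2) (cwB_smooth hJs _ h.sm A)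
    (K := Metric.closedBall (0 : E2) L ×ˢ (Set.Icc (0:ℝ) 1 ×ˢ P))
    ((isCompact_closedBall _ _).prod (isCompact_Icc.prod h.cp)) (by
      intro p hp z hz
      show cwB J (lam a M) E A p z = 0
      unfold cwB
      rw [wnE_zero h hJ fat_supp hp.2.2 hz, mul_zero]) N
  exact ⟨Q, hQ, fun μ hμ t ht0 ht1 p hp => hw (μ, (t, p)) ⟨by simpa using hμ, ⟨⟨ht0, ht1⟩, hp⟩⟩⟩

theorem cwB_id {a M : ℝ} {E : ℝ → ℂ} {P : Set (ℝ × ℝ)} (h : EW a M E P) {J : ℝ → ℝ}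
    (hJ : ∀ t, a⁻¹ ≤ t → t ≤ a → J t = t⁻¹) {p : ℝ × ℝ} (hp : p ∈ P) (hκ : 0 < p.2)
    {ρ s : ℝ} (hρ : 0 < ρ) (hs : 0 < s) (A : ℝ) (C C' : E2) (ζ : E3) :
    CWp480.cap (cwB J (lam a M) E A (s⁻¹ • (C - C'), (ρ / s, p))) (ctr p.1 C)
        (Fr (lam a M) ρ p.2 (lam_pos h.one h.M0) hρ hκ C) ζ =
      chi A C' s ζ * (Crest.Agent.R138.Wpk685.cap fat C ρ (slp ζ) * E ((ζ 2 - p.1) / p.2)) := by
  have hl := lam_pos h.one h.M0
  have hid := cap_wnE h hJ fat hp hl hρ hκ C ζ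
  by_cases hne : Crest.Agent.R138.Wpk685.cap fat C ρ (slp ζ) * E ((ζ 2 - p.1) / p.2) = 0
  · unfold CWp480.cap at hid ⊢
    unfold cwB
    simp only
    rw [hid, hne, mul_zero, mul_zero]
  · have hS := mem_Sd h fat_supp hp hρ hκ hne
    have h7 : ζ 2 ≠ 0 := (lt_of_lt_of_le (inv_pos.2 (by linarith [h.one])) hS.1).ne'
    have e1 : p.1 + p.2 * ((ζ 2 - p.1) / p.2) = ζ 2 := by field_simp; ring
    have e0 : lam a M * ((ζ 2 - p.1) / (lam a M * p.2)) = (ζ 2 - p.1) / p.2 := by field_simp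
    have e2 : lam a M • ((lam a M * ρ)⁻¹ • (lat ζ - ζ 2 • C)) = ρ⁻¹ • (lat ζ - ζ 2 • C) := by
      rw [smul_smul]
      congr 1
      field_simp
    rw [← hid]
    unfold CWp480.cap cwB chi
    simp only
    congr 1
    rw [symm_Fr, pt_two, lat_pt, e0, e2, e1, hJ _ hS.1 hS.2.1]
    congr 2
    rw [lat_sub_eq h7, smul_smul, smul_smul, smul_smul]
    have e4 : ρ / s * (ζ 2)⁻¹ * ρ⁻¹ * ζ 2 = s⁻¹ := by field_simp
    rw [e4, ← smul_add]
    congr 1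
    abel

/-! ### kernel bound -/

theorem chi_meas (A : ℝ) (C : E2) (s : ℝ) : Measurable (chi A C s) := by
  unfold chi
  exact Complex.measurable_ofReal.comp ((cb A).continuous.measurable.comp
    ((measurable_slp.sub_const C).const_smul s⁻¹))

theorem chi_le (A : ℝ) (C : E2) (s : ℝ) (ζ : E3) : ‖chi A C s ζ‖ ≤ 1 := by
  unfold chi
  rw [Complex.norm_real, Real.norm_eq_abs, abs_of_nonneg (ContDiffBump.nonneg _)]
  exact ContDiffBump.le_one _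

theorem chi_ne {A : ℝ} {C : E2} {s : ℝ} {ζ : E3} (h : chi A C s ζ ≠ 0) :
    ‖s⁻¹ • (slp ζ - C)‖ < |A| + 4 := by
  by_contra hc
  push Not at hc
  apply h
  unfold chi
  rw [ContDiffBump.zero_of_le_dist]
  · simp
  · rw [dist_zero_right]; exact hc

theorem ker_chi {a : ℝ} (ha : 1 ≤ a) (N : ℕ) (A : ℝ) : ∃ K : ℝ, 0 ≤ K ∧
    ∀ (ρ s : ℝ), 0 < ρ → ρ ≤ s → ∀ (C' : E2) (g : E3 → ℂ), Integrable g →
      (∀ ζ, g ζ ≠ 0 → a⁻¹ ≤ ζ 2 ∧ ζ 2 ≤ a) → ∀ (m : ℤ × ℤ) (X : E3),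
      ‖umc ρ (fun ζ => chi A C' s ζ * g ζ) m X‖ₑ ≤ ENNReal.ofReal K *
        ∫⁻ y, ENNReal.ofReal (kc N ρ 1 (cen ρ m) (X - y)) * ‖umc ρ g m y‖ₑ := by
  have hEW := ew_unsliced ha
  obtain ⟨J, hJs, hJ⟩ := exists_inv hEW.one
  obtain ⟨Q, hQ, hw⟩ := cwB_unif hEW hJs hJ N A (|A| + 6)
  obtain ⟨c, hc, hk⟩ := Kf_bound E3 N
  set lm := lam (2 * a) (2 * a) with hlm
  have hl : 0 < lm := lam_pos hEW.one hEW.M0
  refine ⟨c * Q * lm ^ 3, by positivity, ?_⟩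
  intro ρ s hρ hρs C' g hg hgs m X
  have hs : 0 < s := lt_of_lt_of_le hρ hρs
  set C := cen ρ m with hC
  by_cases hμ : ‖s⁻¹ • (C - C')‖ ≤ |A| + 6
  · have hp : ((0:ℝ), (1:ℝ)) ∈ ({((0:ℝ), (1:ℝ))} : Set (ℝ × ℝ)) := Set.mem_singleton _
    have hwin := hw _ hμ (ρ / s) (by positivity) (by rw [div_le_one hs]; exact hρs) _ hp
    have hid := fun ζ => cwB_id hEW hJ hp one_pos hρ hs A C C' ζ
    set b := cwB J lm (fun x => ((bu a ha x : ℝ) : ℂ)) A (s⁻¹ • (C - C'), (ρ / s, ((0:ℝ), (1:ℝ))))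
      with hb
    set B := Fr lm ρ 1 hl hρ one_pos C with hB
    have heq : (fun ζ => capc ρ m ζ * (chi A C' s ζ * g ζ)) =
        fun ζ => CWp480.cap b (ctr 0 C) B ζ * (capc ρ m ζ * g ζ) := by
      funext ζ
      have h1 := hid ζ
      simp only at h1
      rw [h1]
      by_cases hz : capc ρ m ζ * g ζ = 0
      · have : capc ρ m ζ * (chi A C' s ζ * g ζ) = chi A C' s ζ * (capc ρ m ζ * g ζ) := by ring
        rw [this, hz, mul_zero, mul_zero]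
      · have h3 : capc ρ m ζ ≠ 0 := left_ne_zero_of_mul hz
        have h4 := hgs ζ (right_ne_zero_of_mul hz)
        have h5 : Crest.Agent.R138.Wpk685.cap fat C ρ (slp ζ) = 1 :=
          capfat_one hρ _ _ (Crest.Agent.R138.Wpk685.capwin_supp hρ m _ h3)
        rw [h5, sub_zero, div_one, bu_one ha h4.1 h4.2]
        push_cast
        ring
    have hrep := rep_mul (contDiff_cap hwin.smooth (ctr 0 C) B).continuous
      (cap_int hwin (ctr 0 C) B) (Kf_int hwin (ctr 0 C) B) (Kf_int' hwin (ctr 0 C) B)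
      (capc_mul_int hg ρ m) X
    have e1 : umc ρ (fun ζ => chi A C' s ζ * g ζ) m X =
        ∫ y, umc ρ g m y * 𝓕⁻ (CWp480.cap b (ctr 0 C) B) (X - y) := by
      unfold umc
      rw [heq, hrep]
    rw [e1]
    refine (F1c124.enorm_conv_le (b := kc N ρ 1 C) ?_ (by positivity) X)
    intro x
    refine (hk Q b hwin _ _ _).trans ?_
    have h1 : adet (B : E3 →L[ℝ] E3) = lm ^ 3 * (ρ ^ 2 * 1) := by
      rw [hB]
      unfold Fr
      rw [adet_Pl]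
      ring
    have h2 : 1 ≤ lm := by rw [hlm]; unfold lam; linarith
    have h3 : ‖Pl ρ 1 hρ one_pos C x‖ ≤ ‖B x‖ := by
      rw [hB, norm_Fr]
      exact le_mul_of_one_le_left (norm_nonneg _) h2
    rw [h1, kc_eq N hρ one_pos, adet_Pl]
    calc c * Q * (lm ^ 3 * (ρ ^ 2 * 1)) * ((1 + ‖B x‖) ^ N)⁻¹
        ≤ c * Q * (lm ^ 3 * (ρ ^ 2 * 1)) * ((1 + ‖Pl ρ 1 hρ one_pos C x‖) ^ N)⁻¹ := by gcongr
      _ = _ := by ring
  · push Not at hμ
    have hz : (fun ζ => capc ρ m ζ * (chi A C' s ζ * g ζ)) = fun _ => 0 := by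
      funext ζ
      by_contra hne
      have h3 : capc ρ m ζ ≠ 0 := left_ne_zero_of_mul hne
      have h4 : chi A C' s ζ ≠ 0 := left_ne_zero_of_mul (right_ne_zero_of_mul hne)
      have h5 := chi_ne h4
      have h6 := Crest.Agent.R138.Wpk685.capwin_supp hρ m _ h3
      have h7 : ‖s⁻¹ • (slp ζ - cen ρ m)‖ ≤ 71 / 50 := by
        rw [norm_smul, Real.norm_eq_abs, abs_of_pos (inv_pos.2 hs), inv_mul_le_iff₀ hs]
        linarith
      have h8 : s⁻¹ • (C - C') = s⁻¹ • (slp ζ - C') - s⁻¹ • (slp ζ - cen ρ m) := by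
        rw [← smul_sub, hC]
        congr 1
        abel
      have h9 := norm_sub_le (s⁻¹ • (slp ζ - C')) (s⁻¹ • (slp ζ - cen ρ m))
      rw [← h8] at h9
      linarith
    have e1 : umc ρ (fun ζ => chi A C' s ζ * g ζ) m X = 0 := by
      unfold umc
      rw [hz]
      simp [fourierInv_eq_int]
    rw [e1]
    simp

/-- **MulBx**. -/
theorem mulBx {M q : ℝ} (hM : 1 ≤ M) (hq : 0 ≤ q) : MulBx M q := by
  intro a b A ha hb hb2 hA
  obtain ⟨j, Ck, hCk, hbox⟩ := Sub387.box_of_ker hM hq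
  obtain ⟨K, hK, hker⟩ := ker_chi ha (dd E3 + j) A
  refine ⟨max 1 (Ck * K ^ 2), le_max_left _ _, ?_⟩
  intro g R D s C hR hD hs hs1 hgm hgb hgs hbx
  have hR0 : 0 < R := by linarith
  have hρ : 0 < R ^ (-(1/2) : ℝ) := Real.rpow_pos_of_pos hR0 _
  have ha0 : 0 < a := by linarith
  have hgd : Bas367.Gd g := Bas367.gd_of_supp hgm hgb
    (a := a) (b := b) (fun ζ hζ => ⟨lt_of_lt_of_le (inv_pos.2 ha0) (hgs ζ hζ).1,
      (hgs ζ hζ).2.1, (hgs ζ hζ).2.2⟩)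
  have h1 := hbox 1 R one_pos le_rfl hR (Real.rpow_le_one_of_one_le_of_nonpos hR (by norm_num))
    g (fun ζ => chi A C s ζ * g ζ) (fun _ => Set.univ) hgd.int (fun _ _ => MeasurableSet.univ)
    K hK ?_ D hD ?_
  · intro c X0 f s1 s2 hsd hadm
    refine (h1 c X0 f s1 s2 hsd hadm).trans (ENNReal.ofReal_le_ofReal ?_)
    have hS := Sub387.sf_of hR one_pos hsd
    have h2 := hS.s10
    have h3 := hS.s20
    have h4 := hS.T0
    have h5 : 0 ≤ scost 1 s1 s2 R := by unfold scost; positivity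
    have h6 : Ck * K ^ 2 ≤ max 1 (Ck * K ^ 2) := le_max_right _ _
    gcongr
  · intro m' hm' X
    refine (hker _ s hρ hs C g hgd.int (fun ζ hζ => ⟨(hgs ζ hζ).1, (hgs ζ hζ).2.1⟩) m' X).trans ?_
    refine mul_le_mul_right ?_ _
    have hm : m' ∈ nearL (R ^ (-(1/2) : ℝ)) (R ^ (-(1/2) : ℝ)) m' := by
      rw [mem_nearL]
      refine ⟨hm', ?_⟩
      unfold Near
      rw [sub_self, norm_zero]
      linarith
    refine le_trans (le_of_eq ?_) (Finset.single_le_sum (f := fun m => ∫⁻ y in Set.univ,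
      ENNReal.ofReal (kc (dd E3 + j) (R ^ (-(1/2) : ℝ)) 1 (cen (R ^ (-(1/2) : ℝ)) m) (X - y)) *
        ‖umc (R ^ (-(1/2) : ℝ)) g m y‖ₑ) (fun _ _ => zero_le) hm)
    rw [Measure.restrict_univ]
  · intro c X0 f s1 s2 hsd hadm
    refine le_trans (le_of_eq ?_) (hbx c X0 f s1 s2 hsd hadm)
    congr 1
    funext m
    rw [Set.univ_inter]

end Crest.Agent.R116.MulB387
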