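import Crest.Agent.R116.Mc9_330
import Crest.Agent.R116.Mc1_330

/-!
# R116 (S0155): numerology of the misaligned step (helper748)
-/

set_option autoImplicit false

open MeasureTheory
open scoped ENNReal

namespace Crest.Agent.R116.MwN748

open Crest.Agent.R138.Defs (E2)
open Crest.Agent.R116.CDef480
open Crest.Agent.R116.Mc330 (tt K0c v0)
open Crest.Agent.R116.Mc330.ChN (Kp)
open Crest.Agent.R116.Ma448 (pv)

/-- volume of a plank from below. -/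
theorem v0_ge {r w B : ℝ} (hr : 0 ≤ r) (hw : 0 ≤ w) (hB : 0 ≤ B) :
    4 * (w * w * B * r) ≤ v0 r w B := by
  have h1 := Mc330.le_slice (0 : E2) (0 : E3) hw hB 0
  have h2 : {X : E3 | ‖lat X - lat (0 : E3) + (0:ℝ) • (0 : E2)‖ ≤ w ∧
      |nrm (0 : E2) X 0 - nrm (0 : E2) (0 : E3) 0| ≤ B} = {X : E3 | ‖lat X‖ ≤ w ∧ |X 2| ≤ B} := by
    ext X
    have e0 : lat (0 : E3) = 0 := by ext i; fin_cases i <;> rfl
    have e1 : nrm (0 : E2) X 0 = X 2 := by rw [Ckm538.nrm_zero]; simp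
    have e2 : nrm (0 : E2) (0 : E3) 0 = 0 := by rw [Ckm538.nrm_zero]; simp
    simp only [Set.mem_ofPred_eq, e0, e1, e2, smul_zero, sub_zero, add_zero]
  rw [h2] at h1
  have h3 : ENNReal.ofReal (2 * (w * w * B)) ≤ pv w B := h1
  have h4 : ENNReal.ofReal (4 * (w * w * B * r)) ≤ ENNReal.ofReal (v0 r w B) := by
    rw [Mc330.ofReal_v0]
    have e : 4 * (w * w * B * r) = (2 * r) * (2 * (w * w * B)) := by ring
    rw [e, ENNReal.ofReal_mul (by positivity)]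
    exact mul_le_mul' le_rfl h3
  have h5 : 0 ≤ v0 r w B := ENNReal.toReal_nonneg
  exact (ENNReal.ofReal_le_ofReal_iff h5).1 h4

theorem v0_pos {r w B : ℝ} (hr : 0 < r) (hw : 0 < w) (hB : 0 < B) : 0 < v0 r w B := by
  refine lt_of_lt_of_le ?_ (v0_ge hr.le hw.le hB.le)
  positivity

/-- the inverse of `tt` (pure algebra). -/
theorem tt_inv {r w B φ q D MX MZ VX VZ κ1 : ℝ} :
    (tt r w B φ q D MX MZ VX VZ κ1)⁻¹ =
      4608 * K0c r w B φ q D * (VZ / MZ) * (VX / MX) / (κ1 * (v0 r w B) ^ 2) := by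
  unfold tt
  rw [inv_div]
  norm_num
  generalize v0 r w B = v
  generalize K0c r w B φ q D = K
  rcases eq_or_ne v 0 with hv | hv
  · subst hv; simp
  rcases eq_or_ne MX 0 with h1 | h1
  · subst h1; simp
  rcases eq_or_ne MZ 0 with h2 | h2
  · subst h2; simp
  rcases eq_or_ne VX 0 with h3 | h3
  · subst h3; simp
  rcases eq_or_ne VZ 0 with h4 | h4
  · subst h4; simp
  rcases eq_or_ne κ1 0 with h5 | h5
  · subst h5; simp
  field_simp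

/-- **numerology of the misaligned step**. -/
theorem num_mis {q : ℝ} (hq : 0 < q) (hq1 : q ≤ 1) : ∃ (G G' : ℝ), 1 ≤ G ∧ 0 ≤ G' ∧
  ∀ (M A c3 C1 : ℝ), 1 ≤ M → 1 ≤ A → 1 ≤ c3 → 0 ≤ C1 → ∃ C2 : ℝ, 0 ≤ C2 ∧
  ∀ (Y Gm δ dl θ θj r κ s1 s2 T s1' s2' T' D c0 ε : ℝ),
    1 ≤ Y → 1 ≤ Gm → 0 < δ → δ ≤ 1 → dl = δ ^ 2 → 0 < θ → θ = δ * θj → θ ^ 2 * r = 1 → 0 < κ →
    θj ≤ s1 → θ ≤ s1' → 0 < s2 → 0 < s2' → 0 < T → 0 < T' → θ ≤ dl ^ G * s2 → θ ≤ dl ^ G * s2' →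
    0 < D → 0 < c0 → c0 ≤ 1 →
    (tt r θ⁻¹ κ⁻¹ (448 * Kp M A Y Gm c3 * θj / δ) q (124420096 * D)
        (c0 * (D * s2' ^ q * (s1' * s2' * T' * r ^ 3)))
        (dl ^ 10 * (D * s2 ^ q * (s1 * s2 * T * (dl * r) ^ 3)))
        (512 * (10 * A ^ 2 * 1) ^ 3 * ((30 * Kp M A 1 Gm 1 * θ * r) * (s2' * r) * (T' * r) * r))
        (512 * (10 * A ^ 2 * Y) ^ 3 * ((30 * Kp M A Y Gm c3 * θj * r) * (s2 * r) * (T * r) * r))
        (dl ^ 11)) ^ (-(1/2) : ℝ) *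
      ((r * κ⁻¹) ^ (3/2 : ℝ) * (C1 * r ^ ε * (max s2 s2') ^ (q / 2) * Real.sqrt D * r)) ≤
    C2 * r ^ ε * (Y / c0) ^ G' * Gm ^ G' * dl ^ 12 * v0 r θ⁻¹ κ⁻¹ := by
  set cq : ℝ := (1 - 2 ^ (-q))⁻¹ with hcq
  have hcq0 : 0 < cq := inv_pos.2 (Mc330.one_sub_pos hq)
  refine ⟨60 / q + 10, 3, by have : 0 < 60 / q := by positivity
                             linarith, by norm_num, ?_⟩
  intro M A c3 C1 hM hA hc3 hC1
  set c1 : ℝ := 15360000 * A ^ 6 with hc1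
  have hc10 : 0 < c1 := by positivity
  set KK : ℝ := 4608 * (4 * 124420096 * cq * 896 ^ 2) * c1 ^ 2 * (M ^ 4 * A ^ 4 * c3 ^ 3) * C1 ^ 2
    with hKK
  have hKK0 : 0 ≤ KK := by positivity
  refine ⟨Real.sqrt KK, Real.sqrt_nonneg _, ?_⟩
  intro Y Gm δ dl θ θj r κ s1 s2 T s1' s2' T' D c0 ε hY hGm hδ hδ1 hdl hθ hθj hθr hκ hs1 hs1' hs2
    hs2' hT hT' hsm hsm' hD hc0 hc01
  have hr : 0 < r := by
    by_contra hn
    have := mul_nonpos_of_nonneg_of_nonpos (sq_nonneg θ) (not_lt.1 hn)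
    linarith
  have hdl0 : 0 < dl := by rw [hdl]; positivity
  have hdl1 : dl ≤ 1 := by rw [hdl]; exact pow_le_one₀ hδ.le hδ1
  have hθj0 : 0 < θj := by
    by_contra hn
    have := mul_nonpos_of_nonneg_of_nonpos hδ.le (not_lt.1 hn)
    linarith
  have hs10 : 0 < s1 := hθj0.trans_le hs1
  have hs10' : 0 < s1' := hθ.trans_le hs1'
  have hB : 0 < κ⁻¹ := inv_pos.2 hκ
  have hθi : 0 < θ⁻¹ := inv_pos.2 hθ
  set K : ℝ := Kp M A Y Gm c3 with hK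
  set K' : ℝ := Kp M A 1 Gm 1 with hK'
  have eK : K = M * A * Y * c3 * Gm := rfl
  have eK' : K' = M * A * Gm := by rw [hK']; unfold Kp; ring
  have hK1 : 1 ≤ K := by
    rw [eK]
    exact one_le_mul_of_one_le_of_one_le (one_le_mul_of_one_le_of_one_le
      (one_le_mul_of_one_le_of_one_le (one_le_mul_of_one_le_of_one_le hM hA) hY) hc3) hGm
  have hK0 : 0 < K := by linarith
  have hK0' : 0 < K' := by rw [eK']; positivity
  set v : ℝ := v0 r θ⁻¹ κ⁻¹ with hv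
  have hv0 : 0 < v := v0_pos hr hθi hB
  have hθθ : θ⁻¹ * θ⁻¹ = r := by
    field_simp
    linarith
  have hv1 : r ^ 2 * κ⁻¹ ≤ v := by
    have h := v0_ge hr.le hθi.le hB.le
    rw [hθθ] at h
    have h2 : 0 < r ^ 2 * κ⁻¹ := by positivity
    have e : 4 * (r * κ⁻¹ * r) = 4 * (r ^ 2 * κ⁻¹) := by ring
    rw [e] at h
    linarith
  have hs2q : 0 < s2 ^ q := Real.rpow_pos_of_pos hs2 _
  have hs2q' : 0 < s2' ^ q := Real.rpow_pos_of_pos hs2' _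
  have hθq : 0 < θ ^ q := Real.rpow_pos_of_pos hθ _
  set φ : ℝ := 448 * K * θj / δ with hφ
  set x : ℝ := 896 * K / dl with hx
  have hx0 : 0 < x := by positivity
  have hx1 : 1 ≤ x := by
    rw [hx, le_div_iff₀ hdl0]
    linarith
  have h2φ : 2 * φ = x * θ := by
    rw [hφ, hx, hθj, hdl]
    field_simp
    ring
  -- the Cordoba constant
  set k2 : ℝ := 4 * 124420096 * cq with hk2
  have hk20 : 0 < k2 := by positivity
  have hK0c : K0c r θ⁻¹ κ⁻¹ φ q (124420096 * D) ≤ k2 * D * κ⁻¹ * r * x ^ 2 * θ ^ q := by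
    unfold K0c
    rw [h2φ, Real.mul_rpow hx0.le hθ.le, ← hcq]
    have e1 : θ⁻¹ / r = θ := by
      field_simp
      linarith
    rw [e1]
    have e2 : x ^ q ≤ x := by
      calc x ^ q ≤ x ^ (1:ℝ) := Real.rpow_le_rpow_of_exponent_le hx1 hq1
        _ = x := Real.rpow_one x
    have e3 : θ * θ * r = 1 := by rw [← pow_two]; exact hθr
    calc 4 * θ * (124420096 * D * (x * θ) * (κ⁻¹ * r ^ 2)) * (x ^ q * θ ^ q) * cq
        = (k2 * D * κ⁻¹ * r * x * (θ * θ * r) * θ ^ q) * x ^ q := by rw [hk2]; ring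
      _ ≤ (k2 * D * κ⁻¹ * r * x * (θ * θ * r) * θ ^ q) * x := by
          refine mul_le_mul_of_nonneg_left e2 ?_
          positivity
      _ = _ := by rw [e3]; ring
  have hK0c0 : 0 ≤ K0c r θ⁻¹ κ⁻¹ φ q (124420096 * D) := by
    have hφ0 : 0 < φ := by positivity
    exact (Mc330.K0c_pos hr hθi hB hφ0 hq (by positivity)).le
  set MX : ℝ := c0 * (D * s2' ^ q * (s1' * s2' * T' * r ^ 3)) with hMX
  set MZ : ℝ := dl ^ 10 * (D * s2 ^ q * (s1 * s2 * T * (dl * r) ^ 3)) with hMZ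
  set VX : ℝ := 512 * (10 * A ^ 2 * 1) ^ 3 * ((30 * K' * θ * r) * (s2' * r) * (T' * r) * r) with hVX
  set VZ : ℝ := 512 * (10 * A ^ 2 * Y) ^ 3 * ((30 * K * θj * r) * (s2 * r) * (T * r) * r) with hVZ
  have hMX0 : 0 < MX := by positivity
  have hMZ0 : 0 < MZ := by positivity
  have hVX0 : 0 < VX := by positivity
  have hVZ0 : 0 < VZ := by positivity
  have ha : VZ / MZ ≤ c1 * Y ^ 3 * K * r / (dl ^ 13 * D * s2 ^ q) := by
    rw [div_le_div_iff₀ hMZ0 (by positivity)]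
    have e1 : VZ * (dl ^ 13 * D * s2 ^ q) =
        (c1 * Y ^ 3 * K * s2 * T * r ^ 4 * (dl ^ 13 * D * s2 ^ q)) * θj := by
      rw [hVZ, hc1]; ring
    have e2 : c1 * Y ^ 3 * K * r * MZ =
        (c1 * Y ^ 3 * K * s2 * T * r ^ 4 * (dl ^ 13 * D * s2 ^ q)) * s1 := by
      rw [hMZ]; ring
    rw [e1, e2]
    exact mul_le_mul_of_nonneg_left hs1 (by positivity)
  have hb : VX / MX ≤ c1 * K' * r / (c0 * D * s2' ^ q) := by
    rw [div_le_div_iff₀ hMX0 (by positivity)]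
    have e1 : VX * (c0 * D * s2' ^ q) =
        (c1 * K' * s2' * T' * r ^ 4 * (c0 * D * s2' ^ q)) * θ := by
      rw [hVX, hc1]; ring
    have e2 : c1 * K' * r * MX =
        (c1 * K' * s2' * T' * r ^ 4 * (c0 * D * s2' ^ q)) * s1' := by
      rw [hMX]; ring
    rw [e1, e2]
    exact mul_le_mul_of_nonneg_left hs1' (by positivity)
  set X : ℝ := tt r θ⁻¹ κ⁻¹ φ q (124420096 * D) MX MZ VX VZ (dl ^ 11) with hX
  have hXi : X⁻¹ ≤ 4608 * (k2 * D * κ⁻¹ * r * x ^ 2 * θ ^ q) *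
      (c1 * Y ^ 3 * K * r / (dl ^ 13 * D * s2 ^ q)) * (c1 * K' * r / (c0 * D * s2' ^ q)) /
        (dl ^ 11 * v ^ 2) := by
    rw [hX, tt_inv]
    have h1 : 0 ≤ VZ / MZ := by positivity
    have h2 : 0 ≤ VX / MX := by positivity
    have h3 : 0 ≤ c1 * Y ^ 3 * K * r / (dl ^ 13 * D * s2 ^ q) := by positivity
    have h4 : 0 ≤ k2 * D * κ⁻¹ * r * x ^ 2 * θ ^ q := by positivity
    gcongr
  have hX0 : 0 ≤ X := by
    have h1 : 0 ≤ X⁻¹ := by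
      rw [hX, tt_inv]
      positivity
    exact inv_nonneg.1 h1
  -- the ratio of the sides
  set sm : ℝ := max s2 s2' with hsmx
  have hsm0 : 0 < sm := lt_max_of_lt_left hs2
  have hsmq : 0 < sm ^ q := Real.rpow_pos_of_pos hsm0 _
  set Gx : ℝ := 60 / q + 10 with hGx
  have hdG : (dl ^ Gx) ^ q ≤ dl ^ 50 := by
    rw [← Real.rpow_mul hdl0.le, ← Real.rpow_natCast dl 50]
    refine Real.rpow_le_rpow_of_exponent_ge hdl0 hdl1 ?_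
    rw [hGx, add_mul, div_mul_cancel₀ _ hq.ne']
    push_cast
    linarith
  have hside : θ ^ q * sm ^ q ≤ dl ^ 50 * (s2 ^ q * s2' ^ q) := by
    have h1 : θ ^ q ≤ dl ^ 50 * s2 ^ q := by
      calc θ ^ q ≤ (dl ^ Gx * s2) ^ q := Real.rpow_le_rpow hθ.le hsm hq.le
        _ = (dl ^ Gx) ^ q * s2 ^ q := Real.mul_rpow (Real.rpow_nonneg hdl0.le _) hs2.le
        _ ≤ _ := mul_le_mul_of_nonneg_right hdG hs2q.le
    have h2 : θ ^ q ≤ dl ^ 50 * s2' ^ q := by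
      calc θ ^ q ≤ (dl ^ Gx * s2') ^ q := Real.rpow_le_rpow hθ.le hsm' hq.le
        _ = (dl ^ Gx) ^ q * s2' ^ q := Real.mul_rpow (Real.rpow_nonneg hdl0.le _) hs2'.le
        _ ≤ _ := mul_le_mul_of_nonneg_right hdG hs2q'.le
    rcases le_total s2 s2' with h3 | h3
    · rw [hsmx, max_eq_right h3]
      calc θ ^ q * s2' ^ q ≤ (dl ^ 50 * s2 ^ q) * s2' ^ q :=
            mul_le_mul_of_nonneg_right h1 hs2q'.le
        _ = _ := by ring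
    · rw [hsmx, max_eq_left h3]
      calc θ ^ q * s2 ^ q ≤ (dl ^ 50 * s2' ^ q) * s2 ^ q :=
            mul_le_mul_of_nonneg_right h2 hs2q.le
        _ = _ := by ring
  have hrε : 0 < r ^ ε := Real.rpow_pos_of_pos hr _
  have hsD := Real.sqrt_nonneg D
  have hYc : (0:ℝ) ≤ (Y / c0) ^ (3 : ℝ) := Real.rpow_nonneg (by positivity) _
  have hGc : (0:ℝ) ≤ Gm ^ (3 : ℝ) := Real.rpow_nonneg (by linarith) _
  have hL0 : 0 ≤ X ^ (-(1/2) : ℝ) *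
      ((r * κ⁻¹) ^ (3/2 : ℝ) * (C1 * r ^ ε * sm ^ (q / 2) * Real.sqrt D * r)) := by
    have h1 := Real.rpow_nonneg hX0 (-(1/2) : ℝ)
    have h2 : 0 ≤ (r * κ⁻¹) ^ (3/2 : ℝ) := Real.rpow_nonneg (by positivity) _
    have h3 : 0 ≤ sm ^ (q / 2) := Real.rpow_nonneg hsm0.le _
    positivity
  have hR0 : 0 ≤ Real.sqrt KK * r ^ ε * (Y / c0) ^ (3:ℝ) * Gm ^ (3:ℝ) * dl ^ 12 * v := by
    positivity
  refine (pow_le_pow_iff_left₀ hL0 hR0 two_ne_zero).1 ?_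
  -- the squares
  have q1 : (X ^ (-(1/2) : ℝ)) ^ 2 = X⁻¹ := by
    rw [← Real.rpow_natCast, ← Real.rpow_mul hX0]
    norm_num
    exact Real.rpow_neg_one X
  have q2 : ((r * κ⁻¹) ^ (3/2 : ℝ)) ^ 2 = (r * κ⁻¹) ^ 3 := by
    rw [← Real.rpow_natCast, ← Real.rpow_mul (by positivity), ← Real.rpow_natCast]
    norm_num
  have q3 : (sm ^ (q / 2)) ^ 2 = sm ^ q := by
    rw [← Real.rpow_natCast, ← Real.rpow_mul hsm0.le]
    congr 1
    push_cast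
    ring
  have q4 : Real.sqrt D ^ 2 = D := Real.sq_sqrt hD.le
  have q5 : Real.sqrt KK ^ 2 = KK := Real.sq_sqrt hKK0
  have q6 : (Y / c0) ^ (3:ℝ) = (Y / c0) ^ 3 := by
    rw [← Real.rpow_natCast]; norm_num
  have q7 : Gm ^ (3:ℝ) = Gm ^ 3 := by
    rw [← Real.rpow_natCast]; norm_num
  have eL : (X ^ (-(1/2) : ℝ) *
      ((r * κ⁻¹) ^ (3/2 : ℝ) * (C1 * r ^ ε * sm ^ (q / 2) * Real.sqrt D * r))) ^ 2 =
      X⁻¹ * ((r * κ⁻¹) ^ 3 * (C1 ^ 2 * (r ^ ε) ^ 2 * sm ^ q * D * r ^ 2)) := by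
    calc _ = (X ^ (-(1/2) : ℝ)) ^ 2 * (((r * κ⁻¹) ^ (3/2 : ℝ)) ^ 2 *
          (C1 ^ 2 * (r ^ ε) ^ 2 * (sm ^ (q / 2)) ^ 2 * (Real.sqrt D) ^ 2 * r ^ 2)) := by ring
      _ = _ := by rw [q1, q2, q3, q4]
  have eR : (Real.sqrt KK * r ^ ε * (Y / c0) ^ (3:ℝ) * Gm ^ (3:ℝ) * dl ^ 12 * v) ^ 2 =
      KK * (r ^ ε) ^ 2 * ((Y / c0) ^ 3) ^ 2 * (Gm ^ 3) ^ 2 * dl ^ 24 * v ^ 2 := by
    rw [q6, q7]
    calc _ = (Real.sqrt KK) ^ 2 * (r ^ ε) ^ 2 * ((Y / c0) ^ 3) ^ 2 * (Gm ^ 3) ^ 2 * dl ^ 24 *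
          v ^ 2 := by ring
      _ = _ := by rw [q5]
  rw [eL, eR]
  have hW0 : 0 ≤ (r * κ⁻¹) ^ 3 * (C1 ^ 2 * (r ^ ε) ^ 2 * sm ^ q * D * r ^ 2) := by positivity
  refine (mul_le_mul_of_nonneg_right hXi hW0).trans ?_
  have hratio : θ ^ q * sm ^ q / (s2 ^ q * s2' ^ q) ≤ dl ^ 50 := by
    rw [div_le_iff₀ (by positivity)]
    exact hside
  have hvr : (r ^ 2 * κ⁻¹) ^ 4 / v ^ 2 ≤ v ^ 2 := by
    rw [div_le_iff₀ (by positivity)]
    calc (r ^ 2 * κ⁻¹) ^ 4 ≤ v ^ 4 := pow_le_pow_left₀ (by positivity) hv1 4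
      _ = v ^ 2 * v ^ 2 := by ring
  have eB : 4608 * (k2 * D * κ⁻¹ * r * x ^ 2 * θ ^ q) *
      (c1 * Y ^ 3 * K * r / (dl ^ 13 * D * s2 ^ q)) * (c1 * K' * r / (c0 * D * s2' ^ q)) /
        (dl ^ 11 * v ^ 2) * ((r * κ⁻¹) ^ 3 * (C1 ^ 2 * (r ^ ε) ^ 2 * sm ^ q * D * r ^ 2)) =
      (4608 * k2 * c1 ^ 2 * C1 ^ 2 * Y ^ 3 * K * K' * x ^ 2 * (r ^ ε) ^ 2 / (dl ^ 24 * c0)) *
        ((θ ^ q * sm ^ q / (s2 ^ q * s2' ^ q)) * ((r ^ 2 * κ⁻¹) ^ 4 / v ^ 2)) := by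
    field_simp
  rw [eB]
  have hC0 : 0 ≤ 4608 * k2 * c1 ^ 2 * C1 ^ 2 * Y ^ 3 * K * K' * x ^ 2 * (r ^ ε) ^ 2 /
      (dl ^ 24 * c0) := by positivity
  refine (mul_le_mul_of_nonneg_left (mul_le_mul hratio hvr (by positivity) (by positivity))
    hC0).trans ?_
  have eD : 4608 * k2 * c1 ^ 2 * C1 ^ 2 * Y ^ 3 * K * K' * x ^ 2 * (r ^ ε) ^ 2 /
      (dl ^ 24 * c0) * (dl ^ 50 * v ^ 2) =
      (KK * (r ^ ε) ^ 2 * dl ^ 24 * v ^ 2) * (Y ^ 6 / c0 * Gm ^ 4) := by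
    rw [hx, hKK, eK, eK']
    field_simp
  rw [eD]
  have e1 : Y ^ 6 / c0 ≤ ((Y / c0) ^ 3) ^ 2 := by
    rw [← pow_mul, div_pow]
    have h1 : c0 ^ 6 ≤ c0 := by
      calc c0 ^ 6 ≤ c0 ^ 1 := pow_le_pow_of_le_one hc0.le hc01 (by norm_num)
        _ = c0 := pow_one c0
    exact div_le_div_of_nonneg_left (by positivity) (by positivity) h1
  have e2 : Gm ^ 4 ≤ (Gm ^ 3) ^ 2 := by
    rw [← pow_mul]
    exact pow_le_pow_right₀ hGm (by norm_num)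
  calc (KK * (r ^ ε) ^ 2 * dl ^ 24 * v ^ 2) * (Y ^ 6 / c0 * Gm ^ 4) ≤
        (KK * (r ^ ε) ^ 2 * dl ^ 24 * v ^ 2) * (((Y / c0) ^ 3) ^ 2 * (Gm ^ 3) ^ 2) := by
        refine mul_le_mul_of_nonneg_left (mul_le_mul e1 e2 (by positivity) (by positivity)) ?_
        positivity
    _ = _ := by ring

end Crest.Agent.R116.MwN748
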