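import Crest.Agent.R116.Mc12_330
import Crest.Agent.R116.MwN_748

/-!
# R116 (S0155): MIS_C from the Kakeya row (helper748; parts of helper330)
-/

set_option autoImplicit false

namespace Crest.Agent.R116.MwM748

/-- the numerology. -/
theorem numP {q : ℝ} (hq : 0 < q) (hq1 : q ≤ 1) : Mc330.NumP q := MwN748.num_mis hq hq1

/-- **MIS_C** (misaligned step of the cone) from the Kakeya row. -/
theorem mis_c {M q : ℝ} (hM : 1 ≤ M) (hq : 0 < q) (hq1 : q ≤ 1) (hKMR : KMR890.KMR M q) :
    PC299.MIS_C M q :=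
  Mc330.mis_c hM hq hq1 (numP hq hq1) (fun _ _ _ hr hw hB => MwN748.v0_pos hr hw hB) hKMR

end Crest.Agent.R116.MwM748
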