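import Crest.Agent.R116.CWd3_480
import Crest.Agent.R116.UpC1_192
import Crest.Agent.R116.AlB1_888

/-!
# R116 (S0155), wave side: MIS for the cone, wave half, part 1 (helper748)

`pt_leC`: pointwise bound of a child packet of `trc z (selc η0 κ ρ g S)` by the density of the
selected parent packets.
-/

set_option autoImplicit false
set_option linter.unusedVariables false
set_option linter.unusedSectionVars false

open MeasureTheory FourierTransform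
open scoped ContDiff ENNReal

namespace Crest.Agent.R116.Mwc748

open Crest.Agent.R138.Wf448
open Crest.Agent.R138.Defs (E2 ee)
open Crest.Agent.R138.Wpk685 (win fat cen caps)
open Crest.Agent.R138.Loc878 (nearL nearS mem_nearL mem_nearS Near)
open Crest.Agent.R116.CWp480 Crest.Agent.R116.CDef480 Crest.Agent.R116.CWc480
open Crest.Agent.R116.CWd480 Crest.Agent.R116.Up192
open Crest.Agent.R116.Cad538 (frc wt frc_le_frc wt_frame)
open Crest.Agent.R116.AlB888 (Adc)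

/-! ### frames -/

theorem Pl_eq_frc {ρ κ : ℝ} (hρ : 0 < ρ) (hκ : 0 < κ) (C : E2) (X : E3) :
    Pl ρ κ hρ hκ C X = frc ρ κ C X := by
  rw [Pl_apply, Cad538.frc_apply, Ckm538.nrm_zero]

theorem adet_Pl {ρ κ : ℝ} (hρ : 0 < ρ) (hκ : 0 < κ) (C : E2) :
    adet (Pl ρ κ hρ hκ C : E3 →L[ℝ] E3) = ρ ^ 2 * κ := by
  unfold adet
  have e : ((Pl ρ κ hρ hκ C : E3 →L[ℝ] E3) : E3 →ₗ[ℝ] E3) = (frc ρ κ C : E3 →ₗ[ℝ] E3) := by
    ext X : 1
    exact Pl_eq_frc hρ hκ C X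
  rw [e, Cad538.det_frc, abs_of_pos (by positivity)]

theorem Pl_mono {ρ ρ' κ : ℝ} (hρ : 0 < ρ) (hρ' : 0 < ρ') (hκ : 0 < κ) (h : ρ ≤ ρ') (C : E2)
    (X : E3) : ‖Pl ρ κ hρ hκ C X‖ ≤ ‖Pl ρ' κ hρ' hκ C X‖ := by
  rw [Pl_eq_frc, Pl_eq_frc]
  refine abs_le_of_sq_le_sq' ?_ (norm_nonneg _) |>.2
  rw [Cad538.norm_frc_sq, Cad538.norm_frc_sq]
  have : (ρ * ‖lat X‖) ^ 2 ≤ (ρ' * ‖lat X‖) ^ 2 := by gcongr
  linarith

/-- comparison of the frames of two normals. -/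
theorem Pl_near {ρ κ σ : ℝ} (hρ : 0 < ρ) (hκ : 0 < κ) {C C' : E2} (h : ‖C' - C‖ ≤ σ)
    (hσ : κ * σ ≤ 3 * ρ) (X : E3) : ‖frc ρ κ C' X‖ ≤ 5 * ‖frc ρ κ C X‖ := by
  have h1 := frc_le_frc (th := ρ) (kp := κ) hρ.le hκ.le (K := 3) (by norm_num) (C := C) (C' := C')
    ((mul_le_mul_of_nonneg_left h hκ.le).trans hσ) X
  calc _ ≤ _ := h1
    _ = _ := by norm_num

/-! ### the wide window -/

/-- window in the scalar frequency, one on the slice of width `2 κ`. -/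
noncomputable def b2 (x : ℝ) : ℂ := bt (x / 2)

theorem ew_b2 {a : ℝ} (ha : 1 ≤ a) :
    EW (4 * a) 4 b2 (Set.Icc (7 / 8 * a⁻¹) (2 * a) ×ˢ Set.Icc 0 (8 * a)⁻¹) := by
  have ha0 : 0 < a := by linarith
  have hi : 0 < a⁻¹ := inv_pos.2 ha0
  have hi1 : a⁻¹ ≤ 1 := inv_le_one_of_one_le₀ ha
  have hsp : ∀ x, b2 x ≠ 0 → |x| ≤ 4 := by
    intro x hx
    by_contra hc
    push Not at hc
    apply hx
    unfold b2
    apply bt_zero
    rw [abs_div, abs_of_pos (by norm_num : (0:ℝ) < 2)]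
    linarith
  refine ⟨by linarith, by norm_num, ?_, hsp, fun x => norm_bt_le _, isCompact_Icc.prod isCompact_Icc,
    ?_⟩
  · exact bt_smooth.comp (contDiff_id.div_const 2)
  · rintro ⟨η0, κ⟩ ⟨⟨h1, h2⟩, h3, h4⟩ x hx
    simp only at h1 h2 h3 h4 ⊢
    have e1 : (8 * a)⁻¹ = a⁻¹ / 8 := by rw [mul_inv]; ring
    have e2 : (4 * a)⁻¹ = a⁻¹ / 4 := by rw [mul_inv]; ring
    have h5 := hsp x hx
    have h6 : |κ * x| ≤ a⁻¹ / 2 := by
      rw [abs_mul, abs_of_nonneg h3]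
      calc κ * |x| ≤ (8 * a)⁻¹ * 4 := by gcongr
        _ = a⁻¹ / 2 := by rw [e1]; ring
    obtain ⟨h7, h8⟩ := abs_le.1 h6
    rw [e2]
    constructor <;> linarith

theorem b2_one {η0 κ : ℝ} (hκ : 0 < κ) {ζ : E3} (h : |ζ 2 - η0| ≤ 2 * κ) :
    b2 ((ζ 2 - η0) / κ) = 1 := by
  unfold b2
  apply bt_one
  rw [div_div, abs_div, abs_of_pos (by positivity : 0 < κ * 2), div_le_iff₀ (by positivity)]
  linarith

/-- the centre of a slice which meets the support. -/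
theorem ctr_range' {a η0 κ : ℝ} (ha : 1 ≤ a) (hκ : 8 * a * κ ≤ 1) {g : E3 → ℂ}
    (hs : Slc η0 κ g) {ζ : E3} (hζ : g ζ ≠ 0) (h1 : a⁻¹ ≤ ζ 2) (h2 : ζ 2 ≤ a) :
    7 / 8 * a⁻¹ ≤ η0 ∧ η0 ≤ 2 * a := by
  have ha0 : 0 < a := by linarith
  have h3 := abs_le.1 (hs ζ hζ)
  have h4 : κ ≤ a⁻¹ / 8 := by
    rw [le_div_iff₀ (by norm_num), ← one_div, le_div_iff₀ ha0]
    linarith
  have hi : 0 < a⁻¹ := inv_pos.2 ha0
  have hi1 : a⁻¹ ≤ 1 := inv_le_one_of_one_le₀ ha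
  constructor <;> linarith [h3.1, h3.2]

/-- one child window. -/
theorem win_mult (n : ℕ) {a : ℝ} (ha : 1 ≤ a) :
    ∃ C : ℝ, 0 ≤ C ∧ ∀ (η0 κ ρ ρ' : ℝ) (hρ : 0 < ρ) (hκ : 0 < κ), ρ ≤ ρ' → 8 * a * κ ≤ 1 →
      7 / 8 * a⁻¹ ≤ η0 → η0 ≤ 2 * a → ∀ (m' : ℤ × ℤ) (K : ℝ) (w : E3 → ℝ),
      SV (Pl ρ κ hρ hκ (cen ρ' m')) K n w → ∀ G : E3 → ℂ, Integrable G → MemLp G 2 →
      (∀ ζ, G ζ ≠ 0 → |ζ 2 - η0| ≤ 2 * κ) →
      WE w (fun ζ => capc ρ' m' ζ * G ζ) ≤ ENNReal.ofReal (C * K ^ 2) * WE w G ∧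
      ∀ x, ‖𝓕⁻ (fun ζ => capc ρ' m' ζ * G ζ) x‖ₑ ^ 2 ≤ ENNReal.ofReal (C * (ρ' ^ 2 * κ)) *
        WE (fun y => pa n (Pl ρ κ hρ hκ (cen ρ' m')) (y - x)) (fun ζ => capc ρ' m' ζ * G ζ) := by
  have ha4 : (1:ℝ) ≤ 4 * a := by linarith
  have hl := lam_pos (M := 4) ha4 (by norm_num)
  obtain ⟨Q, hQ, hpk⟩ := exists_pk (ew_b2 ha) (n + dd E3) 0
  obtain ⟨C1, hC1, h1⟩ := sv_mult E3 n
  obtain ⟨C2, hC2, h2⟩ := lc_pt (V := E3) n
  refine ⟨C1 * Q ^ 2 + C2 * 5 ^ 3 * (lam (4 * a) 4) ^ 3 * 2 ^ n, by positivity, ?_⟩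
  intro η0 κ ρ ρ' hρ hκ hρρ hκa hη1 hη2 m' K w hw G hG hG2 hGs
  have hρ' : 0 < ρ' := lt_of_lt_of_le hρ hρρ
  have hκ' : κ ≤ (8 * a)⁻¹ := by
    rw [← one_div, le_div_iff₀ (by linarith)]
    linarith
  have hP := hpk (η0, κ) ⟨⟨hη1, hη2⟩, hκ.le, hκ'⟩ hκ ρ' hρ' (cen ρ' m')
  simp only at hP
  set C' := cen ρ' m' with hC'
  set B := Fr (lam (4 * a) 4) ρ' κ (lam_pos ha4 (by norm_num)) hρ' hκ C' with hB
  obtain ⟨b, hb, hbc⟩ := hP.wn
  have hAB : ∀ x, ‖Pl ρ κ hρ hκ C' x‖ ≤ 1 * ‖B x‖ := by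
    intro x
    rw [one_mul, hB, norm_Fr]
    have h3 := Pl_mono hρ hρ' hκ hρρ C' x
    have h4 : 1 ≤ lam (4 * a) 4 := by unfold lam; linarith
    have h5 := norm_nonneg (Pl ρ' κ hρ' hκ C' x)
    nlinarith
  have hcap : (fun ζ => capc ρ' m' ζ * G ζ) = fun ζ => CWp480.cap b (ctr η0 C') B ζ * G ζ := by
    funext ζ
    by_cases h0 : G ζ = 0
    · rw [h0, mul_zero, mul_zero]
    · rw [hbc, b2_one hκ (hGs ζ h0), mul_one]
      rfl
  have hK := hw.one_le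
  constructor
  · rw [hcap]
    refine (h1 _ K w hw (CWp480.cap b (ctr η0 C') B) G Q hQ (temperate_cap hb _ _) ?_ hG hG2).trans
      ?_
    · intro j hj ξ
      refine (Nn_le_of_le zero_le_one hAB j _ ξ).trans ?_
      rw [one_pow, one_mul]
      exact cap_Nn hb _ _ hj ξ
    · refine mul_le_mul' (ENNReal.ofReal_le_ofReal ?_) le_rfl
      have h6 : 0 ≤ C2 * 5 ^ 3 * (lam (4 * a) 4) ^ 3 * 2 ^ n * K ^ 2 := by positivity
      calc C1 * K ^ 2 * Q ^ 2 = C1 * Q ^ 2 * K ^ 2 := by ring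
        _ ≤ C1 * Q ^ 2 * K ^ 2 + C2 * 5 ^ 3 * (lam (4 * a) 4) ^ 3 * 2 ^ n * K ^ 2 := by linarith
        _ = _ := by ring
  · intro x
    have hint : Integrable (fun ζ => capc ρ' m' ζ * G ζ) := CWd480.capc_int hG ρ' m'
    have h3 := h2 B 5 (by norm_num) (ctr η0 C') (fun ζ => capc ρ' m' ζ * G ζ) hint (by
      intro ξ hξ
      have h4 : ξ ∈ Sd (4 * a) 4 η0 κ ρ' C' := by
        refine hP.sw ξ ?_
        rw [b2_one hκ (hGs ξ (right_ne_zero_of_mul hξ)), mul_one]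
        exact left_ne_zero_of_mul hξ
      refine ⟨(adjE B).symm (ξ - ctr η0 C'), Sd_coord ha4 (by norm_num) hρ' hκ h4, ?_⟩
      rw [← adjE_apply, ContinuousLinearEquiv.apply_symm_apply]
      abel) x
    refine h3.trans ?_
    have hdet : adet (B : E3 →L[ℝ] E3) = (lam (4 * a) 4) ^ 3 * (ρ' ^ 2 * κ) := by
      rw [hB]
      unfold Fr
      rw [adet_Pl]
      ring
    have hfr : Module.finrank ℝ E3 = 3 := finrank_euclideanSpace_fin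
    have h5 : wE n (B : E3 →L[ℝ] E3) x (fun ζ => capc ρ' m' ζ * G ζ) ≤ ENNReal.ofReal (2 ^ n) *
        WE (fun y => pa n (Pl ρ κ hρ hκ C') (y - x)) (fun ζ => capc ρ' m' ζ * G ζ) := by
      rw [CWp480.wE_eq, ← WE_const_mul (by positivity)]
      refine WE_mono (fun y => ?_) _
      refine (dw_le_pa n B (y - x)).trans ?_
      refine mul_le_mul_of_nonneg_left ?_ (by positivity)
      unfold pa
      have h7 := hAB (y - x)
      rw [one_mul] at h7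
      have h8 := norm_nonneg (Pl ρ κ hρ hκ C' (y - x))
      exact inv_anti₀ (by positivity) (pow_le_pow_left₀ (by positivity) (by linarith) n)
    refine (mul_le_mul' le_rfl h5).trans ?_
    rw [hdet, hfr, ← mul_assoc, ← ENNReal.ofReal_mul (by positivity)]
    refine mul_le_mul' (ENNReal.ofReal_le_ofReal ?_) le_rfl
    have h6 : 0 ≤ C1 * Q ^ 2 * (ρ' ^ 2 * κ) := by positivity
    calc C2 * (5 ^ 3 * ((lam (4 * a) 4) ^ 3 * (ρ' ^ 2 * κ))) * 2 ^ n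
        = C2 * 5 ^ 3 * (lam (4 * a) 4) ^ 3 * 2 ^ n * (ρ' ^ 2 * κ) := by ring
      _ ≤ C1 * Q ^ 2 * (ρ' ^ 2 * κ) + C2 * 5 ^ 3 * (lam (4 * a) 4) ^ 3 * 2 ^ n * (ρ' ^ 2 * κ) := by
        linarith
      _ = _ := by ring

/-! ### selected waves -/

theorem sel_zero {η0 κ ρ : ℝ} {g : E3 → ℂ} (h : ∀ ζ, g ζ = 0) (S : ℤ × ℤ → Set E3) (ζ : E3) :
    selc η0 κ ρ g S ζ = 0 := by
  unfold selc piecec
  refine Finset.sum_eq_zero fun m _ => ?_
  have e : (S m).indicator (umc ρ g m) = fun _ => 0 := by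
    funext y
    by_cases hy : y ∈ S m
    · rw [Set.indicator_of_mem hy, umc_zero h]
    · rw [Set.indicator_of_notMem hy]
  rw [e, fourier_eq_int]
  simp

theorem etw_supp {η0 κ : ℝ} (hκ : 0 < κ) {ζ : E3} (h : etw η0 κ ζ ≠ 0) : |ζ 2 - η0| ≤ 2 * κ := by
  by_contra hc
  push Not at hc
  apply h
  rw [etw_eq]
  apply bt_zero
  rw [abs_div, abs_of_pos hκ, le_div_iff₀ hκ]
  exact hc.le

theorem piece_supp {η0 κ ρ : ℝ} (hκ : 0 < κ) {g : E3 → ℂ} {m : ℤ × ℤ} {S : Set E3} {ζ : E3}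
    (h : piecec η0 κ ρ g m S ζ ≠ 0) : fatc ρ m ζ ≠ 0 ∧ |ζ 2 - η0| ≤ 2 * κ := by
  unfold piecec at h
  have h1 := left_ne_zero_of_mul h
  exact ⟨left_ne_zero_of_mul h1, etw_supp hκ (right_ne_zero_of_mul h1)⟩

/-- integrability of the pieces. -/
theorem piece_int {a η0 κ ρ : ℝ} (ha : 1 ≤ a) (hρ : 0 < ρ) (hκ : 0 < κ) (h1 : a⁻¹ ≤ η0)
    (h2 : η0 ≤ a) (h3 : κ ≤ (4 * a)⁻¹) {g : E3 → ℂ} (hg : Integrable g) {m : ℤ × ℤ} {S : Set E3}
    (hS : MeasurableSet S) (hb : Bornology.IsBounded S) :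
    Integrable (piecec η0 κ ρ g m S) ∧ MemLp (piecec η0 κ ρ g m S) 2 := by
  obtain ⟨Q, hQ, hF⟩ := pkF_sliced ha 0 0
  obtain ⟨h5, h6⟩ := ind_int (umc_cont hg ρ m).aestronglyMeasurable (umc_le ρ m) hS hb
  have h7 := (hF η0 κ h1 h2 hκ h3 ρ hρ (cen ρ m)).rep_piece h5 h6
  exact ⟨h7.int, h7.l2⟩

/-- a child cap only sees the near parent pieces. -/
theorem cap_piece_zero {η0 κ ρ ρ' : ℝ} (hρ : 0 < ρ) (hρρ : ρ ≤ ρ') {g : E3 → ℂ} {m m' : ℤ × ℤ}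
    (hm : m ∈ caps ρ) (hn : m ∉ nearL ρ ρ' m') (S : Set E3) (ζ : E3) :
    capc ρ' m' ζ * piecec η0 κ ρ g m S ζ = 0 := by
  by_contra hc
  have h1 := left_ne_zero_of_mul hc
  have h2 : fatc ρ m ζ ≠ 0 := by
    have h3 := right_ne_zero_of_mul hc
    unfold piecec at h3
    exact left_ne_zero_of_mul (left_ne_zero_of_mul h3)
  have hρ' : 0 < ρ' := lt_of_lt_of_le hρ hρρ
  have h4 : ‖ρ'⁻¹ • (slp ζ - cen ρ' m')‖ ≤ 71 / 50 := by
    by_contra hh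
    exact h1 (Crest.Agent.R138.Wpk685.win_zero' (not_le.1 hh))
  have h5 : ‖ρ⁻¹ • (slp ζ - cen ρ m)‖ < 3 / 2 := by
    by_contra hh
    exact h2 (Crest.Agent.R138.Wpk685.fat_zero (not_lt.1 hh))
  rw [norm_smul, Real.norm_eq_abs, abs_of_pos (inv_pos.2 hρ'), inv_mul_le_iff₀ hρ'] at h4
  rw [norm_smul, Real.norm_eq_abs, abs_of_pos (inv_pos.2 hρ), inv_mul_lt_iff₀ hρ] at h5
  apply hn
  rw [mem_nearL]
  refine ⟨hm, ?_⟩
  unfold Near
  have e : cen ρ m - cen ρ' m' = (slp ζ - cen ρ' m') - (slp ζ - cen ρ m) := by abel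
  rw [e]
  refine lt_of_le_of_lt (norm_sub_le _ _) ?_
  linarith

/-- **pointwise bound** of a child packet of a selected wave. -/
theorem pt_leC (n : ℕ) {a : ℝ} (ha : 1 ≤ a) (T : ℝ) :
    ∃ C : ℝ, 0 ≤ C ∧ ∀ (η0 κ ρ ρ' : ℝ), 0 < ρ → ρ ≤ ρ' → 0 < κ → 8 * a * κ ≤ 1 → κ * ρ' ≤ ρ →
    ∀ g : E3 → ℂ, Integrable g → Rng a g → Slc η0 κ g →
    ∀ S : ℤ × ℤ → Set E3, (∀ m ∈ caps ρ, MeasurableSet (S m)) →
    (∀ m ∈ caps ρ, Bornology.IsBounded (S m)) → ∀ z : E3 × ℝ, |z.2| * ρ ^ 2 ≤ T →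
    ∀ (m' : ℤ × ℤ) (x : E3),
    ‖umc ρ' (trc z (selc η0 κ ρ g S)) m' x‖ₑ ^ 2 ≤
      ENNReal.ofReal (C * (ρ' / ρ) ^ 2) * Adc n ρ κ ρ' g S m' (z.1 + x) z.2 := by
  obtain ⟨C1, hC1, h1⟩ := win_mult n ha
  obtain ⟨C2, hC2, h2⟩ := A_sel (a := 2 * a) (by linarith) n T (L := 5) (by norm_num)
  refine ⟨C1 * C1 * C2 * 5 ^ n, by positivity, ?_⟩
  intro η0 κ ρ ρ' hρ hρρ hκ hκa hκρ g hg hr hs S hS hSb z hz m' x
  have hρ' : 0 < ρ' := lt_of_lt_of_le hρ hρρ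
  by_cases h0 : ∀ ζ, g ζ = 0
  · have e : umc ρ' (trc z (selc η0 κ ρ g S)) m' x = 0 := by
      refine umc_zero (fun ζ => ?_) m' x
      unfold trc
      rw [sel_zero h0, zero_mul]
    rw [e]
    simp
  · push Not at h0
    obtain ⟨ζ0, hζ0⟩ := h0
    obtain ⟨r1, r2⟩ := hr ζ0 hζ0
    obtain ⟨c1, c2⟩ := ctr_range' ha hκa hs hζ0 r1 r2
    obtain ⟨c3, c4⟩ := ctr_range ha hκa hs hζ0 r1 r2
    obtain ⟨c5, c6⟩ := kap_range ha hκa
    set s : Finset (ℤ × ℤ) := nearL ρ ρ' m' with hsdef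
    have hsub : ∀ m ∈ s, m ∈ caps ρ := fun m hm => (mem_nearL.1 hm).1
    set G0 : E3 → ℂ := fun ζ => ∑ m ∈ s, piecec η0 κ ρ g m (S m) ζ with hG0
    have hrep : ∀ m ∈ s, Integrable (piecec η0 κ ρ g m (S m)) ∧
        MemLp (piecec η0 κ ρ g m (S m)) 2 := fun m hm =>
      piece_int (by linarith) hρ hκ c3 c4 c5 hg (hS m (hsub m hm)) (hSb m (hsub m hm))
    have hGi : Integrable G0 := integrable_finsetSum s fun m hm => (hrep m hm).1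
    have hG2 : MemLp G0 2 := memLp_finsetSum s fun m hm => (hrep m hm).2
    have hcut : (fun ζ => capc ρ' m' ζ * trc z (selc η0 κ ρ g S) ζ) =
        fun ζ => capc ρ' m' ζ * trc z G0 ζ := by
      funext ζ
      unfold trc
      rw [← mul_assoc, ← mul_assoc]
      congr 1
      unfold selc
      rw [hG0]
      simp only
      rw [Finset.mul_sum, Finset.mul_sum]
      refine (Finset.sum_subset (fun m hm => hsub m hm) fun m hm hn => ?_).symm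
      exact cap_piece_zero hρ hρρ hm hn (S m) ζ
    have hGs : ∀ ζ, trc z G0 ζ ≠ 0 → |ζ 2 - η0| ≤ 2 * κ := by
      intro ζ hζ
      have h3 := trc_ne hζ
      obtain ⟨m, _, hne⟩ := Finset.exists_ne_zero_of_sum_ne_zero h3
      exact (piece_supp hκ hne).2
    set A := Pl ρ κ hρ hκ (cen ρ' m') with hA
    have hW := h1 η0 κ ρ ρ' hρ hκ hρρ hκa c1 c2 m' 1 (fun y => pa n A (y - x)) (SV_pa A n x)
      (trc z G0) (trc_int' hGi z) (trc_l2' hG2 z) hGs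
    obtain ⟨w1, w2⟩ := hW
    have w3 := w2 x
    have e0 : umc ρ' (trc z (selc η0 κ ρ g S)) m' x =
        𝓕⁻ (fun ζ => capc ρ' m' ζ * trc z G0 ζ) x := by
      unfold umc
      rw [hcut]
    rw [e0]
    have hnear : ∀ m ∈ s, ‖cen ρ m - cen ρ' m'‖ ≤ 3 * ρ' := fun m hm => (mem_nearL.1 hm).2.le
    have hA1 : ∀ m ∈ s, ∀ X, ‖A X‖ ≤ 5 * ‖Pl ρ κ hρ hκ (cen ρ m) X‖ := by
      intro m hm X
      rw [hA, Pl_eq_frc, Pl_eq_frc]
      refine Pl_near hρ hκ (σ := 3 * ρ') ?_ (by linarith) X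
      rw [norm_sub_rev]
      exact hnear m hm
    have hA2 : ∀ m ∈ s, ∀ X, ‖frc ρ κ (cen ρ m) X‖ ≤ 5 * ‖A X‖ := by
      intro m hm X
      rw [hA, Pl_eq_frc]
      exact Pl_near hρ hκ (σ := 3 * ρ') (hnear m hm) (by linarith) X
    have w4 := h2 ρ κ η0 hρ hκ c3 c4 c5 A 1 (fun y => pa n A (y - z.1 - x))
      (by
        have := (SV_pa A n x).comp_sub z.1
        exact this) s hA1 z.2 hz g S hg (fun m hm => hS m (hsub m hm))
      (fun m hm => hSb m (hsub m hm))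
    have w5 : WE (fun y => pa n A (y - x)) (trc z G0) =
        WE (fun y => pa n A (y - z.1 - x)) (slc G0 z.2) := by
      have := WE_trc (fun y => pa n A (y - x)) z G0 0
      have e1 : slc (trc z G0) 0 = trc z G0 := by
        funext ζ
        unfold slc
        rw [zero_mul, ee_zero, mul_one]
      rw [e1, zero_add] at this
      exact this
    rw [← w5] at w4
    simp only [one_pow, mul_one] at w1 w4
    have w6 : ∑ m ∈ s, ∫⁻ y in S m, ENNReal.ofReal (pa n A (y - z.2 • vel (cen ρ m) - z.1 - x)) *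
        ‖umc ρ g m y‖ₑ ^ 2 ≤ ENNReal.ofReal (5 ^ n) * ∑ m ∈ s, ∫⁻ y in S m,
          ENNReal.ofReal (wt (frc ρ κ (cen ρ m)) n (y - (z.1 + x) - z.2 • vel (cen ρ m))) *
            ‖umc ρ g m y‖ₑ ^ 2 := by
      rw [Finset.mul_sum]
      refine Finset.sum_le_sum fun m hm => ?_
      rw [← lintegral_const_mul' _ _ ENNReal.ofReal_ne_top]
      refine lintegral_mono fun y => ?_
      rw [← mul_assoc, ← ENNReal.ofReal_mul (by positivity)]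
      refine mul_le_mul' (ENNReal.ofReal_le_ofReal ?_) le_rfl
      have e2 : y - z.2 • vel (cen ρ m) - z.1 - x = y - (z.1 + x) - z.2 • vel (cen ρ m) := by abel
      rw [e2]
      exact wt_frame (frc ρ κ (cen ρ m)) (A : E3 →L[ℝ] E3) (K := 5) (by norm_num) n (hA2 m hm _)
    have e3 : ENNReal.ofReal (C1 * C1 * C2 * 5 ^ n * (ρ' / ρ) ^ 2) *
        Adc n ρ κ ρ' g S m' (z.1 + x) z.2 = ENNReal.ofReal (C1 * (ρ' ^ 2 * κ)) *
          (ENNReal.ofReal C1 * (ENNReal.ofReal C2 * (ENNReal.ofReal (5 ^ n) *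
            ∑ m ∈ s, ∫⁻ y in S m,
          ENNReal.ofReal (wt (frc ρ κ (cen ρ m)) n (y - (z.1 + x) - z.2 • vel (cen ρ m))) *
            ‖umc ρ g m y‖ₑ ^ 2))) := by
      unfold Adc Cad538.Acc Cad538.Den
      rw [← mul_assoc, ← mul_assoc, ← mul_assoc, ← mul_assoc, ← ENNReal.ofReal_mul (by positivity),
        ← ENNReal.ofReal_mul (by positivity), ← ENNReal.ofReal_mul (by positivity),
        ← ENNReal.ofReal_mul (by positivity)]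
      congr 2
      field_simp
    rw [e3]
    refine w3.trans (mul_le_mul' le_rfl (w1.trans (mul_le_mul' le_rfl (w4.trans
      (mul_le_mul' le_rfl w6)))))

end Crest.Agent.R116.Mwc748
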