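import Crest.Agent.R116.Mwc2_748
import Crest.Agent.R116.SmC2_339

/-!
# R116 (S0155), wave side: MIS for the cone, wave half, part 3 (helper748): weights

`wT n j T` = weight of the child plate `j` seen from the cell `T`; (C1) `wT_le`, (C2) `tot_wT`.
`condT` = near and misaligned; `plate_en` = energy of one misaligned child plate over the cells.
-/

set_option autoImplicit false
set_option linter.unusedVariables false
set_option linter.unusedSectionVars false

open MeasureTheory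
open scoped ENNReal

namespace Crest.Agent.R116.Mwc748

open Crest.Agent.R138.Defs (E2)
open Crest.Agent.R138.Wpk685 (cen caps)
open Crest.Agent.R138.Loc878 (nearL nearS mem_nearL mem_nearS card_nearS)
open Crest.Agent.R116.CDef480
open Crest.Agent.R116.Cad538 (frc wt wt_shift wt_le_one wt_pos wt_cont W0 W0_lt lint_wt det_frc)
open Crest.Agent.R116.WC188

/-! ### weights -/

/-- the point of the ray of the cell at the time of the frame `z`, in the frame `z`. -/
noncomputable def vvT (th κ : ℝ) (z : E3 × ℝ) (T : Idx) : E3 :=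
  ptT th κ T - z.1 - z.2 • vel (slT th T)

/-- weight of the family `S'` of level `th'` seen from a packet of the cap `m` of level `th` at the
point `v`. -/
noncomputable def wE (n : ℕ) (th th' κ : ℝ) (S' : ℤ × ℤ → Set E3) (m : ℤ × ℤ) (v : E3) : ℝ≥0∞ :=
  ENNReal.ofReal (th ^ 2 * κ) * ∑ m' ∈ nearS th th' m,
    ∫⁻ x in S' m', ENNReal.ofReal (wt (frc th κ (cen th m)) n (v - x))

/-- weight of the child plate `j` on the cell `T`. -/
noncomputable def wT (n : ℕ) (th th' κ : ℝ) (P : ℕ → Plate) (j : ℕ) (T : Idx) : ℝ≥0∞ :=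
  wE n th th' κ (P j).S T.2.1 (vvT th κ (P j).z T)

/-- the constant. -/
noncomputable def cW : ℝ := 36 * W0.toReal + 1

theorem cW_pos : 0 < cW := by
  unfold cW
  have := ENNReal.toReal_nonneg (a := W0)
  positivity

theorem W0_le : 36 * W0 ≤ ENNReal.ofReal cW := by
  unfold cW
  have h := ENNReal.toReal_nonneg (a := W0)
  rw [ENNReal.ofReal_add (by positivity) (by norm_num), ENNReal.ofReal_mul (by norm_num),
    ENNReal.ofReal_toReal W0_lt.ne, ENNReal.ofReal_ofNat]
  exact le_self_add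

theorem int_wt {th κ : ℝ} (hth : 0 < th) (hκ : 0 < κ) (C : E2) (v : E3) :
    ENNReal.ofReal (th ^ 2 * κ) * ∫⁻ x, ENNReal.ofReal (wt (frc th κ C) 4 (v - x)) = W0 := by
  have h0 : 0 < th ^ 2 * κ := by positivity
  rw [lint_wt (frc th κ C) (by rw [det_frc]; exact h0.ne') v, det_frc, ← mul_assoc,
    ← ENNReal.ofReal_mul h0.le, abs_of_pos (inv_pos.2 h0), mul_inv_cancel₀ h0.ne',
    ENNReal.ofReal_one, one_mul]

theorem wt_anti4 {th κ : ℝ} (C : E2) (k : ℕ) (v : E3) :
    wt (frc th κ C) (k + 4) v ≤ wt (frc th κ C) 4 v := Cad538.wt_anti _ (by omega) v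

/-- the sum of the weights of a disjoint family (one frame) is bounded. -/
theorem wE_sum {ι : Type*} (J : Finset ι) {th th' κ : ℝ} (hth : 0 < th) (hth' : 0 < th')
    (hκ : 0 < κ) (k : ℕ) (S' : ι → ℤ × ℤ → Set E3) (hm : ∀ i ∈ J, ∀ m, MeasurableSet (S' i m))
    (hd : ∀ i ∈ J, ∀ j ∈ J, i ≠ j → ∀ m, Disjoint (S' i m) (S' j m)) (m : ℤ × ℤ) (v : E3) :
    ∑ i ∈ J, wE (k + 4) th th' κ (S' i) m v ≤ ENNReal.ofReal cW := by
  unfold wE
  rw [← Finset.mul_sum, Finset.sum_comm, Finset.mul_sum]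
  refine le_trans ?_ W0_le
  calc ∑ m' ∈ nearS th th' m, ENNReal.ofReal (th ^ 2 * κ) * ∑ i ∈ J,
        ∫⁻ x in S' i m', ENNReal.ofReal (wt (frc th κ (cen th m)) (k + 4) (v - x))
      ≤ ∑ m' ∈ nearS th th' m, W0 := by
        refine Finset.sum_le_sum fun m' _ => ?_
        rw [← lintegral_biUnion_finset (fun i hi j hj hij => hd i hi j hj hij m')
          (fun i hi => hm i hi m')]
        refine le_trans (mul_le_mul' le_rfl ((setLIntegral_le_lintegral _ _).trans
          (lintegral_mono fun x => ENNReal.ofReal_le_ofReal (wt_anti4 _ k _))))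
          (int_wt hth hκ (cen th m) v).le
    _ = (nearS th th' m).card * W0 := by rw [Finset.sum_const, nsmul_eq_mul]
    _ ≤ _ := by
        refine mul_le_mul' ?_ le_rfl
        exact_mod_cast card_nearS hth' m

theorem wE_le {th th' κ : ℝ} (hth : 0 < th) (hth' : 0 < th') (hκ : 0 < κ) (k : ℕ)
    (S' : ℤ × ℤ → Set E3) (hm : ∀ m, MeasurableSet (S' m)) (m : ℤ × ℤ) (v : E3) :
    wE (k + 4) th th' κ S' m v ≤ ENNReal.ofReal cW := by
  have := wE_sum ({()} : Finset Unit) hth hth' hκ k (fun _ => S') (fun _ _ => hm)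
    (fun i _ j _ hij => absurd rfl hij) m v
  simpa using this

/-- (C1) -/
theorem wT_le {th th' κ : ℝ} (hth : 0 < th) (hth' : 0 < th') (hκ : 0 < κ) (k : ℕ) {P : ℕ → Plate}
    {j : ℕ} (hm : ∀ m, MeasurableSet ((P j).S m)) (T : Idx) :
    wT (k + 4) th th' κ P j T ≤ ENNReal.ofReal cW := wE_le hth hth' hκ k _ hm _ _

open Classical in
theorem sum_frames (I : Finset ℕ) (z : ℕ → E3 × ℝ) (f : ℕ → ℝ≥0∞) (c : ℝ≥0∞)
    (h : ∀ ζ ∈ I.image z, ∑ i ∈ I with z i = ζ, f i ≤ c) :
    ∑ i ∈ I, f i ≤ (I.image z).card * c := by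
  rw [← Finset.sum_fiberwise_of_maps_to (t := I.image z) (g := z)
    (fun i hi => Finset.mem_image_of_mem z hi)]
  refine (Finset.sum_le_sum h).trans (le_of_eq ?_)
  rw [Finset.sum_const, nsmul_eq_mul]

/-- number of frames. -/
theorem card_frames {M κ A s1 s2 r1 dl : ℝ} (hr1 : 0 < r1) (hdl : 0 < dl) (hdl1 : dl ≤ 1)
    {I : Finset ℕ} {P : ℕ → Plate} (hP : Plates M κ A (dl * r1) s1 s2 r1 I P)
    [DecidableEq (E3 × ℝ)] :
    (((I.image fun i => (P i).z).card : ℕ) : ℝ≥0∞) ≤ ENNReal.ofReal (256 * (dl⁻¹) ^ 4) := by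
  have hd1 : 1 ≤ dl⁻¹ := (one_le_inv₀ hdl).2 hdl1
  have hr : 0 < dl * r1 := by positivity
  have hfr : Module.finrank ℝ (E3 × ℝ) = 4 := by
    rw [Module.finrank_prod, finrank_euclideanSpace_fin, Module.finrank_self]
  have h := Crest.Agent.R116.SmC339.card_sep_le (E := E3) (r := dl * r1) (K := dl⁻¹) hr
    (by positivity) (I.image fun i => (P i).z) ?_ (0 : E3 × ℝ) ?_
  · rw [hfr] at h
    rw [← ENNReal.ofReal_natCast]
    refine ENNReal.ofReal_le_ofReal (h.trans ?_)
    calc (2 * dl⁻¹ + 2) ^ 4 ≤ (4 * dl⁻¹) ^ 4 :=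
          pow_le_pow_left₀ (by positivity) (by linarith) 4
      _ = _ := by ring
  · intro x hx y hy hxy
    obtain ⟨i, hi, rfl⟩ := Finset.mem_image.1 hx
    obtain ⟨j, hj, rfl⟩ := Finset.mem_image.1 hy
    rcases hP.sep i hi j hj with h1 | h1 | h1
    · exact absurd h1 hxy
    · refine h1.trans ?_
      rw [← dist_eq_norm, Prod.dist_eq]
      exact le_max_left _ _
    · refine h1.trans ?_
      rw [← Real.dist_eq, Prod.dist_eq]
      exact le_max_right _ _
  · intro x hx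
    obtain ⟨i, hi, rfl⟩ := Finset.mem_image.1 hx
    have h1 := hP.mem i hi
    have e : dl⁻¹ * (dl * r1) = r1 := by field_simp
    rw [e, Prod.dist_eq, Prod.fst_zero, Prod.snd_zero, dist_zero_right, dist_zero_right,
      Real.norm_eq_abs]
    exact max_le h1.1 h1.2

/-- (C2) -/
theorem tot_wT {M κ A s1 s2 r1 dl : ℝ} (hr1 : 0 < r1) (hdl : 0 < dl) (hdl1 : dl ≤ 1)
    {I : Finset ℕ} {P : ℕ → Plate} (hP : Plates M κ A (dl * r1) s1 s2 r1 I P) {th th' : ℝ}
    (hth : 0 < th) (hth' : 0 < th') (hκ : 0 < κ) (k : ℕ) (T : Idx) :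
    ∑ i ∈ I, wT (k + 4) th th' κ P i T ≤ ENNReal.ofReal (256 * (dl⁻¹) ^ 4 * cW) := by
  classical
  have hc := cW_pos
  refine (sum_frames I (fun i => (P i).z) _ (ENNReal.ofReal cW) ?_).trans ?_
  · intro ζ _
    have h1 := wE_sum (I.filter fun i => (P i).z = ζ) hth hth' hκ k (fun i => (P i).S)
      (fun i hi m => hP.meas i (Finset.mem_filter.1 hi).1 m)
      (fun i hi j hj hij m => hP.disj i (Finset.mem_filter.1 hi).1 j (Finset.mem_filter.1 hj).1 hij
        ((Finset.mem_filter.1 hi).2.trans (Finset.mem_filter.1 hj).2.symm) m) T.2.1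
      (vvT th κ ζ T)
    refine le_trans (le_of_eq ?_) h1
    refine Finset.sum_congr rfl fun i hi => ?_
    unfold wT
    rw [(Finset.mem_filter.1 hi).2]
  · rw [ENNReal.ofReal_mul (p := 256 * (dl⁻¹) ^ 4) (by positivity)]
    exact mul_le_mul' (card_frames hr1 hdl hdl1 hP) le_rfl

end Crest.Agent.R116.Mwc748
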