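import Crest.Agent.R116.Mwc3_748
import Crest.Agent.R116.PDf2_299
import Crest.Agent.R116.DomC_210

/-!
# R116 (S0155), wave side: MIS for the cone, wave half, part 4 (helper748): the main estimate

The energy of a misaligned child plate over the parent cells `T = (plate, cap, cell)`:
`enc θ' (trc z F) S_j ≤ C (θ'/θ)² (Σ_T om_jT μ_T + Fr_j)`, where `om_jT ∈ [0, 1]` vanishes unless a
point of the child plate sees a misaligned parent point of the cell (`condT`), `Σ_j om_jT ≤ C`, and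
the sum of the far parts `Fr_j` is `≤ C Y^{-k}` times the energy of the parent class.
-/

set_option autoImplicit false
set_option linter.unusedVariables false
set_option linter.unusedSectionVars false

open MeasureTheory
open scoped ENNReal

namespace Crest.Agent.R116.Mwc748

open Crest.Agent.R138.Defs (E2)
open Crest.Agent.R138.Wpk685 (cen caps)
open Crest.Agent.R138.Loc878 (nearL nearS mem_nearL mem_nearS card_nearS)
open Crest.Agent.R116.CDef480
open Crest.Agent.R116.CWd480 (Rng)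
open Crest.Agent.R116.Cad538 (frc wt wt_shift wt_split wt_le_one wt_pos wt_cont)
open Crest.Agent.R116.AlB888 (Adc)
open Crest.Agent.R116.Gc192 (un crs)
open Crest.Agent.R116.PC299
open Crest.Agent.R116.WC188

/-! ### the relation -/

/-- a point of the child plate `j` sees a misaligned point of the cell `T` at distance `≤ Y`. -/
def condT (th th' κ δ Y : ℝ) (P1 P : ℕ → Plate) (j : ℕ) (T : Idx) : Prop :=
  ∃ m ∈ caps th', T.2.1 ∈ nearL th th' m ∧ ∃ y ∈ (P j).S m, ∃ x ∈ TS th κ P1 T,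
    ‖frc th κ (slT th T) (x - (P j).z.1 - (P j).z.2 • vel (slT th T) - y)‖ ≤ Y ∧
    δ < |crs (nP th (P1 T.1).f T.2.1 x) (rnd δ (nP th' (P j).f m y))|

open Classical in
/-- the weight of the cell `T` in the child plate `j`. -/
noncomputable def om (k : ℕ) (th th' κ δ Y : ℝ) (P1 P : ℕ → Plate) (j : ℕ) (T : Idx) : ℝ :=
  if condT th th' κ δ Y P1 P j T then (wT (k + 4) th th' κ P j T).toReal / cW else 0

/-- the far part. -/
noncomputable def Fr (k : ℕ) (K th th' κ Y : ℝ) (g : E3 → ℂ) (I1 : Finset ℕ) (P1 P : ℕ → Plate)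
    (j : ℕ) : ℝ≥0∞ :=
  ENNReal.ofReal ((Y ^ k)⁻¹) * ∑ T ∈ Ic K th κ I1 P1, wT 4 th th' κ P j T * muE th κ g P1 T

section om

variable {k : ℕ} {th th' κ δ Y : ℝ} {P1 P : ℕ → Plate} {j : ℕ} {T : Idx}

theorem om_nonneg : 0 ≤ om k th th' κ δ Y P1 P j T := by
  unfold om
  have := cW_pos
  split_ifs
  · exact div_nonneg ENNReal.toReal_nonneg this.le
  · exact le_rfl

theorem om_cond (h : om k th th' κ δ Y P1 P j T ≠ 0) : condT th th' κ δ Y P1 P j T := by
  by_contra hc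
  apply h
  unfold om
  rw [if_neg hc]

theorem om_zero (h : ¬ condT th th' κ δ Y P1 P j T) : om k th th' κ δ Y P1 P j T = 0 := by
  unfold om
  rw [if_neg h]

theorem wT_fin (hth : 0 < th) (hth' : 0 < th') (hκ : 0 < κ) (k : ℕ)
    (hm : ∀ m, MeasurableSet ((P j).S m)) (T : Idx) : wT (k + 4) th th' κ P j T ≠ ⊤ :=
  ((wT_le hth hth' hκ k hm T).trans_lt ENNReal.ofReal_lt_top).ne

theorem om_le_one (hth : 0 < th) (hth' : 0 < th') (hκ : 0 < κ)
    (hm : ∀ m, MeasurableSet ((P j).S m)) : om k th th' κ δ Y P1 P j T ≤ 1 := by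
  unfold om
  have hc := cW_pos
  split_ifs
  · rw [div_le_one hc]
    exact ENNReal.toReal_le_of_le_ofReal hc.le (wT_le hth hth' hκ k hm T)
  · norm_num

theorem om_wT (hth : 0 < th) (hth' : 0 < th') (hκ : 0 < κ)
    (hm : ∀ m, MeasurableSet ((P j).S m)) (h : condT th th' κ δ Y P1 P j T) :
    wT (k + 4) th th' κ P j T = ENNReal.ofReal (cW * om k th th' κ δ Y P1 P j T) := by
  unfold om
  have hc := cW_pos
  rw [if_pos h, mul_div_cancel₀ _ hc.ne', ENNReal.ofReal_toReal (wT_fin hth hth' hκ k hm T)]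

theorem om_le_wT (hth : 0 < th) (hth' : 0 < th') (hκ : 0 < κ)
    (hm : ∀ m, MeasurableSet ((P j).S m)) :
    ENNReal.ofReal (cW * om k th th' κ δ Y P1 P j T) ≤ wT (k + 4) th th' κ P j T := by
  by_cases h : condT th th' κ δ Y P1 P j T
  · exact (om_wT hth hth' hκ hm h).ge
  · rw [om_zero h]
    simp

/-- the sum over the child plates. -/
theorem sum_om {M A s1 s2 r1 dl : ℝ} (hr1 : 0 < r1) (hdl : 0 < dl) (hdl1 : dl ≤ 1)
    {I : Finset ℕ} (hP : Plates M κ A (dl * r1) s1 s2 r1 I P)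
    (hth : 0 < th) (hth' : 0 < th') (hκ : 0 < κ) :
    ∑ i ∈ I, om k th th' κ δ Y P1 P i T ≤ 256 * (dl⁻¹) ^ 4 := by
  have hc := cW_pos
  have h1 : ∑ i ∈ I, ENNReal.ofReal (cW * om k th th' κ δ Y P1 P i T) ≤
      ENNReal.ofReal (256 * (dl⁻¹) ^ 4 * cW) :=
    (Finset.sum_le_sum fun i hi => om_le_wT hth hth' hκ (hP.meas i hi)).trans
      (tot_wT hr1 hdl hdl1 hP hth hth' hκ k T)
  rw [← ENNReal.ofReal_sum_of_nonneg (fun i _ => mul_nonneg hc.le om_nonneg),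
    ← Finset.mul_sum, ENNReal.ofReal_le_ofReal_iff (by positivity)] at h1
  have h2 : cW * ∑ i ∈ I, om k th th' κ δ Y P1 P i T ≤ cW * (256 * (dl⁻¹) ^ 4) := by linarith
  exact le_of_mul_le_mul_left h2 hc

end om

/-! ### one phase point of the child plate -/

open Classical in
/-- the coefficient of the near part. -/
noncomputable def An (k : ℕ) (th th' κ δ Y : ℝ) (P1 P : ℕ → Plate) (j : ℕ) (T : Idx) : ℝ≥0∞ :=
  if condT th th' κ δ Y P1 P j T then ENNReal.ofReal (4 ^ (k + 4)) else 0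

/-- the kernel of the cell `T` at the child point `x`. -/
noncomputable def GT (k : ℕ) (th th' κ δ Y : ℝ) (P1 P : ℕ → Plate) (j : ℕ) (T : Idx) (x : E3) :
    ℝ≥0∞ :=
  An k th th' κ δ Y P1 P j T *
      ENNReal.ofReal (wt (frc th κ (cen th T.2.1)) (k + 4) (vvT th κ (P j).z T - x)) +
    ENNReal.ofReal ((Y ^ k)⁻¹ * 4 ^ 4) *
      ENNReal.ofReal (wt (frc th κ (cen th T.2.1)) 4 (vvT th κ (P j).z T - x))

section pt

variable {k : ℕ} {th th' κ δ Y K : ℝ} {g : E3 → ℂ} {I1 : Finset ℕ} {P1 P : ℕ → Plate} {j : ℕ}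
  {T : Idx}

theorem An_fin : An k th th' κ δ Y P1 P j T ≠ ⊤ := by
  unfold An
  split_ifs
  · exact ENNReal.ofReal_ne_top
  · exact ENNReal.zero_ne_top

theorem GT_fin (x : E3) : GT k th th' κ δ Y P1 P j T x ≠ ⊤ := by
  unfold GT
  exact ENNReal.add_ne_top.2 ⟨ENNReal.mul_ne_top An_fin ENNReal.ofReal_ne_top,
    ENNReal.mul_ne_top ENNReal.ofReal_ne_top ENNReal.ofReal_ne_top⟩

/-- the weight of the density is bounded by the kernel of the cell. -/
theorem wt_le_GT (hth : 0 < th) (hκ : 0 < κ) (hY : 0 < Y) {m' : ℤ × ℤ} (hm' : m' ∈ caps th')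
    {x : E3} (hx : x ∈ (P j).S m') (hn : T.2.1 ∈ nearL th th' m') {y : E3}
    (hy : y ∈ TS th κ P1 T)
    (hc : δ < |crs (nP th (P1 T.1).f T.2.1 y) (rnd δ (nP th' (P j).f m' x))|) :
    ENNReal.ofReal (wt (frc th κ (cen th T.2.1)) (k + 4)
      (y - ((P j).z.1 + x) - (P j).z.2 • vel (cen th T.2.1))) ≤ GT k th th' κ δ Y P1 P j T x := by
  set A := frc th κ (cen th T.2.1) with hA
  set Z : E3 := y - ((P j).z.1 + x) - (P j).z.2 • vel (cen th T.2.1) with hZ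
  set Z' : E3 := vvT th κ (P j).z T - x with hZ'
  have e1 : Z' - Z = ptT th κ T - y := by
    rw [hZ, hZ']
    unfold vvT slT
    abel
  have h3 : ‖A (Z' - Z)‖ ≤ 3 := by
    rw [e1, ← norm_neg, ← map_neg, neg_sub]
    exact cell_frc hth hκ hy
  have hsh : ∀ n : ℕ, wt A n Z ≤ 4 ^ n * wt A n Z' := fun n => by
    have := wt_shift A (by norm_num : (0:ℝ) ≤ 3) n h3
    norm_num at this
    exact this
  by_cases hz : ‖A Z‖ ≤ Y
  · have hcond : condT th th' κ δ Y P1 P j T := by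
      refine ⟨m', hm', hn, x, hx, y, hy, ?_, hc⟩
      have e2 : y - (P j).z.1 - (P j).z.2 • vel (slT th T) - x = Z := by
        rw [hZ]
        unfold slT
        abel
      rw [e2]
      exact hz
    unfold GT An
    rw [if_pos hcond]
    refine le_trans ?_ le_self_add
    rw [← ENNReal.ofReal_mul (by positivity)]
    exact ENNReal.ofReal_le_ofReal (hsh (k + 4))
  · unfold GT
    refine le_trans ?_ le_add_self
    rw [← ENNReal.ofReal_mul (by positivity)]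
    refine ENNReal.ofReal_le_ofReal ?_
    have h4 := wt_split A hY (show 4 ≤ k + 4 by omega) Z
    rw [if_neg hz, zero_add, Nat.add_sub_cancel] at h4
    refine h4.trans ?_
    rw [mul_assoc]
    exact mul_le_mul_of_nonneg_left (hsh 4) (by positivity)

/-- the density of the misaligned part, over the cells. -/
theorem adc_le (hth : 0 < th) (hth1 : th ≤ 1) (hκ : 0 < κ) (hY : 0 < Y) (hK : 0 ≤ K)
    (hm : ∀ i ∈ I1, ∀ m, MeasurableSet ((P1 i).S m))
    (hb : ∀ i ∈ I1, ∀ m, ∀ y ∈ (P1 i).S m, ‖y‖ ≤ K) {m' : ℤ × ℤ} (hm' : m' ∈ caps th')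
    {x : E3} (hx : x ∈ (P j).S m') [DecidablePred fun T : Idx => T.2.1 ∈ nearL th th' m'] :
    Adc (k + 4) th κ th' g (Smis δ th (rnd δ (nP th' (P j).f m' x)) I1 P1) m' ((P j).z.1 + x)
      (P j).z.2 ≤ ENNReal.ofReal (th ^ 2 * κ) *
        ∑ T ∈ (Ic K th κ I1 P1).filter (fun T => T.2.1 ∈ nearL th th' m'),
          GT k th th' κ δ Y P1 P j T x * muE th κ g P1 T := by
  classical
  unfold Adc Cad538.Acc Cad538.Den
  refine mul_le_mul' le_rfl ?_
  rw [← Finset.sum_fiberwise_of_maps_to (t := nearL th th' m') (g := fun T : Idx => T.2.1)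
    (fun T hT => (Finset.mem_filter.1 hT).2)]
  refine Finset.sum_le_sum fun m hmn => ?_
  set N := rnd δ (nP th' (P j).f m' x) with hN
  have hmc : m ∈ caps th := (mem_nearL.1 hmn).1
  refine (lint_cover3 (((Ic K th κ I1 P1).filter (fun T => T.2.1 ∈ nearL th th' m')).filter
    (fun T => T.2.1 = m)) _
    (fun T => TS th κ P1 T ∩ {y | |crs (nP th (P1 T.1).f T.2.1 y) N| ≤ δ}ᶜ) ?_ _).trans ?_
  · rintro y ⟨i, hi, h1, hy⟩
    obtain ⟨T, hT, h2, h3, h4⟩ := exists_cell hth hth1 hκ hK hb hi hmc hy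
    refine ⟨T, ?_, h4, ?_⟩
    · rw [Finset.mem_filter, Finset.mem_filter]
      exact ⟨⟨hT, by rw [h3]; exact hmn⟩, h3⟩
    · rw [h2, h3]
      exact not_le.2 h1
  · refine Finset.sum_le_sum fun T hT => ?_
    obtain ⟨hT1, hTm⟩ := Finset.mem_filter.1 hT
    obtain ⟨hT2, hTn⟩ := Finset.mem_filter.1 hT1
    have hTi := (mem_Ic.1 hT2).1
    have hV : MeasurableSet (TS th κ P1 T ∩ {y | |crs (nP th (P1 T.1).f T.2.1 y) N| ≤ δ}ᶜ) :=
      (TS_meas (hm _ hTi _)).inter (measurableSet_al _ _ _ _ _).compl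
    calc ∫⁻ y in TS th κ P1 T ∩ {y | |crs (nP th (P1 T.1).f T.2.1 y) N| ≤ δ}ᶜ,
          ENNReal.ofReal (wt (frc th κ (cen th m)) (k + 4)
            (y - ((P j).z.1 + x) - (P j).z.2 • vel (cen th m))) * ‖umc th g m y‖ₑ ^ 2
        ≤ ∫⁻ y in TS th κ P1 T ∩ {y | |crs (nP th (P1 T.1).f T.2.1 y) N| ≤ δ}ᶜ,
          GT k th th' κ δ Y P1 P j T x * ‖umc th g T.2.1 y‖ₑ ^ 2 := by
          refine setLIntegral_mono' hV fun y hy => ?_
          have h5 := wt_le_GT (k := k) hth hκ hY hm' hx hTn hy.1 (not_le.1 hy.2)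
          rw [hTm] at h5 ⊢
          exact mul_le_mul' h5 le_rfl
      _ ≤ ∫⁻ y in TS th κ P1 T, GT k th th' κ δ Y P1 P j T x * ‖umc th g T.2.1 y‖ₑ ^ 2 :=
          lintegral_mono_set Set.inter_subset_left
      _ = _ := by
          rw [lintegral_const_mul' _ _ (GT_fin x)]
          rfl

/-- the kernel is integrated over the child plate. -/
theorem int_GT (m' : ℤ × ℤ) (c : ℝ≥0∞) :
    ∫⁻ x in (P j).S m', GT k th th' κ δ Y P1 P j T x * c =
      (An k th th' κ δ Y P1 P j T * (∫⁻ x in (P j).S m',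
          ENNReal.ofReal (wt (frc th κ (cen th T.2.1)) (k + 4) (vvT th κ (P j).z T - x))) +
        ENNReal.ofReal ((Y ^ k)⁻¹ * 4 ^ 4) * (∫⁻ x in (P j).S m',
          ENNReal.ofReal (wt (frc th κ (cen th T.2.1)) 4 (vvT th κ (P j).z T - x)))) * c := by
  have hme : ∀ n : ℕ, Measurable fun x : E3 =>
      ENNReal.ofReal (wt (frc th κ (cen th T.2.1)) n (vvT th κ (P j).z T - x)) := fun n =>
    ENNReal.measurable_ofReal.comp
      ((wt_cont _ n).comp (continuous_const.sub continuous_id)).measurable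
  have hmG : Measurable fun x : E3 => GT k th th' κ δ Y P1 P j T x := by
    unfold GT
    exact ((hme _).const_mul _).add ((hme _).const_mul _)
  rw [lintegral_mul_const _ hmG]
  congr 1
  unfold GT
  rw [lintegral_add_left ((hme _).const_mul _), lintegral_const_mul _ (hme _),
    lintegral_const_mul _ (hme _)]

theorem GT_meas : Measurable fun x : E3 => GT k th th' κ δ Y P1 P j T x := by
  have hme : ∀ n : ℕ, Measurable fun x : E3 =>
      ENNReal.ofReal (wt (frc th κ (cen th T.2.1)) n (vvT th κ (P j).z T - x)) := fun n =>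
    ENNReal.measurable_ofReal.comp
      ((wt_cont _ n).comp (continuous_const.sub continuous_id)).measurable
  unfold GT
  exact ((hme _).const_mul _).add ((hme _).const_mul _)

theorem An_wT (hth : 0 < th) (hth' : 0 < th') (hκ : 0 < κ)
    (hm : ∀ m, MeasurableSet ((P j).S m)) :
    An k th th' κ δ Y P1 P j T * wT (k + 4) th th' κ P j T =
      ENNReal.ofReal (4 ^ (k + 4) * cW * om k th th' κ δ Y P1 P j T) := by
  by_cases h : condT th th' κ δ Y P1 P j T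
  · rw [om_wT hth hth' hκ hm h]
    unfold An
    rw [if_pos h, ← ENNReal.ofReal_mul (by positivity), mul_assoc]
  · rw [om_zero h]
    unfold An
    rw [if_neg h]
    simp

open Classical in
/-- the kernels are summed over the caps of the child plate. -/
theorem sum_GT (T : Idx) :
    ENNReal.ofReal (th ^ 2 * κ) * ∑ m' ∈ nearS th th' T.2.1,
      ∫⁻ x in (P j).S m', GT k th th' κ δ Y P1 P j T x * muE th κ g P1 T =
    (An k th th' κ δ Y P1 P j T * wT (k + 4) th th' κ P j T +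
      ENNReal.ofReal ((Y ^ k)⁻¹ * 4 ^ 4) * wT 4 th th' κ P j T) * muE th κ g P1 T := by
  have e1 : ∑ m' ∈ nearS th th' T.2.1,
      ∫⁻ x in (P j).S m', GT k th th' κ δ Y P1 P j T x * muE th κ g P1 T =
      (An k th th' κ δ Y P1 P j T * (∑ m' ∈ nearS th th' T.2.1, ∫⁻ x in (P j).S m',
          ENNReal.ofReal (wt (frc th κ (cen th T.2.1)) (k + 4) (vvT th κ (P j).z T - x))) +
        ENNReal.ofReal ((Y ^ k)⁻¹ * 4 ^ 4) * (∑ m' ∈ nearS th th' T.2.1, ∫⁻ x in (P j).S m',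
          ENNReal.ofReal (wt (frc th κ (cen th T.2.1)) 4 (vvT th κ (P j).z T - x)))) *
        muE th κ g P1 T := by
    rw [Finset.mul_sum, Finset.mul_sum, ← Finset.sum_add_distrib, Finset.sum_mul]
    exact Finset.sum_congr rfl fun m' _ => int_GT m' _
  rw [e1]
  unfold wT wE
  ring

end pt

/-! ### the energy of a child plate -/

/-- **energy of a misaligned child plate over the parent cells.** -/
theorem en_mis (k : ℕ) {a : ℝ} (ha : 1 ≤ a) (T0 : ℝ) :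
    ∃ C : ℝ, 0 ≤ C ∧ ∀ (η0 κ th th' δ Y K : ℝ), 0 < th → th ≤ 1 → th ≤ th' → 0 < κ →
    8 * a * κ ≤ 1 → κ * th' ≤ th → 0 < Y → 0 ≤ K → ∀ g : E3 → ℂ, Integrable g → Rng a g →
    Slc η0 κ g → ∀ (I1 : Finset ℕ) (P1 : ℕ → Plate), (∀ i ∈ I1, ∀ m, MeasurableSet ((P1 i).S m)) →
    (∀ i ∈ I1, ∀ m, ∀ y ∈ (P1 i).S m, ‖y‖ ≤ K) →
    ∀ (P : ℕ → Plate) (j : ℕ), (∀ m, MeasurableSet ((P j).S m)) → |(P j).z.2| * th ^ 2 ≤ T0 →
    (∀ m, ∀ y ∈ (P j).S m, ‖umc th' (trc (P j).z (selc η0 κ th g (uS I1 P1))) m y‖ ≤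
      2 * ‖umc th' (trc (P j).z (selc η0 κ th g
        (Smis δ th (rnd δ (nP th' (P j).f m y)) I1 P1))) m y‖) →
    enc th' (trc (P j).z (selc η0 κ th g (uS I1 P1))) (P j).S ≤
      ENNReal.ofReal (C * (th' / th) ^ 2) *
        (ENNReal.ofReal (∑ T ∈ Ic K th κ I1 P1, om k th th' κ δ Y P1 P j T * muT th κ g P1 T) +
          Fr k K th th' κ Y g I1 P1 P j) := by
  classical
  obtain ⟨C0, hC0, h0⟩ := pt_leC (k + 4) ha T0
  have hcW := cW_pos
  refine ⟨4 * C0 * (4 ^ (k + 4) * cW + 4 ^ 4), by positivity, ?_⟩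
  intro η0 κ th th' δ Y K hth hth1 hthh hκ hκa hst hY hK g hg hr hs I1 P1 hm hb P j hmj hz hmis
  have hth' : 0 < th' := lt_of_lt_of_le hth hthh
  set F := selc η0 κ th g (uS I1 P1) with hF
  set c1 : ℝ≥0∞ := ENNReal.ofReal (4 * (C0 * (th' / th) ^ 2)) with hc1
  set c2 : ℝ≥0∞ := ENNReal.ofReal (th ^ 2 * κ) with hc2
  have hUb : ∀ N : E2, ∀ m, Bornology.IsBounded (Smis δ th N I1 P1 m) := by
    intro N m
    refine (Metric.isBounded_closedBall (x := (0 : E3)) (r := K)).subset ?_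
    rintro y ⟨i, hi, -, hy⟩
    rw [mem_closedBall_zero_iff]
    exact hb i hi m y hy
  -- one cap
  have h1 : ∀ m' ∈ caps th', ∫⁻ x in (P j).S m', ‖umc th' (trc (P j).z F) m' x‖ₑ ^ 2 ≤
      c1 * (c2 * ∑ T ∈ (Ic K th κ I1 P1).filter (fun T => T.2.1 ∈ nearL th th' m'),
        ∫⁻ x in (P j).S m', GT k th th' κ δ Y P1 P j T x * muE th κ g P1 T) := by
    intro m' hm'
    have h2 : ∀ x ∈ (P j).S m', ‖umc th' (trc (P j).z F) m' x‖ₑ ^ 2 ≤
        c1 * (c2 * ∑ T ∈ (Ic K th κ I1 P1).filter (fun T => T.2.1 ∈ nearL th th' m'),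
          GT k th th' κ δ Y P1 P j T x * muE th κ g P1 T) := by
      intro x hx
      have h3 := hmis m' x hx
      set N := rnd δ (nP th' (P j).f m' x) with hN
      have h4 := h0 η0 κ th th' hth hthh hκ hκa hst g hg hr hs (Smis δ th N I1 P1)
        (fun m _ => measurableSet_Smis hm m) (fun m _ => hUb N m) (P j).z hz m' x
      have h5 := adc_le (k := k) (g := g) (δ := δ) hth hth1 hκ hY hK hm hb hm' hx
      have h6 : ‖umc th' (trc (P j).z F) m' x‖ₑ ^ 2 ≤ ENNReal.ofReal 4 *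
          ‖umc th' (trc (P j).z (selc η0 κ th g (Smis δ th N I1 P1))) m' x‖ₑ ^ 2 := by
        rw [← ofReal_norm, ← ofReal_norm, ← ENNReal.ofReal_pow (norm_nonneg _),
          ← ENNReal.ofReal_pow (norm_nonneg _), ← ENNReal.ofReal_mul (by norm_num)]
        refine ENNReal.ofReal_le_ofReal ?_
        have := pow_le_pow_left₀ (norm_nonneg _) h3 2
        rw [mul_pow] at this
        norm_num at this
        exact this
      calc _ ≤ _ := h6
        _ ≤ ENNReal.ofReal 4 * (ENNReal.ofReal (C0 * (th' / th) ^ 2) * (c2 *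
            ∑ T ∈ (Ic K th κ I1 P1).filter (fun T => T.2.1 ∈ nearL th th' m'),
              GT k th th' κ δ Y P1 P j T x * muE th κ g P1 T)) :=
            mul_le_mul' le_rfl (h4.trans (mul_le_mul' le_rfl h5))
        _ = _ := by rw [← mul_assoc, ← ENNReal.ofReal_mul (by norm_num)]
    refine (setLIntegral_mono' (hmj m') h2).trans (le_of_eq ?_)
    rw [lintegral_const_mul' _ _ ENNReal.ofReal_ne_top, lintegral_const_mul' _ _
      ENNReal.ofReal_ne_top, lintegral_finsetSum _ (fun T _ => GT_meas.mul_const _)]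
  unfold enc
  refine (Finset.sum_le_sum h1).trans ?_
  rw [← Finset.mul_sum, ← Finset.mul_sum]
  have h7 : ∑ m' ∈ caps th', ∑ T ∈ (Ic K th κ I1 P1).filter (fun T => T.2.1 ∈ nearL th th' m'),
        ∫⁻ x in (P j).S m', GT k th th' κ δ Y P1 P j T x * muE th κ g P1 T =
      ∑ T ∈ Ic K th κ I1 P1, ∑ m' ∈ nearS th th' T.2.1,
        ∫⁻ x in (P j).S m', GT k th th' κ δ Y P1 P j T x * muE th κ g P1 T := by
    refine Finset.sum_comm' fun m' T => ?_
    rw [Finset.mem_filter, mem_nearL, mem_nearS]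
    constructor
    · rintro ⟨a1, a2, a3, a4⟩
      exact ⟨⟨a1, a4⟩, a2⟩
    · rintro ⟨⟨a1, a4⟩, a2⟩
      exact ⟨a1, a2, (mem_Ic.1 a2).2.1, a4⟩
  rw [h7, Finset.mul_sum]
  have h8 : ∑ T ∈ Ic K th κ I1 P1, c2 * ∑ m' ∈ nearS th th' T.2.1,
        ∫⁻ x in (P j).S m', GT k th th' κ δ Y P1 P j T x * muE th κ g P1 T =
      ENNReal.ofReal (4 ^ (k + 4) * cW) *
        ENNReal.ofReal (∑ T ∈ Ic K th κ I1 P1, om k th th' κ δ Y P1 P j T * muT th κ g P1 T) +
      ENNReal.ofReal (4 ^ 4) * Fr k K th th' κ Y g I1 P1 P j := by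
    unfold Fr
    rw [ENNReal.ofReal_sum_of_nonneg (fun T _ => mul_nonneg om_nonneg (muT_nonneg _ _ _ _ _)),
      Finset.mul_sum, ← mul_assoc, ← ENNReal.ofReal_mul (by norm_num), Finset.mul_sum,
      ← Finset.sum_add_distrib]
    refine Finset.sum_congr rfl fun T hT => ?_
    rw [hc2, sum_GT, add_mul, An_wT hth hth' hκ hmj, mul_comm (4 ^ 4 : ℝ)]
    congr 1
    · rw [← ofReal_muT (K := K) hg (hb _ (mem_Ic.1 hT).1 _), ← ENNReal.ofReal_mul (by
        have := om_nonneg (k := k) (th := th) (th' := th') (κ := κ) (δ := δ) (Y := Y) (P1 := P1)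
          (P := P) (j := j) (T := T)
        positivity), ← ENNReal.ofReal_mul (by positivity), mul_assoc (4 ^ (k + 4) * cW)]
    · rw [mul_assoc]
  rw [h8]
  have h9 : ENNReal.ofReal (4 * C0 * (4 ^ (k + 4) * cW + 4 ^ 4) * (th' / th) ^ 2) =
      c1 * ENNReal.ofReal (4 ^ (k + 4) * cW + 4 ^ 4) := by
    rw [hc1, ← ENNReal.ofReal_mul (by positivity)]
    congr 1
    ring
  rw [h9, mul_assoc]
  refine mul_le_mul' le_rfl ?_
  rw [mul_add]
  refine add_le_add (mul_le_mul' (ENNReal.ofReal_le_ofReal ?_) le_rfl)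
    (mul_le_mul' (ENNReal.ofReal_le_ofReal ?_) le_rfl)
  · norm_num
  · have : 0 < (4:ℝ) ^ (k + 4) * cW := by positivity
    linarith

/-- **the far parts.** -/
theorem sum_Fr (k : ℕ) {M A s1 s2 r1 dl : ℝ} (hr1 : 0 < r1) (hdl : 0 < dl) (hdl1 : dl ≤ 1)
    {κ K th th' Y : ℝ} {I : Finset ℕ} {P : ℕ → Plate}
    (hP : Plates M κ A (dl * r1) s1 s2 r1 I P) {g : E3 → ℂ} {I1 : Finset ℕ} {P1 : ℕ → Plate}
    (hth : 0 < th) (hth1 : th ≤ 1) (hth' : 0 < th') (hκ : 0 < κ) (hK : 0 ≤ K) (hY : 0 < Y)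
    (hm : ∀ i ∈ I1, ∀ m, MeasurableSet ((P1 i).S m))
    (hd : ∀ i ∈ I1, ∀ j ∈ I1, i ≠ j → ∀ m, Disjoint ((P1 i).S m) ((P1 j).S m))
    (hb : ∀ i ∈ I1, ∀ m, ∀ y ∈ (P1 i).S m, ‖y‖ ≤ K) :
    ∑ j ∈ I, Fr k K th th' κ Y g I1 P1 P j ≤
      ENNReal.ofReal ((Y ^ k)⁻¹ * (256 * (dl⁻¹) ^ 4 * cW)) * enc th g (uS I1 P1) := by
  unfold Fr
  rw [← Finset.mul_sum, Finset.sum_comm, ENNReal.ofReal_mul (by positivity), mul_assoc]
  refine mul_le_mul' le_rfl ?_
  rw [← tot_muE hth hth1 hκ hK hm hd hb, Finset.mul_sum]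
  refine Finset.sum_le_sum fun T _ => ?_
  rw [← Finset.sum_mul]
  have h := tot_wT hr1 hdl hdl1 hP hth hth' hκ 0 T
  rw [zero_add] at h
  exact mul_le_mul' h le_rfl

/-! ### the instance -/

section inst

variable {M q a b A d0 G c0 κ η0 r1 dl Y Gm s1' s2' s1 s2 D : ℝ} {g : E3 → ℂ}
  {I1 I : Finset ℕ} {P1 P : ℕ → Plate}

theorem parC_gdc (h : ParC M κ q a b A c0 η0 g r1 s1 s2 D I1 P1) (ha : 1 ≤ a) :
    GlC210.Gdc g := by
  refine ⟨h.gm, h.gb, ⟨b * a + a, fun ζ hζ => ?_⟩⟩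
  obtain ⟨h1, h2, h3⟩ := h.gs ζ hζ
  have hi : 0 < a⁻¹ := inv_pos.2 (by linarith)
  have h4 : 0 < ζ 2 := by linarith
  have h5 : ‖lat ζ‖ = ζ 2 * ‖slp ζ‖ := by
    unfold slp
    rw [norm_smul, norm_inv, Real.norm_eq_abs, abs_of_pos h4, ← mul_assoc,
      mul_inv_cancel₀ h4.ne', one_mul]
  refine (Ckm538.norm3_le ζ).trans (add_le_add ?_ ?_)
  · rw [h5, mul_comm]
    exact mul_le_mul h3 h2 h4.le ((norm_nonneg _).trans h3)
  · rw [abs_of_pos h4]
    exact h2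

theorem parC_int (h : ParC M κ q a b A c0 η0 g r1 s1 s2 D I1 P1) (ha : 1 ≤ a) : Integrable g :=
  (parC_gdc h ha).int

theorem parC_rng (h : ParC M κ q a b A c0 η0 g r1 s1 s2 D I1 P1) : Rng a g := fun ζ hζ =>
  ⟨(h.gs ζ hζ).1, (h.gs ζ hζ).2.1⟩

theorem parC_bd (h : ParC M κ q a b A c0 η0 g r1 s1 s2 D I1 P1) :
    ∀ i ∈ I1, ∀ m, ∀ y ∈ (P1 i).S m, ‖y‖ ≤ A * r1 := fun i hi m y hy =>
  mem_closedBall_zero_iff.1 (h.bd m (Set.mem_biUnion hi hy))

/-- `(θ'/θ)² = dl⁻¹`. -/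
theorem an_ratio (hd : 0 < dl) (hr : 0 < r1) : (an (dl * r1) / an r1) ^ 2 = dl⁻¹ := by
  have h := an_pos hr
  rw [an_dl hd hr, mul_div_assoc, div_self h.ne', mul_one, pow_two, dlh_sq hd]

/-- **(D)**: the misaligned child plates over the parent cells, for the hypotheses of `MIS_C`. -/
theorem mis_en (k : ℕ) {a : ℝ} (ha : 1 ≤ a) : ∃ C : ℝ, 0 ≤ C ∧
    ∀ (M q b A d0 G c0 κ η0 : ℝ) (g : E3 → ℂ) (r1 dl Y Gm s1' s2' s1 s2 D : ℝ)
    (I1 : Finset ℕ) (P1 : ℕ → Plate) (I : Finset ℕ) (P : ℕ → Plate), d0 ≤ 1 → 0 ≤ A →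
    Ctx M q a b A d0 G c0 κ η0 g r1 dl Y Gm s1' s2' s1 s2 D I1 P1 I P →
    IsMis (dl ^ (1/2 : ℝ)) κ η0 g dl r1 I1 P1 I P →
    (∀ j ∈ I, enc (an (dl * r1)) (trc (P j).z (selc η0 κ (an r1) g (uS I1 P1))) (P j).S ≤
      ENNReal.ofReal (C * dl⁻¹) * (ENNReal.ofReal (∑ T ∈ Ic (A * r1) (an r1) κ I1 P1,
        om k (an r1) (an (dl * r1)) κ (dl ^ (1/2 : ℝ)) Y P1 P j T * muT (an r1) κ g P1 T) +
          Fr k (A * r1) (an r1) (an (dl * r1)) κ Y g I1 P1 P j)) ∧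
    ∑ j ∈ I, Fr k (A * r1) (an r1) (an (dl * r1)) κ Y g I1 P1 P j ≤
      ENNReal.ofReal (C * (dl⁻¹) ^ 4 * (Y ^ k)⁻¹) * enc (an r1) g (uS I1 P1) := by
  obtain ⟨C, hC, hE⟩ := en_mis k ha 1
  have hcW := cW_pos
  refine ⟨C + 256 * cW, by positivity, ?_⟩
  intro M q b A d0 G c0 κ η0 g r1 dl Y Gm s1' s2' s1 s2 D I1 P1 I P hd01 hA h hmis
  have hr1 := h.r10
  have hdl := h.dlpos
  have hdl1 := h.dl1 hd01
  have hth := an_pos hr1
  have hth1 := an_le_one (h.r11 hd01 ha)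
  have hth' := an_pos h.rj0
  have hY : 0 < Y := lt_of_lt_of_le one_pos h.Y1
  have hK : 0 ≤ A * r1 := mul_nonneg hA hr1.le
  constructor
  · intro j hj
    have h1 := hE η0 κ (an r1) (an (dl * r1)) (dl ^ (1/2 : ℝ)) Y (A * r1) hth hth1
      (an_le_an hdl hdl1 hr1) h.kpos h.ka (h.st1' hd01) hY hK g (parC_int h.par ha)
      (parC_rng h.par) h.par.slc I1 P1 h.par.meas (parC_bd h.par) P j (h.pl.meas j hj) ?_
      (hmis j hj)
    · rw [an_ratio hdl hr1] at h1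
      refine h1.trans (mul_le_mul' (ENNReal.ofReal_le_ofReal ?_) le_rfl)
      have : 0 < dl⁻¹ := inv_pos.2 hdl
      gcongr
      linarith
    · have h2 := (h.pl.mem j hj).2
      rw [← mul_an_sq hr1]
      exact mul_le_mul_of_nonneg_right h2 (by positivity)
  · refine (sum_Fr k hr1 hdl hdl1 h.pl hth hth1 hth' h.kpos hK hY h.par.meas h.par.disj
      (parC_bd h.par)).trans (mul_le_mul' (ENNReal.ofReal_le_ofReal ?_) le_rfl)
    have h3 : 0 < (dl⁻¹) ^ 4 := by positivity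
    have h4 : 0 < (Y ^ k)⁻¹ := by positivity
    have h5 : 0 ≤ C * (dl⁻¹) ^ 4 * (Y ^ k)⁻¹ := by positivity
    calc (Y ^ k)⁻¹ * (256 * (dl⁻¹) ^ 4 * cW) = 256 * cW * (dl⁻¹) ^ 4 * (Y ^ k)⁻¹ := by ring
      _ ≤ (C + 256 * cW) * (dl⁻¹) ^ 4 * (Y ^ k)⁻¹ := by
          gcongr
          linarith

end inst

end Crest.Agent.R116.Mwc748
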