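import Crest.Agent.R116.Mwc6_748
import Crest.Agent.R116.Mc3_330
import Crest.Agent.R116.LZv2_725

/-!
# R116 (S0155), wave side: MIS for the cone, part 7 (helper748): space-time regions

* `Xreg` = space-time region of a member; `vol_Xreg`; `pl_sub` = the plank of a packet which is close
  to a phase point of the member lies in the region.
* `plate_reg`, `vol_plate`: the regions of the parent plates (`hX`, `hXv` of `Mc330.mis_fin`).
-/

set_option autoImplicit false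
set_option linter.unusedVariables false
set_option linter.unusedSectionVars false

open MeasureTheory
open scoped ENNReal

namespace Crest.Agent.R116.Mwc748

open Crest.Agent.R138.Defs (E2)
open Crest.Agent.R138.Wpk685 (cen caps)
open Crest.Agent.R116.CDef480
open Crest.Agent.R116.LZg725 (Cf)
open Crest.Agent.R116.PC299
open Crest.Agent.R116.WC188
open Crest.Agent.R116.Mc330 (PLc)

/-- space-time region of a member, dilations `K`; `|p| ≤ lam`, `|L p| ≤ h`. -/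
def Xreg (R sg T K lam h : ℝ) (c : E2) (X0 : E3) (p : Cf E2) : Set (E3 × ℝ) :=
  {q | |q.2| ≤ R ∧ ‖(lat q.1 - lat X0) + q.2 • c‖ ≤ K * sg * R ∧
    |nrm c q.1 q.2 - nrm c X0 0| ≤ K * T * R ∧ |p.ev (lat q.1) (q.1 2) q.2| ≤ lam ∧
    ∃ C : E2, ‖C - c‖ ≤ K * sg ∧ |p.ld C (lat q.1) (q.1 2) q.2| ≤ h}

theorem vol_Xreg {M R sg T K lam h : ℝ} {c : E2} {X0 : E3} {p : Cf E2} (hR : 0 < R) (hsg : 0 < sg)
    (hT : sg ^ 2 ≤ T) (hK : 1 ≤ K) (hM : 0 ≤ M) (hlam : 0 ≤ lam) (hdisc : p.disc = 1)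
    (hny : ∀ s, |s| ≤ R → |p.ny s| * T ≤ M * sg) (h1 : 8 * M * lam ≤ sg * R)
    (h2 : 8 * M * h ≤ sg) : volume (Xreg R sg T K lam h c X0 p) ≤
      ENNReal.ofReal (512 * K ^ 3 * (lam * (sg * R) * (T * R) * R)) := by
  have h3 := LZg725.vol_pp (c := c) (x0 := lat X0) (y0 := X0 2) (s0 := 0) (p := p) (K := K)
    (lam := lam) (h := h) hR hsg hT hK hM hlam hdisc
    (fun s hs => hny s (by simpa using hs)) h1 h2
  refine le_trans (measure_mono ?_) h3
  rintro q ⟨a0, a1, a2, a3, a4⟩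
  refine ⟨by rw [sub_zero]; exact a0, by rw [sub_zero]; exact a1, a2, a3, a4⟩

/-- **the plank of a packet lies in the region of the member.** -/
theorem pl_sub {M A R sg T s1 w B : ℝ} {c C : E2} {X0 y y0 : E3} {p : Cf E2} (hA : 0 ≤ A)
    (hM : 0 ≤ M) (hR : 0 < R) (hsg : 0 < sg) (hT : sg ^ 2 ≤ T) (hs1 : 0 ≤ s1)
    (hw0 : 0 ≤ w) (hw1 : w ≤ sg * R) (hw2 : w ≤ s1 * R) (hB0 : 0 ≤ B) (hB : B ≤ T * R)
    (hC : ‖C - c‖ ≤ A * sg) (hl : ‖lat y0 - lat X0‖ ≤ A * sg * R)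
    (hn : |nrm c y0 0 - nrm c X0 0| ≤ A * T * R) (hev : |p.ev (lat y0) (y0 2) 0| ≤ A * s1 * R)
    (hld : |p.ld C (lat y0) (y0 2) 0| ≤ A * s1) (hgr : ‖p.gr C (lat y0) 0‖ ≤ 2)
    (hny : ∀ s, |s| ≤ R → |p.ny s| * B ≤ M * s1 * R) (hd1 : |p.d| * B ≤ M * s1)
    (hd2 : |p.d| * w ^ 2 ≤ M * s1 * R) (hy1 : ‖lat (y0 - y)‖ ≤ 2 * w)
    (hy2 : |nrm C (y0 - y) 0| ≤ B) :
    PLc R w B C y ⊆ Xreg R sg T (A ^ 2 + 4 * A + 3) ((2 * A + 6 + 11 * M) * s1 * R)
      ((A + 4 * M) * s1) c X0 p := by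
  rintro ⟨X, s⟩ ⟨hs, hq1, hq2⟩
  simp only at hs hq1 hq2
  have hT0 : 0 < T := lt_of_lt_of_le (pow_pos hsg 2) hT
  set l : E2 := (lat X - lat y0) + s • C with hldef
  set v : ℝ := nrm C X s - nrm C y0 0 with hv
  have hl3 : ‖l‖ ≤ 3 * w := by
    have e : l = (lat X - (lat y - s • C)) - lat (y0 - y) := by
      rw [hldef, lat_sub]
      abel
    rw [e]
    refine (norm_sub_le _ _).trans ?_
    linarith
  have hv2 : |v| ≤ 2 * B := by
    have e : v = (nrm C X s - nrm C y 0) - nrm C (y0 - y) 0 := by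
      rw [hv, nrm_sub0]
      ring
    rw [e]
    refine (abs_sub _ _).trans ?_
    linarith
  have k1 : 0 ≤ A * sg := by positivity
  refine ⟨hs, ?_, ?_, ?_, C, ?_, ?_⟩
  · show ‖(lat X - lat X0) + s • c‖ ≤ (A ^ 2 + 4 * A + 3) * sg * R
    have e : (lat X - lat X0) + s • c = l + (lat y0 - lat X0) - s • (C - c) := by
      rw [hldef, smul_sub]
      abel
    rw [e]
    refine (norm_sub_le _ _).trans ?_
    have a1 := norm_add_le l (lat y0 - lat X0)
    have a2 : ‖s • (C - c)‖ ≤ R * (A * sg) := by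
      rw [norm_smul, Real.norm_eq_abs]
      exact mul_le_mul hs hC (norm_nonneg _) hR.le
    have a3 : 0 < sg * R := by positivity
    nlinarith [mul_nonneg (mul_nonneg hA hA) a3.le, mul_nonneg hA a3.le]
  · show |nrm c X s - nrm c X0 0| ≤ (A ^ 2 + 4 * A + 3) * T * R
    have e : nrm c X s - nrm c X0 0 = v - inner ℝ (C - c) l + s * ‖C - c‖ ^ 2 / 2 +
        (nrm c y0 0 - nrm c X0 0) := by
      rw [hv, hldef]
      unfold nrm
      rw [inner_add_right, inner_sub_right, real_inner_smul_right, inner_sub_left, inner_sub_left,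
        inner_sub_left, norm_sub_sq_real, real_inner_self_eq_norm_sq, real_inner_comm c C]
      ring
    rw [e]
    have b1 : |inner ℝ (C - c) l| ≤ 3 * A * (T * R) := by
      refine (abs_real_inner_le_norm _ _).trans ?_
      calc ‖C - c‖ * ‖l‖ ≤ (A * sg) * (3 * (sg * R)) := by
            refine mul_le_mul hC (hl3.trans ?_) (norm_nonneg _) k1
            linarith
        _ = 3 * A * (sg ^ 2 * R) := by ring
        _ ≤ 3 * A * (T * R) := by gcongr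
    have b2 : |s * ‖C - c‖ ^ 2 / 2| ≤ A ^ 2 * (T * R) / 2 := by
      rw [abs_div, abs_mul, abs_two, abs_of_nonneg (sq_nonneg ‖C - c‖)]
      have b3 : ‖C - c‖ ^ 2 ≤ (A * sg) ^ 2 := pow_le_pow_left₀ (norm_nonneg _) hC 2
      refine div_le_div_of_nonneg_right ?_ (by norm_num)
      calc |s| * ‖C - c‖ ^ 2 ≤ R * (A * sg) ^ 2 := mul_le_mul hs b3 (sq_nonneg _) hR.le
        _ = A ^ 2 * (sg ^ 2 * R) := by ring
        _ ≤ A ^ 2 * (T * R) := by gcongr
    have c1 := abs_add_le (v - inner ℝ (C - c) l + s * ‖C - c‖ ^ 2 / 2) (nrm c y0 0 - nrm c X0 0)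
    have c2 := abs_add_le (v - inner ℝ (C - c) l) (s * ‖C - c‖ ^ 2 / 2)
    have c3 := abs_sub v (inner ℝ (C - c) l)
    have c4 : 0 < T * R := by positivity
    have c5 : A * T * R = A * (T * R) := by ring
    have c6 : (A ^ 2 + 4 * A + 3) * T * R = A ^ 2 * (T * R) + 4 * (A * (T * R)) + 3 * (T * R) := by
      ring
    have c7 : 0 ≤ A ^ 2 * (T * R) := by positivity
    rw [c6]
    rw [c5] at hn
    linarith
  · show |p.ev (lat X) (X 2) s| ≤ (2 * A + 6 + 11 * M) * s1 * R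
    have e := LZg725.ev_sec p C (lat y0) (y0 2) 0 (lat X) (X 2) s
    rw [sub_zero] at e
    have e1 : LZg725.nrm C (lat X) (X 2) s - LZg725.nrm C (lat y0) (y0 2) 0 = v := rfl
    rw [e1, ← hldef] at e
    rw [e]
    have d1 : |p.ld C (lat y0) (y0 2) 0 * s| ≤ A * s1 * R := by
      rw [abs_mul]
      exact mul_le_mul hld hs (abs_nonneg _) (by positivity)
    have d2 : |inner ℝ (p.gr C (lat y0) 0) l| ≤ 6 * (s1 * R) := by
      refine (abs_real_inner_le_norm _ _).trans ?_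
      calc ‖p.gr C (lat y0) 0‖ * ‖l‖ ≤ 2 * (3 * (s1 * R)) := by
            refine mul_le_mul hgr (hl3.trans ?_) (norm_nonneg _) (by norm_num)
            linarith
        _ = _ := by ring
    have d3 : |p.ny s * v| ≤ 2 * (M * s1 * R) := by
      rw [abs_mul]
      calc |p.ny s| * |v| ≤ |p.ny s| * (2 * B) := mul_le_mul_of_nonneg_left hv2 (abs_nonneg _)
        _ = 2 * (|p.ny s| * B) := by ring
        _ ≤ 2 * (M * s1 * R) := by linarith [hny s hs]
    have d4 : |p.d * ‖l‖ ^ 2| ≤ 9 * (M * s1 * R) := by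
      rw [abs_mul, abs_of_nonneg (sq_nonneg ‖l‖)]
      have d5 : ‖l‖ ^ 2 ≤ (3 * w) ^ 2 := pow_le_pow_left₀ (norm_nonneg _) hl3 2
      calc |p.d| * ‖l‖ ^ 2 ≤ |p.d| * (3 * w) ^ 2 := mul_le_mul_of_nonneg_left d5 (abs_nonneg _)
        _ = 9 * (|p.d| * w ^ 2) := by ring
        _ ≤ 9 * (M * s1 * R) := by linarith
    have f1 := abs_add_le (p.ev (lat y0) (y0 2) 0 + p.ld C (lat y0) (y0 2) 0 * s +
      inner ℝ (p.gr C (lat y0) 0) l + p.ny s * v) (p.d * ‖l‖ ^ 2)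
    have f2 := abs_add_le (p.ev (lat y0) (y0 2) 0 + p.ld C (lat y0) (y0 2) 0 * s +
      inner ℝ (p.gr C (lat y0) 0) l) (p.ny s * v)
    have f3 := abs_add_le (p.ev (lat y0) (y0 2) 0 + p.ld C (lat y0) (y0 2) 0 * s)
      (inner ℝ (p.gr C (lat y0) 0) l)
    have f4 := abs_add_le (p.ev (lat y0) (y0 2) 0) (p.ld C (lat y0) (y0 2) 0 * s)
    have f5 : (2 * A + 6 + 11 * M) * s1 * R = 2 * (A * s1 * R) + 6 * (s1 * R) +
      11 * (M * s1 * R) := by ring
    rw [f5]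
    linarith
  · refine hC.trans (mul_le_mul_of_nonneg_right ?_ hsg.le)
    nlinarith [mul_nonneg hA hA]
  · show |p.ld C (lat X) (X 2) s| ≤ (A + 4 * M) * s1
    have e := p.ld_move C (lat y0) (lat X) (y0 2) (X 2) 0 s
    have e1 : LZg725.nrm C (lat X) (X 2) s - LZg725.nrm C (lat y0) (y0 2) 0 = v := rfl
    rw [e1] at e
    rw [e]
    refine (abs_sub _ _).trans ?_
    have g1 : |2 * p.d * v| ≤ 4 * (M * s1) := by
      rw [abs_mul, abs_mul, abs_two]
      calc 2 * |p.d| * |v| ≤ 2 * |p.d| * (2 * B) :=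
            mul_le_mul_of_nonneg_left hv2 (by positivity)
        _ = 4 * (|p.d| * B) := by ring
        _ ≤ 4 * (M * s1) := by linarith
    have g2 : (A + 4 * M) * s1 = A * s1 + 4 * (M * s1) := by ring
    rw [g2]
    linarith

section inst

variable {M q a b A c0 κ η0 r1 s1 s2 D : ℝ} {g : E3 → ℂ} {I1 : Finset ℕ} {P1 : ℕ → Plate}

/-- the region of a parent plate. -/
def Xpl (κ M A r1 s1 s2 : ℝ) (P1 : ℕ → Plate) (i : ℕ) : Set (E3 × ℝ) :=
  Xreg r1 s2 (TT κ s2 r1) (A ^ 2 + 4 * A + 3) ((2 * A + 6 + 11 * M) * s1 * r1)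
    ((A + 4 * M) * s1) (P1 i).c (P1 i).X0 (P1 i).f

/-- the constant of the volume. -/
noncomputable def KX (M A : ℝ) : ℝ := 512 * (A ^ 2 + 4 * A + 3) ^ 3 * (2 * A + 6 + 11 * M)

/-- **the planks of the cells lie in the region of their plate.** -/
theorem plate_reg (h : ParC M κ q a b A c0 η0 g r1 s1 s2 D I1 P1) (hM : 0 ≤ M) (hA : 0 ≤ A)
    (hr1 : 1 ≤ r1) (hκ : 0 < κ) (hκ1 : κ ≤ 1) (hw : 8 * (M * A * s1) ≤ s2) {K : ℝ} {T : Idx}
    (hT : T ∈ Ic K (an r1) κ I1 P1) :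
    PLc r1 (an r1)⁻¹ κ⁻¹ (slT (an r1) T) (ptT (an r1) κ T) ⊆ Xpl κ M A r1 s1 s2 P1 T.1 := by
  obtain ⟨h1, h2, h3, y0, hy0⟩ := mem_Ic.1 hT
  have hr0 : 0 < r1 := by linarith
  have hth := an_pos hr0
  obtain ⟨hy1, hy2, hy3⟩ := Ic_pt (I1 := ∅) (K := 0) hth hκ hy0
  have hs1 := Sd.s10 h.sd hr0
  have hs2 := Sd.s20 h.sd hr0
  have hbox := h.box _ h1 _ hy0.1
  have hadm := h.adm _ h1
  have hki : 0 < κ⁻¹ := inv_pos.2 hκ
  have hw1 : (an r1)⁻¹ = an r1 * r1 := by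
    have := mul_an_sq hr0
    symm
    refine eq_inv_of_mul_eq_one_left ?_
    calc an r1 * r1 * an r1 = r1 * an r1 ^ 2 := by ring
      _ = 1 := this
  have hws : (an r1)⁻¹ ≤ s1 * r1 := by
    rw [hw1]
    exact mul_le_mul_of_nonneg_right h.sd.lo hr0.le
  have hd := d_le1 hadm h.sd hr1 hκ
  have hd' : |(P1 T.1).f.d| ≤ M * (κ * s1) := by
    have : 0 ≤ M * (κ * s1) := by positivity
    linarith
  refine pl_sub hA hM hr0 hs2 (sq_le_TT _ _ _) hs1.le (inv_pos.2 hth).le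
    (hws.trans (mul_le_mul_of_nonneg_right h.sd.le hr0.le)) hws hki.le (kinv_le_TT _ _ hr0)
    (pbx_cen hbox) (pbx_lat hbox) (pbx_nrm hbox) (pbx_ev hbox) (pbx_ld hbox)
    ((gr_ge hadm h.sd hr1 hκ hbox hw).2.trans (by norm_num)) ?_ ?_ ?_ hy2 hy3
  · intro s hs
    calc |(P1 T.1).f.ny s| * κ⁻¹ ≤ M * (κ * s1 * r1) * κ⁻¹ :=
          mul_le_mul_of_nonneg_right (hadm.cmp s hs) hki.le
      _ = M * s1 * r1 := by field_simp
  · calc |(P1 T.1).f.d| * κ⁻¹ ≤ M * (κ * s1) * κ⁻¹ := mul_le_mul_of_nonneg_right hd' hki.le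
      _ = M * s1 := by field_simp
  · have e : ((an r1)⁻¹) ^ 2 = r1 := by
      rw [inv_pow, an_sq hr0, inv_inv]
    rw [e]
    calc |(P1 T.1).f.d| * r1 ≤ M * (κ * s1) * r1 := mul_le_mul_of_nonneg_right hd' hr0.le
      _ ≤ M * (1 * s1) * r1 := by gcongr
      _ = M * s1 * r1 := by ring

/-- **volume of the region of a parent plate.** -/
theorem vol_plate (h : ParC M κ q a b A c0 η0 g r1 s1 s2 D I1 P1) (hM : 0 ≤ M) (hA : 0 ≤ A)
    (hr1 : 1 ≤ r1) (hκ : 0 < κ) (hw : 8 * M * ((2 * A + 6 + 11 * M) * s1) ≤ s2) {i : ℕ}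
    (hi : i ∈ I1) : volume (Xpl κ M A r1 s1 s2 P1 i) ≤
      ENNReal.ofReal (KX M A * scost κ s1 s2 r1 * r1) := by
  have hr0 : 0 < r1 := by linarith
  have hs1 := Sd.s10 h.sd hr0
  have hs2 := Sd.s20 h.sd hr0
  have hadm := h.adm _ hi
  have hT : 0 < TT κ s2 r1 := Cov369.TT_pos hκ hr0
  refine (vol_Xreg hr0 hs2 (sq_le_TT _ _ _) (by nlinarith [mul_nonneg hA hA]) hM (by positivity)
    hadm.disc (fun s hs => ?_) ?_ ?_).trans (le_of_eq ?_)
  · have := hadm.ny s hs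
    rwa [le_div_iff₀ hT] at this
  · calc 8 * M * ((2 * A + 6 + 11 * M) * s1 * r1) = (8 * M * ((2 * A + 6 + 11 * M) * s1)) * r1 := by
          ring
      _ ≤ s2 * r1 := mul_le_mul_of_nonneg_right hw hr0.le
  · refine le_trans ?_ hw
    refine mul_le_mul_of_nonneg_left (mul_le_mul_of_nonneg_right ?_ hs1.le) (by positivity)
    linarith
  · congr 1
    unfold KX scost
    ring

end inst

end Crest.Agent.R116.Mwc748
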