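import Crest.Agent.R116.Mwc7_748
import Crest.Agent.R116.KMRDef_890

/-!
# R116 (S0155), wave side: MIS for the cone, part 8 (helper748): Kakeya for the planks of the cells

`km_cells` = `hKM` of `Mc330.mis_fin` from `KMR890.KMR`.
-/

set_option autoImplicit false
set_option linter.unusedVariables false
set_option linter.unusedSectionVars false

open MeasureTheory
open scoped ENNReal

namespace Crest.Agent.R116.Mwc748

open Crest.Agent.R138.Defs (E2)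
open Crest.Agent.R138.Wpk685 (cen caps)
open Crest.Agent.R116.CDef480
open Crest.Agent.R116.LZg725 (Cf)
open Crest.Agent.R116.PC299
open Crest.Agent.R116.WC188
open Crest.Agent.R116.Mc330 (PLc pkc measurable_pkc pkc_zero)
open Crest.Agent.R116.Ckm538 (cix)
open Crest.Agent.R116.Cad538 (frc wt)

/-- the union of the cells of a family. -/
def SF (th κ : ℝ) (P1 : ℕ → Plate) (F : Finset Idx) (m : ℤ × ℤ) : Set E3 :=
  ⋃ T ∈ F.filter (fun T => T.2.1 = m), TS th κ P1 T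

theorem mem_SF {th κ : ℝ} {P1 : ℕ → Plate} {F : Finset Idx} {m : ℤ × ℤ} {y : E3} :
    y ∈ SF th κ P1 F m ↔ ∃ T ∈ F, T.2.1 = m ∧ y ∈ TS th κ P1 T := by
  unfold SF
  simp only [Set.mem_iUnion, Finset.mem_filter, exists_prop, and_assoc]

theorem TS_disj {th κ : ℝ} {I1 : Finset ℕ} {P1 : ℕ → Plate}
    (hd : ∀ i ∈ I1, ∀ j ∈ I1, i ≠ j → ∀ m, Disjoint ((P1 i).S m) ((P1 j).S m)) {T T' : Idx}
    (h1 : T.1 ∈ I1) (h2 : T'.1 ∈ I1) (hmm : T.2.1 = T'.2.1) (hne : T ≠ T') :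
    Disjoint (TS th κ P1 T) (TS th κ P1 T') := by
  rw [Set.disjoint_left]
  rintro y ⟨a1, a2⟩ ⟨a3, a4⟩
  have a2' : cix th⁻¹ κ⁻¹ (cen th T.2.1) y = T.2.2 := a2
  have a4' : cix th⁻¹ κ⁻¹ (cen th T'.2.1) y = T'.2.2 := a4
  by_cases hab : T.1 = T'.1
  · apply hne
    refine Prod.ext hab (Prod.ext hmm ?_)
    rw [← a2', ← a4', hmm]
  · refine Set.disjoint_left.1 (hd _ h1 _ h2 hab T.2.1) a1 ?_
    rw [hmm]
    exact a3

theorem SF_meas {th κ : ℝ} {I1 : Finset ℕ} {P1 : ℕ → Plate} {F : Finset Idx}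
    (hm : ∀ i ∈ I1, ∀ m, MeasurableSet ((P1 i).S m)) (hF : ∀ T ∈ F, T.1 ∈ I1) (m : ℤ × ℤ) :
    MeasurableSet (SF th κ P1 F m) := by
  unfold SF
  exact Finset.measurableSet_biUnion _ fun T hT =>
    TS_meas (hm _ (hF T (Finset.mem_filter.1 hT).1) _)

/-- the null coordinate of the position. -/
theorem nrm_shift (C : E2) (y X : E3) (t : ℝ) :
    nrm C (y - X - t • vel C) 0 = nrm C y 0 - nrm C X t := by
  rw [Ckm538.nrm_zero, Ckm538.nrm_zero]
  unfold nrm vel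
  simp only [lat_sub, lat_smul, lat_pt, PiLp.sub_apply, PiLp.smul_apply, pt_two, smul_eq_mul,
    inner_sub_right, real_inner_smul_right, real_inner_self_eq_norm_sq]
  ring

theorem lat_shift (C : E2) (y X : E3) (t : ℝ) :
    lat (y - X - t • vel C) = lat y - (lat X + t • C) := by
  unfold vel
  rw [lat_sub, lat_sub, lat_smul, lat_pt]
  abel

/-- a point of the plank sees the points of the cell with a large weight. -/
theorem pl_wt {th κ r : ℝ} (hth : 0 < th) (hκ : 0 < κ) {P1 : ℕ → Plate} {T : Idx} {y : E3}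
    (hy : y ∈ TS th κ P1 T) {q : E3 × ℝ}
    (hq : q ∈ PLc r th⁻¹ κ⁻¹ (slT th T) (ptT th κ T)) (n : ℕ) :
    1 ≤ (6:ℝ) ^ n * wt (frc th κ (cen th T.2.1)) n (y - q.1 - q.2 • vel (cen th T.2.1)) := by
  obtain ⟨hy1, hy2, hy3⟩ := Ic_pt (I1 := ∅) (K := 0) hth hκ hy
  obtain ⟨hq0, hq1, hq2⟩ := hq
  have h6 : (6:ℝ) = 1 + 5 := by norm_num
  rw [h6]
  refine Cad538.wt_ball _ (by norm_num) n ?_
  refine (Cad538.norm_frc_le hth.le hκ.le _ _).trans ?_
  have e0 : cen th T.2.1 = slT th T := rfl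
  rw [e0, nrm_shift, lat_shift]
  have b1 : ‖lat y - (lat q.1 + q.2 • slT th T)‖ ≤ 3 * th⁻¹ := by
    have e : lat y - (lat q.1 + q.2 • slT th T) = lat (y - ptT th κ T) -
        (lat q.1 - (lat (ptT th κ T) - q.2 • slT th T)) := by
      rw [lat_sub]
      abel
    rw [e]
    refine (norm_sub_le _ _).trans ?_
    linarith
  have b2 : |nrm (slT th T) y 0 - nrm (slT th T) q.1 q.2| ≤ 2 * κ⁻¹ := by
    have e : nrm (slT th T) y 0 - nrm (slT th T) q.1 q.2 = nrm (slT th T) (y - ptT th κ T) 0 -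
        (nrm (slT th T) q.1 q.2 - nrm (slT th T) (ptT th κ T) 0) := by
      rw [nrm_sub0]
      ring
    rw [e]
    refine (abs_sub _ _).trans ?_
    linarith
  have c1 := mul_le_mul_of_nonneg_left b1 hth.le
  have c2 := mul_le_mul_of_nonneg_left b2 hκ.le
  have e1 : th * (3 * th⁻¹) = 3 := by field_simp
  have e2 : κ * (2 * κ⁻¹) = 2 := by field_simp
  rw [e1] at c1
  rw [e2] at c2
  linarith

section pt

variable {K th κ r : ℝ} {g : E3 → ℂ} {I1 : Finset ℕ} {P1 : ℕ → Plate} {F : Finset Idx}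

/-- **the planks are dominated by the density.** -/
theorem sum_pkc_le (hth : 0 < th) (hκ : 0 < κ) (hg : Integrable g)
    (hb : ∀ i ∈ I1, ∀ m, ∀ y ∈ (P1 i).S m, ‖y‖ ≤ K)
    (hm : ∀ i ∈ I1, ∀ m, MeasurableSet ((P1 i).S m))
    (hd : ∀ i ∈ I1, ∀ j ∈ I1, i ≠ j → ∀ m, Disjoint ((P1 i).S m) ((P1 j).S m))
    (hF : ∀ T ∈ F, T.1 ∈ I1) (n : ℕ) (q : E3 × ℝ) :
    ∑ T ∈ F, pkc r th⁻¹ κ⁻¹ (slT th T) (ptT th κ T) (muT th κ g P1 T) q ≤
      ENNReal.ofReal (6 ^ n * (th ^ 2 * κ)⁻¹) *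
        Cad538.Acc n th κ th g (SF th κ P1 F) (F.image fun T => T.2.1) q.1 q.2 := by
  classical
  have hthκ : 0 < th ^ 2 * κ := by positivity
  set W : Idx → E3 → ℝ≥0∞ := fun T y =>
    ENNReal.ofReal (wt (frc th κ (cen th T.2.1)) n (y - q.1 - q.2 • vel (cen th T.2.1))) *
      ‖umc th g T.2.1 y‖ₑ ^ 2 with hW
  have h1 : ∀ T ∈ F, pkc r th⁻¹ κ⁻¹ (slT th T) (ptT th κ T) (muT th κ g P1 T) q ≤
      ENNReal.ofReal (6 ^ n) * ∫⁻ y in TS th κ P1 T, W T y := by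
    intro T hT
    by_cases hq : q ∈ PLc r th⁻¹ κ⁻¹ (slT th T) (ptT th κ T)
    · have e : pkc r th⁻¹ κ⁻¹ (slT th T) (ptT th κ T) (muT th κ g P1 T) q =
          ENNReal.ofReal (muT th κ g P1 T) := by
        unfold pkc Ma448.pk
        exact Set.indicator_of_mem hq _
      rw [e, ofReal_muT hg (hb _ (hF T hT) _), ← lintegral_const_mul' _ _ ENNReal.ofReal_ne_top]
      unfold muE
      refine setLIntegral_mono' (TS_meas (hm _ (hF T hT) _)) fun y hy => ?_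
      have h2 := pl_wt hth hκ hy hq n
      rw [hW]
      simp only
      rw [← mul_assoc, ← ENNReal.ofReal_mul (by positivity)]
      calc ‖umc th g T.2.1 y‖ₑ ^ 2 = 1 * ‖umc th g T.2.1 y‖ₑ ^ 2 := (one_mul _).symm
        _ ≤ _ := by
            refine mul_le_mul' ?_ le_rfl
            rw [← ENNReal.ofReal_one]
            exact ENNReal.ofReal_le_ofReal h2
    · rw [pkc_zero hq]
      exact zero_le
  refine (Finset.sum_le_sum h1).trans ?_
  rw [← Finset.mul_sum, ENNReal.ofReal_mul (by positivity), mul_assoc]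
  refine mul_le_mul' le_rfl ?_
  unfold Cad538.Acc Cad538.Den
  rw [← mul_assoc, ← ENNReal.ofReal_mul (by positivity), inv_mul_cancel₀ hthκ.ne',
    ENNReal.ofReal_one, one_mul]
  rw [← Finset.sum_fiberwise_of_maps_to (t := F.image fun T => T.2.1)
    (g := fun T : Idx => T.2.1) (fun T hT => Finset.mem_image_of_mem _ hT)]
  refine Finset.sum_le_sum fun m _ => ?_
  unfold SF
  rw [lintegral_biUnion_finset]
  · refine Finset.sum_le_sum fun T hT => ?_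
    have hTm := (Finset.mem_filter.1 hT).2
    rw [hW]
    simp only
    rw [hTm]
  · intro T hT T' hT' hne
    obtain ⟨a1, a2⟩ := Finset.mem_filter.1 (Finset.mem_coe.1 hT)
    obtain ⟨b1, b2⟩ := Finset.mem_filter.1 (Finset.mem_coe.1 hT')
    exact TS_disj hd (hF T a1) (hF T' b1) (a2.trans b2.symm) hne
  · intro T hT
    exact TS_meas (hm _ (hF T (Finset.mem_filter.1 hT).1) _)

theorem pkc_out {C : E2} {y : E3} {ν : ℝ} {w B : ℝ} {q : E3 × ℝ} (h : r < |q.2|) :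
    pkc r w B C y ν q = 0 := by
  refine pkc_zero fun hq => ?_
  exact absurd hq.1 (not_le.2 h)

end pt

/-- **Kakeya for the planks of the cells in one slope cap** (`hKM` of `mis_fin`). -/
theorem km_cells {M q : ℝ} (hKM : KMR890.KMR M q) (ε : ℝ) (hε : 0 < ε) {a A Λ : ℝ} (ha : 1 ≤ a)
    (hA : 0 ≤ A) (hΛ : 0 ≤ Λ) :
    ∃ C : ℝ, 0 ≤ C ∧ ∀ (b c0 κ η0 : ℝ) (g : E3 → ℂ) (r1 s1 s2 D : ℝ) (I1 : Finset ℕ)
      (P1 : ℕ → Plate), ParC M κ q a b A c0 η0 g r1 s1 s2 D I1 P1 → 1 ≤ r1 → 0 < κ → κ ≤ 1 →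
      an r1 ≤ κ → ∀ s : ℝ, an r1 ≤ s → s ≤ 1 → ∀ (C0 : E2) (F : Finset Idx),
      F ⊆ Ic (A * r1) (an r1) κ I1 P1 → (∀ T ∈ F, ‖slT (an r1) T - C0‖ ≤ Λ * s) →
      ∫⁻ x, (∑ T ∈ F, pkc r1 (an r1)⁻¹ κ⁻¹ (slT (an r1) T) (ptT (an r1) κ T)
        (muT (an r1) κ g P1 T) x) ^ (3/2 : ℝ) ≤
      ENNReal.ofReal (C * ((an r1) ^ 2 * κ) ^ (-(3/2) : ℝ) * r1 ^ ε * s ^ (q / 2) * Real.sqrt D *
        r1 * ∑ T ∈ F, muT (an r1) κ g P1 T) := by
  classical
  obtain ⟨n, h0⟩ := hKM ε hε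
  obtain ⟨C, hC, h1⟩ := h0 n le_rfl A 1 (Λ + 2) hA (by norm_num) (by linarith)
  refine ⟨((6:ℝ) ^ n) ^ (3/2 : ℝ) * C, by positivity, ?_⟩
  intro b c0 κ η0 g r1 s1 s2 D I1 P1 h hr1 hκ hκ1 hthκ s hs hs1 C0 F hF hsl
  have hr0 : 0 < r1 := by linarith
  have hth := an_pos hr0
  have hs0 : 0 < s := hth.trans_le hs
  set th := an r1 with hthd
  have hFI : ∀ T ∈ F, T.1 ∈ I1 := fun T hT => (mem_Ic.1 (hF hT)).1
  have hg := parC_int h ha
  have hb := parC_bd h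
  have hc0 : 0 < th ^ 2 * κ := by positivity
  -- the density of the union of the cells
  have hSm := SF_meas (th := th) (κ := κ) h.meas hFI
  have hSb : ∀ m, SF th κ P1 F m ⊆ Metric.closedBall 0 (A * r1) := by
    intro m y hy
    obtain ⟨T, hT, -, hy2⟩ := mem_SF.1 hy
    rw [mem_closedBall_zero_iff]
    exact hb _ (hFI T hT) _ y hy2.1
  have hSu : ∀ m, SF th κ P1 F m ⊆ uS I1 P1 m := by
    intro m y hy
    obtain ⟨T, hT, h2, hy2⟩ := mem_SF.1 hy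
    rw [← h2]
    exact Set.mem_biUnion (hFI T hT) hy2.1
  have hdens : ∀ (c : E2) (X0 : E3) (f : Cf E2) (u1 u2 : ℝ), Sd r1 u1 u2 →
      Adm M κ u1 u2 (TT κ u2 r1) r1 c X0 f →
      enc (r1 ^ (-(1/2) : ℝ)) g (fun m => SF th κ P1 F m ∩ pbx κ 1 r1 u1 u2 c X0 f m) ≤
        ENNReal.ofReal (D * u2 ^ q * scost κ u1 u2 r1) := by
    intro c X0 f u1 u2 hsd hadm
    refine le_trans ?_ (h.dens c X0 f u1 u2 hsd hadm)
    unfold enc
    exact Finset.sum_le_sum fun m _ => lintegral_mono_set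
      (Set.inter_subset_inter_left _ (hSu m))
  -- the lattice point
  set k : ℤ × ℤ := Mc330.cel s C0 with hk
  have hk2 : ‖C0 - cen s k‖ ≤ 2 * s := Mc330.ltp_close hs0 C0
  set Mf : Finset (ℤ × ℤ) := F.image fun T => T.2.1 with hMf
  have hM1 : ∀ k' ∈ ({k} : Finset (ℤ × ℤ)), (fun _ => Mf) k' ⊆ caps (r1 ^ (-(1/2) : ℝ)) ∧
      ∀ m ∈ (fun _ : ℤ × ℤ => Mf) k', ‖cen (r1 ^ (-(1/2) : ℝ)) m - cen s k'‖ ≤ (Λ + 2) * s := by
    intro k' hk'
    rw [Finset.mem_singleton.1 hk']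
    constructor
    · intro m hm
      obtain ⟨T, hT, rfl⟩ := Finset.mem_image.1 hm
      exact (mem_Ic.1 (hF hT)).2.1
    · intro m hm
      obtain ⟨T, hT, rfl⟩ := Finset.mem_image.1 hm
      have e : cen (r1 ^ (-(1/2) : ℝ)) T.2.1 - cen s k = (slT th T - C0) + (C0 - cen s k) := by
        unfold slT
        rw [hthd]
        abel
      rw [e]
      refine (norm_add_le _ _).trans ?_
      have := hsl T hT
      linarith
  have h2 := h1 κ r1 hκ hκ1 hr1 hthκ g hg (parC_gdc h ha).l2 (SF th κ P1 F) hSm hSb D h.D0 hdens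
    s hs hs1 {k} (fun _ => Mf) hM1
  rw [Finset.sum_singleton, one_mul] at h2
  have hen : enc (r1 ^ (-(1/2) : ℝ)) g (SF th κ P1 F) ≤
      ENNReal.ofReal (∑ T ∈ F, muT th κ g P1 T) := by
    rw [sum_muT hg hb F hF]
    exact enc_le_sum F _ fun m _ y hy => mem_SF.1 hy
  -- the integral
  set f : E3 × ℝ → ℝ≥0∞ := fun x => (∑ T ∈ F, pkc r1 th⁻¹ κ⁻¹ (slT th T) (ptT th κ T)
    (muT th κ g P1 T) x) ^ (3/2 : ℝ) with hf
  have hfm : Measurable f :=
    (Finset.measurable_fun_sum _ fun T _ => measurable_pkc _ _ _ _ _ _).pow_const _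
  have hprod : ∫⁻ x, f x = ∫⁻ t, ∫⁻ X, f (X, t) := by
    rw [Measure.volume_eq_prod, lintegral_prod_symm _ hfm.aemeasurable]
  have hout : ∀ t, t ∉ Set.Icc (-r1) r1 → ∫⁻ X, f (X, t) = 0 := by
    intro t ht
    have ht' : r1 < |t| := by
      by_contra hn
      push Not at hn
      exact ht (abs_le.1 hn)
    have : ∀ X, f (X, t) = 0 := by
      intro X
      rw [hf]
      simp only
      rw [Finset.sum_eq_zero fun T _ => pkc_out ht']
      exact ENNReal.zero_rpow_of_pos (by norm_num)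
    simp [this]
  have hind : (fun t => ∫⁻ X, f (X, t)) = (Set.Icc (-r1) r1).indicator
      (fun t => ∫⁻ X, f (X, t)) := by
    funext t
    by_cases ht : t ∈ Set.Icc (-r1) r1
    · rw [Set.indicator_of_mem ht]
    · rw [Set.indicator_of_notMem ht]
      exact hout t ht
  have hpt : ∀ (t : ℝ) (X : E3), f (X, t) ≤ ENNReal.ofReal ((6 ^ n * (th ^ 2 * κ)⁻¹) ^ (3/2 : ℝ)) *
      (Cad538.Acc n (r1 ^ (-(1/2) : ℝ)) κ (r1 ^ (-(1/2) : ℝ)) g (SF th κ P1 F) Mf X t) ^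
        (3/2 : ℝ) := by
    intro t X
    have h3 := sum_pkc_le (r := r1) hth hκ hg hb h.meas h.disj hFI n (X, t)
    rw [hf]
    simp only
    refine (ENNReal.rpow_le_rpow h3 (by norm_num : (0:ℝ) ≤ 3/2)).trans (le_of_eq ?_)
    rw [ENNReal.mul_rpow_of_nonneg _ _ (by norm_num : (0:ℝ) ≤ 3/2),
      ENNReal.ofReal_rpow_of_nonneg (by positivity) (by norm_num)]
  show ∫⁻ x, f x ≤ _
  rw [hprod, hind, lintegral_indicator measurableSet_Icc]
  calc ∫⁻ t in Set.Icc (-r1) r1, ∫⁻ X, f (X, t)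
      ≤ ∫⁻ t in Set.Icc (-r1) r1, ENNReal.ofReal ((6 ^ n * (th ^ 2 * κ)⁻¹) ^ (3/2 : ℝ)) *
        ∫⁻ X, (Cad538.Acc n (r1 ^ (-(1/2) : ℝ)) κ (r1 ^ (-(1/2) : ℝ)) g (SF th κ P1 F) Mf X t) ^
          (3/2 : ℝ) := by
        refine lintegral_mono fun t => ?_
        rw [← lintegral_const_mul' _ _ ENNReal.ofReal_ne_top]
        exact lintegral_mono fun X => hpt t X
    _ = ENNReal.ofReal ((6 ^ n * (th ^ 2 * κ)⁻¹) ^ (3/2 : ℝ)) *
        ∫⁻ t in Set.Icc (-r1) r1, ∫⁻ X, (Cad538.Acc n (r1 ^ (-(1/2) : ℝ)) κ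
          (r1 ^ (-(1/2) : ℝ)) g (SF th κ P1 F) Mf X t) ^ (3/2 : ℝ) := by
        rw [lintegral_const_mul' _ _ ENNReal.ofReal_ne_top]
    _ ≤ ENNReal.ofReal ((6 ^ n * (th ^ 2 * κ)⁻¹) ^ (3/2 : ℝ)) *
        (ENNReal.ofReal (C * r1 ^ ε * s ^ (q / 2) * Real.sqrt D * r1) *
          ENNReal.ofReal (∑ T ∈ F, muT th κ g P1 T)) :=
        mul_le_mul' le_rfl (h2.trans (mul_le_mul' le_rfl hen))
    _ = _ := by
        have e1 : ((6:ℝ) ^ n * (th ^ 2 * κ)⁻¹) ^ (3/2 : ℝ) =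
            ((6:ℝ) ^ n) ^ (3/2 : ℝ) * (th ^ 2 * κ) ^ (-(3/2) : ℝ) := by
          rw [Real.mul_rpow (by positivity) (by positivity), Real.inv_rpow hc0.le,
            ← Real.rpow_neg hc0.le]
        have hμ : 0 ≤ ∑ T ∈ F, muT th κ g P1 T := Finset.sum_nonneg fun T _ => muT_nonneg _ _ _ _ _
        have hsq := Real.sqrt_nonneg D
        rw [e1, ← ENNReal.ofReal_mul (by positivity), ← ENNReal.ofReal_mul (by positivity)]
        congr 1
        ring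

end Crest.Agent.R116.Mwc748
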