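import Mathlib

/-!
# R116, K-TEXT II-c: the `N`-`z` chain rule at a record (helper90)

`g` = blow-up of the profile at a record point (antitone, supermodular on the legal cone `L`).
The record line has slopes `ρ`; the natural half plane above it has the transversal slopes `βp`,
the one below has `βm` (one plane: `ρ = a - θ b`, `βp = βm = b`; double tie: two planes).
Window facts: above, the `N`-step has rate `≥ rp`, below `≤ rm`; below, the `z`-step (slots `uz`)
has rate `≤ rz`; every line has `z`-rate `≥ own`.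

**`nz` : `ρ N * (rp - rm) ≤ rz - own`.**

With `rp = 1 - n₊`, `rm = 1 - n₋`, `rz = (1 - s) + e₋`, `own = 1 - s` and (`e`-tie)
`ρ N = 1 + k - θ`, (`κ`-tie) `ρ N = 1 + k' - 2 θ`: `(1 + k - θ) (n₋ - n₊) ≤ e₋`.

Proof: telescope the `z`-step of size `1` over the natural boxes `P m` above the record point
(`N`-level `m h`): the `N`-step at `z = 1` is dominated by the one of the natural box below the
record with the same `N`-level.  The `N`-step is always done after the slots `q` have been refined by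
the same `h` (walls `N ≤ z + C_b`, `N ≤ E + X`, ...).
-/

set_option autoImplicit false
set_option linter.unusedSectionVars false

open Filter Topology

namespace Crest.Agent.R116.NZ90

variable {ι : Type*} [DecidableEq ι]

/-- supermodularity on a set (same as `Dg262.SupOn`) -/
def Sup (g : (ι → ℝ) → ℝ) (L : Set (ι → ℝ)) : Prop :=
  ∀ p ∈ L, ∀ q ∈ L, p ⊓ q ∈ L → p ⊔ q ∈ L → g p + g q ≤ g (p ⊔ q) + g (p ⊓ q)

/-- the boxes: natural box `v ρ + s β`, slots `q` refined by `x`, slot `N` by `y`, slots `uz` by `z` -/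
def Bx (ρ β q uz : ι → ℝ) (N : ι) (v s x y z : ℝ) : ι → ℝ := fun i =>
  ρ i * v + β i * s + x * q i + (if i = N then y else 0) + z * uz i

theorem Bx_eq (a b q uz : ι → ℝ) (N : ι) (θ v t x y z : ℝ) :
    Bx (fun i => a i - θ * b i) b q uz N v (t + θ * v) x y z =
      (fun i => a i * v + b i * t) + x • q + Pi.single N y + z • uz := by
  funext i
  simp only [Bx, Pi.add_apply, Pi.smul_apply, smul_eq_mul, Pi.single_apply]
  ring

/-- increments decrease when the other slots are refined -/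
theorem incr {g : (ι → ℝ) → ℝ} {L : Set (ι → ℝ)} (hs : Sup g L) {p q p' q' : ι → ℝ}
    (hp : p ∈ L) (hq : q ∈ L) (hp' : p' ∈ L) (hq' : q' ∈ L)
    (h : ∀ i, (p' i = p i ∧ q' i = q i ∧ p i ≤ q i) ∨ (p i = q i ∧ p' i = q' i ∧ p i ≤ p' i)) :
    g q - g q' ≤ g p - g p' := by
  have e1 : p' ⊓ q = p := by
    funext i
    simp only [Pi.inf_apply]
    rcases h i with ⟨h1, _, h3⟩ | ⟨h1, _, h3⟩
    · rw [h1]; exact min_eq_left h3
    · rw [← h1]; exact min_eq_right h3
  have e2 : p' ⊔ q = q' := by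
    funext i
    simp only [Pi.sup_apply]
    rcases h i with ⟨h1, h2, h3⟩ | ⟨h1, h2, h3⟩
    · rw [h1, h2]; exact max_eq_right h3
    · rw [← h1, ← h2]; exact max_eq_left h3
  have := hs p' hp' q hq (by rw [e1]; exact hp) (by rw [e2]; exact hq')
  rw [e1, e2] at this
  linarith

/-- the data at a record point -/
structure Rec (g : (ι → ℝ) → ℝ) (L : Set (ι → ℝ)) (ρ βp βm q uz : ι → ℝ) (N : ι)
    (K c0 own rp rm rz : ℝ) : Prop where
  sup : Sup g L
  hc0 : 0 < c0
  bp : ∀ i, 0 ≤ βp i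
  bpN : 0 < βp N
  bmN : 0 < βm N
  rN : 0 < ρ N
  uz0 : ∀ i, 0 ≤ uz i
  uzZ : ∀ i, uz i ≠ 0 → uz i = ρ i ∧ βp i = 0 ∧ βm i = 0
  q0 : ∀ i, 0 ≤ q i
  qN : q N = 0
  qz : ∀ i, uz i ≠ 0 → q i = 0
  /-- at equal `N`-level the slot `i` is finer above the record -/
  cp : ∀ i, uz i = 0 → ρ i * βp N ≤ βp i * ρ N
  cm : ∀ i, uz i = 0 → ρ i * βm N ≤ βm i * ρ N
  legp : ∀ s x y z, 0 ≤ s → 0 ≤ y → y ≤ x → 0 ≤ z → Bx ρ βp q uz N 0 s x y z ∈ L
  legm : ∀ v s x y z, 0 ≤ v → s ≤ 0 → 0 ≤ y → y ≤ x → 0 ≤ z → Bx ρ βm q uz N v s x y z ∈ L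
  lip : ∀ z, 0 ≤ z → g (Bx ρ βp q uz N 0 0 0 0 0) - g (Bx ρ βp q uz N 0 0 0 0 z) ≤ K * z
  Np : ∀ s h, 0 < h → h ≤ c0 * s →
    rp * h ≤ g (Bx ρ βp q uz N 0 s h 0 0) - g (Bx ρ βp q uz N 0 s h h 0)
  Nm : ∀ v s h, 0 ≤ v → 0 < h → h ≤ c0 * (-s) →
    g (Bx ρ βm q uz N v s h 0 0) - g (Bx ρ βm q uz N v s h h 0) ≤ rm * h
  Zm : ∀ v s h, 0 ≤ v → 0 < h → h ≤ c0 * (-s) →
    g (Bx ρ βm q uz N v s 0 0 0) - g (Bx ρ βm q uz N v s 0 0 h) ≤ rz * h
  ow : ∀ s x z, 0 ≤ s → 0 ≤ x → 0 < z →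
    own * z ≤ g (Bx ρ βp q uz N 0 s x 0 0) - g (Bx ρ βp q uz N 0 s x 0 z)

section

variable {g : (ι → ℝ) → ℝ} {L : Set (ι → ℝ)} {ρ βp βm q uz : ι → ℝ} {N : ι}
  {K c0 own rp rm rz : ℝ}

/-- limit lemma -/
theorem le_of_div {x y C : ℝ} {n0 : ℕ} (h : ∀ n : ℕ, n0 ≤ n → 0 < n → x ≤ y + C / n) : x ≤ y := by
  have h1 : Tendsto (fun n : ℕ => y + C / n) atTop (𝓝 (y + 0)) :=
    tendsto_const_nhds.add (tendsto_const_div_atTop_nhds_zero_nat C)
  rw [add_zero] at h1
  refine ge_of_tendsto h1 ?_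
  filter_upwards [eventually_ge_atTop (n0 + 1)] with n hn
  exact h n (by omega) (by omega)

theorem Rec.uzN (H : Rec g L ρ βp βm q uz N K c0 own rp rm rz) : uz N = 0 := by
  by_contra h
  have := (H.uzZ N h).2.1
  linarith [H.bpN]

/-- the `z`-step of size `1` at the record point is at most `rz` -/
theorem Rec.zstep (H : Rec g L ρ βp βm q uz N K c0 own rp rm rz) :
    g (Bx ρ βp q uz N 0 0 0 0 0) - g (Bx ρ βp q uz N 0 0 0 0 1) ≤ rz := by
  obtain ⟨A, hA⟩ := exists_nat_ge (βm N / (c0 * ρ N))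
  have hc : 0 < c0 * ρ N := mul_pos H.hc0 H.rN
  have hA' : βm N ≤ A * (c0 * ρ N) := (div_le_iff₀ hc).1 hA
  refine le_of_div (n0 := A) (C := A * (K - rz)) ?_
  intro J hJ hJ0
  have hJr : (0 : ℝ) < J := by exact_mod_cast hJ0
  obtain ⟨δ, hδ⟩ : ∃ δ : ℝ, δ = 1 / J := ⟨_, rfl⟩
  have hδ0 : 0 < δ := by rw [hδ]; positivity
  -- one step
  have step : ∀ j : ℕ, A ≤ j →
      g (Bx ρ βp q uz N 0 0 0 0 (j * δ)) - g (Bx ρ βp q uz N 0 0 0 0 ((j + 1) * δ)) ≤ rz * δ := by
    intro j hj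
    have hjr : (A : ℝ) ≤ j := by exact_mod_cast hj
    have hj0 : (0 : ℝ) ≤ j := Nat.cast_nonneg j
    have hjδ : 0 ≤ (j : ℝ) * δ := by positivity
    have hs0 : -(ρ N * (j * δ) / βm N) ≤ 0 := by
      have := H.rN; have := H.bmN
      have : 0 ≤ ρ N * (j * δ) / βm N := by positivity
      linarith
    refine le_trans ?_ (H.Zm (j * δ) (-(ρ N * (j * δ) / βm N)) δ hjδ hδ0 ?_)
    · refine incr H.sup (H.legm _ _ 0 0 0 hjδ hs0 le_rfl le_rfl le_rfl)
        (H.legp 0 0 0 _ le_rfl le_rfl le_rfl hjδ)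
        (H.legm _ _ 0 0 _ hjδ hs0 le_rfl le_rfl hδ0.le)
        (H.legp 0 0 0 _ le_rfl le_rfl le_rfl (by positivity)) ?_
      intro i
      by_cases hi : uz i = 0
      · left
        simp only [Bx, hi]
        refine ⟨by ring, by ring, ?_⟩
        have h1 := H.cm i hi
        have hb := H.bmN
        have h2 : ρ i * (j * δ) ≤ βm i * (ρ N * (j * δ) / βm N) := by
          rw [mul_div_assoc', le_div_iff₀ hb]
          nlinarith [mul_le_mul_of_nonneg_right h1 hjδ]
        split_ifs <;> linarith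
      · right
        obtain ⟨h1, h2, h3⟩ := H.uzZ i hi
        have hiN : i ≠ N := fun e => hi (e ▸ H.uzN)
        simp only [Bx, h2, h3, H.qz i hi, if_neg hiN, ← h1]
        have := H.uz0 i
        refine ⟨by ring, by ring, ?_⟩
        nlinarith [mul_nonneg hδ0.le this]
    · have hb := H.bmN
      rw [neg_neg, mul_div_assoc', le_div_iff₀ hb]
      have h1 : βm N * δ ≤ (A * (c0 * ρ N)) * δ := mul_le_mul_of_nonneg_right hA' hδ0.le
      have h2 : (A : ℝ) * (c0 * ρ N) * δ ≤ j * (c0 * ρ N) * δ := by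
        have := mul_le_mul_of_nonneg_right hjr hc.le
        exact mul_le_mul_of_nonneg_right this hδ0.le
      linarith
  -- telescoping
  have tel : ∀ n : ℕ, g (Bx ρ βp q uz N 0 0 0 0 (A * δ)) -
      g (Bx ρ βp q uz N 0 0 0 0 ((A + n : ℕ) * δ)) ≤ n * (rz * δ) := by
    intro n
    induction n with
    | zero => simp
    | succ n ih =>
      have := step (A + n) (by omega)
      have e : ((A + (n + 1) : ℕ) : ℝ) = ((A + n : ℕ) : ℝ) + 1 := by push_cast; ring
      rw [e]
      push_cast at this ih ⊢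
      linarith
  have h1 := tel (J - A)
  have e1 : (A + (J - A) : ℕ) = J := by omega
  rw [e1] at h1
  have e2 : (J : ℝ) * δ = 1 := by rw [hδ]; field_simp
  rw [e2] at h1
  have e3 : ((J - A : ℕ) : ℝ) = J - A := by push_cast [Nat.cast_sub hJ]; ring
  rw [e3] at h1
  have h2 := H.lip (A * δ) (by positivity)
  have e4 : ((J : ℝ) - A) * (rz * δ) = rz - A * rz * δ := by
    have : (J : ℝ) * (rz * δ) = rz := by rw [mul_left_comm, e2, mul_one]
    linarith
  have e5 : (A : ℝ) * (K - rz) / J = A * (K - rz) * δ := by rw [hδ]; ring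
  rw [e5]
  nlinarith

/-- **the `N`-`z` chain rule** -/
theorem nz (H : Rec g L ρ βp βm q uz N K c0 own rp rm rz) :
    ρ N * (rp - rm) ≤ rz - own := by
  obtain ⟨A1, hA1⟩ := exists_nat_ge (βp N / c0)
  obtain ⟨A2, hA2⟩ := exists_nat_ge (βm N / c0)
  have hc := H.hc0
  have hbp := H.bpN
  have hbm := H.bmN
  have hρ := H.rN
  rw [div_le_iff₀ hc] at hA1 hA2
  set A : ℕ := max A1 A2 with hAdef
  have hAp : βp N ≤ A * c0 := hA1.trans
    (mul_le_mul_of_nonneg_right (by exact_mod_cast le_max_left _ _) hc.le)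
  have hAm : βm N ≤ A * c0 := hA2.trans
    (mul_le_mul_of_nonneg_right (by exact_mod_cast le_max_right _ _) hc.le)
  refine le_of_div (n0 := 2 * A) (C := 2 * A * (ρ N * (rp - rm))) ?_
  intro M hM hM0
  have hMr : (0 : ℝ) < M := by exact_mod_cast hM0
  obtain ⟨h, hh⟩ : ∃ h : ℝ, h = ρ N / M := ⟨_, rfl⟩
  have hh0 : 0 < h := by rw [hh]; positivity
  have hMh : (M : ℝ) * h = ρ N := by rw [hh]; field_simp
  -- the chain step
  have step : ∀ m : ℕ, A ≤ m → m + A ≤ M →
      (rp - rm) * h ≤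
      (g (Bx ρ βp q uz N 0 (m * h / βp N) h 0 0) - g (Bx ρ βp q uz N 0 (m * h / βp N) h 0 1)) -
      (g (Bx ρ βp q uz N 0 ((m + 1) * h / βp N) h 0 0) -
        g (Bx ρ βp q uz N 0 ((m + 1) * h / βp N) h 0 1)) := by
    intro m hm hmM
    have hmr : (A : ℝ) ≤ m := by exact_mod_cast hm
    have hmMr : (m : ℝ) + A ≤ M := by exact_mod_cast hmM
    have hm0 : (0 : ℝ) ≤ m := Nat.cast_nonneg m
    have hA0 : (0 : ℝ) ≤ A := Nat.cast_nonneg A
    have hmh : 0 ≤ (m : ℝ) * h := by positivity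
    have hs : 0 ≤ (m : ℝ) * h / βp N := by positivity
    have hs1 : 0 ≤ ((m : ℝ) + 1) * h / βp N := by positivity
    have hmle : (m : ℝ) * h ≤ ρ N := by
      rw [← hMh]; exact mul_le_mul_of_nonneg_right (by linarith) hh0.le
    have hs' : (m * h - ρ N) / βm N ≤ 0 := div_nonpos_of_nonpos_of_nonneg (by linarith) hbm.le
    -- N-step above
    have k1 : rp * h ≤ g (Bx ρ βp q uz N 0 (m * h / βp N) h 0 0) -
        g (Bx ρ βp q uz N 0 (m * h / βp N) h h 0) := by
      refine H.Np _ _ hh0 ?_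
      rw [mul_div_assoc', le_div_iff₀ hbp]
      have h1 := mul_le_mul_of_nonneg_right hAp hh0.le
      have h2 := mul_le_mul_of_nonneg_right (mul_le_mul_of_nonneg_right hmr hc.le) hh0.le
      linarith
    -- N-step below
    have k2 : g (Bx ρ βm q uz N 1 ((m * h - ρ N) / βm N) h 0 0) -
        g (Bx ρ βm q uz N 1 ((m * h - ρ N) / βm N) h h 0) ≤ rm * h := by
      refine H.Nm _ _ _ zero_le_one hh0 ?_
      rw [← neg_div, mul_div_assoc', le_div_iff₀ hbm]
      have h1 := mul_le_mul_of_nonneg_right hAm hh0.le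
      have h2 : (A : ℝ) * h ≤ ρ N - m * h := by
        rw [← hMh, ← sub_mul]; exact mul_le_mul_of_nonneg_right (by linarith) hh0.le
      have h3 := mul_le_mul_of_nonneg_right h2 hc.le
      linarith
    -- the N-step at `z = 1`
    have k3 : g (Bx ρ βp q uz N 0 (m * h / βp N) h 0 1) - g (Bx ρ βp q uz N 0 (m * h / βp N) h h 1)
        ≤ g (Bx ρ βm q uz N 1 ((m * h - ρ N) / βm N) h 0 0) -
        g (Bx ρ βm q uz N 1 ((m * h - ρ N) / βm N) h h 0) := by
      refine incr H.sup (H.legm _ _ _ _ _ zero_le_one hs' le_rfl hh0.le le_rfl)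
        (H.legp _ _ _ _ hs le_rfl hh0.le zero_le_one)
        (H.legm _ _ _ _ _ zero_le_one hs' hh0.le le_rfl le_rfl)
        (H.legp _ _ _ _ hs hh0.le le_rfl zero_le_one) ?_
      intro i
      by_cases hiN : i = N
      · right
        subst hiN
        have e1 : βp i * (m * h / βp i) = m * h := by field_simp
        have e2 : βm i * ((m * h - ρ i) / βm i) = m * h - ρ i := by field_simp
        simp only [Bx, H.uzN, H.qN, if_true, e1, e2]
        refine ⟨by ring, by ring, by linarith⟩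
      · left
        simp only [Bx, if_neg hiN]
        refine ⟨trivial, trivial, ?_⟩
        by_cases hi : uz i = 0
        · rw [hi]
          have h1 := H.cp i hi
          have h2 := H.cm i hi
          have h3 : ρ i * (m * h) / ρ N ≤ βp i * (m * h / βp N) := by
            rw [mul_div_assoc', div_le_div_iff₀ hρ hbp]
            nlinarith [mul_le_mul_of_nonneg_right h1 hmh]
          have h4 : βm i * ((m * h - ρ N) / βm N) ≤ ρ i * (m * h - ρ N) / ρ N := by
            rw [mul_div_assoc', div_le_div_iff₀ hbm hρ]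
            nlinarith [mul_le_mul_of_nonneg_right h2 (by linarith : 0 ≤ ρ N - m * h)]
          have h5 : ρ i * (m * h - ρ N) / ρ N = ρ i * (m * h) / ρ N - ρ i := by
            field_simp
          linarith
        · obtain ⟨h1, h2, h3⟩ := H.uzZ i hi
          rw [h2, h3, H.qz i hi, h1]
          linarith
    -- the z-step after the N-step
    have k4 : g (Bx ρ βp q uz N 0 ((m + 1) * h / βp N) h 0 0) -
        g (Bx ρ βp q uz N 0 ((m + 1) * h / βp N) h 0 1) ≤
        g (Bx ρ βp q uz N 0 (m * h / βp N) h h 0) - g (Bx ρ βp q uz N 0 (m * h / βp N) h h 1) := by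
      refine incr H.sup (H.legp _ _ _ _ hs hh0.le le_rfl le_rfl)
        (H.legp _ _ _ _ hs1 le_rfl hh0.le le_rfl)
        (H.legp _ _ _ _ hs hh0.le le_rfl zero_le_one)
        (H.legp _ _ _ _ hs1 le_rfl hh0.le zero_le_one) ?_
      intro i
      have e0 : ((m : ℝ) + 1) * h / βp N = m * h / βp N + h / βp N := by ring
      by_cases hi : uz i = 0
      · left
        simp only [Bx, hi]
        refine ⟨by ring, by ring, ?_⟩
        by_cases hiN : i = N
        · subst hiN
          rw [e0]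
          have e1 : βp i * (h / βp i) = h := by field_simp
          simp only [if_pos]
          rw [mul_add, e1]
          linarith
        · simp only [if_neg hiN]
          rw [e0, mul_add]
          have := mul_nonneg (H.bp i) (div_nonneg hh0.le hbp.le)
          linarith
      · right
        obtain ⟨h1, h2, h3⟩ := H.uzZ i hi
        have hiN : i ≠ N := fun e => hi (e ▸ H.uzN)
        simp only [Bx, h2, H.qz i hi, if_neg hiN]
        refine ⟨by ring, by ring, ?_⟩
        linarith [H.uz0 i]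
    linarith
  -- telescoping
  have tel : ∀ n : ℕ, A + n + A ≤ M →
      n * ((rp - rm) * h) ≤
      (g (Bx ρ βp q uz N 0 (A * h / βp N) h 0 0) - g (Bx ρ βp q uz N 0 (A * h / βp N) h 0 1)) -
      (g (Bx ρ βp q uz N 0 ((A + n : ℕ) * h / βp N) h 0 0) -
        g (Bx ρ βp q uz N 0 ((A + n : ℕ) * h / βp N) h 0 1)) := by
    intro n
    induction n with
    | zero => intro _; simp
    | succ n ih =>
      intro hn
      have h1 := ih (by omega)
      have h2 := step (A + n) (by omega) (by omega)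
      have e : ((A + (n + 1) : ℕ) : ℝ) = ((A + n : ℕ) : ℝ) + 1 := by push_cast; ring
      rw [e]
      push_cast at h1 h2 ⊢
      linarith
  have h1 := tel (M - 2 * A) (by omega)
  have e3 : ((M - 2 * A : ℕ) : ℝ) = M - 2 * A := by
    rw [Nat.cast_sub hM]; push_cast; ring
  rw [e3] at h1
  have e4 : ((M : ℝ) - 2 * A) * ((rp - rm) * h) = ρ N * (rp - rm) - 2 * A * (rp - rm) * h := by
    have : (M : ℝ) * ((rp - rm) * h) = ρ N * (rp - rm) := by rw [← hMh]; ring
    linarith
  rw [e4] at h1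
  have hAn : (0 : ℝ) ≤ A := Nat.cast_nonneg A
  -- the last box
  have h2 := H.ow (((A + (M - 2 * A) : ℕ) : ℝ) * h / βp N) h 1 (by positivity) hh0.le one_pos
  rw [mul_one] at h2
  -- the first box
  have h3 : g (Bx ρ βp q uz N 0 (A * h / βp N) h 0 0) - g (Bx ρ βp q uz N 0 (A * h / βp N) h 0 1) ≤
      g (Bx ρ βp q uz N 0 0 0 0 0) - g (Bx ρ βp q uz N 0 0 0 0 1) := by
    have hs : 0 ≤ (A : ℝ) * h / βp N := by positivity
    refine incr H.sup (H.legp _ _ _ _ le_rfl le_rfl le_rfl le_rfl)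
      (H.legp _ _ _ _ hs le_rfl hh0.le le_rfl)
      (H.legp _ _ _ _ le_rfl le_rfl le_rfl zero_le_one)
      (H.legp _ _ _ _ hs le_rfl hh0.le zero_le_one) ?_
    intro i
    by_cases hi : uz i = 0
    · left
      simp only [Bx, hi]
      refine ⟨by ring, by ring, ?_⟩
      have k1 := mul_nonneg (H.bp i) hs
      have k2 := mul_nonneg hh0.le (H.q0 i)
      split_ifs <;> linarith
    · right
      obtain ⟨h1, h2, h3⟩ := H.uzZ i hi
      have hiN : i ≠ N := fun e => hi (e ▸ H.uzN)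
      simp only [Bx, h2, H.qz i hi, if_neg hiN]
      refine ⟨by ring, by ring, ?_⟩
      linarith [H.uz0 i]
  have h4 := H.zstep
  have e5 : 2 * (A : ℝ) * (ρ N * (rp - rm)) / M = 2 * A * (rp - rm) * h := by rw [hh]; ring
  rw [e5]
  linarith

end

end Crest.Agent.R116.NZ90
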