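import Crest.Agent.R116.RbK1_219
import Crest.Agent.R136.Rc5_683

/-!
# R116 (K side), rates on the half planes, abstract version (helper219)

`RS ι τ` : ray slots `τ` of a chart with slots `ι` (multiplicities `mu > 0`).
`RS.srf y0 A B sg` : the surface through the record line `y0 + α • vec A` with the offset `vec B`;
`sg = 1` if `B ≥ 0`, `sg = -1` if `B ≤ 0`.
* `srf_ok`   : `Rc683.Srf.Ok`
* `RateAt`, `rateAt_of` : rate of a ray slot which is alone in its group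
* `RateAt.cl`, `RateAt.loc` : comparison between two surfaces, local constancy
* `nat_eq`   : value at the natural points
-/

set_option autoImplicit false
set_option linter.unusedSectionVars false
set_option linter.unusedVariables false

open Set Filter Topology Metric MeasureTheory

namespace Crest.Agent.R116.RbK219

open Crest.Agent.R136
open Dg262 (X X_cont)
open Dg219 (Tn lf det2 zz lf_zz Cone Sep Geo gset mem_gset Walls gC nC dhC gC_zero gC_eq nC_zero
  nC_of dirC exists_grpC)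
open Rc146 (OutH LH DH SH SDir gapW)
open Rc683 (Srf)

/-- ray slots: `cls` = the ray slot of a chart slot, `mu` = its multiplicity -/
structure RS (ι τ : Type*) where
  cls : ι → τ
  mu : ι → ℝ
  pos : ∀ i, 0 < mu i
  sur : ∀ t, ∃ i, cls i = t

variable {ι W τ : Type*} [Fintype ι] [DecidableEq ι] [Fintype W] [Fintype τ] [DecidableEq τ]

/-- chart vector of a level vector -/
def RS.vec (R : RS ι τ) (c : τ → ℝ) (i : ι) : ℝ := R.mu i * c (R.cls i)

/-- unit vector of a ray slot -/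
def RS.e (R : RS ι τ) (t : τ) (i : ι) : ℝ := if R.cls i = t then R.mu i else 0

/-- slots parallel to `t` on the surface -/
def Aln (A B : τ → ℝ) (t : τ) : Prop := ∀ t', t' ≠ t → A t * B t' ≠ A t' * B t

/-- the surface through the record line -/
noncomputable def RS.srf (R : RS ι τ) (y0 : ι → ℝ) (A B : τ → ℝ) (sg : ℝ) : Srf ι where
  x0 := y0
  a := R.vec (sg • B)
  b := R.vec A
  z00 := 0
  r := (0, 1)
  l := (-sg, 0)
  g := gC (R.vec (sg • B)) (R.vec A)
  n := nC (R.vec (sg • B)) (R.vec A)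
  dh := dhC (R.vec (sg • B)) (R.vec A)

/-- data of a surface -/
structure SOk (A B : τ → ℝ) (sg : ℝ) : Prop where
  sg1 : sg = 1 ∨ sg = -1
  nn : ∀ t, 0 ≤ sg * B t
  zero : ∀ t, B t = 0 → 0 < A t

theorem gC_par {a b : ι → ℝ} (h : ∀ i, a i = 0 → b i ≠ 0) (i j : ι) :
    gC a b i = gC a b j ↔ a i * b j = b i * a j := by
  by_cases hi : a i = 0
  · rw [gC_zero.2 hi]
    by_cases hj : a j = 0
    · rw [gC_zero.2 hj, hi, hj]; simp
    · have h1 : gC a b j ≠ 0 := fun h0 => hj (gC_zero.1 h0)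
      have h2 : b i * a j ≠ 0 := mul_ne_zero (h i hi) hj
      rw [hi, zero_mul]
      exact ⟨fun h' => absurd h'.symm h1, fun h' => absurd h'.symm h2⟩
  · by_cases hj : a j = 0
    · rw [gC_zero.2 hj]
      have h1 : gC a b i ≠ 0 := fun h0 => hi (gC_zero.1 h0)
      have h2 : a i * b j ≠ 0 := mul_ne_zero hi (h j hj)
      rw [hj, mul_zero]
      exact ⟨fun h' => absurd h' h1, fun h' => absurd h' h2⟩
    · rw [gC_eq hi hj, div_eq_div_iff hi hj]
      exact ⟨fun h' => by linarith, fun h' => by linarith⟩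

section

variable (R : RS ι τ) {A B : τ → ℝ} {sg : ℝ} {y0 : ι → ℝ}

theorem RS.vec_add (c d : τ → ℝ) : R.vec (c + d) = R.vec c + R.vec d := by
  funext i; simp only [RS.vec, Pi.add_apply]; ring

theorem RS.vec_smul (x : ℝ) (c : τ → ℝ) : R.vec (x • c) = x • R.vec c := by
  funext i; simp only [RS.vec, Pi.smul_apply, smul_eq_mul]; ring

theorem RS.vec_sub (c d : τ → ℝ) : R.vec (c - d) = R.vec c - R.vec d := by
  funext i; simp only [RS.vec, Pi.sub_apply]; ring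

theorem RS.srf_Tn (z : ℝ × ℝ) : Tn (R.srf y0 A B sg).a (R.srf y0 A B sg).b z =
    R.vec ((z.1 * sg) • B + z.2 • A) := by
  funext i
  simp only [Tn, RS.srf, RS.vec, Pi.add_apply, Pi.smul_apply, smul_eq_mul]; ring

theorem RS.srf_lf (z : ℝ × ℝ) : lf (R.srf y0 A B sg).l z = -(sg * z.1) := by
  simp only [lf, RS.srf]; ring

variable {R}

theorem SOk.sq (h : SOk A B sg) : sg * sg = 1 := by
  rcases h.sg1 with h | h <;> rw [h] <;> ring

theorem SOk.ne (h : SOk A B sg) : sg ≠ 0 := by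
  rcases h.sg1 with h | h <;> rw [h] <;> norm_num

theorem SOk.a_nonneg (h : SOk A B sg) (i : ι) : 0 ≤ R.vec (sg • B) i := by
  simp only [RS.vec, Pi.smul_apply, smul_eq_mul]
  exact mul_nonneg (R.pos i).le (h.nn _)

theorem SOk.a_zero (h : SOk A B sg) {i : ι} : R.vec (sg • B) i = 0 ↔ B (R.cls i) = 0 := by
  simp only [RS.vec, Pi.smul_apply, smul_eq_mul]
  have h1 := (R.pos i).ne'
  have h2 := h.ne
  constructor
  · intro h0
    exact (mul_eq_zero.1 ((mul_eq_zero.1 h0).resolve_left h1)).resolve_left h2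
  · intro h0; rw [h0]; ring

theorem SOk.ab (h : SOk A B sg) (i : ι) (hi : R.vec (sg • B) i = 0) : R.vec A i ≠ 0 :=
  (mul_pos (R.pos i) (h.zero _ (h.a_zero.1 hi))).ne'

/-- natural points of the half plane -/
theorem SOk.Tn_nat (h : SOk A B sg) (α l : ℝ) :
    Tn (R.srf y0 A B sg).a (R.srf y0 A B sg).b (l * sg, α) = R.vec (l • B + α • A) := by
  rw [RS.srf_Tn]
  congr 2
  rw [mul_assoc, h.sq, mul_one]

theorem SOk.lf_nat (h : SOk A B sg) (α l : ℝ) :
    lf (R.srf y0 A B sg).l (l * sg, α) = -l := by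
  rw [RS.srf_lf]
  have := h.sq
  linear_combination (-l) * this

variable {Q : Walls ι W}

/-- **the surface is admissible** -/
theorem SOk.srf_ok (h : SOk A B sg) (hF : Q.Full y0 (R.vec (sg • B)) (R.vec A))
    (hleg : R.vec B ∈ Q.L y0 (R.vec A) 0) : (R.srf y0 A B sg).Ok Q y0 (R.vec A) where
  base := by funext i; simp [X, RS.srf]
  dir := by funext i; simp [Tn, RS.srf]
  l0 := by
    intro h0
    have := congrArg Prod.fst h0
    simp only [RS.srf, Prod.fst_zero] at this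
    exact h.ne (by linarith)
  r0 := by
    intro h0
    have := congrArg Prod.snd h0
    simp [RS.srf] at this
  lr := by simp [lf, RS.srf]
  sd := by
    have := dirC (a := R.vec (sg • B)) (b := R.vec A)
    exact ⟨this.fst, this.snd, this.ne, this.det⟩
  geo := by
    obtain ⟨wv, hG⟩ := exists_grpC (b := R.vec A) (h.a_nonneg (R := R))
    exact Walls.geoG hG hF fun _ _ => Iff.rfl
  strict := by
    intro w hw hnot
    have hz : zz (R.srf y0 A B sg).l (-1) = (1 * sg, 0) := by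
      unfold zz
      simp only [RS.srf]
      have h1 : (-sg) ^ 2 + (0:ℝ) ^ 2 = 1 := by have := h.sq; nlinarith
      rw [h1]
      ext <;> simp
    have hT : Tn (R.srf y0 A B sg).a (R.srf y0 A B sg).b (zz (R.srf y0 A B sg).l (-1)) =
        R.vec B := by
      rw [hz, h.Tn_nat]; simp
    unfold gapW
    rw [hT]
    have h1 := hleg w hw
    rcases h1.lt_or_eq with h2 | h2
    · linarith
    · exfalso
      apply hnot
      refine ⟨hw.1, ?_, hw.2.1⟩
      change R.vec (sg • B) (Q.hd w) = Q.rhs w (R.vec (sg • B))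
      rw [R.vec_smul, Q.rhs_smul, Pi.smul_apply, smul_eq_mul, h2]

/-! ### groups -/

/-- size of the ray slot: `dh i = mu i * dl t` -/
noncomputable def dl (A B : τ → ℝ) (sg : ℝ) (t : τ) : ℝ := if B t = 0 then A t else sg * B t

theorem SOk.dl_pos (h : SOk A B sg) (t : τ) : 0 < dl A B sg t := by
  unfold dl
  split_ifs with h0
  · exact h.zero t h0
  · exact lt_of_le_of_ne (h.nn t) (Ne.symm (mul_ne_zero h.ne h0))

theorem SOk.dh_eq (h : SOk A B sg) (i : ι) :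
    (R.srf y0 A B sg).dh i = R.mu i * dl A B sg (R.cls i) := by
  change dhC (R.vec (sg • B)) (R.vec A) i = _
  unfold dhC dl
  by_cases h0 : B (R.cls i) = 0
  · rw [if_pos (h.a_zero.2 h0), if_pos h0]; rfl
  · rw [if_neg (fun h' => h0 (h.a_zero.1 h')), if_neg h0]
    simp only [RS.vec, Pi.smul_apply, smul_eq_mul]

theorem SOk.grp_iff (h : SOk A B sg) {t : τ} (ht : Aln A B t) {j : ι} (hj : R.cls j = t) (i : ι) :
    (R.srf y0 A B sg).g i = (R.srf y0 A B sg).g j ↔ R.cls i = t := by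
  change gC (R.vec (sg • B)) (R.vec A) i = gC (R.vec (sg • B)) (R.vec A) j ↔ _
  rw [gC_par h.ab]
  have h1 := (R.pos i).ne'
  have h2 := (R.pos j).ne'
  have h3 := h.ne
  constructor
  · intro h0
    by_contra hcon
    apply ht (R.cls i) hcon
    simp only [RS.vec, Pi.smul_apply, smul_eq_mul, hj] at h0
    have h4 : R.mu i * R.mu j * sg * (A t * B (R.cls i) - A (R.cls i) * B t) = 0 := by
      linear_combination h0
    have h5 := (mul_eq_zero.1 h4).resolve_left (mul_ne_zero (mul_ne_zero h1 h2) h3)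
    linarith
  · intro h0
    simp only [RS.vec, Pi.smul_apply, smul_eq_mul, hj, h0]
    ring

theorem SOk.mem_S (h : SOk A B sg) {t : τ} (hA : A t ≠ 0) {j : ι} (hj : R.cls j = t) :
    (R.srf y0 A B sg).g j ∈ (R.srf y0 A B sg).S := by
  rw [Rc146.mem_SH]
  refine ⟨mem_gset j, ?_⟩
  change det2 (nC (R.vec (sg • B)) (R.vec A) (gC (R.vec (sg • B)) (R.vec A) j)) (-sg, 0) ≠ 0
  by_cases h0 : R.vec (sg • B) j = 0
  · rw [gC_zero.2 h0, nC_zero]
    unfold det2
    simp only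
    have := h.ne
    intro h'
    exact this (by linarith)
  · rw [nC_of h0]
    unfold det2
    simp only
    have h1 : R.vec A j ≠ 0 := by
      simp only [RS.vec, hj]; exact mul_ne_zero (R.pos j).ne' hA
    have h2 : R.vec A j / R.vec (sg • B) j ≠ 0 := div_ne_zero h1 h0
    intro h'
    have h3 : R.vec A j / R.vec (sg • B) j * sg = 0 := by linarith
    exact (mul_ne_zero h2 h.ne) h3

/-! ### rates -/

/-- `ρ` = rate of the ray slot `t` on `LW` -/
def RS.RateAt (R : RS ι τ) (lam : (ι → ℝ) → ℝ) (LW : Set (ι → ℝ)) (t : τ) (ρ : ℝ) : Prop :=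
  ∀ (p : ι → ℝ) (u x : ℝ), (∀ i, R.cls i = t → p i = R.mu i * u) → p ∈ LW →
    p + x • R.e t ∈ LW → lam p - lam (p + x • R.e t) = ρ * x

theorem SOk.rateAt_of (h : SOk A B sg) {t : τ} (ht : Aln A B t) (hA : A t ≠ 0)
    {LW L : Set (ι → ℝ)} (hL : LW ⊆ L) {lam : (ι → ℝ) → ℝ} {φ : ℕ → (ι → ℝ) → ℝ} {r : ℕ → ℝ}
    (H : OutH (R.srf y0 A B sg).g (R.srf y0 A B sg).S LW L (R.srf y0 A B sg).a
      (R.srf y0 A B sg).b (R.srf y0 A B sg).l (R.srf y0 A B sg).dh (R.srf y0 A B sg).n lam φ r)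
    {j : ι} (hj : R.cls j = t) :
    R.RateAt lam LW t (r ((R.srf y0 A B sg).g j) / dl A B sg t) := by
  intro p u x hp hpm hpe
  have hd := (h.dl_pos t).ne'
  rw [rate_inc H hL (h.mem_S hA hj) hpm hpe (u := u / dl A B sg t) (t := x / dl A B sg t)
    (fun i hi => by
      have hi' := (h.grp_iff ht hj i).1 hi
      rw [hp i hi', h.dh_eq, hi']; field_simp)
    (fun i hi => by
      have hi' := (h.grp_iff ht hj i).1 hi
      rw [Pi.smul_apply, smul_eq_mul, RS.e, if_pos hi', h.dh_eq, hi']; field_simp)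
    (fun i hi => by
      have hi' : R.cls i ≠ t := fun h' => hi ((h.grp_iff ht hj i).2 h')
      rw [Pi.smul_apply, smul_eq_mul, RS.e, if_neg hi', mul_zero])]
  ring

/-! ### room -/

/-- room vector of a ray slot -/
noncomputable def RS.rmv (R : RS ι τ) (Q : Walls ι W) (t : τ) (i : ι) : ℝ :=
  if R.cls i = t then 0 else Q.rs i

theorem SOk.room (h : SOk A B sg) (hF : Q.Full y0 (R.vec (sg • B)) (R.vec A)) {t : τ}
    (ht : Aln A B t) :
    ∃ K0 : ℝ, 0 ≤ K0 ∧ ∀ K : ℝ, K0 ≤ K → K • R.rmv Q t ∈ (R.srf y0 A B sg).L Q ∧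
      K • R.rmv Q t + R.e t ∈ (R.srf y0 A B sg).L Q := by
  obtain ⟨wv, hG⟩ := exists_grpC (b := R.vec A) (h.a_nonneg (R := R))
  obtain ⟨j, hj⟩ := R.sur t
  have hgeo : Geo (R.srf y0 A B sg).g (Q.D y0 (R.vec (sg • B)) (R.vec A))
      (Q.L y0 (R.vec (sg • B)) (R.vec A)) (Q.rm (R.srf y0 A B sg).g) Q.rs :=
    Walls.geoG hG hF fun _ _ => Iff.rfl
  have hrm : Q.rm (R.srf y0 A B sg).g ((R.srf y0 A B sg).g j) = R.rmv Q t := by
    funext i
    unfold Walls.rm RS.rmv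
    by_cases hi : R.cls i = t
    · rw [if_pos ((h.grp_iff ht hj i).2 hi), if_pos hi]
    · rw [if_neg (fun h' => hi ((h.grp_iff ht hj i).1 h')), if_neg hi]
  obtain ⟨C, hC, H⟩ := Walls.roomG hG hF (grp := (R.srf y0 A B sg).g) (fun _ _ => Iff.rfl)
    ((R.srf y0 A B sg).g j)
  set Am : ℝ := ∑ i, R.mu i with hAm
  have hAm0 : 0 ≤ Am := Finset.sum_nonneg fun i _ => (R.pos i).le
  have hmu : ∀ i, R.mu i ≤ Am := fun i =>
    Finset.single_le_sum (f := R.mu) (fun i _ => (R.pos i).le) (Finset.mem_univ i)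
  refine ⟨C * Am, mul_nonneg hC hAm0, fun K hK => ⟨?_, ?_⟩⟩
  · have h1 := hgeo.room.mem ((R.srf y0 A B sg).g j)
    rw [hrm] at h1
    exact hgeo.cone.smul _ h1 _ (le_trans (mul_nonneg hC hAm0) hK)
  · have h1 := H (R.e t) Am K hAm0 (fun i => by
      unfold RS.e
      split_ifs
      · rw [abs_of_pos (R.pos i)]; exact hmu i
      · rw [abs_zero]; exact hAm0) ?_ hK
    · rw [hrm] at h1
      rw [add_comm]; exact h1
    · -- a natural vector with level one at `t`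
      by_cases hB : B t = 0
      · refine ⟨Tn (R.vec (sg • B)) (R.vec A) (0, 1 / A t), Walls.Tn_mem _, fun i hi => ?_⟩
        have hi' := (h.grp_iff ht hj i).1 hi
        have hA : A t ≠ 0 := (h.zero t hB).ne'
        simp only [Tn, RS.vec, RS.e, hi', if_true]
        field_simp
        ring
      · refine ⟨Tn (R.vec (sg • B)) (R.vec A) (1 / (sg * B t), 0), Walls.Tn_mem _, fun i hi => ?_⟩
        have hi' := (h.grp_iff ht hj i).1 hi
        have hs := h.ne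
        simp only [Tn, RS.vec, RS.e, hi', if_true, Pi.smul_apply, smul_eq_mul]
        field_simp
        ring

/-! ### points of the window cone -/

theorem RS.vec_mem (R : RS ι τ) {A B : τ → ℝ} {sg : ℝ} (h : SOk A B sg) {y0 : ι → ℝ}
    {Q : Walls ι W} (α l : ℝ) : R.vec (l • B + α • A) ∈ (R.srf y0 A B sg).L Q := by
  rw [← h.Tn_nat (R := R) (y0 := y0)]
  exact Walls.Tn_mem _

/-- natural point plus a small legal offset -/
theorem SOk.memLW (h : SOk A B sg) {c0 : ℝ} {α l : ℝ} (hl : 0 ≤ l) {c : ι → ℝ}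
    (hc : c ∈ (R.srf y0 A B sg).L Q) (hcn : ‖c‖ ≤ c0 * l) :
    R.vec (l • B + α • A) + c ∈ (R.srf y0 A B sg).LW Q c0 :=
  ⟨(l * sg, α), c, by rw [h.lf_nat]; linarith, hc, by rw [h.lf_nat, neg_neg]; exact hcn,
    by rw [h.Tn_nat]⟩

theorem mem_e_zero {t : τ} {i : ι} (hi : R.cls i ≠ t) : R.e t i = 0 := by
  unfold RS.e; rw [if_neg hi]

theorem RS.e_nonneg (R : RS ι τ) (t : τ) : 0 ≤ R.e t := by
  intro i
  unfold RS.e
  split_ifs
  · exact (R.pos i).le
  · exact le_rfl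

theorem rmv_zero {t : τ} {i : ι} (hi : R.cls i = t) : R.rmv Q t i = 0 := by
  unfold RS.rmv; rw [if_pos hi]

/-- **(CL)** -/
theorem RS.cl (R : RS ι τ) {lam : (ι → ℝ) → ℝ} {M : Set (ι → ℝ)}
    (hs : ∀ p ∈ M, ∀ q ∈ M, p ⊓ q ∈ M → p ⊔ q ∈ M → lam p + lam q ≤ lam (p ⊔ q) + lam (p ⊓ q))
    {y0 : ι → ℝ} {A₁ B₁ A₂ B₂ : τ → ℝ} {sg₁ sg₂ : ℝ} (h₁ : SOk A₁ B₁ sg₁) (h₂ : SOk A₂ B₂ sg₂)
    {Q : Walls ι W} (hF₁ : Q.Full y0 (R.vec (sg₁ • B₁)) (R.vec A₁))
    (hF₂ : Q.Full y0 (R.vec (sg₂ • B₂)) (R.vec A₂)) {c₁ c₂ : ℝ} (hc₁ : 0 < c₁) (hc₂ : 0 < c₂)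
    (hM₁ : (R.srf y0 A₁ B₁ sg₁).LW Q c₁ ⊆ M) (hM₂ : (R.srf y0 A₂ B₂ sg₂).LW Q c₂ ⊆ M)
    {t : τ} (ht₁ : Aln A₁ B₁ t) (ht₂ : Aln A₂ B₂ t) {ρ₁ ρ₂ : ℝ}
    (hr₁ : R.RateAt lam ((R.srf y0 A₁ B₁ sg₁).LW Q c₁) t ρ₁)
    (hr₂ : R.RateAt lam ((R.srf y0 A₂ B₂ sg₂).LW Q c₂) t ρ₂) {α₁ α₂ l₁ l₂ : ℝ} (hl₁ : 0 < l₁)
    (hl₂ : 0 < l₂)
    (hle : ∀ t', l₁ * B₁ t' + α₁ * A₁ t' ≤ l₂ * B₂ t' + α₂ * A₂ t')
    (heq : l₁ * B₁ t + α₁ * A₁ t = l₂ * B₂ t + α₂ * A₂ t) : ρ₂ ≤ ρ₁ := by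
  obtain ⟨K1, hK1, m1⟩ := h₁.room (R := R) (y0 := y0) hF₁ ht₁
  obtain ⟨K2, hK2, m2⟩ := h₂.room (R := R) (y0 := y0) hF₂ ht₂
  set K := max K1 K2 with hK
  obtain ⟨a1, a2⟩ := m1 K (le_max_left _ _)
  obtain ⟨b1, b2⟩ := m2 K (le_max_right _ _)
  set v : ι → ℝ := K • R.rmv Q t with hv
  set N : ℝ := 1 + ‖v‖ + ‖v + R.e t‖ with hN
  have hN0 : 0 < N := by positivity
  set ε : ℝ := min (c₁ * l₁ / N) (c₂ * l₂ / N) with hε
  have hε0 : 0 < ε := lt_min (by positivity) (by positivity)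
  have hsm : ∀ c : ι → ℝ, ‖c‖ ≤ N → ∀ c' l' : ℝ, 0 < c' * l' → ε ≤ c' * l' / N →
      ‖ε • c‖ ≤ c' * l' := by
    intro c hc c' l' hcl h'
    rw [norm_smul, Real.norm_of_nonneg hε0.le]
    rw [le_div_iff₀ hN0] at h'
    exact (mul_le_mul_of_nonneg_left hc hε0.le).trans h'
  have nv : ‖v‖ ≤ N := by simp only [hN]; linarith [norm_nonneg (v + R.e t)]
  have ne : ‖v + R.e t‖ ≤ N := by simp only [hN]; linarith [norm_nonneg v]
  have hcl1 : 0 < c₁ * l₁ := by positivity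
  have hcl2 : 0 < c₂ * l₂ := by positivity
  have p1 := h₁.memLW (R := R) (y0 := y0) (Q := Q) (c0 := c₁) (α := α₁) hl₁.le
    ((Walls.cone (Q := Q)).smul _ a1 _ hε0.le) (hsm v nv _ _ hcl1 (min_le_left _ _))
  have p2 := h₁.memLW (R := R) (y0 := y0) (Q := Q) (c0 := c₁) (α := α₁) hl₁.le
    ((Walls.cone (Q := Q)).smul _ a2 _ hε0.le) (hsm _ ne _ _ hcl1 (min_le_left _ _))
  have q1 := h₂.memLW (R := R) (y0 := y0) (Q := Q) (c0 := c₂) (α := α₂) hl₂.le
    ((Walls.cone (Q := Q)).smul _ b1 _ hε0.le) (hsm v nv _ _ hcl2 (min_le_right _ _))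
  have q2 := h₂.memLW (R := R) (y0 := y0) (Q := Q) (c0 := c₂) (α := α₂) hl₂.le
    ((Walls.cone (Q := Q)).smul _ b2 _ hε0.le) (hsm _ ne _ _ hcl2 (min_le_right _ _))
  rw [smul_add, ← add_assoc] at p2 q2
  have hvt : ∀ i, R.cls i = t → (ε • v) i = 0 := fun i hi => by
    simp only [hv, Pi.smul_apply, smul_eq_mul, rmv_zero hi, mul_zero]
  have key := cl_gen hs (hM₁ p1) (hM₂ q1) (hM₁ p2) (hM₂ q2) (fun i => by
      simp only [Pi.add_apply]
      have := mul_le_mul_of_nonneg_left (hle (R.cls i)) (R.pos i).le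
      simp only [RS.vec, Pi.add_apply, Pi.smul_apply, smul_eq_mul]
      linarith) (fun i => by
      simp only [Pi.smul_apply, smul_eq_mul]; exact mul_nonneg hε0.le (R.e_nonneg t i))
      (fun i hi => by
      have hi' : R.cls i = t := by
        by_contra h'
        apply hi
        rw [Pi.smul_apply, mem_e_zero h', smul_zero]
      simp only [Pi.add_apply, RS.vec, Pi.smul_apply, smul_eq_mul, hi', heq])
  rw [hr₁ _ (l₁ * B₁ t + α₁ * A₁ t) ε (fun i hi => by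
      rw [Pi.add_apply, hvt i hi, add_zero]
      simp only [RS.vec, Pi.add_apply, Pi.smul_apply, smul_eq_mul, hi]) p1 p2,
    hr₂ _ (l₂ * B₂ t + α₂ * A₂ t) ε (fun i hi => by
      rw [Pi.add_apply, hvt i hi, add_zero]
      simp only [RS.vec, Pi.add_apply, Pi.smul_apply, smul_eq_mul, hi]) q1 q2] at key
  exact le_of_mul_le_mul_right key hε0

/-- **local constancy** -/
theorem RS.loc (R : RS ι τ) {lam : (ι → ℝ) → ℝ} {y0 : ι → ℝ} {A B₀ : τ → ℝ} {sg₀ : ℝ}
    (h₀ : SOk A B₀ sg₀) {Q : Walls ι W} (hF₀ : Q.Full y0 (R.vec (sg₀ • B₀)) (R.vec A))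
    {c₀ : ℝ} (hc₀ : 0 < c₀) {t : τ} (ht₀ : Aln A B₀ t) {ρ₀ : ℝ}
    (hr₀ : R.RateAt lam ((R.srf y0 A B₀ sg₀).LW Q c₀) t ρ₀) :
    ∃ ε : ℝ, 0 < ε ∧ ∀ (B : τ → ℝ) (sg : ℝ) (c : ℝ) (ρ : ℝ), SOk A B sg →
      Q.Full y0 (R.vec (sg • B)) (R.vec A) → R.vec B ∈ Q.L y0 (R.vec A) 0 → 0 < c →
      Aln A B t → R.RateAt lam ((R.srf y0 A B sg).LW Q c) t ρ → (∀ t', |B t' - B₀ t'| < ε) →
      ρ = ρ₀ := by
  obtain ⟨K0, hK0, m0⟩ := h₀.room (R := R) (y0 := y0) hF₀ ht₀
  set Am : ℝ := 1 + ∑ i, R.mu i with hAm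
  have hAm0 : 0 < Am := by
    have : 0 ≤ ∑ i, R.mu i := Finset.sum_nonneg fun i _ => (R.pos i).le
    linarith
  have hmu : ∀ i, R.mu i ≤ Am := fun i => by
    have := Finset.single_le_sum (f := R.mu) (fun i _ => (R.pos i).le) (Finset.mem_univ i)
    linarith
  refine ⟨c₀ / (2 * Am), by positivity, ?_⟩
  intro B sg c ρ h hF hleg hc ht hr hB
  obtain ⟨K1, hK1, m1⟩ := h.room (R := R) (y0 := y0) hF ht
  set K := max K0 K1 with hK
  obtain ⟨a1, a2⟩ := m0 K (le_max_left _ _)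
  obtain ⟨b1, b2⟩ := m1 K (le_max_right _ _)
  set v : ι → ℝ := K • R.rmv Q t with hv
  set N : ℝ := 1 + ‖v‖ + ‖v + R.e t‖ with hN
  have hN0 : 0 < N := by positivity
  have nv : ‖v‖ ≤ N := by simp only [hN]; linarith [norm_nonneg (v + R.e t)]
  have ne : ‖v + R.e t‖ ≤ N := by simp only [hN]; linarith [norm_nonneg v]
  set η : ℝ := min (c / N) (c₀ / 2 / N) with hη
  have hη0 : 0 < η := lt_min (by positivity) (by positivity)
  have hsm : ∀ w : ι → ℝ, ‖w‖ ≤ N → ∀ c' : ℝ, 0 < c' → η ≤ c' / N → ‖η • w‖ ≤ c' := by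
    intro w hw c' hc' h'
    rw [norm_smul, Real.norm_of_nonneg hη0.le]
    rw [le_div_iff₀ hN0] at h'
    exact (mul_le_mul_of_nonneg_left hw hη0.le).trans h'
  -- the difference of the offsets is legal on the first surface
  set d : ι → ℝ := R.vec B - R.vec B₀ with hd
  have hdL : d ∈ (R.srf y0 A B₀ sg₀).L Q := by
    intro w hw
    have hw' : Q.Act y0 (R.vec (sg₀ • B₀)) (R.vec A) w := hw
    have h1 : Q.rhs w (R.vec B₀) = R.vec B₀ (Q.hd w) := by
      have h2 := hw'.2.1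
      rw [R.vec_smul, Q.rhs_smul, Pi.smul_apply, smul_eq_mul] at h2
      exact (mul_left_cancel₀ h₀.ne h2).symm
    have h2 := hleg w ⟨hw'.1, hw'.2.2, by
      have : Q.rhs w 0 = 0 := by unfold Walls.rhs; simp
      rw [this]; rfl⟩
    have h3 : d = R.vec B + (-1 : ℝ) • R.vec B₀ := by rw [hd]; funext i; simp; ring
    rw [h3, Q.rhs_add, Q.rhs_smul, h1]
    simp only [Pi.add_apply, Pi.smul_apply, smul_eq_mul]
    linarith
  have hdn : ‖d‖ ≤ c₀ / 2 := by
    rw [pi_norm_le_iff_of_nonneg (by positivity)]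
    intro i
    rw [Real.norm_eq_abs]
    simp only [hd, Pi.sub_apply, RS.vec, ← mul_sub, abs_mul, abs_of_pos (R.pos i)]
    have h1 := (hB (R.cls i)).le
    calc R.mu i * |B (R.cls i) - B₀ (R.cls i)| ≤ Am * (c₀ / (2 * Am)) :=
          mul_le_mul (hmu i) h1 (abs_nonneg _) hAm0.le
      _ = c₀ / 2 := by field_simp
  have e0 : R.vec ((1:ℝ) • B + (0:ℝ) • A) = R.vec B := by simp
  have e0' : R.vec ((1:ℝ) • B₀ + (0:ℝ) • A) = R.vec B₀ := by simp
  have p1 := h.memLW (R := R) (y0 := y0) (Q := Q) (c0 := c) (α := 0) zero_le_one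
    ((Walls.cone (Q := Q)).smul _ b1 _ hη0.le) (by
      rw [mul_one]; exact hsm v nv _ hc (min_le_left _ _))
  have p2 := h.memLW (R := R) (y0 := y0) (Q := Q) (c0 := c) (α := 0) zero_le_one
    ((Walls.cone (Q := Q)).smul _ b2 _ hη0.le) (by
      rw [mul_one]; exact hsm _ ne _ hc (min_le_left _ _))
  have hc2 : 0 < c₀ / 2 := by positivity
  have q1 := h₀.memLW (R := R) (y0 := y0) (Q := Q) (c0 := c₀) (α := 0) zero_le_one
    ((Walls.cone (Q := Q)).add _ hdL _ ((Walls.cone (Q := Q)).smul _ a1 _ hη0.le)) (by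
      rw [mul_one]
      refine (norm_add_le _ _).trans ?_
      have := hsm v nv _ hc2 (min_le_right _ _)
      linarith)
  have q2 := h₀.memLW (R := R) (y0 := y0) (Q := Q) (c0 := c₀) (α := 0) zero_le_one
    ((Walls.cone (Q := Q)).add _ hdL _ ((Walls.cone (Q := Q)).smul _ a2 _ hη0.le)) (by
      rw [mul_one]
      refine (norm_add_le _ _).trans ?_
      have := hsm _ ne _ hc2 (min_le_right _ _)
      linarith)
  rw [e0] at p1 p2
  rw [e0'] at q1 q2
  have e1 : R.vec B₀ + (d + η • v) = R.vec B + η • v := by rw [hd]; abel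
  have e2 : R.vec B₀ + (d + η • (v + R.e t)) = (R.vec B + η • v) + η • R.e t := by
    rw [hd, smul_add]; abel
  rw [e1] at q1
  rw [e2] at q2
  rw [smul_add, ← add_assoc] at p2
  have hvt : ∀ i, R.cls i = t → (η • v) i = 0 := fun i hi => by
    simp only [hv, Pi.smul_apply, smul_eq_mul, rmv_zero hi, mul_zero]
  have hval : ∀ i, R.cls i = t → (R.vec B + η • v) i = R.mu i * B t := fun i hi => by
    rw [Pi.add_apply, hvt i hi, add_zero, RS.vec, hi]
  have k1 := hr _ (B t) η hval p1 p2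
  have k2 := hr₀ _ (B t) η hval q1 q2
  rw [k1] at k2
  exact mul_right_cancel₀ hη0.ne' k2

/-- **values at the natural points** when every ray slot is alone and visible along the record -/
theorem SOk.nat_eq (h : SOk A B sg) (hall : ∀ t, Aln A B t) (hA : ∀ t, A t ≠ 0)
    {LW L : Set (ι → ℝ)} (hL : LW ⊆ L) {lam : (ι → ℝ) → ℝ} {φ : ℕ → (ι → ℝ) → ℝ} {r : ℕ → ℝ}
    (H : OutH (R.srf y0 A B sg).g (R.srf y0 A B sg).S LW L (R.srf y0 A B sg).a
      (R.srf y0 A B sg).b (R.srf y0 A B sg).l (R.srf y0 A B sg).dh (R.srf y0 A B sg).n lam φ r)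
    (h0 : lam 0 = 0) (h0m : (0 : ι → ℝ) ∈ LW) {α l : ℝ} (hm : R.vec (l • B + α • A) ∈ LW)
    {rt : τ → ℝ} (hrt : ∀ t, ∀ j, R.cls j = t →
      rt t = r ((R.srf y0 A B sg).g j) / dl A B sg t) :
    lam (R.vec (l • B + α • A)) = -∑ t, rt t * (l * B t + α * A t) := by
  classical
  choose j hj using R.sur
  have hinj : Function.Injective fun t => (R.srf y0 A B sg).g (j t) := by
    intro t t' htt
    have := (h.grp_iff (hall t') (hj t') (j t)).1 htt
    rw [hj] at this; exact this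
  have hS : (R.srf y0 A B sg).S = Finset.univ.image fun t => (R.srf y0 A B sg).g (j t) := by
    ext k
    constructor
    · intro hk
      obtain ⟨i, -, hi⟩ := Finset.mem_image.1 (Rc146.mem_SH.1 hk).1
      refine Finset.mem_image.2 ⟨R.cls i, Finset.mem_univ _, ?_⟩
      rw [← hi]
      exact ((h.grp_iff (hall (R.cls i)) (hj (R.cls i)) i).2 rfl).symm
    · intro hk
      obtain ⟨t, -, rfl⟩ := Finset.mem_image.1 hk
      exact h.mem_S (hA t) (hj t)
  have h1 := H.split 0 h0m _ hm (fun i hi => by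
    exfalso
    apply hi
    exact h.mem_S (hA (R.cls i)) rfl)
  rw [h0, sub_zero] at h1
  rw [h1, hS, Finset.sum_image (fun t _ t' _ htt => hinj htt), ← Finset.sum_neg_distrib]
  refine Finset.sum_congr rfl fun t _ => ?_
  have hk := h.mem_S (y0 := y0) (hA t) (hj t)
  have hd := (h.dl_pos t).ne'
  rw [H.zero _ 0 (fun i _ => rfl), sub_zero,
    H.rate _ hk _ (hL hm) ((l * B t + α * A t) / dl A B sg t) (fun i hi => by
      have hi' := (h.grp_iff (hall t) (hj t) i).1 hi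
      rw [h.dh_eq, hi']
      simp only [RS.vec, Pi.add_apply, Pi.smul_apply, smul_eq_mul, hi']
      field_simp), hrt t (j t) (hj t)]
  ring

end

end Crest.Agent.R116.RbK219
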