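import Crest.Agent.R116.NZ2_90
import Crest.Agent.R116.RbK2_219

/-!
# R116, K-TEXT II-c: the `N`-`z` chain rule over the rates of 219 (helper90)

`lam` = one tangent of the profile at a record point, on the legal cone `Q.L y0 (R.vec A) 0` of the
record; `A` = slopes of the ray slots along the record.
* `RateZ` : the joint step of the slots `Z` (`z` and the flags which refine along the record);
  `rateZ_of` : from `OutH`, the rate is `∑ r k * (n k).2` over the groups of `Z`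
* **`nz_rs`** : `A N * (rp - rm) ≤ rz - own`, upper surface `(A, Bp)` with the slots `Z` frozen,
  lower surface `(A, Bm)`.
-/

set_option autoImplicit false
set_option linter.unusedSectionVars false
set_option linter.unusedVariables false

open Set Filter Topology

namespace Crest.Agent.R116.NZ90

open Crest.Agent.R136
open Dg219 (Tn lf det2 Cone Walls gC nC dhC dirC)
open Rc146 (OutH)
open Rc683 (Srf)
open RbK219 (RS SOk Aln dl)

variable {ι W τ : Type*} [Fintype ι] [DecidableEq ι] [Fintype W] [Fintype τ] [DecidableEq τ]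

/-! ### the joint step of `Z` -/

/-- joint increment of the slots `Z` in the direction of the record -/
def eZ (R : RS ι τ) (A : τ → ℝ) (Z : Finset τ) (i : ι) : ℝ :=
  if R.cls i ∈ Z then R.mu i * A (R.cls i) else 0

/-- `ρ` = rate of the joint `Z`-step, at the points which are natural on `Z` -/
def RateZ (R : RS ι τ) (lam : (ι → ℝ) → ℝ) (LW : Set (ι → ℝ)) (A B : τ → ℝ) (Z : Finset τ)
    (ρ : ℝ) : Prop :=
  ∀ (p : ι → ℝ) (l α x : ℝ),
    (∀ i, R.cls i ∈ Z → p i = R.mu i * (l * B (R.cls i) + α * A (R.cls i))) → p ∈ LW →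
    p + x • eZ R A Z ∈ LW → lam p - lam (p + x • eZ R A Z) = ρ * x

section

variable {R : RS ι τ} {A B : τ → ℝ} {sg : ℝ} {y0 : ι → ℝ}

/-- direction of the record in a group -/
theorem n2_eq (h : SOk A B sg) (j : ι) :
    ((R.srf y0 A B sg).n ((R.srf y0 A B sg).g j)).2 = A (R.cls j) / dl A B sg (R.cls j) := by
  have h1 := (dirC (a := R.vec (sg • B)) (b := R.vec A)).snd j
  have h2 := (h.dl_pos (R.cls j)).ne'
  have h3 := (R.pos j).ne'
  have h4 : dhC (R.vec (sg • B)) (R.vec A) j = R.mu j * dl A B sg (R.cls j) :=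
    h.dh_eq (R := R) (y0 := y0) j
  rw [h4] at h1
  simp only [RS.vec] at h1
  rw [eq_div_iff h2]
  have h5 : R.mu j * A (R.cls j) = R.mu j * (dl A B sg (R.cls j) *
      ((R.srf y0 A B sg).n ((R.srf y0 A B sg).g j)).2) := by
    rw [h1]
    change _ = R.mu j * (dl A B sg (R.cls j) * (nC (R.vec (sg • B)) (R.vec A)
      (gC (R.vec (sg • B)) (R.vec A) j)).2)
    ring
  have h6 := mul_left_cancel₀ h3 h5
  rw [h6]; ring

open Classical in
/-- **the joint rate of `Z`**, `Z` a union of groups of the surface -/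
theorem rateZ_of (h : SOk A B sg) {LW L : Set (ι → ℝ)} (hL : LW ⊆ L) {lam : (ι → ℝ) → ℝ}
    {φ : ℕ → (ι → ℝ) → ℝ} {r : ℕ → ℝ}
    (H : OutH (R.srf y0 A B sg).g (R.srf y0 A B sg).S LW L (R.srf y0 A B sg).a
      (R.srf y0 A B sg).b (R.srf y0 A B sg).l (R.srf y0 A B sg).dh (R.srf y0 A B sg).n lam φ r)
    {Z : Finset τ} (hZ : ∀ i j, (R.srf y0 A B sg).g i = (R.srf y0 A B sg).g j → R.cls i ∈ Z →
      R.cls j ∈ Z) (hA : ∀ t ∈ Z, A t ≠ 0) :
    RateZ R lam LW A B Z (∑ k ∈ (Finset.univ.filter (fun i => R.cls i ∈ Z)).image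
      (R.srf y0 A B sg).g, r k * ((R.srf y0 A B sg).n k).2) := by
  intro p l α x hp hpm hpe
  set T := (Finset.univ.filter (fun i => R.cls i ∈ Z)).image (R.srf y0 A B sg).g with hT
  have hTm : ∀ k, k ∈ T ↔ ∃ i, R.cls i ∈ Z ∧ (R.srf y0 A B sg).g i = k := by
    intro k
    rw [hT, Finset.mem_image]
    simp only [Finset.mem_filter, Finset.mem_univ, true_and]
  have hTS : T ⊆ (R.srf y0 A B sg).S := by
    intro k hk
    obtain ⟨i, hi, rfl⟩ := (hTm k).1 hk
    exact h.mem_S (hA _ hi) rfl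
  have hin : ∀ k ∈ T, ∀ i, (R.srf y0 A B sg).g i = k → R.cls i ∈ Z := by
    intro k hk i hi
    obtain ⟨j, hj, hjk⟩ := (hTm k).1 hk
    exact hZ j i (by rw [hjk, hi]) hj
  have hsp := H.split p hpm _ hpe (fun i hi => by
    have : R.cls i ∉ Z := fun hz => hi (h.mem_S (hA _ hz) rfl)
    simp only [Pi.add_apply, Pi.smul_apply, smul_eq_mul, eZ, if_neg this, mul_zero, add_zero])
  have hsum : ∑ k ∈ (R.srf y0 A B sg).S, (φ k (p + x • eZ R A Z) - φ k p) =
      ∑ k ∈ T, -(r k * ((R.srf y0 A B sg).n k).2 * x) := by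
    rw [← Finset.sum_subset hTS]
    · refine Finset.sum_congr rfl fun k hk => ?_
      have hkS := hTS hk
      have hdir := dirC (a := R.vec (sg • B)) (b := R.vec A)
      have key : ∀ α' : ℝ, ∀ i, (R.srf y0 A B sg).g i = k →
          R.mu i * (l * B (R.cls i) + α' * A (R.cls i)) =
            lf ((R.srf y0 A B sg).n k) (l * sg, α') * (R.srf y0 A B sg).dh i := by
        intro α' i hi
        have h1 := h.Tn_nat (R := R) (y0 := y0) α' l
        have h2 := congrFun h1 i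
        simp only [RS.vec, Pi.add_apply, Pi.smul_apply, smul_eq_mul] at h2
        rw [← h2]
        have h3 : Tn (R.srf y0 A B sg).a (R.srf y0 A B sg).b (l * sg, α') i =
            lf ((R.srf y0 A B sg).n ((R.srf y0 A B sg).g i)) (l * sg, α') *
              (R.srf y0 A B sg).dh i := by
          simp only [Tn, lf]
          have e1 := hdir.fst i
          have e2 := hdir.snd i
          change R.vec (sg • B) i * _ + R.vec A i * _ = _
          rw [e1, e2]
          change _ = ((nC (R.vec (sg • B)) (R.vec A) (gC (R.vec (sg • B)) (R.vec A) i)).1 * _ +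
            (nC (R.vec (sg • B)) (R.vec A) (gC (R.vec (sg • B)) (R.vec A) i)).2 * _) *
              dhC (R.vec (sg • B)) (R.vec A) i
          ring
        rw [h3, hi]
      rw [H.rate k hkS _ (hL hpe) (lf ((R.srf y0 A B sg).n k) (l * sg, α + x)) (fun i hi => by
          rw [← key (α + x) i hi]
          simp only [Pi.add_apply, Pi.smul_apply, smul_eq_mul, eZ, if_pos (hin k hk i hi)]
          rw [hp i (hin k hk i hi)]; ring),
        H.rate k hkS _ (hL hpm) (lf ((R.srf y0 A B sg).n k) (l * sg, α)) (fun i hi => by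
          rw [← key α i hi, hp i (hin k hk i hi)])]
      simp only [lf]; ring
    · intro k _ hk
      rw [H.loc k (p + x • eZ R A Z) p fun i hi => by
        have : R.cls i ∉ Z := fun hz => hk ((hTm k).2 ⟨i, hz, hi⟩)
        simp only [Pi.add_apply, Pi.smul_apply, smul_eq_mul, eZ, if_neg this, mul_zero, add_zero],
        sub_self]
  rw [hsum, Finset.sum_neg_distrib, ← Finset.sum_mul] at hsp
  linarith

end

/-! ### the chart with one slot for `N` -/

/-- the chart slots of `N` all follow `j0` -/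
def col (R : RS ι τ) (N : τ) (j0 : ι) (c : ι → ℝ) (i : ι) : ℝ :=
  if R.cls i = N then R.mu i * c j0 else c i

/-- levels of a ray vector in that chart -/
def sl (R : RS ι τ) (N : τ) (j0 : ι) (B : τ → ℝ) (i : ι) : ℝ :=
  if R.cls i = N then (if i = j0 then B N else 0) else R.mu i * B (R.cls i)

section

variable {R : RS ι τ} {N : τ} {j0 : ι}

theorem col_sup (c d : ι → ℝ) : col R N j0 (c ⊔ d) = col R N j0 c ⊔ col R N j0 d := by
  funext i
  simp only [col, Pi.sup_apply]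
  split_ifs
  · exact (mul_max_of_nonneg _ _ (R.pos i).le)
  · rfl

theorem col_inf (c d : ι → ℝ) : col R N j0 (c ⊓ d) = col R N j0 c ⊓ col R N j0 d := by
  funext i
  simp only [col, Pi.inf_apply]
  split_ifs
  · exact (mul_min_of_nonneg _ _ (R.pos i).le)
  · rfl

end

/-! ### room outside `Z` and `N` -/

/-- room vector which vanishes on `Z` and `N` -/
noncomputable def rmZ (R : RS ι τ) (Q : Walls ι W) (Z : Finset τ) (N : τ) (i : ι) : ℝ :=
  if R.cls i ∈ Z ∨ R.cls i = N then 0 else Q.rs i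

section

variable {R : RS ι τ} {Q : Walls ι W} {Z : Finset τ} {N : τ} {A : τ → ℝ} {y0 : ι → ℝ}

theorem rmZ_nonneg (i : ι) : 0 ≤ rmZ R Q Z N i := by
  unfold rmZ
  split_ifs
  · exact le_rfl
  · linarith [Q.one_le_rs i]

theorem rhs_mono {w : W} {c d : ι → ℝ} (h : ∀ s, Q.co w s ≠ 0 → c s ≤ d s) :
    Q.rhs w c ≤ Q.rhs w d := by
  unfold Walls.rhs
  refine Finset.sum_le_sum fun s _ => ?_
  by_cases h0 : Q.co w s = 0
  · rw [h0]; simp
  · exact mul_le_mul_of_nonneg_left (h s h0) (Nat.cast_nonneg _)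

/-- a wall with a summand outside `Z ∪ {N}` has room -/
theorem rmZ_room {w : W} (h : ∃ s, Q.co w s ≠ 0 ∧ R.cls s ∉ Z ∧ R.cls s ≠ N) :
    rmZ R Q Z N (Q.hd w) + 1 ≤ Q.rhs w (rmZ R Q Z N) := by
  obtain ⟨s, hs, hsZ, hsN⟩ := h
  have h1 : rmZ R Q Z N s = Q.rs s := by
    unfold rmZ; rw [if_neg (by push Not; exact ⟨hsZ, hsN⟩)]
  have h2 : rmZ R Q Z N (Q.hd w) + 1 ≤ Q.rs s := by
    have h3 := Q.rs_lt hs
    unfold rmZ
    split_ifs
    · linarith [Q.one_le_rs (Q.hd w)]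
    · exact h3
  rw [← h1] at h2
  exact h2.trans (Q.le_rhs rmZ_nonneg hs)

/-- the walls of the record: condition on the summands -/
structure WOk (R : RS ι τ) (Q : Walls ι W) (y0 : ι → ℝ) (A : τ → ℝ) (Z : Finset τ) (N : τ) :
    Prop where
  out : ∀ w, Q.Act y0 (R.vec A) 0 w → R.cls (Q.hd w) ∉ Z →
    ∃ s, Q.co w s ≠ 0 ∧ R.cls s ∉ Z ∧ R.cls s ≠ N
  inn : ∀ w, Q.Act y0 (R.vec A) 0 w → R.cls (Q.hd w) ∈ Z →
    (∀ s, Q.co w s ≠ 0 → R.cls s ∈ Z) ∨ ∃ s, Q.co w s ≠ 0 ∧ R.cls s ∉ Z ∧ R.cls s ≠ N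

theorem rmZ_mem (hw : WOk R Q y0 A Z N) : rmZ R Q Z N ∈ Q.L y0 (R.vec A) 0 := by
  intro w hact
  have h0 := Q.rhs_nonneg (w := w) (rmZ_nonneg (R := R) (Q := Q) (Z := Z) (N := N))
  by_cases hz : R.cls (Q.hd w) ∈ Z
  · have : rmZ R Q Z N (Q.hd w) = 0 := by unfold rmZ; rw [if_pos (Or.inl hz)]
    rw [this]; exact h0
  · linarith [rmZ_room (hw.out w hact hz)]

theorem rmZ_eN (hw : WOk R Q y0 A Z N) (hNZ : N ∉ Z) {K : ℝ} (hK0 : 0 ≤ K)
    (hK : ∀ i, R.mu i ≤ K) : K • rmZ R Q Z N + R.e N ∈ Q.L y0 (R.vec A) 0 := by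
  intro w hact
  rw [Q.rhs_add, Q.rhs_smul]
  have h0 := Q.rhs_nonneg (w := w) (rmZ_nonneg (R := R) (Q := Q) (Z := Z) (N := N))
  have h1 : 0 ≤ Q.rhs w (R.e N) := Q.rhs_nonneg (fun i => R.e_nonneg N i)
  simp only [Pi.add_apply, Pi.smul_apply, smul_eq_mul]
  by_cases hz : R.cls (Q.hd w) ∈ Z
  · have e1 : rmZ R Q Z N (Q.hd w) = 0 := by unfold rmZ; rw [if_pos (Or.inl hz)]
    have e2 : R.e N (Q.hd w) = 0 := RbK219.mem_e_zero (fun h => hNZ (h ▸ hz))
    rw [e1, e2]
    have := mul_nonneg hK0 h0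
    linarith
  · have h2 := rmZ_room (hw.out w hact hz)
    have h3 : R.e N (Q.hd w) ≤ K := by
      unfold RS.e
      split_ifs
      · exact hK _
      · exact hK0
    have h4 := mul_le_mul_of_nonneg_left h2 hK0
    linarith

theorem rmZ_eZ (hw : WOk R Q y0 A Z N) (hA : ∀ t ∈ Z, 0 < A t) {K : ℝ} (hK0 : 0 ≤ K)
    (hK : ∀ i, eZ R A Z i ≤ K) : K • rmZ R Q Z N + eZ R A Z ∈ Q.L y0 (R.vec A) 0 := by
  intro w hact
  rw [Q.rhs_add, Q.rhs_smul]
  have h0 := Q.rhs_nonneg (w := w) (rmZ_nonneg (R := R) (Q := Q) (Z := Z) (N := N))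
  have hz0 : ∀ i, 0 ≤ eZ R A Z i := by
    intro i
    unfold eZ
    split_ifs with h
    · exact mul_nonneg (R.pos i).le (hA _ h).le
    · exact le_rfl
  have h1 : 0 ≤ Q.rhs w (eZ R A Z) := Q.rhs_nonneg hz0
  simp only [Pi.add_apply, Pi.smul_apply, smul_eq_mul]
  by_cases hz : R.cls (Q.hd w) ∈ Z
  · have e1 : rmZ R Q Z N (Q.hd w) = 0 := by unfold rmZ; rw [if_pos (Or.inl hz)]
    rcases hw.inn w hact hz with h2 | h2
    · have h3 : eZ R A Z (Q.hd w) = Q.rhs w (eZ R A Z) := by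
        have h4 := hact.2.1
        have h5 : eZ R A Z (Q.hd w) = R.vec A (Q.hd w) := by
          unfold eZ; rw [if_pos hz]; rfl
        rw [h5, h4]
        refine le_antisymm (rhs_mono fun s hs => ?_) (rhs_mono fun s hs => ?_)
        · unfold eZ; rw [if_pos (h2 s hs)]; exact le_rfl
        · unfold eZ; rw [if_pos (h2 s hs)]; exact le_rfl
      rw [e1, ← h3]
      have := mul_nonneg hK0 h0
      linarith
    · have h3 := rmZ_room h2
      have h4 := mul_le_mul_of_nonneg_left h3 hK0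
      linarith [hK (Q.hd w)]
  · have h2 := rmZ_room (hw.out w hact hz)
    have e2 : eZ R A Z (Q.hd w) = 0 := by unfold eZ; rw [if_neg hz]
    have h4 := mul_le_mul_of_nonneg_left h2 hK0
    rw [e2]
    linarith

theorem vecA_mem : R.vec A ∈ Q.L y0 (R.vec A) 0 := fun w hw => hw.2.1.le

theorem neg_vecA_mem (t : ℝ) : t • R.vec A ∈ Q.L y0 (R.vec A) 0 := fun w hw => by
  rw [Q.rhs_smul, Pi.smul_apply, smul_eq_mul, hw.2.1]

/-- the legal cone of the record is closed under joins -/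
theorem L_sup {p q : ι → ℝ} (hp : p ∈ Q.L y0 (R.vec A) 0) (hq : q ∈ Q.L y0 (R.vec A) 0) :
    p ⊔ q ∈ Q.L y0 (R.vec A) 0 := by
  intro w hw
  have h1 := hp w hw
  have h2 := hq w hw
  have h3 : Q.rhs w p ≤ Q.rhs w (p ⊔ q) := rhs_mono fun s _ => le_sup_left
  have h4 : Q.rhs w q ≤ Q.rhs w (p ⊔ q) := rhs_mono fun s _ => le_sup_right
  rw [Pi.sup_apply]
  exact max_le (h1.trans h3) (h2.trans h4)

/-- the cone of the record is in the cone of the surface -/
theorem L_sub {B : τ → ℝ} {sg : ℝ} : Q.L y0 (R.vec A) 0 ⊆ (R.srf y0 A B sg).L Q := by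
  intro c hc w hw
  refine hc w ⟨hw.1, hw.2.2, ?_⟩
  have : Q.rhs w 0 = 0 := by unfold Walls.rhs; simp
  rw [this]; rfl

end

/-! ### the boxes in the chart -/

section boxes

variable {R : RS ι τ} {Q : Walls ι W} {Z : Finset τ} {N : τ} {j0 : ι} {A : τ → ℝ} {y0 : ι → ℝ}

theorem col_Ub (hj0 : R.cls j0 = N) {Bp : τ → ℝ} {q : ι → ℝ} (hq : ∀ i, R.cls i = N → q i = 0)
    (s x y : ℝ) : col R N j0 (Ub (sl R N j0 Bp) q j0 s x y) =
      s • R.vec Bp + x • q + y • R.e N := by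
  funext i
  simp only [col, Ub, sl, Pi.add_apply, Pi.smul_apply, smul_eq_mul, RS.vec, RS.e]
  by_cases h : R.cls i = N
  · rw [if_pos h, if_pos hj0, if_pos h, hq i h, hq j0 hj0, h]
    simp only [if_true]; ring
  · have hij : i ≠ j0 := fun e => h (e ▸ hj0)
    rw [if_neg h, if_neg h, if_neg hij, if_neg h]; ring

theorem col_Lb (hj0 : R.cls j0 = N) (hNZ : N ∉ Z) {Bd : τ → ℝ} {q : ι → ℝ}
    (hq : ∀ i, R.cls i = N → q i = 0) {Zi : Finset ι} (hZi : ∀ i, i ∈ Zi ↔ R.cls i ∈ Z)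
    (v s x y z : ℝ) :
    col R N j0 (Lb (sl R N j0 A) (fun i => -(sl R N j0 Bd i)) q Zi j0 v s x y z) =
      R.vec ((-s) • Bd + v • A) + x • q + y • R.e N + z • eZ R A Z := by
  funext i
  simp only [col, Lb, sl, eZ, Pi.add_apply, Pi.smul_apply, smul_eq_mul, RS.vec, RS.e]
  by_cases h : R.cls i = N
  · have h1 : j0 ∉ Zi := fun e => hNZ (hj0 ▸ (hZi j0).1 e)
    have h2 : R.cls i ∉ Z := fun e => hNZ (h ▸ e)
    rw [if_pos h, if_neg h1, if_neg h2, hq i h, hq j0 hj0, if_pos h, h]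
    simp only [if_pos hj0, if_true]
    ring
  · have hij : i ≠ j0 := fun e => h (e ▸ hj0)
    rw [if_neg h, if_neg h, if_neg h, if_neg hij, if_neg h]
    by_cases hz : R.cls i ∈ Z
    · rw [if_pos hz, if_pos ((hZi i).2 hz)]; ring
    · rw [if_neg hz, if_neg (fun e => hz ((hZi i).1 e))]; ring

/-- room for an increment `e` -/
theorem roomy {L : Set (ι → ℝ)} (hL : Cone L) {m e : ι → ℝ} (hm : m ∈ L) (hme : m + e ∈ L)
    {x y : ℝ} (hy : 0 ≤ y) (hyx : y ≤ x) : x • m + y • e ∈ L := by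
  have h1 := hL.add _ (hL.smul _ hm (x - y) (by linarith)) _ (hL.smul _ hme y hy)
  have h2 : (x - y) • m + y • (m + e) = x • m + y • e := by
    funext i
    simp only [Pi.add_apply, Pi.smul_apply, smul_eq_mul]; ring
  rwa [h2] at h1

end boxes

/-! ### the theorem -/

section main

variable {R : RS ι τ} {Q : Walls ι W} {y0 : ι → ℝ} {A Bp Bm : τ → ℝ}

set_option maxHeartbeats 4000000 in
/-- **`N`-`z` chain rule at a record point**, in the rates of the upper and the lower surface -/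
theorem nz_rs (hp : SOk A Bp 1) (hm : SOk A Bm (-1))
    (hlp : R.vec Bp ∈ Q.L y0 (R.vec A) 0) (hlm : R.vec Bm ∈ Q.L y0 (R.vec A) 0)
    {cp cm : ℝ} (hcp : 0 < cp) (hcm : 0 < cm) {lam : (ι → ℝ) → ℝ}
    (hs : ∀ p ∈ Q.L y0 (R.vec A) 0, ∀ q ∈ Q.L y0 (R.vec A) 0, p ⊓ q ∈ Q.L y0 (R.vec A) 0 →
      p ⊔ q ∈ Q.L y0 (R.vec A) 0 → lam p + lam q ≤ lam (p ⊔ q) + lam (p ⊓ q))
    {K : ℝ} (hK : 0 ≤ K)
    (hlip : ∀ p ∈ Q.L y0 (R.vec A) 0, ∀ q ∈ Q.L y0 (R.vec A) 0, |lam p - lam q| ≤ K * dist p q)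
    {N z0 : τ} {Z : Finset τ} (hNZ : N ∉ Z) (hz0 : z0 ∈ Z) (hAz : A z0 = 1)
    (hAN : 0 < A N) (hBpN : 0 < Bp N) (hBmN : Bm N < Bm z0 * A N)
    (hAZ : ∀ t ∈ Z, 0 < A t) (hBZ : ∀ t ∈ Z, Bp t = 0)
    (hcmp : ∀ t, t ∉ Z → t ≠ N → A t * Bp N ≤ Bp t * A N)
    (hw : WOk R Q y0 A Z N) {rp rm rz own : ℝ}
    (hrp : R.RateAt lam ((R.srf y0 A Bp 1).LW Q cp) N rp)
    (hrm : R.RateAt lam ((R.srf y0 A Bm (-1)).LW Q cm) N rm)
    (hrz : RateZ R lam ((R.srf y0 A Bm (-1)).LW Q cm) A Bm Z rz)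
    (hown : ∀ p ∈ Q.L y0 (R.vec A) 0, ∀ p' ∈ Q.L y0 (R.vec A) 0, p ≤ p' → ∀ x : ℝ, 0 ≤ x →
      (∀ i, R.cls i = z0 → p' i = p i + R.mu i * x) → own * x ≤ lam p - lam p') :
    A N * (rp - rm) ≤ rz - own := by
  classical
  obtain ⟨j0, hj0⟩ := R.sur N
  obtain ⟨jz, hjz⟩ := R.sur z0
  have cone : Cone (Q.L y0 (R.vec A) 0) := Walls.cone
  -- unshifted offset below
  obtain ⟨Bd, hBd⟩ : ∃ Bd : τ → ℝ, Bd = fun t => Bm t - Bm z0 * A t := ⟨_, rfl⟩
  have hBdz : Bd z0 = 0 := by rw [hBd]; simp only; rw [hAz]; ring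
  have hBdN : Bd N < 0 := by rw [hBd]; simp only; linarith
  have hnat : ∀ v s : ℝ, R.vec ((-s) • Bd + v • A) =
      R.vec ((-s) • Bm + (v + s * Bm z0) • A) := by
    intro v s
    funext i
    simp only [RS.vec, Pi.add_apply, Pi.smul_apply, smul_eq_mul, hBd]; ring
  -- constants of the room
  obtain ⟨K1, hK1⟩ : ∃ K1 : ℝ, K1 = 1 + ∑ i, (R.mu i + |eZ R A Z i|) := ⟨_, rfl⟩
  have hterm : ∀ i, 0 ≤ R.mu i + |eZ R A Z i| := fun i =>
    add_nonneg (R.pos i).le (abs_nonneg _)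
  have hsum : ∀ i, R.mu i + |eZ R A Z i| ≤ ∑ i, (R.mu i + |eZ R A Z i|) := fun i =>
    Finset.single_le_sum (f := fun i => R.mu i + |eZ R A Z i|) (fun i _ => hterm i)
      (Finset.mem_univ i)
  have hsum0 : 0 ≤ ∑ i, (R.mu i + |eZ R A Z i|) := Finset.sum_nonneg fun i _ => hterm i
  have hK11 : 1 ≤ K1 := by rw [hK1]; linarith
  have hK10 : 0 ≤ K1 := by linarith
  have hKmu : ∀ i, R.mu i ≤ K1 := fun i => by
    rw [hK1]; linarith [hsum i, abs_nonneg (eZ R A Z i)]
  have hKeZ : ∀ i, eZ R A Z i ≤ K1 := fun i => by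
    rw [hK1]; linarith [hsum i, le_abs_self (eZ R A Z i), (R.pos i).le]
  obtain ⟨m, hmdef⟩ : ∃ m : ι → ℝ, m = K1 • rmZ R Q Z N := ⟨_, rfl⟩
  have hmM : m ∈ Q.L y0 (R.vec A) 0 := by
    rw [hmdef]; exact cone.smul _ (rmZ_mem hw) _ hK10
  have hmN : m + R.e N ∈ Q.L y0 (R.vec A) 0 := by
    rw [hmdef]; exact rmZ_eN hw hNZ hK10 hKmu
  have hmZ : m + eZ R A Z ∈ Q.L y0 (R.vec A) 0 := by
    rw [hmdef]; exact rmZ_eZ hw hAZ hK10 hKeZ
  obtain ⟨q, hq⟩ : ∃ q : ι → ℝ, q = (2 : ℝ) • m := ⟨_, rfl⟩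
  have hqi : ∀ i, q i = 2 * (K1 * rmZ R Q Z N i) := fun i => by
    rw [hq, hmdef]; simp only [Pi.smul_apply, smul_eq_mul]
  have hqZ : ∀ i, R.cls i ∈ Z → q i = 0 := fun i hi => by
    rw [hqi]; unfold rmZ; rw [if_pos (Or.inl hi)]; ring
  have hqN : ∀ i, R.cls i = N → q i = 0 := fun i hi => by
    rw [hqi]; unfold rmZ; rw [if_pos (Or.inr hi)]; ring
  have hq0 : ∀ i, 0 ≤ q i := fun i => by
    rw [hqi]
    have := mul_nonneg hK10 (rmZ_nonneg (R := R) (Q := Q) (Z := Z) (N := N) i)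
    linarith
  have hq1 : ∀ i, R.cls i ∉ Z → R.cls i ≠ N → 1 ≤ q i := fun i h1 h2 => by
    have e1 : rmZ R Q Z N i = Q.rs i := by
      unfold rmZ; rw [if_neg (by push Not; exact ⟨h1, h2⟩)]
    rw [hqi, e1]
    have h3 := Q.one_le_rs i
    have h4 : 1 * 1 ≤ K1 * Q.rs i := mul_le_mul hK11 h3 zero_le_one hK10
    linarith
  -- legal increments
  have hoff : ∀ x y z : ℝ, 0 ≤ y → y ≤ x → 0 ≤ z → z ≤ x →
      x • q + y • R.e N + z • eZ R A Z ∈ Q.L y0 (R.vec A) 0 := by
    intro x y z hy hyx hz hzx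
    have h1 := cone.add _ (roomy cone hmM hmN hy hyx) _ (roomy cone hmM hmZ hz hzx)
    have h2 : x • m + y • R.e N + (x • m + z • eZ R A Z) =
        x • q + y • R.e N + z • eZ R A Z := by
      rw [hq]
      funext i
      simp only [Pi.add_apply, Pi.smul_apply, smul_eq_mul]; ring
    rwa [h2] at h1
  obtain ⟨D, hD⟩ : ∃ D : ℝ, D = ‖q‖ + ‖R.e N‖ + ‖eZ R A Z‖ + 1 := ⟨_, rfl⟩
  have hD0 : 0 < D := by rw [hD]; positivity
  have hnorm : ∀ x y z : ℝ, 0 ≤ y → y ≤ x → 0 ≤ z → z ≤ x →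
      ‖x • q + y • R.e N + z • eZ R A Z‖ ≤ x * D := by
    intro x y z hy hyx hz hzx
    have hx : 0 ≤ x := hy.trans hyx
    have h1 : ‖x • q‖ = x * ‖q‖ := by rw [norm_smul, Real.norm_of_nonneg hx]
    have h2 : ‖y • R.e N‖ ≤ x * ‖R.e N‖ := by
      rw [norm_smul, Real.norm_of_nonneg hy]
      exact mul_le_mul_of_nonneg_right hyx (norm_nonneg _)
    have h3 : ‖z • eZ R A Z‖ ≤ x * ‖eZ R A Z‖ := by
      rw [norm_smul, Real.norm_of_nonneg hz]
      exact mul_le_mul_of_nonneg_right hzx (norm_nonneg _)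
    have h4 := norm_add_le (x • q + y • R.e N) (z • eZ R A Z)
    have h5 := norm_add_le (x • q) (y • R.e N)
    have h6 : x * D = x * ‖q‖ + x * ‖R.e N‖ + x * ‖eZ R A Z‖ + x := by rw [hD]; ring
    rw [h6]
    linarith
  obtain ⟨c0, hc0⟩ : ∃ c0 : ℝ, c0 = min (cp / D) (cm / D) := ⟨_, rfl⟩
  have hc00 : 0 < c0 := by rw [hc0]; exact lt_min (by positivity) (by positivity)
  have hc0p : ∀ x s : ℝ, 0 ≤ s → x ≤ c0 * s → x * D ≤ cp * s := by
    intro x s hs' hx
    have h1 : c0 ≤ cp / D := by rw [hc0]; exact min_le_left _ _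
    have h2 : x ≤ cp / D * s := hx.trans (mul_le_mul_of_nonneg_right h1 hs')
    calc x * D ≤ cp / D * s * D := mul_le_mul_of_nonneg_right h2 hD0.le
      _ = cp * s := by field_simp
  have hc0m : ∀ x s : ℝ, 0 ≤ s → x ≤ c0 * s → x * D ≤ cm * s := by
    intro x s hs' hx
    have h1 : c0 ≤ cm / D := by rw [hc0]; exact min_le_right _ _
    have h2 : x ≤ cm / D * s := hx.trans (mul_le_mul_of_nonneg_right h1 hs')
    calc x * D ≤ cm / D * s * D := mul_le_mul_of_nonneg_right h2 hD0.le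
      _ = cm * s := by field_simp
  -- slots of `Z` in the chart
  obtain ⟨Zi, hZi⟩ : ∃ Zi : Finset ι, Zi = Finset.univ.filter (fun i => R.cls i ∈ Z) := ⟨_, rfl⟩
  have hZm : ∀ i, i ∈ Zi ↔ R.cls i ∈ Z := fun i => by
    rw [hZi, Finset.mem_filter]; simp
  have hj0Z : j0 ∉ Zi := fun h => hNZ (hj0 ▸ (hZm j0).1 h)
  have hslZ : ∀ (B : τ → ℝ) (i : ι), R.cls i ∈ Z → sl R N j0 B i = R.mu i * B (R.cls i) := by
    intro B i hi
    have h1 : ¬ R.cls i = N := fun e => hNZ (e ▸ hi)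
    unfold sl
    rw [if_neg h1]
  have hslN : ∀ B : τ → ℝ, sl R N j0 B j0 = B N := by
    intro B; unfold sl; rw [if_pos hj0, if_pos rfl]
  -- bounds
  obtain ⟨RR, hRR⟩ : ∃ RR : ℝ, RR = ∑ i, (|sl R N j0 A i| + |sl R N j0 Bd i|) := ⟨_, rfl⟩
  have hRt : ∀ i, |sl R N j0 A i| + |sl R N j0 Bd i| ≤ RR := fun i => by
    rw [hRR]
    exact Finset.single_le_sum (f := fun i => |sl R N j0 A i| + |sl R N j0 Bd i|)
      (fun i _ => add_nonneg (abs_nonneg _) (abs_nonneg _)) (Finset.mem_univ i)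
  have hRR0 : 0 ≤ RR := by
    have := hRt j0
    linarith [abs_nonneg (sl R N j0 A j0), abs_nonneg (sl R N j0 Bd j0)]
  obtain ⟨r0, hr0, hr0Z⟩ : ∃ r0 : ℝ, 0 < r0 ∧ ∀ i ∈ Zi, r0 ≤ sl R N j0 A i := by
    obtain ⟨i1, hi1, hmin⟩ := Finset.exists_min_image Zi (sl R N j0 A)
      ⟨jz, (hZm jz).2 (hjz ▸ hz0)⟩
    refine ⟨sl R N j0 A i1, ?_, hmin⟩
    rw [hslZ A i1 ((hZm i1).1 hi1)]
    exact mul_pos (R.pos i1) (hAZ _ ((hZm i1).1 hi1))
  -- membership
  have hU : ∀ s x y : ℝ, 0 ≤ s → 0 ≤ y → y ≤ x →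
      col R N j0 (Ub (sl R N j0 Bp) q j0 s x y) ∈ Q.L y0 (R.vec A) 0 := by
    intro s x y hs' hy hyx
    rw [col_Ub hj0 hqN]
    have h1 := hoff x y 0 hy hyx le_rfl (hy.trans hyx)
    have h2 := cone.add _ (cone.smul _ hlp s hs') _ h1
    rw [zero_smul, add_zero] at h2
    rwa [← add_assoc] at h2
  have hnatM : ∀ l α : ℝ, 0 ≤ l → R.vec (l • Bm + α • A) ∈ Q.L y0 (R.vec A) 0 := by
    intro l α hl
    rw [R.vec_add, R.vec_smul, R.vec_smul]
    exact cone.add _ (cone.smul _ hlm l hl) _ (neg_vecA_mem α)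
  have hB : ∀ v s x y z : ℝ, 0 ≤ v → s ≤ 0 → 0 ≤ y → y ≤ x → 0 ≤ z → z ≤ x →
      col R N j0 (Lb (sl R N j0 A) (fun i => -(sl R N j0 Bd i)) q Zi j0 v s x y z) ∈
        Q.L y0 (R.vec A) 0 := by
    intro v s x y z _ hs' hy hyx hz hzx
    rw [col_Lb hj0 hNZ hqN hZm, hnat]
    have h1 := cone.add _ (hnatM (-s) (v + s * Bm z0) (by linarith)) _
      (hoff x y z hy hyx hz hzx)
    rwa [← add_assoc, ← add_assoc] at h1
  -- window cones
  have hWp : ∀ s x y : ℝ, 0 ≤ s → 0 ≤ y → y ≤ x → x ≤ c0 * s →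
      s • R.vec Bp + x • q + y • R.e N ∈ (R.srf y0 A Bp 1).LW Q cp := by
    intro s x y hs' hy hyx hxs
    have h1 := hp.memLW (R := R) (y0 := y0) (Q := Q) (c0 := cp) (α := 0) hs'
      (L_sub (hoff x y 0 hy hyx le_rfl (hy.trans hyx)))
      ((hnorm x y 0 hy hyx le_rfl (hy.trans hyx)).trans (hc0p x s hs' hxs))
    rw [zero_smul, zero_smul, add_zero, add_zero, R.vec_smul, ← add_assoc] at h1
    exact h1
  have hWm : ∀ v s x y z : ℝ, s ≤ 0 → 0 ≤ y → y ≤ x → 0 ≤ z → z ≤ x → x ≤ c0 * -s →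
      R.vec ((-s) • Bm + (v + s * Bm z0) • A) + x • q + y • R.e N + z • eZ R A Z ∈
        (R.srf y0 A Bm (-1)).LW Q cm := by
    intro v s x y z hs' hy hyx hz hzx hxs
    have h1 := hm.memLW (R := R) (y0 := y0) (Q := Q) (c0 := cm) (α := v + s * Bm z0)
      (l := -s) (by linarith) (L_sub (hoff x y z hy hyx hz hzx))
      ((hnorm x y z hy hyx hz hzx).trans (hc0m x (-s) (by linarith) hxs))
    rwa [← add_assoc, ← add_assoc] at h1
  have hrec : Rec2 (fun c => lam (col R N j0 c)) {c | col R N j0 c ∈ Q.L y0 (R.vec A) 0}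
      (sl R N j0 A) (sl R N j0 Bp) (fun i => -(sl R N j0 Bd i)) q Zi j0 RR r0 (K * RR) c0 own
      rp rm rz := by
    refine
      { sup := ?_, supc := ?_, hc0 := hc00, hr0 := hr0, hR := hRR0, hK := mul_nonneg hK hRR0,
        bdr := ?_, bdb := ?_, bp := ?_, bpN := ?_, bmN := ?_, rN := ?_, NZ := hj0Z, zr := hr0Z,
        zb := ?_, zq := fun i hi => hqZ i ((hZm i).1 hi), q0 := hq0, qN := hqN j0 hj0,
        cp := ?_, cq := ?_, legU := hU, legB := hB, Np := ?_, Nm := ?_, Zm := ?_, ow := ?_,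
        lip := ?_ }
    · intro p hp' p' hp'' h1 h2
      simp only [Set.mem_ofPred_eq] at hp' hp'' h1 h2
      rw [col_inf] at h1
      rw [col_sup] at h2
      have := hs _ hp' _ hp'' h1 h2
      simp only [col_sup, col_inf]
      exact this
    · intro p hp' p' hp''
      simp only [Set.mem_ofPred_eq] at hp' hp'' ⊢
      rw [col_sup]
      exact L_sup hp' hp''
    · intro i
      linarith [hRt i, abs_nonneg (sl R N j0 Bd i)]
    · intro i
      rw [abs_neg]
      linarith [hRt i, abs_nonneg (sl R N j0 A i)]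
    · intro i
      unfold sl
      have h1 : ∀ t, 0 ≤ Bp t := fun t => by have := hp.nn t; rwa [one_mul] at this
      split_ifs
      · exact h1 N
      · exact le_rfl
      · exact mul_nonneg (R.pos i).le (h1 _)
    · rw [hslN]; exact hBpN
    · simp only [hslN]; linarith
    · rw [hslN]; exact hAN
    · intro i hi
      rw [hslZ Bp i ((hZm i).1 hi), hBZ _ ((hZm i).1 hi), mul_zero]
    · intro i hi hij
      rw [hslN, hslN]
      have hi' : R.cls i ∉ Z := fun h => hi ((hZm i).2 h)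
      unfold sl
      by_cases h : R.cls i = N
      · rw [if_pos h, if_pos h, if_neg hij, if_neg hij]; linarith
      · rw [if_neg h, if_neg h]
        have h1 := mul_le_mul_of_nonneg_left (hcmp _ hi' h) (R.pos i).le
        linarith
    · intro i hi hij
      have hi' : R.cls i ∉ Z := fun h => hi ((hZm i).2 h)
      by_cases h : R.cls i = N
      · right
        unfold sl
        rw [if_pos h, if_neg hij]
        simp only [if_pos h, if_neg hij]
        exact ⟨le_rfl, by simp⟩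
      · left
        exact hq1 i hi' h
    · intro s x h hh hhx hxs
      have hs' : 0 ≤ s := by
        by_contra hcon
        push Not at hcon
        have := mul_neg_of_pos_of_neg hc00 hcon
        linarith
      rw [col_Ub hj0 hqN, col_Ub hj0 hqN, zero_smul, add_zero]
      have h1 := hWp s x 0 hs' le_rfl (hh.le.trans hhx) hxs
      have h2 := hWp s x h hs' hh.le hhx hxs
      rw [zero_smul, add_zero] at h1
      have h3 := hrp _ (s * Bp N) h (fun i hi => by
        simp only [Pi.add_apply, Pi.smul_apply, smul_eq_mul, RS.vec, hqN i hi, hi]; ring) h1 h2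
      exact h3.ge
    · intro v s h hv hh hhs
      have hs' : s ≤ 0 := by
        by_contra hcon
        push Not at hcon
        have := mul_neg_of_pos_of_neg hc00 (neg_neg_of_pos hcon)
        linarith
      rw [col_Lb hj0 hNZ hqN hZm, col_Lb hj0 hNZ hqN hZm, hnat]
      have h1 := hWm v s h 0 0 hs' le_rfl hh.le le_rfl hh.le hhs
      have h2 := hWm v s h h 0 hs' hh.le le_rfl le_rfl hh.le hhs
      simp only [zero_smul, add_zero] at h1 h2 ⊢
      have h3 := hrm _ ((-s) * Bm N + (v + s * Bm z0) * A N) h (fun i hi => by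
        simp only [Pi.add_apply, Pi.smul_apply, smul_eq_mul, RS.vec, hqN i hi, hi]; ring) h1 h2
      exact h3.le
    · intro v s h hv hh hhs
      have hs' : s ≤ 0 := by
        by_contra hcon
        push Not at hcon
        have := mul_neg_of_pos_of_neg hc00 (neg_neg_of_pos hcon)
        linarith
      rw [col_Lb hj0 hNZ hqN hZm, col_Lb hj0 hNZ hqN hZm, hnat]
      have h1 := hWm v s h 0 0 hs' le_rfl hh.le le_rfl hh.le hhs
      have h2 := hWm v s h 0 h hs' le_rfl hh.le hh.le le_rfl hhs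
      simp only [zero_smul, add_zero] at h1 h2 ⊢
      have h3 := hrz _ (-s) (v + s * Bm z0) h (fun i hi => by
        simp only [Pi.add_apply, Pi.smul_apply, smul_eq_mul, RS.vec, hqZ i hi]; ring) h1 h2
      exact h3.le
    · intro s x v σ hs' hx hv hσ hz hC
      simp only [Set.mem_ofPred_eq] at hC ⊢
      refine hown _ (hU s x 0 hs' le_rfl hx) _ hC ?_ v hv ?_
      · intro i
        simp only [col]
        by_cases h : R.cls i = N
        · rw [if_pos h, if_pos h]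
          refine mul_le_mul_of_nonneg_left ?_ (R.pos i).le
          simp only [Ub, Cb, if_neg hj0Z]
          exact le_rfl
        · rw [if_neg h, if_neg h]
          by_cases h2 : i ∈ Zi
          · have h3 := (hZm i).1 h2
            have hij : i ≠ j0 := fun e => h (e ▸ hj0)
            simp only [Ub, Cb, if_pos h2, if_neg hij]
            rw [hslZ Bp i h3, hBZ _ h3, hqZ i h3]
            have := hz i h2
            linarith
          · simp only [Ub, Cb, if_neg h2]; exact le_rfl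
      · intro i hi
        have h3 : R.cls i ∈ Z := by rw [hi]; exact hz0
        have h : R.cls i ≠ N := fun e => hNZ (e ▸ h3)
        have h2 := (hZm i).2 h3
        have hij : i ≠ j0 := fun e => h (e ▸ hj0)
        simp only [col, if_neg h, Ub, Cb, if_pos h2, if_neg hij]
        rw [hslZ Bp i h3, hBZ _ h3, hqZ i h3, hslZ A i h3, hslZ Bd i h3, hi, hBdz, hAz]
        ring
    · intro s x v σ hs' hx hv hσ hz hC
      simp only [Set.mem_ofPred_eq] at hC ⊢
      have h1 := hlip _ (hU s x 0 hs' le_rfl hx) _ hC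
      have hvs : 0 ≤ v - σ := by linarith
      have h2 : dist (col R N j0 (Ub (sl R N j0 Bp) q j0 s x 0))
          (col R N j0 (Cb (sl R N j0 A) (sl R N j0 Bp) (fun i => -(sl R N j0 Bd i)) q Zi j0
            s x 0 v σ 0)) ≤ RR * (v - σ) := by
        rw [dist_pi_le_iff (mul_nonneg hRR0 hvs)]
        intro i
        rw [Real.dist_eq]
        have hb : 0 ≤ RR * (v - σ) := mul_nonneg hRR0 hvs
        simp only [col]
        by_cases h : R.cls i = N
        · rw [if_pos h, if_pos h]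
          simp only [Ub, Cb, if_neg hj0Z, sub_self, abs_zero]
          exact hb
        · rw [if_neg h, if_neg h]
          by_cases h2 : i ∈ Zi
          · have h3 := (hZm i).1 h2
            have hij : i ≠ j0 := fun e => h (e ▸ hj0)
            simp only [Ub, Cb, if_pos h2, if_neg hij]
            rw [hslZ Bp i h3, hBZ _ h3, hqZ i h3]
            have e1 : |sl R N j0 A i| ≤ RR := by linarith [hRt i, abs_nonneg (sl R N j0 Bd i)]
            have e2 : |sl R N j0 Bd i| ≤ RR := by linarith [hRt i, abs_nonneg (sl R N j0 A i)]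
            have e3 : |sl R N j0 A i * v| ≤ RR * v := by
              rw [abs_mul, abs_of_nonneg hv]; exact mul_le_mul_of_nonneg_right e1 hv
            have e4 : |sl R N j0 Bd i * σ| ≤ RR * -σ := by
              rw [abs_mul, abs_of_nonpos hσ]
              exact mul_le_mul_of_nonneg_right e2 (by linarith)
            have e5 : R.mu i * 0 * s + x * 0 + 0 - (sl R N j0 A i * v + -sl R N j0 Bd i * σ +
                0 * sl R N j0 A i) = -(sl R N j0 A i * v) + sl R N j0 Bd i * σ := by ring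
            rw [e5]
            have e6 := abs_add_le (-(sl R N j0 A i * v)) (sl R N j0 Bd i * σ)
            rw [abs_neg] at e6
            linarith
          · simp only [Ub, Cb, if_neg h2, sub_self, abs_zero]
            exact hb
      calc lam _ - lam _ ≤ |lam _ - lam _| := le_abs_self _
        _ ≤ K * dist _ _ := h1
        _ ≤ K * (RR * (v - σ)) := mul_le_mul_of_nonneg_left h2 hK
        _ = K * RR * (v - σ) := by ring
  have key := nz2 hrec
  rwa [hslN] at key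

end main

end Crest.Agent.R116.NZ90
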