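import Crest.Agent.R116.NZ3_90
import Crest.Agent.R116.RbK3_219

/-!
# R116, K-TEXT II-c: the `N`-`z` chain rule, slots of `Z` which also refine above (helper90)

As `NZ90.nz2`, but a slot `i ∈ Z` may be refined above the record (`0 ≤ βp i`), slower than along the
record at equal `N`-level: `βp i * ρ N < ρ i * βp N` (flag `B` on `T⁺` of the `κ`-tie, `1 < k'`).

* **`nz4`** : `ρ N * (rp - rm) ≤ rz - own`
* **`nz_rs4`** : the same over 219's surfaces
* **`nz_sr`** : the same over `SRates`: `rz = ∑ t ∈ rep, ρm t * A t`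
-/

set_option autoImplicit false
set_option linter.unusedSectionVars false
set_option linter.unusedVariables false

open Filter Topology

namespace Crest.Agent.R116.NZ90

section abstract

variable {ι : Type*} [DecidableEq ι]

/-- natural box above the record point, slots `q` refined by `x`, `N` by `y`, `Z` by `z βp` -/
def Vb (βp q : ι → ℝ) (Z : Finset ι) (N : ι) (s x y z : ℝ) : ι → ℝ := fun i =>
  βp i * s + x * q i + (if i = N then y else 0) + (if i ∈ Z then z * βp i else 0)

theorem Vb_zero (βp q : ι → ℝ) (Z : Finset ι) (N : ι) (s x y : ℝ) :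
    Vb βp q Z N s x y 0 = Ub βp q N s x y := by
  funext i; simp only [Vb, Ub]; split_ifs <;> ring

/-- the data at a record point -/
structure Rec4 (g : (ι → ℝ) → ℝ) (L : Set (ι → ℝ)) (ρ βp βm q : ι → ℝ) (Z : Finset ι) (N : ι)
    (R r0 K c0 own rp rm rz : ℝ) : Prop where
  sup : Sup g L
  anti : ∀ p ∈ L, ∀ p' ∈ L, p ≤ p' → g p' ≤ g p
  supc : ∀ p ∈ L, ∀ p' ∈ L, p ⊔ p' ∈ L
  hc0 : 0 < c0
  hr0 : 0 < r0
  hR : 0 ≤ R
  hK : 0 ≤ K
  bdr : ∀ i, |ρ i| ≤ R
  bdb : ∀ i, |βm i| ≤ R
  bp : ∀ i, 0 ≤ βp i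
  bpN : 0 < βp N
  bmN : 0 < βm N
  rN : 0 < ρ N
  NZ : N ∉ Z
  zr : ∀ i ∈ Z, r0 * βp N + βp i * ρ N ≤ ρ i * βp N
  zq : ∀ i ∈ Z, q i = 0
  q0 : ∀ i, 0 ≤ q i
  qN : q N = 0
  /-- at equal `N`-level the slot `i` of the record is coarser than above -/
  cp : ∀ i, i ∉ Z → i ≠ N → ρ i * βp N ≤ βp i * ρ N
  cq : ∀ i, i ∉ Z → i ≠ N → 1 ≤ q i ∨ (ρ i ≤ 0 ∧ 0 ≤ βm i)
  legV : ∀ s x y z, 0 ≤ s → 0 ≤ y → y ≤ x → 0 ≤ z → z ≤ x → Vb βp q Z N s x y z ∈ L
  legB : ∀ v s x y z, 0 ≤ v → s ≤ 0 → 0 ≤ y → y ≤ x → 0 ≤ z → z ≤ x →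
    Lb ρ βm q Z N v s x y z ∈ L
  Np : ∀ s x h, 0 < h → h ≤ x → x ≤ c0 * s →
    rp * h ≤ g (Ub βp q N s x 0) - g (Ub βp q N s x h)
  Nm : ∀ v s h, 0 ≤ v → 0 < h → h ≤ c0 * (-s) →
    g (Lb ρ βm q Z N v s h 0 0) - g (Lb ρ βm q Z N v s h h 0) ≤ rm * h
  Zm : ∀ v s h, 0 ≤ v → 0 < h → h ≤ c0 * (-s) →
    g (Lb ρ βm q Z N v s h 0 0) - g (Lb ρ βm q Z N v s h 0 h) ≤ rz * h
  /-- own rate of `z` -/
  ow : ∀ s x v σ, 0 ≤ s → 0 ≤ x → 0 ≤ v → σ ≤ 0 → (∀ i ∈ Z, βp i * s ≤ ρ i * v + βm i * σ) →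
    Cb ρ βp βm q Z N s x 0 v σ 0 ∈ L →
    own * v ≤ g (Ub βp q N s x 0) - g (Cb ρ βp βm q Z N s x 0 v σ 0)
  lip : ∀ s x v σ, 0 ≤ s → 0 ≤ x → 0 ≤ v → σ ≤ 0 → (∀ i ∈ Z, βp i * s ≤ ρ i * v + βm i * σ) →
    Cb ρ βp βm q Z N s x 0 v σ 0 ∈ L →
    g (Ub βp q N s x 0) - g (Cb ρ βp βm q Z N s x 0 v σ 0) ≤ K * (v - σ)

section

variable {g : (ι → ℝ) → ℝ} {L : Set (ι → ℝ)} {ρ βp βm q : ι → ℝ} {Z : Finset ι} {N : ι}
  {R r0 K c0 own rp rm rz : ℝ}

set_option maxHeartbeats 4000000 in
/-- **the `N`-`z` chain rule**, `Z` may refine above -/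
theorem nz4 (H : Rec4 g L ρ βp βm q Z N R r0 K c0 own rp rm rz) :
    ρ N * (rp - rm) ≤ rz - own := by
  have hc := H.hc0
  have hbp := H.bpN
  have hbm := H.bmN
  have hρ := H.rN
  have hR := H.hR
  have hr0 := H.hr0
  have hKK := H.hK
  -- constants
  obtain ⟨w, hw⟩ : ∃ w : ℝ, w = (1 + 1 / ρ N) / c0 := ⟨_, rfl⟩
  have hw0 : 0 < w := by rw [hw]; positivity
  have hcw : c0 * w = 1 + 1 / ρ N := by rw [hw]; field_simp
  obtain ⟨κ, hκ⟩ : ∃ κ : ℝ, κ = βm N * w / ρ N := ⟨_, rfl⟩
  have hκ0 : 0 < κ := by rw [hκ]; positivity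
  have hρκ : ρ N * κ = βm N * w := by rw [hκ]; field_simp
  obtain ⟨K1, hK1⟩ : ∃ K1 : ℝ, K1 = R * κ + R * w + (1 + 1 / ρ N) + 1 / βp N := ⟨_, rfl⟩
  have hρi : 0 < 1 / ρ N := by positivity
  have hβi : 0 < 1 / βp N := by positivity
  have hK11 : 1 ≤ K1 := by
    rw [hK1]
    have := mul_nonneg hR hκ0.le
    have := mul_nonneg hR hw0.le
    linarith
  have hK10 : 0 < K1 := by linarith
  obtain ⟨A1, hA1⟩ := exists_nat_ge (K1 * βp N / c0)
  obtain ⟨A2, hA2⟩ := exists_nat_ge (((R * w * ρ N + R)) / r0)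
  rw [div_le_iff₀ hc] at hA1
  obtain ⟨A, hA⟩ : ∃ A : ℕ, A = max A1 A2 := ⟨_, rfl⟩
  have hAp : K1 * βp N ≤ A * c0 := hA1.trans
    (mul_le_mul_of_nonneg_right (by rw [hA]; exact_mod_cast le_max_left _ _) hc.le)
  have hAz : R * w * ρ N + R ≤ r0 * A := by
    have h1 : (R * w * ρ N + R) / r0 ≤ A := hA2.trans (by rw [hA]; exact_mod_cast le_max_right _ _)
    rw [div_le_iff₀ hr0] at h1
    linarith
  -- the slots of `Z`
  have hZβ : ∀ i ∈ Z, βp i * ρ N ≤ R * βp N := by
    intro i hi
    have h1 := H.zr i hi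
    have h2 := mul_le_mul_of_nonneg_right (abs_le.1 (H.bdr i)).2 hbp.le
    have h3 : 0 ≤ r0 * βp N := by positivity
    linarith
  have hZρ : ∀ i ∈ Z, 0 ≤ ρ i := by
    intro i hi
    have h1 := H.zr i hi
    have h2 : 0 ≤ βp i * ρ N := mul_nonneg (H.bp i) hρ.le
    have h3 : 0 < r0 * βp N := by positivity
    by_contra hcon
    push Not at hcon
    have := mul_neg_of_neg_of_pos hcon hbp
    linarith
  have hA0 : (0 : ℝ) ≤ A := Nat.cast_nonneg A
  -- the final estimate for `M` steps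
  have main : ∀ M : ℕ, A ≤ M → 0 < M →
      ρ N * (rp - rm) + own - rz ≤ 0 +
        (ρ N * (A * ((rp - rm) - rz / ρ N) + K * (A / ρ N + κ + w) + |own| * κ)) / M := by
    intro M hM hM0
    have hMr : (0 : ℝ) < M := by exact_mod_cast hM0
    obtain ⟨h, hh⟩ : ∃ h : ℝ, h = ρ N / M := ⟨_, rfl⟩
    have hh0 : 0 < h := by rw [hh]; positivity
    have hMh : (M : ℝ) * h = ρ N := by rw [hh]; field_simp
    obtain ⟨h', hh'⟩ : ∃ h' : ℝ, h' = h / ρ N := ⟨_, rfl⟩
    have hh'0 : 0 < h' := by rw [hh']; positivity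
    have hρh' : ρ N * h' = h := by rw [hh']; field_simp
    obtain ⟨x, hx⟩ : ∃ x : ℝ, x = K1 * h := ⟨_, rfl⟩
    have hhx : h ≤ x := by rw [hx]; exact le_mul_of_one_le_left hh0.le hK11
    have hρhh : 0 ≤ 1 / ρ N * h := (mul_pos hρi hh0).le
    have hβhh : 0 ≤ 1 / βp N * h := (mul_pos hβi hh0).le
    have hx0 : 0 ≤ x := by linarith
    -- levels
    have hσ : -(w * h) ≤ 0 := by have := mul_pos hw0 hh0; linarith
    have hwin : h ≤ c0 * -(-(w * h)) := by
      rw [neg_neg, ← mul_assoc, hcw]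
      linarith
    have hwin' : h' ≤ c0 * -(-(w * h)) := by
      rw [neg_neg, ← mul_assoc, hcw, hh']
      have : h / ρ N = 1 / ρ N * h := by ring
      rw [this]
      linarith
    have hv0 : ∀ m : ℕ, 0 ≤ (m : ℝ) * h' + κ * h := fun m => by positivity
    have hs0 : ∀ m : ℕ, 0 ≤ (m : ℝ) * h / βp N := fun m => by positivity
    have hzl1 : ∀ m : ℕ, A ≤ m → ∀ i ∈ Z, βp i * (((m : ℝ) + 1) * h / βp N) ≤
        ρ i * ((m : ℝ) * h' + κ * h) + βm i * -(w * h) := by
      intro m hm i hi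
      have hmr : (A : ℝ) ≤ m := by exact_mod_cast hm
      have hm0 : (0 : ℝ) ≤ m := Nat.cast_nonneg m
      have hρi0 := hZρ i hi
      have h2 := (abs_le.1 (H.bdb i)).2
      -- multiply by `βp N * ρ N`
      have a1 : r0 * βp N * (m * h) + βp i * ρ N * (m * h) ≤ ρ i * βp N * (m * h) := by
        have := mul_le_mul_of_nonneg_right (H.zr i hi) (mul_nonneg hm0 hh0.le)
        linarith
      have a2 : βp i * ρ N * h ≤ R * βp N * h :=
        mul_le_mul_of_nonneg_right (hZβ i hi) hh0.le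
      have a3 : (R * w * ρ N + R) * (βp N * h) ≤ r0 * m * (βp N * h) := by
        refine mul_le_mul_of_nonneg_right (hAz.trans ?_) (by positivity)
        exact mul_le_mul_of_nonneg_left hmr hr0.le
      have a4 : βm i * (w * h) * (ρ N * βp N) ≤ R * (w * h) * (ρ N * βp N) :=
        mul_le_mul_of_nonneg_right (mul_le_mul_of_nonneg_right h2 (by positivity)) (by positivity)
      have a5 : 0 ≤ ρ i * (κ * h) * (ρ N * βp N) := by positivity
      have key : βp i * ρ N * ((m + 1) * h) ≤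
          (ρ i * ((m : ℝ) * h' + κ * h) + βm i * -(w * h)) * (ρ N * βp N) := by
        have e1 : (ρ i * ((m : ℝ) * h' + κ * h) + βm i * -(w * h)) * (ρ N * βp N) =
            ρ i * βp N * (m * (ρ N * h')) + ρ i * (κ * h) * (ρ N * βp N) -
              βm i * (w * h) * (ρ N * βp N) := by ring
        rw [e1, hρh']
        have e2 : R * (w * h) * (ρ N * βp N) = R * w * ρ N * (βp N * h) := by ring
        have e3 : (R * w * ρ N + R) * (βp N * h) = R * w * ρ N * (βp N * h) + R * βp N * h := by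
          ring
        have e4 : r0 * m * (βp N * h) = r0 * βp N * (m * h) := by ring
        have e5 : βp i * ρ N * ((m + 1) * h) = βp i * ρ N * (m * h) + βp i * ρ N * h := by ring
        linarith
      have e6 : βp i * ((m + 1) * h / βp N) * (ρ N * βp N) = βp i * ρ N * ((m + 1) * h) := by
        field_simp
      have hpos : 0 < ρ N * βp N := by positivity
      refine le_of_mul_le_mul_right ?_ hpos
      rw [e6]; exact key
    have hzl' : ∀ m m' : ℕ, A ≤ m → m' ≤ m + 1 → ∀ i ∈ Z, βp i * ((m' : ℝ) * h / βp N) ≤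
        ρ i * ((m : ℝ) * h' + κ * h) + βm i * -(w * h) := by
      intro m m' hm hm' i hi
      refine le_trans ?_ (hzl1 m hm i hi)
      refine mul_le_mul_of_nonneg_left ?_ (H.bp i)
      refine div_le_div_of_nonneg_right (mul_le_mul_of_nonneg_right ?_ hh0.le) hbp.le
      exact_mod_cast hm'
    have hzl : ∀ m : ℕ, A ≤ m → ∀ i ∈ Z, βp i * ((m : ℝ) * h / βp N) ≤
        ρ i * ((m : ℝ) * h' + κ * h) + βm i * -(w * h) := fun m hm =>
      hzl' m m hm (by omega)
    have hUl : ∀ s x y : ℝ, 0 ≤ s → 0 ≤ y → y ≤ x → Ub βp q N s x y ∈ L := by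
      intro s x y hs hy hyx
      rw [← Vb_zero βp q Z]
      exact H.legV _ _ _ _ hs hy hyx le_rfl (hy.trans hyx)
    -- domination of the slots outside `Z`
    have dom : ∀ (m : ℕ) (x' : ℝ), 0 ≤ x' → x' ≤ (1 + 1 / ρ N) * h → ∀ i, i ∉ Z → i ≠ N →
        ρ i * ((m : ℝ) * h' + κ * h) + βm i * -(w * h) + x' * q i ≤
          βp i * (m * h / βp N) + x * q i := by
      intro m x' hx'0 hx' i hi hiN
      have hm0 : (0 : ℝ) ≤ m := Nat.cast_nonneg m
      have h0 : 0 ≤ βp i * (m * h / βp N) := mul_nonneg (H.bp i) (hs0 m)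
      have hq := H.q0 i
      have hxx : x' * q i ≤ x * q i := by
        refine mul_le_mul_of_nonneg_right (hx'.trans ?_) hq
        rw [hx, hK1]
        have h1 := mul_nonneg (mul_nonneg hR hκ0.le) hh0.le
        have h2 := mul_nonneg (mul_nonneg hR hw0.le) hh0.le
        linarith
      rcases H.cq i hi hiN with h1 | ⟨h1, h2⟩
      · have e1 : ρ i * (m * h') ≤ βp i * (m * h / βp N) := by
          have h3 := H.cp i hi hiN
          rw [mul_div_assoc', le_div_iff₀ hbp, ← hρh']
          linarith [mul_le_mul_of_nonneg_right h3 (mul_nonneg hm0 hh'0.le)]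
        have h4 := (abs_le.1 (H.bdr i)).2
        have h5 := (abs_le.1 (H.bdb i)).1
        have e2 : ρ i * (κ * h) ≤ R * (κ * h) := mul_le_mul_of_nonneg_right h4 (by positivity)
        have e3 : βm i * -(w * h) ≤ R * (w * h) := by
          have := mul_nonneg (by linarith : 0 ≤ βm i + R) (mul_nonneg hw0.le hh0.le)
          linarith
        have e4 : (x - x') * 1 ≤ (x - x') * q i := by
          refine mul_le_mul_of_nonneg_left h1 ?_
          rw [hx, hK1]
          have h6 := mul_nonneg (mul_nonneg hR hκ0.le) hh0.le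
          have h7 := mul_nonneg (mul_nonneg hR hw0.le) hh0.le
          linarith
        have e5 : R * (κ * h) + R * (w * h) ≤ x - x' := by
          rw [hx, hK1]; linarith
        linarith
      · have e1 : ρ i * ((m : ℝ) * h' + κ * h) ≤ 0 :=
          mul_nonpos_of_nonpos_of_nonneg h1 (hv0 m)
        have e2 : βm i * -(w * h) ≤ 0 := by
          have := mul_nonneg h2 (mul_nonneg hw0.le hh0.le)
          linarith
        linarith
    -- the slot `N` of the lower box
    have hN : ∀ m : ℕ, ρ N * ((m : ℝ) * h' + κ * h) + βm N * -(w * h) = m * h := by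
      intro m
      have e1 : ρ N * (κ * h) = βm N * (w * h) := by rw [← mul_assoc, hρκ]; ring
      calc ρ N * ((m : ℝ) * h' + κ * h) + βm N * -(w * h)
          = m * (ρ N * h') + (ρ N * (κ * h) - βm N * (w * h)) := by ring
        _ = m * h := by rw [hρh', e1]; ring
    have hNs : ∀ m : ℕ, βp N * (m * h / βp N) = m * h := fun m => by field_simp
    -- legality of the joins
    have cleg : ∀ (m m' : ℕ), A ≤ m → m ≤ m' → m' ≤ m + 1 → ∀ y z x' : ℝ, 0 ≤ y → y ≤ x → 0 ≤ z → z ≤ x' →
        0 ≤ x' → x' ≤ (1 + 1 / ρ N) * h →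
        Cb ρ βp βm q Z N (m' * h / βp N) x y ((m : ℝ) * h' + κ * h) (-(w * h)) z ∈ L := by
      intro m m' hm hmm hmm1' y z x' hy hyx hz hzx hx'0 hx'
      have e : Cb ρ βp βm q Z N (m' * h / βp N) x y ((m : ℝ) * h' + κ * h) (-(w * h)) z =
          Ub βp q N (m' * h / βp N) x y ⊔
            Lb ρ βm q Z N ((m : ℝ) * h' + κ * h) (-(w * h)) x' 0 z := by
        funext i
        simp only [Cb, Ub, Lb, Pi.sup_apply]
        have hmm' : (m : ℝ) ≤ m' := by exact_mod_cast hmm
        by_cases hi : i ∈ Z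
        · have hiN : i ≠ N := fun e => H.NZ (e ▸ hi)
          rw [if_pos hi, if_pos hi, if_neg hiN, if_neg hiN, H.zq i hi]
          have h1 := hzl' m m' hm hmm1' i hi
          have h2 : 0 ≤ z * ρ i := mul_nonneg hz (hZρ i hi)
          rw [max_eq_right (by linarith)]
          ring
        · rw [if_neg hi, if_neg hi]
          by_cases hiN : i = N
          · subst hiN
            rw [if_pos rfl, if_pos rfl, hN m, H.qN, hNs m']
            have h3 : (m : ℝ) * h ≤ m' * h := mul_le_mul_of_nonneg_right hmm' hh0.le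
            rw [max_eq_left (by linarith)]
          · rw [if_neg hiN, if_neg hiN]
            have h1 := dom m x' hx'0 hx' i hi hiN
            have h3 : βp i * (m * h / βp N) ≤ βp i * (m' * h / βp N) := by
              refine mul_le_mul_of_nonneg_left ?_ (H.bp i)
              exact div_le_div_of_nonneg_right (mul_le_mul_of_nonneg_right hmm' hh0.le) hbp.le
            rw [max_eq_left (by linarith)]
      rw [e]
      exact H.supc _ (hUl _ _ _ (hs0 m') hy hyx) _
        (H.legB _ _ _ _ _ (hv0 m) hσ le_rfl hx'0 hz hzx)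
    have hbnd : h ≤ (1 + 1 / ρ N) * h := by linarith
    have hbnd' : h' ≤ (1 + 1 / ρ N) * h := by
      rw [hh']
      have : h / ρ N = 1 / ρ N * h := by ring
      rw [this]; linarith
    -- the chain step
    have step : ∀ m : ℕ, A ≤ m →
        (rp - rm) * h - rz * h' ≤
        (g (Ub βp q N (m * h / βp N) x 0) -
          g (Cb ρ βp βm q Z N (m * h / βp N) x 0 ((m : ℝ) * h' + κ * h) (-(w * h)) 0)) -
        (g (Ub βp q N ((m + 1 : ℕ) * h / βp N) x 0) -
          g (Cb ρ βp βm q Z N ((m + 1 : ℕ) * h / βp N) x 0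
            (((m + 1 : ℕ) : ℝ) * h' + κ * h) (-(w * h)) 0)) := by
      intro m hm
      have hmr : (A : ℝ) ≤ m := by exact_mod_cast hm
      have hm0 : (0 : ℝ) ≤ m := Nat.cast_nonneg m
      -- N-step above
      have k1 : rp * h ≤ g (Ub βp q N (m * h / βp N) x 0) - g (Ub βp q N (m * h / βp N) x h) := by
        refine H.Np _ _ _ hh0 hhx ?_
        rw [mul_div_assoc', le_div_iff₀ hbp, hx]
        have h1 := mul_le_mul_of_nonneg_right hAp hh0.le
        have h2 := mul_le_mul_of_nonneg_right (mul_le_mul_of_nonneg_right hmr hc.le) hh0.le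
        linarith
      -- N-step below
      have k2 := H.Nm ((m : ℝ) * h' + κ * h) (-(w * h)) h (hv0 m) hh0 hwin
      -- N-step at the record level
      have k3 : g (Cb ρ βp βm q Z N (m * h / βp N) x 0 ((m : ℝ) * h' + κ * h) (-(w * h)) 0) -
          g (Cb ρ βp βm q Z N (m * h / βp N) x h ((m : ℝ) * h' + κ * h) (-(w * h)) 0) ≤
          g (Lb ρ βm q Z N ((m : ℝ) * h' + κ * h) (-(w * h)) h 0 0) -
          g (Lb ρ βm q Z N ((m : ℝ) * h' + κ * h) (-(w * h)) h h 0) := by
        refine incr H.sup (H.legB _ _ _ _ _ (hv0 m) hσ le_rfl hh0.le le_rfl hh0.le)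
          (cleg m m hm le_rfl (by omega) 0 0 h le_rfl hx0 le_rfl hh0.le hh0.le hbnd)
          (H.legB _ _ _ _ _ (hv0 m) hσ hh0.le le_rfl le_rfl hh0.le)
          (cleg m m hm le_rfl (by omega) h 0 h hh0.le hhx le_rfl hh0.le hh0.le hbnd) ?_
        intro i
        by_cases hiN : i = N
        · right
          subst hiN
          simp only [Cb, Lb, if_neg H.NZ, if_true, H.qN]
          have e1 := hN m
          have e2 := hNs m
          refine ⟨by linarith, by linarith, by linarith⟩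
        · left
          simp only [Cb, Lb, if_neg hiN]
          refine ⟨trivial, trivial, ?_⟩
          by_cases hi : i ∈ Z
          · rw [if_pos hi, if_pos hi, H.zq i hi]
            linarith
          · rw [if_neg hi, if_neg hi]
            have := dom m h hh0.le hbnd i hi hiN
            linarith
      -- the `Z`-step after the `N`-step
      have hmm1 : (m : ℝ) * h / βp N ≤ ((m + 1 : ℕ) : ℝ) * h / βp N := by
        refine div_le_div_of_nonneg_right (mul_le_mul_of_nonneg_right ?_ hh0.le) hbp.le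
        push_cast; linarith
      have hstep : h / βp N ≤ x := by
        have h1 : h / βp N = 1 / βp N * h := by ring
        rw [h1, hx]
        refine mul_le_mul_of_nonneg_right ?_ hh0.le
        rw [hK1]
        have := mul_nonneg hR hκ0.le
        have := mul_nonneg hR hw0.le
        linarith
      have hstep0 : 0 ≤ h / βp N := by positivity
      have k4' : g (Vb βp q Z N (m * h / βp N) x h (h / βp N)) ≤ g (Ub βp q N (m * h / βp N) x h) := by
        refine H.anti _ (hUl _ _ _ (hs0 m) hh0.le hhx) _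
          (H.legV _ _ _ _ (hs0 m) hh0.le hhx hstep0 hstep) ?_
        intro i
        simp only [Vb, Ub]
        by_cases hi : i ∈ Z
        · rw [if_pos hi]
          have := mul_nonneg hstep0 (H.bp i)
          linarith
        · rw [if_neg hi]; linarith
      have k4 : g (Ub βp q N ((m + 1 : ℕ) * h / βp N) x 0) -
          g (Cb ρ βp βm q Z N ((m + 1 : ℕ) * h / βp N) x 0 ((m : ℝ) * h' + κ * h) (-(w * h)) 0) ≤
          g (Vb βp q Z N (m * h / βp N) x h (h / βp N)) -
          g (Cb ρ βp βm q Z N (m * h / βp N) x h ((m : ℝ) * h' + κ * h) (-(w * h)) 0) := by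
        refine incr H.sup (H.legV _ _ _ _ (hs0 m) hh0.le hhx hstep0 hstep)
          (hUl _ _ _ (hs0 (m + 1)) le_rfl hx0)
          (cleg m m hm le_rfl (by omega) h 0 h hh0.le hhx le_rfl hh0.le hh0.le hbnd)
          (cleg m (m + 1) hm (by omega) le_rfl 0 0 h le_rfl hx0 le_rfl hh0.le hh0.le hbnd) ?_
        intro i
        by_cases hi : i ∈ Z
        · right
          have hiN : i ≠ N := fun e => H.NZ (e ▸ hi)
          simp only [Cb, Ub, Vb, if_pos hi, if_neg hiN, H.zq i hi]
          have h1 := hzl' m (m + 1) hm le_rfl i hi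
          have e1 : βp i * (((m + 1 : ℕ) : ℝ) * h / βp N) = βp i * (m * h / βp N) + h / βp N * βp i := by
            push_cast; field_simp
          rw [e1] at h1 ⊢
          exact ⟨by ring, trivial, by linarith⟩
        · left
          simp only [Cb, Ub, Vb, if_neg hi]
          by_cases hiN : i = N
          · subst hiN
            rw [if_pos rfl, if_pos rfl, H.qN, hNs m, hNs (m + 1)]
            push_cast
            exact ⟨by ring, trivial, by linarith⟩
          · rw [if_neg hiN, if_neg hiN]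
            have := mul_le_mul_of_nonneg_left hmm1 (H.bp i)
            exact ⟨by ring, trivial, by linarith⟩
      -- the joint `Z`-step
      have k5 := H.Zm ((m : ℝ) * h' + κ * h) (-(w * h)) h' (hv0 m) hh'0 hwin'
      have k6 : g (Cb ρ βp βm q Z N ((m + 1 : ℕ) * h / βp N) x 0
            ((m : ℝ) * h' + κ * h) (-(w * h)) 0) -
          g (Cb ρ βp βm q Z N ((m + 1 : ℕ) * h / βp N) x 0
            (((m + 1 : ℕ) : ℝ) * h' + κ * h) (-(w * h)) 0) ≤
          g (Lb ρ βm q Z N ((m : ℝ) * h' + κ * h) (-(w * h)) h' 0 0) -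
          g (Lb ρ βm q Z N ((m : ℝ) * h' + κ * h) (-(w * h)) h' 0 h') := by
        refine incr H.sup (H.legB _ _ _ _ _ (hv0 m) hσ le_rfl hh'0.le le_rfl hh'0.le)
          (cleg m (m + 1) hm (by omega) le_rfl 0 0 h' le_rfl hx0 le_rfl hh'0.le hh'0.le hbnd')
          (H.legB _ _ _ _ _ (hv0 m) hσ le_rfl hh'0.le hh'0.le le_rfl)
          (cleg (m + 1) (m + 1) (by omega) le_rfl (by omega) 0 0 h' le_rfl hx0 le_rfl hh'0.le hh'0.le
            hbnd') ?_
        intro i
        by_cases hi : i ∈ Z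
        · right
          have hiN : i ≠ N := fun e => H.NZ (e ▸ hi)
          simp only [Cb, Lb, if_pos hi, if_neg hiN, H.zq i hi]
          push_cast
          refine ⟨by ring, by ring, ?_⟩
          have := mul_nonneg hh'0.le (hZρ i hi)
          linarith
        · left
          simp only [Cb, Lb, if_neg hi]
          refine ⟨trivial, trivial, ?_⟩
          by_cases hiN : i = N
          · subst hiN
            rw [if_pos rfl, H.qN, hN m, hNs (m + 1)]
            push_cast; linarith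
          · rw [if_neg hiN]
            have h1 := dom m h' hh'0.le hbnd' i hi hiN
            have h2 := mul_le_mul_of_nonneg_left hmm1 (H.bp i)
            linarith
      linarith
    -- telescoping
    have tel : ∀ n : ℕ,
        n * ((rp - rm) * h - rz * h') ≤
        (g (Ub βp q N (A * h / βp N) x 0) -
          g (Cb ρ βp βm q Z N (A * h / βp N) x 0 ((A : ℝ) * h' + κ * h) (-(w * h)) 0)) -
        (g (Ub βp q N ((A + n : ℕ) * h / βp N) x 0) -
          g (Cb ρ βp βm q Z N ((A + n : ℕ) * h / βp N) x 0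
            (((A + n : ℕ) : ℝ) * h' + κ * h) (-(w * h)) 0)) := by
      intro n
      induction n with
      | zero => simp
      | succ n ih =>
        have h2 := step (A + n) (by omega)
        have e : A + (n + 1) = A + n + 1 := by ring
        rw [e]
        push_cast at ih h2 ⊢
        linarith
    have h1 := tel (M - A)
    have e1 : A + (M - A) = M := by omega
    rw [e1] at h1
    have e3 : ((M - A : ℕ) : ℝ) = M - A := by rw [Nat.cast_sub hM]
    rw [e3] at h1
    -- the last box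
    have h2 := H.ow (M * h / βp N) x ((M : ℝ) * h' + κ * h) (-(w * h)) (hs0 M) hx0 (hv0 M) hσ
      (hzl M hM) (cleg M M hM le_rfl (by omega) 0 0 h le_rfl hx0 le_rfl hh0.le hh0.le hbnd)
    -- the first box
    have h3 := H.lip (A * h / βp N) x ((A : ℝ) * h' + κ * h) (-(w * h)) (hs0 A) hx0 (hv0 A) hσ
      (hzl A le_rfl) (cleg A A le_rfl le_rfl (by omega) 0 0 h le_rfl hx0 le_rfl hh0.le hh0.le hbnd)
    have e4 : (M : ℝ) * h' = 1 := by
      rw [hh', ← mul_div_assoc, hMh]; field_simp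
    rw [e4] at h1 h2
    have e5 : ((M : ℝ) - A) * ((rp - rm) * h - rz * h') =
        ρ N * (rp - rm) - rz - A * ((rp - rm) * h - rz * h') := by
      have e6 : (M : ℝ) * ((rp - rm) * h - rz * h') = (M * h) * (rp - rm) - (M * h') * rz := by ring
      rw [hMh, e4] at e6
      linarith
    rw [e5] at h1
    have e7 : own * (1 + κ * h) ≥ own - |own| * (κ * h) := by
      have h8 := neg_abs_le own
      have := mul_nonneg (by linarith : 0 ≤ own + |own|) (mul_nonneg hκ0.le hh0.le)
      linarith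
    have e8 : (ρ N * (A * ((rp - rm) - rz / ρ N) + K * (A / ρ N + κ + w) + |own| * κ)) / M =
        A * ((rp - rm) * h - rz * h') + K * ((A : ℝ) * h' + κ * h - -(w * h)) + |own| * (κ * h) := by
      rw [hh', hh]
      field_simp
      ring
    rw [e8]
    linarith
  have := le_of_div (n0 := A) (C := ρ N * (A * ((rp - rm) - rz / ρ N) + K * (A / ρ N + κ + w)
    + |own| * κ)) (x := ρ N * (rp - rm) + own - rz) (y := 0) main
  linarith

end

end abstract

end Crest.Agent.R116.NZ90
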