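import Crest.Agent.R116.NZ4_90

/-!
# R116, K-TEXT II-c: the `N`-`z` chain rule over the rates `SRates` of 219 (helper90)

* `RateZw`, `rateZw_of` : rate of the joint `Z`-step from `SRates`, `= ∑ t ∈ rep, ρ t * A t`
* **`nz_rs4`** : `nz4` over 219's surfaces, a slot of `Z` may also be refined above the record
* **`nz_sr`** : `A N * (ρp N - ρm N) ≤ ∑ t ∈ rep, ρm t * A t - own`
-/

set_option autoImplicit false
set_option linter.unusedSectionVars false
set_option linter.unusedVariables false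

open Set Filter Topology

namespace Crest.Agent.R116.NZ90

open Crest.Agent.R136
open Dg219 (Tn lf det2 Cone Walls gC nC dhC dirC)
open Rc146 (OutH)
open Rc683 (Srf)
open RbK219 (RS SOk Aln dl Par SRates)

variable {ι W τ : Type*} [Fintype ι] [DecidableEq ι] [Fintype W] [Fintype τ] [DecidableEq τ]

/-! ### the joint step of `Z` -/

/-- `ρ` = rate of the joint `Z`-step; `Z` a union of parallel classes, all partial steps in `LW` -/
def RateZw (R : RS ι τ) (lam : (ι → ℝ) → ℝ) (LW : Set (ι → ℝ)) (A B : τ → ℝ) (Z : Finset τ)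
    (ρ : ℝ) : Prop :=
  ∀ (p : ι → ℝ) (l α x : ℝ), 0 ≤ x →
    (∀ i, R.cls i ∈ Z → p i = R.mu i * (l * B (R.cls i) + α * A (R.cls i))) →
    (∀ Z' : Finset τ, Z' ⊆ Z → (∀ t ∈ Z', ∀ t', Par A B t t' → t' ∈ Z') →
      p + x • eZ R A Z' ∈ LW) →
    lam p - lam (p + x • eZ R A Z) = ρ * x

section

variable {R : RS ι τ} {A B : τ → ℝ} {sg : ℝ}

theorem par_dlA (h : SOk A B sg) {t c : τ} (ht : 0 < A t) (hp : Par A B t c) :
    A t * dl A B sg c = A c * dl A B sg t := by
  unfold RbK219.Par at hp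
  unfold dl
  by_cases h0 : B t = 0
  · rw [h0, mul_zero] at hp
    have h1 : B c = 0 := (mul_eq_zero.1 hp).resolve_left ht.ne'
    rw [if_pos h0, if_pos h1]; ring
  · have h1 : B c ≠ 0 := by
      intro h1
      rw [h1, mul_zero] at hp
      have h2 := h.zero c h1
      exact h0 ((mul_eq_zero.1 hp.symm).resolve_left h2.ne')
    rw [if_neg h0, if_neg h1]
    linear_combination sg * hp

theorem par_dlB (h : SOk A B sg) {t c : τ} (ht : 0 < A t) (hp : Par A B t c) :
    B t * dl A B sg c = B c * dl A B sg t := by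
  unfold RbK219.Par at hp
  unfold dl
  by_cases h0 : B t = 0
  · rw [h0, mul_zero] at hp
    have h1 : B c = 0 := (mul_eq_zero.1 hp).resolve_left ht.ne'
    rw [if_pos h0, if_pos h1, h0, h1]; ring
  · have h1 : B c ≠ 0 := by
      intro h1
      rw [h1, mul_zero] at hp
      have h2 := h.zero c h1
      exact h0 ((mul_eq_zero.1 hp.symm).resolve_left h2.ne')
    rw [if_neg h0, if_neg h1]
    ring

theorem par_trans {t c d : τ} (hc : A c ≠ 0) (h1 : Par A B t c) (h2 : Par A B c d) :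
    Par A B t d := by
  unfold RbK219.Par at *
  apply mul_left_cancel₀ hc
  linear_combination A t * h2 + A d * h1

open Classical in
/-- **rate of the joint `Z`-step** -/
theorem rateZw_of (h : SOk A B sg) {lam : (ι → ℝ) → ℝ} {LW : Set (ι → ℝ)} {ρ : τ → ℝ}
    (H : SRates R A B sg lam LW ρ) {Z rep : Finset τ} (hA : ∀ t ∈ Z, 0 < A t)
    (hZc : ∀ t ∈ Z, ∀ t', Par A B t t' → t' ∈ Z) (hrep : rep ⊆ Z)
    (hex : ∀ c ∈ Z, ∃ t ∈ rep, Par A B t c)
    (hun : ∀ t ∈ rep, ∀ t' ∈ rep, ∀ c ∈ Z, Par A B t c → Par A B t' c → t = t') :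
    RateZw R lam LW A B Z (∑ t ∈ rep, ρ t * A t) := by
  intro p l α x hx hp hmem
  have key : ∀ S : Finset τ, S ⊆ rep →
      lam p - lam (p + x • eZ R A (Z.filter (fun c => ∃ t ∈ S, Par A B t c))) =
        (∑ t ∈ S, ρ t * A t) * x := by
    intro S
    induction S using Finset.induction_on with
    | empty =>
      intro _
      have : eZ R A (Z.filter (fun c => ∃ t ∈ (∅ : Finset τ), Par A B t c)) = 0 := by
        funext i
        unfold eZ
        rw [if_neg]
        · rfl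
        · simp
      rw [this]
      simp
    | insert t S htS ih =>
      intro hS
      have hSr : S ⊆ rep := fun c hc => hS (Finset.mem_insert_of_mem hc)
      have htr : t ∈ rep := hS (Finset.mem_insert_self _ _)
      have htZ := hrep htr
      have htA := hA t htZ
      have hd := (h.dl_pos t).ne'
      have h1 := ih hSr
      have hnot : ∀ c ∈ Z, Par A B t c → c ∉ Z.filter (fun c => ∃ t ∈ S, Par A B t c) := by
        intro c hc hpc hcon
        obtain ⟨t', ht', hp'⟩ := (Finset.mem_filter.1 hcon).2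
        have := hun t htr t' (hSr ht') c hc hpc hp'
        exact htS (this ▸ ht')
      have e1 : eZ R A (Z.filter (fun c => ∃ t' ∈ insert t S, Par A B t' c)) =
          eZ R A (Z.filter (fun c => ∃ t' ∈ S, Par A B t' c)) + A t • R.eG A B sg t := by
        funext i
        simp only [Pi.add_apply, Pi.smul_apply, smul_eq_mul, RS.eG]
        by_cases hpc : Par A B t (R.cls i)
        · have hcZ := hZc t htZ _ hpc
          rw [if_pos hpc]
          unfold eZ
          rw [if_pos (Finset.mem_filter.2 ⟨hcZ, t, Finset.mem_insert_self _ _, hpc⟩),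
            if_neg (hnot _ hcZ hpc)]
          have h2 := par_dlA h htA hpc
          rw [zero_add]
          have h3 : A (R.cls i) = A t * dl A B sg (R.cls i) / dl A B sg t := by
            rw [h2]; field_simp
          rw [h3]; ring
        · rw [if_neg hpc, mul_zero, add_zero]
          unfold eZ
          by_cases hc : R.cls i ∈ Z.filter (fun c => ∃ t' ∈ S, Par A B t' c)
          · rw [if_pos hc, if_pos]
            obtain ⟨h2, t', ht', h3⟩ := Finset.mem_filter.1 hc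
            exact Finset.mem_filter.2 ⟨h2, t', Finset.mem_insert_of_mem ht', h3⟩
          · rw [if_neg hc, if_neg]
            intro hcon
            obtain ⟨h2, t', ht', h3⟩ := Finset.mem_filter.1 hcon
            rcases Finset.mem_insert.1 ht' with h4 | h4
            · exact hpc (h4 ▸ h3)
            · exact hc (Finset.mem_filter.2 ⟨h2, t', h4, h3⟩)
      have hcl : ∀ S' : Finset τ, S' ⊆ rep → ∀ c ∈ Z.filter (fun c => ∃ t' ∈ S', Par A B t' c),
          ∀ d, Par A B c d → d ∈ Z.filter (fun c => ∃ t' ∈ S', Par A B t' c) := by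
        intro S' _ c hc d hd'
        obtain ⟨h2, t', ht', h3⟩ := Finset.mem_filter.1 hc
        exact Finset.mem_filter.2 ⟨hZc c h2 d hd', t', ht', par_trans (hA c h2).ne' h3 hd'⟩
      have m1 := hmem (Z.filter (fun c => ∃ t' ∈ S, Par A B t' c)) (Finset.filter_subset _ _)
        (hcl S hSr)
      have m2 := hmem (Z.filter (fun c => ∃ t' ∈ insert t S, Par A B t' c))
        (Finset.filter_subset _ _) (hcl _ hS)
      rw [e1, smul_add, smul_smul, ← add_assoc] at m2
      have h4 := H.grp t htA.ne' _ (l * B t + α * A t) (x * A t) (fun i hi => by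
        have hcZ := hZc t htZ _ hi
        have h5 := hnot _ hcZ hi
        simp only [Pi.add_apply, Pi.smul_apply, smul_eq_mul]
        unfold eZ
        rw [if_neg h5, mul_zero, add_zero, hp i hcZ]
        have h6 := par_dlA h htA hi
        have h7 := par_dlB h htA hi
        have h8 : A (R.cls i) = A t * dl A B sg (R.cls i) / dl A B sg t := by
          rw [h6]; field_simp
        have h9 : B (R.cls i) = B t * dl A B sg (R.cls i) / dl A B sg t := by
          rw [h7]; field_simp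
        rw [h8, h9]; ring) m1 m2
      rw [e1, smul_add, smul_smul, ← add_assoc, Finset.sum_insert htS]
      linarith
  have h1 := key rep (fun _ h => h)
  have h2 : Z.filter (fun c => ∃ t ∈ rep, Par A B t c) = Z :=
    Finset.filter_true_of_mem fun c hc => by
      obtain ⟨t, ht, h3⟩ := hex c hc
      exact ⟨t, ht, h3⟩
  rwa [h2] at h1

end

/-! ### walls -/

section

variable {R : RS ι τ} {Q : Walls ι W} {Z : Finset τ} {N : τ} {A B : τ → ℝ} {y0 : ι → ℝ}

/-- the walls of the record: condition on the summands; `B` = offset of the lower surface -/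
structure WOk4 (R : RS ι τ) (Q : Walls ι W) (y0 : ι → ℝ) (A B : τ → ℝ) (Z : Finset τ) (N : τ) :
    Prop where
  out : ∀ w, Q.Act y0 (R.vec A) 0 w → R.cls (Q.hd w) ∉ Z →
    ∃ s, Q.co w s ≠ 0 ∧ R.cls s ∉ Z ∧ R.cls s ≠ N
  inn : ∀ w, Q.Act y0 (R.vec A) 0 w → R.cls (Q.hd w) ∈ Z →
    (∀ s, Q.co w s ≠ 0 → Par A B (R.cls (Q.hd w)) (R.cls s)) ∨
      ∃ s, Q.co w s ≠ 0 ∧ R.cls s ∉ Z ∧ R.cls s ≠ N

theorem WOk4.wok (hw : WOk4 R Q y0 A B Z N) (hZc : ∀ t ∈ Z, ∀ t', Par A B t t' → t' ∈ Z) :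
    WOk R Q y0 A Z N where
  out := hw.out
  inn := fun w hact hz => (hw.inn w hact hz).imp (fun h s hs => hZc _ hz _ (h s hs)) id

/-- room for an increment supported on `Z` -/
theorem rmZ_gen (hw : WOk4 R Q y0 A B Z N) {e : ι → ℝ} (he0 : ∀ i, 0 ≤ e i)
    (heZ : ∀ i, R.cls i ∉ Z → e i = 0)
    (hin : ∀ w, Q.Act y0 (R.vec A) 0 w → R.cls (Q.hd w) ∈ Z →
      (∀ s, Q.co w s ≠ 0 → Par A B (R.cls (Q.hd w)) (R.cls s)) → e (Q.hd w) ≤ Q.rhs w e)
    {K : ℝ} (hK0 : 0 ≤ K) (hK : ∀ i, e i ≤ K) :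
    K • rmZ R Q Z N + e ∈ Q.L y0 (R.vec A) 0 := by
  intro w hact
  rw [Q.rhs_add, Q.rhs_smul]
  have h0 := Q.rhs_nonneg (w := w) (rmZ_nonneg (R := R) (Q := Q) (Z := Z) (N := N))
  have h1 : 0 ≤ Q.rhs w e := Q.rhs_nonneg he0
  simp only [Pi.add_apply, Pi.smul_apply, smul_eq_mul]
  by_cases hz : R.cls (Q.hd w) ∈ Z
  · have e1 : rmZ R Q Z N (Q.hd w) = 0 := by unfold rmZ; rw [if_pos (Or.inl hz)]
    rcases hw.inn w hact hz with h2 | h2
    · have h3 := hin w hact hz h2
      rw [e1]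
      have := mul_nonneg hK0 h0
      linarith
    · have h3 := rmZ_room h2
      have h4 := mul_le_mul_of_nonneg_left h3 hK0
      linarith [hK (Q.hd w)]
  · have h2 := rmZ_room (hw.out w hact hz)
    rw [heZ _ hz]
    have h4 := mul_le_mul_of_nonneg_left h2 hK0
    linarith

theorem eZ_nonneg {C : τ → ℝ} {Z' : Finset τ} (hC : ∀ t ∈ Z', 0 ≤ C t) (i : ι) :
    0 ≤ eZ R C Z' i := by
  unfold eZ
  split_ifs with h
  · exact mul_nonneg (R.pos i).le (hC _ h)
  · exact le_rfl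

/-- the partial `Z`-steps have room -/
theorem rmZ_sub (hw : WOk4 R Q y0 A B Z N) (hA : ∀ t ∈ Z, 0 < A t) {Z' : Finset τ} (hZ' : Z' ⊆ Z)
    (hcl : ∀ t ∈ Z', ∀ t', Par A B t t' → t' ∈ Z') {K : ℝ} (hK0 : 0 ≤ K)
    (hK : ∀ i, |R.vec A i| ≤ K) : K • rmZ R Q Z N + eZ R A Z' ∈ Q.L y0 (R.vec A) 0 := by
  refine rmZ_gen hw (eZ_nonneg fun t ht => (hA t (hZ' ht)).le) (fun i hi => ?_) ?_ hK0
    (fun i => ?_)
  · unfold eZ; rw [if_neg (fun h => hi (hZ' h))]
  · intro w hact hz hall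
    by_cases hh : R.cls (Q.hd w) ∈ Z'
    · have h5 : eZ R A Z' (Q.hd w) = R.vec A (Q.hd w) := by
        unfold eZ; rw [if_pos hh]; rfl
      rw [h5, hact.2.1]
      refine rhs_mono fun s hs => ?_
      unfold eZ
      rw [if_pos (hcl _ hh _ (hall s hs))]
      exact le_rfl
    · have h5 : eZ R A Z' (Q.hd w) = 0 := by unfold eZ; rw [if_neg hh]
      rw [h5]
      exact Q.rhs_nonneg (eZ_nonneg fun t ht => (hA t (hZ' ht)).le)
  · have h1 := hK i
    unfold eZ
    split_ifs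
    · exact (le_abs_self _).trans h1
    · exact hK0

/-- room for refining `Z` above -/
theorem rmZ_up (hw : WOk4 R Q y0 A B Z N) (hZc : ∀ t ∈ Z, ∀ t', Par A B t t' → t' ∈ Z)
    {Bp : τ → ℝ} (hB : ∀ t, 0 ≤ Bp t) (hleg : R.vec Bp ∈ Q.L y0 (R.vec A) 0) {K : ℝ}
    (hK0 : 0 ≤ K) (hK : ∀ i, |R.vec Bp i| ≤ K) :
    K • rmZ R Q Z N + eZ R Bp Z ∈ Q.L y0 (R.vec A) 0 := by
  refine rmZ_gen hw (eZ_nonneg fun t _ => hB t) (fun i hi => ?_) ?_ hK0 (fun i => ?_)
  · unfold eZ; rw [if_neg hi]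
  · intro w hact hz hall
    have h5 : eZ R Bp Z (Q.hd w) = R.vec Bp (Q.hd w) := by
      unfold eZ; rw [if_pos hz]; rfl
    rw [h5]
    refine (hleg w hact).trans (rhs_mono fun s hs => ?_)
    unfold eZ
    rw [if_pos (hZc _ hz _ (hall s hs))]
    exact le_rfl
  · have h1 := hK i
    unfold eZ
    split_ifs
    · exact (le_abs_self _).trans h1
    · exact hK0

theorem col_Vb {j0 : ι} (hj0 : R.cls j0 = N) (hNZ : N ∉ Z) {Bp : τ → ℝ} {q : ι → ℝ}
    (hq : ∀ i, R.cls i = N → q i = 0) {Zi : Finset ι} (hZi : ∀ i, i ∈ Zi ↔ R.cls i ∈ Z)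
    (s x y z : ℝ) : col R N j0 (Vb (sl R N j0 Bp) q Zi j0 s x y z) =
      s • R.vec Bp + x • q + y • R.e N + z • eZ R Bp Z := by
  funext i
  simp only [col, Vb, sl, eZ, Pi.add_apply, Pi.smul_apply, smul_eq_mul, RS.vec, RS.e]
  by_cases h : R.cls i = N
  · have h1 : j0 ∉ Zi := fun e => hNZ (hj0 ▸ (hZi j0).1 e)
    have h2 : R.cls i ∉ Z := fun e => hNZ (h ▸ e)
    rw [if_pos h, if_neg h1, if_neg h2, hq i h, hq j0 hj0, if_pos h, h]
    simp only [if_pos hj0, if_true]
    ring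
  · have hij : i ≠ j0 := fun e => h (e ▸ hj0)
    rw [if_neg h, if_neg h, if_neg hij, if_neg h]
    by_cases hz : R.cls i ∈ Z
    · rw [if_pos hz, if_pos ((hZi i).2 hz)]; ring
    · rw [if_neg hz, if_neg (fun e => hz ((hZi i).1 e))]; ring

end

/-! ### the theorem -/

section main

variable {R : RS ι τ} {Q : Walls ι W} {y0 : ι → ℝ} {A Bp Bm : τ → ℝ}

set_option maxHeartbeats 4000000 in
/-- **`N`-`z` chain rule at a record point**, in the rates of the upper and the lower surface; the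
slots `Z` may also be refined above -/
theorem nz_rs4 (hp : SOk A Bp 1) (hm : SOk A Bm (-1))
    (hlp : R.vec Bp ∈ Q.L y0 (R.vec A) 0) (hlm : R.vec Bm ∈ Q.L y0 (R.vec A) 0)
    {cp cm : ℝ} (hcp : 0 < cp) (hcm : 0 < cm) {lam : (ι → ℝ) → ℝ}
    (hs : ∀ p ∈ Q.L y0 (R.vec A) 0, ∀ q ∈ Q.L y0 (R.vec A) 0, p ⊓ q ∈ Q.L y0 (R.vec A) 0 →
      p ⊔ q ∈ Q.L y0 (R.vec A) 0 → lam p + lam q ≤ lam (p ⊔ q) + lam (p ⊓ q))
    (hanti : ∀ p ∈ Q.L y0 (R.vec A) 0, ∀ q ∈ Q.L y0 (R.vec A) 0, p ≤ q → lam q ≤ lam p)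
    {K : ℝ} (hK : 0 ≤ K)
    (hlip : ∀ p ∈ Q.L y0 (R.vec A) 0, ∀ q ∈ Q.L y0 (R.vec A) 0, |lam p - lam q| ≤ K * dist p q)
    {N z0 : τ} {Z : Finset τ} (hNZ : N ∉ Z) (hz0 : z0 ∈ Z) (hAz : A z0 = 1)
    (hAN : 0 < A N) (hBpN : 0 < Bp N) (hBmN : Bm N < Bm z0 * A N)
    (hBz0 : Bp z0 = 0) (hBZ : ∀ t ∈ Z, Bp t * A N < A t * Bp N)
    (hZc : ∀ t ∈ Z, ∀ t', Par A Bm t t' → t' ∈ Z)
    (hcmp : ∀ t, t ∉ Z → t ≠ N → A t * Bp N ≤ Bp t * A N)
    (hw : WOk4 R Q y0 A Bm Z N) {rp rm rz own : ℝ}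
    (hrp : R.RateAt lam ((R.srf y0 A Bp 1).LW Q cp) N rp)
    (hrm : R.RateAt lam ((R.srf y0 A Bm (-1)).LW Q cm) N rm)
    (hrz : RateZw R lam ((R.srf y0 A Bm (-1)).LW Q cm) A Bm Z rz)
    (hown : ∀ p ∈ Q.L y0 (R.vec A) 0, ∀ p' ∈ Q.L y0 (R.vec A) 0, p ≤ p' → ∀ x : ℝ, 0 ≤ x →
      (∀ i, R.cls i = z0 → p' i = p i + R.mu i * x) → own * x ≤ lam p - lam p') :
    A N * (rp - rm) ≤ rz - own := by
  classical
  obtain ⟨j0, hj0⟩ := R.sur N
  obtain ⟨jz, hjz⟩ := R.sur z0
  have cone : Cone (Q.L y0 (R.vec A) 0) := Walls.cone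
  have hBp0 : ∀ t, 0 ≤ Bp t := fun t => by have := hp.nn t; rwa [one_mul] at this
  have hAZ : ∀ t ∈ Z, 0 < A t := by
    intro t ht
    have h1 := hBZ t ht
    have h2 := mul_nonneg (hBp0 t) hAN.le
    by_contra hcon
    push Not at hcon
    have := mul_nonpos_of_nonpos_of_nonneg hcon hBpN.le
    linarith
  -- unshifted offset below
  obtain ⟨Bd, hBd⟩ : ∃ Bd : τ → ℝ, Bd = fun t => Bm t - Bm z0 * A t := ⟨_, rfl⟩
  have hBdz : Bd z0 = 0 := by rw [hBd]; simp only; rw [hAz]; ring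
  have hBdN : Bd N < 0 := by rw [hBd]; simp only; linarith
  have hnat : ∀ v s : ℝ, R.vec ((-s) • Bd + v • A) =
      R.vec ((-s) • Bm + (v + s * Bm z0) • A) := by
    intro v s
    funext i
    simp only [RS.vec, Pi.add_apply, Pi.smul_apply, smul_eq_mul, hBd]; ring
  -- constants of the room
  obtain ⟨K1, hK1⟩ : ∃ K1 : ℝ, K1 = 1 + ∑ i, (R.mu i + |R.vec A i| + |R.vec Bp i|) := ⟨_, rfl⟩
  have hterm : ∀ i, 0 ≤ R.mu i + |R.vec A i| + |R.vec Bp i| := fun i =>
    add_nonneg (add_nonneg (R.pos i).le (abs_nonneg _)) (abs_nonneg _)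
  have hsum : ∀ i, R.mu i + |R.vec A i| + |R.vec Bp i| ≤
      ∑ i, (R.mu i + |R.vec A i| + |R.vec Bp i|) := fun i =>
    Finset.single_le_sum (f := fun i => R.mu i + |R.vec A i| + |R.vec Bp i|)
      (fun i _ => hterm i) (Finset.mem_univ i)
  have hsum0 : 0 ≤ ∑ i, (R.mu i + |R.vec A i| + |R.vec Bp i|) :=
    Finset.sum_nonneg fun i _ => hterm i
  have hK11 : 1 ≤ K1 := by rw [hK1]; linarith
  have hK10 : 0 ≤ K1 := by linarith
  have hKmu : ∀ i, R.mu i ≤ K1 := fun i => by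
    rw [hK1]; linarith [hsum i, abs_nonneg (R.vec A i), abs_nonneg (R.vec Bp i)]
  have hKA : ∀ i, |R.vec A i| ≤ K1 := fun i => by
    rw [hK1]; linarith [hsum i, abs_nonneg (R.vec Bp i), (R.pos i).le]
  have hKB : ∀ i, |R.vec Bp i| ≤ K1 := fun i => by
    rw [hK1]; linarith [hsum i, abs_nonneg (R.vec A i), (R.pos i).le]
  have hwok := hw.wok hZc
  obtain ⟨m, hmdef⟩ : ∃ m : ι → ℝ, m = K1 • rmZ R Q Z N := ⟨_, rfl⟩
  have hmM : m ∈ Q.L y0 (R.vec A) 0 := by
    rw [hmdef]; exact cone.smul _ (rmZ_mem hwok) _ hK10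
  have hmN : m + R.e N ∈ Q.L y0 (R.vec A) 0 := by
    rw [hmdef]; exact rmZ_eN hwok hNZ hK10 hKmu
  have hmZ : ∀ Z' : Finset τ, Z' ⊆ Z → (∀ t ∈ Z', ∀ t', Par A Bm t t' → t' ∈ Z') →
      m + eZ R A Z' ∈ Q.L y0 (R.vec A) 0 := by
    intro Z' h1 h2
    rw [hmdef]; exact rmZ_sub hw hAZ h1 h2 hK10 hKA
  have hmB : m + eZ R Bp Z ∈ Q.L y0 (R.vec A) 0 := by
    rw [hmdef]; exact rmZ_up hw hZc hBp0 hlp hK10 hKB
  obtain ⟨q, hq⟩ : ∃ q : ι → ℝ, q = (2 : ℝ) • m := ⟨_, rfl⟩
  have hqi : ∀ i, q i = 2 * (K1 * rmZ R Q Z N i) := fun i => by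
    rw [hq, hmdef]; simp only [Pi.smul_apply, smul_eq_mul]
  have hqZ : ∀ i, R.cls i ∈ Z → q i = 0 := fun i hi => by
    rw [hqi]; unfold rmZ; rw [if_pos (Or.inl hi)]; ring
  have hqN : ∀ i, R.cls i = N → q i = 0 := fun i hi => by
    rw [hqi]; unfold rmZ; rw [if_pos (Or.inr hi)]; ring
  have hq0 : ∀ i, 0 ≤ q i := fun i => by
    rw [hqi]
    have := mul_nonneg hK10 (rmZ_nonneg (R := R) (Q := Q) (Z := Z) (N := N) i)
    linarith
  have hq1 : ∀ i, R.cls i ∉ Z → R.cls i ≠ N → 1 ≤ q i := fun i h1 h2 => by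
    have e1 : rmZ R Q Z N i = Q.rs i := by
      unfold rmZ; rw [if_neg (by push Not; exact ⟨h1, h2⟩)]
    rw [hqi, e1]
    have h3 := Q.one_le_rs i
    have h4 : 1 * 1 ≤ K1 * Q.rs i := mul_le_mul hK11 h3 zero_le_one hK10
    linarith
  -- legal increments
  have hoffg : ∀ e : ι → ℝ, m + e ∈ Q.L y0 (R.vec A) 0 → ∀ x y z : ℝ, 0 ≤ y → y ≤ x → 0 ≤ z →
      z ≤ x → x • q + y • R.e N + z • e ∈ Q.L y0 (R.vec A) 0 := by
    intro e he x y z hy hyx hz hzx
    have h1 := cone.add _ (roomy cone hmM hmN hy hyx) _ (roomy cone hmM he hz hzx)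
    have h2 : x • m + y • R.e N + (x • m + z • e) = x • q + y • R.e N + z • e := by
      rw [hq]
      funext i
      simp only [Pi.add_apply, Pi.smul_apply, smul_eq_mul]; ring
    rwa [h2] at h1
  have hZZ := hmZ Z (fun _ h => h) hZc
  have hoff := hoffg (eZ R A Z) hZZ
  have heZn : ∀ Z' : Finset τ, ‖eZ R A Z'‖ ≤ K1 := by
    intro Z'
    rw [pi_norm_le_iff_of_nonneg hK10]
    intro i
    rw [Real.norm_eq_abs]
    unfold eZ
    split_ifs
    · exact hKA i
    · rw [abs_zero]; exact hK10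
  obtain ⟨D, hD⟩ : ∃ D : ℝ, D = ‖q‖ + ‖R.e N‖ + K1 + 1 := ⟨_, rfl⟩
  have hD0 : 0 < D := by rw [hD]; positivity
  have hnormg : ∀ e : ι → ℝ, ‖e‖ ≤ K1 → ∀ x y z : ℝ, 0 ≤ y → y ≤ x → 0 ≤ z → z ≤ x →
      ‖x • q + y • R.e N + z • e‖ ≤ x * D := by
    intro e he x y z hy hyx hz hzx
    have hx : 0 ≤ x := hy.trans hyx
    have h1 : ‖x • q‖ = x * ‖q‖ := by rw [norm_smul, Real.norm_of_nonneg hx]
    have h2 : ‖y • R.e N‖ ≤ x * ‖R.e N‖ := by
      rw [norm_smul, Real.norm_of_nonneg hy]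
      exact mul_le_mul_of_nonneg_right hyx (norm_nonneg _)
    have h3 : ‖z • e‖ ≤ x * K1 := by
      rw [norm_smul, Real.norm_of_nonneg hz]
      exact mul_le_mul hzx he (norm_nonneg _) hx
    have h4 := norm_add_le (x • q + y • R.e N) (z • e)
    have h5 := norm_add_le (x • q) (y • R.e N)
    have h6 : x * D = x * ‖q‖ + x * ‖R.e N‖ + x * K1 + x := by rw [hD]; ring
    rw [h6]
    linarith
  have hnorm := hnormg (eZ R A Z) (heZn Z)
  obtain ⟨c0, hc0⟩ : ∃ c0 : ℝ, c0 = min (cp / D) (cm / D) := ⟨_, rfl⟩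
  have hc00 : 0 < c0 := by rw [hc0]; exact lt_min (by positivity) (by positivity)
  have hc0p : ∀ x s : ℝ, 0 ≤ s → x ≤ c0 * s → x * D ≤ cp * s := by
    intro x s hs' hx
    have h1 : c0 ≤ cp / D := by rw [hc0]; exact min_le_left _ _
    have h2 : x ≤ cp / D * s := hx.trans (mul_le_mul_of_nonneg_right h1 hs')
    calc x * D ≤ cp / D * s * D := mul_le_mul_of_nonneg_right h2 hD0.le
      _ = cp * s := by field_simp
  have hc0m : ∀ x s : ℝ, 0 ≤ s → x ≤ c0 * s → x * D ≤ cm * s := by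
    intro x s hs' hx
    have h1 : c0 ≤ cm / D := by rw [hc0]; exact min_le_right _ _
    have h2 : x ≤ cm / D * s := hx.trans (mul_le_mul_of_nonneg_right h1 hs')
    calc x * D ≤ cm / D * s * D := mul_le_mul_of_nonneg_right h2 hD0.le
      _ = cm * s := by field_simp
  -- slots of `Z` in the chart
  obtain ⟨Zi, hZi⟩ : ∃ Zi : Finset ι, Zi = Finset.univ.filter (fun i => R.cls i ∈ Z) := ⟨_, rfl⟩
  have hZm : ∀ i, i ∈ Zi ↔ R.cls i ∈ Z := fun i => by
    rw [hZi, Finset.mem_filter]; simp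
  have hj0Z : j0 ∉ Zi := fun h => hNZ (hj0 ▸ (hZm j0).1 h)
  have hslZ : ∀ (B : τ → ℝ) (i : ι), R.cls i ∈ Z → sl R N j0 B i = R.mu i * B (R.cls i) := by
    intro B i hi
    have h1 : ¬ R.cls i = N := fun e => hNZ (e ▸ hi)
    unfold sl
    rw [if_neg h1]
  have hslN : ∀ B : τ → ℝ, sl R N j0 B j0 = B N := by
    intro B; unfold sl; rw [if_pos hj0, if_pos rfl]
  -- bounds
  obtain ⟨RR, hRR⟩ : ∃ RR : ℝ, RR = ∑ i, (|sl R N j0 A i| + |sl R N j0 Bd i|) := ⟨_, rfl⟩
  have hRt : ∀ i, |sl R N j0 A i| + |sl R N j0 Bd i| ≤ RR := fun i => by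
    rw [hRR]
    exact Finset.single_le_sum (f := fun i => |sl R N j0 A i| + |sl R N j0 Bd i|)
      (fun i _ => add_nonneg (abs_nonneg _) (abs_nonneg _)) (Finset.mem_univ i)
  have hRR0 : 0 ≤ RR := by
    have := hRt j0
    linarith [abs_nonneg (sl R N j0 A j0), abs_nonneg (sl R N j0 Bd j0)]
  obtain ⟨r0, hr0, hr0Z⟩ : ∃ r0 : ℝ, 0 < r0 ∧ ∀ i ∈ Zi,
      r0 * sl R N j0 Bp j0 + sl R N j0 Bp i * sl R N j0 A j0 ≤
        sl R N j0 A i * sl R N j0 Bp j0 := by
    obtain ⟨i1, hi1, hmin⟩ := Finset.exists_min_image Zi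
      (fun i => (sl R N j0 A i * Bp N - sl R N j0 Bp i * A N) / Bp N)
      ⟨jz, (hZm jz).2 (hjz ▸ hz0)⟩
    refine ⟨(sl R N j0 A i1 * Bp N - sl R N j0 Bp i1 * A N) / Bp N, ?_, fun i hi => ?_⟩
    · refine div_pos ?_ hBpN
      rw [hslZ A i1 ((hZm i1).1 hi1), hslZ Bp i1 ((hZm i1).1 hi1)]
      have h1 := mul_lt_mul_of_pos_left (hBZ _ ((hZm i1).1 hi1)) (R.pos i1)
      linarith
    · have h1 := hmin i hi
      rw [hslN, hslN]
      have h2 := mul_le_mul_of_nonneg_right h1 hBpN.le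
      rw [div_mul_cancel₀ _ hBpN.ne', div_mul_cancel₀ _ hBpN.ne'] at h2
      rw [div_mul_cancel₀ _ hBpN.ne']
      linarith
  -- membership
  have hU : ∀ s x y : ℝ, 0 ≤ s → 0 ≤ y → y ≤ x →
      col R N j0 (Ub (sl R N j0 Bp) q j0 s x y) ∈ Q.L y0 (R.vec A) 0 := by
    intro s x y hs' hy hyx
    rw [col_Ub hj0 hqN]
    have h1 := hoff x y 0 hy hyx le_rfl (hy.trans hyx)
    have h2 := cone.add _ (cone.smul _ hlp s hs') _ h1
    rw [zero_smul, add_zero] at h2
    rwa [← add_assoc] at h2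
  have hV : ∀ s x y z : ℝ, 0 ≤ s → 0 ≤ y → y ≤ x → 0 ≤ z → z ≤ x →
      col R N j0 (Vb (sl R N j0 Bp) q Zi j0 s x y z) ∈ Q.L y0 (R.vec A) 0 := by
    intro s x y z hs' hy hyx hz hzx
    rw [col_Vb hj0 hNZ hqN hZm]
    have h1 := cone.add _ (cone.smul _ hlp s hs') _ (hoffg _ hmB x y z hy hyx hz hzx)
    rwa [← add_assoc, ← add_assoc] at h1
  have hnatM : ∀ l α : ℝ, 0 ≤ l → R.vec (l • Bm + α • A) ∈ Q.L y0 (R.vec A) 0 := by
    intro l α hl
    rw [R.vec_add, R.vec_smul, R.vec_smul]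
    exact cone.add _ (cone.smul _ hlm l hl) _ (neg_vecA_mem α)
  have hB : ∀ v s x y z : ℝ, 0 ≤ v → s ≤ 0 → 0 ≤ y → y ≤ x → 0 ≤ z → z ≤ x →
      col R N j0 (Lb (sl R N j0 A) (fun i => -(sl R N j0 Bd i)) q Zi j0 v s x y z) ∈
        Q.L y0 (R.vec A) 0 := by
    intro v s x y z _ hs' hy hyx hz hzx
    rw [col_Lb hj0 hNZ hqN hZm, hnat]
    have h1 := cone.add _ (hnatM (-s) (v + s * Bm z0) (by linarith)) _
      (hoff x y z hy hyx hz hzx)
    rwa [← add_assoc, ← add_assoc] at h1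
  -- window cones
  have hWp : ∀ s x y : ℝ, 0 ≤ s → 0 ≤ y → y ≤ x → x ≤ c0 * s →
      s • R.vec Bp + x • q + y • R.e N ∈ (R.srf y0 A Bp 1).LW Q cp := by
    intro s x y hs' hy hyx hxs
    have h1 := hp.memLW (R := R) (y0 := y0) (Q := Q) (c0 := cp) (α := 0) hs'
      (L_sub (hoff x y 0 hy hyx le_rfl (hy.trans hyx)))
      ((hnorm x y 0 hy hyx le_rfl (hy.trans hyx)).trans (hc0p x s hs' hxs))
    rw [zero_smul, zero_smul, add_zero, add_zero, R.vec_smul, ← add_assoc] at h1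
    exact h1
  have hWm : ∀ v s x y z : ℝ, s ≤ 0 → 0 ≤ y → y ≤ x → 0 ≤ z → z ≤ x → x ≤ c0 * -s →
      R.vec ((-s) • Bm + (v + s * Bm z0) • A) + x • q + y • R.e N + z • eZ R A Z ∈
        (R.srf y0 A Bm (-1)).LW Q cm := by
    intro v s x y z hs' hy hyx hz hzx hxs
    have h1 := hm.memLW (R := R) (y0 := y0) (Q := Q) (c0 := cm) (α := v + s * Bm z0)
      (l := -s) (by linarith) (L_sub (hoff x y z hy hyx hz hzx))
      ((hnorm x y z hy hyx hz hzx).trans (hc0m x (-s) (by linarith) hxs))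
    rwa [← add_assoc, ← add_assoc] at h1
  have hWz : ∀ Z' : Finset τ, Z' ⊆ Z → (∀ t ∈ Z', ∀ t', Par A Bm t t' → t' ∈ Z') →
      ∀ v s x z : ℝ, s ≤ 0 → 0 ≤ z → z ≤ x → x ≤ c0 * -s →
      R.vec ((-s) • Bm + (v + s * Bm z0) • A) + x • q + z • eZ R A Z' ∈
        (R.srf y0 A Bm (-1)).LW Q cm := by
    intro Z' hZ'1 hZ'2 v s x z hs' hz hzx hxs
    have h0 : 0 ≤ x := hz.trans hzx
    have h1 := hm.memLW (R := R) (y0 := y0) (Q := Q) (c0 := cm) (α := v + s * Bm z0)
      (l := -s) (by linarith) (L_sub (hoffg _ (hmZ Z' hZ'1 hZ'2) x 0 z le_rfl h0 hz hzx))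
      ((hnormg _ (heZn Z') x 0 z le_rfl h0 hz hzx).trans (hc0m x (-s) (by linarith) hxs))
    rw [zero_smul, add_zero] at h1
    rwa [← add_assoc] at h1
  have hrec : Rec4 (fun c => lam (col R N j0 c)) {c | col R N j0 c ∈ Q.L y0 (R.vec A) 0}
      (sl R N j0 A) (sl R N j0 Bp) (fun i => -(sl R N j0 Bd i)) q Zi j0 RR r0 (K * RR) c0 own
      rp rm rz := by
    refine
      { sup := ?_, anti := ?_, supc := ?_, hc0 := hc00, hr0 := hr0, hR := hRR0, hK := mul_nonneg hK hRR0,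
        bdr := ?_, bdb := ?_, bp := ?_, bpN := ?_, bmN := ?_, rN := ?_, NZ := hj0Z, zr := hr0Z,
        zq := fun i hi => hqZ i ((hZm i).1 hi), q0 := hq0, qN := hqN j0 hj0,
        cp := ?_, cq := ?_, legV := hV, legB := hB, Np := ?_, Nm := ?_, Zm := ?_, ow := ?_,
        lip := ?_ }
    · intro p hp' p' hp'' h1 h2
      simp only [Set.mem_ofPred_eq] at hp' hp'' h1 h2
      rw [col_inf] at h1
      rw [col_sup] at h2
      have := hs _ hp' _ hp'' h1 h2
      simp only [col_sup, col_inf]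
      exact this
    · intro p hp' p' hp'' hle
      simp only [Set.mem_ofPred_eq] at hp' hp''
      refine hanti _ hp' _ hp'' fun i => ?_
      simp only [col]
      split_ifs
      · exact mul_le_mul_of_nonneg_left (hle j0) (R.pos i).le
      · exact hle i
    · intro p hp' p' hp''
      simp only [Set.mem_ofPred_eq] at hp' hp'' ⊢
      rw [col_sup]
      exact L_sup hp' hp''
    · intro i
      linarith [hRt i, abs_nonneg (sl R N j0 Bd i)]
    · intro i
      rw [abs_neg]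
      linarith [hRt i, abs_nonneg (sl R N j0 A i)]
    · intro i
      unfold sl
      split_ifs
      · exact hBp0 N
      · exact le_rfl
      · exact mul_nonneg (R.pos i).le (hBp0 _)
    · rw [hslN]; exact hBpN
    · simp only [hslN]; linarith
    · rw [hslN]; exact hAN
    · intro i hi hij
      rw [hslN, hslN]
      have hi' : R.cls i ∉ Z := fun h => hi ((hZm i).2 h)
      unfold sl
      by_cases h : R.cls i = N
      · rw [if_pos h, if_pos h, if_neg hij, if_neg hij]; linarith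
      · rw [if_neg h, if_neg h]
        have h1 := mul_le_mul_of_nonneg_left (hcmp _ hi' h) (R.pos i).le
        linarith
    · intro i hi hij
      have hi' : R.cls i ∉ Z := fun h => hi ((hZm i).2 h)
      by_cases h : R.cls i = N
      · right
        unfold sl
        rw [if_pos h, if_neg hij]
        simp only [if_pos h, if_neg hij]
        exact ⟨le_rfl, by simp⟩
      · left
        exact hq1 i hi' h
    · intro s x h hh hhx hxs
      have hs' : 0 ≤ s := by
        by_contra hcon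
        push Not at hcon
        have := mul_neg_of_pos_of_neg hc00 hcon
        linarith
      rw [col_Ub hj0 hqN, col_Ub hj0 hqN, zero_smul, add_zero]
      have h1 := hWp s x 0 hs' le_rfl (hh.le.trans hhx) hxs
      have h2 := hWp s x h hs' hh.le hhx hxs
      rw [zero_smul, add_zero] at h1
      have h3 := hrp _ (s * Bp N) h (fun i hi => by
        simp only [Pi.add_apply, Pi.smul_apply, smul_eq_mul, RS.vec, hqN i hi, hi]; ring) h1 h2
      exact h3.ge
    · intro v s h hv hh hhs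
      have hs' : s ≤ 0 := by
        by_contra hcon
        push Not at hcon
        have := mul_neg_of_pos_of_neg hc00 (neg_neg_of_pos hcon)
        linarith
      rw [col_Lb hj0 hNZ hqN hZm, col_Lb hj0 hNZ hqN hZm, hnat]
      have h1 := hWm v s h 0 0 hs' le_rfl hh.le le_rfl hh.le hhs
      have h2 := hWm v s h h 0 hs' hh.le le_rfl le_rfl hh.le hhs
      simp only [zero_smul, add_zero] at h1 h2 ⊢
      have h3 := hrm _ ((-s) * Bm N + (v + s * Bm z0) * A N) h (fun i hi => by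
        simp only [Pi.add_apply, Pi.smul_apply, smul_eq_mul, RS.vec, hqN i hi, hi]; ring) h1 h2
      exact h3.le
    · intro v s h hv hh hhs
      have hs' : s ≤ 0 := by
        by_contra hcon
        push Not at hcon
        have := mul_neg_of_pos_of_neg hc00 (neg_neg_of_pos hcon)
        linarith
      rw [col_Lb hj0 hNZ hqN hZm, col_Lb hj0 hNZ hqN hZm, hnat]
      simp only [zero_smul, add_zero]
      have h3 := hrz (R.vec ((-s) • Bm + (v + s * Bm z0) • A) + h • q) (-s) (v + s * Bm z0) h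
        hh.le (fun i hi => by
        simp only [Pi.add_apply, Pi.smul_apply, smul_eq_mul, RS.vec, hqZ i hi]; ring)
        (fun Z' h1 h2 => hWz Z' h1 h2 v s h h hs' hh.le le_rfl hhs)
      exact h3.le
    · intro s x v σ hs' hx hv hσ hz hC
      simp only [Set.mem_ofPred_eq] at hC ⊢
      refine hown _ (hU s x 0 hs' le_rfl hx) _ hC ?_ v hv ?_
      · intro i
        simp only [col]
        by_cases h : R.cls i = N
        · rw [if_pos h, if_pos h]
          refine mul_le_mul_of_nonneg_left ?_ (R.pos i).le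
          simp only [Ub, Cb, if_neg hj0Z]
          exact le_rfl
        · rw [if_neg h, if_neg h]
          by_cases h2 : i ∈ Zi
          · have h3 := (hZm i).1 h2
            have hij : i ≠ j0 := fun e => h (e ▸ hj0)
            simp only [Ub, Cb, if_pos h2, if_neg hij]
            rw [hqZ i h3]
            have := hz i h2
            linarith
          · simp only [Ub, Cb, if_neg h2]; exact le_rfl
      · intro i hi
        have h3 : R.cls i ∈ Z := by rw [hi]; exact hz0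
        have h : R.cls i ≠ N := fun e => hNZ (e ▸ h3)
        have h2 := (hZm i).2 h3
        have hij : i ≠ j0 := fun e => h (e ▸ hj0)
        simp only [col, if_neg h, Ub, Cb, if_pos h2, if_neg hij]
        rw [hslZ Bp i h3, hqZ i h3, hslZ A i h3, hslZ Bd i h3, hi, hBdz, hAz, hBz0]
        ring
    · intro s x v σ hs' hx hv hσ hz hC
      simp only [Set.mem_ofPred_eq] at hC ⊢
      have h1 := hlip _ (hU s x 0 hs' le_rfl hx) _ hC
      have hvs : 0 ≤ v - σ := by linarith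
      have h2 : dist (col R N j0 (Ub (sl R N j0 Bp) q j0 s x 0))
          (col R N j0 (Cb (sl R N j0 A) (sl R N j0 Bp) (fun i => -(sl R N j0 Bd i)) q Zi j0
            s x 0 v σ 0)) ≤ RR * (v - σ) := by
        rw [dist_pi_le_iff (mul_nonneg hRR0 hvs)]
        intro i
        rw [Real.dist_eq]
        have hb : 0 ≤ RR * (v - σ) := mul_nonneg hRR0 hvs
        simp only [col]
        by_cases h : R.cls i = N
        · rw [if_pos h, if_pos h]
          simp only [Ub, Cb, if_neg hj0Z, sub_self, abs_zero]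
          exact hb
        · rw [if_neg h, if_neg h]
          by_cases h2 : i ∈ Zi
          · have h3 := (hZm i).1 h2
            have hij : i ≠ j0 := fun e => h (e ▸ hj0)
            simp only [Ub, Cb, if_pos h2, if_neg hij]
            have e1 : |sl R N j0 A i| ≤ RR := by linarith [hRt i, abs_nonneg (sl R N j0 Bd i)]
            have e2 : |sl R N j0 Bd i| ≤ RR := by linarith [hRt i, abs_nonneg (sl R N j0 A i)]
            have e3 : |sl R N j0 A i * v| ≤ RR * v := by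
              rw [abs_mul, abs_of_nonneg hv]; exact mul_le_mul_of_nonneg_right e1 hv
            have e4 : |sl R N j0 Bd i * σ| ≤ RR * -σ := by
              rw [abs_mul, abs_of_nonpos hσ]
              exact mul_le_mul_of_nonneg_right e2 (by linarith)
            have h7 := hz i h2
            have h8 : 0 ≤ sl R N j0 Bp i * s := by
              rw [hslZ Bp i h3]
              exact mul_nonneg (mul_nonneg (R.pos i).le (hBp0 _)) hs'
            rw [hqZ i h3, abs_le]
            have e5 := abs_le.1 e3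
            have e6 := abs_le.1 e4
            constructor <;> linarith
          · simp only [Ub, Cb, if_neg h2, sub_self, abs_zero]
            exact hb
      calc lam _ - lam _ ≤ |lam _ - lam _| := le_abs_self _
        _ ≤ K * dist _ _ := h1
        _ ≤ K * (RR * (v - σ)) := mul_le_mul_of_nonneg_left h2 hK
        _ = K * RR * (v - σ) := by ring
  have key := nz4 hrec
  rwa [hslN] at key

end main

end Crest.Agent.R116.NZ90
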