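import Crest.Agent.R116.RbK3_219
import Crest.Agent.R116.SgO3_219
import Crest.Agent.R116.PL3_504

/-!
# R116 (K side), rates on the half planes, light chart instance (helper219)

* `mem_cone`  : the cone of `monL` (sixteen inequalities)
* `RL8`       : ray slots `z, C_a, C_b, X, N, H, B, G` of the light chart, slot `1` (`D`) frozen
* `nat8`, `leg8`, `RL8_mem`, `RL8_full`, `RL8_O`
-/

set_option autoImplicit false
set_option linter.unusedSectionVars false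
set_option linter.unusedVariables false

open Set Filter Topology Metric MeasureTheory

namespace Crest.Agent.R116.RbM219

open Crest.Agent.R136
open Crest.Agent.R138
open Net191 (Mons Legal Leg)
open Dg262 (X X_cont SupOn)
open Dg219 (Tn lf Cone Walls mw mw_P)
open Sl741 (slice xt rs)
open SgO219 (PP)
open RbK219
open Rc146 (RecOut)
open ChL222 (monL legalL_iff mfL)
open PL504 (eL eL_wall)

/-! ### the cone of the light chart -/

theorem mem_PP {c : Fin 12 → ℝ} : c ∈ PP (mw monL) ↔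
    ∀ k, ∀ e ∈ monL.mon k, c k ≤ ∑ s, (e s : ℝ) * c s := by
  constructor
  · intro h k e he
    have := h ⟨k, e, he⟩
    simpa [mw, Walls.rhs] using this
  · intro h w
    have := h w.1 w.2.1 w.2.2
    simpa [mw, Walls.rhs] using this

/-- the sixteen walls of the light chart, without signs -/
def Wl (p : Fin 12 → ℝ) : Prop :=
    p 2 ≤ p 0 + p 1 ∧
    p 5 ≤ p 0 + p 3 ∧
    p 6 ≤ p 0 + p 4 ∧
    p 7 ≤ p 2 + p 3 ∧
    p 7 ≤ p 1 + p 5 ∧
    p 8 ≤ p 2 + p 4 ∧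
    p 8 ≤ p 1 + p 6 ∧
    p 9 ≤ p 3 + p 5 ∧
    p 9 ≤ p 4 + p 6 ∧
    p 10 ≤ p 3 + p 7 ∧
    p 10 ≤ p 4 + p 8 ∧
    p 10 ≤ p 1 + p 9 ∧
    p 11 ≤ p 0 + p 10 ∧
    p 11 ≤ p 5 + p 7 ∧
    p 11 ≤ p 6 + p 8 ∧
    p 11 ≤ p 2 + p 9

theorem eL_ge (k : Fin 12) : 1 ≤ eL 1 1 4 k := by
  fin_cases k <;> simp [eL] <;> norm_num

theorem mem_cone {c : Fin 12 → ℝ} : c ∈ PP (mw monL) ↔ Wl c := by
  rw [mem_PP]
  set T : ℝ := ‖c‖ with hT
  have hT0 : 0 ≤ T := norm_nonneg _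
  -- shift by a large natural box
  have hsum : ∀ e : Fin 12 → ℕ, ∀ k, e ∈ monL.mon k →
      ∑ s, (e s : ℝ) * (c s + T * eL 1 1 4 s) =
        ∑ s, (e s : ℝ) * c s + T * eL 1 1 4 k := by
    intro e k he
    rw [← eL_wall 1 1 4 k he, Finset.mul_sum, ← Finset.sum_add_distrib]
    exact Finset.sum_congr rfl fun s _ => by ring
  have hnn : ∀ k, 0 ≤ c k + T * eL 1 1 4 k := by
    intro k
    have h1 := norm_le_pi_norm c k
    rw [Real.norm_eq_abs] at h1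
    have h2 := neg_abs_le (c k)
    have h3 : T * 1 ≤ T * eL 1 1 4 k := mul_le_mul_of_nonneg_left (eL_ge k) hT0
    linarith
  have key : (∀ k, ∀ e ∈ monL.mon k, c k ≤ ∑ s, (e s : ℝ) * c s) ↔
      Legal monL (fun k => c k + T * eL 1 1 4 k) := by
    constructor
    · intro h
      refine ⟨hnn, fun k e he => ?_⟩
      have := h k e he
      have h2 := hsum e k he
      linarith
    · intro h k e he
      have h1 := h.wall k e he
      have h2 := hsum e k he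
      linarith
  rw [key, legalL_iff]
  unfold Wl
  have e0 : eL 1 1 4 0 = 1 := by simp [eL]
  have e1 : eL 1 1 4 1 = 1 := by simp [eL]; norm_num
  have e2 : eL 1 1 4 2 = 2 := by simp [eL]; norm_num
  have e3 : eL 1 1 4 3 = 1 := by simp [eL]
  have e4 : eL 1 1 4 4 = 1 := by simp [eL]
  have e5 : eL 1 1 4 5 = 2 := by simp [eL]; norm_num
  have e6 : eL 1 1 4 6 = 2 := by simp [eL]; norm_num
  have e7 : eL 1 1 4 7 = 3 := by simp [eL]; norm_num
  have e8 : eL 1 1 4 8 = 3 := by simp [eL]; norm_num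
  have e9 : eL 1 1 4 9 = 3 := by simp [eL]; norm_num
  have e10 : eL 1 1 4 10 = 4 := by simp [eL]
  have e11 : eL 1 1 4 11 = 5 := by simp [eL]; norm_num
  constructor
  · rintro ⟨-, h1, h2, h3, h4, h5, h6, h7, h8, h9, h10, h11, h12, h13, h14, h15, h16⟩
    rw [e2, e0, e1] at h1
    rw [e5, e0, e3] at h2
    rw [e6, e0, e4] at h3
    rw [e7, e2, e3] at h4
    rw [e7, e1, e5] at h5
    rw [e8, e2, e4] at h6
    rw [e8, e1, e6] at h7
    rw [e9, e3, e5] at h8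
    rw [e9, e4, e6] at h9
    rw [e10, e3, e7] at h10
    rw [e10, e4, e8] at h11
    rw [e10, e1, e9] at h12
    rw [e11, e0, e10] at h13
    rw [e11, e5, e7] at h14
    rw [e11, e6, e8] at h15
    rw [e11, e2, e9] at h16
    refine ⟨?_, ?_, ?_, ?_, ?_, ?_, ?_, ?_, ?_, ?_, ?_, ?_, ?_, ?_, ?_, ?_⟩ <;> linarith
  · rintro ⟨h1, h2, h3, h4, h5, h6, h7, h8, h9, h10, h11, h12, h13, h14, h15, h16⟩
    refine ⟨hnn, ?_, ?_, ?_, ?_, ?_, ?_, ?_, ?_, ?_, ?_, ?_, ?_, ?_, ?_, ?_, ?_⟩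
    · rw [e2, e0, e1]; linarith
    · rw [e5, e0, e3]; linarith
    · rw [e6, e0, e4]; linarith
    · rw [e7, e2, e3]; linarith
    · rw [e7, e1, e5]; linarith
    · rw [e8, e2, e4]; linarith
    · rw [e8, e1, e6]; linarith
    · rw [e9, e3, e5]; linarith
    · rw [e9, e4, e6]; linarith
    · rw [e10, e3, e7]; linarith
    · rw [e10, e4, e8]; linarith
    · rw [e10, e1, e9]; linarith
    · rw [e11, e0, e10]; linarith
    · rw [e11, e5, e7]; linarith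
    · rw [e11, e6, e8]; linarith
    · rw [e11, e2, e9]; linarith

/-- along natural planes the wall cone is the whole cone -/
theorem L_nat {z0 z1 z2 c0 c1 c2 p0 p1 p2 : ℝ} :
    (mw monL).L (eL z0 c0 p0) (eL z1 c1 p1) (eL z2 c2 p2) = PP (mw monL) := by
  ext c
  rw [mem_PP]
  constructor
  · intro h k e he
    have := h ⟨k, e, he⟩ ⟨by simp [mw, Walls.rhs, eL_wall _ _ _ k he],
      by simp [mw, Walls.rhs, eL_wall _ _ _ k he], by simp [mw, Walls.rhs, eL_wall _ _ _ k he]⟩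
    simpa [mw, Walls.rhs] using this
  · intro h w _
    have := h w.1 w.2.1 w.2.2
    simpa [mw, Walls.rhs] using this

/-! ### the ray slots, `D` frozen -/

/-- kept slots -/
abbrev kp (i : Fin 12) : Prop := i ≠ 1

abbrev K8 := {i : Fin 12 // kp i}

theorem kp_hd (w : Σ k : Fin 12, {e // e ∈ monL.mon k}) : kp ((mw monL).hd w) := by
  intro h
  have h1 : w.1 = 1 := h
  obtain ⟨k, e, he⟩ := w
  simp only at h1
  subst h1
  have : monL.mon 1 = ∅ := rfl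
  rw [this] at he
  exact absurd he (Finset.notMem_empty _)

/-- classes of the chart slots: `0 z, 1 C_a, 2 C_b, 3 X, 4 N, 5 H, 6 B, 7 G` -/
def cl8 : Fin 12 → Fin 8 := ![0, 0, 7, 1, 1, 3, 3, 6, 6, 5, 2, 4]

def RL8 : RS K8 (Fin 8) where
  cls := fun i => cl8 i.1
  mu := fun _ => 1
  pos := fun _ => one_pos
  sur := by decide

/-- natural levels -/
def nat8 (v c p : ℝ) : Fin 8 → ℝ := ![v, c, p, v + c, v + p, v + 2 * c, p - c, p - 2 * c]

/-- legal class vectors, `D` frozen -/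
structure Leg8 (d : Fin 8 → ℝ) : Prop where
  X : d 3 ≤ d 0 + d 1
  B : d 6 ≤ d 7 + d 1
  H : d 5 ≤ d 1 + d 3
  P : d 2 ≤ d 1 + d 6
  N1 : d 4 ≤ d 0 + d 2
  N2 : d 4 ≤ d 3 + d 6
  N3 : d 4 ≤ d 7 + d 5

theorem leg8_nat (v c p : ℝ) : Leg8 (nat8 v c p) := by
  constructor <;> simp [nat8] <;> linarith

theorem RL8_nat (v c p : ℝ) : xt kp 0 (RL8.vec (nat8 v c p)) = Function.update (eL v c p) 1 0 := by
  funext i
  by_cases hi : i = 1
  · subst hi
    rw [Function.update_self, Sl741.xt_off (p := kp) _ _ (by simp [kp])]; rfl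
  · rw [Function.update_of_ne hi, Sl741.xt_in (p := kp) _ _ hi]
    fin_cases i <;> simp [RS.vec, RL8, cl8, nat8, eL] at hi ⊢

theorem rs_nat (v c p t : ℝ) : rs kp (Function.update (eL v c p) 1 t) = RL8.vec (nat8 v c p) := by
  funext i
  unfold rs
  rw [Function.update_of_ne i.2]
  have := congrFun (RL8_nat v c p) i.1
  rw [Sl741.xt_val, Function.update_of_ne i.2] at this
  exact this.symm

/-- base of the record line in the tangent space: `D` frozen at `t` -/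
def y8 (t : ℝ) : Fin 12 → ℝ := Function.update 0 1 t

theorem leg_kept : ∀ k, ∀ e ∈ mfL k, ∃ s, s ≠ 1 ∧ e s ≠ 0 := by decide

theorem RL8_full {y : Fin 12 → ℝ} {x0 a b : K8 → ℝ} :
    (slice (mw monL) kp y kp_hd).Full x0 a b := by
  refine Walls.full_of_co fun w => ?_
  obtain ⟨s, hs, hs'⟩ := leg_kept w.1 w.2.1 w.2.2
  exact ⟨⟨s, hs⟩, hs'⟩

/-- an active wall has no leg `D` -/
theorem act_D {t : ℝ} (ht : t ≠ 0) {a b : K8 → ℝ} {w : Σ k : Fin 12, {e // e ∈ monL.mon k}}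
    (hw : (slice (mw monL) kp (y8 t) kp_hd).Act (rs kp (y8 t)) a b w) : w.2.1 1 = 0 := by
  have h1 := hw.1
  have hy : ∀ i : K8, rs kp (y8 t) i = 0 := fun i => by
    unfold rs y8; rw [Function.update_of_ne i.2]; rfl
  have h2 : (slice (mw monL) kp (y8 t) kp_hd).rhs w (rs kp (y8 t)) = 0 := by
    unfold Walls.rhs
    exact Finset.sum_eq_zero fun s _ => by rw [hy, mul_zero]
  rw [hy, h2, zero_add] at h1
  have h3 : (slice (mw monL) kp (y8 t) kp_hd).cst w = (w.2.1 1 : ℝ) * t := by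
    change (0:ℝ) + ∑ s : {i // ¬ kp i}, (w.2.1 s.1 : ℝ) * y8 t s.1 = _
    rw [zero_add]
    have h4 : ∀ s : {i : Fin 12 // ¬ kp i}, s.1 = 1 := fun s => not_not.1 s.2
    rw [Finset.sum_eq_single (⟨1, by simp⟩ : {i : Fin 12 // ¬ kp i})]
    · unfold y8; rw [Function.update_self]
    · intro s _ hs
      exact absurd (Subtype.ext (h4 s)) hs
    · intro h; exact absurd (Finset.mem_univ _) h
  rw [h3] at h1
  have := (mul_eq_zero.1 h1.symm).resolve_right ht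
  exact_mod_cast this

/-- **legality of class vectors at the record line** -/
theorem RL8_mem {t : ℝ} (ht : t ≠ 0) {a : K8 → ℝ} {d : Fin 8 → ℝ} (hd : Leg8 d) :
    RL8.vec d ∈ (slice (mw monL) kp (y8 t) kp_hd).L (rs kp (y8 t)) a 0 := by
  intro w hw
  have hw1 := act_D ht hw
  -- extend by a large value of `D`
  set c : Fin 12 → ℝ := xt kp (Function.update 0 1 (10 * ‖d‖ + 1)) (RL8.vec d) with hc
  have hcD : c 1 = 10 * ‖d‖ + 1 := by
    rw [hc, Sl741.xt_off (p := kp) _ _ (by simp [kp]), Function.update_self]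
  have hck : ∀ i : Fin 12, i ≠ 1 → c i = d (cl8 i) := fun i hi => by
    rw [hc, Sl741.xt_in (p := kp) _ _ hi]; simp [RS.vec, RL8]
  have hdn : ∀ i, |d i| ≤ ‖d‖ := fun i => by
    have := norm_le_pi_norm d i; rwa [Real.norm_eq_abs] at this
  have hb : ∀ i, -‖d‖ ≤ d i ∧ d i ≤ ‖d‖ := fun i => abs_le.1 (hdn i)
  have hN : 0 ≤ ‖d‖ := norm_nonneg _
  have hcP : c ∈ PP (mw monL) := by
    rw [mem_cone]
    have k0 := hck 0 (by decide)
    have k2 := hck 2 (by decide)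
    have k3 := hck 3 (by decide)
    have k4 := hck 4 (by decide)
    have k5 := hck 5 (by decide)
    have k6 := hck 6 (by decide)
    have k7 := hck 7 (by decide)
    have k8 := hck 8 (by decide)
    have k9 := hck 9 (by decide)
    have k10 := hck 10 (by decide)
    have k11 := hck 11 (by decide)
    have q0 : cl8 0 = 0 := rfl
    have q2 : cl8 2 = 7 := rfl
    have q3 : cl8 3 = 1 := rfl
    have q4 : cl8 4 = 1 := rfl
    have q5 : cl8 5 = 3 := rfl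
    have q6 : cl8 6 = 3 := rfl
    have q7 : cl8 7 = 6 := rfl
    have q8 : cl8 8 = 6 := rfl
    have q9 : cl8 9 = 5 := rfl
    have q10 : cl8 10 = 2 := rfl
    have q11 : cl8 11 = 4 := rfl
    rw [q0] at k0
    rw [q2] at k2
    rw [q3] at k3
    rw [q4] at k4
    rw [q5] at k5
    rw [q6] at k6
    rw [q7] at k7
    rw [q8] at k8
    rw [q9] at k9
    rw [q10] at k10
    rw [q11] at k11
    unfold Wl
    rw [k0, k2, k3, k4, k5, k6, k7, k8, k9, k10, k11, hcD]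
    obtain ⟨a0, b0⟩ := hb 0
    obtain ⟨a1, b1⟩ := hb 1
    obtain ⟨a2, b2⟩ := hb 2
    obtain ⟨a3, b3⟩ := hb 3
    obtain ⟨a4, b4⟩ := hb 4
    obtain ⟨a5, b5⟩ := hb 5
    obtain ⟨a6, b6⟩ := hb 6
    obtain ⟨a7, b7⟩ := hb 7
    obtain ⟨f1, f2, f3, f4, f5, f6, f7⟩ := hd
    refine ⟨?_, ?_, ?_, ?_, ?_, ?_, ?_, ?_, ?_, ?_, ?_, ?_, ?_, ?_, ?_, ?_⟩ <;> linarith
  have h1 := (mem_PP.1 hcP) w.1 w.2.1 w.2.2
  have h2 : (slice (mw monL) kp (y8 t) kp_hd).rhs w (RL8.vec d) =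
      ∑ s, (w.2.1 s : ℝ) * c s := by
    have h3 := Sl741.rhs_xt (Q := mw monL) (p := kp) (v := y8 t) (hp := kp_hd) w
      (Function.update 0 1 (10 * ‖d‖ + 1)) (RL8.vec d)
    have h4 : ∑ s : {i // ¬ kp i}, (((mw monL).co w s.1 : ℕ) : ℝ) *
        (Function.update 0 1 (10 * ‖d‖ + 1) : Fin 12 → ℝ) s.1 = 0 := by
      refine Finset.sum_eq_zero fun s _ => ?_
      have h5 : s.1 = 1 := not_not.1 s.2
      rw [h5]
      change ((w.2.1 1 : ℕ) : ℝ) * _ = 0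
      rw [hw1]; simp
    rw [h4, add_zero] at h3
    rw [← h3]
    rfl
  rw [h2]
  have h6 : RL8.vec d ((slice (mw monL) kp (y8 t) kp_hd).hd w) = c w.1 := by
    rw [hck w.1 (kp_hd w)]
    simp only [RS.vec, RL8, one_mul]
    rfl
  rw [h6]
  exact h1

/-- direction of the record line, `D` frozen -/
def r8 (θa θb : ℝ) : Fin 12 → ℝ := Function.update (eL 1 (-θa) (-θb)) 1 0

theorem rs_r8 (θa θb : ℝ) : rs kp (r8 θa θb) = RL8.vec (nat8 1 (-θa) (-θb)) := rs_nat _ _ _ _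

theorem y8_at {t : ℝ} {i : Fin 12} (hi : i ≠ 1) : y8 t i = 0 := by
  unfold y8; rw [Function.update_of_ne hi]; rfl

theorem ne_one {w : Σ k : Fin 12, {e // e ∈ monL.mon k}} : w.1 ≠ 1 := kp_hd w

/-- record points are interior points -/
theorem mem_O8 {θa θb t ξ S : ℝ} (hξ : ξ * (2 * θa - θb - 1) < t)
    (hS : ‖y8 t + ξ • r8 θa θb‖ < S) :
    (ξ, (0:ℝ)) ∈ (mw monL).O (fun _ => -S) (fun _ => S) (y8 t) (r8 θa θb) 0 := by
  have hX : X (y8 t) (r8 θa θb) 0 (ξ, 0) = y8 t + ξ • r8 θa θb := Rc683.line_eq _ _ _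
  have hD : eL 1 (-θa) (-θb) 1 = 2 * θa - θb - 1 := by simp [eL]; ring
  refine ⟨fun k => ?_, fun w => ?_⟩
  · rw [hX]
    have h2 := norm_le_pi_norm (y8 t + ξ • r8 θa θb) k
    rw [Real.norm_eq_abs] at h2
    have h3 := abs_lt.1 (h2.trans_lt hS)
    exact ⟨h3.1, h3.2⟩
  · obtain ⟨k, e, he⟩ := w
    have hk : k ≠ 1 := kp_hd ⟨k, e, he⟩
    have hw := eL_wall 1 (-θa) (-θb) k he
    have hsum1 : ∀ c : Fin 12 → ℝ, ∑ s, (e s : ℝ) * Function.update c 1 0 s =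
        ∑ s, (e s : ℝ) * c s - (e 1 : ℝ) * c 1 := by
      intro c
      have h1 : ∀ s, (e s : ℝ) * Function.update c 1 0 s =
          (e s : ℝ) * c s - (if s = 1 then (e 1 : ℝ) * c 1 else 0) := by
        intro s
        by_cases hs : s = 1
        · subst hs; rw [Function.update_self, if_pos rfl]; ring
        · rw [Function.update_of_ne hs, if_neg hs]; ring
      rw [Finset.sum_congr rfl fun s _ => h1 s, Finset.sum_sub_distrib,
        Finset.sum_ite_eq' Finset.univ (1 : Fin 12), if_pos (Finset.mem_univ _)]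
    have hsum2 : ∑ s, (e s : ℝ) * y8 t s = (e 1 : ℝ) * t := by
      rw [Finset.sum_eq_single (1 : Fin 12)]
      · unfold y8; rw [Function.update_self]
      · intro s _ hs; rw [y8_at hs, mul_zero]
      · intro h; exact absurd (Finset.mem_univ _) h
    by_cases h1 : e 1 = 0
    · left
      refine ⟨?_, ?_, ?_⟩
      · change y8 t k = ∑ s, (e s : ℝ) * y8 t s + 0
        rw [hsum2, y8_at hk, h1]; simp
      · change r8 θa θb k = ∑ s, (e s : ℝ) * r8 θa θb s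
        unfold r8
        rw [hsum1, hw, Function.update_of_ne hk, h1]; simp
      · change (0:ℝ) = ∑ s, (e s : ℝ) * (0:ℝ)
        simp
    · right
      rw [hX]
      change (y8 t + ξ • r8 θa θb) k < ∑ s, (e s : ℝ) * (y8 t + ξ • r8 θa θb) s + 0
      have h2 : ∑ s, (e s : ℝ) * (y8 t + ξ • r8 θa θb) s =
          (e 1 : ℝ) * t + ξ * (eL 1 (-θa) (-θb) k - (e 1 : ℝ) * (2 * θa - θb - 1)) := by
        have h3 : ∀ s, (e s : ℝ) * (y8 t + ξ • r8 θa θb) s =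
            (e s : ℝ) * y8 t s + ξ * ((e s : ℝ) * Function.update (eL 1 (-θa) (-θb)) 1 0 s) := by
          intro s
          simp only [Pi.add_apply, Pi.smul_apply, smul_eq_mul, r8]; ring
        rw [Finset.sum_congr rfl fun s _ => h3 s, Finset.sum_add_distrib, ← Finset.mul_sum,
          hsum1, hw, hsum2, hD]
      have h4 : (y8 t + ξ • r8 θa θb) k = ξ * eL 1 (-θa) (-θb) k := by
        simp only [Pi.add_apply, Pi.smul_apply, smul_eq_mul, r8]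
        rw [y8_at hk, Function.update_of_ne hk]; ring
      rw [h2, h4]
      have h5 : (1:ℝ) ≤ e 1 := by exact_mod_cast Nat.one_le_iff_ne_zero.2 h1
      nlinarith

/-- walls of the slice -/
noncomputable abbrev Q8 (t : ℝ) : Walls K8 (Σ k : Fin 12, {e // e ∈ monL.mon k}) :=
  slice (mw monL) kp (y8 t) kp_hd

/-- surface with the offset `B` -/
noncomputable abbrev srf8 (θa θb t : ℝ) (B : Fin 8 → ℝ) (sg : ℝ) : Rc683.Srf K8 :=
  RL8.srf (rs kp (y8 t)) (nat8 1 (-θa) (-θb)) B sg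

/-- wall cone at the record, `D` released -/
abbrev L8 (θa θb t : ℝ) : Set (Fin 12 → ℝ) := (mw monL).L (y8 t) (r8 θa θb) 0

/-- the rates of a surface, `ρ` -/
def Rates8 (θa θb t : ℝ) (B : Fin 8 → ℝ) (sg c0 : ℝ) (lam : (Fin 12 → ℝ) → ℝ) (ρ : Fin 8 → ℝ) :
    Prop :=
  SRates RL8 (nat8 1 (-θa) (-θb)) B sg (fun c => lam (xt kp 0 c))
    ((srf8 θa θb t B sg).LW (Q8 t) c0) ρ

/-- the complete output of the record blow-up on a surface -/
def Rec8 (θa θb t : ℝ) (B : Fin 8 → ℝ) (sg c0 : ℝ) (lam : (Fin 12 → ℝ) → ℝ) : Prop :=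
  ∃ (φ : ℕ → (K8 → ℝ) → ℝ) (r : ℕ → ℝ),
    RecOut (srf8 θa θb t B sg).g (srf8 θa θb t B sg).S ((srf8 θa θb t B sg).LW (Q8 t) c0)
      ((srf8 θa θb t B sg).L (Q8 t)) (srf8 θa θb t B sg).a (srf8 θa θb t B sg).b
      (srf8 θa θb t B sg).l (srf8 θa θb t B sg).dh (srf8 θa θb t B sg).n
      (fun c => lam (xt kp 0 c)) φ r

theorem ae_rates8_box {J : Type*} [Finite J] {g : J → (Fin 12 → ℝ) → ℝ} {j0 : J}
    {K : ℝ} (hK : 0 ≤ K)
    (hg : ∀ j, ∀ p ∈ PP (mw monL), ∀ q ∈ PP (mw monL), |g j p - g j q| ≤ K * dist p q)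
    (hm : ∀ p ∈ PP (mw monL), ∀ q ∈ PP (mw monL), p ≤ q →
      0 ≤ g j0 p - g j0 q ∧ g j0 p - g j0 q ≤ ∑ i, (q i - p i))
    (hs : SupOn (g j0) (PP (mw monL))) {θa θb t : ℝ} (ht0 : 0 < t) {T : Type*} [Countable T]
    {B : T → Fin 8 → ℝ} {sg : T → ℝ} (hS : ∀ s, SOk (nat8 1 (-θa) (-θb)) (B s) (sg s))
    (hB : ∀ s, Leg8 (B s)) {S : ℝ} (hSt : t ≤ S) :
    ∀ᵐ ξ : ℝ, ξ ∈ {ξ : ℝ | (ξ, (0:ℝ)) ∈ (mw monL).O (fun _ => -S) (fun _ => S) (y8 t)
        (r8 θa θb) 0} → ∃ c0 : T → ℝ, (∀ s, 0 < c0 s) ∧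
      (∀ s, (srf8 θa θb t (B s) (sg s)).LW (Q8 t) (c0 s) ⊆
        (Q8 t).L (rs kp (y8 t)) (rs kp (r8 θa θb)) 0) ∧
      ∀ k : ℕ → ℝ, (∀ l, 0 < k l) → Tendsto k atTop (𝓝 0) →
      ∃ (y k' : ℕ → ℝ) (lam : J → (Fin 12 → ℝ) → ℝ), Tendsto y atTop (𝓝 ξ) ∧
        (∀ m, 0 < k' m) ∧ Tendsto k' atTop (𝓝 0) ∧
        (∀ j, Ex926.IsTan (PP (mw monL)) (L8 θa θb t) (g j)
          (fun m => y8 t + y m • r8 θa θb) k' (lam j)) ∧
        ∀ s, Rec8 θa θb t (B s) (sg s) (c0 s) (lam j0) ∧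
          ∃ ρ, Rates8 θa θb t (B s) (sg s) (c0 s) (lam j0) ρ := by
  have hPP : ∀ S : ℝ, (mw monL).P (fun _ => -S) (fun _ => S) ⊆ PP (mw monL) :=
    fun S p hp => hp.2
  have hbox : ∀ i, ¬ kp i → -S ≤ y8 t i ∧ y8 t i ≤ S := by
    intro i hi
    have hi' : i = 1 := not_not.1 hi
    subst hi'
    unfold y8
    rw [Function.update_self]
    constructor <;> linarith
  have h1 := ae_rates (Q := mw monL) (p := kp) (hp := kp_hd) (lo := fun _ => -S)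
    (hi := fun _ => S) (y0 := y8 t) (ρ0 := r8 θa θb) (fun i hi => hbox i hi) (fun i hi => by
      have hi' : i = 1 := not_not.1 hi
      subst hi'
      unfold r8; rw [Function.update_self]) (R := RL8) (A := nat8 1 (-θa) (-θb)) (rs_r8 _ _)
    hS (fun s => RL8_full) (fun s => RL8_mem ht0.ne' (hB s)) (f := g) (j0 := j0) hK
    (fun j p hp q hq => hg j p (hPP _ hp) q (hPP _ hq))
    (fun p hp q hq => hm p (hPP _ hp) q (hPP _ hq))
    (fun p hp q hq h1 h2 => hs p (hPP _ hp) q (hPP _ hq) (hPP _ h1) (hPP _ h2))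
    (U := {ξ : ℝ | (ξ, (0:ℝ)) ∈ (mw monL).O (fun _ => -S) (fun _ => S) (y8 t)
      (r8 θa θb) 0}) (fun ξ hξ => hξ)
  filter_upwards [h1] with ξ hξ hξU
  obtain ⟨c0, hc0, hsub, H⟩ := hξ hξU
  refine ⟨c0, hc0, hsub, fun k kpos k0 => ?_⟩
  obtain ⟨y, k', lam, hy, hk', hk0, hT, hR⟩ := H k kpos k0
  exact ⟨y, k', lam, hy, hk', hk0, fun j => Rc683.tan_mono (hT j) (hPP _) Subset.rfl, hR⟩

theorem y8_mem (θa θb t ξ : ℝ) (hξ : ξ * (2 * θa - θb - 1) ≤ t) :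
    y8 t + ξ • r8 θa θb ∈ PP (mw monL) := by
  rw [mem_cone]
  have h1 : ∀ k : Fin 12, k ≠ 1 → (y8 t + ξ • r8 θa θb) k = ξ * eL 1 (-θa) (-θb) k := by
    intro k hk
    simp only [Pi.add_apply, Pi.smul_apply, smul_eq_mul, r8]
    rw [y8_at hk, Function.update_of_ne hk]; ring
  have hD : (y8 t + ξ • r8 θa θb) 1 = t := by
    simp only [Pi.add_apply, Pi.smul_apply, smul_eq_mul, r8, y8]
    rw [Function.update_self, Function.update_self]; ring
  unfold Wl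
  rw [hD, h1 0 (by decide), h1 2 (by decide), h1 3 (by decide), h1 4 (by decide),
    h1 5 (by decide), h1 6 (by decide), h1 7 (by decide), h1 8 (by decide), h1 9 (by decide),
    h1 10 (by decide), h1 11 (by decide)]
  have e0 : eL 1 (-θa) (-θb) 0 = 1 := rfl
  have e2 : eL 1 (-θa) (-θb) 2 = -θb - 2 * -θa := rfl
  have e3 : eL 1 (-θa) (-θb) 3 = -θa := rfl
  have e4 : eL 1 (-θa) (-θb) 4 = -θa := rfl
  have e5 : eL 1 (-θa) (-θb) 5 = 1 + -θa := rfl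
  have e6 : eL 1 (-θa) (-θb) 6 = 1 + -θa := rfl
  have e7 : eL 1 (-θa) (-θb) 7 = -θb - -θa := rfl
  have e8 : eL 1 (-θa) (-θb) 8 = -θb - -θa := rfl
  have e9 : eL 1 (-θa) (-θb) 9 = 1 + 2 * -θa := rfl
  have e10 : eL 1 (-θa) (-θb) 10 = -θb := rfl
  have e11 : eL 1 (-θa) (-θb) 11 = 1 + -θb := rfl
  rw [e0, e2, e3, e4, e5, e6, e7, e8, e9, e10, e11]
  refine ⟨?_, ?_, ?_, ?_, ?_, ?_, ?_, ?_, ?_, ?_, ?_, ?_, ?_, ?_, ?_, ?_⟩ <;> nlinarith

/-- **RATES AT THE RECORD, light chart, `D` frozen at the level `t`** -/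
theorem ae_rates8 {P : Set (Fin 12 → ℝ)} {J : Type*} [Finite J]
    {f g : J → (Fin 12 → ℝ) → ℝ} {j0 : J} {x : ℕ → Fin 12 → ℝ} {h : ℕ → ℝ}
    (hpos : ∀ l, 0 < h l) (ht : ∀ j, Ex926.IsTan P (PP (mw monL)) (f j) x h (g j))
    {K : ℝ} (hK : 0 ≤ K)
    (hg : ∀ j, ∀ p ∈ PP (mw monL), ∀ q ∈ PP (mw monL), |g j p - g j q| ≤ K * dist p q)
    (hm : ∀ p ∈ PP (mw monL), ∀ q ∈ PP (mw monL), p ≤ q →
      0 ≤ g j0 p - g j0 q ∧ g j0 p - g j0 q ≤ ∑ i, (q i - p i))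
    (hs : SupOn (g j0) (PP (mw monL))) {θa θb t : ℝ} (ht0 : 0 < t) {T : Type*} [Countable T]
    {B : T → Fin 8 → ℝ} {sg : T → ℝ} (hS : ∀ s, SOk (nat8 1 (-θa) (-θb)) (B s) (sg s))
    (hB : ∀ s, Leg8 (B s)) :
    ∀ᵐ ξ : ℝ, ξ * (2 * θa - θb - 1) < t → ∃ c0 : T → ℝ, (∀ s, 0 < c0 s) ∧
      (∀ s, (srf8 θa θb t (B s) (sg s)).LW (Q8 t) (c0 s) ⊆
        (Q8 t).L (rs kp (y8 t)) (rs kp (r8 θa θb)) 0) ∧
      ∀ k : ℕ → ℝ, (∀ l, 0 < k l) → Tendsto k atTop (𝓝 0) →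
      ∃ (y k' : ℕ → ℝ) (ψ : ℕ → ℕ) (lam : J → (Fin 12 → ℝ) → ℝ), Tendsto y atTop (𝓝 ξ) ∧
        (∀ m, 0 < k' m) ∧ Tendsto k' atTop (𝓝 0) ∧ StrictMono ψ ∧
        (∀ j, Ex926.IsTan (PP (mw monL)) (L8 θa θb t) (g j)
          (fun m => y8 t + y m • r8 θa θb) k' (lam j)) ∧
        (∀ j, Ex926.IsTan P (L8 θa θb t) (f j)
          (fun m => x (ψ m) + h (ψ m) • (y8 t + y m • r8 θa θb))
          (fun m => h (ψ m) * k' m) (lam j)) ∧
        ∀ s, Rec8 θa θb t (B s) (sg s) (c0 s) (lam j0) ∧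
          ∃ ρ, Rates8 θa θb t (B s) (sg s) (c0 s) (lam j0) ρ := by
  have key : ∀ᵐ ξ : ℝ, ∀ N : ℕ, t ≤ N →
      ξ ∈ {ξ : ℝ | (ξ, (0:ℝ)) ∈ (mw monL).O (fun _ => -(N:ℝ)) (fun _ => (N:ℝ)) (y8 t)
        (r8 θa θb) 0} → ∃ c0 : T → ℝ, (∀ s, 0 < c0 s) ∧
      (∀ s, (srf8 θa θb t (B s) (sg s)).LW (Q8 t) (c0 s) ⊆
        (Q8 t).L (rs kp (y8 t)) (rs kp (r8 θa θb)) 0) ∧
      ∀ k : ℕ → ℝ, (∀ l, 0 < k l) → Tendsto k atTop (𝓝 0) →
      ∃ (y k' : ℕ → ℝ) (lam : J → (Fin 12 → ℝ) → ℝ), Tendsto y atTop (𝓝 ξ) ∧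
        (∀ m, 0 < k' m) ∧ Tendsto k' atTop (𝓝 0) ∧
        (∀ j, Ex926.IsTan (PP (mw monL)) (L8 θa θb t) (g j)
          (fun m => y8 t + y m • r8 θa θb) k' (lam j)) ∧
        ∀ s, Rec8 θa θb t (B s) (sg s) (c0 s) (lam j0) ∧
          ∃ ρ, Rates8 θa θb t (B s) (sg s) (c0 s) (lam j0) ρ := by
    refine ae_all_iff.2 fun N => ?_
    by_cases hN : t ≤ N
    · filter_upwards [ae_rates8_box hK hg hm hs ht0 hS hB hN] with ξ hξ _ using hξ
    · exact Eventually.of_forall fun ξ h => absurd h hN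
  filter_upwards [key] with ξ hξ hξt
  obtain ⟨N, hN⟩ := exists_nat_gt (max t ‖y8 t + ξ • r8 θa θb‖)
  obtain ⟨c0, hc0, hsub, H⟩ := hξ N ((le_max_left _ _).trans hN.le)
    (mem_O8 hξt ((le_max_right _ _).trans_lt hN))
  refine ⟨c0, hc0, hsub, fun k kpos k0 => ?_⟩
  obtain ⟨y, k', lam, hy, hk', hk0, hT, hR⟩ := H k kpos k0
  -- the bases are in the cone from some index on
  have hev : ∀ᶠ m in atTop, y m * (2 * θa - θb - 1) < t :=
    (hy.mul_const _).eventually_lt_const hξt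
  obtain ⟨M0, hM0⟩ := eventually_atTop.1 hev
  set y' : ℕ → ℝ := fun m => y (m + M0) with hy'
  set k'' : ℕ → ℝ := fun m => k' (m + M0) with hk''
  have hsh : Tendsto (fun m : ℕ => m + M0) atTop atTop := tendsto_add_atTop_nat M0
  have hT' : ∀ j, Ex926.IsTan (PP (mw monL)) (L8 θa θb t) (g j)
      (fun m => y8 t + y' m • r8 θa θb) k'' (lam j) := fun j => Rc683.tan_comp (hT j) hsh
  obtain ⟨ψ, hψ, -, hD⟩ := diagM (J := J) (P := fun _ => P) (L := fun _ => PP (mw monL))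
    (L' := fun _ => L8 θa θb t) hpos ht (y := fun m => y8 t + y' m • r8 θa θb)
    (fun _ m => y8_mem θa θb t _ (hM0 (m + M0) (Nat.le_add_left _ _)).le)
    (fun m => hk' _) hT' (A := fun _ _ => True) (fun _ => Eventually.of_forall fun _ => trivial)
  exact ⟨y', k'', ψ, lam, hy.comp hsh, fun m => hk' _, hk0.comp hsh, hψ, hT', hD, hR⟩

end Crest.Agent.R116.RbM219
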