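import Crest.Agent.R116.NZ5_90
import Crest.Agent.R116.RbM1_219

/-!
# R116, K-TEXT II-c: the `N`-`z` chain rule in the letters `Rates8` of 219 (helper90)

* `nz_rs5` : as `nz_rs4`, the `Z`-step below is any upper bound at the points
  `natural point + c`, `c` legal, `c = 0` on `Z` and `N`
* `LamOk`  : what is used of the record tangent `lam`
* **`nz8`** : the theorem over the light chart (the two planes of the tables: `NZ7_90`)
-/

set_option autoImplicit false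
set_option linter.unusedSectionVars false
set_option linter.unusedVariables false

open Set Filter Topology

namespace Crest.Agent.R116.NZ90

open Crest.Agent.R136
open Crest.Agent.R138
open Net191 (Mons Legal Leg)
open Dg219 (Tn lf det2 Cone Walls gC nC dhC dirC mw)
open Rc146 (OutH)
open Rc683 (Srf)
open RbK219 (RS SOk Aln dl Par SRates)
open Sl741 (slice xt rs)
open ChL222 (monL mfL)
open RbM219

section gen

variable {ι W τ : Type*} [Fintype ι] [DecidableEq ι] [Fintype W] [Fintype τ] [DecidableEq τ]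

section

variable {R : RS ι τ} {Q : Walls ι W} {Z : Finset τ} {N : τ} {A B : τ → ℝ} {y0 : ι → ℝ}

/-- every active wall of the record has a summand outside `Z ∪ {N}` -/
def WOut (R : RS ι τ) (Q : Walls ι W) (y0 : ι → ℝ) (A : τ → ℝ) (Z : Finset τ) (N : τ) : Prop :=
  ∀ w, Q.Act y0 (R.vec A) 0 w → ∃ s, Q.co w s ≠ 0 ∧ R.cls s ∉ Z ∧ R.cls s ≠ N

theorem WOut.wok (hw : WOut R Q y0 A Z N) : WOk R Q y0 A Z N where
  out := fun w hact _ => hw w hact
  inn := fun w hact _ => Or.inr (hw w hact)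

theorem WOut.room (hw : WOut R Q y0 A Z N) {e : ι → ℝ} (he0 : ∀ i, 0 ≤ e i)
    {K : ℝ} (hK0 : 0 ≤ K) (hK : ∀ i, e i ≤ K) :
    K • rmZ R Q Z N + e ∈ Q.L y0 (R.vec A) 0 := by
  intro w hact
  rw [Q.rhs_add, Q.rhs_smul]
  have h1 : 0 ≤ Q.rhs w e := Q.rhs_nonneg he0
  simp only [Pi.add_apply, Pi.smul_apply, smul_eq_mul]
  have h3 := rmZ_room (hw w hact)
  have h4 := mul_le_mul_of_nonneg_left h3 hK0
  linarith [hK (Q.hd w)]

end

/-! ### the theorem -/

section main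

variable {R : RS ι τ} {Q : Walls ι W} {y0 : ι → ℝ} {A Bp Bm : τ → ℝ}

set_option maxHeartbeats 4000000 in
/-- **`N`-`z` chain rule at a record point**; the `Z`-step below is an inequality -/
theorem nz_rs5 (hp : SOk A Bp 1) (hm : SOk A Bm (-1))
    (hlp : R.vec Bp ∈ Q.L y0 (R.vec A) 0) (hlm : R.vec Bm ∈ Q.L y0 (R.vec A) 0)
    {cp cm : ℝ} (hcp : 0 < cp) (hcm : 0 < cm) {lam : (ι → ℝ) → ℝ}
    (hs : ∀ p ∈ Q.L y0 (R.vec A) 0, ∀ q ∈ Q.L y0 (R.vec A) 0, p ⊓ q ∈ Q.L y0 (R.vec A) 0 →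
      p ⊔ q ∈ Q.L y0 (R.vec A) 0 → lam p + lam q ≤ lam (p ⊔ q) + lam (p ⊓ q))
    (hanti : ∀ p ∈ Q.L y0 (R.vec A) 0, ∀ q ∈ Q.L y0 (R.vec A) 0, p ≤ q → lam q ≤ lam p)
    {K : ℝ} (hK : 0 ≤ K)
    (hlip : ∀ p ∈ Q.L y0 (R.vec A) 0, ∀ q ∈ Q.L y0 (R.vec A) 0, |lam p - lam q| ≤ K * dist p q)
    {N z0 : τ} {Z : Finset τ} (hNZ : N ∉ Z) (hz0 : z0 ∈ Z) (hAz : A z0 = 1)
    (hAN : 0 < A N) (hBpN : 0 < Bp N) (hBmN : Bm N < Bm z0 * A N)
    (hBz0 : Bp z0 = 0) (hBZ : ∀ t ∈ Z, Bp t * A N < A t * Bp N)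
    (hcmp : ∀ t, t ∉ Z → t ≠ N → A t * Bp N ≤ Bp t * A N)
    (hw : WOut R Q y0 A Z N) {Kz : ℝ} (hKz : 0 ≤ Kz) {rp rm rz own : ℝ}
    (hrp : R.RateAt lam ((R.srf y0 A Bp 1).LW Q cp) N rp)
    (hrm : R.RateAt lam ((R.srf y0 A Bm (-1)).LW Q cm) N rm)
    (hrz : ∀ (c : ι → ℝ) (l α x : ℝ), 0 < l → 0 ≤ x → c ∈ Q.L y0 (R.vec A) 0 →
      (∀ i, R.cls i ∈ Z ∨ R.cls i = N → c i = 0) →
      (∀ i, R.cls i ∉ Z → R.cls i ≠ N → x ≤ c i) →
      (∀ Z' : Finset τ, Z' ⊆ Z → c + x • eZ R A Z' ∈ Q.L y0 (R.vec A) 0) →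
      ‖c‖ + x * Kz ≤ cm * l →
      (∀ Z' : Finset τ, Z' ⊆ Z → R.vec (l • Bm + α • A) + c + x • eZ R A Z' ∈
        (R.srf y0 A Bm (-1)).LW Q cm) →
      lam (R.vec (l • Bm + α • A) + c) - lam (R.vec (l • Bm + α • A) + c + x • eZ R A Z) ≤
        rz * x)
    (hown : ∀ p ∈ Q.L y0 (R.vec A) 0, ∀ p' ∈ Q.L y0 (R.vec A) 0, p ≤ p' →
      (∃ s : ℝ, 0 ≤ s ∧ ∀ i, R.cls i ∈ Z → p i = s * R.vec Bp i) → ∀ x : ℝ, 0 ≤ x →
      (∀ i, R.cls i = z0 → p' i = p i + R.mu i * x) → own * x ≤ lam p - lam p') :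
    A N * (rp - rm) ≤ rz - own := by
  classical
  obtain ⟨j0, hj0⟩ := R.sur N
  obtain ⟨jz, hjz⟩ := R.sur z0
  have cone : Cone (Q.L y0 (R.vec A) 0) := Walls.cone
  have hBp0 : ∀ t, 0 ≤ Bp t := fun t => by have := hp.nn t; rwa [one_mul] at this
  have hAZ : ∀ t ∈ Z, 0 < A t := by
    intro t ht
    have h1 := hBZ t ht
    have h2 := mul_nonneg (hBp0 t) hAN.le
    by_contra hcon
    push Not at hcon
    have := mul_nonpos_of_nonpos_of_nonneg hcon hBpN.le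
    linarith
  -- unshifted offset below
  obtain ⟨Bd, hBd⟩ : ∃ Bd : τ → ℝ, Bd = fun t => Bm t - Bm z0 * A t := ⟨_, rfl⟩
  have hBdz : Bd z0 = 0 := by rw [hBd]; simp only; rw [hAz]; ring
  have hBdN : Bd N < 0 := by rw [hBd]; simp only; linarith
  have hnat : ∀ v s : ℝ, R.vec ((-s) • Bd + v • A) =
      R.vec ((-s) • Bm + (v + s * Bm z0) • A) := by
    intro v s
    funext i
    simp only [RS.vec, Pi.add_apply, Pi.smul_apply, smul_eq_mul, hBd]; ring
  -- constants of the room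
  obtain ⟨K1, hK1⟩ : ∃ K1 : ℝ, K1 = 1 + ∑ i, (R.mu i + |R.vec A i| + |R.vec Bp i|) := ⟨_, rfl⟩
  have hterm : ∀ i, 0 ≤ R.mu i + |R.vec A i| + |R.vec Bp i| := fun i =>
    add_nonneg (add_nonneg (R.pos i).le (abs_nonneg _)) (abs_nonneg _)
  have hsum : ∀ i, R.mu i + |R.vec A i| + |R.vec Bp i| ≤
      ∑ i, (R.mu i + |R.vec A i| + |R.vec Bp i|) := fun i =>
    Finset.single_le_sum (f := fun i => R.mu i + |R.vec A i| + |R.vec Bp i|)
      (fun i _ => hterm i) (Finset.mem_univ i)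
  have hsum0 : 0 ≤ ∑ i, (R.mu i + |R.vec A i| + |R.vec Bp i|) :=
    Finset.sum_nonneg fun i _ => hterm i
  have hK11 : 1 ≤ K1 := by rw [hK1]; linarith
  have hK10 : 0 ≤ K1 := by linarith
  have hKmu : ∀ i, R.mu i ≤ K1 := fun i => by
    rw [hK1]; linarith [hsum i, abs_nonneg (R.vec A i), abs_nonneg (R.vec Bp i)]
  have hKA : ∀ i, |R.vec A i| ≤ K1 := fun i => by
    rw [hK1]; linarith [hsum i, abs_nonneg (R.vec Bp i), (R.pos i).le]
  have hKB : ∀ i, |R.vec Bp i| ≤ K1 := fun i => by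
    rw [hK1]; linarith [hsum i, abs_nonneg (R.vec A i), (R.pos i).le]
  have hwok := hw.wok
  obtain ⟨m, hmdef⟩ : ∃ m : ι → ℝ, m = K1 • rmZ R Q Z N := ⟨_, rfl⟩
  have hmM : m ∈ Q.L y0 (R.vec A) 0 := by
    rw [hmdef]; exact cone.smul _ (rmZ_mem hwok) _ hK10
  have hmN : m + R.e N ∈ Q.L y0 (R.vec A) 0 := by
    rw [hmdef]; exact rmZ_eN hwok hNZ hK10 hKmu
  have hmZ : ∀ Z' : Finset τ, Z' ⊆ Z → m + eZ R A Z' ∈ Q.L y0 (R.vec A) 0 := by
    intro Z' h1
    rw [hmdef]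
    refine hw.room (eZ_nonneg fun t ht => (hAZ t (h1 ht)).le) hK10 fun i => ?_
    unfold eZ
    split_ifs
    · exact (le_abs_self _).trans (hKA i)
    · exact hK10
  have hmB : m + eZ R Bp Z ∈ Q.L y0 (R.vec A) 0 := by
    rw [hmdef]
    refine hw.room (eZ_nonneg fun t ht => hBp0 t) hK10 fun i => ?_
    unfold eZ
    split_ifs
    · exact (le_abs_self _).trans (hKB i)
    · exact hK10
  obtain ⟨q, hq⟩ : ∃ q : ι → ℝ, q = (2 : ℝ) • m := ⟨_, rfl⟩
  have hqi : ∀ i, q i = 2 * (K1 * rmZ R Q Z N i) := fun i => by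
    rw [hq, hmdef]; simp only [Pi.smul_apply, smul_eq_mul]
  have hqZ : ∀ i, R.cls i ∈ Z → q i = 0 := fun i hi => by
    rw [hqi]; unfold rmZ; rw [if_pos (Or.inl hi)]; ring
  have hqN : ∀ i, R.cls i = N → q i = 0 := fun i hi => by
    rw [hqi]; unfold rmZ; rw [if_pos (Or.inr hi)]; ring
  have hq0 : ∀ i, 0 ≤ q i := fun i => by
    rw [hqi]
    have := mul_nonneg hK10 (rmZ_nonneg (R := R) (Q := Q) (Z := Z) (N := N) i)
    linarith
  have hq1 : ∀ i, R.cls i ∉ Z → R.cls i ≠ N → 1 ≤ q i := fun i h1 h2 => by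
    have e1 : rmZ R Q Z N i = Q.rs i := by
      unfold rmZ; rw [if_neg (by push Not; exact ⟨h1, h2⟩)]
    rw [hqi, e1]
    have h3 := Q.one_le_rs i
    have h4 : 1 * 1 ≤ K1 * Q.rs i := mul_le_mul hK11 h3 zero_le_one hK10
    linarith
  -- legal increments
  have hoffg : ∀ e : ι → ℝ, m + e ∈ Q.L y0 (R.vec A) 0 → ∀ x y z : ℝ, 0 ≤ y → y ≤ x → 0 ≤ z →
      z ≤ x → x • q + y • R.e N + z • e ∈ Q.L y0 (R.vec A) 0 := by
    intro e he x y z hy hyx hz hzx
    have h1 := cone.add _ (roomy cone hmM hmN hy hyx) _ (roomy cone hmM he hz hzx)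
    have h2 : x • m + y • R.e N + (x • m + z • e) = x • q + y • R.e N + z • e := by
      rw [hq]
      funext i
      simp only [Pi.add_apply, Pi.smul_apply, smul_eq_mul]; ring
    rwa [h2] at h1
  have hZZ := hmZ Z (fun _ h => h)
  have hoff := hoffg (eZ R A Z) hZZ
  have heZn : ∀ Z' : Finset τ, ‖eZ R A Z'‖ ≤ K1 := by
    intro Z'
    rw [pi_norm_le_iff_of_nonneg hK10]
    intro i
    rw [Real.norm_eq_abs]
    unfold eZ
    split_ifs
    · exact hKA i
    · rw [abs_zero]; exact hK10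
  obtain ⟨D, hD⟩ : ∃ D : ℝ, D = ‖q‖ + ‖R.e N‖ + K1 + Kz + 1 := ⟨_, rfl⟩
  have hD0 : 0 < D := by rw [hD]; positivity
  have hnormg : ∀ e : ι → ℝ, ‖e‖ ≤ K1 → ∀ x y z : ℝ, 0 ≤ y → y ≤ x → 0 ≤ z → z ≤ x →
      ‖x • q + y • R.e N + z • e‖ ≤ x * D := by
    intro e he x y z hy hyx hz hzx
    have hx : 0 ≤ x := hy.trans hyx
    have h1 : ‖x • q‖ = x * ‖q‖ := by rw [norm_smul, Real.norm_of_nonneg hx]
    have h2 : ‖y • R.e N‖ ≤ x * ‖R.e N‖ := by
      rw [norm_smul, Real.norm_of_nonneg hy]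
      exact mul_le_mul_of_nonneg_right hyx (norm_nonneg _)
    have h3 : ‖z • e‖ ≤ x * K1 := by
      rw [norm_smul, Real.norm_of_nonneg hz]
      exact mul_le_mul hzx he (norm_nonneg _) hx
    have h4 := norm_add_le (x • q + y • R.e N) (z • e)
    have h5 := norm_add_le (x • q) (y • R.e N)
    have h6 : x * D = x * ‖q‖ + x * ‖R.e N‖ + x * K1 + x * Kz + x := by rw [hD]; ring
    rw [h6]
    have h7 := mul_nonneg hx hKz
    linarith
  have hnorm := hnormg (eZ R A Z) (heZn Z)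
  obtain ⟨c0, hc0⟩ : ∃ c0 : ℝ, c0 = min (cp / D) (cm / D) := ⟨_, rfl⟩
  have hc00 : 0 < c0 := by rw [hc0]; exact lt_min (by positivity) (by positivity)
  have hc0p : ∀ x s : ℝ, 0 ≤ s → x ≤ c0 * s → x * D ≤ cp * s := by
    intro x s hs' hx
    have h1 : c0 ≤ cp / D := by rw [hc0]; exact min_le_left _ _
    have h2 : x ≤ cp / D * s := hx.trans (mul_le_mul_of_nonneg_right h1 hs')
    calc x * D ≤ cp / D * s * D := mul_le_mul_of_nonneg_right h2 hD0.le
      _ = cp * s := by field_simp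
  have hc0m : ∀ x s : ℝ, 0 ≤ s → x ≤ c0 * s → x * D ≤ cm * s := by
    intro x s hs' hx
    have h1 : c0 ≤ cm / D := by rw [hc0]; exact min_le_right _ _
    have h2 : x ≤ cm / D * s := hx.trans (mul_le_mul_of_nonneg_right h1 hs')
    calc x * D ≤ cm / D * s * D := mul_le_mul_of_nonneg_right h2 hD0.le
      _ = cm * s := by field_simp
  -- slots of `Z` in the chart
  obtain ⟨Zi, hZi⟩ : ∃ Zi : Finset ι, Zi = Finset.univ.filter (fun i => R.cls i ∈ Z) := ⟨_, rfl⟩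
  have hZm : ∀ i, i ∈ Zi ↔ R.cls i ∈ Z := fun i => by
    rw [hZi, Finset.mem_filter]; simp
  have hj0Z : j0 ∉ Zi := fun h => hNZ (hj0 ▸ (hZm j0).1 h)
  have hslZ : ∀ (B : τ → ℝ) (i : ι), R.cls i ∈ Z → sl R N j0 B i = R.mu i * B (R.cls i) := by
    intro B i hi
    have h1 : ¬ R.cls i = N := fun e => hNZ (e ▸ hi)
    unfold sl
    rw [if_neg h1]
  have hslN : ∀ B : τ → ℝ, sl R N j0 B j0 = B N := by
    intro B; unfold sl; rw [if_pos hj0, if_pos rfl]
  -- bounds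
  obtain ⟨RR, hRR⟩ : ∃ RR : ℝ, RR = ∑ i, (|sl R N j0 A i| + |sl R N j0 Bd i|) := ⟨_, rfl⟩
  have hRt : ∀ i, |sl R N j0 A i| + |sl R N j0 Bd i| ≤ RR := fun i => by
    rw [hRR]
    exact Finset.single_le_sum (f := fun i => |sl R N j0 A i| + |sl R N j0 Bd i|)
      (fun i _ => add_nonneg (abs_nonneg _) (abs_nonneg _)) (Finset.mem_univ i)
  have hRR0 : 0 ≤ RR := by
    have := hRt j0
    linarith [abs_nonneg (sl R N j0 A j0), abs_nonneg (sl R N j0 Bd j0)]
  obtain ⟨r0, hr0, hr0Z⟩ : ∃ r0 : ℝ, 0 < r0 ∧ ∀ i ∈ Zi,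
      r0 * sl R N j0 Bp j0 + sl R N j0 Bp i * sl R N j0 A j0 ≤
        sl R N j0 A i * sl R N j0 Bp j0 := by
    obtain ⟨i1, hi1, hmin⟩ := Finset.exists_min_image Zi
      (fun i => (sl R N j0 A i * Bp N - sl R N j0 Bp i * A N) / Bp N)
      ⟨jz, (hZm jz).2 (hjz ▸ hz0)⟩
    refine ⟨(sl R N j0 A i1 * Bp N - sl R N j0 Bp i1 * A N) / Bp N, ?_, fun i hi => ?_⟩
    · refine div_pos ?_ hBpN
      rw [hslZ A i1 ((hZm i1).1 hi1), hslZ Bp i1 ((hZm i1).1 hi1)]
      have h1 := mul_lt_mul_of_pos_left (hBZ _ ((hZm i1).1 hi1)) (R.pos i1)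
      linarith
    · have h1 := hmin i hi
      rw [hslN, hslN]
      have h2 := mul_le_mul_of_nonneg_right h1 hBpN.le
      rw [div_mul_cancel₀ _ hBpN.ne', div_mul_cancel₀ _ hBpN.ne'] at h2
      rw [div_mul_cancel₀ _ hBpN.ne']
      linarith
  -- membership
  have hU : ∀ s x y : ℝ, 0 ≤ s → 0 ≤ y → y ≤ x →
      col R N j0 (Ub (sl R N j0 Bp) q j0 s x y) ∈ Q.L y0 (R.vec A) 0 := by
    intro s x y hs' hy hyx
    rw [col_Ub hj0 hqN]
    have h1 := hoff x y 0 hy hyx le_rfl (hy.trans hyx)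
    have h2 := cone.add _ (cone.smul _ hlp s hs') _ h1
    rw [zero_smul, add_zero] at h2
    rwa [← add_assoc] at h2
  have hV : ∀ s x y z : ℝ, 0 ≤ s → 0 ≤ y → y ≤ x → 0 ≤ z → z ≤ x →
      col R N j0 (Vb (sl R N j0 Bp) q Zi j0 s x y z) ∈ Q.L y0 (R.vec A) 0 := by
    intro s x y z hs' hy hyx hz hzx
    rw [col_Vb hj0 hNZ hqN hZm]
    have h1 := cone.add _ (cone.smul _ hlp s hs') _ (hoffg _ hmB x y z hy hyx hz hzx)
    rwa [← add_assoc, ← add_assoc] at h1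
  have hnatM : ∀ l α : ℝ, 0 ≤ l → R.vec (l • Bm + α • A) ∈ Q.L y0 (R.vec A) 0 := by
    intro l α hl
    rw [R.vec_add, R.vec_smul, R.vec_smul]
    exact cone.add _ (cone.smul _ hlm l hl) _ (neg_vecA_mem α)
  have hB : ∀ v s x y z : ℝ, 0 ≤ v → s ≤ 0 → 0 ≤ y → y ≤ x → 0 ≤ z → z ≤ x →
      col R N j0 (Lb (sl R N j0 A) (fun i => -(sl R N j0 Bd i)) q Zi j0 v s x y z) ∈
        Q.L y0 (R.vec A) 0 := by
    intro v s x y z _ hs' hy hyx hz hzx
    rw [col_Lb hj0 hNZ hqN hZm, hnat]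
    have h1 := cone.add _ (hnatM (-s) (v + s * Bm z0) (by linarith)) _
      (hoff x y z hy hyx hz hzx)
    rwa [← add_assoc, ← add_assoc] at h1
  -- window cones
  have hWp : ∀ s x y : ℝ, 0 ≤ s → 0 ≤ y → y ≤ x → x ≤ c0 * s →
      s • R.vec Bp + x • q + y • R.e N ∈ (R.srf y0 A Bp 1).LW Q cp := by
    intro s x y hs' hy hyx hxs
    have h1 := hp.memLW (R := R) (y0 := y0) (Q := Q) (c0 := cp) (α := 0) hs'
      (L_sub (hoff x y 0 hy hyx le_rfl (hy.trans hyx)))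
      ((hnorm x y 0 hy hyx le_rfl (hy.trans hyx)).trans (hc0p x s hs' hxs))
    rw [zero_smul, zero_smul, add_zero, add_zero, R.vec_smul, ← add_assoc] at h1
    exact h1
  have hWm : ∀ v s x y z : ℝ, s ≤ 0 → 0 ≤ y → y ≤ x → 0 ≤ z → z ≤ x → x ≤ c0 * -s →
      R.vec ((-s) • Bm + (v + s * Bm z0) • A) + x • q + y • R.e N + z • eZ R A Z ∈
        (R.srf y0 A Bm (-1)).LW Q cm := by
    intro v s x y z hs' hy hyx hz hzx hxs
    have h1 := hm.memLW (R := R) (y0 := y0) (Q := Q) (c0 := cm) (α := v + s * Bm z0)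
      (l := -s) (by linarith) (L_sub (hoff x y z hy hyx hz hzx))
      ((hnorm x y z hy hyx hz hzx).trans (hc0m x (-s) (by linarith) hxs))
    rwa [← add_assoc, ← add_assoc] at h1
  have hWz : ∀ Z' : Finset τ, Z' ⊆ Z → ∀ v s x z : ℝ, s ≤ 0 → 0 ≤ z → z ≤ x → x ≤ c0 * -s →
      R.vec ((-s) • Bm + (v + s * Bm z0) • A) + x • q + z • eZ R A Z' ∈
        (R.srf y0 A Bm (-1)).LW Q cm := by
    intro Z' hZ'1 v s x z hs' hz hzx hxs
    have h0 : 0 ≤ x := hz.trans hzx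
    have h1 := hm.memLW (R := R) (y0 := y0) (Q := Q) (c0 := cm) (α := v + s * Bm z0)
      (l := -s) (by linarith) (L_sub (hoffg _ (hmZ Z' hZ'1) x 0 z le_rfl h0 hz hzx))
      ((hnormg _ (heZn Z') x 0 z le_rfl h0 hz hzx).trans (hc0m x (-s) (by linarith) hxs))
    rw [zero_smul, add_zero] at h1
    rwa [← add_assoc] at h1
  have hrec : Rec4 (fun c => lam (col R N j0 c)) {c | col R N j0 c ∈ Q.L y0 (R.vec A) 0}
      (sl R N j0 A) (sl R N j0 Bp) (fun i => -(sl R N j0 Bd i)) q Zi j0 RR r0 (K * RR) c0 own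
      rp rm rz := by
    refine
      { sup := ?_, anti := ?_, supc := ?_, hc0 := hc00, hr0 := hr0, hR := hRR0, hK := mul_nonneg hK hRR0,
        bdr := ?_, bdb := ?_, bp := ?_, bpN := ?_, bmN := ?_, rN := ?_, NZ := hj0Z, zr := hr0Z,
        zq := fun i hi => hqZ i ((hZm i).1 hi), q0 := hq0, qN := hqN j0 hj0,
        cp := ?_, cq := ?_, legV := hV, legB := hB, Np := ?_, Nm := ?_, Zm := ?_, ow := ?_,
        lip := ?_ }
    · intro p hp' p' hp'' h1 h2
      simp only [Set.mem_ofPred_eq] at hp' hp'' h1 h2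
      rw [col_inf] at h1
      rw [col_sup] at h2
      have := hs _ hp' _ hp'' h1 h2
      simp only [col_sup, col_inf]
      exact this
    · intro p hp' p' hp'' hle
      simp only [Set.mem_ofPred_eq] at hp' hp''
      refine hanti _ hp' _ hp'' fun i => ?_
      simp only [col]
      split_ifs
      · exact mul_le_mul_of_nonneg_left (hle j0) (R.pos i).le
      · exact hle i
    · intro p hp' p' hp''
      simp only [Set.mem_ofPred_eq] at hp' hp'' ⊢
      rw [col_sup]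
      exact L_sup hp' hp''
    · intro i
      linarith [hRt i, abs_nonneg (sl R N j0 Bd i)]
    · intro i
      rw [abs_neg]
      linarith [hRt i, abs_nonneg (sl R N j0 A i)]
    · intro i
      unfold sl
      split_ifs
      · exact hBp0 N
      · exact le_rfl
      · exact mul_nonneg (R.pos i).le (hBp0 _)
    · rw [hslN]; exact hBpN
    · simp only [hslN]; linarith
    · rw [hslN]; exact hAN
    · intro i hi hij
      rw [hslN, hslN]
      have hi' : R.cls i ∉ Z := fun h => hi ((hZm i).2 h)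
      unfold sl
      by_cases h : R.cls i = N
      · rw [if_pos h, if_pos h, if_neg hij, if_neg hij]; linarith
      · rw [if_neg h, if_neg h]
        have h1 := mul_le_mul_of_nonneg_left (hcmp _ hi' h) (R.pos i).le
        linarith
    · intro i hi hij
      have hi' : R.cls i ∉ Z := fun h => hi ((hZm i).2 h)
      by_cases h : R.cls i = N
      · right
        unfold sl
        rw [if_pos h, if_neg hij]
        simp only [if_pos h, if_neg hij]
        exact ⟨le_rfl, by simp⟩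
      · left
        exact hq1 i hi' h
    · intro s x h hh hhx hxs
      have hs' : 0 ≤ s := by
        by_contra hcon
        push Not at hcon
        have := mul_neg_of_pos_of_neg hc00 hcon
        linarith
      rw [col_Ub hj0 hqN, col_Ub hj0 hqN, zero_smul, add_zero]
      have h1 := hWp s x 0 hs' le_rfl (hh.le.trans hhx) hxs
      have h2 := hWp s x h hs' hh.le hhx hxs
      rw [zero_smul, add_zero] at h1
      have h3 := hrp _ (s * Bp N) h (fun i hi => by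
        simp only [Pi.add_apply, Pi.smul_apply, smul_eq_mul, RS.vec, hqN i hi, hi]; ring) h1 h2
      exact h3.ge
    · intro v s h hv hh hhs
      have hs' : s ≤ 0 := by
        by_contra hcon
        push Not at hcon
        have := mul_neg_of_pos_of_neg hc00 (neg_neg_of_pos hcon)
        linarith
      rw [col_Lb hj0 hNZ hqN hZm, col_Lb hj0 hNZ hqN hZm, hnat]
      have h1 := hWm v s h 0 0 hs' le_rfl hh.le le_rfl hh.le hhs
      have h2 := hWm v s h h 0 hs' hh.le le_rfl le_rfl hh.le hhs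
      simp only [zero_smul, add_zero] at h1 h2 ⊢
      have h3 := hrm _ ((-s) * Bm N + (v + s * Bm z0) * A N) h (fun i hi => by
        simp only [Pi.add_apply, Pi.smul_apply, smul_eq_mul, RS.vec, hqN i hi, hi]; ring) h1 h2
      exact h3.le
    · intro v s h hv hh hhs
      have hs' : s ≤ 0 := by
        by_contra hcon
        push Not at hcon
        have := mul_neg_of_pos_of_neg hc00 (neg_neg_of_pos hcon)
        linarith
      rw [col_Lb hj0 hNZ hqN hZm, col_Lb hj0 hNZ hqN hZm, hnat]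
      simp only [zero_smul, add_zero]
      have hs0 : 0 < -s := by
        by_contra hcon
        push Not at hcon
        have := mul_nonpos_of_nonneg_of_nonpos hc00.le hcon
        linarith
      have h3 := hrz (h • q) (-s) (v + s * Bm z0) h hs0 hh.le ?_ ?_ ?_ ?_ ?_
        (fun Z' h1 => hWz Z' h1 v s h h hs' hh.le le_rfl hhs)
      · exact h3
      · have h4 := hoffg (eZ R A Z) hZZ h 0 0 le_rfl hh.le le_rfl hh.le
        rwa [zero_smul, zero_smul, add_zero, add_zero] at h4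
      · intro i hi
        simp only [Pi.smul_apply, smul_eq_mul]
        rcases hi with hi | hi
        · rw [hqZ i hi, mul_zero]
        · rw [hqN i hi, mul_zero]
      · intro i h4 h5
        simp only [Pi.smul_apply, smul_eq_mul]
        have := mul_le_mul_of_nonneg_left (hq1 i h4 h5) hh.le
        linarith
      · intro Z' h1
        have h4 := hoffg (eZ R A Z') (hmZ Z' h1) h 0 h le_rfl hh.le hh.le le_rfl
        rwa [zero_smul, add_zero] at h4
      · have h4 := hc0m h (-s) hs0.le hhs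
        have h5 : ‖h • q‖ = h * ‖q‖ := by rw [norm_smul, Real.norm_of_nonneg hh.le]
        rw [h5]
        have h6 : h * D = h * ‖q‖ + h * ‖R.e N‖ + h * K1 + h * Kz + h := by rw [hD]; ring
        have h7 := mul_nonneg hh.le (norm_nonneg (R.e N))
        have h8 := mul_nonneg hh.le hK10
        linarith
    · intro s x v σ hs' hx hv hσ hz hC
      simp only [Set.mem_ofPred_eq] at hC ⊢
      refine hown _ (hU s x 0 hs' le_rfl hx) _ hC ?_ ⟨s, hs', fun i h3 => ?_⟩ v hv ?_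
      · intro i
        simp only [col]
        by_cases h : R.cls i = N
        · rw [if_pos h, if_pos h]
          refine mul_le_mul_of_nonneg_left ?_ (R.pos i).le
          simp only [Ub, Cb, if_neg hj0Z]
          exact le_rfl
        · rw [if_neg h, if_neg h]
          by_cases h2 : i ∈ Zi
          · have h3 := (hZm i).1 h2
            have hij : i ≠ j0 := fun e => h (e ▸ hj0)
            simp only [Ub, Cb, if_pos h2, if_neg hij]
            rw [hqZ i h3]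
            have := hz i h2
            linarith
          · simp only [Ub, Cb, if_neg h2]; exact le_rfl
      · have h : R.cls i ≠ N := fun e => hNZ (e ▸ h3)
        have hij : i ≠ j0 := fun e => h (e ▸ hj0)
        simp only [col, if_neg h, Ub, if_neg hij]
        rw [hslZ Bp i h3, hqZ i h3]
        simp only [RS.vec]
        ring
      · intro i hi
        have h3 : R.cls i ∈ Z := by rw [hi]; exact hz0
        have h : R.cls i ≠ N := fun e => hNZ (e ▸ h3)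
        have h2 := (hZm i).2 h3
        have hij : i ≠ j0 := fun e => h (e ▸ hj0)
        simp only [col, if_neg h, Ub, Cb, if_pos h2, if_neg hij]
        rw [hslZ Bp i h3, hqZ i h3, hslZ A i h3, hslZ Bd i h3, hi, hBdz, hAz, hBz0]
        ring
    · intro s x v σ hs' hx hv hσ hz hC
      simp only [Set.mem_ofPred_eq] at hC ⊢
      have h1 := hlip _ (hU s x 0 hs' le_rfl hx) _ hC
      have hvs : 0 ≤ v - σ := by linarith
      have h2 : dist (col R N j0 (Ub (sl R N j0 Bp) q j0 s x 0))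
          (col R N j0 (Cb (sl R N j0 A) (sl R N j0 Bp) (fun i => -(sl R N j0 Bd i)) q Zi j0
            s x 0 v σ 0)) ≤ RR * (v - σ) := by
        rw [dist_pi_le_iff (mul_nonneg hRR0 hvs)]
        intro i
        rw [Real.dist_eq]
        have hb : 0 ≤ RR * (v - σ) := mul_nonneg hRR0 hvs
        simp only [col]
        by_cases h : R.cls i = N
        · rw [if_pos h, if_pos h]
          simp only [Ub, Cb, if_neg hj0Z, sub_self, abs_zero]
          exact hb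
        · rw [if_neg h, if_neg h]
          by_cases h2 : i ∈ Zi
          · have h3 := (hZm i).1 h2
            have hij : i ≠ j0 := fun e => h (e ▸ hj0)
            simp only [Ub, Cb, if_pos h2, if_neg hij]
            have e1 : |sl R N j0 A i| ≤ RR := by linarith [hRt i, abs_nonneg (sl R N j0 Bd i)]
            have e2 : |sl R N j0 Bd i| ≤ RR := by linarith [hRt i, abs_nonneg (sl R N j0 A i)]
            have e3 : |sl R N j0 A i * v| ≤ RR * v := by
              rw [abs_mul, abs_of_nonneg hv]; exact mul_le_mul_of_nonneg_right e1 hv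
            have e4 : |sl R N j0 Bd i * σ| ≤ RR * -σ := by
              rw [abs_mul, abs_of_nonpos hσ]
              exact mul_le_mul_of_nonneg_right e2 (by linarith)
            have h7 := hz i h2
            have h8 : 0 ≤ sl R N j0 Bp i * s := by
              rw [hslZ Bp i h3]
              exact mul_nonneg (mul_nonneg (R.pos i).le (hBp0 _)) hs'
            rw [hqZ i h3, abs_le]
            have e5 := abs_le.1 e3
            have e6 := abs_le.1 e4
            constructor <;> linarith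
          · simp only [Ub, Cb, if_neg h2, sub_self, abs_zero]
            exact hb
      calc lam _ - lam _ ≤ |lam _ - lam _| := le_abs_self _
        _ ≤ K * dist _ _ := h1
        _ ≤ K * (RR * (v - σ)) := mul_le_mul_of_nonneg_left h2 hK
        _ = K * RR * (v - σ) := by ring
  have key := nz4 hrec
  rwa [hslN] at key

end main

/-- the `Z`-step of `nz_rs5` from `SRates`, `Z` a union of parallel classes -/
theorem zstep_of {R : RS ι τ} {Q : Walls ι W} {y0 : ι → ℝ} {A Bm : τ → ℝ} (h : SOk A Bm (-1))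
    {lam : (ι → ℝ) → ℝ} {cm : ℝ} {ρ : τ → ℝ}
    (H : SRates R A Bm (-1) lam ((R.srf y0 A Bm (-1)).LW Q cm) ρ) {Z rep : Finset τ}
    (hA : ∀ t ∈ Z, 0 < A t) (hZc : ∀ t ∈ Z, ∀ t', Par A Bm t t' → t' ∈ Z) (hrep : rep ⊆ Z)
    (hex : ∀ c ∈ Z, ∃ t ∈ rep, Par A Bm t c)
    (hun : ∀ t ∈ rep, ∀ t' ∈ rep, ∀ c ∈ Z, Par A Bm t c → Par A Bm t' c → t = t')
    (c : ι → ℝ) (l α x : ℝ) (hx : 0 ≤ x) (hc : ∀ i, R.cls i ∈ Z → c i = 0)
    (hmem : ∀ Z' : Finset τ, Z' ⊆ Z → R.vec (l • Bm + α • A) + c + x • eZ R A Z' ∈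
        (R.srf y0 A Bm (-1)).LW Q cm) :
    lam (R.vec (l • Bm + α • A) + c) - lam (R.vec (l • Bm + α • A) + c + x • eZ R A Z) =
      (∑ t ∈ rep, ρ t * A t) * x := by
  refine rateZw_of h H hA hZc hrep hex hun _ l α x hx (fun i hi => ?_) fun Z' h1 _ => hmem Z' h1
  simp only [Pi.add_apply, Pi.smul_apply, smul_eq_mul, RS.vec, hc i hi, add_zero]

end gen

/-! ### the light chart -/

section light

/-- what is used of the record tangent; `own` : at the frozen level of the flags only -/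
structure LamOk (L : Set (Fin 12 → ℝ)) (lam : (Fin 12 → ℝ) → ℝ) (K own : ℝ) : Prop where
  K0 : 0 ≤ K
  sup : ∀ p ∈ L, ∀ q ∈ L, p ⊓ q ∈ L → p ⊔ q ∈ L → lam p + lam q ≤ lam (p ⊔ q) + lam (p ⊓ q)
  anti : ∀ p ∈ L, ∀ q ∈ L, p ≤ q → lam q ≤ lam p
  lip : ∀ p ∈ L, ∀ q ∈ L, |lam p - lam q| ≤ K * dist p q
  own : ∀ p ∈ L, ∀ q ∈ L, p ≤ q → p 0 = 0 → p 1 = 0 → p 2 = 0 → p 7 = 0 → p 8 = 0 →
    own * q 0 ≤ lam p - lam q

variable {θa θb t : ℝ}

/-- the legal cone of the record, `D` frozen, in the kept slots -/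
abbrev M8 (θa θb t : ℝ) : Set (K8 → ℝ) :=
  (Q8 t).L (rs kp (y8 t)) (RL8.vec (nat8 1 (-θa) (-θb))) 0

theorem mem_M8 {c : K8 → ℝ} : c ∈ M8 θa θb t ↔ xt kp 0 c ∈ L8 θa θb t := by
  have h := Sl741.mem_slice_L (Q := mw monL) (p := kp) (v := y8 t) (hp := kp_hd) (x0 := y8 t)
    (a := r8 θa θb) (b := 0) (fun i _ => rfl) (fun i hi => by
      have : i = 1 := not_not.1 hi
      subst this
      unfold r8; rw [Function.update_self]) (fun i _ => rfl) (c := c)
  rw [rs_r8] at h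
  exact h

theorem wout8 (ht : t ≠ 0) {Z : Finset (Fin 8)} {N : Fin 8}
    (h : ∀ k, ∀ e ∈ mfL k, e 1 = 0 → ∃ s, s ≠ 1 ∧ e s ≠ 0 ∧ cl8 s ∉ Z ∧ cl8 s ≠ N) :
    WOut RL8 (Q8 t) (rs kp (y8 t)) (nat8 1 (-θa) (-θb)) Z N := by
  intro w hact
  have h1 := act_D ht hact
  obtain ⟨s, hs, h2, h3, h4⟩ := h w.1 w.2.1 w.2.2 h1
  exact ⟨⟨s, hs⟩, h2, h3, h4⟩

/-- `z`, `B`, `G` -/
abbrev ZBG : Finset (Fin 8) := {0, 6, 7}

theorem leg_ZBG : ∀ k, ∀ e ∈ mfL k, e 1 = 0 →
    ∃ s, s ≠ 1 ∧ e s ≠ 0 ∧ cl8 s ∉ ZBG ∧ cl8 s ≠ 4 := by decide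

/-- **`N`-`z` chain rule in the light chart** -/
theorem nz8 (ht : t ≠ 0) {Bp Bm : Fin 8 → ℝ} (hp : SOk (nat8 1 (-θa) (-θb)) Bp 1)
    (hm : SOk (nat8 1 (-θa) (-θb)) Bm (-1)) (hBp : Leg8 Bp) (hBm : Leg8 Bm) {cp cm : ℝ}
    (hcp : 0 < cp) (hcm : 0 < cm) {lam : (Fin 12 → ℝ) → ℝ} {K own : ℝ}
    (hl : LamOk (L8 θa θb t) lam K own) {Z : Finset (Fin 8)} (hNZ : (4 : Fin 8) ∉ Z)
    (hz0 : (0 : Fin 8) ∈ Z) (hz6 : (6 : Fin 8) ∈ Z) (hz7 : (7 : Fin 8) ∈ Z)
    (hAN : 0 < 1 - θb) (hBpN : 0 < Bp 4)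
    (hBmN : Bm 4 < Bm 0 * (1 - θb)) (hBp0 : ∀ i ∈ Z, Bp i = 0)
    (hBZ : ∀ i ∈ Z, Bp i * (1 - θb) < nat8 1 (-θa) (-θb) i * Bp 4)
    (hcmp : ∀ i, i ∉ Z → i ≠ 4 → nat8 1 (-θa) (-θb) i * Bp 4 ≤ Bp i * (1 - θb))
    (hw : ∀ k, ∀ e ∈ mfL k, e 1 = 0 → ∃ s, s ≠ 1 ∧ e s ≠ 0 ∧ cl8 s ∉ Z ∧ cl8 s ≠ 4)
    {Kz : ℝ} (hKz : 0 ≤ Kz) {rp rm rz : ℝ}
    (hrp : RL8.RateAt (fun c => lam (xt kp 0 c)) ((srf8 θa θb t Bp 1).LW (Q8 t) cp) 4 rp)
    (hrm : RL8.RateAt (fun c => lam (xt kp 0 c)) ((srf8 θa θb t Bm (-1)).LW (Q8 t) cm) 4 rm)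
    (hrz : ∀ (c : K8 → ℝ) (l α x : ℝ), 0 < l → 0 ≤ x → c ∈ M8 θa θb t →
      (∀ i, RL8.cls i ∈ Z ∨ RL8.cls i = 4 → c i = 0) →
      (∀ i, RL8.cls i ∉ Z → RL8.cls i ≠ 4 → x ≤ c i) →
      (∀ Z' : Finset (Fin 8), Z' ⊆ Z →
        c + x • eZ RL8 (nat8 1 (-θa) (-θb)) Z' ∈ M8 θa θb t) →
      ‖c‖ + x * Kz ≤ cm * l →
      (∀ Z' : Finset (Fin 8), Z' ⊆ Z → RL8.vec (l • Bm + α • nat8 1 (-θa) (-θb)) + c +
        x • eZ RL8 (nat8 1 (-θa) (-θb)) Z' ∈ (srf8 θa θb t Bm (-1)).LW (Q8 t) cm) →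
      lam (xt kp 0 (RL8.vec (l • Bm + α • nat8 1 (-θa) (-θb)) + c)) -
        lam (xt kp 0 (RL8.vec (l • Bm + α • nat8 1 (-θa) (-θb)) + c +
          x • eZ RL8 (nat8 1 (-θa) (-θb)) Z)) ≤ rz * x) :
    (1 - θb) * (rp - rm) ≤ rz - own := by
  have eN : nat8 1 (-θa) (-θb) 4 = 1 - θb := by simp [nat8]; ring
  have ez : nat8 1 (-θa) (-θb) 0 = 1 := by simp [nat8]
  have key := nz_rs5 (R := RL8) (Q := Q8 t) (y0 := rs kp (y8 t)) (A := nat8 1 (-θa) (-θb))
    (Bp := Bp) (Bm := Bm) hp hm (RL8_mem ht hBp) (RL8_mem ht hBm) hcp hcm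
    (lam := fun c => lam (xt kp 0 c)) (fun p hp' q hq' h1 h2 => by
      have e1 := hl.sup _ (mem_M8.1 hp') _ (mem_M8.1 hq') (by
        have := mem_M8.1 h1
        rwa [Sl741.xt_inf] at this) (by
        have := mem_M8.1 h2
        rwa [Sl741.xt_sup] at this)
      simp only [Sl741.xt_sup, Sl741.xt_inf]
      exact e1) (fun p hp' q hq' hle =>
      hl.anti _ (mem_M8.1 hp') _ (mem_M8.1 hq') (Sl741.xt_mono 0 hle)) hl.K0
    (fun p hp' q hq' => (hl.lip _ (mem_M8.1 hp') _ (mem_M8.1 hq')).trans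
      (mul_le_mul_of_nonneg_left (Sl741.xt_dist 0 p q) hl.K0))
    (N := 4) (z0 := 0) (Z := Z) hNZ hz0 ez (by rw [eN]; exact hAN) hBpN
    (by rw [eN]; exact hBmN) (hBp0 0 hz0) (by rw [eN]; exact hBZ) (by rw [eN]; exact hcmp)
    (wout8 ht hw) hKz hrp hrm hrz (own := own) (fun p hp' p' hp'' hle hps x hx hxx => by
      obtain ⟨s, -, hps⟩ := hps
      have hp0 : ∀ (i : Fin 12) (hi : i ≠ 1), cl8 i ∈ Z → xt kp 0 p i = 0 := by
        intro i hi hiZ
        rw [Sl741.xt_in (p := kp) _ _ (hi : kp i), hps ⟨i, hi⟩ hiZ]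
        change s * (1 * Bp (cl8 i)) = 0
        rw [hBp0 _ hiZ]; ring
      have h1 := hl.own _ (mem_M8.1 hp') _ (mem_M8.1 hp'') (Sl741.xt_mono 0 hle)
        (hp0 0 (by decide) hz0) (Sl741.xt_off (p := kp) _ _ (by simp [kp]))
        (hp0 2 (by decide) hz7) (hp0 7 (by decide) hz6) (hp0 8 (by decide) hz6)
      have h2 := hxx ⟨0, by decide⟩ rfl
      have h3 : xt kp 0 p' 0 = x := by
        have h4 := hp0 0 (by decide) hz0
        rw [Sl741.xt_in (p := kp) _ _ (by decide : kp 0)] at h4 ⊢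
        rw [h2, h4]
        change 0 + 1 * x = x
        ring
      rw [h3] at h1
      exact h1)
  rwa [eN] at key

end light

end Crest.Agent.R116.NZ90
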