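import Crest.Agent.R116.NZ6_90
import Crest.Agent.R116.Tp1_139

/-!
# R116, K-TEXT II-c: the `N`-`z` chain rule on the planes of the tie tables (helper90)

Below the record the planes `eD k`, `kD` of 139, above the frozen `S₁ = oS`; `own` = lower bound of
the `z`-rate of the record tangent.

* **`nz8_e`** : `e`-tie `θb = θ - k`:
  `(1 + k - θ) (ρp N - ρm N) ≤ ρm z + (k + θ) ρm G - own`
* **`nz8_k`** : `κ`-tie and double tie `θb = 2 θ - k`, `θ < k < 1`, `k ≠ 1/2`:
  `(1 + k - 2 θ) (ρp N - ρm N) ≤ ρm z + (k - θ) ρm B - own`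
-/

set_option autoImplicit false
set_option linter.unusedVariables false
set_option linter.unusedSimpArgs false

open Set Filter Topology

namespace Crest.Agent.R116.NZ90

open Crest.Agent.R136
open Dg219 (Walls mw)
open Sl741 (slice xt rs)
open RbK219 RbM219
open ChL222 (monL mfL)
open Tp139

variable {θ θb k t : ℝ}

theorem sum_pair {f : Fin 8 → ℝ} {a b : Fin 8} (h : a ≠ b) :
    ∑ i ∈ ({a, b} : Finset (Fin 8)), f i = f a + f b := Finset.sum_pair h

theorem zbg : ∀ i : Fin 8, i ∈ ZBG → i = 0 ∨ i = 6 ∨ i = 7 := by decide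

theorem oS_zbg : ∀ i ∈ ZBG, oS i = 0 := by
  intro i hi
  rcases zbg i hi with rfl | rfl | rfl <;> rfl

theorem in07 : ∀ i : Fin 8, i ∈ ({0, 7} : Finset (Fin 8)) → i = 0 ∨ i = 7 := by decide

theorem in06 : ∀ i : Fin 8, i ∈ ({0, 6} : Finset (Fin 8)) → i = 0 ∨ i = 6 := by decide

/-- **`e`-tie** -/
theorem nz8_e (ht : t ≠ 0) (hθ : 0 < θ) (hk : 0 < k) (hθ1 : θ < 1 + k) (hb : θb = θ - k)
    {cp cm : ℝ} (hcp : 0 < cp) (hcm : 0 < cm) {lam : (Fin 12 → ℝ) → ℝ} {K own : ℝ}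
    (hl : LamOk (L8 θ θb t) lam K own) {ρp ρm : Fin 8 → ℝ}
    (rp : Rates8 θ θb t oS 1 cp lam ρp) (rm : Rates8 θ θb t (eD k) (-1) cm lam ρm) :
    (1 + k - θ) * (ρp 4 - ρm 4) ≤ ρm 0 + (k + θ) * ρm 7 - own := by
  have q1 := mul_pos hθ hk
  have q2 := mul_pos hk hk
  have hm := sok_eD hθ hk hb
  have eA : (1 + k - θ) = 1 - θb := by rw [hb]; ring
  have A4 : nat8 1 (-θ) (-θb) 4 ≠ 0 := by
    have : 0 < nat8 1 (-θ) (-θb) 4 := by ev8; linarith
    exact this.ne'
  have a4p : Aln (nat8 1 (-θ) (-θb)) oS 4 := by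
    subst hb
    refine all8 ?_ ?_ ?_ ?_ ?_ ?_ ?_ ?_ <;> intro ht h <;> first | exact ht rfl | (ev8; nlinarith)
  have a4m : Aln (nat8 1 (-θ) (-θb)) (eD k) 4 := by
    have q3 := mul_pos hk (by linarith : 0 < 1 + k - θ)
    subst hb
    refine all8 ?_ ?_ ?_ ?_ ?_ ?_ ?_ ?_ <;> intro ht h <;> first | exact ht rfl | (ev8; nlinarith)
  have par06 : Par (nat8 1 (-θ) (-θb)) (eD k) 0 6 := by
    unfold Par; ev8; rw [hb]; ring
  have par60 : Par (nat8 1 (-θ) (-θb)) (eD k) 6 0 := par06.symm'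
  have par00 : Par (nat8 1 (-θ) (-θb)) (eD k) 0 0 := rfl
  have par77 : Par (nat8 1 (-θ) (-θb)) (eD k) 7 7 := rfl
  have n07 : ¬ Par (nat8 1 (-θ) (-θb)) (eD k) 0 7 := by
    unfold Par; intro h; ev8; rw [hb] at h; nlinarith
  have n76 : ¬ Par (nat8 1 (-θ) (-θb)) (eD k) 7 6 := by
    unfold Par; intro h; ev8; rw [hb] at h; nlinarith
  have n70 : ¬ Par (nat8 1 (-θ) (-θb)) (eD k) 7 0 := fun h => n07 h.symm'
  have key := nz8 (θa := θ) (θb := θb) (Z := ZBG) (Bp := oS) (Bm := eD k) ht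
    (sok_oS (by linarith) (by linarith)) hm leg_oS leg_eD hcp hcm hl (by decide) (by decide)
    (by decide) (by decide) (by linarith) (by ev8; linarith) (by ev8; linarith) oS_zbg ?_ ?_
    leg_ZBG
    (Kz := 0) le_rfl (rp.alone 4 a4p A4) (rm.alone 4 a4m A4)
    (fun c l α x hl' hx hc hcZ hcn hcm' hn hmem => (zstep_of (rep := {0, 7}) hm rm ?_ ?_ ?_ ?_ ?_
      c l α x hx (fun i hi => hcZ i (Or.inl hi)) hmem).le)
  · have e := sum_pair (f := fun i => ρm i * nat8 1 (-θ) (-θb) i) (a := 0) (b := 7) (by decide)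
    rw [e] at key
    have e0 : nat8 1 (-θ) (-θb) 0 = 1 := rfl
    have e7 : nat8 1 (-θ) (-θb) 7 = k + θ := by ev8; rw [hb]; ring
    rw [e0, e7] at key
    rw [eA]
    linarith
  · subst hb
    refine all8 ?_ ?_ ?_ ?_ ?_ ?_ ?_ ?_ <;> intro hi <;>
      first | (exact absurd hi (by decide)) | (ev8; nlinarith)
  · subst hb
    refine all8 ?_ ?_ ?_ ?_ ?_ ?_ ?_ ?_ <;> intro hi hi4 <;>
      first | (exact absurd (by decide) hi) | (exact absurd rfl hi4) | (ev8; nlinarith)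
  · subst hb
    refine all8 ?_ ?_ ?_ ?_ ?_ ?_ ?_ ?_ <;> intro hi <;>
      first | (exact absurd hi (by decide)) | (ev8; nlinarith)
  · intro i hi
    have h3 := zbg i hi
    subst hb
    rcases h3 with rfl | rfl | rfl
    · refine all8 ?_ ?_ ?_ ?_ ?_ ?_ ?_ ?_ <;> intro hp <;>
        first | decide | (exfalso; unfold Par at hp; ev8; nlinarith)
    · refine all8 ?_ ?_ ?_ ?_ ?_ ?_ ?_ ?_ <;> intro hp <;>
        first | decide | (exfalso; unfold Par at hp; ev8; nlinarith)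
    · refine all8 ?_ ?_ ?_ ?_ ?_ ?_ ?_ ?_ <;> intro hp <;>
        first | decide | (exfalso; unfold Par at hp; ev8; nlinarith)
  · decide
  · intro i hi
    have h3 := zbg i hi
    rcases h3 with rfl | rfl | rfl
    · exact ⟨0, by decide, par00⟩
    · exact ⟨0, by decide, par06⟩
    · exact ⟨7, by decide, par77⟩
  · intro i hi j hj c hc h1 h2
    have h3 := zbg c hc
    have h4 := in07 i hi
    have h5 := in07 j hj
    rcases h4 with rfl | rfl <;> rcases h5 with rfl | rfl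
    · rfl
    · rcases h3 with rfl | rfl | rfl
      · exact absurd h2 n70
      · exact absurd h2 n76
      · exact absurd h1 n07
    · rcases h3 with rfl | rfl | rfl
      · exact absurd h1 n70
      · exact absurd h1 n76
      · exact absurd h2 n07
    · rfl

/-- **`κ`-tie and double tie** -/
theorem nz8_k (ht : t ≠ 0) (hθ : 0 < θ) (hθk : θ < k) (hk1 : k < 1) (hk2 : k ≠ 1 / 2)
    (hb : θb = 2 * θ - k)
    {cp cm : ℝ} (hcp : 0 < cp) (hcm : 0 < cm) {lam : (Fin 12 → ℝ) → ℝ} {K own : ℝ}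
    (hl : LamOk (L8 θ θb t) lam K own) {ρp ρm : Fin 8 → ℝ}
    (rp : Rates8 θ θb t oS 1 cp lam ρp) (rm : Rates8 θ θb t kD (-1) cm lam ρm) :
    (1 + k - 2 * θ) * (ρp 4 - ρm 4) ≤ ρm 0 + (k - θ) * ρm 6 - own := by
  have hk : 0 < k := by linarith
  have hm := sok_kD hθ hk hb
  have eA : (1 + k - 2 * θ) = 1 - θb := by rw [hb]; ring
  have A4 : nat8 1 (-θ) (-θb) 4 ≠ 0 := by
    have : 0 < nat8 1 (-θ) (-θb) 4 := by ev8; linarith
    exact this.ne'
  have a4p : Aln (nat8 1 (-θ) (-θb)) oS 4 := by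
    subst hb
    refine all8 ?_ ?_ ?_ ?_ ?_ ?_ ?_ ?_ <;> intro ht h <;> first | exact ht rfl | (ev8; linarith)
  have a4m : Aln (nat8 1 (-θ) (-θb)) kD 4 := by
    subst hb
    refine all8 ?_ ?_ ?_ ?_ ?_ ?_ ?_ ?_ <;> intro ht h <;> first | exact ht rfl | (ev8; linarith)
  have par07 : Par (nat8 1 (-θ) (-θb)) kD 0 7 := by
    unfold Par; ev8; rw [hb]; ring
  have par00 : Par (nat8 1 (-θ) (-θb)) kD 0 0 := rfl
  have par66 : Par (nat8 1 (-θ) (-θb)) kD 6 6 := rfl
  have n06 : ¬ Par (nat8 1 (-θ) (-θb)) kD 0 6 := by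
    unfold Par; intro h; ev8; linarith
  have n67 : ¬ Par (nat8 1 (-θ) (-θb)) kD 6 7 := by
    unfold Par; intro h; ev8; linarith
  have n60 : ¬ Par (nat8 1 (-θ) (-θb)) kD 6 0 := fun h => n06 h.symm'
  have key := nz8 (θa := θ) (θb := θb) (Z := ZBG) (Bp := oS) (Bm := kD) ht
    (sok_oS (by linarith) (by linarith)) hm leg_oS leg_kD hcp hcm hl (by decide) (by decide)
    (by decide) (by decide) (by linarith) (by ev8; linarith) (by ev8; linarith) oS_zbg ?_ ?_
    leg_ZBG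
    (Kz := 0) le_rfl (rp.alone 4 a4p A4) (rm.alone 4 a4m A4)
    (fun c l α x hl' hx hc hcZ hcn hcm' hn hmem => (zstep_of (rep := {0, 6}) hm rm ?_ ?_ ?_ ?_ ?_
      c l α x hx (fun i hi => hcZ i (Or.inl hi)) hmem).le)
  · have e := sum_pair (f := fun i => ρm i * nat8 1 (-θ) (-θb) i) (a := 0) (b := 6) (by decide)
    rw [e] at key
    have e0 : nat8 1 (-θ) (-θb) 0 = 1 := rfl
    have e6 : nat8 1 (-θ) (-θb) 6 = k - θ := by ev8; rw [hb]; ring
    rw [e0, e6] at key
    rw [eA]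
    linarith
  · subst hb
    refine all8 ?_ ?_ ?_ ?_ ?_ ?_ ?_ ?_ <;> intro hi <;>
      first | (exact absurd hi (by decide)) | (ev8; linarith)
  · subst hb
    refine all8 ?_ ?_ ?_ ?_ ?_ ?_ ?_ ?_ <;> intro hi hi4 <;>
      first | (exact absurd (by decide) hi) | (exact absurd rfl hi4) | (ev8; linarith)
  · subst hb
    refine all8 ?_ ?_ ?_ ?_ ?_ ?_ ?_ ?_ <;> intro hi <;>
      first | (exact absurd hi (by decide)) | (ev8; linarith)
  · intro i hi
    have h3 := zbg i hi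
    subst hb
    rcases h3 with rfl | rfl | rfl
    · refine all8 ?_ ?_ ?_ ?_ ?_ ?_ ?_ ?_ <;> intro hp <;>
        first | decide | (exfalso; unfold Par at hp; ev8; linarith)
    · refine all8 ?_ ?_ ?_ ?_ ?_ ?_ ?_ ?_ <;> intro hp <;>
        first | decide | (exfalso; unfold Par at hp; ev8; linarith) |
          (exfalso; unfold Par at hp; ev8; exact hk2 (by linarith))
    · refine all8 ?_ ?_ ?_ ?_ ?_ ?_ ?_ ?_ <;> intro hp <;>
        first | decide | (exfalso; unfold Par at hp; ev8; nlinarith)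
  · decide
  · intro i hi
    have h3 := zbg i hi
    rcases h3 with rfl | rfl | rfl
    · exact ⟨0, by decide, par00⟩
    · exact ⟨6, by decide, par66⟩
    · exact ⟨0, by decide, par07⟩
  · intro i hi j hj c hc h1 h2
    have h3 := zbg c hc
    have h4 := in06 i hi
    have h5 := in06 j hj
    rcases h4 with rfl | rfl <;> rcases h5 with rfl | rfl
    · rfl
    · rcases h3 with rfl | rfl | rfl
      · exact absurd h2 n60
      · exact absurd h1 n06
      · exact absurd h2 n67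
    · rcases h3 with rfl | rfl | rfl
      · exact absurd h1 n60
      · exact absurd h2 n06
      · exact absurd h1 n67
    · rfl

end Crest.Agent.R116.NZ90
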