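import Crest.Agent.R116.NZ7_90
import Crest.Agent.R138.Qf3_926

/-!
# R116, K-TEXT II-c: the `N`-`z` chain rule at the resonance `k = 1/2` of the `κ`-plane (helper90)

At `k = 1/2` the slots `H` and `B` are parallel on `kD`.  `kH` is the surface with `C_a`, `C_b`, `H`
finer by `1/2`: there `B` is alone.
* `cl_pts`       : increments are smaller at finer points
* **`nz8_half`** : `(1 + k - 2 θ) (ρp N - ρm N) ≤ ρm z + (k - θ) ρh B - own`, `ρh` = rates on `kH`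
* **`kH_le`**    : `ρh B * y ≤` any increment of `B` by `y` of a tangent at a point of `kD`
-/

set_option autoImplicit false
set_option linter.unusedVariables false
set_option linter.unusedSimpArgs false

open Set Filter Topology

namespace Crest.Agent.R116.NZ90

open Crest.Agent.R136
open Crest.Agent.R138
open Dg219 (Walls mw Cone)
open Dg262 (SupOn)
open Sl741 (slice xt rs)
open RbK219 RbM219
open ChL222 (monL mfL)
open Tp139

/-- increments are smaller at finer points -/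
theorem cl_pts {ι : Type*} {M : Set (ι → ℝ)} {lam : (ι → ℝ) → ℝ} (hs : SupOn lam M)
    {p q e : ι → ℝ} (hp : p ∈ M) (hq : q ∈ M) (hpe : p + e ∈ M) (hqe : q + e ∈ M) (hle : p ≤ q)
    (he : ∀ i, 0 ≤ e i) (heq : ∀ i, e i ≠ 0 → p i = q i) :
    lam q - lam (q + e) ≤ lam p - lam (p + e) := by
  have e1 : (p + e) ⊔ q = q + e := by
    funext i
    simp only [Pi.sup_apply, Pi.add_apply]
    by_cases h : e i = 0
    · rw [h, add_zero, add_zero]; exact sup_eq_right.2 (hle i)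
    · rw [heq i h]; exact sup_eq_left.2 (by linarith [he i])
  have e2 : (p + e) ⊓ q = p := by
    funext i
    simp only [Pi.inf_apply, Pi.add_apply]
    by_cases h : e i = 0
    · rw [h, add_zero]; exact inf_eq_left.2 (hle i)
    · rw [heq i h]; exact inf_eq_right.2 (by linarith [he i])
  have h1 := hs (p + e) hpe q hq (by rw [e2]; exact hp) (by rw [e1]; exact hqe)
  rw [e1, e2] at h1
  linarith

variable {θ θb k t : ℝ}

theorem LamOk.sup8 {θa θb t : ℝ} {lam : (Fin 12 → ℝ) → ℝ} {K own : ℝ}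
    (hl : LamOk (L8 θa θb t) lam K own) :
    SupOn (fun c => lam (xt kp 0 c)) (M8 θa θb t) := by
  intro p hp q hq h1 h2
  have e1 := hl.sup _ (mem_M8.1 hp) _ (mem_M8.1 hq) (by
    have := mem_M8.1 h1
    rwa [Sl741.xt_inf] at this) (by
    have := mem_M8.1 h2
    rwa [Sl741.xt_sup] at this)
  simp only [Sl741.xt_sup, Sl741.xt_inf]
  exact e1

/-- the background vector: `0` on `z`, `B`, `G`, `N` -/
noncomputable abbrev v8 (t : ℝ) : K8 → ℝ := rmZ RL8 (Q8 t) ZBG 4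

theorem v8_room (ht : t ≠ 0) {e : K8 → ℝ} (he0 : ∀ i, 0 ≤ e i) (he1 : ∀ i, e i ≤ 1) :
    v8 t + e ∈ M8 θ θb t := by
  have := (wout8 (θa := θ) (θb := θb) ht leg_ZBG).room he0 zero_le_one he1
  rwa [one_smul] at this

theorem v8_zero {i : K8} (hi : cl8 i.1 = 0 ∨ cl8 i.1 = 6 ∨ cl8 i.1 = 7 ∨ cl8 i.1 = 4) :
    v8 t i = 0 := by
  unfold v8 rmZ
  rw [if_pos]
  rcases hi with h | h | h | h
  · left; change cl8 i.1 ∈ ZBG; rw [h]; decide
  · left; change cl8 i.1 ∈ ZBG; rw [h]; decide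
  · left; change cl8 i.1 ∈ ZBG; rw [h]; decide
  · right; exact h

/-- points near a natural point of a surface -/
noncomputable abbrev pt8 (θ θb t : ℝ) (B : Fin 8 → ℝ) (l α ε : ℝ) : K8 → ℝ :=
  RL8.vec (l • B + α • nat8 1 (-θ) (-θb)) + ε • v8 t

theorem pt8_at {B : Fin 8 → ℝ} {l α ε : ℝ} {i : K8}
    (hi : cl8 i.1 = 0 ∨ cl8 i.1 = 6 ∨ cl8 i.1 = 7 ∨ cl8 i.1 = 4) :
    pt8 θ θb t B l α ε i = l * B (cl8 i.1) + α * nat8 1 (-θ) (-θb) (cl8 i.1) := by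
  unfold pt8
  rw [Pi.add_apply, Pi.smul_apply, v8_zero hi]
  simp only [RS.vec, RL8, Pi.add_apply, Pi.smul_apply, smul_eq_mul]
  ring

theorem cone8 : Cone (M8 θ θb t) := Walls.cone

theorem vec_mem8 (ht : t ≠ 0) {B : Fin 8 → ℝ} (hB : Leg8 B) {l α : ℝ} (hl : 0 ≤ l) :
    RL8.vec (l • B + α • nat8 1 (-θ) (-θb)) ∈ M8 θ θb t := by
  rw [RS.vec_add, RS.vec_smul, RS.vec_smul]
  exact cone8.add _ (cone8.smul _ (RL8_mem ht hB) l hl) _ (neg_vecA_mem α)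

theorem pt8_mem (ht : t ≠ 0) {B : Fin 8 → ℝ} (hB : Leg8 B) {l α ε : ℝ} (hl : 0 ≤ l) (hε : 0 ≤ ε)
    {e : K8 → ℝ} (he0 : ∀ i, 0 ≤ e i) (he1 : ∀ i, e i ≤ 1) :
    pt8 θ θb t B l α ε + ε • e ∈ M8 θ θb t := by
  have h1 := cone8.add _ (vec_mem8 (θ := θ) (θb := θb) ht hB hl (α := α)) _
    (cone8.smul _ (v8_room (θ := θ) (θb := θb) ht he0 he1) ε hε)
  rwa [smul_add, ← add_assoc] at h1

theorem pt8_win (ht : t ≠ 0) {B : Fin 8 → ℝ} {sg : ℝ} (hS : SOk (nat8 1 (-θ) (-θb)) B sg)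
    {c0 : ℝ} {l α ε : ℝ} (hl : 0 ≤ l) (hε : 0 ≤ ε) (hb : ε * (‖v8 t‖ + 1) ≤ c0 * l)
    {e : K8 → ℝ} (he0 : ∀ i, 0 ≤ e i) (he1 : ∀ i, e i ≤ 1) :
    pt8 θ θb t B l α ε + ε • e ∈ (srf8 θ θb t B sg).LW (Q8 t) c0 := by
  have h1 := hS.memLW (R := RL8) (y0 := rs kp (y8 t)) (Q := Q8 t) (c0 := c0) (α := α) hl
    (c := ε • (v8 t + e))
    (L_sub (cone8.smul _ (v8_room (θ := θ) (θb := θb) ht he0 he1) ε hε)) (by
      have h2 : ‖e‖ ≤ 1 := by
        rw [pi_norm_le_iff_of_nonneg zero_le_one]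
        intro i
        rw [Real.norm_eq_abs, abs_of_nonneg (he0 i)]
        exact he1 i
      rw [norm_smul, Real.norm_of_nonneg hε]
      refine le_trans (mul_le_mul_of_nonneg_left ?_ hε) hb
      linarith [norm_add_le (v8 t) e])
  rwa [smul_add, ← add_assoc] at h1

theorem pt8_le {B₁ B₂ : Fin 8 → ℝ} {l₁ α₁ l₂ α₂ ε : ℝ}
    (h : ∀ i, l₁ * B₁ i + α₁ * nat8 1 (-θ) (-θb) i ≤ l₂ * B₂ i + α₂ * nat8 1 (-θ) (-θb) i) :
    pt8 θ θb t B₁ l₁ α₁ ε ≤ pt8 θ θb t B₂ l₂ α₂ ε := by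
  intro i
  have h1 := h (cl8 i.1)
  unfold pt8
  simp only [RS.vec, RL8, Pi.add_apply, Pi.smul_apply, smul_eq_mul]
  linarith

/-! ### the surface `kH` -/

/-- `kD` with `C_a`, `C_b`, `H` finer by `1/2` -/
noncomputable def kH : Fin 8 → ℝ := ![0, -1/2, -3/2, -1, -2, -3/2, -1, 0]

theorem h0 : kH 0 = 0 := rfl
theorem h1 : kH 1 = -1/2 := rfl
theorem h2 : kH 2 = -3/2 := rfl
theorem h3 : kH 3 = -1 := rfl
theorem h4 : kH 4 = -2 := rfl
theorem h5 : kH 5 = -3/2 := rfl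
theorem h6 : kH 6 = -1 := rfl
theorem h7 : kH 7 = 0 := rfl

/-- evaluate all entries -/
macro "evH" : tactic => `(tactic| simp only [h0, h1, h2, h3, h4, h5, h6, h7, kU, kD, n0, n1, n2, n3,
  n4, n5, n6, n7, s0, s1, s2, s3, s4, s5, s6, s7] at *)

theorem sok_kH (hk : 0 < k) (hb : θb = 2 * θ - k) : SOk (nat8 1 (-θ) (-θb)) kH (-1) where
  sg1 := Or.inr rfl
  nn := by refine all8 ?_ ?_ ?_ ?_ ?_ ?_ ?_ ?_ <;> evH <;> norm_num
  zero := by refine all8 ?_ ?_ ?_ ?_ ?_ ?_ ?_ ?_ <;> intro h <;> evH <;> linarith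

theorem leg_kH : Leg8 kH := by constructor <;> evH <;> norm_num

theorem aln_kH4 (hθ : 0 < θ) (hθ2 : θ < 1 / 2) (hb : θb = 2 * θ - 1 / 2) :
    Aln (nat8 1 (-θ) (-θb)) kH 4 := by
  subst hb
  refine all8 ?_ ?_ ?_ ?_ ?_ ?_ ?_ ?_ <;> intro ht h <;> first | exact ht rfl | (evH; linarith)

theorem aln_kH6 (hθ : 0 < θ) (hθ2 : θ < 1 / 2) (hb : θb = 2 * θ - 1 / 2) :
    Aln (nat8 1 (-θ) (-θb)) kH 6 := by
  subst hb
  refine all8 ?_ ?_ ?_ ?_ ?_ ?_ ?_ ?_ <;> intro ht h <;> first | exact ht rfl | (evH; linarith)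

theorem cls07 {B : Fin 8 → ℝ} (h0 : B 0 = 0) (h7 : B 7 = 0) (hθb : 0 < 2 * θ - θb)
    (hB : ∀ i, i ≠ 0 → i ≠ 7 → B i ≠ 0) :
    ∀ i ∈ ({0, 7} : Finset (Fin 8)), ∀ j, Par (nat8 1 (-θ) (-θb)) B i j →
      j ∈ ({0, 7} : Finset (Fin 8)) := by
  intro i hi j hp
  by_contra hj
  have hj' : j ≠ 0 ∧ j ≠ 7 := by
    constructor
    · rintro rfl; exact hj (by decide)
    · rintro rfl; exact hj (by decide)
  have h1 := hB j hj'.1 hj'.2
  unfold Par at hp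
  rcases in07 i hi with rfl | rfl
  · rw [h0, mul_zero] at hp
    have : nat8 1 (-θ) (-θb) 0 ≠ 0 := by evH; norm_num
    exact (mul_ne_zero this h1) hp
  · rw [h7, mul_zero] at hp
    have : nat8 1 (-θ) (-θb) 7 ≠ 0 := by evH; linarith
    exact (mul_ne_zero this h1) hp

/-- the class `{z, G}` -/
theorem step07 {B : Fin 8 → ℝ} (hS : SOk (nat8 1 (-θ) (-θb)) B (-1)) (h0 : B 0 = 0) (h7 : B 7 = 0)
    (hθb : 0 < 2 * θ - θb) (hB : ∀ i, i ≠ 0 → i ≠ 7 → B i ≠ 0) {lam : (Fin 12 → ℝ) → ℝ} {cm : ℝ}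
    {ρ : Fin 8 → ℝ} (rm : Rates8 θ θb t B (-1) cm lam ρ) {c : K8 → ℝ} {l α x : ℝ} (hx : 0 ≤ x)
    (hc : ∀ i, RL8.cls i ∈ ({0, 7} : Finset (Fin 8)) → c i = 0)
    (hmem : ∀ Z' : Finset (Fin 8), Z' ⊆ {0, 7} → RL8.vec (l • B + α • nat8 1 (-θ) (-θb)) + c +
      x • eZ RL8 (nat8 1 (-θ) (-θb)) Z' ∈ (srf8 θ θb t B (-1)).LW (Q8 t) cm) :
    lam (xt kp 0 (RL8.vec (l • B + α • nat8 1 (-θ) (-θb)) + c)) -
      lam (xt kp 0 (RL8.vec (l • B + α • nat8 1 (-θ) (-θb)) + c +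
        x • eZ RL8 (nat8 1 (-θ) (-θb)) {0, 7})) = ρ 0 * x := by
  have p07 : Par (nat8 1 (-θ) (-θb)) B 0 7 := by unfold Par; rw [h0, h7]; ring
  have key := zstep_of (rep := {0}) hS rm (Z := {0, 7}) ?_ (cls07 h0 h7 hθb hB) (by decide) ?_ ?_
    c l α x hx hc hmem
  · rw [Finset.sum_singleton] at key
    rw [key]
    have : nat8 1 (-θ) (-θb) 0 = 1 := rfl
    rw [this]; ring
  · intro i hi
    rcases in07 i hi with rfl | rfl
    · evH; norm_num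
    · evH; linarith
  · intro i hi
    refine ⟨0, by decide, ?_⟩
    rcases in07 i hi with rfl | rfl
    · exact rfl
    · exact p07
  · intro i hi j hj _ _ _ _
    rw [Finset.mem_singleton] at hi hj
    rw [hi, hj]

/-- **the chain rule on `kH`** -/
theorem nz8_kH (ht : t ≠ 0) (hθ : 0 < θ) (hθ2 : θ < 1 / 2) (hb : θb = 2 * θ - 1 / 2)
    {cp cm : ℝ} (hcp : 0 < cp) (hcm : 0 < cm) {lam : (Fin 12 → ℝ) → ℝ} {K own : ℝ}
    (hl : LamOk (L8 θ θb t) lam K own) {ρp ρm : Fin 8 → ℝ}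
    (rp : Rates8 θ θb t oS 1 cp lam ρp) (rm : Rates8 θ θb t kH (-1) cm lam ρm) :
    (3 / 2 - 2 * θ) * (ρp 4 - ρm 4) ≤ ρm 0 + (1 / 2 - θ) * ρm 6 - own := by
  have hm := sok_kH (k := 1 / 2) (by norm_num) hb
  have eA : (3 / 2 - 2 * θ) = 1 - θb := by rw [hb]; ring
  have A4 : nat8 1 (-θ) (-θb) 4 ≠ 0 := by
    have : 0 < nat8 1 (-θ) (-θb) 4 := by evH; linarith
    exact this.ne'
  have a4p : Aln (nat8 1 (-θ) (-θb)) oS 4 := by
    subst hb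
    refine all8 ?_ ?_ ?_ ?_ ?_ ?_ ?_ ?_ <;> intro ht h <;> first | exact ht rfl | (evH; linarith)
  have par07 : Par (nat8 1 (-θ) (-θb)) kH 0 7 := by
    unfold Par; evH; rw [hb]; ring
  have par00 : Par (nat8 1 (-θ) (-θb)) kH 0 0 := rfl
  have par66 : Par (nat8 1 (-θ) (-θb)) kH 6 6 := rfl
  have n06 : ¬ Par (nat8 1 (-θ) (-θb)) kH 0 6 := by
    unfold Par; intro h; evH; linarith
  have n67 : ¬ Par (nat8 1 (-θ) (-θb)) kH 6 7 := by
    unfold Par; intro h; evH; linarith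
  have n60 : ¬ Par (nat8 1 (-θ) (-θb)) kH 6 0 := fun h => n06 h.symm'
  have key := nz8 (θa := θ) (θb := θb) (Z := ZBG) (Bp := oS) (Bm := kH) ht
    (sok_oS (by linarith) (by linarith)) hm leg_oS leg_kH hcp hcm hl (by decide) (by decide)
    (by decide) (by decide) (by linarith) (by evH; linarith) (by evH; linarith) oS_zbg ?_ ?_
    leg_ZBG
    (Kz := 0) le_rfl (rp.alone 4 a4p A4) (rm.alone 4 (aln_kH4 hθ hθ2 hb) A4)
    (fun c l α x hl' hx hc hcZ hcn hcm' hn hmem => (zstep_of (rep := {0, 6}) hm rm ?_ ?_ ?_ ?_ ?_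
      c l α x hx (fun i hi => hcZ i (Or.inl hi)) hmem).le)
  · have e := sum_pair (f := fun i => ρm i * nat8 1 (-θ) (-θb) i) (a := 0) (b := 6) (by decide)
    rw [e] at key
    have e0 : nat8 1 (-θ) (-θb) 0 = 1 := rfl
    have e6 : nat8 1 (-θ) (-θb) 6 = 1 / 2 - θ := by evH; rw [hb]; ring
    rw [e0, e6] at key
    rw [eA]
    linarith
  · subst hb
    refine all8 ?_ ?_ ?_ ?_ ?_ ?_ ?_ ?_ <;> intro hi <;>
      first | (exact absurd hi (by decide)) | (evH; linarith)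
  · subst hb
    refine all8 ?_ ?_ ?_ ?_ ?_ ?_ ?_ ?_ <;> intro hi hi4 <;>
      first | (exact absurd (by decide) hi) | (exact absurd rfl hi4) | (evH; linarith)
  · subst hb
    refine all8 ?_ ?_ ?_ ?_ ?_ ?_ ?_ ?_ <;> intro hi <;>
      first | (exact absurd hi (by decide)) | (evH; linarith)
  · intro i hi
    have h3 := zbg i hi
    subst hb
    rcases h3 with rfl | rfl | rfl
    · refine all8 ?_ ?_ ?_ ?_ ?_ ?_ ?_ ?_ <;> intro hp <;>
        first | decide | (exfalso; unfold Par at hp; evH; linarith)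
    · refine all8 ?_ ?_ ?_ ?_ ?_ ?_ ?_ ?_ <;> intro hp <;>
        first | decide | (exfalso; unfold Par at hp; evH; linarith)
    · refine all8 ?_ ?_ ?_ ?_ ?_ ?_ ?_ ?_ <;> intro hp <;>
        first | decide | (exfalso; unfold Par at hp; evH; linarith)
  · decide
  · intro i hi
    have h3 := zbg i hi
    rcases h3 with rfl | rfl | rfl
    · exact ⟨0, by decide, par00⟩
    · exact ⟨6, by decide, par66⟩
    · exact ⟨0, by decide, par07⟩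
  · intro i hi j hj c hc h1 h2
    have h3 := zbg c hc
    have h4 := in06 i hi
    have h5 := in06 j hj
    rcases h4 with rfl | rfl <;> rcases h5 with rfl | rfl
    · rfl
    · rcases h3 with rfl | rfl | rfl
      · exact absurd h2 n60
      · exact absurd h1 n06
      · exact absurd h2 n67
    · rcases h3 with rfl | rfl | rfl
      · exact absurd h1 n60
      · exact absurd h2 n06
      · exact absurd h1 n67
    · rfl

theorem aln_kD4 (hθ : 0 < θ) (hk : 0 < k) (hk1 : k < 1) (hb : θb = 2 * θ - k) :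
    Aln (nat8 1 (-θ) (-θb)) kD 4 := by
  subst hb
  refine all8 ?_ ?_ ?_ ?_ ?_ ?_ ?_ ?_ <;> intro ht h <;> first | exact ht rfl | (evH; linarith)

theorem e8_nn (s : Fin 8) (i : K8) : 0 ≤ RL8.e s i := RL8.e_nonneg s i

theorem e8_le (s : Fin 8) (i : K8) : RL8.e s i ≤ 1 := by
  unfold RS.e
  split_ifs
  · exact le_rfl
  · exact zero_le_one

theorem eZ07_nn (hθb : 0 ≤ 2 * θ - θb) (Z' : Finset (Fin 8)) (h : Z' ⊆ {0, 7}) (i : K8) :
    0 ≤ eZ RL8 (nat8 1 (-θ) (-θb)) Z' i := by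
  refine eZ_nonneg (fun s hs => ?_) i
  rcases in07 s (h hs) with rfl | rfl
  · evH; norm_num
  · evH; linarith

theorem eZ07_le (h0 : 2 * θ - θb ≤ 1) (Z' : Finset (Fin 8)) (h : Z' ⊆ {0, 7}) (i : K8) :
    eZ RL8 (nat8 1 (-θ) (-θb)) Z' i ≤ 1 := by
  unfold eZ
  split_ifs with hi
  · have h1 := in07 _ (h hi)
    change 1 * nat8 1 (-θ) (-θb) (cl8 i.1) ≤ 1
    change cl8 i.1 = 0 ∨ cl8 i.1 = 7 at h1
    rcases h1 with h1 | h1 <;> rw [h1] <;> evH <;> linarith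
  · exact zero_le_one

/-- one increment on two surfaces -/
theorem cl8_gen (ht : t ≠ 0) {B₁ B₂ : Fin 8 → ℝ} {sg₁ sg₂ : ℝ}
    (S₁ : SOk (nat8 1 (-θ) (-θb)) B₁ sg₁) (S₂ : SOk (nat8 1 (-θ) (-θb)) B₂ sg₂)
    (L₁ : Leg8 B₁) (L₂ : Leg8 B₂) {lam : (Fin 12 → ℝ) → ℝ} {K own : ℝ}
    (hl : LamOk (L8 θ θb t) lam K own) {c₁ c₂ l₁ l₂ α₁ α₂ : ℝ} (hc₁ : 0 < c₁) (hc₂ : 0 < c₂)
    (hl₁ : 0 < l₁) (hl₂ : 0 < l₂)
    (hle : ∀ i, l₁ * B₁ i + α₁ * nat8 1 (-θ) (-θb) i ≤ l₂ * B₂ i + α₂ * nat8 1 (-θ) (-θb) i)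
    {e : K8 → ℝ} (he0 : ∀ i, 0 ≤ e i) (he1 : ∀ i, e i ≤ 1)
    (heq : ∀ i : K8, e i ≠ 0 → (cl8 i.1 = 0 ∨ cl8 i.1 = 6 ∨ cl8 i.1 = 7 ∨ cl8 i.1 = 4) ∧
      l₁ * B₁ (cl8 i.1) + α₁ * nat8 1 (-θ) (-θb) (cl8 i.1) =
        l₂ * B₂ (cl8 i.1) + α₂ * nat8 1 (-θ) (-θb) (cl8 i.1)) {r₁ r₂ : ℝ}
    (H₁ : ∀ ε, 0 < ε → ε * (‖v8 t‖ + 1) ≤ c₁ * l₁ →
      lam (xt kp 0 (pt8 θ θb t B₁ l₁ α₁ ε)) - lam (xt kp 0 (pt8 θ θb t B₁ l₁ α₁ ε + ε • e)) ≤
        r₁ * ε)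
    (H₂ : ∀ ε, 0 < ε → ε * (‖v8 t‖ + 1) ≤ c₂ * l₂ →
      r₂ * ε ≤
        lam (xt kp 0 (pt8 θ θb t B₂ l₂ α₂ ε)) - lam (xt kp 0 (pt8 θ θb t B₂ l₂ α₂ ε + ε • e))) :
    r₂ ≤ r₁ := by
  have hN : 0 < ‖v8 t‖ + 1 := by positivity
  obtain ⟨ε, hε⟩ : ∃ ε : ℝ, ε = min (c₁ * l₁) (c₂ * l₂) / (‖v8 t‖ + 1) := ⟨_, rfl⟩
  have hε0 : 0 < ε := by rw [hε]; exact div_pos (lt_min (mul_pos hc₁ hl₁) (mul_pos hc₂ hl₂)) hN
  have e1 : ε * (‖v8 t‖ + 1) ≤ c₁ * l₁ := by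
    rw [hε, div_mul_cancel₀ _ hN.ne']; exact min_le_left _ _
  have e2 : ε * (‖v8 t‖ + 1) ≤ c₂ * l₂ := by
    rw [hε, div_mul_cancel₀ _ hN.ne']; exact min_le_right _ _
  have z0 : ∀ i : K8, (0 : ℝ) ≤ (0 : K8 → ℝ) i := fun _ => le_rfl
  have z1 : ∀ i : K8, (0 : K8 → ℝ) i ≤ (1 : ℝ) := fun _ => zero_le_one
  have m1 := pt8_mem (θ := θ) (θb := θb) (α := α₁) ht L₁ hl₁.le hε0.le z0 z1
  have m2 := pt8_mem (θ := θ) (θb := θb) (α := α₂) ht L₂ hl₂.le hε0.le z0 z1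
  rw [smul_zero, add_zero] at m1 m2
  have key := cl_pts hl.sup8 m1 m2 (pt8_mem ht L₁ hl₁.le hε0.le he0 he1)
    (pt8_mem ht L₂ hl₂.le hε0.le he0 he1) (pt8_le hle)
    (fun i => mul_nonneg hε0.le (he0 i)) (fun i hi => by
      have h3 : e i ≠ 0 := fun h => hi (by rw [Pi.smul_apply, h, smul_zero])
      obtain ⟨a, b⟩ := heq i h3
      rw [pt8_at a, pt8_at a, b])
  have k1 := H₁ ε hε0 e1
  have k2 := H₂ ε hε0 e2
  have k3 : r₂ * ε ≤ r₁ * ε := k2.trans (key.trans k1)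
  exact le_of_mul_le_mul_right k3 hε0

/-- rate of an alone slot of `{N, B}` at the points `pt8` -/
theorem alone8 (ht : t ≠ 0) {B : Fin 8 → ℝ} {sg : ℝ} (hS : SOk (nat8 1 (-θ) (-θb)) B sg)
    {lam : (Fin 12 → ℝ) → ℝ} {c0 : ℝ} {ρ : Fin 8 → ℝ} (r : Rates8 θ θb t B sg c0 lam ρ)
    {s : Fin 8} (hs : s = 4 ∨ s = 6) (ha : Aln (nat8 1 (-θ) (-θb)) B s)
    (hA : nat8 1 (-θ) (-θb) s ≠ 0) {l α ε x : ℝ} (hl : 0 ≤ l) (hε : 0 ≤ ε)
    (hb : ε * (‖v8 t‖ + 1) ≤ c0 * l) (hx0 : 0 ≤ x) (hx : x ≤ ε) :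
    lam (xt kp 0 (pt8 θ θb t B l α ε)) - lam (xt kp 0 (pt8 θ θb t B l α ε + x • RL8.e s)) =
      ρ s * x := by
  have z0 : ∀ i : K8, (0 : ℝ) ≤ (0 : K8 → ℝ) i := fun _ => le_rfl
  have z1 : ∀ i : K8, (0 : K8 → ℝ) i ≤ (1 : ℝ) := fun _ => zero_le_one
  have m1 := pt8_win (θ := θ) (θb := θb) (α := α) ht hS hl hε hb z0 z1
  rw [smul_zero, add_zero] at m1
  have m2 : pt8 θ θb t B l α ε + x • RL8.e s ∈ (srf8 θ θb t B sg).LW (Q8 t) c0 := by
    rcases hε.eq_or_lt with h | h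
    · have hx' : x = 0 := le_antisymm (hx.trans h.symm.le) hx0
      rw [hx', zero_smul, add_zero]; exact m1
    · have h3 := pt8_win (θ := θ) (θb := θb) (α := α) ht hS hl hε hb
        (e := (x / ε) • RL8.e s)
        (fun i => mul_nonneg (div_nonneg hx0 hε) (e8_nn s i))
        (fun i => mul_le_one₀ ((div_le_one h).2 hx) (e8_nn s i) (e8_le s i))
      rwa [smul_smul, mul_div_cancel₀ _ h.ne'] at h3
  refine r.alone s ha hA _ (l * B s + α * nat8 1 (-θ) (-θb) s) x (fun i hi => ?_) m1 m2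
  have hi' : cl8 i.1 = s := hi
  rw [pt8_at (by rcases hs with h | h <;> rw [h] at hi' <;> simp [hi']), hi']
  change _ = 1 * _
  ring

/-- **the chain rule at the resonance** -/
theorem nz8_half (ht : t ≠ 0) (hθ : 0 < θ) (hθk : θ < k) (hk : k = 1 / 2) (hb : θb = 2 * θ - k)
    {cp cm ch : ℝ} (hcp : 0 < cp) (hcm : 0 < cm) (hch : 0 < ch) {lam : (Fin 12 → ℝ) → ℝ}
    {K own : ℝ} (hl : LamOk (L8 θ θb t) lam K own) {ρp ρm ρh : Fin 8 → ℝ}
    (rp : Rates8 θ θb t oS 1 cp lam ρp) (rm : Rates8 θ θb t kD (-1) cm lam ρm)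
    (rh : Rates8 θ θb t kH (-1) ch lam ρh) :
    (1 + k - 2 * θ) * (ρp 4 - ρm 4) ≤ ρm 0 + (k - θ) * ρh 6 - own := by
  have hk0 : 0 < k := by rw [hk]; norm_num
  have key := nz8_kH ht hθ (by linarith) (by rw [hb, hk]) hcp hch hl rp rh
  have S₁ := sok_kD hθ hk0 hb
  have S₂ := sok_kH hk0 hb
  have hle : ∀ i, (1:ℝ) * kD i + 0 * nat8 1 (-θ) (-θb) i ≤ 1 * kH i + 0 * nat8 1 (-θ) (-θb) i := by
    refine all8 ?_ ?_ ?_ ?_ ?_ ?_ ?_ ?_ <;> evH <;> norm_num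
  have A4 : nat8 1 (-θ) (-θb) 4 ≠ 0 := by
    have : 0 < nat8 1 (-θ) (-θb) 4 := by evH; linarith
    exact this.ne'
  have k4 : ρh 4 ≤ ρm 4 := by
    refine cl8_gen ht S₁ S₂ leg_kD leg_kH hl hcm hch one_pos one_pos hle (e := RL8.e 4)
      (e8_nn 4) (e8_le 4) (fun i hi => ?_) (fun ε h1 h2 => ?_) (fun ε h1 h2 => ?_)
    · have h3 : cl8 i.1 = 4 := by
        by_contra h
        exact hi (mem_e_zero h)
      rw [h3]
      refine ⟨Or.inr (Or.inr (Or.inr rfl)), ?_⟩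
      evH
      ring
    · exact (alone8 ht S₁ rm (Or.inl rfl) (aln_kD4 hθ hk0 (by linarith) hb) A4 zero_le_one h1.le h2
        h1.le le_rfl).le
    · exact (alone8 ht S₂ rh (Or.inl rfl) (aln_kH4 hθ (by linarith) (by rw [hb, hk])) A4
        zero_le_one h1.le h2 h1.le le_rfl).ge
  have hbb : 2 * θ - θb = 1 / 2 := by rw [hb, hk]; ring
  have k0 : ρh 0 ≤ ρm 0 := by
    refine cl8_gen ht S₁ S₂ leg_kD leg_kH hl hcm hch one_pos one_pos hle
      (e := eZ RL8 (nat8 1 (-θ) (-θb)) {0, 7})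
      (eZ07_nn (by rw [hbb]; norm_num) _ (Finset.Subset.refl _))
      (eZ07_le (by rw [hbb]; norm_num) _ (Finset.Subset.refl _))
      (fun i hi => ?_) (fun ε h1 h2 => ?_) (fun ε h1 h2 => ?_)
    · have h3 : cl8 i.1 = 0 ∨ cl8 i.1 = 7 := by
        by_contra h
        refine hi ?_
        unfold eZ
        rw [if_neg]
        intro h'
        exact h (in07 _ h')
      rcases h3 with h3 | h3 <;> rw [h3]
      · refine ⟨Or.inl rfl, ?_⟩; evH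
      · refine ⟨Or.inr (Or.inr (Or.inl rfl)), ?_⟩; evH; ring
    · refine (step07 S₁ (by evH) (by evH; ring) (by rw [hbb]; norm_num) ?_ rm h1.le (c := ε • v8 t)
        (fun i hi => ?_) fun Z' hZ' => ?_).le
      · refine all8 ?_ ?_ ?_ ?_ ?_ ?_ ?_ ?_ <;> intro a b <;>
          first | exact absurd rfl a | exact absurd rfl b | (evH; norm_num)
      · rw [Pi.smul_apply, v8_zero (by
          rcases in07 _ hi with h | h
          · exact Or.inl h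
          · exact Or.inr (Or.inr (Or.inl h))), smul_zero]
      · exact pt8_win ht S₁ zero_le_one h1.le h2 (eZ07_nn (by rw [hbb]; norm_num) _ hZ')
          (eZ07_le (by rw [hbb]; norm_num) _ hZ')
    · refine (step07 S₂ rfl rfl (by rw [hbb]; norm_num) ?_ rh h1.le (c := ε • v8 t)
        (fun i hi => ?_) fun Z' hZ' => ?_).ge
      · refine all8 ?_ ?_ ?_ ?_ ?_ ?_ ?_ ?_ <;> intro a b <;>
          first | exact absurd rfl a | exact absurd rfl b | (evH; norm_num)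
      · rw [Pi.smul_apply, v8_zero (by
          rcases in07 _ hi with h | h
          · exact Or.inl h
          · exact Or.inr (Or.inr (Or.inl h))), smul_zero]
      · exact pt8_win ht S₂ zero_le_one h1.le h2 (eZ07_nn (by rw [hbb]; norm_num) _ hZ')
          (eZ07_le (by rw [hbb]; norm_num) _ hZ')
  have h5 : (1 + k - 2 * θ) = 3 / 2 - 2 * θ := by rw [hk]; ring
  have h6 : (k - θ) = 1 / 2 - θ := by rw [hk]
  rw [h5, h6]
  have h7 : (3 / 2 - 2 * θ) * (ρp 4 - ρm 4) ≤ (3 / 2 - 2 * θ) * (ρp 4 - ρh 4) :=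
    mul_le_mul_of_nonneg_left (by linarith) (by linarith)
  linarith

/-- the comparison point on `kH` is finer -/
theorem kH_cl {l α h C b : ℝ} (hθ : 0 < θ) (hθ2 : θ < 1 / 2) (hh : 0 < h) (hC : 1 ≤ C)
    (bl : -C ≤ b) (bu : b ≤ C) (hs : h * (200 * C) < l) : ∀ j : Fin 8, j ≠ 6 → ∀ x : ℝ, x ≤ C →
      l * kD j + α * nat8 1 (-θ) (-(2 * θ - 1 / 2)) j + h * x ≤
        (l + h * (20 * C * (1 / 2 - θ) - b)) * kH j +
          (α + h * (20 * C)) * nat8 1 (-θ) (-(2 * θ - 1 / 2)) j := by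
  have g0 : 0 < h * C := mul_pos hh (by linarith)
  have g1 : 0 ≤ h * C * θ := mul_nonneg g0.le hθ.le
  have g2 : h * C * θ ≤ h * C * (1 / 2) := mul_le_mul_of_nonneg_left hθ2.le g0.le
  have g3 : h * b ≤ h * C := mul_le_mul_of_nonneg_left bu hh.le
  have g4 : -(h * C) ≤ h * b := by
    have := mul_le_mul_of_nonneg_left bl hh.le
    linarith
  refine all8 ?_ ?_ ?_ ?_ ?_ ?_ ?_ ?_ <;> intro hj x hx <;>
    have g6 : h * x ≤ h * C := mul_le_mul_of_nonneg_left hx hh.le <;>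
    first | exact absurd rfl hj | (evH; linarith)

/-- **increments of `B` of a tangent at a point of `kD`** -/
theorem kH_le (ht : t ≠ 0) (hθ : 0 < θ) (hθk : θ < k) (hk : k = 1 / 2) (hb : θb = 2 * θ - k)
    {ch : ℝ} (hch : 0 < ch) {lam : (Fin 12 → ℝ) → ℝ} {K own : ℝ}
    (hl : LamOk (L8 θ θb t) lam K own) {ρh : Fin 8 → ℝ}
    (rh : Rates8 θ θb t kH (-1) ch lam ρh) {l α : ℝ} (hl0 : 0 < l) {D : Set (K8 → ℝ)}
    {h : ℕ → ℝ} (hpos : ∀ m, 0 < h m) (hlim : Tendsto h atTop (𝓝 0)) {lam2 : (K8 → ℝ) → ℝ}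
    (htan : Ex926.IsTan (M8 θ θb t) D (fun c => lam (xt kp 0 c))
      (fun _ => RL8.vec (l • kD + α • nat8 1 (-θ) (-θb))) h lam2)
    {c : K8 → ℝ} {b y : ℝ} (hcb : ∀ i : K8, cl8 i.1 = 6 → c i = b) (hy : 0 ≤ y) (hc : c ∈ D)
    (hc' : c + y • RL8.e 6 ∈ D) : ρh 6 * y ≤ lam2 c - lam2 (c + y • RL8.e 6) := by
  have hk0 : 0 < k := by rw [hk]; norm_num
  have hbk : θb = 2 * θ - 1 / 2 := by rw [hb, hk]
  have hθ2 : θ < 1 / 2 := by linarith
  have S₂ := sok_kH hk0 hb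
  have A6 : nat8 1 (-θ) (-θb) 6 ≠ 0 := by
    have : 0 < nat8 1 (-θ) (-θb) 6 := by evH; linarith
    exact this.ne'
  -- constants
  obtain ⟨C, hC⟩ : ∃ C : ℝ, C = ‖c‖ + ‖c + y • RL8.e 6‖ + |b| + 1 := ⟨_, rfl⟩
  have hC1 : 1 ≤ C := by
    rw [hC]; linarith [norm_nonneg c, norm_nonneg (c + y • RL8.e 6), abs_nonneg b]
  have hcC : ‖c‖ ≤ C := by
    rw [hC]; linarith [norm_nonneg (c + y • RL8.e 6), abs_nonneg b]
  have hcC' : ‖c + y • RL8.e 6‖ ≤ C := by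
    rw [hC]; linarith [norm_nonneg c, abs_nonneg b]
  have hbC : |b| ≤ C := by
    rw [hC]; linarith [norm_nonneg c, norm_nonneg (c + y • RL8.e 6)]
  obtain ⟨bl, bu⟩ := abs_le.1 hbC
  obtain ⟨M, hM⟩ : ∃ M : ℝ, M = 20 * C := ⟨_, rfl⟩
  obtain ⟨m6, hm6⟩ : ∃ m6 : ℝ, m6 = M * (1 / 2 - θ) - b := ⟨_, rfl⟩
  have hm6l : |m6| ≤ 20 * C := by
    rw [hm6, hM, abs_le]
    constructor
    · have : 0 ≤ 20 * C * (1 / 2 - θ) := by
        apply mul_nonneg <;> linarith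
      linarith
    · have : 20 * C * (1 / 2 - θ) ≤ 20 * C * (1 / 2) :=
        mul_le_mul_of_nonneg_left (by linarith) (by linarith)
      linarith
  obtain ⟨ml, mu⟩ := abs_le.1 hm6l
  refine le_of_forall_pos_le_add fun ε hε => ?_
  have ev1 := htan C (ε / 2) (by linarith)
  have ev2 : ∀ᶠ m in atTop, h m < l / (200 * C) :=
    hlim.eventually_lt_const (by positivity)
  have ev3 : ∀ᶠ m in atTop, h m < ch * l / (2 * ((y + 1) * (‖v8 t‖ + 1))) :=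
    hlim.eventually_lt_const (by positivity)
  obtain ⟨m, e1, e2, e3⟩ := (ev1.and (ev2.and ev3)).exists
  have hm0 := hpos m
  obtain ⟨p1, q1⟩ := e1 c hc hcC
  obtain ⟨p2, q2⟩ := e1 _ hc' hcC'
  have hsm : h m * (200 * C) < l := by
    rwa [lt_div_iff₀ (by positivity)] at e2
  -- the comparison point
  have hl' : l / 2 ≤ l + h m * m6 := by
    have : -(h m * (20 * C)) ≤ h m * m6 := by
      have := mul_le_mul_of_nonneg_left ml hm0.le
      linarith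
    nlinarith
  have hl'0 : 0 < l + h m * m6 := by linarith
  have hv : 0 < ‖v8 t‖ + 1 := by positivity
  have hwin : h m * y * (‖v8 t‖ + 1) ≤ ch * (l + h m * m6) := by
    have h3 : h m * (2 * ((y + 1) * (‖v8 t‖ + 1))) < ch * l := by
      rwa [lt_div_iff₀ (by positivity)] at e3
    have h4 : ch * (l / 2) ≤ ch * (l + h m * m6) := mul_le_mul_of_nonneg_left hl' hch.le
    have h5 : 0 ≤ h m * (‖v8 t‖ + 1) := by positivity
    nlinarith
  have hrate := alone8 (θ := θ) (θb := θb) (α := α + h m * M) ht S₂ rh (Or.inr rfl)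
    (aln_kH6 hθ hθ2 hbk) A6 hl'0.le (mul_nonneg hm0.le hy) hwin (mul_nonneg hm0.le hy) le_rfl
  have eε : h m • (y • RL8.e 6) = (h m * y) • RL8.e 6 := smul_smul _ _ _
  have hbase : ∀ i : K8, (RL8.vec (l • kD + α • nat8 1 (-θ) (-θb)) + h m • c) i =
      l * kD (cl8 i.1) + α * nat8 1 (-θ) (-θb) (cl8 i.1) + h m * c i := by
    intro i
    simp only [RS.vec, RL8, Pi.add_apply, Pi.smul_apply, smul_eq_mul]
    ring
  have hci : ∀ i : K8, c i ≤ C := fun i =>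
    (le_abs_self _).trans ((norm_le_pi_norm c i).trans hcC)
  have hcl : ∀ j : Fin 8, j ≠ 6 → ∀ x : ℝ, x ≤ C →
      l * kD j + α * nat8 1 (-θ) (-θb) j + h m * x ≤
        (l + h m * m6) * kH j + (α + h m * M) * nat8 1 (-θ) (-θb) j := by
    rw [hm6, hM, hbk]
    exact kH_cl hθ hθ2 hm0 hC1 bl bu hsm
  have hb6 : l * kD 6 + α * nat8 1 (-θ) (-θb) 6 + h m * b =
      (l + h m * m6) * kH 6 + (α + h m * M) * nat8 1 (-θ) (-θb) 6 := by
    rw [hm6, hM, hbk]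
    clear * -
    evH
    ring
  have hle : RL8.vec (l • kD + α • nat8 1 (-θ) (-θb)) + h m • c ≤
      pt8 θ θb t kH (l + h m * m6) (α + h m * M) (h m * y) := by
    intro i
    rw [hbase]
    have hv0 : 0 ≤ v8 t i := rmZ_nonneg i
    by_cases h6 : cl8 i.1 = 6
    · rw [pt8_at (Or.inr (Or.inl h6)), h6, hcb i h6, hb6]
    · have h7 := hcl (cl8 i.1) h6 (c i) (hci i)
      refine h7.trans ?_
      unfold pt8
      simp only [RS.vec, RL8, Pi.add_apply, Pi.smul_apply, smul_eq_mul]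
      have := mul_nonneg (mul_nonneg hm0.le hy) hv0
      linarith
  have z0 : ∀ i : K8, (0 : ℝ) ≤ (0 : K8 → ℝ) i := fun _ => le_rfl
  have z1 : ∀ i : K8, (0 : K8 → ℝ) i ≤ (1 : ℝ) := fun _ => zero_le_one
  have m2 := pt8_mem (θ := θ) (θb := θb) (α := α + h m * M) ht leg_kH hl'0.le
    (mul_nonneg hm0.le hy) z0 z1
  rw [smul_zero, add_zero] at m2
  have p2' : RL8.vec (l • kD + α • nat8 1 (-θ) (-θb)) + h m • c + (h m * y) • RL8.e 6 ∈
      M8 θ θb t := by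
    rw [smul_add, eε, ← add_assoc] at p2
    exact p2
  have key := cl_pts hl.sup8 p1 m2 p2' (pt8_mem ht leg_kH hl'0.le (mul_nonneg hm0.le hy)
    (e8_nn 6) (e8_le 6)) hle (fun i => mul_nonneg (mul_nonneg hm0.le hy) (e8_nn 6 i))
    (fun i hi => by
      have h6 : cl8 i.1 = 6 := by
        by_contra h'
        exact hi (by rw [Pi.smul_apply, mem_e_zero h', smul_zero])
      rw [hbase, pt8_at (Or.inr (Or.inl h6)), h6, hcb i h6, hb6])
  rw [hrate] at key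
  rw [smul_add, eε, ← add_assoc] at q2
  have a1 := abs_le.1 q1
  have a2 := abs_le.1 q2
  have h8 : h m * (ρh 6 * y) ≤ h m * (lam2 c - lam2 (c + y • RL8.e 6) + ε) := by
    linarith [a1.1, a1.2, a2.1, a2.2]
  exact le_of_mul_le_mul_left h8 hm0

end Crest.Agent.R116.NZ90
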