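import Crest.Agent.R136.Lq6_196

/-!
# R116 (S0155), K side, [NARROW] (helper192), part 1: the antitone transfer of strips

`strip_p` : from `ExtQ` + `CombQ` and a count of the strips in the box `rc` (record) for the family
`I0`: in every class of exponents `p` of the sample, every strip of width `d ^ y` of a functional
`Sf θ x ·` (flag of the centre `x`) has at most `d ^ (-(ν p - ν (p ⊔ rc) + c₀ + t + ε))` points.
-/

set_option autoImplicit false
set_option linter.unusedVariables false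
set_option linter.unusedSectionVars false

open Finset Filter Topology

namespace Crest.Agent.R116.Nar192

open Crest.Agent.R138.Ex926
open Crest.Agent.R138.Mk163 (zc zl rho alive)
open Crest.Agent.R138.MkRef627 (lc kc)
open Crest.Agent.R138.Dp76 (dpow_pos dpow_add dpow_le)
open Crest.Agent.R136.MkA627
open Crest.Agent.R136.Net191
open Crest.Agent.R136.Lq196

/-- count through the classes of a label -/
theorem card_le_image_mul {ι κ : Type*} [DecidableEq ι] [DecidableEq κ] (F Q : Finset ι)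
    (f : ι → κ) (hF : F ⊆ Q) {N : ℝ} (hN : 0 ≤ N)
    (h : ∀ y0 ∈ F, (((F.filter fun j => f j = f y0).card : ℕ) : ℝ) ≤ N) :
    (F.card : ℝ) ≤ ((Q.image f).card : ℝ) * N := by
  classical
  have h1 : (F.card : ℝ) = ∑ b ∈ F.image f, ((F.filter fun j => f j = b).card : ℝ) := by
    rw [← Nat.cast_sum]
    congr 1
    exact card_eq_sum_card_image f F
  rw [h1]
  calc ∑ b ∈ F.image f, ((F.filter fun j => f j = b).card : ℝ)
      ≤ ∑ b ∈ F.image f, N := by
        refine sum_le_sum fun b hb => ?_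
        obtain ⟨y0, hy0, rfl⟩ := mem_image.1 hb
        exact h y0 hy0
    _ = ((F.image f).card : ℝ) * N := by rw [sum_const, nsmul_eq_mul]
    _ ≤ ((Q.image f).card : ℝ) * N := by
        refine mul_le_mul_of_nonneg_right ?_ hN
        exact_mod_cast card_le_card (image_subset_image hF)

section gen

variable {m : ℕ} {B : Base} {I0 I' : ℕ → Finset (ℕ × ℝ)}
    {co : ∀ n : ℕ, ℕ × ℝ → ℕ × ℝ → Fin m → ℝ} {M : Mons m} {C R : ℝ} {kz : Fin m} {w0 s : ℝ}
    {PD : Set (Fin m → ℝ)} {D : (Fin m → ℝ) → ℝ} {r o : ℝ → Fin m → ℝ} {E : ℝ → ℝ}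
    {T : Fin m → Prop} {ν own : (Fin m → ℝ) → ℝ} {c₀ : ℝ} {lev : ℕ → ℚ → ℕ} {N0 : ℕ → ℝ}

variable {Θ : Type*} {Ok : ℕ → Θ → Prop} {Sf : ℕ → Θ → ℕ × ℝ → ℕ × ℝ → ℝ}

set_option maxHeartbeats 1000000 in
open Classical in
/-- **strips are narrow in every class** (antitone transfer from the record box) -/
theorem strip_p (hx : ExtQ B I0 I' co M C R kz w0 s PD D r o E T ν own c₀) (hR : 0 ≤ R)
    (hc : CombQ B I0 I' lev co M C R N0 c₀) (V : Fin m → Prop) {p rc : Fin m → ℝ}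
    (hp : p ∈ Leg M R) (hrc : rc ∈ Leg M R) {y t : ℝ}
    (hlip : ∀ K : ℝ, 1 ≤ K → ∃ K' : ℝ, 1 ≤ K' ∧ ∀ n, ∀ θ, Ok n θ → ∀ x ∈ I0 n, ∀ j ∈ I0 n,
      ∀ l ∈ I0 n, Near (co n) (B.d n) p K x j → Near (co n) (B.d n) (fun _ => R) K j l →
        |Sf n θ x l - Sf n θ x j| ≤ K' * B.d n ^ y)
    (hcount : ∀ K : ℝ, 1 ≤ K → ∀ ε : ℝ, 0 < ε → ∀ᶠ n in (U : Filter ℕ), ∀ θ, Ok n θ →
      ∀ x ∈ I0 n, ∀ y0 ∈ I0 n, Near (co n) (B.d n) p K x y0 →
      (((I0 n).filter fun j => (∀ k, V k → |co n y0 j k| ≤ K * B.d n ^ rc k) ∧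
        |Sf n θ x j - Sf n θ x y0| ≤ K * B.d n ^ y).card : ℝ) ≤
        N0 n * B.d n ^ (-(t + ε))) :
    ∀ K : ℝ, 1 ≤ K → ∀ ε : ℝ, 0 < ε → ∀ᶠ n in (U : Filter ℕ), ∀ x ∈ I' n,
      ∀ θ, Ok n θ → ∀ u : ℝ,
      (((cls (I' n) (nlab B I0 co M C n p) x).filter fun j =>
        |Sf n θ x j - u| ≤ K * B.d n ^ y).card : ℝ) ≤
        B.d n ^ (-(ν p - ν (p ⊔ rc) + c₀ + t + ε)) := by
  intro K hK ε hε
  have hC : 0 ≤ C := (hx.chart 0).C0
  have hK0 : 1 ≤ cK0 M C := cK0_one hC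
  have hT1 : cK0 M C ≤ triC M C (cK0 M C) := triC_ge hC hK0
  have hT : 1 ≤ triC M C (cK0 M C) := hK0.trans hT1
  obtain ⟨K', hK', hK2⟩ := hlip _ hK0
  have hsub := hx.sub
  set K1 : ℝ := triC M C (cK0 M C) + 2 * K + K' with hK1d
  have hK1 : 1 ≤ K1 := by rw [hK1d]; linarith
  obtain ⟨Kn, hKa, hKb, -⟩ := hc
  have hε4 : 0 < ε / 4 := by positivity
  have hsup : p ⊔ rc ∈ Leg M R := Leg.sup hp hrc
  filter_upwards [hKa _ hε4, hKb, hcount K1 hK1 _ hε4, B.ev_const_log (Real.log 16) hε4,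
    hx.prof.num _ hε4] with n a1 a2 a3 a4 a5 x hxI θ hθ u
  obtain ⟨k0, k1, -⟩ := a1
  have hKn : (0:ℝ) < Kn n := by exact_mod_cast k0
  have hd := B.pos n
  have hd1 := (B.lt n).le
  have dp := fun a => dpow_pos B n a
  have h16 : (16 : ℝ) ≤ B.d n ^ (-(ε / 4)) := by
    rw [← B.exp_eq, ← Real.log_le_iff_le_exp (by norm_num)]
    exact a4
  set F := (cls (I' n) (nlab B I0 co M C n p) x).filter fun j =>
    |Sf n θ x j - u| ≤ K * B.d n ^ y with hF
  have hxI0 := hsub n hxI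
  -- one cell of `p ⊔ rc`
  have key : ∀ y0 ∈ F, (((F.filter fun j => nlab B I0 co M C n (p ⊔ rc) j =
      nlab B I0 co M C n (p ⊔ rc) y0).card : ℕ) : ℝ) ≤ B.d n ^ (-(c₀ + t + 3 * (ε / 4))) := by
    intro y0 hy0
    obtain ⟨hy1, hy2⟩ := mem_filter.1 hy0
    obtain ⟨hy3, hy4⟩ := mem_cls.1 hy1
    have hyI0 := hsub n hy3
    have hnx : Near (co n) (B.d n) p (cK0 M C) x y0 := near_of_nlab hx.chart hp.1 hxI0 hyI0 hy4.symm
    set G := F.filter fun j => nlab B I0 co M C n (p ⊔ rc) j =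
      nlab B I0 co M C n (p ⊔ rc) y0 with hG
    set F' := (I0 n).filter fun j => (∀ k, V k → |co n y0 j k| ≤ K1 * B.d n ^ rc k) ∧
        |Sf n θ x j - Sf n θ x y0| ≤ K1 * B.d n ^ y with hF'
    have hGsub : G ⊆ I' n := fun j hj =>
      (mem_cls.1 (mem_filter.1 (mem_filter.1 hj).1).1).1
    have b1 := a2 G hGsub F' (filter_subset _ _) (by
      intro j hj l hl hlj _
      have hjI := hsub n (hGsub hj)
      obtain ⟨j1, j2⟩ := mem_filter.1 hj
      obtain ⟨j3, j4⟩ := mem_filter.1 j1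
      obtain ⟨j5, j6⟩ := mem_cls.1 j3
      -- y0 ~ j at p ⊔ rc
      have f1 : Near (co n) (B.d n) (p ⊔ rc) (cK0 M C) y0 j :=
        near_of_nlab hx.chart hsup.1 hyI0 hjI j2.symm
      -- j ~ l at the top
      have f2 : Near (co n) (B.d n) (fun _ => R) (cK0 M C) j l :=
        near_of_nlab hx.chart (top_Leg M hR).1 hjI hl hlj.symm
      have f3 : Near (co n) (B.d n) p (cK0 M C) x j :=
        near_of_nlab hx.chart hp.1 hxI0 hjI j6.symm
      have f4 := f1.anti hd hd1 (by linarith) (p := rc) le_sup_right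
      have f5 := f2.anti hd hd1 (by linarith) (p := rc) hrc.2
      have f6 := (hx.chart n).tri hrc.1 hd hd1 hK0 hyI0 hjI hl f4 f5
      have g1 := hK2 n θ hθ x hxI0 j hjI l hl f3 f2
      rw [hF', mem_filter]
      refine ⟨hl, fun k _ => (f6 k).trans (mul_le_mul_of_nonneg_right (by
        rw [hK1d]; linarith) (dp _).le), ?_⟩
      have t1 := abs_le.1 j4
      have t2 := abs_le.1 hy2
      have t3 := abs_le.1 g1
      have t5 : K1 * B.d n ^ y = triC M C (cK0 M C) * B.d n ^ y + 2 * (K * B.d n ^ y) +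
          K' * B.d n ^ y := by rw [hK1d]; ring
      have t6 : 0 ≤ triC M C (cK0 M C) * B.d n ^ y := mul_nonneg (by linarith) (dp y).le
      rw [t5, abs_le]
      constructor <;> linarith [t1.1, t1.2, t2.1, t2.2, t3.1, t3.2])
    have b2 : (Kn n : ℝ) * (G.card : ℝ) ≤ 16 * (F'.card : ℝ) := by exact_mod_cast b1
    have b3 : (F'.card : ℝ) ≤ N0 n * B.d n ^ (-(t + ε / 4)) :=
      a3 θ hθ x hxI0 y0 hyI0 (hnx.mono hd (by rw [hK1d]; linarith))
    have b4 : (Kn n : ℝ) * (G.card : ℝ) ≤ Kn n * B.d n ^ (-(c₀ + t + 3 * (ε / 4))) := by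
      calc _ ≤ 16 * (F'.card : ℝ) := b2
        _ ≤ B.d n ^ (-(ε / 4)) * (N0 n * B.d n ^ (-(t + ε / 4))) :=
            mul_le_mul h16 b3 (Nat.cast_nonneg _) (dp _).le
        _ ≤ B.d n ^ (-(ε / 4)) * ((Kn n * B.d n ^ (-(c₀ + ε / 4))) * B.d n ^ (-(t + ε / 4))) :=
            mul_le_mul_of_nonneg_left (mul_le_mul_of_nonneg_right k1 (dp _).le) (dp _).le
        _ = Kn n * (B.d n ^ (-(ε / 4)) * B.d n ^ (-(c₀ + ε / 4)) * B.d n ^ (-(t + ε / 4))) := by
            ring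
        _ = _ := by
            rw [← dpow_add, ← dpow_add]
            congr 2
            ring
    exact le_of_mul_le_mul_left b4 hKn
  have h1 := card_le_image_mul F (cls (I' n) (nlab B I0 co M C n p) x)
    (nlab B I0 co M C n (p ⊔ rc)) (filter_subset _ _) (dp _).le key
  have h2 := a5 p hp (p ⊔ rc) hsup le_sup_left x hxI
  calc (F.card : ℝ) ≤ _ := h1
    _ ≤ B.d n ^ (-(ν p - ν (p ⊔ rc) + ε / 4)) * B.d n ^ (-(c₀ + t + 3 * (ε / 4))) :=
        mul_le_mul_of_nonneg_right h2 (dp _).le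
    _ = _ := by
        rw [← dpow_add]
        congr 1
        ring

end gen

end Crest.Agent.R116.Nar192
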