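import Crest.Agent.R116.Nar1_192
import Crest.Agent.R136.Qg2_926

/-!
# R116 (S0155), K side, [NARROW] (helper192), part 2: strips of the windows

`NsG W A Bk Φ Ok q C0 R0` : no strip `{j : |Φ θ (crd i j A) (crd i j Bk) - u| ≤ ρ ^ t}`,
`Ok (ρ ^ (-ε)) θ`, of the class is heavy (`Φ θ a b = θ.1 a + θ.2 b` gives 107's `NsW`, `Φ θ a b = θ.1 a + θ.2 (b + g a ^ 2)` the curved
form).  `nsG_of_stages` : from the strips of the sample at the base points `x l`, scales `h l`.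
-/

set_option autoImplicit false
set_option linter.unusedVariables false
set_option linter.unusedSectionVars false

open Finset Filter Topology

namespace Crest.Agent.R116.Nar192

open Crest.Agent.R138.Ex926
open Crest.Agent.R138.Dp76 (dpow_pos dpow_add dpow_le)
open Crest.Agent.R136.Net191
open Crest.Agent.R136.Qg926

open Classical in
/-- **no strip of the class is heavy**, general functional, free constant; the parameters
`θ` with `Ok D θ`, `D = ρ ^ (-ε)` -/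
def NsG {m : ℕ} {ι : ℕ → Type*} [∀ n, DecidableEq (ι n)] {Θ : Type*} (W : Wnd m ι) (A Bk : Fin m)
    (Φ : Θ → ℝ → ℝ → ℝ) (Ok : ℝ → Θ → Prop) (q C0 R0 : ℝ) : Prop :=
  ∀ t : ℝ, 0 < t → t ≤ R0 → ∀ ε : ℝ, 0 < ε → ∀ᶠ n in (U : Filter ℕ), ∀ i ∈ W.Cl n,
    ∀ θ, Ok (W.B'.d n ^ (-ε)) θ → ∀ u : ℝ,
      (((W.Cl n).filter fun j =>
        |Φ θ (W.crd n i j A) (W.crd n i j Bk) - u| ≤ W.B'.d n ^ t).card : ℝ) ≤
        W.B'.d n ^ (q * t - C0 * ε) * (W.Cl n).card

/-- the normalised functional at the exponents `p` -/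
noncomputable def SfN {m : ℕ} {ι : Type*} {Θ : Type*} (co : ι → ι → Fin m → ℝ) (A Bk : Fin m)
    (Φ : Θ → ℝ → ℝ → ℝ) (κA κB d : ℝ) (p : Fin m → ℝ) (θ : Θ) (x j : ι) : ℝ :=
  Φ θ (co x j A / (κA * d ^ p A)) (co x j Bk / (κB * d ^ p Bk))

open Classical in
/-- strips of width `d ^ y` of the classes of exponents `p` of the sample -/
def StrB {m : ℕ} {ι : ℕ → Type*} [∀ n, DecidableEq (ι n)] {Θ : Type*} (B : Base)
    (I0 I' : ∀ n, Finset (ι n)) (co : ∀ n, ι n → ι n → Fin m → ℝ) (M : Mons m) (C : ℝ)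
    (A Bk : Fin m) (Φ : Θ → ℝ → ℝ → ℝ) (Ok : ℝ → Θ → Prop) (κA κB : ℝ) (p : Fin m → ℝ)
    (y z v : ℝ) : Prop :=
  ∀ ε : ℝ, 0 < ε → ∀ᶠ n in (U : Filter ℕ), ∀ x ∈ I' n, ∀ θ, Ok (B.d n ^ (-z)) θ → ∀ u : ℝ,
    (((cls (I' n) (nlab B I0 co M C n p) x).filter fun j =>
      |SfN (co n) A Bk Φ κA κB (B.d n) p θ x j - u| ≤ B.d n ^ y).card : ℝ) ≤
      B.d n ^ (-(v + ε))

section

variable {m : ℕ} {ι : ℕ → Type*} [∀ n, DecidableEq (ι n)] {Θ : Type*} {B : Base}
  {I0 I' : ∀ n, Finset (ι n)} {co : ∀ n, ι n → ι n → Fin m → ℝ} {M : Mons m} {C : ℝ}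
  {A Bk : Fin m} {Φ : Θ → ℝ → ℝ → ℝ} {Ok : ℝ → Θ → Prop} {κA κB : ℝ}
  {x : ℕ → Fin m → ℝ} {h loss : ℕ → ℝ} {ν : (Fin m → ℝ) → ℝ}

set_option maxHeartbeats 1000000 in
open Classical in
/-- **strips of the windows** -/
theorem nsG_of_stages {q C1 R0 : ℝ} (hq : 0 ≤ q) (hC1 : 0 ≤ C1) (hR0 : 0 < R0)
    (hh : ∀ l, 0 < h l) (hOk : ∀ D D' : ℝ, D ≤ D' → ∀ θ, Ok D θ → Ok D' θ)
    (hloss : ∀ ε : ℝ, 0 < ε → ∀ᶠ l in (atTop : Filter ℕ), loss l ≤ ε * h l)
    (hS : ∀ᶠ l in (atTop : Filter ℕ), ∀ y : ℝ, 0 < y → y ≤ R0 * h l → ∀ z : ℝ, 0 < z →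
      z ≤ R0 * h l →
      StrB B I0 I' co M C A Bk Φ Ok κA κB (x l) y z (ν (x l) + loss l - q * y + C1 * z)) :
    ∃ k : ℕ → ℕ, Tendsto k U atTop ∧ ∀ k' : ℕ → ℕ, Tendsto k' U atTop →
      (∀ᶠ n in (U : Filter ℕ), k' n ≤ k n) → ∀ W : Wnd m ι, W.Ok → W.I = I0 → W.J = I' →
        W.B = B → W.co = co → W.M = M → W.C = C → (∀ n, W.X n = x (k' n)) →
        (∀ n, W.B'.d n = B.d n ^ h (k' n)) → W.kap A = κA → W.kap Bk = κB →
        (∀ ε : ℝ, 0 < ε → ∀ᶠ n in (U : Filter ℕ),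
          B.d n ^ (-ν (x (k' n))) * W.B'.d n ^ ε ≤ ((W.Cl n).card : ℝ)) →
        NsG W A Bk Φ Ok q (C1 + q + 1) R0 := by
  classical
  -- the grid
  set g : ℕ → ℕ → ℝ := fun l i => ((i : ℝ) + 1) / ((l : ℝ) + 1) * (R0 * h l) with hg
  have hg0 : ∀ l i, 0 < g l i := fun l i => by
    have := hh l
    simp only [hg]; positivity
  have hg1 : ∀ l i, i ≤ l → g l i ≤ R0 * h l := fun l i hi => by
    have h1 : ((i : ℝ) + 1) / ((l : ℝ) + 1) ≤ 1 := by
      rw [div_le_one (by positivity)]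
      have : (i : ℝ) ≤ l := by exact_mod_cast hi
      linarith
    have h2 : 0 ≤ R0 * h l := mul_nonneg hR0.le (hh l).le
    simp only [hg]
    nlinarith
  obtain ⟨k, hk, hk2⟩ := exists_diag (fun l n =>
    (∀ y : ℝ, 0 < y → y ≤ R0 * h l → ∀ z : ℝ, 0 < z → z ≤ R0 * h l →
      StrB B I0 I' co M C A Bk Φ Ok κA κB (x l) y z (ν (x l) + loss l - q * y + C1 * z)) →
    ∀ i ≤ l, ∀ i' ≤ l, ∀ x' ∈ I' n, ∀ θ, Ok (B.d n ^ (-g l i')) θ → ∀ u : ℝ,
    (((cls (I' n) (nlab B I0 co M C n (x l)) x').filter fun j =>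
      |SfN (co n) A Bk Φ κA κB (B.d n) (x l) θ x' j - u| ≤ B.d n ^ g l i).card : ℝ) ≤
      B.d n ^ (-(ν (x l) + loss l - q * g l i + C1 * g l i' + h l / ((l : ℝ) + 1)))) (by
    intro l
    by_cases hl : ∀ y : ℝ, 0 < y → y ≤ R0 * h l → ∀ z : ℝ, 0 < z → z ≤ R0 * h l →
      StrB B I0 I' co M C A Bk Φ Ok κA κB (x l) y z (ν (x l) + loss l - q * y + C1 * z)
    · have h1 : ∀ᶠ n in (U : Filter ℕ), ∀ i ∈ Finset.range (l + 1), ∀ i' ∈ Finset.range (l + 1),
          ∀ x' ∈ I' n, ∀ θ, Ok (B.d n ^ (-g l i')) θ →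
          ∀ u : ℝ, (((cls (I' n) (nlab B I0 co M C n (x l)) x').filter fun j =>
          |SfN (co n) A Bk Φ κA κB (B.d n) (x l) θ x' j - u| ≤ B.d n ^ g l i).card : ℝ) ≤
          B.d n ^ (-(ν (x l) + loss l - q * g l i + C1 * g l i' + h l / ((l : ℝ) + 1))) := by
        rw [Filter.eventually_all_finset]
        intro i hi
        rw [Filter.eventually_all_finset]
        intro i' hi2
        have hi' : i ≤ l := by
          have := Finset.mem_range.1 hi
          omega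
        have hi2' : i' ≤ l := by
          have := Finset.mem_range.1 hi2
          omega
        exact hl (g l i) (hg0 l i) (hg1 l i hi') (g l i') (hg0 l i') (hg1 l i' hi2')
          (h l / ((l : ℝ) + 1)) (div_pos (hh l) (by positivity))
      filter_upwards [h1] with n hn _ i hi i' hi2
      exact hn i (Finset.mem_range.2 (by omega)) i' (Finset.mem_range.2 (by omega))
    · exact Eventually.of_forall fun n hn => absurd hn hl)
  refine ⟨k, hk, fun k' hk' hle W hW hI hJ hB hco hM hC hX hd' hkA hkB hbig => ?_⟩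
  subst hI hJ hB hco hM hC hkA hkB
  intro t ht htR ε hε
  have hinv : Tendsto (fun l : ℕ => 1 / ((l : ℝ) + 1)) atTop (𝓝 0) :=
    tendsto_one_div_add_atTop_nhds_zero_nat
  set δ : ℝ := ε / 5 with hδ
  have hδ0 : 0 < δ := by positivity
  -- large `l`
  have hA : ∀ᶠ l in (atTop : Filter ℕ), loss l ≤ δ * h l := hloss δ hδ0
  have hBl : ∀ᶠ l : ℕ in (atTop : Filter ℕ), 1 / ((l : ℝ) + 1) ≤ δ :=
    (hinv.eventually (gt_mem_nhds hδ0)).mono fun l hl => hl.le
  have hCl : ∀ᶠ l : ℕ in (atTop : Filter ℕ), (q * R0) * (1 / ((l : ℝ) + 1)) ≤ δ := by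
    have h1 : Tendsto (fun l : ℕ => (q * R0) * (1 / ((l : ℝ) + 1))) atTop (𝓝 0) := by
      simpa using hinv.const_mul (q * R0)
    exact (h1.eventually (gt_mem_nhds hδ0)).mono fun l hl => hl.le
  have hDl : ∀ᶠ l : ℕ in (atTop : Filter ℕ), (C1 * R0) * (1 / ((l : ℝ) + 1)) ≤ δ := by
    have h1 : Tendsto (fun l : ℕ => (C1 * R0) * (1 / ((l : ℝ) + 1))) atTop (𝓝 0) := by
      simpa using hinv.const_mul (C1 * R0)
    exact (h1.eventually (gt_mem_nhds hδ0)).mono fun l hl => hl.le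
  filter_upwards [hk2, hle, hk'.eventually hS, hk'.eventually hA, hk'.eventually hBl,
    hk'.eventually hCl, hbig δ hδ0, hW.ev_good, hW.cls.csub, hk'.eventually hDl] with
    n h1 h2 h3 h4 h5 h6 h7 good hcs h6' i hi θ hθ u
  set l := k' n with hl
  have hpos : ∀ a : ℝ, 0 < W.B.d n ^ a := fun a => Real.rpow_pos_of_pos (W.B.pos n) a
  have hpos' : ∀ a : ℝ, 0 < W.B'.d n ^ a := fun a => Real.rpow_pos_of_pos (W.B'.pos n) a
  have hcard : (0 : ℝ) ≤ (W.Cl n).card := Nat.cast_nonneg _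
  have hlp : (0 : ℝ) < (l : ℝ) + 1 := by positivity
  have hhl := hh l
  have htriv : q * t - (C1 + q + 1) * ε ≤ 0 → (((W.Cl n).filter fun j =>
        |Φ θ (W.crd n i j A) (W.crd n i j Bk) - u| ≤ W.B'.d n ^ t).card : ℝ) ≤
        W.B'.d n ^ (q * t - (C1 + q + 1) * ε) * (W.Cl n).card := fun e2 => by
    have e4 : (1 : ℝ) ≤ W.B'.d n ^ (q * t - (C1 + q + 1) * ε) :=
      Real.one_le_rpow_of_pos_of_le_one_of_nonpos (W.B'.pos n) (W.B'.lt n).le e2
    have e5 : (((W.Cl n).filter fun j =>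
        |Φ θ (W.crd n i j A) (W.crd n i j Bk) - u| ≤ W.B'.d n ^ t).card : ℝ) ≤ (W.Cl n).card := by
      exact_mod_cast card_filter_le _ _
    nlinarith
  by_cases hcase : t * ((l : ℝ) + 1) / R0 < 1
  · -- trivial range
    refine htriv ?_
    have e1 : t ≤ R0 * (1 / ((l : ℝ) + 1)) := by
      rw [div_lt_one hR0] at hcase
      rw [mul_one_div, le_div_iff₀ hlp]
      exact hcase.le
    have := mul_le_mul_of_nonneg_left e1 hq
    have e3 : q * (R0 * (1 / ((l : ℝ) + 1))) = (q * R0) * (1 / ((l : ℝ) + 1)) := by ring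
    rw [e3] at this
    nlinarith [mul_nonneg hC1 hε.le, mul_nonneg hq hε.le]
  by_cases hcase2 : R0 ≤ ε
  · refine htriv ?_
    nlinarith [mul_nonneg hC1 hε.le, mul_nonneg hq hε.le,
      mul_le_mul_of_nonneg_left (htR.trans hcase2) hq]
  · push Not at hcase hcase2
    -- the grid point above `ε`
    set N' : ℕ := ⌊ε * ((l : ℝ) + 1) / R0⌋₊ with hN'
    have hN'le : (N' : ℝ) ≤ ε * ((l : ℝ) + 1) / R0 := Nat.floor_le (by positivity)
    have hN'ge : ε * ((l : ℝ) + 1) / R0 < (N' : ℝ) + 1 := Nat.lt_floor_add_one _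
    have hN'l : N' ≤ l := by
      have h8 : ε * ((l : ℝ) + 1) / R0 < (l : ℝ) + 1 := by
        rw [div_lt_iff₀ hR0]
        nlinarith
      have : (N' : ℝ) < ((l + 1 : ℕ) : ℝ) := by push_cast; exact hN'le.trans_lt h8
      have : N' < l + 1 := by exact_mod_cast this
      omega
    have z1 : ε * h l ≤ g l N' := by
      simp only [hg]
      have : ε ≤ ((N' : ℝ) + 1) / ((l : ℝ) + 1) * R0 := by
        rw [div_mul_eq_mul_div, le_div_iff₀ hlp]
        rw [div_lt_iff₀ hR0] at hN'ge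
        linarith
      calc ε * h l ≤ (((N' : ℝ) + 1) / ((l : ℝ) + 1) * R0) * h l :=
            mul_le_mul_of_nonneg_right this hhl.le
        _ = _ := by ring
    have z2 : g l N' ≤ ε * h l + R0 * (1 / ((l : ℝ) + 1)) * h l := by
      simp only [hg]
      have : ((N' : ℝ) + 1) / ((l : ℝ) + 1) * R0 ≤ ε + R0 * (1 / ((l : ℝ) + 1)) := by
        rw [div_mul_eq_mul_div, div_le_iff₀ hlp]
        rw [le_div_iff₀ hR0] at hN'le
        have e9 : (ε + R0 * (1 / ((l : ℝ) + 1))) * ((l : ℝ) + 1) = ε * ((l : ℝ) + 1) + R0 := by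
          field_simp
        rw [e9]
        linarith
      calc ((N' : ℝ) + 1) / ((l : ℝ) + 1) * (R0 * h l) =
            (((N' : ℝ) + 1) / ((l : ℝ) + 1) * R0) * h l := by ring
        _ ≤ (ε + R0 * (1 / ((l : ℝ) + 1))) * h l := mul_le_mul_of_nonneg_right this hhl.le
        _ = _ := by ring
    have hθ' : Ok (W.B.d n ^ (-g l N')) θ := by
      refine hOk _ _ ?_ θ hθ
      rw [hd' n, ← Real.rpow_mul (W.B.pos n).le]
      refine Real.rpow_le_rpow_of_exponent_ge (W.B.pos n) (W.B.lt n).le ?_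
      linarith
    -- the grid point below `t`
    set N : ℕ := ⌊t * ((l : ℝ) + 1) / R0⌋₊ with hN
    have hN1 : 1 ≤ N := Nat.le_floor (by exact_mod_cast hcase)
    have hNle : (N : ℝ) ≤ t * ((l : ℝ) + 1) / R0 := Nat.floor_le (by positivity)
    have hNge : t * ((l : ℝ) + 1) / R0 < (N : ℝ) + 1 := Nat.lt_floor_add_one _
    have hNl : N ≤ l + 1 := by
      have h8 : t * ((l : ℝ) + 1) / R0 ≤ (l : ℝ) + 1 := by
        rw [div_le_iff₀ hR0]
        nlinarith
      have : (N : ℝ) ≤ ((l + 1 : ℕ) : ℝ) := by push_cast; exact hNle.trans h8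
      exact_mod_cast this
    have hil : N - 1 ≤ l := by omega
    have hNc : (((N - 1 : ℕ) : ℝ) + 1) = N := by
      rw [Nat.cast_sub hN1]; push_cast; ring
    have hgN : g l (N - 1) = (N : ℝ) / ((l : ℝ) + 1) * (R0 * h l) := by
      simp only [hg]; rw [hNc]
    have y1 : g l (N - 1) ≤ t * h l := by
      rw [hgN]
      have : (N : ℝ) / ((l : ℝ) + 1) * R0 ≤ t := by
        rw [div_mul_eq_mul_div, div_le_iff₀ hlp]
        rw [le_div_iff₀ hR0] at hNle
        linarith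
      calc (N : ℝ) / ((l : ℝ) + 1) * (R0 * h l) = ((N : ℝ) / ((l : ℝ) + 1) * R0) * h l := by ring
        _ ≤ t * h l := mul_le_mul_of_nonneg_right this hhl.le
    have y2 : t * h l - R0 * (1 / ((l : ℝ) + 1)) * h l ≤ g l (N - 1) := by
      rw [hgN]
      have : t - R0 * (1 / ((l : ℝ) + 1)) ≤ (N : ℝ) / ((l : ℝ) + 1) * R0 := by
        rw [div_mul_eq_mul_div, le_div_iff₀ hlp]
        rw [div_lt_iff₀ hR0] at hNge
        have e9 : (t - R0 * (1 / ((l : ℝ) + 1))) * ((l : ℝ) + 1) = t * ((l : ℝ) + 1) - R0 := by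
          field_simp
        rw [e9]
        linarith
      calc t * h l - R0 * (1 / ((l : ℝ) + 1)) * h l = (t - R0 * (1 / ((l : ℝ) + 1))) * h l := by
            ring
        _ ≤ ((N : ℝ) / ((l : ℝ) + 1) * R0) * h l := mul_le_mul_of_nonneg_right this hhl.le
        _ = _ := by ring
    have hst := h1 l h2 h3 (N - 1) hil N' hN'l i (hcs hi) θ hθ' u
    -- the class is in one class of the sample
    have hsub : ((W.Cl n).filter fun j =>
        |Φ θ (W.crd n i j A) (W.crd n i j Bk) - u| ≤ W.B'.d n ^ t) ⊆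
        (cls (W.J n) (nlab W.B W.I W.co W.M W.C n (x l)) i).filter fun j =>
          |SfN (W.co n) A Bk Φ (W.kap A) (W.kap Bk) (W.B.d n) (x l) θ i j - u| ≤
            W.B.d n ^ g l (N - 1) := by
      intro j hj
      obtain ⟨j1, j2⟩ := mem_filter.1 hj
      have hlab := good.lab0 j j1 i hi
      have e0 : W.X n + W.w n • (0 : Fin m → ℝ) = x l := by rw [smul_zero, add_zero, hX]
      have hlab' : nlab W.B W.I W.co W.M W.C n (x l) j = nlab W.B W.I W.co W.M W.C n (x l) i := by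
        have : nlab W.B W.I W.co W.M W.C n (W.X n + W.w n • (0 : Fin m → ℝ)) j =
          nlab W.B W.I W.co W.M W.C n (W.X n + W.w n • (0 : Fin m → ℝ)) i := hlab
        rwa [e0] at this
      refine mem_filter.2 ⟨mem_cls.2 ⟨hcs j1, hlab'⟩, ?_⟩
      have e1 : SfN (W.co n) A Bk Φ (W.kap A) (W.kap Bk) (W.B.d n) (x l) θ i j =
          Φ θ (W.crd n i j A) (W.crd n i j Bk) := by
        unfold SfN Wnd.crd
        rw [hX]
      rw [e1]
      refine j2.trans ?_
      rw [hd' n, ← Real.rpow_mul (W.B.pos n).le]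
      refine Real.rpow_le_rpow_of_exponent_ge (W.B.pos n) (W.B.lt n).le ?_
      rw [mul_comm]
      exact y1
    have hbg := h7
    have hle1 : (((W.Cl n).filter fun j =>
        |Φ θ (W.crd n i j A) (W.crd n i j Bk) - u| ≤ W.B'.d n ^ t).card : ℝ) ≤
        W.B.d n ^ (-(ν (x l) + loss l - q * g l (N - 1) + C1 * g l N' + h l / ((l : ℝ) + 1))) :=
      le_trans (by exact_mod_cast card_le_card hsub) hst
    refine hle1.trans ?_
    have hrp : ∀ a : ℝ, W.B'.d n ^ a = W.B.d n ^ (h l * a) := fun a => by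
      rw [hd' n, ← Real.rpow_mul (W.B.pos n).le]
    calc W.B.d n ^ (-(ν (x l) + loss l - q * g l (N - 1) + C1 * g l N' + h l / ((l : ℝ) + 1)))
        ≤ W.B.d n ^ (h l * (q * t - (C1 + q + 1) * ε)) *
            (W.B.d n ^ (-ν (x l)) * W.B.d n ^ (h l * δ)) := by
          rw [← Real.rpow_add (W.B.pos n), ← Real.rpow_add (W.B.pos n)]
          refine Real.rpow_le_rpow_of_exponent_ge (W.B.pos n) (W.B.lt n).le ?_
          have w1 := mul_le_mul_of_nonneg_left y2 hq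
          have w2 : q * (t * h l - R0 * (1 / ((l : ℝ) + 1)) * h l) =
              q * t * h l - ((q * R0) * (1 / ((l : ℝ) + 1))) * h l := by ring
          rw [w2] at w1
          have w3 := mul_le_mul_of_nonneg_right h6 hhl.le
          have w4 : h l / ((l : ℝ) + 1) = (1 / ((l : ℝ) + 1)) * h l := by ring
          have w5 := mul_le_mul_of_nonneg_right h5 hhl.le
          have w6 := mul_le_mul_of_nonneg_left z2 hC1
          have w7 : C1 * (ε * h l + R0 * (1 / ((l : ℝ) + 1)) * h l) =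
              C1 * ε * h l + ((C1 * R0) * (1 / ((l : ℝ) + 1))) * h l := by ring
          rw [w7] at w6
          have w8 := mul_le_mul_of_nonneg_right h6' hhl.le
          rw [w4]
          have w9 : 0 ≤ q * ε * h l := by positivity
          have w10 : ε = 5 * δ := by rw [hδ]; ring
          have w11 : h l * (q * t - (C1 + q + 1) * ε) = q * t * h l - C1 * ε * h l -
              q * ε * h l - 5 * (δ * h l) := by
            have : h l * (q * t - (C1 + q + 1) * ε) = q * t * h l - C1 * ε * h l -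
              q * ε * h l - ε * h l := by ring
            rw [this]
            rw [← mul_assoc, ← w10]
          rw [w11]
          have w12 : h l * δ = δ * h l := mul_comm _ _
          rw [w12]
          linarith
      _ = W.B'.d n ^ (q * t - (C1 + q + 1) * ε) * (W.B.d n ^ (-ν (x l)) * W.B'.d n ^ δ) := by
          rw [hrp, hrp]
      _ ≤ W.B'.d n ^ (q * t - (C1 + q + 1) * ε) * (W.Cl n).card :=
          mul_le_mul_of_nonneg_left hbg (hpos' _).le

end

end Crest.Agent.R116.Nar192
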