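import Crest.Agent.R116.Nar2_192
import Crest.Agent.R116.Sd2_369
import Crest.Agent.R136.NSt1_107

/-!
# R116 (S0155), K side, [NARROW] (helper192), part 3: the light chart

* `N0c` : plain D-max at the record box `rc`, seen from a member.
* `N1c` : the input = count of the strips at the record box for D-max on the family (222's Gt1):
  functional `e1 C + e2 (P + g C ^ 2)`, flag of the fixed incidence `x`, base `y0` in the class `pc`
  of `x`; `Gm = 0` linear, `Gm = 1` curved.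
* `strB_light` : `N1c` at the record box `rc` ⊢ strips of the classes `p` of the sample.
-/

set_option autoImplicit false
set_option linter.unusedVariables false
set_option linter.unusedSectionVars false

open Finset Filter Topology

namespace Crest.Agent.R116.Nar192

open Crest.Agent.R138.Ex926
open Crest.Agent.R138.Dp76 (dpow_pos dpow_add dpow_le)
open Crest.Agent.R136.Net191
open Crest.Agent.R136.Qg926
open Crest.Agent.R136.Lq196
open Crest.Agent.R116.ChL222
open Crest.Agent.R116.PL504 (uL cN coN)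
open Crest.Agent.R116.EvL504
open Crest.Agent.R116.LZg725
open Crest.Agent.R116.Gd222 (Vf NearS TSet)

/-- parameters `(e1, e2, g)` of a (curved) strip -/
abbrev Par3 := ℝ × ℝ × ℝ

/-- `e1 a + e2 (b + g a ^ 2)` -/
def Phi3 (θ : Par3) (a b : ℝ) : ℝ := θ.1 * a + θ.2.1 * (b + θ.2.2 * a ^ 2)

/-- unit vectors, curvature at most `Gm D` -/
def Ok3 (Gm D : ℝ) (θ : Par3) : Prop := θ.1 ^ 2 + θ.2.1 ^ 2 = 1 ∧ |θ.2.2| ≤ Gm * D

open Classical in
/-- **plain D-max at the box `rc`**, seen from a member -/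
def N0c (B : Base) (I : ℕ → Finset (ℕ × ℝ)) (co : ∀ n : ℕ, ℕ × ℝ → ℕ × ℝ → Fin 12 → ℝ)
    (N0 : ℕ → ℝ) (rc : Fin 12 → ℝ) (t : ℝ) : Prop :=
  ∀ K : ℝ, 1 ≤ K → ∀ ε : ℝ, 0 < ε → ∀ᶠ n in (U : Filter ℕ), ∀ y0 ∈ I n,
      (((I n).filter fun j => ∀ k, Vf k → |co n y0 j k| ≤ K * B.d n ^ rc k).card : ℝ) ≤
        N0 n * B.d n ^ (-(t + ε))

open Classical in
/-- **D-max for tilted (and curved) members at the box `rc`**, slots `sC`, `10`, seen from the
members `y0` of the class `pc` of `x`, with the flag of `x` -/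
def N1c (B : Base) (I : ℕ → Finset (ℕ × ℝ)) (co : ∀ n : ℕ, ℕ × ℝ → ℕ × ℝ → Fin 12 → ℝ)
    (N0 : ℕ → ℝ) (pc rc : Fin 12 → ℝ) (sC : Fin 12) (Gm y z t : ℝ) : Prop :=
  ∀ K : ℝ, 1 ≤ K → ∀ ε : ℝ, 0 < ε → ∀ᶠ n in (U : Filter ℕ), ∀ x ∈ I n, ∀ y0 ∈ I n,
    Near (co n) (B.d n) pc K x y0 → ∀ e1 e2 g : ℝ,
      1 ≤ K * (e1 ^ 2 + e2 ^ 2) → e1 ^ 2 + e2 ^ 2 ≤ K → |g| ≤ Gm * (K * B.d n ^ (-z)) →
      (((I n).filter fun j => (∀ k, Vf k → |co n y0 j k| ≤ K * B.d n ^ rc k) ∧
        |e1 * (co n y0 j sC / B.d n ^ rc sC) +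
          e2 * ((co n x j 10 - co n x y0 10) / B.d n ^ rc 10 +
            g * (co n y0 j sC / B.d n ^ rc sC) ^ 2)| ≤ K * B.d n ^ y).card : ℝ) ≤
        N0 n * B.d n ^ (-(t + ε))

/-- algebra of the re-centring of the functional -/
theorem phi3_diff {e1 e2 g κA κB dA dB cj c0 cc Pj P0 : ℝ} (hκA : 0 < κA) (hκB : 0 < κB)
    (hdA : 0 < dA) (hdB : 0 < dB) (hc : cj = c0 + cc) :
    Phi3 (e1, e2, g) (cj / (κA * dA)) (Pj / (κB * dB)) -
      Phi3 (e1, e2, g) (c0 / (κA * dA)) (P0 / (κB * dB)) =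
      (e1 / κA + e2 / κB * (2 * (g * κB / κA ^ 2) * (c0 / dA))) * (cc / dA) +
        (e2 / κB) * ((Pj - P0) / dB + (g * κB / κA ^ 2) * (cc / dA) ^ 2) := by
  unfold Phi3
  rw [hc]
  field_simp
  ring

/-- size of the re-centred functional -/
theorem e_low {e1 e2 m κA κB M : ℝ} (hκA : 0 < κA) (hκB : 0 < κB)
    (he : e1 ^ 2 + e2 ^ 2 = 1) (hm : |m| ≤ M) :
    1 ≤ (κA + κA * M + κB) * Real.sqrt ((e1 / κA + e2 / κB * m) ^ 2 + (e2 / κB) ^ 2) := by
  set a := e1 / κA + e2 / κB * m with ha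
  set b := e2 / κB with hb
  have eb : e2 = κB * b := by rw [hb]; field_simp
  have ea : e1 = κA * (a - b * m) := by rw [ha]; field_simp; ring
  have hM : 0 ≤ M := (abs_nonneg m).trans hm
  set N := Real.sqrt (a ^ 2 + b ^ 2) with hN
  have hN0 : 0 ≤ N := Real.sqrt_nonneg _
  have h1 : |a| ≤ N := Real.abs_le_sqrt (by nlinarith [sq_nonneg b])
  have h2 : |b| ≤ N := Real.abs_le_sqrt (by nlinarith [sq_nonneg a])
  have h3 : 1 ≤ |e1| + |e2| := by
    have e1' := sq_abs e1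
    have e2' := sq_abs e2
    nlinarith [abs_nonneg e1, abs_nonneg e2, mul_nonneg (abs_nonneg e1) (abs_nonneg e2)]
  have h4 : |e1| ≤ κA * N + κA * M * N := by
    rw [ea, abs_mul, abs_of_pos hκA]
    have h5 : |a - b * m| ≤ N + N * M := by
      calc |a - b * m| ≤ |a| + |b * m| := abs_sub _ _
        _ = |a| + |b| * |m| := by rw [abs_mul]
        _ ≤ N + N * M := add_le_add h1 (mul_le_mul h2 hm (abs_nonneg _) hN0)
    calc κA * |a - b * m| ≤ κA * (N + N * M) := mul_le_mul_of_nonneg_left h5 hκA.le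
      _ = _ := by ring
  have h6 : |e2| ≤ κB * N := by
    rw [eb, abs_mul, abs_of_pos hκB]
    exact mul_le_mul_of_nonneg_left h2 hκB.le
  calc (1:ℝ) ≤ |e1| + |e2| := h3
    _ ≤ (κA * N + κA * M * N) + κB * N := add_le_add h4 h6
    _ = _ := by ring

section light

variable {B : Base} {I0 I' : ℕ → Finset (ℕ × ℝ)} {lev : ℕ → ℚ → ℕ} {w : Fin 2 → ℕ → ℚ → ℝ}
    {w0 sa sb : ℝ} {fl : ℕ → ℕ × ℝ → LInc} {C R w0' s s' : ℝ} {kz : Fin 12}
    {PD : Set (Fin 12 → ℝ)} {D : (Fin 12 → ℝ) → ℝ} {r o : ℝ → Fin 12 → ℝ} {E : ℝ → ℝ}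
    {T : Fin 12 → Prop} {ν own : (Fin 12 → ℝ) → ℝ} {c₀ : ℝ} {N0 : ℕ → ℝ}

/-- differences of the slots `3`, `4`, `10` along a fine step -/
theorem co_step {a c : Fin 12 → ℝ} {K d0 : ℝ} (hK : 1 ≤ K) (hd0 : 0 ≤ d0) (hd1 : d0 ≤ 1)
    (ha : ∀ k, |a k| ≤ K) (hc : ∀ k, |c k| ≤ K * d0) :
    |comp a c 3 - a 3| ≤ 20 * K ^ 3 * d0 ∧ |comp a c 4 - a 4| ≤ 20 * K ^ 3 * d0 ∧
      |comp a c 10 - a 10| ≤ 20 * K ^ 3 * d0 := by
  have hK0 : 0 ≤ K := by linarith
  have k2 : K ≤ K ^ 2 := by nlinarith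
  have k3 : K ^ 2 ≤ K ^ 3 := by nlinarith [sq_nonneg K]
  have m1 : ∀ k, |c k| ≤ K ^ 3 * d0 := fun k =>
    (hc k).trans (mul_le_mul_of_nonneg_right (k2.trans k3) hd0)
  have m2 : ∀ i k, |a i * c k| ≤ K ^ 3 * d0 := fun i k => by
    rw [abs_mul]
    calc |a i| * |c k| ≤ K * (K * d0) := mul_le_mul (ha i) (hc k) (abs_nonneg _) hK0
      _ = K ^ 2 * d0 := by ring
      _ ≤ K ^ 3 * d0 := mul_le_mul_of_nonneg_right k3 hd0
  have m3 : ∀ i k l, |a i * (c k * c l)| ≤ K ^ 3 * d0 := fun i k l => by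
    rw [abs_mul, abs_mul]
    calc |a i| * (|c k| * |c l|) ≤ K * ((K * d0) * (K * d0)) :=
          mul_le_mul (ha i) (mul_le_mul (hc k) (hc l) (abs_nonneg _) (mul_nonneg hK0 hd0))
            (mul_nonneg (abs_nonneg _) (abs_nonneg _)) hK0
      _ = K ^ 3 * (d0 * d0) := by ring
      _ ≤ K ^ 3 * d0 := mul_le_mul_of_nonneg_left (by nlinarith) (by positivity)
  have hp : 0 ≤ K ^ 3 * d0 := by positivity
  refine ⟨?_, ?_, ?_⟩
  · have e : comp a c 3 - a 3 = c 3 := by show a 3 + c 3 - a 3 = c 3; ring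
    rw [e, mul_assoc]; linarith [m1 3]
  · have e : comp a c 4 - a 4 = c 4 := by show a 4 + c 4 - a 4 = c 4; ring
    rw [e, mul_assoc]; linarith [m1 4]
  · have e : comp a c 10 - a 10 = c 10 - a 7 * c 3 - a 8 * c 4 - 1 / 2 * (a 2 * (c 3 * c 3)) -
        1 / 2 * (a 2 * (c 4 * c 4)) - 2 * (a 1 * (c 5 * c 3)) - 2 * (a 1 * (c 6 * c 4)) +
        2 * (a 1 * c 9) := by
      show a 10 + c 10 - a 7 * c 3 - a 8 * c 4 - a 2 * ((c 3 ^ 2 + c 4 ^ 2) / 2) -
        2 * (a 1 * (c 5 * c 3 + c 6 * c 4 - c 9)) - a 10 = _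
      ring
    rw [e, mul_assoc]
    have t1 := abs_le.1 (m1 10)
    have t2 := abs_le.1 (m2 7 3)
    have t3 := abs_le.1 (m2 8 4)
    have t4 := abs_le.1 (m3 2 3 3)
    have t5 := abs_le.1 (m3 2 4 4)
    have t6 := abs_le.1 (m3 1 5 3)
    have t7 := abs_le.1 (m3 1 6 4)
    have t8 := abs_le.1 (m2 1 9)
    rw [abs_le]
    constructor <;> linarith [t1.1, t1.2, t2.1, t2.2, t3.1, t3.2, t4.1, t4.2, t5.1, t5.2, t6.1,
      t6.2, t7.1, t7.2, t8.1, t8.2]

set_option maxHeartbeats 1000000 in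
open Classical in
/-- **strips of the classes of the sample**, light chart -/
theorem strB_light
    (hx : ExtQ B I0 I' (coN B lev w w0 sa sb fl) monL C R kz w0' s PD D r o E T ν own c₀)
    (hR : 0 ≤ R) (hc : CombQ B I0 I' lev (coN B lev w w0 sa sb fl) monL C R N0 c₀)
    {sC : Fin 12} (hsC : sC = 3 ∨ sC = 4) {κA κB Gm : ℝ} (hκA : 0 < κA) (hκB : 0 < κB)
    (hGm : 0 ≤ Gm) {p rc : Fin 12 → ℝ} (hp : p ∈ Leg monL R) (hrc : rc ∈ Leg monL R)
    (hC : p sC = rc sC) (hP : p 10 = rc 10) {q y z t0 t : ℝ}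
    (hq : 0 ≤ q) (hy : 0 ≤ y) (hz : 0 ≤ z) (ht0 : t0 ≤ t)
    (hyC : p sC + (y + z) ≤ R) (hyP : p 10 + (y + z) ≤ R)
    (h0 : N0c B I0 (coN B lev w w0 sa sb fl) N0 rc t0)
    (h1 : ∀ y', 0 < y' → y' ≤ y →
      N1c B I0 (coN B lev w w0 sa sb fl) N0 p rc sC Gm y' z (t - q * y')) :
    StrB B I0 I' (coN B lev w w0 sa sb fl) monL C sC 10 Phi3 (Ok3 Gm) κA κB p y z
      (ν p - ν (p ⊔ rc) + c₀ + (t - q * y + q * z)) := by
  intro ε hε
  have hcoc := Crest.Agent.R116.Sd369.coc_N B lev w w0 sa sb fl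
  have key := strip_p (Θ := Par3) (Ok := fun n => Ok3 Gm (B.d n ^ (-z)))
    (Sf := fun n θ x j => SfN (coN B lev w w0 sa sb fl n) sC 10 Phi3 κA κB (B.d n) p θ x j)
    hx hR hc Vf hp hrc (y := y) (t := t - q * y + q * z) ?_ ?_ 1 le_rfl ε hε
  · filter_upwards [key] with n hn x hxn θ hθ u
    have := hn x hxn θ hθ u
    rw [one_mul] at this
    exact this
  · -- Lipschitz at the top
    intro K hK
    set K' : ℝ := (20 * K ^ 3 / κA + 20 * K ^ 3 / κB +
      Gm * (20 * K ^ 3 / κA) * ((20 * K ^ 3 + 2 * K) / κA)) + 1 with hK'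
    have hK0 : 0 ≤ K := by linarith
    have hsum : 0 ≤ 20 * K ^ 3 / κA + 20 * K ^ 3 / κB +
      Gm * (20 * K ^ 3 / κA) * ((20 * K ^ 3 + 2 * K) / κA) := by positivity
    refine ⟨K', by rw [hK']; linarith, fun n θ hθ x hxn j hj l hl hxj hjl => ?_⟩
    have hd := B.pos n
    have hd1 := (B.lt n).le
    have dp := fun a => dpow_pos B n a
    obtain ⟨hθ1, hθ2⟩ := hθ
    obtain ⟨e1, e2, g⟩ := θ
    simp only at hθ1 hθ2
    have he1 : |e1| ≤ 1 := abs_le_one_iff_mul_self_le_one.2 (by nlinarith [sq_nonneg e2])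
    have he2 : |e2| ≤ 1 := abs_le_one_iff_mul_self_le_one.2 (by nlinarith [sq_nonneg e1])
    set a := coN B lev w w0 sa sb fl n x j with ha
    set c := coN B lev w w0 sa sb fl n j l with hcd
    have hadd : coN B lev w w0 sa sb fl n x l = comp a c := (hcoc n).add x j l
    have hdR0 : 0 ≤ B.d n ^ R := (dp R).le
    have hdR1 : B.d n ^ R ≤ 1 := Real.rpow_le_one hd.le hd1 hR
    have ha1 : ∀ k, |a k| ≤ K := fun k => by
      refine (hxj k).trans ?_
      calc K * B.d n ^ p k ≤ K * 1 :=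
            mul_le_mul_of_nonneg_left (Real.rpow_le_one hd.le hd1 (hp.1.nonneg k)) hK0
        _ = K := mul_one K
    obtain ⟨s3, s4, s10⟩ := co_step hK hdR0 hdR1 ha1 hjl
    have hsC' : |comp a c sC - a sC| ≤ 20 * K ^ 3 * B.d n ^ R := by
      rcases hsC with rfl | rfl
      · exact s3
      · exact s4
    -- normalised differences
    have f0 : B.d n ^ R / B.d n ^ p sC ≤ B.d n ^ (y + z) := by
      rw [div_le_iff₀ (dp _), ← dpow_add]
      exact dpow_le B n (by linarith)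
    have fyz : B.d n ^ (y + z) ≤ B.d n ^ y := dpow_le B n (by linarith)
    have f2 : B.d n ^ R / B.d n ^ p 10 ≤ B.d n ^ y := by
      rw [div_le_iff₀ (dp _), ← dpow_add]
      exact dpow_le B n (by linarith)
    have q0 : |(comp a c sC - a sC) / (κA * B.d n ^ p sC)| ≤ 20 * K ^ 3 / κA * B.d n ^ (y + z) := by
      rw [abs_div, abs_of_pos (mul_pos hκA (dp _))]
      calc |comp a c sC - a sC| / (κA * B.d n ^ p sC)
          ≤ (20 * K ^ 3 * B.d n ^ R) / (κA * B.d n ^ p sC) :=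
            div_le_div_of_nonneg_right hsC' (mul_pos hκA (dp _)).le
        _ = 20 * K ^ 3 / κA * (B.d n ^ R / B.d n ^ p sC) := by
            have := (dp (p sC)).ne'
            field_simp
        _ ≤ _ := mul_le_mul_of_nonneg_left f0 (by positivity)
    have q1 : |(comp a c sC - a sC) / (κA * B.d n ^ p sC)| ≤ 20 * K ^ 3 / κA * B.d n ^ y :=
      q0.trans (mul_le_mul_of_nonneg_left fyz (by positivity))
    have q2 : |(comp a c 10 - a 10) / (κB * B.d n ^ p 10)| ≤ 20 * K ^ 3 / κB * B.d n ^ y := by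
      rw [abs_div, abs_of_pos (mul_pos hκB (dp _))]
      calc |comp a c 10 - a 10| / (κB * B.d n ^ p 10)
          ≤ (20 * K ^ 3 * B.d n ^ R) / (κB * B.d n ^ p 10) :=
            div_le_div_of_nonneg_right s10 (mul_pos hκB (dp _)).le
        _ = 20 * K ^ 3 / κB * (B.d n ^ R / B.d n ^ p 10) := by
            have := (dp (p 10)).ne'
            field_simp
        _ ≤ _ := mul_le_mul_of_nonneg_left f2 (by positivity)
    have hyle : B.d n ^ y ≤ 1 := Real.rpow_le_one hd.le hd1 hy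
    have q3 : |a sC / (κA * B.d n ^ p sC)| ≤ K / κA := by
      rw [abs_div, abs_of_pos (mul_pos hκA (dp _)), div_le_div_iff₀ (mul_pos hκA (dp _)) hκA]
      have := hxj sC
      calc |a sC| * κA ≤ (K * B.d n ^ p sC) * κA := mul_le_mul_of_nonneg_right this hκA.le
        _ = K * (κA * B.d n ^ p sC) := by ring
    set X := a sC / (κA * B.d n ^ p sC) with hX
    set dX := (comp a c sC - a sC) / (κA * B.d n ^ p sC) with hdX
    set dY := (comp a c 10 - a 10) / (κB * B.d n ^ p 10) with hdY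
    have e0 : SfN (coN B lev w w0 sa sb fl n) sC 10 Phi3 κA κB (B.d n) p (e1, e2, g) x l -
        SfN (coN B lev w w0 sa sb fl n) sC 10 Phi3 κA κB (B.d n) p (e1, e2, g) x j =
        e1 * dX + e2 * dY + e2 * (g * (dX * (dX + 2 * X))) := by
      unfold SfN Phi3
      rw [hadd, hdX, hdY, hX]
      have h1 := hκA.ne'
      have h2 := hκB.ne'
      have h3 := (dp (p sC)).ne'
      have h4 := (dp (p 10)).ne'
      simp only
      field_simp
      ring
    show |SfN (coN B lev w w0 sa sb fl n) sC 10 Phi3 κA κB (B.d n) p (e1, e2, g) x l -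
        SfN (coN B lev w w0 sa sb fl n) sC 10 Phi3 κA κB (B.d n) p (e1, e2, g) x j| ≤ _
    rw [e0]
    have r1 : |e1 * dX| ≤ 20 * K ^ 3 / κA * B.d n ^ y := by
      rw [abs_mul]
      calc |e1| * |dX| ≤ 1 * (20 * K ^ 3 / κA * B.d n ^ y) :=
            mul_le_mul he1 q1 (abs_nonneg _) zero_le_one
        _ = _ := one_mul _
    have r2 : |e2 * dY| ≤ 20 * K ^ 3 / κB * B.d n ^ y := by
      rw [abs_mul]
      calc |e2| * |dY| ≤ 1 * (20 * K ^ 3 / κB * B.d n ^ y) :=
            mul_le_mul he2 q2 (abs_nonneg _) zero_le_one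
        _ = _ := one_mul _
    have r3 : |dX + 2 * X| ≤ (20 * K ^ 3 + 2 * K) / κA := by
      calc |dX + 2 * X| ≤ |dX| + |2 * X| := abs_add_le _ _
        _ ≤ 20 * K ^ 3 / κA * B.d n ^ y + 2 * (K / κA) := by
            refine add_le_add q1 ?_
            rw [abs_mul, abs_of_pos (by norm_num : (0:ℝ) < 2)]
            linarith
        _ ≤ 20 * K ^ 3 / κA * 1 + 2 * (K / κA) := by
            have : 0 ≤ 20 * K ^ 3 / κA := by positivity
            nlinarith
        _ = _ := by ring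
    have r4 : |e2 * (g * (dX * (dX + 2 * X)))| ≤
        Gm * (20 * K ^ 3 / κA) * ((20 * K ^ 3 + 2 * K) / κA) * B.d n ^ y := by
      rw [abs_mul, abs_mul, abs_mul]
      have u1 : |dX| * |dX + 2 * X| ≤
          (20 * K ^ 3 / κA * B.d n ^ (y + z)) * ((20 * K ^ 3 + 2 * K) / κA) :=
        mul_le_mul q0 r3 (abs_nonneg _) (by positivity)
      have u2 : |g| * (|dX| * |dX + 2 * X|) ≤ (Gm * B.d n ^ (-z)) *
          ((20 * K ^ 3 / κA * B.d n ^ (y + z)) * ((20 * K ^ 3 + 2 * K) / κA)) :=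
        mul_le_mul hθ2 u1 (mul_nonneg (abs_nonneg _) (abs_nonneg _))
          (mul_nonneg hGm (dp _).le)
      calc |e2| * (|g| * (|dX| * |dX + 2 * X|)) ≤
            1 * ((Gm * B.d n ^ (-z)) *
              ((20 * K ^ 3 / κA * B.d n ^ (y + z)) * ((20 * K ^ 3 + 2 * K) / κA))) :=
            mul_le_mul he2 u2 (mul_nonneg (abs_nonneg _)
              (mul_nonneg (abs_nonneg _) (abs_nonneg _))) zero_le_one
        _ = Gm * (20 * K ^ 3 / κA) * ((20 * K ^ 3 + 2 * K) / κA) *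
              (B.d n ^ (-z) * B.d n ^ (y + z)) := by ring
        _ = _ := by rw [← dpow_add]; congr 2; ring
    have e9 : K' * B.d n ^ y = 20 * K ^ 3 / κA * B.d n ^ y + 20 * K ^ 3 / κB * B.d n ^ y +
        Gm * (20 * K ^ 3 / κA) * ((20 * K ^ 3 + 2 * K) / κA) * B.d n ^ y + B.d n ^ y := by
      rw [hK']; ring
    rw [e9]
    have hyp := (dp y).le
    calc |e1 * dX + e2 * dY + e2 * (g * (dX * (dX + 2 * X)))|
        ≤ |e1 * dX| + |e2 * dY| + |e2 * (g * (dX * (dX + 2 * X)))| := abs_add_three _ _ _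
      _ ≤ _ := by linarith
  · -- the count at the record box
    intro K hK ε' hε'
    set M0 : ℝ := 2 * (Gm * κB / κA ^ 2) * K with hM0
    have hK0 : 0 ≤ K := by linarith
    have hM00 : 0 ≤ M0 := by rw [hM0]; positivity
    set K2 : ℝ := κA + κA * M0 + κB with hK2
    have hK20 : 0 ≤ K2 := by rw [hK2]; positivity
    set K1 : ℝ := K + K * K2 + κB / κA ^ 2 with hK1
    have z2 : 0 ≤ K * K2 := by positivity
    have z3 : 0 ≤ κB / κA ^ 2 := by positivity
    have hK11 : 1 ≤ K1 := by rw [hK1]; linarith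
    have hKK1 : K ≤ K1 := by rw [hK1]; linarith
    have hKK2 : K * K2 ≤ K1 := by rw [hK1]; linarith
    rcases le_or_gt y z with hyz | hyz
    · -- trivial range
      filter_upwards [h0 K hK ε' hε'] with n hn θ hθ x hxn y0 hy0 hnear
      have dp := fun a => dpow_pos B n a
      have b4 := hn y0 hy0
      have hN0 : (0:ℝ) ≤ N0 n * B.d n ^ (-(t0 + ε')) := le_trans (Nat.cast_nonneg _) b4
      have hN00 : 0 ≤ N0 n := nonneg_of_mul_nonneg_left hN0 (dp _)
      have b5 : N0 n * B.d n ^ (-(t0 + ε')) ≤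
          N0 n * B.d n ^ (-(t - q * y + q * z + ε')) :=
        mul_le_mul_of_nonneg_left (dpow_le B n (by nlinarith)) hN00
      refine le_trans (le_trans ?_ b4) b5
      refine Nat.cast_le.2 (card_le_card fun j hj => ?_)
      have hj' : j ∈ (I0 n).filter fun j => (∀ k, Vf k → |coN B lev w w0 sa sb fl n y0 j k| ≤
          K * B.d n ^ rc k) ∧ |SfN (coN B lev w w0 sa sb fl n) sC 10 Phi3 κA κB (B.d n) p θ x j -
          SfN (coN B lev w w0 sa sb fl n) sC 10 Phi3 κA κB (B.d n) p θ x y0| ≤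
          K * B.d n ^ y := by
        convert hj
      obtain ⟨j1, j2, j3⟩ := mem_filter.1 hj'
      exact mem_filter.2 ⟨j1, j2⟩
    · filter_upwards [h1 (y - z) (by linarith) (by linarith) K1 hK11 ε' hε'] with
        n hn θ hθ x hxn y0 hy0 hnear
      have hd := B.pos n
      have hd1 := (B.lt n).le
      have dp := fun a => dpow_pos B n a
      obtain ⟨hθ1, hθ2⟩ := hθ
      obtain ⟨e1, e2, g⟩ := θ
      simp only at hθ1 hθ2
      set cf := coN B lev w w0 sa sb fl n with hcf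
      set m : ℝ := 2 * (g * κB / κA ^ 2) * (cf x y0 sC / B.d n ^ rc sC) with hm
      have hz1 : 1 ≤ B.d n ^ (-z) :=
        Real.one_le_rpow_of_pos_of_le_one_of_nonpos hd hd1 (by linarith)
      have hmM : |m| ≤ M0 * B.d n ^ (-z) := by
        have v1 : |cf x y0 sC / B.d n ^ rc sC| ≤ K := by
          rw [abs_div, abs_of_pos (dp _), div_le_iff₀ (dp _), ← hC]
          exact hnear sC
        have v2 : |2 * (g * κB / κA ^ 2)| ≤ 2 * (Gm * κB / κA ^ 2) * B.d n ^ (-z) := by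
          rw [abs_mul, abs_div, abs_mul, abs_of_pos (by norm_num : (0:ℝ) < 2), abs_of_pos hκB,
            abs_of_pos (pow_pos hκA 2), mul_assoc]
          refine mul_le_mul_of_nonneg_left ?_ (by norm_num)
          calc |g| * κB / κA ^ 2 ≤ (Gm * B.d n ^ (-z)) * κB / κA ^ 2 :=
                div_le_div_of_nonneg_right (mul_le_mul_of_nonneg_right hθ2 hκB.le)
                  (pow_pos hκA 2).le
            _ = _ := by ring
        rw [hm, abs_mul, hM0]
        calc |2 * (g * κB / κA ^ 2)| * |cf x y0 sC / B.d n ^ rc sC| ≤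
              (2 * (Gm * κB / κA ^ 2) * B.d n ^ (-z)) * K :=
              mul_le_mul v2 v1 (abs_nonneg _) (by positivity)
          _ = _ := by ring
      have b1 := e_low (e1 := e1) (e2 := e2) (m := m) hκA hκB hθ1 hmM
      set N := Real.sqrt ((e1 / κA + e2 / κB * m) ^ 2 + (e2 / κB) ^ 2) with hN
      have hNn : 0 ≤ N := Real.sqrt_nonneg _
      have b2 : 1 ≤ K2 * B.d n ^ (-z) * N := by
        refine b1.trans (mul_le_mul_of_nonneg_right ?_ hNn)
        rw [hK2]
        nlinarith [mul_nonneg hκA.le hM00]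
      have hN0 : 0 < N := by
        rcases hNn.lt_or_eq with h | h
        · exact h
        · rw [← h, mul_zero] at b2; linarith
      have hN2 : N ^ 2 = (e1 / κA + e2 / κB * m) ^ 2 + (e2 / κB) ^ 2 :=
        Real.sq_sqrt (by positivity)
      set E1 := (e1 / κA + e2 / κB * m) / N with hE1
      set E2 := (e2 / κB) / N with hE2
      have hE : E1 ^ 2 + E2 ^ 2 = 1 := by
        rw [hE1, hE2, div_pow, div_pow, ← add_div, ← hN2]
        exact div_self (pow_pos hN0 2).ne'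
      have b3 : |g * κB / κA ^ 2| ≤ Gm * (K1 * B.d n ^ (-z)) := by
        rw [abs_div, abs_mul, abs_of_pos hκB, abs_of_pos (pow_pos hκA 2)]
        calc |g| * κB / κA ^ 2 ≤ (Gm * B.d n ^ (-z)) * κB / κA ^ 2 :=
              div_le_div_of_nonneg_right (mul_le_mul_of_nonneg_right hθ2 hκB.le)
                (pow_pos hκA 2).le
          _ = Gm * ((κB / κA ^ 2) * B.d n ^ (-z)) := by ring
          _ ≤ _ := mul_le_mul_of_nonneg_left (mul_le_mul_of_nonneg_right
              (by rw [hK1]; linarith) (dp _).le) hGm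
      have b4 := hn x hxn y0 hy0 (fun k => (hnear k).trans
        (mul_le_mul_of_nonneg_right hKK1 (dp _).le)) E1 E2
        (g * κB / κA ^ 2) (by rw [hE]; linarith) (by rw [hE]; linarith) b3
      have e00 : t - q * (y - z) = t - q * y + q * z := by ring
      rw [e00] at b4
      refine le_trans ?_ b4
      refine Nat.cast_le.2 (card_le_card fun j hj => ?_)
      have hj' : j ∈ (I0 n).filter fun j => (∀ k, Vf k → |cf y0 j k| ≤ K * B.d n ^ rc k) ∧
          |SfN cf sC 10 Phi3 κA κB (B.d n) p (e1, e2, g) x j -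
            SfN cf sC 10 Phi3 κA κB (B.d n) p (e1, e2, g) x y0| ≤ K * B.d n ^ y := by
        convert hj
      obtain ⟨j1, j2, j3⟩ := mem_filter.1 hj'
      refine mem_filter.2 ⟨j1, fun k hk => (j2 k hk).trans
        (mul_le_mul_of_nonneg_right hKK1 (dp _).le), ?_⟩
      have hadd : cf x j = comp (cf x y0) (cf y0 j) := (hcoc n).add x y0 j
      have hcadd : cf x j sC = cf x y0 sC + cf y0 j sC := by
        rw [hadd]
        rcases hsC with rfl | rfl <;> rfl
      have e0 := phi3_diff (e1 := e1) (e2 := e2) (g := g) (κA := κA) (κB := κB)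
        (dA := B.d n ^ p sC) (dB := B.d n ^ p 10) (cj := cf x j sC) (c0 := cf x y0 sC)
        (cc := cf y0 j sC) (Pj := cf x j 10) (P0 := cf x y0 10) hκA hκB (dp _) (dp _) hcadd
      unfold SfN at j3
      rw [e0, hC, hP, ← hm] at j3
      have e3 : E1 * (cf y0 j sC / B.d n ^ rc sC) + E2 * ((cf x j 10 - cf x y0 10) /
          B.d n ^ rc 10 + g * κB / κA ^ 2 * (cf y0 j sC / B.d n ^ rc sC) ^ 2) =
          ((e1 / κA + e2 / κB * m) * (cf y0 j sC / B.d n ^ rc sC) +
            e2 / κB * ((cf x j 10 - cf x y0 10) / B.d n ^ rc 10 +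
              g * κB / κA ^ 2 * (cf y0 j sC / B.d n ^ rc sC) ^ 2)) / N := by
        rw [hE1, hE2]; ring
      rw [e3, abs_div, abs_of_pos hN0, div_le_iff₀ hN0]
      refine j3.trans ?_
      have e4 : B.d n ^ y = B.d n ^ (y - z) * B.d n ^ z := by
        rw [← dpow_add]; congr 1; ring
      have e5 : B.d n ^ z ≤ K2 * N := by
        have h6 := mul_le_mul_of_nonneg_left b2 (dp z).le
        have h7 : B.d n ^ z * (K2 * B.d n ^ (-z) * N) = K2 * N := by
          have : B.d n ^ z * B.d n ^ (-z) = 1 := by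
            rw [← dpow_add, add_neg_cancel, Real.rpow_zero]
          calc B.d n ^ z * (K2 * B.d n ^ (-z) * N) =
                (B.d n ^ z * B.d n ^ (-z)) * (K2 * N) := by ring
            _ = _ := by rw [this, one_mul]
        rw [h7, mul_one] at h6
        exact h6
      rw [e4]
      calc K * (B.d n ^ (y - z) * B.d n ^ z) ≤ K * (B.d n ^ (y - z) * (K2 * N)) :=
            mul_le_mul_of_nonneg_left (mul_le_mul_of_nonneg_left e5 (dp _).le) hK0
        _ = (K * K2) * B.d n ^ (y - z) * N := by ring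
        _ ≤ K1 * B.d n ^ (y - z) * N :=
            mul_le_mul_of_nonneg_right (mul_le_mul_of_nonneg_right hKK2 (dp _).le) hNn

end light

end Crest.Agent.R116.Nar192
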