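import Crest.Agent.R136.Gr2_356

/-!
# R116, [NARROW] (helper863), part 1: strips of a fan, uniform constant

`AddP` : additivity of two slots at one height along the small boxes `pC t` (the slots need not be
additive in the whole class: a live flag only tilts the strip).
`fan_strip` : 366's lemma with `AddP` in place of `AddC` and with one constant for all widths.
-/

set_option autoImplicit false
set_option linter.unusedVariables false
set_option linter.unusedSectionVars false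

open Filter Topology Finset

namespace Crest.Agent.R116.Nar863

open Crest.Agent.R138.Ex926 (Base U)
open Crest.Agent.R136.Gf356

variable {κ : Type} {B : Base} {G : ℕ → RCfg κ} {Leg : Set (κ → ℝ)} {ν : (κ → ℝ) → ℝ}
  {σ R D : ℝ}

open Classical in
/-- **no heavy strips** of the pair of slots `(cA, cB)` in the boxes `p0`, rate `q` (366) -/
def NoStr (B : Base) (G : ℕ → RCfg κ) (p0 : κ → ℝ) (cA cB : κ) (ν : (κ → ℝ) → ℝ) (q R0 : ℝ) :
    Prop :=
  ∃ K : ℝ, 0 ≤ K ∧ ∀ t : ℝ, 0 < t → t ≤ R0 → ∀ ε : ℝ, 0 < ε → ∀ᶠ n in (U : Filter ℕ),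
    ∀ i k, (i, k) ∈ (G n).I → ∀ b : Fin 2 → ℝ, b 0 ^ 2 + b 1 ^ 2 = 1 →
    ((((G n).box p0 ε i k).filter fun l =>
      |b 0 * (G n).rel k i l cA + b 1 * (G n).rel k i l cB| ≤ B.d n ^ (t - ε)).card : ℝ) ≤
      B.d n ^ (-(ν p0) + q * t - K * ε)

theorem unit_le {b : Fin 2 → ℝ} (h : b 0 ^ 2 + b 1 ^ 2 = 1) : |b 0| ≤ 1 ∧ |b 1| ≤ 1 := by
  constructor
  · rw [← sq_le_one_iff_abs_le_one]; nlinarith [sq_nonneg (b 1)]
  · rw [← sq_le_one_iff_abs_le_one]; nlinarith [sq_nonneg (b 0)]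

/-- a box around a centre, seen from any of its points (366) -/
theorem box_pair (H : RUnif B G Leg ν D) (p : κ → ℝ) (hp : p ∈ Leg) {ε : ℝ} (hε : 0 < ε) :
    ∀ᶠ n in (U : Filter ℕ), ∀ k i₀ i i', (i₀, k) ∈ (G n).I → i ∈ (G n).box p ε i₀ k →
      i' ∈ (G n).box p ε i₀ k → (G n).loose p (D ^ 2 * ε) k i i' := by
  have hD := H.D1
  have hD0 : 0 < D := by linarith
  filter_upwards [H.symm p hp ε hε, H.tri p hp (D * ε) (by positivity)] with n hs ht
    k i₀ i i' h0 hi hi'
  obtain ⟨a1, a2⟩ := RCfg.mem_box.1 hi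
  obtain ⟨b1, b2⟩ := RCfg.mem_box.1 hi'
  have hI := H.memSlice.1 a1
  have hI' := H.memSlice.1 b1
  have c1 := hs k i₀ i h0 hI a2
  have c2 : (G n).loose p (D * ε) k i₀ i' := H.loose_mono (fun _ => le_rfl) (by nlinarith) b2
  have c3 := ht k i i₀ i' hI h0 hI' c1 c2
  have e1 : D * (D * ε) = D ^ 2 * ε := by ring
  rwa [e1] at c3

/-- absorbing a constant and a power into a larger loss (366) -/
theorem absorb (B : Base) {n : ℕ} {K s t : ℝ} (h : K ≤ B.d n ^ (-(s - t))) :
    K * B.d n ^ s ≤ B.d n ^ t := by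
  have e : B.d n ^ t = B.d n ^ (-(s - t)) * B.d n ^ s := by
    rw [← rpow_add']; congr 1; ring
  rw [e]
  exact mul_le_mul_of_nonneg_right h (rpos B n _).le

/-- additivity of the two slots at one height when the second step is in a box `pC t`, error
`d^(t - Ca ε)` -/
def AddP (B : Base) (G : ℕ → RCfg κ) (p0 : κ → ℝ) (pC : ℝ → κ → ℝ) (cA cB : κ) (Ca R0 : ℝ) :
    Prop :=
  ∀ t : ℝ, 0 < t → t ≤ R0 → ∀ ε : ℝ, 0 < ε → ∀ᶠ n in (U : Filter ℕ), ∀ k i l m,
    (i, k) ∈ (G n).I → (l, k) ∈ (G n).I →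
    (m, k) ∈ (G n).I → (G n).loose p0 ε k i l → (G n).loose (pC t) ε k l m →
    |(G n).rel k i m cA - ((G n).rel k i l cA + (G n).rel k l m cA)| ≤ B.d n ^ (t - Ca * ε) ∧
    |(G n).rel k i m cB - ((G n).rel k i l cB + (G n).rel k l m cB)| ≤ B.d n ^ (t - Ca * ε)

open Classical in
set_option maxHeartbeats 800000 in
/-- **class strips ⊢ fan strips** : `p0` = class, `pC` = class with the two slots at `t`, `pF` = fan,
`pFC` = fan with the two slots at `t`; the number of `(cA, cB)`-cells is the same. -/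
theorem fan_strip (H : RUnif B G Leg ν D) {p0 pF : κ → ℝ} {pCf pFCf : ℝ → κ → ℝ} {cA cB : κ}
    {q R0 Ca : ℝ} (h0 : p0 ∈ Leg) (hF : pF ∈ Leg) (h0F : ∀ s, p0 s ≤ pF s) (hCa : 0 < Ca)
    (hC' : ∀ t, 0 < t → t ≤ R0 → pCf t ∈ Leg) (hFC' : ∀ t, 0 < t → t ≤ R0 → pFCf t ∈ Leg)
    (h0C' : ∀ t, 0 < t → t ≤ R0 → ∀ s, p0 s ≤ pCf t s)
    (hcA' : ∀ t, 0 < t → t ≤ R0 → t ≤ pCf t cA) (hcB' : ∀ t, 0 < t → t ≤ R0 → t ≤ pCf t cB)
    (hmax' : ∀ t, 0 < t → t ≤ R0 → ∀ s, pFCf t s ≤ max (pCf t s) (pF s))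
    (hN : NoStr B G p0 cA cB ν q R0) (hadd' : AddP B G p0 pCf cA cB Ca R0)
    (hprod' : ∀ t, 0 < t → t ≤ R0 → ν p0 - ν (pCf t) ≤ ν pF - ν (pFCf t)) :
    ∃ K : ℝ, 0 ≤ K ∧ ∀ t : ℝ, 0 < t → t ≤ R0 → ∀ ε : ℝ, 0 < ε → ∀ᶠ n in (U : Filter ℕ),
      ∀ i k, (i, k) ∈ (G n).I → ∀ b : Fin 2 → ℝ, b 0 ^ 2 + b 1 ^ 2 = 1 →
      ((((G n).box pF ε i k).filter fun l =>
        |b 0 * (G n).rel k i l cA + b 1 * (G n).rel k i l cB| ≤ B.d n ^ (t - ε)).card : ℝ) ≤
        B.d n ^ (-(ν pF) + q * t - K * ε) := by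
  have hD := H.D1
  have hD0 : 0 < D := by linarith
  obtain ⟨K, hK, hN⟩ := hN
  -- constants
  set C : ℝ := D ^ 2 + Ca * D + Ca + 4 with hCdef
  have hC0 : 0 < C := by positivity
  refine ⟨K * C + D * (D ^ 5 + D ^ 2) + 1, by positivity, fun t ht0 htR ε hε => ?_⟩
  have hC := hC' t ht0 htR
  have hFC := hFC' t ht0 htR
  have h0C := h0C' t ht0 htR
  have hcA := hcA' t ht0 htR
  have hcB := hcB' t ht0 htR
  have hmax := hmax' t ht0 htR
  have hadd := hadd' t ht0 htR
  have hprod := hprod' t ht0 htR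
  set pC := pCf t with hpC
  set pFC := pFCf t with hpFC
  have ht : 0 ≤ t := ht0.le
  have hCε : 0 < C * ε := by positivity
  have hDε : 0 < D * ε := by positivity
  filter_upwards [hN t ht0 htR (C * ε) hCε, H.exists_lab pC hC hε, hadd (D * ε) hDε,
    H.tri p0 h0 (D * ε) hDε, box_pair H pF hF hε, H.up pFC hFC ((D ^ 5 + D ^ 2) * ε) (by positivity),
    ev_const_le B hε 5] with n hNn hlab haddn htri hpair hup h5 i k hik b hb
  have hpow : ∀ t : ℝ, 0 < B.d n ^ t := fun t => rpos B n t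
  set S := ((G n).box pF ε i k).filter fun l =>
    |b 0 * (G n).rel k i l cA + b 1 * (G n).rel k i l cB| ≤ B.d n ^ (t - ε) with hS
  set P := ((G n).box p0 (C * ε) i k).filter fun l =>
    |b 0 * (G n).rel k i l cA + b 1 * (G n).rel k i l cB| ≤ B.d n ^ (t - C * ε) with hP
  have hSI : ∀ l ∈ S, (l, k) ∈ (G n).I ∧ (G n).loose pF ε k i l ∧
      |b 0 * (G n).rel k i l cA + b 1 * (G n).rel k i l cB| ≤ B.d n ^ (t - ε) := by
    intro l hl
    rw [hS, mem_filter, RCfg.mem_box] at hl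
    exact ⟨H.memSlice.1 hl.1.1, hl.1.2, hl.2⟩
  obtain ⟨hb0, hb1⟩ := unit_le hb
  have hεD : ε ≤ D * ε := by nlinarith
  have hWP : ∀ l ∈ S, (G n).box pC ε l k ⊆ P := by
    intro l hl m hm
    obtain ⟨hlI, hl1, hl2⟩ := hSI l hl
    obtain ⟨hm1, hm2⟩ := RCfg.mem_box.1 hm
    have hmI := H.memSlice.1 hm1
    have a1 : (G n).loose p0 (D * ε) k i l := H.loose_mono h0F hεD hl1
    have a2 : (G n).loose p0 (D * ε) k l m := H.loose_mono h0C hεD hm2
    have a3 := htri k i l m hik hlI hmI a1 a2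
    obtain ⟨a4, a5⟩ := haddn k i l m hik hlI hmI a1
      (H.loose_mono (fun _ => le_rfl) hεD hm2)
    rw [hP, mem_filter, RCfg.mem_box]
    refine ⟨⟨hm1, H.loose_mono (fun _ => le_rfl) ?_ a3⟩, ?_⟩
    · have e1 : D * (D * ε) = D ^ 2 * ε := by ring
      rw [e1, hCdef]
      have : 0 ≤ (Ca * D + Ca + 4) * ε := by positivity
      nlinarith
    · have cA' := hm2 cA
      have cB' := hm2 cB
      rw [H.base n] at cA' cB'
      set e := B.d n ^ (t - (Ca * D + 1) * ε) with he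
      have he0 : 0 < e := hpow _
      have k1 : B.d n ^ (pC cA - ε) ≤ e := rpow_anti B n (by
        have : 0 ≤ Ca * D * ε := by positivity
        nlinarith)
      have k2 : B.d n ^ (pC cB - ε) ≤ e := rpow_anti B n (by
        have : 0 ≤ Ca * D * ε := by positivity
        nlinarith)
      have k3 : B.d n ^ (t - Ca * (D * ε)) ≤ e := rpow_anti B n (by nlinarith)
      have k4 : B.d n ^ (t - ε) ≤ e := rpow_anti B n (by
        have : 0 ≤ Ca * D * ε := by positivity
        nlinarith)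
      have m1 : |b 0 * (G n).rel k i m cA + b 1 * (G n).rel k i m cB| ≤ 5 * e := by
        have e1 : b 0 * (G n).rel k i m cA + b 1 * (G n).rel k i m cB =
            (b 0 * (G n).rel k i l cA + b 1 * (G n).rel k i l cB) +
            b 0 * (G n).rel k l m cA + b 1 * (G n).rel k l m cB +
            b 0 * ((G n).rel k i m cA - ((G n).rel k i l cA + (G n).rel k l m cA)) +
            b 1 * ((G n).rel k i m cB - ((G n).rel k i l cB + (G n).rel k l m cB)) := by ring
        have f1 : |b 0 * (G n).rel k l m cA| ≤ e := by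
          rw [abs_mul]
          calc |b 0| * |(G n).rel k l m cA| ≤ 1 * e :=
                mul_le_mul hb0 (cA'.trans k1) (abs_nonneg _) zero_le_one
            _ = e := one_mul _
        have f2 : |b 1 * (G n).rel k l m cB| ≤ e := by
          rw [abs_mul]
          calc |b 1| * |(G n).rel k l m cB| ≤ 1 * e :=
                mul_le_mul hb1 (cB'.trans k2) (abs_nonneg _) zero_le_one
            _ = e := one_mul _
        have f3 : |b 0 * ((G n).rel k i m cA - ((G n).rel k i l cA + (G n).rel k l m cA))| ≤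
            e := by
          rw [abs_mul]
          calc |b 0| * _ ≤ 1 * e :=
                mul_le_mul hb0 (a4.trans k3) (abs_nonneg _) zero_le_one
            _ = e := one_mul _
        have f4 : |b 1 * ((G n).rel k i m cB - ((G n).rel k i l cB + (G n).rel k l m cB))| ≤
            e := by
          rw [abs_mul]
          calc |b 1| * _ ≤ 1 * e :=
                mul_le_mul hb1 (a5.trans k3) (abs_nonneg _) zero_le_one
            _ = e := one_mul _
        have f0 := hl2.trans k4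
        rw [e1]
        have n0 := abs_le.1 f0
        have n1 := abs_le.1 f1
        have n2 := abs_le.1 f2
        have n3 := abs_le.1 f3
        have n4 := abs_le.1 f4
        rw [abs_le]
        constructor <;> linarith [n0.1, n0.2, n1.1, n1.2, n2.1, n2.2, n3.1, n3.2, n4.1, n4.2]
      refine m1.trans (absorb B ?_)
      refine h5.trans (rpow_anti B n ?_)
      rw [hCdef]
      have : 0 ≤ (D ^ 2 + Ca + 2) * ε := by positivity
      nlinarith
  have hSsl : S ⊆ (G n).slice k := fun l hl => H.memSlice.2 (hSI l hl).1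
  obtain ⟨lab, hlab1, hlab2⟩ := hlab k S hSsl P hWP
  have hPc := hNn i k hik b hb
  -- fibres of the labels
  have hfib : ∀ c ∈ S.image lab, ((S.filter fun l => lab l = c).card : ℝ) ≤
      B.d n ^ (-ν pFC - D * ((D ^ 5 + D ^ 2) * ε)) := by
    intro c hc
    obtain ⟨l0, hl0, rfl⟩ := mem_image.1 hc
    refine le_trans ?_ (hup l0 k (hSI l0 hl0).1)
    refine mod_cast card_le_card ?_
    intro l hl
    rw [mem_filter] at hl
    obtain ⟨hlS, hll⟩ := hl
    refine RCfg.mem_box.2 ⟨hSsl hlS, ?_⟩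
    have a1 := hlab1 l0 hl0 l hlS hll.symm
    have a2 : (G n).loose pF (D ^ 2 * ε) k l0 l := hpair k i l0 l hik
      (RCfg.mem_box.2 ⟨hSsl hl0, (hSI l0 hl0).2.1⟩) (RCfg.mem_box.2 ⟨hSsl hlS, (hSI l hlS).2.1⟩)
    intro s
    have hms := hmax s
    have hp5 : 0 ≤ D ^ 5 * ε := by positivity
    have hp2 : 0 ≤ D ^ 2 * ε := by positivity
    have hsum : (D ^ 5 + D ^ 2) * ε = D ^ 5 * ε + D ^ 2 * ε := by ring
    have b2 := a2 s
    have b1 := a1 s
    rw [H.base n] at b1 b2 ⊢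
    rcases le_total (pC s) (pF s) with h | h
    · rw [max_eq_right h] at hms
      exact b2.trans (rpow_anti B n (by linarith))
    · rw [max_eq_left h] at hms
      exact b1.trans (rpow_anti B n (by linarith))
  have hcount : (S.card : ℝ) ≤ ((S.image lab).card : ℝ) *
      B.d n ^ (-ν pFC - D * ((D ^ 5 + D ^ 2) * ε)) := by
    have e1 : (S.card : ℝ) = ∑ c ∈ S.image lab, ((S.filter fun l => lab l = c).card : ℝ) := by
      have := card_eq_sum_card_image lab S
      exact_mod_cast this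
    rw [e1, ← nsmul_eq_mul, ← sum_const]
    exact sum_le_sum hfib
  calc (S.card : ℝ) ≤ ((S.image lab).card : ℝ) * B.d n ^ (-ν pFC - D * ((D ^ 5 + D ^ 2) * ε)) :=
        hcount
    _ ≤ ((P.card : ℝ) * B.d n ^ (ν pC - ε)) * B.d n ^ (-ν pFC - D * ((D ^ 5 + D ^ 2) * ε)) :=
        mul_le_mul_of_nonneg_right hlab2 (hpow _).le
    _ ≤ (B.d n ^ (-(ν p0) + q * t - K * (C * ε)) * B.d n ^ (ν pC - ε)) *
          B.d n ^ (-ν pFC - D * ((D ^ 5 + D ^ 2) * ε)) := by
        refine mul_le_mul_of_nonneg_right ?_ (hpow _).le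
        exact mul_le_mul_of_nonneg_right hPc (hpow _).le
    _ = B.d n ^ (-(ν p0) + ν pC - ν pFC + q * t -
          (K * C + D * (D ^ 5 + D ^ 2) + 1) * ε) := by
        rw [← rpow_add', ← rpow_add']; congr 1; ring
    _ ≤ _ := rpow_anti B n (by linarith)

end Crest.Agent.R116.Nar863
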