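import Crest.Agent.R116.Nar3a_863
import Crest.Agent.R116.BcB_863

/-!
# R116, [NARROW] (helper863), part 2: (A1) in a model with `NoStr`

`a1_abs` : `2 σ x ≤ ν p0 - ν r` (`p0` = class, `r` = bush: positions at `x`, velocities coarse) in a
`RModel` whose classes `p0` have no heavy strips of the two velocity slots.
-/

set_option autoImplicit false
set_option linter.unusedVariables false
set_option linter.unusedSectionVars false

open Filter Topology Finset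

namespace Crest.Agent.R116.Nar863

open Crest.Agent.R138.Ex926 (Base U)
open Crest.Agent.R136.Gf356

variable {κ : Type} {B : Base} {G : ℕ → RCfg κ} {Leg : Set (κ → ℝ)} {ν : (κ → ℝ) → ℝ}
  {σ R D : ℝ}

/-- data of a fan `pF` in the class `p0`: boxes `pC t` (both velocity slots at `t`), `pFC t` -/
structure FanD (Leg : Set (κ → ℝ)) (ν : (κ → ℝ) → ℝ) (p0 pF : κ → ℝ) (pC pFC : ℝ → κ → ℝ)
    (cA cB : κ) (R0 : ℝ) : Prop where
  l0 : p0 ∈ Leg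
  lF : pF ∈ Leg
  le : ∀ s, p0 s ≤ pF s
  lC : ∀ t, 0 < t → t ≤ R0 → pC t ∈ Leg
  lFC : ∀ t, 0 < t → t ≤ R0 → pFC t ∈ Leg
  leC : ∀ t, 0 < t → t ≤ R0 → ∀ s, p0 s ≤ pC t s
  cA : ∀ t, 0 < t → t ≤ R0 → t ≤ pC t cA
  cB : ∀ t, 0 < t → t ≤ R0 → t ≤ pC t cB
  mx : ∀ t, 0 < t → t ≤ R0 → ∀ s, pFC t s ≤ max (pC t s) (pF s)
  prod : ∀ t, 0 < t → t ≤ R0 → ν p0 - ν (pC t) ≤ ν pF - ν (pFC t)

/-- positions and velocities of the lines in one frame -/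
structure PosD (B : Base) (G : ℕ → RCfg κ) (i0 k0 : ℕ → ℕ) (p0 r : κ → ℝ) (cA cB : κ)
    (A1 A2 V1 V2 : ℕ → ℕ → ℝ) (C1 x R0 : ℝ) : Prop where
  C1p : 1 ≤ C1
  hz : ∀ ε : ℝ, 0 < ε → ∀ᶠ n in (U : Filter ℕ), ∀ k ∈ (G n).Z, |(G n).z k| ≤ B.d n ^ (-(C1 * ε))
  hV : ∀ ε : ℝ, 0 < ε → ∀ᶠ n in (U : Filter ℕ), ∀ i ∈ (G n).box p0 ε (i0 n) (k0 n),
      ∀ i' ∈ (G n).box p0 ε (i0 n) (k0 n), |V1 n i - V1 n i'| ≤ B.d n ^ (-(C1 * ε)) ∧
        |V2 n i - V2 n i'| ≤ B.d n ^ (-(C1 * ε))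
  hA : ∀ ε : ℝ, 0 < ε → ∀ᶠ n in (U : Filter ℕ), ∀ i ∈ (G n).box p0 ε (i0 n) (k0 n),
      ∀ i' ∈ (G n).box p0 ε (i0 n) (k0 n), |A1 n i - A1 n i'| ≤ B.d n ^ (-(C1 * ε)) ∧
        |A2 n i - A2 n i'| ≤ B.d n ^ (-(C1 * ε))
  hlink : ∀ ε : ℝ, 0 < ε → ∀ᶠ n in (U : Filter ℕ), ∀ k ∈ (G n).Z,
      ∀ i ∈ (G n).box p0 ε (i0 n) (k0 n), (i, k) ∈ (G n).I → ∀ l, (l, k) ∈ (G n).I →
      (G n).loose r ε k i l →
      |(A1 n l + (G n).z k * V1 n l) - (A1 n i + (G n).z k * V1 n i)| ≤ B.d n ^ (x - C1 * ε) ∧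
      |(A2 n l + (G n).z k * V2 n l) - (A2 n i + (G n).z k * V2 n i)| ≤ B.d n ^ (x - C1 * ε)
  hT : ∀ ε : ℝ, 0 < ε → ∀ᶠ n in (U : Filter ℕ), ∀ k ∈ (G n).Z,
      ∀ i ∈ (G n).box p0 ε (i0 n) (k0 n), ∀ i' ∈ (G n).box p0 ε (i0 n) (k0 n),
      (i, k) ∈ (G n).I → (i', k) ∈ (G n).I → (G n).loose p0 (C1 * ε) k i i'
  hconv : ∀ C : ℝ, 0 < C → ∃ C2 : ℝ, 0 < C2 ∧ ∀ ε : ℝ, 0 < ε → ∀ᶠ n in (U : Filter ℕ),
      ∀ k ∈ (G n).Z, ∀ i ∈ (G n).box p0 ε (i0 n) (k0 n), ∀ l ∈ (G n).box p0 ε (i0 n) (k0 n),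
      (i, k) ∈ (G n).I → (l, k) ∈ (G n).I →
      |(A1 n l + (G n).z k * V1 n l) - (A1 n i + (G n).z k * V1 n i)| ≤ B.d n ^ (x - C * ε) →
      |(A2 n l + (G n).z k * V2 n l) - (A2 n i + (G n).z k * V2 n i)| ≤ B.d n ^ (x - C * ε) →
      (G n).loose r (C2 * ε) k i l
  hstr : ∃ C3 : ℝ, 0 < C3 ∧ ∀ ρ : ℝ, 0 < ρ → ρ ≤ R0 → ∀ ε : ℝ, 0 < ε → ∀ᶠ n in (U : Filter ℕ),
      ∀ k ∈ (G n).Z, ∀ i ∈ (G n).box p0 ε (i0 n) (k0 n), (i, k) ∈ (G n).I →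
      ∀ e1 e2 : ℝ, e1 ^ 2 + e2 ^ 2 = 1 → ∃ b : Fin 2 → ℝ, b 0 ^ 2 + b 1 ^ 2 = 1 ∧
        ∀ l ∈ (G n).box p0 ε (i0 n) (k0 n), (l, k) ∈ (G n).I →
        |(V1 n l - V1 n i) * e1 + (V2 n l - V2 n i) * e2| ≤ 2 * B.d n ^ ρ →
        |b 0 * (G n).rel k i l cA + b 1 * (G n).rel k i l cB| ≤ B.d n ^ (ρ - C3 * ε)

open Classical in
/-- **(A1) in a model without heavy strips** -/
theorem a1_abs (H : RModel B G σ R Leg ν D) (i0 k0 : ℕ → ℕ)
    (h0 : ∀ᶠ n in (U : Filter ℕ), (i0 n, k0 n) ∈ (G n).I) {p0 r : κ → ℝ} {pC pFC : ℝ → κ → ℝ}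
    {cA cB : κ} {q R0 Ca C1 x : ℝ} (hF : FanD Leg ν p0 r pC pFC cA cB R0) (hCa : 0 < Ca)
    (hN : NoStr B G p0 cA cB ν q R0) (hadd : AddP B G p0 pC cA cB Ca R0) (hq : 0 < q)
    (hR0 : 0 < R0) (hx : 0 < x) (hxR : x ≤ R) {A1 A2 V1 V2 : ℕ → ℕ → ℝ}
    (hP : PosD B G i0 k0 p0 r cA cB A1 A2 V1 V2 C1 x R0) :
    2 * σ * x ≤ ν p0 - ν r := by
  have hD := H.D1
  have hC1 : 0 < C1 := lt_of_lt_of_le one_pos hP.C1p
  obtain ⟨K, hK, hfan⟩ := fan_strip H.toRUnif hF.l0 hF.lF hF.le hCa hF.lC hF.lFC hF.leC hF.cA hF.cB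
    hF.mx hN hadd hF.prod
  obtain ⟨C2, hC2, hconv⟩ := hP.hconv (C1 + 2) (by linarith)
  obtain ⟨C3, hC3, hstr⟩ := hP.hstr
  set Cm : ℝ := max C2 C3 with hCm
  have hCm0 : 0 < Cm := lt_max_of_lt_left hC2
  refine Bc863.bct_R H.toRUnif i0 k0 h0 p0 p0 r hF.l0 hF.l0 hF.lF hF.le le_rfl hx
    H.σ_nonneg (fun n k l => A1 n l + (G n).z k * V1 n l)
    (fun n k l => A2 n l + (G n).z k * V2 n l) A1 A2 V1 V2 (fun n k => (G n).z k)
    (fun n => (G n).Z) ?_ hC1 hP.hz hP.hV hP.hA ?_ ?_ hP.hT ?_ (q := q) (C5 := K * Cm + 1)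
    (ρ0 := R0) hq (by positivity) hR0 ?_ ?_
  · filter_upwards [h0] with n hn
    exact ⟨_, H.memZ hn⟩
  · intro ε hε
    filter_upwards [] with n k _ i _ i' _ _ _
    have hp := (rpos B n (x - C1 * ε)).le
    constructor
    · refine le_trans (le_of_eq ?_) hp
      rw [abs_eq_zero]; ring
    · refine le_trans (le_of_eq ?_) hp
      rw [abs_eq_zero]; ring
  · exact hP.hlink
  · intro ε hε
    filter_upwards [H.line ε hε] with n hn i hi T hT hal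
    have hiL : i ∈ (G n).L := (RCfg.mem_slice.1 (RCfg.mem_box.1 hi).1).1
    have h1 := hn i hiL
    have h2 : ((G n).hts i) ⊆ T := by
      intro k hk
      obtain ⟨a, b⟩ := RCfg.mem_hts.1 hk
      exact hal k a b
    have h3 : (((G n).hts i).card : ℝ) ≤ (T.card : ℝ) := by exact_mod_cast card_le_card h2
    refine le_trans ?_ (h1.trans h3)
    refine mul_le_mul_of_nonneg_right (rpow_anti B n ?_) (Nat.cast_nonneg _)
    nlinarith [hP.C1p]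
  · intro ρ hρ hρR ε hε hερ
    have hCmε : 0 < Cm * ε := by positivity
    filter_upwards [hfan ρ hρ hρR (Cm * ε) hCmε, hconv ε hε, hstr ρ hρ hρR ε hε,
      ev_const_le B hε 2] with n hfann hconvn hstrn h2 k hk i hi hik e1 e2 u he T hT hTp
    rcases T.eq_empty_or_nonempty with h | ⟨i', hi'⟩
    · rw [h]; simp only [card_empty, Nat.cast_zero]; exact (rpos B n _).le
    have hi'S := hT hi'
    obtain ⟨a1, a2, a3, a4⟩ := hTp i' hi'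
    obtain ⟨b, hb, hbl⟩ := hstrn k hk i' hi'S a1 e1 e2 he
    have hsub : T ⊆ ((G n).box r (Cm * ε) i' k).filter fun l =>
        |b 0 * (G n).rel k i' l cA + b 1 * (G n).rel k i' l cB| ≤ B.d n ^ (ρ - Cm * ε) := by
      intro l hl
      have hlS := hT hl
      obtain ⟨c1, c2, c3, c4⟩ := hTp l hl
      have hpow := rpos B n (x - (C1 + 1) * ε)
      have hw : 2 * B.d n ^ (x - (C1 + 1) * ε) ≤ B.d n ^ (x - (C1 + 2) * ε) := by
        have e : B.d n ^ (x - (C1 + 2) * ε) = B.d n ^ (-ε) * B.d n ^ (x - (C1 + 1) * ε) := by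
          rw [← rpow_add']; congr 1; ring
        rw [e]
        exact mul_le_mul_of_nonneg_right h2 hpow.le
      have tri : ∀ {a b c : ℝ}, |a - c| ≤ B.d n ^ (x - (C1 + 1) * ε) →
          |b - c| ≤ B.d n ^ (x - (C1 + 1) * ε) → |a - b| ≤ B.d n ^ (x - (C1 + 2) * ε) := by
        intro a b c h1 h2
        refine le_trans ?_ hw
        have := abs_sub_le a c b
        rw [abs_sub_comm c b] at this
        linarith
      have hl1 := hconvn k hk i' hi'S l hlS a1 c1 (tri c2 a2) (tri c3 a3)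
      have hstrip : |(V1 n l - V1 n i') * e1 + (V2 n l - V2 n i') * e2| ≤ 2 * B.d n ^ ρ := by
        have e : (V1 n l - V1 n i') * e1 + (V2 n l - V2 n i') * e2 =
            (V1 n l * e1 + V2 n l * e2 - u) - (V1 n i' * e1 + V2 n i' * e2 - u) := by ring
        rw [e]
        have := abs_sub (V1 n l * e1 + V2 n l * e2 - u) (V1 n i' * e1 + V2 n i' * e2 - u)
        linarith
      have hl2 := hbl l hlS c1 hstrip
      rw [mem_filter]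
      refine ⟨RCfg.mem_box.2 ⟨H.memSlice.2 c1, ?_⟩, ?_⟩
      · exact H.loose_mono (fun _ => le_rfl) (mul_le_mul_of_nonneg_right (le_max_left _ _) hε.le) hl1
      · refine hl2.trans (rpow_anti B n ?_)
        have := mul_le_mul_of_nonneg_right (le_max_right C2 C3) hε.le
        linarith
    have h3 := hfann i' k a1 b hb
    refine le_trans ?_ (h3.trans (rpow_anti B n ?_))
    · exact_mod_cast card_le_card hsub
    · nlinarith
  · intro ε hε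
    filter_upwards [H.frost x hx.le hxR ε hε] with n hn k hk T hT hTx
    refine le_trans ?_ (hn k hk)
    refine Nat.cast_le.2 (card_le_card ?_)
    intro k' hk'
    unfold RCfg.hbox
    rw [mem_filter]
    refine ⟨hT hk', ?_⟩
    rw [H.base n]
    exact hTx k' hk'

end Crest.Agent.R116.Nar863
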