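import Crest.Agent.R116.Nar3b_863
import Crest.Agent.R116.EvL4_504

/-!
# R116, [NARROW] (helper863), part 3: frame change in a window of the light chart

Three incidences `x, y, w` of the class; `a = co x y`, `c = co y w`.
* `crd_same` : the slots `C, X, N, P, F` of `w` seen from `x` do not depend on the incidence of the
  fat line;
* `crd3 .. crd6` : exact laws of the slots `C`, `X` (base point natural in `0, 3, 5` resp. `0, 4, 6`);
* `crd10`, `crd11` : laws of `P` and of `F + z P` when `E` is small and the walls with `D` are slack.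
-/

set_option autoImplicit false
set_option linter.unusedVariables false
set_option linter.unusedSectionVars false

open Filter

namespace Crest.Agent.R116.Nar863

open Crest.Agent.R138.Ex926 (Base U)
open Crest.Agent.R136.Net191 Crest.Agent.R136.Qg926 Crest.Agent.R136.Gf356
open Crest.Agent.R116.ChL222 Crest.Agent.R116.PL504 Crest.Agent.R116.EvL504

variable {ι : ℕ → Type*} [∀ n, DecidableEq (ι n)]

/-- the walls with `D` are slack by `δ` -/
structure SlackD (W : Wnd 12 ι) (n : ℕ) (δ : ℝ) : Prop where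
  z : side W n 0 * side W n 1 ≤ δ * side W n 2
  c3 : side W n 1 * (side W n 5 * side W n 3) ≤ δ * side W n 10
  c4 : side W n 1 * (side W n 6 * side W n 4) ≤ δ * side W n 10
  nn : side W n 1 * side W n 9 ≤ δ * side W n 10
  x5 : side W n 1 * (side W n 5 * side W n 5) ≤ δ * side W n 11
  x6 : side W n 1 * (side W n 6 * side W n 6) ≤ δ * side W n 11

section laws

variable {W : Wnd 12 ι} {K tp : ℝ} (h : WL W K tp) {n : ℕ}

include h

/-- the slots `C, X, N, P, F` are constant along a fat line -/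
theorem crd_same (g : W.Good n) {x y z : ι n} (hx : x ∈ W.Cl n) (hy : y ∈ W.Cl n)
    (hz : z ∈ W.Cl n) (hl : W.lc n y = W.lc n z) {s : Fin 12} (hs : s ∉ SL) :
    |W.crd n x z s - W.crd n x y s| ≤ 48 * W.B'.d n ^ tp := by
  have hD := h.sides g
  have h0 : ∀ k, |W.co n x y k| ≤ side W n k := fun k => h.bd0 g hx hy k
  have h1 : ∀ k, |W.co n y z k| ≤ side W n k := fun k => h.bd0 g hy hz k
  have h2 : ∀ k, |LvS SL (W.co n y z) k| ≤ side W n k := abs_LvS_le hD.pos h1
  have h3 : ∀ k, |W.co n y z k - LvS SL (W.co n y z) k| ≤ W.B'.d n ^ tp * side W n k :=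
    abs_sub_LvS hD.pos (h.r0 n) fun k hk => h.bdl g hy hz hl (h.notS hk) (h.topL _ hk)
  have key := comp_lipD (k := s) hD (h.r0 n) h0 h0 h1 h2
    (fun k => by simpa using mul_nonneg (h.r0 n) (hD.pos k).le) h3
  have e1 : comp (W.co n x y) (LvS SL (W.co n y z)) s = W.co n x y s :=
    comp_Lv (W.co n x y) (W.co n y z) hs
  rw [e1, ← (h.coc n).add] at key
  have hp := h.side_pos' n s
  show |W.co n x z s / side W n s - W.co n x y s / side W n s| ≤ _
  rw [← sub_div, abs_div, abs_of_pos hp, div_le_iff₀ hp]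
  linarith

theorem crd_div (x y : ι n) (s : Fin 12) : W.crd n x y s = W.co n x y s / side W n s := rfl

theorem crd3 (x y w : ι n) : W.crd n x w 3 = W.crd n x y 3 + W.crd n y w 3 := by
  have e : W.co n x w 3 = W.co n x y 3 + W.co n y w 3 := by rw [(h.coc n).add x y w]; rfl
  rw [crd_div h, crd_div h, crd_div h, e, add_div]

theorem crd4 (x y w : ι n) : W.crd n x w 4 = W.crd n x y 4 + W.crd n y w 4 := by
  have e : W.co n x w 4 = W.co n x y 4 + W.co n y w 4 := by rw [(h.coc n).add x y w]; rfl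
  rw [crd_div h, crd_div h, crd_div h, e, add_div]

theorem crd5 (hn : side W n 0 * side W n 3 = side W n 5) (x y w : ι n) :
    W.crd n x w 5 = W.crd n x y 5 + W.crd n y w 5 - W.crd n x y 0 * W.crd n y w 3 := by
  have e : W.co n x w 5 = W.co n x y 5 + W.co n y w 5 - W.co n x y 0 * W.co n y w 3 := by
    rw [(h.coc n).add x y w]; rfl
  have h0 := (h.side_pos' n 0).ne'
  have h3 := (h.side_pos' n 3).ne'
  rw [crd_div h, crd_div h, crd_div h, crd_div h, crd_div h, e, ← hn]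
  field_simp

theorem crd6 (hn : side W n 0 * side W n 4 = side W n 6) (x y w : ι n) :
    W.crd n x w 6 = W.crd n x y 6 + W.crd n y w 6 - W.crd n x y 0 * W.crd n y w 4 := by
  have e : W.co n x w 6 = W.co n x y 6 + W.co n y w 6 - W.co n x y 0 * W.co n y w 4 := by
    rw [(h.coc n).add x y w]; rfl
  have h0 := (h.side_pos' n 0).ne'
  have h3 := (h.side_pos' n 4).ne'
  rw [crd_div h, crd_div h, crd_div h, crd_div h, crd_div h, e, ← hn]
  field_simp

/-- slot `2` -/
theorem crd2 (g : W.Good n) {δ : ℝ} (hsl : SlackD W n δ) {x y w : ι n} (hx : x ∈ W.Cl n)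
    (hy : y ∈ W.Cl n) (hw : w ∈ W.Cl n) :
    |W.crd n x w 2 - (W.crd n x y 2 + W.crd n y w 2)| ≤ 2 * δ := by
  have e : W.co n x w 2 = W.co n x y 2 + W.co n y w 2 - 2 * (W.co n x y 1 * W.co n y w 0) := by
    rw [(h.coc n).add x y w]; rfl
  have hp := h.side_pos' n 2
  have h1 := h.bd0 g hx hy 1
  have h2 := h.bd0 g hy hw 0
  have h3 : |W.co n x y 1 * W.co n y w 0| ≤ δ * side W n 2 := by
    refine (bd2D h1 h2).trans ?_
    rw [mul_comm]
    exact hsl.z
  rw [crd_div h, crd_div h, crd_div h, e, ← add_div, ← sub_div, abs_div, abs_of_pos hp,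
    div_le_iff₀ hp]
  have e2 : W.co n x y 2 + W.co n y w 2 - 2 * (W.co n x y 1 * W.co n y w 0) -
      (W.co n x y 2 + W.co n y w 2) = -(2 * (W.co n x y 1 * W.co n y w 0)) := by ring
  rw [e2, abs_neg, abs_mul, abs_of_pos (show (0:ℝ) < 2 by norm_num)]
  linarith

/-- slot `10` -/
theorem crd10 (g : W.Good n) {δ η : ℝ} (hsl : SlackD W n δ) {x y w : ι n} (hx : x ∈ W.Cl n)
    (hy : y ∈ W.Cl n) (hw : w ∈ W.Cl n) (hη : |W.crd n x y 2| ≤ η) :
    |W.crd n x w 10 - (W.crd n x y 10 + W.crd n y w 10 -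
      (W.co n x y 7 * W.co n y w 3 + W.co n x y 8 * W.co n y w 4) / side W n 10)| ≤
      η + 6 * δ := by
  have hD := h.sides g
  have hp := hD.pos
  set a := W.co n x y with ha
  set c := W.co n y w with hc
  have e : W.co n x w 10 = a 10 + c 10 - a 7 * c 3 - a 8 * c 4 -
      a 2 * ((c 3 ^ 2 + c 4 ^ 2) / 2) - 2 * (a 1 * (c 5 * c 3 + c 6 * c 4 - c 9)) := by
    rw [(h.coc n).add x y w]; rfl
  have ca : ∀ s, |a s| ≤ side W n s := fun s => h.bd0 g hx hy s
  have cc : ∀ s, |c s| ≤ side W n s := fun s => h.bd0 g hy hw s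
  have a2 : |a 2| ≤ η * side W n 2 := by
    rw [crd_div h, abs_div, abs_of_pos (hp 2), div_le_iff₀ (hp 2)] at hη
    exact hη
  have hη0 : 0 ≤ η := (abs_nonneg _).trans hη
  have hδ0 : 0 ≤ δ := by
    have h1 := hsl.z
    have h2 : 0 < side W n 0 * side W n 1 := mul_pos (hp 0) (hp 1)
    by_contra hcon
    push Not at hcon
    have := mul_neg_of_neg_of_pos hcon (hp 2)
    linarith
  -- the three error terms
  have sq : ∀ {i : Fin 12} {v : ℝ}, |v| ≤ side W n i → v ^ 2 ≤ side W n i * side W n i := by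
    intro i v hv
    have := mul_le_mul hv hv (abs_nonneg _) (hp i).le
    rwa [← abs_mul, ← sq, abs_of_nonneg (sq_nonneg v)] at this
  have t1 : |a 2 * ((c 3 ^ 2 + c 4 ^ 2) / 2)| ≤ η * side W n 10 := by
    have s3 := sq (cc 3)
    have s4 := sq (cc 4)
    have w3 : side W n 2 * (side W n 3 * side W n 3) ≤ side W n 10 := by
      have h1 := mul_le_mul_of_nonneg_right hD.w7 (hp 3).le
      have h2 := hD.w10
      nlinarith
    have w4 : side W n 2 * (side W n 4 * side W n 4) ≤ side W n 10 := by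
      have h1 := mul_le_mul_of_nonneg_right hD.w8 (hp 4).le
      have h2 := hD.w10'
      nlinarith
    rw [abs_mul, abs_of_nonneg (show 0 ≤ (c 3 ^ 2 + c 4 ^ 2) / 2 by positivity)]
    have h1 : |a 2| * ((c 3 ^ 2 + c 4 ^ 2) / 2) ≤ (η * side W n 2) *
        ((side W n 3 * side W n 3 + side W n 4 * side W n 4) / 2) :=
      mul_le_mul a2 (by linarith) (by positivity) (mul_nonneg hη0 (hp 2).le)
    have h2 : (η * side W n 2) * ((side W n 3 * side W n 3 + side W n 4 * side W n 4) / 2) =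
        η * ((side W n 2 * (side W n 3 * side W n 3) + side W n 2 * (side W n 4 * side W n 4)) / 2) := by
      ring
    rw [h2] at h1
    refine h1.trans (mul_le_mul_of_nonneg_left (by linarith) hη0)
  have t2 : |a 1 * (c 5 * c 3)| ≤ δ * side W n 10 := (bd2D (ca 1) (bd2D (cc 5) (cc 3))).trans hsl.c3
  have t3 : |a 1 * (c 6 * c 4)| ≤ δ * side W n 10 := (bd2D (ca 1) (bd2D (cc 6) (cc 4))).trans hsl.c4
  have t4 : |a 1 * c 9| ≤ δ * side W n 10 := (bd2D (ca 1) (cc 9)).trans hsl.nn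
  rw [crd_div h, crd_div h, crd_div h, e, ← add_div, ← sub_div, ← sub_div, abs_div,
    abs_of_pos (hp 10), div_le_iff₀ (hp 10)]
  have e2 : a 10 + c 10 - a 7 * c 3 - a 8 * c 4 -
      a 2 * ((c 3 ^ 2 + c 4 ^ 2) / 2) - 2 * (a 1 * (c 5 * c 3 + c 6 * c 4 - c 9)) -
      (a 10 + c 10 - (a 7 * c 3 + a 8 * c 4)) = -(a 2 * ((c 3 ^ 2 + c 4 ^ 2) / 2)) -
      2 * (a 1 * (c 5 * c 3)) - 2 * (a 1 * (c 6 * c 4)) + 2 * (a 1 * c 9) := by ring
  rw [e2]
  have u1 := abs_le.1 t1
  have u2 := abs_le.1 t2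
  have u3 := abs_le.1 t3
  have u4 := abs_le.1 t4
  rw [abs_le]
  constructor <;> linarith [u1.1, u1.2, u2.1, u2.2, u3.1, u3.2, u4.1, u4.2]

/-- the functional `F + z P` -/
theorem crd11 (g : W.Good n) {δ η : ℝ} (hsl : SlackD W n δ)
    (hn : side W n 0 * side W n 10 = side W n 11) {x y w : ι n} (hx : x ∈ W.Cl n)
    (hy : y ∈ W.Cl n) (hw : w ∈ W.Cl n) (hη : |W.crd n x y 2| ≤ η) :
    |(W.crd n x w 11 + W.crd n x y 0 * W.crd n x w 10) -
      (W.crd n x y 11 + W.crd n x y 0 * W.crd n x y 10) -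
      (W.crd n y w 11 -
        (W.co n x y 7 * W.co n y w 5 + W.co n x y 8 * W.co n y w 6) / side W n 11)| ≤
      η + 2 * δ := by
  have hD := h.sides g
  have hp := hD.pos
  set a := W.co n x y with ha
  set c := W.co n y w with hc
  have e10 : W.co n x w 10 = a 10 + c 10 - a 7 * c 3 - a 8 * c 4 -
      a 2 * ((c 3 ^ 2 + c 4 ^ 2) / 2) - 2 * (a 1 * (c 5 * c 3 + c 6 * c 4 - c 9)) := by
    rw [(h.coc n).add x y w]; rfl
  have e11 : W.co n x w 11 = a 11 + c 11 - a 0 * c 10 - a 7 * (c 5 - a 0 * c 3) -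
      a 8 * (c 6 - a 0 * c 4) - a 2 * (c 9 - a 0 * ((c 3 ^ 2 + c 4 ^ 2) / 2)) -
      a 1 * (c 5 ^ 2 + c 6 ^ 2 - 2 * (a 0 * (c 5 * c 3 + c 6 * c 4 - c 9))) := by
    rw [(h.coc n).add x y w]; rfl
  have ca : ∀ s, |a s| ≤ side W n s := fun s => h.bd0 g hx hy s
  have cc : ∀ s, |c s| ≤ side W n s := fun s => h.bd0 g hy hw s
  have a2 : |a 2| ≤ η * side W n 2 := by
    rw [crd_div h, abs_div, abs_of_pos (hp 2), div_le_iff₀ (hp 2)] at hη
    exact hη
  have hη0 : 0 ≤ η := (abs_nonneg _).trans hη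
  have t1 : |a 2 * c 9| ≤ η * side W n 11 := by
    refine (bd2D a2 (cc 9)).trans ?_
    rw [mul_assoc]
    exact mul_le_mul_of_nonneg_left hD.w11c hη0
  have t2 : |a 1 * (c 5 * c 5)| ≤ δ * side W n 11 := (bd2D (ca 1) (bd2D (cc 5) (cc 5))).trans hsl.x5
  have t3 : |a 1 * (c 6 * c 6)| ≤ δ * side W n 11 := (bd2D (ca 1) (bd2D (cc 6) (cc 6))).trans hsl.x6
  have n0 := (hp 0).ne'
  have n10 := (hp 10).ne'
  have key : (W.crd n x w 11 + W.crd n x y 0 * W.crd n x w 10) -
      (W.crd n x y 11 + W.crd n x y 0 * W.crd n x y 10) -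
      (W.crd n y w 11 - (a 7 * c 5 + a 8 * c 6) / side W n 11) =
      (-(a 2 * c 9) - a 1 * (c 5 * c 5) - a 1 * (c 6 * c 6)) / side W n 11 := by
    rw [crd_div h, crd_div h, crd_div h, crd_div h, crd_div h, crd_div h, e10, e11, ← hn, ← ha,
      ← hc]
    field_simp
    ring
  rw [key, abs_div, abs_of_pos (hp 11), div_le_iff₀ (hp 11)]
  have u1 := abs_le.1 t1
  have u2 := abs_le.1 t2
  have u3 := abs_le.1 t3
  rw [abs_le]
  constructor <;> linarith [u1.1, u1.2, u2.1, u2.2, u3.1, u3.2]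

end laws

end Crest.Agent.R116.Nar863
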