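import Crest.Agent.R116.Nar3d_863

/-!
# R116, [NARROW] (helper863), part 5: (A1) in a window, round case

`isoB c x` : slots `3, 4` at `c`, slots `5, 6` at `x`.
`a1_isoW` : in the window `WinU`: `2 σ x ≤ ν 0 - ν (isoB 0 x)`.
`a1_iso` : from a tangent at a moving base point.
-/

set_option autoImplicit false
set_option linter.unusedVariables false
set_option linter.unusedSectionVars false

open Filter Topology Finset

namespace Crest.Agent.R116.Nar863

open Crest.Agent.R138.Ex926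
open Crest.Agent.R136.Net191 Crest.Agent.R136.Qg926 Crest.Agent.R136.Gf356
open Crest.Agent.R136.NSt107
open Crest.Agent.R116.ChL222 Crest.Agent.R116.PL504 Crest.Agent.R116.EvL504
open Crest.Agent.R116.WinU954

variable {ι : ℕ → Type*} [∀ n, DecidableEq (ι n)]

/-- velocities at `c`, positions at `x` -/
def isoB (c x : ℝ) : Fin 12 → ℝ := ![0, 0, 0, c, c, x, x, 0, 0, 0, 0, 0]

theorem isoB_zero : isoB 0 0 = 0 := by
  funext k
  fin_cases k <;> rfl

theorem isoB_mem {W : Wnd 12 ι} {B : Base} {I J : ∀ n, Finset (ι n)}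
    {co : ∀ n, ι n → ι n → Fin 12 → ℝ} {C : ℝ} {D : Set (Fin 12 → ℝ)}
    {ν lam : (Fin 12 → ℝ) → ℝ} {x : ℕ → Fin 12 → ℝ} {h : ℕ → ℝ} {k' : ℕ → ℕ} {t : ℝ}
    (w : WinU W B I J co C D ν lam x h k' t) (ht : 0 ≤ t) {c y : ℝ} (hc : 0 ≤ c) (hct : c ≤ t)
    (hy : 0 ≤ y) (hyt : y ≤ t) : isoB c y ∈ W.legW := by
  rw [w.mem_legU ht]
  refine ⟨fun s _ => ?_, ?_⟩
  · fin_cases s <;> simp [isoB, hc, hct, hy, hyt, ht]
  · simp [isoB, hc, hy, add_nonneg]

/-- absorbing a constant -/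
theorem pwb (B : Base) {n : ℕ} {K s t ε : ℝ} (hK : K ≤ B.d n ^ (-ε)) (h : t ≤ s - ε) :
    K * B.d n ^ s ≤ B.d n ^ t := by
  refine absorb B (hK.trans (rpow_anti B n (by linarith)))

section win

variable {W : Wnd 12 ι} {K t : ℝ} (h : WL W K t) {E : ∀ n, Finset (ι n)}
  {Leg' : Set (Fin 12 → ℝ)} {nu : (Fin 12 → ℝ) → ℝ} {Dc σ : ℝ}

include h

theorem posD_iso (H : RModel W.B' (W.cfg E) σ t Leg' nu Dc)
    (hr : ∀ᶠ n in (U : Filter ℕ), Reg W E n)
    (n5 : ∀ n, side W n 0 * side W n 3 = side W n 5)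
    (n6 : ∀ n, side W n 0 * side W n 4 = side W n 6) {i0 k0 : ℕ → ℕ}
    (hp : ∀ n, (i0 n, k0 n) ∈ (W.cfg E n).I) {x : ℝ} (hx : 0 < x) (hxt : x ≤ t) (ht : 0 < t) :
    PosD W.B' (W.cfg E) i0 k0 (isoB 0 0) (isoB 0 x) 3 4 (Af W E i0 k0 5 3) (Af W E i0 k0 6 4)
      (Vf W E i0 k0 3) (Vf W E i0 k0 4) 2 x t := by
  have hbase : ∀ n, (W.cfg E n).ρ = W.B'.d n := H.base
  have one_le : ∀ (n : ℕ) {u : ℝ}, u ≤ 0 → (1 : ℝ) ≤ W.B'.d n ^ u := fun n u hu =>
    Real.one_le_rpow_of_pos_of_le_one_of_nonpos (W.B'.pos n) (W.B'.lt n).le hu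
  have hmono : ∀ (n : ℕ) {s u : ℝ}, s ≤ u → W.B'.d n ^ u ≤ W.B'.d n ^ s := fun n s u hh =>
    rpow_anti W.B' n hh
  have slc : ∀ {n i : ℕ} {p : Fin 12 → ℝ} {ε : ℝ} {a k : ℕ}, i ∈ (W.cfg E n).box p ε a k →
      (i, k) ∈ (W.cfg E n).I := fun hi => H.memSlice.1 (RCfg.mem_box.1 hi).1
  constructor
  · norm_num
  · intro ε hε
    filter_upwards [hr] with n r k hk
    obtain ⟨i, hi⟩ : ∃ i, (i, k) ∈ (W.cfg E n).I := by
      rw [r.cfg_eq] at hk ⊢
      obtain ⟨z, hz, rfl⟩ := mem_image.1 hk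
      exact ⟨W.lc n z, mem_image.2 ⟨z, hz, rfl⟩⟩
    exact (z_le h r hi).trans (one_le n (by nlinarith))
  · intro ε hε
    filter_upwards [hr, ev_const_le W.B' hε 2] with n r h2 i hi i' hi'
    have key : ∀ s, |Vf W E i0 k0 s n i - Vf W E i0 k0 s n i'| ≤ W.B'.d n ^ (-(2 * ε)) := by
      intro s
      have a := Vf_le h r (hp n) s (slc hi)
      have b := Vf_le h r (hp n) s (slc hi')
      refine (abs_sub _ _).trans ?_
      have : W.B'.d n ^ (-ε) ≤ W.B'.d n ^ (-(2 * ε)) := hmono n (by linarith)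
      linarith
    exact ⟨key 3, key 4⟩
  · intro ε hε
    filter_upwards [hr, ev_const_le W.B' hε 4] with n r h4 i hi i' hi'
    have zz := z_le h r (hp n)
    have key : ∀ s s', |Af W E i0 k0 s s' n i - Af W E i0 k0 s s' n i'| ≤
        W.B'.d n ^ (-(2 * ε)) := by
      intro s s'
      have b1 : ∀ {j}, (j, k0 n) ∈ (W.cfg E n).I → |Af W E i0 k0 s s' n j| ≤ 2 := by
        intro j hj
        have a := Vf_le h r (hp n) s hj
        have b := Vf_le h r (hp n) s' hj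
        unfold Af
        refine (abs_sub _ _).trans ?_
        rw [abs_mul]
        have := mul_le_mul zz b (abs_nonneg _) zero_le_one
        linarith
      have a := b1 (slc hi)
      have b := b1 (slc hi')
      refine (abs_sub _ _).trans ?_
      have : W.B'.d n ^ (-ε) ≤ W.B'.d n ^ (-(2 * ε)) := hmono n (by linarith)
      linarith
    exact ⟨key 5 3, key 6 4⟩
  · intro ε hε
    filter_upwards [hr, ev_const_le W.B' hε 293] with n r h293 k hk i hi hik l hlk hlo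
    have c5 := (posC h r (hp n) (Or.inl ⟨rfl, rfl, n5 n⟩) hik hlk).1
    have c6 := (posC h r (hp n) (Or.inr ⟨rfl, rfl, n6 n⟩) hik hlk).1
    have l5 := hlo 5
    have l6 := hlo 6
    rw [hbase] at l5 l6
    have e5 : isoB 0 x 5 = x := rfl
    have e6 : isoB 0 x 6 = x := rfl
    rw [e5] at l5
    rw [e6] at l6
    have m1 : W.B'.d n ^ t ≤ W.B'.d n ^ (x - ε) := hmono n (by linarith)
    have m2 : 293 * W.B'.d n ^ (x - ε) ≤ W.B'.d n ^ (x - 2 * ε) := pwb W.B' h293 (by linarith)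
    have hpos := rpos W.B' n (x - ε)
    constructor
    · have := abs_sub_abs_le_abs_sub ((Af W E i0 k0 5 3 n l + (W.cfg E n).z k * Vf W E i0 k0 3 n l) -
        (Af W E i0 k0 5 3 n i + (W.cfg E n).z k * Vf W E i0 k0 3 n i)) ((W.cfg E n).rel k i l 5)
      linarith
    · have := abs_sub_abs_le_abs_sub ((Af W E i0 k0 6 4 n l + (W.cfg E n).z k * Vf W E i0 k0 4 n l) -
        (Af W E i0 k0 6 4 n i + (W.cfg E n).z k * Vf W E i0 k0 4 n i)) ((W.cfg E n).rel k i l 6)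
      linarith
  · intro ε hε
    filter_upwards [hr] with n r k hk i hi i' hi' hik hik' s
    rw [hbase]
    refine (r.rel_le h hik hik' s).trans (one_le n ?_)
    have : isoB 0 0 s = 0 := by rw [isoB_zero]; rfl
    rw [this]; linarith
  · intro C hC
    refine ⟨C + 1, by linarith, fun ε hε => ?_⟩
    filter_upwards [hr, ev_const_le W.B' hε 293] with n r h293 k hk i hi l hl' hik hlk f1 f2 s
    have c5 := (posC h r (hp n) (Or.inl ⟨rfl, rfl, n5 n⟩) hik hlk).1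
    have c6 := (posC h r (hp n) (Or.inr ⟨rfl, rfl, n6 n⟩) hik hlk).1
    have m1 : W.B'.d n ^ t ≤ W.B'.d n ^ (x - C * ε) := hmono n (by nlinarith)
    have m2 : 293 * W.B'.d n ^ (x - C * ε) ≤ W.B'.d n ^ (x - (C + 1) * ε) :=
      pwb W.B' h293 (by linarith)
    have hpos := rpos W.B' n (x - C * ε)
    have b5 : |(W.cfg E n).rel k i l 5| ≤ W.B'.d n ^ (x - (C + 1) * ε) := by
      have := abs_sub_abs_le_abs_sub ((W.cfg E n).rel k i l 5)
        ((Af W E i0 k0 5 3 n l + (W.cfg E n).z k * Vf W E i0 k0 3 n l) -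
        (Af W E i0 k0 5 3 n i + (W.cfg E n).z k * Vf W E i0 k0 3 n i))
      rw [abs_sub_comm] at c5
      linarith
    have b6 : |(W.cfg E n).rel k i l 6| ≤ W.B'.d n ^ (x - (C + 1) * ε) := by
      have := abs_sub_abs_le_abs_sub ((W.cfg E n).rel k i l 6)
        ((Af W E i0 k0 6 4 n l + (W.cfg E n).z k * Vf W E i0 k0 4 n l) -
        (Af W E i0 k0 6 4 n i + (W.cfg E n).z k * Vf W E i0 k0 4 n i))
      rw [abs_sub_comm] at c6
      linarith
    rw [hbase]
    have triv : ∀ s, isoB 0 x s = 0 → |(W.cfg E n).rel k i l s| ≤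
        W.B'.d n ^ (isoB 0 x s - (C + 1) * ε) := by
      intro s hs
      rw [hs]
      exact (r.rel_le h hik hlk s).trans (one_le n (by nlinarith))
    fin_cases s
    exacts [triv _ rfl, triv _ rfl, triv _ rfl, triv _ rfl, triv _ rfl, b5, b6, triv _ rfl,
      triv _ rfl, triv _ rfl, triv _ rfl, triv _ rfl]
  · refine ⟨1, one_pos, fun ρ hρ hρt ε hε => ?_⟩
    filter_upwards [hr, ev_const_le W.B' hε 194] with n r h194 k hk i hi hik e1 e2 he
    refine ⟨![e1, e2], by simpa using he, fun l hl' hlk hst => ?_⟩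
    have c3 := (posC h r (hp n) (Or.inl ⟨rfl, rfl, n5 n⟩) hik hlk).2
    have c4 := (posC h r (hp n) (Or.inr ⟨rfl, rfl, n6 n⟩) hik hlk).2
    have he1 : |e1| ≤ 1 := abs_le_one_iff_mul_self_le_one.2 (by nlinarith [sq_nonneg e2])
    have he2 : |e2| ≤ 1 := abs_le_one_iff_mul_self_le_one.2 (by nlinarith [sq_nonneg e1])
    set v1 := Vf W E i0 k0 3 n l - Vf W E i0 k0 3 n i with hv1
    set v2 := Vf W E i0 k0 4 n l - Vf W E i0 k0 4 n i with hv2
    set r3 := (W.cfg E n).rel k i l 3 with hr3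
    set r4 := (W.cfg E n).rel k i l 4 with hr4
    have u1 : |e1 * (v1 - r3)| ≤ 96 * W.B'.d n ^ t := by
      rw [abs_mul]
      calc |e1| * |v1 - r3| ≤ 1 * (96 * W.B'.d n ^ t) :=
            mul_le_mul he1 c3 (abs_nonneg _) zero_le_one
        _ = _ := one_mul _
    have u2 : |e2 * (v2 - r4)| ≤ 96 * W.B'.d n ^ t := by
      rw [abs_mul]
      calc |e2| * |v2 - r4| ≤ 1 * (96 * W.B'.d n ^ t) :=
            mul_le_mul he2 c4 (abs_nonneg _) zero_le_one
        _ = _ := one_mul _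
    have m1 : W.B'.d n ^ t ≤ W.B'.d n ^ ρ := hmono n hρt
    have m2 : 194 * W.B'.d n ^ ρ ≤ W.B'.d n ^ (ρ - 1 * ε) := pwb W.B' h194 (by linarith)
    have e : e1 * r3 + e2 * r4 = (v1 * e1 + v2 * e2) - e1 * (v1 - r3) - e2 * (v2 - r4) := by ring
    show |e1 * r3 + e2 * r4| ≤ _
    rw [e]
    have w1 := abs_le.1 hst
    have w2 := abs_le.1 u1
    have w3 := abs_le.1 u2
    have hpos := rpos W.B' n ρ
    rw [abs_le]
    constructor <;> linarith [w1.1, w1.2, w2.1, w2.2, w3.1, w3.2]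

theorem addP_iso (hr : ∀ᶠ n in (U : Filter ℕ), Reg W E n) :
    AddP W.B' (W.cfg E) (isoB 0 0) (fun c => isoB c 0) 3 4 1 t := by
  intro c hc hct ε hε
  filter_upwards [hr] with n r k i l m hi hl' hm _ _
  have hpos := (rpos W.B' n (c - 1 * ε)).le
  rw [r.rel_of (h.notS (s := 3) (by decide)), r.rel_of (h.notS (s := 3) (by decide)),
    r.rel_of (h.notS (s := 3) (by decide)), r.rel_of (h.notS (s := 4) (by decide)),
    r.rel_of (h.notS (s := 4) (by decide)), r.rel_of (h.notS (s := 4) (by decide))]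
  rw [crd3 h (W.rep n i k) (W.rep n l k) (W.rep n m k),
    crd4 h (W.rep n i k) (W.rep n l k) (W.rep n m k)]
  constructor
  · rw [sub_self, abs_zero]; exact hpos
  · rw [sub_self, abs_zero]; exact hpos

end win

theorem isoB_le {c c' x x' : ℝ} (hc : c ≤ c') (hx : x ≤ x') (s : Fin 12) :
    isoB c x s ≤ isoB c' x' s := by
  fin_cases s <;> simp [isoB, hc, hx]

theorem isoB_max {c x : ℝ} (hc : 0 ≤ c) (hx : 0 ≤ x) (s : Fin 12) :
    isoB c x s ≤ max (isoB c 0 s) (isoB 0 x s) := by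
  fin_cases s <;> simp [isoB, hc, hx]

open Classical in
/-- **(A1), round case, in a window** -/
theorem a1_isoW {W : Wnd 12 ι} {B : Base} {I J : ∀ n, Finset (ι n)}
    {co : ∀ n, ι n → ι n → Fin 12 → ℝ} {C : ℝ} {D : Set (Fin 12 → ℝ)}
    {ν lam : (Fin 12 → ℝ) → ℝ} {X : ℕ → Fin 12 → ℝ} {h : ℕ → ℝ} {k' : ℕ → ℕ} {t : ℝ}
    (w : WinU W B I J co C D ν lam X h k' t) (ht : 0 < t) {E' : ∀ n, Finset (ι n)} {g : ℕ → ℝ}
    {ex : ℕ → ∀ n, ι n → ℕ} (hP : Wnd.Pruned W (rich W) E' g ex) {σ : ℝ}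
    (H : RModel W.B' (W.cfg E') σ t W.legW W.nu W.Dc)
    (hr : ∀ᶠ n in (U : Filter ℕ), Reg W E' n)
    (dens : lam (fun _ => t) ≤ lam (cut {0} (fun _ => t) 0) + lam (Pi.single 0 t))
    (n5 : ∀ n, side W n 0 * side W n 3 = side W n 5)
    (n6 : ∀ n, side W n 0 * side W n 4 = side W n 6) {q : ℝ} (hq : 0 < q)
    (hns : NsW W 3 4 q t) {x : ℝ} (hx : 0 < x) (hxt : x ≤ t)
    (hprod : ∀ c, 0 < c → c ≤ t → W.nu (isoB 0 0) - W.nu (isoB c 0) ≤
      W.nu (isoB 0 x) - W.nu (isoB c x)) :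
    2 * σ * x ≤ W.nu (isoB 0 0) - W.nu (isoB 0 x) := by
  have hdens : W.lam W.top ≤ W.lam (cut W.S W.top 0) + W.lam (cut W.S 0 W.top) := by
    rw [w.hlam, w.htop, w.hS]
    have e : cut {0} 0 (fun _ => t : Fin 12 → ℝ) = Pi.single 0 t := cut_single (S := ∅)
    rw [e]
    exact dens
  have hN : NoStr W.B' (W.cfg E') (isoB 0 0) 3 4 W.nu q t :=
    noStr_of w.wl hP hdens (by decide) (by decide) hq.le hns (by rw [isoB_zero])
  obtain ⟨i0, hi0⟩ : ∃ i0 : ℕ → ℕ × ℕ, ∀ n, i0 n ∈ (W.cfg E' n).I :=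
    ⟨fun n => (H.nonempty n).choose, fun n => (H.nonempty n).choose_spec⟩
  refine a1_abs H (fun n => (i0 n).1) (fun n => (i0 n).2)
    (Eventually.of_forall fun n => hi0 n) (p0 := isoB 0 0) (r := isoB 0 x)
    (pC := fun c => isoB c 0) (pFC := fun c => isoB c x) (cA := 3) (cB := 4) (R0 := t) (Ca := 1)
    ?_ one_pos hN (addP_iso w.wl hr) hq ht hx hxt
    (posD_iso w.wl H hr n5 n6 hi0 hx hxt ht)
  exact
    { l0 := isoB_mem w ht.le le_rfl ht.le le_rfl ht.le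
      lF := isoB_mem w ht.le le_rfl ht.le hx.le hxt
      le := isoB_le le_rfl hx.le
      lC := fun c hc hct => isoB_mem w ht.le hc.le hct le_rfl ht.le
      lFC := fun c hc hct => isoB_mem w ht.le hc.le hct hx.le hxt
      leC := fun c hc _ => isoB_le hc.le le_rfl
      cA := fun c _ _ => le_rfl
      cB := fun c _ _ => le_rfl
      mx := fun c hc _ => isoB_max hc.le hx.le
      prod := hprod }

end Crest.Agent.R116.Nar863
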