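import Crest.Agent.R116.Nar3f_863

/-!
# R116, [NARROW] (helper863), part 7: (A1) in a window, thin case

One direction of the velocities is live (`ca`, positions `xa`), the other one (`cb`, `xb`) is a
multiple of it; the second functional is `P` (slot `10`), with positions `F` (slot `11`).
`thinB e c x` : slot `2` at `e`, slots `3, 4, 10` at `c`, slots `5, 6, 11` at `x`.
-/

set_option autoImplicit false
set_option linter.unusedVariables false
set_option linter.unusedSectionVars false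

open Filter Topology Finset

namespace Crest.Agent.R116.Nar863

open Crest.Agent.R138.Ex926
open Crest.Agent.R136.Net191 Crest.Agent.R136.Qg926 Crest.Agent.R136.Gf356
open Crest.Agent.R136.NSt107
open Crest.Agent.R116.ChL222 Crest.Agent.R116.PL504 Crest.Agent.R116.EvL504
open Crest.Agent.R116.WinU954

variable {ι : ℕ → Type*} [∀ n, DecidableEq (ι n)]

/-- `E` at `e`, velocities at `c`, positions at `x` -/
def thinB (e c x : ℝ) : Fin 12 → ℝ := ![0, 0, e, c, c, x, x, 0, 0, 0, c, x]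

/-- live axis `(ca, xa)`, other axis `(cb, xb)` -/
def Axis (ca xa cb xb : Fin 12) : Prop :=
  (ca = 3 ∧ xa = 5 ∧ cb = 4 ∧ xb = 6) ∨ (ca = 4 ∧ xa = 6 ∧ cb = 3 ∧ xb = 5)

/-- the second component is a multiple of the live one, seen from any incidence of the class -/
def DimC (W : Wnd 12 ι) (ca xa cb xb : Fin 12) (t : ℝ) : Prop :=
  ∀ᶠ n in (U : Filter ℕ), ∀ x ∈ W.Cl n, ∃ κ : ℝ, |κ| ≤ 4 ∧ ∀ y ∈ W.Cl n,
    |W.crd n x y cb - κ * W.crd n x y ca| ≤ W.B'.d n ^ t ∧
    |W.crd n x y xb - κ * W.crd n x y xa| ≤ W.B'.d n ^ t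

section laws

variable {W : Wnd 12 ι} {K tp : ℝ} (h : WL W K tp) {n : ℕ}

include h

/-- the tilt of the strips -/
theorem tilt (g : W.Good n) {ca xa cb xb : Fin 12} (hax : Axis ca xa cb xb) {x y : ι n}
    (hx : x ∈ W.Cl n) (hy : y ∈ W.Cl n) {κ e : ℝ} (hκ : |κ| ≤ 4) (he : 0 ≤ e) :
    ∃ T : ℝ, |T| ≤ 5 ∧ ∀ w ∈ W.Cl n, |W.crd n y w cb - κ * W.crd n y w ca| ≤ e →
      |(W.co n x y 7 * W.co n y w 3 + W.co n x y 8 * W.co n y w 4) / side W n 10 -
        T * W.crd n y w ca| ≤ e := by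
  have hD := h.sides g
  have hp := hD.pos
  have ca' : ∀ s, |W.co n x y s| ≤ side W n s := fun s => h.bd0 g hx hy s
  have q7 : |W.co n x y 7 * side W n 3 / side W n 10| ≤ 1 := by
    rw [abs_div, abs_of_pos (hp 10), div_le_one (hp 10), abs_mul, abs_of_pos (hp 3)]
    refine (mul_le_mul_of_nonneg_right (ca' 7) (hp 3).le).trans ?_
    rw [mul_comm]
    exact hD.w10
  have q8 : |W.co n x y 8 * side W n 4 / side W n 10| ≤ 1 := by
    rw [abs_div, abs_of_pos (hp 10), div_le_one (hp 10), abs_mul, abs_of_pos (hp 4)]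
    refine (mul_le_mul_of_nonneg_right (ca' 8) (hp 4).le).trans ?_
    rw [mul_comm]
    exact hD.w10'
  have n3 := (hp 3).ne'
  have n4 := (hp 4).ne'
  have n10 := (hp 10).ne'
  rcases hax with ⟨rfl, rfl, rfl, rfl⟩ | ⟨rfl, rfl, rfl, rfl⟩
  · refine ⟨W.co n x y 7 * side W n 3 / side W n 10 +
      κ * (W.co n x y 8 * side W n 4 / side W n 10), ?_, fun w hw hc => ?_⟩
    · refine (abs_add_le _ _).trans ?_
      rw [abs_mul]
      have := mul_le_mul hκ q8 (abs_nonneg _) (by norm_num)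
      linarith
    · have e1 : (W.co n x y 7 * W.co n y w 3 + W.co n x y 8 * W.co n y w 4) / side W n 10 -
          (W.co n x y 7 * side W n 3 / side W n 10 +
            κ * (W.co n x y 8 * side W n 4 / side W n 10)) * W.crd n y w 3 =
          (W.co n x y 8 * side W n 4 / side W n 10) *
            (W.crd n y w 4 - κ * W.crd n y w 3) := by
        rw [crd_div h, crd_div h]
        field_simp
        ring
      rw [e1, abs_mul]
      calc _ ≤ 1 * e := mul_le_mul q8 hc (abs_nonneg _) zero_le_one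
        _ = e := one_mul _
  · refine ⟨W.co n x y 8 * side W n 4 / side W n 10 +
      κ * (W.co n x y 7 * side W n 3 / side W n 10), ?_, fun w hw hc => ?_⟩
    · refine (abs_add_le _ _).trans ?_
      rw [abs_mul]
      have := mul_le_mul hκ q7 (abs_nonneg _) (by norm_num)
      linarith
    · have e1 : (W.co n x y 7 * W.co n y w 3 + W.co n x y 8 * W.co n y w 4) / side W n 10 -
          (W.co n x y 8 * side W n 4 / side W n 10 +
            κ * (W.co n x y 7 * side W n 3 / side W n 10)) * W.crd n y w 4 =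
          (W.co n x y 7 * side W n 3 / side W n 10) *
            (W.crd n y w 3 - κ * W.crd n y w 4) := by
        rw [crd_div h, crd_div h]
        field_simp
        ring
      rw [e1, abs_mul]
      calc _ ≤ 1 * e := mul_le_mul q7 hc (abs_nonneg _) zero_le_one
        _ = e := one_mul _

/-- size of the tilt in slot `10` -/
theorem tilt10 (g : W.Good n) {x y w : ι n} (hx : x ∈ W.Cl n) (hy : y ∈ W.Cl n) (hw : w ∈ W.Cl n)
    {e : ℝ} (h3 : |W.crd n y w 3| ≤ e) (h4 : |W.crd n y w 4| ≤ e) :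
    |(W.co n x y 7 * W.co n y w 3 + W.co n x y 8 * W.co n y w 4) / side W n 10| ≤ 2 * e := by
  have hD := h.sides g
  have hp := hD.pos
  have ca' : ∀ s, |W.co n x y s| ≤ side W n s := fun s => h.bd0 g hx hy s
  have he : 0 ≤ e := (abs_nonneg _).trans h3
  rw [crd_div h, abs_div, abs_of_pos (hp 3), div_le_iff₀ (hp 3)] at h3
  rw [crd_div h, abs_div, abs_of_pos (hp 4), div_le_iff₀ (hp 4)] at h4
  rw [abs_div, abs_of_pos (hp 10), div_le_iff₀ (hp 10)]
  refine (abs_add_le _ _).trans ?_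
  rw [abs_mul, abs_mul]
  have a := mul_le_mul (ca' 7) h3 (abs_nonneg _) (hp 7).le
  have b := mul_le_mul (ca' 8) h4 (abs_nonneg _) (hp 8).le
  have c := mul_le_mul_of_nonneg_left hD.w10 he
  have d := mul_le_mul_of_nonneg_left hD.w10' he
  nlinarith

/-- size of the tilt in slot `11` -/
theorem tilt11 (g : W.Good n) {x y w : ι n} (hx : x ∈ W.Cl n) (hy : y ∈ W.Cl n) (hw : w ∈ W.Cl n)
    {e e' : ℝ} (h5 : |W.crd n y w 5| ≤ e) (h6 : |W.crd n y w 6| ≤ e') :
    |(W.co n x y 7 * W.co n y w 5 + W.co n x y 8 * W.co n y w 6) / side W n 11| ≤ e + e' := by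
  have hD := h.sides g
  have hp := hD.pos
  have ca' : ∀ s, |W.co n x y s| ≤ side W n s := fun s => h.bd0 g hx hy s
  have he : 0 ≤ e := (abs_nonneg _).trans h5
  have he' : 0 ≤ e' := (abs_nonneg _).trans h6
  rw [crd_div h, abs_div, abs_of_pos (hp 5), div_le_iff₀ (hp 5)] at h5
  rw [crd_div h, abs_div, abs_of_pos (hp 6), div_le_iff₀ (hp 6)] at h6
  rw [abs_div, abs_of_pos (hp 11), div_le_iff₀ (hp 11)]
  refine (abs_add_le _ _).trans ?_
  rw [abs_mul, abs_mul]
  have a := mul_le_mul (ca' 7) h5 (abs_nonneg _) (hp 7).le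
  have b := mul_le_mul (ca' 8) h6 (abs_nonneg _) (hp 8).le
  have c := mul_le_mul_of_nonneg_left hD.w11a he
  have d := mul_le_mul_of_nonneg_left hD.w11b he'
  nlinarith

end laws

section pin

variable {W : Wnd 12 ι} {K tp : ℝ} (h : WL W K tp) {n : ℕ} {E : ∀ n, Finset (ι n)}
  (r : Reg W E n) {i0 k0 : ℕ → ℕ} (hp : (i0 n, k0 n) ∈ (W.cfg E n).I)

include h r hp

/-- slot `2` seen from the pin, for a line of the class -/
theorem two_pin (hS2 : (2 : Fin 12) ∉ W.S) (ht2 : tp ≤ W.top 2)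
    (hsl : SlackD W n (W.B'.d n ^ tp)) {ε : ℝ} (hε : 0 ≤ ε) {i k : ℕ}
    (hi0 : (i, k0 n) ∈ (W.cfg E n).I)
    (hlo : |(W.cfg E n).rel (k0 n) (i0 n) i 2| ≤ W.B'.d n ^ (tp - ε))
    (hi : (i, k) ∈ (W.cfg E n).I) :
    |W.crd n (f0 W i0 k0 n) (W.rep n i k) 2| ≤ 4 * W.B'.d n ^ (tp - ε) := by
  obtain ⟨a1, a2, a3⟩ := r.spec hi0
  obtain ⟨b1, b2, b3⟩ := r.spec hi
  have c1 := crd2 h r.good hsl (r.spec hp).1 a1 b1
  have c2 := h.crd_l r.good a1 b1 (a2.trans b2.symm) hS2 ht2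
  rw [r.rel_of hS2] at hlo
  have m : W.B'.d n ^ tp ≤ W.B'.d n ^ (tp - ε) := rpow_anti W.B' n (by linarith)
  have u1 := abs_le.1 c1
  have u2 := abs_le.1 c2
  have u3 := abs_le.1 hlo
  change |W.crd n (W.rep n (i0 n) (k0 n)) (W.rep n i k) 2| ≤ _
  rw [abs_le]
  constructor <;> linarith [u1.1, u1.2, u2.1, u2.2, u3.1, u3.2]

/-- slot `2` between two lines of the class, at any height -/
theorem two_rel (hS2 : (2 : Fin 12) ∉ W.S) (ht2 : tp ≤ W.top 2)
    (hsl : SlackD W n (W.B'.d n ^ tp)) {ε : ℝ} (hε : 0 ≤ ε) {i l k : ℕ}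
    (hi0 : (i, k0 n) ∈ (W.cfg E n).I) (hl0 : (l, k0 n) ∈ (W.cfg E n).I)
    (hio : |(W.cfg E n).rel (k0 n) (i0 n) i 2| ≤ W.B'.d n ^ (tp - ε))
    (hlo : |(W.cfg E n).rel (k0 n) (i0 n) l 2| ≤ W.B'.d n ^ (tp - ε))
    (hi : (i, k) ∈ (W.cfg E n).I) (hl' : (l, k) ∈ (W.cfg E n).I) :
    |(W.cfg E n).rel k i l 2| ≤ 10 * W.B'.d n ^ (tp - ε) := by
  have c1 := two_pin h r hp hS2 ht2 hsl hε hi0 hio hi
  have c2 := two_pin h r hp hS2 ht2 hsl hε hl0 hlo hl'
  have c3 := crd2 h r.good hsl (r.spec hp).1 (r.spec hi).1 (r.spec hl').1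
  rw [r.rel_of hS2]
  change |W.crd n (f0 W i0 k0 n) (W.rep n l k) 2 - (W.crd n (f0 W i0 k0 n) (W.rep n i k) 2 +
    W.crd n (W.rep n i k) (W.rep n l k) 2)| ≤ _ at c3
  have m : W.B'.d n ^ tp ≤ W.B'.d n ^ (tp - ε) := rpow_anti W.B' n (by linarith)
  have u1 := abs_le.1 c1
  have u2 := abs_le.1 c2
  have u3 := abs_le.1 c3
  rw [abs_le]
  constructor <;> linarith [u1.1, u1.2, u2.1, u2.2, u3.1, u3.2]

/-- **slots `F, P`**, position and velocity functionals in the frame of the pin -/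
theorem pos10 (n11 : side W n 0 * side W n 10 = side W n 11)
    (hsl : SlackD W n (W.B'.d n ^ tp)) {η : ℝ} {k i l : ℕ}
    (hη : |W.crd n (f0 W i0 k0 n) (W.rep n i k) 2| ≤ η)
    (hi : (i, k) ∈ (W.cfg E n).I) (hl' : (l, k) ∈ (W.cfg E n).I) :
    |((Af W E i0 k0 11 10 n l + (W.cfg E n).z k * Vf W E i0 k0 10 n l) -
      (Af W E i0 k0 11 10 n i + (W.cfg E n).z k * Vf W E i0 k0 10 n i)) -
      ((W.cfg E n).rel k i l 11 -
        (W.co n (f0 W i0 k0 n) (W.rep n i k) 7 * W.co n (W.rep n i k) (W.rep n l k) 5 +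
          W.co n (f0 W i0 k0 n) (W.rep n i k) 8 * W.co n (W.rep n i k) (W.rep n l k) 6) /
            side W n 11)| ≤ η + 294 * W.B'.d n ^ tp ∧
    |(Vf W E i0 k0 10 n l - Vf W E i0 k0 10 n i) -
      ((W.cfg E n).rel k i l 10 -
        (W.co n (f0 W i0 k0 n) (W.rep n i k) 7 * W.co n (W.rep n i k) (W.rep n l k) 3 +
          W.co n (f0 W i0 k0 n) (W.rep n i k) 8 * W.co n (W.rep n i k) (W.rep n l k) 4) /
            side W n 10)| ≤ η + 102 * W.B'.d n ^ tp := by
  have h11 : (11 : Fin 12) ∉ SL := by decide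
  have h10 : (10 : Fin 12) ∉ SL := by decide
  have t1 := swap h r hp h11 h10 hi hl'
  have t2 := swap h r hp h11 h10 hi hi
  have t3 := Vf_rep h r hp h10 hl'
  have t4 := Vf_rep h r hp h10 hi
  have t5 := crd11 h r.good hsl n11 (r.spec hp).1 (r.spec hi).1 (r.spec hl').1 hη
  have t6 := crd10 h r.good hsl (r.spec hp).1 (r.spec hi).1 (r.spec hl').1 hη
  rw [r.rel_of (h.notS h11), r.rel_of (h.notS h10)]
  change |(W.crd n (f0 W i0 k0 n) (W.rep n l k) 11 + W.crd n (f0 W i0 k0 n) (W.rep n i k) 0 *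
      W.crd n (f0 W i0 k0 n) (W.rep n l k) 10) -
    (W.crd n (f0 W i0 k0 n) (W.rep n i k) 11 + W.crd n (f0 W i0 k0 n) (W.rep n i k) 0 *
      W.crd n (f0 W i0 k0 n) (W.rep n i k) 10) -
    (W.crd n (W.rep n i k) (W.rep n l k) 11 -
      (W.co n (f0 W i0 k0 n) (W.rep n i k) 7 * W.co n (W.rep n i k) (W.rep n l k) 5 +
        W.co n (f0 W i0 k0 n) (W.rep n i k) 8 * W.co n (W.rep n i k) (W.rep n l k) 6) /
          side W n 11)| ≤ _ at t5
  change |W.crd n (f0 W i0 k0 n) (W.rep n l k) 10 - (W.crd n (f0 W i0 k0 n) (W.rep n i k) 10 +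
    W.crd n (W.rep n i k) (W.rep n l k) 10 -
      (W.co n (f0 W i0 k0 n) (W.rep n i k) 7 * W.co n (W.rep n i k) (W.rep n l k) 3 +
        W.co n (f0 W i0 k0 n) (W.rep n i k) 8 * W.co n (W.rep n i k) (W.rep n l k) 4) /
          side W n 10)| ≤ _ at t6
  have v1 := abs_le.1 t1
  have v2 := abs_le.1 t2
  have v3 := abs_le.1 t3
  have v4 := abs_le.1 t4
  have v5 := abs_le.1 t5
  have v6 := abs_le.1 t6
  constructor
  · rw [abs_le]
    constructor <;> linarith [v1.1, v1.2, v2.1, v2.2, v5.1, v5.2]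
  · rw [abs_le]
    constructor <;> linarith [v3.1, v3.2, v4.1, v4.2, v6.1, v6.2]

end pin

/-- normalisation of a tilted strip -/
theorem tilt_unit {e1 e2 T : ℝ} (he : e1 ^ 2 + e2 ^ 2 = 1) (hT : |T| ≤ 5) :
    ∃ b : Fin 2 → ℝ, b 0 ^ 2 + b 1 ^ 2 = 1 ∧ ∀ (u v w : ℝ), |(e1 - e2 * T) * u + e2 * v| ≤ w →
      |b 0 * u + b 1 * v| ≤ 12 * w := by
  set N2 : ℝ := (e1 - e2 * T) ^ 2 + e2 ^ 2 with hN2
  have hT1 := abs_le.1 hT
  have hN : 1 / 144 ≤ N2 := by
    by_contra hcon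
    push Not at hcon
    have a1 : e2 ^ 2 < 1 / 144 := by nlinarith [sq_nonneg (e1 - e2 * T)]
    have a2 : (e1 - e2 * T) ^ 2 < 1 / 144 := by nlinarith [sq_nonneg e2]
    have b1 : |e2| < 1 / 12 := by
      rw [← abs_of_pos (show (0:ℝ) < 1 / 12 by norm_num)]
      exact sq_lt_sq.1 (by norm_num; linarith)
    have b2 : |e1 - e2 * T| < 1 / 12 := by
      rw [← abs_of_pos (show (0:ℝ) < 1 / 12 by norm_num)]
      exact sq_lt_sq.1 (by norm_num; linarith)
    have b3 : |e2 * T| ≤ 5 / 12 := by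
      rw [abs_mul]
      have := mul_le_mul b1.le hT (abs_nonneg _) (by norm_num)
      linarith
    have b4 : |e1| ≤ 1 / 2 := by
      have := abs_add_le (e1 - e2 * T) (e2 * T)
      rw [sub_add_cancel] at this
      linarith
    have b5 : e1 ^ 2 ≤ 1 / 4 := by
      rw [← sq_abs]
      nlinarith [abs_nonneg e1]
    linarith
  have hN0 : 0 < N2 := by linarith
  set N : ℝ := Real.sqrt N2 with hNd
  have hNN : N ^ 2 = N2 := Real.sq_sqrt hN0.le
  have hNp : 0 < N := Real.sqrt_pos.2 hN0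
  have hN12 : 1 / 12 ≤ N := by
    rw [hNd]
    apply Real.le_sqrt_of_sq_le
    norm_num
    linarith
  refine ⟨![(e1 - e2 * T) / N, e2 / N], ?_, fun u v w hw => ?_⟩
  · show ((e1 - e2 * T) / N) ^ 2 + (e2 / N) ^ 2 = 1
    rw [div_pow, div_pow, ← add_div, hNN, ← hN2]
    exact div_self hN0.ne'
  · show |(e1 - e2 * T) / N * u + e2 / N * v| ≤ 12 * w
    have hw0 : 0 ≤ w := (abs_nonneg _).trans hw
    have e : (e1 - e2 * T) / N * u + e2 / N * v = ((e1 - e2 * T) * u + e2 * v) / N := by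
      field_simp
    rw [e, abs_div, abs_of_pos hNp, div_le_iff₀ hNp]
    nlinarith

section win

variable {W : Wnd 12 ι} {K t : ℝ} (h : WL W K t) {E : ∀ n, Finset (ι n)}
  {Leg' : Set (Fin 12 → ℝ)} {nu : (Fin 12 → ℝ) → ℝ} {Dc σ : ℝ}

include h

theorem addP_thin (hbase : ∀ n, (W.cfg E n).ρ = W.B'.d n)
    (hr : ∀ᶠ n in (U : Filter ℕ), Reg W E n) (hS2 : (2 : Fin 12) ∉ W.S)
    (hsl : ∀ᶠ n in (U : Filter ℕ), SlackD W n (W.B'.d n ^ t)) {ca : Fin 12}
    (hca : ca = 3 ∨ ca = 4) :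
    AddP W.B' (W.cfg E) (thinB t 0 0) (fun c => thinB t c 0) ca 10 2 t := by
  intro c hc hct ε hε
  filter_upwards [hr, hsl, ev_const_le W.B' hε 9] with n r hs h9 k i l m hi hl' hm lo1 lo2
  have hx := (r.spec hi).1
  have hy := (r.spec hl').1
  have hw := (r.spec hm).1
  have h3 : (3 : Fin 12) ∉ SL := by decide
  have h4 : (4 : Fin 12) ∉ SL := by decide
  have h10 : (10 : Fin 12) ∉ SL := by decide
  have e2 := lo1 2
  have e3 := lo2 3
  have e4 := lo2 4
  rw [hbase] at e2 e3 e4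
  rw [r.rel_of hS2] at e2
  rw [r.rel_of (h.notS h3)] at e3
  rw [r.rel_of (h.notS h4)] at e4
  change |_| ≤ W.B'.d n ^ (t - ε) at e2
  change |_| ≤ W.B'.d n ^ (c - ε) at e3
  change |_| ≤ W.B'.d n ^ (c - ε) at e4
  have key := crd10 h r.good hs hx hy hw e2
  have til := tilt10 h r.good hx hy hw e3 e4
  have m1 : W.B'.d n ^ t ≤ W.B'.d n ^ (c - ε) := rpow_anti W.B' n (by linarith)
  have m2 : W.B'.d n ^ (t - ε) ≤ W.B'.d n ^ (c - ε) := rpow_anti W.B' n (by linarith)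
  have m3 : 9 * W.B'.d n ^ (c - ε) ≤ W.B'.d n ^ (c - 2 * ε) := pwb W.B' h9 (by linarith)
  constructor
  · have hpos := (rpos W.B' n (c - 2 * ε)).le
    rcases hca with rfl | rfl
    · rw [r.rel_of (h.notS h3), r.rel_of (h.notS h3), r.rel_of (h.notS h3),
        crd3 h (W.rep n i k) (W.rep n l k) (W.rep n m k), sub_self, abs_zero]
      exact hpos
    · rw [r.rel_of (h.notS h4), r.rel_of (h.notS h4), r.rel_of (h.notS h4),
        crd4 h (W.rep n i k) (W.rep n l k) (W.rep n m k), sub_self, abs_zero]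
      exact hpos
  · rw [r.rel_of (h.notS h10), r.rel_of (h.notS h10), r.rel_of (h.notS h10)]
    have u1 := abs_le.1 key
    have u2 := abs_le.1 til
    rw [abs_le]
    constructor <;> linarith [u1.1, u1.2, u2.1, u2.2]

theorem posD_thin (H : RModel W.B' (W.cfg E) σ t Leg' nu Dc)
    (hr : ∀ᶠ n in (U : Filter ℕ), Reg W E n) (hS2 : (2 : Fin 12) ∉ W.S) (ht2 : t ≤ W.top 2)
    (hsl : ∀ᶠ n in (U : Filter ℕ), SlackD W n (W.B'.d n ^ t))
    {ca xa cb xb : Fin 12} (hax : Axis ca xa cb xb) (hdim : DimC W ca xa cb xb t)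
    (n5 : ∀ n, side W n 0 * side W n 3 = side W n 5)
    (n6 : ∀ n, side W n 0 * side W n 4 = side W n 6)
    (n11 : ∀ n, side W n 0 * side W n 10 = side W n 11) {i0 k0 : ℕ → ℕ}
    (hp : ∀ n, (i0 n, k0 n) ∈ (W.cfg E n).I) {x : ℝ} (hx : 0 < x) (hxt : x ≤ t) (ht : 0 < t) :
    PosD W.B' (W.cfg E) i0 k0 (thinB t 0 0) (thinB t 0 x) ca 10 (Af W E i0 k0 xa ca)
      (Af W E i0 k0 11 10) (Vf W E i0 k0 ca) (Vf W E i0 k0 10) 2 x t := by
  have hbase : ∀ n, (W.cfg E n).ρ = W.B'.d n := H.base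
  have one_le : ∀ (n : ℕ) {u : ℝ}, u ≤ 0 → (1 : ℝ) ≤ W.B'.d n ^ u := fun n u hu =>
    Real.one_le_rpow_of_pos_of_le_one_of_nonpos (W.B'.pos n) (W.B'.lt n).le hu
  have hmono : ∀ (n : ℕ) {s u : ℝ}, s ≤ u → W.B'.d n ^ u ≤ W.B'.d n ^ s := fun n s u hh =>
    rpow_anti W.B' n hh
  have slc : ∀ {n i : ℕ} {p : Fin 12 → ℝ} {ε : ℝ} {a k : ℕ}, i ∈ (W.cfg E n).box p ε a k →
      (i, k) ∈ (W.cfg E n).I := fun hi => H.memSlice.1 (RCfg.mem_box.1 hi).1
  have lo2 : ∀ {n i : ℕ} {ε : ℝ}, i ∈ (W.cfg E n).box (thinB t 0 0) ε (i0 n) (k0 n) →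
      |(W.cfg E n).rel (k0 n) (i0 n) i 2| ≤ W.B'.d n ^ (t - ε) := by
    intro n i ε hi
    have := (RCfg.mem_box.1 hi).2 2
    rw [hbase] at this
    exact this
  have hs : ∀ n, (xa = 5 ∧ ca = 3 ∧ side W n 0 * side W n 3 = side W n 5) ∨
      (xa = 6 ∧ ca = 4 ∧ side W n 0 * side W n 4 = side W n 6) := by
    intro n
    rcases hax with ⟨a, b, -, -⟩ | ⟨a, b, -, -⟩
    · exact Or.inl ⟨b, a, n5 n⟩
    · exact Or.inr ⟨b, a, n6 n⟩
  have h5 : (5 : Fin 12) ∉ SL := by decide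
  have h6 : (6 : Fin 12) ∉ SL := by decide
  constructor
  · norm_num
  · intro ε hε
    filter_upwards [hr] with n r k hk
    obtain ⟨i, hi⟩ : ∃ i, (i, k) ∈ (W.cfg E n).I := by
      rw [r.cfg_eq] at hk ⊢
      obtain ⟨z, hz, rfl⟩ := mem_image.1 hk
      exact ⟨W.lc n z, mem_image.2 ⟨z, hz, rfl⟩⟩
    exact (z_le h r hi).trans (one_le n (by nlinarith))
  · intro ε hε
    filter_upwards [hr, ev_const_le W.B' hε 2] with n r h2 i hi i' hi'
    have key : ∀ s, |Vf W E i0 k0 s n i - Vf W E i0 k0 s n i'| ≤ W.B'.d n ^ (-(2 * ε)) := by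
      intro s
      have a := Vf_le h r (hp n) s (slc hi)
      have b := Vf_le h r (hp n) s (slc hi')
      refine (abs_sub _ _).trans ?_
      have : W.B'.d n ^ (-ε) ≤ W.B'.d n ^ (-(2 * ε)) := hmono n (by linarith)
      linarith
    exact ⟨key ca, key 10⟩
  · intro ε hε
    filter_upwards [hr, ev_const_le W.B' hε 4] with n r h4 i hi i' hi'
    have zz := z_le h r (hp n)
    have key : ∀ s s', |Af W E i0 k0 s s' n i - Af W E i0 k0 s s' n i'| ≤
        W.B'.d n ^ (-(2 * ε)) := by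
      intro s s'
      have b1 : ∀ {j}, (j, k0 n) ∈ (W.cfg E n).I → |Af W E i0 k0 s s' n j| ≤ 2 := by
        intro j hj
        have a := Vf_le h r (hp n) s hj
        have b := Vf_le h r (hp n) s' hj
        unfold Af
        refine (abs_sub _ _).trans ?_
        rw [abs_mul]
        have := mul_le_mul zz b (abs_nonneg _) zero_le_one
        linarith
      have a := b1 (slc hi)
      have b := b1 (slc hi')
      refine (abs_sub _ _).trans ?_
      have : W.B'.d n ^ (-ε) ≤ W.B'.d n ^ (-(2 * ε)) := hmono n (by linarith)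
      linarith
    exact ⟨key xa ca, key 11 10⟩
  · intro ε hε
    filter_upwards [hr, hsl, ev_const_le W.B' hε 301] with n r sl h301 k hk i hi hik l hlk hlo
    have cx := (posC h r (hp n) (hs n) hik hlk).1
    have tp := two_pin h r (hp n) hS2 ht2 sl hε.le (slc hi) (lo2 hi) hik
    have c11 := (pos10 h r (hp n) (n11 n) sl tp hik hlk).1
    have l5 : |(W.cfg E n).rel k i l 5| ≤ W.B'.d n ^ (x - ε) := by
      have := hlo 5
      rw [hbase] at this
      exact this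
    have l6 : |(W.cfg E n).rel k i l 6| ≤ W.B'.d n ^ (x - ε) := by
      have := hlo 6
      rw [hbase] at this
      exact this
    have l11 : |(W.cfg E n).rel k i l 11| ≤ W.B'.d n ^ (x - ε) := by
      have := hlo 11
      rw [hbase] at this
      exact this
    have lx : |(W.cfg E n).rel k i l xa| ≤ W.B'.d n ^ (x - ε) := by
      rcases hax with ⟨-, rfl, -, -⟩ | ⟨-, rfl, -, -⟩
      · exact l5
      · exact l6
    have til := tilt11 h r.good (r.spec (hp n)).1 (r.spec hik).1 (r.spec hlk).1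
      (e := W.B'.d n ^ (x - ε)) (e' := W.B'.d n ^ (x - ε))
      (by rw [← r.rel_of (h.notS h5)]; exact l5) (by rw [← r.rel_of (h.notS h6)]; exact l6)
    have m1 : W.B'.d n ^ t ≤ W.B'.d n ^ (x - ε) := hmono n (by linarith)
    have m1' : W.B'.d n ^ (t - ε) ≤ W.B'.d n ^ (x - ε) := hmono n (by linarith)
    have m2 : 301 * W.B'.d n ^ (x - ε) ≤ W.B'.d n ^ (x - 2 * ε) := pwb W.B' h301 (by linarith)
    have hpos := rpos W.B' n (x - ε)
    change |(W.co n (f0 W i0 k0 n) (W.rep n i k) 7 * W.co n (W.rep n i k) (W.rep n l k) 5 +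
      W.co n (f0 W i0 k0 n) (W.rep n i k) 8 * W.co n (W.rep n i k) (W.rep n l k) 6) /
        side W n 11| ≤ _ at til
    have u1 := abs_le.1 cx
    have u2 := abs_le.1 c11
    have u3 := abs_le.1 lx
    have u4 := abs_le.1 l11
    have u5 := abs_le.1 til
    constructor
    · rw [abs_le]
      constructor <;> linarith [u1.1, u1.2, u3.1, u3.2]
    · rw [abs_le]
      constructor <;> linarith [u2.1, u2.2, u4.1, u4.2, u5.1, u5.2]
  · intro ε hε
    filter_upwards [hr, hsl, ev_const_le W.B' hε 10] with n r sl h10 k hk i hi i' hi' hik hik' s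
    have tw := two_rel h r (hp n) hS2 ht2 sl hε.le (slc hi) (slc hi') (lo2 hi) (lo2 hi') hik hik'
    rw [hbase]
    have triv : ∀ s, thinB t 0 0 s = 0 → |(W.cfg E n).rel k i i' s| ≤
        W.B'.d n ^ (thinB t 0 0 s - 2 * ε) := by
      intro s hs
      rw [hs]
      exact (r.rel_le h hik hik' s).trans (one_le n (by nlinarith))
    have two : |(W.cfg E n).rel k i i' 2| ≤ W.B'.d n ^ (thinB t 0 0 2 - 2 * ε) :=
      tw.trans (pwb W.B' h10 (by show t - 2 * ε ≤ _; linarith))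
    fin_cases s
    exacts [triv _ rfl, triv _ rfl, two, triv _ rfl, triv _ rfl, triv _ rfl, triv _ rfl,
      triv _ rfl, triv _ rfl, triv _ rfl, triv _ rfl, triv _ rfl]
  · intro C hC
    refine ⟨C + 2, by linarith, fun ε hε => ?_⟩
    filter_upwards [hr, hsl, hdim, ev_const_le W.B' hε 2645] with n r sl dm hK k hk i hi l hl' hik
      hlk f1 f2 s
    have cx := (posC h r (hp n) (hs n) hik hlk).1
    have tp := two_pin h r (hp n) hS2 ht2 sl hε.le (slc hi) (lo2 hi) hik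
    have c11 := (pos10 h r (hp n) (n11 n) sl tp hik hlk).1
    have tw := two_rel h r (hp n) hS2 ht2 sl hε.le (slc hi) (slc hl') (lo2 hi) (lo2 hl') hik hlk
    obtain ⟨κ, hκ, hd⟩ := dm _ (r.spec hik).1
    have hd2 := (hd _ (r.spec hlk).1).2
    set Q := W.B'.d n ^ (x - (C + 1) * ε) with hQ
    have hQ0 : 0 < Q := rpos W.B' n _
    have m0 : W.B'.d n ^ (x - C * ε) ≤ Q := hmono n (by nlinarith)
    have m1 : W.B'.d n ^ t ≤ Q := hmono n (by nlinarith)
    have m2 : W.B'.d n ^ (t - ε) ≤ Q := hmono n (by nlinarith)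
    have m3 : 2645 * Q ≤ W.B'.d n ^ (x - (C + 2) * ε) := pwb W.B' hK (by linarith)
    have u1 := abs_le.1 cx
    have u2 := abs_le.1 f1
    have ra : |(W.cfg E n).rel k i l xa| ≤ 293 * Q := by
      rw [abs_le]
      constructor <;> linarith [u1.1, u1.2, u2.1, u2.2]
    have hxaS : xa ∉ W.S := by
      rcases hax with ⟨-, rfl, -, -⟩ | ⟨-, rfl, -, -⟩
      · exact h.notS h5
      · exact h.notS h6
    have hxbS : xb ∉ W.S := by
      rcases hax with ⟨-, -, -, rfl⟩ | ⟨-, -, -, rfl⟩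
      · exact h.notS h6
      · exact h.notS h5
    rw [← r.rel_of hxaS, ← r.rel_of hxbS] at hd2
    have rb : |(W.cfg E n).rel k i l xb| ≤ 1173 * Q := by
      have v1 : |κ * (W.cfg E n).rel k i l xa| ≤ 4 * (293 * Q) := by
        rw [abs_mul]
        exact mul_le_mul hκ ra (abs_nonneg _) (by norm_num)
      have v2 := abs_le.1 v1
      have v3 := abs_le.1 hd2
      rw [abs_le]
      constructor <;> linarith [v2.1, v2.2, v3.1, v3.2]
    have r5 : |(W.cfg E n).rel k i l 5| ≤ 1173 * Q := by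
      rcases hax with ⟨-, rfl, -, rfl⟩ | ⟨-, rfl, -, rfl⟩
      · exact ra.trans (by linarith)
      · exact rb
    have r6 : |(W.cfg E n).rel k i l 6| ≤ 1173 * Q := by
      rcases hax with ⟨-, rfl, -, rfl⟩ | ⟨-, rfl, -, rfl⟩
      · exact rb
      · exact ra.trans (by linarith)
    have til := tilt11 h r.good (r.spec (hp n)).1 (r.spec hik).1 (r.spec hlk).1
      (e := 1173 * Q) (e' := 1173 * Q)
      (by rw [← r.rel_of (h.notS h5)]; exact r5) (by rw [← r.rel_of (h.notS h6)]; exact r6)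
    change |(W.co n (f0 W i0 k0 n) (W.rep n i k) 7 * W.co n (W.rep n i k) (W.rep n l k) 5 +
      W.co n (f0 W i0 k0 n) (W.rep n i k) 8 * W.co n (W.rep n i k) (W.rep n l k) 6) /
        side W n 11| ≤ _ at til
    have r11 : |(W.cfg E n).rel k i l 11| ≤ 2645 * Q := by
      have v1 := abs_le.1 c11
      have v2 := abs_le.1 til
      have v3 := abs_le.1 f2
      rw [abs_le]
      constructor <;> linarith [v1.1, v1.2, v2.1, v2.2, v3.1, v3.2]
    rw [hbase]
    have triv : ∀ s, thinB t 0 x s = 0 → |(W.cfg E n).rel k i l s| ≤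
        W.B'.d n ^ (thinB t 0 x s - (C + 2) * ε) := by
      intro s hs
      rw [hs]
      exact (r.rel_le h hik hlk s).trans (one_le n (by nlinarith))
    have hm : ∀ {v : ℝ}, v ≤ 2645 * Q → v ≤ W.B'.d n ^ (x - (C + 2) * ε) := fun hv => hv.trans m3
    have two : |(W.cfg E n).rel k i l 2| ≤ W.B'.d n ^ (thinB t 0 x 2 - (C + 2) * ε) := by
      refine tw.trans (pwb W.B' (ε := ε) (by linarith) ?_)
      show t - (C + 2) * ε ≤ _
      nlinarith
    have five : |(W.cfg E n).rel k i l 5| ≤ W.B'.d n ^ (thinB t 0 x 5 - (C + 2) * ε) :=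
      hm (r5.trans (by linarith))
    have six : |(W.cfg E n).rel k i l 6| ≤ W.B'.d n ^ (thinB t 0 x 6 - (C + 2) * ε) :=
      hm (r6.trans (by linarith))
    have ele : |(W.cfg E n).rel k i l 11| ≤ W.B'.d n ^ (thinB t 0 x 11 - (C + 2) * ε) :=
      hm r11
    fin_cases s
    exacts [triv _ rfl, triv _ rfl, two, triv _ rfl, triv _ rfl, five, six, triv _ rfl,
      triv _ rfl, triv _ rfl, triv _ rfl, ele]
  · refine ⟨2, two_pos, fun ρ hρ hρt ε hε => ?_⟩
    filter_upwards [hr, hsl, hdim, ev_const_le W.B' hε 2460] with n r sl dm hK k hk i hi hik e1 e2 he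
    have tp := two_pin h r (hp n) hS2 ht2 sl hε.le (slc hi) (lo2 hi) hik
    obtain ⟨κ, hκ, hd⟩ := dm _ (r.spec hik).1
    obtain ⟨T, hT, htl⟩ := tilt h r.good hax (r.spec (hp n)).1 (r.spec hik).1 hκ
      (rpos W.B' n t).le
    obtain ⟨b, hb, hbl⟩ := tilt_unit he hT
    refine ⟨b, hb, fun l hl' hlk hst => ?_⟩
    have c3 := (posC h r (hp n) (hs n) hik hlk).2
    have c10 := (pos10 h r (hp n) (n11 n) sl tp hik hlk).2
    have hd1 := (hd _ (r.spec hlk).1).1
    have ht1 := htl _ (r.spec hlk).1 hd1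
    have hcaS : ca ∉ W.S := by
      rcases hax with ⟨rfl, -, -, -⟩ | ⟨rfl, -, -, -⟩
      · exact h.notS (by decide)
      · exact h.notS (by decide)
    rw [← r.rel_of hcaS] at ht1
    change |(W.co n (f0 W i0 k0 n) (W.rep n i k) 7 * W.co n (W.rep n i k) (W.rep n l k) 3 +
      W.co n (f0 W i0 k0 n) (W.rep n i k) 8 * W.co n (W.rep n i k) (W.rep n l k) 4) /
        side W n 10 - T * (W.cfg E n).rel k i l ca| ≤ _ at ht1
    have he1 : |e1| ≤ 1 := abs_le_one_iff_mul_self_le_one.2 (by nlinarith [sq_nonneg e2])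
    have he2 : |e2| ≤ 1 := abs_le_one_iff_mul_self_le_one.2 (by nlinarith [sq_nonneg e1])
    set v1 := Vf W E i0 k0 ca n l - Vf W E i0 k0 ca n i with hv1
    set v2 := Vf W E i0 k0 10 n l - Vf W E i0 k0 10 n i with hv2
    set ra := (W.cfg E n).rel k i l ca with hra
    set r10 := (W.cfg E n).rel k i l 10 with hr10
    set τ := (W.co n (f0 W i0 k0 n) (W.rep n i k) 7 * W.co n (W.rep n i k) (W.rep n l k) 3 +
      W.co n (f0 W i0 k0 n) (W.rep n i k) 8 * W.co n (W.rep n i k) (W.rep n l k) 4) /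
        side W n 10 with hτ
    have m1 : W.B'.d n ^ t ≤ W.B'.d n ^ (ρ - ε) := hmono n (by linarith)
    have m2 : W.B'.d n ^ (t - ε) ≤ W.B'.d n ^ (ρ - ε) := hmono n (by linarith)
    have m3 : W.B'.d n ^ ρ ≤ W.B'.d n ^ (ρ - ε) := hmono n (by linarith)
    have m4 : 2460 * W.B'.d n ^ (ρ - ε) ≤ W.B'.d n ^ (ρ - 2 * ε) := pwb W.B' hK (by linarith)
    set P := W.B'.d n ^ (ρ - ε) with hP
    have u1 : |e1 * (v1 - ra)| ≤ 96 * P := by
      rw [abs_mul]
      calc |e1| * |v1 - ra| ≤ 1 * (96 * P) :=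
            mul_le_mul he1 (c3.trans (by linarith)) (abs_nonneg _) zero_le_one
        _ = _ := one_mul _
    have u2 : |e2 * (v2 - (r10 - τ))| ≤ 106 * P := by
      rw [abs_mul]
      calc |e2| * |v2 - (r10 - τ)| ≤ 1 * (106 * P) :=
            mul_le_mul he2 (c10.trans (by linarith)) (abs_nonneg _) zero_le_one
        _ = _ := one_mul _
    have u3 : |e2 * (τ - T * ra)| ≤ P := by
      rw [abs_mul]
      calc |e2| * |τ - T * ra| ≤ 1 * P :=
            mul_le_mul he2 (ht1.trans m1) (abs_nonneg _) zero_le_one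
        _ = _ := one_mul _
    have key : |(e1 - e2 * T) * ra + e2 * r10| ≤ 205 * P := by
      have e : (e1 - e2 * T) * ra + e2 * r10 = (v1 * e1 + v2 * e2) - e1 * (v1 - ra) -
          e2 * (v2 - (r10 - τ)) + e2 * (τ - T * ra) := by ring
      rw [e]
      have w1 := abs_le.1 hst
      have w2 := abs_le.1 u1
      have w3 := abs_le.1 u2
      have w4 := abs_le.1 u3
      rw [abs_le]
      constructor <;> linarith [w1.1, w1.2, w2.1, w2.2, w3.1, w3.2, w4.1, w4.2]
    have fin := hbl ra r10 _ key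
    linarith

end win

end Crest.Agent.R116.Nar863
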