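import Crest.Agent.R116.Nar3_192

/-!
# R116 (S0155), K side, [NARROW] (helper192), part 4: the windows over the light chart

* `N1c.mono_set` : sub-families; `N1c.toNear` : the literal with `NearS`.
* `nsG_light` : windows with base points `x l`, record boxes `rc l`, scales `h l`:
  `NsG W sC 10 Phi3 (Ok3 Gm) q (C1 + 2 q + 1) R0`.
* `nsW_light` : 107's `NsW` (`Gm = 0`); `NsWc` + `nsWc_light` : the curved form (`Gm = 1`).
-/

set_option autoImplicit false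
set_option linter.unusedVariables false
set_option linter.unusedSectionVars false

open Finset Filter Topology

namespace Crest.Agent.R116.Nar192

open Crest.Agent.R138.Ex926
open Crest.Agent.R138.Dp76 (dpow_pos dpow_add dpow_le)
open Crest.Agent.R136.Net191
open Crest.Agent.R136.Qg926
open Crest.Agent.R136.Lq196
open Crest.Agent.R136.NSt107 (NsW)
open Crest.Agent.R116.ChL222
open Crest.Agent.R116.PL504 (uL cN coN)
open Crest.Agent.R116.EvL504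
open Crest.Agent.R116.LZg725
open Crest.Agent.R116.Gd222 (Vf NearS TSet)

open Classical in
theorem N1c.mono_set {B : Base} {I I0 : ℕ → Finset (ℕ × ℝ)}
    {co : ∀ n : ℕ, ℕ × ℝ → ℕ × ℝ → Fin 12 → ℝ} {N0 : ℕ → ℝ} {pc rc : Fin 12 → ℝ} {sC : Fin 12}
    {Gm y z t : ℝ} (h : N1c B I co N0 pc rc sC Gm y z t) (hsub : ∀ n, I0 n ⊆ I n) :
    N1c B I0 co N0 pc rc sC Gm y z t := by
  intro K hK ε hε
  filter_upwards [h K hK ε hε] with n hn x hx y0 hy0 hnear e1 e2 g h1 h2 h3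
  refine le_trans ?_ (hn x (hsub n hx) y0 (hsub n hy0) hnear e1 e2 g h1 h2 h3)
  exact Nat.cast_le.2 (card_le_card (filter_subset_filter _ (hsub n)))

open Classical in
theorem N0c.mono_set {B : Base} {I I0 : ℕ → Finset (ℕ × ℝ)}
    {co : ∀ n : ℕ, ℕ × ℝ → ℕ × ℝ → Fin 12 → ℝ} {N0 : ℕ → ℝ} {rc : Fin 12 → ℝ}
    {t : ℝ} (h : N0c B I co N0 rc t) (hsub : ∀ n, I0 n ⊆ I n) : N0c B I0 co N0 rc t := by
  intro K hK ε hε
  filter_upwards [h K hK ε hε] with n hn y0 hy0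
  refine le_trans ?_ (hn y0 (hsub n hy0))
  exact Nat.cast_le.2 (card_le_card (filter_subset_filter _ (hsub n)))

section light

variable {B : Base} {I0 I' : ℕ → Finset (ℕ × ℝ)} {lev : ℕ → ℚ → ℕ} {w : Fin 2 → ℕ → ℚ → ℝ}
    {w0 sa sb : ℝ} {fl : ℕ → ℕ × ℝ → LInc} {C R w0' s s' : ℝ} {kz : Fin 12}
    {PD : Set (Fin 12 → ℝ)} {D : (Fin 12 → ℝ) → ℝ} {r o : ℝ → Fin 12 → ℝ} {E : ℝ → ℝ}
    {T : Fin 12 → Prop} {ν own : (Fin 12 → ℝ) → ℝ} {c₀ : ℝ} {N0 : ℕ → ℝ}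

/-- side data of the stage `l` : class `p`, record box `rc`, scale `h` -/
structure StgL (B : Base) (I0 : ℕ → Finset (ℕ × ℝ))
    (co : ∀ n : ℕ, ℕ × ℝ → ℕ × ℝ → Fin 12 → ℝ) (N0 : ℕ → ℝ) (R : ℝ) (sC : Fin 12)
    (Gm q C1 R0 Dv : ℝ) (p rc : Fin 12 → ℝ) (h : ℝ) : Prop where
  p_leg : p ∈ Leg monL R
  rc_leg : rc ∈ Leg monL R
  eC : p sC = rc sC
  eP : p 10 = rc 10
  rC : p sC + 2 * (R0 * h) ≤ R
  rP : p 10 + 2 * (R0 * h) ≤ R
  n0 : N0c B I0 co N0 rc Dv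
  n1 : ∀ y z : ℝ, 0 < y → y ≤ R0 * h → 0 < z → z ≤ R0 * h →
    N1c B I0 co N0 p rc sC Gm y z (Dv + C1 * z - q * y)

/-- **strips of the windows**, light chart -/
theorem nsG_light
    (hx : ExtQ B I0 I' (coN B lev w w0 sa sb fl) monL C R kz w0' s PD D r o E T ν own c₀)
    (hR : 0 ≤ R) (hc : CombQ B I0 I' lev (coN B lev w w0 sa sb fl) monL C R N0 c₀)
    {sC : Fin 12} (hsC : sC = 3 ∨ sC = 4) {κA κB Gm : ℝ} (hκA : 0 < κA) (hκB : 0 < κB)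
    (hGm : 0 ≤ Gm) {q C1 R0 : ℝ} (hq : 0 ≤ q) (hC1 : 0 ≤ C1) (hR0 : 0 < R0)
    {x rc : ℕ → Fin 12 → ℝ} {h Dv : ℕ → ℝ} (hh : ∀ l, 0 < h l)
    (hst : ∀ᶠ l in (atTop : Filter ℕ), StgL B I0 (coN B lev w w0 sa sb fl) N0 R sC Gm q C1 R0
      (Dv l) (x l) (rc l) (h l))
    (hfr : ∀ ε : ℝ, 0 < ε → ∀ᶠ l in (atTop : Filter ℕ),
      c₀ + Dv l - ν (x l ⊔ rc l) ≤ ε * h l) :
    ∃ k : ℕ → ℕ, Tendsto k U atTop ∧ ∀ k' : ℕ → ℕ, Tendsto k' U atTop →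
      (∀ᶠ n in (U : Filter ℕ), k' n ≤ k n) → ∀ W : Wnd 12 (fun _ => ℕ × ℝ), W.Ok → W.I = I0 →
        W.J = I' → W.B = B → W.co = coN B lev w w0 sa sb fl → W.M = monL → W.C = C →
        (∀ n, W.X n = x (k' n)) →
        (∀ n, W.B'.d n = B.d n ^ h (k' n)) → W.kap sC = κA → W.kap 10 = κB →
        (∀ ε : ℝ, 0 < ε → ∀ᶠ n in (U : Filter ℕ),
          B.d n ^ (-ν (x (k' n))) * W.B'.d n ^ ε ≤ ((W.Cl n).card : ℝ)) →
        NsG W sC 10 Phi3 (Ok3 Gm) q (C1 + q + q + 1) R0 := by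
  refine nsG_of_stages (loss := fun l => c₀ + Dv l - ν (x l ⊔ rc l)) hq (by linarith) hR0 hh
    (fun D D' hDD θ hθ => ⟨hθ.1, hθ.2.trans (mul_le_mul_of_nonneg_left hDD hGm)⟩) hfr ?_
  filter_upwards [hst] with l hl y hy hyR z hz hzR
  have h1 := strB_light (y := y) (z := z) (t := Dv l + C1 * z) (t0 := Dv l) (q := q) hx hR hc hsC
    hκA hκB hGm hl.p_leg hl.rc_leg hl.eC hl.eP hq hy.le hz.le
    (by nlinarith) (by linarith [hl.rC]) (by linarith [hl.rP]) hl.n0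
    (fun y' hy' hyy => hl.n1 y' z hy' (hyy.trans hyR) hz hzR)
  have e0 : ν (x l) - ν (x l ⊔ rc l) + c₀ + (Dv l + C1 * z - q * y + q * z) =
      ν (x l) + (c₀ + Dv l - ν (x l ⊔ rc l)) - q * y + (C1 + q) * z := by ring
  rw [e0] at h1
  exact h1

end light

/-! ### literal forms -/

section forms

variable {m : ℕ} {ι : ℕ → Type*} [∀ n, DecidableEq (ι n)] {W : Wnd m ι} {A Bk : Fin m}
  {q C0 R0 Gm : ℝ}

/-- 107's form -/
theorem NsG.toNsW (h : NsG W A Bk Phi3 (Ok3 Gm) q C0 R0) (hGm : 0 ≤ Gm) (hC0 : 0 < C0) :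
    NsW W A Bk q R0 := by
  classical
  intro t ht htR ε hε
  filter_upwards [h t ht htR (ε / C0) (div_pos hε hC0)] with n hn i hi b hb
  have hpos : 0 < W.B'.d n ^ (-(ε / C0)) := Real.rpow_pos_of_pos (W.B'.pos n) _
  have h1 := hn i hi (b 0, b 1, 0) ⟨hb, by
    show |(0:ℝ)| ≤ _
    rw [abs_zero]; exact mul_nonneg hGm hpos.le⟩ 0
  have e1 : q * t - C0 * (ε / C0) = q * t - ε := by
    rw [mul_div_cancel₀ _ hC0.ne']
  rw [e1] at h1
  refine le_trans (le_of_eq ?_) h1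
  congr 2
  ext j
  simp only [mem_filter]
  have e2 : Phi3 (b 0, b 1, 0) (W.crd n i j A) (W.crd n i j Bk) - 0 =
      b 0 * W.crd n i j A + b 1 * W.crd n i j Bk := by
    unfold Phi3; simp only; ring
  rw [e2]

open Classical in
/-- **no curved strip of the class is heavy** (905's form) -/
def NsWc (W : Wnd m ι) (cA cB : Fin m) (q C0 R0 : ℝ) : Prop :=
  ∀ t : ℝ, 0 < t → t ≤ R0 → ∀ ε : ℝ, 0 < ε → ∀ᶠ n in (U : Filter ℕ), ∀ i ∈ W.Cl n,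
    ∀ b0 b1 g u : ℝ, b0 ^ 2 + b1 ^ 2 = 1 → |g| ≤ W.B'.d n ^ (-ε) →
      (((W.Cl n).filter fun j => |b0 * W.crd n i j cA + b1 * (W.crd n i j cB +
        g * (W.crd n i j cA) ^ 2) - u| ≤ W.B'.d n ^ t).card : ℝ) ≤
        W.B'.d n ^ (q * t - C0 * ε) * (W.Cl n).card

theorem NsG.toNsWc (h : NsG W A Bk Phi3 (Ok3 1) q C0 R0) : NsWc W A Bk q C0 R0 := by
  intro t ht htR ε hε
  filter_upwards [h t ht htR ε hε] with n hn i hi b0 b1 g u hb hg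
  have h1 := hn i hi (b0, b1, g) ⟨hb, by
    show |g| ≤ _
    rw [one_mul]; exact hg⟩ u
  exact h1

end forms

end Crest.Agent.R116.Nar192
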