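import Crest.Agent.R116.Nar4_192
import Crest.Agent.R116.Gt3_222

/-!
# R116 (S0155), K side, [NARROW] (helper192), part 5: from strips at a base flag to `N1c`

* `coL_trn_flag`, `nat8_trn_flag` : the flag of `x` transported to the ray of `y0`, seen from `y0`.
* `SAB` : strips seen from an arbitrary base flag sequence (`Gm = 0`: 222's `strip_A`, `strip_B`,
  see `sab_lin`; `Gm = 1`: curved).
* `n1c_of_sab` : `SAB` ⊢ `N1c` (literals of 504 and 468).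
-/

set_option autoImplicit false
set_option linter.unusedVariables false
set_option linter.unusedSectionVars false

open Finset Filter Topology

namespace Crest.Agent.R116.Nar192

open Crest.Agent.R138.Defs (E2)
open Crest.Agent.R138.Ex926 (Base U QProf)
open Crest.Agent.R138.Mk163 (zc zl rho alive)
open Crest.Agent.R138
open Crest.Agent.R136.MkA627
open Crest.Agent.R136.Net191
open Crest.Agent.R136.PqG464
open Crest.Agent.R116.LZg725
open Crest.Agent.R116.ChL222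
open Crest.Agent.R116.PL504 (uL eL)
open Crest.Agent.R116.Gd222

/-! ### the flag of `x` at the ray of `y`, seen from `y` -/

theorem coL_trn_flag (x y l : LInc) :
    coL (trn 1 x y) l 0 = coL y l 0 ∧ coL (trn 1 x y) l 3 = coL y l 3 ∧
    coL (trn 1 x y) l 4 = coL y l 4 ∧ coL (trn 1 x y) l 5 = coL y l 5 ∧
    coL (trn 1 x y) l 6 = coL y l 6 ∧ coL (trn 1 x y) l 9 = coL y l 9 ∧
    coL (trn 1 x y) l 10 = coL y l 10 - (coL x y 7 * coL y l 3 + coL x y 8 * coL y l 4) -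
      coL x y 2 * ((coL y l 3 ^ 2 + coL y l 4 ^ 2) / 2) -
      2 * coL x y 1 * (coL y l 5 * coL y l 3 + coL y l 6 * coL y l 4 - coL y l 9) ∧
    coL (trn 1 x y) l 11 = coL y l 11 - (coL x y 7 * coL y l 5 + coL x y 8 * coL y l 6) -
      coL x y 2 * coL y l 9 - coL x y 1 * (coL y l 5 ^ 2 + coL y l 6 ^ 2) := by
  simp only [coL, nuL, trn, LInc.p1, LInc.p2, LInc.ph, Matrix.cons_val]
  refine ⟨trivial, trivial, trivial, trivial, trivial, trivial, by ring, by ring⟩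

theorem nat8_trn_flag {x y l : LInc} {K R c c' : ℝ} (hR : 0 < R) (hc : 0 < c) (hc' : 0 < c')
    (hK : 1 ≤ K) (h : Nat8 y l K R c c') (f1 : |coL x y 1| ≤ K * (c' / (c ^ 2 * R)))
    (f2 : |coL x y 2| ≤ K * (c' / c ^ 2)) (f7 : |coL x y 7| ≤ K * (c' / c))
    (f8 : |coL x y 8| ≤ K * (c' / c)) : Nat8 (trn 1 x y) l (10 * K ^ 3) R c c' := by
  obtain ⟨e0, e3, e4, e5, e6, e9, e10, e11⟩ := coL_trn_flag x y l
  have hK0 : 0 < K := by linarith
  have hK2 : K ≤ K ^ 2 := le_self_pow₀ hK (by norm_num)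
  have hK3 : K ^ 2 ≤ K ^ 3 := pow_le_pow_right₀ hK (by norm_num)
  have up : ∀ {a X : ℝ}, 0 ≤ X → |a| ≤ K * X → |a| ≤ 10 * K ^ 3 * X := by
    intro a X hX ha
    refine ha.trans (mul_le_mul_of_nonneg_right ?_ hX)
    nlinarith [pow_pos hK0 3]
  have mm : ∀ {a b X Y Z : ℝ}, 0 ≤ X → |a| ≤ X → |b| ≤ Y → X * Y = Z → |a * b| ≤ Z := by
    intro a b X Y Z hX h1 h2 h3
    rw [abs_mul, ← h3]
    exact mul_le_mul h1 h2 (abs_nonneg _) hX
  have p1 : 0 ≤ K * (c' / (c ^ 2 * R)) := by positivity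
  have p2 : 0 ≤ K * (c' / c ^ 2) := by positivity
  have p7 : 0 ≤ K * (c' / c) := by positivity
  have g3 := h.h3
  have g4 := h.h4
  have g5 := h.h5
  have g6 := h.h6
  have g9 := h.h9
  have sqb : ∀ {a b : ℝ}, |a| ≤ b → |a ^ 2| ≤ b ^ 2 := fun {a b} ha => by
    rw [abs_pow]
    exact pow_le_pow_left₀ (abs_nonneg _) ha 2
  refine ⟨by rw [e0]; exact up hR.le h.h0, by rw [e3]; exact up hc.le g3,
    by rw [e4]; exact up hc.le g4, by rw [e5]; exact up (by positivity) g5,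
    by rw [e6]; exact up (by positivity) g6, by rw [e9]; exact up (by positivity) g9, ?_, ?_⟩
  · rw [e10]
    have a1 : |coL x y 7 * coL y l 3| ≤ K ^ 2 * c' :=
      mm p7 f7 g3 (by field_simp)
    have a2 : |coL x y 8 * coL y l 4| ≤ K ^ 2 * c' :=
      mm p7 f8 g4 (by field_simp)
    have s3 := sqb g3
    have s4 := sqb g4
    have a3 : |(coL y l 3 ^ 2 + coL y l 4 ^ 2) / 2| ≤ K ^ 2 * c ^ 2 := by
      rw [abs_div, abs_of_pos (by norm_num : (0:ℝ) < 2), div_le_iff₀ (by norm_num)]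
      refine (abs_add_le _ _).trans ((add_le_add s3 s4).trans (le_of_eq (by ring)))
    have a4 : |coL x y 2 * ((coL y l 3 ^ 2 + coL y l 4 ^ 2) / 2)| ≤ K ^ 3 * c' :=
      mm p2 f2 a3 (by field_simp)
    have a5 : |coL y l 5 * coL y l 3| ≤ K ^ 2 * (c ^ 2 * R) :=
      mm (by positivity) g5 g3 (by ring)
    have a6 : |coL y l 6 * coL y l 4| ≤ K ^ 2 * (c ^ 2 * R) :=
      mm (by positivity) g6 g4 (by ring)
    have a7 : |coL y l 9| ≤ K ^ 2 * (c ^ 2 * R) :=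
      g9.trans (mul_le_mul_of_nonneg_right hK2 (by positivity))
    have a8 : |coL y l 5 * coL y l 3 + coL y l 6 * coL y l 4 - coL y l 9| ≤
        3 * K ^ 2 * (c ^ 2 * R) :=
      (abs_sub _ _).trans ((add_le_add ((abs_add_le _ _).trans (add_le_add a5 a6)) a7).trans
        (le_of_eq (by ring)))
    have a9 : |2 * coL x y 1 * (coL y l 5 * coL y l 3 + coL y l 6 * coL y l 4 - coL y l 9)| ≤
        6 * K ^ 3 * c' := by
      have : |2 * coL x y 1| ≤ 2 * (K * (c' / (c ^ 2 * R))) := by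
        rw [abs_mul, abs_of_pos (by norm_num : (0:ℝ) < 2)]
        exact mul_le_mul_of_nonneg_left f1 (by norm_num)
      exact mm (by positivity) this a8 (by field_simp; ring)
    have b0 : |coL y l 10| ≤ K * c' := h.h10
    have b1 : K * c' ≤ K ^ 3 * c' := mul_le_mul_of_nonneg_right (hK2.trans hK3) hc'.le
    have b2 : K ^ 2 * c' ≤ K ^ 3 * c' := mul_le_mul_of_nonneg_right hK3 hc'.le
    calc |coL y l 10 - (coL x y 7 * coL y l 3 + coL x y 8 * coL y l 4) -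
          coL x y 2 * ((coL y l 3 ^ 2 + coL y l 4 ^ 2) / 2) -
          2 * coL x y 1 * (coL y l 5 * coL y l 3 + coL y l 6 * coL y l 4 - coL y l 9)|
        ≤ K * c' + (K ^ 2 * c' + K ^ 2 * c') + K ^ 3 * c' + 6 * K ^ 3 * c' :=
          (abs_sub _ _).trans (add_le_add ((abs_sub _ _).trans (add_le_add ((abs_sub _ _).trans
            (add_le_add b0 ((abs_add_le _ _).trans (add_le_add a1 a2)))) a4)) a9)
      _ ≤ 10 * K ^ 3 * c' := by linarith
  · rw [e11]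
    have a1 : |coL x y 7 * coL y l 5| ≤ K ^ 2 * (c' * R) :=
      mm p7 f7 g5 (by field_simp)
    have a2 : |coL x y 8 * coL y l 6| ≤ K ^ 2 * (c' * R) :=
      mm p7 f8 g6 (by field_simp)
    have a4 : |coL x y 2 * coL y l 9| ≤ K ^ 2 * (c' * R) :=
      mm p2 f2 g9 (by field_simp)
    have s5 := sqb g5
    have s6 := sqb g6
    have a8 : |coL y l 5 ^ 2 + coL y l 6 ^ 2| ≤ 2 * K ^ 2 * (c * R) ^ 2 :=
      (abs_add_le _ _).trans ((add_le_add s5 s6).trans (le_of_eq (by ring)))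
    have a9 : |coL x y 1 * (coL y l 5 ^ 2 + coL y l 6 ^ 2)| ≤ 2 * K ^ 3 * (c' * R) :=
      mm p1 f1 a8 (by field_simp)
    have hcR : 0 ≤ c' * R := by positivity
    have b0 : |coL y l 11| ≤ K * (c' * R) := h.h11
    have b1 : K * (c' * R) ≤ K ^ 3 * (c' * R) := mul_le_mul_of_nonneg_right (hK2.trans hK3) hcR
    have b2 : K ^ 2 * (c' * R) ≤ K ^ 3 * (c' * R) := mul_le_mul_of_nonneg_right hK3 hcR
    have b3 : 0 ≤ K ^ 3 * (c' * R) := by positivity
    calc |coL y l 11 - (coL x y 7 * coL y l 5 + coL x y 8 * coL y l 6) -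
          coL x y 2 * coL y l 9 - coL x y 1 * (coL y l 5 ^ 2 + coL y l 6 ^ 2)|
        ≤ K * (c' * R) + (K ^ 2 * (c' * R) + K ^ 2 * (c' * R)) + K ^ 2 * (c' * R) +
            2 * K ^ 3 * (c' * R) :=
          (abs_sub _ _).trans (add_le_add ((abs_sub _ _).trans (add_le_add ((abs_sub _ _).trans
            (add_le_add b0 ((abs_add_le _ _).trans (add_le_add a1 a2)))) a4)) a9)
      _ ≤ 10 * K ^ 3 * (c' * R) := by linarith

/-- flags of a near pair, in absolute units -/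
theorem flags_near (B : Base) {lev : ℕ → ℚ → ℕ} {inc : ℕ → ℕ × ℝ → LInc} {σ : Fin 2 → ℕ → ℝ}
    (hσ : ∀ j n, 0 < σ j n) {w0 sa sb v t y K : ℝ} {p : Fin 12 → ℝ} (hK : 0 ≤ K)
    (p1 : sb + y - 2 * (sa + t) - (w0 + v) ≤ p 1) (p2 : sb + y - 2 * (sa + t) ≤ p 2)
    (p7 : sb + y - (sa + t) ≤ p 7) (p8 : sb + y - (sa + t) ≤ p 8) {n : ℕ} {x z : ℕ × ℝ}
    (hn : Near (coN B lev inc σ w0 sa sb n) (B.d n) p K x z) :
    |coL (inc n x) (inc n z) 1| ≤ K * ((σ 1 n * B.d n ^ y) / ((σ 0 n * B.d n ^ t) ^ 2 *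
      (rho (lev n 0) * B.d n ^ v))) ∧
    |coL (inc n x) (inc n z) 2| ≤ K * ((σ 1 n * B.d n ^ y) / (σ 0 n * B.d n ^ t) ^ 2) ∧
    |coL (inc n x) (inc n z) 7| ≤ K * ((σ 1 n * B.d n ^ y) / (σ 0 n * B.d n ^ t)) ∧
    |coL (inc n x) (inc n z) 8| ≤ K * ((σ 1 n * B.d n ^ y) / (σ 0 n * B.d n ^ t)) := by
  have r0 := rho_pos (lev n 0)
  have s0 := hσ 0 n
  have s1 := hσ 1 n
  have dp := fun a => Dp76.dpow_pos B n a
  have e2 : (2 : ℝ) ^ lev n 0 = (rho (lev n 0))⁻¹ := pow2_eq _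
  have key : ∀ (k : Fin 12) {u P Y : ℝ}, coN B lev inc σ w0 sa sb n x z k =
      u * coL (inc n x) (inc n z) k → 0 < u → B.d n ^ p k ≤ u * Y →
      |coL (inc n x) (inc n z) k| ≤ K * Y := by
    intro k u P Y h1 h2 h3
    have h4 := hn k
    rw [h1, abs_mul, abs_of_pos h2] at h4
    have h5 := h4.trans (mul_le_mul_of_nonneg_left h3 hK)
    have h6 : u * |coL (inc n x) (inc n z) k| ≤ u * (K * Y) := by linarith
    exact le_of_mul_le_mul_left h6 h2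
  have hlc : 0 < B.d n ^ sa / σ 0 n := div_pos (dp _) s0
  have hlp : 0 < B.d n ^ sb / σ 1 n := div_pos (dp _) s1
  have hlz : 0 < (2:ℝ) ^ lev n 0 * B.d n ^ w0 := mul_pos (by positivity) (dp _)
  have E : ∀ a b : ℝ, B.d n ^ (a + b) = B.d n ^ a * B.d n ^ b := fun a b => Dp76.dpow_add B n a b
  have Em : ∀ a b : ℝ, B.d n ^ (a - b) = B.d n ^ a / B.d n ^ b := fun a b =>
    Real.rpow_sub (B.pos n) a b
  have E2' : ∀ a : ℝ, B.d n ^ (2 * a) = (B.d n ^ a) ^ 2 := fun a => by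
    rw [two_mul, E, sq]
  refine ⟨?_, ?_, ?_, ?_⟩
  · refine key 1 (u := (B.d n ^ sb / σ 1 n) / ((B.d n ^ sa / σ 0 n) ^ 2 *
      (2 ^ lev n 0 * B.d n ^ w0))) (P := 0) rfl (div_pos hlp (mul_pos (pow_pos hlc 2) hlz)) ?_
    refine (Dp76.dpow_le B n p1).trans (le_of_eq ?_)
    rw [Em, Em, E2', E, E, E, e2]
    have h1 := (dp sa).ne'
    have h2 := (dp sb).ne'
    have h3 := (dp t).ne'
    have h4 := (dp y).ne'
    have h5 := (dp w0).ne'
    have h6 := (dp v).ne'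
    have h7 := r0.ne'
    field_simp
  · refine key 2 (u := (B.d n ^ sb / σ 1 n) / (B.d n ^ sa / σ 0 n) ^ 2) (P := 0) rfl (div_pos hlp (pow_pos hlc 2)) ?_
    refine (Dp76.dpow_le B n p2).trans (le_of_eq ?_)
    rw [Em, E2', E, E]
    have h1 := (dp sa).ne'
    have h2 := (dp sb).ne'
    have h3 := (dp t).ne'
    have h4 := (dp y).ne'
    field_simp
  · refine key 7 (u := (B.d n ^ sb / σ 1 n) / (B.d n ^ sa / σ 0 n)) (P := 0) rfl (div_pos hlp hlc) ?_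
    refine (Dp76.dpow_le B n p7).trans (le_of_eq ?_)
    rw [Em, E, E]
    have h1 := (dp sa).ne'
    have h2 := (dp sb).ne'
    have h3 := (dp t).ne'
    have h4 := (dp y).ne'
    field_simp
  · refine key 8 (u := (B.d n ^ sb / σ 1 n) / (B.d n ^ sa / σ 0 n)) (P := 0) rfl (div_pos hlp hlc) ?_
    refine (Dp76.dpow_le B n p8).trans (le_of_eq ?_)
    rw [Em, E, E]
    have h1 := (dp sa).ne'
    have h2 := (dp sb).ne'
    have h3 := (dp t).ne'
    have h4 := (dp y).ne'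
    field_simp

/-! ### strips at a base flag -/

open Classical in
/-- **strips seen from an arbitrary base flag sequence** -/
def SAB (B : Base) (I : ℕ → Finset (ℕ × ℝ)) (lev : ℕ → ℚ → ℕ) (inc : ℕ → ℕ × ℝ → LInc)
    (σ : Fin 2 → ℕ → ℝ) (q : Fin 2 → ℝ) (A : ℕ → ℝ) (g s w0 sa sb θ v t yy Gm C1 γ y z : ℝ) :
    Prop :=
  ∀ i : ℕ → LInc, BaseOK B lev σ θ i → (∀ᶠ n in (U : Filter ℕ), 3 / 8 ≤ ‖vb (i n)‖) →
  ∀ t1 t2 e1 e2 gg : ℕ → ℝ,
    (∀ᶠ n in (U : Filter ℕ), |t1 n| ≤ 1 ∧ |t2 n| ≤ 1 ∧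
      ‖vb (i n)‖ ≤ 32 * |(i n).b1 * t2 n - (i n).b2 * t1 n|) →
    (∀ᶠ n in (U : Filter ℕ), e1 n ^ 2 + e2 n ^ 2 = 1) → ∀ K : ℝ, 1 ≤ K →
    (∀ᶠ n in (U : Filter ℕ), |gg n| ≤ Gm * (K * B.d n ^ (-z))) → ∀ ε : ℝ, 0 < ε →
    ∀ᶠ n in (U : Filter ℕ), (((I n).filter fun l =>
        Nat8 (i n) (inc n l) K (rho (lev n 0) * B.d n ^ v) (σ 0 n * B.d n ^ t)
          (σ 1 n * B.d n ^ yy) ∧
        |e1 n * ((t1 n * coL (i n) (inc n l) 3 + t2 n * coL (i n) (inc n l) 4) /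
            (σ 0 n * B.d n ^ t)) + e2 n * (coL (i n) (inc n l) 10 / (σ 1 n * B.d n ^ yy) +
            gg n * ((t1 n * coL (i n) (inc n l) 3 + t2 n * coL (i n) (inc n l) 4) /
              (σ 0 n * B.d n ^ t)) ^ 2)| ≤ K * B.d n ^ y).card : ℝ) ≤
      (A n * VL σ q lev n * B.d n ^ (-(1 - s))) *
        B.d n ^ (-(DL g s q w0 sa sb (nbS w0 sa sb v t yy) - γ * y + C1 * z + ε))

section strips

variable {B : Base} {I : ℕ → Finset (ℕ × ℝ)} {G : Geo TSet (Fin 2)} {lev : ℕ → ℚ → ℕ}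
    {A : ℕ → ℝ} {g s : ℝ} {τ : Fin 2 → ℝ → ℝ} {f : ℕ → ℚ → ℕ → ℤ → ℕ} {b : ℕ → ℚ → ℕ → TSet}
    {vm : ℕ → ℚ → ℝ} {w : Fin 2 → ℕ → ℚ → ℝ}
    {inc : ℕ → ℕ × ℝ → LInc} {σ : Fin 2 → ℕ → ℝ} {q : Fin 2 → ℝ} {M0 c0 Rg θ : ℝ}

set_option maxHeartbeats 1000000 in
/-- the linear case, from 222's `strip_A`, `strip_B` -/
theorem sab_lin (hM : MkA B I G lev A (fun v => g * v) (fun v => s * v) τ f b vm w)
    (h : LData B I G lev inc σ q M0 c0 Rg θ) {k0 : ℝ}
    (hk : ∀ ε : ℝ, 0 < ε → ∀ᶠ n in (U : Filter ℕ), σ 1 n ≤ σ 0 n * B.d n ^ (k0 - ε))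
    (w0 sa sb : ℝ) (hq0 : 0 < q 0) (hq1 : 0 < q 1) {v t yy y z C1 : ℝ} (hC1 : 0 ≤ C1)
    (hz : 0 ≤ z) (hθ : θ ≤ v) (hv0 : 0 ≤ v)
    (hv1 : v ≤ 1) (hy : 0 < y) (hyt : y < t) (hRt : t + y < Rg) (hRy : |yy| + y < Rg)
    (hty : t + y < yy + k0) :
    SAB B I lev inc σ q A g s w0 sa sb θ v t yy 0 C1 (gam q) y z := by
  classical
  intro i hi hb t1 t2 e1 e2 gg hdir he K hK hgg ε hε
  have ht : 0 < t := by linarith
  have hκ := kap_pos hq1
  have hκ1 : kap q ≤ 1 := (kap_le hq1).trans (by norm_num)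
  have he1 : ∀ᶠ n in (U : Filter ℕ), |e1 n| ≤ 1 := by
    filter_upwards [he] with n h1
    rw [← sq_le_one_iff_abs_le_one]
    nlinarith [sq_nonneg (e2 n)]
  have hmono : ∀ (n : ℕ) {a b : ℝ}, a ≤ b →
      (A n * VL σ q lev n * B.d n ^ (-(1 - s))) * B.d n ^ b ≤
      (A n * VL σ q lev n * B.d n ^ (-(1 - s))) * B.d n ^ a := by
    intro n a b hab
    refine mul_le_mul_of_nonneg_left (Dp76.dpow_le B n hab) ?_
    have hA := (hM.Apos n).le
    have s0 := h.σp 0 n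
    have s1 := h.σp 1 n
    have r0 := rho_pos (lev n 0)
    have hV : 0 ≤ VL σ q lev n := by unfold VL; positivity
    have := Dp76.dpow_pos B n (-(1 - s))
    positivity
  have hCz : 0 ≤ C1 * z := mul_nonneg hC1 hz
  have hsub : ∀ᶠ n in (U : Filter ℕ), ((I n).filter fun l =>
        Nat8 (i n) (inc n l) K (rho (lev n 0) * B.d n ^ v) (σ 0 n * B.d n ^ t)
          (σ 1 n * B.d n ^ yy) ∧
        |e1 n * ((t1 n * coL (i n) (inc n l) 3 + t2 n * coL (i n) (inc n l) 4) /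
            (σ 0 n * B.d n ^ t)) + e2 n * (coL (i n) (inc n l) 10 / (σ 1 n * B.d n ^ yy) +
            gg n * ((t1 n * coL (i n) (inc n l) 3 + t2 n * coL (i n) (inc n l) 4) /
              (σ 0 n * B.d n ^ t)) ^ 2)| ≤ K * B.d n ^ y) ⊆ (I n).filter fun l =>
        Nat8 (i n) (inc n l) K (rho (lev n 0) * B.d n ^ v) (σ 0 n * B.d n ^ t)
          (σ 1 n * B.d n ^ yy) ∧
        |e1 n * ((t1 n * coL (i n) (inc n l) 3 + t2 n * coL (i n) (inc n l) 4) /
            (σ 0 n * B.d n ^ t)) + e2 n * (coL (i n) (inc n l) 10 / (σ 1 n * B.d n ^ yy))| ≤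
          K * B.d n ^ y := by
    filter_upwards [hgg] with n h1 l hl
    have h2 : gg n = 0 := by
      rw [zero_mul] at h1
      exact abs_nonpos_iff.1 h1
    rw [mem_filter] at hl ⊢
    obtain ⟨l1, l2, l3⟩ := hl
    rw [h2, zero_mul, add_zero] at l3
    exact ⟨l1, l2, l3⟩
  by_cases hc : ∀ᶠ n in (U : Filter ℕ), B.d n ^ (kap q * y) ≤ |e2 n|
  · have key := strip_A hM h hk w0 sa sb hi hb (hdir.mono fun n hn => ⟨hn.1, hn.2.1⟩) he1
      hκ.le hκ1 hc ht hK hθ (by linarith) hv0 hv1 (by linarith) hy hRy hty hε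
    filter_upwards [key, hsub] with n h1 h2
    refine le_trans ?_ (h1.trans (hmono n ?_))
    · exact_mod_cast Finset.card_le_card h2
    · rw [kap_id hq1]
      have : gam q ≤ q 1 / 2 := min_le_left _ _
      nlinarith
  · rw [← Ultrafilter.eventually_not] at hc
    have hc' : ∀ᶠ n in (U : Filter ℕ), |e2 n| ≤ B.d n ^ (kap q * y) := by
      filter_upwards [hc] with n hn
      exact (not_le.1 hn).le
    have he1' : ∀ᶠ n in (U : Filter ℕ), 1 / 2 ≤ |e1 n| := by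
      filter_upwards [hc', he, ev_pow B (K := 1) (κ := 1 / 2) (a := kap q * y) (b := 0) one_pos
        (by norm_num) (by positivity)] with n h1 h2 h3
      rw [Real.rpow_zero, mul_one, one_mul] at h3
      have h4 : |e2 n| ≤ 1 / 2 := h1.trans h3
      have h5 : e2 n ^ 2 ≤ (1 / 2) ^ 2 := sq_le_sq' (by linarith [(abs_le.1 h4).1]) (abs_le.1 h4).2
      have h7 : (1 / 2 : ℝ) ^ 2 ≤ e1 n ^ 2 := by nlinarith
      have h8 := sq_le_sq.1 h7
      rwa [abs_of_pos (by norm_num : (0 : ℝ) < 1 / 2)] at h8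
    have key := strip_B hM h hk w0 sa sb hi (M1 := 32) (by norm_num) hdir he1' hκ.le hκ1 hc'
      hK hθ hv0 hv1 hy hyt (by linarith) hRt (by linarith) hty hε
    filter_upwards [key, hsub] with n h1 h2
    refine le_trans ?_ (h1.trans (hmono n ?_))
    · exact_mod_cast Finset.card_le_card h2
    · have : gam q ≤ q 0 * kap q := min_le_right _ _
      nlinarith

end strips

end Crest.Agent.R116.Nar192
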