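import Crest.Agent.R116.Nar5_192
import Crest.Agent.R116.Gt4_222

/-!
# R116 (S0155), K side, [NARROW] (helper192), part 6: `N1c` and `N0c`

* `n1c_of_sab` : `SAB` ⊢ `N1c` (literals of 504 and 468).
* `n1c_thin` : `Gm = 0`, `γ = gam q`.
* `n0c_T` : plain D-max.
-/

set_option autoImplicit false
set_option linter.unusedVariables false
set_option linter.unusedSectionVars false

open Finset Filter Topology

namespace Crest.Agent.R116.Nar192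

open Crest.Agent.R138.Defs (E2)
open Crest.Agent.R138.Ex926 (Base U QProf)
open Crest.Agent.R138.Mk163 (zc zl rho alive)
open Crest.Agent.R138
open Crest.Agent.R136.MkA627
open Crest.Agent.R136.Net191
open Crest.Agent.R136.PqG464
open Crest.Agent.R116.LZg725
open Crest.Agent.R116.ChL222
open Crest.Agent.R116.PL504 (uL eL)
open Crest.Agent.R116.Gd222

/-- the direction of the live slot -/
def tC (sC : Fin 12) : ℝ × ℝ := if sC = 3 then (1, 0) else (0, 1)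

theorem tC3 : tC 3 = (1, 0) := if_pos rfl

theorem tC4 : tC 4 = (0, 1) := if_neg (by decide)

section mk

variable {B : Base} {I : ℕ → Finset (ℕ × ℝ)} {G : Geo TSet (Fin 2)} {lev : ℕ → ℚ → ℕ}
    {A : ℕ → ℝ} {g s : ℝ} {θ : Fin 2 → ℝ} {f : ℕ → ℚ → ℕ → ℤ → ℕ} {b : ℕ → ℚ → ℕ → TSet}
    {vm : ℕ → ℚ → ℝ} {w : Fin 2 → ℕ → ℚ → ℝ} {q : Fin 2 → ℝ}
    {fl : ℕ → ℕ × ℝ → LInc} {M0 c0 Rg ϑ : ℝ}

set_option maxHeartbeats 1000000 in
open Classical in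
/-- **`SAB` ⊢ `N1c`** -/
theorem n1c_of_sab (hM : MkA B I G lev A (fun v => g * v) (fun v => s * v)
    (fun j v => θ j * (1 - v)) f b vm w) (h : LData B I G lev fl (sN lev w) q M0 c0 Rg ϑ)
    (hwid : ∀ j (t : TSet), G.wid j t = (1 / 2 : ℝ) ^ t.1 j)
    (w0 sa sb : ℝ) {v vp t tp yy yp : ℝ} (hθp : ϑ ≤ vp) (htp : 0 < tp) {p rc : Fin 12 → ℝ}
    (hp : ∀ k, Vf k → nbS w0 sa sb vp tp yp k ≤ p k)
    (p1 : sb + yy - 2 * (sa + t) - (w0 + v) ≤ p 1) (p2 : sb + yy - 2 * (sa + t) ≤ p 2)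
    (p7 : sb + yy - (sa + t) ≤ p 7) (p8 : sb + yy - (sa + t) ≤ p 8)
    {sC : Fin 12} (hsC : sC = 3 ∨ sC = 4)
    (r0 : rc 0 = w0 + v) (r3 : rc 3 = sa + t) (rC : rc sC = sa + t) (r10 : rc 10 = sb + yy)
    (hr : ∀ k, Vf k → nbS w0 sa sb v t yy k ≤ rc k)
    (hax : ∀ᶠ n in (U : Filter ℕ), ∀ x ∈ I n,
      ‖vb (fl n x)‖ ≤ 16 * |(fl n x).b1 * (tC sC).2 - (fl n x).b2 * (tC sC).1|)
    {Gm C1 γ y z : ℝ} (hGm : 0 ≤ Gm)
    (key : SAB B I lev fl (sN lev w) q A g s w0 sa sb ϑ v t yy Gm C1 γ y z) :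
    N1c B I (PL504.coN B lev w w0 sa sb fl) (fun n => A n * vm n 0 * B.d n ^ (-(1 - s))) p rc sC
      Gm y z (DT g s q θ w0 sa sb rc + C1 * z - γ * y) := by
  intro K hK ε hε
  have hK0 : 0 < K := by linarith
  have hK3 : 1 ≤ K ^ 3 := one_le_pow₀ hK
  have hK2 : K ^ 2 ≤ K ^ 3 := pow_le_pow_right₀ hK (by norm_num)
  have hKK : K ≤ K ^ 3 := le_self_pow₀ hK (by norm_num)
  set Bd : ℕ → ℝ := fun n => (A n * vm n 0 * B.d n ^ (-(1 - s))) *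
    B.d n ^ (-(DT g s q θ w0 sa sb rc + C1 * z - γ * y + ε)) with hBd
  have hN0 := N0_le hM h hwid w0 sa sb rc (γ * y - C1 * z) hε
  have hDL : DL g s q w0 sa sb rc = DL g s q w0 sa sb (nbS w0 sa sb v t yy) := by
    rw [DL_nbS]
    unfold DL
    rw [r0, r3, r10, add_sub_cancel_left, add_sub_cancel_left, add_sub_cancel_left]
  rw [hDL] at hN0
  have hpos : ∀ᶠ n in (U : Filter ℕ), 0 ≤ Bd n := by
    filter_upwards [hN0] with n hn
    have hA := (hM.Apos n).le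
    have s0 := h.σp 0 n
    have s1 := h.σp 1 n
    have r0 := rho_pos (lev n 0)
    have hV : 0 ≤ VL (sN lev w) q lev n := by unfold VL; positivity
    have e1 := Dp76.dpow_pos B n (-(1 - s))
    have e2 := Dp76.dpow_pos B n (-(DL g s q w0 sa sb (nbS w0 sa sb v t yy) -
      (γ * y - C1 * z) + ε / 2))
    have e3 : 0 ≤ (A n * vm n 0 * B.d n ^ (-(1 - s))) *
      B.d n ^ (-(DT g s q θ w0 sa sb rc - (γ * y - C1 * z) + ε)) := le_trans (by positivity) hn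
    rw [show DT g s q θ w0 sa sb rc - (γ * y - C1 * z) + ε =
      DT g s q θ w0 sa sb rc + C1 * z - γ * y + ε by ring] at e3
    exact e3
  by_contra hcon
  rw [← Ultrafilter.eventually_not] at hcon
  -- the bad data
  obtain ⟨S, hS⟩ : ∃ S : ∀ (n : ℕ) (x y0 : ℕ × ℝ) (e1 e2 gg : ℝ), Finset (ℕ × ℝ),
      S = fun n x y0 e1 e2 gg => (I n).filter fun j =>
        (∀ k, Vf k → |PL504.coN B lev w w0 sa sb fl n y0 j k| ≤ K * B.d n ^ rc k) ∧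
        |e1 * (PL504.coN B lev w w0 sa sb fl n y0 j sC / B.d n ^ rc sC) +
          e2 * ((PL504.coN B lev w w0 sa sb fl n x j 10 -
            PL504.coN B lev w w0 sa sb fl n x y0 10) / B.d n ^ rc 10 +
            gg * (PL504.coN B lev w w0 sa sb fl n y0 j sC / B.d n ^ rc sC) ^ 2)| ≤
          K * B.d n ^ y := ⟨_, rfl⟩
  have hex : ∀ᶠ n in (U : Filter ℕ), ∃ Z : (ℕ × ℝ) × (ℕ × ℝ) × (ℝ × ℝ × ℝ),
      (Z.1 ∈ I n ∧ Z.2.1 ∈ I n ∧ Near (PL504.coN B lev w w0 sa sb fl n) (B.d n) p K Z.1 Z.2.1) ∧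
      (1 ≤ K * (Z.2.2.1 ^ 2 + Z.2.2.2.1 ^ 2) ∧ Z.2.2.1 ^ 2 + Z.2.2.2.1 ^ 2 ≤ K ∧
        |Z.2.2.2.2| ≤ Gm * (K * B.d n ^ (-z))) ∧
      Bd n < ((S n Z.1 Z.2.1 Z.2.2.1 Z.2.2.2.1 Z.2.2.2.2).card : ℝ) := by
    filter_upwards [hcon] with n hn
    push Not at hn
    obtain ⟨x, hx, y0, hy0, hnr, e1, e2, gg, h1, h2, h3, h4⟩ := hn
    refine ⟨(x, y0, e1, e2, gg), ⟨hx, hy0, hnr⟩, ⟨h1, h2, h3⟩, ?_⟩
    rw [hS]
    exact h4
  obtain ⟨F, hF⟩ := hex.choice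
  obtain ⟨x, hxd⟩ : ∃ x : ℕ → ℕ × ℝ, x = fun n => (F n).1 := ⟨_, rfl⟩
  obtain ⟨y0, hyd⟩ : ∃ y0 : ℕ → ℕ × ℝ, y0 = fun n => (F n).2.1 := ⟨_, rfl⟩
  obtain ⟨e1, he1⟩ : ∃ e1 : ℕ → ℝ, e1 = fun n => (F n).2.2.1 := ⟨_, rfl⟩
  obtain ⟨e2, he2⟩ : ∃ e2 : ℕ → ℝ, e2 = fun n => (F n).2.2.2.1 := ⟨_, rfl⟩
  obtain ⟨gg, hgd⟩ : ∃ gg : ℕ → ℝ, gg = fun n => (F n).2.2.2.2 := ⟨_, rfl⟩
  have hF' : ∀ᶠ n in (U : Filter ℕ), (x n ∈ I n ∧ y0 n ∈ I n ∧
        Near (PL504.coN B lev w w0 sa sb fl n) (B.d n) p K (x n) (y0 n)) ∧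
      (1 ≤ K * (e1 n ^ 2 + e2 n ^ 2) ∧ e1 n ^ 2 + e2 n ^ 2 ≤ K ∧
        |gg n| ≤ Gm * (K * B.d n ^ (-z))) ∧
      Bd n < ((S n (x n) (y0 n) (e1 n) (e2 n) (gg n)).card : ℝ) := by
    rw [hxd, hyd, he1, he2, hgd]
    exact hF
  clear hF hxd hyd he1 he2 hgd
  -- near pairs are natural
  have hnat : ∀ᶠ n in (U : Filter ℕ), x n ∈ I n ∧ Nat8 (fl n (x n)) (fl n (y0 n)) K
      (rho (lev n 0) * B.d n ^ vp) (sN lev w 0 n * B.d n ^ tp) (sN lev w 1 n * B.d n ^ yp) := by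
    filter_upwards [hF'] with n hn
    refine ⟨hn.1.1, nat8_of_near (p := nbS w0 sa sb vp tp yp) B h.σp hK0.le rfl
      (fun k _ => le_rfl) ?_⟩
    intro k hk
    exact (hn.1.2.2 k).trans (mul_le_mul_of_nonneg_left (Dp76.dpow_le B n (hp k hk)) hK0.le)
  obtain ⟨hbase, hbase2, hbase3⟩ := baseOK_trn h htp hK hθp hnat
  have ht12 : |(tC sC).1| ≤ 1 ∧ |(tC sC).2| ≤ 1 := by
    rcases hsC with rfl | rfl
    · rw [tC3]; norm_num
    · rw [tC4]; norm_num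
  have hdir : ∀ᶠ n in (U : Filter ℕ), |(tC sC).1| ≤ 1 ∧ |(tC sC).2| ≤ 1 ∧
      ‖vb (trn 1 (fl n (x n)) (fl n (y0 n)))‖ ≤ 32 *
        |(trn 1 (fl n (x n)) (fl n (y0 n))).b1 * (tC sC).2 -
          (trn 1 (fl n (x n)) (fl n (y0 n))).b2 * (tC sC).1| := by
    filter_upwards [hF', hbase3, hax] with n h1 h2 h3
    exact ⟨ht12.1, ht12.2, h2 _ _ ht12.1 ht12.2 (h3 _ h1.1.1)⟩
  -- normalised direction
  obtain ⟨N, hN⟩ : ∃ N : ℕ → ℝ, N = fun n => Real.sqrt (e1 n ^ 2 + e2 n ^ 2) := ⟨_, rfl⟩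
  have hNp : ∀ᶠ n in (U : Filter ℕ), 0 < N n ∧ N n ^ 2 = e1 n ^ 2 + e2 n ^ 2 ∧ 1 ≤ K * N n := by
    filter_upwards [hF'] with n hn
    have h1 := hn.2.1.1
    have h2 : 0 < e1 n ^ 2 + e2 n ^ 2 := by
      by_contra h3
      have : K * (e1 n ^ 2 + e2 n ^ 2) ≤ 0 := mul_nonpos_of_nonneg_of_nonpos hK0.le (not_lt.1 h3)
      linarith
    have h4 : 0 < N n := by rw [hN]; exact Real.sqrt_pos.2 h2
    have h5 : N n ^ 2 = e1 n ^ 2 + e2 n ^ 2 := by rw [hN]; exact Real.sq_sqrt h2.le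
    refine ⟨h4, h5, ?_⟩
    by_contra h6
    have h7 : K * N n < 1 := not_le.1 h6
    have h8 : K * N n ^ 2 ≤ (K * N n) ^ 2 := by
      have : K * N n ^ 2 * 1 ≤ K * N n ^ 2 * K := mul_le_mul_of_nonneg_left hK (by positivity)
      nlinarith
    have h9 : (K * N n) ^ 2 < 1 := by
      have : 0 ≤ K * N n := by positivity
      nlinarith
    rw [h5] at h8
    linarith
  have hunit : ∀ᶠ n in (U : Filter ℕ), (e1 n / N n) ^ 2 + (e2 n / N n) ^ 2 = 1 := by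
    filter_upwards [hNp] with n hn
    rw [div_pow, div_pow, ← add_div, ← hn.2.1]
    exact div_self (pow_pos hn.1 2).ne'
  have hgg : ∀ᶠ n in (U : Filter ℕ), |gg n| ≤ Gm * ((10 * K ^ 3) * B.d n ^ (-z)) := by
    filter_upwards [hF'] with n hn
    refine hn.2.1.2.2.trans (mul_le_mul_of_nonneg_left ?_ hGm)
    exact mul_le_mul_of_nonneg_right (by linarith) (Dp76.dpow_pos B n _).le
  have hfin := key (fun n => trn 1 (fl n (x n)) (fl n (y0 n))) hbase hbase2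
    (fun _ => (tC sC).1) (fun _ => (tC sC).2) (fun n => e1 n / N n) (fun n => e2 n / N n) gg
    hdir hunit (10 * K ^ 3) (by linarith) hgg (ε / 2) (by linarith)
  obtain ⟨n, g1, g2, g3, g4, g5, g6⟩ :=
    (hfin.and (hF'.and (hNp.and (hN0.and (hnat.and hpos))))).exists
  have dp := fun a => Dp76.dpow_pos B n a
  have s0 := h.σp 0 n
  have s1 := h.σp 1 n
  have rr := rho_pos (lev n 0)
  obtain ⟨hNp0, hNsq, hKN⟩ := g3
  have hsub : S n (x n) (y0 n) (e1 n) (e2 n) (gg n) ⊆ (I n).filter fun l =>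
        Nat8 (trn 1 (fl n (x n)) (fl n (y0 n))) (fl n l) (10 * K ^ 3) (rho (lev n 0) * B.d n ^ v)
          (sN lev w 0 n * B.d n ^ t) (sN lev w 1 n * B.d n ^ yy) ∧
        |e1 n / N n * (((tC sC).1 * coL (trn 1 (fl n (x n)) (fl n (y0 n))) (fl n l) 3 +
            (tC sC).2 * coL (trn 1 (fl n (x n)) (fl n (y0 n))) (fl n l) 4) /
            (sN lev w 0 n * B.d n ^ t)) +
          e2 n / N n * (coL (trn 1 (fl n (x n)) (fl n (y0 n))) (fl n l) 10 /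
            (sN lev w 1 n * B.d n ^ yy) +
            gg n * (((tC sC).1 * coL (trn 1 (fl n (x n)) (fl n (y0 n))) (fl n l) 3 +
              (tC sC).2 * coL (trn 1 (fl n (x n)) (fl n (y0 n))) (fl n l) 4) /
              (sN lev w 0 n * B.d n ^ t)) ^ 2)| ≤ 10 * K ^ 3 * B.d n ^ y := by
    intro l hl
    rw [hS] at hl
    obtain ⟨l1, l2, l3⟩ := mem_filter.1 hl
    have hN8 : Nat8 (fl n (y0 n)) (fl n l) K (rho (lev n 0) * B.d n ^ v)
        (sN lev w 0 n * B.d n ^ t) (sN lev w 1 n * B.d n ^ yy) :=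
      nat8_of_near B h.σp hK0.le r0 hr l2
    obtain ⟨f1, f2, f7, f8⟩ := flags_near B h.σp hK0.le p1 p2 p7 p8 g2.1.2.2
    refine mem_filter.2 ⟨l1, nat8_trn_flag (mul_pos rr (dp _)) (mul_pos s0 (dp _))
      (mul_pos s1 (dp _)) hK hN8 f1 f2 f7 f8, ?_⟩
    obtain ⟨-, c3, c4, -, -, -, -, -⟩ := coL_trn_flag (fl n (x n)) (fl n (y0 n)) (fl n l)
    obtain ⟨-, -, -, -, -, -, c10, -⟩ := coL_trn 1 (fl n (x n)) (fl n (y0 n)) (fl n l)
    rw [c3, c4, c10, one_mul]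
    have uC : PL504.coN B lev w w0 sa sb fl n (y0 n) l sC / B.d n ^ rc sC =
        ((tC sC).1 * coL (fl n (y0 n)) (fl n l) 3 + (tC sC).2 * coL (fl n (y0 n)) (fl n l) 4) /
          (sN lev w 0 n * B.d n ^ t) := by
      rw [rC, Dp76.dpow_add]
      have z1 := (dp sa).ne'
      have z2 := (dp t).ne'
      rcases hsC with rfl | rfl
      · show B.d n ^ sa / sN lev w 0 n * coL (fl n (y0 n)) (fl n l) 3 / _ = _
        rw [tC3]
        simp only [one_mul, zero_mul, add_zero]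
        field_simp
      · show B.d n ^ sa / sN lev w 0 n * coL (fl n (y0 n)) (fl n l) 4 / _ = _
        rw [tC4]
        simp only [one_mul, zero_mul, zero_add]
        field_simp
    have uP : (PL504.coN B lev w w0 sa sb fl n (x n) l 10 -
        PL504.coN B lev w w0 sa sb fl n (x n) (y0 n) 10) / B.d n ^ rc 10 =
        (coL (fl n (x n)) (fl n l) 10 - coL (fl n (x n)) (fl n (y0 n)) 10) /
          (sN lev w 1 n * B.d n ^ yy) := by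
      rw [r10, Dp76.dpow_add]
      have z1 := (dp sb).ne'
      have z2 := (dp yy).ne'
      show (B.d n ^ sb / sN lev w 1 n * coL (fl n (x n)) (fl n l) 10 -
        B.d n ^ sb / sN lev w 1 n * coL (fl n (x n)) (fl n (y0 n)) 10) / _ = _
      field_simp
    rw [uC, uP] at l3
    set T := ((tC sC).1 * coL (fl n (y0 n)) (fl n l) 3 + (tC sC).2 * coL (fl n (y0 n)) (fl n l) 4) /
          (sN lev w 0 n * B.d n ^ t) with hT
    set P := (coL (fl n (x n)) (fl n l) 10 - coL (fl n (x n)) (fl n (y0 n)) 10) /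
          (sN lev w 1 n * B.d n ^ yy) with hP
    have e : e1 n / N n * T + e2 n / N n * (P + gg n * T ^ 2) =
        (e1 n * T + e2 n * (P + gg n * T ^ 2)) / N n := by ring
    rw [e, abs_div, abs_of_pos hNp0, div_le_iff₀ hNp0]
    refine l3.trans ?_
    have h5 : K * B.d n ^ y ≤ K * B.d n ^ y * (K * N n) :=
      le_mul_of_one_le_right (mul_pos hK0 (dp y)).le hKN
    have h6 : K * B.d n ^ y * (K * N n) = K ^ 2 * B.d n ^ y * N n := by ring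
    have h7 : K ^ 2 * B.d n ^ y * N n ≤ 10 * K ^ 3 * B.d n ^ y * N n :=
      mul_le_mul_of_nonneg_right (mul_le_mul_of_nonneg_right (by linarith) (dp y).le) hNp0.le
    linarith
  have h4 : ((S n (x n) (y0 n) (e1 n) (e2 n) (gg n)).card : ℝ) ≤ Bd n := by
    refine (Nat.cast_le.2 (card_le_card hsub)).trans (g1.trans ?_)
    have h5 : (A n * VL (sN lev w) q lev n * B.d n ^ (-(1 - s))) *
        B.d n ^ (-(DL g s q w0 sa sb (nbS w0 sa sb v t yy) - γ * y + C1 * z + ε / 2)) =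
        (A n * VL (sN lev w) q lev n * B.d n ^ (-(1 - s))) *
        B.d n ^ (-(DL g s q w0 sa sb (nbS w0 sa sb v t yy) - (γ * y - C1 * z) + ε / 2)) := by
      congr 3; ring
    rw [h5]
    refine g4.trans (le_of_eq ?_)
    rw [hBd]
    simp only
    congr 3; ring
  exact absurd g2.2.2 (not_lt.2 h4)

open Classical in
/-- **linear strips, thin case** -/
theorem n1c_thin (hM : MkA B I G lev A (fun v => g * v) (fun v => s * v)
    (fun j v => θ j * (1 - v)) f b vm w) (h : LData B I G lev fl (sN lev w) q M0 c0 Rg ϑ)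
    (hwid : ∀ j (t : TSet), G.wid j t = (1 / 2 : ℝ) ^ t.1 j)
    {k0 : ℝ} (hk : ∀ ε : ℝ, 0 < ε → ∀ᶠ n in (U : Filter ℕ),
      sN lev w 1 n ≤ sN lev w 0 n * B.d n ^ (k0 - ε)) (w0 sa sb : ℝ) (hq0 : 0 < q 0)
    (hq1 : 0 < q 1) {v vp t tp yy yp y z C1 : ℝ} (hC1 : 0 ≤ C1) (hz : 0 ≤ z)
    (hθ : ϑ ≤ v) (hv0 : 0 ≤ v) (hv1 : v ≤ 1) (hy : 0 < y) (hyt : y < t) (hRt : t + y < Rg)
    (hRy : |yy| + y < Rg) (hty : t + y < yy + k0)
    (hθp : ϑ ≤ vp) (htp : 0 < tp) {p rc : Fin 12 → ℝ}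
    (hp : ∀ k, Vf k → nbS w0 sa sb vp tp yp k ≤ p k)
    (p1 : sb + yy - 2 * (sa + t) - (w0 + v) ≤ p 1) (p2 : sb + yy - 2 * (sa + t) ≤ p 2)
    (p7 : sb + yy - (sa + t) ≤ p 7) (p8 : sb + yy - (sa + t) ≤ p 8)
    {sC : Fin 12} (hsC : sC = 3 ∨ sC = 4)
    (r0 : rc 0 = w0 + v) (r3 : rc 3 = sa + t) (rC : rc sC = sa + t) (r10 : rc 10 = sb + yy)
    (hr : ∀ k, Vf k → nbS w0 sa sb v t yy k ≤ rc k)
    (hax : ∀ᶠ n in (U : Filter ℕ), ∀ x ∈ I n,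
      ‖vb (fl n x)‖ ≤ 16 * |(fl n x).b1 * (tC sC).2 - (fl n x).b2 * (tC sC).1|) :
    N1c B I (PL504.coN B lev w w0 sa sb fl) (fun n => A n * vm n 0 * B.d n ^ (-(1 - s))) p rc sC
      0 y z (DT g s q θ w0 sa sb rc + C1 * z - gam q * y) :=
  n1c_of_sab hM h hwid w0 sa sb hθp htp hp p1 p2 p7 p8 hsC r0 r3 rC r10 hr hax le_rfl
    (sab_lin hM h hk w0 sa sb hq0 hq1 hC1 hz hθ hv0 hv1 hy hyt hRt hRy hty)

open Classical in
/-- **plain D-max at the record box** -/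
theorem n0c_T (hM : MkA B I G lev A (fun v => g * v) (fun v => s * v)
    (fun j v => θ j * (1 - v)) f b vm w) (h : LData B I G lev fl (sN lev w) q M0 c0 Rg ϑ)
    (hwid : ∀ j (t : TSet), G.wid j t = (1 / 2 : ℝ) ^ t.1 j)
    {k0 : ℝ} (hk : ∀ ε : ℝ, 0 < ε → ∀ᶠ n in (U : Filter ℕ),
      sN lev w 1 n ≤ sN lev w 0 n * B.d n ^ (k0 - ε)) (w0 sa sb : ℝ)
    {v t yy : ℝ} (hv0 : 0 ≤ v) (hv1 : v ≤ 1) (ht : 0 < t) (hθ : ϑ < v + t) (hRt : t < Rg)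
    (hRy : |yy| < Rg) (hty : t ≤ yy + k0) {rc : Fin 12 → ℝ}
    (r0 : rc 0 = w0 + v) (r3 : rc 3 = sa + t) (r10 : rc 10 = sb + yy)
    (hr : ∀ k, Vf k → nbS w0 sa sb v t yy k ≤ rc k) :
    N0c B I (PL504.coN B lev w w0 sa sb fl) (fun n => A n * vm n 0 * B.d n ^ (-(1 - s))) rc
      (DT g s q θ w0 sa sb rc) := by
  have e4 : sa + t ≤ rc 4 := hr 4 (by decide)
  have e5 : w0 + v + (sa + t) ≤ rc 5 := hr 5 (by decide)
  have e6 : w0 + v + (sa + t) ≤ rc 6 := hr 6 (by decide)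
  have e9 : w0 + v + 2 * (sa + t) ≤ rc 9 := hr 9 (by decide)
  have e11 : w0 + v + (sb + yy) ≤ rc 11 := hr 11 (by decide)
  have hPD : rc ∈ PDS w0 sa sb Rg ϑ k0 := by
    show w0 ≤ rc 0 ∧ rc 0 ≤ w0 + 1 ∧ sa < rc 3 ∧ ϑ < (rc 0 - w0) + (rc 3 - sa) ∧
      rc 3 - sa < Rg ∧ |rc 10 - sb| < Rg ∧ rc 3 - sa ≤ (rc 10 - sb) + k0 ∧ rc 3 ≤ rc 4 ∧
      rc 0 + rc 3 ≤ rc 5 ∧ rc 0 + rc 3 ≤ rc 6 ∧ rc 0 + 2 * rc 3 ≤ rc 9 ∧ rc 0 + rc 10 ≤ rc 11
    rw [r0, r3, r10]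
    refine ⟨by linarith, by linarith, by linarith, by linarith, by linarith, ?_, by linarith,
      by linarith, by linarith, by linarith, by linarith, by linarith⟩
    rwa [add_sub_cancel_left]
  intro K hK ε hε
  filter_upwards [gDS_T hM h hwid hk w0 sa sb rc hPD K hK ε hε] with n hn x hx
  refine le_trans (Nat.cast_le.2 (card_le_card fun j hj => ?_)) (hn x hx)
  obtain ⟨j1, j2⟩ := mem_filter.1 hj
  exact mem_filter.2 ⟨j1, j2⟩

end mk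

end Crest.Agent.R116.Nar192
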