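import Crest.Agent.R116.Nar6_192
import Crest.Agent.R116.CtxB_468

/-!
# R116 (S0155), K side, [NARROW] (helper192), part 7: the stages over `CtxT`

* `RecS` : record box, natural in the visible slots; `ClsS` : class box.
* `hax_of` : the axis of the flags.
* **`CtxT.stgL`** : `StgL` with `N0T`, `DT`, linear strips (`Gm = 0`, rate `gam q`).
* **`CtxT.stgC`** : the same from a `SAB` (curved strips).
-/

set_option autoImplicit false
set_option linter.unusedVariables false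
set_option linter.unusedSectionVars false

open Finset Filter Topology

namespace Crest.Agent.R116.Nar192

open Crest.Agent.R138.Defs (E2)
open Crest.Agent.R138.Ex926 (Base U)
open Crest.Agent.R136.MkA627
open Crest.Agent.R136.Net191
open Crest.Agent.R136.Lq196
open Crest.Agent.R116.LZg725
open Crest.Agent.R116.ChL222
open Crest.Agent.R116.PL504 (βL eL rL oL Shift nb DN)
open Crest.Agent.R116.Gd222
open Crest.Agent.R116.KI439
open Crest.Agent.R116.KF439 (PL Thin frF flF scN)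
open Crest.Agent.R116.Tw468
open Crest.Agent.R116.CtxB468

/-- record box, natural at `(v, t, yy)` in the visible slots -/
structure RecS (w0 sa sb v t yy : ℝ) (sC : Fin 12) (rc : Fin 12 → ℝ) : Prop where
  z : rc 0 = w0 + v
  c3 : rc 3 = sa + t
  cC : rc sC = sa + t
  c10 : rc 10 = sb + yy
  vis : ∀ k, Vf k → nbS w0 sa sb v t yy k ≤ rc k

/-- class box: flags at least natural at `(v, t, yy)` -/
structure ClsS (w0 sa sb v t yy ϑ : ℝ) (p : Fin 12 → ℝ) : Prop where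
  vis : ∃ vp tp yp : ℝ, ϑ ≤ vp ∧ 0 < tp ∧ ∀ k, Vf k → nbS w0 sa sb vp tp yp k ≤ p k
  f1 : sb + yy - 2 * (sa + t) - (w0 + v) ≤ p 1
  f2 : sb + yy - 2 * (sa + t) ≤ p 2
  f7 : sb + yy - (sa + t) ≤ p 7
  f8 : sb + yy - (sa + t) ≤ p 8

/-- visible slots of a class box -/
theorem vis_of {w0 sa sb ϑ : ℝ} {p : Fin 12 → ℝ} (h0 : w0 + ϑ ≤ p 0) (h3 : sa < p 3)
    (h4 : sa < p 4) (h5 : w0 + ϑ + sa < p 5) (h6 : w0 + ϑ + sa < p 6)
    (h9 : w0 + ϑ + 2 * sa < p 9) :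
    ∃ vp tp yp : ℝ, ϑ ≤ vp ∧ 0 < tp ∧ ∀ k, Vf k → nbS w0 sa sb vp tp yp k ≤ p k := by
  set t1 := min (min (p 3 - sa) (p 4 - sa)) (min (min (p 5 - (w0 + ϑ + sa)) (p 6 - (w0 + ϑ + sa)))
    ((p 9 - (w0 + ϑ + 2 * sa)) / 2)) with ht1
  have a3 : t1 ≤ p 3 - sa := (min_le_left _ _).trans (min_le_left _ _)
  have a4 : t1 ≤ p 4 - sa := (min_le_left _ _).trans (min_le_right _ _)
  have a5 : t1 ≤ p 5 - (w0 + ϑ + sa) :=
    (min_le_right _ _).trans ((min_le_left _ _).trans (min_le_left _ _))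
  have a6 : t1 ≤ p 6 - (w0 + ϑ + sa) :=
    (min_le_right _ _).trans ((min_le_left _ _).trans (min_le_right _ _))
  have a9 : t1 ≤ (p 9 - (w0 + ϑ + 2 * sa)) / 2 := (min_le_right _ _).trans (min_le_right _ _)
  have hpos : 0 < t1 := by
    refine lt_min (lt_min (by linarith) (by linarith)) (lt_min (lt_min (by linarith) (by linarith))
      (by linarith))
  refine ⟨ϑ, t1, min (p 10 - sb) (p 11 - (w0 + ϑ) - sb), le_rfl, hpos, fun k hk => ?_⟩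
  have b10 := min_le_left (p 10 - sb) (p 11 - (w0 + ϑ) - sb)
  have b11 := min_le_right (p 10 - sb) (p 11 - (w0 + ϑ) - sb)
  obtain ⟨k1, k2, k7, k8⟩ := hk
  fin_cases k
  · exact h0
  · exact absurd rfl k1
  · exact absurd rfl k2
  · show sa + t1 ≤ p 3; linarith
  · show sa + t1 ≤ p 4; linarith
  · show w0 + ϑ + (sa + t1) ≤ p 5; linarith
  · show w0 + ϑ + (sa + t1) ≤ p 6; linarith
  · exact absurd rfl k7
  · exact absurd rfl k8
  · show w0 + ϑ + 2 * (sa + t1) ≤ p 9; linarith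
  · show sb + min (p 10 - sb) (p 11 - (w0 + ϑ) - sb) ≤ p 10; linarith
  · show w0 + ϑ + (sb + min (p 10 - sb) (p 11 - (w0 + ϑ) - sb)) ≤ p 11; linarith

/-- the record box as a class box -/
theorem RecS.vis' {w0 sa sb v t yy ϑ : ℝ} {sC : Fin 12} {rc : Fin 12 → ℝ}
    (h : RecS w0 sa sb v t yy sC rc) (hv : ϑ ≤ v) (ht : 0 < t) :
    ∃ vp tp yp : ℝ, ϑ ≤ vp ∧ 0 < tp ∧ ∀ k, Vf k → nbS w0 sa sb vp tp yp k ≤ rc k :=
  ⟨v, t, yy, hv, ht, h.vis⟩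

theorem recS_nb {w0 sa sb v t yy : ℝ} {sC : Fin 12} (hsC : sC = 3 ∨ sC = 4) :
    RecS w0 sa sb v t yy sC (nb w0 sa sb v t yy) := by
  refine ⟨rfl, rfl, ?_, rfl, fun k hk => ?_⟩
  · rcases hsC with rfl | rfl <;> rfl
  · obtain ⟨k1, k2, k7, k8⟩ := hk
    have e0 : nb w0 sa sb v t yy 0 = w0 + v := rfl
    have e3 : nb w0 sa sb v t yy 3 = sa + t := rfl
    have e4 : nb w0 sa sb v t yy 4 = sa + t := rfl
    have e5 : nb w0 sa sb v t yy 5 = (w0 + v) + (sa + t) := rfl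
    have e6 : nb w0 sa sb v t yy 6 = (w0 + v) + (sa + t) := rfl
    have e9 : nb w0 sa sb v t yy 9 = (w0 + v) + 2 * (sa + t) := rfl
    have e10 : nb w0 sa sb v t yy 10 = sb + yy := rfl
    have e11 : nb w0 sa sb v t yy 11 = (w0 + v) + (sb + yy) := rfl
    generalize nb w0 sa sb v t yy = P at *
    fin_cases k
    · exact e0.ge
    · exact absurd rfl k1
    · exact absurd rfl k2
    · exact e3.ge
    · exact e4.ge
    · exact e5.ge
    · exact e6.ge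
    · exact absurd rfl k7
    · exact absurd rfl k8
    · exact e9.ge
    · exact e10.ge
    · exact e11.ge

/-- **axis of the flags**: slot `Xd954.cs a` is live if the flag is large along `b ≠ a` -/
theorem hax_of {I : ℕ → Finset (ℕ × ℝ)} {fl : ℕ → ℕ × ℝ → LInc} {a b : Fin 2} (hab : a ≠ b)
    (ha : ∀ᶠ n in (U : Filter ℕ), ∀ x ∈ I n, |vb (fl n x) a| ≤ 2)
    (hb : ∀ᶠ n in (U : Filter ℕ), ∀ x ∈ I n, 1 / 2 ≤ |vb (fl n x) b|) :
    ∀ᶠ n in (U : Filter ℕ), ∀ x ∈ I n, ‖vb (fl n x)‖ ≤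
      16 * |(fl n x).b1 * (tC (Xd954.cs a)).2 - (fl n x).b2 * (tC (Xd954.cs a)).1| := by
  filter_upwards [ha, hb] with n h1 h2 x hx
  have g1 := h1 x hx
  have g2 := h2 x hx
  fin_cases a <;> fin_cases b
  · exact absurd rfl hab
  · have e : tC (Xd954.cs 0) = (1, 0) := tC3
    show _ ≤ 16 * |(fl n x).b1 * (tC (Xd954.cs 0)).2 - (fl n x).b2 * (tC (Xd954.cs 0)).1|
    rw [e]
    simp only [mul_zero, mul_one, zero_sub, abs_neg]
    have g1' : |(fl n x).b1| ≤ 2 := g1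
    have g2' : 1 / 2 ≤ |(fl n x).b2| := g2
    have := norm_le2 (vb (fl n x)) (a := |(fl n x).b1|) (b := |(fl n x).b2|) le_rfl le_rfl
    linarith
  · have e : tC (Xd954.cs 1) = (0, 1) := tC4
    show _ ≤ 16 * |(fl n x).b1 * (tC (Xd954.cs 1)).2 - (fl n x).b2 * (tC (Xd954.cs 1)).1|
    rw [e]
    simp only [mul_zero, mul_one, sub_zero]
    have g1' : |(fl n x).b2| ≤ 2 := g1
    have g2' : 1 / 2 ≤ |(fl n x).b1| := g2
    have := norm_le2 (vb (fl n x)) (a := |(fl n x).b1|) (b := |(fl n x).b2|) le_rfl le_rfl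
    linarith
  · exact absurd rfl hab

section ctx

variable {G : Geo TSet (Fin 2)} {L : ℕ → ℕ → LRay} {r : ℕ → ℝ} {g s : ℝ} {θ q : Fin 2 → ℝ}
    {Rg : ℝ} {a : Fin 2} {B : Base}
    {I : ℕ → Finset (ℕ × ℝ)} {lev : ℕ → ℚ → ℕ} {A : ℕ → ℝ}
    {f : ℕ → ℚ → ℕ → ℤ → ℕ} {b : ℕ → ℚ → ℕ → TSet} {vm : ℕ → ℚ → ℝ} {w : Fin 2 → ℕ → ℚ → ℝ}
    {fr : ℕ → ℚ → ℕ × ℝ → LInc} {fl : ℕ → ℕ × ℝ → LInc} {sc : Fin 12 → ℕ → ℝ}
    {w0 sa sb δ R : ℝ} {I0 I' : ℕ → Finset (ℕ × ℝ)} {ν own : (Fin 12 → ℝ) → ℝ} {c₀ : ℝ}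

/-- **stage data from strips at base flags** (`Gm` general) -/
theorem stg_of (hM : MkA B I G lev A (fun v => g * v) (fun v => s * v)
    (fun j v => θ j * (1 - v)) f b vm w) {M0 c0 ϑ : ℝ}
    (h : LData B I G lev fl (sN lev w) q M0 c0 Rg ϑ)
    (hwid : ∀ j (t : TSet), G.wid j t = (1 / 2 : ℝ) ^ t.1 j) (hsub : ∀ n, I0 n ⊆ I n)
    {k0 : ℝ} (hk : ∀ ε : ℝ, 0 < ε → ∀ᶠ n in (U : Filter ℕ),
      sN lev w 1 n ≤ sN lev w 0 n * B.d n ^ (k0 - ε))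
    {sC : Fin 12} (hsC : sC = 3 ∨ sC = 4)
    (hax : ∀ᶠ n in (U : Filter ℕ), ∀ x ∈ I n,
      ‖vb (fl n x)‖ ≤ 16 * |(fl n x).b1 * (tC sC).2 - (fl n x).b2 * (tC sC).1|)
    {v t yy R0 hh Gm C1 γ : ℝ} (hv0 : 0 ≤ v) (hv1 : v ≤ 1) (ht : 0 < t) (hθt : ϑ < v + t)
    (hRt : t < Rg) (hRy : |yy| < Rg) (hty : t ≤ yy + k0) (hGm : 0 ≤ Gm)
    {p rc : Fin 12 → ℝ} (hp : p ∈ Leg monL R) (hrc : rc ∈ Leg monL R)
    (hr : RecS w0 sa sb v t yy sC rc) (hc : ClsS w0 sa sb v t yy ϑ p)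
    (eC : p sC = rc sC) (eP : p 10 = rc 10)
    (rC : p sC + 2 * (R0 * hh) ≤ R) (rP : p 10 + 2 * (R0 * hh) ≤ R)
    (key : ∀ y z : ℝ, 0 < y → y ≤ R0 * hh → 0 < z → z ≤ R0 * hh →
      SAB B I lev fl (sN lev w) q A g s w0 sa sb ϑ v t yy Gm C1 γ y z) :
    StgL B I0 (PL504.coN B lev w w0 sa sb fl) (N0T B s A vm) R sC Gm γ C1 R0
      (DT g s q θ w0 sa sb rc) p rc hh := by
  obtain ⟨vp, tp, yp, g1, g2, g3⟩ := hc.vis
  refine ⟨hp, hrc, eC, eP, rC, rP, ?_, fun y z hy hyR hz hzR => ?_⟩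
  · exact N0c.mono_set (n0c_T hM h hwid hk w0 sa sb hv0 hv1 ht hθt hRt hRy hty hr.z hr.c3 hr.c10
      hr.vis) hsub
  · exact N1c.mono_set (n1c_of_sab hM h hwid w0 sa sb g1 g2 g3 hc.f1 hc.f2 hc.f7 hc.f8 hsC
      hr.z hr.c3 hr.cC hr.c10 hr.vis hax hGm (key y z hy hyR hz hzR)) hsub

/-- **stage data, thin case, linear strips** -/
theorem _root_.Crest.Agent.R116.CtxB468.CtxT.stgL
    (h : CtxT G L r g s θ q Rg B I lev A f b vm w fr fl sc w0 sa sb δ R I0 I' ν own c₀)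
    (hq0 : 0 < q 0) (hq1 : 0 < q 1) {sC : Fin 12} (hsC : sC = 3 ∨ sC = 4)
    (hax : ∀ᶠ n in (U : Filter ℕ), ∀ x ∈ I n,
      ‖vb (fl n x)‖ ≤ 16 * |(fl n x).b1 * (tC sC).2 - (fl n x).b2 * (tC sC).1|)
    {v t yy R0 hh C1 : ℝ} (hv0 : 0 ≤ v) (hv1 : v ≤ 1) (hC1 : 0 ≤ C1) (hR : 0 < R0 * hh)
    (ht : R0 * hh < t) (hRt : t + R0 * hh < Rg) (hRy : |yy| + R0 * hh < Rg)
    {p rc : Fin 12 → ℝ} (hp : p ∈ Leg monL R) (hrc : rc ∈ Leg monL R)
    (hr : RecS w0 sa sb v t yy sC rc) (hc : ClsS w0 sa sb v t yy 0 p)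
    (eC : p sC = rc sC) (eP : p 10 = rc 10)
    (rC : p sC + 2 * (R0 * hh) ≤ R) (rP : p 10 + 2 * (R0 * hh) ≤ R) :
    StgL B I0 (PL504.coN B lev w w0 sa sb fl) (N0T B s A vm) R sC 0 (gam q) C1 R0
      (DT g s q θ w0 sa sb rc) p rc hh := by
  have hk := hk_thin h.out.win.sys.mka h.out.thin (t + |yy| + R0 * hh + 1)
  have hy := neg_abs_le yy
  refine stg_of h.out.win.sys.mka h.out.win.dat h.out.win.isL.wid h.sub0 hk hsC hax hv0 hv1
    (by linarith) (by linarith) (by linarith) (by linarith) (by linarith) le_rfl hp hrc hr hc eC eP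
    rC rP ?_
  intro y z h1 h2 h3 h4
  exact sab_lin h.out.win.sys.mka h.out.win.dat hk w0 sa sb hq0 hq1 hC1 h3.le hv0 hv0 hv1 h1
    (by linarith) (by linarith) (by linarith) (by linarith)

end ctx

end Crest.Agent.R116.Nar192
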