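import Crest.Agent.R116.Nar7_192
import Crest.Agent.R116.Gc1_809
import Crest.Agent.R116.WinG_954

/-!
# R116 (S0155), K side, [NARROW] (helper192), part 8: no heavy (curved) strips in the windows

* `sab_curv` : 809's `strip_curv` as `SAB`.
* `CtxT.stgC` : `StgL` with `Gm = 1`.
* `StgM` : margins of the stages; **`CtxT.nsG`** : windows (954's `WinG`) of moving base points:
  `NsG W sC 10 Phi3 (Ok3 1) (gam q) C0 R0`; then `NsG.toNsW`, `NsG.toNsWc`.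
-/

set_option autoImplicit false
set_option linter.unusedVariables false
set_option linter.unusedSectionVars false

open Finset Filter Topology

namespace Crest.Agent.R116.Nar192

open Crest.Agent.R138.Defs (E2)
open Crest.Agent.R138.Ex926 (Base U)
open Crest.Agent.R138.Mk163 (zc zl rho alive)
open Crest.Agent.R138
open Crest.Agent.R136.MkA627
open Crest.Agent.R136.Net191
open Crest.Agent.R136.Lq196
open Crest.Agent.R136.Qg926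
open Crest.Agent.R116.LZg725
open Crest.Agent.R116.ChL222
open Crest.Agent.R116.PL504 (βL eL rL oL Shift nb DN wtL)
open Crest.Agent.R116.Gd222
open Crest.Agent.R116.KI439
open Crest.Agent.R116.KF439 (PL Thin frF flF scN)
open Crest.Agent.R116.Tw468
open Crest.Agent.R116.CtxB468
open Crest.Agent.R116.EvL504
open Crest.Agent.R116.WinG954

/-- 809's curved strips as `SAB` -/
theorem sab_curv {B : Base} {I : ℕ → Finset (ℕ × ℝ)} {G : Geo TSet (Fin 2)} {lev : ℕ → ℚ → ℕ}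
    {A : ℕ → ℝ} {g s : ℝ} {τ : Fin 2 → ℝ → ℝ} {f : ℕ → ℚ → ℕ → ℤ → ℕ} {b : ℕ → ℚ → ℕ → TSet}
    {vm : ℕ → ℚ → ℝ} {w : Fin 2 → ℕ → ℚ → ℝ}
    {inc : ℕ → ℕ × ℝ → LInc} {σ : Fin 2 → ℕ → ℝ} {q : Fin 2 → ℝ} {M0 c0 Rg θ : ℝ}
    (hM : MkA B I G lev A (fun v => g * v) (fun v => s * v) τ f b vm w)
    (h : LData B I G lev inc σ q M0 c0 Rg θ) {k0 : ℝ}
    (hk : ∀ ε : ℝ, 0 < ε → ∀ᶠ n in (U : Filter ℕ), σ 1 n ≤ σ 0 n * B.d n ^ (k0 - ε))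
    (w0 sa sb : ℝ) (hq0 : 0 < q 0) (hq1 : 0 < q 1) {v t yy y z : ℝ} (hz : 0 ≤ z) (hθ : θ ≤ v)
    (hv0 : 0 ≤ v) (hv1 : v ≤ 1) (hy : 0 < y) (hyt : y + z < t) (hRt : t + y < Rg)
    (hRy : |yy| + y + z < Rg) (hty : t + y + z < yy + k0) (hcur : 2 * t + z ≤ yy + k0) :
    SAB B I lev inc σ q A g s w0 sa sb θ v t yy 1 (1 + q 1) (gam q) y z := by
  intro i hi hb t1 t2 e1 e2 gg hdir he K hK hgg ε hε
  exact Gc809.strip_curv hM h hk w0 sa sb hq0 hq1 hi hb (M1 := 32) (by norm_num) hdir he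
    (hgg.mono fun n hn => by rwa [one_mul] at hn) hz hθ hv0 hv1 hy hyt hRt hRy hty hcur hK hε

section ctx

variable {G : Geo TSet (Fin 2)} {L : ℕ → ℕ → LRay} {r : ℕ → ℝ} {g s : ℝ} {θ q : Fin 2 → ℝ}
    {Rg : ℝ} {a : Fin 2} {B : Base}
    {I : ℕ → Finset (ℕ × ℝ)} {lev : ℕ → ℚ → ℕ} {A : ℕ → ℝ}
    {f : ℕ → ℚ → ℕ → ℤ → ℕ} {b : ℕ → ℚ → ℕ → TSet} {vm : ℕ → ℚ → ℝ} {w : Fin 2 → ℕ → ℚ → ℝ}
    {fr : ℕ → ℚ → ℕ × ℝ → LInc} {fl : ℕ → ℕ × ℝ → LInc} {sc : Fin 12 → ℕ → ℝ}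
    {w0 sa sb δ R : ℝ} {I0 I' : ℕ → Finset (ℕ × ℝ)} {ν own : (Fin 12 → ℝ) → ℝ} {c₀ : ℝ}

/-- **stage data, thin case, curved strips** -/
theorem _root_.Crest.Agent.R116.CtxB468.CtxT.stgC
    (h : CtxT G L r g s θ q Rg B I lev A f b vm w fr fl sc w0 sa sb δ R I0 I' ν own c₀)
    (hq0 : 0 < q 0) (hq1 : 0 < q 1) {sC : Fin 12} (hsC : sC = 3 ∨ sC = 4)
    (hax : ∀ᶠ n in (U : Filter ℕ), ∀ x ∈ I n,
      ‖vb (fl n x)‖ ≤ 16 * |(fl n x).b1 * (tC sC).2 - (fl n x).b2 * (tC sC).1|)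
    {v t yy R0 hh : ℝ} (hv0 : 0 ≤ v) (hv1 : v ≤ 1) (hR : 0 < R0 * hh)
    (ht : 2 * (R0 * hh) < t) (hRt : t + R0 * hh < Rg) (hRy : |yy| + 2 * (R0 * hh) < Rg)
    {p rc : Fin 12 → ℝ} (hp : p ∈ Leg monL R) (hrc : rc ∈ Leg monL R)
    (hr : RecS w0 sa sb v t yy sC rc) (hc : ClsS w0 sa sb v t yy 0 p)
    (eC : p sC = rc sC) (eP : p 10 = rc 10)
    (rC : p sC + 2 * (R0 * hh) ≤ R) (rP : p 10 + 2 * (R0 * hh) ≤ R) :
    StgL B I0 (PL504.coN B lev w w0 sa sb fl) (N0T B s A vm) R sC 1 (gam q) (1 + q 1) R0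
      (DT g s q θ w0 sa sb rc) p rc hh := by
  have hk := hk_thin h.out.win.sys.mka h.out.thin (2 * t + |yy| + 2 * (R0 * hh) + 1)
  have hy := neg_abs_le yy
  refine stg_of h.out.win.sys.mka h.out.win.dat h.out.win.isL.wid h.sub0 hk hsC hax hv0 hv1
    (by linarith) (by linarith) (by linarith) (by linarith) (by linarith) zero_le_one hp hrc hr hc
    eC eP rC rP ?_
  intro y z h1 h2 h3 h4
  exact sab_curv h.out.win.sys.mka h.out.win.dat hk w0 sa sb hq0 hq1 h3.le hv0 hv0 hv1 h1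
    (by linarith) (by linarith) (by linarith) (by linarith) (by linarith)

/-- margins of one stage: class box `p`, record box `rc` at `(v, t, yy)` -/
structure StgM (w0 sa sb R Rg t0 : ℝ) (sC : Fin 12) (p rc : Fin 12 → ℝ) (v t yy : ℝ) : Prop where
  v0 : 0 ≤ v
  v1 : v ≤ 1
  tt : t0 ≤ t
  tR : t + t0 ≤ Rg
  yR : |yy| + t0 ≤ Rg
  p_leg : p ∈ Leg monL R
  rc_leg : rc ∈ Leg monL R
  nat : RecS w0 sa sb v t yy sC rc
  cls : ClsS w0 sa sb v t yy 0 p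
  eC : p sC = rc sC
  eP : p 10 = rc 10
  rC : p sC + t0 ≤ R
  rP : p 10 + t0 ≤ R

/-- **no heavy curved strips in the windows of moving base points**, thin case -/
theorem _root_.Crest.Agent.R116.CtxB468.CtxT.nsG
    (h : CtxT G L r g s θ q Rg B I lev A f b vm w fr fl sc w0 sa sb δ R I0 I' ν own c₀)
    (hq0 : 0 < q 0) (hq1 : 0 < q 1) {sC : Fin 12} (hsC : sC = 3 ∨ sC = 4)
    (hax : ∀ᶠ n in (U : Filter ℕ), ∀ x ∈ I n,
      ‖vb (fl n x)‖ ≤ 16 * |(fl n x).b1 * (tC sC).2 - (fl n x).b2 * (tC sC).1|)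
    {X rc : ℕ → Fin 12 → ℝ} {hh : ℕ → ℝ} (hpos : ∀ l, 0 < hh l)
    (hh0 : Tendsto hh atTop (𝓝 0)) {t0 : ℝ} (ht0 : 0 < t0)
    (hst : ∀ᶠ l in (atTop : Filter ℕ), ∃ v t yy : ℝ,
      StgM w0 sa sb R Rg t0 sC (X l) (rc l) v t yy)
    (hfr : ∀ ε : ℝ, 0 < ε → ∀ᶠ l in (atTop : Filter ℕ),
      c₀ + DT g s q θ w0 sa sb (rc l) - ν (X l ⊔ rc l) ≤ ε * hh l) {R0 : ℝ} (hR0 : 0 < R0) :
    ∃ k : ℕ → ℕ, Tendsto k U atTop ∧ ∀ k' : ℕ → ℕ, Tendsto k' U atTop →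
      (∀ᶠ n in (U : Filter ℕ), k' n ≤ k n) →
      ∀ (W : Wnd 12 (fun _ => ℕ × ℝ)) (D : Set (Fin 12 → ℝ)) (lam : (Fin 12 → ℝ) → ℝ) (tw : ℝ)
        (Mw : Mons 12) (top : Fin 12 → ℝ),
        WinG W B I0 I' (PL504.coN B lev w w0 sa sb fl) 2 D ν lam X hh k' tw Mw top →
        NsG W sC 10 Phi3 (Ok3 1) (gam q) (1 + q 1 + gam q + gam q + 1) R0 := by
  have hR : 0 ≤ R := by
    obtain ⟨l, v, t, yy, hl⟩ := hst.exists
    have h1 := hl.p_leg.1.nonneg 0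
    have h2 := hl.p_leg.2 0
    linarith
  have hg : 0 ≤ gam q := (gam_pos hq0 hq1).le
  have hst' : ∀ᶠ l in (atTop : Filter ℕ), StgL B I0 (PL504.coN B lev w w0 sa sb fl) (N0T B s A vm)
      R sC 1 (gam q) (1 + q 1) R0 (DT g s q θ w0 sa sb (rc l)) (X l) (rc l) (hh l) := by
    have hsm : ∀ᶠ l in (atTop : Filter ℕ), hh l < t0 / (4 * R0) :=
      hh0.eventually (gt_mem_nhds (by positivity))
    filter_upwards [hst, hsm] with l hl hlt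
    obtain ⟨v, t, yy, hl⟩ := hl
    have h1 : 0 < R0 * hh l := mul_pos hR0 (hpos l)
    have h2 : R0 * hh l < t0 / 4 := by
      rw [lt_div_iff₀ (by positivity)] at hlt
      linarith
    exact h.stgC hq0 hq1 hsC hax hl.v0 hl.v1 h1 (by linarith [hl.tt]) (by linarith [hl.tR])
      (by linarith [hl.yR]) hl.p_leg hl.rc_leg hl.nat hl.cls hl.eC hl.eP (by linarith [hl.rC])
      (by linarith [hl.rP])
  have hkp : ∀ s' : Fin 12, 0 < cK0 monL 2 ^ wtL s' := fun s' =>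
    pow_pos (lt_of_lt_of_le one_pos (cK0_one (M := monL) zero_le_two)) _
  obtain ⟨k, hk, hkk⟩ := nsG_light (sC := sC) (Gm := 1) (q := gam q) (C1 := 1 + q 1) (R0 := R0)
    (κA := cK0 monL 2 ^ wtL sC) (κB := cK0 monL 2 ^ wtL 10)
    h.ext hR h.comb hsC (hkp _) (hkp _) zero_le_one hg (by linarith) hR0 hpos hst' hfr
  refine ⟨k, hk, fun k' hk' hle W D lam tw Mw top w => ?_⟩
  refine hkk k' hk' hle W w.wl.ok w.hI w.hJ w.hB w.hco w.hM w.hC ?_ w.base ?_ ?_ ?_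
  · intro n; rw [w.hX]
  · rw [w.hkap]
  · rw [w.hkap]
  · intro ε hε
    filter_upwards [w.wl.ok.cls.big ε hε] with n hn
    rw [w.hT] at hn
    exact hn

end ctx

end Crest.Agent.R116.Nar192
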