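import Crest.Agent.R116.LZg4_725

/-!
# R116 (S0155), K side, NORM-L, geometric half (helper139)

* `CfF W L R s0 c x0 y0 p` : size `≤ L` (units of the light box of aperture `W`, length `R`) of the
  conformal function `p` in the frame (direction `c`, point `(x0, y0)`, time `s0`).
* `Nb W R s0 ..` : two frames at time `s0` are `W`-neighbours.
* `CfF.move`, `Nb.symm`, `Nb.trans`, `CfF.ray`.
* `lab W L R s0 r p` : label of the ray `r` with flag `p`; `near` (a ray with a flag sees at most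
  `2 * 3^11` labels among its neighbours with close flags), `cont` (one label = one container).
-/

set_option autoImplicit false
set_option linter.unusedSectionVars false

open Finset

namespace Crest.Agent.R116.Nl139

open Crest.Agent.R138.Defs (E2)
open Crest.Agent.R116.LZg725

section gen

variable {E : Type*} [NormedAddCommGroup E] [InnerProductSpace ℝ E]

/-- size of a conformal function in a frame. -/
structure CfF (W L R s0 : ℝ) (c x0 : E) (y0 : ℝ) (p : Cf E) : Prop where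
  ev : |p.ev x0 y0 s0| ≤ L * R
  ld : |p.ld c x0 y0 s0| ≤ L
  gr : ‖p.gr c x0 s0‖ * W ≤ L
  ny : |p.ny s0| * W ^ 2 ≤ L
  d : |p.d| * (W ^ 2 * R) ≤ L

/-- neighbouring frames at time `s0`. -/
structure Nb (W R s0 : ℝ) (c x : E) (y : ℝ) (c' x' : E) (y' : ℝ) : Prop where
  dir : ‖c' - c‖ ≤ W
  pos : ‖x' - x‖ ≤ W * R
  nul : |nrm c x' y' s0 - nrm c x y s0| ≤ W ^ 2 * R

variable {W V L R s0 : ℝ} {c x c' x' c'' x'' : E} {y y' y'' : ℝ} {p q : Cf E}

/-- the null normal w.r.t. a second direction, two points at the same time. -/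
theorem nrm_two (c C x x' : E) (y y' s : ℝ) :
    nrm C x y s - nrm C x' y' s = (nrm c x y s - nrm c x' y' s) + inner ℝ (C - c) (x - x') := by
  have h1 := nrm_sub c C x y s
  have h2 := nrm_sub c C x' y' s
  have e : inner ℝ (C - c) (x - x') = inner ℝ (C - c) (x + s • c) - inner ℝ (C - c) (x' + s • c) := by
    rw [← inner_sub_right]; congr 1; module
  rw [e]
  linarith

theorem Nb.mono (h : Nb W R s0 c x y c' x' y') (hW : 0 ≤ W) (hR : 0 ≤ R) (hV : W ≤ V) :
    Nb V R s0 c x y c' x' y' :=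
  ⟨h.dir.trans hV, h.pos.trans (mul_le_mul_of_nonneg_right hV hR),
    h.nul.trans (mul_le_mul_of_nonneg_right (pow_le_pow_left₀ hW hV 2) hR)⟩

theorem Nb.symm (h : Nb W R s0 c x y c' x' y') (hR : 0 ≤ R) :
    Nb (2 * W) R s0 c' x' y' c x y := by
  have hW : 0 ≤ W := (norm_nonneg _).trans h.dir
  have h1 := h.dir
  have h2 := h.pos
  rw [norm_sub_rev] at h1 h2
  refine ⟨h1.trans (by linarith), h2.trans (by nlinarith), ?_⟩
  rw [nrm_two c c' x x' y y' s0]
  refine (abs_add_le _ _).trans ?_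
  have a1 : |nrm c x y s0 - nrm c x' y' s0| ≤ W ^ 2 * R := by rw [abs_sub_comm]; exact h.nul
  have a2 : |inner ℝ (c' - c) (x - x')| ≤ W * (W * R) :=
    (abs_real_inner_le_norm _ _).trans (mul_le_mul h.dir h2 (norm_nonneg _) hW)
  have a3 : 0 ≤ W ^ 2 * R := by positivity
  nlinarith

theorem Nb.trans (h : Nb W R s0 c x y c' x' y') (h' : Nb V R s0 c' x' y' c'' x'' y'') (hR : 0 ≤ R) :
    Nb (W + V) R s0 c x y c'' x'' y'' := by
  have hW : 0 ≤ W := (norm_nonneg _).trans h.dir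
  have hV : 0 ≤ V := (norm_nonneg _).trans h'.dir
  refine ⟨?_, ?_, ?_⟩
  · have e : c'' - c = (c' - c) + (c'' - c') := by abel
    rw [e]
    exact (norm_add_le _ _).trans (add_le_add h.dir h'.dir)
  · have e : x'' - x = (x' - x) + (x'' - x') := by abel
    rw [e, add_mul]
    exact (norm_add_le _ _).trans (add_le_add h.pos h'.pos)
  · have e : nrm c x'' y'' s0 - nrm c x y s0 = (nrm c x' y' s0 - nrm c x y s0) +
        ((nrm c' x'' y'' s0 - nrm c' x' y' s0) + inner ℝ (c - c') (x'' - x')) := by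
      rw [← nrm_two c' c x'' x' y'' y' s0]; ring
    rw [e]
    refine (abs_add_le _ _).trans ?_
    have a1 := abs_add_le (nrm c' x'' y'' s0 - nrm c' x' y' s0) (inner ℝ (c - c') (x'' - x'))
    have a2 : |inner ℝ (c - c') (x'' - x')| ≤ W * (V * R) := by
      refine (abs_real_inner_le_norm _ _).trans (mul_le_mul ?_ h'.pos (norm_nonneg _) hW)
      rw [norm_sub_rev]; exact h.dir
    have a3 : 0 ≤ W * (V * R) := by positivity
    nlinarith [h.nul, h'.nul]

/-- **change of the frame**. -/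
theorem CfF.move (h : CfF W L R s0 c x y p) (hn : Nb W R s0 c x y c' x' y') (hW : 0 < W)
    (hR : 0 < R) : CfF W (7 * L) R s0 c' x' y' p := by
  have hL : 0 ≤ L := (abs_nonneg _).trans h.ld
  have hW2 : 0 < W ^ 2 := by positivity
  have hg : ‖p.gr c x s0‖ ≤ L / W := by rw [le_div_iff₀ hW]; exact h.gr
  have hny : |p.ny s0| ≤ L / W ^ 2 := by rw [le_div_iff₀ hW2]; exact h.ny
  have hd : |p.d| ≤ L / (W ^ 2 * R) := by rw [le_div_iff₀ (by positivity)]; exact h.d
  have hx2 : ‖x' - x‖ ^ 2 ≤ (W * R) ^ 2 := pow_le_pow_left₀ (norm_nonneg _) hn.pos 2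
  -- gradient at the new point, old direction
  have g1 : ‖p.gr c x' s0‖ ≤ 3 * L / W := by
    rw [Cf.gr_move p c x x' s0 s0, sub_self, zero_smul, add_zero]
    refine (norm_add_le _ _).trans ?_
    rw [norm_smul, Real.norm_eq_abs, abs_mul, abs_of_pos (two_pos : (0:ℝ) < 2)]
    have a1 : 2 * |p.d| * ‖x' - x‖ ≤ 2 * (L / (W ^ 2 * R)) * (W * R) :=
      mul_le_mul (by linarith) hn.pos (norm_nonneg _) (by positivity)
    have a2 : 2 * (L / (W ^ 2 * R)) * (W * R) = 2 * L / W := by field_simp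
    rw [a2] at a1
    have a3 : L / W + 2 * L / W = 3 * L / W := by ring
    linarith
  have g2 : |inner ℝ (p.gr c x' s0) (c' - c)| ≤ 3 * L := by
    refine (abs_real_inner_le_norm _ _).trans ?_
    have a1 := mul_le_mul g1 hn.dir (norm_nonneg _) (by positivity)
    have a2 : 3 * L / W * W = 3 * L := by field_simp
    linarith
  have g3 : |p.ny s0 * ‖c' - c‖ ^ 2 / 2| ≤ L / 2 := by
    rw [abs_div, abs_mul, abs_of_nonneg (sq_nonneg ‖c' - c‖), abs_of_pos (two_pos : (0:ℝ) < 2)]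
    have a1 := mul_le_mul hny (pow_le_pow_left₀ (norm_nonneg _) hn.dir 2) (sq_nonneg _)
      (by positivity)
    have a2 : L / W ^ 2 * W ^ 2 = L := by field_simp
    linarith
  have g4 : |2 * p.d * (nrm c x' y' s0 - nrm c x y s0)| ≤ 2 * L := by
    rw [abs_mul, abs_mul, abs_of_pos (two_pos : (0:ℝ) < 2)]
    have a1 := mul_le_mul hd hn.nul (abs_nonneg _) (by positivity)
    have a2 : L / (W ^ 2 * R) * (W ^ 2 * R) = L := by field_simp
    linarith
  refine ⟨?_, ?_, ?_, h.ny.trans (by linarith), h.d.trans (by linarith)⟩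
  · rw [Cf.ev_expand p c x y s0 x' y' s0, sub_self, zero_smul, add_zero, mul_zero, mul_zero,
      add_zero, zero_mul, sub_zero]
    have a1 : |inner ℝ (p.gr c x s0) (x' - x)| ≤ L * R := by
      refine (abs_real_inner_le_norm _ _).trans ?_
      have b1 := mul_le_mul hg hn.pos (norm_nonneg _) (by positivity)
      have b2 : L / W * (W * R) = L * R := by field_simp
      linarith
    have a2 : |p.ny s0 * (nrm c x' y' s0 - nrm c x y s0)| ≤ L * R := by
      rw [abs_mul]
      have b1 := mul_le_mul hny hn.nul (abs_nonneg _) (by positivity)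
      have b2 : L / W ^ 2 * (W ^ 2 * R) = L * R := by field_simp
      linarith
    have a3 : |p.d * ‖x' - x‖ ^ 2| ≤ L * R := by
      rw [abs_mul, abs_of_nonneg (sq_nonneg ‖x' - x‖)]
      have b1 := mul_le_mul hd hx2 (sq_nonneg _) (by positivity)
      have b2 : L / (W ^ 2 * R) * (W * R) ^ 2 = L * R := by field_simp
      linarith
    calc _ ≤ |p.ev x y s0| + |inner ℝ (p.gr c x s0) (x' - x)| +
          |p.ny s0 * (nrm c x' y' s0 - nrm c x y s0)| + |p.d * ‖x' - x‖ ^ 2| := by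
          refine (abs_add_le _ _).trans (add_le_add ?_ le_rfl)
          refine (abs_add_le _ _).trans (add_le_add ?_ le_rfl)
          exact abs_add_le _ _
      _ ≤ 7 * L * R := by nlinarith [h.ev, mul_nonneg hL hR.le]
  · rw [Cf.ld_dir p c c' x' y' s0, Cf.ld_move p c x x' y y' s0 s0]
    calc _ ≤ |p.ld c x y s0| + |2 * p.d * (nrm c x' y' s0 - nrm c x y s0)| +
          |inner ℝ (p.gr c x' s0) (c' - c)| + |p.ny s0 * ‖c' - c‖ ^ 2 / 2| := by
          refine (abs_add_le _ _).trans (add_le_add ?_ le_rfl)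
          refine (abs_sub _ _).trans (add_le_add ?_ le_rfl)
          exact abs_sub _ _
      _ ≤ 7 * L := by linarith [h.ld]
  · have a1 : ‖p.gr c' x' s0‖ ≤ 4 * L / W := by
      rw [Cf.gr_dir p c c' x' s0]
      refine (norm_sub_le _ _).trans ?_
      rw [norm_smul, Real.norm_eq_abs]
      have b1 := mul_le_mul hny hn.dir (norm_nonneg _) (by positivity)
      have b2 : L / W ^ 2 * W = L / W := by field_simp
      have b3 : 3 * L / W + L / W = 4 * L / W := by ring
      linarith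
    have a2 := mul_le_mul_of_nonneg_right a1 hW.le
    have a3 : 4 * L / W * W = 4 * L := by field_simp
    linarith

/-- larger aperture. -/
theorem CfF.widen (h : CfF W L R s0 c x y p) {K : ℝ} (hK : 1 ≤ K) (hR : 0 ≤ R) :
    CfF (K * W) (K ^ 2 * L) R s0 c x y p := by
  have hL : 0 ≤ L := (abs_nonneg _).trans h.ld
  have hK2 : K ≤ K ^ 2 := by nlinarith
  have hK1 : 1 ≤ K ^ 2 := by nlinarith
  refine ⟨h.ev.trans ?_, h.ld.trans ?_, ?_, ?_, ?_⟩
  · exact mul_le_mul_of_nonneg_right (by nlinarith) hR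
  · nlinarith
  · have e : ‖p.gr c x s0‖ * (K * W) = K * (‖p.gr c x s0‖ * W) := by ring
    rw [e]
    calc K * (‖p.gr c x s0‖ * W) ≤ K * L := mul_le_mul_of_nonneg_left h.gr (by linarith)
      _ ≤ K ^ 2 * L := mul_le_mul_of_nonneg_right hK2 hL
  · have e : |p.ny s0| * (K * W) ^ 2 = K ^ 2 * (|p.ny s0| * W ^ 2) := by ring
    rw [e]
    exact mul_le_mul_of_nonneg_left h.ny (by positivity)
  · have e : |p.d| * ((K * W) ^ 2 * R) = K ^ 2 * (|p.d| * (W ^ 2 * R)) := by ring
    rw [e]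
    exact mul_le_mul_of_nonneg_left h.d (by positivity)

/-- smaller aperture. -/
theorem CfF.narrow (h : CfF W L R s0 c x y p) (hV : 0 ≤ V) (hVW : V ≤ W) (hR : 0 ≤ R) :
    CfF V L R s0 c x y p := by
  refine ⟨h.ev, h.ld, ?_, ?_, ?_⟩
  · exact (mul_le_mul_of_nonneg_left hVW (norm_nonneg _)).trans h.gr
  · exact (mul_le_mul_of_nonneg_left (pow_le_pow_left₀ hV hVW 2) (abs_nonneg _)).trans h.ny
  · exact (mul_le_mul_of_nonneg_left (mul_le_mul_of_nonneg_right (pow_le_pow_left₀ hV hVW 2) hR)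
      (abs_nonneg _)).trans h.d

theorem CfF.mono {L' : ℝ} (h : CfF W L R s0 c x y p) (hL : L ≤ L') (hR : 0 ≤ R) :
    CfF W L' R s0 c x y p :=
  ⟨h.ev.trans (mul_le_mul_of_nonneg_right hL hR), h.ld.trans hL, h.gr.trans hL, h.ny.trans hL,
    h.d.trans hL⟩

/-- values on the ray of the frame. -/
theorem CfF.ray {C a : E} {k : ℝ} (h : CfF W L R s0 C (rx C a s0) (ry C k s0) p) {s : ℝ}
    (hs : |s - s0| ≤ R) : |p.ev (rx C a s) (ry C k s) s| ≤ 2 * L * R := by
  have hL : 0 ≤ L := (abs_nonneg _).trans h.ld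
  have h1 := h.ev
  have h2 := h.ld
  rw [Cf.ld_ray] at h2
  have e : p.ev (rx C a s) (ry C k s) s = p.ev (rx C a s0) (ry C k s0) s0 +
      (s - s0) * p.rB C a k := by rw [Cf.ev_ray, Cf.ev_ray]; ring
  rw [e]
  refine (abs_add_le _ _).trans ?_
  rw [abs_mul]
  have := mul_le_mul hs h2 (abs_nonneg _) ((abs_nonneg _).trans hs)
  linarith

/-- values on a neighbouring ray. -/
theorem CfF.near_ray {C a : E} {k : ℝ} (h : CfF W L R s0 c x y p)
    (hn : Nb W R s0 c x y C (rx C a s0) (ry C k s0)) (hW : 0 < W) (hR : 0 < R) {s : ℝ}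
    (hs : |s - s0| ≤ R) : |p.ev (rx C a s) (ry C k s) s| ≤ 14 * L * R := by
  have h1 := (h.move hn hW hR).ray hs
  linarith

/-- the ray of a neighbouring frame lies in the box. -/
theorem Nb.inK {C a : E} {k : ℝ} (hn : Nb W R s0 c x y C (rx C a s0) (ry C k s0)) (hR : 0 ≤ R)
    {s : ℝ} (hs : |s - s0| ≤ R) :
    InK c (2 * W) (4 * W ^ 2) R x y s0 (rx C a s) (ry C k s) s := by
  have hW : 0 ≤ W := (norm_nonneg _).trans hn.dir
  refine ⟨hs, ?_, ?_⟩
  · have e : rx C a s - x + (s - s0) • c = (rx C a s0 - x) - (s - s0) • (C - c) := by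
      unfold rx; module
    rw [e]
    refine (norm_sub_le _ _).trans ?_
    rw [norm_smul, Real.norm_eq_abs]
    have h1 := mul_le_mul hs hn.dir (norm_nonneg _) hR
    have h2 := hn.pos
    linarith
  · have e : nrm c (rx C a s) (ry C k s) s - nrm c x y s0 =
        (nrm c (rx C a s0) (ry C k s0) s0 - nrm c x y s0) + (s - s0) * (‖C - c‖ ^ 2 / 2) := by
      rw [nrm_ray' c C a k s, nrm_ray' c C a k s0]; ring
    rw [e]
    refine (abs_add_le _ _).trans ?_
    rw [abs_mul, abs_of_nonneg (a := ‖C - c‖ ^ 2 / 2) (by positivity)]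
    have h1 := pow_le_pow_left₀ (norm_nonneg _) hn.dir 2
    have h2 := mul_le_mul hs (by linarith : ‖C - c‖ ^ 2 / 2 ≤ W ^ 2 / 2) (by positivity) hR
    have h3 := hn.nul
    have h4 : 0 ≤ W ^ 2 * R := by positivity
    nlinarith

/-! ### linearity -/

theorem ev_lin (ε : ℝ) (p q : Cf E) (x : E) (y s : ℝ) :
    (Cf.add p (Cf.smul (-ε) q)).ev x y s = p.ev x y s - ε * q.ev x y s := by
  rw [Cf.ev_add, Cf.ev_smul]; ring

theorem ny_lin (ε : ℝ) (p q : Cf E) (s : ℝ) :
    (Cf.add p (Cf.smul (-ε) q)).ny s = p.ny s - ε * q.ny s := by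
  unfold Cf.ny Cf.add Cf.smul; ring

theorem gr_lin (ε : ℝ) (p q : Cf E) (c x : E) (s : ℝ) :
    (Cf.add p (Cf.smul (-ε) q)).gr c x s = p.gr c x s - ε • q.gr c x s := by
  unfold Cf.gr
  rw [ny_lin]
  unfold Cf.add Cf.smul
  simp only []
  module

theorem ld_lin (ε : ℝ) (p q : Cf E) (c x : E) (y s : ℝ) :
    (Cf.add p (Cf.smul (-ε) q)).ld c x y s = p.ld c x y s - ε * q.ld c x y s := by
  unfold Cf.ld
  rw [ny_lin]
  unfold Cf.add Cf.smul
  simp only []
  have e : p.be + -ε • q.be + (2 * (p.d + -ε * q.d)) • x =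
      (p.be + (2 * p.d) • x) - ε • (q.be + (2 * q.d) • x) := by module
  rw [e, inner_sub_left, real_inner_smul_left]
  ring

theorem d_lin (ε : ℝ) (p q : Cf E) : (Cf.add p (Cf.smul (-ε) q)).d = p.d - ε * q.d := by
  unfold Cf.add Cf.smul; ring

/-- difference `p - ε q`. -/
noncomputable def df (ε : ℝ) (p q : Cf E) : Cf E := Cf.add p (Cf.smul (-ε) q)

end gen

/-! ### labels -/

theorem abs_coord_le (v : E2) (i : Fin 2) : |v i| ≤ ‖v‖ := by
  have := PiLp.norm_apply_le v i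
  simpa using this

theorem norm_le_coord (v : E2) {b : ℝ} (h0 : |v 0| ≤ b) (h1 : |v 1| ≤ b) : ‖v‖ ≤ 2 * b := by
  have hb : 0 ≤ b := (abs_nonneg _).trans h0
  have h2 : ‖v‖ ^ 2 = v 0 ^ 2 + v 1 ^ 2 := by
    rw [EuclideanSpace.norm_sq_eq, Fin.sum_univ_two]
    simp
  have h3 : v 0 ^ 2 ≤ b ^ 2 := by rw [← sq_abs]; exact pow_le_pow_left₀ (abs_nonneg _) h0 2
  have h4 : v 1 ^ 2 ≤ b ^ 2 := by rw [← sq_abs]; exact pow_le_pow_left₀ (abs_nonneg _) h1 2
  nlinarith [norm_nonneg v]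

theorem floor_near {x x' : ℝ} (h : |x' - x| ≤ 1) : ⌊x'⌋ ∈ Icc (⌊x⌋ - 1) (⌊x⌋ + 1) := by
  obtain ⟨h1, h2⟩ := abs_le.1 h
  rw [mem_Icc]
  have a1 := Int.floor_le x
  have a2 := Int.lt_floor_add_one x
  have a3 := Int.floor_le x'
  have a4 := Int.lt_floor_add_one x'
  constructor
  · have : (⌊x⌋ - 1 : ℝ) < ⌊x'⌋ + 1 := by linarith
    have h5 : (⌊x⌋ - 1 : ℤ) < ⌊x'⌋ + 1 := by exact_mod_cast this
    omega
  · have : (⌊x'⌋ : ℝ) < ⌊x⌋ + 1 + 1 := by linarith
    have h5 : ⌊x'⌋ < ⌊x⌋ + 1 + 1 := by exact_mod_cast this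
    omega

theorem card_three (a : ℤ) : (Icc (a - 1) (a + 1)).card = 3 := by
  rw [Int.card_Icc]
  have : a + 1 + 1 - (a - 1) = 3 := by ring
  rw [this]; rfl

/-- integer neighbours of a real vector. -/
noncomputable def nbv {n : ℕ} (v : Fin n → ℝ) : Finset (Fin n → ℤ) :=
  Fintype.piFinset fun i => Icc (⌊v i⌋ - 1) (⌊v i⌋ + 1)

theorem card_nbv {n : ℕ} (v : Fin n → ℝ) : (nbv v).card = 3 ^ n := by
  unfold nbv
  rw [Fintype.card_piFinset, Finset.prod_congr rfl fun i _ => card_three ⌊v i⌋]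
  simp

theorem floor_mem_nbv {n : ℕ} {v v' : Fin n → ℝ} (h : ∀ i, |v' i - v i| ≤ 1) :
    (fun i => ⌊v' i⌋) ∈ nbv v := by
  unfold nbv
  rw [Fintype.mem_piFinset]
  exact fun i => floor_near (h i)

section labels

variable (W L R s0 : ℝ)

/-- rounded direction. -/
noncomputable def c0 (z : Fin 4 → ℤ) : E2 := !₂[W * z 0, W * z 1]
/-- rounded lateral position. -/
noncomputable def x0 (z : Fin 4 → ℤ) : E2 := !₂[W * R * z 2, W * R * z 3]
/-- rounded null position. -/
noncomputable def y0 (z : Fin 4 → ℤ) (n : ℤ) : ℝ :=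
  n * (W ^ 2 * R) - inner ℝ (c0 W z) (x0 W R z) - s0 * ‖c0 W z‖ ^ 2 / 2

theorem nrm_y0 (z : Fin 4 → ℤ) (n : ℤ) :
    nrm (c0 W z) (x0 W R z) (y0 W R s0 z n) s0 = n * (W ^ 2 * R) := by
  unfold nrm y0; ring

/-- position vector of a ray at time `s0`. -/
noncomputable def posv (C a : E2) : Fin 4 → ℝ :=
  ![C 0 / W, C 1 / W, (rx C a s0) 0 / (W * R), (rx C a s0) 1 / (W * R)]

noncomputable def lab1 (C a : E2) : Fin 4 → ℤ := fun i => ⌊posv W R s0 C a i⌋

noncomputable def lab2 (z : Fin 4 → ℤ) (C a : E2) (k : ℝ) : ℤ :=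
  ⌊nrm (c0 W z) (rx C a s0) (ry C k s0) s0 / (W ^ 2 * R)⌋

/-- flag vector in a frame. -/
noncomputable def flv (c x : E2) (y : ℝ) (p : Cf E2) : Fin 6 → ℝ :=
  ![p.ev x y s0 / (L * R), p.ld c x y s0 / L, (p.gr c x s0) 0 * W / L, (p.gr c x s0) 1 * W / L,
    p.ny s0 * W ^ 2 / L, p.d * (W ^ 2 * R) / L]

noncomputable def lab3 (z : Fin 4 → ℤ) (n : ℤ) (p : Cf E2) : Fin 6 → ℤ :=
  fun i => ⌊flv W L R s0 (c0 W z) (x0 W R z) (y0 W R s0 z n) p i⌋

/-- type of labels. -/
abbrev Lab := (Fin 4 → ℤ) × ℤ × (Fin 6 → ℤ)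

/-- **label of a ray with a flag**. -/
noncomputable def lab (C a : E2) (k : ℝ) (p : Cf E2) : Lab :=
  (lab1 W R s0 C a, lab2 W R s0 (lab1 W R s0 C a) C a k,
    lab3 W L R s0 (lab1 W R s0 C a) (lab2 W R s0 (lab1 W R s0 C a) C a k) p)

/-- labels seen from a ray with a flag. -/
noncomputable def nbl (C a : E2) (k : ℝ) (p : Cf E2) : Finset Lab :=
  (nbv (posv W R s0 C a)).biUnion fun z =>
    (Icc (lab2 W R s0 z C a k - 1) (lab2 W R s0 z C a k + 1)).biUnion fun n =>
      ({1, -1} : Finset ℝ).biUnion fun ε =>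
        (nbv (flv W L R s0 (c0 W z) (x0 W R z) (y0 W R s0 z n) (Cf.smul ε p))).image
          fun t => (z, n, t)

theorem card_nbl (C a : E2) (k : ℝ) (p : Cf E2) : (nbl W L R s0 C a k p).card ≤ 2 * 3 ^ 11 := by
  unfold nbl
  refine (card_biUnion_le_card_mul _ _ (3 * (2 * 3 ^ 6)) fun z _ => ?_).trans ?_
  · refine (card_biUnion_le_card_mul _ _ (2 * 3 ^ 6) fun n _ => ?_).trans (le_of_eq ?_)
    · refine (card_biUnion_le_card_mul _ _ (3 ^ 6) fun ε _ => ?_).trans ?_
      · exact card_image_le.trans (le_of_eq (card_nbv _))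
      · have : ({1, -1} : Finset ℝ).card ≤ 2 := card_le_two
        exact Nat.mul_le_mul_right _ this
    · rw [card_three]
  · rw [card_nbv]; norm_num

variable {W L R s0}

theorem frac_le {x u : ℝ} (hu : 0 < u) : |x - u * ⌊x / u⌋| ≤ u := by
  have h1 := Int.floor_le (x / u)
  have h2 := Int.lt_floor_add_one (x / u)
  rw [le_div_iff₀ hu] at h1
  rw [div_lt_iff₀ hu] at h2
  rw [abs_le]
  constructor <;> nlinarith

theorem c0_near (hW : 0 < W) (C a : E2) : ‖C - c0 W (lab1 W R s0 C a)‖ ≤ 2 * W := by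
  refine norm_le_coord _ ?_ ?_
  · have := frac_le (x := C 0) hW
    simpa [c0, lab1, posv] using this
  · have := frac_le (x := C 1) hW
    simpa [c0, lab1, posv] using this

theorem x0_near (hW : 0 < W) (hR : 0 < R) (C a : E2) :
    ‖rx C a s0 - x0 W R (lab1 W R s0 C a)‖ ≤ 2 * (W * R) := by
  have hWR : 0 < W * R := mul_pos hW hR
  refine norm_le_coord _ ?_ ?_
  · have := frac_le (x := (rx C a s0) 0) hWR
    simpa [x0, lab1, posv] using this
  · have := frac_le (x := (rx C a s0) 1) hWR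
    simpa [x0, lab1, posv] using this

theorem n_near (hW : 0 < W) (hR : 0 < R) (z : Fin 4 → ℤ) (C a : E2) (k : ℝ) :
    |nrm (c0 W z) (rx C a s0) (ry C k s0) s0 -
      nrm (c0 W z) (x0 W R z) (y0 W R s0 z (lab2 W R s0 z C a k)) s0| ≤ W ^ 2 * R := by
  rw [nrm_y0]
  have hWR : 0 < W ^ 2 * R := by positivity
  have := frac_le (x := nrm (c0 W z) (rx C a s0) (ry C k s0) s0) hWR
  unfold lab2
  rw [mul_comm ((⌊nrm (c0 W z) (rx C a s0) (ry C k s0) s0 / (W ^ 2 * R)⌋ : ℤ) : ℝ)]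
  exact this

/-- the rounded frame of a ray is a neighbour of the ray. -/
theorem nb_lab (hW : 0 < W) (hR : 0 < R) (C a : E2) (k : ℝ) :
    Nb (2 * W) R s0 (c0 W (lab1 W R s0 C a)) (x0 W R (lab1 W R s0 C a))
      (y0 W R s0 (lab1 W R s0 C a) (lab2 W R s0 (lab1 W R s0 C a) C a k))
      C (rx C a s0) (ry C k s0) := by
  refine ⟨c0_near hW C a, ?_, ?_⟩
  · have := x0_near (s0 := s0) hW hR C a
    linarith
  · have := n_near (s0 := s0) hW hR (lab1 W R s0 C a) C a k
    have h2 : 0 ≤ W ^ 2 * R := by positivity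
    nlinarith

/-- **near**: a neighbouring ray with a close flag has one of `≤ 2 * 3^11` labels. -/
theorem near (hW : 0 < W) (hR : 0 < R) (hL : 0 < L) {C a C' a' : E2} {k k' : ℝ} {p p' : Cf E2}
    {ε : ℝ} (hε : ε = 1 ∨ ε = -1)
    (hn : Nb (W / 4) R s0 C (rx C a s0) (ry C k s0) C' (rx C' a' s0) (ry C' k' s0))
    (hd : CfF W (L / 112) R s0 C (rx C a s0) (ry C k s0) (df ε p' p)) :
    lab W L R s0 C' a' k' p' ∈ nbl W L R s0 C a k p := by
  have hWR : 0 < W * R := mul_pos hW hR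
  have hW2R : 0 < W ^ 2 * R := by positivity
  have hLR : 0 < L * R := mul_pos hL hR
  set z := lab1 W R s0 C' a' with hz
  have hc' : ‖C' - c0 W z‖ ≤ 2 * W := c0_near hW C' a'
  have hx' : ‖rx C' a' s0 - x0 W R z‖ ≤ 2 * (W * R) := x0_near hW hR C' a'
  -- first component
  have hz1 : z ∈ nbv (posv W R s0 C a) := by
    refine floor_mem_nbv (v' := posv W R s0 C' a') fun i => ?_
    have b1 : ∀ j : Fin 2, |C' j - C j| ≤ W := by
      intro j
      have := abs_coord_le (C' - C) j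
      simp only [PiLp.sub_apply] at this
      linarith [hn.dir]
    have b2 : ∀ j : Fin 2, |(rx C' a' s0) j - (rx C a s0) j| ≤ W * R := by
      intro j
      have := abs_coord_le (rx C' a' s0 - rx C a s0) j
      simp only [PiLp.sub_apply] at this
      have := hn.pos
      nlinarith
    fin_cases i
    · change |C' 0 / W - C 0 / W| ≤ 1
      rw [← sub_div, abs_div, abs_of_pos hW, div_le_one hW]; exact b1 0
    · change |C' 1 / W - C 1 / W| ≤ 1
      rw [← sub_div, abs_div, abs_of_pos hW, div_le_one hW]; exact b1 1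
    · change |(rx C' a' s0) 0 / (W * R) - (rx C a s0) 0 / (W * R)| ≤ 1
      rw [← sub_div, abs_div, abs_of_pos hWR, div_le_one hWR]; exact b2 0
    · change |(rx C' a' s0) 1 / (W * R) - (rx C a s0) 1 / (W * R)| ≤ 1
      rw [← sub_div, abs_div, abs_of_pos hWR, div_le_one hWR]; exact b2 1
  -- second component
  have hcC : ‖c0 W z - C‖ ≤ 3 * W := by
    have e : c0 W z - C = (C' - C) - (C' - c0 W z) := by abel
    rw [e]
    exact (norm_sub_le _ _).trans (by linarith [hn.dir])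
  have hnn : |nrm (c0 W z) (rx C' a' s0) (ry C' k' s0) s0 -
      nrm (c0 W z) (rx C a s0) (ry C k s0) s0| ≤ W ^ 2 * R := by
    rw [nrm_two C (c0 W z) (rx C' a' s0) (rx C a s0)]
    refine (abs_add_le _ _).trans ?_
    have a1 := hn.nul
    have a2 : |inner ℝ (c0 W z - C) (rx C' a' s0 - rx C a s0)| ≤ 3 * W * (W / 4 * R) :=
      (abs_real_inner_le_norm _ _).trans (mul_le_mul hcC hn.pos (norm_nonneg _) (by positivity))
    nlinarith
  set n := lab2 W R s0 z C' a' k' with hnd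
  have hn1 : n ∈ Icc (lab2 W R s0 z C a k - 1) (lab2 W R s0 z C a k + 1) := by
    refine floor_near ?_
    rw [← sub_div, abs_div, abs_of_pos hW2R, div_le_one hW2R]
    exact hnn
  -- the rounded frame is a neighbour of the ray `r`
  have hF : Nb (4 * W) R s0 C (rx C a s0) (ry C k s0) (c0 W z) (x0 W R z) (y0 W R s0 z n) := by
    refine ⟨hcC.trans (by linarith), ?_, ?_⟩
    · have e : x0 W R z - rx C a s0 = (rx C' a' s0 - rx C a s0) - (rx C' a' s0 - x0 W R z) := by abel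
      rw [e]
      refine (norm_sub_le _ _).trans ?_
      have := hn.pos
      nlinarith
    · rw [nrm_two (c0 W z) C (x0 W R z) (rx C a s0)]
      refine (abs_add_le _ _).trans ?_
      have a1 := n_near (s0 := s0) hW hR z C' a' k'
      rw [← hnd] at a1
      have a2 : |nrm (c0 W z) (x0 W R z) (y0 W R s0 z n) s0 -
          nrm (c0 W z) (rx C a s0) (ry C k s0) s0| ≤ 2 * (W ^ 2 * R) := by
        have e : nrm (c0 W z) (x0 W R z) (y0 W R s0 z n) s0 -
            nrm (c0 W z) (rx C a s0) (ry C k s0) s0 =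
            (nrm (c0 W z) (rx C' a' s0) (ry C' k' s0) s0 -
              nrm (c0 W z) (rx C a s0) (ry C k s0) s0) -
            (nrm (c0 W z) (rx C' a' s0) (ry C' k' s0) s0 -
              nrm (c0 W z) (x0 W R z) (y0 W R s0 z n) s0) := by ring
        rw [e]
        exact (abs_sub _ _).trans (by linarith)
      have a3 : ‖x0 W R z - rx C a s0‖ ≤ 3 * (W * R) := by
        have e : x0 W R z - rx C a s0 = (rx C' a' s0 - rx C a s0) - (rx C' a' s0 - x0 W R z) := by
          abel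
        rw [e]
        refine (norm_sub_le _ _).trans ?_
        have := hn.pos
        nlinarith
      have a4 : |inner ℝ (C - c0 W z) (x0 W R z - rx C a s0)| ≤ 3 * W * (3 * (W * R)) := by
        refine (abs_real_inner_le_norm _ _).trans (mul_le_mul ?_ a3 (norm_nonneg _) (by positivity))
        rw [norm_sub_rev]; exact hcC
      nlinarith
  -- the difference of the flags in the rounded frame
  have hD : CfF W L R s0 (c0 W z) (x0 W R z) (y0 W R s0 z n) (df ε p' p) := by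
    have h1 := hd.widen (K := 4) (by norm_num) hR.le
    have h2 := h1.move hF (by positivity) hR
    have h3 := h2.narrow (V := W) hW.le (by linarith) hR.le
    exact h3.mono (by linarith) hR.le
  have hsm : ∀ i, |flv W L R s0 (c0 W z) (x0 W R z) (y0 W R s0 z n) p' i -
      flv W L R s0 (c0 W z) (x0 W R z) (y0 W R s0 z n) (Cf.smul ε p) i| ≤ 1 := by
    have e1 := hD.ev
    have e2 := hD.ld
    have e3 := hD.gr
    have e4 := hD.ny
    have e5 := hD.d
    unfold df at e1 e2 e3 e4 e5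
    rw [ev_lin] at e1
    rw [ld_lin] at e2
    rw [gr_lin] at e3
    rw [ny_lin] at e4
    rw [d_lin] at e5
    have g1 : (Cf.smul ε p).gr (c0 W z) (x0 W R z) s0 = ε • p.gr (c0 W z) (x0 W R z) s0 := by
      unfold Cf.gr Cf.ny Cf.smul
      simp only []
      module
    have g2 : ∀ i : Fin 2, |(p'.gr (c0 W z) (x0 W R z) s0) i * W / L -
        ((Cf.smul ε p).gr (c0 W z) (x0 W R z) s0) i * W / L| ≤ 1 := by
      intro i
      rw [g1, ← sub_div, abs_div, abs_of_pos hL, div_le_one hL, ← sub_mul, abs_mul, abs_of_pos hW]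
      have := abs_coord_le (p'.gr (c0 W z) (x0 W R z) s0 - ε • p.gr (c0 W z) (x0 W R z) s0) i
      simp only [PiLp.sub_apply] at this
      exact (mul_le_mul_of_nonneg_right this hW.le).trans e3
    intro i
    fin_cases i
    · change |p'.ev (x0 W R z) (y0 W R s0 z n) s0 / (L * R) -
        (Cf.smul ε p).ev (x0 W R z) (y0 W R s0 z n) s0 / (L * R)| ≤ 1
      rw [Cf.ev_smul, ← sub_div, abs_div, abs_of_pos hLR, div_le_one hLR]
      exact e1
    · change |p'.ld (c0 W z) (x0 W R z) (y0 W R s0 z n) s0 / L -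
        (Cf.smul ε p).ld (c0 W z) (x0 W R z) (y0 W R s0 z n) s0 / L| ≤ 1
      rw [Cf.ld_smul, ← sub_div, abs_div, abs_of_pos hL, div_le_one hL]
      exact e2
    · exact g2 0
    · exact g2 1
    · change |p'.ny s0 * W ^ 2 / L - (Cf.smul ε p).ny s0 * W ^ 2 / L| ≤ 1
      rw [Cf.ny_smul, ← sub_div, abs_div, abs_of_pos hL, div_le_one hL, ← sub_mul, abs_mul,
        abs_of_pos (by positivity : (0:ℝ) < W ^ 2)]
      exact e4
    · change |p'.d * (W ^ 2 * R) / L - (Cf.smul ε p).d * (W ^ 2 * R) / L| ≤ 1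
      have e : (Cf.smul ε p).d = ε * p.d := rfl
      rw [e, ← sub_div, abs_div, abs_of_pos hL, div_le_one hL, ← sub_mul, abs_mul,
        abs_of_pos hW2R]
      exact e5
  unfold nbl lab
  rw [mem_biUnion]
  refine ⟨z, hz1, ?_⟩
  rw [mem_biUnion]
  refine ⟨n, hn1, ?_⟩
  rw [mem_biUnion]
  refine ⟨ε, by rcases hε with h | h <;> simp [h], ?_⟩
  rw [mem_image]
  exact ⟨lab3 W L R s0 z n p', floor_mem_nbv hsm, rfl⟩

/-- **one label = one container**: rays with flags of the same label lie in one box of aperture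
`4 W` and their flags differ by `≤ 8 L` in the rounded frame. -/
theorem cont_flag (hW : 0 < W) (hR : 0 < R) (hL : 0 < L) {C a C' a' : E2} {k k' : ℝ}
    {p p' : Cf E2} (h : lab W L R s0 C' a' k' p' = lab W L R s0 C a k p) :
    CfF (2 * W) (8 * L) R s0 (c0 W (lab1 W R s0 C a)) (x0 W R (lab1 W R s0 C a))
      (y0 W R s0 (lab1 W R s0 C a) (lab2 W R s0 (lab1 W R s0 C a) C a k)) (df 1 p' p) ∧
    Nb (2 * W) R s0 (c0 W (lab1 W R s0 C a)) (x0 W R (lab1 W R s0 C a))
      (y0 W R s0 (lab1 W R s0 C a) (lab2 W R s0 (lab1 W R s0 C a) C a k))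
      C' (rx C' a' s0) (ry C' k' s0) := by
  have hLR : 0 < L * R := mul_pos hL hR
  have hW2R : 0 < W ^ 2 * R := by positivity
  have h1 : lab1 W R s0 C' a' = lab1 W R s0 C a := congrArg Prod.fst h
  have h2 : lab2 W R s0 (lab1 W R s0 C' a') C' a' k' = lab2 W R s0 (lab1 W R s0 C a) C a k :=
    congrArg (fun t : Lab => t.2.1) h
  have h3 : lab3 W L R s0 (lab1 W R s0 C' a') (lab2 W R s0 (lab1 W R s0 C' a') C' a' k') p' =
      lab3 W L R s0 (lab1 W R s0 C a) (lab2 W R s0 (lab1 W R s0 C a) C a k) p :=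
    congrArg (fun t : Lab => t.2.2) h
  have hnb := nb_lab (s0 := s0) hW hR C' a' k'
  rw [h1] at h2 h3 hnb
  rw [h2] at h3 hnb
  refine ⟨?_, hnb⟩
  set z := lab1 W R s0 C a
  set n := lab2 W R s0 z C a k
  have hdif : ∀ i, |flv W L R s0 (c0 W z) (x0 W R z) (y0 W R s0 z n) p' i -
      flv W L R s0 (c0 W z) (x0 W R z) (y0 W R s0 z n) p i| ≤ 1 := by
    intro i
    have e := congrFun h3 i
    unfold lab3 at e
    exact (Int.abs_sub_lt_one_of_floor_eq_floor e).le
  have k1 : CfF W (2 * L) R s0 (c0 W z) (x0 W R z) (y0 W R s0 z n) (df 1 p' p) := by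
    have d0 := hdif 0
    have d1 := hdif 1
    have d2 := hdif 2
    have d3 := hdif 3
    have d4 := hdif 4
    have d5 := hdif 5
    change |p'.ev (x0 W R z) (y0 W R s0 z n) s0 / (L * R) -
        p.ev (x0 W R z) (y0 W R s0 z n) s0 / (L * R)| ≤ 1 at d0
    change |p'.ld (c0 W z) (x0 W R z) (y0 W R s0 z n) s0 / L -
        p.ld (c0 W z) (x0 W R z) (y0 W R s0 z n) s0 / L| ≤ 1 at d1
    change |(p'.gr (c0 W z) (x0 W R z) s0) 0 * W / L -
        (p.gr (c0 W z) (x0 W R z) s0) 0 * W / L| ≤ 1 at d2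
    change |(p'.gr (c0 W z) (x0 W R z) s0) 1 * W / L -
        (p.gr (c0 W z) (x0 W R z) s0) 1 * W / L| ≤ 1 at d3
    change |p'.ny s0 * W ^ 2 / L - p.ny s0 * W ^ 2 / L| ≤ 1 at d4
    change |p'.d * (W ^ 2 * R) / L - p.d * (W ^ 2 * R) / L| ≤ 1 at d5
    rw [← sub_div, abs_div, abs_of_pos hLR, div_le_one hLR] at d0
    rw [← sub_div, abs_div, abs_of_pos hL, div_le_one hL] at d1
    rw [← sub_div, abs_div, abs_of_pos hL, div_le_one hL, ← sub_mul, abs_mul, abs_of_pos hW] at d2 d3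
    rw [← sub_div, abs_div, abs_of_pos hL, div_le_one hL, ← sub_mul, abs_mul,
      abs_of_pos (by positivity : (0:ℝ) < W ^ 2)] at d4
    rw [← sub_div, abs_div, abs_of_pos hL, div_le_one hL, ← sub_mul, abs_mul,
      abs_of_pos hW2R] at d5
    unfold df
    refine ⟨?_, ?_, ?_, ?_, ?_⟩
    · rw [ev_lin, one_mul]; linarith
    · rw [ld_lin, one_mul]; linarith
    · rw [gr_lin, one_smul]
      have e2 : |(p'.gr (c0 W z) (x0 W R z) s0 - p.gr (c0 W z) (x0 W R z) s0) 0| ≤ L / W := by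
        rw [le_div_iff₀ hW]; simpa using d2
      have e3 : |(p'.gr (c0 W z) (x0 W R z) s0 - p.gr (c0 W z) (x0 W R z) s0) 1| ≤ L / W := by
        rw [le_div_iff₀ hW]; simpa using d3
      have e4 := norm_le_coord _ e2 e3
      have e5 := mul_le_mul_of_nonneg_right e4 hW.le
      have e6 : 2 * (L / W) * W = 2 * L := by field_simp
      linarith
    · rw [ny_lin, one_mul]; linarith
    · rw [d_lin, one_mul]; linarith
  have k2 := k1.widen (K := 2) (by norm_num) hR.le
  exact k2.mono (by linarith) hR.le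

/-- **container**: all rays of one label lie in the member with flag `p` of aperture `4 W`. -/
theorem cont (hW : 0 < W) (hR : 0 < R) (hL : 0 < L) {L0 : ℝ} {C a C' a' : E2} {k k' : ℝ}
    {p p' : Cf E2} (h : lab W L R s0 C' a' k' p' = lab W L R s0 C a k p)
    (hp : ∀ s, |s - s0| ≤ R → |p'.ev (rx C' a' s) (ry C' k' s) s| ≤ L0 * R) :
    RayIn (c0 W (lab1 W R s0 C a)) (4 * W) (16 * W ^ 2) R (x0 W R (lab1 W R s0 C a))
      (y0 W R s0 (lab1 W R s0 C a) (lab2 W R s0 (lab1 W R s0 C a) C a k)) s0 p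
      ((L0 + 112 * L) * R) C' a' k' := by
  obtain ⟨h1, h2⟩ := cont_flag hW hR hL h
  refine ⟨h2.dir.trans (by linarith), fun s hs => ⟨?_, ?_⟩⟩
  · have := h2.inK hR.le hs
    obtain ⟨a1, a2, a3⟩ := this
    refine ⟨a1, a2.trans (by nlinarith), a3.trans (le_of_eq (by ring))⟩
  · have a1 := h1.near_ray h2 (by positivity) hR hs
    unfold df at a1
    rw [ev_lin, one_mul] at a1
    have a2 := hp s hs
    have e : p.ev (rx C' a' s) (ry C' k' s) s = p'.ev (rx C' a' s) (ry C' k' s) s -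
      (p'.ev (rx C' a' s) (ry C' k' s) s - p.ev (rx C' a' s) (ry C' k' s) s) := by ring
    rw [e]
    refine (abs_sub _ _).trans ?_
    linarith

end labels

end Crest.Agent.R116.Nl139
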