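import Crest.Agent.R116.Mc9_330

/-!
# R116 (S0155), MIS_C: numerology of the misaligned step (helper367)

`v0_ge`, `v0_pos`: volume of a plank; `num_mis` = the pure numerology (literal of helper330).
-/

set_option autoImplicit false

open MeasureTheory
open scoped ENNReal

namespace Crest.Agent.R116.NumM367

open Crest.Agent.R138.Defs (E2)
open Crest.Agent.R116.CDef480 (E3 lat)
open Crest.Agent.R116.Mc330 (v0 tt K0c one_sub_pos ofReal_v0)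
open Crest.Agent.R116.Mc330.ChN (Kp)
open Crest.Agent.R116.Ma448 (pv)

/-! ### volume of a plank -/

theorem pv_ge {w B : ℝ} (hw : 0 ≤ w) (_hB : 0 ≤ B) : ENNReal.ofReal (2 * w ^ 2 * B) ≤ pv w B := by
  set a : Fin 3 → ℝ := ![-(w / 2), -(w / 2), -B] with ha
  set b : Fin 3 → ℝ := ![w / 2, w / 2, B] with hb
  have hsub : (MeasurableEquiv.toLp 2 (Fin 3 → ℝ)).symm ⁻¹' Set.Icc a b ⊆
      {X : E3 | ‖lat X‖ ≤ w ∧ |X 2| ≤ B} := by
    intro X hX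
    obtain ⟨h1, h2⟩ := hX
    have e0 := h1 0
    have e1 := h1 1
    have e2 := h1 2
    have f0 := h2 0
    have f1 := h2 1
    have f2 := h2 2
    simp only [ha, hb, MeasurableEquiv.toLp_symm_apply, Matrix.cons_val_zero, Matrix.cons_val_one,
      Matrix.cons_val] at e0 e1 e2 f0 f1 f2
    refine ⟨?_, abs_le.2 ⟨e2, f2⟩⟩
    refine (sq_le_sq₀ (norm_nonneg _) hw).1 ?_
    rw [EuclideanSpace.norm_sq_eq, Fin.sum_univ_two]
    have g0 : ‖lat X 0‖ ^ 2 = X 0 ^ 2 := by rw [Real.norm_eq_abs, sq_abs]; rfl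
    have g1 : ‖lat X 1‖ ^ 2 = X 1 ^ 2 := by rw [Real.norm_eq_abs, sq_abs]; rfl
    rw [g0, g1]
    have h0 : X 0 ^ 2 ≤ (w / 2) ^ 2 := sq_le_sq' e0 f0
    have h1 : X 1 ^ 2 ≤ (w / 2) ^ 2 := sq_le_sq' e1 f1
    nlinarith
  refine le_trans (le_of_eq ?_) (measure_mono hsub)
  rw [(EuclideanSpace.volume_preserving_symm_measurableEquiv_toLp (Fin 3)).measure_preimage
    measurableSet_Icc.nullMeasurableSet, Real.volume_Icc_pi, Fin.prod_univ_three]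
  simp only [ha, hb, Matrix.cons_val_zero, Matrix.cons_val_one, Matrix.cons_val]
  rw [← ENNReal.ofReal_mul (by linarith), ← ENNReal.ofReal_mul (by nlinarith)]
  congr 1
  ring

theorem v0_ge {r w B : ℝ} (hr : 0 ≤ r) (hw : 0 ≤ w) (hB : 0 ≤ B) :
    4 * (r * w ^ 2 * B) ≤ v0 r w B := by
  have h1 : ENNReal.ofReal (4 * (r * w ^ 2 * B)) ≤ ENNReal.ofReal (v0 r w B) := by
    rw [ofReal_v0]
    refine le_trans (le_of_eq ?_) (mul_le_mul' le_rfl (pv_ge hw hB))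
    rw [← ENNReal.ofReal_mul (by positivity)]
    congr 1
    ring
  exact (ENNReal.ofReal_le_ofReal_iff ENNReal.toReal_nonneg).1 h1

theorem v0_pos {r w B : ℝ} (hr : 0 < r) (hw : 0 < w) (hB : 0 < B) : 0 < v0 r w B :=
  lt_of_lt_of_le (by positivity) (v0_ge hr.le hw.le hB.le)

/-! ### the numerology -/

/-- absolute constant. -/
noncomputable def E0 : ℝ := 15360000 ^ 2 * (4608 * 497680384 * 896 ^ 2)

/-- lower bound of `tt`. -/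
theorem tt_ge {M A Y Gm c3 δ dl θ θj r κ s1 s2 T s1' s2' T' D c0 q : ℝ} (hq : 0 < q) (hq1 : q ≤ 1)
    (hM : 1 ≤ M) (hA : 1 ≤ A) (hc3 : 1 ≤ c3) (hY : 1 ≤ Y) (hGm : 1 ≤ Gm) (hδ : 0 < δ)
    (hδ1 : δ ≤ 1) (hdl : dl = δ ^ 2) (hθ : 0 < θ) (hθj : θ = δ * θj) (hθr : θ ^ 2 * r = 1)
    (hκ : 0 < κ) (h1 : θj ≤ s1) (h1' : θ ≤ s1') (h2 : 0 < s2) (h2' : 0 < s2') (hT : 0 < T)
    (hT' : 0 < T') (hD : 0 < D) (hc0 : 0 < c0) :
    dl ^ 26 * c0 * D * (s2 ^ q * s2' ^ q) * v0 r θ⁻¹ κ⁻¹ ^ 2 * κ /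
        (E0 * (1 - 2 ^ (-q))⁻¹ * (A ^ 12 * Y ^ 3 * (M * A * Y * c3 * Gm) ^ 3 * (M * A * Gm)) *
          r ^ 3 * θ ^ q) ≤
      tt r θ⁻¹ κ⁻¹ (448 * Kp M A Y Gm c3 * θj / δ) q (124420096 * D)
        (c0 * (D * s2' ^ q * (s1' * s2' * T' * r ^ 3)))
        (dl ^ 10 * (D * s2 ^ q * (s1 * s2 * T * (dl * r) ^ 3)))
        (512 * (10 * A ^ 2 * 1) ^ 3 * ((30 * Kp M A 1 Gm 1 * θ * r) * (s2' * r) * (T' * r) * r))
        (512 * (10 * A ^ 2 * Y) ^ 3 * ((30 * Kp M A Y Gm c3 * θj * r) * (s2 * r) * (T * r) * r))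
        (dl ^ 11) := by
  have hr : 0 < r := by
    by_contra h
    push Not at h
    have : θ ^ 2 * r ≤ 0 := mul_nonpos_of_nonneg_of_nonpos (by positivity) h
    linarith
  have hv : 0 < v0 r θ⁻¹ κ⁻¹ := v0_pos hr (inv_pos.2 hθ) (inv_pos.2 hκ)
  set V := v0 r θ⁻¹ κ⁻¹ with hV
  have hθj0 : 0 < θj := by
    by_contra h
    push Not at h
    have : δ * θj ≤ 0 := mul_nonpos_of_nonneg_of_nonpos hδ.le h
    linarith
  have hdl0 : 0 < dl := by rw [hdl]; positivity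
  have hdl1 : dl ≤ 1 := by rw [hdl]; exact pow_le_one₀ hδ.le hδ1
  have hcq := one_sub_pos hq
  set cq : ℝ := (1 - 2 ^ (-q))⁻¹ with hcqd
  have hcq0 : 0 < cq := inv_pos.2 hcq
  have hKv : Kp M A Y Gm c3 = M * A * Y * c3 * Gm := rfl
  have hK1v : Kp M A 1 Gm 1 = M * A * Gm := by
    show M * A * 1 * 1 * Gm = _
    ring
  rw [hKv, hK1v]
  set K : ℝ := M * A * Y * c3 * Gm with hK
  have hK1 : 1 ≤ K := by
    have a1 : 1 ≤ M * A := one_le_mul_of_one_le_of_one_le hM hA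
    have a2 : 1 ≤ M * A * Y := one_le_mul_of_one_le_of_one_le a1 hY
    have a3 : 1 ≤ M * A * Y * c3 := one_le_mul_of_one_le_of_one_le a2 hc3
    exact one_le_mul_of_one_le_of_one_le a3 hGm
  have hK0 : 0 < K := by linarith
  have hL0 : 0 < M * A * Gm := by positivity
  set L : ℝ := M * A * Gm with hLd
  have hs2q : 0 < s2 ^ q := Real.rpow_pos_of_pos h2 _
  have hs2q' : 0 < s2' ^ q := Real.rpow_pos_of_pos h2' _
  have hθq : 0 < θ ^ q := Real.rpow_pos_of_pos hθ _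
  have hs1 : 0 < s1 := hθj0.trans_le h1
  have hs1' : 0 < s1' := hθ.trans_le h1'
  unfold tt
  rw [← hV]
  -- first factor
  have f1 : dl ^ 13 * (D * s2 ^ q) * V / (15360000 * (A ^ 6 * Y ^ 3) * K * r) ≤
      dl ^ 10 * (D * s2 ^ q * (s1 * s2 * T * (dl * r) ^ 3)) * V /
        (512 * (10 * A ^ 2 * Y) ^ 3 * ((30 * K * θj * r) * (s2 * r) * (T * r) * r)) := by
    have e : dl ^ 10 * (D * s2 ^ q * (s1 * s2 * T * (dl * r) ^ 3)) * V /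
        (512 * (10 * A ^ 2 * Y) ^ 3 * ((30 * K * θj * r) * (s2 * r) * (T * r) * r)) =
        dl ^ 13 * (D * s2 ^ q) * V / (15360000 * (A ^ 6 * Y ^ 3) * K * r) * (s1 / θj) := by
      field_simp
      ring
    rw [e]
    refine le_mul_of_one_le_right (by positivity) ?_
    rwa [le_div_iff₀ hθj0, one_mul]
  have f2 : dl ^ 11 * (c0 * (D * s2' ^ q)) * V / (15360000 * A ^ 6 * L * r) ≤
      dl ^ 11 * (c0 * (D * s2' ^ q * (s1' * s2' * T' * r ^ 3)) * V /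
        (512 * (10 * A ^ 2 * 1) ^ 3 * ((30 * L * θ * r) * (s2' * r) * (T' * r) * r))) := by
    have e : dl ^ 11 * (c0 * (D * s2' ^ q * (s1' * s2' * T' * r ^ 3)) * V /
        (512 * (10 * A ^ 2 * 1) ^ 3 * ((30 * L * θ * r) * (s2' * r) * (T' * r) * r))) =
        dl ^ 11 * (c0 * (D * s2' ^ q)) * V / (15360000 * A ^ 6 * L * r) * (s1' / θ) := by
      field_simp
      ring
    rw [e]
    refine le_mul_of_one_le_right (by positivity) ?_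
    rwa [le_div_iff₀ hθ, one_mul]
  -- the Cordoba constant
  have hφ : 2 * (448 * K * θj / δ) = 896 * K * (θ / dl) := by
    rw [hθj, hdl]
    field_simp
    ring
  have f3 : K0c r θ⁻¹ κ⁻¹ (448 * K * θj / δ) q (124420096 * D) ≤
      497680384 * 896 ^ 2 * D * κ⁻¹ * r * cq * K ^ 2 * θ ^ q / dl ^ 2 := by
    unfold K0c
    rw [hφ, ← hcqd]
    have e1 : (896 * K * (θ / dl)) ^ q ≤ 896 * K * θ ^ q / dl := by
      rw [Real.mul_rpow (by positivity) (by positivity), Real.div_rpow hθ.le hdl0.le]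
      have a1 : (896 * K) ^ q ≤ 896 * K := by
        calc (896 * K) ^ q ≤ (896 * K) ^ (1:ℝ) :=
              Real.rpow_le_rpow_of_exponent_le (by linarith) hq1
          _ = 896 * K := Real.rpow_one _
      have a2 : dl ≤ dl ^ q := by
        calc dl = dl ^ (1:ℝ) := (Real.rpow_one _).symm
          _ ≤ dl ^ q := Real.rpow_le_rpow_of_exponent_ge hdl0 hdl1 hq1
      calc (896 * K) ^ q * (θ ^ q / dl ^ q) ≤ (896 * K) * (θ ^ q / dl) := by gcongr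
        _ = _ := by ring
    calc 4 * (θ⁻¹ / r) * (124420096 * D * (896 * K * (θ / dl)) * (κ⁻¹ * r ^ 2)) *
          (896 * K * (θ / dl)) ^ q * cq
        ≤ 4 * (θ⁻¹ / r) * (124420096 * D * (896 * K * (θ / dl)) * (κ⁻¹ * r ^ 2)) *
          (896 * K * θ ^ q / dl) * cq := by gcongr
      _ = _ := by
        field_simp
        ring
  have hk0 : 0 < K0c r θ⁻¹ κ⁻¹ (448 * K * θj / δ) q (124420096 * D) :=
    Mc330.K0c_pos hr (inv_pos.2 hθ) (inv_pos.2 hκ) (by positivity) hq (by positivity)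
  calc dl ^ 26 * c0 * D * (s2 ^ q * s2' ^ q) * V ^ 2 * κ /
        (E0 * cq * (A ^ 12 * Y ^ 3 * K ^ 3 * L) * r ^ 3 * θ ^ q)
      = (dl ^ 13 * (D * s2 ^ q) * V / (15360000 * (A ^ 6 * Y ^ 3) * K * r)) *
        (dl ^ 11 * (c0 * (D * s2' ^ q)) * V / (15360000 * A ^ 6 * L * r)) /
        (256 * 18 * (497680384 * 896 ^ 2 * D * κ⁻¹ * r * cq * K ^ 2 * θ ^ q / dl ^ 2)) := by
        unfold E0
        field_simp
        ring
    _ ≤ _ := by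
        gcongr

theorem mul3_le {a a' b b' x : ℝ} (h1 : a ≤ a') (h2 : b ≤ b') (ha' : 0 ≤ a') (hb : 0 ≤ b)
    (hx : 0 ≤ x) : a * b * x ≤ a' * b' * x :=
  mul_le_mul_of_nonneg_right (mul_le_mul h1 h2 hb ha') hx

set_option maxHeartbeats 1000000 in
/-- **the numerology of the misaligned step**. -/
theorem num_mis {q : ℝ} (hq : 0 < q) (hq1 : q ≤ 1) : ∃ (G G' : ℝ), 1 ≤ G ∧ 0 ≤ G' ∧
  ∀ (M A c3 C1 : ℝ), 1 ≤ M → 1 ≤ A → 1 ≤ c3 → 0 ≤ C1 → ∃ C2 : ℝ, 0 ≤ C2 ∧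
  ∀ (Y Gm δ dl θ θj r κ s1 s2 T s1' s2' T' D c0 ε : ℝ),
    1 ≤ Y → 1 ≤ Gm → 0 < δ → δ ≤ 1 → dl = δ ^ 2 → 0 < θ → θ = δ * θj → θ ^ 2 * r = 1 → 0 < κ →
    θj ≤ s1 → θ ≤ s1' → 0 < s2 → 0 < s2' → 0 < T → 0 < T' → θ ≤ dl ^ G * s2 →
    θ ≤ dl ^ G * s2' → 0 < D → 0 < c0 → c0 ≤ 1 →
    (tt r θ⁻¹ κ⁻¹ (448 * Kp M A Y Gm c3 * θj / δ) q (124420096 * D)
        (c0 * (D * s2' ^ q * (s1' * s2' * T' * r ^ 3)))
        (dl ^ 10 * (D * s2 ^ q * (s1 * s2 * T * (dl * r) ^ 3)))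
        (512 * (10 * A ^ 2 * 1) ^ 3 * ((30 * Kp M A 1 Gm 1 * θ * r) * (s2' * r) * (T' * r) * r))
        (512 * (10 * A ^ 2 * Y) ^ 3 * ((30 * Kp M A Y Gm c3 * θj * r) * (s2 * r) * (T * r) * r))
        (dl ^ 11)) ^ (-(1/2) : ℝ) *
      ((r * κ⁻¹) ^ (3/2 : ℝ) * (C1 * r ^ ε * (max s2 s2') ^ (q / 2) * Real.sqrt D * r)) ≤
    C2 * r ^ ε * (Y / c0) ^ G' * Gm ^ G' * dl ^ 12 * v0 r θ⁻¹ κ⁻¹ := by
  refine ⟨60 / q + 10, 3, ?_, by norm_num, ?_⟩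
  · have : 0 < 60 / q := by positivity
    linarith
  intro M A c3 C1 hM hA hc3 hC1
  set cq : ℝ := (1 - 2 ^ (-q))⁻¹ with hcqd
  have hcq0 : 0 < cq := inv_pos.2 (one_sub_pos hq)
  set e : ℝ := E0 * cq * (A ^ 16 * M ^ 4 * c3 ^ 3) with he
  have hE0 : 0 < E0 := by unfold E0; norm_num
  have he0 : 0 < e := by positivity
  refine ⟨C1 * (1 + e), by positivity, ?_⟩
  intro Y Gm δ dl θ θj r κ s1 s2 T s1' s2' T' D c0 ε hY hGm hδ hδ1 hdl hθ hθj hθr hκ h1 h1' h2 h2'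
    hT hT' hw hw' hD hc0 hc01
  have hr : 0 < r := by
    by_contra h
    push Not at h
    have : θ ^ 2 * r ≤ 0 := mul_nonpos_of_nonneg_of_nonpos (by positivity) h
    linarith
  have hv : 0 < v0 r θ⁻¹ κ⁻¹ := v0_pos hr (inv_pos.2 hθ) (inv_pos.2 hκ)
  have hvg := v0_ge (r := r) (w := θ⁻¹) (B := κ⁻¹) hr.le (inv_pos.2 hθ).le (inv_pos.2 hκ).le
  have htt := tt_ge (q := q) hq hq1 hM hA hc3 hY hGm hδ hδ1 hdl hθ hθj hθr hκ h1 h1' h2 h2' hT hT'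
    hD hc0
  rw [← hcqd] at htt
  set V := v0 r θ⁻¹ κ⁻¹ with hV
  have hdl0 : 0 < dl := by rw [hdl]; positivity
  have hdl1 : dl ≤ 1 := by rw [hdl]; exact pow_le_one₀ hδ.le hδ1
  have hs2q : 0 < s2 ^ q := Real.rpow_pos_of_pos h2 _
  have hs2q' : 0 < s2' ^ q := Real.rpow_pos_of_pos h2' _
  have hθq : 0 < θ ^ q := Real.rpow_pos_of_pos hθ _
  set tl : ℝ := dl ^ 26 * c0 * D * (s2 ^ q * s2' ^ q) * V ^ 2 * κ /
        (E0 * cq * (A ^ 12 * Y ^ 3 * (M * A * Y * c3 * Gm) ^ 3 * (M * A * Gm)) *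
          r ^ 3 * θ ^ q) with htl
  have htl0 : 0 < tl := by positivity
  refine (mul_le_mul_of_nonneg_right (Real.rpow_le_rpow_of_nonpos htl0 htt (by norm_num))
    (by positivity)).trans ?_
  have hm0 : 0 < max s2 s2' := lt_max_of_lt_left h2
  set mx := max s2 s2' with hmx
  have hre : 0 < r ^ ε := Real.rpow_pos_of_pos hr _
  -- squares
  set X : ℝ := (r * κ⁻¹) ^ (3/2 : ℝ) * (C1 * r ^ ε * mx ^ (q / 2) * Real.sqrt D * r) with hX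
  have hX0 : 0 ≤ X := by positivity
  set Z : ℝ := C1 * (1 + e) * r ^ ε * (Y / c0) ^ (3:ℝ) * Gm ^ (3:ℝ) * dl ^ 12 * V with hZ
  have hZ0 : 0 ≤ Z := by positivity
  have e3 : ∀ x : ℝ, x ^ (3:ℝ) = x ^ 3 := fun x => by
    rw [show (3:ℝ) = ((3:ℕ):ℝ) by norm_num, Real.rpow_natCast]
  have hX2 : X ^ 2 = C1 ^ 2 * (r ^ ε) ^ 2 * mx ^ q * D * (r ^ 5 * κ⁻¹ ^ 3) := by
    have a1 : ((r * κ⁻¹) ^ (3/2 : ℝ)) ^ 2 = (r * κ⁻¹) ^ 3 := by
      rw [← Real.rpow_natCast ((r * κ⁻¹) ^ (3/2 : ℝ)) 2, ← Real.rpow_mul (by positivity),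
        ← Real.rpow_natCast (r * κ⁻¹) 3]
      norm_num
    have a2 : (mx ^ (q / 2)) ^ 2 = mx ^ q := by
      rw [← Real.rpow_natCast (mx ^ (q / 2)) 2, ← Real.rpow_mul hm0.le]
      congr 1
      push_cast; ring
    have a3 : Real.sqrt D ^ 2 = D := Real.sq_sqrt hD.le
    rw [hX, mul_pow, a1, mul_pow, mul_pow, mul_pow, mul_pow, a2, a3, mul_pow]
    ring
  have hZ2 : Z ^ 2 = (C1 * (1 + e)) ^ 2 * (r ^ ε) ^ 2 * ((Y / c0) ^ 6 * Gm ^ 6) * dl ^ 24 * V ^ 2 := by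
    rw [hZ, e3, e3]
    ring
  -- the ratio of the sides
  have hmxq : θ ^ q * mx ^ q ≤ dl ^ 50 * (s2 ^ q * s2' ^ q) := by
    have b1 : θ * mx ≤ dl ^ (60 / q + 10) * (s2 * s2') := by
      rcases le_total s2 s2' with h | h
      · rw [hmx, max_eq_right h]
        calc θ * s2' ≤ dl ^ (60 / q + 10) * s2 * s2' := by gcongr
          _ = _ := by ring
      · rw [hmx, max_eq_left h]
        calc θ * s2 ≤ dl ^ (60 / q + 10) * s2' * s2 := by gcongr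
          _ = _ := by ring
    have b2 : (θ * mx) ^ q ≤ (dl ^ (60 / q + 10) * (s2 * s2')) ^ q :=
      Real.rpow_le_rpow (by positivity) b1 hq.le
    rw [Real.mul_rpow hθ.le hm0.le, Real.mul_rpow (Real.rpow_nonneg hdl0.le _) (by positivity),
      Real.mul_rpow h2.le h2'.le, ← Real.rpow_mul hdl0.le] at b2
    refine b2.trans (mul_le_mul_of_nonneg_right ?_ (by positivity))
    rw [← Real.rpow_natCast dl 50]
    refine Real.rpow_le_rpow_of_exponent_ge hdl0 hdl1 ?_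
    have : (60 / q + 10) * q = 60 + 10 * q := by field_simp
    rw [this]
    push_cast
    linarith
  -- volume
  have hrθ : r = (θ ^ 2)⁻¹ := by
    rw [eq_comm, inv_eq_iff_eq_inv, ← one_div, eq_div_iff hr.ne']
    exact hθr
  have hV2 : r ^ 2 * κ⁻¹ ≤ V := by
    refine le_trans ?_ hvg
    have a1 : r * θ⁻¹ ^ 2 * κ⁻¹ = r ^ 2 * κ⁻¹ := by
      rw [inv_pow, ← hrθ]; ring
    rw [a1]
    have : 0 < r ^ 2 * κ⁻¹ := by positivity
    linarith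
  have hV4 : (r ^ 2 * κ⁻¹) ^ 4 ≤ V ^ 4 := pow_le_pow_left₀ (by positivity) hV2 4
  -- constants
  have hconst : C1 ^ 2 * (E0 * cq * (A ^ 12 * Y ^ 3 * (M * A * Y * c3 * Gm) ^ 3 * (M * A * Gm))) ≤
      (C1 * (1 + e)) ^ 2 * ((Y / c0) ^ 6 * Gm ^ 6) * c0 := by
    have a1 : E0 * cq * (A ^ 12 * Y ^ 3 * (M * A * Y * c3 * Gm) ^ 3 * (M * A * Gm)) =
        e * (Y ^ 6 * Gm ^ 4) := by rw [he]; ring
    have a2 : Y ^ 6 * Gm ^ 4 ≤ (Y / c0) ^ 6 * Gm ^ 6 * c0 := by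
      have a3 : (Y / c0) ^ 6 * Gm ^ 6 * c0 = (Y ^ 6 * Gm ^ 6) * (1 / c0 ^ 5) := by
        field_simp
      rw [a3]
      have a4 : Gm ^ 4 ≤ Gm ^ 6 := pow_le_pow_right₀ hGm (by norm_num)
      have a5 : 1 ≤ 1 / c0 ^ 5 := by
        rw [le_div_iff₀ (by positivity), one_mul]
        exact pow_le_one₀ hc0.le hc01
      calc Y ^ 6 * Gm ^ 4 ≤ Y ^ 6 * Gm ^ 6 := by gcongr
        _ ≤ _ := le_mul_of_one_le_right (by positivity) a5
    have a6 : e ≤ (1 + e) ^ 2 := by nlinarith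
    rw [a1]
    calc C1 ^ 2 * (e * (Y ^ 6 * Gm ^ 4)) ≤ C1 ^ 2 * ((1 + e) ^ 2 * ((Y / c0) ^ 6 * Gm ^ 6 * c0)) := by
          gcongr
      _ = _ := by ring
  have hmain : X ^ 2 ≤ Z ^ 2 * tl := by
    rw [hX2, hZ2, htl, ← mul_div_assoc, le_div_iff₀ (by positivity)]
    set E := E0 * cq * (A ^ 12 * Y ^ 3 * (M * A * Y * c3 * Gm) ^ 3 * (M * A * Gm)) with hE
    set P := (Y / c0) ^ 6 * Gm ^ 6 with hP
    calc C1 ^ 2 * (r ^ ε) ^ 2 * mx ^ q * D * (r ^ 5 * κ⁻¹ ^ 3) * (E * r ^ 3 * θ ^ q)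
        = (C1 ^ 2 * E) * (θ ^ q * mx ^ q) * ((r ^ ε) ^ 2 * D * (r ^ 8 * κ⁻¹ ^ 3)) := by ring
      _ ≤ ((C1 * (1 + e)) ^ 2 * P * c0) * (dl ^ 50 * (s2 ^ q * s2' ^ q)) *
          ((r ^ ε) ^ 2 * D * (r ^ 8 * κ⁻¹ ^ 3)) :=
          mul3_le hconst hmxq (by positivity) (by positivity) (by positivity)
      _ = ((C1 * (1 + e)) ^ 2 * P * c0) * (dl ^ 50 * (s2 ^ q * s2' ^ q)) *
          ((r ^ ε) ^ 2 * D * κ) * (r ^ 2 * κ⁻¹) ^ 4 := by
          field_simp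
      _ ≤ ((C1 * (1 + e)) ^ 2 * P * c0) * (dl ^ 50 * (s2 ^ q * s2' ^ q)) *
          ((r ^ ε) ^ 2 * D * κ) * V ^ 4 := mul_le_mul_of_nonneg_left hV4 (by positivity)
      _ = _ := by ring
  have hfin : X ≤ Z * Real.sqrt tl := by
    refine (sq_le_sq₀ hX0 (by positivity)).1 ?_
    have h9 : (Z * Real.sqrt tl) ^ 2 = Z ^ 2 * tl := by
      rw [mul_pow Z, Real.sq_sqrt htl0.le]
    rw [h9]
    exact hmain
  have hrt : tl ^ (-(1/2) : ℝ) = (Real.sqrt tl)⁻¹ := by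
    rw [Real.rpow_neg htl0.le, Real.sqrt_eq_rpow]
  rw [hrt, inv_mul_le_iff₀ (Real.sqrt_pos.2 htl0), mul_comm (Real.sqrt tl)]
  exact hfin

end Crest.Agent.R116.NumM367
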