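import Crest.Agent.R116.IIr1_460

/-!
# R116, K-TEXT II-c, `s ≥ 1/2`: the rows with the one-pin facts (helper538)

Facts at one generic point of one half plane: `m + x ≤ 1`, `r + n ≤ 1`, `d ≤ u` (one pin), `m ≤ r`
(twist, `e`-tie) resp. `m ≤ w` (twist, `κ`-tie).  The row of the direction `(-1, μ, 1 - μ)` is `≤ 1`.

* `eHalf_le` / `eHalf` : `e`-tie plane, `μ = (1+k)/2`;
* `kHalf_le` / `kHalf` : `κ`-tie plane, `μ = (1+k)/3`, `1/2 ≤ k`;
* `uHalf_le` : direction `(-1, 1/2, 1/2)`.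
-/

set_option autoImplicit false

namespace Crest.Agent.R116.Tie460

/-- one-pin facts -/
structure Pl.Pin (S : Pl) : Prop where
  p1 : S.m + S.x ≤ 1
  p2 : S.r + S.n ≤ 1
  p3 : S.d ≤ S.u

variable {k θ s c qa qb μ : ℝ} {S : Pl}

/-- **`e`-plane, `μ = (1+k)/2`** (either side) -/
theorem eHalf_le (hk : 0 ≤ k) (P : S.Pos) (Q : S.Pin) (mr : S.m ≤ S.r) (nx : 1 < k → S.n ≤ S.x)
    (tan : S.Tan c θ (θ - k) qa qb) (hμ : 0 ≤ (θ - (1 + k) / 2) * (S.Fa qa + S.Fb qb)) :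
    c + (1 + k) / 2 * qa + (1 - k) / 2 * qb ≤ 1 := by
  have h := rowE tan hμ
  have := Q.p1; have := Q.p2; have := Q.p3
  have := P.e0
  have h1 : 0 ≤ k * S.w := mul_nonneg hk P.w0
  have h2 : 0 ≤ k * S.h := mul_nonneg hk P.h0
  have h3 : 0 ≤ k * (S.r - S.m) := mul_nonneg hk (by linarith)
  have h4 : 0 ≤ k * S.u := mul_nonneg hk P.u0
  have h5 : 0 ≤ k * S.d := mul_nonneg hk P.d0
  rcases le_or_gt k 1 with hk1 | hk1
  · have h6 : 0 ≤ (1 - k) / 2 * (1 - S.m - S.x) := mul_nonneg (by linarith) (by linarith)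
    have h7 : 0 ≤ (1 + k) / 2 * (1 - S.r - S.n) := mul_nonneg (by linarith) (by linarith)
    nlinarith
  · have h6 : 0 ≤ (k - 1) / 2 * (S.x - S.n) := mul_nonneg (by linarith) (by linarith [nx hk1])
    have h7 : 0 ≤ (k - 1) / 2 * (S.r - S.m) := mul_nonneg (by linarith) (by linarith)
    nlinarith

/-- **`e`-tie, `1/2 ≤ s`** -/
theorem eHalf (N : Num θ s c qa qb) (hs : 1 / 2 ≤ s) (hk : 0 ≤ k) (P : S.Pos) (Q : S.Pin)
    (mr : S.m ≤ S.r) (nx : 1 < k → S.n ≤ S.x) (tan : S.Tan c θ (θ - k) qa qb)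
    (hμ : 0 ≤ (θ - (1 + k) / 2) * (S.Fa qa + S.Fb qb)) : False := by
  have h := eHalf_le hk P Q mr nx tan hμ
  have := N.hc; have := N.ha; have := N.hb; have := N.hq
  have h1 : 0 ≤ k * (qa - qb) := mul_nonneg hk (by linarith)
  nlinarith

/-- **`κ`-plane, `μ = (1+k)/3`, `1/2 ≤ k`** (either side) -/
theorem kHalf_le (hk : 1 / 2 ≤ k) (P : S.Pos) (Q : S.Pin) (mw : S.m ≤ S.w)
    (nx : 2 < k → S.n ≤ S.x ∨ S.n ≤ S.h) (tan : S.Tan c θ (2 * θ - k) qa qb)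
    (hμ : 0 ≤ (θ - (1 + k) / 3) * (S.Fa qa + 2 * S.Fb qb)) :
    c + (1 + k) / 3 * qa + (2 - k) / 3 * qb ≤ 1 := by
  have h := rowK tan hμ
  have := Q.p1; have := Q.p2; have := Q.p3
  have := P.e0
  have hn1 : S.n ≤ 1 := by linarith [P.r0]
  have h1 : 0 ≤ (2 * k - 1) / 3 * (S.w - S.m) := mul_nonneg (by linarith) (by linarith)
  have h2 : 0 ≤ (2 * k - 1) / 3 * S.h := mul_nonneg (by linarith) P.h0
  have h4 : 0 ≤ k * (S.u - S.d) := mul_nonneg (by linarith) (by linarith)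
  have h5 : 0 ≤ (2 * k - 1) * S.d := mul_nonneg (by linarith) P.d0
  rcases le_or_gt k 2 with hk2 | hk2
  · have h6 : 0 ≤ (2 - k) / 3 * (1 - S.m - S.x) := mul_nonneg (by linarith) (by linarith)
    have h7 : 0 ≤ (2 - k) / 3 * (1 - S.r - S.n) := mul_nonneg (by linarith) (by linarith)
    have h8 : 0 ≤ (2 * k - 1) / 3 * (1 - S.n) := mul_nonneg (by linarith) (by linarith)
    nlinarith
  · have h6 : 0 ≤ (k - 2) / 3 * S.r := mul_nonneg (by linarith) P.r0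
    have h7 : 0 ≤ (k - 2) / 3 * S.m := mul_nonneg (by linarith) P.m0
    have h9 : 0 ≤ (k - 2) / 3 * S.x := mul_nonneg (by linarith) P.x0
    rcases nx hk2 with h8 | h8
    · have h10 : 0 ≤ (k - 2) / 3 * (S.x - S.n) := mul_nonneg (by linarith) (by linarith)
      nlinarith
    · have h10 : 0 ≤ (2 * k - 1) / 3 * (S.h - S.n) := mul_nonneg (by linarith) (by linarith)
      have h11 : 0 ≤ (k - 2) / 3 * S.n := mul_nonneg (by linarith) P.n0
      nlinarith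

/-- **`κ`-tie, `1/2 ≤ s`** -/
theorem kHalf (N : Num θ s c qa qb) (hs : 1 / 2 ≤ s) (hk : 1 / 2 ≤ k) (P : S.Pos) (Q : S.Pin)
    (mw : S.m ≤ S.w) (nx : 2 < k → S.n ≤ S.x ∨ S.n ≤ S.h)
    (tan : S.Tan c θ (2 * θ - k) qa qb)
    (hμ : 0 ≤ (θ - (1 + k) / 3) * (S.Fa qa + 2 * S.Fb qb)) : False := by
  have h := kHalf_le hk P Q mw nx tan hμ
  have := N.hc; have := N.ha; have := N.hb; have := N.hq
  have h1 : 0 ≤ (k + 1) * (qa - qb) := mul_nonneg (by linarith) (by linarith)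
  nlinarith

/-- **direction `(-1, 1/2, 1/2)`** -/
theorem uHalf_le (P : S.Pos) (Q : S.Pin)
    (row : c + S.e ≤ S.x + S.h + S.n + S.d - 1 / 2 * S.Fa qa - 1 / 2 * S.Fb qb) :
    c + (qa + qb) / 2 ≤ 1 := by
  have := Q.p1; have := Q.p2; have := Q.p3
  have := P.e0
  unfold Pl.Fa Pl.Fb at row
  linarith

end Crest.Agent.R116.Tie460
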