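import Crest.Agent.R116.Pd1_363

/-!
# R116 (K side, TIES), plane data with the relation of the two scales (helper658)

* `Co8`, `Co9` : the slots `k` with `B (cl k) < B 0 * βL k` are coarser than their own level by more
  than every multiple of the unit `H`
* **`plane8x`**, **`plane9x`** : 363's `plane8`, `plane9` with `Co8`, `Co9`
-/

set_option autoImplicit false
set_option linter.unusedVariables false

open Set Filter Topology MeasureTheory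

namespace Crest.Agent.R116.Pd363

open Crest.Agent.R138.Ex926 (IsTan)
open Crest.Agent.R136
open Crest.Agent.R136.Net191
open Crest.Agent.R116.ChL222
open Crest.Agent.R116.PL504 (eL βL rL)
open Crest.Agent.R116.Xd954 (cs xs)
open Crest.Agent.R116.Sg337 (coneL DL natB eL_bx9)
open Crest.Agent.R116.RbM219
open Crest.Agent.R116.RbK219 (SOk RS Par dl)
open Crest.Agent.R116.SgO219 (PP)
open Crest.Agent.R116.Kz647
open Crest.Agent.R116.Rcx363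
open Dg219 (mw)
open Sl741 (slice xt rs)

/-- the visible slots of the plane are macroscopically coarser than their own level -/
def Co8 (θa θb w0 sa sb : ℝ) (B : Fin 8 → ℝ) (X : ℕ → Fin 12 → ℝ) (H : ℕ → ℝ) : Prop :=
  ∀ k, k ≠ 1 → B (cl8 k) < B 0 * βL θa θb k → ∀ K : ℝ, ∀ᶠ m in atTop,
    X m k + K * H m ≤ rL θa θb w0 sa sb (X m 0 - w0) k

/-- the same, `D` live -/
def Co9 (θa θb w0 sa sb : ℝ) (B : Fin 9 → ℝ) (X : ℕ → Fin 12 → ℝ) (H : ℕ → ℝ) : Prop :=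
  ∀ k, B (cl9 k) < B 0 * βL θa θb k → ∀ K : ℝ, ∀ᶠ m in atTop,
    X m k + K * H m ≤ rL θa θb w0 sa sb (X m 0 - w0) k

/-- the estimate -/
theorem co_aux {θa θb w0 sa sb b0 bk p x0 xk E Hm K l h : ℝ} {k : Fin 12} {hm : ℝ}
    (h0 : x0 = rL θa θb w0 sa sb p 0 + E * b0) (hk : xk = rL θa θb w0 sa sb p k + E * bk)
    (hE : E = hm * l) (hH : Hm = hm * h) (hhm : 0 < hm)
    (hK : K * h ≤ l * (b0 * βL θa θb k - bk)) :
    xk + K * Hm ≤ rL θa θb w0 sa sb (x0 - w0) k := by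
  have e0 : rL θa θb w0 sa sb p 0 = w0 + p := rfl
  have e1 : x0 - w0 = p + E * b0 := by rw [h0, e0]; ring
  rw [e1, rL_add, Pi.add_apply, Pi.smul_apply, smul_eq_mul, hk, hE, hH]
  have := mul_le_mul_of_nonneg_left hK hhm.le
  nlinarith

section eight

variable {R s : ℝ} {a b : Fin 2} {Vis Vis' : Fin 12 → Prop} {θa θb g qa qb w0 sa sb v0 t κ : ℝ}
    {T : Type*} {Bs : T → Fin 8 → ℝ} {sgs : T → ℝ} {f : Fin 2 → (Fin 12 → ℝ) → ℝ}
    {x X : ℕ → Fin 12 → ℝ} {hh h' H : ℕ → ℝ} {lam lam2 : Fin 2 → (Fin 12 → ℝ) → ℝ}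
    {B : Fin 8 → ℝ} {sg l α : ℝ} {ρ ρ2 : Fin 8 → ℝ}

/-- **plane data exist**, with `Co8` -/
theorem plane8x (O : Out8 R s a b Vis θa θb g qa qb t Bs sgs (rL θa θb w0 sa sb v0) f x hh lam)
    (ht0 : 0 < t) (hS : SOk (nat8 1 (-θa) (-θb)) B sg) (hL : Leg8 B) {c0 : ℝ} (hc0 : 0 < c0)
    (hR : Rates8 θa θb t B sg c0 (lam 0) ρ) {v c p : ℝ} (hn : nat8 v c p ≤ B) (hV1 : ¬ Vis 1)
    (hV : ∀ k, Vis k → (Vis' k ∧ B (cl8 k) ≤ B 0 * βL θa θb k) ∨ B (cl8 k) < B 0 * βL θa θb k)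
    {N : Set (ℝ × ℝ)} (hN : ∀ᵐ z : ℝ × ℝ, z ∈ N) {y : ℝ} (hy : 0 < y) :
    ∃ (l α : ℝ) (h' : ℕ → ℝ) (X : ℕ → Fin 12 → ℝ) (H : ℕ → ℝ)
      (lam2 : Fin 2 → (Fin 12 → ℝ) → ℝ) (ρ2 : Fin 8 → ℝ),
      0 < l ∧ l < y ∧ ((l * sg, α) : ℝ × ℝ) ∈ N ∧
      Pd8 R s a b Vis' θa θb w0 sa sb v0 t (DL g s qa qb v c p) B sg f lam ρ l α h' X H lam2 ρ2 ∧
      Co8 θa θb w0 sa sb B X H := by
  obtain ⟨l, α, h', lam2, ρ2, ψ, hl, hly, hlN, hzL, hH, hT2, hp', h0', hψ, -, hT, hP⟩ :=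
    z8_out (Vis' := Vis') O ht0 hS hL hc0 hR hn hV1 hV hN hy
      (Pr := fun _ _ => True) (fun _ => Eventually.of_forall fun _ => trivial)
  obtain ⟨Hf, yy, ξ, hHp, hH0, hy0, -, hx⟩ := O.base
  have hψt := hψ.tendsto_atTop
  have hhl : Tendsto (fun m => hh (ψ m)) atTop (𝓝 0) := O.lim.comp hψt
  have hval : ∀ m k, k ≠ 1 → (x (ψ m) + hh (ψ m) • z8 θa θb B l α) k =
      rL θa θb w0 sa sb (v0 + (Hf (ψ m) * yy (ψ m) + hh (ψ m) * α)) k +
        hh (ψ m) * l * B (cl8 k) := fun m k hk => by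
    rw [hx, base8_val hk]
  refine ⟨l, α, h', fun m => x (ψ m) + hh (ψ m) • z8 θa θb B l α, fun m => hh (ψ m) * h' m, lam2,
    ρ2, hl, hly, hlN, ⟨hH, hT2, fun m => mul_pos (O.pos _) (hp' m), ?_, ?_,
    ⟨fun m => Hf (ψ m) * yy (ψ m) + hh (ψ m) * α, fun m => hh (ψ m) * l, ?_, ?_,
      fun m => mul_pos (O.pos _) hl, fun m k hk => hval m k hk⟩, hT, hP⟩, ?_⟩
  · have := hhl.mul h0'
    simpa using this
  · have h1 := (O.xlim.comp hψt).add (hhl.smul_const (z8 θa θb B l α))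
    rw [zero_smul, add_zero] at h1
    exact h1
  · have h1 := ((hH0.comp hψt).mul (hy0.comp hψt)).add (hhl.mul_const α)
    simp only [zero_mul, add_zero] at h1
    exact h1
  · have h1 := hhl.mul_const l
    simp only [zero_mul] at h1
    exact h1
  · intro k hk hlt K
    have h2 : Tendsto (fun m => K * h' m) atTop (𝓝 0) := by simpa using h0'.const_mul K
    filter_upwards [h2.eventually_lt_const
      (mul_pos hl (sub_pos.2 hlt) : 0 < l * (B 0 * βL θa θb k - B (cl8 k)))] with m hm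
    exact co_aux (hval m 0 (by decide)) (hval m k hk) rfl rfl (O.pos _) hm.le

end eight

section nine

variable {R s : ℝ} {a b : Fin 2} {Vis Vis' : Fin 12 → Prop} {θa θb g qa qb w0 sa sb v0 κ : ℝ}
    {T : Type*} {Bs : T → Fin 9 → ℝ} {sgs : T → ℝ} {f : Fin 2 → (Fin 12 → ℝ) → ℝ}
    {x X : ℕ → Fin 12 → ℝ} {hh h' H : ℕ → ℝ} {lam lam2 : Fin 2 → (Fin 12 → ℝ) → ℝ}
    {B : Fin 9 → ℝ} {sg l α : ℝ} {ρ ρ2 : Fin 9 → ℝ}

/-- **plane data exist**, with `Co9` -/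
theorem plane9x (O : Out9 R s a b Vis θa θb g qa qb Bs sgs (rL θa θb w0 sa sb v0) f x hh lam)
    (hS : SOk (nat9 1 (-θa) (-θb)) B sg) (hL : Leg9 B) {c0 : ℝ} (hc0 : 0 < c0)
    (hR : Rates9 θa θb B sg c0 (lam 0) ρ) {v c p : ℝ} (hn : nat9 v c p ≤ B)
    (hV : ∀ k, Vis k → (Vis' k ∧ B (cl9 k) ≤ B 0 * βL θa θb k) ∨ B (cl9 k) < B 0 * βL θa θb k)
    {N : Set (ℝ × ℝ)} (hN : ∀ᵐ z : ℝ × ℝ, z ∈ N) {y : ℝ} (hy : 0 < y) :
    ∃ (l α : ℝ) (h' : ℕ → ℝ) (X : ℕ → Fin 12 → ℝ) (H : ℕ → ℝ)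
      (lam2 : Fin 2 → (Fin 12 → ℝ) → ℝ) (ρ2 : Fin 9 → ℝ),
      0 < l ∧ l < y ∧ ((l * sg, α) : ℝ × ℝ) ∈ N ∧
      Pd9 R s a b Vis' θa θb w0 sa sb v0 (DL g s qa qb v c p) B sg f lam ρ l α h' X H lam2 ρ2 ∧
      Co9 θa θb w0 sa sb B X H := by
  obtain ⟨l, α, h', lam2, ρ2, ψ, hl, hly, hlN, hzL, hH, hT2, hp', h0', hψ, -, hT, hP⟩ :=
    z9_out (Vis' := Vis') O hS hL hc0 hR hn hV hN hy
      (Pr := fun _ _ => True) (fun _ => Eventually.of_forall fun _ => trivial)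
  obtain ⟨Hf, yy, ξ, hHp, hH0, hy0, hx⟩ := O.base
  have hψt := hψ.tendsto_atTop
  have hhl : Tendsto (fun m => hh (ψ m)) atTop (𝓝 0) := O.lim.comp hψt
  have hval : ∀ m k, (x (ψ m) + hh (ψ m) • z9 θa θb B l α) k =
      rL θa θb w0 sa sb (v0 + (Hf (ψ m) * yy (ψ m) + hh (ψ m) * α)) k +
        hh (ψ m) * l * B (cl9 k) := fun m k => by
    rw [hx, base9_val]
  refine ⟨l, α, h', fun m => x (ψ m) + hh (ψ m) • z9 θa θb B l α, fun m => hh (ψ m) * h' m, lam2,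
    ρ2, hl, hly, hlN, ⟨hH, hT2, fun m => mul_pos (O.pos _) (hp' m), ?_, ?_,
    ⟨fun m => Hf (ψ m) * yy (ψ m) + hh (ψ m) * α, fun m => hh (ψ m) * l, ?_, ?_,
      fun m => mul_pos (O.pos _) hl, fun m k => hval m k⟩, hT, hP⟩, ?_⟩
  · have := hhl.mul h0'
    simpa using this
  · have h1 := (O.xlim.comp hψt).add (hhl.smul_const (z9 θa θb B l α))
    rw [zero_smul, add_zero] at h1
    exact h1
  · have h1 := ((hH0.comp hψt).mul (hy0.comp hψt)).add (hhl.mul_const α)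
    simp only [zero_mul, add_zero] at h1
    exact h1
  · have h1 := hhl.mul_const l
    simp only [zero_mul] at h1
    exact h1
  · intro k hlt K
    have h2 : Tendsto (fun m => K * h' m) atTop (𝓝 0) := by simpa using h0'.const_mul K
    filter_upwards [h2.eventually_lt_const
      (mul_pos hl (sub_pos.2 hlt) : 0 < l * (B 0 * βL θa θb k - B (cl9 k)))] with m hm
    exact co_aux (hval m 0) (hval m k) rfl rfl (O.pos _) hm.le

end nine

end Crest.Agent.R116.Pd363
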