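import Crest.Agent.R116.Pe0_794

/-!
# R116 (K side, TIES), Pe1 (helper794): the static facts of ANY plane of 363 (`oS`, `kU`, ..)

* `slD_of_tan`   : tangents on `LM0` ⊢ all walls with `D` are slack in the unit
* `dich_of_tan`  : every wall without `D` is tight or slack in the unit
* `linTan8G`, `fct8G`, `fct9G` : as `linTan8`, `fct8`, `fct9`, the base is tight on the walls of the
  facts only
* **`pd8_fctG`**, **`pd9_fctG`** : `Pd8` / `Pd9` of any legal offset which is tight on the five walls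
-/

set_option autoImplicit false
set_option linter.unusedSectionVars false
set_option linter.unusedVariables false

open Set Filter Topology

namespace Crest.Agent.R116.Tq794

open Crest.Agent.R138
open Crest.Agent.R138.Ex926 (Base U IsTan)
open Crest.Agent.R136
open Crest.Agent.R136.MkA627
open Crest.Agent.R136.TD627
open Crest.Agent.R136.Net191
open Crest.Agent.R136.Lq196
open Crest.Agent.R136.Qg926 Crest.Agent.R136.Gf356 Crest.Agent.R116.EvL504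
open Crest.Agent.R116.ChL222
open Crest.Agent.R116.PL504 (nb rL DN eL βL oL Shift eL_wall)
open Crest.Agent.R116.Sg337 (bx9)
open Crest.Agent.R116.Gd222 (TSet sN PDL DT)
open Crest.Agent.R116.KI439
open Crest.Agent.R116.KF439 (PL)
open Crest.Agent.R116.CtxB468
open Crest.Agent.R116.Rcx363 (fo fo_lip Prf)
open Crest.Agent.R116.RbM219
open Crest.Agent.R116.RbK219 (RS)
open Crest.Agent.R116.Kz647
open Crest.Agent.R116.Pd363
open Crest.Agent.R116.SgF665 (wl wl_add wl_smul LM0 mem_LM0 bx9_mem LinTan LinFacts)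
open Crest.Agent.R116.Kg330 (LinTanM ThinB ThinM BsF BsM LinFactsR linFactsR bsF_shift bsM_shift
  Pr2 pr2_bx9)
open Crest.Agent.R116.WinG954 (LM)
open Crest.Agent.R116.Tq741
open Dg219 (mw Walls)
open Sl741 (slice xt rs)

theorem monD_heads : ∀ k, ∀ e ∈ mfL k, e 1 ≠ 0 →
    (k = 2 ∨ k = 7 ∨ k = 8 ∨ k = 10 ∨ k = 11) ∧
      e 2 = 0 ∧ e 7 = 0 ∧ e 8 = 0 ∧ e 10 = 0 ∧ e 11 = 0 := by decide

/-- the walls with `D` are slack: read from the tangent -/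
theorem slD_of_tan {P : Set (Fin 12 → ℝ)} (hP : ∀ p ∈ P, ∀ k, ∀ e ∈ monL.mon k, p k ≤ wl e p)
    {X : ℕ → Fin 12 → ℝ} {H : ℕ → ℝ} {ν g : (Fin 12 → ℝ) → ℝ} (hpos : ∀ l, 0 < H l)
    (ht : IsTan P LM0 ν X H g) :
    ∀ k, ∀ e ∈ monL.mon k, e 1 ≠ 0 → ∀ K : ℝ, ∀ᶠ n in atTop, X n k + K * H n ≤ wl e (X n) := by
  intro k e he h1 K
  obtain ⟨hk, a2, a7, a8, a10, a11⟩ := monD_heads k e he h1
  set M : ℝ := max K 0 with hM
  have hM0 : 0 ≤ M := le_max_right _ _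
  have hm : bx9 0 0 M 0 0 M 0 M M ∈ LM0 := by
    rw [bx9_mem]
    refine ⟨?_, ?_, ?_, ?_, ?_, ?_, ?_⟩ <;> linarith
  filter_upwards [SgO219.tan_ev ht hm] with l hl
  have h2 := hP _ hl k e he
  have e1 : wl e (bx9 0 0 M 0 0 M 0 M M) = 0 := by
    rw [wl12, a2, a7, a8, a10, a11]
    simp [bx9]
  have e2 : bx9 0 0 M 0 0 M 0 M M k = M := by
    rcases hk with rfl | rfl | rfl | rfl | rfl <;> rfl
  rw [wl_add, wl_smul, e1, Pi.add_apply, Pi.smul_apply, smul_eq_mul, e2] at h2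
  have h3 := mul_le_mul_of_nonneg_left (le_max_left K 0) (hpos l).le
  linarith

theorem leg_wall {R : ℝ} : ∀ p ∈ Leg monL R, ∀ k, ∀ e ∈ monL.mon k, p k ≤ wl e p :=
  fun p hp k e he => hp.1.wall k e he

section frozen

variable {J : Type*} [Finite J] {P : Set (Fin 12 → ℝ)} {f lam2 : J → (Fin 12 → ℝ) → ℝ}
  {j0 : J} {X : ℕ → Fin 12 → ℝ} {H : ℕ → ℝ} {w R : V9}

/-- **665's `LinTan` at a linear point, `D` frozen, any base** -/
theorem linTan8G (hpos : ∀ l, 0 < H l) (h0 : Tendsto H atTop (𝓝 0))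
    (ht : ∀ j, IsTan P LM0 (f j) X H (lam2 j))
    (hlip : ∃ K : ℝ, 0 ≤ K ∧ ∀ j, ∀ p ∈ LM0, ∀ q ∈ LM0, |lam2 j p - lam2 j q| ≤ K * ‖p - q‖)
    (hx : ∀ k, ∀ e ∈ monL.mon k, e 1 = 0 → (∀ l, X l k = wl e (X l)) ∨
      ∀ K : ℝ, ∀ᶠ n in atTop, X n k + K * H n ≤ wl e (X n))
    (hxD : ∀ k, ∀ e ∈ monL.mon k, e 1 ≠ 0 → ∀ K : ℝ, ∀ᶠ n in atTop,
      X n k + K * H n ≤ wl e (X n))
    (hw : LegM 0 w) (hL : LinS ∅ (fun w => lam2 j0 (E8 w)) w R)
    {Pr : ℕ → ℕ → Prop} (hPr : ∀ m, ∀ᶠ l in atTop, Pr m l) :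
    ∃ (ψ : ℕ → ℕ) (h' : ℕ → ℝ), StrictMono ψ ∧ (∀ m, Pr m (ψ m)) ∧ (∀ m, 0 < h' m) ∧
      Tendsto h' atTop (𝓝 0) ∧
      LinTan P f j0 (fun m => X (ψ m) + H (ψ m) • E8 w) (fun m => H (ψ m) * h' m) (R 0) (R 3)
        (R 5) (R 4) (R 1) (R 2) (R 7) (R 6) := by
  obtain ⟨ψ, h', lam3, hψ, hPψ, hp', h0', hT, hT', hv⟩ := tan_core (E := E8) LM0_closed
    (by rw [← E8_zero]; exact E8_mem leg_zero) (fun p hp q hq => LM0_add hp hq)
    (fun t ht p hp => LM0_smul ht hp) hpos ht hlip E8_add E8_zero (E8_mem hw) hL hPr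
  have hM0 : (0 : Fin 12 → ℝ) ∈ LM0 := by rw [← E8_zero]; exact E8_mem leg_zero
  have hR8 : R 8 = 0 := by
    have hl : LegM 0 (e9 8) := by
      constructor <;> simp [e9]
    have e : E8 (e9 8) = 0 := by
      funext i; fin_cases i <;> simp [E8, bx9, e9]
    have h1 := hv (e9 8) hl (by rw [e]; exact hM0)
    rw [e, Finset.sum_eq_single 8 (fun i _ hi => by rw [e9_ne hi, mul_zero])
      (fun h => absurd (Finset.mem_univ _) h), e9_same, mul_one,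
      tan_zero (fun m => mul_pos (hpos _) (hp' m)) (hT j0) hM0] at h1
    linarith
  have hsl : ∀ k, ∀ e ∈ monL.mon k, (∀ K : ℝ, ∀ᶠ n in atTop, X n k + K * H n ≤ wl e (X n)) →
      ∀ K : ℝ, ∀ᶠ m in atTop, (X (ψ m) + H (ψ m) • E8 w) k + K * (H (ψ m) * h' m) ≤
        wl e (X (ψ m) + H (ψ m) • E8 w) := by
    intro k e he hs K
    have h3 := hψ.tendsto_atTop.eventually (hs (|E8 w k - wl e (E8 w)| + 1))
    have h4 : ∀ᶠ m in atTop, K * h' m < 1 := by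
      have : Tendsto (fun m => K * h' m) atTop (𝓝 0) := by
        simpa using h0'.const_mul K
      exact this.eventually_lt_const (by norm_num)
    filter_upwards [h3, h4] with m m3 m4
    simp only [wl_add, wl_smul, Pi.add_apply, Pi.smul_apply, smul_eq_mul]
    have h5 := mul_le_mul_of_nonneg_left m4.le (hpos (ψ m)).le
    have h6 := mul_le_mul_of_nonneg_left (le_abs_self (E8 w k - wl e (E8 w))) (hpos (ψ m)).le
    nlinarith
  refine ⟨ψ, h', hψ, hPψ, hp', h0', ⟨fun m => mul_pos (hpos _) (hp' m), tend_mul h0 hψ h0', ?_,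
    fun k e he h1 => hsl k e he (hxD k e he h1), LM0, lam3, Subset.rfl, hT, ?_⟩⟩
  · intro k e he
    by_cases h1 : e 1 = 0
    · rcases hx k e he h1 with hxt | hxs
      · rcases (E8_mem hw k e he h1).eq_or_lt with h2 | h2
        · left
          intro n
          simp only [wl_add, wl_smul, Pi.add_apply, Pi.smul_apply, smul_eq_mul]
          rw [hxt, h2]
        · right
          intro K
          have h3 : ∀ᶠ m in atTop, K * h' m < wl e (E8 w) - E8 w k := by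
            have : Tendsto (fun m => K * h' m) atTop (𝓝 0) := by
              simpa using h0'.const_mul K
            exact this.eventually_lt_const (by linarith)
          filter_upwards [h3] with m hm
          simp only [wl_add, wl_smul, Pi.add_apply, Pi.smul_apply, smul_eq_mul]
          rw [hxt]
          have := mul_le_mul_of_nonneg_left hm.le (hpos (ψ m)).le
          nlinarith
      · exact Or.inr (hsl k e he hxs)
    · exact Or.inr (hsl k e he (hxD k e he h1))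
  · intro z C p E B x Hh F hm
    obtain ⟨a1, a2, a3, a4, a5, a6, a7⟩ := bx9_mem.1 hm
    set N : ℝ := |z| + |C| + |p| + |E| + |B| + |x| + |Hh| + |F| with hN
    set d : V9 := ![z, C, p, x, F, Hh, B, E, N] with hd
    have k1 := abs_nonneg z
    have k2 := abs_nonneg C
    have k3 := abs_nonneg p
    have k4 := abs_nonneg E
    have k5 := abs_nonneg B
    have k6 := abs_nonneg x
    have k7 := abs_nonneg Hh
    have k8 := abs_nonneg F
    have j1 := neg_abs_le z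
    have j4 := le_abs_self E
    have j5 := le_abs_self B
    have j6 := neg_abs_le x
    have j3 := le_abs_self p
    have j7 := neg_abs_le Hh
    have hdl : LegM 0 d := by
      constructor
      · show E + 0 ≤ z + N
        linarith
      · show x + 0 ≤ z + C
        linarith
      · show B + 0 ≤ E + C
        linarith
      · show B + 0 ≤ N + x
        linarith
      · show Hh + 0 ≤ C + x
        linarith
      · show p + 0 ≤ C + B
        linarith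
      · show p + 0 ≤ N + Hh
        linarith
      · show F + 0 ≤ z + p
        linarith
      · show F + 0 ≤ x + B
        linarith
      · show F + 0 ≤ E + Hh
        linarith
    have e1 : E8 d = bx9 z 0 E C x B Hh p F := rfl
    have h1 := hv d hdl (by rw [e1]; exact hm)
    rw [← e1, h1]
    simp only [Fin.sum_univ_succ, Fin.sum_univ_zero]
    have g0 : d 0 = z := rfl
    have g1 : d 1 = C := rfl
    have g2 : d 2 = p := rfl
    have g3 : d 3 = x := rfl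
    have g4 : d 4 = F := rfl
    have g5 : d 5 = Hh := rfl
    have g6 : d 6 = B := rfl
    have g7 : d 7 = E := rfl
    change -(R 0 * d 0 + (R 1 * d 1 + (R 2 * d 2 + (R 3 * d 3 + (R 4 * d 4 + (R 5 * d 5 +
      (R 6 * d 6 + (R 7 * d 7 + (R 8 * d 8 + 0))))))))) = _
    rw [g0, g1, g2, g3, g4, g5, g6, g7, hR8]
    ring

/-- the walls of the facts are tight at the base -/
structure TW (X : ℕ → Fin 12 → ℝ) : Prop where
  x1 : ∀ n, X n 5 = X n 0 + X n 3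
  x2 : ∀ n, X n 6 = X n 0 + X n 4
  x3 : ∀ n, X n 9 = X n 3 + X n 5
  x4 : ∀ n, X n 9 = X n 4 + X n 6
  x5 : ∀ n, X n 11 = X n 0 + X n 10
  x6 : ∀ n, X n 11 = X n 7 + X n 5
  x7 : ∀ n, X n 11 = X n 8 + X n 6
  x8 : ∀ n, X n 10 = X n 7 + X n 3
  x9 : ∀ n, X n 10 = X n 8 + X n 4

/-- **the facts, `D` frozen, any base** -/
theorem fct8G {s : ℝ} {Sk : V9 → Prop} {Pr : ℕ → ℕ → Prop}
    {Bs Bs1 : (ℕ → Fin 12 → ℝ) → (ℕ → ℝ) → Prop}
    (hpos : ∀ l, 0 < H l) (h0 : Tendsto H atTop (𝓝 0))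
    (ht : ∀ j, IsTan P LM0 (f j) X H (lam2 j))
    (hlip : ∃ K : ℝ, 0 ≤ K ∧ ∀ j, ∀ p ∈ LM0, ∀ q ∈ LM0, |lam2 j p - lam2 j q| ≤ K * ‖p - q‖)
    (hx : ∀ k, ∀ e ∈ monL.mon k, e 1 = 0 → (∀ l, X l k = wl e (X l)) ∨
      ∀ K : ℝ, ∀ᶠ n in atTop, X n k + K * H n ≤ wl e (X n))
    (hxD : ∀ k, ∀ e ∈ monL.mon k, e 1 ≠ 0 → ∀ K : ℝ, ∀ᶠ n in atTop,
      X n k + K * H n ≤ wl e (X n))
    (hW : TW X)
    (HL : LinFacts P f j0 Bs s) (HL1 : LinFacts P f j0 Bs1 1)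
    (HR : ∀ X h rz rX rH rF gC gP gE gB, Bs1 X h → LinTan P f j0 X h rz rX rH rF gC gP gE gB →
      (∀ n, X n 10 = X n 7 + X n 3) → (∀ n, X n 10 = X n 8 + X n 4) → 0 < gB → gC ≤ gP)
    (hown : ∀ w R, LegM 0 w → Sk w → LinS ∅ (fun w => lam2 j0 (E8 w)) w R → 1 - s ≤ R 0)
    (hnn : ∀ w R, LegM 0 w → LinS ∅ (fun w => lam2 j0 (E8 w)) w R → 0 ≤ R 0)
    (hPr : ∀ m, ∀ᶠ l in atTop, Pr m l)
    (hBs : ∀ (w R : V9) (ψ : ℕ → ℕ) (h1 : ℕ → ℝ), LegM 0 w → Sk w → StrictMono ψ →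
      (∀ m, Pr m (ψ m)) → (∀ m, 0 < h1 m) → Tendsto h1 atTop (𝓝 0) → 1 - s ≤ R 0 →
      LinTan P f j0 (fun m => X (ψ m) + H (ψ m) • E8 w) (fun m => H (ψ m) * h1 m) (R 0) (R 3)
        (R 5) (R 4) (R 1) (R 2) (R 7) (R 6) →
      Bs (fun m => X (ψ m) + H (ψ m) • E8 w) (fun m => H (ψ m) * h1 m))
    (hBs1 : ∀ (w R : V9) (ψ : ℕ → ℕ) (h1 : ℕ → ℝ), LegM 0 w → StrictMono ψ →
      (∀ m, Pr m (ψ m)) → (∀ m, 0 < h1 m) → Tendsto h1 atTop (𝓝 0) → 0 ≤ R 0 →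
      LinTan P f j0 (fun m => X (ψ m) + H (ψ m) • E8 w) (fun m => H (ψ m) * h1 m) (R 0) (R 3)
        (R 5) (R 4) (R 1) (R 2) (R 7) (R 6) →
      Bs1 (fun m => X (ψ m) + H (ψ m) • E8 w) (fun m => H (ψ m) * h1 m)) :
    Fct9 Sk s (fun w => lam2 j0 (E8 w)) := by
  obtain ⟨x1, x2, x3, x4, x5, x6, x7, x8, x9⟩ := hW
  have key : ∀ w R, LegM 0 w → Sk w → LinS ∅ (fun w => lam2 j0 (E8 w)) w R →
      ∃ (ψ : ℕ → ℕ) (h1 : ℕ → ℝ),
        Bs (fun m => X (ψ m) + H (ψ m) • E8 w) (fun m => H (ψ m) * h1 m) ∧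
        LinTan P f j0 (fun m => X (ψ m) + H (ψ m) • E8 w) (fun m => H (ψ m) * h1 m) (R 0) (R 3)
          (R 5) (R 4) (R 1) (R 2) (R 7) (R 6) := by
    intro w R hw hS hL
    obtain ⟨ψ, h1, hψ, hP, hp, h0', hT⟩ := linTan8G hpos h0 ht hlip hx hxD hw hL hPr
    exact ⟨ψ, h1, hBs w R ψ h1 hw hS hψ hP hp h0' (hown w R hw hS hL) hT, hT⟩
  have key1 : ∀ w R, LegM 0 w → LinS ∅ (fun w => lam2 j0 (E8 w)) w R →
      ∃ (ψ : ℕ → ℕ) (h1 : ℕ → ℝ),
        Bs1 (fun m => X (ψ m) + H (ψ m) • E8 w) (fun m => H (ψ m) * h1 m) ∧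
        LinTan P f j0 (fun m => X (ψ m) + H (ψ m) • E8 w) (fun m => H (ψ m) * h1 m) (R 0) (R 3)
          (R 5) (R 4) (R 1) (R 2) (R 7) (R 6) := by
    intro w R hw hL
    obtain ⟨ψ, h1, hψ, hP, hp, h0', hT⟩ := linTan8G hpos h0 ht hlip hx hxD hw hL hPr
    exact ⟨ψ, h1, hBs1 w R ψ h1 hw hψ hP hp h0' (hnn w R hw hL) hT, hT⟩
  refine ⟨?_, ?_, ?_, ?_, ?_, ?_, ?_⟩
  · intro w R ho hS hL hR
    obtain ⟨ψ, h1, hB, hT⟩ := key w R (one_leg ho) hS hL
    have g : w 0 + w 1 - w 3 = 0 := ho.1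
    exact (HL.K1 _ _ _ _ _ _ _ _ _ _ hB hT
      (wall_add (E := E8) (i := 0) (j := 3) (k := 5) x1 (by show w 3 = w 0 + w 1; linarith))
      (wall_add (E := E8) (i := 0) (j := 4) (k := 6) x2 (by show w 3 = w 0 + w 1; linarith))).1 hR
  · intro w R ho hS hL hR
    obtain ⟨ψ, h1, hB, hT⟩ := key w R (one_leg ho) hS hL
    have g : w 0 + w 1 - w 3 = 0 := ho.1
    exact (HL.K1 _ _ _ _ _ _ _ _ _ _ hB hT
      (wall_add (E := E8) (i := 0) (j := 3) (k := 5) x1 (by show w 3 = w 0 + w 1; linarith))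
      (wall_add (E := E8) (i := 0) (j := 4) (k := 6) x2 (by show w 3 = w 0 + w 1; linarith))).2 hR
  · intro w R ho hL hR
    obtain ⟨ψ, h1, hB, hT⟩ := key1 w R (one_leg ho) hL
    have g : w 1 + w 3 - w 5 = 0 := ho.1
    exact HL1.H1 _ _ _ _ _ _ _ _ _ _ hB hT
      (wall_add (E := E8) (i := 3) (j := 5) (k := 9) x3 (by show w 5 = w 1 + w 3; linarith))
      (wall_add (E := E8) (i := 4) (j := 6) (k := 9) x4 (by show w 5 = w 1 + w 3; linarith)) hR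
  · intro w R ho hS hL hR
    obtain ⟨ψ, h1, hB, hT⟩ := key w R (one_leg ho) hS hL
    have g : w 0 + w 2 - w 4 = 0 := ho.1
    exact (HL.K2 _ _ _ _ _ _ _ _ _ _ hB hT
      (wall_add (E := E8) (i := 0) (j := 10) (k := 11) x5 (by show w 4 = w 0 + w 2; linarith))).1 hR
  · intro w R ho hS hL hR
    obtain ⟨ψ, h1, hB, hT⟩ := key w R (one_leg ho) hS hL
    have g : w 0 + w 2 - w 4 = 0 := ho.1
    exact (HL.K2 _ _ _ _ _ _ _ _ _ _ hB hT
      (wall_add (E := E8) (i := 0) (j := 10) (k := 11) x5 (by show w 4 = w 0 + w 2; linarith))).2 hR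
  · intro w R ho hL hR
    obtain ⟨ψ, h1, hB, hT⟩ := key1 w R (one_leg ho) hL
    have g : w 3 + w 6 - w 4 = 0 := ho.1
    exact HL1.S1 _ _ _ _ _ _ _ _ _ _ hB hT
      (wall_add (E := E8) (i := 7) (j := 5) (k := 11) x6 (by show w 4 = w 6 + w 3; linarith))
      (wall_add (E := E8) (i := 8) (j := 6) (k := 11) x7 (by show w 4 = w 6 + w 3; linarith)) hR
  · intro w R ho hL hR
    obtain ⟨ψ, h1, hB, hT⟩ := key1 w R (one_leg ho) hL
    have g : w 1 + w 6 - w 2 = 0 := ho.1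
    exact HR _ _ _ _ _ _ _ _ _ _ hB hT
      (wall_add (E := E8) (i := 7) (j := 3) (k := 10) x8 (by show w 2 = w 6 + w 1; linarith))
      (wall_add (E := E8) (i := 8) (j := 4) (k := 10) x9 (by show w 2 = w 6 + w 1; linarith)) hR

end frozen

section live

variable {J : Type*} [Finite J] {P : Set (Fin 12 → ℝ)} {f lam2 : J → (Fin 12 → ℝ) → ℝ}
  {j0 : J} {X : ℕ → Fin 12 → ℝ} {H : ℕ → ℝ} {w R : V9}

/-- **the facts, `D` live, any base** -/
theorem fct9G {s : ℝ} {Sk : V9 → Prop} {Pr : ℕ → ℕ → Prop}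
    {Bs Bs1 : (ℕ → Fin 12 → ℝ) → (ℕ → ℝ) → Prop}
    (hpos : ∀ l, 0 < H l) (h0 : Tendsto H atTop (𝓝 0))
    (ht : ∀ j, IsTan P LM (f j) X H (lam2 j))
    (hlip : ∃ K : ℝ, 0 ≤ K ∧ ∀ j, ∀ p ∈ LM, ∀ q ∈ LM, |lam2 j p - lam2 j q| ≤ K * ‖p - q‖)
    (hW : TW X)
    (HL : FactsM P f j0 Bs s) (HL1 : FactsM P f j0 Bs1 1)
    (hown : ∀ w R, LegM 0 w → Sk w → LinS ∅ (fun w => lam2 j0 (E9 w)) w R → 1 - s ≤ R 0)
    (hnn : ∀ w R, LegM 0 w → LinS ∅ (fun w => lam2 j0 (E9 w)) w R → 0 ≤ R 0)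
    (hPr : ∀ m, ∀ᶠ l in atTop, Pr m l)
    (hBs : ∀ (w R : V9) (ψ : ℕ → ℕ) (h1 : ℕ → ℝ), LegM 0 w → Sk w → StrictMono ψ →
      (∀ m, Pr m (ψ m)) → (∀ m, 0 < h1 m) → Tendsto h1 atTop (𝓝 0) → 1 - s ≤ R 0 →
      LinTanM P f j0 (fun m => X (ψ m) + H (ψ m) • E9 w) (fun m => H (ψ m) * h1 m) (R 0) (R 3)
        (R 5) (R 4) (R 1) (R 2) (R 7) (R 6) (R 8) →
      Bs (fun m => X (ψ m) + H (ψ m) • E9 w) (fun m => H (ψ m) * h1 m))
    (hBs1 : ∀ (w R : V9) (ψ : ℕ → ℕ) (h1 : ℕ → ℝ), LegM 0 w → StrictMono ψ →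
      (∀ m, Pr m (ψ m)) → (∀ m, 0 < h1 m) → Tendsto h1 atTop (𝓝 0) → 0 ≤ R 0 →
      LinTanM P f j0 (fun m => X (ψ m) + H (ψ m) • E9 w) (fun m => H (ψ m) * h1 m) (R 0) (R 3)
        (R 5) (R 4) (R 1) (R 2) (R 7) (R 6) (R 8) →
      Bs1 (fun m => X (ψ m) + H (ψ m) • E9 w) (fun m => H (ψ m) * h1 m)) :
    Fct9 Sk s (fun w => lam2 j0 (E9 w)) := by
  obtain ⟨x1, x2, x3, x4, x5, x6, x7, x8, x9⟩ := hW
  have key : ∀ w R, LegM 0 w → Sk w → LinS ∅ (fun w => lam2 j0 (E9 w)) w R →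
      ∃ (ψ : ℕ → ℕ) (h1 : ℕ → ℝ),
        Bs (fun m => X (ψ m) + H (ψ m) • E9 w) (fun m => H (ψ m) * h1 m) ∧
        LinTanM P f j0 (fun m => X (ψ m) + H (ψ m) • E9 w) (fun m => H (ψ m) * h1 m) (R 0) (R 3)
          (R 5) (R 4) (R 1) (R 2) (R 7) (R 6) (R 8) := by
    intro w R hw hS hL
    obtain ⟨ψ, h1, hψ, hP, hp, h0', hT⟩ := linTan9 hpos h0 ht hlip hw hL hPr
    exact ⟨ψ, h1, hBs w R ψ h1 hw hS hψ hP hp h0' (hown w R hw hS hL) hT, hT⟩
  have key1 : ∀ w R, LegM 0 w → LinS ∅ (fun w => lam2 j0 (E9 w)) w R →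
      ∃ (ψ : ℕ → ℕ) (h1 : ℕ → ℝ),
        Bs1 (fun m => X (ψ m) + H (ψ m) • E9 w) (fun m => H (ψ m) * h1 m) ∧
        LinTanM P f j0 (fun m => X (ψ m) + H (ψ m) • E9 w) (fun m => H (ψ m) * h1 m) (R 0) (R 3)
          (R 5) (R 4) (R 1) (R 2) (R 7) (R 6) (R 8) := by
    intro w R hw hL
    obtain ⟨ψ, h1, hψ, hP, hp, h0', hT⟩ := linTan9 hpos h0 ht hlip hw hL hPr
    exact ⟨ψ, h1, hBs1 w R ψ h1 hw hψ hP hp h0' (hnn w R hw hL) hT, hT⟩
  refine ⟨?_, ?_, ?_, ?_, ?_, ?_, ?_⟩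
  · intro w R ho hS hL hR
    obtain ⟨ψ, h1, hB, hT⟩ := key w R (one_leg ho) hS hL
    have g : w 0 + w 1 - w 3 = 0 := ho.1
    exact ((HL _ _ _ _ _ _ _ _ _ _ _ hB hT).1
      (wall_add (E := E9) (i := 0) (j := 3) (k := 5) x1 (by show w 3 = w 0 + w 1; linarith))
      (wall_add (E := E9) (i := 0) (j := 4) (k := 6) x2 (by show w 3 = w 0 + w 1; linarith))).1 hR
  · intro w R ho hS hL hR
    obtain ⟨ψ, h1, hB, hT⟩ := key w R (one_leg ho) hS hL
    have g : w 0 + w 1 - w 3 = 0 := ho.1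
    exact ((HL _ _ _ _ _ _ _ _ _ _ _ hB hT).1
      (wall_add (E := E9) (i := 0) (j := 3) (k := 5) x1 (by show w 3 = w 0 + w 1; linarith))
      (wall_add (E := E9) (i := 0) (j := 4) (k := 6) x2 (by show w 3 = w 0 + w 1; linarith))).2 hR
  · intro w R ho hL hR
    obtain ⟨ψ, h1, hB, hT⟩ := key1 w R (one_leg ho) hL
    have g : w 1 + w 3 - w 5 = 0 := ho.1
    exact (HL1 _ _ _ _ _ _ _ _ _ _ _ hB hT).2.2.1
      (wall_add (E := E9) (i := 3) (j := 5) (k := 9) x3 (by show w 5 = w 1 + w 3; linarith)) hR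
  · intro w R ho hS hL hR
    obtain ⟨ψ, h1, hB, hT⟩ := key w R (one_leg ho) hS hL
    have g : w 0 + w 2 - w 4 = 0 := ho.1
    exact ((HL _ _ _ _ _ _ _ _ _ _ _ hB hT).2.1
      (wall_add (E := E9) (i := 0) (j := 10) (k := 11) x5 (by show w 4 = w 0 + w 2; linarith))).1 hR
  · intro w R ho hS hL hR
    obtain ⟨ψ, h1, hB, hT⟩ := key w R (one_leg ho) hS hL
    have g : w 0 + w 2 - w 4 = 0 := ho.1
    exact ((HL _ _ _ _ _ _ _ _ _ _ _ hB hT).2.1
      (wall_add (E := E9) (i := 0) (j := 10) (k := 11) x5 (by show w 4 = w 0 + w 2; linarith))).2 hR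
  · intro w R ho hL hR
    obtain ⟨ψ, h1, hB, hT⟩ := key1 w R (one_leg ho) hL
    have g : w 3 + w 6 - w 4 = 0 := ho.1
    exact (HL1 _ _ _ _ _ _ _ _ _ _ _ hB hT).2.2.2.1
      (wall_add (E := E9) (i := 7) (j := 5) (k := 11) x6 (by show w 4 = w 6 + w 3; linarith)) hR
  · intro w R ho hL hR
    obtain ⟨ψ, h1, hB, hT⟩ := key1 w R (one_leg ho) hL
    have g : w 1 + w 6 - w 2 = 0 := ho.1
    exact (HL1 _ _ _ _ _ _ _ _ _ _ _ hB hT).2.2.2.2
      (wall_add (E := E9) (i := 7) (j := 3) (k := 10) x8 (by show w 2 = w 6 + w 1; linarith)) hR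

end live

/-! ### planes -/

section planes

variable {R s : ℝ} {a b : Fin 2} {Vis' : Fin 12 → Prop} {θa θb w0 sa sb v0 t κ : ℝ}
    {f : Fin 2 → (Fin 12 → ℝ) → ℝ} {X : ℕ → Fin 12 → ℝ} {h' H : ℕ → ℝ}
    {lam lam2 : Fin 2 → (Fin 12 → ℝ) → ℝ} {sg l α : ℝ}

/-- a record box, as a function of the wall -/
theorem rL_wl (v : ℝ) (k : Fin 12) {e : Fin 12 → ℕ} (he : e ∈ monL.mon k) :
    wl e (rL θa θb w0 sa sb v) = rL θa θb w0 sa sb v k := eL_wall _ _ _ k he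

theorem wl_congr {e : Fin 12 → ℕ} {p q : Fin 12 → ℝ} (h1 : e 1 = 0) (h : ∀ k, k ≠ 1 → p k = q k) :
    wl e p = wl e q := by
  unfold wl
  refine Finset.sum_congr rfl fun k _ => ?_
  by_cases hk : k = 1
  · subst hk; rw [h1]; simp
  · rw [h k hk]

/-- **tight or slack** -/
theorem dich8 {B : Fin 8 → ℝ} {ρ ρ2 : Fin 8 → ℝ}
    (P : Pd8 R s a b Vis' θa θb w0 sa sb v0 t κ B sg f lam ρ l α h' X H lam2 ρ2) (hsg : sg ≠ 0)
    (hL : ∀ k, ∀ e ∈ monL.mon k, e 1 = 0 → xt kp 0 (RL8.vec B) k ≤ wl e (xt kp 0 (RL8.vec B))) :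
    ∀ k, ∀ e ∈ monL.mon k, e 1 = 0 → (∀ l, X l k = wl e (X l)) ∨
      ∀ K : ℝ, ∀ᶠ n in atTop, X n k + K * H n ≤ wl e (X n) := by
  obtain ⟨V, E, -, -, hEp, hb⟩ := P.base
  set β : Fin 12 → ℝ := xt kp 0 (RL8.vec B) with hβ
  have hβk : ∀ k, k ≠ 1 → β k = B (cl8 k) := fun k hk => by
    rw [hβ, Sl741.xt_in (p := kp) _ _ hk]; simp [RS.vec, RL8]
  -- the gap of a wall at the base
  have hgap : ∀ m k (e : Fin 12 → ℕ), e ∈ monL.mon k → e 1 = 0 →
      wl e (X m) - X m k = E m * (wl e β - β k) := by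
    intro m k e he h1
    have e1 : wl e (X m) = wl e (rL θa θb w0 sa sb (v0 + V m) + E m • β) :=
      wl_congr h1 fun i hi => by
        rw [hb m i hi, Pi.add_apply, Pi.smul_apply, smul_eq_mul, hβk i hi]
    rw [e1, wl_add, wl_smul, rL_wl _ _ he, hb m k (mon_one he), hβk k (mon_one he)]
    ring
  intro k e he h1
  rcases (hL k e he h1).eq_or_lt with h2 | h2
  · left
    intro m
    have := hgap m k e he h1
    rw [h2, sub_self, mul_zero] at this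
    linarith
  · right
    intro K
    -- the direction `-M β` lies in the cone
    set M : ℝ := max K 0 / (wl e β - β k) with hM
    have hd : 0 < wl e β - β k := by linarith
    set c : Fin 12 → ℝ := (-(M / sg)) • xt kp 0 (RL8.vec (sg • B)) with hc
    have hcm : c ∈ L8B θa θb t B sg := by
      intro wv hwv
      have h3 : xt kp 0 (RL8.vec (sg • B)) ((mw monL).hd wv) =
          (mw monL).rhs wv (xt kp 0 (RL8.vec (sg • B))) := hwv.2.1
      have h4 : (mw monL).rhs wv c = (-(M / sg)) * (mw monL).rhs wv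
          (xt kp 0 (RL8.vec (sg • B))) := by
        unfold Walls.rhs
        rw [Finset.mul_sum]
        refine Finset.sum_congr rfl fun i _ => ?_
        rw [hc, Pi.smul_apply, smul_eq_mul]
        ring
      rw [h4, ← h3, hc, Pi.smul_apply, smul_eq_mul]
    have hcβ : c = (-M) • β := by
      rw [hc, hβ, RL8.vec_smul]
      funext i
      by_cases hi : i = 1
      · subst hi
        simp only [Pi.smul_apply, smul_eq_mul]
        rw [Sl741.xt_off (p := kp) _ _ (by simp [kp]), Sl741.xt_off (p := kp) _ _ (by simp [kp])]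
        simp
      · simp only [Pi.smul_apply, smul_eq_mul]
        rw [Sl741.xt_in (p := kp) _ _ hi, Sl741.xt_in (p := kp) _ _ hi, Pi.smul_apply, smul_eq_mul]
        field_simp
    filter_upwards [SgO219.tan_ev (P.tan 0) hcm] with m hm
    have h5 := leg_wall _ hm k e he
    rw [wl_add, wl_smul, hcβ, wl_smul, Pi.add_apply, Pi.smul_apply, Pi.smul_apply, smul_eq_mul,
      smul_eq_mul] at h5
    have h6 : M * (wl e β - β k) = max K 0 := by
      rw [hM]; field_simp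
    have h7 := mul_le_mul_of_nonneg_left (le_max_left K 0) (P.pos m).le
    have h8 : H m * (M * (wl e β - β k)) ≤ wl e (X m) - X m k := by nlinarith
    rw [h6] at h8
    linarith

/-- the five class equalities of an offset ⊢ the base is tight -/
theorem tw8 {B : Fin 8 → ℝ} {ρ ρ2 : Fin 8 → ℝ}
    (P : Pd8 R s a b Vis' θa θb w0 sa sb v0 t κ B sg f lam ρ l α h' X H lam2 ρ2)
    (b1 : B 3 = B 0 + B 1) (b2 : B 5 = B 1 + B 3) (b3 : B 4 = B 0 + B 2) (b4 : B 4 = B 3 + B 6)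
    (b5 : B 2 = B 1 + B 6) : TW X := by
  obtain ⟨V, E, -, -, -, hb⟩ := P.base
  have q0 : cl8 0 = 0 := rfl
  have q3 : cl8 3 = 1 := rfl
  have q4 : cl8 4 = 1 := rfl
  have q5 : cl8 5 = 3 := rfl
  have q6 : cl8 6 = 3 := rfl
  have q7 : cl8 7 = 6 := rfl
  have q8 : cl8 8 = 6 := rfl
  have q9 : cl8 9 = 5 := rfl
  have q10 : cl8 10 = 2 := rfl
  have q11 : cl8 11 = 4 := rfl
  have r : ∀ v, rL θa θb w0 sa sb v = eL (w0 + v) (θa * (1 - v) + sa) (θb * (1 - v) + sb) :=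
    fun _ => rfl
  constructor <;> intro n
  · rw [hb n 5 (by decide), hb n 0 (by decide), hb n 3 (by decide), q5, q0, q3, b1, r]
    simp [eL]; ring
  · rw [hb n 6 (by decide), hb n 0 (by decide), hb n 4 (by decide), q6, q0, q4, b1, r]
    simp [eL]; ring
  · rw [hb n 9 (by decide), hb n 3 (by decide), hb n 5 (by decide), q9, q3, q5, b2, r]
    simp [eL]; ring
  · rw [hb n 9 (by decide), hb n 4 (by decide), hb n 6 (by decide), q9, q4, q6, b2, r]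
    simp [eL]; ring
  · rw [hb n 11 (by decide), hb n 0 (by decide), hb n 10 (by decide), q11, q0, q10, b3, r]
    simp [eL]; ring
  · rw [hb n 11 (by decide), hb n 7 (by decide), hb n 5 (by decide), q11, q7, q5, b4, r]
    simp [eL]; ring
  · rw [hb n 11 (by decide), hb n 8 (by decide), hb n 6 (by decide), q11, q8, q6, b4, r]
    simp [eL]; ring
  · rw [hb n 10 (by decide), hb n 7 (by decide), hb n 3 (by decide), q10, q7, q3, b5, r]
    simp [eL]; ring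
  · rw [hb n 10 (by decide), hb n 8 (by decide), hb n 4 (by decide), q10, q8, q4, b5, r]
    simp [eL]; ring

theorem tw9 {B : Fin 9 → ℝ} {ρ ρ2 : Fin 9 → ℝ}
    (P : Pd9 R s a b Vis' θa θb w0 sa sb v0 κ B sg f lam ρ l α h' X H lam2 ρ2)
    (b1 : B 3 = B 0 + B 1) (b2 : B 5 = B 1 + B 3) (b3 : B 4 = B 0 + B 2) (b4 : B 4 = B 3 + B 6)
    (b5 : B 2 = B 1 + B 6) : TW X := by
  obtain ⟨V, E, -, -, -, hb⟩ := P.base
  have q0 : cl9 0 = 0 := rfl
  have q3 : cl9 3 = 1 := rfl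
  have q4 : cl9 4 = 1 := rfl
  have q5 : cl9 5 = 3 := rfl
  have q6 : cl9 6 = 3 := rfl
  have q7 : cl9 7 = 6 := rfl
  have q8 : cl9 8 = 6 := rfl
  have q9 : cl9 9 = 5 := rfl
  have q10 : cl9 10 = 2 := rfl
  have q11 : cl9 11 = 4 := rfl
  have r : ∀ v, rL θa θb w0 sa sb v = eL (w0 + v) (θa * (1 - v) + sa) (θb * (1 - v) + sb) :=
    fun _ => rfl
  constructor <;> intro n
  · rw [hb n 5, hb n 0, hb n 3, q5, q0, q3, b1, r]
    simp [eL]; ring
  · rw [hb n 6, hb n 0, hb n 4, q6, q0, q4, b1, r]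
    simp [eL]; ring
  · rw [hb n 9, hb n 3, hb n 5, q9, q3, q5, b2, r]
    simp [eL]; ring
  · rw [hb n 9, hb n 4, hb n 6, q9, q4, q6, b2, r]
    simp [eL]; ring
  · rw [hb n 11, hb n 0, hb n 10, q11, q0, q10, b3, r]
    simp [eL]; ring
  · rw [hb n 11, hb n 7, hb n 5, q11, q7, q5, b4, r]
    simp [eL]; ring
  · rw [hb n 11, hb n 8, hb n 6, q11, q8, q6, b4, r]
    simp [eL]; ring
  · rw [hb n 10, hb n 7, hb n 3, q10, q7, q3, b5, r]
    simp [eL]; ring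
  · rw [hb n 10, hb n 8, hb n 4, q10, q8, q4, b5, r]
    simp [eL]; ring

end planes

theorem leg8_LM0 {B : Fin 8 → ℝ} (hL : Leg8 B) : xt kp 0 (RL8.vec B) ∈ LM0 := by
  set N : ℝ := |B 0| + |B 1| + |B 2| + |B 3| + |B 5| + |B 6| + |B 7| with hN
  have a0 := abs_nonneg (B 0)
  have a1 := abs_nonneg (B 1)
  have a2 := abs_nonneg (B 2)
  have a3 := abs_nonneg (B 3)
  have a5 := abs_nonneg (B 5)
  have a6 := abs_nonneg (B 6)
  have a7 := abs_nonneg (B 7)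
  have c0 := neg_abs_le (B 0)
  have c7 := le_abs_self (B 7)
  have c6 := le_abs_self (B 6)
  have c3 := neg_abs_le (B 3)
  have c2 := le_abs_self (B 2)
  have c5 := neg_abs_le (B 5)
  set w : V9 := ![B 0, B 1, B 2, B 3, B 4, B 5, B 6, B 7, N] with hw
  have e : (fun i : Fin 8 => w i.castSucc) = B := by
    funext i; fin_cases i <;> rfl
  have h1 := E8_mem (w := w) (by
    obtain ⟨f1, f2, f3, f4, f5, f6, f7⟩ := hL
    constructor
    · show B 7 + 0 ≤ B 0 + N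
      linarith
    · show B 3 + 0 ≤ B 0 + B 1
      linarith
    · show B 6 + 0 ≤ B 7 + B 1
      linarith
    · show B 6 + 0 ≤ N + B 3
      linarith
    · show B 5 + 0 ≤ B 1 + B 3
      linarith
    · show B 2 + 0 ≤ B 1 + B 6
      linarith
    · show B 2 + 0 ≤ N + B 5
      linarith
    · show B 4 + 0 ≤ B 0 + B 2
      linarith
    · show B 4 + 0 ≤ B 3 + B 6
      linarith
    · show B 4 + 0 ≤ B 7 + B 5
      linarith)
  rw [← E8_eq, e] at h1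
  exact h1

section ctx

variable {G : Geo TSet (Fin 2)} {L : ℕ → ℕ → LRay} {r : ℕ → ℝ} {g s : ℝ} {θ q : Fin 2 → ℝ}
    {Rg : ℝ} {B : Base} {I : ℕ → Finset (ℕ × ℝ)} {lev : ℕ → ℚ → ℕ} {A : ℕ → ℝ}
    {f : ℕ → ℚ → ℕ → ℤ → ℕ} {b : ℕ → ℚ → ℕ → TSet} {vm : ℕ → ℚ → ℝ} {w : Fin 2 → ℕ → ℚ → ℝ}
    {fr : ℕ → ℚ → ℕ × ℝ → LInc} {fl : ℕ → ℕ × ℝ → LInc} {sc : Fin 12 → ℕ → ℝ}
    {w0 sa sb δ R : ℝ} {I0 I' : ℕ → Finset (ℕ × ℝ)} {ν own : (Fin 12 → ℝ) → ℝ} {c₀ : ℝ}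
    {v0 ζ t κ sg l α : ℝ} {a b' : Fin 2} {Vis' : Fin 12 → Prop} {X : ℕ → Fin 12 → ℝ}
    {h' H : ℕ → ℝ} {lam lam2 : Fin 2 → (Fin 12 → ℝ) → ℝ} {Sk : V9 → Prop}

/-- **the facts of a plane, `D` frozen** -/
theorem pd8_fctG {Bo ρ ρ2 : Fin 8 → ℝ}
    (P : Pd8 R s a b' Vis' (θ 0) (θ 1) w0 sa sb v0 t κ Bo sg (fo ν own) lam ρ l α h' X H
      lam2 ρ2)
    (C : CtxT G L r g s θ q Rg B I lev A f b vm w fr fl sc w0 sa sb δ R I0 I' ν own c₀)
    (hs0 : 0 ≤ s) (hs1 : s ≤ 1) (ht0 : t ≠ 0) (hsg : sg ≠ 0) (hL : Leg8 Bo)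
    (b1 : Bo 3 = Bo 0 + Bo 1) (b2 : Bo 5 = Bo 1 + Bo 3) (b3 : Bo 4 = Bo 0 + Bo 2)
    (b4 : Bo 4 = Bo 3 + Bo 6) (b5 : Bo 2 = Bo 1 + Bo 6)
    (hz : Kz710.FlagZ B I fl (sN lev w) ζ)
    (hθ : 0 < θ 0) (hv0 : 0 < v0) (hv1 : v0 < 1) (hζ : θ 1 * (1 - v0) < ζ + θ 0 * (1 - v0))
    (hSk : ∀ w, LegM 0 w → Sk w → ∀ k, Vis' k → E8 w k ≤ w 0 * βL (θ 0) (θ 1) k) :
    Fct9 Sk s (fun w => lam2 0 (xt kp 0 (RL8.vec (fun i : Fin 8 => w i.castSucc)))) := by
  have ht : ∀ j, IsTan (Leg monL R) LM0 (fo ν own j) X H (lam2 j) := fun j =>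
    Rc683.tan_mono (P.tan j) Subset.rfl (LM0_L8B ht0)
  have Hp := P.prf.mono (LM0_L8B ht0)
  have hth := hthB (C' := 2) C hz hθ hv0 hv1 hζ
  have hN := RowU388.nprof_T C
  have hcoc : ∀ n, Coc (PL504.coN B lev w w0 sa sb fl n) :=
    fun n => Sd369.coc_N B lev w w0 sa sb fl n
  have hp : ∀ l, Pr2 (X l) := P.pairs
  have hx := dich8 P hsg fun k e he h1 => leg8_LM0 hL k e he h1
  have hxD := slD_of_tan (leg_wall (R := R)) P.pos (ht 0)
  have hlip : ∃ K : ℝ, 0 ≤ K ∧ ∀ j, ∀ p ∈ LM0, ∀ q ∈ LM0,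
      |lam2 j p - lam2 j q| ≤ K * ‖p - q‖ := by
    refine ⟨12, by norm_num, fun j p hp' q hq' => ?_⟩
    have := SgO219.tan_lip P.pos (ht j) (K := 12) (fo_lip C j) p hp' q hq'
    rwa [dist_eq_norm] at this
  have F := linFactsR (f := fo ν own) (j0 := (0 : Fin 2)) hN hcoc hs0 hs1 rfl
    (Bs := fun X h => BsF B I0 I' (PL504.coN B lev w w0 sa sb fl) 2 R ν s X h) fun _ _ h => h
  have F1 := linFactsR (f := fo ν own) (j0 := (0 : Fin 2)) hN hcoc zero_le_one le_rfl rfl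
    (Bs := fun X h => BsF B I0 I' (PL504.coN B lev w w0 sa sb fl) 2 R ν 1 X h) fun _ _ h => h
  have key : Fct9 Sk s (fun w => lam2 0 (E8 w)) := by
    refine fct8G (Pr := fun _ _ => True) P.pos P.lim ht hlip hx hxD (tw8 P b1 b2 b3 b4 b5)
      F.toLinFacts F1.toLinFacts F1.RM
      (fun w R' hw hS hL => ?_) (fun w R' hw hL => ?_)
      (fun _ => Eventually.of_forall fun _ => trivial)
      (fun w R' ψ h1 hw hS hψ _ hp1 h01 hr hT => ?_) (fun w R' ψ h1 hw hψ _ hp1 h01 hr hT => ?_)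
    · exact own_R (s := s) (M := LM0) (fun d hd => E8_mem hd) E8_add hw hL fun t ht' =>
        own_prf Hp (fun d hd => E8_mem hd) E8_add (fun _ => rfl) e9_nonneg8 hw
          (hSk w hw hS) ht'
    · refine own_R (s := s) (M := LM0) (fun d hd => E8_mem hd) E8_add hw hL fun t ht' => ?_
      have hl : LegM 0 (e9 0) := by
        constructor <;> simp [e9]
      have h2 := (Hp.anti (E8 w) (E8_mem hw) (E8 (w + t • e9 0))
        (E8_mem (hw.add_smul hl ht'.le)) (by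
          rw [E8_add]
          intro i
          simp only [Pi.add_apply, Pi.smul_apply, smul_eq_mul]
          have := e9_nonneg8 i
          simp only [Pi.zero_apply] at this
          nlinarith)).1
      linarith
    · exact bsF_shift hth rfl P.xlim P.lim hp (pr2_bx9 _ _ _ _ _ _ _ _ _) hψ hT hr
    · exact bsF_shift hth rfl P.xlim P.lim hp (pr2_bx9 _ _ _ _ _ _ _ _ _) hψ hT (by linarith)
  simpa only [E8_eq] using key

/-- **the facts of a plane, `D` live** -/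
theorem pd9_fctG {Bo ρ ρ2 : Fin 9 → ℝ}
    (P : Pd9 R s a b' Vis' (θ 0) (θ 1) w0 sa sb v0 κ Bo sg (fo ν own) lam ρ l α h' X H
      lam2 ρ2)
    (C : CtxT G L r g s θ q Rg B I lev A f b vm w fr fl sc w0 sa sb δ R I0 I' ν own c₀)
    (hs0 : 0 ≤ s) (hs1 : s ≤ 1)
    (b1 : Bo 3 = Bo 0 + Bo 1) (b2 : Bo 5 = Bo 1 + Bo 3) (b3 : Bo 4 = Bo 0 + Bo 2)
    (b4 : Bo 4 = Bo 3 + Bo 6) (b5 : Bo 2 = Bo 1 + Bo 6)
    (hz : Kz710.FlagZ B I fl (sN lev w) ζ)
    (hθ : 0 < θ 0) (hv0 : 0 < v0) (hv1 : v0 < 1) (hζ : θ 1 * (1 - v0) < ζ + θ 0 * (1 - v0))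
    (hSk : ∀ w, LegM 0 w → Sk w → ∀ k, Vis' k → E9 w k ≤ w 0 * βL (θ 0) (θ 1) k) :
    Fct9 Sk s (fun w => lam2 0 (RL9.vec w)) := by
  have ht : ∀ j, IsTan (Leg monL R) LM (fo ν own j) X H (lam2 j) := fun j =>
    Rc683.tan_mono (P.tan j) Subset.rfl LM_L9B
  have Hp := P.prf.mono (LM_L9B (θa := θ 0) (θb := θ 1) (B := Bo) (sg := sg))
  have hth := hthM (C' := 2) C hz hθ hv0 hv1 hζ
  have hN := RowU388.nprof_T C
  have hcoc : ∀ n, Coc (PL504.coN B lev w w0 sa sb fl n) :=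
    fun n => Sd369.coc_N B lev w w0 sa sb fl n
  have hp : ∀ l, Pr2 (X l) := P.pairs
  have hlip : ∃ K : ℝ, 0 ≤ K ∧ ∀ j, ∀ p ∈ LM, ∀ q ∈ LM,
      |lam2 j p - lam2 j q| ≤ K * ‖p - q‖ := by
    refine ⟨12, by norm_num, fun j p hp' q hq' => ?_⟩
    have := SgO219.tan_lip P.pos (ht j) (K := 12) (fo_lip C j) p hp' q hq'
    rwa [dist_eq_norm] at this
  have F : FactsM (Leg monL R) (fo ν own) (0 : Fin 2)
      (fun X h => BsM B I0 I' (PL504.coN B lev w w0 sa sb fl) 2 R ν s X h) s :=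
    factsM_of hN hcoc hs0 hs1 rfl fun _ _ h => h
  have F1 : FactsM (Leg monL R) (fo ν own) (0 : Fin 2)
      (fun X h => BsM B I0 I' (PL504.coN B lev w w0 sa sb fl) 2 R ν 1 X h) 1 :=
    factsM_of hN hcoc zero_le_one le_rfl rfl fun _ _ h => h
  have key : Fct9 Sk s (fun w => lam2 0 (E9 w)) := by
    refine fct9G (Pr := fun _ _ => True) P.pos P.lim ht hlip (tw9 P b1 b2 b3 b4 b5) F F1
      (fun w R' hw hS hL => ?_) (fun w R' hw hL => ?_)
      (fun _ => Eventually.of_forall fun _ => trivial)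
      (fun w R' ψ h1 hw hS hψ _ hp1 h01 hr hT => ?_) (fun w R' ψ h1 hw hψ _ hp1 h01 hr hT => ?_)
    · exact own_R (s := s) (M := LM) (fun d hd => E9_mem hd) E9_add hw hL fun t ht' =>
        own_prf Hp (fun d hd => E9_mem hd) E9_add (fun _ => rfl) e9_nonneg9 hw
          (hSk w hw hS) ht'
    · refine own_R (s := s) (M := LM) (fun d hd => E9_mem hd) E9_add hw hL fun t ht' => ?_
      have hl : LegM 0 (e9 0) := by
        constructor <;> simp [e9]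
      have h2 := (Hp.anti (E9 w) (E9_mem hw) (E9 (w + t • e9 0))
        (E9_mem (hw.add_smul hl ht'.le)) (by
          rw [E9_add]
          intro i
          simp only [Pi.add_apply, Pi.smul_apply, smul_eq_mul]
          have := e9_nonneg9 i
          simp only [Pi.zero_apply] at this
          nlinarith)).1
      linarith
    · exact bsM_shift hth rfl P.xlim P.lim hp (pr2_bx9 _ _ _ _ _ _ _ _ _) hψ hT hr
    · exact bsM_shift hth rfl P.xlim P.lim hp (pr2_bx9 _ _ _ _ _ _ _ _ _) hψ hT (by linarith)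
  simpa only [E9_eq] using key

end ctx

end Crest.Agent.R116.Tq794
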