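import Crest.Agent.R116.Tk0_741
import Crest.Agent.R116.Pu3_171

/-!
# R116 (K side, ties), the `κ`-plane, `D` frozen, `k < 1` (helper647)

* `natK8` : value at the natural vectors, `k = 1/2` included
* **`kf8`** : `KF' s k (plK s c φ ρ)` from `Fct9` and `FctK`
* **`tv8`** : `TVk`;  **`p8`** : the two-height facts
-/

set_option autoImplicit false
set_option linter.unusedSectionVars false
set_option linter.unusedVariables false

open Set Filter Topology Metric MeasureTheory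
open scoped NNReal

namespace Crest.Agent.R116.Tm647

open Crest.Agent.R116.Tq741
open Tie460 (Pl KF')
open RbM219 (nat9)
open Sg337 (DL)
open Crest.Agent.R116.Pu171 (FctP)

variable {c : Fin 9 → Fin 9} {dl : V9} {s : ℝ} {Λ : V9 → ℝ} {φ : Fin 9 → V9 → ℝ} {ρ : V9} {k : ℝ}

theorem c7 (P : PlK k c dl) : c 7 = c 0 := (P.par 7 0).2 (by unfold PK; simp)

theorem al (P : PlK k c dl) {t : Fin 9} (ht : t = 1 ∨ t = 2 ∨ t = 3 ∨ t = 4 ∨ t = 8) :
    Al c t := by
  intro t' h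
  have h1 := (P.par t' t).1 h
  unfold PK at h1
  rcases ht with rfl | rfl | rfl | rfl | rfl <;> simpa using h1

theorem al1 (P : PlK k c dl) : Al c 1 := al P (by simp)
theorem al2 (P : PlK k c dl) : Al c 2 := al P (by simp)
theorem al3 (P : PlK k c dl) : Al c 3 := al P (by simp)
theorem al4 (P : PlK k c dl) : Al c 4 := al P (by simp)
theorem al8 (P : PlK k c dl) : Al c 8 := al P (by simp)

theorem al5 (P : PlK k c dl) (hk : k ≠ 1 / 2) : Al c 5 := by
  intro t' h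
  have h1 := (P.par t' 5).1 h
  unfold PK at h1
  have hk' : k ≠ 2⁻¹ := by rwa [one_div] at hk
  simpa [hk'] using h1

theorem al6 (P : PlK k c dl) (hk : k ≠ 1 / 2) : Al c 6 := by
  intro t' h
  have h1 := (P.par t' 6).1 h
  unfold PK at h1
  have hk' : k ≠ 2⁻¹ := by rwa [one_div] at hk
  simpa [hk'] using h1

theorem c5 (P : PlK k c dl) (hk : k = 1 / 2) : c 5 = c 6 :=
  (P.par 5 6).2 (by unfold PK; simp [hk])

theorem zz (P : PlK k c dl) {t : Fin 9} : c t = c 0 ↔ t = 0 ∨ t = 7 := by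
  rw [P.par]; unfold PK
  constructor
  · rintro (h | h | h | h)
    · exact Or.inl h
    · simp at h
    · exact Or.inr h.1
    · simp at h
  · rintro (rfl | rfl)
    · simp
    · simp

theorem hZ (P : PlK k c dl) (t : Fin 9) : t ∈ ({0, 7} : Finset (Fin 9)) ↔ c t = c 0 := by
  rw [zz P]; simp

theorem k6 (P : PlK k c dl) {t : Fin 9} (h : c t = c 6) : t = 5 ∨ t = 6 := by
  have h1 := (P.par t 6).1 h
  unfold PK at h1
  rcases h1 with h | h | h | h
  · exact Or.inr h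
  · simp at h
  · simp at h
  · simp at h; exact Or.inl h.2

theorem k5 (P : PlK k c dl) {t : Fin 9} (h : c t = c 5) : t = 5 ∨ t = 6 := by
  have h1 := (P.par t 5).1 h
  unfold PK at h1
  rcases h1 with h | h | h | h
  · exact Or.inl h
  · simp at h
  · simp at h
  · simp at h; exact Or.inr h.2

/-- a slot of a class outside `{z, G}`, `{H, B}` is alone -/
theorem al_of (P : PlK k c dl) {t : Fin 9} (h0 : c t ≠ c 0) (h6 : t ≠ 5 ∧ t ≠ 6) : Al c t := by
  intro t' h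
  have h1 := (P.par t' t).1 h
  unfold PK at h1
  rcases h1 with h | ⟨h, h'⟩ | ⟨h, h'⟩ | ⟨-, ⟨h, h'⟩ | ⟨h, h'⟩⟩
  · exact h
  · subst h'; exact absurd (c7 P) h0
  · subst h'; exact absurd rfl h0
  · exact absurd h' h6.2
  · exact absurd h' h6.1

/-- generic points from pieces: `w1` for `{z, G}`, `w2` for `{H, B}` -/
theorem gen (P : PlK k c dl) (H : Cl9 c dl s Λ φ ρ) {w' w1 w2 : V9}
    (h1 : ∃ R, RtAt (φ (c 0)) w1 R) (e0 : w' 0 = w1 0) (e7 : w' 7 = w1 7)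
    (h5 : ∃ R, RtAt (φ (c 5)) w2 R) (h6 : ∃ R, RtAt (φ (c 6)) w2 R) (e5 : w' 5 = w2 5)
    (e6 : w' 6 = w2 6) : GenZ φ (fun _ => False) w' := by
  refine H.genZ fun t _ => ?_
  by_cases h0 : c t = c 0
  · obtain ⟨R1, hR1⟩ := h1
    refine Or.inr ⟨w1, R1, by rw [h0]; exact hR1, fun t' ht' => ?_⟩
    rcases (zz P).1 (ht'.trans h0) with rfl | rfl
    · exact e0
    · exact e7
  by_cases ht5 : t = 5
  · subst ht5
    obtain ⟨R, hR⟩ := h5
    refine Or.inr ⟨w2, R, hR, fun t' ht' => ?_⟩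
    rcases k5 P ht' with rfl | rfl
    · exact e5
    · exact e6
  by_cases ht6 : t = 6
  · subst ht6
    obtain ⟨R, hR⟩ := h6
    refine Or.inr ⟨w2, R, hR, fun t' ht' => ?_⟩
    rcases k6 P ht' with rfl | rfl
    · exact e5
    · exact e6
  · exact Or.inl (al_of P h0 ⟨ht5, ht6⟩)

/-- the same with the class of `z` left out -/
theorem genz (P : PlK k c dl) (H : Cl9 c dl s Λ φ ρ) {w' w2 : V9}
    (h5 : ∃ R, RtAt (φ (c 5)) w2 R) (h6 : ∃ R, RtAt (φ (c 6)) w2 R) (e5 : w' 5 = w2 5)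
    (e6 : w' 6 = w2 6) : GenZ φ (fun k => k = c 0) w' := by
  refine H.genZ fun t h0 => ?_
  by_cases ht5 : t = 5
  · subst ht5
    obtain ⟨R, hR⟩ := h5
    refine Or.inr ⟨w2, R, hR, fun t' ht' => ?_⟩
    rcases k5 P ht' with rfl | rfl
    · exact e5
    · exact e6
  by_cases ht6 : t = 6
  · subst ht6
    obtain ⟨R, hR⟩ := h6
    refine Or.inr ⟨w2, R, hR, fun t' ht' => ?_⟩
    rcases k6 P ht' with rfl | rfl
    · exact e5
    · exact e6
  · exact Or.inl (al_of P h0 ⟨ht5, ht6⟩)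

/-- rates of both classes `c 5`, `c 6` at a position of one of them -/
theorem both (P : PlK k c dl) (H : Cl9 c dl s Λ φ ρ) {w R : V9} {t : Fin 9}
    (ht : t = 5 ∨ t = 6) (hR : RtAt (φ (c t)) w R) :
    (∃ R, RtAt (φ (c 5)) w R) ∧ ∃ R, RtAt (φ (c 6)) w R := by
  by_cases hk : k = 1 / 2
  · have h := c5 P hk
    rcases ht with rfl | rfl
    · exact ⟨⟨R, hR⟩, ⟨R, by rw [← h]; exact hR⟩⟩
    · exact ⟨⟨R, by rw [h]; exact hR⟩, ⟨R, hR⟩⟩
  · exact ⟨⟨_, H.rt_alone (al5 P hk) w⟩, ⟨_, H.rt_alone (al6 P hk) w⟩⟩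

/-- `RtAt` of the classes `c 5`, `c 6` sees the slots `5`, `6` only -/
theorem loc56 (P : PlK k c dl) (H : Cl9 c dl s Λ φ ρ) {w w' R : V9} {t : Fin 9}
    (ht : t = 5 ∨ t = 6) (hR : RtAt (φ (c t)) w R) (e5 : w' 5 = w 5) (e6 : w' 6 = w 6) :
    RtAt (φ (c t)) w' R := by
  refine hR.loc H fun t' ht' => ?_
  rcases ht with rfl | rfl
  · rcases k5 P ht' with rfl | rfl
    · exact e5
    · exact e6
  · rcases k6 P ht' with rfl | rfl
    · exact e5
    · exact e6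

/-- evaluation of explicit vectors -/
macro "ww" : tactic => `(tactic| simp only [Matrix.cons_val, Pi.add_apply, Pi.smul_apply,
  smul_eq_mul, e9, Pi.single_apply, Fin.reduceEq, reduceIte, mul_one, mul_zero, add_zero,
  zero_add])

/-- a generic point with `G` strictly coarser, near `z = 0`, `G = -1`, `H = B = h0` -/
theorem near (H : Cl9 c dl s Λ φ ρ) (w0 : V9) {η : ℝ} (hη : 0 < η) (h : LegM (6 * η) w0) :
    ∃ w, ‖w - w0‖ < η ∧ ∀ k, ∃ R, RtAt (φ k) w R := by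
  obtain ⟨w, -, h1, -, h2⟩ := H.pos_near hη h (N := univ) (by simp)
  exact ⟨w, h1, h2⟩

/-- **points of the wall of `X`** -/
theorem exX (P : PlK k c dl) (H : Cl9 c dl s Λ φ ρ) (hk : 0 < k) :
    ∃ w R, One 1 w ∧ w 7 < k * w 0 ∧ LinS ∅ Λ w R ∧ R 1 = ρ 1 ∧ R 3 = ρ 3 := by
  obtain ⟨η, hη, hη1, hη2⟩ := exists_eta hk
  obtain ⟨w, hw, hg⟩ := near H ![0, 50, -50, 0, -200, -10, -10, -1, 1000] hη
    (by constructor <;> ww <;> linarith)
  have b0 := nbd hw 0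
  have b5 := nbd hw 5
  have b6 := nbd hw 6
  have b7 := nbd hw 7
  simp only [Matrix.cons_val] at b0 b5 b6 b7
  set w' : V9 := ![w 0, 50, -50, w 0 + 50, -200, w 5, w 6, w 7, 1000] with hw'
  have hgen : GenZ φ (fun _ => False) w' := gen P H (w1 := w) (w2 := w) (hg _) (by simp [hw'])
    (by simp [hw']) (hg _) (hg _) (by simp [hw']) (by simp [hw'])
  have hone : One 1 w' := by
    refine one_of 1 ?_ ?_ ?_ ?_ ?_ ?_ ?_ ?_ ?_ ?_ <;>
      simp only [hw', Matrix.cons_val, Fin.reduceEq, reduceIte] <;>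
      linarith [b0.1, b0.2, b5.1, b5.2, b6.1, b6.2, b7.1, b7.2]
  obtain ⟨R', hl, ha, hu⟩ := hgen.lin H hone.leg
  refine ⟨w', R', hone, ?_, hl, ha 1 (al1 P), ha 3 (al3 P)⟩
  simp only [hw', Matrix.cons_val]
  have := mul_le_mul_of_nonneg_left b0.1.le hk.le
  nlinarith [b7.2]

/-- **points of the wall of `N`** -/
theorem exN (P : PlK k c dl) (H : Cl9 c dl s Λ φ ρ) (hk : 0 < k) :
    ∃ w R, One 7 w ∧ w 7 < k * w 0 ∧ LinS ∅ Λ w R ∧ R 2 = ρ 2 ∧ R 4 = ρ 4 := by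
  obtain ⟨η, hη, hη1, hη2⟩ := exists_eta hk
  obtain ⟨w, hw, hg⟩ := near H ![0, 50, 0, 30, -200, 20, 20, -1, 1000] hη
    (by constructor <;> ww <;> linarith)
  have b0 := nbd hw 0
  have b5 := nbd hw 5
  have b6 := nbd hw 6
  have b7 := nbd hw 7
  simp only [Matrix.cons_val] at b0 b5 b6 b7
  set w' : V9 := ![w 0, 50, 0, 30, w 0, w 5, w 6, w 7, 1000] with hw'
  have hgen : GenZ φ (fun _ => False) w' := gen P H (w1 := w) (w2 := w) (hg _) (by simp [hw'])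
    (by simp [hw']) (hg _) (hg _) (by simp [hw']) (by simp [hw'])
  have hone : One 7 w' := by
    refine one_of 7 ?_ ?_ ?_ ?_ ?_ ?_ ?_ ?_ ?_ ?_ <;>
      simp only [hw', Matrix.cons_val, Fin.reduceEq, reduceIte] <;>
      linarith [b0.1, b0.2, b5.1, b5.2, b6.1, b6.2, b7.1, b7.2]
  obtain ⟨R', hl, ha, hu⟩ := hgen.lin H hone.leg
  refine ⟨w', R', hone, ?_, hl, ha 2 (al2 P), ha 4 (al4 P)⟩
  simp only [hw', Matrix.cons_val]
  have := mul_le_mul_of_nonneg_left b0.1.le hk.le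
  nlinarith [b7.2]

/-- base of the path of `B`, `H` coarse -/
def bB : V9 := ![0, 50, -100, 0, -200, 0, 0, -1, 1000]
/-- base of the path of `H`, `B` fine -/
def bH : V9 := ![0, 50, -100, 0, -200, 0, 1, -1, 1000]

theorem leg_bB : LegM 1 bB := by constructor <;> simp only [bB] <;> ww <;> norm_num
theorem leg_bB1 : LegM 1 (bB + (1:ℝ) • e9 6) := by
  constructor <;> simp only [bB] <;> ww <;> norm_num
theorem leg_bH : LegM 1 bH := by constructor <;> simp only [bH] <;> ww <;> norm_num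
theorem leg_bH1 : LegM 1 (bH + (2:ℝ) • e9 5) := by
  constructor <;> simp only [bH] <;> ww <;> norm_num

theorem w_eq (P : PlK k c dl) (H : Cl9 c dl s Λ φ ρ) :
    (plK s c φ ρ).w = φ (c 6) bB - φ (c 6) (bB + (1:ℝ) • e9 6) := by
  unfold plK
  simp only
  rw [H.loc (c 6) 0 bB fun t ht => by rcases k6 P ht with rfl | rfl <;> simp [bB],
    H.loc (c 6) (0 + (1:ℝ) • e9 6) (bB + (1:ℝ) • e9 6) fun t ht => by
      rcases k6 P ht with rfl | rfl <;> simp [bB]]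

theorem h_eq (P : PlK k c dl) (H : Cl9 c dl s Λ φ ρ) :
    1 - (plK s c φ ρ).h = (φ (c 5) bH - φ (c 5) (bH + (2:ℝ) • e9 5)) / 2 := by
  unfold plK
  simp only
  rw [H.loc (c 5) (e9 6) bH fun t ht => by rcases k5 P ht with rfl | rfl <;> simp [bH, e9],
    H.loc (c 5) (e9 6 + (2:ℝ) • e9 5) (bH + (2:ℝ) • e9 5) fun t ht => by
      rcases k5 P ht with rfl | rfl <;> simp [bH, e9]]
  ring

/-- **the wall of `B`, flag natural** : `m ≤ w` -/
theorem kW (P : PlK k c dl) (H : Cl9 c dl s Λ φ ρ) (W : FctK k Λ) :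
    ρ 1 ≤ (plK s c φ ρ).w := by
  rw [w_eq P H]
  have h1 := H.mv_ge' (t := 6) (w0 := bB) (y := 1) (q := ρ 1) (m := 1) one_pos one_pos
    ((al1 P).nonneg H) leg_bB leg_bB1 (N := univ) (by simp) ?_
  · linarith
  intro δ hδ hδ1 x hx w _ hw _ R hR
  have b5 := nbd hw 5
  have b6 := nbd hw 6
  simp only [bB] at b5 b6
  simp only [Matrix.cons_val, Pi.add_apply, Pi.smul_apply, smul_eq_mul, e9, Pi.single_apply,
    Fin.reduceEq, reduceIte, mul_one, mul_zero, add_zero, zero_add] at b5 b6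
  set w' : V9 := ![0, w 6, -100, 0, -200, w 5, w 6, 0, 1000] with hw'
  obtain ⟨h5, h6⟩ := both P H (Or.inr rfl) hR
  have hgen : GenZ φ (fun k => k = c 0) w' := genz P H (w2 := w) h5 h6 (by simp [hw'])
    (by simp [hw'])
  have hone : One 2 w' := by
    refine one_of 2 ?_ ?_ ?_ ?_ ?_ ?_ ?_ ?_ ?_ ?_ <;>
      simp only [hw', Matrix.cons_val, Fin.reduceEq, reduceIte] <;>
      linarith [hx.1, hx.2, b5.1, b5.2, b6.1, b6.2]
  obtain ⟨R', hl, ha, hu⟩ := hgen.linZ H hone.leg (hZ P)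
  have h3 := W.W3 w' R' hone (by simp [hw']) hl
  rwa [ha 1 (by decide) (al1 P), hu 6 R (by decide) (loc56 P H (Or.inr rfl) hR (by simp [hw'])
    (by simp [hw']))] at h3

/-- generic `{z, G}` near `(100, 50)` -/
theorem near1 (H : Cl9 c dl s Λ φ ρ) :
    ∃ w1 : V9, (100 - 1 / 100 < w1 0 ∧ w1 0 < 100 + 1 / 100) ∧
      (50 - 1 / 100 < w1 7 ∧ w1 7 < 50 + 1 / 100) ∧ ∀ k, ∃ R, RtAt (φ k) w1 R := by
  obtain ⟨w, hw, hg⟩ := near H ![100, 50, -100, 0, -200, 0, 0, 50, 1000] (η := 1 / 100)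
    (by norm_num) (by constructor <;> ww <;> norm_num)
  have b0 := nbd hw 0
  have b7 := nbd hw 7
  simp only [Matrix.cons_val] at b0 b7
  exact ⟨w, b0, b7, hg⟩

/-- **the wall of `H`** : `h ≤ x` -/
theorem kH (P : PlK k c dl) (H : Cl9 c dl s Λ φ ρ)
    (h : ∀ w R, One 4 w → LinS ∅ Λ w R → R 1 = ρ 1 → R 3 ≤ R 5) :
    ρ 3 ≤ 1 - (plK s c φ ρ).h := by
  obtain ⟨w1, b10, b17, hg1⟩ := near1 H
  rw [h_eq P H]
  have h1 := H.mv_ge' (t := 5) (w0 := bH) (y := 2) (q := ρ 3) (m := 1) two_pos one_pos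
    ((al3 P).nonneg H) leg_bH leg_bH1 (N := univ) (by simp) ?_
  · linarith
  intro δ hδ hδ1 x hx w _ hw _ R hR
  have b5 := nbd hw 5
  have b6 := nbd hw 6
  simp only [bH] at b5 b6
  simp only [Matrix.cons_val, Pi.add_apply, Pi.smul_apply, smul_eq_mul, e9, Pi.single_apply,
    Fin.reduceEq, reduceIte, mul_one, mul_zero, add_zero, zero_add] at b5 b6
  set w' : V9 := ![w1 0, w 5, -100, 0, -200, w 5, w 6, w1 7, 1000] with hw'
  obtain ⟨h5, h6⟩ := both P H (Or.inl rfl) hR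
  have hgen : GenZ φ (fun _ => False) w' := gen P H (w1 := w1) (w2 := w) (hg1 _) (by simp [hw'])
    (by simp [hw']) h5 h6 (by simp [hw']) (by simp [hw'])
  have hone : One 4 w' := by
    refine one_of 4 ?_ ?_ ?_ ?_ ?_ ?_ ?_ ?_ ?_ ?_ <;>
      simp only [hw', Matrix.cons_val, Fin.reduceEq, reduceIte] <;>
      linarith [hx.1, hx.2, b5.1, b5.2, b6.1, b6.2, b10.1, b10.2, b17.1, b17.2]
  obtain ⟨R', hl, ha, hu⟩ := hgen.lin H hone.leg
  have h3 := h w' R' hone hl (ha 1 (al1 P))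
  rwa [ha 3 (al3 P), hu 5 R (loc56 P H (Or.inl rfl) hR (by simp [hw']) (by simp [hw']))] at h3

/-- **the second wall of `N`** : `n ≤ x` if `w > 0` -/
theorem kS (P : PlK k c dl) (H : Cl9 c dl s Λ φ ρ)
    (h : ∀ w R, One 8 w → LinS ∅ Λ w R → 0 < R 6 → R 3 ≤ R 4) (hw0 : 0 < (plK s c φ ρ).w) :
    ρ 3 ≤ ρ 4 := by
  obtain ⟨w1, b10, b17, hg1⟩ := near1 H
  rw [w_eq P H] at hw0
  obtain ⟨δ, hδ, hδ1, x, hx, w, -, hw, -, R, hR, hlt⟩ := H.pos_gt' (t := 6) (w0 := bB) (y := 1)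
    (q := 0) one_pos one_pos leg_bB leg_bB1 (by rw [zero_mul]; exact hw0) (N := univ) (by simp)
  have b5 := nbd hw 5
  have b6 := nbd hw 6
  simp only [bB] at b5 b6
  simp only [Matrix.cons_val, Pi.add_apply, Pi.smul_apply, smul_eq_mul, e9, Pi.single_apply,
    Fin.reduceEq, reduceIte, mul_one, mul_zero, add_zero, zero_add] at b5 b6
  set w' : V9 := ![w1 0, 50, 0, 0, w 6, w 5, w 6, w1 7, 1000] with hw'
  obtain ⟨h5, h6⟩ := both P H (Or.inr rfl) hR
  have hgen : GenZ φ (fun _ => False) w' := gen P H (w1 := w1) (w2 := w) (hg1 _) (by simp [hw'])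
    (by simp [hw']) h5 h6 (by simp [hw']) (by simp [hw'])
  have hone : One 8 w' := by
    refine one_of 8 ?_ ?_ ?_ ?_ ?_ ?_ ?_ ?_ ?_ ?_ <;>
      simp only [hw', Matrix.cons_val, Fin.reduceEq, reduceIte] <;>
      linarith [hx.1, hx.2, b5.1, b5.2, b6.1, b6.2, b10.1, b10.2, b17.1, b17.2]
  obtain ⟨R', hl, ha, hu⟩ := hgen.lin H hone.leg
  have h3 := h w' R' hone hl (by
    rw [hu 6 R (loc56 P H (Or.inr rfl) hR (by simp [hw']) (by simp [hw']))]
    exact hlt)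
  rwa [ha 3 (al3 P), ha 4 (al4 P)] at h3

theorem pos (P : PlK k c dl) (H : Cl9 c dl s Λ φ ρ) : (plK s c φ ρ).Pos where
  x0 := by
    have := (al3 P).le_cst H
    have e : cst 3 = 1 := rfl
    rw [e] at this
    show 0 ≤ 1 - ρ 3
    linarith
  n0 := by
    have := (al4 P).le_cst H
    have e : cst 4 = 1 := rfl
    rw [e] at this
    show 0 ≤ 1 - ρ 4
    linarith
  h0 := by
    have h1 := h_eq P H
    have h2 := H.incr_cost (t := 5) (y := 2) two_pos.le (leg_bH.mono zero_le_one)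
      (leg_bH1.mono zero_le_one)
    have e : cst 5 = 1 := rfl
    rw [e] at h2
    linarith
  m0 := (al1 P).nonneg H
  r0 := (al2 P).nonneg H
  e0 := by
    have := H.own
    show 0 ≤ ρ 0 - (1 - s)
    linarith
  w0 := by
    rw [w_eq P H]
    exact H.incr_nonneg (leg_bB.mono zero_le_one) (leg_bB1.mono zero_le_one) (c 6)
      (fun i hi => add_e9_ne fun h => hi (by rw [h])) (le_add_e9 zero_le_one)
  u0 := le_rfl
  d0 := (al8 P).nonneg H

/-- **the facts of the `κ`-plane, `k < 1`** -/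
theorem kf8 (hs0 : 0 ≤ s) (hk : 0 < k) (hk1 : k < 1) (H : Cl9 c dl s Λ φ ρ) (P : PlK k c dl)
    {Sk : V9 → Prop} (hSk : ∀ w : V9, w 7 < k * w 0 → Sk w) (F : Fct9 Sk s Λ) (W : FctK k Λ) :
    KF' s k (plK s c φ ρ) := by
  have hP := pos P H
  obtain ⟨wx, Rx, x1, x2, x3, x4, x5⟩ := exX P H hk
  obtain ⟨wn, Rn, n1, n2, n3, n4, n5⟩ := exN P H hk
  have hmw := kW P H W
  have k1 : 0 < ρ 1 → 1 - s ≤ ρ 3 := fun h => by
    have := F.K1 wx Rx x1 (hSk _ x2) x3 (by rw [x4]; exact h)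
    rwa [x5] at this
  have f1 : s < ρ 1 → 1 ≤ ρ 3 := fun h => by
    have := F.F1 wx Rx x1 (hSk _ x2) x3 (by rw [x4]; exact h)
    rwa [x5] at this
  have hh : 0 < ρ 1 → ρ 3 ≤ 1 - (plK s c φ ρ).h := fun h =>
    kH P H fun w R h1 h2 h3 => F.H1 w R h1 h2 (by rw [h3]; exact h)
  have hx0 := hP.x0
  have hh0 := hP.h0
  have hn0 := hP.n0
  have ex : (plK s c φ ρ).x = 1 - ρ 3 := rfl
  have en : (plK s c φ ρ).n = 1 - ρ 4 := rfl
  have em : (plK s c φ ρ).m = ρ 1 := rfl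
  have er : (plK s c φ ρ).r = ρ 2 := rfl
  refine ⟨hP, ⟨fun h => ?_, fun h => ?_, fun h => ?_, fun h => ?_⟩, fun _ => hmw, fun _ h => ?_,
    fun h1 => absurd h1 hk1.ne, fun _ => ⟨fun h => ?_, fun h => ?_⟩⟩
  · rw [em] at h; rw [ex]; linarith [k1 h]
  · rw [em] at h; linarith [k1 h, hh h]
  · rw [em] at h; rw [ex] at hx0 ⊢; linarith [f1 h]
  · rw [em] at h
    linarith [f1 h, hh (by linarith)]
  · rw [ex, en]; linarith [kS P H (fun w R h1 h2 => F.S1 w R h1 h2) h]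
  · rw [er] at h
    have := F.K2 wn Rn n1 (hSk _ n2) n3 (by rw [n4]; exact h)
    rw [n5] at this
    rw [en]; linarith
  · rw [er] at h
    have := F.F2 wn Rn n1 (hSk _ n2) n3 (by rw [n4]; exact h)
    rw [n5] at this
    rw [en] at hn0 ⊢; linarith

/-- **the two-height facts** -/
theorem p8 (hk : 0 < k) (H : Cl9 c dl s Λ φ ρ) (P : PlK k c dl) {Sk : V9 → Prop}
    (hSk : ∀ w : V9, w 7 < k * w 0 → Sk w) (F : FctP Sk Λ) :
    (plK s c φ ρ).m + (plK s c φ ρ).x ≤ 1 ∧ (plK s c φ ρ).r + (plK s c φ ρ).n ≤ 1 := by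
  obtain ⟨wx, Rx, x1, x2, x3, x4, x5⟩ := exX P H hk
  obtain ⟨wn, Rn, n1, n2, n3, n4, n5⟩ := exN P H hk
  have h1 := F.P1 wx Rx x1 (hSk _ x2) x3
  have h2 := F.P2 wn Rn n1 (hSk _ n2) n3
  rw [x4, x5] at h1
  rw [n4, n5] at h2
  have ex : (plK s c φ ρ).x = 1 - ρ 3 := rfl
  have en : (plK s c φ ρ).n = 1 - ρ 4 := rfl
  have em : (plK s c φ ρ).m = ρ 1 := rfl
  have er : (plK s c φ ρ).r = ρ 2 := rfl
  rw [ex, en, em, er]
  constructor <;> linarith

/-- **a lower bound of the rate of `B` at all linear points** is a lower bound of `w` (for (NZ) at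
`k = 1/2`, with 90's `kH_lin`) -/
theorem w_of (P : PlK k c dl) (H : Cl9 c dl s Λ φ ρ) {q : ℝ}
    (h : ∀ w R, LegM 0 w → LinS {0, 7} Λ w R → q ≤ R 6) : q ≤ (plK s c φ ρ).w := by
  rw [w_eq P H]
  have h1 := H.mv_ge (t := 6) (w0 := bB) (y := 1) (q := q) (η := 1 / 3) one_pos (by norm_num)
    (leg_bB.mono (by norm_num)) (leg_bB1.mono (by norm_num)) (N := univ) (by simp)
    (fun x hx w _ hw hwD R hR => by
      obtain ⟨h5, h6⟩ := both P H (Or.inr rfl) hR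
      have hgen : GenZ φ (fun k => k = c 0) w := genz P H (w2 := w) h5 h6 rfl rfl
      obtain ⟨R', hl, ha, hu⟩ := hgen.linZ H hwD (hZ P)
      have := h w R' hwD hl
      rwa [hu 6 R (by decide) hR] at this)
  linarith

/-- `k ≠ 1/2` : `B` and `H` are alone -/
theorem w_al (P : PlK k c dl) (H : Cl9 c dl s Λ φ ρ) (hk : k ≠ 1 / 2) :
    (plK s c φ ρ).w = ρ 6 := by
  unfold plK
  simp only
  rw [H.rate 6 _ fun t' ht' => by rw [al6 P hk t' ht'],
    H.rate 6 _ fun t' ht' => by rw [al6 P hk t' ht']]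
  simp [e9]

theorem h_al (P : PlK k c dl) (H : Cl9 c dl s Λ φ ρ) (hk : k ≠ 1 / 2) :
    1 - (plK s c φ ρ).h = ρ 5 := by
  unfold plK
  simp only
  rw [H.rate 5 _ fun t' ht' => by rw [al5 P hk t' ht'],
    H.rate 5 _ fun t' ht' => by rw [al5 P hk t' ht']]
  simp [e9]

/-- value at the natural vectors -/
theorem natK8 (H : Cl9 c dl s Λ φ ρ) (P : PlK k c dl) (v a : ℝ) :
    Λ (nat9 v a (2 * a + k * v)) = -(ρ 0 * v + ρ 1 * a + ρ 2 * (2 * a + k * v) + ρ 3 * (v + a) +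
      ρ 4 * (v + (2 * a + k * v)) + (1 - (plK s c φ ρ).h) * (v + 2 * a) +
      (plK s c φ ρ).w * (a + k * v) + ρ 8 * (k * v - v)) := by
  set w := nat9 v a (2 * a + k * v) with hw
  obtain ⟨w0, w1, w2, w3, w4, w5, w6, w7, w8⟩ := nat9_v v a (2 * a + k * v)
  rw [← hw] at w0 w1 w2 w3 w4 w5 w6 w7 w8
  have hl : LegM 0 w := leg_nat9 _ _ _
  have f0 : φ (c 0) w = -(ρ 0 * v) := by
    rw [H.rate 0 w fun t' ht' => by
      rcases (zz P).1 ht' with rfl | rfl
      · rfl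
      · rw [w7, w0, P.d7]; ring]
    rw [w0]
  have f1 : φ (c 1) w = -(ρ 1 * a) := by
    rw [H.rate 1 w fun t' ht' => by rw [al1 P t' ht'], w1]
  have f2 : φ (c 2) w = -(ρ 2 * (2 * a + k * v)) := by
    rw [H.rate 2 w fun t' ht' => by rw [al2 P t' ht'], w2]
  have f3 : φ (c 3) w = -(ρ 3 * (v + a)) := by
    rw [H.rate 3 w fun t' ht' => by rw [al3 P t' ht'], w3]
  have f4 : φ (c 4) w = -(ρ 4 * (v + (2 * a + k * v))) := by
    rw [H.rate 4 w fun t' ht' => by rw [al4 P t' ht'], w4]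
  have f8 : φ (c 8) w = -(ρ 8 * (k * v - v)) := by
    rw [H.rate 8 w fun t' ht' => by rw [al8 P t' ht'], w8]; ring
  by_cases hk : k = 1 / 2
  · have hc5 := c5 P hk
    have f6 : φ (c 6) w = -(ρ 6 * (a + k * v)) := by
      rw [H.rate 6 w fun t' ht' => by
        rcases k6 P ht' with rfl | rfl
        · rw [w5, w6, P.d5 hk, hk]; ring
        · rfl]
      rw [w6]; ring
    have g6 : (plK s c φ ρ).w + 2 * (1 - (plK s c φ ρ).h) = ρ 6 := by
      unfold plK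
      simp only
      rw [hc5]
      have e1 : φ (c 6) 0 = 0 := H.zero_of 6 fun t' _ => rfl
      have e2 : φ (c 6) (0 + (1:ℝ) • e9 6) = φ (c 6) (e9 6) := by simp
      have e3 : φ (c 6) (e9 6 + (2:ℝ) • e9 5) = -ρ 6 := by
        rw [H.rate 6 _ fun t' ht' => by
          rcases k6 P ht' with rfl | rfl
          · rw [P.d5 hk]; simp [e9]
          · rfl]
        simp [e9]
      rw [e1, e2, e3]; ring
    rw [H.sum_rep (S := {0, 1, 2, 3, 4, 6, 8}) ?_ ?_ hl]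
    · have e : ∑ t ∈ ({0, 1, 2, 3, 4, 6, 8} : Finset (Fin 9)), φ (c t) w =
          φ (c 0) w + φ (c 1) w + φ (c 2) w + φ (c 3) w + φ (c 4) w + φ (c 6) w + φ (c 8) w := by
        simp [Finset.sum_insert]; ring
      rw [e, f0, f1, f2, f3, f4, f6, f8, ← g6, hk]
      ring
    · intro t ht t' ht' h
      have h1 := (P.par t t').1 h
      unfold PK at h1
      rcases h1 with h | ⟨h, h'⟩ | ⟨h, h'⟩ | ⟨-, ⟨h, h'⟩ | ⟨h, h'⟩⟩
      · exact h
      · subst h'; simp at ht'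
      · subst h; simp at ht
      · subst h; simp at ht
      · subst h'; simp at ht'
    · intro t
      fin_cases t
      · exact ⟨0, by simp, rfl⟩
      · exact ⟨1, by simp, rfl⟩
      · exact ⟨2, by simp, rfl⟩
      · exact ⟨3, by simp, rfl⟩
      · exact ⟨4, by simp, rfl⟩
      · exact ⟨6, by simp, hc5.symm⟩
      · exact ⟨6, by simp, rfl⟩
      · exact ⟨0, by simp, (c7 P).symm⟩
      · exact ⟨8, by simp, rfl⟩
  · have g5 : 1 - (plK s c φ ρ).h = ρ 5 := by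
      unfold plK
      simp only
      rw [H.rate 5 _ fun t' ht' => by rw [al5 P hk t' ht'],
        H.rate 5 _ fun t' ht' => by rw [al5 P hk t' ht']]
      simp [e9]
    have g6 : (plK s c φ ρ).w = ρ 6 := by
      unfold plK
      simp only
      rw [H.rate 6 _ fun t' ht' => by rw [al6 P hk t' ht'],
        H.rate 6 _ fun t' ht' => by rw [al6 P hk t' ht']]
      simp [e9]
    have f5 : φ (c 5) w = -(ρ 5 * (v + 2 * a)) := by
      rw [H.rate 5 w fun t' ht' => by rw [al5 P hk t' ht'], w5]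
    have f6 : φ (c 6) w = -(ρ 6 * (a + k * v)) := by
      rw [H.rate 6 w fun t' ht' => by rw [al6 P hk t' ht'], w6]; ring
    rw [H.sum_rep (S := {0, 1, 2, 3, 4, 5, 6, 8}) ?_ ?_ hl]
    · have e : ∑ t ∈ ({0, 1, 2, 3, 4, 5, 6, 8} : Finset (Fin 9)), φ (c t) w =
          φ (c 0) w + φ (c 1) w + φ (c 2) w + φ (c 3) w + φ (c 4) w + φ (c 5) w + φ (c 6) w +
            φ (c 8) w := by
        simp [Finset.sum_insert]; ring
      rw [e, f0, f1, f2, f3, f4, f5, f6, f8, g5, g6]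
      ring
    · intro t ht t' ht' h
      have h1 := (P.par t t').1 h
      unfold PK at h1
      rcases h1 with h | ⟨h, h'⟩ | ⟨h, h'⟩ | ⟨h, -⟩
      · exact h
      · subst h'; simp at ht'
      · subst h; simp at ht
      · exact absurd h hk
    · intro t
      fin_cases t
      · exact ⟨0, by simp, rfl⟩
      · exact ⟨1, by simp, rfl⟩
      · exact ⟨2, by simp, rfl⟩
      · exact ⟨3, by simp, rfl⟩
      · exact ⟨4, by simp, rfl⟩
      · exact ⟨5, by simp, rfl⟩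
      · exact ⟨6, by simp, rfl⟩
      · exact ⟨0, by simp, (c7 P).symm⟩
      · exact ⟨8, by simp, rfl⟩

/-- **tangential identity and row of the side** -/
theorem tv8 {θ g qa qb v a : ℝ} (H : Cl9 c dl s Λ φ ρ) (P : PlK k c dl)
    (T : Λ (nat9 1 (-θ) (-(2 * θ - k))) = DL g s qa qb 1 (-θ) (-(2 * θ - k)))
    (V : Λ (nat9 v a (2 * a + k * v)) ≤ DL g s qa qb v a (2 * a + k * v)) :
    TVk k θ s g qa qb v a (plK s c φ ρ) := by
  have e1 : nat9 1 (-θ) (-(2 * θ - k)) = nat9 1 (-θ) (2 * (-θ) + k * 1) := by congr 1; ring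
  rw [e1, natK8 H P] at T
  rw [natK8 H P] at V
  unfold DL at T V
  have ex : (plK s c φ ρ).x = 1 - ρ 3 := rfl
  have en : (plK s c φ ρ).n = 1 - ρ 4 := rfl
  have em : (plK s c φ ρ).m = ρ 1 := rfl
  have er : (plK s c φ ρ).r = ρ 2 := rfl
  have ee : (plK s c φ ρ).e = ρ 0 - (1 - s) := rfl
  have eu : (plK s c φ ρ).u = 0 := rfl
  have ed : (plK s c φ ρ).d = ρ 8 := rfl
  constructor
  · rw [ex, en, em, er, ee, eu, ed]
    linarith
  · rw [ex, en, em, er, ee, eu, ed]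
    linarith

end Crest.Agent.R116.Tm647
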