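import Crest.Agent.R116.Pk1_348
import Crest.Agent.R116.Tm8_647
import Crest.Agent.R116.NZ11_90

/-!
# R116 (K side, TIES), the `κ`-plane BELOW the record, `D` frozen, `k < 1`: last step (helper348)

* `plK_cK`  : the class table `cK` is 741's `PlK`
* **`KDat8.fin`** : facts, tangency, vertical inequality, `qa ≤ m` for `A = plK s (cK k) φ (sn8 ρ2 0)`
* `pd8_fctP` : two-height facts of a plane of any offset with three walls
-/

set_option autoImplicit false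
set_option linter.unusedSectionVars false
set_option linter.unusedVariables false

open Set Filter Topology MeasureTheory

namespace Crest.Agent.R116.Pk348

open Crest.Agent.R138
open Crest.Agent.R138.Ex926 (Base U IsTan)
open Crest.Agent.R136
open Crest.Agent.R136.MkA627
open Crest.Agent.R136.TD627
open Crest.Agent.R136.Net191
open Crest.Agent.R136.Lq196
open Crest.Agent.R116.ChL222
open Crest.Agent.R116.PL504 (nb rL DN eL βL oL Shift)
open Crest.Agent.R116.Sg337 (bx9 coneL DL natB)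
open Crest.Agent.R116.Gd222 (TSet sN PDL DT)
open Crest.Agent.R116.KI439 hiding kD
open Crest.Agent.R116.KF439 (PL)
open Crest.Agent.R116.CtxB468
open Crest.Agent.R116.Rcx363
open Crest.Agent.R116.RbM219
open Crest.Agent.R116.RbK219 (RS SOk Par dl Aln)
open Crest.Agent.R116.SgO219 (PP)
open Crest.Agent.R116.Kz647
open Crest.Agent.R116.Pd363
open Crest.Agent.R116.SgF665 (LM0)
open Crest.Agent.R116.WinG954 (LM)
open Crest.Agent.R116.Tq741
open Crest.Agent.R116.Tq794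
open Crest.Agent.R116.Tq126
open Crest.Agent.R116.Tp139 hiding cl8
open Crest.Agent.R116.PosA348
open Crest.Agent.R116.Tie460 (Pl KF')
open Crest.Agent.R116.NZ90 (Lam8)
open Dg219 (mw Walls)
open Sl741 (slice xt rs)

/-- the class table of the `κ`-plane is 741's `PlK` -/
theorem plK_cK {θ θb k : ℝ} (hθ : 0 < θ) (hk : 0 < k) (hk1 : k < 1) (hb : θb = 2 * θ - k) :
    PlK k (cK k) (sn8 (dl (nat8 1 (-θ) (-θb)) kD (-1)) 1) := by
  have n1 : k ≠ 1 := hk1.ne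
  have n2 : k ≠ 2 := by linarith
  have v0 : sn8 (dl (nat8 1 (-θ) (-θb)) kD (-1)) 1 0 = 1 := by
    show dl (nat8 1 (-θ) (-θb)) kD (-1) 0 = 1
    unfold dl
    rw [if_pos (by ev8)]; rfl
  have v7 : sn8 (dl (nat8 1 (-θ) (-θb)) kD (-1)) 1 7 = k := by
    show dl (nat8 1 (-θ) (-θb)) kD (-1) 7 = k
    unfold dl
    rw [if_pos (by ev8; norm_num)]
    show -θb - 2 * -θ = k
    rw [hb]; ring
  have v5 : sn8 (dl (nat8 1 (-θ) (-θb)) kD (-1)) 1 5 = 2 := by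
    show dl (nat8 1 (-θ) (-θb)) kD (-1) 5 = 2
    have e : kD 5 = -2 := by ev8; norm_num
    unfold dl
    rw [if_neg (by rw [e]; norm_num), e]; norm_num
  have v6 : sn8 (dl (nat8 1 (-θ) (-θb)) kD (-1)) 1 6 = 1 := by
    show dl (nat8 1 (-θ) (-θb)) kD (-1) 6 = 1
    have e : kD 6 = -1 := by ev8; norm_num
    unfold dl
    rw [if_neg (by rw [e]; norm_num), e]; norm_num
  refine ⟨?_, ?_, ?_⟩
  · by_cases h2 : k = 1 / 2
    · refine all9 ?_ ?_ ?_ ?_ ?_ ?_ ?_ ?_ ?_ <;> refine all9 ?_ ?_ ?_ ?_ ?_ ?_ ?_ ?_ ?_ <;> evc <;>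
        unfold PK <;> simp only [if_neg n1, if_neg n2, if_pos h2, and_iff_right h2] <;> decide
    · refine all9 ?_ ?_ ?_ ?_ ?_ ?_ ?_ ?_ ?_ <;> refine all9 ?_ ?_ ?_ ?_ ?_ ?_ ?_ ?_ ?_ <;> evc <;>
        unfold PK <;> simp only [if_neg n1, if_neg n2, eq_false h2, false_and, or_false] <;>
        decide
  · rw [v0, v7]; ring
  · intro _
    rw [v5, v6]; ring

section fin

variable {R s : ℝ} {a b' : Fin 2} {Vis : Fin 12 → Prop} {θ q : Fin 2 → ℝ}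
    {g w0 sa sb v0 t k : ℝ} {f : Fin 2 → (Fin 12 → ℝ) → ℝ} {lam : Fin 2 → (Fin 12 → ℝ) → ℝ}
    {ρ : Fin 8 → ℝ} {l α : ℝ} {h' : ℕ → ℝ} {X : ℕ → Fin 12 → ℝ} {H : ℕ → ℝ}
    {lam2 : Fin 2 → (Fin 12 → ℝ) → ℝ} {ρ2 : Fin 8 → ℝ} {φ : Fin 9 → V9 → ℝ}

/-- the plane numbers of `T⁻` -/
structure AK (k s g : ℝ) (θ q : Fin 2 → ℝ) (ρ : Fin 8 → ℝ) (A : Pl) : Prop where
  F : KF' s k A
  dz : A.d = 0
  tan : A.Tan g (θ 0) (θ 1) (q 0) (q 1)
  ver : 0 ≤ A.Fa (q 0) + 2 * A.Fb (q 1)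
  pos : q 0 ≤ A.m
  m : A.m = ρ 1
  e : A.e = ρ 0 - (1 - s)

/-- **last step, `k < 1`** -/
theorem KDat8.fin (K : KDat8 R s a b' Vis θ q g w0 sa sb v0 t k f lam ρ l α h' X H lam2 ρ2 φ)
    (hs0 : 0 ≤ s) (hθ : 0 < θ 0) (hk : 0 < k) (hk1 : k < 1) (hb : θ 1 = 2 * θ 0 - k)
    (W : FctK k (Lam8 (lam2 0))) : AK k s g θ q ρ (plK s (cK k) φ (sn8 ρ2 0)) := by
  have P := plK_cK hθ hk hk1 hb
  have h1 := Tm647.kf8 hs0 hk hk1 K.cl P (fun w hw => hw.le) K.fct W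
  have e1 : -(θ 1) = -(2 * θ 0 - k) := by rw [hb]
  have hTV := Tm647.tv8 (θ := θ 0) (g := g) (qa := q 0) (qb := q 1) (v := 0) (a := -1) K.cl P
    (by rw [← e1]; exact K.T)
    (by
      have e2 : 2 * (-1 : ℝ) + k * 0 = -2 := by ring
      rw [e2]; exact K.V)
  refine ⟨h1, rfl, ?_, ?_, ?_, ?_, ?_⟩
  · rw [hb]; exact hTV.tan
  · exact hTV.ver (by norm_num)
  · show q 0 ≤ ρ2 1
    rw [K.r1]; exact K.pos
  · exact K.r1
  · show ρ2 0 - (1 - s) = ρ 0 - (1 - s)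
    rw [K.r0]

end fin

end Crest.Agent.R116.Pk348
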