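import Crest.Agent.R116.Tk3_299

/-!
# R116 (K side, ties): the `κ`-plane, the wall of `B` (helper126)

* **`PlK.wge`** : `k ≠ 1 → ρ 1 ≤ wK c φ` from `FctK` (`D` alone) or `FctK9` (`D` in the class of `z`)
* `PlK.wof` : lower bounds of the rate of `B` at linear points are lower bounds of `wK`
-/

set_option autoImplicit false
set_option linter.unusedSectionVars false
set_option linter.unusedVariables false

open Set Filter Topology Metric MeasureTheory
open scoped NNReal

namespace Crest.Agent.R116.Tk299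

open Tie460 (Pl)
open RbM219 (nat9)
open Tq741

variable {c : Fin 9 → Fin 9} {dl : V9} {s : ℝ} {Λ : V9 → ℝ} {φ : Fin 9 → V9 → ℝ} {ρ : V9}
  {L : Prop} {k : ℝ}

/-- the class of `B`, `k ≠ 1` -/
theorem PlK.k6 (P : PlK L k c dl) (hk : k ≠ 1) {t : Fin 9} (h : c t = c 6) : t = 5 ∨ t = 6 := by
  have h1 := (P.par t 6).1 h
  unfold PK ZK at h1
  rcases h1 with h | ⟨-, h⟩ | ⟨h, -⟩ | ⟨h, -⟩ | ⟨-, -, h⟩ | ⟨-, h, -⟩
  · exact Or.inr h
  · simp at h
  · exact absurd h hk
  · exact absurd h hk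
  · simp at h
  · exact h

theorem PlK.hZ7 (P : PlK L k c dl) (hL : ¬ L) (t : Fin 9) :
    t ∈ ({0, 7} : Finset (Fin 9)) ↔ c t = c 0 := by
  rw [P.z]; unfold ZK; simp [hL]

theorem PlK.hZ8 (P : PlK L k c dl) (hL : L) (t : Fin 9) :
    t ∈ ({0, 7, 8} : Finset (Fin 9)) ↔ c t = c 0 := by
  rw [P.z]; unfold ZK; simp [hL]

theorem gaps4 {w : V9} (g4 : 0 < w 1 + w 3 - w 5) (g5 : 0 < w 1 + w 6 - w 2)
    (g6 : 0 < w 8 + w 5 - w 2) (g7 : 0 < w 0 + w 2 - w 4) (g8 : 0 < w 3 + w 6 - w 4)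
    (g9 : 0 < w 7 + w 5 - w 4) : ∀ i : Fin 10, 4 ≤ i → 0 < gap w i := by
  intro i hi
  fin_cases i
  · exact absurd hi (by decide)
  · exact absurd hi (by decide)
  · exact absurd hi (by decide)
  · exact absurd hi (by decide)
  · exact g4
  · exact g5
  · exact g6
  · exact g7
  · exact g8
  · exact g9

/-- evaluation of explicit vectors -/
macro "wv" : tactic => `(tactic| simp only [Matrix.cons_val, Pi.add_apply, Pi.smul_apply,
  smul_eq_mul, e9, Pi.single_apply, Fin.reduceEq, reduceIte, mul_one, mul_zero, add_zero,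
  zero_add])

/-- base of the path of `B` -/
def bW : V9 := ![0, 50, -100, 0, -200, 0, 0, -1, 1000]

theorem leg_bW : LegM 1 bW := by constructor <;> simp only [bW] <;> wv <;> norm_num
theorem leg_bW1 : LegM 1 (bW + (1:ℝ) • e9 6) := by
  constructor <;> simp only [bW] <;> wv <;> norm_num

theorem wK_eq (P : PlK L k c dl) (H : Cl9 c dl s Λ φ ρ) (hk : k ≠ 1) :
    wK c φ = φ (c 6) bW - φ (c 6) (bW + (1:ℝ) • e9 6) := by
  unfold wK
  rw [H.loc (c 6) (e9 3) bW fun t ht => by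
      rcases P.k6 hk ht with rfl | rfl <;> simp [bW, e9],
    H.loc (c 6) (e9 3 + e9 6) (bW + (1:ℝ) • e9 6) fun t ht => by
      rcases P.k6 hk ht with rfl | rfl <;> simp [bW, e9]]

/-- the point of `FctK9` -/
theorem w3_L (P : PlK L k c dl) (H : Cl9 c dl s Λ φ ρ) (hL : L) (W9 : FctK9 k Λ) {x h b : ℝ}
    (hb : 0 < b) (hb2 : b < 10) (hx : x < -50) (hx2 : -150 < x) (hh : h < b) (hh2 : -1 < h)
    (hg : GenZ φ (fun k => k = c 0) ![0, b, x, b, -200, h, b, 0, 0]) :
    ∃ R' : V9, (Al c 6 → R' 6 = ρ 6) ∧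
      (∀ R, RtAt (φ (c 6)) ![0, b, x, b, -200, h, b, 0, 0] R → R' 6 = R 6) ∧ ρ 1 ≤ R' 6 := by
  set w' : V9 := ![0, b, x, b, -200, h, b, 0, 0] with hw'
  have hleg : LegM 0 w' := by
    constructor <;> simp only [hw', Matrix.cons_val] <;> linarith
  obtain ⟨R', hl, ha, hu⟩ := hg.linZ H hleg (P.hZ8 hL)
  refine ⟨R', fun ht => ha 6 (by simp) ht, fun R hR => hu 6 R (by simp) hR, ?_⟩
  rw [← ha 1 (by simp) P.al1]
  refine W9.W3 w' R' ?_ ?_ ?_ ?_ (gaps4 ?_ ?_ ?_ ?_ ?_ ?_) ?_ ?_ hl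
  · show w' 0 + w' 8 - w' 7 = 0
    simp [hw']
  · show w' 0 + w' 1 - w' 3 = 0
    simp [hw']
  · show w' 7 + w' 1 - w' 6 = 0
    simp [hw']
  · show w' 8 + w' 3 - w' 6 = 0
    simp [hw']
  · simp only [hw', Matrix.cons_val]; linarith
  · simp only [hw', Matrix.cons_val]; linarith
  · simp only [hw', Matrix.cons_val]; linarith
  · simp only [hw', Matrix.cons_val]; linarith
  · simp only [hw', Matrix.cons_val]; linarith
  · simp only [hw', Matrix.cons_val]; linarith
  · simp [hw']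
  · simp [hw']

/-- the point of `FctK` -/
theorem w3_N (P : PlK L k c dl) (H : Cl9 c dl s Λ φ ρ) (hL : ¬ L) (W : FctK k Λ) {x y h b : ℝ}
    (hb : 0 < b) (hb2 : b < 10) (hx : x < -50) (hx2 : -150 < x) (hh : h < b) (hh2 : -1 < h)
    (hy : y < b) (hy2 : -1 < y + b) (hhy : h < b + y)
    (hg : GenZ φ (fun k => k = c 0) ![0, b, x, y, -200, h, b, 0, 1000]) :
    ∃ R' : V9, (Al c 6 → R' 6 = ρ 6) ∧
      (∀ R, RtAt (φ (c 6)) ![0, b, x, y, -200, h, b, 0, 1000] R → R' 6 = R 6) ∧ ρ 1 ≤ R' 6 := by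
  set w' : V9 := ![0, b, x, y, -200, h, b, 0, 1000] with hw'
  have hone : One 2 w' := by
    refine one_of 2 ?_ ?_ ?_ ?_ ?_ ?_ ?_ ?_ ?_ ?_ <;>
      simp only [hw', Matrix.cons_val, Fin.reduceEq, reduceIte] <;> linarith
  obtain ⟨R', hl, ha, hu⟩ := hg.linZ H hone.leg (P.hZ7 hL)
  refine ⟨R', fun ht => ha 6 (by simp) ht, fun R hR => hu 6 R (by simp) hR, ?_⟩
  rw [← ha 1 (by simp) P.al1]
  exact W.W3 w' R' hone (by simp [hw']) hl

/-- **the wall of `B`, flags natural** : `m ≤ w` -/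
theorem PlK.wge (P : PlK L k c dl) (H : Cl9 c dl s Λ φ ρ) (hk : k ≠ 1) (W : ¬ L → FctK k Λ)
    (W9 : L → FctK9 k Λ) : ρ 1 ≤ wK c φ := by
  by_cases hk2 : k = 2
  · subst hk2
    have h6 : Al c 6 := P.al6 (by norm_num) (by norm_num)
    rw [wK_al H h6]
    obtain ⟨w, -, hw, -, hg⟩ := H.pos_near (w0 := ![0, 50, -100, 1, -200, 0, 0, -1, 1000])
      (η := 1 / 100) (by norm_num) (by constructor <;> wv <;> norm_num) (N := univ) (by simp)
    have b2 := nbd hw 2
    have b3 := nbd hw 3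
    simp only [Matrix.cons_val] at b2 b3
    by_cases hL : L
    · obtain ⟨R', h1, -, h3⟩ := w3_L P H hL (W9 hL) (x := w 2) (h := 0) (b := w 3)
        (by linarith [b3.1]) (by linarith [b3.2]) (by linarith [b2.2]) (by linarith [b2.1])
        (by linarith [b3.1]) (by norm_num)
        (P.gen H (w1 := w) (w2 := w) (w3 := w) (fun h => absurd rfl h)
          (fun h => absurd h (by norm_num)) (fun h => absurd h (by norm_num))
          (fun _ => ⟨hg _, by simp, by simp⟩) (fun h => absurd h (by norm_num)))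
      rwa [h1 h6] at h3
    · obtain ⟨R', h1, -, h3⟩ := w3_N P H hL (W hL) (x := w 2) (y := w 3) (h := 0) (b := 5)
        (by norm_num) (by norm_num) (by linarith [b2.2]) (by linarith [b2.1])
        (by norm_num) (by norm_num) (by linarith [b3.2]) (by linarith [b3.1])
        (by linarith [b3.1])
        (P.gen H (w1 := w) (w2 := w) (w3 := w) (fun h => absurd rfl h)
          (fun h => absurd h (by norm_num)) (fun h => absurd h (by norm_num))
          (fun _ => ⟨hg _, by simp, by simp⟩) (fun h => absurd h (by norm_num)))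
      rwa [h1 h6] at h3
  · rw [wK_eq P H hk]
    have h1 := H.mv_ge' (t := 6) (w0 := bW) (y := 1) (q := ρ 1) (m := 1) one_pos one_pos
      (Al.nonneg H P.al1) leg_bW leg_bW1 (N := univ) (by simp) ?_
    · linarith
    intro δ hδ hδ1 x hx w _ hw _ R hR
    have b5 := nbd hw 5
    have b6 := nbd hw 6
    simp only [bW] at b5 b6
    simp only [Matrix.cons_val, Pi.add_apply, Pi.smul_apply, smul_eq_mul, e9, Pi.single_apply,
      Fin.reduceEq, reduceIte, mul_one, mul_zero, add_zero, zero_add] at b5 b6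
    by_cases hL : L
    · obtain ⟨R', -, h2, h3⟩ := w3_L P H hL (W9 hL) (x := -100) (h := w 5) (b := w 6)
        (by linarith [hx.1, b6.1]) (by linarith [hx.2, b6.2]) (by norm_num) (by norm_num)
        (by linarith [hx.1, b6.1, b5.2]) (by linarith [hx.1, hx.2, b5.1])
        (P.gen H (w1 := w) (w2 := w) (w3 := w) (fun h => absurd rfl h)
          (fun h => absurd h hk) (fun h => absurd h hk) (fun h => absurd h hk2)
          (fun h => ⟨⟨R, by
            have e : c 5 = c 6 := by subst h; exact P.c6h.symm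
            rw [e]; exact hR⟩, by simp, by simp⟩))
      rwa [h2 R (hR.loc H fun t ht => by rcases P.k6 hk ht with rfl | rfl <;> simp)] at h3
    · obtain ⟨R', -, h2, h3⟩ := w3_N P H hL (W hL) (x := -100) (y := 0) (h := w 5) (b := w 6)
        (by linarith [hx.1, b6.1]) (by linarith [hx.2, b6.2]) (by norm_num) (by norm_num)
        (by linarith [hx.1, b6.1, b5.2]) (by linarith [hx.1, hx.2, b5.1])
        (by linarith [hx.1, b6.1]) (by linarith [hx.1, b6.1]) (by linarith [hx.1, b6.1, b5.2])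
        (P.gen H (w1 := w) (w2 := w) (w3 := w) (fun h => absurd rfl h)
          (fun h => absurd h hk) (fun h => absurd h hk) (fun h => absurd h hk2)
          (fun h => ⟨⟨R, by
            have e : c 5 = c 6 := by subst h; exact P.c6h.symm
            rw [e]; exact hR⟩, by simp, by simp⟩))
      rwa [h2 R (hR.loc H fun t ht => by rcases P.k6 hk ht with rfl | rfl <;> simp)] at h3

/-- lower bounds of the rate of `B` at linear points bound `wK` (`k ≠ 1, 2`) -/
theorem PlK.wof (P : PlK L k c dl) (H : Cl9 c dl s Λ φ ρ) (hk : k ≠ 1) (hk2 : k ≠ 2) {q : ℝ}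
    {Z : Finset (Fin 9)} (hZ : ∀ t, t ∈ Z ↔ c t = c 0)
    (h : ∀ w R, LegM 0 w → LinS Z Λ w R → q ≤ R 6) : q ≤ wK c φ := by
  rw [wK_eq P H hk]
  have h6 : (6 : Fin 9) ∉ Z := fun h6 => by
    have := P.z.1 ((hZ 6).1 h6)
    unfold ZK at this
    simp at this
  have h1 := H.mv_ge (t := 6) (w0 := bW) (y := 1) (q := q) (η := 1 / 3) one_pos (by norm_num)
    (leg_bW.mono (by norm_num)) (leg_bW1.mono (by norm_num)) (N := univ) (by simp)
    (fun x hx w _ hw hwD R hR => by
      have hgen : GenZ φ (fun k => k = c 0) w := P.gen H (w1 := w) (w2 := w) (w3 := w)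
        (fun h => absurd rfl h) (fun h => absurd h hk) (fun h => absurd h hk)
        (fun h => absurd h hk2) (fun h => ⟨⟨R, by
          have e : c 5 = c 6 := by subst h; exact P.c6h.symm
          rw [e]; exact hR⟩, rfl, rfl⟩)
      obtain ⟨R', hl, ha, hu⟩ := hgen.linZ H hwD hZ
      have := h w R' hwD hl
      rwa [hu 6 R h6 hR] at this)
  linarith

/-- a linear point with rate of `B` at most `wK + e` (`k ≠ 1, 2`) -/
theorem PlK.wex (P : PlK L k c dl) (H : Cl9 c dl s Λ φ ρ) (hk : k ≠ 1) (hk2 : k ≠ 2) {e : ℝ}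
    (he : 0 < e) {Z : Finset (Fin 9)} (hZ : ∀ t, t ∈ Z ↔ c t = c 0) :
    ∃ w R, LegM 0 w ∧ LinS Z Λ w R ∧ R 6 < wK c φ + e := by
  by_contra hcon
  push Not at hcon
  have := P.wof H hk hk2 hZ (q := wK c φ + e) hcon
  linarith

end Crest.Agent.R116.Tk299
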