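import Crest.Agent.R116.Tk3_299

/-!
# R116 (K side, ties): the `κ`-plane below the record, the walls of `N` (helper647)

* `PlK.nge` : (K2), (F2) at `k < 1`
* `PlK.s1`  : (S1) at `k ≠ 1`
-/

set_option autoImplicit false
set_option linter.unusedSectionVars false
set_option linter.unusedVariables false

open Set Filter Topology Metric MeasureTheory
open scoped NNReal

namespace Crest.Agent.R116.Tk299

open Tie460 (Pl)
open RbM219 (nat9)
open Tq741

variable {c : Fin 9 → Fin 9} {dl : V9} {s : ℝ} {Λ : V9 → ℝ} {φ : Fin 9 → V9 → ℝ} {ρ : V9}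
variable {L : Prop} {k : ℝ} {Sk : V9 → Prop}

/-- a strictly legal vector, `G`, `D` coarse -/
def wN647 : V9 := ![0, 50, 0, 10, -10, 20, 5, -5, -1]

theorem leg_wN647 : LegM 1 wN647 := by constructor <;> simp only [wN647, Matrix.cons_val] <;> norm_num

/-- **(K2), (F2)** : the wall `N = z + C_b` -/
theorem PlK.nge (P : PlK L k c dl) (H : Cl9 c dl s Λ φ ρ) (hk : 0 < k) (hk1 : k < 1)
    (F : Fct9 Sk s Λ) (hSk : ∀ w : V9, w 7 < k * w 0 → w 8 < (k - 1) * w 0 → Sk w) :
    (0 < rK c φ → nK c φ ≤ s) ∧ (s < rK c φ → nK c φ ≤ 0) := by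
  have n1 : k ≠ 1 := hk1.ne
  have n2 : k ≠ 2 := by intro h; linarith
  rw [rK_al H (P.al2 n1 n2), nK_al H (P.al4 n1)]
  obtain ⟨w1, -, hw1, -, hg1⟩ := H.pos_near (w0 := wN647) (η := 1 / 100) (by norm_num)
    (leg_wN647.mono (by norm_num)) (N := univ) (by simp)
  have b0 := nbd hw1 0
  have b2 := nbd hw1 2
  have b3 := nbd hw1 3
  have b5 := nbd hw1 5
  have b6 := nbd hw1 6
  have b7 := nbd hw1 7
  have b8 := nbd hw1 8
  simp only [wN647, Matrix.cons_val] at b0 b2 b3 b5 b6 b7 b8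
  set w' : V9 := ![w1 0, 50, w1 2, w1 3, w1 0 + w1 2, w1 5, w1 6, w1 7, w1 8] with hw'
  have hgen : GenZ φ (fun _ => False) w' := P.gen H (w1 := w1) (w2 := w1) (w3 := w1)
    (fun _ => ⟨hg1 (c 0), by simp [hw'], by simp [hw'], fun _ => by simp [hw']⟩)
    (fun h => absurd h n1) (fun h => absurd h n1) (fun h => absurd h n2)
    (fun _ => ⟨hg1 (c 5), by simp [hw'], by simp [hw']⟩)
  have hone : One 7 w' := by
    refine one_of 7 ?_ ?_ ?_ ?_ ?_ ?_ ?_ ?_ ?_ ?_ <;>
      simp only [hw', Matrix.cons_val, Fin.reduceEq, reduceIte] <;>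
      linarith [b0.1, b0.2, b2.1, b2.2, b3.1, b3.2, b5.1, b5.2, b6.1, b6.2, b7.1, b7.2, b8.1, b8.2]
  have hS : Sk w' := by
    refine hSk w' ?_ ?_ <;> simp only [hw', Matrix.cons_val] <;>
      nlinarith [b0.1, b0.2, b7.2, b8.2]
  obtain ⟨R', hl, ha, -⟩ := hgen.lin H hone.leg
  have e2 := ha 2 (P.al2 n1 n2)
  have e4 := ha 4 (P.al4 n1)
  refine ⟨fun h => ?_, fun h => ?_⟩
  · have := F.K2 w' R' hone hS hl (by rw [e2]; exact h)
    rw [e4] at this
    linarith
  · have := F.F2 w' R' hone hS hl (by rw [e2]; exact h)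
    rw [e4] at this
    linarith

/-- a strictly legal vector -/
def wS647 : V9 := ![10, 50, 0, 0, -10, 0, 0, 5, 100]

theorem leg_wS647 : LegM 1 wS647 := by constructor <;> simp only [wS647, Matrix.cons_val] <;> norm_num

theorem leg_wS647c : LegM 1 (wS647 + (1:ℝ) • e9 3) := by
  constructor <;> simp only [wS647] <;> vv <;> norm_num

theorem leg_wS647f : LegM 1 (wS647 + (1:ℝ) • e9 6) := by
  constructor <;> simp only [wS647] <;> vv <;> norm_num

/-- **(S1)** : the wall `N = X + B` -/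
theorem PlK.s1 (P : PlK L k c dl) (H : Cl9 c dl s Λ φ ρ) (hk1 : k ≠ 1)
    (F : Fct9 Sk s Λ) : 0 < wK c φ → nK c φ ≤ xK c φ := by
  intro hw
  rw [nK_al H (P.al4 hk1)]
  obtain ⟨w1, -, hw1, -, hg1⟩ := H.pos_near (w0 := wS647) (η := 1 / 100) (by norm_num)
    (leg_wS647.mono (by norm_num)) (N := univ) (by simp)
  have b0 := nbd hw1 0
  have b7 := nbd hw1 7
  have b8 := nbd hw1 8
  simp only [wS647, Matrix.cons_val] at b0 b7 b8
  by_cases hk2 : k = 2
  · subst hk2
    have hh : (2:ℝ) ≠ 1 / 2 := by norm_num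
    rw [wK_al H (P.al6 hk1 hh)] at hw
    have e1 : 1 - xK c φ = φ (c 3) wS647 - φ (c 3) (wS647 + (1:ℝ) • e9 3) := by
      unfold xK
      rw [sub_sub_cancel, H.loc (c 3) 0 wS647 fun t ht => by
        rw [P.c3] at ht
        rcases P.k23.1 ht with rfl | rfl <;> simp [wS647],
        H.loc (c 3) (e9 3) (wS647 + (1:ℝ) • e9 3) fun t ht => by
        rw [P.c3] at ht
        rcases P.k23.1 ht with rfl | rfl <;> simp [wS647, e9]]
    have h2 := H.mv_le (t := 3) (w0 := wS647) (y := 1) (q := ρ 4) (η := 1 / 100) one_pos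
      (by norm_num) (leg_wS647.mono (by norm_num)) (leg_wS647c.mono (by norm_num)) (N := univ)
      (by simp) ?_
    · linarith
    intro x hx w _ hw2 _ R hR
    have c2 := nbd hw2 2
    have c3 := nbd hw2 3
    simp only [wS647, Matrix.cons_val, Pi.add_apply, Pi.smul_apply, smul_eq_mul, e9, Pi.single_apply,
      Fin.reduceEq, reduceIte, mul_one, mul_zero, add_zero, zero_add] at c2 c3
    set w' : V9 := ![w1 0, 50, w 2, w 3, w 3, 0, 0, w1 7, w1 8] with hw'
    have hgen : GenZ φ (fun _ => False) w' := P.gen H (w1 := w1) (w2 := w) (w3 := w)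
      (fun _ => ⟨hg1 (c 0), by simp [hw'], by simp [hw'], fun _ => by simp [hw']⟩)
      (fun h => absurd h hk1) (fun h => absurd h hk1)
      (fun _ => ⟨⟨R, by rw [← P.c3]; exact hR⟩, by simp [hw'], by simp [hw']⟩)
      (fun h => absurd h hh)
    have hone : One 8 w' := by
      refine one_of 8 ?_ ?_ ?_ ?_ ?_ ?_ ?_ ?_ ?_ ?_ <;>
        simp only [hw', Matrix.cons_val, Fin.reduceEq, reduceIte] <;>
        linarith [hx.1, hx.2, b0.1, b0.2, b7.1, b7.2, b8.1, b8.2, c2.1, c2.2, c3.1, c3.2]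
    obtain ⟨R', hl, ha, hu⟩ := hgen.lin H hone.leg
    have h3 := F.S1 w' R' hone hl (by rw [ha 6 (P.al6 hk1 hh)]; exact hw)
    rw [ha 4 (P.al4 hk1), hu 3 R (hR.loc H fun t ht => by
      rw [P.c3] at ht
      rcases P.k23.1 ht with rfl | rfl
      · simp [hw']
      · simp [hw'])] at h3
    exact h3
  have e3 := xK_al H (P.al3 hk1 hk2)
  by_cases hkh : k = 1 / 2
  · subst hkh
    have e1 : wK c φ = φ (c 6) wS647 - φ (c 6) (wS647 + (1:ℝ) • e9 6) := by
      unfold wK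
      rw [H.loc (c 6) (e9 3) wS647 fun t ht => by
        rw [P.c6h] at ht
        rcases P.k56.1 ht with rfl | rfl <;> simp [wS647, e9],
        H.loc (c 6) (e9 3 + e9 6) (wS647 + (1:ℝ) • e9 6) fun t ht => by
        rw [P.c6h] at ht
        rcases P.k56.1 ht with rfl | rfl <;> simp [wS647, e9]]
    rw [e1] at hw
    obtain ⟨δ, hδ, hδ1, x, hx, w, -, hw2, -, R, hR, hlt⟩ := H.pos_gt' (t := 6) (w0 := wS647) (y := 1)
      (q := 0) one_pos one_pos leg_wS647 leg_wS647f (by rw [mul_one]; exact hw) (N := univ) (by simp)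
    have c5 := nbd hw2 5
    have c6 := nbd hw2 6
    simp only [wS647, Matrix.cons_val, Pi.add_apply, Pi.smul_apply, smul_eq_mul, e9, Pi.single_apply,
      Fin.reduceEq, reduceIte, mul_one, mul_zero, add_zero, zero_add] at c5 c6
    set w' : V9 := ![w1 0, 50, 0, 0, w 6, w 5, w 6, w1 7, w1 8] with hw'
    have hgen : GenZ φ (fun _ => False) w' := P.gen H (w1 := w1) (w2 := w) (w3 := w)
      (fun _ => ⟨hg1 (c 0), by simp [hw'], by simp [hw'], fun _ => by simp [hw']⟩)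
      (fun h => absurd h hk1) (fun h => absurd h hk1) (fun h => absurd h hk2)
      (fun _ => ⟨⟨R, by rw [← P.c6h]; exact hR⟩, by simp [hw'], by simp [hw']⟩)
    have hone : One 8 w' := by
      refine one_of 8 ?_ ?_ ?_ ?_ ?_ ?_ ?_ ?_ ?_ ?_ <;>
        simp only [hw', Matrix.cons_val, Fin.reduceEq, reduceIte] <;>
        linarith [hx.1, hx.2, b0.1, b0.2, b7.1, b7.2, b8.1, b8.2, c5.1, c5.2, c6.1, c6.2]
    obtain ⟨R', hl, ha, hu⟩ := hgen.lin H hone.leg
    have h3 := F.S1 w' R' hone hl (by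
      rw [hu 6 R (hR.loc H fun t ht => by
        rw [P.c6h] at ht
        rcases P.k56.1 ht with rfl | rfl
        · simp [hw']
        · simp [hw'])]
      exact hlt)
    rw [ha 4 (P.al4 hk1), ha 3 (P.al3 hk1 hk2)] at h3
    rw [e3]
    linarith
  · rw [wK_al H (P.al6 hk1 hkh)] at hw
    set w' : V9 := ![w1 0, 50, 0, 0, 0, 0, 0, w1 7, w1 8] with hw'
    have hgen : GenZ φ (fun _ => False) w' := P.gen H (w1 := w1) (w2 := w1) (w3 := w1)
      (fun _ => ⟨hg1 (c 0), by simp [hw'], by simp [hw'], fun _ => by simp [hw']⟩)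
      (fun h => absurd h hk1) (fun h => absurd h hk1) (fun h => absurd h hk2)
      (fun h => absurd h hkh)
    have hone : One 8 w' := by
      refine one_of 8 ?_ ?_ ?_ ?_ ?_ ?_ ?_ ?_ ?_ ?_ <;>
        simp only [hw', Matrix.cons_val, Fin.reduceEq, reduceIte] <;>
        linarith [b0.1, b0.2, b7.1, b7.2, b8.1, b8.2]
    obtain ⟨R', hl, ha, hu⟩ := hgen.lin H hone.leg
    have h3 := F.S1 w' R' hone hl (by rw [ha 6 (P.al6 hk1 hkh)]; exact hw)
    rw [ha 4 (P.al4 hk1), ha 3 (P.al3 hk1 hk2)] at h3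
    rw [e3]
    linarith

end Crest.Agent.R116.Tk299
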