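import Crest.Agent.R116.Tk4_299
import Crest.Agent.R116.Tk6_126
import Crest.Agent.R116.Tk6_647
import Crest.Agent.R116.Tk0_741

/-!
# R116 (K side, ties): the `κ`-plane below the record, all `k` (helper299), part 3

* **`tm_k`**, **`kf9`** (`1 < k`), **`kf1`** (`k = 1`) : the facts `KF'`
* **`PlK.tv`** : `T` and `V` in letters;  **`PlK.p1`** : `m + x ≤ 1`
-/

set_option autoImplicit false
set_option linter.unusedSectionVars false
set_option linter.unusedVariables false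

open Set Filter Topology Metric MeasureTheory
open scoped NNReal

namespace Crest.Agent.R116.Tk299

open Tie460 (Pl KF')
open RbM219 (nat9)
open Tq741
open Sg337 (DL)

variable {c : Fin 9 → Fin 9} {dl : V9} {s : ℝ} {Λ : V9 → ℝ} {φ : Fin 9 → V9 → ℝ} {ρ : V9}

section

variable {L : Prop} {k : ℝ}

/-- **the facts of the `κ`-plane**, all `k` -/
theorem tm_k (P : PlK L k c dl) (H : Cl9 c dl s Λ φ ρ) (hk : 0 < k) (hs0 : 0 ≤ s) (hs : s ≤ 1)
    {Sk : V9 → Prop} (F : Fct9 Sk s Λ)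
    (hSk : ∀ w, w 7 < k * w 0 → w 8 < (k - 1) * w 0 → Sk w)
    (W : k ≠ 1 → ¬ L → FctK k Λ) (W9 : k ≠ 1 → L → FctK9 k Λ)
    (n1 : k = 1 → 0 < ρ 1 → nK c φ ≤ s) : KF' s k (AK c s φ ρ) where
  P := P.pos H
  FA := P.fanA H hk hs0 hs F hSk
  mw := fun h1 => P.wge H h1 (W h1) (W9 h1)
  nx := fun h1 hw => P.s1 H h1 F hw
  n1 := n1
  FB := fun h1 => by
    have h2 := P.nge H hk h1 F hSk
    refine ⟨h2.1, fun h => ?_⟩
    have h3 := h2.2 h
    have h4 := (P.pos H).n0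
    change 0 ≤ nK c φ at h4
    show nK c φ = 0
    linarith

/-- **the facts of the `κ`-plane, `1 < k`** -/
theorem kf9 (P : PlK L k c dl) (H : Cl9 c dl s Λ φ ρ) (hk : 1 < k) (hs0 : 0 ≤ s) (hs : s ≤ 1)
    {Sk : V9 → Prop} (F : Fct9 Sk s Λ)
    (hSk : ∀ w, w 7 < k * w 0 → w 8 < (k - 1) * w 0 → Sk w)
    (W : ¬ L → FctK k Λ) (W9 : L → FctK9 k Λ) : KF' s k (AK c s φ ρ) :=
  tm_k P H (by linarith) hs0 hs F hSk (fun _ => W) (fun _ => W9) (fun h => absurd h hk.ne')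

/-- **the facts of the `κ`-plane, `k = 1`** -/
theorem kf1 (P : PlK L 1 c dl) (H : Cl9 c dl s Λ φ ρ) (hs0 : 0 ≤ s) (hs : s ≤ 1)
    {Sk : V9 → Prop} (F : Fct9 Sk s Λ)
    (hSk : ∀ w, w 7 < w 0 → w 8 < 0 → Sk w)
    (n1 : 0 < ρ 1 → nK c φ ≤ s) : KF' s 1 (AK c s φ ρ) :=
  tm_k P H one_pos hs0 hs F
    (fun w h7 h8 => hSk w (by linarith) (by linarith))
    (fun h => absurd rfl h) (fun h => absurd rfl h) (fun _ => n1)

/-- **`T` and `V` in letters** -/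
theorem PlK.tv {θ g qa qb v a : ℝ} (P : PlK L k c dl) (H : Cl9 c dl s Λ φ ρ)
    (hL : ¬ L → ρ 8 = 0)
    (T : Λ (nat9 1 (-θ) (-(2 * θ - k))) = DL g s qa qb 1 (-θ) (-(2 * θ - k)))
    (V : Λ (nat9 v a (2 * a + k * v)) ≤ DL g s qa qb v a (2 * a + k * v)) :
    TVk k θ s g qa qb v a (AK c s φ ρ) := by
  have e1 : nat9 1 (-θ) (-(2 * θ - k)) = nat9 1 (-θ) (2 * (-θ) + k * 1) := by congr 1; ring
  rw [e1, natK H P _ _ hL] at T
  rw [natK H P _ _ hL] at V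
  unfold DL at T V
  constructor
  · simp only [AK]
    linarith
  · simp only [AK]
    linarith

/-- **`m + x ≤ 1`** from (P1) -/
theorem PlK.p1 (P : PlK L k c dl) (H : Cl9 c dl s Λ φ ρ) (hk : 0 < k)
    (h : ∀ w R, One 1 w → w 7 < k * w 0 → w 8 < (k - 1) * w 0 → LinS ∅ Λ w R → R 1 ≤ R 3) :
    ρ 1 + xK c φ ≤ 1 := by
  have h1 := P.xge H hk (q := ρ 1) (P.al1.nonneg H) fun w R a b d e f => by
    rw [← f]; exact h w R a b d e
  linarith

end

end Crest.Agent.R116.Tk299
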