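import Crest.Agent.R116.Tk7_126

/-!
# R116 (K side, ties), `KUp'` from the record blow-up, `k > 1` (helper126)

* `qa_kU9` : `q_a ≤` rate of `C_a` on `kU9`
* **`kU9up`** : `KUp'` from `Out9` on `kU9`, `oP9`
-/

set_option autoImplicit false
set_option linter.unusedVariables false
set_option linter.unusedSectionVars false

open Set Filter Topology MeasureTheory

namespace Crest.Agent.R116.Ku126

open Crest.Agent.R136
open Crest.Agent.R136.Net191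
open Crest.Agent.R138.Ex926 (IsTan)
open Crest.Agent.R116.ChL222
open Crest.Agent.R116.PL504 (eL βL rL)
open Crest.Agent.R116.Sg337 (coneL DL)
open Crest.Agent.R116.RbM219
open Crest.Agent.R116.RbK219 (SOk RS Par dl)
open Crest.Agent.R116.SgO219 (PP)
open Crest.Agent.R116.Kz647
open Crest.Agent.R116.Rcx363
open Crest.Agent.R116.Pd363
open Crest.Agent.R116.Tq741
open Crest.Agent.R116.Tq126
open Crest.Agent.R116.Tp139
open Crest.Agent.R116.Pos126 (posB8 posB9)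
open Dg219 (mw)
open Dg262 (SupOn)
open Sl741 (slice xt rs)
open Tie460 (Pl KF' KUp')

section nine

variable {R s : ℝ} {a b : Fin 2} {Vis : Fin 12 → Prop} {θ k g qa qb w0 sa sb v0 : ℝ}
    {T : Type*} {Bs : T → Fin 9 → ℝ} {sgs : T → ℝ} {f : Fin 2 → (Fin 12 → ℝ) → ℝ}
    {x0 : Fin 12 → ℝ} {x : ℕ → Fin 12 → ℝ} {hh : ℕ → ℝ} {lam : Fin 2 → (Fin 12 → ℝ) → ℝ}

/-- `q_a ≤` rate of `C_a` above the record, `D` live -/
theorem qa_kU9 (O : Out9 R s a b Vis θ (2 * θ - k) g qa qb Bs sgs x0 f x hh lam)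
    (hθ : 0 < θ) (hk : 1 < k) (hk2 : 2 * θ < k) {iP : T} (hP : Bs iP = oP9) (hP1 : sgs iP = 1)
    {cU : ℝ} {ρU : Fin 9 → ℝ} (hcU : 0 < cU)
    (hLU : (srf9 θ (2 * θ - k) kU9 1).LW (mw monL) cU ⊆ PP (mw monL))
    (hRU : Rates9 θ (2 * θ - k) kU9 1 cU (lam 0) ρU) : qa ≤ ρU 1 := by
  obtain ⟨cP, hcP, hLP, -, ρP, hRP⟩ := O.surf iP
  rw [hP, hP1] at hLP hRP
  have hs : SupOn (lam 0) (PP (mw monL)) := by rw [← coneL_PP]; exact O.rx.prf.sm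
  have h1 := pos_k9 hs hθ hcU hcP hk rfl (by linarith) hLU hLP hRU hRP
  have h2 := posB9 (s := s) (g := g) (qa := qa) (qb := qb) (lam := lam 0) O.rx.prf.ab
    O.rx.prf.anti O.rx.prf.cost (O.zero 0) O.rx.dmax hcP hθ (by linarith) (by linarith) hRP
  exact h2.trans h1

/-- **`KUp'`, `k > 1`** -/
theorem kU9up
    (O : Out9 R s a b Vis θ (2 * θ - k) g qa qb Bs sgs (rL θ (2 * θ - k) w0 sa sb v0) f x hh lam)
    (hθ : 0 < θ) (hk : 1 < k) (hk2 : 2 * θ < k) {iU iP : T} (hU : Bs iU = kU9)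
    (hU1 : sgs iU = 1) (hP : Bs iP = oP9) (hP1 : sgs iP = 1)
    (hVis : ∀ j, Vis j → j = 0 ∨ j = 1 ∨ j = 2)
    (hK : ∀ {l α : ℝ} {h' : ℕ → ℝ} {X : ℕ → Fin 12 → ℝ} {H : ℕ → ℝ}
      {lam2 : Fin 2 → (Fin 12 → ℝ) → ℝ} {ρ ρ2 : Fin 9 → ℝ} {φ : Fin 9 → V9 → ℝ},
      Pd9 R s a b Vis θ (2 * θ - k) w0 sa sb v0 (DL g s qa qb 0 1 2) kU9 1 f lam ρ l α h' X H
        lam2 ρ2 →
      Cl9 (cK9 k) (dl (nat9 1 (-θ) (-(2 * θ - k))) kU9 1) s (fun w => lam2 0 (RL9.vec w)) φ ρ2 →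
      KF' s k (Tk299.AK (cK9 k) s φ ρ2)) (A : Pl) : ∃ B, KUp' k θ s g qa qb A B := by
  obtain ⟨cU, hcU, hLU, -, ρU, hRU⟩ := O.surf iU
  rw [hU, hU1] at hLU hRU
  have hV : ∀ j, Vis j → (Vis j ∧ kU9 (cl9 j) ≤ kU9 0 * βL θ (2 * θ - k) j) ∨
      kU9 (cl9 j) < kU9 0 * βL θ (2 * θ - k) j := by
    intro j hj
    refine Or.inl ⟨hj, ?_⟩
    have e0 : kU9 0 = 0 := rfl
    rw [e0, zero_mul]
    rcases hVis j hj with rfl | rfl | rfl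
    · exact le_of_eq rfl
    · have : kU9 (cl9 1) = kU9 8 := rfl
      rw [this]; ev9; norm_num
    · have : kU9 (cl9 2) = kU9 7 := rfl
      rw [this]; ev9; norm_num
  obtain ⟨l, α, h', X, H, lam2, ρ2, hl, -, -, P⟩ := plane9 (Vis' := Vis) O (sok_kU9 hk rfl)
    leg_kU9 hcU hRU (v := 0) (c := 1) (p := 2) le_rfl hV (N := univ) (by simp) one_pos
  obtain ⟨φ, C⟩ := P.cls (sok_kU9 hk rfl)
    (fun j hj => by rcases hVis j hj with h | h | h <;> simp [h]) (hc_kU9 hθ hk rfl)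
    (hz_kU9 hθ hk rfl) (hG_kU9 hθ hk rfl)
  have tv : TVk k θ s g qa qb 0 1 (Tk299.AK (cK9 k) s φ ρ2) :=
    tvK C (tk9_U hk rfl) (fun h => absurd trivial h) (T9 O P.half) (by
      have h1 := V9r P.half
      have e : (2:ℝ) * 1 + k * 0 = 2 := by ring
      rw [e]
      exact h1)
  refine ⟨_, kUp_of (hK P C) tv (by norm_num) (fun h => absurd h hk.ne') ?_⟩
  show qa ≤ ρ2 1
  rw [P.half.eq 1 (A1_ne9 hθ)]
  exact qa_kU9 O hθ hk hk2 hP hP1 hcU hLU hRU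

/-- `kU9up` with `θb` -/
theorem kU9up' {θb : ℝ} (hb : θb = 2 * θ - k)
    (O : Out9 R s a b Vis θ θb g qa qb Bs sgs (rL θ θb w0 sa sb v0) f x hh lam)
    (hθ : 0 < θ) (hk : 1 < k) (hk2 : 2 * θ < k) {iU iP : T} (hU : Bs iU = kU9)
    (hU1 : sgs iU = 1) (hP : Bs iP = oP9) (hP1 : sgs iP = 1)
    (hVis : ∀ j, Vis j → j = 0 ∨ j = 1 ∨ j = 2)
    (hK : ∀ {l α : ℝ} {h' : ℕ → ℝ} {X : ℕ → Fin 12 → ℝ} {H : ℕ → ℝ}
      {lam2 : Fin 2 → (Fin 12 → ℝ) → ℝ} {ρ ρ2 : Fin 9 → ℝ} {φ : Fin 9 → V9 → ℝ},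
      Pd9 R s a b Vis θ θb w0 sa sb v0 (DL g s qa qb 0 1 2) kU9 1 f lam ρ l α h' X H lam2 ρ2 →
      Cl9 (cK9 k) (dl (nat9 1 (-θ) (-θb)) kU9 1) s (fun w => lam2 0 (RL9.vec w)) φ ρ2 →
      KF' s k (Tk299.AK (cK9 k) s φ ρ2)) (A : Pl) : ∃ B, KUp' k θ s g qa qb A B := by
  subst hb
  exact kU9up O hθ hk hk2 hU hU1 hP hP1 hVis hK A

end nine

end Crest.Agent.R116.Ku126
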