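import Crest.Agent.R116.Pk2_348
import Crest.Agent.R116.Tk5_299
import Crest.Agent.R116.Tk8_126

/-!
# R116 (K side, TIES), the `κ`-plane BELOW the record, `D` live, `k > 1`: last step (helper388)

* `AK9` : the numbers of `T⁻` (348's `AK` with nine rates)
* **`KDat9.fin`** : 348's `KDat9` + `FctK9` ⊢ `KF'`, `Tan`, vertical inequality, `qa ≤ m` for 299's
  `A = AK (cK9 k) s φ ρ2`.
-/

set_option autoImplicit false
set_option linter.unusedSectionVars false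
set_option linter.unusedVariables false

open Set Filter Topology MeasureTheory

namespace Crest.Agent.R116.Pk388

open Crest.Agent.R138
open Crest.Agent.R138.Ex926 (Base U IsTan)
open Crest.Agent.R136
open Crest.Agent.R136.Net191
open Crest.Agent.R116.ChL222
open Crest.Agent.R116.PL504 (nb rL DN eL βL oL Shift)
open Crest.Agent.R116.Sg337 (bx9 coneL DL natB)
open Crest.Agent.R116.Rcx363
open Crest.Agent.R116.RbM219
open Crest.Agent.R116.RbK219 (RS SOk Par dl Aln)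
open Crest.Agent.R116.SgO219 (PP)
open Crest.Agent.R116.Kz647
open Crest.Agent.R116.Pd363
open Crest.Agent.R116.Tq741
open Crest.Agent.R116.Tq794
open Crest.Agent.R116.Tq126
open Crest.Agent.R116.Tp139 hiding cl8
open Crest.Agent.R116.Tie460 (Pl KF')
open Crest.Agent.R116.Pk348 (KDat9 VisK)
open Dg219 (mw Walls)

/-- the plane numbers of `T⁻`, `D` live -/
structure AK9 (k s g : ℝ) (θ q : Fin 2 → ℝ) (ρ : Fin 9 → ℝ) (A : Pl) : Prop where
  F : KF' s k A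
  dz : A.d = 0
  tan : A.Tan g (θ 0) (θ 1) (q 0) (q 1)
  ver : 0 ≤ A.Fa (q 0) + 2 * A.Fb (q 1)
  pos : q 0 ≤ A.m
  m : A.m = ρ 1
  e : A.e = ρ 0 - (1 - s)

section fin

variable {R s : ℝ} {a b' : Fin 2} {Vis : Fin 12 → Prop} {θ q : Fin 2 → ℝ}
    {g w0 sa sb v0 k : ℝ} {f : Fin 2 → (Fin 12 → ℝ) → ℝ} {lam : Fin 2 → (Fin 12 → ℝ) → ℝ}
    {ρ : Fin 9 → ℝ} {l α : ℝ} {h' : ℕ → ℝ} {X : ℕ → Fin 12 → ℝ} {H : ℕ → ℝ}
    {lam2 : Fin 2 → (Fin 12 → ℝ) → ℝ} {ρ2 : Fin 9 → ℝ} {φ : Fin 9 → V9 → ℝ}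

/-- **last step, `1 < k`** -/
theorem _root_.Crest.Agent.R116.Pk348.KDat9.fin
    (K : KDat9 R s a b' Vis θ q g w0 sa sb v0 k f lam ρ l α h' X H lam2 ρ2 φ)
    (hs0 : 0 ≤ s) (hs1 : s ≤ 1) (hk : 1 < k) (hb : θ 1 = 2 * θ 0 - k)
    (W : FctK9 k (fun w => lam2 0 (RL9.vec w))) :
    AK9 k s g θ q ρ (Tk299.AK (cK9 k) s φ ρ2) := by
  have P : Tk299.PlK True k (cK9 k) (dl (nat9 1 (-(θ 0)) (-(θ 1))) kD9 (-1)) :=
    Ku126.tk9_D hk hb
  have h1 := Tk299.kf9 P K.cl hk hs0 hs1 K.fct (fun w h7 h8 => ⟨h7.le, h8.le⟩)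
    (fun h => absurd trivial h) (fun _ => W)
  have e1 : -(θ 1) = -(2 * θ 0 - k) := by rw [hb]
  have hTV := Ku126.tvK (θ := θ 0) (g := g) (qa := q 0) (qb := q 1) (v := 0) (a := -1) K.cl P
    (fun h => absurd trivial h)
    (by rw [← e1]; exact K.T)
    (by
      have e2 : 2 * (-1 : ℝ) + k * 0 = -2 := by ring
      rw [e2]; exact K.V)
  refine ⟨h1, rfl, ?_, ?_, ?_, ?_, ?_⟩
  · rw [hb]; exact hTV.tan
  · exact hTV.ver (by norm_num)
  · show q 0 ≤ ρ2 1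
    rw [K.r1]; exact K.pos
  · exact K.r1
  · show ρ2 0 - (1 - s) = ρ 0 - (1 - s)
    rw [K.r0]

end fin

end Crest.Agent.R116.Pk388
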