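import Crest.Agent.R116.Ap3_954
import Crest.Agent.R116.D0F_878

/-!
# R116, K side: the two-height pins at MOVING natural bases (helper858)

* **`pins_mv`** : over `CtxT`, tangent linear on `bx9` (slot `D` live) at natural boxes `X n`,
  own rate `≥ 1 - s > 0`: `gC ≤ rX`, `gP ≤ rF`, `gD ≤ gE`.
-/

set_option autoImplicit false
set_option linter.unusedVariables false
set_option linter.unusedSectionVars false

open Filter Topology

namespace Crest.Agent.R116.Pmv858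

open Finset
open Crest.Agent.R138
open Crest.Agent.R138.Ex926 (Base U IsTan)
open Crest.Agent.R136.MkA627
open Crest.Agent.R136.Net191 Crest.Agent.R136.Lq196
open Crest.Agent.R116.ChL222 Crest.Agent.R116.PL504 Crest.Agent.R116.EvL504
open Crest.Agent.R116.Gd222 (TSet sN PDL DT vb)
open Crest.Agent.R116.KI439
open Crest.Agent.R116.KF439 (PL Thin frF flF scN)
open Crest.Agent.R116.Tw468 Crest.Agent.R116.CtxB468
open Crest.Agent.R116.D0F878 (LinTanD)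
open Crest.Agent.R116.Sg337 (natB bx9)

theorem natB_eL (z c p : ℝ) : natB z c p = eL z c p := by
  funext k
  fin_cases k <;> simp [natB, bx9, eL]

section ctx

variable {G : Geo TSet (Fin 2)} {L : ℕ → ℕ → LRay} {r : ℕ → ℝ} {g s : ℝ} {θ q : Fin 2 → ℝ}
    {Rg : ℝ} {B : Base}
    {I : ℕ → Finset (ℕ × ℝ)} {lev : ℕ → ℚ → ℕ} {A : ℕ → ℝ}
    {f : ℕ → ℚ → ℕ → ℤ → ℕ} {b : ℕ → ℚ → ℕ → TSet} {vm : ℕ → ℚ → ℝ} {w : Fin 2 → ℕ → ℚ → ℝ}
    {fr : ℕ → ℚ → ℕ × ℝ → LInc} {fl : ℕ → ℕ × ℝ → LInc} {sc : Fin 12 → ℕ → ℝ}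
    {w0 sa sb δ R : ℝ} {I0 I' : ℕ → Finset (ℕ × ℝ)} {ν own : (Fin 12 → ℝ) → ℝ} {c₀ : ℝ}

/-- **the pins at moving natural bases** -/
theorem pins_mv
    (H : CtxT G L r g s θ q Rg B I lev A f b vm w fr fl sc w0 sa sb δ R I0 I' ν own c₀)
    (hs1 : s < 1) {Jt : Type*} {ff : Jt → (Fin 12 → ℝ) → ℝ} {j0 : Jt} (hf : ff j0 = ν)
    {X : ℕ → Fin 12 → ℝ} {h : ℕ → ℝ} {rz rX rH rF gC gP gE gB gD : ℝ}
    (hX : ∀ n, ∃ z c p, X n = natB z c p)
    (T : LinTanD (Leg monL R) ff j0 X h rz rX rH rF gC gP gE gB gD) (hrz : 1 - s ≤ rz) :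
    gC ≤ rX ∧ gP ≤ rF ∧ gD ≤ gE := by
  obtain ⟨D, lam, hD, ht, hlin⟩ := T.ex
  have h1 := ht j0
  rw [hf] at h1
  refine Op171.one_pin_tan
    (WinU954.nprof_of_ext (H.sh.d0.le.trans H.sh.R_pos) (H.extK (|θ 0| + |θ 1|)))
    (fun n => Sd369.coc_N B lev w w0 sa sb fl n) T.hpos T.h0 h1 hD (rz := rz) (rX := rX)
    (rH := rH) (rF := rF) (gC := gC) (gP := gP) (gE := gE) (gB := gB) (gD := gD)
    (fun z D C P E B X H F hc => hlin z D C P E B X H F hc) (σ := 1 - s) (by linarith) hrz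
    (fun l => ?_) (fun _ => ((0 : ℕ), (0 : ℝ)))
  obtain ⟨z, c, p, e⟩ := hX l
  exact ⟨z, c, p, by rw [e, natB_eL]⟩

end ctx

end Crest.Agent.R116.Pmv858
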