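import Crest.Agent.R116.Kw1_647

/-!
# R116, K-TEXT II-c (ties), `posB`, first half (helper126)

On the plane through the record with offset `(1, 0)` and frozen flags (`C` raised by `1`, `X` by `1`,
`H` by `2`) the rate of `C_a` is at least `q_a`.  `C` is raised first (rate `m`), then `X` (cost at
most the thin cost), then `H`; no condition on the slopes of the record.

* `pos10` : abstract version over any system of ray slots
-/

set_option autoImplicit false
set_option linter.unusedSectionVars false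
set_option linter.unusedVariables false

open Set Filter Topology Metric MeasureTheory

namespace Crest.Agent.R116.Pos126

open Crest.Agent.R136
open Dg219 (Tn lf Cone Walls)
open Crest.Agent.R116.RbK219
open Crest.Agent.R116.Kw647 (creep vec_zero)

variable {ι W τ : Type*} [Fintype ι] [DecidableEq ι] [Fintype W] [Fintype τ] [DecidableEq τ]

/-- **`q ≤ m` on the ray `l • B`, `B = e_C + e_X + 2 e_H`** -/
theorem pos10 (R : RS ι τ) {lam : (ι → ℝ) → ℝ} {y0 : ι → ℝ} {A B : τ → ℝ} {sg : ℝ}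
    (h : SOk A B sg) {Q : Walls ι W} {c0 : ℝ} (hc0 : 0 < c0) {tC tX tH : τ} {m : ℝ}
    (hr : R.RateAt lam ((R.srf y0 A B sg).LW Q c0) tC m)
    (hB : R.vec B = R.e tC + R.e tX + (2:ℝ) • R.e tH)
    (hL : R.e tC ∈ (R.srf y0 A B sg).L Q)
    (hX : ∀ l ε : ℝ, 0 < l → 0 < ε →
      lam (R.vec (l • B) + ε • R.e tC) - lam (R.vec (l • B) + ε • R.e tC + ε • R.e tX) ≤ ε)
    (hH : ∀ l ε : ℝ, 0 < l → 0 < ε →
      lam (R.vec (l • B) + ε • R.e tC + ε • R.e tX) - lam (R.vec ((l + ε) • B)) ≤ 2 * ε)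
    {K : ℝ} (hK : ∀ l : ℝ, 0 < l → lam 0 - lam (R.vec (l • B)) ≤ K * l)
    (hcont : ContinuousOn (fun l : ℝ => lam (R.vec (l • B))) (Ioi 0)) {q : ℝ}
    (hD : ∀ l : ℝ, 0 < l → lam (R.vec (l • B)) ≤ lam 0 - (3 + q) * l) : q ≤ m := by
  -- local right increments
  have hloc : ∀ l : ℝ, 0 < l → ∃ ε0 : ℝ, 0 < ε0 ∧ ∀ ε, 0 < ε → ε ≤ ε0 →
      lam (R.vec (l • B)) - lam (R.vec ((l + ε) • B)) ≤ (m + 3) * ε := by
    intro l hl
    have hN : 0 < 1 + ‖R.e tC‖ := by positivity
    refine ⟨c0 * l / (1 + ‖R.e tC‖), by positivity, fun ε hε0 hε => ?_⟩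
    rw [le_div_iff₀ hN] at hε
    have hc1 : ‖ε • R.e tC‖ ≤ c0 * l := by
      rw [norm_smul, Real.norm_of_nonneg hε0.le]
      nlinarith [norm_nonneg (R.e tC)]
    have p1 := h.memLW (R := R) (y0 := y0) (Q := Q) (c0 := c0) (α := 0) hl.le
      ((Walls.cone (Q := Q)).zero) (by rw [norm_zero]; positivity)
    have p2 := h.memLW (R := R) (y0 := y0) (Q := Q) (c0 := c0) (α := 0) hl.le
      ((Walls.cone (Q := Q)).smul _ hL _ hε0.le) hc1
    rw [zero_smul, add_zero] at p1 p2
    rw [add_zero] at p1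
    have h1 := hr (R.vec (l • B)) (l * B tC) ε (fun i hi => by
      simp only [RS.vec, Pi.smul_apply, smul_eq_mul, hi]) p1 p2
    have h2 := hX l ε hl hε0
    have h3 := hH l ε hl hε0
    linarith
  have main : ∀ η : ℝ, 0 < η → ∀ y : ℝ, 0 < y → (3 + q) * (η + y) ≤ K * η + (m + 3) * y := by
    intro η hη y hy
    have h1 := creep (g := fun σ : ℝ => lam (R.vec ((η + σ) • B))) (m := m + 3) hy.le
      (by
        refine hcont.comp (by fun_prop) ?_
        intro σ hσ
        simp only [mem_Ioi]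
        linarith [hσ.1])
      (by
        intro σ hσ0 hσy
        obtain ⟨ε0, h0, h1⟩ := hloc (η + σ) (by linarith)
        refine ⟨ε0, h0, fun ε hε hε' _ => ?_⟩
        have := h1 ε hε hε'
        simpa [add_assoc] using this)
    simp only [add_zero] at h1
    have h2 := hD (η + y) (by linarith)
    have h3 := hK η hη
    linarith
  by_contra hcon
  push Not at hcon
  -- `η → 0`
  have h1 : ∀ η : ℝ, 0 < η → (3 + q) * (η + 1) ≤ K * η + (m + 3) * 1 := fun η hη => main η hη 1 one_pos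
  set d := q - m with hd
  have hd0 : 0 < d := by linarith
  set S : ℝ := |K| + |3 + q| + 1 with hS
  have hS0 : 0 < S := by positivity
  have h2 := h1 (d / (2 * S)) (by positivity)
  have h3 : K * (d / (2 * S)) ≤ |K| * (d / (2 * S)) :=
    mul_le_mul_of_nonneg_right (le_abs_self _) (by positivity)
  have h4 : -(3 + q) * (d / (2 * S)) ≤ |3 + q| * (d / (2 * S)) :=
    mul_le_mul_of_nonneg_right (neg_le_abs _) (by positivity)
  have h5 : (|K| + |3 + q|) * (d / (2 * S)) ≤ S * (d / (2 * S)) :=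
    mul_le_mul_of_nonneg_right (by linarith) (by positivity)
  have h6 : S * (d / (2 * S)) = d / 2 := by field_simp
  nlinarith

end Crest.Agent.R116.Pos126
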