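import Crest.Agent.R116.Pos1_126
import Crest.Agent.R116.RbM2_219

/-!
# R116, K-TEXT II-c (ties), `posB`, second half (helper126)

* `B10`, `B10'`    : offset `(1, 0)`, flags frozen at the record, over `RL8`, `RL9`
* `sok8`, `sok9`, `leg8`, `leg9`, `aln8`, `aln9`
* **`pos8`, `pos9`** : `q_a ≤` rate of `C_a` on that plane (`θb < 0`), hypotheses: class cost,
  monotonicity, D-max at the natural boxes `(0; l, 0)`.
-/

set_option autoImplicit false
set_option linter.unusedSectionVars false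
set_option linter.unusedVariables false

open Set Filter Topology Metric MeasureTheory

namespace Crest.Agent.R116.Pos126

open Crest.Agent.R136
open Dg219 (Tn lf Cone Walls mw)
open SgO219 (PP)
open Sl741 (slice xt rs)
open Crest.Agent.R116.RbK219
open Crest.Agent.R116.RbM219
open ChL222 (monL)

/-! ### `D` frozen -/

/-- offset `(1, 0)`, flags frozen at the record -/
def B10 : Fin 8 → ℝ := ![0, 1, 0, 1, 0, 2, 0, 0]

theorem sok8 {θa θb : ℝ} (ha : 0 < θa) (hb : θb < 0) : SOk (nat8 1 (-θa) (-θb)) B10 1 := by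
  refine ⟨Or.inl rfl, fun t => ?_, fun t ht => ?_⟩
  · fin_cases t <;> simp [B10]
  · fin_cases t <;> simp [B10] at ht <;> simp [nat8] <;> linarith

theorem leg8 : Leg8 B10 := by
  constructor <;> simp [B10] <;> norm_num

theorem leg8_smul {l : ℝ} (hl : 0 ≤ l) : Leg8 (l • B10) := by
  constructor <;> simp [B10] <;> linarith

theorem aln8 {θa θb : ℝ} (ha : 0 < θa) (hb : θb < 0) : Aln (nat8 1 (-θa) (-θb)) B10 1 := by
  intro t ht h
  fin_cases t
  all_goals simp [nat8, B10] at h ht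
  all_goals linarith

/-- `C` raised by `e`, `X` by `e'` -/
def up8 (l e e' : ℝ) : Fin 8 → ℝ := ![0, l + e, 0, l + e', 0, 2 * l, 0, 0]

theorem up8_leg {l e e' : ℝ} (hl : 0 ≤ l) (he : 0 ≤ e) (he' : 0 ≤ e') (hee : e' ≤ e) :
    Leg8 (up8 l e e') := by
  constructor <;> simp [up8] <;> linarith

theorem e8_add (l e : ℝ) : RL8.vec (l • B10) + e • RL8.e 1 = RL8.vec (up8 l e 0) := by
  funext i
  simp only [RS.vec, RS.e, Pi.add_apply, Pi.smul_apply, smul_eq_mul]
  have : ∀ t : Fin 8, RL8.mu i * (l * B10 t) + e * (if t = 1 then RL8.mu i else 0) =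
      RL8.mu i * up8 l e 0 t := by
    intro t
    have h : up8 l e 0 t = l * B10 t + e * (if t = 1 then 1 else 0) := by
      fin_cases t <;> simp [B10, up8]
      ring
    rw [h]
    split_ifs <;> ring
  exact this (RL8.cls i)

theorem e8_add2 (l e e' : ℝ) : RL8.vec (up8 l e 0) + e' • RL8.e 3 = RL8.vec (up8 l e e') := by
  funext i
  simp only [RS.vec, RS.e, Pi.add_apply, Pi.smul_apply, smul_eq_mul]
  have : ∀ t : Fin 8, RL8.mu i * up8 l e 0 t + e' * (if t = 3 then RL8.mu i else 0) =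
      RL8.mu i * up8 l e e' t := by
    intro t
    fin_cases t <;> simp [up8] <;> ring
  exact this (RL8.cls i)

theorem B10_eq : RL8.vec B10 = RL8.e 1 + RL8.e 3 + (2:ℝ) • RL8.e 5 := by
  funext i
  simp only [RS.vec, RS.e, Pi.add_apply, Pi.smul_apply, smul_eq_mul]
  have : ∀ t : Fin 8, RL8.mu i * B10 t = (if t = 1 then RL8.mu i else 0) +
      (if t = 3 then RL8.mu i else 0) + 2 * (if t = 5 then RL8.mu i else 0) := by
    intro t
    fin_cases t <;> simp [B10] <;> ring
  exact this (RL8.cls i)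

/-- legality on any surface through the record -/
theorem mem8 {θa θb t : ℝ} (ht : t ≠ 0) {B : Fin 8 → ℝ} {sg : ℝ} {d : Fin 8 → ℝ} (hd : Leg8 d) :
    RL8.vec d ∈ (srf8 θa θb t B sg).L (Q8 t) := by
  intro w hw
  refine RL8_mem (a := (srf8 θa θb t B sg).a) ht hd w ⟨hw.1, hw.2.1, ?_⟩
  have : (Q8 t).rhs w 0 = 0 := by unfold Walls.rhs; simp
  rw [this]; rfl

theorem xt0 : xt kp 0 (RL8.vec (0 : Fin 8 → ℝ)) = 0 := by
  rw [Kw647.vec_zero]
  funext i
  unfold xt
  split_ifs <;> rfl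

/-- **`q_a ≤` rate of `C_a` on the frozen plane `(1, 0)`**, `D` frozen -/
theorem pos8 {θa θb t c0 qa : ℝ} {lam : (Fin 12 → ℝ) → ℝ} {ρ : Fin 8 → ℝ} (ht : 0 < t)
    (hc0 : 0 < c0) (ha : 0 < θa) (hb : θb < 0) (hR : Rates8 θa θb t B10 1 c0 lam ρ)
    (hcost : ∀ w w' : Fin 8 → ℝ, Leg8 w → Leg8 w' → w ≤ w' →
      lam (xt kp 0 (RL8.vec w)) - lam (xt kp 0 (RL8.vec w')) ≤
        ∑ t, (if t = 6 then 2 else 1) * (w' t - w t))
    (hanti : ∀ w w' : Fin 8 → ℝ, Leg8 w → Leg8 w' → w ≤ w' →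
      lam (xt kp 0 (RL8.vec w')) ≤ lam (xt kp 0 (RL8.vec w)))
    (h0 : lam 0 = 0) (hD : ∀ l : ℝ, 0 < l → lam (xt kp 0 (RL8.vec (nat8 0 l 0))) ≤ -(3 + qa) * l) :
    qa ≤ ρ 1 := by
  have hA : nat8 1 (-θa) (-θb) 1 ≠ 0 := by simp [nat8]; exact ha.ne'
  have hr := hR.alone 1 (aln8 ha hb) hA
  have hz : (fun c : K8 → ℝ => lam (xt kp 0 c)) 0 = 0 := by
    have := xt0
    rw [Kw647.vec_zero] at this
    show lam (xt kp 0 0) = 0
    rw [this, h0]
  have hlip : ∀ l l' : ℝ, 0 < l → l ≤ l' →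
      |lam (xt kp 0 (RL8.vec (l • B10))) - lam (xt kp 0 (RL8.vec (l' • B10)))| ≤ 4 * (l' - l) := by
    intro l l' hl hll
    have hle : l • B10 ≤ l' • B10 := by
      intro i
      fin_cases i <;> simp [B10] <;> linarith
    have h1 := hcost _ _ (leg8_smul hl.le) (leg8_smul (hl.le.trans hll)) hle
    have h2 := hanti _ _ (leg8_smul hl.le) (leg8_smul (hl.le.trans hll)) hle
    have h3 : ∑ t : Fin 8, (if t = 6 then (2:ℝ) else 1) * ((l' • B10) t - (l • B10) t) =
        4 * (l' - l) := by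
      simp [Fin.sum_univ_succ, B10]
      ring
    rw [h3] at h1
    rw [abs_of_nonneg (by linarith)]
    exact h1
  refine pos10 RL8 (lam := fun c : K8 → ℝ => lam (xt kp 0 c)) (sok8 ha hb) hc0 hr B10_eq ?_ ?_ ?_
    (K := 4) ?_ ?_ ?_
  · have h1 : RL8.e 1 = RL8.vec (up8 0 1 0) := by
      have := e8_add 0 1
      rw [zero_smul, one_smul, Kw647.vec_zero, zero_add] at this
      exact this
    rw [h1]
    exact mem8 ht.ne' (up8_leg le_rfl zero_le_one le_rfl zero_le_one)
  · intro l ε hl hε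
    show lam (xt kp 0 _) - lam (xt kp 0 _) ≤ ε
    rw [e8_add, e8_add2]
    have h1 := hcost (up8 l ε 0) (up8 l ε ε) (up8_leg hl.le hε.le le_rfl hε.le)
      (up8_leg hl.le hε.le hε.le le_rfl) (by
        intro i
        fin_cases i <;> simp [up8] <;> linarith)
    refine h1.trans (le_of_eq ?_)
    simp [Fin.sum_univ_succ, up8]
  · intro l ε hl hε
    show lam (xt kp 0 _) - lam (xt kp 0 _) ≤ 2 * ε
    rw [e8_add, e8_add2]
    have h1 := hcost (up8 l ε ε) ((l + ε) • B10) (up8_leg hl.le hε.le hε.le le_rfl)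
      (leg8_smul (by linarith)) (by
        intro i
        fin_cases i <;> simp [up8, B10] <;> linarith)
    refine h1.trans (le_of_eq ?_)
    simp [Fin.sum_univ_succ, up8, B10]
    ring
  · intro l hl
    have hle : (0 : Fin 8 → ℝ) ≤ l • B10 := by
      intro i
      fin_cases i <;> simp [B10] <;> linarith
    have h1 := hcost 0 (l • B10) (by constructor <;> simp) (leg8_smul hl.le) hle
    show lam (xt kp 0 0) - lam (xt kp 0 _) ≤ 4 * l
    rw [Kw647.vec_zero] at h1
    refine h1.trans (le_of_eq ?_)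
    simp [Fin.sum_univ_succ, B10]
    ring
  · intro l hl
    refine ContinuousAt.continuousWithinAt ?_
    rw [Metric.continuousAt_iff]
    intro ε hε
    have hl' : (0:ℝ) < l := hl
    refine ⟨min (ε / 5) (l / 2), by positivity, fun {x} hx => ?_⟩
    rw [Real.dist_eq] at hx
    have h5 : |x - l| < ε / 5 := hx.trans_le (min_le_left _ _)
    have h6 : |x - l| < l / 2 := hx.trans_le (min_le_right _ _)
    rw [abs_lt] at h5 h6
    have hx0 : 0 < x := by linarith [h6.1]
    rw [Real.dist_eq]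
    rcases le_total x l with h | h
    · have := hlip x l hx0 h
      refine lt_of_le_of_lt this ?_
      linarith [h5.1]
    · have := hlip l x hl' h
      rw [abs_sub_comm] at this
      refine lt_of_le_of_lt this ?_
      linarith [h5.2]
  · intro l hl
    have h1 := hanti (nat8 0 l 0) (l • B10) (leg8_nat _ _ _) (leg8_smul hl.le) (by
      intro i
      fin_cases i <;> simp [nat8, B10] <;> linarith)
    have h2 := hD l hl
    have hz' : lam (xt kp 0 (0 : K8 → ℝ)) = 0 := hz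
    show lam (xt kp 0 _) ≤ lam (xt kp 0 0) - (3 + qa) * l
    rw [hz']
    linarith

/-! ### `D` live -/

/-- offset `(1, 0)`, flags frozen at the record -/
def B10' : Fin 9 → ℝ := ![0, 1, 0, 1, 0, 2, 0, 0, 0]

theorem sok9 {θa θb : ℝ} (ha : 0 < θa) (hb : θb < 0) (hD : 0 < 2 * θa - θb - 1) :
    SOk (nat9 1 (-θa) (-θb)) B10' 1 := by
  refine ⟨Or.inl rfl, fun t => ?_, fun t ht => ?_⟩
  · fin_cases t <;> simp [B10']
  · fin_cases t <;> simp [B10'] at ht <;> simp [nat9] <;> linarith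

theorem leg9 : Leg9 B10' := by
  constructor <;> simp [B10'] <;> norm_num

theorem leg9_smul {l : ℝ} (hl : 0 ≤ l) : Leg9 (l • B10') := by
  constructor <;> simp [B10'] <;> linarith

theorem aln9 {θa θb : ℝ} (ha : 0 < θa) (hb : θb < 0) (hD : 0 < 2 * θa - θb - 1) :
    Aln (nat9 1 (-θa) (-θb)) B10' 1 := by
  intro t ht h
  fin_cases t
  all_goals simp [nat9, B10'] at h ht
  all_goals linarith

/-- `C` raised by `e`, `X` by `e'` -/
def up9 (l e e' : ℝ) : Fin 9 → ℝ := ![0, l + e, 0, l + e', 0, 2 * l, 0, 0, 0]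

theorem up9_leg {l e e' : ℝ} (hl : 0 ≤ l) (he : 0 ≤ e) (he' : 0 ≤ e') (hee : e' ≤ e) :
    Leg9 (up9 l e e') := by
  constructor <;> simp [up9] <;> linarith

theorem e9_add (l e : ℝ) : RL9.vec (l • B10') + e • RL9.e 1 = RL9.vec (up9 l e 0) := by
  funext i
  simp only [RS.vec, RS.e, Pi.add_apply, Pi.smul_apply, smul_eq_mul]
  have : ∀ t : Fin 9, RL9.mu i * (l * B10' t) + e * (if t = 1 then RL9.mu i else 0) =
      RL9.mu i * up9 l e 0 t := by
    intro t
    have h : up9 l e 0 t = l * B10' t + e * (if t = 1 then 1 else 0) := by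
      fin_cases t <;> simp [B10', up9]
      ring
    rw [h]
    split_ifs <;> ring
  exact this (RL9.cls i)

theorem e9_add2 (l e e' : ℝ) : RL9.vec (up9 l e 0) + e' • RL9.e 3 = RL9.vec (up9 l e e') := by
  funext i
  simp only [RS.vec, RS.e, Pi.add_apply, Pi.smul_apply, smul_eq_mul]
  have : ∀ t : Fin 9, RL9.mu i * up9 l e 0 t + e' * (if t = 3 then RL9.mu i else 0) =
      RL9.mu i * up9 l e e' t := by
    intro t
    fin_cases t <;> simp [up9] <;> ring
  exact this (RL9.cls i)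

theorem B10'_eq : RL9.vec B10' = RL9.e 1 + RL9.e 3 + (2:ℝ) • RL9.e 5 := by
  funext i
  simp only [RS.vec, RS.e, Pi.add_apply, Pi.smul_apply, smul_eq_mul]
  have : ∀ t : Fin 9, RL9.mu i * B10' t = (if t = 1 then RL9.mu i else 0) +
      (if t = 3 then RL9.mu i else 0) + 2 * (if t = 5 then RL9.mu i else 0) := by
    intro t
    fin_cases t <;> simp [B10'] <;> ring
  exact this (RL9.cls i)

theorem mem9 {x0 a b : Fin 12 → ℝ} {d : Fin 9 → ℝ} (hd : Leg9 d) :
    RL9.vec d ∈ (mw monL).L x0 a b := by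
  intro w _
  have h1 := RL9_mem hd w
  have h2 : (mw monL).cst w = 0 := rfl
  rw [h2, add_zero] at h1
  exact h1

/-- **`q_a ≤` rate of `C_a` on the frozen plane `(1, 0)`**, `D` live -/
theorem pos9 {θa θb c0 qa : ℝ} {lam : (Fin 12 → ℝ) → ℝ} {ρ : Fin 9 → ℝ}
    (hc0 : 0 < c0) (ha : 0 < θa) (hb : θb < 0) (hDb : 0 < 2 * θa - θb - 1)
    (hR : Rates9 θa θb B10' 1 c0 lam ρ)
    (hcost : ∀ w w' : Fin 9 → ℝ, Leg9 w → Leg9 w' → w ≤ w' →
      lam (RL9.vec w) - lam (RL9.vec w') ≤ ∑ t, (if t = 6 then 2 else 1) * (w' t - w t))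
    (hanti : ∀ w w' : Fin 9 → ℝ, Leg9 w → Leg9 w' → w ≤ w' →
      lam (RL9.vec w') ≤ lam (RL9.vec w))
    (h0 : lam 0 = 0) (hD : ∀ l : ℝ, 0 < l → lam (RL9.vec (nat9 0 l 0)) ≤ -(3 + qa) * l) :
    qa ≤ ρ 1 := by
  have hA : nat9 1 (-θa) (-θb) 1 ≠ 0 := by simp [nat9]; exact ha.ne'
  have hr := hR.alone 1 (aln9 ha hb hDb) hA
  have hlip : ∀ l l' : ℝ, 0 < l → l ≤ l' →
      |lam (RL9.vec (l • B10')) - lam (RL9.vec (l' • B10'))| ≤ 4 * (l' - l) := by
    intro l l' hl hll
    have hle : l • B10' ≤ l' • B10' := by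
      intro i
      fin_cases i <;> simp [B10'] <;> linarith
    have h1 := hcost _ _ (leg9_smul hl.le) (leg9_smul (hl.le.trans hll)) hle
    have h2 := hanti _ _ (leg9_smul hl.le) (leg9_smul (hl.le.trans hll)) hle
    have h3 : ∑ t : Fin 9, (if t = 6 then (2:ℝ) else 1) * ((l' • B10') t - (l • B10') t) =
        4 * (l' - l) := by
      simp [Fin.sum_univ_succ, B10']
      ring
    rw [h3] at h1
    rw [abs_of_nonneg (by linarith)]
    exact h1
  refine pos10 RL9 (lam := lam) (sok9 ha hb hDb) hc0 hr B10'_eq ?_ ?_ ?_ (K := 4) ?_ ?_ ?_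
  · have h1 : RL9.e 1 = RL9.vec (up9 0 1 0) := by
      have := e9_add 0 1
      rw [zero_smul, one_smul, Kw647.vec_zero, zero_add] at this
      exact this
    rw [h1]
    exact mem9 (up9_leg le_rfl zero_le_one le_rfl zero_le_one)
  · intro l ε hl hε
    rw [e9_add, e9_add2]
    have h1 := hcost (up9 l ε 0) (up9 l ε ε) (up9_leg hl.le hε.le le_rfl hε.le)
      (up9_leg hl.le hε.le hε.le le_rfl) (by
        intro i
        fin_cases i <;> simp [up9] <;> linarith)
    refine h1.trans (le_of_eq ?_)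
    simp [Fin.sum_univ_succ, up9]
  · intro l ε hl hε
    rw [e9_add, e9_add2]
    have h1 := hcost (up9 l ε ε) ((l + ε) • B10') (up9_leg hl.le hε.le hε.le le_rfl)
      (leg9_smul (by linarith)) (by
        intro i
        fin_cases i <;> simp [up9, B10'] <;> linarith)
    refine h1.trans (le_of_eq ?_)
    simp [Fin.sum_univ_succ, up9, B10']
    ring
  · intro l hl
    have hle : (0 : Fin 9 → ℝ) ≤ l • B10' := by
      intro i
      fin_cases i <;> simp [B10'] <;> linarith
    have h1 := hcost 0 (l • B10') (by constructor <;> simp) (leg9_smul hl.le) hle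
    rw [Kw647.vec_zero] at h1
    refine h1.trans (le_of_eq ?_)
    simp [Fin.sum_univ_succ, B10']
    ring
  · intro l hl
    refine ContinuousAt.continuousWithinAt ?_
    rw [Metric.continuousAt_iff]
    intro ε hε
    have hl' : (0:ℝ) < l := hl
    refine ⟨min (ε / 5) (l / 2), by positivity, fun {x} hx => ?_⟩
    rw [Real.dist_eq] at hx
    have h5 : |x - l| < ε / 5 := hx.trans_le (min_le_left _ _)
    have h6 : |x - l| < l / 2 := hx.trans_le (min_le_right _ _)
    rw [abs_lt] at h5 h6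
    have hx0 : 0 < x := by linarith [h6.1]
    rw [Real.dist_eq]
    rcases le_total x l with h | h
    · have := hlip x l hx0 h
      refine lt_of_le_of_lt this ?_
      linarith [h5.1]
    · have := hlip l x hl' h
      rw [abs_sub_comm] at this
      refine lt_of_le_of_lt this ?_
      linarith [h5.2]
  · intro l hl
    have h1 := hanti (nat9 0 l 0) (l • B10') (leg9_nat _ _ _) (leg9_smul hl.le) (by
      intro i
      fin_cases i <;> simp [nat9, B10'] <;> linarith)
    have h2 := hD l hl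
    rw [h0]
    linarith

end Crest.Agent.R116.Pos126
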