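import Crest.Agent.R116.Tp1_139
import Crest.Agent.R116.RbM2_219

/-!
# R116 (K side, ties), the planes `T⁺ = oS`, `(1, 0) = oP`, also with `D` live (helper139)

The side above of an `e`-plane is taken with all flags frozen at the record: offset `oS`
(`B` and `z` are parallel there anyway).
* RL8 : `ant_eS`, `pos_eS`
* RL9 (slot `8` = `D`, offset `0` = frozen at the record): `oS9`, `oP9`, `kU9`, `kD9`,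
  `eD9 k` (`k > 1`); `sok_*`, `leg_*`, `aln_*`, `ant_*`, `pos_*`
-/

set_option autoImplicit false
set_option linter.unusedVariables false
set_option linter.unusedSimpArgs false

open Set Filter Topology

namespace Crest.Agent.R116.Tp139

open Crest.Agent.R136
open Dg219 (Walls mw)
open Sl741 (slice xt rs)
open Dg262 (SupOn)
open RbK219 RbM219
open ChL222 (monL)

variable {θ θb k k' : ℝ}

/-! ### eight slots -/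

section cmp

variable {t : ℝ} {lam : (Fin 12 → ℝ) → ℝ} {M : Set (K8 → ℝ)}
  {c₁ c₂ : ℝ} {ρ₁ ρ₂ : Fin 8 → ℝ}
  (hs : SupOn (fun c => lam (xt kp 0 c)) M) (hθ : 0 < θ) (hk : 0 < k) (hc₁ : 0 < c₁)
  (hc₂ : 0 < c₂)
include hs hθ hk hc₁ hc₂

/-- `e`-tie : rate of `C_a` on `T⁺` ≤ rate on `T⁻` -/
theorem ant_eS (hb : θb = θ - k)
    (hM₁ : (srf8 θ θb t (eD k) (-1)).LW (Q8 t) c₁ ⊆ M)
    (hM₂ : (srf8 θ θb t oS 1).LW (Q8 t) c₂ ⊆ M)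
    (r₁ : Rates8 θ θb t (eD k) (-1) c₁ lam ρ₁) (r₂ : Rates8 θ θb t oS 1 c₂ lam ρ₂) :
    ρ₂ 1 ≤ ρ₁ 1 := by
  have h1 := mul_pos hθ hk
  have h2 := mul_pos hk hk
  have h3 := mul_pos hθ hθ
  refine cl8 hs hθ (sok_eD hθ hk hb) (sok_oS (by linarith) (by linarith)) (aln_eD hθ hk hb)
    (aln_oS (by linarith) (by linarith)) hc₁ hc₂ hM₁ hM₂ r₁ r₂ (-(2 * k)) 0 θ (θ * k) hθ h1
    ?_ ?_
  · subst hb
    refine all8 ?_ ?_ ?_ ?_ ?_ ?_ ?_ ?_ <;> ev8 <;> nlinarith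
  · ev8; ring

/-- `e`-tie, `θb < 0` : rate of `C_a` on `(1, 0)` ≤ rate on `T⁺` -/
theorem pos_eS (hb : θb = θ - k) (hb0 : θb < 0)
    (hM₁ : (srf8 θ θb t oS 1).LW (Q8 t) c₁ ⊆ M)
    (hM₂ : (srf8 θ θb t oP 1).LW (Q8 t) c₂ ⊆ M)
    (r₁ : Rates8 θ θb t oS 1 c₁ lam ρ₁) (r₂ : Rates8 θ θb t oP 1 c₂ lam ρ₂) :
    ρ₂ 1 ≤ ρ₁ 1 := by
  refine cl8 hs hθ (sok_oS (by linarith) (by linarith))
    (sok_oP (by linarith) (by linarith) hb0) (aln_oS (by linarith) (by linarith))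
    (aln_oP (by linarith) (by linarith) hb0) hc₁ hc₂ hM₁ hM₂ r₁ r₂ (-1) 0
    (k - θ) k (by linarith) hk ?_ ?_
  · subst hb
    refine all8 ?_ ?_ ?_ ?_ ?_ ?_ ?_ ?_ <;> ev8 <;> nlinarith
  · ev8; ring

end cmp

/-! ### nine slots, `D` live -/

/-- `S₁` or `T⁺` of an `e`-plane, all flags frozen at the record -/
def oS9 : Fin 9 → ℝ := ![0, 1, 1, 1, 1, 2, 0, 0, 0]
/-- `(1, 0)`, all flags frozen at the record -/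
def oP9 : Fin 9 → ℝ := ![0, 1, 0, 1, 0, 2, 0, 0, 0]
/-- `T⁺` of the `κ`-plane -/
def kU9 : Fin 9 → ℝ := nat9 0 1 2
/-- `T⁻` of the `κ`-plane -/
def kD9 : Fin 9 → ℝ := nat9 0 (-1) (-2)
/-- `T⁻` of the `e`-plane, `k > 1` -/
def eD9 (k : ℝ) : Fin 9 → ℝ := nat9 (-1) (-(k - 1)) (-(2 * k - 1))

theorem all9 {P : Fin 9 → Prop} (h0 : P 0) (h1 : P 1) (h2 : P 2) (h3 : P 3) (h4 : P 4) (h5 : P 5)
    (h6 : P 6) (h7 : P 7) (h8 : P 8) : ∀ t, P t := by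
  intro t; fin_cases t <;> assumption

section vals
variable (v c p : ℝ)
theorem m0 : nat9 v c p 0 = v := rfl
theorem m1 : nat9 v c p 1 = c := rfl
theorem m2 : nat9 v c p 2 = p := rfl
theorem m3 : nat9 v c p 3 = v + c := rfl
theorem m4 : nat9 v c p 4 = v + p := rfl
theorem m5 : nat9 v c p 5 = v + 2 * c := rfl
theorem m6 : nat9 v c p 6 = p - c := rfl
theorem m7 : nat9 v c p 7 = p - 2 * c := rfl
theorem m8 : nat9 v c p 8 = p - 2 * c - v := rfl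
theorem t0 : oS9 0 = 0 := rfl
theorem t1 : oS9 1 = 1 := rfl
theorem t2 : oS9 2 = 1 := rfl
theorem t3 : oS9 3 = 1 := rfl
theorem t4 : oS9 4 = 1 := rfl
theorem t5 : oS9 5 = 2 := rfl
theorem t6 : oS9 6 = 0 := rfl
theorem t7 : oS9 7 = 0 := rfl
theorem t8 : oS9 8 = 0 := rfl
theorem q0 : oP9 0 = 0 := rfl
theorem q1 : oP9 1 = 1 := rfl
theorem q2 : oP9 2 = 0 := rfl
theorem q3 : oP9 3 = 1 := rfl
theorem q4 : oP9 4 = 0 := rfl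
theorem q5 : oP9 5 = 2 := rfl
theorem q6 : oP9 6 = 0 := rfl
theorem q7 : oP9 7 = 0 := rfl
theorem q8 : oP9 8 = 0 := rfl
end vals

/-- evaluate all entries -/
macro "ev9" : tactic => `(tactic| simp only [eD9, kU9, kD9, m0, m1, m2, m3, m4, m5, m6, m7, m8,
  t0, t1, t2, t3, t4, t5, t6, t7, t8, q0, q1, q2, q3, q4, q5, q6, q7, q8] at *)

theorem sok_oS9 (hb : θb < θ) (hb2 : θb < 2 * θ - 1) (hθ : 0 < θ) :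
    SOk (nat9 1 (-θ) (-θb)) oS9 1 where
  sg1 := Or.inl rfl
  nn := by refine all9 ?_ ?_ ?_ ?_ ?_ ?_ ?_ ?_ ?_ <;> ev9 <;> linarith
  zero := by refine all9 ?_ ?_ ?_ ?_ ?_ ?_ ?_ ?_ ?_ <;> intro h <;> ev9 <;> linarith

theorem sok_oP9 (hb : θb < θ) (hb2 : θb < 2 * θ - 1) (hb0 : θb < 0) (hθ : 0 < θ) :
    SOk (nat9 1 (-θ) (-θb)) oP9 1 where
  sg1 := Or.inl rfl
  nn := by refine all9 ?_ ?_ ?_ ?_ ?_ ?_ ?_ ?_ ?_ <;> ev9 <;> linarith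
  zero := by refine all9 ?_ ?_ ?_ ?_ ?_ ?_ ?_ ?_ ?_ <;> intro h <;> ev9 <;> linarith

theorem sok_kU9 (hk : 1 < k) (hb : θb = 2 * θ - k) : SOk (nat9 1 (-θ) (-θb)) kU9 1 where
  sg1 := Or.inl rfl
  nn := by refine all9 ?_ ?_ ?_ ?_ ?_ ?_ ?_ ?_ ?_ <;> ev9 <;> linarith
  zero := by refine all9 ?_ ?_ ?_ ?_ ?_ ?_ ?_ ?_ ?_ <;> intro h <;> ev9 <;> linarith

theorem sok_kD9 (hk : 1 < k) (hb : θb = 2 * θ - k) : SOk (nat9 1 (-θ) (-θb)) kD9 (-1) where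
  sg1 := Or.inr rfl
  nn := by refine all9 ?_ ?_ ?_ ?_ ?_ ?_ ?_ ?_ ?_ <;> ev9 <;> linarith
  zero := by refine all9 ?_ ?_ ?_ ?_ ?_ ?_ ?_ ?_ ?_ <;> intro h <;> ev9 <;> linarith

theorem sok_eD9 (hθ : 0 < θ) (hk : 1 < k) (hb : θb = θ - k) :
    SOk (nat9 1 (-θ) (-θb)) (eD9 k) (-1) where
  sg1 := Or.inr rfl
  nn := by refine all9 ?_ ?_ ?_ ?_ ?_ ?_ ?_ ?_ ?_ <;> ev9 <;> linarith
  zero := by refine all9 ?_ ?_ ?_ ?_ ?_ ?_ ?_ ?_ ?_ <;> intro h <;> ev9 <;> linarith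

theorem leg_eD9 : Leg9 (eD9 k) := leg9_nat _ _ _
theorem leg_kU9 : Leg9 kU9 := leg9_nat _ _ _
theorem leg_kD9 : Leg9 kD9 := leg9_nat _ _ _
theorem leg_oS9 : Leg9 oS9 := by constructor <;> ev9 <;> norm_num
theorem leg_oP9 : Leg9 oP9 := by constructor <;> ev9 <;> norm_num

theorem aln_oS9 (hb : θb < θ) (hb2 : θb < 2 * θ - 1) (hθ : 0 < θ) :
    Aln (nat9 1 (-θ) (-θb)) oS9 1 := by
  refine all9 ?_ ?_ ?_ ?_ ?_ ?_ ?_ ?_ ?_ <;> intro ht h <;>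
    first | exact ht rfl | (ev9; nlinarith)

theorem aln_oP9 (hb : θb < θ) (hb2 : θb < 2 * θ - 1) (hb0 : θb < 0) (hθ : 0 < θ) :
    Aln (nat9 1 (-θ) (-θb)) oP9 1 := by
  refine all9 ?_ ?_ ?_ ?_ ?_ ?_ ?_ ?_ ?_ <;> intro ht h <;>
    first | exact ht rfl | (ev9; nlinarith)

theorem aln_kU9 (hθ : 0 < θ) (hk : 1 < k) (hb : θb = 2 * θ - k) :
    Aln (nat9 1 (-θ) (-θb)) kU9 1 := by
  subst hb
  refine all9 ?_ ?_ ?_ ?_ ?_ ?_ ?_ ?_ ?_ <;> intro ht h <;>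
    first | exact ht rfl | (ev9; nlinarith)

theorem aln_kD9 (hθ : 0 < θ) (hk : 1 < k) (hb : θb = 2 * θ - k) :
    Aln (nat9 1 (-θ) (-θb)) kD9 1 := by
  subst hb
  refine all9 ?_ ?_ ?_ ?_ ?_ ?_ ?_ ?_ ?_ <;> intro ht h <;>
    first | exact ht rfl | (ev9; nlinarith)

theorem aln_eD9 (hθ : 0 < θ) (hk : 1 < k) (hb : θb = θ - k) :
    Aln (nat9 1 (-θ) (-θb)) (eD9 k) 1 := by
  have h1 := mul_pos hθ (by linarith : 0 < k)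
  have h2 := mul_pos (by linarith : 0 < k) (by linarith : 0 < k - 1)
  subst hb
  refine all9 ?_ ?_ ?_ ?_ ?_ ?_ ?_ ?_ ?_ <;> intro ht h <;>
    first | exact ht rfl | (ev9; nlinarith)

theorem A1_ne9 (hθ : 0 < θ) : nat9 1 (-θ) (-θb) 1 ≠ 0 := by ev9; linarith

section cmp9

variable {lam : (Fin 12 → ℝ) → ℝ} {M : Set (Fin 12 → ℝ)} {B₁ B₂ : Fin 9 → ℝ}
  {sg₁ sg₂ c₁ c₂ : ℝ} {ρ₁ ρ₂ : Fin 9 → ℝ}

/-- (CL) for `C_a` -/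
theorem cl9' (hs : SupOn lam M) (hθ : 0 < θ)
    (h₁ : SOk (nat9 1 (-θ) (-θb)) B₁ sg₁) (h₂ : SOk (nat9 1 (-θ) (-θb)) B₂ sg₂)
    (a₁ : Aln (nat9 1 (-θ) (-θb)) B₁ 1) (a₂ : Aln (nat9 1 (-θ) (-θb)) B₂ 1)
    (hc₁ : 0 < c₁) (hc₂ : 0 < c₂)
    (hM₁ : (srf9 θ θb B₁ sg₁).LW (mw monL) c₁ ⊆ M) (hM₂ : (srf9 θ θb B₂ sg₂).LW (mw monL) c₂ ⊆ M)
    (r₁ : Rates9 θ θb B₁ sg₁ c₁ lam ρ₁) (r₂ : Rates9 θ θb B₂ sg₂ c₂ lam ρ₂)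
    (α₁ α₂ l₁ l₂ : ℝ) (hl₁ : 0 < l₁) (hl₂ : 0 < l₂)
    (hle : ∀ i, l₁ * B₁ i + α₁ * nat9 1 (-θ) (-θb) i ≤ l₂ * B₂ i + α₂ * nat9 1 (-θ) (-θb) i)
    (heq : l₁ * B₁ 1 + α₁ * nat9 1 (-θ) (-θb) 1 = l₂ * B₂ 1 + α₂ * nat9 1 (-θ) (-θb) 1) :
    ρ₂ 1 ≤ ρ₁ 1 :=
  RL9.cl hs h₁ h₂ RL9_full RL9_full hc₁ hc₂ hM₁ hM₂ a₁ a₂ (r₁.alone 1 a₁ (A1_ne9 hθ))
    (r₂.alone 1 a₂ (A1_ne9 hθ)) hl₁ hl₂ hle heq

variable (hs : SupOn lam M) (hθ : 0 < θ) (hc₁ : 0 < c₁) (hc₂ : 0 < c₂)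
include hs hθ hc₁ hc₂

/-- `e`-tie, `k > 1` : rate of `C_a` on `T⁺` ≤ rate on `T⁻` -/
theorem ant_e9 (hk : 1 < k) (hb : θb = θ - k)
    (hM₁ : (srf9 θ θb (eD9 k) (-1)).LW (mw monL) c₁ ⊆ M)
    (hM₂ : (srf9 θ θb oS9 1).LW (mw monL) c₂ ⊆ M)
    (r₁ : Rates9 θ θb (eD9 k) (-1) c₁ lam ρ₁) (r₂ : Rates9 θ θb oS9 1 c₂ lam ρ₂) :
    ρ₂ 1 ≤ ρ₁ 1 := by
  have hk1 : 0 < k - 1 := by linarith
  have h1 := mul_pos hθ hk1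
  have h2 := mul_pos hk1 hk1
  have h3 := mul_pos hθ hθ
  refine cl9' hs hθ (sok_eD9 hθ hk hb) (sok_oS9 (by linarith) (by linarith) hθ)
    (aln_eD9 hθ hk hb) (aln_oS9 (by linarith) (by linarith) hθ) hc₁ hc₂ hM₁ hM₂ r₁ r₂
    (-(2 * (k - 1))) 0 θ (θ * (k - 1)) hθ h1 ?_ ?_
  · subst hb
    refine all9 ?_ ?_ ?_ ?_ ?_ ?_ ?_ ?_ ?_ <;> ev9 <;> nlinarith
  · ev9; ring

/-- double tie, `k' > 1` : rate of `C_a` on `T⁺` ≤ rate on `T⁻` (`κ`-plane) -/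
theorem ant_d9 (hk : 1 < k) (hb : θb = 2 * θ - k) (hb1 : θb < θ)
    (hM₁ : (srf9 θ θb kD9 (-1)).LW (mw monL) c₁ ⊆ M)
    (hM₂ : (srf9 θ θb oS9 1).LW (mw monL) c₂ ⊆ M)
    (r₁ : Rates9 θ θb kD9 (-1) c₁ lam ρ₁) (r₂ : Rates9 θ θb oS9 1 c₂ lam ρ₂) :
    ρ₂ 1 ≤ ρ₁ 1 := by
  have h1 := mul_pos hθ (by linarith : 0 < k)
  have h2 := mul_pos (by linarith : 0 < k) (by linarith : 0 < k)
  have h3 := mul_pos hθ hθ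
  have h4 := mul_pos hθ (by linarith : 0 < k - 1)
  have h5 := mul_pos (by linarith : 0 < k) (by linarith : 0 < k - 1)
  refine cl9' hs hθ (sok_kD9 hk hb) (sok_oS9 hb1 (by linarith) hθ) (aln_kD9 hθ hk hb)
    (aln_oS9 hb1 (by linarith) hθ) hc₁ hc₂ hM₁ hM₂ r₁ r₂ (-(2 * (θ + k))) 0
    (θ * (2 * θ + k)) (θ * k) (by nlinarith) h1 ?_ ?_
  · subst hb
    refine all9 ?_ ?_ ?_ ?_ ?_ ?_ ?_ ?_ ?_ <;> ev9 <;> nlinarith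
  · ev9; ring

/-- `e`-tie or double tie, `θb < 0` : rate of `C_a` on `(1, 0)` ≤ rate on `T⁺` -/
theorem pos_e9 (hk : 0 < k) (hk1 : 1 < θ + k) (hb : θb = θ - k) (hb0 : θb < 0)
    (hM₁ : (srf9 θ θb oS9 1).LW (mw monL) c₁ ⊆ M)
    (hM₂ : (srf9 θ θb oP9 1).LW (mw monL) c₂ ⊆ M)
    (r₁ : Rates9 θ θb oS9 1 c₁ lam ρ₁) (r₂ : Rates9 θ θb oP9 1 c₂ lam ρ₂) :
    ρ₂ 1 ≤ ρ₁ 1 := by
  refine cl9' hs hθ (sok_oS9 (by linarith) (by linarith) hθ)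
    (sok_oP9 (by linarith) (by linarith) hb0 hθ) (aln_oS9 (by linarith) (by linarith) hθ)
    (aln_oP9 (by linarith) (by linarith) hb0 hθ) hc₁ hc₂ hM₁ hM₂ r₁ r₂ (-1) 0
    (k - θ) k (by linarith) hk ?_ ?_
  · subst hb
    refine all9 ?_ ?_ ?_ ?_ ?_ ?_ ?_ ?_ ?_ <;> ev9 <;> nlinarith
  · ev9; ring

/-- `κ`-tie, `θb < 0` : rate of `C_a` on `(1, 0)` ≤ rate on `T⁺` -/
theorem pos_k9 (hk : 1 < k) (hb : θb = 2 * θ - k) (hb0 : θb < 0)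
    (hM₁ : (srf9 θ θb kU9 1).LW (mw monL) c₁ ⊆ M)
    (hM₂ : (srf9 θ θb oP9 1).LW (mw monL) c₂ ⊆ M)
    (r₁ : Rates9 θ θb kU9 1 c₁ lam ρ₁) (r₂ : Rates9 θ θb oP9 1 c₂ lam ρ₂) :
    ρ₂ 1 ≤ ρ₁ 1 := by
  refine cl9' hs hθ (sok_kU9 hk hb) (sok_oP9 (by linarith) (by linarith) hb0 hθ)
    (aln_kU9 hθ hk hb) (aln_oP9 (by linarith) (by linarith) hb0 hθ) hc₁ hc₂ hM₁ hM₂ r₁ r₂
    (-2) 0 (k - 2 * θ) k (by linarith) (by linarith) ?_ ?_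
  · subst hb
    refine all9 ?_ ?_ ?_ ?_ ?_ ?_ ?_ ?_ ?_ <;> ev9 <;> nlinarith
  · ev9; ring

end cmp9

end Crest.Agent.R116.Tp139
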