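import Crest.Agent.R116.Pos3_126
import Crest.Agent.R116.Tp2_139
import Crest.Agent.R116.Rcx3_363

/-!
# R116, K-TEXT II-c (ties), `q_a ≤` rate of `C_a` on the planes BELOW the record (helper348)

* `posA`            : abstract version over any system of ray slots
* `posA8`, `posA9`  : from `anti`, `cost`, `sm`, D-max of the record tangent (letters of `Prf`, `Rx`)
* `posA_kD`, `posA_eD`, `posA_kD9`, `posA_eD9` : the planes `T⁻`
-/

set_option autoImplicit false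
set_option linter.unusedSectionVars false
set_option linter.unusedVariables false

open Set Filter Topology Metric MeasureTheory

namespace Crest.Agent.R116.PosA348

open Crest.Agent.R136
open Dg219 (Tn lf Cone Walls mw)
open Dg262 (SupOn)
open SgO219 (PP)
open Sl741 (slice xt rs)
open Crest.Agent.R116.RbK219
open Crest.Agent.R116.RbM219
open ChL222 (monL)
open Crest.Agent.R116.PL504 (eL)
open Crest.Agent.R116.Xd954 (cs xs)
open Crest.Agent.R116.Sg337 (coneL DL)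
open Crest.Agent.R116.Pos126
open Crest.Agent.R116.Tp139 hiding cl8
open Crest.Agent.R116.Rcx363

section abs

variable {ι W τ : Type*} [Fintype ι] [DecidableEq ι] [Fintype W] [Fintype τ] [DecidableEq τ]

/-- **abstract** : a point of the surface below the record with the entry `0` in the slot `tC` -/
theorem posA (R : RS ι τ) {lam : (ι → ℝ) → ℝ} {y0 : ι → ℝ} {A B : τ → ℝ} {sg : ℝ}
    (h : SOk A B sg) {Q : Walls ι W} {c0 : ℝ} (hc0 : 0 < c0) {tC : τ} {m : ℝ}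
    (hr : R.RateAt lam ((R.srf y0 A B sg).LW Q c0) tC m)
    (hL : R.e tC ∈ (R.srf y0 A B sg).L Q) {M : Set (ι → ℝ)} (hs : SupOn lam M)
    (hM : (R.srf y0 A B sg).LW Q c0 ⊆ M) {l α : ℝ} (hl : 0 < l)
    (hle : ∀ t, l * B t + α * A t ≤ 0) (heq : l * B tC + α * A tC = 0)
    (h0 : (0 : ι → ℝ) ∈ M) (h1 : ∀ y : ℝ, 0 < y → y • R.e tC ∈ M) {q : ℝ}
    (hq : ∀ y : ℝ, 0 < y → q * y ≤ lam 0 - lam (y • R.e tC)) : q ≤ m := by
  have hN : 0 < 1 + ‖R.e tC‖ := by positivity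
  obtain ⟨y, hy0, hy⟩ : ∃ y : ℝ, 0 < y ∧ y ≤ c0 * l / (1 + ‖R.e tC‖) :=
    ⟨c0 * l / (1 + ‖R.e tC‖), by positivity, le_rfl⟩
  rw [le_div_iff₀ hN] at hy
  have hn : ‖y • R.e tC‖ ≤ c0 * l := by
    rw [norm_smul, Real.norm_of_nonneg hy0.le]
    nlinarith [norm_nonneg (R.e tC)]
  have p1 := h.memLW (R := R) (y0 := y0) (Q := Q) (c0 := c0) (α := α) hl.le
    ((Walls.cone (Q := Q)).zero) (by rw [norm_zero]; positivity)
  have p2 := h.memLW (R := R) (y0 := y0) (Q := Q) (c0 := c0) (α := α) hl.le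
    ((Walls.cone (Q := Q)).smul _ hL _ hy0.le) hn
  rw [add_zero] at p1
  have e1 := hr (R.vec (l • B + α • A)) 0 y (fun i hi => by
    simp only [RS.vec, Pi.add_apply, Pi.smul_apply, smul_eq_mul, hi, heq, mul_zero]) p1 p2
  have hv : ∀ i, R.vec (l • B + α • A) i ≤ 0 := fun i => by
    simp only [RS.vec, Pi.add_apply, Pi.smul_apply, smul_eq_mul]
    exact mul_nonpos_of_nonneg_of_nonpos (R.pos i).le (hle _)
  have hv0 : ∀ i, R.cls i = tC → R.vec (l • B + α • A) i = 0 := fun i hi => by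
    simp only [RS.vec, Pi.add_apply, Pi.smul_apply, smul_eq_mul, hi, heq, mul_zero]
  have hsup : (R.vec (l • B + α • A) + y • R.e tC) ⊔ 0 = y • R.e tC := by
    funext i
    simp only [Pi.sup_apply, Pi.add_apply, Pi.smul_apply, smul_eq_mul, Pi.zero_apply]
    by_cases hi : R.cls i = tC
    · rw [hv0 i hi, zero_add]
      exact max_eq_left (mul_nonneg hy0.le (R.e_nonneg tC i))
    · rw [mem_e_zero hi, mul_zero, add_zero]
      exact max_eq_right (hv i)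
  have hinf : (R.vec (l • B + α • A) + y • R.e tC) ⊓ 0 = R.vec (l • B + α • A) := by
    funext i
    simp only [Pi.inf_apply, Pi.add_apply, Pi.smul_apply, smul_eq_mul, Pi.zero_apply]
    by_cases hi : R.cls i = tC
    · rw [hv0 i hi, zero_add]
      exact min_eq_right (mul_nonneg hy0.le (R.e_nonneg tC i))
    · rw [mem_e_zero hi, mul_zero, add_zero]
      exact min_eq_left (hv i)
  have key := hs _ (hM p2) 0 h0 (by rw [hinf]; exact hM p1) (by rw [hsup]; exact h1 y hy0)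
  rw [hsup, hinf] at key
  have h3 := hq y hy0
  have h4 : q * y ≤ m * y := by linarith
  exact le_of_mul_le_mul_right h4 hy0

end abs

section eight

variable {θ θb t c0 qa : ℝ} {lam : (Fin 12 → ℝ) → ℝ} {B : Fin 8 → ℝ} {sg : ℝ}

theorem slice8 {c : K8 → ℝ} : c ∈ (Q8 t).L (rs kp (y8 t)) (rs kp (r8 θ θb)) 0 ↔
    xt kp 0 c ∈ L8 θ θb t := by
  have hρ : ∀ i, ¬ kp i → r8 θ θb i = 0 := fun i hi => by
    have hi' : i = 1 := not_not.1 hi
    subst hi'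
    unfold r8; rw [Function.update_self]
  exact Sl741.mem_slice_L (Q := mw monL) (p := kp) (v := y8 t) (hp := kp_hd) (x0 := y8 t)
    (a := r8 θ θb) (b := 0) (fun _ _ => rfl) hρ (fun _ _ => rfl) (c := c)

theorem supOn8 (hs : SupOn lam (L8 θ θb t)) : SupOn (fun c => lam (xt kp 0 c))
    ((Q8 t).L (rs kp (y8 t)) (rs kp (r8 θ θb)) 0) := by
  intro p hp q hq h1 h2
  have := hs _ (slice8.1 hp) _ (slice8.1 hq) (by rw [← Sl741.xt_inf]; exact slice8.1 h1)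
    (by rw [← Sl741.xt_sup]; exact slice8.1 h2)
  rw [← Sl741.xt_inf, ← Sl741.xt_sup] at this
  exact this

/-- class form, `D` frozen -/
theorem posA8' (ht : t ≠ 0) (hc0 : 0 < c0) (hθ : 0 < θ) (hS : SOk (nat8 1 (-θ) (-θb)) B sg)
    (hA : Aln (nat8 1 (-θ) (-θb)) B 1) {ρ : Fin 8 → ℝ} (hR : Rates8 θ θb t B sg c0 lam ρ)
    (hs : SupOn lam (L8 θ θb t))
    (hM : (srf8 θ θb t B sg).LW (Q8 t) c0 ⊆ (Q8 t).L (rs kp (y8 t)) (rs kp (r8 θ θb)) 0)
    {l α : ℝ} (hl : 0 < l) (hle : ∀ i, l * B i + α * nat8 1 (-θ) (-θb) i ≤ 0)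
    (heq : l * B 1 + α * nat8 1 (-θ) (-θb) 1 = 0)
    (hcost : ∀ w w' : Fin 8 → ℝ, Leg8 w → Leg8 w' → w ≤ w' →
      lam (xt kp 0 (RL8.vec w)) - lam (xt kp 0 (RL8.vec w')) ≤
        ∑ t, (if t = 6 then 2 else 1) * (w' t - w t))
    (hanti : ∀ w w' : Fin 8 → ℝ, Leg8 w → Leg8 w' → w ≤ w' →
      lam (xt kp 0 (RL8.vec w')) ≤ lam (xt kp 0 (RL8.vec w)))
    (h0 : lam 0 = 0) (hD : ∀ l : ℝ, 0 < l → lam (xt kp 0 (RL8.vec (nat8 0 l 0))) ≤ -(3 + qa) * l) :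
    qa ≤ ρ 1 := by
  have hr := hR.alone 1 hA (A1_ne hθ)
  have he : ∀ y : ℝ, y • RL8.e 1 = RL8.vec (up8 0 y 0) := fun y => by
    have := e8_add 0 y
    rw [zero_smul, Kw647.vec_zero, zero_add] at this
    exact this
  have h1 : RL8.e 1 = RL8.vec (up8 0 1 0) := by rw [← he, one_smul]
  have hz : lam (xt kp 0 (0 : K8 → ℝ)) = 0 := by
    have := xt0
    rw [Kw647.vec_zero] at this
    rw [this, h0]
  refine posA RL8 (lam := fun c : K8 → ℝ => lam (xt kp 0 c)) hS hc0 hr ?_ (supOn8 hs) hM hl hle heq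
    (slice8.2 ?_) (fun y hy => slice8.2 ?_) (fun y hy => ?_)
  · rw [h1]
    exact mem8 ht (up8_leg le_rfl zero_le_one le_rfl zero_le_one)
  · have := memL8 (θa := θ) (θb := θb) ht (d := (0 : Fin 8 → ℝ)) (by constructor <;> simp)
    rw [Kw647.vec_zero] at this
    exact this
  · rw [he]
    exact memL8 ht (up8_leg le_rfl hy.le le_rfl hy.le)
  · show qa * y ≤ lam (xt kp 0 0) - lam (xt kp 0 (y • RL8.e 1))
    rw [he, hz]
    have k1 := hcost (up8 0 y 0) (y • B10) (up8_leg le_rfl hy.le le_rfl hy.le) (leg8_smul hy.le) (by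
      intro i
      fin_cases i <;> simp [up8, B10] <;> linarith)
    have k2 := hanti (nat8 0 y 0) (y • B10) (leg8_nat _ _ _) (leg8_smul hy.le) (by
      intro i
      fin_cases i <;> simp [nat8, B10] <;> linarith)
    have k3 := hD y hy
    have k4 : ∑ t : Fin 8, (if t = 6 then (2:ℝ) else 1) * ((y • B10) t - up8 0 y 0 t) = 3 * y := by
      simp [Fin.sum_univ_succ, up8, B10]
      ring
    rw [k4] at k1
    linarith

variable {s g qb : ℝ} {a b : Fin 2} {Vis : Fin 12 → Prop} {β : Fin 12 → ℝ}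

/-- **letters of `Prf` / `Rx`, `D` frozen** -/
theorem posA8 (ht : t ≠ 0) (hc0 : 0 < c0) (hθ : 0 < θ) (hS : SOk (nat8 1 (-θ) (-θb)) B sg)
    (hA : Aln (nat8 1 (-θ) (-θb)) B 1) {ρ : Fin 8 → ℝ} (hR : Rates8 θ θb t B sg c0 lam ρ)
    (P : Prf (L8 θ θb t) s a b Vis β lam) (zero : lam 0 = 0)
    (dmax : ∀ v c p, lam (Function.update (eL v c p) 1 0) ≤ DL g s qa qb v c p)
    (hM : (srf8 θ θb t B sg).LW (Q8 t) c0 ⊆ (Q8 t).L (rs kp (y8 t)) (rs kp (r8 θ θb)) 0)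
    {l α : ℝ} (hl : 0 < l) (hle : ∀ i, l * B i + α * nat8 1 (-θ) (-θb) i ≤ 0)
    (heq : l * B 1 + α * nat8 1 (-θ) (-θb) 1 = 0) : qa ≤ ρ 1 := by
  have hCx : ∀ w : Fin 8 → ℝ, xt kp 0 (RL8.vec w) (cs b) = xt kp 0 (RL8.vec w) (cs a) ∧
      xt kp 0 (RL8.vec w) (xs b) = xt kp 0 (RL8.vec w) (xs a) := by
    intro w
    rw [xt8_apply, xt8_apply, xt8_apply, xt8_apply]
    fin_cases a <;> fin_cases b <;> exact ⟨rfl, rfl⟩
  refine posA8' ht hc0 hθ hS hA hR P.sm hM hl hle heq (fun w w' h h' hw => ?_)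
    (fun w w' h h' hw => ?_) zero (fun l hl => ?_)
  · rw [← cost_sum8 P.ab w w']
    exact P.cost _ (memL8 ht h) _ (memL8 ht h') (xt8_le hw) (Or.inr (hCx w').1.le)
      (Or.inr (hCx w').2.le)
  · have := (P.anti _ (memL8 ht h) _ (memL8 ht h') (xt8_le hw)).1
    linarith
  · rw [RL8_nat]
    refine (dmax 0 l 0).trans (le_of_eq ?_)
    unfold DL
    ring

/-- `κ`-plane below the record, `D` frozen -/
theorem posA_kD {k : ℝ} (ht : t ≠ 0) (hc0 : 0 < c0) (hθ : 0 < θ) (hk : 0 < k)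
    (hb : θb = 2 * θ - k) {ρ : Fin 8 → ℝ} (hR : Rates8 θ θb t kD (-1) c0 lam ρ)
    (P : Prf (L8 θ θb t) s a b Vis β lam) (zero : lam 0 = 0)
    (dmax : ∀ v c p, lam (Function.update (eL v c p) 1 0) ≤ DL g s qa qb v c p)
    (hM : (srf8 θ θb t kD (-1)).LW (Q8 t) c0 ⊆ (Q8 t).L (rs kp (y8 t)) (rs kp (r8 θ θb)) 0) :
    qa ≤ ρ 1 := by
  refine posA8 ht hc0 hθ (sok_kD hθ hk hb) (aln_kD hθ hk hb) hR P zero dmax hM (l := θ) (α := -1)
    hθ ?_ ?_
  · subst hb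
    refine all8 ?_ ?_ ?_ ?_ ?_ ?_ ?_ ?_ <;> ev8 <;> linarith
  · ev8; ring

/-- `e`-plane below the record, `D` frozen -/
theorem posA_eD {k : ℝ} (ht : t ≠ 0) (hc0 : 0 < c0) (hθ : 0 < θ) (hk : 0 < k)
    (hb : θb = θ - k) {ρ : Fin 8 → ℝ} (hR : Rates8 θ θb t (eD k) (-1) c0 lam ρ)
    (P : Prf (L8 θ θb t) s a b Vis β lam) (zero : lam 0 = 0)
    (dmax : ∀ v c p, lam (Function.update (eL v c p) 1 0) ≤ DL g s qa qb v c p)
    (hM : (srf8 θ θb t (eD k) (-1)).LW (Q8 t) c0 ⊆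
      (Q8 t).L (rs kp (y8 t)) (rs kp (r8 θ θb)) 0) : qa ≤ ρ 1 := by
  have h1 := mul_pos hθ hk
  have h2 := mul_pos hk hk
  refine posA8 ht hc0 hθ (sok_eD hθ hk hb) (aln_eD hθ hk hb) hR P zero dmax hM (l := θ) (α := -k)
    hθ ?_ ?_
  · subst hb
    refine all8 ?_ ?_ ?_ ?_ ?_ ?_ ?_ ?_ <;> ev8 <;> nlinarith
  · ev8; ring

end eight

section nine

variable {θ θb c0 qa : ℝ} {lam : (Fin 12 → ℝ) → ℝ} {B : Fin 9 → ℝ} {sg : ℝ}

/-- class form, `D` live -/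
theorem posA9' (hc0 : 0 < c0) (hθ : 0 < θ) (hS : SOk (nat9 1 (-θ) (-θb)) B sg)
    (hA : Aln (nat9 1 (-θ) (-θb)) B 1) {ρ : Fin 9 → ℝ} (hR : Rates9 θ θb B sg c0 lam ρ)
    (hs : SupOn lam (PP (mw monL))) (hM : (srf9 θ θb B sg).LW (mw monL) c0 ⊆ PP (mw monL))
    {l α : ℝ} (hl : 0 < l) (hle : ∀ i, l * B i + α * nat9 1 (-θ) (-θb) i ≤ 0)
    (heq : l * B 1 + α * nat9 1 (-θ) (-θb) 1 = 0)
    (hcost : ∀ w w' : Fin 9 → ℝ, Leg9 w → Leg9 w' → w ≤ w' →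
      lam (RL9.vec w) - lam (RL9.vec w') ≤ ∑ t, (if t = 6 then 2 else 1) * (w' t - w t))
    (hanti : ∀ w w' : Fin 9 → ℝ, Leg9 w → Leg9 w' → w ≤ w' →
      lam (RL9.vec w') ≤ lam (RL9.vec w))
    (h0 : lam 0 = 0) (hD : ∀ l : ℝ, 0 < l → lam (RL9.vec (nat9 0 l 0)) ≤ -(3 + qa) * l) :
    qa ≤ ρ 1 := by
  have hr := hR.alone 1 hA (A1_ne9 hθ)
  have he : ∀ y : ℝ, y • RL9.e 1 = RL9.vec (up9 0 y 0) := fun y => by
    have := e9_add 0 y
    rw [zero_smul, Kw647.vec_zero, zero_add] at this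
    exact this
  have h1 : RL9.e 1 = RL9.vec (up9 0 1 0) := by rw [← he, one_smul]
  refine posA RL9 (lam := lam) hS hc0 hr ?_ hs hM hl hle heq ?_ (fun y hy => ?_) (fun y hy => ?_)
  · rw [h1]
    exact mem9 (up9_leg le_rfl zero_le_one le_rfl zero_le_one)
  · have := RL9_mem (d := (0 : Fin 9 → ℝ)) (by constructor <;> simp)
    rw [Kw647.vec_zero] at this
    exact this
  · rw [he]
    exact RL9_mem (up9_leg le_rfl hy.le le_rfl hy.le)
  · rw [he, h0]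
    have k1 := hcost (up9 0 y 0) (y • B10') (up9_leg le_rfl hy.le le_rfl hy.le) (leg9_smul hy.le) (by
      intro i
      fin_cases i <;> simp [up9, B10'] <;> linarith)
    have k2 := hanti (nat9 0 y 0) (y • B10') (leg9_nat _ _ _) (leg9_smul hy.le) (by
      intro i
      fin_cases i <;> simp [nat9, B10'] <;> linarith)
    have k3 := hD y hy
    have k4 : ∑ t : Fin 9, (if t = 6 then (2:ℝ) else 1) * ((y • B10') t - up9 0 y 0 t) = 3 * y := by
      simp [Fin.sum_univ_succ, up9, B10']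
      ring
    rw [k4] at k1
    linarith

variable {s g qb : ℝ} {a b : Fin 2} {Vis : Fin 12 → Prop} {β : Fin 12 → ℝ}

/-- **letters of `Prf` / `Rx`, `D` live** -/
theorem posA9 (hc0 : 0 < c0) (hθ : 0 < θ) (hS : SOk (nat9 1 (-θ) (-θb)) B sg)
    (hA : Aln (nat9 1 (-θ) (-θb)) B 1) {ρ : Fin 9 → ℝ} (hR : Rates9 θ θb B sg c0 lam ρ)
    (P : Prf coneL s a b Vis β lam) (zero : lam 0 = 0)
    (dmax : ∀ v c p, lam (eL v c p) ≤ DL g s qa qb v c p)
    (hM : (srf9 θ θb B sg).LW (mw monL) c0 ⊆ PP (mw monL))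
    {l α : ℝ} (hl : 0 < l) (hle : ∀ i, l * B i + α * nat9 1 (-θ) (-θb) i ≤ 0)
    (heq : l * B 1 + α * nat9 1 (-θ) (-θb) 1 = 0) : qa ≤ ρ 1 := by
  have hCx : ∀ w : Fin 9 → ℝ, RL9.vec w (cs b) = RL9.vec w (cs a) ∧
      RL9.vec w (xs b) = RL9.vec w (xs a) := by
    intro w
    rw [vec9_apply, vec9_apply, vec9_apply, vec9_apply]
    fin_cases a <;> fin_cases b <;> exact ⟨rfl, rfl⟩
  refine posA9' hc0 hθ hS hA hR (fun p hp q hq h1 h2 => P.sm p ?_ q ?_ ?_ ?_) hM hl hle heq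
    (fun w w' h h' hw => ?_) (fun w w' h h' hw => ?_) zero (fun l hl => ?_)
  · rw [RbM219.mem_PP] at hp; exact hp
  · rw [RbM219.mem_PP] at hq; exact hq
  · rw [RbM219.mem_PP] at h1; exact h1
  · rw [RbM219.mem_PP] at h2; exact h2
  · rw [← cost_sum9 P.ab w w']
    exact P.cost _ (memC9 h) _ (memC9 h') (vec9_le hw) (Or.inr (hCx w').1.le)
      (Or.inr (hCx w').2.le)
  · have := (P.anti _ (memC9 h) _ (memC9 h') (vec9_le hw)).1
    linarith
  · rw [RL9_nat]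
    refine (dmax 0 l 0).trans (le_of_eq ?_)
    unfold DL
    ring

/-- `κ`-plane below the record, `D` live -/
theorem posA_kD9 {k : ℝ} (hc0 : 0 < c0) (hθ : 0 < θ) (hk : 1 < k) (hb : θb = 2 * θ - k)
    {ρ : Fin 9 → ℝ} (hR : Rates9 θ θb kD9 (-1) c0 lam ρ) (P : Prf coneL s a b Vis β lam)
    (zero : lam 0 = 0) (dmax : ∀ v c p, lam (eL v c p) ≤ DL g s qa qb v c p)
    (hM : (srf9 θ θb kD9 (-1)).LW (mw monL) c0 ⊆ PP (mw monL)) : qa ≤ ρ 1 := by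
  refine posA9 hc0 hθ (sok_kD9 hk hb) (aln_kD9 hθ hk hb) hR P zero dmax hM (l := θ) (α := -1)
    hθ ?_ ?_
  · subst hb
    refine all9 ?_ ?_ ?_ ?_ ?_ ?_ ?_ ?_ ?_ <;> ev9 <;> linarith
  · ev9; ring

/-- `e`-plane below the record, `D` live -/
theorem posA_eD9 {k : ℝ} (hc0 : 0 < c0) (hθ : 0 < θ) (hk : 1 < k) (hb : θb = θ - k)
    {ρ : Fin 9 → ℝ} (hR : Rates9 θ θb (eD9 k) (-1) c0 lam ρ) (P : Prf coneL s a b Vis β lam)
    (zero : lam 0 = 0) (dmax : ∀ v c p, lam (eL v c p) ≤ DL g s qa qb v c p)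
    (hM : (srf9 θ θb (eD9 k) (-1)).LW (mw monL) c0 ⊆ PP (mw monL)) : qa ≤ ρ 1 := by
  have hk1 : 0 < k - 1 := by linarith
  have h1 := mul_pos hθ hk1
  have h2 := mul_pos hk1 hk1
  refine posA9 hc0 hθ (sok_eD9 hθ hk hb) (aln_eD9 hθ hk hb) hR P zero dmax hM (l := θ)
    (α := -(k - 1)) hθ ?_ ?_
  · subst hb
    refine all9 ?_ ?_ ?_ ?_ ?_ ?_ ?_ ?_ ?_ <;> ev9 <;> nlinarith
  · ev9; ring

end nine

end Crest.Agent.R116.PosA348
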