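import Crest.Agent.R116.D0n2_878

/-!
# R116 (K side), LEMMA D0 for `β_D ≤ 0`: the position of the fact [CD] (helper736)

On the plane `Y` the slots `C` (3, 4) and `D` (1) form one group, possibly locked.  The inherited
facts are: every increment of `C` alone at the base is `> 0`, the increment of `D` alone by ONE unit
is `> 0`.

* `pos_CD` : there is a natural shift `natB 0 0 a0`, `0 ≤ a0 < 1` (`D, P, B, E, F` finer by `a0`, all
  walls tight) at which ALL increments of `C` alone and ALL increments of `D` alone are `> 0`.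
* `grp_sub` : boxes which differ only in one group
-/

set_option autoImplicit false
set_option linter.unusedVariables false

open Set Filter Topology

namespace Crest.Agent.R116.PosCD736

open Crest.Agent.R138
open Crest.Agent.R136
open Crest.Agent.R136.Net191
open Crest.Agent.R136.Dg219 (gset OutS)
open Crest.Agent.R116.ChL222
open Crest.Agent.R116.Sg337 (bx9 natB)
open Crest.Agent.R116.SgF665 (wl)
open Crest.Agent.R116.D0F878
open Crest.Agent.R116.D0n878 (natB_mem zero_mem lm_raise)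

/-- `C` alone -/
def eC (y : ℝ) : Fin 12 → ℝ := bx9 0 0 0 y 0 0 0 0 0

/-- `D` alone -/
def eD (y : ℝ) : Fin 12 → ℝ := bx9 0 y 0 0 0 0 0 0 0

theorem eC_off {y : ℝ} {i : Fin 12} (h3 : i ≠ 3) (h4 : i ≠ 4) : eC y i = 0 := by
  fin_cases i <;> first | rfl | exact absurd rfl h3 | exact absurd rfl h4

theorem eD_off {y : ℝ} {i : Fin 12} (h1 : i ≠ 1) : eD y i = 0 := by
  fin_cases i <;> first | rfl | exact absurd rfl h1

theorem eC_nonneg {y : ℝ} (hy : 0 ≤ y) : ∀ i, 0 ≤ eC y i := by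
  intro i; fin_cases i <;> simp [eC, bx9, hy]

theorem eD_nonneg {y : ℝ} (hy : 0 ≤ y) : ∀ i, 0 ≤ eD y i := by
  intro i; fin_cases i <;> simp [eD, bx9, hy]

theorem eC_mem {y : ℝ} (hy : 0 ≤ y) : eC y ∈ LM :=
  lm_raise (eC_nonneg hy) fun k _ h3 h4 => eC_off h3 h4

theorem eD_mem {y : ℝ} (hy : 0 ≤ y) : eD y ∈ LM :=
  lm_raise (eD_nonneg hy) fun k h1 _ _ => eD_off h1

theorem lm_add {p q : Fin 12 → ℝ} (hp : p ∈ LM) (hq : q ∈ LM) : p + q ∈ LM := by
  intro k e he
  have h1 := hp k e he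
  have h2 := hq k e he
  rw [SgF665.wl_add, Pi.add_apply]
  exact add_le_add h1 h2

variable {grp : Fin 12 → ℕ} {L : Set (Fin 12 → ℝ)} {dh : Fin 12 → ℝ} {n : ℕ → ℝ × ℝ}
  {lam : (Fin 12 → ℝ) → ℝ} {A : ℝ × ℝ} {φ : ℕ → (Fin 12 → ℝ) → ℝ} {r : ℕ → ℝ}

/-- boxes which differ only in the slots of one group -/
theorem grp_sub (H : OutS grp L dh n lam A φ r) {c c' : Fin 12 → ℝ} (hc : c ∈ L) (hc' : c' ∈ L)
    {k : ℕ} (hk : k ∈ gset grp) (h : ∀ i, grp i ≠ k → c i = c' i) :
    lam c - lam c' = φ k c - φ k c' := by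
  classical
  rw [H.sum c hc, H.sum c' hc', ← Finset.add_sum_erase _ _ hk, ← Finset.add_sum_erase _ _ hk]
  have : ∑ j ∈ (gset grp).erase k, φ j c = ∑ j ∈ (gset grp).erase k, φ j c' := by
    refine Finset.sum_congr rfl fun j hj => H.loc j _ _ fun i hi => h i ?_
    rw [hi]
    exact (Finset.mem_erase.1 hj).1
  rw [this]
  ring

/-- **the position of [CD]** -/
theorem pos_CD (H : OutS grp L dh n lam A φ r) (hL : LM ⊆ L)
    (h3 : grp 3 = grp 1) (h4 : grp 4 = grp 1)
    (hne : ∀ i, i ≠ 1 → i ≠ 3 → i ≠ 4 → grp i ≠ grp 1)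
    (h0 : lam 0 = 0) (hC : ∀ y, 0 < y → lam (eC y) < 0) (hD : lam (eD 1) < 0) :
    ∃ a0 : ℝ, 0 ≤ a0 ∧ a0 < 1 ∧
      (∀ y, 0 < y → lam (natB 0 0 a0 + eC y) < lam (natB 0 0 a0)) ∧
      ∀ y, 0 < y → lam (natB 0 0 a0 + eD y) < lam (natB 0 0 a0) := by
  classical
  set k := grp 1 with hkdef
  have hk : k ∈ gset grp := by
    rw [gset, Finset.mem_image]
    exact ⟨1, Finset.mem_univ _, rfl⟩
  have hin : ∀ i, grp i = k → i = 1 ∨ i = 3 ∨ i = 4 := by
    intro i hi
    by_contra hcon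
    push Not at hcon
    exact hne i hcon.1 hcon.2.1 hcon.2.2 hi
  have hz : ∀ c ∈ L, (∀ i, grp i ≠ k → c i = 0) → lam c = φ k c := by
    intro c hc h
    have h1 := grp_sub H hc (hL zero_mem) hk (fun i hi => by rw [h i hi]; rfl)
    rw [h0, H.zero k 0 fun _ _ => rfl] at h1
    linarith
  -- the function of `D` alone
  set f : ℝ → ℝ := fun u => φ k (eD u) with hf
  have hfs : ∀ u v, 0 ≤ u → u ≤ v → 0 ≤ f u - f v ∧ f u - f v ≤ v - u := by
    intro u v hu huv
    have h1 := H.mono k (eD u) (hL (eD_mem hu)) (eD v) (hL (eD_mem (hu.trans huv)))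
      (fun i _ => by
        fin_cases i <;> simp [eD, bx9, huv])
    refine ⟨h1.1, h1.2.trans ?_⟩
    have e1 : (1 : Fin 12) ∈ Finset.univ.filter (fun i => grp i = k) := by
      simp [hkdef]
    rw [← Finset.add_sum_erase _ _ e1]
    have e2 : ∑ x ∈ (Finset.univ.filter (fun i => grp i = k)).erase 1, (eD v x - eD u x) = 0 := by
      refine Finset.sum_eq_zero fun x hx => ?_
      have hx1 := (Finset.mem_erase.1 hx).1
      rw [eD_off hx1, eD_off hx1]; ring
    rw [e2]
    have e3 : eD v 1 = v := rfl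
    have e4 : eD u 1 = u := rfl
    rw [e3, e4]; linarith
  have f0 : f 0 = 0 := H.zero k _ fun i _ => by
    fin_cases i <;> simp [eD, bx9]
  have f1 : f 1 < 0 := by
    have := hz (eD 1) (hL (eD_mem zero_le_one)) (fun i hi => eD_off (fun e => hi (by rw [e])))
    rw [this] at hD
    exact hD
  have fle : ∀ u, 0 ≤ u → f u ≤ 0 := fun u hu => by
    have := (hfs 0 u le_rfl hu).1
    linarith
  set S : Set ℝ := {u | 0 ≤ u ∧ u ≤ 1 ∧ f u = 0} with hS
  have hS0 : (0:ℝ) ∈ S := ⟨le_rfl, zero_le_one, f0⟩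
  have hbdd : BddAbove S := ⟨1, fun u hu => hu.2.1⟩
  set a0 := sSup S with ha0
  have a0n : 0 ≤ a0 := le_csSup hbdd hS0
  have a01 : a0 ≤ 1 := csSup_le ⟨0, hS0⟩ fun u hu => hu.2.1
  have fa0 : f a0 = 0 := by
    refine le_antisymm (fle a0 a0n) ?_
    by_contra hcon
    push Not at hcon
    obtain ⟨u, hu, hlt⟩ := exists_lt_of_lt_csSup ⟨0, hS0⟩ (show a0 + f a0 < a0 by linarith)
    have h1 := (hfs u a0 hu.1 (le_csSup hbdd hu)).2
    rw [hu.2.2] at h1
    linarith
  have a0lt : a0 < 1 := by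
    rcases lt_or_eq_of_le a01 with h | h
    · exact h
    · rw [h] at fa0; linarith
  have fpos : ∀ y, 0 < y → f (a0 + y) < 0 := by
    intro y hy
    rcases le_or_gt (a0 + y) 1 with h | h
    · refine lt_of_le_of_ne (fle _ (by linarith)) fun e => ?_
      have := le_csSup hbdd (show a0 + y ∈ S from ⟨by linarith, h, e⟩)
      linarith
    · have := (hfs 1 (a0 + y) zero_le_one h.le).1
      linarith
  have nat1 : natB 0 0 a0 1 = a0 := by simp [natB, bx9]
  have nat3 : natB 0 0 a0 3 = 0 := by simp [natB, bx9]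
  have nat4 : natB 0 0 a0 4 = 0 := by simp [natB, bx9]
  have mN := hL (natB_mem 0 0 a0)
  have φN : φ k (natB 0 0 a0) = 0 := by
    refine Eq.trans (H.loc k _ (eD a0) fun i hi => ?_) fa0
    rcases hin i hi with rfl | rfl | rfl
    · rw [nat1]; rfl
    · rw [nat3]; rfl
    · rw [nat4]; rfl
  refine ⟨a0, a0n, a0lt, fun y hy => ?_, fun y hy => ?_⟩
  · have m1 := hL (lm_add (natB_mem 0 0 a0) (eC_mem hy.le))
    have h1 := grp_sub H m1 mN hk (fun i hi => by
      rw [Pi.add_apply, eC_off (fun e => hi (by rw [e, h3])) (fun e => hi (by rw [e, h4])),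
        add_zero])
    have h2 := (H.mono k (eC y) (hL (eC_mem hy.le)) _ m1 (fun i hi => by
      rw [Pi.add_apply]
      rcases hin i hi with rfl | rfl | rfl
      · rw [nat1]; linarith
      · rw [nat3]; linarith
      · rw [nat4]; linarith)).1
    have h4' := hC y hy
    rw [hz _ (hL (eC_mem hy.le)) (fun i hi =>
      eC_off (fun e => hi (by rw [e, h3])) (fun e => hi (by rw [e, h4])))] at h4'
    rw [φN] at h1
    linarith
  · have m1 := hL (lm_add (natB_mem 0 0 a0) (eD_mem hy.le))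
    have h1 := grp_sub H m1 mN hk (fun i hi => by
      rw [Pi.add_apply, eD_off (fun e => hi (by rw [e])), add_zero])
    have h2 : φ k (natB 0 0 a0 + eD y) = f (a0 + y) := by
      refine H.loc k _ _ fun i hi => ?_
      rw [Pi.add_apply]
      rcases hin i hi with rfl | rfl | rfl
      · rw [nat1]; rfl
      · rw [nat3, eD_off (by decide), eD_off (by decide)]; ring
      · rw [nat4, eD_off (by decide), eD_off (by decide)]; ring
    have h3' := fpos y hy
    rw [φN, h2] at h1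
    linarith

end Crest.Agent.R116.PosCD736
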