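import Crest.Agent.R116.Tp1_389
import Crest.Agent.R116.EvL6_504

/-!
# R116: the two-height facts in general units (helper171)

Any legal base point; only the wall of the fact is tight; the slots `1, 2` may be unresolved.

* `step3`, `step5`, `step9`, `step11` : the movement of the slots along one fat line;
* **`p1w`** : `X = z + C` tight : `C` is read off `X` at two heights;
* **`p2w`** : `N = z + P` tight (slot `11`) : `P` is read off slot `11` at two heights, `C, X` fine,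
  `H` (slot `9`) fine or the wall `2 + 9` slack.
-/

set_option autoImplicit false
set_option linter.unusedVariables false
set_option linter.unusedSectionVars false

open Filter Topology Finset

namespace Crest.Agent.R116.Pu171

open Crest.Agent.R138.Ex926 (Base U)
open Crest.Agent.R136.Gf356 Crest.Agent.R136.Net191 Crest.Agent.R136.Qg926
open Crest.Agent.R116.ChL222 Crest.Agent.R116.PL504 Crest.Agent.R116.EvL504
open Crest.Agent.R116.Kr710 Crest.Agent.R116.Tp389

theorem prP {p q P Q T : ℝ} (hp : |p| ≤ P) (hq : |q| ≤ Q) (h : P * Q ≤ T) : |p * q| ≤ T := by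
  rw [abs_mul]
  exact (mul_le_mul hp hq (abs_nonneg _) ((abs_nonneg _).trans hp)).trans h

/-- algebra of the slot `11`, slot `9` fine or the wall `2 + 9` slack -/
theorem alg11 {D a b : Fin 12 → ℝ} (hD : Sides D) {q : ℝ} (q0 : 0 ≤ q) (q1 : q ≤ 1)
    (ha : ∀ k, |a k| ≤ D k) (hb : ∀ k, |b k| ≤ D k) (h3 : |b 3| ≤ q * D 3) (h4 : |b 4| ≤ q * D 4)
    (h5 : |b 5| ≤ q * D 5) (h6 : |b 6| ≤ q * D 6)
    (h9 : |b 9| ≤ q * D 9 ∨ D 2 * D 9 ≤ q * D 11) (a11 : a 11 = 0) :
    |comp a b 11 - (b 11 - a 0 * b 10)| ≤ 14 * (q * D 11) := by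
  have p := fun s => (hD.pos s).le
  have hq := fun s => mul_nonneg q0 (p s)
  have u3 : |a 0 * b 3| ≤ q * D 5 := prP (ha 0) h3 (by nlinarith [hD.w5])
  have u4 : |a 0 * b 4| ≤ q * D 6 := prP (ha 0) h4 (by nlinarith [hD.w6])
  have v5 : |a 1 * b 5| ≤ q * D 7 := prP (ha 1) h5 (by nlinarith [hD.w7'])
  have v6 : |a 1 * b 6| ≤ q * D 8 := prP (ha 1) h6 (by nlinarith [hD.w8'])
  have qq : q * q ≤ q := by nlinarith
  have n11 := p 11
  have q11 : q * q * D 11 ≤ q * D 11 := mul_le_mul_of_nonneg_right qq n11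
  have t1 : |a 7 * b 5| ≤ q * D 11 := prP (ha 7) h5 (by
    have := mul_le_mul_of_nonneg_left hD.w11a q0; linarith [mul_comm (D 5) (D 7),
      mul_left_comm (D 7) q (D 5)])
  have t2 : |a 8 * b 6| ≤ q * D 11 := prP (ha 8) h6 (by
    have := mul_le_mul_of_nonneg_left hD.w11b q0; linarith [mul_comm (D 6) (D 8),
      mul_left_comm (D 8) q (D 6)])
  have t3 : |a 7 * (a 0 * b 3)| ≤ q * D 11 := prP (ha 7) u3 (by
    have := mul_le_mul_of_nonneg_left hD.w11a q0; linarith [mul_comm (D 5) (D 7),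
      mul_left_comm (D 7) q (D 5)])
  have t4 : |a 8 * (a 0 * b 4)| ≤ q * D 11 := prP (ha 8) u4 (by
    have := mul_le_mul_of_nonneg_left hD.w11b q0; linarith [mul_comm (D 6) (D 8),
      mul_left_comm (D 8) q (D 6)])
  have s3 : |a 0 * b 3 * b 3| ≤ q * q * D 9 := prP u3 h3 (by
    have := mul_le_mul_of_nonneg_left hD.w9 (mul_nonneg q0 q0)
    have e : q * D 5 * (q * D 3) = q * q * (D 3 * D 5) := by ring
    rw [e]; exact this)
  have s4 : |a 0 * b 4 * b 4| ≤ q * q * D 9 := prP u4 h4 (by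
    have := mul_le_mul_of_nonneg_left hD.w9' (mul_nonneg q0 q0)
    have e : q * D 6 * (q * D 4) = q * q * (D 4 * D 6) := by ring
    rw [e]; exact this)
  have w29 : D 2 * (q * q * D 9) ≤ q * D 11 := by
    have := mul_le_mul_of_nonneg_left hD.w11c (mul_nonneg q0 q0)
    have e : D 2 * (q * q * D 9) = q * q * (D 2 * D 9) := by ring
    rw [e]; linarith
  have t5 : |a 2 * (a 0 * b 3 * b 3)| ≤ q * D 11 := prP (ha 2) s3 w29
  have t6 : |a 2 * (a 0 * b 4 * b 4)| ≤ q * D 11 := prP (ha 2) s4 w29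
  have w75 : q * D 7 * (q * D 5) ≤ q * D 11 := by
    have := mul_le_mul_of_nonneg_left hD.w11a (mul_nonneg q0 q0)
    have e : q * D 7 * (q * D 5) = q * q * (D 5 * D 7) := by ring
    rw [e]; linarith
  have w86 : q * D 8 * (q * D 6) ≤ q * D 11 := by
    have := mul_le_mul_of_nonneg_left hD.w11b (mul_nonneg q0 q0)
    have e : q * D 8 * (q * D 6) = q * q * (D 6 * D 8) := by ring
    rw [e]; linarith
  have t7 : |a 1 * b 5 * b 5| ≤ q * D 11 := prP v5 h5 w75
  have t8 : |a 1 * b 6 * b 6| ≤ q * D 11 := prP v6 h6 w86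
  have t9 : |a 1 * b 5 * (a 0 * b 3)| ≤ q * D 11 := prP v5 u3 w75
  have t10 : |a 1 * b 6 * (a 0 * b 4)| ≤ q * D 11 := prP v6 u4 w86
  have s9 : |a 0 * a 1| ≤ D 2 := prP (ha 0) (ha 1) hD.w2
  have r9 : ∀ v : ℝ, |v| ≤ D 2 → |v * b 9| ≤ q * D 11 := by
    intro v hv
    rcases h9 with h9 | h9
    · exact prP hv h9 (by
        have := mul_le_mul_of_nonneg_left hD.w11c q0
        have e : D 2 * (q * D 9) = q * (D 2 * D 9) := by ring
        rw [e]; exact this)
    · exact prP hv (hb 9) h9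
  have t11 : |a 0 * a 1 * b 9| ≤ q * D 11 := r9 _ s9
  have t12 : |a 2 * b 9| ≤ q * D 11 := r9 _ (ha 2)
  have e : comp a b 11 - (b 11 - a 0 * b 10) =
      -(a 7 * b 5) - a 8 * b 6 + a 7 * (a 0 * b 3) + a 8 * (a 0 * b 4) +
      (a 2 * (a 0 * b 3 * b 3)) / 2 + (a 2 * (a 0 * b 4 * b 4)) / 2 - a 1 * b 5 * b 5 -
      a 1 * b 6 * b 6 + 2 * (a 1 * b 5 * (a 0 * b 3)) + 2 * (a 1 * b 6 * (a 0 * b 4)) -
      2 * (a 0 * a 1 * b 9) - a 2 * b 9 := by
    have : comp a b 11 = a 11 + b 11 - a 0 * b 10 - a 7 * (b 5 - a 0 * b 3) -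
      a 8 * (b 6 - a 0 * b 4) - a 2 * (b 9 - a 0 * ((b 3 ^ 2 + b 4 ^ 2) / 2)) -
      a 1 * (b 5 ^ 2 + b 6 ^ 2 - 2 * (a 0 * (b 5 * b 3 + b 6 * b 4 - b 9))) := rfl
    rw [this, a11]; ring
  rw [e]
  have g1 := abs_le.1 t1
  have g2 := abs_le.1 t2
  have g3 := abs_le.1 t3
  have g4 := abs_le.1 t4
  have g5 := abs_le.1 t5
  have g6 := abs_le.1 t6
  have g7 := abs_le.1 t7
  have g8 := abs_le.1 t8
  have g9 := abs_le.1 t9
  have g10 := abs_le.1 t10
  have g11 := abs_le.1 t11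
  have g12 := abs_le.1 t12
  rw [abs_le]
  constructor <;> linarith [g1.1, g1.2, g2.1, g2.2, g3.1, g3.2, g4.1, g4.2, g5.1, g5.2, g6.1,
    g6.2, g7.1, g7.2, g8.1, g8.2, g9.1, g9.2, g10.1, g10.2, g11.1, g11.2, g12.1, g12.2]

variable {ι : ℕ → Type*} [∀ n, DecidableEq (ι n)] {W : Wnd 12 ι} {K tp : ℝ}
  {E : ∀ n, Finset (ι n)}

section steps

variable (h : WL W K tp) {n : ℕ} (r : Reg W E n) {k k' i l : ℕ} (hi : (i, k) ∈ (W.cfg E n).I)
    (hl : (l, k) ∈ (W.cfg E n).I) (hi' : (i, k') ∈ (W.cfg E n).I) (hl' : (l, k') ∈ (W.cfg E n).I)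

include h r hi hl hi' hl'

/-- slots `3`, `4` -/
theorem step3 {s : Fin 12} (hs34 : s = 3 ∨ s = 4) :
    |(W.cfg E n).rel k' i l s - (W.cfg E n).rel k i l s| ≤ 96 * W.B'.d n ^ tp := by
  have hss : s ∉ SL := by rcases hs34 with rfl | rfl <;> decide
  have key := r.evoSL h hi hl hi' hl' hss
  have e : compW W n (LvS SL (own W n i k' k)) (LnS SL ((W.cfg E n).rel k i l)) s =
      (W.cfg E n).rel k i l s := by
    unfold compW
    have h1 : LvS SL (own W n i k' k) s = 0 := if_neg hss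
    have h2 : LnS SL ((W.cfg E n).rel k i l) s = (W.cfg E n).rel k i l s := if_neg hss
    rw [div_eq_iff (h.side_pos' n s).ne']
    rcases hs34 with rfl | rfl
    · show side W n 3 * LvS SL (own W n i k' k) 3 +
        side W n 3 * LnS SL ((W.cfg E n).rel k i l) 3 = _
      rw [h1, h2]; ring
    · show side W n 4 * LvS SL (own W n i k' k) 4 +
        side W n 4 * LnS SL ((W.cfg E n).rel k i l) 4 = _
      rw [h1, h2]; ring
  rwa [e] at key

/-- slots `5`, `6` -/
theorem step5 {s s' : Fin 12} (hs56 : (s = 5 ∧ s' = 3) ∨ (s = 6 ∧ s' = 4)) :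
    |(W.cfg E n).rel k' i l s - ((W.cfg E n).rel k i l s -
      side W n 0 * side W n s' / side W n s * (own W n i k' k 0 * (W.cfg E n).rel k i l s'))| ≤
      96 * W.B'.d n ^ tp := by
  have hss : s ∉ SL := by rcases hs56 with ⟨rfl, -⟩ | ⟨rfl, -⟩ <;> decide
  have hss' : s' ∉ SL := by rcases hs56 with ⟨-, rfl⟩ | ⟨-, rfl⟩ <;> decide
  have key := r.evoSL h hi hl hi' hl' hss
  have hsd := h.side_pos' n
  have h1 : LvS SL (own W n i k' k) s = 0 := if_neg hss
  have h2 : LnS SL ((W.cfg E n).rel k i l) s = (W.cfg E n).rel k i l s := if_neg hss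
  have h3 : LnS SL ((W.cfg E n).rel k i l) s' = (W.cfg E n).rel k i l s' := if_neg hss'
  have o0 : LvS SL (own W n i k' k) 0 = own W n i k' k 0 := if_pos (by decide)
  have e1 : compW W n (LvS SL (own W n i k' k)) (LnS SL ((W.cfg E n).rel k i l)) s =
      (W.cfg E n).rel k i l s -
      side W n 0 * side W n s' / side W n s * (own W n i k' k 0 * (W.cfg E n).rel k i l s') := by
    unfold compW
    rw [div_eq_iff (hsd s).ne']
    have e2 : ((W.cfg E n).rel k i l s - side W n 0 * side W n s' / side W n s *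
        (own W n i k' k 0 * (W.cfg E n).rel k i l s')) * side W n s =
        side W n s * (W.cfg E n).rel k i l s - side W n 0 * own W n i k' k 0 *
          (side W n s' * (W.cfg E n).rel k i l s') := by
      have := (hsd s).ne'
      field_simp
    rw [e2]
    rcases hs56 with ⟨rfl, rfl⟩ | ⟨rfl, rfl⟩
    · show side W n 5 * LvS SL (own W n i k' k) 5 +
        side W n 5 * LnS SL ((W.cfg E n).rel k i l) 5 - side W n 0 * LvS SL (own W n i k' k) 0 *
        (side W n 3 * LnS SL ((W.cfg E n).rel k i l) 3) = _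
      rw [h1, h2, h3, o0]; ring
    · show side W n 6 * LvS SL (own W n i k' k) 6 +
        side W n 6 * LnS SL ((W.cfg E n).rel k i l) 6 - side W n 0 * LvS SL (own W n i k' k) 0 *
        (side W n 4 * LnS SL ((W.cfg E n).rel k i l) 4) = _
      rw [h1, h2, h3, o0]; ring
  rwa [e1] at key

/-- slots `5`, `6`, tight -/
theorem step5t {s s' : Fin 12} (hs56 : (s = 5 ∧ s' = 3) ∨ (s = 6 ∧ s' = 4))
    (ht : side W n 0 * side W n s' = side W n s) :
    |(W.cfg E n).rel k' i l s - ((W.cfg E n).rel k i l s -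
      own W n i k' k 0 * (W.cfg E n).rel k i l s')| ≤ 96 * W.B'.d n ^ tp := by
  have key := step5 h r hi hl hi' hl' hs56
  rwa [ht, div_self (h.side_pos' n s).ne', one_mul] at key

/-- slots `5`, `6`, upper bound -/
theorem step5u {s s' : Fin 12} (hs56 : (s = 5 ∧ s' = 3) ∨ (s = 6 ∧ s' = 4)) :
    |(W.cfg E n).rel k' i l s| ≤ |(W.cfg E n).rel k i l s| + |(W.cfg E n).rel k i l s'| +
      96 * W.B'.d n ^ tp := by
  have key := step5 h r hi hl hi' hl' hs56
  have hsd := h.side_pos' n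
  have hD := h.sides r.good
  have hw : side W n 0 * side W n s' ≤ side W n s := by
    rcases hs56 with ⟨rfl, rfl⟩ | ⟨rfl, rfl⟩
    · exact hD.w5
    · exact hD.w6
  have hκ1 : side W n 0 * side W n s' / side W n s ≤ 1 := (div_le_one (hsd s)).2 hw
  have hκ0 : 0 ≤ side W n 0 * side W n s' / side W n s :=
    div_nonneg (mul_nonneg (hsd 0).le (hsd s').le) (hsd s).le
  have ho := r.own_le h hi hi' 0
  have e : |side W n 0 * side W n s' / side W n s *
      (own W n i k' k 0 * (W.cfg E n).rel k i l s')| ≤ |(W.cfg E n).rel k i l s'| := by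
    rw [abs_mul, abs_of_nonneg hκ0, abs_mul]
    have h1 : |own W n i k' k 0| * |(W.cfg E n).rel k i l s'| ≤
        1 * |(W.cfg E n).rel k i l s'| := mul_le_mul_of_nonneg_right ho (abs_nonneg _)
    calc _ ≤ 1 * (1 * |(W.cfg E n).rel k i l s'|) :=
          mul_le_mul hκ1 h1 (mul_nonneg (abs_nonneg _) (abs_nonneg _)) zero_le_one
      _ = _ := by ring
  have a1 := abs_sub_abs_le_abs_sub ((W.cfg E n).rel k' i l s) ((W.cfg E n).rel k i l s -
      side W n 0 * side W n s' / side W n s * (own W n i k' k 0 * (W.cfg E n).rel k i l s'))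
  have a2 := abs_sub ((W.cfg E n).rel k i l s)
    (side W n 0 * side W n s' / side W n s * (own W n i k' k 0 * (W.cfg E n).rel k i l s'))
  linarith

/-- slot `9`, `C` fine -/
theorem step9 {q : ℝ} (q0 : 0 ≤ q) (q1 : q ≤ 1) (h3 : |(W.cfg E n).rel k i l 3| ≤ q)
    (h4 : |(W.cfg E n).rel k i l 4| ≤ q) :
    |(W.cfg E n).rel k' i l 9 - (W.cfg E n).rel k i l 9| ≤ q + 96 * W.B'.d n ^ tp := by
  have key := r.evoSL h hi hl hi' hl' (s := 9) (by decide)
  have hs := h.side_pos' n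
  have hD := h.sides r.good
  set o := own W n i k' k with ho
  set c := (W.cfg E n).rel k i l with hc
  have o3 : LvS SL o 3 = 0 := if_neg (by decide)
  have o4 : LvS SL o 4 = 0 := if_neg (by decide)
  have o9 : LvS SL o 9 = 0 := if_neg (by decide)
  have o0 : LvS SL o 0 = o 0 := if_pos (by decide)
  have l3 : LnS SL c 3 = c 3 := if_neg (by decide)
  have l4 : LnS SL c 4 = c 4 := if_neg (by decide)
  have l9 : LnS SL c 9 = c 9 := if_neg (by decide)
  have oo : |o 0| ≤ 1 := r.own_le h hi hi' 0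
  have e1 : compW W n (LvS SL o) (LnS SL c) 9 - c 9 =
      -(side W n 0 * o 0 * (((side W n 3 * c 3) ^ 2 + (side W n 4 * c 4) ^ 2) / 2)) /
        side W n 9 := by
    unfold compW
    have : comp (fun j => side W n j * LvS SL o j) (fun j => side W n j * LnS SL c j) 9 =
        side W n 9 * LvS SL o 9 + side W n 9 * LnS SL c 9 - side W n 0 * LvS SL o 0 *
          (((side W n 3 * LnS SL c 3) ^ 2 + (side W n 4 * LnS SL c 4) ^ 2) / 2) +
          side W n 3 * LvS SL o 3 * (side W n 5 * LnS SL c 5 - side W n 0 * LvS SL o 0 *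
            (side W n 3 * LnS SL c 3)) + side W n 4 * LvS SL o 4 * (side W n 6 * LnS SL c 6 -
            side W n 0 * LvS SL o 0 * (side W n 4 * LnS SL c 4)) := rfl
    rw [this, o3, o4, o9, o0, l3, l4, l9]
    have := (hs 9).ne'
    field_simp
    ring
  have b3 : |side W n 3 * c 3| ≤ q * side W n 3 := by
    rw [abs_mul, abs_of_pos (hs 3), mul_comm]
    exact mul_le_mul_of_nonneg_right h3 (hs 3).le
  have b4 : |side W n 4 * c 4| ≤ q * side W n 4 := by
    rw [abs_mul, abs_of_pos (hs 4), mul_comm]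
    exact mul_le_mul_of_nonneg_right h4 (hs 4).le
  have b0 : |side W n 0 * o 0| ≤ side W n 0 := by
    rw [abs_mul, abs_of_pos (hs 0)]
    exact mul_le_of_le_one_right (hs 0).le oo
  have u3 : |side W n 0 * o 0 * (side W n 3 * c 3)| ≤ q * side W n 5 :=
    prP b0 b3 (by nlinarith [hD.w5])
  have u4 : |side W n 0 * o 0 * (side W n 4 * c 4)| ≤ q * side W n 6 :=
    prP b0 b4 (by nlinarith [hD.w6])
  have qq : q * q ≤ q := by nlinarith
  have q9 : q * q * side W n 9 ≤ q * side W n 9 := mul_le_mul_of_nonneg_right qq (hs 9).le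
  have s3 : |side W n 0 * o 0 * (side W n 3 * c 3) * (side W n 3 * c 3)| ≤ q * side W n 9 :=
    prP u3 b3 (by
      have := mul_le_mul_of_nonneg_left hD.w9 (mul_nonneg q0 q0)
      have e : q * side W n 5 * (q * side W n 3) = q * q * (side W n 3 * side W n 5) := by ring
      rw [e]; linarith)
  have s4 : |side W n 0 * o 0 * (side W n 4 * c 4) * (side W n 4 * c 4)| ≤ q * side W n 9 :=
    prP u4 b4 (by
      have := mul_le_mul_of_nonneg_left hD.w9' (mul_nonneg q0 q0)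
      have e : q * side W n 6 * (q * side W n 4) = q * q * (side W n 4 * side W n 6) := by ring
      rw [e]; linarith)
  have e2 : |compW W n (LvS SL o) (LnS SL c) 9 - c 9| ≤ q := by
    rw [e1, abs_div, abs_of_pos (hs 9), div_le_iff₀ (hs 9), abs_neg]
    have e3 : side W n 0 * o 0 * (((side W n 3 * c 3) ^ 2 + (side W n 4 * c 4) ^ 2) / 2) =
        (side W n 0 * o 0 * (side W n 3 * c 3) * (side W n 3 * c 3) +
          side W n 0 * o 0 * (side W n 4 * c 4) * (side W n 4 * c 4)) / 2 := by ring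
    rw [e3]
    have g3 := abs_le.1 s3
    have g4 := abs_le.1 s4
    rw [abs_le]
    constructor <;> linarith [g3.1, g3.2, g4.1, g4.2]
  have e3 := abs_sub_le ((W.cfg E n).rel k' i l 9) (compW W n (LvS SL o) (LnS SL c) 9) (c 9)
  linarith

/-- slot `11`, `C, X` fine, slot `9` fine or the wall `2 + 9` slack -/
theorem step11 (T1 : side W n 0 * side W n 10 = side W n 11) {q : ℝ} (q0 : 0 ≤ q) (q1 : q ≤ 1)
    (h3 : |(W.cfg E n).rel k i l 3| ≤ q) (h4 : |(W.cfg E n).rel k i l 4| ≤ q)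
    (h5 : |(W.cfg E n).rel k i l 5| ≤ q) (h6 : |(W.cfg E n).rel k i l 6| ≤ q)
    (h9 : |(W.cfg E n).rel k i l 9| ≤ q ∨ side W n 2 * side W n 9 ≤ q * side W n 11) :
    |(W.cfg E n).rel k' i l 11 - ((W.cfg E n).rel k i l 11 -
      own W n i k' k 0 * (W.cfg E n).rel k i l 10)| ≤ 14 * q + 96 * W.B'.d n ^ tp := by
  have key := r.evoSL h hi hl hi' hl' (s := 11) (by decide)
  have hs := h.side_pos' n
  have hD := h.sides r.good
  set o := own W n i k' k with ho
  set c := (W.cfg E n).rel k i l with hc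
  set a : Fin 12 → ℝ := fun j => side W n j * LvS SL o j with ha
  set b : Fin 12 → ℝ := fun j => side W n j * LnS SL c j with hb
  have o1 : ∀ s, |LvS SL o s| ≤ 1 := fun s => by
    unfold LvS
    split_ifs
    · exact r.own_le h hi hi' s
    · rw [abs_zero]; exact zero_le_one
  have c1 : ∀ s, |LnS SL c s| ≤ 1 := fun s => by
    unfold LnS
    split_ifs
    · rw [abs_zero]; exact zero_le_one
    · exact r.rel_le h hi hl s
  have ab : ∀ (s : Fin 12) (u Q : ℝ), |u| ≤ Q → |side W n s * u| ≤ Q * side W n s := by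
    intro s u Q hu
    rw [abs_mul, abs_of_pos (hs s), mul_comm]
    exact mul_le_mul_of_nonneg_right hu (hs s).le
  have a1 : ∀ s, |a s| ≤ side W n s := fun s => by
    have := ab s _ _ (o1 s); rwa [one_mul] at this
  have b1 : ∀ s, |b s| ≤ side W n s := fun s => by
    have := ab s _ _ (c1 s); rwa [one_mul] at this
  have l3 : LnS SL c 3 = c 3 := if_neg (by decide)
  have l4 : LnS SL c 4 = c 4 := if_neg (by decide)
  have l5 : LnS SL c 5 = c 5 := if_neg (by decide)
  have l6 : LnS SL c 6 = c 6 := if_neg (by decide)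
  have l9 : LnS SL c 9 = c 9 := if_neg (by decide)
  have l10 : LnS SL c 10 = c 10 := if_neg (by decide)
  have l11 : LnS SL c 11 = c 11 := if_neg (by decide)
  have o0 : LvS SL o 0 = o 0 := if_pos (by decide)
  have o11 : LvS SL o 11 = 0 := if_neg (by decide)
  have A := alg11 hD q0 q1 a1 b1 (by
      have := ab 3 _ _ (show |LnS SL c 3| ≤ q by rw [l3]; exact h3); exact this) (by
      have := ab 4 _ _ (show |LnS SL c 4| ≤ q by rw [l4]; exact h4); exact this) (by
      have := ab 5 _ _ (show |LnS SL c 5| ≤ q by rw [l5]; exact h5); exact this) (by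
      have := ab 6 _ _ (show |LnS SL c 6| ≤ q by rw [l6]; exact h6); exact this)
    (by
      rcases h9 with h9 | h9
      · left
        have := ab 9 _ _ (show |LnS SL c 9| ≤ q by rw [l9]; exact h9)
        exact this
      · exact Or.inr h9)
    (by show side W n 11 * LvS SL o 11 = 0; rw [o11, mul_zero])
  have e1 : b 11 - a 0 * b 10 = side W n 11 * (c 11 - o 0 * c 10) := by
    show side W n 11 * LnS SL c 11 - (side W n 0 * LvS SL o 0) * (side W n 10 * LnS SL c 10) = _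
    rw [l11, o0, l10]
    have f1 : side W n 0 * o 0 * (side W n 10 * c 10) =
        (side W n 0 * side W n 10) * (o 0 * c 10) := by ring
    rw [f1, T1]; ring
  rw [e1] at A
  have B : |compW W n (LvS SL o) (LnS SL c) 11 - (c 11 - o 0 * c 10)| ≤ 14 * q := by
    have e2 : compW W n (LvS SL o) (LnS SL c) 11 - (c 11 - o 0 * c 10) =
        (comp a b 11 - side W n 11 * (c 11 - o 0 * c 10)) / side W n 11 := by
      unfold compW
      rw [sub_div, mul_div_cancel_left₀ _ (hs 11).ne']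
    rw [e2, abs_div, abs_of_pos (hs 11), div_le_iff₀ (hs 11)]
    linarith
  have e3 := abs_sub_le ((W.cfg E n).rel k' i l 11) (compW W n (LvS SL o) (LnS SL c) 11)
    (c 11 - o 0 * c 10)
  linarith

end steps

/-! ### the two facts -/

section facts

variable {σ R Dc : ℝ} {Leg : Set (Fin 12 → ℝ)} {ν : (Fin 12 → ℝ) → ℝ} {y : ℝ}

/-- everything at two heights -/
theorem ev_pairW (h : WL W K tp) (hE : ∀ᶠ n in (U : Filter ℕ), Reg W E n) {ε : ℝ} (hε : 0 < ε) :
    ∀ᶠ n in (U : Filter ℕ), 8 ≤ W.B'.d n ^ (-ε) ∧ 96 * W.B'.d n ^ tp ≤ W.B'.d n ^ (tp - ε) ∧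
      Reg W E n ∧ ∀ k k' i l, (i, k) ∈ (W.cfg E n).I → (l, k) ∈ (W.cfg E n).I →
      (i, k') ∈ (W.cfg E n).I → (l, k') ∈ (W.cfg E n).I →
      (∀ s, |(W.cfg E n).rel k i l s| ≤ W.B'.d n ^ (-ε)) ∧
      (∀ s, |(W.cfg E n).rel k' i l s| ≤ W.B'.d n ^ (-ε)) ∧
      |own W n i k' k 0| ≤ W.B'.d n ^ (-ε) ∧
      |own W n i k' k 0 + ((W.cfg E n).z k' - (W.cfg E n).z k)| ≤ W.B'.d n ^ (tp - ε) := by
  filter_upwards [ev_const_le W.B' hε 8, ev_up W 96 tp hε, ev_up W 2 tp hε, hE]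
    with n g8 g96 g2 r
  refine ⟨g8, g96, r, fun k k' i l a b c d => ?_⟩
  have one : (1 : ℝ) ≤ W.B'.d n ^ (-ε) :=
    Real.one_le_rpow_of_pos_of_le_one_of_nonpos (W.B'.pos n) (W.B'.lt n).le (by linarith)
  refine ⟨fun s => (r.rel_le h a b s).trans one, fun s => (r.rel_le h c d s).trans one,
    (r.own_le h a c 0).trans one, ?_⟩
  have := r.own_z h a c
  refine le_trans (le_of_eq ?_) (this.trans g2)
  congr 1
  ring

/-- **(P1)** `C` is read off `X` at two heights, the wall `X = z + C` tight -/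
theorem p1w (h : WL W K tp) (hE : ∀ᶠ n in (U : Filter ℕ), Reg W E n)
    (H : RModel W.B' (W.cfg E) σ R Leg ν Dc) (hσ : 0 < σ) (hR : 0 < R)
    (T5 : ∀ᶠ n in (U : Filter ℕ), side W n 0 * side W n 3 = side W n 5)
    (T6 : ∀ᶠ n in (U : Filter ℕ), side W n 0 * side W n 4 = side W n 6)
    (hy : 0 ≤ y) (hyx : y ≤ tp) {p p' pT r : Fin 12 → ℝ} (hp : p ∈ Leg) (hp' : p' ∈ Leg)
    (hpT : pT ∈ Leg) (hr : r ∈ Leg) (hTr : ∀ j, pT j ≤ r j) (hT0 : ∀ j, pT j ≤ 0)
    (p5 : y ≤ p 5) (p6 : y ≤ p 6) (r5 : y ≤ r 5) (r6 : y ≤ r 6)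
    (q : ∀ j, p' j ≤ 0 ∨ p' j ≤ p j ∨ ((j = 3 ∨ j = 4) ∧ p' j ≤ y)) :
    ν p - ν p' ≤ ν pT - ν r := by
  refine two_height H hσ hR p p' pT r hp hp' hpT hr hTr ?_
  intro C0 hC0
  refine ⟨1, one_pos, fun C2 hC2 => ⟨C0 + C2 + 5, by linarith, fun ε hε => ?_⟩⟩
  filter_upwards [ev_pairW h hE hε, T5, T6] with n hn t5 t6 k hk k' hk' hdz i l a b c d hlo
  obtain ⟨h8, h96, rg, hn⟩ := hn
  obtain ⟨g1, g2, g3, g4⟩ := hn k k' i l a c b d
  refine ⟨fun j => ?_, fun hlo' j => ?_⟩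
  · exact loose0 H hε le_rfl (hT0 j) (g2 j)
  · have hK : 3 ≤ C0 + C2 + 3 := by linarith
    have key : ∀ s t : Fin 12, y ≤ p t → y ≤ r t →
        |(W.cfg E n).rel k' i l t - ((W.cfg E n).rel k i l t -
          own W n i k' k 0 * (W.cfg E n).rel k i l s)| ≤ 96 * W.B'.d n ^ tp →
        |(W.cfg E n).rel k i l s| ≤ W.B'.d n ^ (y - (C0 + C2 + 5) * ε) := by
      intro s t pt rt he
      have b1 : |(W.cfg E n).rel k i l t| ≤ W.B'.d n ^ (y - C0 * ε) := by
        have := hlo t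
        rw [H.base n] at this
        exact this.trans (rpow_anti W.B' n (by linarith))
      have b2 : |(W.cfg E n).rel k' i l t| ≤ W.B'.d n ^ (y - C2 * ε) := by
        have := hlo' t
        rw [H.base n] at this
        exact this.trans (rpow_anti W.B' n (by linarith))
      have b3 : |(W.cfg E n).rel k' i l t - ((W.cfg E n).rel k i l t -
          own W n i k' k 0 * (W.cfg E n).rel k i l s)| ≤ W.B'.d n ^ (y - 1 * ε) :=
        (he.trans h96).trans (rpow_anti W.B' n (by linarith))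
      have b4 : |(W.cfg E n).rel k i l s| ≤ W.B'.d n ^ (-(2 * ε)) :=
        (g1 s).trans (rpow_anti W.B' n (by linarith))
      have := solve hε h8 hyx hK (by linarith) (by linarith) (by linarith) b1 b2 b3 b4 g4 hdz
      refine this.trans (le_of_eq ?_)
      congr 1
      ring
    rcases q j with h' | h' | ⟨h', h''⟩
    · exact loose0 H hε (by linarith) h' (g1 j)
    · exact looseP H hε (by linarith) h' (hlo j)
    · rw [H.base n]
      rcases h' with rfl | rfl
      · have e := step5t h rg a c b d (Or.inl ⟨rfl, rfl⟩) t5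
        exact (key 3 5 p5 r5 e).trans (rpow_anti W.B' n (by linarith))
      · have e := step5t h rg a c b d (Or.inr ⟨rfl, rfl⟩) t6
        exact (key 4 6 p6 r6 e).trans (rpow_anti W.B' n (by linarith))

/-- **(P2)** `P` is read off the slot `11` at two heights, the wall `11 = z + P` tight; `C, X` fine,
slot `9` fine or the wall `2 + 9` slack -/
theorem p2w (h : WL W K tp) (hE : ∀ᶠ n in (U : Filter ℕ), Reg W E n)
    (H : RModel W.B' (W.cfg E) σ R Leg ν Dc) (hσ : 0 < σ) (hR : 0 < R)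
    (T1 : ∀ᶠ n in (U : Filter ℕ), side W n 0 * side W n 10 = side W n 11)
    (hy : 0 ≤ y) (hyx : y ≤ tp) {p p' pT r : Fin 12 → ℝ} (hp : p ∈ Leg) (hp' : p' ∈ Leg)
    (hpT : pT ∈ Leg) (hr : r ∈ Leg) (hTr : ∀ j, pT j ≤ r j)
    (hT0 : ∀ j, pT j ≤ 0 ∨ ((j = 3 ∨ j = 4 ∨ j = 5 ∨ j = 6) ∧ pT j ≤ y) ∨
      (j = 9 ∧ pT j ≤ y ∧ pT j ≤ p j))
    (p3 : y ≤ p 3) (p4 : y ≤ p 4) (p5 : y ≤ p 5) (p6 : y ≤ p 6)
    (p9 : y ≤ p 9 ∨ ∀ᶠ n in (U : Filter ℕ),
      side W n 2 * side W n 9 ≤ W.B'.d n ^ y * side W n 11)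
    (p11 : y ≤ p 11) (r11 : y ≤ r 11)
    (q : ∀ j, p' j ≤ 0 ∨ p' j ≤ p j ∨ (j = 10 ∧ p' j ≤ y)) :
    ν p - ν p' ≤ ν pT - ν r := by
  refine two_height H hσ hR p p' pT r hp hp' hpT hr hTr ?_
  intro C0 hC0
  refine ⟨C0 + 5, by linarith, fun C2 hC2 => ⟨C0 + C2 + 13, by linarith, fun ε hε => ?_⟩⟩
  have h9' : ∀ᶠ n in (U : Filter ℕ), y ≤ p 9 ∨
      side W n 2 * side W n 9 ≤ W.B'.d n ^ y * side W n 11 := by
    rcases p9 with h9 | h9
    · exact Eventually.of_forall fun n => Or.inl h9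
    · exact h9.mono fun n hn => Or.inr hn
  filter_upwards [ev_pairW h hE hε, T1, h9'] with n hn t1 t9 k hk k' hk' hdz i l a b c d hlo
  obtain ⟨h8, h96, rg, hn⟩ := hn
  obtain ⟨g1, g2, g3, g4⟩ := hn k k' i l a c b d
  have hpow : ∀ t : ℝ, 0 < W.B'.d n ^ t := fun t => rpos W.B' n t
  have h0C : 0 < C0 * ε := by positivity
  -- the fine slots at `k`
  have f : ∀ s : Fin 12, y ≤ p s → |(W.cfg E n).rel k i l s| ≤ W.B'.d n ^ (y - C0 * ε) := by
    intro s hs
    have := hlo s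
    rw [H.base n] at this
    exact this.trans (rpow_anti W.B' n (by linarith))
  -- the common size `q`
  set Q : ℝ := min 1 (W.B'.d n ^ (y - C0 * ε)) with hQ
  have Q0 : 0 ≤ Q := le_min zero_le_one (hpow _).le
  have Q1 : Q ≤ 1 := min_le_left _ _
  have Qy : Q ≤ W.B'.d n ^ (y - C0 * ε) := min_le_right _ _
  have fQ : ∀ s : Fin 12, y ≤ p s → |(W.cfg E n).rel k i l s| ≤ Q := fun s hs =>
    le_min (rg.rel_le h a c s) (f s hs)
  have hyy : W.B'.d n ^ y ≤ Q := le_min
    (Real.rpow_le_one (W.B'.pos n).le (W.B'.lt n).le hy)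
    (rpow_anti W.B' n (by linarith))
  have e96 : 96 * W.B'.d n ^ tp ≤ W.B'.d n ^ (y - 1 * ε) :=
    h96.trans (rpow_anti W.B' n (by linarith))
  have e64 : ∀ u : ℝ, 64 * W.B'.d n ^ u ≤ W.B'.d n ^ (u - 2 * ε) := by
    intro u
    have e8 : W.B'.d n ^ (u - 2 * ε) = W.B'.d n ^ (-ε) * (W.B'.d n ^ (-ε) *
        W.B'.d n ^ u) := by
      rw [← rpow_add', ← rpow_add']; congr 1; ring
    rw [e8]
    have := hpow u
    have h88 : 64 ≤ W.B'.d n ^ (-ε) * W.B'.d n ^ (-ε) := by nlinarith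
    nlinarith
  -- the slot `11`
  have main : |(W.cfg E n).rel k' i l 11 - ((W.cfg E n).rel k i l 11 -
      own W n i k' k 0 * (W.cfg E n).rel k i l 10)| ≤ W.B'.d n ^ (y - (C0 + 11) * ε) := by
    have key := step11 h rg a c b d t1 Q0 Q1 (fQ 3 p3) (fQ 4 p4) (fQ 5 p5) (fQ 6 p6) (by
      rcases t9 with t9 | t9
      · exact Or.inl (fQ 9 t9)
      · right
        exact t9.trans (mul_le_mul_of_nonneg_right hyy (h.side_pos' n 11).le))
    have b1 : W.B'.d n ^ (y - 1 * ε) ≤ W.B'.d n ^ (y - (C0 + 1) * ε) :=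
      anK W.B' n hε (by linarith)
    have b2 : W.B'.d n ^ (y - C0 * ε) ≤ W.B'.d n ^ (y - (C0 + 1) * ε) :=
      anK W.B' n hε (by linarith)
    have b3 := e64 (y - (C0 + 1) * ε)
    have b4 : W.B'.d n ^ (y - (C0 + 1) * ε - 2 * ε) ≤ W.B'.d n ^ (y - (C0 + 11) * ε) :=
      rpow_anti W.B' n (by nlinarith)
    have b5 := hpow (y - (C0 + 1) * ε)
    linarith
  refine ⟨fun j => ?_, fun hlo' j => ?_⟩
  · have hm : W.B'.d n ^ (y - 1 * ε) ≤ W.B'.d n ^ (y - (C0 + 2) * ε) :=
      anK W.B' n hε (by linarith)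
    have hm2 : W.B'.d n ^ (y - C0 * ε) ≤ W.B'.d n ^ (y - (C0 + 2) * ε) :=
      anK W.B' n hε (by linarith)
    have b3 := e64 (y - (C0 + 2) * ε)
    have b4 : W.B'.d n ^ (y - (C0 + 2) * ε - 2 * ε) ≤ W.B'.d n ^ (y - (C0 + 5) * ε) :=
      rpow_anti W.B' n (by nlinarith)
    have b5 := hpow (y - (C0 + 2) * ε)
    rcases hT0 j with h' | ⟨h', h''⟩ | ⟨rfl, h', h''⟩
    · exact loose0 H hε (by linarith) h' (g2 j)
    · rw [H.base n]
      have fin : |(W.cfg E n).rel k' i l j| ≤ W.B'.d n ^ (y - (C0 + 5) * ε) := by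
        rcases h' with rfl | rfl | rfl | rfl
        · have e := abs_le.1 (step3 h rg a c b d (Or.inl rfl))
          have e' := abs_le.1 (f 3 p3)
          rw [abs_le]
          constructor <;> linarith [e.1, e.2, e'.1, e'.2]
        · have e := abs_le.1 (step3 h rg a c b d (Or.inr rfl))
          have e' := abs_le.1 (f 4 p4)
          rw [abs_le]
          constructor <;> linarith [e.1, e.2, e'.1, e'.2]
        · have e := step5u h rg a c b d (Or.inl ⟨rfl, rfl⟩)
          linarith [f 3 p3, f 5 p5]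
        · have e := step5u h rg a c b d (Or.inr ⟨rfl, rfl⟩)
          linarith [f 4 p4, f 6 p6]
      exact fin.trans (rpow_anti W.B' n (by linarith))
    · -- slot 9
      rw [H.base n]
      have e := abs_le.1 (step9 h rg a c b d Q0 Q1 (fQ 3 p3) (fQ 4 p4))
      have d9 : |(W.cfg E n).rel k i l 9| ≤ W.B'.d n ^ (pT 9 - C0 * ε) := by
        have := hlo 9
        rw [H.base n] at this
        exact this.trans (rpow_anti W.B' n (by linarith))
      have c1 := abs_le.1 d9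
      have z1 : W.B'.d n ^ (y - (C0 + 2) * ε) ≤ W.B'.d n ^ (pT 9 - (C0 + 2) * ε) :=
        rpow_anti W.B' n (by linarith)
      have z2 : W.B'.d n ^ (pT 9 - C0 * ε) ≤ W.B'.d n ^ (pT 9 - (C0 + 2) * ε) :=
        anK W.B' n hε (by linarith)
      have z3 := e64 (pT 9 - (C0 + 2) * ε)
      have z4 : W.B'.d n ^ (pT 9 - (C0 + 2) * ε - 2 * ε) ≤ W.B'.d n ^ (pT 9 - (C0 + 5) * ε) :=
        rpow_anti W.B' n (by nlinarith)
      have z5 := hpow (pT 9 - (C0 + 2) * ε)
      rw [abs_le]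
      constructor <;> linarith [e.1, e.2, c1.1, c1.2]
  · rcases q j with h' | h' | ⟨rfl, h'⟩
    · exact loose0 H hε (by linarith) h' (g1 j)
    · exact looseP H hε (by linarith) h' (hlo j)
    · rw [H.base n]
      have b2 : |(W.cfg E n).rel k' i l 11| ≤ W.B'.d n ^ (y - C2 * ε) := by
        have := hlo' 11
        rw [H.base n] at this
        exact this.trans (rpow_anti W.B' n (by linarith))
      have b4 : |(W.cfg E n).rel k i l 10| ≤ W.B'.d n ^ (-(2 * ε)) :=
        (g1 10).trans (rpow_anti W.B' n (by linarith))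
      have := solve hε h8 hyx (show (3 : ℝ) ≤ C0 + C2 + 11 by linarith) (by linarith)
        (by linarith) (by linarith) (f 11 p11) b2 main b4 g4 hdz
      exact this.trans (rpow_anti W.B' n (by
        have e : (C0 + C2 + 11 + 2) * ε = (C0 + C2 + 13) * ε := by ring
        linarith))

end facts

end Crest.Agent.R116.Pu171
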