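import Crest.Agent.R116.Kg1_330
import Crest.Agent.R116.Pu1_171

/-!
# R116: the two-height facts for linear tangents, slot `D` frozen (helper171)

`LinPs` : the two fields in the letters of 665's `LinFacts` (any base of `BsF`, one tight wall):
`P1` : `X = z + C` tight ⊢ `gC ≤ rX`;  `P2` : `11 = z + P` tight ⊢ `gP ≤ rF`.
-/

set_option autoImplicit false
set_option linter.unusedVariables false
set_option linter.unusedSectionVars false

open Filter Topology Finset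

namespace Crest.Agent.R116.Pu171

open Crest.Agent.R138.Ex926 (Base U IsTan)
open Crest.Agent.R136.Net191 Crest.Agent.R136.Qg926 Crest.Agent.R136.Gf356
open Crest.Agent.R116.ChL222 Crest.Agent.R116.PL504 Crest.Agent.R116.EvL504
open Crest.Agent.R116.Kr710 Crest.Agent.R116.Kf330 Crest.Agent.R116.WinG954
open Crest.Agent.R116.SgF665 Crest.Agent.R116.Sg337 Crest.Agent.R116.Kg330

variable {B : Base} {I J : ℕ → Finset (ℕ × ℝ)}
    {co : ∀ n : ℕ, ℕ × ℝ → ℕ × ℝ → Fin 12 → ℝ} {C R : ℝ} {ν : (Fin 12 → ℝ) → ℝ} {s : ℝ}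
    {X : ℕ → Fin 12 → ℝ} {h : ℕ → ℝ} {Jt : Type*} {f : Jt → (Fin 12 → ℝ) → ℝ} {j0 : Jt}
    {rz rX rH rF gC gP gE gB : ℝ}

section wd

variable {k' : ℕ → ℕ} {D : Set (Fin 12 → ℝ)} {lam : (Fin 12 → ℝ) → ℝ}
    {W : Wnd 12 (fun _ : ℕ => ℕ × ℝ)} {E : ∀ _ : ℕ, Finset (ℕ × ℝ)} {b : ℕ → Fin 2 → ℝ}

theorem p1_wd (w : WD B I J co C ν s X h rX rH rF gC gP gE gB k' D lam W E b) (hs : s < 1)
    (h5 : ∀ n, X n 5 = X n 0 + X n 3) (h6 : ∀ n, X n 6 = X n 0 + X n 4) : gC ≤ rX := by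
  have m0 := w.mem (E' := 0) (C' := 0) (X' := 0) (B' := 0) (N := 0) (P := 0) (F := 0)
    (by norm_num) (by norm_num) (by norm_num)
  have mX := w.mem (E' := 0) (C' := 0) (X' := 1) (B' := 0) (N := 0) (P := 0) (F := 0)
    (by norm_num) (by norm_num) (by norm_num)
  have mC := w.mem (E' := 0) (C' := 1) (X' := 1) (B' := 0) (N := 0) (P := 0) (F := 0)
    (by norm_num) (by norm_num) (by norm_num)
  have key := p1w w.win.wl w.reg w.mod (by linarith) one_pos (w.tight rfl h5) (w.tight rfl h6)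
    (y := 1) zero_le_one le_rfl
    (p := bx9 0 0 0 0 1 0 0 0 0) (p' := bx9 0 0 0 1 1 0 0 0 0) (pT := bx9 0 0 0 0 0 0 0 0 0)
    (r := bx9 0 0 0 0 1 0 0 0 0) mX.1 mC.1 m0.1 mX.1
    (fun j => by fin_cases j <;> simp [bx9]) (fun j => by fin_cases j <;> simp [bx9])
    (by simp [bx9]) (by simp [bx9]) (by simp [bx9]) (by simp [bx9])
    (fun j => by fin_cases j <;> simp [bx9])
  rw [mX.2, mC.2, m0.2] at key
  linarith

theorem p2_wd (w : WD B I J co C ν s X h rX rH rF gC gP gE gB k' D lam W E b) (hs : s < 1)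
    (h11 : ∀ n, X n 11 = X n 0 + X n 10) : gP ≤ rF := by
  have mT := w.mem (E' := 0) (C' := 1) (X' := 1) (B' := 0) (N := 1) (P := 0) (F := 0)
    (by norm_num) (by norm_num) (by norm_num)
  have mF := w.mem (E' := 0) (C' := 1) (X' := 1) (B' := 0) (N := 1) (P := 0) (F := 1)
    (by norm_num) (by norm_num) (by norm_num)
  have mP := w.mem (E' := 0) (C' := 1) (X' := 1) (B' := 0) (N := 1) (P := 1) (F := 1)
    (by norm_num) (by norm_num) (by norm_num)
  have key := p2w w.win.wl w.reg w.mod (by linarith) one_pos (w.tight rfl h11)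
    (y := 1) zero_le_one le_rfl
    (p := bx9 0 0 0 1 1 0 1 0 1) (p' := bx9 0 0 0 1 1 0 1 1 1) (pT := bx9 0 0 0 1 1 0 1 0 0)
    (r := bx9 0 0 0 1 1 0 1 0 1) mF.1 mP.1 mT.1 mF.1
    (fun j => by fin_cases j <;> simp [bx9]) (fun j => by fin_cases j <;> simp [bx9])
    (by simp [bx9]) (by simp [bx9]) (by simp [bx9]) (by simp [bx9]) (Or.inl (by simp [bx9]))
    (by simp [bx9]) (by simp [bx9])
    (fun j => by fin_cases j <;> simp [bx9])
  rw [mF.2, mP.2, mT.2] at key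
  linarith

end wd

/-- **the two-height facts in the letters of `LinFacts`** -/
structure LinPs {J : Type*} (P : Set (Fin 12 → ℝ)) (f : J → (Fin 12 → ℝ) → ℝ) (j0 : J)
    (Bs : (ℕ → Fin 12 → ℝ) → (ℕ → ℝ) → Prop) : Prop where
  P1 : ∀ X h rz rX rH rF gC gP gE gB, Bs X h → LinTan P f j0 X h rz rX rH rF gC gP gE gB →
    (∀ n, X n 5 = X n 0 + X n 3) → (∀ n, X n 6 = X n 0 + X n 4) → gC ≤ rX
  P2 : ∀ X h rz rX rH rF gC gP gE gB, Bs X h → LinTan P f j0 X h rz rX rH rF gC gP gE gB →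
    (∀ n, X n 11 = X n 0 + X n 10) → gP ≤ rF

/-- **the two-height facts from windows** -/
theorem linPs (hN : NProf B I J co monL C R ν) (hcoc : ∀ n, Coc (co n)) (hs0 : 0 ≤ s)
    (hs1 : s < 1) (hf : f j0 = ν) {Bs : (ℕ → Fin 12 → ℝ) → (ℕ → ℝ) → Prop}
    (hBs : ∀ X h, Bs X h → BsF B I J co C R ν s X h) : LinPs (Leg monL R) f j0 Bs where
  P1 := fun X h rz rX rH rF gC gP gE gB b L h5 h6 => by
    obtain ⟨k', D, lam, W, E, b, w⟩ := exists_wd hN hcoc hs0 hs1.le hf (hBs X h b) L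
    exact p1_wd w hs1 h5 h6
  P2 := fun X h rz rX rH rF gC gP gE gB b L h11 => by
    obtain ⟨k', D, lam, W, E, b, w⟩ := exists_wd hN hcoc hs0 hs1.le hf (hBs X h b) L
    exact p2_wd w hs1 h11

end Crest.Agent.R116.Pu171
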