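import Crest.Agent.R136.Rc4_146
import Crest.Agent.R136.Rbw3_219

/-!
# R116 (K side), K-TEXT II-c L5: rates on the half planes through the record line (helper219)

Everything for ONE supermodular, antitone `lam` (tangent at the record) and surfaces through the
record line with `Rc146.OutH`.
* `inc_phi`, `rate_inc` : an increment of one group = group function / rate
* `cl_gen`  : comparison of increments, `p ≤ q`, equal on the slots that are raised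
* `ray_cl`  : (CL) between two surfaces in terms of the rates
* `nat_val` : value on the natural half plane; `tan`, `lin`
-/

set_option autoImplicit false
set_option linter.unusedSectionVars false
set_option linter.unusedVariables false

open Set Filter Topology Metric MeasureTheory

namespace Crest.Agent.R116.RbK219

open Crest.Agent.R136
open Dg262 (X X_cont)
open Dg219 (Tn lf det2 zz lf_zz Cone Sep Geo gset mem_gset Walls)
open Rc146 (OutH LH DH SH SDir)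

variable {ι κ κ₁ κ₂ : Type*} [Fintype ι] [DecidableEq ι] [DecidableEq κ] [DecidableEq κ₁]
  [DecidableEq κ₂]

/-! ### increments and rates on one surface -/

section one

variable {grp : ι → κ} {S : Finset κ} {LW L : Set (ι → ℝ)} {a b : ι → ℝ} {l : ℝ × ℝ}
  {dh : ι → ℝ} {n : κ → ℝ × ℝ} {lam : (ι → ℝ) → ℝ} {φ : κ → (ι → ℝ) → ℝ} {r : κ → ℝ}

/-- increment in one group -/
theorem inc_phi (H : OutH grp S LW L a b l dh n lam φ r) {k : κ} (hk : k ∈ S) {p e : ι → ℝ}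
    (hp : p ∈ LW) (hpe : p + e ∈ LW) (heo : ∀ i, grp i ≠ k → e i = 0) :
    lam p - lam (p + e) = φ k p - φ k (p + e) := by
  have h1 := H.split p hp (p + e) hpe fun i hi => by
    rw [Pi.add_apply, heo i (fun h => hi (h ▸ hk)), add_zero]
  have h2 : ∑ k' ∈ S, (φ k' (p + e) - φ k' p) = φ k (p + e) - φ k p := by
    rw [Finset.sum_eq_single_of_mem k hk]
    intro k' _ hkk
    rw [H.loc k' (p + e) p fun i hi => by
      rw [Pi.add_apply, heo i (fun h => hkk (by rw [← hi, ← h])), add_zero], sub_self]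
  rw [h2] at h1
  linarith

/-- increment of a whole group in its own direction -/
theorem rate_inc (H : OutH grp S LW L a b l dh n lam φ r) (hL : LW ⊆ L) {k : κ} (hk : k ∈ S)
    {p e : ι → ℝ} (hp : p ∈ LW) (hpe : p + e ∈ LW) {u t : ℝ}
    (hpu : ∀ i, grp i = k → p i = u * dh i) (het : ∀ i, grp i = k → e i = t * dh i)
    (heo : ∀ i, grp i ≠ k → e i = 0) : lam p - lam (p + e) = r k * t := by
  rw [inc_phi H hk hp hpe heo, H.rate k hk p (hL hp) u hpu,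
    H.rate k hk (p + e) (hL hpe) (u + t) fun i hi => by
      rw [Pi.add_apply, hpu i hi, het i hi]; ring]
  ring

/-- value on the natural half plane, two points with the same coordinates in the groups parallel to
the record line -/
theorem nat_val (H : OutH grp S LW L a b l dh n lam φ r) (hL : LW ⊆ L) (hd : SDir grp a b n dh)
    {z z' : ℝ × ℝ} (hz : Tn a b z ∈ LW) (hz' : Tn a b z' ∈ LW)
    (hp : ∀ i, grp i ∉ S → Tn a b z' i = Tn a b z i) :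
    lam (Tn a b z') - lam (Tn a b z) = -∑ k ∈ S, r k * lf (n k) (z' - z) := by
  rw [H.split _ hz _ hz' hp, ← Finset.sum_neg_distrib]
  refine Finset.sum_congr rfl fun k hk => ?_
  rw [H.rate k hk _ (hL hz') (lf (n k) z') fun i hi => by rw [hd.Tn_eq, hi],
    H.rate k hk _ (hL hz) (lf (n k) z) fun i hi => by rw [hd.Tn_eq, hi]]
  simp only [lf, Prod.fst_sub, Prod.snd_sub]
  ring

end one

/-! ### comparison -/

/-- **comparison of increments** : `p ≤ q`, equal on the raised slots -/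
theorem cl_gen {M : Set (ι → ℝ)} {lam : (ι → ℝ) → ℝ}
    (hs : ∀ p ∈ M, ∀ q ∈ M, p ⊓ q ∈ M → p ⊔ q ∈ M → lam p + lam q ≤ lam (p ⊔ q) + lam (p ⊓ q))
    {p q e : ι → ℝ} (hp : p ∈ M) (hq : q ∈ M) (hpe : p + e ∈ M) (hqe : q + e ∈ M) (hpq : p ≤ q)
    (he : 0 ≤ e) (heq : ∀ i, e i ≠ 0 → p i = q i) :
    lam q - lam (q + e) ≤ lam p - lam (p + e) := by
  have e1 : (p + e) ⊔ q = q + e := by
    funext i
    simp only [Pi.sup_apply, Pi.add_apply]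
    by_cases h : e i = 0
    · rw [h, add_zero, add_zero]; exact max_eq_right (hpq i)
    · rw [heq i h]; exact max_eq_left (by linarith [he i, show (0 : ι → ℝ) i = 0 from rfl])
  have e2 : (p + e) ⊓ q = p := by
    funext i
    simp only [Pi.inf_apply, Pi.add_apply]
    by_cases h : e i = 0
    · rw [h, add_zero]; exact min_eq_left (hpq i)
    · rw [← heq i h]; exact min_eq_right (by linarith [he i, show (0 : ι → ℝ) i = 0 from rfl])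
  have := hs (p + e) hpe q hq (by rw [e2]; exact hp) (by rw [e1]; exact hqe)
  rw [e1, e2] at this
  linarith

/-- points of the open half plane plus small legal offsets are in the window cone -/
theorem memLH {L : Set (ι → ℝ)} {a b : ι → ℝ} {l : ℝ × ℝ} {c0 : ℝ} (hL : Cone L) (hc0 : 0 < c0)
    {z : ℝ × ℝ} (hz : lf l z < 0) {c : ι → ℝ} (hc : c ∈ L) :
    ∃ ε0 : ℝ, 0 < ε0 ∧ ∀ ε : ℝ, 0 ≤ ε → ε ≤ ε0 → Tn a b z + ε • c ∈ LH L a b l c0 := by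
  have h1 : 0 < c0 * -(lf l z) := mul_pos hc0 (by linarith)
  refine ⟨c0 * -(lf l z) / (1 + ‖c‖), by positivity, fun ε hε hε' =>
    ⟨z, ε • c, hz.le, hL.smul _ hc _ hε, ?_, rfl⟩⟩
  rw [norm_smul, Real.norm_of_nonneg hε]
  rw [le_div_iff₀ (by positivity)] at hε'
  nlinarith [norm_nonneg c]

/-- **(CL)** : natural points `Tn z₁ ≤ Tn z₂` of two surfaces, equal on the raised group -/
theorem ray_cl {M : Set (ι → ℝ)} {lam : (ι → ℝ) → ℝ}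
    (hs : ∀ p ∈ M, ∀ q ∈ M, p ⊓ q ∈ M → p ⊔ q ∈ M → lam p + lam q ≤ lam (p ⊔ q) + lam (p ⊓ q))
    {grp₁ : ι → κ₁} {S₁ : Finset κ₁} {L₁ : Set (ι → ℝ)} {a₁ b₁ : ι → ℝ} {l₁ : ℝ × ℝ} {c₁ : ℝ}
    {dh₁ : ι → ℝ} {n₁ : κ₁ → ℝ × ℝ} {φ₁ : κ₁ → (ι → ℝ) → ℝ} {r₁ : κ₁ → ℝ}
    (H₁ : OutH grp₁ S₁ (LH L₁ a₁ b₁ l₁ c₁) L₁ a₁ b₁ l₁ dh₁ n₁ lam φ₁ r₁)
    (hL₁ : Cone L₁) (hn₁ : ∀ z, Tn a₁ b₁ z ∈ L₁) (hd₁ : SDir grp₁ a₁ b₁ n₁ dh₁) (hc₁ : 0 < c₁)
    (hM₁ : LH L₁ a₁ b₁ l₁ c₁ ⊆ M)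
    {grp₂ : ι → κ₂} {S₂ : Finset κ₂} {L₂ : Set (ι → ℝ)} {a₂ b₂ : ι → ℝ} {l₂ : ℝ × ℝ} {c₂ : ℝ}
    {dh₂ : ι → ℝ} {n₂ : κ₂ → ℝ × ℝ} {φ₂ : κ₂ → (ι → ℝ) → ℝ} {r₂ : κ₂ → ℝ}
    (H₂ : OutH grp₂ S₂ (LH L₂ a₂ b₂ l₂ c₂) L₂ a₂ b₂ l₂ dh₂ n₂ lam φ₂ r₂)
    (hL₂ : Cone L₂) (hn₂ : ∀ z, Tn a₂ b₂ z ∈ L₂) (hd₂ : SDir grp₂ a₂ b₂ n₂ dh₂) (hc₂ : 0 < c₂)
    (hM₂ : LH L₂ a₂ b₂ l₂ c₂ ⊆ M)
    {k₁ : κ₁} {k₂ : κ₂} (hk₁ : k₁ ∈ S₁) (hk₂ : k₂ ∈ S₂) {e : ι → ℝ} (he : 0 ≤ e) {t₁ t₂ : ℝ}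
    (he₁ : ∀ i, grp₁ i = k₁ → e i = t₁ * dh₁ i) (ho₁ : ∀ i, grp₁ i ≠ k₁ → e i = 0)
    (he₂ : ∀ i, grp₂ i = k₂ → e i = t₂ * dh₂ i) (ho₂ : ∀ i, grp₂ i ≠ k₂ → e i = 0)
    {R : ι → ℝ} (hR₁ : ∀ i, grp₁ i = k₁ → R i = 0) (hR₂ : ∀ i, grp₂ i = k₂ → R i = 0)
    (hR₁' : R ∈ L₁) (hRe₁ : R + e ∈ L₁) (hR₂' : R ∈ L₂) (hRe₂ : R + e ∈ L₂)
    {z₁ z₂ : ℝ × ℝ} (hz₁ : lf l₁ z₁ < 0) (hz₂ : lf l₂ z₂ < 0) (hle : Tn a₁ b₁ z₁ ≤ Tn a₂ b₂ z₂)
    (heq : ∀ i, e i ≠ 0 → Tn a₁ b₁ z₁ i = Tn a₂ b₂ z₂ i) :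
    r₂ k₂ * t₂ ≤ r₁ k₁ * t₁ := by
  obtain ⟨ε1, h1, m1⟩ := memLH (a := a₁) (b := b₁) hL₁ hc₁ hz₁ hR₁'
  obtain ⟨ε2, h2, m2⟩ := memLH (a := a₁) (b := b₁) hL₁ hc₁ hz₁ hRe₁
  obtain ⟨ε3, h3, m3⟩ := memLH (a := a₂) (b := b₂) hL₂ hc₂ hz₂ hR₂'
  obtain ⟨ε4, h4, m4⟩ := memLH (a := a₂) (b := b₂) hL₂ hc₂ hz₂ hRe₂
  set ε : ℝ := min (min ε1 ε2) (min ε3 ε4) with hε
  have hε0 : 0 < ε := lt_min (lt_min h1 h2) (lt_min h3 h4)
  have i1 : ε ≤ ε1 := (min_le_left _ _).trans (min_le_left _ _)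
  have i2 : ε ≤ ε2 := (min_le_left _ _).trans (min_le_right _ _)
  have i3 : ε ≤ ε3 := (min_le_right _ _).trans (min_le_left _ _)
  have i4 : ε ≤ ε4 := (min_le_right _ _).trans (min_le_right _ _)
  have p1 := m1 ε hε0.le i1
  have p2 : (Tn a₁ b₁ z₁ + ε • R) + ε • e ∈ LH L₁ a₁ b₁ l₁ c₁ := by
    have := m2 ε hε0.le i2; rwa [smul_add, ← add_assoc] at this
  have q1 := m3 ε hε0.le i3
  have q2 : (Tn a₂ b₂ z₂ + ε • R) + ε • e ∈ LH L₂ a₂ b₂ l₂ c₂ := by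
    have := m4 ε hε0.le i4; rwa [smul_add, ← add_assoc] at this
  have key := cl_gen hs (hM₁ p1) (hM₂ q1) (hM₁ p2) (hM₂ q2) (fun i => by
      simp only [Pi.add_apply]; linarith [hle i]) (fun i => by
      simp only [Pi.smul_apply, smul_eq_mul]; exact mul_nonneg hε0.le (he i)) (fun i hi => by
      have hi' : e i ≠ 0 := by
        intro h0; apply hi; rw [Pi.smul_apply, h0, smul_zero]
      rw [Pi.add_apply, Pi.add_apply, heq i hi'])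
  rw [rate_inc H₁ (Rc146.LH_subL hL₁ hn₁) hk₁ p1 p2 (u := lf (n₁ k₁) z₁) (t := ε * t₁)
      (fun i hi => by
        rw [Pi.add_apply, Pi.smul_apply, hR₁ i hi, smul_zero, add_zero, hd₁.Tn_eq, hi])
      (fun i hi => by rw [Pi.smul_apply, smul_eq_mul, he₁ i hi]; ring)
      (fun i hi => by rw [Pi.smul_apply, ho₁ i hi, smul_zero]),
    rate_inc H₂ (Rc146.LH_subL hL₂ hn₂) hk₂ q1 q2 (u := lf (n₂ k₂) z₂) (t := ε * t₂)
      (fun i hi => by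
        rw [Pi.add_apply, Pi.smul_apply, hR₂ i hi, smul_zero, add_zero, hd₂.Tn_eq, hi])
      (fun i hi => by rw [Pi.smul_apply, smul_eq_mul, he₂ i hi]; ring)
      (fun i hi => by rw [Pi.smul_apply, ho₂ i hi, smul_zero])] at key
  have : ε * (r₂ k₂ * t₂) ≤ ε * (r₁ k₁ * t₁) := by linarith
  exact le_of_mul_le_mul_left this hε0

end Crest.Agent.R116.RbK219
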