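import Crest.Agent.R116.SgL2_337
import Crest.Agent.R116.Fz2_708

/-!
# R116 (K side, TIES), the producer, part 1 (helper363)

* `Prf L s a b Vis β g` : what is inherited by every tangent of the profile `ν` : antitone with the
  sum bound, supermodular, own increments (boxes not finer than the own exponents in the visible
  slots), cost of a refinement.
* `prf_of`   : a tangent of `ν` at a record point (visible slots allowed);
* `Prf.tan`  : kept by tangents at moving bases (a slot with slack below its own exponent becomes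
  invisible).
* `dmax_tan`, `rec_tan` : D-max and the record identity for second tangents.
-/

set_option autoImplicit false
set_option linter.unusedVariables false

open Finset Filter Topology

namespace Crest.Agent.R116.Rcx363

open Crest.Agent.R138.Ex926 (Base U IsTan QProf cls mem_cls)
open Crest.Agent.R136
open Crest.Agent.R136.Net191
open Crest.Agent.R136.Lq196
open Crest.Agent.R116.ChL222
open Crest.Agent.R116.PL504 (nb rL DN eL βL)
open Crest.Agent.R116.Xd954 (cs xs FlagX Mrg)
open Crest.Agent.R116.Sg337 (coneL DL)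
open Dg262 (SupOn)

/-- an own/fine profile of a quasi-nested family is antitone -/
theorem own_anti {B : Base} {ι κ : ℕ → Type*} [∀ n, DecidableEq (ι n)] [∀ n, DecidableEq (κ n)]
    {V : Type*} [LE V] {I : ∀ n, Finset (ι n)} {f : ∀ n, V → ι n → κ n} {P : Set V} {ν : V → ℝ}
    (h : QProf B I f P ν) (hne : ∀ᶠ n in (U : Filter ℕ), (I n).Nonempty) {p q : V} (hp : p ∈ P)
    (hq : q ∈ P) (hqp : q ≤ p) : ν p ≤ ν q := by
  by_contra hcon
  rw [not_le] at hcon
  have hε : 0 < (ν p - ν q) / 2 := by linarith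
  obtain ⟨n, h1, h2⟩ := ((h.num _ hε).and hne).exists
  obtain ⟨i, hi⟩ := h2
  have h3 := h1 q hq p hp hqp i hi
  have h4 : (1 : ℝ) ≤ (((cls (I n) (f n q) i).image (f n p)).card : ℝ) := by
    have : ((cls (I n) (f n q) i).image (f n p)).Nonempty :=
      ⟨_, mem_image_of_mem _ (mem_cls.2 ⟨hi, rfl⟩)⟩
    exact_mod_cast this.card_pos
  have h5 : B.d n ^ (-(ν q - ν p + (ν p - ν q) / 2)) < 1 :=
    Real.rpow_lt_one (B.pos n).le (B.lt n) (by linarith)
  linarith

/-- what is inherited by tangents -/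
structure Prf (L : Set (Fin 12 → ℝ)) (s : ℝ) (a b : Fin 2) (Vis : Fin 12 → Prop)
    (β : Fin 12 → ℝ) (g : (Fin 12 → ℝ) → ℝ) : Prop where
  ab : a ≠ b
  anti : ∀ p ∈ L, ∀ q ∈ L, p ≤ q → 0 ≤ g p - g q ∧ g p - g q ≤ ∑ k, (q k - p k)
  sm : SupOn g L
  own : ∀ p ∈ L, ∀ q ∈ L, p ≤ q → ∀ u : ℝ, p 0 ≤ u → (∀ k, Vis k → p k ≤ u * β k) →
    (1 - s) * (q 0 - u) ≤ g p - g q
  cost : ∀ p ∈ L, ∀ q ∈ L, p ≤ q → (q (cs b) ≤ p (cs b) ∨ q (cs b) ≤ q (cs a)) →
    (q (xs b) ≤ p (xs b) ∨ q (xs b) ≤ q (xs a)) →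
    g p - g q ≤ ∑ k ∈ ({cs b, xs b} : Finset (Fin 12))ᶜ, (q k - p k)

theorem Prf.mono {L L' : Set (Fin 12 → ℝ)} {s : ℝ} {a b : Fin 2} {Vis : Fin 12 → Prop}
    {β : Fin 12 → ℝ} {g : (Fin 12 → ℝ) → ℝ} (H : Prf L s a b Vis β g) (hL : L' ⊆ L) :
    Prf L' s a b Vis β g where
  ab := H.ab
  anti := fun p hp q hq => H.anti p (hL hp) q (hL hq)
  sm := fun p hp q hq h1 h2 => H.sm p (hL hp) q (hL hq) (hL h1) (hL h2)
  own := fun p hp q hq => H.own p (hL hp) q (hL hq)
  cost := fun p hp q hq => H.cost p (hL hp) q (hL hq)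

theorem coneL_raise {p : Fin 12 → ℝ} (hp : p ∈ coneL) {u : ℝ} (hu : p 0 ≤ u) :
    Function.update p 0 u ∈ coneL := by
  intro k e he
  have hk : k ≠ 0 := by
    rintro rfl
    change e ∈ mfL 0 at he
    simp [mfL] at he
  rw [Function.update_of_ne hk]
  refine (hp k e he).trans (Finset.sum_le_sum fun s _ => ?_)
  refine mul_le_mul_of_nonneg_left ?_ (Nat.cast_nonneg _)
  by_cases hs : s = 0
  · subst hs; rw [Function.update_self]; exact hu
  · rw [Function.update_of_ne hs]

theorem rL_add (θa θb w0 sa sb v t : ℝ) :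
    rL θa θb w0 sa sb (v + t) = rL θa θb w0 sa sb v + t • βL θa θb := by
  rw [PL504.rL_nb, PL504.rL_nb]
  unfold βL
  rw [← PL504.eL_smul, ← PL504.nb_add]
  congr 1 <;> ring

section ext

variable {B : Base} {I0 I : ℕ → Finset (ℕ × ℝ)} {lev : ℕ → ℚ → ℕ} {inc : ℕ → ℕ × ℝ → LInc}
    {σ : Fin 2 → ℕ → ℝ} {k0 ϑ w0 sa sb g q0 q1 θa θb : ℝ} {a b : Fin 2}
    {C R s c₀ : ℝ} {PD : Set (Fin 12 → ℝ)} {D : (Fin 12 → ℝ) → ℝ}
    {o : ℝ → Fin 12 → ℝ} {E : ℝ → ℝ} {T : Fin 12 → Prop} {ν own : (Fin 12 → ℝ) → ℝ}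

/-- **a tangent of `ν` at a record point, visible slots allowed** -/
theorem prf_of
    (h : ExtQ B I0 I (Gd222.coN B lev inc σ w0 sa sb) monL C R 0 w0 s PD D
      (rL θa θb w0 sa sb) o E T ν own c₀)
    (hF : FlagX B I lev inc σ k0 ϑ a b) {Vis : Fin 12 → Prop}
    (hoz : ∀ v : ℝ, 0 ≤ v → v ≤ 1 → o v 0 = w0 + v)
    (hon : ∀ v : ℝ, 0 ≤ v → v ≤ 1 → ∀ k, k ≠ 0 → ¬ Vis k → R ≤ o v k)
    (hov : ∀ v : ℝ, 0 ≤ v → v ≤ 1 → ∀ k, Vis k → rL θa θb w0 sa sb v k ≤ o v k)
    {v0 : ℝ} (hv0 : 0 < v0) (hv1 : v0 < 1) (h0t : 0 < θa * (1 - v0))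
    (htk : θa * (1 - v0) < θb * (1 - v0) + k0) (hvt : ϑ < v0 + θa * (1 - v0))
    {hh : ℕ → ℝ} (hpos : ∀ l, 0 < hh l) (hh0 : Tendsto hh atTop (𝓝 0))
    {lam : (Fin 12 → ℝ) → ℝ}
    (ht : IsTan (Leg monL R) coneL ν (fun _ => rL θa θb w0 sa sb v0) hh lam) :
    Prf coneL s a b Vis (βL θa θb) lam where
  ab := hF.ab
  anti := fun p hp q hq hpq => SgO219.tan_mono hpos ht h.lip p hp q hq hpq
  sm := SgO219.tan_smod (P := Leg monL R) (L := coneL) hpos ht
      (fun p hp q hq hi _ => by
        have := h.submod p hp q hq hi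
        linarith)
  own := fun p hp q hq hpq u hu hV => by
    have h1 := SgO219.tan_lim hpos ht hp hq
    refine ge_of_tendsto h1 ?_
    have e0 : ∀ c : ℝ, Tendsto (fun l => v0 + hh l * c) atTop (𝓝 v0) := fun c => by
      have := (hh0.mul_const c).const_add v0
      simpa using this
    filter_upwards [SgO219.tan_ev ht hp, SgO219.tan_ev ht hq,
      SgO219.tan_ev ht (coneL_raise hp hu),
      (e0 u).eventually (Ioo_mem_nhds hv0 hv1), (e0 (q 0)).eventually (Ioo_mem_nhds hv0 hv1)]
      with l m1 m2 m3 n1 n2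
    have hl := hpos l
    have hle : rL θa θb w0 sa sb v0 + hh l • p ≤
        rL θa θb w0 sa sb v0 + hh l • Function.update p 0 u := by
      intro k
      simp only [Pi.add_apply, Pi.smul_apply, smul_eq_mul]
      by_cases hk : k = 0
      · subst hk; rw [Function.update_self]
        have := mul_le_mul_of_nonneg_left hu hl.le
        linarith
      · rw [Function.update_of_ne hk]
    have h2 := PL504.own_inc' h m1 m2 m3 (fun k => by
        simp only [Pi.add_apply, Pi.smul_apply, smul_eq_mul]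
        have := mul_le_mul_of_nonneg_left (hpq k) hl.le
        linarith) hle (u := v0 + hh l * u) (v' := v0 + hh l * q 0) n1.1.le n1.2.le n2.1.le n2.2.le
      (by simp only [Pi.add_apply, Pi.smul_apply, smul_eq_mul, PL504.rL_zero_slot,
            Function.update_self]; ring)
      (by simp only [Pi.add_apply, Pi.smul_apply, smul_eq_mul, PL504.rL_zero_slot]; ring)
      (fun k => by
        by_cases hk : k = 0
        · rw [hk, hoz _ n1.1.le n1.2.le]
          simp only [Pi.add_apply, Pi.smul_apply, smul_eq_mul, PL504.rL_zero_slot,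
            Function.update_self]
          linarith
        · by_cases hkv : Vis k
          · refine le_trans ?_ (hov _ n1.1.le n1.2.le k hkv)
            rw [rL_add]
            simp only [Pi.add_apply, Pi.smul_apply, smul_eq_mul]
            rw [Function.update_of_ne hk]
            have := mul_le_mul_of_nonneg_left (hV k hkv) hl.le
            nlinarith
          · exact (m3.2 k).trans (hon _ n1.1.le n1.2.le k hk hkv))
      (own_anti h.oprof h.ne m3 m1 hle)
    rw [le_div_iff₀ hl]
    nlinarith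
  cost := fun p hp q hq hpq h1 h2 => by
    refine Xd954.lam_lip h hF h0t htk hvt (P := Leg monL R) (Dm := coneL) le_rfl ht ?_ hpos hh0
      (fun l => ?_) (fun l => ?_) hp hq hpq h1 h2
    · rw [PL504.rL_nb]; exact tendsto_const_nhds
    · rw [PL504.rL_nb, Xd954.nb_cs, Xd954.nb_cs]
    · rw [PL504.rL_nb, Xd954.nb_xs, Xd954.nb_xs]

end ext

/-! ### tangents of tangents -/

section tan

variable {L L' : Set (Fin 12 → ℝ)} {s : ℝ} {a b : Fin 2} {Vis Vis' : Fin 12 → Prop}
    {β : Fin 12 → ℝ} {g lam : (Fin 12 → ℝ) → ℝ} {Y : ℕ → Fin 12 → ℝ} {k : ℕ → ℝ}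

/-- **kept by tangents at moving bases** -/
theorem Prf.tan (H : Prf L s a b Vis β g) (hpos : ∀ m, 0 < k m) (hk0 : Tendsto k atTop (𝓝 0))
    (ht : IsTan L L' g Y k lam) (hC : ∀ m, Y m (cs b) = Y m (cs a))
    (hX : ∀ m, Y m (xs b) = Y m (xs a))
    (hV : ∀ i, Vis i → (Vis' i ∧ ∀ m, Y m i ≤ Y m 0 * β i) ∨
      ∃ c : ℝ, 0 < c ∧ ∀ᶠ m in atTop, Y m i + c ≤ Y m 0 * β i) :
    Prf L' s a b Vis' β lam where
  ab := H.ab
  anti := SgO219.tan_mono hpos ht H.anti
  sm := SgO219.tan_smod hpos ht H.sm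
  own := fun p hp q hq hpq u hu hVp => by
    have h1 := SgO219.tan_lim hpos ht hp hq
    refine ge_of_tendsto h1 ?_
    have hev : ∀ i, Vis i → ∀ᶠ m in atTop, Y m i + k m * p i ≤ (Y m 0 + k m * u) * β i := by
      intro i hi
      rcases hV i hi with ⟨h2, h3⟩ | ⟨c, hc, h3⟩
      · refine Eventually.of_forall fun m => ?_
        have := mul_le_mul_of_nonneg_left (hVp i h2) (hpos m).le
        have := h3 m
        nlinarith
      · have h4 : Tendsto (fun m => k m * (p i - u * β i)) atTop (𝓝 0) := by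
          have := hk0.mul_const (p i - u * β i)
          simpa using this
        filter_upwards [h3, h4.eventually_lt_const hc] with m m1 m2
        nlinarith
    have hev' : ∀ᶠ m in atTop, ∀ i, Vis i → Y m i + k m * p i ≤ (Y m 0 + k m * u) * β i :=
      eventually_all.2 fun i => by
        by_cases hi : Vis i
        · exact (hev i hi).mono fun m h _ => h
        · exact Eventually.of_forall fun m h => absurd h hi
    filter_upwards [SgO219.tan_ev ht hp, SgO219.tan_ev ht hq, hev'] with m m1 m2 m3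
    have hl := hpos m
    have h2 := H.own _ m1 _ m2 (fun i => by
        simp only [Pi.add_apply, Pi.smul_apply, smul_eq_mul]
        have := mul_le_mul_of_nonneg_left (hpq i) hl.le
        linarith) (Y m 0 + k m * u) (by
        simp only [Pi.add_apply, Pi.smul_apply, smul_eq_mul]
        have := mul_le_mul_of_nonneg_left hu hl.le
        linarith) (fun i hi => by
        simp only [Pi.add_apply, Pi.smul_apply, smul_eq_mul]
        exact m3 i hi)
    simp only [Pi.add_apply, Pi.smul_apply, smul_eq_mul] at h2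
    rw [le_div_iff₀ hl]
    nlinarith
  cost := fun p hp q hq hpq h1 h2 => by
    have h3 := SgO219.tan_lim hpos ht hp hq
    refine le_of_tendsto h3 ?_
    filter_upwards [SgO219.tan_ev ht hp, SgO219.tan_ev ht hq] with m m1 m2
    have hl := hpos m
    have h4 := H.cost _ m1 _ m2 (fun i => by
        simp only [Pi.add_apply, Pi.smul_apply, smul_eq_mul]
        have := mul_le_mul_of_nonneg_left (hpq i) hl.le
        linarith) (by
        simp only [Pi.add_apply, Pi.smul_apply, smul_eq_mul]
        have h5 := hC m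
        rcases h1 with h1 | h1
        · left
          have := mul_le_mul_of_nonneg_left h1 hl.le
          linarith
        · right
          have := mul_le_mul_of_nonneg_left h1 hl.le
          linarith) (by
        simp only [Pi.add_apply, Pi.smul_apply, smul_eq_mul]
        have h5 := hX m
        rcases h2 with h2 | h2
        · left
          have := mul_le_mul_of_nonneg_left h2 hl.le
          linarith
        · right
          have := mul_le_mul_of_nonneg_left h2 hl.le
          linarith)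
    rw [div_le_iff₀ hl]
    refine h4.trans (le_of_eq ?_)
    rw [Finset.sum_mul]
    exact Finset.sum_congr rfl fun i _ => by
      simp only [Pi.add_apply, Pi.smul_apply, smul_eq_mul]; ring

end tan

end Crest.Agent.R116.Rcx363
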