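import Crest.Agent.R116.Rcx1_363
import Crest.Agent.R116.RbM2_219
import Crest.Agent.R116.CtxB_468

/-!
# R116 (K side, TIES), the producer, part 2 (helper363)

`CtxT` ⊢ first tangents at the record point `v0` ⊢ (219's `ae_rates8` / `ae_rates9`) second
tangents at record points with the rates of countably many half planes.

* `DDead ν ..` : `D` is dead along the record in every tangent at `v0` (708's `Frz`).
* `Rx L nt ..` : `Prf` (antitone, supermodular, own, cost) + D-max + record identity.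
* `Out8`, `Out9` : the complete output;  **`recx8`** (`D` frozen), **`recx9`** (`D` live).
* `strict_ctx` : a context with room above.
-/

set_option autoImplicit false
set_option linter.unusedVariables false

open Set Filter Topology MeasureTheory

namespace Crest.Agent.R116.Rcx363

open Crest.Agent.R138.Ex926 (Base U IsTan)
open Crest.Agent.R136
open Crest.Agent.R136.MkA627
open Crest.Agent.R136.TD627
open Crest.Agent.R136.Net191
open Crest.Agent.R136.Lq196
open Crest.Agent.R116.ChL222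
open Crest.Agent.R116.PL504 (nb rL DN eL βL oL Shift)
open Crest.Agent.R116.Xd954 (cs xs FlagX Mrg)
open Crest.Agent.R116.Sg337 (coneL DL natB eL_bx9)
open Crest.Agent.R116.Gd222 (TSet sN PDL DT)
open Crest.Agent.R116.KI439
open Crest.Agent.R116.KF439 (PL)
open Crest.Agent.R116.Tw468 (OutT)
open Crest.Agent.R116.CtxB468
open Crest.Agent.R116.RbM219
open Crest.Agent.R116.RbK219 (SOk RS)
open Crest.Agent.R116.SgO219 (PP tan_lim tan_ev)
open Crest.Agent.R116.Fz708 (Frz FrzAt)
open Dg262 (SupOn)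
open Dg219 (mw)

theorem coneL_PP : coneL = PP (mw monL) := by
  ext c
  exact mem_PP.symm

theorem zero_coneL : (0 : Fin 12 → ℝ) ∈ coneL := by
  intro k e _
  simp

theorem isClosed_coneL : IsClosed coneL := by
  have : coneL = ⋂ k, ⋂ e ∈ monL.mon k, {p : Fin 12 → ℝ | p k ≤ ∑ s, (e s : ℝ) * p s} := by
    ext p
    simp only [coneL, Set.mem_ofPred_eq, Set.mem_iInter]
  rw [this]
  refine isClosed_iInter fun k => isClosed_biInter fun e _ => ?_
  exact isClosed_le (continuous_apply k)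
    (continuous_finsetSum _ fun s _ => continuous_const.mul (continuous_apply s))

theorem lip_of_mono {m : ℕ} {P : Set (Fin m → ℝ)} (hsup : ∀ p ∈ P, ∀ q ∈ P, p ⊔ q ∈ P)
    {f : (Fin m → ℝ) → ℝ}
    (hm : ∀ p ∈ P, ∀ q ∈ P, p ≤ q → 0 ≤ f p - f q ∧ f p - f q ≤ ∑ k, (q k - p k)) :
    ∀ p ∈ P, ∀ q ∈ P, |f p - f q| ≤ m * dist p q := by
  have key : ∀ p ∈ P, ∀ q ∈ P, f p - f q ≤ m * dist p q := by
    intro p hp q hq
    have h1 := hm p hp _ (hsup p hp q hq) le_sup_left
    have h2 := hm q hq _ (hsup p hp q hq) le_sup_right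
    have h3 : ∑ k, ((p ⊔ q) k - p k) ≤ ∑ _k : Fin m, dist p q := by
      refine Finset.sum_le_sum fun k _ => ?_
      rw [Pi.sup_apply]
      have h4 := dist_le_pi_dist p q k
      rw [Real.dist_eq] at h4
      have h5 := abs_le.1 h4
      rcases le_total (p k) (q k) with h | h
      · rw [sup_eq_right.2 h]; linarith [h5.1]
      · rw [sup_eq_left.2 h, sub_self]; exact dist_nonneg
    rw [Finset.sum_const, Finset.card_univ, Fintype.card_fin, nsmul_eq_mul] at h3
    linarith [h1.2, h2.1]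
  intro p hp q hq
  rw [abs_le]
  constructor
  · have := key q hq p hp
    rw [dist_comm] at this
    linarith
  · exact key p hp q hq

theorem leg_near {θa θb w0 sa sb δ R : ℝ} (sh : Shift θa θb w0 sa sb δ R)
    (hR0 : w0 + (θb + sb) < R) (hR1 : w0 + 1 + sb < R) {v0 : ℝ} (hv0 : 0 ≤ v0) (hv1 : v0 ≤ 1) :
    ∃ r : ℝ, 0 < r ∧ ∀ c ∈ coneL, (∀ k, |c k| ≤ r) → rL θa θb w0 sa sb v0 + c ∈ Leg monL R := by
  set R' : ℝ := max (w0 + (θb + sb)) (w0 + 1 + sb) with hR'
  have hRR : R' < R := max_lt hR0 hR1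
  have sh' : Shift θa θb w0 sa sb δ R' :=
    ⟨sh.d0, sh.z, sh.c0, sh.c1, sh.D0, sh.D1, le_max_left _ _, le_max_right _ _⟩
  have h1 := sh'.rL_leg hv0 hv1
  refine ⟨min δ (R - R'), lt_min sh.d0 (by linarith), fun c hc hr => ?_⟩
  have hb : ∀ k, -δ ≤ c k ∧ c k ≤ R - R' := fun k => by
    have h2 := abs_le.1 (hr k)
    exact ⟨by linarith [min_le_left δ (R - R'), h2.1], by linarith [min_le_right δ (R - R'), h2.2]⟩
  refine ⟨⟨fun k => ?_, fun k e he => ?_⟩, fun k => ?_⟩
  · rw [Pi.add_apply]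
    linarith [sh.rL_pos hv0 hv1 k, (hb k).1]
  · rw [Pi.add_apply]
    have h2 := h1.1.wall k e he
    have h3 := hc k e he
    have h4 : ∑ s, (e s : ℝ) * (rL θa θb w0 sa sb v0 + c) s =
        ∑ s, (e s : ℝ) * rL θa θb w0 sa sb v0 s + ∑ s, (e s : ℝ) * c s := by
      rw [← Finset.sum_add_distrib]
      exact Finset.sum_congr rfl fun s _ => by rw [Pi.add_apply]; ring
    rw [h4]
    linarith
  · rw [Pi.add_apply]
    linarith [h1.2 k, (hb k).2]

/-- `D` is dead along the record, in every tangent at `v0` -/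
def DDead (R : ℝ) (ν : (Fin 12 → ℝ) → ℝ) (θa θb w0 sa sb v0 : ℝ) : Prop :=
  ∀ (hh : ℕ → ℝ) (g : (Fin 12 → ℝ) → ℝ), (∀ l, 0 < hh l) → Tendsto hh atTop (𝓝 0) →
    IsTan (Leg monL R) coneL ν (fun _ => rL θa θb w0 sa sb v0) hh g →
    ∀ t y : ℝ, 0 ≤ y → g (t • βL θa θb + y • (Pi.single 1 1 : Fin 12 → ℝ)) = g (t • βL θa θb)

theorem smul_βL (t θa θb : ℝ) : t • βL θa θb = natB t (-(θa * t)) (-(θb * t)) := by
  rw [← eL_bx9]
  unfold βL
  rw [← PL504.eL_smul]
  congr 1 <;> ring

theorem natB_mem (v c p : ℝ) : natB v c p ∈ coneL := Sg337.natB_cone v c p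

theorem single_mem {p : Fin 12 → ℝ} (hp : p ∈ coneL) {y : ℝ} (hy : 0 ≤ y) :
    p + y • (Pi.single 1 1 : Fin 12 → ℝ) ∈ coneL := by
  intro k e he
  have hk : k ≠ 1 := by
    rintro rfl
    change e ∈ mfL 1 at he
    simp [mfL] at he
  have h1 := hp k e he
  have h2 : (p + y • (Pi.single 1 1 : Fin 12 → ℝ)) k = p k := by
    simp [Pi.single_apply, hk]
  rw [h2]
  refine h1.trans (Finset.sum_le_sum fun s _ => mul_le_mul_of_nonneg_left ?_ (Nat.cast_nonneg _))
  by_cases hs : s = 1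
  · subst hs; simp [hy]
  · simp [Pi.single_apply, hs]

/-- from 708's `FrzAt` (`ν' = ν` on the legal set) -/
theorem DDead.of_frzAt {R : ℝ} {ν ν' : (Fin 12 → ℝ) → ℝ} {θa θb w0 sa sb v0 : ℝ}
    (hF : FrzAt ν' (rL θa θb w0 sa sb 0) (βL θa θb) (Pi.single 1 1) v0)
    (he : ∀ p ∈ Leg monL R, ν' p = ν p) : DDead R ν θa θb w0 sa sb v0 := by
  intro hh g hpos h0 ht t y hy
  have e0 : rL θa θb w0 sa sb v0 = rL θa θb w0 sa sb 0 + v0 • βL θa θb := by
    rw [← rL_add, zero_add]
  rw [e0] at ht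
  refine Fz708.frz_tan hF he hpos h0 ht hy ?_ ?_
  · rw [smul_βL]; exact natB_mem _ _ _
  · rw [smul_βL]; exact single_mem (natB_mem _ _ _) hy

/-- `Prf`, D-max and the record identity -/
structure Rx (L : Set (Fin 12 → ℝ)) (nt : ℝ → ℝ → ℝ → Fin 12 → ℝ) (s : ℝ) (a b : Fin 2)
    (Vis : Fin 12 → Prop) (θa θb g qa qb : ℝ) (lam : (Fin 12 → ℝ) → ℝ) : Prop where
  prf : Prf L s a b Vis (βL θa θb) lam
  dmax : ∀ v c p : ℝ, lam (nt v c p) ≤ DL g s qa qb v c p
  rcd : ∀ t : ℝ, lam (nt t (-(θa * t)) (-(θb * t))) = DL g s qa qb t (-(θa * t)) (-(θb * t))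

theorem DL_add (g s qa qb v c p v' c' p' : ℝ) :
    DL g s qa qb (v + v') (c + c') (p + p') = DL g s qa qb v c p + DL g s qa qb v' c' p' := by
  unfold DL; ring

theorem DL_smul (g s qa qb k v c p : ℝ) :
    DL g s qa qb (k * v) (k * c) (k * p) = k * DL g s qa qb v c p := by
  unfold DL; ring

/-! ### the second tangent, `D` frozen -/

/-- the box with the slot `D` at the level `y` -/
def ntD (y v c p : ℝ) : Fin 12 → ℝ := Function.update (eL v c p) 1 y

theorem ntD_split (y v c p : ℝ) :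
    ntD y v c p = natB v c p + (y - (p - 2 * c - v)) • (Pi.single 1 1 : Fin 12 → ℝ) := by
  rw [← eL_bx9]
  funext k
  unfold ntD
  by_cases hk : k = 1
  · subst hk
    simp [eL]
  · rw [Function.update_of_ne hk]
    simp [Pi.single_apply, hk]

theorem base_ntD {θa θb t ym k y v c p : ℝ} :
    y8 t + ym • r8 θa θb + k • ntD y v c p =
      ntD (t + k * y) (ym + k * v) (-(θa * ym) + k * c) (-(θb * ym) + k * p) := by
  have h1 : ym • eL 1 (-θa) (-θb) = eL ym (-(θa * ym)) (-(θb * ym)) := by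
    rw [← PL504.eL_smul]
    congr 1 <;> ring
  funext i
  unfold ntD
  by_cases hi : i = 1
  · subst hi
    simp [y8, r8]
  · rw [Function.update_of_ne hi]
    simp only [Pi.add_apply, Pi.smul_apply, smul_eq_mul]
    rw [y8_at hi]
    unfold r8
    rw [Function.update_of_ne hi, Function.update_of_ne hi]
    have h2 := congrFun (PL504.eL_add ym (-(θa * ym)) (-(θb * ym)) (k * v) (k * c) (k * p)) i
    rw [h2, Pi.add_apply, ← h1, PL504.eL_smul]
    simp only [Pi.smul_apply, smul_eq_mul]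
    ring

theorem base_ntD0 {θa θb t ym : ℝ} :
    y8 t + ym • r8 θa θb = ntD t ym (-(θa * ym)) (-(θb * ym)) := by
  have h := base_ntD (θa := θa) (θb := θb) (t := t) (ym := ym) (k := 0) (y := 0) (v := 0) (c := 0)
    (p := 0)
  simpa using h

/-- all walls without `D` are equalities on `ntD` -/
theorem ntD_mem {θa θb t : ℝ} (ht : t ≠ 0) (y v c p : ℝ) : ntD y v c p ∈ L8 θa θb t := by
  intro w hw
  obtain ⟨k, e, he⟩ := w
  have hk : k ≠ 1 := kp_hd ⟨k, e, he⟩
  -- the wall is active along the line, so it does not contain `D`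
  have h1 : e 1 = 0 := by
    have hx : y8 t k = ∑ s, (e s : ℝ) * y8 t s + 0 := hw.1
    have h2 : ∑ s, (e s : ℝ) * y8 t s = (e 1 : ℝ) * t := by
      rw [Finset.sum_eq_single (1 : Fin 12)]
      · unfold y8; rw [Function.update_self]
      · intro s _ hs; rw [y8_at hs, mul_zero]
      · intro h; exact absurd (Finset.mem_univ _) h
    rw [y8_at hk, h2, add_zero] at hx
    rcases mul_eq_zero.1 hx.symm with h | h
    · exact_mod_cast h
    · exact absurd h ht
  change ntD y v c p k ≤ ∑ s, (e s : ℝ) * ntD y v c p s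
  unfold ntD
  rw [Function.update_of_ne hk, ← PL504.eL_wall v c p k he]
  refine Finset.sum_le_sum fun s _ => ?_
  by_cases hs : s = 1
  · subst hs; rw [h1]; simp
  · rw [Function.update_of_ne hs]

section second

variable {s : ℝ} {a b : Fin 2} {Vis : Fin 12 → Prop} {θa θb g qa qb t ξ : ℝ}
    {G lam : (Fin 12 → ℝ) → ℝ} {y k : ℕ → ℝ}

/-- values of the first tangent on boxes with `D` finer than natural -/
theorem G_ntD_le (hG : Prf coneL s a b Vis (βL θa θb) G)
    (hD : ∀ v c p : ℝ, G (natB v c p) ≤ DL g s qa qb v c p) {y v c p : ℝ}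
    (hy : p - 2 * c - v ≤ y) : G (ntD y v c p) ≤ DL g s qa qb v c p := by
  refine le_trans ?_ (hD v c p)
  have h1 : ntD y v c p ∈ coneL := by
    rw [ntD_split]; exact single_mem (natB_mem _ _ _) (by linarith)
  have h2 := (hG.anti _ (natB_mem v c p) _ h1 (by
    rw [ntD_split]
    intro i
    simp only [Pi.add_apply, Pi.smul_apply, smul_eq_mul]
    have : 0 ≤ (y - (p - 2 * c - v)) * (Pi.single 1 1 : Fin 12 → ℝ) i := by
      refine mul_nonneg (by linarith) ?_
      by_cases hi : i = 1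
      · subst hi; simp
      · simp [Pi.single_apply, hi]
    linarith)).1
  linarith

theorem G_ntD_rec (hR : ∀ t : ℝ, G (natB t (-(θa * t)) (-(θb * t))) =
      DL g s qa qb t (-(θa * t)) (-(θb * t)))
    (hfz : ∀ t y : ℝ, 0 ≤ y → G (t • βL θa θb + y • (Pi.single 1 1 : Fin 12 → ℝ)) =
      G (t • βL θa θb)) {y τ : ℝ} (hy : τ * (2 * θa - θb - 1) ≤ y) :
    G (ntD y τ (-(θa * τ)) (-(θb * τ))) = DL g s qa qb τ (-(θa * τ)) (-(θb * τ)) := by
  rw [ntD_split, ← smul_βL, hfz _ _ (by nlinarith), smul_βL]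
  exact hR τ

/-- **the second tangent, `D` frozen** -/
theorem rx8 (hG : Prf coneL s a b Vis (βL θa θb) G)
    (hD : ∀ v c p : ℝ, G (natB v c p) ≤ DL g s qa qb v c p)
    (hR : ∀ t : ℝ, G (natB t (-(θa * t)) (-(θb * t))) = DL g s qa qb t (-(θa * t)) (-(θb * t)))
    (hfz : ∀ t y : ℝ, 0 ≤ y → G (t • βL θa θb + y • (Pi.single 1 1 : Fin 12 → ℝ)) =
      G (t • βL θa θb)) (hV1 : ¬ Vis 1) (ht0 : 0 < t) (hξ : ξ * (2 * θa - θb - 1) < t)
    (hy : Tendsto y atTop (𝓝 ξ)) (hpos : ∀ m, 0 < k m) (hk0 : Tendsto k atTop (𝓝 0))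
    (ht : IsTan (PP (mw monL)) (L8 θa θb t) G (fun m => y8 t + y m • r8 θa θb) k lam) :
    Rx (L8 θa θb t) (ntD 0) s a b Vis θa θb g qa qb lam ∧
      (∀ z v c p : ℝ, lam (ntD z v c p) ≤ DL g s qa qb v c p) ∧
      ∀ z τ : ℝ, lam (ntD z τ (-(θa * τ)) (-(θb * τ))) =
        DL g s qa qb τ (-(θa * τ)) (-(θb * τ)) := by
  have ht' : IsTan coneL (L8 θa θb t) G (fun m => y8 t + y m • r8 θa θb) k lam := by
    rw [coneL_PP]; exact ht
  have hev : ∀ᶠ m in atTop, y m * (2 * θa - θb - 1) < t :=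
    (hy.mul_const _).eventually_lt_const hξ
  have h0L : (0 : Fin 12 → ℝ) ∈ L8 θa θb t := by
    have h := ntD_mem (θa := θa) (θb := θb) ht0.ne' 0 0 0 0
    have e : ntD 0 0 0 0 = 0 := by
      funext i
      unfold ntD
      by_cases hi : i = 1
      · subst hi; simp
      · rw [Function.update_of_ne hi]
        fin_cases i <;> simp [eL]
    rwa [e] at h
  have hz := Sg337.tan_zero hpos ht' h0L
  have hβ1 : βL θa θb 1 = 2 * θa - θb - 1 := by
    show -θb - 2 * -θa - 1 = _
    ring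
  have hlim : ∀ z v c p : ℝ, Tendsto (fun m => (G (ntD (t + k m * z) (y m + k m * v)
      (-(θa * y m) + k m * c) (-(θb * y m) + k m * p)) -
      G (ntD t (y m) (-(θa * y m)) (-(θb * y m)))) / k m) atTop (𝓝 (lam (ntD z v c p))) := by
    intro z v c p
    have h1 := tan_lim hpos ht' (ntD_mem ht0.ne' z v c p) h0L
    rw [hz, sub_zero] at h1
    refine h1.congr fun m => ?_
    rw [smul_zero, add_zero, base_ntD, base_ntD0]
  have hnat : ∀ z v c p : ℝ, ∀ᶠ m in atTop, (-(θb * y m) + k m * p) - 2 * (-(θa * y m) + k m * c) -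
      (y m + k m * v) ≤ t + k m * z := by
    intro z v c p
    have h1 : Tendsto (fun m => (-(θb * y m) + k m * p) - 2 * (-(θa * y m) + k m * c) -
        (y m + k m * v) - k m * z) atTop (𝓝 (ξ * (2 * θa - θb - 1))) := by
      have e1 := ((((hy.const_mul θb).neg.add (hk0.mul_const p)).sub
        (((hy.const_mul θa).neg.add (hk0.mul_const c)).const_mul 2)).sub
        (hy.add (hk0.mul_const v))).sub (hk0.mul_const z)
      refine (e1.congr fun m => by ring).trans (le_of_eq ?_)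
      congr 1; ring
    filter_upwards [h1.eventually_lt_const hξ] with m hm
    linarith
  have hbase : ∀ᶠ m in atTop, G (ntD t (y m) (-(θa * y m)) (-(θb * y m))) =
      DL g s qa qb (y m) (-(θa * y m)) (-(θb * y m)) :=
    hev.mono fun m hm => G_ntD_rec hR hfz hm.le
  have hdm : ∀ z v c p : ℝ, lam (ntD z v c p) ≤ DL g s qa qb v c p := by
    intro z v c p
    refine le_of_tendsto (hlim z v c p) ?_
    filter_upwards [hnat z v c p, hbase] with m h1 h2
    have h3 := G_ntD_le hG hD h1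
    rw [h2, div_le_iff₀ (hpos m)]
    rw [DL_add, DL_smul] at h3
    linarith
  have hrc : ∀ z τ : ℝ, lam (ntD z τ (-(θa * τ)) (-(θb * τ))) =
      DL g s qa qb τ (-(θa * τ)) (-(θb * τ)) := by
    intro z τ
    refine tendsto_nhds_unique (hlim z τ (-(θa * τ)) (-(θb * τ))) ?_
    refine tendsto_const_nhds.congr' ?_
    filter_upwards [hnat z τ (-(θa * τ)) (-(θb * τ)), hbase] with m h1 h2
    have e1 : -(θa * y m) + k m * (-(θa * τ)) = -(θa * (y m + k m * τ)) := by ring
    have e2 : -(θb * y m) + k m * (-(θb * τ)) = -(θb * (y m + k m * τ)) := by ring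
    rw [h2, e1, e2, G_ntD_rec hR hfz (by rw [e1, e2] at h1; linarith), eq_div_iff (hpos m).ne',
      ← e1, ← e2, DL_add, DL_smul]
    ring
  refine ⟨⟨?_, fun v c p => hdm 0 v c p, fun τ => hrc 0 τ⟩, hdm, hrc⟩
  have hbr : ∀ i : Fin 12, i ≠ 1 → ∀ m, (y8 t + y m • r8 θa θb) i = y m * βL θa θb i := by
    intro i hi m
    simp only [Pi.add_apply, Pi.smul_apply, smul_eq_mul]
    rw [y8_at hi]
    unfold r8
    rw [Function.update_of_ne hi, zero_add]
    rfl
  have hcs : ∀ c : Fin 2, cs c ≠ 1 := by intro c; fin_cases c <;> decide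
  have hxs : ∀ c : Fin 2, xs c ≠ 1 := by intro c; fin_cases c <;> decide
  refine hG.tan (Vis' := Vis) hpos hk0 ht' (fun m => ?_) (fun m => ?_) (fun i hi => Or.inl
    ⟨hi, fun m => ?_⟩)
  · rw [hbr _ (hcs b), hbr _ (hcs a)]
    congr 1
    fin_cases a <;> fin_cases b <;> rfl
  · rw [hbr _ (hxs b), hbr _ (hxs a)]
    congr 1
    fin_cases a <;> fin_cases b <;> rfl
  · have hi1 : i ≠ 1 := by rintro rfl; exact hV1 hi
    rw [hbr i hi1, hbr 0 (by decide)]
    have e0 : βL θa θb 0 = 1 := rfl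
    rw [e0, mul_one]

/-- **the second tangent, `D` live** -/
theorem rx9 (hG : Prf coneL s a b Vis (βL θa θb) G)
    (hD : ∀ v c p : ℝ, G (natB v c p) ≤ DL g s qa qb v c p)
    (hR : ∀ t : ℝ, G (natB t (-(θa * t)) (-(θb * t))) = DL g s qa qb t (-(θa * t)) (-(θb * t)))
    (hpos : ∀ m, 0 < k m) (hk0 : Tendsto k atTop (𝓝 0))
    (ht : IsTan (PP (mw monL)) (PP (mw monL)) G (fun m => y m • r9 θa θb) k lam) :
    Rx coneL eL s a b Vis θa θb g qa qb lam := by
  have ht' : IsTan coneL coneL G (fun m => y m • r9 θa θb) k lam := by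
    rw [coneL_PP]; exact ht
  have hz := Sg337.tan_zero hpos ht' zero_coneL
  have hb : ∀ m, y m • r9 θa θb = natB (y m) (-(θa * y m)) (-(θb * y m)) := fun m =>
    smul_βL _ _ _
  have hadd : ∀ m (v c p : ℝ), y m • r9 θa θb + k m • eL v c p =
      natB (y m + k m * v) (-(θa * y m) + k m * c) (-(θb * y m) + k m * p) := by
    intro m v c p
    rw [hb, ← eL_bx9, ← eL_bx9, PL504.eL_add, PL504.eL_smul]
  have hmem : ∀ v c p : ℝ, eL v c p ∈ coneL := fun v c p => by
    rw [eL_bx9]; exact natB_mem _ _ _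
  have hlim : ∀ v c p : ℝ, Tendsto (fun m => (G (natB (y m + k m * v)
      (-(θa * y m) + k m * c) (-(θb * y m) + k m * p)) -
      G (natB (y m) (-(θa * y m)) (-(θb * y m)))) / k m) atTop (𝓝 (lam (eL v c p))) := by
    intro v c p
    have h1 := tan_lim hpos ht' (hmem v c p) zero_coneL
    rw [hz, sub_zero] at h1
    refine h1.congr fun m => ?_
    rw [smul_zero, add_zero, hadd, hb]
  refine ⟨?_, fun v c p => ?_, fun τ => ?_⟩
  · have hbr : ∀ (i : Fin 12) m, (y m • r9 θa θb) i = y m * βL θa θb i := fun i m => rfl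
    refine hG.tan (Vis' := Vis) hpos hk0 ht' (fun m => ?_) (fun m => ?_) (fun i hi => Or.inl
      ⟨hi, fun m => ?_⟩)
    · rw [hbr, hbr]
      congr 1
      fin_cases a <;> fin_cases b <;> rfl
    · rw [hbr, hbr]
      congr 1
      fin_cases a <;> fin_cases b <;> rfl
    · rw [hbr, hbr]
      have e0 : βL θa θb 0 = 1 := rfl
      rw [e0, mul_one]
  · refine le_of_tendsto (hlim v c p) (Eventually.of_forall fun m => ?_)
    have h3 := hD (y m + k m * v) (-(θa * y m) + k m * c) (-(θb * y m) + k m * p)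
    rw [hR, div_le_iff₀ (hpos m)]
    rw [DL_add, DL_smul] at h3
    linarith
  · refine tendsto_nhds_unique (hlim τ (-(θa * τ)) (-(θb * τ))) ?_
    refine tendsto_const_nhds.congr' (Eventually.of_forall fun m => ?_)
    have e1 : -(θa * y m) + k m * (-(θa * τ)) = -(θa * (y m + k m * τ)) := by ring
    have e2 : -(θb * y m) + k m * (-(θb * τ)) = -(θb * (y m + k m * τ)) := by ring
    beta_reduce
    rw [hR, e1, e2, hR, eq_div_iff (hpos m).ne', ← e1, ← e2, DL_add, DL_smul]
    ring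

end second

end Crest.Agent.R116.Rcx363
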