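import Crest.Agent.R116.Rcx3_363

/-!
# R116 (K side, TIES), the producer, part 4 (helper363): class level

`RL8` : `anti8`, `cost8` (`B` counted twice), `own8`, `dm8`, `rec8`;  `RL9` the same.
-/

set_option autoImplicit false
set_option linter.unusedVariables false

open Set Filter Topology MeasureTheory

namespace Crest.Agent.R116.Rcx363

open Crest.Agent.R136
open Crest.Agent.R136.Net191
open Crest.Agent.R116.ChL222
open Crest.Agent.R116.PL504 (eL βL)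
open Crest.Agent.R116.Xd954 (cs xs)
open Crest.Agent.R116.Sg337 (coneL DL natB eL_bx9)
open Crest.Agent.R116.RbM219
open Crest.Agent.R116.RbK219 (SOk RS)
open Crest.Agent.R116.SgO219 (PP)
open Dg219 (mw)
open Sl741 (slice xt rs)

theorem cs_xs (b : Fin 2) : cs b ≠ xs b := by fin_cases b <;> decide

theorem compl_sum (b : Fin 2) (f : Fin 12 → ℝ) :
    ∑ k ∈ ({cs b, xs b} : Finset (Fin 12))ᶜ, f k = (∑ k, f k) - f (cs b) - f (xs b) := by
  have h1 := Finset.sum_add_sum_compl ({cs b, xs b} : Finset (Fin 12)) f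
  rw [Finset.sum_pair (cs_xs b)] at h1
  linarith

section eight

variable {s : ℝ} {a b : Fin 2} {Vis : Fin 12 → Prop} {θa θb g qa qb t : ℝ}
    {lam : (Fin 12 → ℝ) → ℝ}

/-- the box of a class vector, `D` frozen -/
def b8 (w : Fin 8 → ℝ) : Fin 12 → ℝ := xt kp 0 (RL8.vec w)

theorem b8_val (w : Fin 8 → ℝ) {k : Fin 12} (hk : k ≠ 1) : b8 w k = w (cl8 k) := by
  unfold b8
  rw [Sl741.xt_in (p := kp) _ _ hk]
  simp [RS.vec, RL8]

theorem b8_one (w : Fin 8 → ℝ) : b8 w 1 = 0 := by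
  unfold b8
  rw [Sl741.xt_off (p := kp) _ _ (by simp [kp])]
  rfl

theorem b8_mem (ht : t ≠ 0) {w : Fin 8 → ℝ} (hw : Leg8 w) : b8 w ∈ L8 θa θb t := by
  intro W hW
  obtain ⟨k, e, he⟩ := W
  have hk : k ≠ 1 := kp_hd ⟨k, e, he⟩
  have h1 : e 1 = 0 := by
    have hx : y8 t k = ∑ s, (e s : ℝ) * y8 t s + 0 := hW.1
    have h2 : ∑ s, (e s : ℝ) * y8 t s = (e 1 : ℝ) * t := by
      rw [Finset.sum_eq_single (1 : Fin 12)]
      · unfold y8; rw [Function.update_self]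
      · intro s _ hs; rw [y8_at hs, mul_zero]
      · intro h; exact absurd (Finset.mem_univ _) h
    rw [y8_at hk, h2, add_zero] at hx
    rcases mul_eq_zero.1 hx.symm with h | h
    · exact_mod_cast h
    · exact absurd h ht
  change b8 w k ≤ ∑ s, (e s : ℝ) * b8 w s
  -- compare with a large value of `D`
  set c : Fin 12 → ℝ := Function.update (b8 w) 1 (10 * ‖w‖ + 1) with hc
  have hcc : c ∈ coneL := by
    rw [coneL_PP, mem_cone]
    have hn : ∀ i, |w i| ≤ ‖w‖ := fun i => by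
      have := norm_le_pi_norm w i; rwa [Real.norm_eq_abs] at this
    have hv : ∀ i : Fin 12, i ≠ 1 → c i = w (cl8 i) := fun i hi => by
      rw [hc, Function.update_of_ne hi, b8_val w hi]
    have h1 : c 1 = 10 * ‖w‖ + 1 := by rw [hc, Function.update_self]
    obtain ⟨f1, f2, f3, f4, f5, f6, f7⟩ := hw
    have q0 : c 0 = w 0 := hv 0 (by decide)
    have q2 : c 2 = w 7 := hv 2 (by decide)
    have q3 : c 3 = w 1 := hv 3 (by decide)
    have q4 : c 4 = w 1 := hv 4 (by decide)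
    have q5 : c 5 = w 3 := hv 5 (by decide)
    have q6 : c 6 = w 3 := hv 6 (by decide)
    have q7 : c 7 = w 6 := hv 7 (by decide)
    have q8 : c 8 = w 6 := hv 8 (by decide)
    have q9 : c 9 = w 5 := hv 9 (by decide)
    have q10 : c 10 = w 2 := hv 10 (by decide)
    have q11 : c 11 = w 4 := hv 11 (by decide)
    have hN : 0 ≤ ‖w‖ := norm_nonneg _
    have b0 := abs_le.1 (hn 0)
    have b1 := abs_le.1 (hn 1)
    have b2 := abs_le.1 (hn 2)
    have b3 := abs_le.1 (hn 3)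
    have b4 := abs_le.1 (hn 4)
    have b5 := abs_le.1 (hn 5)
    have b6 := abs_le.1 (hn 6)
    have b7 := abs_le.1 (hn 7)
    unfold Wl
    rw [q0, q2, q3, q4, q5, q6, q7, q8, q9, q10, q11, h1]
    refine ⟨?_, ?_, ?_, ?_, ?_, ?_, ?_, ?_, ?_, ?_, ?_, ?_, ?_, ?_, ?_, ?_⟩ <;>
      linarith [b0.1, b0.2, b1.1, b1.2, b2.1, b2.2, b3.1, b3.2, b4.1, b4.2, b5.1, b5.2, b6.1,
        b6.2, b7.1, b7.2]
  have h2 := hcc k e he
  have h3 : c k = b8 w k := by rw [hc, Function.update_of_ne hk]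
  rw [h3] at h2
  refine h2.trans (le_of_eq (Finset.sum_congr rfl fun i _ => ?_))
  by_cases hi : i = 1
  · subst hi; rw [h1]; simp
  · rw [hc, Function.update_of_ne hi]

theorem b8_le {w w' : Fin 8 → ℝ} (h : w ≤ w') : b8 w ≤ b8 w' := by
  intro k
  by_cases hk : k = 1
  · subst hk; rw [b8_one, b8_one]
  · rw [b8_val w hk, b8_val w' hk]; exact h _

theorem b8_nat (v c p : ℝ) : b8 (nat8 v c p) = ntD 0 v c p := RL8_nat v c p

theorem b8_anti (H : Prf (L8 θa θb t) s a b Vis (βL θa θb) lam) (ht : t ≠ 0) :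
    ∀ w w' : Fin 8 → ℝ, Leg8 w → Leg8 w' → w ≤ w' → lam (b8 w') ≤ lam (b8 w) := by
  intro w w' h1 h2 hw
  have := (H.anti _ (b8_mem ht h1) _ (b8_mem ht h2) (b8_le hw)).1
  linarith

theorem b8_cost (H : Prf (L8 θa θb t) s a b Vis (βL θa θb) lam) (ht : t ≠ 0) :
    ∀ w w' : Fin 8 → ℝ, Leg8 w → Leg8 w' → w ≤ w' →
      lam (b8 w) - lam (b8 w') ≤ ∑ i, (if i = 6 then 2 else 1) * (w' i - w i) := by
  intro w w' h1 h2 hw
  have hab := H.ab
  have e : ∀ c : Fin 2, ∀ w : Fin 8 → ℝ, b8 w (cs c) = w 1 ∧ b8 w (xs c) = w 3 := by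
    intro c w
    fin_cases c
    · exact ⟨b8_val w (by decide), b8_val w (by decide)⟩
    · exact ⟨b8_val w (by decide), b8_val w (by decide)⟩
  refine (H.cost _ (b8_mem ht h1) _ (b8_mem ht h2) (b8_le hw) (Or.inr ?_) (Or.inr ?_)).trans ?_
  · rw [(e b w').1, (e a w').1]
  · rw [(e b w').2, (e a w').2]
  · rw [compl_sum b fun k => b8 w' k - b8 w k]
    simp only [(e b w').1, (e b w').2, (e b w).1, (e b w).2]
    have e1 := b8_one w
    have e1' := b8_one w'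
    have E : ∀ w : Fin 8 → ℝ, b8 w 0 = w 0 ∧ b8 w 2 = w 7 ∧ b8 w 3 = w 1 ∧ b8 w 4 = w 1 ∧
        b8 w 5 = w 3 ∧ b8 w 6 = w 3 ∧ b8 w 7 = w 6 ∧ b8 w 8 = w 6 ∧ b8 w 9 = w 5 ∧
        b8 w 10 = w 2 ∧ b8 w 11 = w 4 := fun w =>
      ⟨b8_val w (by decide), b8_val w (by decide), b8_val w (by decide), b8_val w (by decide),
        b8_val w (by decide), b8_val w (by decide), b8_val w (by decide), b8_val w (by decide),
        b8_val w (by decide), b8_val w (by decide), b8_val w (by decide)⟩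
    have s12 : ∑ k, (b8 w' k - b8 w k) = (b8 w' 0 - b8 w 0) + (b8 w' 1 - b8 w 1) +
        (b8 w' 2 - b8 w 2) + (b8 w' 3 - b8 w 3) + (b8 w' 4 - b8 w 4) + (b8 w' 5 - b8 w 5) +
        (b8 w' 6 - b8 w 6) + (b8 w' 7 - b8 w 7) + (b8 w' 8 - b8 w 8) + (b8 w' 9 - b8 w 9) +
        (b8 w' 10 - b8 w 10) + (b8 w' 11 - b8 w 11) := by
      simp [Fin.sum_univ_succ]; ring
    have s8 : ∑ i, (if i = (6 : Fin 8) then (2:ℝ) else 1) * (w' i - w i) = (w' 0 - w 0) +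
        (w' 1 - w 1) + (w' 2 - w 2) + (w' 3 - w 3) + (w' 4 - w 4) + (w' 5 - w 5) +
        2 * (w' 6 - w 6) + (w' 7 - w 7) := by
      rw [Fin.sum_univ_eight]
      simp
    rw [s12, s8, e1, e1']
    obtain ⟨a0, a2, a3, a4, a5, a6, a7, a8, a9, a10, a11⟩ := E w
    obtain ⟨c0, c2, c3, c4, c5, c6, c7, c8, c9, c10, c11⟩ := E w'
    rw [a0, a2, a3, a4, a5, a6, a7, a8, a9, a10, a11, c0, c2, c3, c4, c5, c6, c7, c8, c9, c10, c11]
    linarith

/-- own increments at the class level; `u` = the own level which contains the box -/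
theorem b8_own (H : Prf (L8 θa θb t) s a b Vis (βL θa θb) lam) (ht : t ≠ 0)
    (hV1 : ¬ Vis 1) {w w' : Fin 8 → ℝ} (h1 : Leg8 w) (h2 : Leg8 w') (hw : w ≤ w') {u : ℝ}
    (hu : w 0 ≤ u) (hV : ∀ k, Vis k → w (cl8 k) ≤ u * βL θa θb k) :
    (1 - s) * (w' 0 - u) ≤ lam (b8 w) - lam (b8 w') := by
  have e : ∀ w : Fin 8 → ℝ, b8 w 0 = w 0 := fun w => b8_val w (by decide)
  have h := H.own _ (b8_mem ht h1) _ (b8_mem ht h2) (b8_le hw) u (by rw [e]; exact hu)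
    (fun k hk => by
      have hk1 : k ≠ 1 := by rintro rfl; exact hV1 hk
      rw [b8_val w hk1]; exact hV k hk)
  rwa [e] at h

/-- `z` is the only visible slot of the box, `B` and `E` as in the record or coarser -/
theorem b8_own' (H : Prf (L8 θa θb t) s a b Vis (βL θa θb) lam) (ht : t ≠ 0)
    (hV1 : ¬ Vis 1) (hVr : ∀ k ∈ ({3, 4, 5, 6, 9, 10, 11} : Finset (Fin 12)), ¬ Vis k)
    {w w' : Fin 8 → ℝ} (h1 : Leg8 w) (h2 : Leg8 w') (hw : w ≤ w') {u : ℝ}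
    (hu : w 0 ≤ u) (hB : Vis 7 ∨ Vis 8 → w 6 ≤ u * (θa - θb))
    (hE : Vis 2 → w 7 ≤ u * (2 * θa - θb)) :
    (1 - s) * (w' 0 - u) ≤ lam (b8 w) - lam (b8 w') := by
  refine b8_own H ht hV1 h1 h2 hw hu fun k hk => ?_
  have e0 : βL θa θb 0 = 1 := rfl
  have e2 : βL θa θb 2 = 2 * θa - θb := by
    show -θb - 2 * -θa = _
    ring
  have e7 : βL θa θb 7 = θa - θb := by
    show -θb - -θa = _
    ring
  have e8 : βL θa θb 8 = θa - θb := by
    show -θb - -θa = _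
    ring
  by_cases hr : k ∈ ({3, 4, 5, 6, 9, 10, 11} : Finset (Fin 12))
  · exact absurd hk (hVr k hr)
  · have hc : k = 0 ∨ k = 1 ∨ k = 2 ∨ k = 7 ∨ k = 8 := by
      revert hr; clear hk; revert k; decide
    rcases hc with rfl | rfl | rfl | rfl | rfl
    · rw [e0, mul_one]; exact hu
    · exact absurd hk hV1
    · rw [e2]; exact hE hk
    · rw [e7]; exact hB (Or.inl hk)
    · rw [e8]; exact hB (Or.inr hk)

end eight

section nine

variable {s : ℝ} {a b : Fin 2} {Vis : Fin 12 → Prop} {θa θb g qa qb : ℝ}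
    {lam : (Fin 12 → ℝ) → ℝ}

theorem v9_val (w : Fin 9 → ℝ) (k : Fin 12) : RL9.vec w k = w (cl9 k) := by
  simp [RS.vec, RL9]

theorem v9_mem {w : Fin 9 → ℝ} (hw : Leg9 w) : RL9.vec w ∈ coneL := by
  rw [coneL_PP]; exact RL9_mem hw

theorem v9_le {w w' : Fin 9 → ℝ} (h : w ≤ w') : RL9.vec w ≤ RL9.vec w' := by
  intro k
  rw [v9_val, v9_val]; exact h _

theorem v9_anti (H : Prf coneL s a b Vis (βL θa θb) lam) :
    ∀ w w' : Fin 9 → ℝ, Leg9 w → Leg9 w' → w ≤ w' → lam (RL9.vec w') ≤ lam (RL9.vec w) := by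
  intro w w' h1 h2 hw
  have := (H.anti _ (v9_mem h1) _ (v9_mem h2) (v9_le hw)).1
  linarith

theorem v9_cost (H : Prf coneL s a b Vis (βL θa θb) lam) :
    ∀ w w' : Fin 9 → ℝ, Leg9 w → Leg9 w' → w ≤ w' →
      lam (RL9.vec w) - lam (RL9.vec w') ≤ ∑ i, (if i = 6 then 2 else 1) * (w' i - w i) := by
  intro w w' h1 h2 hw
  have hab := H.ab
  have e : ∀ c : Fin 2, ∀ w : Fin 9 → ℝ, RL9.vec w (cs c) = w 1 ∧ RL9.vec w (xs c) = w 3 := by
    intro c w
    fin_cases c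
    · exact ⟨v9_val w _, v9_val w _⟩
    · exact ⟨v9_val w _, v9_val w _⟩
  refine (H.cost _ (v9_mem h1) _ (v9_mem h2) (v9_le hw) (Or.inr ?_) (Or.inr ?_)).trans ?_
  · rw [(e b w').1, (e a w').1]
  · rw [(e b w').2, (e a w').2]
  · rw [compl_sum b fun k => RL9.vec w' k - RL9.vec w k]
    simp only [(e b w').1, (e b w').2, (e b w).1, (e b w).2]
    have E : ∀ w : Fin 9 → ℝ, RL9.vec w 0 = w 0 ∧ RL9.vec w 1 = w 8 ∧ RL9.vec w 2 = w 7 ∧
        RL9.vec w 3 = w 1 ∧ RL9.vec w 4 = w 1 ∧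
        RL9.vec w 5 = w 3 ∧ RL9.vec w 6 = w 3 ∧ RL9.vec w 7 = w 6 ∧ RL9.vec w 8 = w 6 ∧
        RL9.vec w 9 = w 5 ∧ RL9.vec w 10 = w 2 ∧ RL9.vec w 11 = w 4 := fun w =>
      ⟨v9_val w _, v9_val w _, v9_val w _, v9_val w _, v9_val w _, v9_val w _, v9_val w _,
        v9_val w _, v9_val w _, v9_val w _, v9_val w _, v9_val w _⟩
    have s12 : ∑ k, (RL9.vec w' k - RL9.vec w k) = (RL9.vec w' 0 - RL9.vec w 0) +
        (RL9.vec w' 1 - RL9.vec w 1) +
        (RL9.vec w' 2 - RL9.vec w 2) + (RL9.vec w' 3 - RL9.vec w 3) +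
        (RL9.vec w' 4 - RL9.vec w 4) + (RL9.vec w' 5 - RL9.vec w 5) +
        (RL9.vec w' 6 - RL9.vec w 6) + (RL9.vec w' 7 - RL9.vec w 7) +
        (RL9.vec w' 8 - RL9.vec w 8) + (RL9.vec w' 9 - RL9.vec w 9) +
        (RL9.vec w' 10 - RL9.vec w 10) + (RL9.vec w' 11 - RL9.vec w 11) := by
      simp [Fin.sum_univ_succ]; ring
    have s9 : ∑ i, (if i = (6 : Fin 9) then (2:ℝ) else 1) * (w' i - w i) = (w' 0 - w 0) +
        (w' 1 - w 1) + (w' 2 - w 2) + (w' 3 - w 3) + (w' 4 - w 4) + (w' 5 - w 5) +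
        2 * (w' 6 - w 6) + (w' 7 - w 7) + (w' 8 - w 8) := by
      simp [Fin.sum_univ_succ]
      ring
    rw [s12, s9]
    obtain ⟨a0, a1, a2, a3, a4, a5, a6, a7, a8, a9, a10, a11⟩ := E w
    obtain ⟨c0, c1, c2, c3, c4, c5, c6, c7, c8, c9, c10, c11⟩ := E w'
    rw [a0, a1, a2, a3, a4, a5, a6, a7, a8, a9, a10, a11, c0, c1, c2, c3, c4, c5, c6, c7, c8, c9,
      c10, c11]
    linarith

/-- own increments at the class level; `u` = the own level which contains the box -/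
theorem v9_own (H : Prf coneL s a b Vis (βL θa θb) lam) {w w' : Fin 9 → ℝ} (h1 : Leg9 w)
    (h2 : Leg9 w') (hw : w ≤ w') {u : ℝ} (hu : w 0 ≤ u)
    (hV : ∀ k, Vis k → w (cl9 k) ≤ u * βL θa θb k) :
    (1 - s) * (w' 0 - u) ≤ lam (RL9.vec w) - lam (RL9.vec w') := by
  have e : ∀ w : Fin 9 → ℝ, RL9.vec w 0 = w 0 := fun w => v9_val w _
  have h := H.own _ (v9_mem h1) _ (v9_mem h2) (v9_le hw) u (by rw [e]; exact hu)
    (fun k hk => by rw [v9_val w]; exact hV k hk)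
  rwa [e] at h

theorem v9_own' (H : Prf coneL s a b Vis (βL θa θb) lam)
    (hVr : ∀ k ∈ ({3, 4, 5, 6, 9, 10, 11} : Finset (Fin 12)), ¬ Vis k)
    {w w' : Fin 9 → ℝ} (h1 : Leg9 w) (h2 : Leg9 w') (hw : w ≤ w') {u : ℝ}
    (hu : w 0 ≤ u) (hB : Vis 7 ∨ Vis 8 → w 6 ≤ u * (θa - θb))
    (hE : Vis 2 → w 7 ≤ u * (2 * θa - θb)) (hD : Vis 1 → w 8 ≤ u * (2 * θa - θb - 1)) :
    (1 - s) * (w' 0 - u) ≤ lam (RL9.vec w) - lam (RL9.vec w') := by
  refine v9_own H h1 h2 hw hu fun k hk => ?_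
  have e0 : βL θa θb 0 = 1 := rfl
  have e1 : βL θa θb 1 = 2 * θa - θb - 1 := by
    show -θb - 2 * -θa - 1 = _
    ring
  have e2 : βL θa θb 2 = 2 * θa - θb := by
    show -θb - 2 * -θa = _
    ring
  have e7 : βL θa θb 7 = θa - θb := by
    show -θb - -θa = _
    ring
  have e8 : βL θa θb 8 = θa - θb := by
    show -θb - -θa = _
    ring
  by_cases hr : k ∈ ({3, 4, 5, 6, 9, 10, 11} : Finset (Fin 12))
  · exact absurd hk (hVr k hr)
  · have hc : k = 0 ∨ k = 1 ∨ k = 2 ∨ k = 7 ∨ k = 8 := by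
      revert hr; clear hk; revert k; decide
    rcases hc with rfl | rfl | rfl | rfl | rfl
    · rw [e0, mul_one]; exact hu
    · rw [e1]; exact hD hk
    · rw [e2]; exact hE hk
    · rw [e7]; exact hB (Or.inl hk)
    · rw [e8]; exact hB (Or.inr hk)

end nine

end Crest.Agent.R116.Rcx363
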