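import Crest.Agent.R116.Kr10_710
import Crest.Agent.R116.WinU_954

/-!
# R116, isotropic row (helper468): the static facts (H1) for one component

`slab1` : one slice, lines `c`, time `x`, position `h`, law
`rel i l h = rel i j h + rel i j c * rel j l x + κ' rel i j o * rel j l o'`, fibre fine in the slot `o`.
**`h1I`** (`c, x, h = 3, 5, 9`, tight wall `X 9 = X 3 + X 5`), **`h2I`** (`4, 6, 9`): from a tangent of
an `NProf` over `monL` which is linear on `Leg monL t`, at any moving base point.  No thinness.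
-/

set_option autoImplicit false
set_option linter.unusedVariables false
set_option linter.unusedSectionVars false

open Filter Topology Finset

namespace Crest.Agent.R116.RfI468

open Crest.Agent.R138.Ex926
open Crest.Agent.R136.Net191 Crest.Agent.R136.Qg926 Crest.Agent.R136.Gf356
open Crest.Agent.R138.Fal658
open Crest.Agent.R116.ChL222 Crest.Agent.R116.PL504 Crest.Agent.R116.EvL504
open Crest.Agent.R116.Kr710 Crest.Agent.R116.WinU954

theorem slab1 {B : Base} {G : ℕ → RCfg (Fin 12)} {Leg : Set (Fin 12 → ℝ)}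
    {ν : (Fin 12 → ℝ) → ℝ} {D : ℝ} (H : RUnif B G Leg ν D) {i0 k0 : ℕ → ℕ}
    (h0 : ∀ᶠ n in (U : Filter ℕ), (i0 n, k0 n) ∈ (G n).I) {c x h o o' : Fin 12} (hcx : x ≠ c)
    (hch : h ≠ c) (hxh : h ≠ x) (hoc : o ≠ c) (hox : o ≠ x) (hoh : o ≠ h) {y : ℝ} (hy : 0 < y)
    {κ' : ℕ → ℝ} (hκ : ∀ᶠ n in (U : Filter ℕ), 0 ≤ κ' n ∧ κ' n ≤ 1)
    (bd : ∀ᶠ n in (U : Filter ℕ), ∀ k i l, (i, k) ∈ (G n).I → (l, k) ∈ (G n).I → ∀ s,
      |(G n).rel k i l s| ≤ 1)
    (lc : ∀ᶠ n in (U : Filter ℕ), ∀ k i j l, (i, k) ∈ (G n).I → (j, k) ∈ (G n).I →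
      (l, k) ∈ (G n).I →
      |(G n).rel k i l c - ((G n).rel k i j c + (G n).rel k j l c)| ≤ 48 * B.d n ^ y)
    (lx : ∀ᶠ n in (U : Filter ℕ), ∀ k i j l, (i, k) ∈ (G n).I → (j, k) ∈ (G n).I →
      (l, k) ∈ (G n).I →
      |(G n).rel k i l x - ((G n).rel k i j x + (G n).rel k j l x)| ≤ 48 * B.d n ^ y)
    (lh : ∀ᶠ n in (U : Filter ℕ), ∀ k i j l, (i, k) ∈ (G n).I → (j, k) ∈ (G n).I →
      (l, k) ∈ (G n).I →
      |(G n).rel k i l h - ((G n).rel k i j h + (G n).rel k j l h +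
        (G n).rel k i j c * (G n).rel k j l x +
        κ' n * ((G n).rel k i j o * (G n).rel k j l o'))| ≤ 48 * B.d n ^ y) :
    SlabV B G i0 k0 (Pi.single o y) {c} {x} {h} (fun n l => (G n).rel (k0 n) (i0 n) l c)
      (fun n l => (G n).rel (k0 n) (i0 n) l x) (fun n l => (G n).rel (k0 n) (i0 n) l h) y where
  dis := by
    intro j hj
    rw [mem_singleton] at hj ⊢
    rw [hj]; exact hcx
  hC := by
    intro j hj
    rw [mem_singleton] at hj ⊢
    rw [hj]; exact hch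
  hX := by
    intro j hj
    rw [mem_singleton] at hj ⊢
    rw [hj]; exact hxh
  zC := by
    intro j hj
    rw [mem_singleton] at hj
    rw [hj, Pi.single_apply, if_neg hoc.symm]
  zX := by
    intro j hj
    rw [mem_singleton] at hj
    rw [hj, Pi.single_apply, if_neg hox.symm]
  zH := by
    intro j hj
    rw [mem_singleton] at hj
    rw [hj, Pi.single_apply, if_neg hoh.symm]
  co := by
    intro C0 hC0
    refine ⟨C0 + 1, by linarith, fun ε hε => ?_⟩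
    filter_upwards [h0, bd, lc, lx, lh, hκ, ev_const_le B hε 200] with n g0 g1 g2 g3 g4 g5 g6 l hl
    obtain ⟨a1, a2⟩ := RCfg.mem_box.1 hl
    have I1 := H.memSlice.1 a1
    have hd := B.pos n
    have hr : 0 < B.d n ^ y := Real.rpow_pos_of_pos hd _
    have hC0ε : 0 ≤ C0 * ε := by positivity
    have e0 : (1 : ℝ) ≤ B.d n ^ (-(C0 * ε)) :=
      Real.one_le_rpow_of_pos_of_le_one_of_nonpos hd (B.lt n).le (by linarith)
    have eβ : B.d n ^ (-((C0 + 1) * ε)) = B.d n ^ (-(C0 * ε)) * B.d n ^ (-ε) := by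
      rw [← Real.rpow_add hd]; congr 1; ring
    set P := B.d n ^ (-(C0 * ε)) with hP
    set Q := B.d n ^ (-ε) with hQ
    have hβ : P + 200 ≤ 2 * (P * Q) := by nlinarith
    have hβ2 : 96 + P ≤ P * Q := by nlinarith
    have hβ1 : 48 ≤ P * Q := by nlinarith
    rw [eβ]
    have ha4 : |(G n).rel (k0 n) (i0 n) l o| ≤ P * B.d n ^ y := by
      have := a2 o
      rw [Pi.single_apply, if_pos rfl, H.base n] at this
      refine this.trans (le_of_eq ?_)
      rw [hP, ← Real.rpow_add hd]; congr 1; ring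
    refine ⟨(g1 _ _ _ g0 I1 c).trans (by linarith), (g1 _ _ _ g0 I1 x).trans (by linarith),
      fun l' hl' => ?_⟩
    obtain ⟨b1, b2⟩ := RCfg.mem_box.1 hl'
    have I2 := H.memSlice.1 b1
    have k2 := g2 (k0 n) (i0 n) l l' g0 I1 I2
    have k3 := g3 (k0 n) (i0 n) l l' g0 I1 I2
    have k4 := g4 (k0 n) (i0 n) l l' g0 I1 I2
    have m1 := g1 _ _ _ g0 I1 c
    have m2 := g1 _ _ _ I1 I2 o'
    set ac := (G n).rel (k0 n) (i0 n) l c
    set ax := (G n).rel (k0 n) (i0 n) l x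
    set ah := (G n).rel (k0 n) (i0 n) l h
    set ao := (G n).rel (k0 n) (i0 n) l o
    set wc := (G n).rel (k0 n) (i0 n) l' c
    set wx := (G n).rel (k0 n) (i0 n) l' x
    set wh := (G n).rel (k0 n) (i0 n) l' h
    set cc := (G n).rel (k0 n) l l' c
    set cx := (G n).rel (k0 n) l l' x
    set ch := (G n).rel (k0 n) l l' h
    set co := (G n).rel (k0 n) l l' o'
    refine ⟨Cmp.one hr.le (by linarith) ?_, Cmp.one hr.le (by linarith) ?_,
      Cmp.one hr.le (by linarith) ?_⟩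
    · have e : cc - (wc - ac) = -(wc - (ac + cc)) := by ring
      show |cc - (wc - ac)| ≤ _
      rw [e, abs_neg]
      exact k2.trans (mul_le_mul_of_nonneg_right hβ1 hr.le)
    · have e : cx - (wx - ax) = -(wx - (ax + cx)) := by ring
      show |cx - (wx - ax)| ≤ _
      rw [e, abs_neg]
      exact k3.trans (mul_le_mul_of_nonneg_right hβ1 hr.le)
    · have e : ch - ((wh - ah) - ac * (wx - ax)) =
          -(wh - (ah + ch + ac * cx + κ' n * (ao * co))) - κ' n * (ao * co) +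
            ac * (wx - (ax + cx)) := by ring
      show |ch - ((wh - ah) - ac * (wx - ax))| ≤ _
      rw [e]
      have t1 : |ac * (wx - (ax + cx))| ≤ 48 * B.d n ^ y := by
        rw [abs_mul]
        calc |ac| * |wx - (ax + cx)| ≤ 1 * (48 * B.d n ^ y) :=
              mul_le_mul m1 k3 (abs_nonneg _) zero_le_one
          _ = _ := one_mul _
      have t2 : |κ' n * (ao * co)| ≤ P * B.d n ^ y := by
        rw [abs_mul, abs_mul, abs_of_nonneg g5.1]
        calc κ' n * (|ao| * |co|) ≤ 1 * ((P * B.d n ^ y) * 1) :=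
              mul_le_mul g5.2 (mul_le_mul ha4 m2 (abs_nonneg _) (by positivity)) (by positivity)
                zero_le_one
          _ = _ := by ring
      refine (abs_add_le _ _).trans ?_
      refine (add_le_add (abs_sub _ _) t1).trans ?_
      rw [abs_neg]
      have := mul_le_mul_of_nonneg_right hβ2 hr.le
      nlinarith

/-- sums over `EG` -/
theorem sum_EG {r pS : Fin 12 → ℝ} {c x h : Fin 12} (hcx : x ≠ c) (hch : h ≠ c) (hxh : h ≠ x)
    (hc : c ≠ 0) (hx : x ≠ 0) (hh : h ≠ 0) (t t1 t2 t3 : ℝ) :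
    ∑ s ∈ univ.erase 0, r s * (t - EG pS {c} {x} {h} t1 t2 t3 s) =
      ∑ s ∈ univ.erase 0, r s * (t - pS s) - (r c * t1 + r x * t2 + r h * t3) := by
  have e : ∀ s, r s * (t - EG pS {c} {x} {h} t1 t2 t3 s) = r s * (t - pS s) -
      ((if s = c then r c * t1 else 0) + (if s = x then r x * t2 else 0) +
        (if s = h then r h * t3 else 0)) := by
    intro s
    by_cases h1 : s = c
    · subst h1
      rw [EG_C (mem_singleton_self _), if_pos rfl, if_neg hcx.symm, if_neg hch.symm]; ring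
    by_cases h2 : s = x
    · subst h2
      rw [EG_X (by simpa using h1) (mem_singleton_self _), if_neg h1, if_pos rfl, if_neg hxh.symm]
      ring
    by_cases h3 : s = h
    · subst h3
      rw [EG_H (by simpa using h1) (by simpa using h2) (mem_singleton_self _), if_neg h1,
        if_neg h2, if_pos rfl]
      ring
    · rw [EG_O (by simpa using h1) (by simpa using h2) (by simpa using h3), if_neg h1, if_neg h2,
        if_neg h3]
      ring
  simp only [e, Finset.sum_sub_distrib, Finset.sum_add_distrib, Finset.sum_ite_eq',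
    mem_erase, mem_univ, and_true, ne_eq, hc, hx, hh, not_false_eq_true, if_true]


variable {ι : ℕ → Type*} [∀ n, DecidableEq (ι n)]

section laws

variable {W : Wnd 12 ι} {E : ∀ n, Finset (ι n)} {n : ℕ} {K tp : ℝ}

theorem side_tight (h : WL W K tp) (n : ℕ) {i j k : Fin 12} (hw : wtL i + wtL j = wtL k)
    (hX : W.X n k = W.X n i + W.X n j) : side W n i * side W n j = side W n k := by
  unfold side
  rw [h.kap, h.kap, h.kap, ← hw, hX, pow_add, Real.rpow_add (W.B.pos n)]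
  ring

theorem compW_3 (h : WL W K tp) {a c : Fin 12 → ℝ} : compW W n a c 3 = a 3 + c 3 := by
  have h1 := (h.side_pos' n 3).ne'
  unfold compW
  rw [div_eq_iff h1]
  simp [comp]; ring

theorem compW_4 (h : WL W K tp) {a c : Fin 12 → ℝ} : compW W n a c 4 = a 4 + c 4 := by
  have h1 := (h.side_pos' n 4).ne'
  unfold compW
  rw [div_eq_iff h1]
  simp [comp]; ring

theorem compW_5 (h : WL W K tp) {a c : Fin 12 → ℝ} (ha : a 0 = 0) :
    compW W n a c 5 = a 5 + c 5 := by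
  have h1 := (h.side_pos' n 5).ne'
  unfold compW
  rw [div_eq_iff h1]
  simp [comp, ha]; ring

theorem compW_6 (h : WL W K tp) {a c : Fin 12 → ℝ} (ha : a 0 = 0) :
    compW W n a c 6 = a 6 + c 6 := by
  have h1 := (h.side_pos' n 6).ne'
  unfold compW
  rw [div_eq_iff h1]
  simp [comp, ha]; ring

theorem compW_9 (h : WL W K tp) {a c : Fin 12 → ℝ} (ha : a 0 = 0) :
    compW W n a c 9 = a 9 + c 9 + side W n 3 * side W n 5 / side W n 9 * (a 3 * c 5) +
      side W n 4 * side W n 6 / side W n 9 * (a 4 * c 6) := by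
  have h1 := (h.side_pos' n 9).ne'
  unfold compW
  rw [div_eq_iff h1]
  simp only [comp, ha]
  simp
  field_simp

end laws

/-- the pair of slots of the row -/
def Pair (c x o o' : Fin 12) : Prop :=
  (c = 3 ∧ x = 5 ∧ o = 4 ∧ o' = 6) ∨ (c = 4 ∧ x = 6 ∧ o = 3 ∧ o' = 5)

theorem law9 {W : Wnd 12 ι} {E : ∀ n, Finset (ι n)} {n : ℕ} {K tp : ℝ} (r : Reg W E n)
    (h : WL W K tp) (hS : W.S = {0}) {c x o o' : Fin 12} (hp : Pair c x o o')
    (hX : W.X n 9 = W.X n c + W.X n x) :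
    (0 ≤ side W n o * side W n o' / side W n 9 ∧ side W n o * side W n o' / side W n 9 ≤ 1) ∧
    ∀ k i j l, (i, k) ∈ (W.cfg E n).I → (j, k) ∈ (W.cfg E n).I → (l, k) ∈ (W.cfg E n).I →
      |(W.cfg E n).rel k i l c - ((W.cfg E n).rel k i j c + (W.cfg E n).rel k j l c)| ≤
        48 * W.B'.d n ^ tp ∧
      |(W.cfg E n).rel k i l x - ((W.cfg E n).rel k i j x + (W.cfg E n).rel k j l x)| ≤
        48 * W.B'.d n ^ tp ∧
      |(W.cfg E n).rel k i l 9 - ((W.cfg E n).rel k i j 9 + (W.cfg E n).rel k j l 9 +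
        (W.cfg E n).rel k i j c * (W.cfg E n).rel k j l x +
        side W n o * side W n o' / side W n 9 *
          ((W.cfg E n).rel k i j o * (W.cfg E n).rel k j l o'))| ≤ 48 * W.B'.d n ^ tp := by
  have h9 := h.side_pos' n 9
  have sd := h.sides r.good
  have hn : ∀ s : Fin 12, s ≠ 0 → s ∉ W.S := fun s hs => by rw [hS]; simpa using hs
  have z : ∀ k i j, (W.cfg E n).rel k i j 0 = 0 := fun k i j => r.rel_S (by rw [hS]; simp)
  rcases hp with ⟨rfl, rfl, rfl, rfl⟩ | ⟨rfl, rfl, rfl, rfl⟩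
  · have e := side_tight h n (i := 3) (j := 5) (k := 9) rfl hX
    refine ⟨⟨div_nonneg (mul_nonneg (sd.pos _).le (sd.pos _).le) h9.le,
      (div_le_one h9).2 sd.w9'⟩, fun k i j l hi hj hl => ⟨?_, ?_, ?_⟩⟩
    · have := r.coc h hi hj hl (hn 3 (by decide))
      rwa [compW_3 h] at this
    · have := r.coc h hi hj hl (hn 5 (by decide))
      rwa [compW_5 h (z k i j)] at this
    · have := r.coc h hi hj hl (hn 9 (by decide))
      rwa [compW_9 h (z k i j), e, div_self h9.ne', one_mul] at this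
  · have e := side_tight h n (i := 4) (j := 6) (k := 9) rfl hX
    refine ⟨⟨div_nonneg (mul_nonneg (sd.pos _).le (sd.pos _).le) h9.le,
      (div_le_one h9).2 sd.w9⟩, fun k i j l hi hj hl => ⟨?_, ?_, ?_⟩⟩
    · have := r.coc h hi hj hl (hn 4 (by decide))
      rwa [compW_4 h] at this
    · have := r.coc h hi hj hl (hn 6 (by decide))
      rwa [compW_6 h (z k i j)] at this
    · have := r.coc h hi hj hl (hn 9 (by decide))
      rw [compW_9 h (z k i j), e, div_self h9.ne', one_mul] at this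
      have e2 : (W.cfg E n).rel k i j 9 + (W.cfg E n).rel k j l 9 +
          side W n 3 * side W n 5 / side W n 9 *
            ((W.cfg E n).rel k i j 3 * (W.cfg E n).rel k j l 5) +
          (W.cfg E n).rel k i j 4 * (W.cfg E n).rel k j l 6 =
          (W.cfg E n).rel k i j 9 + (W.cfg E n).rel k j l 9 +
          (W.cfg E n).rel k i j 4 * (W.cfg E n).rel k j l 6 +
          side W n 3 * side W n 5 / side W n 9 *
            ((W.cfg E n).rel k i j 3 * (W.cfg E n).rel k j l 5) := by ring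
      rwa [e2] at this

/-- **static facts of one component of the isotropic row**, both halves -/
theorem hI_core {B : Base} {I J : ∀ n, Finset (ι n)}
    {co : ∀ n, ι n → ι n → Fin 12 → ℝ} {C R : ℝ} {ν : (Fin 12 → ℝ) → ℝ}
    (hN : NProf B I J co monL C R ν) (hcoc : ∀ n, Coc (co n)) {X : ℕ → Fin 12 → ℝ} {h : ℕ → ℝ}
    (hpos : ∀ l, 0 < h l) (h0 : Tendsto h atTop (𝓝 0)) {D : Set (Fin 12 → ℝ)}
    {lam : (Fin 12 → ℝ) → ℝ} (htan : IsTan (Leg monL R) D ν X h lam) {t : ℝ} (ht : 0 < t)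
    (hD : Leg monL t ⊆ D) {r : Fin 12 → ℝ} (hlin : ∀ c ∈ Leg monL t, lam c = -∑ k, r k * c k)
    (hr : ∀ k, 0 ≤ r k) (hr1 : ∀ k, r k ≤ 1) (i₀ : ∀ n, ι n) {c x o o' : Fin 12}
    (hp : Pair c x o o') (h9 : ∀ n, X n 9 = X n c + X n x) :
    (0 < r c → r x ≤ r 9) ∧ (1 - r x < r c → 1 ≤ r 9) := by
  obtain ⟨k, W, E, hk, w, hw0, -, hE, hReg, hRM, hnu⟩ := exists_winL1 hN hcoc hpos h0 htan ht hD
    hlin (σ := 0) le_rfl zero_le_one (hr 0) (fun _ _ => 1) (fun _ => Base.Sub.const one_pos) i₀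
  have H : RUnif W.B' (W.cfg E) W.legW W.nu W.Dc := hRM.toRUnif
  have hc0 : c ≠ 0 ∧ x ≠ 0 ∧ o ≠ 0 ∧ x ≠ c ∧ (9 : Fin 12) ≠ c ∧ (9 : Fin 12) ≠ x ∧ o ≠ c ∧
      o ≠ x ∧ o ≠ 9 := by
    rcases hp with ⟨rfl, rfl, rfl, rfl⟩ | ⟨rfl, rfl, rfl, rfl⟩ <;> decide
  obtain ⟨n1, n2, n3, n4, n5, n6, n7, n8, n9⟩ := hc0
  have hXn : ∀ n, W.X n 9 = W.X n c + W.X n x := fun n => by rw [w.hX]; exact h9 (k n)
  have HL := hReg.mono (fun n hn => law9 hn w.wl w.hS hp (hXn n))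
  have hne : ∀ n, ∃ p : ℕ × ℕ, p ∈ (W.cfg E n).I := fun n => H.nonempty n
  choose pt hpt using hne
  have S := slab1 H (i0 := fun n => (pt n).1) (k0 := fun n => (pt n).2)
    (Eventually.of_forall fun n => hpt n) (c := c) (x := x) (h := 9) (o := o) (o' := o')
    n4 n5 n6 n7 n8 n9 ht (κ' := fun n => side W n o * side W n o' / side W n 9)
    (HL.mono fun n hn => hn.1)
    (by
      filter_upwards [hReg] with n hn k i l hi hl s
      exact hn.rel_le w.wl hi hl s)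
    (HL.mono fun n hn k i j l hi hj hl => (hn.2 k i j l hi hj hl).1)
    (HL.mono fun n hn k i j l hi hj hl => (hn.2 k i j l hi hj hl).2.1)
    (HL.mono fun n hn k i j l hi hj hl => (hn.2 k i j l hi hj hl).2.2)
  have leg : ∀ t1 t2 t3 : ℝ, 0 ≤ t1 → t1 ≤ t → 0 ≤ t2 → t2 ≤ t → 0 ≤ t3 → t3 ≤ t →
      t3 ≤ t1 + t2 → EG (Pi.single o t) {c} {x} {9} t1 t2 t3 ∈ W.legW := by
    intro t1 t2 t3 a1 a2 b1 b2 c1 c2 hh
    rw [w.mem_legU ht.le]
    rcases hp with ⟨rfl, rfl, rfl, rfl⟩ | ⟨rfl, rfl, rfl, rfl⟩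
    · refine ⟨fun s hs => ?_, ?_⟩
      · fin_cases s <;> simp [EG] at hs ⊢ <;> first | exact ⟨‹_›, ‹_›⟩ | linarith
      · simp [EG]
        repeat' apply And.intro
        all_goals linarith
    · refine ⟨fun s hs => ?_, ?_⟩
      · fin_cases s <;> simp [EG] at hs ⊢ <;> first | exact ⟨‹_›, ‹_›⟩ | linarith
      · simp [EG]
        repeat' apply And.intro
        all_goals linarith
  have lS0 : EG (Pi.single o t) {c} {x} {9} 0 0 0 = (Pi.single o t : Fin 12 → ℝ) := by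
    funext j
    unfold EG
    split_ifs <;> simp
  have lS : (Pi.single o t : Fin 12 → ℝ) ∈ W.legW := by
    rw [← lS0]
    exact leg 0 0 0 le_rfl ht.le le_rfl ht.le le_rfl ht.le (by linarith)
  have val : ∀ t1 t2 t3 : ℝ, 0 ≤ t1 → t1 ≤ t → 0 ≤ t2 → t2 ≤ t → 0 ≤ t3 → t3 ≤ t →
      t3 ≤ t1 + t2 → W.nu (EG (Pi.single o t) {c} {x} {9} t1 t2 t3) =
        W.nu (Pi.single o t) - (r c * t1 + r x * t2 + r 9 * t3) := by
    intro t1 t2 t3 a1 a2 b1 b2 c1 c2 hh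
    rw [hnu _ (leg t1 t2 t3 a1 a2 b1 b2 c1 c2 hh), hnu _ lS,
      sum_EG n4 n5 n6 n1 n2 (by decide) t t1 t2 t3]
  have key := hxV_rates H (fun n => (pt n).1) (fun n => (pt n).2)
    (Eventually.of_forall fun n => hpt n) ht S lS
    (fun t' h1 h2 => leg t' 0 t' h1 h2 le_rfl ht.le h1 h2 (by linarith))
    (fun t' h1 h2 => leg 0 t' 0 le_rfl ht.le h1 h2 le_rfl ht.le (by linarith))
    (leg 0 t t le_rfl ht.le ht.le le_rfl ht.le le_rfl (by linarith))
    (leg t t t ht.le le_rfl ht.le le_rfl ht.le le_rfl (by linarith))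
    (a := r x) (b := r 9) (m := r c) (hr x) (hr1 x)
    (fun t' h1 h2 => by
      rw [val 0 t' 0 le_rfl ht.le h1 h2 le_rfl ht.le (by linarith)]
      linarith)
    (by
      rw [val 0 t 0 le_rfl ht.le ht.le le_rfl le_rfl ht.le (by linarith),
        val t 0 t ht.le le_rfl le_rfl ht.le ht.le le_rfl (by linarith),
        val t t t ht.le le_rfl ht.le le_rfl ht.le le_rfl (by linarith)]
      linarith)
    (fun t' h1 h2 => by
      rw [val t' 0 t' h1 h2 le_rfl ht.le h1 h2 (by linarith)]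
      linarith)
    (by
      rw [val 0 t 0 le_rfl ht.le ht.le le_rfl le_rfl ht.le (by linarith),
        val 0 t t le_rfl ht.le ht.le le_rfl ht.le le_rfl (by linarith)]
      linarith)
  exact key

theorem h1I {B : Base} {I J : ∀ n, Finset (ι n)}
    {co : ∀ n, ι n → ι n → Fin 12 → ℝ} {C R : ℝ} {ν : (Fin 12 → ℝ) → ℝ}
    (hN : NProf B I J co monL C R ν) (hcoc : ∀ n, Coc (co n)) {X : ℕ → Fin 12 → ℝ} {h : ℕ → ℝ}
    (hpos : ∀ l, 0 < h l) (h0 : Tendsto h atTop (𝓝 0)) {D : Set (Fin 12 → ℝ)}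
    {lam : (Fin 12 → ℝ) → ℝ} (htan : IsTan (Leg monL R) D ν X h lam) {t : ℝ} (ht : 0 < t)
    (hD : Leg monL t ⊆ D) {r : Fin 12 → ℝ} (hlin : ∀ c ∈ Leg monL t, lam c = -∑ k, r k * c k)
    (hr : ∀ k, 0 ≤ r k) (hr1 : ∀ k, r k ≤ 1) (i₀ : ∀ n, ι n)
    (h9 : ∀ n, X n 9 = X n 3 + X n 5) : 1 - r 5 < r 3 → 1 ≤ r 9 :=
  (hI_core hN hcoc hpos h0 htan ht hD hlin hr hr1 i₀ (Or.inl ⟨rfl, rfl, rfl, rfl⟩) h9).2

theorem h2I {B : Base} {I J : ∀ n, Finset (ι n)}
    {co : ∀ n, ι n → ι n → Fin 12 → ℝ} {C R : ℝ} {ν : (Fin 12 → ℝ) → ℝ}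
    (hN : NProf B I J co monL C R ν) (hcoc : ∀ n, Coc (co n)) {X : ℕ → Fin 12 → ℝ} {h : ℕ → ℝ}
    (hpos : ∀ l, 0 < h l) (h0 : Tendsto h atTop (𝓝 0)) {D : Set (Fin 12 → ℝ)}
    {lam : (Fin 12 → ℝ) → ℝ} (htan : IsTan (Leg monL R) D ν X h lam) {t : ℝ} (ht : 0 < t)
    (hD : Leg monL t ⊆ D) {r : Fin 12 → ℝ} (hlin : ∀ c ∈ Leg monL t, lam c = -∑ k, r k * c k)
    (hr : ∀ k, 0 ≤ r k) (hr1 : ∀ k, r k ≤ 1) (i₀ : ∀ n, ι n)
    (h9 : ∀ n, X n 9 = X n 4 + X n 6) : 1 - r 6 < r 4 → 1 ≤ r 9 :=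
  (hI_core hN hcoc hpos h0 htan ht hD hlin hr hr1 i₀ (Or.inr ⟨rfl, rfl, rfl, rfl⟩) h9).2

/-- Kaufman halves -/
theorem k1I {B : Base} {I J : ∀ n, Finset (ι n)}
    {co : ∀ n, ι n → ι n → Fin 12 → ℝ} {C R : ℝ} {ν : (Fin 12 → ℝ) → ℝ}
    (hN : NProf B I J co monL C R ν) (hcoc : ∀ n, Coc (co n)) {X : ℕ → Fin 12 → ℝ} {h : ℕ → ℝ}
    (hpos : ∀ l, 0 < h l) (h0 : Tendsto h atTop (𝓝 0)) {D : Set (Fin 12 → ℝ)}
    {lam : (Fin 12 → ℝ) → ℝ} (htan : IsTan (Leg monL R) D ν X h lam) {t : ℝ} (ht : 0 < t)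
    (hD : Leg monL t ⊆ D) {r : Fin 12 → ℝ} (hlin : ∀ c ∈ Leg monL t, lam c = -∑ k, r k * c k)
    (hr : ∀ k, 0 ≤ r k) (hr1 : ∀ k, r k ≤ 1) (i₀ : ∀ n, ι n)
    (h9 : ∀ n, X n 9 = X n 3 + X n 5) : 0 < r 3 → r 5 ≤ r 9 :=
  (hI_core hN hcoc hpos h0 htan ht hD hlin hr hr1 i₀ (Or.inl ⟨rfl, rfl, rfl, rfl⟩) h9).1

theorem k2I {B : Base} {I J : ∀ n, Finset (ι n)}
    {co : ∀ n, ι n → ι n → Fin 12 → ℝ} {C R : ℝ} {ν : (Fin 12 → ℝ) → ℝ}
    (hN : NProf B I J co monL C R ν) (hcoc : ∀ n, Coc (co n)) {X : ℕ → Fin 12 → ℝ} {h : ℕ → ℝ}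
    (hpos : ∀ l, 0 < h l) (h0 : Tendsto h atTop (𝓝 0)) {D : Set (Fin 12 → ℝ)}
    {lam : (Fin 12 → ℝ) → ℝ} (htan : IsTan (Leg monL R) D ν X h lam) {t : ℝ} (ht : 0 < t)
    (hD : Leg monL t ⊆ D) {r : Fin 12 → ℝ} (hlin : ∀ c ∈ Leg monL t, lam c = -∑ k, r k * c k)
    (hr : ∀ k, 0 ≤ r k) (hr1 : ∀ k, r k ≤ 1) (i₀ : ∀ n, ι n)
    (h9 : ∀ n, X n 9 = X n 4 + X n 6) : 0 < r 4 → r 6 ≤ r 9 :=
  (hI_core hN hcoc hpos h0 htan ht hD hlin hr hr1 i₀ (Or.inr ⟨rfl, rfl, rfl, rfl⟩) h9).1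

end Crest.Agent.R116.RfI468
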