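import Crest.Agent.R116.Ene4_618
import Crest.Agent.R116.Fg2_126

/-!
# R116, K2 (ENEMY with room), part 1 (helper618): children of one parent in a member

Children of the ray `(C, a, k)`: `(C, a + rho p, k + rho² h)`.  `Sm m` = smallness of the
derivatives of the slab function.  `par_count`: number of children of one parent in a member.
-/

set_option autoImplicit false
set_option linter.unusedVariables false

open Finset

namespace Crest.Agent.R116.Ene618

open Crest.Agent.R116.LZg725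
open Crest.Agent.R138.Defs (E2)
open Crest.Agent.R116.CDef480 (E3 lat pt vel)

/-- the vector `rho p`. -/
noncomputable def pv (rho : ℝ) (p : ℤ × ℤ) : E2 := !₂[(p.1 : ℝ) * rho, (p.2 : ℝ) * rho]

/-- child of a ray. -/
noncomputable def chd (rho : ℝ) (r : E2 × E2 × ℝ) (x : (ℤ × ℤ) × ℤ) : E2 × E2 × ℝ :=
  (r.1, r.2.1 + pv rho x.1, r.2.2 + (x.2 : ℝ) * rho ^ 2)

/-- null shift of a child. -/
noncomputable def nus (rho : ℝ) (r : E2 × E2 × ℝ) (x : (ℤ × ℤ) × ℤ) : ℝ :=
  (x.2 : ℝ) * rho ^ 2 + inner ℝ r.1 (pv rho x.1)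

/-- members of length `1` at height `0` with small derivatives of the slab function. -/
structure Sm (M : ℝ) (m : Mem) : Prop where
  ok : m.Ok M 0
  R1 : m.R = 1
  s0 : m.s0 = 0
  ny : ∀ s : ℝ, |s| ≤ 1 → |m.phi.ny s| * m.sg ≤ 4 / 25

theorem Sm.d {M : ℝ} {m : Mem} (h : Sm M m) : |m.phi.d| * m.sg ≤ 2 / 25 := by
  have h1 := h.ny 1 (by norm_num)
  have h2 := h.ny (-1) (by norm_num)
  have hsg := h.ok.sg_pos
  have e : m.phi.ny (-1) - m.phi.ny 1 = 4 * m.phi.d := by unfold Cf.ny; ring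
  have h3 : 4 * |m.phi.d| ≤ |m.phi.ny (-1)| + |m.phi.ny 1| := by
    have h4 := abs_sub (m.phi.ny (-1)) (m.phi.ny 1)
    rw [e, abs_mul, abs_of_pos (by norm_num : (0:ℝ) < 4)] at h4
    exact h4
  nlinarith

/-- data of a ray of a member at height `0`. -/
theorem Sm.ray {M : ℝ} {m : Mem} (h : Sm M m) {C a : E2} {k : ℝ} (hr : (C, a, k) ∈ m.rays 0) :
    ‖C - m.c‖ ≤ m.sg ∧ ‖a - lat m.X0‖ ≤ m.sg ∧
      |nrm m.c a k 0 - nrm m.c (lat m.X0) (m.X0 2) 0| ≤ m.sg ^ 2 ∧
      |m.phi.ev a k 0| ≤ m.s1 ∧ |m.phi.ld C a k 0| ≤ m.s1 := by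
  rw [Mem.mem_rays, T_zero] at hr
  obtain ⟨hc, hk⟩ := hr
  rw [h.R1, h.s0] at hk
  have h0 := hk 0 (by norm_num)
  obtain ⟨⟨-, h1, h2⟩, h3⟩ := h0
  have ex : rx C a 0 = a := by unfold rx; simp
  have ey : ry C k 0 = k := by unfold ry; simp
  rw [ex, ey] at h2 h3
  rw [ex] at h1
  simp only [sub_zero, zero_smul, add_zero, mul_one] at h1 h2 h3
  refine ⟨hc, h1, h2, h3, ?_⟩
  have h4 := ld_of_ray (p := m.phi) (C := C) (a := a) (k := k) (w := m.s1) (fun s hs => by
    have := (hk s (by rwa [sub_zero])).2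
    rwa [mul_one] at this)
  rwa [ex, ey] at h4

/-- the lateral gradient of a ray of the member is of size `1`. -/
theorem Sm.gr_sq {M : ℝ} {m : Mem} (h : Sm M m) {C a : E2} {k : ℝ}
    (hr : (C, a, k) ∈ m.rays 0) :
    9 / 25 ≤ ‖m.phi.gr C a 0‖ ^ 2 ∧ ‖m.phi.gr C a 0‖ ^ 2 ≤ 41 / 25 := by
  obtain ⟨h1, h2, h3, h4, h5⟩ := h.ray hr
  have hsg := h.ok.sg_pos
  have hs1 := h.ok.hs1
  have hle := h.ok.hsg
  have hn := h.ny 0 (by norm_num)
  have hd := h.d
  have e := Cf.norm_gr_sq m.phi C a k 0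
  rw [h.ok.adm.disc] at e
  have e1 : |2 * m.phi.ny 0 * m.phi.ld C a k 0| ≤ 8 / 25 := by
    rw [abs_mul, abs_mul, abs_two]
    have : |m.phi.ny 0| * |m.phi.ld C a k 0| ≤ |m.phi.ny 0| * m.sg :=
      mul_le_mul_of_nonneg_left (h5.trans hle) (abs_nonneg _)
    linarith
  have e2 : |4 * m.phi.d * m.phi.ev a k 0| ≤ 8 / 25 := by
    rw [abs_mul, abs_mul, abs_of_pos (by norm_num : (0:ℝ) < 4)]
    have : |m.phi.d| * |m.phi.ev a k 0| ≤ |m.phi.d| * m.sg :=
      mul_le_mul_of_nonneg_left (h4.trans hle) (abs_nonneg _)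
    linarith
  rw [abs_le] at e1 e2
  rw [e]
  constructor <;> linarith [e1.1, e1.2, e2.1, e2.2]

/-- difference of the slab function at two points, from a base point. -/
theorem ev_two (p : Cf E2) (C x : E2) (y : ℝ) (x1 x2 : E2) (y1 y2 : ℝ) :
    p.ev x1 y1 0 - p.ev x2 y2 0 = inner ℝ (p.gr C x 0) (x1 - x2) +
      p.ny 0 * (nrm C x1 y1 0 - nrm C x2 y2 0) + p.d * inner ℝ (x1 - x2) (x1 + x2 - (2:ℝ) • x) := by
  rw [Cf.ev_expand p C x y 0 x1 y1 0, Cf.ev_expand p C x y 0 x2 y2 0]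
  simp only [sub_self, mul_zero, add_zero, zero_smul, zero_mul, sub_zero]
  have e : ‖x1 - x‖ ^ 2 - ‖x2 - x‖ ^ 2 = inner ℝ (x1 - x2) (x1 + x2 - (2:ℝ) • x) := by
    have e1 : x1 - x2 = (x1 - x) - (x2 - x) := by abel
    have e2 : x1 + x2 - (2:ℝ) • x = (x1 - x) + (x2 - x) := by module
    rw [e1, e2]
    generalize x1 - x = u
    generalize x2 - x = v
    rw [inner_sub_left, inner_add_right, inner_add_right, real_inner_self_eq_norm_sq,
      real_inner_self_eq_norm_sq, real_inner_comm u v]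
    ring
  have e3 : inner ℝ (p.gr C x 0) (x1 - x2) = inner ℝ (p.gr C x 0) (x1 - x) -
      inner ℝ (p.gr C x 0) (x2 - x) := by
    rw [← inner_sub_right]; congr 1; abel
  rw [e3, ← e]
  ring

theorem pv_sub (rho : ℝ) (p q : ℤ × ℤ) (i : Fin 2) : (pv rho p - pv rho q) i =
    ((![(p.1 : ℝ), (p.2 : ℝ)] i) - (![(q.1 : ℝ), (q.2 : ℝ)] i)) * rho := by
  fin_cases i
  · show (p.1 : ℝ) * rho - (q.1 : ℝ) * rho = ((p.1 : ℝ) - q.1) * rho
    ring
  · show (p.2 : ℝ) * rho - (q.2 : ℝ) * rho = ((p.2 : ℝ) - q.2) * rho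
    ring

/-- a component of a vector of size at least `3/5`. -/
theorem exists_comp {v : E2} (h : 9 / 25 ≤ ‖v‖ ^ 2) : ∃ i : Fin 2, 21 / 50 ≤ |v i| := by
  by_contra hc
  push Not at hc
  have h0 := hc 0
  have h1 := hc 1
  rw [CDef480.normsq2] at h
  have e0 : v 0 ^ 2 < (21 / 50) ^ 2 := by
    rw [← sq_abs]; exact pow_lt_pow_left₀ h0 (abs_nonneg _) two_ne_zero
  have e1 : v 1 ^ 2 < (21 / 50) ^ 2 := by
    rw [← sq_abs]; exact pow_lt_pow_left₀ h1 (abs_nonneg _) two_ne_zero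
  norm_num at e0 e1
  linarith

open Classical in
/-- **children of one parent in a member.** -/
theorem par_count {M : ℝ} {m : Mem} (h : Sm M m) {rho W lam : ℝ} (hrho : 0 < rho) (hW : 0 ≤ W)
    (hlam : 0 ≤ lam) (hs1 : rho ≤ m.s1) (r : E2 × E2 × ℝ) (S : Finset ((ℤ × ℤ) × ℤ))
    (hS : ∀ x ∈ S, chd rho r x ∈ m.rays 0)
    (hp1 : ∀ x ∈ S, ∀ y ∈ S, |((x.1.1 : ℝ) - y.1.1) * rho| ≤ W)
    (hp2 : ∀ x ∈ S, ∀ y ∈ S, |((x.1.2 : ℝ) - y.1.2) * rho| ≤ W)
    (hnu : ∀ x ∈ S, ∀ y ∈ S, |nus rho r x - nus rho r y| ≤ lam) :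
    (S.card : ℝ) ≤ (W / rho + 1) * (lam / rho ^ 2 + 2) * (min (22 * m.s1) W / rho + 1) := by
  have hr2 : 0 < rho ^ 2 := pow_pos hrho 2
  have hsg := h.ok.sg_pos
  have hs10 := h.ok.hs1
  have hle := h.ok.hsg
  rcases S.eq_empty_or_nonempty with rfl | ⟨x0, hx0⟩
  · simp only [card_empty, Nat.cast_zero]
    positivity
  obtain ⟨C, a, k⟩ := r
  -- the base child
  set X0 : E2 := a + pv rho x0.1 with hX0
  have hbase := hS x0 hx0
  obtain ⟨b1, b2, b3, b4, b5⟩ := h.ray hbase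
  obtain ⟨g1, -⟩ := h.gr_sq hbase
  obtain ⟨i, hi⟩ := exists_comp g1
  -- two children in one bin
  have key : ∀ x ∈ S, ∀ y ∈ S, |nus rho (C, a, k) x - nus rho (C, a, k) y| ≤ rho ^ 2 →
      (∀ j : Fin 2, j ≠ i → (pv rho x.1 - pv rho y.1) j = 0) →
      |(pv rho x.1 - pv rho y.1) i| ≤ 22 * m.s1 := by
    intro x hx y hy hxy ho
    obtain ⟨x1, x2, x3, x4, x5⟩ := h.ray (hS x hx)
    obtain ⟨y1, y2, y3, y4, y5⟩ := h.ray (hS y hy)
    set D : E2 := pv rho x.1 - pv rho y.1 with hD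
    have e := ev_two m.phi C X0 (k + (x0.2 : ℝ) * rho ^ 2) (a + pv rho x.1) (a + pv rho y.1)
      (k + (x.2 : ℝ) * rho ^ 2) (k + (y.2 : ℝ) * rho ^ 2)
    have eD : a + pv rho x.1 - (a + pv rho y.1) = D := by rw [hD]; abel
    have en : nrm C (a + pv rho x.1) (k + (x.2 : ℝ) * rho ^ 2) 0 -
        nrm C (a + pv rho y.1) (k + (y.2 : ℝ) * rho ^ 2) 0 =
        nus rho (C, a, k) x - nus rho (C, a, k) y := by
      unfold nrm nus
      rw [inner_add_right, inner_add_right]; ring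
    rw [eD, en] at e
    have hDn : ‖D‖ = |D i| := by
      have h1 := CDef480.normsq2 D
      have h2 : ‖D‖ ^ 2 = |D i| ^ 2 := by
        rw [h1, sq_abs]
        fin_cases i
        · have := ho 1 (by decide)
          simp only [Fin.zero_eta, this]; ring
        · have := ho 0 (by decide)
          simp only [Fin.mk_one, this]; ring
      exact (pow_left_inj₀ (norm_nonneg _) (abs_nonneg _) two_ne_zero).1 h2
    have hgD : inner ℝ (m.phi.gr C X0 0) D = m.phi.gr C X0 0 i * D i := by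
      rw [PiLp.inner_apply, Fin.sum_univ_two]
      simp only [RCLike.inner_apply, conj_trivial]
      fin_cases i
      · have := ho 1 (by decide)
        simp only [Fin.zero_eta, this]; ring
      · have := ho 0 (by decide)
        simp only [Fin.mk_one, this]; ring
    rw [hgD] at e
    have q1 : |m.phi.gr C X0 0 i * D i| = |m.phi.gr C X0 0 i| * |D i| := abs_mul _ _
    have q2 : |m.phi.ny 0 * (nus rho (C, a, k) x - nus rho (C, a, k) y)| ≤ 4 / 25 * m.s1 := by
      rw [abs_mul]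
      have h1 := h.ny 0 (by norm_num)
      have h2 : rho ^ 2 ≤ m.sg * m.s1 := by nlinarith
      calc |m.phi.ny 0| * |nus rho (C, a, k) x - nus rho (C, a, k) y|
          ≤ |m.phi.ny 0| * (m.sg * m.s1) := by
            refine mul_le_mul_of_nonneg_left (hxy.trans h2) (abs_nonneg _)
        _ = (|m.phi.ny 0| * m.sg) * m.s1 := by ring
        _ ≤ 4 / 25 * m.s1 := by gcongr
    have q3 : |m.phi.d * inner ℝ D (a + pv rho x.1 + (a + pv rho y.1) - (2:ℝ) • X0)| ≤
        8 / 25 * |D i| := by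
      rw [abs_mul]
      have h1 : ‖a + pv rho x.1 + (a + pv rho y.1) - (2:ℝ) • X0‖ ≤ 4 * m.sg := by
        have e1 : a + pv rho x.1 + (a + pv rho y.1) - (2:ℝ) • X0 =
            ((a + pv rho x.1) - lat m.X0) + ((a + pv rho y.1) - lat m.X0) -
            (2:ℝ) • (X0 - lat m.X0) := by module
        rw [e1]
        refine (norm_sub_le _ _).trans ?_
        rw [norm_smul, Real.norm_of_nonneg (by norm_num : (0:ℝ) ≤ 2)]
        have h2 := norm_add_le ((a + pv rho x.1) - lat m.X0) ((a + pv rho y.1) - lat m.X0)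
        have h3 : ‖a + pv rho x.1 - lat m.X0‖ ≤ m.sg := x2
        have h4 : ‖a + pv rho y.1 - lat m.X0‖ ≤ m.sg := y2
        have h5 : ‖X0 - lat m.X0‖ ≤ m.sg := b2
        linarith
      have h2 := abs_real_inner_le_norm D (a + pv rho x.1 + (a + pv rho y.1) - (2:ℝ) • X0)
      have h3 := h.d
      have hd0 : 0 ≤ |m.phi.d| := abs_nonneg _
      calc |m.phi.d| * |inner ℝ D (a + pv rho x.1 + (a + pv rho y.1) - (2:ℝ) • X0)|
          ≤ |m.phi.d| * (‖D‖ * (4 * m.sg)) :=
            mul_le_mul_of_nonneg_left (h2.trans (mul_le_mul_of_nonneg_left h1 (norm_nonneg _))) hd0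
        _ = 4 * (|m.phi.d| * m.sg) * |D i| := by rw [hDn]; ring
        _ ≤ 4 * (2 / 25) * |D i| := by gcongr
        _ = 8 / 25 * |D i| := by ring
    have q4 : |m.phi.gr C X0 0 i * D i| ≤ 2 * m.s1 + 4 / 25 * m.s1 + 8 / 25 * |D i| := by
      have e2 : m.phi.gr C X0 0 i * D i =
          (m.phi.ev (a + pv rho x.1) (k + (x.2 : ℝ) * rho ^ 2) 0 -
          m.phi.ev (a + pv rho y.1) (k + (y.2 : ℝ) * rho ^ 2) 0) -
          m.phi.ny 0 * (nus rho (C, a, k) x - nus rho (C, a, k) y) -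
          m.phi.d * inner ℝ D (a + pv rho x.1 + (a + pv rho y.1) - (2:ℝ) • X0) := by
        rw [e]; ring
      rw [e2]
      have f1 : |m.phi.ev (a + pv rho x.1) (k + (x.2 : ℝ) * rho ^ 2) 0| ≤ m.s1 := x4
      have f2 : |m.phi.ev (a + pv rho y.1) (k + (y.2 : ℝ) * rho ^ 2) 0| ≤ m.s1 := y4
      rw [abs_le] at f1 f2 q2 q3 ⊢
      constructor <;> linarith [f1.1, f1.2, f2.1, f2.2, q2.1, q2.2, q3.1, q3.2]
    rw [q1] at q4
    have q5 : 21 / 50 * |D i| ≤ |m.phi.gr C X0 0 i| * |D i| :=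
      mul_le_mul_of_nonneg_right hi (abs_nonneg _)
    linarith
  -- counting
  set co : (ℤ × ℤ) × ℤ → Fin 2 → ℤ := fun x => ![x.1.1, x.1.2] with hco
  set oi : Fin 2 := 1 - i with hoi
  set f : (ℤ × ℤ) × ℤ → ℤ × ℤ := fun x => (co x oi, ⌊nus rho (C, a, k) x / rho ^ 2⌋) with hf
  have hco1 : ∀ x y : (ℤ × ℤ) × ℤ, ∀ j : Fin 2, (pv rho x.1 - pv rho y.1) j =
      ((co x j : ℝ) - co y j) * rho := by
    intro x y j
    rw [pv_sub]
    fin_cases j
    · rfl
    · rfl
  have hcoW : ∀ x ∈ S, ∀ y ∈ S, ∀ j : Fin 2, |((co x j : ℝ) - co y j)| ≤ W / rho := by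
    intro x hx y hy j
    rw [le_div_iff₀ hrho]
    have e1 : |((co x j : ℝ) - co y j)| * rho = |((co x j : ℝ) - co y j) * rho| := by
      rw [abs_mul, abs_of_pos hrho]
    rw [e1]
    fin_cases j
    · exact hp1 x hx y hy
    · exact hp2 x hx y hy
  have hoj : ∀ j : Fin 2, j ≠ i → j = oi := by
    intro j hj
    rw [hoi]
    fin_cases i <;> fin_cases j <;> simp_all
  have hfib : ∀ b ∈ S.image f, ((S.filter fun x => f x = b).card : ℝ) ≤
      min (22 * m.s1) W / rho + 1 := by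
    intro b hb
    set F := S.filter fun x => f x = b with hF
    have hinj : (F.image fun x => co x i).card = F.card := by
      apply card_image_of_injOn
      intro x hx y hy hxy
      rw [hF, mem_coe, mem_filter] at hx hy
      have h1 : f x = f y := hx.2.trans hy.2.symm
      rw [hf, Prod.mk.injEq] at h1
      obtain ⟨h2, h3⟩ := h1
      have hco' : ∀ j : Fin 2, co x j = co y j := by
        intro j
        by_cases hj : j = i
        · rw [hj]; exact hxy
        · rw [hoj j hj]; exact h2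
      have e0 := hco' 0
      have e1 := hco' 1
      have e01 : x.1 = y.1 := Prod.ext e0 e1
      have h4 := Int.abs_sub_lt_one_of_floor_eq_floor h3
      rw [← sub_div, abs_div, abs_of_pos hr2, div_lt_one hr2] at h4
      have h5 : nus rho (C, a, k) x - nus rho (C, a, k) y = ((x.2 : ℝ) - y.2) * rho ^ 2 := by
        unfold nus
        rw [e01]; ring
      rw [h5, abs_mul, abs_of_pos hr2] at h4
      have h6 : |(x.2 : ℝ) - y.2| < 1 := by
        by_contra hc
        push Not at hc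
        nlinarith
      have h7 : |x.2 - y.2| < 1 := by exact_mod_cast h6
      have h8 := Int.abs_lt_one_iff.1 h7
      exact Prod.ext e01 (by omega)
    rw [← hinj]
    refine Fl337.card_close (by positivity) ?_
    intro i1 hi1 i2 hi2
    rw [mem_image] at hi1 hi2
    obtain ⟨x, hx, rfl⟩ := hi1
    obtain ⟨y, hy, rfl⟩ := hi2
    rw [hF, mem_filter] at hx hy
    have hbd := hcoW x hx.1 y hy.1 i
    have h1 : f x = f y := hx.2.trans hy.2.symm
    rw [hf, Prod.mk.injEq] at h1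
    obtain ⟨h2, h3⟩ := h1
    have h4 := (Int.abs_sub_lt_one_of_floor_eq_floor h3).le
    rw [← sub_div, abs_div, abs_of_pos hr2, div_le_one hr2] at h4
    have h5 := key x hx.1 y hy.1 h4 (fun j hj => by
      rw [hco1, hoj j hj, h2, sub_self, zero_mul])
    rw [hco1, abs_mul, abs_of_pos hrho] at h5
    rw [le_div_iff₀ hrho]
    exact le_min h5 ((le_div_iff₀ hrho).1 hbd)
  have himg : ((S.image f).card : ℝ) ≤ (W / rho + 1) * (lam / rho ^ 2 + 2) := by
    have h1 : S.image f ⊆ (S.image fun x => co x oi) ×ˢ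
        (S.image fun x => ⌊nus rho (C, a, k) x / rho ^ 2⌋) := by
      intro b hb
      rw [mem_image] at hb
      obtain ⟨x, hx, rfl⟩ := hb
      rw [mem_product]
      exact ⟨mem_image_of_mem _ hx, mem_image_of_mem _ hx⟩
    have h2 := card_le_card h1
    rw [card_product] at h2
    have h3 : ((S.image fun x => co x oi).card : ℝ) ≤ W / rho + 1 := by
      refine Fl337.card_close (by positivity) ?_
      intro i1 hi1 i2 hi2
      rw [mem_image] at hi1 hi2
      obtain ⟨x, hx, rfl⟩ := hi1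
      obtain ⟨y, hy, rfl⟩ := hi2
      exact hcoW x hx y hy oi
    have h4 : ((S.image fun x => ⌊nus rho (C, a, k) x / rho ^ 2⌋).card : ℝ) ≤
        (lam / rho ^ 2 + 1) + 1 := by
      refine Fl337.card_close (by positivity) ?_
      intro i1 hi1 i2 hi2
      rw [mem_image] at hi1 hi2
      obtain ⟨x, hx, rfl⟩ := hi1
      obtain ⟨y, hy, rfl⟩ := hi2
      have h5 := hnu x hx y hy
      have f1 := Int.floor_le (nus rho (C, a, k) x / rho ^ 2)
      have f2 := Int.lt_floor_add_one (nus rho (C, a, k) x / rho ^ 2)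
      have f3 := Int.floor_le (nus rho (C, a, k) y / rho ^ 2)
      have f4 := Int.lt_floor_add_one (nus rho (C, a, k) y / rho ^ 2)
      have f5 : |nus rho (C, a, k) x / rho ^ 2 - nus rho (C, a, k) y / rho ^ 2| ≤
          lam / rho ^ 2 := by
        rw [← sub_div, abs_div, abs_of_pos hr2]
        exact div_le_div_of_nonneg_right h5 hr2.le
      rw [abs_le] at f5 ⊢
      constructor <;> linarith [f5.1, f5.2]
    calc ((S.image f).card : ℝ) ≤ ((S.image fun x => co x oi).card : ℝ) *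
          ((S.image fun x => ⌊nus rho (C, a, k) x / rho ^ 2⌋).card : ℝ) := by exact_mod_cast h2
      _ ≤ (W / rho + 1) * ((lam / rho ^ 2 + 1) + 1) := by gcongr
      _ = _ := by ring
  -- sum over the fibers
  have hsum : (S.card : ℝ) ≤ (S.image f).card * (min (22 * m.s1) W / rho + 1) := by
    have : S.card = ∑ c ∈ S.image f, (S.filter fun t => f t = c).card :=
      card_eq_sum_card_image f S
    rw [this]
    push_cast
    calc ∑ c ∈ S.image f, ((S.filter fun t => f t = c).card : ℝ) ≤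
          ∑ c ∈ S.image f, (min (22 * m.s1) W / rho + 1) := sum_le_sum hfib
      _ = (S.image f).card * (min (22 * m.s1) W / rho + 1) := by rw [sum_const, nsmul_eq_mul]
  refine hsum.trans ?_
  have h0 : 0 ≤ min (22 * m.s1) W / rho + 1 := by positivity
  exact mul_le_mul_of_nonneg_right himg h0

end Crest.Agent.R116.Ene618
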