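import Crest.Agent.R116.Rm1_618

/-!
# R116, K2 (ENEMY with room), part 2 (helper618): parents of the children in a member, `r ≤ sg`

`bigm r m` : `sg' = 2 sg`, `s1' = 2 max (s1, r)`, same centre, direction and function.  If a child
`(C, a + p, k + t)` (`|p_i| ≤ r/8`, `|t| ≤ r/8`) lies in `m` then `(C, a, k + t + ⟨C, p⟩)` lies in
`bigm r m`; so 126's `Fill` gives the parents and the width of the null shifts.
-/

set_option autoImplicit false
set_option linter.unusedVariables false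

open Finset

namespace Crest.Agent.R116.Ene618

open Crest.Agent.R116.LZg725
open Crest.Agent.R138.Defs (E2)
open Crest.Agent.R116.CDef480 (E3 lat pt vel)
open Crest.Agent.R116.LKMDef299 (LRay Cpt)

/-- the fattened member. -/
noncomputable def bigm (r : ℝ) (m : Mem) : Mem where
  c := m.c
  sg := 2 * m.sg
  s1 := 2 * max m.s1 r
  R := m.R
  X0 := m.X0
  s0 := m.s0
  phi := m.phi

theorem bigm_ok {M r : ℝ} (hM : 1 ≤ M) {m : Mem} (h : Sm M m) (hr : 0 < r) (hrsg : r ≤ m.sg) :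
    (bigm r m).Ok M 0 := by
  have hsg := h.ok.sg_pos
  have hs1 := h.ok.hs1
  have hle := h.ok.hsg
  have hT : (bigm r m).T 0 = 4 * m.sg ^ 2 := by
    rw [T_zero]; show (2 * m.sg) ^ 2 = _; ring
  have h4 := h.ok.adm
  rw [T_zero] at h4
  refine ⟨h.ok.hR, ?_, ?_, ?_⟩
  · show 0 < 2 * max m.s1 r
    have := le_max_left m.s1 r
    linarith
  · show 2 * max m.s1 r ≤ 2 * m.sg
    have := max_le hle hrsg
    linarith
  · rw [hT]
    refine ⟨h4.disc, fun s hs => ?_, ?_, ?_⟩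
    · have hs' : |s - m.s0| ≤ m.R := hs
      rw [h.s0, h.R1, sub_zero] at hs'
      have h5 := h.ny s hs'
      show |m.phi.ny s| * (4 * m.sg ^ 2) ≤ M * (2 * m.sg)
      calc |m.phi.ny s| * (4 * m.sg ^ 2) = (|m.phi.ny s| * m.sg) * (4 * m.sg) := by ring
        _ ≤ (4 / 25) * (4 * m.sg) := by gcongr
        _ ≤ M * (2 * m.sg) := by nlinarith
    · show |m.phi.ld m.c (lat m.X0) (m.X0 2) m.s0| ≤ M * (2 * m.sg)
      have := h4.ld
      nlinarith
    · show |m.phi.ev (lat m.X0) (m.X0 2) m.s0| ≤ M * (2 * m.sg) * m.R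
      have := h4.ev
      have hR := h.R1
      rw [hR] at this ⊢
      nlinarith

theorem norm_pv_le {w : ℝ} {p : E2} (h0 : |p 0| ≤ w) (h1 : |p 1| ≤ w) : ‖p‖ ≤ 2 * w := by
  have := norm2_le p
  linarith

/-- **transfer of a child to the fattened member.** -/
theorem child_big {M r : ℝ} {m : Mem} (h : Sm M m) (hr : 0 < r) (hrsg : r ≤ m.sg)
    {C a p : E2} {k t : ℝ} (h0 : |p 0| ≤ r / 8) (h1 : |p 1| ≤ r / 8)
    (hm : (C, a + p, k + t) ∈ m.rays 0) :
    (C, a, k + (t + inner ℝ C p)) ∈ (bigm r m).rays 0 := by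
  have hsg := h.ok.sg_pos
  have hs1 := h.ok.hs1
  have hle := h.ok.hsg
  have hp : ‖p‖ ≤ r / 4 := by
    have := norm_pv_le h0 h1
    linarith
  have hT : (bigm r m).T 0 = 4 * m.sg ^ 2 := by
    rw [T_zero]; show (2 * m.sg) ^ 2 = _; ring
  have hm' := hm
  rw [Mem.mem_rays, T_zero] at hm
  rw [Mem.mem_rays, hT]
  obtain ⟨hc, hk⟩ := hm
  rw [h.R1, h.s0] at hk
  obtain ⟨b1, b2, b3, b4, b5⟩ := h.ray hm'
  obtain ⟨-, g2⟩ := h.gr_sq hm'
  refine ⟨?_, fun s hs => ?_⟩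
  · show ‖C - m.c‖ ≤ 2 * m.sg
    linarith
  have hs' : |s - m.s0| ≤ m.R := hs
  rw [h.s0, h.R1] at hs'
  have hs1' : |s| ≤ 1 := by rwa [sub_zero] at hs'
  obtain ⟨⟨-, k1, k2⟩, k3⟩ := hk s hs'
  refine ⟨⟨hs, ?_, ?_⟩, ?_⟩
  · show ‖rx C a s - lat m.X0 + (s - m.s0) • m.c‖ ≤ 2 * m.sg * m.R
    rw [h.s0, h.R1]
    have e : rx C a s - lat m.X0 + (s - 0) • m.c =
        (rx C (a + p) s - lat m.X0 + (s - 0) • m.c) - p := by
      unfold rx; module
    rw [e]
    refine (norm_sub_le _ _).trans ?_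
    linarith
  · show |nrm m.c (rx C a s) (ry C (k + (t + inner ℝ C p)) s) s -
      nrm m.c (lat m.X0) (m.X0 2) m.s0| ≤ 4 * m.sg ^ 2 * m.R
    rw [h.s0, h.R1]
    have e : nrm m.c (rx C a s) (ry C (k + (t + inner ℝ C p)) s) s =
        nrm m.c (rx C (a + p) s) (ry C (k + t) s) s + inner ℝ (C - m.c) p := by
      rw [nrm_ray', nrm_ray', inner_add_right, inner_sub_left]; ring
    rw [e]
    have e1 : |inner ℝ (C - m.c) p| ≤ m.sg * (r / 4) :=
      (abs_real_inner_le_norm _ _).trans (mul_le_mul hc hp (norm_nonneg _) hsg.le)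
    have e2 : m.sg * (r / 4) ≤ m.sg ^ 2 := by nlinarith
    have e3 := abs_add_le (nrm m.c (rx C (a + p) s) (ry C (k + t) s) s -
      nrm m.c (lat m.X0) (m.X0 2) 0) (inner ℝ (C - m.c) p)
    have e4 : nrm m.c (rx C (a + p) s) (ry C (k + t) s) s + inner ℝ (C - m.c) p -
        nrm m.c (lat m.X0) (m.X0 2) 0 = nrm m.c (rx C (a + p) s) (ry C (k + t) s) s -
        nrm m.c (lat m.X0) (m.X0 2) 0 + inner ℝ (C - m.c) p := by ring
    rw [e4]
    nlinarith
  · show |m.phi.ev (rx C a s) (ry C (k + (t + inner ℝ C p)) s) s| ≤ 2 * max m.s1 r * m.R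
    rw [h.R1]
    -- the function at the new point, from the child, in the frame of the ray
    have e := Cf.ev_expand m.phi C (rx C (a + p) s) (ry C (k + t) s) s (rx C a s)
      (ry C (k + (t + inner ℝ C p)) s) s
    have e1 : rx C a s - rx C (a + p) s = -p := by unfold rx; module
    have e2 : nrm C (rx C a s) (ry C (k + (t + inner ℝ C p)) s) s -
        nrm C (rx C (a + p) s) (ry C (k + t) s) s = 0 := by
      rw [nrm_ray, nrm_ray, inner_add_right]; ring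
    rw [e1, e2] at e
    simp only [sub_self, mul_zero, add_zero, zero_smul, zero_mul, sub_zero, norm_neg,
      inner_neg_right] at e
    rw [e]
    -- the gradient at time `s`
    have hmv := Cf.gr_move m.phi C (a + p) (rx C (a + p) s) 0 s
    have e3 : rx C (a + p) s - (a + p) + (s - 0) • C = 0 := by unfold rx; module
    rw [e3, smul_zero, add_zero] at hmv
    rw [hmv]
    have g3 : ‖m.phi.gr C (a + p) 0‖ ≤ 13 / 10 := by
      by_contra hcon
      push Not at hcon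
      nlinarith
    have q1 : |inner ℝ (m.phi.gr C (a + p) 0) p| ≤ 13 / 10 * (r / 4) :=
      (abs_real_inner_le_norm _ _).trans (mul_le_mul g3 hp (norm_nonneg _) (by norm_num))
    have hd := h.d
    have q2 : |m.phi.d * ‖p‖ ^ 2| ≤ 1 / 50 * r := by
      rw [abs_mul, abs_of_nonneg (sq_nonneg ‖p‖)]
      have h2 : ‖p‖ ^ 2 ≤ (r / 4) * (m.sg) := by
        rw [sq]
        exact mul_le_mul hp (by linarith) (norm_nonneg _) (by positivity)
      calc |m.phi.d| * ‖p‖ ^ 2 ≤ |m.phi.d| * ((r / 4) * m.sg) :=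
            mul_le_mul_of_nonneg_left h2 (abs_nonneg _)
        _ = (|m.phi.d| * m.sg) * (r / 4) := by ring
        _ ≤ (2 / 25) * (r / 4) := by gcongr
        _ = 1 / 50 * r := by ring
    have q3 := le_max_left m.s1 r
    have q4 := le_max_right m.s1 r
    have k3' : |m.phi.ev (rx C (a + p) s) (ry C (k + t) s) s| ≤ m.s1 := by
      have := k3; rwa [mul_one] at this
    rw [abs_le] at k3' q1 q2 ⊢
    constructor <;> linarith [k3'.1, k3'.2, q1.1, q1.2, q2.1, q2.2]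

theorem bigm_scost {M r : ℝ} {m : Mem} (h : Sm M m) :
    (bigm r m).scost 0 = 16 * max m.s1 r * m.sg ^ 3 := by
  rw [scost_zero]
  show 2 * max m.s1 r * (2 * m.sg) * (2 * m.sg) ^ 2 * m.R ^ 3 = _
  rw [h.R1]; ring

/-- **parents and null shifts for `r ≤ sg`.** -/
theorem parents_big {M r : ℝ} (hM : 1 ≤ M) {m : Mem} (h : Sm M m) (hr : 0 < r) (hr1 : r ≤ 1)
    (hrsg : r ≤ m.sg) (hsg : m.sg ≤ 1 / 2) :
    ∃ (F : ℤ → Mem) (l : ℝ), Fg126.Fill M r (bigm r m) F l ∧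
      (∀ (C a p : E2) (k t : ℝ), ‖C‖ ≤ 3 / 2 → |p 0| ≤ r / 8 → |p 1| ≤ r / 8 → |t| ≤ r / 8 →
        (C, a + p, k + t) ∈ m.rays 0 → ∃ j : ℤ, |j| ≤ 3 ∧ (C, a, k) ∈ (F j).rays r) ∧
      (∀ (C a p p' : E2) (k t t' : ℝ), ‖C‖ ≤ 3 / 2 → |p 0| ≤ r / 8 → |p 1| ≤ r / 8 →
        |t| ≤ r / 8 → |p' 0| ≤ r / 8 → |p' 1| ≤ r / 8 → |t'| ≤ r / 8 →
        (C, a + p, k + t) ∈ m.rays 0 → (C, a + p', k + t') ∈ m.rays 0 →
        |(t + inner ℝ C p) - (t' + inner ℝ C p')| ≤ l) := by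
  have hok := bigm_ok hM h hr hrsg
  have hs1 : r ≤ (bigm r m).s1 := by
    show r ≤ 2 * max m.s1 r
    have := le_max_right m.s1 r
    linarith
  have hsg' : (bigm r m).sg ≤ 1 := by
    show 2 * m.sg ≤ 1
    linarith
  obtain ⟨F, l, hF⟩ := Fg126.fill_geo hM hr hr1 hok (show (bigm r m).R = 1 from h.R1)
    (show (bigm r m).s0 = 0 from h.s0) hs1 hsg'
  have hnu : ∀ (C p : E2) (t : ℝ), ‖C‖ ≤ 3 / 2 → |p 0| ≤ r / 8 → |p 1| ≤ r / 8 → |t| ≤ r / 8 →
      |t + inner ℝ C p| ≤ 2 * r := by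
    intro C p t hC h0 h1 ht
    have hp := norm_pv_le h0 h1
    have q1 : |inner ℝ C p| ≤ 3 / 2 * (2 * (r / 8)) :=
      (abs_real_inner_le_norm _ _).trans (mul_le_mul hC hp (norm_nonneg _) (by norm_num))
    have := abs_add_le t (inner ℝ C p)
    linarith
  refine ⟨F, l, hF, ?_, ?_⟩
  · intro C a p k t hC h0 h1 ht hm
    exact hF.ray C a k _ (child_big h hr hrsg h0 h1 hm) (hnu C p t hC h0 h1 ht)
  · intro C a p p' k t t' hC h0 h1 ht h0' h1' ht' hm hm'
    exact hF.diff C a k _ _ (child_big h hr hrsg h0 h1 hm) (child_big h hr hrsg h0' h1' hm')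
      (hnu C p t hC h0 h1 ht) (hnu C p' t' hC h0' h1' ht')

end Crest.Agent.R116.Ene618
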