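import Crest.Agent.R116.Ene4_618

/-!
# R116, K2 with room (618's msg 17202), part (B) (helper79): few parents

A member of aperture `sg ≤ 1/N` over the whole window contains children of at most `O(1)`
grid rays.
-/

set_option autoImplicit false
set_option linter.unusedVariables false

open Finset

namespace Crest.Agent.R116.RmB79

open Crest.Agent.R116.LZg725
open Crest.Agent.R138.Defs (E2)
open Crest.Agent.R116.CDef480 (E3 lat pt)
open Crest.Agent.R116.Ks79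
open Crest.Agent.R116.Ene618 (norm2_le abs_coord_le norm_gC' T_zero)

/-- the static conditions of a ray of a member at height `0`. -/
theorem at_zero {m : Mem} (hR : m.R = 1) (hs0 : m.s0 = 0) {r : E2 × E2 × ℝ} (h : r ∈ m.rays 0) :
    ‖r.1 - m.c‖ ≤ m.sg ∧ ‖r.2.1 - lat m.X0‖ ≤ m.sg ∧
      |(r.2.2 + inner ℝ m.c r.2.1) - (m.X0 2 + inner ℝ m.c (lat m.X0))| ≤ m.sg ^ 2 := by
  obtain ⟨h1, h2⟩ := h
  have h3 := (h2 0 (by rw [hs0, hR]; norm_num)).1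
  obtain ⟨-, h4, h5⟩ := h3
  simp only [lat_rpos0, rpos0_two, T_zero, hR, hs0] at h4 h5
  refine ⟨h1, ?_, ?_⟩
  · simpa using h4
  · unfold nrm at h5
    simpa using h5

/-- integers from reals. -/
theorem int_close {N : ℕ} (hN : 1 ≤ N) {a b : ℤ} {K : ℕ} (h : |(a : ℝ) / N - (b : ℝ) / N| < (K + 1) / N) :
    b - K ≤ a ∧ a ≤ b + K := by
  have hN0 : (0 : ℝ) < N := by exact_mod_cast hN
  have e : (a : ℝ) / N - (b : ℝ) / N = ((a - b : ℤ) : ℝ) / N := by push_cast; ring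
  rw [e, abs_div, abs_of_pos hN0, div_lt_div_iff_of_pos_right hN0] at h
  have h1 : |(a - b : ℤ)| < (K : ℤ) + 1 := by exact_mod_cast h
  rw [abs_lt] at h1
  omega

/-- two parents of children of one thin member. -/
theorem close_pair {N : ℕ} (hN : 1 ≤ N) {l l' : GRay} (hl : Bd N l) {m : Mem}
    (hR : m.R = 1) (hs0 : m.s0 = 0) (hsg : 0 < m.sg) (hsg1 : m.sg ≤ 1 / N)
    {p p' : E2} {t t' : ℝ} (hp0 : |p 0| ≤ 1 / (8 * N)) (hp1 : |p 1| ≤ 1 / (8 * N))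
    (ht : |t| ≤ 1 / (8 * N)) (hp0' : |p' 0| ≤ 1 / (8 * N)) (hp1' : |p' 1| ≤ 1 / (8 * N))
    (ht' : |t'| ≤ 1 / (8 * N))
    (h : (-(gC N l), gX N l + p, gH N l + t) ∈ m.rays 0)
    (h' : (-(gC N l'), gX N l' + p', gH N l' + t') ∈ m.rays 0) :
    ((l.1.1.1 - 2 ≤ l'.1.1.1 ∧ l'.1.1.1 ≤ l.1.1.1 + 2) ∧
      (l.1.1.2 - 2 ≤ l'.1.1.2 ∧ l'.1.1.2 ≤ l.1.1.2 + 2)) ∧
    ((l.1.2.1 - 2 ≤ l'.1.2.1 ∧ l'.1.2.1 ≤ l.1.2.1 + 2) ∧
      (l.1.2.2 - 2 ≤ l'.1.2.2 ∧ l'.1.2.2 ≤ l.1.2.2 + 2)) ∧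
    (l.2 - 8 ≤ l'.2 ∧ l'.2 ≤ l.2 + 8) := by
  have hN0 : (0 : ℝ) < N := by exact_mod_cast hN
  have hN1 : (1 : ℝ) ≤ N := by exact_mod_cast hN
  set u : ℝ := 1 / N with hu
  have hu0 : 0 < u := by positivity
  have hu1 : u ≤ 1 := by rw [hu, div_le_one hN0]; exact hN1
  have h8 : (1 : ℝ) / (8 * N) = u / 8 := by rw [hu]; field_simp
  rw [h8] at hp0 hp1 ht hp0' hp1' ht'
  obtain ⟨a1, a2, a3⟩ := at_zero hR hs0 h
  obtain ⟨b1, b2, b3⟩ := at_zero hR hs0 h'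
  simp only [] at a1 a2 a3 b1 b2 b3
  -- slopes
  have hC : ‖gC N l' - gC N l‖ ≤ 2 * u := by
    have e : gC N l' - gC N l = (-(gC N l) - m.c) - (-(gC N l') - m.c) := by abel
    rw [e]
    exact (norm_sub_le _ _).trans (by linarith)
  have hX : ‖(gX N l' + p') - (gX N l + p)‖ ≤ 2 * u := by
    have e : (gX N l' + p') - (gX N l + p) =
        ((gX N l' + p') - lat m.X0) - ((gX N l + p) - lat m.X0) := by abel
    rw [e]
    exact (norm_sub_le _ _).trans (by linarith)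
  have hc : ‖m.c‖ ≤ 5 / 2 := by
    have e : m.c = -(gC N l) - (-(gC N l) - m.c) := by abel
    rw [e]
    refine (norm_sub_le _ _).trans ?_
    rw [norm_neg]
    have := norm_gC' hN hl
    linarith
  have hinn : |inner ℝ m.c ((gX N l' + p') - (gX N l + p))| ≤ 5 * u := by
    refine (abs_real_inner_le_norm _ _).trans ?_
    calc ‖m.c‖ * ‖(gX N l' + p') - (gX N l + p)‖ ≤ 5 / 2 * (2 * u) :=
          mul_le_mul hc hX (norm_nonneg _) (by norm_num)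
      _ = 5 * u := by ring
  have hsq : m.sg ^ 2 ≤ u := by nlinarith
  have hH : |gH N l' - gH N l| ≤ 2 * u + 5 * u + u / 4 := by
    have e : gH N l' - gH N l =
        ((gH N l' + t' + inner ℝ m.c (gX N l' + p')) - (m.X0 2 + inner ℝ m.c (lat m.X0)))
        - ((gH N l + t + inner ℝ m.c (gX N l + p)) - (m.X0 2 + inner ℝ m.c (lat m.X0)))
        - inner ℝ m.c ((gX N l' + p') - (gX N l + p)) + (t - t') := by
      rw [inner_sub_right]; ring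
    rw [e]
    rw [abs_le] at a3 b3 hinn ht ht' ⊢
    constructor <;> linarith [a3.1, a3.2, b3.1, b3.2, hinn.1, hinn.2, ht.1, ht.2, ht'.1, ht'.2]
  -- coordinates
  have hC0 : |(gC N l' - gC N l) 0| ≤ 2 * u := (abs_coord_le _ 0).trans hC
  have hC1 : |(gC N l' - gC N l) 1| ≤ 2 * u := (abs_coord_le _ 1).trans hC
  have hX0 : |((gX N l' + p') - (gX N l + p)) 0| ≤ 2 * u := (abs_coord_le _ 0).trans hX
  have hX1 : |((gX N l' + p') - (gX N l + p)) 1| ≤ 2 * u := (abs_coord_le _ 1).trans hX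
  have k3 : ∀ K : ℕ, ((K : ℝ) + 1) / N = (K + 1) * u := fun K => by rw [hu]; ring
  have c0 : |(l'.1.1.1 : ℝ) / N - (l.1.1.1 : ℝ) / N| < ((2 : ℕ) + 1) / N := by
    rw [k3]
    have : (gC N l' - gC N l) 0 = (l'.1.1.1 : ℝ) / N - (l.1.1.1 : ℝ) / N := rfl
    rw [← this]; push_cast; linarith
  have c1 : |(l'.1.1.2 : ℝ) / N - (l.1.1.2 : ℝ) / N| < ((2 : ℕ) + 1) / N := by
    rw [k3]
    have : (gC N l' - gC N l) 1 = (l'.1.1.2 : ℝ) / N - (l.1.1.2 : ℝ) / N := rfl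
    rw [← this]; push_cast; linarith
  have d0 : |(l'.1.2.1 : ℝ) / N - (l.1.2.1 : ℝ) / N| < ((2 : ℕ) + 1) / N := by
    rw [k3]
    have : ((gX N l' + p') - (gX N l + p)) 0 =
        ((l'.1.2.1 : ℝ) / N + p' 0) - ((l.1.2.1 : ℝ) / N + p 0) := rfl
    rw [this] at hX0
    push_cast
    rw [abs_le] at hX0 hp0 hp0'
    rw [abs_lt]
    constructor <;> linarith [hX0.1, hX0.2, hp0.1, hp0.2, hp0'.1, hp0'.2]
  have d1 : |(l'.1.2.2 : ℝ) / N - (l.1.2.2 : ℝ) / N| < ((2 : ℕ) + 1) / N := by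
    rw [k3]
    have : ((gX N l' + p') - (gX N l + p)) 1 =
        ((l'.1.2.2 : ℝ) / N + p' 1) - ((l.1.2.2 : ℝ) / N + p 1) := rfl
    rw [this] at hX1
    push_cast
    rw [abs_le] at hX1 hp1 hp1'
    rw [abs_lt]
    constructor <;> linarith [hX1.1, hX1.2, hp1.1, hp1.2, hp1'.1, hp1'.2]
  have e0 : |(l'.2 : ℝ) / N - (l.2 : ℝ) / N| < ((8 : ℕ) + 1) / N := by
    rw [k3]
    have : gH N l' - gH N l = (l'.2 : ℝ) / N - (l.2 : ℝ) / N := rfl
    rw [← this]; push_cast; linarith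
  have c0' := int_close hN c0
  have c1' := int_close hN c1
  have d0' := int_close hN d0
  have d1' := int_close hN d1
  have e0' := int_close hN e0
  push_cast at c0' c1' d0' d1' e0'
  exact ⟨⟨c0', c1'⟩, ⟨d0', d1'⟩, e0'⟩

open Classical in
/-- **(B) PARENTS** (618): a member of aperture `≤ 1/N` contains children of few grid rays. -/
theorem parents_small {N : ℕ} (hN : 1 ≤ N) {s : Finset GRay} (hs : ∀ l ∈ s, Bd N l) {m : Mem}
    (hR : m.R = 1) (hs0 : m.s0 = 0) (hsg : 0 < m.sg) (hsg1 : m.sg ≤ 1 / N) :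
    ((s.filter fun l => ∃ (p : E2) (t : ℝ), |p 0| ≤ 1 / (8 * N) ∧ |p 1| ≤ 1 / (8 * N) ∧
      |t| ≤ 1 / (8 * N) ∧ (-(gC N l), gX N l + p, gH N l + t) ∈ m.rays 0).card : ℝ) ≤ 100000 := by
  set S := s.filter fun l => ∃ (p : E2) (t : ℝ), |p 0| ≤ 1 / (8 * N) ∧ |p 1| ≤ 1 / (8 * N) ∧
      |t| ≤ 1 / (8 * N) ∧ (-(gC N l), gX N l + p, gH N l + t) ∈ m.rays 0 with hS
  rcases S.eq_empty_or_nonempty with h0 | ⟨l, hl⟩
  · rw [h0]; norm_num
  · rw [hS, mem_filter] at hl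
    obtain ⟨hls, p, t, hp0, hp1, ht, h⟩ := hl
    have hsub : S ⊆ ((Icc (l.1.1.1 - 2) (l.1.1.1 + 2) ×ˢ Icc (l.1.1.2 - 2) (l.1.1.2 + 2)) ×ˢ
        (Icc (l.1.2.1 - 2) (l.1.2.1 + 2) ×ˢ Icc (l.1.2.2 - 2) (l.1.2.2 + 2))) ×ˢ
        Icc (l.2 - 8) (l.2 + 8) := by
      intro l' hl'
      rw [hS, mem_filter] at hl'
      obtain ⟨-, p', t', hp0', hp1', ht', h'⟩ := hl'
      obtain ⟨⟨c0, c1⟩, ⟨d0, d1⟩, e0⟩ := close_pair hN (hs l hls) hR hs0 hsg hsg1 hp0 hp1 ht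
        hp0' hp1' ht' h h'
      simp only [mem_product, mem_Icc]
      exact ⟨⟨⟨c0, c1⟩, ⟨d0, d1⟩⟩, e0⟩
    have hcard := card_le_card hsub
    have hc : ∀ a : ℤ, (Icc (a - 2) (a + 2)).card = 5 := fun a => by
      rw [Int.card_Icc]
      have : a + 2 + 1 - (a - 2) = 5 := by ring
      rw [this]; rfl
    have hc8 : (Icc (l.2 - 8) (l.2 + 8)).card = 17 := by
      rw [Int.card_Icc]
      have : l.2 + 8 + 1 - (l.2 - 8) = 17 := by ring
      rw [this]; rfl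
    rw [card_product, card_product, card_product, card_product, hc, hc, hc, hc, hc8] at hcard
    have : (S.card : ℝ) ≤ 10625 := by
      have h2 : S.card ≤ 10625 := by simpa using hcard
      exact_mod_cast h2
    linarith

end Crest.Agent.R116.RmB79
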