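import Crest.Agent.R116.Rm2_618
import Crest.Agent.R116.RmB_79

/-!
# R116, K2 (ENEMY with room), part 3 (helper618): COUNT2

`count2`: number of children (spacing `rho = 1/(8 N Q)`) of a grid family in a member of `B = 0`.
-/

set_option autoImplicit false
set_option linter.unusedVariables false

open Finset

namespace Crest.Agent.R116.Ene618

open Crest.Agent.R116.LZg725
open Crest.Agent.R138.Defs (E2)
open Crest.Agent.R116.CDef480 (E3 lat pt vel)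
open Crest.Agent.R116.Ks79

/-- spacing of the children. -/
noncomputable def rho0 (N Q : ℕ) : ℝ := 1 / (8 * (N : ℝ) * Q)

/-- indices of the children. -/
noncomputable def idx (N Q : ℕ) : Finset ((ℤ × ℤ) × ℤ) :=
  (Ico (0 : ℤ) Q ×ˢ Ico (0 : ℤ) Q) ×ˢ Ico (0 : ℤ) (8 * N * Q ^ 2)

/-- the constant of `count2`. -/
noncomputable def KC : ℝ := 10 ^ 12

section

variable {N Q : ℕ}

theorem rho0_pos (hN : 1 ≤ N) (hQ : 1 ≤ Q) : 0 < rho0 N Q := by
  have hN0 : (0 : ℝ) < N := by exact_mod_cast hN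
  have hQ0 : (0 : ℝ) < Q := by exact_mod_cast hQ
  unfold rho0; positivity

theorem rho0_Q (hN : 1 ≤ N) (hQ : 1 ≤ Q) : Q * rho0 N Q = 1 / (N : ℝ) / 8 := by
  have hN0 : (0 : ℝ) < N := by exact_mod_cast hN
  have hQ0 : (0 : ℝ) < Q := by exact_mod_cast hQ
  unfold rho0; field_simp

theorem rho0_sq (hN : 1 ≤ N) (hQ : 1 ≤ Q) : (8 * N * Q ^ 2) * rho0 N Q ^ 2 = 1 / (N : ℝ) / 8 := by
  have hN0 : (0 : ℝ) < N := by exact_mod_cast hN
  have hQ0 : (0 : ℝ) < Q := by exact_mod_cast hQ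
  unfold rho0; field_simp

theorem mem_idx {x : (ℤ × ℤ) × ℤ} (hx : x ∈ idx N Q) : (0 ≤ x.1.1 ∧ x.1.1 < Q) ∧
    (0 ≤ x.1.2 ∧ x.1.2 < Q) ∧ (0 ≤ x.2 ∧ x.2 < 8 * N * Q ^ 2) := by
  unfold idx at hx
  rw [mem_product, mem_product, mem_Ico, mem_Ico, mem_Ico] at hx
  exact ⟨hx.1.1, hx.1.2, hx.2⟩

theorem idx_abs1 (hN : 1 ≤ N) (hQ : 1 ≤ Q) {x : (ℤ × ℤ) × ℤ} (hx : x ∈ idx N Q) :
    |pv (rho0 N Q) x.1 0| ≤ 1 / (N : ℝ) / 8 ∧ |pv (rho0 N Q) x.1 1| ≤ 1 / (N : ℝ) / 8 ∧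
      |(x.2 : ℝ) * rho0 N Q ^ 2| ≤ 1 / (N : ℝ) / 8 := by
  obtain ⟨⟨a1, a2⟩, ⟨b1, b2⟩, ⟨c1, c2⟩⟩ := mem_idx hx
  have hrho := rho0_pos hN hQ
  have a1' : (0:ℝ) ≤ x.1.1 := by exact_mod_cast a1
  have a2' : (x.1.1 : ℝ) ≤ Q := by exact_mod_cast a2.le
  have b1' : (0:ℝ) ≤ x.1.2 := by exact_mod_cast b1
  have b2' : (x.1.2 : ℝ) ≤ Q := by exact_mod_cast b2.le
  have c1' : (0:ℝ) ≤ x.2 := by exact_mod_cast c1
  have c2' : (x.2 : ℝ) ≤ 8 * N * Q ^ 2 := by exact_mod_cast c2.le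
  refine ⟨?_, ?_, ?_⟩
  · show |(x.1.1 : ℝ) * rho0 N Q| ≤ _
    rw [abs_of_nonneg (mul_nonneg a1' hrho.le), ← rho0_Q hN hQ]
    exact mul_le_mul_of_nonneg_right a2' hrho.le
  · show |(x.1.2 : ℝ) * rho0 N Q| ≤ _
    rw [abs_of_nonneg (mul_nonneg b1' hrho.le), ← rho0_Q hN hQ]
    exact mul_le_mul_of_nonneg_right b2' hrho.le
  · rw [abs_of_nonneg (mul_nonneg c1' (sq_nonneg _)), ← rho0_sq hN hQ]
    exact mul_le_mul_of_nonneg_right c2' (sq_nonneg _)

theorem idx_diff (hN : 1 ≤ N) (hQ : 1 ≤ Q) {x y : (ℤ × ℤ) × ℤ} (hx : x ∈ idx N Q)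
    (hy : y ∈ idx N Q) :
    |((x.1.1 : ℝ) - y.1.1) * rho0 N Q| ≤ 1 / (N : ℝ) / 8 ∧
    |((x.1.2 : ℝ) - y.1.2) * rho0 N Q| ≤ 1 / (N : ℝ) / 8 := by
  obtain ⟨⟨a1, a2⟩, ⟨b1, b2⟩, -⟩ := mem_idx hx
  obtain ⟨⟨a3, a4⟩, ⟨b3, b4⟩, -⟩ := mem_idx hy
  have hrho := rho0_pos hN hQ
  have e1 : |(x.1.1 : ℝ) - y.1.1| ≤ Q := by
    have : |x.1.1 - y.1.1| ≤ (Q : ℤ) := by rw [abs_le]; constructor <;> omega
    exact_mod_cast this
  have e2 : |(x.1.2 : ℝ) - y.1.2| ≤ Q := by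
    have : |x.1.2 - y.1.2| ≤ (Q : ℤ) := by rw [abs_le]; constructor <;> omega
    exact_mod_cast this
  rw [abs_mul, abs_mul, abs_of_pos hrho, ← rho0_Q hN hQ]
  exact ⟨mul_le_mul_of_nonneg_right e1 hrho.le, mul_le_mul_of_nonneg_right e2 hrho.le⟩

open Classical in
/-- per-parent count, `r ≤ sg`. -/
theorem par_A (hN : 1 ≤ N) (hQ : 1 ≤ Q) {M : ℝ} {m : Mem} (h : Sm M m)
    (hs1 : rho0 N Q ≤ m.s1) (r : E2 × E2 × ℝ) {l : ℝ} (hl : 4 * rho0 N Q ^ 2 ≤ l)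
    (hnu : ∀ x ∈ idx N Q, ∀ y ∈ idx N Q, chd (rho0 N Q) r x ∈ m.rays 0 →
      chd (rho0 N Q) r y ∈ m.rays 0 → |nus (rho0 N Q) r x - nus (rho0 N Q) r y| ≤ l) :
    (((idx N Q).filter fun x => chd (rho0 N Q) r x ∈ m.rays 0).card : ℝ) ≤
      92 * Q * l * min m.s1 (1 / N) / rho0 N Q ^ 3 := by
  have hN0 : (0 : ℝ) < N := by exact_mod_cast hN
  have hQ1 : (1 : ℝ) ≤ Q := by exact_mod_cast hQ
  have hrho := rho0_pos hN hQ
  set rho := rho0 N Q with hrd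
  have hW : (1 / (N : ℝ) / 8) = Q * rho := (rho0_Q hN hQ).symm
  have hl0 : 0 < l := lt_of_lt_of_le (by positivity) hl
  have h1 := par_count h (W := 1 / (N : ℝ) / 8) (lam := l) hrho (by positivity) hl0.le hs1 r
    ((idx N Q).filter fun x => chd rho r x ∈ m.rays 0)
    (fun x hx => (mem_filter.1 hx).2)
    (fun x hx y hy => (idx_diff hN hQ (mem_filter.1 hx).1 (mem_filter.1 hy).1).1)
    (fun x hx y hy => (idx_diff hN hQ (mem_filter.1 hx).1 (mem_filter.1 hy).1).2)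
    (fun x hx y hy => hnu x (mem_filter.1 hx).1 y (mem_filter.1 hy).1 (mem_filter.1 hx).2
      (mem_filter.1 hy).2)
  refine h1.trans ?_
  have hrN : rho ≤ 1 / N := by
    have : rho ≤ Q * rho := le_mul_of_one_le_left hrho.le hQ1
    rw [← hW] at this
    have h2 : 1 / (N : ℝ) / 8 ≤ 1 / N := by
      have : (0:ℝ) ≤ 1 / N := by positivity
      linarith
    linarith
  have hmin : rho ≤ min m.s1 (1 / N) := le_min hs1 hrN
  have f1 : 1 / (N : ℝ) / 8 / rho + 1 ≤ 2 * Q := by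
    rw [hW, mul_div_cancel_right₀ _ hrho.ne']; linarith
  have f2 : l / rho ^ 2 + 2 ≤ 2 * (l / rho ^ 2) := by
    have : 4 ≤ l / rho ^ 2 := by rw [le_div_iff₀ (by positivity)]; exact hl
    linarith
  have f3 : min (22 * m.s1) (1 / (N : ℝ) / 8) / rho + 1 ≤ 23 * (min m.s1 (1 / N) / rho) := by
    have g1 : min (22 * m.s1) (1 / (N : ℝ) / 8) ≤ 22 * min m.s1 (1 / N) := by
      rw [mul_min_of_nonneg _ _ (by norm_num : (0:ℝ) ≤ 22)]
      refine min_le_min le_rfl ?_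
      have : (0:ℝ) ≤ 1 / N := by positivity
      linarith
    have g2 : 1 ≤ min m.s1 (1 / (N : ℝ)) / rho := by rw [le_div_iff₀ hrho, one_mul]; exact hmin
    have g3 : min (22 * m.s1) (1 / (N : ℝ) / 8) / rho ≤ 22 * (min m.s1 (1 / N) / rho) := by
      rw [← mul_div_assoc]
      exact div_le_div_of_nonneg_right g1 hrho.le
    linarith
  have h0 : 0 ≤ min m.s1 (1 / (N : ℝ)) := hrho.le.trans hmin
  have h00 : 0 ≤ min (22 * m.s1) (1 / (N : ℝ) / 8) / rho + 1 := by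
    have : 0 ≤ min (22 * m.s1) (1 / (N : ℝ) / 8) := le_min (by linarith) (by positivity)
    positivity
  calc (1 / (N : ℝ) / 8 / rho + 1) * (l / rho ^ 2 + 2) *
        (min (22 * m.s1) (1 / (N : ℝ) / 8) / rho + 1)
      ≤ (2 * Q) * (2 * (l / rho ^ 2)) * (23 * (min m.s1 (1 / N) / rho)) := by gcongr
    _ = 92 * Q * l * min m.s1 (1 / N) / rho ^ 3 := by field_simp; norm_num; ring

open Classical in
/-- per-parent count, small apertures. -/
theorem par_B {rho : ℝ} (hrho : 0 < rho) {M : ℝ} {m : Mem} (h : Sm M m)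
    (hs1 : rho ≤ m.s1) (r : E2 × E2 × ℝ) (S : Finset ((ℤ × ℤ) × ℤ)) :
    ((S.filter fun x => chd rho r x ∈ m.rays 0).card : ℝ) ≤
      414 * (m.s1 * m.sg ^ 3) / rho ^ 4 := by
  have hsg := h.ok.sg_pos
  have hs10 := h.ok.hs1
  have hle := h.ok.hsg
  obtain ⟨C, a, k⟩ := r
  have hpos : ∀ x ∈ S.filter fun x => chd rho (C, a, k) x ∈ m.rays 0,
      ∀ y ∈ S.filter fun x => chd rho (C, a, k) x ∈ m.rays 0,
      ‖pv rho x.1 - pv rho y.1‖ ≤ 2 * m.sg := by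
    intro x hx y hy
    obtain ⟨-, x2, -, -, -⟩ := h.ray (mem_filter.1 hx).2
    obtain ⟨-, y2, -, -, -⟩ := h.ray (mem_filter.1 hy).2
    have x2' : ‖a + pv rho x.1 - lat m.X0‖ ≤ m.sg := x2
    have y2' : ‖a + pv rho y.1 - lat m.X0‖ ≤ m.sg := y2
    have e : pv rho x.1 - pv rho y.1 = (a + pv rho x.1 - lat m.X0) - (a + pv rho y.1 - lat m.X0) := by
      abel
    rw [e]
    exact (norm_sub_le _ _).trans (by linarith)
  have hco : ∀ x ∈ S.filter fun x => chd rho (C, a, k) x ∈ m.rays 0,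
      ∀ y ∈ S.filter fun x => chd rho (C, a, k) x ∈ m.rays 0, ∀ i : Fin 2,
      |(pv rho x.1 - pv rho y.1) i| ≤ 2 * m.sg := fun x hx y hy i =>
    (abs_coord_le _ i).trans (hpos x hx y hy)
  have h1 := par_count h (W := 2 * m.sg) (lam := 4 * m.sg ^ 2) hrho (by positivity) (by positivity)
    hs1 (C, a, k) (S.filter fun x => chd rho (C, a, k) x ∈ m.rays 0)
    (fun x hx => (mem_filter.1 hx).2)
    (fun x hx y hy => by
      have := hco x hx y hy 0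
      rw [pv_sub] at this
      exact this)
    (fun x hx y hy => by
      have := hco x hx y hy 1
      rw [pv_sub] at this
      exact this)
    (fun x hx y hy => by
      obtain ⟨x1, x2, x3, x4, x5⟩ := h.ray (mem_filter.1 hx).2
      obtain ⟨y1, y2, y3, y4, y5⟩ := h.ray (mem_filter.1 hy).2
      have x3' : |nrm m.c (a + pv rho x.1) (k + (x.2 : ℝ) * rho ^ 2) 0 -
        nrm m.c (lat m.X0) (m.X0 2) 0| ≤ m.sg ^ 2 := x3
      have y3' : |nrm m.c (a + pv rho y.1) (k + (y.2 : ℝ) * rho ^ 2) 0 -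
        nrm m.c (lat m.X0) (m.X0 2) 0| ≤ m.sg ^ 2 := y3
      have x1' : ‖C - m.c‖ ≤ m.sg := x1
      have e : nus rho (C, a, k) x - nus rho (C, a, k) y =
          (nrm m.c (a + pv rho x.1) (k + (x.2 : ℝ) * rho ^ 2) 0 -
            nrm m.c (lat m.X0) (m.X0 2) 0) -
          (nrm m.c (a + pv rho y.1) (k + (y.2 : ℝ) * rho ^ 2) 0 -
            nrm m.c (lat m.X0) (m.X0 2) 0) +
          inner ℝ (C - m.c) (pv rho x.1 - pv rho y.1) := by
        unfold nus nrm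
        simp only [inner_add_right, inner_sub_right, inner_sub_left]
        ring
      rw [e]
      have e1 : |inner ℝ (C - m.c) (pv rho x.1 - pv rho y.1)| ≤ m.sg * (2 * m.sg) :=
        (abs_real_inner_le_norm _ _).trans
          (mul_le_mul x1' (hpos x hx y hy) (norm_nonneg _) hsg.le)
      rw [abs_le] at x3' y3' e1 ⊢
      constructor <;> nlinarith [x3'.1, x3'.2, y3'.1, y3'.2, e1.1, e1.2])
  refine h1.trans ?_
  have hrs : rho ≤ m.sg := hs1.trans hle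
  have f1 : 2 * m.sg / rho + 1 ≤ 3 * (m.sg / rho) := by
    have g1 : 1 ≤ m.sg / rho := by rw [le_div_iff₀ hrho, one_mul]; exact hrs
    have g2 : 2 * m.sg / rho = 2 * (m.sg / rho) := by ring
    linarith
  have f2 : 4 * m.sg ^ 2 / rho ^ 2 + 2 ≤ 6 * (m.sg / rho) ^ 2 := by
    have g1 : 1 ≤ m.sg / rho := by rw [le_div_iff₀ hrho, one_mul]; exact hrs
    have g2 : 4 * m.sg ^ 2 / rho ^ 2 = 4 * (m.sg / rho) ^ 2 := by rw [div_pow]; ring
    rw [g2]
    nlinarith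
  have f3 : min (22 * m.s1) (2 * m.sg) / rho + 1 ≤ 23 * (m.s1 / rho) := by
    have g1 : min (22 * m.s1) (2 * m.sg) / rho ≤ 22 * (m.s1 / rho) := by
      rw [← mul_div_assoc]
      exact div_le_div_of_nonneg_right (min_le_left _ _) hrho.le
    have g2 : 1 ≤ m.s1 / rho := by rw [le_div_iff₀ hrho, one_mul]; exact hs1
    linarith
  have h00 : 0 ≤ min (22 * m.s1) (2 * m.sg) / rho + 1 := by
    have : 0 ≤ min (22 * m.s1) (2 * m.sg) := le_min (by linarith) (by positivity)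
    positivity
  calc (2 * m.sg / rho + 1) * (4 * m.sg ^ 2 / rho ^ 2 + 2) *
        (min (22 * m.s1) (2 * m.sg) / rho + 1)
      ≤ (3 * (m.sg / rho)) * (6 * (m.sg / rho) ^ 2) * (23 * (m.s1 / rho)) := by gcongr
    _ = 414 * (m.s1 * m.sg ^ 3) / rho ^ 4 := by field_simp; norm_num

open Classical in
/-- **COUNT2**: children of a grid family in a member. -/
theorem count2 (hN : 1 ≤ N) (hQ : 1 ≤ Q) {s : Finset GRay} (hBd : ∀ l ∈ s, Bd N l) {Δ : ℝ}
    (hΔ : 1 ≤ Δ) (hD : DensL 64 N s Δ) {m : Mem} (h : Sm 16 m) (hs1 : rho0 N Q ≤ m.s1)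
    (hsg : m.sg ≤ 1 / 8) :
    (((s ×ˢ idx N Q).filter fun x => chd (rho0 N Q) (gray N x.1) x.2 ∈ m.rays 0).card : ℝ) ≤
      KC * Δ * (N : ℝ) ^ 4 * (Q : ℝ) ^ 4 * m.scost 0 := by
  have hN0 : (0 : ℝ) < N := by exact_mod_cast hN
  have hN1 : (1 : ℝ) ≤ N := by exact_mod_cast hN
  have hQ1 : (1 : ℝ) ≤ Q := by exact_mod_cast hQ
  have hQ0 : (0 : ℝ) < Q := by linarith
  have hrho := rho0_pos hN hQ
  have hsg0 := h.ok.sg_pos
  have hs10 := h.ok.hs1
  have hr : (0:ℝ) < 1 / N := by positivity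
  have hr1 : 1 / (N : ℝ) ≤ 1 := by rw [div_le_one hN0]; exact hN1
  have hcost : m.scost 0 = m.s1 * m.sg ^ 3 := by
    rw [scost_zero, h.R1]; ring
  rw [hcost]
  set rho := rho0 N Q with hrd
  set T := (s ×ˢ idx N Q).filter fun x => chd rho (gray N x.1) x.2 ∈ m.rays 0 with hT
  -- fibers
  have hmain : ∀ B : ℝ, 0 ≤ B → (∀ l ∈ s,
      (((idx N Q).filter fun x => chd rho (gray N l) x ∈ m.rays 0).card : ℝ) ≤ B) →
      (T.card : ℝ) ≤ (T.image Prod.fst).card * B := by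
    intro B hB hf
    have : T.card = ∑ c ∈ T.image Prod.fst, (T.filter fun t => t.1 = c).card :=
      card_eq_sum_card_image Prod.fst T
    rw [this]
    push_cast
    calc ∑ c ∈ T.image Prod.fst, ((T.filter fun t => t.1 = c).card : ℝ) ≤
          ∑ c ∈ T.image Prod.fst, B := by
          refine sum_le_sum fun l hl => ?_
          obtain ⟨x, hx, rfl⟩ := mem_image.1 hl
          rw [hT, mem_filter, mem_product] at hx
          refine le_trans (Nat.cast_le.2 ?_) (hf x.1 hx.1.1)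
          refine card_le_card_of_injOn (fun t => t.2) ?_ ?_
          · intro t ht
            rw [mem_coe, mem_filter, hT, mem_filter, mem_product] at ht
            rw [mem_coe, mem_filter]
            refine ⟨ht.1.1.2, ?_⟩
            rw [← ht.2]
            exact ht.1.2
          · intro t ht t' ht' htt
            rw [mem_coe, mem_filter] at ht ht'
            exact Prod.ext (ht.2.trans ht'.2.symm) htt
      _ = (T.image Prod.fst).card * B := by rw [sum_const, nsmul_eq_mul]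
  have hK0 : (0:ℝ) < (N : ℝ) ^ 4 * (Q : ℝ) ^ 4 * (m.s1 * m.sg ^ 3) := by positivity
  have hC2 : ∀ l ∈ s, ‖(gray N l).1‖ ≤ 3 / 2 := by
    intro l hl
    show ‖-(gC N l)‖ ≤ 3 / 2
    rw [norm_neg]
    exact norm_gC' hN (hBd l hl)
  rcases le_total (1 / (N : ℝ)) m.sg with hcase | hcase
  · -- `r ≤ sg`
    obtain ⟨F, l, hF, hray, hdiff⟩ := parents_big (M := 16) (by norm_num) h hr hr1 hcase
      (by linarith)
    have hl : 4 * rho ^ 2 ≤ l := by
      have h1 := hF.rl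
      have h2 : rho ≤ 1 / N / 8 := by
        have : rho ≤ Q * rho := le_mul_of_one_le_left hrho.le hQ1
        rwa [rho0_Q hN hQ] at this
      have h3 : rho ^ 2 ≤ (1 / N / 8) ^ 2 := pow_le_pow_left₀ hrho.le h2 2
      have h4 : (1 / (N : ℝ) / 8) ^ 2 = (1 / N) ^ 2 / 64 := by ring
      rw [h4] at h3
      linarith
    have hl0 := hF.l0
    have hB := hmain (92 * Q * l * min m.s1 (1 / N) / rho ^ 3) (by
        have : 0 ≤ min m.s1 (1 / (N : ℝ)) := le_min hs10.le hr.le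
        positivity) (fun l' hl' => by
      refine par_A hN hQ h hs1 (gray N l') hl ?_
      intro x hx y hy hxm hym
      obtain ⟨a1, a2, a3⟩ := idx_abs1 hN hQ hx
      obtain ⟨b1, b2, b3⟩ := idx_abs1 hN hQ hy
      exact hdiff _ _ _ _ _ _ _ (hC2 l' hl') a1 a2 a3 b1 b2 b3 hxm hym)
    have hP : ((T.image Prod.fst).card : ℝ) ≤
        ∑ j ∈ Icc (-3 : ℤ) 3, Δ * ((F j).scost (1 / N) * (N : ℝ) ^ 3) := by
      have h1 : T.image Prod.fst ⊆ (Icc (-3 : ℤ) 3).biUnion fun j =>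
          s.filter fun l => gray N l ∈ (F j).rays (1 / N) := by
        intro l' hl'
        obtain ⟨x, hx, rfl⟩ := mem_image.1 hl'
        rw [hT, mem_filter, mem_product] at hx
        obtain ⟨⟨hx1, hx2⟩, hx3⟩ := hx
        obtain ⟨a1, a2, a3⟩ := idx_abs1 hN hQ hx2
        obtain ⟨j, hj, hj2⟩ := hray _ _ _ _ _ (hC2 x.1 hx1) a1 a2 a3 hx3
        rw [mem_biUnion]
        refine ⟨j, ?_, mem_filter.2 ⟨hx1, hj2⟩⟩
        rw [mem_Icc]
        exact abs_le.1 hj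
      have h2 := (card_le_card h1).trans card_biUnion_le
      have h3 : ((T.image Prod.fst).card : ℝ) ≤ ∑ j ∈ Icc (-3 : ℤ) 3,
          ((s.filter fun l => gray N l ∈ (F j).rays (1 / N)).card : ℝ) := by
        exact_mod_cast h2
      refine h3.trans (sum_le_sum fun j hj => ?_)
      have hj' : |j| ≤ 3 := by rw [abs_le]; exact mem_Icc.1 hj
      refine hD (F j) ⟨?_, ?_, hF.R1 j hj', hF.s0 j hj', hF.thin j hj', hF.sg1 j hj'⟩
      · have := hF.ok j hj'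
        norm_num at this ⊢
        exact this
      · have := hF.cpt j hj'
        norm_num at this ⊢
        exact this
    have hcs := bigm_scost (r := 1 / (N : ℝ)) h
    have hterm : ∀ j ∈ Icc (-3 : ℤ) 3, (Δ * ((F j).scost (1 / N) * (N : ℝ) ^ 3)) *
        (92 * Q * l * min m.s1 (1 / N) / rho ^ 3) ≤
        92 * 4096 * 512 * (Δ * ((N : ℝ) ^ 4 * (Q : ℝ) ^ 4 * (m.s1 * m.sg ^ 3))) := by
      intro j hj
      have hj' : |j| ≤ 3 := by rw [abs_le]; exact mem_Icc.1 hj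
      have hc := hF.cost j hj'
      rw [hcs] at hc
      have hmm : min m.s1 (1 / (N : ℝ)) * max m.s1 (1 / N) = m.s1 * (1 / N) := min_mul_max _ _
      have hmin0 : 0 ≤ min m.s1 (1 / (N : ℝ)) := le_min hs10.le hr.le
      have e1 : (Δ * ((F j).scost (1 / N) * (N : ℝ) ^ 3)) *
          (92 * Q * l * min m.s1 (1 / N) / rho ^ 3) =
          (92 * Δ * (N : ℝ) ^ 3 * Q * min m.s1 (1 / N) / rho ^ 3) * (l * (F j).scost (1 / N)) := by
        ring
      rw [e1]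
      have h5 : (92 * Δ * (N : ℝ) ^ 3 * Q * min m.s1 (1 / N) / rho ^ 3) *
          (l * (F j).scost (1 / N)) ≤ (92 * Δ * (N : ℝ) ^ 3 * Q * min m.s1 (1 / N) / rho ^ 3) *
          (16 * 16 * (1 / N * (16 * max m.s1 (1 / N) * m.sg ^ 3))) :=
        mul_le_mul_of_nonneg_left hc (by positivity)
      refine h5.trans (le_of_eq ?_)
      have e2 : (92 * Δ * (N : ℝ) ^ 3 * Q * min m.s1 (1 / N) / rho ^ 3) *
          (16 * 16 * (1 / N * (16 * max m.s1 (1 / N) * m.sg ^ 3))) =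
          92 * 4096 * Δ * (N : ℝ) ^ 3 * Q / rho ^ 3 * (1 / N) *
          (min m.s1 (1 / N) * max m.s1 (1 / N)) * m.sg ^ 3 := by ring
      rw [e2, hmm, hrd]
      unfold rho0
      field_simp
      norm_num
    calc (T.card : ℝ) ≤ (T.image Prod.fst).card * (92 * Q * l * min m.s1 (1 / N) / rho ^ 3) := hB
      _ ≤ (∑ j ∈ Icc (-3 : ℤ) 3, Δ * ((F j).scost (1 / N) * (N : ℝ) ^ 3)) *
          (92 * Q * l * min m.s1 (1 / N) / rho ^ 3) := by
          refine mul_le_mul_of_nonneg_right hP ?_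
          have : 0 ≤ min m.s1 (1 / (N : ℝ)) := le_min hs10.le hr.le
          positivity
      _ = ∑ j ∈ Icc (-3 : ℤ) 3, (Δ * ((F j).scost (1 / N) * (N : ℝ) ^ 3)) *
          (92 * Q * l * min m.s1 (1 / N) / rho ^ 3) := by rw [sum_mul]
      _ ≤ ∑ j ∈ Icc (-3 : ℤ) 3,
          92 * 4096 * 512 * (Δ * ((N : ℝ) ^ 4 * (Q : ℝ) ^ 4 * (m.s1 * m.sg ^ 3))) :=
          sum_le_sum hterm
      _ = 7 * (92 * 4096 * 512 * (Δ * ((N : ℝ) ^ 4 * (Q : ℝ) ^ 4 * (m.s1 * m.sg ^ 3)))) := by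
          have h7 : (Icc (-3 : ℤ) 3).card = 7 := rfl
          rw [sum_const, h7, nsmul_eq_mul]; norm_num
      _ ≤ KC * (Δ * ((N : ℝ) ^ 4 * (Q : ℝ) ^ 4 * (m.s1 * m.sg ^ 3))) := by
          unfold KC
          have : 0 ≤ Δ * ((N : ℝ) ^ 4 * (Q : ℝ) ^ 4 * (m.s1 * m.sg ^ 3)) := by positivity
          nlinarith
      _ = _ := by ring
  · -- `sg ≤ r`
    have hB := hmain (414 * (m.s1 * m.sg ^ 3) / rho ^ 4) (by positivity)
      (fun l' hl' => par_B hrho h hs1 (gray N l') (idx N Q))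
    have hP : ((T.image Prod.fst).card : ℝ) ≤ 100000 := by
      refine le_trans (Nat.cast_le.2 (card_le_card ?_))
        (RmB79.parents_small hN hBd h.R1 h.s0 hsg0 hcase)
      intro l' hl'
      obtain ⟨x, hx, rfl⟩ := mem_image.1 hl'
      rw [hT, mem_filter, mem_product] at hx
      obtain ⟨⟨hx1, hx2⟩, hx3⟩ := hx
      obtain ⟨a1, a2, a3⟩ := idx_abs1 hN hQ hx2
      have e8 : 1 / (N : ℝ) / 8 = 1 / (8 * N) := by field_simp
      rw [e8] at a1 a2 a3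
      exact mem_filter.2 ⟨hx1, pv rho x.2.1, (x.2.2 : ℝ) * rho ^ 2, a1, a2, a3, hx3⟩
    calc (T.card : ℝ) ≤ (T.image Prod.fst).card * (414 * (m.s1 * m.sg ^ 3) / rho ^ 4) := hB
      _ ≤ 100000 * (414 * (m.s1 * m.sg ^ 3) / rho ^ 4) := by gcongr
      _ = 100000 * 414 * 4096 * ((N : ℝ) ^ 4 * (Q : ℝ) ^ 4 * (m.s1 * m.sg ^ 3)) := by
          rw [hrd]; unfold rho0; field_simp; norm_num
      _ ≤ KC * (Δ * ((N : ℝ) ^ 4 * (Q : ℝ) ^ 4 * (m.s1 * m.sg ^ 3))) := by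
          unfold KC
          have : (N : ℝ) ^ 4 * (Q : ℝ) ^ 4 * (m.s1 * m.sg ^ 3) ≤
              Δ * ((N : ℝ) ^ 4 * (Q : ℝ) ^ 4 * (m.s1 * m.sg ^ 3)) :=
            le_mul_of_one_le_left hK0.le hΔ
          nlinarith
      _ = _ := by ring

end

end Crest.Agent.R116.Ene618
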