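import Crest.Agent.R116.Rm3_618

/-!
# R116, K2 (ENEMY with room), part 4 (helper618): `up_count'`, `raw_up'`

The density bound at level `0` for the filled family.
-/

set_option autoImplicit false
set_option linter.unusedVariables false

open Finset

namespace Crest.Agent.R116.Ene618

open Crest.Agent.R116.LZg725
open Crest.Agent.R138.Defs (E2)
open Crest.Agent.R116.CDef480 (E3 lat pt vel)
open Crest.Agent.R116.Ks79

section

variable {m : Mem}

open Classical in
/-- **the density bound at level `0`** (`B = 0`), from members of small curvature. -/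
theorem up_count' {ι : Type*} (S : Finset ι) (L : ι → E2 × E2 × ℝ) {δ A : ℝ} (hδ : 0 < δ)
    (hδ1 : δ ≤ 1 / 8) (hA : 0 ≤ A)
    (hb1 : ∀ i ∈ S, ‖(L i).1‖ ≤ 3 / 2) (hb2 : ∀ i ∈ S, ‖(L i).2.1‖ ≤ 3 / 2)
    (hd : ∀ p : Mem, Sm 16 p → δ ≤ p.s1 → p.sg ≤ 1 / 8 →
      ((S.filter fun i => L i ∈ p.rays 0).card : ℝ) ≤ A * p.scost 0)
    (hm0 : m.Ok (1 / 100) 0) (hR : ∀ s : ℝ, |s| ≤ 1 → |1 / 4 * s + 1 / 2 - m.s0| ≤ m.R) (hR1 : m.R ≤ 1)
    (hδs1 : δ ≤ 64 * (m.s1 * m.R)) (hsg1 : m.sg ≤ 1)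
    (hS : ∀ i ∈ S, nr (L i) ∈ m.rays 0) :
    (S.card : ℝ) ≤ (2 * nK + 1) ^ 5 * (A * (2 ^ 30 * (m.s1 * m.R * m.sg ^ 3))) := by
  have hm : m.Ok 1 0 := LKMDef299.Ok.mono hm0 (by norm_num)
  have hsg := hm.sg_pos
  have hRp := hm.hR
  have hs1 := hm.hs1
  have hs1sg := hm.hsg
  set σ : ℝ := min (1 / 8) (256 * m.sg) with hσd
  have hσ : 0 < σ := lt_min (by norm_num) (by positivity)
  have hσ1 : σ ≤ 1 / 8 := min_le_left _ _
  have hσ2 : σ ≤ 256 * m.sg := min_le_right _ _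
  have hσ3 : m.sg ≤ 8 * σ := by
    rcases le_total (256 * m.sg) (1 / 8) with h | h
    · have : σ = 256 * m.sg := min_eq_right h
      linarith
    · have : σ = 1 / 8 := min_eq_left h
      linarith
  have hsgR : m.sg * m.R ≤ m.sg := by nlinarith
  have hs1R : m.s1 * m.R ≤ m.sg := by nlinarith
  have hδσ : δ ≤ σ := le_min hδ1 (by linarith)
  rcases S.eq_empty_or_nonempty with rfl | ⟨i0, hi0⟩
  · simp only [card_empty, Nat.cast_zero]
    positivity
  have hin := fun i (hi : i ∈ S) j (hj : j ∈ S) => in_new hm hR (hS i hi) (hS j hj)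
  have hcost : ∀ w : ℝ, 0 ≤ w → w ≤ 64 * (m.s1 * m.R) →
      w * σ * σ ^ 2 * 1 ^ 3 ≤ 2 ^ 30 * (m.s1 * m.R * m.sg ^ 3) := by
    intro w hw0 hw
    calc w * σ * σ ^ 2 * 1 ^ 3
        ≤ (64 * (m.s1 * m.R)) * (256 * m.sg) * (256 * m.sg) ^ 2 * 1 ^ 3 := by gcongr
      _ = 2 ^ 30 * (m.s1 * m.R * m.sg ^ 3) := by ring
  refine cells_bound S L i0 (σ := σ) (T0 := σ ^ 2) hσ le_rfl ?_ ?_ ?_ (by positivity) ?_
  · intro i hi
    rcases le_total (256 * m.sg) (1 / 8) with h | h
    · have : σ = 256 * m.sg := min_eq_right h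
      have := (hin i hi i0 hi0).1
      linarith
    · have : σ = 1 / 8 := min_eq_left h
      have := norm_sub_le (L i).1 (L i0).1
      linarith [hb1 i hi, hb1 i0 hi0]
  · intro i hi
    rcases le_total (256 * m.sg) (1 / 8) with h | h
    · have : σ = 256 * m.sg := min_eq_right h
      have h2 := (hin i hi i0 hi0).2.1
      linarith
    · have : σ = 1 / 8 := min_eq_left h
      have := norm_sub_le (L i).2.1 (L i0).2.1
      linarith [hb2 i hi, hb2 i0 hi0]
  · intro i hi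
    have h2 := (hin i hi i0 hi0).2.2.1
    have h3 : m.sg ^ 2 * m.R ≤ m.sg ^ 2 := by nlinarith [sq_nonneg m.sg]
    have h4 : m.sg ^ 2 ≤ (8 * σ) ^ 2 := pow_le_pow_left₀ hsg.le hσ3 2
    nlinarith
  · intro i hi
    -- the slab function and its width
    have hi' := hin i hi i hi
    by_cases hw : 64 * (m.s1 * m.R) ≤ σ
    · -- curved slab
      set phi := back (1 / 64) (1 / 4) (1 / 2) m.phi with hphi
      have hok : (mem1 σ (64 * (m.s1 * m.R)) phi (L i)).Ok 16 0 := by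
        refine mem1_ok (by linarith) (by positivity) hw ?_ ?_ ?_
        · rw [hphi, back_disc (by norm_num) (by norm_num)]
          exact hm.adm.disc
        · intro s hs
          rw [hphi, back_ny _ (by norm_num)]
          have h3 := hm.adm.ny (1 / 4 * s + 1 / 2) (hR s hs)
          rw [T_zero] at h3
          set a := |m.phi.ny (1 / 4 * s + 1 / 2)| with ha
          have ha0 : 0 ≤ a := abs_nonneg _
          have h5 : a * m.sg ≤ 1 := by
            have h6 : (a * m.sg) * m.sg ≤ 1 * m.sg := by nlinarith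
            exact le_of_mul_le_mul_right h6 hsg
          rw [abs_mul, show |((1:ℝ) / 64 / (1 / 4))| = 1 / 16 by
            rw [abs_of_pos (by norm_num)]; norm_num]
          calc 1 / 16 * a * σ ^ 2 = 1 / 16 * (a * σ) * σ := by ring
            _ ≤ 1 / 16 * (a * (256 * m.sg)) * σ := by gcongr
            _ = 16 * (a * m.sg) * σ := by ring
            _ ≤ 16 * 1 * σ := by gcongr
            _ = 16 * σ := by ring
        · exact hi'.2.2.2
      have hSm : Sm 16 (mem1 σ (64 * (m.s1 * m.R)) phi (L i)) := by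
        refine ⟨hok, rfl, rfl, fun s hs => ?_⟩
        show |phi.ny s| * σ ≤ 4 / 25
        rw [hphi, back_ny _ (by norm_num)]
        have h3 := hm0.adm.ny (1 / 4 * s + 1 / 2) (hR s hs)
        rw [T_zero] at h3
        set a := |m.phi.ny (1 / 4 * s + 1 / 2)| with ha
        have ha0 : 0 ≤ a := abs_nonneg _
        have h5 : a * m.sg ≤ 1 / 100 := by
          have h6 : (a * m.sg) * m.sg ≤ 1 / 100 * m.sg := by nlinarith
          exact le_of_mul_le_mul_right h6 hsg
        rw [abs_mul, show |((1:ℝ) / 64 / (1 / 4))| = 1 / 16 by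
          rw [abs_of_pos (by norm_num)]; norm_num]
        calc 1 / 16 * a * σ ≤ 1 / 16 * a * (256 * m.sg) := by gcongr
          _ = 16 * (a * m.sg) := by ring
          _ ≤ 16 * (1 / 100) := by gcongr
          _ = 4 / 25 := by norm_num
      have hD := hd _ hSm (by exact hδs1) hσ1
      refine le_trans (Nat.cast_le.2 (card_le_card fun t ht => ?_)) (hD.trans ?_)
      · rw [mem_filter] at ht ⊢
        obtain ⟨ht0, ht1, ht2, ht3⟩ := ht
        exact ⟨ht0, mem1_rays hσ ht1 ht2 ht3 (hin t ht0 i hi).2.2.2⟩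
      · rw [scost_zero]
        exact mul_le_mul_of_nonneg_left (hcost _ (mul_nonneg (by norm_num) (mul_nonneg hs1.le hRp.le)) le_rfl) hA
    · -- no slab
      push Not at hw
      set e : E2 := !₂[1, 0] with he
      have he1 : ‖e‖ = 1 := by
        have : ‖e‖ ^ 2 = 1 := by rw [CDef480.normsq2]; simp [he]
        exact (pow_eq_one_iff_of_nonneg (norm_nonneg e) two_ne_zero).1 this
      set phi := linf e (L i).1 (L i).2.1 with hphi
      have hev : ∀ t : E2 × E2 × ℝ, ‖t.1 - (L i).1‖ ≤ σ / 128 → ‖t.2.1 - (L i).2.1‖ ≤ σ / 128 →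
          ∀ s : ℝ, |s| ≤ 1 → |phi.ev (rx t.1 t.2.1 s) (ry t.1 t.2.2 s) s| ≤ σ := by
        intro t h1 h2 s hs
        rw [hphi, linf_ev]
        refine (abs_real_inner_le_norm _ _).trans ?_
        rw [he1, one_mul]
        have e2 : rx t.1 t.2.1 s - (L i).2.1 + s • (L i).1 =
            (t.2.1 - (L i).2.1) - s • (t.1 - (L i).1) := by
          unfold rx; module
        rw [e2]
        refine (norm_sub_le _ _).trans ?_
        rw [norm_smul, Real.norm_eq_abs]
        have : |s| * ‖t.1 - (L i).1‖ ≤ 1 * (σ / 128) :=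
          mul_le_mul hs h1 (norm_nonneg _) zero_le_one
        linarith
      have hzero : ‖(0 : E2)‖ ≤ σ / 128 := by rw [norm_zero]; positivity
      have hok : (mem1 σ σ phi (L i)).Ok 16 0 := by
        refine mem1_ok (by linarith) hσ le_rfl ?_ ?_ ?_
        · rw [hphi]; exact linf_disc he1 _ _
        · intro s hs
          rw [hphi, linf_ny, abs_zero, zero_mul]
          positivity
        · exact hev (L i) (by rw [sub_self]; exact hzero) (by rw [sub_self]; exact hzero)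
      have hSm : Sm 16 (mem1 σ σ phi (L i)) := by
        refine ⟨hok, rfl, rfl, fun s hs => ?_⟩
        show |phi.ny s| * σ ≤ 4 / 25
        rw [hphi, linf_ny, abs_zero, zero_mul]
        norm_num
      have hD := hd _ hSm (by exact hδσ) hσ1
      refine le_trans (Nat.cast_le.2 (card_le_card fun t ht => ?_)) (hD.trans ?_)
      · rw [mem_filter] at ht ⊢
        obtain ⟨ht0, ht1, ht2, ht3⟩ := ht
        exact ⟨ht0, mem1_rays hσ ht1 ht2 ht3 (hev _ ht1 ht2)⟩
      · rw [scost_zero]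
        exact mul_le_mul_of_nonneg_left (hcost σ hσ.le hw.le) hA

end

/-- the constant of `raw_up'`. -/
noncomputable def KR : ℝ := (2 * nK + 1) ^ 5 * (KC * 2 ^ 30)

theorem KR_pos : 0 < KR := by
  unfold KR KC nK
  positivity

open Classical in
/-- **the density at level `0`** for the children. -/
theorem raw_up' (N Q : ℕ) (s : Finset GRay) (Δ : ℝ) (m : Mem) (hN : 8 ≤ N) (hQ : 1 ≤ Q)
    (hΔ : 1 ≤ Δ) (hBd : ∀ l ∈ s, Bd N l) (hD : DensL 68 N s Δ) (hm : m.Ok (1 / 100) 0)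
    (hR : m.R = 1) (hs0 : m.s0 = 1 / 2) (hs1 : 1 / (8 * (N : ℝ) * Q) ≤ m.s1) (hsg : m.sg ≤ 1) :
    (((s ×ˢ idx N Q).filter fun x =>
      nr (chd (1 / (8 * (N : ℝ) * Q)) (gray N x.1) x.2) ∈ m.rays 0).card : ℝ) ≤
      KR * Δ * (N : ℝ) ^ 4 * (Q : ℝ) ^ 4 * (m.s1 * m.sg ^ 3) := by
  have hN1 : 1 ≤ N := by omega
  have hN0 : (0:ℝ) < N := by exact_mod_cast hN1
  have hN8 : (8:ℝ) ≤ N := by exact_mod_cast hN
  have hQ1 : (1:ℝ) ≤ Q := by exact_mod_cast hQ
  have hrho := rho0_pos hN1 hQ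
  have hrd : (1 / (8 * (N : ℝ) * Q)) = rho0 N Q := rfl
  rw [hrd] at hs1 ⊢
  set S := (s ×ˢ idx N Q).filter fun x => nr (chd (rho0 N Q) (gray N x.1) x.2) ∈ m.rays 0 with hS
  have hA : (0:ℝ) ≤ KC * Δ * (N : ℝ) ^ 4 * (Q : ℝ) ^ 4 := by unfold KC; positivity
  have hr8 : rho0 N Q ≤ 1 / 8 := by
    unfold rho0
    refine one_div_le_one_div_of_le (by norm_num) ?_
    nlinarith
  have h64 : DensL 64 N s Δ := hD.mono (by norm_num)
  have h3 := up_count' S (fun x => chd (rho0 N Q) (gray N x.1) x.2) (δ := rho0 N Q)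
    (A := KC * Δ * (N : ℝ) ^ 4 * (Q : ℝ) ^ 4) (m := m) hrho hr8 hA ?_ ?_ ?_ hm ?_ hR.le ?_ hsg ?_
  · rw [hR] at h3
    refine h3.trans (le_of_eq ?_)
    unfold KR
    ring
  · intro x hx
    rw [hS, mem_filter, mem_product] at hx
    show ‖-(gC N x.1)‖ ≤ 3 / 2
    rw [norm_neg]
    exact norm_gC' hN1 (hBd _ hx.1.1)
  · intro x hx
    rw [hS, mem_filter, mem_product] at hx
    obtain ⟨a1, a2, -⟩ := idx_abs1 hN1 hQ hx.1.2
    show ‖gX N x.1 + pv (rho0 N Q) x.2.1‖ ≤ 3 / 2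
    have h8 : 1 / (N : ℝ) ≤ 1 / 8 := one_div_le_one_div_of_le (by norm_num) hN8
    have hb := hBd _ hx.1.1
    obtain ⟨-, -, b1, b2, -⟩ := hb
    have b1' : |(x.1.1.2.1 : ℝ)| ≤ N := by exact_mod_cast b1
    have b2' : |(x.1.1.2.2 : ℝ)| ≤ N := by exact_mod_cast b2
    have e1 : |(gX N x.1) 0| ≤ 1 := by
      show |(x.1.1.2.1 : ℝ) / N| ≤ 1
      rw [abs_div, abs_of_pos hN0, div_le_one hN0]; exact b1'
    have e2 : |(gX N x.1) 1| ≤ 1 := by
      show |(x.1.1.2.2 : ℝ) / N| ≤ 1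
      rw [abs_div, abs_of_pos hN0, div_le_one hN0]; exact b2'
    have f1 : |(gX N x.1 + pv (rho0 N Q) x.2.1) 0| ≤ 65 / 64 := by
      have : (gX N x.1 + pv (rho0 N Q) x.2.1) 0 = (gX N x.1) 0 + pv (rho0 N Q) x.2.1 0 := rfl
      rw [this]
      refine (abs_add_le _ _).trans ?_
      linarith
    have f2 : |(gX N x.1 + pv (rho0 N Q) x.2.1) 1| ≤ 65 / 64 := by
      have : (gX N x.1 + pv (rho0 N Q) x.2.1) 1 = (gX N x.1) 1 + pv (rho0 N Q) x.2.1 1 := rfl
      rw [this]
      refine (abs_add_le _ _).trans ?_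
      linarith
    generalize gX N x.1 + pv (rho0 N Q) x.2.1 = v at f1 f2 ⊢
    have h := CDef480.normsq2 v
    have c1 : v 0 ^ 2 ≤ (65 / 64) ^ 2 := by
      rw [← sq_abs]; exact pow_le_pow_left₀ (abs_nonneg _) f1 2
    have c2 : v 1 ^ 2 ≤ (65 / 64) ^ 2 := by
      rw [← sq_abs]; exact pow_le_pow_left₀ (abs_nonneg _) f2 2
    by_contra hc
    push Not at hc
    nlinarith
  · intro p hp hps1 hpsg
    have h4 := count2 hN1 hQ hBd hΔ h64 hp hps1 hpsg
    refine le_trans (Nat.cast_le.2 (card_le_card fun x hx => ?_)) h4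
    rw [mem_filter, hS, mem_filter] at hx
    rw [mem_filter]
    exact ⟨hx.1.1, hx.2⟩
  · intro z hz
    rw [hs0, hR, add_sub_cancel_right, abs_mul, abs_of_pos (by norm_num : (0:ℝ) < 1 / 4)]
    linarith
  · rw [hR, mul_one]
    linarith
  · intro x hx
    rw [hS, mem_filter] at hx
    exact hx.2

end Crest.Agent.R116.Ene618
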