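import Crest.Agent.R116.Ene5_618

/-!
# R116, K2 (ENEMY) with room (helper79, second hand of 618): raw data of a filled family

Every grid ray `l` has children `f l k`, `k ∈ J0`; the incidences are those of the parent.
-/

set_option autoImplicit false
set_option linter.unusedVariables false

open Finset

namespace Crest.Agent.R116.RmC79

open Crest.Agent.R116.LZg725
open Crest.Agent.R138.Defs (E2)
open Crest.Agent.R116.CDef480 (E3 lat pt vel)
open Crest.Agent.R116.Ks79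
open Crest.Agent.R138.Mk163 (zc alive own)
open Crest.Agent.R116.Ene618 (nr nr_rx nr_ry nr_C topm mem_topm rh ctr rh_mem zc0 zc0_rh zc_rh_inj
  abs_sub_ctr unitm norm_gC norm_gX' abs_gH norm2_le abs_coord_le)

/-! ### the top member -/

/-- two rays which are `2/N`-close at the height `z` (old coordinates). -/
theorem top_mem_gen {N : ℕ} (hN : 1 ≤ N) {r r' : E2 × E2 × ℝ} {z : ℝ} (c1 : ‖r.1‖ ≤ 2)
    (c2 : ‖r'.1‖ ≤ 2) (hx : ‖rx r.1 r.2.1 z - rx r'.1 r'.2.1 z‖ ≤ 2 / N)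
    (hy : |ry r.1 r.2.2 z - ry r'.1 r'.2.2 z| ≤ 2 / N) {R s0 : ℝ}
    (hR : 1 / (16 * (N : ℝ)) ≤ R) (hs0 : |(z * (1 / 4) + 1 / 2) - s0| ≤ R) :
    nr r ∈ (topm R s0 (nr r')).rays 0 := by
  have hN0 : (0 : ℝ) < N := by exact_mod_cast hN
  set w : ℝ := 1 / 4 * z + 1 / 2 with hw
  have hws : |w - s0| ≤ R := by
    have : w = z * (1 / 4) + 1 / 2 := by rw [hw]; ring
    rw [this]; exact hs0
  have hRp : 0 < R := lt_of_lt_of_le (by positivity) hR
  have hR2 : 1 / (N : ℝ) ≤ 16 * R := by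
    have : 1 / (N : ℝ) = 16 * (1 / (16 * (N : ℝ))) := by field_simp
    rw [this]; linarith
  have h2N : 2 / (N : ℝ) = 2 * (1 / N) := by ring
  have hC : ‖(nr r).1 - (nr r').1‖ ≤ 1 / 4 := by
    rw [nr_C, nr_C, ← smul_sub, norm_smul, Real.norm_of_nonneg (by norm_num)]
    have := norm_sub_le r.1 r'.1
    linarith
  have hC' : ‖(nr r').1‖ ≤ 1 / 8 := by
    rw [nr_C, norm_smul, Real.norm_of_nonneg (by norm_num)]
    linarith
  have x0 : ‖rx (nr r).1 (nr r).2.1 w - rx (nr r').1 (nr r').2.1 w‖ ≤ R / 2 := by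
    rw [hw, nr_rx, nr_rx, ← smul_sub, norm_smul, Real.norm_of_nonneg (by norm_num)]
    linarith
  have y0 : |ry (nr r).1 (nr r).2.2 w - ry (nr r').1 (nr r').2.2 w| ≤ R / 32 := by
    rw [hw, nr_ry, nr_ry, ← mul_sub, abs_mul, abs_of_pos (by norm_num : (0:ℝ) < 1 / 1024)]
    linarith
  have hd : ∀ s : ℝ, |s - s0| ≤ R → |s - w| ≤ 2 * R := by
    intro s hs
    rw [abs_le] at hs hws ⊢
    constructor <;> linarith [hs.1, hs.2, hws.1, hws.2]
  refine mem_topm (by linarith) ?_ ?_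
  · intro s hs
    have e : rx (nr r).1 (nr r).2.1 s - rx (nr r').1 (nr r').2.1 s =
        (rx (nr r).1 (nr r).2.1 w - rx (nr r').1 (nr r').2.1 w) - (s - w) • ((nr r).1 - (nr r').1) := by
      unfold rx; module
    rw [e]
    refine (norm_sub_le _ _).trans ?_
    rw [norm_smul, Real.norm_eq_abs]
    have := mul_le_mul (hd s hs) hC (norm_nonneg _) (by linarith)
    linarith
  · intro s hs
    rw [nrm_ray']
    have e1 := nrm_ray' (nr r').1 (nr r).1 (nr r).2.1 (nr r).2.2 w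
    have e2 := nrm_ray (nr r').1 (nr r').2.1 (nr r').2.2 w
    have e3 : (nr r).2.2 + inner ℝ (nr r').1 (nr r).2.1 + s * ‖(nr r).1 - (nr r').1‖ ^ 2 / 2 -
        ((nr r').2.2 + inner ℝ (nr r').1 (nr r').2.1) =
        (ry (nr r).1 (nr r).2.2 w - ry (nr r').1 (nr r').2.2 w) +
        inner ℝ (nr r').1 (rx (nr r).1 (nr r).2.1 w - rx (nr r').1 (nr r').2.1 w) +
        (s - w) * (‖(nr r).1 - (nr r').1‖ ^ 2 / 2) := by
      rw [← e2]
      have e4 : (nr r).2.2 + inner ℝ (nr r').1 (nr r).2.1 + s * ‖(nr r).1 - (nr r').1‖ ^ 2 / 2 =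
          nrm (nr r').1 (rx (nr r).1 (nr r).2.1 w) (ry (nr r).1 (nr r).2.2 w) w +
          (s - w) * (‖(nr r).1 - (nr r').1‖ ^ 2 / 2) := by
        rw [e1]; ring
      rw [e4]
      unfold nrm
      rw [inner_sub_right]
      ring
    rw [e3]
    refine (abs_add_le _ _).trans ?_
    have f1 : |inner ℝ (nr r').1 (rx (nr r).1 (nr r).2.1 w - rx (nr r').1 (nr r').2.1 w)| ≤
        1 / 8 * (R / 2) :=
      (abs_real_inner_le_norm _ _).trans (mul_le_mul hC' x0 (norm_nonneg _) (by norm_num))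
    have f2 : |(s - w) * (‖(nr r).1 - (nr r').1‖ ^ 2 / 2)| ≤ 2 * R * ((1 / 4) ^ 2 / 2) := by
      rw [abs_mul, abs_of_nonneg (a := ‖(nr r).1 - (nr r').1‖ ^ 2 / 2) (by positivity)]
      have h5 : ‖(nr r).1 - (nr r').1‖ ^ 2 ≤ (1 / 4) ^ 2 := pow_le_pow_left₀ (norm_nonneg _) hC 2
      exact mul_le_mul (hd s hs) (by linarith) (by positivity) (by linarith)
    have f3 := abs_add_le (ry (nr r).1 (nr r).2.2 w - ry (nr r').1 (nr r').2.2 w)
      (inner ℝ (nr r').1 (rx (nr r).1 (nr r).2.1 w - rx (nr r').1 (nr r').2.1 w))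
    linarith

/-! ### generic raw data -/

variable {κ : Type} [Encodable κ]

/-- number of a child. -/
def codeG (x : GRay × κ) : ℕ := Encodable.encode x

theorem codeG_inj {x y : GRay × κ} (h : codeG x = codeG y) : x = y :=
  Encodable.encode_injective h

/-- the line of a number. -/
noncomputable def linG (f : GRay → κ → E2 × E2 × ℝ) (n : ℕ) : E2 × E2 × ℝ :=
  match (Encodable.decode n : Option (GRay × κ)) with
  | some x => nr (f x.1 x.2)
  | none => (0, 0, 0)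

theorem linG_code (f : GRay → κ → E2 × E2 × ℝ) (x : GRay × κ) :
    linG f (codeG x) = nr (f x.1 x.2) := by
  unfold linG codeG
  rw [Encodable.encodek]

open Classical in
/-- the class of a line over a cell of level `M`. -/
noncomputable def clsG (κ : Type) [Encodable κ] (N M : ℕ) (t : ℕ) (J : ℤ) : ℕ :=
  if h : ∃ y : (GRay × κ) × ℤ, codeG y.1 = t ∧ zc M (rh N y.2) = J then
    Encodable.encode (keyL N (h.choose.1.1, h.choose.2)) else 0

theorem clsG_code {N M : ℕ} (hN : 1 ≤ N) (hM : 4 * N ≤ 2 ^ M) (x : GRay × κ) (h : ℤ) :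
    clsG κ N M (codeG x) (zc M (rh N h)) = Encodable.encode (keyL N (x.1, h)) := by
  have hex : ∃ y : (GRay × κ) × ℤ, codeG y.1 = codeG x ∧ zc M (rh N y.2) = zc M (rh N h) :=
    ⟨(x, h), rfl, rfl⟩
  unfold clsG
  rw [dif_pos hex]
  have h1 := codeG_inj hex.choose_spec.1
  have h2 := zc_rh_inj hN hM hex.choose_spec.2
  rw [h1, h2]

open Classical in
/-- test set of a class. -/
noncomputable def tstG (f : GRay → κ → E2 × E2 × ℝ) (k0 : κ) (N M : ℕ) (I : Finset (GRay × ℤ))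
    (c : ℕ) : Mem :=
  if h : ∃ y ∈ I, Encodable.encode (keyL N y) = c then
    topm (1 / 2 ^ M) (ctr M (zc M (rh N h.choose.2))) (nr (f h.choose.1 k0))
  else unitm

theorem tstG_eq (f : GRay → κ → E2 × E2 × ℝ) (k0 : κ) {N : ℕ} (M : ℕ) {I : Finset (GRay × ℤ)}
    {x : GRay × ℤ} (hx : x ∈ I) :
    ∃ y ∈ I, keyL N y = keyL N x ∧ tstG f k0 N M I (Encodable.encode (keyL N x)) =
      topm (1 / 2 ^ M) (ctr M (zc M (rh N x.2))) (nr (f y.1 k0)) := by
  have hex : ∃ y ∈ I, Encodable.encode (keyL N y) = Encodable.encode (keyL N x) := ⟨x, hx, rfl⟩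
  have hk : keyL N hex.choose = keyL N x := Encodable.encode_injective hex.choose_spec.2
  have h2 : hex.choose.2 = x.2 := by
    have := congrArg Prod.snd hk; simpa [keyL] using this
  refine ⟨hex.choose, hex.choose_spec.1, hk, ?_⟩
  unfold tstG
  rw [dif_pos hex, h2]

/-- the incidences of the configuration. -/
noncomputable def incG (N : ℕ) (x : (GRay × ℤ) × κ) : ℕ × ℝ := (codeG (x.1.1, x.2), rh N x.1.2)

theorem incG_inj {N : ℕ} (hN : 1 ≤ N) : Function.Injective (incG (κ := κ) N) := by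
  intro x y h
  unfold incG at h
  rw [Prod.mk.injEq] at h
  have h1 := codeG_inj h.1
  rw [Prod.mk.injEq] at h1
  have h2 : x.1.2 = y.1.2 := by
    refine zc_rh_inj hN (M := 4 * N) ?_ (by rw [h.2])
    exact (Nat.lt_pow_self (by norm_num)).le
  exact Prod.ext (Prod.ext h1.1 h2) h1.2

open Classical in
/-- the set of incidences. -/
noncomputable def incsG (N : ℕ) (J0 : Finset κ) (I : Finset (GRay × ℤ)) : Finset (ℕ × ℝ) :=
  (I ×ˢ J0).image (incG N)

section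

variable {N M : ℕ} {J0 : Finset κ} {f : GRay → κ → E2 × E2 × ℝ} {k0 : κ}
  {s : Finset GRay} {I : Finset (GRay × ℤ)} {Δ μ ν : ℝ}

theorem mem_incsG {x : ℕ × ℝ} : x ∈ incsG N J0 I ↔ ∃ l h k, (l, h) ∈ I ∧ k ∈ J0 ∧
    x = (codeG (l, k), rh N h) := by
  classical
  unfold incsG incG
  simp only [mem_image, mem_product]
  constructor
  · rintro ⟨⟨⟨l, h⟩, k⟩, ⟨h1, h2⟩, rfl⟩
    exact ⟨l, h, k, h1, h2, rfl⟩
  · rintro ⟨l, h, k, h1, h2, rfl⟩
    exact ⟨⟨⟨l, h⟩, k⟩, ⟨h1, h2⟩, rfl⟩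

theorem incsG_card (hN : 1 ≤ N) : (incsG N J0 I).card = I.card * J0.card := by
  classical
  unfold incsG
  rw [card_image_of_injective _ (incG_inj hN), card_product]

theorem mem_aliveG {i : ℕ} {J : ℤ} {t : ℕ} : t ∈ alive (incsG N J0 I) i J ↔
    ∃ l h k, (l, h) ∈ I ∧ k ∈ J0 ∧ zc i (rh N h) = J ∧ t = codeG (l, k) := by
  classical
  unfold alive
  rw [mem_image]
  constructor
  · rintro ⟨x, hx, rfl⟩
    rw [mem_filter, mem_incsG] at hx
    obtain ⟨⟨l, h, k, h1, h2, rfl⟩, h4⟩ := hx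
    exact ⟨l, h, k, h1, h2, h4, rfl⟩
  · rintro ⟨l, h, k, h1, h2, h4, rfl⟩
    exact ⟨(codeG (l, k), rh N h), mem_filter.2 ⟨mem_incsG.2 ⟨l, h, k, h1, h2, rfl⟩, h4⟩, rfl⟩

/-- the top classes -/
theorem raw_topG (hN : 1 ≤ N) (hM : 4 * N ≤ 2 ^ M) (hM' : 2 ^ M ≤ 16 * N) (hk0 : k0 ∈ J0)
    (hC : ∀ l k, Bd N l → k ∈ J0 → ‖(f l k).1‖ ≤ 2)
    (hx : ∀ l l' k k' h, Bd N l → Bd N l' → k ∈ J0 → k' ∈ J0 → cell N l h = cell N l' h →
      ‖rx (f l k).1 (f l k).2.1 ((h : ℝ) / N) - rx (f l' k').1 (f l' k').2.1 ((h : ℝ) / N)‖ ≤ 2 / N)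
    (hy : ∀ l l' k k' h, Bd N l → Bd N l' → k ∈ J0 → k' ∈ J0 → cell N l h = cell N l' h →
      |ry (f l k).1 (f l k).2.2 ((h : ℝ) / N) - ry (f l' k').1 (f l' k').2.2 ((h : ℝ) / N)| ≤ 2 / N)
    (hBd : ∀ x ∈ I, Bd N x.1) {J : ℤ} {t : ℕ} (ht : t ∈ alive (incsG N J0 I) M J) :
    ∃ r, tstG f k0 N M I (clsG κ N M t J) = topm (1 / 2 ^ M) (ctr M J) r ∧
      linG f t ∈ (tstG f k0 N M I (clsG κ N M t J)).rays 0 := by
  obtain ⟨l, h, k, h1, h2, h4, rfl⟩ := mem_aliveG.1 ht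
  rw [← h4, clsG_code hN hM]
  obtain ⟨y, hyI, hk, he⟩ := tstG_eq f k0 (N := N) M h1
  refine ⟨nr (f y.1 k0), he, ?_⟩
  rw [he, linG_code]
  have hN0 : (0:ℝ) < N := by exact_mod_cast hN
  have hk2 : y.2 = h := by
    have := congrArg Prod.snd hk; simpa [keyL] using this
  have hk1 : cell N l h = cell N y.1 h := by
    have := congrArg Prod.fst hk
    simp only [keyL] at this
    rw [← this, hk2]
  refine top_mem_gen hN (hC _ _ (hBd _ h1) h2) (hC _ _ (hBd _ hyI) hk0)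
    (hx _ _ _ _ h (hBd _ h1) (hBd _ hyI) h2 hk0 hk1)
    (hy _ _ _ _ h (hBd _ h1) (hBd _ hyI) h2 hk0 hk1) ?_ ?_
  · have hp : (0:ℝ) < 2 ^ M := by positivity
    have hMr' : (2:ℝ) ^ M ≤ 16 * N := by
      have : ((2 ^ M : ℕ) : ℝ) ≤ ((16 * N : ℕ) : ℝ) := by exact_mod_cast hM'
      push_cast at this; exact this
    exact one_div_le_one_div_of_le hp hMr'
  · exact abs_sub_ctr M (rh N h)

open Classical in
/-- number of lines of a class -/
theorem raw_lowG (hN : 1 ≤ N) (hM : 4 * N ≤ 2 ^ M)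
    (hmul : ∀ x ∈ I, μ ≤ ((I.filter (fun y => keyL N y = keyL N x)).card : ℝ))
    {J : ℤ} {t : ℕ} (ht : t ∈ alive (incsG N J0 I) M J) :
    μ * (J0.card : ℝ) ≤
      (((alive (incsG N J0 I) M J).filter fun s => clsG κ N M s J = clsG κ N M t J).card : ℝ) := by
  obtain ⟨l, h, k, h1, h2, h4, rfl⟩ := mem_aliveG.1 ht
  have hcard : (I.filter (fun y => keyL N y = keyL N (l, h))).card * J0.card ≤
      ((alive (incsG N J0 I) M J).filter fun s =>
        clsG κ N M s J = clsG κ N M (codeG (l, k)) J).card := by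
    have e : ((I.filter (fun y => keyL N y = keyL N (l, h))) ×ˢ J0).card =
        (I.filter (fun y => keyL N y = keyL N (l, h))).card * J0.card := by
      rw [card_product]
    rw [← e]
    refine card_le_card_of_injOn (fun z : (GRay × ℤ) × κ => codeG (z.1.1, z.2)) ?_ ?_
    · intro z hz
      rw [mem_coe, mem_product, mem_filter] at hz
      obtain ⟨⟨hz1, hz2⟩, hz3⟩ := hz
      have hk2 : z.1.2 = h := by
        have := congrArg Prod.snd hz2; simpa [keyL] using this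
      rw [mem_coe, mem_filter]
      refine ⟨mem_aliveG.2 ⟨z.1.1, z.1.2, z.2, hz1, hz3, by rw [hk2]; exact h4, rfl⟩, ?_⟩
      show clsG κ N M (codeG (z.1.1, z.2)) J = clsG κ N M (codeG (l, k)) J
      rw [← h4, clsG_code hN hM, clsG_code hN hM]
      rw [← hz2]
      show Encodable.encode (keyL N (z.1.1, h)) = Encodable.encode (keyL N z.1)
      rw [← hk2]
    · intro z hz z' hz' hzz
      rw [mem_coe, mem_product, mem_filter] at hz hz'
      have hk2 : z.1.2 = h := by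
        have := congrArg Prod.snd hz.1.2; simpa [keyL] using this
      have hk2' : z'.1.2 = h := by
        have := congrArg Prod.snd hz'.1.2; simpa [keyL] using this
      have h5 := codeG_inj hzz
      rw [Prod.mk.injEq] at h5
      exact Prod.ext (Prod.ext h5.1 (hk2.trans hk2'.symm)) h5.2
  have h6 := hmul _ h1
  have hN0 : (0:ℝ) ≤ (J0.card : ℝ) := by positivity
  calc μ * (J0.card : ℝ) ≤
        ((I.filter (fun y => keyL N y = keyL N (l, h))).card : ℝ) * (J0.card : ℝ) :=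
        mul_le_mul_of_nonneg_right h6 hN0
    _ ≤ _ := by exact_mod_cast hcard

open Classical in
/-- own counts -/
theorem raw_ownG (hN : 1 ≤ N) (hM : 4 * N ≤ 2 ^ M) (hI : ∀ x ∈ I, |x.2| ≤ (N : ℤ))
    (hown : ∀ x ∈ I, ν ≤ ((I.filter (fun y => y.1 = x.1)).card : ℝ))
    {x : ℕ × ℝ} (hx : x ∈ incsG N J0 I) : ν ≤ ((own (incsG N J0 I) 0 M x).card : ℝ) := by
  obtain ⟨l, h, k, h1, h2, rfl⟩ := mem_incsG.1 hx
  refine (hown _ h1).trans (Nat.cast_le.2 ?_)
  unfold own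
  refine card_le_card_of_injOn (fun y : GRay × ℤ => zc M (rh N y.2)) ?_ ?_
  · intro y hy
    rw [mem_coe, mem_filter] at hy
    rw [mem_coe, mem_image]
    refine ⟨(codeG (l, k), rh N y.2), ?_, rfl⟩
    rw [mem_filter]
    refine ⟨mem_incsG.2 ⟨l, y.2, k, ?_, h2, rfl⟩, rfl, ?_⟩
    · have : (l, y.2) = y := Prod.ext hy.2.symm rfl
      rw [this]; exact hy.1
    · show zc 0 (rh N y.2) = zc 0 (rh N h)
      rw [zc0_rh hN (hI _ hy.1), zc0_rh hN (hI _ h1)]
  · intro y hy y' hy' hyy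
    rw [mem_coe, mem_filter] at hy hy'
    exact Prod.ext (hy.2.trans hy'.2.symm) (zc_rh_inj hN hM hyy)

open Classical in
/-- the level-`0` count is a count of children. -/
theorem raw_upG (hI : ∀ x ∈ I, x.1 ∈ s) {m : Mem} {J : ℤ} :
    ((alive (incsG N J0 I) 0 J).filter fun t => linG f t ∈ m.rays 0).card ≤
      ((s ×ˢ J0).filter fun x => nr (f x.1 x.2) ∈ m.rays 0).card := by
  have h2 : ((alive (incsG N J0 I) 0 J).filter fun t => linG f t ∈ m.rays 0) ⊆
      ((s ×ˢ J0).filter fun x => nr (f x.1 x.2) ∈ m.rays 0).image codeG := by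
    intro t ht
    rw [mem_filter] at ht
    obtain ⟨ht1, ht2⟩ := ht
    obtain ⟨l, h, k, a1, a2, a4, rfl⟩ := mem_aliveG.1 ht1
    rw [mem_image]
    refine ⟨(l, k), ?_, rfl⟩
    rw [mem_filter, mem_product]
    rw [linG_code] at ht2
    exact ⟨⟨hI (l, h) a1, a2⟩, ht2⟩
  exact (card_le_card h2).trans card_image_le

theorem alive_zeroG (hN : 1 ≤ N) (hI : ∀ x ∈ I, |x.2| ≤ (N : ℤ)) {J : ℤ} (hJ : J ≠ 0) :
    alive (incsG N J0 I) 0 J = ∅ := by
  apply Finset.eq_empty_of_forall_notMem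
  intro t ht
  obtain ⟨l, h, k, h1, h2, h4, rfl⟩ := mem_aliveG.1 ht
  apply hJ
  rw [← h4]
  exact zc0_rh hN (hI _ h1)

end

end Crest.Agent.R116.RmC79
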