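import Crest.Agent.R116.Rm5_618
import Crest.Agent.R116.RmC_79
import Crest.Agent.R116.Ene6_618
import Crest.Agent.R116.RmDef_635
import Crest.Agent.R116.Yb2_635

/-!
# R116, K2 (ENEMY with room), part 6 (helper618): the configurations

`exists_cfg5` (five coordinates, `Q = 2^(K0 M)`), `enemy2_of` : `Count5 K`, `¬ LKMseq 68` ⟹
`∃ b0 > 0, ∀ K0, EnemyAt2 (TSK K0) b0`.
-/

set_option autoImplicit false
set_option linter.unusedVariables false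

open Finset Filter Topology

namespace Crest.Agent.R116.Ene618

open Crest.Agent.R116.LZg725
open Crest.Agent.R138.Defs (E2)
open Crest.Agent.R116.Ks79
open Crest.Agent.R138.Mk163 (zc alive own)
open Crest.Agent.R138.Ex926 (Base U)
open Crest.Agent.R116.KI439 (kM0 AdmL volL TSL TSS)
open Crest.Agent.R116.Xa794 (TS)
open Crest.Agent.R116.Xc794 (Cfg capP cut)
open Crest.Agent.R116.RmC79
open Crest.Agent.R116.Rm635 (TSK)
open Crest.Agent.R116.Yb2635 (EnemyAt2)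

/-! ### top classes -/

section

variable {κ : Type} [Encodable κ]
variable {N M : ℕ} {J0 : Finset κ} {f : GRay → κ → E2 × E2 × ℝ} {k0 : κ}
  {s : Finset GRay} {I : Finset (GRay × ℤ)} {Δ μ ν : ℝ}

/-- the top classes (heights at most `N`) -/
theorem raw_topH (hN : 1 ≤ N) (hM : 4 * N ≤ 2 ^ M) (hM' : 2 ^ M ≤ 16 * N) (hk0 : k0 ∈ J0)
    (hC : ∀ l k, Bd N l → k ∈ J0 → ‖(f l k).1‖ ≤ 2)
    (hx : ∀ l l' k k' (h : ℤ), Bd N l → Bd N l' → |h| ≤ (N : ℤ) → k ∈ J0 → k' ∈ J0 →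
      cell N l h = cell N l' h →
      ‖rx (f l k).1 (f l k).2.1 ((h : ℝ) / N) - rx (f l' k').1 (f l' k').2.1 ((h : ℝ) / N)‖ ≤ 2 / N)
    (hy : ∀ l l' k k' (h : ℤ), Bd N l → Bd N l' → |h| ≤ (N : ℤ) → k ∈ J0 → k' ∈ J0 →
      cell N l h = cell N l' h →
      |ry (f l k).1 (f l k).2.2 ((h : ℝ) / N) - ry (f l' k').1 (f l' k').2.2 ((h : ℝ) / N)| ≤ 2 / N)
    (hBd : ∀ x ∈ I, Bd N x.1) (hI : ∀ x ∈ I, |x.2| ≤ (N : ℤ)) {J : ℤ} {t : ℕ}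
    (ht : t ∈ alive (incsG N J0 I) M J) :
    ∃ r, tstG f k0 N M I (clsG κ N M t J) = topm (1 / 2 ^ M) (ctr M J) r ∧
      linG f t ∈ (tstG f k0 N M I (clsG κ N M t J)).rays 0 := by
  obtain ⟨l, h, k, h1, h2, h4, rfl⟩ := mem_aliveG.1 ht
  rw [← h4, clsG_code hN hM]
  obtain ⟨y, hyI, hk, he⟩ := tstG_eq f k0 (N := N) M h1
  refine ⟨nr (f y.1 k0), he, ?_⟩
  rw [he, linG_code]
  have hN0 : (0:ℝ) < N := by exact_mod_cast hN
  have hk2 : y.2 = h := by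
    have := congrArg Prod.snd hk; simpa [keyL] using this
  have hk1 : cell N l h = cell N y.1 h := by
    have := congrArg Prod.fst hk
    simp only [keyL] at this
    rw [← this, hk2]
  refine top_mem_gen hN (hC _ _ (hBd _ h1) h2) (hC _ _ (hBd _ hyI) hk0)
    (hx _ _ _ _ h (hBd _ h1) (hBd _ hyI) (hI _ h1) h2 hk0 hk1)
    (hy _ _ _ _ h (hBd _ h1) (hBd _ hyI) (hI _ h1) h2 hk0 hk1) ?_ ?_
  · have hp : (0:ℝ) < 2 ^ M := by positivity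
    have hMr' : (2:ℝ) ^ M ≤ 16 * N := by
      have : ((2 ^ M : ℕ) : ℝ) ≤ ((16 * N : ℕ) : ℝ) := by exact_mod_cast hM'
      push_cast at this; exact this
    exact one_div_le_one_div_of_le hp hMr'
  · exact abs_sub_ctr M (rh N h)

end

/-! ### geometry of the children -/

section

variable {N Q : ℕ}

theorem abs_diff_le {a b c : ℝ} (h1 : 0 ≤ a) (h2 : a ≤ c) (h3 : 0 ≤ b) (h4 : b ≤ c) :
    |a - b| ≤ c := by rw [abs_le]; constructor <;> linarith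

theorem abs_height (hN : 1 ≤ N) {h : ℤ} (hh : |h| ≤ (N : ℤ)) : |(h : ℝ) / N| ≤ 1 := by
  have hN0 : (0 : ℝ) < N := by exact_mod_cast hN
  have h1 : |(h : ℝ)| ≤ N := by exact_mod_cast hh
  rw [abs_div, abs_of_pos hN0, div_le_one hN0]
  exact h1

theorem idx_null (hN : 1 ≤ N) (hQ : 1 ≤ Q) {x : (ℤ × ℤ) × ℤ} (hx : x ∈ idx N Q) :
    0 ≤ (x.2 : ℝ) * rho0 N Q ^ 2 ∧ (x.2 : ℝ) * rho0 N Q ^ 2 ≤ 1 / (N : ℝ) / 8 := by
  obtain ⟨-, -, ⟨c1, c2⟩⟩ := mem_idx hx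
  have c1' : (0:ℝ) ≤ x.2 := by exact_mod_cast c1
  have c2' : (x.2 : ℝ) ≤ 8 * N * Q ^ 2 := by exact_mod_cast c2.le
  rw [← rho0_sq hN hQ]
  exact ⟨mul_nonneg c1' (sq_nonneg _), mul_le_mul_of_nonneg_right c2' (sq_nonneg _)⟩

/-- lateral distance of two children of one cell. -/
theorem chd5_lat (hN : 1 ≤ N) (hQ : 1 ≤ Q) {l l' : GRay} {h : ℤ} (hh : |h| ≤ (N : ℤ))
    (hc : cell N l h = cell N l' h) {y y' : (ℤ × ℤ) × ((ℤ × ℤ) × ℤ)} (hy : y ∈ idx5 N Q)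
    (hy' : y' ∈ idx5 N Q) :
    ‖rx (chd5 (rho0 N Q) (gray N l) y).1 (chd5 (rho0 N Q) (gray N l) y).2.1 ((h : ℝ) / N) -
      rx (chd5 (rho0 N Q) (gray N l') y').1 (chd5 (rho0 N Q) (gray N l') y').2.1 ((h : ℝ) / N)‖ ≤
      2 / N := by
  have hN0 : (0 : ℝ) < N := by exact_mod_cast hN
  have hz := abs_height hN hh
  unfold cell at hc
  rw [Prod.mk.injEq, Prod.mk.injEq] at hc
  obtain ⟨⟨h1, h2⟩, -⟩ := hc
  have h1' := (Int.abs_sub_lt_one_of_floor_eq_floor h1).le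
  have h2' := (Int.abs_sub_lt_one_of_floor_eq_floor h2).le
  have key : ∀ (A u v c c' p p' : ℝ), A = (1 / N) * u → |u| ≤ 1 → |p - p'| ≤ 1 / (N : ℝ) / 8 →
      |c - c'| ≤ 1 / (N : ℝ) / 8 → v = A + (p - p') - (h : ℝ) / N * (c - c') →
      |v| ≤ 5 / 4 * (1 / N) := by
    intro A u v c c' p p' hA hu hp hcc hv
    have e1 : |A| ≤ 1 / N := by
      rw [hA, abs_mul, abs_of_pos (by positivity : (0:ℝ) < 1 / N)]
      calc 1 / (N : ℝ) * |u| ≤ 1 / N * 1 := by gcongr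
        _ = 1 / N := mul_one _
    have e2 : |(h : ℝ) / N * (c - c')| ≤ 1 * (1 / (N : ℝ) / 8) := by
      rw [abs_mul]
      exact mul_le_mul hz hcc (abs_nonneg _) zero_le_one
    rw [hv]
    rw [abs_le] at e1 e2 hp ⊢
    constructor <;> linarith [e1.1, e1.2, e2.1, e2.2, hp.1, hp.2]
  have hc0 := idx5_abs hN hQ hy 0
  have hc1 := idx5_abs hN hQ hy 1
  have hc0' := idx5_abs hN hQ hy' 0
  have hc1' := idx5_abs hN hQ hy' 1
  have hp0 := idx_abs hN hQ (mem_idx5 hy).2.2 0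
  have hp1 := idx_abs hN hQ (mem_idx5 hy).2.2 1
  have hp0' := idx_abs hN hQ (mem_idx5 hy').2.2 0
  have hp1' := idx_abs hN hQ (mem_idx5 hy').2.2 1
  refine norm_le_of_coord (b := 5 / 4 * (1 / N)) ?_ ?_ (by positivity) ?_
  · refine key ((1 / N) * (((l.1.2.1 : ℝ) + l.1.1.1 * (h : ℝ) / N) -
        ((l'.1.2.1 : ℝ) + l'.1.1.1 * (h : ℝ) / N))) _ _ (pv (rho0 N Q) y.1 0)
        (pv (rho0 N Q) y'.1 0) (pv (rho0 N Q) y.2.1 0) (pv (rho0 N Q) y'.2.1 0) rfl h1'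
        (abs_diff_le hp0.1 hp0.2 hp0'.1 hp0'.2) (abs_diff_le hc0.1 hc0.2 hc0'.1 hc0'.2) ?_
    have e : ∀ (l : GRay) (y : (ℤ × ℤ) × ((ℤ × ℤ) × ℤ)),
        (rx (chd5 (rho0 N Q) (gray N l) y).1 (chd5 (rho0 N Q) (gray N l) y).2.1
          ((h : ℝ) / N)) 0 = ((l.1.2.1 : ℝ) / N + pv (rho0 N Q) y.2.1 0) -
          (h : ℝ) / N * (-((l.1.1.1 : ℝ) / N) + pv (rho0 N Q) y.1 0) := fun l y => rfl
    rw [PiLp.sub_apply, e, e]
    field_simp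
    ring
  · refine key ((1 / N) * (((l.1.2.2 : ℝ) + l.1.1.2 * (h : ℝ) / N) -
        ((l'.1.2.2 : ℝ) + l'.1.1.2 * (h : ℝ) / N))) _ _ (pv (rho0 N Q) y.1 1)
        (pv (rho0 N Q) y'.1 1) (pv (rho0 N Q) y.2.1 1) (pv (rho0 N Q) y'.2.1 1) rfl h2'
        (abs_diff_le hp1.1 hp1.2 hp1'.1 hp1'.2) (abs_diff_le hc1.1 hc1.2 hc1'.1 hc1'.2) ?_
    have e : ∀ (l : GRay) (y : (ℤ × ℤ) × ((ℤ × ℤ) × ℤ)),
        (rx (chd5 (rho0 N Q) (gray N l) y).1 (chd5 (rho0 N Q) (gray N l) y).2.1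
          ((h : ℝ) / N)) 1 = ((l.1.2.2 : ℝ) / N + pv (rho0 N Q) y.2.1 1) -
          (h : ℝ) / N * (-((l.1.1.2 : ℝ) / N) + pv (rho0 N Q) y.1 1) := fun l y => rfl
    rw [PiLp.sub_apply, e, e]
    field_simp
    ring
  · have : 0 ≤ (1 / (N : ℝ)) ^ 2 := by positivity
    have e : (2 / (N : ℝ)) ^ 2 = 4 * (1 / (N : ℝ)) ^ 2 := by ring
    rw [e, mul_pow]
    nlinarith

/-- null distance of two children of one cell. -/
theorem chd5_null (hN : 1 ≤ N) (hQ : 1 ≤ Q) {l l' : GRay} (hl : Bd N l) (hl' : Bd N l') {h : ℤ}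
    (hh : |h| ≤ (N : ℤ))
    (hc : cell N l h = cell N l' h) {y y' : (ℤ × ℤ) × ((ℤ × ℤ) × ℤ)} (hy : y ∈ idx5 N Q)
    (hy' : y' ∈ idx5 N Q) :
    |ry (chd5 (rho0 N Q) (gray N l) y).1 (chd5 (rho0 N Q) (gray N l) y).2.2 ((h : ℝ) / N) -
      ry (chd5 (rho0 N Q) (gray N l') y').1 (chd5 (rho0 N Q) (gray N l') y').2.2 ((h : ℝ) / N)| ≤
      2 / N := by
  have hN0 : (0 : ℝ) < N := by exact_mod_cast hN
  have hN1 : (1 : ℝ) ≤ N := by exact_mod_cast hN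
  have hz := abs_height hN hh
  unfold cell at hc
  rw [Prod.mk.injEq, Prod.mk.injEq] at hc
  obtain ⟨-, h3⟩ := hc
  have h3' := (Int.abs_sub_lt_one_of_floor_eq_floor h3).le
  have hu0 : (0:ℝ) < 1 / N := by positivity
  have hu1 : 1 / (N : ℝ) ≤ 1 := by rw [div_le_one hN0]; exact hN1
  -- the error of the square of the slope
  have hE : ∀ (a c : ℝ), |a| ≤ 1 → 0 ≤ c → c ≤ 1 / (N : ℝ) / 8 →
      |c * (c - 2 * a)| ≤ 17 / 64 * (1 / N) := by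
    intro a c ha hc hc'
    rw [abs_mul, abs_of_nonneg hc]
    have e1 : |c - 2 * a| ≤ 17 / 8 := by
      rw [abs_le] at ha ⊢
      constructor <;> linarith [ha.1, ha.2]
    calc c * |c - 2 * a| ≤ (1 / (N : ℝ) / 8) * (17 / 8) := by gcongr
      _ = 17 / 64 * (1 / N) := by ring
  have hd : ∀ t : ℤ, |t| ≤ (N : ℤ) → |(t : ℝ) / N| ≤ 1 := fun t ht => abs_height hN ht
  have hc0 := idx5_abs hN hQ hy 0
  have hc1 := idx5_abs hN hQ hy 1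
  have hc0' := idx5_abs hN hQ hy' 0
  have hc1' := idx5_abs hN hQ hy' 1
  have hn := idx_null hN hQ (mem_idx5 hy).2.2
  have hn' := idx_null hN hQ (mem_idx5 hy').2.2
  obtain ⟨a1, a2, -, -, -⟩ := hl
  obtain ⟨a1', a2', -, -, -⟩ := hl'
  have E1 := hE _ _ (hd _ a1) hc0.1 hc0.2
  have E2' := hE _ _ (hd _ a2) hc1.1 hc1.2
  have E3' := hE _ _ (hd _ a1') hc0'.1 hc0'.2
  have E4 := hE _ _ (hd _ a2') hc1'.1 hc1'.2
  have en : ∀ (l : GRay) (y : (ℤ × ℤ) × ((ℤ × ℤ) × ℤ)),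
      ‖(chd5 (rho0 N Q) (gray N l) y).1‖ ^ 2 =
      (-((l.1.1.1 : ℝ) / N) + pv (rho0 N Q) y.1 0) ^ 2 +
        (-((l.1.1.2 : ℝ) / N) + pv (rho0 N Q) y.1 1) ^ 2 := by
    intro l y
    rw [CDef480.normsq2]
    rfl
  have er : ∀ (l : GRay) (y : (ℤ × ℤ) × ((ℤ × ℤ) × ℤ)),
      ry (chd5 (rho0 N Q) (gray N l) y).1 (chd5 (rho0 N Q) (gray N l) y).2.2 ((h : ℝ) / N) =
      ((l.2 : ℝ) / N + (y.2.2 : ℝ) * rho0 N Q ^ 2) + (h : ℝ) / N *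
        ((-((l.1.1.1 : ℝ) / N) + pv (rho0 N Q) y.1 0) ^ 2 +
        (-((l.1.1.2 : ℝ) / N) + pv (rho0 N Q) y.1 1) ^ 2) / 2 := by
    intro l y
    rw [← en]
    rfl
  rw [er, er]
  set c0 := pv (rho0 N Q) y.1 0
  set c1 := pv (rho0 N Q) y.1 1
  set c0' := pv (rho0 N Q) y'.1 0
  set c1' := pv (rho0 N Q) y'.1 1
  set t := (y.2.2 : ℝ) * rho0 N Q ^ 2
  set t' := (y'.2.2 : ℝ) * rho0 N Q ^ 2
  set u : ℝ := ((l.2 : ℝ) + ((l.1.1.1 : ℝ) ^ 2 + (l.1.1.2 : ℝ) ^ 2) * (h : ℝ) / (2 * (N : ℝ) ^ 2)) -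
      ((l'.2 : ℝ) + ((l'.1.1.1 : ℝ) ^ 2 + (l'.1.1.2 : ℝ) ^ 2) * (h : ℝ) / (2 * (N : ℝ) ^ 2)) with hu
  have e : ((l.2 : ℝ) / N + t) + (h : ℝ) / N *
        ((-((l.1.1.1 : ℝ) / N) + c0) ^ 2 + (-((l.1.1.2 : ℝ) / N) + c1) ^ 2) / 2 -
      (((l'.2 : ℝ) / N + t') + (h : ℝ) / N *
        ((-((l'.1.1.1 : ℝ) / N) + c0') ^ 2 + (-((l'.1.1.2 : ℝ) / N) + c1') ^ 2) / 2) =
      (1 / N) * u + (t - t') + (h : ℝ) / N / 2 *
        (c0 * (c0 - 2 * ((l.1.1.1 : ℝ) / N)) + c1 * (c1 - 2 * ((l.1.1.2 : ℝ) / N)) -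
          c0' * (c0' - 2 * ((l'.1.1.1 : ℝ) / N)) - c1' * (c1' - 2 * ((l'.1.1.2 : ℝ) / N))) := by
    rw [hu]
    field_simp
    ring
  rw [e]
  have f1 : |(1 / (N : ℝ)) * u| ≤ 1 / N := by
    rw [abs_mul, abs_of_pos hu0]
    calc 1 / (N : ℝ) * |u| ≤ 1 / N * 1 := by gcongr
      _ = 1 / N := mul_one _
  have f2 : |t - t'| ≤ 1 / (N : ℝ) / 8 := abs_diff_le hn.1 hn.2 hn'.1 hn'.2
  have f3 : |(h : ℝ) / N / 2 *
        (c0 * (c0 - 2 * ((l.1.1.1 : ℝ) / N)) + c1 * (c1 - 2 * ((l.1.1.2 : ℝ) / N)) -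
          c0' * (c0' - 2 * ((l'.1.1.1 : ℝ) / N)) - c1' * (c1' - 2 * ((l'.1.1.2 : ℝ) / N)))| ≤
      1 / 2 * (17 / 16 * (1 / N)) := by
    rw [abs_mul]
    refine mul_le_mul ?_ ?_ (abs_nonneg _) (by norm_num)
    · rw [abs_div, abs_of_pos (by norm_num : (0:ℝ) < 2)]
      linarith
    · rw [abs_le] at E1 E2' E3' E4 ⊢
      constructor <;> linarith [E1.1, E1.2, E2'.1, E2'.2, E3'.1, E3'.2, E4.1, E4.2]
  have e2 : (2 : ℝ) / N = 2 * (1 / N) := by ring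
  rw [e2]
  rw [abs_le] at f1 f2 f3 ⊢
  constructor <;> linarith [f1.1, f1.2, f2.1, f2.2, f3.1, f3.2]

end

/-! ### capacity with the reward -/

/-- the reward `∑ max (x_j - l) 0`. -/
noncomputable def rwd2 : ℝ → (Fin 2 → ℝ) → ℝ := fun l x => ∑ j, max (x j - l) 0

theorem capP_rwd2 (K0 R M : ℕ) (r : ℝ) (s : Fin 2 → ℕ) :
    capP (cut K0 R (TSL r)) (fun l x => ∑ j, max (x j - l) 0) (0 + M) (fun _ => M) 0 s =
      volL 0 s * ((2 : ℝ) ^ (-(max ((s 0 : ℝ) - M) 0)) * (2 : ℝ) ^ (-(max ((s 1 : ℝ) - M) 0))) := by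
  unfold capP
  have e : ∀ j, Xc794.rel 0 s (0 + M) (fun _ => M) j - ((((0 + M : ℕ) : ℝ)) - ((0 : ℕ) : ℝ)) =
      (s j : ℝ) - M := by
    intro j
    unfold Xc794.rel
    push_cast
    ring
  rw [← Real.rpow_add two_pos]
  simp only [e, Fin.sum_univ_two]
  rw [neg_add]
  rfl

/-- the gain of thin test sets. -/
theorem min_le_rpow {N M k : ℕ} (hNM : (N : ℝ) ≤ 2 ^ M) :
    min 1 ((N : ℝ) * (1 / 2) ^ k) ≤ (2 : ℝ) ^ (-(max ((k : ℝ) - M) 0)) := by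
  rcases le_total (k : ℝ) M with h | h
  · rw [max_eq_right (by linarith), neg_zero, Real.rpow_zero]
    exact min_le_left _ _
  · refine (min_le_right _ _).trans ?_
    rw [max_eq_left (by linarith), neg_sub, Real.rpow_sub two_pos, Real.rpow_natCast,
      Real.rpow_natCast, one_div_pow, mul_one_div]
    exact div_le_div_of_nonneg_right hNM (by positivity)

/-- the constant of the configuration. -/
noncomputable def KR5 (K : ℝ) : ℝ := (2 * nK + 1) ^ 5 * K * 2 ^ 44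

theorem KR5_pos {K : ℝ} (hK : 0 < K) : 0 < KR5 K := by
  unfold KR5 nK
  positivity

open Classical in
/-- **the configuration of a filled grid family** -/
theorem exists_cfg5 {K : ℝ} (hK : 0 ≤ K) (hC5 : Count5 K) (K0 : ℕ) {N : ℕ} (hN : 8 ≤ N)
    (s : Finset GRay) (I : Finset (GRay × ℤ)) (Δ μ ν : ℝ)
    (hI : I.Nonempty) (hΔ : 1 ≤ Δ) (hμ : 0 < μ) (hν : 0 < ν) (hBd : ∀ l ∈ s, Bd N l)
    (hmem : ∀ x ∈ I, x.1 ∈ s ∧ |x.2| ≤ (N : ℤ))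
    (hown : ∀ l ∈ s, ν ≤ ((I.filter (fun x => x.1 = l)).card : ℝ))
    (hmul : ∀ x ∈ I, μ ≤ ((I.filter (fun y => keyL N y = keyL N x)).card : ℝ))
    (hd : DensL 68 N s Δ) :
    ∃ F : Cfg (E2 × E2 × ℝ) (Fin 2) Mem,
      F.Ok (cut K0 ((K0 + 1) * F.M) (TSL ((1 / 2) ^ ((K0 + 1) * F.M))))
        (fun l x => ∑ j, max (x j - l) 0) ∧
      4 * N ≤ 2 ^ F.M ∧ 2 ^ F.M ≤ 8 * N ∧
      F.I.card = I.card * (8 * N * (2 ^ (K0 * F.M)) ^ 6) ∧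
      F.D1 = μ * (8 * N * (2 ^ (K0 * F.M)) ^ 6) * 8 ^ F.M ∧
      F.nu = ν ∧ F.D0 = KR5 K * Δ * (N : ℝ) ^ 4 * (2 ^ (K0 * F.M)) ^ 6 ∧
      F.N = (K0 + 1) * F.M := by
  have hN1 : 1 ≤ N := by omega
  have hN0 : (0:ℝ) < N := by exact_mod_cast hN1
  set M : ℕ := Nat.clog 2 (4 * N) with hMdef
  have hM : 4 * N ≤ 2 ^ M := Nat.le_pow_clog one_lt_two _
  have hM1 : 1 ≤ M := by
    by_contra h
    have : M = 0 := by omega
    rw [this] at hM; omega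
  have hM' : 2 ^ M ≤ 8 * N := by
    have h1 : 2 ^ (M - 1) < 4 * N := Nat.pow_pred_clog_lt_self one_lt_two (by omega)
    have h2 : 2 ^ M = 2 * 2 ^ (M - 1) := by
      rw [← pow_succ']; congr 1; omega
    omega
  have hp : (0:ℝ) < 2 ^ M := by positivity
  have hMr : (4:ℝ) * N ≤ 2 ^ M := by
    have : ((4 * N : ℕ) : ℝ) ≤ ((2 ^ M : ℕ) : ℝ) := by exact_mod_cast hM
    push_cast at this; exact this
  have hMr' : (2:ℝ) ^ M ≤ 8 * N := by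
    have : ((2 ^ M : ℕ) : ℝ) ≤ ((8 * N : ℕ) : ℝ) := by exact_mod_cast hM'
    push_cast at this; exact this
  set Q : ℕ := 2 ^ (K0 * M) with hQd
  have hQ1 : 1 ≤ Q := Nat.one_le_two_pow
  have hQr : (Q : ℝ) = 2 ^ (K0 * M) := by rw [hQd]; push_cast; ring
  have hQ0 : (0:ℝ) < Q := by rw [hQr]; positivity
  set J0 := idx5 N Q with hJ0
  set f : GRay → (ℤ × ℤ) × ((ℤ × ℤ) × ℤ) → E2 × E2 × ℝ :=
    fun l k => chd5 (rho0 N Q) (gray N l) k with hf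
  set k0 : (ℤ × ℤ) × ((ℤ × ℤ) × ℤ) := ((0, 0), ((0, 0), 0)) with hk0d
  have hk0 : k0 ∈ J0 := by
    rw [hJ0, hk0d]
    unfold idx5 idx
    have q1 : (0 : ℤ) < Q := by exact_mod_cast hQ1
    have q2 : (0 : ℤ) < 8 * N * Q ^ 2 := by
      have : (0 : ℤ) < N := by exact_mod_cast hN1
      positivity
    simp only [mem_product, mem_Ico]
    exact ⟨⟨⟨le_rfl, q1⟩, ⟨le_rfl, q1⟩⟩, ⟨⟨⟨le_rfl, q1⟩, ⟨le_rfl, q1⟩⟩, ⟨le_rfl, q2⟩⟩⟩
  have hcardJ : (J0.card : ℝ) = 8 * N * Q ^ 6 := by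
    rw [hJ0, idx5_card]; push_cast; ring
  have hcardJ' : J0.card = 8 * N * Q ^ 6 := by
    rw [hJ0, idx5_card]; ring
  have hBd' : ∀ x ∈ I, Bd N x.1 := fun x hx => hBd _ (hmem x hx).1
  have hI2 : ∀ x ∈ I, |x.2| ≤ (N : ℤ) := fun x hx => (hmem x hx).2
  have hz : ∀ x ∈ incsG N J0 I, zc 0 x.2 = 0 := by
    intro x hx
    obtain ⟨l, h, j, h1, h2, rfl⟩ := mem_incsG.1 hx
    exact zc0_rh hN1 (hmem _ h1).2
  refine ⟨⟨0, M, incsG N J0 I, linG f, clsG ((ℤ × ℤ) × ((ℤ × ℤ) × ℤ)) N M, fun c => (fun _ => M, tstG f k0 N M I c),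
    fun _ => M, KR5 K * Δ * (N : ℝ) ^ 4 * (Q : ℝ) ^ 6, μ * (8 * N * (Q : ℝ) ^ 6) * 8 ^ M, ν,
    (K0 + 1) * M⟩, ?_, hM, hM', ?_, ?_, rfl, ?_, rfl⟩
  rotate_left
  · show (incsG N J0 I).card = _
    rw [incsG_card hN1, hcardJ']
  · show μ * (8 * N * (Q : ℝ) ^ 6) * 8 ^ M = _
    rw [hQr]
  · show KR5 K * Δ * (N : ℝ) ^ 4 * (Q : ℝ) ^ 6 = _
    rw [hQr]
  have htop : 0 + M = M := by omega
  constructor
  · exact hM1
  · obtain ⟨⟨l, h⟩, hx⟩ := hI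
    exact ⟨_, mem_incsG.2 ⟨l, h, k0, hx, hk0, rfl⟩⟩
  · intro x hx y hy
    show zc 0 x.2 = zc 0 y.2
    rw [hz x hx, hz y hy]
  · show 0 < μ * (8 * N * (Q : ℝ) ^ 6) * 8 ^ M; positivity
  · exact hν
  · intro i J S hS j
    exact Xc794.cut_fin i J S hS j
  · intro J t ht
    have ht' : t ∈ alive (incsG N J0 I) (0 + M) J := ht
    show linG f t ∈ (tstG f k0 N M I (clsG ((ℤ × ℤ) × ((ℤ × ℤ) × ℤ)) N M t J)).rays 0 ∧
      (AdmL ((1 / 2) ^ ((K0 + 1) * M)) (0 + M) J (fun _ => M)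
      (tstG f k0 N M I (clsG ((ℤ × ℤ) × ((ℤ × ℤ) × ℤ)) N M t J)) ∧ ∀ j : Fin 2, M + K0 * (0 + M) ≤ (K0 + 1) * M) ∧
      (fun _ => M : Fin 2 → ℕ) = fun _ => M
    rw [htop] at ht' ⊢
    obtain ⟨r, h1, h2⟩ := raw_topH hN1 hM (by omega) hk0
      (fun l k hl hk => ((chd5_bd hN hQ1 hl hk).1.trans (by norm_num)))
      (fun l l' k k' h hl hl' hh hk hk' hc => chd5_lat hN1 hQ1 hh hc hk hk')
      (fun l l' k k' h hl hl' hh hk hk' hc => chd5_null hN1 hQ1 hl hl' hh hc hk hk')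
      hBd' hI2 ht'
    refine ⟨h2, ⟨?_, fun j => ?_⟩, rfl⟩
    · rw [h1]
      refine Rm635.res' (topm_adm M J r) ?_
      refine pow_le_pow_of_le_one (by norm_num) (by norm_num) ?_
      show M ≤ (K0 + 1) * M
      nlinarith [Nat.zero_le (K0 * M)]
    · rw [add_mul, one_mul, add_comm]
  · intro J t ht
    show μ * (8 * N * (Q : ℝ) ^ 6) * 8 ^ M * volL (0 + M) (fun _ => M) ≤
      (((alive (incsG N J0 I) (0 + M) J).filter fun s => clsG ((ℤ × ℤ) × ((ℤ × ℤ) × ℤ)) N M s J = clsG ((ℤ × ℤ) × ((ℤ × ℤ) × ℤ)) N M t J).card : ℝ)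
    have ht' : t ∈ alive (incsG N J0 I) (0 + M) J := ht
    rw [htop] at ht' ⊢
    have e : μ * (8 * N * (Q : ℝ) ^ 6) * 8 ^ M * (1 / 8 ^ M) = μ * (J0.card : ℝ) := by
      rw [hcardJ]; field_simp
    rw [volL_top, e]
    exact raw_lowG hN1 hM hmul ht'
  · intro x hx
    show ν ≤ ((own (incsG N J0 I) 0 (0 + M) x).card : ℝ)
    rw [htop]
    exact raw_ownG hN1 hM hI2 (fun y hy => hown _ (hmem y hy).1) hx
  · intro J S hS
    show (((alive (incsG N J0 I) 0 J).filter fun t => linG f t ∈ S.2.rays 0).card : ℝ) ≤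
      KR5 K * Δ * (N : ℝ) ^ 4 * (Q : ℝ) ^ 6 *
        capP (cut K0 ((K0 + 1) * M) (TSL ((1 / 2) ^ ((K0 + 1) * M))))
        (fun l x => ∑ j, max (x j - l) 0) (0 + M) (fun _ => M) 0 S.1
    have hA : AdmL ((1 / 2) ^ ((K0 + 1) * M)) 0 J S.1 S.2 := hS.1
    have hKK : 0 ≤ KR5 K := by unfold KR5 nK; positivity
    rw [capP_rwd2]
    by_cases hJ : J = 0
    · subst hJ
      have hR : S.2.R = 1 := by rw [hA.hR]; norm_num
      have hs0 : S.2.s0 = 1 / 2 := by rw [hA.hs0]; norm_num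
      have hsg : S.2.sg = (1 / 2) ^ (S.1 0) := by
        have := hA.wide; rwa [hR, mul_one] at this
      have hs1 : S.2.s1 = (1 / 2) ^ (S.1 1) := by
        have := hA.thin; rwa [hR, mul_one] at this
      have hres : (1 / 2) ^ ((K0 + 1) * M) ≤ S.2.s1 := by
        have := hA.res; rwa [hR, mul_one] at this
      have hres' : 1 / (8 * (N : ℝ) * Q) ≤ S.2.s1 := by
        refine le_trans ?_ hres
        rw [one_div_pow]
        refine one_div_le_one_div_of_le (by positivity) ?_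
        have e : (2:ℝ) ^ ((K0 + 1) * M) = 2 ^ M * Q := by
          rw [hQr, ← pow_add]; congr 1; ring
        rw [e]
        exact mul_le_mul_of_nonneg_right hMr' hQ0.le
      have h0 := raw_upG (J0 := J0) (f := f) (N := N) (fun x hx => (hmem x hx).1) (m := S.2)
        (J := 0) (s := s) (I := I)
      have h1 := raw_up5 hK hC5 N Q s Δ S.2 hN hQ1 hΔ hBd hd hA.ok hR hs0 hres' hA.sg1
      refine ((Nat.cast_le.2 h0).trans h1).trans ?_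
      have hNM : (N : ℝ) ≤ 2 ^ M := by linarith
      have m1 := min_le_rpow (k := S.1 1) hNM
      have m0 := min_le_rpow (k := S.1 0) hNM
      rw [hs1, hsg]
      have ev : volL 0 S.1 = (1 / 2) ^ (S.1 1) * ((1 / 2) ^ (S.1 0)) ^ 3 := by
        unfold volL
        rw [pow_add, mul_comm 3, pow_mul, pow_zero]
        ring
      rw [ev]
      have q0 : (0:ℝ) ≤ min 1 ((N : ℝ) * (1 / 2) ^ (S.1 0)) := le_min zero_le_one (by positivity)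
      have hmm := mul_le_mul m1 m0 q0 (Real.rpow_nonneg (by norm_num) _)
      have e : KR5 K * Δ * (N : ℝ) ^ 4 * (Q : ℝ) ^ 6 * ((1 / 2) ^ (S.1 1) * ((1 / 2) ^ (S.1 0)) ^ 3 *
          ((2 : ℝ) ^ (-(max ((S.1 0 : ℝ) - M) 0)) * (2 : ℝ) ^ (-(max ((S.1 1 : ℝ) - M) 0)))) =
          (KR5 K * Δ * (N : ℝ) ^ 4 * (Q : ℝ) ^ 6 * ((1 / 2) ^ (S.1 1) * ((1 / 2) ^ (S.1 0)) ^ 3)) *
          ((2 : ℝ) ^ (-(max ((S.1 1 : ℝ) - M) 0)) * (2 : ℝ) ^ (-(max ((S.1 0 : ℝ) - M) 0))) := by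
        ring
      rw [e]
      refine le_trans (le_of_eq ?_) (mul_le_mul_of_nonneg_left hmm (by positivity))
      unfold KR5
      ring
    · rw [alive_zeroG hN1 hI2 hJ]
      have hv := KI439.volL_pos 0 S.1
      simp only [filter_empty, card_empty, Nat.cast_zero]
      positivity

/-- growth -/
theorem exists_large2 (δ : ℝ) (hδ : 0 < δ) (c K : ℝ) : ∃ M1 : ℕ, ∀ M : ℕ, M1 ≤ M →
    c * M ≤ 2 ^ (δ * M) ∧ K < 2 ^ (δ * M) := by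
  have h1 : (1:ℝ) < 2 ^ δ := Real.one_lt_rpow (by norm_num) hδ
  have h2 := tendsto_pow_const_div_const_pow_of_one_lt 1 h1
  have h3 : ∀ᶠ M : ℕ in atTop, (M : ℝ) ^ 1 / (2 ^ δ) ^ M < 1 / (|c| + 1) :=
    h2.eventually_lt_const (by positivity)
  have h4 := (tendsto_pow_atTop_atTop_of_one_lt h1).eventually_gt_atTop K
  obtain ⟨M1, hM1⟩ := eventually_atTop.1 (h3.and h4)
  refine ⟨M1, fun M hM => ?_⟩
  obtain ⟨a1, a2⟩ := hM1 M hM
  have e : (2:ℝ) ^ (δ * M) = (2 ^ δ) ^ M := by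
    rw [Real.rpow_mul (by norm_num), Real.rpow_natCast]
  rw [e]
  refine ⟨?_, a2⟩
  rw [pow_one, div_lt_div_iff₀ (by positivity) (by positivity)] at a1
  have h5 : c * M ≤ (|c| + 1) * M := by
    have := le_abs_self c
    have hM0 : (0:ℝ) ≤ M := Nat.cast_nonneg _
    nlinarith
  linarith

/-- **K2 (ENEMY with room)** from `count5`. -/
theorem enemy2_of {K : ℝ} (hK : 0 < K) (hC5 : Count5 K) (h : ¬ LKMseq 68) :
    ∃ b0 : ℝ, 0 < b0 ∧ ∀ K0 : ℕ, EnemyAt2 (TSK K0) b0 := by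
  classical
  unfold LKMseq at h
  push Not at h
  obtain ⟨B, N, s, I, Δ, μ, ν, hN2, hBd, hs, hI, hΔ, hμ, hν, hlBd, hmem, hown, hmul, -, -, hd,
    ε, hε, hfail⟩ := h
  refine ⟨ε / 2, by linarith, fun K0 δ hδ M0 => ?_⟩
  obtain ⟨Ma, hMa⟩ := exists_large2 δ hδ (20 + 6 * K0) 1
  obtain ⟨Mb, hMb⟩ := exists_large2 (ε / 2) (by linarith) 1 (8 ^ ε * KR5 K)
  -- large `N`
  have hNlarge : ∀ A : ℝ, ∀ᶠ n in (U : Filter ℕ), A ≤ (N n : ℝ) := by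
    intro A
    have h1 : ∀ᶠ n in (U : Filter ℕ), B.d n < 1 / (|A| + 1) :=
      B.lim0.eventually_lt_const (by positivity)
    filter_upwards [h1] with n hn
    rw [hBd n, div_lt_div_iff₀ (by have := hN2 n; positivity) (by positivity)] at hn
    have := le_abs_self A
    linarith
  have hfail' : ∀ᶠ n in (U : Filter ℕ), (N n : ℝ) ^ ε * Δ n * (N n : ℝ) ^ 2 < μ n * ν n ^ 2 :=
    hfail
  obtain ⟨n, hn1, hn2, hn3⟩ := (hfail'.and ((hNlarge 8).and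
    (hNlarge (2 ^ (M0 + Ma + Mb))))).exists
  have hN8 : 8 ≤ N n := by exact_mod_cast hn2
  obtain ⟨F, hF, hM, hM', hcard, hD1, hnu, hD0, hN⟩ := exists_cfg5 hK.le hC5 K0 hN8 (s n) (I n)
    (Δ n) (μ n) (ν n) (hI n) (hΔ n) (hμ n) (hν n) (hlBd n) (hmem n) (hown n) (hmul n)
    (hd n)
  have hN0 : (0:ℝ) < N n := by linarith
  have hMr : (4:ℝ) * N n ≤ 2 ^ F.M := by
    have : ((4 * N n : ℕ) : ℝ) ≤ ((2 ^ F.M : ℕ) : ℝ) := by exact_mod_cast hM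
    push_cast at this; exact this
  have hMr' : (2:ℝ) ^ F.M ≤ 8 * N n := by
    have : ((2 ^ F.M : ℕ) : ℝ) ≤ ((8 * N n : ℕ) : ℝ) := by exact_mod_cast hM'
    push_cast at this; exact this
  have hp : (0:ℝ) < 2 ^ F.M := by positivity
  have hM1 : (1:ℝ) ≤ F.M := by exact_mod_cast hF.M1
  have hMbig : M0 + Ma + Mb ≤ F.M := by
    have h1 : (2:ℝ) ^ (M0 + Ma + Mb) ≤ 2 ^ F.M := by linarith
    exact (pow_le_pow_iff_right₀ one_lt_two).1 h1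
  have hT : cut K0 ((K0 + 1) * F.M) (TSL ((1 / 2) ^ ((K0 + 1) * F.M))) ∈ TSK K0 :=
    Rm635.TSK_mem (by positivity) le_rfl
  have hbound := (hMa F.M (by omega)).1
  -- cardinality
  have hlog : Real.log (F.I.card : ℝ) ≤ (2 : ℝ) ^ (δ * F.M) := by
    have h1 : I n ⊆ s n ×ˢ Icc (-(N n : ℤ)) (N n) := by
      intro x hx
      obtain ⟨a1, a2⟩ := hmem n x hx
      rw [mem_product, mem_Icc]
      exact ⟨a1, abs_le.1 a2⟩
    have h2 := card_le_card h1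
    rw [card_product] at h2
    have h3 := card_Icc_le (N := N n) (by omega)
    have h4 := card_le_of_Bd (N := N n) (by omega) (hlBd n)
    have h5 : F.I.card ≤ 8 * (729 * N n ^ 7) * (2 ^ (K0 * F.M)) ^ 6 := by
      rw [hcard]
      calc (I n).card * (8 * N n * (2 ^ (K0 * F.M)) ^ 6) ≤
            ((s n).card * (Icc (-(N n : ℤ)) (N n)).card) * (8 * N n * (2 ^ (K0 * F.M)) ^ 6) :=
            Nat.mul_le_mul_right _ h2
        _ ≤ ((243 * N n ^ 5) * (3 * N n)) * (8 * N n * (2 ^ (K0 * F.M)) ^ 6) := by gcongr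
        _ = 8 * (729 * N n ^ 7) * (2 ^ (K0 * F.M)) ^ 6 := by ring
    have h6 : F.I.card ≤ 2 ^ ((20 + 6 * K0) * F.M) := by
      calc F.I.card ≤ 8 * (729 * N n ^ 7) * (2 ^ (K0 * F.M)) ^ 6 := h5
        _ ≤ 2 ^ 3 * (2 ^ 10 * (2 ^ F.M) ^ 7) * (2 ^ (K0 * F.M)) ^ 6 := by
          have : N n ≤ 2 ^ F.M := by omega
          gcongr
          · norm_num
          · norm_num
        _ = 2 ^ (13 + 7 * F.M + 6 * (K0 * F.M)) := by ring_nf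
        _ ≤ 2 ^ ((20 + 6 * K0) * F.M) := by
          apply Nat.pow_le_pow_right (by norm_num)
          have := hF.M1
          nlinarith
    have h7 : (0:ℝ) < F.I.card := by
      have := hF.ne.card_pos
      exact_mod_cast this
    calc Real.log (F.I.card : ℝ) ≤ Real.log (2 ^ ((20 + 6 * K0) * F.M)) := by
          apply Real.log_le_log h7
          exact_mod_cast h6
      _ = ((20 + 6 * K0) * F.M) * Real.log 2 := by rw [Real.log_pow]; push_cast; ring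
      _ ≤ ((20 + 6 * K0) * F.M) * 1 := by
          have : Real.log 2 ≤ 1 := by linarith [Real.log_two_lt_d9]
          gcongr
      _ ≤ _ := by
          rw [mul_one]
          exact hbound
  have hNN : (F.N : ℝ) ≤ (2 : ℝ) ^ (δ * F.M) := by
    rw [hN]
    refine le_trans ?_ hbound
    push_cast
    refine mul_le_mul_of_nonneg_right ?_ (by linarith)
    have : (0:ℝ) ≤ K0 := Nat.cast_nonneg _
    linarith
  refine ⟨_, hT, F, hF, by omega, hlog, hNN, ?_⟩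
  rw [hD1, hnu, hD0]
  have hΔ0 : 0 < Δ n := by linarith [hΔ n]
  have hKK := KR5_pos hK
  have hQ6 : (0:ℝ) < (2 ^ (K0 * F.M)) ^ 6 := by positivity
  set q6 : ℝ := (2 ^ (K0 * F.M)) ^ 6 with hq6
  have hX : (0:ℝ) < Δ n * (N n : ℝ) ^ 3 * 4 ^ F.M * q6 := by positivity
  have hNε : (0:ℝ) < (N n : ℝ) ^ ε := Real.rpow_pos_of_pos hN0 ε
  have e1 : (2:ℝ) ^ (ε / 2 * F.M) * 4 ^ F.M * (KR5 K * Δ n * (N n : ℝ) ^ 4 * q6) =
      (Δ n * (N n : ℝ) ^ 3 * 4 ^ F.M * q6) * ((2 ^ (ε / 2 * F.M) * KR5 K) * N n) := by ring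
  have e2 : μ n * (8 * N n * q6) * 8 ^ F.M * ν n ^ 2 =
      (μ n * ν n ^ 2) * (N n * 8 ^ F.M * q6 * 8) := by ring
  have e3 : (N n : ℝ) ^ ε * Δ n * (N n : ℝ) ^ 2 * (N n * 8 ^ F.M * q6 * 8) =
      (Δ n * (N n : ℝ) ^ 3 * 4 ^ F.M * q6) * ((N n : ℝ) ^ ε * (2 ^ F.M * 8)) := by
    rw [show ((8:ℝ) ^ F.M) = 4 ^ F.M * 2 ^ F.M by rw [← mul_pow]; norm_num]; ring
  have h1 : (N n : ℝ) ^ ε * Δ n * (N n : ℝ) ^ 2 * (N n * 8 ^ F.M * q6 * 8) <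
      (μ n * ν n ^ 2) * (N n * 8 ^ F.M * q6 * 8) := mul_lt_mul_of_pos_right hn1 (by positivity)
  rw [e1, e2]
  refine lt_of_le_of_lt ?_ h1
  rw [e3]
  refine mul_le_mul_of_nonneg_left ?_ hX.le
  have h4 : (2:ℝ) ^ (ε * F.M) ≤ 8 ^ ε * (N n : ℝ) ^ ε := by
    rw [← Real.mul_rpow (by norm_num) hN0.le, mul_comm ε, Real.rpow_mul (by norm_num),
      Real.rpow_natCast]
    exact Real.rpow_le_rpow hp.le hMr' hε.le
  have h5 : (2:ℝ) ^ (ε * F.M) = 2 ^ (ε / 2 * F.M) * 2 ^ (ε / 2 * F.M) := by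
    rw [← Real.rpow_add (by norm_num)]; congr 1; ring
  have h6 := (hMb F.M (by omega)).2
  have hP : (0:ℝ) < 2 ^ (ε / 2 * F.M) := Real.rpow_pos_of_pos (by norm_num) _
  have h8 : (0:ℝ) < 8 ^ ε := Real.rpow_pos_of_pos (by norm_num) _
  have h7 : 2 ^ (ε / 2 * F.M) * KR5 K ≤ (N n : ℝ) ^ ε := by
    have h9 : 8 ^ ε * (2 ^ (ε / 2 * F.M) * KR5 K) ≤ 8 ^ ε * (N n : ℝ) ^ ε := by
      calc 8 ^ ε * (2 ^ (ε / 2 * F.M) * KR5 K) = 2 ^ (ε / 2 * F.M) * (8 ^ ε * KR5 K) := by ring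
        _ ≤ 2 ^ (ε / 2 * F.M) * 2 ^ (ε / 2 * F.M) := mul_le_mul_of_nonneg_left h6.le hP.le
        _ = 2 ^ (ε * F.M) := h5.symm
        _ ≤ _ := h4
    exact le_of_mul_le_mul_left h9 h8
  exact mul_le_mul h7 (by linarith) hN0.le hNε.le

end Crest.Agent.R116.Ene618
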