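import Crest.Agent.R116.RmDef_635

/-!
# R116 (K side): the family of classes with room = 635's `Rm635.TSK` (helper387)
-/

namespace Crest.Agent.R116.Tsk387

/-- use `Rm635.TSK` -/
abbrev TSK := Crest.Agent.R116.Rm635.TSK

end Crest.Agent.R116.Tsk387
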