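import Crest.Agent.R116.RmDef_635
import Crest.Agent.R116.TskDef_387

/-!
# R116 (K side): the three names of the family with room are the same set (helper635)
-/

set_option autoImplicit false

namespace Crest.Agent.R116.Rm635

theorem TSK_eq (K0 : ℕ) : TSK K0 = Tsk387.TSK K0 := rfl

end Crest.Agent.R116.Rm635
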