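import Crest.Agent.R116.KS3_439
import Crest.Agent.R116.Ap3_954
import Crest.Agent.R116.KTopB_387

/-!
# R116, row ISO (helper387), part 1: the top of `RowI`

* `strict_ctxR` : a round context with room above;
* `IsoB η` : the round record, `s < 1/2`, `θ 0 = θ 1`, is impossible (337);
* **`rowI_of`** : `IsoB η → RowI η`.
-/

set_option autoImplicit false
set_option linter.unusedVariables false

open Set Filter Topology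

namespace Crest.Agent.R116.RowI387

open Crest.Agent.R138.Ex926 (Base U IsTan)
open Crest.Agent.R136
open Crest.Agent.R136.MkA627
open Crest.Agent.R136.TD627
open Crest.Agent.R136.Net191
open Crest.Agent.R136.Lq196
open Crest.Agent.R116.ChL222
open Crest.Agent.R116.PL504 (nb rL DN eL βL oL Shift)
open Crest.Agent.R116.Gd222 (TSet sN PDL DT)
open Crest.Agent.R116.KI439
open Crest.Agent.R116.KF439 (PL)
open Crest.Agent.R116.Tw468 (OutT OutR)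
open Crest.Agent.R116.CtxB468
open Crest.Agent.R116.KTop387 (NumL RowI)

section ctx

variable {G : Geo TSet (Fin 2)} {L : ℕ → ℕ → LRay} {r : ℕ → ℝ} {g s : ℝ} {θ q : Fin 2 → ℝ}
    {Rg : ℝ} {a : Fin 2} {B : Base} {I : ℕ → Finset (ℕ × ℝ)} {lev : ℕ → ℚ → ℕ} {A : ℕ → ℝ}
    {f : ℕ → ℚ → ℕ → ℤ → ℕ} {b : ℕ → ℚ → ℕ → TSet} {vm : ℕ → ℚ → ℝ} {w : Fin 2 → ℕ → ℚ → ℝ}
    {w0 sa sb δ R : ℝ} {I0 I' : ℕ → Finset (ℕ × ℝ)} {ν own : (Fin 12 → ℝ) → ℝ} {c₀ : ℝ}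

/-- **a round context with room above** -/
theorem strict_ctxR
    (h : CtxR G L r g s θ q Rg a B I lev A f b vm w w0 sa sb δ R I0 I' ν own c₀) :
    ∃ (w0 sa sb δ R : ℝ) (I0 I' : ℕ → Finset (ℕ × ℝ)) (ν own : (Fin 12 → ℝ) → ℝ) (c₀ : ℝ),
      CtxR G L r g s θ q Rg a B I lev A f b vm w w0 sa sb δ R I0 I' ν own c₀ ∧
        w0 + (θ 1 + sb) < R ∧ w0 + 1 + sb < R ∧
        ∀ v : ℝ, 0 ≤ v → v ≤ 1 → ∀ k, rL (θ 0) (θ 1) w0 sa sb v k < R := by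
  have sh := h.sh
  have sh' : Shift (θ 0) (θ 1) w0 sa sb δ (R + 1) :=
    ⟨sh.d0, sh.z, sh.c0, sh.c1, sh.D0, sh.D1, by linarith [sh.R0], by linarith [sh.R1]⟩
  obtain ⟨I0, I', ν, own, c₀, C⟩ := h.out.ctx h.Rg0 sh'
  exact ⟨w0, sa, sb, δ, R + 1, I0, I', ν, own, c₀, C, by linarith [sh.R0], by linarith [sh.R1],
    fun v h0 h1 k => ((sh.rL_leg h0 h1).2 k).trans_lt (by linarith)⟩

end ctx

/-- **the open binder of the round row** (337) -/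
def IsoB (η : ℝ) : Prop :=
  ∀ {G : Geo TSet (Fin 2)} {L : ℕ → ℕ → LRay} {r : ℕ → ℝ} {g s : ℝ} {θ q : Fin 2 → ℝ}
    {Rg : ℝ} {a : Fin 2} {B : Base} {I : ℕ → Finset (ℕ × ℝ)} {lev : ℕ → ℚ → ℕ} {A : ℕ → ℝ}
    {f : ℕ → ℚ → ℕ → ℤ → ℕ} {b : ℕ → ℚ → ℕ → TSet} {vm : ℕ → ℚ → ℝ} {w : Fin 2 → ℕ → ℚ → ℝ}
    {w0 sa sb δ R : ℝ} {I0 I' : ℕ → Finset (ℕ × ℝ)} {ν own : (Fin 12 → ℝ) → ℝ} {c₀ : ℝ},
    CtxR G L r (g + 2 * s) s θ q Rg a B I lev A f b vm w w0 sa sb δ R I0 I' ν own c₀ →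
    NumL η g s θ q → s < 1 / 2 → θ 0 = θ 1 → w0 + (θ 1 + sb) < R → w0 + 1 + sb < R →
    (∀ v : ℝ, 0 ≤ v → v ≤ 1 → ∀ k, rL (θ 0) (θ 1) w0 sa sb v k < R) →
    θ 0 + |θ 1| + 1 ≤ Rg → False

/-- **THE ROUND ROW** -/
theorem rowI_of {η : ℝ} (hI : IsoB η) : RowI η := by
  intro g s θ q hN
  refine ⟨0, θ 0 + |θ 1| + 1, fun Rg hRg G L r B I lev A f b vm w hO => ?_⟩
  have habs := abs_nonneg (θ 1)
  have hθ := hN.θa
  have hRg0 : 0 < Rg := by linarith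
  have e01 : θ 0 = θ 1 := KS439.OutR.theta_eq hO
  obtain ⟨w0, sa, sb, δ, R, hsh⟩ := PL504.exists_shift (θ 0) (θ 1)
  obtain ⟨I0, I', ν, own, c₀, hC⟩ := hO.ctx hRg0 hsh
  obtain ⟨w0, sa, sb, δ, R, I0, I', ν, own, c₀, hC, hR0, hR1, hR⟩ := strict_ctxR hC
  have hap := Ap954.aprioriR hC hθ e01.le (by linarith) (by linarith) hN.qa.le hN.qb.le hN.s1
  have hs2 : s < 1 / 2 := Ap954.s_lt_half hN.gpos hN.qa.le hN.qb.le hap
  exact hI hC hN hs2 e01 hR0 hR1 hR hRg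

end Crest.Agent.R116.RowI387
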