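import Crest.Agent.R116.RowU9_188
import Crest.Agent.R116.RowU8_194
import Crest.Agent.R116.D0p_878

/-!
# R116, row U (helper188), part 10: the last plug of row U

* **`rowU_of4`** : row U from D0 for `2 θa - θb < 1`, D0 for `2 θa - θb = 1` (`E` invisible), A1.
-/

set_option autoImplicit false
set_option linter.unusedVariables false

namespace Crest.Agent.R116.RowU188

open Crest.Agent.R116.KTop387 (RowU)
open Crest.Agent.R116.KTie794 (D0T D0E)

theorem rowU_of4 {η : ℝ} (hη : η < 1) (h2 : D0T η fun s θ => s < 1 / 2 ∧ 2 * θ 0 - θ 1 < 1)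
    (h3 : D0E η fun s θ => s < 1 / 2 ∧ 2 * θ 0 - θ 1 = 1) (hA : RowU194.A1B η) : RowU η :=
  rowU_of3E (D0p878.D0pos hη) h2 h3 (RowU194.sigB_of hA)

end Crest.Agent.R116.RowU188
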