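import Crest.Agent.R116.RowU10_188
import Crest.Agent.R116.A1q_194
import Crest.Agent.R116.D0z2_899

/-!
# R116, row U (helper188), part 11

* **`rowU_of5`** : row U from D0 for `2 θa - θb < 1`.
-/

set_option autoImplicit false
set_option linter.unusedVariables false

namespace Crest.Agent.R116.RowU188

open Crest.Agent.R116.KTop387 (RowU)
open Crest.Agent.R116.KTie794 (D0T D0E)

theorem rowU_of5 {η : ℝ} (hη : η < 1) (h2 : D0T η fun s θ => s < 1 / 2 ∧ 2 * θ 0 - θ 1 < 1) :
    RowU η :=
  rowU_of4 hη h2 (D0z899.d0zero hη.le) RowU194.a1B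

end Crest.Agent.R116.RowU188
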