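import Crest.Agent.R116.Xd2_954

/-!
# R116, [X-DIM] of K-TEXT II-c (helper954), part 3: one dimension in the window, tangents

* `dim_nat` : near a natural box `(v, t, y)` with margins `δ`, `b · C` and `b · X` are `d^δ`-small in
  the units of the box, and the flag direction is constant up to `d^(2δ)`.
* `lam_lip` : the tangent form of `nu_lip_nat`.
-/

set_option autoImplicit false
set_option linter.unusedVariables false

open Finset Filter Topology

namespace Crest.Agent.R116.Xd954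

open Crest.Agent.R138.Ex926
open Crest.Agent.R138
open Crest.Agent.R136.Net191
open Crest.Agent.R136.Lq196
open Crest.Agent.R116.ChL222

/-- flag slots -/
def bs : Fin 2 → Fin 12 := ![7, 8]

theorem coL_B (i j : LInc) (c : Fin 2) :
    bb j c - bb i c = coL i j (bs c) + i.et * coL i j (cs c) + 2 * i.d * coL i j (xs c) := by
  fin_cases c <;> simp [coL, cs, xs, bs, bb] <;> ring

theorem bs_ge (c : Fin 2) : 3 ≤ bs c := by fin_cases c <;> decide

theorem uL_bs (lz lc lp : ℝ) (a : Fin 2) : PL504.uL lz lc lp (bs a) = lp / lc := by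
  fin_cases a <;> rfl

theorem nb_bs (w0 sa sb v t y : ℝ) (c : Fin 2) :
    PL504.nb w0 sa sb v t y (bs c) = (sb + y) - (sa + t) := by
  fin_cases c <;> rfl

/-- the component along the flag, normalised -/
theorem flag_le (i j : LInc) {lz lc lp : ℝ} (hz : 0 < lz) (hc : 0 < lc) (hp : 0 < lp)
    {c : Fin 12 → ℝ} (hc' : ∀ k, c k = PL504.uL lz lc lp k * coL i j k) :
    |bb i 0 * c 3 + bb i 1 * c 4| ≤ (lc / lp) * |c 10| +
      (|i.et| / lc) * (|c 3| ^ 2 + |c 4| ^ 2) +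
      2 * ((|i.d| / (lz * lc)) * (|c 5| * |c 3|) + (|i.d| / (lz * lc)) * (|c 6| * |c 4|) +
        (|i.d| / (lz * lc)) * |c 9|) ∧
    |bb i 0 * c 5 + bb i 1 * c 6| ≤ (lc / lp) * |c 11| + (|i.et| / lc) * |c 9| +
      (|i.d| / (lz * lc)) * (|c 5| ^ 2 + |c 6| ^ 2) ∧
    ∀ s, |bb j s - bb i s| ≤ (lc / lp) * |c (bs s)| + (|i.et| / lc) * |c (cs s)| +
      2 * ((|i.d| / (lz * lc)) * |c (xs s)|) := by
  have hzc := mul_pos hz hc
  have e3 : c 3 = lc * coL i j 3 := hc' 3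
  have e4 : c 4 = lc * coL i j 4 := hc' 4
  have e5 : c 5 = (lz * lc) * coL i j 5 := hc' 5
  have e6 : c 6 = (lz * lc) * coL i j 6 := hc' 6
  have e9 : c 9 = (lz * lc ^ 2) * coL i j 9 := hc' 9
  have e10 : c 10 = lp * coL i j 10 := hc' 10
  have e11 : c 11 = (lz * lp) * coL i j 11 := hc' 11
  have t1 := coL_P i j (a := 0) (b := 1) (by decide)
  have t2 := coL_F i j (a := 0) (b := 1) (by decide)
  have c0 : cs 0 = 3 := rfl
  have c1 : cs 1 = 4 := rfl
  have x0 : xs 0 = 5 := rfl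
  have x1 : xs 1 = 6 := rfl
  rw [c0, c1, x0, x1] at t1
  rw [x0, x1] at t2
  refine ⟨?_, ?_, fun s => ?_⟩
  · have e : bb i 0 * c 3 + bb i 1 * c 4 = (lc / lp) * c 10 -
        (i.et / lc) * ((c 3 ^ 2 + c 4 ^ 2) / 2) -
        2 * ((i.d / (lz * lc)) * (c 5 * c 3) + (i.d / (lz * lc)) * (c 6 * c 4) -
          (i.d / (lz * lc)) * c 9) := by
      rw [e3, e4, e5, e6, e9, e10, t1]
      field_simp
      ring
    rw [e]
    have a1 := abs_sub ((lc / lp) * c 10 - (i.et / lc) * ((c 3 ^ 2 + c 4 ^ 2) / 2))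
      (2 * ((i.d / (lz * lc)) * (c 5 * c 3) + (i.d / (lz * lc)) * (c 6 * c 4) -
          (i.d / (lz * lc)) * c 9))
    have a2 := abs_sub ((lc / lp) * c 10) ((i.et / lc) * ((c 3 ^ 2 + c 4 ^ 2) / 2))
    have a3 : |(lc / lp) * c 10| = (lc / lp) * |c 10| := by
      rw [abs_mul, abs_of_pos (div_pos hc hp)]
    have a4 : |(i.et / lc) * ((c 3 ^ 2 + c 4 ^ 2) / 2)| ≤
        (|i.et| / lc) * (|c 3| ^ 2 + |c 4| ^ 2) := by
      rw [abs_mul, abs_div, abs_of_pos hc, abs_of_nonneg (by positivity : 0 ≤ (c 3 ^ 2 + c 4 ^ 2) / 2),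
        sq_abs, sq_abs]
      refine mul_le_mul_of_nonneg_left ?_ (by positivity)
      nlinarith [sq_nonneg (c 3), sq_nonneg (c 4)]
    have a5 : |2 * ((i.d / (lz * lc)) * (c 5 * c 3) + (i.d / (lz * lc)) * (c 6 * c 4) -
          (i.d / (lz * lc)) * c 9)| ≤ 2 * ((|i.d| / (lz * lc)) * (|c 5| * |c 3|) +
          (|i.d| / (lz * lc)) * (|c 6| * |c 4|) + (|i.d| / (lz * lc)) * |c 9|) := by
      rw [abs_mul, abs_of_pos (two_pos : (0 : ℝ) < 2)]
      refine mul_le_mul_of_nonneg_left ?_ two_pos.le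
      have b1 := abs_sub ((i.d / (lz * lc)) * (c 5 * c 3) + (i.d / (lz * lc)) * (c 6 * c 4))
        ((i.d / (lz * lc)) * c 9)
      have b2 := abs_add_le ((i.d / (lz * lc)) * (c 5 * c 3)) ((i.d / (lz * lc)) * (c 6 * c 4))
      rw [abs_mul, abs_mul, abs_mul, abs_mul, abs_div, abs_of_pos hzc] at b2
      rw [abs_mul _ (c 9), abs_div, abs_of_pos hzc] at b1
      linarith
    linarith
  · have e : bb i 0 * c 5 + bb i 1 * c 6 = (lc / lp) * c 11 - (i.et / lc) * c 9 -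
        (i.d / (lz * lc)) * (c 5 ^ 2 + c 6 ^ 2) := by
      rw [e5, e6, e9, e11, t2]
      field_simp
      ring
    rw [e]
    have a1 := abs_sub ((lc / lp) * c 11 - (i.et / lc) * c 9)
      ((i.d / (lz * lc)) * (c 5 ^ 2 + c 6 ^ 2))
    have a2 := abs_sub ((lc / lp) * c 11) ((i.et / lc) * c 9)
    rw [abs_mul, abs_mul _ (c 9), abs_of_pos (div_pos hc hp), abs_div, abs_of_pos hc] at a2
    rw [abs_mul (i.d / (lz * lc)), abs_div, abs_of_pos hzc,
      abs_of_nonneg (by positivity : 0 ≤ c 5 ^ 2 + c 6 ^ 2)] at a1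
    rw [sq_abs, sq_abs]
    linarith
  · have eb : c (bs s) = (lp / lc) * coL i j (bs s) := by rw [hc', uL_bs]
    have ec : c (cs s) = lc * coL i j (cs s) := by rw [hc', uL_cs]
    have ex : c (xs s) = (lz * lc) * coL i j (xs s) := by rw [hc', uL_xs]
    have e : bb j s - bb i s = (lc / lp) * c (bs s) + (i.et / lc) * c (cs s) +
        2 * ((i.d / (lz * lc)) * c (xs s)) := by
      rw [coL_B, eb, ec, ex]
      field_simp
    rw [e]
    have a1 := abs_add_le ((lc / lp) * c (bs s) + (i.et / lc) * c (cs s))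
      (2 * ((i.d / (lz * lc)) * c (xs s)))
    have a2 := abs_add_le ((lc / lp) * c (bs s)) ((i.et / lc) * c (cs s))
    rw [abs_mul, abs_mul _ (c (cs s)), abs_of_pos (div_pos hc hp), abs_div, abs_of_pos hc] at a2
    rw [abs_mul 2, abs_of_pos (two_pos : (0 : ℝ) < 2), abs_mul, abs_div, abs_of_pos hzc] at a1
    linarith

section dim

variable {B : Base} {I : ℕ → Finset (ℕ × ℝ)} {lev : ℕ → ℚ → ℕ} {inc : ℕ → ℕ × ℝ → LInc}
    {σ : Fin 2 → ℕ → ℝ} {k0 ϑ : ℝ}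

/-- **one dimension**: near the natural box `(v, t, y)` the components along the flag are small in
the units of the box (by the fixed power `δ` of `d`), uniformly in the base point `p`. -/
theorem FlagE.dim_nat' (h : FlagE B I lev inc σ k0 ϑ) (w0 sa sb : ℝ) {v t y δ : ℝ}
    (hm : Mrg k0 ϑ v t y δ) {K : ℝ} (hK : 1 ≤ K) :
    ∀ᶠ n in (U : Filter ℕ), ∀ p : Fin 12 → ℝ,
      (∀ k, 3 ≤ k → |p k - PL504.nb w0 sa sb v t y k| ≤ δ / 2) → ∀ x ∈ I n, ∀ z : ℕ × ℝ,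
      Near (Gd222.coN B lev inc σ w0 sa sb n) (B.d n) p K x z →
      (∀ s, |bb (inc n x) 0 * Gd222.coN B lev inc σ w0 sa sb n x z 3 +
        bb (inc n x) 1 * Gd222.coN B lev inc σ w0 sa sb n x z 4| ≤ B.d n ^ (p (cs s) + δ)) ∧
      (∀ s, |bb (inc n x) 0 * Gd222.coN B lev inc σ w0 sa sb n x z 5 +
        bb (inc n x) 1 * Gd222.coN B lev inc σ w0 sa sb n x z 6| ≤ B.d n ^ (p (xs s) + δ)) ∧
      ∀ s, |bb (inc n z) s - bb (inc n x) s| ≤ B.d n ^ (2 * δ) := by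
  have hδ := hm.pos
  have hδ2 : 0 < δ / 2 := by positivity
  have hδ4 : 0 < δ / 2 / 2 := by positivity
  filter_upwards [h.scal w0 sa sb hδ4, ev_fin B (show 0 < 10 * K ^ 2 by positivity) hδ2] with n h3
    hfin p hp x hx z hn
  have hD := B.pos n
  have hD1 := (B.lt n).le
  have hK0 : 0 ≤ K := by linarith
  have hKK : K ≤ K ^ 2 := by nlinarith
  have s0 := h.σp 0 n
  have s1 := h.σp 1 n
  have dp := fun a => Dp76.dpow_pos B n a
  obtain ⟨er, h3'⟩ := h3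
  obtain ⟨ee, ef⟩ := h3' x hx
  set D := B.d n with hDd
  set lz : ℝ := 2 ^ lev n 0 * D ^ w0 with hlz
  set lc : ℝ := D ^ sa / σ 0 n with hlc
  set lp : ℝ := D ^ sb / σ 1 n with hlp
  have hlz0 : 0 < lz := mul_pos (by positivity) (dp _)
  have hlc0 : 0 < lc := div_pos (dp _) s0
  have hlp0 : 0 < lp := div_pos (dp _) s1
  set c := Gd222.coN B lev inc σ w0 sa sb n x z with hc
  obtain ⟨t1, t2, t3⟩ := flag_le (inc n x) (inc n z) hlz0 hlc0 hlp0 (c := c) (fun k => rfl)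
  have hcn : ∀ k, |c k| ≤ K * D ^ p k := hn
  have n0 : ∀ k, 0 ≤ |c k| := fun k => abs_nonneg _
  have q : ∀ k, 3 ≤ k → PL504.nb w0 sa sb v t y k - δ / 2 ≤ p k ∧
      p k ≤ PL504.nb w0 sa sb v t y k + δ / 2 :=
    fun k hk => by have := abs_le.1 (hp k hk); constructor <;> linarith [this.1, this.2]
  have m1 := hm.mt
  have m2 := hm.mkk
  have m3 := hm.mv
  have c3 := q 3 (by decide)
  have c4 := q 4 (by decide)
  have c5 := q 5 (by decide)
  have c6 := q 6 (by decide)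
  have c9 := q 9 (by decide)
  have c10 := q 10 (by decide)
  have c11 := q 11 (by decide)
  have v3 : PL504.nb w0 sa sb v t y 3 = sa + t := rfl
  have v4 : PL504.nb w0 sa sb v t y 4 = sa + t := rfl
  have v5 : PL504.nb w0 sa sb v t y 5 = (w0 + v) + (sa + t) := rfl
  have v6 : PL504.nb w0 sa sb v t y 6 = (w0 + v) + (sa + t) := rfl
  have v9 : PL504.nb w0 sa sb v t y 9 = (w0 + v) + 2 * (sa + t) := rfl
  have v10 : PL504.nb w0 sa sb v t y 10 = sb + y := rfl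
  have v11 : PL504.nb w0 sa sb v t y 11 = (w0 + v) + (sb + y) := rfl
  rw [v3] at c3
  rw [v4] at c4
  rw [v5] at c5
  rw [v6] at c6
  rw [v9] at c9
  rw [v10] at c10
  rw [v11] at c11
  refine ⟨fun s => ?_, fun s => ?_, fun s => ?_⟩
  · have cc := q (cs s) (cs_ge s)
    rw [nb_cs] at cc
    set r : ℝ := p (cs s) + δ + δ / 2 with hr
    have key : |bb (inc n x) 0 * c 3 + bb (inc n x) 1 * c 4| ≤
        10 * K ^ 2 * D ^ (r - δ / 2 / 2) := by
      refine t1.trans ?_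
      have u1 : lc / lp * |c 10| ≤ K * D ^ (r - δ / 2 / 2) :=
        ex_mul hD hD1 er (n0 _) (hcn _) hK0 (by linarith)
      have u3 : |(inc n x).et| / lc * |c 3| ^ 2 ≤ K ^ 2 * D ^ (r - δ / 2 / 2) :=
        ex_mul hD hD1 ee (by positivity) (ex_sq hD (n0 _) (hcn _)) (by positivity) (by linarith)
      have u4 : |(inc n x).et| / lc * |c 4| ^ 2 ≤ K ^ 2 * D ^ (r - δ / 2 / 2) :=
        ex_mul hD hD1 ee (by positivity) (ex_sq hD (n0 _) (hcn _)) (by positivity) (by linarith)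
      have u5 : |(inc n x).d| / (lz * lc) * (|c 5| * |c 3|) ≤ K ^ 2 * D ^ (r - δ / 2 / 2) :=
        ex_mul hD hD1 ef (by positivity) (ex_pr hD (n0 _) (hcn _) (n0 _) (hcn _)) (by positivity)
          (by linarith)
      have u6 : |(inc n x).d| / (lz * lc) * (|c 6| * |c 4|) ≤ K ^ 2 * D ^ (r - δ / 2 / 2) :=
        ex_mul hD hD1 ef (by positivity) (ex_pr hD (n0 _) (hcn _) (n0 _) (hcn _)) (by positivity)
          (by linarith)
      have u7 : |(inc n x).d| / (lz * lc) * |c 9| ≤ K * D ^ (r - δ / 2 / 2) :=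
        ex_mul hD hD1 ef (n0 _) (hcn _) hK0 (by linarith)
      have hKD : K * D ^ (r - δ / 2 / 2) ≤ K ^ 2 * D ^ (r - δ / 2 / 2) :=
        mul_le_mul_of_nonneg_right hKK (dp _).le
      have hKp : 0 ≤ K ^ 2 * D ^ (r - δ / 2 / 2) := by positivity
      linarith
    have := hfin r _ key
    rwa [show r - δ / 2 = p (cs s) + δ by rw [hr]; ring] at this
  · have cc := q (xs s) (xs_ge s)
    rw [nb_xs] at cc
    set r : ℝ := p (xs s) + δ + δ / 2 with hr
    have key : |bb (inc n x) 0 * c 5 + bb (inc n x) 1 * c 6| ≤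
        10 * K ^ 2 * D ^ (r - δ / 2 / 2) := by
      refine t2.trans ?_
      have u1 : lc / lp * |c 11| ≤ K * D ^ (r - δ / 2 / 2) :=
        ex_mul hD hD1 er (n0 _) (hcn _) hK0 (by linarith)
      have u3 : |(inc n x).et| / lc * |c 9| ≤ K * D ^ (r - δ / 2 / 2) :=
        ex_mul hD hD1 ee (n0 _) (hcn _) hK0 (by linarith)
      have u4 : |(inc n x).d| / (lz * lc) * |c 5| ^ 2 ≤ K ^ 2 * D ^ (r - δ / 2 / 2) :=
        ex_mul hD hD1 ef (by positivity) (ex_sq hD (n0 _) (hcn _)) (by positivity) (by linarith)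
      have u5 : |(inc n x).d| / (lz * lc) * |c 6| ^ 2 ≤ K ^ 2 * D ^ (r - δ / 2 / 2) :=
        ex_mul hD hD1 ef (by positivity) (ex_sq hD (n0 _) (hcn _)) (by positivity) (by linarith)
      have hKD : K * D ^ (r - δ / 2 / 2) ≤ K ^ 2 * D ^ (r - δ / 2 / 2) :=
        mul_le_mul_of_nonneg_right hKK (dp _).le
      have hKp : 0 ≤ K ^ 2 * D ^ (r - δ / 2 / 2) := by positivity
      linarith
    have := hfin r _ key
    rwa [show r - δ / 2 = p (xs s) + δ by rw [hr]; ring] at this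
  · have ca := q (cs s) (cs_ge s)
    have cb := q (bs s) (bs_ge s)
    have cx := q (xs s) (xs_ge s)
    rw [nb_cs] at ca
    rw [nb_bs] at cb
    rw [nb_xs] at cx
    set r : ℝ := 2 * δ + δ / 2 with hr
    have key : |bb (inc n z) s - bb (inc n x) s| ≤ 10 * K ^ 2 * D ^ (r - δ / 2 / 2) := by
      refine (t3 s).trans ?_
      have u1 : lc / lp * |c (bs s)| ≤ K * D ^ (r - δ / 2 / 2) :=
        ex_mul hD hD1 er (n0 _) (hcn _) hK0 (by linarith)
      have u3 : |(inc n x).et| / lc * |c (cs s)| ≤ K * D ^ (r - δ / 2 / 2) :=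
        ex_mul hD hD1 ee (n0 _) (hcn _) hK0 (by linarith)
      have u4 : |(inc n x).d| / (lz * lc) * |c (xs s)| ≤ K * D ^ (r - δ / 2 / 2) :=
        ex_mul hD hD1 ef (n0 _) (hcn _) hK0 (by linarith)
      have hKD : K * D ^ (r - δ / 2 / 2) ≤ K ^ 2 * D ^ (r - δ / 2 / 2) :=
        mul_le_mul_of_nonneg_right hKK (dp _).le
      have hKp : 0 ≤ K ^ 2 * D ^ (r - δ / 2 / 2) := by positivity
      linarith
    have := hfin r _ key
    rwa [show r - δ / 2 = 2 * δ by rw [hr]; ring] at this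

theorem FlagE.dim_nat (h : FlagE B I lev inc σ k0 ϑ) (w0 sa sb : ℝ) {v t y δ : ℝ}
    (hm : Mrg k0 ϑ v t y δ) {K : ℝ} (hK : 1 ≤ K) :
    ∀ᶠ n in (U : Filter ℕ), ∀ p : Fin 12 → ℝ,
      (∀ k, |p k - PL504.nb w0 sa sb v t y k| ≤ δ / 2) → ∀ x ∈ I n, ∀ z : ℕ × ℝ,
      Near (Gd222.coN B lev inc σ w0 sa sb n) (B.d n) p K x z →
      (∀ s, |bb (inc n x) 0 * Gd222.coN B lev inc σ w0 sa sb n x z 3 +
        bb (inc n x) 1 * Gd222.coN B lev inc σ w0 sa sb n x z 4| ≤ B.d n ^ (p (cs s) + δ)) ∧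
      (∀ s, |bb (inc n x) 0 * Gd222.coN B lev inc σ w0 sa sb n x z 5 +
        bb (inc n x) 1 * Gd222.coN B lev inc σ w0 sa sb n x z 6| ≤ B.d n ^ (p (xs s) + δ)) ∧
      ∀ s, |bb (inc n z) s - bb (inc n x) s| ≤ B.d n ^ (2 * δ) := by
  filter_upwards [h.dim_nat' w0 sa sb hm hK] with n hn p hp
  exact hn p fun k _ => hp k

end dim

/-! ### tangents -/

section tan

variable {B : Base} {I0 I : ℕ → Finset (ℕ × ℝ)} {lev : ℕ → ℚ → ℕ} {inc : ℕ → ℕ × ℝ → LInc}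
    {σ : Fin 2 → ℕ → ℝ} {k0 ϑ w0 sa sb : ℝ} {a b : Fin 2}
    {C R s c₀ : ℝ} {PD : Set (Fin 12 → ℝ)} {D : (Fin 12 → ℝ) → ℝ}
    {r o : ℝ → Fin 12 → ℝ} {E : ℝ → ℝ} {T : Fin 12 → Prop} {ν own : (Fin 12 → ℝ) → ℝ}

/-- **[X-DIM] for tangents** along base points which tend to a natural box with margins. -/
theorem lam_lip'
    (h : ExtQ B I0 I (Gd222.coN B lev inc σ w0 sa sb) monL C R 0 w0 s PD D r o E T ν own c₀)
    (hF : FlagX B I lev inc σ k0 ϑ a b) {v t y : ℝ} (h0t : 0 < t) (htk : t < y + k0)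
    (hvt : ϑ < v + t) {P Dm : Set (Fin 12 → ℝ)} (hP : P ⊆ Leg monL R) {x : ℕ → Fin 12 → ℝ}
    {hh : ℕ → ℝ} {lam : (Fin 12 → ℝ) → ℝ} (ht : IsTan P Dm ν x hh lam)
    (hx : ∀ k, 3 ≤ k → Tendsto (fun l => x l k) atTop (𝓝 (PL504.nb w0 sa sb v t y k))) (hh0 : ∀ l, 0 < hh l)
    (hh1 : Tendsto hh atTop (𝓝 0)) (hxC : ∀ l, x l (cs b) ≤ x l (cs a))
    (hxX : ∀ l, x l (xs b) ≤ x l (xs a)) {c c' : Fin 12 → ℝ} (hc : c ∈ Dm) (hc' : c' ∈ Dm)
    (hcc : c ≤ c') (h1 : c' (cs b) ≤ c (cs b) ∨ c' (cs b) ≤ c' (cs a))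
    (h2 : c' (xs b) ≤ c (xs b) ∨ c' (xs b) ≤ c' (xs a)) :
    lam c - lam c' ≤ ∑ k ∈ ({cs b, xs b} : Finset (Fin 12))ᶜ, (c' k - c k) := by
  obtain ⟨δ, hm⟩ := exists_mrg h0t htk hvt
  refine le_of_forall_pos_le_add fun ε hε => ?_
  have near : ∀ c : Fin 12 → ℝ, ∀ᶠ l in (atTop : Filter ℕ),
      ∀ k, 3 ≤ k → |(x l + hh l • c) k - PL504.nb w0 sa sb v t y k| ≤ δ := by
    intro c
    rw [eventually_all]
    intro k
    by_cases hk : 3 ≤ k
    · have h3 : Tendsto (fun l => (x l + hh l • c) k) atTop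
          (𝓝 (PL504.nb w0 sa sb v t y k + 0 * c k)) := (hx k hk).add (hh1.mul_const (c k))
      rw [zero_mul, add_zero] at h3
      filter_upwards [Metric.tendsto_nhds.1 h3 δ hm.pos] with l hl _
      rw [Real.dist_eq] at hl
      exact hl.le
    · exact Eventually.of_forall fun l h => absurd h hk
  obtain ⟨l, e1, e2, n1, n2⟩ := ((ht ‖c‖ (ε / 2) (by positivity)).and
    ((ht ‖c'‖ (ε / 2) (by positivity)).and ((near c).and (near c')))).exists
  obtain ⟨p1, q1⟩ := e1 c hc le_rfl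
  obtain ⟨p2, q2⟩ := e2 c' hc' le_rfl
  have hpos := hh0 l
  have hpp : x l + hh l • c ≤ x l + hh l • c' := by
    intro k
    simp only [Pi.add_apply, Pi.smul_apply, smul_eq_mul]
    have := mul_le_mul_of_nonneg_left (hcc k) hpos.le
    linarith
  have key := nu_lip_nat' h hF hm (hP p1) (hP p2) hpp n1 n2 (by
    simp only [Pi.add_apply, Pi.smul_apply, smul_eq_mul]
    rcases h1 with h1 | h1
    · left
      have := mul_le_mul_of_nonneg_left h1 hpos.le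
      linarith
    · right
      have := mul_le_mul_of_nonneg_left h1 hpos.le
      have := hxC l
      linarith) (by
    simp only [Pi.add_apply, Pi.smul_apply, smul_eq_mul]
    rcases h2 with h2 | h2
    · left
      have := mul_le_mul_of_nonneg_left h2 hpos.le
      linarith
    · right
      have := mul_le_mul_of_nonneg_left h2 hpos.le
      have := hxX l
      linarith)
  have e3 : ∑ k ∈ ({cs b, xs b} : Finset (Fin 12))ᶜ, ((x l + hh l • c') k - (x l + hh l • c) k) =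
      hh l * ∑ k ∈ ({cs b, xs b} : Finset (Fin 12))ᶜ, (c' k - c k) := by
    rw [Finset.mul_sum]
    refine Finset.sum_congr rfl fun k _ => ?_
    simp only [Pi.add_apply, Pi.smul_apply, smul_eq_mul]
    ring
  rw [e3] at key
  have a1 := abs_le.1 q1
  have a2 := abs_le.1 q2
  have h5 : hh l * (lam c - lam c') ≤
      hh l * (∑ k ∈ ({cs b, xs b} : Finset (Fin 12))ᶜ, (c' k - c k) + ε) := by
    linarith [a1.1, a1.2, a2.1, a2.2]
  exact le_of_mul_le_mul_left h5 hpos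

/-- **[X-DIM] for tangents** along base points which tend to a natural box with margins. -/
theorem lam_lip
    (h : ExtQ B I0 I (Gd222.coN B lev inc σ w0 sa sb) monL C R 0 w0 s PD D r o E T ν own c₀)
    (hF : FlagX B I lev inc σ k0 ϑ a b) {v t y : ℝ} (h0t : 0 < t) (htk : t < y + k0)
    (hvt : ϑ < v + t) {P Dm : Set (Fin 12 → ℝ)} (hP : P ⊆ Leg monL R) {x : ℕ → Fin 12 → ℝ}
    {hh : ℕ → ℝ} {lam : (Fin 12 → ℝ) → ℝ} (ht : IsTan P Dm ν x hh lam)
    (hx : Tendsto x atTop (𝓝 (PL504.nb w0 sa sb v t y))) (hh0 : ∀ l, 0 < hh l)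
    (hh1 : Tendsto hh atTop (𝓝 0)) (hxC : ∀ l, x l (cs b) ≤ x l (cs a))
    (hxX : ∀ l, x l (xs b) ≤ x l (xs a)) {c c' : Fin 12 → ℝ} (hc : c ∈ Dm) (hc' : c' ∈ Dm)
    (hcc : c ≤ c') (h1 : c' (cs b) ≤ c (cs b) ∨ c' (cs b) ≤ c' (cs a))
    (h2 : c' (xs b) ≤ c (xs b) ∨ c' (xs b) ≤ c' (xs a)) :
    lam c - lam c' ≤ ∑ k ∈ ({cs b, xs b} : Finset (Fin 12))ᶜ, (c' k - c k) :=
  lam_lip' h hF h0t htk hvt hP ht (fun k _ => (tendsto_pi_nhds.1 hx) k) hh0 hh1 hxC hxX hc hc'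
    hcc h1 h2

end tan

end Crest.Agent.R116.Xd954
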