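import Crest.Agent.R116.SgL1_337
import Crest.Agent.R116.SgO3_219
import Crest.Agent.R116.Xd3_954

/-!
# R116, K-TEXT II-c, Lemma SIG over the RECORD TANGENT (helper337), part 2

* `profL_of`  : the record tangent of an `ExtQ` satisfies `ProfL`, D-max `≤ DL`, `= DL` on the record
* `sigL_all`  : with `D` frozen (708) the three inequalities at every box
  `SL lam v t = frz lam v (-(θa t)) (-(θb t))`, `v ≤ t`, `D_nat + y ≤ lam`
-/

set_option autoImplicit false

open Finset Filter Topology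

namespace Crest.Agent.R116.Sg337

open Crest.Agent.R138.Ex926 (Base U IsTan)
open Crest.Agent.R136.Net191
open Crest.Agent.R136.Lq196
open Crest.Agent.R116.ChL222
open Crest.Agent.R116.PL504 (nb rL DN eL)
open Crest.Agent.R116.Xd954 (cs xs FlagX Mrg)
open Crest.Agent.R116

theorem coneL_sup {p q : Fin 12 → ℝ} (hp : p ∈ coneL) (hq : q ∈ coneL) : p ⊔ q ∈ coneL := by
  intro k e he
  rw [Pi.sup_apply]
  refine sup_le ((hp k e he).trans ?_) ((hq k e he).trans ?_)
  · exact Finset.sum_le_sum fun i _ => mul_le_mul_of_nonneg_left le_sup_left (Nat.cast_nonneg _)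
  · exact Finset.sum_le_sum fun i _ => mul_le_mul_of_nonneg_left le_sup_right (Nat.cast_nonneg _)

theorem tan_zero {P L : Set (Fin 12 → ℝ)} {ν lam : (Fin 12 → ℝ) → ℝ} {x : ℕ → Fin 12 → ℝ}
    {h : ℕ → ℝ} (hpos : ∀ l, 0 < h l) (ht : IsTan P L ν x h lam) (h0 : (0 : Fin 12 → ℝ) ∈ L) :
    lam 0 = 0 := by
  by_contra hne
  have h1 : 0 < |lam 0| := abs_pos.2 hne
  obtain ⟨l, hl⟩ := (ht 1 (|lam 0| / 2) (by positivity)).exists
  have h2 := (hl 0 h0 (by simp)).2
  rw [smul_zero, add_zero, sub_self, zero_sub, abs_neg, abs_mul, abs_of_pos (hpos l)] at h2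
  have h3 := hpos l
  nlinarith

section ext

variable {B : Base} {I0 I : ℕ → Finset (ℕ × ℝ)} {lev : ℕ → ℚ → ℕ} {inc : ℕ → ℕ × ℝ → LInc}
    {σ : Fin 2 → ℕ → ℝ} {k0 ϑ w0 sa sb g q0 q1 θa θb : ℝ} {a b : Fin 2}
    {C R s c₀ : ℝ} {PD : Set (Fin 12 → ℝ)} {D : (Fin 12 → ℝ) → ℝ}
    {o : ℝ → Fin 12 → ℝ} {E : ℝ → ℝ} {T : Fin 12 → Prop} {ν own : (Fin 12 → ℝ) → ℝ}

/-- **the record tangent satisfies `ProfL`** -/
theorem profL_of
    (h : ExtQ B I0 I (Gd222.coN B lev inc σ w0 sa sb) monL C R 0 w0 s PD D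
      (rL θa θb w0 sa sb) o E T ν own c₀)
    (hF : FlagX B I lev inc σ k0 ϑ a b)
    (ho : ∀ v : ℝ, 0 ≤ v → v ≤ 1 → ∀ k, k ≠ 0 → R ≤ o v k)
    (hoz : ∀ v : ℝ, 0 ≤ v → v ≤ 1 → o v 0 = w0 + v)
    {v0 : ℝ} (hv0 : 0 < v0) (hv1 : v0 < 1) (h0t : 0 < θa * (1 - v0))
    (htk : θa * (1 - v0) < θb * (1 - v0) + k0) (hvt : ϑ < v0 + θa * (1 - v0))
    {hh : ℕ → ℝ} (hpos : ∀ l, 0 < hh l) (hh0 : Tendsto hh atTop (𝓝 0))
    {lam : (Fin 12 → ℝ) → ℝ}
    (ht : IsTan (Leg monL R) coneL ν (fun _ => rL θa θb w0 sa sb v0) hh lam) :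
    ProfL s a b lam where
  ab := hF.ab
  anti := fun p hp q hq hpq => SgO219.tan_mono hpos ht h.lip p hp q hq hpq
  sm := fun p hp q hq hpq => by
    have h1 := SgO219.tan_smod (P := Leg monL R) (L := coneL) hpos ht
      (fun p hp q hq hi _ => by
        have := h.submod p hp q hq hi
        linarith)
      p hp q hq hpq (coneL_sup hp hq)
    linarith
  own := fun p hp q hq hpq => by
    have h1 := SgO219.tan_lim hpos ht hp hq
    refine ge_of_tendsto h1 ?_
    have e0 : ∀ c : ℝ, Tendsto (fun l => v0 + hh l * c) atTop (𝓝 v0) := fun c => by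
      have := (hh0.mul_const c).const_add v0
      simpa using this
    filter_upwards [SgO219.tan_ev ht hp, SgO219.tan_ev ht hq,
      (e0 (p 0)).eventually (Ioo_mem_nhds hv0 hv1), (e0 (q 0)).eventually (Ioo_mem_nhds hv0 hv1)]
      with l m1 m2 n1 n2
    have hl := hpos l
    have h2 := PL504.own_inc h m1 m2 (fun k => by
        simp only [Pi.add_apply, Pi.smul_apply, smul_eq_mul]
        have := mul_le_mul_of_nonneg_left (hpq k) hl.le
        linarith) (v := v0 + hh l * p 0) (v' := v0 + hh l * q 0) n1.1.le n1.2.le n2.1.le n2.2.le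
      (by simp only [Pi.add_apply, Pi.smul_apply, smul_eq_mul, PL504.rL_zero_slot]; ring)
      (by simp only [Pi.add_apply, Pi.smul_apply, smul_eq_mul, PL504.rL_zero_slot]; ring)
      (fun k => by
        by_cases hk : k = 0
        · rw [hk, hoz _ n1.1.le n1.2.le]
          simp only [Pi.add_apply, Pi.smul_apply, smul_eq_mul, PL504.rL_zero_slot]
          linarith
        · exact (m1.2 k).trans (ho _ n1.1.le n1.2.le k hk))
    rw [le_div_iff₀ hl]
    nlinarith
  cost := fun p hp q hq hpq h1 h2 => by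
    refine Xd954.lam_lip h hF h0t htk hvt (P := Leg monL R) (Dm := coneL) le_rfl ht ?_ hpos hh0
      (fun l => ?_) (fun l => ?_) hp hq hpq h1 h2
    · rw [PL504.rL_nb]; exact tendsto_const_nhds
    · rw [PL504.rL_nb, Xd954.nb_cs, Xd954.nb_cs]
    · rw [PL504.rL_nb, Xd954.nb_xs, Xd954.nb_xs]

/-- **D-max for the record tangent** -/
theorem dmaxL_of
    (h : ExtQ B I0 I (Gd222.coN B lev inc σ w0 sa sb) monL C R 0 w0 s PD D
      (rL θa θb w0 sa sb) o E T ν own c₀)
    (hD : ∀ v a b : ℝ, D (nb w0 sa sb v a b) = DN g s q0 q1 θa θb v a b)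
    (hE : ∀ v : ℝ, 0 ≤ v → v ≤ 1 → E v = DN g s q0 q1 θa θb v (θa * (1 - v)) (θb * (1 - v)))
    {v0 κ0 : ℝ} (hv0 : 0 < v0) (hv1 : v0 < 1) (hκ0 : 0 < κ0)
    (hPD : ∀ v a b : ℝ, |v - v0| ≤ κ0 → |a - θa * (1 - v0)| ≤ κ0 → |b - θb * (1 - v0)| ≤ κ0 →
      nb w0 sa sb v a b ∈ PD)
    {hh : ℕ → ℝ} (hpos : ∀ l, 0 < hh l) (hh0 : Tendsto hh atTop (𝓝 0))
    {lam : (Fin 12 → ℝ) → ℝ}
    (ht : IsTan (Leg monL R) coneL ν (fun _ => rL θa θb w0 sa sb v0) hh lam) :
    (∀ v x y : ℝ, lam (natB v x y) ≤ DL g s q0 q1 v x y) ∧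
      ∀ t : ℝ, lam (natB t (-(θa * t)) (-(θb * t))) = DL g s q0 q1 t (-(θa * t)) (-(θb * t)) := by
  have h00 : (0 : Fin 12 → ℝ) ∈ coneL := by
    intro k e _
    simp
  have hz := tan_zero hpos ht h00
  have hin0 : nb w0 sa sb v0 (θa * (1 - v0)) (θb * (1 - v0)) ∈ PD :=
    hPD _ _ _ (by simpa using hκ0.le) (by simpa using hκ0.le) (by simpa using hκ0.le)
  have hr0 := h.record v0 hv0.le hv1.le
  have hd0 := h.dmax _ hin0
  rw [hD] at hd0
  rw [hE v0 hv0.le hv1.le] at hr0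
  rw [← PL504.rL_nb] at hd0
  have hx : ∀ (t v x y : ℝ), rL θa θb w0 sa sb v0 + t • natB v x y =
      nb w0 sa sb (v0 + t * v) (θa * (1 - v0) + t * x) (θb * (1 - v0) + t * y) := by
    intro t v x y
    rw [PL504.rL_nb, PL504.nb_add, PL504.eL_smul, eL_bx9]
  have hsm : ∀ c : ℝ, ∀ᶠ l in atTop, |hh l * c| ≤ κ0 := by
    intro c
    have h1 : Tendsto (fun l => |hh l * c|) atTop (𝓝 0) := by
      have := (hh0.mul_const c).abs
      simpa using this
    exact (h1.eventually_lt_const hκ0).mono fun l h => h.le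
  have hlim : ∀ v x y : ℝ, Tendsto (fun l =>
      (ν (rL θa θb w0 sa sb v0 + hh l • natB v x y) - ν (rL θa θb w0 sa sb v0)) / hh l) atTop
      (𝓝 (lam (natB v x y))) := by
    intro v x y
    have h1 := SgO219.tan_lim hpos ht (natB_cone v x y) h00
    rw [hz, sub_zero] at h1
    refine h1.congr fun l => ?_
    rw [smul_zero, add_zero]
  have hDN : ∀ t v x y : ℝ, DN g s q0 q1 θa θb (v0 + t * v) (θa * (1 - v0) + t * x)
      (θb * (1 - v0) + t * y) = DN g s q0 q1 θa θb v0 (θa * (1 - v0)) (θb * (1 - v0)) +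
        t * DL g s q0 q1 v x y := by
    intro t v x y
    unfold DN DL
    ring
  refine ⟨fun v x y => ?_, fun t => ?_⟩
  · refine le_of_tendsto (hlim v x y) ?_
    filter_upwards [hsm v, hsm x, hsm y] with l n1 n2 n3
    have hl := hpos l
    have h1 := h.dmax _ (hPD (v0 + hh l * v) (θa * (1 - v0) + hh l * x)
      (θb * (1 - v0) + hh l * y) (by simpa using n1) (by simpa using n2) (by simpa using n3))
    rw [hD, hDN] at h1
    rw [hx, div_le_iff₀ hl]
    linarith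
  · refine tendsto_nhds_unique (hlim t (-(θa * t)) (-(θb * t))) ?_
    refine tendsto_const_nhds.congr' ?_
    have e0 : Tendsto (fun l => v0 + hh l * t) atTop (𝓝 v0) := by
      have := (hh0.mul_const t).const_add v0
      simpa using this
    filter_upwards [hsm t, hsm (-(θa * t)), hsm (-(θb * t)), e0.eventually (Ioo_mem_nhds hv0 hv1)]
      with l n1 n2 n3 n4
    have hl := hpos l
    have h1 := h.dmax _ (hPD (v0 + hh l * t) (θa * (1 - v0) + hh l * (-(θa * t)))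
      (θb * (1 - v0) + hh l * (-(θb * t))) (by simpa using n1) (by simpa using n2)
      (by simpa using n3))
    have h2 := h.record (v0 + hh l * t) n4.1.le n4.2.le
    have e1 : θa * (1 - (v0 + hh l * t)) = θa * (1 - v0) + hh l * (-(θa * t)) := by ring
    have e2 : θb * (1 - (v0 + hh l * t)) = θb * (1 - v0) + hh l * (-(θb * t)) := by ring
    rw [hE _ n4.1.le n4.2.le, PL504.rL_nb, e1, e2, hDN] at h2
    rw [hD, hDN] at h1
    rw [hx, eq_div_iff hl.ne']
    linarith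

end ext

/-! ### the plane `Σ` with `D` frozen -/

/-- the frozen box over the record point of parameter `t`, at the height `v` -/
def SL (θa θb lam v t : ℝ) : Fin 12 → ℝ := frz lam v (-(θa * t)) (-(θb * t))

theorem frz_single (lam z C P : ℝ) : frz lam z C P =
    natB z C P + (lam - (P - 2 * C - z)) • (Pi.single 1 1 : Fin 12 → ℝ) := by
  funext k
  fin_cases k <;> simp [frz, natB, bx9, Pi.single_apply]

theorem natB_smul (θa θb t : ℝ) : natB t (-(θa * t)) (-(θb * t)) = t • PL504.βL θa θb := by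
  rw [← eL_bx9]
  unfold PL504.βL
  rw [← PL504.eL_smul]
  congr 1 <;> ring

section sig

variable {s q0 q1 c θa θb : ℝ} {a b : Fin 2} {g : (Fin 12 → ℝ) → ℝ}

theorem SL_cone {lam v t : ℝ} (hl : -(θb * t) - 2 * (-(θa * t)) - v ≤ lam) :
    SL θa θb lam v t ∈ coneL := by
  unfold SL
  rw [frz_eq]
  exact pB_cone ptL0 (by linarith) (by linarith) (by linarith)

/-- value on the plane -/
theorem SL_le (H : ProfL s a b g) (hD : ∀ v x y : ℝ, g (natB v x y) ≤ DL c s q0 q1 v x y)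
    {lam v t : ℝ} (hl : -(θb * t) - 2 * (-(θa * t)) - v ≤ lam) :
    g (SL θa θb lam v t) ≤ DL c s q0 q1 v (-(θa * t)) (-(θb * t)) := by
  refine le_trans ?_ (hD v _ _)
  have := (H.anti _ (natB_cone v (-(θa * t)) (-(θb * t))) _ (SL_cone hl)
    (bx9_le le_rfl hl le_rfl le_rfl le_rfl le_rfl le_rfl le_rfl le_rfl)).1
  linarith

/-- value on the record -/
theorem SL_rec
    (hR : ∀ t : ℝ, g (natB t (-(θa * t)) (-(θb * t))) = DL c s q0 q1 t (-(θa * t)) (-(θb * t)))
    (hfz : ∀ t y : ℝ, 0 ≤ y → g (t • PL504.βL θa θb + y • (Pi.single 1 1 : Fin 12 → ℝ)) =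
      g (t • PL504.βL θa θb))
    {lam t : ℝ} (hl : -(θb * t) - 2 * (-(θa * t)) - t ≤ lam) :
    g (SL θa θb lam t t) = DL c s q0 q1 t (-(θa * t)) (-(θb * t)) := by
  unfold SL
  rw [frz_single, natB_smul, hfz _ _ (by linarith), ← natB_smul]
  exact hR t

/-- **Lemma SIG, from the record to the plane `Σ`, over the record tangent** -/
theorem sigL_all (H : ProfL s a b g) (hD : ∀ v x y : ℝ, g (natB v x y) ≤ DL c s q0 q1 v x y)
    (hR : ∀ t : ℝ, g (natB t (-(θa * t)) (-(θb * t))) = DL c s q0 q1 t (-(θa * t)) (-(θb * t)))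
    (hfz : ∀ t y : ℝ, 0 ≤ y → g (t • PL504.βL θa θb + y • (Pi.single 1 1 : Fin 12 → ℝ)) =
      g (t • PL504.βL θa θb))
    {lam v t y : ℝ} (hvt : v ≤ t) (y0 : 0 ≤ y) (hl : -(θb * t) - 2 * (-(θa * t)) - v + y ≤ lam) :
    SL θa θb lam v t + y • uC ∈ coneL ∧ SL θa θb lam v t + y • uP ∈ coneL ∧
      SL θa θb lam v t + y • uCP ∈ coneL ∧
      q0 * y ≤ g (SL θa θb lam v t) - g (SL θa θb lam v t + y • uC) ∧
      q1 * y ≤ g (SL θa θb lam v t) - g (SL θa θb lam v t + y • uP) ∧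
      (c + q0 + q1) * y ≤ g (SL θa θb lam v t) - g (SL θa θb lam v t + y • uCP) := by
  have hr := SL_rec hR hfz (lam := lam) (t := t) (by linarith)
  unfold SL at hr ⊢
  rw [← fC_add, ← fP_add, ← fCP_add]
  have d1 := coarseL (lam := lam) (C := -(θa * t)) (P := -(θb * t)) H hvt (y2 := 0) (y3 := y)
    (y5 := 0) (y7 := 0) le_rfl y0 le_rfl le_rfl (ptLC y0) (by linarith) (by linarith)
    (by linarith) (by linarith)
  have d2 := coarseL (lam := lam) (C := -(θa * t)) (P := -(θb * t)) H hvt (y2 := y) (y3 := 0)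
    (y5 := y) (y7 := y) y0 le_rfl y0 y0 (ptLP y0) (by linarith) (by linarith)
    (by linarith) (by linarith)
  have d3 := coarseL (lam := lam) (C := -(θa * t)) (P := -(θb * t)) H hvt (y2 := 0) (y3 := y)
    (y5 := 0) (y7 := y) le_rfl y0 le_rfl y0 (ptLCP y0) (by linarith) (by linarith)
    (by linarith) (by linarith)
  rw [← fC_eq, ← fC_eq] at d1
  rw [← fP_eq, ← fP_eq] at d2
  rw [← fCP_eq, ← fCP_eq] at d3
  have c1 := recL_C (lam := lam) (y := y) H (by linarith) y0 hr.ge (hD t _ _)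
  have c2 := recL_P (lam := lam) (y := y) H (by linarith) y0 hr.ge (hD t _ _)
  have c3 := recL_CP (lam := lam) (y := y) H (by linarith) y0 hr.ge (hD _ _ _)
  refine ⟨?_, ?_, ?_, c1.trans d1, c2.trans d2, c3.trans d3⟩
  · rw [fC_eq]; exact pB_cone (ptLC y0) (by linarith) (by linarith) (by linarith)
  · rw [fP_eq]; exact pB_cone (ptLP y0) (by linarith) (by linarith) (by linarith)
  · rw [fCP_eq]; exact pB_cone (ptLCP y0) (by linarith) (by linarith) (by linarith)

end sig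

end Crest.Agent.R116.Sg337
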