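import Crest.Agent.R116.CtxB_468
import Crest.Agent.R116.SgL2_337
import Crest.Agent.R116.SgZ_388
import Crest.Agent.R116.Sg3a_635
import Crest.Agent.R116.Fz2_708

/-!
# R116, row U (helper194), part 1: the record tangent with the slot `D` frozen

* `mem_near`   : small offsets of `coneL` at a record point are legal
* `RecT`       : package of the record tangent
* **`exists_rec`** : context of the thin case, no visible slot, micro form of D0 ⊢ `RecT`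
-/

set_option autoImplicit false
set_option linter.unusedVariables false

open Set Filter Topology MeasureTheory
open scoped NNReal

namespace Crest.Agent.R116.RowU194

open Crest.Agent.R138.Defs (E2)
open Crest.Agent.R138.Ex926 (Base U IsTan)
open Crest.Agent.R136
open Crest.Agent.R136.MkA627
open Crest.Agent.R136.Net191
open Crest.Agent.R136.TD627
open Crest.Agent.R136.Lq196
open Crest.Agent.R116.LZg725
open Crest.Agent.R116.ChL222
open Crest.Agent.R116.PL504 (βL eL rL oL Shift nb DN)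
open Crest.Agent.R116.Gd222 (TSet sN PDL DT vb)
open Crest.Agent.R116.KI439
open Crest.Agent.R116.KF439 (PL Thin frF flF scN)
open Crest.Agent.R116.Tw468
open Crest.Agent.R116.CtxB468
open Crest.Agent.R116.Sg337 (coneL ProfL DL natB natB_smul)

/-- single direction of the slot `D` -/
abbrev e1 : Fin 12 → ℝ := Pi.single 1 1

theorem mem_near {θa θb w0 sa sb δ R v0 : ℝ} (sh : Shift θa θb w0 sa sb δ R) (hv0 : 0 ≤ v0)
    (hv1 : v0 ≤ 1) (hR : w0 + v0 + (θb * (1 - v0) + sb) < R) {h : ℕ → ℝ} (hpos : ∀ l, 0 < h l)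
    (h0 : Tendsto h atTop (𝓝 0)) (C : ℝ) :
    ∀ᶠ l in atTop, ∀ c ∈ coneL, ‖c‖ ≤ C → rL θa θb w0 sa sb v0 + h l • c ∈ Leg monL R := by
  set m : ℝ := min δ (R - (w0 + v0 + (θb * (1 - v0) + sb))) with hm
  have hm0 : 0 < m := lt_min sh.d0 (by linarith)
  have hC : (0:ℝ) < |C| + 1 := by positivity
  filter_upwards [h0.eventually_lt_const (div_pos hm0 hC)] with l hl c hc hcC
  have hh := hpos l
  have h1 : h l * (|C| + 1) < m := by rwa [lt_div_iff₀ hC] at hl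
  have h2 : ∀ k, |h l * c k| ≤ m := fun k => by
    have h3 := norm_le_pi_norm c k
    rw [Real.norm_eq_abs] at h3
    rw [abs_mul, abs_of_pos hh]
    have h4 : |c k| ≤ |C| + 1 := by linarith [le_abs_self C]
    have := mul_le_mul_of_nonneg_left h4 hh.le
    linarith
  have hr : ∀ k, rL θa θb w0 sa sb v0 k ≤ w0 + v0 + (θb * (1 - v0) + sb) := fun k =>
    PL504.eL_le (sh.d0.le.trans (sh.bz hv0)) (sh.d0.le.trans (sh.bc hv0 hv1))
      (sh.d0.le.trans (sh.bD hv0 hv1)) le_rfl k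
  refine ⟨⟨fun k => ?_, fun k e he => ?_⟩, fun k => ?_⟩
  · simp only [Pi.add_apply, Pi.smul_apply, smul_eq_mul]
    have h3 := sh.rL_pos hv0 hv1 k
    have h4 := abs_le.1 (h2 k)
    have h5 : m ≤ δ := min_le_left _ _
    linarith [h4.1]
  · simp only [Pi.add_apply, Pi.smul_apply, smul_eq_mul, mul_add, Finset.sum_add_distrib]
    have h3 := PL504.eL_wall (w0 + v0) (θa * (1 - v0) + sa) (θb * (1 - v0) + sb) k he
    change ∑ s, (e s : ℝ) * rL θa θb w0 sa sb v0 s = rL θa θb w0 sa sb v0 k at h3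
    have h4 := mul_le_mul_of_nonneg_left (hc k e he) hh.le
    rw [Finset.mul_sum] at h4
    have h5 : ∑ x, (e x : ℝ) * (h l * c x) = ∑ x, h l * ((e x : ℝ) * c x) :=
      Finset.sum_congr rfl fun x _ => by ring
    rw [h3, h5]
    linarith
  · simp only [Pi.add_apply, Pi.smul_apply, smul_eq_mul]
    have h4 := abs_le.1 (h2 k)
    have h5 : m ≤ R - (w0 + v0 + (θb * (1 - v0) + sb)) := min_le_right _ _
    linarith [h4.2, hr k]

/-- Lipschitz constant of a function with the bounds of `ExtQ.lip` -/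
theorem lip_norm {P : Set (Fin 12 → ℝ)} {ν : (Fin 12 → ℝ) → ℝ}
    (hsup : ∀ p ∈ P, ∀ q ∈ P, p ⊔ q ∈ P)
    (hl : ∀ p ∈ P, ∀ q ∈ P, p ≤ q → 0 ≤ ν p - ν q ∧ ν p - ν q ≤ ∑ k, (q k - p k)) :
    ∀ p ∈ P, ∀ q ∈ P, |ν p - ν q| ≤ 12 * ‖p - q‖ := by
  have key : ∀ p ∈ P, ∀ q ∈ P, ν p - ν q ≤ 12 * ‖p - q‖ := by
    intro p hp q hq
    have h1 := (hl p hp _ (hsup p hp q hq) le_sup_left).2
    have h2 := (hl q hq _ (hsup p hp q hq) le_sup_right).1
    have h3 : ∑ k : Fin 12, ((p ⊔ q) k - p k) ≤ ∑ _k : Fin 12, ‖p - q‖ := by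
      refine Finset.sum_le_sum fun k _ => ?_
      have h4 := norm_le_pi_norm (p - q) k
      rw [Real.norm_eq_abs, Pi.sub_apply] at h4
      rw [Pi.sup_apply]
      rcases le_total (p k) (q k) with h5 | h5
      · rw [sup_eq_right.2 h5]
        have := neg_abs_le (p k - q k); linarith
      · rw [sup_eq_left.2 h5, sub_self]; exact norm_nonneg _
    have h6 : ∑ _k : Fin 12, ‖p - q‖ = 12 * ‖p - q‖ := by simp
    linarith
  intro p hp q hq
  rw [abs_le]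
  have h1 := key q hq p hp
  rw [norm_sub_rev] at h1
  exact ⟨by linarith, key p hp q hq⟩

/-- **package of the record tangent**: fixed base `rL v0`, units `hh`, tangents `g` -/
structure RecT {J : Type*} (R w0 sa sb θa θb s c q0 q1 : ℝ) (a b : Fin 2)
    (f : J → (Fin 12 → ℝ) → ℝ) (j0 : J) (v0 : ℝ) (hh : ℕ → ℝ) (g : J → (Fin 12 → ℝ) → ℝ) :
    Prop where
  v00 : 0 < v0
  v01 : v0 < 1
  pos : ∀ l, 0 < hh l
  lim : Tendsto hh atTop (𝓝 0)
  tan : ∀ j, IsTan (Leg monL R) coneL (f j) (fun _ => rL θa θb w0 sa sb v0) hh (g j)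
  lip : ∀ j, ∀ p ∈ coneL, ∀ q ∈ coneL, |g j p - g j q| ≤ 12 * ‖p - q‖
  prof : ProfL s a b (g j0)
  dmax : ∀ v x y : ℝ, g j0 (natB v x y) ≤ DL c s q0 q1 v x y
  recd : ∀ t : ℝ, g j0 (natB t (-(θa * t)) (-(θb * t))) = DL c s q0 q1 t (-(θa * t)) (-(θb * t))
  frz : ∀ t y : ℝ, 0 ≤ y → g j0 (t • βL θa θb + y • e1) = g j0 (t • βL θa θb)

theorem isClosed_coneL : IsClosed coneL := by
  rw [← Sg635.PP_eq]
  have e : SgO219.PP (Dg219.mw monL) =
      ⋂ w, {p | p ((Dg219.mw monL).hd w) ≤ (Dg219.mw monL).rhs w p + (Dg219.mw monL).cst w} := by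
    ext p; simp [SgO219.PP]
  rw [e]
  exact isClosed_iInter fun w => isClosed_le (continuous_apply _)
    (((Dg219.mw monL).rhs_cont w).add continuous_const)

theorem zero_coneL : (0 : Fin 12 → ℝ) ∈ coneL := by
  intro k e _
  simp

theorem beta_coneL (θa θb t : ℝ) : t • βL θa θb ∈ coneL := by
  rw [← natB_smul]
  exact Sg337.natB_cone _ _ _

theorem beta_e1_coneL (θa θb t : ℝ) {y : ℝ} (hy : 0 ≤ y) : t • βL θa θb + y • e1 ∈ coneL := by
  have h := Sg337.SL_cone (θa := θa) (θb := θb) (lam := (-(θb * t) - 2 * (-(θa * t)) - t) + y)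
    (v := t) (t := t) (by linarith)
  unfold Sg337.SL at h
  rw [Sg337.frz_single, natB_smul] at h
  convert h using 3
  ring

section ext

variable {B : Base} {I0 I : ℕ → Finset (ℕ × ℝ)} {lev : ℕ → ℚ → ℕ} {inc : ℕ → ℕ × ℝ → LInc}
    {σ : Fin 2 → ℕ → ℝ} {k0 ϑ w0 sa sb g q0 q1 θa θb δ : ℝ} {a b : Fin 2}
    {C R s c₀ : ℝ} {PD : Set (Fin 12 → ℝ)} {D : (Fin 12 → ℝ) → ℝ}
    {o : ℝ → Fin 12 → ℝ} {E : ℝ → ℝ} {T : Fin 12 → Prop} {ν own : (Fin 12 → ℝ) → ℝ}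

/-- **existence of the record tangent** -/
theorem exists_rec_ext
    (h : ExtQ B I0 I (Gd222.coN B lev inc σ w0 sa sb) monL C R 0 w0 s PD D
      (rL θa θb w0 sa sb) o E T ν own c₀)
    (hF : Xd954.FlagX B I lev inc σ k0 ϑ a b)
    (sh : Shift θa θb w0 sa sb δ R)
    (ho : ∀ v : ℝ, 0 ≤ v → v ≤ 1 → ∀ k, k ≠ 0 → R ≤ o v k)
    (hoz : ∀ v : ℝ, 0 ≤ v → v ≤ 1 → o v 0 = w0 + v)
    (hD : ∀ v a b : ℝ, D (nb w0 sa sb v a b) = DN g s q0 q1 θa θb v a b)
    (hE : ∀ v : ℝ, 0 ≤ v → v ≤ 1 → E v = DN g s q0 q1 θa θb v (θa * (1 - v)) (θb * (1 - v)))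
    (hR : ∀ v : ℝ, 0 ≤ v → v ≤ 1 → w0 + v + (θb * (1 - v) + sb) < R)
    (h0t : ∀ v : ℝ, 0 < v → v < 1 → 0 < θa * (1 - v))
    (htk : ∀ v : ℝ, 0 < v → v < 1 → θa * (1 - v) < θb * (1 - v) + k0)
    (hvt : ∀ v : ℝ, 0 < v → v < 1 → ϑ < v + θa * (1 - v))
    (hPD : ∀ v0 : ℝ, 0 < v0 → v0 < 1 → ∃ κ0 : ℝ, 0 < κ0 ∧ ∀ v a b : ℝ, |v - v0| ≤ κ0 →
      |a - θa * (1 - v0)| ≤ κ0 → |b - θb * (1 - v0)| ≤ κ0 → nb w0 sa sb v a b ∈ PD)
    (hmic : ∀ᵐ v : ℝ, v ∈ Ioo (0:ℝ) 1 → Tendsto (fun y : ℝ =>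
      (ν (rL θa θb w0 sa sb v) - ν (rL θa θb w0 sa sb v + y • e1)) / y) (𝓝[>] 0) (𝓝 0))
    {J : Type*} [Finite J] {f : J → (Fin 12 → ℝ) → ℝ} {j0 : J} (hf0 : f j0 = ν)
    (hfl : ∀ j, ∀ p ∈ Leg monL R, ∀ q ∈ Leg monL R, |f j p - f j q| ≤ 12 * ‖p - q‖)
    {N : Set ℝ} (hN : ∀ᵐ v : ℝ, v ∈ N) :
    ∃ v0 ∈ N, ∃ (hh : ℕ → ℝ) (gg : J → (Fin 12 → ℝ) → ℝ),
      RecT R w0 sa sb θa θb s g q0 q1 a b f j0 v0 hh gg := by
  -- extension of `ν`
  have hsupL : ∀ p ∈ Leg monL R, ∀ q ∈ Leg monL R, p ⊔ q ∈ Leg monL R := fun p hp q hq =>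
    Leg.sup hp hq
  have hνl := lip_norm hsupL h.lip
  have hlipN : LipschitzOnWith 12 ν (Leg monL R) :=
    LipschitzOnWith.of_dist_le_mul fun p hp q hq => by
      rw [Real.dist_eq, dist_eq_norm]
      exact hνl p hp q hq
  obtain ⟨ν', hν', he⟩ := hlipN.extend_real
  have hν'' : ∀ p q, |ν' p - ν' q| ≤ 12 * dist p q := fun p q => by
    have := hν'.dist_le_mul p q
    rwa [Real.dist_eq] at this
  have he' : ∀ p ∈ Leg monL R, ν' p = ν p := fun p hp => (he hp).symm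
  set y0 : Fin 12 → ℝ := rL θa θb w0 sa sb 0 with hy0
  have hline : ∀ v : ℝ, y0 + v • βL θa θb = rL θa θb w0 sa sb v := fun v => by
    funext k
    rw [PL504.rL_lin θa θb w0 sa sb v k]
    simp only [Pi.add_apply, Pi.smul_apply, smul_eq_mul, hy0]
    ring
  have hmic' : ∀ᵐ v : ℝ, v ∈ Ioo (0:ℝ) 1 → Tendsto (fun y : ℝ =>
      (ν' (y0 + v • βL θa θb) - ν' (y0 + v • βL θa θb + y • e1)) / y) (𝓝[>] 0) (𝓝 0) := by
    filter_upwards [hmic] with v hv hvI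
    have hmem := mem_near (v0 := v) sh hvI.1.le hvI.2.le (hR v hvI.1.le hvI.2.le)
      (h := fun l : ℕ => 1 / ((l : ℝ) + 1)) (fun l => by positivity)
      tendsto_one_div_add_atTop_nhds_zero_nat 1
    -- for small `y` the box `rL v + y e1` is legal
    obtain ⟨l, hl⟩ := hmem.exists
    have hmem2 : ∀ y : ℝ, 0 ≤ y → y ≤ 1 / ((l : ℝ) + 1) →
        rL θa θb w0 sa sb v + y • e1 ∈ Leg monL R := by
      intro y hy1 hy2
      have hl0 : (0:ℝ) < 1 / ((l : ℝ) + 1) := by positivity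
      have h3 := hl ((y / (1 / ((l : ℝ) + 1))) • e1) (by
        have := beta_e1_coneL θa θb 0 (y := y / (1 / ((l : ℝ) + 1))) (div_nonneg hy1 hl0.le)
        rwa [zero_smul, zero_add] at this) (by
        rw [norm_smul, Real.norm_of_nonneg (div_nonneg hy1 hl0.le)]
        have h4 : ‖e1‖ ≤ 1 := by
          rw [pi_norm_le_iff_of_nonneg zero_le_one]
          intro i
          by_cases hi : i = 1
          · subst hi; simp [e1]
          · simp [e1, Pi.single_eq_of_ne hi]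
        have h5 : y / (1 / ((l : ℝ) + 1)) ≤ 1 := by rw [div_le_one hl0]; exact hy2
        calc _ ≤ (1:ℝ) * 1 := mul_le_mul h5 h4 (norm_nonneg _) zero_le_one
          _ = 1 := one_mul 1)
      rw [smul_smul, mul_div_cancel₀ _ hl0.ne'] at h3
      exact h3
    refine (hv hvI).congr' ?_
    have hl0 : (0:ℝ) < 1 / ((l : ℝ) + 1) := by positivity
    have h6 : ∀ᶠ y in 𝓝[>] (0 : ℝ), y ≤ 1 / ((l : ℝ) + 1) :=
      nhdsWithin_le_nhds (Iic_mem_nhds hl0)
    filter_upwards [h6, self_mem_nhdsWithin] with y hy1 hy2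
    have hy2' : (0 : ℝ) < y := hy2
    have m0 := hmem2 0 le_rfl hl0.le
    rw [zero_smul, add_zero] at m0
    rw [hline, he' _ m0, he' _ (hmem2 y hy2'.le hy1)]
  have hfz := Fz708.ae_frzAt (e := e1) (K := 12) (by norm_num) hν'' isOpen_Ioo hmic'
  -- choice of the point
  obtain ⟨v0, hvN, hv0, hv1, hfv⟩ : ∃ v0 ∈ N, 0 < v0 ∧ v0 < 1 ∧
      Fz708.FrzAt ν' y0 (βL θa θb) e1 v0 := by
    by_contra hcon
    push Not at hcon
    have h1 : volume (Ioo (0:ℝ) 1) = 0 := by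
      refine measure_mono_null (t := {v | ¬ (v ∈ N ∧ (v ∈ Ioo (0:ℝ) 1 →
        Fz708.FrzAt ν' y0 (βL θa θb) e1 v))}) (fun v hv hP => ?_) (ae_iff.1 (hN.and hfz))
      exact hcon v hP.1 hv.1 hv.2 (hP.2 hv)
    rw [Real.volume_Ioo] at h1
    simp at h1
  -- tangents at `rL v0`
  have hkpos : ∀ l : ℕ, (0:ℝ) < 1 / ((l : ℝ) + 1) := fun l => by positivity
  obtain ⟨φ, hφ, gg, hgg⟩ := Rc683.exists_tan (J := J) (P := fun _ => Leg monL R)
    (D := fun _ => coneL) (ν := f) (fun _ => isClosed_coneL) (K := 12) (by norm_num) hfl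
    (x := fun _ => rL θa θb w0 sa sb v0) hkpos
    (fun _ C => mem_near sh hv0.le hv1.le (hR v0 hv0.le hv1.le) hkpos
      tendsto_one_div_add_atTop_nhds_zero_nat C) (fun _ => zero_coneL)
  set hh : ℕ → ℝ := fun l => 1 / ((φ l : ℝ) + 1) with hhd
  have hpos : ∀ l, 0 < hh l := fun l => hkpos _
  have hh0 : Tendsto hh atTop (𝓝 0) :=
    tendsto_one_div_add_atTop_nhds_zero_nat.comp hφ.tendsto_atTop
  have htν : IsTan (Leg monL R) coneL ν (fun _ => rL θa θb w0 sa sb v0) hh (gg j0) := by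
    rw [← hf0]; exact hgg j0
  obtain ⟨κ0, hκ0, hPD0⟩ := hPD v0 hv0 hv1
  have hdm := Sg337.dmaxL_of h hD hE hv0 hv1 hκ0 hPD0 hpos hh0 htν
  refine ⟨v0, hvN, hh, gg, hv0, hv1, hpos, hh0, hgg, fun j p hp q hq => ?_,
    Sg337.profL_of h hF ho hoz hv0 hv1 (h0t v0 hv0 hv1) (htk v0 hv0 hv1) (hvt v0 hv0 hv1) hpos hh0
      htν, hdm.1, hdm.2, fun t y hy => ?_⟩
  · have := SgO219.tan_lip hpos (hgg j) (K := 12) (fun p hp q hq => by
      rw [dist_eq_norm]; exact hfl j p hp q hq) p hp q hq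
    rwa [dist_eq_norm] at this
  · have htν' : IsTan (Leg monL R) coneL ν (fun _ => y0 + v0 • βL θa θb) hh (gg j0) := by
      rw [hline]; exact htν
    exact Fz708.frz_tan hfv he' hpos hh0 htν' hy (beta_coneL θa θb t) (beta_e1_coneL θa θb t hy)

end ext

end Crest.Agent.R116.RowU194
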