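import Crest.Agent.R116.RowU1_194
import Crest.Agent.R116.SgF_665

/-!
# R116, row U (helper194), part 2: the point of the plane `Σ`

* `xB`      : base boxes `rL v0 + u m • SL θa θb lam0 z.1 z.2`
* `SigP`    : package at a generic point of the plane over the record tangent
* **`exists_sig`** : `RecT` ⊢ `SigP` (any `δ > 0`)
-/

set_option autoImplicit false
set_option linter.unusedVariables false

open Set Filter Topology MeasureTheory
open scoped NNReal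

namespace Crest.Agent.R116.RowU194

open Crest.Agent.R138.Ex926 (Base U IsTan)
open Crest.Agent.R136
open Crest.Agent.R136.Net191
open Crest.Agent.R136.Lq196
open Crest.Agent.R116.ChL222
open Crest.Agent.R116.PL504 (βL eL rL Shift)
open Crest.Agent.R116.Sg337 (coneL ProfL DL natB natB_smul bx9 uC uP uCP SL SL_le SL_rec SL_cone
  sigL_all)
open Dg262 (X SupOn)
open Dg219 (Walls mw gset mem_gset OutS gC dhC nC gC_zero gC_eq)
open SgO219 (PP OO LT)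
open Sg635 (xS aS bS X_eq PP_eq L_eq LMd mem_bx OO_of full aS_nonneg SL_nat1 Nat1 no_one ne_one
  sum_congr' coneL_sub)
open SgF665 (wl wl_add wl_smul)
open SgZ388 (Pack exists_pack_dir)

/-- base boxes over the record -/
noncomputable def xB (θa θb w0 sa sb v0 lam0 : ℝ) (z : ℝ × ℝ) (u : ℕ → ℝ) : ℕ → Fin 12 → ℝ :=
  fun m => rL θa θb w0 sa sb v0 + u m • SL θa θb lam0 z.1 z.2

/-- **package at a generic point of the plane `Σ`** -/
structure SigP {J : Type*} (R w0 sa sb θa θb s c q0 q1 δ : ℝ) (f : J → (Fin 12 → ℝ) → ℝ) (j0 : J)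
    (v0 lam0 : ℝ) (z : ℝ × ℝ) (u k : ℕ → ℝ) (lam : J → (Fin 12 → ℝ) → ℝ) (A : ℝ × ℝ)
    (φ : ℕ → (Fin 12 → ℝ) → ℝ) (r : ℕ → ℝ) : Prop where
  v00 : 0 < v0
  v01 : v0 < 1
  upos : ∀ m, 0 < u m
  u0 : Tendsto u atTop (𝓝 0)
  kpos : ∀ m, 0 < k m
  k0 : Tendsto k atTop (𝓝 0)
  lt : z.1 < z.2
  sl : (2 * θa - θb) * z.2 - z.1 < lam0
  l0 : 0 < lam0
  tan : ∀ j, IsTan (Leg monL R) ((mw monL).L (xS lam0) aS (bS θa θb)) (f j)
    (xB θa θb w0 sa sb v0 lam0 z u) (fun m => u m * k m) (lam j)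
  lip : ∀ j, ∀ p ∈ (mw monL).L (xS lam0) aS (bS θa θb),
    ∀ q ∈ (mw monL).L (xS lam0) aS (bS θa θb), |lam j p - lam j q| ≤ 12 * ‖p - q‖
  out : OutS (gC aS (bS θa θb)) ((mw monL).L (xS lam0) aS (bS θa θb)) (dhC aS (bS θa θb))
    (nC aS (bS θa θb)) (lam j0) A φ r
  sum : ∑ k ∈ (gset (gC aS (bS θa θb))).erase 0, r k ≤ 4 - s - c + δ
  own : ∀ y : ℝ, 0 < y → (1 - s) * y ≤ -lam j0 (bx9 y 0 0 0 0 0 0 0 0)
  iC : ∀ y : ℝ, 0 < y → q0 * y ≤ -lam j0 (y • uC)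
  iP : ∀ y : ℝ, 0 < y → q1 * y ≤ -lam j0 (y • uP)
  iCP : ∀ y : ℝ, 0 < y → (c + q0 + q1) * y ≤ -lam j0 (y • uCP)
  /-- freeze of the slot `D` over the record boxes above the point (helper79) -/
  fz : ∀ ε : ℝ, 0 < ε → ∀ᶠ m in atTop,
    f j0 (rL θa θb w0 sa sb v0 + u m • natB z.2 (-(θa * z.2)) (-(θb * z.2))) -
      f j0 (rL θa θb w0 sa sb v0 + u m • SL θa θb lam0 z.2 z.2) ≤ ε * (u m * k m)
  /-- own bound at every box (asked by helper665) -/
  ownG : ∀ p ∈ (mw monL).L (xS lam0) aS (bS θa θb), ∀ q ∈ (mw monL).L (xS lam0) aS (bS θa θb),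
    p ≤ q → (1 - s) * (q 0 - p 0) ≤ lam j0 p - lam j0 q

theorem uC_mem : uC ∈ LMd := by
  unfold uC; rw [mem_bx]; norm_num
theorem uP_mem : uP ∈ LMd := by
  unfold uP; rw [mem_bx]; norm_num
theorem uCP_mem : uCP ∈ LMd := by
  unfold uCP; rw [mem_bx]; norm_num

/-- **existence of a generic point of the plane `Σ`** -/
theorem exists_sig {J : Type*} [Finite J] {R w0 sa sb θa θb s c q0 q1 : ℝ} {a b : Fin 2}
    {f : J → (Fin 12 → ℝ) → ℝ} {j0 : J} {v0 : ℝ} {hh : ℕ → ℝ} {g : J → (Fin 12 → ℝ) → ℝ}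
    (H : RecT R w0 sa sb θa θb s c q0 q1 a b f j0 v0 hh g) {δ : ℝ} (hδ : 0 < δ)
    {N : Set (ℝ × ℝ)} (hN : ∀ᵐ z, z ∈ N) :
    ∃ (lam0 : ℝ) (z : ℝ × ℝ) (u k : ℕ → ℝ) (lam : J → (Fin 12 → ℝ) → ℝ) (A : ℝ × ℝ)
      (φ : ℕ → (Fin 12 → ℝ) → ℝ) (r : ℕ → ℝ), z ∈ N ∧ (∃ ψ : ℕ → ℕ, StrictMono ψ ∧ u = hh ∘ ψ) ∧
      SigP R w0 sa sb θa θb s c q0 q1 δ f j0 v0 lam0 z u k lam A φ r := by
  -- constants
  set lam0 : ℝ := 3 with hlam0
  have hl0 : lam0 ≠ 0 := by norm_num [hlam0]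
  set K : ℝ := |2 * θa - θb| with hK
  have hK0 : 0 ≤ K := abs_nonneg _
  set q : ℝ := 4 - s - c with hq
  set ε : ℝ := min (1 / 2) (δ / 2 / (|q| + 1)) with hε
  have hε0 : 0 < ε := lt_min (by norm_num) (by positivity)
  have hε1 : ε ≤ 1 / 2 := min_le_left _ _
  have hε2 : |q| * ε ≤ δ / 2 := by
    have h1 : ε ≤ δ / 2 / (|q| + 1) := min_le_right _ _
    rw [le_div_iff₀ (by positivity)] at h1
    nlinarith [abs_nonneg q]
  set η : ℝ := min (ε / 2) (1 / (4 * (K + 1))) with hη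
  have hη0 : 0 < η := lt_min (by linarith) (by positivity)
  have hη1 : η ≤ ε / 2 := min_le_left _ _
  have hη2 : K * η ≤ 1 / 4 := by
    have h1 : η ≤ 1 / (4 * (K + 1)) := min_le_right _ _
    rw [le_div_iff₀ (by positivity)] at h1
    nlinarith
  set Ω : Set (ℝ × ℝ) := {z | z.1 < z.2 ∧ (2 * θa - θb) * z.2 - z.1 + 1 / 2 < lam0} with hΩ
  have hΩO : Ω ⊆ OO (mw monL) (xS lam0) aS (bS θa θb) := fun z hz => OO_of hl0 (by linarith [hz.2])
  have hseg : ∀ w ∈ Icc (0:ℝ) 1, Metric.ball ((-1 - ε, 0) + w • ((1, 0) : ℝ × ℝ)) η ⊆ Ω := by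
    intro w hw z hz
    rw [Metric.mem_ball, Prod.dist_eq, max_lt_iff, Real.dist_eq, Real.dist_eq] at hz
    simp only [Prod.fst_add, Prod.smul_fst, smul_eq_mul, mul_one, Prod.snd_add, Prod.smul_snd,
      mul_zero, add_zero, sub_zero] at hz
    obtain ⟨h1, h2⟩ := hz
    have h1' := abs_lt.1 h1
    have h2' := abs_lt.1 h2
    have h3 : (2 * θa - θb) * z.2 ≤ K * η := by
      refine (le_abs_self _).trans ?_
      rw [abs_mul]
      exact mul_le_mul_of_nonneg_left h2.le hK0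
    refine ⟨?_, ?_⟩
    · linarith [hw.2, h1'.2, h2'.1]
    · linarith [hw.1, h1'.1]
  have hlip : ∀ j, ∀ p ∈ PP (mw monL), ∀ q ∈ PP (mw monL), |g j p - g j q| ≤ 12 * ‖p - q‖ := by
    rw [PP_eq]; exact H.lip
  have hm : ∀ p ∈ PP (mw monL), ∀ q ∈ PP (mw monL), p ≤ q →
      0 ≤ g j0 p - g j0 q ∧ g j0 p - g j0 q ≤ ∑ i, (q i - p i) := by
    rw [PP_eq]; exact H.prof.anti
  have hs : SupOn (g j0) (PP (mw monL)) := by
    rw [PP_eq]; exact fun p hp q hq hi _ => H.prof.sm p hp q hq hi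
  have hX : ∀ z : ℝ × ℝ, X (xS lam0) aS (bS θa θb) z = SL θa θb lam0 z.1 z.2 := X_eq θa θb lam0
  have hqq : g j0 (X (xS lam0) aS (bS θa θb) (-1 - ε, 0)) -
      g j0 (X (xS lam0) aS (bS θa θb) ((-1 - ε, 0) + (1:ℝ) • ((1, 0) : ℝ × ℝ))) ≤
        (q * (1 + ε)) * 1 := by
    rw [hX, hX]
    simp only [Prod.fst_add, Prod.smul_fst, smul_eq_mul, mul_one, Prod.snd_add, Prod.smul_snd,
      mul_zero, add_zero]
    have h1 := SL_le (θa := θa) (θb := θb) (lam := lam0) (v := -1 - ε) (t := 0) H.prof H.dmax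
      (by simp only [mul_zero, neg_zero, sub_zero]; linarith)
    have h2 := SL_rec (θa := θa) (θb := θb) (lam := lam0) (t := 0) H.recd H.frz
      (by simp only [mul_zero, neg_zero, sub_zero]; linarith)
    have hle : SL θa θb lam0 (-1 - ε + 1) 0 ≤ SL θa θb lam0 0 0 := by
      unfold SL Sg337.frz
      refine Sg337.bx9_le ?_ ?_ ?_ ?_ ?_ ?_ ?_ ?_ ?_ <;> linarith
    have h3 := (H.prof.anti _ (SL_cone (θa := θa) (θb := θb) (lam := lam0) (v := -1 - ε + 1)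
      (t := 0) (by simp only [mul_zero, neg_zero, sub_zero]; linarith)) _
      (SL_cone (θa := θa) (θb := θb) (lam := lam0) (v := 0) (t := 0)
      (by simp only [mul_zero, neg_zero, sub_zero]; linarith)) hle).1
    unfold DL at h1 h2
    simp only [mul_zero, neg_zero] at h1 h2
    rw [hq]
    nlinarith
  have hkpos : ∀ l : ℕ, (0:ℝ) < 1 / ((l : ℝ) + 1) := fun l => by positivity
  obtain ⟨z, hzN, hzΩ, -, θ, lam, D, φ, r, P, hsum⟩ := exists_pack_dir (mw monL) (g := g) (j0 := j0)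
    (K := 12) (by norm_num) hlip hm hs aS_nonneg (full θa θb lam0) hΩO (d := (1, 0))
    zero_lt_one hη0 hseg hqq (half_pos hδ) hN hkpos tendsto_one_div_add_atTop_nhds_zero_nat
  have ht : ∀ j, IsTan (Leg monL R) (PP (mw monL)) (f j) (fun _ => rL θa θb w0 sa sb v0) hh
      (g j) := by
    rw [PP_eq]; exact H.tan
  have hz1 := hzΩ.1
  have hz2 := hzΩ.2
  have hzz : -(θb * z.2) - 2 * (-(θa * z.2)) - z.2 ≤ lam0 := by linarith
  have hfz : ∀ m : ℕ, ∀ᶠ l in atTop,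
      f j0 (rL θa θb w0 sa sb v0 + hh l • natB z.2 (-(θa * z.2)) (-(θb * z.2))) -
        f j0 (rL θa θb w0 sa sb v0 + hh l • SL θa θb lam0 z.2 z.2) ≤
        (1 / ((m : ℝ) + 1)) * (1 / ((θ m : ℝ) + 1)) * hh l := by
    intro m
    have h1 := SgO219.tan_lim H.pos (H.tan j0) (Sg337.natB_cone z.2 (-(θa * z.2)) (-(θb * z.2)))
      (SL_cone (θa := θa) (θb := θb) (lam := lam0) (v := z.2) (t := z.2) hzz)
    have h2 : g j0 (natB z.2 (-(θa * z.2)) (-(θb * z.2))) = g j0 (SL θa θb lam0 z.2 z.2) := by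
      rw [H.recd, SL_rec H.recd H.frz hzz]
    rw [h2, sub_self] at h1
    filter_upwards [h1.eventually_lt_const
      (by positivity : (0:ℝ) < (1 / ((m : ℝ) + 1)) * (1 / ((θ m : ℝ) + 1)))] with l hl
    rw [div_lt_iff₀ (H.pos l)] at hl
    exact hl.le
  obtain ⟨ψ, hψ, hPr, hd⟩ := P.diag H.pos ht (Pr := fun m l =>
    f j0 (rL θa θb w0 sa sb v0 + hh l • natB z.2 (-(θa * z.2)) (-(θb * z.2))) -
      f j0 (rL θa θb w0 sa sb v0 + hh l • SL θa θb lam0 z.2 z.2) ≤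
      (1 / ((m : ℝ) + 1)) * (1 / ((θ m : ℝ) + 1)) * hh l) hfz
  have hL := L_eq (θa := θa) (θb := θb) hl0
  refine ⟨lam0, z, hh ∘ ψ, fun m => 1 / ((θ m : ℝ) + 1), lam, (D (1, 0), D (0, 1)), φ, r, hzN,
    ⟨ψ, hψ, rfl⟩, ⟨H.v00, H.v01, fun m => H.pos _, H.lim.comp hψ.tendsto_atTop, fun m => hkpos _,
      tendsto_one_div_add_atTop_nhds_zero_nat.comp P.mono.tendsto_atTop, hzΩ.1, by linarith,
      by norm_num [hlam0], fun j => ?_, fun j => P.lip (hlip j), P.out, ?_, fun y hy => ?_, ?_,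
      ?_, ?_, fun ε hε => ?_, P.lowS j0 0 (1 - s) (by rw [PP_eq]; exact H.prof.own)⟩⟩
  · have := hd j
    rw [hX] at this
    exact this
  · rw [P.sum]
    have h1 : -D (1, 0) ≤ q * (1 + ε) + δ / 2 := hsum
    have h2 : q * ε ≤ δ / 2 := by
      have := mul_le_mul_of_nonneg_right (le_abs_self q) hε0.le
      linarith
    linarith
  · have h0L : (0 : Fin 12 → ℝ) ∈ (mw monL).L (xS lam0) aS (bS θa θb) :=
      (Walls.cone (Q := mw monL)).zero
    have hyL : bx9 y 0 0 0 0 0 0 0 0 ∈ (mw monL).L (xS lam0) aS (bS θa θb) := by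
      rw [hL, mem_bx]
      refine ⟨?_, ?_, ?_, ?_, ?_, ?_, ?_⟩ <;> linarith
    have h1 := P.lowS j0 0 (1 - s) (by rw [PP_eq]; exact H.prof.own) 0 h0L _ hyL (fun i => by
      fin_cases i <;> simp [bx9, hy.le])
    rw [P.zero j0] at h1
    have h2 : bx9 y 0 0 0 0 0 0 0 0 0 = y := rfl
    rw [h2] at h1
    simp only [Pi.zero_apply, sub_zero] at h1
    linarith
  · refine P.incr hzΩ j0 (e := uC) (by rw [hL]; exact uC_mem) (y0 := 1 / 2) (by norm_num)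
      fun z' hz' y hy => ?_
    rw [hX]
    exact (sigL_all H.prof H.dmax H.recd H.frz (lam := lam0) (v := z'.1) (t := z'.2) (y := y)
      hz'.1.le hy.1.le (by linarith [hz'.2, hy.2])).2.2.2.1
  · refine P.incr hzΩ j0 (e := uP) (by rw [hL]; exact uP_mem) (y0 := 1 / 2) (by norm_num)
      fun z' hz' y hy => ?_
    rw [hX]
    exact (sigL_all H.prof H.dmax H.recd H.frz (lam := lam0) (v := z'.1) (t := z'.2) (y := y)
      hz'.1.le hy.1.le (by linarith [hz'.2, hy.2])).2.2.2.2.1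
  · refine P.incr hzΩ j0 (e := uCP) (by rw [hL]; exact uCP_mem) (y0 := 1 / 2) (by norm_num)
      fun z' hz' y hy => ?_
    rw [hX]
    exact (sigL_all H.prof H.dmax H.recd H.frz (lam := lam0) (v := z'.1) (t := z'.2) (y := y)
      hz'.1.le hy.1.le (by linarith [hz'.2, hy.2])).2.2.2.2.2
  · filter_upwards [tendsto_one_div_add_atTop_nhds_zero_nat.eventually_lt_const hε] with m hm
    refine (hPr m).trans ?_
    have h1 : (0:ℝ) ≤ (1 / ((θ m : ℝ) + 1)) * hh (ψ m) := mul_nonneg (hkpos _).le (H.pos _).le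
    have h2 := mul_le_mul_of_nonneg_right hm.le h1
    calc (1 / ((m : ℝ) + 1)) * (1 / ((θ m : ℝ) + 1)) * hh (ψ m) =
          (1 / ((m : ℝ) + 1)) * ((1 / ((θ m : ℝ) + 1)) * hh (ψ m)) := by ring
      _ ≤ ε * ((1 / ((θ m : ℝ) + 1)) * hh (ψ m)) := h2
      _ = _ := by rw [mul_comm (1 / ((θ m : ℝ) + 1)) (hh (ψ m))]; rfl

end Crest.Agent.R116.RowU194
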