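import Crest.Agent.R116.Sg3i_665
import Crest.Agent.R116.Sg3a_635

/-!
# R116 (K side, LEMMA SIG, generic `σ`): `sigG_false` in the letters of 635 (helper665)

Same binder list as 332's `sig1_false`.
-/

set_option autoImplicit false
set_option linter.unusedVariables false
set_option linter.unusedSectionVars false

open Set Filter Topology Metric

namespace Crest.Agent.R116.SgF665

open Crest.Agent.R136
open Crest.Agent.R138
open Crest.Agent.R136.Net191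
open Crest.Agent.R116.ChL222
open Crest.Agent.R116.Sg337 (bx9 uC uP uCP)
open Crest.Agent.R116.Sg635 (xS aS bS LMd L_eq)
open Dg219 (Walls mw gset mem_gset OutS gC dhC nC gC_zero gC_eq)

theorem gen_of {θa θb : ℝ} (ha : θa ≠ 0) (h0 : θb ≠ 0) (h1 : θb ≠ θa) (h2 : θb ≠ 2 * θa) :
    Gen aS (bS θa θb) where
  a0 := fun i h => by
    rcases h with h | h | h | h | h | h | h <;> subst h <;> simp [aS, bx9]
  a1 := fun i h => by
    rcases h with h | h | h | h | h <;> subst h <;> simp [aS, bx9]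
  b56 := by simp [bS, bx9]
  n05 := by
    simp only [bS, bx9]
    intro h
    apply ha
    have h' : (0:ℝ) = -θa := by simpa using h
    linarith
  n09 := by
    intro h
    apply ha
    have h' : (0:ℝ) = -(2 * θa) := by simpa [bS, bx9] using h
    linarith
  n011 := by
    intro h
    apply h0
    have h' : (0:ℝ) = -θb := by simpa [bS, bx9] using h
    linarith
  n59 := by
    intro h
    apply ha
    have h' : -θa = -(2 * θa) := by simpa [bS, bx9] using h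
    linarith
  n511 := by
    intro h
    apply h1
    have h' : -θa = -θb := by simpa [bS, bx9] using h
    linarith
  n911 := by
    intro h
    apply h2
    have h' : -(2 * θa) = -θb := by simpa [bS, bx9] using h
    linarith

variable {J : Type*} [Finite J] {P : Set (Fin 12 → ℝ)} {θa θb lam0 K : ℝ}
  {f lam : J → (Fin 12 → ℝ) → ℝ} {j0 : J} {x : ℕ → Fin 12 → ℝ} {h sc : ℕ → ℝ}
  {A : ℝ × ℝ} {φ : ℕ → (Fin 12 → ℝ) → ℝ} {r : ℕ → ℝ}
  {Bs : (ℕ → Fin 12 → ℝ) → (ℕ → ℝ) → Prop} {s : ℝ}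

/-- **LEMMA SIG, generic `σ`** -/
theorem sigG_false (hK : 0 ≤ K) (hpos : ∀ l, 0 < h l) (h0 : Tendsto h atTop (𝓝 0))
    (hl0 : lam0 ≠ 0) (ha : θa ≠ 0) (hσ0 : θb ≠ 0) (hσ1 : θb ≠ θa) (hσ2 : θb ≠ 2 * θa)
    (hx : ∀ l, ∀ k, ∀ e ∈ monL.mon k, e 1 = 0 → x l k = wl e (x l))
    (hxD : ∀ k, ∀ e ∈ monL.mon k, e 1 ≠ 0 → ∀ K : ℝ, ∀ᶠ l in atTop,
      x l k + K * h l ≤ wl e (x l))
    (ht : ∀ j, Ex926.IsTan P ((mw monL).L (xS lam0) aS (bS θa θb)) (f j) x h (lam j))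
    (hlip : ∀ j, ∀ p ∈ (mw monL).L (xS lam0) aS (bS θa θb),
      ∀ q ∈ (mw monL).L (xS lam0) aS (bS θa θb), |lam j p - lam j q| ≤ K * ‖p - q‖)
    (H : OutS (gC aS (bS θa θb)) ((mw monL).L (xS lam0) aS (bS θa θb)) (dhC aS (bS θa θb))
      (nC aS (bS θa θb)) (lam j0) A φ r)
    (spos : ∀ m, 0 < sc m) (s0 : Tendsto sc atTop (𝓝 0))
    (hBs : ∀ c0 ∈ LMd, c0 3 = c0 4 → c0 5 = c0 6 → c0 7 = c0 8 → ∀ ψ θ : ℕ → ℕ,
      StrictMono ψ → StrictMono θ →
      Bs (fun m => x (ψ m) + h (ψ m) • c0) (fun m => h (ψ m) * sc (θ m)))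
    (HL : LinFacts P f j0 Bs s)
    {c q0 q1 δ : ℝ} (hs : 0 ≤ s) (hc : 2 * s < c) (hq0 : 0 < q0) (hq1 : 0 < q1)
    (hδ : δ ≤ (c - 2 * s) / 2)
    (hsum : ∑ k ∈ (gset (gC aS (bS θa θb))).erase 0, r k ≤ 4 - s - c + δ)
    (hown : ∀ y : ℝ, 0 < y → (1 - s) * y ≤ -lam j0 (bx9 y 0 0 0 0 0 0 0 0))
    (iC : ∀ y : ℝ, 0 < y → q0 * y ≤ -lam j0 (y • uC))
    (iP : ∀ y : ℝ, 0 < y → q1 * y ≤ -lam j0 (y • uP))
    (iCP : ∀ y : ℝ, 0 < y → (c + q0 + q1) * y ≤ -lam j0 (y • uCP)) : False := by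
  have hL : (mw monL).L (xS lam0) aS (bS θa θb) = LM0 := L_eq hl0
  have D : SigD (mw monL) P (xS lam0) aS (bS θa θb) f lam j0 x h sc A φ r Bs s :=
    { hpos := hpos, h0 := h0, hQ := hL, hx := hx, hxD := hxD, ht := ht, hlip := ⟨K, hK, hlip⟩
      H := H, facts := HL, spos := spos, s0 := s0, hBs := fun c0 hc0 => hBs c0 hc0 }
  have e1 := hown 1 one_pos
  have e2 := iC 1 one_pos
  have e3 := iP 1 one_pos
  have e4 := iCP 1 one_pos
  rw [one_smul, mul_one] at e2 e3 e4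
  rw [mul_one] at e1
  refine sig_false D (gen_of ha hσ0 hσ1 hσ2) (g := c) (q0 := q0) (q1 := q1)
    (δ := max δ 0) hs (le_max_right _ _) ?_ hq0 hq1 e1 e2 e4 e3
    (hsum.trans (by linarith [le_max_left δ 0]))
  rcases max_cases δ 0 with h1 | h1 <;> rw [h1.1] <;> linarith

end Crest.Agent.R116.SgF665
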