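import Crest.Agent.R116.RowU4_194
import Crest.Agent.R116.Sg3j_665

/-!
# R116, row U (helper194), part 5: generic `σ`

* `sigP_falseG` : `SigP` + facts at `θb ∉ {0, θa, 2 θa}` ⊢ `False`
-/

set_option autoImplicit false
set_option linter.unusedVariables false

open Set Filter Topology MeasureTheory
open scoped NNReal

namespace Crest.Agent.R116.RowU194

open Crest.Agent.R138.Ex926 (Base U IsTan)
open Crest.Agent.R136
open Crest.Agent.R136.Net191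
open Crest.Agent.R136.Lq196
open Crest.Agent.R116.ChL222
open Crest.Agent.R116.PL504 (βL eL rL Shift)
open Crest.Agent.R116.Sg337 (coneL ProfL DL natB natB_smul bx9 uC uP uCP SL frz frz_single)
open Dg262 (X SupOn)
open Dg219 (Walls mw gset mem_gset OutS gC dhC nC gC_zero gC_eq)
open Sg635 (xS aS bS X_eq PP_eq L_eq LMd mem_bx)
open SgF665 (LinFacts)

variable {J : Type*} [Finite J] {R w0 sa sb θa θb s c q0 q1 δ : ℝ} {f : J → (Fin 12 → ℝ) → ℝ}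
    {j0 : J} {v0 lam0 : ℝ} {z : ℝ × ℝ} {u k : ℕ → ℝ} {lam : J → (Fin 12 → ℝ) → ℝ} {A : ℝ × ℝ}
    {φ : ℕ → (Fin 12 → ℝ) → ℝ} {r : ℕ → ℝ}

/-- **generic `σ`** -/
theorem sigP_falseG (H : SigP R w0 sa sb θa θb s c q0 q1 δ f j0 v0 lam0 z u k lam A φ r)
    (ha : θa ≠ 0) (hσ0 : θb ≠ 0) (hσ1 : θb ≠ θa) (hσ2 : θb ≠ 2 * θa) (hs : 0 ≤ s)
    (hc : 2 * s < c) (hq0 : 0 < q0) (hq1 : 0 < q1) (hδ : δ ≤ (c - 2 * s) / 2)
    (HL : LinFacts (Leg monL R) f j0 (Bs0 θa θb w0 sa sb v0 lam0 z u k) s) : False :=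
  SgF665.sigG_false (K := 12) (x := xB θa θb w0 sa sb v0 lam0 z u) (h := fun m => u m * k m)
    (sc := fun n => 1 / ((n : ℝ) + 1)) (by norm_num) H.hpos H.h0 H.hl0 ha hσ0 hσ1 hσ2 H.hx H.hxD
    H.tan H.lip H.out (fun n => by positivity) tendsto_one_div_add_atTop_nhds_zero_nat
    (fun c0 hc0 h3 h5 h7 ψ θ hψ hθ => Bs0.mk' hc0 h3 h5 h7 hψ hθ) HL hs hc hq0 hq1 hδ H.sum H.own
    H.iC H.iP H.iCP

end Crest.Agent.R116.RowU194
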