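import Crest.Agent.R116.RowU3_188
import Crest.Agent.R116.Ap2_954
import Crest.Agent.R116.KTopB_387

/-!
# R116, row U (helper188), part 6: the final assembly of `RowU`

* `PinsB`  : 171's pins (two heights) from the context;
* `D0B η`  : LEMMA D0 in micro form, untied, `s < 1/2` (878, ...);
* `SigB η` : a generic point of the plane `Σ` is impossible (194 `sigP_false`, with the facts, A1, SIG2);
* **`rowU_of`** : `RowU η`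
-/

set_option autoImplicit false
set_option linter.unusedVariables false

open Set Filter Topology MeasureTheory

namespace Crest.Agent.R116.RowU188

open Crest.Agent.R138.Ex926 (Base U IsTan)
open Crest.Agent.R136
open Crest.Agent.R136.MkA627
open Crest.Agent.R136.TD627
open Crest.Agent.R136.Net191
open Crest.Agent.R136.Lq196
open Crest.Agent.R116.ChL222
open Crest.Agent.R116.PL504 (nb rL DN eL βL oL Shift)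
open Crest.Agent.R116.Xd954 (cs xs FlagX Mrg)
open Crest.Agent.R116.Sg337 (coneL DL natB eL_bx9)
open Crest.Agent.R116.Gd222 (TSet sN PDL DT)
open Crest.Agent.R116.KI439
open Crest.Agent.R116.KF439 (PL)
open Crest.Agent.R116.Tw468 (OutT)
open Crest.Agent.R116.CtxB468
open Crest.Agent.R116.KTop387 (NumL RowU)
open Crest.Agent.R116.Rcx363 (fo fo_lip strict_ctx)
open Crest.Agent.R116.RowU194 (RecT SigP e1 xB exists_sig)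
open Crest.Agent.R116.Ap954 (Pins apriori_T)

/-- **binder 1 (171)** : two-height facts at generic points -/
def PinsB : Prop :=
  ∀ {G : Geo TSet (Fin 2)} {L : ℕ → ℕ → LRay} {r : ℕ → ℝ} {c s : ℝ} {θ q : Fin 2 → ℝ}
    {Rg : ℝ} {B : Base} {I : ℕ → Finset (ℕ × ℝ)} {lev : ℕ → ℚ → ℕ} {A : ℕ → ℝ}
    {f : ℕ → ℚ → ℕ → ℤ → ℕ} {b : ℕ → ℚ → ℕ → TSet} {vm : ℕ → ℚ → ℝ} {w : Fin 2 → ℕ → ℚ → ℝ}
    {fr : ℕ → ℚ → ℕ × ℝ → LInc} {fl : ℕ → ℕ × ℝ → LInc} {sc : Fin 12 → ℕ → ℝ}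
    {w0 sa sb δ R : ℝ} {I0 I' : ℕ → Finset (ℕ × ℝ)} {ν own : (Fin 12 → ℝ) → ℝ} {c₀ : ℝ},
    CtxT G L r c s θ q Rg B I lev A f b vm w fr fl sc w0 sa sb δ R I0 I' ν own c₀ →
    s < 1 → Pins R w0 s ν

/-- **binder 2 (878)** : LEMMA D0, micro form -/
def D0B (η : ℝ) : Prop :=
  ∀ {G : Geo TSet (Fin 2)} {L : ℕ → ℕ → LRay} {r : ℕ → ℝ} {g s : ℝ} {θ q : Fin 2 → ℝ}
    {Rg : ℝ} {B : Base} {I : ℕ → Finset (ℕ × ℝ)} {lev : ℕ → ℚ → ℕ} {A : ℕ → ℝ}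
    {f : ℕ → ℚ → ℕ → ℤ → ℕ} {b : ℕ → ℚ → ℕ → TSet} {vm : ℕ → ℚ → ℝ} {w : Fin 2 → ℕ → ℚ → ℝ}
    {fr : ℕ → ℚ → ℕ × ℝ → LInc} {fl : ℕ → ℕ × ℝ → LInc} {sc : Fin 12 → ℕ → ℝ}
    {w0 sa sb δ R : ℝ} {I0 I' : ℕ → Finset (ℕ × ℝ)} {ν own : (Fin 12 → ℝ) → ℝ} {c₀ : ℝ},
    CtxT G L r (g + 2 * s) s θ q Rg B I lev A f b vm w fr fl sc w0 sa sb δ R I0 I' ν own c₀ →
    NumL η g s θ q → s < 1 / 2 → w0 + (θ 1 + sb) < R → w0 + 1 + sb < R →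
    θ 0 + |θ 1| + 1 ≤ Rg →
    (∀ k : Fin 12, k = 1 ∨ k = 2 ∨ k = 7 ∨ k = 8 → InvT PL B I k fl (sc k)) →
    ∀ᵐ v : ℝ, v ∈ Ioo (0:ℝ) 1 → Tendsto (fun y : ℝ =>
      (ν (rL (θ 0) (θ 1) w0 sa sb v) - ν (rL (θ 0) (θ 1) w0 sa sb v + y • e1)) / y) (𝓝[>] 0) (𝓝 0)

/-- **binder 3 (194, with 330 / 388 facts, 79 A1, 748 SIG2)** : no generic point of `Σ` -/
def SigB (η : ℝ) : Prop :=
  ∀ {G : Geo TSet (Fin 2)} {L : ℕ → ℕ → LRay} {r : ℕ → ℝ} {g s : ℝ} {θ q : Fin 2 → ℝ}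
    {Rg : ℝ} {B : Base} {I : ℕ → Finset (ℕ × ℝ)} {lev : ℕ → ℚ → ℕ} {A : ℕ → ℝ}
    {f : ℕ → ℚ → ℕ → ℤ → ℕ} {b : ℕ → ℚ → ℕ → TSet} {vm : ℕ → ℚ → ℝ} {w : Fin 2 → ℕ → ℚ → ℝ}
    {fr : ℕ → ℚ → ℕ × ℝ → LInc} {fl : ℕ → ℕ × ℝ → LInc} {sc : Fin 12 → ℕ → ℝ}
    {w0 sa sb δ R : ℝ} {I0 I' : ℕ → Finset (ℕ × ℝ)} {ν own : (Fin 12 → ℝ) → ℝ} {c₀ : ℝ},
    CtxT G L r (g + 2 * s) s θ q Rg B I lev A f b vm w fr fl sc w0 sa sb δ R I0 I' ν own c₀ →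
    NumL η g s θ q → s < 1 / 2 → w0 + (θ 1 + sb) < R → w0 + 1 + sb < R →
    θ 0 + |θ 1| + 1 ≤ Rg →
    (∀ k : Fin 12, k = 1 ∨ k = 2 ∨ k = 7 ∨ k = 8 → InvT PL B I k fl (sc k)) →
    ∀ {a b' : Fin 2}, (∀ κ0 : ℝ, FlagX B I' lev fl (sN lev w) κ0 0 a b') →
    ∀ {v0 : ℝ} {hh : ℕ → ℝ} {gg : Fin 2 → (Fin 12 → ℝ) → ℝ},
    RecT R w0 sa sb (θ 0) (θ 1) s (g + 2 * s) (q 0) (q 1) a b' (fo ν own) (0 : Fin 2) v0 hh gg →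
    ∀ {lam0 : ℝ} {z : ℝ × ℝ} {u k : ℕ → ℝ} {lam : Fin 2 → (Fin 12 → ℝ) → ℝ} {A' : ℝ × ℝ}
      {φ : ℕ → (Fin 12 → ℝ) → ℝ} {rr : ℕ → ℝ}, (∃ ψ : ℕ → ℕ, StrictMono ψ ∧ u = hh ∘ ψ) →
    SigP R w0 sa sb (θ 0) (θ 1) s (g + 2 * s) (q 0) (q 1) (g / 2) (fo ν own) (0 : Fin 2) v0 lam0 z
      u k lam A' φ rr → False

/-- **THE ROW U** -/
theorem rowU_of {η : ℝ} (hP : PinsB) (hD : D0B η) (hS : SigB η) : RowU η := by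
  intro g s θ q hN
  refine ⟨θ 0 + |θ 1| + 1, fun Rg hRg G L r B I lev A f b vm w fr fl sc hO hinv => ?_⟩
  have habs := abs_nonneg (θ 1)
  have hθ := hN.θa
  have hRg0 : 0 < Rg := by linarith
  obtain ⟨w0, sa, sb, δ, R, hsh⟩ := PL504.exists_shift (θ 0) (θ 1)
  obtain ⟨I0, I', ν, own, c₀, hC⟩ := hO.ctx hRg0 hsh
  obtain ⟨w0, sa, sb, δ, R, I0, I', ν, own, c₀, hC, hR0, hR1⟩ := strict_ctx hC
  have hinv' : ∀ k : Fin 12, k = 1 ∨ k = 2 ∨ k = 7 ∨ k = 8 → InvT PL B I k fl (sc k) := by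
    intro k hk
    refine hinv k ?_
    rcases hk with h | h | h | h <;> rw [h] <;> decide
  -- `s < 1/2`
  have hap := apriori_T hC (fun v k hk => hC.noVis hinv' v k hk) hθ (by linarith) (by linarith)
    hN.qa.le hN.qb.le (hP hC hN.s1)
  have hs2 : s < 1 / 2 := Ap954.s_lt_half hN.gpos hN.qa.le hN.qb.le hap
  -- the record tangent
  have hmic := hD hC hN hs2 hR0 hR1 hRg hinv'
  obtain ⟨a, b', hX⟩ := hC.fX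
  have hX' : ∀ κ0 : ℝ, FlagX B I' lev fl (sN lev w) κ0 0 a b' := hX I' hC.sub'
  obtain ⟨v0, -, hh, gg, hRec⟩ := exists_rec hC hR0 hR1 hθ (by linarith) hX' hinv' hmic
    (N := Set.univ) (Eventually.of_forall fun _ => Set.mem_univ _)
  obtain ⟨lam0, z, u, k, lam, A', φ, rr, -, hu, hSig⟩ := exists_sig hRec (half_pos hN.gpos)
    (N := Set.univ) (Eventually.of_forall fun _ => Set.mem_univ _)
  exact hS hC hN hs2 hR0 hR1 hRg hinv' hX' hRec hu hSig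

end Crest.Agent.R116.RowU188
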