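import Crest.Agent.R116.RowU7_188
import Crest.Agent.R116.D0T_794

/-!
# R116, row U (helper188), part 8: the official literal `D0T` of LEMMA D0

* `d0B_of : D0T η (s < 1/2) → D0B η`; **`rowU_of3`**
-/

set_option autoImplicit false
set_option linter.unusedVariables false

open Set Filter Topology MeasureTheory

namespace Crest.Agent.R116.RowU188

open Crest.Agent.R116.KTop387 (RowU)
open Crest.Agent.R116.KTie794 (D0T)

/-- no visible slot: the literal of the ties gives the literal of row U -/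
theorem d0B_of {η : ℝ} (h : D0T η fun s _ => s < 1 / 2) : D0B η := by
  intro G L r g s θ q Rg B I lev A f b vm w fr fl sc w0 sa sb δ R I0 I' ν own c₀ C N hs hR0 hR1 hRg
    hinv
  exact h C N hs hR0 hR1 hRg (hinv 1 (Or.inl rfl))
    (fun hT => (hT.elim (fun t => t.1 (hinv 7 (Or.inr (Or.inr (Or.inl rfl)))))
      (fun t => t.1 (hinv 8 (Or.inr (Or.inr (Or.inr rfl)))))).elim)
    (fun t => (t.1 (hinv 2 (Or.inr (Or.inl rfl)))).elim)

/-- the two halves of D0 (`1 < 2 θa - θb`, `2 θa - θb ≤ 1`) -/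
theorem d0B_of2 {η : ℝ} (h1 : D0T η fun s θ => s < 1 / 2 ∧ 1 < 2 * θ 0 - θ 1)
    (h2 : D0T η fun s θ => s < 1 / 2 ∧ 2 * θ 0 - θ 1 ≤ 1) : D0B η :=
  d0B_of (D0T.mono (D0T.or h1 h2) fun s θ h => by
    rcases lt_or_ge 1 (2 * θ 0 - θ 1) with h' | h'
    · exact Or.inl ⟨h, h'⟩
    · exact Or.inr ⟨h, h'⟩)

/-- **row U** -/
theorem rowU_of3 {η : ℝ} (hD : D0T η fun s _ => s < 1 / 2) (hS : SigB η) : RowU η :=
  rowU_of2 (d0B_of hD) hS

end Crest.Agent.R116.RowU188
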