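import Crest.Agent.R116.RowU8_188
import Crest.Agent.R116.D0E_188

/-!
# R116, row U (helper188), part 9: D0 with `E` invisible is enough

* **`rowU_ofE`** : `D0E η (s < 1/2)`, `SigB η` ⊢ `RowU η`
-/

set_option autoImplicit false
set_option linter.unusedVariables false

open Set Filter Topology MeasureTheory

namespace Crest.Agent.R116.RowU188

open Crest.Agent.R116.KTop387 (RowU)
open Crest.Agent.R116.KTie794 (D0T D0E)

theorem d0B_ofE {η : ℝ} (h : D0E η fun s _ => s < 1 / 2) : D0B η := by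
  intro G L r g s θ q Rg B I lev A f b vm w fr fl sc w0 sa sb δ R I0 I' ν own c₀ C N hs hR0 hR1 hRg
    hinv
  exact h C N hs hR0 hR1 hRg (hinv 1 (Or.inl rfl)) (hinv 2 (Or.inr (Or.inl rfl)))
    (fun hT => (hT.elim (fun t => t.1 (hinv 7 (Or.inr (Or.inr (Or.inl rfl)))))
      (fun t => t.1 (hinv 8 (Or.inr (Or.inr (Or.inr rfl)))))).elim)

/-- **row U** -/
theorem rowU_ofE {η : ℝ} (hD : D0E η fun s _ => s < 1 / 2) (hS : SigB η) : RowU η :=
  rowU_of2 (d0B_ofE hD) hS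

/-- **row U from the three cases of D0** -/
theorem rowU_of3E {η : ℝ} (h1 : D0T η fun s θ => s < 1 / 2 ∧ 1 < 2 * θ 0 - θ 1)
    (h2 : D0T η fun s θ => s < 1 / 2 ∧ 2 * θ 0 - θ 1 < 1)
    (h3 : D0E η fun s θ => s < 1 / 2 ∧ 2 * θ 0 - θ 1 = 1) (hS : SigB η) : RowU η :=
  rowU_ofE (KTie794.D0E.of3 (X := fun s _ => s < 1 / 2) (KTie794.D0E.of h1) (KTie794.D0E.of h2) h3)
    hS

end Crest.Agent.R116.RowU188
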