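import Crest.Agent.R116.RowUb_388
import Crest.Agent.R116.Kt1_710

/-!
# R116, row U (helper388): the facts of LEMMA SIG over the context, no binder left

710's `Kt1` (dead direction over the context) plugged into `RowUb_388`.

* `linFacts_sig` : `θ 1 ≠ θ 0`, `0 < θ 0` ⊢ 665's `LinFacts`
* `linFacts4_sig` : every `0 < θ 0` ⊢ `LinFacts4` (K1, H1, K2, S2)
-/

set_option autoImplicit false
set_option linter.unusedVariables false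

open Set Filter Topology

namespace Crest.Agent.R116.RowU388

open Crest.Agent.R138.Ex926 (Base U IsTan)
open Crest.Agent.R136
open Crest.Agent.R136.MkA627
open Crest.Agent.R136.TD627
open Crest.Agent.R136.Net191
open Crest.Agent.R136.Lq196
open Crest.Agent.R116.ChL222
open Crest.Agent.R116.PL504 (nb rL DN eL βL oL Shift)
open Crest.Agent.R116.Gd222 (TSet sN PDL DT)
open Crest.Agent.R116.KI439
open Crest.Agent.R116.KF439 (PL)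
open Crest.Agent.R116.Tw468 (OutT)
open Crest.Agent.R116.CtxB468
open Crest.Agent.R116.RowU194 (SigP Bs0)
open SgF665 (LinFacts)
open LF388 (LinFacts4)
open Kg330 (ThinB ThinM)
open Kc388 (ThinBC)

section ctx

variable {G : Geo TSet (Fin 2)} {L : ℕ → ℕ → LRay} {r : ℕ → ℝ} {c s : ℝ} {θ q : Fin 2 → ℝ}
    {Rg : ℝ} {B : Base} {I : ℕ → Finset (ℕ × ℝ)} {lev : ℕ → ℚ → ℕ} {A : ℕ → ℝ}
    {f : ℕ → ℚ → ℕ → ℤ → ℕ} {b : ℕ → ℚ → ℕ → TSet} {vm : ℕ → ℚ → ℝ} {w : Fin 2 → ℕ → ℚ → ℝ}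
    {fr : ℕ → ℚ → ℕ × ℝ → LInc} {fl : ℕ → ℕ × ℝ → LInc} {sc : Fin 12 → ℕ → ℝ}
    {w0 sa sb δ R : ℝ} {I0 I' : ℕ → Finset (ℕ × ℝ)} {ν own : (Fin 12 → ℝ) → ℝ} {c₀ : ℝ}
    {v0 : ℝ} {X : ℕ → Fin 12 → ℝ} {h : ℕ → ℝ}

theorem lim_nb (hX : Tendsto X atTop (𝓝 (rL (θ 0) (θ 1) w0 sa sb v0))) (k : Fin 12) :
    Tendsto (fun l => X l k) atTop
      (𝓝 (nb w0 sa sb v0 (θ 0 * (1 - v0)) (θ 1 * (1 - v0)) k)) := by
  rw [PL504.rL_nb] at hX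
  exact (tendsto_pi_nhds.1 hX) k

/-- a margin `ζ` for which the record box is inside the wall, `θ 1 ≠ θ 0` -/
theorem exists_zeta
    (H : CtxT G L r c s θ q Rg B I lev A f b vm w fr fl sc w0 sa sb δ R I0 I' ν own c₀)
    (hv0 : 0 < v0) (hv1 : v0 < 1) (h0 : 0 < θ 0) (hne : θ 1 ≠ θ 0) :
    ∃ ζ : ℝ, Kz710.FlagZ B I fl (sN lev w) ζ ∧ θ 1 * (1 - v0) < ζ + θ 0 * (1 - v0) := by
  rcases lt_or_gt_of_ne hne with hlt | hgt
  · exact ⟨0, Kt710.flagZ0 H, by nlinarith⟩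
  · exact ⟨θ 1 - θ 0, Kt710.flagZ1 H h0.le, by nlinarith⟩

/-- **dead direction at a base sequence converging to the record**, `θ 1 ≠ θ 0` -/
theorem thinB_rec
    (H : CtxT G L r c s θ q Rg B I lev A f b vm w fr fl sc w0 sa sb δ R I0 I' ν own c₀)
    (hv0 : 0 < v0) (hv1 : v0 < 1) (h0 : 0 < θ 0) (hne : θ 1 ≠ θ 0)
    (hX : Tendsto X atTop (𝓝 (rL (θ 0) (θ 1) w0 sa sb v0)))
    (e4 : ∀ᶠ l in atTop, X l 4 = X l 3) (e6 : ∀ᶠ l in atTop, X l 6 = X l 5)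
    (e8 : ∀ᶠ l in atTop, X l 8 = X l 7) :
    ThinB B I0 I' (PL504.coN B lev w w0 sa sb fl) 2 ν X h := by
  obtain ⟨ζ, hz, hy⟩ := exists_zeta H hv0 hv1 h0 hne
  have ht : 0 < θ 0 * (1 - v0) := mul_pos h0 (by linarith)
  exact Kt710.thinB H hz ht (by linarith) hy (fun k _ => lim_nb hX k) e4 e6 e8

/-- the same with the slot `D` live (330's `ThinM`) -/
theorem thinM_rec
    (H : CtxT G L r c s θ q Rg B I lev A f b vm w fr fl sc w0 sa sb δ R I0 I' ν own c₀)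
    (hv0 : 0 < v0) (hv1 : v0 < 1) (h0 : 0 < θ 0) (hne : θ 1 ≠ θ 0)
    (hX : Tendsto X atTop (𝓝 (rL (θ 0) (θ 1) w0 sa sb v0)))
    (e4 : ∀ᶠ l in atTop, X l 4 = X l 3) (e6 : ∀ᶠ l in atTop, X l 6 = X l 5)
    (e8 : ∀ᶠ l in atTop, X l 8 = X l 7) :
    ThinM B I0 I' (PL504.coN B lev w w0 sa sb fl) 2 ν X h := by
  obtain ⟨ζ, hz, hy⟩ := exists_zeta H hv0 hv1 h0 hne
  have ht : 0 < θ 0 * (1 - v0) := mul_pos h0 (by linarith)
  exact Kt710.thinM H hz ht (by linarith) hy (fun k _ => lim_nb hX k) e4 e6 e8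

/-- the slots `3..6` only, every `θ` (388's `ThinBC`) -/
theorem thinBC_rec
    (H : CtxT G L r c s θ q Rg B I lev A f b vm w fr fl sc w0 sa sb δ R I0 I' ν own c₀)
    (hv0 : 0 < v0) (hv1 : v0 < 1) (h0 : 0 < θ 0)
    (hX : Tendsto X atTop (𝓝 (rL (θ 0) (θ 1) w0 sa sb v0)))
    (e4 : ∀ᶠ l in atTop, X l 4 = X l 3) (e6 : ∀ᶠ l in atTop, X l 6 = X l 5) :
    ThinBC B I0 I' (PL504.coN B lev w w0 sa sb fl) 2 ν X h := by
  have ht : 0 < θ 0 * (1 - v0) := mul_pos h0 (by linarith)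
  exact Kt710.thinBC H ht (by linarith) (fun k _ => lim_nb hX k) e4 e6

variable {lam0 : ℝ} {z : ℝ × ℝ} {u k : ℕ → ℝ} {q0 q1 δ' : ℝ} {J : Type*}
    {ff : J → (Fin 12 → ℝ) → ℝ} {j0 : J}
    {lam : J → (Fin 12 → ℝ) → ℝ} {A' : ℝ × ℝ} {φ : ℕ → (Fin 12 → ℝ) → ℝ} {rr : ℕ → ℝ}

/-- **the facts of LEMMA SIG over the context**, `θ 1 ≠ θ 0` -/
theorem linFacts_sig
    (H : CtxT G L r c s θ q Rg B I lev A f b vm w fr fl sc w0 sa sb δ R I0 I' ν own c₀)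
    (hinv : ∀ k : Fin 12, k = 1 ∨ k = 2 ∨ k = 7 ∨ k = 8 → InvT PL B I k fl (sc k))
    (hs0 : 0 ≤ s) (hs1 : s ≤ 1) (h0 : 0 < θ 0) (hne : θ 1 ≠ θ 0)
    (S : SigP R w0 sa sb (θ 0) (θ 1) s c q0 q1 δ' ff j0 v0 lam0 z u k lam A' φ rr)
    (hf : ff j0 = ν) :
    LinFacts (Leg monL R) ff j0 (Bs0 (θ 0) (θ 1) w0 sa sb v0 lam0 z u k) s :=
  linFacts_sig' H hinv hs0 hs1 S hf fun X h hX e4 e6 e8 =>
    thinB_rec H S.v00 S.v01 h0 hne hX (Eventually.of_forall e4) (Eventually.of_forall e6)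
      (Eventually.of_forall e8)

/-- **the four facts of LEMMA SIG over the context**, every `θ` with `0 < θ 0` -/
theorem linFacts4_sig
    (H : CtxT G L r c s θ q Rg B I lev A f b vm w fr fl sc w0 sa sb δ R I0 I' ν own c₀)
    (hinv : ∀ k : Fin 12, k = 1 ∨ k = 2 ∨ k = 7 ∨ k = 8 → InvT PL B I k fl (sc k))
    (hs0 : 0 ≤ s) (hs1 : s ≤ 1) (h0 : 0 < θ 0)
    (S : SigP R w0 sa sb (θ 0) (θ 1) s c q0 q1 δ' ff j0 v0 lam0 z u k lam A' φ rr)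
    (hf : ff j0 = ν) :
    LinFacts4 (Leg monL R) ff j0 (Bs0 (θ 0) (θ 1) w0 sa sb v0 lam0 z u k) s :=
  linFacts4_sig' H hinv hs0 hs1 S hf fun X h hX e4 e6 e8 =>
    thinBC_rec H S.v00 S.v01 h0 hX (Eventually.of_forall e4) (Eventually.of_forall e6)

end ctx

end Crest.Agent.R116.RowU388
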