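import Crest.Agent.R116.RowU11_188
import Crest.Agent.R116.D0y5_219

/-!
# R116, row U (helper188): **the untied thin row is proved**

* **`rowU`**
-/

set_option autoImplicit false
set_option linter.unusedVariables false

namespace Crest.Agent.R116.RowU188

open Crest.Agent.R116.KTop387 (RowU)

/-- **ROW U** -/
theorem rowU : ∃ η : ℝ, 0 < η ∧ RowU η :=
  ⟨1 / 4, by norm_num, rowU_of5 (by norm_num) (D0y219.D0neg (by norm_num))⟩

end Crest.Agent.R116.RowU188
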