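import Crest.Agent.R116.Rm2_618
import Crest.Agent.R116.RmB_79

/-!
# R116, K2 (ENEMY with room, five-coordinate fill), part 1 (helper79)

Children `(C + v, a + p, k + t)` of a ray `(C, a, k)` in a member: positions (`pos_count`, varying
slopes; port of 618's `par_count`), slopes at a fixed position (`slope_count`), transfer to the
fattened member (`child_big5`, `parents_big5`), parents of thin members (`parents_small5`).
-/

set_option autoImplicit false
set_option linter.unusedVariables false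

open Finset

namespace Crest.Agent.R116.Rs79

open Crest.Agent.R116.LZg725
open Crest.Agent.R138.Defs (E2)
open Crest.Agent.R116.CDef480 (E3 lat pt vel)
open Crest.Agent.R116.LKMDef299 (LRay Cpt)
open Crest.Agent.R116.Ks79 (GRay gC gX gH Bd)
open Crest.Agent.R116.Ene618

open Classical in
/-- **positions of the children of one parent in a member**, slopes varying. -/
theorem pos_count {M : ℝ} {m : Mem} (h : Sm M m) {rho W lam : ℝ} (hrho : 0 < rho) (hW : 0 ≤ W)
    (hlam : 0 ≤ lam) (hs1 : rho ≤ m.s1) (C a : E2) (k : ℝ) (S : Finset ((ℤ × ℤ) × ℤ))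
    (hS : ∀ x ∈ S, ∃ C' : E2, (C', a + pv rho x.1, k + (x.2 : ℝ) * rho ^ 2) ∈ m.rays 0)
    (hne : ∀ x ∈ S, ∃ x0 ∈ S, ∃ C0 : E2, ‖C0 - C‖ ≤ m.sg / 4 ∧
      (C0, a + pv rho x0.1, k + (x0.2 : ℝ) * rho ^ 2) ∈ m.rays 0)
    (hp1 : ∀ x ∈ S, ∀ y ∈ S, |((x.1.1 : ℝ) - y.1.1) * rho| ≤ W)
    (hp2 : ∀ x ∈ S, ∀ y ∈ S, |((x.1.2 : ℝ) - y.1.2) * rho| ≤ W)
    (hnu : ∀ x ∈ S, ∀ y ∈ S, |nus rho (C, a, k) x - nus rho (C, a, k) y| ≤ lam) :
    (S.card : ℝ) ≤ (W / rho + 1) * (lam / rho ^ 2 + 2) * (min (36 * m.s1) W / rho + 1) := by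
  have hr2 : 0 < rho ^ 2 := pow_pos hrho 2
  have hsg := h.ok.sg_pos
  have hs10 := h.ok.hs1
  have hle := h.ok.hsg
  rcases S.eq_empty_or_nonempty with rfl | ⟨x00, hx00⟩
  · simp only [card_empty, Nat.cast_zero]
    positivity
  obtain ⟨x0, hx0, C0, hC0, hbase⟩ := hne x00 hx00
  -- the base child
  set X0 : E2 := a + pv rho x0.1 with hX0
  obtain ⟨b1, b2, b3, b4, b5⟩ := h.ray hbase
  obtain ⟨g1, -⟩ := h.gr_sq hbase
  obtain ⟨i, hi0⟩ := exists_comp g1
  have hi : 19 / 50 ≤ |m.phi.gr C X0 0 i| := by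
    have e : m.phi.gr C X0 0 = m.phi.gr C0 X0 0 + (m.phi.ny 0) • (C0 - C) := by
      unfold Cf.gr; module
    have e1 : m.phi.gr C0 X0 0 i = m.phi.gr C X0 0 i - ((m.phi.ny 0) • (C0 - C)) i := by
      rw [e]; simp
    have e2 : |((m.phi.ny 0) • (C0 - C)) i| ≤ 1 / 25 := by
      refine (abs_coord_le _ i).trans ?_
      rw [norm_smul, Real.norm_eq_abs]
      have h1 := h.ny 0 (by norm_num)
      calc |m.phi.ny 0| * ‖C0 - C‖ ≤ |m.phi.ny 0| * (m.sg / 4) :=
            mul_le_mul_of_nonneg_left hC0 (abs_nonneg _)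
        _ = (|m.phi.ny 0| * m.sg) / 4 := by ring
        _ ≤ (4 / 25) / 4 := by gcongr
        _ = 1 / 25 := by norm_num
    have e3 := abs_sub (m.phi.gr C X0 0 i) (((m.phi.ny 0) • (C0 - C)) i)
    rw [← e1] at e3
    linarith
  -- two children in one bin
  have key : ∀ x ∈ S, ∀ y ∈ S, |nus rho (C, a, k) x - nus rho (C, a, k) y| ≤ rho ^ 2 →
      (∀ j : Fin 2, j ≠ i → (pv rho x.1 - pv rho y.1) j = 0) →
      |(pv rho x.1 - pv rho y.1) i| ≤ 36 * m.s1 := by
    intro x hx y hy hxy ho
    obtain ⟨Cx, hCx⟩ := hS x hx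
    obtain ⟨Cy, hCy⟩ := hS y hy
    obtain ⟨x1, x2, x3, x4, x5⟩ := h.ray hCx
    obtain ⟨y1, y2, y3, y4, y5⟩ := h.ray hCy
    set D : E2 := pv rho x.1 - pv rho y.1 with hD
    have e := ev_two m.phi C X0 (k + (x0.2 : ℝ) * rho ^ 2) (a + pv rho x.1) (a + pv rho y.1)
      (k + (x.2 : ℝ) * rho ^ 2) (k + (y.2 : ℝ) * rho ^ 2)
    have eD : a + pv rho x.1 - (a + pv rho y.1) = D := by rw [hD]; abel
    have en : nrm C (a + pv rho x.1) (k + (x.2 : ℝ) * rho ^ 2) 0 -
        nrm C (a + pv rho y.1) (k + (y.2 : ℝ) * rho ^ 2) 0 =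
        nus rho (C, a, k) x - nus rho (C, a, k) y := by
      unfold nrm nus
      rw [inner_add_right, inner_add_right]; ring
    rw [eD, en] at e
    have hDn : ‖D‖ = |D i| := by
      have h1 := CDef480.normsq2 D
      have h2 : ‖D‖ ^ 2 = |D i| ^ 2 := by
        rw [h1, sq_abs]
        fin_cases i
        · have := ho 1 (by decide)
          simp only [Fin.zero_eta, this]; ring
        · have := ho 0 (by decide)
          simp only [Fin.mk_one, this]; ring
      exact (pow_left_inj₀ (norm_nonneg _) (abs_nonneg _) two_ne_zero).1 h2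
    have hgD : inner ℝ (m.phi.gr C X0 0) D = m.phi.gr C X0 0 i * D i := by
      rw [PiLp.inner_apply, Fin.sum_univ_two]
      simp only [RCLike.inner_apply, conj_trivial]
      fin_cases i
      · have := ho 1 (by decide)
        simp only [Fin.zero_eta, this]; ring
      · have := ho 0 (by decide)
        simp only [Fin.mk_one, this]; ring
    rw [hgD] at e
    have q1 : |m.phi.gr C X0 0 i * D i| = |m.phi.gr C X0 0 i| * |D i| := abs_mul _ _
    have q2 : |m.phi.ny 0 * (nus rho (C, a, k) x - nus rho (C, a, k) y)| ≤ 4 / 25 * m.s1 := by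
      rw [abs_mul]
      have h1 := h.ny 0 (by norm_num)
      have h2 : rho ^ 2 ≤ m.sg * m.s1 := by nlinarith
      calc |m.phi.ny 0| * |nus rho (C, a, k) x - nus rho (C, a, k) y|
          ≤ |m.phi.ny 0| * (m.sg * m.s1) := by
            refine mul_le_mul_of_nonneg_left (hxy.trans h2) (abs_nonneg _)
        _ = (|m.phi.ny 0| * m.sg) * m.s1 := by ring
        _ ≤ 4 / 25 * m.s1 := by gcongr
    have q3 : |m.phi.d * inner ℝ D (a + pv rho x.1 + (a + pv rho y.1) - (2:ℝ) • X0)| ≤
        8 / 25 * |D i| := by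
      rw [abs_mul]
      have h1 : ‖a + pv rho x.1 + (a + pv rho y.1) - (2:ℝ) • X0‖ ≤ 4 * m.sg := by
        have e1 : a + pv rho x.1 + (a + pv rho y.1) - (2:ℝ) • X0 =
            ((a + pv rho x.1) - lat m.X0) + ((a + pv rho y.1) - lat m.X0) -
            (2:ℝ) • (X0 - lat m.X0) := by module
        rw [e1]
        refine (norm_sub_le _ _).trans ?_
        rw [norm_smul, Real.norm_of_nonneg (by norm_num : (0:ℝ) ≤ 2)]
        have h2 := norm_add_le ((a + pv rho x.1) - lat m.X0) ((a + pv rho y.1) - lat m.X0)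
        have h3 : ‖a + pv rho x.1 - lat m.X0‖ ≤ m.sg := x2
        have h4 : ‖a + pv rho y.1 - lat m.X0‖ ≤ m.sg := y2
        have h5 : ‖X0 - lat m.X0‖ ≤ m.sg := b2
        linarith
      have h2 := abs_real_inner_le_norm D (a + pv rho x.1 + (a + pv rho y.1) - (2:ℝ) • X0)
      have h3 := h.d
      have hd0 : 0 ≤ |m.phi.d| := abs_nonneg _
      calc |m.phi.d| * |inner ℝ D (a + pv rho x.1 + (a + pv rho y.1) - (2:ℝ) • X0)|
          ≤ |m.phi.d| * (‖D‖ * (4 * m.sg)) :=
            mul_le_mul_of_nonneg_left (h2.trans (mul_le_mul_of_nonneg_left h1 (norm_nonneg _))) hd0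
        _ = 4 * (|m.phi.d| * m.sg) * |D i| := by rw [hDn]; ring
        _ ≤ 4 * (2 / 25) * |D i| := by gcongr
        _ = 8 / 25 * |D i| := by ring
    have q4 : |m.phi.gr C X0 0 i * D i| ≤ 2 * m.s1 + 4 / 25 * m.s1 + 8 / 25 * |D i| := by
      have e2 : m.phi.gr C X0 0 i * D i =
          (m.phi.ev (a + pv rho x.1) (k + (x.2 : ℝ) * rho ^ 2) 0 -
          m.phi.ev (a + pv rho y.1) (k + (y.2 : ℝ) * rho ^ 2) 0) -
          m.phi.ny 0 * (nus rho (C, a, k) x - nus rho (C, a, k) y) -
          m.phi.d * inner ℝ D (a + pv rho x.1 + (a + pv rho y.1) - (2:ℝ) • X0) := by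
        rw [e]; ring
      rw [e2]
      have f1 : |m.phi.ev (a + pv rho x.1) (k + (x.2 : ℝ) * rho ^ 2) 0| ≤ m.s1 := x4
      have f2 : |m.phi.ev (a + pv rho y.1) (k + (y.2 : ℝ) * rho ^ 2) 0| ≤ m.s1 := y4
      rw [abs_le] at f1 f2 q2 q3 ⊢
      constructor <;> linarith [f1.1, f1.2, f2.1, f2.2, q2.1, q2.2, q3.1, q3.2]
    rw [q1] at q4
    have q5 : 19 / 50 * |D i| ≤ |m.phi.gr C X0 0 i| * |D i| :=
      mul_le_mul_of_nonneg_right hi (abs_nonneg _)
    linarith
  -- counting
  set co : (ℤ × ℤ) × ℤ → Fin 2 → ℤ := fun x => ![x.1.1, x.1.2] with hco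
  set oi : Fin 2 := 1 - i with hoi
  set f : (ℤ × ℤ) × ℤ → ℤ × ℤ := fun x => (co x oi, ⌊nus rho (C, a, k) x / rho ^ 2⌋) with hf
  have hco1 : ∀ x y : (ℤ × ℤ) × ℤ, ∀ j : Fin 2, (pv rho x.1 - pv rho y.1) j =
      ((co x j : ℝ) - co y j) * rho := by
    intro x y j
    rw [pv_sub]
    fin_cases j
    · rfl
    · rfl
  have hcoW : ∀ x ∈ S, ∀ y ∈ S, ∀ j : Fin 2, |((co x j : ℝ) - co y j)| ≤ W / rho := by
    intro x hx y hy j
    rw [le_div_iff₀ hrho]
    have e1 : |((co x j : ℝ) - co y j)| * rho = |((co x j : ℝ) - co y j) * rho| := by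
      rw [abs_mul, abs_of_pos hrho]
    rw [e1]
    fin_cases j
    · exact hp1 x hx y hy
    · exact hp2 x hx y hy
  have hoj : ∀ j : Fin 2, j ≠ i → j = oi := by
    intro j hj
    rw [hoi]
    fin_cases i <;> fin_cases j <;> simp_all
  have hfib : ∀ b ∈ S.image f, ((S.filter fun x => f x = b).card : ℝ) ≤
      min (36 * m.s1) W / rho + 1 := by
    intro b hb
    set F := S.filter fun x => f x = b with hF
    have hinj : (F.image fun x => co x i).card = F.card := by
      apply card_image_of_injOn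
      intro x hx y hy hxy
      rw [hF, mem_coe, mem_filter] at hx hy
      have h1 : f x = f y := hx.2.trans hy.2.symm
      rw [hf, Prod.mk.injEq] at h1
      obtain ⟨h2, h3⟩ := h1
      have hco' : ∀ j : Fin 2, co x j = co y j := by
        intro j
        by_cases hj : j = i
        · rw [hj]; exact hxy
        · rw [hoj j hj]; exact h2
      have e0 := hco' 0
      have e1 := hco' 1
      have e01 : x.1 = y.1 := Prod.ext e0 e1
      have h4 := Int.abs_sub_lt_one_of_floor_eq_floor h3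
      rw [← sub_div, abs_div, abs_of_pos hr2, div_lt_one hr2] at h4
      have h5 : nus rho (C, a, k) x - nus rho (C, a, k) y = ((x.2 : ℝ) - y.2) * rho ^ 2 := by
        unfold nus
        rw [e01]; ring
      rw [h5, abs_mul, abs_of_pos hr2] at h4
      have h6 : |(x.2 : ℝ) - y.2| < 1 := by
        by_contra hc
        push Not at hc
        nlinarith
      have h7 : |x.2 - y.2| < 1 := by exact_mod_cast h6
      have h8 := Int.abs_lt_one_iff.1 h7
      exact Prod.ext e01 (by omega)
    rw [← hinj]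
    refine Fl337.card_close (by positivity) ?_
    intro i1 hi1 i2 hi2
    rw [mem_image] at hi1 hi2
    obtain ⟨x, hx, rfl⟩ := hi1
    obtain ⟨y, hy, rfl⟩ := hi2
    rw [hF, mem_filter] at hx hy
    have hbd := hcoW x hx.1 y hy.1 i
    have h1 : f x = f y := hx.2.trans hy.2.symm
    rw [hf, Prod.mk.injEq] at h1
    obtain ⟨h2, h3⟩ := h1
    have h4 := (Int.abs_sub_lt_one_of_floor_eq_floor h3).le
    rw [← sub_div, abs_div, abs_of_pos hr2, div_le_one hr2] at h4
    have h5 := key x hx.1 y hy.1 h4 (fun j hj => by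
      rw [hco1, hoj j hj, h2, sub_self, zero_mul])
    rw [hco1, abs_mul, abs_of_pos hrho] at h5
    rw [le_div_iff₀ hrho]
    exact le_min h5 ((le_div_iff₀ hrho).1 hbd)
  have himg : ((S.image f).card : ℝ) ≤ (W / rho + 1) * (lam / rho ^ 2 + 2) := by
    have h1 : S.image f ⊆ (S.image fun x => co x oi) ×ˢ
        (S.image fun x => ⌊nus rho (C, a, k) x / rho ^ 2⌋) := by
      intro b hb
      rw [mem_image] at hb
      obtain ⟨x, hx, rfl⟩ := hb
      rw [mem_product]
      exact ⟨mem_image_of_mem _ hx, mem_image_of_mem _ hx⟩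
    have h2 := card_le_card h1
    rw [card_product] at h2
    have h3 : ((S.image fun x => co x oi).card : ℝ) ≤ W / rho + 1 := by
      refine Fl337.card_close (by positivity) ?_
      intro i1 hi1 i2 hi2
      rw [mem_image] at hi1 hi2
      obtain ⟨x, hx, rfl⟩ := hi1
      obtain ⟨y, hy, rfl⟩ := hi2
      exact hcoW x hx y hy oi
    have h4 : ((S.image fun x => ⌊nus rho (C, a, k) x / rho ^ 2⌋).card : ℝ) ≤
        (lam / rho ^ 2 + 1) + 1 := by
      refine Fl337.card_close (by positivity) ?_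
      intro i1 hi1 i2 hi2
      rw [mem_image] at hi1 hi2
      obtain ⟨x, hx, rfl⟩ := hi1
      obtain ⟨y, hy, rfl⟩ := hi2
      have h5 := hnu x hx y hy
      have f1 := Int.floor_le (nus rho (C, a, k) x / rho ^ 2)
      have f2 := Int.lt_floor_add_one (nus rho (C, a, k) x / rho ^ 2)
      have f3 := Int.floor_le (nus rho (C, a, k) y / rho ^ 2)
      have f4 := Int.lt_floor_add_one (nus rho (C, a, k) y / rho ^ 2)
      have f5 : |nus rho (C, a, k) x / rho ^ 2 - nus rho (C, a, k) y / rho ^ 2| ≤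
          lam / rho ^ 2 := by
        rw [← sub_div, abs_div, abs_of_pos hr2]
        exact div_le_div_of_nonneg_right h5 hr2.le
      rw [abs_le] at f5 ⊢
      constructor <;> linarith [f5.1, f5.2]
    calc ((S.image f).card : ℝ) ≤ ((S.image fun x => co x oi).card : ℝ) *
          ((S.image fun x => ⌊nus rho (C, a, k) x / rho ^ 2⌋).card : ℝ) := by exact_mod_cast h2
      _ ≤ (W / rho + 1) * ((lam / rho ^ 2 + 1) + 1) := by gcongr
      _ = _ := by ring
  -- sum over the fibers
  have hsum : (S.card : ℝ) ≤ (S.image f).card * (min (36 * m.s1) W / rho + 1) := by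
    have : S.card = ∑ c ∈ S.image f, (S.filter fun t => f t = c).card :=
      card_eq_sum_card_image f S
    rw [this]
    push_cast
    calc ∑ c ∈ S.image f, ((S.filter fun t => f t = c).card : ℝ) ≤
          ∑ c ∈ S.image f, (min (36 * m.s1) W / rho + 1) := sum_le_sum hfib
      _ = (S.image f).card * (min (36 * m.s1) W / rho + 1) := by rw [sum_const, nsmul_eq_mul]
  refine hsum.trans ?_
  have h0 : 0 ≤ min (36 * m.s1) W / rho + 1 := by positivity
  exact mul_le_mul_of_nonneg_right himg h0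

open Classical in
/-- **slopes of the children at one position.** -/
theorem slope_count {M : ℝ} {m : Mem} (h : Sm M m) {rho W : ℝ} (hrho : 0 < rho) (hW : 0 ≤ W)
    (C a : E2) (k : ℝ) (S : Finset (ℤ × ℤ))
    (hS : ∀ c ∈ S, (C + pv rho c, a, k) ∈ m.rays 0)
    (hp1 : ∀ x ∈ S, ∀ y ∈ S, |((x.1 : ℝ) - y.1) * rho| ≤ W)
    (hp2 : ∀ x ∈ S, ∀ y ∈ S, |((x.2 : ℝ) - y.2) * rho| ≤ W) :
    (S.card : ℝ) ≤ (W / rho + 1) * (min (20 * m.s1) W / rho + 1) := by
  have hsg := h.ok.sg_pos
  have hs10 := h.ok.hs1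
  have hle := h.ok.hsg
  rcases S.eq_empty_or_nonempty with rfl | ⟨c0, hc0⟩
  · simp only [card_empty, Nat.cast_zero]
    positivity
  obtain ⟨b1, b2, b3, b4, b5⟩ := h.ray (hS c0 hc0)
  obtain ⟨g1, -⟩ := h.gr_sq (hS c0 hc0)
  obtain ⟨i, hi⟩ := exists_comp g1
  set w : E2 := pv rho c0 with hw
  have key : ∀ x ∈ S, ∀ y ∈ S,
      (∀ j : Fin 2, j ≠ i → (pv rho x - pv rho y) j = 0) →
      |(pv rho x - pv rho y) i| ≤ 20 * m.s1 := by
    intro x hx y hy ho
    obtain ⟨x1, x2, x3, x4, x5⟩ := h.ray (hS x hx)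
    obtain ⟨y1, y2, y3, y4, y5⟩ := h.ray (hS y hy)
    set D : E2 := pv rho x - pv rho y with hD
    have ex := Cf.ld_dir m.phi (C + w) (C + pv rho x) a k 0
    have ey := Cf.ld_dir m.phi (C + w) (C + pv rho y) a k 0
    have hDn : ‖D‖ = |D i| := by
      have h1 := CDef480.normsq2 D
      have h2 : ‖D‖ ^ 2 = |D i| ^ 2 := by
        rw [h1, sq_abs]
        fin_cases i
        · have := ho 1 (by decide)
          simp only [Fin.zero_eta, this]; ring
        · have := ho 0 (by decide)
          simp only [Fin.mk_one, this]; ring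
      exact (pow_left_inj₀ (norm_nonneg _) (abs_nonneg _) two_ne_zero).1 h2
    have hgD : inner ℝ (m.phi.gr (C + w) a 0) D = m.phi.gr (C + w) a 0 i * D i := by
      rw [PiLp.inner_apply, Fin.sum_univ_two]
      simp only [RCLike.inner_apply, conj_trivial]
      fin_cases i
      · have := ho 1 (by decide)
        simp only [Fin.zero_eta, this]; ring
      · have := ho 0 (by decide)
        simp only [Fin.mk_one, this]; ring
    set G : E2 := (C + pv rho x - (C + w)) + (C + pv rho y - (C + w)) with hG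
    have e : m.phi.ld (C + pv rho x) a k 0 - m.phi.ld (C + pv rho y) a k 0 =
        -(m.phi.gr (C + w) a 0 i * D i) + m.phi.ny 0 * inner ℝ D G / 2 := by
      rw [ex, ey, ← hgD]
      have e1 : inner ℝ D G = ‖C + pv rho x - (C + w)‖ ^ 2 - ‖C + pv rho y - (C + w)‖ ^ 2 := by
        have e2 : D = (C + pv rho x - (C + w)) - (C + pv rho y - (C + w)) := by rw [hD]; abel
        rw [e2, hG]
        generalize C + pv rho x - (C + w) = u
        generalize C + pv rho y - (C + w) = v
        rw [inner_sub_left, inner_add_right, inner_add_right, real_inner_self_eq_norm_sq,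
          real_inner_self_eq_norm_sq, real_inner_comm u v]
        ring
      have e3 : inner ℝ (m.phi.gr (C + w) a 0) D =
          inner ℝ (m.phi.gr (C + w) a 0) (C + pv rho x - (C + w)) -
          inner ℝ (m.phi.gr (C + w) a 0) (C + pv rho y - (C + w)) := by
        rw [← inner_sub_right]; congr 1; rw [hD]; abel
      rw [e1, e3]
      ring
    have hGn : ‖G‖ ≤ 4 * m.sg := by
      have e1 : G = ((C + pv rho x) - m.c) + ((C + pv rho y) - m.c) -
          (2:ℝ) • ((C + w) - m.c) := by rw [hG]; module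
      rw [e1]
      refine (norm_sub_le _ _).trans ?_
      rw [norm_smul, Real.norm_of_nonneg (by norm_num : (0:ℝ) ≤ 2)]
      have h2 := norm_add_le ((C + pv rho x) - m.c) ((C + pv rho y) - m.c)
      linarith
    have q2 : |m.phi.ny 0 * inner ℝ D G / 2| ≤ 8 / 25 * |D i| := by
      rw [abs_div, abs_mul, abs_two]
      have h1 := h.ny 0 (by norm_num)
      have h2 := abs_real_inner_le_norm D G
      calc |m.phi.ny 0| * |inner ℝ D G| / 2 ≤ |m.phi.ny 0| * (‖D‖ * (4 * m.sg)) / 2 := by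
            have := h2.trans (mul_le_mul_of_nonneg_left hGn (norm_nonneg D))
            have := mul_le_mul_of_nonneg_left this (abs_nonneg (m.phi.ny 0))
            linarith
        _ = 2 * (|m.phi.ny 0| * m.sg) * |D i| := by rw [hDn]; ring
        _ ≤ 2 * (4 / 25) * |D i| := by gcongr
        _ = 8 / 25 * |D i| := by ring
    have q4 : |m.phi.gr (C + w) a 0 i * D i| ≤ 2 * m.s1 + 8 / 25 * |D i| := by
      have e2 : m.phi.gr (C + w) a 0 i * D i = m.phi.ld (C + pv rho y) a k 0 -
          m.phi.ld (C + pv rho x) a k 0 + m.phi.ny 0 * inner ℝ D G / 2 := by linarith [e]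
      rw [e2]
      rw [abs_le] at x5 y5 q2 ⊢
      constructor <;> linarith [x5.1, x5.2, y5.1, y5.2, q2.1, q2.2]
    rw [abs_mul] at q4
    have q5 : 21 / 50 * |D i| ≤ |m.phi.gr (C + w) a 0 i| * |D i| :=
      mul_le_mul_of_nonneg_right hi (abs_nonneg _)
    linarith
  -- counting
  set co : ℤ × ℤ → Fin 2 → ℤ := fun x => ![x.1, x.2] with hco
  set oi : Fin 2 := 1 - i with hoi
  have hco1 : ∀ x y : ℤ × ℤ, ∀ j : Fin 2, (pv rho x - pv rho y) j =
      ((co x j : ℝ) - co y j) * rho := by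
    intro x y j
    rw [pv_sub]
    fin_cases j
    · rfl
    · rfl
  have hcoW : ∀ x ∈ S, ∀ y ∈ S, ∀ j : Fin 2, |((co x j : ℝ) - co y j)| ≤ W / rho := by
    intro x hx y hy j
    rw [le_div_iff₀ hrho]
    have e1 : |((co x j : ℝ) - co y j)| * rho = |((co x j : ℝ) - co y j) * rho| := by
      rw [abs_mul, abs_of_pos hrho]
    rw [e1]
    fin_cases j
    · exact hp1 x hx y hy
    · exact hp2 x hx y hy
  have hoj : ∀ j : Fin 2, j ≠ i → j = oi := by
    intro j hj
    rw [hoi]
    fin_cases i <;> fin_cases j <;> simp_all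
  set f : ℤ × ℤ → ℤ := fun x => co x oi with hf
  have hfib : ∀ b ∈ S.image f, ((S.filter fun x => f x = b).card : ℝ) ≤
      min (20 * m.s1) W / rho + 1 := by
    intro b hb
    set F := S.filter fun x => f x = b with hF
    have hinj : (F.image fun x => co x i).card = F.card := by
      apply card_image_of_injOn
      intro x hx y hy hxy
      rw [hF, mem_coe, mem_filter] at hx hy
      have h2 : f x = f y := hx.2.trans hy.2.symm
      have hco' : ∀ j : Fin 2, co x j = co y j := by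
        intro j
        by_cases hj : j = i
        · rw [hj]; exact hxy
        · rw [hoj j hj]; exact h2
      exact Prod.ext (hco' 0) (hco' 1)
    rw [← hinj]
    refine Fl337.card_close (by positivity) ?_
    intro i1 hi1 i2 hi2
    rw [mem_image] at hi1 hi2
    obtain ⟨x, hx, rfl⟩ := hi1
    obtain ⟨y, hy, rfl⟩ := hi2
    rw [hF, mem_filter] at hx hy
    have hbd := hcoW x hx.1 y hy.1 i
    have h2 : f x = f y := hx.2.trans hy.2.symm
    have h5 := key x hx.1 y hy.1 (fun j hj => by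
      rw [hco1, hoj j hj]
      have : co x oi = co y oi := h2
      rw [this, sub_self, zero_mul])
    rw [hco1, abs_mul, abs_of_pos hrho] at h5
    rw [le_div_iff₀ hrho]
    exact le_min h5 ((le_div_iff₀ hrho).1 hbd)
  have himg : ((S.image f).card : ℝ) ≤ W / rho + 1 := by
    refine Fl337.card_close (by positivity) ?_
    intro i1 hi1 i2 hi2
    rw [mem_image] at hi1 hi2
    obtain ⟨x, hx, rfl⟩ := hi1
    obtain ⟨y, hy, rfl⟩ := hi2
    exact hcoW x hx y hy oi
  have hsum : (S.card : ℝ) ≤ (S.image f).card * (min (20 * m.s1) W / rho + 1) := by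
    have : S.card = ∑ c ∈ S.image f, (S.filter fun t => f t = c).card :=
      card_eq_sum_card_image f S
    rw [this]
    push_cast
    calc ∑ c ∈ S.image f, ((S.filter fun t => f t = c).card : ℝ) ≤
          ∑ c ∈ S.image f, (min (20 * m.s1) W / rho + 1) := sum_le_sum hfib
      _ = (S.image f).card * (min (20 * m.s1) W / rho + 1) := by rw [sum_const, nsmul_eq_mul]
  refine hsum.trans ?_
  have h0 : 0 ≤ min (20 * m.s1) W / rho + 1 := by positivity
  exact mul_le_mul_of_nonneg_right himg h0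

end Crest.Agent.R116.Rs79
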