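import Crest.Agent.R116.Rs1_79
import Crest.Agent.R116.Rm3_618

/-!
# R116, K2 (ENEMY with room, five-coordinate fill), part 2 (helper79): parents

`child_big5` : if a child `(C + v, a + p, k + t)` (all shifts `≤ r/8` per coordinate) lies in `m`
then `(C, a, k + (t + ⟨C, p⟩))` lies in 618's fattened member `bigm r m`.
-/

set_option autoImplicit false
set_option linter.unusedVariables false

open Finset

namespace Crest.Agent.R116.Rs79

open Crest.Agent.R116.LZg725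
open Crest.Agent.R138.Defs (E2)
open Crest.Agent.R116.CDef480 (E3 lat pt vel)
open Crest.Agent.R116.LKMDef299 (LRay Cpt)
open Crest.Agent.R116.Ks79 (GRay gC gX gH Bd)
open Crest.Agent.R116.Ene618

/-- **transfer of a child (with slope shift) to the fattened member.** -/
theorem child_big5 {M r : ℝ} {m : Mem} (h : Sm M m) (hr : 0 < r) (hrsg : r ≤ m.sg)
    {C a p v : E2} {k t : ℝ} (h0 : |p 0| ≤ r / 8) (h1 : |p 1| ≤ r / 8)
    (v0 : |v 0| ≤ r / 8) (v1 : |v 1| ≤ r / 8)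
    (hm : (C + v, a + p, k + t) ∈ m.rays 0) :
    (C, a, k + (t + inner ℝ C p)) ∈ (bigm r m).rays 0 := by
  have hsg := h.ok.sg_pos
  have hs1 := h.ok.hs1
  have hle := h.ok.hsg
  have hp : ‖p‖ ≤ r / 4 := by
    have := norm_pv_le h0 h1
    linarith
  have hv : ‖v‖ ≤ r / 4 := by
    have := norm_pv_le v0 v1
    linarith
  have hT : (bigm r m).T 0 = 4 * m.sg ^ 2 := by
    rw [T_zero]; show (2 * m.sg) ^ 2 = _; ring
  have hm' := hm
  rw [Mem.mem_rays, T_zero] at hm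
  rw [Mem.mem_rays, hT]
  obtain ⟨hc, hk⟩ := hm
  rw [h.R1, h.s0] at hk
  obtain ⟨b1, b2, b3, b4, b5⟩ := h.ray hm'
  obtain ⟨-, g2⟩ := h.gr_sq hm'
  have hcC : ‖C - m.c‖ ≤ m.sg + r / 4 := by
    have e : C - m.c = (C + v - m.c) - v := by abel
    rw [e]
    exact (norm_sub_le _ _).trans (add_le_add hc hv)
  refine ⟨?_, fun s hs => ?_⟩
  · show ‖C - m.c‖ ≤ 2 * m.sg
    linarith
  have hs' : |s - m.s0| ≤ m.R := hs
  rw [h.s0, h.R1] at hs'
  have hs1' : |s| ≤ 1 := by rwa [sub_zero] at hs'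
  obtain ⟨⟨-, k1, k2⟩, k3⟩ := hk s hs'
  have hsv : ‖s • v‖ ≤ r / 4 := by
    rw [norm_smul, Real.norm_eq_abs]
    calc |s| * ‖v‖ ≤ 1 * (r / 4) := mul_le_mul hs1' hv (norm_nonneg _) zero_le_one
      _ = r / 4 := one_mul _
  refine ⟨⟨hs, ?_, ?_⟩, ?_⟩
  · show ‖rx C a s - lat m.X0 + (s - m.s0) • m.c‖ ≤ 2 * m.sg * m.R
    rw [h.s0, h.R1]
    have e : rx C a s - lat m.X0 + (s - 0) • m.c =
        (rx (C + v) (a + p) s - lat m.X0 + (s - 0) • m.c) + (s • v - p) := by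
      unfold rx; module
    rw [e]
    have e1 := norm_add_le (rx (C + v) (a + p) s - lat m.X0 + (s - 0) • m.c) (s • v - p)
    have e2 := norm_sub_le (s • v) p
    linarith
  · show |nrm m.c (rx C a s) (ry C (k + (t + inner ℝ C p)) s) s -
      nrm m.c (lat m.X0) (m.X0 2) m.s0| ≤ 4 * m.sg ^ 2 * m.R
    rw [h.s0, h.R1]
    have e : nrm m.c (rx C a s) (ry C (k + (t + inner ℝ C p)) s) s =
        nrm m.c (rx (C + v) (a + p) s) (ry (C + v) (k + t) s) s + inner ℝ (C - m.c) p -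
        s * (inner ℝ (C - m.c) v + ‖v‖ ^ 2 / 2) := by
      have e1 : ‖C + v - m.c‖ ^ 2 = ‖C - m.c‖ ^ 2 + 2 * inner ℝ (C - m.c) v + ‖v‖ ^ 2 := by
        have : C + v - m.c = (C - m.c) + v := by abel
        rw [this, norm_add_sq_real]
      rw [nrm_ray', nrm_ray', e1, inner_add_right, inner_sub_left, inner_sub_left]; ring
    rw [e]
    have e1 : |inner ℝ (C - m.c) p| ≤ (m.sg + r / 4) * (r / 4) :=
      (abs_real_inner_le_norm _ _).trans (mul_le_mul hcC hp (norm_nonneg _) (by positivity))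
    have e2 : |s * (inner ℝ (C - m.c) v + ‖v‖ ^ 2 / 2)| ≤
        (m.sg + r / 4) * (r / 4) + (r / 4) ^ 2 / 2 := by
      rw [abs_mul]
      have f1 : |inner ℝ (C - m.c) v| ≤ (m.sg + r / 4) * (r / 4) :=
        (abs_real_inner_le_norm _ _).trans (mul_le_mul hcC hv (norm_nonneg _) (by positivity))
      have f2 : ‖v‖ ^ 2 ≤ (r / 4) ^ 2 := pow_le_pow_left₀ (norm_nonneg _) hv 2
      have f3 : |inner ℝ (C - m.c) v + ‖v‖ ^ 2 / 2| ≤
          (m.sg + r / 4) * (r / 4) + (r / 4) ^ 2 / 2 := by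
        have f4 := abs_add_le (inner ℝ (C - m.c) v) (‖v‖ ^ 2 / 2)
        have f5 : |‖v‖ ^ 2 / 2| = ‖v‖ ^ 2 / 2 := abs_of_nonneg (by positivity)
        linarith
      calc |s| * |inner ℝ (C - m.c) v + ‖v‖ ^ 2 / 2| ≤
            1 * |inner ℝ (C - m.c) v + ‖v‖ ^ 2 / 2| :=
            mul_le_mul_of_nonneg_right hs1' (abs_nonneg _)
        _ ≤ _ := by rw [one_mul]; exact f3
    have k2' : |nrm m.c (rx (C + v) (a + p) s) (ry (C + v) (k + t) s) s -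
      nrm m.c (lat m.X0) (m.X0 2) 0| ≤ m.sg ^ 2 * 1 := k2
    have e5 : (m.sg + r / 4) * (r / 4) ≤ 5 / 16 * m.sg ^ 2 := by nlinarith
    have e6 : (r / 4) ^ 2 / 2 ≤ 1 / 32 * m.sg ^ 2 := by nlinarith
    rw [abs_le] at k2' e1 e2 ⊢
    have e7 : 0 ≤ m.sg ^ 2 := sq_nonneg _
    constructor <;> linarith [k2'.1, k2'.2, e1.1, e1.2, e2.1, e2.2]
  · show |m.phi.ev (rx C a s) (ry C (k + (t + inner ℝ C p)) s) s| ≤ 2 * max m.s1 r * m.R
    rw [h.R1]
    -- the function at the new point, from the child, in the frame of the child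
    have e := Cf.ev_expand m.phi (C + v) (rx (C + v) (a + p) s) (ry (C + v) (k + t) s) s
      (rx C a s) (ry C (k + (t + inner ℝ C p)) s) s
    have e1 : rx C a s - rx (C + v) (a + p) s = s • v - p := by unfold rx; module
    have e2 : nrm (C + v) (rx C a s) (ry C (k + (t + inner ℝ C p)) s) s -
        nrm (C + v) (rx (C + v) (a + p) s) (ry (C + v) (k + t) s) s =
        -(inner ℝ v p) + s * (‖v‖ ^ 2 / 2) := by
      have e3 : C - (C + v) = -v := by abel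
      rw [nrm_ray', nrm_ray, e3, norm_neg, inner_add_left, inner_add_left, inner_add_right,
        inner_add_right]
      ring
    rw [e1, e2] at e
    simp only [sub_self, mul_zero, add_zero, zero_smul, zero_mul, sub_zero] at e
    have hmv := Cf.gr_move m.phi (C + v) (a + p) (rx (C + v) (a + p) s) 0 s
    have e3 : rx (C + v) (a + p) s - (a + p) + (s - 0) • (C + v) = 0 := by unfold rx; module
    rw [e3, smul_zero, add_zero] at hmv
    rw [hmv] at e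
    have g3 : ‖m.phi.gr (C + v) (a + p) 0‖ ≤ 13 / 10 := by
      by_contra hcon
      push Not at hcon
      nlinarith
    have hD : ‖s • v - p‖ ≤ r / 2 := by
      have := norm_sub_le (s • v) p
      linarith
    have q1 : |inner ℝ (m.phi.gr (C + v) (a + p) 0) (s • v - p)| ≤ 13 / 10 * (r / 2) :=
      (abs_real_inner_le_norm _ _).trans (mul_le_mul g3 hD (norm_nonneg _) (by norm_num))
    have hd := h.d
    have q2 : |m.phi.d * ‖s • v - p‖ ^ 2| ≤ 1 / 50 * r := by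
      rw [abs_mul, abs_of_nonneg (sq_nonneg ‖s • v - p‖)]
      have h2 : ‖s • v - p‖ ^ 2 ≤ (r / 2) * (m.sg / 2) := by
        rw [sq]
        exact mul_le_mul hD (by linarith) (norm_nonneg _) (by positivity)
      calc |m.phi.d| * ‖s • v - p‖ ^ 2 ≤ |m.phi.d| * ((r / 2) * (m.sg / 2)) :=
            mul_le_mul_of_nonneg_left h2 (abs_nonneg _)
        _ = (|m.phi.d| * m.sg) * (r / 4) := by ring
        _ ≤ (2 / 25) * (r / 4) := by gcongr
        _ = 1 / 50 * r := by ring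
    have q5 : |m.phi.ny s * (-(inner ℝ v p) + s * (‖v‖ ^ 2 / 2))| ≤ 1 / 50 * r := by
      rw [abs_mul]
      have f1 : |inner ℝ v p| ≤ (r / 4) * (r / 4) :=
        (abs_real_inner_le_norm _ _).trans (mul_le_mul hv hp (norm_nonneg _) (by positivity))
      have f2 : |s * (‖v‖ ^ 2 / 2)| ≤ (r / 4) ^ 2 / 2 := by
        rw [abs_mul, abs_of_nonneg (a := ‖v‖ ^ 2 / 2) (by positivity)]
        have f3 : ‖v‖ ^ 2 ≤ (r / 4) ^ 2 := pow_le_pow_left₀ (norm_nonneg _) hv 2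
        calc |s| * (‖v‖ ^ 2 / 2) ≤ 1 * (‖v‖ ^ 2 / 2) :=
              mul_le_mul_of_nonneg_right hs1' (by positivity)
          _ ≤ _ := by rw [one_mul]; linarith
      have f3 : |-(inner ℝ v p) + s * (‖v‖ ^ 2 / 2)| ≤ 3 / 32 * (r * m.sg) := by
        have f4 := abs_add_le (-(inner ℝ v p)) (s * (‖v‖ ^ 2 / 2))
        rw [abs_neg] at f4
        have f5 : r * r ≤ r * m.sg := mul_le_mul_of_nonneg_left hrsg hr.le
        nlinarith
      have f6 := h.ny s hs1'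
      calc |m.phi.ny s| * |-(inner ℝ v p) + s * (‖v‖ ^ 2 / 2)| ≤
            |m.phi.ny s| * (3 / 32 * (r * m.sg)) := mul_le_mul_of_nonneg_left f3 (abs_nonneg _)
        _ = (|m.phi.ny s| * m.sg) * (3 / 32 * r) := by ring
        _ ≤ (4 / 25) * (3 / 32 * r) := by gcongr
        _ ≤ 1 / 50 * r := by linarith
    have q3 := le_max_left m.s1 r
    have q4 := le_max_right m.s1 r
    have k3' : |m.phi.ev (rx (C + v) (a + p) s) (ry (C + v) (k + t) s) s| ≤ m.s1 := by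
      have := k3; rwa [mul_one] at this
    rw [e]
    rw [abs_le] at k3' q1 q2 q5 ⊢
    constructor <;> linarith [k3'.1, k3'.2, q1.1, q1.2, q2.1, q2.2, q5.1, q5.2]

/-- **parents and null shifts for `r ≤ sg`.** -/
theorem parents_big5 {M r : ℝ} (hM : 1 ≤ M) {m : Mem} (h : Sm M m) (hr : 0 < r) (hr1 : r ≤ 1)
    (hrsg : r ≤ m.sg) (hsg : m.sg ≤ 1 / 2) :
    ∃ (F : ℤ → Mem) (l : ℝ), Fg126.Fill M r (bigm r m) F l ∧
      (∀ (C v a p : E2) (k t : ℝ), ‖C‖ ≤ 3 / 2 → |v 0| ≤ r / 8 → |v 1| ≤ r / 8 →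
        |p 0| ≤ r / 8 → |p 1| ≤ r / 8 → |t| ≤ r / 8 →
        (C + v, a + p, k + t) ∈ m.rays 0 → ∃ j : ℤ, |j| ≤ 3 ∧ (C, a, k) ∈ (F j).rays r) ∧
      (∀ (C v v' a p p' : E2) (k t t' : ℝ), ‖C‖ ≤ 3 / 2 → |v 0| ≤ r / 8 → |v 1| ≤ r / 8 →
        |v' 0| ≤ r / 8 → |v' 1| ≤ r / 8 → |p 0| ≤ r / 8 → |p 1| ≤ r / 8 →
        |t| ≤ r / 8 → |p' 0| ≤ r / 8 → |p' 1| ≤ r / 8 → |t'| ≤ r / 8 →
        (C + v, a + p, k + t) ∈ m.rays 0 → (C + v', a + p', k + t') ∈ m.rays 0 →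
        |(t + inner ℝ C p) - (t' + inner ℝ C p')| ≤ l) := by
  have hok := bigm_ok hM h hr hrsg
  have hs1 : r ≤ (bigm r m).s1 := by
    show r ≤ 2 * max m.s1 r
    have := le_max_right m.s1 r
    linarith
  have hsg' : (bigm r m).sg ≤ 1 := by
    show 2 * m.sg ≤ 1
    linarith
  obtain ⟨F, l, hF⟩ := Fg126.fill_geo hM hr hr1 hok (show (bigm r m).R = 1 from h.R1)
    (show (bigm r m).s0 = 0 from h.s0) hs1 hsg'
  have hnu : ∀ (C p : E2) (t : ℝ), ‖C‖ ≤ 3 / 2 → |p 0| ≤ r / 8 → |p 1| ≤ r / 8 → |t| ≤ r / 8 →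
      |t + inner ℝ C p| ≤ 2 * r := by
    intro C p t hC h0 h1 ht
    have hp := norm_pv_le h0 h1
    have q1 : |inner ℝ C p| ≤ 3 / 2 * (2 * (r / 8)) :=
      (abs_real_inner_le_norm _ _).trans (mul_le_mul hC hp (norm_nonneg _) (by norm_num))
    have := abs_add_le t (inner ℝ C p)
    linarith
  refine ⟨F, l, hF, ?_, ?_⟩
  · intro C v a p k t hC v0 v1 h0 h1 ht hm
    exact hF.ray C a k _ (child_big5 h hr hrsg h0 h1 v0 v1 hm) (hnu C p t hC h0 h1 ht)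
  · intro C v v' a p p' k t t' hC v0 v1 v0' v1' h0 h1 ht h0' h1' ht' hm hm'
    exact hF.diff C a k _ _ (child_big5 h hr hrsg h0 h1 v0 v1 hm)
      (child_big5 h hr hrsg h0' h1' v0' v1' hm')
      (hnu C p t hC h0 h1 ht) (hnu C p' t' hC h0' h1' ht')

/-- two parents of children of one thin member. -/
theorem close_pair5 {N : ℕ} (hN : 1 ≤ N) {l l' : GRay} (hl : Bd N l) {m : Mem}
    (hR : m.R = 1) (hs0 : m.s0 = 0) (hsg : 0 < m.sg) (hsg1 : m.sg ≤ 1 / N)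
    {v v' p p' : E2} {t t' : ℝ}
    (hv0 : |v 0| ≤ 1 / (8 * N)) (hv1 : |v 1| ≤ 1 / (8 * N))
    (hv0' : |v' 0| ≤ 1 / (8 * N)) (hv1' : |v' 1| ≤ 1 / (8 * N))
    (hp0 : |p 0| ≤ 1 / (8 * N)) (hp1 : |p 1| ≤ 1 / (8 * N))
    (ht : |t| ≤ 1 / (8 * N)) (hp0' : |p' 0| ≤ 1 / (8 * N)) (hp1' : |p' 1| ≤ 1 / (8 * N))
    (ht' : |t'| ≤ 1 / (8 * N))
    (h : (-(gC N l) + v, gX N l + p, gH N l + t) ∈ m.rays 0)
    (h' : (-(gC N l') + v', gX N l' + p', gH N l' + t') ∈ m.rays 0) :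
    ((l.1.1.1 - 2 ≤ l'.1.1.1 ∧ l'.1.1.1 ≤ l.1.1.1 + 2) ∧
      (l.1.1.2 - 2 ≤ l'.1.1.2 ∧ l'.1.1.2 ≤ l.1.1.2 + 2)) ∧
    ((l.1.2.1 - 2 ≤ l'.1.2.1 ∧ l'.1.2.1 ≤ l.1.2.1 + 2) ∧
      (l.1.2.2 - 2 ≤ l'.1.2.2 ∧ l'.1.2.2 ≤ l.1.2.2 + 2)) ∧
    (l.2 - 8 ≤ l'.2 ∧ l'.2 ≤ l.2 + 8) := by
  have hN0 : (0 : ℝ) < N := by exact_mod_cast hN
  have hN1 : (1 : ℝ) ≤ N := by exact_mod_cast hN
  set u : ℝ := 1 / N with hu
  have hu0 : 0 < u := by positivity
  have hu1 : u ≤ 1 := by rw [hu, div_le_one hN0]; exact hN1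
  have h8 : (1 : ℝ) / (8 * N) = u / 8 := by rw [hu]; field_simp
  rw [h8] at hp0 hp1 ht hp0' hp1' ht' hv0 hv1 hv0' hv1'
  obtain ⟨a1, a2, a3⟩ := RmB79.at_zero hR hs0 h
  obtain ⟨b1, b2, b3⟩ := RmB79.at_zero hR hs0 h'
  simp only [] at a1 a2 a3 b1 b2 b3
  have hvn : ‖v‖ ≤ u / 4 := by
    have := norm_pv_le hv0 hv1
    linarith
  -- slopes
  have hC : ‖(gC N l' - v') - (gC N l - v)‖ ≤ 2 * u := by
    have e : (gC N l' - v') - (gC N l - v) = (-(gC N l) + v - m.c) - (-(gC N l') + v' - m.c) := by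
      abel
    rw [e]
    exact (norm_sub_le _ _).trans (by linarith)
  have hX : ‖(gX N l' + p') - (gX N l + p)‖ ≤ 2 * u := by
    have e : (gX N l' + p') - (gX N l + p) =
        ((gX N l' + p') - lat m.X0) - ((gX N l + p) - lat m.X0) := by abel
    rw [e]
    exact (norm_sub_le _ _).trans (by linarith)
  have hc : ‖m.c‖ ≤ 11 / 4 := by
    have e : m.c = -(gC N l) + (v - (-(gC N l) + v - m.c)) := by abel
    rw [e]
    have e1 := norm_add_le (-(gC N l)) (v - (-(gC N l) + v - m.c))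
    have e2 := norm_sub_le v (-(gC N l) + v - m.c)
    rw [norm_neg] at e1
    have := norm_gC' hN hl
    linarith
  have hinn : |inner ℝ m.c ((gX N l' + p') - (gX N l + p))| ≤ 11 / 2 * u := by
    refine (abs_real_inner_le_norm _ _).trans ?_
    calc ‖m.c‖ * ‖(gX N l' + p') - (gX N l + p)‖ ≤ 11 / 4 * (2 * u) :=
          mul_le_mul hc hX (norm_nonneg _) (by norm_num)
      _ = 11 / 2 * u := by ring
  have hsq : m.sg ^ 2 ≤ u := by nlinarith
  have hH : |gH N l' - gH N l| ≤ 2 * u + 11 / 2 * u + u / 4 := by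
    have e : gH N l' - gH N l =
        ((gH N l' + t' + inner ℝ m.c (gX N l' + p')) - (m.X0 2 + inner ℝ m.c (lat m.X0)))
        - ((gH N l + t + inner ℝ m.c (gX N l + p)) - (m.X0 2 + inner ℝ m.c (lat m.X0)))
        - inner ℝ m.c ((gX N l' + p') - (gX N l + p)) + (t - t') := by
      rw [inner_sub_right]; ring
    rw [e]
    rw [abs_le] at a3 b3 hinn ht ht' ⊢
    constructor <;> linarith [a3.1, a3.2, b3.1, b3.2, hinn.1, hinn.2, ht.1, ht.2, ht'.1, ht'.2]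
  -- coordinates
  have hC0 : |((gC N l' - v') - (gC N l - v)) 0| ≤ 2 * u := (abs_coord_le _ 0).trans hC
  have hC1 : |((gC N l' - v') - (gC N l - v)) 1| ≤ 2 * u := (abs_coord_le _ 1).trans hC
  have hX0 : |((gX N l' + p') - (gX N l + p)) 0| ≤ 2 * u := (abs_coord_le _ 0).trans hX
  have hX1 : |((gX N l' + p') - (gX N l + p)) 1| ≤ 2 * u := (abs_coord_le _ 1).trans hX
  have k3 : ∀ K : ℕ, ((K : ℝ) + 1) / N = (K + 1) * u := fun K => by rw [hu]; ring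
  have c0 : |(l'.1.1.1 : ℝ) / N - (l.1.1.1 : ℝ) / N| < ((2 : ℕ) + 1) / N := by
    rw [k3]
    have : ((gC N l' - v') - (gC N l - v)) 0 =
        ((l'.1.1.1 : ℝ) / N - v' 0) - ((l.1.1.1 : ℝ) / N - v 0) := rfl
    rw [this] at hC0
    push_cast
    rw [abs_le] at hC0 hv0 hv0'
    rw [abs_lt]
    constructor <;> linarith [hC0.1, hC0.2, hv0.1, hv0.2, hv0'.1, hv0'.2]
  have c1 : |(l'.1.1.2 : ℝ) / N - (l.1.1.2 : ℝ) / N| < ((2 : ℕ) + 1) / N := by
    rw [k3]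
    have : ((gC N l' - v') - (gC N l - v)) 1 =
        ((l'.1.1.2 : ℝ) / N - v' 1) - ((l.1.1.2 : ℝ) / N - v 1) := rfl
    rw [this] at hC1
    push_cast
    rw [abs_le] at hC1 hv1 hv1'
    rw [abs_lt]
    constructor <;> linarith [hC1.1, hC1.2, hv1.1, hv1.2, hv1'.1, hv1'.2]
  have d0 : |(l'.1.2.1 : ℝ) / N - (l.1.2.1 : ℝ) / N| < ((2 : ℕ) + 1) / N := by
    rw [k3]
    have : ((gX N l' + p') - (gX N l + p)) 0 =
        ((l'.1.2.1 : ℝ) / N + p' 0) - ((l.1.2.1 : ℝ) / N + p 0) := rfl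
    rw [this] at hX0
    push_cast
    rw [abs_le] at hX0 hp0 hp0'
    rw [abs_lt]
    constructor <;> linarith [hX0.1, hX0.2, hp0.1, hp0.2, hp0'.1, hp0'.2]
  have d1 : |(l'.1.2.2 : ℝ) / N - (l.1.2.2 : ℝ) / N| < ((2 : ℕ) + 1) / N := by
    rw [k3]
    have : ((gX N l' + p') - (gX N l + p)) 1 =
        ((l'.1.2.2 : ℝ) / N + p' 1) - ((l.1.2.2 : ℝ) / N + p 1) := rfl
    rw [this] at hX1
    push_cast
    rw [abs_le] at hX1 hp1 hp1'
    rw [abs_lt]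
    constructor <;> linarith [hX1.1, hX1.2, hp1.1, hp1.2, hp1'.1, hp1'.2]
  have e0 : |(l'.2 : ℝ) / N - (l.2 : ℝ) / N| < ((8 : ℕ) + 1) / N := by
    rw [k3]
    have : gH N l' - gH N l = (l'.2 : ℝ) / N - (l.2 : ℝ) / N := rfl
    rw [← this]; push_cast; linarith
  have c0' := RmB79.int_close hN c0
  have c1' := RmB79.int_close hN c1
  have d0' := RmB79.int_close hN d0
  have d1' := RmB79.int_close hN d1
  have e0' := RmB79.int_close hN e0
  push_cast at c0' c1' d0' d1' e0'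
  exact ⟨⟨c0', c1'⟩, ⟨d0', d1'⟩, e0'⟩

open Classical in
/-- a member of aperture `≤ 1/N` contains (five-coordinate) children of few grid rays. -/
theorem parents_small5 {N : ℕ} (hN : 1 ≤ N) {s : Finset GRay} (hs : ∀ l ∈ s, Bd N l) {m : Mem}
    (hR : m.R = 1) (hs0 : m.s0 = 0) (hsg : 0 < m.sg) (hsg1 : m.sg ≤ 1 / N) :
    ((s.filter fun l => ∃ (v p : E2) (t : ℝ), |v 0| ≤ 1 / (8 * N) ∧ |v 1| ≤ 1 / (8 * N) ∧
      |p 0| ≤ 1 / (8 * N) ∧ |p 1| ≤ 1 / (8 * N) ∧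
      |t| ≤ 1 / (8 * N) ∧ (-(gC N l) + v, gX N l + p, gH N l + t) ∈ m.rays 0).card : ℝ) ≤
      100000 := by
  set S := s.filter fun l => ∃ (v p : E2) (t : ℝ), |v 0| ≤ 1 / (8 * N) ∧ |v 1| ≤ 1 / (8 * N) ∧
      |p 0| ≤ 1 / (8 * N) ∧ |p 1| ≤ 1 / (8 * N) ∧
      |t| ≤ 1 / (8 * N) ∧ (-(gC N l) + v, gX N l + p, gH N l + t) ∈ m.rays 0 with hS
  rcases S.eq_empty_or_nonempty with h0 | ⟨l, hl⟩
  · rw [h0]; norm_num
  · rw [hS, mem_filter] at hl
    obtain ⟨hls, v, p, t, hv0, hv1, hp0, hp1, ht, h⟩ := hl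
    have hsub : S ⊆ ((Icc (l.1.1.1 - 2) (l.1.1.1 + 2) ×ˢ Icc (l.1.1.2 - 2) (l.1.1.2 + 2)) ×ˢ
        (Icc (l.1.2.1 - 2) (l.1.2.1 + 2) ×ˢ Icc (l.1.2.2 - 2) (l.1.2.2 + 2))) ×ˢ
        Icc (l.2 - 8) (l.2 + 8) := by
      intro l' hl'
      rw [hS, mem_filter] at hl'
      obtain ⟨-, v', p', t', hv0', hv1', hp0', hp1', ht', h'⟩ := hl'
      obtain ⟨⟨c0, c1⟩, ⟨d0, d1⟩, e0⟩ := close_pair5 hN (hs l hls) hR hs0 hsg hsg1
        hv0 hv1 hv0' hv1' hp0 hp1 ht hp0' hp1' ht' h h'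
      simp only [mem_product, mem_Icc]
      exact ⟨⟨⟨c0, c1⟩, ⟨d0, d1⟩⟩, e0⟩
    have hcard := card_le_card hsub
    have hc : ∀ a : ℤ, (Icc (a - 2) (a + 2)).card = 5 := fun a => by
      rw [Int.card_Icc]
      have : a + 2 + 1 - (a - 2) = 5 := by ring
      rw [this]; rfl
    have hc8 : (Icc (l.2 - 8) (l.2 + 8)).card = 17 := by
      rw [Int.card_Icc]
      have : l.2 + 8 + 1 - (l.2 - 8) = 17 := by ring
      rw [this]; rfl
    rw [card_product, card_product, card_product, card_product, hc, hc, hc, hc, hc8] at hcard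
    have : (S.card : ℝ) ≤ 10625 := by
      have h2 : S.card ≤ 10625 := by simpa using hcard
      exact_mod_cast h2
    linarith

end Crest.Agent.R116.Rs79
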