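import Crest.Agent.R116.Rs3_79
import Crest.Agent.R116.Rm6_618

/-!
# R116, [ENEMY] plugged (helper79)

`enemy2` : the room of 618 (`enemy2_of`) with the five-coordinate count `count5`.
`enemy2_imp` is literally the hypothesis `hE` of `KTop387.lkm_of`.
-/

namespace Crest.Agent.R116.Rs79

open Crest.Agent.R116 Crest.Agent.R116.Ks79

theorem enemy2 (h : ¬ LKMseq 68) :
    ∃ b0 : ℝ, 0 < b0 ∧ ∀ K0, Yb2635.EnemyAt2 (Rm635.TSK K0) b0 := by
  obtain ⟨b0, h0, h1⟩ := Ene618.enemy2_of KC5_pos count5 h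
  exact ⟨b0, h0, h1⟩

end Crest.Agent.R116.Rs79
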