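import Crest.Agent.R116.TuL_890
import Crest.Agent.R116.A1k3_229

/-!
# R116 (S0155), wave side, CHAIN-C (helper210): `A2k ⟹ ROOT`
-/

set_option autoImplicit false

open MeasureTheory
open scoped ENNReal

namespace Crest.Agent.R116.GlC210

open Crest.Agent.R116.CDef480 Crest.Agent.R116.WC188

/-- slices of width `κ` are slices of width `2 κ`. -/
theorem Slc_two {η0 κ : ℝ} (hκ : 0 ≤ κ) {g : E3 → ℂ} (h : Slc η0 κ g) : Slc η0 (2 * κ) g :=
  fun ζ hζ => (h ζ hζ).trans (by linarith)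

/-- **ROOT from A2k.** -/
theorem root_of_A2k {M q : ℝ} (hA : A2k M q) : ROOT M q := by
  intro c hc hLB
  obtain ⟨K, hK, hA2⟩ := hA c hc hLB
  obtain ⟨Kν, hKν⟩ : ∃ n : ℕ, K + 1 ≤ n := exists_nat_ge _
  have hKν1 : 1 ≤ Kν := by
    have : (1:ℝ) ≤ Kν := by linarith
    exact_mod_cast this
  refine ⟨Kν, ?_⟩
  intro a b A ε M0 hRg K' A' Cn hA' hCn
  obtain ⟨C2, hC2, hA3⟩ := hA2 a b A' ε M0 hRg.a1 hRg.b0 hRg.b2 hA' hRg.e0
  refine ⟨1 + Cn * C2, by nlinarith, ?_⟩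
  intro κ η0 C0 σ g R D hSs hKp hCR L hL ν hν hLe k hk
  have hR : 1 ≤ R := hSs.R1
  have hR0 : 0 < R := by linarith
  have hr1 : 1 ≤ L.r := TuL890.lev_r1 hL hR
  have hr0 : 0 < L.r := by linarith
  have hs := hL.sd k hk
  have hs10 : 0 < (L.s k).1 := (Real.rpow_pos_of_pos hr0 _).trans_le hs.lo
  have hs20 : 0 < (L.s k).2 := hs10.trans_le hs.le
  have hSS0 : 0 ≤ SS g R D := by
    unfold SS
    have := Ba449.Enc_nonneg g
    positivity
  have h1 := TuL890.S_le_val hL hR hk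
  have h2 := A1k229.combine (M := M) (κ := κ) (A := A') (A' := A') (R := R) le_rfl hr0.le
    hs10.le hs20.le g L.Z (fun z hz z' hz' => hL.net.sep z hz z' hz') (fun z => L.I z k)
    (fun z => L.P z k) (fun z hz => by
      obtain ⟨cls, hd⟩ := hL.dec z hz
      exact hd.pl k (Finset.mem_range.2 hk))
  have h3 := hA3 κ η0 C0 σ g R D hKp.k0 hKp.ka
    ((Real.rpow_le_rpow_of_exponent_le hR (by norm_num)).trans hKp.kR) hSs.toSt
    (Slc_two hKp.k0.le hSs.slc) L.r (L.s k).1 (L.s k).2 hL.lo hL.hi hs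
  set mx : ℝ := (max 1 (R / ((L.s k).1 * L.r) ^ 2)) ^ (c / 2) with hmx
  have hmx0 : 0 ≤ mx := by
    rw [hmx]
    exact Real.rpow_nonneg (le_trans zero_le_one (le_max_left _ _)) _
  have hsq : √(Cn * L.nb) ≤ Cn * ν := by
    have hnb := hLe.2
    have h0 : (1:ℝ) ≤ Cn * ν := by nlinarith
    calc √(Cn * L.nb) ≤ √(Cn * ν) := Real.sqrt_le_sqrt (by gcongr)
      _ ≤ Cn * ν := Real.sqrt_le_iff.2 ⟨by linarith, by nlinarith⟩
  calc L.S g k ≤ ENNReal.ofReal (√(Cn * L.nb)) * (ENNReal.ofReal ((L.s k).2 ^ (-q / 2)) *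
        SIG M κ A' L.r (L.s k).1 (L.s k).2 g R) := h1.trans (by gcongr)
    _ ≤ ENNReal.ofReal (Cn * ν) * ENNReal.ofReal (C2 * R ^ (K * ε) * mx * SS g R D) := by
        gcongr
    _ = ENNReal.ofReal (Cn * ν * (C2 * R ^ (K * ε) * mx * SS g R D)) :=
        (ENNReal.ofReal_mul (by positivity)).symm
    _ ≤ _ := by
        refine ENNReal.ofReal_le_ofReal ?_
        have e1 : ν ≤ ν ^ Kν := le_self_pow₀ hν (by omega)
        have e2 : R ^ (K * ε) ≤ R ^ (Kν * ε) := by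
          refine Real.rpow_le_rpow_of_exponent_le hR ?_
          have := hRg.e0
          gcongr
          linarith
        calc Cn * ν * (C2 * R ^ (K * ε) * mx * SS g R D)
            = (Cn * C2) * ν * R ^ (K * ε) * mx * SS g R D := by ring
          _ ≤ (1 + Cn * C2) * ν ^ Kν * R ^ (Kν * ε) * mx * SS g R D := by
              gcongr
              linarith

end Crest.Agent.R116.GlC210
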