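import Crest.Agent.R116.Ec1_460

/-!
# R116, K-TEXT II-c: the interface `Rays` "analysis -> table" (helper460)

One blown-up record point of the 3-parameter natural family `(v; a, b)`; the record is the line
`(v; -θa v, -θb v)`, an offset `w = (a', b')` is taken at equal `v`, `HP(w) = record + ℝ₊ w`.

Slots (`Fin 6`): `0 z`, `1 C_a`, `2 C_b`, `3 X_a`, `4 N`, `5 H`; flag slots are in the group of `z`.
`lev θa θb α l w i` = level of slot `i` at the natural box `record point α + l w`.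
`ρ w i` = log-rate (number of children) of slot `i` on `HP(w)`, meaningful when `i` is alone in its
group of parallel slots on the plane spanned by the record and `w`.

The set `W` of offsets is a parameter: 219 proves `Rays` for every COUNTABLE `W` of legal offsets
(one blow-up for all of them), the consumers choose `W`.
-/

set_option autoImplicit false

namespace Crest.Agent.R116.Ray460

/-- slopes of the slots along the record, per unit of `v` -/
def rA (θa θb : ℝ) : Fin 6 → ℝ := ![1, -θa, -θb, 1 - θa, 1 - θb, 1 - 2 * θa]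

/-- slopes of the slots along the offset `w = (a', b')` -/
def rB (w : ℝ × ℝ) : Fin 6 → ℝ := ![0, w.1, w.2, w.1, w.2, 2 * w.1]

/-- level of slot `i` at the natural box `record point α + l w` -/
def lev (θa θb α l : ℝ) (w : ℝ × ℝ) (i : Fin 6) : ℝ := α * rA θa θb i + l * rB w i

/-- slots `i`, `j` are parallel on the plane spanned by the record and `w` -/
def Par (θa θb : ℝ) (w : ℝ × ℝ) (i j : Fin 6) : Prop :=
  rA θa θb i * rB w j = rA θa θb j * rB w i

/-- slot `i` is alone in its group on the plane of `w` -/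
def Alone (θa θb : ℝ) (w : ℝ × ℝ) (i : Fin 6) : Prop := ∀ j, j ≠ i → ¬ Par θa θb w i j

/-- the plane of `w` has no two parallel slots -/
def Gen (θa θb : ℝ) (w : ℝ × ℝ) : Prop := ∀ i, Alone θa θb w i

/-- losses and rates of a half plane as a `Side` -/
def side (s : ℝ) (ρ : ℝ × ℝ → Fin 6 → ℝ) (w : ℝ × ℝ) : Ec460.Side where
  x := 1 - ρ w 3
  n := 1 - ρ w 4
  h := 1 - ρ w 5
  m := ρ w 1
  r := ρ w 2
  e := ρ w 0 - (1 - s)

/-- `F_a = x + 2 h - m + q_a` -/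
def Fa (qa : ℝ) (S : Ec460.Side) : ℝ := S.x + 2 * S.h - S.m + qa

/-- `F_b = n - r + q_b` -/
def Fb (qb : ℝ) (S : Ec460.Side) : ℝ := S.n - S.r + qb

/-- **the interface.** `W` = the (countable) set of offsets used, `ρ` = the rates. -/
structure Rays (θa θb s c qa qb : ℝ) (W : Set (ℝ × ℝ)) (ρ : ℝ × ℝ → Fin 6 → ℝ) : Prop where
  /-- rates are nonnegative -/
  r0 : ∀ w ∈ W, ∀ i, 0 ≤ ρ w i
  /-- at most one child per unit (all slots except `z`) -/
  r1 : ∀ w ∈ W, ∀ i, i ≠ 0 → ρ w i ≤ 1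
  /-- own profile of a single ray -/
  own : ∀ w ∈ W, 1 - s ≤ ρ w 0
  /-- (CL): finer conditioning at the same own level has the smaller rate -/
  cl : ∀ w₁ ∈ W, ∀ w₂ ∈ W, ∀ i, Alone θa θb w₁ i → Alone θa θb w₂ i →
    ∀ α₁ α₂ l₁ l₂ : ℝ, 0 < l₁ → 0 < l₂ →
      (∀ j, lev θa θb α₁ l₁ w₁ j ≤ lev θa θb α₂ l₂ w₂ j) →
      lev θa θb α₁ l₁ w₁ i = lev θa θb α₂ l₂ w₂ i → ρ w₂ i ≤ ρ w₁ i
  /-- windows: the rate of a slot which is alone on `HP(w₀)` is locally constant at `w₀` -/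
  loc : ∀ w₀ ∈ W, ∀ i, Alone θa θb w₀ i → ∃ ε : ℝ, 0 < ε ∧ ∀ w ∈ W, Alone θa θb w i →
    |w.1 - w₀.1| < ε → |w.2 - w₀.2| < ε → ρ w i = ρ w₀ i
  /-- D-max on `HP(w)` -/
  lin : ∀ w ∈ W, Gen θa θb w → w.1 * Fa qa (side s ρ w) + w.2 * Fb qb (side s ρ w) ≤ 0
  /-- tangential identity on `HP(w)` -/
  tan : ∀ w ∈ W, Gen θa θb w → c = (side s ρ w).x + (side s ρ w).n + (side s ρ w).h
    - (side s ρ w).e - θa * Fa qa (side s ρ w) - θb * Fb qb (side s ρ w)
  /-- (K) and (F) for the pair `C_a, X_a` -/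
  kx : ∀ w ∈ W, Alone θa θb w 1 → Alone θa θb w 3 → 0 < ρ w 1 → 1 - ρ w 3 ≤ s
  fx : ∀ w ∈ W, Alone θa θb w 1 → Alone θa θb w 3 → s < ρ w 1 → 1 - ρ w 3 = 0
  /-- (K) and (F) for the pair `C_a, H` -/
  kh : ∀ w ∈ W, Alone θa θb w 1 → Alone θa θb w 5 → 0 < ρ w 1 → 1 - ρ w 5 ≤ s
  fh : ∀ w ∈ W, Alone θa θb w 1 → Alone θa θb w 5 → s < ρ w 1 → 1 - ρ w 5 = 0
  /-- (K) and (F) for the pair `C_b, N` -/
  kn : ∀ w ∈ W, Alone θa θb w 2 → Alone θa θb w 4 → 0 < ρ w 2 → 1 - ρ w 4 ≤ s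
  fn : ∀ w ∈ W, Alone θa θb w 2 → Alone θa θb w 4 → s < ρ w 2 → 1 - ρ w 4 = 0

/-- the difference quotient continuity used in 194's (C): the total drop of the blow-up between the
natural boxes `α = 0, l w` and `α = 0, l w'` is at most `C l |w - w'|`; in terms of the rates, `Lip`
says that the homogeneous function `Φ w = Σ_i ρ w i * rB w i` (drop of `ν` from the record to `w`) is
Lipschitz. -/
def Lip (W : Set (ℝ × ℝ)) (ρ : ℝ × ℝ → Fin 6 → ℝ) (C : ℝ) : Prop :=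
  ∀ w ∈ W, ∀ w' ∈ W, |(∑ i, ρ w i * rB w i) - ∑ i, ρ w' i * rB w' i|
    ≤ C * (|w.1 - w'.1| + |w.2 - w'.2|)

theorem lev_def (θa θb α l : ℝ) (w : ℝ × ℝ) (i : Fin 6) :
    lev θa θb α l w i = α * rA θa θb i + l * rB w i := rfl

theorem lev_z (θa θb α l : ℝ) (w : ℝ × ℝ) : lev θa θb α l w 0 = α := by
  simp [lev, rA, rB]

theorem lev_Ca (θa θb α l : ℝ) (w : ℝ × ℝ) : lev θa θb α l w 1 = -θa * α + l * w.1 := by
  simp [lev, rA, rB]; ring

theorem lev_Cb (θa θb α l : ℝ) (w : ℝ × ℝ) : lev θa θb α l w 2 = -θb * α + l * w.2 := by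
  simp [lev, rA, rB]; ring

theorem lev_X (θa θb α l : ℝ) (w : ℝ × ℝ) : lev θa θb α l w 3 = (1 - θa) * α + l * w.1 := by
  simp [lev, rA, rB]; ring

theorem lev_N (θa θb α l : ℝ) (w : ℝ × ℝ) : lev θa θb α l w 4 = (1 - θb) * α + l * w.2 := by
  simp [lev, rA, rB]; ring

theorem lev_H (θa θb α l : ℝ) (w : ℝ × ℝ) :
    lev θa θb α l w 5 = (1 - 2 * θa) * α + 2 * (l * w.1) := by
  simp [lev, rA, rB]; ring

end Crest.Agent.R116.Ray460
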