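import Crest.Agent.R116.RbM2_219

/-!
# R116 (K side, ties), `k' = 1` exactly (`2 θa - θb = 1`): the slice `D = record level` (helper460)

The natural level of `D` is constant along the record line and on the `κ`-tie plane.  So `D` is frozen
at the level `0` EXACTLY (`RL8` at `t = 0`); no deadness of `D` is used.

* `Leg80`, `RL8_mem0`; `y8_zero`, `r8_eq_r9`, `L8_zero'`
* **`ae_rates8z`** : rates at the record, `t = 0`
-/

set_option autoImplicit false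
set_option linter.unusedSectionVars false
set_option linter.unusedVariables false

open Set Filter Topology Metric MeasureTheory

namespace Crest.Agent.R116.Rz460

open Crest.Agent.R136
open Crest.Agent.R138
open Net191 (Mons Legal Leg)
open Dg262 (X X_cont SupOn)
open Dg219 (Tn lf Cone Walls mw mw_P)
open Sl741 (slice xt rs)
open SgO219 (PP)
open RbK219
open RbM219
open Rc146 (RecOut)
open ChL222 (monL legalL_iff mfL)
open PL504 (eL eL_wall)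

/-- legal class vectors, `D` frozen at the level `0` -/
structure Leg80 (d : Fin 8 → ℝ) : Prop extends Leg8 d where
  G : d 7 ≤ d 0
  BD : d 6 ≤ d 3
  PD : d 2 ≤ d 5

theorem Leg80.leg8 {d : Fin 8 → ℝ} (h : Leg80 d) : Leg8 d := h.toLeg8

/-- natural offsets with constant `D` -/
theorem leg80_nat {v c p : ℝ} (h : p = 2 * c + v) : Leg80 (nat8 v c p) := by
  subst h
  refine ⟨leg8_nat _ _ _, ?_, ?_, ?_⟩ <;> simp [nat8] <;> linarith

theorem y8_zero : y8 0 = 0 := by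
  funext i
  unfold y8
  by_cases hi : i = 1
  · subst hi; rw [Function.update_self]; rfl
  · rw [Function.update_of_ne hi]

theorem r8_eq_r9 {θa θb : ℝ} (hβ : 2 * θa - θb - 1 = 0) : r8 θa θb = r9 θa θb := by
  unfold r8 r9
  funext i
  by_cases hi : i = 1
  · subst hi
    rw [Function.update_self]
    change (0:ℝ) = -θb - 2 * -θa - 1
    linarith
  · rw [Function.update_of_ne hi]

theorem L8_z {θa θb : ℝ} (hβ : 2 * θa - θb - 1 = 0) : L8 θa θb 0 = PP (mw monL) := by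
  unfold L8
  rw [y8_zero, r8_eq_r9 hβ]
  exact L9 θa θb

/-- **legality of class vectors at the record line, `t = 0`** -/
theorem RL8_mem0 {a : K8 → ℝ} {d : Fin 8 → ℝ} (hd : Leg80 d) :
    RL8.vec d ∈ (slice (mw monL) kp (y8 0) kp_hd).L (rs kp (y8 0)) a 0 := by
  intro w hw
  set c : Fin 12 → ℝ := xt kp 0 (RL8.vec d) with hc
  have hcD : c 1 = 0 := by
    rw [hc, Sl741.xt_off (p := kp) _ _ (by simp [kp])]; rfl
  have hck : ∀ i : Fin 12, i ≠ 1 → c i = d (cl8 i) := fun i hi => by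
    rw [hc, Sl741.xt_in (p := kp) _ _ hi]; simp [RS.vec, RL8]
  have hcP : c ∈ PP (mw monL) := by
    rw [mem_cone]
    have k0 := hck 0 (by decide)
    have k2 := hck 2 (by decide)
    have k3 := hck 3 (by decide)
    have k4 := hck 4 (by decide)
    have k5 := hck 5 (by decide)
    have k6 := hck 6 (by decide)
    have k7 := hck 7 (by decide)
    have k8 := hck 8 (by decide)
    have k9 := hck 9 (by decide)
    have k10 := hck 10 (by decide)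
    have k11 := hck 11 (by decide)
    have q0 : cl8 0 = 0 := rfl
    have q2 : cl8 2 = 7 := rfl
    have q3 : cl8 3 = 1 := rfl
    have q4 : cl8 4 = 1 := rfl
    have q5 : cl8 5 = 3 := rfl
    have q6 : cl8 6 = 3 := rfl
    have q7 : cl8 7 = 6 := rfl
    have q8 : cl8 8 = 6 := rfl
    have q9 : cl8 9 = 5 := rfl
    have q10 : cl8 10 = 2 := rfl
    have q11 : cl8 11 = 4 := rfl
    rw [q0] at k0
    rw [q2] at k2
    rw [q3] at k3
    rw [q4] at k4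
    rw [q5] at k5
    rw [q6] at k6
    rw [q7] at k7
    rw [q8] at k8
    rw [q9] at k9
    rw [q10] at k10
    rw [q11] at k11
    unfold Wl
    rw [k0, k2, k3, k4, k5, k6, k7, k8, k9, k10, k11, hcD]
    obtain ⟨⟨f1, f2, f3, f4, f5, f6, f7⟩, f8, f9, f10⟩ := hd
    refine ⟨?_, ?_, ?_, ?_, ?_, ?_, ?_, ?_, ?_, ?_, ?_, ?_, ?_, ?_, ?_, ?_⟩ <;> linarith
  have h1 := (mem_PP.1 hcP) w.1 w.2.1 w.2.2
  have h2 : (slice (mw monL) kp (y8 0) kp_hd).rhs w (RL8.vec d) =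
      ∑ s, (w.2.1 s : ℝ) * c s := by
    have h3 := Sl741.rhs_xt (Q := mw monL) (p := kp) (v := y8 0) (hp := kp_hd) w
      (0 : Fin 12 → ℝ) (RL8.vec d)
    have h4 : ∑ s : {i // ¬ kp i}, (((mw monL).co w s.1 : ℕ) : ℝ) *
        (0 : Fin 12 → ℝ) s.1 = 0 := by
      refine Finset.sum_eq_zero fun s _ => ?_
      simp
    rw [h4, add_zero] at h3
    rw [← h3]
    rfl
  rw [h2]
  have h6 : RL8.vec d ((slice (mw monL) kp (y8 0) kp_hd).hd w) = c w.1 := by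
    rw [hck w.1 (kp_hd w)]
    simp only [RS.vec, RL8, one_mul]
    rfl
  rw [h6]
  exact h1

theorem ae_rates8z_box {J : Type*} [Finite J] {g : J → (Fin 12 → ℝ) → ℝ} {j0 : J}
    {K : ℝ} (hK : 0 ≤ K)
    (hg : ∀ j, ∀ p ∈ PP (mw monL), ∀ q ∈ PP (mw monL), |g j p - g j q| ≤ K * dist p q)
    (hm : ∀ p ∈ PP (mw monL), ∀ q ∈ PP (mw monL), p ≤ q →
      0 ≤ g j0 p - g j0 q ∧ g j0 p - g j0 q ≤ ∑ i, (q i - p i))
    (hs : SupOn (g j0) (PP (mw monL))) {θa θb : ℝ} (hβ : 2 * θa - θb - 1 = 0)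
    {T : Type*} [Countable T]
    {B : T → Fin 8 → ℝ} {sg : T → ℝ} (hS : ∀ s, SOk (nat8 1 (-θa) (-θb)) (B s) (sg s))
    (hB : ∀ s, Leg80 (B s)) {S : ℝ} (hS0 : 0 ≤ S) :
    ∀ᵐ ξ : ℝ, ξ ∈ {ξ : ℝ | (ξ, (0:ℝ)) ∈ (mw monL).O (fun _ => -S) (fun _ => S) (y8 0)
        (r8 θa θb) 0} → ∃ c0 : T → ℝ, (∀ s, 0 < c0 s) ∧
      (∀ s, (srf8 θa θb 0 (B s) (sg s)).LW (Q8 0) (c0 s) ⊆
        (Q8 0).L (rs kp (y8 0)) (rs kp (r8 θa θb)) 0) ∧
      ∀ k : ℕ → ℝ, (∀ l, 0 < k l) → Tendsto k atTop (𝓝 0) →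
      ∃ (y k' : ℕ → ℝ) (lam : J → (Fin 12 → ℝ) → ℝ), Tendsto y atTop (𝓝 ξ) ∧
        (∀ m, 0 < k' m) ∧ Tendsto k' atTop (𝓝 0) ∧
        (∀ j, Ex926.IsTan (PP (mw monL)) (L8 θa θb 0) (g j)
          (fun m => y8 0 + y m • r8 θa θb) k' (lam j)) ∧
        ∀ s, Rec8 θa θb 0 (B s) (sg s) (c0 s) (lam j0) ∧
          ∃ ρ, Rates8 θa θb 0 (B s) (sg s) (c0 s) (lam j0) ρ := by
  have hPP : ∀ S : ℝ, (mw monL).P (fun _ => -S) (fun _ => S) ⊆ PP (mw monL) :=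
    fun S p hp => hp.2
  have hbox : ∀ i, ¬ kp i → -S ≤ y8 0 i ∧ y8 0 i ≤ S := by
    intro i hi
    rw [y8_zero]
    constructor
    · change -S ≤ (0:ℝ); linarith
    · change (0:ℝ) ≤ S; linarith
  have h1 := ae_rates (Q := mw monL) (p := kp) (hp := kp_hd) (lo := fun _ => -S)
    (hi := fun _ => S) (y0 := y8 0) (ρ0 := r8 θa θb) (fun i hi => hbox i hi) (fun i hi => by
      have hi' : i = 1 := not_not.1 hi
      subst hi'
      unfold r8; rw [Function.update_self]) (R := RL8) (A := nat8 1 (-θa) (-θb)) (rs_r8 _ _)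
    hS (fun s => RL8_full) (fun s => RL8_mem0 (hB s)) (f := g) (j0 := j0) hK
    (fun j p hp q hq => hg j p (hPP _ hp) q (hPP _ hq))
    (fun p hp q hq => hm p (hPP _ hp) q (hPP _ hq))
    (fun p hp q hq h1 h2 => hs p (hPP _ hp) q (hPP _ hq) (hPP _ h1) (hPP _ h2))
    (U := {ξ : ℝ | (ξ, (0:ℝ)) ∈ (mw monL).O (fun _ => -S) (fun _ => S) (y8 0)
      (r8 θa θb) 0}) (fun ξ hξ => hξ)
  filter_upwards [h1] with ξ hξ hξU
  obtain ⟨c0, hc0, hsub, H⟩ := hξ hξU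
  refine ⟨c0, hc0, hsub, fun k kpos k0 => ?_⟩
  obtain ⟨y, k', lam, hy, hk', hk0, hT, hR⟩ := H k kpos k0
  exact ⟨y, k', lam, hy, hk', hk0, fun j => Rc683.tan_mono (hT j) (hPP _) Subset.rfl, hR⟩

theorem r9_mem (θa θb ξ : ℝ) : ξ • r9 θa θb ∈ PP (mw monL) := by
  rw [r9_vec, ← RS.vec_smul]
  apply RL9_mem
  have e : ξ • nat9 1 (-θa) (-θb) = nat9 (ξ * 1) (ξ * -θa) (ξ * -θb) := by
    funext i
    fin_cases i <;> simp [nat9] <;> ring
  rw [e]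
  exact leg9_nat _ _ _

/-- **RATES AT THE RECORD, light chart, `D` frozen at the record level, `2 θa - θb = 1`** -/
theorem ae_rates8z {P : Set (Fin 12 → ℝ)} {J : Type*} [Finite J]
    {f g : J → (Fin 12 → ℝ) → ℝ} {j0 : J} {x : ℕ → Fin 12 → ℝ} {h : ℕ → ℝ}
    (hpos : ∀ l, 0 < h l) (ht : ∀ j, Ex926.IsTan P (PP (mw monL)) (f j) x h (g j))
    {K : ℝ} (hK : 0 ≤ K)
    (hg : ∀ j, ∀ p ∈ PP (mw monL), ∀ q ∈ PP (mw monL), |g j p - g j q| ≤ K * dist p q)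
    (hm : ∀ p ∈ PP (mw monL), ∀ q ∈ PP (mw monL), p ≤ q →
      0 ≤ g j0 p - g j0 q ∧ g j0 p - g j0 q ≤ ∑ i, (q i - p i))
    (hs : SupOn (g j0) (PP (mw monL))) {θa θb : ℝ} (hβ : 2 * θa - θb - 1 = 0)
    {T : Type*} [Countable T]
    {B : T → Fin 8 → ℝ} {sg : T → ℝ} (hS : ∀ s, SOk (nat8 1 (-θa) (-θb)) (B s) (sg s))
    (hB : ∀ s, Leg80 (B s)) :
    ∀ᵐ ξ : ℝ, ∃ c0 : T → ℝ, (∀ s, 0 < c0 s) ∧
      (∀ s, (srf8 θa θb 0 (B s) (sg s)).LW (Q8 0) (c0 s) ⊆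
        (Q8 0).L (rs kp (y8 0)) (rs kp (r8 θa θb)) 0) ∧
      ∀ k : ℕ → ℝ, (∀ l, 0 < k l) → Tendsto k atTop (𝓝 0) →
      ∃ (y k' : ℕ → ℝ) (ψ : ℕ → ℕ) (lam : J → (Fin 12 → ℝ) → ℝ), Tendsto y atTop (𝓝 ξ) ∧
        (∀ m, 0 < k' m) ∧ Tendsto k' atTop (𝓝 0) ∧ StrictMono ψ ∧
        (∀ j, Ex926.IsTan (PP (mw monL)) (PP (mw monL)) (g j)
          (fun m => y m • r9 θa θb) k' (lam j)) ∧
        (∀ j, Ex926.IsTan P (PP (mw monL)) (f j)
          (fun m => x (ψ m) + h (ψ m) • (y m • r9 θa θb))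
          (fun m => h (ψ m) * k' m) (lam j)) ∧
        ∀ s, Rec8 θa θb 0 (B s) (sg s) (c0 s) (lam j0) ∧
          ∃ ρ, Rates8 θa θb 0 (B s) (sg s) (c0 s) (lam j0) ρ := by
  have key := ae_all_iff.2 fun N : ℕ => ae_rates8z_box (S := (N:ℝ)) hK hg hm hs hβ hS hB
    (Nat.cast_nonneg N)
  filter_upwards [key] with ξ hξ
  obtain ⟨N, hN⟩ := exists_nat_gt ‖ξ • r9 θa θb‖
  have hO : ξ ∈ {ξ : ℝ | (ξ, (0:ℝ)) ∈ (mw monL).O (fun _ => -(N:ℝ)) (fun _ => (N:ℝ)) (y8 0)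
        (r8 θa θb) 0} := by
    change (ξ, (0:ℝ)) ∈ (mw monL).O (fun _ => -(N:ℝ)) (fun _ => (N:ℝ)) (y8 0) (r8 θa θb) 0
    rw [y8_zero, r8_eq_r9 hβ]
    exact mem_O9 hN
  obtain ⟨c0, hc0, hsub, H⟩ := hξ N hO
  refine ⟨c0, hc0, hsub, fun k kpos k0 => ?_⟩
  obtain ⟨y, k', lam, hy, hk', hk0, hT, hR⟩ := H k kpos k0
  have hT' : ∀ j, Ex926.IsTan (PP (mw monL)) (PP (mw monL)) (g j)
      (fun m => y m • r9 θa θb) k' (lam j) := by
    intro j
    have h1 := hT j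
    rw [L8_z hβ] at h1
    have e : (fun m => y8 0 + y m • r8 θa θb) = fun m => y m • r9 θa θb := by
      funext m; rw [y8_zero, zero_add, r8_eq_r9 hβ]
    rwa [e] at h1
  obtain ⟨ψ, hψ, -, hD⟩ := diagM (J := J) (P := fun _ => P) (L := fun _ => PP (mw monL))
    (L' := fun _ => PP (mw monL)) hpos ht (y := fun m => y m • r9 θa θb)
    (fun _ m => r9_mem _ _ _) (fun m => hk' _) hT' (A := fun _ _ => True)
    (fun _ => Eventually.of_forall fun _ => trivial)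
  exact ⟨y, k', ψ, lam, hy, fun m => hk' _, hk0, hψ, hT', hD, hR⟩

end Crest.Agent.R116.Rz460
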