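import Crest.Agent.R116.Rz1_460
import Crest.Agent.R116.Rcx5_363
import Crest.Agent.R116.Rcx6_363

/-!
# R116 (K side, TIES), `k' = 1` exactly: the producer without D0 (helper460)

* `Out8z`  : 363's `Out8` with `D` at the record level EXACTLY (`t = 0`), tangents on the full cone;
* **`recz8`**, **`exists_out8z`** : `CtxT` + `2 θ 0 - θ 1 = 1` ⊢ `Out8z` (no D0)
* **`half8z`** : 647's generic point of a half plane; **`z8z_out`** : 363's `z8_out`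
* `b8_mem0`, `b8_anti0`, `b8_own0`, `base8z_val`, `base8z_one`
-/

set_option autoImplicit false
set_option linter.unusedVariables false

open Set Filter Topology MeasureTheory

namespace Crest.Agent.R116.Rz460

open Crest.Agent.R138.Ex926 (Base U IsTan)
open Crest.Agent.R136
open Crest.Agent.R136.MkA627
open Crest.Agent.R136.TD627
open Crest.Agent.R136.Net191
open Crest.Agent.R136.Lq196
open Crest.Agent.R116.ChL222
open Crest.Agent.R116.PL504 (nb rL DN eL βL oL Shift)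
open Crest.Agent.R116.Xd954 (cs xs FlagX Mrg)
open Crest.Agent.R116.Sg337 (coneL DL natB eL_bx9)
open Crest.Agent.R116.Gd222 (TSet sN PDL DT)
open Crest.Agent.R116.KI439
open Crest.Agent.R116.KF439 (PL)
open Crest.Agent.R116.Tw468 (OutT OutR)
open Crest.Agent.R116.CtxB468
open Crest.Agent.R116.RbM219
open Crest.Agent.R116.RbK219 (SOk RS)
open Crest.Agent.R116.SgO219 (PP tan_lim tan_ev)
open Crest.Agent.R116.Kz647
open Crest.Agent.R116.Rcx363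
open Dg262 (SupOn)
open Dg219 (mw)
open Sl741 (slice xt rs)

theorem L8_cone {θa θb : ℝ} (hβ : 2 * θa - θb - 1 = 0) : L8 θa θb 0 = coneL := by
  rw [L8_z hβ, coneL_PP]

/-- **output, `D` at the record level** (`2 θa - θb = 1`) -/
structure Out8z (R s : ℝ) (a b : Fin 2) (Vis : Fin 12 → Prop) (θa θb g qa qb : ℝ) {T : Type*}
    (B : T → Fin 8 → ℝ) (sg : T → ℝ) (x0 : Fin 12 → ℝ) (f : Fin 2 → (Fin 12 → ℝ) → ℝ)
    (x : ℕ → Fin 12 → ℝ) (hh : ℕ → ℝ) (lam : Fin 2 → (Fin 12 → ℝ) → ℝ) : Prop where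
  pos : ∀ m, 0 < hh m
  lim : Tendsto hh atTop (𝓝 0)
  base : ∃ (H y : ℕ → ℝ) (ξ : ℝ), (∀ m, 0 < H m) ∧ Tendsto H atTop (𝓝 0) ∧
    Tendsto y atTop (𝓝 ξ) ∧ ∀ m, x m = x0 + H m • (y m • r9 θa θb)
  xlim : Tendsto x atTop (𝓝 x0)
  tan : ∀ j, IsTan (Leg monL R) coneL (f j) x hh (lam j)
  lip : ∀ j, ∀ p ∈ coneL, ∀ q ∈ coneL, |lam j p - lam j q| ≤ (12:ℝ) * dist p q
  zero : ∀ j, lam j 0 = 0
  surf : ∀ i, ∃ c0 : ℝ, 0 < c0 ∧ (srf8 θa θb 0 (B i) (sg i)).LW (Q8 0) c0 ⊆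
      (Q8 0).L (rs kp (y8 0)) (rs kp (r8 θa θb)) 0 ∧
    Rec8 θa θb 0 (B i) (sg i) c0 (lam 0) ∧ ∃ ρ, Rates8 θa θb 0 (B i) (sg i) c0 (lam 0) ρ
  rx : Rx coneL eL s a b Vis θa θb g qa qb (lam 0)

section ctx

variable {G : Geo TSet (Fin 2)} {L : ℕ → ℕ → LRay} {r : ℕ → ℝ} {g s : ℝ} {θ q : Fin 2 → ℝ}
    {Rg : ℝ} {B : Base} {I : ℕ → Finset (ℕ × ℝ)} {lev : ℕ → ℚ → ℕ} {A : ℕ → ℝ}
    {f : ℕ → ℚ → ℕ → ℤ → ℕ} {b : ℕ → ℚ → ℕ → TSet} {vm : ℕ → ℚ → ℝ} {w : Fin 2 → ℕ → ℚ → ℝ}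
    {fr : ℕ → ℚ → ℕ × ℝ → LInc} {fl : ℕ → ℕ × ℝ → LInc} {sc : Fin 12 → ℕ → ℝ}
    {w0 sa sb δ R : ℝ} {I0 I' : ℕ → Finset (ℕ × ℝ)} {ν own : (Fin 12 → ℝ) → ℝ} {c₀ : ℝ}

/-- **THE PRODUCER, `D` at the record level, `2 θ 0 - θ 1 = 1`** -/
theorem recz8
    (h : CtxT G L r g s θ q Rg B I lev A f b vm w fr fl sc w0 sa sb δ R I0 I' ν own c₀)
    (hR0 : w0 + (θ 1 + sb) < R) (hR1 : w0 + 1 + sb < R) (hθ : 0 < θ 0)
    (hRg : θ 0 + |θ 1| < Rg) {a b' : Fin 2}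
    (hX : ∀ κ0 : ℝ, FlagX B I' lev fl (sN lev w) κ0 0 a b')
    {v0 : ℝ} (hv0 : 0 < v0) (hv1 : v0 < 1) (hβ : 2 * θ 0 - θ 1 - 1 = 0)
    {T : Type*} [Countable T] {Bs : T → Fin 8 → ℝ} {sg : T → ℝ}
    (hS : ∀ i, SOk (nat8 1 (-(θ 0)) (-(θ 1))) (Bs i) (sg i)) (hB : ∀ i, Leg80 (Bs i)) :
    ∃ x hh lam, Out8z R s a b' (VisT B I fl sc) (θ 0) (θ 1) g (q 0) (q 1) Bs sg
      (rL (θ 0) (θ 1) w0 sa sb v0) (fo ν own) x hh lam := by
  set hh : ℕ → ℝ := fun l => 1 / ((l : ℝ) + 1) with hhh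
  have hpos : ∀ l, 0 < hh l := fun l => by rw [hhh]; positivity
  have hh0 : Tendsto hh atTop (𝓝 0) := tendsto_one_div_add_atTop_nhds_zero_nat
  obtain ⟨φ, hφ, g1, hg1⟩ := first_tan h hR0 hR1 hv0.le hv1.le hpos hh0
  have hpos' : ∀ l, 0 < hh (φ l) := fun l => hpos _
  have hh0' : Tendsto (fun l => hh (φ l)) atTop (𝓝 0) := hh0.comp hφ.tendsto_atTop
  obtain ⟨hP, hDm, hRc⟩ := first_prf h hR0 hR1 hθ hRg hX hv0 hv1 hpos' hh0' (g1 := g1 0) (hg1 0)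
  have hg1' : ∀ j, IsTan (Leg monL R) (PP (mw monL)) (fo ν own j)
      (fun _ => rL (θ 0) (θ 1) w0 sa sb v0) (fun l => hh (φ l)) (g1 j) := fun j => by
    rw [← coneL_PP]; exact hg1 j
  have hlip1 : ∀ j, ∀ p ∈ PP (mw monL), ∀ q ∈ PP (mw monL), |g1 j p - g1 j q| ≤ (12:ℝ) * dist p q :=
    fun j => SgO219.tan_lip hpos' (hg1' j) (fo_lip h j)
  have hae := ae_rates8z hpos' hg1' (j0 := (0 : Fin 2)) (K := 12) (by norm_num) hlip1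
    (by rw [← coneL_PP]; exact hP.anti) (by rw [← coneL_PP]; exact hP.sm) hβ hS hB
  obtain ⟨ξ, c0, hc0, hsub, H⟩ := hae.exists
  obtain ⟨y, k', ψ, lam, hy, hk', hk0, hψ, hT, hTP, hR⟩ := H hh hpos hh0
  have hrx := rx9 hP hDm hRc hk' hk0 (hT 0)
  have hHt : Tendsto (fun m => hh (φ (ψ m))) atTop (𝓝 0) := hh0'.comp hψ.tendsto_atTop
  refine ⟨fun m => rL (θ 0) (θ 1) w0 sa sb v0 + hh (φ (ψ m)) • (y m • r9 (θ 0) (θ 1)),
    fun m => hh (φ (ψ m)) * k' m, lam, ⟨fun m => mul_pos (hpos' _) (hk' m), ?_,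
    ⟨_, y, ξ, fun m => hpos' (ψ m), hHt, hy, fun m => rfl⟩, ?_, ?_, ?_, ?_,
    fun i => ⟨c0 i, hc0 i, hsub i, hR i⟩, hrx⟩⟩
  · have := hHt.mul hk0
    simpa using this
  · have := base_lim (x0 := rL (θ 0) (θ 1) w0 sa sb v0) (u := 0) (v := r9 (θ 0) (θ 1)) hHt hy
    simpa using this
  · intro j
    rw [coneL_PP]; exact hTP j
  · intro j
    rw [coneL_PP]; exact SgO219.tan_lip hk' (hT j) (hlip1 j)
  · intro j
    refine Sg337.tan_zero hk' (hT j) ?_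
    rw [← coneL_PP]; exact zero_coneL

/-- **`Out8z` from `CtxT`** (no D0) -/
theorem exists_out8z
    (h : CtxT G L r g s θ q Rg B I lev A f b vm w fr fl sc w0 sa sb δ R I0 I' ν own c₀)
    (hR0 : w0 + (θ 1 + sb) < R) (hR1 : w0 + 1 + sb < R) (hθ : 0 < θ 0)
    (hRg : θ 0 + |θ 1| < Rg) (hβ : 2 * θ 0 - θ 1 - 1 = 0) {T : Type*} [Countable T]
    {Bs : T → Fin 8 → ℝ} {sg : T → ℝ}
    (hS : ∀ i, SOk (nat8 1 (-(θ 0)) (-(θ 1))) (Bs i) (sg i)) (hB : ∀ i, Leg80 (Bs i))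
    {N : Set ℝ} (hN : ∀ᵐ v : ℝ, v ∈ N) :
    ∃ v0 ∈ N, 0 < v0 ∧ v0 < 1 ∧ ∃ (a b' : Fin 2) (x : ℕ → Fin 12 → ℝ) (hh : ℕ → ℝ)
      (lam : Fin 2 → (Fin 12 → ℝ) → ℝ),
      (∀ κ0 : ℝ, FlagX B I' lev fl (sN lev w) κ0 0 a b') ∧
      Out8z R s a b' (VisT B I fl sc) (θ 0) (θ 1) g (q 0) (q 1) Bs sg
        (rL (θ 0) (θ 1) w0 sa sb v0) (fo ν own) x hh lam := by
  obtain ⟨a, b', hX⟩ := h.fX
  have hX' : ∀ κ0 : ℝ, FlagX B I' lev fl (sN lev w) κ0 0 a b' := hX I' h.sub'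
  obtain ⟨v0, hvN, hv0, hv1⟩ : ∃ v0 ∈ N, 0 < v0 ∧ v0 < 1 := by
    by_contra hcon
    push Not at hcon
    have h1 : volume (Ioo (0:ℝ) 1) = 0 := by
      refine measure_mono_null (t := {v | ¬ v ∈ N}) (fun v hv hP => ?_) (ae_iff.1 hN)
      exact absurd hv.2 (not_lt.2 (hcon v hP hv.1))
    rw [Real.volume_Ioo] at h1
    simp at h1
  obtain ⟨x, hh, lam, hO⟩ := recz8 h hR0 hR1 hθ hRg hX' hv0 hv1 hβ hS hB
  exact ⟨v0, hvN, hv0, hv1, a, b', x, hh, lam, hX', hO⟩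

end ctx

/-! ### class level -/

section cls

variable {s : ℝ} {a b : Fin 2} {Vis Vis' : Fin 12 → Prop} {θa θb g qa qb : ℝ}

theorem b8_mem0 {w : Fin 8 → ℝ} (hw : Leg80 w) : b8 w ∈ coneL := by
  rw [coneL_PP, mem_cone]
  obtain ⟨⟨f1, f2, f3, f4, f5, f6, f7⟩, f8, f9, f10⟩ := hw
  have hv : ∀ i : Fin 12, i ≠ 1 → b8 w i = w (cl8 i) := fun i hi => b8_val w hi
  have q0 : b8 w 0 = w 0 := hv 0 (by decide)
  have q1 : b8 w 1 = 0 := b8_one w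
  have q2 : b8 w 2 = w 7 := hv 2 (by decide)
  have q3 : b8 w 3 = w 1 := hv 3 (by decide)
  have q4 : b8 w 4 = w 1 := hv 4 (by decide)
  have q5 : b8 w 5 = w 3 := hv 5 (by decide)
  have q6 : b8 w 6 = w 3 := hv 6 (by decide)
  have q7 : b8 w 7 = w 6 := hv 7 (by decide)
  have q8 : b8 w 8 = w 6 := hv 8 (by decide)
  have q9 : b8 w 9 = w 5 := hv 9 (by decide)
  have q10 : b8 w 10 = w 2 := hv 10 (by decide)
  have q11 : b8 w 11 = w 4 := hv 11 (by decide)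
  unfold Wl
  rw [q0, q1, q2, q3, q4, q5, q6, q7, q8, q9, q10, q11]
  refine ⟨?_, ?_, ?_, ?_, ?_, ?_, ?_, ?_, ?_, ?_, ?_, ?_, ?_, ?_, ?_, ?_⟩ <;> linarith

theorem leg80_smul {w : Fin 8 → ℝ} (hw : Leg80 w) {y : ℝ} (hy : 0 ≤ y) : Leg80 (y • w) := by
  obtain ⟨f0, f8, f9, f10⟩ := hw
  refine ⟨leg8_smul f0 hy, ?_, ?_, ?_⟩ <;> simp only [Pi.smul_apply, smul_eq_mul] <;>
    nlinarith

theorem b8_anti0 {lam : (Fin 12 → ℝ) → ℝ} (H : Prf coneL s a b Vis (βL θa θb) lam) :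
    ∀ w w' : Fin 8 → ℝ, Leg80 w → Leg80 w' → w ≤ w' → lam (b8 w') ≤ lam (b8 w) := by
  intro w w' h1 h2 hw
  have := (H.anti _ (b8_mem0 h1) _ (b8_mem0 h2) (b8_le hw)).1
  linarith

/-- own increments at the class level; `u` = the own level which contains the box -/
theorem b8_own0 {lam : (Fin 12 → ℝ) → ℝ} (H : Prf coneL s a b Vis (βL θa θb) lam)
    (hV1 : ¬ Vis 1) {w w' : Fin 8 → ℝ} (h1 : Leg80 w) (h2 : Leg80 w') (hw : w ≤ w') {u : ℝ}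
    (hu : w 0 ≤ u) (hV : ∀ k, Vis k → w (cl8 k) ≤ u * βL θa θb k) :
    (1 - s) * (w' 0 - u) ≤ lam (b8 w) - lam (b8 w') := by
  have e : ∀ w : Fin 8 → ℝ, b8 w 0 = w 0 := fun w => b8_val w (by decide)
  have h := H.own _ (b8_mem0 h1) _ (b8_mem0 h2) (b8_le hw) u (by rw [e]; exact hu)
    (fun k hk => by
      have hk1 : k ≠ 1 := by rintro rfl; exact hV1 hk
      rw [b8_val w hk1]; exact hV k hk)
  rwa [e] at h

/-- natural boxes whose `D` is not finer than the record are below the class box -/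
theorem eL_le_b8 {v c p : ℝ} (hD : p ≤ 2 * c + v) {w : Fin 8 → ℝ} (hn : nat8 v c p ≤ w) :
    eL v c p ≤ b8 w := by
  intro k
  by_cases hk : k = 1
  · subst hk
    rw [b8_one]
    change p - 2 * c - v ≤ 0
    linarith
  · rw [b8_val w hk]
    have h1 := hn (cl8 k)
    refine le_trans (le_of_eq ?_) h1
    fin_cases k <;> first | rfl | exact absurd rfl hk

/-- **generic point of a half plane, `D` at the record level** -/
theorem half8z {J : Type*} [Finite J] {lam : J → (Fin 12 → ℝ) → ℝ}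
    {j0 : J} {K : ℝ} (hL : RecTan (L8 θa θb 0) lam j0 K) {B : Fin 8 → ℝ} {sg : ℝ}
    (hS : SOk (nat8 1 (-θa) (-θb)) B sg) (hB : Leg80 B) {c0 : ℝ} (hc0 : 0 < c0) {ρ : Fin 8 → ℝ}
    (hR : Rates8 θa θb 0 B sg c0 (lam j0) ρ) {κ y : ℝ} (hy : 0 < y)
    (hκ : lam j0 (xt kp 0 (RL8.vec (y • B))) ≤ κ * y) {N : Set (ℝ × ℝ)}
    (hN : ∀ᵐ z : ℝ × ℝ, z ∈ N) :
    ∃ l α : ℝ, 0 < l ∧ l < y ∧ ((l * sg, α) : ℝ × ℝ) ∈ N ∧ z8 θa θb B l α ∈ L8 θa θb 0 ∧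
      ∀ h' : ℕ → ℝ, (∀ m, 0 < h' m) → Tendsto h' atTop (𝓝 0) →
        ∃ (θ : ℕ → ℕ) (lam2 : J → (Fin 12 → ℝ) → ℝ) (ρ2 : Fin 8 → ℝ), StrictMono θ ∧
          (∀ j, IsTan (L8 θa θb 0) (L8B θa θb 0 B sg) (lam j) (fun _ => z8 θa θb B l α)
            (fun m => h' (θ m)) (lam2 j)) ∧
          Half8 θa θb 0 B sg lam j0 ρ κ l α (fun m => h' (θ m)) lam2 ρ2 := by
  have hp1 : ∀ i, ¬ kp i → r8 θa θb i = 0 := fun i hi => by
    have hi' : i = 1 := not_not.1 hi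
    subst hi'
    unfold r8; rw [Function.update_self]
  refine exists_half_xt (Q := mw monL) (p := kp) (hp := kp_hd) (y0 := y8 0) (ρ0 := r8 θa θb)
    (rs_r8 _ _) hp1 hS RL8_full (RL8_mem0 hB) hL.K0 hL.lip hL.mono hL.sup hc0 hR hy ?_ hN
  rw [hL.zero, sub_zero]
  exact hκ

end cls

section out

variable {R s : ℝ} {a b : Fin 2} {Vis Vis' : Fin 12 → Prop} {θa θb g qa qb : ℝ} {T : Type*}
    {Bs : T → Fin 8 → ℝ} {sgs : T → ℝ} {x0 : Fin 12 → ℝ} {f : Fin 2 → (Fin 12 → ℝ) → ℝ}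
    {x : ℕ → Fin 12 → ℝ} {hh : ℕ → ℝ} {lam : Fin 2 → (Fin 12 → ℝ) → ℝ} {B : Fin 8 → ℝ} {sg : ℝ}

theorem Out8z.recTan (O : Out8z R s a b Vis θa θb g qa qb Bs sgs x0 f x hh lam)
    (hβ : 2 * θa - θb - 1 = 0) : RecTan (L8 θa θb 0) lam 0 12 := by
  rw [L8_cone hβ]
  exact ⟨by norm_num, O.lip, O.rx.prf.anti, O.rx.prf.sm, O.zero 0⟩

/-- slope of the D-max bound along an offset which is finer than a natural one -/
theorem Out8z.kap (O : Out8z R s a b Vis θa θb g qa qb Bs sgs x0 f x hh lam)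
    (hL : Leg80 B) {v c p : ℝ} (hn : nat8 v c p ≤ B) (hD : p ≤ 2 * c + v) {y : ℝ} (hy : 0 ≤ y) :
    lam 0 (xt kp 0 (RL8.vec (y • B))) ≤ DL g s qa qb v c p * y := by
  have e : nat8 (y * v) (y * c) (y * p) = y • nat8 v c p := by
    funext i
    fin_cases i <;> simp [nat8] <;> ring
  have h1 : y • nat8 v c p ≤ y • B := by
    intro i
    simp only [Pi.smul_apply, smul_eq_mul]
    exact mul_le_mul_of_nonneg_left (hn i) hy
  have h2 : eL (y * v) (y * c) (y * p) ≤ b8 (y • B) := by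
    refine eL_le_b8 (by nlinarith) ?_
    rw [e]; exact h1
  have hm : eL (y * v) (y * c) (y * p) ∈ coneL := by rw [eL_bx9]; exact natB_mem _ _ _
  have h3 := (O.rx.prf.anti _ hm _ (b8_mem0 (leg80_smul hL hy)) h2).1
  have h4 := O.rx.dmax (y * v) (y * c) (y * p)
  rw [DL_smul] at h4
  unfold b8 at h3
  linarith

/-- **THE GENERIC POINT OF A HALF PLANE, `D` at the record level**: for every sequence of scales,
tangents of `f = (ν, own)` at the bases `X m = rL (v0 + V m) + E m • B` (slots `≠ 1`), slot `D` =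
record level -/
theorem z8z_out (O : Out8z R s a b Vis θa θb g qa qb Bs sgs x0 f x hh lam)
    (hβ : 2 * θa - θb - 1 = 0)
    (hS : SOk (nat8 1 (-θa) (-θb)) B sg) (hL : Leg80 B) {c0 : ℝ} (hc0 : 0 < c0) {ρ : Fin 8 → ℝ}
    (hR : Rates8 θa θb 0 B sg c0 (lam 0) ρ) {v c p : ℝ} (hn : nat8 v c p ≤ B)
    (hD : p ≤ 2 * c + v) (hV1 : ¬ Vis 1)
    (hV : ∀ k, Vis k → (Vis' k ∧ B (cl8 k) ≤ B 0 * βL θa θb k) ∨ B (cl8 k) < B 0 * βL θa θb k)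
    {N : Set (ℝ × ℝ)} (hN : ∀ᵐ z : ℝ × ℝ, z ∈ N) {y : ℝ} (hy : 0 < y) :
    ∃ l α : ℝ, 0 < l ∧ l < y ∧ ((l * sg, α) : ℝ × ℝ) ∈ N ∧ z8 θa θb B l α ∈ coneL ∧
      ∀ k : ℕ → ℝ, (∀ m, 0 < k m) → Tendsto k atTop (𝓝 0) →
        ∀ Pr : ℕ → ℕ → Prop, (∀ m, ∀ᶠ l in atTop, Pr m l) →
        ∃ (φ : ℕ → ℕ) (lam2 : Fin 2 → (Fin 12 → ℝ) → ℝ) (ρ2 : Fin 8 → ℝ) (ψ : ℕ → ℕ),
          StrictMono φ ∧
          Half8 θa θb 0 B sg lam 0 ρ (DL g s qa qb v c p) l α (fun m => k (φ m)) lam2 ρ2 ∧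
          (∀ j, IsTan (L8 θa θb 0) (L8B θa θb 0 B sg) (lam j) (fun _ => z8 θa θb B l α)
            (fun m => k (φ m)) (lam2 j)) ∧
          StrictMono ψ ∧ (∀ m, Pr m (ψ m)) ∧
          (∀ j, IsTan (Leg monL R) (L8B θa θb 0 B sg) (f j)
            (fun m => x (ψ m) + hh (ψ m) • z8 θa θb B l α) (fun m => hh (ψ m) * k (φ m))
            (lam2 j)) ∧
          Prf (L8B θa θb 0 B sg) s a b Vis' (βL θa θb) (lam2 0) := by
  obtain ⟨l, α, hl, hly, hzN, hzL, H⟩ := half8z (O.recTan hβ) hS hL hc0 hR hy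
    (O.kap hL hn hD hy.le) hN
  refine ⟨l, α, hl, hly, hzN, by rwa [L8_cone hβ] at hzL, fun k hk hk0 Pr hPr => ?_⟩
  obtain ⟨φ, lam2, ρ2, hφ, hT, hH⟩ := H k hk hk0
  have hpos' : ∀ m, 0 < k (φ m) := fun m => hk _
  have h0' : Tendsto (fun m => k (φ m)) atTop (𝓝 0) := hk0.comp hφ.tendsto_atTop
  have hOt : ∀ j, IsTan (Leg monL R) (L8 θa θb 0) (f j) x hh (lam j) := fun j => by
    rw [L8_cone hβ]; exact O.tan j
  obtain ⟨ψ, hψ, hPψ, hTT⟩ := diag_at O.pos hOt hzL hpos' hT hPr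
  have hPrf : Prf (L8 θa θb 0) s a b Vis (βL θa θb) (lam 0) := by
    rw [L8_cone hβ]; exact O.rx.prf
  exact ⟨φ, lam2, ρ2, ψ, hφ, hH, hT, hψ, hPψ, hTT, prf_z8 hPrf hl hpos' h0' (hT 0) hV1 hV⟩

/-- the bases, slots `≠ 1` -/
theorem base8z_val {w0 sa sb v0 H y hm l α : ℝ} {k : Fin 12} (hk : k ≠ 1) :
    (rL θa θb w0 sa sb v0 + H • (y • r9 θa θb) + hm • z8 θa θb B l α) k =
      rL θa θb w0 sa sb (v0 + (H * y + hm * α)) k + hm * l * B (cl8 k) := by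
  rw [rL_add]
  simp only [Pi.add_apply, Pi.smul_apply, smul_eq_mul]
  rw [z8_val l α hk]
  have h1 : r9 θa θb k = βL θa θb k := rfl
  rw [h1]
  ring

/-- the bases, slot `D` : the record level -/
theorem base8z_one (hβ : 2 * θa - θb - 1 = 0) {w0 sa sb v0 H y hm l α : ℝ} :
    (rL θa θb w0 sa sb v0 + H • (y • r9 θa θb) + hm • z8 θa θb B l α) 1 =
      rL θa θb w0 sa sb v0 1 := by
  simp only [Pi.add_apply, Pi.smul_apply, smul_eq_mul]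
  have h1 : z8 θa θb B l α 1 = 0 := b8_one _
  have h3 : r9 θa θb 1 = 0 := by
    change -θb - 2 * -θa - 1 = 0
    linarith
  rw [h1, h3]
  ring

end out

end Crest.Agent.R116.Rz460
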