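import Crest.Agent.R116.Rz2_460
import Crest.Agent.R116.PosA_348
import Crest.Agent.R116.Pd2_363

/-!
# R116 (K side, TIES), `k' = 1` exactly: numbers at the record (helper460)

`D` at the record level (`RL8` at `t = 0`); `O : Out8z ..`.
* `Out8z.kap_nat`, `sz8`  : slope on a natural offset
* `ant_kUz` : rate of `C_a` on `kU` ≤ rate on `kD`
* `posAz`, `posA_kDz` : `q_a ≤` rate of `C_a` below;  `pos8z`, `posB_kUz`, `posB_eUz` : above
* `tanz`, `verz` : the tangential identity and the direction inequality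
* `leg80_kD`, `leg80_kU`, `leg80_oP`, `leg80_oS`, `leg80_eU`
-/

set_option autoImplicit false
set_option linter.unusedVariables false
set_option linter.unusedSectionVars false

open Set Filter Topology MeasureTheory

namespace Crest.Agent.R116.Rz460

open Crest.Agent.R138.Ex926 (Base U IsTan)
open Crest.Agent.R136
open Crest.Agent.R136.MkA627
open Crest.Agent.R136.TD627
open Crest.Agent.R136.Net191
open Crest.Agent.R136.Lq196
open Crest.Agent.R116.ChL222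
open Crest.Agent.R116.PL504 (nb rL DN eL βL oL Shift)
open Crest.Agent.R116.Xd954 (cs xs FlagX Mrg)
open Crest.Agent.R116.Sg337 (coneL DL natB eL_bx9)
open Crest.Agent.R116.RbM219
open Crest.Agent.R116.RbK219 (SOk RS Aln Par)
open Crest.Agent.R116.SgO219 (PP)
open Crest.Agent.R116.Kz647
open Crest.Agent.R116.Rcx363
open Crest.Agent.R116.Pos126 (B10 sok8 aln8 up8 up8_leg e8_add e8_add2 B10_eq xt0 pos10 xt8_apply
  xt8_le cost_sum8)
open Crest.Agent.R116.Tp139 (all8 eU kU kD oS oP sok_kU sok_kD sok_oS sok_oP sok_eU aln_kU aln_kD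
  aln_oP A1_ne pos_k pos_e ant_d)
open Crest.Agent.R116.PosA348 (slice8 supOn8 posA)
open Dg262 (SupOn)
open Dg219 (mw)
open Sl741 (slice xt rs)

/-! ### legal offsets -/

theorem leg80_kD : Leg80 kD := leg80_nat (by norm_num)
theorem leg80_kU : Leg80 kU := leg80_nat (by norm_num)

theorem leg80_eU {k : ℝ} (hk : 0 < k) : Leg80 (eU k) := by
  refine ⟨leg8_nat _ _ _, ?_, ?_, ?_⟩ <;> simp [eU, nat8] <;> linarith

theorem leg80_oS : Leg80 oS := by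
  refine ⟨Tp139.leg_oS, ?_, ?_, ?_⟩ <;> simp [oS]

theorem leg80_oP : Leg80 oP := by
  refine ⟨Tp139.leg_oP, ?_, ?_, ?_⟩ <;> simp [oP]

theorem leg80_B10 : Leg80 B10 := leg80_oP

theorem leg80_up8 {l e e' : ℝ} (hl : 0 ≤ l) (he : 0 ≤ e) (he' : 0 ≤ e') (hee : e' ≤ e) :
    Leg80 (up8 l e e') := by
  refine ⟨up8_leg hl he he' hee, ?_, ?_, ?_⟩ <;> simp [up8] <;> linarith

theorem leg80_zero : Leg80 (0 : Fin 8 → ℝ) := by
  refine ⟨?_, ?_, ?_, ?_⟩ <;> first | (constructor <;> simp) | simp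

theorem leg80_n (l : ℝ) (hl : 0 ≤ l) : Leg80 (nat8 0 l 0) := by
  refine ⟨leg8_nat _ _ _, ?_, ?_, ?_⟩ <;> simp [nat8] <;> linarith

/-! ### class letters -/

section cls

variable {s g qa qb : ℝ} {a b : Fin 2} {Vis : Fin 12 → Prop} {θa θb c0 : ℝ}
  {lam : (Fin 12 → ℝ) → ℝ} {B : Fin 8 → ℝ} {sg : ℝ} {ρ : Fin 8 → ℝ}

theorem b8_cost0 {β : Fin 12 → ℝ} (P : Prf coneL s a b Vis β lam) {w w' : Fin 8 → ℝ}
    (h : Leg80 w) (h' : Leg80 w') (hw : w ≤ w') :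
    lam (b8 w) - lam (b8 w') ≤ ∑ t, (if t = 6 then 2 else 1) * (w' t - w t) := by
  have hCx : ∀ w : Fin 8 → ℝ, xt kp 0 (RL8.vec w) (cs b) = xt kp 0 (RL8.vec w) (cs a) ∧
      xt kp 0 (RL8.vec w) (xs b) = xt kp 0 (RL8.vec w) (xs a) := by
    intro w
    rw [xt8_apply, xt8_apply, xt8_apply, xt8_apply]
    fin_cases a <;> fin_cases b <;> exact ⟨rfl, rfl⟩
  rw [← cost_sum8 P.ab w w']
  exact P.cost _ (b8_mem0 h) _ (b8_mem0 h') (xt8_le hw) (Or.inr (hCx w').1.le)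
    (Or.inr (hCx w').2.le)

theorem b8_anti0' {β : Fin 12 → ℝ} (P : Prf coneL s a b Vis β lam) {w w' : Fin 8 → ℝ}
    (h : Leg80 w) (h' : Leg80 w') (hw : w ≤ w') : lam (b8 w') ≤ lam (b8 w) := by
  have := (P.anti _ (b8_mem0 h) _ (b8_mem0 h') (b8_le hw)).1
  linarith

/-- the slice cone at the record -/
theorem mem0 {d : Fin 8 → ℝ} (hd : Leg80 d) :
    RL8.vec d ∈ (srf8 θa θb 0 B sg).L (Q8 0) := by
  intro w hw
  refine RL8_mem0 (a := (srf8 θa θb 0 B sg).a) hd w ⟨hw.1, hw.2.1, ?_⟩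
  have : (Q8 0).rhs w 0 = 0 := by unfold Dg219.Walls.rhs; simp
  rw [this]; rfl

/-- **`q_a ≤` rate of `C_a` below the record** -/
theorem posAz {β : Fin 12 → ℝ} (hβ : 2 * θa - θb - 1 = 0) (hc0 : 0 < c0) (hθ : 0 < θa)
    (hS : SOk (nat8 1 (-θa) (-θb)) B sg) (hA : Aln (nat8 1 (-θa) (-θb)) B 1)
    (hR : Rates8 θa θb 0 B sg c0 lam ρ) (P : Prf coneL s a b Vis β lam) (zero : lam 0 = 0)
    (dmax : ∀ v c p, lam (eL v c p) ≤ DL g s qa qb v c p)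
    (hM : (srf8 θa θb 0 B sg).LW (Q8 0) c0 ⊆ (Q8 0).L (rs kp (y8 0)) (rs kp (r8 θa θb)) 0)
    {l α : ℝ} (hl : 0 < l) (hle : ∀ i, l * B i + α * nat8 1 (-θa) (-θb) i ≤ 0)
    (heq : l * B 1 + α * nat8 1 (-θa) (-θb) 1 = 0) : qa ≤ ρ 1 := by
  have hr := hR.alone 1 hA (A1_ne hθ)
  have he : ∀ y : ℝ, y • RL8.e 1 = RL8.vec (up8 0 y 0) := fun y => by
    have := e8_add 0 y
    rw [zero_smul, Kw647.vec_zero, zero_add] at this
    exact this
  have h1 : RL8.e 1 = RL8.vec (up8 0 1 0) := by rw [← he, one_smul]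
  have hz : lam (xt kp 0 (0 : K8 → ℝ)) = 0 := by
    have := xt0
    rw [Kw647.vec_zero] at this
    rw [this, zero]
  have hs8 : SupOn lam (L8 θa θb 0) := by rw [L8_cone hβ]; exact P.sm
  have hmem : ∀ {d : Fin 8 → ℝ}, Leg80 d → xt kp 0 (RL8.vec d) ∈ L8 θa θb 0 := fun hd => by
    rw [L8_cone hβ]; exact b8_mem0 hd
  refine posA RL8 (lam := fun c : K8 → ℝ => lam (xt kp 0 c)) hS hc0 hr ?_ (supOn8 hs8) hM hl hle
    heq (slice8.2 ?_) (fun y hy => slice8.2 ?_) (fun y hy => ?_)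
  · rw [h1]
    exact mem0 (leg80_up8 le_rfl zero_le_one le_rfl zero_le_one)
  · have := hmem leg80_zero
    rw [Kw647.vec_zero] at this
    exact this
  · rw [he]
    exact hmem (leg80_up8 le_rfl hy.le le_rfl hy.le)
  · show qa * y ≤ lam (xt kp 0 0) - lam (xt kp 0 (y • RL8.e 1))
    rw [he, hz]
    have k1 := b8_cost0 P (w := up8 0 y 0) (w' := y • B10)
      (leg80_up8 le_rfl hy.le le_rfl hy.le) (leg80_smul leg80_B10 hy.le) (by
      intro i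
      fin_cases i <;> simp [up8, B10] <;> linarith)
    have k2 : lam (b8 (y • B10)) ≤ lam (eL 0 y 0) := by
      have h2 : eL 0 y 0 ≤ b8 (y • B10) := by
        refine eL_le_b8 (by linarith) ?_
        intro i
        fin_cases i <;> simp [nat8, B10] <;> linarith
      have hm : eL 0 y 0 ∈ coneL := by rw [eL_bx9]; exact natB_mem _ _ _
      have := (P.anti _ hm _ (b8_mem0 (leg80_smul leg80_B10 hy.le)) h2).1
      linarith
    have k3 := dmax 0 y 0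
    have k4 : ∑ t : Fin 8, (if t = 6 then (2:ℝ) else 1) * ((y • B10) t - up8 0 y 0 t) = 3 * y := by
      simp [Fin.sum_univ_succ, up8, B10]
      ring
    rw [k4] at k1
    unfold DL at k3
    unfold b8 at k1 k2
    linarith

/-- **`q_a ≤` rate of `C_a` on the frozen plane `(1, 0)`** -/
theorem pos8z {β : Fin 12 → ℝ} (hc0 : 0 < c0) (ha : 0 < θa) (hb : θb < 0)
    (hR : Rates8 θa θb 0 B10 1 c0 lam ρ) (P : Prf coneL s a b Vis β lam) (zero : lam 0 = 0)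
    (dmax : ∀ v c p, lam (eL v c p) ≤ DL g s qa qb v c p) : qa ≤ ρ 1 := by
  have hA : nat8 1 (-θa) (-θb) 1 ≠ 0 := by simp [nat8]; exact ha.ne'
  have hr := hR.alone 1 (aln8 ha hb) hA
  have hz : (fun c : K8 → ℝ => lam (xt kp 0 c)) 0 = 0 := by
    have := xt0
    rw [Kw647.vec_zero] at this
    show lam (xt kp 0 0) = 0
    rw [this, zero]
  have lB : ∀ {l : ℝ}, 0 ≤ l → Leg80 (l • B10) := fun hl => leg80_smul leg80_B10 hl
  have hlip : ∀ l l' : ℝ, 0 < l → l ≤ l' →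
      |lam (xt kp 0 (RL8.vec (l • B10))) - lam (xt kp 0 (RL8.vec (l' • B10)))| ≤ 4 * (l' - l) := by
    intro l l' hl hll
    have hle : l • B10 ≤ l' • B10 := by
      intro i
      fin_cases i <;> simp [B10] <;> linarith
    have h1 := b8_cost0 P (lB hl.le) (lB (hl.le.trans hll)) hle
    have h2 := b8_anti0' P (lB hl.le) (lB (hl.le.trans hll)) hle
    have h3 : ∑ t : Fin 8, (if t = 6 then (2:ℝ) else 1) * ((l' • B10) t - (l • B10) t) =
        4 * (l' - l) := by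
      simp [Fin.sum_univ_succ, B10]
      ring
    rw [h3] at h1
    unfold b8 at h1 h2
    rw [abs_of_nonneg (by linarith)]
    exact h1
  refine pos10 RL8 (lam := fun c : K8 → ℝ => lam (xt kp 0 c)) (sok8 ha hb) hc0 hr B10_eq ?_ ?_ ?_
    (K := 4) ?_ ?_ ?_
  · have h1 : RL8.e 1 = RL8.vec (up8 0 1 0) := by
      have := e8_add 0 1
      rw [zero_smul, one_smul, Kw647.vec_zero, zero_add] at this
      exact this
    rw [h1]
    exact mem0 (leg80_up8 le_rfl zero_le_one le_rfl zero_le_one)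
  · intro l ε hl hε
    show lam (xt kp 0 _) - lam (xt kp 0 _) ≤ ε
    rw [e8_add, e8_add2]
    have h1 := b8_cost0 P (w := up8 l ε 0) (w' := up8 l ε ε)
      (leg80_up8 hl.le hε.le le_rfl hε.le)
      (leg80_up8 hl.le hε.le hε.le le_rfl) (by
        intro i
        fin_cases i <;> simp [up8] <;> linarith)
    refine h1.trans (le_of_eq ?_)
    simp [Fin.sum_univ_succ, up8]
  · intro l ε hl hε
    show lam (xt kp 0 _) - lam (xt kp 0 _) ≤ 2 * ε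
    rw [e8_add, e8_add2]
    have h1 := b8_cost0 P (w := up8 l ε ε) (w' := (l + ε) • B10)
      (leg80_up8 hl.le hε.le hε.le le_rfl)
      (lB (by linarith)) (by
        intro i
        fin_cases i <;> simp [up8, B10] <;> linarith)
    refine h1.trans (le_of_eq ?_)
    simp [Fin.sum_univ_succ, up8, B10]
    ring
  · intro l hl
    have hle : (0 : Fin 8 → ℝ) ≤ l • B10 := by
      intro i
      fin_cases i <;> simp [B10] <;> linarith
    have h1 := b8_cost0 P leg80_zero (lB hl.le) hle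
    show lam (xt kp 0 0) - lam (xt kp 0 _) ≤ 4 * l
    unfold b8 at h1
    rw [Kw647.vec_zero] at h1
    refine h1.trans (le_of_eq ?_)
    simp [Fin.sum_univ_succ, B10]
    ring
  · intro l hl
    refine ContinuousAt.continuousWithinAt ?_
    rw [Metric.continuousAt_iff]
    intro ε hε
    have hl' : (0:ℝ) < l := hl
    refine ⟨min (ε / 5) (l / 2), by positivity, fun {x} hx => ?_⟩
    rw [Real.dist_eq] at hx
    have h5 : |x - l| < ε / 5 := hx.trans_le (min_le_left _ _)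
    have h6 : |x - l| < l / 2 := hx.trans_le (min_le_right _ _)
    rw [abs_lt] at h5 h6
    have hx0 : 0 < x := by linarith [h6.1]
    rw [Real.dist_eq]
    rcases le_total x l with h | h
    · have := hlip x l hx0 h
      refine lt_of_le_of_lt this ?_
      linarith [h5.1]
    · have := hlip l x hl' h
      rw [abs_sub_comm] at this
      refine lt_of_le_of_lt this ?_
      linarith [h5.2]
  · intro l hl
    have h1 : lam (b8 (l • B10)) ≤ lam (eL 0 l 0) := by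
      have h2 : eL 0 l 0 ≤ b8 (l • B10) := by
        refine eL_le_b8 (by linarith) ?_
        intro i
        fin_cases i <;> simp [nat8, B10] <;> linarith
      have hm : eL 0 l 0 ∈ coneL := by rw [eL_bx9]; exact natB_mem _ _ _
      have := (P.anti _ hm _ (b8_mem0 (lB hl.le)) h2).1
      linarith
    have h2 := dmax 0 l 0
    have hz' : lam (xt kp 0 (0 : K8 → ℝ)) = 0 := hz
    show lam (xt kp 0 _) ≤ lam (xt kp 0 0) - (3 + qa) * l
    rw [hz']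
    unfold DL at h2
    unfold b8 at h1
    linarith

end cls

/-! ### the comparison and the numbers over `Out8z` -/

section out

variable {R s : ℝ} {a b : Fin 2} {Vis Vis' : Fin 12 → Prop} {θa θb g qa qb : ℝ} {T : Type*}
    {Bs : T → Fin 8 → ℝ} {sgs : T → ℝ} {x0 : Fin 12 → ℝ} {f : Fin 2 → (Fin 12 → ℝ) → ℝ}
    {x : ℕ → Fin 12 → ℝ} {hh : ℕ → ℝ} {lam : Fin 2 → (Fin 12 → ℝ) → ℝ} {B : Fin 8 → ℝ} {sg : ℝ}
    {c0 c₁ c₂ c₃ : ℝ} {ρ ρ₁ ρ₂ ρ₃ : Fin 8 → ℝ}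

theorem Out8z.sup8 (O : Out8z R s a b Vis θa θb g qa qb Bs sgs x0 f x hh lam)
    (hβ : 2 * θa - θb - 1 = 0) :
    SupOn (fun c => lam 0 (xt kp 0 c)) ((Q8 0).L (rs kp (y8 0)) (rs kp (r8 θa θb)) 0) := by
  refine supOn8 ?_
  rw [L8_cone hβ]; exact O.rx.prf.sm

/-- **`κ`-tie : rate of `C_a` on `T⁺` ≤ rate on `T⁻`** -/
theorem Out8z.ant_kU (O : Out8z R s a b Vis θa θb g qa qb Bs sgs x0 f x hh lam)
    (hβ : 2 * θa - θb - 1 = 0) (hθ : 0 < θa) (hc₁ : 0 < c₁) (hc₂ : 0 < c₂)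
    (hM₁ : (srf8 θa θb 0 kD (-1)).LW (Q8 0) c₁ ⊆ (Q8 0).L (rs kp (y8 0)) (rs kp (r8 θa θb)) 0)
    (hM₂ : (srf8 θa θb 0 kU 1).LW (Q8 0) c₂ ⊆ (Q8 0).L (rs kp (y8 0)) (rs kp (r8 θa θb)) 0)
    (r₁ : Rates8 θa θb 0 kD (-1) c₁ (lam 0) ρ₁) (r₂ : Rates8 θa θb 0 kU 1 c₂ (lam 0) ρ₂) :
    ρ₂ 1 ≤ ρ₁ 1 := by
  have hb : θb = 2 * θa - 1 := by linarith
  refine Tp139.cl8 (O.sup8 hβ) hθ (sok_kD hθ one_pos hb) (sok_kU hθ one_pos hb)
    (aln_kD hθ one_pos hb) (aln_kU hθ one_pos hb) hc₁ hc₂ hM₁ hM₂ r₁ r₂ (-2) 0 θa θa hθ hθ ?_ ?_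
  · subst hb
    refine all8 ?_ ?_ ?_ ?_ ?_ ?_ ?_ ?_ <;> ev8 <;> nlinarith
  · ev8; ring

/-- **double tie : rate of `C_a` on `T⁺` (`eU`) ≤ rate on `T⁻` (`kD`)** -/
theorem Out8z.ant_dz (O : Out8z R s a b Vis θa θb g qa qb Bs sgs x0 f x hh lam)
    (hβ : 2 * θa - θb - 1 = 0) (hθ : 0 < θa) {k : ℝ} (hk : 0 < k) (hb : θb = θa - k)
    (hc₁ : 0 < c₁) (hc₂ : 0 < c₂)
    (hM₁ : (srf8 θa θb 0 kD (-1)).LW (Q8 0) c₁ ⊆ (Q8 0).L (rs kp (y8 0)) (rs kp (r8 θa θb)) 0)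
    (hM₂ : (srf8 θa θb 0 (eU k) 1).LW (Q8 0) c₂ ⊆ (Q8 0).L (rs kp (y8 0)) (rs kp (r8 θa θb)) 0)
    (r₁ : Rates8 θa θb 0 kD (-1) c₁ (lam 0) ρ₁)
    (r₂ : Rates8 θa θb 0 (eU k) 1 c₂ (lam 0) ρ₂) : ρ₂ 1 ≤ ρ₁ 1 :=
  ant_d (O.sup8 hβ) hθ hk hc₁ hc₂ hb hM₁ hM₂ r₁ r₂

/-- **`q_a ≤` rate of `C_a` on `kD`** -/
theorem Out8z.posA_kD (O : Out8z R s a b Vis θa θb g qa qb Bs sgs x0 f x hh lam)
    (hβ : 2 * θa - θb - 1 = 0) (hθ : 0 < θa) (hc0 : 0 < c0)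
    (hM : (srf8 θa θb 0 kD (-1)).LW (Q8 0) c0 ⊆ (Q8 0).L (rs kp (y8 0)) (rs kp (r8 θa θb)) 0)
    (hR : Rates8 θa θb 0 kD (-1) c0 (lam 0) ρ) : qa ≤ ρ 1 := by
  have hb : θb = 2 * θa - 1 := by linarith
  refine posAz hβ hc0 hθ (sok_kD hθ one_pos hb) (aln_kD hθ one_pos hb) hR O.rx.prf (O.zero 0)
    O.rx.dmax hM (l := θa) (α := -1) hθ ?_ ?_
  · subst hb
    refine all8 ?_ ?_ ?_ ?_ ?_ ?_ ?_ ?_ <;> ev8 <;> linarith
  · ev8; ring

/-- **`θb < 0` : `q_a ≤` rate of `C_a` on `kU`** (rates at `kU` and at `oP`) -/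
theorem Out8z.posB_kU (O : Out8z R s a b Vis θa θb g qa qb Bs sgs x0 f x hh lam)
    (hβ : 2 * θa - θb - 1 = 0) (hθ : 0 < θa) (hb0 : θb < 0) (hc₂ : 0 < c₂) (hc₃ : 0 < c₃)
    (hM₂ : (srf8 θa θb 0 kU 1).LW (Q8 0) c₂ ⊆ (Q8 0).L (rs kp (y8 0)) (rs kp (r8 θa θb)) 0)
    (hM₃ : (srf8 θa θb 0 oP 1).LW (Q8 0) c₃ ⊆ (Q8 0).L (rs kp (y8 0)) (rs kp (r8 θa θb)) 0)
    (r₂ : Rates8 θa θb 0 kU 1 c₂ (lam 0) ρ₂) (r₃ : Rates8 θa θb 0 oP 1 c₃ (lam 0) ρ₃) :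
    qa ≤ ρ₂ 1 := by
  have hb : θb = 2 * θa - 1 := by linarith
  have h1 : qa ≤ ρ₃ 1 := pos8z hc₃ hθ hb0 r₃ O.rx.prf (O.zero 0) O.rx.dmax
  exact h1.trans (pos_k (O.sup8 hβ) hθ one_pos hc₂ hc₃ hb hb0 hM₂ hM₃ r₂ r₃)

/-- **`θb < 0` : `q_a ≤` rate of `C_a` on `eU k`** (rates at `eU k` and at `oP`) -/
theorem Out8z.posB_eU (O : Out8z R s a b Vis θa θb g qa qb Bs sgs x0 f x hh lam)
    (hβ : 2 * θa - θb - 1 = 0) (hθ : 0 < θa) {k : ℝ} (hk : 0 < k) (hb : θb = θa - k)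
    (hb0 : θb < 0) (hc₂ : 0 < c₂) (hc₃ : 0 < c₃)
    (hM₂ : (srf8 θa θb 0 (eU k) 1).LW (Q8 0) c₂ ⊆ (Q8 0).L (rs kp (y8 0)) (rs kp (r8 θa θb)) 0)
    (hM₃ : (srf8 θa θb 0 oP 1).LW (Q8 0) c₃ ⊆ (Q8 0).L (rs kp (y8 0)) (rs kp (r8 θa θb)) 0)
    (r₂ : Rates8 θa θb 0 (eU k) 1 c₂ (lam 0) ρ₂) (r₃ : Rates8 θa θb 0 oP 1 c₃ (lam 0) ρ₃) :
    qa ≤ ρ₂ 1 := by
  have h1 : qa ≤ ρ₃ 1 := pos8z hc₃ hθ hb0 r₃ O.rx.prf (O.zero 0) O.rx.dmax
  exact h1.trans (pos_e (O.sup8 hβ) hθ hk hc₂ hc₃ hb hb0 hM₂ hM₃ r₂ r₃)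

/-- slope of the D-max bound along a natural offset -/
theorem Out8z.kap_nat (O : Out8z R s a b Vis θa θb g qa qb Bs sgs x0 f x hh lam)
    {v c p : ℝ} (hL : Leg80 (nat8 v c p)) (hD : p ≤ 2 * c + v) {y : ℝ} (hy : 0 ≤ y) :
    lam 0 (xt kp 0 (RL8.vec (y • nat8 v c p))) ≤ DL g s qa qb v c p * y :=
  O.kap hL le_rfl hD hy

/-- natural boxes whose `D` is the record level -/
theorem b8_natz {v c p : ℝ} (h : p = 2 * c + v) : xt kp 0 (RL8.vec (nat8 v c p)) = eL v c p := by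
  have h2 : b8 (nat8 v c p) = _ := b8_nat v c p
  unfold b8 at h2
  rw [h2]
  funext i
  unfold ntD
  by_cases hi : i = 1
  · subst hi
    rw [Function.update_self]
    change (0:ℝ) = p - 2 * c - v
    linarith
  · rw [Function.update_of_ne hi]

/-- the value at the record -/
theorem Out8z.rcd1 (O : Out8z R s a b Vis θa θb g qa qb Bs sgs x0 f x hh lam)
    (hβ : 2 * θa - θb - 1 = 0) :
    lam 0 (xt kp 0 (RL8.vec (nat8 1 (-θa) (-θb)))) = DL g s qa qb 1 (-θa) (-θb) := by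
  rw [b8_natz (by linarith)]
  have h := O.rx.rcd 1
  simp only [mul_one] at h
  exact h

/-- **tangential identity** : the value of the second tangent at the record direction -/
theorem Out8z.tanz (O : Out8z R s a b Vis θa θb g qa qb Bs sgs x0 f x hh lam)
    (hβ : 2 * θa - θb - 1 = 0) {κ l α : ℝ} {h' : ℕ → ℝ} {lam2 : Fin 2 → (Fin 12 → ℝ) → ℝ}
    {ρ2 : Fin 8 → ℝ} (H : Half8 θa θb 0 B sg lam 0 ρ κ l α h' lam2 ρ2) :
    lam2 0 (xt kp 0 (RL8.vec (nat8 1 (-θa) (-θb)))) = DL g s qa qb 1 (-θa) (-θb) := by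
  have h1 := H.rcd 1
  rw [one_smul] at h1
  have h0 : lam 0 (xt kp 0 (0 : K8 → ℝ)) = 0 := by
    have h5 := xt0
    rw [Kw647.vec_zero] at h5
    rw [h5]; exact O.zero 0
  have h2 : lam2 0 (xt kp 0 (RL8.vec (nat8 1 (-θa) (-θb)))) =
      lam 0 (xt kp 0 (RL8.vec (nat8 1 (-θa) (-θb)))) - lam 0 (xt kp 0 (0 : K8 → ℝ)) := h1
  rw [h2, O.rcd1 hβ, h0, sub_zero]

/-- **direction inequality** -/
theorem verz {κ l α : ℝ} {h' : ℕ → ℝ} {lam2 : Fin 2 → (Fin 12 → ℝ) → ℝ}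
    {ρ2 : Fin 8 → ℝ} (H : Half8 θa θb 0 B sg lam 0 ρ κ l α h' lam2 ρ2) :
    lam2 0 (xt kp 0 (RL8.vec B)) ≤ κ := H.row

/-- the same at the record with the natural boxes `eL` -/
theorem Out8z.tanz_eL (O : Out8z R s a b Vis θa θb g qa qb Bs sgs x0 f x hh lam)
    (hβ : 2 * θa - θb - 1 = 0) {κ l α : ℝ} {h' : ℕ → ℝ} {lam2 : Fin 2 → (Fin 12 → ℝ) → ℝ}
    {ρ2 : Fin 8 → ℝ} (H : Half8 θa θb 0 B sg lam 0 ρ κ l α h' lam2 ρ2) :
    lam2 0 (eL 1 (-θa) (-θb)) = DL g s qa qb 1 (-θa) (-θb) := by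
  rw [← b8_natz (by linarith)]; exact O.tanz hβ H

theorem verz_eL {κ l α v c p : ℝ} {h' : ℕ → ℝ} {lam2 : Fin 2 → (Fin 12 → ℝ) → ℝ}
    {ρ2 : Fin 8 → ℝ} (h : p = 2 * c + v)
    (H : Half8 θa θb 0 (nat8 v c p) sg lam 0 ρ κ l α h' lam2 ρ2) : lam2 0 (eL v c p) ≤ κ := by
  rw [← b8_natz h]; exact verz H

/-! ### the plane `eU` : `D` coarser than the record, all walls of `D` are slack -/

/-- **cone of a natural plane whose `D` is not the record level** -/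
theorem L8B_nat0 (hβ : 2 * θa - θb - 1 = 0) {v c p : ℝ} (hD : p - 2 * c - v ≠ 0) (hsg : sg ≠ 0) :
    L8B θa θb 0 (nat8 v c p) sg = SgF665.LM0 := by
  have hA : ∀ (k : Fin 12) (e : Fin 12 → ℕ) (he : e ∈ monL.mon k),
      (mw monL).Act (y8 0) (xt kp 0 (RL8.vec (sg • nat8 v c p))) (r8 θa θb) ⟨k, e, he⟩ ↔
        e 1 = 0 := by
    intro k e he
    have hk1 : k ≠ 1 := Tq794.mon_one he
    have r1 : ∀ x : Fin 12 → ℝ, (mw monL).rhs ⟨k, e, he⟩ x = SgF665.wl e x := fun x => rfl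
    have h3 : (mw monL).cst ⟨k, e, he⟩ = 0 := rfl
    have y1 : SgF665.wl e (y8 0) = 0 := by
      rw [y8_zero]; unfold SgF665.wl; simp
    have e1 : xt kp 0 (RL8.vec (nat8 (sg * v) (sg * c) (sg * p))) =
        Function.update (eL (sg * v) (sg * c) (sg * p)) 1 0 := b8_nat _ _ _
    constructor
    · rintro ⟨-, h1, -⟩
      rw [r1, Pd363.nat8_smul, e1, Pd363.wl_upd, Tq794.wl_eL _ _ _ k he] at h1
      have h2 : Function.update (eL (sg * v) (sg * c) (sg * p)) 1 0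
          ((mw monL).hd ⟨k, e, he⟩) = eL (sg * v) (sg * c) (sg * p) k :=
        Function.update_of_ne hk1 _ _
      rw [h2] at h1
      have h4 : eL (sg * v) (sg * c) (sg * p) 1 = sg * (p - 2 * c - v) := by
        change sg * p - 2 * (sg * c) - sg * v = _
        ring
      rw [h4] at h1
      have h5 : (e 1 : ℝ) * (0 - sg * (p - 2 * c - v)) = 0 := by linarith
      have h6 := (mul_eq_zero.1 h5).resolve_right (fun h7 =>
        mul_ne_zero hsg hD (by linarith))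
      exact_mod_cast h6
    · intro h1
      refine ⟨?_, ?_, ?_⟩
      · rw [r1, y1, h3]
        have h2 : y8 0 ((mw monL).hd ⟨k, e, he⟩) = 0 := y8_at hk1
        rw [h2]; simp
      · rw [r1, Pd363.nat8_smul, e1, Pd363.wl_upd, h1, Tq794.wl_eL _ _ _ k he]
        show Function.update (eL (sg * v) (sg * c) (sg * p)) 1 0 k = _
        rw [Function.update_of_ne hk1]; simp
      · rw [r1]
        unfold r8
        rw [Pd363.wl_upd, h1, Tq794.wl_eL _ _ _ k he]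
        show Function.update (eL 1 (-θa) (-θb)) 1 0 k = _
        rw [Function.update_of_ne hk1]; simp
  ext d
  constructor
  · intro h k e he h1
    exact h ⟨k, e, he⟩ ((hA k e he).2 h1)
  · rintro h ⟨k, e, he⟩ hw
    exact h k e he ((hA k e he).1 hw)

theorem srfL_iff {t : ℝ} {c : K8 → ℝ} :
    c ∈ (srf8 θa θb t B sg).L (Q8 t) ↔ xt kp 0 c ∈ L8B θa θb t B sg := by
  have hρ : ∀ i, ¬ kp i → r8 θa θb i = 0 := fun i hi => by
    have hi' : i = 1 := not_not.1 hi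
    subst hi'
    unfold r8; rw [Function.update_self]
  have hB : ∀ i, ¬ kp i → xt kp 0 (RL8.vec (sg • B)) i = 0 := fun i hi => by
    rw [Sl741.xt_off (p := kp) _ _ hi]; rfl
  have h := Sl741.mem_slice_L (Q := mw monL) (p := kp) (v := y8 t) (hp := kp_hd) (x0 := y8 t)
    (a := xt kp 0 (RL8.vec (sg • B))) (b := r8 θa θb) (fun _ _ => rfl) hB hρ (c := c)
  rw [Sl741.rs_xt, rs_r8] at h
  exact h

/-- the slice cone does not depend on the level of `D` -/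
theorem srfL_t {t : ℝ} (hL : L8B θa θb 0 B sg = L8B θa θb t B sg) :
    (srf8 θa θb 0 B sg).L (Q8 0) = (srf8 θa θb t B sg).L (Q8 t) := by
  ext c
  rw [srfL_iff, srfL_iff, hL]

theorem L8B_eU0 (hβ : 2 * θa - θb - 1 = 0) {k t : ℝ} (ht : t ≠ 0) :
    L8B θa θb 0 (eU k) 1 = L8B θa θb t (eU k) 1 := by
  have h1 : L8B θa θb 0 (nat8 1 k (2 * k)) 1 = SgF665.LM0 :=
    L8B_nat0 hβ (by intro h; linarith) one_ne_zero
  have h2 : L8B θa θb t (nat8 1 k (2 * k)) 1 = SgF665.LM0 := Pd363.L8B_nat ht _ _ _ _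
  exact h1.trans h2.symm

/-- `OutS` and `FRates` move from the record level of `D` to the level `t` -/
theorem outS_t {t : ℝ} (hL : L8B θa θb 0 B sg = L8B θa θb t B sg) {F : (K8 → ℝ) → ℝ}
    {D : ℝ × ℝ} {φ0 : ℕ → (K8 → ℝ) → ℝ} {r : ℕ → ℝ}
    (h : Dg219.OutS (srf8 θa θb 0 B sg).g ((srf8 θa θb 0 B sg).L (Q8 0)) (srf8 θa θb 0 B sg).dh
      (srf8 θa θb 0 B sg).n F D φ0 r) :
    Dg219.OutS (srf8 θa θb t B sg).g ((srf8 θa θb t B sg).L (Q8 t)) (srf8 θa θb t B sg).dh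
      (srf8 θa θb t B sg).n F D φ0 r := by
  rw [srfL_t hL] at h
  exact h

theorem frates_t {t : ℝ} (hL : L8B θa θb 0 B sg = L8B θa θb t B sg) {F : (K8 → ℝ) → ℝ}
    {ρ2 : Fin 8 → ℝ}
    (h : FRates RL8 (nat8 1 (-θa) (-θb)) B sg F ((srf8 θa θb 0 B sg).L (Q8 0)) ρ2) :
    FRates RL8 (nat8 1 (-θa) (-θb)) B sg F ((srf8 θa θb t B sg).L (Q8 t)) ρ2 := by
  rw [srfL_t hL] at h
  exact h

end out

end Crest.Agent.R116.Rz460
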