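import Mathlib

/-!
# R116, sigma = 2 (helper905's cure, captain 18661): the finite lemma (al)

`A` a finite set of cells, `u1`, `u2` two labellings with at most `M` labels each, joint fibres at
most `K0`, `φ` constant on the fibres of `u1` and on the fibres of `u2`, `A` of size at least
`δ M T`.  Then at least half of the points of `A` lie in a level set of `φ` with at least
`δ² T² / (16 K0)` points.  (No bound on the fibres of `u1`, `u2` is needed.)
-/

set_option autoImplicit false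

open Finset

namespace Crest.Agent.R116.Sc858

variable {P L1 L2 Φ : Type*} [DecidableEq P] [DecidableEq L1] [DecidableEq L2] [DecidableEq Φ]

/-- the level sets of `φ` have disjoint label sets. -/
theorem sum_card_image_le (A : Finset P) (u : P → L1) (φ : P → Φ)
    (h : ∀ p ∈ A, ∀ p' ∈ A, u p = u p' → φ p = φ p') (S : Finset Φ) :
    ∑ f ∈ S, ((A.filter (fun p => φ p = f)).image u).card ≤ (A.image u).card := by
  classical
  rw [← Finset.card_biUnion]
  · apply Finset.card_le_card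
    intro y hy
    simp only [mem_biUnion, mem_image, mem_filter] at hy
    obtain ⟨f, _, p, ⟨hp, _⟩, rfl⟩ := hy
    exact mem_image_of_mem u hp
  · intro f _ g _ hfg
    rw [Function.onFun, Finset.disjoint_left]
    intro y hy hy'
    simp only [mem_image, mem_filter] at hy hy'
    obtain ⟨p, ⟨hp, hpf⟩, rfl⟩ := hy
    obtain ⟨p', ⟨hp', hpf'⟩, he⟩ := hy'
    exact hfg (by rw [← hpf, ← hpf', h p hp p' hp' he.symm])

/-- the classes with many labels carry few points. -/
theorem card_many (A : Finset P) (u : P → L1) (φ : P → Φ)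
    (h : ∀ p ∈ A, ∀ p' ∈ A, u p = u p' → φ p = φ p') {c M : ℝ} (hc : 0 ≤ c)
    (hM : ((A.image u).card : ℝ) ≤ M) :
    ((A.filter (fun p => ((A.filter (fun p' => φ p' = φ p)).card : ℝ) ≤
        c * ((A.filter (fun p' => φ p' = φ p)).image u).card)).card : ℝ) ≤ c * M := by
  classical
  set B := A.filter (fun p => ((A.filter (fun p' => φ p' = φ p)).card : ℝ) ≤
        c * ((A.filter (fun p' => φ p' = φ p)).image u).card) with hB
  have h1 : (B.card : ℝ) = ∑ f ∈ B.image φ, ((B.filter (fun p => φ p = f)).card : ℝ) := by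
    rw [← Nat.cast_sum, ← Finset.card_eq_sum_card_image]
  have h2 : ∀ f ∈ B.image φ, ((B.filter (fun p => φ p = f)).card : ℝ) ≤
      c * ((A.filter (fun p => φ p = f)).image u).card := by
    intro f hf
    obtain ⟨p, hp, rfl⟩ := mem_image.1 hf
    have hp' := (mem_filter.1 hp).2
    refine le_trans ?_ hp'
    exact_mod_cast Finset.card_le_card (Finset.filter_subset_filter _ (Finset.filter_subset _ _))
  calc (B.card : ℝ) = ∑ f ∈ B.image φ, ((B.filter (fun p => φ p = f)).card : ℝ) := h1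
    _ ≤ ∑ f ∈ B.image φ, c * (((A.filter (fun p => φ p = f)).image u).card : ℝ) :=
        Finset.sum_le_sum h2
    _ = c * ((∑ f ∈ B.image φ, ((A.filter (fun p => φ p = f)).image u).card : ℕ) : ℝ) := by
        rw [← Finset.mul_sum]; push_cast; rfl
    _ ≤ c * ((A.image u).card : ℝ) := by
        gcongr
        exact_mod_cast sum_card_image_le A u φ h (B.image φ)
    _ ≤ c * M := by gcongr

/-- **(al)** -/
theorem sheet (A : Finset P) (u1 : P → L1) (u2 : P → L2) (φ : P → Φ) {M T δ K0 : ℝ}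
    (hT : 0 < T) (hδ : 0 < δ) (hK0 : 0 ≤ K0)
    (h1 : ∀ p ∈ A, ∀ p' ∈ A, u1 p = u1 p' → φ p = φ p')
    (h2 : ∀ p ∈ A, ∀ p' ∈ A, u2 p = u2 p' → φ p = φ p')
    (hM1 : ((A.image u1).card : ℝ) ≤ M) (hM2 : ((A.image u2).card : ℝ) ≤ M)
    (hK : ∀ y1 y2, ((A.filter (fun p => u1 p = y1 ∧ u2 p = y2)).card : ℝ) ≤ K0)
    (hA : δ * M * T ≤ (A.card : ℝ)) :
    (A.card : ℝ) ≤ 2 * ((A.filter (fun p =>
      δ ^ 2 * T ^ 2 ≤ 16 * K0 * ((A.filter (fun p' => φ p' = φ p)).card : ℝ))).card : ℝ) := by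
  classical
  have hc : 0 ≤ δ * T / 4 := by positivity
  have e1 := card_many A u1 φ h1 hc hM1
  have e2 := card_many A u2 φ h2 hc hM2
  set G := A.filter (fun p =>
      δ ^ 2 * T ^ 2 ≤ 16 * K0 * ((A.filter (fun p' => φ p' = φ p)).card : ℝ)) with hG
  set B1 := A.filter (fun p => ((A.filter (fun p' => φ p' = φ p)).card : ℝ) ≤
        δ * T / 4 * ((A.filter (fun p' => φ p' = φ p)).image u1).card) with hB1
  set B2 := A.filter (fun p => ((A.filter (fun p' => φ p' = φ p)).card : ℝ) ≤
        δ * T / 4 * ((A.filter (fun p' => φ p' = φ p)).image u2).card) with hB2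
  have hcov : A ⊆ G ∪ (B1 ∪ B2) := by
    intro p hp
    by_contra hcon
    simp only [mem_union, not_or] at hcon
    obtain ⟨hpG, hpB1, hpB2⟩ := hcon
    have g1 : 16 * K0 * ((A.filter (fun p' => φ p' = φ p)).card : ℝ) < δ ^ 2 * T ^ 2 := by
      by_contra hh
      exact hpG (mem_filter.2 ⟨hp, not_lt.1 hh⟩)
    have g2 : δ * T / 4 * ((A.filter (fun p' => φ p' = φ p)).image u1).card <
        ((A.filter (fun p' => φ p' = φ p)).card : ℝ) := by
      by_contra hh
      exact hpB1 (mem_filter.2 ⟨hp, not_lt.1 hh⟩)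
    have g3 : δ * T / 4 * ((A.filter (fun p' => φ p' = φ p)).image u2).card <
        ((A.filter (fun p' => φ p' = φ p)).card : ℝ) := by
      by_contra hh
      exact hpB2 (mem_filter.2 ⟨hp, not_lt.1 hh⟩)
    set C := A.filter (fun p' => φ p' = φ p) with hC
    -- |C| ≤ K0 m1 m2
    have g4 : (C.card : ℝ) ≤ K0 * ((C.image u1).card * (C.image u2).card) := by
      have hmap : ∀ q ∈ C, (u1 q, u2 q) ∈ (C.image u1) ×ˢ (C.image u2) := by
        intro q hq
        exact mem_product.2 ⟨mem_image_of_mem _ hq, mem_image_of_mem _ hq⟩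
      have hfib := Finset.card_eq_sum_card_fiberwise (f := fun q => (u1 q, u2 q)) hmap
      rw [hfib]
      push_cast
      calc ∑ b ∈ (C.image u1) ×ˢ (C.image u2), ((C.filter (fun q => (u1 q, u2 q) = b)).card : ℝ)
          ≤ ∑ b ∈ (C.image u1) ×ˢ (C.image u2), K0 := by
            refine Finset.sum_le_sum fun b _ => ?_
            refine le_trans ?_ (hK b.1 b.2)
            have : C.filter (fun q => (u1 q, u2 q) = b) ⊆
                A.filter (fun q => u1 q = b.1 ∧ u2 q = b.2) := by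
              intro q hq
              obtain ⟨hq1, hq2⟩ := mem_filter.1 hq
              refine mem_filter.2 ⟨(mem_filter.1 hq1).1, ?_, ?_⟩
              · exact congrArg Prod.fst hq2
              · exact congrArg Prod.snd hq2
            exact_mod_cast Finset.card_le_card this
        _ = K0 * ((C.image u1).card * (C.image u2).card) := by
            rw [Finset.sum_const, card_product]; push_cast; ring
    have hcpos : (0 : ℝ) < C.card := by
      have : p ∈ C := mem_filter.2 ⟨hp, rfl⟩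
      exact_mod_cast Finset.card_pos.2 ⟨p, this⟩
    have hm1 : (0 : ℝ) ≤ (C.image u1).card := Nat.cast_nonneg _
    have hm2 : (0 : ℝ) ≤ (C.image u2).card := Nat.cast_nonneg _
    have g5 : (δ * T / 4) ^ 2 * ((C.image u1).card * (C.image u2).card : ℝ) ≤
        (C.card : ℝ) * C.card := by
      have := mul_le_mul g2.le g3.le (by positivity) hcpos.le
      nlinarith [this]
    have g6 : (δ * T / 4) ^ 2 * (C.card : ℝ) ≤ K0 * (C.card * C.card : ℝ) := by
      calc (δ * T / 4) ^ 2 * (C.card : ℝ)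
          ≤ (δ * T / 4) ^ 2 * (K0 * ((C.image u1).card * (C.image u2).card)) := by gcongr
        _ = K0 * ((δ * T / 4) ^ 2 * ((C.image u1).card * (C.image u2).card)) := by ring
        _ ≤ K0 * (C.card * C.card : ℝ) := by gcongr
    have g7 : (δ * T / 4) ^ 2 ≤ K0 * (C.card : ℝ) := by
      have : (δ * T / 4) ^ 2 * (C.card : ℝ) ≤ (K0 * C.card) * (C.card : ℝ) := by
        calc _ ≤ _ := g6
          _ = _ := by ring
      exact le_of_mul_le_mul_right this hcpos
    nlinarith [g7, g1]
  have hcard : (A.card : ℝ) ≤ G.card + (B1.card + B2.card) := by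
    have := (Finset.card_le_card hcov).trans ((Finset.card_union_le _ _).trans
      (Nat.add_le_add_left (Finset.card_union_le _ _) _))
    exact_mod_cast this
  have e3 : δ * T / 4 * M = δ * M * T / 4 := by ring
  rw [e3] at e1 e2
  linarith

/-- a class is at most `K0` times the product of its numbers of labels. -/
theorem card_le_mul {Q U1 U2 : Type*} [DecidableEq Q] [DecidableEq U1] [DecidableEq U2]
    (W C : Finset Q) (hCW : C ⊆ W) (u1 : Q → U1) (u2 : Q → U2) {K0 : ℝ} (hK0 : 0 < K0)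
    (hK : ∀ q ∈ W, ((W.filter fun q' => u1 q' = u1 q ∧ u2 q' = u2 q).card : ℝ) ≤ K0) :
    (C.card : ℝ) ≤ K0 * ((C.image u1).card * (C.image u2).card) := by
  classical
  have hmap : ∀ q ∈ C, (u1 q, u2 q) ∈ (C.image u1) ×ˢ (C.image u2) := by
    intro q hq
    exact mem_product.2 ⟨mem_image_of_mem _ hq, mem_image_of_mem _ hq⟩
  have hfib := Finset.card_eq_sum_card_fiberwise (f := fun q => (u1 q, u2 q)) hmap
  have hfibR : (C.card : ℝ) = ∑ b ∈ (C.image u1) ×ˢ (C.image u2),
      ((C.filter (fun q => (u1 q, u2 q) = b)).card : ℝ) := by exact_mod_cast hfib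
  rw [hfibR]
  calc ∑ b ∈ (C.image u1) ×ˢ (C.image u2), ((C.filter (fun q => (u1 q, u2 q) = b)).card : ℝ)
      ≤ ∑ b ∈ (C.image u1) ×ˢ (C.image u2), K0 := by
        refine Finset.sum_le_sum fun b _ => ?_
        rcases (C.filter (fun q => (u1 q, u2 q) = b)).eq_empty_or_nonempty with he | ⟨q, hq⟩
        · rw [he]; simpa using hK0.le
        · obtain ⟨hq1, hq2⟩ := mem_filter.1 hq
          refine le_trans ?_ (hK q (hCW hq1))
          have : C.filter (fun q => (u1 q, u2 q) = b) ⊆
              W.filter (fun q' => u1 q' = u1 q ∧ u2 q' = u2 q) := by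
            intro q' hq'
            obtain ⟨hq1', hq2'⟩ := mem_filter.1 hq'
            have e1 : u1 q' = u1 q := congrArg Prod.fst (hq2'.trans hq2.symm)
            have e2 : u2 q' = u2 q := congrArg Prod.snd (hq2'.trans hq2.symm)
            exact mem_filter.2 ⟨hCW hq1', e1, e2⟩
          exact_mod_cast Finset.card_le_card this
    _ = K0 * ((C.image u1).card * (C.image u2).card) := by
        rw [Finset.sum_const, card_product, nsmul_eq_mul]; push_cast; ring

/-- the real inequality for one class. -/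
theorem class_le {a m1 m2 K0 th : ℝ} (hth : 0 < th) (hK0 : 0 < K0) (ha : 0 ≤ a) (hm1 : 0 ≤ m1)
    (hm2 : 0 ≤ m2) (h : a ≤ K0 * (m1 * m2)) :
    th ^ 2 * a ≤ th ^ 3 * m1 + th ^ 3 * m2 + K0 * a ^ 2 := by
  have h3 : 0 ≤ th ^ 3 * m1 := by positivity
  have h4 : 0 ≤ th ^ 3 * m2 := by positivity
  have h5 : 0 ≤ K0 * a ^ 2 := by positivity
  by_cases c1 : a ≤ th * m1
  · have : th ^ 2 * a ≤ th ^ 2 * (th * m1) := by gcongr
    have e : th ^ 2 * (th * m1) = th ^ 3 * m1 := by ring
    linarith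
  by_cases c2 : a ≤ th * m2
  · have : th ^ 2 * a ≤ th ^ 2 * (th * m2) := by gcongr
    have e : th ^ 2 * (th * m2) = th ^ 3 * m2 := by ring
    linarith
  push Not at c1 c2
  have g5 : (th * m1) * (th * m2) ≤ a * a := mul_le_mul c1.le c2.le (by positivity) ha
  have g6 : th ^ 2 * a ≤ K0 * a ^ 2 := by
    calc th ^ 2 * a ≤ th ^ 2 * (K0 * (m1 * m2)) := by gcongr
      _ = K0 * ((th * m1) * (th * m2)) := by ring
      _ ≤ K0 * (a * a) := by gcongr
      _ = K0 * a ^ 2 := by ring
  linarith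

/-- **(al), 905's literal (18870 (1))**: `W` finite, classes `s`, two labellings with at most `M`
labels in total over the classes, joint fibres at most `K0`: the classes are large in `L²`. -/
theorem alpha {Q S U1 U2 : Type*} [DecidableEq Q] [DecidableEq S] [DecidableEq U1]
    [DecidableEq U2]
    (W : Finset Q) (s : Q → S) (u1 : Q → U1) (u2 : Q → U2) {M K0 : ℝ} (hK0 : 0 < K0) (hM : 0 < M)
    (h1 : ∑ c ∈ W.image s, (((W.filter fun q => s q = c).image u1).card : ℝ) ≤ M)
    (h2 : ∑ c ∈ W.image s, (((W.filter fun q => s q = c).image u2).card : ℝ) ≤ M)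
    (hK : ∀ q ∈ W, ((W.filter fun q' => u1 q' = u1 q ∧ u2 q' = u2 q).card : ℝ) ≤ K0) :
    (W.card : ℝ) ^ 3 ≤ 32 * K0 * M ^ 2 *
      ∑ c ∈ W.image s, ((W.filter fun q => s q = c).card : ℝ) ^ 2 := by
  classical
  have hw : (W.card : ℝ) = ∑ c ∈ W.image s, ((W.filter fun q => s q = c).card : ℝ) := by
    exact_mod_cast Finset.card_eq_sum_card_image s W
  have hSg0 : 0 ≤ ∑ c ∈ W.image s, ((W.filter fun q => s q = c).card : ℝ) ^ 2 :=
    Finset.sum_nonneg fun _ _ => by positivity
  have hz : 0 ≤ 32 * K0 * M ^ 2 * ∑ c ∈ W.image s,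
      ((W.filter fun q => s q = c).card : ℝ) ^ 2 :=
    mul_nonneg (by positivity) hSg0
  rcases Nat.eq_zero_or_pos W.card with h0 | h0
  · have e0 : (W.card : ℝ) ^ 3 = 0 := by rw [h0]; norm_num
    exact e0.le.trans hz
  have hw0 : (0 : ℝ) < W.card := by exact_mod_cast h0
  obtain ⟨th, hth⟩ : ∃ th : ℝ, th = (W.card : ℝ) / (4 * M) := ⟨_, rfl⟩
  have hth0 : 0 < th := by rw [hth]; positivity
  have hsum := Finset.sum_le_sum (s := W.image s) (fun c _ =>
    class_le (a := ((W.filter fun q => s q = c).card : ℝ))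
      (m1 := (((W.filter fun q => s q = c).image u1).card : ℝ))
      (m2 := (((W.filter fun q => s q = c).image u2).card : ℝ)) hth0 hK0 (Nat.cast_nonneg _)
      (Nat.cast_nonneg _) (Nat.cast_nonneg _)
      (card_le_mul W (W.filter fun q => s q = c) (Finset.filter_subset _ _) u1 u2 hK0 hK))
  rw [← Finset.mul_sum, ← hw, Finset.sum_add_distrib, Finset.sum_add_distrib, ← Finset.mul_sum,
    ← Finset.mul_sum, ← Finset.mul_sum] at hsum
  obtain ⟨Sg, hSg⟩ : ∃ Sg : ℝ, Sg = ∑ c ∈ W.image s,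
    ((W.filter fun q => s q = c).card : ℝ) ^ 2 := ⟨_, rfl⟩
  rw [← hSg] at hsum hSg0 ⊢
  obtain ⟨w, hwd⟩ : ∃ w : ℝ, w = (W.card : ℝ) := ⟨_, rfl⟩
  rw [← hwd] at hsum hw0 hth ⊢
  have i1 : th ^ 3 * (∑ c ∈ W.image s, (((W.filter fun q => s q = c).image u1).card : ℝ)) ≤
      th ^ 3 * M := mul_le_mul_of_nonneg_left h1 (by positivity)
  have i2 : th ^ 3 * (∑ c ∈ W.image s, (((W.filter fun q => s q = c).image u2).card : ℝ)) ≤
      th ^ 3 * M := mul_le_mul_of_nonneg_left h2 (by positivity)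
  have h5 : th ^ 2 * w ≤ th ^ 3 * M + th ^ 3 * M + K0 * Sg := by linarith
  have h6 : th * (4 * M) = w := by rw [hth]; field_simp
  have h7 : th ^ 3 * M + th ^ 3 * M = th ^ 2 * w / 2 := by rw [← h6]; ring
  have h8 : th ^ 2 * w ≤ 2 * (K0 * Sg) := by linarith
  calc w ^ 3 = (4 * M) ^ 2 * (th ^ 2 * w) := by
        rw [show (4 * M) ^ 2 * (th ^ 2 * w) = (th * (4 * M)) ^ 2 * w by ring, h6]; ring
    _ ≤ (4 * M) ^ 2 * (2 * (K0 * Sg)) := by gcongr
    _ = 32 * K0 * M ^ 2 * Sg := by ring

end Crest.Agent.R116.Sc858
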