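import Mathlib

/-!
# R116, D4 at sigma = 2 (`SIG2`), finite core (helper905)

* `avg_pairs` : one far pair of classes is present together in a large part of all cells.
* `alpha` : popular fibres of two projections and a common factor.
* `sheet_pairs` : number of pairs of cells in one common sheet of two classes.
* `line_pairs` : number of pairs of lines in one sheet with different velocities.
* `core` : the inequality.
-/

set_option autoImplicit false
set_option maxHeartbeats 400000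
set_option linter.unusedVariables false

open Finset

namespace Crest.Agent.R116.Sc905

/-! ### averaging over pairs of classes -/

open Classical in
/-- one far pair of classes is present together in a large part of all cells -/
theorem avg_pairs {K G Q : Type*} (Z : Finset K) (Γ : Finset G)
    (hΓ : Γ.Nonempty) (Qk : K → Finset Q) (P : K → Q → Finset G) (near : G → G → Prop)
    {lam A : ℝ} (hlam : 0 < lam) (hlam1 : lam ≤ 1) (hA : 0 ≤ A)
    (hP : ∀ k ∈ Z, ∀ q ∈ Qk k, P k q ⊆ Γ)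
    (hPc : ∀ k ∈ Z, ∀ q ∈ Qk k, lam * (#Γ : ℝ) ≤ (#(P k q) : ℝ))
    (hQ : ∀ k ∈ Z, lam * A ≤ (#(Qk k) : ℝ))
    (hnear : ∀ γ ∈ Γ, ((Γ.filter fun γ' => near γ γ').card : ℝ) ≤ lam / 2 * (#Γ : ℝ)) :
    ∃ γ1 ∈ Γ, ∃ γ2 ∈ Γ, ¬ near γ1 γ2 ∧
      lam ^ 3 / 2 * A * (#Z : ℝ) ≤
        ∑ k ∈ Z, (((Qk k).filter fun q => γ1 ∈ P k q ∧ γ2 ∈ P k q).card : ℝ) := by
  set Far : Finset (G × G) := (Γ ×ˢ Γ).filter fun p => ¬ near p.1 p.2 with hFar
  set S : G × G → ℝ := fun p =>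
    ∑ k ∈ Z, (((Qk k).filter fun q => p.1 ∈ P k q ∧ p.2 ∈ P k q).card : ℝ) with hS
  have hg : (0 : ℝ) < #Γ := by exact_mod_cast hΓ.card_pos
  obtain ⟨γ0, hγ0⟩ := hΓ
  have hne : Far.Nonempty := by
    by_contra hcon
    rw [Finset.not_nonempty_iff_eq_empty] at hcon
    have h1 : Γ ⊆ Γ.filter fun γ' => near γ0 γ' := by
      intro γ hγ
      rw [mem_filter]
      refine ⟨hγ, ?_⟩
      by_contra hn
      have : (γ0, γ) ∈ Far := by
        rw [hFar, mem_filter, mem_product]; exact ⟨⟨hγ0, hγ⟩, hn⟩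
      rw [hcon] at this
      exact absurd this (Finset.notMem_empty _)
    have h2 := hnear γ0 hγ0
    have h3 : (#Γ : ℝ) ≤ ((Γ.filter fun γ' => near γ0 γ').card : ℝ) := by
      exact_mod_cast card_le_card h1
    nlinarith
  have key : ∀ k ∈ Z, ∀ q ∈ Qk k, lam ^ 2 / 2 * (#Γ : ℝ) ^ 2 ≤
      ∑ p ∈ Far, (if p.1 ∈ P k q ∧ p.2 ∈ P k q then (1 : ℝ) else 0) := by
    intro k hk q hq
    have hsub := hP k hk q hq
    have hPc' := hPc k hk q hq
    have h1 : ∀ γ1 ∈ P k q, lam / 2 * (#Γ : ℝ) ≤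
        ∑ γ2 ∈ P k q, (if ¬ near γ1 γ2 then (1 : ℝ) else 0) := by
      intro γ1 hγ1
      have a1 := hnear γ1 (hsub hγ1)
      have a2 : (((P k q).filter fun γ' => near γ1 γ').card : ℝ) ≤
          ((Γ.filter fun γ' => near γ1 γ').card : ℝ) := by
        exact_mod_cast card_le_card (filter_subset_filter _ hsub)
      have a3 : (((P k q).filter fun γ' => near γ1 γ').card : ℝ) +
          (((P k q).filter fun γ' => ¬ near γ1 γ').card : ℝ) = (#(P k q) : ℝ) := by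
        exact_mod_cast card_filter_add_card_filter_not (s := P k q) (fun γ' => near γ1 γ')
      rw [Finset.sum_boole]
      linarith
    have h2 : ∑ p ∈ Far, (if p.1 ∈ P k q ∧ p.2 ∈ P k q then (1 : ℝ) else 0) =
        ∑ γ1 ∈ P k q, ∑ γ2 ∈ P k q, (if ¬ near γ1 γ2 then (1 : ℝ) else 0) := by
      rw [← Finset.sum_product', Finset.sum_boole, Finset.sum_boole]
      congr 2
      ext p
      simp only [hFar, mem_filter, mem_product]
      constructor
      · rintro ⟨⟨⟨a, b⟩, c⟩, d1, d2⟩; exact ⟨⟨d1, d2⟩, c⟩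
      · rintro ⟨⟨a, b⟩, c⟩; exact ⟨⟨⟨hsub a, hsub b⟩, c⟩, a, b⟩
    rw [h2]
    calc lam ^ 2 / 2 * (#Γ : ℝ) ^ 2 = (lam * (#Γ : ℝ)) * (lam / 2 * (#Γ : ℝ)) := by ring
      _ ≤ (#(P k q) : ℝ) * (lam / 2 * (#Γ : ℝ)) := by
          exact mul_le_mul_of_nonneg_right hPc' (by positivity)
      _ = ∑ γ1 ∈ P k q, lam / 2 * (#Γ : ℝ) := by rw [sum_const, nsmul_eq_mul]
      _ ≤ _ := sum_le_sum h1
  have htot : ∑ p ∈ Far, (lam ^ 3 / 2 * A * (#Z : ℝ)) ≤ ∑ p ∈ Far, S p := by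
    have e1 : ∑ p ∈ Far, S p = ∑ k ∈ Z, ∑ q ∈ Qk k,
        ∑ p ∈ Far, (if p.1 ∈ P k q ∧ p.2 ∈ P k q then (1 : ℝ) else 0) := by
      rw [hS]
      simp only
      rw [Finset.sum_comm]
      refine sum_congr rfl fun k hk => ?_
      rw [Finset.sum_comm]
      refine sum_congr rfl fun p hp => ?_
      rw [Finset.sum_boole]
    rw [e1, sum_const, nsmul_eq_mul]
    have hFc : (#Far : ℝ) ≤ (#Γ : ℝ) ^ 2 := by
      have : #Far ≤ #Γ * #Γ := (card_filter_le _ _).trans (by rw [card_product])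
      have h' : (#Far : ℝ) ≤ (#Γ : ℝ) * (#Γ : ℝ) := by exact_mod_cast this
      nlinarith
    calc (#Far : ℝ) * (lam ^ 3 / 2 * A * (#Z : ℝ))
        ≤ (#Γ : ℝ) ^ 2 * (lam ^ 3 / 2 * A * (#Z : ℝ)) :=
          mul_le_mul_of_nonneg_right hFc (by positivity)
      _ = ∑ k ∈ Z, (lam * A) * (lam ^ 2 / 2 * (#Γ : ℝ) ^ 2) := by
          rw [sum_const, nsmul_eq_mul]; ring
      _ ≤ _ := by
          refine sum_le_sum fun k hk => ?_
          calc (lam * A) * (lam ^ 2 / 2 * (#Γ : ℝ) ^ 2)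
              ≤ (#(Qk k) : ℝ) * (lam ^ 2 / 2 * (#Γ : ℝ) ^ 2) :=
                mul_le_mul_of_nonneg_right (hQ k hk) (by positivity)
            _ = ∑ q ∈ Qk k, lam ^ 2 / 2 * (#Γ : ℝ) ^ 2 := by rw [sum_const, nsmul_eq_mul]
            _ ≤ _ := sum_le_sum fun q hq => key k hk q hq
  obtain ⟨p, hp, hpS⟩ := Finset.exists_le_of_sum_le hne htot
  rw [hFar, mem_filter, mem_product] at hp
  exact ⟨p.1, hp.1.1, p.2, hp.1.2, hp.2, hpS⟩

/-! ### two projections and a common factor -/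

/-- popular fibres of two projections with a common factor -/
theorem alpha {Q S U1 U2 : Type*} [DecidableEq Q] [DecidableEq S] [DecidableEq U1]
    [DecidableEq U2] (W : Finset Q) (s : Q → S) (u1 : Q → U1) (u2 : Q → U2) {M K0 : ℝ}
    (hK0 : 0 < K0) (hM : 0 < M)
    (h1 : ∑ c ∈ W.image s, (((W.filter fun q => s q = c).image u1).card : ℝ) ≤ M)
    (h2 : ∑ c ∈ W.image s, (((W.filter fun q => s q = c).image u2).card : ℝ) ≤ M)
    (hK : ∀ q ∈ W, ((W.filter fun q' => u1 q' = u1 q ∧ u2 q' = u2 q).card : ℝ) ≤ K0) :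
    (W.card : ℝ) ^ 3 ≤ 32 * K0 * M ^ 2 *
      ∑ c ∈ W.image s, ((W.filter fun q => s q = c).card : ℝ) ^ 2 := by
  classical
  rcases W.eq_empty_or_nonempty with h0 | hne
  · subst h0; simp
  set a : S → ℝ := fun c => ((W.filter fun q => s q = c).card : ℝ) with ha
  set m1 : S → ℝ := fun c => (((W.filter fun q => s q = c).image u1).card : ℝ) with hm1
  set m2 : S → ℝ := fun c => (((W.filter fun q => s q = c).image u2).card : ℝ) with hm2
  have hW : (0 : ℝ) < W.card := by exact_mod_cast hne.card_pos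
  set th : ℝ := (W.card : ℝ) / (4 * M) with hth
  have hth0 : 0 < th := by positivity
  have hsum : ∑ c ∈ W.image s, a c = (W.card : ℝ) := by
    have := (Finset.card_eq_sum_card_image s W).symm
    simp only [ha]
    rw [← Nat.cast_sum]
    exact_mod_cast this
  have ha0 : ∀ c, 0 ≤ a c := fun c => Nat.cast_nonneg _
  have hm10 : ∀ c, 0 ≤ m1 c := fun c => Nat.cast_nonneg _
  have hm20 : ∀ c, 0 ≤ m2 c := fun c => Nat.cast_nonneg _
  -- product bound
  have hprod : ∀ c, a c ≤ K0 * (m1 c * m2 c) := by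
    intro c
    set T := W.filter fun q => s q = c with hT
    have b1 : (T.card : ℝ) ≤ K0 * ((T.image fun q => (u1 q, u2 q)).card : ℝ) := by
      have : (T.card : ℝ) = ∑ u ∈ T.image (fun q => (u1 q, u2 q)),
          ((T.filter fun q => (u1 q, u2 q) = u).card : ℝ) := by
        exact_mod_cast Finset.card_eq_sum_card_image (fun q => (u1 q, u2 q)) T
      rw [this]
      calc _ ≤ ∑ u ∈ T.image (fun q => (u1 q, u2 q)), K0 := by
            refine sum_le_sum fun u hu => ?_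
            obtain ⟨q, hq, rfl⟩ := mem_image.1 hu
            have hqW : q ∈ W := (mem_filter.1 hq).1
            refine le_trans ?_ (hK q hqW)
            have : (T.filter fun q' => (u1 q', u2 q') = (u1 q, u2 q)) ⊆
                W.filter fun q' => u1 q' = u1 q ∧ u2 q' = u2 q := by
              intro q' hq'
              obtain ⟨c1, c2⟩ := mem_filter.1 hq'
              rw [Prod.mk.injEq] at c2
              exact mem_filter.2 ⟨(mem_filter.1 c1).1, c2⟩
            exact_mod_cast card_le_card this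
        _ = _ := by rw [sum_const, nsmul_eq_mul]; ring
    have b2 : ((T.image fun q => (u1 q, u2 q)).card : ℝ) ≤ m1 c * m2 c := by
      have : T.image (fun q => (u1 q, u2 q)) ⊆ (T.image u1) ×ˢ (T.image u2) := by
        intro u hu
        obtain ⟨q, hq, rfl⟩ := mem_image.1 hu
        exact mem_product.2 ⟨mem_image_of_mem _ hq, mem_image_of_mem _ hq⟩
      have h' := card_le_card this
      rw [card_product] at h'
      simp only [hm1, hm2]
      rw [← Nat.cast_mul]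
      exact_mod_cast h'
    exact b1.trans (mul_le_mul_of_nonneg_left b2 hK0.le)
  -- good classes
  set Gd : Finset S := (W.image s).filter fun c => th * m1 c ≤ a c ∧ th * m2 c ≤ a c with hGd
  have hbad : ∑ c ∈ (W.image s).filter (fun c => ¬ (th * m1 c ≤ a c ∧ th * m2 c ≤ a c)), a c ≤
      (W.card : ℝ) / 2 := by
    calc _ ≤ ∑ c ∈ (W.image s).filter (fun c => ¬ (th * m1 c ≤ a c ∧ th * m2 c ≤ a c)),
          (th * m1 c + th * m2 c) := by
          refine sum_le_sum fun c hc => ?_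
          have h := (mem_filter.1 hc).2
          rw [not_and_or, not_le, not_le] at h
          have e1 := mul_nonneg hth0.le (hm10 c)
          have e2 := mul_nonneg hth0.le (hm20 c)
          rcases h with h | h <;> linarith
      _ ≤ ∑ c ∈ W.image s, (th * m1 c + th * m2 c) := by
          refine sum_le_sum_of_subset_of_nonneg (filter_subset _ _) fun c _ _ => ?_
          have e1 := mul_nonneg hth0.le (hm10 c)
          have e2 := mul_nonneg hth0.le (hm20 c)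
          linarith
      _ = th * (∑ c ∈ W.image s, m1 c) + th * ∑ c ∈ W.image s, m2 c := by
          rw [sum_add_distrib, ← mul_sum, ← mul_sum]
      _ ≤ th * M + th * M := add_le_add (mul_le_mul_of_nonneg_left h1 hth0.le)
          (mul_le_mul_of_nonneg_left h2 hth0.le)
      _ = _ := by rw [hth]; field_simp; ring
  have hgood : (W.card : ℝ) / 2 ≤ ∑ c ∈ Gd, a c := by
    have := Finset.sum_filter_add_sum_filter_not (W.image s)
      (fun c => th * m1 c ≤ a c ∧ th * m2 c ≤ a c) a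
    rw [hsum] at this
    rw [hGd]
    linarith
  have hbig : ∀ c ∈ Gd, th ^ 2 / K0 ≤ a c := by
    intro c hc
    obtain ⟨hc1, hc2, hc3⟩ := mem_filter.1 hc
    have hac : 0 < a c := by
      obtain ⟨q, hq, rfl⟩ := mem_image.1 hc1
      simp only [ha]
      have h7 : 0 < (W.filter fun q' => s q' = s q).card :=
        Finset.card_pos.2 ⟨q, mem_filter.2 ⟨hq, rfl⟩⟩
      exact_mod_cast h7
    have h3 := hprod c
    -- th^2 * a ≤ th^2 K0 m1 m2 ≤ K0 a^2
    have h4 : (th * m1 c) * (th * m2 c) ≤ a c * a c :=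
      mul_le_mul hc2 hc3 (mul_nonneg hth0.le (hm20 c)) (ha0 c)
    have h5 : th ^ 2 * a c ≤ K0 * (a c * a c) := by
      calc th ^ 2 * a c ≤ th ^ 2 * (K0 * (m1 c * m2 c)) :=
            mul_le_mul_of_nonneg_left h3 (by positivity)
        _ = K0 * ((th * m1 c) * (th * m2 c)) := by ring
        _ ≤ _ := mul_le_mul_of_nonneg_left h4 hK0.le
    have h6 : th ^ 2 ≤ K0 * a c := by
      have : th ^ 2 * a c ≤ (K0 * a c) * a c := by linarith [h5]
      exact le_of_mul_le_mul_right this hac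
    rw [div_le_iff₀ hK0]
    linarith
  have hfin : (W.card : ℝ) / 2 * (th ^ 2 / K0) ≤ ∑ c ∈ W.image s, a c ^ 2 := by
    calc (W.card : ℝ) / 2 * (th ^ 2 / K0) ≤ (∑ c ∈ Gd, a c) * (th ^ 2 / K0) :=
          mul_le_mul_of_nonneg_right hgood (by positivity)
      _ = ∑ c ∈ Gd, a c * (th ^ 2 / K0) := by rw [sum_mul]
      _ ≤ ∑ c ∈ Gd, a c ^ 2 := by
          refine sum_le_sum fun c hc => ?_
          rw [pow_two (a c)]
          exact mul_le_mul_of_nonneg_left (hbig c hc) (ha0 c)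
      _ ≤ _ := sum_le_sum_of_subset_of_nonneg (filter_subset _ _) fun c _ _ => by positivity
  have e2 : (W.card : ℝ) ^ 3 = 32 * K0 * M ^ 2 * ((W.card : ℝ) / 2 * (th ^ 2 / K0)) := by
    rw [hth]; field_simp; ring
  rw [e2]
  exact mul_le_mul_of_nonneg_left hfin (by positivity)

/-! ### floors -/

theorem floor_diff (a b : ℝ) : |((⌊a⌋ : ℤ) : ℝ) - ((⌊b⌋ : ℤ) : ℝ)| ≤ |a - b| + 1 := by
  have h1 := Int.floor_le a
  have h2 := Int.lt_floor_add_one a
  have h3 := Int.floor_le b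
  have h4 := Int.lt_floor_add_one b
  have h5 := le_abs_self (a - b)
  have h6 := neg_abs_le (a - b)
  rw [abs_le]
  constructor <;> linarith

theorem floor_two {y t : ℝ} (h : |y - t| ≤ 1 / 2) :
    ⌊y⌋ = ⌊t - 1 / 2⌋ ∨ ⌊y⌋ = ⌊t - 1 / 2⌋ + 1 := by
  obtain ⟨h1, h2⟩ := abs_le.1 h
  have h3 := Int.floor_le (t - 1 / 2)
  have h4 := Int.lt_floor_add_one (t - 1 / 2)
  have h5 : ⌊t - 1 / 2⌋ ≤ ⌊y⌋ := Int.floor_le_floor (by linarith)
  have h6 : ⌊y⌋ < ⌊t - 1 / 2⌋ + 2 := by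
    rw [Int.floor_lt]
    push_cast
    linarith
  omega

/-- number of cells in a box -/
theorem cells_card (T : Finset (ℤ × ℤ × ℤ)) (q0 : ℤ × ℤ × ℤ) {K : ℝ} (hK : 0 ≤ K)
    (h : ∀ q ∈ T, |((q.1 : ℤ) : ℝ) - q0.1| ≤ K ∧ |((q.2.1 : ℤ) : ℝ) - q0.2.1| ≤ K ∧
      |((q.2.2 : ℤ) : ℝ) - q0.2.2| ≤ K) :
    (T.card : ℝ) ≤ (2 * K + 1) ^ 3 := by
  set N : ℤ := ⌊K⌋ with hN
  have hN0 : 0 ≤ N := Int.floor_nonneg.2 hK
  have hNK : (N : ℝ) ≤ K := Int.floor_le K
  have hin : ∀ a b : ℤ, |(a : ℝ) - b| ≤ K → a ∈ Finset.Icc (b - N) (b + N) := by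
    intro a b hab
    have h1 : |a - b| ≤ N := by
      rw [hN, Int.le_floor]
      push_cast
      exact hab
    obtain ⟨h2, h3⟩ := abs_le.1 h1
    rw [Finset.mem_Icc]
    constructor <;> omega
  have hsub : T ⊆ (Finset.Icc (q0.1 - N) (q0.1 + N)) ×ˢ
      ((Finset.Icc (q0.2.1 - N) (q0.2.1 + N)) ×ˢ (Finset.Icc (q0.2.2 - N) (q0.2.2 + N))) := by
    intro q hq
    obtain ⟨h1, h2, h3⟩ := h q hq
    rw [mem_product, mem_product]
    exact ⟨hin _ _ h1, hin _ _ h2, hin _ _ h3⟩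
  have hc := card_le_card hsub
  rw [card_product, card_product] at hc
  have hI : ∀ b : ℤ, ((Finset.Icc (b - N) (b + N)).card : ℝ) = 2 * (N : ℝ) + 1 := by
    intro b
    rw [Int.card_Icc]
    have e1 : b + N + 1 - (b - N) = 2 * N + 1 := by ring
    rw [e1]
    have e2 : ((2 * N + 1).toNat : ℤ) = 2 * N + 1 := Int.toNat_of_nonneg (by omega)
    have e3 : (((2 * N + 1).toNat : ℤ) : ℝ) = ((2 * N + 1 : ℤ) : ℝ) := by rw [e2]
    rw [Int.cast_natCast] at e3
    rw [e3]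
    push_cast
    ring
  have hc' : (T.card : ℝ) ≤ (2 * (N : ℝ) + 1) * ((2 * (N : ℝ) + 1) * (2 * (N : ℝ) + 1)) := by
    have := (Nat.cast_le (α := ℝ)).2 hc
    rw [Nat.cast_mul, Nat.cast_mul, hI, hI, hI] at this
    exact this
  have hN0' : (0 : ℝ) ≤ N := by exact_mod_cast hN0
  have h3 : (2 * (N : ℝ) + 1) ^ 3 ≤ (2 * K + 1) ^ 3 := by gcongr
  calc (T.card : ℝ) ≤ _ := hc'
    _ = (2 * (N : ℝ) + 1) ^ 3 := by ring
    _ ≤ _ := h3

/-! ### sheets of cells -/

/-- each class label meets at most two sheets -/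
theorem labels_sheets {Q : Type*} [DecidableEq Q] (W : Finset Q) (s : Q → ℤ) (u : Q → ℤ × ℤ)
    (t : ℤ × ℤ → ℝ) (y : Q → ℝ) (hs : ∀ q ∈ W, s q = ⌊y q⌋)
    (hy : ∀ q ∈ W, |y q - t (u q)| ≤ 1 / 2) :
    ∑ c ∈ W.image s, (((W.filter fun q => s q = c).image u).card : ℝ) ≤
      2 * ((W.image u).card : ℝ) := by
  classical
  set T : Finset (ℤ × (ℤ × ℤ)) := W.image fun q => (s q, u q) with hT
  have h1 : ∑ c ∈ W.image s, ((W.filter fun q => s q = c).image u).card ≤ T.card := by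
    have e1 : T.card = ∑ c ∈ T.image Prod.fst, (T.filter fun p => p.1 = c).card :=
      Finset.card_eq_sum_card_image Prod.fst T
    have e2 : T.image Prod.fst = W.image s := by
      rw [hT, image_image]; rfl
    rw [e1, e2]
    refine sum_le_sum fun c hc => ?_
    refine card_le_card_of_injOn (fun v => (c, v)) ?_ ?_
    · intro v hv
      obtain ⟨q, hq, rfl⟩ := mem_image.1 (mem_coe.1 hv)
      obtain ⟨q1, q2⟩ := mem_filter.1 hq
      rw [mem_coe, mem_filter]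
      refine ⟨?_, rfl⟩
      rw [hT, mem_image]
      exact ⟨q, q1, by rw [q2]⟩
    · intro a _ b _ hab
      exact (Prod.mk.inj hab).2
  have h2 : T.card ≤ 2 * (T.image Prod.snd).card := by
    refine Finset.card_le_mul_card_image T 2 ?_
    intro v hv
    have hsub : (T.filter fun p => p.2 = v) ⊆
        {(⌊t v - 1 / 2⌋, v), (⌊t v - 1 / 2⌋ + 1, v)} := by
      intro p hp
      obtain ⟨p1, p2⟩ := mem_filter.1 hp
      obtain ⟨q, hq, rfl⟩ := mem_image.1 p1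
      simp only at p2
      have h3 := floor_two (hy q hq)
      rw [← hs q hq, p2] at h3
      rw [mem_insert, mem_singleton, p2]
      rcases h3 with h3 | h3
      · left; rw [h3]
      · right; rw [h3]
    exact (card_le_card hsub).trans card_le_two
  have e3 : T.image Prod.snd = W.image u := by
    rw [hT, image_image]; rfl
  rw [e3] at h2
  have h3 := h1.trans h2
  exact_mod_cast h3

/-- many pairs of cells in one common sheet of two classes -/
theorem sheet_pairs {w w3 R0 E0 η1 M K1 : ℝ} (hw : 0 < w) (hR0 : 0 ≤ R0) (hE0 : 0 ≤ E0)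
    (hη1 : 0 < η1) (hM : 0 < M) (hw3 : w3 = 4 * (1 + 2 * E0) * w)
    (hK1 : (3 + 2 * R0) * (1 + 2 * (1 + R0) / η1) ≤ K1)
    (x h f : ℕ → ℝ) {C1 B1 C2 B2 e b : ℝ} (hC1 : |C1| ≤ R0) (hC2 : |C2| ≤ R0)
    (hB1 : |B1| ≤ R0) (hB2 : |B2| ≤ R0)
    (hC12 : η1 ≤ |C1 - C2|) (he : |e| ≤ E0) (hb : |b| ≤ E0)
    (hb1 : b = B1 - e * C1) (hb2 : b = B2 - e * C2)
    (W : Finset (ℤ × ℤ × ℤ)) (rep r1 r2 : ℤ × ℤ × ℤ → ℕ)
    (hrep : ∀ q ∈ W, (⌊x (rep q) / w⌋, ⌊h (rep q) / w⌋, ⌊f (rep q) / w⌋) = q)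
    (hr1 : ∀ q ∈ W, |x (r1 q) - x (rep q)| ≤ w ∧ |h (r1 q) - h (rep q)| ≤ w ∧
      |f (r1 q) - f (rep q)| ≤ w)
    (hr2 : ∀ q ∈ W, |x (r2 q) - x (rep q)| ≤ w ∧ |h (r2 q) - h (rep q)| ≤ w ∧
      |f (r2 q) - f (rep q)| ≤ w)
    (hM1 : ((W.image fun q => (⌊(h (r1 q) - C1 * x (r1 q)) / w⌋,
      ⌊(f (r1 q) + B1 * x (r1 q)) / w⌋)).card : ℝ) ≤ M)
    (hM2 : ((W.image fun q => (⌊(h (r2 q) - C2 * x (r2 q)) / w⌋,
      ⌊(f (r2 q) + B2 * x (r2 q)) / w⌋)).card : ℝ) ≤ M) :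
    (W.card : ℝ) ^ 3 ≤ 128 * (2 * K1 + 3) ^ 3 * M ^ 2 *
      ∑ c ∈ W.image (fun q => ⌊(f (rep q) + e * h (rep q) + b * x (rep q)) / w3⌋),
        ((W.filter fun q => ⌊(f (rep q) + e * h (rep q) + b * x (rep q)) / w3⌋ = c).card : ℝ)
          ^ 2 := by
  have hK10 : 0 ≤ K1 := by
    refine le_trans ?_ hK1
    have : 0 ≤ 2 * (1 + R0) / η1 := by positivity
    positivity
  have hw30 : 0 < w3 := by rw [hw3]; positivity
  -- value of the common functional from one label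
  have hval : ∀ (C B : ℝ) (r : ℤ × ℤ × ℤ → ℕ), b = B - e * C →
      (∀ q ∈ W, |x (r q) - x (rep q)| ≤ w ∧ |h (r q) - h (rep q)| ≤ w ∧
        |f (r q) - f (rep q)| ≤ w) → ∀ q ∈ W,
      |(f (rep q) + e * h (rep q) + b * x (rep q)) / w3 -
        (((⌊(f (r q) + B * x (r q)) / w⌋ : ℤ) : ℝ) +
          e * ((⌊(h (r q) - C * x (r q)) / w⌋ : ℤ) : ℝ)) * w / w3| ≤ 1 / 2 := by
    intro C B r hbC hr q hq
    obtain ⟨a1, a2, a3⟩ := hr q hq
    set y1 := (f (r q) + B * x (r q)) / w with hy1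
    set y2 := (h (r q) - C * x (r q)) / w with hy2
    have e1 : y1 * w = f (r q) + B * x (r q) := by rw [hy1]; field_simp
    have e2 : y2 * w = h (r q) - C * x (r q) := by rw [hy2]; field_simp
    have f1 := Int.floor_le y1
    have f2 := Int.lt_floor_add_one y1
    have f3 := Int.floor_le y2
    have f4 := Int.lt_floor_add_one y2
    set n1 : ℝ := ((⌊y1⌋ : ℤ) : ℝ) with hn1
    set n2 : ℝ := ((⌊y2⌋ : ℤ) : ℝ) with hn2
    have g1 : |y1 - n1| ≤ 1 := by rw [abs_le]; constructor <;> linarith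
    have g2 : |y2 - n2| ≤ 1 := by rw [abs_le]; constructor <;> linarith
    rw [← sub_div, abs_div, abs_of_pos hw30, div_le_iff₀ hw30]
    have e3 : f (rep q) + e * h (rep q) + b * x (rep q) - (n1 + e * n2) * w =
        (f (rep q) - f (r q)) + e * (h (rep q) - h (r q)) + b * (x (rep q) - x (r q)) +
        (y1 - n1) * w + e * ((y2 - n2) * w) := by
      have : (y1 - n1) * w + e * ((y2 - n2) * w) =
          (f (r q) + B * x (r q)) + e * (h (r q) - C * x (r q)) - (n1 + e * n2) * w := by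
        rw [← e1, ← e2]; ring
      rw [hbC]
      rw [hbC] at *
      linarith
    rw [e3]
    have k1 : |f (rep q) - f (r q)| ≤ w := by rw [abs_sub_comm]; exact a3
    have k2 : |e * (h (rep q) - h (r q))| ≤ E0 * w := by
      rw [abs_mul, abs_sub_comm (h (rep q))]
      exact mul_le_mul he a2 (abs_nonneg _) hE0
    have k3 : |b * (x (rep q) - x (r q))| ≤ E0 * w := by
      rw [abs_mul, abs_sub_comm (x (rep q))]
      exact mul_le_mul hb a1 (abs_nonneg _) hE0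
    have k4 : |(y1 - n1) * w| ≤ w := by
      rw [abs_mul, abs_of_pos hw]
      nlinarith
    have k5 : |e * ((y2 - n2) * w)| ≤ E0 * w := by
      rw [abs_mul, abs_mul, abs_of_pos hw]
      have : |y2 - n2| * w ≤ w := by nlinarith
      exact mul_le_mul he this (by positivity) hE0
    have t1 := abs_add_le ((f (rep q) - f (r q)) + e * (h (rep q) - h (r q)) +
      b * (x (rep q) - x (r q)) + (y1 - n1) * w) (e * ((y2 - n2) * w))
    have t2 := abs_add_le ((f (rep q) - f (r q)) + e * (h (rep q) - h (r q)) +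
      b * (x (rep q) - x (r q))) ((y1 - n1) * w)
    have t3 := abs_add_le ((f (rep q) - f (r q)) + e * (h (rep q) - h (r q)))
      (b * (x (rep q) - x (r q)))
    have t4 := abs_add_le (f (rep q) - f (r q)) (e * (h (rep q) - h (r q)))
    have : 1 / 2 * w3 = 2 * w + 4 * (E0 * w) := by rw [hw3]; ring
    rw [this]
    have : 0 ≤ E0 * w := by positivity
    linarith
  set s : ℤ × ℤ × ℤ → ℤ := fun q => ⌊(f (rep q) + e * h (rep q) + b * x (rep q)) / w3⌋ with hs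
  set u1 : ℤ × ℤ × ℤ → ℤ × ℤ := fun q => (⌊(h (r1 q) - C1 * x (r1 q)) / w⌋,
    ⌊(f (r1 q) + B1 * x (r1 q)) / w⌋) with hu1
  set u2 : ℤ × ℤ × ℤ → ℤ × ℤ := fun q => (⌊(h (r2 q) - C2 * x (r2 q)) / w⌋,
    ⌊(f (r2 q) + B2 * x (r2 q)) / w⌋) with hu2
  have hl1 := labels_sheets W s u1 (fun v => ((v.2 : ℝ) + e * (v.1 : ℝ)) * w / w3)
    (fun q => (f (rep q) + e * h (rep q) + b * x (rep q)) / w3) (fun q _ => rfl)
    (hval C1 B1 r1 hb1 hr1)
  have hl2 := labels_sheets W s u2 (fun v => ((v.2 : ℝ) + e * (v.1 : ℝ)) * w / w3)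
    (fun q => (f (rep q) + e * h (rep q) + b * x (rep q)) / w3) (fun q _ => rfl)
    (hval C2 B2 r2 hb2 hr2)
  have hA := alpha W s u1 u2 (M := 2 * M) (K0 := (2 * K1 + 3) ^ 3) (by positivity)
    (by positivity) (hl1.trans (by linarith)) (hl2.trans (by linarith)) ?_
  · calc (W.card : ℝ) ^ 3 ≤ _ := hA
      _ = _ := by ring
  -- joint fibres
  intro q hq
  have hDpos : 0 < 3 + 2 * R0 := by positivity
  have hcls : ∀ (C B : ℝ) (r : ℤ × ℤ × ℤ → ℕ), |C| ≤ R0 → |B| ≤ R0 →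
      (∀ q ∈ W, |x (r q) - x (rep q)| ≤ w ∧ |h (r q) - h (rep q)| ≤ w ∧
        |f (r q) - f (rep q)| ≤ w) → ∀ q' ∈ W,
      ⌊(h (r q') - C * x (r q')) / w⌋ = ⌊(h (r q) - C * x (r q)) / w⌋ →
      ⌊(f (r q') + B * x (r q')) / w⌋ = ⌊(f (r q) + B * x (r q)) / w⌋ →
      |(h (rep q') - h (rep q)) - C * (x (rep q') - x (rep q))| ≤ (3 + 2 * R0) * w ∧
      |(f (rep q') - f (rep q)) + B * (x (rep q') - x (rep q))| ≤ (3 + 2 * R0) * w := by
    intro C B r hC hB hr q' hq' c1 c2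
    obtain ⟨a1, a2, a3⟩ := hr q hq
    obtain ⟨b1, b2, b3⟩ := hr q' hq'
    have key : ∀ y1 y2 : ℝ, ⌊y1 / w⌋ = ⌊y2 / w⌋ → |y1 - y2| ≤ w := by
      intro y1 y2 hy
      have f1 := Int.floor_le (y1 / w)
      have f2 := Int.lt_floor_add_one (y1 / w)
      have f3 := Int.floor_le (y2 / w)
      have f4 := Int.lt_floor_add_one (y2 / w)
      rw [hy] at f1 f2
      have g : |y1 / w - y2 / w| ≤ 1 := by rw [abs_le]; constructor <;> linarith
      rw [← sub_div, abs_div, abs_of_pos hw, div_le_iff₀ hw, one_mul] at g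
      exact g
    have d1 := key _ _ c1
    have d2 := key _ _ c2
    have m1 : |C * (x (r q) - x (rep q))| ≤ R0 * w := by
      rw [abs_mul]; exact mul_le_mul hC a1 (abs_nonneg _) hR0
    have m2 : |C * (x (r q') - x (rep q'))| ≤ R0 * w := by
      rw [abs_mul]; exact mul_le_mul hC b1 (abs_nonneg _) hR0
    have m3 : |B * (x (r q) - x (rep q))| ≤ R0 * w := by
      rw [abs_mul]; exact mul_le_mul hB a1 (abs_nonneg _) hR0
    have m4 : |B * (x (r q') - x (rep q'))| ≤ R0 * w := by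
      rw [abs_mul]; exact mul_le_mul hB b1 (abs_nonneg _) hR0
    obtain ⟨a11, a12⟩ := abs_le.1 a1
    obtain ⟨a21, a22⟩ := abs_le.1 a2
    obtain ⟨a31, a32⟩ := abs_le.1 a3
    obtain ⟨b11, b12⟩ := abs_le.1 b1
    obtain ⟨b21, b22⟩ := abs_le.1 b2
    obtain ⟨b31, b32⟩ := abs_le.1 b3
    obtain ⟨d11, d12⟩ := abs_le.1 d1
    obtain ⟨d21, d22⟩ := abs_le.1 d2
    obtain ⟨m11, m12⟩ := abs_le.1 m1
    obtain ⟨m21, m22⟩ := abs_le.1 m2
    obtain ⟨m31, m32⟩ := abs_le.1 m3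
    obtain ⟨m41, m42⟩ := abs_le.1 m4
    rw [abs_le, abs_le]
    refine ⟨⟨?_, ?_⟩, ⟨?_, ?_⟩⟩ <;> linarith
  have hclose : ∀ q' ∈ W, u1 q' = u1 q → u2 q' = u2 q →
      |x (rep q') - x (rep q)| ≤ K1 * w ∧ |h (rep q') - h (rep q)| ≤ K1 * w ∧
      |f (rep q') - f (rep q)| ≤ K1 * w := by
    intro q' hq' v1 v2
    rw [hu1] at v1
    rw [hu2] at v2
    simp only [Prod.mk.injEq] at v1 v2
    obtain ⟨a1, a2⟩ := hcls C1 B1 r1 hC1 hB1 hr1 q' hq' v1.1 v1.2
    obtain ⟨b1, b2⟩ := hcls C2 B2 r2 hC2 hB2 hr2 q' hq' v2.1 v2.2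
    set dx := x (rep q') - x (rep q) with hdx
    set dh := h (rep q') - h (rep q) with hdh
    set df := f (rep q') - f (rep q) with hdf
    set D := (3 + 2 * R0) * w with hD
    have hD0 : 0 < D := by positivity
    have hx : |dx| ≤ 2 * D / η1 := by
      rw [le_div_iff₀ hη1]
      have e1 : |(C1 - C2) * dx| ≤ 2 * D := by
        have : (C1 - C2) * dx = (dh - C2 * dx) - (dh - C1 * dx) := by ring
        rw [this]
        exact (abs_sub _ _).trans (by linarith)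
      rw [abs_mul] at e1
      have := mul_le_mul_of_nonneg_right hC12 (abs_nonneg dx)
      linarith
    have hq1 : K1 * w ≥ D * (1 + 2 * (1 + R0) / η1) := by
      have := mul_le_mul_of_nonneg_right hK1 hw.le
      calc D * (1 + 2 * (1 + R0) / η1) = (3 + 2 * R0) * (1 + 2 * (1 + R0) / η1) * w := by
            rw [hD]; ring
        _ ≤ _ := this
    have e5 : D * (1 + 2 * (1 + R0) / η1) = D + 2 * D / η1 + R0 * (2 * D / η1) := by
      rw [div_eq_mul_inv, div_eq_mul_inv]; ring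
    rw [e5] at hq1
    have hp : 0 ≤ 2 * D / η1 := by positivity
    have hRp : 0 ≤ R0 * (2 * D / η1) := by positivity
    refine ⟨by linarith, ?_, ?_⟩
    · have e6 : dh = (dh - C1 * dx) + C1 * dx := by ring
      rw [e6]
      refine (abs_add_le _ _).trans ?_
      have : |C1 * dx| ≤ R0 * (2 * D / η1) := by
        rw [abs_mul]; exact mul_le_mul hC1 hx (abs_nonneg _) hR0
      linarith
    · have e6 : df = (df + B1 * dx) - B1 * dx := by ring
      rw [e6]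
      refine (abs_sub _ _).trans ?_
      have : |B1 * dx| ≤ R0 * (2 * D / η1) := by
        rw [abs_mul]; exact mul_le_mul hB1 hx (abs_nonneg _) hR0
      linarith
  refine (cells_card _ q (K := K1 + 1) (by linarith) ?_).trans ?_
  · intro q' hq'
    obtain ⟨p1, p2, p3⟩ := mem_filter.1 hq'
    obtain ⟨c1, c2, c3⟩ := hclose q' p1 p2 p3
    have r1' := hrep q' p1
    have r2' := hrep q hq
    have s1 : ⌊x (rep q') / w⌋ = q'.1 := congrArg (fun v => v.1) r1'
    have s2 : ⌊h (rep q') / w⌋ = q'.2.1 := congrArg (fun v => v.2.1) r1'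
    have s3 : ⌊f (rep q') / w⌋ = q'.2.2 := congrArg (fun v => v.2.2) r1'
    have s4 : ⌊x (rep q) / w⌋ = q.1 := congrArg (fun v => v.1) r2'
    have s5 : ⌊h (rep q) / w⌋ = q.2.1 := congrArg (fun v => v.2.1) r2'
    have s6 : ⌊f (rep q) / w⌋ = q.2.2 := congrArg (fun v => v.2.2) r2'
    have gen : ∀ y1 y2 : ℝ, |y1 - y2| ≤ K1 * w →
        |((⌊y1 / w⌋ : ℤ) : ℝ) - ((⌊y2 / w⌋ : ℤ) : ℝ)| ≤ K1 + 1 := by
      intro y1 y2 hy
      refine (floor_diff _ _).trans ?_
      rw [← sub_div, abs_div, abs_of_pos hw]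
      have : |y1 - y2| / w ≤ K1 := by rw [div_le_iff₀ hw]; exact hy
      linarith
    rw [← s1, ← s2, ← s3, ← s4, ← s5, ← s6]
    exact ⟨gen _ _ c1, gen _ _ c2, gen _ _ c3⟩
  · have : 2 * (K1 + 1) + 1 = 2 * K1 + 3 := by ring
    rw [this]

/-! ### pairs of lines in one sheet -/

open Classical in
/-- the pairs of cells in one sheet give many pairs of lines with different velocities -/
theorem line_pairs {w w3 E0 m0 η' : ℝ} (hw : 0 < w) (hE0 : 0 ≤ E0) (hm0 : 0 ≤ m0)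
    (hw3 : w3 = 4 * (1 + 2 * E0) * w) (Lk : Finset ℕ) (x h f V : ℕ → ℝ) {e b : ℝ}
    (he : |e| ≤ E0) (hb : |b| ≤ E0)
    (W : Finset (ℤ × ℤ × ℤ)) (rep : ℤ × ℤ × ℤ → ℕ)
    (hrep : ∀ q ∈ W, (⌊x (rep q) / w⌋, ⌊h (rep q) / w⌋, ⌊f (rep q) / w⌋) = q)
    (hmany : ∀ q ∈ W, m0 ≤ ((Lk.filter fun l => |x l - x (rep q)| ≤ w ∧
      |h l - h (rep q)| ≤ w ∧ |f l - f (rep q)| ≤ w).card : ℝ))
    (hnar : ∀ q ∈ W, ∀ l1 ∈ Lk, ((Lk.filter fun l => (|x l - x (rep q)| ≤ w ∧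
      |h l - h (rep q)| ≤ w ∧ |f l - f (rep q)| ≤ w) ∧ |V l - V l1| ≤ η').card : ℝ) ≤ m0 / 2) :
    (∑ c ∈ W.image (fun q => ⌊(f (rep q) + e * h (rep q) + b * x (rep q)) / w3⌋),
        ((W.filter fun q => ⌊(f (rep q) + e * h (rep q) + b * x (rep q)) / w3⌋ = c).card : ℝ)
          ^ 2) * m0 ^ 2 ≤ 31250 *
      (((Lk ×ˢ Lk).filter fun p => η' < |V p.1 - V p.2| ∧
        |(f p.1 + e * h p.1 + b * x p.1) - (f p.2 + e * h p.2 + b * x p.2)| ≤ 2 * w3).card : ℝ) := by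
  set s : ℤ × ℤ × ℤ → ℤ := fun q => ⌊(f (rep q) + e * h (rep q) + b * x (rep q)) / w3⌋ with hs
  set nr : ℤ × ℤ × ℤ → ℕ → Prop := fun q l => |x l - x (rep q)| ≤ w ∧
      |h l - h (rep q)| ≤ w ∧ |f l - f (rep q)| ≤ w with hnr
  set LP := (Lk ×ˢ Lk).filter fun p => η' < |V p.1 - V p.2| ∧
        |(f p.1 + e * h p.1 + b * x p.1) - (f p.2 + e * h p.2 + b * x p.2)| ≤ 2 * w3 with hLP
  set SP := (W ×ˢ W).filter fun p => s p.1 = s p.2 with hSP
  have hw30 : 0 < w3 := by rw [hw3]; positivity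
  -- number of pairs of cells
  have hcnt : ∑ c ∈ W.image s, ((W.filter fun q => s q = c).card : ℝ) ^ 2 = (SP.card : ℝ) := by
    have e1 : SP.card = ∑ c ∈ SP.image (fun p => s p.1), (SP.filter fun p => s p.1 = c).card :=
      Finset.card_eq_sum_card_image _ SP
    have e2 : SP.image (fun p => s p.1) = W.image s := by
      ext c
      simp only [mem_image, hSP, mem_filter, mem_product]
      constructor
      · rintro ⟨p, ⟨⟨p1, p2⟩, p3⟩, rfl⟩; exact ⟨p.1, p1, rfl⟩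
      · rintro ⟨q, hq, rfl⟩; exact ⟨(q, q), ⟨⟨hq, hq⟩, rfl⟩, rfl⟩
    rw [e1, e2, Nat.cast_sum]
    refine sum_congr rfl fun c hc => ?_
    have e3 : (SP.filter fun p => s p.1 = c) =
        (W.filter fun q => s q = c) ×ˢ (W.filter fun q => s q = c) := by
      ext p
      simp only [hSP, mem_filter, mem_product]
      constructor
      · rintro ⟨⟨⟨p1, p2⟩, p3⟩, p4⟩; exact ⟨⟨p1, p4⟩, p2, by rw [← p3]; exact p4⟩
      · rintro ⟨⟨p1, p2⟩, p3, p4⟩; exact ⟨⟨⟨p1, p3⟩, by rw [p2, p4]⟩, p2⟩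
    rw [e3, card_product, Nat.cast_mul, pow_two]
  rw [hcnt]
  set r : (ℤ × ℤ × ℤ) × (ℤ × ℤ × ℤ) → ℕ × ℕ → Prop := fun a b => nr a.1 b.1 ∧ nr a.2 b.2 with hr
  have hdc := Finset.sum_card_bipartiteAbove_eq_sum_card_bipartiteBelow (s := SP) (t := LP) r
  have hdc' : ∑ a ∈ SP, ((LP.bipartiteAbove r a).card : ℝ) =
      ∑ b ∈ LP, ((SP.bipartiteBelow r b).card : ℝ) := by exact_mod_cast hdc
  -- sheet coordinate of a near line
  have hphi : ∀ q ∈ W, ∀ l, nr q l → |(f l + e * h l + b * x l) -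
      (f (rep q) + e * h (rep q) + b * x (rep q))| ≤ (1 + 2 * E0) * w := by
    intro q hq l hl
    obtain ⟨a1, a2, a3⟩ := hl
    have e1 : (f l + e * h l + b * x l) - (f (rep q) + e * h (rep q) + b * x (rep q)) =
        (f l - f (rep q)) + e * (h l - h (rep q)) + b * (x l - x (rep q)) := by ring
    rw [e1]
    have k2 : |e * (h l - h (rep q))| ≤ E0 * w := by
      rw [abs_mul]; exact mul_le_mul he a2 (abs_nonneg _) hE0
    have k3 : |b * (x l - x (rep q))| ≤ E0 * w := by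
      rw [abs_mul]; exact mul_le_mul hb a1 (abs_nonneg _) hE0
    have t1 := abs_add_le ((f l - f (rep q)) + e * (h l - h (rep q))) (b * (x l - x (rep q)))
    have t2 := abs_add_le (f l - f (rep q)) (e * (h l - h (rep q)))
    linarith
  -- lower bound
  have hlow : ∀ a ∈ SP, m0 ^ 2 / 2 ≤ ((LP.bipartiteAbove r a).card : ℝ) := by
    intro a ha
    obtain ⟨ha1, ha2⟩ := mem_filter.1 ha
    obtain ⟨ha3, ha4⟩ := mem_product.1 ha1
    have e1 : ((Lk.filter fun l => nr a.1 l) ×ˢ (Lk.filter fun l => nr a.2 l)).filter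
        (fun p => ¬ |V p.2 - V p.1| ≤ η') ⊆ LP.bipartiteAbove r a := by
      intro p hp
      obtain ⟨hp1, hp2⟩ := mem_filter.1 hp
      obtain ⟨hp3, hp4⟩ := mem_product.1 hp1
      obtain ⟨hp5, hp6⟩ := mem_filter.1 hp3
      obtain ⟨hp7, hp8⟩ := mem_filter.1 hp4
      rw [Finset.mem_bipartiteAbove, hLP, mem_filter, mem_product]
      refine ⟨⟨⟨hp5, hp7⟩, ?_, ?_⟩, hp6, hp8⟩
      · rw [abs_sub_comm]; exact not_le.1 hp2
      · have b1 := hphi _ ha3 _ hp6
        have b2 := hphi _ ha4 _ hp8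
        have b3 : |(f (rep a.1) + e * h (rep a.1) + b * x (rep a.1)) -
            (f (rep a.2) + e * h (rep a.2) + b * x (rep a.2))| ≤ w3 := by
          set y1 := f (rep a.1) + e * h (rep a.1) + b * x (rep a.1)
          set y2 := f (rep a.2) + e * h (rep a.2) + b * x (rep a.2)
          have hy : ⌊y1 / w3⌋ = ⌊y2 / w3⌋ := ha2
          have f1 := Int.floor_le (y1 / w3)
          have f2 := Int.lt_floor_add_one (y1 / w3)
          have f3 := Int.floor_le (y2 / w3)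
          have f4 := Int.lt_floor_add_one (y2 / w3)
          rw [hy] at f1 f2
          have g : |y1 / w3 - y2 / w3| ≤ 1 := by rw [abs_le]; constructor <;> linarith
          rw [← sub_div, abs_div, abs_of_pos hw30, div_le_iff₀ hw30, one_mul] at g
          exact g
        have e2 : (f p.1 + e * h p.1 + b * x p.1) - (f p.2 + e * h p.2 + b * x p.2) =
            ((f p.1 + e * h p.1 + b * x p.1) -
              (f (rep a.1) + e * h (rep a.1) + b * x (rep a.1))) +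
            ((f (rep a.1) + e * h (rep a.1) + b * x (rep a.1)) -
            (f (rep a.2) + e * h (rep a.2) + b * x (rep a.2))) -
            ((f p.2 + e * h p.2 + b * x p.2) -
              (f (rep a.2) + e * h (rep a.2) + b * x (rep a.2))) := by ring
        rw [e2]
        refine (abs_sub _ _).trans ?_
        have b4 := abs_add_le ((f p.1 + e * h p.1 + b * x p.1) -
              (f (rep a.1) + e * h (rep a.1) + b * x (rep a.1)))
            ((f (rep a.1) + e * h (rep a.1) + b * x (rep a.1)) -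
            (f (rep a.2) + e * h (rep a.2) + b * x (rep a.2)))
        have b5 : w3 = 4 * ((1 + 2 * E0) * w) := by rw [hw3]; ring
        have b6 : 0 ≤ (1 + 2 * E0) * w := by positivity
        linarith
    have e2 : (((((Lk.filter fun l => nr a.1 l) ×ˢ (Lk.filter fun l => nr a.2 l)).filter
        (fun p => ¬ |V p.2 - V p.1| ≤ η')).card : ℕ) : ℝ) ≤ ((LP.bipartiteAbove r a).card : ℝ) := by
      exact_mod_cast card_le_card e1
    refine le_trans ?_ e2
    have e3 : (((((Lk.filter fun l => nr a.1 l) ×ˢ (Lk.filter fun l => nr a.2 l)).filter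
        (fun p => ¬ |V p.2 - V p.1| ≤ η')).card : ℕ) : ℝ) =
        ∑ l1 ∈ Lk.filter (fun l => nr a.1 l), ∑ l2 ∈ Lk.filter (fun l => nr a.2 l),
          (if ¬ |V l2 - V l1| ≤ η' then (1 : ℝ) else 0) := by
      rw [← Finset.sum_product', Finset.sum_boole]
    rw [e3]
    have e4 : ∀ l1 ∈ Lk.filter (fun l => nr a.1 l), m0 / 2 ≤
        ∑ l2 ∈ Lk.filter (fun l => nr a.2 l), (if ¬ |V l2 - V l1| ≤ η' then (1 : ℝ) else 0) := by
      intro l1 hl1
      rw [Finset.sum_boole]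
      have c1 := hmany _ ha4
      have c2 := hnar _ ha4 l1 (mem_filter.1 hl1).1
      have c3 : (((Lk.filter fun l => nr a.2 l).filter fun l2 => |V l2 - V l1| ≤ η').card : ℝ) +
          (((Lk.filter fun l => nr a.2 l).filter fun l2 => ¬ |V l2 - V l1| ≤ η').card : ℝ) =
          ((Lk.filter fun l => nr a.2 l).card : ℝ) := by
        exact_mod_cast card_filter_add_card_filter_not (s := Lk.filter fun l => nr a.2 l)
          (fun l2 => |V l2 - V l1| ≤ η')
      have c4 : ((Lk.filter fun l => nr a.2 l).filter fun l2 => |V l2 - V l1| ≤ η') =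
          Lk.filter fun l => (|x l - x (rep a.2)| ≤ w ∧
      |h l - h (rep a.2)| ≤ w ∧ |f l - f (rep a.2)| ≤ w) ∧ |V l - V l1| ≤ η' := by
        rw [filter_filter]
      rw [c4] at c3
      have c5 : m0 ≤ ((Lk.filter fun l => nr a.2 l).card : ℝ) := c1
      linarith
    have e5 : m0 ≤ ((Lk.filter fun l => nr a.1 l).card : ℝ) := hmany _ ha3
    calc m0 ^ 2 / 2 = m0 * (m0 / 2) := by ring
      _ ≤ ((Lk.filter fun l => nr a.1 l).card : ℝ) * (m0 / 2) :=
          mul_le_mul_of_nonneg_right e5 (by positivity)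
      _ = ∑ l1 ∈ Lk.filter (fun l => nr a.1 l), m0 / 2 := by rw [sum_const, nsmul_eq_mul]
      _ ≤ _ := sum_le_sum e4
  -- upper bound
  have hnear : ∀ l, ((W.filter fun q => nr q l).card : ℝ) ≤ 125 := by
    intro l
    have := cells_card (W.filter fun q => nr q l) (⌊x l / w⌋, ⌊h l / w⌋, ⌊f l / w⌋) (K := 2)
      (by norm_num) ?_
    · norm_num at this ⊢; exact this
    intro q hq
    obtain ⟨p1, p2, p3, p4⟩ := mem_filter.1 hq
    have r1' := hrep q p1
    have s1 : ⌊x (rep q) / w⌋ = q.1 := congrArg (fun v => v.1) r1'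
    have s2 : ⌊h (rep q) / w⌋ = q.2.1 := congrArg (fun v => v.2.1) r1'
    have s3 : ⌊f (rep q) / w⌋ = q.2.2 := congrArg (fun v => v.2.2) r1'
    have gen : ∀ y1 y2 : ℝ, |y2 - y1| ≤ w →
        |((⌊y1 / w⌋ : ℤ) : ℝ) - ((⌊y2 / w⌋ : ℤ) : ℝ)| ≤ 2 := by
      intro y1 y2 hy
      refine (floor_diff _ _).trans ?_
      rw [← sub_div, abs_div, abs_of_pos hw, abs_sub_comm]
      have : |y2 - y1| / w ≤ 1 := by rw [div_le_iff₀ hw]; linarith
      linarith
    rw [← s1, ← s2, ← s3]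
    exact ⟨gen _ _ p2, gen _ _ p3, gen _ _ p4⟩
  have hup : ∀ p ∈ LP, ((SP.bipartiteBelow r p).card : ℝ) ≤ 15625 := by
    intro p hp
    have e1 : SP.bipartiteBelow r p ⊆ (W.filter fun q => nr q p.1) ×ˢ
        (W.filter fun q => nr q p.2) := by
      intro a ha
      rw [Finset.mem_bipartiteBelow] at ha
      obtain ⟨ha1, ha2, ha3⟩ := ha
      obtain ⟨ha4, ha5⟩ := mem_product.1 (mem_filter.1 ha1).1
      exact mem_product.2 ⟨mem_filter.2 ⟨ha4, ha2⟩, mem_filter.2 ⟨ha5, ha3⟩⟩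
    have e2 : ((SP.bipartiteBelow r p).card : ℝ) ≤
        ((W.filter fun q => nr q p.1).card : ℝ) * ((W.filter fun q => nr q p.2).card : ℝ) := by
      rw [← Nat.cast_mul, ← card_product]
      exact_mod_cast card_le_card e1
    have e3 := mul_le_mul (hnear p.1) (hnear p.2) (Nat.cast_nonneg _) (by norm_num)
    norm_num at e3
    exact e2.trans e3
  have hA : (SP.card : ℝ) * (m0 ^ 2 / 2) ≤ ∑ a ∈ SP, ((LP.bipartiteAbove r a).card : ℝ) := by
    calc (SP.card : ℝ) * (m0 ^ 2 / 2) = ∑ a ∈ SP, m0 ^ 2 / 2 := by rw [sum_const, nsmul_eq_mul]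
      _ ≤ _ := sum_le_sum hlow
  have hB : ∑ b ∈ LP, ((SP.bipartiteBelow r b).card : ℝ) ≤ (LP.card : ℝ) * 15625 := by
    calc _ ≤ ∑ b ∈ LP, (15625 : ℝ) := sum_le_sum hup
      _ = _ := by rw [sum_const, nsmul_eq_mul]
  rw [hdc'] at hA
  linarith [hA.trans hB]

/-! ### the core inequality -/

/-- global coordinates of the lines -/
structure Dat where
  /-- base of X -/
  AX : ℕ → ℝ
  /-- base of H -/
  AH : ℕ → ℝ
  /-- base of F -/
  AF : ℕ → ℝ
  /-- velocity of X -/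
  C : ℕ → ℝ
  /-- velocity of F -/
  P : ℕ → ℝ
  /-- flag -/
  Bf : ℕ → ℝ
  /-- heights -/
  φ : ℕ → ℝ

namespace Dat

variable (D : Dat)

/-- X at height k -/
noncomputable def X (k l : ℕ) : ℝ := D.AX l + D.φ k * D.C l

/-- H at height k -/
noncomputable def H (k l : ℕ) : ℝ := D.AH l + D.φ k * (D.C l ^ 2 / 2)

/-- F at height k -/
noncomputable def F (k l : ℕ) : ℝ := D.AF l + D.φ k * D.P l

/-- velocity of a sheet -/
noncomputable def V (e b : ℝ) (l : ℕ) : ℝ := D.P l + e * (D.C l ^ 2 / 2) + b * D.C l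

/-- the lines `i`, `l` are near at height `k` -/
def near (w : ℝ) (k i l : ℕ) : Prop :=
  |D.X k l - D.X k i| ≤ w ∧ |D.H k l - D.H k i| ≤ w ∧ |D.F k l - D.F k i| ≤ w

/-- class of a line -/
noncomputable def cc (w : ℝ) (l : ℕ) : ℤ × ℤ := (⌊D.C l / w⌋, ⌊D.Bf l / w⌋)

/-- cell of a line at height k -/
noncomputable def cell (w : ℝ) (k l : ℕ) : ℤ × ℤ × ℤ :=
  (⌊D.X k l / w⌋, ⌊D.H k l / w⌋, ⌊D.F k l / w⌋)

end Dat

open Classical in
/-- **core inequality of SIG2** -/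
theorem core (D : Dat) (L Z : Finset ℕ) (al : ℕ → ℕ → Prop) [∀ l k, Decidable (al l k)]
    {w w3 R0 E0 η1 η' M K1 m0 lam A g θ : ℝ}
    (hL : L.Nonempty) (hZ : Z.Nonempty) (hw : 0 < w) (hR0 : 0 ≤ R0) (hη1 : 0 < η1)
    (hη' : 0 < η') (hM : 0 < M)
    (hm0 : 0 ≤ m0) (hlam : 0 < lam) (hlam1 : lam ≤ 1) (hA : 0 ≤ A) (hg : 0 ≤ g)
    (hE0 : 2 * R0 / η1 ≤ E0) (hE0' : R0 + 2 * R0 / η1 * R0 ≤ E0)
    (hw3 : w3 = 4 * (1 + 2 * E0) * w)
    (hK1 : (3 + 2 * R0) * (1 + 2 * (1 + R0) / η1) ≤ K1)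
    (hθ : 4 * w3 / η' ≤ θ)
    (hC : ∀ l ∈ L, |D.C l| ≤ R0) (hB : ∀ l ∈ L, |D.Bf l| ≤ R0)
    (H2 : ∀ k ∈ Z, ∀ l ∈ L, al l k → lam * ((L.image (D.cc w)).card : ℝ) ≤
      (((L.filter fun l' => al l' k ∧ D.near w k l l').image (D.cc w)).card : ℝ))
    (H3 : ∀ k ∈ Z, lam * A ≤ (((L.filter fun l => al l k).image (D.cell w k)).card : ℝ))
    (H4 : ∀ k ∈ Z, ∀ j ∈ L, (((L.filter fun l => al l k ∧ D.cc w l = D.cc w j).image fun l =>
      (⌊(D.H k l - D.C j * D.X k l) / w⌋, ⌊(D.F k l + D.Bf j * D.X k l) / w⌋)).card : ℝ) ≤ M)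
    (H5 : ∀ k ∈ Z, ∀ l ∈ L, al l k →
      m0 ≤ ((L.filter fun l' => al l' k ∧ D.near w k l l').card : ℝ))
    (H6 : ∀ l0 ∈ L, (((L.filter fun l => |D.C l - D.C l0| ≤ η1).image (D.cc w)).card : ℝ) ≤
      lam / 2 * ((L.image (D.cc w)).card : ℝ))
    (H7 : ∀ e b : ℝ, |e| ≤ E0 → |b| ≤ E0 → ∀ k ∈ Z, ∀ l0 ∈ L, al l0 k → ∀ l1 ∈ L, al l1 k →
      ((L.filter fun l => (al l k ∧ D.near w k l0 l) ∧ |D.V e b l - D.V e b l1| ≤ η').card : ℝ)
        ≤ m0 / 2)
    (H8 : ∀ k ∈ Z, ((Z.filter fun k' => |D.φ k' - D.φ k| ≤ θ).card : ℝ) ≤ g * (Z.card : ℝ)) :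
    lam ^ 9 * A ^ 3 * m0 ^ 2 ≤
      32000000 * (2 * K1 + 3) ^ 3 * M ^ 2 * (L.card : ℝ) ^ 2 * g := by
  have hK10 : 0 ≤ K1 := by
    refine le_trans ?_ hK1
    have : 0 ≤ 2 * (1 + R0) / η1 := by positivity
    positivity
  have hE00 : 0 ≤ E0 := le_trans (by positivity) hE0
  have hw30 : 0 < w3 := by rw [hw3]; positivity
  set Γ := L.image (D.cc w) with hΓ
  have hΓne : Γ.Nonempty := hL.image _
  have hcrep : ∀ γ ∈ Γ, ∃ l ∈ L, D.cc w l = γ := fun γ hγ => mem_image.1 hγ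
  choose! crep hcrep1 hcrep2 using hcrep
  set Qk : ℕ → Finset (ℤ × ℤ × ℤ) := fun k => (L.filter fun l => al l k).image (D.cell w k)
    with hQk
  have hrep : ∀ k, ∀ q ∈ Qk k, ∃ l, l ∈ L ∧ al l k ∧ D.cell w k l = q := by
    intro k q hq
    obtain ⟨l, hl, hlq⟩ := mem_image.1 hq
    obtain ⟨l1, l2⟩ := mem_filter.1 hl
    exact ⟨l, l1, l2, hlq⟩
  choose! rep hrep1 hrep2 hrep3 using hrep
  set P : ℕ → ℤ × ℤ × ℤ → Finset (ℤ × ℤ) := fun k q =>
    (L.filter fun l' => al l' k ∧ D.near w k (rep k q) l').image (D.cc w) with hPdef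
  obtain ⟨γ1, hγ1, γ2, hγ2, hfar, hbig⟩ := avg_pairs Z Γ hΓne Qk P
    (fun γ γ' => |D.C (crep γ') - D.C (crep γ)| ≤ η1) hlam hlam1 hA
    (fun k hk q hq => image_subset_image (filter_subset _ _))
    (fun k hk q hq => H2 k hk _ (hrep1 k q hq) (hrep2 k q hq))
    (fun k hk => H3 k hk)
    (by
      intro γ hγ
      refine le_trans ?_ (H6 (crep γ) (hcrep1 γ hγ))
      have : (Γ.filter fun γ' => |D.C (crep γ') - D.C (crep γ)| ≤ η1) ⊆
          (L.filter fun l => |D.C l - D.C (crep γ)| ≤ η1).image (D.cc w) := by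
        intro γ' hγ'
        obtain ⟨g1, g2⟩ := mem_filter.1 hγ'
        exact mem_image.2 ⟨crep γ', mem_filter.2 ⟨hcrep1 γ' g1, g2⟩, hcrep2 γ' g1⟩
      exact_mod_cast card_le_card this)
  set j1 := crep γ1 with hj1
  set j2 := crep γ2 with hj2
  have hj1L : j1 ∈ L := hcrep1 γ1 hγ1
  have hj2L : j2 ∈ L := hcrep1 γ2 hγ2
  have hC12 : η1 ≤ |D.C j1 - D.C j2| := by
    rw [abs_sub_comm]; exact (not_le.1 hfar).le
  have hne : D.C j1 - D.C j2 ≠ 0 := by
    intro h0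
    rw [h0, abs_zero] at hC12
    linarith
  set e : ℝ := (D.Bf j1 - D.Bf j2) / (D.C j1 - D.C j2) with he_def
  set b : ℝ := D.Bf j1 - e * D.C j1 with hb_def
  have heq : e * (D.C j1 - D.C j2) = D.Bf j1 - D.Bf j2 := by
    rw [he_def]; field_simp
  have hb2 : b = D.Bf j2 - e * D.C j2 := by rw [hb_def]; linarith
  have he' : |e| ≤ 2 * R0 / η1 := by
    rw [he_def, abs_div, div_le_div_iff₀ (lt_of_lt_of_le hη1 hC12) hη1]
    have h1 : |D.Bf j1 - D.Bf j2| ≤ 2 * R0 := (abs_sub _ _).trans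
      (by linarith [hB j1 hj1L, hB j2 hj2L])
    exact mul_le_mul h1 hC12 hη1.le (by positivity)
  have he : |e| ≤ E0 := he'.trans hE0
  have hb : |b| ≤ E0 := by
    refine le_trans ?_ hE0'
    rw [hb_def]
    refine (abs_sub _ _).trans ?_
    rw [abs_mul]
    exact add_le_add (hB j1 hj1L) (mul_le_mul he' (hC j1 hj1L) (abs_nonneg _) (by positivity))
  set W : ℕ → Finset (ℤ × ℤ × ℤ) := fun k =>
    (Qk k).filter fun q => γ1 ∈ P k q ∧ γ2 ∈ P k q with hW
  set LP : ℕ → Finset (ℕ × ℕ) := fun k =>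
    ((L.filter fun l => al l k) ×ˢ (L.filter fun l => al l k)).filter fun p =>
      η' < |D.V e b p.1 - D.V e b p.2| ∧
        |(D.F k p.1 + e * D.H k p.1 + b * D.X k p.1) -
          (D.F k p.2 + e * D.H k p.2 + b * D.X k p.2)| ≤ 2 * w3 with hLP
  have hone : ∀ k ∈ Z, ((W k).card : ℝ) ^ 3 * m0 ^ 2 ≤
      4000000 * (2 * K1 + 3) ^ 3 * M ^ 2 * ((LP k).card : ℝ) := by
    intro k hk
    have hWQ : ∀ q ∈ W k, q ∈ Qk k := fun q hq => (mem_filter.1 hq).1
    have hpick : ∀ γ : ℤ × ℤ, ∀ q, γ ∈ P k q → ∃ l, l ∈ L ∧ al l k ∧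
        D.near w k (rep k q) l ∧ D.cc w l = γ := by
      intro γ q hq
      obtain ⟨l, hl, hlq⟩ := mem_image.1 hq
      obtain ⟨l1, l2, l3⟩ := mem_filter.1 hl
      exact ⟨l, l1, l2, l3, hlq⟩
    have hp1 : ∀ q ∈ W k, ∃ l, l ∈ L ∧ al l k ∧ D.near w k (rep k q) l ∧ D.cc w l = γ1 :=
      fun q hq => hpick γ1 q (mem_filter.1 hq).2.1
    have hp2 : ∀ q ∈ W k, ∃ l, l ∈ L ∧ al l k ∧ D.near w k (rep k q) l ∧ D.cc w l = γ2 :=
      fun q hq => hpick γ2 q (mem_filter.1 hq).2.2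
    choose! r1 hr1a hr1b hr1c hr1d using hp1
    choose! r2 hr2a hr2b hr2c hr2d using hp2
    have hS := sheet_pairs (w := w) (w3 := w3) (R0 := R0) (E0 := E0) (η1 := η1) (M := M)
      (K1 := K1) hw hR0 hE00 hη1 hM hw3 hK1 (D.X k) (D.H k) (D.F k) (C1 := D.C j1)
      (B1 := D.Bf j1) (C2 := D.C j2) (B2 := D.Bf j2) (e := e) (b := b) (hC j1 hj1L)
      (hC j2 hj2L) (hB j1 hj1L) (hB j2 hj2L) hC12 he hb hb_def hb2 (W k) (rep k) r1 r2
      (fun q hq => hrep3 k q (hWQ q hq)) hr1c hr2c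
      (by
        refine le_trans ?_ (H4 k hk j1 hj1L)
        refine Nat.cast_le.2 (card_le_card ?_)
        intro v hv
        obtain ⟨q, hq, rfl⟩ := mem_image.1 hv
        refine mem_image.2 ⟨r1 q, mem_filter.2 ⟨hr1a q hq, hr1b q hq, ?_⟩, rfl⟩
        rw [hr1d q hq]; exact (hcrep2 γ1 hγ1).symm)
      (by
        refine le_trans ?_ (H4 k hk j2 hj2L)
        refine Nat.cast_le.2 (card_le_card ?_)
        intro v hv
        obtain ⟨q, hq, rfl⟩ := mem_image.1 hv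
        refine mem_image.2 ⟨r2 q, mem_filter.2 ⟨hr2a q hq, hr2b q hq, ?_⟩, rfl⟩
        rw [hr2d q hq]; exact (hcrep2 γ2 hγ2).symm)
    have hLn := line_pairs (w := w) (w3 := w3) (E0 := E0) (m0 := m0) (η' := η') hw hE00 hm0
      hw3 (L.filter fun l => al l k) (D.X k) (D.H k) (D.F k) (D.V e b) (e := e) (b := b) he hb
      (W k) (rep k) (fun q hq => hrep3 k q (hWQ q hq))
      (by
        intro q hq
        have := H5 k hk _ (hrep1 k q (hWQ q hq)) (hrep2 k q (hWQ q hq))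
        rw [filter_filter]
        refine this.trans (Nat.cast_le.2 (card_le_card ?_))
        intro l hl
        obtain ⟨n1, n2, n3⟩ := mem_filter.1 hl
        exact mem_filter.2 ⟨n1, n2, n3⟩)
      (by
        intro q hq l1 hl1
        obtain ⟨m1, m2⟩ := mem_filter.1 hl1
        have := H7 e b he hb k hk _ (hrep1 k q (hWQ q hq)) (hrep2 k q (hWQ q hq)) l1 m1 m2
        rw [filter_filter]
        refine le_trans ?_ this
        refine Nat.cast_le.2 (card_le_card ?_)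
        intro l hl
        obtain ⟨n1, n2, n3, n4⟩ := mem_filter.1 hl
        exact mem_filter.2 ⟨n1, ⟨n2, n3⟩, n4⟩)
    have hc : 0 ≤ 128 * (2 * K1 + 3) ^ 3 * M ^ 2 := by positivity
    calc ((W k).card : ℝ) ^ 3 * m0 ^ 2 ≤ (128 * (2 * K1 + 3) ^ 3 * M ^ 2 *
          ∑ c ∈ (W k).image (fun q => ⌊(D.F k (rep k q) + e * D.H k (rep k q) +
            b * D.X k (rep k q)) / w3⌋), (((W k).filter fun q => ⌊(D.F k (rep k q) +
            e * D.H k (rep k q) + b * D.X k (rep k q)) / w3⌋ = c).card : ℝ) ^ 2) * m0 ^ 2 :=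
          mul_le_mul_of_nonneg_right hS (by positivity)
      _ = 128 * (2 * K1 + 3) ^ 3 * M ^ 2 *
          ((∑ c ∈ (W k).image (fun q => ⌊(D.F k (rep k q) + e * D.H k (rep k q) +
            b * D.X k (rep k q)) / w3⌋), (((W k).filter fun q => ⌊(D.F k (rep k q) +
            e * D.H k (rep k q) + b * D.X k (rep k q)) / w3⌋ = c).card : ℝ) ^ 2) * m0 ^ 2) := by
          ring
      _ ≤ 128 * (2 * K1 + 3) ^ 3 * M ^ 2 * (31250 * ((LP k).card : ℝ)) :=
          mul_le_mul_of_nonneg_left hLn hc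
      _ = _ := by ring
  -- number of line pairs over all heights
  have hLPsum : ∑ k ∈ Z, ((LP k).card : ℝ) ≤ (L.card : ℝ) ^ 2 * (g * (Z.card : ℝ)) := by
    have e1 : ∀ k ∈ Z, ((LP k).card : ℝ) ≤ ∑ p ∈ L ×ˢ L,
        (if (η' < |D.V e b p.1 - D.V e b p.2| ∧
        |(D.F k p.1 + e * D.H k p.1 + b * D.X k p.1) -
          (D.F k p.2 + e * D.H k p.2 + b * D.X k p.2)| ≤ 2 * w3) then (1 : ℝ) else 0) := by
      intro k hk
      rw [Finset.sum_boole]
      refine Nat.cast_le.2 (card_le_card ?_)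
      intro p hp
      obtain ⟨p1, p2⟩ := mem_filter.1 hp
      obtain ⟨p3, p4⟩ := mem_product.1 p1
      exact mem_filter.2 ⟨mem_product.2 ⟨(mem_filter.1 p3).1, (mem_filter.1 p4).1⟩, p2⟩
    refine (sum_le_sum e1).trans ?_
    rw [Finset.sum_comm]
    calc _ ≤ ∑ p ∈ L ×ˢ L, g * (Z.card : ℝ) := by
          refine sum_le_sum fun p hp => ?_
          rw [Finset.sum_boole]
          set T := Z.filter fun k => η' < |D.V e b p.1 - D.V e b p.2| ∧
            |(D.F k p.1 + e * D.H k p.1 + b * D.X k p.1) -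
            (D.F k p.2 + e * D.H k p.2 + b * D.X k p.2)| ≤ 2 * w3 with hT
          rcases T.eq_empty_or_nonempty with h0 | ⟨k0, hk0⟩
          · rw [h0, card_empty, Nat.cast_zero]; positivity
          · obtain ⟨a1, a2, a3⟩ := mem_filter.1 hk0
            refine le_trans ?_ (H8 k0 a1)
            refine Nat.cast_le.2 (card_le_card ?_)
            intro k hkT
            obtain ⟨b1, b2, b3⟩ := mem_filter.1 hkT
            refine mem_filter.2 ⟨b1, le_trans ?_ hθ⟩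
            rw [le_div_iff₀ hη']
            have e2 : (D.φ k - D.φ k0) * (D.V e b p.1 - D.V e b p.2) =
                ((D.F k p.1 + e * D.H k p.1 + b * D.X k p.1) -
                (D.F k p.2 + e * D.H k p.2 + b * D.X k p.2)) -
                ((D.F k0 p.1 + e * D.H k0 p.1 + b * D.X k0 p.1) -
                (D.F k0 p.2 + e * D.H k0 p.2 + b * D.X k0 p.2)) := by
              unfold Dat.V Dat.F Dat.H Dat.X
              ring
            have e3 : |(D.φ k - D.φ k0) * (D.V e b p.1 - D.V e b p.2)| ≤ 4 * w3 := by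
              rw [e2]
              exact (abs_sub _ _).trans (by linarith)
            rw [abs_mul] at e3
            have := mul_le_mul_of_nonneg_left a2.le (abs_nonneg (D.φ k - D.φ k0))
            linarith
      _ = _ := by
          rw [sum_const, nsmul_eq_mul, card_product, Nat.cast_mul]; ring
  -- power mean
  have hpm : (∑ k ∈ Z, ((W k).card : ℝ)) ^ 3 ≤
      (Z.card : ℝ) ^ 2 * ∑ k ∈ Z, ((W k).card : ℝ) ^ 3 := by
    exact pow_sum_le_card_mul_sum_pow (s := Z) (f := fun k => ((W k).card : ℝ))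
      (fun k _ => Nat.cast_nonneg _) 2
  have hZ0 : (0 : ℝ) < Z.card := by exact_mod_cast hZ.card_pos
  have hbig' : lam ^ 3 / 2 * A * (Z.card : ℝ) ≤ ∑ k ∈ Z, ((W k).card : ℝ) := by
    convert hbig
  have h3 : (lam ^ 3 / 2 * A * (Z.card : ℝ)) ^ 3 ≤ (∑ k ∈ Z, ((W k).card : ℝ)) ^ 3 :=
    pow_le_pow_left₀ (by positivity) hbig' 3
  have h4 : (lam ^ 3 / 2 * A * (Z.card : ℝ)) ^ 3 * m0 ^ 2 ≤ (Z.card : ℝ) ^ 2 *
      (4000000 * (2 * K1 + 3) ^ 3 * M ^ 2 * ((L.card : ℝ) ^ 2 * (g * (Z.card : ℝ)))) := by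
    calc (lam ^ 3 / 2 * A * (Z.card : ℝ)) ^ 3 * m0 ^ 2
        ≤ ((Z.card : ℝ) ^ 2 * ∑ k ∈ Z, ((W k).card : ℝ) ^ 3) * m0 ^ 2 :=
          mul_le_mul_of_nonneg_right (h3.trans hpm) (by positivity)
      _ = (Z.card : ℝ) ^ 2 * ∑ k ∈ Z, ((W k).card : ℝ) ^ 3 * m0 ^ 2 := by
          rw [mul_assoc, sum_mul]
      _ ≤ (Z.card : ℝ) ^ 2 * ∑ k ∈ Z, 4000000 * (2 * K1 + 3) ^ 3 * M ^ 2 *
            ((LP k).card : ℝ) := mul_le_mul_of_nonneg_left (sum_le_sum hone) (by positivity)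
      _ = (Z.card : ℝ) ^ 2 * (4000000 * (2 * K1 + 3) ^ 3 * M ^ 2 *
            ∑ k ∈ Z, ((LP k).card : ℝ)) := by rw [← mul_sum]
      _ ≤ _ := by
          refine mul_le_mul_of_nonneg_left ?_ (by positivity)
          exact mul_le_mul_of_nonneg_left hLPsum (by positivity)
  have h5 : (Z.card : ℝ) ^ 3 * (lam ^ 9 * A ^ 3 * m0 ^ 2) ≤ (Z.card : ℝ) ^ 3 *
      (32000000 * (2 * K1 + 3) ^ 3 * M ^ 2 * (L.card : ℝ) ^ 2 * g) := by
    have e1 : (Z.card : ℝ) ^ 3 * (lam ^ 9 * A ^ 3 * m0 ^ 2) =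
        8 * ((lam ^ 3 / 2 * A * (Z.card : ℝ)) ^ 3 * m0 ^ 2) := by ring
    have e2 : (Z.card : ℝ) ^ 3 *
      (32000000 * (2 * K1 + 3) ^ 3 * M ^ 2 * (L.card : ℝ) ^ 2 * g) = 8 * ((Z.card : ℝ) ^ 2 *
      (4000000 * (2 * K1 + 3) ^ 3 * M ^ 2 * ((L.card : ℝ) ^ 2 * (g * (Z.card : ℝ))))) := by ring
    rw [e1, e2]
    linarith
  exact le_of_mul_le_mul_left h5 (by positivity)

end Crest.Agent.R116.Sc905
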