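import Crest.Agent.R116.Sc1_905
import Crest.Agent.R136.Gr1_356

/-!
# R116, D4 at sigma = 2 (`SIG2`), exponents (helper905)

`sig2_glue` : the counting facts H2 .. H8 of `core` with losses `ρ^(K ε)` give
`σ x ≤ 2 nM - (n0 - nA)`.
-/

set_option autoImplicit false
set_option maxHeartbeats 4000000
set_option linter.unusedVariables false

open Filter Topology Finset

namespace Crest.Agent.R116.Sc905

open Crest.Agent.R138.Ex926 (Base U)
open Crest.Agent.R136.Gf356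

variable {κ : Type} {B : Base} {G : ℕ → RCfg κ}

open Classical in
/-- exponents from `core` -/
theorem sig2_glue (dat : ℕ → Dat) {σ x R1 q7 n0 nA nM : ℝ}
    (hσ : 0 ≤ σ) (hx : 0 < x) (hR1 : 0 < R1) (hq7 : 0 < q7)
    (hLne : ∀ n, (G n).L.Nonempty) (hZne : ∀ n, (G n).Z.Nonempty)
    (hφ : ∀ n k, (dat n).φ k = (G n).z k)
    (hbd : ∀ ε : ℝ, 0 < ε → ∀ᶠ n in (U : Filter ℕ), ∀ l ∈ (G n).L,
      |(dat n).C l| ≤ B.d n ^ (-ε) ∧ |(dat n).Bf l| ≤ B.d n ^ (-ε))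
    (hL : ∃ K : ℝ, 0 ≤ K ∧ ∀ ε : ℝ, 0 < ε → ∀ᶠ n in (U : Filter ℕ),
      ((G n).L.card : ℝ) ≤ B.d n ^ (-n0 - K * ε))
    (h2 : ∃ K : ℝ, 0 ≤ K ∧ ∀ ε : ℝ, 0 < ε → ∀ᶠ n in (U : Filter ℕ), ∀ k ∈ (G n).Z,
      ∀ l ∈ (G n).L, (l, k) ∈ (G n).I →
      B.d n ^ (K * ε) * (((G n).L.image ((dat n).cc (B.d n ^ (x - ε)))).card : ℝ) ≤
      ((((G n).L.filter fun l' => (l', k) ∈ (G n).I ∧
        (dat n).near (B.d n ^ (x - ε)) k l l').image ((dat n).cc (B.d n ^ (x - ε)))).card : ℝ))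
    (h3 : ∃ K : ℝ, 0 ≤ K ∧ ∀ ε : ℝ, 0 < ε → ∀ᶠ n in (U : Filter ℕ), ∀ k ∈ (G n).Z,
      B.d n ^ (K * ε) * B.d n ^ (-(n0 - nA)) ≤ ((((G n).L.filter fun l => (l, k) ∈ (G n).I).image
        ((dat n).cell (B.d n ^ (x - ε)) k)).card : ℝ))
    (h4 : ∃ K : ℝ, 0 ≤ K ∧ ∀ ε : ℝ, 0 < ε → ∀ᶠ n in (U : Filter ℕ), ∀ k ∈ (G n).Z,
      ∀ j ∈ (G n).L, ((((G n).L.filter fun l => (l, k) ∈ (G n).I ∧
        (dat n).cc (B.d n ^ (x - ε)) l = (dat n).cc (B.d n ^ (x - ε)) j).image fun l =>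
      (⌊((dat n).H k l - (dat n).C j * (dat n).X k l) / (B.d n ^ (x - ε))⌋,
       ⌊((dat n).F k l + (dat n).Bf j * (dat n).X k l) / (B.d n ^ (x - ε))⌋)).card : ℝ) ≤
      B.d n ^ (-nM - K * ε))
    (h5 : ∃ K : ℝ, 0 ≤ K ∧ ∀ ε : ℝ, 0 < ε → ∀ᶠ n in (U : Filter ℕ), ∀ k ∈ (G n).Z,
      ∀ l ∈ (G n).L, (l, k) ∈ (G n).I → B.d n ^ (-nA + K * ε) ≤
      (((G n).L.filter fun l' => (l', k) ∈ (G n).I ∧
        (dat n).near (B.d n ^ (x - ε)) k l l').card : ℝ))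
    (h6 : ∀ Kl : ℝ, 0 ≤ Kl → ∃ K6 : ℝ, 0 < K6 ∧ ∃ ε0 : ℝ, 0 < ε0 ∧ ∀ ε : ℝ, 0 < ε → ε < ε0 →
      ∀ᶠ n in (U : Filter ℕ), ∀ l0 ∈ (G n).L,
      ((((G n).L.filter fun l => |(dat n).C l - (dat n).C l0| ≤ B.d n ^ (K6 * ε)).image
        ((dat n).cc (B.d n ^ (x - ε)))).card : ℝ) ≤
      B.d n ^ (Kl * ε) / 2 * (((G n).L.image ((dat n).cc (B.d n ^ (x - ε)))).card : ℝ))
    (h7 : ∃ K : ℝ, 0 ≤ K ∧ ∀ r : ℝ, 0 < r → r ≤ R1 → ∀ ε : ℝ, 0 < ε →
      ∀ᶠ n in (U : Filter ℕ), ∀ e b : ℝ, |e| ≤ B.d n ^ (-ε) → |b| ≤ B.d n ^ (-ε) →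
      ∀ k ∈ (G n).Z, ∀ l0 ∈ (G n).L, (l0, k) ∈ (G n).I → ∀ l1 ∈ (G n).L, (l1, k) ∈ (G n).I →
      (((G n).L.filter fun l => ((l, k) ∈ (G n).I ∧ (dat n).near (B.d n ^ (x - ε)) k l0 l) ∧
        |(dat n).V e b l - (dat n).V e b l1| ≤ B.d n ^ r).card : ℝ) ≤
      B.d n ^ (-nA + q7 * r - K * ε))
    (h8 : ∀ y : ℝ, 0 ≤ y → y ≤ x → ∀ ε : ℝ, 0 < ε → ∀ᶠ n in (U : Filter ℕ), ∀ k ∈ (G n).Z,
      (((G n).Z.filter fun k' => |(G n).z k' - (G n).z k| ≤ B.d n ^ y).card : ℝ) ≤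
        B.d n ^ (σ * y - ε) * ((G n).Z.card : ℝ)) :
    σ * x ≤ 2 * nM - (n0 - nA) := by
  obtain ⟨KL, hKL0, hL⟩ := hL
  obtain ⟨K2, hK20, h2⟩ := h2
  obtain ⟨K3, hK30, h3⟩ := h3
  obtain ⟨K4, hK40, h4⟩ := h4
  obtain ⟨K5, hK50, h5⟩ := h5
  obtain ⟨K7, hK70, h7⟩ := h7
  set Kl : ℝ := K2 + K3 with hKl
  have hKl0 : 0 ≤ Kl := by positivity
  obtain ⟨T, hT0, ε6, hε6, h6⟩ := h6 Kl hKl0
  set Q : ℝ := (K7 * (4 + T) + K5 + 1) / q7 with hQ
  have hQ0 : 0 < Q := by positivity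
  have hQq : q7 * Q = K7 * (4 + T) + K5 + 1 := by rw [hQ]; field_simp
  set Y : ℝ := 6 + T + Q with hY
  have hY0 : 0 < Y := by positivity
  set ε0 : ℝ := min (min (ε6 / 2) (R1 / Q)) (x / Y) with hε0
  have hε00 : 0 < ε0 := by
    rw [hε0]
    exact lt_min (lt_min (by positivity) (by positivity)) (by positivity)
  set Kt : ℝ := 9 * Kl + 2 * K5 + (1 + 3 * (4 + T) + 2 * K4 + 2 * KL + σ * Y + 1) with hKt
  have hKt0 : 0 ≤ Kt := by positivity
  have main := le_of_ev B (-3 * (n0 - nA) - 2 * nA) (-2 * nM - 2 * n0 + σ * x) Kt 1 ?_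
  · linarith
  intro ε' hε'
  set ε : ℝ := min ε' ε0 with hε
  have hε0' : 0 < ε := lt_min hε' hε00
  have hεε : ε ≤ ε' := min_le_left _ _
  have hεT : ε < ε6 := by
    have : ε ≤ ε6 / 2 := (min_le_right _ _).trans ((min_le_left _ _).trans (min_le_left _ _))
    linarith
  have hεQ : Q * ε ≤ R1 := by
    have : ε ≤ R1 / Q := (min_le_right _ _).trans ((min_le_left _ _).trans (min_le_right _ _))
    rw [le_div_iff₀ hQ0] at this; linarith
  have hεY : Y * ε ≤ x := by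
    have : ε ≤ x / Y := (min_le_right _ _).trans (min_le_right _ _)
    rw [le_div_iff₀ hY0] at this; linarith
  have h4T : 0 < (4 + T) * ε := by positivity
  filter_upwards [hbd ε hε0', hL ε hε0', h2 ε hε0', h3 ε hε0', h4 ε hε0', h5 ε hε0',
    h6 ε hε0' hεT, h7 (Q * ε) (by positivity) hεQ ((4 + T) * ε) h4T,
    h8 (x - Y * ε) (by linarith) (by nlinarith) ε hε0',
    ev_const_le B hε0' 64, ev_const_le B hε0' (32000000 * 125)]
    with n hbdn hLn h2n h3n h4n h5n h6n h7n h8n hc64 hc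
  have hpow : ∀ t : ℝ, 0 < B.d n ^ t := fun t => rpos B n t
  have hpow1 : ∀ t : ℝ, t ≤ 0 → 1 ≤ B.d n ^ t := fun t ht =>
    Real.one_le_rpow_of_pos_of_le_one_of_nonpos (B.pos n) (B.lt n).le ht
  have hadd : ∀ s t : ℝ, B.d n ^ (s + t) = B.d n ^ s * B.d n ^ t := fun s t => rpow_add' B n s t
  have hanti : ∀ {s t : ℝ}, s ≤ t → B.d n ^ t ≤ B.d n ^ s := fun h => rpow_anti B n h
  -- absorb a constant
  have habs : ∀ (c t : ℝ), c ≤ 64 → c * B.d n ^ t ≤ B.d n ^ (t - ε) := by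
    intro c t hct
    have e1 : B.d n ^ (t - ε) = B.d n ^ (-ε) * B.d n ^ t := by rw [← hadd]; congr 1; ring
    rw [e1]
    exact mul_le_mul_of_nonneg_right (hct.trans hc64) (hpow t).le
  set w : ℝ := B.d n ^ (x - ε) with hw
  set R0 : ℝ := B.d n ^ (-ε) with hR0
  set η1 : ℝ := B.d n ^ (T * ε) with hη1
  set E0 : ℝ := B.d n ^ (-((4 + T) * ε)) with hE0
  set η' : ℝ := B.d n ^ (Q * ε) with hη'
  set K1 : ℝ := B.d n ^ (-((4 + T) * ε)) with hK1
  set lam : ℝ := B.d n ^ (Kl * ε) with hlam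
  set A : ℝ := B.d n ^ (-(n0 - nA)) with hA
  set m0 : ℝ := B.d n ^ (-nA + K5 * ε) with hm0
  set M : ℝ := B.d n ^ (-nM - K4 * ε) with hM
  set g : ℝ := B.d n ^ (σ * (x - Y * ε) - ε) with hg
  have hη10 : 0 < η1 := hpow _
  have hK10 : 0 < K1 := hpow _
  have hR1 : 1 ≤ R0 := hpow1 _ (by linarith)
  have hR00 : 0 < R0 := hpow _
  have hE01 : 1 ≤ E0 := hpow1 _ (by linarith)
  have hdiv : ∀ s t : ℝ, B.d n ^ s / B.d n ^ t = B.d n ^ (s - t) := fun s t =>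
    (Real.rpow_sub (B.pos n) s t).symm
  have hlam1 : lam ≤ 1 := Real.rpow_le_one (B.pos n).le (B.lt n).le (by positivity)
  have hinv1 : 1 ≤ R0 / η1 := by
    rw [hR0, hη1, hdiv]; exact hpow1 _ (by nlinarith)
  have hcore := core (dat n) (G n).L (G n).Z (fun l k => (l, k) ∈ (G n).I)
    (w := w) (w3 := 4 * (1 + 2 * E0) * w) (R0 := R0) (E0 := E0) (η1 := η1) (η' := η')
    (M := M) (K1 := K1) (m0 := m0) (lam := lam) (A := A) (g := g)
    (θ := B.d n ^ (x - Y * ε)) (hLne n) (hZne n) (hpow _) (hpow _).le (hpow _) (hpow _)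
    (hpow _) (hpow _).le (hpow _) hlam1 (hpow _).le (hpow _).le
    (by
      -- 2 * R0 / η1 ≤ E0
      have e1 : 2 * R0 / η1 = 2 * B.d n ^ (-ε - T * ε) := by
        rw [mul_div_assoc, hR0, hη1, hdiv]
      rw [e1]
      refine (habs 2 _ (by norm_num)).trans (hanti ?_)
      nlinarith)
    (by
      have e1 : R0 + 2 * R0 / η1 * R0 ≤ 3 * B.d n ^ (-(2 * ε) - T * ε) := by
        have f1 : 2 * R0 / η1 * R0 = 2 * B.d n ^ (-(2 * ε) - T * ε) := by
          rw [mul_div_assoc, mul_assoc, hR0, hη1, hdiv, ← hadd]; congr 2; ring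
        have f2 : R0 ≤ B.d n ^ (-(2 * ε) - T * ε) := hanti (by nlinarith)
        rw [f1]; linarith
      refine e1.trans ((habs 3 _ (by norm_num)).trans (hanti ?_))
      nlinarith)
    rfl
    (by
      have f1 : 3 + 2 * R0 ≤ 5 * R0 := by linarith
      have f2 : 1 + 2 * (1 + R0) / η1 ≤ 5 * (R0 / η1) := by
        have : (1 + R0) / η1 ≤ 2 * (R0 / η1) := by
          rw [← mul_div_assoc]
          exact div_le_div_of_nonneg_right (by linarith) (hpow _).le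
        rw [mul_div_assoc]
        linarith
      have f3 : (3 + 2 * R0) * (1 + 2 * (1 + R0) / η1) ≤ (5 * R0) * (5 * (R0 / η1)) := by
        refine mul_le_mul f1 f2 ?_ (by positivity)
        have : 0 ≤ 2 * (1 + R0) / η1 := by positivity
        linarith
      refine f3.trans ?_
      have e1 : (5 * R0) * (5 * (R0 / η1)) = 25 * B.d n ^ (-(2 * ε) - T * ε) := by
        have : R0 * (R0 / η1) = B.d n ^ (-(2 * ε) - T * ε) := by
          rw [hR0, hη1, hdiv, ← hadd]; congr 1; ring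
        calc (5 * R0) * (5 * (R0 / η1)) = 25 * (R0 * (R0 / η1)) := by ring
          _ = _ := by rw [this]
      rw [e1]
      refine (habs 25 _ (by norm_num)).trans (hanti ?_)
      nlinarith)
    (by
      -- θ
      have f1 : 4 * (1 + 2 * E0) * w ≤ 12 * (E0 * w) := by
        have : 0 < w := hpow _
        nlinarith
      have f2 : 4 * (4 * (1 + 2 * E0) * w) / η' ≤ 48 * (E0 * w / η') := by
        rw [← mul_div_assoc]
        exact div_le_div_of_nonneg_right (by linarith) (hpow _).le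
      refine f2.trans ?_
      have e1 : E0 * w / η' = B.d n ^ (-((4 + T) * ε) + (x - ε) - Q * ε) := by
        rw [hE0, hw, hη', ← hadd, hdiv]
      rw [e1]
      refine (habs 48 _ (by norm_num)).trans (hanti ?_)
      rw [hY]
      linarith)
    (fun l hl => (hbdn l hl).1) (fun l hl => (hbdn l hl).2)
    (by
      intro k hk l hl hlk
      refine le_trans ?_ (h2n k hk l hl hlk)
      exact mul_le_mul_of_nonneg_right (hanti (by rw [hKl]; nlinarith)) (Nat.cast_nonneg _))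
    (by
      intro k hk
      refine le_trans ?_ (h3n k hk)
      exact mul_le_mul_of_nonneg_right (hanti (by rw [hKl]; nlinarith)) (hpow _).le)
    (fun k hk j hj => h4n k hk j hj)
    (fun k hk l hl hlk => h5n k hk l hl hlk)
    (by
      intro l0 hl0
      refine (h6n l0 hl0).trans ?_
      exact le_rfl)
    (by
      intro e b he hb k hk l0 hl0 hl0k l1 hl1 hl1k
      have f0 := h7n e b he hb k hk l0 hl0 hl0k l1 hl1 hl1k
      have f1 : 2 * B.d n ^ (-nA + q7 * (Q * ε) - K7 * ((4 + T) * ε)) ≤ m0 := by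
        refine (habs 2 _ (by norm_num)).trans (hanti ?_)
        have : q7 * (Q * ε) = (K7 * (4 + T) + K5 + 1) * ε := by rw [← hQq]; ring
        rw [this]; linarith
      refine le_trans ?_ (show B.d n ^ (-nA + q7 * (Q * ε) - K7 * ((4 + T) * ε)) ≤ m0 / 2 by
        linarith)
      refine le_trans (Nat.cast_le.2 (card_le_card ?_)) f0
      intro l hl
      obtain ⟨a1, ⟨a2, a3⟩, a4⟩ := mem_filter.1 hl
      refine mem_filter.2 ⟨a1, ⟨a2, ?_⟩, a4⟩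
      have hww : w ≤ B.d n ^ (x - (4 + T) * ε) := hanti (by nlinarith)
      exact ⟨a3.1.trans hww, a3.2.1.trans hww, a3.2.2.trans hww⟩)
    (by
      intro k hk
      have f0 := h8n k hk
      simp only [hφ]
      exact f0)
  -- exponents
  have hKK : (2 * K1 + 3) ^ 3 ≤ 125 * B.d n ^ (-(3 * (4 + T)) * ε) := by
    have f1 : 2 * K1 + 3 ≤ 5 * K1 := by
      have : 1 ≤ K1 := hE01
      linarith
    have f2 : (2 * K1 + 3) ^ 3 ≤ (5 * K1) ^ 3 := by
      have : 0 < K1 := hpow _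
      gcongr
    refine f2.trans (le_of_eq ?_)
    have : K1 ^ 3 = B.d n ^ (-(3 * (4 + T)) * ε) := by
      rw [hK1, ← Real.rpow_natCast, ← Real.rpow_mul (B.pos n).le]; congr 1; push_cast; ring
    rw [mul_pow, this]; norm_num
  have hLL : ((G n).L.card : ℝ) ^ 2 ≤ B.d n ^ (2 * (-n0 - KL * ε)) := by
    have f1 : ((G n).L.card : ℝ) ^ 2 ≤ (B.d n ^ (-n0 - KL * ε)) ^ 2 :=
      pow_le_pow_left₀ (Nat.cast_nonneg _) hLn 2
    refine f1.trans (le_of_eq ?_)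
    rw [← Real.rpow_natCast, ← Real.rpow_mul (B.pos n).le]; congr 1; push_cast; ring
  have hMM : M ^ 2 = B.d n ^ (2 * (-nM - K4 * ε)) := by
    rw [hM, ← Real.rpow_natCast, ← Real.rpow_mul (B.pos n).le]; congr 1; push_cast; ring
  have hlhs : lam ^ 9 * A ^ 3 * m0 ^ 2 =
      B.d n ^ (-3 * (n0 - nA) - 2 * nA + (9 * Kl + 2 * K5) * ε) := by
    rw [hlam, hA, hm0, ← Real.rpow_natCast, ← Real.rpow_natCast, ← Real.rpow_natCast,
      ← Real.rpow_mul (B.pos n).le, ← Real.rpow_mul (B.pos n).le, ← Real.rpow_mul (B.pos n).le,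
      ← hadd, ← hadd]
    congr 1; push_cast; ring
  have hrhs : 32000000 * (2 * K1 + 3) ^ 3 * M ^ 2 * ((G n).L.card : ℝ) ^ 2 * g ≤
      B.d n ^ (-2 * nM - 2 * n0 + σ * x -
        (1 + 3 * (4 + T) + 2 * K4 + 2 * KL + σ * Y + 1) * ε) := by
    have g1 : 32000000 * (2 * K1 + 3) ^ 3 * M ^ 2 * ((G n).L.card : ℝ) ^ 2 * g ≤
        32000000 * (125 * B.d n ^ (-(3 * (4 + T)) * ε)) * B.d n ^ (2 * (-nM - K4 * ε)) *
          B.d n ^ (2 * (-n0 - KL * ε)) * g := by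
      rw [hMM]
      have p1 : 0 < B.d n ^ (2 * (-nM - K4 * ε)) := hpow _
      have p2 : 0 < g := hpow _
      have p3 : 0 < B.d n ^ (-(3 * (4 + T)) * ε) := hpow _
      have p4 : 0 ≤ (2 * K1 + 3) ^ 3 := by positivity
      refine mul_le_mul_of_nonneg_right ?_ p2.le
      refine mul_le_mul ?_ hLL (by positivity) (by positivity)
      refine mul_le_mul_of_nonneg_right ?_ p1.le
      exact mul_le_mul_of_nonneg_left hKK (by norm_num)
    refine g1.trans ?_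
    have e1 : 32000000 * (125 * B.d n ^ (-(3 * (4 + T)) * ε)) * B.d n ^ (2 * (-nM - K4 * ε)) *
          B.d n ^ (2 * (-n0 - KL * ε)) * g = (32000000 * 125) *
          B.d n ^ (-(3 * (4 + T)) * ε + 2 * (-nM - K4 * ε) + 2 * (-n0 - KL * ε) +
            (σ * (x - Y * ε) - ε)) := by
      rw [hg, hadd, hadd, hadd]; ring
    rw [e1]
    calc (32000000 * 125) * B.d n ^ (-(3 * (4 + T)) * ε + 2 * (-nM - K4 * ε) +
          2 * (-n0 - KL * ε) + (σ * (x - Y * ε) - ε))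
        ≤ B.d n ^ (-ε) * B.d n ^ (-(3 * (4 + T)) * ε + 2 * (-nM - K4 * ε) +
          2 * (-n0 - KL * ε) + (σ * (x - Y * ε) - ε)) :=
          mul_le_mul_of_nonneg_right hc (hpow _).le
      _ = _ := by rw [← hadd]; congr 1; ring
  have hfin := hcore
  rw [hlhs] at hfin
  have hfin2 := hfin.trans hrhs
  rw [one_mul]
  calc B.d n ^ (-3 * (n0 - nA) - 2 * nA + Kt * ε')
      ≤ B.d n ^ (-3 * (n0 - nA) - 2 * nA + (9 * Kl + 2 * K5) * ε) := by
        refine hanti ?_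
        have : (9 * Kl + 2 * K5) * ε ≤ Kt * ε' := by
          refine mul_le_mul ?_ hεε hε0'.le hKt0
          rw [hKt]
          have : 0 ≤ 1 + 3 * (4 + T) + 2 * K4 + 2 * KL + σ * Y + 1 := by positivity
          linarith
        linarith
    _ ≤ _ := hfin2
    _ ≤ _ := by
        refine hanti ?_
        have : (1 + 3 * (4 + T) + 2 * K4 + 2 * KL + σ * Y + 1) * ε ≤ Kt * ε' := by
          refine mul_le_mul ?_ hεε hε0'.le hKt0
          rw [hKt]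
          have : 0 ≤ 9 * Kl + 2 * K5 := by positivity
          linarith
        linarith

end Crest.Agent.R116.Sc905
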