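import Crest.Agent.R116.Sc2a_858

/-!
# R116, SIG2 (`σ = 2`, helper905): exponents (helper858)

`sig2_exp` : the core inequality over a model, with the dictionary `Dic`, gives
`σ x ≤ 2 (ν pC - ν pH) - (ν p0 - ν pA)`.
-/

set_option autoImplicit false
set_option linter.unusedVariables false
set_option linter.unusedSectionVars false

open Filter Topology Finset

namespace Crest.Agent.R116.Sc858z

open Crest.Agent.R138.Ex926 (Base U)
open Crest.Agent.R136.Gf356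
open Crest.Agent.R136.CD366
open Crest.Agent.R116.Sc905 (Dat)
open Crest.Agent.R116.Sc708 (NoStrC)
open Crest.Agent.R116.Sc858a

variable {κ : Type} {B : Base} {G : ℕ → RCfg κ} {Leg : Set (κ → ℝ)} {ν : (κ → ℝ) → ℝ}
  {σ R D : ℝ}

/-- comparison of exponents, small `ε` only -/
theorem le_of_small (B : Base) (α β C C0 ε0 : ℝ) (hC : 0 ≤ C) (hC0 : 0 ≤ C0) (h0 : 0 < ε0)
    (h : ∀ ε : ℝ, 0 < ε → ε ≤ ε0 → ∀ᶠ n in (U : Filter ℕ),
      B.d n ^ (α + C * ε) ≤ C0 * B.d n ^ (β - C * ε)) : β ≤ α := by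
  refine le_of_ev B α β C C0 ?_
  intro ε hε
  rcases le_or_gt ε ε0 with h1 | h1
  · exact h ε hε h1
  · filter_upwards [h ε0 h0 le_rfl] with n hn
    have e1 : C * ε0 ≤ C * ε := mul_le_mul_of_nonneg_left h1.le hC
    calc B.d n ^ (α + C * ε) ≤ B.d n ^ (α + C * ε0) := rpow_anti B n (by linarith)
      _ ≤ _ := hn
      _ ≤ _ := mul_le_mul_of_nonneg_left (rpow_anti B n (by linarith)) hC0

/-- a line of the model is alive at some height -/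
theorem alive (M : RModel B G σ R Leg ν D) : ∀ᶠ n in (U : Filter ℕ), ∀ l ∈ (G n).L,
    ∃ k, (l, k) ∈ (G n).I := by
  filter_upwards [M.line 1 one_pos] with n hn l hl
  obtain ⟨⟨i0, k0⟩, h0⟩ := M.nonempty n
  have hZ : (0 : ℝ) < (G n).Z.card := by
    exact_mod_cast card_pos.2 ⟨k0, M.toRUnif.memZ h0⟩
  have h1 : (0 : ℝ) < ((G n).hts l).card :=
    lt_of_lt_of_le (mul_pos (rpos B n 1) hZ) (hn l hl)
  obtain ⟨k, hk⟩ := card_pos.1 (by exact_mod_cast h1 : 0 < ((G n).hts l).card)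
  exact ⟨k, M.toRUnif.memHts.1 hk⟩

/-- number of lines -/
theorem lines_up (M : RModel B G σ R Leg ν D) {p0 : κ → ℝ} (h0 : p0 ∈ Leg)
    (hall : ∀ ε : ℝ, 0 < ε → ∀ᶠ n in (U : Filter ℕ), ∀ k i l, (i, k) ∈ (G n).I →
      (l, k) ∈ (G n).I → (G n).loose p0 ε k i l) {ε : ℝ} (hε : 0 < ε) :
    ∀ᶠ n in (U : Filter ℕ), ((G n).L.card : ℝ) ≤ B.d n ^ (-(ν p0) - (1 + D) * ε) := by
  have H := M.toRUnif
  filter_upwards [M.slice ε hε, H.up p0 h0 ε hε, hall ε hε] with n hs hup hal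
  have hpow : ∀ t : ℝ, 0 < B.d n ^ t := fun t => rpos B n t
  obtain ⟨⟨i, k⟩, hik⟩ := H.nonempty n
  have h1 := hs k (H.memZ hik)
  have h2 : (((G n).slice k).card : ℝ) ≤ B.d n ^ (-ν p0 - D * ε) := by
    refine le_trans ?_ (hup i k hik)
    refine Nat.cast_le.2 (card_le_card ?_)
    intro l hl
    exact RCfg.mem_box.2 ⟨hl, hal k i l hik (H.memSlice.1 hl)⟩
  have h4 : ((G n).L.card : ℝ) = B.d n ^ (-ε) * (B.d n ^ ε * ((G n).L.card : ℝ)) := by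
    rw [← mul_assoc, ← rpow_add', neg_add_cancel, Real.rpow_zero, one_mul]
  rw [h4]
  calc _ ≤ B.d n ^ (-ε) * B.d n ^ (-ν p0 - D * ε) :=
        mul_le_mul_of_nonneg_left (h1.trans h2) (hpow _).le
    _ = _ := by rw [← rpow_add']; congr 1; ring


/-! ### numbers -/

theorem num1 (B : Base) (n : ℕ) {ε K6 : ℝ} (hε : 0 < ε) (hK6 : 0 < K6)
    (h50 : 50 ≤ B.d n ^ (-ε)) :
    2 * B.d n ^ (-ε) / B.d n ^ (K6 * ε) ≤ B.d n ^ (-((K6 + 3) * ε)) ∧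
    B.d n ^ (-ε) + 2 * B.d n ^ (-ε) / B.d n ^ (K6 * ε) * B.d n ^ (-ε) ≤
      B.d n ^ (-((K6 + 3) * ε)) ∧
    (3 + 2 * B.d n ^ (-ε)) * (1 + 2 * (1 + B.d n ^ (-ε)) / B.d n ^ (K6 * ε)) ≤
      B.d n ^ (-((K6 + 4) * ε)) := by
  have hpow : ∀ t : ℝ, 0 < B.d n ^ t := fun t => rpos B n t
  have hadd : ∀ s t : ℝ, B.d n ^ s * B.d n ^ t = B.d n ^ (s + t) := fun s t =>
    (rpow_add' B n s t).symm
  obtain ⟨β, hβ⟩ : ∃ β, β = B.d n ^ (-ε) := ⟨_, rfl⟩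
  obtain ⟨q, hq⟩ : ∃ q, q = B.d n ^ (-((K6 + 1) * ε)) := ⟨_, rfl⟩
  have hβη : B.d n ^ (-ε) / B.d n ^ (K6 * ε) = q := by
    rw [div_eq_mul_inv, ← Real.rpow_neg (B.pos n).le, hadd, hq]; congr 1; ring
  have e3 : B.d n ^ (-((K6 + 3) * ε)) = q * (β * β) := by
    rw [hq, hβ, hadd, hadd]; congr 1; ring
  have e4 : B.d n ^ (-((K6 + 4) * ε)) = q * (β * β * β) := by
    rw [hq, hβ, hadd, hadd, hadd]; congr 1; ring
  have hη10 : 0 < B.d n ^ (K6 * ε) := hpow _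
  have hη11 : B.d n ^ (K6 * ε) ≤ 1 :=
    Real.rpow_le_one (B.pos n).le (B.lt n).le (by positivity)
  have hq1 : 1 ≤ q := by
    rw [hq]
    refine Real.one_le_rpow_of_pos_of_le_one_of_nonpos (B.pos n) (B.lt n).le ?_
    have : 0 < (K6 + 1) * ε := by positivity
    linarith
  have h2' : 2 * (1 + B.d n ^ (-ε)) / B.d n ^ (K6 * ε) ≤ 3 * (B.d n ^ (-ε) / B.d n ^ (K6 * ε)) := by
    rw [← mul_div_assoc, div_le_div_iff_of_pos_right hη10]; linarith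
  rw [hβη] at h2'
  rw [e3, e4, mul_div_assoc, hβη]
  rw [← hβ] at h50 h2' ⊢
  clear e3 e4 hβη hβ hq
  have hβ0 : 0 < β := by linarith
  have hq0 : 0 < q := by linarith
  have hbb : 50 * β ≤ β * β := mul_le_mul_of_nonneg_right h50 hβ0.le
  have hqb : β ≤ q * β := le_mul_of_one_le_left hβ0.le hq1
  refine ⟨?_, ?_, ?_⟩
  · rw [mul_comm]
    refine mul_le_mul_of_nonneg_left ?_ hq0.le
    linarith
  · have h3 : q * (50 * β) ≤ q * (β * β) := mul_le_mul_of_nonneg_left hbb hq0.le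
    have h4 : 0 < q * β := mul_pos hq0 hβ0
    have e1 : β + 2 * q * β = β + 2 * (q * β) := by ring
    have e2 : q * (50 * β) = 50 * (q * β) := by ring
    linarith
  · calc (3 + 2 * β) * (1 + 2 * (1 + β) / B.d n ^ (K6 * ε)) ≤ (3 * β) * (4 * q) := by
          refine mul_le_mul (by linarith) (by linarith) ?_ (by linarith)
          positivity
      _ = q * (12 * β) := by ring
      _ ≤ _ := by
          refine mul_le_mul_of_nonneg_left ?_ hq0.le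
          have h5 : 50 * (β * β) ≤ β * (β * β) :=
            mul_le_mul_of_nonneg_right h50 (by positivity)
          have e5 : β * β * β = β * (β * β) := by ring
          rw [e5]
          linarith

theorem num2 (B : Base) (n : ℕ) {ε K6 Kr x : ℝ} (hε : 0 < ε) (hK6 : 0 < K6)
    (h50 : 50 ≤ B.d n ^ (-ε)) :
    4 * (4 * (1 + 2 * B.d n ^ (-((K6 + 3) * ε))) * B.d n ^ (x - ε)) / B.d n ^ (Kr * ε) ≤
      B.d n ^ (x - (K6 + 6 + Kr) * ε) := by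
  have hpow : ∀ t : ℝ, 0 < B.d n ^ t := fun t => rpos B n t
  have hadd : ∀ s t : ℝ, B.d n ^ s * B.d n ^ t = B.d n ^ (s + t) := fun s t =>
    (rpow_add' B n s t).symm
  have hE01 : 1 ≤ B.d n ^ (-((K6 + 3) * ε)) := by
    refine Real.one_le_rpow_of_pos_of_le_one_of_nonpos (B.pos n) (B.lt n).le ?_
    have : 0 < (K6 + 3) * ε := by positivity
    linarith
  rw [div_le_iff₀ (hpow _)]
  have h1 : B.d n ^ (x - (K6 + 6 + Kr) * ε) * B.d n ^ (Kr * ε) =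
      (B.d n ^ (x - ε) * B.d n ^ (-((K6 + 3) * ε))) * (B.d n ^ (-ε) * B.d n ^ (-ε)) := by
    rw [hadd, hadd, hadd, hadd]; congr 1; ring
  rw [h1]
  have hβ0 : 0 < B.d n ^ (-ε) := hpow _
  have hw := hpow (x - ε)
  have hE00 : 0 < B.d n ^ (-((K6 + 3) * ε)) := hpow _
  have hbb : 50 * B.d n ^ (-ε) ≤ B.d n ^ (-ε) * B.d n ^ (-ε) :=
    mul_le_mul_of_nonneg_right h50 hβ0.le
  calc 4 * (4 * (1 + 2 * B.d n ^ (-((K6 + 3) * ε))) * B.d n ^ (x - ε)) =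
        (16 * (1 + 2 * B.d n ^ (-((K6 + 3) * ε)))) * B.d n ^ (x - ε) := by ring
    _ ≤ (48 * B.d n ^ (-((K6 + 3) * ε))) * B.d n ^ (x - ε) :=
        mul_le_mul_of_nonneg_right (by linarith) hw.le
    _ = (B.d n ^ (x - ε) * B.d n ^ (-((K6 + 3) * ε))) * 48 := by ring
    _ ≤ _ := by
        refine mul_le_mul_of_nonneg_left ?_ (mul_pos hw hE00).le
        linarith

theorem num3 (B : Base) (n : ℕ) {ε a : ℝ} (h50 : 50 ≤ B.d n ^ (-ε)) :
    B.d n ^ (a + ε + (ε + ε)) ≤ B.d n ^ (a + ε) / 2 := by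
  have hpow : ∀ t : ℝ, 0 < B.d n ^ t := fun t => rpos B n t
  have hadd : ∀ s t : ℝ, B.d n ^ s * B.d n ^ t = B.d n ^ (s + t) := fun s t =>
    (rpow_add' B n s t).symm
  have h1 : B.d n ^ (ε + ε) * (B.d n ^ (-ε) * B.d n ^ (-ε)) = 1 := by
    rw [hadd, hadd]
    have : ε + ε + (-ε + -ε) = 0 := by ring
    rw [this, Real.rpow_zero]
  have h2 : (2 : ℝ) ≤ B.d n ^ (-ε) * B.d n ^ (-ε) := by nlinarith
  have h3 := mul_le_mul_of_nonneg_left h2 (hpow (ε + ε)).le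
  rw [h1] at h3
  have h4 : B.d n ^ (ε + ε) ≤ 1 / 2 := by linarith
  rw [← hadd (a + ε)]
  have h5 := mul_le_mul_of_nonneg_left h4 (hpow (a + ε)).le
  linarith

theorem num4 (B : Base) (n : ℕ) {ε K6 Kl K4 K8 CC D σ x a0 aA aC aH L K1 : ℝ} (hε : 0 < ε)
    (hK6 : 0 < K6) (hKl : 0 < Kl) (hK4 : 0 ≤ K4) (hK8 : 0 < K8) (hD : 0 < D) (hσ : 0 ≤ σ)
    (hσ1 : σ ≤ 1) (hL : 0 ≤ L)
    (hCC : CC = 9 * Kl + 2 + 3 * (K6 + 4) + 2 * K4 + 2 * (1 + D) + K8 + 1)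
    (hLu : L ≤ B.d n ^ (-a0 - (1 + D) * ε)) (hK1 : K1 = B.d n ^ (-((K6 + 4) * ε)))
    (h : (B.d n ^ (Kl * ε)) ^ 9 * (B.d n ^ (-(a0 - aA))) ^ 3 * (B.d n ^ (-aA + ε)) ^ 2 ≤
      32000000 * (2 * K1 + 3) ^ 3 * (B.d n ^ (-(aC - aH) - K4 * ε)) ^ 2 * L ^ 2 *
        B.d n ^ (σ * (x - K8 * ε) - ε)) :
    B.d n ^ (-3 * (a0 - aA) - 2 * aA + CC * ε) ≤
      32000000 * 125 * B.d n ^ (-2 * (aC - aH) - 2 * a0 + σ * x - CC * ε) := by
  have hpow : ∀ t : ℝ, 0 < B.d n ^ t := fun t => rpos B n t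
  have hadd : ∀ s t : ℝ, B.d n ^ s * B.d n ^ t = B.d n ^ (s + t) := fun s t =>
    (rpow_add' B n s t).symm
  have hK11 : 1 ≤ K1 := by
    rw [hK1]
    refine Real.one_le_rpow_of_pos_of_le_one_of_nonpos (B.pos n) (B.lt n).le ?_
    have : 0 < (K6 + 4) * ε := by positivity
    linarith
  have f1 : (B.d n ^ (Kl * ε)) ^ 9 * (B.d n ^ (-(a0 - aA))) ^ 3 *
      (B.d n ^ (-aA + ε)) ^ 2 = B.d n ^ (-3 * (a0 - aA) - 2 * aA + (9 * Kl + 2) * ε) := by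
    rw [← Real.rpow_natCast, ← Real.rpow_natCast, ← Real.rpow_natCast,
      ← Real.rpow_mul (B.pos n).le, ← Real.rpow_mul (B.pos n).le,
      ← Real.rpow_mul (B.pos n).le, hadd, hadd]
    congr 1; push_cast; ring
  have f2 : (2 * K1 + 3) ^ 3 ≤ 125 * B.d n ^ (-(3 * (K6 + 4) * ε)) := by
    have h1 : (2 * K1 + 3) ^ 3 ≤ (5 * K1) ^ 3 :=
      pow_le_pow_left₀ (by linarith) (by linarith) 3
    refine h1.trans (le_of_eq ?_)
    rw [mul_pow, hK1, ← Real.rpow_natCast (B.d n ^ (-((K6 + 4) * ε))),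
      ← Real.rpow_mul (B.pos n).le]
    norm_num
    congr 1; ring
  have f3 : (B.d n ^ (-(aC - aH) - K4 * ε)) ^ 2 = B.d n ^ (-2 * (aC - aH) - 2 * K4 * ε) := by
    rw [← Real.rpow_natCast, ← Real.rpow_mul (B.pos n).le]
    congr 1; push_cast; ring
  have f4 : L ^ 2 ≤ B.d n ^ (-2 * a0 - 2 * (1 + D) * ε) := by
    refine (pow_le_pow_left₀ hL hLu 2).trans (le_of_eq ?_)
    rw [← Real.rpow_natCast, ← Real.rpow_mul (B.pos n).le]
    congr 1; push_cast; ring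
  rw [f1, f3] at h
  have f5 : B.d n ^ (-3 * (a0 - aA) - 2 * aA + CC * ε) ≤
      B.d n ^ (-3 * (a0 - aA) - 2 * aA + (9 * Kl + 2) * ε) := by
    refine rpow_anti B n ?_
    have h1 : (9 * Kl + 2) * ε ≤ CC * ε := by
      refine mul_le_mul_of_nonneg_right ?_ hε.le
      rw [hCC]; linarith
    linarith
  refine f5.trans (h.trans ?_)
  have p1 := (hpow (-2 * (aC - aH) - 2 * K4 * ε)).le
  have p2 := (hpow (σ * (x - K8 * ε) - ε)).le
  have s1 : 32000000 * (2 * K1 + 3) ^ 3 ≤ 32000000 * (125 * B.d n ^ (-(3 * (K6 + 4) * ε))) :=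
    mul_le_mul_of_nonneg_left f2 (by norm_num)
  have s2 := mul_le_mul_of_nonneg_right s1 p1
  have s3 := mul_le_mul s2 f4 (sq_nonneg L)
    (mul_nonneg (mul_nonneg (by norm_num) (mul_nonneg (by norm_num) (hpow _).le)) p1)
  have s4 := mul_le_mul_of_nonneg_right s3 p2
  refine s4.trans ?_
  have e1 : 32000000 * (125 * B.d n ^ (-(3 * (K6 + 4) * ε))) *
      B.d n ^ (-2 * (aC - aH) - 2 * K4 * ε) * B.d n ^ (-2 * a0 - 2 * (1 + D) * ε) *
      B.d n ^ (σ * (x - K8 * ε) - ε) =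
      32000000 * 125 * B.d n ^ (-(3 * (K6 + 4) * ε) + (-2 * (aC - aH) - 2 * K4 * ε) +
        (-2 * a0 - 2 * (1 + D) * ε) + (σ * (x - K8 * ε) - ε)) := by
    rw [← hadd, ← hadd, ← hadd]; ring
  rw [e1]
  refine mul_le_mul_of_nonneg_left (rpow_anti B n ?_) (by norm_num)
  have h1 : σ * (K8 * ε) ≤ K8 * ε :=
    mul_le_of_le_one_left (by positivity) hσ1
  have h2' : CC * ε = 9 * Kl * ε + 2 * ε + 3 * (K6 + 4) * ε + 2 * K4 * ε +
      2 * (1 + D) * ε + K8 * ε + ε := by rw [hCC]; ring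
  have h3' : 0 ≤ 9 * Kl * ε := by positivity
  have h4' : σ * (x - K8 * ε) = σ * x - σ * (K8 * ε) := by ring
  have h5' : 0 < (1 + D) * ε := by positivity
  have h6' : 0 ≤ K4 * ε := by positivity
  have h7' : 0 < (K6 + 4) * ε := by positivity
  linarith

open Classical in
set_option maxHeartbeats 1600000 in
/-- **SIG2 over a model** -/
theorem sig2_exp (M : RModel B G σ R Leg ν D) {Dt : ℕ → Dat} {p0 pA pC pH pF : κ → ℝ}
    {x c : ℝ} (hDc : Dic B G Dt pA pC x c) (hφ : ∀ n, (Dt n).φ = (G n).z)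
    (hbd : ∀ ε : ℝ, 0 < ε → ∀ᶠ n in (U : Filter ℕ), ∀ k i, (i, k) ∈ (G n).I →
      |(Dt n).C i| ≤ B.d n ^ (-ε) ∧ |(Dt n).Bf i| ≤ B.d n ^ (-ε))
    (hx : 0 < x) (hxR : x ≤ R)
    (h0 : p0 ∈ Leg) (hA : pA ∈ Leg) (hC : pC ∈ Leg) (hF : pF ∈ Leg)
    (hmax : ∀ s, pF s ≤ max (pA s) (pC s))
    (hall : ∀ ε : ℝ, 0 < ε → ∀ᶠ n in (U : Filter ℕ), ∀ k i l, (i, k) ∈ (G n).I →
      (l, k) ∈ (G n).I → (G n).loose p0 ε k i l)
    (hplat : ν p0 - ν pC ≤ ν pA - ν pF)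
    (hH4 : ∃ K : ℝ, 0 ≤ K ∧ ∀ ε : ℝ, 0 < ε → ∀ᶠ n in (U : Filter ℕ), ∀ k ∈ (G n).Z,
      ∀ j ∈ (G n).L, ((((G n).L.filter fun l => (l, k) ∈ (G n).I ∧
        (Dt n).cc (B.d n ^ (x - ε)) l = (Dt n).cc (B.d n ^ (x - ε)) j).image fun l =>
        (⌊((Dt n).H k l - (Dt n).C j * (Dt n).X k l) / B.d n ^ (x - ε)⌋,
          ⌊((Dt n).F k l + (Dt n).Bf j * (Dt n).X k l) / B.d n ^ (x - ε)⌋)).card : ℝ) ≤
        B.d n ^ (-(ν pC - ν pH) - K * ε))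
    {cA cB : κ} {q R1 : ℝ} (hq : 0 < q) (hR1 : 0 < R1) (hN : NoStrC B G p0 cA cB ν q R1)
    (hcA : ∀ ε : ℝ, 0 < ε → ∀ᶠ n in (U : Filter ℕ), ∀ k i l, (i, k) ∈ (G n).I →
      (l, k) ∈ (G n).I →
      |(G n).rel k i l cA - ((Dt n).C l - (Dt n).C i)| ≤ B.d n ^ (x - ε))
    {q' R' : ℝ} (hq' : 0 < q') (hR' : 0 < R')
    (hstr : ∃ K : ℝ, 0 ≤ K ∧ ∀ r : ℝ, 0 < r → r ≤ R' → ∀ ε : ℝ, 0 < ε →
      ∀ᶠ n in (U : Filter ℕ), ∀ i k, (i, k) ∈ (G n).I → ∀ e b u : ℝ, |e| ≤ B.d n ^ (-ε) →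
      |b| ≤ B.d n ^ (-ε) → ((((G n).box pA ε i k).filter fun l =>
        |(Dt n).P l + e * (Dt n).C l ^ 2 / 2 + b * (Dt n).C l - u| ≤ B.d n ^ r).card : ℝ) ≤
        B.d n ^ (-(ν pA) + q' * r - K * ε)) :
    σ * x ≤ 2 * (ν pC - ν pH) - (ν p0 - ν pA) := by
  have H := M.toRUnif
  have hD := H.D1
  have hD0 : 0 < D := by linarith
  have hc := hDc.c1
  have hc0 : 0 < c := by linarith
  have hσ := M.σ_nonneg
  have hσ1 := M.σ_le
  obtain ⟨K4, hK4, hH4⟩ := hH4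
  obtain ⟨K7, hK7, hstr⟩ := hstr
  obtain ⟨K2, hK2⟩ : ∃ K2 : ℝ, K2 = 2 + D + 3 * c * D ^ 5 + D * (D ^ 2 + c) := ⟨_, rfl⟩
  have hK20 : 0 < K2 := by rw [hK2]; positivity
  obtain ⟨Kl, hKl⟩ : ∃ Kl : ℝ, Kl = K2 + (1 + D * c) := ⟨_, rfl⟩
  have hKl0 : 0 < Kl := by rw [hKl]; positivity
  obtain ⟨K6, hK60, ε1, hε1, h6⟩ := h6 M hDc hx h0 hC hall hq hR1 hN hcA hKl0.le
  -- constants
  obtain ⟨Ke, hKe⟩ : ∃ Ke : ℝ, Ke = K6 + 3 + c := ⟨_, rfl⟩
  have hKe0 : 0 < Ke := by rw [hKe]; positivity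
  obtain ⟨Kr, hKr⟩ : ∃ Kr : ℝ, Kr = (K7 * Ke + 3) / q' := ⟨_, rfl⟩
  have hKr0 : 0 < Kr := by rw [hKr]; positivity
  have hqr : q' * Kr = K7 * Ke + 3 := by rw [hKr]; field_simp
  obtain ⟨K8, hK8⟩ : ∃ K8 : ℝ, K8 = K6 + 6 + Kr := ⟨_, rfl⟩
  have hK80 : 0 < K8 := by rw [hK8]; positivity
  obtain ⟨CC, hCC⟩ : ∃ CC : ℝ, CC = 9 * Kl + 2 + 3 * (K6 + 4) + 2 * K4 + 2 * (1 + D) + K8 + 1 :=
    ⟨_, rfl⟩
  have hCC0 : 0 < CC := by rw [hCC]; positivity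
  have hKlε : ∀ ε : ℝ, Kl * ε = K2 * ε + (1 + D * c) * ε := fun ε => by rw [hKl]; ring
  have hKeε : ∀ ε : ℝ, Ke * ε = (K6 + 3) * ε + c * ε := fun ε => by rw [hKe]; ring
  have key : -2 * (ν pC - ν pH) - 2 * ν p0 + σ * x ≤ -3 * (ν p0 - ν pA) - 2 * ν pA := by
    refine le_of_small B _ _ CC (32000000 * 125) (min ε1 (min (x / K8) (R' / Kr))) hCC0.le
      (by norm_num) (lt_min hε1 (lt_min (div_pos hx hK80) (div_pos hR' hKr0))) ?_
    intro ε hε hεm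
    have hεa : ε ≤ ε1 := hεm.trans (min_le_left _ _)
    have hεb : K8 * ε ≤ x := by
      have := hεm.trans ((min_le_right _ _).trans (min_le_left _ _))
      rw [le_div_iff₀ hK80] at this
      linarith
    have hεc : Kr * ε ≤ R' := by
      have := hεm.trans ((min_le_right _ _).trans (min_le_right _ _))
      rw [le_div_iff₀ hKr0] at this
      linarith
    have hK8ε : 0 < K8 * ε := mul_pos hK80 hε
    filter_upwards [h2 M hDc h0 hA hC hF hmax hall hplat hε, h3 M hDc h0 hA hε,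
      h5 H hDc hA hε, h6 ε hε hεa, hH4 ε hε, hbd ε hε, alive M, lines_up M h0 hall hε,
      M.frost (x - K8 * ε) (by linarith) (by linarith) ε hε,
      hstr (Kr * ε) (mul_pos hKr0 hε) hεc (Ke * ε) (mul_pos hKe0 hε), hDc.b ε hε,
      ev_const_le B hε 50] with
      n g2 g3 g5 g6 g4 gbd gal gL gfr gst gb g50
    have hpow : ∀ t : ℝ, 0 < B.d n ^ t := fun t => rpos B n t
    obtain ⟨⟨i0, k0⟩, hik0⟩ := H.nonempty n
    have hadd : ∀ s t : ℝ, B.d n ^ s * B.d n ^ t = B.d n ^ (s + t) := fun s t =>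
      (rpow_add' B n s t).symm
    obtain ⟨e1, e2, e3⟩ := num1 B n hε hK60 g50
    have e4 := num2 B n (Kr := Kr) (x := x) hε hK60 g50
    rw [← hK8] at e4
    refine num4 B n (K1 := B.d n ^ (-((K6 + 4) * ε))) hε hK60 hKl0 hK4 hK80 hD0 hσ hσ1
      (Nat.cast_nonneg (G n).L.card) hCC gL rfl ?_
    refine Sc905.core (Dt n) (G n).L (G n).Z (fun l k => (l, k) ∈ (G n).I)
      (w := B.d n ^ (x - ε)) (w3 := 4 * (1 + 2 * B.d n ^ (-((K6 + 3) * ε))) * B.d n ^ (x - ε))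
      (R0 := B.d n ^ (-ε)) (E0 := B.d n ^ (-((K6 + 3) * ε))) (η1 := B.d n ^ (K6 * ε))
      (η' := B.d n ^ (Kr * ε)) (M := B.d n ^ (-(ν pC - ν pH) - K4 * ε))
      (K1 := B.d n ^ (-((K6 + 4) * ε))) (m0 := B.d n ^ (-ν pA + ε))
      (lam := B.d n ^ (Kl * ε)) (A := B.d n ^ (-(ν p0 - ν pA)))
      (g := B.d n ^ (σ * (x - K8 * ε) - ε)) (θ := B.d n ^ (x - K8 * ε))
      ⟨i0, H.memL hik0⟩ ⟨k0, H.memZ hik0⟩ (hpow _) (hpow _).le (hpow _) (hpow _) (hpow _)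
      (hpow _).le (hpow _)
      (Real.rpow_le_one (B.pos n).le (B.lt n).le (mul_pos hKl0 hε).le)
      (hpow _).le (hpow _).le e1 e2 rfl e3 e4
      (fun l hl => by
        obtain ⟨k, hk⟩ := gal l hl
        exact (gbd k l hk).1)
      (fun l hl => by
        obtain ⟨k, hk⟩ := gal l hl
        exact (gbd k l hk).2)
      ?_ ?_ ?_ ?_ ?_ ?_ ?_
    · -- H2
      intro k hk l hl hal
      have h1 := g2 k l hal
      rw [← hK2] at h1
      refine le_trans ?_ (h1.trans (le_of_eq (by congr!)))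
      refine mul_le_mul_of_nonneg_right (rpow_anti B n ?_) (Nat.cast_nonneg _)
      have h3' : 0 < (1 + D * c) * ε := mul_pos (by positivity) hε
      rw [hKlε]; linarith
    · -- H3
      intro k hk
      refine le_trans ?_ ((g3 k hk).trans (le_of_eq (by congr!)))
      rw [hadd]
      refine rpow_anti B n ?_
      have h3' : 0 < K2 * ε := mul_pos hK20 hε
      rw [hKlε]; linarith
    · -- H4
      intro k hk j hj
      exact (le_of_eq (by congr!)).trans (g4 k hk j hj)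
    · -- H5
      intro k hk l hl hal
      exact (g5 k l hal).trans (le_of_eq (by congr!))
    · -- H6
      intro l0 hl0
      exact (le_of_eq (by congr!)).trans (g6 l0 hl0)
    · -- H7
      intro e b he hb k hk l0 hl0 hal0 l1 hl1 hal1
      have h3' : 0 < c * ε := mul_pos hc0 hε
      have h4' : 0 < (K6 + 3) * ε := mul_pos (by positivity) hε
      have hE : B.d n ^ (-((K6 + 3) * ε)) ≤ B.d n ^ (-(Ke * ε)) := rpow_anti B n (by
        rw [hKeε]; linarith)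
      have h1 := gst l0 k hal0 e b ((Dt n).V e b l1) (he.trans hE) (hb.trans hE)
      have h5' : -(ν pA) + q' * (Kr * ε) - K7 * (Ke * ε) = (-ν pA + ε) + (ε + ε) := by
        rw [← mul_assoc, hqr]; ring
      rw [h5'] at h1
      have h6' : (((G n).L.filter fun l => ((l, k) ∈ (G n).I ∧
          (Dt n).near (B.d n ^ (x - ε)) k l0 l) ∧
          |(Dt n).V e b l - (Dt n).V e b l1| ≤ B.d n ^ (Kr * ε)).card : ℝ) ≤
          B.d n ^ (-ν pA + ε) / 2 := by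
        refine le_trans (Nat.cast_le.2 (card_le_card ?_)) (h1.trans (num3 B n g50))
        intro l hl
        obtain ⟨m1, ⟨m2, m3⟩, m4⟩ := mem_filter.1 hl
        refine mem_filter.2 ⟨RCfg.mem_box.2 ⟨H.memSlice.2 m2, ?_⟩, ?_⟩
        · refine H.loose_mono (fun _ => le_rfl) ?_ (gb k l0 l hal0 m2 m3)
          rw [hKeε]; linarith
        · have e5 : (Dt n).P l + e * (Dt n).C l ^ 2 / 2 + b * (Dt n).C l =
              (Dt n).V e b l := by unfold Dat.V; ring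
          rw [e5]
          exact m4
      exact (le_of_eq (by congr!)).trans h6'
    · -- H8
      intro k hk
      refine le_trans ?_ (gfr k hk)
      refine Nat.cast_le.2 (card_le_card ?_)
      intro k' hk'
      obtain ⟨m1, m2⟩ := mem_filter.1 hk'
      unfold RCfg.hbox
      refine mem_filter.2 ⟨m1, ?_⟩
      rw [hφ n] at m2
      rw [H.base n]
      exact m2
  linarith

end Crest.Agent.R116.Sc858z
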