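import Crest.Agent.R116.Sg3a_635
import Crest.Agent.R116.WinG_954

/-!
# R116, K-TEXT II-c, SIG2 (`σ = 2`, helper905), Sc5b: the letters of the plane `Σ` (helper748)

Over `OutS` on the plane `Σ` (635's letters) with `θb = 2 θa`: the groups are `0`, `kz`, `kX` and
`kN = kF` (slots `9`, `11`).

* `lam_nf` : values of the tangent on boxes with `N = F`.
* `dens`, `frost`, `plat`, `decC` : the hypotheses of the window statements.
* `field` : `(1 - s) t ≤ 2 (lam pC - lam pH) - (lam p0 - lam pA)` ⊢ `1 - s ≤ r kN - r kX`.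
-/

set_option autoImplicit false
set_option linter.unusedVariables false
set_option linter.unusedSectionVars false

open Set Filter Topology

namespace Crest.Agent.R116.Sc5b748

open Crest.Agent.R136
open Crest.Agent.R136.Net191
open Dg219 (gset OutS gC dhC nC)
open Sg337 (bx9)
open Sg635 (aS bS LMd mem_bx kz kX kN kF g_zero g6 gset_sum2 dh_single kz_ne kX_ne kN_ne kF_ne
  kz_kX kz_kN kz_kF kX_kN kX_kF kN_kF)

variable {θa θb : ℝ} {lam : (Fin 12 → ℝ) → ℝ} {A : ℝ × ℝ} {φ : ℕ → (Fin 12 → ℝ) → ℝ} {r : ℕ → ℝ}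

/-- the groups at `σ = 2` -/
theorem grp2 (ha : θa ≠ 0) (h2 : θb = 2 * θa) (i : Fin 12) :
    (gC aS (bS θa θb) i = kz θa θb ↔ i = 0) ∧
    (gC aS (bS θa θb) i = kX θa θb ↔ i = 5 ∨ i = 6) ∧
    (gC aS (bS θa θb) i = kN θa θb ↔ i = 9 ∨ i = 11) := by
  have a1 : kz θa θb ≠ kX θa θb := fun h => ha (kz_kX.1 h)
  have a2 : kz θa θb ≠ kN θa θb := fun h => ha (kz_kN.1 h)
  have a4 : kX θa θb ≠ kN θa θb := fun h => ha (kX_kN.1 h)
  have b1 := (kz_ne (θa := θa) (θb := θb)).symm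
  have b2 := (kX_ne (θa := θa) (θb := θb)).symm
  have b3 := (kN_ne (θa := θa) (θb := θb)).symm
  have eF : kF θa θb = kN θa θb := (kN_kF.2 h2).symm
  by_cases hi : i ∈ ({1, 2, 3, 4, 7, 8, 10} : Finset (Fin 12))
  · have hg : gC aS (bS θa θb) i = 0 := g_zero.2 hi
    rw [hg]
    fin_cases i <;> simp at hi ⊢ <;> exact ⟨b1, b2, b3⟩
  · have e0 : gC aS (bS θa θb) 0 = kz θa θb := rfl
    have e5 : gC aS (bS θa θb) 5 = kX θa θb := rfl
    have e9 : gC aS (bS θa θb) 9 = kN θa θb := rfl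
    have e11 : gC aS (bS θa θb) 11 = kN θa θb := eF
    fin_cases i <;> simp at hi ⊢
    · simp [e0, a1, a2]
    · simp [e5, a1.symm, a4]
    · simp [g6, a1.symm, a4]
    · simp [e9, a2.symm, a4.symm]
    · simp [e11, a2.symm, a4.symm]

theorem bx0 {z E C X B P u : ℝ} (i : Fin 12)
    (hi : i ∈ ({1, 2, 3, 4, 7, 8, 10} : Finset (Fin 12))) :
    bx9 z 0 E C X B u P u i = bx9 0 0 E C 0 B 0 P 0 i := by
  simp only [Finset.mem_insert, Finset.mem_singleton] at hi
  rcases hi with rfl | rfl | rfl | rfl | rfl | rfl | rfl <;> simp [bx9]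

theorem bx_vals {z E C X B P u : ℝ} :
    bx9 z 0 E C X B u P u 0 = z ∧ bx9 z 0 E C X B u P u 5 = X ∧ bx9 z 0 E C X B u P u 6 = X ∧
    bx9 z 0 E C X B u P u 9 = u ∧ bx9 z 0 E C X B u P u 11 = u := by
  refine ⟨?_, ?_, ?_, ?_, ?_⟩ <;> simp [bx9]

/-- **values on boxes with `N = F`** -/
theorem lam_nf (H : OutS (gC aS (bS θa θb)) LMd (dhC aS (bS θa θb)) (nC aS (bS θa θb)) lam A φ r)
    (ha : θa ≠ 0) (h2 : θb = 2 * θa) {z E C X B P u : ℝ}
    (hm : bx9 z 0 E C X B u P u ∈ LMd) :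
    lam (bx9 z 0 E C X B u P u) =
      φ 0 (bx9 0 0 E C 0 B 0 P 0) - r (kz θa θb) * z - r (kX θa θb) * X - r (kN θa θb) * u := by
  obtain ⟨d0, d5, d6, d9, d11⟩ := dh_single (θa := θa) (θb := θb)
  obtain ⟨v0, v5, v6, v9, v11⟩ := bx_vals (z := z) (E := E) (C := C) (X := X) (B := B) (P := P)
    (u := u)
  have v1 : ∀ i ∈ ({1, 2, 3, 4, 7, 8, 10} : Finset (Fin 12)),
      bx9 z 0 E C X B u P u i = bx9 0 0 E C 0 B 0 P 0 i := bx0
  generalize bx9 z 0 E C X B u P u = c at *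
  generalize bx9 0 0 E C 0 B 0 P 0 = c' at *
  have hs := H.sum _ hm
  have hs2 := (gset_sum2 ha h2 fun k => φ k c).2
  have e0 : φ 0 c = φ 0 c' := H.loc 0 _ _ fun i hi => v1 i (g_zero.1 hi)
  have ez : φ (kz θa θb) c = -(r (kz θa θb) * z) := by
    refine H.rate _ _ hm z fun i hi => ?_
    rw [(grp2 ha h2 i).1.1 hi, d0, v0, mul_one]
  have eX : φ (kX θa θb) c = -(r (kX θa θb) * X) := by
    refine H.rate _ _ hm X fun i hi => ?_
    rcases (grp2 ha h2 i).2.1.1 hi with h | h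
    · rw [h, d5, v5, mul_one]
    · rw [h, d6, v6, mul_one]
  have eN : φ (kN θa θb) c = -(r (kN θa θb) * u) := by
    refine H.rate _ _ hm u fun i hi => ?_
    rcases (grp2 ha h2 i).2.2.1 hi with h | h
    · rw [h, d9, v9, mul_one]
    · rw [h, d11, v11, mul_one]
  rw [hs, hs2, e0, ez, eX, eN]
  ring

section facts

variable (H : OutS (gC aS (bS θa θb)) LMd (dhC aS (bS θa θb)) (nC aS (bS θa θb)) lam A φ r)
  (ha : θa ≠ 0) (h2 : θb = 2 * θa) {t : ℝ}

include H ha h2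

theorem phi0 : φ 0 (bx9 0 0 0 0 0 0 0 0 0) = 0 :=
  H.zero 0 _ fun i _ => by fin_cases i <;> simp [bx9]

/-- the height slot alone -/
theorem lam_z (y : ℝ) (hy : 0 ≤ y) : lam (bx9 y 0 0 0 0 0 0 0 0) = -(r (kz θa θb) * y) := by
  rw [lam_nf H ha h2 (mem_bx.2 ⟨by linarith, by linarith, by linarith, by linarith, by linarith,
    by linarith, by linarith⟩), phi0 H ha h2]
  ring

/-- the linear part: density of the window -/
theorem dens (ht : 0 ≤ t) : lam (bx9 t 0 t t t t t t t) ≤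
    lam (bx9 0 0 t t t t t t t) + lam (bx9 t 0 0 0 0 0 0 0 0) := by
  rw [lam_z H ha h2 t ht, lam_nf H ha h2 (mem_bx.2 ⟨by linarith, by linarith, by linarith,
    by linarith, by linarith, by linarith, by linarith⟩), lam_nf H ha h2 (mem_bx.2 ⟨by linarith,
    by linarith, by linarith, by linarith, by linarith, by linarith, by linarith⟩)]
  linarith

theorem frost {σ : ℝ} (hz : σ ≤ r (kz θa θb)) (y : ℝ) (hy : 0 ≤ y) :
    lam (bx9 y 0 0 0 0 0 0 0 0) ≤ -(σ * y) := by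
  rw [lam_z H ha h2 y hy]
  have := mul_le_mul_of_nonneg_right hz hy
  linarith

/-- the class slots and the position slots are decoupled: any flags `(E, C, B, P)` -/
theorem plat (ht : 0 ≤ t) {E C B P : ℝ} (hE : 0 ≤ E) (hC : 0 ≤ C) (hB : 0 ≤ B) (hP : 0 ≤ P)
    (hBE : B ≤ E + C) (hPC : P ≤ C + B) :
    lam (bx9 t 0 0 0 0 0 0 0 0) - lam (bx9 t 0 E C 0 B 0 P 0) =
      lam (bx9 t 0 0 0 t 0 t 0 t) - lam (bx9 t 0 E C t B t P t) := by
  rw [lam_z H ha h2 t ht, lam_nf H ha h2 (mem_bx.2 ⟨by linarith, by linarith, by linarith,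
    by linarith, by linarith, by linarith, by linarith⟩), lam_nf H ha h2 (mem_bx.2 ⟨by linarith,
    by linarith, by linarith, by linarith, by linarith, by linarith, by linarith⟩),
    lam_nf H ha h2 (mem_bx.2 ⟨by linarith, by linarith, by linarith, by linarith, by linarith,
    by linarith, by linarith⟩), phi0 H ha h2]
  ring

/-- **the field** `n1 + h0 ≤ s + x` of `Sg3c` from the inequality of the window -/
theorem field (ht : 0 < t) {s : ℝ}
    (hwin : (1 - s) * t ≤ 2 * (lam (bx9 t 0 0 t 0 t 0 0 0) - lam (bx9 t 0 0 t 0 t t 0 t)) -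
      (lam (bx9 t 0 0 0 0 0 0 0 0) - lam (bx9 t 0 0 0 t 0 t 0 t))) :
    1 - s ≤ r (kN θa θb) - r (kX θa θb) := by
  rw [lam_z H ha h2 t ht.le, lam_nf H ha h2 (mem_bx.2 ⟨by linarith, by linarith, by linarith,
    by linarith, by linarith, by linarith, by linarith⟩), lam_nf H ha h2 (mem_bx.2 ⟨by linarith,
    by linarith, by linarith, by linarith, by linarith, by linarith, by linarith⟩),
    lam_nf H ha h2 (mem_bx.2 ⟨by linarith, by linarith, by linarith, by linarith, by linarith,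
    by linarith, by linarith⟩), phi0 H ha h2] at hwin
  have h3 : (1 - s) * t ≤ (r (kN θa θb) - r (kX θa θb)) * t := by linarith
  exact le_of_mul_le_mul_right h3 ht

end facts

end Crest.Agent.R116.Sc5b748
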