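import Crest.Agent.R116.Sc3_299
import Crest.Agent.R116.Sc4a_708

/-!
# R116, SIG2 (sigma = 2), plug, part 1: strips in the models (helper803)

* `addT_of_gc` : the slots `3`, `10` are additive up to the class of the second pair.
* `noStrC_A` : strips of the box `0` ⊢ strips of the box `pA` (708's `noStrC_fan`).
* `strips_A` : the same in global coordinates (708's `strips_glob`).
-/

set_option autoImplicit false
set_option linter.unusedVariables false
set_option linter.unusedSectionVars false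

open Filter Topology Finset

namespace Crest.Agent.R116.Sc5803

open Crest.Agent.R138.Ex926 (Base U)
open Crest.Agent.R136.Gf356
open Crest.Agent.R116.Sc299 (GC)
open Crest.Agent.R116.Sc708

/-- powers -/
theorem pwk (B : Base) (n : ℕ) (t ε : ℝ) (k : ℕ) :
    B.d n ^ (t - k * ε) = B.d n ^ t * (B.d n ^ (-ε)) ^ k := by
  rw [← Real.rpow_natCast (B.d n ^ (-ε)), ← Real.rpow_mul (B.pos n).le,
    ← Real.rpow_add (B.pos n)]
  congr 1; ring

section

variable {B : Base} {G : ℕ → RCfg (Fin 12)} {al : ℕ → ℝ}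
  {AX AH AF C P Bf : ℕ → ℕ → ℝ} {Ef : ℕ → ℕ → ℕ → ℝ} {x : ℝ}

set_option maxHeartbeats 1600000 in
/-- **additivity of the slots `3`, `10`** -/
theorem addT_of_gc (g : GC B G al AX AH AF C P Bf Ef x) (hb : ∀ n, (G n).ρ = B.d n)
    {p0 pC : Fin 12 → ℝ} {t : ℝ} (ht : t ≤ x) (h3 : t ≤ pC 3) : AddT B G p0 pC 3 10 6 t := by
  intro ε hε
  filter_upwards [g.al0 ε hε, g.bd ε hε, g.r3 ε hε, g.r10 ε hε,
    Crest.Agent.R136.Gf356.ev_const_le B hε 22] with n a0 bd r3 r10 h22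
  intro k i l m hi hl hm _ hlm
  have hd := B.pos n
  have hd1 := (B.lt n).le
  set M : ℝ := B.d n ^ (-ε) with hM
  set r : ℝ := B.d n ^ t with hr
  have hr0 : 0 < r := Real.rpow_pos_of_pos hd _
  have hM1 : 22 ≤ M := h22
  have hM0 : 0 < M := by linarith
  have ex : B.d n ^ (x - ε) ≤ r * M := by
    rw [hr, hM, ← Real.rpow_add hd]
    exact Real.rpow_le_rpow_of_exponent_ge hd hd1 (by linarith)
  have ec : |(G n).rel k l m 3| ≤ r * M := by
    refine (hlm 3).trans ?_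
    rw [hb, hr, hM, ← Real.rpow_add hd]
    exact Real.rpow_le_rpow_of_exponent_ge hd hd1 (by linarith)
  have e6 : B.d n ^ (t - 6 * ε) = r * M ^ 6 := by
    have := pwk B n t ε 6
    rw [hr, hM, ← this]
    norm_num
  rw [e6]
  obtain ⟨-, -, -, -, bC, -, bB, bE⟩ := bd k i hi
  obtain ⟨-, -, -, -, bC', -, bB', bE'⟩ := bd k l hl
  obtain ⟨-, -, -, -, bC'', -, -, -⟩ := bd k m hm
  have s1 := (r3 k i m hi hm).trans ex
  have s2 := (r3 k i l hi hl).trans ex
  have s3 := (r3 k l m hl hm).trans ex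
  have t1 := (r10 k i m hi hm).trans ex
  have t2 := (r10 k i l hi hl).trans ex
  have t3 := (r10 k l m hl hm).trans ex
  have hrM : 0 < r * M := mul_pos hr0 hM0
  have m2 : M ≤ M ^ 2 := by nlinarith
  have m3 : M ^ 2 ≤ M ^ 3 := by nlinarith [sq_nonneg M]
  have m4 : M ^ 3 ≤ M ^ 4 := by nlinarith [pow_pos hM0 3]
  have m5 : M ^ 4 ≤ M ^ 5 := by nlinarith [pow_pos hM0 4]
  have m6 : 22 * M ^ 5 ≤ M ^ 6 := by nlinarith [pow_pos hM0 5]
  have m15 : M ≤ M ^ 5 := by linarith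
  have m25 : M ^ 2 ≤ M ^ 5 := by linarith
  constructor
  · have e : (G n).rel k i m 3 - ((G n).rel k i l 3 + (G n).rel k l m 3) =
        ((G n).rel k i m 3 - (C n m - C n i)) - ((G n).rel k i l 3 - (C n l - C n i)) -
          ((G n).rel k l m 3 - (C n m - C n l)) := by ring
    rw [e]
    have w1 := abs_le.1 s1
    have w2 := abs_le.1 s2
    have w3 := abs_le.1 s3
    have : 3 * (r * M) ≤ r * M ^ 6 := by
      have : r * (3 * M) ≤ r * M ^ 6 := mul_le_mul_of_nonneg_left (by linarith [pow_pos hM0 5]) hr0.le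
      linarith
    rw [abs_le]
    constructor <;> linarith [w1.1, w1.2, w2.1, w2.2, w3.1, w3.2]
  · set κ : ℝ := 1 + al n ^ 2 with hκ
    have hκ0 : 0 ≤ κ := by positivity
    have hκM : κ ≤ 2 * M ^ 2 := by
      have h1 : al n ^ 2 ≤ M ^ 2 := by
        rw [← sq_abs]
        exact pow_le_pow_left₀ (abs_nonneg _) a0 2
      have h2 : 1 ≤ M ^ 2 := by nlinarith
      rw [hκ]; linarith
    have hcc : |C n m - C n l| ≤ 2 * (r * M) := by
      have e : C n m - C n l = (G n).rel k l m 3 - ((G n).rel k l m 3 - (C n m - C n l)) := by ring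
      rw [e]
      exact (abs_sub _ _).trans (by linarith)
    have e : (G n).rel k i m 10 - ((G n).rel k i l 10 + (G n).rel k l m 10) =
        (((G n).rel k i m 10 - (P n m - P n i + Bf n i * (C n m - C n i) +
            κ * Ef n k i * (C n m - C n i) ^ 2 / 2)) -
          ((G n).rel k i l 10 - (P n l - P n i + Bf n i * (C n l - C n i) +
            κ * Ef n k i * (C n l - C n i) ^ 2 / 2)) -
          ((G n).rel k l m 10 - (P n m - P n l + Bf n l * (C n m - C n l) +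
            κ * Ef n k l * (C n m - C n l) ^ 2 / 2))) +
        ((Bf n i - Bf n l) + κ / 2 * (Ef n k i * (C n m + C n l - 2 * C n i) -
          Ef n k l * (C n m - C n l))) * (C n m - C n l) := by ring
    rw [e]
    have c1 : |Bf n i - Bf n l| ≤ 2 * M := (abs_sub _ _).trans (by linarith)
    have c2 : |C n m + C n l - 2 * C n i| ≤ 4 * M := by
      have w1 := abs_le.1 bC
      have w2 := abs_le.1 bC'
      have w3 := abs_le.1 bC''
      rw [abs_le]; constructor <;> linarith [w1.1, w1.2, w2.1, w2.2, w3.1, w3.2]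
    have c3 : |C n m - C n l| ≤ 2 * M := (abs_sub _ _).trans (by linarith)
    have c4 : |Ef n k i * (C n m + C n l - 2 * C n i) - Ef n k l * (C n m - C n l)| ≤
        6 * M ^ 2 := by
      refine (abs_sub _ _).trans ?_
      rw [abs_mul, abs_mul]
      have u1 := mul_le_mul bE c2 (abs_nonneg _) hM0.le
      have u2 := mul_le_mul bE' c3 (abs_nonneg _) hM0.le
      nlinarith
    have c5 : |κ / 2 * (Ef n k i * (C n m + C n l - 2 * C n i) -
        Ef n k l * (C n m - C n l))| ≤ 6 * M ^ 4 := by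
      rw [abs_mul, abs_of_nonneg (by positivity : 0 ≤ κ / 2)]
      calc κ / 2 * _ ≤ (M ^ 2) * (6 * M ^ 2) :=
            mul_le_mul (by linarith) c4 (abs_nonneg _) (by positivity)
        _ = 6 * M ^ 4 := by ring
    have c6 : |((Bf n i - Bf n l) + κ / 2 * (Ef n k i * (C n m + C n l - 2 * C n i) -
          Ef n k l * (C n m - C n l))) * (C n m - C n l)| ≤ 16 * (r * M ^ 5) := by
      rw [abs_mul]
      have u1 : |(Bf n i - Bf n l) + κ / 2 * (Ef n k i * (C n m + C n l - 2 * C n i) -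
          Ef n k l * (C n m - C n l))| ≤ 8 * M ^ 4 := (abs_add_le _ _).trans (by linarith)
      calc _ ≤ (8 * M ^ 4) * (2 * (r * M)) :=
            mul_le_mul u1 hcc (abs_nonneg _) (by positivity)
        _ = 16 * (r * M ^ 5) := by ring
    have k1 : 3 * (r * M) ≤ 3 * (r * M ^ 5) := by
      have := mul_le_mul_of_nonneg_left m15 hr0.le
      linarith
    have k2 : 22 * (r * M ^ 5) ≤ r * M ^ 6 := by
      have := mul_le_mul_of_nonneg_left m6 hr0.le
      linarith
    have hp5 : 0 < r * M ^ 5 := mul_pos hr0 (pow_pos hM0 5)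
    have w1 := abs_le.1 t1
    have w2 := abs_le.1 t2
    have w3 := abs_le.1 t3
    have w4 := abs_le.1 c6
    rw [abs_le]
    constructor <;> linarith [w1.1, w1.2, w2.1, w2.2, w3.1, w3.2, w4.1, w4.2]

variable {Leg : Set (Fin 12 → ℝ)} {ν : (Fin 12 → ℝ) → ℝ} {D : ℝ}

/-- **strips of the box `0` ⊢ strips of the box `pA`** -/
theorem noStrC_A (H : RUnif B G Leg ν D) (g : GC B G al AX AH AF C P Bf Ef x)
    {pA : Fin 12 → ℝ} {pC pAC : ℝ → Fin 12 → ℝ} {q R0 R1 : ℝ}
    (h0 : (0 : Fin 12 → ℝ) ∈ Leg) (hA : pA ∈ Leg) (hC : ∀ t, 0 < t → t ≤ R1 → pC t ∈ Leg)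
    (hAC : ∀ t, 0 < t → t ≤ R1 → pAC t ∈ Leg)
    (hC0 : ∀ t, 0 < t → t ≤ R1 → ∀ s, 0 ≤ pC t s) (hA0 : ∀ s, 0 ≤ pA s)
    (h3 : ∀ t, 0 < t → t ≤ R1 → t ≤ pC t 3) (h10 : ∀ t, 0 < t → t ≤ R1 → t ≤ pC t 10)
    (hmax : ∀ t, 0 < t → t ≤ R1 → ∀ s, pAC t s ≤ max (pC t s) (pA s))
    (hN : NoStrC B G 0 3 10 ν q R0) (hRR : R1 ≤ R0) (hRx : R1 ≤ x)
    (hprod : ∀ t, 0 < t → t ≤ R1 → ν 0 - ν (pC t) ≤ ν pA - ν (pAC t)) :
    NoStrC B G pA 3 10 ν q R1 :=
  noStrC_fan H h0 hA hC hAC (fun t h1 h2 s => hC0 t h1 h2 s) (fun s => hA0 s) h3 h10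
    (hA0 3) hmax (by norm_num : (0 : ℝ) < 6) hN hRR
    (fun t h1 h2 => addT_of_gc g H.base (h2.trans hRx) (h3 t h1 h2)) hprod

/-- **curved strips in global coordinates** -/
theorem strips_A (H : RUnif B G Leg ν D) (g : GC B G al AX AH AF C P Bf Ef x)
    {El : ℕ → ℕ → ℝ} (hE : ∀ ε : ℝ, 0 < ε → ∀ᶠ n in (U : Filter ℕ), ∀ k l,
      (l, k) ∈ (G n).I → |Ef n k l - El n l| ≤ B.d n ^ (x - ε))
    {pA : Fin 12 → ℝ} {q R1 : ℝ} (hx : 0 ≤ x)
    (hA : pA ∈ Leg) (hA0 : 0 ≤ pA 3) (hRx : R1 ≤ x) (hN : NoStrC B G pA 3 10 ν q R1) :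
    ∃ K : ℝ, 0 ≤ K ∧ ∀ r : ℝ, 0 < r → r ≤ R1 → ∀ ε : ℝ, 0 < ε → ∀ᶠ n in (U : Filter ℕ),
      ∀ i k, (i, k) ∈ (G n).I → ∀ e b u : ℝ, |e| ≤ B.d n ^ (-ε) → |b| ≤ B.d n ^ (-ε) →
      ((((G n).box pA ε i k).filter fun l =>
        |P n l + e * C n l ^ 2 / 2 + b * C n l - u| ≤ B.d n ^ r).card : ℝ) ≤
        B.d n ^ (-(ν pA) + q * r - K * ε) := by
  classical
  have key := strips_glob H hA hA0 hRx (by norm_num : (0 : ℝ) ≤ 6) hN C P Bf
    (fun n i => (1 + al n ^ 2) / 2 * El n i) ?_ ?_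
  · convert key
  · intro ε hε
    have hε4 : 0 < ε / 4 := by positivity
    filter_upwards [g.al0 _ hε4, g.bd _ hε4, hE _ hε4, g.bd _ hε,
      Crest.Agent.R136.Gf356.ev_const_le B hε4 2] with n a0 bd he bdε h2
    intro i k hi
    obtain ⟨-, -, -, -, bC, -, bB, -⟩ := bdε k i hi
    obtain ⟨-, -, -, -, -, -, -, bE⟩ := bd k i hi
    refine ⟨bC, bB, ?_⟩
    have hd := B.pos n
    set M : ℝ := B.d n ^ (-(ε / 4)) with hM
    have hM0 : 0 < M := by linarith
    have e4 : B.d n ^ (-ε) = M ^ 4 := by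
      have := pwk B n 0 (ε / 4) 4
      rw [Real.rpow_zero, one_mul] at this
      rw [hM, ← this]
      congr 1; push_cast; ring
    rw [e4]
    have hEl : |El n i| ≤ 2 * M := by
      have h1 := he k i hi
      have h3 : B.d n ^ (x - ε / 4) ≤ M := by
        rw [hM]
        exact Real.rpow_le_rpow_of_exponent_ge hd (B.lt n).le (by linarith)
      have e : El n i = Ef n k i - (Ef n k i - El n i) := by ring
      rw [e]
      exact (abs_sub _ _).trans (by linarith)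
    have hκ : (1 + al n ^ 2) / 2 ≤ M ^ 2 := by
      have h1 : al n ^ 2 ≤ M ^ 2 := by
        rw [← sq_abs]
        exact pow_le_pow_left₀ (abs_nonneg _) a0 2
      have h2 : 1 ≤ M ^ 2 := by nlinarith
      linarith
    rw [abs_mul, abs_of_nonneg (by positivity : 0 ≤ (1 + al n ^ 2) / 2)]
    calc (1 + al n ^ 2) / 2 * |El n i| ≤ M ^ 2 * (2 * M) :=
          mul_le_mul hκ hEl (abs_nonneg _) (by positivity)
      _ = 2 * M ^ 3 := by ring
      _ ≤ M * M ^ 3 := mul_le_mul_of_nonneg_right h2 (by positivity)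
      _ = M ^ 4 := by ring
  · intro ε hε
    filter_upwards [g.al0 _ hε, g.bd _ hε, hE _ hε, g.r3 _ hε, g.r10 _ hε,
      Crest.Agent.R136.Gf356.ev_const_le B hε 5] with n a0 bd he r3 r10 h5
    intro i k l hi hl
    have hd := B.pos n
    have hd1 := (B.lt n).le
    set M : ℝ := B.d n ^ (-ε) with hM
    set r : ℝ := B.d n ^ x with hr
    have hr0 : 0 < r := Real.rpow_pos_of_pos hd _
    have hM0 : 0 < M := by linarith
    have e1 : B.d n ^ (x - ε) = r * M := by
      rw [hr, hM, ← Real.rpow_add hd]; congr 1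
    have e6 : B.d n ^ (x - 6 * ε) = r * M ^ 6 := by
      have := pwk B n x ε 6
      rw [hr, hM, ← this]
      norm_num
    obtain ⟨-, -, -, -, bC, -, -, -⟩ := bd k i hi
    obtain ⟨-, -, -, -, bC', -, -, -⟩ := bd k l hl
    have s1 := r3 k i l hi hl
    have s2 := r10 k i l hi hl
    have s3 := he k i hi
    rw [e1] at s1 s2 s3
    rw [e6]
    have m1 : 1 ≤ M := by linarith
    have m6 : M ≤ M ^ 6 := le_self_pow₀ m1 (by norm_num)
    have m56 : 5 * M ^ 5 ≤ M ^ 6 := by nlinarith [pow_pos hM0 5]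
    have m15 : M ≤ M ^ 5 := le_self_pow₀ m1 (by norm_num)
    refine ⟨s1.trans (mul_le_mul_of_nonneg_left m6 hr0.le), ?_⟩
    have hκ : (1 + al n ^ 2) / 2 ≤ M ^ 2 := by
      have h1 : al n ^ 2 ≤ M ^ 2 := by
        rw [← sq_abs]
        exact pow_le_pow_left₀ (abs_nonneg _) a0 2
      have h2 : 1 ≤ M ^ 2 := by nlinarith
      linarith
    have hcc : (C n l - C n i) ^ 2 ≤ 4 * M ^ 2 := by
      have h1 : |C n l - C n i| ≤ 2 * M := (abs_sub _ _).trans (by linarith)
      rw [← sq_abs]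
      calc |C n l - C n i| ^ 2 ≤ (2 * M) ^ 2 := pow_le_pow_left₀ (abs_nonneg _) h1 2
        _ = 4 * M ^ 2 := by ring
    have e : (G n).rel k i l 10 - ((P n l - P n i) + Bf n i * (C n l - C n i) +
        (1 + al n ^ 2) / 2 * El n i * (C n l - C n i) ^ 2) =
        ((G n).rel k i l 10 - (P n l - P n i + Bf n i * (C n l - C n i) +
          (1 + al n ^ 2) * Ef n k i * (C n l - C n i) ^ 2 / 2)) +
        (1 + al n ^ 2) / 2 * ((Ef n k i - El n i) * (C n l - C n i) ^ 2) := by ring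
    rw [e]
    have c1 : |(1 + al n ^ 2) / 2 * ((Ef n k i - El n i) * (C n l - C n i) ^ 2)| ≤
        4 * (r * M ^ 5) := by
      rw [abs_mul, abs_mul, abs_of_nonneg (by positivity : 0 ≤ (1 + al n ^ 2) / 2),
        abs_of_nonneg (sq_nonneg (C n l - C n i))]
      have u1 : |Ef n k i - El n i| * (C n l - C n i) ^ 2 ≤ (r * M) * (4 * M ^ 2) :=
        mul_le_mul s3 hcc (sq_nonneg _) (by positivity)
      calc (1 + al n ^ 2) / 2 * (|Ef n k i - El n i| * (C n l - C n i) ^ 2) ≤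
            M ^ 2 * ((r * M) * (4 * M ^ 2)) :=
            mul_le_mul hκ u1 (mul_nonneg (abs_nonneg _) (sq_nonneg _)) (by positivity)
        _ = 4 * (r * M ^ 5) := by ring
    have k1 : r * M ≤ r * M ^ 5 := mul_le_mul_of_nonneg_left m15 hr0.le
    have k2 : 5 * (r * M ^ 5) ≤ r * M ^ 6 := by
      have := mul_le_mul_of_nonneg_left m56 hr0.le
      linarith
    refine (abs_add_le _ _).trans ?_
    linarith

end

end Crest.Agent.R116.Sc5803
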