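import Crest.Agent.R116.Sc7_299
import Crest.Agent.R116.Sc6_299
import Crest.Agent.R116.Sc5m_803
import Crest.Agent.R116.ThinD_954

/-!
# R116, SIG2 (sigma = 2), plug, part 2: the two orientations (helper803)

* `RUnif.swp`, `RModel.swp`, `NoStrC.swp` : the models with exchanged slots (299's `swG`).
* `thin3`, `thin4` : 954's `ThinU` ⊢ 710's `Thin` for `G`, resp. for `swG G`.
-/

set_option autoImplicit false
set_option linter.unusedVariables false
set_option linter.unusedSectionVars false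

open Filter Topology Finset

namespace Crest.Agent.R116.Sc5803

open Crest.Agent.R138.Ex926 (Base U)
open Crest.Agent.R136.Gf356
open Crest.Agent.R116.Sc299 (GC swf swf_swf swG swG_rel)
open Crest.Agent.R116.Sc708
open Crest.Agent.R116.Kr710 (Thin ThinU)

/-- exchanged exponents -/
def swe (p : Fin 12 → ℝ) : Fin 12 → ℝ := fun s => p (swf s)

theorem swe_swe (p : Fin 12 → ℝ) : swe (swe p) = p := by
  funext s
  show p (swf (swf s)) = p s
  rw [swf_swf]

theorem loose_swp (G : RCfg (Fin 12)) (p : Fin 12 → ℝ) (ε : ℝ) (k i l : ℕ) :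
    (swG G).loose p ε k i l ↔ G.loose (swe p) ε k i l := by
  constructor
  · intro h j
    have := h (swf j)
    rw [swG_rel, swf_swf] at this
    exact this
  · intro h j
    have := h (swf j)
    unfold swe at this
    rw [swf_swf] at this
    exact this

theorem slice_swp (G : RCfg (Fin 12)) (k : ℕ) : (swG G).slice k = G.slice k := rfl

theorem box_swp (G : RCfg (Fin 12)) (p : Fin 12 → ℝ) (ε : ℝ) (i k : ℕ) :
    (swG G).box p ε i k = G.box (swe p) ε i k := by
  ext l
  rw [RCfg.mem_box, RCfg.mem_box, loose_swp, slice_swp]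

section models

variable {B : Base} {G : ℕ → RCfg (Fin 12)} {Leg : Set (Fin 12 → ℝ)} {ν : (Fin 12 → ℝ) → ℝ}
  {σ R D : ℝ}

theorem RUnif.swp (H : RUnif B G Leg ν D) :
    RUnif B (fun n => swG (G n)) {p | swe p ∈ Leg} (fun p => ν (swe p)) D where
  D1 := H.D1
  base := H.base
  sub := H.sub
  nonempty := H.nonempty
  refl := fun n k i hi j => H.refl n k i hi (swf j)
  symm := by
    intro p hp ε hε
    filter_upwards [H.symm (swe p) hp ε hε] with n h k i l hi hl h1
    exact (loose_swp _ _ _ _ _ _).2 (h k i l hi hl ((loose_swp _ _ _ _ _ _).1 h1))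
  tri := by
    intro p hp ε hε
    filter_upwards [H.tri (swe p) hp ε hε] with n h k i l m hi hl hm h1 h2
    exact (loose_swp _ _ _ _ _ _).2 (h k i l m hi hl hm ((loose_swp _ _ _ _ _ _).1 h1)
      ((loose_swp _ _ _ _ _ _).1 h2))
  low := by
    intro p hp ε hε
    filter_upwards [H.low (swe p) hp ε hε] with n h i k hi
    rw [box_swp]
    exact h i k hi
  up := by
    intro p hp ε hε
    filter_upwards [H.up (swe p) hp ε hε] with n h i k hi
    rw [box_swp]
    exact h i k hi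

/-- **the model with exchanged slots** -/
theorem RModel.swp (H : RModel B G σ R Leg ν D) :
    RModel B (fun n => swG (G n)) σ R {p | swe p ∈ Leg} (fun p => ν (swe p)) D where
  toRUnif := RUnif.swp H.toRUnif
  σ_nonneg := H.σ_nonneg
  σ_le := H.σ_le
  line := H.line
  slice := H.slice
  frost := H.frost

/-- strips of the slots `4`, `10` become strips of the slots `3`, `10` -/
theorem NoStrC.swp {q R0 : ℝ} (h : NoStrC B G 0 4 10 ν q R0) :
    NoStrC B (fun n => swG (G n)) 0 3 10 (fun p => ν (swe p)) q R0 := by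
  obtain ⟨K, hK, h⟩ := h
  refine ⟨K, hK, fun t ht htR ε hε => ?_⟩
  filter_upwards [h t ht htR ε hε] with n hn i k hik b g hb hg
  have e : (swG (G n)).box 0 ε i k = (G n).box 0 ε i k := box_swp _ _ _ _ _
  have := hn i k hik b g hb hg
  rw [← e] at this
  exact this

/-- **live slots `3, 5, 7`** -/
theorem thin3 {S : Finset (Fin 12)} {b : ℕ → Fin 2 → ℝ} {x c : ℝ} (hc : 0 < c)
    (T : ThinU B G b x) (hb : ∀ᶠ n in (U : Filter ℕ), c ≤ |b n 1|) :
    Thin B G S (fun n => -(b n 0) / b n 1) x where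
  bd := by
    intro ε hε
    filter_upwards [hb, T.one, Crest.Agent.R136.Gf356.ev_const_le B hε c⁻¹] with n h1 h2 h3
    have hb0 : |b n 0| ≤ 1 := by
      rw [← sq_le_one_iff_abs_le_one]; nlinarith [sq_nonneg (b n 1)]
    rw [abs_div, abs_neg]
    have hb1 : 0 < |b n 1| := lt_of_lt_of_le hc h1
    refine le_trans ?_ h3
    rw [div_le_iff₀ hb1]
    have : 1 ≤ c⁻¹ * |b n 1| := by
      rw [inv_mul_eq_div, le_div_iff₀ hc]; linarith
    linarith
  tc := fun ε hε => thin_aux hc hb (fun ε hε => T.tc ε hε) ε hε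
  tx := fun ε hε => thin_aux hc hb (fun ε hε => T.tx ε hε) ε hε
  tb := fun ε hε => thin_aux hc hb (fun ε hε => T.tb ε hε) ε hε
where
  thin_aux {B : Base} {G : ℕ → RCfg (Fin 12)} {b : ℕ → Fin 2 → ℝ} {x c : ℝ} (hc : 0 < c)
    (hb : ∀ᶠ n in (U : Filter ℕ), c ≤ |b n 1|) {s s' : Fin 12}
    (h : ∀ ε : ℝ, 0 < ε → ∀ᶠ n in (U : Filter ℕ), ∀ k i l, (i, k) ∈ (G n).I →
      (l, k) ∈ (G n).I →
      |b n 0 * (G n).rel k i l s + b n 1 * (G n).rel k i l s'| ≤ B.d n ^ (x - ε))
    (ε : ℝ) (hε : 0 < ε) : ∀ᶠ n in (U : Filter ℕ), ∀ k i l, (i, k) ∈ (G n).I →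
      (l, k) ∈ (G n).I →
      |(G n).rel k i l s' - -(b n 0) / b n 1 * (G n).rel k i l s| ≤ B.d n ^ (x - ε) := by
    filter_upwards [hb, h (ε / 2) (by positivity),
      Crest.Agent.R136.Gf356.ev_const_le B (half_pos hε) c⁻¹] with n h1 h2 h3 k i l hi hl
    have hb1 : 0 < |b n 1| := lt_of_lt_of_le hc h1
    have hb1' : b n 1 ≠ 0 := by
      intro h0; rw [h0, abs_zero] at hb1; exact lt_irrefl _ hb1
    have e : (G n).rel k i l s' - -(b n 0) / b n 1 * (G n).rel k i l s =
        (b n 1)⁻¹ * (b n 0 * (G n).rel k i l s + b n 1 * (G n).rel k i l s') := by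
      field_simp
      ring
    rw [e, abs_mul, abs_inv]
    have h5 : |b n 1|⁻¹ ≤ c⁻¹ := inv_anti₀ hc h1
    calc |b n 1|⁻¹ * |b n 0 * (G n).rel k i l s + b n 1 * (G n).rel k i l s'| ≤
          B.d n ^ (-(ε / 2)) * B.d n ^ (x - ε / 2) :=
          mul_le_mul (h5.trans h3) (h2 k i l hi hl) (abs_nonneg _)
            (Real.rpow_pos_of_pos (B.pos n) _).le
      _ = _ := by rw [← Real.rpow_add (B.pos n)]; congr 1; ring

/-- exchanged dead direction -/
def swb (b : ℕ → Fin 2 → ℝ) : ℕ → Fin 2 → ℝ := fun n => ![b n 1, b n 0]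

/-- the thin structure of the exchanged configuration -/
theorem thinU_swp {b : ℕ → Fin 2 → ℝ} {x : ℝ} (T : ThinU B G b x) :
    ThinU B (fun n => swG (G n)) (swb b) x where
  one := by
    filter_upwards [T.one] with n h
    show b n 1 ^ 2 + b n 0 ^ 2 = 1
    linarith
  tc := fun ε hε => by
    filter_upwards [T.tc ε hε] with n h k i l hi hl
    have := h k i l hi hl
    rw [add_comm] at this
    exact this
  tx := fun ε hε => by
    filter_upwards [T.tx ε hε] with n h k i l hi hl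
    have := h k i l hi hl
    rw [add_comm] at this
    exact this
  tb := fun ε hε => by
    filter_upwards [T.tb ε hε] with n h k i l hi hl
    have := h k i l hi hl
    rw [add_comm] at this
    exact this

/-- **live slots `4, 6, 8`** -/
theorem thin4 {S : Finset (Fin 12)} {b : ℕ → Fin 2 → ℝ} {x c : ℝ} (hc : 0 < c)
    (T : ThinU B G b x) (hb : ∀ᶠ n in (U : Filter ℕ), c ≤ |b n 0|) :
    Thin B (fun n => swG (G n)) S (fun n => -(b n 1) / b n 0) x :=
  thin3 hc (thinU_swp T) hb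

end models

/-- the dead direction along the axes -/
theorem tau_big {l : Crest.Agent.R116.ChL222.LInc} {a b : Fin 2} (hab : a ≠ b)
    (ha : |Xd954.bb l a| ≤ 2) (hb : 1 / 2 ≤ |Xd954.bb l b|) : 1 / 9 ≤ |Xd954.tau l b| := by
  have hs : Xd954.bb l 0 ^ 2 + Xd954.bb l 1 ^ 2 = Xd954.bb l a ^ 2 + Xd954.bb l b ^ 2 := by
    fin_cases a <;> fin_cases b
    · exact absurd rfl hab
    · rfl
    · show _ = Xd954.bb l 1 ^ 2 + Xd954.bb l 0 ^ 2
      ring
    · exact absurd rfl hab
  unfold Xd954.tau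
  rw [hs]
  set A := |Xd954.bb l a| with hA
  set Bb := |Xd954.bb l b| with hB
  have hA2 : Xd954.bb l a ^ 2 = A ^ 2 := (sq_abs _).symm
  have hB2 : Xd954.bb l b ^ 2 = Bb ^ 2 := (sq_abs _).symm
  rw [hA2, hB2, abs_div]
  have hA0 : 0 ≤ A := abs_nonneg _
  have hB0 : 0 < Bb := by linarith
  have hsq : Real.sqrt (A ^ 2 + Bb ^ 2) ≤ 9 * Bb := by
    rw [Real.sqrt_le_left (by positivity)]
    nlinarith
  have hsp : 0 < Real.sqrt (A ^ 2 + Bb ^ 2) := Real.sqrt_pos.2 (by positivity)
  rw [abs_of_pos hsp, ← hB, le_div_iff₀ hsp]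
  linarith

end Crest.Agent.R116.Sc5803
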