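import Crest.Agent.R116.Sc3_299

/-!
# R116, SIG2 (sigma = 2), part Sc7 (helper299): global coordinates, live slot `4`

`swf` = the symmetry `(3 4)(5 6)(7 8)` of the chart, `swG` = the configuration with exchanged slots,
`gc_of_sw` : `GC` for `swG (W.cfg E n)` when `rel 3 = al rel 4`, `rel 5 = al rel 6`.
-/

set_option autoImplicit false
set_option linter.unusedVariables false
set_option linter.unusedSectionVars false

open Filter Topology Finset

namespace Crest.Agent.R116.Sc299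

open Crest.Agent.R138.Ex926 (Base U)
open Crest.Agent.R136.Net191 Crest.Agent.R136.Qg926 Crest.Agent.R136.Gf356
open Crest.Agent.R116.ChL222 Crest.Agent.R116.PL504 Crest.Agent.R116.EvL504
open Crest.Agent.R116.Kr710 (LLaw Thin)

/-- the symmetry `(3 4)(5 6)(7 8)` -/
def swf : Fin 12 → Fin 12 := ![0, 1, 2, 4, 3, 6, 5, 8, 7, 9, 10, 11]

theorem swf_swf (s : Fin 12) : swf (swf s) = s := by revert s; decide

theorem swf_ne_one {s : Fin 12} (h : s ≠ 1) : swf s ≠ 1 := by revert h; revert s; decide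

theorem three_le_swf {s : Fin 12} (h : 3 ≤ s) : 3 ≤ swf s := by revert h; revert s; decide

/-- exchanged slots -/
def swG (G : RCfg (Fin 12)) : RCfg (Fin 12) :=
  { G with rel := fun k i l s => G.rel k i l (swf s) }

theorem swG_z (G : RCfg (Fin 12)) (k : ℕ) : (swG G).z k = G.z k := rfl

theorem swG_rel (G : RCfg (Fin 12)) (k i l : ℕ) (s : Fin 12) :
    (swG G).rel k i l s = G.rel k i l (swf s) := rfl

/-- the law is equivariant -/
theorem cp_sw (a c : Fin 12 → ℝ) {s : Fin 12} (h2 : 2 ≤ s) :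
    cp (fun j => a (swf j)) (fun j => c (swf j)) s = cp a c (swf s) := by
  fin_cases s
  · exact absurd h2 (by decide)
  · exact absurd h2 (by decide)
  · show cp _ _ 2 = cp a c 2
    rw [cp2, cp2]; rfl
  · show cp _ _ 3 = cp a c 4
    rw [cp3, cp4]; rfl
  · show cp _ _ 4 = cp a c 3
    rw [cp3, cp4]; rfl
  · show cp _ _ 5 = cp a c 6
    rw [cp5, cp6]; rfl
  · show cp _ _ 6 = cp a c 5
    rw [cp5, cp6]; rfl
  · show cp _ _ 7 = cp a c 8
    rw [cp7, cp8]; rfl
  · show cp _ _ 8 = cp a c 7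
    rw [cp7, cp8]; rfl
  · show cp _ _ 9 = cp a c 9
    rw [cp9, cp9]
    show a 9 + c 9 - a 0 * ((c 4 ^ 2 + c 3 ^ 2) / 2) + a 4 * (c 6 - a 0 * c 4) +
      a 3 * (c 5 - a 0 * c 3) = _
    ring
  · show cp _ _ 10 = cp a c 10
    rw [cp10, cp10]
    show a 10 + c 10 - a 8 * c 4 - a 7 * c 3 - a 2 * ((c 4 ^ 2 + c 3 ^ 2) / 2) = _
    ring
  · show cp _ _ 11 = cp a c 11
    rw [cp11, cp11]
    show a 11 + c 11 - a 0 * c 10 - a 8 * (c 6 - a 0 * c 4) - a 7 * (c 5 - a 0 * c 3) -
      a 2 * (c 9 - a 0 * ((c 4 ^ 2 + c 3 ^ 2) / 2)) = _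
    ring

variable {ι : ℕ → Type*} [∀ n, DecidableEq (ι n)] {W : Wnd 12 ι} {K tp : ℝ}
  {E : ∀ n, Finset (ι n)} {x : ℝ}

/-- position -/
noncomputable def gAXs (W : Wnd 12 ι) (al : ℕ → ℝ) (n l : ℕ) : ℝ :=
  ki al n * (gv W 6 n l + al n * gv W 5 n l)

/-- velocity -/
noncomputable def gCs (W : Wnd 12 ι) (al : ℕ → ℝ) (n l : ℕ) : ℝ :=
  ki al n * (gv W 4 n l + al n * gv W 3 n l)

/-- first flag -/
noncomputable def gBs (W : Wnd 12 ι) (al : ℕ → ℝ) (n l : ℕ) : ℝ := gv W 8 n l + al n * gv W 7 n l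

/-- **global coordinates, exchanged slots** -/
theorem gc_of_sw (h : WL W K tp) (h2 : (2 : Fin 12) ∉ W.S) (h7 : (7 : Fin 12) ∉ W.S)
    (h8 : (8 : Fin 12) ∉ W.S) (t7 : tp ≤ W.top 7) (t8 : tp ≤ W.top 8)
    (hE : ∀ᶠ n in (U : Filter ℕ), Reg W E n) (hX : ∀ᶠ n in (U : Filter ℕ), FrX W K 0 tp n)
    (hx : x ≤ tp) {al : ℕ → ℝ}
    (hal : ∀ ε : ℝ, 0 < ε → ∀ᶠ n in (U : Filter ℕ), |al n| ≤ W.B'.d n ^ (-ε))
    (tc : ∀ ε : ℝ, 0 < ε → ∀ᶠ n in (U : Filter ℕ), ∀ k i l, (i, k) ∈ (W.cfg E n).I →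
      (l, k) ∈ (W.cfg E n).I →
      |(W.cfg E n).rel k i l 3 - al n * (W.cfg E n).rel k i l 4| ≤ W.B'.d n ^ (x - ε))
    (tx : ∀ ε : ℝ, 0 < ε → ∀ᶠ n in (U : Filter ℕ), ∀ k i l, (i, k) ∈ (W.cfg E n).I →
      (l, k) ∈ (W.cfg E n).I →
      |(W.cfg E n).rel k i l 5 - al n * (W.cfg E n).rel k i l 6| ≤ W.B'.d n ^ (x - ε)) :
    GC W.B' (fun n => swG (W.cfg E n)) al (gAXs W al) (gAH W al) (gv W 11) (gCs W al) (gv W 10)
      (gBs W al) (gE W) x := by
  -- the elements
  have ba : ∀ s : Fin 12, Sm W.B' (W.cfg E) 0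
      (fun p : Ix => W.crd p.1 (W.s₀ p.1) (W.rep p.1 p.2.2.1 p.2.1) s) := fun s => bd_of (by
    filter_upwards [hE] with n r
    intro k i l hi hl
    exact h.crd_le r.good r.good.s0 (r.spec hi).1 s)
  have bw : ∀ s : Fin 12, Sm W.B' (W.cfg E) 0
      (fun p : Ix => W.crd p.1 (W.s₀ p.1) (W.rep p.1 p.2.2.2 p.2.1) s) := fun s => bd_of (by
    filter_upwards [hE] with n r
    intro k i l hi hl
    exact h.crd_le r.good r.good.s0 (r.spec hl).1 s)
  have bA : ∀ s : Fin 12, Sm W.B' (W.cfg E) 0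
      (fun p : Ix => gv W s p.1 p.2.2.1) := fun s => bd_of (by
    filter_upwards [hE] with n r
    intro k i l hi hl
    exact h.crd_le r.good r.good.s0 (lrep_reg r hi).1 s)
  have bV : ∀ s : Fin 12, Sm W.B' (W.cfg E) 0
      (fun p : Ix => gv W s p.1 p.2.2.2) := fun s => bd_of (by
    filter_upwards [hE] with n r
    intro k i l hi hl
    exact h.crd_le r.good r.good.s0 (lrep_reg r hl).1 s)
  have bc : ∀ s : Fin 12, Sm W.B' (W.cfg E) 0
      (fun p : Ix => W.crd p.1 (W.rep p.1 p.2.2.1 p.2.1) (W.rep p.1 p.2.2.2 p.2.1) s) :=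
    fun s => bd_of (by
    filter_upwards [hE] with n r
    intro k i l hi hl
    exact h.crd_le r.good (r.spec hi).1 (r.spec hl).1 s)
  have bz : Sm W.B' (W.cfg E) 0 (fun p : Ix => (W.cfg E p.1).z p.2.1) := bd_of (by
    filter_upwards [hE] with n r
    intro k i l hi hl
    show |(W.cfg E n).z k| ≤ 1
    rw [r.z_eq]
    exact h.crd_le r.good r.good.s0 (r.zspec ⟨i, hi⟩).1 _)
  have bal : Sm W.B' (W.cfg E) 0 (fun p : Ix => al p.1) := by
    intro ε hε
    filter_upwards [hal ε hε] with n h1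
    intro k i l hi hl
    rw [zero_sub]
    exact h1
  have bk : Sm W.B' (W.cfg E) 0 (fun p : Ix => ki al p.1) :=
    bd_of (Eventually.of_forall fun n k i l _ _ => ki_le al n)
  have bh : Sm W.B' (W.cfg E) 0 (fun p : Ix => (1 / 2 : ℝ)) :=
    bd_of (Eventually.of_forall fun n k i l _ _ => by
      show |(1 / 2 : ℝ)| ≤ 1
      rw [abs_of_pos (by norm_num)]; norm_num)
  set ea : Fin 12 → bdR W.B' (W.cfg E) := fun s => mkB _ (ba (swf s)) with hea
  set ew : Fin 12 → bdR W.B' (W.cfg E) := fun s => mkB _ (bw (swf s)) with hew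
  set eA : Fin 12 → bdR W.B' (W.cfg E) := fun s => mkB _ (bA (swf s)) with heA
  set eV : Fin 12 → bdR W.B' (W.cfg E) := fun s => mkB _ (bV (swf s)) with heV
  set ec : Fin 12 → bdR W.B' (W.cfg E) := fun s => mkB _ (bc (swf s)) with hec
  set ez : bdR W.B' (W.cfg E) := mkB _ bz with hez
  set el : bdR W.B' (W.cfg E) := mkB _ bal with hel
  set ek : bdR W.B' (W.cfg E) := mkB _ bk with hek
  set eh : bdR W.B' (W.cfg E) := mkB _ bh with heh
  set q := Ideal.Quotient.mk (smI W.B' (W.cfg E) x) with hq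
  -- relations
  have law : ∀ (s : Fin 12), 2 ≤ s → ∀ g : bdR W.B' (W.cfg E),
      (∀ p : Ix, g.1 p = cp (fun j => (ea j).1 p) (fun j => (ec j).1 p) s) → q (ew s) = q g := by
    intro s hs g hg
    refine mk_eq.2 (sm_of hx (c := 48) ?_)
    filter_upwards [hE, hX] with n r f
    intro k i l hi hl
    have hi' := (r.spec hi).1
    have hl' := (r.spec hl).1
    have t1 := f.compW h le_rfl zero_le_one (h.crd_le r.good r.good.s0 hi')
      (h.crd_le r.good hi' hl')
      (swf_ne_one (show s ≠ 1 by rintro rfl; exact absurd hs (by decide)))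
    rw [← h.crd_add] at t1
    show |(ew s).1 (n, k, i, l) - g.1 (n, k, i, l)| ≤ _
    rw [hg]
    have e := cp_sw (W.crd n (W.s₀ n) (W.rep n i k)) (W.crd n (W.rep n i k) (W.rep n l k)) hs
    have e' : cp (fun j => (ea j).1 (n, k, i, l)) (fun j => (ec j).1 (n, k, i, l)) s =
      cp (W.crd n (W.s₀ n) (W.rep n i k)) (W.crd n (W.rep n i k) (W.rep n l k)) (swf s) := e
    rw [e']
    exact t1
  have hz : q (ea 0) = q ez := by
    refine mk_eq.2 (sm_of hx (c := 1) ?_)
    filter_upwards [hE] with n r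
    intro k i l hi hl
    obtain ⟨a1, a2, a3⟩ := r.spec hi
    obtain ⟨b1, b3⟩ := r.zspec ⟨i, hi⟩
    have e1 := h.crd_z_add (W.s₀ n) (W.zrep n k) (W.rep n i k)
    show |W.crd n (W.s₀ n) (W.rep n i k) 0 - (W.cfg E n).z k| ≤ _
    rw [r.z_eq, h.kz, e1, add_sub_cancel_left, one_mul]
    exact h.crd_z r.good b1 a1 (b3.trans a3.symm) h.z0
  have hA : ∀ s : Fin 12, 3 ≤ s → q (ea s) = q (eA s) := by
    intro s hs
    refine mk_eq.2 (sm_of hx (c := 96) ?_)
    filter_upwards [hE, hX] with n r f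
    intro k i l hi hl
    exact line_close h h7 h8 t7 t8 r f hi (Or.inr (three_le_swf hs))
  have hV : ∀ s : Fin 12, 3 ≤ s → q (ew s) = q (eV s) := by
    intro s hs
    refine mk_eq.2 (sm_of hx (c := 96) ?_)
    filter_upwards [hE, hX] with n r f
    intro k i l hi hl
    exact line_close h h7 h8 t7 t8 r f hl (Or.inr (three_le_swf hs))
  have n3 : (3 : Fin 12) ∉ W.S := h.notS (by decide)
  have n4 : (4 : Fin 12) ∉ W.S := h.notS (by decide)
  have n5 : (5 : Fin 12) ∉ W.S := h.notS (by decide)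
  have n6 : (6 : Fin 12) ∉ W.S := h.notS (by decide)
  have c4 : q (ec 4) = q el * q (ec 3) := by
    rw [← map_mul]
    refine mk_eq.2 fun ε hε => ?_
    filter_upwards [hE, tc ε hε] with n r h1
    intro k i l hi hl
    have := h1 k i l hi hl
    rw [r.rel_of n3, r.rel_of n4] at this
    exact this
  have c6 : q (ec 6) = q el * q (ec 5) := by
    rw [← map_mul]
    refine mk_eq.2 fun ε hε => ?_
    filter_upwards [hE, tx ε hε] with n r h1
    intro k i l hi hl
    have := h1 k i l hi hl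
    rw [r.rel_of n5, r.rel_of n6] at this
    exact this
  have hk : q ek * (1 + q el * q el) = 1 := by
    have e : ek * (1 + el * el) = 1 := by
      apply Subtype.ext
      funext p
      exact ki_mul al p.1
    rw [← map_one q, ← map_mul, ← map_add, ← map_mul, e]
  have hh : q eh + q eh = 1 := by
    have e : eh + eh = 1 := by
      apply Subtype.ext
      funext p
      show (1 / 2 : ℝ) + 1 / 2 = 1
      norm_num
    rw [← map_one q, ← map_add, e]
  have w2 : q (ew 2) = q (ea 2) + q (ec 2) := by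
    rw [law 2 (by decide) (ea 2 + ec 2) fun p =>
      (cp2 (fun j => (ea j).1 p) (fun j => (ec j).1 p)).symm, map_add]
  have w3 : q (ew 3) = q (ea 3) + q (ec 3) := by
    rw [law 3 (by decide) (ea 3 + ec 3) fun p =>
      (cp3 (fun j => (ea j).1 p) (fun j => (ec j).1 p)).symm, map_add]
  have w4 : q (ew 4) = q (ea 4) + q (ec 4) := by
    rw [law 4 (by decide) (ea 4 + ec 4) fun p =>
      (cp4 (fun j => (ea j).1 p) (fun j => (ec j).1 p)).symm, map_add]
  have w5 : q (ew 5) = q (ea 5) + q (ec 5) - q ez * q (ec 3) := by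
    rw [law 5 (by decide) (ea 5 + ec 5 - ea 0 * ec 3) fun p =>
      (cp5 (fun j => (ea j).1 p) (fun j => (ec j).1 p)).symm, map_sub, map_add,
      map_mul, hz]
  have w6 : q (ew 6) = q (ea 6) + q (ec 6) - q ez * q (ec 4) := by
    rw [law 6 (by decide) (ea 6 + ec 6 - ea 0 * ec 4) fun p =>
      (cp6 (fun j => (ea j).1 p) (fun j => (ec j).1 p)).symm, map_sub, map_add,
      map_mul, hz]
  have w7 : q (ew 7) = q (ea 7) + q (ec 7) + q (ea 2) * q (ec 3) := by
    rw [law 7 (by decide) (ea 7 + ec 7 + ea 2 * ec 3) fun p =>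
      (cp7 (fun j => (ea j).1 p) (fun j => (ec j).1 p)).symm, map_add, map_add,
      map_mul]
  have w8 : q (ew 8) = q (ea 8) + q (ec 8) + q (ea 2) * q (ec 4) := by
    rw [law 8 (by decide) (ea 8 + ec 8 + ea 2 * ec 4) fun p =>
      (cp8 (fun j => (ea j).1 p) (fun j => (ec j).1 p)).symm, map_add, map_add,
      map_mul]
  have hq2 : ∀ p : Ix, eh.1 p = 1 / 2 := fun p => rfl
  have w9 : q (ew 9) = q (ea 9) + q (ec 9) -
      q ez * ((q (ec 3) * q (ec 3) + q (ec 4) * q (ec 4)) * q eh) +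
      q (ea 3) * (q (ec 5) - q ez * q (ec 3)) + q (ea 4) * (q (ec 6) - q ez * q (ec 4)) := by
    rw [law 9 (by decide) (ea 9 + ec 9 - ea 0 * ((ec 3 * ec 3 + ec 4 * ec 4) * eh) +
      ea 3 * (ec 5 - ea 0 * ec 3) + ea 4 * (ec 6 - ea 0 * ec 4)) fun p => ?_]
    · simp only [map_add, map_sub, map_mul, hz]
    · rw [cp9]
      show (ea 9).1 p + (ec 9).1 p - (ea 0).1 p * (((ec 3).1 p * (ec 3).1 p +
        (ec 4).1 p * (ec 4).1 p) * (1 / 2)) + (ea 3).1 p * ((ec 5).1 p - (ea 0).1 p * (ec 3).1 p) +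
        (ea 4).1 p * ((ec 6).1 p - (ea 0).1 p * (ec 4).1 p) = _
      ring
  have w10 : q (ew 10) = q (ea 10) + q (ec 10) - q (ea 7) * q (ec 3) - q (ea 8) * q (ec 4) -
      q (ea 2) * ((q (ec 3) * q (ec 3) + q (ec 4) * q (ec 4)) * q eh) := by
    rw [law 10 (by decide) (ea 10 + ec 10 - ea 7 * ec 3 - ea 8 * ec 4 -
      ea 2 * ((ec 3 * ec 3 + ec 4 * ec 4) * eh)) fun p => ?_]
    · simp only [map_add, map_sub, map_mul]
    · rw [cp10]
      show (ea 10).1 p + (ec 10).1 p - (ea 7).1 p * (ec 3).1 p - (ea 8).1 p * (ec 4).1 p -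
        (ea 2).1 p * (((ec 3).1 p * (ec 3).1 p + (ec 4).1 p * (ec 4).1 p) * (1 / 2)) = _
      ring
  have w11 : q (ew 11) = q (ea 11) + q (ec 11) - q ez * q (ec 10) -
      q (ea 7) * (q (ec 5) - q ez * q (ec 3)) - q (ea 8) * (q (ec 6) - q ez * q (ec 4)) -
      q (ea 2) * (q (ec 9) -
        q ez * ((q (ec 3) * q (ec 3) + q (ec 4) * q (ec 4)) * q eh)) := by
    rw [law 11 (by decide) (ea 11 + ec 11 - ea 0 * ec 10 - ea 7 * (ec 5 - ea 0 * ec 3) -
      ea 8 * (ec 6 - ea 0 * ec 4) - ea 2 * (ec 9 -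
        ea 0 * ((ec 3 * ec 3 + ec 4 * ec 4) * eh))) fun p => ?_]
    · simp only [map_add, map_sub, map_mul, hz]
    · rw [cp11]
      show (ea 11).1 p + (ec 11).1 p - (ea 0).1 p * (ec 10).1 p -
        (ea 7).1 p * ((ec 5).1 p - (ea 0).1 p * (ec 3).1 p) -
        (ea 8).1 p * ((ec 6).1 p - (ea 0).1 p * (ec 4).1 p) -
        (ea 2).1 p * ((ec 9).1 p - (ea 0).1 p *
          (((ec 3).1 p * (ec 3).1 p + (ec 4).1 p * (ec 4).1 p) * (1 / 2))) = _
      ring
  -- conclusions
  set Ci : bdR W.B' (W.cfg E) := ek * (eA 3 + el * eA 4) with hCi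
  set Cl : bdR W.B' (W.cfg E) := ek * (eV 3 + el * eV 4) with hCl
  set Xi : bdR W.B' (W.cfg E) := ek * (eA 5 + el * eA 6) + ez * Ci with hXi
  set Xl : bdR W.B' (W.cfg E) := ek * (eV 5 + el * eV 6) + ez * Cl with hXl
  set Hi : bdR W.B' (W.cfg E) := ek * eA 9 + ez * (Ci * Ci) * eh with hHi
  set Hl : bdR W.B' (W.cfg E) := ek * eV 9 + ez * (Cl * Cl) * eh with hHl
  have qCi : q Ci = q ek * (q (ea 3) + q el * q (ea 4)) := by
    rw [hCi, map_mul, map_add, map_mul, hA 3 (by decide), hA 4 (by decide)]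
  have qCl : q Cl = q ek * (q (ew 3) + q el * q (ew 4)) := by
    rw [hCl, map_mul, map_add, map_mul, hV 3 (by decide), hV 4 (by decide)]
  have s3 : q (ec 3) = q (Cl - Ci) := by
    rw [map_sub, qCi, qCl]
    exact (alg3 (a := fun s => q (ea s)) (w := fun s => q (ew s)) (c := fun s => q (ec s))
      hk w3 w4 c4).symm
  have s3' : q Cl = q Ci + q (ec 3) := by rw [s3, map_sub]; ring
  have qXi : q Xi = q ek * (q (ea 5) + q el * q (ea 6)) + q ez * q Ci := by
    rw [hA 5 (by decide), hA 6 (by decide), hXi]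
    simp only [map_add, map_mul]
  have qXl : q Xl = q ek * (q (ew 5) + q el * q (ew 6)) + q ez * q Cl := by
    rw [hV 5 (by decide), hV 6 (by decide), hXl]
    simp only [map_add, map_mul]
  have s5 : q (ec 5) = q (Xl - Xi) := by
    rw [map_sub, qXi, qXl, qCi, qCl]
    exact (alg5 (a := fun s => q (ea s)) (w := fun s => q (ew s)) (c := fun s => q (ec s))
      hk w3 w4 w5 w6 c4 c6).symm
  have qHi : q Hi = q ek * q (ea 9) + q ez * (q Ci * q Ci) * q eh := by
    rw [hA 9 (by decide), hHi]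
    simp only [map_add, map_mul]
  have qHl : q Hl = q ek * q (ew 9) + q ez * (q Cl * q Cl) * q eh := by
    rw [hV 9 (by decide), hHl]
    simp only [map_add, map_mul]
  have s9 : (1 + q el * q el) * (q Hl - q Hi - q Ci * q (ec 5)) = q (ec 9) := by
    rw [qHl, qHi]
    exact alg9 (a := fun s => q (ea s)) (w := fun s => q (ew s)) (c := fun s => q (ec s))
      hk hh w3 w4 w5 w6 w9 c4 c6 qCi s3'
  have f9 : q (ec 9) = q ((1 + el * el) * (Hl - Hi - Ci * (Xl - Xi))) := by
    rw [map_mul, map_sub q (Hl - Hi), map_mul q Ci, ← s5, map_sub, map_add, map_mul, map_one]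
    exact s9.symm
  have f7 : q (ec 7 + el * ec 8) = q ((eV 7 + el * eV 8) - (eA 7 + el * eA 8) -
      (1 + el * el) * ea 2 * (Cl - Ci)) := by
    rw [map_sub, map_mul q _ (Cl - Ci), ← s3]
    simp only [map_add, map_sub, map_mul, map_one]
    rw [← hV 7 (by decide), ← hV 8 (by decide), ← hA 7 (by decide), ← hA 8 (by decide)]
    exact (alg7 (a := fun s => q (ea s)) (w := fun s => q (ew s)) (c := fun s => q (ec s))
      w7 w8 c4).symm
  have f10 : q (ec 10) = q (eV 10 - eA 10 + (eA 7 + el * eA 8) * (Cl - Ci) +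
      (1 + el * el) * ea 2 * ((Cl - Ci) * (Cl - Ci)) * eh) := by
    rw [map_add, map_add, map_mul q _ (Cl - Ci), map_mul q _ eh, map_mul q _ ((Cl - Ci) * _),
      map_mul q (Cl - Ci), ← s3]
    simp only [map_add, map_sub, map_mul, map_one]
    rw [← hV 10 (by decide), ← hA 7 (by decide), ← hA 8 (by decide), ← hA 10 (by decide)]
    exact (alg10 (a := fun s => q (ea s)) (w := fun s => q (ew s)) (c := fun s => q (ec s))
      w10 c4).symm
  have f11 : q (ec 11) = q (((eV 11 + ez * eV 10) - (eA 11 + ez * eA 10)) +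
      (eA 7 + el * eA 8) * (Xl - Xi) +
      (1 + el * el) * ea 2 * (Hl - Hi - Ci * (Xl - Xi))) := by
    rw [map_add, map_add, map_mul q _ (Xl - Xi), map_mul q _ (Hl - Hi - _),
      map_sub q (Hl - Hi), map_mul q Ci, ← s5]
    simp only [map_add, map_sub, map_mul, map_one]
    rw [← hV 10 (by decide), ← hV 11 (by decide), ← hA 7 (by decide), ← hA 8 (by decide),
      ← hA 10 (by decide), ← hA 11 (by decide)]
    exact (alg11 (a := fun s => q (ea s)) (w := fun s => q (ew s)) (c := fun s => q (ec s))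
      w10 w11 c6 s9).symm
  refine ⟨hal, ?_, ?_, ?_, ?_, ?_, ?_, ?_, ?_⟩
  · intro ε hε
    filter_upwards [bz ε hε, (ek * (eA 5 + el * eA 6)).2 ε hε, (ek * eA 9).2 ε hε,
      bA 11 ε hε, Ci.2 ε hε, bA 10 ε hε, (eA 7 + el * eA 8).2 ε hε, ba 2 ε hε] with
      n h0 h1 h2 h3 h4 h5 h6 h7
    intro k i hi
    have e := zero_sub ε
    rw [← e]
    exact ⟨h0 k i i hi hi, h1 k i i hi hi, h2 k i i hi hi, h3 k i i hi hi, h4 k i i hi hi,
      h5 k i i hi hi, h6 k i i hi hi, h7 k i i hi hi⟩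
  · intro ε hε
    have w2' : q (ec 2) = q (ew 2 - ea 2) := by rw [map_sub, w2]; ring
    filter_upwards [hE, mk_eq.1 w2' ε hε] with n r h1
    intro k i l hi hl
    show |(W.cfg E n).rel k i l 2 - _| ≤ _
    rw [r.rel_of h2]
    exact h1 k i l hi hl
  · intro ε hε
    filter_upwards [hE, mk_eq.1 s3 ε hε] with n r h1
    intro k i l hi hl
    show |(W.cfg E n).rel k i l 4 - _| ≤ _
    rw [r.rel_of n4]
    exact h1 k i l hi hl
  · intro ε hε
    filter_upwards [hE, mk_eq.1 s5 ε hε] with n r h1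
    intro k i l hi hl
    show |(W.cfg E n).rel k i l 6 - _| ≤ _
    rw [r.rel_of n6]
    exact h1 k i l hi hl
  · intro ε hε
    filter_upwards [hE, mk_eq.1 f9 ε hε] with n r h1
    intro k i l hi hl
    refine le_trans (le_of_eq ?_) (h1 k i l hi hl)
    show |(W.cfg E n).rel k i l 9 - _| = _
    rw [r.rel_of (h.notS (by decide))]
    congr 1
    simp only [swG_z]
    show _ = W.crd n (W.rep n i k) (W.rep n l k) 9 - (1 + al n * al n) *
      ((gAH W al n l + (W.cfg E n).z k * (gCs W al n l * gCs W al n l) * (1 / 2)) -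
        (gAH W al n i + (W.cfg E n).z k * (gCs W al n i * gCs W al n i) * (1 / 2)) -
        gCs W al n i * ((gAXs W al n l + (W.cfg E n).z k * gCs W al n l) -
          (gAXs W al n i + (W.cfg E n).z k * gCs W al n i)))
    ring
  · intro ε hε
    filter_upwards [hE, mk_eq.1 f7 ε hε] with n r h1
    intro k i l hi hl
    refine le_trans (le_of_eq ?_) (h1 k i l hi hl)
    show |((W.cfg E n).rel k i l 8 + al n * (W.cfg E n).rel k i l 7) - _| = _
    rw [r.rel_of h7, r.rel_of h8]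
    congr 1
    show _ = (W.crd n (W.rep n i k) (W.rep n l k) 8 +
      al n * W.crd n (W.rep n i k) (W.rep n l k) 7) -
      (gBs W al n l - gBs W al n i - (1 + al n * al n) * gE W n k i *
        (gCs W al n l - gCs W al n i))
    ring
  · intro ε hε
    filter_upwards [hE, mk_eq.1 f10 ε hε] with n r h1
    intro k i l hi hl
    refine le_trans (le_of_eq ?_) (h1 k i l hi hl)
    show |(W.cfg E n).rel k i l 10 - _| = _
    rw [r.rel_of (h.notS (by decide))]
    congr 1
    show _ = W.crd n (W.rep n i k) (W.rep n l k) 10 -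
      (gv W 10 n l - gv W 10 n i + gBs W al n i * (gCs W al n l - gCs W al n i) +
        (1 + al n * al n) * gE W n k i * ((gCs W al n l - gCs W al n i) *
          (gCs W al n l - gCs W al n i)) * (1 / 2))
    ring
  · intro ε hε
    filter_upwards [hE, mk_eq.1 f11 ε hε] with n r h1
    intro k i l hi hl
    refine le_trans (le_of_eq ?_) (h1 k i l hi hl)
    show |(W.cfg E n).rel k i l 11 - _| = _
    rw [r.rel_of (h.notS (by decide))]
    congr 1
    simp only [swG_z]
    show _ = W.crd n (W.rep n i k) (W.rep n l k) 11 -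
      (((gv W 11 n l + (W.cfg E n).z k * gv W 10 n l) -
        (gv W 11 n i + (W.cfg E n).z k * gv W 10 n i)) +
        gBs W al n i * ((gAXs W al n l + (W.cfg E n).z k * gCs W al n l) -
          (gAXs W al n i + (W.cfg E n).z k * gCs W al n i)) +
        (1 + al n * al n) * gE W n k i *
        ((gAH W al n l + (W.cfg E n).z k * (gCs W al n l * gCs W al n l) * (1 / 2)) -
        (gAH W al n i + (W.cfg E n).z k * (gCs W al n i * gCs W al n i) * (1 / 2)) -
        gCs W al n i * ((gAXs W al n l + (W.cfg E n).z k * gCs W al n l) -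
          (gAXs W al n i + (W.cfg E n).z k * gCs W al n i))))
    ring

end Crest.Agent.R116.Sc299
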