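import Crest.Agent.R116.Sc2a_858
import Crest.Agent.R116.Sc6_299

/-!
# R116, SIG2 (sigma = 2), part Sc8 (helper299): 858's dictionary

`dic858` : `Sc858a.Dic` with the boxes `pJ JA x`, `pJ JC x` and the constant `18`.
-/

set_option autoImplicit false
set_option linter.unusedVariables false
set_option linter.unusedSectionVars false

open Filter Topology Finset

namespace Crest.Agent.R116.Sc299

open Crest.Agent.R138.Ex926 (Base U)
open Crest.Agent.R136.Gf356
open Crest.Agent.R116.Kr710 (LLaw Thin)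
open Crest.Agent.R116.Sc905 (Dat)

/-- **858's dictionary** from the eventual dictionary -/
theorem dic858_of {B : Base} {G : ℕ → RCfg (Fin 12)} {D : ℕ → Dat} {x : ℝ}
    (h : ∀ ε : ℝ, 0 < ε → ∀ᶠ n in (U : Filter ℕ), Dic B G D x ε n) :
    Sc858a.Dic B G D (pJ JA x) (pJ JC x) x 18 := by
  refine ⟨by norm_num, fun ε hε => ?_, fun ε hε => ?_, fun ε hε => ?_, fun ε hε => ?_⟩
  · filter_upwards [h ε hε] with n hn k i l hi hl hlo
    have := hn.near_of k i l hi hl ε hε.le hlo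
    rwa [show x - 9 * (ε + ε) = x - 18 * ε by ring] at this
  · filter_upwards [h ε hε] with n hn k i l hi hl hne
    have := hn.of_near k i l hi hl ε hε.le hne
    rwa [show 9 * (ε + ε) = 18 * ε by ring] at this
  · filter_upwards [h ε hε] with n hn k i l hi hl hlo
    have := hn.cls_of k i l hi hl ε hε.le hlo
    rwa [show x - 9 * (ε + ε) = x - 18 * ε by ring] at this
  · filter_upwards [h ε hε] with n hn k i l hi hl hC hB
    have := hn.of_cls k i l hi hl ε hε.le hC hB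
    rwa [show 9 * (ε + ε) = 18 * ε by ring] at this

/-- **858's dictionary** from the global coordinates -/
theorem dic858 {B : Base} {G : ℕ → RCfg (Fin 12)} (hb : ∀ n, (G n).ρ = B.d n)
    {S : Finset (Fin 12)} {al : ℕ → ℝ}
    {AX AH AF C P Bf : ℕ → ℕ → ℝ} {Ef : ℕ → ℕ → ℕ → ℝ} {x : ℝ}
    (g : GC B G al AX AH AF C P Bf Ef x) (T : Thin B G S al x)
    (hall : ∀ ε : ℝ, 0 < ε → ∀ᶠ n in (U : Filter ℕ), ∀ k i l, (i, k) ∈ (G n).I →
      (l, k) ∈ (G n).I → (G n).loose 0 ε k i l) :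
    Sc858a.Dic B G (dat G AX AH AF C P Bf) (pJ JA x) (pJ JC x) x 18 :=
  dic858_of fun _ hε => ev_dic hb g T hall hε

/-- 858's `hcA` : the slot `3` -/
theorem rel3_858 {B : Base} {G : ℕ → RCfg (Fin 12)}
    {al : ℕ → ℝ} {AX AH AF C P Bf : ℕ → ℕ → ℝ} {Ef : ℕ → ℕ → ℕ → ℝ} {x : ℝ}
    (g : GC B G al AX AH AF C P Bf Ef x) :
    ∀ ε : ℝ, 0 < ε → ∀ᶠ n in (U : Filter ℕ), ∀ k i l, (i, k) ∈ (G n).I → (l, k) ∈ (G n).I →
      |(G n).rel k i l 3 - ((dat G AX AH AF C P Bf n).C l - (dat G AX AH AF C P Bf n).C i)| ≤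
        B.d n ^ (x - ε) :=
  fun ε hε => g.r3 ε hε

theorem pJ_max (J J' K : Finset (Fin 12)) (hK : K ⊆ J ∪ J') {x : ℝ} (hx : 0 ≤ x) (s : Fin 12) :
    pJ K x s ≤ max (pJ J x s) (pJ J' x s) := by
  unfold pJ
  by_cases h : s ∈ K
  · rw [if_pos h]
    rcases mem_union.1 (hK h) with h1 | h1
    · rw [if_pos h1]; exact le_max_left _ _
    · rw [if_pos h1]; exact le_max_right _ _
  · rw [if_neg h]
    refine le_max_of_le_left ?_
    split_ifs <;> linarith

/-- 858's `hmax` -/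
theorem hmax858 {x : ℝ} (hx : 0 ≤ x) (s : Fin 12) :
    pJ JF x s ≤ max (pJ JA x s) (pJ JC x s) :=
  pJ_max JA JC JF (by decide) hx s

end Crest.Agent.R116.Sc299
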