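import Crest.Agent.R138.Qf2_926

/-!
# R116 (S0155), K side, STRONG D-MAX (helper369), part 1: abstract form

`QProf.sd` : if for every `ε > 0` the union of the `p`-classes which meet the `q`-class of `i` has at
most `d^(-(t + ε))` points, then `ν p + ν q - ν (p ⊔ q) ≤ t`.
-/

set_option autoImplicit false
set_option linter.unusedSectionVars false

open Filter Topology

namespace Crest.Agent.R116.Sd369

open Finset
open Crest.Agent.R138.Ex926

section finite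

variable {ι κ κ' : Type*} [DecidableEq ι] [DecidableEq κ] [DecidableEq κ']

/-- the reciprocals of the class sizes sum up to the number of classes -/
theorem sum_inv_cls (A : Finset ι) (f : ι → κ) :
    ∑ x ∈ A, ((cls A f x).card : ℝ)⁻¹ = (A.image f).card := by
  classical
  rw [← sum_fiberwise_of_maps_to (g := f) (t := A.image f)
    (fun x hx => mem_image_of_mem f hx)]
  have h1 : ∀ b ∈ A.image f, ∑ x ∈ A with f x = b, ((cls A f x).card : ℝ)⁻¹ = 1 := by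
    intro b hb
    obtain ⟨y, hy, rfl⟩ := mem_image.1 hb
    have h2 : ∀ x ∈ A.filter (fun x => f x = f y),
        ((cls A f x).card : ℝ)⁻¹ = ((A.filter fun x => f x = f y).card : ℝ)⁻¹ := by
      intro x hx
      have h3 : cls A f x = A.filter fun x => f x = f y := by
        ext z
        rw [mem_cls, mem_filter, (mem_filter.1 hx).2]
      rw [h3]
    rw [sum_congr rfl h2, sum_const, nsmul_eq_mul, mul_inv_cancel₀]
    have : 0 < (A.filter fun x => f x = f y).card :=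
      card_pos.2 ⟨y, mem_filter.2 ⟨hy, rfl⟩⟩
    positivity
  rw [sum_congr rfl h1, sum_const, nsmul_eq_mul, mul_one]

/-- the pairs (point of the `fq`-class of `i`, point of its `fp`-class) -/
theorem sum_cls_le (A : Finset ι) (fp : ι → κ) (fq : ι → κ') {S T : ℝ} (hS : 0 ≤ S)
    (h1 : ∀ i ∈ A, ((cls A fp i ∩ cls A fq i).card : ℝ) ≤ S)
    (h2 : ∀ i ∈ A, ((two A fq fp i).card : ℝ) ≤ T) {i : ι} (hi : i ∈ A) :
    ∑ x ∈ cls A fq i, ((cls A fp x).card : ℝ) ≤ T * S := by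
  classical
  have e1 : ∑ x ∈ cls A fq i, ((cls A fp x).card : ℝ) =
      ∑ x ∈ cls A fq i, ∑ k ∈ two A fq fp i, (if fp k = fp x then (1:ℝ) else 0) := by
    refine sum_congr rfl fun x hx => ?_
    rw [sum_boole]
    congr 2
    ext k
    rw [mem_cls, mem_filter, mem_two]
    constructor
    · rintro ⟨a, b⟩
      exact ⟨⟨a, x, (mem_cls.1 hx).1, (mem_cls.1 hx).2, b⟩, b⟩
    · rintro ⟨⟨a, -⟩, b⟩
      exact ⟨a, b⟩
  rw [e1, sum_comm]
  have e2 : ∀ k ∈ two A fq fp i,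
      ∑ x ∈ cls A fq i, (if fp k = fp x then (1:ℝ) else 0) ≤ S := by
    intro k _
    rw [sum_boole]
    rcases (filter (fun x => fp k = fp x) (cls A fq i)).eq_empty_or_nonempty with h | ⟨x0, hx0⟩
    · rw [h]; simpa using hS
    · have hx := mem_filter.1 hx0
      have hx1 := mem_cls.1 hx.1
      refine le_trans ?_ (h1 x0 hx1.1)
      have : filter (fun x => fp k = fp x) (cls A fq i) ⊆ cls A fp x0 ∩ cls A fq x0 := by
        intro y hy
        obtain ⟨y1, y2⟩ := mem_filter.1 hy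
        obtain ⟨y3, y4⟩ := mem_cls.1 y1
        exact mem_inter.2 ⟨mem_cls.2 ⟨y3, by rw [← y2, hx.2]⟩, mem_cls.2 ⟨y3, by rw [y4, hx1.2]⟩⟩
      exact_mod_cast card_le_card this
  calc _ ≤ ∑ _k ∈ two A fq fp i, S := sum_le_sum e2
    _ = (two A fq fp i).card * S := by rw [sum_const, nsmul_eq_mul]
    _ ≤ T * S := mul_le_mul_of_nonneg_right (h2 i hi) hS

/-- **finite form**: `|A|² ≤ #(p-labels) #(q-labels) S T`. -/
theorem finite_sd (A : Finset ι) (fp : ι → κ) (fq : ι → κ') {S T : ℝ} (hS : 0 ≤ S)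
    (h1 : ∀ i ∈ A, ((cls A fp i ∩ cls A fq i).card : ℝ) ≤ S)
    (h2 : ∀ i ∈ A, ((two A fq fp i).card : ℝ) ≤ T) :
    (A.card : ℝ) ^ 2 ≤ (A.image fp).card * ((A.image fq).card * (T * S)) := by
  classical
  have hpos : ∀ x ∈ A, (0:ℝ) < (cls A fp x).card := by
    intro x hx
    have : 0 < (cls A fp x).card := card_pos.2 ⟨x, mem_cls.2 ⟨hx, rfl⟩⟩
    exact_mod_cast this
  have cs := sum_mul_sq_le_sq_mul_sq A (fun x => Real.sqrt ((cls A fp x).card : ℝ)⁻¹)
    (fun x => Real.sqrt ((cls A fp x).card : ℝ))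
  have e0 : ∑ x ∈ A, Real.sqrt ((cls A fp x).card : ℝ)⁻¹ * Real.sqrt ((cls A fp x).card : ℝ) =
      A.card := by
    have : ∀ x ∈ A, Real.sqrt ((cls A fp x).card : ℝ)⁻¹ * Real.sqrt ((cls A fp x).card : ℝ) = 1 := by
      intro x hx
      rw [← Real.sqrt_mul (inv_nonneg.2 (hpos x hx).le), inv_mul_cancel₀ (hpos x hx).ne',
        Real.sqrt_one]
    rw [sum_congr rfl this, sum_const, nsmul_eq_mul, mul_one]
  have e1 : ∑ x ∈ A, Real.sqrt ((cls A fp x).card : ℝ)⁻¹ ^ 2 = (A.image fp).card := by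
    rw [← sum_inv_cls A fp]
    exact sum_congr rfl fun x hx => Real.sq_sqrt (inv_nonneg.2 (hpos x hx).le)
  have e2 : ∑ x ∈ A, Real.sqrt ((cls A fp x).card : ℝ) ^ 2 = ∑ x ∈ A, ((cls A fp x).card : ℝ) :=
    sum_congr rfl fun x hx => Real.sq_sqrt (hpos x hx).le
  rw [e0, e1, e2] at cs
  refine cs.trans (mul_le_mul_of_nonneg_left ?_ (Nat.cast_nonneg _))
  rw [← sum_fiberwise_of_maps_to (g := fq) (t := A.image fq)
    (fun x hx => mem_image_of_mem fq hx)]
  calc _ ≤ ∑ _b ∈ A.image fq, T * S := by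
        refine sum_le_sum fun b hb => ?_
        obtain ⟨i, hi, rfl⟩ := mem_image.1 hb
        exact sum_cls_le A fp fq hS h1 h2 hi
    _ = (A.image fq).card * (T * S) := by rw [sum_const, nsmul_eq_mul]

end finite

variable {B : Base} {ι κ : ℕ → Type*} [∀ n, DecidableEq (ι n)] [∀ n, DecidableEq (κ n)] {m : ℕ}

/-- **strong D-max, abstract form**. -/
theorem sd_core {I : ∀ n, Finset (ι n)} {f : ∀ n, (Fin m → ℝ) → ι n → κ n}
    {P : Set (Fin m → ℝ)} {ν : (Fin m → ℝ) → ℝ} (hν : QProf B I f P ν) (hJ : QJoin B I f P)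
    (hne : ∀ᶠ n in (U : Filter ℕ), (I n).Nonempty) {p q : Fin m → ℝ} (hp : p ∈ P) (hq : q ∈ P)
    (hr : p ⊔ q ∈ P) {t : ℝ}
    (ht : ∀ ε : ℝ, 0 < ε → ∀ᶠ n in (U : Filter ℕ), ∀ i ∈ I n,
      ((two (I n) (f n q) (f n p) i).card : ℝ) ≤ B.d n ^ (-(t + ε))) :
    ν p + ν q - ν (p ⊔ q) ≤ t := by
  classical
  refine le_of_forall_pos_le_add fun ε hε => ?_
  obtain ⟨N, hN, hj⟩ := hJ
  have hε5 : 0 < ε / 5 := by positivity
  obtain ⟨n, h0, h1, h2, h3, h4, h5⟩ := ((hne.and ((hν.root _ hε5).and ((hν.up _ hε5).and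
    ((ht _ hε5).and (hj.and (hN.ev_le hε5)))))).exists)
  have hL := B.L_pos n
  have hpos : ∀ t : ℝ, 0 < B.d n ^ t := fun t => Real.rpow_pos_of_pos (B.pos n) t
  have hI : (0:ℝ) < (I n).card := by exact_mod_cast card_pos.2 h0
  -- pair classes
  have c1 : ∀ i ∈ I n, ((cls (I n) (f n p) i ∩ cls (I n) (f n q) i).card : ℝ) ≤
      B.d n ^ (-(ν (p ⊔ q) + ε / 5)) * N n := by
    intro i hi
    set A := cls (I n) (f n p) i ∩ cls (I n) (f n q) i with hA
    have := le_count_mul A (fun _ => (1 : ℝ)) (f n (p ⊔ q))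
      (m := B.d n ^ (-(ν (p ⊔ q) + ε / 5))) (fun x hx => by
        rw [sum_const, nsmul_eq_mul, mul_one]
        refine le_trans ?_ (h2 _ hr x (mem_cls.1 (mem_inter.1 hx).1).1)
        have hs : A ⊆ I n := fun y hy => (mem_cls.1 (mem_inter.1 hy).1).1
        exact_mod_cast card_le_card (cls_mono hs _ _))
    rw [sum_const, nsmul_eq_mul, mul_one] at this
    exact this.trans (mul_le_mul_of_nonneg_left (h4 p hp q hq i hi) (hpos _).le)
  have hN0 : 0 < N n := h5.1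
  have c2 := finite_sd (I n) (f n p) (f n q) (S := B.d n ^ (-(ν (p ⊔ q) + ε / 5)) * N n)
    (T := B.d n ^ (-(t + ε / 5))) (mul_nonneg (hpos _).le hN0.le) c1 h3
  have c3 := h1 p hp
  have c4 := h1 q hq
  have c5 : ((I n).card : ℝ) ^ 2 ≤ ((I n).card * B.d n ^ (ν p - ε / 5)) *
      (((I n).card * B.d n ^ (ν q - ε / 5)) *
        (B.d n ^ (-(t + ε / 5)) * (B.d n ^ (-(ν (p ⊔ q) + ε / 5)) * N n))) := by
    refine c2.trans ?_
    have a1 : 0 ≤ B.d n ^ (-(t + ε / 5)) * (B.d n ^ (-(ν (p ⊔ q) + ε / 5)) * N n) :=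
      mul_nonneg (hpos _).le (mul_nonneg (hpos _).le hN0.le)
    exact mul_le_mul c3 (mul_le_mul_of_nonneg_right c4 a1)
      (mul_nonneg (Nat.cast_nonneg _) a1) (mul_nonneg hI.le (hpos _).le)
  have c6 : (1:ℝ) ≤ B.d n ^ (ν p - ε / 5) * (B.d n ^ (ν q - ε / 5) *
      (B.d n ^ (-(t + ε / 5)) * (B.d n ^ (-(ν (p ⊔ q) + ε / 5)) * N n))) := by
    have e : ((I n).card * B.d n ^ (ν p - ε / 5)) *
      (((I n).card * B.d n ^ (ν q - ε / 5)) *
        (B.d n ^ (-(t + ε / 5)) * (B.d n ^ (-(ν (p ⊔ q) + ε / 5)) * N n))) =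
      ((I n).card : ℝ) ^ 2 * (B.d n ^ (ν p - ε / 5) * (B.d n ^ (ν q - ε / 5) *
      (B.d n ^ (-(t + ε / 5)) * (B.d n ^ (-(ν (p ⊔ q) + ε / 5)) * N n)))) := by ring
    rw [e] at c5
    have hI2 : (0:ℝ) < ((I n).card : ℝ) ^ 2 := by positivity
    exact le_of_mul_le_mul_left (by rw [mul_one]; exact c5) hI2
  have c7 : B.d n ^ (ν p - ε / 5) * (B.d n ^ (ν q - ε / 5) *
      (B.d n ^ (-(t + ε / 5)) * (B.d n ^ (-(ν (p ⊔ q) + ε / 5)) * N n))) =
      B.d n ^ (-(-(ν p + ν q - ν (p ⊔ q) - t - 4 * (ε / 5)))) * N n := by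
    have hd := B.pos n
    rw [← mul_assoc (B.d n ^ (-(t + ε / 5))), ← Real.rpow_add hd, ← mul_assoc (B.d n ^ (ν q - ε / 5)),
      ← Real.rpow_add hd, ← mul_assoc, ← Real.rpow_add hd]
    congr 2
    ring
  rw [c7] at c6
  have c8 := Real.log_le_log one_pos c6
  rw [Real.log_one, Real.log_mul (hpos _).ne' hN0.ne', Real.log_rpow (B.pos n), B.log_d] at c8
  have h6 := h5.2
  have : (ν p + ν q - ν (p ⊔ q)) * B.L n ≤ (t + ε) * B.L n := by nlinarith
  exact le_of_mul_le_mul_right this hL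

end Crest.Agent.R116.Sd369
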