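import Crest.Agent.R116.Rcx6_363
import Crest.Agent.R116.Tp4_139

/-!
# R116 (K side, TIES), `s ≥ 1/2` : `D` is dead ABOVE the record by strong D-max (helper538)

* **`sd_tan`**  : a tangent `lam` of `ν` at record bases; `v • record ≤ p` in the slots
  `z, C, X, N, P, F` ⊢ `lam (p ⊔ v • record) = lam p` (369's strong D-max at the record box);
* **`sd_raise`** : the slot `D` may be raised at no cost up to the record level;
* **`rD_zero`** : on the plane of the offset `B`, if `-η A ≤ B` in the line slots and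
  `B 8 < -η β_D`, the rate of `D` is `0`;
* **`rD_oSe`**  : the plane `oSe e` (helper139), `β_D < 0`, `e θ < |β_D|` : `ρ 8 = 0`.
-/

set_option autoImplicit false
set_option linter.unusedVariables false
set_option linter.unusedSectionVars false

open Set Filter Topology

namespace Crest.Agent.R116.Sd538

open Crest.Agent.R138.Ex926 (Base U IsTan)
open Crest.Agent.R136
open Crest.Agent.R136.MkA627
open Crest.Agent.R136.TD627
open Crest.Agent.R136.Net191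
open Crest.Agent.R136.Lq196
open Crest.Agent.R116.ChL222
open Crest.Agent.R116.PL504 (nb rL DN eL βL oL Shift)
open Crest.Agent.R116.Sg337 (coneL DL)
open Crest.Agent.R116.Gd222 (TSet sN PDL PDS DT Vf)
open Crest.Agent.R116.KI439
open Crest.Agent.R116.KF439 (PL)
open Crest.Agent.R116.CtxB468
open Crest.Agent.R116.RbM219
open Crest.Agent.R116.RbK219
open Crest.Agent.R116.Rcx363
open Crest.Agent.R116.SgO219 (PP tan_lim tan_ev)
open Dg219 (mw Walls)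

theorem sup_aff (x p q : Fin 12 → ℝ) {h : ℝ} (hh : 0 ≤ h) :
    (x + h • p) ⊔ (x + h • q) = x + h • (p ⊔ q) := by
  funext k
  simp only [Pi.sup_apply, Pi.add_apply, Pi.smul_apply, smul_eq_mul]
  rw [mul_max_of_nonneg _ _ hh, max_add_add_left]

theorem coneL_sup {p q : Fin 12 → ℝ} (hp : p ∈ coneL) (hq : q ∈ coneL) : p ⊔ q ∈ coneL := by
  intro k e he
  rw [Pi.sup_apply]
  refine max_le ((hp k e he).trans ?_) ((hq k e he).trans ?_) <;>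
    refine Finset.sum_le_sum fun s _ => mul_le_mul_of_nonneg_left ?_ (Nat.cast_nonneg _)
  · rw [Pi.sup_apply]; exact le_max_left _ _
  · rw [Pi.sup_apply]; exact le_max_right _ _

theorem r9_coneL (θa θb v : ℝ) : v • r9 θa θb ∈ coneL := by
  intro k e he
  have h1 : eL 1 (-θa) (-θb) k = ∑ s, (e s : ℝ) * eL 1 (-θa) (-θb) s :=
    (PL504.eL_wall _ _ _ k he).symm
  have h2 : (v • r9 θa θb) k = ∑ s, (e s : ℝ) * (v • r9 θa θb) s := by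
    simp only [Pi.smul_apply, smul_eq_mul, r9]
    rw [h1, Finset.mul_sum]
    refine Finset.sum_congr rfl fun s _ => by ring
  exact h2.le

section ctx

variable {G : Geo TSet (Fin 2)} {L : ℕ → ℕ → LRay} {r : ℕ → ℝ} {g s : ℝ} {θ q : Fin 2 → ℝ}
    {Rg : ℝ} {B : Base} {I : ℕ → Finset (ℕ × ℝ)} {lev : ℕ → ℚ → ℕ} {A : ℕ → ℝ}
    {f : ℕ → ℚ → ℕ → ℤ → ℕ} {b : ℕ → ℚ → ℕ → TSet} {vm : ℕ → ℚ → ℝ} {w : Fin 2 → ℕ → ℚ → ℝ}
    {fr : ℕ → ℚ → ℕ × ℝ → LInc} {fl : ℕ → ℕ × ℝ → LInc} {sc : Fin 12 → ℕ → ℝ}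
    {w0 sa sb δ R : ℝ} {I0 I' : ℕ → Finset (ℕ × ℝ)} {ν own : (Fin 12 → ℝ) → ℝ} {c₀ : ℝ}

/-- **strong D-max at a record box** -/
theorem sd_rec
    (h : CtxT G L r g s θ q Rg B I lev A f b vm w fr fl sc w0 sa sb δ R I0 I' ν own c₀)
    (hθ : 0 < θ 0) (hRg : θ 0 + |θ 1| < Rg) {v : ℝ} (hv0 : 0 < v) (hv1 : v < 1)
    {p : Fin 12 → ℝ} (hp : p ∈ Leg monL R) (hr : rL (θ 0) (θ 1) w0 sa sb v ∈ Leg monL R)
    (hpq : ∀ k, Vf k → rL (θ 0) (θ 1) w0 sa sb v k ≤ p k) :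
    ν p ≤ ν (p ⊔ rL (θ 0) (θ 1) w0 sa sb v) := by
  have h1v : 0 < 1 - v := by linarith
  have ha := abs_nonneg (θ 1)
  have hD : rL (θ 0) (θ 1) w0 sa sb v ∈ PDS w0 sa sb Rg 0 (θ 0 + |θ 1|) := by
    refine Gd222.PDL_sub _ _ _ _ _ _ R ?_
    rw [PL504.rL_nb] at hr ⊢
    refine nb_PD hr hv0.le hv1.le (mul_pos hθ h1v) ?_ ?_ ?_
    · nlinarith
    · rw [abs_mul, abs_of_pos h1v]
      nlinarith
    · have := neg_abs_le (θ 1)
      nlinarith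
  have h1 := h.sd (θ 0 + |θ 1|) hp hr hD hpq
  have h2 := h.ext.record v hv0.le hv1.le
  have h3 : DT g s q θ w0 sa sb (rL (θ 0) (θ 1) w0 sa sb v) = Tw468.EL θ g s q v := by
    rw [PL504.rL_nb, DT_nb, EL_DN]
  rw [h3] at h1
  linarith

/-- **strong D-max in a tangent at record bases** -/
theorem sd_tan
    (h : CtxT G L r g s θ q Rg B I lev A f b vm w fr fl sc w0 sa sb δ R I0 I' ν own c₀)
    (hθ : 0 < θ 0) (hRg : θ 0 + |θ 1| < Rg) {v0 : ℝ} (hv0 : 0 < v0) (hv1 : v0 < 1)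
    {x : ℕ → Fin 12 → ℝ} {hh : ℕ → ℝ} (hpos : ∀ m, 0 < hh m) (hlim : Tendsto hh atTop (𝓝 0))
    (hb : ∃ (H y : ℕ → ℝ) (ξ : ℝ), (∀ m, 0 < H m) ∧ Tendsto H atTop (𝓝 0) ∧
      Tendsto y atTop (𝓝 ξ) ∧
      ∀ m, x m = rL (θ 0) (θ 1) w0 sa sb v0 + H m • (y m • r9 (θ 0) (θ 1)))
    {lam : (Fin 12 → ℝ) → ℝ} (ht : IsTan (Leg monL R) coneL ν x hh lam)
    {p : Fin 12 → ℝ} (hp : p ∈ coneL) {v : ℝ}
    (hpq : ∀ k, Vf k → v * r9 (θ 0) (θ 1) k ≤ p k) :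
    lam (p ⊔ v • r9 (θ 0) (θ 1)) = lam p := by
  obtain ⟨H, y, ξ, hH, hH0, hy, hx⟩ := hb
  have hq := r9_coneL (θ 0) (θ 1) v
  have hs := coneL_sup hp hq
  have h1 := tan_lim hpos ht hs hp
  have hV : Tendsto (fun m => v0 + H m * y m + hh m * v) atTop (𝓝 v0) := by
    have := ((hH0.mul hy).const_add v0).add (hlim.mul_const v)
    simpa using this
  have h2 : ∀ᶠ m in atTop, (ν (x m + hh m • (p ⊔ v • r9 (θ 0) (θ 1))) -
      ν (x m + hh m • p)) / hh m = 0 := by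
    filter_upwards [tan_ev ht hp, tan_ev ht hq, tan_ev ht hs,
      hV.eventually (Ioo_mem_nhds hv0 hv1)] with m m1 m2 m3 m4
    have e1 : x m + hh m • (v • r9 (θ 0) (θ 1)) =
        rL (θ 0) (θ 1) w0 sa sb (v0 + H m * y m + hh m * v) := by
      rw [hx m, rL_add, rL_add, smul_smul, smul_smul]
      rfl
    have e2 : x m + hh m • (p ⊔ v • r9 (θ 0) (θ 1)) =
        (x m + hh m • p) ⊔ rL (θ 0) (θ 1) w0 sa sb (v0 + H m * y m + hh m * v) := by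
      rw [← e1, sup_aff _ _ _ (hpos m).le]
    have h3 : ν (x m + hh m • p) ≤ ν (x m + hh m • (p ⊔ v • r9 (θ 0) (θ 1))) := by
      rw [e2]
      refine sd_rec h hθ hRg m4.1 m4.2 m1 (e1 ▸ m2) fun k hk => ?_
      rw [← e1]
      simp only [Pi.add_apply, Pi.smul_apply, smul_eq_mul]
      have := mul_le_mul_of_nonneg_left (hpq k hk) (hpos m).le
      linarith
    have h4 := (h.ext.lip _ m1 _ m3 (by
      intro k
      simp only [Pi.add_apply, Pi.smul_apply, smul_eq_mul, Pi.sup_apply]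
      have := mul_le_mul_of_nonneg_left (le_max_left (p k) (v * r9 (θ 0) (θ 1) k)) (hpos m).le
      linarith)).1
    rw [div_eq_zero_iff]
    left
    linarith
  have h5 : Tendsto (fun m => (ν (x m + hh m • (p ⊔ v • r9 (θ 0) (θ 1))) -
      ν (x m + hh m • p)) / hh m) atTop (𝓝 0) :=
    tendsto_const_nhds.congr' (h2.mono fun m hm => hm.symm)
  have := tendsto_nhds_unique h1 h5
  linarith

end ctx

/-- the slot `D` raised below the record level -/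
theorem sd_raise {lam : (Fin 12 → ℝ) → ℝ} {θa θb : ℝ}
    (hsd : ∀ p ∈ coneL, ∀ v : ℝ, (∀ k, Vf k → v * r9 θa θb k ≤ p k) →
      lam (p ⊔ v • r9 θa θb) = lam p)
    (hanti : ∀ p ∈ coneL, ∀ q ∈ coneL, p ≤ q → lam q ≤ lam p)
    {p : Fin 12 → ℝ} (hp : p ∈ coneL) {v y : ℝ} (hy : 0 ≤ y)
    (hpy : p + y • (Pi.single 1 1 : Fin 12 → ℝ) ∈ coneL)
    (hv : ∀ k, Vf k → v * r9 θa θb k ≤ p k) (hD : p 1 + y ≤ v * r9 θa θb 1) :
    lam (p + y • (Pi.single 1 1 : Fin 12 → ℝ)) = lam p := by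
  refine le_antisymm (hanti _ hp _ hpy ?_) ?_
  · intro k
    simp only [Pi.add_apply, Pi.smul_apply, smul_eq_mul]
    have : 0 ≤ y * (Pi.single 1 1 : Fin 12 → ℝ) k := by
      refine mul_nonneg hy ?_
      by_cases hk : k = 1
      · subst hk; rw [Pi.single_eq_same]; norm_num
      · rw [Pi.single_eq_of_ne hk]
    linarith
  · rw [← hsd p hp v hv]
    refine hanti _ hpy _ (coneL_sup hp (r9_coneL _ _ _)) ?_
    intro k
    simp only [Pi.add_apply, Pi.smul_apply, smul_eq_mul, Pi.sup_apply]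
    by_cases hk : k = 1
    · subst hk
      rw [Pi.single_eq_same, mul_one]
      exact hD.trans (le_max_right _ _)
    · rw [Pi.single_eq_of_ne hk, mul_zero, add_zero]
      exact le_max_left _ _

/-- **the rate of `D` on a plane above the record is `0`** -/
theorem rD_zero {lam : (Fin 12 → ℝ) → ℝ} {θa θb : ℝ}
    (hsd : ∀ p ∈ coneL, ∀ v : ℝ, (∀ k, Vf k → v * r9 θa θb k ≤ p k) →
      lam (p ⊔ v • r9 θa θb) = lam p)
    (hanti : ∀ p ∈ coneL, ∀ q ∈ coneL, p ≤ q → lam q ≤ lam p)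
    {Bo : Fin 9 → ℝ} {sg c0 : ℝ} (hc0 : 0 < c0)
    (hS : SOk (nat9 1 (-θa) (-θb)) Bo sg) (hA8 : nat9 1 (-θa) (-θb) 8 ≠ 0)
    (hal : Aln (nat9 1 (-θa) (-θb)) Bo 8) (hL : Leg9 Bo)
    {η : ℝ} (h0 : -η ≤ Bo 0) (h1 : η * θa ≤ Bo 1) (h2 : η * θb ≤ Bo 2)
    (h3 : -η * (1 - θa) ≤ Bo 3) (h4 : -η * (1 - θb) ≤ Bo 4) (h5 : -η * (1 - 2 * θa) ≤ Bo 5)
    (h8 : Bo 8 < -η * (2 * θa - θb - 1))
    {ρ : Fin 9 → ℝ} (hR : Rates9 θa θb Bo sg c0 lam ρ) : ρ 8 = 0 := by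
  set A0 : Fin 9 → ℝ := nat9 1 (-θa) (-θb) with hA0
  have he : RL9.e 8 = (Pi.single 1 1 : Fin 12 → ℝ) := by
    funext i
    fin_cases i <;> simp [RS.e, RL9, cl9]
  set c : ℝ := 1 + ‖(Pi.single 1 1 : Fin 12 → ℝ)‖ with hc
  have hcpos : 0 < c := by positivity
  set y : ℝ := min (c0 / c) (-η * (2 * θa - θb - 1) - Bo 8) with hy
  have hy0 : 0 < y := lt_min (by positivity) (by linarith)
  have hy1 : y ≤ c0 / c := min_le_left _ _
  have hy2 : y ≤ -η * (2 * θa - θb - 1) - Bo 8 := min_le_right _ _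
  have hyn : ‖y • (Pi.single 1 1 : Fin 12 → ℝ)‖ ≤ c0 * 1 := by
    rw [norm_smul, Real.norm_of_nonneg hy0.le, mul_one]
    have h6 : y * ‖(Pi.single 1 1 : Fin 12 → ℝ)‖ ≤ y * c := by
      refine mul_le_mul_of_nonneg_left ?_ hy0.le
      rw [hc]; linarith
    have h7 : y * c ≤ c0 := by rwa [le_div_iff₀ hcpos] at hy1
    linarith
  have hpp : ∀ z ∈ PP (mw monL), z ∈ (srf9 θa θb Bo sg).L (mw monL) := by
    intro z hz w _
    have := hz w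
    have h2 : (mw monL).cst w = 0 := rfl
    rw [h2, add_zero] at this
    exact this
  have hvy : y • (Pi.single 1 1 : Fin 12 → ℝ) = RL9.vec (fun t => if t = 8 then y else 0) := by
    funext i
    fin_cases i <;> simp [RS.vec, RL9, cl9]
  have hley : Leg9 (fun t => if t = 8 then y else 0) := by
    constructor <;> simp <;> linarith
  have m1 := hS.memLW (R := RL9) (y0 := 0) (Q := mw monL) (c0 := c0) (α := 0) zero_le_one
    (c := 0) (Walls.cone (Q := mw monL)).zero (by rw [norm_zero]; positivity)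
  have m2 := hS.memLW (R := RL9) (y0 := 0) (Q := mw monL) (c0 := c0) (α := 0) zero_le_one
    (c := y • (Pi.single 1 1 : Fin 12 → ℝ)) (by rw [hvy]; exact hpp _ (RL9_mem hley)) hyn
  have e1 : (1:ℝ) • Bo + (0:ℝ) • A0 = Bo := by rw [one_smul, zero_smul, add_zero]
  rw [e1, add_zero] at m1
  rw [e1] at m2
  have h6 := hR.alone 8 hal hA8 (RL9.vec Bo) (Bo 8) y (fun i hi => by
    simp only [RS.vec, hi]) m1 (by rw [he]; exact m2)
  rw [he] at h6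
  have hpc : RL9.vec Bo ∈ coneL := by rw [coneL_PP]; exact RL9_mem hL
  have hpc2 : RL9.vec Bo + y • (Pi.single 1 1 : Fin 12 → ℝ) ∈ coneL := by
    rw [hvy, ← RL9.vec_add, coneL_PP]
    refine RL9_mem ?_
    obtain ⟨f1, f2, f3, f4, f5, f6, f7, f8, f9, f10⟩ := hL
    constructor <;> simp <;> linarith
  have h7 := sd_raise hsd hanti hpc (v := -η) hy0.le hpc2 (by
    intro k hk
    obtain ⟨k1, k2, k7, k8⟩ := hk
    fin_cases k <;> simp [RS.vec, RL9, cl9, r9, eL] at k1 k2 k7 k8 ⊢ <;> linarith) (by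
    simp [RS.vec, RL9, cl9, r9, eL]
    linarith)
  rw [h7, sub_self] at h6
  rcases mul_eq_zero.1 h6.symm with h8' | h8'
  · exact h8'
  · exact absurd h8' hy0.ne'

section ctx2

variable {G : Geo TSet (Fin 2)} {L : ℕ → ℕ → LRay} {r : ℕ → ℝ} {g s : ℝ} {θ q : Fin 2 → ℝ}
    {Rg : ℝ} {B : Base} {I : ℕ → Finset (ℕ × ℝ)} {lev : ℕ → ℚ → ℕ} {A : ℕ → ℝ}
    {f : ℕ → ℚ → ℕ → ℤ → ℕ} {b : ℕ → ℚ → ℕ → TSet} {vm : ℕ → ℚ → ℝ} {w : Fin 2 → ℕ → ℚ → ℝ}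
    {fr : ℕ → ℚ → ℕ × ℝ → LInc} {fl : ℕ → ℕ × ℝ → LInc} {sc : Fin 12 → ℕ → ℝ}
    {w0 sa sb δ R : ℝ} {I0 I' : ℕ → Finset (ℕ × ℝ)} {ν own : (Fin 12 → ℝ) → ℝ} {c₀ : ℝ}

/-- **the rate of `D` above the record is `0`**, `Out9` form, any offset `Bo` -/
theorem rD_out
    (h : CtxT G L r g s θ q Rg B I lev A f b vm w fr fl sc w0 sa sb δ R I0 I' ν own c₀)
    (hθ : 0 < θ 0) (hRg : θ 0 + |θ 1| < Rg) {v0 : ℝ} (hv0 : 0 < v0) (hv1 : v0 < 1)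
    {a b' : Fin 2} {Vis : Fin 12 → Prop} {gg qa qb : ℝ} {T : Type*} {Bs : T → Fin 9 → ℝ}
    {sgs : T → ℝ} {x : ℕ → Fin 12 → ℝ} {hh : ℕ → ℝ} {lam : Fin 2 → (Fin 12 → ℝ) → ℝ}
    (O : Out9 R s a b' Vis (θ 0) (θ 1) gg qa qb Bs sgs (rL (θ 0) (θ 1) w0 sa sb v0) (fo ν own)
      x hh lam)
    {Bo : Fin 9 → ℝ} {sg c0 : ℝ} (hc0 : 0 < c0)
    (hS : SOk (nat9 1 (-(θ 0)) (-(θ 1))) Bo sg) (hA8 : nat9 1 (-(θ 0)) (-(θ 1)) 8 ≠ 0)
    (hal : Aln (nat9 1 (-(θ 0)) (-(θ 1))) Bo 8) (hL : Leg9 Bo)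
    {η : ℝ} (h0 : -η ≤ Bo 0) (h1 : η * θ 0 ≤ Bo 1) (h2 : η * θ 1 ≤ Bo 2)
    (h3 : -η * (1 - θ 0) ≤ Bo 3) (h4 : -η * (1 - θ 1) ≤ Bo 4) (h5 : -η * (1 - 2 * θ 0) ≤ Bo 5)
    (h8 : Bo 8 < -η * (2 * θ 0 - θ 1 - 1))
    {ρ : Fin 9 → ℝ} (hR : Rates9 (θ 0) (θ 1) Bo sg c0 (lam 0) ρ) : ρ 8 = 0 := by
  refine rD_zero (lam := lam 0) (fun p hp v hv => ?_) (fun p hp q' hq' hpq => ?_) hc0 hS hA8 hal
    hL h0 h1 h2 h3 h4 h5 h8 hR
  · exact sd_tan h hθ hRg hv0 hv1 O.pos O.lim O.base (O.tan 0) hp hv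
  · have := (SgO219.tan_mono O.pos (O.tan 0) h.ext.lip p hp q' hq' hpq).1
    linarith

/-- `D` is alone on helper139's plane `oSe e` -/
theorem aln8_oSe {θa θb e : ℝ} (he : 0 < e) (hθ : 0 < θa) (hb : θb < θa) (hb2 : θb < 2 * θa)
    (hd : Tp139.DAl θa θb e) : Aln (nat9 1 (-θa) (-θb)) (Tp139.oSe e) 8 := by
  obtain ⟨d1, d2, d3, d4, d5⟩ := Tp139.d_ne' hd he hθ hb
  have hA : nat9 1 (-θa) (-θb) 8 = 2 * θa - θb - 1 := by
    change -θb - 2 * -θa - 1 = _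
    ring
  have hB : Tp139.oSe e 8 = e := rfl
  refine Tp139.all9 ?_ ?_ ?_ ?_ ?_ ?_ ?_ ?_ ?_ <;> intro ht h <;> rw [hA, hB] at h
  · change (2 * θa - θb - 1) * 0 = 1 * e at h
    linarith
  · change (2 * θa - θb - 1) * 1 = -θa * e at h
    exact d1 (by linarith)
  · change (2 * θa - θb - 1) * 1 = -θb * e at h
    exact d2 (by linarith)
  · change (2 * θa - θb - 1) * 1 = (1 + -θa) * e at h
    exact d3 (by linarith)
  · change (2 * θa - θb - 1) * 1 = (1 + -θb) * e at h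
    exact d4 (by linarith)
  · change (2 * θa - θb - 1) * 2 = (1 + 2 * -θa) * e at h
    exact d5 (by linarith)
  · change (2 * θa - θb - 1) * 0 = (-θb - -θa) * e at h
    nlinarith
  · change (2 * θa - θb - 1) * 0 = (-θb - 2 * -θa) * e at h
    nlinarith
  · exact ht rfl

/-- **helper139's plane `oSe e`, `β_D < 0`, `e θ < |β_D|` : the rate of `D` is `0`** -/
theorem rD_oSe
    (h : CtxT G L r g s θ q Rg B I lev A f b vm w fr fl sc w0 sa sb δ R I0 I' ν own c₀)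
    (hθ : 0 < θ 0) (hRg : θ 0 + |θ 1| < Rg) {v0 : ℝ} (hv0 : 0 < v0) (hv1 : v0 < 1)
    {a b' : Fin 2} {Vis : Fin 12 → Prop} {gg qa qb : ℝ} {T : Type*} {Bs : T → Fin 9 → ℝ}
    {sgs : T → ℝ} {x : ℕ → Fin 12 → ℝ} {hh : ℕ → ℝ} {lam : Fin 2 → (Fin 12 → ℝ) → ℝ}
    (O : Out9 R s a b' Vis (θ 0) (θ 1) gg qa qb Bs sgs (rL (θ 0) (θ 1) w0 sa sb v0) (fo ν own)
      x hh lam)
    {e c0 : ℝ} (hc0 : 0 < c0) (he : 0 < e) (hb : θ 1 < θ 0) (hb2 : θ 1 < 2 * θ 0)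
    (hd : Tp139.DAl (θ 0) (θ 1) e) (hβ : 2 * θ 0 - θ 1 - 1 < 0)
    (heβ : e * θ 0 < -(2 * θ 0 - θ 1 - 1))
    {ρ : Fin 9 → ℝ} (hR : Rates9 (θ 0) (θ 1) (Tp139.oSe e) 1 c0 (lam 0) ρ) : ρ 8 = 0 := by
  have hi : 0 < (θ 0)⁻¹ := inv_pos.2 hθ
  have hii : (θ 0)⁻¹ * θ 0 = 1 := inv_mul_cancel₀ hθ.ne'
  refine rD_out h hθ hRg hv0 hv1 O hc0 (Tp139.sok_oSe he hb hb2) (by
      change -(θ 1) - 2 * -(θ 0) - 1 ≠ 0
      intro h1; linarith) (aln8_oSe he hθ hb hb2 hd) (Tp139.leg_oSe he)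
    (η := (θ 0)⁻¹) ?_ ?_ ?_ ?_ ?_ ?_ ?_ hR
  · rw [Tp139.u0]; linarith
  · rw [Tp139.u1]; linarith
  · rw [Tp139.u2]; nlinarith
  · rw [Tp139.u3]; nlinarith
  · rw [Tp139.u4]; nlinarith
  · rw [Tp139.u5]; nlinarith
  · rw [Tp139.u8]
    have h6 : e * θ 0 * (θ 0)⁻¹ < -(2 * θ 0 - θ 1 - 1) * (θ 0)⁻¹ :=
      mul_lt_mul_of_pos_right heβ hi
    have h7 : e * θ 0 * (θ 0)⁻¹ = e := by rw [mul_assoc, mul_comm (θ 0), hii, mul_one]
    linarith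

end ctx2

end Crest.Agent.R116.Sd538
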