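import Mathlib

/-!
# R116 (K side), LEMMA SIG / D0 (194's doc 2383): positions with a prescribed directional derivative
(helper708)

`exists_diff_dir` : `f` Lipschitz on the open set `D`, `N` a null set, `[x, x + y e] ⊆ D`,
`f (x + y e) - f x ≥ c y` ⟹ arbitrarily near the segment there is a point of `D \ N` at which `f` is
differentiable with derivative `≥ c - δ` in the direction `e`.
-/

set_option autoImplicit false

open MeasureTheory Filter Topology Set Metric

namespace Crest.Agent.R116.Sg708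

variable {E : Type*} [NormedAddCommGroup E] [NormedSpace ℝ E] [FiniteDimensional ℝ E]
  [MeasurableSpace E] [BorelSpace E]

/-- for a.e. shift, a.e. point of the shifted line is outside a null set. -/
theorem ae_line (μ : Measure E) [μ.IsAddHaarMeasure] {N : Set E} (hN : μ N = 0) (x e : E) :
    ∀ᵐ w ∂μ, ∀ᵐ t : ℝ, x + w + t • e ∉ N := by
  obtain ⟨N', hNN', hN'm, hN'0⟩ := exists_measurable_superset_of_null hN
  have hcont : Continuous fun p : E × ℝ => x + p.1 + p.2 • e := by fun_prop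
  have hmeas : MeasurableSet {p : E × ℝ | x + p.1 + p.2 • e ∈ N'} := hcont.measurable hN'm
  have h0 : (μ.prod (volume : Measure ℝ)) {p : E × ℝ | x + p.1 + p.2 • e ∈ N'} = 0 := by
    rw [Measure.prod_apply_symm hmeas]
    have : ∀ t : ℝ, μ ((fun w : E => (w, t)) ⁻¹' {p : E × ℝ | x + p.1 + p.2 • e ∈ N'}) = 0 := by
      intro t
      have e1 : ((fun w : E => (w, t)) ⁻¹' {p : E × ℝ | x + p.1 + p.2 • e ∈ N'}) =
          (fun w : E => w + (x + t • e)) ⁻¹' N' := by
        ext w
        simp only [mem_preimage, mem_ofPred_eq]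
        have : x + w + t • e = w + (x + t • e) := by abel
        rw [this]
      rw [e1, measure_preimage_add_right]
      exact hN'0
    rw [lintegral_congr this]
    simp
  have h1 := Measure.measure_ae_null_of_prod_null h0
  filter_upwards [h1] with w hw
  have hw' : volume (Prod.mk w ⁻¹' {p : E × ℝ | x + p.1 + p.2 • e ∈ N'}) = 0 := hw
  rw [ae_iff]
  refine measure_mono_null ?_ hw'
  intro t ht
  simp only [not_not, mem_ofPred_eq] at ht
  exact hNN' ht

/-- **positions with a prescribed directional derivative.** -/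
theorem exists_diff_dir (μ : Measure E) [μ.IsAddHaarMeasure] {f : E → ℝ} {K : NNReal} {D N : Set E}
    (hD : IsOpen D) (hf : LipschitzOnWith K f D) (hN : μ N = 0) {x e : E} {y c δ r : ℝ}
    (hy : 0 < y) (hseg : ∀ t ∈ Icc (0 : ℝ) y, x + t • e ∈ D) (hinc : c * y ≤ f (x + y • e) - f x)
    (hδ : 0 < δ) (hr : 0 < r) :
    ∃ w : E, ‖w‖ < r ∧ ∃ t ∈ Icc (0 : ℝ) y, x + w + t • e ∈ D ∧ x + w + t • e ∉ N ∧
      DifferentiableAt ℝ f (x + w + t • e) ∧ c - δ ≤ fderiv ℝ f (x + w + t • e) e := by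
  -- room around the segment
  have hcomp : IsCompact ((fun t : ℝ => x + t • e) '' Icc 0 y) :=
    isCompact_Icc.image (by fun_prop)
  obtain ⟨r0, hr0, hth⟩ := hcomp.exists_thickening_subset_open hD (by
    rintro _ ⟨t, ht, rfl⟩
    exact hseg t ht)
  have hin : ∀ w : E, ‖w‖ < r0 → ∀ t ∈ Icc (0 : ℝ) y, x + w + t • e ∈ D := by
    intro w hw t ht
    apply hth
    rw [mem_thickening_iff]
    refine ⟨x + t • e, ⟨t, ht, rfl⟩, ?_⟩
    rw [dist_eq_norm]
    have : x + w + t • e - (x + t • e) = w := by abel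
    rwa [this]
  -- the bad set
  set Nd : Set E := {z | z ∈ D ∧ ¬ DifferentiableAt ℝ f z} with hNd
  have hNd0 : μ Nd = 0 := by
    have h1 : ∀ᵐ z ∂μ, z ∈ D → DifferentiableWithinAt ℝ f D z :=
      hf.ae_differentiableWithinAt_of_mem
    rw [ae_iff] at h1
    refine measure_mono_null ?_ h1
    intro z hz
    simp only [mem_ofPred_eq, Classical.not_imp]
    exact ⟨hz.1, fun h => hz.2 (h.differentiableAt (hD.mem_nhds hz.1))⟩
  have hbad : μ (N ∪ Nd) = 0 := measure_union_null hN hNd0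
  -- a good shift
  obtain ⟨κ, hκ⟩ : ∃ κ : ℝ, κ = (K : ℝ) := ⟨_, rfl⟩
  have hκ0 : 0 ≤ κ := by rw [hκ]; exact K.2
  set r1 : ℝ := min (min r r0) (δ * y / (2 * κ + 1)) with hr1
  have hr1p : 0 < r1 := lt_min (lt_min hr hr0) (by positivity)
  obtain ⟨w, hwg, hwb⟩ : ∃ w, (∀ᵐ t : ℝ, x + w + t • e ∉ N ∪ Nd) ∧ w ∈ ball (0 : E) r1 := by
    have hd := Measure.dense_of_ae (ae_line μ hbad x e)
    obtain ⟨w, hw1, hw2⟩ := hd.exists_mem_open isOpen_ball ⟨(0 : E), mem_ball_self hr1p⟩
    exact ⟨w, hw1, hw2⟩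
  rw [mem_ball_zero_iff] at hwb
  have hwr : ‖w‖ < r := hwb.trans_le ((min_le_left _ _).trans (min_le_left _ _))
  have hwr0 : ‖w‖ < r0 := hwb.trans_le ((min_le_left _ _).trans (min_le_right _ _))
  have hwδ : ‖w‖ < δ * y / (2 * κ + 1) := hwb.trans_le (min_le_right _ _)
  rw [lt_div_iff₀ (by positivity)] at hwδ
  by_contra hcon
  push Not at hcon
  have hcon' := hcon w hwr
  have hinw := hin w hwr0
  set g : ℝ → ℝ := fun t => f (x + w + t • e) with hg
  set G : ℝ → ℝ := fun t => κ * ‖e‖ * t - g t with hG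
  have hlip : ∀ a ∈ D, ∀ b ∈ D, f a - f b ≤ κ * ‖a - b‖ := by
    intro a ha b hb
    have h2 := hf.dist_le_mul a ha b hb
    rw [Real.dist_eq, dist_eq_norm, ← hκ] at h2
    exact (le_abs_self _).trans h2
  have hmono : MonotoneOn G (Icc 0 y) := by
    intro s hs t ht hst
    have h2 := hlip _ (hinw t ht) _ (hinw s hs)
    have h3 : x + w + t • e - (x + w + s • e) = (t - s) • e := by
      rw [sub_smul]
      abel
    rw [h3, norm_smul, Real.norm_eq_abs, abs_of_nonneg (by linarith : 0 ≤ t - s)] at h2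
    simp only [hG, hg]
    nlinarith
  have hint := MonotoneOn.intervalIntegral_deriv_mem_uIcc (f := G) (a := 0) (b := y)
    (by rwa [uIcc_of_le hy.le])
  have hGm := hmono ⟨le_rfl, hy.le⟩ ⟨hy.le, le_rfl⟩ hy.le
  rw [uIcc_of_le (by linarith)] at hint
  have hder : ∀ᵐ t : ℝ, t ∈ Ioc 0 y → κ * ‖e‖ - (c - δ) ≤ deriv G t := by
    filter_upwards [hwg] with t ht htI
    have htI' : t ∈ Icc 0 y := ⟨htI.1.le, htI.2⟩
    have hmem := hinw t htI'
    have hnN : x + w + t • e ∉ N := fun h => ht (Or.inl h)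
    have hdf : DifferentiableAt ℝ f (x + w + t • e) := by
      by_contra h
      exact ht (Or.inr ⟨hmem, h⟩)
    have hlt := hcon' t htI' hmem hnN hdf
    have hγ : HasDerivAt (fun t : ℝ => x + w + t • e) e t := by
      have := ((hasDerivAt_id t).smul_const e).const_add (x + w)
      simpa using this
    have hgd : HasDerivAt g (fderiv ℝ f (x + w + t • e) e) t :=
      hdf.hasFDerivAt.comp_hasDerivAt t hγ
    have hGd : HasDerivAt G (κ * ‖e‖ - fderiv ℝ f (x + w + t • e) e) t := by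
      have h5 : HasDerivAt (fun t : ℝ => κ * ‖e‖ * t) (κ * ‖e‖) t := by
        simpa using (hasDerivAt_id t).const_mul (κ * ‖e‖)
      exact h5.sub hgd
    rw [hGd.deriv]
    linarith
  have hii : IntervalIntegrable (deriv G) volume 0 y :=
    MonotoneOn.intervalIntegrable_deriv (by rwa [uIcc_of_le hy.le])
  have hge : ∫ _t in (0 : ℝ)..y, (κ * ‖e‖ - (c - δ)) ≤ ∫ t in (0 : ℝ)..y, deriv G t := by
    rw [intervalIntegral.integral_of_le hy.le, intervalIntegral.integral_of_le hy.le]
    apply setIntegral_mono_on_ae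
    · exact integrableOn_const (by simp)
    · exact (intervalIntegrable_iff_integrableOn_Ioc_of_le hy.le).1 hii
    · exact measurableSet_Ioc
    · exact hder
  rw [intervalIntegral.integral_const] at hge
  simp only [smul_eq_mul, sub_zero] at hge
  have h6 := hint.2
  have h7 : G y - G 0 = κ * ‖e‖ * y - (f (x + w + y • e) - f (x + w)) := by
    simp only [hG, hg]
    rw [zero_smul, add_zero]
    ring
  have hy0 : (0 : ℝ) ∈ Icc (0 : ℝ) y := ⟨le_rfl, hy.le⟩
  have hyy : y ∈ Icc (0 : ℝ) y := ⟨hy.le, le_rfl⟩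
  have h8 : f (x + y • e) - f (x + w + y • e) ≤ κ * ‖w‖ := by
    have := hlip _ (hseg y hyy) _ (hinw y hyy)
    have h9 : x + y • e - (x + w + y • e) = -w := by abel
    rwa [h9, norm_neg] at this
  have h10 : f (x + w) - f x ≤ κ * ‖w‖ := by
    have h11 := hlip _ (hinw 0 hy0) _ (hseg 0 hy0)
    rw [zero_smul, add_zero, add_zero] at h11
    have h9 : x + w - x = w := by abel
    rwa [h9] at h11
  have h12 : 0 ≤ ‖w‖ := norm_nonneg w
  nlinarith

end Crest.Agent.R116.Sg708
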