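import Crest.Agent.R116.SgF_665

/-!
# R116 (K side, LEMMA SIG, generic `σ`), junction 1 (helper665; doc 2383 of 194)

* `lin_at` : at the offset `c0` (any position of any group) where `lam j0` has directional
  derivatives on `bx`-boxes: a `LinTan` of `f` at the base `x (ψ m) + h (ψ m) • c0`
* `Gen` : the slots `z, X, N, F` are single groups; `rates_gen`, `facts_gen`
* **`sig_false`** : three increments + total rate + `LinFacts` ⊢ `False`
-/

set_option autoImplicit false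
set_option linter.unusedVariables false

open Set Filter Topology Metric

namespace Crest.Agent.R116.SgF665

open Crest.Agent.R136
open Crest.Agent.R138
open Crest.Agent.R136.Net191
open Crest.Agent.R116.ChL222
open Crest.Agent.R116.Sg337 (bx9)
open Dg219 (Walls gset mem_gset OutS gC dhC nC gC_zero gC_eq)
open SgO219 (LT L_sub_LT OutL exists_lin RateP exists_pos)
open Sg388 (ind)

/-- **A LINEAR TANGENT AT A POSITION** -/
theorem lin_at {W κ : Type*} [Fintype W] [DecidableEq κ] {Q : Walls (Fin 12) W}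
    {P : Set (Fin 12 → ℝ)} {x0 a b : Fin 12 → ℝ} {grp : Fin 12 → κ} {dh : Fin 12 → ℝ}
    {n : κ → ℝ × ℝ} {A : ℝ × ℝ} {φ : κ → (Fin 12 → ℝ) → ℝ} {r : κ → ℝ}
    {J : Type*} [Finite J] {f lam : J → (Fin 12 → ℝ) → ℝ} {j0 : J} {x : ℕ → Fin 12 → ℝ}
    {h : ℕ → ℝ} {K : ℝ} (hK : 0 ≤ K) (hpos : ∀ l, 0 < h l) (h0 : Tendsto h atTop (𝓝 0))
    (hQ : Q.L x0 a b = LM0)
    (hx : ∀ l, ∀ k, ∀ e ∈ monL.mon k, e 1 = 0 → x l k = wl e (x l))
    (hxD : ∀ k, ∀ e ∈ monL.mon k, e 1 ≠ 0 → ∀ K : ℝ, ∀ᶠ l in atTop,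
      x l k + K * h l ≤ wl e (x l))
    (ht : ∀ j, Ex926.IsTan P (Q.L x0 a b) (f j) x h (lam j))
    (hlip : ∀ j, ∀ p ∈ Q.L x0 a b, ∀ q ∈ Q.L x0 a b, |lam j p - lam j q| ≤ K * ‖p - q‖)
    (H : OutS grp (Q.L x0 a b) dh n (lam j0) A φ r) {c0 : Fin 12 → ℝ} (hc0 : c0 ∈ LM0)
    {s : ℕ → ℝ} (spos : ∀ m, 0 < s m) (s0 : Tendsto s atTop (𝓝 0))
    {rz rX rH rF gC gP gE gB : ℝ}
    (hdir : ∀ z C p E B x H F : ℝ, bx9 z 0 E C x B H p F ∈ LM0 →
      Tendsto (fun t : ℝ => (lam j0 (c0 + t • bx9 z 0 E C x B H p F) - lam j0 c0) / t) (𝓝[>] 0)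
        (𝓝 (-(rz * z + rX * x + rH * H + rF * F + gC * C + gP * p + gE * E + gB * B)))) :
    ∃ ψ θ : ℕ → ℕ, StrictMono ψ ∧ StrictMono θ ∧
      LinTan P f j0 (fun m => x (ψ m) + h (ψ m) • c0) (fun m => h (ψ m) * s (θ m))
        rz rX rH rF gC gP gE gB := by
  have hc0' : c0 ∈ Q.L x0 a b := by rw [hQ]; exact hc0
  obtain ⟨ψ, θ, lam', φ', hψ, hθ, h1, h2, h3⟩ :=
    exists_lin hK hpos h0 ht hlip H hc0' spos s0
  have hs0 : Tendsto (fun m => s (θ m)) atTop (𝓝 0) := s0.comp hθ.tendsto_atTop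
  have hh0 : Tendsto (fun m => h (ψ m)) atTop (𝓝 0) := h0.comp hψ.tendsto_atTop
  have slD : ∀ k, ∀ e ∈ monL.mon k, e 1 ≠ 0 → ∀ K : ℝ, ∀ᶠ m in atTop,
      (x (ψ m) + h (ψ m) • c0) k + K * (h (ψ m) * s (θ m)) ≤ wl e (x (ψ m) + h (ψ m) • c0) := by
    intro k e he h1 K
    have e1 := hψ.tendsto_atTop.eventually (hxD k e he h1 (|K| + |c0 k| + |wl e c0|))
    filter_upwards [e1, hs0.eventually_lt_const one_pos] with m m1 m2
    rw [wl_add, wl_smul, Pi.add_apply, Pi.smul_apply, smul_eq_mul]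
    have hh := hpos (ψ m)
    have hs := spos (θ m)
    have a1 : K * s (θ m) ≤ |K| := by
      have := le_abs_self (K * s (θ m))
      rw [abs_mul, abs_of_pos hs] at this
      nlinarith [abs_nonneg K]
    have a2 := mul_le_mul_of_nonneg_left a1 hh.le
    have a3 := mul_le_mul_of_nonneg_left (le_abs_self (c0 k)) hh.le
    have a4 := mul_le_mul_of_nonneg_left (neg_abs_le (wl e c0)) hh.le
    nlinarith
  refine ⟨ψ, θ, hψ, hθ, ⟨fun l => mul_pos (hpos _) (spos _), ?_, ?_, slD, ?_⟩⟩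
  · have := hh0.mul hs0
    simpa using this
  · intro k e he
    by_cases h1 : e 1 = 0
    · rcases (hc0 k e he h1).lt_or_eq with h4 | h4
      · right
        intro K
        have e1 : 0 < (wl e c0 - c0 k) / (|K| + 1) := div_pos (by linarith) (by positivity)
        filter_upwards [hs0.eventually_lt_const e1] with m m1
        rw [wl_add, wl_smul, Pi.add_apply, Pi.smul_apply, smul_eq_mul, ← hx (ψ m) k e he h1]
        have hh := hpos (ψ m)
        have hs := spos (θ m)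
        rw [lt_div_iff₀ (by positivity)] at m1
        have a1 : K * s (θ m) ≤ wl e c0 - c0 k := by
          have := mul_le_mul_of_nonneg_right (le_abs_self K) hs.le
          nlinarith
        have a2 := mul_le_mul_of_nonneg_left a1 hh.le
        nlinarith
      · left
        intro m
        rw [wl_add, wl_smul, Pi.add_apply, Pi.smul_apply, smul_eq_mul, ← hx (ψ m) k e he h1, h4]
    · exact Or.inr (slD k e he h1)
  · have hsub : LM0 ⊆ LT Q x0 a b c0 := by rw [← hQ]; exact L_sub_LT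
    refine ⟨LT Q x0 a b c0, lam', hsub, h1, fun z C p E B x H F hb => ?_⟩
    have sT : Tendsto (fun m => s (θ m)) atTop (𝓝[>] 0) :=
      tendsto_nhdsWithin_iff.2 ⟨hs0, Eventually.of_forall fun m => spos _⟩
    have hl := (Dg219.bup_of_tan (fun m => spos (θ m)) hs0 (h2 j0)).lim _ (hsub hb)
    exact tendsto_nhds_unique hl ((hdir z C p E B x H F hb).comp sT)

/-- directional derivatives of the sum -/
theorem dir_sum {κ : Type*} [DecidableEq κ] {L : Set (Fin 12 → ℝ)} {grp : Fin 12 → κ}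
    {dh : Fin 12 → ℝ} {n : κ → ℝ × ℝ} {A : ℝ × ℝ} {lam : (Fin 12 → ℝ) → ℝ}
    {φ : κ → (Fin 12 → ℝ) → ℝ} {r : κ → ℝ} (H : OutS grp L dh n lam A φ r) {c0 c : Fin 12 → ℝ}
    (hc0 : c0 ∈ L) (hc : ∀ t : ℝ, 0 < t → c0 + t • c ∈ L) {R : κ → ℝ}
    (hR : ∀ k ∈ gset grp, Tendsto (fun t : ℝ => (φ k (c0 + t • c) - φ k c0) / t) (𝓝[>] 0)
      (𝓝 (R k))) :
    Tendsto (fun t : ℝ => (lam (c0 + t • c) - lam c0) / t) (𝓝[>] 0)
      (𝓝 (∑ k ∈ gset grp, R k)) := by
  refine (tendsto_finsetSum _ hR).congr' ?_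
  filter_upwards [self_mem_nhdsWithin] with t ht
  rw [H.sum _ (hc t ht), H.sum _ hc0, ← Finset.sum_sub_distrib, Finset.sum_div]

theorem LM0_add {p q : Fin 12 → ℝ} (hp : p ∈ LM0) (hq : q ∈ LM0) : p + q ∈ LM0 := by
  intro k e he h1
  rw [Pi.add_apply, wl_add]
  exact add_le_add (hp k e he h1) (hq k e he h1)

theorem LM0_smul {p : Fin 12 → ℝ} (hp : p ∈ LM0) {t : ℝ} (ht : 0 ≤ t) : t • p ∈ LM0 := by
  intro k e he h1
  rw [Pi.smul_apply, wl_smul, smul_eq_mul]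
  exact mul_le_mul_of_nonneg_left (hp k e he h1) ht

/-! ### generic `σ` -/

/-- the slots `z, X, N, F` are single groups, the others are the group `0` -/
structure Gen (a b : Fin 12 → ℝ) : Prop where
  a0 : ∀ i, i = 1 ∨ i = 2 ∨ i = 3 ∨ i = 4 ∨ i = 7 ∨ i = 8 ∨ i = 10 → a i = 0
  a1 : ∀ i, i = 0 ∨ i = 5 ∨ i = 6 ∨ i = 9 ∨ i = 11 → a i = 1
  b56 : b 5 = b 6
  n05 : b 0 ≠ b 5
  n09 : b 0 ≠ b 9
  n011 : b 0 ≠ b 11
  n59 : b 5 ≠ b 9
  n511 : b 5 ≠ b 11
  n911 : b 9 ≠ b 11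

/-- moves in the group `0` : `(C, P, E, B)` -/
noncomputable def T4 : (Fin 4 → ℝ) →L[ℝ] (Fin 12 → ℝ) :=
  LinearMap.toContinuousLinearMap
    { toFun := fun v => bx9 0 0 (v 2) (v 0) 0 (v 3) 0 (v 1) 0
      map_add' := fun v w => by
        funext k
        fin_cases k <;> simp [bx9]
      map_smul' := fun t v => by
        funext k
        fin_cases k <;> simp [bx9] }

theorem T4_apply (v : Fin 4 → ℝ) : T4 v = bx9 0 0 (v 2) (v 0) 0 (v 3) 0 (v 1) 0 := rfl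

end Crest.Agent.R116.SgF665
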