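import Crest.Agent.R116.Sg3a_665

/-!
# R116 (K side, LEMMA SIG, generic `σ`), junction 2 (helper665; doc 2383 of 194)

* `Gen` : the slots `z, X, N, F` are single groups; `facts_gen` : the seven implications at a
  position of the group `0`; `posn` : positions for `{C}`, `{C, P}`, `{P, E, B}`
* **`sig_false`** : three increments + total rate + `LinFacts` ⊢ `False`
-/

set_option autoImplicit false
set_option linter.unusedVariables false

open Set Filter Topology Metric

namespace Crest.Agent.R116.SgF665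

open Crest.Agent.R136
open Crest.Agent.R138
open Crest.Agent.R136.Net191
open Crest.Agent.R116.ChL222
open Crest.Agent.R116.Sg337 (bx9)
open Dg219 (Walls gset mem_gset OutS gC dhC nC gC_zero gC_eq)
open SgO219 (LT L_sub_LT OutL exists_lin RateP exists_pos)
open Sg388 (ind)

section

variable {a b : Fin 12 → ℝ}

theorem Gen.g0 (G : Gen a b) {i : Fin 12}
    (h : i = 1 ∨ i = 2 ∨ i = 3 ∨ i = 4 ∨ i = 7 ∨ i = 8 ∨ i = 10) : gC a b i = 0 :=
  gC_zero.2 (G.a0 i h)

theorem Gen.ne0 (G : Gen a b) {i : Fin 12} (h : i = 0 ∨ i = 5 ∨ i = 6 ∨ i = 9 ∨ i = 11) :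
    a i ≠ 0 := by rw [G.a1 i h]; exact one_ne_zero

theorem Gen.eq_iff (G : Gen a b) {i j : Fin 12} (hi : i = 0 ∨ i = 5 ∨ i = 6 ∨ i = 9 ∨ i = 11)
    (hj : j = 0 ∨ j = 5 ∨ j = 6 ∨ j = 9 ∨ j = 11) : gC a b i = gC a b j ↔ b i = b j := by
  rw [gC_eq (G.ne0 hi) (G.ne0 hj), G.a1 i hi, G.a1 j hj, div_one, div_one]

theorem Gen.e56 (G : Gen a b) : gC a b 6 = gC a b 5 :=
  (G.eq_iff (by decide) (by decide)).2 G.b56.symm

/-- the slots of each group -/
theorem Gen.cases (G : Gen a b) (i : Fin 12) :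
    (gC a b i = 0 ∧ (i = 1 ∨ i = 2 ∨ i = 3 ∨ i = 4 ∨ i = 7 ∨ i = 8 ∨ i = 10)) ∨
    (i = 0) ∨ (i = 5 ∨ i = 6) ∨ (i = 9) ∨ (i = 11) := by
  by_cases h : i = 1 ∨ i = 2 ∨ i = 3 ∨ i = 4 ∨ i = 7 ∨ i = 8 ∨ i = 10
  · exact Or.inl ⟨G.g0 h, h⟩
  · right
    revert h
    revert i
    decide

theorem Gen.pos (G : Gen a b) {i : Fin 12} (h : i = 0 ∨ i = 5 ∨ i = 6 ∨ i = 9 ∨ i = 11) :
    gC a b i ≠ 0 := fun h1 => G.ne0 h (gC_zero.1 h1)

theorem Gen.dh (G : Gen a b) {i : Fin 12} (h : i = 0 ∨ i = 5 ∨ i = 6 ∨ i = 9 ∨ i = 11) :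
    dhC a b i = 1 := by
  unfold dhC; rw [if_neg (G.ne0 h), G.a1 i h]

theorem Gen.gset_eq (G : Gen a b) : gset (gC a b) =
    {0, gC a b 0, gC a b 5, gC a b 9, gC a b 11} := by
  ext k
  simp only [Finset.mem_insert, Finset.mem_singleton]
  constructor
  · intro hk
    obtain ⟨i, -, hi⟩ := Finset.mem_image.1 hk
    rcases G.cases i with h | h | (h | h) | h | h
    · left; rw [← hi, h.1]
    · subst h; right; left; exact hi.symm
    · subst h; right; right; left; exact hi.symm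
    · subst h; right; right; left; rw [← hi, G.e56]
    · subst h; right; right; right; left; exact hi.symm
    · subst h; right; right; right; right; exact hi.symm
  · rintro (h | h | h | h | h)
    · rw [h, ← G.g0 (i := 1) (by decide)]; exact mem_gset 1
    · rw [h]; exact mem_gset 0
    · rw [h]; exact mem_gset 5
    · rw [h]; exact mem_gset 9
    · rw [h]; exact mem_gset 11

theorem Gen.sum_eq (G : Gen a b) (R : ℕ → ℝ) : ∑ k ∈ gset (gC a b), R k =
    R 0 + R (gC a b 0) + R (gC a b 5) + R (gC a b 9) + R (gC a b 11) := by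
  have h1 : gC a b 0 ≠ gC a b 5 := fun h => G.n05 ((G.eq_iff (by decide) (by decide)).1 h)
  have h2 : gC a b 0 ≠ gC a b 9 := fun h => G.n09 ((G.eq_iff (by decide) (by decide)).1 h)
  have h3 : gC a b 0 ≠ gC a b 11 := fun h => G.n011 ((G.eq_iff (by decide) (by decide)).1 h)
  have h4 : gC a b 5 ≠ gC a b 9 := fun h => G.n59 ((G.eq_iff (by decide) (by decide)).1 h)
  have h5 : gC a b 5 ≠ gC a b 11 := fun h => G.n511 ((G.eq_iff (by decide) (by decide)).1 h)
  have h6 : gC a b 9 ≠ gC a b 11 := fun h => G.n911 ((G.eq_iff (by decide) (by decide)).1 h)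
  have p0 := (G.pos (i := 0) (by decide)).symm
  have p5 := (G.pos (i := 5) (by decide)).symm
  have p9 := (G.pos (i := 9) (by decide)).symm
  have p11 := (G.pos (i := 11) (by decide)).symm
  rw [G.gset_eq, Finset.sum_insert (by simp [p0, p5, p9, p11]), Finset.sum_insert
    (by simp [h1, h2, h3]), Finset.sum_insert (by simp [h4, h5]), Finset.sum_insert (by simp [h6]),
    Finset.sum_singleton]
  ring

theorem Gen.sum_eq' (G : Gen a b) (R : ℕ → ℝ) : ∑ k ∈ (gset (gC a b)).erase 0, R k =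
    R (gC a b 0) + R (gC a b 5) + R (gC a b 9) + R (gC a b 11) := by
  have h1 : (0:ℕ) ∈ gset (gC a b) := by rw [G.gset_eq]; simp
  have h2 := Finset.add_sum_erase _ R h1
  rw [G.sum_eq] at h2
  linarith

end

section

variable {W : Type*} [Fintype W] {Q : Walls (Fin 12) W} {x0 a b : Fin 12 → ℝ}
  {A : ℝ × ℝ} {lam0 : (Fin 12 → ℝ) → ℝ} {φ : ℕ → (Fin 12 → ℝ) → ℝ} {r : ℕ → ℝ}

/-- directional derivatives at an offset, from the rates of the group `0` -/
theorem dir_gen (G : Gen a b) (hQ : Q.L x0 a b = LM0)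
    (H : OutS (gC a b) (Q.L x0 a b) (dhC a b) (nC a b) lam0 A φ r)
    {z C p E B x H' F : ℝ} (hc0 : bx9 z 0 E C x B H' p F ∈ LM0) {g : Fin 4 → ℝ}
    (hR : RateP (φ 0) (bx9 z 0 E C x B H' p F) T4 g)
    {z' C' p' E' B' x' H'' F' : ℝ} (hc : bx9 z' 0 E' C' x' B' H'' p' F' ∈ LM0) :
    Tendsto (fun t : ℝ => (lam0 (bx9 z 0 E C x B H' p F + t • bx9 z' 0 E' C' x' B' H'' p' F') -
        lam0 (bx9 z 0 E C x B H' p F)) / t) (𝓝[>] 0)
      (𝓝 (-(r (gC a b 0) * z' + r (gC a b 5) * x' + r (gC a b 9) * H'' + r (gC a b 11) * F' +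
        g 0 * C' + g 1 * p' + g 2 * E' + g 3 * B'))) := by
  have hmem : ∀ t : ℝ, 0 ≤ t → bx9 z 0 E C x B H' p F + t • bx9 z' 0 E' C' x' B' H'' p' F' ∈
      Q.L x0 a b := fun t ht => by rw [hQ]; exact LM0_add hc0 (LM0_smul hc ht)
  have hm0 : bx9 z 0 E C x B H' p F ∈ Q.L x0 a b := by rw [hQ]; exact hc0
  have sing : ∀ k : ℕ, ∀ v v' : ℝ, (∀ i, gC a b i = k → dhC a b i = 1 ∧
      bx9 z 0 E C x B H' p F i = v ∧ bx9 z' 0 E' C' x' B' H'' p' F' i = v') →
      Tendsto (fun t : ℝ => (φ k (bx9 z 0 E C x B H' p F + t • bx9 z' 0 E' C' x' B' H'' p' F') -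
        φ k (bx9 z 0 E C x B H' p F)) / t) (𝓝[>] 0) (𝓝 (-(r k * v'))) := by
    intro k v v' hk
    refine tendsto_const_nhds.congr' ?_
    filter_upwards [self_mem_nhdsWithin] with t ht
    have ht' : (0:ℝ) < t := ht
    rw [H.rate k _ (hmem t ht'.le) (v + t * v') fun i hi => by
      obtain ⟨h1, h2, h3⟩ := hk i hi
      rw [Pi.add_apply, Pi.smul_apply, smul_eq_mul, h1, h2, h3, mul_one],
      H.rate k _ hm0 v fun i hi => by
        obtain ⟨h1, h2, h3⟩ := hk i hi
        rw [h1, h2, mul_one]]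
    field_simp
    ring
  have h0 : Tendsto (fun t : ℝ => (φ 0 (bx9 z 0 E C x B H' p F +
      t • bx9 z' 0 E' C' x' B' H'' p' F') - φ 0 (bx9 z 0 E C x B H' p F)) / t) (𝓝[>] 0)
      (𝓝 (-(g 0 * C' + g 1 * p' + g 2 * E' + g 3 * B'))) := by
    have h1 := hR ![C', p', E', B']
    have e1 : -∑ i, g i * ![C', p', E', B'] i = -(g 0 * C' + g 1 * p' + g 2 * E' + g 3 * B') := by
      simp [Fin.sum_univ_succ]; ring
    rw [e1] at h1
    refine h1.congr fun t => ?_
    rw [H.loc 0 (bx9 z 0 E C x B H' p F + t • T4 ![C', p', E', B'])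
      (bx9 z 0 E C x B H' p F + t • bx9 z' 0 E' C' x' B' H'' p' F') fun i hi => ?_]
    have hi' : i = 1 ∨ i = 2 ∨ i = 3 ∨ i = 4 ∨ i = 7 ∨ i = 8 ∨ i = 10 := by
      rcases G.cases i with h | h | h | h | h
      · exact h.2
      · exact absurd hi (G.pos (by rw [h]; decide))
      · exact absurd hi (G.pos (by rcases h with h | h <;> rw [h] <;> decide))
      · exact absurd hi (G.pos (by rw [h]; decide))
      · exact absurd hi (G.pos (by rw [h]; decide))
    rw [T4_apply]
    rcases hi' with h | h | h | h | h | h | h <;> subst h <;> simp [bx9]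
  have only : ∀ i j : Fin 12, (j = 0 ∨ j = 5 ∨ j = 9 ∨ j = 11) → gC a b i = gC a b j →
      (i = j ∨ (j = 5 ∧ i = 6)) := by
    intro i j hj hij
    have hj' : j = 0 ∨ j = 5 ∨ j = 6 ∨ j = 9 ∨ j = 11 := by
      rcases hj with h | h | h | h <;> rw [h] <;> decide
    have hi' : i = 0 ∨ i = 5 ∨ i = 6 ∨ i = 9 ∨ i = 11 := by
      rcases G.cases i with h | h | h | h | h
      · exact absurd (by rw [← hij, h.1]) (G.pos hj')
      · rw [h]; decide
      · rcases h with h | h <;> rw [h] <;> decide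
      · rw [h]; decide
      · rw [h]; decide
    have hb := (G.eq_iff hi' hj').1 hij
    have n05 := G.n05; have n09 := G.n09; have n011 := G.n011; have n59 := G.n59
    have n511 := G.n511; have n911 := G.n911; have b56 := G.b56
    rcases hj with h | h | h | h <;> rcases hi' with h' | h' | h' | h' | h' <;> subst h <;>
      subst h' <;> first
      | (left; rfl)
      | (right; exact ⟨rfl, rfl⟩)
      | (exfalso; first
          | exact n05 hb | exact n05 hb.symm | exact n09 hb | exact n09 hb.symm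
          | exact n011 hb | exact n011 hb.symm | exact n59 hb | exact n59 hb.symm
          | exact n511 hb | exact n511 hb.symm | exact n911 hb | exact n911 hb.symm
          | exact n05 (b56.trans hb).symm | exact n59 (b56.trans hb)
          | exact n511 (b56.trans hb))
  have s0 := sing (gC a b 0) z z' fun i hi => by
    rcases only i 0 (by decide) hi with h | h
    · subst h; exact ⟨G.dh (by decide), rfl, rfl⟩
    · exact absurd h.1 (by decide)
  have s5 := sing (gC a b 5) x x' fun i hi => by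
    rcases only i 5 (by decide) hi with h | h
    · subst h; exact ⟨G.dh (by decide), rfl, rfl⟩
    · rw [h.2]; exact ⟨G.dh (by decide), rfl, rfl⟩
  have s9 := sing (gC a b 9) H' H'' fun i hi => by
    rcases only i 9 (by decide) hi with h | h
    · subst h; exact ⟨G.dh (by decide), rfl, rfl⟩
    · exact absurd h.1 (by decide)
  have s11 := sing (gC a b 11) F F' fun i hi => by
    rcases only i 11 (by decide) hi with h | h
    · subst h; exact ⟨G.dh (by decide), rfl, rfl⟩
    · exact absurd h.1 (by decide)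
  have hR' : ∀ k ∈ gset (gC a b), ∃ R : ℝ, Tendsto (fun t : ℝ =>
      (φ k (bx9 z 0 E C x B H' p F + t • bx9 z' 0 E' C' x' B' H'' p' F') -
        φ k (bx9 z 0 E C x B H' p F)) / t) (𝓝[>] 0) (𝓝 R) := by
    intro k hk
    rw [G.gset_eq] at hk
    simp only [Finset.mem_insert, Finset.mem_singleton] at hk
    rcases hk with h | h | h | h | h <;> rw [h]
    exacts [⟨_, h0⟩, ⟨_, s0⟩, ⟨_, s5⟩, ⟨_, s9⟩, ⟨_, s11⟩]
  choose! R hRR using hR'
  have hsum := dir_sum H hm0 (fun t ht => hmem t ht.le) hRR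
  rw [G.sum_eq] at hsum
  have m0 : (0:ℕ) ∈ gset (gC a b) := by rw [G.gset_eq]; simp
  have u0 := tendsto_nhds_unique (hRR 0 m0) h0
  have u1 := tendsto_nhds_unique (hRR _ (mem_gset 0)) s0
  have u5 := tendsto_nhds_unique (hRR _ (mem_gset 5)) s5
  have u9 := tendsto_nhds_unique (hRR _ (mem_gset 9)) s9
  have u11 := tendsto_nhds_unique (hRR _ (mem_gset 11)) s11
  rw [u0, u1, u5, u9, u11] at hsum
  refine hsum.congr' ?_ |>.mono_right ?_
  · exact Filter.EventuallyEq.rfl
  · apply le_of_eq; congr 1; ring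

end

end Crest.Agent.R116.SgF665
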