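import Crest.Agent.R116.SgP2_890

/-!
# R116 (K side, LEMMA SIG), `σ = 0` and `σ = 2` (helper890; docs 2383, 439's positions, 905's SIG2)

* `sig0_core`, `sig2_core` : over `PosF`
-/

set_option autoImplicit false
set_option linter.unusedVariables false

open Set Filter Topology MeasureTheory

namespace Crest.Agent.R116.SgP890

open Crest.Agent.R136
open Crest.Agent.R138
open Crest.Agent.R136.Net191
open Crest.Agent.R116.ChL222
open Dg219 (Walls mw gset mem_gset gC dhC nC gC_zero gC_eq OutS)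
open SgO219 (RateP exists_posn_y psi_lip rateP_of_diff seg_ge ae_line exists_line)
open Sg337 (bx9 uC uP uCP)
open Sg388 (ind)
open Sg635

/-- `bg` vanishes on the group `0` -/
theorem bg_zero {θa θb : ℝ} {z X N F : ℝ} {i : Fin 12} (hi : gC aS (bS θa θb) i = 0) :
    bg z X N F i = 0 := by
  have h := g_zero.1 hi
  revert h
  fin_cases i <;> simp [bg, bx9]

section

variable {θa θb : ℝ} {lam : (Fin 12 → ℝ) → ℝ} {A : ℝ × ℝ} {φ : ℕ → (Fin 12 → ℝ) → ℝ} {r : ℕ → ℝ}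

theorem zero_mem : (0 : Fin 12 → ℝ) ∈ LMd := by
  have := mem_bx (z := 0) (D := 0) (E := 0) (C := 0) (X := 0) (B := 0) (N := 0) (P := 0) (F := 0)
  have e : bx9 0 0 0 0 0 0 0 0 0 = (0 : Fin 12 → ℝ) := by
    funext k; fin_cases k <;> rfl
  rw [e] at this
  exact this.2 (by simp)

/-- transfer of the rates of the group `0` to a position with background -/
theorem Out.rate0_bg (H : Out θa θb lam A φ r) {v : Fin 4 → ℝ} {G : Fin 4 → ℝ}
    (hG : RateP (φ 0) (0 + T4 v) T4 G) (z X N F : ℝ) :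
    RateP (φ 0) (bg z X N F + T4 v) T4 G := by
  refine RateP.transfer (Q := mw monL) (x0 := xS 1) (a := aS) (b := bS θa θb) (lam := lam)
    (A := A) (r := r) (grp := gC aS (bS θa θb)) (dh := dhC aS (bS θa θb))
    (n := nC aS (bS θa θb)) (by rw [L_eq one_ne_zero]; exact H) hG fun i hi => ?_
  rw [Pi.add_apply, Pi.add_apply, bg_zero hi, Pi.zero_apply]

/-- **positions of the group `0`** -/
theorem Out.pos4 (H : Out θa θb lam A φ r) {S : Finset (Fin 4)}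
    (hS : S = {0} ∨ S = {0, 1} ∨ S = {1, 2, 3}) {D : Set (Fin 4 → ℝ)} (hDo : IsOpen D)
    (hDP : D ⊆ Pos) (hDs : ∀ ε : ℝ, 0 < ε → ∀ t : ℝ, 0 ≤ t →
      ε • (fun _ => (1:ℝ)) + ind S t ∈ D) {y q δ η : ℝ} (hy : 0 < y)
    (hq : q * y ≤ φ 0 0 - φ 0 (T4 (ind S y))) (hδ : 0 < δ) (hη : 0 < η)
    {N : Set (Fin 4 → ℝ)} (hN : ∀ᵐ v, v ∈ N) :
    ∃ v ∈ N, v ∈ D ∧ (∃ t ∈ Icc (0:ℝ) y, ‖v - ind S t‖ < η) ∧ ∃ G : Fin 4 → ℝ,
      (∀ i, 0 ≤ G i) ∧ q - δ ≤ ∑ i ∈ S, G i ∧ RateP (φ 0) (0 + T4 v) T4 G := by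
  obtain ⟨v, h1, h2, h3, G, h4, -, h5, h6⟩ := exists_posn_y (Q := mw monL) (x0 := xS 1) (a := aS)
    (b := bS θa θb) (lam := lam) (A := A) (r := r) (grp := gC aS (bS θa θb))
    (dh := dhC aS (bS θa θb)) (n := nC aS (bS θa θb)) (φ := φ)
    (by rw [L_eq one_ne_zero]; exact H) 0 (T := T4) T4_nonneg (β := 0) (fun i _ => rfl)
    (D := D) hDo (fun v hv => by
      rw [L_eq one_ne_zero, zero_add]; exact pos_mem (hDP hv)) (S := S)
    (w0 := fun _ => (1:ℝ)) hy (fun ε hε t ht => hDs ε hε t ht.1) hq hδ hη hN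
  exact ⟨v, h1, h2, h3, G, h4, h5, h6⟩

/-- increments of `lam` in the group `0` are increments of `φ 0` -/
theorem Out.lam_zero (H : Out θa θb lam A φ r) {c : Fin 12 → ℝ} (hc : c ∈ LMd)
    (h : ∀ i, gC aS (bS θa θb) i ≠ 0 → c i = 0) : lam c = φ 0 c := by
  rw [H.sum c hc]
  have m0 : (0:ℕ) ∈ gset (gC aS (bS θa θb)) := by rw [gset_eq]; simp
  rw [← Finset.add_sum_erase _ _ m0, Finset.sum_eq_zero, add_zero]
  intro k hk
  refine H.zero k c fun i hi => h i ?_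
  rw [hi]
  exact Finset.ne_of_mem_erase hk

theorem T4_off {v : Fin 4 → ℝ} {i : Fin 12} (hi : gC aS (bS θa θb) i ≠ 0) : T4 v i = 0 := by
  rw [T4_apply]
  rw [Ne, g_zero] at hi
  revert hi
  fin_cases i <;> simp [bx9]

theorem ind_mem {S : Finset (Fin 4)} (hS : S = {0} ∨ S = {0, 1} ∨ S = {1, 2, 3}) {y : ℝ}
    (hy : 0 ≤ y) : T4 (ind S y) ∈ LMd := by
  rw [T4_apply, mem_bx]
  rcases hS with rfl | rfl | rfl <;> simp [ind] <;> (try constructor) <;> linarith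

/-- increments of `φ 0` from increments of `lam` -/
theorem Out.incr0 (H : Out θa θb lam A φ r) {S : Finset (Fin 4)}
    (hS : S = {0} ∨ S = {0, 1} ∨ S = {1, 2, 3}) {y q : ℝ} (hy : 0 < y)
    (hq : q * y ≤ -lam (T4 (ind S y))) : q * y ≤ φ 0 0 - φ 0 (T4 (ind S y)) := by
  rw [H.lam_zero (ind_mem hS hy.le) fun i hi => T4_off hi] at hq
  rw [H.zero 0 0 fun i _ => rfl]
  linarith

/-- difference of `lam` = difference of one group function -/
theorem Out.lam_diff (H : Out θa θb lam A φ r) {k : ℕ} (hk : k ∈ gset (gC aS (bS θa θb)))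
    {c c' : Fin 12 → ℝ} (hc : c ∈ LMd) (hc' : c' ∈ LMd)
    (h : ∀ i, gC aS (bS θa θb) i ≠ k → c i = c' i) : lam c - lam c' = φ k c - φ k c' := by
  rw [H.sum c hc, H.sum c' hc', ← Finset.add_sum_erase _ _ hk, ← Finset.add_sum_erase _ _ hk]
  have e : ∑ j ∈ (gset (gC aS (bS θa θb))).erase k, φ j c =
      ∑ j ∈ (gset (gC aS (bS θa θb))).erase k, φ j c' :=
    Finset.sum_congr rfl fun j hj => H.loc j c c' fun i hi => h i (by
      rw [hi]; exact Finset.ne_of_mem_erase hj)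
  rw [e]; ring

/-! ### `σ = 0` -/

/-- background for the pair `(z, F)` -/
theorem bgz_mem {M : ℝ} {u : Fin 2 → ℝ} (hu : ‖u‖ ≤ M) :
    bx9 0 0 (2 * M) M 0 (2 * M) 0 (2 * M) 0 + Tz u ∈ LMd := by
  have h0 := (norm_le_pi_norm u 0).trans hu
  have h1 := (norm_le_pi_norm u 1).trans hu
  rw [Real.norm_eq_abs, abs_le] at h0 h1
  have e : bx9 0 0 (2 * M) M 0 (2 * M) 0 (2 * M) 0 + Tz u =
      bx9 (u 0) 0 (2 * M) M 0 (2 * M) 0 (2 * M) (u 1) := by
    rw [Tz_apply]; funext k; fin_cases k <;> simp [bx9]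
  rw [e, mem_bx]
  refine ⟨?_, ?_, ?_, ?_, ?_, ?_, ?_⟩ <;> linarith [h0.1, h0.2, h1.1, h1.2]

/-- background for the pair `(N, F)` -/
theorem bgn_mem {M : ℝ} {u : Fin 2 → ℝ} (hu : ‖u‖ ≤ M) :
    bx9 (4 * M) 0 (2 * M) M (2 * M) (2 * M) 0 (2 * M) 0 + Tn u ∈ LMd := by
  have h0 := (norm_le_pi_norm u 0).trans hu
  have h1 := (norm_le_pi_norm u 1).trans hu
  rw [Real.norm_eq_abs, abs_le] at h0 h1
  have e : bx9 (4 * M) 0 (2 * M) M (2 * M) (2 * M) 0 (2 * M) 0 + Tn u =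
      bx9 (4 * M) 0 (2 * M) M (2 * M) (2 * M) (u 0) (2 * M) (u 1) := by
    rw [Tn_apply]; funext k; fin_cases k <;> simp [bx9]
  rw [e, mem_bx]
  refine ⟨?_, ?_, ?_, ?_, ?_, ?_, ?_⟩ <;> linarith [h0.1, h0.2, h1.1, h1.2]

theorem bgz_off (ha : θa ≠ 0) (h0 : θb = 0) (M : ℝ) {i : Fin 12}
    (hi : gC aS (bS θa θb) i = kz θa θb) :
    bx9 0 0 (2 * M) M 0 (2 * M) 0 (2 * M) 0 i = 0 := by
  rcases (slots0 ha h0 i).1.1 hi with rfl | rfl
  · exact (cv _ _ _ _ _ _ _ _ _).1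
  · exact (cv _ _ _ _ _ _ _ _ _).2.2.2.2

theorem bgn_off (ha : θa ≠ 0) (h2 : θb = 2 * θa) (M : ℝ) {i : Fin 12}
    (hi : gC aS (bS θa θb) i = kN θa θb) :
    bx9 (4 * M) 0 (2 * M) M (2 * M) (2 * M) 0 (2 * M) 0 i = 0 := by
  rcases (slots2 ha h2 i).2.2.1 hi with rfl | rfl
  · exact (cv _ _ _ _ _ _ _ _ _).2.2.2.1
  · exact (cv _ _ _ _ _ _ _ _ _).2.2.2.2

theorem Out.lipz (H : Out θa θb lam A φ r) (ha : θa ≠ 0) (h0 : θb = 0) :
    LipschitzWith (Real.toNNReal ((Fintype.card (Fin 12) : ℝ) * ‖Tz‖))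
      (fun u => φ (kz θa θb) (Tz u)) :=
  psi_lip (Q := mw monL) (x0 := xS 1) (a := aS) (b := bS θa θb) (lam := lam) (A := A) (r := r)
    (grp := gC aS (bS θa θb)) (dh := dhC aS (bS θa θb)) (n := nC aS (bS θa θb)) (φ := φ)
    (by rw [L_eq one_ne_zero]; exact H) (kz θa θb) Tz fun M =>
    ⟨_, fun i hi => bgz_off ha h0 M hi, fun u hu => by rw [L_eq one_ne_zero]; exact bgz_mem hu⟩

theorem Out.lipn (H : Out θa θb lam A φ r) (ha : θa ≠ 0) (h2 : θb = 2 * θa) :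
    LipschitzWith (Real.toNNReal ((Fintype.card (Fin 12) : ℝ) * ‖Tn‖))
      (fun u => φ (kN θa θb) (Tn u)) :=
  psi_lip (Q := mw monL) (x0 := xS 1) (a := aS) (b := bS θa θb) (lam := lam) (A := A) (r := r)
    (grp := gC aS (bS θa θb)) (dh := dhC aS (bS θa θb)) (n := nC aS (bS θa θb)) (φ := φ)
    (by rw [L_eq one_ne_zero]; exact H) (kN θa θb) Tn fun M =>
    ⟨_, fun i hi => bgn_off ha h2 M hi, fun u hu => by rw [L_eq one_ne_zero]; exact bgn_mem hu⟩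

theorem Out.ratez (H : Out θa θb lam A φ r) (ha : θa ≠ 0) (h0 : θb = 0) (u : ℝ) :
    φ (kz θa θb) (Tz ![u, u]) = -(r (kz θa θb) * u) := by
  obtain ⟨d0, d5, d6, d9, d11⟩ := dh_single (θa := θa) (θb := θb)
  set M : ℝ := ‖(![u, u] : Fin 2 → ℝ)‖ with hM
  have h1 := H.rate (kz θa θb) _ (bgz_mem (M := M) (u := ![u, u]) le_rfl) u (fun i hi => by
    rw [Pi.add_apply, bgz_off ha h0 M hi, zero_add]
    rcases (slots0 ha h0 i).1.1 hi with rfl | rfl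
    · rw [d0, mul_one, (Tzv _).1]; rfl
    · rw [d11, mul_one, (Tzv _).2]; rfl)
  rw [← h1]
  exact H.loc _ _ _ fun i hi => by rw [Pi.add_apply, bgz_off ha h0 M hi, zero_add]

theorem Out.raten (H : Out θa θb lam A φ r) (ha : θa ≠ 0) (h2 : θb = 2 * θa) (u : ℝ) :
    φ (kN θa θb) (Tn ![u, u]) = -(r (kN θa θb) * u) := by
  obtain ⟨d0, d5, d6, d9, d11⟩ := dh_single (θa := θa) (θb := θb)
  set M : ℝ := ‖(![u, u] : Fin 2 → ℝ)‖ with hM
  have h1 := H.rate (kN θa θb) _ (bgn_mem (M := M) (u := ![u, u]) le_rfl) u (fun i hi => by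
    rw [Pi.add_apply, bgn_off ha h2 M hi, zero_add]
    rcases (slots2 ha h2 i).2.2.1 hi with rfl | rfl
    · rw [d9, mul_one, (Tnv _).1]; rfl
    · rw [d11, mul_one, (Tnv _).2]; rfl)
  rw [← h1]
  exact H.loc _ _ _ fun i hi => by rw [Pi.add_apply, bgn_off ha h2 M hi, zero_add]

/-- own rate of `z` at a point of the pair `(z, F)` -/
theorem Out.own_rate (H : Out θa θb lam A φ r) (ha : θa ≠ 0) (h0 : θb = 0) {s : ℝ}
    (hown : ∀ p ∈ LMd, ∀ q ∈ LMd, p ≤ q → (1 - s) * (q 0 - p 0) ≤ lam p - lam q)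
    {u : Fin 2 → ℝ} (hu : DifferentiableAt ℝ (fun u => φ (kz θa θb) (Tz u)) u) :
    1 - s ≤ -fderiv ℝ (fun u => φ (kz θa θb) (Tz u)) u (Pi.single 0 1) := by
  have h1 := SgO219.dir_of_fderiv hu (Pi.single 0 1)
  have h2 : fderiv ℝ (fun u => φ (kz θa θb) (Tz u)) u (Pi.single 0 1) ≤ -(1 - s) := by
    refine le_of_tendsto h1 ?_
    filter_upwards [Ioo_mem_nhdsGT (zero_lt_one' ℝ)] with t ht
    rw [div_le_iff₀ ht.1]
    set M : ℝ := ‖u‖ + 1 with hM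
    have b1 : ‖u‖ ≤ M := by rw [hM]; linarith
    have b2 : ‖u + t • (Pi.single 0 1 : Fin 2 → ℝ)‖ ≤ M := by
      refine (norm_add_le _ _).trans ?_
      rw [norm_smul, Real.norm_of_nonneg ht.1.le, hM]
      have : ‖(Pi.single 0 1 : Fin 2 → ℝ)‖ ≤ 1 := by
        rw [Pi.norm_single]; simp
      nlinarith [ht.1, ht.2]
    have m1 := bgz_mem b1
    have m2 := bgz_mem b2
    have hle : bx9 0 0 (2 * M) M 0 (2 * M) 0 (2 * M) 0 + Tz u ≤
        bx9 0 0 (2 * M) M 0 (2 * M) 0 (2 * M) 0 + Tz (u + t • (Pi.single 0 1 : Fin 2 → ℝ)) := by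
      refine add_le_add le_rfl ?_
      rw [Tz_apply, Tz_apply]
      refine Sg337.bx9_le ?_ le_rfl le_rfl le_rfl le_rfl le_rfl le_rfl le_rfl ?_
      · simp [ht.1.le]
      · simp
    have h3 := hown _ m1 _ m2 hle
    have e0 : (bx9 0 0 (2 * M) M 0 (2 * M) 0 (2 * M) 0 +
        Tz (u + t • (Pi.single 0 1 : Fin 2 → ℝ))) 0 -
        (bx9 0 0 (2 * M) M 0 (2 * M) 0 (2 * M) 0 + Tz u) 0 = t := by
      rw [Pi.add_apply, Pi.add_apply, (Tzv _).1, (Tzv _).1]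
      simp
    rw [e0, H.lam_diff (k := kz θa θb) (by rw [gset_eq]; simp) m1 m2 (fun i hi => by
      rw [Pi.add_apply, Pi.add_apply]
      congr 1
      have hi' : i ≠ 0 ∧ i ≠ 11 := by
        constructor
        · intro h; exact hi ((slots0 ha h0 i).1.2 (Or.inl h))
        · intro h; exact hi ((slots0 ha h0 i).1.2 (Or.inr h))
      rw [Tz_apply, Tz_apply]
      revert hi'
      fin_cases i <;> simp [bx9])] at h3
    have l1 : φ (kz θa θb) (bx9 0 0 (2 * M) M 0 (2 * M) 0 (2 * M) 0 + Tz u) =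
        φ (kz θa θb) (Tz u) := H.loc _ _ _ fun i hi => by
      rw [Pi.add_apply, bgz_off ha h0 M hi, zero_add]
    have l2 : φ (kz θa θb) (bx9 0 0 (2 * M) M 0 (2 * M) 0 (2 * M) 0 +
        Tz (u + t • (Pi.single 0 1 : Fin 2 → ℝ))) =
        φ (kz θa θb) (Tz (u + t • (Pi.single 0 1 : Fin 2 → ℝ))) := H.loc _ _ _ fun i hi => by
      rw [Pi.add_apply, bgz_off ha h0 M hi, zero_add]
    rw [l1, l2] at h3
    linarith
  linarith

end

end Crest.Agent.R116.SgP890
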