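import Crest.Agent.R116.Sg3d_332
import Crest.Agent.R116.Sg3a_635
import Crest.Agent.R116.Sg3a_665
import Crest.Agent.R116.LF4_388

/-!
# R116 (K side, LEMMA SIG), junction (D), `sigma = 1`, final form (helper332)

* `dir1`   : directional derivatives of the tangent at an offset, from the rates of the two groups
* `fct1`   : `LinFacts4` ⊢ `Fct1`
* **`sig1_false4`** : increments + total rate + own profile + `LinFacts4` + `A1` ⊢ `False`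
* `sig1_false` : the same from `LinFacts`
-/

set_option autoImplicit false
set_option linter.unusedVariables false

open Set Filter Topology

namespace Crest.Agent.R116.Sg332

open Crest.Agent.R136
open Crest.Agent.R138
open Crest.Agent.R136.Net191
open ChL222 (monL mfL)
open Dg219 (Walls mw gset mem_gset OutS gC dhC nC gC_zero gC_eq)
open SgO219 (RateP)
open Sg388 (ind)
open Sg337 (bx9 SL uC uCP)
open Sg635 (xS aS bS LMd L_eq mem_bx kz kX kN kF kz_kX kz_kN kX_kN kX_kF kz_ne kX_ne kN_ne g_zero g6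
  gset_sum1 dh_single Nat1 full)
open SgF665 (wl LM0 LinTan LinFacts lin_at dir_sum bx9_mem LM0_add LM0_smul)
open LF388 (LinFacts4 LinFacts4.of)

/-! ### the groups -/

theorem gr1 {θa θb : ℝ} (ha : θa ≠ 0) (h1 : θb = θa) :
    Gr1 (gC aS (bS θa θb)) 0 (kX θa θb) (kz θa θb) (kN θa θb) := by
  have e : kF θa θb = kX θa θb := (kX_kF.2 h1).symm
  have a1 : kz θa θb ≠ kX θa θb := fun h => ha (kz_kX.1 h)
  have a2 : kz θa θb ≠ kN θa θb := fun h => ha (kz_kN.1 h)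
  have a4 : kX θa θb ≠ kN θa θb := fun h => ha (kX_kN.1 h)
  have b1 := (kz_ne (θa := θa) (θb := θb)).symm
  have b2 := (kX_ne (θa := θa) (θb := θb)).symm
  have b3 := (kN_ne (θa := θa) (θb := θb)).symm
  have e0 : gC aS (bS θa θb) 0 = kz θa θb := rfl
  have e5 : gC aS (bS θa θb) 5 = kX θa θb := rfl
  have e9 : gC aS (bS θa θb) 9 = kN θa θb := rfl
  have e11 : gC aS (bS θa θb) 11 = kX θa θb := e
  have hall : ∀ i, (gC aS (bS θa θb) i = kX θa θb ↔ i ∈ ({5, 6, 11} : Finset (Fin 12))) ∧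
      (gC aS (bS θa θb) i = kz θa θb ↔ i ∈ ({0} : Finset (Fin 12))) ∧
      (gC aS (bS θa θb) i = kN θa θb ↔ i ∈ ({9} : Finset (Fin 12))) := by
    intro i
    by_cases hi : i ∈ ({1, 2, 3, 4, 7, 8, 10} : Finset (Fin 12))
    · have hg : gC aS (bS θa θb) i = 0 := g_zero.2 hi
      rw [hg]
      fin_cases i <;> simp at hi ⊢ <;> exact ⟨b2, b1, b3⟩
    · fin_cases i <;> simp at hi ⊢
      · simp [e0, a1, a2]
      · simp [e5, a1.symm, a4]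
      · simp [g6, a1.symm, a4]
      · simp [e9, a2.symm, a4.symm]
      · simp [e11, a1.symm, a4]
  exact ⟨fun i => g_zero, fun i => (hall i).1, fun i => (hall i).2.1, fun i => (hall i).2.2⟩

theorem cc_mem {v : Fin 4 → ℝ} {w : Fin 2 → ℝ} {z H : ℝ}
    (h : Lg z (v 2) (v 0) (w 0) (v 3) H (v 1) (w 1)) : cc v w z H ∈ LM0 :=
  bx9_mem.2 ⟨h.x, h.b, h.h, by linarith [h.p], h.f1, by linarith [h.f2], h.f3⟩

section

variable {θa θb lam0 : ℝ} {A : ℝ × ℝ} {lam : (Fin 12 → ℝ) → ℝ} {φ : ℕ → (Fin 12 → ℝ) → ℝ}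
  {r : ℕ → ℝ}

/-- directional derivatives at a position -/
theorem dir1 (hl0 : lam0 ≠ 0) (ha : θa ≠ 0) (h1 : θb = θa)
    (H : OutS (gC aS (bS θa θb)) ((mw monL).L (xS lam0) aS (bS θa θb)) (dhC aS (bS θa θb))
      (nC aS (bS θa θb)) lam A φ r)
    {v : Fin 4 → ℝ} {w : Fin 2 → ℝ} {z Hh : ℝ} (hm : cc v w z Hh ∈ LM0)
    {G : Fin 4 → ℝ} {g : Fin 2 → ℝ} (hG : RateP (φ 0) (cc v w z Hh) T0 G)
    (hg : RateP (φ (kX θa θb)) (cc v w z Hh) T1 g)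
    {z' C' p' E' B' x' H' F' : ℝ} (hc : bx9 z' 0 E' C' x' B' H' p' F' ∈ LM0) :
    Tendsto (fun t : ℝ => (lam (cc v w z Hh + t • bx9 z' 0 E' C' x' B' H' p' F') -
        lam (cc v w z Hh)) / t) (𝓝[>] 0)
      (𝓝 (-(r (kz θa θb) * z' + g 0 * x' + r (kN θa θb) * H' + g 1 * F' +
        G 0 * C' + G 1 * p' + G 2 * E' + G 3 * B'))) := by
  have hL : (mw monL).L (xS lam0) aS (bS θa θb) = LM0 := L_eq hl0
  have GG := gr1 ha h1
  obtain ⟨d0, d5, d6, d9, d11⟩ := dh_single (θa := θa) (θb := θb)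
  have hm0 : cc v w z Hh ∈ (mw monL).L (xS lam0) aS (bS θa θb) := by rw [hL]; exact hm
  have hmem : ∀ t : ℝ, 0 < t → cc v w z Hh + t • bx9 z' 0 E' C' x' B' H' p' F' ∈
      (mw monL).L (xS lam0) aS (bS θa θb) := fun t ht => by
    rw [hL]; exact LM0_add hm (LM0_smul hc ht.le)
  set u : Fin 12 → ℝ := bx9 z' 0 E' C' x' B' H' p' F' with hu
  have s0 : Tendsto (fun t : ℝ => (φ 0 (cc v w z Hh + t • u) - φ 0 (cc v w z Hh)) / t) (𝓝[>] 0)
      (𝓝 (-(G 0 * C' + G 1 * p' + G 2 * E' + G 3 * B'))) := by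
    have h1 := hG ![C', p', E', B']
    have e1 : -∑ i, G i * ![C', p', E', B'] i = -(G 0 * C' + G 1 * p' + G 2 * E' + G 3 * B') := by
      simp [Fin.sum_univ_succ]; ring
    rw [e1] at h1
    refine h1.congr fun t => ?_
    rw [H.loc 0 (cc v w z Hh + t • T0 ![C', p', E', B']) (cc v w z Hh + t • u)
      (eq_on_g0 GG (by rw [T0_apply, hu]; simp [bx9]))]
  have sX : Tendsto (fun t : ℝ => (φ (kX θa θb) (cc v w z Hh + t • u) -
      φ (kX θa θb) (cc v w z Hh)) / t) (𝓝[>] 0) (𝓝 (-(g 0 * x' + g 1 * F'))) := by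
    have h1 := hg ![x', F']
    have e1 : -∑ i, g i * ![x', F'] i = -(g 0 * x' + g 1 * F') := by
      simp [Fin.sum_univ_succ]
    rw [e1] at h1
    refine h1.congr fun t => ?_
    rw [H.loc (kX θa θb) (cc v w z Hh + t • T1 ![x', F']) (cc v w z Hh + t • u)
      (eq_on_gX GG (by rw [T1_apply, hu]; simp [bx9]))]
  have sz : Tendsto (fun t : ℝ => (φ (kz θa θb) (cc v w z Hh + t • u) -
      φ (kz θa θb) (cc v w z Hh)) / t) (𝓝[>] 0) (𝓝 (-(r (kz θa θb) * z'))) := by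
    refine tendsto_const_nhds.congr' ?_
    filter_upwards [self_mem_nhdsWithin] with t ht
    have ht' : (0:ℝ) < t := ht
    rw [H.rate _ _ (hmem t ht') (z + t * z') fun i hi => by
      have h2 := Finset.mem_singleton.1 ((GG.gz i).1 hi)
      rw [h2, d0]; simp [cc, hu, bx9], H.rate _ _ hm0 z fun i hi => by
      have h2 := Finset.mem_singleton.1 ((GG.gz i).1 hi)
      rw [h2, d0]; simp [cc, bx9]]
    field_simp
    ring
  have sN : Tendsto (fun t : ℝ => (φ (kN θa θb) (cc v w z Hh + t • u) -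
      φ (kN θa θb) (cc v w z Hh)) / t) (𝓝[>] 0) (𝓝 (-(r (kN θa θb) * H'))) := by
    refine tendsto_const_nhds.congr' ?_
    filter_upwards [self_mem_nhdsWithin] with t ht
    have ht' : (0:ℝ) < t := ht
    rw [H.rate _ _ (hmem t ht') (Hh + t * H') fun i hi => by
      have h2 := Finset.mem_singleton.1 ((GG.gH i).1 hi)
      rw [h2, d9]; simp [cc, hu, bx9], H.rate _ _ hm0 Hh fun i hi => by
      have h2 := Finset.mem_singleton.1 ((GG.gH i).1 hi)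
      rw [h2, d9]; simp [cc, bx9]]
    field_simp
    ring
  have b1 := kz_ne (θa := θa) (θb := θb)
  have b2 := kX_ne (θa := θa) (θb := θb)
  have b3 := kN_ne (θa := θa) (θb := θb)
  have a1 : kz θa θb ≠ kX θa θb := fun h => ha (kz_kX.1 h)
  have a2 : kz θa θb ≠ kN θa θb := fun h => ha (kz_kN.1 h)
  have a4 : kX θa θb ≠ kN θa θb := fun h => ha (kX_kN.1 h)
  set R : ℕ → ℝ := fun k => if k = 0 then -(G 0 * C' + G 1 * p' + G 2 * E' + G 3 * B') else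
    if k = kz θa θb then -(r (kz θa θb) * z') else if k = kX θa θb then -(g 0 * x' + g 1 * F') else
      -(r (kN θa θb) * H') with hR
  have r0 : R 0 = -(G 0 * C' + G 1 * p' + G 2 * E' + G 3 * B') := by simp [hR]
  have rz : R (kz θa θb) = -(r (kz θa θb) * z') := by simp [hR, b1]
  have rX : R (kX θa θb) = -(g 0 * x' + g 1 * F') := by simp [hR, b2, a1.symm]
  have rN : R (kN θa θb) = -(r (kN θa θb) * H') := by simp [hR, b3, a2.symm, a4.symm]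
  have hsum := dir_sum H hm0 hmem (R := R) (fun k hk => by
    rw [Sg635.gset_eq, (kX_kF.2 h1).symm] at hk
    simp only [Finset.mem_insert, Finset.mem_singleton] at hk
    rcases hk with h | h | h | h | h <;> rw [h]
    · rw [r0]; exact s0
    · rw [rz]; exact sz
    · rw [rX]; exact sX
    · rw [rN]; exact sN
    · rw [rX]; exact sX)
  rw [(gset_sum1 ha h1 R).2, r0, rz, rX, rN] at hsum
  refine hsum.mono_right (le_of_eq ?_)
  congr 1; ring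

/-- the tangent on `L` by the four groups -/
theorem lam_split (ha : θa ≠ 0) (h1 : θb = θa)
    (H : OutS (gC aS (bS θa θb)) ((mw monL).L (xS lam0) aS (bS θa θb)) (dhC aS (bS θa θb))
      (nC aS (bS θa θb)) lam A φ r) {c : Fin 12 → ℝ}
    (hc : c ∈ (mw monL).L (xS lam0) aS (bS θa θb)) :
    lam c = φ 0 c + φ (kz θa θb) c + φ (kX θa θb) c + φ (kN θa θb) c := by
  rw [H.sum c hc, (gset_sum1 ha h1 (fun k => φ k c)).2]

end

/-! ### the facts -/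

section

variable {J : Type*} [Finite J] {P : Set (Fin 12 → ℝ)} {f lam : J → (Fin 12 → ℝ) → ℝ} {j0 : J}
  {x : ℕ → Fin 12 → ℝ} {h : ℕ → ℝ} {K : ℝ} {θa θb lam0 : ℝ} {A : ℝ × ℝ}
  {φ : ℕ → (Fin 12 → ℝ) → ℝ} {r : ℕ → ℝ} {sc : ℕ → ℝ}
  {Bs : (ℕ → Fin 12 → ℝ) → (ℕ → ℝ) → Prop} {s : ℝ}

theorem fct1 (hK : 0 ≤ K) (hpos : ∀ l, 0 < h l) (h0 : Tendsto h atTop (𝓝 0))
    (hl0 : lam0 ≠ 0) (ha : θa ≠ 0) (hσ : θb = θa)
    (hx : ∀ l, ∀ k, ∀ e ∈ monL.mon k, e 1 = 0 → x l k = wl e (x l))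
    (hxD : ∀ k, ∀ e ∈ monL.mon k, e 1 ≠ 0 → ∀ K : ℝ, ∀ᶠ l in atTop,
      x l k + K * h l ≤ wl e (x l))
    (ht : ∀ j, Ex926.IsTan P ((mw monL).L (xS lam0) aS (bS θa θb)) (f j) x h (lam j))
    (hlip : ∀ j, ∀ p ∈ (mw monL).L (xS lam0) aS (bS θa θb),
      ∀ q ∈ (mw monL).L (xS lam0) aS (bS θa θb), |lam j p - lam j q| ≤ K * ‖p - q‖)
    (H : OutS (gC aS (bS θa θb)) ((mw monL).L (xS lam0) aS (bS θa θb)) (dhC aS (bS θa θb))
      (nC aS (bS θa θb)) (lam j0) A φ r)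
    (spos : ∀ m, 0 < sc m) (s0 : Tendsto sc atTop (𝓝 0))
    (hBs : ∀ c0 ∈ LMd, c0 3 = c0 4 → c0 5 = c0 6 → c0 7 = c0 8 → ∀ ψ θ : ℕ → ℕ,
      StrictMono ψ → StrictMono θ →
      Bs (fun m => x (ψ m) + h (ψ m) • c0) (fun m => h (ψ m) * sc (θ m)))
    (HL : LinFacts4 P f j0 Bs s) : Fct1 s 0 (kX θa θb) (kN θa θb) φ r := by
  have key : ∀ (v : Fin 4 → ℝ) (w : Fin 2 → ℝ) (z Hh : ℝ) (G : Fin 4 → ℝ) (g : Fin 2 → ℝ),
      Lg z (v 2) (v 0) (w 0) (v 3) Hh (v 1) (w 1) → RateP (φ 0) (cc v w z Hh) T0 G →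
      RateP (φ (kX θa θb)) (cc v w z Hh) T1 g → ∃ ψ θ : ℕ → ℕ,
        Bs (fun m => x (ψ m) + h (ψ m) • cc v w z Hh) (fun m => h (ψ m) * sc (θ m)) ∧
        LinTan P f j0 (fun m => x (ψ m) + h (ψ m) • cc v w z Hh) (fun m => h (ψ m) * sc (θ m))
          (r (kz θa θb)) (g 0) (r (kN θa θb)) (g 1) (G 0) (G 1) (G 2) (G 3) := by
    intro v w z Hh G g hlg hG hg
    have hm := cc_mem hlg
    obtain ⟨ψ, θ, hψ, hθ, hlin⟩ := lin_at (rz := r (kz θa θb)) (rX := g 0) (rH := r (kN θa θb))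
      (rF := g 1) (gC := G 0) (gP := G 1) (gE := G 2) (gB := G 3) hK hpos h0 (L_eq hl0) hx hxD ht
      hlip H hm spos s0 (fun z' C' p' E' B' x' H' F' hc => dir1 hl0 ha hσ H hm hG hg hc)
    exact ⟨ψ, θ, hBs _ hm rfl rfl rfl ψ θ hψ hθ, hlin⟩
  -- tight walls of the bases
  have W5 : ∀ l, x l 5 = x l 0 + x l 3 := fun l => by
    have := hx l 5 ![1, 0, 0, 1, 0, 0, 0, 0, 0, 0, 0, 0] (by decide) rfl
    simpa [wl, Fin.sum_univ_succ] using this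
  have W6 : ∀ l, x l 6 = x l 0 + x l 4 := fun l => by
    have := hx l 6 ![1, 0, 0, 0, 1, 0, 0, 0, 0, 0, 0, 0] (by decide) rfl
    simpa [wl, Fin.sum_univ_succ] using this
  have W9 : ∀ l, x l 9 = x l 3 + x l 5 := fun l => by
    have := hx l 9 ![0, 0, 0, 1, 0, 1, 0, 0, 0, 0, 0, 0] (by decide) rfl
    simpa [wl, Fin.sum_univ_succ] using this
  have W9' : ∀ l, x l 9 = x l 4 + x l 6 := fun l => by
    have := hx l 9 ![0, 0, 0, 0, 1, 0, 1, 0, 0, 0, 0, 0] (by decide) rfl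
    simpa [wl, Fin.sum_univ_succ] using this
  have W11 : ∀ l, x l 11 = x l 0 + x l 10 := fun l => by
    have := hx l 11 ![1, 0, 0, 0, 0, 0, 0, 0, 0, 0, 1, 0] (by decide) rfl
    simpa [wl, Fin.sum_univ_succ] using this
  have W11' : ∀ l, x l 11 = x l 2 + x l 9 := fun l => by
    have := hx l 11 ![0, 0, 1, 0, 0, 0, 0, 0, 0, 1, 0, 0] (by decide) rfl
    simpa [wl, Fin.sum_univ_succ] using this
  refine ⟨?_, ?_, ?_, ?_⟩
  · intro v w z Hh G g hlg hG hg hw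
    obtain ⟨ψ, θ, hb, hlin⟩ := key v w z Hh G g hlg hG hg
    refine HL.K1 _ _ _ _ _ _ _ _ _ _ hb hlin (fun n => ?_) (fun n => ?_)
    · change x (ψ n) 5 + h (ψ n) * w 0 = (x (ψ n) 0 + h (ψ n) * z) + (x (ψ n) 3 + h (ψ n) * v 0)
      rw [W5, hw]; ring
    · change x (ψ n) 6 + h (ψ n) * w 0 = (x (ψ n) 0 + h (ψ n) * z) + (x (ψ n) 4 + h (ψ n) * v 0)
      rw [W6, hw]; ring
  · intro v w z Hh G g hlg hG hg hw
    obtain ⟨ψ, θ, hb, hlin⟩ := key v w z Hh G g hlg hG hg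
    refine HL.H1 _ _ _ _ _ _ _ _ _ _ hb hlin (fun n => ?_) (fun n => ?_)
    · change x (ψ n) 9 + h (ψ n) * Hh = (x (ψ n) 3 + h (ψ n) * v 0) + (x (ψ n) 5 + h (ψ n) * w 0)
      rw [W9, hw]; ring
    · change x (ψ n) 9 + h (ψ n) * Hh = (x (ψ n) 4 + h (ψ n) * v 0) + (x (ψ n) 6 + h (ψ n) * w 0)
      rw [W9', hw]; ring
  · intro v w z Hh G g hlg hG hg hw
    obtain ⟨ψ, θ, hb, hlin⟩ := key v w z Hh G g hlg hG hg
    refine (HL.K2 _ _ _ _ _ _ _ _ _ _ hb hlin (fun n => ?_)).2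
    change x (ψ n) 11 + h (ψ n) * w 1 = (x (ψ n) 0 + h (ψ n) * z) + (x (ψ n) 10 + h (ψ n) * v 1)
    rw [W11, hw]; ring
  · intro v w z Hh G g hlg hG hg hw
    obtain ⟨ψ, θ, hb, hlin⟩ := key v w z Hh G g hlg hG hg
    refine HL.S2 _ _ _ _ _ _ _ _ _ _ hb hlin (fun n => ?_)
    change x (ψ n) 11 + h (ψ n) * w 1 = (x (ψ n) 2 + h (ψ n) * v 2) + (x (ψ n) 9 + h (ψ n) * Hh)
    rw [W11', hw]; ring

/-- **THE RESONANCE `sigma = 1`**, four facts -/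
theorem sig1_false4 (hK : 0 ≤ K) (hpos : ∀ l, 0 < h l) (h0 : Tendsto h atTop (𝓝 0))
    (hl0 : lam0 ≠ 0) (ha : θa ≠ 0) (hσ : θb = θa)
    (hx : ∀ l, ∀ k, ∀ e ∈ monL.mon k, e 1 = 0 → x l k = wl e (x l))
    (hxD : ∀ k, ∀ e ∈ monL.mon k, e 1 ≠ 0 → ∀ K : ℝ, ∀ᶠ l in atTop,
      x l k + K * h l ≤ wl e (x l))
    (ht : ∀ j, Ex926.IsTan P ((mw monL).L (xS lam0) aS (bS θa θb)) (f j) x h (lam j))
    (hlip : ∀ j, ∀ p ∈ (mw monL).L (xS lam0) aS (bS θa θb),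
      ∀ q ∈ (mw monL).L (xS lam0) aS (bS θa θb), |lam j p - lam j q| ≤ K * ‖p - q‖)
    (H : OutS (gC aS (bS θa θb)) ((mw monL).L (xS lam0) aS (bS θa θb)) (dhC aS (bS θa θb))
      (nC aS (bS θa θb)) (lam j0) A φ r)
    (spos : ∀ m, 0 < sc m) (s0 : Tendsto sc atTop (𝓝 0))
    (hBs : ∀ c0 ∈ LMd, c0 3 = c0 4 → c0 5 = c0 6 → c0 7 = c0 8 → ∀ ψ θ : ℕ → ℕ,
      StrictMono ψ → StrictMono θ →
      Bs (fun m => x (ψ m) + h (ψ m) • c0) (fun m => h (ψ m) * sc (θ m)))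
    (HL : LinFacts4 P f j0 Bs s)
    {c q0 q1 δ : ℝ} (hs : 0 ≤ s) (hc : 2 * s < c) (hq0 : 0 < q0) (hq1 : 0 < q1)
    (hδ : δ ≤ (c - 2 * s) / 2)
    (hsum : ∑ k ∈ (gset (gC aS (bS θa θb))).erase 0, r k ≤ 4 - s - c + δ)
    (hown : ∀ y : ℝ, 0 < y → (1 - s) * y ≤ -lam j0 (bx9 y 0 0 0 0 0 0 0 0))
    (iC : ∀ y : ℝ, 0 < y → q0 * y ≤ -lam j0 (y • uC))
    (iCP : ∀ y : ℝ, 0 < y → (c + q0 + q1) * y ≤ -lam j0 (y • uCP))
    (A1 : (∀ y : ℝ, 0 < y → lam j0 (bx9 0 0 y 0 0 0 0 0 0) = 0) →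
      2 * (1 - s) ≤ lam j0 (bx9 1 0 1 0 0 0 0 0 0) - lam j0 (bx9 1 0 1 0 1 0 0 0 1)) : False := by
  have hL : (mw monL).L (xS lam0) aS (bS θa θb) = LM0 := L_eq hl0
  have GG := gr1 ha hσ
  obtain ⟨d0, d5, d6, d9, d11⟩ := dh_single (θa := θa) (θb := θb)
  have hmem : ∀ z E C X B N F Pp : ℝ, Lg z E C X B N Pp F →
      bx9 z 0 E C X B N Pp F ∈ (mw monL).L (xS lam0) aS (bS θa θb) := fun z E C X B N F Pp h => by
    rw [hL]
    exact bx9_mem.2 ⟨h.x, h.b, h.h, by linarith [h.p], h.f1, by linarith [h.f2], h.f3⟩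
  -- the value of the tangent on the boxes of the group `0`
  have v0 : ∀ v : Fin 4 → ℝ, T0 v ∈ (mw monL).L (xS lam0) aS (bS θa θb) →
      lam j0 (T0 v) = Ph0 φ 0 v := by
    intro v hv
    rw [lam_split ha hσ H hv]
    have e1 : φ (kz θa θb) (T0 v) = 0 := H.zero _ _ fun i hi => by
      rw [Finset.mem_singleton.1 ((GG.gz i).1 hi), T0_apply]; simp [bx9]
    have e2 : φ (kN θa θb) (T0 v) = 0 := H.zero _ _ fun i hi => by
      rw [Finset.mem_singleton.1 ((GG.gH i).1 hi), T0_apply]; simp [bx9]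
    have e3 : φ (kX θa θb) (T0 v) = 0 := H.zero _ _ (on_gX GG (p := fun i => T0 v i = 0)
      (by rw [T0_apply]; simp [bx9]) (by rw [T0_apply]; simp [bx9])
      (by rw [T0_apply]; simp [bx9]))
    rw [e1, e2, e3]
    simp [Ph0]
  have eC : ∀ y : ℝ, y • uC = T0 (ind {0} y) := fun y => by
    rw [T0_apply]; funext k
    fin_cases k <;> simp [bx9, uC, ind]
  have eCP : ∀ y : ℝ, y • uCP = T0 (ind {0, 1} y) := fun y => by
    rw [T0_apply]; funext k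
    fin_cases k <;> simp [bx9, uCP, ind]
  have eE : ∀ y : ℝ, (bx9 0 0 y 0 0 0 0 0 0 : Fin 12 → ℝ) = T0 (ind {2} y) := fun y => by
    rw [T0_apply]; funext k
    fin_cases k <;> simp [bx9, ind]
  have mC : ∀ y : ℝ, 0 < y → T0 (ind {0} y) ∈ (mw monL).L (xS lam0) aS (bS θa θb) := fun y hy => by
    rw [T0_apply]
    exact hmem _ _ _ _ _ _ _ _ (by constructor <;> simp [ind] <;> linarith)
  have mCP : ∀ y : ℝ, 0 < y → T0 (ind {0, 1} y) ∈ (mw monL).L (xS lam0) aS (bS θa θb) :=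
    fun y hy => by
      rw [T0_apply]
      exact hmem _ _ _ _ _ _ _ _ (by constructor <;> simp [ind] <;> linarith)
  have mE : ∀ y : ℝ, 0 < y → T0 (ind {2} y) ∈ (mw monL).L (xS lam0) aS (bS θa θb) := fun y hy => by
    rw [T0_apply]
    exact hmem _ _ _ _ _ _ _ _ (by constructor <;> simp [ind] <;> linarith)
  refine sig1_core H GG (fun z E C X B H P F h => hmem _ _ _ _ _ _ _ _ h) (fun i hi => ?_) hs hc
    hq0 hq1 hδ (fct1 hK hpos h0 hl0 ha hσ hx hxD ht hlip H spos s0 hBs HL) ?_ ?_ (fun y hy => ?_)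
    (fun y hy => ?_) (fun hE => ?_)
  · simp only [Finset.mem_insert, Finset.mem_singleton] at hi
    rcases hi with h | h | h <;> rw [h]
    exacts [d5, d6, d11]
  · -- own
    have h1 := hown 1 one_pos
    have m1 : (bx9 1 0 0 0 0 0 0 0 0 : Fin 12 → ℝ) ∈ (mw monL).L (xS lam0) aS (bS θa θb) :=
      hmem _ _ _ _ _ _ _ _ (by constructor <;> norm_num)
    rw [lam_split ha hσ H m1] at h1
    have e0 : φ 0 (bx9 1 0 0 0 0 0 0 0 0) = 0 := H.zero _ _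
      (on_g0 GG (p := fun i => bx9 1 0 0 0 0 0 0 0 0 i = (0:ℝ)) (by simp [bx9]) (by simp [bx9])
        (by simp [bx9]) (by simp [bx9]) (by simp [bx9]) (by simp [bx9]) (by simp [bx9]))
    have e2 : φ (kN θa θb) (bx9 1 0 0 0 0 0 0 0 0) = 0 := H.zero _ _ fun i hi => by
      rw [Finset.mem_singleton.1 ((GG.gH i).1 hi)]; simp [bx9]
    have e3 : φ (kX θa θb) (bx9 1 0 0 0 0 0 0 0 0) = 0 := H.zero _ _
      (on_gX GG (p := fun i => bx9 1 0 0 0 0 0 0 0 0 i = (0:ℝ)) (by simp [bx9]) (by simp [bx9])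
        (by simp [bx9]))
    have e1 : φ (kz θa θb) (bx9 1 0 0 0 0 0 0 0 0) = -(r (kz θa θb) * 1) :=
      H.rate _ _ m1 1 fun i hi => by
        rw [Finset.mem_singleton.1 ((GG.gz i).1 hi), d0]; simp [bx9]
    rw [e0, e1, e2, e3] at h1
    linarith
  · -- total
    have h1 := hsum
    have h2 := Finset.add_sum_erase (gset (gC aS (bS θa θb))) r
      (by rw [Sg635.gset_eq]; simp : (0:ℕ) ∈ gset (gC aS (bS θa θb)))
    rw [(gset_sum1 ha hσ r).2] at h2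
    linarith
  · rw [← v0 _ (mC y hy), ← eC]; exact iC y hy
  · rw [← v0 _ (mCP y hy), ← eCP]; exact iCP y hy
  · have h1 := A1 fun y hy => by
      rw [eE, v0 _ (mE y hy)]; exact hE y hy
    have m1 : (bx9 1 0 1 0 0 0 0 0 0 : Fin 12 → ℝ) ∈ (mw monL).L (xS lam0) aS (bS θa θb) :=
      hmem _ _ _ _ _ _ _ _ (by constructor <;> norm_num)
    have m2 : (bx9 1 0 1 0 1 0 0 0 1 : Fin 12 → ℝ) ∈ (mw monL).L (xS lam0) aS (bS θa θb) :=
      hmem _ _ _ _ _ _ _ _ (by constructor <;> norm_num)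
    rw [lam_split ha hσ H m1, lam_split ha hσ H m2] at h1
    have e0 : φ 0 (bx9 1 0 1 0 0 0 0 0 0) = φ 0 (bx9 1 0 1 0 1 0 0 0 1) :=
      H.loc _ _ _ (eq_on_g0 GG (by simp [bx9]))
    have e1 : φ (kz θa θb) (bx9 1 0 1 0 0 0 0 0 0) = φ (kz θa θb) (bx9 1 0 1 0 1 0 0 0 1) :=
      H.loc _ _ _ fun i hi => by
        rw [Finset.mem_singleton.1 ((GG.gz i).1 hi)]; simp [bx9]
    have e2 : φ (kN θa θb) (bx9 1 0 1 0 0 0 0 0 0) = φ (kN θa θb) (bx9 1 0 1 0 1 0 0 0 1) :=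
      H.loc _ _ _ fun i hi => by
        rw [Finset.mem_singleton.1 ((GG.gH i).1 hi)]; simp [bx9]
    have e3 : φ (kX θa θb) (bx9 1 0 1 0 0 0 0 0 0) = 0 := H.zero _ _
      (on_gX GG (p := fun i => bx9 1 0 1 0 0 0 0 0 0 i = (0:ℝ)) (by simp [bx9]) (by simp [bx9])
        (by simp [bx9]))
    have e4 : φ (kX θa θb) (bx9 1 0 1 0 1 0 0 0 1) = -(r (kX θa θb) * 1) :=
      H.rate _ _ m2 1 (on_gX GG (p := fun i => bx9 1 0 1 0 1 0 0 0 1 i = 1 * dhC aS (bS θa θb) i)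
        (by rw [d5]; simp [bx9]) (by rw [d6]; simp [bx9]) (by rw [d11]; simp [bx9]))
    rw [e0, e1, e2, e3, e4] at h1
    linarith

/-- **THE RESONANCE `sigma = 1`** -/
theorem sig1_false (hK : 0 ≤ K) (hpos : ∀ l, 0 < h l) (h0 : Tendsto h atTop (𝓝 0))
    (hl0 : lam0 ≠ 0) (ha : θa ≠ 0) (hσ : θb = θa)
    (hx : ∀ l, ∀ k, ∀ e ∈ monL.mon k, e 1 = 0 → x l k = wl e (x l))
    (hxD : ∀ k, ∀ e ∈ monL.mon k, e 1 ≠ 0 → ∀ K : ℝ, ∀ᶠ l in atTop,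
      x l k + K * h l ≤ wl e (x l))
    (ht : ∀ j, Ex926.IsTan P ((mw monL).L (xS lam0) aS (bS θa θb)) (f j) x h (lam j))
    (hlip : ∀ j, ∀ p ∈ (mw monL).L (xS lam0) aS (bS θa θb),
      ∀ q ∈ (mw monL).L (xS lam0) aS (bS θa θb), |lam j p - lam j q| ≤ K * ‖p - q‖)
    (H : OutS (gC aS (bS θa θb)) ((mw monL).L (xS lam0) aS (bS θa θb)) (dhC aS (bS θa θb))
      (nC aS (bS θa θb)) (lam j0) A φ r)
    (spos : ∀ m, 0 < sc m) (s0 : Tendsto sc atTop (𝓝 0))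
    (hBs : ∀ c0 ∈ LMd, c0 3 = c0 4 → c0 5 = c0 6 → c0 7 = c0 8 → ∀ ψ θ : ℕ → ℕ,
      StrictMono ψ → StrictMono θ →
      Bs (fun m => x (ψ m) + h (ψ m) • c0) (fun m => h (ψ m) * sc (θ m)))
    (HL : LinFacts P f j0 Bs s)
    {c q0 q1 δ : ℝ} (hs : 0 ≤ s) (hc : 2 * s < c) (hq0 : 0 < q0) (hq1 : 0 < q1)
    (hδ : δ ≤ (c - 2 * s) / 2)
    (hsum : ∑ k ∈ (gset (gC aS (bS θa θb))).erase 0, r k ≤ 4 - s - c + δ)
    (hown : ∀ y : ℝ, 0 < y → (1 - s) * y ≤ -lam j0 (bx9 y 0 0 0 0 0 0 0 0))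
    (iC : ∀ y : ℝ, 0 < y → q0 * y ≤ -lam j0 (y • uC))
    (iCP : ∀ y : ℝ, 0 < y → (c + q0 + q1) * y ≤ -lam j0 (y • uCP))
    (A1 : (∀ y : ℝ, 0 < y → lam j0 (bx9 0 0 y 0 0 0 0 0 0) = 0) →
      2 * (1 - s) ≤ lam j0 (bx9 1 0 1 0 0 0 0 0 0) - lam j0 (bx9 1 0 1 0 1 0 0 0 1)) : False :=
  sig1_false4 hK hpos h0 hl0 ha hσ hx hxD ht hlip H spos s0 hBs (LinFacts4.of HL) hs hc hq0 hq1 hδ
    hsum hown iC iCP A1

end

end Crest.Agent.R116.Sg332
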