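import Crest.Agent.R116.SgO2_219
import Crest.Agent.R116.SgR1_337

/-!
# R116 (K side, LEMMA SIG), junction (D) = the resonance `sigma = 1` (helper332)

Plane `Σ` with `th_b = th_a`: the slots `X` (5, 6) and `F` (11) are parallel (joint group `kX`).
* `exists_pos_le` : twin of 219's `exists_pos` (positions where the rates are SMALL)
* `Pos1`          : the facts at a position, in rates
* `sig1_core`     : contradiction at one interior point
-/

set_option autoImplicit false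
set_option linter.unusedSectionVars false
set_option linter.unusedVariables false

open Set Filter Topology Metric MeasureTheory
open scoped NNReal

namespace Crest.Agent.R116.Sg332

open Crest.Agent.R136
open Crest.Agent.R138
open Dg262 (X SupOn)
open Dg219 (Tn lf Cone Walls gset mem_gset OutS BUp bup_of_tan)
open Sg388 (ind exists_rateS)
open SgO219 (RateP exists_pos clm_eq_sum dir_of_fderiv LT OutL)
open Sg337 (bx9)

section

variable {ι W κ : Type*} [Fintype ι] [DecidableEq ι] [Fintype W] [DecidableEq κ]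
variable {Q : Walls ι W} {x0 a b : ι → ℝ} {grp : ι → κ}
  {dh : ι → ℝ} {n : κ → ℝ × ℝ} {A : ℝ × ℝ} {lam : (ι → ℝ) → ℝ} {φ : κ → (ι → ℝ) → ℝ} {r : κ → ℝ}

/-- partial rates from differentiability of the group function along the moves `T` -/
theorem rate_of_diff (H : OutS grp (Q.L x0 a b) dh n lam A φ r) (k : κ) {d : ℕ}
    {T : (Fin d → ℝ) →L[ℝ] (ι → ℝ)} {β : ι → ℝ} {D : Set (Fin d → ℝ)} (hDo : IsOpen D)
    (hDL : ∀ v ∈ D, β + T v ∈ Q.L x0 a b) (hT : ∀ i l, 0 ≤ T (Pi.single i 1) l)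
    {v : Fin d → ℝ} (hvD : v ∈ D)
    (hvd : DifferentiableAt ℝ (fun v => φ k (β + T v)) v) {G : Fin d → ℝ}
    (hG : ∀ i, G i = -fderiv ℝ (fun v => φ k (β + T v)) v (Pi.single i 1)) :
    (∀ i, 0 ≤ G i) ∧
      (∀ i, G i ≤ ∑ l ∈ Finset.univ.filter (fun l => grp l = k), T (Pi.single i 1) l) ∧
      RateP (φ k) (β + T v) T G := by
  set Φ : (Fin d → ℝ) → ℝ := fun v => φ k (β + T v) with hΦ
  have hdir : RateP (φ k) (β + T v) T G := by
    intro u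
    have h1 := dir_of_fderiv hvd u
    rw [clm_eq_sum (fderiv ℝ Φ v) u] at h1
    have e : -∑ i, G i * u i = ∑ i, fderiv ℝ Φ v (Pi.single i 1) * u i := by
      rw [← Finset.sum_neg_distrib]
      exact Finset.sum_congr rfl fun i _ => by rw [hG i]; ring
    rw [e]
    refine h1.congr fun t => ?_
    simp only [hΦ]
    rw [map_add, map_smul, ← add_assoc]
  have hpart : ∀ i, Tendsto (fun t : ℝ => (Φ v - Φ (v + t • Pi.single i 1)) / t) (𝓝[>] 0)
      (𝓝 (G i)) := fun i => by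
    rw [hG i]
    refine (dir_of_fderiv hvd (Pi.single i (1:ℝ))).neg.congr fun t => ?_
    rw [← neg_div]; congr 1; ring
  have hmem : ∀ i, ∀ᶠ t : ℝ in 𝓝[>] 0, 0 < t ∧ v + t • (Pi.single i (1:ℝ) : Fin d → ℝ) ∈ D := by
    intro i
    have hc : Tendsto (fun t : ℝ => v + t • (Pi.single i (1:ℝ) : Fin d → ℝ)) (𝓝[>] 0)
        (𝓝 v) := by
      have : Continuous fun t : ℝ => v + t • (Pi.single i (1:ℝ) : Fin d → ℝ) := by fun_prop
      have h1 := (this.tendsto 0).mono_left (nhdsWithin_le_nhds (s := Ioi 0))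
      simpa using h1
    filter_upwards [self_mem_nhdsWithin, hc.eventually (hDo.mem_nhds hvD)] with t h1 h2
      using ⟨h1, h2⟩
  have hbound : ∀ i, ∀ᶠ t : ℝ in 𝓝[>] 0, 0 ≤ (Φ v - Φ (v + t • Pi.single i 1)) / t ∧
      (Φ v - Φ (v + t • Pi.single i 1)) / t ≤
        ∑ l ∈ Finset.univ.filter (fun l => grp l = k), T (Pi.single i 1) l := by
    intro i
    filter_upwards [hmem i] with t ht
    have h1 := H.mono k (β + T v) (hDL v hvD) (β + T (v + t • Pi.single i 1))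
      (hDL _ ht.2) fun l _ => by
        rw [map_add, map_smul]
        simp only [Pi.add_apply, Pi.smul_apply, smul_eq_mul]
        have := mul_nonneg ht.1.le (hT i l)
        linarith
    refine ⟨div_nonneg h1.1 ht.1.le, ?_⟩
    rw [div_le_iff₀ ht.1]
    refine h1.2.trans (le_of_eq ?_)
    rw [Finset.sum_mul]
    refine Finset.sum_congr rfl fun l _ => ?_
    rw [map_add, map_smul]
    simp only [Pi.add_apply, Pi.smul_apply, smul_eq_mul]
    ring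
  exact ⟨fun i => ge_of_tendsto (hpart i) ((hbound i).mono fun _ h => h.1),
    fun i => le_of_tendsto (hpart i) ((hbound i).mono fun _ h => h.2), hdir⟩

/-- **POSITIONS WITH SMALL RATES** -/
theorem exists_pos_le (H : OutS grp (Q.L x0 a b) dh n lam A φ r) (k : κ) {d : ℕ}
    {T : (Fin d → ℝ) →L[ℝ] (ι → ℝ)} {β : ι → ℝ} {D : Set (Fin d → ℝ)} (hDo : IsOpen D)
    (hDL : ∀ v ∈ D, β + T v ∈ Q.L x0 a b) (hT : ∀ i l, 0 ≤ T (Pi.single i 1) l)
    {p : Fin d → ℝ} {S : Finset (Fin d)} {y q δ η : ℝ} (hy : 0 < y) (hη : 0 < η)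
    (hD : ∀ t ∈ Icc 0 y, Metric.ball (p + ind S t) η ⊆ D)
    (hq : φ k (β + T p) - φ k (β + T (p + ind S y)) ≤ q * y) (hδ : 0 < δ)
    {N : Set (Fin d → ℝ)} (hN : ∀ᵐ v, v ∈ N) :
    ∃ v ∈ N, v ∈ D ∧ (∃ t ∈ Ioo 0 y, ‖v - (p + ind S t)‖ < η) ∧ ∃ G : Fin d → ℝ,
      (∀ i, 0 ≤ G i) ∧
      (∀ i, G i ≤ ∑ l ∈ Finset.univ.filter (fun l => grp l = k), T (Pi.single i 1) l) ∧
      ∑ i ∈ S, G i ≤ q + δ ∧ RateP (φ k) (β + T v) T G := by
  set Φ : (Fin d → ℝ) → ℝ := fun v => φ k (β + T v) with hΦ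
  set C : ℝ := (Fintype.card ι : ℝ) * ‖T‖ with hC
  have hC0 : 0 ≤ C := by positivity
  have hΦlip : LipschitzOnWith ⟨C, hC0⟩ Φ D := by
    refine LipschitzOnWith.of_dist_le_mul fun v hv v' hv' => ?_
    have h1 := SgO219.OutS.lip_piece H k (hDL v hv) (hDL v' hv')
    rw [Real.dist_eq]
    refine h1.trans ?_
    have e2 : β + T v - (β + T v') = T (v - v') := by rw [map_sub]; abel
    rw [e2, dist_eq_norm]
    change _ ≤ C * ‖v - v'‖
    rw [hC, mul_assoc]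
    exact mul_le_mul_of_nonneg_left (T.le_opNorm _) (Nat.cast_nonneg _)
  obtain ⟨v, hvN, hvD, hvt, hvd, hvq⟩ := exists_rateS hΦlip hy hη hD
    (a := -q) (by simp only [hΦ]; linarith) hδ hN
  obtain ⟨g1, g2, g3⟩ := rate_of_diff H k hDo hDL hT hvD hvd
    (G := fun i => -fderiv ℝ Φ v (Pi.single i 1)) (fun i => rfl)
  refine ⟨v, hvN, hvD, hvt, _, g1, g2, ?_, g3⟩
  rw [Finset.sum_neg_distrib]
  linarith

end


/-! ### positions -/

/-- moves of the group of `C`, `P` and the flags: coordinates `C, P, E, B` -/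
noncomputable def T0 : (Fin 4 → ℝ) →L[ℝ] (Fin 12 → ℝ) :=
  LinearMap.toContinuousLinearMap
    { toFun := fun v => bx9 0 0 (v 2) (v 0) 0 (v 3) 0 (v 1) 0
      map_add' := fun v w => by
        funext i; fin_cases i <;> simp [bx9]
      map_smul' := fun t v => by
        funext i; fin_cases i <;> simp [bx9] }

/-- moves of the joint group: coordinates `X, F` -/
noncomputable def T1 : (Fin 2 → ℝ) →L[ℝ] (Fin 12 → ℝ) :=
  LinearMap.toContinuousLinearMap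
    { toFun := fun w => bx9 0 0 0 0 (w 0) 0 0 0 (w 1)
      map_add' := fun v w => by
        funext i; fin_cases i <;> simp [bx9]
      map_smul' := fun t v => by
        funext i; fin_cases i <;> simp [bx9] }

theorem T0_apply (v : Fin 4 → ℝ) : T0 v = bx9 0 0 (v 2) (v 0) 0 (v 3) 0 (v 1) 0 := rfl

theorem T1_apply (w : Fin 2 → ℝ) : T1 w = bx9 0 0 0 0 (w 0) 0 0 0 (w 1) := rfl

/-- the walls without `D` -/
structure Lg (z E C X B H P F : ℝ) : Prop where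
  x : X ≤ z + C
  b : B ≤ E + C
  h : H ≤ C + X
  p : P ≤ C + B
  f1 : F ≤ z + P
  f2 : F ≤ X + B
  f3 : F ≤ E + H

/-- offset of the position `(v, w)` with heights `z`, `H` -/
def cc (v : Fin 4 → ℝ) (w : Fin 2 → ℝ) (z H : ℝ) : Fin 12 → ℝ :=
  bx9 z 0 (v 2) (v 0) (w 0) (v 3) H (v 1) (w 1)

/-- the groups of the plane `Σ` at `sigma = 1` -/
structure Gr1 (grp : Fin 12 → ℕ) (k0 kX kz kH : ℕ) : Prop where
  g0 : ∀ i, grp i = k0 ↔ i ∈ ({1, 2, 3, 4, 7, 8, 10} : Finset (Fin 12))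
  gX : ∀ i, grp i = kX ↔ i ∈ ({5, 6, 11} : Finset (Fin 12))
  gz : ∀ i, grp i = kz ↔ i ∈ ({0} : Finset (Fin 12))
  gH : ∀ i, grp i = kH ↔ i ∈ ({9} : Finset (Fin 12))

/-- the facts at the positions, in rates -/
structure Fct1 (s : ℝ) (k0 kX kH : ℕ) (φ : ℕ → (Fin 12 → ℝ) → ℝ) (r : ℕ → ℝ) : Prop where
  K1 : ∀ (v : Fin 4 → ℝ) (w : Fin 2 → ℝ) (z H : ℝ) (G : Fin 4 → ℝ) (g : Fin 2 → ℝ),
    Lg z (v 2) (v 0) (w 0) (v 3) H (v 1) (w 1) → RateP (φ k0) (cc v w z H) T0 G →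
    RateP (φ kX) (cc v w z H) T1 g → w 0 = z + v 0 →
    (0 < G 0 → 1 - s ≤ g 0) ∧ (s < G 0 → 1 ≤ g 0)
  H1 : ∀ (v : Fin 4 → ℝ) (w : Fin 2 → ℝ) (z H : ℝ) (G : Fin 4 → ℝ) (g : Fin 2 → ℝ),
    Lg z (v 2) (v 0) (w 0) (v 3) H (v 1) (w 1) → RateP (φ k0) (cc v w z H) T0 G →
    RateP (φ kX) (cc v w z H) T1 g → H = v 0 + w 0 → 0 < G 0 → g 0 ≤ r kH
  F2 : ∀ (v : Fin 4 → ℝ) (w : Fin 2 → ℝ) (z H : ℝ) (G : Fin 4 → ℝ) (g : Fin 2 → ℝ),
    Lg z (v 2) (v 0) (w 0) (v 3) H (v 1) (w 1) → RateP (φ k0) (cc v w z H) T0 G →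
    RateP (φ kX) (cc v w z H) T1 g → w 1 = z + v 1 → s < G 1 → 1 ≤ g 1
  S2 : ∀ (v : Fin 4 → ℝ) (w : Fin 2 → ℝ) (z H : ℝ) (G : Fin 4 → ℝ) (g : Fin 2 → ℝ),
    Lg z (v 2) (v 0) (w 0) (v 3) H (v 1) (w 1) → RateP (φ k0) (cc v w z H) T0 G →
    RateP (φ kX) (cc v w z H) T1 g → w 1 = v 2 + H → 0 < G 2 → r kH ≤ g 1

section core

variable {W : Type*} [Fintype W] {Q : Walls (Fin 12) W} {x0 a b : Fin 12 → ℝ}
  {grp : Fin 12 → ℕ} {dh : Fin 12 → ℝ} {n : ℕ → ℝ × ℝ} {A : ℝ × ℝ} {lam : (Fin 12 → ℝ) → ℝ}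
  {φ : ℕ → (Fin 12 → ℝ) → ℝ} {r : ℕ → ℝ} {k0 kX kz kH : ℕ}

/-- open cone of the positions -/
def DD (R : ℝ) : Set (Fin 4 → ℝ) := {v | v 3 < v 2 + v 0 ∧ v 1 < v 3 + v 0 ∧ ‖v‖ < R}

theorem DD_open (R : ℝ) : IsOpen (DD R) := by
  have e : DD R = {v : Fin 4 → ℝ | v 3 < v 2 + v 0} ∩ ({v | v 1 < v 3 + v 0} ∩ {v | ‖v‖ < R}) := by
    ext v; simp [DD]
  rw [e]
  refine (isOpen_lt (by fun_prop) (by fun_prop)).inter
    ((isOpen_lt (by fun_prop) (by fun_prop)).inter (isOpen_lt (by fun_prop) (by fun_prop)))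

/-- background of the positions of the group `k0` -/
def bg0 (R : ℝ) : Fin 12 → ℝ := bx9 (10 * R) 0 0 0 (5 * R) 0 (3 * R) 0 0

/-- background of the positions of the joint group -/
def bg1 (R : ℝ) : Fin 12 → ℝ := bx9 (10 * R) 0 (5 * R) (5 * R) 0 (5 * R) 0 (5 * R) 0

theorem bg0_T0 (R : ℝ) (v : Fin 4 → ℝ) :
    bg0 R + T0 v = bx9 (10 * R) 0 (v 2) (v 0) (5 * R) (v 3) (3 * R) (v 1) 0 := by
  rw [T0_apply]
  funext i; fin_cases i <;> simp [bx9, bg0]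

theorem bg1_T1 (R : ℝ) (w : Fin 2 → ℝ) :
    bg1 R + T1 w = bx9 (10 * R) 0 (5 * R) (5 * R) (w 0) (5 * R) 0 (5 * R) (w 1) := by
  rw [T1_apply]
  funext i; fin_cases i <;> simp [bx9, bg1]

theorem co_sub {d : ℕ} {w u : Fin d → ℝ} {η : ℝ} (h : ‖w - u‖ < η) (i : Fin d) :
    |w i - u i| < η := by
  have := norm_le_pi_norm (w - u) i
  rw [Real.norm_eq_abs, Pi.sub_apply] at this
  exact this.trans_lt h

theorem co_abs {d : ℕ} {v : Fin d → ℝ} {R : ℝ} (h : ‖v‖ < R) (i : Fin d) : |v i| < R := by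
  have := norm_le_pi_norm v i
  rw [Real.norm_eq_abs] at this
  exact this.trans_lt h

variable (H : OutS grp (Q.L x0 a b) dh n lam A φ r) (hg : Gr1 grp k0 kX kz kH)
  (hL : ∀ z E C X B H P F : ℝ, Lg z E C X B H P F → bx9 z 0 E C X B H P F ∈ Q.L x0 a b)

include hL in
theorem bg0_mem {R : ℝ} {v : Fin 4 → ℝ} (hv : v ∈ DD R) : bg0 R + T0 v ∈ Q.L x0 a b := by
  rw [bg0_T0]
  have h0 := abs_lt.1 (co_abs hv.2.2 0)
  have h1 := abs_lt.1 (co_abs hv.2.2 1)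
  have h2 := abs_lt.1 (co_abs hv.2.2 2)
  have h3 := abs_lt.1 (co_abs hv.2.2 3)
  have a1 := hv.1
  have a2 := hv.2.1
  exact hL _ _ _ _ _ _ _ _ ⟨by linarith, by linarith, by linarith, by linarith, by linarith,
    by linarith, by linarith⟩

include hL in
theorem bg1_mem {R : ℝ} {w : Fin 2 → ℝ} (hw : ‖w‖ < R) : bg1 R + T1 w ∈ Q.L x0 a b := by
  rw [bg1_T1]
  have h0 := abs_lt.1 (co_abs hw 0)
  have h1 := abs_lt.1 (co_abs hw 1)
  exact hL _ _ _ _ _ _ _ _ ⟨by linarith, by linarith, by linarith, by linarith, by linarith,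
    by linarith, by linarith⟩

/-- the group function of `k0` on the positions -/
noncomputable def Ph0 (φ : ℕ → (Fin 12 → ℝ) → ℝ) (k0 : ℕ) (v : Fin 4 → ℝ) : ℝ := φ k0 (T0 v)

/-- the joint group function on the positions -/
noncomputable def Ps (φ : ℕ → (Fin 12 → ℝ) → ℝ) (kX : ℕ) (x f : ℝ) : ℝ := φ kX (T1 ![x, f])

include hg in
theorem on_g0 {p : Fin 12 → Prop} (h1 : p 1) (h2 : p 2) (h3 : p 3) (h4 : p 4) (h7 : p 7)
    (h8 : p 8) (h10 : p 10) : ∀ i, grp i = k0 → p i := by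
  intro i hi
  have := (hg.g0 i).1 hi
  simp only [Finset.mem_insert, Finset.mem_singleton] at this
  rcases this with rfl | rfl | rfl | rfl | rfl | rfl | rfl <;> assumption

include hg in
theorem on_gX {p : Fin 12 → Prop} (h5 : p 5) (h6 : p 6) (h11 : p 11) :
    ∀ i, grp i = kX → p i := by
  intro i hi
  have := (hg.gX i).1 hi
  simp only [Finset.mem_insert, Finset.mem_singleton] at this
  rcases this with rfl | rfl | rfl <;> assumption

include hg in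
theorem eq_on_g0 {c c' : Fin 12 → ℝ} (h : c 1 = c' 1 ∧ c 2 = c' 2 ∧ c 3 = c' 3 ∧ c 4 = c' 4 ∧
    c 7 = c' 7 ∧ c 8 = c' 8 ∧ c 10 = c' 10) : ∀ i, grp i = k0 → c i = c' i := by
  obtain ⟨h1, h2, h3, h4, h5, h6, h7⟩ := h
  exact on_g0 hg h1 h2 h3 h4 h5 h6 h7

include hg in
theorem eq_on_gX {c c' : Fin 12 → ℝ} (h : c 5 = c' 5 ∧ c 6 = c' 6 ∧ c 11 = c' 11) :
    ∀ i, grp i = kX → c i = c' i := on_gX hg h.1 h.2.1 h.2.2

include H hg in
theorem Ph0_bg (R : ℝ) (v : Fin 4 → ℝ) : φ k0 (bg0 R + T0 v) = Ph0 φ k0 v := by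
  refine H.loc k0 _ _ (eq_on_g0 hg ?_)
  rw [bg0_T0, T0_apply]
  simp [bx9]

include H hg in
theorem Ps_bg (R : ℝ) (w : Fin 2 → ℝ) : φ kX (bg1 R + T1 w) = Ps φ kX (w 0) (w 1) := by
  refine H.loc kX _ _ (eq_on_gX hg ?_)
  rw [bg1_T1, T1_apply]
  simp [bx9]

theorem T0_nonneg (i : Fin 4) (l : Fin 12) : 0 ≤ T0 (Pi.single i 1) l := by
  rw [T0_apply]
  fin_cases i <;> fin_cases l <;> simp [bx9]

theorem T1_nonneg (i : Fin 2) (l : Fin 12) : 0 ≤ T1 (Pi.single i 1) l := by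
  rw [T1_apply]
  fin_cases i <;> fin_cases l <;> simp [bx9]

include H hg hL in
/-- monotonicity of the joint group function -/
theorem Ps_anti {x f x' f' : ℝ} (hx : x ≤ x') (hf : f ≤ f') : Ps φ kX x' f' ≤ Ps φ kX x f := by
  set R : ℝ := 1 + |x| + |f| + |x'| + |f'| with hR
  have n1 : ‖(![x, f] : Fin 2 → ℝ)‖ < R := by
    rw [pi_norm_lt_iff (by positivity)]
    intro i
    fin_cases i <;> simp [hR, Real.norm_eq_abs] <;> nlinarith [abs_nonneg x, abs_nonneg f,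
      abs_nonneg x', abs_nonneg f']
  have n2 : ‖(![x', f'] : Fin 2 → ℝ)‖ < R := by
    rw [pi_norm_lt_iff (by positivity)]
    intro i
    fin_cases i <;> simp [hR, Real.norm_eq_abs] <;> nlinarith [abs_nonneg x, abs_nonneg f,
      abs_nonneg x', abs_nonneg f']
  have h1 := (H.mono kX _ (bg1_mem hL n1) _ (bg1_mem hL n2) (by
    rw [bg1_T1, bg1_T1]
    exact on_gX hg (by simpa [bx9] using hx) (by simpa [bx9] using hx)
      (by simpa [bx9] using hf))).1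
  rw [Ps_bg H hg, Ps_bg H hg] at h1
  simp only [Matrix.cons_val_zero, Matrix.cons_val_one] at h1
  linarith

include H hg hL in
/-- natural values of the joint group function -/
theorem Ps_nat (hdh : ∀ i ∈ ({5, 6, 11} : Finset (Fin 12)), dh i = 1) (u : ℝ) :
    Ps φ kX u u = -(r kX * u) := by
  have n1 : ‖(![u, u] : Fin 2 → ℝ)‖ < 1 + |u| := by
    rw [pi_norm_lt_iff (by positivity)]
    intro i
    fin_cases i <;> simp [Real.norm_eq_abs]
  have h1 := H.rate kX _ (bg1_mem hL n1) u (by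
    rw [bg1_T1]
    refine on_gX hg ?_ ?_ ?_
    · rw [hdh 5 (by decide)]; simp [bx9]
    · rw [hdh 6 (by decide)]; simp [bx9]
    · rw [hdh 11 (by decide)]; simp [bx9])
  rw [Ps_bg H hg] at h1
  simpa using h1

include H hg hL in
/-- **positions of the group `k0`** near the path `κ e_C + ind S t` -/
theorem pos0 {S : Finset (Fin 4)} {y κ q δ η : ℝ} (hy : 0 < y) (hη : 0 < η) (hκ : 4 * η ≤ κ)
    (hS : S = {0} ∨ S = {0, 1} ∨ S = {2}) (hq : q * y ≤ -Ph0 φ k0 (ind S y)) (hδ : 0 < δ) :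
    ∃ v : Fin 4 → ℝ, (v 3 < v 2 + v 0 ∧ v 1 < v 3 + v 0) ∧
      (∃ t ∈ Ioo 0 y, ∀ i, |v i - (κ * (if i = 0 then 1 else 0) + ind S t i)| < η) ∧
      ∃ G : Fin 4 → ℝ, (∀ i, 0 ≤ G i) ∧ q - 2 * κ / y - δ ≤ ∑ i ∈ S, G i ∧
        ∀ w z Hh, RateP (φ k0) (cc v w z Hh) T0 G := by
  have hκ0 : 0 < κ := by linarith
  set p : Fin 4 → ℝ := fun i => κ * (if i = 0 then 1 else 0) with hp
  set R : ℝ := κ + y + η + 1 with hR
  have hind : ∀ t ∈ Icc (0:ℝ) y, ∀ i, 0 ≤ ind S t i ∧ ind S t i ≤ y := fun t ht i => by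
    simp only [ind]; split_ifs
    · exact ⟨ht.1, ht.2⟩
    · exact ⟨le_rfl, hy.le⟩
  have hball : ∀ t ∈ Icc (0:ℝ) y, Metric.ball (p + ind S t) η ⊆ DD R := by
    intro t ht v hv
    rw [Metric.mem_ball, dist_eq_norm] at hv
    have hc : ∀ i, |v i - (p + ind S t) i| < η := fun i => by
      have := co_abs hv i; simpa using this
    have h0 := abs_lt.1 (hc 0)
    have h1 := abs_lt.1 (hc 1)
    have h2 := abs_lt.1 (hc 2)
    have h3 := abs_lt.1 (hc 3)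
    have ht0 := ht.1
    refine ⟨?_, ?_, ?_⟩
    · rcases hS with rfl | rfl | rfl <;> simp [hp, ind] at h0 h1 h2 h3 <;> linarith [h0.1, h2.1, h3.2]
    · rcases hS with rfl | rfl | rfl <;> simp [hp, ind] at h0 h1 h2 h3 <;>
        linarith [h0.1, h1.2, h3.1]
    · rw [pi_norm_lt_iff (by positivity)]
      intro i
      have h4 := abs_lt.1 (hc i)
      have h5 := hind t ht i
      have h6 : 0 ≤ p i ∧ p i ≤ κ := by
        simp only [hp]; split_ifs <;> constructor <;> linarith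
      rw [Real.norm_eq_abs, abs_lt]
      simp only [Pi.add_apply] at h4
      constructor <;> linarith [h4.1, h4.2, h5.1, h5.2, h6.1, h6.2]
  have m0 : p ∈ DD R := by
    have := hball 0 ⟨le_rfl, hy.le⟩ (Metric.mem_ball_self hη)
    have e : ind S (0:ℝ) = 0 := by funext i; simp [ind]
    rwa [e, add_zero] at this
  have m1 : p + ind S y ∈ DD R := hball y ⟨hy.le, le_rfl⟩ (Metric.mem_ball_self hη)
  -- increments
  have i1 : -Ph0 φ k0 p ≤ 2 * κ := by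
    have z1 : bx9 (10 * R) 0 0 0 (5 * R) 0 (3 * R) 0 0 ∈ Q.L x0 a b :=
      hL _ _ _ _ _ _ _ _ ⟨by linarith, by linarith, by linarith, by linarith, by linarith,
        by linarith, by linarith⟩
    have h1 := (H.mono k0 _ z1 _ (bg0_mem hL m0) (by
      rw [bg0_T0]
      refine on_g0 hg ?_ ?_ ?_ ?_ ?_ ?_ ?_ <;>
        first | (simp [bx9, hp]; done) | (simp [bx9, hp]; linarith))).2
    have h2 : φ k0 (bx9 (10 * R) 0 0 0 (5 * R) 0 (3 * R) 0 0) = 0 :=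
      H.zero k0 _ (by refine on_g0 hg ?_ ?_ ?_ ?_ ?_ ?_ ?_ <;> simp [bx9])
    rw [h2, Ph0_bg H hg] at h1
    have e : ∑ i ∈ Finset.univ.filter (fun i => grp i = k0),
        ((bg0 R + T0 p) i - bx9 (10 * R) 0 0 0 (5 * R) 0 (3 * R) 0 0 i) = 2 * κ := by
      have e1 : Finset.univ.filter (fun i => grp i = k0) = {1, 2, 3, 4, 7, 8, 10} := by
        ext i; simp only [Finset.mem_filter, Finset.mem_univ, true_and]; exact hg.g0 i
      rw [e1, bg0_T0]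
      rw [Finset.sum_insert (by decide), Finset.sum_insert (by decide),
        Finset.sum_insert (by decide), Finset.sum_insert (by decide),
        Finset.sum_insert (by decide), Finset.sum_insert (by decide), Finset.sum_singleton]
      simp [bx9, hp]
      ring
    rw [e] at h1
    linarith
  have i2 : Ph0 φ k0 (p + ind S y) ≤ Ph0 φ k0 (ind S y) := by
    -- `ind S y` is legal (closed walls)
    have z2 : bx9 (10 * R) 0 (ind S y 2) (ind S y 0) (5 * R) (ind S y 3) (3 * R) (ind S y 1) 0 ∈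
        Q.L x0 a b := by
      have b0 := hind y ⟨hy.le, le_rfl⟩ 0
      have b1 := hind y ⟨hy.le, le_rfl⟩ 1
      have b2 := hind y ⟨hy.le, le_rfl⟩ 2
      have b3 := hind y ⟨hy.le, le_rfl⟩ 3
      refine hL _ _ _ _ _ _ _ _ ⟨by linarith, ?_, by linarith, ?_, by linarith, by linarith,
        by linarith⟩
      · rcases hS with rfl | rfl | rfl <;> simp [ind] <;> linarith
      · rcases hS with rfl | rfl | rfl <;> simp [ind] <;> linarith
    have h1 := (H.mono k0 _ z2 _ (bg0_mem hL m1) (by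
      rw [bg0_T0]
      refine on_g0 hg ?_ ?_ ?_ ?_ ?_ ?_ ?_ <;>
        first | (simp [bx9, hp]; done) | (simp [bx9, hp]; linarith))).1
    have e : φ k0 (bx9 (10 * R) 0 (ind S y 2) (ind S y 0) (5 * R) (ind S y 3) (3 * R)
        (ind S y 1) 0) = Ph0 φ k0 (ind S y) := by
      rw [← bg0_T0, Ph0_bg H hg]
    rw [e, Ph0_bg H hg] at h1
    linarith
  obtain ⟨v, -, hvD, ⟨t, ht, htv⟩, G, g1, -, g2, g3⟩ := exists_pos H k0 (DD_open R)
    (fun v hv => bg0_mem hL hv) T0_nonneg (p := p) (S := S) (y := y) (q := q - 2 * κ / y)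
    hy hη hball (by
      rw [Ph0_bg H hg, Ph0_bg H hg]
      have e : (q - 2 * κ / y) * y = q * y - 2 * κ := by field_simp
      rw [e]; linarith) hδ (N := univ) (Eventually.of_forall fun _ => mem_univ _)
  refine ⟨v, ⟨hvD.1, hvD.2.1⟩, ⟨t, ht, fun i => ?_⟩, G, g1, g2, fun w z Hh => ?_⟩
  · have := co_abs htv i
    simpa [hp] using this
  · refine RateP.transfer H g3 (eq_on_g0 hg ?_)
    rw [bg0_T0]
    simp [cc, bx9]

include H hg hL in
/-- **rate of `X` from below at all positions with `F` coarse by at least `M`** -/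
theorem incX {M μ Y c1 : ℝ} (hM : M < μ) (hY : μ < Y)
    (hK : ∀ w : Fin 2 → ℝ, ∀ g : Fin 2 → ℝ, (∀ v z Hh, RateP (φ kX) (cc v w z Hh) T1 g) →
      M ≤ w 0 - w 1 → c1 ≤ g 0) :
    c1 * (Y - μ) ≤ Ps φ kX μ 0 - Ps φ kX Y 0 := by
  by_contra hlt
  push Not at hlt
  have hy : 0 < Y - μ := by linarith
  set q : ℝ := (Ps φ kX μ 0 - Ps φ kX Y 0) / (Y - μ) with hq
  have hqc : q < c1 := by rw [hq, div_lt_iff₀ hy]; exact hlt
  set R : ℝ := 1 + |μ| + |Y| + (μ - M) with hR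
  set η : ℝ := (μ - M) / 2 with hη
  have hη0 : 0 < η := by rw [hη]; linarith
  set p : Fin 2 → ℝ := ![μ, 0] with hp
  have e0 : ∀ t : ℝ, (p + ind ({0} : Finset (Fin 2)) t) 0 = μ + t := fun t => by
    rw [Pi.add_apply]; simp [hp, ind]
  have e1 : ∀ t : ℝ, (p + ind ({0} : Finset (Fin 2)) t) 1 = 0 := fun t => by
    rw [Pi.add_apply]; simp [hp, ind]
  have hball : ∀ t ∈ Icc (0:ℝ) (Y - μ), Metric.ball (p + ind {0} t) η ⊆ {w | ‖w‖ < R} := by
    intro t ht w hw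
    rw [Metric.mem_ball, dist_eq_norm] at hw
    have h0 := abs_lt.1 (co_sub hw 0)
    have h1 := abs_lt.1 (co_sub hw 1)
    rw [e0] at h0
    rw [e1] at h1
    show ‖w‖ < R
    rw [pi_norm_lt_iff (by positivity)]
    intro i
    have a1 := abs_nonneg μ
    have a2 := abs_nonneg Y
    have a3 := le_abs_self μ
    have a4 := neg_abs_le μ
    have a5 := le_abs_self Y
    fin_cases i
    · show ‖w 0‖ < R
      rw [Real.norm_eq_abs, abs_lt]
      constructor <;> linarith [h0.1, h0.2, ht.1, ht.2]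
    · show ‖w 1‖ < R
      rw [Real.norm_eq_abs, abs_lt]
      constructor <;> linarith [h1.1, h1.2, ht.1, ht.2]
  obtain ⟨w, -, -, ⟨t, ht, htw⟩, g, -, -, g2, g3⟩ := exists_pos_le H kX
    (isOpen_lt (by fun_prop) (by fun_prop) : IsOpen {w : Fin 2 → ℝ | ‖w‖ < R})
    (fun w hw => bg1_mem hL hw) T1_nonneg (p := p) (S := {0}) (y := Y - μ) (q := q)
    hy hη0 hball (by
      rw [Ps_bg H hg, Ps_bg H hg, e0, e1]
      have e : q * (Y - μ) = Ps φ kX μ 0 - Ps φ kX Y 0 := by rw [hq]; field_simp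
      rw [e]
      have e2 : μ + (Y - μ) = Y := by ring
      rw [e2]
      exact le_rfl) (δ := (c1 - q) / 2) (by linarith) (N := univ)
      (Eventually.of_forall fun _ => mem_univ _)
  have h0 := abs_lt.1 (co_sub htw 0)
  have h1 := abs_lt.1 (co_sub htw 1)
  rw [e0] at h0
  rw [e1] at h1
  have h2 := hK w g (fun v z Hh => RateP.transfer H g3 (eq_on_gX hg (by
    rw [bg1_T1]; simp [cc, bx9]))) (by
      have := ht.1
      linarith [h0.1, h1.2])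
  rw [Finset.sum_singleton] at g2
  linarith

include H hg hL in
/-- **rate of `F` from below at the positions `lo < X - F < hi`** -/
theorem incF {lo hi Y Z c1 : ℝ} (hlo : lo < Y - Z) (hhi : Y < hi) (hZ : 0 < Z)
    (hK : ∀ w : Fin 2 → ℝ, ∀ g : Fin 2 → ℝ, (∀ v z Hh, RateP (φ kX) (cc v w z Hh) T1 g) →
      lo ≤ w 0 - w 1 → w 0 - w 1 ≤ hi → c1 ≤ g 1) :
    c1 * Z ≤ Ps φ kX Y 0 - Ps φ kX Y Z := by
  by_contra hlt
  push Not at hlt
  set q : ℝ := (Ps φ kX Y 0 - Ps φ kX Y Z) / Z with hq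
  have hqc : q < c1 := by rw [hq, div_lt_iff₀ hZ]; exact hlt
  set η : ℝ := min ((Y - Z - lo) / 2) ((hi - Y) / 2) with hη
  have hη0 : 0 < η := lt_min (by linarith) (by linarith)
  have hη1 : η ≤ (Y - Z - lo) / 2 := min_le_left _ _
  have hη2 : η ≤ (hi - Y) / 2 := min_le_right _ _
  set R : ℝ := 1 + |Y| + Z + η with hR
  set p : Fin 2 → ℝ := ![Y, 0] with hp
  have e0 : ∀ t : ℝ, (p + ind ({1} : Finset (Fin 2)) t) 0 = Y := fun t => by
    rw [Pi.add_apply]; simp [hp, ind]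
  have e1 : ∀ t : ℝ, (p + ind ({1} : Finset (Fin 2)) t) 1 = t := fun t => by
    rw [Pi.add_apply]; simp [hp, ind]
  have hball : ∀ t ∈ Icc (0:ℝ) Z, Metric.ball (p + ind {1} t) η ⊆ {w | ‖w‖ < R} := by
    intro t ht w hw
    rw [Metric.mem_ball, dist_eq_norm] at hw
    have h0 := abs_lt.1 (co_sub hw 0)
    have h1 := abs_lt.1 (co_sub hw 1)
    rw [e0] at h0
    rw [e1] at h1
    show ‖w‖ < R
    rw [pi_norm_lt_iff (by positivity)]
    intro i
    have a2 := abs_nonneg Y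
    have a5 := le_abs_self Y
    have a6 := neg_abs_le Y
    fin_cases i
    · show ‖w 0‖ < R
      rw [Real.norm_eq_abs, abs_lt]
      constructor <;> linarith [h0.1, h0.2, ht.1, ht.2]
    · show ‖w 1‖ < R
      rw [Real.norm_eq_abs, abs_lt]
      constructor <;> linarith [h1.1, h1.2, ht.1, ht.2]
  obtain ⟨w, -, -, ⟨t, ht, htw⟩, g, -, -, g2, g3⟩ := exists_pos_le H kX
    (isOpen_lt (by fun_prop) (by fun_prop) : IsOpen {w : Fin 2 → ℝ | ‖w‖ < R})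
    (fun w hw => bg1_mem hL hw) T1_nonneg (p := p) (S := {1}) (y := Z) (q := q)
    hZ hη0 hball (by
      rw [Ps_bg H hg, Ps_bg H hg, e0, e1]
      have e : q * Z = Ps φ kX Y 0 - Ps φ kX Y Z := by rw [hq]; field_simp
      rw [e]
      exact le_rfl) (δ := (c1 - q) / 2) (by linarith) (N := univ)
      (Eventually.of_forall fun _ => mem_univ _)
  have h0 := abs_lt.1 (co_sub htw 0)
  have h1 := abs_lt.1 (co_sub htw 1)
  rw [e0] at h0
  rw [e1] at h1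
  have h2 := hK w g (fun v z Hh => RateP.transfer H g3 (eq_on_gX hg (by
    rw [bg1_T1]; simp [cc, bx9]))) (by linarith [h0.1, h1.2, ht.2])
      (by linarith [h0.2, h1.1, ht.1])
  rw [Finset.sum_singleton] at g2
  linarith

include H hg hL in
/-- some differentiability point of the joint group function with `F` coarse -/
theorem exX (M : ℝ) : ∃ w : Fin 2 → ℝ, ∃ g : Fin 2 → ℝ,
    (∀ v z Hh, RateP (φ kX) (cc v w z Hh) T1 g) ∧ M ≤ w 0 - w 1 := by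
  by_contra hno
  push Not at hno
  have h1 := incX (c1 := 1 + (Ps φ kX (M + 1) 0 - Ps φ kX (M + 2) 0)) H hg hL
    (M := M) (μ := M + 1) (Y := M + 2) (by linarith) (by linarith) (fun w g h hM =>
      absurd hM (not_le.2 (hno w g h)))
  have h2 : (M + 2 - (M + 1) : ℝ) = 1 := by ring
  rw [h2, mul_one] at h1
  linarith

/-! ### numbers -/

theorem num1 {κ : ℝ} (h0 : 0 < κ) (h1 : κ ≤ 1 / 64) : κ * κ ≤ κ / 64 := by
  have := mul_le_mul_of_nonneg_left h1 h0.le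
  linarith

theorem num2 {ya q0 : ℝ} (hy : 0 < ya) (hq : 0 < q0) : 0 < ya * (q0 / (16 * (1 + q0))) ∧
    ya * (q0 / (16 * (1 + q0))) ≤ ya ∧ 2 * (ya * (q0 / (16 * (1 + q0)))) / ya ≤ q0 / 8 := by
  refine ⟨by positivity, ?_, ?_⟩
  · have : q0 / (16 * (1 + q0)) ≤ 1 := by rw [div_le_one (by positivity)]; linarith
    have := mul_le_mul_of_nonneg_left this hy.le
    linarith
  · have e : 2 * (ya * (q0 / (16 * (1 + q0)))) / ya = q0 / (8 * (1 + q0)) := by field_simp; ring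
    rw [e]
    exact div_le_div_of_nonneg_left hq.le (by norm_num) (by linarith)

theorem num3 {s κ R : ℝ} (s0 : 0 ≤ s) (κ0 : 0 < κ)
    (h : (1 - s) * (κ / 2 - 4 * (κ * κ / 16)) + 1 * (κ / 2 - 2 * (κ * κ / 4)) ≤ R * (κ / 2)) :
    2 - s - 3 * κ ≤ R := by
  have h1 : 0 ≤ s * (κ * κ) := by positivity
  have h3 : 0 ≤ κ * κ := by positivity
  have h2 : (2 - s - 3 * κ) * (κ / 2) ≤ R * (κ / 2) := by
    refine le_trans ?_ h
    have e : (1 - s) * (κ / 2 - 4 * (κ * κ / 16)) + 1 * (κ / 2 - 2 * (κ * κ / 4)) -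
        (2 - s - 3 * κ) * (κ / 2) = 3 / 4 * (κ * κ) + 1 / 4 * (s * (κ * κ)) := by ring
    linarith
  exact le_of_mul_le_mul_right h2 (by linarith)

/-! ### legal boxes at a position -/

theorem lgX {u0 u1 u2 u3 w0 w1 : ℝ} (hB : u3 < u2 + u0) (hP : u1 < u3 + u0)
    (h1 : w1 ≤ w0 - u0 + u1) (h2 : w1 ≤ w0 + u3) (h3 : w1 ≤ u2 + (u0 + w0)) :
    Lg (w0 - u0) u2 u0 w0 u3 (u0 + w0) u1 w1 :=
  ⟨by linarith, hB.le, le_rfl, by linarith, h1, h2, h3⟩

theorem lgF {u0 u1 u2 u3 w0 w1 : ℝ} (hB : u3 < u2 + u0) (hP : u1 < u3 + u0)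
    (h1 : w0 ≤ w1 - u1 + u0) (h2 : w1 ≤ w0 + u3) (h3 : w1 ≤ u2 + (u0 + w0)) :
    Lg (w1 - u1) u2 u0 w0 u3 (u0 + w0) u1 w1 :=
  ⟨h1, hB.le, le_rfl, by linarith, by linarith, h2, h3⟩

theorem lgE {u0 u1 u2 u3 w0 w1 : ℝ} (hB : u3 < u2 + u0) (hP : u1 < u3 + u0)
    (h2 : w1 ≤ w0 + u3) (h3 : w1 - u2 ≤ u0 + w0) :
    Lg (|w0 - u0| + |w1 - u1|) u2 u0 w0 u3 (w1 - u2) u1 w1 := by
  have a1 := le_abs_self (w0 - u0)
  have a2 := le_abs_self (w1 - u1)
  have a3 := abs_nonneg (w0 - u0)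
  have a4 := abs_nonneg (w1 - u1)
  exact ⟨by linarith, hB.le, h3, by linarith, by linarith, h2, by linarith⟩

/-! ### the three cases -/

/-- a position: `|v i - (κ e_C + ind S t) i| < η` in numbers -/
structure Nr (v : Fin 4 → ℝ) (η c0 c1 c2 : ℝ) : Prop where
  a0 : c0 - η < v 0
  b0 : v 0 < c0 + η
  a1 : c1 - η < v 1
  b1 : v 1 < c1 + η
  a2 : c2 - η < v 2
  b2 : v 2 < c2 + η
  a3 : -η < v 3
  b3 : v 3 < η

theorem Nr.of {v : Fin 4 → ℝ} {η κ t c0 c1 c2 : ℝ} {S : Finset (Fin 4)}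
    (h : ∀ i, |v i - (κ * (if i = 0 then 1 else 0) + ind S t i)| < η)
    (e0 : κ + ind S t 0 = c0) (e1 : ind S t 1 = c1) (e2 : ind S t 2 = c2) (e3 : ind S t 3 = 0) :
    Nr v η c0 c1 c2 := by
  have a0 := abs_lt.1 (h 0)
  have a1 := abs_lt.1 (h 1)
  have a2 := abs_lt.1 (h 2)
  have a3 := abs_lt.1 (h 3)
  rw [e1] at a1
  rw [e2] at a2
  rw [e3] at a3
  have f0 : κ * (if (0 : Fin 4) = 0 then 1 else 0) + ind S t 0 = c0 := by simpa using e0
  rw [f0] at a0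
  have f1 : κ * (if (1 : Fin 4) = 0 then (1:ℝ) else 0) = 0 := by simp
  have f2 : κ * (if (2 : Fin 4) = 0 then (1:ℝ) else 0) = 0 := by simp
  have f3 : κ * (if (3 : Fin 4) = 0 then (1:ℝ) else 0) = 0 := by simp
  rw [f1] at a1
  rw [f2] at a2
  rw [f3] at a3
  exact ⟨by linarith [a0.1], by linarith [a0.2], by linarith [a1.1], by linarith [a1.2],
    by linarith [a2.1], by linarith [a2.2], by linarith [a3.1], by linarith [a3.2]⟩

include H hg hL in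
/-- case `C_b`-rate `> s` -/
theorem caseP (hdh : ∀ i ∈ ({5, 6, 11} : Finset (Fin 12)), dh i = 1) {s q0 κ t : ℝ}
    (s0 : 0 ≤ s) (hq0 : 0 < q0) (κ0 : 0 < κ) (κ1 : κ ≤ 1 / 64) (HF : Fct1 s k0 kX kH φ r)
    (iC : ∀ y : ℝ, 0 < y → q0 * y ≤ -Ph0 φ k0 (ind {0} y)) (t0 : 0 < t) {v G : Fin 4 → ℝ}
    (vB : v 3 < v 2 + v 0) (vP : v 1 < v 3 + v 0) (nv : Nr v (κ * κ / 4) (κ + t) t 0)
    (GR : ∀ w z Hh, RateP (φ k0) (cc v w z Hh) T0 G) (hP : s < G 1) :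
    1 - s ≤ r kH ∧ 2 - s - 3 * κ ≤ r kX := by
  have hnat := Ps_nat H hg hL hdh
  have P0 : Ps φ kX 0 0 = 0 := by have := hnat 0; simpa using this
  have n1 := num1 κ0 κ1
  have n0 : 0 < κ * κ := mul_pos κ0 κ0
  have ya0 : 0 < κ * κ / 16 := by linarith
  have hpos : ∃ u G' : Fin 4 → ℝ, (u 3 < u 2 + u 0 ∧ u 1 < u 3 + u 0) ∧
      (-(κ * κ / 16) < u 0 ∧ u 0 < 5 / 2 * (κ * κ / 16) ∧ -(κ * κ / 64) < u 1 ∧
        -(κ * κ / 64) < u 2 ∧ -(κ * κ / 64) < u 3) ∧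
      0 < G' 0 ∧ ∀ w z Hh, RateP (φ k0) (cc u w z Hh) T0 G' := by
    obtain ⟨p1, p2, p3⟩ := num2 ya0 hq0
    set ya : ℝ := κ * κ / 16 with hya
    set κa : ℝ := ya * (q0 / (16 * (1 + q0))) with hκa
    obtain ⟨u, ⟨uB, uP⟩, ⟨t', ht', htu⟩, G', G0', Gs', GR'⟩ := pos0 H hg hL (S := {0}) (y := ya)
      (κ := κa) (q := q0) (δ := q0 / 2) (η := κa / 4) ya0 (by linarith) (by linarith)
      (Or.inl rfl) (iC ya ya0) (by linarith)
    have nu := Nr.of htu (c0 := κa + t') (c1 := 0) (c2 := 0) (by simp [ind]) (by simp [ind])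
      (by simp [ind]) (by simp [ind])
    rw [Finset.sum_singleton] at Gs'
    refine ⟨u, G', ⟨uB, uP⟩, ⟨?_, ?_, ?_, ?_, ?_⟩, by linarith, GR'⟩
    · linarith [nu.a0, ht'.1]
    · linarith [nu.b0, ht'.2]
    · linarith [nu.a1]
    · linarith [nu.a2]
    · linarith [nu.a3]
  obtain ⟨u, G', ⟨uB, uP⟩, ⟨u1, u2, u3, u4, u5⟩, hG', GR'⟩ := hpos
  have hX : ∀ w g, (∀ v z Hh, RateP (φ kX) (cc v w z Hh) T1 g) → 3 * (κ * κ / 16) ≤ w 0 - w 1 →
      1 - s ≤ g 0 ∧ g 0 ≤ r kH := fun w g hg1 hw => by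
    have hl := lgX (w0 := w 0) (w1 := w 1) uB uP (by linarith only [hw, u2, u3, n0])
      (by linarith only [hw, u5, n0]) (by linarith only [hw, u1, u4, n0])
    exact ⟨(HF.K1 u w _ _ G' g hl (GR' _ _ _) (hg1 _ _ _) (by ring)).1 hG',
      HF.H1 u w _ _ G' g hl (GR' _ _ _) (hg1 _ _ _) rfl hG'⟩
  have rH : 1 - s ≤ r kH := by
    obtain ⟨w, g, h1, h2⟩ := exX H hg hL (3 * (κ * κ / 16))
    exact (hX w g h1 h2).1.trans (hX w g h1 h2).2
  have D1 := incX (c1 := 1 - s) (M := 3 * (κ * κ / 16)) (μ := 4 * (κ * κ / 16)) (Y := κ / 2)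
    H hg hL (by linarith only [n0]) (by linarith only [n1, κ0]) fun w g h1 h2 => (hX w g h1 h2).1
  have D2 := incF (c1 := 1) (lo := κ * κ / 4) (hi := κ - 2 * (κ * κ / 4)) (Y := κ / 2)
    (Z := κ / 2 - 2 * (κ * κ / 4)) H hg hL (by linarith only [n0]) (by linarith only [n1, κ0])
    (by linarith only [n1, κ0])
    fun w g h1 h2 h3 => by
      have hl := lgF (w0 := w 0) (w1 := w 1) vB vP (by linarith only [h3, nv.a0, nv.b1])
        (by linarith only [h2, nv.a3]) (by linarith only [h2, nv.a2, nv.a0, t0, n1, κ0])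
      exact HF.F2 v w (w 1 - v 1) (v 0 + w 0) G g hl (GR _ _ _) (h1 _ _ _) (by ring) hP
  have E1 : Ps φ kX (4 * (κ * κ / 16)) 0 ≤ 0 := by
    have := Ps_anti H hg hL (x := 0) (f := 0) (x' := 4 * (κ * κ / 16)) (f' := 0)
      (by linarith only [n0]) le_rfl
    linarith only [this, P0]
  have E2 : Ps φ kX (κ / 2) (κ / 2) ≤ Ps φ kX (κ / 2) (κ / 2 - 2 * (κ * κ / 4)) :=
    Ps_anti H hg hL le_rfl (by linarith only [n0])
  have E3 := hnat (κ / 2)
  exact ⟨rH, num3 s0 κ0 (by linarith only [D1, D2, E1, E2, E3])⟩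

include H hg hL in
/-- case `C_a`-rate `> s` : rates of `X` and `H` -/
theorem caseC1 {s κ t : ℝ} (s0 : 0 ≤ s) (κ0 : 0 < κ) (κ1 : κ ≤ 1 / 64)
    (HF : Fct1 s k0 kX kH φ r) (t0 : 0 < t) {v G : Fin 4 → ℝ}
    (vB : v 3 < v 2 + v 0) (vP : v 1 < v 3 + v 0) (nv : Nr v (κ * κ / 4) (κ + t) t 0)
    (GR : ∀ w z Hh, RateP (φ k0) (cc v w z Hh) T0 G) (hC : s < G 0) :
    1 ≤ r kH ∧ ∀ w g, (∀ v z Hh, RateP (φ kX) (cc v w z Hh) T1 g) → 2 * κ ≤ w 0 - w 1 →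
      1 ≤ g 0 := by
  have n1 := num1 κ0 κ1
  have hC0 : 0 < G 0 := lt_of_le_of_lt s0 hC
  have hX : ∀ w g, (∀ v z Hh, RateP (φ kX) (cc v w z Hh) T1 g) → 2 * κ ≤ w 0 - w 1 →
      1 ≤ g 0 ∧ g 0 ≤ r kH := fun w g hg1 hw => by
    have hl := lgX (w0 := w 0) (w1 := w 1) vB vP
      (by linarith only [hw, nv.b0, nv.a1, n1, κ0]) (by linarith only [hw, nv.a3, n1, κ0])
      (by linarith only [hw, nv.a2, nv.a0, t0, n1, κ0])
    exact ⟨(HF.K1 v w _ _ G g hl (GR _ _ _) (hg1 _ _ _) (by ring)).2 hC,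
      HF.H1 v w _ _ G g hl (GR _ _ _) (hg1 _ _ _) rfl hC0⟩
  refine ⟨?_, fun w g h1 h2 => (hX w g h1 h2).1⟩
  obtain ⟨w, g, h1, h2⟩ := exX H hg hL (2 * κ)
  exact (hX w g h1 h2).1.trans (hX w g h1 h2).2

include H hg hL in
/-- the increment of the flag `E` is not positive -/
theorem flag_le {y : ℝ} (hy : 0 < y) : Ph0 φ k0 (ind {2} y) ≤ 0 := by
  set R : ℝ := y + 1 with hR
  have z1 : bx9 (10 * R) 0 0 0 (5 * R) 0 (3 * R) 0 0 ∈ Q.L x0 a b :=
    hL _ _ _ _ _ _ _ _ ⟨by linarith, by linarith, by linarith, by linarith, by linarith,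
      by linarith, by linarith⟩
  have z2 : bg0 R + T0 (ind {2} y) ∈ Q.L x0 a b := by
    rw [bg0_T0]
    exact hL _ _ _ _ _ _ _ _ ⟨by simp [ind]; linarith, by simp [ind]; linarith,
      by simp [ind]; linarith, by simp [ind], by simp [ind]; linarith,
      by simp [ind]; linarith, by simp [ind]; linarith⟩
  have h1 := (H.mono k0 _ z1 _ z2 (by
    rw [bg0_T0]
    refine on_g0 hg ?_ ?_ ?_ ?_ ?_ ?_ ?_ <;>
      first | (simp [bx9, ind]; done) | (simp [bx9, ind]; linarith))).1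
  have h2 : φ k0 (bx9 (10 * R) 0 0 0 (5 * R) 0 (3 * R) 0 0) = 0 :=
    H.zero k0 _ (by refine on_g0 hg ?_ ?_ ?_ ?_ ?_ ?_ ?_ <;> simp [bx9])
  rw [h2, Ph0_bg H hg] at h1
  linarith

include H hg hL in
/-- case `C_a`-rate `> s` and live flag `E` : the joint rate -/
theorem caseC2 (hdh : ∀ i ∈ ({5, 6, 11} : Finset (Fin 12)), dh i = 1) {s κ ye : ℝ}
    (κ0 : 0 < κ) (κ1 : κ ≤ 1 / 64) (HF : Fct1 s k0 kX kH φ r) (rH : 1 ≤ r kH)
    (hX : ∀ w g, (∀ v z Hh, RateP (φ kX) (cc v w z Hh) T1 g) → 2 * κ ≤ w 0 - w 1 → 1 ≤ g 0)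
    (ye0 : 0 < ye) (hye : Ph0 φ k0 (ind {2} ye) ≠ 0) : 2 - 5 * κ ≤ r kX := by
  have hnat := Ps_nat H hg hL hdh
  have P0 : Ps φ kX 0 0 = 0 := by have := hnat 0; simpa using this
  have hneg : Ph0 φ k0 (ind {2} ye) < 0 := lt_of_le_of_ne (flag_le H hg hL ye0) hye
  have hpos : ∃ u G' : Fin 4 → ℝ, (u 3 < u 2 + u 0 ∧ u 1 < u 3 + u 0) ∧
      (-κ < u 3 ∧ 0 < u 2 + u 0) ∧ 0 < G' 2 ∧ ∀ w z Hh, RateP (φ k0) (cc u w z Hh) T0 G' := by
    set qe : ℝ := -Ph0 φ k0 (ind {2} ye) / ye with hqe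
    have qe0 : 0 < qe := div_pos (by linarith) ye0
    set κe : ℝ := ye * (qe / 16) with hκe
    have κe0 : 0 < κe := by positivity
    have ηe0 : 0 < min (κe / 4) κ := lt_min (by linarith) κ0
    have ηe1 : min (κe / 4) κ ≤ κe / 4 := min_le_left _ _
    have ηe2 : min (κe / 4) κ ≤ κ := min_le_right _ _
    obtain ⟨u, ⟨uB, uP⟩, ⟨t', ht', htu⟩, G', G0', Gs', GR'⟩ := pos0 H hg hL (S := {2})
      (y := ye) (κ := κe) (q := qe) (δ := qe / 2) (η := min (κe / 4) κ) ye0 ηe0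
      (by linarith only [ηe1]) (Or.inr (Or.inr rfl))
      (by rw [hqe, div_mul_cancel₀ _ ye0.ne']) (by linarith only [qe0])
    have nu := Nr.of htu (c0 := κe) (c1 := 0) (c2 := t') (by simp [ind]) (by simp [ind])
      (by simp [ind]) (by simp [ind])
    rw [Finset.sum_singleton] at Gs'
    have e1 : 2 * κe / ye = qe / 8 := by rw [hκe]; field_simp; ring
    rw [e1] at Gs'
    exact ⟨u, G', ⟨uB, uP⟩, ⟨by linarith only [nu.a3, ηe2],
      by linarith only [nu.a2, nu.a0, ht'.1, ηe1, κe0]⟩, by linarith only [Gs', qe0], GR'⟩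
  obtain ⟨u, G', ⟨uB, uP⟩, ⟨u1, u2⟩, hG', GR'⟩ := hpos
  have D1 := incX (c1 := 1) (M := 2 * κ) (μ := 3 * κ) (Y := 1) H hg hL
    (by linarith only [κ0]) (by linarith only [κ1]) fun w g h1 h2 => hX w g h1 h2
  have D2 := incF (c1 := r kH) (lo := κ) (hi := 2) (Y := 1) (Z := 1 - 2 * κ)
    H hg hL (by linarith only [κ0]) (by norm_num) (by linarith only [κ1])
    fun w g h1 h2 h3 => by
      have hl := lgE (w0 := w 0) (w1 := w 1) uB uP (by linarith only [h2, u1])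
        (by linarith only [h2, u2, κ0])
      exact HF.S2 u w _ (w 1 - u 2) G' g hl (GR' _ _ _) (h1 _ _ _) (by ring) hG'
  have E1 : Ps φ kX (3 * κ) 0 ≤ 0 := by
    have := Ps_anti H hg hL (x := 0) (f := 0) (x' := 3 * κ) (f' := 0) (by linarith only [κ0])
      le_rfl
    linarith only [this, P0]
  have E2 : Ps φ kX 1 1 ≤ Ps φ kX 1 (1 - 2 * κ) := Ps_anti H hg hL le_rfl (by linarith only [κ0])
  have E3 := hnat 1
  have E4 : 1 * (1 - 2 * κ) ≤ r kH * (1 - 2 * κ) :=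
    mul_le_mul_of_nonneg_right rH (by linarith only [κ1])
  linarith only [D1, D2, E1, E2, E3, E4]

include H hg hL in
/-- **THE RESONANCE `sigma = 1`**: contradiction at one interior point of the plane `Σ` -/
theorem sig1_core (hdh : ∀ i ∈ ({5, 6, 11} : Finset (Fin 12)), dh i = 1) {s c q0 q1 δ : ℝ}
    (s0 : 0 ≤ s) (hc : 2 * s < c) (hq0 : 0 < q0) (hq1 : 0 < q1) (hδ : δ ≤ (c - 2 * s) / 2)
    (HF : Fct1 s k0 kX kH φ r) (hz : 1 - s ≤ r kz)
    (hsum : r kz + r kX + r kH ≤ 4 - s - c + δ)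
    (iC : ∀ y : ℝ, 0 < y → q0 * y ≤ -Ph0 φ k0 (ind {0} y))
    (iCP : ∀ y : ℝ, 0 < y → (c + q0 + q1) * y ≤ -Ph0 φ k0 (ind {0, 1} y))
    (A1 : (∀ y : ℝ, 0 < y → Ph0 φ k0 (ind {2} y) = 0) → 2 * (1 - s) ≤ r kX) : False := by
  obtain ⟨κ, κ0, κ1, κ2⟩ : ∃ κ : ℝ, 0 < κ ∧ κ ≤ 1 / 64 ∧ κ ≤ (c - 2 * s) / 64 :=
    ⟨min (1 / 64) ((c - 2 * s) / 64), lt_min (by norm_num) (by linarith), min_le_left _ _,
      min_le_right _ _⟩
  have n1 := num1 κ0 κ1
  have n0 : 0 < κ * κ := mul_pos κ0 κ0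
  -- the position of the pair (C, P)
  obtain ⟨v, ⟨vB, vP⟩, ⟨t, ht, htv⟩, G, G0, Gs, GR⟩ := pos0 H hg hL (S := {0, 1}) (y := 1)
    (κ := κ) (q := c + q0 + q1) (δ := (c - 2 * s) / 4) (η := κ * κ / 4) one_pos
    (by linarith only [n0]) (by linarith only [n1, κ0]) (Or.inr (Or.inl rfl))
    (iCP 1 one_pos) (by linarith only [hc])
  have nv := Nr.of htv (c0 := κ + t) (c1 := t) (c2 := 0) (by simp [ind]) (by simp [ind])
    (by simp [ind]) (by simp [ind])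
  rw [Finset.sum_pair (by decide), div_one] at Gs
  have hGs : 2 * s < G 0 + G 1 := by linarith only [Gs, κ2, hc, hq0, hq1, κ0]
  by_cases hP : s < G 1
  · obtain ⟨h1, h2⟩ := caseP H hg hL hdh s0 hq0 κ0 κ1 HF iC ht.1 vB vP nv GR hP
    linarith only [h1, h2, hz, hsum, hδ, κ2, hc]
  · push Not at hP
    obtain ⟨h1, h2⟩ := caseC1 H hg hL s0 κ0 κ1 HF ht.1 vB vP nv GR (by linarith only [hP, hGs])
    by_cases hE : ∀ y : ℝ, 0 < y → Ph0 φ k0 (ind {2} y) = 0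
    · have := A1 hE
      linarith only [this, h1, hz, hsum, hδ, hc]
    · push Not at hE
      obtain ⟨ye, ye0, hye⟩ := hE
      have := caseC2 H hg hL hdh κ0 κ1 HF h1 h2 ye0 hye
      linarith only [this, h1, hz, hsum, hδ, κ2, hc, s0]

end core

end Crest.Agent.R116.Sg332
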