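import Crest.Agent.R116.SgO4_704

/-!
# R116 (K side, LEMMA SIG), resonant `σ` (helper439): positions inside a joint group, any background

`PosB` : positions `v` such that the coordinates of the group `k` of `T v` are legal for SOME
background (it may depend on `v`).
* `lip_B`       : `v ↦ φ_k (T v)` is Lipschitz on `D ⊆ PosB`
* `posB_ge`, `posB_le` : positions with `Σ_S G` at least / at most the mean increment
* **`incr_ge`, `incr_le`** (= `pair_int`): a bound of the rates at a.e. position ⊢ bound of increments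
* `incr_anti_k` : increments of the group function are antitone
-/

set_option autoImplicit false
set_option linter.unusedSectionVars false
set_option linter.unusedVariables false

open Set Filter Topology Metric MeasureTheory
open scoped NNReal

namespace Crest.Agent.R116.Sg439

open Crest.Agent.R136
open Crest.Agent.R138
open SgO219 (RateP dir_of_fderiv clm_eq_sum)
open SgO704 (lip_grp_704)
open Dg219 (Tn lf Cone Walls gset mem_gset OutS)
open Sg388 (ind exists_rateS)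

variable {ι W κ : Type*} [Fintype ι] [DecidableEq ι] [Fintype W] [DecidableEq κ]

/-- positions of the group `k` which are legal for some background -/
def PosB (Q : Walls ι W) (x0 a b : ι → ℝ) (grp : ι → κ) (k : κ) {d : ℕ}
    (T : (Fin d → ℝ) →L[ℝ] (ι → ℝ)) : Set (Fin d → ℝ) :=
  {v | ∃ c ∈ Q.L x0 a b, ∀ i, grp i = k → c i = T v i}

section

variable {Q : Walls ι W} {x0 a b : ι → ℝ} {grp : ι → κ}
  {dh : ι → ℝ} {n : κ → ℝ × ℝ} {A : ℝ × ℝ} {lam : (ι → ℝ) → ℝ} {φ : κ → (ι → ℝ) → ℝ} {r : κ → ℝ}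
  {d : ℕ} {T : (Fin d → ℝ) →L[ℝ] (ι → ℝ)} {D : Set (Fin d → ℝ)} {k : κ}

/-- the group function is Lipschitz in the position -/
theorem lip_B (H : OutS grp (Q.L x0 a b) dh n lam A φ r) (hD : D ⊆ PosB Q x0 a b grp k T) :
    LipschitzOnWith ⟨(Fintype.card ι : ℝ) * ‖T‖, by positivity⟩ (fun v => φ k (T v)) D := by
  refine LipschitzOnWith.of_dist_le_mul fun v hv v' hv' => ?_
  obtain ⟨c, hc, e⟩ := hD hv
  obtain ⟨c', hc', e'⟩ := hD hv'
  have h1 := lip_grp_704 H k hc hc' (M := ‖T‖ * ‖v - v'‖) (by positivity) fun i hi => by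
    rw [e i hi, e' i hi]
    have h2 : |T v i - T v' i| = ‖(T (v - v')) i‖ := by
      rw [map_sub, Pi.sub_apply, Real.norm_eq_abs]
    rw [h2]
    exact (norm_le_pi_norm _ i).trans (T.le_opNorm _)
  rw [H.loc k c (T v) e, H.loc k c' (T v') e'] at h1
  rw [Real.dist_eq, dist_eq_norm]
  refine h1.trans (le_of_eq ?_)
  show _ = (Fintype.card ι : ℝ) * ‖T‖ * ‖v - v'‖
  ring

/-- at a differentiability point the partial rates exist -/
theorem rateP_of (H : OutS grp (Q.L x0 a b) dh n lam A φ r) {v : Fin d → ℝ}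
    (hv : DifferentiableAt ℝ (fun v => φ k (T v)) v) :
    RateP (φ k) (T v) T fun i => -fderiv ℝ (fun v => φ k (T v)) v (Pi.single i 1) := by
  intro u
  have h1 := dir_of_fderiv hv u
  rw [clm_eq_sum (fderiv ℝ (fun v => φ k (T v)) v) u] at h1
  have e : -∑ i, -fderiv ℝ (fun v => φ k (T v)) v (Pi.single i 1) * u i =
      ∑ i, fderiv ℝ (fun v => φ k (T v)) v (Pi.single i 1) * u i := by
    rw [← Finset.sum_neg_distrib]
    exact Finset.sum_congr rfl fun i _ => by ring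
  rw [e]
  refine h1.congr fun t => ?_
  rw [map_add, map_smul]

/-- bounds of the partial rates -/
theorem rate_bounds (H : OutS grp (Q.L x0 a b) dh n lam A φ r) (hT : ∀ i l, 0 ≤ T (Pi.single i 1) l)
    (hDo : IsOpen D) (hD : D ⊆ PosB Q x0 a b grp k T) {v : Fin d → ℝ} (hv : v ∈ D)
    {G : Fin d → ℝ} (hG : RateP (φ k) (T v) T G) (i : Fin d) :
    0 ≤ G i ∧ G i ≤ ∑ l ∈ Finset.univ.filter (fun l => grp l = k), T (Pi.single i 1) l := by
  have h0 := hG (Pi.single i 1)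
  have e0 : -∑ j, G j * (Pi.single i (1:ℝ) : Fin d → ℝ) j = -G i := by
    congr 1
    rw [Finset.sum_eq_single i]
    · rw [Pi.single_eq_same, mul_one]
    · intro j _ hj
      rw [Pi.single_eq_of_ne hj, mul_zero]
    · intro h; exact absurd (Finset.mem_univ i) h
  rw [e0] at h0
  have hc : Tendsto (fun t : ℝ => v + t • (Pi.single i (1:ℝ) : Fin d → ℝ)) (𝓝[>] 0) (𝓝 v) := by
    have : Continuous fun t : ℝ => v + t • (Pi.single i (1:ℝ) : Fin d → ℝ) := by fun_prop
    have h1 := (this.tendsto 0).mono_left (nhdsWithin_le_nhds (s := Ioi 0))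
    simpa using h1
  have hb : ∀ᶠ t : ℝ in 𝓝[>] 0,
      (φ k (T v + t • T (Pi.single i 1)) - φ k (T v)) / t ≤ 0 ∧
      -∑ l ∈ Finset.univ.filter (fun l => grp l = k), T (Pi.single i 1) l ≤
        (φ k (T v + t • T (Pi.single i 1)) - φ k (T v)) / t := by
    filter_upwards [self_mem_nhdsWithin, hc.eventually (hDo.mem_nhds hv)] with t ht htD
    have ht' : (0:ℝ) < t := ht
    obtain ⟨c, hc, e⟩ := hD hv
    obtain ⟨c', hc', e'⟩ := hD htD
    have e2 : ∀ l, T (v + t • (Pi.single i (1:ℝ) : Fin d → ℝ)) l =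
        T v l + t * T (Pi.single i 1) l := fun l => by
      rw [map_add, map_smul, Pi.add_apply, Pi.smul_apply, smul_eq_mul]
    have h1 := H.mono k c hc c' hc' fun l hl => by
      rw [e l hl, e' l hl, e2]
      have := mul_nonneg ht'.le (hT i l)
      linarith
    have h3 : ∑ l ∈ Finset.univ.filter (fun l => grp l = k), (c' l - c l) =
        t * ∑ l ∈ Finset.univ.filter (fun l => grp l = k), T (Pi.single i 1) l := by
      rw [Finset.mul_sum]
      refine Finset.sum_congr rfl fun l hl => ?_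
      have hl' := (Finset.mem_filter.1 hl).2
      rw [e l hl', e' l hl', e2]; ring
    rw [h3, H.loc k c (T v) e, H.loc k c' _ e', map_add, map_smul] at h1
    constructor
    · rw [div_le_iff₀ ht']; linarith [h1.1]
    · rw [le_div_iff₀ ht']; linarith [h1.2]
  have a1 := le_of_tendsto h0 (hb.mono fun _ h => h.1)
  have a2 := ge_of_tendsto h0 (hb.mono fun _ h => h.2)
  exact ⟨by linarith, by linarith⟩

/-- **position with large rates**, any background -/
theorem posB_ge (H : OutS grp (Q.L x0 a b) dh n lam A φ r)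
    (hT : ∀ i l, 0 ≤ T (Pi.single i 1) l) (hDo : IsOpen D) (hD : D ⊆ PosB Q x0 a b grp k T)
    {p : Fin d → ℝ} {S : Finset (Fin d)} {y q δ η : ℝ} (hy : 0 < y) (hη : 0 < η)
    (hB : ∀ t ∈ Icc 0 y, Metric.ball (p + ind S t) η ⊆ D)
    (hq : q * y ≤ φ k (T p) - φ k (T (p + ind S y))) (hδ : 0 < δ)
    {N : Set (Fin d → ℝ)} (hN : ∀ᵐ v, v ∈ N) :
    ∃ v ∈ N, v ∈ D ∧ (∃ t ∈ Ioo 0 y, ‖v - (p + ind S t)‖ < η) ∧ ∃ G : Fin d → ℝ,
      (∀ i, 0 ≤ G i) ∧
      (∀ i, G i ≤ ∑ l ∈ Finset.univ.filter (fun l => grp l = k), T (Pi.single i 1) l) ∧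
      q - δ ≤ ∑ i ∈ S, G i ∧ RateP (φ k) (T v) T G := by
  have hlip := (lip_B H hD).neg
  obtain ⟨v, hvN, hvD, hvt, hvd, hvq⟩ := exists_rateS hlip hy hη hB (a := q)
    (by simp only [Pi.neg_apply]; linarith) hδ hN
  have hvd' : DifferentiableAt ℝ (fun v => φ k (T v)) v := by
    have := hvd.neg
    rwa [neg_neg] at this
  have hG := rateP_of H hvd'
  refine ⟨v, hvN, hvD, hvt, _, fun i => (rate_bounds H hT hDo hD hvD hG i).1,
    fun i => (rate_bounds H hT hDo hD hvD hG i).2, ?_, hG⟩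
  refine hvq.trans (le_of_eq (Finset.sum_congr rfl fun i _ => ?_))
  rw [fderiv_neg]
  rfl

/-- **position with small rates**, any background -/
theorem posB_le (H : OutS grp (Q.L x0 a b) dh n lam A φ r)
    (hT : ∀ i l, 0 ≤ T (Pi.single i 1) l) (hDo : IsOpen D) (hD : D ⊆ PosB Q x0 a b grp k T)
    {p : Fin d → ℝ} {S : Finset (Fin d)} {y q δ η : ℝ} (hy : 0 < y) (hη : 0 < η)
    (hB : ∀ t ∈ Icc 0 y, Metric.ball (p + ind S t) η ⊆ D)
    (hq : φ k (T p) - φ k (T (p + ind S y)) ≤ q * y) (hδ : 0 < δ)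
    {N : Set (Fin d → ℝ)} (hN : ∀ᵐ v, v ∈ N) :
    ∃ v ∈ N, v ∈ D ∧ (∃ t ∈ Ioo 0 y, ‖v - (p + ind S t)‖ < η) ∧ ∃ G : Fin d → ℝ,
      (∀ i, 0 ≤ G i) ∧
      (∀ i, G i ≤ ∑ l ∈ Finset.univ.filter (fun l => grp l = k), T (Pi.single i 1) l) ∧
      ∑ i ∈ S, G i ≤ q + δ ∧ RateP (φ k) (T v) T G := by
  obtain ⟨v, hvN, hvD, hvt, hvd, hvq⟩ := exists_rateS (lip_B H hD) hy hη hB (a := -q)
    (by linarith) hδ hN
  have hG := rateP_of H hvd
  refine ⟨v, hvN, hvD, hvt, _, fun i => (rate_bounds H hT hDo hD hvD hG i).1,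
    fun i => (rate_bounds H hT hDo hD hvD hG i).2, ?_, hG⟩
  rw [Finset.sum_neg_distrib]
  linarith

/-- **PAIR_INT, lower bound**: rates `≥ q` at a.e. position of `D` ⊢ increment `≥ q y`. -/
theorem incr_ge (H : OutS grp (Q.L x0 a b) dh n lam A φ r)
    (hT : ∀ i l, 0 ≤ T (Pi.single i 1) l) (hDo : IsOpen D) (hD : D ⊆ PosB Q x0 a b grp k T)
    {p : Fin d → ℝ} {S : Finset (Fin d)} {y q η : ℝ} (hy : 0 < y) (hη : 0 < η)
    (hB : ∀ t ∈ Icc 0 y, Metric.ball (p + ind S t) η ⊆ D)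
    (hF : ∀ᵐ v : Fin d → ℝ, v ∈ D → ∀ G : Fin d → ℝ, (∀ i, 0 ≤ G i) →
      RateP (φ k) (T v) T G → q ≤ ∑ i ∈ S, G i) :
    q * y ≤ φ k (T p) - φ k (T (p + ind S y)) := by
  by_contra hcon
  push Not at hcon
  set E : ℝ := φ k (T p) - φ k (T (p + ind S y)) with hE
  have hE' : E / y < q := by rw [div_lt_iff₀ hy]; exact hcon
  obtain ⟨v, hvN, hvD, -, G, g0, -, g2, g3⟩ := posB_le H hT hDo hD hy hη hB (q := E / y)
    (δ := (q - E / y) / 2) (by rw [div_mul_cancel₀ _ hy.ne']) (by linarith) hF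
  have := hvN hvD G g0 g3
  linarith

/-- **PAIR_INT, upper bound**: rates `≤ q` at a.e. position of `D` ⊢ increment `≤ q y`. -/
theorem incr_le (H : OutS grp (Q.L x0 a b) dh n lam A φ r)
    (hT : ∀ i l, 0 ≤ T (Pi.single i 1) l) (hDo : IsOpen D) (hD : D ⊆ PosB Q x0 a b grp k T)
    {p : Fin d → ℝ} {S : Finset (Fin d)} {y q η : ℝ} (hy : 0 < y) (hη : 0 < η)
    (hB : ∀ t ∈ Icc 0 y, Metric.ball (p + ind S t) η ⊆ D)
    (hF : ∀ᵐ v : Fin d → ℝ, v ∈ D → ∀ G : Fin d → ℝ, (∀ i, 0 ≤ G i) →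
      RateP (φ k) (T v) T G → ∑ i ∈ S, G i ≤ q) :
    φ k (T p) - φ k (T (p + ind S y)) ≤ q * y := by
  by_contra hcon
  push Not at hcon
  set E : ℝ := φ k (T p) - φ k (T (p + ind S y)) with hE
  have hE' : q < E / y := by rw [lt_div_iff₀ hy]; exact hcon
  obtain ⟨v, hvN, hvD, -, G, g0, -, g2, g3⟩ := posB_ge H hT hDo hD hy hη hB (q := E / y)
    (δ := (E / y - q) / 2) (by rw [div_mul_cancel₀ _ hy.ne']) (by linarith) hF
  have := hvN hvD G g0 g3
  linarith

/-- increments of a group function are antitone: `c ≤ c'` with equal coordinates on `S`, all four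
corners legal. -/
theorem incr_anti_k (H : OutS grp (Q.L x0 a b) dh n lam A φ r) {c c' e : ι → ℝ} (hcc : c ≤ c')
    (he : 0 ≤ e) (hdis : ∀ i, e i = 0 ∨ c i = c' i) (h1 : c + e ∈ Q.L x0 a b) (h2 : c ∈ Q.L x0 a b)
    (h3 : c' ∈ Q.L x0 a b) (h4 : c' + e ∈ Q.L x0 a b) :
    φ k c' - φ k (c' + e) ≤ φ k c - φ k (c + e) := by
  have e1 : (c + e) ⊓ c' = c := by
    funext i
    rw [Pi.inf_apply, Pi.add_apply]
    rcases hdis i with h | h
    · rw [h, add_zero]; exact inf_eq_left.2 (hcc i)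
    · rw [h]
      have := he i
      simp only [Pi.zero_apply] at this
      exact inf_eq_right.2 (by linarith)
  have e2 : (c + e) ⊔ c' = c' + e := by
    funext i
    rw [Pi.sup_apply, Pi.add_apply, Pi.add_apply]
    rcases hdis i with h | h
    · rw [h, add_zero, add_zero]; exact sup_eq_right.2 (hcc i)
    · rw [h]
      have := he i
      simp only [Pi.zero_apply] at this
      exact sup_eq_left.2 (by linarith)
  have := H.smod k (c + e) h1 c' h3 (by rw [e1]; exact h2) (by rw [e2]; exact h4)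
  rw [e1, e2] at this
  linarith

end

end Crest.Agent.R116.Sg439
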