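import Crest.Agent.R116.Sg3b_665

/-!
# R116 (K side, LEMMA SIG, generic `σ`), junction 3 (helper665; doc 2383 of 194)

* `SigD` : data of the tangent at the point `z0` of the plane `Σ`
* `facts_gen` : the seven implications at a position of the group `0`
* `posn` : positions for `{C}`, `{C, P}`, `{P, E, B}`
* **`sig_false`** : three increments + total rate + `LinFacts` ⊢ `False`
-/

set_option autoImplicit false
set_option linter.unusedVariables false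
set_option linter.unusedSectionVars false

open Set Filter Topology Metric

namespace Crest.Agent.R116.SgF665

open Crest.Agent.R136
open Crest.Agent.R138
open Crest.Agent.R136.Net191
open Crest.Agent.R116.ChL222
open Crest.Agent.R116.Sg337 (bx9)
open Dg219 (Walls gset mem_gset OutS gC dhC nC gC_zero gC_eq)
open SgO219 (LT L_sub_LT OutL exists_lin RateP exists_pos)
open Sg388 (ind)

/-- data of the tangent at the point `z0` of the plane `Σ` -/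
structure SigD {W J : Type*} [Fintype W] (Q : Walls (Fin 12) W) (P : Set (Fin 12 → ℝ))
    (x0 a b : Fin 12 → ℝ) (f lam : J → (Fin 12 → ℝ) → ℝ) (j0 : J) (x : ℕ → Fin 12 → ℝ)
    (h sc : ℕ → ℝ) (A : ℝ × ℝ) (φ : ℕ → (Fin 12 → ℝ) → ℝ) (r : ℕ → ℝ)
    (Bs : (ℕ → Fin 12 → ℝ) → (ℕ → ℝ) → Prop) (s : ℝ) : Prop where
  hpos : ∀ l, 0 < h l
  h0 : Tendsto h atTop (𝓝 0)
  hQ : Q.L x0 a b = LM0
  hx : ∀ l, ∀ k, ∀ e ∈ monL.mon k, e 1 = 0 → x l k = wl e (x l)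
  hxD : ∀ k, ∀ e ∈ monL.mon k, e 1 ≠ 0 → ∀ K : ℝ, ∀ᶠ l in atTop, x l k + K * h l ≤ wl e (x l)
  ht : ∀ j, Ex926.IsTan P (Q.L x0 a b) (f j) x h (lam j)
  hlip : ∃ K : ℝ, 0 ≤ K ∧ ∀ j, ∀ p ∈ Q.L x0 a b, ∀ q ∈ Q.L x0 a b,
    |lam j p - lam j q| ≤ K * ‖p - q‖
  H : OutS (gC a b) (Q.L x0 a b) (dhC a b) (nC a b) (lam j0) A φ r
  facts : LinFacts P f j0 Bs s
  spos : ∀ m, 0 < sc m
  s0 : Tendsto sc atTop (𝓝 0)
  hBs : ∀ c0 ∈ LM0, c0 3 = c0 4 → c0 5 = c0 6 → c0 7 = c0 8 → ∀ ψ θ : ℕ → ℕ,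
    StrictMono ψ → StrictMono θ →
    Bs (fun m => x (ψ m) + h (ψ m) • c0) (fun m => h (ψ m) * sc (θ m))

/-- the equalities of a natural base -/
theorem nat_eqs {p : Fin 12 → ℝ} (hx : ∀ k, ∀ e ∈ monL.mon k, e 1 = 0 → p k = wl e p) :
    p 5 = p 0 + p 3 ∧ p 6 = p 0 + p 4 ∧ p 9 = p 3 + p 5 ∧ p 9 = p 4 + p 6 ∧ p 11 = p 0 + p 10 ∧
      p 11 = p 7 + p 5 ∧ p 11 = p 8 + p 6 ∧ p 11 = p 2 + p 9 := by
  have g : ∀ (k : Fin 12) (e : Fin 12 → ℕ), e ∈ mfL k → e 1 = 0 → p k = wl e p := hx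
  have a1 := g 5 ![1, 0, 0, 1, 0, 0, 0, 0, 0, 0, 0, 0] (by decide) rfl
  have a2 := g 6 ![1, 0, 0, 0, 1, 0, 0, 0, 0, 0, 0, 0] (by decide) rfl
  have b3 := g 9 ![0, 0, 0, 1, 0, 1, 0, 0, 0, 0, 0, 0] (by decide) rfl
  have b4 := g 9 ![0, 0, 0, 0, 1, 0, 1, 0, 0, 0, 0, 0] (by decide) rfl
  have d1 := g 11 ![1, 0, 0, 0, 0, 0, 0, 0, 0, 0, 1, 0] (by decide) rfl
  have d2 := g 11 ![0, 0, 0, 0, 0, 1, 0, 1, 0, 0, 0, 0] (by decide) rfl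
  have d3 := g 11 ![0, 0, 0, 0, 0, 0, 1, 0, 1, 0, 0, 0] (by decide) rfl
  have d6 := g 11 ![0, 0, 1, 0, 0, 0, 0, 0, 0, 1, 0, 0] (by decide) rfl
  simp [wl, Fin.sum_univ_succ] at a1 a2 b3 b4 d1 d2 d3 d6
  refine ⟨a1, a2, b3, b4, d1, ?_, ?_, d6⟩ <;> linarith

section

variable {W J : Type*} [Fintype W] [Finite J] {Q : Walls (Fin 12) W} {P : Set (Fin 12 → ℝ)}
  {x0 a b : Fin 12 → ℝ} {f lam : J → (Fin 12 → ℝ) → ℝ} {j0 : J} {x : ℕ → Fin 12 → ℝ} {h sc : ℕ → ℝ}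
  {A : ℝ × ℝ} {φ : ℕ → (Fin 12 → ℝ) → ℝ} {r : ℕ → ℝ}
  {Bs : (ℕ → Fin 12 → ℝ) → (ℕ → ℝ) → Prop} {s : ℝ}

/-- **a linear tangent of the facts at an offset** -/
theorem SigD.tan (D : SigD Q P x0 a b f lam j0 x h sc A φ r Bs s) {c0 : Fin 12 → ℝ}
    (hc0 : c0 ∈ LM0) (p3 : c0 3 = c0 4) (p5 : c0 5 = c0 6) (p7 : c0 7 = c0 8)
    {rz rX rH rF gC gP gE gB : ℝ}
    (hdir : ∀ z C p E B x H F : ℝ, bx9 z 0 E C x B H p F ∈ LM0 →
      Tendsto (fun t : ℝ => (lam j0 (c0 + t • bx9 z 0 E C x B H p F) - lam j0 c0) / t) (𝓝[>] 0)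
        (𝓝 (-(rz * z + rX * x + rH * H + rF * F + gC * C + gP * p + gE * E + gB * B)))) :
    ∃ (X : ℕ → Fin 12 → ℝ) (u : ℕ → ℝ), Bs X u ∧ LinTan P f j0 X u rz rX rH rF gC gP gE gB ∧
      (c0 5 = c0 0 + c0 3 → ∀ n, X n 5 = X n 0 + X n 3) ∧
      (c0 6 = c0 0 + c0 4 → ∀ n, X n 6 = X n 0 + X n 4) ∧
      (c0 9 = c0 3 + c0 5 → ∀ n, X n 9 = X n 3 + X n 5) ∧
      (c0 9 = c0 4 + c0 6 → ∀ n, X n 9 = X n 4 + X n 6) ∧
      (c0 11 = c0 0 + c0 10 → ∀ n, X n 11 = X n 0 + X n 10) ∧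
      (c0 11 = c0 7 + c0 5 → ∀ n, X n 11 = X n 7 + X n 5) ∧
      (c0 11 = c0 8 + c0 6 → ∀ n, X n 11 = X n 8 + X n 6) ∧
      (c0 11 = c0 2 + c0 9 → ∀ n, X n 11 = X n 2 + X n 9) := by
  obtain ⟨K, hK, hlip⟩ := D.hlip
  obtain ⟨ψ, θ, hψ, hθ, hl⟩ := lin_at (s := sc) hK D.hpos D.h0 D.hQ D.hx
    D.hxD D.ht hlip D.H hc0 D.spos D.s0 hdir
  refine ⟨_, _, D.hBs c0 hc0 p3 p5 p7 ψ θ hψ hθ, hl, ?_⟩
  refine ⟨fun hc n => ?_, fun hc n => ?_, fun hc n => ?_, fun hc n => ?_, fun hc n => ?_,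
    fun hc n => ?_, fun hc n => ?_, fun hc n => ?_⟩ <;>
  · obtain ⟨e1, e2, e3, e4, e5, e6, e7, e8⟩ := nat_eqs (D.hx (ψ n))
    simp only [Pi.add_apply, Pi.smul_apply, smul_eq_mul]
    rw [hc]
    linarith

/-- **the seven implications at a position of the group `0`** -/
theorem facts_gen (D : SigD Q P x0 a b f lam j0 x h sc A φ r Bs s) (G : Gen a b) {C p E B : ℝ}
    (h1 : B < E + C) (h2 : p < B + C) {g : Fin 4 → ℝ} {β : Fin 12 → ℝ}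
    (hβ : ∀ i, gC a b i = 0 → β i = bx9 0 0 E C 0 B 0 p 0 i) (hR : RateP (φ 0) β T4 g) :
    ((0 < g 0 → 1 - s ≤ r (gC a b 5)) ∧ (s < g 0 → 1 ≤ r (gC a b 5))) ∧
    (0 < g 0 → r (gC a b 5) ≤ r (gC a b 9)) ∧
    ((0 < g 1 → 1 - s ≤ r (gC a b 11)) ∧ (s < g 1 → 1 ≤ r (gC a b 11))) ∧
    (0 < g 3 → r (gC a b 5) ≤ r (gC a b 11)) ∧ (0 < g 2 → r (gC a b 9) ≤ r (gC a b 11)) := by
  have hi : ∀ i, gC a b i = 0 → (i = 1 ∨ i = 2 ∨ i = 3 ∨ i = 4 ∨ i = 7 ∨ i = 8 ∨ i = 10) := by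
    intro i hi
    rcases G.cases i with h | h | h | h | h
    · exact h.2
    · exact absurd hi (G.pos (by rw [h]; decide))
    · exact absurd hi (G.pos (by rcases h with h | h <;> rw [h] <;> decide))
    · exact absurd hi (G.pos (by rw [h]; decide))
    · exact absurd hi (G.pos (by rw [h]; decide))
  have hR' : ∀ z x' H' F : ℝ, RateP (φ 0) (bx9 z 0 E C x' B H' p F) T4 g := by
    intro z x' H' F
    refine RateP.transfer D.H hR fun i hi0 => ?_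
    rw [hβ i hi0]
    rcases hi i hi0 with h | h | h | h | h | h | h <;> subst h <;> simp [bx9]
  have m1 : bx9 0 0 E C C B (2 * C) p p ∈ LM0 := bx9_mem.2
    ⟨by linarith, h1.le, by linarith, h2.le, by linarith, h2.le, by linarith⟩
  have m2 : bx9 (B + C - p) 0 E C C B (2 * C) p (B + C) ∈ LM0 := bx9_mem.2
    ⟨by linarith, h1.le, by linarith, h2.le, by linarith, by linarith, by linarith⟩
  have m3 : bx9 (B + C - p) 0 E C C B (B + C - E) p (B + C) ∈ LM0 := bx9_mem.2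
    ⟨by linarith, h1.le, by linarith, h2.le, by linarith, by linarith, by linarith⟩
  obtain ⟨X, u, hb, hl, t1, t2, t3, t4, t5, -, -, -⟩ := D.tan (rz := r (gC a b 0))
    (rX := r (gC a b 5)) (rH := r (gC a b 9)) (rF := r (gC a b 11)) (gC := g 0) (gP := g 1)
    (gE := g 2) (gB := g 3) m1 (by simp [bx9]) (by simp [bx9]) (by simp [bx9]) 
      fun z' C' p' E' B' x'' H'' F' hc => dir_gen G D.hQ D.H m1 (hR' _ _ _ _) hc
  obtain ⟨X', u', hb', hl', -, -, -, -, -, t6', t7', -⟩ := D.tan (rz := r (gC a b 0))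
    (rX := r (gC a b 5)) (rH := r (gC a b 9)) (rF := r (gC a b 11)) (gC := g 0) (gP := g 1)
    (gE := g 2) (gB := g 3) m2 (by simp [bx9]) (by simp [bx9]) (by simp [bx9]) 
      fun z' C' p' E' B' x'' H'' F' hc => dir_gen G D.hQ D.H m2 (hR' _ _ _ _) hc
  obtain ⟨X'', u'', hb'', hl'', -, -, -, -, -, -, -, t8''⟩ := D.tan (rz := r (gC a b 0))
    (rX := r (gC a b 5)) (rH := r (gC a b 9)) (rF := r (gC a b 11)) (gC := g 0) (gP := g 1)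
    (gE := g 2) (gB := g 3) m3 (by simp [bx9]) (by simp [bx9]) (by simp [bx9]) 
      fun z' C' p' E' B' x'' H'' F' hc => dir_gen G D.hQ D.H m3 (hR' _ _ _ _) hc
  refine ⟨D.facts.K1 _ _ _ _ _ _ _ _ _ _ hb hl (t1 ?_) (t2 ?_),
    D.facts.H1 _ _ _ _ _ _ _ _ _ _ hb hl (t3 ?_) (t4 ?_),
    D.facts.K2 _ _ _ _ _ _ _ _ _ _ hb hl (t5 ?_),
    D.facts.S1 _ _ _ _ _ _ _ _ _ _ hb' hl' (t6' ?_) (t7' ?_),
    D.facts.S2 _ _ _ _ _ _ _ _ _ _ hb'' hl'' (t8'' ?_)⟩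
  · change C = 0 + C; ring
  · change C = 0 + C; ring
  · change 2 * C = C + C; ring
  · change 2 * C = C + C; ring
  · change p = 0 + p; ring
  · change B + C = B + C; rfl
  · change B + C = B + C; rfl
  · change B + C = E + (B + C - E); ring

end

end Crest.Agent.R116.SgF665
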