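import Crest.Agent.R116.Sg3g_665

/-!
# R116 (K side, LEMMA SIG, generic `σ`), junction 3 (helper665; doc 2383 of 194)

* `SigD` : data of the tangent at the point `z0` of the plane `Σ`
* `facts_gen` : the seven implications at a position of the group `0`
* `posn` : positions for `{C}`, `{C, P}`, `{P, E, B}`
* **`sig_false`** : three increments + total rate + `LinFacts` ⊢ `False`
-/

set_option autoImplicit false
set_option linter.unusedVariables false
set_option linter.unusedSectionVars false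

open Set Filter Topology Metric

namespace Crest.Agent.R116.SgF665

open Crest.Agent.R136
open Crest.Agent.R138
open Crest.Agent.R136.Net191
open Crest.Agent.R116.ChL222
open Crest.Agent.R116.Sg337 (bx9)
open Dg219 (Walls gset mem_gset OutS gC dhC nC gC_zero gC_eq)
open SgO219 (LT L_sub_LT OutL exists_lin RateP exists_pos)
open Sg388 (ind)

section

variable {W J : Type*} [Fintype W] [Finite J] {Q : Walls (Fin 12) W} {P : Set (Fin 12 → ℝ)}
  {x0 a b : Fin 12 → ℝ} {f lam : J → (Fin 12 → ℝ) → ℝ} {j0 : J} {x : ℕ → Fin 12 → ℝ} {h sc : ℕ → ℝ}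
  {A : ℝ × ℝ} {φ : ℕ → (Fin 12 → ℝ) → ℝ} {r : ℕ → ℝ}
  {Bs : (ℕ → Fin 12 → ℝ) → (ℕ → ℝ) → Prop} {s : ℝ}

theorem T4_norm (v : Fin 4 → ℝ) : ‖T4 v‖ ≤ ‖v‖ := by
  rw [pi_norm_le_iff_of_nonneg (norm_nonneg _)]
  intro i
  rw [T4_apply]
  have h := norm_le_pi_norm v
  have h0 := norm_nonneg v
  fin_cases i <;> simp [bx9] <;> first | exact h _ | exact h0 | (simpa using h _)

theorem T4_zero_of (G : Gen a b) {k : ℕ} (hk : k ≠ 0) (v : Fin 4 → ℝ) (i : Fin 12)
    (hi : gC a b i = k) : T4 v i = 0 := by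
  rcases G.cases i with h | h | h | h | h
  · exact absurd (hi.symm.trans h.1) hk
  · subst h; rw [T4_apply]; simp [bx9]
  · rcases h with h | h <;> subst h <;> rw [T4_apply] <;> simp [bx9]
  · subst h; rw [T4_apply]; simp [bx9]
  · subst h; rw [T4_apply]; simp [bx9]

/-- the group function of the group `0` on the moves -/
theorem lam_T4 (H : OutS (gC a b) (Q.L x0 a b) (dhC a b) (nC a b) (lam j0) A φ r) (G : Gen a b)
    {v : Fin 4 → ℝ} (hv : T4 v ∈ Q.L x0 a b) : lam j0 (T4 v) = φ 0 (T4 v) := by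
  rw [H.sum _ hv, G.sum_eq,
    H.zero (gC a b 0) _ (T4_zero_of G (G.pos (by decide)) v),
    H.zero (gC a b 5) _ (T4_zero_of G (G.pos (by decide)) v),
    H.zero (gC a b 9) _ (T4_zero_of G (G.pos (by decide)) v),
    H.zero (gC a b 11) _ (T4_zero_of G (G.pos (by decide)) v)]
  ring

/-- **positions** -/
theorem posn (H : OutS (gC a b) (Q.L x0 a b) (dhC a b) (nC a b) (lam j0) A φ r) (G : Gen a b)
    (hQ : Q.L x0 a b = LM0) {S : Finset (Fin 4)} (hS : S = {0} ∨ S = {0, 1} ∨ S = {1, 2, 3})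
    {q δ : ℝ} (hq : q ≤ -lam j0 (T4 (ind S 1))) (hδ : 0 < δ) :
    ∃ v : Fin 4 → ℝ, v 3 < v 2 + v 0 ∧ v 1 < v 3 + v 0 ∧ ∃ (g : Fin 4 → ℝ) (β : Fin 12 → ℝ),
      (∀ i, gC a b i = 0 → β i = bx9 0 0 (v 2) (v 0) 0 (v 3) 0 (v 1) 0 i) ∧
      RateP (φ 0) β T4 g ∧ (∀ i, 0 ≤ g i) ∧ q - δ ≤ ∑ i ∈ S, g i := by
  set ε : ℝ := min 1 (δ / 100) with hε
  have ε0 : 0 < ε := lt_min one_pos (by positivity)
  have ε1 : ε ≤ 1 := min_le_left _ _
  have ε2 : ε ≤ δ / 100 := min_le_right _ _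
  set p : Fin 4 → ℝ := ![ε, 0, 0, 0] with hp
  set β : Fin 12 → ℝ := bx9 20 0 0 0 0 0 (-20) 0 (-60) with hβ
  set D : Set (Fin 4 → ℝ) := {v | (∀ i, |v i| < 4) ∧ v 3 < v 2 + v 0 ∧ v 1 < v 3 + v 0} with hD
  have hDo : IsOpen D := by
    have e : D = (⋂ i, {v : Fin 4 → ℝ | |v i| < 4}) ∩ ({v | v 3 < v 2 + v 0} ∩
      {v | v 1 < v 3 + v 0}) := by
      ext v; simp [hD]
    rw [e]
    refine (isOpen_iInter_of_finite fun i => isOpen_lt (by fun_prop) continuous_const).inter
      ((isOpen_lt (by fun_prop) (by fun_prop)).inter (isOpen_lt (by fun_prop) (by fun_prop)))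
  have hβT : ∀ v : Fin 4 → ℝ, β + T4 v = bx9 20 0 (v 2) (v 0) 0 (v 3) (-20) (v 1) (-60) := by
    intro v
    rw [T4_apply]
    funext k
    fin_cases k <;> simp [hβ, bx9]
  have hDL : ∀ v ∈ D, β + T4 v ∈ Q.L x0 a b := by
    intro v hv
    obtain ⟨h1, h2, h3⟩ := hv
    have a0 := abs_lt.1 (h1 0)
    have a1 := abs_lt.1 (h1 1)
    have a2 := abs_lt.1 (h1 2)
    have a3 := abs_lt.1 (h1 3)
    rw [hQ, hβT, bx9_mem]
    refine ⟨by linarith, h2.le, by linarith, h3.le, by linarith, by linarith, by linarith⟩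
  have hT : ∀ (i : Fin 4) (l : Fin 12), 0 ≤ T4 (Pi.single i 1) l := by
    intro i l
    rw [T4_apply]
    fin_cases i <;> fin_cases l <;> simp [bx9, Pi.single_apply]
  have hβ0 : ∀ i, gC a b i = 0 → β i = 0 := by
    intro i hi
    rcases G.cases i with h | h | h | h | h
    · rcases h.2 with h | h | h | h | h | h | h <;> subst h <;> simp [hβ, bx9]
    · exact absurd hi (G.pos (by rw [h]; decide))
    · exact absurd hi (G.pos (by rcases h with h | h <;> rw [h] <;> decide))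
    · exact absurd hi (G.pos (by rw [h]; decide))
    · exact absurd hi (G.pos (by rw [h]; decide))
  have hloc : ∀ v : Fin 4 → ℝ, φ 0 (β + T4 v) = φ 0 (T4 v) := fun v =>
    H.loc 0 _ _ fun i hi => by rw [Pi.add_apply, hβ0 i hi, zero_add]
  have hcoord : ∀ t ∈ Icc (0:ℝ) 1, ∀ v : Fin 4 → ℝ, v ∈ ball (p + ind S t) (ε / 4) → ∀ i,
      |v i - (p i + ind S t i)| < ε / 4 := by
    intro t ht v hv i
    have h1 := norm_le_pi_norm (v - (p + ind S t)) i
    rw [Real.norm_eq_abs, Pi.sub_apply, Pi.add_apply] at h1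
    exact h1.trans_lt (by rwa [mem_ball, dist_eq_norm] at hv)
  have hball : ∀ t ∈ Icc (0:ℝ) 1, ball (p + ind S t) (ε / 4) ⊆ D := by
    intro t ht v hv
    have h1 := hcoord t ht v hv
    have p0 : p 0 = ε := rfl
    have p1 : p 1 = 0 := rfl
    have p2 : p 2 = 0 := rfl
    have p3 : p 3 = 0 := rfl
    have c0 := abs_lt.1 (h1 0)
    have c1 := abs_lt.1 (h1 1)
    have c2 := abs_lt.1 (h1 2)
    have c3 := abs_lt.1 (h1 3)
    rw [p0] at c0; rw [p1] at c1; rw [p2] at c2; rw [p3] at c3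
    have ht0 := ht.1
    have ht1 := ht.2
    rcases hS with h | h | h
    · have i0 : ind S t 0 = t := by simp [ind, h]
      have i1 : ind S t 1 = 0 := by simp [ind, h]
      have i2 : ind S t 2 = 0 := by simp [ind, h]
      have i3 : ind S t 3 = 0 := by simp [ind, h]
      rw [i0] at c0; rw [i1] at c1; rw [i2] at c2; rw [i3] at c3
      refine ⟨fun i => ?_, by linarith, by linarith⟩
      rw [abs_lt]
      fin_cases i
      · exact ⟨by change -4 < v 0; linarith, by change v 0 < 4; linarith⟩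
      · exact ⟨by change -4 < v 1; linarith, by change v 1 < 4; linarith⟩
      · exact ⟨by change -4 < v 2; linarith, by change v 2 < 4; linarith⟩
      · exact ⟨by change -4 < v 3; linarith, by change v 3 < 4; linarith⟩
    · have i0 : ind S t 0 = t := by simp [ind, h]
      have i1 : ind S t 1 = t := by simp [ind, h]
      have i2 : ind S t 2 = 0 := by simp [ind, h]
      have i3 : ind S t 3 = 0 := by simp [ind, h]
      rw [i0] at c0; rw [i1] at c1; rw [i2] at c2; rw [i3] at c3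
      refine ⟨fun i => ?_, by linarith, by linarith⟩
      rw [abs_lt]
      fin_cases i
      · exact ⟨by change -4 < v 0; linarith, by change v 0 < 4; linarith⟩
      · exact ⟨by change -4 < v 1; linarith, by change v 1 < 4; linarith⟩
      · exact ⟨by change -4 < v 2; linarith, by change v 2 < 4; linarith⟩
      · exact ⟨by change -4 < v 3; linarith, by change v 3 < 4; linarith⟩
    · have i0 : ind S t 0 = 0 := by simp [ind, h]
      have i1 : ind S t 1 = t := by simp [ind, h]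
      have i2 : ind S t 2 = t := by simp [ind, h]
      have i3 : ind S t 3 = t := by simp [ind, h]
      rw [i0] at c0; rw [i1] at c1; rw [i2] at c2; rw [i3] at c3
      refine ⟨fun i => ?_, by linarith, by linarith⟩
      rw [abs_lt]
      fin_cases i
      · exact ⟨by change -4 < v 0; linarith, by change v 0 < 4; linarith⟩
      · exact ⟨by change -4 < v 1; linarith, by change v 1 < 4; linarith⟩
      · exact ⟨by change -4 < v 2; linarith, by change v 2 < 4; linarith⟩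
      · exact ⟨by change -4 < v 3; linarith, by change v 3 < 4; linarith⟩
  have hpn : ‖p‖ = ε := by
    apply le_antisymm
    · rw [pi_norm_le_iff_of_nonneg ε0.le]
      intro i
      fin_cases i <;> simp [hp, abs_of_pos ε0, ε0.le]
    · have := norm_le_pi_norm p 0
      have e : ‖p 0‖ = ε := by
        change ‖ε‖ = ε
        rw [Real.norm_eq_abs, abs_of_pos ε0]
      rwa [e] at this
  have m0 : T4 (0 : Fin 4 → ℝ) ∈ Q.L x0 a b := by
    rw [map_zero, hQ]
    intro k e he h1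
    simp [wl]
  have m1 : T4 p ∈ Q.L x0 a b := by
    rw [hQ, T4_apply, bx9_mem]
    change (0:ℝ) ≤ 0 + ε ∧ (0:ℝ) ≤ 0 + ε ∧ (0:ℝ) ≤ ε + 0 ∧ (0:ℝ) ≤ 0 + ε ∧ (0:ℝ) ≤ 0 + 0 ∧
      (0:ℝ) ≤ 0 + 0 ∧ (0:ℝ) ≤ 0 + 0
    refine ⟨?_, ?_, ?_, ?_, ?_, ?_, ?_⟩ <;> linarith
  have m2 : T4 (ind S 1) ∈ Q.L x0 a b := by
    rw [hQ, T4_apply, bx9_mem]
    rcases hS with h | h | h <;> subst h <;> simp [ind] <;> norm_num
  have m3 : T4 (p + ind S 1) ∈ Q.L x0 a b := by
    rw [map_add, hQ]
    rw [hQ] at m1 m2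
    exact LM0_add m1 m2
  have l1 := SgO219.OutS.lip_piece H 0 m1 m0
  have l2 := SgO219.OutS.lip_piece H 0 m3 m2
  have n1 : ‖T4 p - T4 (0 : Fin 4 → ℝ)‖ ≤ ε := by
    rw [map_zero, sub_zero]; exact (T4_norm p).trans hpn.le
  have n2 : ‖T4 (p + ind S 1) - T4 (ind S 1)‖ ≤ ε := by
    rw [← map_sub, add_sub_cancel_right]; exact (T4_norm p).trans hpn.le
  have z0 : φ 0 (T4 (0 : Fin 4 → ℝ)) = 0 := by
    rw [map_zero]; exact H.zero 0 _ fun _ _ => rfl
  have hq' : (q - δ / 2) * 1 ≤ φ 0 (β + T4 p) - φ 0 (β + T4 (p + ind S 1)) := by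
    rw [hloc, hloc]
    rw [lam_T4 H G m2] at hq
    rw [z0] at l1
    simp only [Fintype.card_fin] at l1 l2
    push_cast at l1 l2
    have k1 := abs_le.1 l1
    have k2 := abs_le.1 l2
    nlinarith [k1.1, k1.2, k2.1, k2.2]
  obtain ⟨v, -, hvD, -, g, g0, -, g1, g2⟩ := exists_pos H 0 (T := T4) (β := β) hDo hDL hT
    (p := p) (S := S) (y := 1) (q := q - δ / 2) (δ := δ / 2) (η := ε / 4) one_pos (by positivity)
    hball hq' (by positivity) (N := univ) (Eventually.of_forall fun _ => mem_univ _)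
  refine ⟨v, hvD.2.1, hvD.2.2, g, β + T4 v, fun i hi => ?_, g2, g0, by linarith⟩
  rw [Pi.add_apply, hβ0 i hi, zero_add, T4_apply]

end

end Crest.Agent.R116.SgF665
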