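import Crest.Agent.R116.Sg3h_665

/-!
# R116 (K side, LEMMA SIG, generic `σ`), junction 3 (helper665; doc 2383 of 194)

* `SigD` : data of the tangent at the point `z0` of the plane `Σ`
* `facts_gen` : the seven implications at a position of the group `0`
* `posn` : positions for `{C}`, `{C, P}`, `{P, E, B}`
* **`sig_false`** : three increments + total rate + `LinFacts` ⊢ `False`
-/

set_option autoImplicit false
set_option linter.unusedVariables false
set_option linter.unusedSectionVars false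

open Set Filter Topology Metric

namespace Crest.Agent.R116.SgF665

open Crest.Agent.R136
open Crest.Agent.R138
open Crest.Agent.R136.Net191
open Crest.Agent.R116.ChL222
open Crest.Agent.R116.Sg337 (bx9)
open Dg219 (Walls gset mem_gset OutS gC dhC nC gC_zero gC_eq)
open SgO219 (LT L_sub_LT OutL exists_lin RateP exists_pos)
open Sg388 (ind)

section

variable {W J : Type*} [Fintype W] [Finite J] {Q : Walls (Fin 12) W} {P : Set (Fin 12 → ℝ)}
  {x0 a b : Fin 12 → ℝ} {f lam : J → (Fin 12 → ℝ) → ℝ} {j0 : J} {x : ℕ → Fin 12 → ℝ} {h sc : ℕ → ℝ}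
  {A : ℝ × ℝ} {φ : ℕ → (Fin 12 → ℝ) → ℝ} {r : ℕ → ℝ}
  {Bs : (ℕ → Fin 12 → ℝ) → (ℕ → ℝ) → Prop} {s : ℝ}

/-- **LEMMA SIG, generic `σ`** -/
theorem sig_false (D : SigD Q P x0 a b f lam j0 x h sc A φ r Bs s) (G : Gen a b)
    {g q0 q1 δ : ℝ} (hs : 0 ≤ s) (hδ : 0 ≤ δ) (hg : 2 * s + δ < g) (hq0 : 0 < q0) (hq1 : 0 < q1)
    (hz : 1 - s ≤ -lam j0 (bx9 1 0 0 0 0 0 0 0 0))
    (hC : q0 ≤ -lam j0 (bx9 0 0 0 1 0 0 0 0 0))
    (hCP : g + q0 + q1 ≤ -lam j0 (bx9 0 0 0 1 0 0 0 1 0))
    (hP : q1 ≤ -lam j0 (bx9 0 0 1 0 0 1 0 1 0))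
    (hsum : ∑ k ∈ (gset (gC a b)).erase 0, r k ≤ 4 - s - g + δ) : False := by
  rw [G.sum_eq'] at hsum
  have iC : T4 (ind {0} 1) = bx9 0 0 0 1 0 0 0 0 0 := by
    rw [T4_apply]; simp [ind]
  have iCP : T4 (ind {0, 1} 1) = bx9 0 0 0 1 0 0 0 1 0 := by
    rw [T4_apply]; simp [ind]
  have iP : T4 (ind {1, 2, 3} 1) = bx9 0 0 1 0 0 1 0 1 0 := by
    rw [T4_apply]; simp [ind]
  -- the z-rate
  have hz0 : bx9 1 0 0 0 0 0 0 0 0 ∈ Q.L x0 a b := by
    rw [D.hQ, bx9_mem]; norm_num
  have hrz : lam j0 (bx9 1 0 0 0 0 0 0 0 0) = -r (gC a b 0) := by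
    have zr : ∀ j : Fin 12, (j = 5 ∨ j = 9 ∨ j = 11) →
        φ (gC a b j) (bx9 1 0 0 0 0 0 0 0 0) = 0 := by
      intro j hj
      refine D.H.zero _ _ fun i hi => ?_
      have hj' : j = 0 ∨ j = 5 ∨ j = 6 ∨ j = 9 ∨ j = 11 := by
        rcases hj with h | h | h <;> rw [h] <;> decide
      rcases G.cases i with h | h | h | h | h
      · rcases h.2 with h | h | h | h | h | h | h <;> subst h <;> simp [bx9]
      · exfalso
        subst h
        have hb := (G.eq_iff (by decide) hj').1 hi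
        rcases hj with h | h | h <;> subst h
        · exact G.n05 hb
        · exact G.n09 hb
        · exact G.n011 hb
      · rcases h with h | h <;> subst h <;> simp [bx9]
      · subst h; simp [bx9]
      · subst h; simp [bx9]
    have z0 : φ 0 (bx9 1 0 0 0 0 0 0 0 0) = 0 := by
      refine D.H.zero _ _ fun i hi => ?_
      rcases G.cases i with h | h | h | h | h
      · rcases h.2 with h | h | h | h | h | h | h <;> subst h <;> simp [bx9]
      · subst h; exact absurd hi (G.pos (by decide))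
      · rcases h with h | h <;> subst h <;> simp [bx9]
      · subst h; simp [bx9]
      · subst h; simp [bx9]
    have zz : φ (gC a b 0) (bx9 1 0 0 0 0 0 0 0 0) = -(r (gC a b 0) * 1) := by
      refine D.H.rate _ _ hz0 1 fun i hi => ?_
      rcases G.cases i with h | h | h | h | h
      · exact absurd (by rw [← hi, h.1]) (G.pos (i := 0) (by decide))
      · subst h; rw [G.dh (by decide)]; simp [bx9]
      · exfalso
        rcases h with h | h <;> subst h
        · exact G.n05 ((G.eq_iff (by decide) (by decide)).1 hi).symm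
        · exact G.n05 (G.b56.trans ((G.eq_iff (by decide) (by decide)).1 hi)).symm
      · subst h; exact absurd ((G.eq_iff (by decide) (by decide)).1 hi).symm G.n09
      · subst h; exact absurd ((G.eq_iff (by decide) (by decide)).1 hi).symm G.n011
    rw [D.H.sum _ hz0, G.sum_eq, z0, zz, zr 5 (by decide), zr 9 (by decide), zr 11 (by decide)]
    ring
  rw [hrz] at hz
  set rX := r (gC a b 5) with hrX
  set rH := r (gC a b 9) with hrH
  set rF := r (gC a b 11) with hrF
  -- a)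
  have A1 : 1 - s ≤ rX ∧ 1 - s ≤ rH := by
    obtain ⟨v, v1, v2, gg, β, hβ, hR, g0, g1⟩ := posn D.H G D.hQ (S := {0}) (Or.inl rfl)
      (q := q0) (δ := q0 / 2) (by rw [iC]; exact hC) (by positivity)
    obtain ⟨f1, f2, f3, f4, f5⟩ := facts_gen D G v1 v2 hβ hR
    rw [Finset.sum_singleton] at g1
    have hp : 0 < gg 0 := by linarith
    exact ⟨f1.1 hp, (f1.1 hp).trans (f2 hp)⟩
  -- b)
  have B1 : 1 ≤ rX ∧ 1 ≤ rH := by
    obtain ⟨v, v1, v2, gg, β, hβ, hR, g0, g1⟩ := posn D.H G D.hQ (S := {0, 1})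
      (Or.inr (Or.inl rfl)) (q := g + q0 + q1) (δ := q0) (by rw [iCP]; exact hCP) hq0
    obtain ⟨f1, f2, f3, f4, f5⟩ := facts_gen D G v1 v2 hβ hR
    rw [Finset.sum_pair (by decide)] at g1
    by_cases h1 : s < gg 1
    · have := f3.2 h1
      exfalso
      linarith [A1.1, A1.2]
    · have h2 : s < gg 0 := by linarith
      exact ⟨f1.2 h2, (f1.2 h2).trans (f2 (by linarith))⟩
  -- c)
  obtain ⟨v, v1, v2, gg, β, hβ, hR, g0, g1⟩ := posn D.H G D.hQ (S := {1, 2, 3})
    (Or.inr (Or.inr rfl)) (q := q1) (δ := q1 / 2) (by rw [iP]; exact hP) (by positivity)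
  obtain ⟨f1, f2, f3, f4, f5⟩ := facts_gen D G v1 v2 hβ hR
  have e3 : ∑ i ∈ ({1, 2, 3} : Finset (Fin 4)), gg i = gg 1 + gg 2 + gg 3 := by
    rw [Finset.sum_insert (by decide), Finset.sum_pair (by decide)]; ring
  rw [e3] at g1
  by_cases h1 : 0 < gg 1
  · have := f3.1 h1
    linarith [B1.1, B1.2]
  by_cases h2 : 0 < gg 2
  · have := f5 h2
    linarith [B1.1, B1.2]
  have h3 : 0 < gg 3 := by linarith
  have := f4 h3
  linarith [B1.1, B1.2]

end

end Crest.Agent.R116.SgF665
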