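import Crest.Agent.R116.SgO4_890

/-!
# R116 (K side, LEMMA SIG), resonant slopes: tools (helper890)

* `exists_posn_y`   : position near a natural path at any scale `y`
* `seg_ge`          : rates `≥ q` at all differentiability points near a segment ⊢ increment `≥ q y`
* `psi_lip`         : the function of a pair group is Lipschitz
* `rateP_of_diff`   : rates at a differentiability point of a pair function
* `ae_line`         : for a.e. `v` the function `ψ` is differentiable at `(ζ, ζ + v i)`, a.e. `ζ`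
* `exists_line`     : and there is such a `ζ` with directional rate `≤ r + δ`
-/

set_option autoImplicit false
set_option linter.unusedSectionVars false
set_option linter.unusedVariables false

open Set Filter Topology Metric MeasureTheory
open scoped NNReal

namespace Crest.Agent.R116.SgO219

open Crest.Agent.R136
open Crest.Agent.R138
open Dg219 (Walls OutS)
open Sg388 (ind ind_eq_smul exists_rate_on exists_deriv_ge)

variable {ι W κ : Type*} [Fintype ι] [DecidableEq ι] [Fintype W] [DecidableEq κ]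

/-- change of scale in `RateP` -/
theorem RateP.unscale {d : ℕ} {φ : (ι → ℝ) → ℝ} {c0 : ι → ℝ} {T : (Fin d → ℝ) →L[ℝ] (ι → ℝ)}
    {y : ℝ} (hy : 0 < y) {G : Fin d → ℝ} (h : RateP φ c0 (y • T) G) :
    RateP φ c0 T (fun i => G i / y) := by
  intro u
  have h1 := h (y⁻¹ • u)
  have e1 : (y • T) (y⁻¹ • u) = T u := by
    rw [ContinuousLinearMap.smul_apply, map_smul, smul_smul, mul_inv_cancel₀ hy.ne', one_smul]
  have e2 : ∑ i, G i * (y⁻¹ • u) i = ∑ i, G i / y * u i := Finset.sum_congr rfl fun i _ => by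
    rw [Pi.smul_apply, smul_eq_mul]; field_simp
  rw [e2] at h1
  refine h1.congr fun t => ?_
  rw [e1]

section

variable {Q : Walls ι W} {x0 a b : ι → ℝ} {grp : ι → κ}
  {dh : ι → ℝ} {n : κ → ℝ × ℝ} {A : ℝ × ℝ} {lam : (ι → ℝ) → ℝ} {φ : κ → (ι → ℝ) → ℝ} {r : κ → ℝ}

/-- **POSITION NEAR A NATURAL PATH, ANY SCALE** -/
theorem exists_posn_y (H : OutS grp (Q.L x0 a b) dh n lam A φ r) (k : κ) {d : ℕ}
    {T : (Fin d → ℝ) →L[ℝ] (ι → ℝ)} (hT : ∀ i l, 0 ≤ T (Pi.single i 1) l) {β : ι → ℝ}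
    (hβ : ∀ i, grp i = k → β i = 0) {D : Set (Fin d → ℝ)} (hDo : IsOpen D)
    (hDL : ∀ v ∈ D, β + T v ∈ Q.L x0 a b) {S : Finset (Fin d)} {w0 : Fin d → ℝ} {y : ℝ}
    (hy : 0 < y)
    (hw : ∀ ε : ℝ, 0 < ε → ∀ t ∈ Icc (0:ℝ) y, ε • w0 + ind S t ∈ D) {q δ η : ℝ}
    (hq : q * y ≤ φ k 0 - φ k (T (ind S y))) (hδ : 0 < δ) (hη : 0 < η)
    {N : Set (Fin d → ℝ)} (hN : ∀ᵐ v, v ∈ N) :
    ∃ v ∈ N, v ∈ D ∧ (∃ t ∈ Icc (0:ℝ) y, ‖v - ind S t‖ < η) ∧ ∃ G : Fin d → ℝ,
      (∀ i, 0 ≤ G i) ∧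
      (∀ i, G i ≤ ∑ l ∈ Finset.univ.filter (fun l => grp l = k), T (Pi.single i 1) l) ∧
      q - δ ≤ ∑ i ∈ S, G i ∧ RateP (φ k) (β + T v) T G := by
  have hN' : ∀ᵐ v : Fin d → ℝ, v ∈ {v | y • v ∈ N} := by
    have h1 : (volume : Measure (Fin d → ℝ)) Nᶜ = 0 := hN
    have h2 : (volume : Measure (Fin d → ℝ)) ((fun v => y • v) ⁻¹' Nᶜ) = 0 := by
      rw [Measure.addHaar_preimage_smul _ hy.ne', h1, mul_zero]
    exact h2
  obtain ⟨v, hvN, hvD, ⟨t, ht, htv⟩, G, hG0, hG1, hG2, hG3⟩ := exists_posn H k (T := y • T)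
    (fun i l => by
      rw [ContinuousLinearMap.smul_apply, Pi.smul_apply, smul_eq_mul]
      exact mul_nonneg hy.le (hT i l)) hβ (D := {v | y • v ∈ D}) (hDo.preimage
      (continuous_const_smul y)) (fun v hv => by
      rw [ContinuousLinearMap.smul_apply, ← map_smul]; exact hDL _ hv) (S := S) (w0 := w0)
    (fun ε hε t ht => by
      have h1 := hw (y * ε) (mul_pos hy hε.1) (y * t)
        ⟨mul_nonneg hy.le ht.1, by nlinarith [ht.2]⟩
      change y • (ε • w0 + ind S t) ∈ D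
      have e : y • (ε • w0 + ind S t) = (y * ε) • w0 + ind S (y * t) := by
        rw [smul_add, smul_smul, ind_eq_smul S t, smul_smul, ← ind_eq_smul]
      rw [e]; exact h1) (q := q * y) (δ := δ * y) (η := η / y) (by
      have e : (y • T) (ind S 1) = T (ind S y) := by
        rw [ContinuousLinearMap.smul_apply, ← map_smul, ← ind_eq_smul]
      rw [e]; exact hq) (mul_pos hδ hy) (div_pos hη hy) hN'
  have hv0 : v ∈ {v : Fin d → ℝ | y • v ∈ D} := hvD
  refine ⟨y • v, hvN, hv0, ⟨y * t, ⟨mul_nonneg hy.le ht.1, by nlinarith [ht.2]⟩, ?_⟩,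
    fun i => G i / y, fun i => div_nonneg (hG0 i) hy.le, fun i => ?_, ?_, ?_⟩
  · have e : y • v - ind S (y * t) = y • (v - ind S t) := by
      rw [ind_eq_smul S t, smul_sub, smul_smul, ← ind_eq_smul]
    rw [e, norm_smul, Real.norm_of_nonneg hy.le]
    rw [lt_div_iff₀ hy] at htv
    linarith
  · rw [div_le_iff₀ hy]
    refine (hG1 i).trans (le_of_eq ?_)
    rw [Finset.sum_mul]
    refine Finset.sum_congr rfl fun l _ => ?_
    rw [ContinuousLinearMap.smul_apply, Pi.smul_apply, smul_eq_mul, mul_comm]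
  · rw [← Finset.sum_div, le_div_iff₀ hy]
    linarith
  · have e : β + T (y • v) = β + (y • T) v := by
      rw [ContinuousLinearMap.smul_apply, map_smul]
    rw [e]
    exact RateP.unscale hy hG3

/-- **the function of a group over the moves `T` is Lipschitz** if the points have common
backgrounds -/
theorem psi_lip (H : OutS grp (Q.L x0 a b) dh n lam A φ r) (k : κ) {d : ℕ}
    (T : (Fin d → ℝ) →L[ℝ] (ι → ℝ))
    (hbg : ∀ M : ℝ, ∃ β : ι → ℝ, (∀ i, grp i = k → β i = 0) ∧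
      ∀ u : Fin d → ℝ, ‖u‖ ≤ M → β + T u ∈ Q.L x0 a b) :
    LipschitzWith (Real.toNNReal ((Fintype.card ι : ℝ) * ‖T‖)) (fun u => φ k (T u)) := by
  refine LipschitzWith.of_dist_le_mul fun u u' => ?_
  rw [Real.dist_eq, Real.coe_toNNReal _ (by positivity)]
  obtain ⟨β, hβ, hL⟩ := hbg (max ‖u‖ ‖u'‖)
  have e : ∀ u : Fin d → ℝ, φ k (T u) = φ k (β + T u) := fun u => H.loc k _ _ fun i hi => by
    rw [Pi.add_apply, hβ i hi, zero_add]
  rw [e u, e u']
  refine (OutS.lip_piece H k (hL u (le_max_left _ _)) (hL u' (le_max_right _ _))).trans ?_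
  rw [add_sub_add_left_eq_sub, ← map_sub, mul_assoc, dist_eq_norm]
  exact mul_le_mul_of_nonneg_left (T.le_opNorm _) (Nat.cast_nonneg _)

/-- rates at a differentiability point -/
theorem rateP_of_diff (H : OutS grp (Q.L x0 a b) dh n lam A φ r) (k : κ) {d : ℕ}
    {T : (Fin d → ℝ) →L[ℝ] (ι → ℝ)} {u : Fin d → ℝ}
    (hu : DifferentiableAt ℝ (fun u => φ k (T u)) u) {c0 : ι → ℝ}
    (hc : ∀ i, grp i = k → c0 i = T u i) :
    RateP (φ k) c0 T (fun i => -fderiv ℝ (fun u => φ k (T u)) u (Pi.single i 1)) := by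
  refine RateP.transfer (c := T u) H ?_ hc
  intro w
  have h1 := dir_of_fderiv hu w
  rw [clm_eq_sum (fderiv ℝ (fun u => φ k (T u)) u) w] at h1
  have e : -∑ i, -fderiv ℝ (fun u => φ k (T u)) u (Pi.single i 1) * w i =
      ∑ i, fderiv ℝ (fun u => φ k (T u)) u (Pi.single i 1) * w i := by
    rw [← Finset.sum_neg_distrib]
    exact Finset.sum_congr rfl fun i _ => by ring
  rw [e]
  refine h1.congr fun t => ?_
  simp only [map_add, map_smul]

end

/-- **rates `≥ q` near a segment ⊢ increment `≥ q y`** -/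
theorem seg_ge {d : ℕ} {Φ : (Fin d → ℝ) → ℝ} {K : ℝ≥0} {D : Set (Fin d → ℝ)}
    (hΦ : LipschitzOnWith K Φ D) (hD : IsOpen D) {p e : Fin d → ℝ} {y q : ℝ} (hy : 0 < y)
    (hseg : ∀ t ∈ Icc (0:ℝ) y, p + t • e ∈ D)
    (h : ∀ x ∈ D, DifferentiableAt ℝ Φ x → q ≤ -fderiv ℝ Φ x e) :
    q * y ≤ Φ p - Φ (p + y • e) := by
  by_contra hcon
  push Not at hcon
  have hcomp : IsCompact ((fun t : ℝ => p + t • e) '' Icc 0 y) :=
    isCompact_Icc.image (by fun_prop)
  obtain ⟨ρ, hρ, hρD⟩ := hcomp.exists_thickening_subset_open hD (by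
    rintro _ ⟨t, ht, rfl⟩; exact hseg t ht)
  set q' : ℝ := (Φ p - Φ (p + y • e)) / y with hq'
  have hq'y : q' * y = Φ p - Φ (p + y • e) := by rw [hq']; field_simp
  have hlt : q' < q := by
    rw [hq', div_lt_iff₀ hy]; exact hcon
  obtain ⟨x, -, hxD, -, hxd, hx⟩ := exists_rate_on (μ := (volume : Measure (Fin d → ℝ))) hΦ
    (p := p) (v := e) (y := y) (a := -q') (δ := (q - q') / 2) (η := ρ) hy hρ
    (fun t ht x hx => hρD (by
      rw [mem_thickening_iff]
      exact ⟨_, ⟨t, ht, rfl⟩, hx⟩)) (by linarith) (by linarith) (N := univ)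
    (Eventually.of_forall fun _ => mem_univ _)
  have := h x hxD hxd
  linarith

/-- a.e. `v` : `ψ` is differentiable at `(ζ, ζ + v i)` for a.e. `ζ` -/
theorem ae_line {ψ : (Fin 2 → ℝ) → ℝ} {K : ℝ≥0} (hψ : LipschitzWith K ψ) {d : ℕ} (i : Fin d) :
    ∀ᵐ v : Fin d → ℝ, ∀ᵐ ζ : ℝ, DifferentiableAt ℝ ψ ![ζ, ζ + v i] := by
  have h1 : ∀ᵐ x : Fin 2 → ℝ, DifferentiableAt ℝ ψ x := hψ.ae_differentiableAt
  -- the map `(p, ζ) ↦ ![ζ, ζ + p]`
  have h2 : MeasurePreserving (fun z : ℝ × ℝ => (z.2, z.2 + z.1)) (volume.prod volume)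
      (volume.prod volume) := measurePreserving_prod_add_swap volume volume
  have h3 : MeasurePreserving (MeasurableEquiv.finTwoArrow (α := ℝ)).symm
      (volume.prod volume) (volume : Measure (Fin 2 → ℝ)) :=
    (volume_preserving_finTwoArrow ℝ).symm _
  have h4 := (h3.comp h2).quasiMeasurePreserving.ae h1
  have h5 : ∀ᵐ z : ℝ × ℝ ∂(volume.prod volume), DifferentiableAt ℝ ψ ![z.2, z.2 + z.1] := h4
  have h6 := Measure.ae_ae_of_ae_prod h5
  have h7 := (Measure.quasiMeasurePreserving_eval (fun _ : Fin d => (volume : Measure ℝ)) i).ae h6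
  exact h7

/-- **a point of the line `(ζ, ζ + p)` with directional rate `≤ r + δ`** -/
theorem exists_line {ψ : (Fin 2 → ℝ) → ℝ} {K : ℝ≥0} (hψ : LipschitzWith K ψ) {r p δ : ℝ}
    (hδ : 0 < δ) (hr : ∀ u : ℝ, ψ ![u, u] = -(r * u))
    (hd : ∀ᵐ ζ : ℝ, DifferentiableAt ℝ ψ ![ζ, ζ + p]) :
    ∃ ζ : ℝ, DifferentiableAt ℝ ψ ![ζ, ζ + p] ∧
      (-fderiv ℝ ψ ![ζ, ζ + p] (Pi.single 0 1)) + (-fderiv ℝ ψ ![ζ, ζ + p] (Pi.single 1 1)) ≤
        r + δ := by
  set Y : ℝ := (4 * K * |p| + 1) / δ with hY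
  have hYpos : 0 < Y := by positivity
  have hYd : Y * δ = 4 * K * |p| + 1 := by rw [hY]; field_simp
  set g : ℝ → ℝ := fun ζ => ψ ![ζ, ζ + p] with hg
  have hline : ∀ ζ : ℝ, (![ζ, ζ + p] : Fin 2 → ℝ) = ![0, p] + ζ • ![1, 1] := by
    intro ζ
    funext i
    fin_cases i <;> simp [add_comm]
  have hgl : LipschitzOnWith K g (Icc 0 Y) := by
    refine LipschitzOnWith.of_dist_le_mul fun x _ x' _ => ?_
    refine (hψ.dist_le_mul _ _).trans ?_
    refine mul_le_mul_of_nonneg_left ?_ K.2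
    rw [dist_pi_le_iff dist_nonneg]
    intro i
    fin_cases i <;> simp [dist_eq_norm]
  have hdist : ∀ u : ℝ, |ψ ![u, u + p] - ψ ![u, u]| ≤ K * |p| := by
    intro u
    have h1 := hψ.dist_le_mul ![u, u + p] ![u, u]
    rw [Real.dist_eq] at h1
    refine h1.trans (mul_le_mul_of_nonneg_left ?_ K.2)
    rw [dist_pi_le_iff (abs_nonneg _)]
    intro i
    fin_cases i <;> simp [dist_eq_norm]
  have d1 := abs_le.1 (hdist Y)
  have d0 := abs_le.1 (hdist 0)
  have hK0 : (0:ℝ) ≤ K * |p| := by positivity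
  obtain ⟨ζ, -, hζ, hζd, hζr⟩ := exists_deriv_ge hgl hYpos (a := -(r + δ / 2)) (δ := δ / 2) (by
    have e0 := hr 0
    have eY := hr Y
    simp only [hg]
    have e1 : Y * δ / 2 = 2 * (K * |p|) + 1 / 2 := by rw [hYd]; ring
    nlinarith [d1.1, d0.2]) (by linarith) (N := {ζ | DifferentiableAt ℝ ψ ![ζ, ζ + p]})
    (hd.mono fun ζ h _ => h)
  refine ⟨ζ, hζ, ?_⟩
  have hζ' : DifferentiableAt ℝ ψ ![ζ, ζ + p] := hζ
  have hder : HasDerivAt g (fderiv ℝ ψ ![ζ, ζ + p] ![1, 1]) ζ := by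
    have h1 : HasDerivAt (fun ζ : ℝ => (![0, p] : Fin 2 → ℝ) + ζ • ![1, 1]) ![1, 1] ζ := by
      have := ((hasDerivAt_id ζ).smul_const (![1, 1] : Fin 2 → ℝ)).const_add (![0, p] : Fin 2 → ℝ)
      simpa using this
    have h2 : HasFDerivAt ψ (fderiv ℝ ψ ![ζ, ζ + p]) (![0, p] + ζ • ![1, 1]) := by
      rw [← hline]; exact hζ'.hasFDerivAt
    have h3 := h2.comp_hasDerivAt ζ h1
    refine h3.congr_of_eventuallyEq (Eventually.of_forall fun x => ?_)
    simp only [hg, Function.comp]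
    rw [hline]
  rw [hder.deriv] at hζr
  have e : (![1, 1] : Fin 2 → ℝ) = Pi.single 0 1 + Pi.single 1 1 := by
    funext i
    fin_cases i <;> simp
  rw [e, map_add] at hζr
  linarith

end Crest.Agent.R116.SgO219
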