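import Crest.Agent.R116.SgL2_337

/-!
# R116, K-TEXT II-c, the ISOTROPIC record over the record tangent (helper337), part 1

All flag slots are dead (flat flags), `P`, `F` are dead as long as they are not finer than `C`, `X`.
`ProfI` = what is used; `sigI_all` : with
`SI θ l v t = bx9 v (3l) (2l) (-θt) (v-θt) l (v-2θt) (-θt) (v-θt)` (flag slots frozen)
`(c + q0 + q1) y ≤ g (SI v t) - g (SI v t + y C)` for `v ≤ t`.
-/

set_option autoImplicit false

open Finset Filter Topology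

namespace Crest.Agent.R116.Sg337

open Crest.Agent.R136.Net191
open Crest.Agent.R116.ChL222
open Crest.Agent.R116.PL504 (eL)
open Crest.Agent.R116.Xd954 (cs xs)

/-- what is used of the record tangent of a round record -/
structure ProfI (s : ℝ) (a : Fin 2) (g : (Fin 12 → ℝ) → ℝ) : Prop where
  anti : ∀ p ∈ coneL, ∀ q ∈ coneL, p ≤ q → 0 ≤ g p - g q ∧ g p - g q ≤ ∑ k, (q k - p k)
  sm : ∀ p ∈ coneL, ∀ q ∈ coneL, p ⊓ q ∈ coneL → g p + g q ≤ g (p ⊔ q) + g (p ⊓ q)
  own : ∀ p ∈ coneL, ∀ q ∈ coneL, p ≤ q → (1 - s) * (q 0 - p 0) ≤ g p - g q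
  dead : ∀ p ∈ coneL, ∀ q ∈ coneL, (∀ k, k ≠ 1 → k ≠ 2 → k ≠ 7 → k ≠ 8 → p k = q k) → g p = g q
  deadP : ∀ p ∈ coneL, ∀ q ∈ coneL, (∀ k, k ≠ 1 → k ≠ 2 → k ≠ 7 → k ≠ 8 → k ≠ 10 → k ≠ 11 →
    p k = q k) → (q 10 ≤ p 10 ∨ q 10 ≤ p (cs a)) → (q 11 ≤ p 11 ∨ q 11 ≤ p (xs a)) → g p ≤ g q

/-- frozen flags -/
def SI (θ l v t : ℝ) : Fin 12 → ℝ :=
  bx9 v (3 * l) (2 * l) (-(θ * t)) (v + -(θ * t)) l (v + 2 * (-(θ * t))) (-(θ * t)) (v + -(θ * t))

/-- perturbed box with frozen flags -/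
def pI (l z C y1 y3 y4 y6 y7 y8 : ℝ) : Fin 12 → ℝ :=
  bx9 (z + y1) (3 * l) (2 * l) (C + y3) (z + C + y4) l (z + 2 * C + y6) (C + y7) (z + C + y8)

theorem SI_pI (θ l v t : ℝ) : SI θ l v t = pI l v (-(θ * t)) 0 0 0 0 0 0 := by
  unfold SI pI; simp only [add_zero]

section core

variable {s q0 q1 c l z C y : ℝ} {a : Fin 2} {g : (Fin 12 → ℝ) → ℝ}

theorem pI_cone {y1 y3 y4 y6 y7 y8 : ℝ} (hX : y4 ≤ y1 + y3) (hN : y6 ≤ y3 + y4)
    (hF : y8 ≤ y1 + y7) (h1 : -l ≤ z + y1) (h2 : -l ≤ C + y3) (h3 : -l ≤ z + C + y4)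
    (h4 : y7 - y3 ≤ l) (h5 : -l ≤ z + C + y6 - y7) (h6 : y8 - y4 ≤ l) (h7 : -l ≤ C + y6 - y8)
    (hl : 0 ≤ l) : pI l z C y1 y3 y4 y6 y7 y8 ∈ coneL := by
  refine cone9 ⟨?_, ?_, ?_, ?_, ?_, ?_, ?_, ?_, ?_, ?_⟩ <;> linarith

theorem pI_add (y : ℝ) : pI l z C 0 y 0 0 0 0 = pI l z C 0 0 0 0 0 0 + y • uC := by
  funext k
  fin_cases k <;> simp [pI, uC, bx9]

theorem dead9 (H : ProfI s a g) {z D E C X B N P F D' E' B' : ℝ}
    (h : bx9 z D E C X B N P F ∈ coneL) (h' : bx9 z D' E' C X B' N P F ∈ coneL) :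
    g (bx9 z D E C X B N P F) = g (bx9 z D' E' C X B' N P F) := by
  refine H.dead _ h _ h' fun k h1 h2 h7 h8 => ?_
  fin_cases k
  exacts [show z = z from rfl, absurd rfl h1, absurd rfl h2, show C = C from rfl,
    show C = C from rfl, show X = X from rfl, show X = X from rfl, absurd rfl h7, absurd rfl h8,
    show N = N from rfl, show P = P from rfl, show F = F from rfl]

theorem deadP9 (H : ProfI s a g) {z D E C X B N P F P' : ℝ}
    (h : bx9 z D E C X B N P F ∈ coneL) (h' : bx9 z D E C X B N P' F ∈ coneL) (hP : P' ≤ C) :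
    g (bx9 z D E C X B N P F) ≤ g (bx9 z D E C X B N P' F) := by
  refine H.deadP _ h _ h' (fun k h1 h2 h7 h8 h10 h11 => ?_) (Or.inr ?_)
    (Or.inl (show F ≤ F from le_rfl))
  · fin_cases k
    exacts [show z = z from rfl, absurd rfl h1, absurd rfl h2, show C = C from rfl,
      show C = C from rfl, show X = X from rfl, show X = X from rfl, absurd rfl h7, absurd rfl h8,
      show N = N from rfl, absurd rfl h10, absurd rfl h11]
  · fin_cases a <;> exact hP

/-- the record inequality, round case -/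
theorem recI (H : ProfI s a g) (y0 : 0 ≤ y) (hz : |z| + y ≤ l / 4) (hC : |C| + y ≤ l / 4)
    (hrec : DL c s q0 q1 z C C ≤ g (natB z C C))
    (hD : g (natB (z - y) (C + y) (C + y)) ≤ DL c s q0 q1 (z - y) (C + y) (C + y)) :
    (c + q0 + q1) * y ≤ g (pI l z C 0 0 0 0 0 0) - g (pI l z C 0 y 0 0 0 0) := by
  have z1 := neg_abs_le z
  have z2 := le_abs_self z
  have C1 := neg_abs_le C
  have C2 := le_abs_self C
  have az := abs_nonneg z
  have aC := abs_nonneg C
  have m0 : pI l z C 0 0 0 0 0 0 ∈ coneL := pI_cone (by linarith) (by linarith) (by linarith)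
    (by linarith) (by linarith) (by linarith) (by linarith) (by linarith) (by linarith)
    (by linarith) (by linarith)
  have mC : pI l z C 0 y 0 0 0 0 ∈ coneL := pI_cone (by linarith) (by linarith) (by linarith)
    (by linarith) (by linarith) (by linarith) (by linarith) (by linarith) (by linarith)
    (by linarith) (by linarith)
  have m3 : pI l z C 0 y 0 0 y 0 ∈ coneL := pI_cone (by linarith) (by linarith) (by linarith)
    (by linarith) (by linarith) (by linarith) (by linarith) (by linarith) (by linarith)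
    (by linarith) (by linarith)
  have m1 : pI l z C (-y) y 0 0 y 0 ∈ coneL := pI_cone (by linarith) (by linarith) (by linarith)
    (by linarith) (by linarith) (by linarith) (by linarith) (by linarith) (by linarith)
    (by linarith) (by linarith)
  have m2 : pI l z C (-y) y 0 y y 0 ∈ coneL := pI_cone (by linarith) (by linarith) (by linarith)
    (by linarith) (by linarith) (by linarith) (by linarith) (by linarith) (by linarith)
    (by linarith) (by linarith)
  -- flags are dead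
  have e1 : g (pI l z C 0 0 0 0 0 0) = g (natB z C C) := by
    have e0 : natB z C C = bx9 (z + 0) (C - 2 * C - z) (C - 2 * C) (C + 0) (z + C + 0) (C - C)
        (z + 2 * C + 0) (C + 0) (z + C + 0) := by
      unfold natB; simp only [add_zero]
    have e0' := natB_cone z C C
    rw [e0] at e0' ⊢
    exact dead9 H m0 e0'
  have e2 : g (pI l z C (-y) y 0 y y 0) = g (natB (z - y) (C + y) (C + y)) := by
    have e0 : natB (z - y) (C + y) (C + y) = bx9 (z + -y) ((C + y) - 2 * (C + y) - (z - y))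
        ((C + y) - 2 * (C + y)) (C + y) (z + C + 0) ((C + y) - (C + y)) (z + 2 * C + y) (C + y)
        (z + C + 0) := by
      unfold natB; congr 1 <;> ring
    have e0' := natB_cone (z - y) (C + y) (C + y)
    rw [e0] at e0' ⊢
    exact dead9 H m2 e0'
  -- `P` is dead
  have e3 : g (pI l z C 0 y 0 0 0 0) ≤ g (pI l z C 0 y 0 0 y 0) := deadP9 H mC m3 le_rfl
  have hc := (H.anti _ m1 _ m2 (bx9_le le_rfl le_rfl le_rfl le_rfl le_rfl le_rfl (by linarith)
    le_rfl le_rfl)).2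
  have e4 : ∑ k, (pI l z C (-y) y 0 y y 0 k - pI l z C (-y) y 0 0 y 0 k) = y := by
    simp [Fin.sum_univ_succ, pI, bx9]
  rw [e4] at hc
  have ho := H.own _ m1 _ m3
    (bx9_le (by linarith) le_rfl le_rfl le_rfl le_rfl le_rfl le_rfl le_rfl le_rfl)
  have e5 : pI l z C 0 y 0 0 y 0 0 - pI l z C (-y) y 0 0 y 0 0 = y := by
    show (z + 0) - (z + -y) = y
    ring
  rw [e5] at ho
  rw [e1]
  unfold DL at hrec hD
  nlinarith

/-- coarser heights -/
theorem coarseI (H : ProfI s a g) {z' : ℝ} (hz : z' ≤ z) (y0 : 0 ≤ y)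
    (m0 : pI l z C 0 0 0 0 0 0 ∈ coneL) (m0' : pI l z' C 0 0 0 0 0 0 ∈ coneL)
    (m1' : pI l z' C 0 y 0 0 0 0 ∈ coneL) :
    g (pI l z C 0 0 0 0 0 0) - g (pI l z C 0 y 0 0 0 0) ≤
      g (pI l z' C 0 0 0 0 0 0) - g (pI l z' C 0 y 0 0 0 0) := by
  have e1 : pI l z C 0 0 0 0 0 0 ⊓ pI l z' C 0 y 0 0 0 0 = pI l z' C 0 0 0 0 0 0 := by
    unfold pI
    rw [bx9_inf]
    congr 1 <;> first | exact min_self _ | exact min_eq_left (by linarith) |
      exact min_eq_right (by linarith)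
  have e2 : pI l z C 0 0 0 0 0 0 ⊔ pI l z' C 0 y 0 0 0 0 = pI l z C 0 y 0 0 0 0 := by
    unfold pI
    rw [bx9_sup]
    congr 1 <;> first | exact max_self _ | exact max_eq_left (by linarith) |
      exact max_eq_right (by linarith)
  have h1 := H.sm _ m0 _ m1' (by rw [e1]; exact m0')
  rw [e1, e2] at h1
  linarith

/-- **the isotropic plane, over the record tangent** -/
theorem sigI_all {θ : ℝ} (H : ProfI s a g) (hD : ∀ v x : ℝ, g (natB v x x) ≤ DL c s q0 q1 v x x)
    (hR : ∀ t : ℝ, g (natB t (-(θ * t)) (-(θ * t))) = DL c s q0 q1 t (-(θ * t)) (-(θ * t)))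
    {v t : ℝ} (hvt : v ≤ t) (y0 : 0 ≤ y) (hv : |v| + y ≤ l / 4) (ht : |t| + y ≤ l / 4)
    (hθ : |θ * t| + y ≤ l / 4) :
    SI θ l v t ∈ coneL ∧ SI θ l v t + y • uC ∈ coneL ∧
      g (SI θ l v t) ≤ DL c s q0 q1 v (-(θ * t)) (-(θ * t)) ∧
      (c + q0 + q1) * y ≤ g (SI θ l v t) - g (SI θ l v t + y • uC) := by
  have v1 := neg_abs_le v
  have v2 := le_abs_self v
  have t1 := neg_abs_le t
  have t2 := le_abs_self t
  have θ1 := neg_abs_le (θ * t)
  have θ2 := le_abs_self (θ * t)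
  have av := abs_nonneg v
  have at' := abs_nonneg t
  have aθ := abs_nonneg (θ * t)
  have mt : pI l t (-(θ * t)) 0 0 0 0 0 0 ∈ coneL := pI_cone (by linarith) (by linarith)
    (by linarith) (by linarith) (by linarith) (by linarith) (by linarith) (by linarith)
    (by linarith) (by linarith) (by linarith)
  have mv : pI l v (-(θ * t)) 0 0 0 0 0 0 ∈ coneL := pI_cone (by linarith) (by linarith)
    (by linarith) (by linarith) (by linarith) (by linarith) (by linarith) (by linarith)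
    (by linarith) (by linarith) (by linarith)
  have mv' : pI l v (-(θ * t)) 0 y 0 0 0 0 ∈ coneL := pI_cone (by linarith) (by linarith)
    (by linarith) (by linarith) (by linarith) (by linarith) (by linarith) (by linarith)
    (by linarith) (by linarith) (by linarith)
  rw [SI_pI, ← pI_add]
  refine ⟨mv, mv', ?_, ?_⟩
  · refine (le_of_eq ?_).trans (hD v _)
    have e0 : natB v (-(θ * t)) (-(θ * t)) = bx9 (v + 0) (-(θ * t) - 2 * (-(θ * t)) - v)
        (-(θ * t) - 2 * (-(θ * t))) (-(θ * t) + 0) (v + -(θ * t) + 0) (-(θ * t) - -(θ * t))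
        (v + 2 * (-(θ * t)) + 0) (-(θ * t) + 0) (v + -(θ * t) + 0) := by
      unfold natB; simp only [add_zero]
    have e0' := natB_cone v (-(θ * t)) (-(θ * t))
    rw [e0] at e0' ⊢
    exact dead9 H mv e0'
  · have c1 := recI (l := l) (z := t) (C := -(θ * t)) (y := y) H y0 ht
      (by rw [abs_neg]; exact hθ) (hR t).ge (hD _ _)
    exact c1.trans (coarseI H hvt y0 mt mv mv')

end core

end Crest.Agent.R116.Sg337
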