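import Crest.Agent.R116.SgI2_337
import Crest.Agent.R116.CtxB_468
import Crest.Agent.R116.KS3_439

/-!
# R116, K-TEXT II-c, the ISOTROPIC record (helper337), part 3: from `CtxR` to the record tangent

* `flat_co`   : relative coordinates of flat flags
* `nu_flat`   : the flag slots are dead, `P` and `F` are dead below `C_a`, `X_a`
* `exists_rec`: record tangents exist
* `profI_of`, `dmaxI_of` : `ProfI`, D-max and record identity of the record tangent
-/

set_option autoImplicit false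
set_option linter.unusedVariables false

open Finset Filter Topology

namespace Crest.Agent.R116.SgI337

open Crest.Agent.R138.Defs (E2)
open Crest.Agent.R138.Ex926 (Base U IsTan)
open Crest.Agent.R138.Mk163 (rho)
open Crest.Agent.R138.Dp76 (dpow_pos)
open Crest.Agent.R136.MkA627
open Crest.Agent.R136.Net191
open Crest.Agent.R136.Lq196
open Crest.Agent.R116.LZg725
open Crest.Agent.R116.ChL222
open Crest.Agent.R116.PL504 (nb rL DN eL Shift ps ps_pos ps_eq uL oL)
open Crest.Agent.R116.Gd222 (TSet PDL DT)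
open Crest.Agent.R116.KI439 (LRay)
open Crest.Agent.R116.KF439 (flF flatc Thick)
open Crest.Agent.R116.Xd954 (cs xs prof_dead)
open Crest.Agent.R116.Tw468 (OutR)
open Crest.Agent.R116.CtxB468
open Crest.Agent.R116.Sg337

/-! ### flat flags -/

theorem flat_co (a : Fin 2) (L : ℕ → ℕ → LRay) (n : ℕ) (x y : ℕ × ℝ) :
    coL (flF a L n x) (flF a L n y) 1 = 0 ∧ coL (flF a L n x) (flF a L n y) 2 = 0 ∧
    coL (flF a L n x) (flF a L n y) 7 = 0 ∧ coL (flF a L n x) (flF a L n y) 8 = 0 ∧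
    coL (flF a L n x) (flF a L n y) 10 = coL (flF a L n x) (flF a L n y) (cs a) ∧
    coL (flF a L n x) (flF a L n y) 11 = coL (flF a L n x) (flF a L n y) (xs a) := by
  have hb : ∀ u : ℕ × ℝ, (flF a L n u).b1 = (EuclideanSpace.single a (1:ℝ) : E2) 0 ∧
      (flF a L n u).b2 = (EuclideanSpace.single a (1:ℝ) : E2) 1 ∧ (flF a L n u).et = 0 ∧
      (flF a L n u).d = 0 := by
    intro u
    refine ⟨?_, ?_, ?_, ?_⟩
    · show Bm903.grr (flatc a) _ 0 = _
      rw [KF439.flatc_grr]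
    · show Bm903.grr (flatc a) _ 1 = _
      rw [KF439.flatc_grr]
    · exact KF439.flatc_ny a _
    · exact KF439.flatc_d a
  obtain ⟨x1, x2, x3, x4⟩ := hb x
  obtain ⟨y1, y2, y3, y4⟩ := hb y
  unfold coL
  simp only [x1, x2, x3, x4, y1, y2, y3, y4]
  fin_cases a <;> simp [cs, xs]

section nu

variable {G : Geo TSet (Fin 2)} {L : ℕ → ℕ → LRay} {r : ℕ → ℝ} {g s : ℝ} {θ q : Fin 2 → ℝ}
    {Rg : ℝ} {a : Fin 2} {B : Base}
    {I : ℕ → Finset (ℕ × ℝ)} {lev : ℕ → ℚ → ℕ} {A : ℕ → ℝ}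
    {f : ℕ → ℚ → ℕ → ℤ → ℕ} {b : ℕ → ℚ → ℕ → TSet} {vm : ℕ → ℚ → ℝ} {w : Fin 2 → ℕ → ℚ → ℝ}
    {w0 sa sb δ R : ℝ} {I0 I' : ℕ → Finset (ℕ × ℝ)} {ν own : (Fin 12 → ℝ) → ℝ} {c₀ : ℝ}

/-- the ratio of the units -/
theorem ratio_le (h : CtxR G L r g s θ q Rg a B I lev A f b vm w w0 sa sb δ R I0 I' ν own c₀)
    {ε : ℝ} (hε : 0 < ε) : ∀ᶠ n in (U : Filter ℕ),
      (B.d n ^ sb / ps (w 1 n 1 / rho (lev n 1))) ≤
        (B.d n ^ sa / ps (w 0 n 1 / rho (lev n 1))) * B.d n ^ (sb - sa - ε) := by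
  filter_upwards [h.out.thick ε hε 1 zero_le_one le_rfl, h.mka.wpos 0 1 zero_le_one le_rfl,
    h.mka.wpos 1 1 zero_le_one le_rfl] with n h1 p0 p1
  have hr : 0 < rho (lev n 1) := PL504.rho_pos _
  rw [ps_eq (div_pos p0 hr), ps_eq (div_pos p1 hr)]
  have hD := B.pos n
  have d1 := dpow_pos B n sb
  have d2 := dpow_pos B n sa
  have d3 := dpow_pos B n ε
  have e : B.d n ^ (sb - sa - ε) = B.d n ^ sb / B.d n ^ sa / B.d n ^ ε := by
    rw [Real.rpow_sub hD, Real.rpow_sub hD]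
  rw [e, div_le_iff₀ (div_pos p1 hr)]
  have e2 : B.d n ^ sa / (w 0 n 1 / rho (lev n 1)) * (B.d n ^ sb / B.d n ^ sa / B.d n ^ ε) *
      (w 1 n 1 / rho (lev n 1)) = B.d n ^ sb * (w 1 n 1 / (B.d n ^ ε * w 0 n 1)) := by
    field_simp
  rw [e2]
  have h2 : 1 ≤ w 1 n 1 / (B.d n ^ ε * w 0 n 1) := by
    rw [one_le_div (mul_pos d3 p0)]; exact h1
  nlinarith

/-- **dead slots of flat flags** -/
theorem nu_flat (h : CtxR G L r g s θ q Rg a B I lev A f b vm w w0 sa sb δ R I0 I' ν own c₀)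
    {p p' : Fin 12 → ℝ} (hp : p ∈ Leg monL R) (hp' : p' ∈ Leg monL R)
    (hk : ∀ k, k ≠ 1 → k ≠ 2 → k ≠ 7 → k ≠ 8 → k ≠ 10 → k ≠ 11 → p' k ≤ p k)
    (h10 : p' 10 ≤ p 10 ∨ p' 10 ≤ p (cs a) + (sb - sa))
    (h11 : p' 11 ≤ p 11 ∨ p' 11 ≤ p (xs a) + (sb - sa)) : ν p ≤ ν p' := by
  refine prof_dead h.ext.chart h.ext.sub h.ext.ne h.ext.prof hp hp' fun K hK ε hε => ?_
  have hK0 : 0 < K := by linarith
  have hε2 := half_pos hε
  filter_upwards [ratio_le h hε2, Xd954.ev_fin B (α := K) hK0 hε] with n hr hfin x hx y hy hn k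
  have hD := B.pos n
  have hD1 := (B.lt n).le
  obtain ⟨c1, c2, c7, c8, c10, c11⟩ := flat_co a L n x y
  have dp := fun t => dpow_pos B n t
  -- exponents
  have mono : ∀ {u v : ℝ}, v ≤ u → B.d n ^ u ≤ B.d n ^ v := fun huv =>
    Real.rpow_le_rpow_of_exponent_ge hD hD1 huv
  have std : ∀ k, p' k ≤ p k →
      |PL504.coN B lev w w0 sa sb (flF a L) n x y k| ≤ B.d n ^ (p' k - ε) := by
    intro k hk
    refine hfin _ _ ((hn k).trans (mul_le_mul_of_nonneg_left (mono ?_) hK0.le))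
    linarith
  have zer : ∀ k, coL (flF a L n x) (flF a L n y) k = 0 →
      |PL504.coN B lev w w0 sa sb (flF a L) n x y k| ≤ B.d n ^ (p' k - ε) := by
    intro k hk
    unfold PL504.coN
    rw [hk, mul_zero, abs_zero]
    exact (dp _).le
  -- dead slots
  have dd : ∀ (k j : Fin 12) (lz : ℝ), 0 ≤ lz →
      PL504.cN B lev w w0 sa sb n k = lz * (B.d n ^ sb / ps (w 1 n 1 / rho (lev n 1))) →
      PL504.cN B lev w w0 sa sb n j = lz * (B.d n ^ sa / ps (w 0 n 1 / rho (lev n 1))) →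
      coL (flF a L n x) (flF a L n y) k = coL (flF a L n x) (flF a L n y) j →
      p' k ≤ p j + (sb - sa) →
      |PL504.coN B lev w w0 sa sb (flF a L) n x y k| ≤ B.d n ^ (p' k - ε) := by
    intro k j lz hlz ek ej hc hle
    have h1 := hn j
    unfold PL504.coN at h1 ⊢
    rw [ek, hc, abs_mul]
    rw [ej, abs_mul] at h1
    have l1 : 0 ≤ B.d n ^ sb / ps (w 1 n 1 / rho (lev n 1)) :=
      (div_pos (dp _) (ps_pos _)).le
    have l0 : 0 ≤ B.d n ^ sa / ps (w 0 n 1 / rho (lev n 1)) :=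
      (div_pos (dp _) (ps_pos _)).le
    rw [abs_of_nonneg (mul_nonneg hlz l1)]
    rw [abs_of_nonneg (mul_nonneg hlz l0)] at h1
    refine hfin _ _ ?_
    set cj := |coL (flF a L n x) (flF a L n y) j| with hcj
    have hcj0 : 0 ≤ cj := abs_nonneg _
    calc lz * (B.d n ^ sb / ps (w 1 n 1 / rho (lev n 1))) * cj
        ≤ lz * ((B.d n ^ sa / ps (w 0 n 1 / rho (lev n 1))) * B.d n ^ (sb - sa - ε / 2)) * cj :=
          mul_le_mul_of_nonneg_right (mul_le_mul_of_nonneg_left hr hlz) hcj0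
      _ = lz * (B.d n ^ sa / ps (w 0 n 1 / rho (lev n 1))) * cj * B.d n ^ (sb - sa - ε / 2) := by
          ring
      _ ≤ K * B.d n ^ p j * B.d n ^ (sb - sa - ε / 2) :=
          mul_le_mul_of_nonneg_right h1 (dp _).le
      _ = K * B.d n ^ (p j + (sb - sa - ε / 2)) := by
          rw [mul_assoc, ← Real.rpow_add hD]
      _ ≤ K * B.d n ^ (p' k - ε / 2) := by
          refine mul_le_mul_of_nonneg_left (mono ?_) hK0.le
          linarith
  by_cases k1 : k = 1
  · rw [k1]; exact zer 1 c1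
  by_cases k2 : k = 2
  · rw [k2]; exact zer 2 c2
  by_cases k7 : k = 7
  · rw [k7]; exact zer 7 c7
  by_cases k8 : k = 8
  · rw [k8]; exact zer 8 c8
  by_cases k10 : k = 10
  · rw [k10]
    rcases h10 with h10 | h10
    · exact std 10 h10
    · refine dd 10 (cs a) 1 zero_le_one ?_ ?_ c10 h10
      · rw [one_mul]; rfl
      · rw [one_mul]
        exact Xd954.uL_cs _ _ _ a
  by_cases k11 : k = 11
  · rw [k11]
    rcases h11 with h11 | h11
    · exact std 11 h11
    · refine dd 11 (xs a) ((2:ℝ) ^ lev n 0 * B.d n ^ w0)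
        (mul_pos (by positivity) (dp _)).le ?_ ?_ c11 h11
      · rfl
      · exact Xd954.uL_xs _ _ _ a
  · exact std k (hk k k1 k2 k7 k8 k10 k11)

/-! ### the record tangent -/

theorem cone_zero : (0 : Fin 12 → ℝ) ∈ coneL := by
  intro k e _
  simp

theorem coneL_closed : IsClosed coneL := by
  have e : coneL = ⋂ k : Fin 12, ⋂ e : {e // e ∈ monL.mon k},
      {p : Fin 12 → ℝ | p k ≤ ∑ s, (e.1 s : ℝ) * p s} := by
    ext p; simp [coneL]
  rw [e]
  refine isClosed_iInter fun k => isClosed_iInter fun e => ?_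
  exact isClosed_le (continuous_apply _)
    (continuous_finset_sum _ fun s _ => continuous_const.mul (continuous_apply s))

/-- interior of the ranges of the record point -/
theorem rec_mem {θa θb : ℝ} (sh : Shift θa θb w0 sa sb δ R) {v0 : ℝ} (h0 : 0 ≤ v0) (h1 : v0 ≤ 1)
    (hR : ∀ k, rL θa θb w0 sa sb v0 k < R) {hh : ℕ → ℝ} (hpos : ∀ l, 0 < hh l)
    (hh0 : Tendsto hh atTop (𝓝 0)) (C : ℝ) : ∀ᶠ l in atTop, ∀ c ∈ coneL, ‖c‖ ≤ C →
      rL θa θb w0 sa sb v0 + hh l • c ∈ Leg monL R := by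
  have key : ∀ k : Fin 12, ∀ᶠ l in atTop, ∀ c : Fin 12 → ℝ, ‖c‖ ≤ C →
      0 ≤ rL θa θb w0 sa sb v0 k + hh l * c k ∧ rL θa θb w0 sa sb v0 k + hh l * c k ≤ R := by
    intro k
    have hp : 0 < rL θa θb w0 sa sb v0 k := sh.d0.trans_le (sh.rL_pos h0 h1 k)
    have hm : 0 < min (rL θa θb w0 sa sb v0 k) (R - rL θa θb w0 sa sb v0 k) :=
      lt_min hp (by linarith [hR k])
    have h2 : Tendsto (fun l => hh l * |C|) atTop (𝓝 0) := by
      have := hh0.mul_const |C|
      simpa using this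
    filter_upwards [h2.eventually_lt_const hm] with l hl c hc
    have h3 := norm_le_pi_norm c k
    rw [Real.norm_eq_abs] at h3
    have h4 : |c k| ≤ |C| := h3.trans (hc.trans (le_abs_self C))
    have h5 : |hh l * c k| ≤ hh l * |C| := by
      rw [abs_mul, abs_of_pos (hpos l)]
      exact mul_le_mul_of_nonneg_left h4 (hpos l).le
    have h6 := h5.trans hl.le
    obtain ⟨h7, h8⟩ := abs_le.1 h6
    have h9 := min_le_left (rL θa θb w0 sa sb v0 k) (R - rL θa θb w0 sa sb v0 k)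
    have h10 := min_le_right (rL θa θb w0 sa sb v0 k) (R - rL θa θb w0 sa sb v0 k)
    constructor <;> linarith
  filter_upwards [eventually_all.2 key] with l hl c hc hcC
  refine ⟨⟨fun k => ?_, fun k e he => ?_⟩, fun k => ?_⟩
  · exact (hl k c hcC).1
  · have e1 : rL θa θb w0 sa sb v0 k = ∑ s, (e s : ℝ) * rL θa θb w0 sa sb v0 s := by
      rw [PL504.rL_nb]
      exact (PL504.eL_wall _ _ _ k he).symm
    have e2 := mul_le_mul_of_nonneg_left (hc k e he) (hpos l).le
    show rL θa θb w0 sa sb v0 k + hh l * c k ≤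
      ∑ s, (e s : ℝ) * (rL θa θb w0 sa sb v0 s + hh l * c s)
    have e3 : ∑ s, (e s : ℝ) * (rL θa θb w0 sa sb v0 s + hh l * c s) =
        ∑ s, (e s : ℝ) * rL θa θb w0 sa sb v0 s + hh l * ∑ s, (e s : ℝ) * c s := by
      rw [Finset.mul_sum, ← Finset.sum_add_distrib]
      exact Finset.sum_congr rfl fun s _ => by ring
    rw [e3, ← e1]
    linarith
  · exact (hl k c hcC).2

/-- Lipschitz bound of the profile in the norm -/
theorem lip_norm {P : Set (Fin 12 → ℝ)} {f : (Fin 12 → ℝ) → ℝ}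
    (hm : ∀ p ∈ P, ∀ q ∈ P, p ≤ q → 0 ≤ f p - f q ∧ f p - f q ≤ ∑ k, (q k - p k))
    (hs : ∀ p ∈ P, ∀ q ∈ P, p ⊔ q ∈ P) :
    ∀ p ∈ P, ∀ q ∈ P, |f p - f q| ≤ 12 * ‖p - q‖ := by
  intro p hp q hq
  have hsq := hs p hp q hq
  have h1 := hm p hp _ hsq le_sup_left
  have h2 := hm q hq _ hsq le_sup_right
  have hb : ∀ a b : Fin 12 → ℝ, ∑ k, ((a ⊔ b) k - a k) ≤ (12 : ℝ) * ‖a - b‖ := by
    intro a b
    calc ∑ k, ((a ⊔ b) k - a k) ≤ ∑ _k : Fin 12, ‖a - b‖ := by
          refine Finset.sum_le_sum fun k _ => ?_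
          have h3 := norm_le_pi_norm (a - b) k
          rw [Pi.sub_apply, Real.norm_eq_abs] at h3
          have h4 := abs_le.1 h3
          rw [Pi.sup_apply]
          rcases le_total (a k) (b k) with hab | hab
          · rw [sup_eq_right.2 hab]; linarith [h4.1]
          · rw [sup_eq_left.2 hab]; linarith [norm_nonneg (a - b)]
      _ = (12 : ℝ) * ‖a - b‖ := by simp
  have h3 := hb p q
  have h4 := hb q p
  rw [sup_comm, norm_sub_rev] at h4
  rw [abs_le]
  constructor <;> linarith [h1.1, h1.2, h2.1, h2.2]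

/-- **record tangents exist** -/
theorem exists_rec (h : CtxR G L r g s θ q Rg a B I lev A f b vm w w0 sa sb δ R I0 I' ν own c₀)
    {v0 : ℝ} (h0 : 0 ≤ v0) (h1 : v0 ≤ 1) (hR : ∀ k, rL (θ 0) (θ 1) w0 sa sb v0 k < R)
    {hh : ℕ → ℝ} (hpos : ∀ l, 0 < hh l) (hh0 : Tendsto hh atTop (𝓝 0)) :
    ∃ φ : ℕ → ℕ, StrictMono φ ∧ ∃ lam : (Fin 12 → ℝ) → ℝ,
      IsTan (Leg monL R) coneL ν (fun _ => rL (θ 0) (θ 1) w0 sa sb v0) (fun l => hh (φ l)) lam := by
  obtain ⟨φ, hφ, lam, hlam⟩ := Crest.Agent.R136.Rc683.exists_tan (J := Unit) (P := fun _ => Leg monL R)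
    (D := fun _ => coneL) (ν := fun _ => ν) (fun _ => coneL_closed) (K := 12) (by norm_num)
    (fun _ => lip_norm h.ext.lip fun p hp q hq => Leg.sup hp hq)
    (x := fun _ => rL (θ 0) (θ 1) w0 sa sb v0) hpos
    (fun _ C => rec_mem h.sh h0 h1 hR hpos hh0 C) (fun _ => cone_zero)
  exact ⟨φ, hφ, lam (), hlam ()⟩

/-- **the record tangent satisfies `ProfI`** -/
theorem profI_of (h : CtxR G L r g s θ q Rg a B I lev A f b vm w w0 sa sb δ R I0 I' ν own c₀)
    (hθ : θ 0 = θ 1) {v0 : ℝ} (hv0 : 0 < v0) (hv1 : v0 < 1)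
    {hh : ℕ → ℝ} (hpos : ∀ l, 0 < hh l) (hh0 : Tendsto hh atTop (𝓝 0))
    {lam : (Fin 12 → ℝ) → ℝ}
    (ht : IsTan (Leg monL R) coneL ν (fun _ => rL (θ 0) (θ 1) w0 sa sb v0) hh lam) :
    ProfI s a lam where
  anti := fun p hp q hq hpq => SgO219.tan_mono hpos ht h.ext.lip p hp q hq hpq
  sm := fun p hp q hq hpq => by
    have h1 := SgO219.tan_smod (P := Leg monL R) (L := coneL) hpos ht
      (fun p hp q hq hi _ => by
        have := h.ext.submod p hp q hq hi
        linarith)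
      p hp q hq hpq (coneL_sup hp hq)
    linarith
  own := fun p hp q hq hpq => by
    have h1 := SgO219.tan_lim hpos ht hp hq
    refine ge_of_tendsto h1 ?_
    have e0 : ∀ c : ℝ, Tendsto (fun l => v0 + hh l * c) atTop (𝓝 v0) := fun c => by
      have := (hh0.mul_const c).const_add v0
      simpa using this
    filter_upwards [SgO219.tan_ev ht hp, SgO219.tan_ev ht hq,
      (e0 (p 0)).eventually (Ioo_mem_nhds hv0 hv1), (e0 (q 0)).eventually (Ioo_mem_nhds hv0 hv1)]
      with l m1 m2 n1 n2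
    have hl := hpos l
    have h2 := PL504.own_inc h.ext m1 m2 (fun k => by
        simp only [Pi.add_apply, Pi.smul_apply, smul_eq_mul]
        have := mul_le_mul_of_nonneg_left (hpq k) hl.le
        linarith) (v := v0 + hh l * p 0) (v' := v0 + hh l * q 0) n1.1.le n1.2.le n2.1.le n2.2.le
      (by simp only [Pi.add_apply, Pi.smul_apply, smul_eq_mul, PL504.rL_zero_slot]; ring)
      (by simp only [Pi.add_apply, Pi.smul_apply, smul_eq_mul, PL504.rL_zero_slot]; ring)
      (fun k => by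
        by_cases hk : k = 0
        · rw [hk, oz]
          simp only [Pi.add_apply, Pi.smul_apply, smul_eq_mul, PL504.rL_zero_slot]
          linarith
        · rw [oR hk hk]
          exact m1.2 k)
    rw [le_div_iff₀ hl]
    nlinarith
  dead := fun p hp q hq hpq => by
    have key : ∀ p ∈ coneL, ∀ q ∈ coneL, (∀ k, k ≠ 1 → k ≠ 2 → k ≠ 7 → k ≠ 8 → p k = q k) →
        lam p ≤ lam q := by
      intro p hp q hq hpq
      have h1 := SgO219.tan_lim hpos ht hp hq
      have h2 : lam p - lam q ≤ 0 := by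
        refine le_of_tendsto h1 ?_
        filter_upwards [SgO219.tan_ev ht hp, SgO219.tan_ev ht hq] with l m1 m2
        have h3 := nu_flat h m1 m2 (fun k k1 k2 k7 k8 _ _ => by
          simp only [Pi.add_apply, Pi.smul_apply, smul_eq_mul]
          rw [hpq k k1 k2 k7 k8]) (Or.inl (by
            simp only [Pi.add_apply, Pi.smul_apply, smul_eq_mul]
            rw [hpq 10 (by decide) (by decide) (by decide) (by decide)])) (Or.inl (by
            simp only [Pi.add_apply, Pi.smul_apply, smul_eq_mul]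
            rw [hpq 11 (by decide) (by decide) (by decide) (by decide)]))
        exact div_nonpos_of_nonpos_of_nonneg (by linarith) (hpos l).le
      linarith
    exact le_antisymm (key p hp q hq hpq)
      (key q hq p hp fun k k1 k2 k7 k8 => (hpq k k1 k2 k7 k8).symm)
  deadP := fun p hp q hq hpq h10 h11 => by
    have h1 := SgO219.tan_lim hpos ht hp hq
    have h2 : lam p - lam q ≤ 0 := by
      refine le_of_tendsto h1 ?_
      filter_upwards [SgO219.tan_ev ht hp, SgO219.tan_ev ht hq] with l m1 m2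
      have hl := hpos l
      have e10 : rL (θ 0) (θ 1) w0 sa sb v0 10 =
          rL (θ 0) (θ 1) w0 sa sb v0 (cs a) + (sb - sa) := by
        rw [hθ, PL504.rL_nb, Xd954.nb_cs]
        show sb + θ 1 * (1 - v0) = _
        ring
      have e11 : rL (θ 0) (θ 1) w0 sa sb v0 11 =
          rL (θ 0) (θ 1) w0 sa sb v0 (xs a) + (sb - sa) := by
        rw [hθ, PL504.rL_nb, Xd954.nb_xs]
        show (w0 + v0) + (sb + θ 1 * (1 - v0)) = _
        ring
      have h3 := nu_flat h m1 m2 (fun k k1 k2 k7 k8 k10 k11 => by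
        simp only [Pi.add_apply, Pi.smul_apply, smul_eq_mul]
        rw [hpq k k1 k2 k7 k8 k10 k11]) (by
          simp only [Pi.add_apply, Pi.smul_apply, smul_eq_mul]
          rcases h10 with h10 | h10
          · left
            have := mul_le_mul_of_nonneg_left h10 hl.le
            linarith
          · right
            rw [e10]
            have := mul_le_mul_of_nonneg_left h10 hl.le
            linarith) (by
          simp only [Pi.add_apply, Pi.smul_apply, smul_eq_mul]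
          rcases h11 with h11 | h11
          · left
            have := mul_le_mul_of_nonneg_left h11 hl.le
            linarith
          · right
            rw [e11]
            have := mul_le_mul_of_nonneg_left h11 hl.le
            linarith)
      exact div_nonpos_of_nonpos_of_nonneg (by linarith) (hpos l).le
    linarith

/-- **D-max and the record identity for the record tangent, round case** -/
theorem dmaxI_of (h : CtxR G L r g s θ q Rg a B I lev A f b vm w w0 sa sb δ R I0 I' ν own c₀)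
    (hθ : θ 0 = θ 1) (hθ0 : 0 < θ 0) (hRg : θ 0 < Rg) {v0 : ℝ} (hv0 : 0 < v0) (hv1 : v0 < 1)
    (hR : ∀ k, rL (θ 0) (θ 1) w0 sa sb v0 k < R)
    {hh : ℕ → ℝ} (hpos : ∀ l, 0 < hh l) (hh0 : Tendsto hh atTop (𝓝 0))
    {lam : (Fin 12 → ℝ) → ℝ}
    (ht : IsTan (Leg monL R) coneL ν (fun _ => rL (θ 0) (θ 1) w0 sa sb v0) hh lam) :
    (∀ v x : ℝ, lam (natB v x x) ≤ DL g s (q 0) (q 1) v x x) ∧
      ∀ t : ℝ, lam (natB t (-(θ 0 * t)) (-(θ 0 * t))) =
        DL g s (q 0) (q 1) t (-(θ 0 * t)) (-(θ 0 * t)) := by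
  have hz := Sg337.tan_zero hpos ht cone_zero
  have hin0 : nb w0 sa sb v0 (θ 0 * (1 - v0)) (θ 1 * (1 - v0)) ∈ PDL w0 sa sb Rg 0 0 R := by
    have hl := h.sh.rL_leg hv0.le hv1.le
    rw [PL504.rL_nb] at hl
    have h1 : 0 < θ 0 * (1 - v0) := mul_pos hθ0 (by linarith)
    have h2 : θ 0 * (1 - v0) ≤ θ 0 := by nlinarith
    refine nb_PD hl hv0.le hv1.le h1 (by linarith) ?_ ?_
    · rw [← hθ, abs_of_pos h1]; linarith
    · rw [← hθ, add_zero]
  have hr0 := h.ext.record v0 hv0.le hv1.le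
  have hd0 := h.ext.dmax _ hin0
  rw [DT_nb] at hd0
  rw [EL_DN] at hr0
  rw [← PL504.rL_nb] at hd0
  have hx : ∀ (t v x y : ℝ), rL (θ 0) (θ 1) w0 sa sb v0 + t • natB v x y =
      nb w0 sa sb (v0 + t * v) (θ 0 * (1 - v0) + t * x) (θ 1 * (1 - v0) + t * y) := by
    intro t v x y
    rw [PL504.rL_nb, PL504.nb_add, PL504.eL_smul, eL_bx9]
  have hlim : ∀ v x y : ℝ, Tendsto (fun l =>
      (ν (rL (θ 0) (θ 1) w0 sa sb v0 + hh l • natB v x y) -
        ν (rL (θ 0) (θ 1) w0 sa sb v0)) / hh l) atTop (𝓝 (lam (natB v x y))) := by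
    intro v x y
    have h1 := SgO219.tan_lim hpos ht (natB_cone v x y) cone_zero
    rw [hz, sub_zero] at h1
    refine h1.congr fun l => ?_
    rw [smul_zero, add_zero]
  have hDN : ∀ t v x y : ℝ, DN g s (q 0) (q 1) (θ 0) (θ 1) (v0 + t * v)
      (θ 0 * (1 - v0) + t * x) (θ 1 * (1 - v0) + t * y) =
      DN g s (q 0) (q 1) (θ 0) (θ 1) v0 (θ 0 * (1 - v0)) (θ 1 * (1 - v0)) +
        t * DL g s (q 0) (q 1) v x y := by
    intro t v x y
    unfold DN DL
    ring
  -- natural boxes near the record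
  have hPD : ∀ v x : ℝ, ∀ᶠ l in atTop, nb w0 sa sb (v0 + hh l * v) (θ 0 * (1 - v0) + hh l * x)
      (θ 1 * (1 - v0) + hh l * x) ∈ PDL w0 sa sb Rg 0 0 R := by
    intro v x
    have e0 : ∀ c u : ℝ, Tendsto (fun l => c + hh l * u) atTop (𝓝 c) := fun c u => by
      have := (hh0.mul_const u).const_add c
      simpa using this
    have h1 : 0 < θ 0 * (1 - v0) := mul_pos hθ0 (by linarith)
    have h2 : θ 0 * (1 - v0) < Rg := by nlinarith
    filter_upwards [SgO219.tan_ev ht (natB_cone v x x),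
      (e0 v0 v).eventually (Ioo_mem_nhds hv0 hv1),
      (e0 (θ 0 * (1 - v0)) x).eventually (Ioo_mem_nhds h1 h2)] with l m1 m2 m3
    rw [hx] at m1
    have e1 : θ 1 * (1 - v0) + hh l * x = θ 0 * (1 - v0) + hh l * x := by rw [hθ]
    refine nb_PD m1 m2.1.le m2.2.le m3.1 m3.2 ?_ ?_
    · rw [e1, abs_of_pos m3.1]; exact m3.2
    · rw [e1, add_zero]
  have hub : ∀ v x : ℝ, lam (natB v x x) ≤ DL g s (q 0) (q 1) v x x := by
    intro v x
    refine le_of_tendsto (hlim v x x) ?_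
    filter_upwards [hPD v x] with l n1
    have hl := hpos l
    have h1 := h.ext.dmax _ n1
    rw [DT_nb, hDN] at h1
    rw [hx, div_le_iff₀ hl]
    linarith
  refine ⟨hub, fun t => le_antisymm (hub _ _) ?_⟩
  refine ge_of_tendsto (hlim t (-(θ 0 * t)) (-(θ 0 * t))) ?_
  have e0 : Tendsto (fun l => v0 + hh l * t) atTop (𝓝 v0) := by
    have := (hh0.mul_const t).const_add v0
    simpa using this
  filter_upwards [e0.eventually (Ioo_mem_nhds hv0 hv1)] with l n4
  have hl := hpos l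
  have h2 := h.ext.record (v0 + hh l * t) n4.1.le n4.2.le
  have e1 : θ 0 * (1 - (v0 + hh l * t)) = θ 0 * (1 - v0) + hh l * (-(θ 0 * t)) := by ring
  have e2 : θ 1 * (1 - (v0 + hh l * t)) = θ 1 * (1 - v0) + hh l * (-(θ 0 * t)) := by
    rw [hθ]; ring
  rw [EL_DN, PL504.rL_nb, e1, e2, hDN] at h2
  rw [hx, le_div_iff₀ hl]
  linarith

end nu

end Crest.Agent.R116.SgI337
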