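import Crest.Agent.R116.SgO4_890

/-!
# R116, K-TEXT II-c, the ISOTROPIC record (helper337), part 4: a position for two groups at once

* `RateP.uniq`     : the rates depend only on the moves inside the group
* **`exists_posn2`** : a position near a natural path `ind S t`, `t ∈ [0,1]`, with the partial rates
  of two pieces and the sum of the increments
-/

set_option autoImplicit false
set_option linter.unusedSectionVars false
set_option linter.unusedVariables false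

open Set Filter Topology Metric MeasureTheory
open scoped NNReal

namespace Crest.Agent.R116.SgI337

open Crest.Agent.R136
open Crest.Agent.R138
open Dg219 (Walls OutS)
open Sg388 (ind exists_rateS)
open SgO219 (RateP dir_of_fderiv clm_eq_sum OutS.lip_piece ind_continuous ind_zero')

variable {ι W κ : Type*} [Fintype ι] [DecidableEq ι] [Fintype W] [DecidableEq κ]

section

variable {Q : Walls ι W} {x0 a b : ι → ℝ} {grp : ι → κ}
  {dh : ι → ℝ} {n : κ → ℝ × ℝ} {A : ℝ × ℝ} {lam : (ι → ℝ) → ℝ} {φ : κ → (ι → ℝ) → ℝ} {r : κ → ℝ}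

/-- the rates depend only on the moves inside the group -/
theorem RateP.uniq (H : OutS grp (Q.L x0 a b) dh n lam A φ r) {k : κ} {d : ℕ}
    {T : (Fin d → ℝ) →L[ℝ] (ι → ℝ)} {G : Fin d → ℝ} {c : ι → ℝ} (h : RateP (φ k) c T G)
    {u u' : Fin d → ℝ} (hu : ∀ i, grp i = k → T u i = T u' i) :
    ∑ i, G i * u i = ∑ i, G i * u' i := by
  have h1 := (h u).congr fun t => by
    rw [H.loc k (c + t • T u) (c + t • T u') fun i hi => by
      simp only [Pi.add_apply, Pi.smul_apply, smul_eq_mul]; rw [hu i hi]]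
  have := tendsto_nhds_unique h1 (h u')
  linarith

/-- rates at a point of differentiability -/
theorem rate_at (H : OutS grp (Q.L x0 a b) dh n lam A φ r) (k : κ) {d : ℕ}
    {T : (Fin d → ℝ) →L[ℝ] (ι → ℝ)} {β : ι → ℝ} {D : Set (Fin d → ℝ)} (hDo : IsOpen D)
    (hDL : ∀ v ∈ D, β + T v ∈ Q.L x0 a b) (hT : ∀ i l, 0 ≤ T (Pi.single i 1) l)
    {v : Fin d → ℝ} (hvD : v ∈ D) (hvd : DifferentiableAt ℝ (fun v => -φ k (β + T v)) v) :
    (∀ i, 0 ≤ fderiv ℝ (fun v => -φ k (β + T v)) v (Pi.single i 1)) ∧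
      (∀ i, fderiv ℝ (fun v => -φ k (β + T v)) v (Pi.single i 1) ≤
        ∑ l ∈ Finset.univ.filter (fun l => grp l = k), T (Pi.single i 1) l) ∧
      RateP (φ k) (β + T v) T (fun i => fderiv ℝ (fun v => -φ k (β + T v)) v (Pi.single i 1)) := by
  set Φ : (Fin d → ℝ) → ℝ := fun v => -φ k (β + T v) with hΦ
  have hdir : RateP (φ k) (β + T v) T (fun i => fderiv ℝ Φ v (Pi.single i 1)) := by
    intro u
    have h1 := (dir_of_fderiv hvd u).neg
    rw [clm_eq_sum (fderiv ℝ Φ v) u] at h1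
    refine h1.congr fun t => ?_
    simp only [hΦ]
    rw [map_add, map_smul, ← add_assoc, ← neg_div]
    congr 1; ring
  have hpart : ∀ i, Tendsto (fun t : ℝ => (Φ (v + t • Pi.single i 1) - Φ v) / t) (𝓝[>] 0)
      (𝓝 (fderiv ℝ Φ v (Pi.single i 1))) := fun i => dir_of_fderiv hvd _
  have hmem : ∀ i, ∀ᶠ t : ℝ in 𝓝[>] 0, 0 < t ∧ v + t • (Pi.single i (1:ℝ) : Fin d → ℝ) ∈ D := by
    intro i
    have hc : Tendsto (fun t : ℝ => v + t • (Pi.single i (1:ℝ) : Fin d → ℝ)) (𝓝[>] 0)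
        (𝓝 v) := by
      have : Continuous fun t : ℝ => v + t • (Pi.single i (1:ℝ) : Fin d → ℝ) := by fun_prop
      have h1 := (this.tendsto 0).mono_left (nhdsWithin_le_nhds (s := Ioi 0))
      simpa using h1
    filter_upwards [self_mem_nhdsWithin, hc.eventually (hDo.mem_nhds hvD)] with t h1 h2
      using ⟨h1, h2⟩
  have hbound : ∀ i, ∀ᶠ t : ℝ in 𝓝[>] 0, 0 ≤ (Φ (v + t • Pi.single i 1) - Φ v) / t ∧
      (Φ (v + t • Pi.single i 1) - Φ v) / t ≤
        ∑ l ∈ Finset.univ.filter (fun l => grp l = k), T (Pi.single i 1) l := by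
    intro i
    filter_upwards [hmem i] with t ht
    have h1 := H.mono k (β + T v) (hDL v hvD) (β + T (v + t • Pi.single i 1))
      (hDL _ ht.2) fun l _ => by
        rw [map_add, map_smul]
        simp only [Pi.add_apply, Pi.smul_apply, smul_eq_mul]
        have := mul_nonneg ht.1.le (hT i l)
        linarith
    have e : Φ (v + t • Pi.single i 1) - Φ v = φ k (β + T v) -
        φ k (β + T (v + t • Pi.single i 1)) := by simp only [hΦ]; ring
    rw [e]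
    refine ⟨div_nonneg h1.1 ht.1.le, ?_⟩
    rw [div_le_iff₀ ht.1]
    refine h1.2.trans (le_of_eq ?_)
    rw [Finset.sum_mul]
    refine Finset.sum_congr rfl fun l _ => ?_
    rw [map_add, map_smul]
    simp only [Pi.add_apply, Pi.smul_apply, smul_eq_mul]
    ring
  exact ⟨fun i => ge_of_tendsto (hpart i) ((hbound i).mono fun _ h => h.1),
    fun i => le_of_tendsto (hpart i) ((hbound i).mono fun _ h => h.2), hdir⟩

/-- the pieces are Lipschitz in the position -/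
theorem lip_pos (H : OutS grp (Q.L x0 a b) dh n lam A φ r) (k : κ) {d : ℕ}
    {T : (Fin d → ℝ) →L[ℝ] (ι → ℝ)} {β : ι → ℝ} {D : Set (Fin d → ℝ)}
    (hDL : ∀ v ∈ D, β + T v ∈ Q.L x0 a b) : ∃ C : ℝ≥0,
      LipschitzOnWith C (fun v => -φ k (β + T v)) D := by
  have hC0 : 0 ≤ (Fintype.card ι : ℝ) * ‖T‖ := by positivity
  refine ⟨⟨_, hC0⟩, LipschitzOnWith.of_dist_le_mul fun v hv v' hv' => ?_⟩
  have h1 := OutS.lip_piece H k (hDL v hv) (hDL v' hv')
  rw [Real.dist_eq]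
  have e1 : -φ k (β + T v) - -φ k (β + T v') = -(φ k (β + T v) - φ k (β + T v')) := by ring
  rw [e1, abs_neg]
  refine h1.trans ?_
  have e2 : β + T v - (β + T v') = T (v - v') := by rw [map_sub]; abel
  rw [e2, dist_eq_norm]
  change _ ≤ (Fintype.card ι : ℝ) * ‖T‖ * ‖v - v'‖
  rw [mul_assoc]
  exact mul_le_mul_of_nonneg_left (T.le_opNorm _) (Nat.cast_nonneg _)

/-- **POSITION FOR TWO GROUPS NEAR A NATURAL PATH** -/
theorem exists_posn2 (H : OutS grp (Q.L x0 a b) dh n lam A φ r) (k k' : κ) {d : ℕ}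
    {T : (Fin d → ℝ) →L[ℝ] (ι → ℝ)} (hT : ∀ i l, 0 ≤ T (Pi.single i 1) l) {β : ι → ℝ}
    (hβ : ∀ i, grp i = k → β i = 0) (hβ' : ∀ i, grp i = k' → β i = 0)
    {D : Set (Fin d → ℝ)} (hDo : IsOpen D)
    (hDL : ∀ v ∈ D, β + T v ∈ Q.L x0 a b) {S : Finset (Fin d)} {w0 : Fin d → ℝ}
    (hw : ∀ ε ∈ Ioc (0:ℝ) 1, ∀ t ∈ Icc (0:ℝ) 1, ε • w0 + ind S t ∈ D) {q δ : ℝ}
    (hq : q ≤ (φ k 0 - φ k (T (ind S 1))) + (φ k' 0 - φ k' (T (ind S 1)))) (hδ : 0 < δ) :
    ∃ v ∈ D, ∃ G G' : Fin d → ℝ,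
      (∀ i, 0 ≤ G i) ∧ (∀ i, 0 ≤ G' i) ∧
      (∀ i, G i ≤ ∑ l ∈ Finset.univ.filter (fun l => grp l = k), T (Pi.single i 1) l) ∧
      (∀ i, G' i ≤ ∑ l ∈ Finset.univ.filter (fun l => grp l = k'), T (Pi.single i 1) l) ∧
      q - δ ≤ ∑ i ∈ S, (G i + G' i) ∧ RateP (φ k) (β + T v) T G ∧
      RateP (φ k') (β + T v) T G' := by
  have hcl : ∀ t ∈ Icc (0:ℝ) 1, β + T (ind S t) ∈ Q.L x0 a b := by
    intro t ht
    have hc : Continuous (fun ε : ℝ => β + T (ε • w0 + ind S t)) := by fun_prop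
    have h1 : Tendsto (fun ε : ℝ => β + T (ε • w0 + ind S t)) (𝓝[>] 0)
        (𝓝 (β + T (ind S t))) := by
      have := (hc.tendsto 0).mono_left (nhdsWithin_le_nhds (s := Ioi 0))
      simpa using this
    refine Walls.isClosed_L.mem_of_tendsto h1 ?_
    filter_upwards [Ioc_mem_nhdsGT (zero_lt_one' ℝ)] with ε hε
    exact hDL _ (hw ε hε t ht)
  have h0 : β ∈ Q.L x0 a b := by
    have := hcl 0 ⟨le_rfl, zero_le_one⟩
    rwa [ind_zero', map_zero, add_zero] at this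
  have h1 := hcl 1 ⟨zero_le_one, le_rfl⟩
  have e0 : φ k β = φ k 0 := H.loc k _ _ fun i hi => hβ i hi
  have e1 : φ k (β + T (ind S 1)) = φ k (T (ind S 1)) := H.loc k _ _ fun i hi => by
    rw [Pi.add_apply, hβ i hi, zero_add]
  have e0' : φ k' β = φ k' 0 := H.loc k' _ _ fun i hi => hβ' i hi
  have e1' : φ k' (β + T (ind S 1)) = φ k' (T (ind S 1)) := H.loc k' _ _ fun i hi => by
    rw [Pi.add_apply, hβ' i hi, zero_add]
  -- choice of ε
  set C : ℝ := (Fintype.card ι : ℝ) * (‖T‖ * ‖w0‖) with hC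
  have hC0 : 0 ≤ C := by positivity
  obtain ⟨ε, hε0, hε1, hε3⟩ : ∃ ε : ℝ, 0 < ε ∧ ε ≤ 1 ∧ ε * (4 * C) ≤ δ / 2 := by
    refine ⟨min 1 (δ / (8 * (C + 1))), by positivity, min_le_left _ _, ?_⟩
    have h2 : min 1 (δ / (8 * (C + 1))) ≤ δ / (8 * (C + 1)) := min_le_right _ _
    have h3 := mul_le_mul_of_nonneg_right h2 (by positivity : 0 ≤ 4 * C)
    have h4 : δ / (8 * (C + 1)) * (4 * C) ≤ δ / 2 := by
      rw [div_mul_eq_mul_div, div_le_div_iff₀ (by positivity) (by norm_num)]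
      nlinarith
    linarith
  -- uniform ball around the segment
  have hcomp : IsCompact ((fun t : ℝ => ε • w0 + ind S t) '' Icc 0 1) :=
    isCompact_Icc.image (continuous_const.add (ind_continuous S))
  have hsub : (fun t : ℝ => ε • w0 + ind S t) '' Icc 0 1 ⊆ D := by
    rintro _ ⟨t, ht, rfl⟩
    exact hw ε ⟨hε0, hε1⟩ t ht
  obtain ⟨ρ, hρ, hρD⟩ := hcomp.exists_thickening_subset_open hDo hsub
  -- increments
  have inc : ∀ j : κ, |φ j (β + T (ε • w0)) - φ j β| ≤ ε * C ∧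
      |φ j (β + T (ε • w0 + ind S 1)) - φ j (β + T (ind S 1))| ≤ ε * C := by
    intro j
    have i0 := OutS.lip_piece H j (hDL _ (hw ε ⟨hε0, hε1⟩ 0 ⟨le_rfl, zero_le_one⟩)) h0
    have i1 := OutS.lip_piece H j (hDL _ (hw ε ⟨hε0, hε1⟩ 1 ⟨zero_le_one, le_rfl⟩)) h1
    rw [ind_zero', add_zero] at i0
    have n0 : ‖β + T (ε • w0) - β‖ ≤ ε * (‖T‖ * ‖w0‖) := by
      rw [add_sub_cancel_left]
      calc ‖T (ε • w0)‖ ≤ ‖T‖ * ‖ε • w0‖ := T.le_opNorm _
        _ = ε * (‖T‖ * ‖w0‖) := by rw [norm_smul, Real.norm_of_nonneg hε0.le]; ring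
    have n1 : ‖β + T (ε • w0 + ind S 1) - (β + T (ind S 1))‖ ≤ ε * (‖T‖ * ‖w0‖) := by
      have e : β + T (ε • w0 + ind S 1) - (β + T (ind S 1)) = T (ε • w0) := by
        rw [map_add]; abel
      rw [e]
      calc ‖T (ε • w0)‖ ≤ ‖T‖ * ‖ε • w0‖ := T.le_opNorm _
        _ = ε * (‖T‖ * ‖w0‖) := by rw [norm_smul, Real.norm_of_nonneg hε0.le]; ring
    have hcard : (0:ℝ) ≤ (Fintype.card ι : ℝ) := Nat.cast_nonneg _
    have e : (Fintype.card ι : ℝ) * (ε * (‖T‖ * ‖w0‖)) = ε * C := by rw [hC]; ring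
    rw [← e]
    exact ⟨i0.trans (mul_le_mul_of_nonneg_left n0 hcard),
      i1.trans (mul_le_mul_of_nonneg_left n1 hcard)⟩
  obtain ⟨a0, a1⟩ := inc k
  obtain ⟨b0, b1⟩ := inc k'
  rw [e0] at a0
  rw [e1] at a1
  rw [e0'] at b0
  rw [e1'] at b1
  have a0' := (abs_le.1 a0).1
  have a1' := (abs_le.1 a1).2
  have b0' := (abs_le.1 b0).1
  have b1' := (abs_le.1 b1).2
  -- the two functions
  set Φ1 : (Fin d → ℝ) → ℝ := fun v => -φ k (β + T v) with hΦ1
  set Φ2 : (Fin d → ℝ) → ℝ := fun v => -φ k' (β + T v) with hΦ2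
  obtain ⟨C1, hl1⟩ := lip_pos H k hDL
  obtain ⟨C2, hl2⟩ := lip_pos H k' hDL
  have hl3 : LipschitzOnWith (C1 + C2) (fun v => Φ1 v + Φ2 v) D := hl1.add hl2
  have hN : ∀ᵐ v : Fin d → ℝ, v ∈ {v | v ∈ D → DifferentiableAt ℝ Φ1 v ∧
      DifferentiableAt ℝ Φ2 v} := by
    have d1 := hl1.ae_differentiableWithinAt_of_mem (μ := (volume : Measure (Fin d → ℝ)))
    have d2 := hl2.ae_differentiableWithinAt_of_mem (μ := (volume : Measure (Fin d → ℝ)))
    filter_upwards [d1, d2] with v h1 h2 hv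
    exact ⟨(h1 hv).differentiableAt (hDo.mem_nhds hv), (h2 hv).differentiableAt (hDo.mem_nhds hv)⟩
  obtain ⟨v, hvN, hvD, hvt, hvd, hvq⟩ := exists_rateS (Φ := fun v => Φ1 v + Φ2 v) hl3
    (p := ε • w0) (S := S) (y := 1) one_pos hρ (fun t ht x hx => hρD (by
      rw [mem_thickening_iff]
      exact ⟨_, ⟨t, ht, rfl⟩, hx⟩)) (a := q - δ / 2) (by
      simp only [hΦ1, hΦ2]
      nlinarith) (half_pos hδ) hN
  obtain ⟨dv1, dv2⟩ := hvN hvD
  obtain ⟨g1, g2, g3⟩ := rate_at H k hDo hDL hT hvD dv1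
  obtain ⟨g1', g2', g3'⟩ := rate_at H k' hDo hDL hT hvD dv2
  refine ⟨v, hvD, _, _, g1, g1', g2, g2', ?_, g3, g3'⟩
  have e : ∀ i, fderiv ℝ (fun v => Φ1 v + Φ2 v) v (Pi.single i 1) =
      fderiv ℝ Φ1 v (Pi.single i 1) + fderiv ℝ Φ2 v (Pi.single i 1) := by
    intro i
    have : fderiv ℝ (fun v => Φ1 v + Φ2 v) v = fderiv ℝ Φ1 v + fderiv ℝ Φ2 v :=
      fderiv_add dv1 dv2
    rw [this]
    rfl
  simp only [e] at hvq
  linarith

end

end Crest.Agent.R116.SgI337
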