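import Crest.Agent.R116.SgI2_337
import Crest.Agent.R116.SgI4_337
import Crest.Agent.R116.RfI_468

/-!
# R116, K-TEXT II-c, the ISOTROPIC record (helper337), part 5: the core

* `T5`        : positions `(α, β, γ, κ)` : `C = (α+γ, β+γ)`, `X = (β+κ, α+κ)`, `N = α+β+γ+κ`
* `DeadL`     : flags dead, `P`, `F` dead below `C_a`, `X_a`, for the second tangent
* **`coreI`** : `M ≤ joint C-rate`, `2 (1 - s) ≤ r_X`, `r_N < 1` ⊢ `M ≤ 2 s`
-/

set_option autoImplicit false
set_option linter.unusedVariables false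

open Set Filter Topology

namespace Crest.Agent.R116.SgI337

open Crest.Agent.R138.Ex926 (Base U IsTan)
open Crest.Agent.R136
open Crest.Agent.R136.Net191
open Crest.Agent.R136.Qg926 (NProf)
open Dg262 (X)
open Dg219 (Walls mw gset mem_gset gC dhC nC gC_zero gC_eq OutS)
open SgO219 (PP OO LT OutL RateP exists_lin L_sub_LT)
open Crest.Agent.R116.ChL222
open Crest.Agent.R116.EvL504 (Coc)
open Sg337 (bx9 coneL mem_coneL natB uC eL_bx9 SI ProfI)
open Sg388 (ind)
open Sg635 (PP_eq no_one ne_one aS aS_nonneg)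
open Xd954 (cs xs)

/-! ### positions -/

/-- moves of a position -/
def T5l : (Fin 4 → ℝ) →ₗ[ℝ] (Fin 12 → ℝ) where
  toFun := fun v => ![0, 0, 0, v 0 + v 2, v 1 + v 2, v 1 + v 3, v 0 + v 3, 0, 0,
    v 0 + v 1 + v 2 + v 3, 0, 0]
  map_add' := fun v w => by
    funext k; fin_cases k <;> simp <;> ring
  map_smul' := fun c v => by
    funext k; fin_cases k <;> simp <;> ring

/-- moves of a position -/
noncomputable def T5 : (Fin 4 → ℝ) →L[ℝ] (Fin 12 → ℝ) := LinearMap.toContinuousLinearMap T5l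

theorem T5_apply (v : Fin 4 → ℝ) : T5 v = ![0, 0, 0, v 0 + v 2, v 1 + v 2, v 1 + v 3, v 0 + v 3,
    0, 0, v 0 + v 1 + v 2 + v 3, 0, 0] := rfl

theorem T5_nonneg (i : Fin 4) (l : Fin 12) : 0 ≤ T5 (Pi.single i 1) l := by
  rw [T5_apply]
  fin_cases i <;> fin_cases l <;> simp

/-- the open set of positions -/
def D5 : Set (Fin 4 → ℝ) := {v | ∀ i, 0 < v i ∧ v i < 3}

theorem D5_open : IsOpen D5 := by
  have e : D5 = ⋂ i, {v : Fin 4 → ℝ | 0 < v i ∧ v i < 3} := by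
    ext v; simp [D5]
  rw [e]
  refine isOpen_iInter_of_finite fun i => ?_
  exact (isOpen_lt continuous_const (continuous_apply i)).inter
    (isOpen_lt (continuous_apply i) continuous_const)

/-- background: only the height -/
def bg5 : Fin 12 → ℝ := bx9 8 0 0 0 0 0 0 0 0

theorem mem5 {θ l : ℝ} (hl : 0 < l) {v : Fin 4 → ℝ} (hv : v ∈ D5) :
    bg5 + T5 v ∈ (mw monL).L (xI l) aS (bI θ) := by
  rw [mem_LI hl, T5_apply]
  obtain ⟨a0, b0⟩ := hv 0
  obtain ⟨a1, b1⟩ := hv 1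
  obtain ⟨a2, b2⟩ := hv 2
  obtain ⟨a3, b3⟩ := hv 3
  change (0:ℝ) + (v 1 + v 3) ≤ (8 + 0) + (0 + (v 0 + v 2)) ∧
    (0:ℝ) + (v 0 + v 3) ≤ (8 + 0) + (0 + (v 1 + v 2)) ∧
    (0:ℝ) + (v 0 + v 1 + v 2 + v 3) ≤ (0 + (v 0 + v 2)) + (0 + (v 1 + v 3)) ∧
    (0:ℝ) + (v 0 + v 1 + v 2 + v 3) ≤ (0 + (v 1 + v 2)) + (0 + (v 0 + v 3)) ∧
    (0:ℝ) + 0 ≤ (8 + 0) + (0 + 0)
  refine ⟨?_, ?_, ?_, ?_, ?_⟩ <;> linarith

theorem path5 {ε t : ℝ} (hε : ε ∈ Ioc (0:ℝ) 1) (ht : t ∈ Icc (0:ℝ) 1) :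
    ε • (fun _ => (1:ℝ)) + ind ({2, 3} : Finset (Fin 4)) t ∈ D5 := by
  intro i
  have h1 := hε.1
  have h2 := hε.2
  have h3 := ht.1
  have h4 := ht.2
  fin_cases i <;> simp [ind] <;> constructor <;> linarith

/-- slots which are alive -/
def Al (k : Fin 12) : Prop := k ≠ 1 ∧ k ≠ 2 ∧ k ≠ 7 ∧ k ≠ 8 ∧ k ≠ 10 ∧ k ≠ 11

/-- `1, 2, 7, 8` dead, `10`, `11` dead below `C_a`, `X_a` -/
def DeadL (L : Set (Fin 12 → ℝ)) (a : Fin 2) (lam : (Fin 12 → ℝ) → ℝ) : Prop :=
  ∀ p ∈ L, ∀ q ∈ L, (∀ k, Al k → p k = q k) → q 10 ≤ p (cs a) → q 11 ≤ p (xs a) → lam p ≤ lam q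

/-- from the record tangent to the second tangent -/
theorem deadL_of {s : ℝ} {a : Fin 2} {g lam : (Fin 12 → ℝ) → ℝ} (H : ProfI s a g) {θ l : ℝ}
    {z : ℝ × ℝ} {h : ℕ → ℝ} (hpos : ∀ m, 0 < h m) {L : Set (Fin 12 → ℝ)}
    (ht : IsTan coneL L g (fun _ => SI θ l z.1 z.2) h lam) : DeadL L a lam := by
  intro p hp q hq hpq h10 h11
  have h1 := SgO219.tan_lim hpos ht hp hq
  have h2 : lam p - lam q ≤ 0 := by
    refine le_of_tendsto h1 ?_
    filter_upwards [SgO219.tan_ev ht hp, SgO219.tan_ev ht hq] with m m1 m2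
    have hm := hpos m
    have e10 : SI θ l z.1 z.2 10 = SI θ l z.1 z.2 (cs a) := by
      fin_cases a <;> rfl
    have e11 : SI θ l z.1 z.2 11 = SI θ l z.1 z.2 (xs a) := by
      fin_cases a <;> rfl
    have h3 := H.deadP _ m1 _ m2 (fun k k1 k2 k7 k8 k10 k11 => by
      simp only [Pi.add_apply, Pi.smul_apply, smul_eq_mul]
      rw [hpq k ⟨k1, k2, k7, k8, k10, k11⟩]) (Or.inr (by
        simp only [Pi.add_apply, Pi.smul_apply, smul_eq_mul]
        rw [e10]
        have := mul_le_mul_of_nonneg_left h10 hm.le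
        linarith)) (Or.inr (by
        simp only [Pi.add_apply, Pi.smul_apply, smul_eq_mul]
        rw [e11]
        have := mul_le_mul_of_nonneg_left h11 hm.le
        linarith))
    exact div_nonpos_of_nonpos_of_nonneg (by linarith) hm.le
  linarith

theorem al_cs (a : Fin 2) : Al (cs a) := by
  fin_cases a <;> exact ⟨by decide, by decide, by decide, by decide, by decide, by decide⟩
theorem al_xs (a : Fin 2) : Al (xs a) := by
  fin_cases a <;> exact ⟨by decide, by decide, by decide, by decide, by decide, by decide⟩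

/-- from the second tangent to the third tangent: all dead slots are dead -/
theorem dead3 {L L' : Set (Fin 12 → ℝ)} {a : Fin 2} {lam lam' : (Fin 12 → ℝ) → ℝ}
    (H : DeadL L a lam) {c0 : Fin 12 → ℝ} (h10 : c0 10 < c0 (cs a)) (h11 : c0 11 < c0 (xs a))
    {h : ℕ → ℝ} (hpos : ∀ m, 0 < h m) (h0 : Tendsto h atTop (𝓝 0))
    (ht : IsTan L L' lam (fun _ => c0) h lam') {p q : Fin 12 → ℝ} (hp : p ∈ L') (hq : q ∈ L')
    (hpq : ∀ k, Al k → p k = q k) : lam' p = lam' q := by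
  have key : ∀ p ∈ L', ∀ q ∈ L', (∀ k, Al k → p k = q k) → lam' p ≤ lam' q := by
    intro p hp q hq hpq
    have h1 := SgO219.tan_lim hpos ht hp hq
    have e0 : ∀ c u : ℝ, Tendsto (fun m => c + h m * u) atTop (𝓝 c) := fun c u => by
      have := (h0.mul_const u).const_add c
      simpa using this
    have h2 : lam' p - lam' q ≤ 0 := by
      refine le_of_tendsto h1 ?_
      have f10 := (e0 (c0 10) (q 10)).eventually_lt (e0 (c0 (cs a)) (p (cs a))) h10
      have f11 := (e0 (c0 11) (q 11)).eventually_lt (e0 (c0 (xs a)) (p (xs a))) h11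
      filter_upwards [SgO219.tan_ev ht hp, SgO219.tan_ev ht hq, f10, f11] with m m1 m2 m3 m4
      have hm := hpos m
      have h3 := H _ m1 _ m2 (fun k hk => by
        simp only [Pi.add_apply, Pi.smul_apply, smul_eq_mul]
        rw [hpq k hk]) (by
          simp only [Pi.add_apply, Pi.smul_apply, smul_eq_mul]
          exact m3.le) (by
          simp only [Pi.add_apply, Pi.smul_apply, smul_eq_mul]
          exact m4.le)
      exact div_nonpos_of_nonpos_of_nonneg (by linarith) hm.le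
    linarith
  exact le_antisymm (key p hp q hq hpq) (key q hq p hp fun k hk => (hpq k hk).symm)

theorem cone_sub {θ l : ℝ} : coneL ⊆ (mw monL).L (xI l) aS (bI θ) :=
  fun p hp w _ => hp w.1 w.2.1 w.2.2

section core

variable {ι : ℕ → Type*} [∀ n, DecidableEq (ι n)] {B : Base} {I0 I : ∀ n, Finset (ι n)}
  {co : ∀ n, ι n → ι n → Fin 12 → ℝ} {C R : ℝ} {ν : (Fin 12 → ℝ) → ℝ}

theorem vec_nonneg {a b c d e f : ℝ} (ha : 0 ≤ a) (hb : 0 ≤ b) (hc : 0 ≤ c) (hd : 0 ≤ d)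
    (he : 0 ≤ e) (hf : 0 ≤ f) :
    ∀ k, 0 ≤ (![a, 0, 0, b, c, d, e, 0, 0, f, 0, 0] : Fin 12 → ℝ) k := by
  intro k
  fin_cases k
  · exact ha
  · exact le_rfl
  · exact le_rfl
  · exact hb
  · exact hc
  · exact hd
  · exact he
  · exact le_rfl
  · exact le_rfl
  · exact hf
  · exact le_rfl
  · exact le_rfl

theorem vec_le {a b c d e f : ℝ} (ha : a ≤ 1) (hb : b ≤ 1) (hc : c ≤ 1) (hd : d ≤ 1)
    (he : e ≤ 1) (hf : f ≤ 1) :
    ∀ k, (![a, 0, 0, b, c, d, e, 0, 0, f, 0, 0] : Fin 12 → ℝ) k ≤ 1 := by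
  intro k
  fin_cases k
  · exact ha
  · exact zero_le_one
  · exact zero_le_one
  · exact hb
  · exact hc
  · exact hd
  · exact he
  · exact zero_le_one
  · exact zero_le_one
  · exact hf
  · exact zero_le_one
  · exact zero_le_one

set_option maxHeartbeats 2000000 in
/-- **the core of the isotropic row** -/
theorem coreI (hN : NProf B I0 I co monL C R ν) (hcoc : ∀ n, Coc (co n)) (i₀ : ∀ n, ι n)
    {θ l : ℝ} (hθ : 0 < θ) (hl : 0 < l) {x : ℕ → Fin 12 → ℝ} {h : ℕ → ℝ}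
    (hpos : ∀ m, 0 < h m) (h0 : Tendsto h atTop (𝓝 0))
    (hx : ∀ m, x m 9 = x m 3 + x m 5) (hx' : ∀ m, x m 9 = x m 4 + x m 6)
    {lam : (Fin 12 → ℝ) → ℝ}
    (ht : IsTan (Leg monL R) ((mw monL).L (xI l) aS (bI θ)) ν x h lam)
    {K : ℝ} (hK : 0 ≤ K) (hlip : ∀ p ∈ (mw monL).L (xI l) aS (bI θ),
      ∀ q ∈ (mw monL).L (xI l) aS (bI θ), |lam p - lam q| ≤ K * ‖p - q‖)
    {A : ℝ × ℝ} {φ : ℕ → (Fin 12 → ℝ) → ℝ} {r : ℕ → ℝ}
    (H : OutS (gC aS (bI θ)) ((mw monL).L (xI l) aS (bI θ)) (dhC aS (bI θ)) (nC aS (bI θ)) lam A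
      φ r) {a : Fin 2} (hdead : DeadL ((mw monL).L (xI l) aS (bI θ)) a lam) {s M : ℝ}
    (iC : M ≤ -lam uC) (hA1 : 2 * (1 - s) ≤ r (kX θ)) (hrN : r (kN θ) < 1) (hM : 2 * s < M) :
    False := by
  classical
  set L : Set (Fin 12 → ℝ) := (mw monL).L (xI l) aS (bI θ) with hL
  have hθ' : θ ≠ 0 := hθ.ne'
  have hφ0 : ∀ k, φ k 0 = 0 := fun k => H.zero k 0 fun i _ => rfl
  -- the joint C-rate
  have mC : uC ∈ L := by
    rw [hL, mem_LI hl]
    simp [uC, bx9]
  have eC : lam uC = φ 0 uC := by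
    rw [H.sum _ mC, gsetI_sum hθ']
    have a1 : φ (kz θ) uC = 0 := H.zero _ _ fun i hi => by
      rw [(grpI_slots hθ' i).1.1 hi]; rfl
    have a2 : φ (kX θ) uC = 0 := H.zero _ _ fun i hi => by
      rcases (grpI_slots hθ' i).2.1.1 hi with rfl | rfl | rfl <;> rfl
    have a3 : φ (kN θ) uC = 0 := H.zero _ _ fun i hi => by
      rw [(grpI_slots hθ' i).2.2.1 hi]; rfl
    rw [a1, a2, a3]; ring
  have eT : T5 (ind {2, 3} 1) = ![0, 0, 0, 1, 1, 1, 1, 0, 0, 2, 0, 0] := by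
    rw [T5_apply]
    funext k; fin_cases k <;> simp [ind] <;> norm_num
  have eC' : φ 0 (T5 (ind {2, 3} 1)) = φ 0 uC := by
    rw [eT]
    refine H.loc 0 _ _ fun i hi => ?_
    rw [gI_zero] at hi
    fin_cases i <;> simp [uC, bx9] at hi ⊢
  -- the joint X-rate
  have mX : ∀ F : ℝ, F ≤ 1 → bx9 1 0 0 0 1 0 0 0 F ∈ L := by
    intro F hF
    rw [hL, mem_LI hl]
    simp [bx9]
    exact hF
  have sumX : ∀ F : ℝ, F ≤ 1 → lam (bx9 1 0 0 0 1 0 0 0 F) =
      φ (kz θ) (bx9 1 0 0 0 1 0 0 0 0) + φ (kX θ) (bx9 1 0 0 0 1 0 0 0 F) := by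
    intro F hF
    rw [H.sum _ (mX F hF), gsetI_sum hθ']
    have a1 : φ 0 (bx9 1 0 0 0 1 0 0 0 F) = 0 := H.zero _ _ fun i hi => by
      rw [gI_zero] at hi
      fin_cases i <;> simp [bx9] at hi ⊢
    have a2 : φ (kz θ) (bx9 1 0 0 0 1 0 0 0 F) = φ (kz θ) (bx9 1 0 0 0 1 0 0 0 0) :=
      H.loc _ _ _ fun i hi => by
        rw [(grpI_slots hθ' i).1.1 hi]
        show (1:ℝ) = 1
        rfl
    have a3 : φ (kN θ) (bx9 1 0 0 0 1 0 0 0 F) = 0 := H.zero _ _ fun i hi => by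
      rw [(grpI_slots hθ' i).2.2.1 hi]; rfl
    rw [a1, a2, a3]; ring
  have eX : φ (kX θ) (bx9 1 0 0 0 1 0 0 0 0) = -r (kX θ) := by
    have h1 : φ (kX θ) (bx9 1 0 0 0 1 0 0 0 1) = -(r (kX θ) * 1) :=
      H.rate (kX θ) _ (mX 1 le_rfl) 1 fun i hi => by
        rcases (grpI_slots hθ' i).2.1.1 hi with rfl | rfl | rfl
        · rw [dhI_X.2.1]; show (1:ℝ) = 1 * 1; norm_num
        · rw [dhI_X.2.2.1]; show (1:ℝ) = 1 * 1; norm_num
        · rw [dhI_X.2.2.2.2]; show (1:ℝ) = 1 * 1; norm_num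
    have k1 : lam (bx9 1 0 0 0 1 0 0 0 1) = lam (bx9 1 0 0 0 1 0 0 0 0) := by
      have hal : ∀ F F' : ℝ, ∀ k, Al k → bx9 1 0 0 0 1 0 0 0 F k = bx9 1 0 0 0 1 0 0 0 F' k := by
        rintro F F' k ⟨k1, k2, k7, k8, k10, k11⟩
        fin_cases k <;> simp [bx9] at k11 ⊢
      refine le_antisymm ?_ ?_
      · refine hdead _ (mX 1 le_rfl) _ (mX 0 zero_le_one) (hal _ _) ?_ ?_
        · fin_cases a <;> simp [bx9, cs]
        · fin_cases a <;> simp [bx9, xs]
      · refine hdead _ (mX 0 zero_le_one) _ (mX 1 le_rfl) (hal _ _) ?_ ?_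
        · fin_cases a <;> simp [bx9, cs]
        · fin_cases a <;> simp [bx9, xs]
    rw [sumX 1 le_rfl, sumX 0 zero_le_one] at k1
    linarith
  have eX' : φ (kX θ) (T5 (ind {2, 3} 1)) = -r (kX θ) := by
    rw [← eX, eT]
    refine H.loc _ _ _ fun i hi => ?_
    rcases (grpI_slots hθ' i).2.1.1 hi with rfl | rfl | rfl <;> simp [bx9]
  -- the position
  set δ : ℝ := (M - 2 * s) / 2 with hδ
  have hδ0 : 0 < δ := by rw [hδ]; linarith
  obtain ⟨v, hv, G, G', g0, g0', g1, g1', gS, hG, hG'⟩ := exists_posn2 H 0 (kX θ)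
    (T := T5) T5_nonneg (β := bg5) (fun i hi => by
      rw [gI_zero] at hi
      fin_cases i <;> simp [bg5, bx9] at hi ⊢) (fun i hi => by
      rcases (grpI_slots hθ' i).2.1.1 hi with rfl | rfl | rfl <;> rfl) D5_open
    (fun v hv => mem5 hl hv) (S := {2, 3}) (w0 := fun _ => 1) (fun ε hε t ht => path5 hε ht)
    (q := M + r (kX θ)) (δ := δ) (by
      rw [hφ0, hφ0, eC', eX', ← eC]
      linarith) hδ0
  -- relations between the rates
  have s4 : ∀ (G u : Fin 4 → ℝ), ∑ i, G i * u i = G 0 * u 0 + G 1 * u 1 + G 2 * u 2 + G 3 * u 3 :=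
    fun G u => by rw [Fin.sum_univ_four]
  have r3 : G 3 = 0 := by
    have h1 := RateP.uniq H hG (u := Pi.single 3 1) (u' := 0) fun i hi => by
      rw [gI_zero] at hi
      rw [T5_apply, map_zero]
      fin_cases i <;> simp at hi ⊢
    rw [s4, s4] at h1
    simpa using h1
  have r2 : G 2 = G 0 + G 1 := by
    have h1 := RateP.uniq H hG (u := Pi.single 2 1) (u' := ![1, 1, 0, 0]) fun i hi => by
      rw [gI_zero] at hi
      rw [T5_apply, T5_apply]
      fin_cases i <;> simp at hi ⊢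
    rw [s4, s4] at h1
    simpa using h1
  have r2' : G' 2 = 0 := by
    have h1 := RateP.uniq H hG' (u := Pi.single 2 1) (u' := 0) fun i hi => by
      rw [T5_apply, map_zero]
      rcases (grpI_slots hθ' i).2.1.1 hi with rfl | rfl | rfl <;> simp
    rw [s4, s4] at h1
    simpa using h1
  have r3' : G' 3 = G' 0 + G' 1 := by
    have h1 := RateP.uniq H hG' (u := Pi.single 3 1) (u' := ![1, 1, 0, 0]) fun i hi => by
      rw [T5_apply, T5_apply]
      rcases (grpI_slots hθ' i).2.1.1 hi with rfl | rfl | rfl <;> simp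
    rw [s4, s4] at h1
    simpa using h1
  have hsum : M + r (kX θ) - δ ≤ (G 0 + G 1) + (G' 0 + G' 1) := by
    refine gS.trans (le_of_eq ?_)
    rw [Finset.sum_pair (by decide), r2, r3, r2', r3']
    ring
  -- bounds
  have f0 : (Finset.univ.filter fun i => gC aS (bI θ) i = 0) =
      ({1, 2, 3, 4, 7, 8, 10} : Finset (Fin 12)) := by
    ext i
    rw [Finset.mem_filter, gI_zero]
    simp
  have fX : (Finset.univ.filter fun i => gC aS (bI θ) i = kX θ) =
      ({5, 6, 11} : Finset (Fin 12)) := by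
    ext i
    rw [Finset.mem_filter, (grpI_slots hθ' i).2.1]
    simp
  have b0 : G 0 ≤ 1 := by
    refine (g1 0).trans (le_of_eq ?_)
    rw [f0, T5_apply]
    simp
  have b1 : G 1 ≤ 1 := by
    refine (g1 1).trans (le_of_eq ?_)
    rw [f0, T5_apply]
    simp
  have b0' : G' 0 ≤ 1 := by
    refine (g1' 0).trans (le_of_eq ?_)
    rw [fX, T5_apply]
    simp
  have b1' : G' 1 ≤ 1 := by
    refine (g1' 1).trans (le_of_eq ?_)
    rw [fX, T5_apply]
    simp
  -- the third tangent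
  set c0 : Fin 12 → ℝ := bg5 + T5 v with hc0
  have mc0 : c0 ∈ L := mem5 hl hv
  obtain ⟨ψ, ϑ, lam', φ', hψ, hϑ, t1, t2, HL⟩ := exists_lin (J := Unit) (f := fun _ => ν)
    (lam := fun _ => lam) (j0 := ()) hK hpos h0 (fun _ => ht) (fun _ => hlip) H mc0
    (s := fun m => 1 / ((m:ℝ) + 1)) (fun m => by positivity)
    tendsto_one_div_add_atTop_nhds_zero_nat
  have t1 := t1 ()
  have t2 := t2 ()
  set L' : Set (Fin 12 → ℝ) := LT (mw monL) (xI l) aS (bI θ) c0 with hL'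
  have hLL : coneL ⊆ L' := cone_sub.trans L_sub_LT
  have c10 : c0 10 < c0 (cs a) := by
    have := hv 0
    have := hv 1
    have := hv 2
    rw [hc0, T5_apply]
    fin_cases a
    · show (0:ℝ) + 0 < 0 + (v 0 + v 2)
      linarith [(hv 0).1, (hv 2).1]
    · show (0:ℝ) + 0 < 0 + (v 1 + v 2)
      linarith [(hv 1).1, (hv 2).1]
  have c11 : c0 11 < c0 (xs a) := by
    rw [hc0, T5_apply]
    fin_cases a
    · show (0:ℝ) + 0 < 0 + (v 1 + v 3)
      linarith [(hv 1).1, (hv 3).1]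
    · show (0:ℝ) + 0 < 0 + (v 0 + v 3)
      linarith [(hv 0).1, (hv 3).1]
  have spos : ∀ m, 0 < (fun m : ℕ => 1 / ((ϑ m:ℝ) + 1)) m := fun m => by positivity
  have s0 : Tendsto (fun m : ℕ => 1 / ((ϑ m:ℝ) + 1)) atTop (𝓝 0) :=
    (tendsto_one_div_add_atTop_nhds_zero_nat (𝕜 := ℝ)).comp hϑ.tendsto_atTop
  -- the linear formula
  set ρ : Fin 12 → ℝ := ![r (kz θ), 0, 0, G 0, G 1, G' 1, G' 0, 0, 0, r (kN θ), 0, 0] with hρ
  have hlin : ∀ c ∈ coneL, lam' () c = -∑ k, ρ k * c k := by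
    intro c hc
    set c' : Fin 12 → ℝ := ![c 0, 0, 0, c 3, c 4, c 5, c 6, 0, 0, c 9, 0, 0] with hc'
    have mc' : c' ∈ L' := by
      intro w hw htw
      have hw' := (actI_iff hl w).1 hw
      have h1 := (hLL hc) w hw htw
      obtain ⟨k, e, he⟩ := w
      change nf e at hw'
      change c k ≤ ∑ s, (e s : ℝ) * c s at h1
      change c' k ≤ ∑ s, (e s : ℝ) * c' s
      -- wall of slot 11 is not tight
      have hk := nf_slot he hw'
      have hz11 : k ≠ 11 := by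
        rintro rfl
        change c0 11 = ∑ s, (e s : ℝ) * c0 s at htw
        have e11 : c0 11 = 0 := by
          rw [hc0, T5_apply]
          show (0:ℝ) + 0 = 0
          norm_num
        rw [e11, sum12] at htw
        have p0 : 0 < c0 0 := by
          rw [hc0, T5_apply]
          show (0:ℝ) < 8 + 0
          norm_num
        have v0 := (hv 0).1
        have v1 := (hv 1).1
        have v2 := (hv 2).1
        have v3 := (hv 3).1
        have p3 : 0 < c0 3 := by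
          rw [hc0, T5_apply]
          show (0:ℝ) < 0 + (v 0 + v 2)
          linarith
        have p4 : 0 < c0 4 := by
          rw [hc0, T5_apply]
          show (0:ℝ) < 0 + (v 1 + v 2)
          linarith
        have p5 : 0 < c0 5 := by
          rw [hc0, T5_apply]
          show (0:ℝ) < 0 + (v 1 + v 3)
          linarith
        have p6 : 0 < c0 6 := by
          rw [hc0, T5_apply]
          show (0:ℝ) < 0 + (v 0 + v 3)
          linarith
        have p9 : 0 < c0 9 := by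
          rw [hc0, T5_apply]
          show (0:ℝ) < 0 + (v 0 + v 1 + v 2 + v 3)
          linarith
        have p10 : c0 10 = 0 := by
          rw [hc0, T5_apply]
          show (0:ℝ) + 0 = 0
          norm_num
        obtain ⟨n1, n2, n7, n8⟩ := hw'
        rw [n1, n2, n7, n8, p10, e11] at htw
        change e ∈ mfL 11 at he
        simp [mfL] at he
        rcases he with rfl | rfl | rfl | rfl | rfl | rfl | rfl | rfl | rfl | rfl | rfl | rfl |
          rfl <;> simp at n1 n2 n7 n8 htw <;> linarith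
      have hz10 : k ≠ 10 := by
        rintro rfl
        obtain ⟨n1, n2, n7, n8⟩ := hw'
        change e ∈ mfL 10 at he
        simp [mfL] at he
        rcases he with rfl | rfl | rfl | rfl | rfl | rfl | rfl <;> simp at n1 n2 n7 n8
      have hk' : c' k = c k := by
        obtain ⟨k1, k2, k7, k8⟩ := hk
        rw [hc']
        fin_cases k <;> simp at k1 k2 k7 k8 hz10 hz11 ⊢
      have he' : ∑ s, (e s : ℝ) * c' s = ∑ s, (e s : ℝ) * c s := by
        rw [sum12, sum12, hc']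
        obtain ⟨n1, n2, n7, n8⟩ := hw'
        have n11 : e 11 = 0 := monL.low k e he 11 (by
          have h12 := k.isLt
          show k.val ≤ 11
          omega)
        have n10 : e 10 = 0 := monL.low k e he 10 (by
          have h12 := k.isLt
          have h13 : k.val ≠ 11 := fun h => hz11 (Fin.ext h)
          show k.val ≤ 10
          omega)
        rw [n1, n2, n7, n8, n10, n11]
        simp
      rw [hk', he']
      exact h1
    have e1 : lam' () c = lam' () c' := dead3 hdead c10 c11 spos s0 t2 (hLL hc) mc' fun k hk => by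
      obtain ⟨k1, k2, k7, k8, k10, k11⟩ := hk
      rw [hc']
      fin_cases k <;> simp at k1 k2 k7 k8 k10 k11 ⊢
    rw [e1, HL.sum _ mc', gsetI_sum hθ']
    have q0 : φ' 0 c' = -(G 0 * c 3 + G 1 * c 4) := by
      rw [HL.rate H hG mc' (u := ![c 3, c 4, 0, 0]) fun i hi => by
        rw [gI_zero] at hi
        rw [T5_apply, hc']
        fin_cases i <;> simp at hi ⊢]
      rw [s4]
      simp
    have qX : φ' (kX θ) c' = -(G' 0 * c 6 + G' 1 * c 5) := by
      rw [HL.rate H hG' mc' (u := ![c 6, c 5, 0, 0]) fun i hi => by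
        rw [T5_apply, hc']
        rcases (grpI_slots hθ' i).2.1.1 hi with rfl | rfl | rfl <;> simp]
      rw [s4]
      simp
    have qz : φ' (kz θ) c' = -(r (kz θ) * c 0) := by
      refine HL.nat (kz θ) (c0 0) (fun i hi => ?_) c' mc' (c 0) fun i hi => ?_
      · rw [(grpI_slots hθ' i).1.1 hi, dhI_X.1, mul_one]
      · rw [(grpI_slots hθ' i).1.1 hi, dhI_X.1, mul_one]; rfl
    have qN : φ' (kN θ) c' = -(r (kN θ) * c 9) := by
      refine HL.nat (kN θ) (c0 9) (fun i hi => ?_) c' mc' (c 9) fun i hi => ?_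
      · rw [(grpI_slots hθ' i).2.2.1 hi, dhI_X.2.2.2.1, mul_one]
      · rw [(grpI_slots hθ' i).2.2.1 hi, dhI_X.2.2.2.1, mul_one]; rfl
    rw [q0, qX, qz, qN]
    simp only [Fin.sum_univ_succ, hρ]
    simp
    ring
  -- the rate of the height
  have rz0 : 0 ≤ r (kz θ) := H.r_nonneg _ fun i hi => by
    rw [(grpI_slots hθ' i).1.1 hi, dhI_X.1]; norm_num
  have rN0 : 0 ≤ r (kN θ) := H.r_nonneg _ fun i hi => by
    rw [(grpI_slots hθ' i).2.2.1 hi, dhI_X.2.2.2.1]; norm_num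
  have mz : bx9 1 0 0 0 0 0 0 0 0 ∈ L := by
    rw [hL, mem_LI hl]
    simp [bx9]
  have rz1 : r (kz θ) ≤ 1 := by
    have h1 : φ (kz θ) (bx9 1 0 0 0 0 0 0 0 0) = -(r (kz θ) * 1) :=
      H.rate (kz θ) _ mz 1 fun i hi => by
        rw [(grpI_slots hθ' i).1.1 hi, dhI_X.1]; show (1:ℝ) = 1 * 1; norm_num
    have fz : (Finset.univ.filter fun i => gC aS (bI θ) i = kz θ) =
        ({0} : Finset (Fin 12)) := by
      ext i
      rw [Finset.mem_filter, (grpI_slots hθ' i).1]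
      simp
    have h2 := (H.mono (kz θ) 0 (by rw [hL, mem_LI hl]; simp) _ mz fun i hi => by
      rw [(grpI_slots hθ' i).1.1 hi]
      show (0:ℝ) ≤ 1
      norm_num).2
    rw [fz, hφ0, h1, Finset.sum_singleton] at h2
    have e : (bx9 1 0 0 0 0 0 0 0 0 : Fin 12 → ℝ) 0 - (0 : Fin 12 → ℝ) 0 = 1 := by
      show (1:ℝ) - 0 = 1
      norm_num
    rw [e] at h2
    linarith
  have hr : ∀ k, 0 ≤ ρ k := vec_nonneg rz0 (g0 0) (g0 1) (g0' 1) (g0' 0) rN0
  have hr1 : ∀ k, ρ k ≤ 1 := vec_le rz1 b0 b1 b1' b0' hrN.le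
  have hpos3 : ∀ m, 0 < h (ψ m) * (1 / ((ϑ m:ℝ) + 1)) := fun m => mul_pos (hpos _) (spos m)
  have h03 : Tendsto (fun m => h (ψ m) * (1 / ((ϑ m:ℝ) + 1))) atTop (𝓝 0) := by
    have := (h0.comp hψ.tendsto_atTop).mul s0
    simpa using this
  have hleg : Leg monL 1 ⊆ coneL := fun p hp k e he => hp.1.wall k e he
  have e93 : c0 9 = c0 3 + c0 5 := by
    rw [hc0, T5_apply]
    show (0:ℝ) + (v 0 + v 1 + v 2 + v 3) = (0 + (v 0 + v 2)) + (0 + (v 1 + v 3))
    ring
  have e94 : c0 9 = c0 4 + c0 6 := by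
    rw [hc0, T5_apply]
    show (0:ℝ) + (v 0 + v 1 + v 2 + v 3) = (0 + (v 1 + v 2)) + (0 + (v 0 + v 3))
    ring
  have F1 := RfI468.h1I hN hcoc hpos3 h03 t1 one_pos (hleg.trans hLL)
    (fun c hc => hlin c (hleg hc)) hr hr1 i₀ (fun m => by
      simp only [Pi.add_apply, Pi.smul_apply, smul_eq_mul]
      rw [hx, e93]; ring)
  have F2 := RfI468.h2I hN hcoc hpos3 h03 t1 one_pos (hleg.trans hLL)
    (fun c hc => hlin c (hleg hc)) hr hr1 i₀ (fun m => by
      simp only [Pi.add_apply, Pi.smul_apply, smul_eq_mul]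
      rw [hx', e94]; ring)
  have k1 : ρ 3 ≤ 1 - ρ 5 := by
    by_contra hcon
    exact absurd (F1 (not_le.1 hcon)) (not_le.2 hrN)
  have k2 : ρ 4 ≤ 1 - ρ 6 := by
    by_contra hcon
    exact absurd (F2 (not_le.1 hcon)) (not_le.2 hrN)
  have k3 : G 0 ≤ 1 - G' 1 := k1
  have k4 : G 1 ≤ 1 - G' 0 := k2
  rw [hδ] at hsum
  linarith

end core

end Crest.Agent.R116.SgI337
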