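import Crest.Agent.R116.SgI5_337
import Crest.Agent.R116.SgI3_337
import Crest.Agent.R116.SgZ_388
import Crest.Agent.R116.WinU_954
import Crest.Agent.R116.Sd2_369

/-!
# R116, K-TEXT II-c, the ISOTROPIC record (helper337), part 6: a generic point of the plane

* `SigI`            : the package at a generic point of the plane of the frozen flags
* **`exists_sigI`** : it exists
* **`sigI_false`**  : `SigI` + (A1) ⊢ False
-/

set_option autoImplicit false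
set_option linter.unusedVariables false

open Set Filter Topology MeasureTheory

namespace Crest.Agent.R116.SgI337

open Crest.Agent.R138.Ex926 (Base U IsTan)
open Crest.Agent.R136
open Crest.Agent.R136.Net191
open Crest.Agent.R136.Qg926 (NProf)
open Crest.Agent.R136.MkA627
open Crest.Agent.R136.TD627
open Crest.Agent.R136.Lq196
open Dg262 (X SupOn)
open Dg219 (Walls mw gset mem_gset gC dhC nC gC_zero gC_eq OutS)
open SgO219 (PP OO LT OutL RateP exists_lin L_sub_LT)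
open Crest.Agent.R116.ChL222
open Crest.Agent.R116.EvL504 (Coc)
open Crest.Agent.R116.KF439 (flF)
open Crest.Agent.R116.PL504 (nb rL DN eL βL oL Shift)
open Crest.Agent.R116.Gd222 (TSet sN PDL DT)
open Crest.Agent.R116.KI439
open Crest.Agent.R116.Tw468 (OutT OutR)
open Crest.Agent.R116.CtxB468
open Sg337 (bx9 coneL mem_coneL natB uC eL_bx9 SI ProfI DL sigI_all)
open Sg635 (PP_eq no_one ne_one aS aS_nonneg)
open SgZ388 (exists_pack_dir)

/-- **the package at a generic point of the plane of the frozen flags** -/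
structure SigI (R w0 sa sb s c q0 q1 δ : ℝ) (θ : Fin 2 → ℝ) (a : Fin 2) (ν : (Fin 12 → ℝ) → ℝ)
    (v0 l : ℝ) (z : ℝ × ℝ) (u k : ℕ → ℝ) (lam : (Fin 12 → ℝ) → ℝ) (A : ℝ × ℝ)
    (φ : ℕ → (Fin 12 → ℝ) → ℝ) (r : ℕ → ℝ) : Prop where
  v00 : 0 < v0
  v01 : v0 < 1
  hl : 0 < l
  zle : z.1 ≤ z.2
  upos : ∀ m, 0 < u m
  u0 : Tendsto u atTop (𝓝 0)
  kpos : ∀ m, 0 < k m
  k0 : Tendsto k atTop (𝓝 0)
  tan : IsTan (Leg monL R) ((mw monL).L (xI l) aS (bI (θ 0))) ν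
    (fun m => rL (θ 0) (θ 1) w0 sa sb v0 + u m • SI (θ 0) l z.1 z.2) (fun m => u m * k m) lam
  lip : ∀ p ∈ (mw monL).L (xI l) aS (bI (θ 0)), ∀ q ∈ (mw monL).L (xI l) aS (bI (θ 0)),
    |lam p - lam q| ≤ 12 * ‖p - q‖
  out : OutS (gC aS (bI (θ 0))) ((mw monL).L (xI l) aS (bI (θ 0))) (dhC aS (bI (θ 0)))
    (nC aS (bI (θ 0))) lam A φ r
  dead : DeadL ((mw monL).L (xI l) aS (bI (θ 0))) a lam
  own : ∀ p ∈ (mw monL).L (xI l) aS (bI (θ 0)), ∀ q ∈ (mw monL).L (xI l) aS (bI (θ 0)), p ≤ q →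
    (1 - s) * (q 0 - p 0) ≤ lam p - lam q
  iC : c + q0 + q1 ≤ -lam uC
  sum : r (kz (θ 0)) + r (kX (θ 0)) + r (kN (θ 0)) ≤ 4 - s - c + δ

section ctx

variable {G : Geo TSet (Fin 2)} {L : ℕ → ℕ → LRay} {r : ℕ → ℝ} {c s : ℝ} {θ q : Fin 2 → ℝ}
    {Rg : ℝ} {a : Fin 2} {B : Base}
    {I : ℕ → Finset (ℕ × ℝ)} {lev : ℕ → ℚ → ℕ} {A : ℕ → ℝ}
    {f : ℕ → ℚ → ℕ → ℤ → ℕ} {b : ℕ → ℚ → ℕ → TSet} {vm : ℕ → ℚ → ℝ} {w : Fin 2 → ℕ → ℚ → ℝ}
    {w0 sa sb δ R : ℝ} {I0 I' : ℕ → Finset (ℕ × ℝ)} {ν own : (Fin 12 → ℝ) → ℝ} {c₀ : ℝ}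

/-- the value of the record tangent at the end of the segment -/
theorem SI_rec {θ l : ℝ} {s c q0 q1 : ℝ} {a : Fin 2} {g : (Fin 12 → ℝ) → ℝ} (H : ProfI s a g)
    (hD : ∀ v x : ℝ, g (natB v x x) ≤ DL c s q0 q1 v x x)
    (hR : ∀ t : ℝ, g (natB t (-(θ * t)) (-(θ * t))) = DL c s q0 q1 t (-(θ * t)) (-(θ * t)))
    (hl : 0 ≤ l) : g (SI θ l 0 0) = 0 := by
  have m1 := (sigI_all (y := 0) (l := l) (θ := θ) H hD hR (v := 0) (t := 0) le_rfl le_rfl
    (by simp; linarith) (by simp; linarith) (by simp; linarith)).1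
  have m2 : natB 0 (-(θ * 0)) (-(θ * 0)) ∈ coneL := by
    rw [mem_coneL]
    simp [natB, bx9]
  have h1 := H.dead _ m1 _ m2 fun k k1 k2 k7 k8 => by
    fin_cases k <;> simp [SI, natB, bx9] at k1 k2 k7 k8 ⊢
  rw [h1, hR]
  unfold DL
  ring

/-- **a generic point of the plane exists** -/
theorem exists_sigI
    (h : CtxR G L r c s θ q Rg a B I lev A f b vm w w0 sa sb δ R I0 I' ν own c₀)
    (hθ : θ 0 = θ 1) (hθ0 : 0 < θ 0) (hRg : θ 0 < Rg)
    (hR : ∀ k, rL (θ 0) (θ 1) w0 sa sb (1 / 2) k < R) {δ' : ℝ} (hδ : 0 < δ') :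
    ∃ (l : ℝ) (z : ℝ × ℝ) (u k : ℕ → ℝ) (lam : (Fin 12 → ℝ) → ℝ) (A' : ℝ × ℝ)
      (φ : ℕ → (Fin 12 → ℝ) → ℝ) (rr : ℕ → ℝ),
      SigI R w0 sa sb s c (q 0) (q 1) δ' θ a ν (1 / 2) l z u k lam A' φ rr := by
  classical
  have hh : ∀ l : ℕ, (0:ℝ) < 1 / ((l:ℝ) + 1) := fun l => by positivity
  obtain ⟨ϕ, hϕ, gT, hT⟩ := exists_rec h (v0 := 1 / 2) (by norm_num) (by norm_num) hR hh
    tendsto_one_div_add_atTop_nhds_zero_nat
  set hT' : ℕ → ℝ := fun l => 1 / ((ϕ l : ℝ) + 1) with hhT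
  have hpos : ∀ l, 0 < hT' l := fun l => hh _
  have hh0 : Tendsto hT' atTop (𝓝 0) :=
    (tendsto_one_div_add_atTop_nhds_zero_nat (𝕜 := ℝ)).comp hϕ.tendsto_atTop
  have H : ProfI s a gT := profI_of h hθ (by norm_num) (by norm_num) hpos hh0 hT
  obtain ⟨hD, hE⟩ := dmaxI_of h hθ hθ0 hRg (v0 := 1 / 2) (by norm_num) (by norm_num) hR hpos hh0
    hT
  set l : ℝ := 4 * (6 + θ 0) with hl
  have hl0 : 0 < l := by rw [hl]; linarith
  set Q : ℝ := 4 - s - c with hQ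
  obtain ⟨ε, hε0, hε1, hε2⟩ : ∃ ε : ℝ, 0 < ε ∧ ε ≤ 1 ∧ |Q| * ε ≤ δ' / 2 := by
    have h1 : 0 < |Q| + 1 := by positivity
    refine ⟨min 1 (δ' / 2 / (|Q| + 1)), lt_min one_pos (by positivity), min_le_left _ _, ?_⟩
    have h2 := min_le_right 1 (δ' / 2 / (|Q| + 1))
    have h3 := (le_div_iff₀ h1).1 h2
    have h4 : 0 < min 1 (δ' / 2 / (|Q| + 1)) := lt_min one_pos (by positivity)
    nlinarith
  set η : ℝ := ε / 4 with hη
  have hη0 : 0 < η := by rw [hη]; linarith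
  set Ω : Set (ℝ × ℝ) := {z | z.1 < z.2 ∧ |z.1| < 4 ∧ |z.2| < 1} with hΩ
  have hθa : ∀ {t : ℝ}, |t| < 1 → |θ 0 * t| ≤ θ 0 := by
    intro t ht
    rw [abs_mul, abs_of_pos hθ0]
    nlinarith
  have hΩO : Ω ⊆ OO (mw monL) (xI l) aS (bI (θ 0)) := fun z hz =>
    OOI hl0 (by rw [hl]; linarith [hz.2.1]) (by
      have := hθa hz.2.2
      rw [hl]; linarith)
  have hseg : ∀ w ∈ Icc (0:ℝ) 1, Metric.ball ((-1 - ε, 0) + w • ((1, 0) : ℝ × ℝ)) η ⊆ Ω := by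
    intro w hw z hz
    rw [Metric.mem_ball, Prod.dist_eq, max_lt_iff, Real.dist_eq, Real.dist_eq] at hz
    simp only [Prod.fst_add, Prod.smul_fst, smul_eq_mul, mul_one, Prod.snd_add, Prod.smul_snd,
      mul_zero, add_zero, sub_zero] at hz
    obtain ⟨h1, h2⟩ := hz
    have h1' := abs_lt.1 h1
    have h2' := abs_lt.1 h2
    refine ⟨?_, ?_, ?_⟩
    · linarith [hw.2, h1'.2, h2'.1]
    · rw [abs_lt]; constructor <;> linarith [hw.1, hw.2, h1'.1, h1'.2]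
    · rw [abs_lt]; constructor <;> linarith [h2'.1, h2'.2]
  have hlip : ∀ j : Unit, ∀ p ∈ PP (mw monL), ∀ q ∈ PP (mw monL),
      |(fun _ : Unit => gT) j p - (fun _ : Unit => gT) j q| ≤ 12 * ‖p - q‖ := by
    rw [PP_eq]
    exact fun _ => lip_norm H.anti fun p hp q hq => Sg337.coneL_sup hp hq
  have hm : ∀ p ∈ PP (mw monL), ∀ q ∈ PP (mw monL), p ≤ q →
      0 ≤ (fun _ : Unit => gT) () p - (fun _ : Unit => gT) () q ∧
        (fun _ : Unit => gT) () p - (fun _ : Unit => gT) () q ≤ ∑ i, (q i - p i) := by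
    rw [PP_eq]; exact H.anti
  have hs : SupOn ((fun _ : Unit => gT) ()) (PP (mw monL)) := by
    rw [PP_eq]; exact fun p hp q hq hi _ => H.sm p hp q hq hi
  have hX : ∀ z : ℝ × ℝ, X (xI l) aS (bI (θ 0)) z = SI (θ 0) l z.1 z.2 := X_eqI (θ 0) l
  have hqq : (fun _ : Unit => gT) () (X (xI l) aS (bI (θ 0)) (-1 - ε, 0)) -
      (fun _ : Unit => gT) () (X (xI l) aS (bI (θ 0)) ((-1 - ε, 0) + (1:ℝ) • ((1, 0) : ℝ × ℝ))) ≤
        (Q * (1 + ε)) * 1 := by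
    rw [hX, hX]
    simp only [Prod.fst_add, Prod.smul_fst, smul_eq_mul, mul_one, Prod.snd_add, Prod.smul_snd,
      mul_zero, add_zero]
    have a1 : |(-1:ℝ) - ε| = 1 + ε := by rw [abs_of_neg (by linarith)]; ring
    have a2 : |(-1:ℝ) - ε + 1| = ε := by
      rw [show (-1:ℝ) - ε + 1 = -ε by ring, abs_neg, abs_of_pos hε0]
    have h1 := (sigI_all (y := 0) (l := l) (θ := θ 0) H hD hE (v := -1 - ε) (t := 0)
      (by linarith) le_rfl (by rw [a1, hl]; linarith) (by simp; linarith)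
      (by simp; linarith)).2.2.1
    have h2 := SI_rec H hD hE hl0.le
    have h3 := (sigI_all (y := 0) (l := l) (θ := θ 0) H hD hE (v := -1 - ε + 1) (t := 0)
      (by linarith) le_rfl (by rw [a2, hl]; linarith) (by simp; linarith)
      (by simp; linarith)).1
    have h4 := (sigI_all (y := 0) (l := l) (θ := θ 0) H hD hE (v := 0) (t := 0)
      le_rfl le_rfl (by simp; linarith) (by simp; linarith) (by simp; linarith)).1
    have hle : SI (θ 0) l (-1 - ε + 1) 0 ≤ SI (θ 0) l 0 0 := by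
      unfold SI
      refine Sg337.bx9_le ?_ ?_ ?_ ?_ ?_ ?_ ?_ ?_ ?_ <;> linarith
    have h5 := (H.anti _ h3 _ h4 hle).1
    unfold DL at h1
    simp only [mul_zero, neg_zero] at h1
    rw [hQ]
    nlinarith
  have hkpos : ∀ l : ℕ, (0:ℝ) < 1 / ((l : ℝ) + 1) := fun l => by positivity
  obtain ⟨z, hzN, hzΩ, -, ϑ, lam, D, φ, rr, P, hsum⟩ := exists_pack_dir (mw monL)
    (g := fun _ : Unit => gT) (j0 := ()) (K := 12) (by norm_num) hlip hm hs aS_nonneg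
    (fullI (θ 0) l) hΩO (d := (1, 0)) zero_lt_one hη0 hseg hqq (half_pos hδ)
    (N := Set.univ) (Eventually.of_forall fun _ => Set.mem_univ _) hkpos
    tendsto_one_div_add_atTop_nhds_zero_nat
  have ht : ∀ j : Unit, IsTan (Leg monL R) (PP (mw monL)) ((fun _ : Unit => ν) j)
      (fun _ => rL (θ 0) (θ 1) w0 sa sb (1 / 2)) hT' ((fun _ : Unit => gT) j) := by
    rw [PP_eq]; exact fun _ => hT
  obtain ⟨ψ, hψ, -, hd⟩ := P.diag (f := fun _ : Unit => ν) hpos ht (Pr := fun _ _ => True)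
    (fun m => Eventually.of_forall fun _ => trivial)
  have hd := hd ()
  rw [hX] at hd
  have htg := P.tan ()
  rw [PP_eq, hX] at htg
  have hl0' : (0:ℝ) ≤ l := hl0.le
  refine ⟨l, z, hT' ∘ ψ, fun m => 1 / ((ϑ m : ℝ) + 1), lam (), (D (1, 0), D (0, 1)), φ, rr, ?_⟩
  exact
    { v00 := by norm_num
      v01 := by norm_num
      hl := hl0
      zle := hzΩ.1.le
      upos := fun m => hpos _
      u0 := hh0.comp hψ.tendsto_atTop
      kpos := fun m => hkpos _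
      k0 := tendsto_one_div_add_atTop_nhds_zero_nat.comp P.mono.tendsto_atTop
      tan := hd
      lip := P.lip (j := ()) (hlip ())
      out := P.out
      dead := deadL_of H P.pos htg
      own := P.lowS () 0 (1 - s) (by rw [PP_eq]; exact H.own)
      iC := by
        have huC : uC ∈ (mw monL).L (xI l) aS (bI (θ 0)) := by
          rw [mem_LI hl0]
          simp [uC, bx9]
        have h1 := P.incr hzΩ () (e := uC) huC (y0 := 1) one_pos
          (qi := c + q 0 + q 1) (fun z' hz' y hy => by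
          rw [hX]
          obtain ⟨z1, z2, z3⟩ := hz'
          have := hθa z3
          exact (sigI_all H hD hE (l := l) (θ := θ 0) (v := z'.1) (t := z'.2) (y := y) z1.le
            hy.1.le (by rw [hl]; linarith [hy.2]) (by rw [hl]; linarith [hy.2])
            (by rw [hl]; linarith [hy.2])).2.2.2) 1 one_pos
        rw [one_smul, mul_one] at h1
        exact h1
      sum := by
        have h1 := P.sum
        rw [gsetI_sum' hθ0.ne'] at h1
        rw [h1]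
        have h2 : Q * ε ≤ δ' / 2 := by
          have := mul_le_mul_of_nonneg_right (le_abs_self Q) hε0.le
          linarith
        linarith }

/-- **a generic point and (A1) are contradictory** -/
theorem sigI_false
    (h : CtxR G L r c s θ q Rg a B I lev A f b vm w w0 sa sb δ R I0 I' ν own c₀)
    (hθ : θ 0 = θ 1) (hθ0 : 0 < θ 0) (hq0 : 0 ≤ q 0) (hq1 : 0 ≤ q 1) {δ' : ℝ}
    (hδ : δ' < c - 2 * s) (hc : 2 * s < c)
    {v0 l : ℝ} {z : ℝ × ℝ} {u k : ℕ → ℝ} {lam : (Fin 12 → ℝ) → ℝ} {A' : ℝ × ℝ}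
    {φ : ℕ → (Fin 12 → ℝ) → ℝ} {rr : ℕ → ℝ}
    (H : SigI R w0 sa sb s c (q 0) (q 1) δ' θ a ν v0 l z u k lam A' φ rr)
    (hA1 : 2 * (1 - s) ≤ rr (kX (θ 0))) : False := by
  set LL : Set (Fin 12 → ℝ) := (mw monL).L (xI l) aS (bI (θ 0)) with hLL
  have hφ0 : ∀ k, φ k 0 = 0 := fun k => H.out.zero k 0 fun i _ => rfl
  -- own
  have hz : 1 - s ≤ rr (kz (θ 0)) := by
    have m0 : (0 : Fin 12 → ℝ) ∈ LL := by rw [hLL, mem_LI H.hl]; simp
    have mz : bx9 1 0 0 0 0 0 0 0 0 ∈ LL := by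
      rw [hLL, mem_LI H.hl]
      simp [bx9]
    have h1 := H.own 0 m0 _ mz (fun i => by fin_cases i <;> simp [bx9])
    have h2 : bx9 1 0 0 0 0 0 0 0 0 0 = 1 := rfl
    rw [h2, H.out.sum _ m0, H.out.sum _ mz, gsetI_sum hθ0.ne', gsetI_sum hθ0.ne', hφ0, hφ0, hφ0,
      hφ0] at h1
    have a1 : φ 0 (bx9 1 0 0 0 0 0 0 0 0) = 0 := H.out.zero _ _ fun i hi => by
      rw [gI_zero] at hi
      fin_cases i <;> simp [bx9] at hi ⊢
    have a2 : φ (kX (θ 0)) (bx9 1 0 0 0 0 0 0 0 0) = 0 := H.out.zero _ _ fun i hi => by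
      rcases (grpI_slots hθ0.ne' i).2.1.1 hi with rfl | rfl | rfl <;> rfl
    have a3 : φ (kN (θ 0)) (bx9 1 0 0 0 0 0 0 0 0) = 0 := H.out.zero _ _ fun i hi => by
      rw [(grpI_slots hθ0.ne' i).2.2.1 hi]; rfl
    have a4 : φ (kz (θ 0)) (bx9 1 0 0 0 0 0 0 0 0) = -(rr (kz (θ 0)) * 1) :=
      H.out.rate (kz (θ 0)) _ mz 1 fun i hi => by
        rw [(grpI_slots hθ0.ne' i).1.1 hi, dhI_X.1]; show (1:ℝ) = 1 * 1; norm_num
    rw [a1, a2, a3, a4] at h1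
    simp only [Pi.zero_apply] at h1
    linarith
  have hcoc : ∀ n, Coc (PL504.coN B lev w w0 sa sb (flF a L) n) := fun n => Sd369.coc_N _ _ _ _ _ _ _ _
  have hR0 : 0 ≤ R := by
    have h1 := h.sh.rL_leg (v := 0) le_rfl zero_le_one
    exact (h1.1.nonneg 0).trans (h1.2 0)
  have hN : NProf B I0 I' (PL504.coN B lev w w0 sa sb (flF a L)) monL 2 R ν :=
    WinU954.nprof_of_ext hR0 h.ext
  have hsum := H.sum
  have hmul : Tendsto (fun m => u m * k m) atTop (𝓝 0) := by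
    have := H.u0.mul H.k0
    simpa using this
  refine coreI hN hcoc (fun _ => (0, 0)) hθ0 H.hl (x := fun m => rL (θ 0) (θ 1) w0 sa sb v0 +
    u m • SI (θ 0) l z.1 z.2) (fun m => mul_pos (H.upos m) (H.kpos m)) hmul ?_ ?_ H.tan (by norm_num) H.lip H.out H.dead H.iC hA1 (by linarith)
    (by linarith)
  · intro m
    simp only [Pi.add_apply, Pi.smul_apply, smul_eq_mul]
    have e3 : SI (θ 0) l z.1 z.2 3 = -(θ 0 * z.2) := rfl
    have e5 : SI (θ 0) l z.1 z.2 5 = z.1 + -(θ 0 * z.2) := rfl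
    have e9 : SI (θ 0) l z.1 z.2 9 = z.1 + 2 * (-(θ 0 * z.2)) := rfl
    have r9 : rL (θ 0) (θ 1) w0 sa sb v0 9 = rL (θ 0) (θ 1) w0 sa sb v0 3 +
        rL (θ 0) (θ 1) w0 sa sb v0 5 := by
      simp [rL, eL]; ring
    rw [e3, e5, e9, r9]
    ring
  · intro m
    simp only [Pi.add_apply, Pi.smul_apply, smul_eq_mul]
    have e3 : SI (θ 0) l z.1 z.2 4 = -(θ 0 * z.2) := rfl
    have e5 : SI (θ 0) l z.1 z.2 6 = z.1 + -(θ 0 * z.2) := rfl
    have e9 : SI (θ 0) l z.1 z.2 9 = z.1 + 2 * (-(θ 0 * z.2)) := rfl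
    have r9 : rL (θ 0) (θ 1) w0 sa sb v0 9 = rL (θ 0) (θ 1) w0 sa sb v0 4 +
        rL (θ 0) (θ 1) w0 sa sb v0 6 := by
      simp [rL, eL]; ring
    rw [e3, e5, e9, r9]
    ring

end ctx

end Crest.Agent.R116.SgI337
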