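import Crest.Agent.R116.SgI6_337
import Crest.Agent.R116.Gi4_222

/-!
# R116, K-TEXT II-c, the ISOTROPIC record (helper337), part 7: (A1)

* **`a1_I`** : (A1) at a generic point of the plane of the frozen flags
-/

set_option autoImplicit false
set_option linter.unusedVariables false

open Set Filter Topology MeasureTheory

namespace Crest.Agent.R116.SgI337

open Crest.Agent.R138.Ex926 (Base U IsTan)
open Crest.Agent.R136
open Crest.Agent.R136.Net191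
open Crest.Agent.R136.Qg926
open Crest.Agent.R136.MkA627
open Crest.Agent.R136.TD627
open Crest.Agent.R136.Lq196
open Dg262 (X SupOn)
open Dg219 (Walls mw gset mem_gset gC dhC nC gC_zero gC_eq OutS)
open SgO219 (PP OO LT OutL RateP exists_lin L_sub_LT)
open Crest.Agent.R116.ChL222
open Crest.Agent.R116.EvL504 (Coc)
open Crest.Agent.R116.KF439 (flF)
open Crest.Agent.R116.PL504 (nb rL DN eL βL oL Shift)
open Crest.Agent.R116.Gd222 (TSet sN PDL DT)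
open Crest.Agent.R116.KI439
open Crest.Agent.R116.Tw468 (OutT OutR)
open Crest.Agent.R116.CtxB468
open Sg337 (bx9 coneL mem_coneL natB uC eL_bx9 SI ProfI DL sigI_all)
open Sg635 (PP_eq no_one ne_one aS aS_nonneg)
open Nar863 (a1_iso isoT)
open Crest.Agent.R116.Xd954 (cs xs)

section ctx

variable {G : Geo TSet (Fin 2)} {L : ℕ → ℕ → LRay} {r : ℕ → ℝ} {c s : ℝ} {θ q : Fin 2 → ℝ}
    {Rg : ℝ} {a : Fin 2} {B : Base}
    {I : ℕ → Finset (ℕ × ℝ)} {lev : ℕ → ℚ → ℕ} {A : ℕ → ℝ}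
    {f : ℕ → ℚ → ℕ → ℤ → ℕ} {b : ℕ → ℚ → ℕ → TSet} {vm : ℕ → ℚ → ℝ} {w : Fin 2 → ℕ → ℚ → ℝ}
    {w0 sa sb δ R : ℝ} {I0 I' : ℕ → Finset (ℕ × ℝ)} {ν own : (Fin 12 → ℝ) → ℝ} {c₀ : ℝ}

theorem iso0 (t c x : ℝ) : isoT t c x 0 = t := rfl
theorem iso5 (t c x : ℝ) : isoT t c x 5 = x := rfl
theorem iso6 (t c x : ℝ) : isoT t c x 6 = x := rfl
theorem iso9 (t c x : ℝ) : isoT t c x 9 = 0 := rfl
theorem iso11 (t c x : ℝ) : isoT t c x 11 = 0 := rfl

/-- the increment of the positions -/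
theorem eX_of {θ l : ℝ} (hl : 0 < l) (hθ' : θ ≠ 0) {lam : (Fin 12 → ℝ) → ℝ} {A : ℝ × ℝ}
    {φ : ℕ → (Fin 12 → ℝ) → ℝ} {r : ℕ → ℝ}
    (H : OutS (gC aS (bI θ)) ((mw monL).L (xI l) aS (bI θ)) (dhC aS (bI θ)) (nC aS (bI θ)) lam A
      φ r) {a : Fin 2} (hdead : DeadL ((mw monL).L (xI l) aS (bI θ)) a lam) :
    φ (kX θ) (bx9 1 0 0 0 1 0 0 0 0) = -r (kX θ) := by
  set L : Set (Fin 12 → ℝ) := (mw monL).L (xI l) aS (bI θ) with hL
  have mX : ∀ F : ℝ, F ≤ 1 → bx9 1 0 0 0 1 0 0 0 F ∈ L := by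
    intro F hF
    rw [hL, mem_LI hl]
    simp [bx9]
    exact hF
  have sumX : ∀ F : ℝ, F ≤ 1 → lam (bx9 1 0 0 0 1 0 0 0 F) =
      φ (kz θ) (bx9 1 0 0 0 1 0 0 0 0) + φ (kX θ) (bx9 1 0 0 0 1 0 0 0 F) := by
    intro F hF
    rw [H.sum _ (mX F hF), gsetI_sum hθ']
    have a1 : φ 0 (bx9 1 0 0 0 1 0 0 0 F) = 0 := H.zero _ _ fun i hi => by
      rw [gI_zero] at hi
      fin_cases i <;> simp [bx9] at hi ⊢
    have a2 : φ (kz θ) (bx9 1 0 0 0 1 0 0 0 F) = φ (kz θ) (bx9 1 0 0 0 1 0 0 0 0) :=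
      H.loc _ _ _ fun i hi => by
        rw [(grpI_slots hθ' i).1.1 hi]
        show (1:ℝ) = 1
        rfl
    have a3 : φ (kN θ) (bx9 1 0 0 0 1 0 0 0 F) = 0 := H.zero _ _ fun i hi => by
      rw [(grpI_slots hθ' i).2.2.1 hi]; rfl
    rw [a1, a2, a3]; ring
  have h1 : φ (kX θ) (bx9 1 0 0 0 1 0 0 0 1) = -(r (kX θ) * 1) :=
    H.rate (kX θ) _ (mX 1 le_rfl) 1 fun i hi => by
      rcases (grpI_slots hθ' i).2.1.1 hi with rfl | rfl | rfl
      · rw [dhI_X.2.1]; show (1:ℝ) = 1 * 1; norm_num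
      · rw [dhI_X.2.2.1]; show (1:ℝ) = 1 * 1; norm_num
      · rw [dhI_X.2.2.2.2]; show (1:ℝ) = 1 * 1; norm_num
  have k1 : lam (bx9 1 0 0 0 1 0 0 0 1) = lam (bx9 1 0 0 0 1 0 0 0 0) := by
    have hal : ∀ F F' : ℝ, ∀ k, Al k → bx9 1 0 0 0 1 0 0 0 F k = bx9 1 0 0 0 1 0 0 0 F' k := by
      rintro F F' k ⟨k1, k2, k7, k8, k10, k11⟩
      fin_cases k <;> simp [bx9] at k11 ⊢
    refine le_antisymm ?_ ?_
    · refine hdead _ (mX 1 le_rfl) _ (mX 0 zero_le_one) (hal _ _) ?_ ?_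
      · fin_cases a <;> simp [bx9, cs]
      · fin_cases a <;> simp [bx9, xs]
    · refine hdead _ (mX 0 zero_le_one) _ (mX 1 le_rfl) (hal _ _) ?_ ?_
      · fin_cases a <;> simp [bx9, cs]
      · fin_cases a <;> simp [bx9, xs]
  rw [sumX 1 le_rfl, sumX 0 zero_le_one] at k1
  linarith

/-- **(A1) at a generic point of the plane** -/
theorem a1_I (h : CtxR G L r c s θ q Rg a B I lev A f b vm w w0 sa sb δ R I0 I' ν own c₀)
    (hθ : θ 0 = θ 1) (hθ0 : 0 < θ 0) (hRg : θ 0 < Rg) (hq1 : 0 < q 1) (hs0 : 0 ≤ s) (hs1 : s ≤ 1)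
    {δ' : ℝ}
    {v0 l : ℝ} {z : ℝ × ℝ} {u k : ℕ → ℝ} {lam : (Fin 12 → ℝ) → ℝ} {A' : ℝ × ℝ}
    {φ : ℕ → (Fin 12 → ℝ) → ℝ} {rr : ℕ → ℝ}
    (H : SigI R w0 sa sb s c (q 0) (q 1) δ' θ a ν v0 l z u k lam A' φ rr) :
    2 * (1 - s) ≤ rr (kX (θ 0)) := by
  classical
  have hθ' : θ 0 ≠ 0 := hθ0.ne'
  set LL : Set (Fin 12 → ℝ) := (mw monL).L (xI l) aS (bI (θ 0)) with hLL
  have hR0 : 0 ≤ R := by
    have h1 := h.sh.rL_leg (v := 0) le_rfl zero_le_one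
    exact (h1.1.nonneg 0).trans (h1.2 0)
  have hcoc : ∀ n, Coc (PL504.coN B lev w w0 sa sb (flF a L) n) :=
    fun n => Sd369.coc_N _ _ _ _ _ _ _ _
  have hN : NProf B I0 I' (PL504.coN B lev w w0 sa sb (flF a L)) monL 2 R ν :=
    WinU954.nprof_of_ext hR0 h.ext
  have m0 : (0 : Fin 12 → ℝ) ∈ LL := by rw [hLL, mem_LI H.hl]; simp
  have hpos : ∀ m, 0 < u m * k m := fun m => mul_pos (H.upos m) (H.kpos m)
  have hmul : Tendsto (fun m => u m * k m) atTop (𝓝 0) := by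
    have := H.u0.mul H.k0
    simpa using this
  have hleg : Leg monL 1 ⊆ LL := fun p hp => cone_sub fun k e he => hp.1.wall k e he
  -- splitting
  have hsplit : ∀ p ∈ LL, lam p = φ 0 p + φ (kz (θ 0)) p + φ (kX (θ 0)) p + φ (kN (θ 0)) p :=
    fun p hp => by rw [H.out.sum _ hp, gsetI_sum hθ']
  have hlam0 : lam 0 = 0 := by
    have hφ0 : ∀ k, φ k 0 = 0 := fun k => H.out.zero k 0 fun i _ => rfl
    rw [hsplit 0 m0, hφ0, hφ0, hφ0, hφ0]; norm_num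
  -- membership
  have mem : ∀ p : Fin 12 → ℝ, p 5 ≤ p 0 + p 3 → p 6 ≤ p 0 + p 4 → p 9 ≤ p 3 + p 5 →
      p 9 ≤ p 4 + p 6 → p 11 ≤ p 0 + p 10 → p ∈ LL := fun p h1 h2 h3 h4 h5 => by
    rw [hLL, mem_LI H.hl]; exact ⟨h1, h2, h3, h4, h5⟩
  -- groups
  have gz : ∀ p p' : Fin 12 → ℝ, p 0 = p' 0 → φ (kz (θ 0)) p = φ (kz (θ 0)) p' := fun p p' hp =>
    H.out.loc _ _ _ fun i hi => by rw [(grpI_slots hθ' i).1.1 hi]; exact hp
  have gN : ∀ p p' : Fin 12 → ℝ, p 9 = p' 9 → φ (kN (θ 0)) p = φ (kN (θ 0)) p' := fun p p' hp =>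
    H.out.loc _ _ _ fun i hi => by rw [(grpI_slots hθ' i).2.2.1 hi]; exact hp
  have gX : ∀ p p' : Fin 12 → ℝ, p 5 = p' 5 → p 6 = p' 6 → p 11 = p' 11 →
      φ (kX (θ 0)) p = φ (kX (θ 0)) p' := fun p p' h5 h6 h11 =>
    H.out.loc _ _ _ fun i hi => by
      rcases (grpI_slots hθ' i).2.1.1 hi with rfl | rfl | rfl
      · exact h5
      · exact h6
      · exact h11
  have g0 : ∀ p p' : Fin 12 → ℝ, (∀ i, i ≠ 0 → i ≠ 5 → i ≠ 6 → i ≠ 9 → i ≠ 11 → p i = p' i) →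
      φ 0 p = φ 0 p' := fun p p' hp =>
    H.out.loc _ _ _ fun i hi => by
      rw [gI_zero] at hi
      refine hp i ?_ ?_ ?_ ?_ ?_ <;> rintro rfl <;> simp at hi
  have z0 : ∀ k, φ k 0 = 0 := fun k => H.out.zero k 0 fun i _ => rfl
  -- the stages
  have hst : ∀ᶠ m in (atTop : Filter ℕ),
      rL (θ 0) (θ 1) w0 sa sb v0 + u m • SI (θ 0) l z.1 z.2 ∈ Leg monL R ∧
      0 ≤ v0 + u m * z.2 ∧ v0 + u m * z.2 ≤ (1 + v0) / 2 ∧
      (rL (θ 0) (θ 1) w0 sa sb v0 + u m • SI (θ 0) l z.1 z.2) 3 =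
        rL (θ 0) (θ 1) w0 sa sb (v0 + u m * z.2) 3 ∧
      (rL (θ 0) (θ 1) w0 sa sb v0 + u m • SI (θ 0) l z.1 z.2) 4 =
        rL (θ 0) (θ 1) w0 sa sb (v0 + u m * z.2) 3 ∧
      ∀ k, Gd222.Vf k → (rL (θ 0) (θ 1) w0 sa sb v0 + u m • SI (θ 0) l z.1 z.2) k ≤
        rL (θ 0) (θ 1) w0 sa sb (v0 + u m * z.2) k := by
    have hv00 := H.v00
    have hv01 := H.v01
    have ht : Tendsto (fun m => v0 + u m * z.2) atTop (𝓝 v0) := by
      have := (H.u0.mul_const z.2).const_add v0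
      simpa using this
    filter_upwards [SgO219.tan_ev H.tan m0, ht.eventually_lt_const (show v0 < (1 + v0) / 2 by
      linarith), ht.eventually_const_lt (show 0 < v0 from hv00)] with m m1 m2 m3
    have hD : 0 ≤ u m * (z.2 - z.1) := mul_nonneg (H.upos m).le (by linarith [H.zle])
    refine ⟨by simpa using m1, m3.le, m2.le, ?_, ?_, ?_⟩
    · show (θ 0 * (1 - v0) + sa) + u m * (-(θ 0 * z.2)) =
        θ 0 * (1 - (v0 + u m * z.2)) + sa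
      ring
    · show (θ 0 * (1 - v0) + sa) + u m * (-(θ 0 * z.2)) =
        θ 0 * (1 - (v0 + u m * z.2)) + sa
      ring
    · rintro k ⟨k1, k2, k7, k8⟩
      fin_cases k
      · show (w0 + v0) + u m * z.1 ≤ w0 + (v0 + u m * z.2)
        linarith
      · exact absurd rfl k1
      · exact absurd rfl k2
      · show (θ 0 * (1 - v0) + sa) + u m * (-(θ 0 * z.2)) ≤
          θ 0 * (1 - (v0 + u m * z.2)) + sa
        exact le_of_eq (by ring)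
      · show (θ 0 * (1 - v0) + sa) + u m * (-(θ 0 * z.2)) ≤
          θ 0 * (1 - (v0 + u m * z.2)) + sa
        exact le_of_eq (by ring)
      · show ((w0 + v0) + (θ 0 * (1 - v0) + sa)) + u m * (z.1 + -(θ 0 * z.2)) ≤
          (w0 + (v0 + u m * z.2)) + (θ 0 * (1 - (v0 + u m * z.2)) + sa)
        linarith
      · show ((w0 + v0) + (θ 0 * (1 - v0) + sa)) + u m * (z.1 + -(θ 0 * z.2)) ≤
          (w0 + (v0 + u m * z.2)) + (θ 0 * (1 - (v0 + u m * z.2)) + sa)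
        linarith
      · exact absurd rfl k7
      · exact absurd rfl k8
      · show ((w0 + v0) + 2 * (θ 0 * (1 - v0) + sa)) + u m * (z.1 + 2 * (-(θ 0 * z.2))) ≤
          (w0 + (v0 + u m * z.2)) + 2 * (θ 0 * (1 - (v0 + u m * z.2)) + sa)
        linarith
      · show (θ 1 * (1 - v0) + sb) + u m * (-(θ 0 * z.2)) ≤
          θ 1 * (1 - (v0 + u m * z.2)) + sb
        rw [← hθ]
        exact le_of_eq (by ring)
      · show ((w0 + v0) + (θ 1 * (1 - v0) + sb)) + u m * (z.1 + -(θ 0 * z.2)) ≤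
          (w0 + (v0 + u m * z.2)) + (θ 1 * (1 - (v0 + u m * z.2)) + sb)
        rw [← hθ]
        linarith
  have hns := h.nsT34 hq1 hθ0 hRg (X := fun m => rL (θ 0) (θ 1) w0 sa sb v0 +
    u m • SI (θ 0) l z.1 z.2) (h := fun m => u m * k m) (v := fun m => v0 + u m * z.2) hpos hmul
    (v1 := (1 + v0) / 2) (by linarith [H.v01]) hst (t := 1) one_pos LL lam
  have key := a1_iso hN hcoc hpos H.tan one_pos hleg (σ := 1 - s) (by linarith) (by linarith)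
    ?_ ?_ (fun _ => ((0 : ℕ), (0 : ℝ))) ?_ ?_ hq1 hns (x := 1) one_pos le_rfl ?_
  · -- conclusion
    have m1 : isoT 1 0 0 ∈ LL := mem _ (by simp [isoT]) (by simp [isoT]) (by simp [isoT])
      (by simp [isoT]) (by simp [isoT])
    have m2 : isoT 1 0 1 ∈ LL := mem _ (by simp [isoT]) (by simp [isoT]) (by simp [isoT])
      (by simp [isoT]) (by simp [isoT])
    have b5 : (1:ℝ) = bx9 1 0 0 0 1 0 0 0 0 5 := rfl
    have b6 : (1:ℝ) = bx9 1 0 0 0 1 0 0 0 0 6 := rfl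
    have b11 : (0:ℝ) = bx9 1 0 0 0 1 0 0 0 0 11 := rfl
    have e1 : φ (kX (θ 0)) (isoT 1 0 1) = -rr (kX (θ 0)) := by
      rw [← eX_of H.hl hθ' H.out H.dead]
      exact gX _ _ ((iso5 _ _ _).trans b5) ((iso6 _ _ _).trans b6) ((iso11 _ _ _).trans b11)
    have e2 : φ (kX (θ 0)) (isoT 1 0 0) = 0 :=
      (gX (isoT 1 0 0) 0 (iso5 _ _ _) (iso6 _ _ _) (iso11 _ _ _)).trans (z0 _)
    rw [hsplit _ m1, hsplit _ m2, gz (isoT 1 0 0) (isoT 1 0 1) (by rw [iso0, iso0]),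
      gN (isoT 1 0 0) (isoT 1 0 1) (by rw [iso9, iso9]), e1, e2, g0 (isoT 1 0 0) (isoT 1 0 1) fun i i0 i5 i6 i9 i11 =>
        by fin_cases i <;> simp [isoT] at i0 i5 i6 i9 i11 ⊢] at key
    linarith
  · -- density
    have mt : (fun _ => (1:ℝ) : Fin 12 → ℝ) ∈ LL := by
      refine mem _ ?_ ?_ ?_ ?_ ?_ <;> norm_num
    have mc : cut {0} (fun _ => (1:ℝ)) (0 : Fin 12 → ℝ) ∈ LL := by
      refine mem _ ?_ ?_ ?_ ?_ ?_ <;> simp [cut]
    have ms : (Pi.single 0 1 : Fin 12 → ℝ) ∈ LL := by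
      refine mem _ ?_ ?_ ?_ ?_ ?_ <;> simp
    have c0 : ∀ i : Fin 12, i ≠ 0 → cut {0} (fun _ => (1:ℝ)) (0 : Fin 12 → ℝ) i = 1 := by
      intro i hi
      simp [cut, hi]
    have c00 : cut {0} (fun _ => (1:ℝ)) (0 : Fin 12 → ℝ) 0 = 0 := by simp [cut]
    have s0 : ∀ i : Fin 12, i ≠ 0 → (Pi.single 0 1 : Fin 12 → ℝ) i = 0 := fun i hi => by
      simp [hi]
    rw [hsplit _ mt, hsplit _ mc, hsplit _ ms]
    rw [g0 (fun _ => 1) (cut {0} (fun _ => (1:ℝ)) 0) fun i i0 _ _ _ _ => (c0 i i0).symm,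
      gz (fun _ => 1) (Pi.single 0 1) (by simp),
      gX (fun _ => 1) (cut {0} (fun _ => (1:ℝ)) 0) (c0 5 (by decide)).symm
        (c0 6 (by decide)).symm (c0 11 (by decide)).symm,
      gN (fun _ => 1) (cut {0} (fun _ => (1:ℝ)) 0) (c0 9 (by decide)).symm,
      gz (cut {0} (fun _ => (1:ℝ)) 0) 0 c00, z0,
      g0 (Pi.single 0 1) 0 fun i i0 _ _ _ _ => s0 i i0, z0,
      gX (Pi.single 0 1) 0 (s0 5 (by decide)) (s0 6 (by decide)) (s0 11 (by decide)), z0,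
      gN (Pi.single 0 1) 0 (s0 9 (by decide)), z0]
    linarith
  · -- own
    intro y hy hy1
    have ms : (Pi.single 0 y : Fin 12 → ℝ) ∈ LL := by
      refine mem _ ?_ ?_ ?_ ?_ ?_ <;> simp [hy]
    have h1 := H.own 0 m0 _ ms (fun i => by
      by_cases hi : i = 0
      · subst hi; simp [hy]
      · simp [hi])
    rw [hlam0, Pi.single_eq_same] at h1
    simp only [Pi.zero_apply] at h1
    linarith
  · intro m
    show ((w0 + v0) + (θ 0 * (1 - v0) + sa)) + u m * (z.1 + -(θ 0 * z.2)) =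
      ((w0 + v0) + u m * z.1) + ((θ 0 * (1 - v0) + sa) + u m * (-(θ 0 * z.2)))
    ring
  · intro m
    show ((w0 + v0) + (θ 0 * (1 - v0) + sa)) + u m * (z.1 + -(θ 0 * z.2)) =
      ((w0 + v0) + u m * z.1) + ((θ 0 * (1 - v0) + sa) + u m * (-(θ 0 * z.2)))
    ring
  · -- product
    intro c' hc hc1
    have mm : ∀ c x : ℝ, 0 ≤ c → 0 ≤ x → x ≤ 1 → isoT 1 c x ∈ LL := by
      intro c x hc hx hx1
      refine mem _ ?_ ?_ ?_ ?_ ?_
      · show x ≤ 1 + c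
        linarith
      · show x ≤ 1 + c
        linarith
      · show (0:ℝ) ≤ c + x
        linarith
      · show (0:ℝ) ≤ c + x
        linarith
      · show (0:ℝ) ≤ 1 + 0
        linarith
    rw [hsplit _ (mm 0 0 le_rfl le_rfl zero_le_one), hsplit _ (mm c' 0 hc.le le_rfl zero_le_one),
      hsplit _ (mm 0 1 le_rfl zero_le_one le_rfl), hsplit _ (mm c' 1 hc.le zero_le_one le_rfl)]
    rw [gz (isoT 1 c' 0) (isoT 1 0 0) (by rw [iso0, iso0]),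
      gz (isoT 1 0 1) (isoT 1 0 0) (by rw [iso0, iso0]),
      gz (isoT 1 c' 1) (isoT 1 0 0) (by rw [iso0, iso0]),
      gN (isoT 1 c' 0) (isoT 1 0 0) (by rw [iso9, iso9]),
      gN (isoT 1 0 1) (isoT 1 0 0) (by rw [iso9, iso9]),
      gN (isoT 1 c' 1) (isoT 1 0 0) (by rw [iso9, iso9]),
      gX (isoT 1 c' 0) (isoT 1 0 0) (by rw [iso5, iso5]) (by rw [iso6, iso6])
        (by rw [iso11, iso11]),
      gX (isoT 1 c' 1) (isoT 1 0 1) (by rw [iso5, iso5]) (by rw [iso6, iso6])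
        (by rw [iso11, iso11]),
      g0 (isoT 1 0 1) (isoT 1 0 0) fun i i0 i5 i6 i9 i11 => by
        fin_cases i <;> simp [isoT] at i0 i5 i6 i9 i11 ⊢,
      g0 (isoT 1 c' 1) (isoT 1 c' 0) fun i i0 i5 i6 i9 i11 => by
        fin_cases i <;> simp [isoT] at i0 i5 i6 i9 i11 ⊢]
    linarith

end ctx

end Crest.Agent.R116.SgI337
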