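import Crest.Agent.R116.SgI7_337
import Crest.Agent.R116.RowI1_387

/-!
# R116, K-TEXT II-c, the ISOTROPIC record (helper337), part 8: the round row

* **`isoB`**  : the context is impossible
* **`rowI`**  : the round row
-/

set_option autoImplicit false
set_option linter.unusedVariables false

open Set Filter Topology MeasureTheory

namespace Crest.Agent.R116.SgI337

open Crest.Agent.R116.KTop387 (NumL RowI)

/-- **the context of the round row is impossible** -/
theorem isoB (η : ℝ) : RowI387.IsoB η := by
  intro G L r g s θ q Rg a B I lev A f b vm w w0 sa sb δ R I0 I' ν own c₀ h hN hs2 hθ hR1 hR2 hR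
    hRg
  have hθ0 := hN.θa
  have habs := abs_nonneg (θ 1)
  have hg := hN.gpos
  obtain ⟨l, z, u, k, lam, A', φ, rr, H⟩ := exists_sigI h hθ hθ0 (by linarith)
    (hR (1 / 2) (by norm_num) (by norm_num)) (δ' := g / 2) (by linarith)
  have hA := a1_I h hθ hθ0 (by linarith) hN.qb hN.s0 hN.s1.le H
  exact sigI_false h hθ hθ0 hN.qa.le hN.qb.le (by linarith) (by linarith) H hA

/-- **the round row** -/
theorem rowI (η : ℝ) : RowI η := RowI387.rowI_of (isoB η)

/-- the form of the final assembly -/
theorem rowI_ex : ∃ η : ℝ, 0 < η ∧ RowI η := ⟨1, one_pos, rowI 1⟩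

end Crest.Agent.R116.SgI337
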