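import Crest.Agent.R136.Rbw3_219
import Crest.Agent.R136.Rc3_683

/-!
# R116 (K side, LEMMA SIG / D0), junction 1 (helper219): second blow-up at a position of a group

* `LT Q x0 a b c0` : cone of the walls of the surface which are tight at the offset `c0`
* `OutL`           : splitting of the second tangent
* **`exists_lin`** : tangents of `f j` (jointly) along the moving base `x (ψ m) + h (ψ m) • c0`,
  `lam' = Σ φ'_k`; `φ'_k` = one-sided directional derivative of `φ_k` at `c0` where it exists, linear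
  on the natural rays.
-/

set_option autoImplicit false
set_option linter.unusedSectionVars false
set_option linter.unusedVariables false

open Set Filter Topology Metric MeasureTheory

namespace Crest.Agent.R116.SgO219

open Crest.Agent.R136
open Crest.Agent.R138
open Dg262 (X SupOn)
open Dg219 (Tn lf Cone Walls gset mem_gset OutS BUp bup_of_tan)
open Rc683 (exists_tan diagF)

variable {ι W κ : Type*} [Fintype ι] [DecidableEq ι] [Fintype W] [DecidableEq κ]

/-- walls of the surface which are tight at the offset `c0` -/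
def LT (Q : Walls ι W) (x0 a b c0 : ι → ℝ) : Set (ι → ℝ) :=
  {c | ∀ w, Q.Act x0 a b w → c0 (Q.hd w) = Q.rhs w c0 → c (Q.hd w) ≤ Q.rhs w c}

section

variable {Q : Walls ι W} {x0 a b c0 : ι → ℝ}

theorem L_sub_LT : Q.L x0 a b ⊆ LT Q x0 a b c0 := fun c hc w hw _ => hc w hw

theorem LT_cone : Cone (LT Q x0 a b c0) where
  zero := fun w _ _ => by rw [Pi.zero_apply]; exact Walls.rhs_nonneg fun _ => le_rfl
  add := fun c hc d hd w hw h => by
    rw [Pi.add_apply, Q.rhs_add]; exact add_le_add (hc w hw h) (hd w hw h)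
  smul := fun c hc t ht w hw h => by
    rw [Pi.smul_apply, smul_eq_mul, Q.rhs_smul]; exact mul_le_mul_of_nonneg_left (hc w hw h) ht

theorem LT_closed : IsClosed (LT Q x0 a b c0) := by
  have e : LT Q x0 a b c0 = ⋂ w, {c | Q.Act x0 a b w → c0 (Q.hd w) = Q.rhs w c0 →
      c (Q.hd w) ≤ Q.rhs w c} := by
    ext c; simp [LT]
  rw [e]
  refine isClosed_iInter fun w => ?_
  by_cases h1 : Q.Act x0 a b w ∧ c0 (Q.hd w) = Q.rhs w c0
  · have e2 : {c : ι → ℝ | Q.Act x0 a b w → c0 (Q.hd w) = Q.rhs w c0 →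
        c (Q.hd w) ≤ Q.rhs w c} = {c | c (Q.hd w) ≤ Q.rhs w c} := by
      ext c; exact ⟨fun h => h h1.1 h1.2, fun h _ _ => h⟩
    rw [e2]
    exact isClosed_le (continuous_apply _) (Q.rhs_cont w)
  · have e2 : {c : ι → ℝ | Q.Act x0 a b w → c0 (Q.hd w) = Q.rhs w c0 →
        c (Q.hd w) ≤ Q.rhs w c} = univ := by
      ext c; exact ⟨fun _ => trivial, fun _ h h' => absurd ⟨h, h'⟩ h1⟩
    rw [e2]; exact isClosed_univ

/-- small offsets of `LT` at `c0` are legal -/
theorem LT_ev (hc0 : c0 ∈ Q.L x0 a b) (C : ℝ) :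
    ∀ᶠ t : ℝ in 𝓝[>] 0, ∀ c ∈ LT Q x0 a b c0, ‖c‖ ≤ C → c0 + t • c ∈ Q.L x0 a b := by
  have key : ∀ w, ∀ᶠ t : ℝ in 𝓝[>] 0, Q.Act x0 a b w → ∀ c ∈ LT Q x0 a b c0, ‖c‖ ≤ C →
      c0 (Q.hd w) + t * c (Q.hd w) ≤ Q.rhs w c0 + t * Q.rhs w c := by
    intro w
    by_cases hw : Q.Act x0 a b w
    swap
    · exact Eventually.of_forall fun t h => absurd h hw
    rcases (hc0 w hw).lt_or_eq with h1 | h1
    · set S : ℝ := ∑ s, (Q.co w s : ℝ) with hS
      have hS0 : 0 ≤ S := Finset.sum_nonneg fun s _ => Nat.cast_nonneg _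
      have h2 : (0:ℝ) < (Q.rhs w c0 - c0 (Q.hd w)) / (|C| * (1 + S) + 1) := by
        apply div_pos (by linarith); positivity
      filter_upwards [Ioo_mem_nhdsGT h2] with t ht _ c _ hcC
      have h3 : ∀ i, |c i| ≤ |C| := fun i => by
        have := norm_le_pi_norm c i
        rw [Real.norm_eq_abs] at this
        exact this.trans (hcC.trans (le_abs_self C))
      have h4 := Walls.rhs_abs (Q := Q) w h3
      have h5 := h3 (Q.hd w)
      have h6 : t * (|C| * (1 + S) + 1) < Q.rhs w c0 - c0 (Q.hd w) := by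
        rw [← lt_div_iff₀ (by positivity)]; exact ht.2
      have h7 : c (Q.hd w) - Q.rhs w c ≤ |C| * (1 + S) := by
        have a1 := le_abs_self (c (Q.hd w))
        have a2 := neg_abs_le (Q.rhs w c)
        have a3 : |C| * ∑ s, (Q.co w s : ℝ) = |C| * S := rfl
        rw [a3] at h4
        nlinarith
      have h8 : t * (c (Q.hd w) - Q.rhs w c) ≤ t * (|C| * (1 + S)) :=
        mul_le_mul_of_nonneg_left h7 ht.1.le
      nlinarith [ht.1]
    · filter_upwards [self_mem_nhdsWithin] with t ht _ c hc _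
      have ht' : (0:ℝ) < t := ht
      have := mul_le_mul_of_nonneg_left (hc w hw h1) ht'.le
      rw [h1]; linarith
  filter_upwards [eventually_all.2 key] with t ht c hc hcC w hw
  rw [Pi.add_apply, Pi.smul_apply, smul_eq_mul, Q.rhs_add, Q.rhs_smul]
  exact ht w hw c hc hcC

end

/-- splitting of the second tangent `lam'` at the offset `c0`; `φ` = the first splitting -/
structure OutL (grp : ι → κ) (L' : Set (ι → ℝ)) (c0 dh : ι → ℝ) (φ : κ → (ι → ℝ) → ℝ)
    (r : κ → ℝ) (lam' : (ι → ℝ) → ℝ) (φ' : κ → (ι → ℝ) → ℝ) : Prop where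
  sum : ∀ c ∈ L', lam' c = ∑ k ∈ gset grp, φ' k c
  loc : ∀ k, ∀ c ∈ L', ∀ c' ∈ L', (∀ i, grp i = k → c i = c' i) → φ' k c = φ' k c'
  zero : ∀ k, ∀ c ∈ L', (∀ i, grp i = k → c i = 0) → φ' k c = 0
  mono : ∀ k, ∀ c ∈ L', ∀ c' ∈ L', (∀ i, grp i = k → c i ≤ c' i) → 0 ≤ φ' k c - φ' k c' ∧
    φ' k c - φ' k c' ≤ ∑ i ∈ Finset.univ.filter (fun i => grp i = k), (c' i - c i)
  /-- directional derivatives of the first splitting at `c0` -/
  lin : ∀ k, ∀ c ∈ L', ∀ A : ℝ, Tendsto (fun t : ℝ => (φ k (c0 + t • c) - φ k c0) / t) (𝓝[>] 0)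
    (𝓝 A) → φ' k c = A
  /-- groups which are natural at `c0` -/
  nat : ∀ k, ∀ u0 : ℝ, (∀ i, grp i = k → c0 i = u0 * dh i) → ∀ c ∈ L', ∀ u : ℝ,
    (∀ i, grp i = k → c i = u * dh i) → φ' k c = -(r k * u)

/-- the pieces are Lipschitz -/
theorem OutS.lip_piece {grp : ι → κ} {Q : Walls ι W} {x0 a b : ι → ℝ} {dh : ι → ℝ}
    {n : κ → ℝ × ℝ} {lam : (ι → ℝ) → ℝ} {A : ℝ × ℝ} {φ : κ → (ι → ℝ) → ℝ} {r : κ → ℝ}
    (H : OutS grp (Q.L x0 a b) dh n lam A φ r) (k : κ) {c c' : ι → ℝ} (hc : c ∈ Q.L x0 a b)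
    (hc' : c' ∈ Q.L x0 a b) : |φ k c - φ k c'| ≤ (Fintype.card ι : ℝ) * ‖c - c'‖ := by
  have hsup : c ⊔ c' ∈ Q.L x0 a b := fun w hw => by
    rw [Pi.sup_apply]
    exact sup_le ((hc w hw).trans (Walls.rhs_mono w le_sup_left))
      ((hc' w hw).trans (Walls.rhs_mono w le_sup_right))
  have key : ∀ c ∈ Q.L x0 a b, ∀ c' ∈ Q.L x0 a b, c ⊔ c' ∈ Q.L x0 a b →
      φ k c - φ k c' ≤ (Fintype.card ι : ℝ) * ‖c - c'‖ := by
    intro c hc c' hc' hs
    have h1 := (H.mono k c hc _ hs fun i _ => le_sup_left (a := c) (b := c') i).2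
    have h2 := (H.mono k c' hc' _ hs fun i _ => le_sup_right (a := c) (b := c') i).1
    have h3 : ∑ i ∈ Finset.univ.filter (fun i => grp i = k), ((c ⊔ c') i - c i) ≤
        (Fintype.card ι : ℝ) * ‖c - c'‖ := by
      calc ∑ i ∈ Finset.univ.filter (fun i => grp i = k), ((c ⊔ c') i - c i)
          ≤ ∑ i ∈ Finset.univ.filter (fun i => grp i = k), ‖c - c'‖ := by
            refine Finset.sum_le_sum fun i _ => ?_
            have h4 := norm_le_pi_norm (c - c') i
            rw [Real.norm_eq_abs, Pi.sub_apply] at h4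
            rw [Pi.sup_apply]
            rcases le_total (c i) (c' i) with h5 | h5
            · rw [sup_eq_right.2 h5]
              have := neg_abs_le (c i - c' i); linarith
            · rw [sup_eq_left.2 h5, sub_self]; exact norm_nonneg _
        _ = ((Finset.univ.filter (fun i => grp i = k)).card : ℝ) * ‖c - c'‖ := by
            rw [Finset.sum_const, nsmul_eq_mul]
        _ ≤ (Fintype.card ι : ℝ) * ‖c - c'‖ := by
            refine mul_le_mul_of_nonneg_right ?_ (norm_nonneg _)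
            exact_mod_cast Finset.card_le_univ _
    linarith
  rw [abs_le]
  refine ⟨?_, key c hc c' hc' hsup⟩
  have := key c' hc' c hc (by rw [sup_comm]; exact hsup)
  rw [norm_sub_rev] at this
  linarith

/-- **SECOND BLOW-UP AT A POSITION** -/
theorem exists_lin {Q : Walls ι W} {P : Set (ι → ℝ)} {x0 a b : ι → ℝ} {grp : ι → κ}
    {dh : ι → ℝ} {n : κ → ℝ × ℝ} {A : ℝ × ℝ} {φ : κ → (ι → ℝ) → ℝ} {r : κ → ℝ}
    {J : Type*} [Finite J] {f lam : J → (ι → ℝ) → ℝ} {j0 : J} {x : ℕ → ι → ℝ} {h : ℕ → ℝ}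
    {K : ℝ} (hK : 0 ≤ K) (hpos : ∀ l, 0 < h l) (h0 : Tendsto h atTop (𝓝 0))
    (ht : ∀ j, Ex926.IsTan P (Q.L x0 a b) (f j) x h (lam j))
    (hlip : ∀ j, ∀ p ∈ Q.L x0 a b, ∀ q ∈ Q.L x0 a b, |lam j p - lam j q| ≤ K * ‖p - q‖)
    (H : OutS grp (Q.L x0 a b) dh n (lam j0) A φ r) {c0 : ι → ℝ} (hc0 : c0 ∈ Q.L x0 a b)
    {s : ℕ → ℝ} (spos : ∀ m, 0 < s m) (s0 : Tendsto s atTop (𝓝 0)) :
    ∃ (ψ θ : ℕ → ℕ) (lam' : J → (ι → ℝ) → ℝ) (φ' : κ → (ι → ℝ) → ℝ), StrictMono ψ ∧
      StrictMono θ ∧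
      (∀ j, Ex926.IsTan P (LT Q x0 a b c0) (f j) (fun m => x (ψ m) + h (ψ m) • c0)
        (fun m => h (ψ m) * s (θ m)) (lam' j)) ∧
      (∀ j, Ex926.IsTan (Q.L x0 a b) (LT Q x0 a b c0) (lam j) (fun _ => c0)
        (fun m => s (θ m)) (lam' j)) ∧
      OutL grp (LT Q x0 a b c0) c0 dh φ r (lam' j0) φ' := by
  classical
  set K' : ℝ := max K (Fintype.card ι : ℝ) with hK'
  have hK'0 : 0 ≤ K' := hK.trans (le_max_left _ _)
  -- functions: the tangents and the pieces
  set F : J ⊕ (gset grp : Finset κ) → (ι → ℝ) → ℝ := fun j => Sum.elim lam (fun k => φ k.1) j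
    with hF
  have hsT : Tendsto s atTop (𝓝[>] 0) :=
    tendsto_nhdsWithin_iff.2 ⟨s0, Eventually.of_forall fun m => spos m⟩
  obtain ⟨θ, hθ, g, hg⟩ := exists_tan (J := J ⊕ (gset grp : Finset κ))
    (P := fun _ => Q.L x0 a b) (D := fun _ => LT Q x0 a b c0) (ν := F) (fun _ => LT_closed)
    hK'0 (by
      rintro (j | k) p hp q hq
      · exact (hlip j p hp q hq).trans (mul_le_mul_of_nonneg_right (le_max_left _ _)
          (norm_nonneg _))
      · exact (OutS.lip_piece H k.1 hp hq).trans (mul_le_mul_of_nonneg_right (le_max_right _ _)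
          (norm_nonneg _)))
    (x := fun _ => c0) spos (fun _ C => hsT.eventually (LT_ev hc0 C)) (fun _ => LT_cone.zero)
  set t : ℕ → ℝ := fun m => s (θ m) with htd
  have tpos : ∀ m, 0 < t m := fun m => spos _
  have t0 : Tendsto t atTop (𝓝 0) := s0.comp hθ.tendsto_atTop
  have tT : Tendsto t atTop (𝓝[>] 0) :=
    tendsto_nhdsWithin_iff.2 ⟨t0, Eventually.of_forall fun m => tpos m⟩
  -- diagonal
  obtain ⟨ψ, hψ, -, hT⟩ := diagF (J := J) (P := fun _ => P) (L := fun _ => Q.L x0 a b)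
    (L' := fun _ => LT Q x0 a b c0) hpos ht (fun _ => hc0) tpos (fun j => hg (Sum.inl j))
    (A := fun _ _ => True) (fun _ => Eventually.of_forall fun _ => trivial)
  set φ' : κ → (ι → ℝ) → ℝ := fun k => if hk : k ∈ gset grp then g (Sum.inr ⟨k, hk⟩) else 0
    with hφ'
  -- pointwise limits
  have hb : ∀ j, BUp (Q.L x0 a b) (LT Q x0 a b c0) (F j) c0 t (g j) := fun j =>
    bup_of_tan tpos t0 (hg j)
  have hlim : ∀ k, ∀ c ∈ LT Q x0 a b c0,
      Tendsto (fun m => (φ k (c0 + t m • c) - φ k c0) / t m) atTop (𝓝 (φ' k c)) := by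
    intro k c hc
    by_cases hk : k ∈ gset grp
    · simp only [hφ', dif_pos hk]
      exact (hb (Sum.inr ⟨k, hk⟩)).lim c hc
    · simp only [hφ', dif_neg hk, Pi.zero_apply]
      have h1 : ∀ c, φ k c = 0 := fun c => H.zero k c fun i hi =>
        absurd (by rw [← hi]; exact mem_gset i) hk
      simp only [h1, sub_zero, zero_div]
      exact tendsto_const_nhds
  have hmem : ∀ c ∈ LT Q x0 a b c0, ∀ᶠ m in atTop, c0 + t m • c ∈ Q.L x0 a b := fun c hc =>
    (tT.eventually (LT_ev hc0 ‖c‖)).mono fun m hm => hm c hc le_rfl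
  refine ⟨ψ, θ, fun j => g (Sum.inl j), φ', hψ, hθ, hT, fun j => hg (Sum.inl j), ?_⟩
  refine ⟨?_, ?_, ?_, ?_, ?_, ?_⟩
  · -- sum
    intro c hc
    have h1 := (hb (Sum.inl j0)).lim c hc
    have h2 : Tendsto (fun m => ∑ k ∈ gset grp, (φ k (c0 + t m • c) - φ k c0) / t m) atTop
        (𝓝 (∑ k ∈ gset grp, φ' k c)) := tendsto_finsetSum _ fun k _ => hlim k c hc
    refine tendsto_nhds_unique h1 (h2.congr' ?_)
    filter_upwards [hmem c hc] with m hm
    change _ = (lam j0 (c0 + t m • c) - lam j0 c0) / t m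
    rw [H.sum _ hm, H.sum _ hc0, ← Finset.sum_sub_distrib, Finset.sum_div]
  · -- loc
    intro k c hc c' hc' hcc
    refine tendsto_nhds_unique (hlim k c hc) ((hlim k c' hc').congr fun m => ?_)
    rw [H.loc k (c0 + t m • c') (c0 + t m • c) fun i hi => by
      simp only [Pi.add_apply, Pi.smul_apply, smul_eq_mul, hcc i hi]]
  · -- zero
    intro k c hc hz
    refine tendsto_nhds_unique (hlim k c hc) (tendsto_const_nhds.congr fun m => ?_)
    rw [H.loc k (c0 + t m • c) c0 fun i hi => by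
      simp only [Pi.add_apply, Pi.smul_apply, smul_eq_mul, hz i hi, mul_zero, add_zero],
      sub_self, zero_div]
  · -- mono
    intro k c hc c' hc' hcc
    have h1 : Tendsto (fun m => (φ k (c0 + t m • c) - φ k (c0 + t m • c')) / t m) atTop
        (𝓝 (φ' k c - φ' k c')) := by
      refine ((hlim k c hc).sub (hlim k c' hc')).congr fun m => ?_
      rw [← sub_div]; congr 1; ring
    have key : ∀ᶠ m in atTop, 0 ≤ (φ k (c0 + t m • c) - φ k (c0 + t m • c')) / t m ∧
        (φ k (c0 + t m • c) - φ k (c0 + t m • c')) / t m ≤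
          ∑ i ∈ Finset.univ.filter (fun i => grp i = k), (c' i - c i) := by
      filter_upwards [hmem c hc, hmem c' hc'] with m m1 m2
      have h2 := H.mono k _ m1 _ m2 fun i hi => by
        simp only [Pi.add_apply, Pi.smul_apply, smul_eq_mul]
        have := mul_le_mul_of_nonneg_left (hcc i hi) (tpos m).le
        linarith
      refine ⟨div_nonneg h2.1 (tpos m).le, ?_⟩
      rw [div_le_iff₀ (tpos m)]
      refine h2.2.trans (le_of_eq ?_)
      rw [Finset.sum_mul]
      exact Finset.sum_congr rfl fun i _ => by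
        simp only [Pi.add_apply, Pi.smul_apply, smul_eq_mul]; ring
    exact ⟨ge_of_tendsto h1 (key.mono fun _ h => h.1),
      le_of_tendsto h1 (key.mono fun _ h => h.2)⟩
  · -- lin
    intro k c hc A' hA
    exact tendsto_nhds_unique (hlim k c hc) (hA.comp tT)
  · -- nat
    intro k u0 hu0 c hc u hu
    refine tendsto_nhds_unique (hlim k c hc) ?_
    have e : ∀ᶠ m in atTop, -(r k * u) = (φ k (c0 + t m • c) - φ k c0) / t m := by
      filter_upwards [hmem c hc] with m hm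
      rw [H.rate k _ hm (u0 + t m * u) fun i hi => by
        simp only [Pi.add_apply, Pi.smul_apply, smul_eq_mul, hu0 i hi, hu i hi]; ring,
        H.rate k _ hc0 u0 hu0]
      have := (tpos m).ne'
      field_simp
      ring
    exact tendsto_const_nhds.congr' e

end Crest.Agent.R116.SgO219
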