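import Crest.Agent.R116.SgO1_219
import Crest.Agent.R116.Sg1_388

/-!
# R116 (K side, LEMMA SIG / D0), junction 2 (helper219): positions inside a group

`T : (Fin d → ℝ) →L (ι → ℝ)` parametrises the positions (bx-boxes), `β` = background.
* **`exists_pos`** : from an increment of `φ_k` along `ind S y` a position `v` in any co-null set,
  with all partial derivatives `G` (differentiability of `v ↦ φ_k (β + T v)`)
* **`exists_pos_lin`** : and the second tangent at every legal offset `c0` with this position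
-/

set_option autoImplicit false
set_option linter.unusedSectionVars false
set_option linter.unusedVariables false

open Set Filter Topology Metric MeasureTheory
open scoped NNReal

namespace Crest.Agent.R116.SgO219

open Crest.Agent.R136
open Crest.Agent.R138
open Dg262 (X SupOn)
open Dg219 (Tn lf Cone Walls gset mem_gset OutS BUp bup_of_tan)
open Sg388 (ind exists_rateS)

variable {ι W κ : Type*} [Fintype ι] [DecidableEq ι] [Fintype W] [DecidableEq κ]

/-- one sided directional derivatives from a Fréchet derivative -/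
theorem dir_of_fderiv {E : Type*} [NormedAddCommGroup E] [NormedSpace ℝ E] {Φ : E → ℝ} {v : E}
    (h : DifferentiableAt ℝ Φ v) (u : E) :
    Tendsto (fun t : ℝ => (Φ (v + t • u) - Φ v) / t) (𝓝[>] 0) (𝓝 (fderiv ℝ Φ v u)) := by
  have h1 : HasFDerivAt Φ (fderiv ℝ Φ v) (v + (0:ℝ) • u) := by
    rw [zero_smul, add_zero]; exact h.hasFDerivAt
  have h2 : HasDerivAt (fun t : ℝ => v + t • u) u 0 := by
    have := ((hasDerivAt_id (0:ℝ)).smul_const u).const_add v
    simpa using this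
  have h3 := h1.comp_hasDerivAt (0:ℝ) h2
  have h4 := h3.tendsto_slope_zero_right
  refine h4.congr fun t => ?_
  simp only [Function.comp, zero_add, zero_smul, add_zero, smul_eq_mul]
  rw [div_eq_inv_mul]

theorem clm_eq_sum {d : ℕ} (L : (Fin d → ℝ) →L[ℝ] ℝ) (u : Fin d → ℝ) :
    L u = ∑ i, L (Pi.single i 1) * u i := by
  have h : u = ∑ i, u i • (Pi.single i (1:ℝ) : Fin d → ℝ) := by
    funext j
    rw [Finset.sum_apply]
    simp [Pi.single_apply]
  conv_lhs => rw [h]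
  rw [map_sum]
  exact Finset.sum_congr rfl fun i _ => by rw [map_smul, smul_eq_mul, mul_comm]

/-- `G` = the partial rates of `φ` at the position `c0` for the moves `T` -/
def RateP {d : ℕ} (φ : (ι → ℝ) → ℝ) (c0 : ι → ℝ) (T : (Fin d → ℝ) →L[ℝ] (ι → ℝ))
    (G : Fin d → ℝ) : Prop :=
  ∀ u : Fin d → ℝ, Tendsto (fun t : ℝ => (φ (c0 + t • T u) - φ c0) / t) (𝓝[>] 0)
    (𝓝 (-∑ i, G i * u i))

section

variable {Q : Walls ι W} {x0 a b : ι → ℝ} {grp : ι → κ}
  {dh : ι → ℝ} {n : κ → ℝ × ℝ} {A : ℝ × ℝ} {lam : (ι → ℝ) → ℝ} {φ : κ → (ι → ℝ) → ℝ} {r : κ → ℝ}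

/-- **POSITION SELECTION** -/
theorem exists_pos (H : OutS grp (Q.L x0 a b) dh n lam A φ r) (k : κ) {d : ℕ}
    {T : (Fin d → ℝ) →L[ℝ] (ι → ℝ)} {β : ι → ℝ} {D : Set (Fin d → ℝ)} (hDo : IsOpen D)
    (hDL : ∀ v ∈ D, β + T v ∈ Q.L x0 a b) (hT : ∀ i l, 0 ≤ T (Pi.single i 1) l)
    {p : Fin d → ℝ} {S : Finset (Fin d)} {y q δ η : ℝ} (hy : 0 < y) (hη : 0 < η)
    (hD : ∀ t ∈ Icc 0 y, Metric.ball (p + ind S t) η ⊆ D)
    (hq : q * y ≤ φ k (β + T p) - φ k (β + T (p + ind S y))) (hδ : 0 < δ)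
    {N : Set (Fin d → ℝ)} (hN : ∀ᵐ v, v ∈ N) :
    ∃ v ∈ N, v ∈ D ∧ (∃ t ∈ Ioo 0 y, ‖v - (p + ind S t)‖ < η) ∧ ∃ G : Fin d → ℝ,
      (∀ i, 0 ≤ G i) ∧
      (∀ i, G i ≤ ∑ l ∈ Finset.univ.filter (fun l => grp l = k), T (Pi.single i 1) l) ∧
      q - δ ≤ ∑ i ∈ S, G i ∧ RateP (φ k) (β + T v) T G := by
  set Φ : (Fin d → ℝ) → ℝ := fun v => -φ k (β + T v) with hΦ
  set C : ℝ := (Fintype.card ι : ℝ) * ‖T‖ with hC
  have hC0 : 0 ≤ C := by positivity
  have hΦlip : LipschitzOnWith ⟨C, hC0⟩ Φ D := by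
    refine LipschitzOnWith.of_dist_le_mul fun v hv v' hv' => ?_
    have h1 := OutS.lip_piece H k (hDL v hv) (hDL v' hv')
    rw [Real.dist_eq]
    have e1 : Φ v - Φ v' = -(φ k (β + T v) - φ k (β + T v')) := by simp only [hΦ]; ring
    rw [e1, abs_neg]
    refine h1.trans ?_
    have e2 : β + T v - (β + T v') = T (v - v') := by rw [map_sub]; abel
    rw [e2, dist_eq_norm]
    change _ ≤ C * ‖v - v'‖
    rw [hC, mul_assoc]
    exact mul_le_mul_of_nonneg_left (T.le_opNorm _) (Nat.cast_nonneg _)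
  obtain ⟨v, hvN, hvD, hvt, hvd, hvq⟩ := exists_rateS hΦlip hy hη hD
    (a := q) (by simp only [hΦ]; linarith) hδ hN
  set G : Fin d → ℝ := fun i => fderiv ℝ Φ v (Pi.single i 1) with hG
  have hdir : RateP (φ k) (β + T v) T G := by
    intro u
    have h1 := (dir_of_fderiv hvd u).neg
    rw [clm_eq_sum (fderiv ℝ Φ v) u] at h1
    refine h1.congr fun t => ?_
    simp only [hΦ]
    rw [map_add, map_smul, ← add_assoc, ← neg_div]
    congr 1; ring
  have hpart : ∀ i, Tendsto (fun t : ℝ => (Φ (v + t • Pi.single i 1) - Φ v) / t) (𝓝[>] 0)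
      (𝓝 (G i)) := fun i => dir_of_fderiv hvd _
  have hmem : ∀ i, ∀ᶠ t : ℝ in 𝓝[>] 0, 0 < t ∧ v + t • (Pi.single i (1:ℝ) : Fin d → ℝ) ∈ D := by
    intro i
    have hc : Tendsto (fun t : ℝ => v + t • (Pi.single i (1:ℝ) : Fin d → ℝ)) (𝓝[>] 0)
        (𝓝 v) := by
      have : Continuous fun t : ℝ => v + t • (Pi.single i (1:ℝ) : Fin d → ℝ) := by fun_prop
      have h1 := (this.tendsto 0).mono_left (nhdsWithin_le_nhds (s := Ioi 0))
      simpa using h1
    filter_upwards [self_mem_nhdsWithin, hc.eventually (hDo.mem_nhds hvD)] with t h1 h2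
      using ⟨h1, h2⟩
  have hbound : ∀ i, ∀ᶠ t : ℝ in 𝓝[>] 0, 0 ≤ (Φ (v + t • Pi.single i 1) - Φ v) / t ∧
      (Φ (v + t • Pi.single i 1) - Φ v) / t ≤
        ∑ l ∈ Finset.univ.filter (fun l => grp l = k), T (Pi.single i 1) l := by
    intro i
    filter_upwards [hmem i] with t ht
    have h1 := H.mono k (β + T v) (hDL v hvD) (β + T (v + t • Pi.single i 1))
      (hDL _ ht.2) fun l _ => by
        rw [map_add, map_smul]
        simp only [Pi.add_apply, Pi.smul_apply, smul_eq_mul]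
        have := mul_nonneg ht.1.le (hT i l)
        linarith
    have e : Φ (v + t • Pi.single i 1) - Φ v = φ k (β + T v) -
        φ k (β + T (v + t • Pi.single i 1)) := by simp only [hΦ]; ring
    rw [e]
    refine ⟨div_nonneg h1.1 ht.1.le, ?_⟩
    rw [div_le_iff₀ ht.1]
    refine h1.2.trans (le_of_eq ?_)
    rw [Finset.sum_mul]
    refine Finset.sum_congr rfl fun l _ => ?_
    rw [map_add, map_smul]
    simp only [Pi.add_apply, Pi.smul_apply, smul_eq_mul]
    ring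
  refine ⟨v, hvN, hvD, hvt, G, fun i => ?_, fun i => ?_, hvq, hdir⟩
  · exact ge_of_tendsto (hpart i) ((hbound i).mono fun _ h => h.1)
  · exact le_of_tendsto (hpart i) ((hbound i).mono fun _ h => h.2)

/-- the rates at a position depend only on the coordinates of the group -/
theorem RateP.transfer (H : OutS grp (Q.L x0 a b) dh n lam A φ r) {k : κ} {d : ℕ}
    {T : (Fin d → ℝ) →L[ℝ] (ι → ℝ)} {G : Fin d → ℝ} {c c0 : ι → ℝ}
    (h : RateP (φ k) c T G) (hc : ∀ i, grp i = k → c0 i = c i) : RateP (φ k) c0 T G := by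
  intro u
  refine (h u).congr fun t => ?_
  rw [H.loc k (c + t • T u) (c0 + t • T u) fun i hi => by
    simp only [Pi.add_apply]; rw [hc i hi], H.loc k c c0 fun i hi => (hc i hi).symm]

/-- rates of the second tangent -/
theorem OutL.rate {L' : Set (ι → ℝ)} {c0 : ι → ℝ} {lam' : (ι → ℝ) → ℝ}
    {φ' : κ → (ι → ℝ) → ℝ} (HL : OutL grp L' c0 dh φ r lam' φ')
    (H : OutS grp (Q.L x0 a b) dh n lam A φ r) {k : κ} {d : ℕ}
    {T : (Fin d → ℝ) →L[ℝ] (ι → ℝ)} {G : Fin d → ℝ} (h : RateP (φ k) c0 T G)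
    {c : ι → ℝ} (hc : c ∈ L') {u : Fin d → ℝ} (hu : ∀ i, grp i = k → c i = T u i) :
    φ' k c = -∑ i, G i * u i := by
  refine HL.lin k c hc _ ((h u).congr fun t => ?_)
  rw [H.loc k (c0 + t • T u) (c0 + t • c) fun i hi => by
    simp only [Pi.add_apply, Pi.smul_apply, smul_eq_mul]; rw [hu i hi]]

end

end Crest.Agent.R116.SgO219
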