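import Crest.Agent.R116.SgO2_219

/-!
# R116 (K side, LEMMA SIG / D0), O4 (helper704): the position of the whole segment `[0, 1_S]`

* `lip_grp_704`    : the pieces are Lipschitz in the coordinates of the group only
* **`exists_posn`** : an increment `q ≤ φ_k 0 - φ_k (T 1_S)` of the piece between the two corners
  gives, in every co-null set, a position `v` of the open set `D` with `‖v - ind S t‖ < η`,
  `t ∈ [0, 1]`, and partial rates `G` with `q - δ ≤ Σ_{i ∈ S} G i` (background `β = 0` on the group;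
  the segment may lie on the boundary of `D`, it is pushed into `D` by `ε • w0`).
-/

set_option autoImplicit false
set_option linter.unusedSectionVars false
set_option linter.unusedVariables false

open Set Filter Topology Metric MeasureTheory
open scoped NNReal

namespace Crest.Agent.R116.SgO704

open Crest.Agent.R136
open Crest.Agent.R138
open SgO219 (RateP exists_pos)
open Dg262 (X SupOn)
open Dg219 (Tn lf Cone Walls gset mem_gset OutS BUp bup_of_tan)
open Sg388 (ind exists_rateS)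

variable {ι W κ : Type*} [Fintype ι] [DecidableEq ι] [Fintype W] [DecidableEq κ]

section

variable {Q : Walls ι W} {x0 a b : ι → ℝ} {grp : ι → κ}
  {dh : ι → ℝ} {n : κ → ℝ × ℝ} {A : ℝ × ℝ} {lam : (ι → ℝ) → ℝ} {φ : κ → (ι → ℝ) → ℝ} {r : κ → ℝ}

/-- the pieces are Lipschitz in the coordinates of the group -/
theorem lip_grp_704 (H : OutS grp (Q.L x0 a b) dh n lam A φ r) (k : κ) {c c' : ι → ℝ}
    (hc : c ∈ Q.L x0 a b) (hc' : c' ∈ Q.L x0 a b) {M : ℝ} (hM : 0 ≤ M)
    (h : ∀ i, grp i = k → |c i - c' i| ≤ M) :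
    |φ k c - φ k c'| ≤ (Fintype.card ι : ℝ) * M := by
  have hsup : c ⊔ c' ∈ Q.L x0 a b := fun w hw => by
    rw [Pi.sup_apply]
    exact sup_le ((hc w hw).trans (Walls.rhs_mono w le_sup_left))
      ((hc' w hw).trans (Walls.rhs_mono w le_sup_right))
  have key : ∀ c ∈ Q.L x0 a b, ∀ c' ∈ Q.L x0 a b, c ⊔ c' ∈ Q.L x0 a b →
      (∀ i, grp i = k → |c i - c' i| ≤ M) → φ k c - φ k c' ≤ (Fintype.card ι : ℝ) * M := by
    intro c hc c' hc' hs h
    have h1 := (H.mono k c hc _ hs fun i _ => le_sup_left (a := c) (b := c') i).2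
    have h2 := (H.mono k c' hc' _ hs fun i _ => le_sup_right (a := c) (b := c') i).1
    have h3 : ∑ i ∈ Finset.univ.filter (fun i => grp i = k), ((c ⊔ c') i - c i) ≤
        (Fintype.card ι : ℝ) * M := by
      calc ∑ i ∈ Finset.univ.filter (fun i => grp i = k), ((c ⊔ c') i - c i)
          ≤ ∑ i ∈ Finset.univ.filter (fun i => grp i = k), M := by
            refine Finset.sum_le_sum fun i hi => ?_
            have h4 := h i (Finset.mem_filter.1 hi).2
            rw [Pi.sup_apply]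
            rcases le_total (c i) (c' i) with h5 | h5
            · rw [sup_eq_right.2 h5]
              have := neg_abs_le (c i - c' i); linarith
            · rw [sup_eq_left.2 h5, sub_self]; exact hM
        _ = ((Finset.univ.filter (fun i => grp i = k)).card : ℝ) * M := by
            rw [Finset.sum_const, nsmul_eq_mul]
        _ ≤ (Fintype.card ι : ℝ) * M := by
            refine mul_le_mul_of_nonneg_right ?_ hM
            exact_mod_cast Finset.card_le_univ _
    linarith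
  rw [abs_le]
  refine ⟨?_, key c hc c' hc' hsup h⟩
  have := key c' hc' c hc (by rw [sup_comm]; exact hsup) fun i hi => by
    rw [abs_sub_comm]; exact h i hi
  linarith

/-- **POSITION FROM THE INCREMENT BETWEEN THE CORNERS `0` AND `T 1_S`** -/
theorem exists_posn (H : OutS grp (Q.L x0 a b) dh n lam A φ r) (k : κ) {d : ℕ}
    {T : (Fin d → ℝ) →L[ℝ] (ι → ℝ)} (hT : ∀ i l, 0 ≤ T (Pi.single i 1) l) {β : ι → ℝ}
    (hβ : ∀ i, grp i = k → β i = 0) {D : Set (Fin d → ℝ)} (hDo : IsOpen D)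
    (hDL : ∀ v ∈ D, β + T v ∈ Q.L x0 a b) {S : Finset (Fin d)} {w0 : Fin d → ℝ}
    (hw : ∀ ε ∈ Ioc (0:ℝ) 1, ∀ t ∈ Icc (0:ℝ) 1, ε • w0 + ind S t ∈ D)
    (h0 : (0 : ι → ℝ) ∈ Q.L x0 a b) (h1 : T (ind S 1) ∈ Q.L x0 a b) {q δ η : ℝ}
    (hq : q ≤ φ k 0 - φ k (T (ind S 1))) (hδ : 0 < δ) (hη : 0 < η)
    {N : Set (Fin d → ℝ)} (hN : ∀ᵐ v, v ∈ N) :
    ∃ v ∈ N, v ∈ D ∧ (∃ t ∈ Icc (0:ℝ) 1, ‖v - ind S t‖ < η) ∧ ∃ G : Fin d → ℝ,
      (∀ i, 0 ≤ G i) ∧
      (∀ i, G i ≤ ∑ l ∈ Finset.univ.filter (fun l => grp l = k), T (Pi.single i 1) l) ∧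
      q - δ ≤ ∑ i ∈ S, G i ∧ RateP (φ k) (β + T v) T G := by
  set C : ℝ := (Fintype.card ι : ℝ) * ‖T w0‖ with hC
  have hC0 : 0 ≤ C := by positivity
  -- the size of the push
  obtain ⟨ε, hε0, hε1, hεC, hεw⟩ : ∃ ε : ℝ, 0 < ε ∧ ε ≤ 1 ∧ ε * (4 * (C + 1)) ≤ δ ∧
      ε * (2 * (‖w0‖ + 1)) ≤ η := by
    refine ⟨min 1 (min (δ / (4 * (C + 1))) (η / (2 * (‖w0‖ + 1)))),
      lt_min one_pos (lt_min (by positivity) (by positivity)), min_le_left _ _, ?_, ?_⟩
    · rw [← le_div_iff₀ (by positivity)]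
      exact (min_le_right _ _).trans (min_le_left _ _)
    · rw [← le_div_iff₀ (by positivity)]
      exact (min_le_right _ _).trans (min_le_right _ _)
  set p : Fin d → ℝ := ε • w0 with hp
  have hpn : ‖p‖ < η / 2 := by
    rw [hp, norm_smul, Real.norm_eq_abs, abs_of_pos hε0]
    linarith
  have hpD : p ∈ D := by
    have h2 := hw ε ⟨hε0, hε1⟩ 0 ⟨le_rfl, zero_le_one⟩
    have e : ind S (0:ℝ) = 0 := by funext i; simp [ind]
    rwa [e, add_zero] at h2
  have hp1 : p + ind S 1 ∈ D := hw ε ⟨hε0, hε1⟩ 1 ⟨zero_le_one, le_rfl⟩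
  have hTp : ∀ i, |T p i| ≤ ε * ‖T w0‖ := fun i => by
    rw [hp, map_smul, Pi.smul_apply, smul_eq_mul, abs_mul, abs_of_pos hε0]
    exact mul_le_mul_of_nonneg_left (norm_le_pi_norm (T w0) i) hε0.le
  -- comparison with the corners
  have hM : 0 ≤ ε * ‖T w0‖ := by positivity
  have L0 := lip_grp_704 H k (hDL p hpD) h0 hM fun i hi => by
    rw [Pi.add_apply, hβ i hi, zero_add, Pi.zero_apply, sub_zero]; exact hTp i
  have L1 := lip_grp_704 H k (hDL _ hp1) h1 hM fun i hi => by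
    rw [Pi.add_apply, hβ i hi, zero_add, map_add, Pi.add_apply, add_sub_cancel_right]
    exact hTp i
  have hq' : (q - δ / 2) * 1 ≤ φ k (β + T p) - φ k (β + T (p + ind S 1)) := by
    have e : (Fintype.card ι : ℝ) * (ε * ‖T w0‖) = ε * C := by rw [hC]; ring
    rw [e] at L0 L1
    have a1 := (abs_le.1 L0).1
    have a2 := (abs_le.1 L1).2
    nlinarith
  -- uniform balls around the segment
  have hcont : Continuous fun t : ℝ => p + ind S t := by
    refine continuous_const.add (continuous_pi fun i => ?_)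
    simp only [ind]
    by_cases hi : i ∈ S
    · simp only [if_pos hi]; exact continuous_id
    · simp only [if_neg hi]; exact continuous_const
  obtain ⟨η1, hη1, hsub⟩ := (isCompact_Icc.image hcont).exists_thickening_subset_open hDo
    (show (fun t : ℝ => p + ind S t) '' Icc (0:ℝ) 1 ⊆ D by
      rintro _ ⟨t, ht, rfl⟩; exact hw ε ⟨hε0, hε1⟩ t ht)
  have hball : ∀ t ∈ Icc (0:ℝ) 1, Metric.ball (p + ind S t) (min (η / 2) η1) ⊆ D :=
    fun t ht v hv => hsub (mem_thickening_iff.2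
      ⟨_, ⟨t, ht, rfl⟩, lt_of_lt_of_le (mem_ball.1 hv) (min_le_right _ _)⟩)
  obtain ⟨v, hvN, hvD, ⟨t, ht, hvt⟩, G, g0, g1, gq, gr⟩ := exists_pos H k hDo hDL hT (p := p)
    (S := S) (y := 1) (q := q - δ / 2) (δ := δ / 2) (η := min (η / 2) η1) one_pos
    (lt_min (half_pos hη) hη1) hball hq' (half_pos hδ) hN
  refine ⟨v, hvN, hvD, ⟨t, Ioo_subset_Icc_self ht, ?_⟩, G, g0, g1, by linarith, gr⟩
  have e : v - ind S t = (v - (p + ind S t)) + p := by abel
  rw [e]
  refine (norm_add_le _ _).trans_lt ?_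
  have := hvt.trans_le (min_le_left (η / 2) η1)
  linarith

end

end Crest.Agent.R116.SgO704
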