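import Crest.Agent.R116.SgO2_219

/-!
# R116 (K side, LEMMA SIG / D0), junction 4 (helper890; cut 17973 of helper219)

* **`exists_posn`** : position near a natural path `ind S t`, `t ∈ [0,1]`, inside an open set `D` of
  legal positions, from the increment of `φ_k` along `T (ind S 1)`.
-/

set_option autoImplicit false
set_option linter.unusedSectionVars false
set_option linter.unusedVariables false

open Set Filter Topology Metric MeasureTheory
open scoped NNReal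

namespace Crest.Agent.R116.SgO219

open Crest.Agent.R136
open Crest.Agent.R138
open Dg219 (Walls OutS)
open Sg388 (ind)

variable {ι W κ : Type*} [Fintype ι] [DecidableEq ι] [Fintype W] [DecidableEq κ]

theorem ind_continuous {m : ℕ} (S : Finset (Fin m)) : Continuous (fun t : ℝ => ind S t) := by
  refine continuous_pi fun i => ?_
  by_cases hi : i ∈ S
  · simp only [ind, hi, if_true]; exact continuous_id
  · simp only [ind, hi, if_false]; exact continuous_const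

theorem ind_zero' {m : ℕ} (S : Finset (Fin m)) : ind S (0:ℝ) = 0 := by
  funext i; simp [ind]

section

variable {Q : Walls ι W} {x0 a b : ι → ℝ} {grp : ι → κ}
  {dh : ι → ℝ} {n : κ → ℝ × ℝ} {A : ℝ × ℝ} {lam : (ι → ℝ) → ℝ} {φ : κ → (ι → ℝ) → ℝ} {r : κ → ℝ}

/-- **POSITION NEAR A NATURAL PATH** -/
theorem exists_posn (H : OutS grp (Q.L x0 a b) dh n lam A φ r) (k : κ) {d : ℕ}
    {T : (Fin d → ℝ) →L[ℝ] (ι → ℝ)} (hT : ∀ i l, 0 ≤ T (Pi.single i 1) l) {β : ι → ℝ}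
    (hβ : ∀ i, grp i = k → β i = 0) {D : Set (Fin d → ℝ)} (hDo : IsOpen D)
    (hDL : ∀ v ∈ D, β + T v ∈ Q.L x0 a b) {S : Finset (Fin d)} {w0 : Fin d → ℝ}
    (hw : ∀ ε ∈ Ioc (0:ℝ) 1, ∀ t ∈ Icc (0:ℝ) 1, ε • w0 + ind S t ∈ D) {q δ η : ℝ}
    (hq : q ≤ φ k 0 - φ k (T (ind S 1))) (hδ : 0 < δ) (hη : 0 < η)
    {N : Set (Fin d → ℝ)} (hN : ∀ᵐ v, v ∈ N) :
    ∃ v ∈ N, v ∈ D ∧ (∃ t ∈ Icc (0:ℝ) 1, ‖v - ind S t‖ < η) ∧ ∃ G : Fin d → ℝ,
      (∀ i, 0 ≤ G i) ∧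
      (∀ i, G i ≤ ∑ l ∈ Finset.univ.filter (fun l => grp l = k), T (Pi.single i 1) l) ∧
      q - δ ≤ ∑ i ∈ S, G i ∧ RateP (φ k) (β + T v) T G := by
  -- limits of legal positions are legal
  have hcl : ∀ t ∈ Icc (0:ℝ) 1, β + T (ind S t) ∈ Q.L x0 a b := by
    intro t ht
    have hc : Continuous (fun ε : ℝ => β + T (ε • w0 + ind S t)) := by fun_prop
    have h1 : Tendsto (fun ε : ℝ => β + T (ε • w0 + ind S t)) (𝓝[>] 0)
        (𝓝 (β + T (ind S t))) := by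
      have := (hc.tendsto 0).mono_left (nhdsWithin_le_nhds (s := Ioi 0))
      simpa using this
    refine Walls.isClosed_L.mem_of_tendsto h1 ?_
    filter_upwards [Ioc_mem_nhdsGT (zero_lt_one' ℝ)] with ε hε
    exact hDL _ (hw ε hε t ht)
  have h0 : β ∈ Q.L x0 a b := by
    have := hcl 0 ⟨le_rfl, zero_le_one⟩
    rwa [ind_zero', map_zero, add_zero] at this
  have h1 := hcl 1 ⟨zero_le_one, le_rfl⟩
  have e0 : φ k β = φ k 0 := H.loc k _ _ fun i hi => hβ i hi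
  have e1 : φ k (β + T (ind S 1)) = φ k (T (ind S 1)) := H.loc k _ _ fun i hi => by
    rw [Pi.add_apply, hβ i hi, zero_add]
  -- choice of ε
  set C : ℝ := (Fintype.card ι : ℝ) * (‖T‖ * ‖w0‖) with hC
  have hC0 : 0 ≤ C := by positivity
  obtain ⟨ε, hε0, hε1, hε2, hε3⟩ : ∃ ε : ℝ, 0 < ε ∧ ε ≤ 1 ∧ ε * ‖w0‖ < η / 2 ∧
      ε * (2 * C) ≤ δ / 2 := by
    refine ⟨min 1 (min (η / (4 * (‖w0‖ + 1))) (δ / (4 * (C + 1)))), by positivity,
      min_le_left _ _, ?_, ?_⟩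
    · have h2 : min 1 (min (η / (4 * (‖w0‖ + 1))) (δ / (4 * (C + 1)))) ≤
          η / (4 * (‖w0‖ + 1)) := (min_le_right _ _).trans (min_le_left _ _)
      have h3 := mul_le_mul_of_nonneg_right h2 (norm_nonneg w0)
      have h4 : η / (4 * (‖w0‖ + 1)) * ‖w0‖ < η / 2 := by
        rw [div_mul_eq_mul_div, div_lt_div_iff₀ (by positivity) (by norm_num)]
        nlinarith [norm_nonneg w0]
      linarith
    · have h2 : min 1 (min (η / (4 * (‖w0‖ + 1))) (δ / (4 * (C + 1)))) ≤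
          δ / (4 * (C + 1)) := (min_le_right _ _).trans (min_le_right _ _)
      have h3 := mul_le_mul_of_nonneg_right h2 (by positivity : 0 ≤ 2 * C)
      have h4 : δ / (4 * (C + 1)) * (2 * C) ≤ δ / 2 := by
        rw [div_mul_eq_mul_div, div_le_div_iff₀ (by positivity) (by norm_num)]
        nlinarith
      linarith
  -- uniform ball around the segment
  have hcomp : IsCompact ((fun t : ℝ => ε • w0 + ind S t) '' Icc 0 1) :=
    isCompact_Icc.image (continuous_const.add (ind_continuous S))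
  have hsub : (fun t : ℝ => ε • w0 + ind S t) '' Icc 0 1 ⊆ D := by
    rintro _ ⟨t, ht, rfl⟩
    exact hw ε ⟨hε0, hε1⟩ t ht
  obtain ⟨ρ, hρ, hρD⟩ := hcomp.exists_thickening_subset_open hDo hsub
  have hη' : 0 < min ρ (η / 2) := lt_min hρ (by linarith)
  -- increment
  have i0 := OutS.lip_piece H k (hDL _ (hw ε ⟨hε0, hε1⟩ 0 ⟨le_rfl, zero_le_one⟩)) h0
  have i1 := OutS.lip_piece H k (hDL _ (hw ε ⟨hε0, hε1⟩ 1 ⟨zero_le_one, le_rfl⟩)) h1
  rw [ind_zero', add_zero] at i0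
  have n0 : ‖β + T (ε • w0) - β‖ ≤ ε * (‖T‖ * ‖w0‖) := by
    rw [add_sub_cancel_left]
    calc ‖T (ε • w0)‖ ≤ ‖T‖ * ‖ε • w0‖ := T.le_opNorm _
      _ = ε * (‖T‖ * ‖w0‖) := by rw [norm_smul, Real.norm_of_nonneg hε0.le]; ring
  have n1 : ‖β + T (ε • w0 + ind S 1) - (β + T (ind S 1))‖ ≤ ε * (‖T‖ * ‖w0‖) := by
    have e : β + T (ε • w0 + ind S 1) - (β + T (ind S 1)) = T (ε • w0) := by
      rw [map_add]; abel
    rw [e]
    calc ‖T (ε • w0)‖ ≤ ‖T‖ * ‖ε • w0‖ := T.le_opNorm _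
      _ = ε * (‖T‖ * ‖w0‖) := by rw [norm_smul, Real.norm_of_nonneg hε0.le]; ring
  have hcard : (0:ℝ) ≤ (Fintype.card ι : ℝ) := Nat.cast_nonneg _
  have m0 := (abs_le.1 (i0.trans (mul_le_mul_of_nonneg_left n0 hcard))).1
  have m1 := (abs_le.1 (i1.trans (mul_le_mul_of_nonneg_left n1 hcard))).2
  have hinc : (q - δ / 2) * 1 ≤ φ k (β + T (ε • w0)) - φ k (β + T (ε • w0 + ind S 1)) := by
    have e : (Fintype.card ι : ℝ) * (ε * (‖T‖ * ‖w0‖)) = ε * C := by rw [hC]; ring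
    rw [e] at m0 m1
    rw [e0] at m0
    rw [e1] at m1
    linarith
  obtain ⟨v, hvN, hvD, ⟨t, ht, htv⟩, G, hG0, hG1, hG2, hG3⟩ := exists_pos H k (T := T) (β := β)
    (D := D) hDo hDL hT (p := ε • w0) (S := S) (y := 1) (q := q - δ / 2) (δ := δ / 2)
    (η := min ρ (η / 2)) one_pos hη' (fun t ht x hx => hρD (by
      rw [mem_thickening_iff]
      exact ⟨_, ⟨t, ht, rfl⟩, lt_of_lt_of_le hx (min_le_left _ _)⟩)) hinc (by linarith) hN
  refine ⟨v, hvN, hvD, ⟨t, ⟨ht.1.le, ht.2.le⟩, ?_⟩, G, hG0, hG1, by linarith, hG3⟩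
  have e : v - ind S t = (v - (ε • w0 + ind S t)) + ε • w0 := by abel
  rw [e]
  calc ‖v - (ε • w0 + ind S t) + ε • w0‖ ≤ ‖v - (ε • w0 + ind S t)‖ + ‖ε • w0‖ :=
        norm_add_le _ _
    _ < η / 2 + η / 2 := by
        refine add_lt_add (lt_of_lt_of_le htv (min_le_right _ _)) ?_
        rwa [norm_smul, Real.norm_of_nonneg hε0.le]
    _ = η := by ring

end

end Crest.Agent.R116.SgO219
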