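import Crest.Agent.R116.SgP_890
import Crest.Agent.R116.Sg3a_665

/-!
# R116 (K side, LEMMA SIG): rates at a position for `σ = 0`, `σ = 2`; `PosF` from `LinFacts`
(helper890)

* `Out.rateBx0`, `Out.rateBx2` : all rates at a position from the rates of the group `0` and of the
  pair group
* **`posF_of`** : `LinFacts` (665) + moving natural base ⊢ `PosF`
-/

set_option autoImplicit false
set_option linter.unusedVariables false

open Set Filter Topology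

namespace Crest.Agent.R116.SgP890

open Crest.Agent.R136
open Crest.Agent.R138
open Crest.Agent.R136.Net191
open Crest.Agent.R116.ChL222
open Dg219 (Walls mw gset mem_gset gC dhC nC gC_zero gC_eq OutS)
open SgO219 (RateP)
open Sg337 (bx9)
open Sg635
open SgF665 (LM0 wl LinTan LinFacts lin_at wl_add wl_smul)

theorem Tzv (u : Fin 2 → ℝ) : Tz u 0 = u 0 ∧ Tz u 11 = u 1 := by
  rw [Tz_apply]
  exact ⟨(cv _ _ _ _ _ _ _ _ _).1, (cv _ _ _ _ _ _ _ _ _).2.2.2.2⟩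

theorem Tnv (u : Fin 2 → ℝ) : Tn u 9 = u 0 ∧ Tn u 11 = u 1 := by
  rw [Tn_apply]
  exact ⟨(cv _ _ _ _ _ _ _ _ _).2.2.2.1, (cv _ _ _ _ _ _ _ _ _).2.2.2.2⟩

section

variable {θa θb : ℝ} {lam : (Fin 12 → ℝ) → ℝ} {A : ℝ × ℝ} {φ : ℕ → (Fin 12 → ℝ) → ℝ} {r : ℕ → ℝ}

/-- all rates at a position, `σ = 0` -/
theorem Out.rateBx0 (H : Out θa θb lam A φ r) (ha : θa ≠ 0) (h0 : θb = 0) {v : Fin 4 → ℝ}
    {ζ X N f : ℝ} (hc0 : bg ζ X N f + T4 v ∈ LMd) {G : Fin 4 → ℝ} {G2 : Fin 2 → ℝ}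
    (hG : RateP (φ 0) (bg ζ X N f + T4 v) T4 G)
    (hG2 : RateP (φ (kz θa θb)) (bg ζ X N f + T4 v) Tz G2) :
    RateBx lam (bg ζ X N f + T4 v) (G2 0) (r (kX θa θb)) (r (kN θa θb)) (G2 1)
      (G 0) (G 1) (G 2) (G 3) := by
  intro z C p E B x Nn F hc
  obtain ⟨d0, d5, d6, d9, d11⟩ := dh_single (θa := θa) (θb := θb)
  have hs := slots0 (θa := θa) (θb := θb) ha h0
  have e0 : (![z, F] : Fin 2 → ℝ) 0 = z := rfl
  have e1 : (![z, F] : Fin 2 → ℝ) 1 = F := rfl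
  have l0 := H.rate_zero hG z C p E B x Nn F
  have lz := H.rate_pair (c := bx9 z 0 E C x B Nn p F) hG2 (u := ![z, F]) (fun i hi => by
    rcases (hs i).1.1 hi with rfl | rfl
    · rw [(Tzv _).1, (cv z 0 E C x B Nn p F).1, e0]
    · rw [(Tzv _).2, (cv z 0 E C x B Nn p F).2.2.2.2, e1])
  rw [e0, e1] at lz
  have lX := H.rate_single (k := kX θa θb) hc0 hc (u0 := X) (u := x) (fun i hi => by
    rcases (hs i).2.1.1 hi with rfl | rfl
    · rw [d5, mul_one, (pv ζ X N f v).2.1]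
    · rw [d6, mul_one, (pv ζ X N f v).2.2.1]) (fun i hi => by
    rcases (hs i).2.1.1 hi with rfl | rfl
    · rw [d5, mul_one, (cv z 0 E C x B Nn p F).2.1]
    · rw [d6, mul_one, (cv z 0 E C x B Nn p F).2.2.1])
  have lN := H.rate_single (k := kN θa θb) hc0 hc (u0 := N) (u := Nn) (fun i hi => by
    rw [(hs i).2.2.1 hi, d9, mul_one, (pv ζ X N f v).2.2.2.1]) (fun i hi => by
    rw [(hs i).2.2.1 hi, d9, mul_one, (cv z 0 E C x B Nn p F).2.2.2.1])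
  have hR' : ∀ k ∈ gset (gC aS (bS θa θb)), ∃ R : ℝ, Tendsto (fun t : ℝ =>
      (φ k (bg ζ X N f + T4 v + t • bx9 z 0 E C x B Nn p F) - φ k (bg ζ X N f + T4 v)) / t)
      (𝓝[>] 0) (𝓝 R) := by
    intro k hk
    rw [gset_eq] at hk
    simp only [Finset.mem_insert, Finset.mem_singleton] at hk
    rcases hk with h | h | h | h | h
    · rw [h]; exact ⟨_, l0⟩
    · rw [h]; exact ⟨_, lz⟩
    · rw [h]; exact ⟨_, lX⟩
    · rw [h]; exact ⟨_, lN⟩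
    · rw [h, ← kz_kF.2 h0]; exact ⟨_, lz⟩
  choose! R hR using hR'
  have key := Out.sum_lim H hc0 hc hR
  rw [(gset_sum0 (θa := θa) (θb := θb) ha h0 R).2] at key
  have m0 : (0:ℕ) ∈ gset (gC aS (bS θa θb)) := by rw [gset_eq]; simp
  have mz : kz θa θb ∈ gset (gC aS (bS θa θb)) := by rw [gset_eq]; simp
  have mX : kX θa θb ∈ gset (gC aS (bS θa θb)) := by rw [gset_eq]; simp
  have mN : kN θa θb ∈ gset (gC aS (bS θa θb)) := by rw [gset_eq]; simp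
  rw [tendsto_nhds_unique (hR 0 m0) l0, tendsto_nhds_unique (hR _ mz) lz,
    tendsto_nhds_unique (hR _ mX) lX, tendsto_nhds_unique (hR _ mN) lN] at key
  have e : -(G 0 * C + G 1 * p + G 2 * E + G 3 * B) + -(G2 0 * z + G2 1 * F) +
      -(r (kX θa θb) * x) + -(r (kN θa θb) * Nn) =
      -(G2 0 * z + r (kX θa θb) * x + r (kN θa θb) * Nn + G2 1 * F + G 0 * C + G 1 * p +
        G 2 * E + G 3 * B) := by ring
  rw [e] at key
  exact key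

/-- all rates at a position, `σ = 2` -/
theorem Out.rateBx2 (H : Out θa θb lam A φ r) (ha : θa ≠ 0) (h2 : θb = 2 * θa) {v : Fin 4 → ℝ}
    {ζ X N f : ℝ} (hc0 : bg ζ X N f + T4 v ∈ LMd) {G : Fin 4 → ℝ} {G2 : Fin 2 → ℝ}
    (hG : RateP (φ 0) (bg ζ X N f + T4 v) T4 G)
    (hG2 : RateP (φ (kN θa θb)) (bg ζ X N f + T4 v) Tn G2) :
    RateBx lam (bg ζ X N f + T4 v) (r (kz θa θb)) (r (kX θa θb)) (G2 0) (G2 1)
      (G 0) (G 1) (G 2) (G 3) := by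
  intro z C p E B x Nn F hc
  obtain ⟨d0, d5, d6, d9, d11⟩ := dh_single (θa := θa) (θb := θb)
  have hs := slots2 (θa := θa) (θb := θb) ha h2
  have e0 : (![Nn, F] : Fin 2 → ℝ) 0 = Nn := rfl
  have e1 : (![Nn, F] : Fin 2 → ℝ) 1 = F := rfl
  have l0 := H.rate_zero hG z C p E B x Nn F
  have lN := H.rate_pair (c := bx9 z 0 E C x B Nn p F) hG2 (u := ![Nn, F]) (fun i hi => by
    rcases (hs i).2.2.1 hi with rfl | rfl
    · rw [(Tnv _).1, (cv z 0 E C x B Nn p F).2.2.2.1, e0]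
    · rw [(Tnv _).2, (cv z 0 E C x B Nn p F).2.2.2.2, e1])
  rw [e0, e1] at lN
  have lX := H.rate_single (k := kX θa θb) hc0 hc (u0 := X) (u := x) (fun i hi => by
    rcases (hs i).2.1.1 hi with rfl | rfl
    · rw [d5, mul_one, (pv ζ X N f v).2.1]
    · rw [d6, mul_one, (pv ζ X N f v).2.2.1]) (fun i hi => by
    rcases (hs i).2.1.1 hi with rfl | rfl
    · rw [d5, mul_one, (cv z 0 E C x B Nn p F).2.1]
    · rw [d6, mul_one, (cv z 0 E C x B Nn p F).2.2.1])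
  have lz := H.rate_single (k := kz θa θb) hc0 hc (u0 := ζ) (u := z) (fun i hi => by
    rw [(hs i).1.1 hi, d0, mul_one, (pv ζ X N f v).1]) (fun i hi => by
    rw [(hs i).1.1 hi, d0, mul_one, (cv z 0 E C x B Nn p F).1])
  have hR' : ∀ k ∈ gset (gC aS (bS θa θb)), ∃ R : ℝ, Tendsto (fun t : ℝ =>
      (φ k (bg ζ X N f + T4 v + t • bx9 z 0 E C x B Nn p F) - φ k (bg ζ X N f + T4 v)) / t)
      (𝓝[>] 0) (𝓝 R) := by
    intro k hk
    rw [gset_eq] at hk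
    simp only [Finset.mem_insert, Finset.mem_singleton] at hk
    rcases hk with h | h | h | h | h
    · rw [h]; exact ⟨_, l0⟩
    · rw [h]; exact ⟨_, lz⟩
    · rw [h]; exact ⟨_, lX⟩
    · rw [h]; exact ⟨_, lN⟩
    · rw [h, ← kN_kF.2 h2]; exact ⟨_, lN⟩
  choose! R hR using hR'
  have key := Out.sum_lim H hc0 hc hR
  rw [(gset_sum2 (θa := θa) (θb := θb) ha h2 R).2] at key
  have m0 : (0:ℕ) ∈ gset (gC aS (bS θa θb)) := by rw [gset_eq]; simp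
  have mz : kz θa θb ∈ gset (gC aS (bS θa θb)) := by rw [gset_eq]; simp
  have mX : kX θa θb ∈ gset (gC aS (bS θa θb)) := by rw [gset_eq]; simp
  have mN : kN θa θb ∈ gset (gC aS (bS θa θb)) := by rw [gset_eq]; simp
  rw [tendsto_nhds_unique (hR 0 m0) l0, tendsto_nhds_unique (hR _ mz) lz,
    tendsto_nhds_unique (hR _ mX) lX, tendsto_nhds_unique (hR _ mN) lN] at key
  have e : -(G 0 * C + G 1 * p + G 2 * E + G 3 * B) + -(r (kz θa θb) * z) +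
      -(r (kX θa θb) * x) + -(G2 0 * Nn + G2 1 * F) =
      -(r (kz θa θb) * z + r (kX θa θb) * x + G2 0 * Nn + G2 1 * F + G 0 * C + G 1 * p +
        G 2 * E + G 3 * B) := by ring
  rw [e] at key
  exact key

end

/-! ### `PosF` from `LinFacts` -/

theorem LM0_eq : LM0 = LMd := rfl

/-- the slots of a position -/
theorem posv (z X N F : ℝ) (v : Fin 4 → ℝ) : (bg z X N F + T4 v) 0 = z ∧
    (bg z X N F + T4 v) 2 = v 2 ∧ (bg z X N F + T4 v) 3 = v 0 ∧ (bg z X N F + T4 v) 4 = v 0 ∧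
    (bg z X N F + T4 v) 5 = X ∧ (bg z X N F + T4 v) 6 = X ∧ (bg z X N F + T4 v) 7 = v 3 ∧
    (bg z X N F + T4 v) 8 = v 3 ∧ (bg z X N F + T4 v) 9 = N ∧ (bg z X N F + T4 v) 10 = v 1 ∧
    (bg z X N F + T4 v) 11 = F := by
  rw [bg_add]
  exact ⟨rfl, rfl, rfl, rfl, rfl, rfl, rfl, rfl, rfl, rfl, rfl⟩

/-- walls at the natural base points -/
theorem walls_of {x : Fin 12 → ℝ} (hx : ∀ k, ∀ e ∈ monL.mon k, e 1 = 0 → x k = wl e x) :
    x 5 = x 0 + x 3 ∧ x 6 = x 0 + x 4 ∧ x 9 = x 3 + x 5 ∧ x 9 = x 4 + x 6 ∧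
    x 11 = x 0 + x 10 ∧ x 11 = x 7 + x 5 ∧ x 11 = x 8 + x 6 ∧ x 11 = x 2 + x 9 := by
  have g : ∀ (k : Fin 12) (e : Fin 12 → ℕ), e ∈ mfL k → e 1 = 0 → x k = wl e x := hx
  have a1 := g 5 ![1, 0, 0, 1, 0, 0, 0, 0, 0, 0, 0, 0] (by decide) rfl
  have a2 := g 6 ![1, 0, 0, 0, 1, 0, 0, 0, 0, 0, 0, 0] (by decide) rfl
  have b3 := g 9 ![0, 0, 0, 1, 0, 1, 0, 0, 0, 0, 0, 0] (by decide) rfl
  have b4 := g 9 ![0, 0, 0, 0, 1, 0, 1, 0, 0, 0, 0, 0] (by decide) rfl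
  have d1 := g 11 ![1, 0, 0, 0, 0, 0, 0, 0, 0, 0, 1, 0] (by decide) rfl
  have d2 := g 11 ![0, 0, 0, 0, 0, 1, 0, 1, 0, 0, 0, 0] (by decide) rfl
  have d3 := g 11 ![0, 0, 0, 0, 0, 0, 1, 0, 1, 0, 0, 0] (by decide) rfl
  have d6 := g 11 ![0, 0, 1, 0, 0, 0, 0, 0, 0, 1, 0, 0] (by decide) rfl
  simp [wl, Fin.sum_univ_succ] at a1 a2 b3 b4 d1 d2 d3 d6
  refine ⟨?_, ?_, ?_, ?_, ?_, ?_, ?_, ?_⟩ <;> linarith

/-- **`PosF` FROM `LinFacts`** -/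
theorem posF_of {P : Set (Fin 12 → ℝ)} {θa θb lam0 : ℝ} (hl0 : lam0 ≠ 0)
    {A : ℝ × ℝ} {φ : ℕ → (Fin 12 → ℝ) → ℝ} {r : ℕ → ℝ}
    {J : Type*} [Finite J] {f lam : J → (Fin 12 → ℝ) → ℝ} {j0 : J} {x : ℕ → Fin 12 → ℝ}
    {h : ℕ → ℝ} {K : ℝ} (hK : 0 ≤ K) (hpos : ∀ l, 0 < h l) (h0 : Tendsto h atTop (𝓝 0))
    (hx : ∀ l, ∀ k, ∀ e ∈ monL.mon k, e 1 = 0 → x l k = wl e (x l))
    (hxD : ∀ k, ∀ e ∈ monL.mon k, e 1 ≠ 0 → ∀ K : ℝ, ∀ᶠ l in atTop,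
      x l k + K * h l ≤ wl e (x l))
    (ht : ∀ j, Ex926.IsTan P ((mw monL).L (xS lam0) aS (bS θa θb)) (f j) x h (lam j))
    (hlip : ∀ j, ∀ p ∈ (mw monL).L (xS lam0) aS (bS θa θb), ∀ q ∈ (mw monL).L (xS lam0) aS
      (bS θa θb), |lam j p - lam j q| ≤ K * ‖p - q‖)
    (H : OutS (gC aS (bS θa θb)) ((mw monL).L (xS lam0) aS (bS θa θb)) (dhC aS (bS θa θb))
      (nC aS (bS θa θb)) (lam j0) A φ r)
    {sc : ℕ → ℝ} (spos : ∀ m, 0 < sc m) (s0 : Tendsto sc atTop (𝓝 0))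
    {Bs : (ℕ → Fin 12 → ℝ) → (ℕ → ℝ) → Prop}
    (hBs : ∀ c0 ∈ LMd, c0 3 = c0 4 → c0 5 = c0 6 → c0 7 = c0 8 → ∀ ψ θ : ℕ → ℕ,
      StrictMono ψ → StrictMono θ →
      Bs (fun m => x (ψ m) + h (ψ m) • c0) (fun m => h (ψ m) * sc (θ m)))
    {s : ℝ} (HL : LinFacts P f j0 Bs s) : PosF (lam j0) s := by
  have key : ∀ v ∈ Pos, ∀ z X N F : ℝ, bg z X N F + T4 v ∈ LMd →
      ∀ rz rX rH rF gC gP gE gB : ℝ, RateBx (lam j0) (bg z X N F + T4 v) rz rX rH rF gC gP gE gB →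
      ∃ ψ θ : ℕ → ℕ, Bs (fun m => x (ψ m) + h (ψ m) • (bg z X N F + T4 v))
        (fun m => h (ψ m) * sc (θ m)) ∧
        LinTan P f j0 (fun m => x (ψ m) + h (ψ m) • (bg z X N F + T4 v))
          (fun m => h (ψ m) * sc (θ m)) rz rX rH rF gC gP gE gB := by
    intro v hv z X N F hc rz rX rH rF gC gP gE gB hR
    obtain ⟨ψ, θ, hψ, hθ, hL⟩ := lin_at hK hpos h0 (L_eq hl0) hx hxD ht hlip H
      (c0 := bg z X N F + T4 v) hc spos s0 hR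
    obtain ⟨p0, p2, p3, p4, p5, p6, p7, p8, p9, p10, p11⟩ := posv z X N F v
    exact ⟨ψ, θ, hBs _ hc (p3.trans p4.symm) (p5.trans p6.symm) (p7.trans p8.symm) ψ θ hψ hθ, hL⟩
  refine ⟨?_, ?_, ?_, ?_, ?_⟩
  · intro v hv z X N F hc rz rX rH rF gC gP gE gB hR hX
    obtain ⟨ψ, θ, hB, hL⟩ := key v hv z X N F hc _ _ _ _ _ _ _ _ hR
    obtain ⟨p0, p2, p3, p4, p5, p6, p7, p8, p9, p10, p11⟩ := posv z X N F v
    refine HL.K1 _ _ _ _ _ _ _ _ _ _ hB hL (fun n => ?_) (fun n => ?_)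
    · have w := walls_of (hx (ψ n))
      simp only [Pi.add_apply (x (ψ n)), Pi.smul_apply, smul_eq_mul, p0, p3, p5]
      rw [w.1, hX]; ring
    · have w := walls_of (hx (ψ n))
      simp only [Pi.add_apply (x (ψ n)), Pi.smul_apply, smul_eq_mul, p0, p4, p6]
      rw [w.2.1, hX]; ring
  · intro v hv z X N F hc rz rX rH rF gC gP gE gB hR hX
    obtain ⟨ψ, θ, hB, hL⟩ := key v hv z X N F hc _ _ _ _ _ _ _ _ hR
    obtain ⟨p0, p2, p3, p4, p5, p6, p7, p8, p9, p10, p11⟩ := posv z X N F v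
    refine HL.H1 _ _ _ _ _ _ _ _ _ _ hB hL (fun n => ?_) (fun n => ?_)
    · have w := (walls_of (hx (ψ n))).2.2.1
      simp only [Pi.add_apply (x (ψ n)), Pi.smul_apply, smul_eq_mul, p3, p5, p9]
      rw [w, hX]; ring
    · have w := (walls_of (hx (ψ n))).2.2.2.1
      simp only [Pi.add_apply (x (ψ n)), Pi.smul_apply, smul_eq_mul, p4, p6, p9]
      rw [w, hX]; ring
  · intro v hv z X N F hc rz rX rH rF gC gP gE gB hR hX
    obtain ⟨ψ, θ, hB, hL⟩ := key v hv z X N F hc _ _ _ _ _ _ _ _ hR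
    obtain ⟨p0, p2, p3, p4, p5, p6, p7, p8, p9, p10, p11⟩ := posv z X N F v
    refine HL.K2 _ _ _ _ _ _ _ _ _ _ hB hL (fun n => ?_)
    have w := (walls_of (hx (ψ n))).2.2.2.2.1
    simp only [Pi.add_apply (x (ψ n)), Pi.smul_apply, smul_eq_mul, p0, p10, p11]
    rw [w, hX]; ring
  · intro v hv z X N F hc rz rX rH rF gC gP gE gB hR hX
    obtain ⟨ψ, θ, hB, hL⟩ := key v hv z X N F hc _ _ _ _ _ _ _ _ hR
    obtain ⟨p0, p2, p3, p4, p5, p6, p7, p8, p9, p10, p11⟩ := posv z X N F v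
    refine HL.S1 _ _ _ _ _ _ _ _ _ _ hB hL (fun n => ?_) (fun n => ?_)
    · have w := (walls_of (hx (ψ n))).2.2.2.2.2.1
      simp only [Pi.add_apply (x (ψ n)), Pi.smul_apply, smul_eq_mul, p5, p7, p11]
      rw [w, hX]; ring
    · have w := (walls_of (hx (ψ n))).2.2.2.2.2.2.1
      simp only [Pi.add_apply (x (ψ n)), Pi.smul_apply, smul_eq_mul, p6, p8, p11]
      rw [w, hX]; ring
  · intro v hv z X N F hc rz rX rH rF gC gP gE gB hR hX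
    obtain ⟨ψ, θ, hB, hL⟩ := key v hv z X N F hc _ _ _ _ _ _ _ _ hR
    obtain ⟨p0, p2, p3, p4, p5, p6, p7, p8, p9, p10, p11⟩ := posv z X N F v
    refine HL.S2 _ _ _ _ _ _ _ _ _ _ hB hL (fun n => ?_)
    have w := (walls_of (hx (ψ n))).2.2.2.2.2.2.2
    simp only [Pi.add_apply (x (ψ n)), Pi.smul_apply, smul_eq_mul, p2, p9, p11]
    rw [w, hX]; ring

end Crest.Agent.R116.SgP890
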