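import Crest.Agent.R116.Sg3a_635
import Crest.Agent.R116.Sg3p_890

/-!
# R116 (K side, LEMMA SIG): the facts at a position, common interface of the cases (helper890)

* `RateBx lam c0 rz .. gB` : one-sided directional derivatives of `lam` at `c0`, all bx-directions
* `PosF lam s`             : the facts K1 F1 H1 K2 F2 S1 S2 at all positions `bg z X N F + T4 v`
* `rate_single`, `rate_zero`, `rate_pair` : rates of the groups
* `rateBx_sum`             : from the groups to `RateBx`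
* `slots0`, `slots2`       : the slots of the groups at `σ = 0`, `σ = 2`
-/

set_option autoImplicit false
set_option linter.unusedVariables false

open Set Filter Topology

namespace Crest.Agent.R116.SgP890

open Crest.Agent.R136
open Dg219 (Walls mw gset mem_gset gC dhC nC gC_zero gC_eq OutS)
open SgO219 (RateP)
open Sg337 (bx9)
open Sg635

/-- directional derivatives of `lam` at `c0` along the bx-directions of the cone -/
def RateBx (lam : (Fin 12 → ℝ) → ℝ) (c0 : Fin 12 → ℝ) (rz rX rH rF gC gP gE gB : ℝ) : Prop :=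
  ∀ z C p E B x H F : ℝ, bx9 z 0 E C x B H p F ∈ LMd →
    Tendsto (fun t : ℝ => (lam (c0 + t • bx9 z 0 E C x B H p F) - lam c0) / t) (𝓝[>] 0)
      (𝓝 (-(rz * z + rX * x + rH * H + rF * F + gC * C + gP * p + gE * E + gB * B)))

/-- the facts at the positions -/
structure PosF (lam : (Fin 12 → ℝ) → ℝ) (s : ℝ) : Prop where
  K1 : ∀ v ∈ Pos, ∀ z X N F : ℝ, bg z X N F + T4 v ∈ LMd → ∀ rz rX rH rF gC gP gE gB : ℝ,
    RateBx lam (bg z X N F + T4 v) rz rX rH rF gC gP gE gB → X = z + v 0 →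
    (0 < gC → 1 - s ≤ rX) ∧ (s < gC → 1 ≤ rX)
  H1 : ∀ v ∈ Pos, ∀ z X N F : ℝ, bg z X N F + T4 v ∈ LMd → ∀ rz rX rH rF gC gP gE gB : ℝ,
    RateBx lam (bg z X N F + T4 v) rz rX rH rF gC gP gE gB → N = v 0 + X → 0 < gC → rX ≤ rH
  K2 : ∀ v ∈ Pos, ∀ z X N F : ℝ, bg z X N F + T4 v ∈ LMd → ∀ rz rX rH rF gC gP gE gB : ℝ,
    RateBx lam (bg z X N F + T4 v) rz rX rH rF gC gP gE gB → F = z + v 1 →
    (0 < gP → 1 - s ≤ rF) ∧ (s < gP → 1 ≤ rF)
  S1 : ∀ v ∈ Pos, ∀ z X N F : ℝ, bg z X N F + T4 v ∈ LMd → ∀ rz rX rH rF gC gP gE gB : ℝ,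
    RateBx lam (bg z X N F + T4 v) rz rX rH rF gC gP gE gB → F = X + v 3 → 0 < gB → rX ≤ rF
  S2 : ∀ v ∈ Pos, ∀ z X N F : ℝ, bg z X N F + T4 v ∈ LMd → ∀ rz rX rH rF gC gP gE gB : ℝ,
    RateBx lam (bg z X N F + T4 v) rz rX rH rF gC gP gE gB → F = v 2 + N → 0 < gE → rH ≤ rF

/-! ### the cone -/

theorem LMd_add {p q : Fin 12 → ℝ} (hp : p ∈ LMd) (hq : q ∈ LMd) : p + q ∈ LMd := by
  intro k e he h1
  have a := hp k e he h1
  have b := hq k e he h1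
  have e1 : ∑ s, (e s : ℝ) * (p + q) s = ∑ s, (e s : ℝ) * p s + ∑ s, (e s : ℝ) * q s := by
    rw [← Finset.sum_add_distrib]
    exact Finset.sum_congr rfl fun s _ => by rw [Pi.add_apply]; ring
  rw [e1, Pi.add_apply]
  exact add_le_add a b

theorem LMd_smul {p : Fin 12 → ℝ} (hp : p ∈ LMd) {t : ℝ} (ht : 0 ≤ t) : t • p ∈ LMd := by
  intro k e he h1
  have a := hp k e he h1
  have e1 : ∑ s, (e s : ℝ) * (t • p) s = t * ∑ s, (e s : ℝ) * p s := by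
    rw [Finset.mul_sum]
    exact Finset.sum_congr rfl fun s _ => by rw [Pi.smul_apply, smul_eq_mul]; ring
  rw [e1, Pi.smul_apply, smul_eq_mul]
  exact mul_le_mul_of_nonneg_left a ht

theorem LMd_line {p c : Fin 12 → ℝ} (hp : p ∈ LMd) (hc : c ∈ LMd) {t : ℝ} (ht : 0 ≤ t) :
    p + t • c ∈ LMd := LMd_add hp (LMd_smul hc ht)

section

variable {θa θb : ℝ} {lam : (Fin 12 → ℝ) → ℝ} {A : ℝ × ℝ} {φ : ℕ → (Fin 12 → ℝ) → ℝ} {r : ℕ → ℝ}

/-- the splitting on `LMd` -/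
abbrev Out (θa θb : ℝ) (lam : (Fin 12 → ℝ) → ℝ) (A : ℝ × ℝ) (φ : ℕ → (Fin 12 → ℝ) → ℝ)
    (r : ℕ → ℝ) : Prop :=
  OutS (gC aS (bS θa θb)) LMd (dhC aS (bS θa θb)) (nC aS (bS θa θb)) lam A φ r

theorem Out.sum_lim (H : Out θa θb lam A φ r) {c0 c : Fin 12 → ℝ} (hc0 : c0 ∈ LMd) (hc : c ∈ LMd)
    {ρ : ℕ → ℝ} (hρ : ∀ k ∈ gset (gC aS (bS θa θb)),
      Tendsto (fun t : ℝ => (φ k (c0 + t • c) - φ k c0) / t) (𝓝[>] 0) (𝓝 (ρ k))) :
    Tendsto (fun t : ℝ => (lam (c0 + t • c) - lam c0) / t) (𝓝[>] 0)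
      (𝓝 (∑ k ∈ gset (gC aS (bS θa θb)), ρ k)) := by
  refine (tendsto_finsetSum _ hρ).congr' ?_
  filter_upwards [self_mem_nhdsWithin] with t ht
  rw [H.sum _ (LMd_line hc0 hc (le_of_lt ht)), H.sum _ hc0, ← Finset.sum_sub_distrib,
    Finset.sum_div]

/-- rate of a single group (all slots of the group have `dh = 1` and equal entries) -/
theorem Out.rate_single (H : Out θa θb lam A φ r) {k : ℕ} {c0 c : Fin 12 → ℝ} (hc0 : c0 ∈ LMd)
    (hc : c ∈ LMd) {u0 u : ℝ} (h0 : ∀ i, gC aS (bS θa θb) i = k → c0 i = u0 * dhC aS (bS θa θb) i)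
    (h1 : ∀ i, gC aS (bS θa θb) i = k → c i = u * dhC aS (bS θa θb) i) :
    Tendsto (fun t : ℝ => (φ k (c0 + t • c) - φ k c0) / t) (𝓝[>] 0) (𝓝 (-(r k * u))) := by
  refine tendsto_const_nhds.congr' ?_
  filter_upwards [self_mem_nhdsWithin] with t ht
  have ht' : (0:ℝ) < t := ht
  rw [H.rate k _ (LMd_line hc0 hc ht'.le) (u0 + t * u) (fun i hi => by
    rw [Pi.add_apply, Pi.smul_apply, smul_eq_mul, h0 i hi, h1 i hi]; ring),
    H.rate k _ hc0 u0 h0]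
  field_simp
  ring

/-- rate of the group `0` -/
theorem Out.rate_zero (H : Out θa θb lam A φ r) {c0 : Fin 12 → ℝ} {G : Fin 4 → ℝ}
    (hG : RateP (φ 0) c0 T4 G) (z C p E B x N F : ℝ) :
    Tendsto (fun t : ℝ => (φ 0 (c0 + t • bx9 z 0 E C x B N p F) - φ 0 c0) / t) (𝓝[>] 0)
      (𝓝 (-(G 0 * C + G 1 * p + G 2 * E + G 3 * B))) := by
  have h1 := hG ![C, p, E, B]
  have e : -∑ i, G i * (![C, p, E, B] : Fin 4 → ℝ) i =
      -(G 0 * C + G 1 * p + G 2 * E + G 3 * B) := by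
    simp [Fin.sum_univ_succ]; ring
  rw [e] at h1
  refine h1.congr fun t => ?_
  rw [H.loc 0 (c0 + t • T4 ![C, p, E, B]) (c0 + t • bx9 z 0 E C x B N p F) fun i hi => ?_]
  have hi' := g_zero.1 hi
  simp only [Pi.add_apply, Pi.smul_apply, smul_eq_mul]
  rw [T4_apply]
  fin_cases i <;> simp [bx9] at hi' ⊢

/-- rate of a pair group -/
theorem Out.rate_pair (H : Out θa θb lam A φ r) {k : ℕ} {c0 c : Fin 12 → ℝ}
    {T : (Fin 2 → ℝ) →L[ℝ] (Fin 12 → ℝ)} {G : Fin 2 → ℝ}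
    (hG : RateP (φ k) c0 T G) {u : Fin 2 → ℝ} (hc : ∀ i, gC aS (bS θa θb) i = k → c i = T u i) :
    Tendsto (fun t : ℝ => (φ k (c0 + t • c) - φ k c0) / t) (𝓝[>] 0)
      (𝓝 (-(G 0 * u 0 + G 1 * u 1))) := by
  have h1 := hG u
  have e : -∑ i, G i * u i = -(G 0 * u 0 + G 1 * u 1) := by
    rw [Fin.sum_univ_two]
  rw [e] at h1
  refine h1.congr fun t => ?_
  rw [H.loc k (c0 + t • T u) (c0 + t • c) fun i hi => by
    simp only [Pi.add_apply, Pi.smul_apply, smul_eq_mul]; rw [hc i hi]]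

/-! ### slots -/

theorem slots0 (ha : θa ≠ 0) (h0 : θb = 0) (i : Fin 12) :
    (gC aS (bS θa θb) i = kz θa θb ↔ i = 0 ∨ i = 11) ∧
    (gC aS (bS θa θb) i = kX θa θb ↔ i = 5 ∨ i = 6) ∧
    (gC aS (bS θa θb) i = kN θa θb ↔ i = 9) := by
  have a1 : kz θa θb ≠ kX θa θb := fun h => ha (kz_kX.1 h)
  have a2 : kz θa θb ≠ kN θa θb := fun h => ha (kz_kN.1 h)
  have a3 : kF θa θb = kz θa θb := (kz_kF.2 h0).symm
  have a4 : kX θa θb ≠ kN θa θb := fun h => ha (kX_kN.1 h)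
  have b1 := (kz_ne (θa := θa) (θb := θb)).symm
  have b2 := (kX_ne (θa := θa) (θb := θb)).symm
  have b3 := (kN_ne (θa := θa) (θb := θb)).symm
  by_cases hi : i ∈ ({1, 2, 3, 4, 7, 8, 10} : Finset (Fin 12))
  · have hg : gC aS (bS θa θb) i = 0 := g_zero.2 hi
    rw [hg]
    fin_cases i <;> simp at hi ⊢ <;> exact ⟨b1, b2, b3⟩
  · have e0 : gC aS (bS θa θb) 0 = kz θa θb := rfl
    have e5 : gC aS (bS θa θb) 5 = kX θa θb := rfl
    have e9 : gC aS (bS θa θb) 9 = kN θa θb := rfl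
    have e11 : gC aS (bS θa θb) 11 = kz θa θb := a3
    fin_cases i <;> simp at hi ⊢
    · simp [e0, a1, a2]
    · simp [e5, a1.symm, a4]
    · simp [g6, a1.symm, a4]
    · simp [e9, a2.symm, a4.symm]
    · simp [e11, a1, a2]

theorem slots2 (ha : θa ≠ 0) (h2 : θb = 2 * θa) (i : Fin 12) :
    (gC aS (bS θa θb) i = kz θa θb ↔ i = 0) ∧
    (gC aS (bS θa θb) i = kX θa θb ↔ i = 5 ∨ i = 6) ∧
    (gC aS (bS θa θb) i = kN θa θb ↔ i = 9 ∨ i = 11) := by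
  have a1 : kz θa θb ≠ kX θa θb := fun h => ha (kz_kX.1 h)
  have a2 : kz θa θb ≠ kN θa θb := fun h => ha (kz_kN.1 h)
  have a3 : kF θa θb = kN θa θb := (kN_kF.2 h2).symm
  have a4 : kX θa θb ≠ kN θa θb := fun h => ha (kX_kN.1 h)
  have b1 := (kz_ne (θa := θa) (θb := θb)).symm
  have b2 := (kX_ne (θa := θa) (θb := θb)).symm
  have b3 := (kN_ne (θa := θa) (θb := θb)).symm
  by_cases hi : i ∈ ({1, 2, 3, 4, 7, 8, 10} : Finset (Fin 12))
  · have hg : gC aS (bS θa θb) i = 0 := g_zero.2 hi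
    rw [hg]
    fin_cases i <;> simp at hi ⊢ <;> exact ⟨b1, b2, b3⟩
  · have e0 : gC aS (bS θa θb) 0 = kz θa θb := rfl
    have e5 : gC aS (bS θa θb) 5 = kX θa θb := rfl
    have e9 : gC aS (bS θa θb) 9 = kN θa θb := rfl
    have e11 : gC aS (bS θa θb) 11 = kN θa θb := a3
    fin_cases i <;> simp at hi ⊢
    · simp [e0, a1, a2]
    · simp [e5, a1.symm, a4]
    · simp [g6, a1.symm, a4]
    · simp [e9, a2.symm, a4.symm]
    · simp [e11, a2.symm, a4.symm]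

/-! ### pair moves -/

/-- moves of the pair `(z, F)` -/
def Tzl : (Fin 2 → ℝ) →ₗ[ℝ] (Fin 12 → ℝ) where
  toFun := fun u => bx9 (u 0) 0 0 0 0 0 0 0 (u 1)
  map_add' := fun v w => by funext k; fin_cases k <;> simp [bx9]
  map_smul' := fun c v => by funext k; fin_cases k <;> simp [bx9]

noncomputable def Tz : (Fin 2 → ℝ) →L[ℝ] (Fin 12 → ℝ) := LinearMap.toContinuousLinearMap Tzl

theorem Tz_apply (u : Fin 2 → ℝ) : Tz u = bx9 (u 0) 0 0 0 0 0 0 0 (u 1) := rfl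

/-- moves of the pair `(N, F)` -/
def Tnl : (Fin 2 → ℝ) →ₗ[ℝ] (Fin 12 → ℝ) where
  toFun := fun u => bx9 0 0 0 0 0 0 (u 0) 0 (u 1)
  map_add' := fun v w => by funext k; fin_cases k <;> simp [bx9]
  map_smul' := fun c v => by funext k; fin_cases k <;> simp [bx9]

noncomputable def Tn : (Fin 2 → ℝ) →L[ℝ] (Fin 12 → ℝ) := LinearMap.toContinuousLinearMap Tnl

theorem Tn_apply (u : Fin 2 → ℝ) : Tn u = bx9 0 0 0 0 0 0 (u 0) 0 (u 1) := rfl

theorem pv (z X N F : ℝ) (v : Fin 4 → ℝ) : (bg z X N F + T4 v) 0 = z ∧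
    (bg z X N F + T4 v) 5 = X ∧ (bg z X N F + T4 v) 6 = X ∧ (bg z X N F + T4 v) 9 = N ∧
    (bg z X N F + T4 v) 11 = F := by
  rw [bg_add]
  exact ⟨rfl, rfl, rfl, rfl, rfl⟩

theorem cv (z D E C X B N P F : ℝ) : bx9 z D E C X B N P F 0 = z ∧
    bx9 z D E C X B N P F 5 = X ∧ bx9 z D E C X B N P F 6 = X ∧ bx9 z D E C X B N P F 9 = N ∧
    bx9 z D E C X B N P F 11 = F := ⟨rfl, rfl, rfl, rfl, rfl⟩

end

end Crest.Agent.R116.SgP890
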