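import Crest.Agent.R138.WpkDef_685

/-!
# R116 (S0155), wave side: eta-slicing, part 1 (helper850): multipliers in the last frequency
variable as averages over translations in the last position variable.

`ex h g X s = ∫ g ζ ee(⟨X,ζ⟩ + s h ζ)` on `E3`, any measurable phase `h`; `ey` = last unit vector;
`φ (ζ₂/κ - l) g` has `ex = ∫ K(u) ee(-u l) ex h g (X + (u/κ) ey) s du`, `K` = Fourier transform of
`φ`, rapidly decreasing.
-/

set_option autoImplicit false

open MeasureTheory FourierTransform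
open scoped ContDiff ENNReal

namespace Crest.Agent.R116.Sl850

open Crest.Agent.R138.Defs Crest.Agent.R138.Wpk685

/-- three-space of frequencies and of positions at fixed time. -/
abbrev E3 := EuclideanSpace ℝ (Fin 3)

/-- the extension operator in `ℝ³ × ℝ` with phase `h`. -/
noncomputable def ex (h : E3 → ℝ) (g : E3 → ℂ) (X : E3) (s : ℝ) : ℂ :=
  ∫ ζ, g ζ * ee (inner ℝ X ζ + s * h ζ)

/-- last unit vector. -/
noncomputable def ey : E3 := EuclideanSpace.single 2 1

theorem inner_ey (ζ : E3) : inner ℝ ey ζ = ζ 2 := by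
  unfold ey
  rw [EuclideanSpace.inner_single_left]
  simp

theorem norm_ey : ‖ey‖ = 1 := by
  unfold ey
  simp

/-! ### one dimensional kernels -/

theorem kern {φ : ℝ → ℂ} (h1 : HasCompactSupport φ) (h2 : ContDiff ℝ ∞ φ) :
    ∃ K : ℝ → ℂ, Continuous K ∧ Integrable K ∧
      (∀ N : ℕ, ∃ C : ℝ, 0 ≤ C ∧ ∀ u, ‖K u‖ ≤ C * ((1 + |u|) ^ N)⁻¹) ∧
      ∀ x, φ x = ∫ u, K u * ee (u * x) := by
  set f : SchwartzMap ℝ ℂ := h1.toSchwartzMap h2 with hf
  set F : SchwartzMap ℝ ℂ := 𝓕 f with hF
  refine ⟨F, F.continuous, F.integrable, fun N => ?_, fun x => ?_⟩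
  · refine ⟨2 ^ N * (Finset.Iic (N, 0)).sup (fun m => SchwartzMap.seminorm ℝ m.1 m.2) F,
      by positivity, fun u => ?_⟩
    have h := SchwartzMap.one_add_le_sup_seminorm_apply (𝕜 := ℝ) (m := (N, 0)) (k := N) (n := 0)
      le_rfl le_rfl F u
    rw [norm_iteratedFDeriv_zero, Real.norm_eq_abs, mul_comm] at h
    rw [← div_eq_mul_inv, le_div_iff₀ (by positivity)]
    exact h
  · have e1 : φ x = 𝓕⁻ F x := by
      rw [hF, FourierTransform.fourierInv_fourier_eq]
      rfl
    rw [e1, SchwartzMap.fourierInv_coe, Real.fourierInv_eq']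
    congr 1
    ext u
    rw [smul_eq_mul, mul_comm]
    unfold ee
    congr 2
    simp only [RCLike.inner_apply, conj_trivial]
    push_cast
    ring

/-! ### multipliers in the last frequency variable -/

theorem ex_shift (h : E3 → ℝ) (g : E3 → ℂ) (X : E3) (s a : ℝ) :
    ex h g (X + a • ey) s = ∫ ζ, g ζ * ee (inner ℝ X ζ + s * h ζ) * ee (a * ζ 2) := by
  unfold ex
  congr 1
  ext ζ
  rw [inner_add_left, inner_smul_left, inner_ey, mul_assoc, ← ee_add]
  congr 2
  simp only [conj_trivial]
  ring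

/-- the basic formula. -/
theorem ex_mult {h : E3 → ℝ} (hh : Measurable h) {φ K : ℝ → ℂ} (hK : Integrable K)
    (hφ : ∀ x, φ x = ∫ u, K u * ee (u * x)) {g : E3 → ℂ} (hg : Integrable g) (κ l : ℝ)
    (X : E3) (s : ℝ) :
    ex h (fun ζ => φ (ζ 2 / κ - l) * g ζ) X s =
      ∫ u, K u * ee (-(u * l)) * ex h g (X + (u / κ) • ey) s := by
  have e1 : ∀ ζ : E3, φ (ζ 2 / κ - l) * g ζ * ee (inner ℝ X ζ + s * h ζ) =
      ∫ u, K u * ee (-(u * l)) * (g ζ * ee (inner ℝ X ζ + s * h ζ) * ee (u / κ * ζ 2)) := by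
    intro ζ
    rw [hφ, mul_assoc, ← integral_mul_const]
    congr 1
    ext u
    have : ee (u * (ζ 2 / κ - l)) = ee (-(u * l)) * ee (u / κ * ζ 2) := by
      rw [← ee_add]
      congr 1
      ring
    rw [this]
    ring
  have hm : Integrable (Function.uncurry fun (ζ : E3) (u : ℝ) =>
      K u * ee (-(u * l)) * (g ζ * ee (inner ℝ X ζ + s * h ζ) * ee (u / κ * ζ 2)))
      ((volume : Measure E3).prod (volume : Measure ℝ)) := by
    have h1 : Integrable (fun z : E3 × ℝ => g z.1 * K z.2)
        ((volume : Measure E3).prod (volume : Measure ℝ)) := hg.mul_prod hK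
    refine h1.congr' ?_ ?_
    · have hm1 : AEStronglyMeasurable (fun z : E3 × ℝ => g z.1)
          ((volume : Measure E3).prod (volume : Measure ℝ)) := hg.aestronglyMeasurable.comp_fst
      have hm2 : AEStronglyMeasurable (fun z : E3 × ℝ => K z.2)
          ((volume : Measure E3).prod (volume : Measure ℝ)) := hK.aestronglyMeasurable.comp_snd
      have hme : Measurable ee := continuous_ee.measurable
      have c1 : AEStronglyMeasurable (fun z : E3 × ℝ => ee (-(z.2 * l)))
          ((volume : Measure E3).prod (volume : Measure ℝ)) :=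
        (hme.comp (by fun_prop)).aestronglyMeasurable
      have c2 : AEStronglyMeasurable (fun z : E3 × ℝ => ee (inner ℝ X z.1 + s * h z.1))
          ((volume : Measure E3).prod (volume : Measure ℝ)) :=
        (hme.comp (by fun_prop)).aestronglyMeasurable
      have c3 : AEStronglyMeasurable (fun z : E3 × ℝ => ee (z.2 / κ * z.1 2))
          ((volume : Measure E3).prod (volume : Measure ℝ)) :=
        (hme.comp (by fun_prop)).aestronglyMeasurable
      exact (hm2.mul c1).mul ((hm1.mul c2).mul c3)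
    · refine Filter.Eventually.of_forall fun z => ?_
      simp only [Function.uncurry, norm_mul, norm_ee, mul_one]
      ring
  calc ex h (fun ζ => φ (ζ 2 / κ - l) * g ζ) X s
      = ∫ ζ, ∫ u, K u * ee (-(u * l)) *
          (g ζ * ee (inner ℝ X ζ + s * h ζ) * ee (u / κ * ζ 2)) := by
        unfold ex
        exact integral_congr_ae (Filter.Eventually.of_forall e1)
    _ = ∫ u, ∫ ζ, K u * ee (-(u * l)) *
          (g ζ * ee (inner ℝ X ζ + s * h ζ) * ee (u / κ * ζ 2)) := integral_integral_swap hm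
    _ = _ := by
        congr 1
        ext u
        rw [integral_const_mul, ex_shift]

/-- the formula at a displaced point. -/
theorem ex_mult_shift {h : E3 → ℝ} (hh : Measurable h) {φ K : ℝ → ℂ} (hK : Integrable K)
    (hφ : ∀ x, φ x = ∫ u, K u * ee (u * x)) {g : E3 → ℂ} (hg : Integrable g) {κ : ℝ} (hκ : κ ≠ 0)
    (l : ℝ) (X : E3) (s v : ℝ) :
    ex h (fun ζ => φ (ζ 2 / κ - l) * g ζ) (X + v • ey) s =
      ∫ u, K (u - κ * v) * ee (-((u - κ * v) * l)) * ex h g (X + (u / κ) • ey) s := by
  rw [ex_mult hh hK hφ hg κ l (X + v • ey) s,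
    ← integral_sub_right_eq_self (fun u => K u * ee (-(u * l)) *
      ex h g (X + v • ey + (u / κ) • ey) s) (κ * v)]
  congr 1
  ext u
  congr 2
  have : X + v • ey + ((u - κ * v) / κ) • ey = X + (u / κ) • ey := by
    rw [add_assoc, ← add_smul]
    congr 2
    field_simp
    ring
  exact this

end Crest.Agent.R116.Sl850
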