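import Crest.Agent.R116.GlC_210
import Crest.Agent.R116.PDf2_299
import Crest.Agent.R116.StepC1_367
import Crest.Agent.R116.TuL_890
import Crest.Agent.R138.Chi_101

/-!
# R116 (S0155), WAVE side, `SLAB` from `STEP_C` (helper367), part 1: the class of a phase point

`clsC` = class of a child phase point `(m, y)`: dyadic index of the density `Adc` and of the coherence
count `potc` (with respect to its own normal).  Port of `Chi_101`, `Stp1_210` to the cone.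
-/

set_option autoImplicit false

open MeasureTheory FourierTransform
open scoped ENNReal

namespace Crest.Agent.R116.Slb367

open Crest.Agent.R138.Defs (E2 ee)
open Crest.Agent.R138.Wpk685 (cen caps)
open Crest.Agent.R138.Rect779 (RectF orth)
open Crest.Agent.R138.Acl101 (clsA pcnt pr dy)
open Crest.Agent.R138.Loc878 (nearL)
open Crest.Agent.R116.CDef480
open Crest.Agent.R116.LZg725 (Cf)
open Crest.Agent.R116.Gc192 (un crs)
open Crest.Agent.R116.AlB888 (Adc potc)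
open Crest.Agent.R116.WC188
open Crest.Agent.R116.PC299
open Crest.Agent.R116.Bas367
open Crest.Agent.R116.GlC210 (Lev LevOk Next Aux Cls Tow AuxF trn Acl Rg Kp argc AuxOk)

/-! ### the rectangle relation -/

/-- rectangle relation of `potc`. -/
def RcC (θ' θ'' : ℝ) (N : E2) (m m' : ℤ × ℤ) : Prop :=
  cen θ' m' ∈ RectF N (cen θ' m) (16 * θ'') (64 * θ')

theorem RcC_refl {θ' θ'' : ℝ} (h1 : 0 ≤ θ') (h2 : 0 ≤ θ'') (N : E2) (m : ℤ × ℤ) :
    RcC θ' θ'' N m m := by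
  unfold RcC RectF
  simp only [Set.mem_ofPred_eq, sub_self, norm_zero]
  refine ⟨by positivity, ?_⟩
  unfold orth
  simp only [inner_zero_right, zero_smul, sub_self, norm_zero]
  positivity

theorem measurable_orth (v : E2) : Measurable fun N : E2 => orth N v := by
  unfold orth
  have h1 : Continuous fun N : E2 => inner ℝ N v := continuous_id.inner continuous_const
  exact (h1.smul continuous_id).measurable.const_sub v

theorem RcC_meas (θ' θ'' : ℝ) (m m' : ℤ × ℤ) {N : E3 → E2} (hN : Measurable N) :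
    MeasurableSet {y | RcC θ' θ'' (N y) m m'} := by
  have h : {y | RcC θ' θ'' (N y) m m'} = {_y : E3 | ‖cen θ' m' - cen θ' m‖ ≤ 16 * θ''} ∩
      {y | ‖orth (N y) (cen θ' m' - cen θ' m)‖ ≤ 64 * θ'} := rfl
  rw [h]
  exact (MeasurableSet.const _).inter
    (measurableSet_le ((measurable_orth _).comp hN).norm measurable_const)

/-- the density at the displaced point. -/
noncomputable def Ay (n : ℕ) (θ κ θ' : ℝ) (g : E3 → ℂ) (S : ℤ × ℤ → Set E3) (Z : E3 × ℝ)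
    (m : ℤ × ℤ) (y : E3) : ℝ≥0∞ := Adc n θ κ θ' g S m (Z.1 + y) Z.2

theorem potc_eq (n : ℕ) (θ κ θ' θ'' K0 : ℝ) (g : E3 → ℂ) (S : ℤ × ℤ → Set E3) (N : E2)
    (Z : E3 × ℝ) (m : ℤ × ℤ) (y : E3) :
    potc n θ κ θ' θ'' K0 g S N m (Z.1 + y) Z.2 =
      pcnt (caps θ') (Ay n θ κ θ' g S Z) (RcC θ' θ'') (ENNReal.ofReal K0) N m y := rfl

/-! ### the class -/

/-- **the class** of a child phase point `(m, y)` in the relative frame `Z`, with respect to its own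
normal. -/
noncomputable def clsC (nA : ℕ) (T0 K0 : ℝ) (n : ℕ) (θ κ θ' θ'' : ℝ) (g : E3 → ℂ)
    (S : ℤ × ℤ → Set E3) (Z : E3 × ℝ) (f : Cf E2) (m : ℤ × ℤ) (y : E3) : ℕ :=
  clsA nA (ENNReal.ofReal T0) (caps θ') (Ay n θ κ θ' g S Z) (RcC θ' θ'') (ENNReal.ofReal K0)
    (nP θ' f m y) m y

theorem Ay_meas {n : ℕ} {θ κ θ' : ℝ} {g : E3 → ℂ} (hg : Integrable g) (S : ℤ × ℤ → Set E3)
    (Z : E3 × ℝ) (m : ℤ × ℤ) : Measurable (Ay n θ κ θ' g S Z m) := by
  unfold Ay Adc Cad538.Acc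
  exact (Cad538.Den_meas (fun m' _ => umc_meas_sq hg θ m') Z.2).comp (measurable_const_add Z.1)

variable {nA : ℕ} {T0 K0 : ℝ} {n : ℕ} {θ κ θ' θ'' : ℝ} {g : E3 → ℂ} {S : ℤ × ℤ → Set E3}

theorem pcnt_meas (hg : Integrable g) (Z : E3 × ℝ) (f : Cf E2) (m : ℤ × ℤ) :
    Measurable fun y => pcnt (caps θ') (Ay n θ κ θ' g S Z) (RcC θ' θ'') (ENNReal.ofReal K0)
      (nP θ' f m y) m y := by
  classical
  have e : (fun y => pcnt (caps θ') (Ay n θ κ θ' g S Z) (RcC θ' θ'') (ENNReal.ofReal K0)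
      (nP θ' f m y) m y) = fun y => ∑ m' ∈ caps θ',
      if RcC θ' θ'' (nP θ' f m y) m m' ∧ Ay n θ κ θ' g S Z m y ≤
        ENNReal.ofReal K0 * Ay n θ κ θ' g S Z m' y then 1 else 0 := by
    funext y
    unfold pcnt
    rw [Finset.card_filter]
  rw [e]
  refine Finset.measurable_fun_sum _ fun m' _ => ?_
  refine Measurable.ite ?_ measurable_const measurable_const
  exact (RcC_meas θ' θ'' m m' (StepC367.nP_meas θ' f m)).inter
    (measurableSet_le (Ay_meas hg S Z m) ((Ay_meas hg S Z m').const_mul _))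

theorem clsC_meas (hg : Integrable g) (Z : E3 × ℝ) (f : Cf E2) (m : ℤ × ℤ) :
    Measurable (clsC nA T0 K0 n θ κ θ' θ'' g S Z f m) := by
  unfold clsC clsA pr
  have h1 : Measurable fun y => Nat.log 2 (pcnt (caps θ') (Ay n θ κ θ' g S Z) (RcC θ' θ'')
      (ENNReal.ofReal K0) (nP θ' f m y) m y) :=
    (measurable_from_top (f := Nat.log 2)).comp (pcnt_meas hg Z f m)
  exact ((Crest.Agent.R138.Acl101.measurable_dy nA _).comp (Ay_meas hg S Z m)).add
    (h1.const_mul _)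

theorem clsC_lt (Z : E3 × ℝ) (f : Cf E2) (m : ℤ × ℤ) (y : E3) :
    clsC nA T0 K0 n θ κ θ' θ'' g S Z f m y < (nA + 1) * (Nat.log 2 (caps θ').card + 1) :=
  Crest.Agent.R138.Acl101.clsA_lt _ m y

/-- the density of the class `c`. -/
noncomputable def A0 (nA : ℕ) (T0 : ℝ) (c : ℕ) : ℝ := T0 / 2 ^ (c % (nA + 1) + 1)

/-- the coherence number of the class `c`. -/
noncomputable def p0 (nA : ℕ) (c : ℕ) : ℝ := 2 ^ (c / (nA + 1))

theorem A0_nonneg (hT0 : 0 ≤ T0) (c : ℕ) : 0 ≤ A0 nA T0 c := by unfold A0; positivity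

theorem p0_ge (c : ℕ) : 1 ≤ p0 nA c := one_le_pow₀ (by norm_num)

theorem ofReal_A0 (c : ℕ) :
    ENNReal.ofReal (A0 nA T0 c) = ENNReal.ofReal T0 / 2 ^ (c % (nA + 1) + 1) := by
  unfold A0
  rw [ENNReal.ofReal_div_of_pos (by positivity), ENNReal.ofReal_pow (by norm_num)]
  norm_num

/-- **density and count of a point of the class `c`** (not clipped). -/
theorem cls_point (h1 : 0 ≤ θ') (h2 : 0 ≤ θ'') (hK0 : 1 ≤ K0)
    {Z : E3 × ℝ} {f : Cf E2} {m : ℤ × ℤ} {y : E3} {c : ℕ}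
    (hc : clsC nA T0 K0 n θ κ θ' θ'' g S Z f m y = c) (hcn : c % (nA + 1) < nA)
    (hT : Adc n θ κ θ' g S m (Z.1 + y) Z.2 ≤ ENNReal.ofReal T0) (hm : m ∈ caps θ') :
    ENNReal.ofReal (A0 nA T0 c) ≤ Adc n θ κ θ' g S m (Z.1 + y) Z.2 ∧
      Adc n θ κ θ' g S m (Z.1 + y) Z.2 ≤ ENNReal.ofReal (2 * A0 nA T0 c) ∧
      p0 nA c ≤ (potc n θ κ θ' θ'' K0 g S (nP θ' f m y) m (Z.1 + y) Z.2 : ℝ) ∧
      (potc n θ κ θ' θ'' K0 g S (nP θ' f m y) m (Z.1 + y) Z.2 : ℝ) < 2 * p0 nA c := by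
  obtain ⟨a1, a2, a3, a4⟩ := Crest.Agent.R138.Acl101.clsA_spec (A := Ay n θ κ θ' g S Z) hc hcn hT hm
    (RcC_refl h1 h2 (nP θ' f m y) m) (ENNReal.one_le_ofReal.2 hK0)
  rw [ofReal_A0, ENNReal.ofReal_mul (by norm_num), ofReal_A0, ENNReal.ofReal_ofNat, potc_eq]
  refine ⟨a1.le, a2, ?_, ?_⟩
  · unfold p0; exact_mod_cast a3
  · unfold p0; exact_mod_cast a4

/-- tiny class: the density is at most `T0 / 2 ^ nA`. -/
theorem cls_tiny {Z : E3 × ℝ} {f : Cf E2} {m : ℤ × ℤ} {y : E3} {c : ℕ}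
    (hc : clsC nA T0 K0 n θ κ θ' θ'' g S Z f m y = c) (hcn : ¬ c % (nA + 1) < nA)
    (hT : Adc n θ κ θ' g S m (Z.1 + y) Z.2 ≤ ENNReal.ofReal T0) :
    Adc n θ κ θ' g S m (Z.1 + y) Z.2 ≤ ENNReal.ofReal (T0 / 2 ^ nA) := by
  have h := Crest.Agent.R138.Acl101.clsA_tiny (A := Ay n θ κ θ' g S Z) hc hcn hT
  rw [ENNReal.ofReal_div_of_pos (by positivity), ENNReal.ofReal_pow (by norm_num),
    ENNReal.ofReal_ofNat]
  exact h

/-! ### trivial bound of the coherence count -/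

/-- constant of the trivial bound of the coherence count. -/
noncomputable def CP : ℝ := 35 * 259 ^ 2

theorem CP_pos : 0 < CP := by unfold CP; norm_num

theorem orth_zero (v : E2) : orth 0 v = v := by
  unfold orth
  rw [inner_zero_left, zero_smul, sub_zero]

theorem potc_le (hθ' : 0 < θ') (hθ : θ' ≤ θ'') {N : E2} (hN : ‖N‖ = 1 ∨ N = 0)
    (m : ℤ × ℤ) (X : E3) (t : ℝ) :
    (potc n θ κ θ' θ'' K0 g S N m X t : ℝ) ≤ CP * (θ'' / θ') := by
  classical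
  have h1 : 1 ≤ θ'' / θ' := by rwa [le_div_iff₀ hθ', one_mul]
  unfold potc
  rcases hN with hN | hN
  · refine (Crest.Agent.R138.Chi101.card_rect_le (N := N) hN hθ' (ξ0 := cen θ' m)
      (L := 16 * θ'') (K := 64) (by linarith) (by norm_num)
      fun m' hm' => (Finset.mem_filter.1 hm').2.1).trans ?_
    rw [mul_div_assoc]
    unfold CP
    have : (2 * (16 * (θ'' / θ') + 1) + 1 : ℝ) ≤ 35 * (θ'' / θ') := by linarith
    calc (2 * (16 * (θ'' / θ') + 1) + 1) * (2 * (1 + 2 * 64) + 1) ^ 2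
        ≤ 35 * (θ'' / θ') * (2 * (1 + 2 * 64) + 1) ^ 2 := by gcongr
      _ = _ := by ring
  · refine (Crest.Agent.R138.Rect779.card_caps_le hθ' (K := 64) (by norm_num) (ξ0 := cen θ' m)
      fun m' hm' => ?_).trans ?_
    · have h2 := ((Finset.mem_filter.1 hm').2.1).2
      rwa [hN, orth_zero] at h2
    · unfold CP
      nlinarith

theorem norm_nP (θ' : ℝ) (f : Cf E2) (m : ℤ × ℤ) (y : E3) : ‖nP θ' f m y‖ = 1 ∨ nP θ' f m y = 0 := by
  unfold nP un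
  by_cases h : f.gr (cen θ' m) (lat y) 0 = 0
  · right
    rw [h, smul_zero]
  · left
    rw [norm_smul, norm_inv, norm_norm, inv_mul_cancel₀ (norm_ne_zero_iff.2 h)]

theorem an_div {r dl : ℝ} (hr : 0 < r) (hd : 0 < dl) :
    an (dl * r) / an r = dl ^ (-(1/2) : ℝ) := by
  unfold an
  rw [Real.mul_rpow hd.le hr.le]
  exact mul_div_cancel_right₀ _ (Real.rpow_pos_of_pos hr _).ne'

/-- the coherence number is bounded by `CP dl^(-1/2)` as soon as the class has a point. -/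
theorem p0_le {r dl : ℝ} (hr : 0 < r) (hd : 0 < dl) (hd1 : dl ≤ 1) (hK0 : 1 ≤ K0)
    {Z : E3 × ℝ} {f : Cf E2} {m : ℤ × ℤ} {y : E3} {c : ℕ}
    (hc : clsC nA T0 K0 n θ κ (an r) (an (dl * r)) g S Z f m y = c) (hcn : c % (nA + 1) < nA)
    (hT : Adc n θ κ (an r) g S m (Z.1 + y) Z.2 ≤ ENNReal.ofReal T0) (hm : m ∈ caps (an r)) :
    p0 nA c ≤ CP * dl ^ (-(1/2) : ℝ) := by
  have h1 : 0 < an r := Real.rpow_pos_of_pos hr _
  have h2 : 0 < an (dl * r) := Real.rpow_pos_of_pos (mul_pos hd hr) _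
  have h3 : an r ≤ an (dl * r) := by
    unfold an
    exact Real.rpow_le_rpow_of_nonpos (mul_pos hd hr) (mul_le_of_le_one_left hr.le hd1)
      (by norm_num)
  refine (cls_point h1.le h2.le hK0 hc hcn hT hm).2.2.1.trans ?_
  rw [← an_div hr hd]
  exact potc_le h1 h3 (norm_nP _ _ _ _) m _ _

/-- the potential: `p0`, truncated at `CP dl^(-1/2)`. -/
noncomputable def pv (nA : ℕ) (dl : ℝ) (c : ℕ) : ℝ := min (p0 nA c) (CP * dl ^ (-(1/2) : ℝ))

theorem pv_ge {dl : ℝ} (hd : 0 < dl) (hd1 : dl ≤ 1) (c : ℕ) : 1 ≤ pv nA dl c := by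
  refine le_min (p0_ge c) ?_
  have h1 : (1:ℝ) ≤ dl ^ (-(1/2) : ℝ) := Real.one_le_rpow_of_pos_of_le_one_of_nonpos hd hd1 (by norm_num)
  unfold CP
  linarith

theorem pv_le (dl : ℝ) (c : ℕ) : pv nA dl c ≤ CP * dl ^ (-(1/2) : ℝ) := min_le_right _ _

theorem pv_eq {dl : ℝ} {c : ℕ} (hc : p0 nA c ≤ CP * dl ^ (-(1/2) : ℝ)) : pv nA dl c = p0 nA c :=
  min_eq_left hc

/-! ### number of classes -/

/-- number of dyadic classes of the density. -/
noncomputable def nAR (Ma : ℕ) (R : ℝ) : ℕ := Ma * ⌈Real.logb 2 R⌉₊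

/-- number of auxiliary classes. -/
noncomputable def naR (Ma : ℕ) (R : ℝ) : ℕ := 8 * ((nAR Ma R + 1) * (Nat.log 2 ⌊R⌋₊ + 1))

theorem naR_pos (Ma : ℕ) (R : ℝ) : 1 ≤ naR Ma R := by
  unfold naR
  have : 0 < (nAR Ma R + 1) * (Nat.log 2 ⌊R⌋₊ + 1) := by positivity
  omega

theorem naR_le (Ma : ℕ) (hMa : 1 ≤ Ma) {η : ℝ} (hη : 0 < η) :
    ∃ C : ℝ, ∀ R, 1 ≤ R → (naR Ma R : ℝ) ≤ C * R ^ η := by
  obtain ⟨C, hC, H⟩ := Crest.Agent.R138.Acl101.nb_bound hη Ma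
  refine ⟨8 * C, fun R hR => ?_⟩
  have h1 : ((⌊R⌋₊ : ℕ) : ℝ) ≤ R ^ Ma := by
    refine (Nat.floor_le (by linarith)).trans ?_
    calc R = R ^ 1 := (pow_one R).symm
      _ ≤ R ^ Ma := pow_le_pow_right₀ hR hMa
  have h2 := H R ⌊R⌋₊ hR h1
  unfold naR nAR
  push_cast at h2 ⊢
  linarith

theorem log_caps {R r' : ℝ} (hr : 1 ≤ r') (hrR : r' ≤ R) :
    Nat.log 2 (caps (an r')).card + 1 ≤ 8 * (Nat.log 2 ⌊R⌋₊ + 1) := by
  have hr0 : 0 < r' := by linarith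
  have h0 : 0 < an r' := Real.rpow_pos_of_pos hr0 _
  have h1 : an r' ≤ 1 := Real.rpow_le_one_of_one_le_of_nonpos hr (by norm_num)
  have h2 := Crest.Agent.R138.Acl101.card_caps h0 h1
  have h3 : ((an r')⁻¹) ^ 2 = r' := by
    unfold an
    rw [← Real.rpow_neg hr0.le, neg_neg, ← Real.rpow_natCast, ← Real.rpow_mul hr0.le]
    norm_num
  rw [h3] at h2
  set l := Nat.log 2 ⌊R⌋₊ with hl
  have h4 : (⌊R⌋₊ : ℕ) < 2 ^ (l + 1) := Nat.lt_pow_succ_log_self (by norm_num) _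
  have h5 : R < 2 ^ (l + 1) := by
    have := Nat.lt_floor_add_one R
    have h6 : ((⌊R⌋₊ : ℕ) : ℝ) + 1 ≤ 2 ^ (l + 1) := by exact_mod_cast h4
    linarith
  have h6 : (caps (an r')).card < 2 ^ (l + 8) := by
    have : ((caps (an r')).card : ℝ) < 2 ^ (l + 8) := by
      calc ((caps (an r')).card : ℝ) ≤ 81 * r' := h2
        _ ≤ 81 * R := by gcongr
        _ < 128 * 2 ^ (l + 1) := by
            have : (0:ℝ) < 2 ^ (l + 1) := by positivity
            linarith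
        _ = 2 ^ (l + 8) := by rw [show l + 8 = (l + 1) + 7 by ring, pow_add]; norm_num; ring
    exact_mod_cast this
  have h7 : Nat.log 2 (caps (an r')).card < l + 8 := by
    rcases Nat.eq_zero_or_pos (caps (an r')).card with h | h
    · rw [h]; simp
    · exact (Nat.log_lt_iff_lt_pow (by norm_num) h.ne').2 h6
  omega

theorem clsC_lt' {Ma : ℕ} {R r' : ℝ} (hr : 1 ≤ r') (hrR : r' ≤ R) (Z : E3 × ℝ) (f : Cf E2)
    (m : ℤ × ℤ) (y : E3) :
    clsC (nAR Ma R) T0 K0 n θ κ (an r') θ'' g S Z f m y < naR Ma R := by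
  refine (clsC_lt _ _ _ _).trans_le ?_
  unfold naR
  calc (nAR Ma R + 1) * (Nat.log 2 (caps (an r')).card + 1)
      ≤ (nAR Ma R + 1) * (8 * (Nat.log 2 ⌊R⌋₊ + 1)) :=
        Nat.mul_le_mul_left _ (log_caps hr hrR)
    _ = _ := by ring

end Crest.Agent.R116.Slb367
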