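import Crest.Agent.R116.SlbC1_367

/-!
# R116 (S0155), WAVE side, `SLAB` from `STEP_C` (helper367), part 2: the class functional

`AF Ma n Cc e1` : the auxiliary class of a phase point of level `j` = the class `clsC` relative to the
selection of the dominating label of level `j - 1`, with `K0 = Cc (R^e1)^n`.
-/

set_option autoImplicit false

open MeasureTheory FourierTransform
open scoped ENNReal

namespace Crest.Agent.R116.Slb367

open Crest.Agent.R138.Defs (E2 ee)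
open Crest.Agent.R138.Wpk685 (cen caps)
open Crest.Agent.R116.CDef480
open Crest.Agent.R116.LZg725 (Cf)
open Crest.Agent.R116.AlB888 (Adc potc)
open Crest.Agent.R116.WC188
open Crest.Agent.R116.PC299
open Crest.Agent.R116.Bas367
open Crest.Agent.R116.GlC210 (Lev LevOk Next Aux Cls Tow AuxF trn Acl Rg Kp argc AuxOk)

/-- the parent label which dominates. -/
noncomputable def kap (P : Lev) (r' : ℝ) (z : E3 × ℝ) (m : ℤ × ℤ) (y : E3) : ℕ :=
  argc (an r') (P.pf z) P.n m y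

/-- the class relative to the parent level `P`. -/
noncomputable def clsL (Ma n : ℕ) (K0 κ : ℝ) (g : E3 → ℂ) (R dl : ℝ) (P : Lev) (z : E3 × ℝ)
    (f : Cf E2) (m : ℤ × ℤ) (y : E3) : ℕ :=
  clsC (nAR Ma R) (Enc g) K0 n (an P.r) κ (an (dl * P.r)) (an (dl * (dl * P.r))) (trc (P.ζ z) g)
    (P.sl (P.ζ z) (kap P (dl * P.r) z m y)) (z - P.ζ z) f m y

open Classical in
/-- **the class functional**. -/
noncomputable def AF (Ma n : ℕ) (Cc e1 : ℝ) : AuxF := fun κ _ g R dl L j z f m y =>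
  if z ∈ cylc R ∧ clsL Ma n (Cc * (R ^ e1) ^ n) κ g R dl (L (j - 1)) z f m y < naR Ma R then
    clsL Ma n (Cc * (R ^ e1) ^ n) κ g R dl (L (j - 1)) z f m y
  else 0

theorem AF_lt (Ma n : ℕ) (Cc e1 κ η0 : ℝ) (g : E3 → ℂ) (R dl : ℝ) (L : ℕ → Lev) (j : ℕ)
    (z : E3 × ℝ) (f : Cf E2) (m : ℤ × ℤ) (y : E3) :
    AF Ma n Cc e1 κ η0 g R dl L j z f m y < naR Ma R := by
  classical
  unfold AF
  split_ifs with h
  · exact h.2
  · exact naR_pos Ma R

/-! ### facts of the levels -/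

section lev

variable {M κ q A A' a b Cn : ℝ} {K : ℕ} {η0 : ℝ} {C0 : E2} {σ : ℝ} {g : E3 → ℂ} {R : ℝ} {L : Lev}

theorem lev_r0 (h : LevOk M κ q A A' a b Cn K η0 C0 σ g R L) (hR : 0 < R) : 0 < L.r :=
  (Real.rpow_pos_of_pos hR _).trans_le h.lo

/-- the functions of a level are good. -/
theorem lev_gd (h : LevOk M κ q A A' a b Cn K η0 C0 σ g R L) (ha : 0 < a) {z : E3 × ℝ}
    (hz : z ∈ L.Z) {k : ℕ} (hk : k < L.n) : Gd (L.G z k) := by
  obtain ⟨cls, hd⟩ := h.dec z hz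
  exact Bas367.St.gd (a := 2 * a) (by linarith) (hd.st k (Finset.mem_range.2 hk))

theorem lev_pf_int (h : LevOk M κ q A A' a b Cn K η0 C0 σ g R L) (ha : 0 < a) {z : E3 × ℝ}
    (hz : z ∈ cylc R) {k : ℕ} (hk : k < L.n) : Integrable (L.pf z k) :=
  trc_int (lev_gd h ha (h.near z hz).1 hk).int _

theorem lev_sl_meas (h : LevOk M κ q A A' a b Cn K η0 C0 σ g R L) {z : E3 × ℝ}
    (hz : z ∈ L.Z) {k : ℕ} (hk : k < L.n) (m : ℤ × ℤ) : MeasurableSet (L.sl z k m) := by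
  obtain ⟨cls, hd⟩ := h.dec z hz
  exact Finset.measurableSet_biUnion _ fun i hi =>
    (hd.pl k (Finset.mem_range.2 hk)).1.meas i hi m

theorem lev_Bsc (h : LevOk M κ q A A' a b Cn K η0 C0 σ g R L) {z : E3 × ℝ}
    (hz : z ∈ L.Z) {k : ℕ} (hk : k < L.n) : Bsc (L.r ^ (-(1/2) : ℝ)) (L.sl z k) := by
  obtain ⟨cls, hd⟩ := h.dec z hz
  exact Bsc.of_ball (lev_sl_meas h hz hk) (hd.bd k (Finset.mem_range.2 hk))

theorem lev_caps (h : LevOk M κ q A A' a b Cn K η0 C0 σ g R L) {z : E3 × ℝ}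
    (hz : z ∈ L.Z) {k : ℕ} (hk : k < L.n) {i : ℕ} (hi : i ∈ L.I z k) {m : ℤ × ℤ} {y : E3}
    (hy : y ∈ (L.P z k i).S m) : m ∈ caps (an L.r) := by
  obtain ⟨cls, hd⟩ := h.dec z hz
  by_contra hcon
  have h1 := hd.cp k (Finset.mem_range.2 hk) m hcon
  have h2 : y ∈ uS (L.I z k) (L.P z k) m := Set.mem_biUnion (x := i) hi hy
  rw [h1] at h2
  exact h2

theorem ss_gd {M0 D : ℝ} (ha : 0 < a) (h : Ss M κ q a b M0 η0 C0 σ g R D) : Gd g :=
  Bas367.St.gd ha h.toSt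

/-- the density is at most the energy. -/
theorem Adc_le {M0 D : ℝ} (ha : 1 ≤ a) (hb : b ≤ 2) (hst : St M κ q a b M0 C0 σ g R D)
    {θ κ' θ' : ℝ} (hθ : 0 < θ) (hθ1 : θ ≤ 1) (_hκ0 : 0 ≤ κ') (hκ1 : κ' ≤ 1) (n : ℕ) (w : E3 × ℝ)
    (S : ℤ × ℤ → Set E3) (m : ℤ × ℤ) (X : E3) (t : ℝ) :
    Adc n θ κ' θ' (trc w g) S m X t ≤ ENNReal.ofReal (Enc g) := by
  classical
  unfold Adc Cad538.Acc
  refine (Cad538.Den_le X t).trans ?_
  have h1 : ENNReal.ofReal (θ ^ 2 * κ') ≤ 1 := by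
    refine ENNReal.ofReal_le_one.2 ?_
    have : θ ^ 2 ≤ 1 := pow_le_one₀ hθ.le hθ1
    nlinarith [sq_nonneg θ]
  refine (mul_le_mul' h1 le_rfl).trans ?_
  rw [one_mul]
  refine le_trans ?_ (TuL890.enc_le_Enc ha hb hst hθ w S)
  unfold enc
  exact Finset.sum_le_sum_of_subset fun m' hm' => (Crest.Agent.R138.Loc878.mem_nearL.1 hm').1

end lev

/-! ### measurability -/

theorem measurable_sel_nat {X : Type*} [MeasurableSpace X] {κ : X → ℕ} (hκ : Measurable κ)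
    {F : ℕ → X → ℕ} (hF : ∀ k, Measurable (F k)) : Measurable fun x => F (κ x) x := by
  have h1 : Measurable fun p : ℕ × X => F p.1 p.2 :=
    measurable_from_prod_countable_right (fun k => hF k)
  exact h1.comp (hκ.prodMk measurable_id)

theorem clsL_meas (Ma n : ℕ) (K0 : ℝ) {M κ q A A' a b Cn : ℝ} {K : ℕ} {η0 : ℝ} {C0 : E2} {σ : ℝ}
    {g : E3 → ℂ} {R D M0 : ℝ} {L : Lev} (ha : 0 < a) (hg : Ss M κ q a b M0 η0 C0 σ g R D)
    (h : LevOk M κ q A A' a b Cn K η0 C0 σ g R L) (κ' dl : ℝ) {z : E3 × ℝ} (hz : z ∈ cylc R)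
    (f : Cf E2) (m : ℤ × ℤ) : Measurable (clsL Ma n K0 κ' g R dl L z f m) := by
  unfold clsL
  refine measurable_sel_nat (κ := kap L (dl * L.r) z m)
    (F := fun k y => clsC (nAR Ma R) (Enc g) K0 n (an L.r) κ' (an (dl * L.r))
      (an (dl * (dl * L.r))) (trc (L.ζ z) g) (L.sl (L.ζ z) k) (z - L.ζ z) f m y) ?_ (fun k => ?_)
  · exact GlC210.measurable_argc h.n1 (fun k hk => lev_pf_int h ha hz hk) m
  · exact clsC_meas (trc_int (ss_gd ha hg).int _) _ _ _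

theorem AF_meas (Ma n : ℕ) (Cc e1 : ℝ) {M κ q A A' a b Cn : ℝ} {K : ℕ} {η0 : ℝ} {C0 : E2} {σ : ℝ}
    {g : E3 → ℂ} {R D M0 : ℝ} {L : ℕ → Lev} {t : ℕ} (ha : 0 < a)
    (hg : Ss M κ q a b M0 η0 C0 σ g R D)
    (h : LevOk M κ q A A' a b Cn K η0 C0 σ g R (L t)) (dl : ℝ) (z : E3 × ℝ)
    (f : Cf E2) (m : ℤ × ℤ) : Measurable (AF Ma n Cc e1 κ η0 g R dl L (t + 1) z f m) := by
  classical
  by_cases hz : z ∈ cylc R
  · have hm := clsL_meas Ma n (Cc * (R ^ e1) ^ n) ha hg h κ dl hz f m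
    have e : AF Ma n Cc e1 κ η0 g R dl L (t + 1) z f m = fun y =>
        if clsL Ma n (Cc * (R ^ e1) ^ n) κ g R dl (L t) z f m y < naR Ma R then
          clsL Ma n (Cc * (R ^ e1) ^ n) κ g R dl (L t) z f m y else 0 := by
      funext y
      unfold AF
      rw [Nat.add_sub_cancel]
      simp only [hz, true_and]
    rw [e]
    exact Measurable.ite (measurableSet_lt hm measurable_const) hm measurable_const
  · have e : AF Ma n Cc e1 κ η0 g R dl L (t + 1) z f m = fun _ => 0 := by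
      funext y
      unfold AF
      rw [if_neg fun h => hz h.1]
    rw [e]
    exact measurable_const

theorem auxok (Ma n : ℕ) (hMa : 1 ≤ Ma) (Cc e1 M q a b M0 : ℝ) (ha : 0 < a) :
    AuxOk (AF Ma n Cc e1) (naR Ma) M q a b M0 := by
  refine ⟨naR_pos Ma, fun η hη => naR_le Ma hMa hη,
    fun κ η0 g R dl L j z f m y => AF_lt Ma n Cc e1 κ η0 g R dl L j z f m y, ?_⟩
  intro κ η0 C0 σ g R D hS _ A A' Cn dl ν K t L _ _ hT _ z f m
  exact AF_meas Ma n Cc e1 ha hS (hT.ok t le_rfl) dl z f m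

/-! ### the classes of the points of the tower -/

theorem trn_self (L : ℕ → Lev) (t : ℕ) : trn L (t + 1) t = L t := by
  unfold trn
  rw [if_pos (Nat.lt_succ_self t)]

theorem tow_step {M κ q A A' a b Cn : ℝ} {K : ℕ} {η0 : ℝ} {C0 : E2} {σ : ℝ} {g : E3 → ℂ} {R : ℝ}
    {dl ν : ℝ} {N : ℕ} {L : ℕ → Lev} (hT : Tow M κ q A A' a b Cn K η0 C0 σ g R dl ν N L) {t : ℕ}
    (ht : t < N) : (L (t + 1)).r = dl * (L t).r := by
  rw [hT.rad (t + 1) ht, hT.rad t ht.le, pow_succ]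
  ring

/-- **the class of a point** of the plates of the level `t + 1`. -/
theorem pts {Ma n : ℕ} {Cc e1 : ℝ} {M κ q A A' a b Cn : ℝ} {K : ℕ} {η0 : ℝ} {C0 : E2} {σ : ℝ}
    {g : E3 → ℂ} {R D M0 : ℝ} {dl ν : ℝ} {N : ℕ} {L : ℕ → Lev} {ac : ℕ → ℕ → ℕ} (ha : 1 ≤ a)
    (hb : b ≤ 2) (hκ0 : 0 ≤ κ) (hκ1 : κ ≤ 1) (hS : Ss M κ q a b M0 η0 C0 σ g R D)
    (hT : Tow M κ q A A' a b Cn K η0 C0 σ g R dl ν N L)
    (hA : Acl (AF Ma n Cc e1) κ η0 g R dl N L ac) {t : ℕ} (ht : t < N) {z : E3 × ℝ}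
    (hz : z ∈ (L (t + 1)).Z) {k : ℕ} (hk : k < (L (t + 1)).n) {i : ℕ}
    (hi : i ∈ (L (t + 1)).I z k) {m : ℤ × ℤ} {y : E3} (hy : y ∈ ((L (t + 1)).P z k i).S m) :
    clsC (nAR Ma R) (Enc g) (Cc * (R ^ e1) ^ n) n (an (L t).r) κ (an (dl * (L t).r))
        (an (dl * (dl * (L t).r))) (trc ((L t).ζ z) g)
        ((L t).sl ((L t).ζ z) ((L (t + 1)).par k)) (z - (L t).ζ z) ((L (t + 1)).P z k i).f m y =
      ac (t + 1) k ∧
    Adc n (an (L t).r) κ (an (dl * (L t).r)) (trc ((L t).ζ z) g)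
        ((L t).sl ((L t).ζ z) ((L (t + 1)).par k)) m ((z - (L t).ζ z).1 + y) (z - (L t).ζ z).2 ≤
      ENNReal.ofReal (Enc g) ∧
    m ∈ caps (an (dl * (L t).r)) := by
  have hR := hS.R1
  have hok := hT.ok t ht.le
  have hok' := hT.ok (t + 1) ht
  have hrs := tow_step hT ht
  have hr1 : 1 ≤ (L t).r := TuL890.lev_r1 hok hR
  have hr1' : 1 ≤ (L (t + 1)).r := TuL890.lev_r1 hok' hR
  have hzc : z ∈ cylc R := hok'.net.mem z hz
  have hth : 0 < an (L t).r := Real.rpow_pos_of_pos (by linarith) _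
  have hth1 : an (L t).r ≤ 1 := Real.rpow_le_one_of_one_le_of_nonpos hr1 (by norm_num)
  refine ⟨?_, Adc_le ha hb hS.toSt hth hth1 hκ0 hκ1 n _ _ m _ _, ?_⟩
  · have h1 := hA t ht z hz k hk i hi m y hy
    have h2 := (hT.next t ht).arg z hz k hk i hi m y hy
    unfold AF at h1
    rw [Nat.add_sub_cancel, trn_self] at h1
    have h3 : clsL Ma n (Cc * (R ^ e1) ^ n) κ g R dl (L t) z ((L (t + 1)).P z k i).f m y <
        naR Ma R := by
      unfold clsL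
      refine clsC_lt' ?_ ?_ _ _ _ _
      · rw [← hrs]; exact hr1'
      · rw [← hrs]; exact hok'.hi
    rw [if_pos ⟨hzc, h3⟩] at h1
    unfold clsL kap at h1
    have h4 : argc (an (dl * (L t).r)) ((L t).pf z) (L t).n m y = (L (t + 1)).par k := by
      rw [← hrs]; exact h2
    rwa [h4] at h1
  · rw [← hrs]
    exact lev_caps hok' hz hk hi hy

end Crest.Agent.R116.Slb367
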