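import Crest.Agent.R116.SlbC2_367
import Crest.Agent.R116.AlB3_888
import Crest.Agent.R116.Lk1_367

/-!
# R116 (S0155), WAVE side, `SLAB` from `STEP_C` (helper367), part 3: the local hypotheses from the tower

* `parC_of` : the parent class of one label in one frame;
* `coh_lev` : the coherence bound of a level from its classes (relative to the previous level);
* `chi_lev` : the child class of the plates of one label seen from a parent frame.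
-/

set_option autoImplicit false

open MeasureTheory FourierTransform
open scoped ENNReal

namespace Crest.Agent.R116.Slb367

open Crest.Agent.R138.Defs (E2 ee)
open Crest.Agent.R138.Wpk685 (cen caps)
open Crest.Agent.R116.CDef480
open Crest.Agent.R116.LZg725 (Cf)
open Crest.Agent.R116.AlB888 (Adc potc)
open Crest.Agent.R116.WC188
open Crest.Agent.R116.PC299
open Crest.Agent.R116.Bas367
open Crest.Agent.R116.GlC210 (Lev LevOk Next Aux Cls Tow AuxF trn Acl Rg Kp argc AuxOk)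
open Crest.Agent.R116.Lk367 (shf)

/-- the parent class of one label in one frame. -/
theorem parC_of {M κ q A A' a b Cn M0 D : ℝ} {K : ℕ} {η0 : ℝ} {C0 : E2} {σ : ℝ} {g : E3 → ℂ}
    {R : ℝ} {L : Lev} (hS : Ss M κ q a b M0 η0 C0 σ g R D)
    (h : LevOk M κ q A A' a b Cn K η0 C0 σ g R L) {w : E3 × ℝ} (hw : w ∈ L.Z) {k : ℕ}
    (hk : k < L.n) :
    ParC M κ q a b A' (1 / max 1 (Cn * L.nb)) η0 (trc w g) L.r (L.s k).1 (L.s k).2 (L.D w k)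
      (L.I w k) (L.P w k) := by
  obtain ⟨cls, hd⟩ := h.dec w hw
  have hkΛ : k ∈ Finset.range L.n := Finset.mem_range.2 hk
  obtain ⟨hpl, hz⟩ := hd.pl k hkΛ
  have hne : ∀ ζ, trc w g ζ ≠ 0 → g ζ ≠ 0 := fun ζ hζ h0 => hζ (by
    unfold trc; rw [h0, zero_mul])
  refine
    { gm := GlC210.measurable_trc hS.meas w
      gb := ?_
      gs := fun ζ hζ => ?_
      slc := fun ζ hζ => hS.slc ζ (hne ζ hζ)
      D0 := (hd.st k hkΛ).D0
      sd := h.sd k hk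
      meas := hpl.meas
      cp := hd.cp k hkΛ
      bd := hd.bd k hkΛ
      disj := fun i hi j hj hij m => hpl.disj i hi j hj hij ((hz i hi).trans (hz j hj).symm) m
      adm := hpl.adm
      box := hpl.box
      dens := hd.dens k hkΛ
      dense := fun i hi => ?_ }
  · obtain ⟨B, hB⟩ := hS.bdd
    exact ⟨B, fun ζ => by rw [GlC210.norm_trc]; exact hB ζ⟩
  · have h1 := hS.supp ζ (hne ζ hζ)
    exact ⟨h1.1, h1.2.1, h1.2.2.1⟩
  · have h1 := hd.dense k hkΛ i hi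
    have hm : 0 < max 1 (Cn * L.nb) := lt_max_of_lt_left one_pos
    rw [ENNReal.ofReal_mul (by positivity)]
    refine (mul_le_mul_right h1 _).trans ?_
    rw [← mul_assoc, ← ENNReal.ofReal_mul (by positivity)]
    refine (mul_le_mul_left (ENNReal.ofReal_le_one.2 ?_) _).trans (one_mul _).le
    rw [one_div, inv_mul_le_iff₀ hm, mul_one]
    exact le_max_right _ _

/-- not tiny. -/
def Nt (Ma : ℕ) (R : ℝ) (c : ℕ) : Prop := c % (nAR Ma R + 1) < nAR Ma R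

/-- the classes of the points: density and coherence count. -/
theorem pts2 {Ma n : ℕ} {Cc e1 : ℝ} {M κ q A A' a b Cn : ℝ} {K : ℕ} {η0 : ℝ} {C0 : E2} {σ : ℝ}
    {g : E3 → ℂ} {R D M0 : ℝ} {dl ν : ℝ} {N : ℕ} {L : ℕ → Lev} {ac : ℕ → ℕ → ℕ} (ha : 1 ≤ a)
    (hb : b ≤ 2) (hκ0 : 0 ≤ κ) (hκ1 : κ ≤ 1) (hdl : 0 < dl) (hdl1 : dl ≤ 1)
    (hS : Ss M κ q a b M0 η0 C0 σ g R D)
    (hK0 : 1 ≤ Cc * (R ^ e1) ^ n)
    (hT : Tow M κ q A A' a b Cn K η0 C0 σ g R dl ν N L)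
    (hA : Acl (AF Ma n Cc e1) κ η0 g R dl N L ac) {t : ℕ} (ht : t < N) {z : E3 × ℝ}
    (hz : z ∈ (L (t + 1)).Z) {k : ℕ} (hk : k < (L (t + 1)).n) (hnt : Nt Ma R (ac (t + 1) k)) {i : ℕ}
    (hi : i ∈ (L (t + 1)).I z k) {m : ℤ × ℤ} {y : E3} (hy : y ∈ ((L (t + 1)).P z k i).S m) :
    ENNReal.ofReal (A0 (nAR Ma R) (Enc g) (ac (t + 1) k)) ≤
      Adc n (an (L t).r) κ (an (dl * (L t).r)) (trc ((L t).ζ z) g)
        ((L t).sl ((L t).ζ z) ((L (t + 1)).par k)) m ((z - (L t).ζ z).1 + y) (z - (L t).ζ z).2 ∧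
    Adc n (an (L t).r) κ (an (dl * (L t).r)) (trc ((L t).ζ z) g)
        ((L t).sl ((L t).ζ z) ((L (t + 1)).par k)) m ((z - (L t).ζ z).1 + y) (z - (L t).ζ z).2 ≤
      ENNReal.ofReal (8 * A0 (nAR Ma R) (Enc g) (ac (t + 1) k)) ∧
    pv (nAR Ma R) dl (ac (t + 1) k) ≤
      (potc n (an (L t).r) κ (an (dl * (L t).r)) (an (dl * (dl * (L t).r))) (Cc * (R ^ e1) ^ n)
        (trc ((L t).ζ z) g) ((L t).sl ((L t).ζ z) ((L (t + 1)).par k))
        (nP (an (dl * (L t).r)) ((L (t + 1)).P z k i).f m y) m ((z - (L t).ζ z).1 + y)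
        (z - (L t).ζ z).2 : ℝ) ∧
    (potc n (an (L t).r) κ (an (dl * (L t).r)) (an (dl * (dl * (L t).r))) (Cc * (R ^ e1) ^ n)
        (trc ((L t).ζ z) g) ((L t).sl ((L t).ζ z) ((L (t + 1)).par k))
        (nP (an (dl * (L t).r)) ((L (t + 1)).P z k i).f m y) m ((z - (L t).ζ z).1 + y)
        (z - (L t).ζ z).2 : ℝ) ≤ 2 * pv (nAR Ma R) dl (ac (t + 1) k) := by
  obtain ⟨h1, h2, h3⟩ := pts ha hb hκ0 hκ1 hS hT hA ht hz hk hi hy
  have hR := hS.R1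
  have hok := hT.ok t ht.le
  have hok' := hT.ok (t + 1) ht
  have hrs := tow_step hT ht
  have hr1 : 1 ≤ (L t).r := TuL890.lev_r1 hok hR
  have hr1' : 1 ≤ (L (t + 1)).r := TuL890.lev_r1 hok' hR
  have hrj : 0 < dl * (L t).r := by rw [← hrs]; linarith
  have e1 : an (dl * (L t).r) = an ((L (t + 1)).r) := by rw [hrs]
  have hE : 0 ≤ A0 (nAR Ma R) (Enc g) (ac (t + 1) k) := A0_nonneg (TuT890.Enc_nn g) _
  obtain ⟨a1, a2, a3, a4⟩ := cls_point (an_pos hrj).le (an_pos (mul_pos hdl hrj)).le hK0 h1 hnt h2 h3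
  have h5 := p0_le hrj hdl hdl1 hK0 h1 hnt h2 h3
  have h6 := pv_eq (dl := dl) h5
  refine ⟨a1, a2.trans (ENNReal.ofReal_le_ofReal (by linarith)), ?_, ?_⟩
  · rw [h6]; exact a3
  · rw [h6]; exact a4.le

/-- **the coherence bound of a level** from its classes. -/
theorem coh_lev (hC : COHu_C) : ∃ dc : ℝ, 0 < dc ∧ dc ≤ 1 ∧ ∀ n : ℕ, ∃ Cc : ℝ, 1 ≤ Cc ∧
    ∀ (Ma : ℕ) (e1 M κ q A A' a b Cn : ℝ) (K : ℕ) (η0 : ℝ) (C0 : E2) (σ : ℝ)
    (g : E3 → ℂ) (R D M0 : ℝ) (dl ν : ℝ) (N : ℕ) (L : ℕ → Lev) (ac : ℕ → ℕ → ℕ),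
    0 ≤ e1 → 1 ≤ a → b ≤ 2 → 0 < κ → κ ≤ 1 → 0 < dl → dl ≤ dc → κ ≤ dl ^ (4 : ℕ) →
    R ^ e1 ≤ dl ^ (-(1/4) : ℝ) →
    Ss M κ q a b M0 η0 C0 σ g R D →
    Tow M κ q A A' a b Cn K η0 C0 σ g R dl ν N L →
    Acl (AF Ma n Cc e1) κ η0 g R dl N L ac → ∀ t < N, ∀ w ∈ (L (t + 1)).Z, ∀ k < (L (t + 1)).n,
    Nt Ma R (ac (t + 1) k) → 8 * (M * A' * ((L (t + 1)).s k).1) ≤ ((L (t + 1)).s k).2 →
    Coh (an (L (t + 1)).r) (an (dl * (L (t + 1)).r)) κ (dl ^ (1/2 : ℝ)) (R ^ e1)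
      (2 * (L (t + 1)).r) ((L (t + 1)).I w k) ((L (t + 1)).P w k)
      (2 * pv (nAR Ma R) dl (ac (t + 1) k)) := by
  obtain ⟨dc, hdc, hdc1, H⟩ := hC
  refine ⟨dc, hdc, hdc1, fun n => ?_⟩
  obtain ⟨Cc, hCc, H⟩ := H n
  refine ⟨Cc, hCc, ?_⟩
  intro Ma e1 M κ q A A' a b Cn K η0 C0 σ g R D M0 dl ν N L ac he1 ha hb hκ0 hκ1 hdl hdlc hκ4 hYd hS
    hT hA t ht w hw k hk hnt h8
  have hR := hS.R1
  have hdl1 : dl ≤ 1 := hdlc.trans hdc1
  have hok := hT.ok t ht.le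
  have hok' := hT.ok (t + 1) ht
  have hrs := tow_step hT ht
  have hr1 : 1 ≤ (L t).r := TuL890.lev_r1 hok hR
  have hr1' : 1 ≤ (L (t + 1)).r := TuL890.lev_r1 hok' hR
  have hY1 : 1 ≤ R ^ e1 := Real.one_le_rpow hR he1
  have hK0 : 1 ≤ Cc * (R ^ e1) ^ n := by
    have := one_le_pow₀ hY1 (n := n)
    nlinarith
  have hwc : w ∈ cylc R := hok'.net.mem w hw
  have hnear := hok.near w hwc
  have hpv := pv_ge (nA := nAR Ma R) hdl hdl1 (ac (t + 1) k)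
  have hmain := H (L t).r dl (R ^ e1) (Cc * (R ^ e1) ^ n) (A0 (nAR Ma R) (Enc g) (ac (t + 1) k))
    (2 * pv (nAR Ma R) dl (ac (t + 1) k)) κ (trc ((L t).ζ w) g)
    ((L t).sl ((L t).ζ w) ((L (t + 1)).par k)) (w - (L t).ζ w) ((L (t + 1)).I w k)
    ((L (t + 1)).P w k) (by rw [← hrs]; exact hr1') hdl hdlc hY1 hYd le_rfl hnear.2.2
    (A0_nonneg (TuT890.Enc_nn g) _) (by linarith) hκ0 hκ4
    (fun m => lev_sl_meas hok hnear.1 ((hT.next t ht).par_lt k hk) m)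
    (fun i hi m y hy => by
      obtain ⟨h1, h2, -, h4⟩ := pts2 ha hb hκ0.le hκ1 hdl hdl1 hS hK0 hT hA ht hw hk hnt hi hy
      exact ⟨h1, h2, h4⟩)
    (fun i hi m y hy => by
      obtain ⟨cls, hd⟩ := hok'.dec w hw
      obtain ⟨hpl, -⟩ := hd.pl k (Finset.mem_range.2 hk)
      rw [← hrs]
      exact (gr_ge (hpl.adm i hi) (hok'.sd k hk) hr1' hκ0 (hpl.box i hi m hy) h8).1)
  rw [← hrs] at hmain
  exact hmain

/-- **the child class** of the plates of one label seen from a parent frame. -/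
theorem chi_lev {Ma n : ℕ} {Cc e1 : ℝ} {M κ q A A' a b Cn : ℝ} {K : ℕ} {η0 : ℝ} {C0 : E2} {σ : ℝ}
    {g : E3 → ℂ} {R D M0 : ℝ} {dl ν : ℝ} {N : ℕ} {L : ℕ → Lev} {ac : ℕ → ℕ → ℕ} (ha : 1 ≤ a)
    (hb : b ≤ 2) (hκ0 : 0 ≤ κ) (hκ1 : κ ≤ 1) (hdl : 0 < dl) (hdl1 : dl ≤ 1)
    (hS : Ss M κ q a b M0 η0 C0 σ g R D)
    (hK0 : 1 ≤ Cc * (R ^ e1) ^ n)
    (hT : Tow M κ q A A' a b Cn K η0 C0 σ g R dl ν N L)
    (hA : Acl (AF Ma n Cc e1) κ η0 g R dl N L ac) {t : ℕ} (ht : t < N)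
    {k : ℕ} (hk : k < (L (t + 1)).n) (hnt : Nt Ma R (ac (t + 1) k)) (w : E3 × ℝ)
    (I' : Finset ℕ) (P' : ℕ → Plate)
    (hP' : ∀ j ∈ I', ∃ z ∈ (L (t + 1)).Z, (L t).ζ z = w ∧ ∃ i ∈ (L (t + 1)).I z k,
      P' j = shf w ((L (t + 1)).P z k i)) :
    Chi n (Cc * (R ^ e1) ^ n) κ (trc w g) dl (L t).r (A0 (nAR Ma R) (Enc g) (ac (t + 1) k))
      (pv (nAR Ma R) dl (ac (t + 1) k))
      (uS ((L t).I w ((L (t + 1)).par k)) ((L t).P w ((L (t + 1)).par k))) I' P' := by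
  have key : ∀ j ∈ I', ∀ m, ∀ y ∈ (P' j).S m,
      ENNReal.ofReal (A0 (nAR Ma R) (Enc g) (ac (t + 1) k)) ≤
        Adc n (an (L t).r) κ (an (dl * (L t).r)) (trc w g)
          (uS ((L t).I w ((L (t + 1)).par k)) ((L t).P w ((L (t + 1)).par k))) m
          ((P' j).z.1 + y) (P' j).z.2 ∧
      Adc n (an (L t).r) κ (an (dl * (L t).r)) (trc w g)
          (uS ((L t).I w ((L (t + 1)).par k)) ((L t).P w ((L (t + 1)).par k))) m
          ((P' j).z.1 + y) (P' j).z.2 ≤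
        ENNReal.ofReal (8 * A0 (nAR Ma R) (Enc g) (ac (t + 1) k)) ∧
      pv (nAR Ma R) dl (ac (t + 1) k) ≤
        (potc n (an (L t).r) κ (an (dl * (L t).r)) (an (dl * (dl * (L t).r))) (Cc * (R ^ e1) ^ n)
          (trc w g) (uS ((L t).I w ((L (t + 1)).par k)) ((L t).P w ((L (t + 1)).par k)))
          (nP (an (dl * (L t).r)) (P' j).f m y) m ((P' j).z.1 + y) (P' j).z.2 : ℝ) := by
    intro j hj m y hy
    obtain ⟨z, hz, hzw, i, hi, hPe⟩ := hP' j hj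
    rw [hPe] at hy ⊢
    have h1 := pts2 ha hb hκ0 hκ1 hdl hdl1 hS hK0 hT hA ht hz hk hnt hi (m := m) (y := y) hy
    have hzz : (shf w ((L (t + 1)).P z k i)).z = z - w := by
      obtain ⟨cls, hd⟩ := (hT.ok (t + 1) ht).dec z hz
      show ((L (t + 1)).P z k i).z - w = z - w
      rw [(hd.pl k (Finset.mem_range.2 hk)).2 i hi]
    rw [hzz]
    rw [hzw] at h1
    exact ⟨h1.1, h1.2.1, h1.2.2.1⟩
  exact ⟨fun j hj m y hy => (key j hj m y hy).1, fun j hj m y hy => (key j hj m y hy).2.1,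
    fun j hj m y hy => (key j hj m y hy).2.2⟩

end Crest.Agent.R116.Slb367
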