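import Crest.Agent.R116.SlbC3_367

/-!
# R116 (S0155), WAVE side, `SLAB` from `STEP_C` (helper367), part 4: the slab step for the tower
-/

set_option autoImplicit false

open MeasureTheory FourierTransform
open scoped ENNReal

namespace Crest.Agent.R116.Slb367

open Crest.Agent.R138.Defs (E2 ee)
open Crest.Agent.R138.Wpk685 (cen caps)
open Crest.Agent.R116.CDef480
open Crest.Agent.R116.LZg725 (Cf)
open Crest.Agent.R116.AlB888 (Adc potc)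
open Crest.Agent.R116.WC188
open Crest.Agent.R116.PC299
open Crest.Agent.R116.Bas367
open Crest.Agent.R116.GlC210 (Lev LevOk Next Aux Cls Tow AuxF trn Acl Rg Kp argc AuxOk Thin Wide)
open Crest.Agent.R116.Lk367 (shf)

/-! ### numerology -/

/-- the main factor. -/
theorem main_num {CQ R r1 ε Cc Cn ν G' G dl δ p1 p2 e1 nb : ℝ} {n Kg : ℕ} (hCQ : 0 ≤ CQ)
    (hR : 1 ≤ R) (hr1 : 1 ≤ r1) (hrR : r1 ≤ R) (hε : 0 < ε) (hCc : 1 ≤ Cc) (hCn : 1 ≤ Cn)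
    (hν : 1 ≤ ν) (_hnb0 : 0 ≤ nb) (hnb : nb ≤ ν) (hG' : 0 ≤ G') (hKg : G' ≤ Kg) (hdl : 0 < dl)
    (_he1 : 0 ≤ e1)
    (he : e1 * (1 + n) * G' ≤ ε / 2) (hp1 : 1 ≤ p1) (hp2 : 1 ≤ p2) :
    CQ * r1 ^ (ε / 2) * (R ^ e1 * (Cc * (R ^ e1) ^ n) / (1 / max 1 (Cn * nb))) ^ G' *
        (dl ^ (-δ)) ^ G * ((2 * p1 / p2) ^ (1/2 : ℝ) + dl ^ (1/2 : ℝ)) ≤
      2 * CQ * (Cc * Cn) ^ G' * ν ^ Kg * R ^ ε * dl ^ (-(G * δ)) *
        ((p1 / p2) ^ (1/2 : ℝ) + dl ^ (1/2 : ℝ)) := by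
  have hR0 : 0 < R := by linarith
  have hmax : max 1 (Cn * nb) ≤ Cn * ν := by
    refine max_le ?_ ?_
    · nlinarith
    · gcongr
  have hm0 : 0 < max 1 (Cn * nb) := lt_max_of_lt_left one_pos
  have e1' : R ^ e1 * (Cc * (R ^ e1) ^ n) / (1 / max 1 (Cn * nb)) =
      Cc * max 1 (Cn * nb) * R ^ (e1 * (1 + n)) := by
    have e2 : R ^ (e1 * (1 + n)) = R ^ e1 * (R ^ e1) ^ n := by
      rw [← Real.rpow_natCast (R ^ e1) n, ← Real.rpow_mul hR0.le, ← Real.rpow_add hR0]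
      congr 1; ring
    rw [e2]
    field_simp
  have h1 : r1 ^ (ε / 2) ≤ R ^ (ε / 2) := Real.rpow_le_rpow (by linarith) hrR (by linarith)
  have h2 : (R ^ e1 * (Cc * (R ^ e1) ^ n) / (1 / max 1 (Cn * nb))) ^ G' ≤
      (Cc * Cn) ^ G' * ν ^ Kg * R ^ (ε / 2) := by
    rw [e1']
    calc (Cc * max 1 (Cn * nb) * R ^ (e1 * (1 + n))) ^ G'
        ≤ (Cc * (Cn * ν) * R ^ (e1 * (1 + n))) ^ G' := by gcongr
      _ = (Cc * Cn) ^ G' * ν ^ G' * R ^ (e1 * (1 + n) * G') := by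
          rw [← mul_assoc, Real.mul_rpow (by positivity) (by positivity),
            Real.mul_rpow (by positivity) (by positivity), ← Real.rpow_mul hR0.le]
      _ ≤ (Cc * Cn) ^ G' * ν ^ (Kg : ℝ) * R ^ (ε / 2) := by
          gcongr
      _ = _ := by rw [Real.rpow_natCast]
  have h3 : (dl ^ (-δ)) ^ G = dl ^ (-(G * δ)) := by
    rw [← Real.rpow_mul hdl.le]; congr 1; ring
  have h4 : (2 * p1 / p2) ^ (1/2 : ℝ) ≤ 2 * (p1 / p2) ^ (1/2 : ℝ) := by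
    rw [mul_div_assoc, Real.mul_rpow (by norm_num) (by positivity)]
    refine mul_le_mul_of_nonneg_right ?_ (by positivity)
    calc (2:ℝ) ^ (1/2 : ℝ) ≤ 2 ^ (1 : ℝ) :=
          Real.rpow_le_rpow_of_exponent_le (by norm_num) (by norm_num)
      _ = 2 := Real.rpow_one _
  have h5 : (2 * p1 / p2) ^ (1/2 : ℝ) + dl ^ (1/2 : ℝ) ≤
      2 * ((p1 / p2) ^ (1/2 : ℝ) + dl ^ (1/2 : ℝ)) := by
    have : 0 ≤ dl ^ (1/2 : ℝ) := Real.rpow_nonneg hdl.le _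
    linarith
  rw [h3]
  calc _ ≤ CQ * R ^ (ε / 2) * ((Cc * Cn) ^ G' * ν ^ Kg * R ^ (ε / 2)) * dl ^ (-(G * δ)) *
        (2 * ((p1 / p2) ^ (1/2 : ℝ) + dl ^ (1/2 : ℝ))) := by gcongr
    _ = 2 * CQ * (Cc * Cn) ^ G' * ν ^ Kg * (R ^ (ε / 2) * R ^ (ε / 2)) * dl ^ (-(G * δ)) *
        ((p1 / p2) ^ (1/2 : ℝ) + dl ^ (1/2 : ℝ)) := by ring
    _ = _ := by rw [← Real.rpow_add hR0]; norm_num

/-- the tail. -/
theorem tail_num {CQ R D r1 ε Cc G' e1 E M0 T F : ℝ} {n Mt : ℕ} (hCQ : 0 ≤ CQ)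
    (hR : 1 ≤ R) (hr1 : 1 ≤ r1) (hrR : r1 ≤ R) (hCc : 1 ≤ Cc) (hG' : 0 ≤ G') (he1 : 0 ≤ e1)
    (he : e1 * (1 + n) * G' ≤ ε / 2) (hE : 0 ≤ E) (hnd : E ≤ R ^ M0 * D) (hF0 : 0 ≤ F)
    (hF : F ≤ 1296 * R ^ (4 : ℝ))
    (hMt : 24 + ε + |M0| + |T| ≤ e1 * Mt) (hε : 0 < ε) :
    ENNReal.ofReal F * (ENNReal.ofReal (CQ * (Cc * (R ^ e1) ^ n) ^ G' * r1 ^ (20 : ℕ) *
      ((R ^ e1) ^ Mt)⁻¹) * (ENNReal.ofReal E) ^ (3/2 : ℝ)) ≤
      ENNReal.ofReal (1296 * CQ * Cc ^ G' * (R ^ (-T) * (R * E * √D))) := by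
  have hR0 : 0 < R := by linarith
  rw [ENNReal.ofReal_rpow_of_nonneg hE (by norm_num), ← ENNReal.ofReal_mul (by positivity),
    ← ENNReal.ofReal_mul hF0]
  refine ENNReal.ofReal_le_ofReal ?_
  have a1 : (Cc * (R ^ e1) ^ n) ^ G' ≤ Cc ^ G' * R ^ (ε / 2) := by
    have e2 : (R ^ e1) ^ n = R ^ (e1 * n) := by
      rw [← Real.rpow_natCast (R ^ e1) n, ← Real.rpow_mul hR0.le]
    rw [e2, Real.mul_rpow (by linarith) (by positivity), ← Real.rpow_mul hR0.le]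
    have : e1 * n * G' ≤ ε / 2 := by
      have : 0 ≤ e1 * G' := by positivity
      nlinarith
    gcongr
  have a4 : r1 ^ (20 : ℕ) ≤ R ^ (20 : ℝ) := by
    rw [show (20:ℝ) = ((20:ℕ):ℝ) by norm_num, Real.rpow_natCast]
    gcongr
  have a5 : ((R ^ e1) ^ Mt)⁻¹ = R ^ (-(e1 * Mt)) := by
    rw [← Real.rpow_natCast, ← Real.rpow_mul hR0.le, ← Real.rpow_neg hR0.le]
  have a6 : E ^ (3/2 : ℝ) ≤ E * (R ^ (M0 / 2) * √D) := by
    have h5 : E ^ (3 / 2 : ℝ) = E * √E := by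
      rw [show (3 / 2 : ℝ) = 1 + 1 / 2 by norm_num, Real.rpow_add_of_nonneg hE (by norm_num)
        (by norm_num), Real.rpow_one, Real.sqrt_eq_rpow]
    rw [h5]
    gcongr
    refine (Real.sqrt_le_sqrt hnd).trans ?_
    rw [Real.sqrt_mul (by positivity)]
    gcongr
    rw [Real.sqrt_eq_rpow, ← Real.rpow_mul hR0.le]
    apply le_of_eq; congr 1; ring
  rw [a5]
  calc F * (CQ * (Cc * (R ^ e1) ^ n) ^ G' * r1 ^ (20 : ℕ) * R ^ (-(e1 * Mt)) * E ^ (3/2 : ℝ))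
      ≤ (1296 * R ^ (4 : ℝ)) * (CQ * (Cc ^ G' * R ^ (ε / 2)) * R ^ (20 : ℝ) * R ^ (-(e1 * Mt)) *
          (E * (R ^ (M0 / 2) * √D))) := by gcongr
    _ = 1296 * CQ * Cc ^ G' * ((R ^ (4 : ℝ) * R ^ (ε / 2) * R ^ (20 : ℝ) * R ^ (-(e1 * Mt)) *
          R ^ (M0 / 2)) * (E * √D)) := by ring
    _ ≤ 1296 * CQ * Cc ^ G' * (R ^ (-T + 1) * (E * √D)) := by
        rw [← Real.rpow_add hR0, ← Real.rpow_add hR0, ← Real.rpow_add hR0, ← Real.rpow_add hR0]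
        have h1 := le_abs_self M0
        have h2 := abs_nonneg M0
        have h4 := le_abs_self T
        have h5 : R ^ (4 + ε / 2 + 20 + -(e1 * Mt) + M0 / 2) ≤ R ^ (-T + 1) :=
          Real.rpow_le_rpow_of_exponent_le hR (by linarith)
        have h6 : 0 ≤ E * √D := by positivity
        have h7 : 0 ≤ 1296 * CQ * Cc ^ G' := by positivity
        exact mul_le_mul_of_nonneg_left (mul_le_mul_of_nonneg_right h5 h6) h7
    _ = _ := by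
        rw [Real.rpow_add hR0, Real.rpow_one]; ring

/-! ### the step -/

set_option maxHeartbeats 1000000 in
/-- **the slab step for the tower**. -/
theorem step_of {M q : ℝ} (hM : 0 ≤ M) (hq : 0 ≤ q) (HS : STEP_C M q) :
    ∃ Cw : ℝ, 1 ≤ Cw ∧ ∀ ε : ℝ, 0 < ε → ∃ (nw Kν : ℕ) (Cc e1 : ℝ), 1 ≤ Cc ∧ 0 < e1 ∧
    ∀ a b M0 T : ℝ, 1 ≤ a → 0 < b → b < 2 → ∃ K1 : ℕ, ∀ K : ℕ, K1 ≤ K →
    ∀ A' Cn : ℝ, 1 ≤ A' → 1 ≤ Cn → ∃ C : ℝ, 1 ≤ C ∧
    ∀ (Ma : ℕ) (A κ η0 : ℝ) (C0 : E2) (σ : ℝ) (g : E3 → ℂ) (R D : ℝ), 1 ≤ A →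
      Ss M κ q a b M0 η0 C0 σ g R D → Kp a R κ → C ≤ R →
    ∀ dl ν : ℝ, 0 < dl → C * dl ≤ 1 → dl ≤ R ^ (-ε) → κ ≤ dl ^ (4 : ℝ) → 1 ≤ ν → ν ≤ R →
    ∀ (N : ℕ) (L : ℕ → Lev) (ac : ℕ → ℕ → ℕ), Tow M κ q A A' a b Cn K η0 C0 σ g R dl ν N L →
      Acl (AF Ma nw Cc e1) κ η0 g R dl N L ac → dl ^ (-Cw) ≤ R * dl ^ N →
    ∀ t, t + 2 ≤ N → ∀ k < (L (t + 2)).n, Nt Ma R (ac (t + 2) k) →
      Nt Ma R (ac (t + 1) ((L (t + 2)).par k)) → ∀ δ : ℝ, 0 ≤ δ → δ ≤ 1/4 →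
      Thin dl δ (L (t + 2)).r ((L (t + 2)).s k).1 → Wide dl Cw (L (t + 2)).r ((L (t + 2)).s k).2 →
      Thin dl δ (L (t + 1)).r ((L (t + 1)).s ((L (t + 2)).par k)).1 →
      Wide dl Cw (L (t + 1)).r ((L (t + 1)).s ((L (t + 2)).par k)).2 →
      (L (t + 2)).S g k ≤ ENNReal.ofReal (C * ν ^ Kν * R ^ ε * dl ^ (-(Cw * δ)) *
          ((pv (nAR Ma R) dl (ac (t + 1) ((L (t + 2)).par k)) /
            pv (nAR Ma R) dl (ac (t + 2) k)) ^ (1/2 : ℝ) + dl ^ (1/2 : ℝ))) *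
          (L (t + 1)).S g ((L (t + 2)).par k) +
        ENNReal.ofReal (C * ν ^ Kν * R ^ (-T) * SS g R D) := by
  obtain ⟨G, hG, HS⟩ := HS
  obtain ⟨dc, hdc, hdc1, HC⟩ := coh_lev AlB888.cohu_c
  refine ⟨G, hG, fun ε hε => ?_⟩
  obtain ⟨nw, HS⟩ := HS (ε / 2) (by linarith)
  obtain ⟨G', hG', HS⟩ := HS nw le_rfl
  obtain ⟨Cc, hCc, HC⟩ := HC nw
  set e1 : ℝ := min (ε / 4) (ε / (2 * (1 + nw) * (G' + 1))) with he1d
  have hden : (0:ℝ) < 2 * (1 + nw) * (G' + 1) := by positivity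
  have he1 : 0 < e1 := lt_min (by linarith) (by positivity)
  have he1a : e1 ≤ ε / 4 := min_le_left _ _
  have he1b : e1 * (1 + nw) * G' ≤ ε / 2 := by
    have h1 : e1 ≤ ε / (2 * (1 + nw) * (G' + 1)) := min_le_right _ _
    rw [le_div_iff₀ hden] at h1
    have h2 : 0 ≤ e1 * (1 + nw) := by positivity
    nlinarith
  refine ⟨nw, 4 + ⌈G'⌉₊, Cc, e1, hCc, he1, ?_⟩
  intro a b M0 T ha hb hb2
  refine ⟨⌈15 + |M0| + |T| + q⌉₊, fun K hK A' Cn hA' hCn => ?_⟩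
  have hK' : 15 + |M0| + |T| + q ≤ K := (Nat.le_ceil _).trans (by exact_mod_cast hK)
  obtain ⟨d0, hd0, hd01, HS⟩ := HS a b A' ha hb hb2 hA'
  set Mt : ℕ := ⌈(24 + ε + |M0| + |T|) / e1⌉₊ with hMtd
  have hMt : 24 + ε + |M0| + |T| ≤ e1 * Mt := by
    have h1 : (24 + ε + |M0| + |T|) / e1 ≤ Mt := Nat.le_ceil _
    rw [div_le_iff₀ he1] at h1
    rw [mul_comm e1]
    exact h1
  obtain ⟨CQ, hCQ, HS⟩ := HS Mt
  obtain ⟨Cl, hCl, HL⟩ := Lk367.link q a b A' Cn M0 T ha hb2.le hq hA' (by linarith)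
  set C : ℝ := max (max (Cl * (2 * CQ * (Cc * Cn) ^ G')) (Cl * (1296 * CQ * Cc ^ G') + Cl))
    (max (max d0⁻¹ dc⁻¹) (max A' ((8 * (M * A')) ^ 2))) with hCd
  have hC1 : Cl * (2 * CQ * (Cc * Cn) ^ G') ≤ C := (le_max_left _ _).trans (le_max_left _ _)
  have hC2 : Cl * (1296 * CQ * Cc ^ G') + Cl ≤ C := (le_max_right _ _).trans (le_max_left _ _)
  have hC3 : d0⁻¹ ≤ C := ((le_max_left _ _).trans (le_max_left _ _)).trans (le_max_right _ _)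
  have hC4 : dc⁻¹ ≤ C := ((le_max_right _ _).trans (le_max_left _ _)).trans (le_max_right _ _)
  have hC5 : A' ≤ C := ((le_max_left _ _).trans (le_max_right _ _)).trans (le_max_right _ _)
  have hC6 : (8 * (M * A')) ^ 2 ≤ C :=
    ((le_max_right _ _).trans (le_max_right _ _)).trans (le_max_right _ _)
  refine ⟨C, hA'.trans hC5, ?_⟩
  intro Ma A κ η0 C0 σ g R D hA hS hKp hCR dl ν hdl hCdl hdlR hκ4 hν hνR N L ac hT hAc hCw t ht k hk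
    hnt2 hnt1 δ hδ hδ4 hthin2 hwide2 hthin1 hwide1
  have hR := hS.R1
  have hR0 : 0 < R := by linarith
  have hC0 : 0 < C := by linarith [hA'.trans hC5]
  have hdle : ∀ x : ℝ, 0 < x → x⁻¹ ≤ C → dl ≤ x := by
    intro x hx hxC
    have h1 : x⁻¹ * dl ≤ 1 := (mul_le_mul_of_nonneg_right hxC hdl.le).trans hCdl
    rwa [inv_mul_le_iff₀ hx, mul_one] at h1
  have hdld0 := hdle d0 hd0 hC3
  have hdldc := hdle dc hdc hC4
  have hdl1 : dl ≤ 1 := hdld0.trans hd01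
  have hA'dl : A' * dl ≤ 1 := (mul_le_mul_of_nonneg_right hC5 hdl.le).trans hCdl
  have h8dl : 8 * (M * A') * dl ^ (1/2 : ℝ) ≤ 1 := by
    have h1 : (8 * (M * A')) ^ 2 * dl ≤ 1 := (mul_le_mul_of_nonneg_right hC6 hdl.le).trans hCdl
    have h2 : (8 * (M * A') * dl ^ (1/2 : ℝ)) ^ 2 ≤ 1 := by
      rw [mul_pow, ← Real.rpow_natCast (dl ^ (1/2 : ℝ)) 2, ← Real.rpow_mul hdl.le]
      norm_num
      exact h1
    have h3 : 0 ≤ 8 * (M * A') * dl ^ (1/2 : ℝ) := by positivity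
    nlinarith
  have hκ0 := hKp.k0
  have hκ1 : κ ≤ 1 := hKp.k4.trans (by norm_num)
  have hκ4' : κ ≤ dl ^ (4 : ℕ) := by
    rw [← Real.rpow_natCast]; exact_mod_cast hκ4
  have hYd : R ^ e1 ≤ dl ^ (-(1/4) : ℝ) := by
    have h1 : (R ^ (-ε)) ^ (-(1/4) : ℝ) ≤ dl ^ (-(1/4) : ℝ) :=
      Real.rpow_le_rpow_of_nonpos hdl hdlR (by norm_num)
    have h2 : (R ^ (-ε)) ^ (-(1/4) : ℝ) = R ^ (ε / 4) := by
      rw [← Real.rpow_mul hR0.le]; congr 1; ring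
    rw [h2] at h1
    exact (Real.rpow_le_rpow_of_exponent_le hR he1a).trans h1
  have hY1 : 1 ≤ R ^ e1 := Real.one_le_rpow hR he1.le
  have hK0 : 1 ≤ Cc * (R ^ e1) ^ nw := by
    have := one_le_pow₀ hY1 (n := nw)
    nlinarith
  have ht2 : t + 1 + 1 ≤ N := ht
  have ht1 : t + 1 < N := by omega
  have ht0 : t < N := by omega
  set L1 := L (t + 1) with hL1
  set L2 := L (t + 2) with hL2
  have h1 : LevOk M κ q A A' a b Cn K η0 C0 σ g R L1 := hT.ok (t + 1) ht1.le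
  have h2 : LevOk M κ q A A' a b Cn K η0 C0 σ g R L2 := hT.ok (t + 2) ht
  have hrs : L2.r = dl * L1.r := tow_step hT ht1
  have hN : Next L1 L2 := hT.next (t + 1) ht1
  have hr11 : 1 ≤ L1.r := TuL890.lev_r1 h1 hR
  have hr21 : 1 ≤ L2.r := TuL890.lev_r1 h2 hR
  have hr10 : 0 < L1.r := by linarith
  have hπ := hN.par_lt k hk
  set π := L2.par k with hπd
  have hGm1 : 1 ≤ dl ^ (-δ) := dl_rpow_le hdl hdl1 (by linarith)
  have hGm2 : dl ^ (-δ) ≤ dl ^ (-(1/4) : ℝ) :=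
    Real.rpow_le_rpow_of_exponent_ge hdl hdl1 (by linarith)
  have hr1ge : dl ^ (-G) ≤ L1.r := by
    refine hCw.trans ?_
    have h3 : L1.r = R * dl ^ (t + 1) := hT.rad (t + 1) ht1.le
    rw [h3]
    exact mul_le_mul_of_nonneg_left (pow_le_pow_of_le_one hdl.le hdl1 ht1.le) hR0.le
  have hklo : (dl * L1.r) ^ (-(1/4) : ℝ) ≤ κ := by
    rw [← hrs]
    refine le_trans ?_ hKp.kR
    calc L2.r ^ (-(1/4) : ℝ) ≤ (R ^ (1/2 : ℝ)) ^ (-(1/4) : ℝ) :=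
          Real.rpow_le_rpow_of_nonpos (by positivity) h2.lo (by norm_num)
      _ = R ^ (-(1/8) : ℝ) := by rw [← Real.rpow_mul hR0.le]; norm_num
      _ ≤ R ^ (-(1/16) : ℝ) := Real.rpow_le_rpow_of_exponent_le hR (by norm_num)
  have h8s : 8 * (M * A' * (L1.s π).1) ≤ (L1.s π).2 := by
    have h3 := wide_Gm (dl := dl) (d0 := dl) (G := G) (Gm := dl ^ (-δ)) (K := 8 * (M * A'))
      (x := L1.r ^ (-(1/2) : ℝ)) (s := (L1.s π).2) hdl le_rfl hdl1 hG (by positivity) h8dl hGm2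
      (Real.rpow_nonneg hr10.le _) hwide1
    refine le_trans ?_ h3
    have h4 : (L1.s π).1 ≤ dl ^ (-δ) * L1.r ^ (-(1/2) : ℝ) := hthin1
    have h5 : 0 ≤ 8 * (M * A') := by positivity
    calc 8 * (M * A' * (L1.s π).1) = 8 * (M * A') * (L1.s π).1 := by ring
      _ ≤ _ := mul_le_mul_of_nonneg_left h4 h5
  -- the potentials
  set p1 := pv (nAR Ma R) dl (ac (t + 1) π) with hp1d
  set p2 := pv (nAR Ma R) dl (ac (t + 2) k) with hp2d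
  have hp1 : 1 ≤ p1 := pv_ge hdl hdl1 _
  have hp2 : 1 ≤ p2 := pv_ge hdl hdl1 _
  set c0 : ℝ := 1 / max 1 (Cn * L1.nb) with hc0d
  have hmx1 : 1 ≤ max 1 (Cn * L1.nb) := le_max_left _ _
  have hmx0 : 0 < max 1 (Cn * L1.nb) := by linarith
  have hc0 : 0 < c0 := by positivity
  have hc01 : c0 ≤ 1 := by rw [hc0d, div_le_one hmx0]; exact hmx1
  set K0 : ℝ := Cc * (R ^ e1) ^ nw with hK0d
  set Q0 : ℝ := CQ * L1.r ^ (ε / 2) * (R ^ e1 * K0 / c0) ^ G' * (dl ^ (-δ)) ^ G *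
    ((2 * p1 / p2) ^ (1/2 : ℝ) + dl ^ (1/2 : ℝ)) with hQ0
  set T0 : ℝ≥0∞ := ENNReal.ofReal (CQ * K0 ^ G' * L1.r ^ (20 : ℕ) * ((R ^ e1) ^ Mt)⁻¹) *
    (ENNReal.ofReal (Enc g)) ^ (3/2 : ℝ) with hT0
  have hlink := HL M κ A K η0 C0 σ g R D hA hS.toSt hK' L1 L2 h1 h2 hN (by
      rw [hrs, ← mul_assoc]
      exact mul_le_of_le_one_left hr10.le hA'dl) ν hν hνR (hT.le (t + 1) ht1.le)
    (hT.le (t + 2) ht) k hk (ENNReal.ofReal Q0) T0 (by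
      intro w hw I' P' hPl hP'
      have hwc : w ∈ cylc R := h1.net.mem w hw
      have hctx : Ctx M q a b A' d0 G c0 κ η0 (trc w g) L1.r dl (R ^ e1) (dl ^ (-δ)) (L1.s π).1
          (L1.s π).2 (L2.s k).1 (L2.s k).2 (L1.D w π) (L1.I w π) (L1.P w π) I' P' :=
        { par := parC_of hS h1 hw hπ
          c0pos := hc0
          c0le := hc01
          dlpos := hdl
          dlle := hdld0
          r1ge := hr1ge
          kpos := hκ0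
          klo := hklo
          khi := hκ4'
          ka := hKp.ka
          Gm1 := hGm1
          Gm2 := hGm2
          Y1 := hY1
          Y2 := hYd
          sd := by rw [← hrs]; exact h2.sd k hk
          pl := by rw [← hrs]; exact hPl
          cp := fun j hj m hm => by
            obtain ⟨z, hz, hzw, i, hi, hPe⟩ := hP' j hj
            rw [hPe]
            obtain ⟨cls, hd⟩ := h2.dec z hz
            have h3 := hd.cp k (Finset.mem_range.2 hk) m (by rw [hrs]; exact hm)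
            unfold uS at h3
            simp only [Set.iUnion_eq_empty] at h3
            exact h3 i hi
          thin' := hthin1
          thin := by rw [← hrs]; exact hthin2
          wide := by rw [← hrs]; exact hwide2 }
      have hcoh : Coh (an L1.r) (an (dl * L1.r)) κ (dl ^ (1/2 : ℝ)) (R ^ e1) (2 * L1.r)
          (L1.I w π) (L1.P w π) (2 * p1) :=
        HC Ma e1 M κ q A A' a b Cn K η0 C0 σ g R D M0 dl ν N L ac he1.le ha hb2.le hκ0 hκ1 hdl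
          hdldc hκ4' hYd hS hT hAc t ht0 w hw π hπ hnt1 h8s
      have hchi : Chi nw K0 κ (trc w g) dl L1.r (A0 (nAR Ma R) (Enc g) (ac (t + 2) k)) p2
          (uS (L1.I w π) (L1.P w π)) I' P' :=
        chi_lev (t := t + 1) ha hb2.le hκ0.le hκ1 hdl hdl1 hS hK0 hT hAc ht1 hk hnt2 w I' P' hP'
      have h3 := HS c0 κ η0 K0 (trc w g) L1.r dl (R ^ e1) (dl ^ (-δ)) (L1.s π).1 (L1.s π).2
        (L2.s k).1 (L2.s k).2 (L1.D w π) (A0 (nAR Ma R) (Enc g) (ac (t + 2) k)) p2 (2 * p1)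
        (L1.I w π) (L1.P w π) I' P' hctx hwide1 hcoh (by linarith)
        (A0_nonneg (TuT890.Enc_nn g) _) hp2 hK0 hchi
      have e2 : L1.G w π = selc η0 κ (an L1.r) (trc w g) (uS (L1.I w π) (L1.P w π)) := by
        obtain ⟨cls, hd⟩ := h1.dec w hw
        exact hd.eq π (Finset.mem_range.2 hπ)
      have e3 : Enc (trc w g) = Enc g := GlC210.Enc_trc w g
      rw [← e2, ← hrs] at h3
      refine h3.trans (le_of_eq ?_)
      unfold Tl SCo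
      rw [e3]
      rfl)
  refine hlink.trans ?_
  have hSS : 0 ≤ SS g R D := by
    unfold SS
    have := TuT890.Enc_nn g
    positivity
  have hν0 : 0 ≤ ν := by linarith
  have hnum := main_num (CQ := CQ) (R := R) (r1 := L1.r) (ε := ε) (Cc := Cc) (Cn := Cn) (ν := ν)
    (G' := G') (G := G) (dl := dl) (δ := δ) (p1 := p1) (p2 := p2) (e1 := e1) (nb := (L1.nb : ℝ))
    (n := nw) (Kg := ⌈G'⌉₊) hCQ hR hr11 h1.hi hε hCc hCn hν (Nat.cast_nonneg _)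
    (hT.le (t + 1) ht1.le).2 hG' (Nat.le_ceil _) hdl he1.le he1b hp1 hp2
  have hcard := TuL890.card_net' hr11 h1.hi h1.net
  have htail := tail_num (CQ := CQ) (R := R) (D := D) (r1 := L1.r) (ε := ε) (Cc := Cc) (G' := G')
    (e1 := e1) (E := Enc g) (M0 := M0) (T := T) (F := (L1.Z.card : ℝ)) (n := nw) (Mt := Mt) hCQ hR
    hr11 h1.hi hCc hG' he1.le he1b (TuT890.Enc_nn g) hS.nd (Nat.cast_nonneg _) hcard hMt hε
  rw [ENNReal.ofReal_natCast] at htail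
  have hZ0 : 0 ≤ 2 * CQ * (Cc * Cn) ^ G' := by positivity
  have hX0 : 0 ≤ ν ^ (4 + ⌈G'⌉₊) * R ^ ε * dl ^ (-(G * δ)) *
      ((p1 / p2) ^ (1/2 : ℝ) + dl ^ (1/2 : ℝ)) := by positivity
  have hRT : 0 ≤ R ^ (-T) * SS g R D := mul_nonneg (Real.rpow_nonneg hR0.le _) hSS
  have hνK : ν ^ 4 ≤ ν ^ (4 + ⌈G'⌉₊) := pow_le_pow_right₀ hν (by omega)
  calc ENNReal.ofReal (Cl * ν ^ 4) * (ENNReal.ofReal Q0 * L1.S g π + (L1.Z.card : ℝ≥0∞) * T0) +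
        ENNReal.ofReal (Cl * ν ^ 4 * R ^ (-T) * SS g R D)
      = ENNReal.ofReal (Cl * ν ^ 4 * Q0) * L1.S g π +
        (ENNReal.ofReal (Cl * ν ^ 4) * ((L1.Z.card : ℝ≥0∞) * T0) +
          ENNReal.ofReal (Cl * ν ^ 4 * R ^ (-T) * SS g R D)) := by
        rw [ENNReal.ofReal_mul (p := Cl * ν ^ 4) (q := Q0) (by positivity)]
        ring
    _ ≤ ENNReal.ofReal (C * ν ^ (4 + ⌈G'⌉₊) * R ^ ε * dl ^ (-(G * δ)) *
          ((p1 / p2) ^ (1/2 : ℝ) + dl ^ (1/2 : ℝ))) * L1.S g π +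
        (ENNReal.ofReal (Cl * ν ^ 4) * ENNReal.ofReal (1296 * CQ * Cc ^ G' *
            (R ^ (-T) * (R * Enc g * √D))) +
          ENNReal.ofReal (Cl * ν ^ 4 * R ^ (-T) * SS g R D)) := by
        refine add_le_add (mul_le_mul' (ENNReal.ofReal_le_ofReal ?_) le_rfl)
          (add_le_add (mul_le_mul' le_rfl htail) le_rfl)
        calc Cl * ν ^ 4 * Q0 ≤ Cl * ν ^ 4 * (2 * CQ * (Cc * Cn) ^ G' * ν ^ ⌈G'⌉₊ * R ^ ε *
              dl ^ (-(G * δ)) * ((p1 / p2) ^ (1/2 : ℝ) + dl ^ (1/2 : ℝ))) := by gcongr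
          _ = (Cl * (2 * CQ * (Cc * Cn) ^ G')) * (ν ^ (4 + ⌈G'⌉₊) * R ^ ε * dl ^ (-(G * δ)) *
              ((p1 / p2) ^ (1/2 : ℝ) + dl ^ (1/2 : ℝ))) := by rw [pow_add]; ring
          _ ≤ C * (ν ^ (4 + ⌈G'⌉₊) * R ^ ε * dl ^ (-(G * δ)) *
              ((p1 / p2) ^ (1/2 : ℝ) + dl ^ (1/2 : ℝ))) := mul_le_mul_of_nonneg_right hC1 hX0
          _ = _ := by ring
    _ ≤ _ := by
        refine add_le_add le_rfl ?_
        rw [← ENNReal.ofReal_mul (by positivity), ← ENNReal.ofReal_add (by positivity) (by positivity)]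
        refine ENNReal.ofReal_le_ofReal ?_
        calc Cl * ν ^ 4 * (1296 * CQ * Cc ^ G' * (R ^ (-T) * (R * Enc g * √D))) +
              Cl * ν ^ 4 * R ^ (-T) * SS g R D
            = (Cl * (1296 * CQ * Cc ^ G') + Cl) * (ν ^ 4 * (R ^ (-T) * SS g R D)) := by
              unfold SS; ring
          _ ≤ C * (ν ^ (4 + ⌈G'⌉₊) * (R ^ (-T) * SS g R D)) := by gcongr
          _ = _ := by ring

end Crest.Agent.R116.Slb367
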