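import Crest.Agent.R116.SlbC2_367
import Crest.Agent.R116.Lk1_367
import Crest.Agent.R116.F1c4_124

/-!
# R116 (S0155), WAVE side, `SLAB` from `STEP_C` (helper367), part 5: tiny labels
-/

set_option autoImplicit false

open MeasureTheory FourierTransform
open scoped ENNReal

namespace Crest.Agent.R116.Slb367

open Crest.Agent.R138.Defs (E2 ee)
open Crest.Agent.R138.Wpk685 (cen caps)
open Crest.Agent.R116.CDef480
open Crest.Agent.R116.LZg725 (Cf)
open Crest.Agent.R116.AlB888 (Adc potc)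
open Crest.Agent.R116.WC188
open Crest.Agent.R116.PC299
open Crest.Agent.R116.Bas367
open Crest.Agent.R116.GlC210 (Lev LevOk Next Aux Cls Tow AuxF trn Acl Rg Kp argc AuxOk)

theorem umc_zero (ρ : ℝ) (m : ℤ × ℤ) (y : E3) : umc ρ (fun _ => 0) m y = 0 := by
  unfold umc
  simp only [mul_zero]
  rw [Real.fourierInv_eq']
  simp

/-- `R^Ma ≤ 2^nAR`. -/
theorem two_nAR {Ma : ℕ} {R : ℝ} (hR : 1 ≤ R) : R ^ (Ma : ℝ) ≤ 2 ^ nAR Ma R := by
  have hR0 : 0 < R := by linarith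
  unfold nAR
  rw [mul_comm, pow_mul, Real.rpow_natCast]
  refine pow_le_pow_left₀ hR0.le ?_ _
  have h1 : Real.logb 2 R ≤ ⌈Real.logb 2 R⌉₊ := Nat.le_ceil _
  calc R = 2 ^ Real.logb 2 R := (Real.rpow_logb (by norm_num) (by norm_num) hR0).symm
    _ ≤ 2 ^ ((⌈Real.logb 2 R⌉₊ : ℕ) : ℝ) :=
        Real.rpow_le_rpow_of_exponent_le (by norm_num) h1
    _ = 2 ^ ⌈Real.logb 2 R⌉₊ := Real.rpow_natCast _ _

theorem eta_range {M κ q a b M0 : ℝ} {η0 : ℝ} {C0 : E2} {σ : ℝ} {g : E3 → ℂ} {R D : ℝ}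
    (ha : 1 ≤ a) (hS : Ss M κ q a b M0 η0 C0 σ g R D) (hka : 8 * a * κ ≤ 1)
    (hg : ∃ ζ, g ζ ≠ 0) : (2 * a)⁻¹ ≤ η0 ∧ η0 ≤ 2 * a := by
  obtain ⟨ζ, hζ⟩ := hg
  have h1 := hS.supp ζ hζ
  have h2 := abs_le.1 (hS.slc ζ hζ)
  have ha0 : 0 < a := by linarith
  have h3 : κ ≤ a⁻¹ / 8 := by
    rw [le_div_iff₀ (by norm_num), ← one_div, le_div_iff₀ ha0]
    linarith
  have h4 : a⁻¹ ≤ 1 := inv_le_one_of_one_le₀ ha
  have h5 : 0 < a⁻¹ := inv_pos.2 ha0
  rw [mul_inv]
  constructor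
  · linarith [h1.1, h2.2]
  · linarith [h1.2.1, h2.1]

set_option maxHeartbeats 1000000 in
/-- **tiny labels**. -/
theorem tiny_of (q a b A' Cn M0 T : ℝ) (nw Ma : ℕ) (ha : 1 ≤ a) (hb : b ≤ 2) (hq : 0 ≤ q)
    (hA' : 1 ≤ A') (hCn : 1 ≤ Cn) (hMa : 16 + |M0| + 2 * |T| + q ≤ Ma) : ∃ C : ℝ, 1 ≤ C ∧
    ∀ (M κ A Cc e1 : ℝ) (K : ℕ) (η0 : ℝ) (C0 : E2) (σ : ℝ) (g : E3 → ℂ) (R D : ℝ),
      1 ≤ A → Ss M κ q a b M0 η0 C0 σ g R D → Kp a R κ → Ma ≤ K →
    ∀ dl ν : ℝ, 0 < dl → C * dl ≤ 1 → 1 ≤ ν → ν ≤ R →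
    ∀ (N : ℕ) (L : ℕ → Lev) (ac : ℕ → ℕ → ℕ), Tow M κ q A A' a b Cn K η0 C0 σ g R dl ν N L →
      Acl (AF Ma nw Cc e1) κ η0 g R dl N L ac → ∀ t < N, ∀ k < (L (t + 1)).n,
      ¬ ac (t + 1) k % (nAR Ma R + 1) < nAR Ma R →
      (L (t + 1)).S g k ≤ ENNReal.ofReal (C * ν * R ^ (-T) * SS g R D) := by
  obtain ⟨Kp0, hKp0, HP⟩ := F1c124.pt_le (a := 2 * a) (by linarith) nw 1
  obtain ⟨Ct, hCt, HT⟩ := TuT890.tiny_S q a b A' Cn M0 T (2 * Kp0 + 2 * Cn ^ 2) ha hb hq
    (by linarith) (by linarith) (by positivity)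
  refine ⟨max Ct A', hCt.trans (le_max_left _ _), ?_⟩
  intro M κ A Cc e1 K η0 C0 σ g R D hA hS hKp hMaK dl ν hdl hCdl hν hνR N L ac hT hAc t ht k hk hnt
  have hR := hS.R1
  have hR0 : 0 < R := by linarith
  have hE := TuT890.Enc_nn g
  have ha0 : 0 < a := by linarith
  have hA'dl : A' * dl ≤ 1 := (mul_le_mul_of_nonneg_right (le_max_right _ _) hdl.le).trans hCdl
  have hdl1 : dl ≤ 1 := by nlinarith
  have hκ0 := hKp.k0
  have hκ1 : κ ≤ 1 := hKp.k4.trans (by norm_num)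
  have hok := hT.ok t ht.le
  have hok' := hT.ok (t + 1) ht
  have hrs := tow_step hT ht
  have hr1 : 1 ≤ (L t).r := TuL890.lev_r1 hok hR
  have hr1' : 1 ≤ (L (t + 1)).r := TuL890.lev_r1 hok' hR
  have hr0 : 0 < (L t).r := by linarith
  have hr0' : 0 < (L (t + 1)).r := by linarith
  have hN := hT.next t ht
  have hν0 : 0 ≤ ν := by linarith
  have hM0 := le_abs_self M0
  have hT0 := le_abs_self T
  have hSS : 0 ≤ SS g R D := by
    unfold SS; positivity
  have hMaK' : (Ma : ℝ) ≤ K := by exact_mod_cast hMaK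
  have hK0 : (0:ℝ) ≤ K := Nat.cast_nonneg _
  have hmain := HT M κ A K η0 C0 σ g R D hS.toSt (L (t + 1)) hok' k hk ((Ma : ℝ) - 3)
    (by linarith [abs_nonneg M0, abs_nonneg T]) (by
      intro z hz m hmc y hy
      by_cases hg : ∃ ζ, g ζ ≠ 0
      swap
      · have hg0 : g = fun _ => 0 := funext fun ζ => by
          by_contra h; exact hg ⟨ζ, h⟩
        have e : trc z g = fun _ => 0 := by
          funext ζ
          rw [hg0]
          unfold trc
          rw [zero_mul]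
        rw [e, umc_zero]
        simp
      obtain ⟨hη1, hη2⟩ := eta_range ha hS hKp.ka hg
      unfold Lev.sl uS at hy
      simp only [Set.mem_iUnion, exists_prop] at hy
      obtain ⟨i, hi, hy⟩ := hy
      have hzc : z ∈ cylc R := hok'.net.mem z hz
      have hnear := hok.near z hzc
      set w := (L t).ζ z with hw
      set π := (L (t + 1)).par k with hπd
      have hπ : π < (L t).n := hN.par_lt k hk
      obtain ⟨cls, hd⟩ := hok.dec w hnear.1
      obtain ⟨cls', hd'⟩ := hok'.dec z hz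
      have hπΛ : π ∈ Finset.range (L t).n := Finset.mem_range.2 hπ
      -- domination
      have harg := hN.arg z hz k hk i hi m y hy
      have hdom : GlC210.Domc ((L (t + 1)).r ^ (-(1/2) : ℝ)) ((L t).pf z) (L t).n π m y := by
        have := GlC210.argc_dom ((L (t + 1)).r ^ (-(1/2) : ℝ)) ((L t).pf z) hok.n1 m y
        rwa [harg] at this
      have h1 := GlC210.norm_domc (H := (L t).pf z)
        (e := trc (z - w) ((L t).rest w))
        (fun k' hk' => trc_int (Lk367.lev_G_int hok ha0 hnear.1 (Finset.mem_range.1 hk')) _)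
        (trc_int (Lk367.lev_rest_int hok ha0 hnear.1) _) hdom
      rw [hw, ← Lk367.trc_dec hok hzc, ← hw] at h1
      -- the rest
      have hyb : ‖y‖ ≤ A * (L t).r := by
        have h2 := mem_closedBall_zero_iff.1 (hd'.bd k (Finset.mem_range.2 hk) m
          (Set.mem_biUnion (x := i) hi hy))
        have h3 : A' * (L (t + 1)).r ≤ (L t).r := by
          rw [hrs, ← mul_assoc]
          exact mul_le_of_le_one_left hr0.le hA'dl
        have h4 : (L t).r ≤ A * (L t).r := by nlinarith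
        linarith
      have hcyl : z - w ∈ cylc (A * (L t).r) := by
        have h2 := hnear.2
        have h4 : (L t).r ≤ A * (L t).r := by nlinarith
        exact ⟨h2.1.trans h4, h2.2.trans h4⟩
      have hrr : (L (t + 1)).r ≤ (L t).r := by rw [hrs]; nlinarith
      have h2 := hd.small (L (t + 1)).r hr1' hrr _ hcyl m y hyb
      -- the selected wave
      have hsel : (L t).pf z π = trc (z - w) (selc η0 κ (an (L t).r) (trc w g)
          ((L t).sl w π)) := by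
        unfold Lev.pf
        rw [← hw, hd.eq π hπΛ]
        rfl
      have hρ : 0 < an (L t).r := an_pos hr0
      have hρρ : an (L t).r ≤ an (L (t + 1)).r := by
        rw [hrs]
        exact an_le_an hdl hdl1 hr0
      have h3 := HP (an (L t).r) (an (L (t + 1)).r) κ η0 hρ hρρ hκ0 (by
          rw [← one_div, le_div_iff₀ (by positivity)]
          linarith [hKp.ka]) hη1 hη2 (trc w g) ((L t).sl w π)
        (trc_int (ss_gd ha0 hS).int _) (fun m _ => lev_sl_meas hok hnear.1 hπ m)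
        (fun m _ => Metric.isBounded_closedBall.subset (hd.bd π hπΛ m)) (z - w) (by
          rw [an_sq hr0]
          have h4 : |(z - w).2| ≤ (L t).r := hnear.2.2
          calc |(z - w).2| * (L t).r⁻¹ ≤ (L t).r * (L t).r⁻¹ := by gcongr
            _ = 1 := mul_inv_cancel₀ hr0.ne') m y
      obtain ⟨c1, c2, -⟩ := pts ha hb hκ0.le hκ1 hS hT hAc ht hz hk hi hy
      have c3 := cls_tiny c1 hnt c2
      rw [← hsel] at h3
      have e1 : (an (L (t + 1)).r / an (L t).r) ^ 2 = dl⁻¹ := by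
        rw [hrs, an_div hr0 hdl, sq, dlh_sq hdl]
      rw [e1] at h3
      have hrs' : an (L (t + 1)).r = an (dl * (L t).r) := by rw [hrs]
      have h5 : ‖umc ((L (t + 1)).r ^ (-(1/2) : ℝ)) ((L t).pf z π) m y‖ ^ 2 ≤
          Kp0 * dl⁻¹ * (Enc g / 2 ^ nAR Ma R) := by
        have h6 : ENNReal.ofReal (‖umc ((L (t + 1)).r ^ (-(1/2) : ℝ)) ((L t).pf z π) m y‖ ^ 2) ≤
            ENNReal.ofReal (Kp0 * dl⁻¹ * (Enc g / 2 ^ nAR Ma R)) := by
          rw [ENNReal.ofReal_pow (norm_nonneg _), ofReal_norm,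
            ENNReal.ofReal_mul (by positivity)]
          refine h3.trans (mul_le_mul' le_rfl ?_)
          rw [hrs']
          exact c3
        exact (ENNReal.ofReal_le_ofReal_iff (by positivity)).1 h6
      -- numbers
      have hdlR : dl⁻¹ ≤ R := by
        rw [inv_le_comm₀ hdl hR0]
        have h6 : 1 ≤ dl * (L t).r := by rw [← hrs]; exact hr1'
        have h7 : dl * (L t).r ≤ dl * R := mul_le_mul_of_nonneg_left hok.hi hdl.le
        rw [← one_div, div_le_iff₀ hR0]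
        linarith
      have h2n := two_nAR (Ma := Ma) hR
      have hRM : 0 < R ^ (Ma : ℝ) := Real.rpow_pos_of_pos hR0 _
      have h8 : Enc g / 2 ^ nAR Ma R ≤ R ^ (-(Ma : ℝ)) * Enc g := by
        rw [Real.rpow_neg hR0.le, ← div_eq_inv_mul]
        gcongr
      have hn1 : ((L t).n : ℝ) ≤ R := ((hT.le t ht.le).1).trans hνR
      have hnb : ((L t).nb : ℝ) ≤ R := ((hT.le t ht.le).2).trans hνR
      set X := ‖umc ((L (t + 1)).r ^ (-(1/2) : ℝ)) ((L t).pf z π) m y‖ with hX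
      set W := ‖umc ((L (t + 1)).r ^ (-(1/2) : ℝ)) (trc (z - w) ((L t).rest w)) m y‖ with hW
      set Z0 := ‖umc ((L (t + 1)).r ^ (-(1/2) : ℝ)) (trc z g) m y‖ with hZ0
      have hX2 : X ^ 2 ≤ Kp0 * (R ^ (1 - (Ma : ℝ)) * Enc g) := by
        calc X ^ 2 ≤ Kp0 * dl⁻¹ * (Enc g / 2 ^ nAR Ma R) := h5
          _ ≤ Kp0 * R * (R ^ (-(Ma : ℝ)) * Enc g) := by gcongr
          _ = _ := by
            rw [show (1 - (Ma : ℝ)) = 1 + -(Ma : ℝ) by ring, Real.rpow_add hR0, Real.rpow_one]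
            ring
      have hW2 : W ^ 2 ≤ Cn ^ 2 * (R ^ (2 - 2 * (K : ℝ)) * Enc g) := by
        calc W ^ 2 ≤ (Cn * (L t).nb * R ^ (-(K : ℝ)) * √(Enc g)) ^ 2 :=
              pow_le_pow_left₀ (norm_nonneg _) h2 2
          _ = Cn ^ 2 * ((L t).nb : ℝ) ^ 2 * (R ^ (-(K : ℝ))) ^ 2 * Enc g := by
              rw [mul_pow, mul_pow, mul_pow, Real.sq_sqrt hE]
          _ ≤ Cn ^ 2 * R ^ 2 * (R ^ (-(K : ℝ))) ^ 2 * Enc g := by gcongr
          _ = _ := by
              have e2 : R ^ (2 - 2 * (K : ℝ)) = R ^ 2 * (R ^ (-(K : ℝ))) ^ 2 := by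
                rw [show (2 - 2 * (K : ℝ)) = ((2 : ℕ) : ℝ) + (-(K : ℝ)) * ((2 : ℕ) : ℝ) by
                  push_cast; ring, Real.rpow_add hR0, Real.rpow_natCast, Real.rpow_mul hR0.le,
                  Real.rpow_natCast]
              rw [e2]; ring
      have hZ2 : Z0 ^ 2 ≤ 2 * (R ^ 2 * X ^ 2) + 2 * W ^ 2 := by
        have h9 : Z0 ≤ R * X + W := by
          refine h1.trans ?_
          gcongr
        have h10 : 0 ≤ Z0 := norm_nonneg _
        calc Z0 ^ 2 ≤ (R * X + W) ^ 2 := pow_le_pow_left₀ h10 h9 2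
          _ ≤ _ := by nlinarith [sq_nonneg (R * X - W)]
      have e3 : R ^ 2 * R ^ (1 - (Ma : ℝ)) = R ^ (-((Ma : ℝ) - 3)) := by
        rw [← Real.rpow_natCast R 2, ← Real.rpow_add hR0]
        congr 1
        push_cast; ring
      have e4 : R ^ (2 - 2 * (K : ℝ)) ≤ R ^ (-((Ma : ℝ) - 3)) :=
        Real.rpow_le_rpow_of_exponent_le hR (by linarith)
      rw [← ofReal_norm, ← ENNReal.ofReal_pow (norm_nonneg _)]
      refine ENNReal.ofReal_le_ofReal ?_
      calc Z0 ^ 2 ≤ 2 * (R ^ 2 * X ^ 2) + 2 * W ^ 2 := hZ2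
        _ ≤ 2 * (R ^ 2 * (Kp0 * (R ^ (1 - (Ma : ℝ)) * Enc g))) +
            2 * (Cn ^ 2 * (R ^ (-((Ma : ℝ) - 3)) * Enc g)) := by
            gcongr
            refine hW2.trans ?_
            gcongr
        _ = (2 * Kp0 + 2 * Cn ^ 2) * R ^ (-((Ma : ℝ) - 3)) * Enc g := by
            rw [← e3]; ring)
  refine hmain.trans (ENNReal.ofReal_le_ofReal ?_)
  have h1 : √((L (t + 1)).nb : ℝ) ≤ ν := by
    refine (Real.sqrt_le_sqrt (hT.le (t + 1) ht).2).trans ?_
    rw [Real.sqrt_le_left hν0]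
    nlinarith
  have h2 : 0 ≤ R ^ (-T) * SS g R D := mul_nonneg (Real.rpow_nonneg hR0.le _) hSS
  calc Ct * √((L (t + 1)).nb : ℝ) * (R ^ (-T) * SS g R D)
      ≤ max Ct A' * ν * (R ^ (-T) * SS g R D) := by
        gcongr
        exact le_max_left _ _
    _ = _ := by ring

end Crest.Agent.R116.Slb367
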