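import Crest.Agent.R116.SlbC4_367
import Crest.Agent.R116.SlbC5_367

/-!
# R116 (S0155), WAVE side (helper367): `STEP_C M q → SLAB M q`
-/

set_option autoImplicit false

open MeasureTheory FourierTransform
open scoped ENNReal

namespace Crest.Agent.R116.Slb367

open Crest.Agent.R138.Defs (E2 ee)
open Crest.Agent.R116.CDef480
open Crest.Agent.R116.WC188
open Crest.Agent.R116.PC299
open Crest.Agent.R116.GlC210 (Lev LevOk Next Aux Cls Tow AuxF trn Acl Rg Kp argc AuxOk Thin Wide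
  SLAB)

/-- **SLAB from STEP_C**. -/
theorem slab_of {M q : ℝ} (hM : 0 ≤ M) (hq : 0 ≤ q) (HS : STEP_C M q) : SLAB M q := by
  obtain ⟨Cw, hCw, HS⟩ := step_of hM hq HS
  refine ⟨Cw, hCw, fun n a b A ε M0 T hRg => ?_⟩
  obtain ⟨nw, Kν, Cc, e1, hCc, he1, HS⟩ := HS ε hRg.e0
  obtain ⟨K1, HS⟩ := HS a b M0 T hRg.a1 hRg.b0 hRg.b2
  set Ma : ℕ := ⌈16 + |M0| + 2 * |T| + q⌉₊ with hMa
  have hMa' : 16 + |M0| + 2 * |T| + q ≤ Ma := Nat.le_ceil _
  have hMa1 : 1 ≤ Ma := by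
    have h1 : (1:ℝ) ≤ Ma := by
      have := abs_nonneg M0
      have := abs_nonneg T
      linarith
    exact_mod_cast h1
  refine ⟨Kν + 1, naR Ma, AF Ma nw Cc e1, fun R dl x => pv (nAR Ma R) dl x,
    fun R c => ¬ Nt Ma R c, CP, by unfold CP; norm_num,
    auxok Ma nw hMa1 Cc e1 M q a b M0 (by linarith [hRg.a1]),
    fun R dl x hd hd1 => ⟨pv_ge hd hd1 x, pv_le dl x⟩, max K1 Ma, ?_⟩
  intro K hK A' Cn hA' hCn
  obtain ⟨C1, hC1, HS⟩ := HS K ((le_max_left _ _).trans hK) A' Cn hA' hCn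
  obtain ⟨C2, hC2, HT⟩ := tiny_of q a b A' Cn M0 T nw Ma hRg.a1 hRg.b2.le hq hA' hCn hMa'
  refine ⟨max C1 C2, hC1.trans (le_max_left _ _), ?_⟩
  intro κ η0 C0 σ g R D hS hKp hCR dl ν hdl hCdl hdlR hκ4 hν hνR L ac hT hAc hw
  have hR := hS.R1
  have hR0 : 0 < R := by linarith
  have hSS : 0 ≤ SS g R D := by
    unfold SS
    have := TuT890.Enc_nn g
    positivity
  have hν0 : 0 ≤ ν := by linarith
  have hRT : 0 ≤ R ^ (-T) * SS g R D := mul_nonneg (Real.rpow_nonneg hR0.le _) hSS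
  have h1dl : C1 * dl ≤ 1 := (mul_le_mul_of_nonneg_right (le_max_left _ _) hdl.le).trans hCdl
  have h2dl : C2 * dl ≤ 1 := (mul_le_mul_of_nonneg_right (le_max_right _ _) hdl.le).trans hCdl
  have hC0 : 0 ≤ max C1 C2 := by linarith [hC1.trans (le_max_left C1 C2)]
  constructor
  · intro t ht k hk htn
    refine (HT M κ A Cc e1 K η0 C0 σ g R D hRg.A1 hS hKp ((le_max_right _ _).trans hK) dl ν hdl h2dl
      hν hνR n L ac hT hAc t ht k hk (not_not.1 fun h => htn ?_)).trans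
      (ENNReal.ofReal_le_ofReal ?_)
    · exact not_not.1 h
    · have h1 : ν ≤ ν ^ (Kν + 1) := le_self_pow₀ hν (by omega)
      calc C2 * ν * R ^ (-T) * SS g R D = C2 * ν * (R ^ (-T) * SS g R D) := by ring
        _ ≤ max C1 C2 * ν ^ (Kν + 1) * (R ^ (-T) * SS g R D) := by
            have := le_max_right C1 C2
            gcongr
        _ = _ := by ring
  · intro t ht k hk hnt2 hnt1 δ hδ hδ4 h1 h2 h3 h4
    have hmain := HS Ma A κ η0 C0 σ g R D hRg.A1 hS hKp ((le_max_left _ _).trans hCR) dl ν hdl h1dl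
      hdlR hκ4 hν hνR n L ac hT hAc hw t ht k hk (not_not.1 hnt2) (not_not.1 hnt1) δ hδ hδ4 h1 h2
      h3 h4
    have h5 : ν ^ Kν ≤ ν ^ (Kν + 1) := pow_le_pow_right₀ hν (by omega)
    have h6 := le_max_left C1 C2
    have hdl0 : 0 ≤ dl ^ (-(Cw * δ)) := Real.rpow_nonneg hdl.le _
    have hp : 0 ≤ (pv (nAR Ma R) dl (ac (t + 1) ((L (t + 2)).par k)) /
        pv (nAR Ma R) dl (ac (t + 2) k)) ^ (1/2 : ℝ) + dl ^ (1/2 : ℝ) := by
      have hdl1 : dl ≤ 1 := by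
        have : 1 ≤ C1 := hC1
        nlinarith
      have a1 := pv_ge (nA := nAR Ma R) hdl hdl1 (ac (t + 1) ((L (t + 2)).par k))
      have a2 := pv_ge (nA := nAR Ma R) hdl hdl1 (ac (t + 2) k)
      positivity
    refine hmain.trans (add_le_add (mul_le_mul' (ENNReal.ofReal_le_ofReal ?_) le_rfl)
      (ENNReal.ofReal_le_ofReal ?_))
    · gcongr
    · gcongr

end Crest.Agent.R116.Slb367
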