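import Crest.Agent.R116.Sl2_850
import Crest.Agent.R116.CDef_480

/-!
# R116 (S0155), wave side, leaf SLI (helper850), part 1: eta-multipliers and packet energies.

`enc_mult`: if the packet energy of `g` on every `y`-translate of the selection `S` is at most `B`,
the packet energy of `φ(ζ₂/κ - l) g` on `S` is at most `C B`.
-/

set_option autoImplicit false

open MeasureTheory FourierTransform
open scoped ContDiff ENNReal

namespace Crest.Agent.R116.Sl850

open Crest.Agent.R138.Defs (E2 ee)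
open Crest.Agent.R138.Wpk685 (th win fat cen caps cap norm_ee ee_zero)
open Crest.Agent.R116.CDef480 (lat slp hc extc capc umc enc Enc trc)

theorem ex_zero (f : E3 → ℂ) (X : E3) : ex (fun _ => 0) f X 0 = 𝓕⁻ f X := by
  rw [Real.fourierInv_eq']
  unfold ex
  congr 1
  ext ζ
  rw [smul_eq_mul, mul_comm]
  unfold ee
  congr 2
  rw [real_inner_comm]
  push_cast
  ring

theorem ex_hc (g : E3 → ℂ) (X : E3) (s : ℝ) : ex hc g X s = extc g X s := rfl

/-- weighted bound at fixed time. -/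
theorem fix_set {φ : ℝ → ℂ} (h1 : HasCompactSupport φ) (h2 : ContDiff ℝ ∞ φ) {p : ℝ} (hp : 1 ≤ p)
    (N : ℕ) : ∃ C : ℝ, 0 ≤ C ∧ ∀ h : E3 → ℝ, Measurable h → ∀ g : E3 → ℂ, Integrable g →
      ∀ κ : ℝ, 0 < κ → ∀ (l s : ℝ) (S : Set E3), 
      ∫⁻ X in S, ‖ex h (mul2 φ κ l g) X s‖ₑ ^ p ≤
        ENNReal.ofReal C * ∫⁻ u, wN N u * ∫⁻ X in S, ‖ex h g (X + (u / κ) • ey) s‖ₑ ^ p := by
  obtain ⟨C, hC, H⟩ := point_p h1 h2 hp N
  refine ⟨C, hC, fun h hh g hg κ hκ l s S => ?_⟩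
  have hc : Continuous fun q : E3 × ℝ => ex h g (q.1 + (q.2 / κ) • ey) s :=
    ex_cont_comp hh hg (by fun_prop) continuous_const
  calc ∫⁻ X in S, ‖ex h (mul2 φ κ l g) X s‖ₑ ^ p
      ≤ ∫⁻ X in S, ENNReal.ofReal C * ∫⁻ u, wN N u * ‖ex h g (X + (u / κ) • ey) s‖ₑ ^ p := by
        refine lintegral_mono fun X => ?_
        have := H h hh g hg κ hκ l X s 0 (by rw [abs_zero]; positivity)
        rwa [zero_smul, add_zero] at this
    _ = ENNReal.ofReal C * ∫⁻ X in S, ∫⁻ u, wN N u * ‖ex h g (X + (u / κ) • ey) s‖ₑ ^ p :=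
        lintegral_const_mul' _ _ ENNReal.ofReal_ne_top
    _ = ENNReal.ofReal C * ∫⁻ u, ∫⁻ X in S, wN N u * ‖ex h g (X + (u / κ) • ey) s‖ₑ ^ p := by
        congr 1
        refine lintegral_lintegral_swap ?_
        refine Measurable.aemeasurable ?_
        exact ((wN_meas N).comp measurable_snd).mul (hc.measurable.enorm.pow_const _)
    _ = _ := by
        congr 1
        refine lintegral_congr fun u => ?_
        rw [lintegral_const_mul' _ _ (wN_ne_top N u)]

theorem mul2_mul (φ : ℝ → ℂ) (κ l : ℝ) (w g : E3 → ℂ) :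
    (fun ζ => w ζ * mul2 φ κ l g ζ) = mul2 φ κ l (fun ζ => w ζ * g ζ) := by
  ext ζ
  unfold mul2
  ring

/-- a bounded measurable function supported in a bounded set is integrable. -/
theorem int_of_bdd {g : E3 → ℂ} (hm : Measurable g) {L : ℝ} (hL : ∀ ζ, ‖g ζ‖ ≤ L) {r : ℝ}
    (hs : ∀ ζ, g ζ ≠ 0 → ‖ζ‖ ≤ r) : Integrable g := by
  have h1 : IntegrableOn g (Metric.closedBall 0 r) :=
    Measure.integrableOn_of_bounded (M := L)
      (measure_closedBall_lt_top).ne hm.aestronglyMeasurable (Filter.Eventually.of_forall hL)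
  refine (integrableOn_iff_integrable_of_support_subset fun ζ hζ => ?_).1 h1
  rw [mem_closedBall_zero_iff]
  exact hs ζ hζ

theorem measurable_capc (ρ : ℝ) (m : ℤ × ℤ) : Measurable (capc ρ m) := by
  unfold capc cap
  have h1 : Measurable fun ζ : E3 => ρ⁻¹ • (slp ζ - cen ρ m) := by
    have := Crest.Agent.R116.CDef480.measurable_slp
    fun_prop
  exact Crest.Agent.R138.Wpk685.win_contDiff.continuous.measurable.comp h1

theorem norm_capc_le (ρ : ℝ) (m : ℤ × ℤ) (ζ : E3) : ‖capc ρ m ζ‖ ≤ 1 :=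
  Crest.Agent.R138.Wpk685.norm_win_le _

theorem capc_mul_int (ρ : ℝ) (m : ℤ × ℤ) {g : E3 → ℂ} (hg : Integrable g) :
    Integrable fun ζ => capc ρ m ζ * g ζ :=
  hg.bdd_mul (c := 1) (measurable_capc ρ m).aestronglyMeasurable
    (Filter.Eventually.of_forall fun ζ => norm_capc_le ρ m ζ)

/-- **packet energies of eta-multipliers**. -/
theorem enc_mult {φ : ℝ → ℂ} (h1 : HasCompactSupport φ) (h2 : ContDiff ℝ ∞ φ) :
    ∃ C : ℝ, 1 ≤ C ∧ ∀ g : E3 → ℂ, Integrable g → ∀ κ : ℝ, 0 < κ → ∀ (l ρ : ℝ)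
      (S : ℤ × ℤ → Set E3), (∀ m, MeasurableSet (S m)) → ∀ B : ℝ≥0∞,
      (∀ a : ℝ, enc ρ g (fun m => (fun X => X - a • ey) ⁻¹' S m) ≤ B) →
      enc ρ (mul2 φ κ l g) S ≤ ENNReal.ofReal C * B := by
  obtain ⟨C, hC, H⟩ := fix_set h1 h2 (p := 2) (by norm_num) 2
  have hfin := (wN_int le_rfl).ne
  refine ⟨C * (∫⁻ u, wN 2 u).toReal + 1, by
    have : 0 ≤ C * (∫⁻ u, wN 2 u).toReal := by positivity
    linarith, fun g hg κ hκ l ρ S hS B hB => ?_⟩
  have e1 : ∀ m, ∫⁻ X in S m, ‖umc ρ (mul2 φ κ l g) m X‖ₑ ^ 2 ≤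
      ENNReal.ofReal C * ∫⁻ u, wN 2 u *
        ∫⁻ X in (fun X => X - (u / κ) • ey) ⁻¹' S m, ‖umc ρ g m X‖ₑ ^ 2 := by
    intro m
    have h3 := H (fun _ => 0) measurable_const _ (capc_mul_int ρ m hg) κ hκ l 0 (S m)
    rw [← mul2_mul] at h3
    simp only [ex_zero] at h3
    have e0 : ∀ x : ℝ≥0∞, x ^ (2:ℝ) = x ^ 2 := fun x => ENNReal.rpow_two x
    simp only [e0] at h3
    refine h3.trans_eq ?_
    congr 1
    refine lintegral_congr fun u => ?_
    congr 1
    have h4 : MeasurableSet ((fun X : E3 => X - (u / κ) • ey) ⁻¹' S m) :=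
      (measurable_id.sub_const _) (hS m)
    rw [← lintegral_indicator (hS m), ← lintegral_indicator h4,
      ← lintegral_add_right_eq_self (fun X => ((fun X : E3 => X - (u / κ) • ey) ⁻¹' S m).indicator
        (fun X => ‖umc ρ g m X‖ₑ ^ 2) X) ((u / κ) • ey)]
    refine lintegral_congr fun X => ?_
    by_cases hX : X ∈ S m
    · rw [Set.indicator_of_mem hX, Set.indicator_of_mem (by simpa using hX)]
      rfl
    · rw [Set.indicator_of_notMem hX, Set.indicator_of_notMem (by simpa using hX)]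
  have hcm : ∀ m, Measurable fun q : ℝ × E3 => ‖umc ρ g m q.2‖ₑ ^ 2 := by
    intro m
    have hc : Continuous fun X : E3 => ex (fun _ => 0) (fun ζ => capc ρ m ζ * g ζ) X 0 :=
      ex_cont_comp measurable_const (capc_mul_int ρ m hg) continuous_id continuous_const
    simp only [ex_zero] at hc
    exact (hc.measurable.comp measurable_snd).enorm.pow_const _
  have hmu : ∀ m, Measurable fun u : ℝ =>
      ∫⁻ X in (fun X => X - (u / κ) • ey) ⁻¹' S m, ‖umc ρ g m X‖ₑ ^ 2 := by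
    intro m
    have h5 : ∀ u : ℝ, ∫⁻ X in (fun X => X - (u / κ) • ey) ⁻¹' S m, ‖umc ρ g m X‖ₑ ^ 2 =
        ∫⁻ X, ((fun q : ℝ × E3 => q.2 - (q.1 / κ) • ey) ⁻¹' S m).indicator
          (fun q : ℝ × E3 => ‖umc ρ g m q.2‖ₑ ^ 2) (u, X) := by
      intro u
      have h4 : MeasurableSet ((fun X : E3 => X - (u / κ) • ey) ⁻¹' S m) :=
        (measurable_id.sub_const _) (hS m)
      rw [← lintegral_indicator h4]
      rfl
    simp_rw [h5]
    refine Measurable.lintegral_prod_right' ?_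
    refine (hcm m).indicator ?_
    exact (by fun_prop : Measurable fun q : ℝ × E3 => q.2 - (q.1 / κ) • ey) (hS m)
  calc enc ρ (mul2 φ κ l g) S
      ≤ ∑ m ∈ caps ρ, ENNReal.ofReal C * ∫⁻ u, wN 2 u *
        ∫⁻ X in (fun X => X - (u / κ) • ey) ⁻¹' S m, ‖umc ρ g m X‖ₑ ^ 2 :=
        Finset.sum_le_sum fun m _ => e1 m
    _ = ENNReal.ofReal C * ∫⁻ u, wN 2 u *
        enc ρ g (fun m => (fun X => X - (u / κ) • ey) ⁻¹' S m) := by
        rw [← Finset.mul_sum]
        congr 1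
        have h6 := lintegral_finsetSum (μ := (volume : Measure ℝ)) (caps ρ)
          (f := fun m u => wN 2 u *
            ∫⁻ X in (fun X => X - (u / κ) • ey) ⁻¹' S m, ‖umc ρ g m X‖ₑ ^ 2)
          fun m _ => (wN_meas 2).mul (hmu m)
        rw [← h6]
        refine lintegral_congr fun u => ?_
        rw [← Finset.mul_sum]
        rfl
    _ ≤ ENNReal.ofReal C * ∫⁻ u, wN 2 u * B := by
        gcongr with u
        exact hB _
    _ = ENNReal.ofReal (C * (∫⁻ u, wN 2 u).toReal) * B := by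
        rw [lintegral_mul_const _ (wN_meas 2), ENNReal.ofReal_mul hC, ENNReal.ofReal_toReal hfin,
          mul_assoc]
    _ ≤ _ := by
        gcongr
        linarith

end Crest.Agent.R116.Sl850
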