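import Crest.Agent.R116.Sli1_850
import Crest.Agent.R116.WDefC_188

/-!
# R116 (S0155), wave side, leaf SLI (helper850), part 2: thick members are covered by thin members,
translates of members, the sliced box bound.
-/

set_option autoImplicit false

open MeasureTheory FourierTransform
open scoped ContDiff ENNReal

namespace Crest.Agent.R116.Sl850

open Crest.Agent.R138.Defs (E2 ee)
open Crest.Agent.R138.Wpk685 (th win fat cen caps cap)
open Crest.Agent.R116.CDef480 (lat slp hc extc capc umc enc Enc trc nrm)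
open Crest.Agent.R116.LZg725 (Cf)
open Crest.Agent.R116.WC188

/-! ### abstract covering -/

theorem enc_mono (ρ : ℝ) (g : E3 → ℂ) {S T : ℤ × ℤ → Set E3} (h : ∀ m, S m ⊆ T m) :
    enc ρ g S ≤ enc ρ g T :=
  Finset.sum_le_sum fun m _ => lintegral_mono_set (h m)

theorem enc_cover (ρ : ℝ) (g : E3 → ℂ) {α : Type*} (J : Finset α) (P : ℤ × ℤ → Set E3)
    (Q : ℤ × ℤ → E3 → ℤ × ℤ → Set E3) (cl : ℤ × ℤ → E3 → α) (B : ℝ≥0∞)
    (hJ : ∀ m X, X ∈ P m → cl m X ∈ J)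
    (hQ : ∀ m X m' X', X ∈ P m → X' ∈ P m' → cl m X = cl m' X' → X ∈ Q m' X' m)
    (hB : ∀ m' X', X' ∈ P m' → enc ρ g (Q m' X') ≤ B) :
    enc ρ g P ≤ (J.card : ℝ≥0∞) * B := by
  have h1 : ∀ m, ∫⁻ X in P m, ‖umc ρ g m X‖ₑ ^ 2 ≤
      ∑ i ∈ J, ∫⁻ X in {X | X ∈ P m ∧ cl m X = i}, ‖umc ρ g m X‖ₑ ^ 2 := by
    intro m
    have h2 : P m ⊆ ⋃ i : J, {X | X ∈ P m ∧ cl m X = i} := by
      intro X hX
      rw [Set.mem_iUnion]
      exact ⟨⟨cl m X, hJ m X hX⟩, hX, rfl⟩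
    refine (lintegral_mono_set h2).trans ((lintegral_iUnion_le _ _).trans ?_)
    rw [tsum_fintype]
    exact (Finset.sum_coe_sort J fun i => ∫⁻ X in {X | X ∈ P m ∧ cl m X = i}, ‖umc ρ g m X‖ₑ ^ 2).le
  have h3 : ∀ i ∈ J, enc ρ g (fun m => {X | X ∈ P m ∧ cl m X = i}) ≤ B := by
    intro i _
    by_cases hi : ∃ m' X', X' ∈ P m' ∧ cl m' X' = i
    · obtain ⟨m', X', hX', hc⟩ := hi
      refine (enc_mono ρ g fun m X hX => ?_).trans (hB m' X' hX')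
      exact hQ m X m' X' hX.1 hX' (hX.2.trans hc.symm)
    · have h4 : ∀ m, {X | X ∈ P m ∧ cl m X = i} = ∅ := by
        intro m
        ext X
        simp only [Set.mem_ofPred_eq, Set.mem_empty_iff_false, iff_false]
        exact fun h => hi ⟨m, X, h⟩
      unfold enc
      simp only [h4]
      simp
  calc enc ρ g P ≤ ∑ m ∈ caps ρ, ∑ i ∈ J, ∫⁻ X in {X | X ∈ P m ∧ cl m X = i}, ‖umc ρ g m X‖ₑ ^ 2 :=
        Finset.sum_le_sum fun m _ => h1 m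
    _ = ∑ i ∈ J, enc ρ g (fun m => {X | X ∈ P m ∧ cl m X = i}) := Finset.sum_comm
    _ ≤ ∑ i ∈ J, B := Finset.sum_le_sum h3
    _ = _ := by rw [Finset.sum_const, nsmul_eq_mul]

/-! ### geometry of the cells -/

theorem floor_mem {x : ℝ} {K : ℤ} (h : |x| ≤ K) : ⌊x⌋ ∈ Finset.Icc (-K) K := by
  obtain ⟨h1, h2⟩ := abs_le.1 h
  rw [Finset.mem_Icc]
  constructor
  · rw [Int.le_floor]; push_cast; exact h1
  · have : (⌊x⌋ : ℝ) ≤ K := (Int.floor_le x).trans h2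
    exact_mod_cast this

theorem norm_le_of_coord {v : E2} {t : ℝ} (ht : 0 ≤ t) (h0 : |v 0| ≤ t / 4) (h1 : |v 1| ≤ t / 4) :
    ‖v‖ ≤ 3 / 8 * t := by
  have h2 := Crest.Agent.R116.CDef480.normsq2 v
  have h3 : v 0 ^ 2 ≤ (t / 4) ^ 2 := by rw [← sq_abs]; gcongr
  have h4 : v 1 ^ 2 ≤ (t / 4) ^ 2 := by rw [← sq_abs]; gcongr
  refine abs_le_of_sq_le_sq' ?_ (by positivity) |>.2
  nlinarith [sq_nonneg t]

theorem coord_le (v : E2) (i : Fin 2) : |v i| ≤ ‖v‖ := by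
  have := PiLp.norm_apply_le v i
  rwa [Real.norm_eq_abs] at this

/-- the class (cell) of a packet. -/
noncomputable def cell (ρ : ℝ) (c : E2) (X0 : E3) (s R : ℝ) (m : ℤ × ℤ) (X : E3) :
    (ℤ × ℤ) × (ℤ × ℤ) × ℤ :=
  ((⌊4 * (cen ρ m - c) 0 / s⌋, ⌊4 * (cen ρ m - c) 1 / s⌋),
    (⌊4 * (lat X - lat X0) 0 / (s * R)⌋, ⌊4 * (lat X - lat X0) 1 / (s * R)⌋),
    ⌊2 * (nrm c X 0 - nrm c X0 0) / (s ^ 2 * R)⌋)

/-- the set of cells. -/
@[irreducible] noncomputable def cells (K : ℤ) : Finset ((ℤ × ℤ) × (ℤ × ℤ) × ℤ) :=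
  (Finset.Icc (-4) 4 ×ˢ Finset.Icc (-4) 4) ×ˢ (Finset.Icc (-4) 4 ×ˢ Finset.Icc (-4) 4) ×ˢ
    Finset.Icc (-K) K

theorem card_cells {K : ℤ} (hK : 0 ≤ K) : ((cells K).card : ℝ) = 6561 * (2 * K + 1) := by
  unfold cells
  simp only [Finset.card_product, Int.card_Icc]
  have : (((K + 1 - -K).toNat : ℕ) : ℝ) = 2 * K + 1 := by
    have h : (((K + 1 - -K).toNat : ℕ) : ℤ) = 2 * K + 1 := by
      rw [Int.toNat_of_nonneg (by omega)]; ring
    calc (((K + 1 - -K).toNat : ℕ) : ℝ) = ((((K + 1 - -K).toNat : ℕ) : ℤ) : ℝ) :=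
          (Int.cast_natCast _).symm
      _ = ((2 * K + 1 : ℤ) : ℝ) := by rw [h]
      _ = 2 * K + 1 := by push_cast; ring
  push_cast
  rw [this]
  ring

theorem nrm_change (c C' : E2) (X X' : E3) :
    nrm C' X 0 - nrm C' X' 0 = (nrm c X 0 - nrm c X' 0) + inner ℝ (C' - c) (lat X - lat X') := by
  unfold nrm
  rw [inner_sub_left, inner_sub_right, inner_sub_right]
  ring

/-- points of the same cell. -/
theorem cell_eq {ρ : ℝ} {c : E2} {X0 : E3} {s R : ℝ} (hs : 0 < s) (hR : 0 < R) {m m' : ℤ × ℤ}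
    {X X' : E3} (h : cell ρ c X0 s R m X = cell ρ c X0 s R m' X') (hC : ‖cen ρ m' - c‖ ≤ s) :
    ‖cen ρ m - cen ρ m'‖ ≤ s ∧ ‖lat X - lat X'‖ ≤ s * R ∧
      |nrm (cen ρ m') X 0 - nrm (cen ρ m') X' 0| ≤ s ^ 2 * R := by
  unfold cell at h
  simp only [Prod.mk.injEq] at h
  obtain ⟨⟨h1, h2⟩, ⟨h3, h4⟩, h5⟩ := h
  have aux : ∀ {x y t : ℝ}, 0 < t → ⌊4 * x / t⌋ = ⌊4 * y / t⌋ → |x - y| ≤ t / 4 := by
    intro x y t ht hxy
    have h6 := (Int.abs_sub_lt_one_of_floor_eq_floor hxy).le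
    have e : 4 * x / t - 4 * y / t = (4 / t) * (x - y) := by ring
    rw [e, abs_mul, abs_of_pos (by positivity : (0:ℝ) < 4 / t)] at h6
    rw [← le_div_iff₀' (by positivity)] at h6
    refine h6.trans_eq ?_
    field_simp
  have hsR : 0 < s * R := mul_pos hs hR
  have k1 := aux hs h1
  have k2 := aux hs h2
  have k3 := aux hsR h3
  have k4 := aux hsR h4
  have k5 : |(nrm c X 0 - nrm c X0 0) - (nrm c X' 0 - nrm c X0 0)| ≤ s ^ 2 * R / 2 := by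
    have h6 := (Int.abs_sub_lt_one_of_floor_eq_floor h5).le
    have e : 2 * (nrm c X 0 - nrm c X0 0) / (s ^ 2 * R) - 2 * (nrm c X' 0 - nrm c X0 0) / (s ^ 2 * R) =
        (2 / (s ^ 2 * R)) * ((nrm c X 0 - nrm c X0 0) - (nrm c X' 0 - nrm c X0 0)) := by ring
    rw [e, abs_mul, abs_of_pos (by positivity : (0:ℝ) < 2 / (s ^ 2 * R))] at h6
    rw [← le_div_iff₀' (by positivity)] at h6
    refine h6.trans_eq ?_
    field_simp
  have l1 : ‖cen ρ m - cen ρ m'‖ ≤ 3 / 8 * s := by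
    refine norm_le_of_coord hs.le ?_ ?_
    · simpa [PiLp.sub_apply] using k1
    · simpa [PiLp.sub_apply] using k2
  have l2 : ‖lat X - lat X'‖ ≤ 3 / 8 * (s * R) := by
    refine norm_le_of_coord hsR.le ?_ ?_
    · simpa [PiLp.sub_apply] using k3
    · simpa [PiLp.sub_apply] using k4
  refine ⟨by linarith, by linarith, ?_⟩
  rw [nrm_change c]
  refine (abs_add_le _ _).trans ?_
  have l3 : |inner ℝ (cen ρ m' - c) (lat X - lat X')| ≤ s * (3 / 8 * (s * R)) :=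
    (abs_real_inner_le_norm _ _).trans (mul_le_mul hC l2 (norm_nonneg _) hs.le)
  have l4 : |nrm c X 0 - nrm c X' 0| ≤ s ^ 2 * R / 2 := by
    have : nrm c X 0 - nrm c X' 0 = (nrm c X 0 - nrm c X0 0) - (nrm c X' 0 - nrm c X0 0) := by ring
    rw [this]; exact k5
  nlinarith

/-- points of a thick member lie in the cells. -/
theorem cell_mem {ρ : ℝ} {c : E2} {X0 : E3} {s R T : ℝ} (hs : 0 < s) (hR : 0 < R) {m : ℤ × ℤ}
    {X : E3} {K : ℤ} (hK : 2 * T / s ^ 2 ≤ K) (h1 : ‖cen ρ m - c‖ ≤ s)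
    (h2 : ‖lat X - lat X0‖ ≤ s * R) (h3 : |nrm c X 0 - nrm c X0 0| ≤ T * R) :
    cell ρ c X0 s R m X ∈ cells K := by
  have hsR : 0 < s * R := mul_pos hs hR
  have aux : ∀ {x t : ℝ}, 0 < t → |x| ≤ t → ⌊4 * x / t⌋ ∈ Finset.Icc (-4 : ℤ) 4 := by
    intro x t ht hx
    refine floor_mem ?_
    rw [abs_div, abs_mul, abs_of_pos ht, abs_of_pos (by norm_num : (0:ℝ) < 4), div_le_iff₀ ht]
    push_cast
    linarith
  unfold cell cells
  simp only [Finset.mem_product]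
  refine ⟨⟨aux hs ((coord_le _ 0).trans h1), aux hs ((coord_le _ 1).trans h1)⟩,
    ⟨aux hsR ((coord_le _ 0).trans h2), aux hsR ((coord_le _ 1).trans h2)⟩, ?_⟩
  refine floor_mem ?_
  rw [abs_div, abs_mul, abs_of_pos (by norm_num : (0:ℝ) < 2),
    abs_of_pos (by positivity : (0:ℝ) < s ^ 2 * R)]
  calc 2 * |nrm c X 0 - nrm c X0 0| / (s ^ 2 * R) ≤ 2 * (T * R) / (s ^ 2 * R) := by gcongr
    _ = 2 * T / s ^ 2 := by field_simp
    _ ≤ K := hK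

end Crest.Agent.R116.Sl850
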