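import Crest.Agent.R116.Sli2_850

/-!
# R116 (S0155), wave side, leaf SLI (helper850), part 3: the sliced box bound.
-/

set_option autoImplicit false

open MeasureTheory FourierTransform
open scoped ContDiff ENNReal

namespace Crest.Agent.R116.Sl850

open Crest.Agent.R138.Defs (E2 ee)
open Crest.Agent.R138.Wpk685 (th win fat cen caps cap)
open Crest.Agent.R116.CDef480 (lat slp hc extc capc umc enc Enc trc nrm)
open Crest.Agent.R116.LZg725 (Cf)
open Crest.Agent.R116.WC188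

/-! ### thick members are covered by thin members -/

theorem sq_ge {s R : ℝ} (hR : 1 ≤ R) (hs : R ^ (-(1/2) : ℝ) ≤ s) : R⁻¹ ≤ s ^ 2 := by
  have h1 : (R ^ (-(1/2) : ℝ)) ^ 2 = R⁻¹ := by
    rw [← Real.rpow_natCast, ← Real.rpow_mul (by linarith)]
    norm_num
    rw [Real.rpow_neg_one]
  rw [← h1]
  gcongr

theorem TT_one {s R : ℝ} (hR : 1 ≤ R) (hs : R ^ (-(1/2) : ℝ) ≤ s) : TT 1 s R = s ^ 2 := by
  unfold TT
  rw [one_mul, max_eq_left (sq_ge hR hs)]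

theorem TT_le {κ s R : ℝ} (hκ : 0 < κ) (hκ1 : κ ≤ 1) (hR : 0 < R) : TT 1 s R ≤ TT κ s R := by
  unfold TT
  refine max_le_max le_rfl (inv_anti₀ (by positivity) ?_)
  gcongr

theorem TT_pos {κ s R : ℝ} (hs : 0 < s) : 0 < TT κ s R :=
  lt_of_lt_of_le (by positivity) (le_max_left _ _)

theorem mem_pbx {κ A r s1 s2 : ℝ} {c : E2} {X0 : E3} {f : Cf E2} {m : ℤ × ℤ} {X : E3} :
    X ∈ pbx κ A r s1 s2 c X0 f m ↔ ‖cen (r ^ (-(1/2) : ℝ)) m - c‖ ≤ A * s2 ∧
      ‖lat X - lat X0‖ ≤ A * s2 * r ∧ |nrm c X 0 - nrm c X0 0| ≤ A * TT κ s2 r * r ∧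
      |f.ev (lat X) (X 2) 0| ≤ A * s1 * r ∧
      |f.ld (cen (r ^ (-(1/2) : ℝ)) m) (lat X) (X 2) 0| ≤ A * s1 := Iff.rfl

/-- a packet of a thick member is the centre of an admissible thin member. -/
theorem adm_center {M κ s1 s2 R : ℝ} (hM : 1 ≤ M) (hR : 1 ≤ R) (hκ : 0 < κ) (hκ1 : κ ≤ 1)
    (hs : Sd R s1 s2) {c : E2} {X0 : E3} {f : Cf E2} (hA : Adm M κ s1 s2 (TT κ s2 R) R c X0 f)
    {m : ℤ × ℤ} {X : E3} (hX : X ∈ pbx κ 1 R s1 s2 c X0 f m) :
    Adm M 1 s1 s2 (TT 1 s2 R) R (cen (R ^ (-(1/2) : ℝ)) m) X f := by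
  have h0 : 0 < R ^ (-(1/2) : ℝ) := by positivity
  have hs1 : 0 < s1 := lt_of_lt_of_le h0 hs.lo
  have hs2 : 0 < s2 := lt_of_lt_of_le hs1 hs.le
  rw [mem_pbx] at hX
  obtain ⟨_, _, _, h4, h5⟩ := hX
  have hR0 : 0 < R := by linarith
  refine ⟨hA.disc, fun s hsR => (hA.ny s hsR).trans ?_, fun s hsR => (hA.cmp s hsR).trans ?_, ?_,
    ?_⟩
  · have := TT_le hκ hκ1 (s := s2) (R := R) (by linarith)
    have := TT_pos (κ := 1) (R := R) hs2
    gcongr
  · gcongr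
  · rw [one_mul] at h5
    refine h5.trans (hs.le.trans ?_)
    nlinarith
  · rw [one_mul] at h4
    refine h4.trans ?_
    have : s1 * R ≤ s2 * R := by gcongr; exact hs.le
    nlinarith [mul_pos hs2 (by linarith : (0:ℝ) < R)]

/-- **the thick box bound for `g`**. -/
theorem thick_bound {M q R D κ : ℝ} (hM : 1 ≤ M) (hR : 1 ≤ R) (hD : 0 ≤ D) (hκ : 0 < κ)
    (hκ1 : κ ≤ 1) {g : E3 → ℂ} (H : PBx M 1 q R g D) {c : E2} {X0 : E3} {f : Cf E2} {s1 s2 : ℝ}
    (hs : Sd R s1 s2) (hA : Adm M κ s1 s2 (TT κ s2 R) R c X0 f) :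
    enc (R ^ (-(1/2) : ℝ)) g (pbx κ 1 R s1 s2 c X0 f) ≤
      ENNReal.ofReal (45927 * (D * s2 ^ q * scost κ s1 s2 R)) := by
  have h0 : 0 < R ^ (-(1/2) : ℝ) := by positivity
  have hs1 : 0 < s1 := lt_of_lt_of_le h0 hs.lo
  have hs2 : 0 < s2 := lt_of_lt_of_le hs1 hs.le
  have hR0 : 0 < R := by linarith
  set ρ := R ^ (-(1/2) : ℝ) with hρ
  have hT1 : TT 1 s2 R = s2 ^ 2 := TT_one hR (hs.lo.trans hs.le)
  have hTT := TT_le hκ hκ1 (s := s2) hR0
  set T := TT κ s2 R with hT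
  rw [hT1] at hTT
  set K : ℤ := ⌈2 * T / s2 ^ 2⌉ with hK
  have hK1 : 2 * T / s2 ^ 2 ≤ K := Int.le_ceil _
  have hK2 : (K : ℝ) < 2 * T / s2 ^ 2 + 1 := Int.ceil_lt_add_one _
  have hTp : 0 < T := TT_pos hs2
  clear_value K
  have hx : 1 ≤ T / s2 ^ 2 := by rw [le_div_iff₀ (by positivity)]; linarith
  have hK0 : (0 : ℤ) ≤ K := by
    have : (0 : ℝ) ≤ K := le_trans (by positivity) hK1
    exact_mod_cast this
  have h1 := enc_cover ρ g (cells K) (pbx κ 1 R s1 s2 c X0 f)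
    (fun m' X' => pbx 1 1 R s1 s2 (cen ρ m') X' f) (cell ρ c X0 s2 R)
    (ENNReal.ofReal (D * s2 ^ q * scost 1 s1 s2 R)) ?_ ?_ ?_
  · refine h1.trans ?_
    have h2 : ((cells K).card : ℝ≥0∞) = ENNReal.ofReal ((cells K).card : ℝ) := by
      rw [ENNReal.ofReal_natCast]
    rw [h2, ← ENNReal.ofReal_mul (by positivity), card_cells hK0]
    refine ENNReal.ofReal_le_ofReal ?_
    have e1 : scost 1 s1 s2 R = s1 * s2 * s2 ^ 2 * R ^ 3 := by unfold scost; rw [hT1]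
    have e2 : scost κ s1 s2 R = s1 * s2 * T * R ^ 3 := rfl
    rw [e1, e2]
    have h3 : 2 * (K : ℝ) + 1 ≤ 7 * (T / s2 ^ 2) := by
      have : 2 * T / s2 ^ 2 = 2 * (T / s2 ^ 2) := by ring
      rw [this] at hK2
      linarith
    have hDq : 0 ≤ D * s2 ^ q := mul_nonneg hD (Real.rpow_nonneg hs2.le _)
    calc 6561 * (2 * (K : ℝ) + 1) * (D * s2 ^ q * (s1 * s2 * s2 ^ 2 * R ^ 3))
        ≤ 6561 * (7 * (T / s2 ^ 2)) * (D * s2 ^ q * (s1 * s2 * s2 ^ 2 * R ^ 3)) := by gcongr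
      _ = 45927 * (D * s2 ^ q * (s1 * s2 * T * R ^ 3)) := by
        field_simp
        ring
  · intro m X hX
    rw [mem_pbx] at hX
    have k1 := hX.1
    have k2 := hX.2.1
    have k3 := hX.2.2.1
    rw [one_mul] at k1 k2 k3
    rw [← hρ] at k1
    rw [← hT] at k3
    exact cell_mem hs2 hR0 hK1 k1 k2 k3
  · intro m X m' X' hX hX' hc
    rw [mem_pbx, ← hρ] at hX hX'
    have k1' := hX'.1
    rw [one_mul] at k1'
    obtain ⟨l1, l2, l3⟩ := cell_eq hs2 hR0 hc k1'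
    rw [mem_pbx, ← hρ, one_mul s2, one_mul (TT 1 s2 R), hT1]
    exact ⟨l1, l2, l3, hX.2.2.2.1, hX.2.2.2.2⟩
  · intro m' X' hX'
    exact H (cen ρ m') X' f s1 s2 hs (adm_center hM hR hκ hκ1 hs hA hX')

/-! ### translations in `y` -/

theorem lat_ey (X : E3) (a : ℝ) : lat (X + a • ey) = lat X := by
  unfold ey
  ext i
  fin_cases i <;> simp [lat]

theorem lat_ey' (X : E3) (a : ℝ) : lat (X - a • ey) = lat X := by
  rw [sub_eq_add_neg, ← neg_smul]
  exact lat_ey X _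

theorem two_ey (X : E3) (a : ℝ) : (X + a • ey) 2 = X 2 + a := by
  unfold ey
  simp

theorem two_ey' (X : E3) (a : ℝ) : (X - a • ey) 2 = X 2 - a := by
  unfold ey
  simp

theorem nrm_ey (c : E2) (X : E3) (a : ℝ) : nrm c (X + a • ey) 0 = nrm c X 0 + a := by
  unfold nrm
  rw [lat_ey, two_ey]
  ring

theorem nrm_ey' (c : E2) (X : E3) (a : ℝ) : nrm c (X - a • ey) 0 = nrm c X 0 - a := by
  unfold nrm
  rw [lat_ey', two_ey']
  ring

/-- the conformal function translated by `a` in `y`. -/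
noncomputable def shf (a : ℝ) (f : Cf E2) : Cf E2 := Cf.tr 0 (-a) 0 f

theorem ev_shf (a : ℝ) (f : Cf E2) (x : E2) (y s : ℝ) : (shf a f).ev x y s = f.ev x (y - a) s := by
  unfold shf
  rw [Cf.ev_tr, add_zero, add_zero, sub_eq_add_neg]

theorem ld_shf (a : ℝ) (f : Cf E2) (C x : E2) (y s : ℝ) :
    (shf a f).ld C x y s = f.ld C x (y - a) s := by
  unfold shf
  rw [Cf.ld_tr, add_zero, add_zero, sub_eq_add_neg]

theorem ny_shf (a : ℝ) (f : Cf E2) (s : ℝ) : (shf a f).ny s = f.ny s := by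
  unfold shf
  rw [Cf.ny_tr, add_zero]

theorem adm_shf {M κ s1 sg T R : ℝ} {c : E2} {X0 : E3} {f : Cf E2} (a : ℝ)
    (hA : Adm M κ s1 sg T R c X0 f) : Adm M κ s1 sg T R c (X0 + a • ey) (shf a f) := by
  refine ⟨?_, fun s hs => ?_, fun s hs => ?_, ?_, ?_⟩
  · unfold shf; rw [Cf.disc_tr]; exact hA.disc
  · rw [ny_shf]; exact hA.ny s hs
  · rw [ny_shf]; exact hA.cmp s hs
  · rw [ld_shf, lat_ey, two_ey, add_sub_cancel_right]; exact hA.ld
  · rw [ev_shf, lat_ey, two_ey, add_sub_cancel_right]; exact hA.ev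

theorem pbx_shf (κ A r s1 s2 : ℝ) (c : E2) (X0 : E3) (f : Cf E2) (m : ℤ × ℤ) (a : ℝ) :
    (fun X => X - a • ey) ⁻¹' pbx κ A r s1 s2 c X0 f m =
      pbx κ A r s1 s2 c (X0 + a • ey) (shf a f) m := by
  ext X
  unfold pbx mset
  simp only [Set.mem_preimage, Set.mem_ofPred_eq]
  rw [lat_ey', two_ey', nrm_ey', nrm_ey, lat_ey, ev_shf, ld_shf]
  have : nrm c X 0 - a - nrm c X0 0 = nrm c X 0 - (nrm c X0 0 + a) := by ring
  rw [this]

theorem measurable_lat' : Measurable lat := Crest.Agent.R116.CDef480.measurable_lat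

theorem measurable_nrm (c : E2) (s : ℝ) : Measurable fun X : E3 => nrm c X s := by
  unfold nrm
  have := measurable_lat'
  have h2 := Crest.Agent.R116.CDef480.measurable_coord 2
  fun_prop

theorem measurable_ev (f : Cf E2) (s : ℝ) : Measurable fun X : E3 => f.ev (lat X) (X 2) s := by
  unfold Cf.ev
  have := measurable_lat'
  have h2 := Crest.Agent.R116.CDef480.measurable_coord 2
  fun_prop

theorem measurable_ld (f : Cf E2) (C : E2) (s : ℝ) :
    Measurable fun X : E3 => f.ld C (lat X) (X 2) s := by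
  unfold Cf.ld
  have := measurable_lat'
  have h2 := Crest.Agent.R116.CDef480.measurable_coord 2
  fun_prop

theorem meas_pbx (κ A r s1 s2 : ℝ) (c : E2) (X0 : E3) (f : Cf E2) (m : ℤ × ℤ) :
    MeasurableSet (pbx κ A r s1 s2 c X0 f m) := by
  unfold pbx mset
  refine MeasurableSet.inter (MeasurableSet.const _) ?_
  refine MeasurableSet.inter ?_ (MeasurableSet.inter ?_ (MeasurableSet.inter ?_ ?_))
  · exact measurableSet_le (measurable_lat'.sub_const _).norm measurable_const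
  · exact measurableSet_le ((measurable_nrm _ _).sub_const _).abs measurable_const
  · exact measurableSet_le (measurable_ev _ _).abs measurable_const
  · exact measurableSet_le (measurable_ld _ _ _).abs measurable_const

/-- **the sliced box bound**. -/
theorem slice_box {φ : ℝ → ℂ} (h1 : HasCompactSupport φ) (h2 : ContDiff ℝ ∞ φ) :
    ∃ C : ℝ, 1 ≤ C ∧ ∀ M q R D κ l : ℝ, 1 ≤ M → 1 ≤ R → 0 ≤ D → 0 < κ → κ ≤ 1 →
      ∀ g : E3 → ℂ, Integrable g → PBx M 1 q R g D → PBx M κ q R (mul2 φ κ l g) (C * D) := by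
  obtain ⟨C, hC, H⟩ := enc_mult h1 h2
  refine ⟨C * 45927, by nlinarith, fun M q R D κ l hM hR hD hκ hκ1 g hg hb c X0 f s1 s2 hs hA => ?_⟩
  refine (H g hg κ hκ l _ _ (fun m => meas_pbx _ _ _ _ _ _ _ _ m)
    (ENNReal.ofReal (45927 * (D * s2 ^ q * scost κ s1 s2 R))) fun a => ?_).trans ?_
  · simp only [pbx_shf]
    exact thick_bound hM hR hD hκ hκ1 hb hs (adm_shf a hA)
  · rw [← ENNReal.ofReal_mul (by linarith)]
    refine le_of_eq ?_
    congr 1
    ring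

end Crest.Agent.R116.Sl850
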