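import Crest.Agent.R116.Sli3_850

/-!
# R116 (S0155), wave side, leaf SLI (helper850), part 4: the plate functional of a finite sum, and
the leaf `SLI M q 3`.
-/

set_option autoImplicit false

open MeasureTheory FourierTransform
open scoped ContDiff ENNReal

namespace Crest.Agent.R116.Sl850

open Crest.Agent.R138.Defs (E2 ee)
open Crest.Agent.R138.Wpk685 (th win fat cen caps cap norm_ee)
open Crest.Agent.R116.CDef480 (lat slp hc extc capc umc enc Enc trc nrm Slc cylc)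
open Crest.Agent.R116.LZg725 (Cf)
open Crest.Agent.R116.WC188

/-! ### translations and packets of sums -/

theorem trc_int (z : E3 × ℝ) {g : E3 → ℂ} (hg : Integrable g) : Integrable (trc z g) := by
  unfold trc
  refine hg.mul_bdd (c := 1) ?_ (Filter.Eventually.of_forall fun _ => (norm_ee _).le)
  have h1 := Crest.Agent.R116.CDef480.measurable_hc
  exact (Crest.Agent.R116.CDef480.continuous_ee'.measurable.comp
    (by fun_prop : Measurable fun ζ : E3 => inner ℝ z.1 ζ + z.2 * hc ζ)).aestronglyMeasurable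

theorem trc_sum {ι : Type*} (I : Finset ι) (z : E3 × ℝ) (G : ι → E3 → ℂ) :
    trc z (fun ζ => ∑ l ∈ I, G l ζ) = fun ζ => ∑ l ∈ I, trc z (G l) ζ := by
  ext ζ
  unfold trc
  rw [Finset.sum_mul]

theorem umc_cont (ρ : ℝ) {g : E3 → ℂ} (hg : Integrable g) (m : ℤ × ℤ) :
    Continuous (umc ρ g m) := by
  have hc : Continuous fun X : E3 => ex (fun _ => 0) (fun ζ => capc ρ m ζ * g ζ) X 0 :=
    ex_cont_comp measurable_const (capc_mul_int ρ m hg) continuous_id continuous_const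
  simp only [ex_zero] at hc
  exact hc

theorem umc_sum {ι : Type*} (I : Finset ι) (ρ : ℝ) {G : ι → E3 → ℂ}
    (hG : ∀ l ∈ I, Integrable (G l)) (m : ℤ × ℤ) (Y : E3) :
    umc ρ (fun ζ => ∑ l ∈ I, G l ζ) m Y = ∑ l ∈ I, umc ρ (G l) m Y := by
  have e1 : ∀ f : E3 → ℂ, umc ρ f m Y = ex (fun _ => 0) (fun ζ => capc ρ m ζ * f ζ) Y 0 :=
    fun f => (ex_zero _ _).symm
  simp only [e1]
  unfold ex
  rw [← integral_finsetSum]
  · congr 1
    ext ζ
    beta_reduce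
    rw [Finset.mul_sum, Finset.sum_mul]
  · intro l hl
    refine (capc_mul_int ρ m (hG l hl)).mul_bdd (c := 1) ?_
      (Filter.Eventually.of_forall fun _ => (norm_ee _).le)
    exact (Crest.Agent.R116.CDef480.continuous_ee'.measurable.comp
      (by fun_prop : Measurable fun ζ : E3 => inner ℝ Y ζ + 0 * (0 : ℝ))).aestronglyMeasurable

/-! ### measurability of the plate averages -/

theorem continuous_lat : Continuous lat := Crest.Agent.R116.CDef480.latL.continuous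

theorem continuous_nrm (C : E2) : Continuous fun p : E3 × ℝ => nrm C p.1 p.2 := by
  unfold nrm
  have := continuous_lat
  fun_prop

theorem meas_plt (w t : ℝ) (C : E2) :
    MeasurableSet {q : (E3 × ℝ) × E3 | q.2 ∈ plt w t C q.1.1 q.1.2} := by
  have h1 := continuous_lat
  have h2 : Continuous fun q : (E3 × ℝ) × E3 => nrm C q.2 0 :=
    (continuous_nrm C).comp (by fun_prop : Continuous fun q : (E3 × ℝ) × E3 => ((q.2, 0) : E3 × ℝ))
  have h3 : Continuous fun q : (E3 × ℝ) × E3 => nrm C q.1.1 q.1.2 :=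
    (continuous_nrm C).comp continuous_fst
  unfold plt
  refine MeasurableSet.inter ?_ ?_
  · exact measurableSet_le (f := fun q : (E3 × ℝ) × E3 => ‖lat q.2 - (lat q.1.1 + q.1.2 • C)‖)
      (by fun_prop) measurable_const
  · exact measurableSet_le (f := fun q : (E3 × ℝ) × E3 => |nrm C q.2 0 - nrm C q.1.1 q.1.2|)
      (h2.sub h3).abs.measurable measurable_const

theorem meas_apl (r : ℝ) {g : E3 → ℂ} (hg : Integrable g) : Measurable (apl r g) := by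
  unfold apl
  refine Measurable.const_mul ?_ _
  refine Finset.measurable_sum _ fun m _ => ?_
  have hm : MeasurableSet {q : (E3 × ℝ) × E3 |
      q.2 ∈ plt (r ^ (1/2 : ℝ)) 1 (cen (r ^ (-(1/2) : ℝ)) m) q.1.1 q.1.2} := meas_plt _ _ _
  have h5 : ∀ p : E3 × ℝ, ∫⁻ Y in plt (r ^ (1/2 : ℝ)) 1 (cen (r ^ (-(1/2) : ℝ)) m) p.1 p.2,
      ‖umc (r ^ (-(1/2) : ℝ)) g m Y‖ₑ ^ 2 = ∫⁻ Y, {q : (E3 × ℝ) × E3 |
      q.2 ∈ plt (r ^ (1/2 : ℝ)) 1 (cen (r ^ (-(1/2) : ℝ)) m) q.1.1 q.1.2}.indicator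
        (fun q => ‖umc (r ^ (-(1/2) : ℝ)) g m q.2‖ₑ ^ 2) (p, Y) := by
    intro p
    have hp : MeasurableSet (plt (r ^ (1/2 : ℝ)) 1 (cen (r ^ (-(1/2) : ℝ)) m) p.1 p.2) :=
      measurable_prodMk_left hm
    rw [← lintegral_indicator hp]
    rfl
  simp_rw [h5]
  refine Measurable.lintegral_prod_right' ?_
  refine Measurable.indicator ?_ hm
  exact ((umc_cont _ hg m).measurable.comp measurable_snd).enorm.pow_const _

/-! ### the plate functional of a finite sum -/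

theorem sq_sum_le {ι : Type*} (I : Finset ι) (a : ι → ℂ) :
    ‖∑ l ∈ I, a l‖ₑ ^ 2 ≤ (I.card : ℝ≥0∞) * ∑ l ∈ I, ‖a l‖ₑ ^ 2 := by
  have h1 := ENNReal.rpow_sum_le_const_mul_sum_rpow I (fun l => ‖a l‖ₑ) (p := 2) (by norm_num)
  have e : (2:ℝ) - 1 = 1 := by norm_num
  rw [e, ENNReal.rpow_one] at h1
  simp only [ENNReal.rpow_two] at h1
  refine le_trans ?_ h1
  gcongr
  exact enorm_sum_le _ _

theorem apl_sum {ι : Type*} (I : Finset ι) (r : ℝ) {G : ι → E3 → ℂ}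
    (hG : ∀ l ∈ I, Integrable (G l)) (p : E3 × ℝ) :
    apl r (fun ζ => ∑ l ∈ I, G l ζ) p ≤ (I.card : ℝ≥0∞) * ∑ l ∈ I, apl r (G l) p := by
  unfold apl
  have h1 : ∀ m, ∫⁻ Y in plt (r ^ (1/2 : ℝ)) 1 (cen (r ^ (-(1/2) : ℝ)) m) p.1 p.2,
      ‖umc (r ^ (-(1/2) : ℝ)) (fun ζ => ∑ l ∈ I, G l ζ) m Y‖ₑ ^ 2 ≤
      (I.card : ℝ≥0∞) * ∑ l ∈ I, ∫⁻ Y in plt (r ^ (1/2 : ℝ)) 1 (cen (r ^ (-(1/2) : ℝ)) m) p.1 p.2,
        ‖umc (r ^ (-(1/2) : ℝ)) (G l) m Y‖ₑ ^ 2 := by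
    intro m
    rw [← lintegral_finsetSum' _ fun l hl =>
      ((umc_cont _ (hG l hl) m).measurable.enorm.pow_const 2).aemeasurable,
      ← lintegral_const_mul' _ _ (ENNReal.natCast_ne_top _)]
    refine lintegral_mono fun Y => ?_
    rw [umc_sum I _ hG m Y]
    exact sq_sum_le I _
  calc ENNReal.ofReal r⁻¹ * ∑ m ∈ caps (r ^ (-(1/2) : ℝ)),
        ∫⁻ Y in plt (r ^ (1/2 : ℝ)) 1 (cen (r ^ (-(1/2) : ℝ)) m) p.1 p.2,
          ‖umc (r ^ (-(1/2) : ℝ)) (fun ζ => ∑ l ∈ I, G l ζ) m Y‖ₑ ^ 2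
      ≤ ENNReal.ofReal r⁻¹ * ∑ m ∈ caps (r ^ (-(1/2) : ℝ)), (I.card : ℝ≥0∞) * ∑ l ∈ I,
        ∫⁻ Y in plt (r ^ (1/2 : ℝ)) 1 (cen (r ^ (-(1/2) : ℝ)) m) p.1 p.2,
          ‖umc (r ^ (-(1/2) : ℝ)) (G l) m Y‖ₑ ^ 2 := by
        gcongr with m
        exact h1 m
    _ = _ := by
        rw [← Finset.mul_sum, Finset.sum_comm, mul_left_comm]
        congr 1
        rw [Finset.mul_sum]

theorem NP_sum {ι : Type*} (I : Finset ι) (A r : ℝ) {G : ι → E3 → ℂ}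
    (hG : ∀ l ∈ I, Integrable (G l)) (R : ℝ) :
    NP A r (fun ζ => ∑ l ∈ I, G l ζ) R ≤ (I.card : ℝ≥0∞) ^ 2 * ∑ l ∈ I, NP A r (G l) R := by
  unfold NP
  refine iSup_le fun Z => iSup_le fun hZ => ?_
  have h1 : ∀ z p, apl r (trc z (fun ζ => ∑ l ∈ I, G l ζ)) p ^ (3 / 2 : ℝ) ≤
      (I.card : ℝ≥0∞) ^ 2 * ∑ l ∈ I, apl r (trc z (G l)) p ^ (3 / 2 : ℝ) := by
    intro z p
    rw [trc_sum]
    have h2 := apl_sum I r (G := fun l => trc z (G l)) (fun l hl => trc_int z (hG l hl)) p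
    have h3 := ENNReal.rpow_sum_le_const_mul_sum_rpow I (fun l => apl r (trc z (G l)) p)
      (p := (3 / 2 : ℝ)) (by norm_num)
    calc apl r (fun ζ => ∑ l ∈ I, trc z (G l) ζ) p ^ (3 / 2 : ℝ)
        ≤ ((I.card : ℝ≥0∞) * ∑ l ∈ I, apl r (trc z (G l)) p) ^ (3 / 2 : ℝ) := by gcongr
      _ = (I.card : ℝ≥0∞) ^ (3 / 2 : ℝ) * (∑ l ∈ I, apl r (trc z (G l)) p) ^ (3 / 2 : ℝ) :=
          ENNReal.mul_rpow_of_nonneg _ _ (by norm_num)
      _ ≤ (I.card : ℝ≥0∞) ^ (3 / 2 : ℝ) * ((I.card : ℝ≥0∞) ^ ((3 / 2 : ℝ) - 1) *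
          ∑ l ∈ I, apl r (trc z (G l)) p ^ (3 / 2 : ℝ)) := by gcongr
      _ = _ := by
          rw [← mul_assoc, ← ENNReal.rpow_add_of_nonneg _ _ (by norm_num) (by norm_num)]
          norm_num
  calc ∑ z ∈ Z, ∫⁻ p in cylc (A * r), apl r (trc z (fun ζ => ∑ l ∈ I, G l ζ)) p ^ (3 / 2 : ℝ)
      ≤ ∑ z ∈ Z, ∫⁻ p in cylc (A * r), (I.card : ℝ≥0∞) ^ 2 *
          ∑ l ∈ I, apl r (trc z (G l)) p ^ (3 / 2 : ℝ) := by
        gcongr with z
        exact h1 _ _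
    _ = ∑ z ∈ Z, (I.card : ℝ≥0∞) ^ 2 *
          ∑ l ∈ I, ∫⁻ p in cylc (A * r), apl r (trc z (G l)) p ^ (3 / 2 : ℝ) := by
        refine Finset.sum_congr rfl fun z _ => ?_
        rw [lintegral_const_mul' _ _ (by finiteness), lintegral_finsetSum' _ fun l hl =>
          ((meas_apl r (trc_int z (hG l hl))).pow_const _).aemeasurable]
    _ = (I.card : ℝ≥0∞) ^ 2 *
          ∑ l ∈ I, ∑ z ∈ Z, ∫⁻ p in cylc (A * r), apl r (trc z (G l)) p ^ (3 / 2 : ℝ) := by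
        rw [← Finset.mul_sum, Finset.sum_comm]
    _ ≤ _ := by
        gcongr with l
        exact le_iSup₂ (f := fun (Z : Finset (E3 × ℝ)) (_ : Net r R Z) =>
          ∑ z ∈ Z, ∫⁻ p in cylc (A * r), apl r (trc z (G l)) p ^ (3 / 2 : ℝ)) Z hZ

/-! ### the slices -/

/-- the complex window. -/
noncomputable def thc (x : ℝ) : ℂ := (th x : ℂ)

theorem thc_contDiff : ContDiff ℝ ∞ thc :=
  Complex.ofRealCLM.contDiff.comp Crest.Agent.R138.Wpk685.th_contDiff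

theorem thc_compact : HasCompactSupport thc := by
  refine HasCompactSupport.of_support_subset_isCompact (isCompact_Icc (a := (-1:ℝ)) (b := 1)) ?_
  intro x hx
  by_contra h
  apply hx
  unfold thc
  rw [Crest.Agent.R138.Wpk685.th_zero, Complex.ofReal_zero]
  rw [Set.mem_Icc, not_and_or, not_le, not_le] at h
  rcases h with h | h
  · rw [abs_of_nonpos (by linarith)]; linarith
  · rw [abs_of_nonneg (by linarith)]; linarith

theorem norm_thc_le (x : ℝ) : ‖thc x‖ ≤ 1 := by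
  unfold thc
  rw [Complex.norm_real, Real.norm_eq_abs, abs_of_nonneg (Crest.Agent.R138.Wpk685.th_nonneg _)]
  exact Crest.Agent.R138.Wpk685.th_le_one _

theorem thc_ne {x : ℝ} (h : thc x ≠ 0) : |x| < 1 := by
  by_contra h1
  apply h
  unfold thc
  rw [Crest.Agent.R138.Wpk685.th_zero (not_lt.1 h1), Complex.ofReal_zero]

theorem slices_sum {κ a : ℝ} (hκ : 0 < κ) {g : E3 → ℂ}
    (hg : ∀ ζ, g ζ ≠ 0 → |ζ 2| ≤ a) {N : ℤ} (hN : a / κ ≤ N) :
    (fun ζ => ∑ l ∈ Finset.Icc (-N) N, mul2 thc κ l g ζ) = g := by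
  ext ζ
  by_cases h0 : g ζ = 0
  · unfold mul2
    simp [h0]
  have h1 : |ζ 2 / κ| ≤ N := by
    rw [abs_div, abs_of_pos hκ]
    refine le_trans ?_ hN
    gcongr
    exact hg ζ h0
  have h2 := Crest.Agent.R138.Wpk685.th_sum h1
  unfold mul2 thc
  rw [← Finset.sum_mul, ← Complex.ofReal_sum, h2, Complex.ofReal_one, one_mul]

theorem norm_mul2_le (κ l : ℝ) (g : E3 → ℂ) (ζ : E3) : ‖mul2 thc κ l g ζ‖ ≤ ‖g ζ‖ := by
  unfold mul2
  rw [norm_mul]
  exact mul_le_of_le_one_left (norm_nonneg _) (norm_thc_le _)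

theorem meas_mul2 {g : E3 → ℂ} (hg : Measurable g) (κ l : ℝ) : Measurable (mul2 thc κ l g) := by
  unfold mul2
  have h1 := thc_contDiff.continuous.measurable
  have h2 := Crest.Agent.R116.CDef480.measurable_coord 2
  exact (h1.comp (by fun_prop)).mul hg

/-- a state has integrable, square integrable data. -/
theorem St_bound {M κ q a b M0 σ R D : ℝ} {C0 : E2} {g : E3 → ℂ} (ha : 1 ≤ a) (hb : 0 < b)
    (h : St M κ q a b M0 C0 σ g R D) : ∀ ζ, g ζ ≠ 0 → ‖ζ‖ ≤ a * (b + 1) := by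
  intro ζ hζ
  obtain ⟨h1, h2, h3, _⟩ := h.supp ζ hζ
  have h0 : 0 < ζ 2 := lt_of_lt_of_le (by positivity) h1
  have h4 : lat ζ = ζ 2 • slp ζ := Crest.Agent.R116.CDef480.lat_slp h0.ne'
  have h5 : ‖lat ζ‖ ≤ a * b := by
    rw [h4, norm_smul, Real.norm_of_nonneg h0.le]
    gcongr
  have h6 := Crest.Agent.R116.CDef480.normsq3 ζ
  have h7 : ‖ζ‖ ^ 2 ≤ (a * (b + 1)) ^ 2 := by
    rw [h6]
    have h8 : ‖lat ζ‖ ^ 2 ≤ (a * b) ^ 2 := by gcongr
    have h9 : ζ 2 ^ 2 ≤ a ^ 2 := by gcongr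
    have h10 : 0 ≤ 2 * (a * b) * a := by positivity
    nlinarith
  exact (abs_le_of_sq_le_sq' h7 (by positivity)).2

theorem St_int {M κ q a b M0 σ R D : ℝ} {C0 : E2} {g : E3 → ℂ} (ha : 1 ≤ a) (hb : 0 < b)
    (h : St M κ q a b M0 C0 σ g R D) : Integrable g := by
  obtain ⟨L, hL⟩ := h.bdd
  exact int_of_bdd h.meas hL (St_bound ha hb h)

theorem St_int_sq {M κ q a b M0 σ R D : ℝ} {C0 : E2} {g : E3 → ℂ} (ha : 1 ≤ a) (hb : 0 < b)
    (h : St M κ q a b M0 C0 σ g R D) : Integrable fun ζ => ‖g ζ‖ ^ 2 := by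
  obtain ⟨L, hL⟩ := h.bdd
  have h1 := (St_int ha hb h).norm.mul_bdd (c := L) (f := fun ζ => ‖g ζ‖)
    h.meas.norm.aestronglyMeasurable (Filter.Eventually.of_forall fun ζ => by
      rw [norm_norm]; exact hL ζ)
  refine h1.congr (Filter.Eventually.of_forall fun ζ => ?_)
  simp only []
  ring

/-- the slices of a state are sliced states. -/
theorem slice_St : ∃ C : ℝ, 1 ≤ C ∧ ∀ (M q a b M0 σ R D κ : ℝ) (C0 : E2) (g : E3 → ℂ), 1 ≤ M →
    1 ≤ a → 0 < b → 0 < κ → κ ≤ 1 → St M 1 q a b M0 C0 σ g R D → ∀ l : ℝ,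
      Ss M κ q a b (M0 + 1) (κ * l) C0 σ (mul2 thc κ l g) R (C * D) := by
  obtain ⟨C, hC, H⟩ := slice_box thc_compact thc_contDiff
  refine ⟨C, hC, fun M q a b M0 σ R D κ C0 g hM ha hb hκ hκ1 h l => ?_⟩
  obtain ⟨L, hL⟩ := h.bdd
  have hne : ∀ ζ, mul2 thc κ l g ζ ≠ 0 → g ζ ≠ 0 := fun ζ h1 h2 => h1 (by unfold mul2; simp [h2])
  refine ⟨⟨meas_mul2 h.meas κ l, ⟨L, fun ζ => (norm_mul2_le κ l g ζ).trans (hL ζ)⟩,
    fun ζ hζ => h.supp ζ (hne ζ hζ), h.R1, mul_nonneg (by linarith) h.D0,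
    H M q R D κ l hM h.R1 h.D0 hκ hκ1 g (St_int ha hb h) h.box, ?_⟩, ?_⟩
  · have h1 : Enc (mul2 thc κ l g) ≤ Enc g := by
      unfold Enc
      refine integral_mono_of_nonneg (Filter.Eventually.of_forall fun ζ => by positivity)
        (St_int_sq ha hb h) (Filter.Eventually.of_forall fun ζ => ?_)
      exact pow_le_pow_left₀ (norm_nonneg _) (norm_mul2_le κ l g ζ) 2
    have hR1 := h.R1
    have h2 : R ^ M0 ≤ R ^ (M0 + 1) := Real.rpow_le_rpow_of_exponent_le h.R1 (by linarith)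
    have h3 : D ≤ C * D := le_mul_of_one_le_left h.D0 hC
    calc Enc (mul2 thc κ l g) ≤ R ^ M0 * D := h1.trans h.nd
      _ ≤ R ^ (M0 + 1) * (C * D) := by
        have := h.D0
        gcongr
  · intro ζ hζ
    have h1 : thc (ζ 2 / κ - l) ≠ 0 := fun h1 => hζ (by unfold mul2; simp [h1])
    have h2 := (thc_ne h1).le
    have e : ζ 2 - κ * l = κ * (ζ 2 / κ - l) := by field_simp
    rw [e, abs_mul, abs_of_pos hκ]
    exact mul_le_of_le_one_right hκ.le h2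

/-- **the leaf SLI**, price exponent `3`. -/
theorem sli {M : ℝ} (hM : 1 ≤ M) (q : ℝ) : SLI M q 3 := by
  obtain ⟨C1, hC1, H1⟩ := slice_St
  intro a b A M0 ha hb hb2 hA
  have hsq : 1 ≤ Real.sqrt C1 := by rw [Real.one_le_sqrt]; exact hC1
  refine ⟨125 * a ^ 3 * Real.sqrt C1, ?_, ?_⟩
  · have : 1 ≤ a ^ 3 := one_le_pow₀ ha
    nlinarith
  intro C0 σ g R D hst r κ hr hrR hκ hκa _ Q hQ H
  have hκ1 : κ ≤ 1 / 8 := by nlinarith
  set N : ℤ := ⌈a / κ⌉ with hN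
  have hN1 : a / κ ≤ N := Int.le_ceil _
  have hN2 : (N : ℝ) < a / κ + 1 := Int.ceil_lt_add_one _
  clear_value N
  have hak : 1 ≤ a / κ := by rw [le_div_iff₀ hκ]; linarith
  have hN0 : (0 : ℤ) ≤ N := by
    have : (0 : ℝ) ≤ N := by linarith
    exact_mod_cast this
  set I := Finset.Icc (-N) N with hI
  have hcard : (I.card : ℝ) = 2 * N + 1 := by
    have h : ((I.card : ℕ) : ℤ) = 2 * N + 1 := by
      rw [hI, Int.card_Icc, Int.toNat_of_nonneg (by omega)]; ring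
    calc ((I.card : ℕ) : ℝ) = (((I.card : ℕ) : ℤ) : ℝ) := (Int.cast_natCast _).symm
      _ = ((2 * N + 1 : ℤ) : ℝ) := by rw [h]
      _ = 2 * N + 1 := by push_cast; ring
  have hcard2 : (I.card : ℝ) ≤ 5 * a * κ⁻¹ := by
    rw [hcard, mul_assoc, ← div_eq_mul_inv]
    linarith
  have hg : (fun ζ => ∑ l ∈ I, mul2 thc κ (l : ℝ) g ζ) = g := by
    refine slices_sum hκ (a := a) (fun ζ hζ => ?_) hN1
    obtain ⟨h1, h2, _⟩ := hst.supp ζ hζ
    rw [abs_of_pos (lt_of_lt_of_le (by positivity) h1)]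
    exact h2
  have hs := fun l : ℝ => H1 M q a b M0 σ R D κ C0 g hM ha hb hκ (by linarith) hst l
  have hSS : 0 ≤ SS g R D := by
    unfold SS Enc
    have := hst.R1
    have : 0 ≤ ∫ ζ, ‖g ζ‖ ^ 2 := integral_nonneg fun _ => by positivity
    positivity
  have h2 : ∀ l : ℝ, NP A r (mul2 thc κ l g) R ≤ ENNReal.ofReal (Q * (Real.sqrt C1 * SS g R D)) := by
    intro l
    refine (H (κ * l) _ _ (hs l)).trans (ENNReal.ofReal_le_ofReal ?_)
    gcongr
    unfold SS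
    rw [Real.sqrt_mul (by linarith)]
    have h1 : Enc (mul2 thc κ l g) ≤ Enc g := by
      unfold Enc
      refine integral_mono_of_nonneg (Filter.Eventually.of_forall fun ζ => by positivity)
        (St_int_sq ha hb hst) (Filter.Eventually.of_forall fun ζ => ?_)
      exact pow_le_pow_left₀ (norm_nonneg _) (norm_mul2_le κ l g ζ) 2
    have hR1 := hst.R1
    calc R * Enc (mul2 thc κ l g) * (Real.sqrt C1 * Real.sqrt D)
        ≤ R * Enc g * (Real.sqrt C1 * Real.sqrt D) := by gcongr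
      _ = _ := by ring
  have h3 := NP_sum I A r (G := fun l : ℤ => mul2 thc κ (l : ℝ) g)
    (fun l _ => St_int ha hb (hs l).toSt) R
  rw [hg] at h3
  refine h3.trans ?_
  calc (I.card : ℝ≥0∞) ^ 2 * ∑ l ∈ I, NP A r (mul2 thc κ (l : ℝ) g) R
      ≤ (I.card : ℝ≥0∞) ^ 2 * ∑ _l ∈ I, ENNReal.ofReal (Q * (Real.sqrt C1 * SS g R D)) := by
        gcongr with l
        exact h2 l
    _ = ENNReal.ofReal ((I.card : ℝ) ^ 3 * (Q * (Real.sqrt C1 * SS g R D))) := by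
        rw [Finset.sum_const, nsmul_eq_mul, ENNReal.ofReal_mul (p := (I.card : ℝ) ^ 3) (by positivity),
          ENNReal.ofReal_pow (by positivity), ENNReal.ofReal_natCast]
        ring
    _ ≤ _ := by
        refine ENNReal.ofReal_le_ofReal ?_
        have e1 : κ ^ (-(3:ℝ)) = (κ⁻¹) ^ 3 := by
          rw [Real.rpow_neg hκ.le, inv_pow]
          norm_cast
        rw [e1]
        calc (I.card : ℝ) ^ 3 * (Q * (Real.sqrt C1 * SS g R D))
            ≤ (5 * a * κ⁻¹) ^ 3 * (Q * (Real.sqrt C1 * SS g R D)) := by gcongr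
          _ = _ := by ring

end Crest.Agent.R116.Sl850
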