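import Mathlib

/-!
# R116 (S0155), wave side, AL-CONE (helper339): SUPM-C, part 1

Child plates with a general kernel on a finite dimensional inner product space; one plate, one time.
-/

set_option autoImplicit false

open MeasureTheory
open scoped ENNReal

namespace Crest.Agent.R116.SmC339

variable {E : Type} [NormedAddCommGroup E] [InnerProductSpace ℝ E] [FiniteDimensional ℝ E]
  [MeasurableSpace E] [BorelSpace E]

/-- local energy of a selection at `(x, t)`, general kernel `k`, velocities `v`,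
energy densities `U`. -/
noncomputable def seK {M : Type} [Fintype M] (k : M → E → ℝ≥0∞) (v : M → E) (U : M → E → ℝ≥0∞)
    (S : M → Set E) (x : E) (t : ℝ) : ℝ≥0∞ :=
  ∑ m, ∫⁻ y in S m, k m (y - (x + t • v m)) * U m y

/-- energy of a selection. -/
noncomputable def enK {M : Type} [Fintype M] (U : M → E → ℝ≥0∞) (S : M → Set E) : ℝ≥0∞ :=
  ∑ m, ∫⁻ y in S m, U m y

theorem measurable_kU {k U : E → ℝ≥0∞} (hk : Measurable k) (hU : Measurable U) (u : E) :
    Measurable fun p : E × E => k (p.2 - (p.1 + u)) * U p.2 :=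
  (hk.comp (measurable_snd.sub (measurable_fst.add_const u))).mul (hU.comp measurable_snd)

theorem measurable_seK {M : Type} [Fintype M] {k : M → E → ℝ≥0∞} (v : M → E)
    {U : M → E → ℝ≥0∞} (S : M → Set E) (t : ℝ) (hk : ∀ m, Measurable (k m))
    (hU : ∀ m, Measurable (U m)) : Measurable fun x => seK k v U S x t := by
  unfold seK
  refine Finset.measurable_fun_sum _ fun m _ => ?_
  exact (measurable_kU (hk m) (hU m) (t • v m)).lintegral_prod_right'

theorem lint_refl (k : E → ℝ≥0∞) (c : E) : ∫⁻ x, k (c - x) = ∫⁻ x, k x :=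
  lintegral_sub_left_eq_self k c

/-- upper bound of the total local energy. -/
theorem int_seK_le {M : Type} [Fintype M] {k : M → E → ℝ≥0∞} {v : M → E} {U : M → E → ℝ≥0∞}
    {S : M → Set E} (hS : ∀ m, MeasurableSet (S m)) (hk : ∀ m, Measurable (k m))
    (hU : ∀ m, Measurable (U m)) {Q : ℝ≥0∞} (hQ : ∀ m, ∫⁻ u, k m u ≤ Q) (t : ℝ) :
    ∫⁻ x, seK k v U S x t ≤ Q * enK U S := by
  unfold seK enK
  rw [lintegral_finsetSum, Finset.mul_sum]
  · refine Finset.sum_le_sum fun m _ => ?_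
    rw [lintegral_lintegral_swap (measurable_kU (hk m) (hU m) (t • v m)).aemeasurable,
      ← lintegral_const_mul _ (hU m)]
    refine setLIntegral_mono' (hS m) fun y _ => ?_
    have hmx : Measurable fun x => k m (y - (x + t • v m)) :=
      (hk m).comp (measurable_const.sub (measurable_id.add_const _))
    rw [lintegral_mul_const _ hmx]
    refine mul_le_mul_left ?_ _
    refine le_trans (le_of_eq ?_) (hQ m)
    rw [← lint_refl (k m) (y - t • v m)]
    refine lintegral_congr fun x => ?_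
    rw [sub_add_eq_sub_sub_swap]
  · intro m _
    exact (measurable_kU (hk m) (hU m) (t • v m)).lintegral_prod_right'

/-- lower bound of the total local energy on a region which contains the transported cells. -/
theorem int_seK_ge {M : Type} [Fintype M] {k : M → E → ℝ≥0∞} {v : M → E} {U : M → E → ℝ≥0∞}
    {S : M → Set E} (hS : ∀ m, MeasurableSet (S m)) (hk : ∀ m, Measurable (k m))
    (hU : ∀ m, Measurable (U m)) {q : M → Set E} (hq : ∀ m, MeasurableSet (q m)) {c0 V : ℝ≥0∞}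
    (hqk : ∀ m, ∀ u ∈ q m, c0 ≤ k m u) (hqV : ∀ m, V ≤ volume (q m)) (t : ℝ) (R : Set E)
    (hR : ∀ m, ∀ y ∈ S m, ∀ u ∈ q m, y - t • v m - u ∈ R) :
    c0 * V * enK U S ≤ ∫⁻ x in R, seK k v U S x t := by
  unfold seK enK
  rw [lintegral_finsetSum, Finset.mul_sum]
  · refine Finset.sum_le_sum fun m _ => ?_
    rw [lintegral_lintegral_swap (measurable_kU (hk m) (hU m) (t • v m)).aemeasurable,
      ← lintegral_const_mul _ (hU m)]
    refine setLIntegral_mono' (hS m) fun y hy => ?_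
    have hmx : Measurable fun x => k m (y - (x + t • v m)) :=
      (hk m).comp (measurable_const.sub (measurable_id.add_const _))
    rw [lintegral_mul_const _ hmx]
    refine mul_le_mul_left ?_ _
    set D : Set E := (fun x => (y - t • v m) - x) ⁻¹' q m with hD
    have hDm : MeasurableSet D := (hq m).preimage (measurable_const.sub measurable_id)
    have hDR : D ⊆ R := by
      intro x hx
      have h1 := hR m y hy _ hx
      simpa using h1
    have hDV : volume D = volume (q m) := by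
      have h1 := Measure.measurePreserving_sub_left (volume : Measure E) (y - t • v m)
      exact h1.measure_preimage (hq m).nullMeasurableSet
    calc c0 * V ≤ c0 * volume D := by rw [hDV]; exact mul_le_mul' le_rfl (hqV m)
      _ = ∫⁻ _x in D, c0 := by rw [setLIntegral_const]
      _ ≤ ∫⁻ x in D, k m (y - (x + t • v m)) := by
          refine setLIntegral_mono' hDm fun x hx => ?_
          rw [sub_add_eq_sub_sub_swap]
          exact hqk m _ hx
      _ ≤ _ := lintegral_mono_set hDR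
  · intro m _
    exact (measurable_kU (hk m) (hU m) (t • v m)).lintegral_prod_right'

theorem rpow_three_half (x : ℝ≥0∞) : x ^ (3 / 2 : ℝ) = x * x ^ (1 / 2 : ℝ) := by
  rw [show (3 / 2 : ℝ) = 1 + 1 / 2 by norm_num,
    ENNReal.rpow_add_of_nonneg _ _ zero_le_one (by norm_num), ENNReal.rpow_one]

theorem ofReal_half {x : ℝ} (hx : 0 ≤ x) :
    ENNReal.ofReal x ^ (1 / 2 : ℝ) = ENNReal.ofReal (x ^ (1 / 2 : ℝ)) :=
  ENNReal.ofReal_rpow_of_nonneg hx (by norm_num)

/-- Hölder on a set. -/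
theorem holder_R {X : Type} [MeasurableSpace X] (μ : Measure X) (a : X → ℝ≥0∞)
    (ha : AEMeasurable a μ) :
    (∫⁻ x, a x ∂μ) ^ (3 / 2 : ℝ) ≤ μ Set.univ ^ (1 / 2 : ℝ) * ∫⁻ x, a x ^ (3 / 2 : ℝ) ∂μ := by
  have h := ENNReal.lintegral_mul_le_Lp_mul_Lq μ
    (p := 3 / 2) (q := 3) ⟨by norm_num, by norm_num, by norm_num⟩
    (f := a) (g := fun _ => 1) ha aemeasurable_const
  simp only [Pi.mul_apply, mul_one, ENNReal.one_rpow, lintegral_const, one_mul] at h
  calc (∫⁻ x, a x ∂μ) ^ (3 / 2 : ℝ)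
      ≤ ((∫⁻ x, a x ^ (3 / 2 : ℝ) ∂μ) ^ (1 / (3 / 2) : ℝ) * μ Set.univ ^ (1 / 3 : ℝ)) ^ (3 / 2 : ℝ) := by
        gcongr
    _ = _ := by
        rw [ENNReal.mul_rpow_of_nonneg _ _ (by norm_num), ← ENNReal.rpow_mul, ← ENNReal.rpow_mul]
        norm_num
        rw [mul_comm]

/-- **one plate at one time.** `Vq` = volume scale of the cell, `W` = volume scale of the plate
section, `Lam` = enlargement of the section by the cell. -/
theorem one_plate {M : Type} [Fintype M] {k : M → E → ℝ≥0∞} {v : M → E} {U : M → E → ℝ≥0∞}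
    {S : M → Set E} (hS : ∀ m, MeasurableSet (S m)) (hk : ∀ m, Measurable (k m))
    (hU : ∀ m, Measurable (U m)) {q : M → Set E} (hq : ∀ m, MeasurableSet (q m))
    {c0 Vq W Lam Mu τ : ℝ} (hc0 : 0 < c0) (hVq : 0 < Vq) (hW : 0 < W) (hLam : 0 < Lam)
    (hMu : 0 ≤ Mu) (hτ : 0 ≤ τ)
    (hqk : ∀ m, ∀ u ∈ q m, ENNReal.ofReal c0 ≤ k m u)
    (hqV : ∀ m, ENNReal.ofReal Vq ≤ volume (q m)) (t : ℝ) (R : Set E) (hRm : MeasurableSet R)
    (hR : ∀ m, ∀ y ∈ S m, ∀ u ∈ q m, y - t • v m - u ∈ R)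
    (hRV : volume R ≤ ENNReal.ofReal (Lam * W)) (G : E → ℝ≥0∞) (hG : Measurable G)
    (hH : ∀ x ∈ R, seK k v U S x t ≤
      ENNReal.ofReal Vq * (ENNReal.ofReal (Mu / Lam) * G x + ENNReal.ofReal τ)) :
    ENNReal.ofReal (W ^ (-(1/2) : ℝ)) * enK U S ^ (3 / 2 : ℝ) ≤
      ENNReal.ofReal (c0 ^ (-(3/2) : ℝ) * Vq⁻¹) *
        (ENNReal.ofReal (Mu ^ (1 / 2 : ℝ)) * (∫⁻ x in R, seK k v U S x t * G x ^ (1 / 2 : ℝ)) +
          ENNReal.ofReal ((Lam * τ) ^ (1 / 2 : ℝ)) * ∫⁻ x in R, seK k v U S x t) := by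
  set f : E → ℝ≥0∞ := fun x => seK k v U S x t with hf
  have hfm : Measurable f := measurable_seK v S t hk hU
  have h1 := int_seK_ge hS hk hU hq hqk hqV t R hR
  have h2 := holder_R (volume.restrict R) f hfm.aemeasurable
  rw [Measure.restrict_apply_univ] at h2
  set X := ENNReal.ofReal ((Mu / Lam) ^ (1 / 2 : ℝ)) * (∫⁻ x in R, f x * G x ^ (1 / 2 : ℝ)) +
    ENNReal.ofReal (τ ^ (1 / 2 : ℝ)) * ∫⁻ x in R, f x with hX
  have hML : 0 ≤ Mu / Lam := by positivity
  have h3 : ∫⁻ x in R, f x ^ (3 / 2 : ℝ) ≤ ENNReal.ofReal (Vq ^ (1 / 2 : ℝ)) * X := by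
    calc ∫⁻ x in R, f x ^ (3 / 2 : ℝ)
        ≤ ∫⁻ x in R, ENNReal.ofReal (Vq ^ (1 / 2 : ℝ)) *
            (ENNReal.ofReal ((Mu / Lam) ^ (1 / 2 : ℝ)) * (f x * G x ^ (1 / 2 : ℝ)) +
              ENNReal.ofReal (τ ^ (1 / 2 : ℝ)) * f x) := by
          refine setLIntegral_mono' hRm fun x hx => ?_
          rw [rpow_three_half]
          have h4 : f x ^ (1 / 2 : ℝ) ≤ ENNReal.ofReal (Vq ^ (1 / 2 : ℝ)) *
              (ENNReal.ofReal ((Mu / Lam) ^ (1 / 2 : ℝ)) * G x ^ (1 / 2 : ℝ) +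
                ENNReal.ofReal (τ ^ (1 / 2 : ℝ))) := by
            calc f x ^ (1 / 2 : ℝ)
                ≤ (ENNReal.ofReal Vq *
                    (ENNReal.ofReal (Mu / Lam) * G x + ENNReal.ofReal τ)) ^ (1 / 2 : ℝ) := by
                  gcongr
                  exact hH x hx
              _ = ENNReal.ofReal (Vq ^ (1 / 2 : ℝ)) *
                    (ENNReal.ofReal (Mu / Lam) * G x + ENNReal.ofReal τ) ^ (1 / 2 : ℝ) := by
                  rw [ENNReal.mul_rpow_of_nonneg _ _ (by norm_num), ofReal_half hVq.le]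
              _ ≤ ENNReal.ofReal (Vq ^ (1 / 2 : ℝ)) *
                    ((ENNReal.ofReal (Mu / Lam) * G x) ^ (1 / 2 : ℝ) +
                      (ENNReal.ofReal τ) ^ (1 / 2 : ℝ)) := by
                  gcongr
                  exact ENNReal.rpow_add_le_add_rpow _ _ (by norm_num) (by norm_num)
              _ = _ := by
                  rw [ENNReal.mul_rpow_of_nonneg _ _ (by norm_num), ofReal_half hML,
                    ofReal_half hτ]
          calc f x * f x ^ (1 / 2 : ℝ) ≤ f x * (ENNReal.ofReal (Vq ^ (1 / 2 : ℝ)) *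
              (ENNReal.ofReal ((Mu / Lam) ^ (1 / 2 : ℝ)) * G x ^ (1 / 2 : ℝ) +
                ENNReal.ofReal (τ ^ (1 / 2 : ℝ)))) := by gcongr
            _ = _ := by ring
      _ = _ := by
          rw [lintegral_const_mul' _ _ ENNReal.ofReal_ne_top, lintegral_add_left]
          · rw [lintegral_const_mul' _ _ ENNReal.ofReal_ne_top,
              lintegral_const_mul' _ _ ENNReal.ofReal_ne_top]
          · exact (hfm.mul (hG.pow_const _)).const_mul _
  have h5 : ENNReal.ofReal ((c0 * Vq) ^ (3 / 2 : ℝ)) * enK U S ^ (3 / 2 : ℝ) ≤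
      ENNReal.ofReal ((Lam * W) ^ (1 / 2 : ℝ) * Vq ^ (1 / 2 : ℝ)) * X := by
    calc ENNReal.ofReal ((c0 * Vq) ^ (3 / 2 : ℝ)) * enK U S ^ (3 / 2 : ℝ)
        = (ENNReal.ofReal c0 * ENNReal.ofReal Vq * enK U S) ^ (3 / 2 : ℝ) := by
          rw [ENNReal.mul_rpow_of_nonneg _ _ (by norm_num), ← ENNReal.ofReal_mul hc0.le,
            ENNReal.ofReal_rpow_of_nonneg (by positivity) (by norm_num)]
      _ ≤ (∫⁻ x in R, f x) ^ (3 / 2 : ℝ) := by gcongr
      _ ≤ _ := h2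
      _ ≤ ENNReal.ofReal (Lam * W) ^ (1 / 2 : ℝ) *
            (ENNReal.ofReal (Vq ^ (1 / 2 : ℝ)) * X) := by gcongr
      _ = _ := by
          rw [ofReal_half (by positivity), ← mul_assoc, ← ENNReal.ofReal_mul (by positivity)]
  have h6 : W ^ (-(1/2) : ℝ) * (c0 * Vq) ^ (-(3/2) : ℝ) * (c0 * Vq) ^ (3 / 2 : ℝ) =
      W ^ (-(1/2) : ℝ) := by
    rw [mul_assoc, ← Real.rpow_add (by positivity)]
    norm_num
  have h7 : W ^ (-(1/2) : ℝ) * (c0 * Vq) ^ (-(3/2) : ℝ) *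
      ((Lam * W) ^ (1 / 2 : ℝ) * Vq ^ (1 / 2 : ℝ)) =
      c0 ^ (-(3/2) : ℝ) * Vq⁻¹ * Lam ^ (1 / 2 : ℝ) := by
    have e1 : W ^ (-(1/2) : ℝ) * W ^ (1 / 2 : ℝ) = 1 := by
      rw [← Real.rpow_add hW]; norm_num
    have e2 : Vq ^ (-(3/2) : ℝ) * Vq ^ (1 / 2 : ℝ) = Vq⁻¹ := by
      rw [← Real.rpow_add hVq, ← Real.rpow_neg_one]; norm_num
    rw [Real.mul_rpow hc0.le hVq.le, Real.mul_rpow hLam.le hW.le]
    calc _ = c0 ^ (-(3/2) : ℝ) * (W ^ (-(1/2) : ℝ) * W ^ (1 / 2 : ℝ)) *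
          (Vq ^ (-(3/2) : ℝ) * Vq ^ (1 / 2 : ℝ)) * Lam ^ (1 / 2 : ℝ) := by ring
      _ = _ := by rw [e1, e2, mul_one]
  have h8 : Lam ^ (1 / 2 : ℝ) * (Mu / Lam) ^ (1 / 2 : ℝ) = Mu ^ (1 / 2 : ℝ) := by
    rw [← Real.mul_rpow hLam.le hML]
    congr 1
    field_simp
  have h9 : Lam ^ (1 / 2 : ℝ) * τ ^ (1 / 2 : ℝ) = (Lam * τ) ^ (1 / 2 : ℝ) := by
    rw [← Real.mul_rpow hLam.le hτ]
  calc ENNReal.ofReal (W ^ (-(1/2) : ℝ)) * enK U S ^ (3 / 2 : ℝ)
      = ENNReal.ofReal (W ^ (-(1/2) : ℝ) * (c0 * Vq) ^ (-(3/2) : ℝ)) *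
        (ENNReal.ofReal ((c0 * Vq) ^ (3 / 2 : ℝ)) * enK U S ^ (3 / 2 : ℝ)) := by
        rw [← mul_assoc, ← ENNReal.ofReal_mul (by positivity), h6]
    _ ≤ ENNReal.ofReal (W ^ (-(1/2) : ℝ) * (c0 * Vq) ^ (-(3/2) : ℝ)) *
        (ENNReal.ofReal ((Lam * W) ^ (1 / 2 : ℝ) * Vq ^ (1 / 2 : ℝ)) * X) := by gcongr
    _ = ENNReal.ofReal (c0 ^ (-(3/2) : ℝ) * Vq⁻¹) * (ENNReal.ofReal (Lam ^ (1 / 2 : ℝ)) * X) := by
        rw [← mul_assoc, ← ENNReal.ofReal_mul (by positivity), h7, ← mul_assoc,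
          ← ENNReal.ofReal_mul (by positivity)]
    _ = _ := by
        rw [hX, mul_add, ← mul_assoc, ← mul_assoc, ← ENNReal.ofReal_mul (by positivity),
          ← ENNReal.ofReal_mul (by positivity), h8, h9]

end Crest.Agent.R116.SmC339
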