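import Crest.Agent.R116.ShDefs_927
import Crest.Agent.R138.Fq3_665

/-!
R116, the front piece (S): `(C3w) ⇐ (GlobW)`.  Part 1: the partition of the shell.
-/

set_option autoImplicit false

open MeasureTheory Filter Topology
open scoped ENNReal FourierTransform ContDiff

noncomputable section

namespace Crest.Agent.R116.Sh927

/-- the radial cut-off is smooth. -/
theorem contDiff_rad {φ : ℝ → ℝ} (hφ : ContDiff ℝ ∞ φ) (lo : ∀ r, r < 1 / 2 → φ r = 0) :
    ContDiff ℝ ∞ (fun ξ : V => φ ‖ξ‖) := by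
  rw [contDiff_iff_contDiffAt]
  intro ξ
  by_cases h : ‖ξ‖ < 1 / 2
  · have h1 : (fun ξ : V => φ ‖ξ‖) =ᶠ[𝓝 ξ] fun _ => 0 := by
      have : ∀ᶠ η in 𝓝 ξ, ‖η‖ < 1 / 2 := continuous_norm.continuousAt.eventually_lt_const h
      filter_upwards [this] with η hη
      exact lo _ hη
    exact contDiffAt_const.congr_of_eventuallyEq h1
  · have h0 : ξ ≠ 0 := by
      rintro rfl
      exact h (by rw [norm_zero]; norm_num)
    exact hφ.contDiffAt.comp ξ (contDiffAt_norm ℝ h0)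

/-- the shell. -/
def shell : Set V := {ξ | 1 / 2 ≤ ‖ξ‖ ∧ ‖ξ‖ ≤ 2}

theorem isCompact_shell : IsCompact shell := by
  have : shell = Metric.closedBall (0 : V) 2 ∩ {ξ | 1 / 2 ≤ ‖ξ‖} := by
    ext ξ
    simp [shell, and_comm]
  rw [this]
  exact (isCompact_closedBall _ _).inter_right (isClosed_le continuous_const continuous_norm)

/-- finite decomposition of a radial cut-off in small pieces. -/
theorem exists_pieces {φ : ℝ → ℝ} (hφ : ContDiff ℝ ∞ φ) (lo : ∀ r, r < 1 / 2 → φ r = 0)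
    (hi : ∀ r, 2 < r → φ r = 0) {r : ℝ} (hr : 0 < r) :
    ∃ (s : Finset V) (b : V → V → ℂ), (∀ v ∈ s, 1 / 2 ≤ ‖v‖ ∧ ‖v‖ ≤ 2) ∧
      (∀ v, ContDiff ℝ ∞ (b v)) ∧ (∀ v ξ, b v ξ ≠ 0 → ‖ξ - v‖ ≤ r) ∧
      ∀ ξ, ((φ ‖ξ‖ : ℝ) : ℂ) = ∑ v ∈ s, b v ξ := by
  obtain ⟨t, hts, htf, htc⟩ := isCompact_shell.finite_cover_balls (e := r / 2) (by positivity)
  let f : (v : V) → ContDiffBump v := fun v => ⟨r / 2, r, by positivity, by linarith⟩
  let S : V → ℝ := fun ξ => ∑ v ∈ htf.toFinset, f v ξ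
  have hSc : ContDiff ℝ ∞ S := ContDiff.sum fun v _ => (f v).contDiff
  have hS1 : ∀ ξ ∈ shell, 1 ≤ S ξ := by
    intro ξ hξ
    obtain ⟨v, hv⟩ := Set.mem_iUnion.1 (htc hξ)
    obtain ⟨hvt, hvb⟩ := Set.mem_iUnion.1 hv
    have h1 : f v ξ = 1 := (f v).one_of_mem_closedBall (Metric.ball_subset_closedBall hvb)
    rw [← h1]
    exact Finset.single_le_sum (f := fun v => f v ξ) (fun v _ => (f v).nonneg)
      (htf.mem_toFinset.2 hvt)
  have hout : ∀ ξ, ξ ∉ shell → φ ‖ξ‖ = 0 := by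
    intro ξ hξ
    by_cases h : ‖ξ‖ < 1 / 2
    · exact lo _ h
    · exact hi _ (not_le.1 fun h2 => hξ ⟨not_lt.1 h, h2⟩)
  have hg := contDiff_rad hφ lo
  let b : V → V → ℝ := fun v ξ => φ ‖ξ‖ * f v ξ / S ξ
  have hbc : ∀ v, ContDiff ℝ ∞ (b v) := by
    intro v
    rw [contDiff_iff_contDiffAt]
    intro ξ
    by_cases h : ξ ∈ shell
    · exact (hg.contDiffAt.mul (f v).contDiff.contDiffAt).div hSc.contDiffAt
        (by have := hS1 ξ h; positivity)
    · have h1 : b v =ᶠ[𝓝 ξ] fun _ => 0 := by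
        have : ∀ᶠ η in 𝓝 ξ, η ∈ shellᶜ := isCompact_shell.isClosed.isOpen_compl.mem_nhds h
        filter_upwards [this] with η hη
        simp only [b, hout η hη, zero_mul, zero_div]
      exact contDiffAt_const.congr_of_eventuallyEq h1
  refine ⟨htf.toFinset, fun v ξ => (b v ξ : ℂ), fun v hv => hts (htf.mem_toFinset.1 hv),
    fun v => Complex.ofRealCLM.contDiff.comp (hbc v), fun v ξ h => ?_, fun ξ => ?_⟩
  · by_contra hlt
    apply h
    have h1 : f v ξ = 0 := (f v).zero_of_le_dist (by rw [dist_eq_norm]; exact (not_le.1 hlt).le)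
    simp [b, h1]
  · rw [← Complex.ofReal_sum]
    congr 1
    simp only [b]
    rw [← Finset.sum_div, ← Finset.mul_sum]
    by_cases h : ξ ∈ shell
    · have := hS1 ξ h
      rw [eq_div_iff (by positivity)]
    · rw [hout ξ h]; simp

end Crest.Agent.R116.Sh927
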