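import Crest.Agent.R116.Wk5_927

/-!
R116, outer shell (6): the space-time operator and the interpolated bound for `2 ≤ p < ∞` from
`(C3w)`.
-/

set_option autoImplicit false

open MeasureTheory FourierTransform LineDeriv Set Filter
open scoped ContDiff Real SchwartzMap ENNReal Convolution Topology

namespace Crest.Agent.R116.Sh927

open Crest.Agent.R138.Fr665 (cv)
open Crest.Agent.R138.Sh200

/-- the measure of the slab. -/
noncomputable def nu : Measure (V × ℝ) := (volume : Measure V).prod (volume.restrict (Icc (1:ℝ) 2))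

instance : SFinite nu := by unfold nu; infer_instance

/-- the auxiliary measure on the disjoint union. -/
noncomputable def mu : Measure (V ⊕ (V × ℝ)) :=
  (volume : Measure V).map Sum.inl + nu.map Sum.inr

instance : SFinite mu := by unfold mu; infer_instance

theorem me_inl : MeasurableEmbedding (Sum.inl : V → V ⊕ (V × ℝ)) :=
  ⟨Sum.inl_injective, measurable_inl, fun _ hs => measurableSet_inl_image.mpr hs⟩

theorem me_inr : MeasurableEmbedding (Sum.inr : V × ℝ → V ⊕ (V × ℝ)) :=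
  ⟨Sum.inr_injective, measurable_inr, fun _ hs => measurableSet_inr_image.mpr hs⟩

theorem lint_mu (F : V ⊕ (V × ℝ) → ℝ≥0∞) :
    ∫⁻ a, F a ∂mu = (∫⁻ x, F (Sum.inl x)) + ∫⁻ z, F (Sum.inr z) ∂nu := by
  unfold mu
  rw [lintegral_add_measure, me_inl.lintegral_map, me_inr.lintegral_map]

theorem vol_le_mu {Ω : Set (V ⊕ (V × ℝ))} (hΩ : MeasurableSet Ω) :
    volume (Sum.inl ⁻¹' Ω : Set V) ≤ mu Ω := by
  unfold mu
  rw [Measure.add_apply, Measure.map_apply measurable_inl hΩ]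
  exact le_self_add

/-- clipping to `[1,2]`. -/
noncomputable def cl (t : ℝ) : ℝ := max 1 (min t 2)

theorem cl_ge (t : ℝ) : 1 ≤ cl t := le_max_left _ _

theorem cl_le (t : ℝ) : cl t ≤ 2 := max_le (by norm_num) (min_le_right _ _)

theorem cl_eq {t : ℝ} (h : t ∈ Icc (1:ℝ) 2) : cl t = t := by
  unfold cl
  rw [min_eq_left h.2, max_eq_right h.1]

theorem continuous_cl : Continuous cl := by unfold cl; fun_prop

/-- the operator on the disjoint union. -/
noncomputable def TT (R : ℝ) (f : V ⊕ (V × ℝ) → ℂ) : V ⊕ (V × ℝ) → ℂ :=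
  Sum.elim (fun _ => 0) (fun z => cv (KW phi0 R (cl z.2)) (fun x => f (Sum.inl x)) z.1)

theorem bm_inl {f : V ⊕ (V × ℝ) → ℂ} (hf : BM f) : BM (fun x : V => f (Sum.inl x)) := by
  obtain ⟨C, hC⟩ := hf.bdd
  exact ⟨hf.meas.comp measurable_inl, C, fun x => hC _⟩

theorem measurable_conv_gen {G : V × ℝ → ℂ} (hG : Continuous G) {g : ℝ → ℝ} (hg : Continuous g)
    {f : V → ℂ} (hf : Measurable f) :
    Measurable fun z : V × ℝ => ∫ y, G (z.1 - y, g z.2) * f y := by
  have hc : Continuous fun p : (V × ℝ) × V => G (p.1.1 - p.2, g p.1.2) := by fun_prop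
  have h1 : StronglyMeasurable (fun p : (V × ℝ) × V => G (p.1.1 - p.2, g p.1.2) * f p.2) := by
    apply Measurable.stronglyMeasurable
    exact hc.measurable.mul (hf.comp measurable_snd)
  exact (StronglyMeasurable.integral_prod_right' h1).measurable

theorem measurable_stcv {R : ℝ} (hR : 0 < R) {g : ℝ → ℝ} (hg : Continuous g) {f : V → ℂ}
    (hf : Measurable f) :
    Measurable fun z : V × ℝ => cv (KW phi0 R (g z.2)) f z.1 :=
  measurable_conv_gen (G := fun z => KW phi0 R z.2 z.1) (continuous_KW hR) hg hf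

theorem measurable_TT {R : ℝ} (hR : 0 < R) {f : V ⊕ (V × ℝ) → ℂ} (hf : BM f) :
    Measurable (TT R f) := by
  unfold TT
  exact measurable_const.sumElim (measurable_stcv hR continuous_cl (bm_inl hf).meas)

/-- integral over the slab as an iterated integral. -/
theorem lint_nu {F : V × ℝ → ℝ≥0∞} (hF : Measurable F) :
    ∫⁻ z, F z ∂nu = ∫⁻ t in Icc (1:ℝ) 2, ∫⁻ x, F (x, t) := by
  unfold nu
  rw [lintegral_prod_symm' _ hF]

theorem lint_nu_le {F : V × ℝ → ℝ≥0∞} (hF : Measurable F) {B : ℝ≥0∞}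
    (h : ∀ t ∈ Icc (1:ℝ) 2, ∫⁻ x, F (x, t) ≤ B) : ∫⁻ z, F z ∂nu ≤ B := by
  rw [lint_nu hF]
  calc ∫⁻ t in Icc (1:ℝ) 2, ∫⁻ x, F (x, t) ≤ ∫⁻ _ in Icc (1:ℝ) 2, B :=
        setLIntegral_mono' measurableSet_Icc h
    _ = B := by
        rw [setLIntegral_const, Real.volume_Icc]
        norm_num

theorem strong2_TT {R : ℝ} (hR : 0 < R) : Strong mu (TT R) 2 1 := by
  intro f hf
  rw [lint_mu, lint_mu]
  have hb := bm_inl hf
  have h0 : ∫⁻ x : V, ENNReal.ofReal (‖TT R f (Sum.inl x)‖ ^ (2:ℝ)) = 0 := by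
    unfold TT
    simp
  rw [h0, zero_add, ENNReal.ofReal_one, one_mul]
  refine le_trans ?_ le_self_add
  have hmeas : Measurable fun z : V × ℝ => ENNReal.ofReal (‖TT R f (Sum.inr z)‖ ^ (2:ℝ)) :=
    (((measurable_TT hR hf).comp measurable_inr).norm.pow_const _).ennreal_ofReal
  refine lint_nu_le hmeas fun t ht => ?_
  have h1 := lint2_ker (m := mT hR (cl t)) one_pos (norm_mT_le hR (cl t)) hb
  rw [ker_mT] at h1
  simpa [TT] using h1

theorem op_TT (h3 : C3p phi0) : ∃ A : ℝ, 0 < A ∧ ∀ ε : ℝ, 0 < ε → ∃ B : ℝ, 0 < B ∧ ∀ R : ℝ, 1 ≤ R →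
    Op mu (TT R) (A * R) (B * R ^ ε) := by
  obtain ⟨A, hA, hKA⟩ := kernel_L1
  refine ⟨A, hA, fun ε hε => ?_⟩
  obtain ⟨B, hB⟩ := h3 ε hε
  refine ⟨max B 1, by positivity, fun R hR => ?_⟩
  have hR0 : 0 < R := by linarith
  have hKi : ∀ t, Integrable (KW phi0 R t) := fun t => by
    rw [← ker_mT hR0]; exact integrable_ker _
  have hKm : ∀ t, Measurable (KW phi0 R t) := fun t => by
    rw [← ker_mT hR0]; exact measurable_ker _
  refine ⟨?_, ?_, fun f hf => measurable_TT hR0 hf, ?_, ?_⟩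
  · intro f g hf hg x
    cases x with
    | inl x => simp [TT]
    | inr z => exact cv_add (hKi _) (bm_inl hf) (bm_inl hg) z.1
  · intro c f _ x
    cases x with
    | inl x => simp [TT]
    | inr z => exact cv_smul _ c (fun x => f (Sum.inl x)) z.1
  · intro f C _ hC x
    cases x with
    | inl x =>
      have hC0 : 0 ≤ C := (norm_nonneg _).trans (hC (Sum.inl x))
      simp only [TT, Sum.elim_inl, norm_zero]
      positivity
    | inr z =>
      exact norm_cv_le (hKm _) (hKA R (cl z.2) hR (by linarith [cl_ge z.2]) (cl_le _))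
        (by positivity) (fun x => hC (Sum.inl x)) z.1
  · intro Ω hΩ hfin f hf hle
    rw [lint_mu]
    have h0 : ∫⁻ x : V, ENNReal.ofReal (‖TT R f (Sum.inl x)‖ ^ (3:ℝ)) = 0 := by
      unfold TT
      simp
    rw [h0, zero_add]
    have hbm : BM f := ⟨hf, 1, fun x => (hle x).trans (by
      by_cases hx : x ∈ Ω
      · rw [indicator_of_mem hx]
      · rw [indicator_of_notMem hx]; norm_num)⟩
    have hmeas : Measurable fun z : V × ℝ => ENNReal.ofReal (‖TT R f (Sum.inr z)‖ ^ (3:ℝ)) :=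
      (((measurable_TT hR0 hbm).comp measurable_inr).norm.pow_const _).ennreal_ofReal
    rw [lint_nu hmeas]
    have hv := vol_le_mu hΩ
    have h1 := hB R hR (Sum.inl ⁻¹' Ω) (hΩ.preimage measurable_inl)
      (ne_top_of_le_ne_top hfin hv) (fun x => f (Sum.inl x)) (hf.comp measurable_inl)
      (fun x => by
        have := hle (Sum.inl x)
        exact this)
    have h2 : ∫⁻ t in Icc (1:ℝ) 2, ∫⁻ x, ENNReal.ofReal (‖TT R f (Sum.inr (x, t))‖ ^ (3:ℝ))
        = ∫⁻ t in Icc (1:ℝ) 2, ∫⁻ x, ENNReal.ofReal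
          (‖cv (KW phi0 R t) (fun x => f (Sum.inl x)) x‖ ^ (3:ℝ)) := by
      refine setLIntegral_congr_fun measurableSet_Icc fun t ht => ?_
      simp only [TT, Sum.elim_inr]
      rw [cl_eq ht]
    rw [h2]
    refine h1.trans ?_
    gcongr
    exact le_max_left _ _

/-- **interpolated bound**, `2 ≤ p < ∞`. -/
theorem family_st (h3 : C3p phi0) {p : ℝ} (hp : 2 ≤ p) {ε : ℝ} (hε : 0 < ε) :
    ∃ C : ℝ, 0 < C ∧ ∀ R : ℝ, 1 ≤ R → ∀ f : V → ℂ, BM f →
      ∫⁻ z, ENNReal.ofReal (‖cv (KW phi0 R z.2) f z.1‖ ^ p) ∂nu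
        ≤ ENNReal.ofReal (C * R ^ (max (p - 3) 0 + ε)) * ∫⁻ x, ENNReal.ofReal (‖f x‖ ^ p) := by
  obtain ⟨A, hA, hop⟩ := op_TT h3
  obtain ⟨C, hC, h⟩ := interp_family (μ := mu) TT (M := 1) (A := A) zero_le_one hA
    (fun R hR => strong2_TT (by linarith)) hop hp hε
  refine ⟨C, hC, fun R hR f hf => ?_⟩
  have hR0 : 0 < R := by linarith
  have hp0 : p ≠ 0 := by linarith
  set g : V ⊕ (V × ℝ) → ℂ := Sum.elim f (fun _ => 0) with hg
  have hgb : BM g := by
    obtain ⟨D, hD⟩ := hf.bdd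
    refine ⟨hf.meas.sumElim measurable_const, D, fun a => ?_⟩
    cases a with
    | inl x => exact hD x
    | inr z => simpa [hg] using (norm_nonneg _).trans (hD 0)
  have h1 := h R hR g hgb
  rw [lint_mu, lint_mu] at h1
  have e1 : ∫⁻ x : V, ENNReal.ofReal (‖TT R g (Sum.inl x)‖ ^ p) = 0 := by
    unfold TT
    simp [Real.zero_rpow hp0]
  have e2 : ∫⁻ z, ENNReal.ofReal (‖g (Sum.inr z)‖ ^ p) ∂nu = 0 := by
    simp [hg, Real.zero_rpow hp0]
  rw [e1, e2, zero_add, add_zero] at h1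
  have hmeas : Measurable fun z : V × ℝ => ENNReal.ofReal (‖TT R g (Sum.inr z)‖ ^ p) :=
    (((measurable_TT hR0 hgb).comp measurable_inr).norm.pow_const _).ennreal_ofReal
  have hmeas2 : Measurable fun z : V × ℝ => ENNReal.ofReal (‖cv (KW phi0 R z.2) f z.1‖ ^ p) :=
    ((measurable_stcv hR0 continuous_id hf.meas).norm.pow_const _).ennreal_ofReal
  refine le_trans (le_of_eq ?_) h1
  rw [lint_nu hmeas, lint_nu hmeas2]
  refine setLIntegral_congr_fun measurableSet_Icc fun t ht => ?_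
  simp only [TT, Sum.elim_inr, hg]
  rw [cl_eq ht]
  rfl

end Crest.Agent.R116.Sh927
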