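import Crest.Agent.R116.Sp1_927
import Crest.Agent.R116.Gw3_665
import Crest.Agent.R116.Wk6_927

/-!
R116, the front piece (S): `(C3w) ⇐ (GlobW)`.  Part 2: scaling and the end theorem.
-/

set_option autoImplicit false

open MeasureTheory Filter Topology
open scoped ENNReal FourierTransform ContDiff

noncomputable section

namespace Crest.Agent.R116.Sh927

open Crest.Agent.R138.Defs (E2 ee)
open Crest.Agent.R138.Fr665 (cv)
open Crest.Agent.R138.Fq665 (PR up exists_up_eq)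
open Crest.Agent.R116.EB665 (Kt GlobW norm_Kt_le continuous_Kt contDiff_ee norm_ee)

/-- dilation of a convolution. -/
theorem cv_dil (K f : V → ℂ) {L : ℝ} (hL : 0 < L) (x : V) :
    cv (fun v => ((L ^ 3 : ℝ) : ℂ) * K (L • v)) f x = cv K (fun y => f (L⁻¹ • y)) (L • x) := by
  unfold cv
  have h := Measure.integral_comp_smul_of_nonneg (volume : Measure V)
    (fun y : V => K (L • x - y) * f (L⁻¹ • y)) L (hR := hL.le)
  rw [finrank_euclideanSpace_fin] at h
  have h1 : ∫ y : V, K (L • x - y) * f (L⁻¹ • y) = (L ^ 3) • ∫ y : V, K (L • x - L • y) * f (L⁻¹ • L • y) := by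
    rw [h, smul_smul, mul_inv_cancel₀ (by positivity), one_smul]
  rw [h1, Complex.real_smul, ← integral_const_mul]
  refine integral_congr_ae (Eventually.of_forall fun y => ?_)
  simp only
  rw [smul_smul, inv_mul_cancel₀ hL.ne', one_smul, smul_sub, mul_assoc]

/-- dilation of a lower integral on `V`. -/
theorem lint_smul (F : V → ℝ≥0∞) {L : ℝ} (hL : 0 < L) :
    ∫⁻ x, F (L • x) = ENNReal.ofReal (L ^ 3)⁻¹ * ∫⁻ x, F x := by
  have h2 := Measure.map_addHaar_smul (volume : Measure V) hL.ne'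
  rw [finrank_euclideanSpace_fin, abs_of_pos (by positivity)] at h2
  have h3 : ∫⁻ x, F x ∂(Measure.map (L • · : V → V) volume) = ∫⁻ x : V, F (L • x) := by
    have := lintegral_map_equiv (μ := (volume : Measure V)) F
      (Homeomorph.smulOfNeZero L hL.ne').toMeasurableEquiv
    simpa using this
  rw [← h3, h2, lintegral_smul_measure, smul_eq_mul]

/-- dilation of a lower integral on `ℝ`. -/
theorem lint_mul (F : ℝ → ℝ≥0∞) {L : ℝ} (hL : 0 < L) :
    ∫⁻ t, F (L * t) = ENNReal.ofReal L⁻¹ * ∫⁻ t, F t := by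
  have h2 := Measure.map_addHaar_smul (volume : Measure ℝ) hL.ne'
  rw [Module.finrank_self, pow_one, abs_of_pos (by positivity)] at h2
  have h3 : ∫⁻ x, F x ∂(Measure.map (L • · : ℝ → ℝ) volume) = ∫⁻ x : ℝ, F (L • x) := by
    have := lintegral_map_equiv (μ := (volume : Measure ℝ)) F
      (Homeomorph.smulOfNeZero L hL.ne').toMeasurableEquiv
    simpa using this
  simp only [smul_eq_mul] at h3
  rw [← h3]
  simp only [smul_eq_mul] at h2
  rw [h2, lintegral_smul_measure, smul_eq_mul]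

/-- the window. -/
theorem lint_window (F : ℝ → ℝ≥0∞) {L : ℝ} (hL : 0 < L) :
    ∫⁻ t in Set.Icc (1 : ℝ) 2, F (L * t) ≤
      ENNReal.ofReal L⁻¹ * ∫⁻ s in Set.Icc (0 : ℝ) (2 * max L 1), F s := by
  rw [← lintegral_indicator measurableSet_Icc, ← lintegral_indicator measurableSet_Icc,
    ← lint_mul _ hL]
  refine lintegral_mono fun t => ?_
  by_cases ht : t ∈ Set.Icc (1 : ℝ) 2
  · rw [Set.indicator_of_mem ht, Set.indicator_of_mem]
    constructor
    · have := ht.1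
      positivity
    · have := ht.2
      have h2 := le_max_left L 1
      nlinarith
  · rw [Set.indicator_of_notMem ht]
    exact zero_le

/-- one piece after scaling. -/
theorem piece_le {a : V → ℂ} {L : ℝ} (hL : 0 < L) {B : ℝ≥0∞} {f : V → ℂ}
    (h : ∫⁻ s in Set.Icc (0 : ℝ) (2 * max L 1), ∫⁻ v, ‖cv (Kt a s) (fun y => f (L⁻¹ • y)) v‖ₑ ^ 3
      ≤ B) :
    ∫⁻ t in Set.Icc (1 : ℝ) 2, ∫⁻ x,
      ‖cv (fun v => ((L ^ 3 : ℝ) : ℂ) * Kt a (L * t) (L • v)) f x‖ₑ ^ 3 ≤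
        ENNReal.ofReal (L ^ 4)⁻¹ * B := by
  simp_rw [cv_dil _ _ hL]
  have h1 : ∀ t : ℝ, ∫⁻ x, ‖cv (Kt a (L * t)) (fun y => f (L⁻¹ • y)) (L • x)‖ₑ ^ 3 =
      ENNReal.ofReal (L ^ 3)⁻¹ * ∫⁻ v, ‖cv (Kt a (L * t)) (fun y => f (L⁻¹ • y)) v‖ₑ ^ 3 :=
    fun t => lint_smul (fun v => ‖cv (Kt a (L * t)) (fun y => f (L⁻¹ • y)) v‖ₑ ^ 3) hL
  simp_rw [h1]
  rw [lintegral_const_mul' _ _ ENNReal.ofReal_ne_top]
  have h2 := (lint_window (fun s => ∫⁻ v, ‖cv (Kt a s) (fun y => f (L⁻¹ • y)) v‖ₑ ^ 3) hL).trans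
    (mul_le_mul_right h _)
  refine (mul_le_mul_right h2 _).trans (le_of_eq ?_)
  rw [← mul_assoc, ← ENNReal.ofReal_mul (by positivity)]
  congr 2
  rw [← mul_inv]
  congr 1

/-- volume of a dilated set. -/
theorem vol_dil (Ω : Set V) {L : ℝ} (hL : 0 < L) :
    volume ((fun y : V => L⁻¹ • y) ⁻¹' Ω) = ENNReal.ofReal (L ^ 3) * volume Ω := by
  have := Measure.addHaar_preimage_smul (volume : Measure V) (inv_ne_zero hL.ne') Ω
  rw [finrank_euclideanSpace_fin] at this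
  rw [show (fun y : V => L⁻¹ • y) ⁻¹' Ω = (L⁻¹ • ·) ⁻¹' Ω from rfl, this]
  congr 2
  rw [inv_pow, inv_inv, abs_of_pos (by positivity)]

/-- the scaled kernel. -/
def Ks (a : V → ℂ) (L t : ℝ) (w : V) : ℂ := ((L ^ 3 : ℝ) : ℂ) * Kt a (L * t) (L • w)

theorem continuous_Ks {a : V → ℂ} (hac : Continuous a) (has : HasCompactSupport a) (L : ℝ) :
    Continuous (fun z : V × ℝ => Ks a L z.2 z.1) := by
  have h3 : Continuous (fun z : V × ℝ => ((L * z.2, L • z.1) : ℝ × V)) := by fun_prop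
  have h4 := (continuous_Kt hac has).comp h3
  unfold Ks
  exact continuous_const.mul h4

theorem continuous_Ks1 {a : V → ℂ} (hac : Continuous a) (has : HasCompactSupport a) (L t : ℝ) :
    Continuous (Ks a L t) := by
  have h3 : Continuous (fun w : V => ((w, t) : V × ℝ)) := by fun_prop
  have h4 := (continuous_Ks hac has L).comp h3
  simp only [Function.comp_def] at h4
  exact h4

theorem norm_Ks_le (a : V → ℂ) {L : ℝ} (hL : 0 < L) (t : ℝ) (w : V) :
    ‖Ks a L t w‖ ≤ L ^ 3 * ∫ ξ, ‖a ξ‖ := by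
  unfold Ks
  rw [norm_mul, Complex.norm_real, Real.norm_of_nonneg (by positivity)]
  gcongr
  exact norm_Kt_le _ _ _

theorem int_Ks {a : V → ℂ} (hac : Continuous a) (has : HasCompactSupport a) {L : ℝ} (hL : 0 < L)
    (t : ℝ) {f : V → ℂ} (hf : Integrable f) (x : V) :
    Integrable fun y => Ks a L t (x - y) * f y :=
  Crest.Agent.R138.Fq665.int_cv (continuous_Ks1 hac has L t).measurable
    (fun w => norm_Ks_le a hL t w) hf x

theorem meas_Ks {a : V → ℂ} (hac : Continuous a) (has : HasCompactSupport a) (L : ℝ)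
    {f : V → ℂ} (hf : Measurable f) :
    Measurable (fun z : V × ℝ => ‖cv (Ks a L z.2) f z.1‖ₑ ^ 3) := by
  have h1 := measurable_conv_gen (G := fun z : V × ℝ => Ks a L z.2 z.1) (continuous_Ks hac has L)
    (g := id) continuous_id hf
  exact h1.enorm.pow_const 3

theorem fourierInv_sum {ι : Type*} (s : Finset ι) {F : ι → V → ℂ}
    (hF : ∀ i ∈ s, Integrable (F i)) (x : V) :
    𝓕⁻ (fun ξ => ∑ i ∈ s, F i ξ) x = ∑ i ∈ s, 𝓕⁻ (F i) x := by
  simp only [Real.fourierInv_eq, Finset.smul_sum]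
  rw [integral_finsetSum]
  intro i hi
  have h3 : Continuous fun ξ : V => (Real.fourierChar (inner ℝ ξ x)) := by
    have := Real.continuous_fourierChar
    fun_prop
  refine (hF i hi).mono (h3.aestronglyMeasurable.smul (hF i hi).1) (Eventually.of_forall fun ξ => ?_)
  rw [Circle.norm_smul]

theorem cv_sum {ι : Type*} (s : Finset ι) {K : ι → V → ℂ} {f : V → ℂ} (x : V)
    (h : ∀ i ∈ s, Integrable fun y => K i (x - y) * f y) :
    cv (fun w => ∑ i ∈ s, K i w) f x = ∑ i ∈ s, cv (K i) f x := by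
  unfold cv
  rw [← integral_finsetSum _ h]
  refine integral_congr_ae (Eventually.of_forall fun y => ?_)
  simp only
  rw [Finset.sum_mul]

/-- the constants. -/
theorem const_le {C R L ε : ℝ} (hC : 0 ≤ C) (hR : 1 ≤ R) (hε : 0 < ε) (h1 : 2 / 3 * R ≤ L)
    (h2 : L ≤ 8 / 3 * R) :
    (L ^ 4)⁻¹ * (C * (max L 1) ^ (1 + ε) * L ^ 3) ≤ 3 / 2 * (8 / 3) ^ (1 + ε) * C * R ^ ε := by
  have hR0 : 0 < R := by linarith
  have hL : 0 < L := by linarith
  have h3 : max L 1 ≤ 8 / 3 * R := max_le h2 (by linarith)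
  have h4 : (max L 1) ^ (1 + ε) ≤ (8 / 3 * R) ^ (1 + ε) :=
    Real.rpow_le_rpow (le_max_of_le_left hL.le) h3 (by linarith)
  rw [Real.mul_rpow (by norm_num) hR0.le, Real.rpow_add hR0 1 ε, Real.rpow_one] at h4
  have h5 : (L ^ 4)⁻¹ * (C * (max L 1) ^ (1 + ε) * L ^ 3) = C * (max L 1) ^ (1 + ε) * L⁻¹ := by
    field_simp
  rw [h5]
  have h6 : L⁻¹ ≤ 3 / 2 * R⁻¹ := by
    calc L⁻¹ ≤ (2 / 3 * R)⁻¹ := inv_anti₀ (by positivity) h1
      _ = _ := by rw [mul_inv]; norm_num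
  have h7 : 0 ≤ (max L 1) ^ (1 + ε) := by positivity
  calc C * (max L 1) ^ (1 + ε) * L⁻¹ ≤ C * ((8 / 3) ^ (1 + ε) * (R * R ^ ε)) * (3 / 2 * R⁻¹) := by
        gcongr
    _ = 3 / 2 * (8 / 3) ^ (1 + ε) * C * R ^ ε * (R * R⁻¹) := by ring
    _ = _ := by rw [mul_inv_cancel₀ hR0.ne', mul_one]

/-- decomposition of the kernel. -/
theorem KW_eq {φ : ℝ → ℝ} {s : Finset V} {b : V → V → ℂ} {lam : V → ℝ}
    (hlam : ∀ v ∈ s, 0 < lam v) (hbc : ∀ v ∈ s, Continuous fun η => b v (lam v • η))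
    (hcs : ∀ v ∈ s, HasCompactSupport fun η => b v (lam v • η))
    (hsum : ∀ ξ, ((φ ‖ξ‖ : ℝ) : ℂ) = ∑ v ∈ s, b v ξ) {R : ℝ} (hR0 : 0 < R) (t : ℝ) (x : V) :
    KW φ R t x = ∑ v ∈ s, Ks (fun η => b v (lam v • η)) (R * lam v) t x := by
  have hLp : ∀ v ∈ s, 0 < R * lam v := fun v hv => mul_pos hR0 (hlam v hv)
  have e1 : mW φ R t = fun ξ => ∑ v ∈ s,
      (fun η => b v (lam v • η) * ee (R * lam v * t * ‖η‖)) ((R * lam v)⁻¹ • ξ) := by
    funext ξ
    have h1 : ((φ (‖ξ‖ / R) : ℝ) : ℂ) = ∑ v ∈ s, b v (R⁻¹ • ξ) := by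
      rw [← hsum, norm_smul, norm_inv, Real.norm_of_nonneg hR0.le, inv_mul_eq_div]
    unfold mW
    rw [h1, Finset.sum_mul]
    refine Finset.sum_congr rfl fun v hv => ?_
    have hl : 0 < lam v := hlam v hv
    have h2 : lam v • (R * lam v)⁻¹ • ξ = R⁻¹ • ξ := by
      rw [smul_smul]
      congr 1
      field_simp
    have h3 : R * lam v * t * ‖(R * lam v)⁻¹ • ξ‖ = t * ‖ξ‖ := by
      rw [norm_smul, norm_inv, Real.norm_of_nonneg (hLp v hv).le]
      field_simp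
    simp only
    rw [h2, h3]
    unfold ee
    congr 3
    push_cast
    ring
  have hi : ∀ v ∈ s, Integrable
      (fun ξ : V => (fun η => b v (lam v • η) * ee (R * lam v * t * ‖η‖)) ((R * lam v)⁻¹ • ξ)) := by
    intro v hv
    have h1 : Integrable (fun η : V => b v (lam v • η) * ee (R * lam v * t * ‖η‖)) := by
      apply Continuous.integrable_of_hasCompactSupport
      · exact (hbc v hv).mul
          (contDiff_ee.continuous.comp (continuous_const.mul continuous_norm))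
      · exact (hcs v hv).mul_right
    exact h1.comp_smul (inv_ne_zero (hLp v hv).ne')
  unfold KW
  rw [e1, fourierInv_sum s hi]
  exact Finset.sum_congr rfl fun v hv =>
    fourierInv_dil (fun η => b v (lam v • η) * ee (R * lam v * t * ‖η‖)) (hLp v hv) x

end Crest.Agent.R116.Sh927
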