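import Crest.Agent.R116.Sp2_927

/-!
R116, the front piece (S): `(C3w) ⇐ (GlobW)`.  Part 3: the end theorem `C3w_of_GlobW`.
-/

set_option autoImplicit false

open MeasureTheory Filter Topology
open scoped ENNReal FourierTransform ContDiff

noncomputable section

namespace Crest.Agent.R116.Sh927

open Crest.Agent.R138.Defs (E2 ee)
open Crest.Agent.R138.Fr665 (cv)
open Crest.Agent.R138.Fq665 (PR up exists_up_eq)
open Crest.Agent.R116.EB665 (Kt GlobW norm_Kt_le continuous_Kt contDiff_ee norm_ee)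

/-- the support of a normalised piece. -/
theorem supp_piece {ρ : ℝ} {v : V} (hv0 : 1 / 2 ≤ ‖v‖) {b : V → ℂ}
    (hb : ∀ ξ, b ξ ≠ 0 → ‖ξ - v‖ ≤ 2 / 3 * ρ) : ∃ J : PR ≃ₗᵢ[ℝ] V,
      ∀ w, b ((4 / 3 * ‖v‖) • w) ≠ 0 → ‖w - up J 0 (3 / 4)‖ ≤ ρ := by
  have hv : 0 < ‖v‖ := by linarith
  obtain ⟨J, hJ⟩ := exists_up_eq (‖v‖⁻¹ • v) (by
    rw [norm_smul, norm_inv, norm_norm, inv_mul_cancel₀ hv.ne'])
  have hJ34 : up J 0 (3 / 4) = (3 / 4 : ℝ) • (‖v‖⁻¹ • v) := by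
    have h0 : (WithLp.toLp 2 ((0 : E2), (3 / 4 : ℝ)) : PR) =
        (3 / 4 : ℝ) • WithLp.toLp 2 ((0 : E2), (1 : ℝ)) := by
      rw [← WithLp.toLp_smul]; simp
    rw [← hJ]
    unfold up
    rw [← map_smul, ← h0]
  refine ⟨J, fun w hw => ?_⟩
  have h1 := hb _ hw
  have hl : 0 < 4 / 3 * ‖v‖ := by positivity
  have h2 : w - up J 0 (3 / 4) = (4 / 3 * ‖v‖)⁻¹ • ((4 / 3 * ‖v‖) • w - v) := by
    rw [hJ34, smul_sub, smul_smul, smul_smul, inv_mul_cancel₀ hl.ne', one_smul]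
    congr 2
    rw [mul_inv]; norm_num
  rw [h2, norm_smul, norm_inv, Real.norm_of_nonneg hl.le]
  calc (4 / 3 * ‖v‖)⁻¹ * ‖(4 / 3 * ‖v‖) • w - v‖ ≤ (2 / 3)⁻¹ * (2 / 3 * ρ) := by
        gcongr
        linarith
    _ = ρ := by ring

/-- from `ofReal` of a real cube. -/
theorem cube_sum_le {ι : Type*} (s : Finset ι) (z : ι → ℂ) :
    ENNReal.ofReal (‖∑ i ∈ s, z i‖ ^ (3:ℝ)) ≤ (s.card : ℝ≥0∞) ^ 2 * ∑ i ∈ s, ‖z i‖ₑ ^ 3 := by
  have e1 : ENNReal.ofReal (‖∑ i ∈ s, z i‖ ^ (3:ℝ)) = ‖∑ i ∈ s, z i‖ₑ ^ 3 := by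
    rw [show (3:ℝ) = ((3:ℕ):ℝ) by norm_num, Real.rpow_natCast,
      ENNReal.ofReal_pow (norm_nonneg _), ofReal_norm]
  rw [e1]
  calc ‖∑ i ∈ s, z i‖ₑ ^ 3 ≤ (∑ i ∈ s, ‖z i‖ₑ) ^ 3 := by
        gcongr
        exact enorm_sum_le _ _
    _ ≤ _ := by
        have := ENNReal.rpow_sum_le_const_mul_sum_rpow s (fun i => ‖z i‖ₑ)
          (p := 3) (by norm_num)
        norm_num at this
        exact_mod_cast this

theorem meas_x {F : V × ℝ → ℝ≥0∞} (hF : Measurable F) (t : ℝ) :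
    Measurable (fun x : V => F (x, t)) := by
  have h3 : Measurable (fun w : V => ((w, t) : V × ℝ)) := by fun_prop
  exact hF.comp h3

theorem meas_t {F : V × ℝ → ℝ≥0∞} (hF : Measurable F) :
    Measurable (fun t : ℝ => ∫⁻ x : V, F (x, t)) := hF.lintegral_prod_left'

theorem lint_sum {ι : Type*} (s : Finset ι) {F : ι → V × ℝ → ℝ≥0∞} (hF : ∀ i ∈ s, Measurable (F i))
    {c : ℝ≥0∞} (hc : c ≠ ⊤) :
    ∫⁻ t in Set.Icc (1:ℝ) 2, ∫⁻ x : V, c * ∑ i ∈ s, F i (x, t) =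
      c * ∑ i ∈ s, ∫⁻ t in Set.Icc (1:ℝ) 2, ∫⁻ x : V, F i (x, t) := by
  have h1 : ∀ t : ℝ, ∫⁻ x : V, c * ∑ i ∈ s, F i (x, t) = c * ∑ i ∈ s, ∫⁻ x : V, F i (x, t) := by
    intro t
    rw [lintegral_const_mul' _ _ hc, lintegral_finsetSum s fun i hi => meas_x (hF i hi) t]
  simp_rw [h1]
  rw [lintegral_const_mul' _ _ hc, lintegral_finsetSum s fun i hi => meas_t (hF i hi)]

/-- the sum over the pieces. -/
theorem sum_le {ι : Type*} (s : Finset ι) {a : ι → V → ℂ} {L D : ι → ℝ}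
    (hac : ∀ i ∈ s, Continuous (a i)) (has : ∀ i ∈ s, HasCompactSupport (a i))
    (hL : ∀ i ∈ s, 0 < L i) (hD : ∀ i ∈ s, 0 ≤ D i)
    {f : V → ℂ} (hf : Measurable f) (hfi : Integrable f) {W : ℝ≥0∞}
    (h : ∀ i ∈ s, ∫⁻ t in Set.Icc (1 : ℝ) 2, ∫⁻ x, ‖cv (Ks (a i) (L i) t) f x‖ₑ ^ 3 ≤
      ENNReal.ofReal (D i) * W) :
    ∫⁻ t in Set.Icc (1:ℝ) 2, ∫⁻ x, ENNReal.ofReal
      (‖cv (fun w => ∑ i ∈ s, Ks (a i) (L i) t w) f x‖ ^ (3:ℝ)) ≤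
        ENNReal.ofReal ((s.card : ℝ) ^ 2 * ∑ i ∈ s, D i) * W := by
  have hmeas : ∀ i ∈ s, Measurable (fun z : V × ℝ => ‖cv (Ks (a i) (L i) z.2) f z.1‖ₑ ^ 3) :=
    fun i hi => meas_Ks (hac i hi) (has i hi) (L i) hf
  have h1 : ∀ t : ℝ, ∀ x : V, ENNReal.ofReal
      (‖cv (fun w => ∑ i ∈ s, Ks (a i) (L i) t w) f x‖ ^ (3:ℝ)) ≤
        (s.card : ℝ≥0∞) ^ 2 * ∑ i ∈ s, ‖cv (Ks (a i) (L i) t) f x‖ₑ ^ 3 := by
    intro t x
    rw [cv_sum s x fun i hi => int_Ks (hac i hi) (has i hi) (hL i hi) t hfi x]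
    exact cube_sum_le s _
  have h2 := lint_sum s hmeas (c := (s.card : ℝ≥0∞) ^ 2) (by simp)
  simp only at h2
  have h3 : ∫⁻ t in Set.Icc (1:ℝ) 2, ∫⁻ x, ENNReal.ofReal
        (‖cv (fun w => ∑ i ∈ s, Ks (a i) (L i) t w) f x‖ ^ (3:ℝ)) ≤
      ∫⁻ t in Set.Icc (1:ℝ) 2, ∫⁻ x,
          (s.card : ℝ≥0∞) ^ 2 * ∑ i ∈ s, ‖cv (Ks (a i) (L i) t) f x‖ₑ ^ 3 :=
    lintegral_mono fun t => lintegral_mono fun x => h1 t x
  refine h3.trans ?_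
  rw [h2]
  have h4 : (s.card : ℝ≥0∞) ^ 2 * ∑ i ∈ s,
      ∫⁻ t in Set.Icc (1:ℝ) 2, ∫⁻ x, ‖cv (Ks (a i) (L i) t) f x‖ₑ ^ 3 ≤
      (s.card : ℝ≥0∞) ^ 2 * ∑ i ∈ s, ENNReal.ofReal (D i) * W :=
    mul_le_mul_right (Finset.sum_le_sum h) _
  refine h4.trans (le_of_eq ?_)
  rw [← Finset.sum_mul, ← ENNReal.ofReal_sum_of_nonneg hD, ← mul_assoc]
  congr 1
  rw [show ((s.card : ℝ≥0∞)) = ENNReal.ofReal (s.card : ℝ) by simp,
    ← ENNReal.ofReal_pow (by positivity), ← ENNReal.ofReal_mul (by positivity)]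

/-- **(S)**: `C3p φ ⇐ GlobW`. -/
theorem C3p_of_GlobW (h : GlobW) {φ : ℝ → ℝ} (hφ : ContDiff ℝ ∞ φ)
    (lo : ∀ r, r < 1 / 2 → φ r = 0) (hi : ∀ r, 2 < r → φ r = 0) : C3p φ := by
  obtain ⟨ρ, hρ, hρ1, H⟩ := h
  obtain ⟨s, b, hs, hbc, hbs, hsum⟩ := exists_pieces hφ lo hi (r := 2 / 3 * ρ) (by positivity)
  intro ε hε
  set lam : V → ℝ := fun v => 4 / 3 * ‖v‖ with hlamdef
  have hlam : ∀ v ∈ s, 2 / 3 ≤ lam v ∧ lam v ≤ 8 / 3 := by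
    intro v hv
    have := hs v hv
    constructor <;> simp only [lam] <;> linarith [this.1, this.2]
  have hlp : ∀ v ∈ s, 0 < lam v := fun v hv => by linarith [(hlam v hv).1]
  have hac : ∀ v, ContDiff ℝ ∞ (fun η => b v (lam v • η)) :=
    fun v => (hbc v).comp (contDiff_const_smul (lam v))
  have key : ∀ v ∈ s, HasCompactSupport (fun η => b v (lam v • η)) ∧ ∃ C : ℝ, 0 ≤ C ∧
      ∀ R : ℝ, 1 ≤ R → ∀ Ω : Set V, MeasurableSet Ω → volume Ω ≠ ⊤ →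
      ∀ f : V → ℂ, Measurable f → (∀ v, ‖f v‖ ≤ Ω.indicator (fun _ => (1:ℝ)) v) →
        ∫⁻ t in Set.Icc (0 : ℝ) (2 * R), ∫⁻ w,
          ‖cv (Kt (fun η => b v (lam v • η)) t) f w‖ₑ ^ 3 ≤
          ENNReal.ofReal (C * R ^ (1 + ε)) * volume Ω := by
    intro v hv
    obtain ⟨J, hsupp⟩ := supp_piece (hs v hv).1 (hbs v)
    exact ⟨EB665.hcs_of_piece (EB665.piece_norm hρ1 hsupp), H J _ (hac v) hsupp ε hε⟩
  choose! hcs C hC0 hC using key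
  refine ⟨(s.card : ℝ) ^ 2 * ∑ v ∈ s, 3 / 2 * (8 / 3) ^ (1 + ε) * C v, ?_⟩
  intro R hR Ω hΩ hΩf f hf hfΩ
  have hR0 : 0 < R := by linarith
  have hfi : Integrable f := by
    have h1 : Integrable (Ω.indicator (fun _ => (1:ℝ))) :=
      (integrable_indicator_iff hΩ).2 (integrableOn_const hΩf)
    exact h1.mono' hf.aestronglyMeasurable (Eventually.of_forall hfΩ)
  have hL : ∀ v ∈ s, 2 / 3 * R ≤ R * lam v ∧ R * lam v ≤ 8 / 3 * R := by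
    intro v hv
    have := hlam v hv
    constructor <;> nlinarith [this.1, this.2]
  have hLp : ∀ v ∈ s, 0 < R * lam v := fun v hv => mul_pos hR0 (hlp v hv)
  have hpiece : ∀ v ∈ s, ∫⁻ t in Set.Icc (1 : ℝ) 2, ∫⁻ x,
      ‖cv (Ks (fun η => b v (lam v • η)) (R * lam v) t) f x‖ₑ ^ 3 ≤
      ENNReal.ofReal (3 / 2 * (8 / 3) ^ (1 + ε) * C v * R ^ ε) * volume Ω := by
    intro v hv
    have hLv := hLp v hv
    have h1 := hC v hv (max (R * lam v) 1) (le_max_right _ _)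
      ((fun y : V => (R * lam v)⁻¹ • y) ⁻¹' Ω)
      (hΩ.preimage (by fun_prop)) (by
        rw [vol_dil _ hLv]
        exact ENNReal.mul_ne_top ENNReal.ofReal_ne_top hΩf)
      (fun y => f ((R * lam v)⁻¹ • y)) (hf.comp (by fun_prop)) (fun y => hfΩ _)
    have h2 := piece_le hLv h1
    refine h2.trans ?_
    rw [vol_dil _ hLv, ← mul_assoc, ← mul_assoc]
    refine mul_le_mul_left ?_ _
    have := hC0 v hv
    rw [← ENNReal.ofReal_mul (by positivity), ← ENNReal.ofReal_mul (by positivity)]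
    apply ENNReal.ofReal_le_ofReal
    rw [mul_assoc]
    exact const_le (hC0 v hv) hR hε (hL v hv).1 (hL v hv).2
  have hKW : ∀ t, KW φ R t = fun w => ∑ v ∈ s, Ks (fun η => b v (lam v • η)) (R * lam v) t w :=
    fun t => funext fun x => KW_eq hlp (fun v _ => (hac v).continuous) hcs hsum hR0 t x
  simp only [hKW]
  refine (sum_le s (fun v _ => (hac v).continuous) hcs hLp (fun v hv => ?_) hf hfi hpiece).trans
    (le_of_eq ?_)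
  · have := hC0 v hv
    positivity
  · congr 2
    rw [← Finset.sum_mul]
    ring

/-- **(S)**: `C3w ⇐ GlobW`. -/
theorem C3w_of_GlobW (h : GlobW) : C3w := fun _ hφ lo hi => C3p_of_GlobW h hφ lo hi

end Crest.Agent.R116.Sh927
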