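import Crest.Agent.R116.Sp4_927
import Crest.Agent.R116.Hx8_665

/-!
R116: the literal of `S0155` from `∃ M, WC188.EBc M`.
-/

set_option autoImplicit false

open MeasureTheory FourierTransform
open scoped SchwartzMap ENNReal

namespace Crest.Agent.R116.Sh927

/-- `S0155` from `EBc`. -/
theorem S0155_of_EBc {M : ℝ} (h : WC188.EBc M) (p : ℝ) (hp : 2 < p) (α : ℝ)
    (hα : max 0 (1 - 3 / p) < α) :
    ∃ C : ℝ, ∀ f : SchwartzMap (EuclideanSpace ℝ (Fin 3)) ℂ,
      MeasureTheory.eLpNorm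
          (fun z : (EuclideanSpace ℝ (Fin 3)) × ℝ =>
            𝓕⁻ (fun ξ : EuclideanSpace ℝ (Fin 3) =>
              Complex.exp (2 * Real.pi * z.2 * ‖ξ‖ * Complex.I) • 𝓕 (⇑f) ξ) z.1)
          (ENNReal.ofReal p)
          ((MeasureTheory.volume : MeasureTheory.Measure (EuclideanSpace ℝ (Fin 3))).prod
            (MeasureTheory.volume.restrict (Set.Icc (1 : ℝ) 2))) ≤
        ENNReal.ofReal C *
          MeasureTheory.eLpNorm
            (𝓕⁻ (fun ξ : EuclideanSpace ℝ (Fin 3) =>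
              ((1 + 4 * Real.pi ^ 2 * ‖ξ‖ ^ 2) ^ (α / 2) : ℝ) • 𝓕 (⇑f) ξ))
            (ENNReal.ofReal p) MeasureTheory.volume :=
  S0155_of_LocW (Hx665.LocW_of_EBc h) p hp α hα

end Crest.Agent.R116.Sh927
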