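import Crest.Agent.R116.Sli3_850

/-!
# R116 (S0155), wave side: COV / STAB (helper850, shadow), part 1: covering of a dilated member by
members centred at its packets.
-/

set_option autoImplicit false

open MeasureTheory FourierTransform
open scoped ContDiff ENNReal

namespace Crest.Agent.R116.Stb850

open Crest.Agent.R138.Defs (E2 ee)
open Crest.Agent.R138.Wpk685 (th win fat cen caps cap)
open Crest.Agent.R116.CDef480 (E3 lat slp hc extc capc umc enc Enc trc nrm)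
open Crest.Agent.R116.LZg725 (Cf)
open Crest.Agent.R116.WC188
open Crest.Agent.R116.Sl850 (enc_cover enc_mono floor_mem coord_le nrm_change mem_pbx TT_pos sq_ge)

/-- the class (cell) of a packet, sizes `σ`, `λ`, `ν`. -/
noncomputable def cellG (ρ : ℝ) (c : E2) (X0 : E3) (σ l ν : ℝ) (m : ℤ × ℤ) (X : E3) :
    (ℤ × ℤ) × (ℤ × ℤ) × ℤ :=
  ((⌊(cen ρ m - c) 0 / σ⌋, ⌊(cen ρ m - c) 1 / σ⌋),
    (⌊(lat X - lat X0) 0 / l⌋, ⌊(lat X - lat X0) 1 / l⌋),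
    ⌊(nrm c X 0 - nrm c X0 0) / ν⌋)

/-- the set of cells. -/
@[irreducible] noncomputable def cellsG (K1 K2 K3 : ℤ) : Finset ((ℤ × ℤ) × (ℤ × ℤ) × ℤ) :=
  (Finset.Icc (-K1) K1 ×ˢ Finset.Icc (-K1) K1) ×ˢ (Finset.Icc (-K2) K2 ×ˢ Finset.Icc (-K2) K2) ×ˢ
    Finset.Icc (-K3) K3

theorem card_Icc_real {K : ℤ} (hK : 0 ≤ K) : ((Finset.Icc (-K) K).card : ℝ) = 2 * K + 1 := by
  have h : (((Finset.Icc (-K) K).card : ℕ) : ℤ) = 2 * K + 1 := by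
    rw [Int.card_Icc, Int.toNat_of_nonneg (by omega)]; ring
  calc (((Finset.Icc (-K) K).card : ℕ) : ℝ) = ((((Finset.Icc (-K) K).card : ℕ) : ℤ) : ℝ) :=
        (Int.cast_natCast _).symm
    _ = ((2 * K + 1 : ℤ) : ℝ) := by rw [h]
    _ = 2 * K + 1 := by push_cast; ring

theorem card_cellsG {K1 K2 K3 : ℤ} (h1 : 0 ≤ K1) (h2 : 0 ≤ K2) (h3 : 0 ≤ K3) :
    ((cellsG K1 K2 K3).card : ℝ) = (2 * K1 + 1) ^ 2 * (2 * K2 + 1) ^ 2 * (2 * K3 + 1) := by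
  unfold cellsG
  simp only [Finset.card_product, Nat.cast_mul, card_Icc_real h1, card_Icc_real h2,
    card_Icc_real h3]
  ring

theorem norm_le_coord {v : E2} {t : ℝ} (ht : 0 ≤ t) (h0 : |v 0| ≤ t) (h1 : |v 1| ≤ t) :
    ‖v‖ ≤ 3 / 2 * t := by
  have h2 := Crest.Agent.R116.CDef480.normsq2 v
  have h3 : v 0 ^ 2 ≤ t ^ 2 := by rw [← sq_abs]; gcongr
  have h4 : v 1 ^ 2 ≤ t ^ 2 := by rw [← sq_abs]; gcongr
  refine abs_le_of_sq_le_sq' ?_ (by positivity) |>.2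
  nlinarith [sq_nonneg t]

theorem floor_close {x y t : ℝ} (ht : 0 < t) (h : ⌊x / t⌋ = ⌊y / t⌋) : |x - y| ≤ t := by
  have h6 := (Int.abs_sub_lt_one_of_floor_eq_floor h).le
  have e : x / t - y / t = (1 / t) * (x - y) := by ring
  rw [e, abs_mul, abs_of_pos (by positivity : (0:ℝ) < 1 / t)] at h6
  rw [← le_div_iff₀' (by positivity)] at h6
  refine h6.trans_eq ?_
  field_simp

/-- points of the same cell. -/
theorem cellG_eq {ρ : ℝ} {c : E2} {X0 : E3} {σ l ν U : ℝ} (hσ : 0 < σ) (hl : 0 < l) (hν : 0 < ν)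
    {m m' : ℤ × ℤ} {X X' : E3} (h : cellG ρ c X0 σ l ν m X = cellG ρ c X0 σ l ν m' X')
    (hC : ‖cen ρ m' - c‖ ≤ U) :
    ‖cen ρ m - cen ρ m'‖ ≤ 3 / 2 * σ ∧ ‖lat X - lat X'‖ ≤ 3 / 2 * l ∧
      |nrm (cen ρ m') X 0 - nrm (cen ρ m') X' 0| ≤ ν + U * (3 / 2 * l) := by
  unfold cellG at h
  simp only [Prod.mk.injEq] at h
  obtain ⟨⟨h1, h2⟩, ⟨h3, h4⟩, h5⟩ := h
  have k1 := floor_close hσ h1
  have k2 := floor_close hσ h2
  have k3 := floor_close hl h3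
  have k4 := floor_close hl h4
  have k5 := floor_close hν h5
  have l1 : ‖cen ρ m - cen ρ m'‖ ≤ 3 / 2 * σ := by
    refine norm_le_coord hσ.le ?_ ?_
    · simpa [PiLp.sub_apply] using k1
    · simpa [PiLp.sub_apply] using k2
  have l2 : ‖lat X - lat X'‖ ≤ 3 / 2 * l := by
    refine norm_le_coord hl.le ?_ ?_
    · simpa [PiLp.sub_apply] using k3
    · simpa [PiLp.sub_apply] using k4
  refine ⟨l1, l2, ?_⟩
  rw [nrm_change c]
  refine (abs_add_le _ _).trans ?_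
  have l3 : |inner ℝ (cen ρ m' - c) (lat X - lat X')| ≤ U * (3 / 2 * l) :=
    (abs_real_inner_le_norm _ _).trans (mul_le_mul hC l2 (norm_nonneg _)
      ((norm_nonneg _).trans hC))
  have l4 : |nrm c X 0 - nrm c X' 0| ≤ ν := by
    have : nrm c X 0 - nrm c X' 0 = (nrm c X 0 - nrm c X0 0) - (nrm c X' 0 - nrm c X0 0) := by ring
    rw [this]; exact k5
  linarith

/-- points of a dilated member lie in the cells. -/
theorem cellG_mem {ρ : ℝ} {c : E2} {X0 : E3} {σ l ν U L V : ℝ} (hσ : 0 < σ) (hl : 0 < l)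
    (hν : 0 < ν) {m : ℤ × ℤ} {X : E3} {K1 K2 K3 : ℤ} (hK1 : U / σ ≤ K1) (hK2 : L / l ≤ K2)
    (hK3 : V / ν ≤ K3) (h1 : ‖cen ρ m - c‖ ≤ U)
    (h2 : ‖lat X - lat X0‖ ≤ L) (h3 : |nrm c X 0 - nrm c X0 0| ≤ V) :
    cellG ρ c X0 σ l ν m X ∈ cellsG K1 K2 K3 := by
  have aux : ∀ {x t W : ℝ} {K : ℤ}, 0 < t → W / t ≤ K → |x| ≤ W → ⌊x / t⌋ ∈ Finset.Icc (-K) K := by
    intro x t W K ht hW hx
    refine floor_mem ?_
    rw [abs_div, abs_of_pos ht]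
    refine le_trans ?_ hW
    gcongr
  unfold cellG cellsG
  simp only [Finset.mem_product]
  exact ⟨⟨aux hσ hK1 ((coord_le _ 0).trans h1), aux hσ hK1 ((coord_le _ 1).trans h1)⟩,
    ⟨aux hl hK2 ((coord_le _ 0).trans h2), aux hl hK2 ((coord_le _ 1).trans h2)⟩, aux hν hK3 h3⟩

theorem TT_ge_sq (κ s R : ℝ) : s ^ 2 ≤ TT κ s R := le_max_left _ _

/-- **core of the covering**. -/
theorem core {κ A M r s1 s2 t1 t2 B : ℝ} (hA : 1 ≤ A) (hM : 1 ≤ M) (hr : 1 ≤ r)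
    (hs2 : 0 < s2) (ht : 0 < t2) (ht2 : s2 ≤ M * t2) (hT : TT κ s2 r ≤ M ^ 2 * TT κ t2 r)
    {c : E2} {X0 : E3} {f : Cf E2} (F : ℤ × ℤ → E3 → Cf E2) (g : E3 → ℂ) (S : ℤ × ℤ → Set E3)
    (hmem : ∀ m X m' X', X ∈ pbx κ A r s1 s2 c X0 f m → X' ∈ pbx κ A r s1 s2 c X0 f m' →
      ‖cen (r ^ (-(1/2) : ℝ)) m - cen (r ^ (-(1/2) : ℝ)) m'‖ ≤ t2 → ‖lat X - lat X'‖ ≤ t2 * r →
      |(F m' X').ev (lat X) (X 2) 0| ≤ t1 * r ∧
        |(F m' X').ld (cen (r ^ (-(1/2) : ℝ)) m) (lat X) (X 2) 0| ≤ t1)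
    (hB : ∀ m' X', X' ∈ pbx κ A r s1 s2 c X0 f m' →
      enc (r ^ (-(1/2) : ℝ)) g (fun m => S m ∩
        pbx κ 1 r t1 t2 (cen (r ^ (-(1/2) : ℝ)) m') X' (F m' X') m) ≤ ENNReal.ofReal B) :
    enc (r ^ (-(1/2) : ℝ)) g (fun m => S m ∩ pbx κ A r s1 s2 c X0 f m) ≤
      ENNReal.ofReal (27783 * A ^ 7 * M ^ 8 * B) := by
  have hr0 : 0 < r := by linarith
  have hA0 : 0 < A := by linarith
  have hM0 : 0 < M := by linarith
  generalize hρ : r ^ (-(1/2) : ℝ) = ρ at hmem hB ⊢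
  have hTi : 0 < TT κ t2 r := TT_pos ht
  have hTp : 0 < TT κ s2 r := TT_pos hs2
  have hTsq : t2 ^ 2 ≤ TT κ t2 r := TT_ge_sq κ t2 r
  set σ : ℝ := t2 / 2 with hσ
  set l : ℝ := t2 * r / (3 * A * M) with hl
  set ν : ℝ := TT κ t2 r * r / 2 with hν
  have hσ0 : 0 < σ := by positivity
  have hl0 : 0 < l := by positivity
  have hν0 : 0 < ν := by positivity
  have b1 : A * s2 / σ ≤ 2 * A * M := by
    rw [div_le_iff₀ hσ0, hσ]
    calc A * s2 ≤ A * (M * t2) := by gcongr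
      _ = 2 * A * M * (t2 / 2) := by ring
  have b2 : A * s2 * r / l ≤ 3 * A ^ 2 * M ^ 2 := by
    rw [div_le_iff₀ hl0, hl]
    calc A * s2 * r ≤ A * (M * t2) * r := by gcongr
      _ = 3 * A ^ 2 * M ^ 2 * (t2 * r / (3 * A * M)) := by field_simp
  have b3 : A * TT κ s2 r * r / ν ≤ 2 * A * M ^ 2 := by
    rw [div_le_iff₀ hν0, hν]
    calc A * TT κ s2 r * r ≤ A * (M ^ 2 * TT κ t2 r) * r := by gcongr
      _ = 2 * A * M ^ 2 * (TT κ t2 r * r / 2) := by ring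
  obtain ⟨K1, hK1a, hK1b⟩ : ∃ K : ℤ, A * s2 / σ ≤ K ∧ (K : ℝ) < A * s2 / σ + 1 :=
    ⟨⌈A * s2 / σ⌉, Int.le_ceil _, Int.ceil_lt_add_one _⟩
  obtain ⟨K2, hK2a, hK2b⟩ : ∃ K : ℤ, A * s2 * r / l ≤ K ∧ (K : ℝ) < A * s2 * r / l + 1 :=
    ⟨⌈A * s2 * r / l⌉, Int.le_ceil _, Int.ceil_lt_add_one _⟩
  obtain ⟨K3, hK3a, hK3b⟩ : ∃ K : ℤ, A * TT κ s2 r * r / ν ≤ K ∧
      (K : ℝ) < A * TT κ s2 r * r / ν + 1 :=
    ⟨⌈A * TT κ s2 r * r / ν⌉, Int.le_ceil _, Int.ceil_lt_add_one _⟩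
  have p1 : (0:ℤ) ≤ K1 := by
    have : (0 : ℝ) ≤ K1 := le_trans (by positivity) hK1a
    exact_mod_cast this
  have p2 : (0:ℤ) ≤ K2 := by
    have : (0 : ℝ) ≤ K2 := le_trans (by positivity) hK2a
    exact_mod_cast this
  have p3 : (0:ℤ) ≤ K3 := by
    have : (0 : ℝ) ≤ K3 := le_trans (by positivity) hK3a
    exact_mod_cast this
  have q1 : (0:ℝ) ≤ K1 := by exact_mod_cast p1
  have q2 : (0:ℝ) ≤ K2 := by exact_mod_cast p2
  have q3 : (0:ℝ) ≤ K3 := by exact_mod_cast p3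
  have hAM : 1 ≤ A * M := one_le_mul_of_one_le_of_one_le hA hM
  have hcard : ((cellsG K1 K2 K3).card : ℝ) ≤ 27783 * A ^ 7 * M ^ 8 := by
    rw [card_cellsG p1 p2 p3]
    have c1 : 2 * (K1:ℝ) + 1 ≤ 7 * (A * M) := by linarith
    have c2 : 2 * (K2:ℝ) + 1 ≤ 9 * (A * M) ^ 2 := by
      have : 1 ≤ (A * M) ^ 2 := one_le_pow₀ hAM
      have e : A ^ 2 * M ^ 2 = (A * M) ^ 2 := by ring
      have : 3 * A ^ 2 * M ^ 2 = 3 * (A * M) ^ 2 := by rw [← e]; ring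
      linarith
    have c3 : 2 * (K3:ℝ) + 1 ≤ 7 * (A * M ^ 2) := by
      have : 1 ≤ A * M ^ 2 := one_le_mul_of_one_le_of_one_le hA (one_le_pow₀ hM)
      linarith
    calc (2 * (K1:ℝ) + 1) ^ 2 * (2 * K2 + 1) ^ 2 * (2 * K3 + 1)
        ≤ (7 * (A * M)) ^ 2 * (9 * (A * M) ^ 2) ^ 2 * (7 * (A * M ^ 2)) := by gcongr
      _ = 27783 * A ^ 7 * M ^ 8 := by ring
  have h1 := enc_cover ρ g (cellsG K1 K2 K3) (fun m => S m ∩ pbx κ A r s1 s2 c X0 f m)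
    (fun m' X' m => S m ∩ pbx κ 1 r t1 t2 (cen ρ m') X' (F m' X') m) (cellG ρ c X0 σ l ν)
    (ENNReal.ofReal B) ?_ ?_ ?_
  · refine h1.trans ?_
    by_cases hB0 : 0 ≤ B
    · have h2 : ((cellsG K1 K2 K3).card : ℝ≥0∞) = ENNReal.ofReal ((cellsG K1 K2 K3).card : ℝ) := by
        rw [ENNReal.ofReal_natCast]
      rw [h2, ← ENNReal.ofReal_mul (by positivity)]
      refine ENNReal.ofReal_le_ofReal ?_
      gcongr
    · rw [ENNReal.ofReal_of_nonpos (not_le.1 hB0).le, mul_zero]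
      exact bot_le
  · intro m X hX
    have hX2 := hX.2
    rw [mem_pbx, hρ] at hX2
    exact cellG_mem hσ0 hl0 hν0 hK1a hK2a hK3a hX2.1 hX2.2.1 hX2.2.2.1
  · intro m X m' X' hX hX' hc
    have hX2 := hX.2
    have hX2' := hX'.2
    have k1' := hX2'
    rw [mem_pbx, hρ] at k1'
    obtain ⟨l1, l2, l3⟩ := cellG_eq hσ0 hl0 hν0 hc k1'.1
    have m1 : ‖cen ρ m - cen ρ m'‖ ≤ t2 := by
      refine l1.trans ?_
      rw [hσ]; linarith
    have m2 : ‖lat X - lat X'‖ ≤ t2 * r := by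
      refine l2.trans ?_
      have : l ≤ t2 * r / 3 := by
        rw [hl]
        have h3 : (3:ℝ) ≤ 3 * A * M := by nlinarith
        gcongr
      have : 0 < t2 * r := by positivity
      linarith
    have m3 : |nrm (cen ρ m') X 0 - nrm (cen ρ m') X' 0| ≤ TT κ t2 r * r := by
      refine l3.trans ?_
      have e1 : A * s2 * (3 / 2 * l) ≤ t2 ^ 2 * r / 2 := by
        calc A * s2 * (3 / 2 * l) ≤ A * (M * t2) * (3 / 2 * l) := by gcongr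
          _ = t2 ^ 2 * r / 2 := by rw [hl]; field_simp
      have e2 : t2 ^ 2 * r / 2 ≤ TT κ t2 r * r / 2 := by gcongr
      rw [hν]
      linarith
    refine ⟨hX.1, ?_⟩
    rw [mem_pbx, hρ, one_mul, one_mul, one_mul]
    obtain ⟨n1, n2⟩ := hmem m X m' X' hX2 hX2' m1 m2
    exact ⟨m1, m2, m3, n1, n2⟩
  · intro m' X' hX'
    exact hB m' X' hX'.2

end Crest.Agent.R116.Stb850
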