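import Crest.Agent.R116.Stb1_850

/-!
# R116 (S0155), wave side: COV / STAB (helper850, shadow), part 2: density for the members `Adm 1`
gives the dilated density for the members `Adm M`.
-/

set_option autoImplicit false

open MeasureTheory FourierTransform
open scoped ContDiff ENNReal

namespace Crest.Agent.R116.Stb850

open Crest.Agent.R138.Defs (E2 ee)
open Crest.Agent.R138.Wpk685 (th win fat cen caps cap)
open Crest.Agent.R116.CDef480 (E3 lat slp hc extc capc umc enc Enc trc nrm)
open Crest.Agent.R116.LZg725 (Cf)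
open Crest.Agent.R116.WC188
open Crest.Agent.R116.Sl850 (enc_cover enc_mono floor_mem coord_le nrm_change mem_pbx TT_pos sq_ge)

/-- flat conformal function through the ray of slope `C'` and lateral position `x'` (time `0`). -/
noncomputable def flt (C' x' : E2) : Cf E2 where
  a0 := -inner ℝ (EuclideanSpace.single 0 1) x'
  a1 := inner ℝ (EuclideanSpace.single 0 1) C'
  be := EuclideanSpace.single 0 1
  g := 0
  d := 0

theorem norm_e0 : ‖(EuclideanSpace.single 0 1 : E2)‖ = 1 := by simp

theorem flt_disc (C' x' : E2) : (flt C' x').disc = 1 := by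
  unfold Cf.disc flt
  simp

theorem flt_ny (C' x' : E2) (s : ℝ) : (flt C' x').ny s = 0 := by
  unfold Cf.ny flt
  simp

theorem flt_ev (C' x' x : E2) (y : ℝ) :
    (flt C' x').ev x y 0 = inner ℝ (EuclideanSpace.single 0 1) (x - x') := by
  unfold Cf.ev flt
  rw [inner_sub_right]
  ring

theorem flt_ld (C' x' C x : E2) (y : ℝ) :
    (flt C' x').ld C x y 0 = -inner ℝ (EuclideanSpace.single 0 1) (C - C') := by
  unfold Cf.ld
  rw [flt_ny]
  unfold flt
  simp only [mul_zero, zero_smul, add_zero, zero_mul, sub_zero, zero_div]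
  rw [inner_sub_right]
  ring

theorem inner_e0_le (v : E2) : |inner ℝ (EuclideanSpace.single 0 1 : E2) v| ≤ ‖v‖ := by
  have := abs_real_inner_le_norm (EuclideanSpace.single 0 1 : E2) v
  rwa [norm_e0, one_mul] at this

/-- density of a selection. -/
def Dsn (M κ q r : ℝ) (g : E3 → ℂ) (S : ℤ × ℤ → Set E3) (D : ℝ) : Prop :=
  ∀ (c : E2) (X0 : E3) (f : Cf E2) (s1 s2 : ℝ), Sd r s1 s2 → Adm M κ s1 s2 (TT κ s2 r) r c X0 f →
    enc (r ^ (-(1/2) : ℝ)) g (fun m => S m ∩ pbx κ 1 r s1 s2 c X0 f m) ≤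
      ENNReal.ofReal (D * s2 ^ q * scost κ s1 s2 r)

/-- **COV + STAB**, density form. -/
theorem stab {q : ℝ} (hq : 0 ≤ q) {κ A M r D : ℝ} (hA : 1 ≤ A) (hM : 1 ≤ M) (hr : 1 ≤ r)
    (hκ : 0 < κ) (hκ1 : κ ≤ 1) (hD : 0 ≤ D) {g : E3 → ℂ} {S : ℤ × ℤ → Set E3}
    (H : Dsn 1 κ q r g S D) {c : E2} {X0 : E3} {f : Cf E2} {s1 s2 : ℝ} (hs : Sd r s1 s2)
    (hAd : Adm M κ s1 s2 (TT κ s2 r) r c X0 f) :
    enc (r ^ (-(1/2) : ℝ)) g (fun m => S m ∩ pbx κ A r s1 s2 c X0 f m) ≤
      ENNReal.ofReal (27783 * A ^ 8 * M ^ 11 * (D * s2 ^ q * scost κ s1 s2 r)) := by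
  have hr0 : 0 < r := by linarith
  have hA0 : 0 < A := by linarith
  have hM0 : 0 < M := by linarith
  have h0 : 0 < r ^ (-(1/2) : ℝ) := by positivity
  have hs1 : 0 < s1 := lt_of_lt_of_le h0 hs.lo
  have hs2 : 0 < s2 := lt_of_lt_of_le hs1 hs.le
  have hT : 0 < TT κ s2 r := TT_pos hs2
  have hM2 : 1 ≤ M ^ 2 := one_le_pow₀ hM
  have hM3 : 1 ≤ M ^ 3 := one_le_pow₀ hM
  have hAM : 1 ≤ A * M := one_le_mul_of_one_le_of_one_le hA hM
  have hκr : 0 < κ * r := by positivity
  have hq0 : 0 ≤ s2 ^ q := Real.rpow_nonneg hs2.le _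
  by_cases hcase : s2 ≤ A * M ^ 3 * s1
  · -- flat full boxes
    have hsd : Sd r s2 s2 := ⟨hs.lo.trans hs.le, le_rfl, hs.hi⟩
    refine (core hA hM hr hs2 hs2 (by nlinarith) (by nlinarith)
      (t1 := s2) (fun m' X' => flt (cen (r ^ (-(1/2) : ℝ)) m') (lat X')) g S ?_ ?_
      (B := D * s2 ^ q * scost κ s2 s2 r)).trans ?_
    · intro m X m' X' _ _ l1 l2
      rw [flt_ev, flt_ld, abs_neg]
      exact ⟨(inner_e0_le _).trans l2, (inner_e0_le _).trans l1⟩
    · intro m' X' _
      refine H _ _ _ s2 s2 hsd ⟨flt_disc _ _, fun s _ => ?_, fun s _ => ?_, ?_, ?_⟩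
      · rw [flt_ny, abs_zero]; positivity
      · rw [flt_ny, abs_zero]; positivity
      · rw [flt_ld, sub_self, inner_zero_right, neg_zero, abs_zero]; positivity
      · rw [flt_ev, sub_self, inner_zero_right, abs_zero]; positivity
    · refine ENNReal.ofReal_le_ofReal ?_
      have e1 : scost κ s2 s2 r ≤ A * M ^ 3 * scost κ s1 s2 r := by
        unfold scost
        calc s2 * s2 * TT κ s2 r * r ^ 3 ≤ (A * M ^ 3 * s1) * s2 * TT κ s2 r * r ^ 3 := by gcongr
          _ = _ := by ring
      calc 27783 * A ^ 7 * M ^ 8 * (D * s2 ^ q * scost κ s2 s2 r)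
          ≤ 27783 * A ^ 7 * M ^ 8 * (D * s2 ^ q * (A * M ^ 3 * scost κ s1 s2 r)) := by gcongr
        _ = _ := by ring
  · -- thin slabs
    rw [not_le] at hcase
    -- the common part
    have main : ∀ t2 : ℝ, 0 < t2 → s2 ≤ M * t2 → t2 ≤ s2 → TT κ s2 r ≤ M ^ 2 * TT κ t2 r →
        TT κ t2 r ≤ TT κ s2 r → (∀ s : ℝ, |s| ≤ r → |f.ny s| ≤ t2 / TT κ t2 r) →
        enc (r ^ (-(1/2) : ℝ)) g (fun m => S m ∩ pbx κ A r s1 s2 c X0 f m) ≤
          ENNReal.ofReal (27783 * A ^ 8 * M ^ 11 * (D * s2 ^ q * scost κ s1 s2 r)) := by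
      intro t2 ht h1 h2 h3 h4 h5
      have k1 : A * M * s1 ≤ t2 := by
        have : A * M * s1 * M ^ 2 ≤ t2 * M := by nlinarith
        have h6 : A * M * s1 * M ≤ A * M * s1 * M ^ 2 := by
          have : M ≤ M ^ 2 := by nlinarith
          gcongr
        have h7 : A * M * s1 * M ≤ t2 * M := h6.trans this
        exact le_of_mul_le_mul_right h7 hM0
      have hsd : Sd r (A * M * s1) t2 :=
        ⟨hs.lo.trans (le_mul_of_one_le_left hs1.le hAM), k1, h2.trans hs.hi⟩
      have k2 : A * s1 ≤ A * M * s1 := by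
        have : A ≤ A * M := le_mul_of_one_le_right hA0.le hM
        gcongr
      refine (core hA hM hr hs2 ht h1 h3 (t1 := A * M * s1) (fun _ _ => f) g S ?_ ?_
        (B := D * t2 ^ q * scost κ (A * M * s1) t2 r)).trans ?_
      · intro m X m' X' hX _ _ _
        rw [mem_pbx] at hX
        refine ⟨hX.2.2.2.1.trans ?_, hX.2.2.2.2.trans k2⟩
        gcongr
      · intro m' X' hX'
        rw [mem_pbx] at hX'
        refine H _ _ _ _ t2 hsd ⟨hAd.disc, fun s hs' => ?_, fun s hs' => ?_, ?_, ?_⟩
        · rw [one_mul]; exact h5 s hs'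
        · refine (hAd.cmp s hs').trans ?_
          calc M * (κ * s1 * r) ≤ A * (M * (κ * s1 * r)) :=
                le_mul_of_one_le_left (by positivity) hA
            _ = 1 * (κ * (A * M * s1) * r) := by ring
        · rw [one_mul]
          exact hX'.2.2.2.2.trans (k2.trans k1)
        · rw [one_mul]
          refine hX'.2.2.2.1.trans ?_
          have := k2.trans k1
          gcongr
      · refine ENNReal.ofReal_le_ofReal ?_
        have e1 : scost κ (A * M * s1) t2 r ≤ A * M * scost κ s1 s2 r := by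
          unfold scost
          calc A * M * s1 * t2 * TT κ t2 r * r ^ 3 ≤ A * M * s1 * s2 * TT κ s2 r * r ^ 3 := by
                have := TT_pos (κ := κ) (R := r) ht
                gcongr
            _ = _ := by ring
        have e2 : t2 ^ q ≤ s2 ^ q := Real.rpow_le_rpow ht.le h2 hq
        have e3 : 0 ≤ scost κ s1 s2 r := by unfold scost; positivity
        have e4 : 0 ≤ scost κ (A * M * s1) t2 r := by
          unfold scost
          have := TT_pos (κ := κ) (R := r) ht
          positivity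
        calc 27783 * A ^ 7 * M ^ 8 * (D * t2 ^ q * scost κ (A * M * s1) t2 r)
            ≤ 27783 * A ^ 7 * M ^ 8 * (D * s2 ^ q * (A * M * scost κ s1 s2 r)) := by gcongr
          _ = 27783 * A ^ 8 * (M ^ 9 * (D * s2 ^ q * scost κ s1 s2 r)) := by ring
          _ ≤ 27783 * A ^ 8 * (M ^ 11 * (D * s2 ^ q * scost κ s1 s2 r)) := by
            have : M ^ 9 ≤ M ^ 11 := pow_le_pow_right₀ hM (by norm_num)
            gcongr
          _ = _ := by ring
    have hMs : M * s1 ≤ s2 := by
      have : M * s1 ≤ A * M ^ 3 * s1 := by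
        have : M ≤ A * M ^ 3 := by nlinarith
        gcongr
      linarith
    rcases lt_or_ge (s2 ^ 2) (κ * r)⁻¹ with hlt | hge
    · -- `T = 1/(κ r)`
      have hTe : TT κ s2 r = (κ * r)⁻¹ := max_eq_right hlt.le
      refine main s2 hs2 (by nlinarith) le_rfl (by nlinarith) le_rfl fun s hs' => ?_
      refine (hAd.cmp s hs').trans ?_
      rw [hTe, div_inv_eq_mul]
      calc M * (κ * s1 * r) = (M * s1) * (κ * r) := by ring
        _ ≤ s2 * (κ * r) := by gcongr
    · have hTe : TT κ s2 r = s2 ^ 2 := max_eq_left hge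
      rcases le_or_gt (κ * r)⁻¹ ((s2 / M) ^ 2) with hle | hgt
      · -- shrink the aperture
        have hTi : TT κ (s2 / M) r = (s2 / M) ^ 2 := max_eq_left hle
        refine main (s2 / M) (by positivity) ?_ (div_le_self hs2.le hM) ?_ ?_ fun s hs' => ?_
        · rw [mul_div_cancel₀ _ hM0.ne']
        · rw [hTe, hTi]; field_simp; exact le_rfl
        · rw [hTe, hTi]
          have : s2 / M ≤ s2 := div_le_self hs2.le hM
          gcongr
        · refine (hAd.ny s hs').trans ?_
          rw [hTe, hTi]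
          refine le_of_eq ?_
          field_simp
      · -- the critical aperture
        set t : ℝ := Real.sqrt ((κ * r)⁻¹) with ht
        have ht0 : 0 < t := Real.sqrt_pos.2 (by positivity)
        have htsq : t ^ 2 = (κ * r)⁻¹ := Real.sq_sqrt (by positivity)
        have hts : t ≤ s2 := by
          refine abs_le_of_sq_le_sq' ?_ hs2.le |>.2
          rw [htsq]; exact hge
        have htM : s2 / M ≤ t := by
          refine abs_le_of_sq_le_sq' ?_ ht0.le |>.2
          rw [htsq]; exact hgt.le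
        have htM' : s2 ≤ M * t := by rwa [div_le_iff₀' hM0] at htM
        have hTi : TT κ t r = t ^ 2 := by
          unfold TT
          rw [htsq, max_self]
        refine main t ht0 htM' hts ?_ ?_ fun s hs' => ?_
        · rw [hTe, hTi]
          calc s2 ^ 2 ≤ (M * t) ^ 2 := by gcongr
            _ = M ^ 2 * t ^ 2 := by ring
        · rw [hTe, hTi]; gcongr
        · refine (hAd.cmp s hs').trans ?_
          rw [hTi]
          have e1 : t / t ^ 2 = t * (κ * r) := by
            rw [htsq, div_inv_eq_mul]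
          rw [e1]
          have e2 : M * s1 ≤ t := by
            have h6 : A * M ^ 3 * s1 ≤ M * t := (hcase.le).trans htM'
            have h7 : M * (M * s1) ≤ M * t := by
              refine le_trans ?_ h6
              have : M ^ 2 ≤ A * M ^ 3 := by nlinarith
              calc M * (M * s1) = M ^ 2 * s1 := by ring
                _ ≤ A * M ^ 3 * s1 := by gcongr
            exact le_of_mul_le_mul_left h7 hM0
          calc M * (κ * s1 * r) = (M * s1) * (κ * r) := by ring
            _ ≤ t * (κ * r) := by gcongr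

end Crest.Agent.R116.Stb850
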