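import Crest.Agent.R116.Stb2_850
import Crest.Agent.R116.DeDef_295
import Crest.Agent.R116.Cnv5_894

/-!
# R116 (S0155), wave side: COV / STAB (helper850, shadow), part 3: the literals `STABc q` (295) and
`Cov2 M q` (894).
-/

set_option autoImplicit false

open MeasureTheory FourierTransform
open scoped ContDiff ENNReal

namespace Crest.Agent.R116.Stb850

open Crest.Agent.R138.Defs (E2 ee)
open Crest.Agent.R138.Wpk685 (cen caps)
open Crest.Agent.R116.CDef480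
open Crest.Agent.R116.WC188
open Crest.Agent.R116.LZg725 (Cf)

/-- **D2** of 295. -/
theorem stabc {q : ℝ} (hq : 0 ≤ q) : De295.STABc q := by
  intro M' hM'
  refine ⟨27783 * M' ^ 11, 8, by positivity, ?_⟩
  intro A κ r hA hr hκ hκ1 _ g S D _ hD H c X0 f s1 s2 hs hAd
  refine (stab hq hA hM' hr hκ hκ1 hD H hs hAd).trans (ENNReal.ofReal_le_ofReal (le_of_eq ?_))
  ring

lemma adm_mono {M κ r s1 s2 : ℝ} {c : E2} {X0 : E3} {f : Cf E2} (hκ : 0 < κ) (hr : 1 ≤ r)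
    (hM : 1 ≤ M) (hs : Sd r s1 s2) (h : Adm 1 κ s1 s2 (TT κ s2 r) r c X0 f) :
    Adm M κ s1 s2 (TT κ s2 r) r c X0 f := by
  have hr0 : 0 < r := by linarith
  have h1 : 0 < s1 := lt_of_lt_of_le (Real.rpow_pos_of_pos hr0 _) hs.lo
  have h2 : 0 < s2 := lt_of_lt_of_le h1 hs.le
  have hT : 0 < TT κ s2 r := by unfold TT; positivity
  refine ⟨h.disc, fun s hs' => (h.ny s hs').trans ?_, fun s hs' => (h.cmp s hs').trans ?_,
    h.ld.trans ?_, h.ev.trans ?_⟩
  · gcongr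
  · gcongr
  · gcongr
  · gcongr

/-- the lemma `Cov2` of 894. -/
theorem cov2 {M q : ℝ} (hM : 1 ≤ M) (hq : 0 ≤ q) : Cnv894.Cov2 M q := by
  refine ⟨27783 * 2 ^ 8 * M ^ 11, ?_, ?_⟩
  · have : 1 ≤ M ^ 11 := one_le_pow₀ hM
    nlinarith
  intro κ r hκ hκ1 hr _ g D hD H c X0 f s1 s2 hs hAd
  have H1 : Dsn 1 κ q r g (fun _ => Set.univ) D := by
    intro c X0 f s1 s2 hs hAd
    simp only [Set.univ_inter]
    exact H c X0 f s1 s2 hs (adm_mono hκ hr hM hs hAd)
  have h2 := stab hq (A := 2) (by norm_num) hM hr hκ hκ1 hD H1 hs hAd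
  simp only [Set.univ_inter] at h2
  refine h2.trans (ENNReal.ofReal_le_ofReal (le_of_eq ?_))
  ring

end Crest.Agent.R116.Stb850
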