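import Crest.Agent.R116.Sub_387
import Crest.Agent.R116.Cov2_369

/-!
# R116 (S0155), wave side: kernel bound => box bound (helper387)

`box_of_ker`: if the packets of `G` (level `r`) are bounded by the plate kernels applied to the
packets of `g` in the selection `S` and `S` has density `D`, then `G` satisfies the box bound `C K² D`.
-/

set_option autoImplicit false

open MeasureTheory FourierTransform
open scoped ContDiff ENNReal

namespace Crest.Agent.R116.Sub387

open Crest.Agent.R138.Defs (E2 ee)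
open Crest.Agent.R138.Wpk685 (win fat cen caps)
open Crest.Agent.R138.Wf448 (adet)
open Crest.Agent.R116.CWp480 Crest.Agent.R116.CWc480
open Crest.Agent.R116.CDef480 Crest.Agent.R116.WC188
open Crest.Agent.R116.Bas367 (Bsc)
open Crest.Agent.R138.Loc878 (Near nearL mem_nearL sum_near_le)
open Crest.Agent.R116.De295 Crest.Agent.R116.F1c124
open Crest.Agent.R116.LZg725 (Cf)

/-- **kernel bound implies box bound**. -/
theorem box_of_ker {M q : ℝ} (hM : 1 ≤ M) (hq : 0 ≤ q) : ∃ (j : ℕ) (Ck : ℝ), 0 ≤ Ck ∧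
    ∀ κ r : ℝ, 0 < κ → κ ≤ 1 → 1 ≤ r → r ^ (-(1/4) : ℝ) ≤ κ →
    ∀ (g G : E3 → ℂ) (S : ℤ × ℤ → Set E3), Integrable g →
      (∀ m ∈ caps (r ^ (-(1/2) : ℝ)), MeasurableSet (S m)) → ∀ K : ℝ, 0 ≤ K →
      (∀ m' ∈ caps (r ^ (-(1/2) : ℝ)), ∀ X, ‖umc (r ^ (-(1/2) : ℝ)) G m' X‖ₑ ≤ ENNReal.ofReal K *
        ∑ m ∈ nearL (r ^ (-(1/2) : ℝ)) (r ^ (-(1/2) : ℝ)) m', ∫⁻ y in S m,
          ENNReal.ofReal (kc (dd E3 + j) (r ^ (-(1/2) : ℝ)) κ (cen (r ^ (-(1/2) : ℝ)) m) (X - y)) *
            ‖umc (r ^ (-(1/2) : ℝ)) g m y‖ₑ) →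
      ∀ D : ℝ, 0 ≤ D → Dsc M κ q r g S D → PBx M κ q r G (Ck * K ^ 2 * D) := by
  classical
  obtain ⟨Cs, p, hCs, hst⟩ := Cov369.stabc hq M hM
  have hc3 := cd3_nonneg (V := E3)
  refine ⟨2 * p + 1, 36 * (cd3 E3 * cd3 E3) * 36 * (2 ^ (2 * p + 2) * (128 * M) ^ p * Cs),
    by positivity, ?_⟩
  intro κ r hκ hκ1 hr hrκ g G S hgi hSm K hK hker D hD hDs
  have hr0 : 0 < r := by linarith
  set ρ := r ^ (-(1/2) : ℝ) with hρd
  have hρ : 0 < ρ := Real.rpow_pos_of_pos hr0 _
  intro c X0 f s1 s2 hsd hadm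
  -- the selection restricted to the caps
  set S' : ℤ × ℤ → Set E3 := fun m => if m ∈ caps ρ then S m else ∅ with hS'
  have hS'm : ∀ m, MeasurableSet (S' m) := by
    intro m
    simp only [hS']
    split_ifs with h
    · exact hSm m h
    · exact MeasurableSet.empty
  have hS'e : ∀ m ∈ caps ρ, S' m = S m := fun m hm => by simp only [hS', if_pos hm]
  have hD1 : Dsc 1 κ q r g S' D := by
    intro c X0 f s1 s2 hsd hadm
    refine le_trans (le_of_eq ?_) (hDs c X0 f s1 s2 hsd (adm_mono hM hr hκ hsd hadm))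
    exact Bas367.enc_congr g fun m hm => by rw [hS'e m hm]
  have hdens := fun k : ℕ => hst (128 * M * 4 ^ k) κ r (by
    have : (1:ℝ) ≤ 4 ^ k := one_le_pow₀ (by norm_num)
    nlinarith) hr hκ hκ1 hrκ g S' D hS'm hD hD1 c X0 f s1 s2 hsd hadm
  -- dyadic boxes
  set Q : ℤ × ℤ → ℕ → Set E3 := fun m k => pbx κ (128 * M * 4 ^ k) r s1 s2 c X0 f m with hQ
  have hQm : ∀ m k, MeasurableSet (Q m k) := fun m k => meas_pbx _ _ _ _ _ _ _ _ _
  set u : ℤ × ℤ → E3 → ℝ≥0∞ := fun m y => ‖umc ρ g m y‖ₑ ^ 2 with hu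
  have hum : ∀ m, Measurable (u m) := fun m =>
    ((Bas367.umc_cont hgi ρ m).measurable.enorm).pow_const 2
  set j := 2 * p + 1 with hj
  have hpt : ∀ m' ∈ caps ρ, ∀ X, ‖umc ρ G m' X‖ₑ ^ 2 ≤ ENNReal.ofReal (K ^ 2 * 36 * cd3 E3) *
      ∑ m ∈ nearL ρ ρ m', ∫⁻ y in S m,
        u m y * ENNReal.ofReal (kc (dd E3 + j) ρ κ (cen ρ m) (X - y)) := by
    intro m' hm' X
    have h1 := hker m' hm' X
    have hkm : ∀ m, AEMeasurable (fun y => ENNReal.ofReal (kc (dd E3 + j) ρ κ (cen ρ m) (X - y)))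
        (volume.restrict (S m)) := fun m =>
      (((kc_cont _ hρ hκ _).measurable.comp
        (measurable_const.sub measurable_id)).ennreal_ofReal).aemeasurable
    calc ‖umc ρ G m' X‖ₑ ^ 2 ≤ (ENNReal.ofReal K * ∑ m ∈ nearL ρ ρ m', ∫⁻ y in S m,
          ENNReal.ofReal (kc (dd E3 + j) ρ κ (cen ρ m) (X - y)) * ‖umc ρ g m y‖ₑ) ^ 2 := by
          gcongr
      _ = ENNReal.ofReal (K ^ 2) * (∑ m ∈ nearL ρ ρ m', ∫⁻ y in S m,
          ‖umc ρ g m y‖ₑ * ENNReal.ofReal (kc (dd E3 + j) ρ κ (cen ρ m) (X - y))) ^ 2 := by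
          rw [mul_pow, ENNReal.ofReal_pow hK]
          congr 2
          refine Finset.sum_congr rfl fun m _ => lintegral_congr fun y => mul_comm _ _
      _ ≤ ENNReal.ofReal (K ^ 2) * ((nearL ρ ρ m').card * ∑ m ∈ nearL ρ ρ m', (∫⁻ y in S m,
          ‖umc ρ g m y‖ₑ * ENNReal.ofReal (kc (dd E3 + j) ρ κ (cen ρ m) (X - y))) ^ 2) := by
          gcongr
          exact sum_sq_le _ _
      _ ≤ ENNReal.ofReal (K ^ 2) * (36 * ∑ m ∈ nearL ρ ρ m', (ENNReal.ofReal (cd3 E3) *
          ∫⁻ y in S m, u m y * ENNReal.ofReal (kc (dd E3 + j) ρ κ (cen ρ m) (X - y)))) := by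
          gcongr with m hm
          · exact_mod_cast card_nearL' hρ m'
          · refine (lint_sq_mu (Bas367.umc_cont hgi ρ m).measurable.enorm.aemeasurable
              (hkm m)).trans ?_
            refine mul_le_mul_left ?_ _
            refine (setLIntegral_le_lintegral _ _).trans ?_
            rw [← kc_mass' hρ hκ (cen ρ m) X]
            exact lintegral_mono fun y => ENNReal.ofReal_le_ofReal (kc_anti _ _ hκ.le _ _)
      _ = _ := by
          rw [← Finset.mul_sum, ← mul_assoc, ← mul_assoc]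
          congr 1
          rw [ENNReal.ofReal_mul (by positivity), ENNReal.ofReal_mul (by positivity)]
          norm_num
  have hpair : ∀ m' ∈ caps ρ, ∀ m ∈ nearL ρ ρ m',
      ∫⁻ X in pbx κ 1 r s1 s2 c X0 f m', ∫⁻ y in S m,
        u m y * ENNReal.ofReal (kc (dd E3 + j) ρ κ (cen ρ m) (X - y)) ≤
      ENNReal.ofReal (cd3 E3) * ∫⁻ y in S m, u m y * W j (Q m) y := by
    intro m' hm' m hm
    refine pair_le j hρ hκ (cen ρ m) (meas_pbx _ _ _ _ _ _ _ _ _) (hQm m) ?_ (hum m)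
    intro X hX y k hk
    have h1 : (1:ℝ) ≤ 2 ^ k := one_le_pow₀ (by norm_num)
    have h2 := pbx_move hM hr hκ hκ1 hsd hadm (C := cen ρ m') (C' := cen ρ m)
      (mem_nearL.1 hm).2.le hX h1 hk
    have e4 : ((2:ℝ) ^ k) ^ 2 = 4 ^ k := by
      rw [← pow_mul, mul_comm, pow_mul]; norm_num
    rw [e4] at h2
    exact h2
  calc enc ρ G (fun m => pbx κ 1 r s1 s2 c X0 f m) ≤
        ∑ m' ∈ caps ρ, ENNReal.ofReal (K ^ 2 * 36 * cd3 E3) * ∑ m ∈ nearL ρ ρ m',
          (ENNReal.ofReal (cd3 E3) * ∫⁻ y in S m, u m y * W j (Q m) y) := by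
        unfold enc
        refine Finset.sum_le_sum fun m' hm' => ?_
        calc ∫⁻ X in pbx κ 1 r s1 s2 c X0 f m', ‖umc ρ G m' X‖ₑ ^ 2 ≤
              ∫⁻ X in pbx κ 1 r s1 s2 c X0 f m', ENNReal.ofReal (K ^ 2 * 36 * cd3 E3) *
              ∑ m ∈ nearL ρ ρ m', ∫⁻ y in S m,
                u m y * ENNReal.ofReal (kc (dd E3 + j) ρ κ (cen ρ m) (X - y)) :=
              lintegral_mono fun X => hpt m' hm' X
          _ = ENNReal.ofReal (K ^ 2 * 36 * cd3 E3) * ∑ m ∈ nearL ρ ρ m',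
              ∫⁻ X in pbx κ 1 r s1 s2 c X0 f m', ∫⁻ y in S m,
                u m y * ENNReal.ofReal (kc (dd E3 + j) ρ κ (cen ρ m) (X - y)) := by
              rw [lintegral_const_mul' _ _ ENNReal.ofReal_ne_top, lintegral_finsetSum']
              intro m _
              refine (Measurable.lintegral_prod_right' (ν := volume.restrict (S m)) (f :=
                fun p : E3 × E3 => u m p.2 *
                  ENNReal.ofReal (kc (dd E3 + j) ρ κ (cen ρ m) (p.1 - p.2))) ?_).aemeasurable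
              exact ((hum m).comp measurable_snd).mul (((kc_cont _ hρ hκ _).measurable.comp
                (measurable_fst.sub measurable_snd)).ennreal_ofReal)
          _ ≤ _ := by
              gcongr with m hm
              exact hpair m' hm' m hm
    _ = ENNReal.ofReal (K ^ 2 * 36 * cd3 E3) * ENNReal.ofReal (cd3 E3) *
        ∑ m' ∈ caps ρ, ∑ m ∈ nearL ρ ρ m', ∫⁻ y in S m, u m y * W j (Q m) y := by
        simp only [← Finset.mul_sum]
        ring
    _ ≤ ENNReal.ofReal (K ^ 2 * 36 * cd3 E3) * ENNReal.ofReal (cd3 E3) *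
        (36 * ∑ m ∈ caps ρ, ∫⁻ y in S m, u m y * W j (Q m) y) := by
        gcongr
        exact sum_near_le hρ _
    _ = ENNReal.ofReal (K ^ 2 * 36 * cd3 E3) * ENNReal.ofReal (cd3 E3) *
        (36 * ∑' k, ENNReal.ofReal (th j k) * enc ρ g (fun m => S' m ∩ Q m k)) := by
        congr 2
        unfold enc
        simp only [Finset.mul_sum]
        rw [Summable.tsum_finsetSum fun _ _ => ENNReal.summable]
        refine Finset.sum_congr rfl fun m hm => ?_
        rw [lint_W j (hSm m hm) (hQm m) (hum m)]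
        refine tsum_congr fun k => ?_
        rw [hS'e m hm]
    _ ≤ ENNReal.ofReal (K ^ 2 * 36 * cd3 E3) * ENNReal.ofReal (cd3 E3) *
        (36 * ∑' k, ENNReal.ofReal (th j k * (128 * M * 4 ^ k) ^ p) *
          ENNReal.ofReal (Cs * (D * s2 ^ q * scost κ s1 s2 r))) := by
        refine mul_le_mul_right (mul_le_mul_right (ENNReal.tsum_le_tsum fun k => ?_) _) _
        refine (mul_le_mul_right (hdens k) _).trans (le_of_eq ?_)
        have h1 : (0:ℝ) ≤ (128 * M * 4 ^ k) ^ p := by positivity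
        rw [ENNReal.ofReal_mul (th_nonneg j k), mul_assoc (ENNReal.ofReal (th j k)),
          ← ENNReal.ofReal_mul h1]
        congr 2
        ring
    _ = _ := by
        rw [ENNReal.tsum_mul_right, hj, tsum_th p (128 * M) (by positivity)]
        have e36 : (36 : ℝ≥0∞) = ENNReal.ofReal 36 := by norm_num
        rw [e36, ← ENNReal.ofReal_mul (by positivity), ← ENNReal.ofReal_mul (by positivity),
          ← ENNReal.ofReal_mul (by positivity), ← ENNReal.ofReal_mul (by positivity)]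
        congr 1
        ring

end Crest.Agent.R116.Sub387
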