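import Crest.Agent.R116.Sup0_858
import Crest.Agent.R116.Ba2_449
import Crest.Agent.R116.DomC_210

/-!
# R116 (S0155), wave side, **A2k** (SUP of the cone), part 1: Jensen, densities (helper858)
-/

set_option autoImplicit false

open MeasureTheory FourierTransform
open scoped ContDiff ENNReal

namespace Crest.Agent.R116.Sup858

open Crest.Agent.R138.Defs (E2 ee)
open Crest.Agent.R138.Wpk685 (cen caps)
open Crest.Agent.R116.CDef480 Crest.Agent.R116.WC188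
open Crest.Agent.R116.LZg725 (Cf)
open Crest.Agent.R116.CWp480 Crest.Agent.R116.CWc480
open Crest.Agent.R138.Wf448 (adet)

/-! ### Jensen -/

theorem jensen32 {α : Type*} [MeasurableSpace α] (μ : Measure α) {K F : α → ℝ≥0∞}
    (hK : AEMeasurable K μ) (hF : AEMeasurable F μ) :
    (∫⁻ x, K x * F x ∂μ) ^ (3/2 : ℝ) ≤
      (∫⁻ x, K x ∂μ) ^ (1/2 : ℝ) * ∫⁻ x, K x * F x ^ (3/2 : ℝ) ∂μ := by
  have hpq : (3 : ℝ).HolderConjugate (3/2) := by
    rw [Real.holderConjugate_iff]; norm_num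
  have h1 := ENNReal.lintegral_mul_le_Lp_mul_Lq μ hpq
    (f := fun x => K x ^ (1/3 : ℝ)) (g := fun x => K x ^ (2/3 : ℝ) * F x)
    (hK.pow_const _) ((hK.pow_const _).mul hF)
  have e1 : ∀ x, ((fun x => K x ^ (1/3 : ℝ)) * fun x => K x ^ (2/3 : ℝ) * F x) x = K x * F x := by
    intro x
    simp only [Pi.mul_apply]
    rw [← mul_assoc, ← ENNReal.rpow_add_of_nonneg _ _ (by norm_num) (by norm_num)]
    norm_num
  have e2 : ∀ x, (K x ^ (1/3 : ℝ)) ^ (3:ℝ) = K x := by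
    intro x
    rw [← ENNReal.rpow_mul]; norm_num
  have e3 : ∀ x, (K x ^ (2/3 : ℝ) * F x) ^ (3/2:ℝ) = K x * F x ^ (3/2 : ℝ) := by
    intro x
    rw [ENNReal.mul_rpow_of_nonneg _ _ (by norm_num), ← ENNReal.rpow_mul]; norm_num
  simp only [e1, e2, e3] at h1
  calc (∫⁻ x, K x * F x ∂μ) ^ (3/2 : ℝ) ≤ ((∫⁻ x, K x ∂μ) ^ (1/(3:ℝ)) *
        (∫⁻ x, K x * F x ^ (3/2 : ℝ) ∂μ) ^ (1/(3/2:ℝ))) ^ (3/2 : ℝ) :=
        ENNReal.rpow_le_rpow h1 (by norm_num)
    _ = _ := by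
        rw [ENNReal.mul_rpow_of_nonneg _ _ (by norm_num), ← ENNReal.rpow_mul, ← ENNReal.rpow_mul]
        norm_num

theorem hoelder32 {α : Type*} [MeasurableSpace α] (μ : Measure α) {F : α → ℝ≥0∞}
    (hF : AEMeasurable F μ) {V : Set α} (hV : ∀ x, F x ≠ 0 → x ∈ V) :
    (∫⁻ x, F x ∂μ) ^ (3/2 : ℝ) ≤ (μ V) ^ (1/2 : ℝ) * ∫⁻ x, F x ^ (3/2 : ℝ) ∂μ := by
  have hm := measurableSet_toMeasurable μ V
  have h1 := jensen32 μ (K := (toMeasurable μ V).indicator 1) (F := F)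
    ((measurable_one.indicator hm).aemeasurable) hF
  have e1 : ∀ x, (toMeasurable μ V).indicator (1 : α → ℝ≥0∞) x * F x = F x := by
    intro x
    by_cases hx : F x = 0
    · rw [hx, mul_zero]
    · rw [Set.indicator_of_mem (subset_toMeasurable μ V (hV x hx))]; simp
  have e2 : ∀ x, (toMeasurable μ V).indicator (1 : α → ℝ≥0∞) x * F x ^ (3/2 : ℝ) =
      F x ^ (3/2 : ℝ) := by
    intro x
    by_cases hx : F x = 0
    · rw [hx, ENNReal.zero_rpow_of_pos (by norm_num), mul_zero]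
    · rw [Set.indicator_of_mem (subset_toMeasurable μ V (hV x hx))]; simp
  simp only [e1, e2] at h1
  rw [lintegral_indicator_one hm, measure_toMeasurable] at h1
  exact h1

theorem sum_pow32_le {ι : Type*} (s : Finset ι) (f : ι → ℝ≥0∞) :
    ∑ i ∈ s, f i ^ (3/2 : ℝ) ≤ (∑ i ∈ s, f i) ^ (3/2 : ℝ) := by
  classical
  induction s using Finset.induction_on with
  | empty => simp
  | insert a s ha ih =>
    rw [Finset.sum_insert ha, Finset.sum_insert ha]
    calc f a ^ (3/2 : ℝ) + ∑ i ∈ s, f i ^ (3/2 : ℝ) ≤ f a ^ (3/2 : ℝ) + (∑ i ∈ s, f i) ^ (3/2 : ℝ) :=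
          add_le_add le_rfl ih
      _ ≤ _ := ENNReal.add_rpow_le_rpow_add _ _ (by norm_num)

/-! ### box norms -/

theorem bn_eq {l k : ℝ} (hl : 0 < l) (hk : 0 < k) (C : E2) (Z : E3) :
    bn l k C Z = ‖Pl l k hl hk C Z‖ := by
  unfold bn
  rw [Pl_apply]
  unfold nrm
  congr 3
  ring

theorem bn_nonneg (l k : ℝ) (C : E2) (Z : E3) : 0 ≤ bn l k C Z := norm_nonneg _

theorem bn_lat {l k : ℝ} (hl : 0 < l) (C : E2) (Z : E3) : l * ‖lat Z‖ ≤ bn l k C Z := by
  unfold bn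
  have h := norm_lat_le (pt (l • lat Z) (k * nrm C Z 0))
  rwa [lat_pt, norm_smul, Real.norm_eq_abs, abs_of_pos hl] at h

theorem bn_nrm {l k : ℝ} (hk : 0 < k) (C : E2) (Z : E3) : k * |nrm C Z 0| ≤ bn l k C Z := by
  unfold bn
  have h := abs_two_le (pt (l • lat Z) (k * nrm C Z 0))
  rwa [pt_two, abs_mul, abs_of_pos hk] at h

theorem bn_le {l k : ℝ} (hl : 0 < l) (hk : 0 < k) (C : E2) (Z : E3) :
    bn l k C Z ≤ l * ‖lat Z‖ + k * |nrm C Z 0| := by
  unfold bn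
  refine (norm_pt_le _ _).trans (le_of_eq ?_)
  rw [norm_smul, Real.norm_eq_abs, abs_of_pos hl, abs_mul, abs_of_pos hk]

theorem continuous_nrm0 (C : E2) : Continuous fun Z : E3 => nrm C Z 0 := by
  unfold nrm
  have h1 : Continuous fun Z : E3 => Z 2 := (EuclideanSpace.proj (𝕜 := ℝ) (2 : Fin 3)).continuous
  have h2 : Continuous fun Z : E3 => lat Z := latL.continuous
  exact (h1.add (continuous_const.inner h2)).add continuous_const

theorem continuous_pt : Continuous fun p : E2 × ℝ => pt p.1 p.2 := by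
  unfold pt
  refine (EuclideanSpace.equiv (Fin 3) ℝ).symm.continuous.comp ?_
  refine continuous_pi fun i => ?_
  have h0 : Continuous fun p : E2 × ℝ => p.1 0 :=
    (EuclideanSpace.proj (𝕜 := ℝ) (0 : Fin 2)).continuous.comp continuous_fst
  have h1 : Continuous fun p : E2 × ℝ => p.1 1 :=
    (EuclideanSpace.proj (𝕜 := ℝ) (1 : Fin 2)).continuous.comp continuous_fst
  fin_cases i
  · exact h0
  · exact h1
  · exact continuous_snd

theorem continuous_bn (l k : ℝ) (C : E2) : Continuous (bn l k C) := by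
  unfold bn
  have h2 : Continuous fun Z : E3 => lat Z := latL.continuous
  exact (continuous_pt.comp ((h2.const_smul l).prodMk
    ((continuous_nrm0 C).const_mul k))).norm

/-- the volume scale of the box metric. -/
noncomputable def vs (l k : ℝ) (C : E2) : ℝ := if h : 0 < l ∧ 0 < k then
  adet (Pl l k h.1 h.2 C : E3 →L[ℝ] E3) else 1

theorem vs_pos (l k : ℝ) (C : E2) : 0 < vs l k C := by
  unfold vs
  split_ifs with h
  · exact adet0 _
  · exact one_pos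

theorem lint_bn {l k : ℝ} (hl : 0 < l) (hk : 0 < k) (C : E2) (F : ℝ → ℝ≥0∞) (Y : E3) :
    ENNReal.ofReal (vs l k C) * ∫⁻ X, F (bn l k C (Y - X)) = ∫⁻ Z : E3, F ‖Z‖ := by
  have h1 := lintegral_scale (Pl l k hl hk C) (fun Z => F ‖Z‖) Y
  have e1 : ∀ X, F (bn l k C (Y - X)) = F ‖Pl l k hl hk C (Y - X)‖ := fun X => by
    rw [bn_eq hl hk]
  have e2 : vs l k C = adet (Pl l k hl hk C : E3 →L[ℝ] E3) := by
    unfold vs
    rw [dif_pos ⟨hl, hk⟩]
  simp only [e1, h1, e2]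
  rw [← mul_assoc, ← ENNReal.ofReal_mul (adet0 _).le, mul_inv_cancel₀ (adet0 _).ne',
    ENNReal.ofReal_one, one_mul]

theorem lint_bn' {l k : ℝ} (hl : 0 < l) (hk : 0 < k) (C : E2) (F : ℝ → ℝ≥0∞) (X : E3) :
    ENNReal.ofReal (vs l k C) * ∫⁻ Y, F (bn l k C (Y - X)) = ∫⁻ Z : E3, F ‖Z‖ := by
  have h1 := lintegral_scale' (Pl l k hl hk C) (fun Z => F ‖Z‖) X
  have e1 : ∀ Y, F (bn l k C (Y - X)) = F ‖Pl l k hl hk C (Y - X)‖ := fun Y => by
    rw [bn_eq hl hk]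
  have e2 : vs l k C = adet (Pl l k hl hk C : E3 →L[ℝ] E3) := by
    unfold vs
    rw [dif_pos ⟨hl, hk⟩]
  simp only [e1, h1, e2]
  rw [← mul_assoc, ← ENNReal.ofReal_mul (adet0 _).le, mul_inv_cancel₀ (adet0 _).ne',
    ENNReal.ofReal_one, one_mul]

end Crest.Agent.R116.Sup858
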