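import Crest.Agent.R116.SupL_858

/-!
# R116 (S0155), wave side, **A2k** (SUP of the cone), part 2: box densities of selections (helper858)
-/

set_option autoImplicit false

open MeasureTheory FourierTransform
open scoped ContDiff ENNReal

namespace Crest.Agent.R116.Sup858

open Crest.Agent.R138.Defs (E2 ee)
open Crest.Agent.R138.Wpk685 (cen caps)
open Crest.Agent.R116.CDef480 Crest.Agent.R116.WC188
open Crest.Agent.R116.LZg725 (Cf)
open Crest.Agent.R116.CWp480 Crest.Agent.R116.CWc480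
open Crest.Agent.R138.Wf448 (adet)
open Crest.Agent.R116.GlC210 (Gdc measurable_umcsq)

theorem adet_Pl {l k : ℝ} (hl : 0 < l) (hk : 0 < k) (C : E2) :
    adet (Pl l k hl hk C : E3 →L[ℝ] E3) = l ^ 2 * k := by
  unfold adet
  have h : LinearMap.det ((Pl l k hl hk C : E3 →L[ℝ] E3) : E3 →ₗ[ℝ] E3) = l ^ 2 * k := by
    rw [← LinearMap.det_toMatrix (EuclideanSpace.basisFun (Fin 3) ℝ).toBasis,
      Matrix.det_fin_three]
    simp only [LinearMap.toMatrix_apply, OrthonormalBasis.coe_toBasis,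
      OrthonormalBasis.coe_toBasis_repr_apply, EuclideanSpace.basisFun_apply,
      EuclideanSpace.basisFun_repr]
    have e : ∀ X : E3, ((Pl l k hl hk C : E3 →L[ℝ] E3) : E3 →ₗ[ℝ] E3) X =
      pt (l • lat X) (k * (X 2 + inner ℝ C (lat X))) := fun X => rfl
    simp only [e, pt_zero, pt_one, pt_two, PiLp.smul_apply, lat_zero, lat_one, smul_eq_mul, inner2,
      PiLp.single_apply]
    simp
    left; ring
  rw [h, abs_of_pos (by positivity)]

/-- the unit box. -/
def ub (l k : ℝ) (C : E2) : Set E3 := {Z | bn l k C Z ≤ 1}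

theorem meas_ub (l k : ℝ) (C : E2) : MeasurableSet (ub l k C) :=
  (isClosed_le (continuous_bn l k C) continuous_const).measurableSet

/-- box density of a selection. -/
noncomputable def bden (ρ l k : ℝ) (C : E2) (g : E3 → ℂ) (S : ℤ × ℤ → Set E3) (p : E3 × ℝ) :
    ℝ≥0∞ :=
  ∑ m ∈ caps ρ, ∫⁻ Y in S m, (ub l k C).indicator 1 (Y - p.2 • vel (cen ρ m) - p.1) *
    ‖umc ρ g m Y‖ₑ ^ 2

theorem meas_mv (v : E3) : Measurable fun q : (E3 × ℝ) × E3 => q.2 - q.1.2 • v - q.1.1 :=
  (measurable_snd.sub ((measurable_snd.comp measurable_fst).smul_const v)).sub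
    (measurable_fst.comp measurable_fst)

theorem measurable_bden {ρ l k : ℝ} {C : E2} {g : E3 → ℂ} (hg : Integrable g)
    (S : ℤ × ℤ → Set E3) : Measurable (bden ρ l k C g S) := by
  unfold bden
  refine Finset.measurable_sum _ fun m _ => ?_
  refine Measurable.lintegral_prod_right' (ν := volume.restrict (S m))
    (f := fun q : (E3 × ℝ) × E3 => (ub l k C).indicator (1 : E3 → ℝ≥0∞)
      (q.2 - q.1.2 • vel (cen ρ m) - q.1.1) * ‖umc ρ g m q.2‖ₑ ^ 2) ?_
  exact ((measurable_one.indicator (meas_ub l k C)).comp (meas_mv _)).mul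
    ((measurable_umcsq (ρ := ρ) hg m).comp measurable_snd)

/-- total mass of the box density at one time. -/
theorem lint_bden {ρ l k : ℝ} (hl : 0 < l) (hk : 0 < k) {C : E2} {g : E3 → ℂ} (hg : Integrable g)
    (S : ℤ × ℤ → Set E3) (s : ℝ) :
    ENNReal.ofReal (vs l k C) * ∫⁻ X, bden ρ l k C g S (X, s) =
      ENNReal.ofReal (vb E3) * enc ρ g S := by
  have hvb : ∫⁻ Z : E3, (fun t : ℝ => (Set.Iic (1:ℝ)).indicator (1 : ℝ → ℝ≥0∞) t) ‖Z‖ =
      ENNReal.ofReal (vb E3) := by
    rw [← vb_eq]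
    have e : (fun Z : E3 => (Set.Iic (1:ℝ)).indicator (1 : ℝ → ℝ≥0∞) ‖Z‖) =
        (Metric.closedBall (0 : E3) 1).indicator 1 := by
      funext Z
      by_cases h : ‖Z‖ ≤ 1
      · rw [Set.indicator_of_mem (by exact h), Set.indicator_of_mem (by simpa using h)]; rfl
      · rw [Set.indicator_of_notMem (by exact h), Set.indicator_of_notMem (by simpa using h)]
    simp only [e]
    exact lintegral_indicator_one Metric.isClosed_closedBall.measurableSet
  have hind : ∀ Z, (ub l k C).indicator (1 : E3 → ℝ≥0∞) Z =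
      (fun t : ℝ => (Set.Iic (1:ℝ)).indicator (1 : ℝ → ℝ≥0∞) t) (bn l k C Z) := by
    intro Z
    by_cases h : bn l k C Z ≤ 1
    · rw [Set.indicator_of_mem (by exact h)]
      simp only
      rw [Set.indicator_of_mem (by exact h)]; rfl
    · rw [Set.indicator_of_notMem (by exact h)]
      simp only
      rw [Set.indicator_of_notMem (by exact h)]
  unfold bden
  rw [lintegral_finsetSum', Finset.mul_sum]
  · unfold enc
    rw [Finset.mul_sum]
    refine Finset.sum_congr rfl fun m _ => ?_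
    rw [lintegral_lintegral_swap]
    · rw [← lintegral_const_mul' _ _ ENNReal.ofReal_ne_top,
        ← lintegral_const_mul' _ _ ENNReal.ofReal_ne_top]
      refine lintegral_congr fun Y => ?_
      have h1 : Measurable fun X : E3 => (ub l k C).indicator (1 : E3 → ℝ≥0∞)
          (Y - s • vel (cen ρ m) - X) :=
        (measurable_one.indicator (meas_ub l k C)).comp (measurable_const.sub measurable_id)
      rw [lintegral_mul_const _ h1, ← mul_assoc]
      congr 1
      simp only [hind]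
      rw [lint_bn hl hk C, hvb]
    · have h2 : Measurable fun q : E3 × E3 => ((q.1, s), q.2) := by fun_prop
      have h3 := (((measurable_one.indicator (meas_ub l k C)).comp
        (meas_mv (vel (cen ρ m)))).mul ((measurable_umcsq (ρ := ρ) hg m).comp measurable_snd)).comp h2
      exact h3.aemeasurable
  · intro m _
    have h2 : Measurable fun q : E3 × E3 => ((q.1, s), q.2) := by fun_prop
    have h3 := (((measurable_one.indicator (meas_ub l k C)).comp
      (meas_mv (vel (cen ρ m)))).mul ((measurable_umcsq (ρ := ρ) hg m).comp measurable_snd)).comp h2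
    exact (Measurable.lintegral_prod_right' (ν := volume.restrict (S m)) h3).aemeasurable

/-- points charged by the density. -/
theorem bden_ne {ρ l k : ℝ} {C : E2} {g : E3 → ℂ} {S : ℤ × ℤ → Set E3} {p : E3 × ℝ}
    (hS : ∀ m, MeasurableSet (S m)) (h : bden ρ l k C g S p ≠ 0) :
    ∃ m ∈ caps ρ, ∃ Y ∈ S m, bn l k C (Y - p.2 • vel (cen ρ m) - p.1) ≤ 1 := by
  by_contra hc
  push Not at hc
  apply h
  unfold bden
  refine Finset.sum_eq_zero fun m hm => ?_
  rw [← lintegral_zero (μ := volume.restrict (S m))]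
  refine setLIntegral_congr_fun (hS m) fun Y hY => ?_
  have h1 : Y - p.2 • vel (cen ρ m) - p.1 ∉ ub l k C := fun hh => (not_lt.2 hh) (hc m hm Y hY)
  rw [Set.indicator_of_notMem h1, zero_mul]

/-- one plate: energy to the power `3/2` against the density. -/
theorem enc32_le {ρ l k : ℝ} (hl : 0 < l) (hk : 0 < k) {C : E2} {g : E3 → ℂ} (hg : Integrable g)
    {S : ℤ × ℤ → Set E3} {s : ℝ} {V : Set E3}
    (hV : ∀ X, bden ρ l k C g S (X, s) ≠ 0 → X ∈ V) :
    (ENNReal.ofReal (vb E3) * enc ρ g S) ^ (3/2 : ℝ) ≤ volume V ^ (1/2 : ℝ) *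
      ∫⁻ X, (ENNReal.ofReal (vs l k C) * bden ρ l k C g S (X, s)) ^ (3/2 : ℝ) := by
  rw [← lint_bden hl hk hg S s, ← lintegral_const_mul' _ _ ENNReal.ofReal_ne_top]
  refine hoelder32 volume ?_ ?_
  · exact (((measurable_bden hg S).comp (measurable_id.prodMk measurable_const)).const_mul
      _).aemeasurable
  · intro X hX
    exact hV X (right_ne_zero_of_mul hX)

theorem measurable_wden {ρ l k : ℝ} {n : ℕ} {C : E2} {g : E3 → ℂ} (hg : Integrable g) :
    Measurable (wden ρ l k n C g) := by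
  unfold wden
  refine Finset.measurable_sum _ fun m _ => ?_
  refine Measurable.lintegral_prod_right' (ν := volume)
    (f := fun q : (E3 × ℝ) × E3 => ENNReal.ofReal
      (((1 + bn l k C (q.2 - q.1.2 • vel (cen ρ m) - q.1.1)) ^ n)⁻¹) * ‖umc ρ g m q.2‖ₑ ^ 2) ?_
  refine Measurable.mul ?_ ((measurable_umcsq (ρ := ρ) hg m).comp measurable_snd)
  exact ((((continuous_bn l k C).measurable.comp (meas_mv _)).const_add 1).pow_const
    n).inv.ennreal_ofReal

/-- the densities of disjoint selections add up to the full weighted density. -/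
theorem sum_bden_le {ρ l k : ℝ} {C : E2} {g : E3 → ℂ} {ι : Type*} (I : Finset ι)
    (S : ι → ℤ × ℤ → Set E3) (hS : ∀ i ∈ I, ∀ m, MeasurableSet (S i m))
    (hd : ∀ i ∈ I, ∀ j ∈ I, i ≠ j → ∀ m, Disjoint (S i m) (S j m)) (n : ℕ) (p : E3 × ℝ) :
    ∑ i ∈ I, bden ρ l k C g (S i) p ≤ ENNReal.ofReal (2 ^ n) * wden ρ l k n C g p := by
  unfold bden wden
  rw [Finset.sum_comm, Finset.mul_sum]
  refine Finset.sum_le_sum fun m _ => ?_
  have h1 : ∑ i ∈ I, ∫⁻ Y in S i m, (ub l k C).indicator (1 : E3 → ℝ≥0∞)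
      (Y - p.2 • vel (cen ρ m) - p.1) * ‖umc ρ g m Y‖ₑ ^ 2 =
      ∫⁻ Y in ⋃ i ∈ I, S i m, (ub l k C).indicator (1 : E3 → ℝ≥0∞)
      (Y - p.2 • vel (cen ρ m) - p.1) * ‖umc ρ g m Y‖ₑ ^ 2 := by
    rw [lintegral_biUnion_finset (fun i hi j hj hij => hd i hi j hj hij m)
      (fun i hi => hS i hi m)]
  rw [h1, ← lintegral_const_mul' _ _ ENNReal.ofReal_ne_top]
  refine (setLIntegral_le_lintegral _ _).trans (lintegral_mono fun Y => ?_)
  rw [← mul_assoc, ← ENNReal.ofReal_mul (by positivity)]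
  refine mul_le_mul_left ?_ _
  by_cases h : bn l k C (Y - p.2 • vel (cen ρ m) - p.1) ≤ 1
  · rw [Set.indicator_of_mem (by exact h), Pi.one_apply, ← ENNReal.ofReal_one]
    refine ENNReal.ofReal_le_ofReal ?_
    have h0 := bn_nonneg l k C (Y - p.2 • vel (cen ρ m) - p.1)
    rw [← div_eq_mul_inv, le_div_iff₀ (by positivity), one_mul]
    gcongr
    linarith
  · rw [Set.indicator_of_notMem (by exact h)]
    exact zero_le

end Crest.Agent.R116.Sup858
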