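import Crest.Agent.R116.Sup2_858

/-!
# R116 (S0155), wave side, **A2k** (SUP of the cone), part 3: densities against plate averages,
Jensen, tails (helper858)
-/

set_option autoImplicit false

open MeasureTheory FourierTransform
open scoped ContDiff ENNReal

namespace Crest.Agent.R116.Sup858

open Crest.Agent.R138.Defs (E2 ee)
open Crest.Agent.R138.Wpk685 (cen caps)
open Crest.Agent.R116.CDef480 Crest.Agent.R116.WC188
open Crest.Agent.R116.LZg725 (Cf)
open Crest.Agent.R116.CWp480 Crest.Agent.R116.CWc480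
open Crest.Agent.R138.Wf448 (adet)
open Crest.Agent.R116.GlC210 (Gdc measurable_umcsq)

/-! ### measurability of the plate averages -/

theorem continuous_nrm (C : E2) : Continuous fun p : E3 × ℝ => nrm C p.1 p.2 := by
  unfold nrm
  have h1 : Continuous fun p : E3 × ℝ => p.1 2 :=
    (EuclideanSpace.proj (𝕜 := ℝ) (2 : Fin 3)).continuous.comp continuous_fst
  have h2 : Continuous fun p : E3 × ℝ => lat p.1 := latL.continuous.comp continuous_fst
  exact (h1.add (continuous_const.inner h2)).add ((continuous_snd.mul continuous_const).div_const _)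

theorem closed_plt (w t : ℝ) (C : E2) :
    IsClosed {q : (E3 × ℝ) × E3 | q.2 ∈ plt w t C q.1.1 q.1.2} := by
  unfold plt
  have h1 : Continuous fun q : (E3 × ℝ) × E3 => ‖lat q.2 - (lat q.1.1 + q.1.2 • C)‖ := by
    have a1 : Continuous fun q : (E3 × ℝ) × E3 => lat q.2 := latL.continuous.comp continuous_snd
    have a2 : Continuous fun q : (E3 × ℝ) × E3 => lat q.1.1 :=
      latL.continuous.comp (continuous_fst.comp continuous_fst)
    have a3 : Continuous fun q : (E3 × ℝ) × E3 => q.1.2 • C :=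
      (continuous_snd.comp continuous_fst).smul continuous_const
    exact (a1.sub (a2.add a3)).norm
  have h2 : Continuous fun q : (E3 × ℝ) × E3 => |nrm C q.2 0 - nrm C q.1.1 q.1.2| := by
    have a1 : Continuous fun q : (E3 × ℝ) × E3 => nrm C q.2 0 :=
      (continuous_nrm0 C).comp continuous_snd
    have a2 : Continuous fun q : (E3 × ℝ) × E3 => nrm C q.1.1 q.1.2 :=
      (continuous_nrm C).comp continuous_fst
    exact (a1.sub a2).abs
  exact (isClosed_le h1 continuous_const).inter (isClosed_le h2 continuous_const)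

theorem meas_plt (w t : ℝ) (C : E2) (X : E3) (s : ℝ) : MeasurableSet (plt w t C X s) := by
  have h := (closed_plt w t C).measurableSet
  have h2 : Measurable fun Y : E3 => ((X, s), Y) := by fun_prop
  exact h2 h

theorem measurable_apl {r : ℝ} {g : E3 → ℂ} (hg : Integrable g) : Measurable (apl r g) := by
  unfold apl
  refine Measurable.const_mul (Finset.measurable_sum _ fun m _ => ?_) _
  have e : ∀ p : E3 × ℝ, ∫⁻ Y in plt (r ^ (1/2 : ℝ)) 1 (cen (r ^ (-(1/2) : ℝ)) m) p.1 p.2,
      ‖umc (r ^ (-(1/2) : ℝ)) g m Y‖ₑ ^ 2 =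
      ∫⁻ Y, {q : (E3 × ℝ) × E3 | q.2 ∈ plt (r ^ (1/2 : ℝ)) 1 (cen (r ^ (-(1/2) : ℝ)) m)
        q.1.1 q.1.2}.indicator (fun q => ‖umc (r ^ (-(1/2) : ℝ)) g m q.2‖ₑ ^ 2) (p, Y) := by
    intro p
    rw [← lintegral_indicator (meas_plt _ _ _ _ _)]
    refine lintegral_congr fun Y => ?_
    by_cases h : Y ∈ plt (r ^ (1/2 : ℝ)) 1 (cen (r ^ (-(1/2) : ℝ)) m) p.1 p.2
    · rw [Set.indicator_of_mem h, Set.indicator_of_mem (by exact h)]
    · rw [Set.indicator_of_notMem h, Set.indicator_of_notMem (by exact h)]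
  simp only [e]
  refine Measurable.lintegral_prod_right' (ν := volume) ?_
  exact ((measurable_umcsq hg m).comp measurable_snd).indicator (closed_plt _ _ _).measurableSet

/-! ### box norms, again -/

theorem bn_sub_comm (l k : ℝ) (C : E2) (X Y : E3) : bn l k C (X - Y) = bn l k C (Y - X) := by
  unfold bn nrm
  rw [lat_sub, lat_sub, ← norm_neg]
  congr 1
  ext i
  fin_cases i
  · simp [lat]; ring
  · simp [lat]; ring
  · simp only [Fin.reduceFinMk, PiLp.neg_apply, pt_two, PiLp.sub_apply, inner_sub_right]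
    ring

theorem bn_triangle {l k : ℝ} (hl : 0 < l) (hk : 0 < k) (C : E2) (X Y : E3) :
    bn l k C (X + Y) ≤ bn l k C X + bn l k C Y := by
  rw [bn_eq hl hk, bn_eq hl hk, bn_eq hl hk, map_add]
  exact norm_add_le _ _

/-- a plate at the point `V` contains the unit box of its own size. -/
theorem mem_plt_of_bn {w : ℝ} (hw : 0 < w) {C : E2} {X Y : E3} {s : ℝ}
    (h : bn w⁻¹ 1 C (Y - s • vel C - X) ≤ 1) : Y ∈ plt w 1 C X s := by
  have h1 := bn_lat (l := w⁻¹) (k := 1) (inv_pos.2 hw) C (Y - s • vel C - X)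
  have h2 := bn_nrm (l := w⁻¹) (k := 1) one_pos C (Y - s • vel C - X)
  constructor
  · have h3 : w⁻¹ * ‖lat (Y - s • vel C - X)‖ ≤ 1 := h1.trans h
    rw [inv_mul_le_iff₀ hw, mul_one] at h3
    have e : lat Y - (lat X + s • C) = lat (Y - s • vel C - X) := by
      rw [lat_sub, lat_sub, lat_smul]
      unfold vel
      rw [lat_pt]
      abel
    rw [e]
    exact h3
  · have h3 : 1 * |nrm C (Y - s • vel C - X) 0| ≤ 1 := h2.trans h
    rw [one_mul] at h3
    have e : nrm C Y 0 - nrm C X s = nrm C (Y - s • vel C - X) 0 := by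
      unfold nrm vel
      rw [lat_sub, lat_sub, lat_smul, lat_pt, inner_sub_right, inner_sub_right, inner_smul_right,
        real_inner_self_eq_norm_sq]
      simp only [PiLp.sub_apply, PiLp.smul_apply, smul_eq_mul, pt_two]
      ring
    rw [e]
    exact h3

/-- the profile of the averages. -/
noncomputable def Kb (l k : ℝ) (n : ℕ) (C : E2) (Z : E3) : ℝ≥0∞ :=
  ENNReal.ofReal (vs l k C) * ENNReal.ofReal (((1 + bn l k C Z) ^ n)⁻¹)

theorem measurable_Kb (l k : ℝ) (n : ℕ) (C : E2) : Measurable (Kb l k n C) :=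
  ((((continuous_bn l k C).measurable.const_add 1).pow_const n).inv.ennreal_ofReal).const_mul _

/-- **the weighted density is an average of the plate averages.** -/
theorem wden_le_apl {l k : ℝ} (hl : 0 < l) (hk : 0 < k) (hk1 : k ≤ 1) {C : E2} {L : ℝ} (hL : 0 ≤ L)
    (n : ℕ) {r : ℝ} (hr : 1 ≤ r) (hlr : l ≤ r ^ (-(1/2) : ℝ)) {g : E3 → ℂ} (hg : Integrable g)
    (hnear : ∀ m ∈ caps (r ^ (-(1/2) : ℝ)), k * ‖cen (r ^ (-(1/2) : ℝ)) m - C‖ ≤ L * l ∨
      ∀ ζ, capc (r ^ (-(1/2) : ℝ)) m ζ * g ζ = 0) (X : E3) (s : ℝ) :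
    ENNReal.ofReal (vs l k C) * wden (r ^ (-(1/2) : ℝ)) l k n C g (X, s) ≤
      ENNReal.ofReal ((L + 3) ^ n / vb E3) * ∫⁻ X', Kb l k n C (X' - X) * apl r g (X', s) := by
  have hr0 : 0 < r := by linarith
  have hvb := vb_pos (V := E3)
  set ρ : ℝ := r ^ (-(1/2) : ℝ) with hρdef
  have hρ : 0 < ρ := Real.rpow_pos_of_pos hr0 _
  have hρw : (r ^ (1/2 : ℝ))⁻¹ = ρ := by rw [hρdef, ← Real.rpow_neg hr0.le]
  have hw : 0 < r ^ (1/2 : ℝ) := Real.rpow_pos_of_pos hr0 _
  have hρ2 : ρ ^ 2 = r⁻¹ := by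
    rw [hρdef, ← Real.rpow_natCast, ← Real.rpow_mul hr0.le]
    norm_num
    rw [Real.rpow_neg_one]
  -- lower bound of `apl`
  set P : ℤ × ℤ → E3 → ℝ≥0∞ := fun m X' => ∫⁻ Y, (ub ρ 1 (cen ρ m)).indicator (1 : E3 → ℝ≥0∞)
    (Y - s • vel (cen ρ m) - X') * ‖umc ρ g m Y‖ₑ ^ 2 with hP
  have hPm : ∀ m, Measurable (P m) := by
    intro m
    rw [hP]
    have h2 : Measurable fun q : E3 × E3 => ((q.1, s), q.2) := by fun_prop
    have h3 := (((measurable_one.indicator (meas_ub ρ 1 (cen ρ m))).comp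
      (meas_mv (vel (cen ρ m)))).mul ((measurable_umcsq (ρ := ρ) hg m).comp measurable_snd)).comp h2
    exact Measurable.lintegral_prod_right' (ν := volume) h3
  have hapl : ∀ X', ENNReal.ofReal r⁻¹ * ∑ m ∈ caps ρ, P m X' ≤ apl r g (X', s) := by
    intro X'
    unfold apl
    refine mul_le_mul_right (Finset.sum_le_sum fun m _ => ?_) _
    rw [hP, ← lintegral_indicator (meas_plt _ _ _ _ _)]
    refine lintegral_mono fun Y => ?_
    simp only
    by_cases h : Y - s • vel (cen ρ m) - X' ∈ ub ρ 1 (cen ρ m)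
    · rw [Set.indicator_of_mem h, Pi.one_apply, one_mul, Set.indicator_of_mem]
      refine mem_plt_of_bn hw ?_
      rw [hρw]
      exact h
    · rw [Set.indicator_of_notMem h, zero_mul]
      exact zero_le
  -- one cap
  have hone : ∀ m ∈ caps ρ, ENNReal.ofReal (vs l k C) * ∫⁻ Y, ENNReal.ofReal
      (((1 + bn l k C (Y - s • vel (cen ρ m) - X)) ^ n)⁻¹) * ‖umc ρ g m Y‖ₑ ^ 2 ≤
      ENNReal.ofReal ((L + 3) ^ n / vb E3) * ∫⁻ X', Kb l k n C (X' - X) *
        (ENNReal.ofReal r⁻¹ * P m X') := by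
    intro m hm
    rcases hnear m hm with hnr | hz
    swap
    · have hu : ∀ y, umc ρ g m y = 0 := by
        intro y
        unfold umc
        rw [show (fun ζ => capc ρ m ζ * g ζ) = fun _ => (0:ℂ) from funext hz]
        rw [Real.fourierInv_eq']
        simp
      simp [hu]
    have hdom : ∀ Z, bn l k C Z ≤ (L + 2) * bn ρ 1 (cen ρ m) Z := by
      intro Z
      rw [bn_eq hl hk, bn_eq hρ one_pos]
      exact Pl_dom hl hk hk1 hρ hlr hL hnr Z
    -- the mass of the small box
    have hmass : ∀ V : E3, ENNReal.ofReal r⁻¹ * ∫⁻ X', (ub ρ 1 (cen ρ m)).indicator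
        (1 : E3 → ℝ≥0∞) (V - X') = ENNReal.ofReal (vb E3) := by
      intro V
      have h1 := lint_bn (l := ρ) (k := 1) hρ one_pos (cen ρ m)
        (fun t : ℝ => (Set.Iic (1:ℝ)).indicator (1 : ℝ → ℝ≥0∞) t) V
      have e1 : vs ρ 1 (cen ρ m) = r⁻¹ := by
        unfold vs
        rw [dif_pos ⟨hρ, one_pos⟩, adet_Pl, hρ2, mul_one]
      have e2 : ∀ Z, (ub ρ 1 (cen ρ m)).indicator (1 : E3 → ℝ≥0∞) Z =
          (Set.Iic (1:ℝ)).indicator (1 : ℝ → ℝ≥0∞) (bn ρ 1 (cen ρ m) Z) := by
        intro Z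
        by_cases h : bn ρ 1 (cen ρ m) Z ≤ 1
        · rw [Set.indicator_of_mem (by exact h), Set.indicator_of_mem (by exact h)]; rfl
        · rw [Set.indicator_of_notMem (by exact h), Set.indicator_of_notMem (by exact h)]
      rw [e1] at h1
      simp only [e2, h1]
      rw [← vb_eq]
      have e : (fun Z : E3 => (Set.Iic (1:ℝ)).indicator (1 : ℝ → ℝ≥0∞) ‖Z‖) =
          (Metric.closedBall (0 : E3) 1).indicator 1 := by
        funext Z
        by_cases h : ‖Z‖ ≤ 1
        · rw [Set.indicator_of_mem (by exact h), Set.indicator_of_mem (by simpa using h)]; rfl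
        · rw [Set.indicator_of_notMem (by exact h), Set.indicator_of_notMem (by simpa using h)]
      simp only [e]
      exact lintegral_indicator_one Metric.isClosed_closedBall.measurableSet
    have hpt : ∀ Y : E3, ENNReal.ofReal (vs l k C) * (ENNReal.ofReal
        (((1 + bn l k C (Y - s • vel (cen ρ m) - X)) ^ n)⁻¹) * ‖umc ρ g m Y‖ₑ ^ 2) ≤
        ENNReal.ofReal ((L + 3) ^ n / vb E3) * ∫⁻ X', Kb l k n C (X' - X) * (ENNReal.ofReal r⁻¹ *
          ((ub ρ 1 (cen ρ m)).indicator (1 : E3 → ℝ≥0∞) (Y - s • vel (cen ρ m) - X') *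
            ‖umc ρ g m Y‖ₑ ^ 2)) := by
      intro Y
      set V : E3 := Y - s • vel (cen ρ m) with hV
      have h0 := bn_nonneg l k C (V - X)
      have hw1 : ∀ X', ENNReal.ofReal (vs l k C) * ENNReal.ofReal (((1 + bn l k C (V - X)) ^ n)⁻¹) *
          (ub ρ 1 (cen ρ m)).indicator (1 : E3 → ℝ≥0∞) (V - X') ≤ ENNReal.ofReal ((L + 3) ^ n) *
          (Kb l k n C (X' - X) * (ub ρ 1 (cen ρ m)).indicator (1 : E3 → ℝ≥0∞) (V - X')) := by
        intro X'
        by_cases h : V - X' ∈ ub ρ 1 (cen ρ m)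
        · rw [Set.indicator_of_mem h, Pi.one_apply, mul_one, mul_one]
          unfold Kb
          have e9 : ENNReal.ofReal ((L + 3) ^ n) * (ENNReal.ofReal (vs l k C) *
              ENNReal.ofReal (((1 + bn l k C (X' - X)) ^ n)⁻¹)) = ENNReal.ofReal (vs l k C) *
              ENNReal.ofReal ((L + 3) ^ n * ((1 + bn l k C (X' - X)) ^ n)⁻¹) := by
            rw [ENNReal.ofReal_mul (by positivity)]
            ring
          rw [e9]
          refine mul_le_mul_right (ENNReal.ofReal_le_ofReal ?_) _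
          have h3 : bn l k C (X' - X) ≤ (L + 2) + bn l k C (V - X) := by
            have e : X' - X = (X' - V) + (V - X) := by abel
            rw [e]
            refine (bn_triangle hl hk C _ _).trans (add_le_add ?_ le_rfl)
            rw [bn_sub_comm]
            refine (hdom _).trans ?_
            have : bn ρ 1 (cen ρ m) (V - X') ≤ 1 := h
            nlinarith
          have h4 := bn_nonneg l k C (X' - X)
          have h5 : 1 + bn l k C (X' - X) ≤ (L + 3) * (1 + bn l k C (V - X)) := by nlinarith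
          have h6 : (1 + bn l k C (X' - X)) ^ n ≤ (L + 3) ^ n * (1 + bn l k C (V - X)) ^ n := by
            rw [← mul_pow]
            gcongr
          rw [inv_eq_one_div, ← div_eq_mul_inv, div_le_div_iff₀ (by positivity) (by positivity)]
          linarith
        · rw [Set.indicator_of_notMem h, mul_zero]
          exact zero_le
      calc _ = ENNReal.ofReal (1 / vb E3) * ((ENNReal.ofReal (vs l k C) * ENNReal.ofReal
            (((1 + bn l k C (V - X)) ^ n)⁻¹)) * ENNReal.ofReal (vb E3)) * ‖umc ρ g m Y‖ₑ ^ 2 := by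
            have : ENNReal.ofReal (1 / vb E3) * ENNReal.ofReal (vb E3) = 1 := by
              rw [← ENNReal.ofReal_mul (by positivity), one_div, inv_mul_cancel₀ hvb.ne',
                ENNReal.ofReal_one]
            calc _ = (ENNReal.ofReal (1 / vb E3) * ENNReal.ofReal (vb E3)) *
                  (ENNReal.ofReal (vs l k C) * (ENNReal.ofReal
                  (((1 + bn l k C (V - X)) ^ n)⁻¹) * ‖umc ρ g m Y‖ₑ ^ 2)) := by rw [this, one_mul]
              _ = _ := by ring
        _ = ENNReal.ofReal (1 / vb E3) * (ENNReal.ofReal r⁻¹ * ∫⁻ X', (ENNReal.ofReal (vs l k C) *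
            ENNReal.ofReal (((1 + bn l k C (V - X)) ^ n)⁻¹) *
            (ub ρ 1 (cen ρ m)).indicator (1 : E3 → ℝ≥0∞) (V - X'))) * ‖umc ρ g m Y‖ₑ ^ 2 := by
            congr 2
            rw [lintegral_const_mul' _ _ (by
              refine ENNReal.mul_ne_top ENNReal.ofReal_ne_top ENNReal.ofReal_ne_top), ← hmass V]
            ring
        _ ≤ ENNReal.ofReal (1 / vb E3) * (ENNReal.ofReal r⁻¹ * ∫⁻ X', ENNReal.ofReal ((L + 3) ^ n) *
          (Kb l k n C (X' - X) * (ub ρ 1 (cen ρ m)).indicator (1 : E3 → ℝ≥0∞) (V - X'))) *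
          ‖umc ρ g m Y‖ₑ ^ 2 := by
            refine mul_le_mul_left (mul_le_mul_right (mul_le_mul_right
              (lintegral_mono hw1) _) _) _
        _ = _ := by
            rw [lintegral_const_mul' _ _ ENNReal.ofReal_ne_top]
            have e5 : ∀ X', Kb l k n C (X' - X) * (ENNReal.ofReal r⁻¹ *
                ((ub ρ 1 (cen ρ m)).indicator (1 : E3 → ℝ≥0∞) (V - X') * ‖umc ρ g m Y‖ₑ ^ 2)) =
                (ENNReal.ofReal r⁻¹ * ‖umc ρ g m Y‖ₑ ^ 2) * (Kb l k n C (X' - X) *
                (ub ρ 1 (cen ρ m)).indicator (1 : E3 → ℝ≥0∞) (V - X')) := fun X' => by ring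
            simp only [e5]
            rw [lintegral_const_mul' _ _ (by
              refine ENNReal.mul_ne_top ENNReal.ofReal_ne_top ?_
              exact ENNReal.pow_ne_top enorm_ne_top)]
            have e6 : ENNReal.ofReal ((L + 3) ^ n / vb E3) =
                ENNReal.ofReal (1 / vb E3) * ENNReal.ofReal ((L + 3) ^ n) := by
              rw [← ENNReal.ofReal_mul (by positivity)]
              congr 1
              ring
            rw [e6]
            ring
    calc _ = ∫⁻ Y, ENNReal.ofReal (vs l k C) * (ENNReal.ofReal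
        (((1 + bn l k C (Y - s • vel (cen ρ m) - X)) ^ n)⁻¹) * ‖umc ρ g m Y‖ₑ ^ 2) := by
          rw [lintegral_const_mul' _ _ ENNReal.ofReal_ne_top]
      _ ≤ ∫⁻ Y, ENNReal.ofReal ((L + 3) ^ n / vb E3) * ∫⁻ X', Kb l k n C (X' - X) *
          (ENNReal.ofReal r⁻¹ * ((ub ρ 1 (cen ρ m)).indicator (1 : E3 → ℝ≥0∞)
            (Y - s • vel (cen ρ m) - X') * ‖umc ρ g m Y‖ₑ ^ 2)) := lintegral_mono hpt
      _ = ENNReal.ofReal ((L + 3) ^ n / vb E3) * ∫⁻ X', ∫⁻ Y, Kb l k n C (X' - X) *
          (ENNReal.ofReal r⁻¹ * ((ub ρ 1 (cen ρ m)).indicator (1 : E3 → ℝ≥0∞)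
            (Y - s • vel (cen ρ m) - X') * ‖umc ρ g m Y‖ₑ ^ 2)) := by
          rw [lintegral_const_mul' _ _ ENNReal.ofReal_ne_top]
          congr 1
          rw [lintegral_lintegral_swap]
          have h2 : Measurable fun q : E3 × E3 => ((q.2, s), q.1) := by fun_prop
          have h3 := (((measurable_one.indicator (meas_ub ρ 1 (cen ρ m))).comp
            (meas_mv (vel (cen ρ m)))).mul
            ((measurable_umcsq (ρ := ρ) hg m).comp measurable_snd)).comp h2
          have h4 : Measurable fun q : E3 × E3 => Kb l k n C (q.2 - X) :=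
            (measurable_Kb l k n C).comp (measurable_snd.sub_const X)
          exact (h4.mul (h3.const_mul _)).aemeasurable
      _ = _ := by
          congr 1
          refine lintegral_congr fun X' => ?_
          have h3 : Measurable fun Y : E3 => (ub ρ 1 (cen ρ m)).indicator (1 : E3 → ℝ≥0∞)
              (Y - s • vel (cen ρ m) - X') * ‖umc ρ g m Y‖ₑ ^ 2 :=
            (((measurable_one.indicator (meas_ub ρ 1 (cen ρ m))).comp
              ((measurable_id.sub_const _).sub_const _))).mul (measurable_umcsq (ρ := ρ) hg m)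
          rw [lintegral_const_mul _ (h3.const_mul _), lintegral_const_mul _ h3]
  unfold wden
  rw [Finset.mul_sum]
  calc _ ≤ ∑ m ∈ caps ρ, ENNReal.ofReal ((L + 3) ^ n / vb E3) * ∫⁻ X', Kb l k n C (X' - X) *
        (ENNReal.ofReal r⁻¹ * P m X') := Finset.sum_le_sum hone
    _ = ENNReal.ofReal ((L + 3) ^ n / vb E3) * ∫⁻ X', ∑ m ∈ caps ρ, Kb l k n C (X' - X) *
        (ENNReal.ofReal r⁻¹ * P m X') := by
        rw [← Finset.mul_sum, lintegral_finsetSum']
        intro m _
        exact (((measurable_Kb l k n C).comp (measurable_id.sub_const X)).mul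
          ((hPm m).const_mul _)).aemeasurable
    _ ≤ _ := by
        refine mul_le_mul_right (lintegral_mono fun X' => ?_) _
        simp only
        rw [← Finset.mul_sum, ← Finset.mul_sum]
        exact mul_le_mul_right (hapl X') _

end Crest.Agent.R116.Sup858
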