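import Crest.Agent.R116.Sup3_858

/-!
# R116 (S0155), wave side, **A2k** (SUP of the cone), part 4: Jensen, near and far part (helper858)
-/

set_option autoImplicit false

open MeasureTheory FourierTransform
open scoped ContDiff ENNReal

namespace Crest.Agent.R116.Sup858

open Crest.Agent.R138.Defs (E2 ee)
open Crest.Agent.R138.Wpk685 (cen caps)
open Crest.Agent.R116.CDef480 Crest.Agent.R116.WC188
open Crest.Agent.R116.LZg725 (Cf)
open Crest.Agent.R116.CWp480 Crest.Agent.R116.CWc480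
open Crest.Agent.R138.Wf448 (adet)
open Crest.Agent.R116.GlC210 (Gdc measurable_umcsq)

theorem prof_le {n : ℕ} (hn : dd E3 ≤ n) : ∫⁻ Z : E3, ENNReal.ofReal (((1 + ‖Z‖) ^ n)⁻¹) ≤
    ENNReal.ofReal (cd3 E3) := by
  rw [← lintegral_dec3]
  refine lintegral_mono fun Z => ?_
  unfold dec3
  refine ENNReal.ofReal_le_ofReal ?_
  have := norm_nonneg Z
  gcongr
  linarith

theorem lint_Kb {l k : ℝ} (hl : 0 < l) (hk : 0 < k) {n : ℕ} (hn : dd E3 ≤ n) (C : E2) (X : E3) :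
    ∫⁻ X', Kb l k n C (X' - X) ≤ ENNReal.ofReal (cd3 E3) := by
  unfold Kb
  rw [lintegral_const_mul' _ _ ENNReal.ofReal_ne_top,
    lint_bn' hl hk C (fun t => ENNReal.ofReal (((1 + t) ^ n)⁻¹)) X]
  exact prof_le hn

theorem lint_Kb' {l k : ℝ} (hl : 0 < l) (hk : 0 < k) {n : ℕ} (hn : dd E3 ≤ n) (C : E2) (X' : E3) :
    ∫⁻ X, Kb l k n C (X' - X) ≤ ENNReal.ofReal (cd3 E3) := by
  unfold Kb
  rw [lintegral_const_mul' _ _ ENNReal.ofReal_ne_top,
    lint_bn hl hk C (fun t => ENNReal.ofReal (((1 + t) ^ n)⁻¹)) X']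
  exact prof_le hn

/-- **Jensen.** -/
theorem wden32_le {l k : ℝ} (hl : 0 < l) (hk : 0 < k) (hk1 : k ≤ 1) {C : E2} {L : ℝ} (hL : 0 ≤ L)
    {n : ℕ} (hn : dd E3 ≤ n) {r : ℝ} (hr : 1 ≤ r) (hlr : l ≤ r ^ (-(1/2) : ℝ)) {g : E3 → ℂ}
    (hg : Integrable g)
    (hnear : ∀ m ∈ caps (r ^ (-(1/2) : ℝ)), k * ‖cen (r ^ (-(1/2) : ℝ)) m - C‖ ≤ L * l ∨
      ∀ ζ, capc (r ^ (-(1/2) : ℝ)) m ζ * g ζ = 0) (X : E3) (s : ℝ) :
    (ENNReal.ofReal (vs l k C) * wden (r ^ (-(1/2) : ℝ)) l k n C g (X, s)) ^ (3/2 : ℝ) ≤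
      ENNReal.ofReal (((L + 3) ^ n / vb E3) ^ (3/2 : ℝ) * cd3 E3 ^ (1/2 : ℝ)) *
        ∫⁻ X', Kb l k n C (X' - X) * apl r g (X', s) ^ (3/2 : ℝ) := by
  have h1 := wden_le_apl hl hk hk1 hL n hr hlr hg hnear X s
  have hm : Measurable fun X' => apl r g (X', s) :=
    (measurable_apl hg).comp (measurable_id.prodMk measurable_const)
  have hK : Measurable fun X' => Kb l k n C (X' - X) :=
    (measurable_Kb l k n C).comp (measurable_id.sub_const X)
  have hc := cd3_nonneg (V := E3)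
  have hv := vb_pos (V := E3)
  have h2 := jensen32 volume hK.aemeasurable hm.aemeasurable
  calc _ ≤ (ENNReal.ofReal ((L + 3) ^ n / vb E3) * ∫⁻ X', Kb l k n C (X' - X) *
        apl r g (X', s)) ^ (3/2 : ℝ) := ENNReal.rpow_le_rpow h1 (by norm_num)
    _ = ENNReal.ofReal (((L + 3) ^ n / vb E3) ^ (3/2 : ℝ)) * (∫⁻ X', Kb l k n C (X' - X) *
        apl r g (X', s)) ^ (3/2 : ℝ) := by
        rw [ENNReal.mul_rpow_of_nonneg _ _ (by norm_num),
          ENNReal.ofReal_rpow_of_nonneg (by positivity) (by norm_num)]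
    _ ≤ ENNReal.ofReal (((L + 3) ^ n / vb E3) ^ (3/2 : ℝ)) * (ENNReal.ofReal (cd3 E3 ^ (1/2 : ℝ)) *
        ∫⁻ X', Kb l k n C (X' - X) * apl r g (X', s) ^ (3/2 : ℝ)) := by
        refine mul_le_mul_right (h2.trans (mul_le_mul_left ?_ _)) _
        rw [← ENNReal.ofReal_rpow_of_nonneg hc (by norm_num)]
        exact ENNReal.rpow_le_rpow (lint_Kb hl hk hn C X) (by norm_num)
    _ = _ := by
        rw [← mul_assoc, ← ENNReal.ofReal_mul (by positivity)]

theorem lint_cylc {L : ℝ} {G : E3 × ℝ → ℝ≥0∞} (hG : Measurable G) :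
    ∫⁻ p in cylc L, G p = ∫⁻ s in Set.Icc (-L) L, ∫⁻ X in Metric.closedBall (0:E3) L, G (X, s) := by
  rw [Crest.Agent.R116.Ba449.cylc_eq, Measure.volume_eq_prod, ← Measure.prod_restrict,
    lintegral_prod_symm' _ hG]

theorem cylc_mono {L L' : ℝ} (h : L ≤ L') : cylc L ⊆ cylc L' :=
  fun _ hp => ⟨hp.1.trans h, hp.2.trans h⟩

theorem norm_le_bn {l k : ℝ} (hl : 0 < l) (hlk : l ≤ k) (C : E2) (Z : E3) :
    l * ‖Z‖ ≤ (3 + ‖C‖) * bn l k C Z := by
  have hk : 0 < k := hl.trans_le hlk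
  have h1 := bn_lat (k := k) hl C Z
  have h2 := bn_nrm (l := l) hk C Z
  have h3 : Z = pt (lat Z) (nrm C Z 0 - inner ℝ C (lat Z)) := by
    have : nrm C Z 0 - inner ℝ C (lat Z) = Z 2 := by
      unfold nrm
      ring
    rw [this, pt_lat]
  have h4 : ‖Z‖ ≤ ‖lat Z‖ + |nrm C Z 0 - inner ℝ C (lat Z)| := by
    conv_lhs => rw [h3]
    exact norm_pt_le _ _
  have h5 : |nrm C Z 0 - inner ℝ C (lat Z)| ≤ |nrm C Z 0| + ‖C‖ * ‖lat Z‖ :=
    (abs_sub _ _).trans (add_le_add le_rfl (abs_real_inner_le_norm _ _))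
  have h6 : l * |nrm C Z 0| ≤ k * |nrm C Z 0| := by
    have := abs_nonneg (nrm C Z 0)
    gcongr
  have h7 := norm_nonneg C
  have h8 := norm_nonneg (lat Z)
  have h9 := bn_nonneg l k C Z
  calc l * ‖Z‖ ≤ l * (‖lat Z‖ + (|nrm C Z 0| + ‖C‖ * ‖lat Z‖)) := by
        gcongr
        linarith
    _ = l * ‖lat Z‖ + l * |nrm C Z 0| + ‖C‖ * (l * ‖lat Z‖) := by ring
    _ ≤ bn l k C Z + bn l k C Z + ‖C‖ * bn l k C Z := by
        gcongr
        linarith
    _ ≤ _ := by nlinarith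

/-- far part of the profile. -/
theorem Kb_far {l k : ℝ} (hl : 0 < l) (hlk : l ≤ k) (C : E2) (N : ℕ) {Λ : ℝ} (hΛ : 0 < Λ) {Z : E3}
    (hZ : Λ ≤ ‖Z‖) : Kb l k (dd E3 + N) C Z ≤
      ENNReal.ofReal (((l * Λ / (3 + ‖C‖)) ^ N)⁻¹) * Kb l k (dd E3) C Z := by
  have hk : 0 < k := hl.trans_le hlk
  unfold Kb
  rw [← mul_assoc, mul_comm (ENNReal.ofReal (((l * Λ / (3 + ‖C‖)) ^ N)⁻¹)), mul_assoc,
    ← ENNReal.ofReal_mul (p := ((l * Λ / (3 + ‖C‖)) ^ N)⁻¹) (by positivity)]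
  refine mul_le_mul_right (ENNReal.ofReal_le_ofReal ?_) _
  have h0 := bn_nonneg l k C Z
  have hC := norm_nonneg C
  have h1 : l * Λ / (3 + ‖C‖) ≤ 1 + bn l k C Z := by
    rw [div_le_iff₀ (by positivity)]
    have h2 := norm_le_bn hl hlk C Z
    have h3 : l * Λ ≤ l * ‖Z‖ := by gcongr
    nlinarith
  rw [pow_add, mul_inv, mul_comm]
  gcongr

/-- near and far part. -/
theorem near_far {l k : ℝ} (hl : 0 < l) (hlk : l ≤ k) (C : E2) (N : ℕ) {Λ : ℝ} (hΛ : 0 < Λ)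
    {F : E3 × ℝ → ℝ≥0∞} (hF : Measurable F) {E : ℝ≥0∞} (hE : ∀ p, F p ≤ E) :
    ∫⁻ p in cylc Λ, ∫⁻ X', Kb l k (dd E3 + N) C (X' - p.1) * F (X', p.2) ≤
      ENNReal.ofReal (cd3 E3) * (∫⁻ p in cylc (2 * Λ), F p) +
      ENNReal.ofReal (((l * Λ / (3 + ‖C‖)) ^ N)⁻¹) * ENNReal.ofReal (cd3 E3) * volume (cylc Λ) * E := by
  have hk : 0 < k := hl.trans_le hlk
  set B : Set E3 := Metric.closedBall (0:E3) (2 * Λ) with hB
  have hBm : MeasurableSet B := Metric.isClosed_closedBall.measurableSet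
  have hsplit : ∀ p : E3 × ℝ, ∫⁻ X', Kb l k (dd E3 + N) C (X' - p.1) * F (X', p.2) =
      (∫⁻ X' in B, Kb l k (dd E3 + N) C (X' - p.1) * F (X', p.2)) +
      ∫⁻ X' in Bᶜ, Kb l k (dd E3 + N) C (X' - p.1) * F (X', p.2) := fun p => by
    rw [lintegral_add_compl _ hBm]
  have hfar : ∀ p ∈ cylc Λ, ∫⁻ X' in Bᶜ, Kb l k (dd E3 + N) C (X' - p.1) * F (X', p.2) ≤
      ENNReal.ofReal (((l * Λ / (3 + ‖C‖)) ^ N)⁻¹) * ENNReal.ofReal (cd3 E3) * E := by
    intro p hp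
    calc _ ≤ ∫⁻ X' in Bᶜ, ENNReal.ofReal (((l * Λ / (3 + ‖C‖)) ^ N)⁻¹) *
          Kb l k (dd E3) C (X' - p.1) * E := by
          refine setLIntegral_mono' hBm.compl fun X' hX' => ?_
          refine mul_le_mul' (Kb_far hl hlk C N hΛ ?_) (hE _)
          rw [hB, Set.mem_compl_iff, mem_closedBall_zero_iff, not_le] at hX'
          have h1 : ‖X'‖ ≤ ‖X' - p.1‖ + ‖p.1‖ := by simpa using norm_add_le (X' - p.1) p.1
          linarith [hp.1]
      _ ≤ ∫⁻ X', ENNReal.ofReal (((l * Λ / (3 + ‖C‖)) ^ N)⁻¹) *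
          Kb l k (dd E3) C (X' - p.1) * E := setLIntegral_le_lintegral _ _
      _ = ENNReal.ofReal (((l * Λ / (3 + ‖C‖)) ^ N)⁻¹) *
          (∫⁻ X', Kb l k (dd E3) C (X' - p.1)) * E := by
          have hm : Measurable fun X' : E3 => Kb l k (dd E3) C (X' - p.1) :=
            (measurable_Kb l k _ C).comp (measurable_id.sub_const _)
          rw [lintegral_mul_const _ (hm.const_mul _), lintegral_const_mul _ hm]
      _ ≤ _ := by
          gcongr
          exact lint_Kb hl hk le_rfl C _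
  have hGm : Measurable fun q : (E3 × ℝ) × E3 => Kb l k (dd E3 + N) C (q.2 - q.1.1) *
      F (q.2, q.1.2) := by
    refine ((measurable_Kb l k _ C).comp (measurable_snd.sub
      (measurable_fst.comp measurable_fst))).mul (hF.comp ?_)
    exact measurable_snd.prodMk (measurable_snd.comp measurable_fst)
  have hm1 : Measurable fun p : E3 × ℝ => ∫⁻ X' in B, Kb l k (dd E3 + N) C (X' - p.1) *
      F (X', p.2) := Measurable.lintegral_prod_right' (ν := volume.restrict B) hGm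
  have hnear : ∫⁻ p in cylc Λ, ∫⁻ X' in B, Kb l k (dd E3 + N) C (X' - p.1) * F (X', p.2) ≤
      ENNReal.ofReal (cd3 E3) * ∫⁻ p in cylc (2 * Λ), F p := by
    rw [lint_cylc hm1, lint_cylc hF, ← lintegral_const_mul' _ _ ENNReal.ofReal_ne_top]
    calc _ ≤ ∫⁻ s in Set.Icc (-Λ) Λ, ENNReal.ofReal (cd3 E3) * ∫⁻ X' in B, F (X', s) := by
          refine lintegral_mono fun s => ?_
          simp only
          calc _ ≤ ∫⁻ X, ∫⁻ X' in B, Kb l k (dd E3 + N) C (X' - X) * F (X', s) :=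
                setLIntegral_le_lintegral _ _
            _ = ∫⁻ X' in B, ∫⁻ X, Kb l k (dd E3 + N) C (X' - X) * F (X', s) := by
                rw [lintegral_lintegral_swap]
                refine Measurable.aemeasurable ?_
                refine ((measurable_Kb l k _ C).comp (measurable_snd.sub measurable_fst)).mul
                  (hF.comp ?_)
                exact measurable_snd.prodMk measurable_const
            _ ≤ ∫⁻ X' in B, ENNReal.ofReal (cd3 E3) * F (X', s) := by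
                refine lintegral_mono fun X' => ?_
                have hm : Measurable fun X : E3 => Kb l k (dd E3 + N) C (X' - X) :=
                  (measurable_Kb l k _ C).comp (measurable_const.sub measurable_id)
                simp only
                rw [lintegral_mul_const _ hm]
                exact mul_le_mul_left (lint_Kb' hl hk (by omega) C X') _
            _ = _ := by rw [lintegral_const_mul' _ _ ENNReal.ofReal_ne_top]
      _ ≤ _ := by
          refine lintegral_mono_set ?_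
          intro s hs
          exact ⟨by linarith [hs.1], by linarith [hs.2]⟩
  calc _ = ∫⁻ p in cylc Λ, ((∫⁻ X' in B, Kb l k (dd E3 + N) C (X' - p.1) * F (X', p.2)) +
      ∫⁻ X' in Bᶜ, Kb l k (dd E3 + N) C (X' - p.1) * F (X', p.2)) := by simp only [hsplit]
    _ = (∫⁻ p in cylc Λ, (∫⁻ X' in B, Kb l k (dd E3 + N) C (X' - p.1) * F (X', p.2))) +
      ∫⁻ p in cylc Λ, ∫⁻ X' in Bᶜ, Kb l k (dd E3 + N) C (X' - p.1) * F (X', p.2) :=
        lintegral_add_left hm1 _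
    _ ≤ ENNReal.ofReal (cd3 E3) * (∫⁻ p in cylc (2 * Λ), F p) + ∫⁻ _ in cylc Λ,
        ENNReal.ofReal (((l * Λ / (3 + ‖C‖)) ^ N)⁻¹) * ENNReal.ofReal (cd3 E3) * E :=
        add_le_add hnear (setLIntegral_mono' (Crest.Agent.R116.Ba449.meas_cylc Λ) hfar)
    _ = _ := by
        rw [setLIntegral_const]
        ring

end Crest.Agent.R116.Sup858
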