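import Crest.Agent.R116.Sup4_858

/-!
# R116 (S0155), wave side, **A2k** (SUP of the cone), part 5: nets of frames (helper858)
-/

set_option autoImplicit false

open MeasureTheory FourierTransform
open scoped ContDiff ENNReal

namespace Crest.Agent.R116.Sup858

open Crest.Agent.R138.Defs (E2 ee)
open Crest.Agent.R138.Wpk685 (cen caps)
open Crest.Agent.R116.CDef480 Crest.Agent.R116.WC188
open Crest.Agent.R116.Ba449 (card_net cylc_eq meas_cylc)

/-- maximal separated subset of a finite set of frames. -/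
theorem exists_net {R : ℝ} (r' : ℝ) (Z : Finset (E3 × ℝ)) (hZ : ∀ z ∈ Z, z ∈ cylc R) :
    ∃ Z' : Finset (E3 × ℝ), Net r' R Z' ∧ ∀ z ∈ Z, ∃ z' ∈ Z', z = z' ∨
      (‖z.1 - z'.1‖ < r' ∧ |z.2 - z'.2| < r') := by
  classical
  have hne : (Z.powerset.filter (fun W => Net r' R W)).Nonempty := by
    refine ⟨∅, Finset.mem_filter.2 ⟨Finset.empty_mem_powerset _, ⟨by simp, by simp⟩⟩⟩
  obtain ⟨Z', hZ', hmax⟩ := Finset.exists_max_image _ Finset.card hne
  rw [Finset.mem_filter, Finset.mem_powerset] at hZ'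
  refine ⟨Z', hZ'.2, fun z hz => ?_⟩
  by_contra hc
  push Not at hc
  have hzn : z ∉ Z' := fun h => (hc z h).1 rfl
  have hnet : Net r' R (insert z Z') := by
    refine ⟨fun y hy => ?_, fun y hy y' hy' => ?_⟩
    · rcases Finset.mem_insert.1 hy with rfl | h
      · exact hZ _ hz
      · exact hZ'.2.mem _ h
    · rcases Finset.mem_insert.1 hy with rfl | h <;> rcases Finset.mem_insert.1 hy' with rfl | h'
      · exact Or.inl rfl
      · rcases lt_or_ge ‖y.1 - y'.1‖ r' with h1 | h1
        · exact Or.inr (Or.inr ((hc y' h').2 h1))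
        · exact Or.inr (Or.inl h1)
      · rcases lt_or_ge ‖y'.1 - y.1‖ r' with h1 | h1
        · refine Or.inr (Or.inr ?_)
          rw [abs_sub_comm]
          exact (hc y h).2 h1
        · refine Or.inr (Or.inl ?_)
          rw [norm_sub_rev]
          exact h1
      · exact hZ'.2.sep _ h _ h'
  have h1 := hmax (insert z Z') (Finset.mem_filter.2 ⟨Finset.mem_powerset.2
    (Finset.insert_subset hz hZ'.1), hnet⟩)
  rw [Finset.card_insert_of_notMem hzn] at h1
  omega

instance inst_rightInv : (volume : Measure (E3 × ℝ)).IsAddRightInvariant := by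
  rw [Measure.volume_eq_prod]
  infer_instance

open Classical in
/-- number of frames of a net seen from one point. -/
theorem card_near {r Λ R : ℝ} (hr : 0 < r) (hrΛ : r ≤ Λ) {Z : Finset (E3 × ℝ)} (hZ : Net r R Z)
    (y : E3 × ℝ) : ((Z.filter (fun z => y - z ∈ cylc Λ)).card : ℝ≥0∞) ≤
      ENNReal.ofReal (256 * (Λ / r) ^ 4) := by
  classical
  have hinj : Function.Injective (fun z : E3 × ℝ => y - z) := fun a b h => by simpa using h
  rw [← Finset.card_image_of_injective _ hinj]
  refine card_net hr hrΛ ⟨fun z hz => ?_, fun z hz z' hz' => ?_⟩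
  · obtain ⟨w, hw, rfl⟩ := Finset.mem_image.1 hz
    exact (Finset.mem_filter.1 hw).2
  · obtain ⟨w, hw, rfl⟩ := Finset.mem_image.1 hz
    obtain ⟨w', hw', rfl⟩ := Finset.mem_image.1 hz'
    have := hZ.sep w (Finset.mem_filter.1 hw).1 w' (Finset.mem_filter.1 hw').1
    simp only [Prod.fst_sub, Prod.snd_sub, sub_sub_sub_cancel_left]
    rcases this with h | h | h
    · exact Or.inl (by rw [h])
    · exact Or.inr (Or.inl (by rw [norm_sub_rev]; exact h))
    · exact Or.inr (Or.inr (by rw [abs_sub_comm]; exact h))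

/-- **sum over the frames of a fine net against a coarse net.** -/
theorem frames {r r' Λ R : ℝ} (hr : 0 < r) (hrΛ : r ≤ Λ) (hr' : 0 ≤ r') {Z Z' : Finset (E3 × ℝ)}
    (hZ : Net r R Z) (hZZ : ∀ z ∈ Z, ∃ z' ∈ Z', z = z' ∨ (‖z.1 - z'.1‖ < r' ∧ |z.2 - z'.2| < r'))
    {G H : E3 × ℝ → E3 × ℝ → ℝ≥0∞} (hH : ∀ z' ∈ Z', Measurable (H z'))
    (hGH : ∀ z ∈ Z, ∀ z' ∈ Z', ‖z.1 - z'.1‖ ≤ r' → |z.2 - z'.2| ≤ r' → ∀ p ∈ cylc Λ,
      G z p ≤ H z' (p + (z - z'))) :
    ∑ z ∈ Z, ∫⁻ p in cylc Λ, G z p ≤ ENNReal.ofReal (256 * (Λ / r) ^ 4) *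
      ∑ z' ∈ Z', ∫⁻ p in cylc (Λ + r'), H z' p := by
  classical
  have hch : ∀ z : E3 × ℝ, ∃ z' : E3 × ℝ, z ∈ Z → z' ∈ Z' ∧ ‖z.1 - z'.1‖ ≤ r' ∧
      |z.2 - z'.2| ≤ r' := by
    intro z
    by_cases hz : z ∈ Z
    · obtain ⟨z', hz', h⟩ := hZZ z hz
      refine ⟨z', fun _ => ⟨hz', ?_⟩⟩
      rcases h with rfl | h
      · simp [hr']
      · exact ⟨h.1.le, h.2.le⟩
    · exact ⟨0, fun h => absurd h hz⟩
  choose φ hφ using hch
  have hmc : ∀ L : ℝ, MeasurableSet (cylc L) := meas_cylc
  -- one frame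
  have h1 : ∀ z ∈ Z, ∫⁻ p in cylc Λ, G z p ≤ ∫⁻ q, (cylc Λ).indicator (fun _ => (1 : ℝ≥0∞))
      (q - (z - φ z)) * (cylc (Λ + r')).indicator (H (φ z)) q := by
    intro z hz
    obtain ⟨h1, h2, h3⟩ := hφ z hz
    calc _ ≤ ∫⁻ p in cylc Λ, H (φ z) (p + (z - φ z)) :=
          setLIntegral_mono' (hmc Λ) fun p hp => hGH z hz _ h1 h2 h3 p hp
      _ = ∫⁻ p, (cylc Λ).indicator (fun p => H (φ z) (p + (z - φ z))) p := by
          rw [lintegral_indicator (hmc Λ)]
      _ = ∫⁻ q, (cylc Λ).indicator (fun p => H (φ z) (p + (z - φ z))) (q - (z - φ z)) :=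
          (lintegral_sub_right_eq_self _ (z - φ z)).symm
      _ ≤ _ := by
          refine lintegral_mono fun q => ?_
          simp only
          by_cases hq : q - (z - φ z) ∈ cylc Λ
          · rw [Set.indicator_of_mem hq, Set.indicator_of_mem hq, one_mul, sub_add_cancel,
              Set.indicator_of_mem]
            have e1 : q.1 = (q - (z - φ z)).1 + (z.1 - (φ z).1) := by simp
            have e2 : q.2 = (q - (z - φ z)).2 + (z.2 - (φ z).2) := by simp
            refine ⟨?_, ?_⟩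
            · rw [e1]
              exact (norm_add_le _ _).trans (add_le_add hq.1 h2)
            · rw [e2]
              exact (abs_add_le _ _).trans (add_le_add hq.2 h3)
          · rw [Set.indicator_of_notMem hq]
            exact zero_le
  calc ∑ z ∈ Z, ∫⁻ p in cylc Λ, G z p ≤ ∑ z ∈ Z, ∫⁻ q, (cylc Λ).indicator
        (fun _ => (1 : ℝ≥0∞)) (q - (z - φ z)) * (cylc (Λ + r')).indicator (H (φ z)) q :=
        Finset.sum_le_sum h1
    _ = ∑ z' ∈ Z', ∑ z ∈ Z.filter (fun z => φ z = z'), ∫⁻ q, (cylc Λ).indicator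
        (fun _ => (1 : ℝ≥0∞)) (q - (z - φ z)) * (cylc (Λ + r')).indicator (H (φ z)) q :=
        (Finset.sum_fiberwise_of_maps_to (fun z hz => (hφ z hz).1) _).symm
    _ = ∑ z' ∈ Z', ∫⁻ q, (∑ z ∈ Z.filter (fun z => φ z = z'), (cylc Λ).indicator
        (fun _ => (1 : ℝ≥0∞)) (q - (z - z'))) * (cylc (Λ + r')).indicator (H z') q := by
        refine Finset.sum_congr rfl fun z' hz' => ?_
        rw [← lintegral_finsetSum']
        · refine lintegral_congr fun q => ?_
          rw [Finset.sum_mul]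
          refine Finset.sum_congr rfl fun z hz => ?_
          rw [(Finset.mem_filter.1 hz).2]
        · intro z hz
          rw [(Finset.mem_filter.1 hz).2]
          exact (((measurable_const.indicator (hmc Λ)).comp (measurable_id.sub_const _)).mul
            ((hH z' hz').indicator (hmc _))).aemeasurable
    _ ≤ ∑ z' ∈ Z', ∫⁻ q, ENNReal.ofReal (256 * (Λ / r) ^ 4) *
        (cylc (Λ + r')).indicator (H z') q := by
        refine Finset.sum_le_sum fun z' _ => lintegral_mono fun q => ?_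
        refine mul_le_mul_left ?_ _
        have e1 : ∀ z ∈ Z.filter (fun z => φ z = z'), (cylc Λ).indicator
            (fun _ => (1 : ℝ≥0∞)) (q - (z - z')) =
            if q + z' - z ∈ cylc Λ then 1 else 0 := by
          intro z _
          have : q - (z - z') = q + z' - z := by abel
          rw [this]
          by_cases h : q + z' - z ∈ cylc Λ
          · rw [Set.indicator_of_mem h, if_pos h]
          · rw [Set.indicator_of_notMem h, if_neg h]
        rw [Finset.sum_congr rfl e1, Finset.sum_ite, Finset.sum_const_zero, add_zero,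
          Finset.sum_const, nsmul_eq_mul, mul_one]
        refine le_trans ?_ (card_near hr hrΛ hZ (q + z'))
        norm_cast
        refine Finset.card_le_card ?_
        intro z hz
        rw [Finset.mem_filter, Finset.mem_filter] at hz
        exact Finset.mem_filter.2 ⟨hz.1.1, hz.2⟩
    _ = _ := by
        rw [Finset.mul_sum]
        refine Finset.sum_congr rfl fun z' hz' => ?_
        rw [lintegral_const_mul' _ _ ENNReal.ofReal_ne_top, lintegral_indicator (hmc _)]

end Crest.Agent.R116.Sup858
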