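import Crest.Agent.R116.Sup5_858

/-!
# R116 (S0155), wave side, **A2k** (SUP of the cone), part 6: one plate (helper858)
-/

set_option autoImplicit false

open MeasureTheory FourierTransform
open scoped ContDiff ENNReal

namespace Crest.Agent.R116.Sup858

open Crest.Agent.R138.Defs (E2 ee)
open Crest.Agent.R138.Wpk685 (cen caps)
open Crest.Agent.R116.CDef480 Crest.Agent.R116.WC188
open Crest.Agent.R116.LZg725 (Cf)
open Crest.Agent.R116.CWp480 Crest.Agent.R116.CWc480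
open Crest.Agent.R116.Ba449 (card_net cylc_eq meas_cylc)

/-! ### elementary geometry -/

theorem norm_le_frame (C : E2) (Z : E3) : ‖Z‖ ≤ (1 + ‖C‖) * ‖lat Z‖ + |nrm C Z 0| := by
  have h3 : Z = pt (lat Z) (nrm C Z 0 - inner ℝ C (lat Z)) := by
    have : nrm C Z 0 - inner ℝ C (lat Z) = Z 2 := by
      unfold nrm
      ring
    rw [this, pt_lat]
  have h4 : ‖Z‖ ≤ ‖lat Z‖ + |nrm C Z 0 - inner ℝ C (lat Z)| := by
    conv_lhs => rw [h3]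
    exact norm_pt_le _ _
  have h5 : |nrm C Z 0 - inner ℝ C (lat Z)| ≤ |nrm C Z 0| + ‖C‖ * ‖lat Z‖ :=
    (abs_sub _ _).trans (add_le_add le_rfl (abs_real_inner_le_norm _ _))
  nlinarith

theorem nrm_le (C : E2) (Z : E3) : |nrm C Z 0| ≤ (1 + ‖C‖) * ‖Z‖ := by
  have e : nrm C Z 0 = Z 2 + inner ℝ C (lat Z) := by unfold nrm; ring
  rw [e]
  refine (abs_add_le _ _).trans ?_
  have h1 := abs_two_le Z
  have h2 := (abs_real_inner_le_norm C (lat Z)).trans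
    (mul_le_mul_of_nonneg_left (norm_lat_le Z) (norm_nonneg C))
  linarith

theorem nrm_shift (C C' : E2) (Z : E3) : |nrm C' Z 0| ≤ |nrm C Z 0| + ‖C' - C‖ * ‖lat Z‖ := by
  have e : nrm C' Z 0 = nrm C Z 0 + inner ℝ (C' - C) (lat Z) := by
    unfold nrm
    rw [inner_sub_left]
    ring
  rw [e]
  exact (abs_add_le _ _).trans (add_le_add le_rfl (abs_real_inner_le_norm _ _))

theorem norm_vel (C : E2) : ‖vel C‖ ≤ ‖C‖ + ‖C‖ ^ 2 / 2 := by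
  unfold vel
  refine (norm_pt_le _ _).trans (le_of_eq ?_)
  rw [abs_div, abs_neg, abs_of_nonneg (sq_nonneg ‖C‖)]
  norm_num

theorem TT_pos {κ s2 r : ℝ} (hs2 : 0 < s2) : 0 < TT κ s2 r :=
  (pow_pos hs2 2).trans_le (le_max_left _ _)

theorem TT_le {κ s2 r : ℝ} (hs0 : 0 ≤ s2) (hs2 : s2 ≤ 1) (hκr : 1 ≤ κ * r) : TT κ s2 r ≤ 1 :=
  max_le (pow_le_one₀ hs0 hs2) (inv_le_one_of_one_le₀ hκr)

theorem mset_mono {sg T s1 A A' R : ℝ} (hsg : 0 ≤ sg) (hT : 0 ≤ T) (hs : 0 ≤ s1) (hR : 0 ≤ R)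
    (hA : A ≤ A') (c : E2) (X0 : E3) (f : Cf E2) (C : E2) :
    mset (A * sg) (A * T) R (A * s1) c X0 f C ⊆ mset (A' * sg) (A' * T) R (A' * s1) c X0 f C := by
  rintro X ⟨h1, h2, h3, h4, h5⟩
  refine ⟨h1.trans (by gcongr), h2.trans (by gcongr), h3.trans (by gcongr), h4.trans (by gcongr),
    h5.trans (by gcongr)⟩

/-! ### one plate -/

theorem Sd.pos1 {r s1 s2 : ℝ} (hr : 0 < r) (h : Sd r s1 s2) : 0 < s1 :=
  (Real.rpow_pos_of_pos hr _).trans_le h.lo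

theorem Sd.pos2 {r s1 s2 : ℝ} (hr : 0 < r) (h : Sd r s1 s2) : 0 < s2 := (Sd.pos1 hr h).trans_le h.le

theorem scost_pos {κ r s1 s2 : ℝ} (hr : 0 < r) (h : Sd r s1 s2) : 0 < scost κ s1 s2 r := by
  unfold scost
  have h1 := Sd.pos1 hr h
  have h2 := Sd.pos2 hr h
  have h3 : 0 < TT κ s2 r := TT_pos h2
  positivity

theorem norm_base {A r T s2 : ℝ} (hA : 1 ≤ A) (hr : 0 < r) (hT : T ≤ 1) (hs2 : s2 ≤ 1)
    {c : E2} {X0 Y : E3} (hc : ‖c‖ ≤ A) (hX0 : ‖X0‖ ≤ A * r)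
    (y2 : ‖lat Y - lat X0‖ ≤ A * s2 * r) (y3 : |nrm c Y 0 - nrm c X0 0| ≤ A * T * r) :
    ‖Y‖ ≤ 7 * A ^ 2 * r := by
  have hlat : ‖lat Y‖ ≤ 2 * A * r := by
    have : ‖lat Y‖ ≤ ‖lat Y - lat X0‖ + ‖lat X0‖ := by
      simpa using norm_add_le (lat Y - lat X0) (lat X0)
    have h5 := norm_lat_le X0
    have h6 : A * s2 * r ≤ A * 1 * r := by gcongr
    linarith
  have hnr : |nrm c Y 0| ≤ (A + (1 + A) * A) * r := by
    have : |nrm c Y 0| ≤ |nrm c Y 0 - nrm c X0 0| + |nrm c X0 0| := by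
      simpa using abs_add_le (nrm c Y 0 - nrm c X0 0) (nrm c X0 0)
    have h5 := nrm_le c X0
    have h6 : (1 + ‖c‖) * ‖X0‖ ≤ (1 + A) * (A * r) := by gcongr
    have h7 : A * T * r ≤ A * 1 * r := by gcongr
    linarith
  refine (norm_le_frame c Y).trans ?_
  calc (1 + ‖c‖) * ‖lat Y‖ + |nrm c Y 0| ≤ (1 + A) * (2 * A * r) + (A + (1 + A) * A) * r := by
        gcongr
    _ = (3 * A ^ 2 + 4 * A) * r := by ring
    _ ≤ 7 * A ^ 2 * r := by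
        gcongr
        nlinarith

theorem norm_tr {A r s : ℝ} (hA : 1 ≤ A) (hr : 0 < r) (hs : |s| ≤ r) {C : E2} (hC : ‖C‖ ≤ 2 * A) :
    ‖s • vel C‖ ≤ 4 * A ^ 2 * r := by
  rw [norm_smul, Real.norm_eq_abs]
  have h5 := norm_nonneg C
  have h6 : ‖vel C‖ ≤ 4 * A ^ 2 := by
    refine (norm_vel C).trans ?_
    have : ‖C‖ ^ 2 ≤ (2 * A) ^ 2 := by gcongr
    nlinarith
  calc |s| * ‖vel C‖ ≤ r * (4 * A ^ 2) := by gcongr
    _ = _ := by ring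

theorem norm_box {A r s1 s2 : ℝ} (hA : 1 ≤ A) (hr : 0 < r) (hs1 : 0 < s1) (hs12 : s1 ≤ s2)
    (hs2 : s2 ≤ 1) {C : E2} (hC : ‖C‖ ≤ A + 1) {W : E3} (h1 : ‖lat W‖ ≤ s1 * r)
    (h2 : |nrm C W 0| ≤ s2 * (s1 * r)) : ‖W‖ ≤ 4 * A ^ 2 * r := by
  refine (norm_le_frame C W).trans ?_
  have h5 : s1 * r ≤ 1 * r := by gcongr; linarith
  have h6 : s2 * (s1 * r) ≤ 1 * (1 * r) := by gcongr
  rw [one_mul] at h5
  rw [one_mul, one_mul] at h6
  calc (1 + ‖C‖) * ‖lat W‖ + |nrm C W 0| ≤ (1 + (A + 1)) * r + r := by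
        gcongr
        · exact h1.trans h5
        · exact h2.trans h6
    _ = (A + 3) * r := by ring
    _ ≤ _ := by
        gcongr
        nlinarith

/-- where the density of a plate lives. -/
theorem supp_plate {A κ r s1 s2 : ℝ} (hA : 1 ≤ A) (hr : 1 ≤ r) (hκr : 1 ≤ κ * r)
    (hSd : Sd r s1 s2) {c Ct : E2} {X0 : E3} {f : Cf E2} {S : ℤ × ℤ → Set E3} {g : E3 → ℂ}
    (hc : ‖c‖ ≤ A) (hX0 : ‖X0‖ ≤ A * r) (hct : ‖c - Ct‖ ≤ s2) (hSm : ∀ m, MeasurableSet (S m))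
    (hS : ∀ m, S m ⊆ pbx κ A r s1 s2 c X0 f m) {p : E3 × ℝ} (hp : |p.2| ≤ r)
    (h : bden (r ^ (-(1/2) : ℝ)) (s1 * r)⁻¹ (s2 * (s1 * r))⁻¹ Ct g S p ≠ 0) :
    p.1 ∈ nbh κ (A + 2) r s1 s2 c X0 f p.2 ∧ ‖p.1‖ ≤ 15 * A ^ 2 * r := by
  have hr0 : 0 < r := by linarith
  have hs1 := Sd.pos1 hr0 hSd
  have hs2 := Sd.pos2 hr0 hSd
  have hs21 := hSd.hi
  have hs12 := hSd.le
  have hT := TT_pos (κ := κ) (r := r) hs2
  have hT1 := TT_le hs2.le hs21 hκr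
  have hw : 0 < s1 * r := by positivity
  have hw2 : 0 < s2 * (s1 * r) := by positivity
  obtain ⟨m, hm, Y, hY, hb⟩ := bden_ne hSm h
  have hYp := hS m hY
  obtain ⟨Cm, hCm⟩ : ∃ Cm : E2, Cm = cen (r ^ (-(1/2) : ℝ)) m := ⟨_, rfl⟩
  obtain ⟨W, hW⟩ : ∃ W : E3, W = Y - p.2 • vel Cm - p.1 := ⟨_, rfl⟩
  rw [← hCm, ← hW] at hb
  have h1 : ‖lat W‖ ≤ s1 * r := by
    have := (bn_lat (k := (s2 * (s1 * r))⁻¹) (inv_pos.2 hw) Ct W).trans hb
    rwa [inv_mul_le_iff₀ hw, mul_one] at this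
  have h2 : |nrm Ct W 0| ≤ s2 * (s1 * r) := by
    have := (bn_nrm (l := (s1 * r)⁻¹) (inv_pos.2 hw2) Ct W).trans hb
    rwa [inv_mul_le_iff₀ hw2, mul_one] at this
  unfold pbx at hYp
  rw [← hCm] at hYp
  obtain ⟨y1, y2, y3, y4, y5⟩ := hYp
  have hCt : ‖Cm - Ct‖ ≤ (A + 1) * s2 := by
    have : ‖Cm - Ct‖ ≤ ‖Cm - c‖ + ‖c - Ct‖ := by
      have := norm_add_le (Cm - c) (c - Ct)
      rwa [sub_add_sub_cancel] at this
    linarith
  have h3 : |nrm Cm W 0| ≤ (A + 2) * (s2 * (s1 * r)) := by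
    refine (nrm_shift Ct Cm W).trans ?_
    calc |nrm Ct W 0| + ‖Cm - Ct‖ * ‖lat W‖ ≤ s2 * (s1 * r) + (A + 1) * s2 * (s1 * r) := by gcongr
      _ = _ := by ring
  have h1' : ‖lat W‖ ≤ (A + 2) * (s1 * r) :=
    h1.trans (by nlinarith)
  refine ⟨⟨Y, Cm, mset_mono hs2.le hT.le hs1.le hr0.le (by linarith) c X0 f Cm
    ⟨y1, y2, y3, y4, y5⟩, by rw [← hW]; exact h1', by rw [← hW]; exact h3⟩, ?_⟩
  have e : p.1 = Y - p.2 • vel Cm - W := by rw [hW]; abel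
  have hY7 := norm_base hA hr0 hT1 hs21 hc hX0 y2 y3
  have hCm2 : ‖Cm‖ ≤ 2 * A := by
    have : ‖Cm‖ ≤ ‖Cm - c‖ + ‖c‖ := by simpa using norm_add_le (Cm - c) c
    have h5 : A * s2 ≤ A * 1 := by gcongr
    linarith
  have hv := norm_tr hA hr0 hp hCm2
  have hCt2 : ‖Ct‖ ≤ A + 1 := by
    have : ‖Ct‖ ≤ ‖Ct - c‖ + ‖c‖ := by simpa using norm_add_le (Ct - c) c
    rw [norm_sub_rev] at this
    linarith
  have hWn := norm_box hA hr0 hs1 hs12 hs21 hCt2 h1 h2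
  rw [e]
  calc ‖Y - p.2 • vel Cm - W‖ ≤ ‖Y‖ + ‖p.2 • vel Cm‖ + ‖W‖ :=
        (norm_sub_le _ _).trans (add_le_add (norm_sub_le _ _) le_rfl)
    _ ≤ 7 * A ^ 2 * r + 4 * A ^ 2 * r + 4 * A ^ 2 * r := by gcongr
    _ = _ := by ring

/-- **one plate**: the summand of `val` against its density. -/
theorem plate_le {M : ℝ} (hV : VolC M) {A : ℝ} (hA : 1 ≤ A) : ∃ Cp : ℝ, 0 ≤ Cp ∧
    ∀ (κ r s1 s2 : ℝ) (g : E3 → ℂ) (c Ct : E2) (X0 : E3) (f : Cf E2) (S : ℤ × ℤ → Set E3),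
    0 < κ → κ ≤ 1 → 1 ≤ r → 1 ≤ κ * r → Sd r s1 s2 → ‖c‖ ≤ A → ‖X0‖ ≤ A * r →
    Adm M κ s1 s2 (TT κ s2 r) r c X0 f → ‖c - Ct‖ ≤ s2 → (∀ m, MeasurableSet (S m)) →
    (∀ m, S m ⊆ pbx κ A r s1 s2 c X0 f m) → Integrable g →
    ENNReal.ofReal ((r * scost κ s1 s2 r) ^ (-(1/2) : ℝ)) *
      (ENNReal.ofReal r * enc (r ^ (-(1/2) : ℝ)) g S) ^ (3 / 2 : ℝ) ≤
    ENNReal.ofReal Cp * ∫⁻ p in cylc (15 * A ^ 2 * r),
      (ENNReal.ofReal (vs (s1 * r)⁻¹ (s2 * (s1 * r))⁻¹ Ct) *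
        bden (r ^ (-(1/2) : ℝ)) (s1 * r)⁻¹ (s2 * (s1 * r))⁻¹ Ct g S p) ^ (3/2 : ℝ) := by
  obtain ⟨Cv, hCv, hvol⟩ := hV (A + 2) (by linarith)
  have hvb := vb_pos (V := E3)
  refine ⟨1 / 2 * (vb E3 ^ (3/2 : ℝ))⁻¹ * Cv ^ (1/2 : ℝ), by positivity, ?_⟩
  intro κ r s1 s2 g c Ct X0 f S hκ hκ1 hr hκr hSd hc hX0 hAdm hct hSm hS hg
  have hr0 : 0 < r := by linarith
  have hs1 := Sd.pos1 hr0 hSd
  have hs2 := Sd.pos2 hr0 hSd
  have hw : 0 < (s1 * r)⁻¹ := by positivity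
  have hw2 : 0 < (s2 * (s1 * r))⁻¹ := by positivity
  have hsc := scost_pos (κ := κ) hr0 hSd
  set ρ : ℝ := r ^ (-(1/2) : ℝ) with hρ
  set l : ℝ := (s1 * r)⁻¹ with hl
  set k : ℝ := (s2 * (s1 * r))⁻¹ with hk
  set F : E3 × ℝ → ℝ≥0∞ := fun p => (ENNReal.ofReal (vs l k Ct) * bden ρ l k Ct g S p) ^ (3/2 : ℝ)
    with hF
  have hFm : Measurable F := ((measurable_bden hg S).const_mul _).pow_const _
  -- time slices
  have hslice : ∀ s : ℝ, |s| ≤ r → (ENNReal.ofReal (vb E3) * enc ρ g S) ^ (3/2 : ℝ) ≤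
      ENNReal.ofReal ((Cv * scost κ s1 s2 r) ^ (1/2 : ℝ)) *
        ∫⁻ X in Metric.closedBall (0:E3) (15 * A ^ 2 * r), F (X, s) := by
    intro s hs
    have h1 := enc32_le hw hw2 (C := Ct) hg (S := S) (s := s)
      (V := nbh κ (A + 2) r s1 s2 c X0 f s) (by
        intro X hX
        exact (supp_plate hA hr hκr hSd hc hX0 hct hSm hS (p := (X, s)) hs hX).1)
    refine h1.trans (mul_le_mul' ?_ ?_)
    · rw [← ENNReal.ofReal_rpow_of_nonneg (by positivity) (by norm_num)]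
      exact ENNReal.rpow_le_rpow (hvol κ r s1 s2 c X0 f hκ hκ1 hr hκr hSd (by linarith) hAdm s hs)
        (by norm_num)
    · rw [← lintegral_indicator Metric.isClosed_closedBall.measurableSet]
      refine lintegral_mono fun X => ?_
      by_cases hX : bden ρ l k Ct g S (X, s) = 0
      · rw [hX, mul_zero, ENNReal.zero_rpow_of_pos (by norm_num)]
        exact zero_le
      · rw [Set.indicator_of_mem]
        have h2 := (supp_plate hA hr hκr hSd hc hX0 hct hSm hS (p := (X, s)) hs hX).2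
        simpa using h2
  -- integration in time
  have hint : ENNReal.ofReal (2 * r) * (ENNReal.ofReal (vb E3) * enc ρ g S) ^ (3/2 : ℝ) ≤
      ENNReal.ofReal ((Cv * scost κ s1 s2 r) ^ (1/2 : ℝ)) *
        ∫⁻ p in cylc (15 * A ^ 2 * r), F p := by
    rw [lint_cylc hFm]
    calc ENNReal.ofReal (2 * r) * (ENNReal.ofReal (vb E3) * enc ρ g S) ^ (3/2 : ℝ) =
          ∫⁻ _ in Set.Icc (-r) r, (ENNReal.ofReal (vb E3) * enc ρ g S) ^ (3/2 : ℝ) := by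
          rw [setLIntegral_const, Real.volume_Icc, mul_comm]
          congr 2
          ring
      _ ≤ ∫⁻ s in Set.Icc (-r) r, ENNReal.ofReal ((Cv * scost κ s1 s2 r) ^ (1/2 : ℝ)) *
          ∫⁻ X in Metric.closedBall (0:E3) (15 * A ^ 2 * r), F (X, s) := by
          refine setLIntegral_mono' measurableSet_Icc fun s hs => ?_
          exact hslice s (abs_le.2 ⟨hs.1, hs.2⟩)
      _ = ENNReal.ofReal ((Cv * scost κ s1 s2 r) ^ (1/2 : ℝ)) * ∫⁻ s in Set.Icc (-r) r,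
          ∫⁻ X in Metric.closedBall (0:E3) (15 * A ^ 2 * r), F (X, s) := by
          rw [lintegral_const_mul' _ _ ENNReal.ofReal_ne_top]
      _ ≤ _ := by
          refine mul_le_mul_right (lintegral_mono_set ?_) _
          have h15 : (1:ℝ) ≤ 15 * A ^ 2 := by nlinarith
          have : 1 * r ≤ 15 * A ^ 2 * r := by gcongr
          intro s hs
          exact ⟨by linarith [hs.1], by linarith [hs.2]⟩
  -- assembly
  set J : ℝ≥0∞ := ∫⁻ p in cylc (15 * A ^ 2 * r), F p with hJ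
  set e : ℝ≥0∞ := enc ρ g S ^ (3/2 : ℝ) with he
  have h1 : ENNReal.ofReal (2 * r * vb E3 ^ (3/2 : ℝ)) * e ≤
      ENNReal.ofReal ((Cv * scost κ s1 s2 r) ^ (1/2 : ℝ)) * J := by
    refine le_trans (le_of_eq ?_) hint
    rw [ENNReal.mul_rpow_of_nonneg _ _ (by norm_num),
      ENNReal.ofReal_rpow_of_nonneg hvb.le (by norm_num), ← mul_assoc,
      ← ENNReal.ofReal_mul (by positivity)]
  calc ENNReal.ofReal ((r * scost κ s1 s2 r) ^ (-(1/2) : ℝ)) *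
      (ENNReal.ofReal r * enc ρ g S) ^ (3 / 2 : ℝ) =
      ENNReal.ofReal ((r * scost κ s1 s2 r) ^ (-(1/2) : ℝ) * r ^ (3/2 : ℝ)) * e := by
        rw [ENNReal.mul_rpow_of_nonneg _ _ (by norm_num),
          ENNReal.ofReal_rpow_of_nonneg hr0.le (by norm_num), ← mul_assoc,
          ← ENNReal.ofReal_mul (by positivity)]
    _ = ENNReal.ofReal (1 / 2 * (vb E3 ^ (3/2 : ℝ))⁻¹ * scost κ s1 s2 r ^ (-(1/2) : ℝ)) *
        (ENNReal.ofReal (2 * r * vb E3 ^ (3/2 : ℝ)) * e) := by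
        rw [← mul_assoc, ← ENNReal.ofReal_mul (by positivity)]
        congr 2
        rw [Real.mul_rpow hr0.le hsc.le]
        have e1 : r ^ (3/2 : ℝ) = r ^ (1/2 : ℝ) * r := by
          rw [← Real.rpow_add_one hr0.ne']; norm_num
        have e2 : r ^ (-(1/2) : ℝ) * r ^ (1/2 : ℝ) = 1 := by
          rw [← Real.rpow_add hr0]; norm_num
        have e3 : vb E3 ^ (3/2 : ℝ) ≠ 0 := by positivity
        rw [e1]
        field_simp
        exact e2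
    _ ≤ ENNReal.ofReal (1 / 2 * (vb E3 ^ (3/2 : ℝ))⁻¹ * scost κ s1 s2 r ^ (-(1/2) : ℝ)) *
        (ENNReal.ofReal ((Cv * scost κ s1 s2 r) ^ (1/2 : ℝ)) * J) := mul_le_mul_right h1 _
    _ = _ := by
        rw [← mul_assoc, ← ENNReal.ofReal_mul (by positivity)]
        congr 2
        rw [Real.mul_rpow hCv hsc.le]
        have e2 : scost κ s1 s2 r ^ (-(1/2) : ℝ) * scost κ s1 s2 r ^ (1/2 : ℝ) = 1 := by
          rw [← Real.rpow_add hsc]; norm_num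
        calc _ = 1 / 2 * (vb E3 ^ (3/2 : ℝ))⁻¹ * Cv ^ (1/2 : ℝ) *
              (scost κ s1 s2 r ^ (-(1/2) : ℝ) * scost κ s1 s2 r ^ (1/2 : ℝ)) := by ring
          _ = _ := by rw [e2, mul_one]

end Crest.Agent.R116.Sup858
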