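import Crest.Agent.R116.Sup6_858

/-!
# R116 (S0155), wave side, **A2k** (SUP of the cone), part 7: one slope cap (helper858)
-/

set_option autoImplicit false

open MeasureTheory FourierTransform
open scoped ContDiff ENNReal

namespace Crest.Agent.R116.Sup858

open Crest.Agent.R138.Defs (E2 ee)
open Crest.Agent.R138.Wpk685 (cen caps)
open Crest.Agent.R116.CDef480 Crest.Agent.R116.WC188
open Crest.Agent.R116.LZg725 (Cf)
open Crest.Agent.R116.CWp480 Crest.Agent.R116.CWc480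
open Crest.Agent.R116.Ba449 (card_net cylc_eq meas_cylc Gd v3 v3_lt vol_cylc)

/-! ### slope cut-offs -/

theorem norm_chi (A : ℝ) (C : E2) (s : ℝ) (ζ : E3) : ‖chi A C s ζ‖ ≤ 1 := by
  unfold chi
  rw [Complex.norm_real, Real.norm_eq_abs, abs_of_nonneg (ContDiffBump.nonneg _)]
  exact ContDiffBump.le_one _

theorem measurable_chi (A : ℝ) (C : E2) (s : ℝ) : Measurable (chi A C s) := by
  unfold chi
  have h1 : Measurable fun ζ : E3 => s⁻¹ • (slp ζ - C) :=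
    (measurable_slp.sub_const C).const_smul s⁻¹
  exact Complex.measurable_ofReal.comp ((cb A).continuous.measurable.comp h1)

theorem chi_one {A : ℝ} (hA : 0 ≤ A) {C : E2} {s : ℝ} (hs : 0 < s) {ζ : E3}
    (h : ‖slp ζ - C‖ ≤ (A + 3) * s) : chi A C s ζ = 1 := by
  unfold chi
  rw [ContDiffBump.one_of_mem_closedBall, Complex.ofReal_one]
  rw [mem_closedBall_zero_iff, norm_smul, Real.norm_eq_abs, abs_of_pos (inv_pos.2 hs),
    inv_mul_le_iff₀ hs]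
  show _ ≤ s * (|A| + 3)
  rw [abs_of_nonneg hA]
  linarith

theorem chi_ne {A : ℝ} (hA : 0 ≤ A) {C : E2} {s : ℝ} (hs : 0 < s) {ζ : E3}
    (h : chi A C s ζ ≠ 0) : ‖slp ζ - C‖ ≤ (A + 4) * s := by
  by_contra hc
  push Not at hc
  apply h
  unfold chi
  rw [ContDiffBump.zero_of_le_dist, Complex.ofReal_zero]
  rw [dist_zero_right, norm_smul, Real.norm_eq_abs, abs_of_pos (inv_pos.2 hs)]
  show |A| + 4 ≤ _
  rw [abs_of_nonneg hA, ← div_eq_inv_mul, le_div_iff₀ hs]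
  exact hc.le

theorem trc_ne {z : E3 × ℝ} {g : E3 → ℂ} {ζ : E3} (h : trc z g ζ ≠ 0) : g ζ ≠ 0 := by
  intro h0
  apply h
  unfold trc
  rw [h0, zero_mul]

theorem far_zero {τ σ : ℝ} (hτ : 0 < τ) {C : E2} {g : E3 → ℂ}
    (hs : ∀ ζ, g ζ ≠ 0 → ‖slp ζ - C‖ ≤ σ) (y : E3 × ℝ) {m : ℤ × ℤ}
    (hfm : σ + 2 * τ < ‖cen τ m - C‖) (ζ : E3) : capc τ m ζ * trc y g ζ = 0 := by
  by_contra hc
  have h1 := left_ne_zero_of_mul hc
  have h2 := trc_ne (right_ne_zero_of_mul hc)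
  have h3 := hs ζ h2
  have h4 := capc_ne hτ h1
  have h5 : ‖cen τ m - C‖ ≤ ‖cen τ m - slp ζ‖ + ‖slp ζ - C‖ := by
    have := norm_add_le (cen τ m - slp ζ) (slp ζ - C)
    rwa [sub_add_sub_cancel] at this
  linarith

/-- the cut-off does not change the packets of the near caps. -/
theorem umc_chi {A : ℝ} (hA : 0 ≤ A) {ρ s : ℝ} (hρ : 0 < ρ) (hρs : ρ ≤ s) {C : E2} {m : ℤ × ℤ}
    (hm : ‖cen ρ m - C‖ ≤ (A + 1) * s) (z : E3 × ℝ) (g : E3 → ℂ) :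
    umc ρ (trc z (fun ζ => chi A C s ζ * g ζ)) m = umc ρ (trc z g) m := by
  unfold umc
  congr 1
  funext ζ
  by_cases h : capc ρ m ζ = 0
  · rw [h, zero_mul, zero_mul]
  · have h4 := capc_ne hρ h
    have h5 : ‖slp ζ - C‖ ≤ ‖cen ρ m - slp ζ‖ + ‖cen ρ m - C‖ := by
      have := norm_add_le (slp ζ - cen ρ m) (cen ρ m - C)
      rw [sub_add_sub_cancel, norm_sub_rev (slp ζ) (cen ρ m)] at this
      exact this
    have h6 : chi A C s ζ = 1 := chi_one hA (hρ.trans_le hρs) (by nlinarith)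
    simp only [trc]
    rw [h6, one_mul]

theorem gd_of {a b : ℝ} (ha : 1 ≤ a) (hb : b ≤ 2) {g : E3 → ℂ} (hm : Measurable g)
    (hbd : ∃ B : ℝ, ∀ ζ, ‖g ζ‖ ≤ B)
    (hs : ∀ ζ, g ζ ≠ 0 → a⁻¹ ≤ ζ 2 ∧ ζ 2 ≤ a ∧ ‖slp ζ‖ ≤ b) : Gd (3 * a) g := by
  refine ⟨hm, hbd, fun ζ hz => ?_, fun ζ hz => (hs ζ hz).2.2.trans hb⟩
  obtain ⟨h1, h2, h3⟩ := hs ζ hz
  have ha0 : 0 < a := by linarith
  have hζ : 0 < ζ 2 := lt_of_lt_of_le (inv_pos.2 ha0) h1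
  have h4 : ‖lat ζ‖ ≤ 2 * a := by
    rw [lat_slp hζ.ne', norm_smul, Real.norm_eq_abs, abs_of_pos hζ]
    calc ζ 2 * ‖slp ζ‖ ≤ a * 2 := mul_le_mul h2 (h3.trans hb) (norm_nonneg _) ha0.le
      _ = 2 * a := by ring
  have h5 := normsq3 ζ
  have h6 := norm_nonneg (lat ζ)
  have h7 := norm_nonneg ζ
  nlinarith

theorem chi_gd {a b A : ℝ} (ha : 1 ≤ a) (hb : b ≤ 2) {g : E3 → ℂ} (hm : Measurable g)
    (hbd : ∃ B : ℝ, ∀ ζ, ‖g ζ‖ ≤ B)
    (hs : ∀ ζ, g ζ ≠ 0 → a⁻¹ ≤ ζ 2 ∧ ζ 2 ≤ a ∧ ‖slp ζ‖ ≤ b) (C : E2) (s : ℝ) :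
    Gd (3 * a) (fun ζ => chi A C s ζ * g ζ) := by
  obtain ⟨B, hB⟩ := hbd
  refine gd_of ha hb ((measurable_chi A C s).mul hm) ⟨B, fun ζ => ?_⟩
    fun ζ hz => hs ζ (right_ne_zero_of_mul hz)
  rw [norm_mul]
  calc ‖chi A C s ζ‖ * ‖g ζ‖ ≤ 1 * ‖g ζ‖ := by gcongr; exact norm_chi _ _ _ _
    _ ≤ B := by rw [one_mul]; exact hB ζ

/-! ### sub-systems -/

theorem plates_sub {M κ A r s1 s2 R : ℝ} {I J : Finset ℕ} {P : ℕ → Plate}
    (h : Plates M κ A r s1 s2 R I P) (hJ : J ⊆ I) : Plates M κ A r s1 s2 R J P :=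
  ⟨fun i hi => h.mem i (hJ hi), fun i hi j hj => h.sep i (hJ hi) j (hJ hj),
    fun i hi => h.X0 i (hJ hi), fun i hi => h.c i (hJ hi), fun i hi => h.adm i (hJ hi),
    fun i hi => h.meas i (hJ hi), fun i hi => h.box i (hJ hi),
    fun i hi j hj => h.disj i (hJ hi) j (hJ hj)⟩

/-- the densities of the plates of one frame. -/
theorem frame_dens {M κ A r s1 s2 R : ℝ} (hA : 1 ≤ A) (hr : 1 ≤ r) (hSd : Sd r s1 s2)
    {I : Finset ℕ} {P : ℕ → Plate} (hP : Plates M κ A r s1 s2 R I P) {g : E3 → ℂ} {Ct : E2}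
    (hct : ∀ i ∈ I, ‖(P i).c - Ct‖ ≤ s2) (l k : ℝ) (n : ℕ) (z : E3 × ℝ) (p : E3 × ℝ) :
    ∑ i ∈ I with (P i).z = z, (ENNReal.ofReal (vs l k Ct) *
      bden (r ^ (-(1/2) : ℝ)) l k Ct (trc z g) (P i).S p) ^ (3/2 : ℝ) ≤
    (ENNReal.ofReal (vs l k Ct) * (ENNReal.ofReal (2 ^ n) *
      wden (r ^ (-(1/2) : ℝ)) l k n Ct (trc z (fun ζ => chi A Ct s2 ζ * g ζ)) p)) ^ (3/2 : ℝ) := by
  have hr0 : 0 < r := by linarith
  have hρ : 0 < r ^ (-(1/2) : ℝ) := Real.rpow_pos_of_pos hr0 _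
  have hρs : r ^ (-(1/2) : ℝ) ≤ s2 := hSd.lo.trans hSd.le
  refine (sum_pow32_le _ _).trans (ENNReal.rpow_le_rpow ?_ (by norm_num))
  rw [← Finset.mul_sum]
  refine mul_le_mul_right ?_ _
  have h1 : ∀ i ∈ I.filter (fun i => (P i).z = z),
      bden (r ^ (-(1/2) : ℝ)) l k Ct (trc z g) (P i).S p =
      bden (r ^ (-(1/2) : ℝ)) l k Ct (trc z (fun ζ => chi A Ct s2 ζ * g ζ)) (P i).S p := by
    intro i hi
    have hiI := (Finset.mem_filter.1 hi).1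
    unfold bden
    refine Finset.sum_congr rfl fun m _ => ?_
    rcases ((P i).S m).eq_empty_or_nonempty with h0 | ⟨Y, hY⟩
    · rw [h0]; simp
    · have h2 : ‖cen (r ^ (-(1/2) : ℝ)) m - (P i).c‖ ≤ A * s2 := (hP.box i hiI m hY).1
      have h3 : ‖cen (r ^ (-(1/2) : ℝ)) m - Ct‖ ≤ (A + 1) * s2 := by
        have h4 : ‖cen (r ^ (-(1/2) : ℝ)) m - Ct‖ ≤
            ‖cen (r ^ (-(1/2) : ℝ)) m - (P i).c‖ + ‖(P i).c - Ct‖ := by
          have := norm_add_le (cen (r ^ (-(1/2) : ℝ)) m - (P i).c) ((P i).c - Ct)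
          rwa [sub_add_sub_cancel] at this
        have := hct i hiI
        linarith
      rw [umc_chi (by linarith) hρ hρs h3]
  rw [Finset.sum_congr rfl h1]
  refine sum_bden_le _ _ (fun i hi m => hP.meas i (Finset.mem_filter.1 hi).1 m) ?_ n p
  intro i hi j hj hij m
  rw [Finset.mem_filter] at hi hj
  exact hP.disj i hi.1 j hj.1 hij (hi.2.trans hj.2.symm) m

theorem net_image {M κ A r s1 s2 R : ℝ} {I : Finset ℕ} {P : ℕ → Plate}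
    (hP : Plates M κ A r s1 s2 R I P) [DecidableEq (E3 × ℝ)] :
    Net r R (I.image fun i => (P i).z) := by
  refine ⟨fun z hz => ?_, fun z hz z' hz' => ?_⟩
  · obtain ⟨i, hi, rfl⟩ := Finset.mem_image.1 hz
    exact hP.mem i hi
  · obtain ⟨i, hi, rfl⟩ := Finset.mem_image.1 hz
    obtain ⟨j, hj, rfl⟩ := Finset.mem_image.1 hz'
    exact hP.sep i hi j hj

end Crest.Agent.R116.Sup858
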