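import Crest.Agent.R116.Sup7_858

/-!
# R116 (S0155), wave side, **A2k** (SUP of the cone), part 8: the plates of one slope cap (helper858)
-/

set_option autoImplicit false

open MeasureTheory FourierTransform
open scoped ContDiff ENNReal

namespace Crest.Agent.R116.Sup858

open Crest.Agent.R138.Defs (E2 ee)
open Crest.Agent.R138.Wpk685 (cen caps)
open Crest.Agent.R116.CDef480 Crest.Agent.R116.WC188
open Crest.Agent.R116.LZg725 (Cf)
open Crest.Agent.R116.CWp480 Crest.Agent.R116.CWc480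
open Crest.Agent.R116.Ba449 (card_net cylc_eq meas_cylc Gd v3 v3_lt vol_cylc)

set_option maxHeartbeats 4000000 in
/-- **the plates of one slope cap** against the plate functional of level `r'`. -/
theorem cap_le {M : ℝ} (hV : VolC M) {a b A : ℝ} (ha : 1 ≤ a) (hb : 0 < b) (hb2 : b < 2)
    (hA : 1 ≤ A) (N : ℕ) : ∃ c1 c2 : ℝ, 0 ≤ c1 ∧ 0 ≤ c2 ∧
    ∀ (κ r s1 s2 R : ℝ) (g : E3 → ℂ) (Ct : E2) (I : Finset ℕ) (P : ℕ → Plate),
    0 < κ → κ ≤ 1 → 1 ≤ r → r ≤ R → 1 ≤ κ * r → Sd r s1 s2 → Measurable g →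
    (∃ B : ℝ, ∀ ζ, ‖g ζ‖ ≤ B) → (∀ ζ, g ζ ≠ 0 → a⁻¹ ≤ ζ 2 ∧ ζ 2 ≤ a ∧ ‖slp ζ‖ ≤ b) →
    Plates M κ A r s1 s2 R I P → (∀ i ∈ I, ‖(P i).c - Ct‖ ≤ s2) →
    ∀ r' : ℝ, r ≤ r' → r' ≤ R → r' ^ (1/2 : ℝ) ≤ s1 * r →
    val κ g r s1 s2 I P ≤
      ENNReal.ofReal c1 * NP (2 * (15 * A ^ 2 + 1)) r' (fun ζ => chi A Ct s2 ζ * g ζ) R +
      ENNReal.ofReal (c2 * R ^ 4 * ((r' / (s1 * r)) ^ N)⁻¹) *
        ENNReal.ofReal (Enc (fun ζ => chi A Ct s2 ζ * g ζ)) ^ (3/2 : ℝ) := by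
  classical
  obtain ⟨Cp, hCp, hplate⟩ := plate_le hV hA
  set n : ℕ := dd E3 + N with hn
  obtain ⟨Cn, hCn, hlev⟩ := levCh a b (A + 6) (15 * A ^ 2 + 1) n ha hb hb2 (by linarith)
    (by positivity)
  have hv := vb_pos (V := E3)
  have hc3 := cd3_nonneg (V := E3)
  set Cj : ℝ := ((A + 6 + 3) ^ n / vb E3) ^ (3/2 : ℝ) * cd3 E3 ^ (1/2 : ℝ) with hCj
  have hCj0 : 0 ≤ Cj := by positivity
  set A1 : ℝ := 15 * A ^ 2 with hA1
  have hA11 : 1 ≤ A1 := by nlinarith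
  set cH : ℝ := (2 ^ n * Cn) ^ (3/2 : ℝ) * Cj with hcH
  have hcH0 : 0 ≤ cH := by positivity
  have hV3 : v3 = ENNReal.ofReal v3.toReal := (ENNReal.ofReal_toReal v3_lt.ne).symm
  have hv30 : 0 ≤ v3.toReal := ENNReal.toReal_nonneg
  refine ⟨Cp * (256 * A1 ^ 4) * (cH * cd3 E3),
    Cp * (256 * A1 ^ 4) * (256 * cH * cd3 E3 * (2 * (A1 + 1) ^ 4 * v3.toReal)), by positivity,
    by positivity, ?_⟩
  intro κ r s1 s2 R g Ct I P hκ hκ1 hr hrR hκr hSd hgm hgb hgs hP hct r' hrr' hr'R hr's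
  rcases I.eq_empty_or_nonempty with rfl | hIne
  · unfold val
    simp
  have hr0 : 0 < r := by linarith
  have hr'0 : 0 < r' := by linarith
  have hR0 : 0 < R := by linarith
  have hs1 := Sd.pos1 hr0 hSd
  have hs2 := Sd.pos2 hr0 hSd
  have hs21 := hSd.hi
  have hs12 := hSd.le
  set gt : E3 → ℂ := fun ζ => chi A Ct s2 ζ * g ζ with hgt
  have hgG : Gd (3 * a) g := gd_of ha hb2.le hgm hgb hgs
  have hGd : Gd (3 * a) gt := chi_gd ha hb2.le hgm hgb hgs Ct s2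
  have hA0 : (0:ℝ) ≤ A := by linarith
  have hgts : ∀ ζ, gt ζ ≠ 0 → a⁻¹ ≤ ζ 2 ∧ ζ 2 ≤ a ∧ ‖slp ζ‖ ≤ b ∧ ‖slp ζ - Ct‖ ≤ (A + 4) * s2 := by
    intro ζ hz
    have h1 := hgs ζ (right_ne_zero_of_mul hz)
    exact ⟨h1.1, h1.2.1, h1.2.2, chi_ne hA0 hs2 (left_ne_zero_of_mul hz)⟩
  -- scales
  set ρ : ℝ := r ^ (-(1/2) : ℝ) with hρ
  set ρ' : ℝ := r' ^ (-(1/2) : ℝ) with hρ'
  have hρ0 : 0 < ρ := Real.rpow_pos_of_pos hr0 _
  have hρ'0 : 0 < ρ' := Real.rpow_pos_of_pos hr'0 _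
  have hρ1 : ρ ≤ 1 := Real.rpow_le_one_of_one_le_of_nonpos hr (by norm_num)
  have hρ'ρ : ρ' ≤ ρ := Real.rpow_le_rpow_of_nonpos hr0 hrr' (by norm_num)
  have hρ2 : ρ ^ 2 = r⁻¹ := by
    rw [hρ, ← Real.rpow_natCast, ← Real.rpow_mul hr0.le]
    norm_num
    rw [Real.rpow_neg_one]
  have hρ'2 : ρ' ^ 2 = r'⁻¹ := by
    rw [hρ', ← Real.rpow_natCast, ← Real.rpow_mul hr'0.le]
    norm_num
    rw [Real.rpow_neg_one]
  have hρs1 : ρ ≤ s1 := hSd.lo
  have hw : 0 < s1 * r := by positivity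
  have hw2 : 0 < s2 * (s1 * r) := by positivity
  set l : ℝ := (s1 * r)⁻¹ with hl
  set k : ℝ := (s2 * (s1 * r))⁻¹ with hk
  have hl0 : 0 < l := inv_pos.2 hw
  have hk0 : 0 < k := inv_pos.2 hw2
  have hks : k * s2 = l := by rw [hk, hl]; field_simp
  have hρr : ρ ^ 2 * r = 1 := by rw [hρ2, inv_mul_cancel₀ hr0.ne']
  have hk1 : k ≤ 1 := by
    refine inv_le_one_of_one_le₀ ?_
    calc (1:ℝ) = ρ * (ρ * r) := by rw [← hρr]; ring
      _ ≤ s2 * (s1 * r) := by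
          have : ρ ≤ s2 := hρs1.trans hs12
          gcongr
  have hlρ' : l ≤ ρ' := by
    rw [hl, hρ', Real.rpow_neg hr'0.le]
    exact inv_anti₀ (Real.rpow_pos_of_pos hr'0 _) hr's
  have hlρ : l ≤ ρ := hlρ'.trans hρ'ρ
  have hσ : ∀ τ, τ ≤ ρ → k * ((A + 4) * s2 + 2 * τ) ≤ (A + 6) * l := by
    intro τ hτ
    calc k * ((A + 4) * s2 + 2 * τ) ≤ k * ((A + 4) * s2 + 2 * s2) := by
          have : τ ≤ s2 := hτ.trans (hρs1.trans hs12)
          gcongr
      _ = (A + 6) * (k * s2) := by ring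
      _ = _ := by rw [hks]
  have hlk : l ≤ k := by
    rw [← hks]
    nlinarith
  -- frames
  set Z : Finset (E3 × ℝ) := I.image fun i => (P i).z with hZdef
  have hZ : Net r R Z := net_image hP
  obtain ⟨Z', hZ', hZZ⟩ := exists_net (R := R) r' Z hZ.mem
  -- the functionals
  set G : E3 × ℝ → E3 × ℝ → ℝ≥0∞ := fun z p => (ENNReal.ofReal (vs l k Ct) *
    (ENNReal.ofReal (2 ^ n) * wden ρ l k n Ct (trc z gt) p)) ^ (3/2 : ℝ) with hG
  set F : E3 × ℝ → E3 × ℝ → ℝ≥0∞ := fun z' q => apl r' (trc z' gt) q ^ (3/2 : ℝ) with hF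
  set H : E3 × ℝ → E3 × ℝ → ℝ≥0∞ := fun z' q => ENNReal.ofReal cH *
    ∫⁻ X', Kb l k n Ct (X' - q.1) * F z' (X', q.2) with hH
  have hFm : ∀ z', Measurable (F z') := fun z' => (measurable_apl (hGd.trc z').int).pow_const _
  have hHm : ∀ z', Measurable (H z') := by
    intro z'
    refine Measurable.const_mul ?_ _
    refine Measurable.lintegral_prod_right' (ν := volume)
      (f := fun q : (E3 × ℝ) × E3 => Kb l k n Ct (q.2 - q.1.1) * F z' (q.2, q.1.2)) ?_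
    refine ((measurable_Kb l k _ Ct).comp (measurable_snd.sub
      (measurable_fst.comp measurable_fst))).mul ((hFm z').comp ?_)
    exact measurable_snd.prodMk (measurable_snd.comp measurable_fst)
  -- level change
  have hGH : ∀ z ∈ Z, ∀ z' ∈ Z', ‖z.1 - z'.1‖ ≤ r' → |z.2 - z'.2| ≤ r' → ∀ p ∈ cylc (A1 * r),
      G z p ≤ H z' (p + (z - z')) := by
    intro z _ z' _ h1 h2 p hp
    have hz : z + p = z' + (p + (z - z')) := by abel
    have hp2 : |p.2| * ρ ^ 2 ≤ 15 * A ^ 2 + 1 := by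
      rw [hρ2, ← div_eq_mul_inv, div_le_iff₀ hr0]
      have := hp.2
      nlinarith
    have hp2' : |(p + (z - z')).2| * ρ' ^ 2 ≤ 15 * A ^ 2 + 1 := by
      rw [hρ'2, ← div_eq_mul_inv, div_le_iff₀ hr'0]
      have h3 := hp.2
      have h4 : |(p + (z - z')).2| ≤ |p.2| + |z.2 - z'.2| := by
        simpa using abs_add_le p.2 (z.2 - z'.2)
      have h5 : A1 * r ≤ A1 * r' := by gcongr
      linarith
    have h3 := hlev l k ((A + 4) * s2) ρ ρ' Ct gt hl0 hk0 hk1 hlρ hρ1 hlρ' (hρ'ρ.trans hρ1)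
      (hσ ρ le_rfl) (hσ ρ' hρ'ρ) hGd.meas hGd.bdd hgts z z' p (p + (z - z')) hz hp2 hp2'
    have hnear : ∀ m ∈ caps (r' ^ (-(1/2) : ℝ)), k * ‖cen (r' ^ (-(1/2) : ℝ)) m - Ct‖ ≤
        (A + 6) * l ∨ ∀ ζ, capc (r' ^ (-(1/2) : ℝ)) m ζ * trc z' gt ζ = 0 := by
      intro m _
      rcases le_or_gt ‖cen ρ' m - Ct‖ ((A + 4) * s2 + 2 * ρ') with h4 | h4
      · left
        refine le_trans ?_ (hσ ρ' hρ'ρ)
        gcongr
      · right
        exact far_zero hρ'0 (fun ζ hz => (hgts ζ hz).2.2.2) z' h4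
    have h4 := wden32_le hl0 hk0 hk1 (C := Ct) (L := A + 6) (by linarith) (n := n) (by omega)
      (r := r') (by linarith) hlρ' (hGd.trc z').int hnear (p + (z - z')).1 (p + (z - z')).2
    calc G z p ≤ (ENNReal.ofReal (vs l k Ct) * (ENNReal.ofReal (2 ^ n) *
          (ENNReal.ofReal Cn * wden ρ' l k n Ct (trc z' gt) (p + (z - z'))))) ^ (3/2 : ℝ) := by
          refine ENNReal.rpow_le_rpow ?_ (by norm_num)
          exact mul_le_mul_right (mul_le_mul_right h3 _) _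
      _ = ENNReal.ofReal ((2 ^ n * Cn) ^ (3/2 : ℝ)) * (ENNReal.ofReal (vs l k Ct) *
          wden ρ' l k n Ct (trc z' gt) (p + (z - z'))) ^ (3/2 : ℝ) := by
          rw [← ENNReal.ofReal_rpow_of_nonneg (by positivity) (by norm_num),
            ← ENNReal.mul_rpow_of_nonneg _ _ (by norm_num)]
          congr 1
          rw [ENNReal.ofReal_mul (by positivity)]
          ring
      _ ≤ ENNReal.ofReal ((2 ^ n * Cn) ^ (3/2 : ℝ)) * (ENNReal.ofReal Cj *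
          ∫⁻ X', Kb l k n Ct (X' - (p + (z - z')).1) * apl r' (trc z' gt)
            (X', (p + (z - z')).2) ^ (3/2 : ℝ)) := mul_le_mul_right h4 _
      _ = _ := by
          rw [hH, ← mul_assoc, ← ENNReal.ofReal_mul (by positivity)]
  have hfr := frames (r := r) (r' := r') (Λ := A1 * r) hr0 (by nlinarith) hr'0.le hZ hZZ
    (fun z' _ => hHm z') hGH
  -- plates
  have hval : val κ g r s1 s2 I P ≤ ENNReal.ofReal Cp * ∑ z ∈ Z, ∫⁻ p in cylc (A1 * r), G z p := by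
    have h1 : ∀ i ∈ I, ENNReal.ofReal ((r * scost κ s1 s2 r) ^ (-(1/2) : ℝ)) *
        (ENNReal.ofReal r * enc (r ^ (-(1/2) : ℝ)) (trc (P i).z g) (P i).S) ^ (3 / 2 : ℝ) ≤
        ENNReal.ofReal Cp * ∫⁻ p in cylc (A1 * r), (ENNReal.ofReal (vs l k Ct) *
          bden ρ l k Ct (trc (P i).z g) (P i).S p) ^ (3/2 : ℝ) := by
      intro i hi
      refine hplate κ r s1 s2 (trc (P i).z g) (P i).c Ct (P i).X0 (P i).f (P i).S hκ hκ1 hr hκr hSd
        (hP.c i hi) (hP.X0 i hi) (hP.adm i hi) (hct i hi) (hP.meas i hi) (hP.box i hi) ?_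
      exact (hgG.trc _).int
    unfold val
    refine (Finset.sum_le_sum h1).trans ?_
    rw [← Finset.mul_sum]
    refine mul_le_mul_right ?_ _
    rw [← Finset.sum_fiberwise_of_maps_to (s := I) (t := Z) (g := fun i => (P i).z)
      (fun i hi => Finset.mem_image_of_mem _ hi)]
    refine Finset.sum_le_sum fun z _ => ?_
    have hbm : ∀ i, Measurable fun p => (ENNReal.ofReal (vs l k Ct) *
        bden ρ l k Ct (trc (P i).z g) (P i).S p) ^ (3/2 : ℝ) := by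
      intro i
      refine ((measurable_bden ?_ _).const_mul _).pow_const _
      exact (hgG.trc _).int
    rw [← lintegral_finsetSum' _ (fun i _ => (hbm i).aemeasurable)]
    refine lintegral_mono fun p => ?_
    refine le_trans (le_of_eq ?_) (frame_dens hA hr hSd hP hct l k n z p)
    refine Finset.sum_congr rfl fun i hi => ?_
    rw [(Finset.mem_filter.1 hi).2]
  -- one coarse frame
  set Λ : ℝ := (A1 + 1) * r' with hΛ
  have hΛ0 : 0 < Λ := by positivity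
  set E : ℝ≥0∞ := ENNReal.ofReal (Enc gt) ^ (3/2 : ℝ) with hE
  obtain ⟨i0, hi0⟩ := hIne
  have hCtn : ‖Ct‖ ≤ A + 1 := by
    have h1 := hP.c i0 hi0
    have h2 := hct i0 hi0
    have : ‖Ct‖ ≤ ‖Ct - (P i0).c‖ + ‖(P i0).c‖ := by
      simpa using norm_add_le (Ct - (P i0).c) (P i0).c
    rw [norm_sub_rev] at this
    linarith
  have hdec : ((l * Λ / (3 + ‖Ct‖)) ^ N)⁻¹ ≤ ((r' / (s1 * r)) ^ N)⁻¹ := by
    have h0 := norm_nonneg Ct
    have h1 : r' / (s1 * r) ≤ l * Λ / (3 + ‖Ct‖) := by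
      rw [le_div_iff₀ (by positivity)]
      calc r' / (s1 * r) * (3 + ‖Ct‖) = l * r' * (3 + ‖Ct‖) := by rw [hl]; ring
        _ ≤ l * r' * (A1 + 1) := by
            have h3 : 3 + ‖Ct‖ ≤ A1 + 1 := by nlinarith
            exact mul_le_mul_of_nonneg_left h3 (by positivity)
        _ = l * Λ := by rw [hΛ]; ring
    gcongr
  have hone : ∀ z' ∈ Z', ∫⁻ p in cylc (A1 * r + r'), H z' p ≤ ENNReal.ofReal cH *
      (ENNReal.ofReal (cd3 E3) * (∫⁻ p in cylc (2 * (15 * A ^ 2 + 1) * r'), F z' p) +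
        ENNReal.ofReal (((r' / (s1 * r)) ^ N)⁻¹ * cd3 E3 * (2 * Λ ^ 4 * v3.toReal)) * E) := by
    intro z' _
    have hmono : cylc (A1 * r + r') ⊆ cylc Λ := cylc_mono (by
      have : A1 * r ≤ A1 * r' := by gcongr
      rw [hΛ]
      linarith)
    have hFE : ∀ p, F z' p ≤ E := by
      intro p
      refine ENNReal.rpow_le_rpow ?_ (by norm_num)
      have h1 := Crest.Agent.R116.Ba449.apl_le (hGd.trc z') (r := r') (by linarith) p
      rwa [Crest.Agent.R116.Ba449.Enc_trc] at h1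
    have h1 := near_far hl0 hlk Ct N hΛ0 (hFm z') hFE
    have e1 : 2 * Λ = 2 * (15 * A ^ 2 + 1) * r' := by rw [hΛ, hA1]; ring
    rw [e1] at h1
    calc ∫⁻ p in cylc (A1 * r + r'), H z' p ≤ ∫⁻ p in cylc Λ, H z' p := lintegral_mono_set hmono
      _ = ENNReal.ofReal cH * ∫⁻ q in cylc Λ, ∫⁻ X', Kb l k n Ct (X' - q.1) * F z' (X', q.2) := by
          rw [hH, lintegral_const_mul' _ _ ENNReal.ofReal_ne_top]
      _ ≤ _ := by
          refine mul_le_mul_right (h1.trans (add_le_add le_rfl (mul_le_mul_left ?_ _))) _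
          rw [vol_cylc hΛ0.le, hV3, ← ENNReal.ofReal_mul (by positivity),
            ← ENNReal.ofReal_mul (by positivity), ← ENNReal.ofReal_mul (by positivity),
            ENNReal.toReal_ofReal hv30]
          refine ENNReal.ofReal_le_ofReal ?_
          gcongr
  -- sum over the coarse frames
  have hNP : ∑ z' ∈ Z', ∫⁻ p in cylc (2 * (15 * A ^ 2 + 1) * r'), F z' p ≤
      NP (2 * (15 * A ^ 2 + 1)) r' gt R := by
    unfold NP
    exact le_iSup₂_of_le Z' hZ' le_rfl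
  have hcard : (Z'.card : ℝ≥0∞) ≤ ENNReal.ofReal (256 * (R / r') ^ 4) := card_net hr'0 hr'R hZ'
  have hsum : ∑ z' ∈ Z', ∫⁻ p in cylc (A1 * r + r'), H z' p ≤ ENNReal.ofReal cH *
      (ENNReal.ofReal (cd3 E3) * NP (2 * (15 * A ^ 2 + 1)) r' gt R +
        ENNReal.ofReal (256 * (R / r') ^ 4) * (ENNReal.ofReal
          (((r' / (s1 * r)) ^ N)⁻¹ * cd3 E3 * (2 * Λ ^ 4 * v3.toReal)) * E)) := by
    refine (Finset.sum_le_sum hone).trans ?_
    rw [← Finset.mul_sum, Finset.sum_add_distrib, ← Finset.mul_sum, Finset.sum_const, nsmul_eq_mul]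
    exact mul_le_mul_right (add_le_add (mul_le_mul_right hNP _) (mul_le_mul_left hcard _)) _
  have hAr : A1 * r / r = A1 := by field_simp
  rw [hAr] at hfr
  calc val κ g r s1 s2 I P ≤ ENNReal.ofReal Cp * (ENNReal.ofReal (256 * A1 ^ 4) *
        (ENNReal.ofReal cH * (ENNReal.ofReal (cd3 E3) * NP (2 * (15 * A ^ 2 + 1)) r' gt R +
        ENNReal.ofReal (256 * (R / r') ^ 4) * (ENNReal.ofReal
          (((r' / (s1 * r)) ^ N)⁻¹ * cd3 E3 * (2 * Λ ^ 4 * v3.toReal)) * E)))) :=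
        hval.trans (mul_le_mul_right (hfr.trans (mul_le_mul_right hsum _)) _)
    _ = ENNReal.ofReal Cp * ENNReal.ofReal (256 * A1 ^ 4) * (ENNReal.ofReal cH *
        ENNReal.ofReal (cd3 E3)) * NP (2 * (15 * A ^ 2 + 1)) r' gt R +
        (ENNReal.ofReal Cp * ENNReal.ofReal (256 * A1 ^ 4) * ENNReal.ofReal cH *
        ENNReal.ofReal (256 * (R / r') ^ 4) * ENNReal.ofReal
          (((r' / (s1 * r)) ^ N)⁻¹ * cd3 E3 * (2 * Λ ^ 4 * v3.toReal))) * E := by ring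
    _ = _ := by
        have hq : 0 ≤ ((r' / (s1 * r)) ^ N)⁻¹ := by positivity
        rw [← ENNReal.ofReal_mul (by positivity), ← ENNReal.ofReal_mul (by positivity),
          ← ENNReal.ofReal_mul (by positivity), ← ENNReal.ofReal_mul (by positivity),
          ← ENNReal.ofReal_mul (by positivity), ← ENNReal.ofReal_mul (by positivity)]
        congr 3
        rw [hΛ]
        field_simp

end Crest.Agent.R116.Sup858
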