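import Crest.Agent.R116.Sup8_858

/-!
# R116 (S0155), wave side, **A2k** (SUP of the cone), part 9: sum over the slope caps (helper858)
-/

set_option autoImplicit false

open MeasureTheory FourierTransform
open scoped ContDiff ENNReal

namespace Crest.Agent.R116.Sup858

open Crest.Agent.R138.Defs (E2 ee)
open Crest.Agent.R138.Wpk685 (cen caps)
open Crest.Agent.R116.CDef480 Crest.Agent.R116.WC188
open Crest.Agent.R116.LZg725 (Cf)
open Crest.Agent.R116.CWp480 Crest.Agent.R116.CWc480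
open Crest.Agent.R116.Ba449 (card_net cylc_eq meas_cylc Gd v3 v3_lt vol_cylc)

/-- the nearest slope cap. -/
noncomputable def nrc (s : ℝ) (c : E2) : ℤ × ℤ := (round (c 0 / s), round (c 1 / s))

theorem nrc_le {s : ℝ} (hs : 0 < s) (c : E2) : ‖c - cen s (nrc s c)‖ ≤ s := by
  have h : ∀ x : ℝ, (x - s * (round (x / s) : ℝ)) ^ 2 ≤ (s / 2) ^ 2 := by
    intro x
    have h1 := abs_sub_round (x / s)
    have h2 : |x - s * (round (x / s) : ℝ)| ≤ s / 2 := by
      have e : x - s * (round (x / s) : ℝ) = s * (x / s - round (x / s)) := by field_simp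
      rw [e, abs_mul, abs_of_pos hs]
      nlinarith
    rw [← sq_abs]
    exact pow_le_pow_left₀ (abs_nonneg _) h2 2
  have h3 := normsq2 (c - cen s (nrc s c))
  have e0 : (c - cen s (nrc s c)) 0 = c 0 - s * (round (c 0 / s) : ℝ) := rfl
  have e1 : (c - cen s (nrc s c)) 1 = c 1 - s * (round (c 1 / s) : ℝ) := rfl
  rw [e0, e1] at h3
  have h4 := h (c 0)
  have h5 := h (c 1)
  have h6 := norm_nonneg (c - cen s (nrc s c))
  nlinarith

/-- energies of the slope caps. -/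
theorem sum_Enc_chi {L A s : ℝ} (hA : 0 ≤ A) (hs : 0 < s) {g : E3 → ℂ} (hg : Gd L g)
    (T : Finset (ℤ × ℤ)) :
    ∑ t ∈ T, Enc (fun ζ => chi A (cen s t) s ζ * g ζ) ≤ (2 * (A + 4) + 1) ^ 2 * Enc g := by
  classical
  have hi : Integrable fun ζ => ‖g ζ‖ ^ 2 := (hg.memLp 2).integrable_norm_pow (by norm_num)
  have hit : ∀ t, Integrable fun ζ => ‖chi A (cen s t) s ζ * g ζ‖ ^ 2 := by
    intro t
    refine hi.mono' ?_ (Filter.Eventually.of_forall fun ζ => ?_)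
    · exact (((measurable_chi A _ s).mul hg.meas).norm.pow_const 2).aestronglyMeasurable
    · rw [Real.norm_eq_abs, abs_of_nonneg (by positivity), norm_mul, mul_pow]
      have h1 := norm_chi A (cen s t) s ζ
      have h2 := norm_nonneg (chi A (cen s t) s ζ)
      have h3 : ‖chi A (cen s t) s ζ‖ ^ 2 ≤ 1 := pow_le_one₀ h2 h1
      have h4 : 0 ≤ ‖g ζ‖ ^ 2 := by positivity
      nlinarith
  unfold Enc
  rw [← integral_finsetSum _ (fun t _ => hit t), ← integral_const_mul]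
  refine integral_mono (integrable_finsetSum _ fun t _ => hit t) (hi.const_mul _) ?_
  intro ζ
  simp only
  have h1 : ∀ t ∈ T, ‖chi A (cen s t) s ζ * g ζ‖ ^ 2 ≤
      if ‖cen s t - slp ζ‖ ≤ (A + 4) * s then ‖g ζ‖ ^ 2 else 0 := by
    intro t _
    split_ifs with h
    · rw [norm_mul, mul_pow]
      have h1 := norm_chi A (cen s t) s ζ
      have h2 := norm_nonneg (chi A (cen s t) s ζ)
      have h3 : ‖chi A (cen s t) s ζ‖ ^ 2 ≤ 1 := pow_le_one₀ h2 h1
      have h4 : 0 ≤ ‖g ζ‖ ^ 2 := by positivity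
      nlinarith
    · have h2 : chi A (cen s t) s ζ = 0 := by
        by_contra hc
        apply h
        rw [norm_sub_rev]
        exact chi_ne hA hs hc
      rw [h2, zero_mul, norm_zero]
      norm_num
  refine (Finset.sum_le_sum h1).trans ?_
  rw [← Finset.sum_filter, Finset.sum_const, nsmul_eq_mul]
  refine mul_le_mul_of_nonneg_right ?_ (by positivity)
  have h2 := Crest.Agent.R116.CWd480.card_cen hs (r := A + 4) (by linarith) T (slp ζ)
  refine le_trans (le_of_eq ?_) h2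
  rw [← Set.ncard_coe_finset]
  congr 2
  ext t
  simp

theorem Enc_chi_le {L A s : ℝ} {g : E3 → ℂ} (hg : Gd L g) (C : E2) :
    Enc (fun ζ => chi A C s ζ * g ζ) ≤ Enc g := by
  have hi : Integrable fun ζ => ‖g ζ‖ ^ 2 := (hg.memLp 2).integrable_norm_pow (by norm_num)
  unfold Enc
  refine integral_mono_of_nonneg (Filter.Eventually.of_forall fun ζ => by positivity) hi
    (Filter.Eventually.of_forall fun ζ => ?_)
  simp only
  rw [norm_mul, mul_pow]
  have h1 := norm_chi A C s ζ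
  have h2 := norm_nonneg (chi A C s ζ)
  have h3 : ‖chi A C s ζ‖ ^ 2 ≤ 1 := pow_le_one₀ h2 h1
  have h4 : 0 ≤ ‖g ζ‖ ^ 2 := by positivity
  nlinarith

/-- numbers: the tail of one cap. -/
theorem tail_num {R r s1 s2 r' δ q M0 E D c2 : ℝ} {N : ℕ} (hR : 1 ≤ R) (hr : 1 ≤ r) (hrR : r ≤ R)
    (hSd : Sd r s1 s2) (hq : 0 ≤ q) (hD : 0 ≤ D) (hE : 0 ≤ E) (hED : E ≤ R ^ M0 * D)
    (hc2 : 0 ≤ c2) (hgap : R ^ δ ≤ r' / (s1 * r)) (hN : 3 + |M0| / 2 + q / 4 ≤ N * δ) :
    c2 * R ^ 4 * ((r' / (s1 * r)) ^ N)⁻¹ * E ^ (3/2 : ℝ) ≤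
      c2 * (s2 ^ (q / 2) * (R * E * Real.sqrt D)) := by
  have hR0 : 0 < R := by linarith
  have hr0 : 0 < r := by linarith
  have hs2 := Sd.pos2 hr0 hSd
  have hRδ : 0 < R ^ δ := Real.rpow_pos_of_pos hR0 _
  have h1 : ((r' / (s1 * r)) ^ N)⁻¹ ≤ R ^ (-(N * δ)) := by
    rw [Real.rpow_neg hR0.le, mul_comm (N:ℝ) δ, Real.rpow_mul hR0.le, Real.rpow_natCast]
    exact inv_anti₀ (by positivity) (pow_le_pow_left₀ hRδ.le hgap N)
  have h2 : E ^ (3/2 : ℝ) ≤ E * (R ^ (M0 / 2) * Real.sqrt D) := by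
    have e1 : E ^ (3/2 : ℝ) = E * Real.sqrt E := by
      rw [Real.sqrt_eq_rpow, ← Real.rpow_one_add' hE (by norm_num)]
      norm_num
    rw [e1]
    refine mul_le_mul_of_nonneg_left ?_ hE
    have e2 : Real.sqrt (R ^ M0 * D) = R ^ (M0 / 2) * Real.sqrt D := by
      rw [Real.sqrt_mul (Real.rpow_nonneg hR0.le _), Real.sqrt_eq_rpow (R ^ M0),
        ← Real.rpow_mul hR0.le]
      congr 2
      ring
    rw [← e2]
    exact Real.sqrt_le_sqrt hED
  have h3 : R ^ (-(q / 4)) ≤ s2 ^ (q / 2) := by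
    have h4 : R ^ (-(1/2) : ℝ) ≤ s2 := by
      refine le_trans ?_ (hSd.lo.trans hSd.le)
      exact Real.rpow_le_rpow_of_nonpos hr0 hrR (by norm_num)
    calc R ^ (-(q / 4)) = (R ^ (-(1/2) : ℝ)) ^ (q / 2) := by
          rw [← Real.rpow_mul hR0.le]
          congr 1
          ring
      _ ≤ s2 ^ (q / 2) := Real.rpow_le_rpow (Real.rpow_nonneg hR0.le _) h4 (by linarith)
  have h5 : R ^ (4:ℕ) * R ^ (-(N * δ)) * R ^ (M0 / 2) ≤ R * R ^ (-(q / 4)) := by
    have e1 : R ^ (4:ℕ) = R ^ (4:ℝ) := by norm_cast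
    have e2 : R * R ^ (-(q / 4)) = R ^ (1 + -(q / 4)) := by
      rw [Real.rpow_add hR0, Real.rpow_one]
    rw [e1, e2, ← Real.rpow_add hR0, ← Real.rpow_add hR0]
    refine Real.rpow_le_rpow_of_exponent_le hR ?_
    have := le_abs_self M0
    linarith
  have hsD : 0 ≤ Real.sqrt D := Real.sqrt_nonneg _
  have hq1 : 0 ≤ R ^ (-(N * δ)) := Real.rpow_nonneg hR0.le _
  have hq2 : 0 ≤ R ^ (M0 / 2) := Real.rpow_nonneg hR0.le _
  have hq3 : 0 ≤ R ^ (-(q / 4)) := Real.rpow_nonneg hR0.le _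
  calc c2 * R ^ 4 * ((r' / (s1 * r)) ^ N)⁻¹ * E ^ (3/2 : ℝ) ≤
        c2 * R ^ 4 * R ^ (-(N * δ)) * (E * (R ^ (M0 / 2) * Real.sqrt D)) := by
        gcongr
    _ = c2 * (R ^ 4 * R ^ (-(N * δ)) * R ^ (M0 / 2)) * (E * Real.sqrt D) := by ring
    _ ≤ c2 * (R * R ^ (-(q / 4))) * (E * Real.sqrt D) := by gcongr
    _ ≤ c2 * (R * s2 ^ (q / 2)) * (E * Real.sqrt D) := by gcongr
    _ = _ := by ring

end Crest.Agent.R116.Sup858
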