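import Crest.Agent.R116.Sup1_858
import Crest.Agent.R116.CWd3_480

/-!
# R116 (S0155), wave side, **A2k** (SUP of the cone): **level change** `levCh : LevCh` (helper858),
from 480's `level_change_u`.
-/

set_option autoImplicit false

open MeasureTheory FourierTransform
open scoped ContDiff ENNReal

namespace Crest.Agent.R116.Sup858

open Crest.Agent.R138.Defs (E2 ee)
open Crest.Agent.R138.Wpk685 (cen caps)
open Crest.Agent.R116.CDef480 Crest.Agent.R116.WC188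
open Crest.Agent.R116.LZg725 (Cf)
open Crest.Agent.R116.CWp480 Crest.Agent.R116.CWc480

theorem Pl_dom {l k ρ L : ℝ} (hl : 0 < l) (hk : 0 < k) (hk1 : k ≤ 1) (hρ : 0 < ρ) (hlρ : l ≤ ρ)
    (hL : 0 ≤ L) {C C' : E2} (h : k * ‖C' - C‖ ≤ L * l) (x : E3) :
    ‖Pl l k hl hk C x‖ ≤ (L + 2) * ‖Pl ρ 1 hρ one_pos C' x‖ := by
  have h1 := bn_lat (l := ρ) (k := 1) hρ C' x
  have h2 := bn_nrm (l := ρ) (k := 1) one_pos C' x
  rw [bn_eq hρ one_pos] at h1 h2
  have h3 := bn_le hl hk C x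
  rw [bn_eq hl hk] at h3
  have h4 : nrm C x 0 = nrm C' x 0 - inner ℝ (C' - C) (lat x) := by
    unfold nrm
    rw [inner_sub_left]
    ring
  have h5 : |nrm C x 0| ≤ |nrm C' x 0| + ‖C' - C‖ * ‖lat x‖ := by
    rw [h4]
    refine (abs_sub _ _).trans (add_le_add le_rfl (abs_real_inner_le_norm _ _))
  have h6 := norm_nonneg (lat x)
  have h7 := abs_nonneg (nrm C' x 0)
  have h8 : k * |nrm C x 0| ≤ |nrm C' x 0| + L * l * ‖lat x‖ := by
    calc k * |nrm C x 0| ≤ k * (|nrm C' x 0| + ‖C' - C‖ * ‖lat x‖) := by gcongr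
      _ = k * |nrm C' x 0| + (k * ‖C' - C‖) * ‖lat x‖ := by ring
      _ ≤ 1 * |nrm C' x 0| + (L * l) * ‖lat x‖ := by gcongr
      _ = _ := by ring
  have h9 : l * ‖lat x‖ ≤ ρ * ‖lat x‖ := by gcongr
  rw [one_mul] at h2
  have h10 : L * l * ‖lat x‖ ≤ L * (ρ * ‖lat x‖) := by
    calc L * l * ‖lat x‖ = L * (l * ‖lat x‖) := by ring
      _ ≤ _ := by gcongr
  have h11 : L * (ρ * ‖lat x‖) ≤ L * ‖Pl ρ 1 hρ one_pos C' x‖ := by gcongr
  linarith

theorem capc_ne {ρ : ℝ} (hρ : 0 < ρ) {m : ℤ × ℤ} {ζ : E3} (h : capc ρ m ζ ≠ 0) :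
    ‖cen ρ m - slp ζ‖ ≤ 2 * ρ := by
  by_contra hc
  push Not at hc
  apply h
  unfold capc Crest.Agent.R138.Wpk685.cap
  apply Crest.Agent.R138.Wpk685.win_zero'
  rw [norm_smul, Real.norm_eq_abs, abs_of_pos (inv_pos.2 hρ), norm_sub_rev]
  calc (71/50 : ℝ) < ρ⁻¹ * (2 * ρ) := by field_simp; norm_num
    _ ≤ _ := by gcongr

/-- **level change.** -/
theorem levCh : LevCh := by
  intro a b L T n ha hb hb2 hL hT
  obtain ⟨Cst, hC, hlc⟩ := Crest.Agent.R116.CWd480.level_change_u ha n T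
    (L := L + 2) (by linarith)
  refine ⟨Cst, hC, ?_⟩
  intro l k σ ρ ρ' C g hl hk hk1 hlρ hρ1 hlρ' hρ1' hσ hσ' hm hbd hs z z' p p' hz hp hp'
  classical
  have hρ : 0 < ρ := hl.trans_le hlρ
  have hρ' : 0 < ρ' := hl.trans_le hlρ'
  have ha0 : 0 < a := by linarith
  -- the good function
  have hGd : Crest.Agent.R116.Ba449.Gd (3 * a) g := by
    refine ⟨hm, hbd, fun ζ hz => ?_, fun ζ hz => (hs ζ hz).2.2.1.trans hb2.le⟩
    obtain ⟨h1, h2, h3, -⟩ := hs ζ hz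
    have hζ : 0 < ζ 2 := lt_of_lt_of_le (inv_pos.2 ha0) h1
    have h4 : ‖lat ζ‖ ≤ 2 * a := by
      rw [lat_slp hζ.ne', norm_smul, Real.norm_eq_abs, abs_of_pos hζ]
      calc ζ 2 * ‖slp ζ‖ ≤ a * 2 := mul_le_mul h2 (h3.trans hb2.le) (norm_nonneg _) ha0.le
        _ = 2 * a := by ring
    have h5 := normsq3 ζ
    have h6 := norm_nonneg (lat ζ)
    have h7 := norm_nonneg ζ
    nlinarith
  set g' : E3 → ℂ := trc z' g with hg'
  have hGd' : Crest.Agent.R116.Ba449.Gd (3 * a) g' := hGd.trc z'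
  have hne : ∀ (y : E3 × ℝ) (ζ : E3), trc y g ζ ≠ 0 → g ζ ≠ 0 := by
    intro y ζ h h0
    apply h
    unfold trc
    rw [h0, zero_mul]
  set s : Finset (ℤ × ℤ) := (caps ρ').filter (fun m => ‖cen ρ' m - C‖ ≤ σ + 2 * ρ') with hsdef
  set s' : Finset (ℤ × ℤ) := (caps ρ).filter (fun m => ‖cen ρ m - C‖ ≤ σ + 2 * ρ) with hs'def
  have hdom : ∀ m ∈ s, ∀ x, ‖Pl l k hl hk C x‖ ≤ (L + 2) * ‖Pl ρ' 1 hρ' one_pos (cen ρ' m) x‖ := by
    intro m hm x
    refine Pl_dom hl hk hk1 hρ' hlρ' (by linarith) ?_ x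
    refine le_trans ?_ hσ'
    have := (Finset.mem_filter.1 hm).2
    gcongr
  have hdom' : ∀ m ∈ s', ∀ x, ‖Pl l k hl hk C x‖ ≤ (L + 2) * ‖Pl ρ 1 hρ one_pos (cen ρ m) x‖ := by
    intro m hm x
    refine Pl_dom hl hk hk1 hρ hlρ (by linarith) ?_ x
    refine le_trans ?_ hσ
    have := (Finset.mem_filter.1 hm).2
    gcongr
  have hfar : ∀ (τ : ℝ), 0 < τ → ∀ (y : E3 × ℝ), ∀ m : ℤ × ℤ, σ + 2 * τ < ‖cen τ m - C‖ →
      ∀ ζ, capc τ m ζ * trc y g ζ = 0 := by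
    intro τ hτ y m hfm ζ
    by_contra hc
    have h1 := left_ne_zero_of_mul hc
    have h2 := hne y ζ (right_ne_zero_of_mul hc)
    have h3 := (hs ζ h2).2.2.2
    have h4 := capc_ne hτ h1
    have h5 : ‖cen τ m - C‖ ≤ ‖cen τ m - slp ζ‖ + ‖slp ζ - C‖ := by
      have := norm_add_le (cen τ m - slp ζ) (slp ζ - C)
      rwa [sub_add_sub_cancel] at this
    linarith
  have hsum : ∀ ζ, g' ζ = ∑ m ∈ s, capc ρ' m ζ * g' ζ := by
    intro ζ
    have h1 : ∑ m ∈ s, capc ρ' m ζ * g' ζ = ∑ m ∈ caps ρ', capc ρ' m ζ * g' ζ := by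
      refine Finset.sum_subset (Finset.filter_subset _ _) ?_
      intro m hm1 hm2
      refine hfar ρ' hρ' z' m ?_ ζ
      by_contra hc
      exact hm2 (Finset.mem_filter.2 ⟨hm1, not_lt.1 hc⟩)
    rw [h1, ← Finset.sum_mul]
    by_cases h0 : g' ζ = 0
    · rw [h0, mul_zero]
    · have h2 := (hs ζ (hne z' ζ h0)).2.2.1
      have h3 : ∑ m ∈ caps ρ', capc ρ' m ζ = 1 :=
        Crest.Agent.R138.Wpk685.cap_win_sum hρ' (h2.trans hb2.le)
      rw [h3, one_mul]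
  set w : E3 → ℝ := fun x => ((1 + ‖Pl l k hl hk C (x - p.1)‖) ^ n)⁻¹ with hw
  have hSV : SV (Pl l k hl hk C) 1 n w := SV_pt _ n p.1
  have hRng : Crest.Agent.R116.CWd480.Rng a g' := by
    intro ζ hζ
    have := hs ζ (hne z' ζ hζ)
    exact ⟨this.1, this.2.1⟩
  have e2 : p.2 + (z - z').2 = p'.2 := by
    have := congrArg Prod.snd hz
    simp only [Prod.snd_add, Prod.snd_sub] at this ⊢
    linarith
  have e1 : (z - z').1 + p.1 = p'.1 := by
    have := congrArg Prod.fst hz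
    simp only [Prod.fst_add, Prod.fst_sub] at this ⊢
    rw [sub_add_eq_add_sub, this]
    abel
  have key := hlc ρ' ρ hρ' hρ (Pl l k hl hk C) 1 w hSV s s' hdom hdom' p.2 (z - z') hp
    (by rw [e2]; exact hp') g' hGd'.int (hGd'.memLp 2) hRng hsum
  have e3 : trc (z - z') g' = trc z g := by
    rw [hg', Crest.Agent.R116.GlC210.trc_trc, add_sub_cancel]
  rw [e3, e2] at key
  rw [one_pow, mul_one] at key
  have hL : wden ρ l k n C (trc z g) p = ∑ m ∈ s', ∫⁻ y,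
      ENNReal.ofReal (w (y - p.2 • vel (cen ρ m))) * ‖umc ρ (trc z g) m y‖ₑ ^ 2 := by
    unfold wden
    rw [← Finset.sum_subset (Finset.filter_subset _ _ : s' ⊆ caps ρ)]
    · refine Finset.sum_congr rfl fun m _ => lintegral_congr fun y => ?_
      rw [hw]
      simp only [bn_eq hl hk]
    · intro m hm1 hm2
      have hz0 : ∀ ζ, capc ρ m ζ * trc z g ζ = 0 := by
        refine hfar ρ hρ z m ?_
        by_contra hc
        exact hm2 (Finset.mem_filter.2 ⟨hm1, not_lt.1 hc⟩)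
      have hu : ∀ y, umc ρ (trc z g) m y = 0 := by
        intro y
        unfold umc
        rw [show (fun ζ => capc ρ m ζ * trc z g ζ) = fun _ => (0:ℂ) from funext hz0]
        rw [Real.fourierInv_eq']
        simp
      simp [hu]
  have hR : ∑ m ∈ s, ∫⁻ y, ENNReal.ofReal (w (y - p'.2 • vel (cen ρ' m) - (z - z').1)) *
      ‖umc ρ' g' m y‖ₑ ^ 2 ≤ wden ρ' l k n C g' p' := by
    unfold wden
    refine le_trans (le_of_eq ?_) (Finset.sum_le_sum_of_subset (Finset.filter_subset _ _ :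
      s ⊆ caps ρ'))
    refine Finset.sum_congr rfl fun m _ => lintegral_congr fun y => ?_
    rw [hw]
    simp only [bn_eq hl hk]
    rw [sub_sub (y - p'.2 • vel (cen ρ' m)), e1]
  rw [hL]
  exact key.trans (mul_le_mul_right hR _)

end Crest.Agent.R116.Sup858
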