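import Crest.Agent.R116.Sup9_858

/-!
# R116 (S0155), wave side, **A2k** (SUP of the cone), final assembly (helper858)
-/

set_option autoImplicit false

open MeasureTheory FourierTransform
open scoped ContDiff ENNReal

namespace Crest.Agent.R116.Sup858

open Crest.Agent.R138.Defs (E2 ee)
open Crest.Agent.R138.Wpk685 (cen caps)
open Crest.Agent.R116.CDef480 Crest.Agent.R116.WC188
open Crest.Agent.R116.LZg725 (Cf)
open Crest.Agent.R116.CWp480 Crest.Agent.R116.CWc480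
open Crest.Agent.R116.Ba449 (card_net cylc_eq meas_cylc Gd v3 v3_lt vol_cylc)

/-- gap between `r'` and `s1 r`. -/
theorem gap_le {R r s1 s2 ε δ : ℝ} (hR : 1 ≤ R) (hr : 1 ≤ r) (hRr : R ^ (1/2 : ℝ) ≤ r)
    (hSd : Sd r s1 s2) (hδ4 : δ ≤ 1/4) (hδε : δ ≤ ε) (hrε : r ≤ R ^ (1 - ε)) :
    R ^ δ ≤ min ((s1 * r) ^ 2) R / (s1 * r) := by
  have hR0 : 0 < R := by linarith
  have hr0 : 0 < r := by linarith
  have hs1 := Sd.pos1 hr0 hSd
  have hw : 0 < s1 * r := by positivity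
  have hwr : r ^ (1/2 : ℝ) ≤ s1 * r := by
    calc r ^ (1/2 : ℝ) = r ^ (-(1/2) : ℝ) * r := by
          rw [← Real.rpow_add_one hr0.ne']; norm_num
      _ ≤ s1 * r := by
          have := hSd.lo
          gcongr
  rw [le_div_iff₀ hw, le_min_iff]
  constructor
  · have h1 : R ^ δ ≤ s1 * r := by
      calc R ^ δ ≤ R ^ (1/4 : ℝ) := Real.rpow_le_rpow_of_exponent_le hR hδ4
        _ = (R ^ (1/2 : ℝ)) ^ (1/2 : ℝ) := by rw [← Real.rpow_mul hR0.le]; norm_num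
        _ ≤ r ^ (1/2 : ℝ) := Real.rpow_le_rpow (Real.rpow_nonneg hR0.le _) hRr (by norm_num)
        _ ≤ s1 * r := hwr
    nlinarith
  · have h2 : s1 * r ≤ r := by
      have : s1 ≤ 1 := hSd.le.trans hSd.hi
      nlinarith
    calc R ^ δ * (s1 * r) ≤ R ^ ε * R ^ (1 - ε) := by
          have h3 : R ^ δ ≤ R ^ ε := Real.rpow_le_rpow_of_exponent_le hR hδε
          have h4 : s1 * r ≤ R ^ (1 - ε) := h2.trans hrε
          have h5 : 0 ≤ R ^ ε := Real.rpow_nonneg hR0.le _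
          exact mul_le_mul h3 h4 hw.le h5
      _ = R := by
          rw [← Real.rpow_add hR0]
          norm_num

/-- **one slope cap, numbers.** -/
theorem cap_num {q A M0 ε c CL : ℝ} {c1 c2 Db : ℝ} {N : ℕ} {δ : ℝ}
    (hA : 1 ≤ A) (hq : 0 ≤ q) (hCL : 0 ≤ CL) (hc1 : 0 ≤ c1) (hc2 : 0 ≤ c2)
    (hDb : 1 ≤ Db) (hN : 3 + |M0| / 2 + q / 4 ≤ N * δ) {R r s1 s2 D : ℝ} {g : E3 → ℂ} {Ct : E2}
    (hR : 1 ≤ R) (hr : 1 ≤ r) (hrR : r ≤ R) (hSd : Sd r s1 s2) (hD : 0 ≤ D)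
    (hgap : R ^ δ ≤ min ((s1 * r) ^ 2) R / (s1 * r))
    (hEnc : Enc (fun ζ => chi A Ct s2 ζ * g ζ) ≤ R ^ M0 * D)
    (hLB : NP (2 * (15 * A ^ 2 + 1)) (min ((s1 * r) ^ 2) R) (fun ζ => chi A Ct s2 ζ * g ζ) R ≤
      ENNReal.ofReal (CL * R ^ ε * (R / min ((s1 * r) ^ 2) R) ^ (c / 2) *
        (min 1 ((A + 4) * s2)) ^ (q / 2) * SS (fun ζ => chi A Ct s2 ζ * g ζ) R (Db * D))) :
    ENNReal.ofReal c1 * NP (2 * (15 * A ^ 2 + 1)) (min ((s1 * r) ^ 2) R)
        (fun ζ => chi A Ct s2 ζ * g ζ) R +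
      ENNReal.ofReal (c2 * R ^ 4 * ((min ((s1 * r) ^ 2) R / (s1 * r)) ^ N)⁻¹) *
        ENNReal.ofReal (Enc (fun ζ => chi A Ct s2 ζ * g ζ)) ^ (3/2 : ℝ) ≤
    ENNReal.ofReal ((c1 * CL * (A + 4) ^ (q / 2) * Real.sqrt Db * (R ^ ε *
      (max 1 (R / (s1 * r) ^ 2)) ^ (c / 2)) + c2) *
      (s2 ^ (q / 2) * (R * Enc (fun ζ => chi A Ct s2 ζ * g ζ) * Real.sqrt D))) := by
  have hR0 : 0 < R := by linarith
  have hr0 : 0 < r := by linarith
  have hs1 := Sd.pos1 hr0 hSd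
  have hs2 := Sd.pos2 hr0 hSd
  have hw : 0 < s1 * r := by positivity
  set E : ℝ := Enc (fun ζ => chi A Ct s2 ζ * g ζ) with hE
  have hE0 : 0 ≤ E := Crest.Agent.R116.Ba449.Enc_nonneg _
  have hX : R / min ((s1 * r) ^ 2) R = max 1 (R / (s1 * r) ^ 2) := by
    rcases le_total ((s1 * r) ^ 2) R with h | h
    · rw [min_eq_left h, max_eq_right]
      rw [le_div_iff₀ (by positivity), one_mul]
      exact h
    · rw [min_eq_right h, div_self hR0.ne', max_eq_left]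
      rw [div_le_one (by positivity)]
      exact h
  rw [hX] at hLB
  set X : ℝ := max 1 (R / (s1 * r) ^ 2) with hXdef
  have hX1 : 1 ≤ X := le_max_left _ _
  have hσ : (min 1 ((A + 4) * s2)) ^ (q / 2) ≤ (A + 4) ^ (q / 2) * s2 ^ (q / 2) := by
    rw [← Real.mul_rpow (by linarith) hs2.le]
    exact Real.rpow_le_rpow (le_min zero_le_one (by positivity)) (min_le_right _ _) (by linarith)
  have hsD : Real.sqrt (Db * D) = Real.sqrt Db * Real.sqrt D := Real.sqrt_mul (by linarith) _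
  have h1 : ENNReal.ofReal c1 * NP (2 * (15 * A ^ 2 + 1)) (min ((s1 * r) ^ 2) R)
      (fun ζ => chi A Ct s2 ζ * g ζ) R ≤ ENNReal.ofReal (c1 * CL * (A + 4) ^ (q / 2) *
      Real.sqrt Db * (R ^ ε * X ^ (c / 2)) * (s2 ^ (q / 2) * (R * E * Real.sqrt D))) := by
    refine (mul_le_mul_right hLB _).trans ?_
    rw [← ENNReal.ofReal_mul hc1]
    refine ENNReal.ofReal_le_ofReal ?_
    unfold SS
    rw [← hE, hsD]
    have h2 : 0 ≤ R ^ ε := Real.rpow_nonneg hR0.le _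
    have h3 : 0 ≤ X ^ (c / 2) := Real.rpow_nonneg (by linarith) _
    have h4 := Real.sqrt_nonneg Db
    have h5 := Real.sqrt_nonneg D
    calc c1 * (CL * R ^ ε * X ^ (c / 2) * min 1 ((A + 4) * s2) ^ (q / 2) *
          (R * E * (Real.sqrt Db * Real.sqrt D))) ≤
          c1 * (CL * R ^ ε * X ^ (c / 2) * ((A + 4) ^ (q / 2) * s2 ^ (q / 2)) *
          (R * E * (Real.sqrt Db * Real.sqrt D))) := by gcongr
      _ = _ := by ring
  have h2 : ENNReal.ofReal (c2 * R ^ 4 * ((min ((s1 * r) ^ 2) R / (s1 * r)) ^ N)⁻¹) *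
      ENNReal.ofReal E ^ (3/2 : ℝ) ≤
      ENNReal.ofReal (c2 * (s2 ^ (q / 2) * (R * E * Real.sqrt D))) := by
    have h0 : 0 ≤ min ((s1 * r) ^ 2) R / (s1 * r) := by
      refine div_nonneg (le_min (by positivity) hR0.le) hw.le
    rw [ENNReal.ofReal_rpow_of_nonneg hE0 (by norm_num), ← ENNReal.ofReal_mul (by positivity)]
    refine ENNReal.ofReal_le_ofReal ?_
    exact tail_num hR hr hrR hSd hq hD hE0 hEnc hc2 hgap hN
  refine (add_le_add h1 h2).trans (le_of_eq ?_)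
  have h3 : 0 ≤ R ^ ε := Real.rpow_nonneg hR0.le _
  have h4 : 0 ≤ X ^ (c / 2) := Real.rpow_nonneg (by linarith) _
  rw [← ENNReal.ofReal_add (by positivity) (by positivity)]
  congr 1
  ring

set_option maxHeartbeats 4000000 in
/-- **A2k from its inputs.** -/
theorem a2k_of {M q : ℝ} (hq : 0 ≤ q) (hV : VolC M) (hB : MulBx M q) (hC : CNV M q)
    (hT : TRIV2s M q) : A2k M q := by
  classical
  intro c hc hLB
  obtain ⟨J, hJ, hT⟩ := hT
  refine ⟨1 + J, by linarith, ?_⟩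
  intro a b A ε M0 ha hb hb2 hA hε
  obtain ⟨CT, hCT, hT⟩ := hT a b A ε M0 ha hb hb2 hA hε
  obtain ⟨CC, R0, hCC, hR0, hCNV⟩ := hC a b M0 ha hb hb2
  obtain ⟨Cb, hCb, hMul⟩ := hB a b A ha hb hb2 hA
  have hA2 : (1:ℝ) ≤ 2 * (15 * A ^ 2 + 1) := by nlinarith [sq_nonneg A]
  obtain ⟨CL, hCL, hLB⟩ := hLB a b (2 * (15 * A ^ 2 + 1)) ε M0 ha hb hb2 hA2 hε
  set δ : ℝ := min (1/4) ε with hδ
  have hδ0 : 0 < δ := lt_min (by norm_num) hε
  obtain ⟨N, hN⟩ := exists_nat_ge ((3 + |M0| / 2 + q / 4) / δ)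
  rw [div_le_iff₀ hδ0] at hN
  obtain ⟨c1, c2, hc1, hc2, hcap⟩ := cap_le hV ha hb hb2 hA N
  have hA40 : (0:ℝ) ≤ (A + 4) ^ (q / 2) := Real.rpow_nonneg (by linarith) _
  have hsb : 0 ≤ Real.sqrt (Cb * CC) := Real.sqrt_nonneg _
  set Cm : ℝ := (c1 * CL * (A + 4) ^ (q / 2) * Real.sqrt (Cb * CC) + c2) *
    (2 * (A + 4) + 1) ^ 2 with hCm
  have hCm0 : 0 ≤ Cm := by positivity
  have hR0J : 0 ≤ R0 ^ J := Real.rpow_nonneg (by linarith) _
  refine ⟨CT * (1 + R0 ^ J) + Cm, by positivity, ?_⟩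
  intro κ η0 C0 σ g R D hκ hκa hκR hSt hSlc r s1 s2 hRr hrR hSd
  have hR : 1 ≤ R := hSt.R1
  have hR0' : 0 < R := by linarith
  have hr : 1 ≤ r := (Real.one_le_rpow hR (by norm_num)).trans hRr
  have hr0 : 0 < r := by linarith
  have hs1 := Sd.pos1 hr0 hSd
  have hs2 := Sd.pos2 hr0 hSd
  have hD := hSt.D0
  have hSS : 0 ≤ SS g R D := by
    unfold SS
    have := Crest.Agent.R116.Ba449.Enc_nonneg g
    have := Real.sqrt_nonneg D
    positivity
  set X : ℝ := max 1 (R / (s1 * r) ^ 2) with hXdef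
  have hX1 : 1 ≤ X := le_max_left _ _
  have hXc : 1 ≤ X ^ (c / 2) := Real.one_le_rpow hX1 (by linarith)
  have hRK : R ^ ε ≤ R ^ ((1 + J) * ε) := Real.rpow_le_rpow_of_exponent_le hR
    (le_mul_of_one_le_left hε.le (by linarith))
  have hCTJ : 0 ≤ CT * R0 ^ J := mul_nonneg hCT hR0J
  have hCe : CT * (1 + R0 ^ J) + Cm = CT + CT * R0 ^ J + Cm := by ring
  have hC1 : CT ≤ CT * (1 + R0 ^ J) + Cm := by rw [hCe]; linarith
  have hC2 : CT * R0 ^ J ≤ CT * (1 + R0 ^ J) + Cm := by rw [hCe]; linarith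
  have hC3 : Cm ≤ CT * (1 + R0 ^ J) + Cm := by rw [hCe]; linarith
  have hC0 : 0 ≤ CT * (1 + R0 ^ J) + Cm := hCm0.trans hC3
  have hRε0 : 0 ≤ R ^ ε := Real.rpow_nonneg hR0'.le _
  have hRK0 : 0 ≤ R ^ ((1 + J) * ε) := Real.rpow_nonneg hR0'.le _
  have hRK1 : 1 ≤ R ^ ((1 + J) * ε) := Real.one_le_rpow hR (by positivity)
  have hT1 := hT κ η0 C0 σ g R D hκ hκa hκR hSt hSlc r s1 s2 hRr hrR hSd
  -- the trivial range
  rcases le_or_gt (R ^ (1 - ε)) r with hbig | hsmall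
  · refine hT1.trans (ENNReal.ofReal_le_ofReal ?_)
    have h1 : R / r ≤ R ^ ε := by
      rw [div_le_iff₀ hr0]
      calc R = R ^ ε * R ^ (1 - ε) := by
            rw [← Real.rpow_add hR0']
            norm_num
        _ ≤ R ^ ε * r := by gcongr
    have h2 : (R / r) ^ J ≤ R ^ (J * ε) := by
      calc (R / r) ^ J ≤ (R ^ ε) ^ J := Real.rpow_le_rpow (by positivity) h1 hJ
        _ = _ := by rw [← Real.rpow_mul hR0'.le, mul_comm]
    calc CT * R ^ ε * (R / r) ^ J * SS g R D ≤ CT * R ^ ε * R ^ (J * ε) * SS g R D := by gcongr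
      _ = CT * R ^ ((1 + J) * ε) * 1 * SS g R D := by
          have : R ^ ε * R ^ (J * ε) = R ^ ((1 + J) * ε) := by
            rw [← Real.rpow_add hR0']
            congr 1
            ring
          rw [mul_assoc CT, this, mul_one]
      _ ≤ (CT * (1 + R0 ^ J) + Cm) * R ^ ((1 + J) * ε) * X ^ (c / 2) * SS g R D :=
          mul_le_mul_of_nonneg_right (mul_le_mul (mul_le_mul_of_nonneg_right hC1 hRK0) hXc
            zero_le_one (mul_nonneg hC0 hRK0)) hSS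
  rcases lt_or_ge R R0 with hRR0 | hRR0
  · refine hT1.trans (ENNReal.ofReal_le_ofReal ?_)
    have h1 : R / r ≤ R0 := (div_le_self hR0'.le hr).trans hRR0.le
    have h2 : (R / r) ^ J ≤ R0 ^ J := Real.rpow_le_rpow (by positivity) h1 hJ
    calc CT * R ^ ε * (R / r) ^ J * SS g R D ≤ CT * R ^ ((1 + J) * ε) * R0 ^ J * SS g R D := by
          gcongr
      _ = (CT * R0 ^ J) * R ^ ((1 + J) * ε) * 1 * SS g R D := by ring
      _ ≤ (CT * (1 + R0 ^ J) + Cm) * R ^ ((1 + J) * ε) * X ^ (c / 2) * SS g R D :=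
          mul_le_mul_of_nonneg_right (mul_le_mul (mul_le_mul_of_nonneg_right hC2 hRK0) hXc
            zero_le_one (mul_nonneg hC0 hRK0)) hSS
  -- the main range
  have ha0 : 0 < a := by linarith
  have hκ1 : κ ≤ 1 := by
    refine le_trans ?_ hκa
    exact le_mul_of_one_le_left hκ.le (by linarith)
  have hκr : 1 ≤ κ * r := by
    calc (1:ℝ) ≤ R ^ (1/4 : ℝ) := Real.one_le_rpow hR (by norm_num)
      _ = R ^ (-(1/4) : ℝ) * R ^ (1/2 : ℝ) := by
          rw [← Real.rpow_add hR0']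
          norm_num
      _ ≤ κ * r := by
          have : 0 ≤ R ^ (1/2 : ℝ) := Real.rpow_nonneg hR0'.le _
          gcongr
  have hgap := gap_le hR hr hRr hSd (min_le_left _ _ : δ ≤ 1/4) (min_le_right _ _ : δ ≤ ε)
    hsmall.le
  have hgs : ∀ ζ, g ζ ≠ 0 → a⁻¹ ≤ ζ 2 ∧ ζ 2 ≤ a ∧ ‖slp ζ‖ ≤ b := fun ζ hz =>
    ⟨(hSt.supp ζ hz).1, (hSt.supp ζ hz).2.1, (hSt.supp ζ hz).2.2.1⟩
  have hgG : Gd (3 * a) g := gd_of ha hb2.le hSt.meas hSt.bdd hgs
  have hSt1 := hCNV κ η0 C0 σ g R D hκ hκa hRR0 hκR hSt hSlc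
  set w2 : ℝ := min ((s1 * r) ^ 2) R with hw2
  have hw : 0 < s1 * r := by positivity
  have hwr : 1 ≤ s1 ^ 2 * r := by
    have h1 := hSd.lo
    have h2 : (r ^ (-(1/2) : ℝ)) ^ 2 * r = 1 := by
      rw [← Real.rpow_natCast, ← Real.rpow_mul hr0.le, ← Real.rpow_add_one hr0.ne']
      norm_num
    rw [← h2]
    have h3 : 0 < r ^ (-(1/2) : ℝ) := Real.rpow_pos_of_pos hr0 _
    exact mul_le_mul_of_nonneg_right (pow_le_pow_left₀ h3.le h1 2) hr0.le
  have hrw : r ≤ w2 := by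
    refine le_min ?_ hrR
    calc r = 1 * r := (one_mul r).symm
      _ ≤ (s1 ^ 2 * r) * r := mul_le_mul_of_nonneg_right hwr hr0.le
      _ = (s1 * r) ^ 2 := by ring
  have hw2R : w2 ≤ R := min_le_right _ _
  have hw2s : w2 ^ (1/2 : ℝ) ≤ s1 * r := by
    have h1 : w2 ≤ (s1 * r) ^ 2 := min_le_left _ _
    calc w2 ^ (1/2 : ℝ) ≤ ((s1 * r) ^ 2) ^ (1/2 : ℝ) :=
          Real.rpow_le_rpow (by linarith) h1 (by norm_num)
      _ = s1 * r := by
          rw [← Real.sqrt_eq_rpow, Real.sqrt_sq hw.le]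
  have hρs : R ^ (-(1/2) : ℝ) ≤ s2 :=
    (Real.rpow_le_rpow_of_nonpos hr0 hrR (by norm_num)).trans (hSd.lo.trans hSd.le)
  -- one cap
  have hone : ∀ Ct : E2, ∀ I : Finset ℕ, ∀ P : ℕ → Plate, Plates M κ A r s1 s2 R I P →
      (∀ i ∈ I, ‖(P i).c - Ct‖ ≤ s2) → val κ g r s1 s2 I P ≤
      ENNReal.ofReal ((c1 * CL * (A + 4) ^ (q / 2) * Real.sqrt (Cb * CC) * (R ^ ε *
        X ^ (c / 2)) + c2) * (s2 ^ (q / 2) * (R * Enc (fun ζ => chi A Ct s2 ζ * g ζ) *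
          Real.sqrt D))) := by
    intro Ct I P hP hct
    refine (hcap κ r s1 s2 R g Ct I P hκ hκ1 hr hrR hκr hSd hSt.meas hSt.bdd hgs hP hct w2 hrw
      hw2R hw2s).trans ?_
    have hEle : Enc (fun ζ => chi A Ct s2 ζ * g ζ) ≤ R ^ M0 * D :=
      (Enc_chi_le hgG Ct).trans hSt.nd
    have hDD : D ≤ Cb * CC * D :=
      le_mul_of_one_le_left hD (one_le_mul_of_one_le_of_one_le hCb hCC)
    have hStt : St M 1 q a b M0 Ct ((A + 4) * s2) (fun ζ => chi A Ct s2 ζ * g ζ) R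
        (Cb * CC * D) := by
      obtain ⟨B, hBd⟩ := hSt.bdd
      refine ⟨(measurable_chi A Ct s2).mul hSt.meas, ⟨B, fun ζ => ?_⟩, fun ζ hz => ?_, hR,
        by positivity, ?_, ?_⟩
      · rw [norm_mul]
        calc ‖chi A Ct s2 ζ‖ * ‖g ζ‖ ≤ 1 * ‖g ζ‖ := by gcongr; exact norm_chi _ _ _ _
          _ ≤ B := by rw [one_mul]; exact hBd ζ
      · obtain ⟨h1, h2, h3⟩ := hgs ζ (right_ne_zero_of_mul hz)
        exact ⟨h1, h2, h3, chi_ne (by linarith) hs2 (left_ne_zero_of_mul hz)⟩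
      · have h1 := hMul g R (CC * D) s2 Ct hR (by positivity) hρs hSd.hi hSt.meas hSt.bdd hgs
          hSt1.box
        rwa [← mul_assoc] at h1
      · refine hEle.trans ?_
        have : 0 ≤ R ^ M0 := Real.rpow_nonneg hR0'.le _
        gcongr
    have hσ : w2 ^ (-(1/2) : ℝ) ≤ (A + 4) * s2 := by
      calc w2 ^ (-(1/2) : ℝ) ≤ r ^ (-(1/2) : ℝ) :=
            Real.rpow_le_rpow_of_nonpos hr0 hrw (by norm_num)
        _ ≤ s2 := hSd.lo.trans hSd.le
        _ ≤ _ := le_mul_of_one_le_left hs2.le (by linarith)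
    have hLB1 := hLB Ct ((A + 4) * s2) (fun ζ => chi A Ct s2 ζ * g ζ) R (Cb * CC * D) hStt w2
      (hr.trans hrw) hw2R hσ
    exact cap_num hA hq hCL hc1 hc2 (one_le_mul_of_one_le_of_one_le hCb hCC) hN hR hr hrR hSd hD
      hgap hEle hLB1
  -- the supremum
  have hmain : SIG M κ A r s1 s2 g R ≤ ENNReal.ofReal (s2 ^ (q / 2) * (Cm *
      R ^ ((1 + J) * ε) * X ^ (c / 2) * SS g R D)) := by
    unfold SIG
    refine iSup_le fun I => iSup_le fun P => iSup_le fun hP => ?_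
    set T : Finset (ℤ × ℤ) := I.image fun i => nrc s2 (P i).c with hTdef
    have h1 : val κ g r s1 s2 I P = ∑ t ∈ T, val κ g r s1 s2
        (I.filter fun i => nrc s2 (P i).c = t) P := by
      unfold val
      rw [Finset.sum_fiberwise_of_maps_to (s := I) (t := T) (g := fun i => nrc s2 (P i).c)
        (fun i hi => Finset.mem_image_of_mem _ hi)]
    rw [h1]
    have h2 : ∀ t ∈ T, val κ g r s1 s2 (I.filter fun i => nrc s2 (P i).c = t) P ≤
        ENNReal.ofReal ((c1 * CL * (A + 4) ^ (q / 2) * Real.sqrt (Cb * CC) * (R ^ ε *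
        X ^ (c / 2)) + c2) * (s2 ^ (q / 2) * (R * Enc (fun ζ => chi A (cen s2 t) s2 ζ * g ζ) *
          Real.sqrt D))) := by
      intro t _
      refine hone (cen s2 t) _ P (plates_sub hP (Finset.filter_subset _ _)) ?_
      intro i hi
      rw [← (Finset.mem_filter.1 hi).2]
      exact nrc_le hs2 _
    refine (Finset.sum_le_sum h2).trans ?_
    have hX0 : 0 ≤ X ^ (c / 2) := by linarith
    have hs2q : 0 ≤ s2 ^ (q / 2) := Real.rpow_nonneg hs2.le _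
    have hsD := Real.sqrt_nonneg D
    rw [← ENNReal.ofReal_sum_of_nonneg]
    swap
    · intro t _
      have := Crest.Agent.R116.Ba449.Enc_nonneg (fun ζ => chi A (cen s2 t) s2 ζ * g ζ)
      positivity
    refine ENNReal.ofReal_le_ofReal ?_
    have h3 := sum_Enc_chi (A := A) (s := s2) (by linarith) hs2 hgG T
    have h4 : ∑ t ∈ T, (c1 * CL * (A + 4) ^ (q / 2) * Real.sqrt (Cb * CC) * (R ^ ε *
        X ^ (c / 2)) + c2) * (s2 ^ (q / 2) * (R * Enc (fun ζ => chi A (cen s2 t) s2 ζ * g ζ) *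
          Real.sqrt D)) = (c1 * CL * (A + 4) ^ (q / 2) * Real.sqrt (Cb * CC) * (R ^ ε *
        X ^ (c / 2)) + c2) * (s2 ^ (q / 2) * R * Real.sqrt D) *
        ∑ t ∈ T, Enc (fun ζ => chi A (cen s2 t) s2 ζ * g ζ) := by
      rw [Finset.mul_sum]
      refine Finset.sum_congr rfl fun t _ => ?_
      ring
    rw [h4]
    have h5 : c1 * CL * (A + 4) ^ (q / 2) * Real.sqrt (Cb * CC) * (R ^ ε * X ^ (c / 2)) + c2 ≤
        (c1 * CL * (A + 4) ^ (q / 2) * Real.sqrt (Cb * CC) + c2) *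
          (R ^ ((1 + J) * ε) * X ^ (c / 2)) := by
      rw [add_mul]
      have hk1 : 0 ≤ c1 * CL * (A + 4) ^ (q / 2) * Real.sqrt (Cb * CC) :=
        mul_nonneg (mul_nonneg (mul_nonneg hc1 hCL) hA40) hsb
      refine add_le_add ?_ ?_
      · exact mul_le_mul_of_nonneg_left (mul_le_mul_of_nonneg_right hRK hX0) hk1
      · exact le_mul_of_one_le_right hc2 (one_le_mul_of_one_le_of_one_le hRK1 hXc)
    have hk2 : 0 ≤ s2 ^ (q / 2) * R * Real.sqrt D := mul_nonneg (mul_nonneg hs2q hR0'.le) hsD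
    have hk3 : 0 ≤ ∑ t ∈ T, Enc (fun ζ => chi A (cen s2 t) s2 ζ * g ζ) :=
      Finset.sum_nonneg fun t _ => Crest.Agent.R116.Ba449.Enc_nonneg _
    have hk4 : 0 ≤ (c1 * CL * (A + 4) ^ (q / 2) * Real.sqrt (Cb * CC) + c2) *
          (R ^ ((1 + J) * ε) * X ^ (c / 2)) := mul_nonneg (add_nonneg (mul_nonneg (mul_nonneg
            (mul_nonneg hc1 hCL) hA40) hsb) hc2) (mul_nonneg hRK0 hX0)
    calc _ ≤ ((c1 * CL * (A + 4) ^ (q / 2) * Real.sqrt (Cb * CC) + c2) *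
          (R ^ ((1 + J) * ε) * X ^ (c / 2))) * (s2 ^ (q / 2) * R * Real.sqrt D) *
          ((2 * (A + 4) + 1) ^ 2 * Enc g) :=
          mul_le_mul (mul_le_mul_of_nonneg_right h5 hk2) h3 hk3 (mul_nonneg hk4 hk2)
      _ = _ := by
          rw [hCm]
          unfold SS
          ring
  have hs2q : s2 ^ (-q / 2) * s2 ^ (q / 2) = 1 := by
    rw [← Real.rpow_add hs2]
    have : -q / 2 + q / 2 = 0 := by ring
    rw [this, Real.rpow_zero]
  calc ENNReal.ofReal (s2 ^ (-q / 2)) * SIG M κ A r s1 s2 g R ≤ ENNReal.ofReal (s2 ^ (-q / 2)) *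
        ENNReal.ofReal (s2 ^ (q / 2) * (Cm * R ^ ((1 + J) * ε) * X ^ (c / 2) * SS g R D)) :=
        mul_le_mul_right hmain _
    _ = ENNReal.ofReal (Cm * R ^ ((1 + J) * ε) * X ^ (c / 2) * SS g R D) := by
        rw [← ENNReal.ofReal_mul (Real.rpow_nonneg hs2.le _), ← mul_assoc, hs2q, one_mul]
    _ ≤ _ := by
        refine ENNReal.ofReal_le_ofReal ?_
        have hX0 : 0 ≤ X ^ (c / 2) := by linarith
        exact mul_le_mul_of_nonneg_right (mul_le_mul_of_nonneg_right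
          (mul_le_mul_of_nonneg_right hC3 hRK0) hX0) hSS

end Crest.Agent.R116.Sup858
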