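import Crest.Agent.R116.Sup0_858
import Crest.Agent.R116.LZv2_725

/-!
# R116 (S0155), wave side, A2k: volume of the time slices of the dilated members (helper192)

`volC M : Sup858.VolC M`: the points of time `s` which are within `A (s1 r, s1 r, s2 s1 r)` of a ray
of the `A`-dilated member have volume `≤ C(A, M) scost`.  If `s1 ≤ s2 / C` this is 725's
`vol_sec_ray`, otherwise the light box alone.
-/

set_option autoImplicit false

open MeasureTheory
open scoped ENNReal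

namespace Crest.Agent.R116.SupV192

open Crest.Agent.R138.Defs (E2)
open Crest.Agent.R116.CDef480 Crest.Agent.R116.WC188 Crest.Agent.R116.Sup858
open Crest.Agent.R116.LZg725 (Cf vol_slab_gr vol_frame vol_sec_ray d_le_of_ny ny_sg_le)

/-- volume of a cylinder. -/
theorem vol_cyl {a t : ℝ} (ha : 0 ≤ a) (ht : 0 ≤ t) :
    volume {Y : E3 | ‖lat Y‖ ≤ a ∧ |Y 2| ≤ t} ≤ ENNReal.ofReal (64 * a * a * t) := by
  set e : E2 := EuclideanSpace.single 0 1 with he'
  have he : ‖e‖ = 1 := by simp [he']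
  have h := vol_slab_gr (al := 0) (g := 0) (d := 0) (be := e) (A := a) (t := t) (lam := a)
    (kap := 1) one_pos ha ha ht
  rw [div_one] at h
  refine (measure_mono ?_).trans h
  rintro Y ⟨h1, h2⟩
  refine ⟨h1, h2, ?_, ?_⟩
  · rw [zero_add, zero_mul, zero_mul, add_zero, add_zero]
    exact (abs_real_inner_le_norm _ _).trans (by rw [he, one_mul]; exact h1)
  · rw [mul_zero, zero_smul, add_zero, he]

/-- volume of a light box at a fixed time. -/
theorem vol_lbox (c x0 : E2) (y0 s0 s : ℝ) {a t : ℝ} (ha : 0 ≤ a) (ht : 0 ≤ t) :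
    volume {X : E3 | ‖(lat X - x0) + (s - s0) • c‖ ≤ a ∧
      |LZg725.nrm c (lat X) (X 2) s - LZg725.nrm c x0 y0 s0| ≤ t} ≤
      ENNReal.ofReal (64 * a * a * t) := by
  have h := vol_frame c x0 y0 s0 s {Y : E3 | ‖lat Y‖ ≤ a ∧ |Y 2| ≤ t}
  refine le_trans (le_of_eq ?_) (h.trans_le (vol_cyl ha ht))
  congr 1
  ext X
  simp only [Set.mem_ofPred_eq, lat_pt, pt_two]

theorem nrm_eq (C : E2) (X : E3) (s : ℝ) : nrm C X s = LZg725.nrm C (lat X) (X 2) s := rfl

set_option maxHeartbeats 1000000 in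
/-- geometry of a point near a ray of the dilated member. -/
theorem near_ray {M A r s1 s2 T s : ℝ} {c C : E2} {X0 X Y : E3} {f : Cf E2} (hM : 0 ≤ M)
    (hA : 1 ≤ A) (hr : 0 < r) (hs1 : 0 < s1) (h12 : s1 ≤ s2) (hT : s2 ^ 2 ≤ T)
    (hdisc : f.disc = 1) (hny : |f.ny 0| * T ≤ M * s2) (hd : 2 * |f.d| * (T * r) ≤ M * s2)
    (hs : |s| ≤ r) (hC : ‖C - c‖ ≤ A * s2) (hY1 : ‖lat Y - lat X0‖ ≤ A * s2 * r)
    (hY2 : |nrm c Y 0 - nrm c X0 0| ≤ A * T * r)
    (hev : |f.ev (lat Y) (Y 2) 0| ≤ A * s1 * r) (hld : |f.ld C (lat Y) (Y 2) 0| ≤ A * s1)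
    (hZ1 : ‖lat (Y - s • vel C - X)‖ ≤ A * (s1 * r))
    (hZ2 : |nrm C (Y - s • vel C - X) 0| ≤ A * (s2 * (s1 * r))) :
    ‖(lat X - lat X0) + (s - 0) • c‖ ≤ 4 * A ^ 2 * s2 * r ∧
    |LZg725.nrm c (lat X) (X 2) s - LZg725.nrm c (lat X0) (X0 2) 0| ≤ 4 * A ^ 2 * T * r ∧
    |f.ev (lat X) (X 2) s| ≤ (3 * A + 7 * A ^ 2 * M) * (s1 * r) ∧
    |f.ld C (lat X) (X 2) s| ≤ (3 * A + 7 * A ^ 2 * M) * s1 := by
  have hA0 : 0 < A := by linarith
  have hs20 : 0 < s2 := hs1.trans_le h12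
  have hT0 : 0 < T := lt_of_lt_of_le (pow_pos hs20 2) hT
  set z : E2 := lat (Y - s • vel C - X) with hz
  set nz : ℝ := nrm C (Y - s • vel C - X) 0 with hnz
  have ez : z = lat Y - s • C - lat X := by
    rw [hz, lat_sub, lat_sub, lat_smul]; unfold vel; rw [lat_pt]
  have enz : nz = (Y 2 + s * ‖C‖ ^ 2 / 2 - X 2) + inner ℝ C z := by
    rw [hnz, hz]
    unfold nrm
    have : (Y - s • vel C - X) 2 = Y 2 + s * ‖C‖ ^ 2 / 2 - X 2 := by
      unfold vel
      simp only [PiLp.sub_apply, PiLp.smul_apply, smul_eq_mul, pt_two]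
      ring
    rw [this]; ring
  have elX : lat X = lat Y - s • C - z := by rw [ez]; abel
  have eX2 : X 2 = Y 2 + s * ‖C‖ ^ 2 / 2 + inner ℝ C z - nz := by rw [enz]; ring
  have eN : LZg725.nrm C (lat X) (X 2) s - LZg725.nrm C (lat Y) (Y 2) 0 = -nz := by
    unfold LZg725.nrm
    rw [elX, eX2, inner_sub_right, inner_sub_right, real_inner_smul_right,
      real_inner_self_eq_norm_sq]
    ring
  have eNc : LZg725.nrm c (lat X) (X 2) s - LZg725.nrm c (lat Y) (Y 2) 0 =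
      -nz + inner ℝ (C - c) z + s * ‖C - c‖ ^ 2 / 2 := by
    have h1 := LZg725.nrm_sub C c (lat X) (X 2) s
    have h2 := LZg725.nrm_sub C c (lat Y) (Y 2) 0
    have e3 : inner ℝ (c - C) (lat X + s • C) = inner ℝ (c - C) (lat Y) - inner ℝ (c - C) z := by
      rw [elX, ← inner_sub_right]; congr 1; abel
    have e4 : inner ℝ (C - c) z = - inner ℝ (c - C) z := by
      rw [← inner_neg_left, neg_sub]
    rw [zero_smul, add_zero] at h2
    rw [norm_sub_rev C c, e4]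
    rw [e3] at h1
    linarith [eN]
  have hd2 : 2 * |f.d| * r * s2 ≤ M := ny_sg_le hs20 hT (by positivity) hM (by linarith)
  have hn2 : |f.ny 0| * s2 ≤ M := ny_sg_le hs20 hT (abs_nonneg _) hM hny
  have hzn := norm_nonneg z
  have hrs : 0 < s1 * r := mul_pos hs1 hr
  have hnz' : |nz| ≤ A * (s2 * (s1 * r)) := hZ2
  have hzz : ‖z‖ ≤ A * (s1 * r) := hZ1
  have hAA : A ≤ A ^ 2 := by rw [sq]; exact le_mul_of_one_le_left hA0.le hA
  have hMA : A * M ≤ A ^ 2 * M := mul_le_mul_of_nonneg_right hAA hM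
  have hM2 : 0 ≤ A ^ 2 * M := by positivity
  -- lateral gradient
  have hgr : ‖f.gr C (lat Y) 0‖ ≤ 1 + 4 * A * M := by
    have h1 := f.norm_gr_sq C (lat Y) (Y 2) 0
    rw [hdisc] at h1
    have h2 : |f.ny 0 * f.ld C (lat Y) (Y 2) 0| ≤ A * M := by
      rw [abs_mul]
      calc |f.ny 0| * |f.ld C (lat Y) (Y 2) 0| ≤ |f.ny 0| * (A * s2) := by
            gcongr; exact hld.trans (by gcongr)
        _ = A * (|f.ny 0| * s2) := by ring
        _ ≤ A * M := by gcongr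
    have h3 : |f.d * f.ev (lat Y) (Y 2) 0| ≤ A * M / 2 := by
      rw [abs_mul]
      calc |f.d| * |f.ev (lat Y) (Y 2) 0| ≤ |f.d| * (A * s2 * r) := by
            gcongr; exact hev.trans (by gcongr)
        _ = A * (2 * |f.d| * r * s2) / 2 := by ring
        _ ≤ A * M / 2 := by gcongr
    have h4 := (abs_le.1 h2).2
    have h5 := (abs_le.1 h3).2
    have h6 : ‖f.gr C (lat Y) 0‖ ^ 2 ≤ 1 + 4 * A * M := by rw [h1]; linarith
    have h7 : 0 ≤ A * M := by positivity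
    have h8 : 1 ≤ 1 + 4 * A * M := by linarith
    refine (sq_le_sq₀ (norm_nonneg _) (by linarith)).1 (h6.trans ?_)
    exact le_self_pow₀ h8 (by norm_num)
  refine ⟨?_, ?_, ?_, ?_⟩
  · have e : (lat X - lat X0) + (s - 0) • c = (lat Y - lat X0) - s • (C - c) - z := by
      rw [elX, sub_zero]; module
    rw [e]
    calc ‖(lat Y - lat X0) - s • (C - c) - z‖ ≤ ‖lat Y - lat X0‖ + ‖s • (C - c)‖ + ‖z‖ :=
          (norm_sub_le _ _).trans (by gcongr; exact norm_sub_le _ _)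
      _ ≤ A * s2 * r + r * (A * s2) + A * (s1 * r) := by
          rw [norm_smul, Real.norm_eq_abs]
          gcongr
      _ ≤ A * s2 * r + r * (A * s2) + A * (s2 * r) := by gcongr
      _ = 3 * A * (s2 * r) := by ring
      _ ≤ 4 * A ^ 2 * (s2 * r) := by
          gcongr ?_ * (s2 * r)
          linarith
      _ = _ := by ring
  · have e : LZg725.nrm c (lat X) (X 2) s - LZg725.nrm c (lat X0) (X0 2) 0 =
        (nrm c Y 0 - nrm c X0 0) + (-nz + inner ℝ (C - c) z + s * ‖C - c‖ ^ 2 / 2) := by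
      rw [← eNc, nrm_eq, nrm_eq]; ring
    rw [e]
    have i1 : |inner ℝ (C - c) z| ≤ A * s2 * (A * (s1 * r)) :=
      (abs_real_inner_le_norm _ _).trans (by gcongr)
    have i2 : |s * ‖C - c‖ ^ 2 / 2| ≤ r * (A * s2) ^ 2 / 2 := by
      rw [abs_div, abs_mul, abs_of_nonneg (by positivity : (0:ℝ) ≤ ‖C - c‖ ^ 2),
        abs_of_pos (by norm_num : (0:ℝ) < 2)]
      gcongr
    have i3 : s2 * (s1 * r) ≤ T * r := by
      calc s2 * (s1 * r) ≤ s2 * (s2 * r) := by gcongr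
        _ = s2 ^ 2 * r := by ring
        _ ≤ T * r := by gcongr
    have i4 : s2 ^ 2 * r ≤ T * r := by gcongr
    have i5 : A ≤ A ^ 2 := hAA
    have hTr : 0 < T * r := by positivity
    calc |(nrm c Y 0 - nrm c X0 0) + (-nz + inner ℝ (C - c) z + s * ‖C - c‖ ^ 2 / 2)|
        ≤ |nrm c Y 0 - nrm c X0 0| + (|nz| + |inner ℝ (C - c) z| + |s * ‖C - c‖ ^ 2 / 2|) := by
          refine (abs_add_le _ _).trans ?_
          gcongr
          refine (abs_add_le _ _).trans ?_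
          gcongr
          refine (abs_add_le _ _).trans ?_
          rw [abs_neg]
      _ ≤ A * T * r + (A * (s2 * (s1 * r)) + A * s2 * (A * (s1 * r)) + r * (A * s2) ^ 2 / 2) := by
          gcongr
      _ = A * (T * r) + A * (s2 * (s1 * r)) + A ^ 2 * (s2 * (s1 * r)) + A ^ 2 * (s2 ^ 2 * r) / 2 := by
          ring
      _ ≤ A * (T * r) + A * (T * r) + A ^ 2 * (T * r) + A ^ 2 * (T * r) / 2 := by gcongr
      _ ≤ A ^ 2 * (T * r) + A ^ 2 * (T * r) + A ^ 2 * (T * r) + A ^ 2 * (T * r) / 2 := by gcongr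
      _ ≤ 4 * A ^ 2 * (T * r) := by
          have : 0 ≤ A ^ 2 * (T * r) := by positivity
          linarith
      _ = _ := by ring
  · have e := f.ev_expand C (lat Y) (Y 2) 0 (lat X) (X 2) s
    have e2 : (lat X - lat Y) + (s - 0) • C = -z := by rw [elX, sub_zero]; module
    rw [e2, eN, norm_neg, inner_neg_right, sub_zero] at e
    rw [e]
    have i1 : |f.ld C (lat Y) (Y 2) 0 * s| ≤ A * s1 * r := by
      rw [abs_mul]; gcongr
    have i2 : |inner ℝ (f.gr C (lat Y) 0) z| ≤ (1 + 4 * A * M) * (A * (s1 * r)) :=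
      (abs_real_inner_le_norm _ _).trans (by gcongr)
    have i3 : |f.ny 0 * -nz| ≤ M * (A * (s1 * r)) := by
      rw [abs_mul, abs_neg]
      calc |f.ny 0| * |nz| ≤ |f.ny 0| * (A * (s2 * (s1 * r))) := by gcongr
        _ = (|f.ny 0| * s2) * (A * (s1 * r)) := by ring
        _ ≤ _ := by gcongr
    have i4 : |f.d * (‖z‖ ^ 2 - 2 * s * -nz)| ≤ (M / 2) * (A ^ 2 + 2 * A) * (s1 * r) := by
      rw [abs_mul]
      have j1 : |‖z‖ ^ 2 - 2 * s * -nz| ≤ (A * (s1 * r)) ^ 2 + 2 * r * (A * (s2 * (s1 * r))) := by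
        refine (abs_sub _ _).trans ?_
        rw [abs_of_nonneg (by positivity : (0:ℝ) ≤ ‖z‖ ^ 2), abs_mul, abs_mul, abs_neg,
          abs_of_pos (by norm_num : (0:ℝ) < 2)]
        gcongr
      calc |f.d| * |‖z‖ ^ 2 - 2 * s * -nz|
          ≤ |f.d| * ((A * (s1 * r)) ^ 2 + 2 * r * (A * (s2 * (s1 * r)))) := by gcongr
        _ = |f.d| * r * (A ^ 2 * s1 + 2 * A * s2) * (s1 * r) := by ring
        _ ≤ |f.d| * r * (A ^ 2 * s2 + 2 * A * s2) * (s1 * r) := by gcongr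
        _ = (2 * |f.d| * r * s2) * ((A ^ 2 + 2 * A) / 2) * (s1 * r) := by ring
        _ ≤ M * ((A ^ 2 + 2 * A) / 2) * (s1 * r) := by gcongr
        _ = _ := by ring
    calc |f.ev (lat Y) (Y 2) 0 + f.ld C (lat Y) (Y 2) 0 * s + -inner ℝ (f.gr C (lat Y) 0) z +
          f.ny 0 * -nz + f.d * (‖z‖ ^ 2 - 2 * s * -nz)|
        ≤ |f.ev (lat Y) (Y 2) 0| + |f.ld C (lat Y) (Y 2) 0 * s| + |inner ℝ (f.gr C (lat Y) 0) z| +
          |f.ny 0 * -nz| + |f.d * (‖z‖ ^ 2 - 2 * s * -nz)| := by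
          refine (abs_add_le _ _).trans ?_
          gcongr
          refine (abs_add_le _ _).trans ?_
          gcongr
          refine (abs_add_le _ _).trans ?_
          rw [abs_neg]
          gcongr
          exact abs_add_le _ _
      _ ≤ A * s1 * r + A * s1 * r + (1 + 4 * A * M) * (A * (s1 * r)) + M * (A * (s1 * r)) +
          (M / 2) * (A ^ 2 + 2 * A) * (s1 * r) := by gcongr
      _ = (3 * A + (4 + 1 / 2) * (A ^ 2 * M) + 2 * (A * M)) * (s1 * r) := by ring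
      _ ≤ (3 * A + (4 + 1 / 2) * (A ^ 2 * M) + 2 * (A ^ 2 * M)) * (s1 * r) := by gcongr
      _ ≤ _ := by
          refine mul_le_mul_of_nonneg_right ?_ hrs.le
          linarith
  · have e := f.ld_move C (lat Y) (lat X) (Y 2) (X 2) 0 s
    rw [eN] at e
    rw [e]
    have i1 : |2 * f.d * -nz| ≤ M * (A * s1) := by
      rw [abs_mul, abs_mul, abs_neg, abs_of_pos (by norm_num : (0:ℝ) < 2)]
      calc 2 * |f.d| * |nz| ≤ 2 * |f.d| * (A * (s2 * (s1 * r))) := by gcongr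
        _ = (2 * |f.d| * r * s2) * (A * s1) := by ring
        _ ≤ _ := by gcongr
    calc |f.ld C (lat Y) (Y 2) 0 - 2 * f.d * -nz| ≤ A * s1 + M * (A * s1) :=
          (abs_sub _ _).trans (by gcongr)
      _ = (A + A * M) * s1 := by ring
      _ ≤ _ := by
          refine mul_le_mul_of_nonneg_right ?_ hs1.le
          linarith

/-- **VolC**. -/
theorem volC (M : ℝ) : VolC M := by
  intro A hA
  set K1 : ℝ := 3 * A + 7 * A ^ 2 * |M| with hK1
  have hK10 : 0 < K1 := by positivity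
  refine ⟨256 * (4 * A ^ 2) ^ 3 * K1 + 64 * (4 * A ^ 2) ^ 3 * (8 * |M| * K1), by positivity, ?_⟩
  intro κ r s1 s2 c X0 f hκ hκ1 hr hκr hSd hcA hadm s hs
  have hr0 : 0 < r := by linarith
  have hs1 : 0 < s1 := lt_of_lt_of_le (Real.rpow_pos_of_pos hr0 _) hSd.lo
  have hs20 : 0 < s2 := hs1.trans_le hSd.le
  have hM : 0 ≤ M := by
    have h1 := (abs_nonneg _).trans (hadm.cmp 0 (by rw [abs_zero]; exact hr0.le))
    by_contra h
    push Not at h
    have : M * (κ * s1 * r) < 0 := mul_neg_of_neg_of_pos h (by positivity)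
    linarith
  rw [abs_of_nonneg hM] at hK1 ⊢
  set T : ℝ := TT κ s2 r with hT
  have hT2 : s2 ^ 2 ≤ T := le_max_left _ _
  have hT0 : 0 < T := lt_of_lt_of_le (pow_pos hs20 2) hT2
  have hnyT : ∀ u : ℝ, |u - 0| ≤ r → |f.ny u| * T ≤ M * s2 := by
    intro u hu
    rw [sub_zero] at hu
    have := hadm.ny u hu
    rwa [le_div_iff₀ hT0] at this
  have hd := d_le_of_ny hr0.le hT0.le hnyT
  have hgeo : ∀ X ∈ nbh κ A r s1 s2 c X0 f s,
      ‖(lat X - lat X0) + (s - 0) • c‖ ≤ 4 * A ^ 2 * s2 * r ∧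
      |LZg725.nrm c (lat X) (X 2) s - LZg725.nrm c (lat X0) (X0 2) 0| ≤ 4 * A ^ 2 * T * r ∧
      |f.ev (lat X) (X 2) s| ≤ K1 * (s1 * r) ∧
      ∃ C : E2, ‖C - c‖ ≤ 4 * A ^ 2 * s2 ∧ |f.ld C (lat X) (X 2) s| ≤ K1 * s1 := by
    rintro X ⟨Y, C, ⟨b1, b2, b3, b4, b5⟩, b6, b7⟩
    have h := near_ray hM hA hr0 hs1 hSd.le hT2 hadm.disc
      (hnyT 0 (by rw [sub_zero, abs_zero]; exact hr0.le)) hd hs b1 b2 b3 b4 b5 b6 b7
    refine ⟨h.1, h.2.1, by rw [hK1]; exact h.2.2.1, C, b1.trans ?_, by rw [hK1]; exact h.2.2.2⟩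
    refine mul_le_mul_of_nonneg_right ?_ hs20.le
    nlinarith
  have hK : 1 ≤ 4 * A ^ 2 := by nlinarith
  rcases le_or_gt (8 * M * K1 * s1) s2 with hcase | hcase
  · refine (measure_mono fun X hX => ?_).trans ((vol_sec_ray (M := M) (c := c) (x0 := lat X0)
      (y0 := X0 2) (s0 := 0) (s := s) (sg := s2) (T := T) (R := r) (p := f) (K := 4 * A ^ 2)
      (lam := K1 * (s1 * r)) (h := K1 * s1) hr0 hs20 hT2 hK hM (by positivity) hadm.disc
      (hnyT s (by rwa [sub_zero])) hd ?_ ?_).trans (ENNReal.ofReal_le_ofReal ?_))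
    · exact hgeo X hX
    · calc 8 * M * (K1 * (s1 * r)) = 8 * M * K1 * s1 * r := by ring
        _ ≤ s2 * r := by gcongr
    · linarith
    · unfold scost
      rw [← hT]
      have : 0 ≤ 64 * (4 * A ^ 2) ^ 3 * (8 * M * K1) * (s1 * s2 * T * r ^ 3) := by positivity
      calc 256 * (4 * A ^ 2) ^ 3 * (K1 * (s1 * r) * (s2 * r) * (T * r))
          = 256 * (4 * A ^ 2) ^ 3 * K1 * (s1 * s2 * T * r ^ 3) := by ring
        _ ≤ 256 * (4 * A ^ 2) ^ 3 * K1 * (s1 * s2 * T * r ^ 3) +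
            64 * (4 * A ^ 2) ^ 3 * (8 * M * K1) * (s1 * s2 * T * r ^ 3) := by linarith
        _ = _ := by ring
  · refine (measure_mono fun X hX => ?_).trans ((vol_lbox c (lat X0) (X0 2) 0 s
      (a := 4 * A ^ 2 * s2 * r) (t := 4 * A ^ 2 * T * r) (by positivity) (by positivity)).trans
      (ENNReal.ofReal_le_ofReal ?_))
    · exact ⟨(hgeo X hX).1, (hgeo X hX).2.1⟩
    · unfold scost
      rw [← hT]
      have h0 : 0 ≤ 256 * (4 * A ^ 2) ^ 3 * K1 * (s1 * s2 * T * r ^ 3) := by positivity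
      calc 64 * (4 * A ^ 2 * s2 * r) * (4 * A ^ 2 * s2 * r) * (4 * A ^ 2 * T * r)
          = 64 * (4 * A ^ 2) ^ 3 * s2 * (s2 * T * r ^ 3) := by ring
        _ ≤ 64 * (4 * A ^ 2) ^ 3 * (8 * M * K1 * s1) * (s2 * T * r ^ 3) := by gcongr
        _ ≤ 64 * (4 * A ^ 2) ^ 3 * (8 * M * K1 * s1) * (s2 * T * r ^ 3) +
            256 * (4 * A ^ 2) ^ 3 * K1 * (s1 * s2 * T * r ^ 3) := by linarith
        _ = _ := by ring

end Crest.Agent.R116.SupV192
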