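import Crest.Agent.R116.SupT_858
import Crest.Agent.R116.SupV_192
import Crest.Agent.R116.MulB_387
import Crest.Agent.R116.Ba6_449
import Crest.Agent.R116.Cnv5_894
import Crest.Agent.R116.Stb3_850

/-!
# R116 (S0155), wave side: **A2k** (SUP of the cone), final theorem (helper858)
-/

set_option autoImplicit false

namespace Crest.Agent.R116.Sup858

open Crest.Agent.R116.WC188

/-- **A2k**. -/
theorem a2k {M q : ℝ} (hM : 1 ≤ M) (hq : 0 ≤ q) : A2k M q :=
  a2k_of hq (Crest.Agent.R116.SupV192.volC M) (Crest.Agent.R116.MulB387.mulBx hM hq)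
    (Crest.Agent.R116.Cnv894.cnv_of hM (Crest.Agent.R116.Stb850.cov2 hM hq))
    (Crest.Agent.R116.Ba449.triv2s_holds hM hq)

end Crest.Agent.R116.Sup858
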