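import Mathlib

/-!
# R116, TILT for conformal slabs, part 1 (helper334): rays and conformal functions at one time

`CS ι` : rays `i : ι` at one time: lateral position `x i`, velocity `v i` (`= - C`), null position
`y i`; `N i j` = null position of `j` in the null frame of `i`.
`CF S` : a conformal function seen along the rays: value `A i`, derivative `B i`, lateral gradient
`G i` in the frame of the ray, `n = ∂_y φ`, `d` = quadratic coefficient; the three change laws are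
exact.  `CF.gsq` : `‖G‖² - 2 n B - 4 d A` is constant (Klein form).
-/

set_option autoImplicit false
set_option linter.unusedSectionVars false
set_option linter.unusedVariables false

namespace Crest.Agent.R116.Tc334

open Finset

/-- the lateral plane -/
abbrev E2 := EuclideanSpace ℝ (Fin 2)

/-- rays at one time -/
structure CS (ι : Type*) where
  x : ι → E2
  v : ι → E2
  y : ι → ℝ

namespace CS

variable {ι : Type*} (S : CS ι)

/-- null position of the ray `j` in the null frame of the ray `i`. -/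
noncomputable def N (i j : ι) : ℝ := S.y j - S.y i - inner ℝ (S.v i) (S.x j - S.x i)

theorem N_self (i : ι) : S.N i i = 0 := by simp [N]

/-- change of the frame. -/
theorem N_cocycle (i j k : ι) :
    S.N j k = S.N i k - S.N i j - inner ℝ (S.v j - S.v i) (S.x k - S.x j) := by
  unfold N
  rw [inner_sub_left]
  have e : inner ℝ (S.v i) (S.x k - S.x i) = inner ℝ (S.v i) (S.x k - S.x j) +
      inner ℝ (S.v i) (S.x j - S.x i) := by
    rw [← inner_add_right]; congr 1; abel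
  rw [e]; ring

/-- the same rays at the time `u` later. -/
noncomputable def sh (u : ℝ) : CS ι where
  x := fun i => S.x i + u • S.v i
  v := S.v
  y := fun i => S.y i + u * ‖S.v i‖ ^ 2 / 2

theorem sh_N (u : ℝ) (i j : ι) : (S.sh u).N i j = S.N i j + u * ‖S.v j - S.v i‖ ^ 2 / 2 := by
  unfold N sh
  simp only []
  have e : S.x j + u • S.v j - (S.x i + u • S.v i) = (S.x j - S.x i) + u • (S.v j - S.v i) := by
    module
  have e2 : inner ℝ (S.v i) (S.v j - S.v i) = inner ℝ (S.v i) (S.v j) - ‖S.v i‖ ^ 2 := by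
    rw [inner_sub_right, real_inner_self_eq_norm_sq]
  rw [e, inner_add_right, real_inner_smul_right, norm_sub_sq_real, e2,
    real_inner_comm (S.v i) (S.v j)]
  ring

theorem sh_x (u : ℝ) (i j : ι) :
    (S.sh u).x j - (S.sh u).x i = (S.x j - S.x i) + u • (S.v j - S.v i) := by
  unfold sh
  simp only []
  module

end CS

/-- a conformal function along the rays of `S` -/
structure CF {ι : Type*} (S : CS ι) where
  n : ℝ
  d : ℝ
  A : ι → ℝ
  B : ι → ℝ
  G : ι → E2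
  hA : ∀ i j, A j = A i + inner ℝ (G i) (S.x j - S.x i) + n * S.N i j + d * ‖S.x j - S.x i‖ ^ 2
  hB : ∀ i j, B j = B i + inner ℝ (G i) (S.v j - S.v i) + n * ‖S.v j - S.v i‖ ^ 2 / 2 +
    2 * d * inner ℝ (S.x j - S.x i) (S.v j - S.v i) - 2 * d * S.N i j
  hG : ∀ i j, G j = G i + (2 * d) • (S.x j - S.x i) + n • (S.v j - S.v i)

namespace CF

variable {ι : Type*} {S : CS ι}

/-- `p - ε q`. -/
noncomputable def comb (p q : CF S) (ε : ℝ) : CF S where
  n := p.n - ε * q.n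
  d := p.d - ε * q.d
  A := fun i => p.A i - ε * q.A i
  B := fun i => p.B i - ε * q.B i
  G := fun i => p.G i - ε • q.G i
  hA := by
    intro i j
    rw [inner_sub_left, real_inner_smul_left, p.hA i j, q.hA i j]; ring
  hB := by
    intro i j
    rw [inner_sub_left, real_inner_smul_left, p.hB i j, q.hB i j]; ring
  hG := by
    intro i j
    rw [p.hG i j, q.hG i j]; module

/-- the function at the time `u` later. -/
noncomputable def sh (p : CF S) (u : ℝ) : CF (S.sh u) where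
  n := p.n - 2 * u * p.d
  d := p.d
  A := fun i => p.A i + u * p.B i
  B := p.B
  G := p.G
  hA := by
    intro i j
    rw [S.sh_x, S.sh_N, inner_add_right, real_inner_smul_right, norm_add_sq_real,
      real_inner_smul_right, norm_smul, mul_pow, Real.norm_eq_abs, sq_abs, p.hA i j, p.hB i j]
    ring
  hB := by
    intro i j
    have e : (S.sh u).v = S.v := rfl
    rw [S.sh_x, S.sh_N, inner_add_left, real_inner_smul_left, e, real_inner_self_eq_norm_sq,
      p.hB i j]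
    ring
  hG := by
    intro i j
    have e : (S.sh u).v = S.v := rfl
    rw [S.sh_x, e, p.hG i j]
    module

/-- **the Klein form is constant.** -/
theorem gsq (p : CF S) (i j : ι) :
    ‖p.G j‖ ^ 2 - ‖p.G i‖ ^ 2 = 2 * p.n * (p.B j - p.B i) + 4 * p.d * (p.A j - p.A i) := by
  rw [p.hA i j, p.hB i j, p.hG i j, norm_add_sq_real, norm_add_sq_real, norm_smul, norm_smul,
    mul_pow, mul_pow, Real.norm_eq_abs, Real.norm_eq_abs, sq_abs, sq_abs, inner_add_left,
    real_inner_smul_right, real_inner_smul_right, real_inner_smul_left, real_inner_smul_right]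
  ring

/-- bound of the variation of the squared gradient. -/
theorem gsq_le (p : CF S) {g b : ℝ} (hn : |p.n| ≤ g) (hd : |p.d| ≤ g) {i j : ι}
    (hAi : |p.A i| ≤ b) (hBi : |p.B i| ≤ b) (hAj : |p.A j| ≤ b) (hBj : |p.B j| ≤ b) :
    |‖p.G j‖ ^ 2 - ‖p.G i‖ ^ 2| ≤ 12 * g * b := by
  have hg : 0 ≤ g := (abs_nonneg _).trans hn
  have hb : 0 ≤ b := (abs_nonneg _).trans hAi
  rw [p.gsq i j]
  have h1 : |p.B j - p.B i| ≤ 2 * b := (abs_sub _ _).trans (by linarith)
  have h2 : |p.A j - p.A i| ≤ 2 * b := (abs_sub _ _).trans (by linarith)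
  have h3 : |2 * p.n * (p.B j - p.B i)| ≤ 2 * g * (2 * b) := by
    rw [abs_mul, abs_mul, abs_of_pos (by norm_num : (0:ℝ) < 2)]
    exact mul_le_mul (by linarith) h1 (abs_nonneg _) (by positivity)
  have h4 : |4 * p.d * (p.A j - p.A i)| ≤ 4 * g * (2 * b) := by
    rw [abs_mul, abs_mul, abs_of_pos (by norm_num : (0:ℝ) < 4)]
    exact mul_le_mul (by linarith) h2 (abs_nonneg _) (by positivity)
  refine (abs_add_le _ _).trans ?_
  linarith

/-- variation of the gradient. -/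
theorem G_var (p : CF S) {m w : ℝ} (hn : |p.n| ≤ m) (hd : |p.d| ≤ m) {i j : ι}
    (hx : ‖S.x j - S.x i‖ ≤ w) (hv : ‖S.v j - S.v i‖ ≤ w) : ‖p.G j - p.G i‖ ≤ 3 * m * w := by
  have e : p.G j - p.G i = (2 * p.d) • (S.x j - S.x i) + p.n • (S.v j - S.v i) := by
    rw [p.hG i j]; abel
  have hm : 0 ≤ m := (abs_nonneg _).trans hn
  rw [e]
  refine (norm_add_le _ _).trans ?_
  rw [norm_smul, norm_smul, Real.norm_eq_abs, Real.norm_eq_abs, abs_mul,
    abs_of_pos (by norm_num : (0:ℝ) < 2)]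
  have h1 := mul_le_mul (a := 2 * |p.d|) (b := 2 * m) (by linarith) hx (norm_nonneg _) (by positivity)
  have h2 := mul_le_mul hn hv (norm_nonneg _) hm
  linarith

/-- the gradient against the displacement. -/
theorem inner_x (p : CF S) {g b w : ℝ} (hn : |p.n| ≤ g) (hd : |p.d| ≤ g) {i j : ι}
    (hAi : |p.A i| ≤ b) (hAj : |p.A j| ≤ b) (hx : ‖S.x j - S.x i‖ ≤ w) :
    |inner ℝ (p.G i) (S.x j - S.x i)| ≤ 2 * b + g * |S.N i j| + g * w ^ 2 := by
  have hg : 0 ≤ g := (abs_nonneg _).trans hn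
  have hw : 0 ≤ w := (norm_nonneg _).trans hx
  have e : inner ℝ (p.G i) (S.x j - S.x i) =
      (p.A j - p.A i) - p.n * S.N i j - p.d * ‖S.x j - S.x i‖ ^ 2 := by
    rw [p.hA i j]; ring
  rw [e]
  have h1 : |p.A j - p.A i| ≤ 2 * b := (abs_sub _ _).trans (by linarith)
  have h2 : |p.n * S.N i j| ≤ g * |S.N i j| := by
    rw [abs_mul]; exact mul_le_mul_of_nonneg_right hn (abs_nonneg _)
  have h3 : |p.d * ‖S.x j - S.x i‖ ^ 2| ≤ g * w ^ 2 := by
    rw [abs_mul, abs_of_nonneg (sq_nonneg ‖S.x j - S.x i‖)]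
    exact mul_le_mul hd (pow_le_pow_left₀ (norm_nonneg _) hx 2) (sq_nonneg _) hg
  refine (abs_sub _ _).trans ?_
  have := abs_sub (p.A j - p.A i) (p.n * S.N i j)
  linarith

/-- the gradient against the velocity. -/
theorem inner_v (p : CF S) {g b w : ℝ} (hn : |p.n| ≤ g) (hd : |p.d| ≤ g) {i j : ι}
    (hBi : |p.B i| ≤ b) (hBj : |p.B j| ≤ b) (hx : ‖S.x j - S.x i‖ ≤ w)
    (hv : ‖S.v j - S.v i‖ ≤ w) :
    |inner ℝ (p.G i) (S.v j - S.v i)| ≤ 2 * b + 2 * g * |S.N i j| + 3 * g * w ^ 2 := by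
  have hg : 0 ≤ g := (abs_nonneg _).trans hn
  have hw : 0 ≤ w := (norm_nonneg _).trans hx
  have e : inner ℝ (p.G i) (S.v j - S.v i) =
      (p.B j - p.B i) - p.n * ‖S.v j - S.v i‖ ^ 2 / 2 -
        2 * p.d * inner ℝ (S.x j - S.x i) (S.v j - S.v i) + 2 * p.d * S.N i j := by
    rw [p.hB i j]; ring
  rw [e]
  have h1 : |p.B j - p.B i| ≤ 2 * b := (abs_sub _ _).trans (by linarith)
  have h2 : |p.n * ‖S.v j - S.v i‖ ^ 2 / 2| ≤ g * w ^ 2 / 2 := by
    rw [abs_div, abs_mul, abs_of_nonneg (sq_nonneg ‖S.v j - S.v i‖),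
      abs_of_pos (by norm_num : (0:ℝ) < 2)]
    have := mul_le_mul hn (pow_le_pow_left₀ (norm_nonneg _) hv 2) (sq_nonneg _) hg
    linarith
  have h3 : |2 * p.d * inner ℝ (S.x j - S.x i) (S.v j - S.v i)| ≤ 2 * g * (w * w) := by
    rw [abs_mul, abs_mul, abs_of_pos (by norm_num : (0:ℝ) < 2)]
    refine mul_le_mul (by linarith) ((abs_real_inner_le_norm _ _).trans
      (mul_le_mul hx hv (norm_nonneg _) hw)) (abs_nonneg _) (by positivity)
  have h4 : |2 * p.d * S.N i j| ≤ 2 * g * |S.N i j| := by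
    rw [abs_mul, abs_mul, abs_of_pos (by norm_num : (0:ℝ) < 2)]
    exact mul_le_mul_of_nonneg_right (by linarith) (abs_nonneg _)
  have h5 := abs_sub (p.B j - p.B i) (p.n * ‖S.v j - S.v i‖ ^ 2 / 2)
  have h6 := abs_sub (p.B j - p.B i - p.n * ‖S.v j - S.v i‖ ^ 2 / 2)
    (2 * p.d * inner ℝ (S.x j - S.x i) (S.v j - S.v i))
  refine (abs_add_le _ _).trans ?_
  have e2 : 2 * g * (w * w) = 2 * (g * w ^ 2) := by ring
  rw [e2] at h3
  nlinarith [mul_nonneg hg (sq_nonneg w)]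

end CF

/-! ### linear algebra in the plane -/

/-- determinant -/
noncomputable def dt (p q : E2) : ℝ := p 0 * q 1 - p 1 * q 0

theorem inner2 (p q : E2) : inner ℝ p q = p 0 * q 0 + p 1 * q 1 := by
  rw [PiLp.inner_apply, Fin.sum_univ_two]
  simp [mul_comm]

theorem nsq2 (p : E2) : ‖p‖ ^ 2 = p 0 ^ 2 + p 1 ^ 2 := by
  rw [← real_inner_self_eq_norm_sq, inner2]; ring

theorem dt_sq (p q : E2) : dt p q ^ 2 = ‖p‖ ^ 2 * ‖q‖ ^ 2 - (inner ℝ p q) ^ 2 := by
  rw [nsq2, nsq2, inner2]; unfold dt; ring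

/-- a vector is controlled by its inner products with two transversal vectors. -/
theorem two_dir (p q u : E2) :
    |dt p q| * ‖u‖ ≤ |inner ℝ p u| * ‖q‖ + |inner ℝ q u| * ‖p‖ := by
  have hsq : (|dt p q| * ‖u‖) ^ 2 ≤ (|inner ℝ p u| * ‖q‖ + |inner ℝ q u| * ‖p‖) ^ 2 := by
    have e1 : (|dt p q| * ‖u‖) ^ 2 = (inner ℝ p u) ^ 2 * ‖q‖ ^ 2 + (inner ℝ q u) ^ 2 * ‖p‖ ^ 2 -
        2 * (inner ℝ p u) * (inner ℝ q u) * inner ℝ p q := by
      rw [mul_pow, sq_abs, nsq2 u, nsq2 p, nsq2 q, inner2, inner2, inner2]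
      unfold dt; ring
    rw [e1]
    have h1 : -(2 * (inner ℝ p u) * (inner ℝ q u) * inner ℝ p q) ≤
        2 * |inner ℝ p u| * |inner ℝ q u| * (‖p‖ * ‖q‖) := by
      have h2 : |inner ℝ p q| ≤ ‖p‖ * ‖q‖ := abs_real_inner_le_norm _ _
      calc -(2 * (inner ℝ p u) * (inner ℝ q u) * inner ℝ p q)
          ≤ |2 * (inner ℝ p u) * (inner ℝ q u) * inner ℝ p q| := neg_le_abs _
        _ = 2 * |inner ℝ p u| * |inner ℝ q u| * |inner ℝ p q| := by
            rw [abs_mul, abs_mul, abs_mul, abs_of_pos (by norm_num : (0:ℝ) < 2)]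
        _ ≤ 2 * |inner ℝ p u| * |inner ℝ q u| * (‖p‖ * ‖q‖) :=
            mul_le_mul_of_nonneg_left h2 (by positivity)
    have e2 : (|inner ℝ p u| * ‖q‖ + |inner ℝ q u| * ‖p‖) ^ 2 =
        (inner ℝ p u) ^ 2 * ‖q‖ ^ 2 + (inner ℝ q u) ^ 2 * ‖p‖ ^ 2 +
          2 * |inner ℝ p u| * |inner ℝ q u| * (‖p‖ * ‖q‖) := by
      rw [← sq_abs (inner ℝ p u : ℝ), ← sq_abs (inner ℝ q u : ℝ)]; ring
    rw [e2]; linarith
  exact (sq_le_sq₀ (by positivity) (by positivity)).1 hsq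

/-- **transversality of `G₀` and `G_ψ = G₁ - ε G₀`** when both are almost unit vectors on the same
side. -/
theorem dt_lower {p q : E2} {δ K : ℝ} (hK0 : 0 ≤ K) (hK : ‖q - p‖ = K)
    (hp : |‖p‖ ^ 2 - 1| ≤ δ) (hq : |‖q‖ ^ 2 - 1| ≤ δ) (hδ : δ ≤ 1 / 16)
    (hδK : 8 * δ ≤ K) (hpos : -(1 / 16) ≤ inner ℝ p q) : K / 4 ≤ |dt p (q - p)| := by
  have hδ0 : 0 ≤ δ := (abs_nonneg _).trans hp
  have hK2 : K ^ 2 = ‖q‖ ^ 2 - 2 * inner ℝ p q + ‖p‖ ^ 2 := by
    rw [← hK, norm_sub_sq_real, real_inner_comm]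
  obtain ⟨hp1, hp2⟩ := abs_le.1 hp
  obtain ⟨hq1, hq2⟩ := abs_le.1 hq
  set s : ℝ := inner ℝ p (q - p) with hs
  have hs1 : 2 * s = ‖q‖ ^ 2 - ‖p‖ ^ 2 - K ^ 2 := by
    rw [hs, inner_sub_right, real_inner_self_eq_norm_sq, hK2]; ring
  have hKup : K ^ 2 ≤ 2 + 2 * δ + 1 / 8 := by linarith
  have hdt : dt p (q - p) ^ 2 = ‖p‖ ^ 2 * K ^ 2 - s ^ 2 := by
    rw [dt_sq, hK]
  have h1 : (K / 4) ^ 2 ≤ dt p (q - p) ^ 2 := by
    rw [hdt]
    -- s² ≤ ((2δ + K²)/2)²
    have h2 : s ^ 2 ≤ ((2 * δ + K ^ 2) / 2) ^ 2 := by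
      have h3 : |2 * s| ≤ 2 * δ + K ^ 2 := by
        rw [hs1, abs_le]; constructor <;> nlinarith [sq_nonneg K]
      have h4 : (2 * s) ^ 2 ≤ (2 * δ + K ^ 2) ^ 2 := by
        rw [← sq_abs (2 * s)]
        exact pow_le_pow_left₀ (abs_nonneg _) h3 2
      nlinarith
    have h5 : δ ^ 2 ≤ K ^ 2 / 64 := by nlinarith
    have h6 : δ * K ^ 2 ≤ K ^ 2 / 16 := by nlinarith [sq_nonneg K]
    have h7 : K ^ 2 * K ^ 2 ≤ (2 + 2 * δ + 1 / 8) * K ^ 2 :=
      mul_le_mul_of_nonneg_right hKup (sq_nonneg _)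
    have h8 : (1 - δ) * K ^ 2 ≤ ‖p‖ ^ 2 * K ^ 2 :=
      mul_le_mul_of_nonneg_right (by linarith) (sq_nonneg _)
    have h9 : ((2 * δ + K ^ 2) / 2) ^ 2 = δ ^ 2 + δ * K ^ 2 + K ^ 2 * K ^ 2 / 4 := by ring
    rw [h9] at h2
    nlinarith [sq_nonneg K]
  have h10 : |K / 4| ≤ |dt p (q - p)| := sq_le_sq.1 h1
  rwa [abs_of_nonneg (by positivity)] at h10

end Crest.Agent.R116.Tc334
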