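import Crest.Agent.R116.Tc1_334

/-!
# R116, TILT for conformal slabs, part 2 (helper334): counting by cells, pair bounds
-/

set_option autoImplicit false
set_option linter.unusedSectionVars false
set_option linter.unusedVariables false

namespace Crest.Agent.R116.Tc334

open Finset

section cells

variable {ι β : Type*}

theorem card_le_cells [DecidableEq β] (T : Finset ι) (f : ι → β) (m : ℝ)
    (hm : ∀ i ∈ T, ((T.filter fun j => f j = f i).card : ℝ) ≤ m) :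
    (T.card : ℝ) ≤ ((T.image f).card : ℝ) * m := by
  rw [Finset.card_eq_sum_card_image f T]
  push_cast
  calc ∑ b ∈ T.image f, ((T.filter fun a => f a = b).card : ℝ) ≤ ∑ b ∈ T.image f, m := by
        refine sum_le_sum fun b hb => ?_
        obtain ⟨i, hi, rfl⟩ := mem_image.1 hb
        exact hm i hi
    _ = ((T.image f).card : ℝ) * m := by rw [sum_const, nsmul_eq_mul]

theorem floor_image (T : Finset ι) (h : ι → ℝ) {L δ : ℝ} (hδ : 0 < δ) (hL0 : 0 ≤ L)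
    (hL : ∀ i ∈ T, ∀ j ∈ T, |h j - h i| ≤ L) :
    ((T.image fun i => ⌊h i / δ⌋).card : ℝ) ≤ 2 * L / δ + 2 := by
  rcases T.eq_empty_or_nonempty with rfl | ⟨i0, hi0⟩
  · simp only [image_empty, card_empty, Nat.cast_zero]; positivity
  have hsub : (T.image fun i => ⌊h i / δ⌋) ⊆ Icc ⌊(h i0 - L) / δ⌋ ⌊(h i0 + L) / δ⌋ := by
    intro z hz
    obtain ⟨i, hi, rfl⟩ := mem_image.1 hz
    have h1 := abs_le.1 (hL i0 hi0 i hi)
    rw [mem_Icc]
    exact ⟨Int.floor_le_floor (by gcongr; linarith), Int.floor_le_floor (by gcongr; linarith)⟩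
  have hc := card_le_card hsub
  rw [Int.card_Icc] at hc
  have hle : ⌊(h i0 - L) / δ⌋ ≤ ⌊(h i0 + L) / δ⌋ := Int.floor_le_floor (by gcongr; linarith)
  have h2 : ((⌊(h i0 + L) / δ⌋ + 1 - ⌊(h i0 - L) / δ⌋).toNat : ℝ) =
      (⌊(h i0 + L) / δ⌋ : ℝ) + 1 - ⌊(h i0 - L) / δ⌋ := by
    have h3 : (((⌊(h i0 + L) / δ⌋ + 1 - ⌊(h i0 - L) / δ⌋).toNat : ℤ) : ℝ) =
        ((⌊(h i0 + L) / δ⌋ + 1 - ⌊(h i0 - L) / δ⌋ : ℤ) : ℝ) := by
      rw [Int.toNat_of_nonneg (by omega)]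
    push_cast at h3
    exact h3
  have h4 : ((T.image fun i => ⌊h i / δ⌋).card : ℝ) ≤
      ((⌊(h i0 + L) / δ⌋ + 1 - ⌊(h i0 - L) / δ⌋).toNat : ℝ) := by exact_mod_cast hc
  rw [h2] at h4
  have h5 := Int.floor_le ((h i0 + L) / δ)
  have h6 := Int.lt_floor_add_one ((h i0 - L) / δ)
  have h7 : (h i0 + L) / δ - (h i0 - L) / δ = 2 * L / δ := by ring
  linarith

theorem abs_sub_le_of_floor {a b δ : ℝ} (hδ : 0 < δ) (h : ⌊a / δ⌋ = ⌊b / δ⌋) : |a - b| ≤ δ := by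
  have h1 := Int.abs_sub_lt_one_of_floor_eq_floor h
  rw [← sub_div, abs_div, abs_of_pos hδ, div_lt_one hδ] at h1
  exact h1.le

theorem coord_le (u : E2) (k : Fin 2) : |u k| ≤ ‖u‖ := by
  have h := nsq2 u
  have h1 : (u k) ^ 2 ≤ ‖u‖ ^ 2 := by
    rw [h]
    fin_cases k
    · show u 0 ^ 2 ≤ _
      nlinarith [sq_nonneg (u 1)]
    · show u 1 ^ 2 ≤ _
      nlinarith [sq_nonneg (u 0)]
  rw [← sq_abs] at h1
  exact (sq_le_sq₀ (abs_nonneg _) (norm_nonneg _)).1 h1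

theorem norm_le_of_coord {u : E2} {s : ℝ} (h0 : |u 0| ≤ s) (h1 : |u 1| ≤ s) : ‖u‖ ≤ 2 * s := by
  have hs : 0 ≤ s := (abs_nonneg _).trans h0
  have h2 : ‖u‖ ^ 2 ≤ (2 * s) ^ 2 := by
    rw [nsq2, ← sq_abs (u 0), ← sq_abs (u 1)]
    have h3 := pow_le_pow_left₀ (abs_nonneg _) h0 2
    have h4 := pow_le_pow_left₀ (abs_nonneg _) h1 2
    nlinarith [sq_nonneg s]
  exact (sq_le_sq₀ (norm_nonneg _) (by positivity)).1 h2

variable (S : CS ι)

/-- cells of size `s` in position and velocity -/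
noncomputable def cell4 (s : ℝ) (i : ι) : (ℤ × ℤ) × (ℤ × ℤ) :=
  ((⌊S.x i 0 / s⌋, ⌊S.x i 1 / s⌋), (⌊S.v i 0 / s⌋, ⌊S.v i 1 / s⌋))

theorem cell4_card (T : Finset ι) {L s : ℝ} (hs : 0 < s) (hL0 : 0 ≤ L)
    (hx : ∀ i ∈ T, ∀ j ∈ T, ‖S.x j - S.x i‖ ≤ L) (hv : ∀ i ∈ T, ∀ j ∈ T, ‖S.v j - S.v i‖ ≤ L) :
    ((T.image (cell4 S s)).card : ℝ) ≤ (2 * L / s + 2) ^ 4 := by
  have hsub : T.image (cell4 S s) ⊆
      ((T.image fun i => ⌊S.x i 0 / s⌋) ×ˢ (T.image fun i => ⌊S.x i 1 / s⌋)) ×ˢ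
      ((T.image fun i => ⌊S.v i 0 / s⌋) ×ˢ (T.image fun i => ⌊S.v i 1 / s⌋)) := by
    intro z hz
    obtain ⟨i, hi, rfl⟩ := mem_image.1 hz
    simp only [mem_product, cell4]
    exact ⟨⟨mem_image_of_mem _ hi, mem_image_of_mem _ hi⟩,
      ⟨mem_image_of_mem _ hi, mem_image_of_mem _ hi⟩⟩
  have hc := card_le_card hsub
  rw [card_product, card_product, card_product] at hc
  have hX : ∀ k : Fin 2, ((T.image fun i => ⌊S.x i k / s⌋).card : ℝ) ≤ 2 * L / s + 2 := fun k =>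
    floor_image T (fun i => S.x i k) hs hL0 fun i hi j hj => by
      have := (coord_le (S.x j - S.x i) k).trans (hx i hi j hj)
      simpa using this
  have hV : ∀ k : Fin 2, ((T.image fun i => ⌊S.v i k / s⌋).card : ℝ) ≤ 2 * L / s + 2 := fun k =>
    floor_image T (fun i => S.v i k) hs hL0 fun i hi j hj => by
      have := (coord_le (S.v j - S.v i) k).trans (hv i hi j hj)
      simpa using this
  have hp : (0:ℝ) ≤ 2 * L / s + 2 := by positivity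
  calc ((T.image (cell4 S s)).card : ℝ) ≤
      (((T.image fun i => ⌊S.x i 0 / s⌋).card * (T.image fun i => ⌊S.x i 1 / s⌋).card) *
      ((T.image fun i => ⌊S.v i 0 / s⌋).card * (T.image fun i => ⌊S.v i 1 / s⌋).card) : ℕ) := by
        exact_mod_cast hc
    _ ≤ ((2 * L / s + 2) * (2 * L / s + 2)) * ((2 * L / s + 2) * (2 * L / s + 2)) := by
        push_cast
        exact mul_le_mul (mul_le_mul (hX 0) (hX 1) (by positivity) hp)
          (mul_le_mul (hV 0) (hV 1) (by positivity) hp) (by positivity) (by positivity)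
    _ = (2 * L / s + 2) ^ 4 := by ring

theorem cell4_eq {s : ℝ} (hs : 0 < s) {i j : ι} (h : cell4 S s j = cell4 S s i) :
    ‖S.x j - S.x i‖ ≤ 2 * s ∧ ‖S.v j - S.v i‖ ≤ 2 * s := by
  unfold cell4 at h
  simp only [Prod.mk.injEq] at h
  obtain ⟨⟨h1, h2⟩, h3, h4⟩ := h
  refine ⟨norm_le_of_coord ?_ ?_, norm_le_of_coord ?_ ?_⟩
  · simpa using abs_sub_le_of_floor hs h1
  · simpa using abs_sub_le_of_floor hs h2
  · simpa using abs_sub_le_of_floor hs h3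
  · simpa using abs_sub_le_of_floor hs h4

/-- density bound of light boxes of aperture `σ ∈ [100 a, 1/4]` around rays of `T` -/
def DB (T : Finset ι) (a q th N0 : ℝ) : Prop :=
  ∀ i ∈ T, ∀ σ : ℝ, 100 * a ≤ σ → σ ≤ 1 / 4 → ∀ T' : Finset ι, T' ⊆ T →
    (∀ j ∈ T', ‖S.x j - S.x i‖ ≤ σ ∧ ‖S.v j - S.v i‖ ≤ σ ∧ |S.N i j| ≤ max (σ ^ 2) th) →
    (T'.card : ℝ) ≤ N0 * σ ^ (1 + q) * max (σ ^ 2) th / max 1 th

theorem DB.mono {T T1 : Finset ι} {a q th N0 : ℝ} (h : DB S T a q th N0) (h1 : T1 ⊆ T) :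
    DB S T1 a q th N0 := fun i hi σ hσ hσ2 T' hT' hj => h i (h1 hi) σ hσ hσ2 T' (hT'.trans h1) hj

end cells

/-! ### pair bounds -/

section pairs

variable {ι : Type*} {S : CS ι}

/-- **Lemma A**: velocity and null position are determined by the position, up to `κ`, `κ²`. -/
theorem kap_pair (p : CF S) {g K b κ : ℝ} (hg : 0 < g) (hn : g / 2 ≤ |p.n|) (hd : |p.d| ≤ g)
    (hκ : K = g * κ) (hb : b ≤ g * κ ^ 2) {i j : ι} (hGi : ‖p.G i‖ ≤ K) (hGj : ‖p.G j‖ ≤ K)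
    (hAi : |p.A i| ≤ b) (hAj : |p.A j| ≤ b) :
    ‖S.v j - S.v i‖ ≤ 4 * κ + 4 * ‖S.x j - S.x i‖ ∧
    |S.N i j| ≤ 4 * κ ^ 2 + 2 * κ * ‖S.x j - S.x i‖ + 2 * ‖S.x j - S.x i‖ ^ 2 := by
  have hn0 : 0 < |p.n| := lt_of_lt_of_le (by positivity) hn
  constructor
  · have e : p.n • (S.v j - S.v i) = p.G j - p.G i - (2 * p.d) • (S.x j - S.x i) := by
      rw [p.hG i j]; abel
    have h1 : |p.n| * ‖S.v j - S.v i‖ ≤ 2 * K + 2 * g * ‖S.x j - S.x i‖ := by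
      rw [← Real.norm_eq_abs, ← norm_smul, e]
      refine (norm_sub_le _ _).trans ?_
      have h2 := norm_sub_le (p.G j) (p.G i)
      have h3 : ‖(2 * p.d) • (S.x j - S.x i)‖ ≤ 2 * g * ‖S.x j - S.x i‖ := by
        rw [norm_smul, Real.norm_eq_abs, abs_mul, abs_of_pos (by norm_num : (0:ℝ) < 2)]
        exact mul_le_mul_of_nonneg_right (by linarith) (norm_nonneg _)
      linarith
    have h2 : g / 2 * ‖S.v j - S.v i‖ ≤ |p.n| * ‖S.v j - S.v i‖ :=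
      mul_le_mul_of_nonneg_right hn (norm_nonneg _)
    have h3 : g * ‖S.v j - S.v i‖ ≤ g * (4 * κ + 4 * ‖S.x j - S.x i‖) := by
      rw [hκ] at h1; nlinarith
    exact le_of_mul_le_mul_left h3 hg
  · have e : p.n * S.N i j = (p.A j - p.A i) - inner ℝ (p.G i) (S.x j - S.x i) -
        p.d * ‖S.x j - S.x i‖ ^ 2 := by
      rw [p.hA i j]; ring
    have h1 : |p.n| * |S.N i j| ≤ 2 * b + K * ‖S.x j - S.x i‖ + g * ‖S.x j - S.x i‖ ^ 2 := by
      rw [← abs_mul, e]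
      have h2 : |p.A j - p.A i| ≤ 2 * b := (abs_sub _ _).trans (by linarith)
      have h3 : |inner ℝ (p.G i) (S.x j - S.x i)| ≤ K * ‖S.x j - S.x i‖ :=
        (abs_real_inner_le_norm _ _).trans (mul_le_mul_of_nonneg_right hGi (norm_nonneg _))
      have h4 : |p.d * ‖S.x j - S.x i‖ ^ 2| ≤ g * ‖S.x j - S.x i‖ ^ 2 := by
        rw [abs_mul, abs_of_nonneg (sq_nonneg ‖S.x j - S.x i‖)]
        exact mul_le_mul_of_nonneg_right hd (sq_nonneg _)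
      refine (abs_sub _ _).trans ?_
      have h5 := abs_sub (p.A j - p.A i) (inner ℝ (p.G i) (S.x j - S.x i))
      linarith
    have h2 : g / 2 * |S.N i j| ≤ |p.n| * |S.N i j| :=
      mul_le_mul_of_nonneg_right hn (abs_nonneg _)
    have h3 : g * |S.N i j| ≤ g * (4 * κ ^ 2 + 2 * κ * ‖S.x j - S.x i‖ +
        2 * ‖S.x j - S.x i‖ ^ 2) := by
      rw [hκ] at h1; nlinarith
    exact le_of_mul_le_mul_left h3 hg

/-- the quarter turn -/
noncomputable def Jr (p : E2) : E2 := !₂[-(p 1), p 0]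

theorem Jr_norm (p : E2) : ‖Jr p‖ = ‖p‖ := by
  have h : ‖Jr p‖ ^ 2 = ‖p‖ ^ 2 := by
    rw [nsq2, nsq2]; simp [Jr]; ring
  exact (sq_eq_sq₀ (norm_nonneg _) (norm_nonneg _)).1 h

theorem dt_Jr (p : E2) : dt p (Jr p) = ‖p‖ ^ 2 := by
  rw [nsq2]; simp [dt, Jr]; ring

theorem le_Jr {p : E2} (hp : 1 / 2 ≤ ‖p‖) (u : E2) :
    ‖u‖ ≤ 2 * |inner ℝ p u| + 2 * |inner ℝ (Jr p) u| := by
  have h := two_dir p (Jr p) u
  rw [dt_Jr, Jr_norm, abs_of_nonneg (sq_nonneg _)] at h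
  have hp0 : 0 < ‖p‖ := by linarith
  have h1 : ‖p‖ * (‖p‖ * ‖u‖) ≤ ‖p‖ * (|inner ℝ p u| + |inner ℝ (Jr p) u|) := by nlinarith
  have h2 := le_of_mul_le_mul_left h1 hp0
  have h3 : 1 / 2 * ‖u‖ ≤ ‖p‖ * ‖u‖ := mul_le_mul_of_nonneg_right hp (norm_nonneg _)
  linarith

/-- **Lemma A'**: the positions lie near a curve. -/
theorem kap_curve (F : CF S) {M a κ : ℝ} (hM : 1 ≤ M) (hn : |F.n| ≤ M) (hd : |F.d| ≤ M)
    {i0 i j : ι} (hAi : |F.A i| ≤ a) (hAj : |F.A j| ≤ a) (hG0 : 1 / 2 ≤ ‖F.G i0‖)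
    (hκ0 : 0 ≤ κ) (hκ : κ ≤ 1 / (1000 * M)) (haκ : a ≤ κ ^ 2)
    (hx0 : ‖S.x i - S.x i0‖ ≤ 1 / (100 * M)) (hv0 : ‖S.v i - S.v i0‖ ≤ 1 / (100 * M))
    (hx : ‖S.x j - S.x i‖ ≤ 1 / (100 * M))
    (hN : |S.N i j| ≤ 4 * κ ^ 2 + 2 * κ * ‖S.x j - S.x i‖ + 2 * ‖S.x j - S.x i‖ ^ 2)
    (hcell : |inner ℝ (Jr (F.G i0)) (S.x j - S.x i)| ≤ κ) :
    ‖S.x j - S.x i‖ ≤ 10 * κ := by
  have hM0 : 0 < M := by linarith
  set W := ‖S.x j - S.x i‖ with hW
  have hW0 : 0 ≤ W := norm_nonneg _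
  have h1 := F.inner_x hn hd hAi hAj (w := W) le_rfl
  have h2 : |inner ℝ (F.G i0) (S.x j - S.x i)| ≤
      |inner ℝ (F.G i) (S.x j - S.x i)| + 3 * M * (1 / (100 * M)) * W := by
    have e : inner ℝ (F.G i0) (S.x j - S.x i) = inner ℝ (F.G i) (S.x j - S.x i) -
        inner ℝ (F.G i - F.G i0) (S.x j - S.x i) := by rw [inner_sub_left]; ring
    rw [e]
    refine (abs_sub _ _).trans ?_
    have h3 := F.G_var hn hd hx0 hv0
    have h4 : |inner ℝ (F.G i - F.G i0) (S.x j - S.x i)| ≤ 3 * M * (1 / (100 * M)) * W :=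
      (abs_real_inner_le_norm _ _).trans (mul_le_mul_of_nonneg_right h3 hW0)
    linarith
  have h5 := le_Jr hG0 (S.x j - S.x i)
  rw [← hW] at h5
  have e3 : 3 * M * (1 / (100 * M)) = 3 / 100 := by field_simp
  rw [e3] at h2
  have hMκ : M * κ ≤ 1 / 1000 := by
    have := mul_le_mul_of_nonneg_left hκ hM0.le
    have e : M * (1 / (1000 * M)) = 1 / 1000 := by field_simp
    rwa [e] at this
  have hMW : M * W ≤ 1 / 100 := by
    have := mul_le_mul_of_nonneg_left hx hM0.le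
    have e : M * (1 / (100 * M)) = 1 / 100 := by field_simp
    rwa [e] at this
  have hκ1 : κ ≤ 1 / 1000 := hκ.trans (by
    rw [div_le_div_iff₀ (by positivity) (by norm_num)]; linarith)
  have h6 : M * |S.N i j| ≤ 4 * (M * κ) * κ + 2 * (M * κ) * W + 2 * (M * W) * W := by
    have := mul_le_mul_of_nonneg_left hN hM0.le
    linarith
  have h7 : 4 * (M * κ) * κ ≤ 4 / 1000 * κ := by nlinarith
  have h8 : 2 * (M * κ) * W ≤ 2 / 1000 * W := by nlinarith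
  have h9 : 2 * (M * W) * W ≤ 2 / 100 * W := by nlinarith
  have h10 : M * W ^ 2 ≤ 1 / 100 * W := by nlinarith
  have h11 : a ≤ 1 / 1000 * κ := by nlinarith
  linarith

end pairs

end Crest.Agent.R116.Tc334
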