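import Crest.Agent.R116.Tc2_334

/-!
# R116, TILT for conformal slabs, part 3 (helper334): the count inside one piece
-/

set_option autoImplicit false
set_option linter.unusedSectionVars false
set_option linter.unusedVariables false

namespace Crest.Agent.R116.Tc334

open Finset

section inner

variable {ι : Type*} {S : CS ι}

/-- **Lemma B**: two common rays of `F₀` and `ψ` at null distance `|N|`. -/
theorem W_pair (F p : CF S) {M0 g K a b c : ℝ} (hnF : |F.n| ≤ M0) (hdF : |F.d| ≤ M0)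
    (hn : |p.n| ≤ g) (hd : |p.d| ≤ g) {i j : ι}
    (hFAi : |F.A i| ≤ a) (hFAj : |F.A j| ≤ a) (hFBi : |F.B i| ≤ a) (hFBj : |F.B j| ≤ a)
    (hAi : |p.A i| ≤ b) (hAj : |p.A j| ≤ b) (hBi : |p.B i| ≤ b) (hBj : |p.B j| ≤ b)
    (hab : a ≤ b) (hK : 0 < K) (hK3 : K ≤ 3) (hF2 : ‖F.G i‖ ≤ 2) (hG1 : K / 2 ≤ ‖p.G i‖)
    (hG2 : ‖p.G i‖ ≤ 2 * K) (hdt : ‖p.G i‖ / 4 ≤ |dt (F.G i) (p.G i)|)
    (hx : ‖S.x j - S.x i‖ ≤ c) (hv : ‖S.v j - S.v i‖ ≤ c) (hc : 96 * ((K * M0 + g) * c) ≤ K) :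
    max ‖S.x j - S.x i‖ ‖S.v j - S.v i‖ ≤ 256 * (b + (g + K * M0) * |S.N i j|) / K := by
  set W := max ‖S.x j - S.x i‖ ‖S.v j - S.v i‖ with hW
  have hW0 : 0 ≤ W := (norm_nonneg _).trans (le_max_left _ _)
  have hWc : W ≤ c := max_le hx hv
  have hM0 : 0 ≤ M0 := (abs_nonneg _).trans hnF
  have hg : 0 ≤ g := (abs_nonneg _).trans hn
  have hb : 0 ≤ b := (abs_nonneg _).trans hAi
  have hxW : ‖S.x j - S.x i‖ ≤ W := le_max_left _ _
  have hvW : ‖S.v j - S.v i‖ ≤ W := le_max_right _ _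
  have key : ∀ u : E2, K * ‖u‖ ≤ 16 * K * |inner ℝ (F.G i) u| + 16 * |inner ℝ (p.G i) u| := by
    intro u
    have h1 := two_dir (F.G i) (p.G i) u
    have h2 : K / 8 * ‖u‖ ≤ |dt (F.G i) (p.G i)| * ‖u‖ :=
      mul_le_mul_of_nonneg_right (by linarith) (norm_nonneg _)
    have h3 : |inner ℝ (F.G i) u| * ‖p.G i‖ ≤ |inner ℝ (F.G i) u| * (2 * K) :=
      mul_le_mul_of_nonneg_left hG2 (abs_nonneg _)
    have h4 : |inner ℝ (p.G i) u| * ‖F.G i‖ ≤ |inner ℝ (p.G i) u| * 2 :=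
      mul_le_mul_of_nonneg_left hF2 (abs_nonneg _)
    nlinarith
  have hx1 := F.inner_x hnF hdF hFAi hFAj hxW
  have hx2 := p.inner_x hn hd hAi hAj hxW
  have hv1 := F.inner_v hnF hdF hFBi hFBj hxW hvW
  have hv2 := p.inner_v hn hd hBi hBj hxW hvW
  have hN := abs_nonneg (S.N i j)
  have hMN : 0 ≤ M0 * |S.N i j| := mul_nonneg hM0 hN
  have hgN : 0 ≤ g * |S.N i j| := mul_nonneg hg hN
  have hMW : 0 ≤ M0 * W ^ 2 := mul_nonneg hM0 (sq_nonneg _)
  have hgW : 0 ≤ g * W ^ 2 := mul_nonneg hg (sq_nonneg _)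
  have hbound : K * W ≤ 16 * K * (2 * a + 2 * M0 * |S.N i j| + 3 * M0 * W ^ 2) +
      16 * (2 * b + 2 * g * |S.N i j| + 3 * g * W ^ 2) := by
    rcases le_total ‖S.x j - S.x i‖ ‖S.v j - S.v i‖ with h | h
    · have e : W = ‖S.v j - S.v i‖ := max_eq_right h
      have h1 := key (S.v j - S.v i)
      rw [← e] at h1
      have h2 : 16 * K * |inner ℝ (F.G i) (S.v j - S.v i)| ≤
          16 * K * (2 * a + 2 * M0 * |S.N i j| + 3 * M0 * W ^ 2) :=
        mul_le_mul_of_nonneg_left hv1 (by positivity)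
      linarith
    · have e : W = ‖S.x j - S.x i‖ := max_eq_left h
      have h1 := key (S.x j - S.x i)
      rw [← e] at h1
      have h2 : 16 * K * |inner ℝ (F.G i) (S.x j - S.x i)| ≤
          16 * K * (2 * a + 2 * M0 * |S.N i j| + 3 * M0 * W ^ 2) :=
        mul_le_mul_of_nonneg_left (by linarith) (by positivity)
      linarith
  have h5 : (48 * ((K * M0 + g) * W)) * W ≤ K / 2 * W := by
    refine mul_le_mul_of_nonneg_right ?_ hW0
    have : (K * M0 + g) * W ≤ (K * M0 + g) * c := mul_le_mul_of_nonneg_left hWc (by positivity)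
    linarith
  have h6 : 16 * K * (3 * M0 * W ^ 2) + 16 * (3 * g * W ^ 2) = (48 * ((K * M0 + g) * W)) * W := by
    ring
  have h7 : K * a ≤ 3 * b := by nlinarith
  rw [le_div_iff₀ hK]
  nlinarith

theorem max_le_max' {σ th : ℝ} (hσ : 0 ≤ σ) (hth : 0 ≤ th) :
    max ((2 * σ) ^ 2) th ≤ 4 * max (σ ^ 2) th := by
  refine max_le ?_ ?_
  · have := le_max_left (σ ^ 2) th
    nlinarith
  · have := le_max_right (σ ^ 2) th
    nlinarith [sq_nonneg σ, le_max_left (σ ^ 2) th]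

/-- **count inside one piece.** -/
theorem inner_count {T : Finset ι} {a b K hh c L ρ th N0 q Ch σ : ℝ}
    (hx : ∀ i ∈ T, ∀ j ∈ T, ‖S.x j - S.x i‖ ≤ c) (hv : ∀ i ∈ T, ∀ j ∈ T, ‖S.v j - S.v i‖ ≤ c)
    (hL : ∀ i ∈ T, ∀ j ∈ T, |S.N i j| ≤ L)
    (hW : ∀ i ∈ T, ∀ j ∈ T, max ‖S.x j - S.x i‖ ‖S.v j - S.v i‖ ≤
      256 * (b + hh * |S.N i j|) / K)
    (hK : 0 < K) (hb : 0 < b) (hhh : 0 ≤ hh) (hρ : 0 < ρ) (hσ : 0 < σ) (hth : 0 ≤ th)
    (hN0 : 0 ≤ N0) (hq0 : 0 ≤ q) (hq2 : q ≤ 2)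
    (h1 : 512 * (c * b) ≤ K * ρ) (h2 : 512 * (c * hh) ≤ K) (h3 : hh * ρ ≤ Ch * b)
    (h4 : 256 * (1 + 3 * Ch) * b ≤ K * σ) (h5 : 100 * a ≤ 2 * σ) (h6 : σ ^ 2 ≤ ρ) (h7 : th ≤ ρ)
    (h8 : ρ ≤ L) (h9 : 2 * σ ≤ 1 / 4) (hD : DB S T a q th N0) :
    (T.card : ℝ) ≤ 5000 * L * N0 * σ ^ (1 + q) / max 1 th := by
  rcases T.eq_empty_or_nonempty with rfl | ⟨i1, hi1⟩
  · have : 0 < L := hρ.trans_le h8
    simp only [card_empty, Nat.cast_zero]; positivity
  have hL0 : 0 < L := hρ.trans_le h8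
  set τ := max (σ ^ 2) th with hτ
  have hτ0 : 0 < τ := lt_of_lt_of_le (pow_pos hσ 2) (le_max_left _ _)
  have hτρ : τ ≤ ρ := max_le h6 h7
  have hT1 : 0 < max 1 th := lt_of_lt_of_le one_pos (le_max_left _ _)
  -- leaf
  have leaf : ∀ i ∈ T, ∀ T' : Finset ι, T' ⊆ T → (∀ j ∈ T', ‖S.x j - S.x i‖ ≤ σ ∧
      ‖S.v j - S.v i‖ ≤ σ ∧ |S.N i j| ≤ τ / 2 + σ ^ 2) →
      (T'.card : ℝ) ≤ 32 * N0 * σ ^ (1 + q) * τ / max 1 th := by
    intro i hi T' hT' hj
    have h9 := hD i hi (2 * σ) h5 h9 T' hT' (fun j hj' => by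
      obtain ⟨a1, a2, a3⟩ := hj j hj'
      refine ⟨by linarith, by linarith, a3.trans ?_⟩
      rcases le_total th (2 * σ ^ 2) with h | h
      · refine le_trans ?_ (le_max_left _ _)
        have : τ ≤ 2 * σ ^ 2 := max_le (by nlinarith [sq_nonneg σ]) h
        nlinarith [sq_nonneg σ]
      · refine le_trans ?_ (le_max_right _ _)
        have : τ ≤ th := max_le (by nlinarith [sq_nonneg σ]) le_rfl
        nlinarith [sq_nonneg σ])
    refine h9.trans ?_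
    have e1 : (2 * σ) ^ (1 + q) ≤ 8 * σ ^ (1 + q) := by
      rw [Real.mul_rpow (by norm_num) hσ.le]
      refine mul_le_mul_of_nonneg_right ?_ (by positivity)
      calc (2:ℝ) ^ (1 + q) ≤ (2:ℝ) ^ (3:ℝ) :=
            Real.rpow_le_rpow_of_exponent_le (by norm_num) (by linarith)
        _ = 8 := by norm_num
    have e2 := max_le_max' hσ.le hth
    have e3 : N0 * (2 * σ) ^ (1 + q) * max ((2 * σ) ^ 2) th ≤
        N0 * (8 * σ ^ (1 + q)) * (4 * τ) :=
      mul_le_mul (mul_le_mul_of_nonneg_left e1 hN0) e2 (by positivity) (by positivity)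
    rw [div_le_div_iff_of_pos_right hT1]
    calc N0 * (2 * σ) ^ (1 + q) * max ((2 * σ) ^ 2) th ≤ N0 * (8 * σ ^ (1 + q)) * (4 * τ) := e3
      _ = 32 * N0 * σ ^ (1 + q) * τ := by ring
  -- close pairs
  have close : ∀ i ∈ T, ∀ j ∈ T, |S.N i1 j - S.N i1 i| ≤ ρ →
      |S.N i j| ≤ 3 * ρ ∧ ‖S.x j - S.x i‖ ≤ σ ∧ ‖S.v j - S.v i‖ ≤ σ := by
    intro i hi j hj hij
    have e := S.N_cocycle i1 i j
    have hw := hW i hi j hj
    have hwx : ‖S.x j - S.x i‖ ≤ 256 * (b + hh * |S.N i j|) / K := (le_max_left _ _).trans hw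
    have h10 : |S.N i j| ≤ ρ + c * ‖S.x j - S.x i‖ := by
      rw [e]
      refine (abs_sub _ _).trans ?_
      have h11 : |inner ℝ (S.v i - S.v i1) (S.x j - S.x i)| ≤ c * ‖S.x j - S.x i‖ :=
        (abs_real_inner_le_norm _ _).trans
          (mul_le_mul_of_nonneg_right (hv i1 hi1 i hi) (norm_nonneg _))
      linarith
    have hc0 : 0 ≤ c := (norm_nonneg _).trans (hx i hi j hj)
    have h12 : c * ‖S.x j - S.x i‖ ≤ c * (256 * (b + hh * |S.N i j|) / K) :=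
      mul_le_mul_of_nonneg_left hwx hc0
    have h13 : c * (256 * (b + hh * |S.N i j|) / K) ≤ ρ / 2 + |S.N i j| / 2 := by
      rw [mul_div_assoc', div_le_iff₀ hK]
      have := mul_le_mul_of_nonneg_right h2 (abs_nonneg (S.N i j))
      nlinarith
    have h14 : |S.N i j| ≤ 3 * ρ := by linarith
    have h15 : 256 * (b + hh * |S.N i j|) / K ≤ σ := by
      rw [div_le_iff₀ hK]
      have := mul_le_mul_of_nonneg_left h14 hhh
      nlinarith
    exact ⟨h14, hwx.trans h15, ((le_max_right _ _).trans hw).trans h15⟩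
  have hf1 := card_le_cells T (fun j => ⌊S.N i1 j / ρ⌋)
    (26 * ρ / τ * (32 * N0 * σ ^ (1 + q) * τ / max 1 th)) (fun i hi => by
    set T1 := T.filter fun j => ⌊S.N i1 j / ρ⌋ = ⌊S.N i1 i / ρ⌋ with hT1'
    have hsub1 : T1 ⊆ T := filter_subset _ _
    have hcl : ∀ j ∈ T1, ∀ k ∈ T1, |S.N j k| ≤ 3 * ρ ∧ ‖S.x k - S.x j‖ ≤ σ ∧
        ‖S.v k - S.v j‖ ≤ σ := by
      intro j hj k hk
      refine close j (hsub1 hj) k (hsub1 hk) ?_
      have h16 := (mem_filter.1 hj).2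
      have h17 := (mem_filter.1 hk).2
      exact abs_sub_le_of_floor hρ (h17.trans h16.symm)
    have hi1' : i ∈ T1 := mem_filter.2 ⟨hi, rfl⟩
    have hf2 := card_le_cells T1 (fun j => ⌊S.N i j / (τ / 2)⌋)
      (32 * N0 * σ ^ (1 + q) * τ / max 1 th) (fun k hk => by
      refine leaf k (hsub1 hk) _ ((filter_subset _ _).trans hsub1) (fun j hj => ?_)
      obtain ⟨hj1, hj2⟩ := mem_filter.1 hj
      have h18 := hcl k hk j hj1
      have h19 := hcl i hi1' k hk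
      refine ⟨h18.2.1, h18.2.2, ?_⟩
      have e := S.N_cocycle i k j
      rw [e]
      refine (abs_sub _ _).trans ?_
      have h20 := abs_sub_le_of_floor (by positivity : 0 < τ / 2) hj2
      have h21 : |inner ℝ (S.v k - S.v i) (S.x j - S.x k)| ≤ σ * σ :=
        (abs_real_inner_le_norm _ _).trans
          (mul_le_mul h19.2.2 h18.2.1 (norm_nonneg _) hσ.le)
      nlinarith)
    have hcard2 := floor_image T1 (fun j => S.N i j) (L := 6 * ρ) (δ := τ / 2) (by positivity)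
      (by positivity) (fun j hj k hk => by
        refine (abs_sub _ _).trans ?_
        have := (hcl i hi1' j hj).1
        have := (hcl i hi1' k hk).1
        linarith)
    have h22 : 2 * (6 * ρ) / (τ / 2) + 2 ≤ 26 * ρ / τ := by
      rw [div_add' _ _ _ (by positivity), div_le_div_iff₀ (by positivity) hτ0]
      nlinarith
    refine hf2.trans ?_
    exact mul_le_mul_of_nonneg_right (hcard2.trans h22) (by positivity))
  have hcard1 := floor_image T (fun j => S.N i1 j) (L := 2 * L) (δ := ρ) hρ (by positivity)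
    (fun j hj k hk => by
      refine (abs_sub _ _).trans ?_
      have := hL i1 hi1 j hj
      have := hL i1 hi1 k hk
      linarith)
  have h23 : 2 * (2 * L) / ρ + 2 ≤ 6 * L / ρ := by
    rw [div_add' _ _ _ hρ.ne', div_le_div_iff_of_pos_right hρ]
    linarith
  have h24 : (T.card : ℝ) ≤ 6 * L / ρ * (26 * ρ / τ * (32 * N0 * σ ^ (1 + q) * τ / max 1 th)) :=
    hf1.trans (mul_le_mul_of_nonneg_right (hcard1.trans h23) (by positivity))
  refine h24.trans ?_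
  have h25 : 6 * L / ρ * (26 * ρ / τ * (32 * N0 * σ ^ (1 + q) * τ / max 1 th)) =
      4992 * (L * N0 * σ ^ (1 + q) / max 1 th) := by
    field_simp
    ring
  rw [h25]
  have h26 : 0 ≤ L * N0 * σ ^ (1 + q) / max 1 th := by positivity
  have h27 : 5000 * L * N0 * σ ^ (1 + q) / max 1 th =
      5000 * (L * N0 * σ ^ (1 + q) / max 1 th) := by ring
  rw [h27]
  linarith

end inner

end Crest.Agent.R116.Tc334
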