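import Crest.Agent.R116.Tc3_334

/-!
# R116, TILT for conformal slabs, part 4 (helper334): SHARE, the two cases
-/

set_option autoImplicit false
set_option linter.unusedSectionVars false
set_option linter.unusedVariables false

namespace Crest.Agent.R116.Tc334

open Finset

section share

variable {ι : Type*} {S : CS ι}

theorem dt_smul_left (e : ℝ) (p q : E2) : dt (e • p) q = e * dt p q := by
  simp [dt]; ring

/-- a piece of the common rays of two slabs -/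
structure Pc (S : CS ι) (F0 F1 : CF S) (e : ℝ) (T : Finset ι) (i0 : ι) (M a N0 q : ℝ) : Prop where
  he : e = 1 ∨ e = -1
  M1 : 1 ≤ M
  a0 : 0 < a
  hδ : M * a ≤ 1 / 100
  N00 : 0 ≤ N0
  q0 : 0 ≤ q
  q2 : q ≤ 2
  hi0 : i0 ∈ T
  hx : ∀ i ∈ T, ∀ j ∈ T, ‖S.x j - S.x i‖ ≤ 1 / (4000000 * M)
  hv : ∀ i ∈ T, ∀ j ∈ T, ‖S.v j - S.v i‖ ≤ 1 / (4000000 * M)
  hN : ∀ i ∈ T, ∀ j ∈ T, |S.N i j| ≤ M
  n0 : |F0.n| ≤ M
  d0 : |F0.d| ≤ M
  n1 : |F1.n| ≤ M
  d1 : |F1.d| ≤ M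
  A0 : ∀ i ∈ T, |F0.A i| ≤ a
  B0 : ∀ i ∈ T, |F0.B i| ≤ a
  A1 : ∀ i ∈ T, |F1.A i| ≤ a
  B1 : ∀ i ∈ T, |F1.B i| ≤ a
  G0 : ∀ i ∈ T, |‖F0.G i‖ ^ 2 - 1| ≤ M * a
  G1 : ∀ i ∈ T, |‖F1.G i‖ ^ 2 - 1| ≤ M * a
  pos : 0 ≤ inner ℝ (e • F0.G i0) (F1.G i0)
  D : DB S T a q 0 N0

namespace Pc

variable {F0 F1 : CF S} {e : ℝ} {T : Finset ι} {i0 : ι} {M a N0 q : ℝ}

theorem abs_e (h : Pc S F0 F1 e T i0 M a N0 q) : |e| = 1 := by
  rcases h.he with h | h <;> simp [h]

theorem A (h : Pc S F0 F1 e T i0 M a N0 q) {i : ι} (hi : i ∈ T) :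
    |(CF.comb F1 F0 e).A i| ≤ 2 * a := by
  show |F1.A i - e * F0.A i| ≤ 2 * a
  refine (abs_sub _ _).trans ?_
  rw [abs_mul, h.abs_e, one_mul]
  have := h.A0 i hi
  have := h.A1 i hi
  linarith

theorem B (h : Pc S F0 F1 e T i0 M a N0 q) {i : ι} (hi : i ∈ T) :
    |(CF.comb F1 F0 e).B i| ≤ 2 * a := by
  show |F1.B i - e * F0.B i| ≤ 2 * a
  refine (abs_sub _ _).trans ?_
  rw [abs_mul, h.abs_e, one_mul]
  have := h.B0 i hi
  have := h.B1 i hi
  linarith

theorem normF0 (h : Pc S F0 F1 e T i0 M a N0 q) {i : ι} (hi : i ∈ T) :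
    1 / 2 ≤ ‖F0.G i‖ ∧ ‖F0.G i‖ ≤ 21 / 20 := by
  have h1 := abs_le.1 (h.G0 i hi)
  have h2 := h.hδ
  constructor
  · by_contra hc
    push Not at hc
    nlinarith [norm_nonneg (F0.G i)]
  · by_contra hc
    push Not at hc
    nlinarith [norm_nonneg (F0.G i)]

theorem normF1 (h : Pc S F0 F1 e T i0 M a N0 q) {i : ι} (hi : i ∈ T) :
    1 / 2 ≤ ‖F1.G i‖ ∧ ‖F1.G i‖ ≤ 21 / 20 := by
  have h1 := abs_le.1 (h.G1 i hi)
  have h2 := h.hδ
  constructor
  · by_contra hc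
    push Not at hc
    nlinarith [norm_nonneg (F1.G i)]
  · by_contra hc
    push Not at hc
    nlinarith [norm_nonneg (F1.G i)]

theorem normG (h : Pc S F0 F1 e T i0 M a N0 q) {i : ι} (hi : i ∈ T) :
    ‖(CF.comb F1 F0 e).G i‖ ≤ 21 / 10 := by
  show ‖F1.G i - e • F0.G i‖ ≤ 21 / 10
  refine (norm_sub_le _ _).trans ?_
  rw [norm_smul, Real.norm_eq_abs, h.abs_e, one_mul]
  have := (h.normF0 hi).2
  have := (h.normF1 hi).2
  linarith

/-- transversality -/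
theorem dtG (h : Pc S F0 F1 e T i0 M a N0 q) {i : ι} (hi : i ∈ T)
    (hbig : 8 * (M * a) ≤ ‖(CF.comb F1 F0 e).G i‖) :
    ‖(CF.comb F1 F0 e).G i‖ / 4 ≤ |dt (F0.G i) ((CF.comb F1 F0 e).G i)| := by
  have hM0 : 0 < M := lt_of_lt_of_le one_pos h.M1
  have hpe : ‖e • F0.G i‖ = ‖F0.G i‖ := by
    rw [norm_smul, Real.norm_eq_abs, h.abs_e, one_mul]
  have hpe0 : ‖e • F0.G i0‖ = ‖F0.G i0‖ := by
    rw [norm_smul, Real.norm_eq_abs, h.abs_e, one_mul]
  have hGe : (CF.comb F1 F0 e).G i = F1.G i - e • F0.G i := rfl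
  have key := dt_lower (p := e • F0.G i) (q := F1.G i) (δ := M * a)
    (K := ‖(CF.comb F1 F0 e).G i‖) (norm_nonneg _) (by rw [hGe]) (by rw [hpe]; exact h.G0 i hi)
    (h.G1 i hi) (by linarith [h.hδ]) hbig ?_
  · have e2 : |dt (F0.G i) ((CF.comb F1 F0 e).G i)| =
        |dt (e • F0.G i) (F1.G i - e • F0.G i)| := by
      rw [dt_smul_left, abs_mul, h.abs_e, one_mul, hGe]
    rw [e2]; exact key
  · have hc : 3 * M * (1 / (4000000 * M)) = 3 / 4000000 := by field_simp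
    have v0 := F0.G_var h.n0 h.d0 (h.hx i0 h.hi0 i hi) (h.hv i0 h.hi0 i hi)
    have v1 := F1.G_var h.n1 h.d1 (h.hx i0 h.hi0 i hi) (h.hv i0 h.hi0 i hi)
    rw [hc] at v0 v1
    have e3 : inner ℝ (e • F0.G i) (F1.G i) = inner ℝ (e • F0.G i0) (F1.G i0) +
        inner ℝ (e • (F0.G i - F0.G i0)) (F1.G i) + inner ℝ (e • F0.G i0) (F1.G i - F1.G i0) := by
      rw [smul_sub, inner_sub_left, inner_sub_right]; ring
    have h1 : |inner ℝ (e • (F0.G i - F0.G i0)) (F1.G i)| ≤ 3 / 4000000 * 2 := by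
      refine (abs_real_inner_le_norm _ _).trans ?_
      rw [norm_smul, Real.norm_eq_abs, h.abs_e, one_mul]
      exact mul_le_mul v0 (by linarith [(h.normF1 hi).2]) (norm_nonneg _) (by norm_num)
    have h2 : |inner ℝ (e • F0.G i0) (F1.G i - F1.G i0)| ≤ 2 * (3 / 4000000) := by
      refine (abs_real_inner_le_norm _ _).trans ?_
      rw [hpe0]
      exact mul_le_mul (by linarith [(h.normF0 h.hi0).2]) v1 (norm_nonneg _) (by norm_num)
    have h3 := (abs_le.1 h1).1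
    have h4 := (abs_le.1 h2).1
    have h5 := h.pos
    rw [e3]
    linarith

/-- **Case I**: the gradient of `ψ` is not small against `n`, `d`. -/
theorem caseI (h : Pc S F0 F1 e T i0 M a N0 q) {g K α : ℝ}
    (hn : |(CF.comb F1 F0 e).n| ≤ g) (hd : |(CF.comb F1 F0 e).d| ≤ g)
    (hK : ‖(CF.comb F1 F0 e).G i0‖ = K) (hgK : g ≤ 6000 * M * K)
    (hαK : α ≤ 6000 * M * K) (haα : 10 ^ 18 * M ^ 3 * a ≤ α) :
    (T.card : ℝ) ≤ 5000 * M * N0 * (10 ^ 11 * M ^ 2 * (a / α)) ^ (1 + q) := by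
  set p := CF.comb F1 F0 e with hp
  have hM1 := h.M1
  have ha0 := h.a0
  have hM0 : 0 < M := by linarith
  have hg0 : 0 ≤ g := (abs_nonneg _).trans hn
  have hα0 : 0 < α := lt_of_lt_of_le (by positivity) haα
  have hK0 : 0 < K := by
    by_contra hc
    push Not at hc
    have : 6000 * M * K ≤ 0 := mul_nonpos_of_nonneg_of_nonpos (by positivity) hc
    linarith
  have hK3 : K ≤ 3 := by rw [← hK]; linarith [h.normG h.hi0]
  -- `K` is much bigger than `a`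
  have hKa : 10 ^ 14 * M ^ 2 * a ≤ K := by
    have h1 : 10 ^ 18 * M ^ 3 * a ≤ 6000 * M * K := haα.trans hαK
    have h2 : M * (10 ^ 14 * M ^ 2 * a) ≤ M * K := by nlinarith [pow_pos hM0 3, mul_pos (pow_pos hM0 3) ha0]
    exact le_of_mul_le_mul_left h2 hM0
  have hc0 : 0 < 1 / (4000000 * M) := by positivity
  have hgc : g * (1 / (4000000 * M)) ≤ 6 / 4000 * K := by
    have := mul_le_mul_of_nonneg_right hgK hc0.le
    have e1 : 6000 * M * K * (1 / (4000000 * M)) = 6 / 4000 * K := by field_simp; ring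
    linarith
  have hMc : M * (1 / (4000000 * M)) = 1 / 4000000 := by field_simp
  have hGv : ∀ i ∈ T, ‖p.G i - p.G i0‖ ≤ K / 2 := by
    intro i hi
    have := p.G_var hn hd (h.hx i0 h.hi0 i hi) (h.hv i0 h.hi0 i hi)
    linarith
  have hG1 : ∀ i ∈ T, K / 2 ≤ ‖p.G i‖ := by
    intro i hi
    have h1 := hGv i hi
    have h2 : ‖p.G i0‖ ≤ ‖p.G i‖ + ‖p.G i - p.G i0‖ := by
      have := norm_sub_le (p.G i) (p.G i - p.G i0)
      simpa using this
    linarith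
  have hG2 : ∀ i ∈ T, ‖p.G i‖ ≤ 2 * K := by
    intro i hi
    have h1 := hGv i hi
    have h2 : ‖p.G i‖ ≤ ‖p.G i0‖ + ‖p.G i - p.G i0‖ := by
      have := norm_add_le (p.G i0) (p.G i - p.G i0)
      simpa using this
    linarith
  set hh : ℝ := g + K * M with hhh
  have hhh0 : 0 < hh := by positivity
  have hhhK : hh ≤ 6001 * M * K := by rw [hhh]; linarith
  have hW : ∀ i ∈ T, ∀ j ∈ T, max ‖S.x j - S.x i‖ ‖S.v j - S.v i‖ ≤
      256 * (2 * a + hh * |S.N i j|) / K := by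
    intro i hi j hj
    refine W_pair F0 p h.n0 h.d0 hn hd (h.A0 i hi) (h.A0 j hj) (h.B0 i hi) (h.B0 j hj)
      (h.A hi) (h.A hj) (h.B hi) (h.B hj) (by linarith) hK0 hK3 (by linarith [(h.normF0 hi).2])
      (hG1 i hi) (hG2 i hi) (h.dtG hi ?_) (h.hx i hi j hj) (h.hv i hi j hj) ?_
    · have h1 := hG1 i hi
      have h2 : M * a ≤ M ^ 2 * a := by nlinarith
      have h3 : 0 < M * a := by positivity
      nlinarith
    · have : (K * M + g) * (1 / (4000000 * M)) = K * (M * (1 / (4000000 * M))) +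
          g * (1 / (4000000 * M)) := by ring
      rw [this, hMc]
      linarith
  set C : ℝ := 256 * (1 + 3 * (6001 * M)) with hC
  have hC1 : C ≤ 5 * 10 ^ 6 * M := by rw [hC]; linarith
  have hC0 : 0 < C := by positivity
  have key := inner_count (S := S) (T := T) (a := a) (b := 2 * a) (K := K) (hh := hh)
    (c := 1 / (4000000 * M)) (L := M) (ρ := 2 * a / K) (th := 0) (N0 := N0) (q := q)
    (Ch := 6001 * M) (σ := C * (2 * a) / K) h.hx h.hv h.hN hW hK0 (by positivity) hhh0.le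
    (by positivity) (by positivity) le_rfl h.N00 h.q0 h.q2 ?_ ?_ ?_ ?_ ?_ ?_ (by positivity) ?_ ?_ h.D
  · simp only [max_eq_left (zero_le_one' ℝ), div_one] at key
    refine key.trans ?_
    have h1 : C * (2 * a) / K ≤ 10 ^ 11 * M ^ 2 * (a / α) := by
      rw [mul_div_assoc', div_le_div_iff₀ hK0 hα0]
      calc C * (2 * a) * α ≤ (5 * 10 ^ 6 * M) * (2 * a) * (6000 * M * K) := by
            exact mul_le_mul (mul_le_mul_of_nonneg_right hC1 (by positivity)) hαK hα0.le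
              (by positivity)
        _ = 6 * 10 ^ 10 * (M ^ 2 * a * K) := by ring
        _ ≤ 10 ^ 11 * (M ^ 2 * a * K) := by
            apply mul_le_mul_of_nonneg_right (by norm_num) (by positivity)
        _ = _ := by ring
    have h2 : (C * (2 * a) / K) ^ (1 + q) ≤ (10 ^ 11 * M ^ 2 * (a / α)) ^ (1 + q) :=
      Real.rpow_le_rpow (by positivity) h1 (by linarith [h.q0])
    exact mul_le_mul_of_nonneg_left h2 (mul_nonneg (by positivity) h.N00)
  · rw [mul_div_assoc', mul_div_cancel_left₀ _ hK0.ne']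
    have : 1 / (4000000 * M) ≤ 1 / 4000000 := by
      rw [div_le_div_iff₀ (by positivity) (by norm_num)]; linarith
    nlinarith
  · have : hh * (1 / (4000000 * M)) ≤ 6001 / 4000000 * K := by
      have h1 := mul_le_mul_of_nonneg_right hhhK hc0.le
      have e1 : 6001 * M * K * (1 / (4000000 * M)) = 6001 / 4000000 * K := by field_simp
      linarith
    nlinarith
  · rw [mul_div_assoc', div_le_iff₀ hK0]
    nlinarith [mul_le_mul_of_nonneg_right hhhK (by positivity : (0:ℝ) ≤ 2 * a)]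
  · rw [mul_div_assoc', mul_div_cancel_left₀ _ hK0.ne']
  · rw [mul_div_assoc', le_div_iff₀ hK0]
    have h1 : (256:ℝ) ≤ C := by rw [hC]; nlinarith
    nlinarith
  · rw [div_pow, div_le_div_iff₀ (by positivity) hK0]
    have h1 : C ^ 2 ≤ (5 * 10 ^ 6 * M) ^ 2 := pow_le_pow_left₀ hC0.le hC1 2
    have h2 : C ^ 2 * (2 * a) ≤ K := by
      calc C ^ 2 * (2 * a) ≤ (5 * 10 ^ 6 * M) ^ 2 * (2 * a) :=
            mul_le_mul_of_nonneg_right h1 (by positivity)
        _ = 5 * 10 ^ 13 * (M ^ 2 * a) := by ring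
        _ ≤ 10 ^ 14 * (M ^ 2 * a) := mul_le_mul_of_nonneg_right (by norm_num) (by positivity)
        _ = 10 ^ 14 * M ^ 2 * a := by ring
        _ ≤ K := hKa
    calc (C * (2 * a)) ^ 2 * K = (C ^ 2 * (2 * a)) * (2 * a * K) := by ring
      _ ≤ K * (2 * a * K) := mul_le_mul_of_nonneg_right h2 (by positivity)
      _ = 2 * a * K ^ 2 := by ring
  · rw [div_le_iff₀ hK0]
    have h1 : 2 * a ≤ 10 ^ 14 * M ^ 2 * a := by
      have : (1:ℝ) ≤ M ^ 2 := by nlinarith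
      nlinarith
    nlinarith
  · rw [mul_div_assoc', div_le_iff₀ hK0]
    have h1 : 2 * (C * (2 * a)) ≤ 2 * (5 * 10 ^ 6 * M * (2 * a)) :=
      mul_le_mul_of_nonneg_left (mul_le_mul_of_nonneg_right hC1 (by positivity)) (by norm_num)
    have h2 : 2 * (5 * 10 ^ 6 * M * (2 * a)) ≤ 1 / 4 * (10 ^ 14 * M ^ 2 * a) := by
      have h3 : M * a ≤ M ^ 2 * a := by nlinarith
      have h4 : 0 < M * a := by positivity
      nlinarith
    linarith

end Pc

end share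

end Crest.Agent.R116.Tc334
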