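import Mathlib
import Crest.Agent.R136.MkF_627
import Crest.Agent.R138.TiltU1_51

/-!
# R116 K side: tilt of two class systems, abstract counting (helper635)

`count_gen` : two class systems `f` (near-maximal on `S1`, class size `M1`) and `g` (near-maximal on
`S2`, class size `M2`) and a discrepancy `D` of the classes.  If at the dyadic scales `2^k θ0`
* (share) two classes with discrepancy `≥ 2^k θ0` have at most `sh k` common lines,
* (number) all classes of the second system with discrepancy in `[2^k θ0, 2^(k+1) θ0]` which meet a given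
  class of the first system contain together at most `nu k` lines,
then the number of common lines with discrepancy `≥ θ0` is `≤ E1 E2 Σ sh nu / (M1 M2) * #S1`.

`ShNu` : share and number as statements on the test sets of `Geo`.  `ShNu.cell` : one cell.
-/

set_option autoImplicit false
set_option linter.unusedVariables false

open Finset Filter Topology

namespace Crest.Agent.R116.Tc635

open Crest.Agent.R138.Ex926 Crest.Agent.R138.Dp76
open Crest.Agent.R138.Mk163 (zc zl rho alive Negl)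
open Crest.Agent.R136.MkA627

noncomputable section

section count

variable {ι α β : Type*} [DecidableEq ι] [DecidableEq α] [DecidableEq β]

/-- classes of the second system which meet the class `a` with discrepancy about `2^k θ0` -/
def JJ (S : Finset ι) (f : ι → α) (g : ι → β) (D : α → β → ℝ) (θ0 : ℝ) (k : ℕ) (a : α) : Finset β :=
  ((S.filter fun t => f t = a ∧ 2 ^ k * θ0 ≤ D a (g t) ∧ D a (g t) ≤ 2 ^ (k + 1) * θ0).image g)

theorem exists_dyadic {θ0 x : ℝ} (h0 : 0 < θ0) (hx : θ0 ≤ x) :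
    ∃ k : ℕ, 2 ^ k * θ0 ≤ x ∧ x ≤ 2 ^ (k + 1) * θ0 := by
  obtain ⟨k, hk1, hk2⟩ := exists_nat_pow_near (x := x / θ0) (y := (2 : ℝ))
    ((one_le_div h0).2 hx) (by norm_num)
  exact ⟨k, (le_div_iff₀ h0).1 hk1, ((div_lt_iff₀ h0).1 hk2).le⟩

/-- **counting of two class systems** -/
theorem count_gen {S1 S2 : Finset ι} {f : ι → α} {g : ι → β} {D : α → β → ℝ}
    {θ0 M1 M2 E1 E2 T : ℝ} {sh nu : ℕ → ℝ} (h0 : 0 < θ0) (hM1 : 0 ≤ M1) (hM2 : 0 ≤ M2)
    (hE2 : 0 ≤ E2) (hE1 : 0 ≤ E1) (hsh : ∀ k, 0 ≤ sh k) (hnu : ∀ k, 0 ≤ nu k)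
    (hT : ∀ N : ℕ, ∑ k ∈ range N, sh k * nu k ≤ T)
    (near1 : ∀ t ∈ S1 ∩ S2, M1 ≤ E1 * ((S1.filter fun s => f s = f t).card : ℝ))
    (near2 : ∀ t ∈ S1 ∩ S2, M2 ≤ E2 * ((S2.filter fun s => g s = g t).card : ℝ))
    (share : ∀ k : ℕ, ∀ t ∈ S1 ∩ S2, 2 ^ k * θ0 ≤ D (f t) (g t) →
      (((S1 ∩ S2).filter fun s => f s = f t ∧ g s = g t).card : ℝ) ≤ sh k)
    (numb : ∀ k : ℕ, ∀ t ∈ S1 ∩ S2,
      ((S2.filter fun s => g s ∈ JJ (S1 ∩ S2) f g D θ0 k (f t)).card : ℝ) ≤ nu k) :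
    (((S1 ∩ S2).filter fun t => θ0 ≤ D (f t) (g t)).card : ℝ) * (M1 * M2) ≤
      E1 * E2 * T * (S1.card : ℝ) := by
  classical
  set S := S1 ∩ S2 with hS
  have hT0 : 0 ≤ T := le_trans (by simp) (hT 0)
  -- choose the scale of a line
  have hk : ∀ t ∈ S.filter (fun t => θ0 ≤ D (f t) (g t)),
      ∃ k : ℕ, 2 ^ k * θ0 ≤ D (f t) (g t) ∧ D (f t) (g t) ≤ 2 ^ (k + 1) * θ0 := by
    intro t ht
    exact exists_dyadic h0 (mem_filter.1 ht).2
  choose! kk hkk1 hkk2 using hk
  obtain ⟨N, hN⟩ : ∃ N : ℕ, ∀ t ∈ S.filter (fun t => θ0 ≤ D (f t) (g t)), kk t < N := by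
    refine ⟨(S.filter (fun t => θ0 ≤ D (f t) (g t))).sup kk + 1, fun t ht => ?_⟩
    exact Nat.lt_succ_of_le (le_sup (f := kk) ht)
  -- number of classes
  have hJ : ∀ k : ℕ, ∀ t ∈ S, ((JJ S f g D θ0 k (f t)).card : ℝ) * M2 ≤ E2 * nu k := by
    intro k t ht
    have h1 : ((S2.filter fun s => g s ∈ JJ S f g D θ0 k (f t)).card : ℝ) =
        ∑ b ∈ JJ S f g D θ0 k (f t), ((S2.filter fun s => g s = b).card : ℝ) := by
      rw [← Nat.cast_sum]
      congr 1
      rw [card_eq_sum_card_fiberwise (s := S2.filter fun s => g s ∈ JJ S f g D θ0 k (f t)) (f := g)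
        (t := JJ S f g D θ0 k (f t)) (fun x hx => mem_coe.2 (mem_filter.1 (mem_coe.1 hx)).2)]
      refine sum_congr rfl fun b hb => ?_
      congr 1
      ext s
      simp only [mem_filter]
      constructor
      · rintro ⟨⟨h2, h3⟩, h4⟩; exact ⟨h2, h4⟩
      · rintro ⟨h2, h4⟩; exact ⟨⟨h2, by rw [h4]; exact hb⟩, h4⟩
    have h2 : ∑ b ∈ JJ S f g D θ0 k (f t), M2 ≤
        E2 * ∑ b ∈ JJ S f g D θ0 k (f t), ((S2.filter fun s => g s = b).card : ℝ) := by
      rw [mul_sum]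
      refine sum_le_sum fun b hb => ?_
      unfold JJ at hb
      rw [mem_image] at hb
      obtain ⟨s, hs, rfl⟩ := hb
      exact near2 s (mem_filter.1 hs).1
    rw [sum_const, nsmul_eq_mul, ← h1] at h2
    exact h2.trans (mul_le_mul_of_nonneg_left (numb k t ht) hE2)
  -- one class of the first system
  have hone : ∀ t ∈ S, ((S.filter fun s => f s = f t ∧ θ0 ≤ D (f s) (g s)).card : ℝ) * M2 ≤
      E2 * T := by
    intro t ht
    have h1 : (S.filter fun s => f s = f t ∧ θ0 ≤ D (f s) (g s)) ⊆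
        (range N).biUnion fun k => (JJ S f g D θ0 k (f t)).biUnion fun b =>
          S.filter fun s => f s = f t ∧ g s = b ∧ 2 ^ k * θ0 ≤ D (f s) (g s) := by
      intro s hs
      rw [mem_filter] at hs
      have hs' : s ∈ S.filter (fun t => θ0 ≤ D (f t) (g t)) := mem_filter.2 ⟨hs.1, hs.2.2⟩
      rw [mem_biUnion]
      refine ⟨kk s, mem_range.2 (hN s hs'), ?_⟩
      rw [mem_biUnion]
      refine ⟨g s, ?_, mem_filter.2 ⟨hs.1, hs.2.1, rfl, hkk1 s hs'⟩⟩
      unfold JJ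
      rw [mem_image]
      refine ⟨s, mem_filter.2 ⟨hs.1, hs.2.1, ?_, ?_⟩, rfl⟩
      · rw [← hs.2.1]; exact hkk1 s hs'
      · rw [← hs.2.1]; exact hkk2 s hs'
    have h2 : ((S.filter fun s => f s = f t ∧ θ0 ≤ D (f s) (g s)).card : ℝ) ≤
        ∑ k ∈ range N, ((JJ S f g D θ0 k (f t)).card : ℝ) * sh k := by
      calc ((S.filter fun s => f s = f t ∧ θ0 ≤ D (f s) (g s)).card : ℝ)
          ≤ (((range N).biUnion fun k => (JJ S f g D θ0 k (f t)).biUnion fun b =>
          S.filter fun s => f s = f t ∧ g s = b ∧ 2 ^ k * θ0 ≤ D (f s) (g s)).card : ℝ) := by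
            exact_mod_cast card_le_card h1
        _ ≤ ∑ k ∈ range N, (((JJ S f g D θ0 k (f t)).biUnion fun b =>
          S.filter fun s => f s = f t ∧ g s = b ∧ 2 ^ k * θ0 ≤ D (f s) (g s)).card : ℝ) := by
            exact_mod_cast card_biUnion_le
        _ ≤ ∑ k ∈ range N, ((JJ S f g D θ0 k (f t)).card : ℝ) * sh k := by
            refine sum_le_sum fun k hk => ?_
            calc (((JJ S f g D θ0 k (f t)).biUnion fun b =>
                  S.filter fun s => f s = f t ∧ g s = b ∧ 2 ^ k * θ0 ≤ D (f s) (g s)).card : ℝ)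
                ≤ ∑ b ∈ JJ S f g D θ0 k (f t), ((S.filter fun s => f s = f t ∧ g s = b ∧
                    2 ^ k * θ0 ≤ D (f s) (g s)).card : ℝ) := by exact_mod_cast card_biUnion_le
              _ ≤ ∑ b ∈ JJ S f g D θ0 k (f t), sh k := by
                  refine sum_le_sum fun b hb => ?_
                  rcases (S.filter fun s => f s = f t ∧ g s = b ∧
                    2 ^ k * θ0 ≤ D (f s) (g s)).eq_empty_or_nonempty with hE | ⟨s, hs⟩
                  · rw [hE]; simpa using hsh k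
                  · rw [mem_filter] at hs
                    obtain ⟨hsS, hsf, hsg, hsD⟩ := hs
                    refine le_trans ?_ (share k s hsS hsD)
                    norm_cast
                    refine card_le_card fun x hx => ?_
                    rw [mem_filter] at hx ⊢
                    exact ⟨hx.1, hx.2.1.trans hsf.symm, hx.2.2.1.trans hsg.symm⟩
              _ = ((JJ S f g D θ0 k (f t)).card : ℝ) * sh k := by
                  rw [sum_const, nsmul_eq_mul]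
    calc ((S.filter fun s => f s = f t ∧ θ0 ≤ D (f s) (g s)).card : ℝ) * M2
        ≤ (∑ k ∈ range N, ((JJ S f g D θ0 k (f t)).card : ℝ) * sh k) * M2 :=
          mul_le_mul_of_nonneg_right h2 hM2
      _ = ∑ k ∈ range N, (((JJ S f g D θ0 k (f t)).card : ℝ) * M2) * sh k := by
          rw [sum_mul]; refine sum_congr rfl fun k _ => by ring
      _ ≤ ∑ k ∈ range N, (E2 * nu k) * sh k :=
          sum_le_sum fun k _ => mul_le_mul_of_nonneg_right (hJ k t ht) (hsh k)
      _ = E2 * ∑ k ∈ range N, sh k * nu k := by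
          rw [mul_sum]; refine sum_congr rfl fun k _ => by ring
      _ ≤ E2 * T := mul_le_mul_of_nonneg_left (hT N) hE2
  -- sum over the classes
  have h3 : ((S.filter fun t => θ0 ≤ D (f t) (g t)).card : ℝ) =
      ∑ a ∈ S.image f, ((S.filter fun s => f s = a ∧ θ0 ≤ D (f s) (g s)).card : ℝ) := by
    rw [← Nat.cast_sum]
    congr 1
    rw [card_eq_sum_card_fiberwise (s := S.filter fun t => θ0 ≤ D (f t) (g t)) (f := f)
      (t := S.image f) (fun x hx => mem_coe.2 (mem_image_of_mem f (mem_filter.1 (mem_coe.1 hx)).1))]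
    refine sum_congr rfl fun a _ => ?_
    congr 1
    ext s
    simp only [mem_filter]
    tauto
  have h4 : ∑ a ∈ S.image f, ((S1.filter fun s => f s = a).card : ℝ) ≤ (S1.card : ℝ) := by
    have h5 : (S1.card : ℝ) = ∑ a ∈ S1.image f, ((S1.filter fun s => f s = a).card : ℝ) := by
      rw [← Nat.cast_sum]
      congr 1
      exact card_eq_sum_card_fiberwise (fun x hx => mem_image_of_mem f hx)
    rw [h5]
    refine sum_le_sum_of_subset_of_nonneg (image_subset_image inter_subset_left) ?_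
    intro _ _ _; positivity
  rw [h3, sum_mul]
  calc ∑ a ∈ S.image f, ((S.filter fun s => f s = a ∧ θ0 ≤ D (f s) (g s)).card : ℝ) * (M1 * M2)
      ≤ ∑ a ∈ S.image f, E1 * E2 * T * ((S1.filter fun s => f s = a).card : ℝ) := by
        refine sum_le_sum fun a ha => ?_
        rw [mem_image] at ha
        obtain ⟨t, ht, rfl⟩ := ha
        calc ((S.filter fun s => f s = f t ∧ θ0 ≤ D (f s) (g s)).card : ℝ) * (M1 * M2)
            = (((S.filter fun s => f s = f t ∧ θ0 ≤ D (f s) (g s)).card : ℝ) * M2) * M1 := by ring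
          _ ≤ (E2 * T) * M1 := mul_le_mul_of_nonneg_right (hone t ht) hM1
          _ ≤ (E2 * T) * (E1 * ((S1.filter fun s => f s = f t).card : ℝ)) :=
              mul_le_mul_of_nonneg_left (near1 t ht) (mul_nonneg hE2 hT0)
          _ = _ := by ring
    _ = E1 * E2 * T * ∑ a ∈ S.image f, ((S1.filter fun s => f s = a).card : ℝ) := by
        rw [mul_sum]
    _ ≤ E1 * E2 * T * (S1.card : ℝ) :=
        mul_le_mul_of_nonneg_left h4 (mul_nonneg (mul_nonneg hE1 hE2) hT0)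

end count

/-! ### share and number as statements on test sets -/

/-- the cell `J'` of level `j` lies in the cell `J` of level `i` -/
def SubC (i j : ℕ) (J J' : ℤ) : Prop := ∃ z : ℝ, zc i z = J ∧ zc j z = J'

/-- **share and number** for two systems of marked test sets: labels `a` of the first system with test
sets `b1 a` over cells of level `i1`, labels `a'` of the second system with test sets `b2 a'` over cells
of level `i2`; all covering test sets live over the cell of level `i` (`mk1`, `mk2` : properties of the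
marks; `D` : discrepancy of the labels; `θ0` : threshold; `T` : bound of `Σ share * number`). -/
def ShNu {σ κ : Type*} (G : Geo σ κ) (n i i1 i2 : ℕ) (b1 b2 : ℕ → σ) (mk1 mk2 : ℤ → σ → Prop)
    (D : ℕ → ℕ → ℝ) (θ0 T : ℝ) : Prop :=
  ∃ sh nu : ℕ → ℝ, (∀ k, 0 ≤ sh k) ∧ (∀ k, 0 ≤ nu k) ∧
    (∀ N : ℕ, ∑ k ∈ range N, sh k * nu k ≤ T) ∧
    (∀ (k : ℕ) (J J1 J2 : ℤ) (a a' : ℕ), SubC i i1 J J1 → SubC i i2 J J2 → mk1 J1 (b1 a) →
      mk2 J2 (b2 a') → 2 ^ k * θ0 ≤ D a a' →
      ∃ (m : ℕ) (F : Fin m → σ), (∀ l, G.adm n i J (F l)) ∧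
        (∀ t, G.mem n i1 J1 (b1 a) t → G.mem n i2 J2 (b2 a') t → ∃ l, G.mem n i J (F l) t) ∧
        ∑ l, G.val n i J (F l) ≤ sh k) ∧
    (∀ (k : ℕ) (J J1 J2 : ℤ) (a : ℕ), SubC i i1 J J1 → SubC i i2 J J2 → mk1 J1 (b1 a) →
      ∃ s : σ, G.adm n i J s ∧ G.val n i J s ≤ nu k ∧
        ∀ a' : ℕ, mk2 J2 (b2 a') → 2 ^ k * θ0 ≤ D a a' → D a a' ≤ 2 ^ (k + 1) * θ0 →
          (∃ t, G.mem n i1 J1 (b1 a) t ∧ G.mem n i2 J2 (b2 a') t) →
          ∀ t, G.mem n i2 J2 (b2 a') t → G.mem n i J s t)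

open Classical in
/-- one triple of cells: common lines with large discrepancy. -/
theorem ShNu.cell {σ κ : Type*} {G : Geo σ κ} {n i i1 i2 : ℕ} {b1 b2 : ℕ → σ}
    {mk1 mk2 : ℤ → σ → Prop} {D : ℕ → ℕ → ℝ} {θ0 T : ℝ}
    (h : ShNu G n i i1 i2 b1 b2 mk1 mk2 D θ0 T) (h0 : 0 < θ0)
    {S S1 S2 : Finset ℕ} {f g : ℕ → ℕ} {J J1 J2 : ℤ} {M M1 M2 E1 E2 : ℝ}
    (hS1 : S1 ⊆ S) (hS2 : S2 ⊆ S) (c1 : SubC i i1 J J1) (c2 : SubC i i2 J J2)
    (hM : 0 ≤ M) (hM1 : 0 ≤ M1) (hM2 : 0 ≤ M2) (hE1 : 0 ≤ E1) (hE2 : 0 ≤ E2)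
    (dm : ∀ s : σ, G.adm n i J s → (((S.filter fun t => G.mem n i J s t).card : ℕ) : ℝ) ≤
      M * G.val n i J s)
    (k1 : ∀ t ∈ S1, G.mem n i1 J1 (b1 (f t)) t ∧ mk1 J1 (b1 (f t)))
    (k2 : ∀ t ∈ S2, G.mem n i2 J2 (b2 (g t)) t ∧ mk2 J2 (b2 (g t)))
    (near1 : ∀ t ∈ S1, M1 ≤ E1 * ((S1.filter fun s => f s = f t).card : ℝ))
    (near2 : ∀ t ∈ S2, M2 ≤ E2 * ((S2.filter fun s => g s = g t).card : ℝ)) :
    (((S1 ∩ S2).filter fun t => θ0 ≤ D (f t) (g t)).card : ℝ) * (M1 * M2) ≤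
      E1 * E2 * (M ^ 2 * T) * (S1.card : ℝ) := by
  obtain ⟨sh, nu, hsh, hnu, hT, hshare, hnumb⟩ := h
  refine count_gen (sh := fun k => M * sh k) (nu := fun k => M * nu k) h0 hM1 hM2 hE2 hE1
    (fun k => mul_nonneg hM (hsh k)) (fun k => mul_nonneg hM (hnu k)) ?_
    (fun t ht => near1 t (mem_inter.1 ht).1) (fun t ht => near2 t (mem_inter.1 ht).2) ?_ ?_
  · intro N
    have e : ∑ k ∈ range N, M * sh k * (M * nu k) = M ^ 2 * ∑ k ∈ range N, sh k * nu k := by
      rw [mul_sum]; refine sum_congr rfl fun k _ => by ring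
    rw [e]
    exact mul_le_mul_of_nonneg_left (hT N) (by positivity)
  · intro k t ht hD
    rw [mem_inter] at ht
    obtain ⟨m, F, hF1, hF2, hF3⟩ := hshare k J J1 J2 (f t) (g t) c1 c2 (k1 t ht.1).2
      (k2 t ht.2).2 hD
    have h1 : ((S1 ∩ S2).filter fun s => f s = f t ∧ g s = g t) ⊆
        (univ : Finset (Fin m)).biUnion fun l => S.filter fun s => G.mem n i J (F l) s := by
      intro s hs
      rw [mem_filter, mem_inter] at hs
      obtain ⟨⟨hs1, hs2⟩, hsf, hsg⟩ := hs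
      have e1 := (k1 s hs1).1
      have e2 := (k2 s hs2).1
      rw [hsf] at e1
      rw [hsg] at e2
      obtain ⟨l, hl⟩ := hF2 s e1 e2
      rw [mem_biUnion]
      exact ⟨l, mem_univ _, mem_filter.2 ⟨hS1 hs1, hl⟩⟩
    calc ((((S1 ∩ S2).filter fun s => f s = f t ∧ g s = g t).card : ℕ) : ℝ)
        ≤ (((univ : Finset (Fin m)).biUnion fun l => S.filter fun s => G.mem n i J (F l) s).card : ℝ)
          := by exact_mod_cast card_le_card h1
      _ ≤ ∑ l : Fin m, (((S.filter fun s => G.mem n i J (F l) s).card : ℕ) : ℝ) := by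
          exact_mod_cast card_biUnion_le
      _ ≤ ∑ l : Fin m, M * G.val n i J (F l) := sum_le_sum fun l _ => dm _ (hF1 l)
      _ = M * ∑ l : Fin m, G.val n i J (F l) := by rw [mul_sum]
      _ ≤ M * sh k := mul_le_mul_of_nonneg_left hF3 hM
  · intro k t ht
    rw [mem_inter] at ht
    obtain ⟨s, hs1, hs2, hs3⟩ := hnumb k J J1 J2 (f t) c1 c2 (k1 t ht.1).2
    have h1 : (S2.filter fun x => g x ∈ JJ (S1 ∩ S2) f g D θ0 k (f t)) ⊆
        S.filter fun x => G.mem n i J s x := by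
      intro x hx
      rw [mem_filter] at hx
      obtain ⟨hx2, hxJ⟩ := hx
      unfold JJ at hxJ
      rw [mem_image] at hxJ
      obtain ⟨y, hy, hyx⟩ := hxJ
      rw [mem_filter, mem_inter] at hy
      obtain ⟨⟨hy1, hy2⟩, hyf, hyD1, hyD2⟩ := hy
      have a1 := (k1 y hy1).1
      rw [hyf] at a1
      have a2 := k2 y hy2
      rw [hyx] at a2 hyD1 hyD2
      exact mem_filter.2 ⟨hS2 hx2, hs3 (g x) a2.2 hyD1 hyD2 ⟨y, a1, a2.1⟩ x (k2 x hx2).1⟩
    calc (((S2.filter fun x => g x ∈ JJ (S1 ∩ S2) f g D θ0 k (f t)).card : ℕ) : ℝ)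
        ≤ (((S.filter fun x => G.mem n i J s x).card : ℕ) : ℝ) := by exact_mod_cast card_le_card h1
      _ ≤ M * G.val n i J s := dm s hs1
      _ ≤ M * nu k := mul_le_mul_of_nonneg_left hs2 hM

end

end Crest.Agent.R116.Tc635
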