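import Crest.Agent.R116.Tc4_334

/-!
# R116, TILT for conformal slabs, part 5 (helper334): SHARE, the degenerate case
-/

set_option autoImplicit false
set_option linter.unusedSectionVars false
set_option linter.unusedVariables false

namespace Crest.Agent.R116.Tc334

open Finset

section share2

variable {ι : Type*} {S : CS ι}

namespace Pc

variable {F0 F1 : CF S} {e : ℝ} {T : Finset ι} {i0 : ι} {M a N0 q : ℝ}

/-- numerical facts about `κ`. -/
structure Kp (M a g K0 α κ : ℝ) : Prop where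
  κ0 : 0 < κ
  sq : g ^ 2 * κ ^ 2 = K0 ^ 2 + 8000000 * M * a * g
  le : 3000 * (M * κ) ≤ 1
  g0 : 0 < g
  g2 : g ≤ 2 * M
  αg : α ≤ g
  ha : 2 * a ≤ κ ^ 2
  hb : 8000000 * M * a ≤ g * κ ^ 2

theorem Kp_ex {M a g K0 α : ℝ} (hM : 1 ≤ M) (ha0 : 0 < a) (hK0 : 0 ≤ K0)
    (hKg : 6000 * M * K0 ≤ g) (hg2 : g ≤ 2 * M) (hαg : α ≤ g) (haα : 10 ^ 18 * M ^ 3 * a ≤ α) :
    ∃ κ, Kp M a g K0 α κ := by
  have hM0 : 0 < M := by linarith
  have hα0 : 0 < α := lt_of_lt_of_le (by positivity) haα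
  have hg0 : 0 < g := by linarith
  have hpos : 0 < (K0 / g) ^ 2 + 8000000 * M * a / g := by positivity
  have hs : (Real.sqrt ((K0 / g) ^ 2 + 8000000 * M * a / g)) ^ 2 =
      (K0 / g) ^ 2 + 8000000 * M * a / g := Real.sq_sqrt hpos.le
  set κ := Real.sqrt ((K0 / g) ^ 2 + 8000000 * M * a / g) with hκ
  have hκ0 : 0 < κ := Real.sqrt_pos.2 hpos
  have hsq : g ^ 2 * κ ^ 2 = K0 ^ 2 + 8000000 * M * a * g := by
    rw [hs]; field_simp
  have hb : 8000000 * M * a ≤ g * κ ^ 2 := by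
    have : g * (8000000 * M * a) ≤ g * (g * κ ^ 2) := by nlinarith [sq_nonneg K0]
    exact le_of_mul_le_mul_left this hg0
  refine ⟨κ, hκ0, hsq, ?_, hg0, hg2, hαg, ?_, hb⟩
  · -- g² (3000 M κ)² ≤ g²
    have h1 : 6000 ^ 2 * M ^ 2 * K0 ^ 2 ≤ g ^ 2 := by
      have := pow_le_pow_left₀ (by positivity) hKg 2
      calc 6000 ^ 2 * M ^ 2 * K0 ^ 2 = (6000 * M * K0) ^ 2 := by ring
        _ ≤ g ^ 2 := this
    have h2 : 10 ^ 18 * M ^ 3 * a ≤ g := haα.trans hαg
    have h3 : 10 ^ 18 * M ^ 3 * a * g ≤ g * g := mul_le_mul_of_nonneg_right h2 hg0.le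
    have h4 : g ^ 2 * (3000 * (M * κ)) ^ 2 ≤ g ^ 2 * 1 ^ 2 := by
      have e1 : g ^ 2 * (3000 * (M * κ)) ^ 2 = 9000000 * M ^ 2 * (g ^ 2 * κ ^ 2) := by ring
      rw [e1, hsq]
      have e2 : 9000000 * M ^ 2 * (K0 ^ 2 + 8000000 * M * a * g) =
          1 / 4 * (6000 ^ 2 * M ^ 2 * K0 ^ 2) + 72 / 10 ^ 6 * (10 ^ 18 * M ^ 3 * a * g) := by ring
      rw [e2]
      nlinarith [sq_nonneg g]
    have h5 := le_of_mul_le_mul_left h4 (by positivity)
    exact (sq_le_sq₀ (by positivity) (by norm_num)).1 h5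
  · have h1 : g * κ ^ 2 ≤ 2 * M * κ ^ 2 := mul_le_mul_of_nonneg_right hg2 (sq_nonneg _)
    have h2 : 8000000 * M * a ≤ 2 * M * κ ^ 2 := hb.trans h1
    have h3 : M * (4000000 * a) ≤ M * κ ^ 2 := by linarith
    have h4 := le_of_mul_le_mul_left h3 hM0
    linarith

/-- all gradients of `ψ` are at most `g κ` -/
theorem G_le (h : Pc S F0 F1 e T i0 M a N0 q) {g K0 α κ : ℝ}
    (hn : |(CF.comb F1 F0 e).n| ≤ g) (hd : |(CF.comb F1 F0 e).d| ≤ g)
    (hK : ‖(CF.comb F1 F0 e).G i0‖ = K0) (k : Kp M a g K0 α κ) {i : ι} (hi : i ∈ T) :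
    ‖(CF.comb F1 F0 e).G i‖ ≤ g * κ := by
  have h1 := (CF.comb F1 F0 e).gsq_le hn hd (h.A h.hi0) (h.B h.hi0) (h.A hi) (h.B hi)
  have h2 := (abs_le.1 h1).2
  rw [hK] at h2
  have hg := k.g0
  have ha := h.a0
  have hM := h.M1
  have h3 : ‖(CF.comb F1 F0 e).G i‖ ^ 2 ≤ (g * κ) ^ 2 := by
    rw [mul_pow, k.sq]
    have : 24 * (g * a) ≤ 8000000 * M * a * g := by
      have : 0 < g * a := by positivity
      nlinarith
    linarith
  exact (sq_le_sq₀ (norm_nonneg _) (by have := k.κ0; positivity)).1 h3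

/-- the time shift -/
theorem shift_ex {n d g : ℝ} (hg : max |n| |d| = g) :
    ∃ u : ℝ, 0 ≤ u ∧ u ≤ 1 ∧ g / 2 ≤ |n - 2 * u * d| := by
  have hg0 : 0 ≤ g := by rw [← hg]; exact (abs_nonneg _).trans (le_max_left _ _)
  by_cases h : g / 2 ≤ |n|
  · exact ⟨0, le_rfl, zero_le_one, by simpa using h⟩
  · push Not at h
    refine ⟨1, zero_le_one, le_rfl, ?_⟩
    have hd : |d| = g := by
      rcases max_choice |n| |d| with h1 | h1
      · rw [h1] at hg; linarith
      · rw [h1] at hg; exact hg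
    have h2 : |2 * 1 * d| = 2 * g := by
      rw [abs_mul, hd]; norm_num
    have h3 := abs_sub_abs_le_abs_sub (2 * 1 * d) n
    rw [h2, abs_sub_comm] at h3
    have h4 : g / 2 ≤ 2 * g - |n| := by linarith
    exact h4.trans h3

/-- pair bounds at the shifted time -/
theorem pairsII (h : Pc S F0 F1 e T i0 M a N0 q) {g K0 α κ : ℝ}
    (hn : |(CF.comb F1 F0 e).n| ≤ g) (hd : |(CF.comb F1 F0 e).d| ≤ g)
    (hK : ‖(CF.comb F1 F0 e).G i0‖ = K0) (k : Kp M a g K0 α κ) {u : ℝ} (hu0 : 0 ≤ u) (hu1 : u ≤ 1)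
    (hu : g / 2 ≤ |(CF.comb F1 F0 e).n - 2 * u * (CF.comb F1 F0 e).d|)
    {i j : ι} (hi : i ∈ T) (hj : j ∈ T)
    (hcell : |inner ℝ (Jr (F0.G i0)) ((S.sh u).x j - (S.sh u).x i)| ≤ κ) :
    ‖S.x j - S.x i‖ ≤ 54 * κ ∧ ‖S.v j - S.v i‖ ≤ 54 * κ ∧ |S.N i j| ≤ 1200 * κ ^ 2 := by
  set p := CF.comb F1 F0 e with hp
  have hM1 := h.M1
  have hM0 : 0 < M := by linarith
  have ha0 := h.a0
  have hg0 := k.g0
  have hκ0 := k.κ0
  have hκM := k.le
  have hκ1 : κ ≤ 1 / 3000 := by nlinarith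
  have hv' : (S.sh u).v = S.v := rfl
  have hAu : ∀ {i}, i ∈ T → |(p.sh u).A i| ≤ 4 * a := by
    intro i hi
    show |p.A i + u * p.B i| ≤ 4 * a
    refine (abs_add_le _ _).trans ?_
    rw [abs_mul, abs_of_nonneg hu0]
    have h1 := h.A hi
    have h2 := h.B hi
    have h3 : u * |p.B i| ≤ 1 * (2 * a) := mul_le_mul hu1 h2 (abs_nonneg _) (by norm_num)
    linarith
  have hAF : ∀ {i}, i ∈ T → |(F0.sh u).A i| ≤ 2 * a := by
    intro i hi
    show |F0.A i + u * F0.B i| ≤ 2 * a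
    refine (abs_add_le _ _).trans ?_
    rw [abs_mul, abs_of_nonneg hu0]
    have h1 := h.A0 i hi
    have h2 := h.B0 i hi
    have h3 : u * |F0.B i| ≤ 1 * a := mul_le_mul hu1 h2 (abs_nonneg _) (by norm_num)
    linarith
  have key := kap_pair (S := S.sh u) (p.sh u) (g := g) (K := g * κ) (b := 4 * a) (κ := κ)
    hg0 hu hd rfl (by
      have := k.hb
      have h1 : 4 * a ≤ 8000000 * M * a := by nlinarith
      linarith) (i := i) (j := j) (h.G_le hn hd hK k hi) (h.G_le hn hd hK k hj) (hAu hi) (hAu hj)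
  obtain ⟨key1, key2⟩ := key
  have hxx : ∀ {i j}, i ∈ T → j ∈ T → ‖(S.sh u).x j - (S.sh u).x i‖ ≤ 1 / (2000000 * M) := by
    intro i j hi hj
    rw [S.sh_x]
    refine (norm_add_le _ _).trans ?_
    rw [norm_smul, Real.norm_eq_abs, abs_of_nonneg hu0]
    have h1 := h.hx i hi j hj
    have h2 := mul_le_mul hu1 (h.hv i hi j hj) (norm_nonneg _) (by norm_num)
    have e1 : 1 / (2000000 * M) = 1 / (4000000 * M) + 1 * (1 / (4000000 * M)) := by
      field_simp; norm_num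
    rw [e1]; linarith
  have hle1 : 1 / (2000000 * M) ≤ 1 / (100 * (3 * M)) := by
    rw [div_le_div_iff₀ (by positivity) (by positivity)]; nlinarith
  have hle2 : 1 / (4000000 * M) ≤ 1 / (100 * (3 * M)) := by
    rw [div_le_div_iff₀ (by positivity) (by positivity)]; nlinarith
  have hc := kap_curve (S := S.sh u) (F0.sh u) (M := 3 * M) (a := 2 * a) (κ := κ) (i0 := i0)
    (i := i) (j := j) (by linarith)
    (by
      show |F0.n - 2 * u * F0.d| ≤ 3 * M
      refine (abs_sub _ _).trans ?_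
      rw [abs_mul, abs_mul, abs_of_nonneg hu0, abs_of_pos (by norm_num : (0:ℝ) < 2)]
      have h1 := h.n0
      have h2 : 2 * u * |F0.d| ≤ 2 * 1 * M :=
        mul_le_mul (by linarith) h.d0 (abs_nonneg _) (by norm_num)
      linarith)
    (by
      show |F0.d| ≤ 3 * M
      linarith [h.d0])
    (hAF hi) (hAF hj) (h.normF0 h.hi0).1 hκ0.le
    (by
      rw [le_div_iff₀ (by positivity)]
      linarith) k.ha
    ((hxx h.hi0 hi).trans hle1) ((h.hv i0 h.hi0 i hi).trans hle2) ((hxx hi hj).trans hle1) key2 hcell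
  rw [hv'] at key1
  set X := ‖(S.sh u).x j - (S.sh u).x i‖ with hX
  have hX0 : 0 ≤ X := norm_nonneg _
  have hv1 : ‖S.v j - S.v i‖ ≤ 44 * κ := by linarith
  have hx1 : ‖S.x j - S.x i‖ ≤ 54 * κ := by
    have e1 : S.x j - S.x i = ((S.sh u).x j - (S.sh u).x i) - u • (S.v j - S.v i) := by
      rw [S.sh_x]; abel
    rw [e1]
    refine (norm_sub_le _ _).trans ?_
    rw [norm_smul, Real.norm_eq_abs, abs_of_nonneg hu0]
    have h2 := mul_le_mul hu1 hv1 (norm_nonneg _) (by norm_num)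
    linarith
  refine ⟨hx1, by linarith, ?_⟩
  have e2 : S.N i j = (S.sh u).N i j - u * ‖S.v j - S.v i‖ ^ 2 / 2 := by
    rw [S.sh_N]; ring
  rw [e2]
  refine (abs_sub _ _).trans ?_
  have h3 : |u * ‖S.v j - S.v i‖ ^ 2 / 2| ≤ (44 * κ) ^ 2 / 2 := by
    rw [abs_of_nonneg (by positivity)]
    have h4 := mul_le_mul hu1 (pow_le_pow_left₀ (norm_nonneg _) hv1 2) (sq_nonneg _) (by norm_num)
    linarith
  have h4 : X ^ 2 ≤ (10 * κ) ^ 2 := pow_le_pow_left₀ hX0 hc 2
  have h5 : κ * X ≤ κ * (10 * κ) := mul_le_mul_of_nonneg_left hc hκ0.le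
  nlinarith

/-- **Case IIb** -/
theorem leafIIb (h : Pc S F0 F1 e T i0 M a N0 q) {g K0 α κ : ℝ}
    (k : Kp M a g K0 α κ) {T1 : Finset ι} (hT1 : T1 ⊆ T) {i : ι} (hi : i ∈ T1)
    (hp : ∀ j ∈ T1, ‖S.x j - S.x i‖ ≤ 54 * κ ∧ ‖S.v j - S.v i‖ ≤ 54 * κ ∧
      |S.N i j| ≤ 1200 * κ ^ 2) :
    (T1.card : ℝ) ≤ N0 * (54 * κ) ^ (1 + q) * (54 * κ) ^ 2 := by
  have hκ0 := k.κ0
  have hM1 := h.M1
  have hκ1 : κ ≤ 1 / 3000 := by have := k.le; nlinarith
  have h1 := h.D i (hT1 hi) (54 * κ) (by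
    have h1 := k.ha
    have h2 : κ * κ ≤ κ * (1 / 3000) := mul_le_mul_of_nonneg_left hκ1 hκ0.le
    nlinarith) (by linarith) T1 hT1 (fun j hj => by
    obtain ⟨a1, a2, a3⟩ := hp j hj
    refine ⟨a1, a2, a3.trans (le_trans ?_ (le_max_left _ _))⟩
    nlinarith [sq_nonneg κ])
  rw [max_eq_left (sq_nonneg _), max_eq_left (zero_le_one' ℝ), div_one] at h1
  exact h1

/-- **Case IIa** -/
theorem leafIIa (h : Pc S F0 F1 e T i0 M a N0 q) {g K0 α κ : ℝ}
    (hn : |(CF.comb F1 F0 e).n| ≤ g) (hd : |(CF.comb F1 F0 e).d| ≤ g)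
    (hK : ‖(CF.comb F1 F0 e).G i0‖ = K0) (k : Kp M a g K0 α κ)
    (haα : 10 ^ 18 * M ^ 3 * a ≤ α) (hbig : 8000000 * M * a * g ≤ K0 ^ 2)
    {T1 : Finset ι} (hT1 : T1 ⊆ T)
    (hp : ∀ i ∈ T1, ∀ j ∈ T1, ‖S.x j - S.x i‖ ≤ 54 * κ ∧ ‖S.v j - S.v i‖ ≤ 54 * κ ∧
      |S.N i j| ≤ 1200 * κ ^ 2) :
    (T1.card : ℝ) ≤ 221186 ^ 4 * (5000 * (1200 * κ ^ 2) * N0 *
      (3584 * a / (g * κ)) ^ (1 + q)) := by
  set p := CF.comb F1 F0 e with hpdef
  have hκ0 := k.κ0
  have hg0 := k.g0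
  have hM1 := h.M1
  have hM0 : 0 < M := by linarith
  have ha0 := h.a0
  have hκM := k.le
  have hκ1 : κ ≤ 1 / 3000 := by nlinarith
  have hN00 := h.N00
  set K := g * κ with hKdef
  have hKpos : 0 < K := by positivity
  have hKsq : K ^ 2 = K0 ^ 2 + 8000000 * M * a * g := by rw [hKdef, mul_pow, k.sq]
  have hK0n : 0 ≤ K0 := by rw [← hK]; exact norm_nonneg _
  have hK0up : K0 ≤ 21 / 10 := by rw [← hK]; exact h.normG h.hi0
  have hKK : K ^ 2 ≤ 2 * K0 ^ 2 := by linarith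
  have hK3 : K ≤ 3 := by
    by_contra hc
    push Not at hc
    nlinarith
  have hag : 0 < a * g := by positivity
  have hKag : 8000000 * M * (a * g) ≤ K ^ 2 := by nlinarith [sq_nonneg K0]
  have hG1 : ∀ i ∈ T, K / 2 ≤ ‖p.G i‖ := by
    intro i hi
    have h1 := p.gsq_le hn hd (h.A h.hi0) (h.B h.hi0) (h.A hi) (h.B hi)
    have h2 := (abs_le.1 h1).1
    rw [hK] at h2
    have h3 : (K / 2) ^ 2 ≤ ‖p.G i‖ ^ 2 := by nlinarith
    exact (sq_le_sq₀ (by positivity) (norm_nonneg _)).1 h3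
  have hKa : 1000000 * (M * a) ≤ K := by
    have h1 : 10 ^ 18 * M ^ 3 * a ≤ g := haα.trans k.αg
    have h2 : (1000000 * (M * a)) ^ 2 ≤ K ^ 2 := by
      have h3 : a * (10 ^ 18 * M ^ 3 * a) ≤ a * g := mul_le_mul_of_nonneg_left h1 ha0.le
      have h4 : (1000000 * (M * a)) ^ 2 = 10 ^ 12 * (M ^ 2 * a ^ 2) := by ring
      have h5 : a * (10 ^ 18 * M ^ 3 * a) = 10 ^ 18 * (M * (M ^ 2 * a ^ 2)) := by ring
      rw [h5] at h3
      have h6 : M ^ 2 * a ^ 2 ≤ M * (M ^ 2 * a ^ 2) := by nlinarith [sq_nonneg (M * a)]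
      have h7 : 8000000 * (a * g) ≤ 8000000 * M * (a * g) := by nlinarith
      have h8 : 0 ≤ M ^ 2 * a ^ 2 := by positivity
      rw [h4]
      linarith
    exact (sq_le_sq₀ (by positivity) hKpos.le).1 h2
  have hhhK : g + K * M ≤ 3001 / 3000 * g := by
    have : K * M = g * (M * κ) := by rw [hKdef]; ring
    rw [this]; nlinarith
  have hcell := cell4_card S T1 (L := 54 * κ) (s := κ / 2048) (by positivity) (by positivity)
    (fun i hi j hj => (hp i hi j hj).1) (fun i hi j hj => (hp i hi j hj).2.1)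
  have e0 : 2 * (54 * κ) / (κ / 2048) + 2 = 221186 := by field_simp; norm_num
  rw [e0] at hcell
  have hm := card_le_cells T1 (cell4 S (κ / 2048))
    (5000 * (1200 * κ ^ 2) * N0 * (3584 * a / K) ^ (1 + q)) (fun i hi => by
    set T2 := T1.filter fun j => cell4 S (κ / 2048) j = cell4 S (κ / 2048) i with hT2
    have hs2 : T2 ⊆ T1 := filter_subset _ _
    have hc2 : ∀ j ∈ T2, ∀ l ∈ T2, ‖S.x l - S.x j‖ ≤ κ / 1024 ∧ ‖S.v l - S.v j‖ ≤ κ / 1024 := by
      intro j hj l hl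
      have h1 := cell4_eq S (s := κ / 2048) (by positivity)
        ((mem_filter.1 hl).2.trans (mem_filter.1 hj).2.symm)
      constructor
      · linarith [h1.1]
      · linarith [h1.2]
    have hW : ∀ i ∈ T2, ∀ j ∈ T2, max ‖S.x j - S.x i‖ ‖S.v j - S.v i‖ ≤
        256 * (2 * a + (g + K * M) * |S.N i j|) / K := by
      intro i hi j hj
      have hiT := hT1 (hs2 hi)
      have hjT := hT1 (hs2 hj)
      refine W_pair F0 p h.n0 h.d0 hn hd (h.A0 i hiT) (h.A0 j hjT) (h.B0 i hiT) (h.B0 j hjT)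
        (h.A hiT) (h.A hjT) (h.B hiT) (h.B hjT) (by linarith) hKpos hK3
        (by linarith [(h.normF0 hiT).2]) (hG1 i hiT)
        ((h.G_le hn hd hK k hiT).trans (by linarith)) (h.dtG hiT ?_) (hc2 i hi j hj).1
        (hc2 i hi j hj).2 ?_
      · have := hG1 i hiT
        have : 0 < M * a := by positivity
        linarith
      · have e1 : K * M + g = g + K * M := by ring
        rw [e1]
        have h1 := mul_le_mul_of_nonneg_right hhhK (by positivity : 0 ≤ κ / 1024)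
        have e2 : 3001 / 3000 * g * (κ / 1024) = 3001 / 3072000 * K := by rw [hKdef]; ring
        rw [e2] at h1
        linarith
    have key := inner_count (S := S) (T := T2) (a := a) (b := 2 * a) (K := K) (hh := g + K * M)
      (c := κ / 1024) (L := 1200 * κ ^ 2) (ρ := 2 * a / g) (th := 0) (N0 := N0) (q := q)
      (Ch := 2) (σ := 3584 * a / K) (fun i hi j hj => (hc2 i hi j hj).1)
      (fun i hi j hj => (hc2 i hi j hj).2) (fun i hi j hj => (hp i (hs2 hi) j (hs2 hj)).2.2) hW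
      hKpos (by positivity) (by positivity) (by positivity) (by positivity) le_rfl h.N00 h.q0 h.q2
      ?_ ?_ ?_ ?_ ?_ ?_ (by positivity) ?_ ?_ (h.D.mono _ (hs2.trans hT1))
    · simpa only [max_eq_left (zero_le_one' ℝ), div_one] using key
    · have e1 : K * (2 * a / g) = 2 * (a * κ) := by rw [hKdef]; field_simp
      rw [e1]
      have : 0 < a * κ := by positivity
      nlinarith
    · have h1 := mul_le_mul_of_nonneg_right hhhK (by positivity : 0 ≤ κ / 1024)
      have e2 : 3001 / 3000 * g * (κ / 1024) = 3001 / 3072000 * K := by rw [hKdef]; ring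
      rw [e2] at h1
      linarith
    · rw [mul_div_assoc', div_le_iff₀ hg0]
      nlinarith
    · rw [mul_div_assoc', mul_div_cancel_left₀ _ hKpos.ne']
      linarith
    · rw [mul_div_assoc', le_div_iff₀ hKpos]
      nlinarith
    · rw [div_pow, div_le_div_iff₀ (by positivity) hg0]
      have : (3584 * a) ^ 2 * g = 12845056 * a * (a * g) := by ring
      rw [this]
      have h1 : 8000000 * (a * g) ≤ K ^ 2 := by nlinarith
      nlinarith
    · rw [div_le_iff₀ hg0]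
      have := k.hb
      nlinarith
    · rw [mul_div_assoc', div_le_iff₀ hKpos]
      nlinarith)
  refine hm.trans ?_
  exact mul_le_mul_of_nonneg_right hcell (by positivity)

set_option maxHeartbeats 1000000 in
/-- **Case II** -/
theorem caseII (h : Pc S F0 F1 e T i0 M a N0 q) {g K0 α : ℝ}
    (hg : max |(CF.comb F1 F0 e).n| |(CF.comb F1 F0 e).d| = g)
    (hK : ‖(CF.comb F1 F0 e).G i0‖ = K0) (hKg : 6000 * M * K0 ≤ g)
    (hαg : α ≤ g) (haα : 10 ^ 18 * M ^ 3 * a ≤ α) :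
    (T.card : ℝ) ≤ 10 ^ 30 * N0 * (10 ^ 11 * M * (a / α)) ^ (1 + q / 2) := by
  set p := CF.comb F1 F0 e with hpdef
  have hM1 := h.M1
  have hM0 : 0 < M := by linarith
  have ha0 := h.a0
  have hq0 := h.q0
  have hN00 := h.N00
  have hn : |p.n| ≤ g := by rw [← hg]; exact le_max_left _ _
  have hd : |p.d| ≤ g := by rw [← hg]; exact le_max_right _ _
  have hg2 : g ≤ 2 * M := by
    rw [← hg]
    refine max_le ?_ ?_
    · show |F1.n - e * F0.n| ≤ 2 * M
      refine (abs_sub _ _).trans ?_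
      rw [abs_mul, h.abs_e, one_mul]
      linarith [h.n0, h.n1]
    · show |F1.d - e * F0.d| ≤ 2 * M
      refine (abs_sub _ _).trans ?_
      rw [abs_mul, h.abs_e, one_mul]
      linarith [h.d0, h.d1]
  have hK0n : 0 ≤ K0 := by rw [← hK]; exact norm_nonneg _
  obtain ⟨κ, k⟩ := Kp_ex hM1 ha0 hK0n hKg hg2 hαg haα
  have hα0 : 0 < α := lt_of_lt_of_le (by positivity) haα
  have hκ0 := k.κ0
  have hg0 := k.g0
  have hκM := k.le
  have hκ1 : κ ≤ 1 / 3000 := by nlinarith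
  obtain ⟨u, hu0, hu1, hu⟩ := shift_ex hg
  -- the cells
  set f : ι → ℤ := fun i => ⌊inner ℝ (Jr (F0.G i0)) ((S.sh u).x i) / κ⌋ with hf
  have hcells : ((T.image f).card : ℝ) ≤ 4 / κ := by
    have h1 := floor_image T (fun i => inner ℝ (Jr (F0.G i0)) ((S.sh u).x i)) (L := 1) (δ := κ)
      hκ0 (by norm_num) (fun i hi j hj => by
        rw [← inner_sub_right]
        refine (abs_real_inner_le_norm _ _).trans ?_
        rw [Jr_norm, S.sh_x]
        have h2 : ‖(S.x j - S.x i) + u • (S.v j - S.v i)‖ ≤ 1 / 2 := by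
          refine (norm_add_le _ _).trans ?_
          rw [norm_smul, Real.norm_eq_abs, abs_of_nonneg hu0]
          have h3 := h.hx i hi j hj
          have h4 := mul_le_mul hu1 (h.hv i hi j hj) (norm_nonneg _) (by norm_num)
          have h5 : 1 / (4000000 * M) ≤ 1 / 4 := by
            rw [div_le_div_iff₀ (by positivity) (by norm_num)]; nlinarith
          linarith
        have h6 := (h.normF0 h.hi0).2
        have h7 := mul_le_mul h6 h2 (norm_nonneg _) (by norm_num)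
        linarith)
    refine h1.trans ?_
    rw [div_add' _ _ _ hκ0.ne', div_le_div_iff_of_pos_right hκ0]
    linarith
  have hpair : ∀ i ∈ T, ∀ j ∈ T.filter (fun j => f j = f i), ∀ l ∈ T.filter (fun j => f j = f i),
      ‖S.x l - S.x j‖ ≤ 54 * κ ∧ ‖S.v l - S.v j‖ ≤ 54 * κ ∧ |S.N j l| ≤ 1200 * κ ^ 2 := by
    intro i hi j hj l hl
    obtain ⟨hj1, hj2⟩ := mem_filter.1 hj
    obtain ⟨hl1, hl2⟩ := mem_filter.1 hl
    refine h.pairsII hn hd hK k hu0 hu1 hu hj1 hl1 ?_
    rw [inner_sub_right]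
    exact abs_sub_le_of_floor hκ0 (hl2.trans hj2.symm)
  have hag : a / g ≤ a / α := div_le_div_of_nonneg_left ha0.le hα0 hαg
  by_cases hb : 8000000 * M * a * g ≤ K0 ^ 2
  · -- IIa
    have h1 := card_le_cells T f (221186 ^ 4 * (5000 * (1200 * κ ^ 2) * N0 *
      (3584 * a / (g * κ)) ^ (1 + q))) (fun i hi =>
        h.leafIIa hn hd hK k haα hb (filter_subset _ _) (hpair i hi))
    have h2 : (T.card : ℝ) ≤ 4 / κ * (221186 ^ 4 * (5000 * (1200 * κ ^ 2) * N0 *
      (3584 * a / (g * κ)) ^ (1 + q))) :=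
      h1.trans (mul_le_mul_of_nonneg_right hcells (by positivity))
    refine h2.trans ?_
    set σ := 3584 * a / (g * κ) with hσ
    have hσ0 : 0 < σ := by positivity
    have h3 : κ * σ ^ (1 + q) ≤ (10 ^ 11 * M * (a / α)) ^ (1 + q / 2) := by
      have e1 : κ * σ = 3584 * (a / g) := by rw [hσ]; field_simp
      have e2 : σ ^ 2 ≤ 2 * (a / g) := by
        rw [hσ, div_pow, mul_div_assoc', div_le_div_iff₀ (by positivity) hg0]
        have h4 : 8000000 * M * (a * g) ≤ (g * κ) ^ 2 := by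
          rw [mul_pow, k.sq]; nlinarith [sq_nonneg K0]
        have hag0 : 0 < a * g := by positivity
        have h5 : 8000000 * (a * g) ≤ 8000000 * M * (a * g) := by nlinarith
        nlinarith
      have hx0 : 0 < 3584 * (a / g) := by positivity
      calc κ * σ ^ (1 + q) = (κ * σ) * σ ^ q := by
            rw [Real.rpow_add hσ0, Real.rpow_one]; ring
        _ = (κ * σ) * (σ ^ 2) ^ (q / 2) := by
            congr 1
            rw [← Real.rpow_natCast σ 2, ← Real.rpow_mul hσ0.le]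
            congr 1; push_cast; ring
        _ ≤ (3584 * (a / g)) * (3584 * (a / g)) ^ (q / 2) := by
            rw [e1]
            refine mul_le_mul_of_nonneg_left ?_ hx0.le
            refine Real.rpow_le_rpow (by positivity) (e2.trans ?_) (by positivity)
            have : 0 < a / g := by positivity
            nlinarith
        _ = (3584 * (a / g)) ^ (1 + q / 2) := by
            rw [Real.rpow_add hx0, Real.rpow_one]
        _ ≤ (10 ^ 11 * M * (a / α)) ^ (1 + q / 2) := by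
            refine Real.rpow_le_rpow hx0.le ?_ (by positivity)
            have : 0 < a / g := by positivity
            have h6 : 3584 * (a / g) ≤ 10 ^ 11 * M * (a / g) := by
              have : 0 < a / g := by positivity
              nlinarith
            exact h6.trans (mul_le_mul_of_nonneg_left hag (by positivity))
    have e3 : 4 / κ * (221186 ^ 4 * (5000 * (1200 * κ ^ 2) * N0 * σ ^ (1 + q))) =
        (4 * 221186 ^ 4 * 5000 * 1200) * N0 * (κ * σ ^ (1 + q)) := by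
      field_simp
    rw [e3]
    refine mul_le_mul (mul_le_mul_of_nonneg_right (by norm_num) hN00) h3 (by positivity)
      (by positivity)
  · -- IIb
    push Not at hb
    have h1 := card_le_cells T f (N0 * (54 * κ) ^ (1 + q) * (54 * κ) ^ 2) (fun i hi =>
        h.leafIIb k (filter_subset _ _) (mem_filter.2 ⟨hi, rfl⟩)
          (hpair i hi i (mem_filter.2 ⟨hi, rfl⟩)))
    have h2 : (T.card : ℝ) ≤ 4 / κ * (N0 * (54 * κ) ^ (1 + q) * (54 * κ) ^ 2) :=
      h1.trans (mul_le_mul_of_nonneg_right hcells (by positivity))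
    refine h2.trans ?_
    have e1 : 4 / κ * (N0 * (54 * κ) ^ (1 + q) * (54 * κ) ^ 2) =
        216 * N0 * ((54 * κ) ^ (1 + q) * (54 * κ)) := by
      field_simp
      ring
    have e2 : (54 * κ) ^ (1 + q) * (54 * κ) = ((54 * κ) ^ 2) ^ (1 + q / 2) := by
      have hp : 0 < 54 * κ := by positivity
      rw [← Real.rpow_natCast (54 * κ) 2, ← Real.rpow_mul hp.le]
      nth_rewrite 2 [← Real.rpow_one (54 * κ)]
      rw [← Real.rpow_add hp]
      congr 1; push_cast; ring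
    rw [e1, e2]
    have h3 : (54 * κ) ^ 2 ≤ 10 ^ 11 * M * (a / α) := by
      have h4 : g ^ 2 * κ ^ 2 ≤ 16000000 * M * a * g := by rw [k.sq]; linarith
      have h5 : g * (g * κ ^ 2) ≤ g * (16000000 * M * a) := by nlinarith
      have h6 := le_of_mul_le_mul_left h5 hg0
      have h7 : κ ^ 2 ≤ 16000000 * M * (a / g) := by
        rw [mul_div_assoc', le_div_iff₀ hg0]; linarith
      have h8 : κ ^ 2 ≤ 16000000 * M * (a / α) :=
        h7.trans (mul_le_mul_of_nonneg_left hag (by positivity))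
      have h9 : 0 < M * (a / α) := by positivity
      nlinarith
    refine mul_le_mul (mul_le_mul_of_nonneg_right (by norm_num) hN00)
      (Real.rpow_le_rpow (by positivity) h3 (by positivity)) (by positivity) (by positivity)

end Pc

end share2

end Crest.Agent.R116.Tc334
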