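import Crest.Agent.R116.Tc5_334

/-!
# R116, TILT for conformal slabs, part 6 (helper334): SHARE

`share_abs` : the common rays of two slabs of relative thickness `a` and discrepancy `α` are at most
`KS M * N0 * (a / α) ^ (1 + q/2)`, when all light boxes of aperture `σ ≥ a` have at most
`N0 σ ^ (3 + q)` of them.
-/

set_option autoImplicit false
set_option linter.unusedSectionVars false
set_option linter.unusedVariables false

namespace Crest.Agent.R116.Tc334

open Finset

section share3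

variable {ι : Type*} {S : CS ι}

/-- the constant of SHARE (polynomial in `M`). -/
noncomputable def KS (M : ℝ) : ℝ := 10 ^ 100 * M ^ 20

theorem KS_pos {M : ℝ} (hM : 1 ≤ M) : 0 < KS M := by unfold KS; positivity

theorem rpow_le_pow3 {x : ℝ} (hx : 1 ≤ x) {t : ℝ} (ht : t ≤ 3) : x ^ t ≤ x ^ 3 := by
  calc x ^ t ≤ x ^ (3:ℝ) := Real.rpow_le_rpow_of_exponent_le hx ht
    _ = x ^ 3 := by norm_cast

/-- one piece -/
theorem Pc.count {F0 F1 : CF S} {e : ℝ} {T : Finset ι} {i0 : ι} {M a N0 q : ℝ}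
    (h : Pc S F0 F1 e T i0 M a N0 q) {α : ℝ} (haα : 10 ^ 18 * M ^ 3 * a ≤ α)
    (hα : α ≤ max ‖(CF.comb F1 F0 e).G i0‖
      (max |(CF.comb F1 F0 e).n| |(CF.comb F1 F0 e).d|)) :
    (T.card : ℝ) ≤ 10 ^ 64 * M ^ 7 * N0 * (a / α) ^ (1 + q / 2) := by
  have hM1 := h.M1
  have hM0 : 0 < M := by linarith
  have ha0 := h.a0
  have hN00 := h.N00
  have hq0 := h.q0
  have hq2 := h.q2
  have hα0 : 0 < α := lt_of_lt_of_le (by positivity) haα
  have haα1 : a / α ≤ 1 := by
    rw [div_le_one hα0]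
    refine le_trans ?_ haα
    have : 1 ≤ M ^ 3 := one_le_pow₀ hM1
    nlinarith
  have hx0 : 0 < a / α := by positivity
  set g := max |(CF.comb F1 F0 e).n| |(CF.comb F1 F0 e).d| with hg
  set K0 := ‖(CF.comb F1 F0 e).G i0‖ with hK0
  have hK0n : 0 ≤ K0 := norm_nonneg _
  rcases le_total g (6000 * M * K0) with hc | hc
  · have hαK : α ≤ 6000 * M * K0 := by
      refine hα.trans (max_le ?_ hc)
      nlinarith
    have h1 := h.caseI (g := g) (le_max_left _ _) (le_max_right _ _) hK0.symm hc hαK haα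
    refine h1.trans ?_
    have e1 : (10 ^ 11 * M ^ 2 * (a / α)) ^ (1 + q) ≤
        (10 ^ 33 * M ^ 6) * (a / α) ^ (1 + q / 2) := by
      rw [Real.mul_rpow (by positivity) hx0.le]
      refine mul_le_mul ?_ ?_ (by positivity) (by positivity)
      · have h2 : 1 ≤ 10 ^ 11 * M ^ 2 := by
          have : 1 ≤ M ^ 2 := one_le_pow₀ hM1
          nlinarith
        refine (rpow_le_pow3 h2 (by linarith)).trans (le_of_eq ?_)
        ring
      · exact Real.rpow_le_rpow_of_exponent_ge hx0 haα1 (by linarith)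
    calc 5000 * M * N0 * (10 ^ 11 * M ^ 2 * (a / α)) ^ (1 + q)
        ≤ 5000 * M * N0 * ((10 ^ 33 * M ^ 6) * (a / α) ^ (1 + q / 2)) :=
          mul_le_mul_of_nonneg_left e1 (by positivity)
      _ = 5 * 10 ^ 36 * (M ^ 7 * N0 * (a / α) ^ (1 + q / 2)) := by ring
      _ ≤ 10 ^ 64 * (M ^ 7 * N0 * (a / α) ^ (1 + q / 2)) :=
          mul_le_mul_of_nonneg_right (by norm_num) (by positivity)
      _ = _ := by ring
  · have hαg : α ≤ g := by
      refine hα.trans (max_le ?_ le_rfl)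
      refine le_trans ?_ hc
      nlinarith
    have h1 := h.caseII (g := g) rfl hK0.symm hc hαg haα
    refine h1.trans ?_
    have e1 : (10 ^ 11 * M * (a / α)) ^ (1 + q / 2) ≤
        (10 ^ 33 * M ^ 3) * (a / α) ^ (1 + q / 2) := by
      rw [Real.mul_rpow (by positivity) hx0.le]
      refine mul_le_mul_of_nonneg_right ?_ (by positivity)
      have h2 : 1 ≤ 10 ^ 11 * M := by nlinarith
      refine (rpow_le_pow3 h2 (by linarith)).trans (le_of_eq ?_)
      ring
    calc 10 ^ 30 * N0 * (10 ^ 11 * M * (a / α)) ^ (1 + q / 2)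
        ≤ 10 ^ 30 * N0 * ((10 ^ 33 * M ^ 3) * (a / α) ^ (1 + q / 2)) :=
          mul_le_mul_of_nonneg_left e1 (by positivity)
      _ = 10 ^ 63 * M ^ 3 * (N0 * (a / α) ^ (1 + q / 2)) := by ring
      _ ≤ 10 ^ 64 * M ^ 7 * (N0 * (a / α) ^ (1 + q / 2)) := by
          refine mul_le_mul_of_nonneg_right ?_ (by positivity)
          have h3 : M ^ 3 ≤ M ^ 7 := pow_le_pow_right₀ hM1 (by norm_num)
          have h4 : 0 < M ^ 3 := by positivity
          nlinarith
      _ = _ := by ring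

set_option maxRecDepth 4000 in
set_option maxHeartbeats 1000000 in
/-- **SHARE**, abstract form. -/
theorem share_abs {F0 F1 : CF S} {T : Finset ι} {M a N0 q α : ℝ} (hM : 1 ≤ M) (ha : 0 < a)
    (hα0 : 0 < α) (hN0 : 0 ≤ N0) (hq0 : 0 ≤ q) (hq2 : q ≤ 2)
    (hx : ∀ i ∈ T, ∀ j ∈ T, ‖S.x j - S.x i‖ ≤ M) (hv : ∀ i ∈ T, ∀ j ∈ T, ‖S.v j - S.v i‖ ≤ M)
    (hN : ∀ i ∈ T, ∀ j ∈ T, |S.N i j| ≤ M)
    (n0 : |F0.n| ≤ M) (d0 : |F0.d| ≤ M) (n1 : |F1.n| ≤ M) (d1 : |F1.d| ≤ M)
    (A0 : ∀ i ∈ T, |F0.A i| ≤ a) (B0 : ∀ i ∈ T, |F0.B i| ≤ a)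
    (A1 : ∀ i ∈ T, |F1.A i| ≤ a) (B1 : ∀ i ∈ T, |F1.B i| ≤ a)
    (G0 : ∀ i ∈ T, |‖F0.G i‖ ^ 2 - 1| ≤ M * a) (G1 : ∀ i ∈ T, |‖F1.G i‖ ^ 2 - 1| ≤ M * a)
    (hT : (T.card : ℝ) ≤ N0) (hD : DB S T a q 0 N0)
    (hα : ∀ e : ℝ, (e = 1 ∨ e = -1) → ∀ i ∈ T, α ≤ max ‖(CF.comb F1 F0 e).G i‖
      (max |(CF.comb F1 F0 e).n| |(CF.comb F1 F0 e).d|)) :
    (T.card : ℝ) ≤ KS M * N0 * (a / α) ^ (1 + q / 2) := by
  have hM0 : 0 < M := by linarith
  have hx0 : 0 < a / α := by positivity
  rcases T.eq_empty_or_nonempty with hE | ⟨i1, hi1⟩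
  · rw [hE, card_empty, Nat.cast_zero]
    have := KS_pos hM
    positivity
  by_cases hc : 10 ^ 18 * M ^ 3 * a ≤ α
  · -- main case
    have hδ : M * a ≤ 1 / 100 := by
      have h1 := hα 1 (Or.inl rfl) i1 hi1
      have h2 : max ‖(CF.comb F1 F0 1).G i1‖ (max |(CF.comb F1 F0 1).n| |(CF.comb F1 F0 1).d|) ≤
          2 + 2 * (M * a) + 2 * M := by
        have hMa : 0 < M * a := by positivity
        refine max_le ?_ (max_le ?_ ?_)
        · show ‖F1.G i1 - (1:ℝ) • F0.G i1‖ ≤ _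
          rw [one_smul]
          refine (norm_sub_le _ _).trans ?_
          have h3 : ‖F1.G i1‖ ≤ 1 + M * a := by
            have := (abs_le.1 (G1 i1 hi1)).2
            nlinarith [norm_nonneg (F1.G i1)]
          have h4 : ‖F0.G i1‖ ≤ 1 + M * a := by
            have := (abs_le.1 (G0 i1 hi1)).2
            nlinarith [norm_nonneg (F0.G i1)]
          linarith
        · show |F1.n - 1 * F0.n| ≤ _
          rw [one_mul]
          refine (abs_sub _ _).trans ?_
          linarith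
        · show |F1.d - 1 * F0.d| ≤ _
          rw [one_mul]
          refine (abs_sub _ _).trans ?_
          linarith
      have h3 : 10 ^ 18 * M ^ 3 * a ≤ 2 + 2 * (M * a) + 2 * M := (hc.trans h1).trans h2
      have h4 : M * (10 ^ 18 * (M * a)) ≤ 10 ^ 18 * M ^ 3 * a := by
        have : M ^ 2 * a ≤ M ^ 3 * a :=
          mul_le_mul_of_nonneg_right (pow_le_pow_right₀ hM (by norm_num)) ha.le
        nlinarith
      have h5 : M * (10 ^ 18 * (M * a)) ≤ M * (4 + 2 * (M * a)) := by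
        have : 0 < M * a := by positivity
        nlinarith
      have h6 := le_of_mul_le_mul_left h5 hM0
      have : 0 < M * a := by positivity
      linarith
    have hcard := cell4_card S T (L := M) (s := 1 / (8000000 * M)) (by positivity) hM0.le hx hv
    have h1 := card_le_cells T (cell4 S (1 / (8000000 * M)))
      (10 ^ 64 * M ^ 7 * N0 * (a / α) ^ (1 + q / 2)) (fun i hi => by
      set T2 := T.filter fun j => cell4 S (1 / (8000000 * M)) j = cell4 S (1 / (8000000 * M)) i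
        with hT2
      have hs2 : T2 ⊆ T := filter_subset _ _
      have hiT2 : i ∈ T2 := mem_filter.2 ⟨hi, rfl⟩
      have hc2 : ∀ j ∈ T2, ∀ l ∈ T2, ‖S.x l - S.x j‖ ≤ 1 / (4000000 * M) ∧
          ‖S.v l - S.v j‖ ≤ 1 / (4000000 * M) := by
        intro j hj l hl
        have h1 := cell4_eq S (s := 1 / (8000000 * M)) (by positivity)
          ((mem_filter.1 hl).2.trans (mem_filter.1 hj).2.symm)
        have e1 : 2 * (1 / (8000000 * M)) = 1 / (4000000 * M) := by field_simp; norm_num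
        rw [e1] at h1
        exact h1
      obtain ⟨e, he, hpos⟩ : ∃ e : ℝ, (e = 1 ∨ e = -1) ∧ 0 ≤ inner ℝ (e • F0.G i) (F1.G i) := by
        rcases le_total 0 (inner ℝ (F0.G i) (F1.G i)) with hp | hp
        · exact ⟨1, Or.inl rfl, by rw [one_smul]; exact hp⟩
        · exact ⟨-1, Or.inr rfl, by rw [real_inner_smul_left]; linarith⟩
      have hP : Pc S F0 F1 e T2 i M a N0 q :=
        { he := he
          M1 := hM
          a0 := ha
          hδ := hδ
          N00 := hN0
          q0 := hq0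
          q2 := hq2
          hi0 := hiT2
          hx := fun j hj l hl => (hc2 j hj l hl).1
          hv := fun j hj l hl => (hc2 j hj l hl).2
          hN := fun j hj l hl => hN j (hs2 hj) l (hs2 hl)
          n0 := n0
          d0 := d0
          n1 := n1
          d1 := d1
          A0 := fun j hj => A0 j (hs2 hj)
          B0 := fun j hj => B0 j (hs2 hj)
          A1 := fun j hj => A1 j (hs2 hj)
          B1 := fun j hj => B1 j (hs2 hj)
          G0 := fun j hj => G0 j (hs2 hj)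
          G1 := fun j hj => G1 j (hs2 hj)
          pos := hpos
          D := hD.mono _ hs2 }
      exact hP.count hc (hα e he i hi))
    have h2 : 2 * M / (1 / (8000000 * M)) + 2 ≤ 20000000 * M ^ 2 := by
      rw [div_div_eq_mul_div, div_one]
      nlinarith
    have h3 : (2 * M / (1 / (8000000 * M)) + 2) ^ 4 ≤ (20000000 * M ^ 2) ^ 4 :=
      pow_le_pow_left₀ (by positivity) h2 4
    calc (T.card : ℝ) ≤ (20000000 * M ^ 2) ^ 4 * (10 ^ 64 * M ^ 7 * N0 * (a / α) ^ (1 + q / 2)) :=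
          h1.trans (mul_le_mul_of_nonneg_right (hcard.trans h3) (by positivity))
      _ = 16 * 10 ^ 92 * M ^ 15 * (N0 * (a / α) ^ (1 + q / 2)) := by ring
      _ ≤ KS M * (N0 * (a / α) ^ (1 + q / 2)) := by
          refine mul_le_mul_of_nonneg_right ?_ (by positivity)
          unfold KS
          have h4 : M ^ 15 ≤ M ^ 20 := pow_le_pow_right₀ hM (by norm_num)
          have h5 : 0 < M ^ 15 := by positivity
          nlinarith
      _ = _ := by ring
  · -- trivial case
    push Not at hc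
    have h1 : 1 ≤ 10 ^ 18 * M ^ 3 * (a / α) := by
      rw [mul_div_assoc', le_div_iff₀ hα0]; linarith
    have h2 : 1 ≤ (10 ^ 54 * M ^ 9) * (a / α) ^ (1 + q / 2) := by
      calc (1:ℝ) ≤ (10 ^ 18 * M ^ 3 * (a / α)) ^ (1 + q / 2) := Real.one_le_rpow h1 (by positivity)
        _ = (10 ^ 18 * M ^ 3) ^ (1 + q / 2) * (a / α) ^ (1 + q / 2) :=
            Real.mul_rpow (by positivity) hx0.le
        _ ≤ (10 ^ 54 * M ^ 9) * (a / α) ^ (1 + q / 2) := by
            refine mul_le_mul_of_nonneg_right ?_ (by positivity)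
            have h2 : 1 ≤ 10 ^ 18 * M ^ 3 := by
              have : 1 ≤ M ^ 3 := one_le_pow₀ hM
              nlinarith
            refine (rpow_le_pow3 h2 (by linarith)).trans (le_of_eq ?_)
            ring
    calc (T.card : ℝ) ≤ N0 * 1 := by rw [mul_one]; exact hT
      _ ≤ N0 * ((10 ^ 54 * M ^ 9) * (a / α) ^ (1 + q / 2)) := mul_le_mul_of_nonneg_left h2 hN0
      _ = 10 ^ 54 * M ^ 9 * (N0 * (a / α) ^ (1 + q / 2)) := by ring
      _ ≤ KS M * (N0 * (a / α) ^ (1 + q / 2)) := by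
          refine mul_le_mul_of_nonneg_right ?_ (by positivity)
          unfold KS
          have h4 : M ^ 9 ≤ M ^ 20 := pow_le_pow_right₀ hM (by norm_num)
          have h5 : 0 < M ^ 9 := by positivity
          nlinarith
      _ = _ := by ring

end share3

end Crest.Agent.R116.Tc334
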