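import Crest.Agent.R116.Tc6_334
import Crest.Agent.R116.LZg6_725

/-!
# R116, TILT for conformal slabs, part 7 (helper334): SHARE over 725's geometry

`share_ray` : two conformal functions over one light box `(c, sg, sg², R)`, discrepancy
`‖ΔG‖ + |Δ∂_yφ| sg + |Δd| sg R ≥ α` at every common ray, for both signs.
-/

set_option autoImplicit false
set_option linter.unusedSectionVars false
set_option linter.unusedVariables false

namespace Crest.Agent.R116.Tc334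

open Finset
open Crest.Agent.R116.LZg725 (rx ry nrm Cf InK RayIn)

section geom

variable {ι : Type*}

/-- rays in the units of the box `(sg, R)` at the time `s0` -/
noncomputable def csR (ray : ι → E2 × E2 × ℝ) (sg R s0 : ℝ) : CS ι where
  x := fun i => (sg * R)⁻¹ • rx (ray i).1 (ray i).2.1 s0
  v := fun i => -(sg⁻¹ • (ray i).1)
  y := fun i => (sg ^ 2 * R)⁻¹ * ry (ray i).1 (ray i).2.2 s0

theorem csR_N (ray : ι → E2 × E2 × ℝ) {sg R : ℝ} (s0 : ℝ) (hsg : 0 < sg) (hR : 0 < R) (i j : ι) :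
    (csR ray sg R s0).N i j = (sg ^ 2 * R)⁻¹ *
      (nrm (ray i).1 (rx (ray j).1 (ray j).2.1 s0) (ry (ray j).1 (ray j).2.2 s0) s0 -
        nrm (ray i).1 (rx (ray i).1 (ray i).2.1 s0) (ry (ray i).1 (ray i).2.2 s0) s0) := by
  unfold CS.N csR nrm
  simp only []
  rw [← smul_sub, inner_neg_left, real_inner_smul_left, real_inner_smul_right, inner_sub_right]
  have e : sg⁻¹ * ((sg * R)⁻¹) = (sg ^ 2 * R)⁻¹ := by field_simp
  rw [← mul_assoc sg⁻¹, e]
  ring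

theorem csR_dx (ray : ι → E2 × E2 × ℝ) (sg R s0 : ℝ) (i j : ι) :
    (csR ray sg R s0).x j - (csR ray sg R s0).x i =
      (sg * R)⁻¹ • (rx (ray j).1 (ray j).2.1 s0 - rx (ray i).1 (ray i).2.1 s0) := by
  unfold csR; simp only []; rw [smul_sub]

theorem csR_dv (ray : ι → E2 × E2 × ℝ) (sg R s0 : ℝ) (i j : ι) :
    (csR ray sg R s0).v j - (csR ray sg R s0).v i = -(sg⁻¹ • ((ray j).1 - (ray i).1)) := by
  unfold csR; simp only []; rw [smul_sub]; abel

/-- a conformal function in the units of the box -/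
noncomputable def cfR (p : Cf E2) (ray : ι → E2 × E2 × ℝ) {sg R : ℝ} (s0 : ℝ) (hsg : 0 < sg)
    (hR : 0 < R) : CF (csR ray sg R s0) where
  n := p.ny s0 * sg
  d := p.d * (sg * R)
  A := fun i => (sg * R)⁻¹ * p.ev (rx (ray i).1 (ray i).2.1 s0) (ry (ray i).1 (ray i).2.2 s0) s0
  B := fun i => sg⁻¹ * p.ld (ray i).1 (rx (ray i).1 (ray i).2.1 s0)
    (ry (ray i).1 (ray i).2.2 s0) s0
  G := fun i => p.gr (ray i).1 (rx (ray i).1 (ray i).2.1 s0) s0
  hA := by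
    intro i j
    rw [csR_dx, csR_N ray s0 hsg hR, real_inner_smul_right, norm_smul,
      Real.norm_of_nonneg (by positivity : 0 ≤ (sg * R)⁻¹),
      Cf.ev_expand p (ray i).1 (rx (ray i).1 (ray i).2.1 s0) (ry (ray i).1 (ray i).2.2 s0) s0
        (rx (ray j).1 (ray j).2.1 s0) (ry (ray j).1 (ray j).2.2 s0) s0, sub_self, zero_smul,
      add_zero]
    field_simp
    ring
  hB := by
    intro i j
    rw [csR_dx, csR_dv, csR_N ray s0 hsg hR, norm_neg, norm_smul, inner_neg_right,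
      inner_neg_right, real_inner_smul_left, real_inner_smul_right, real_inner_smul_right,
      Real.norm_of_nonneg (by positivity : 0 ≤ sg⁻¹),
      Cf.ld_dir p (ray i).1 (ray j).1 (rx (ray j).1 (ray j).2.1 s0) _ s0,
      Cf.ld_move p (ray i).1 (rx (ray i).1 (ray i).2.1 s0) (rx (ray j).1 (ray j).2.1 s0)
        (ry (ray i).1 (ray i).2.2 s0) _ s0 s0,
      Cf.gr_move p (ray i).1 (rx (ray i).1 (ray i).2.1 s0) (rx (ray j).1 (ray j).2.1 s0) s0 s0,
      sub_self, zero_smul, add_zero, inner_add_left, real_inner_smul_left]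
    field_simp
    ring
  hG := by
    intro i j
    rw [csR_dx, csR_dv,
      Cf.gr_dir p (ray i).1 (ray j).1 (rx (ray j).1 (ray j).2.1 s0) s0,
      Cf.gr_move p (ray i).1 (rx (ray i).1 (ray i).2.1 s0) (rx (ray j).1 (ray j).2.1 s0) s0 s0,
      sub_self, zero_smul, add_zero, smul_neg, smul_smul, smul_smul]
    have e1 : 2 * (p.d * (sg * R)) * (sg * R)⁻¹ = 2 * p.d := by field_simp
    have e2 : p.ny s0 * sg * sg⁻¹ = p.ny s0 := by field_simp
    rw [e1, e2]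
    abel

/-- difference of two conformal functions in the frame of the ray `r`, at the time `s0`, in the units
of the box `(sg, R)`: `‖ΔG‖ + |Δ∂_yφ| sg + |Δd| sg R`. -/
noncomputable def nd (sg R s0 e : ℝ) (p0 p1 : Cf E2) (r : E2 × E2 × ℝ) : ℝ :=
  ‖p1.gr r.1 (rx r.1 r.2.1 s0) s0 - e • p0.gr r.1 (rx r.1 r.2.1 s0) s0‖ +
    |p1.ny s0 - e * p0.ny s0| * sg + |p1.d - e * p0.d| * (sg * R)

/-- the rays of a light box are close in its units. -/
theorem csR_box {ray : ι → E2 × E2 × ℝ} {c x0 : E2} {y0 s0 sg R w : ℝ} {p : Cf E2} (hsg : 0 < sg)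
    (hR : 0 < R) {i j : ι}
    (hi : RayIn c sg (sg ^ 2) R x0 y0 s0 p w (ray i).1 (ray i).2.1 (ray i).2.2)
    (hj : RayIn c sg (sg ^ 2) R x0 y0 s0 p w (ray j).1 (ray j).2.1 (ray j).2.2) :
    ‖(csR ray sg R s0).x j - (csR ray sg R s0).x i‖ ≤ 2 ∧
    ‖(csR ray sg R s0).v j - (csR ray sg R s0).v i‖ ≤ 2 ∧ |(csR ray sg R s0).N i j| ≤ 4 := by
  have hs00 : |s0 - s0| ≤ R := by rw [sub_self, abs_zero]; exact hR.le
  obtain ⟨a1, a2⟩ := hi
  obtain ⟨b1, b2⟩ := hj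
  obtain ⟨⟨-, a3, a4⟩, -⟩ := a2 s0 hs00
  obtain ⟨⟨-, b3, b4⟩, -⟩ := b2 s0 hs00
  rw [sub_self, zero_smul, add_zero] at a3 b3
  have hdx : ‖rx (ray j).1 (ray j).2.1 s0 - rx (ray i).1 (ray i).2.1 s0‖ ≤ 2 * (sg * R) := by
    have e : rx (ray j).1 (ray j).2.1 s0 - rx (ray i).1 (ray i).2.1 s0 =
        (rx (ray j).1 (ray j).2.1 s0 - x0) - (rx (ray i).1 (ray i).2.1 s0 - x0) := by abel
    rw [e]
    exact (norm_sub_le _ _).trans (by linarith)
  refine ⟨?_, ?_, ?_⟩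
  · rw [csR_dx, norm_smul, Real.norm_of_nonneg (by positivity : 0 ≤ (sg * R)⁻¹)]
    have := mul_le_mul_of_nonneg_left hdx (by positivity : 0 ≤ (sg * R)⁻¹)
    refine this.trans (le_of_eq ?_)
    field_simp
  · rw [csR_dv, norm_neg, norm_smul, Real.norm_of_nonneg (by positivity : 0 ≤ sg⁻¹)]
    have e : (ray j).1 - (ray i).1 = ((ray j).1 - c) - ((ray i).1 - c) := by abel
    have h1 : ‖(ray j).1 - (ray i).1‖ ≤ 2 * sg := by
      rw [e]; exact (norm_sub_le _ _).trans (by linarith)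
    have := mul_le_mul_of_nonneg_left h1 (by positivity : 0 ≤ sg⁻¹)
    refine this.trans (le_of_eq ?_)
    field_simp
  · rw [csR_N ray s0 hsg hR, abs_mul, abs_of_pos (by positivity : 0 < (sg ^ 2 * R)⁻¹)]
    have e : nrm (ray i).1 (rx (ray j).1 (ray j).2.1 s0) (ry (ray j).1 (ray j).2.2 s0) s0 -
        nrm (ray i).1 (rx (ray i).1 (ray i).2.1 s0) (ry (ray i).1 (ray i).2.2 s0) s0 =
        ((nrm c (rx (ray j).1 (ray j).2.1 s0) (ry (ray j).1 (ray j).2.2 s0) s0 - nrm c x0 y0 s0) -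
        (nrm c (rx (ray i).1 (ray i).2.1 s0) (ry (ray i).1 (ray i).2.2 s0) s0 - nrm c x0 y0 s0)) +
        inner ℝ ((ray i).1 - c)
          (rx (ray j).1 (ray j).2.1 s0 - rx (ray i).1 (ray i).2.1 s0) := by
      unfold nrm
      rw [inner_sub_left, inner_sub_right, inner_sub_right]
      ring
    have h1 : |inner ℝ ((ray i).1 - c)
        (rx (ray j).1 (ray j).2.1 s0 - rx (ray i).1 (ray i).2.1 s0)| ≤ sg * (2 * (sg * R)) :=
      (abs_real_inner_le_norm _ _).trans (mul_le_mul a1 hdx (norm_nonneg _) hsg.le)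
    have h2 : |nrm (ray i).1 (rx (ray j).1 (ray j).2.1 s0) (ry (ray j).1 (ray j).2.2 s0) s0 -
        nrm (ray i).1 (rx (ray i).1 (ray i).2.1 s0) (ry (ray i).1 (ray i).2.2 s0) s0| ≤
        4 * (sg ^ 2 * R) := by
      rw [e]
      refine (abs_add_le _ _).trans ?_
      have := abs_sub (nrm c (rx (ray j).1 (ray j).2.1 s0) (ry (ray j).1 (ray j).2.2 s0) s0 -
        nrm c x0 y0 s0) (nrm c (rx (ray i).1 (ray i).2.1 s0) (ry (ray i).1 (ray i).2.2 s0) s0 -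
        nrm c x0 y0 s0)
      nlinarith
    have := mul_le_mul_of_nonneg_left h2 (by positivity : 0 ≤ (sg ^ 2 * R)⁻¹)
    refine this.trans (le_of_eq ?_)
    field_simp

/-- rays close in the units of the box lie in the small light box around the ray `i`. -/
theorem ray_near {ray : ι → E2 × E2 × ℝ} {s0 sg R w : ℝ} {p : Cf E2} (hsg : 0 < sg)
    (hR : 0 < R) {i j : ι} {σ : ℝ} (hσ : 0 < σ)
    (hx : ‖(csR ray sg R s0).x j - (csR ray sg R s0).x i‖ ≤ σ)
    (hv : ‖(csR ray sg R s0).v j - (csR ray sg R s0).v i‖ ≤ σ)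
    (hN : |(csR ray sg R s0).N i j| ≤ σ ^ 2)
    (hw : ∀ s, |s - s0| ≤ R → |p.ev (rx (ray j).1 (ray j).2.1 s) (ry (ray j).1 (ray j).2.2 s) s| ≤ w) :
    RayIn (ray i).1 (2 * σ * sg) ((2 * σ * sg) ^ 2) R (rx (ray i).1 (ray i).2.1 s0)
      (ry (ray i).1 (ray i).2.2 s0) s0 p w (ray j).1 (ray j).2.1 (ray j).2.2 := by
  rw [csR_dx, norm_smul, Real.norm_of_nonneg (by positivity : 0 ≤ (sg * R)⁻¹)] at hx
  rw [csR_dv, norm_neg, norm_smul, Real.norm_of_nonneg (by positivity : 0 ≤ sg⁻¹)] at hv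
  rw [csR_N ray s0 hsg hR, abs_mul, abs_of_pos (by positivity : 0 < (sg ^ 2 * R)⁻¹)] at hN
  have hx' : ‖rx (ray j).1 (ray j).2.1 s0 - rx (ray i).1 (ray i).2.1 s0‖ ≤ σ * (sg * R) := by
    have := mul_le_mul_of_nonneg_left hx (by positivity : 0 ≤ sg * R)
    rw [← mul_assoc, mul_inv_cancel₀ (by positivity : sg * R ≠ 0), one_mul] at this
    linarith
  have hv' : ‖(ray j).1 - (ray i).1‖ ≤ σ * sg := by
    have := mul_le_mul_of_nonneg_left hv hsg.le
    rw [← mul_assoc, mul_inv_cancel₀ hsg.ne', one_mul] at this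
    linarith
  have hN' : |nrm (ray i).1 (rx (ray j).1 (ray j).2.1 s0) (ry (ray j).1 (ray j).2.2 s0) s0 -
        nrm (ray i).1 (rx (ray i).1 (ray i).2.1 s0) (ry (ray i).1 (ray i).2.2 s0) s0| ≤
        σ ^ 2 * (sg ^ 2 * R) := by
    have := mul_le_mul_of_nonneg_left hN (by positivity : 0 ≤ sg ^ 2 * R)
    rw [← mul_assoc, mul_inv_cancel₀ (by positivity : sg ^ 2 * R ≠ 0), one_mul] at this
    linarith
  have hσsg : 0 < σ * sg := by positivity
  refine ⟨by linarith, fun s hs => ⟨⟨hs, ?_, ?_⟩, hw s hs⟩⟩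
  · have e : rx (ray j).1 (ray j).2.1 s - rx (ray i).1 (ray i).2.1 s0 + (s - s0) • (ray i).1 =
        (rx (ray j).1 (ray j).2.1 s0 - rx (ray i).1 (ray i).2.1 s0) -
          (s - s0) • ((ray j).1 - (ray i).1) := by
      unfold rx; module
    rw [e]
    refine (norm_sub_le _ _).trans ?_
    rw [norm_smul, Real.norm_eq_abs]
    have := mul_le_mul hs hv' (norm_nonneg _) hR.le
    linarith
  · have e1 := LZg725.nrm_ray' (ray i).1 (ray j).1 (ray j).2.1 (ray j).2.2 s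
    have e2 := LZg725.nrm_ray' (ray i).1 (ray j).1 (ray j).2.1 (ray j).2.2 s0
    have e : nrm (ray i).1 (rx (ray j).1 (ray j).2.1 s) (ry (ray j).1 (ray j).2.2 s) s -
        nrm (ray i).1 (rx (ray i).1 (ray i).2.1 s0) (ry (ray i).1 (ray i).2.2 s0) s0 =
        (nrm (ray i).1 (rx (ray j).1 (ray j).2.1 s0) (ry (ray j).1 (ray j).2.2 s0) s0 -
        nrm (ray i).1 (rx (ray i).1 (ray i).2.1 s0) (ry (ray i).1 (ray i).2.2 s0) s0) +
        (s - s0) * (‖(ray j).1 - (ray i).1‖ ^ 2 / 2) := by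
      rw [e1, e2]; ring
    rw [e]
    refine (abs_add_le _ _).trans ?_
    rw [abs_mul, abs_of_nonneg (a := ‖(ray j).1 - (ray i).1‖ ^ 2 / 2) (by positivity)]
    have h1 := mul_le_mul hs (div_le_div_of_nonneg_right
      (pow_le_pow_left₀ (norm_nonneg _) hv' 2) two_pos.le) (by positivity) hR.le
    have h2 : 0 < σ ^ 2 * (sg ^ 2 * R) := by positivity
    nlinarith

set_option maxRecDepth 4000 in
set_option maxHeartbeats 1000000 in
/-- **SHARE over one light box.** -/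
theorem share_ray {ray : ι → E2 × E2 × ℝ} {T : Finset ι} {c x0 : E2}
    {y0 s0 sg s1 R M N0 q α : ℝ} {p0 p1 : Cf E2} (hM : 1 ≤ M) (hR : 0 < R) (hsg : 0 < sg)
    (hs1 : 0 < s1) (hα0 : 0 < α) (hN0 : 0 ≤ N0) (hq0 : 0 ≤ q) (hq2 : q ≤ 2)
    (disc0 : p0.disc = 1) (disc1 : p1.disc = 1)
    (ny0 : ∀ s, |s - s0| ≤ R → |p0.ny s| * sg ≤ M) (ny1 : ∀ s, |s - s0| ≤ R → |p1.ny s| * sg ≤ M)
    (hr0 : ∀ i ∈ T, RayIn c sg (sg ^ 2) R x0 y0 s0 p0 (s1 * R) (ray i).1 (ray i).2.1 (ray i).2.2)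
    (hr1 : ∀ i ∈ T, ∀ s, |s - s0| ≤ R →
      |p1.ev (rx (ray i).1 (ray i).2.1 s) (ry (ray i).1 (ray i).2.2 s) s| ≤ s1 * R)
    (hT : (T.card : ℝ) ≤ N0)
    (hD : ∀ i ∈ T, ∀ σ : ℝ, 100 * s1 ≤ σ * sg → σ ≤ 1 / 4 → ∀ T' : Finset ι, T' ⊆ T →
      (∀ j ∈ T', RayIn (ray i).1 (2 * σ * sg) ((2 * σ * sg) ^ 2) R (rx (ray i).1 (ray i).2.1 s0)
        (ry (ray i).1 (ray i).2.2 s0) s0 p0 (s1 * R) (ray j).1 (ray j).2.1 (ray j).2.2) →
      (T'.card : ℝ) ≤ N0 * σ ^ (3 + q))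
    (hα : ∀ e : ℝ, (e = 1 ∨ e = -1) → ∀ i ∈ T, α ≤ nd sg R s0 e p0 p1 (ray i)) :
    (T.card : ℝ) ≤ 9 * KS (6 * M) * N0 * (s1 / (sg * α)) ^ (1 + q / 2) := by
  have hM0 : 0 < M := by linarith
  have hs00 : |s0 - s0| ≤ R := by rw [sub_self, abs_zero]; exact hR.le
  have hd : ∀ p : Cf E2, (∀ s, |s - s0| ≤ R → |p.ny s| * sg ≤ M) → |p.d| * (sg * R) ≤ M := by
    intro p h
    have h1 := LZg725.d_le_of_ny (K := M) (T := sg) hR.le hsg.le h
    have h2 : 0 ≤ |p.d| * (sg * R) := by positivity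
    nlinarith
  set F0 := cfR p0 ray s0 hsg hR with hF0
  set F1 := cfR p1 ray s0 hsg hR with hF1
  have ha : 0 < s1 / sg := by positivity
  have hAB : ∀ p : Cf E2, ∀ i, (∀ s, |s - s0| ≤ R →
      |p.ev (rx (ray i).1 (ray i).2.1 s) (ry (ray i).1 (ray i).2.2 s) s| ≤ s1 * R) →
      |(cfR p ray s0 hsg hR).A i| ≤ s1 / sg ∧ |(cfR p ray s0 hsg hR).B i| ≤ s1 / sg := by
    intro p i h
    constructor
    · show |(sg * R)⁻¹ * p.ev (rx (ray i).1 (ray i).2.1 s0) (ry (ray i).1 (ray i).2.2 s0) s0| ≤ _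
      rw [abs_mul, abs_of_pos (by positivity : 0 < (sg * R)⁻¹)]
      have := mul_le_mul_of_nonneg_left (h s0 hs00) (by positivity : 0 ≤ (sg * R)⁻¹)
      refine this.trans (le_of_eq ?_)
      field_simp
    · show |sg⁻¹ * p.ld (ray i).1 (rx (ray i).1 (ray i).2.1 s0) (ry (ray i).1 (ray i).2.2 s0) s0| ≤ _
      rw [Cf.ld_ray, abs_mul, abs_of_pos (by positivity : 0 < sg⁻¹)]
      have h1 := LZg725.rB_le hR h
      have h2 : |p.rB (ray i).1 (ray i).2.1 (ray i).2.2| ≤ s1 := le_of_mul_le_mul_right h1 hR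
      have := mul_le_mul_of_nonneg_left h2 (by positivity : 0 ≤ sg⁻¹)
      refine this.trans (le_of_eq ?_)
      field_simp
  have hG : ∀ p : Cf E2, p.disc = 1 → (∀ s, |s - s0| ≤ R → |p.ny s| * sg ≤ M) → ∀ i,
      (∀ s, |s - s0| ≤ R →
      |p.ev (rx (ray i).1 (ray i).2.1 s) (ry (ray i).1 (ray i).2.2 s) s| ≤ s1 * R) →
      |‖(cfR p ray s0 hsg hR).G i‖ ^ 2 - 1| ≤ 6 * M * (s1 / sg) := by
    intro p hdisc hny i h
    have h1 := LZg725.gr_slab (w := s1 / sg) (T := sg ^ 2) hR hsg le_rfl hM0.le hdisc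
      (fun s hs => by
        have := mul_le_mul_of_nonneg_right (hny s hs) hsg.le
        have e : |p.ny s| * sg ^ 2 = |p.ny s| * sg * sg := by ring
        rw [e]; exact this) (by positivity)
      (C := (ray i).1) (a := (ray i).2.1) (k := (ray i).2.2) (fun s hs => by
        refine (h s hs).trans (le_of_eq ?_)
        field_simp) hs00
    have e : (cfR p ray s0 hsg hR).G i = p.gr (ray i).1 (rx (ray i).1 (ray i).2.1 s0) s0 := rfl
    rw [e]
    have h2 : 0 < M * (s1 / sg) := by positivity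
    linarith
  have hev0 : ∀ i ∈ T, ∀ s, |s - s0| ≤ R →
      |p0.ev (rx (ray i).1 (ray i).2.1 s) (ry (ray i).1 (ray i).2.2 s) s| ≤ s1 * R :=
    fun i hi s hs => ((hr0 i hi).2 s hs).2
  have hbox : ∀ i ∈ T, ∀ j ∈ T, ‖(csR ray sg R s0).x j - (csR ray sg R s0).x i‖ ≤ 2 ∧
      ‖(csR ray sg R s0).v j - (csR ray sg R s0).v i‖ ≤ 2 ∧ |(csR ray sg R s0).N i j| ≤ 4 :=
    fun i hi j hj => csR_box hsg hR (hr0 i hi) (hr0 j hj)
  have key := share_abs (S := csR ray sg R s0) (F0 := F0) (F1 := F1) (T := T) (M := 6 * M)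
    (a := s1 / sg) (N0 := N0) (q := q) (α := α / 3) (by linarith) ha (by positivity) hN0 hq0 hq2
    (fun i hi j hj => (hbox i hi j hj).1.trans (by linarith))
    (fun i hi j hj => (hbox i hi j hj).2.1.trans (by linarith))
    (fun i hi j hj => (hbox i hi j hj).2.2.trans (by linarith))
    (by
      show |p0.ny s0 * sg| ≤ 6 * M
      rw [abs_mul, abs_of_pos hsg]
      have := ny0 s0 hs00
      linarith)
    (by
      show |p0.d * (sg * R)| ≤ 6 * M
      rw [abs_mul, abs_of_pos (by positivity : 0 < sg * R)]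
      have := hd p0 ny0
      linarith)
    (by
      show |p1.ny s0 * sg| ≤ 6 * M
      rw [abs_mul, abs_of_pos hsg]
      have := ny1 s0 hs00
      linarith)
    (by
      show |p1.d * (sg * R)| ≤ 6 * M
      rw [abs_mul, abs_of_pos (by positivity : 0 < sg * R)]
      have := hd p1 ny1
      linarith)
    (fun i hi => (hAB p0 i (hev0 i hi)).1) (fun i hi => (hAB p0 i (hev0 i hi)).2)
    (fun i hi => (hAB p1 i (hr1 i hi)).1) (fun i hi => (hAB p1 i (hr1 i hi)).2)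
    (fun i hi => hG p0 disc0 ny0 i (hev0 i hi)) (fun i hi => hG p1 disc1 ny1 i (hr1 i hi))
    hT ?_ ?_
  · refine key.trans ?_
    have hx0 : 0 < s1 / (sg * α) := by positivity
    have e1 : s1 / sg / (α / 3) = 3 * (s1 / (sg * α)) := by field_simp
    rw [e1, Real.mul_rpow (by norm_num) hx0.le]
    have h3 : (3:ℝ) ^ (1 + q / 2) ≤ 9 := by
      calc (3:ℝ) ^ (1 + q / 2) ≤ (3:ℝ) ^ (2:ℝ) :=
            Real.rpow_le_rpow_of_exponent_le (by norm_num) (by linarith)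
        _ = 9 := by norm_num
    have h4 : 0 ≤ KS (6 * M) * N0 := mul_nonneg (KS_pos (by linarith)).le hN0
    calc KS (6 * M) * N0 * ((3:ℝ) ^ (1 + q / 2) * (s1 / (sg * α)) ^ (1 + q / 2))
        ≤ KS (6 * M) * N0 * (9 * (s1 / (sg * α)) ^ (1 + q / 2)) :=
          mul_le_mul_of_nonneg_left (mul_le_mul_of_nonneg_right h3 (by positivity)) h4
      _ = _ := by ring
  · -- density
    intro i hi σ hσ hσ2 T' hT' hj
    have hσ0 : 0 < σ := lt_of_lt_of_le (by positivity) hσ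
    have hσ' : 100 * s1 ≤ σ * sg := by
      have := mul_le_mul_of_nonneg_right hσ hsg.le
      have e : 100 * (s1 / sg) * sg = 100 * s1 := by field_simp
      rwa [e] at this
    have h1 := hD i hi σ hσ' hσ2 T' hT' (fun j hj' => by
      obtain ⟨a1, a2, a3⟩ := hj j hj'
      rw [max_eq_left (sq_nonneg σ)] at a3
      exact ray_near hsg hR hσ0 a1 a2 a3 (hev0 j (hT' hj')))
    rw [max_eq_left (sq_nonneg σ), max_eq_left (zero_le_one' ℝ), div_one]
    refine h1.trans (le_of_eq ?_)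
    rw [mul_assoc]
    congr 1
    have e : (3 + q : ℝ) = (1 + q) + 2 := by ring
    rw [e, Real.rpow_add hσ0]
    norm_cast
  · -- discrepancy
    intro e he i hi
    have h1 := hα e he i hi
    unfold nd at h1
    have e1 : (CF.comb F1 F0 e).G i = p1.gr (ray i).1 (rx (ray i).1 (ray i).2.1 s0) s0 -
        e • p0.gr (ray i).1 (rx (ray i).1 (ray i).2.1 s0) s0 := rfl
    have e2 : |(CF.comb F1 F0 e).n| = |p1.ny s0 - e * p0.ny s0| * sg := by
      show |p1.ny s0 * sg - e * (p0.ny s0 * sg)| = _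
      rw [show p1.ny s0 * sg - e * (p0.ny s0 * sg) = (p1.ny s0 - e * p0.ny s0) * sg by ring,
        abs_mul, abs_of_pos hsg]
    have e3 : |(CF.comb F1 F0 e).d| = |p1.d - e * p0.d| * (sg * R) := by
      show |p1.d * (sg * R) - e * (p0.d * (sg * R))| = _
      rw [show p1.d * (sg * R) - e * (p0.d * (sg * R)) = (p1.d - e * p0.d) * (sg * R) by ring,
        abs_mul, abs_of_pos (by positivity : 0 < sg * R)]
    rw [← e1, ← e2, ← e3] at h1
    have m1 := le_max_left ‖(CF.comb F1 F0 e).G i‖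
      (max |(CF.comb F1 F0 e).n| |(CF.comb F1 F0 e).d|)
    have m2 := le_max_right ‖(CF.comb F1 F0 e).G i‖
      (max |(CF.comb F1 F0 e).n| |(CF.comb F1 F0 e).d|)
    have m3 := le_max_left |(CF.comb F1 F0 e).n| |(CF.comb F1 F0 e).d|
    have m4 := le_max_right |(CF.comb F1 F0 e).n| |(CF.comb F1 F0 e).d|
    linarith

/-- **SHARE over one light box**, bounds of `∂_yφ` at the centre time only. -/
theorem share_ray' {ray : ι → E2 × E2 × ℝ} {T : Finset ι} {c x0 : E2}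
    {y0 s0 sg s1 R M N0 q α : ℝ} {p0 p1 : Cf E2} (hM : 1 ≤ M) (hR : 0 < R) (hsg : 0 < sg)
    (hs1 : 0 < s1) (hα0 : 0 < α) (hN0 : 0 ≤ N0) (hq0 : 0 ≤ q) (hq2 : q ≤ 2)
    (disc0 : p0.disc = 1) (disc1 : p1.disc = 1)
    (ny0 : |p0.ny s0| * sg ≤ M) (d0 : |p0.d| * (sg * R) ≤ M)
    (ny1 : |p1.ny s0| * sg ≤ M) (d1 : |p1.d| * (sg * R) ≤ M)
    (hr0 : ∀ i ∈ T, RayIn c sg (sg ^ 2) R x0 y0 s0 p0 (s1 * R) (ray i).1 (ray i).2.1 (ray i).2.2)
    (hr1 : ∀ i ∈ T, ∀ s, |s - s0| ≤ R →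
      |p1.ev (rx (ray i).1 (ray i).2.1 s) (ry (ray i).1 (ray i).2.2 s) s| ≤ s1 * R)
    (hT : (T.card : ℝ) ≤ N0)
    (hD : ∀ i ∈ T, ∀ σ : ℝ, 100 * s1 ≤ σ * sg → σ ≤ 1 / 4 → ∀ T' : Finset ι, T' ⊆ T →
      (∀ j ∈ T', RayIn (ray i).1 (2 * σ * sg) ((2 * σ * sg) ^ 2) R (rx (ray i).1 (ray i).2.1 s0)
        (ry (ray i).1 (ray i).2.2 s0) s0 p0 (s1 * R) (ray j).1 (ray j).2.1 (ray j).2.2) →
      (T'.card : ℝ) ≤ N0 * σ ^ (3 + q))
    (hα : ∀ e : ℝ, (e = 1 ∨ e = -1) → ∀ i ∈ T, α ≤ nd sg R s0 e p0 p1 (ray i)) :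
    (T.card : ℝ) ≤ 9 * KS (18 * M) * N0 * (s1 / (sg * α)) ^ (1 + q / 2) := by
  have hny : ∀ p : Cf E2, |p.ny s0| * sg ≤ M → |p.d| * (sg * R) ≤ M →
      ∀ s, |s - s0| ≤ R → |p.ny s| * sg ≤ 3 * M := by
    intro p h1 h2 s hs
    have e : p.ny s = p.ny s0 - 2 * p.d * (s - s0) := by
      have := Cf.ny_sub p s0 s
      linarith
    have h3 : |p.ny s| ≤ |p.ny s0| + 2 * |p.d| * R := by
      rw [e]
      refine (abs_sub _ _).trans ?_
      rw [abs_mul, abs_mul, abs_of_pos (two_pos : (0:ℝ) < 2)]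
      have := mul_le_mul_of_nonneg_left hs (by positivity : 0 ≤ 2 * |p.d|)
      linarith
    have h4 := mul_le_mul_of_nonneg_right h3 hsg.le
    nlinarith
  have key := share_ray (M := 3 * M) (by linarith) hR hsg hs1 hα0 hN0 hq0 hq2 disc0 disc1
    (hny p0 ny0 d0) (hny p1 ny1 d1) hr0 hr1 hT hD hα
  have e : 6 * (3 * M) = 18 * M := by ring
  rwa [e] at key

end geom

end Crest.Agent.R116.Tc334
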