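import Mathlib

/-!
# R116, K side, TILT, part 1 (helper809): counting of two class systems

`two_sys` : two systems of near-maximal classes over one cell (`f` on `S1`, `g` on `S2`), a
discrepancy `D a b` of two classes, dyadic scales `θ 2^k`.  If the classes `b` at discrepancy
`~ θ 2^k` which meet the class `a` contain at most `Th k` lines, two such classes share at most `Sh k`
lines, and `Th k * Sh k ≤ K m1 m2 r^k` with `r < 1`, then the lines whose two classes have discrepancy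
at least `θ` are at most the share `E1 E2 K / (1 - r)` of `S1`.
-/

set_option autoImplicit false
set_option linter.unusedVariables false

open Finset

namespace Crest.Agent.R116.Td809

/-- dyadic scale of a number. -/
theorem exists_dyadic {θ y : ℝ} (hθ : 0 < θ) (hy : θ ≤ y) :
    ∃ k : ℕ, θ * 2 ^ k ≤ y ∧ y < θ * 2 ^ (k + 1) := by
  have hex : ∃ k : ℕ, y < θ * 2 ^ (k + 1) := by
    obtain ⟨N, hN⟩ := pow_unbounded_of_one_lt (y / θ) (by norm_num : (1 : ℝ) < 2)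
    refine ⟨N, ?_⟩
    rw [div_lt_iff₀ hθ] at hN
    have : (0 : ℝ) < 2 ^ N := by positivity
    calc y < 2 ^ N * θ := hN
      _ ≤ θ * 2 ^ (N + 1) := by rw [pow_succ]; nlinarith
  classical
  refine ⟨Nat.find hex, ?_, Nat.find_spec hex⟩
  rcases Nat.eq_zero_or_pos (Nat.find hex) with h0 | h0
  · rw [h0, pow_zero, mul_one]; exact hy
  · have := Nat.find_min hex (m := Nat.find hex - 1) (by omega)
    rw [not_lt, Nat.sub_add_cancel h0] at this
    exact this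

open Classical in
/-- bad lines of one class of the first system. -/
theorem two_sys_class (S1 S2 : Finset ℕ) (f : ℕ → ℕ) (g : ℕ → ℕ)
    (D : ℕ → ℕ → ℝ) {θ m1 m2 E2 K r : ℝ} (Th Sh : ℕ → ℝ) (hθ : 0 < θ)
    (hm1 : 0 ≤ m1) (hm2 : 0 < m2) (hE2 : 0 ≤ E2) (hK : 0 ≤ K) (hr0 : 0 ≤ r) (hr1 : r < 1)
    (hSh0 : ∀ k, 0 ≤ Sh k)
    (low2 : ∀ t ∈ S2, m2 ≤ E2 * ((S2.filter fun s => g s = g t).card : ℝ)) (a : ℕ)
    (thick : ∀ k, ((S2.filter fun s => ∃ t ∈ S1, t ∈ S2 ∧ f t = a ∧ g t = g s ∧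
        θ * 2 ^ k ≤ D a (g s) ∧ D a (g s) < θ * 2 ^ (k + 1)).card : ℝ) ≤ Th k)
    (share : ∀ k, ∀ b, θ * 2 ^ k ≤ D a b → D a b < θ * 2 ^ (k + 1) →
      ((S1.filter fun t => t ∈ S2 ∧ f t = a ∧ g t = b).card : ℝ) ≤ Sh k)
    (prod : ∀ k, Th k * Sh k ≤ K * m1 * m2 * r ^ k) :
    ((S1.filter fun t => t ∈ S2 ∧ f t = a ∧ θ ≤ D a (g t)).card : ℝ) ≤
      E2 * K / (1 - r) * m1 := by
  have h1r : 0 < 1 - r := by linarith
  set J : ℕ → Finset ℕ := fun k => (S2.image g).filter fun b => ∃ t ∈ S1, t ∈ S2 ∧ f t = a ∧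
    g t = b ∧ θ * 2 ^ k ≤ D a b ∧ D a b < θ * 2 ^ (k + 1) with hJ
  set P : ℕ → Finset ℕ := fun b => S1.filter fun t => t ∈ S2 ∧ f t = a ∧ g t = b with hP
  -- number of classes
  have hJc : ∀ k, ((J k).card : ℝ) * m2 ≤ E2 * Th k := by
    intro k
    have h1 : ((J k).card : ℝ) * m2 ≤
        ∑ b ∈ J k, E2 * ((S2.filter fun s => g s = b).card : ℝ) := by
      rw [← nsmul_eq_mul, ← sum_const]
      refine sum_le_sum fun b hb => ?_
      rw [hJ, mem_filter] at hb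
      obtain ⟨-, t, -, ht2, -, rfl, -, -⟩ := hb
      exact low2 t ht2
    refine h1.trans ?_
    rw [← mul_sum]
    refine mul_le_mul_of_nonneg_left (le_trans (le_of_eq ?_) (thick k)) hE2
    have h2 : (∑ b ∈ J k, ((S2.filter fun s => g s = b).card : ℝ)) =
        (((S2.filter fun s => g s ∈ J k).card : ℕ) : ℝ) := by
      rw [card_eq_sum_card_fiberwise (s := S2.filter fun s => g s ∈ J k) (f := g) (t := J k)
        (fun s hs => (mem_filter.1 (mem_coe.1 hs)).2)]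
      push_cast
      refine sum_congr rfl fun b hb => ?_
      congr 2
      ext s
      simp only [mem_filter]
      constructor
      · rintro ⟨h, h'⟩; exact ⟨⟨h, h' ▸ hb⟩, h'⟩
      · rintro ⟨⟨h, -⟩, h'⟩; exact ⟨h, h'⟩
    rw [h2]
    congr 2
    ext s
    simp only [hJ, mem_filter, mem_image]
    constructor
    · rintro ⟨hs, -, t, ht1, ht2, hfa, hgt, hd1, hd2⟩
      exact ⟨hs, t, ht1, ht2, hfa, hgt, hd1, hd2⟩
    · rintro ⟨hs, t, ht1, ht2, hfa, hgt, hd1, hd2⟩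
      exact ⟨hs, ⟨s, hs, rfl⟩, t, ht1, ht2, hfa, hgt, hd1, hd2⟩
  -- one scale
  set Bd := S1.filter fun t => t ∈ S2 ∧ f t = a ∧ θ ≤ D a (g t) with hBd
  -- finitely many scales
  obtain ⟨N, hN⟩ : ∃ N : ℕ, ∀ t ∈ Bd, D a (g t) < θ * 2 ^ N := by
    have : ∀ t : ℕ, ∃ N : ℕ, D a (g t) < θ * 2 ^ N := by
      intro t
      obtain ⟨N, hN⟩ := pow_unbounded_of_one_lt (D a (g t) / θ) (by norm_num : (1 : ℝ) < 2)
      refine ⟨N, ?_⟩
      rw [div_lt_iff₀ hθ] at hN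
      linarith [mul_comm θ ((2 : ℝ) ^ N)]
    choose N hN using this
    refine ⟨Bd.sup N, fun t ht => (hN t).trans_le ?_⟩
    exact mul_le_mul_of_nonneg_left (pow_le_pow_right₀ (by norm_num) (le_sup (f := N) ht)) hθ.le
  have hsub : Bd ⊆ (range N).biUnion fun k => (J k).biUnion P := by
    intro t ht
    have hb := hN t ht
    rw [hBd, mem_filter] at ht
    obtain ⟨ht1, ht2, hfa, hd⟩ := ht
    obtain ⟨k, hk1, hk2⟩ := exists_dyadic hθ hd
    have hkN : k < N := by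
      by_contra hcon
      have : θ * 2 ^ N ≤ θ * 2 ^ k :=
        mul_le_mul_of_nonneg_left (pow_le_pow_right₀ (by norm_num) (not_lt.1 hcon)) hθ.le
      linarith
    rw [mem_biUnion]
    refine ⟨k, mem_range.2 hkN, mem_biUnion.2 ⟨g t, ?_, ?_⟩⟩
    · rw [hJ, mem_filter, mem_image]
      exact ⟨⟨t, ht2, rfl⟩, t, ht1, ht2, hfa, rfl, hk1, hk2⟩
    · rw [hP, mem_filter]
      exact ⟨ht1, ht2, hfa, rfl⟩
  have hscale : ∀ k, ((((J k).biUnion P).card : ℕ) : ℝ) ≤ E2 * K * m1 * r ^ k := by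
    intro k
    have h1 : ((((J k).biUnion P).card : ℕ) : ℝ) ≤ ((J k).card : ℝ) * Sh k := by
      have h0 : ((((J k).biUnion P).card : ℕ) : ℝ) ≤ ∑ b ∈ J k, ((P b).card : ℝ) := by
        exact_mod_cast card_biUnion_le
      refine h0.trans ?_
      rw [← nsmul_eq_mul, ← sum_const]
      refine sum_le_sum fun b hb => ?_
      rw [hJ, mem_filter] at hb
      obtain ⟨-, t, -, -, -, -, hd1, hd2⟩ := hb
      exact share k b hd1 hd2
    refine h1.trans ?_
    have h2 := mul_le_mul_of_nonneg_right (hJc k) (hSh0 k)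
    have h3 := mul_le_mul_of_nonneg_left (prod k) hE2
    have h4 : (((J k).card : ℝ) * Sh k) * m2 ≤ (E2 * K * m1 * r ^ k) * m2 := by
      calc (((J k).card : ℝ) * Sh k) * m2 = ((J k).card : ℝ) * m2 * Sh k := by ring
        _ ≤ E2 * Th k * Sh k := h2
        _ = E2 * (Th k * Sh k) := by ring
        _ ≤ E2 * (K * m1 * m2 * r ^ k) := h3
        _ = _ := by ring
    exact le_of_mul_le_mul_right h4 hm2
  have hgeom : ∑ k ∈ range N, r ^ k ≤ 1 / (1 - r) := by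
    rw [geom_sum_eq hr1.ne, le_div_iff₀ h1r, div_mul_eq_mul_div, div_le_iff_of_neg (by linarith)]
    have : 0 ≤ r ^ N := pow_nonneg hr0 N
    nlinarith
  calc ((Bd.card : ℕ) : ℝ)
      ≤ ((((range N).biUnion fun k => (J k).biUnion P).card : ℕ) : ℝ) := by
        exact_mod_cast card_le_card hsub
    _ ≤ ∑ k ∈ range N, ((((J k).biUnion P).card : ℕ) : ℝ) := by
        exact_mod_cast card_biUnion_le
    _ ≤ ∑ k ∈ range N, E2 * K * m1 * r ^ k := sum_le_sum fun k _ => hscale k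
    _ = E2 * K * m1 * ∑ k ∈ range N, r ^ k := by rw [mul_sum]
    _ ≤ E2 * K * m1 * (1 / (1 - r)) := mul_le_mul_of_nonneg_left hgeom (by positivity)
    _ = _ := by ring

open Classical in
/-- **counting of two class systems over one cell.** -/
theorem two_sys (S1 S2 : Finset ℕ) (f : ℕ → ℕ) (g : ℕ → ℕ)
    (D : ℕ → ℕ → ℝ) {θ m1 m2 E1 E2 K r : ℝ} (Th Sh : ℕ → ℝ) (hθ : 0 < θ)
    (hm1 : 0 ≤ m1) (hm2 : 0 < m2) (hE1 : 0 ≤ E1) (hE2 : 0 ≤ E2) (hK : 0 ≤ K) (hr0 : 0 ≤ r)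
    (hr1 : r < 1) (hSh0 : ∀ k, 0 ≤ Sh k)
    (low1 : ∀ t ∈ S1, m1 ≤ E1 * ((S1.filter fun s => f s = f t).card : ℝ))
    (low2 : ∀ t ∈ S2, m2 ≤ E2 * ((S2.filter fun s => g s = g t).card : ℝ))
    (thick : ∀ k, ∀ a ∈ S1.image f, ((S2.filter fun s => ∃ t ∈ S1, t ∈ S2 ∧ f t = a ∧ g t = g s ∧
        θ * 2 ^ k ≤ D a (g s) ∧ D a (g s) < θ * 2 ^ (k + 1)).card : ℝ) ≤ Th k)
    (share : ∀ k, ∀ a ∈ S1.image f, ∀ b, θ * 2 ^ k ≤ D a b → D a b < θ * 2 ^ (k + 1) →
      ((S1.filter fun t => t ∈ S2 ∧ f t = a ∧ g t = b).card : ℝ) ≤ Sh k)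
    (prod : ∀ k, Th k * Sh k ≤ K * m1 * m2 * r ^ k) :
    ((S1.filter fun t => t ∈ S2 ∧ θ ≤ D (f t) (g t)).card : ℝ) ≤
      E1 * E2 * K / (1 - r) * (S1.card : ℝ) := by
  have h1r : 0 < 1 - r := by linarith
  have h1 : ((S1.filter fun t => t ∈ S2 ∧ θ ≤ D (f t) (g t)).card : ℝ) =
      ∑ a ∈ S1.image f, ((S1.filter fun t => t ∈ S2 ∧ f t = a ∧ θ ≤ D a (g t)).card : ℝ) := by
    rw [card_eq_sum_card_fiberwise (f := f) (t := S1.image f)
      (fun s hs => mem_image_of_mem f (mem_filter.1 (mem_coe.1 hs)).1)]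
    push_cast
    refine sum_congr rfl fun a ha => ?_
    congr 2
    ext s
    simp only [mem_filter]
    constructor
    · rintro ⟨⟨h, h', h''⟩, rfl⟩; exact ⟨h, h', rfl, h''⟩
    · rintro ⟨h, h', rfl, h''⟩; exact ⟨⟨h, h', h''⟩, rfl⟩
  have h2 : ((S1.card : ℕ) : ℝ) = ∑ a ∈ S1.image f, ((S1.filter fun t => f t = a).card : ℝ) := by
    rw [card_eq_sum_card_fiberwise (f := f) (t := S1.image f)
      (fun s hs => mem_image_of_mem f hs)]
    push_cast
    rfl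
  rw [h1, h2, mul_sum]
  refine sum_le_sum fun a ha => ?_
  have h3 := two_sys_class S1 S2 f g D Th Sh hθ hm1 hm2 hE2 hK hr0 hr1 hSh0 low2 a
    (fun k => thick k a ha) (fun k b => share k a ha b) prod
  refine h3.trans ?_
  rw [mem_image] at ha
  obtain ⟨t, ht, rfl⟩ := ha
  have h4 := low1 t ht
  have hc : 0 ≤ E2 * K / (1 - r) := by positivity
  calc E2 * K / (1 - r) * m1
      ≤ E2 * K / (1 - r) * (E1 * ((S1.filter fun s => f s = f t).card : ℝ)) :=
        mul_le_mul_of_nonneg_left h4 hc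
    _ = _ := by ring

end Crest.Agent.R116.Td809
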