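import Mathlib
import Crest.Agent.R116.Td1_809
import Crest.Agent.R136.MkF_627
import Crest.Agent.R138.TiltU1_51

/-!
# R116, K side, TILT, part 2 (helper809): the sequence half over the abstract marked sequence

PRODUCER: geometry `TiltGeo` (SHARE + THICK, helper334 Tc1-Tc3).
CONSUMER: `ArgA1_163`, `J2_627` (through `TiltTwoA`).

`tilt_two` : in a marked sequence `MkA` the classes of the levels `u < v` of one incidence have
discrepancy at most `d^(-C (v-u) - ε)` outside a negligible set, as soon as the test sets satisfy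
SHARE and THICK with a gain `X^(-γ)`.
-/

set_option autoImplicit false
set_option linter.unusedVariables false
set_option linter.unusedSectionVars false

open Finset Filter Topology

namespace Crest.Agent.R116.Td809

open Crest.Agent.R138.Ex926 (Base U)
open Crest.Agent.R138.Dp76
open Crest.Agent.R138.Mk163 (zc zl rho alive own Negl)
open Crest.Agent.R138.MkRef627 (lc kc)
open Crest.Agent.R136.MkA627
open Crest.Agent.R138.TiltU51 (zc_nest card_cells mem_alive alive_subset sum_bad le_dpow ev_const)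

variable {σ κ φ ι : Type*}

/-- finite cover of a set of lines by admissible test sets of total value at most `V`. -/
def Cov (G : Geo σ κ) (n i : ℕ) (J : ℤ) (T : Finset ℕ) (V : ℝ) : Prop :=
  ∃ (m : ℕ) (τ : Fin m → σ), (∀ k, G.adm n i J (τ k)) ∧ ∑ k, G.val n i J (τ k) ≤ V ∧
    ∀ t ∈ T, ∃ k, G.mem n i J (τ k) t

open Classical in
/-- **counting form** of a cover: a set of lines with at most `M val` lines in every admissible test
set has at most `M V` lines. -/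
def Cnt (G : Geo σ κ) (n i : ℕ) (J : ℤ) (T : Finset ℕ) (V : ℝ) : Prop :=
  ∀ M : ℝ, 0 ≤ M → (∀ s : σ, G.adm n i J s →
    ((T.filter fun t => G.mem n i J s t).card : ℝ) ≤ M * G.val n i J s) → (T.card : ℝ) ≤ M * V

/-- admissible test set of given value and widths. -/
def Cls (G : Geo σ κ) (n i : ℕ) (J : ℤ) (V : ℝ) (W : κ → ℝ) (s : σ) : Prop :=
  G.adm n i J s ∧ G.val n i J s = V ∧ ∀ k, G.wid k s = W k

/-- `s'` (over `J'`, level `i'`) has a common line with `s` (over `J`, level `i`) and discrepancy in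
`[X, 2X]`. -/
def Meet (G : Geo σ κ) (n i i' : ℕ) (J J' : ℤ) (V' : ℝ) (W' : κ → ℝ) (Ds : ℝ) (X : ℝ)
    (s s' : σ) : Prop :=
  Cls G n i' J' V' W' s' ∧ (∃ t0, G.mem n i J s t0 ∧ G.mem n i' J' s' t0) ∧ X ≤ Ds ∧ Ds ≤ 2 * X

/-- **geometric input of the tilt lemma**: SHARE and THICK for the levels `u < v`.
`D n u v J J' s s'` = discrepancy of the test set `s` of level `u` over the cell `J` and of the test
set `s'` of level `v` over the subcell `J'`, in units of the coarser precision. -/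
def TiltGeo (B : Base) (G : Geo σ κ) (lev : ℕ → ℚ → ℕ) (vm : ℕ → ℚ → ℝ) (w : κ → ℕ → ℚ → ℝ)
    (D : ℕ → ℚ → ℚ → ℤ → ℤ → σ → σ → ℝ) (γ C1 : ℝ) : Prop :=
  ∀ u v : ℚ, 0 ≤ u → u < v → v ≤ 1 → ∀ η : ℝ, 0 < η → ∀ᶠ n in (U : Filter ℕ),
    ∃ Tv Sv : ℝ → ℝ,
      (∀ X : ℝ, 1 ≤ X → 0 ≤ Tv X ∧ 0 ≤ Sv X ∧
        Tv X * Sv X ≤ B.d n ^ (-(C1 * ((v : ℝ) - u)) - η) * X ^ (-γ) * (vm n u * vm n v)) ∧
      ∀ J J' : ℤ, (∃ z : ℝ, zc (lev n u) z = J ∧ zc (lev n v) z = J') →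
      ∀ s : σ, Cls G n (lev n u) J (vm n u) (fun k => w k n u) s → ∀ X : ℝ, 1 ≤ X →
        (∀ s' : σ, Meet G n (lev n u) (lev n v) J J' (vm n v) (fun k => w k n v)
            (D n u v J J' s s') X s s' →
          ∀ T : Finset ℕ, (∀ t ∈ T, G.mem n (lev n u) J s t ∧ G.mem n (lev n v) J' s' t) →
            Cnt G n (lev n u) J T (Sv X)) ∧
        (∀ T : Finset ℕ, (∀ t ∈ T, ∃ s' : σ, Meet G n (lev n u) (lev n v) J J' (vm n v)
            (fun k => w k n v) (D n u v J J' s s') X s s' ∧ G.mem n (lev n v) J' s' t) →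
          Cnt G n (lev n u) J T (Tv X))

/-! ### small facts -/

theorem dpos (B : Base) (n : ℕ) (t : ℝ) : 0 < B.d n ^ t := Real.rpow_pos_of_pos (B.pos n) t

theorem danti (B : Base) (n : ℕ) {s t : ℝ} (h : s ≤ t) : B.d n ^ t ≤ B.d n ^ s :=
  Real.rpow_le_rpow_of_exponent_ge (B.pos n) (B.lt n).le h

theorem dadd (B : Base) (n : ℕ) (s t : ℝ) : B.d n ^ (s + t) = B.d n ^ s * B.d n ^ t :=
  Real.rpow_add (B.pos n) s t

open Classical in
/-- a covered set of alive lines is small. -/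
theorem Cov.card_le {G : Geo σ κ} {n i : ℕ} {J : ℤ} {T S : Finset ℕ} {V M : ℝ}
    (h : Cov G n i J T V) (hM : 0 ≤ M) (hT : T ⊆ S)
    (hd : ∀ s : σ, G.adm n i J s → ((S.filter fun t => G.mem n i J s t).card : ℝ) ≤
      M * G.val n i J s) : (T.card : ℝ) ≤ M * V := by
  classical
  obtain ⟨m, τ, h1, h2, h3⟩ := h
  have hsub : T ⊆ (univ : Finset (Fin m)).biUnion fun k => S.filter fun t => G.mem n i J (τ k) t := by
    intro t ht
    obtain ⟨k, hk⟩ := h3 t ht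
    rw [mem_biUnion]
    exact ⟨k, mem_univ k, mem_filter.2 ⟨hT ht, hk⟩⟩
  calc (T.card : ℝ)
      ≤ (((univ : Finset (Fin m)).biUnion fun k =>
          S.filter fun t => G.mem n i J (τ k) t).card : ℝ) := by exact_mod_cast card_le_card hsub
    _ ≤ ∑ k : Fin m, ((S.filter fun t => G.mem n i J (τ k) t).card : ℝ) := by
        exact_mod_cast card_biUnion_le
    _ ≤ ∑ k : Fin m, M * G.val n i J (τ k) := sum_le_sum fun k _ => hd _ (h1 k)
    _ = M * ∑ k : Fin m, G.val n i J (τ k) := by rw [mul_sum]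
    _ ≤ M * V := mul_le_mul_of_nonneg_left h2 hM

/-- a cover gives the counting form. -/
theorem Cov.cnt {G : Geo σ κ} {n i : ℕ} {J : ℤ} {T : Finset ℕ} {V : ℝ} (h : Cov G n i J T V) :
    Cnt G n i J T V := by
  classical
  intro M hM hd
  exact h.card_le hM (Finset.Subset.refl T) (fun s hs => by convert hd s hs)

/-- a single test set. -/
theorem Cnt.one {G : Geo σ κ} {n i : ℕ} {J : ℤ} {T : Finset ℕ} {V : ℝ} {s : σ}
    (hs : G.adm n i J s) (hV : G.val n i J s ≤ V) (hT : ∀ t ∈ T, G.mem n i J s t) :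
    Cnt G n i J T V :=
  Cov.cnt ⟨1, fun _ => s, fun _ => hs, by simpa using hV, fun t ht => ⟨0, hT t ht⟩⟩

open Classical in
theorem Cnt.card_le {G : Geo σ κ} {n i : ℕ} {J : ℤ} {T S : Finset ℕ} {V M : ℝ}
    (h : Cnt G n i J T V) (hM : 0 ≤ M) (hT : T ⊆ S)
    (hd : ∀ s : σ, G.adm n i J s → ((S.filter fun t => G.mem n i J s t).card : ℝ) ≤
      M * G.val n i J s) : (T.card : ℝ) ≤ M * V := by
  refine h M hM fun s hs => le_trans ?_ (hd s hs)
  exact_mod_cast card_le_card (filter_subset_filter _ hT)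

section

variable {B : Base} {I : ℕ → Finset (ℕ × ℝ)} {G : Geo σ κ} {lev : ℕ → ℚ → ℕ}
    {A : ℕ → ℝ} {c Λ : ℝ → ℝ} {τ : κ → ℝ → ℝ} {f : ℕ → ℚ → ℕ → ℤ → ℕ} {b : ℕ → ℚ → ℕ → σ}
    {vm : ℕ → ℚ → ℝ} {w : κ → ℕ → ℚ → ℝ}

theorem ampA_pos (h : MkA B I G lev A c Λ τ f b vm w) (n : ℕ) (v : ℚ) : 0 < ampA B A c n v :=
  mul_pos (h.Apos n) (dpos B n _)

/-- the number of cells. -/
theorem ev_R (h : MkA B I G lev A c Λ τ f b vm w) {u v : ℚ} (hu : 0 ≤ u) (huv : u ≤ v)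
    (hv : v ≤ 1) {η : ℝ} (hη : 0 < η) :
    ∀ᶠ n in (U : Filter ℕ), lev n u ≤ lev n v ∧
      (2 : ℝ) ^ (lev n v - lev n u) ≤ B.d n ^ (-((v : ℝ) - u) - η) := by
  have h1 := (h.lev_lim u v hu huv hv).eventually
    (gt_mem_nhds (show (v : ℝ) - u < v - u + η by linarith))
  filter_upwards [h1, h.lev_mono u v hu huv hv] with n hn h2
  refine ⟨h2, ?_⟩
  have h3 : B.d n ^ (-((v : ℝ) - u) - η) = B.d n ^ (-((v : ℝ) - u + η)) := by congr 1; ring
  rw [h3]
  refine le_dpow (by positivity) ?_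
  rw [Real.log_pow]
  have h4 : ((lev n v - lev n u : ℕ) : ℝ) = (lev n v : ℝ) - lev n u := Nat.cast_sub h2
  rw [h4]
  exact hn.le

open Classical in
/-- number of incidences of a line in a cell of level `v`. -/
theorem ev_nu (h : MkA B I G lev A c Λ τ f b vm w) {v : ℚ} (h0 : 0 ≤ v)
    (h1 : v ≤ 1) {η : ℝ} (hη : 0 < η) :
    ∀ᶠ n in (U : Filter ℕ), ∀ x ∈ I n,
      B.d n ^ (-(1 - (v : ℝ)) + (Λ 1 - Λ v) + η) ≤
        (((I n).filter fun y => y.1 = x.1 ∧ zc (lev n v) y.2 = zc (lev n v) x.2).card : ℝ) ∧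
      (((I n).filter fun y => y.1 = x.1 ∧ zc (lev n v) y.2 = zc (lev n v) x.2).card : ℝ) ≤
        B.d n ^ (-(1 - (v : ℝ)) + (Λ 1 - Λ v) - η) := by
  filter_upwards [fib_bounds h v h0 h1 hη] with n hn x hx
  have h3 := hn x hx
  have h4 : ((I n).filter fun y => lc (lev n v) y = lc (lev n v) x) =
      (I n).filter fun y => y.1 = x.1 ∧ zc (lev n v) y.2 = zc (lev n v) x.2 := by
    ext y
    simp only [mem_filter, lc, Prod.mk.injEq]
  rw [h4] at h3
  exact h3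

end

/-! ### one stage -/

open Classical in
/-- bad lines of one small cell, one stage. -/
theorem cell_two {G : Geo σ κ} {n : ℕ} {In : Finset (ℕ × ℝ)} {i j : ℕ} (hij : i ≤ j)
    {f g : ℕ → ℤ → ℕ} {b b' : ℕ → σ} {v1 v2 : ℝ} {W1 W2 : κ → ℝ}
    {D : ℤ → ℤ → σ → σ → ℝ} {a1 a2 E M X0 K r : ℝ} (Tv Sv : ℝ → ℝ)
    (hX0 : 1 ≤ X0) (hE : 0 ≤ E) (hM : 0 ≤ M) (ha1 : 0 ≤ a1 * v1) (ha2 : 0 < a2 * v2)
    (hK : 0 ≤ K) (hr0 : 0 ≤ r) (hr1 : r < 1)
    (mk1 : ∀ J, ∀ t ∈ alive In i J, G.mem n i J (b (f t J)) t ∧ Cls G n i J v1 W1 (b (f t J)))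
    (mk2 : ∀ J, ∀ t ∈ alive In j J, G.mem n j J (b' (g t J)) t ∧ Cls G n j J v2 W2 (b' (g t J)))
    (n1 : ∀ J, ∀ t ∈ alive In i J, a1 * v1 ≤
      E * (((alive In i J).filter fun s => f s J = f t J).card : ℝ))
    (n2 : ∀ J, ∀ t ∈ alive In j J, a2 * v2 ≤
      E * (((alive In j J).filter fun s => g s J = g t J).card : ℝ))
    (dm : ∀ J, ∀ s : σ, G.adm n i J s → (((alive In i J).filter fun t => G.mem n i J s t).card : ℝ) ≤
      M * G.val n i J s)
    (hTS : ∀ X : ℝ, 1 ≤ X → 0 ≤ Tv X ∧ 0 ≤ Sv X)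
    (hprod : ∀ k : ℕ, (M * Tv (X0 * 2 ^ k)) * (M * Sv (X0 * 2 ^ k)) ≤
      K * (a1 * v1) * (a2 * v2) * r ^ k)
    (hgeo : ∀ J J' : ℤ, (∃ z : ℝ, zc i z = J ∧ zc j z = J') →
      ∀ s : σ, Cls G n i J v1 W1 s → ∀ X : ℝ, 1 ≤ X →
        (∀ s' : σ, Meet G n i j J J' v2 W2 (D J J' s s') X s s' →
          ∀ T : Finset ℕ, (∀ t ∈ T, G.mem n i J s t ∧ G.mem n j J' s' t) →
            Cnt G n i J T (Sv X)) ∧
        (∀ T : Finset ℕ, (∀ t ∈ T, ∃ s' : σ, Meet G n i j J J' v2 W2 (D J J' s s') X s s' ∧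
            G.mem n j J' s' t) → Cnt G n i J T (Tv X)))
    {x0 : ℕ × ℝ} (hx0 : x0 ∈ In) :
    (((In.filter fun x => zc j x.2 = zc j x0.2 ∧
        X0 ≤ D (zc i x.2) (zc j x.2) (b (f x.1 (zc i x.2))) (b' (g x.1 (zc j x.2)))).image
          Prod.fst).card : ℝ) ≤
      E * E * K / (1 - r) * (((In.filter fun x => zc i x.2 = zc i x0.2).image Prod.fst).card : ℝ) := by
  set J : ℤ := zc i x0.2 with hJ
  set J' : ℤ := zc j x0.2 with hJ'
  have hX0p : 0 < X0 := by linarith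
  have hk1 : ∀ k : ℕ, (1 : ℝ) ≤ X0 * 2 ^ k := by
    intro k
    have : (1 : ℝ) ≤ 2 ^ k := one_le_pow₀ (by norm_num)
    nlinarith
  have hsub : alive In j J' ⊆ alive In i J := alive_subset hij hx0
  have hz : ∃ z : ℝ, zc i z = J ∧ zc j z = J' := ⟨x0.2, rfl, rfl⟩
  have key := two_sys (alive In i J) (alive In j J') (fun t => f t J) (fun t => g t J')
    (fun a a' => D J J' (b a) (b' a')) (θ := X0) (m1 := a1 * v1) (m2 := a2 * v2) (E1 := E)
    (E2 := E) (K := K) (r := r) (fun k => M * Tv (X0 * 2 ^ k)) (fun k => M * Sv (X0 * 2 ^ k))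
    hX0p ha1 ha2 hE hE hK hr0 hr1 (fun k => mul_nonneg hM (hTS _ (hk1 k)).2) (n1 J) (n2 J')
    (by
      intro k a ha
      rw [mem_image] at ha
      obtain ⟨ta, hta, rfl⟩ := ha
      refine ((hgeo J J' hz _ (mk1 J ta hta).2 _ (hk1 k)).2 _ ?_).card_le hM
        ((filter_subset _ _).trans hsub) (dm J)
      intro t ht
      rw [mem_filter] at ht
      obtain ⟨ht, t0, ht0, ht0', hf0, hg0, hd1, hd2⟩ := ht
      obtain ⟨m1, m2⟩ := mk2 J' t ht
      refine ⟨b' (g t J'), ⟨m2, ⟨t0, ?_, ?_⟩, hd1, ?_⟩, m1⟩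
      · have := (mk1 J t0 ht0).1
        rw [hf0] at this
        exact this
      · have := (mk2 J' t0 ht0').1
        rw [hg0] at this
        exact this
      · rw [pow_succ] at hd2
        linarith)
    (by
      intro k a ha a' hd1 hd2
      rw [mem_image] at ha
      obtain ⟨ta, hta, rfl⟩ := ha
      rcases ((alive In i J).filter fun t => t ∈ alive In j J' ∧ f t J = f ta J ∧
        g t J' = a').eq_empty_or_nonempty with hE0 | ⟨t0, ht0⟩
      · rw [hE0, card_empty, Nat.cast_zero]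
        exact mul_nonneg hM (hTS _ (hk1 k)).2
      rw [mem_filter] at ht0
      obtain ⟨ht0, ht0', hf0, hg0⟩ := ht0
      refine ((hgeo J J' hz _ (mk1 J ta hta).2 _ (hk1 k)).1 (b' a') ⟨?_, ⟨t0, ?_, ?_⟩, hd1, ?_⟩ _
        ?_).card_le hM (filter_subset _ _) (dm J)
      · rw [← hg0]; exact (mk2 J' t0 ht0').2
      · rw [← hf0]; exact (mk1 J t0 ht0).1
      · rw [← hg0]; exact (mk2 J' t0 ht0').1
      · rw [pow_succ] at hd2
        linarith
      · intro t ht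
        rw [mem_filter] at ht
        obtain ⟨ht, ht', hf, hg⟩ := ht
        refine ⟨?_, ?_⟩
        · rw [← hf]; exact (mk1 J t ht).1
        · rw [← hg]; exact (mk2 J' t ht').1)
    hprod
  refine le_trans ?_ key
  norm_cast
  refine card_le_card ?_
  intro t ht
  rw [mem_image] at ht
  obtain ⟨x, hx, rfl⟩ := ht
  rw [mem_filter] at hx
  obtain ⟨hxI, hxc, hxb⟩ := hx
  have hxi : zc i x.2 = J := zc_nest hij hxc
  have hm : x.1 ∈ alive In j J' := mem_alive.2 ⟨x, hxI, hxc, rfl⟩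
  rw [mem_filter]
  refine ⟨hsub hm, hm, ?_⟩
  rw [hxc, hxi] at hxb
  exact hxb

/-! ### the sequence -/

section

variable {B : Base} {I : ℕ → Finset (ℕ × ℝ)} {G : Geo σ κ} {lev : ℕ → ℚ → ℕ}
    {A : ℕ → ℝ} {c Λ : ℝ → ℝ} {τ : κ → ℝ → ℝ} {f : ℕ → ℚ → ℕ → ℤ → ℕ} {b : ℕ → ℚ → ℕ → σ}
    {vm : ℕ → ℚ → ℝ} {w : κ → ℕ → ℚ → ℝ}

set_option maxHeartbeats 1000000 in
/-- **(T), joint form**: outside a negligible set the classes of the levels `u < v` of one incidence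
have discrepancy at most `d^(-C (v - u) - ε)`. -/
theorem tilt_two (h : MkA B I G lev A c Λ τ f b vm w)
    {D : ℕ → ℚ → ℚ → ℤ → ℤ → σ → σ → ℝ} {γ C1 Cc C : ℝ} (hγ : 0 < γ) (hC1 : 0 ≤ C1)
    (hCc : 0 ≤ Cc)
    (hc : ∀ u v : ℚ, 0 ≤ u → u ≤ v → v ≤ 1 → c u - c v ≤ Cc * ((v : ℝ) - u))
    (hg : TiltGeo B G lev vm w D γ C1) (hC : C1 + Cc + 1 ≤ C * γ) :
    ∀ u v : ℚ, 0 ≤ u → u < v → v ≤ 1 → ∀ ε : ℝ, 0 < ε →
      Negl B I fun n x => B.d n ^ (-(C * ((v : ℝ) - u)) - ε) ≤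
        D n u v (zc (lev n u) x.2) (zc (lev n v) x.2) (b n u (f n u x.1 (zc (lev n u) x.2)))
          (b n v (f n v x.1 (zc (lev n v) x.2))) := by
  classical
  intro u v hu huv hv ε hε
  have huvR : (u : ℝ) < v := by exact_mod_cast huv
  have hu1 : u ≤ 1 := huv.le.trans hv
  have hv0 : 0 ≤ v := hu.trans huv.le
  set Δ : ℝ := (v : ℝ) - u with hΔ
  have hΔ0 : 0 ≤ Δ := by linarith
  set η : ℝ := γ * ε / 20 with hη
  have hη0 : 0 < η := by positivity
  have hηε : 20 * η = γ * ε := by rw [hη]; ring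
  set r : ℝ := (2 : ℝ) ^ (-γ) with hr
  have hr0 : 0 < r := by positivity
  have hr1 : r < 1 := Real.rpow_lt_one_of_one_lt_of_neg (by norm_num) (by linarith)
  refine ⟨γ * ε / 2, by positivity, ?_⟩
  filter_upwards [h.near u hu hu1 η hη0, h.near v hv0 hv η hη0, h.dmax u hu hu1 η hη0,
    h.mark u hu hu1, h.mark v hv0 hv, h.vpos u hu hu1, h.vpos v hv0 hv,
    ev_R h hu huv.le hv hη0, ev_nu h hu hu1 hη0, ev_nu h hv0 hv hη0, hg u v hu huv hv η hη0,
    ev_const B (1 / (1 - r)) hη0] with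
    n nu nv dm mu mv pu pv hR cu cv hgeo k1
  have P := dpos B n
  obtain ⟨hij, hR2⟩ := hR
  obtain ⟨Tv, Sv, hTS, hgeo⟩ := hgeo
  have hau := ampA_pos h n u
  have hav := ampA_pos h n v
  set R : ℝ := 2 ^ (lev n v - lev n u) with hRdef
  have hR1 : 1 ≤ R := one_le_pow₀ (by norm_num)
  have hC0 : 0 ≤ C := by
    by_contra hcon
    push Not at hcon
    nlinarith
  set X0 : ℝ := B.d n ^ (-(C * Δ) - ε) with hX0
  have hX01 : 1 ≤ X0 := by
    rw [hX0]
    exact Real.one_le_rpow_of_pos_of_le_one_of_nonpos (B.pos n) (B.lt n).le (by nlinarith)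
  have hX0p : 0 < X0 := by linarith
  set au : ℝ := ampA B A c n u with hau_def
  set av : ℝ := ampA B A c n v with hav_def
  set M : ℝ := B.d n ^ (-η) * au with hM
  have hM0 : 0 ≤ M := (mul_pos (P _) hau).le
  have hamp : au ≤ B.d n ^ (-(Cc * Δ)) * av := by
    rw [hau_def, hav_def]
    unfold ampA
    have h2 := hc u v hu huv.le hv
    have h3 : B.d n ^ (-(c u)) ≤ B.d n ^ (-(Cc * Δ)) * B.d n ^ (-(c v)) := by
      rw [← dadd]
      apply danti
      linarith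
    have hA := h.Apos n
    calc A n * B.d n ^ (-(c (u : ℝ))) ≤ A n * (B.d n ^ (-(Cc * Δ)) * B.d n ^ (-(c v))) :=
          mul_le_mul_of_nonneg_left h3 hA.le
      _ = _ := by ring
  -- constant of the count
  set K : ℝ := B.d n ^ (-(3 * η) - (C1 + Cc) * Δ) * X0 ^ (-γ) with hK
  have hK0 : 0 ≤ K := by
    have := P (-(3 * η) - (C1 + Cc) * Δ)
    positivity
  have hprod : ∀ k : ℕ, (M * Tv (X0 * 2 ^ k)) * (M * Sv (X0 * 2 ^ k)) ≤
      K * (au * vm n u) * (av * vm n v) * r ^ k := by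
    intro k
    have hk1 : (1 : ℝ) ≤ X0 * 2 ^ k := by
      have : (1 : ℝ) ≤ 2 ^ k := one_le_pow₀ (by norm_num)
      nlinarith
    have h1 := (hTS _ hk1).2.2
    have h2 : (X0 * 2 ^ k) ^ (-γ) = X0 ^ (-γ) * r ^ k := by
      rw [Real.mul_rpow hX0p.le (by positivity)]
      congr 1
      rw [hr, ← Real.rpow_natCast, ← Real.rpow_natCast, ← Real.rpow_mul (by norm_num),
        ← Real.rpow_mul (by norm_num)]
      congr 1
      ring
    rw [h2] at h1
    have h3 := P (-(C1 * Δ) - η)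
    have h4 : 0 ≤ B.d n ^ (-(C1 * Δ) - η) * (X0 ^ (-γ) * r ^ k) * (vm n u * vm n v) := by
      positivity
    calc (M * Tv (X0 * 2 ^ k)) * (M * Sv (X0 * 2 ^ k))
        = (M * M) * (Tv (X0 * 2 ^ k) * Sv (X0 * 2 ^ k)) := by ring
      _ ≤ (M * M) * (B.d n ^ (-(C1 * Δ) - η) * (X0 ^ (-γ) * r ^ k) * (vm n u * vm n v)) :=
          mul_le_mul_of_nonneg_left h1 (mul_nonneg hM0 hM0)
      _ = (B.d n ^ (-η) * B.d n ^ (-η) * au) *
            (B.d n ^ (-(C1 * Δ) - η) * (X0 ^ (-γ) * r ^ k) * (vm n u * vm n v)) * au := by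
          rw [hM]; ring
      _ ≤ (B.d n ^ (-η) * B.d n ^ (-η) * au) *
            (B.d n ^ (-(C1 * Δ) - η) * (X0 ^ (-γ) * r ^ k) * (vm n u * vm n v)) *
              (B.d n ^ (-(Cc * Δ)) * av) := by
          refine mul_le_mul_of_nonneg_left hamp (mul_nonneg ?_ h4)
          have := P (-η)
          positivity
      _ = (B.d n ^ (-η) * B.d n ^ (-η) * B.d n ^ (-(C1 * Δ) - η) * B.d n ^ (-(Cc * Δ))) *
            X0 ^ (-γ) * (au * vm n u) * (av * vm n v) * r ^ k := by ring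
      _ = _ := by
          rw [hK]
          congr 4
          rw [← dadd, ← dadd, ← dadd]
          congr 1
          ring
  set Kt : ℝ := B.d n ^ (-η) * B.d n ^ (-η) * K / (1 - r) with hKt
  have h1r : 0 < 1 - r := by linarith
  have hKt0 : 0 ≤ Kt := by
    have := P (-η)
    positivity
  have hcell : ∀ x0 ∈ I n, ((((I n).filter fun x => zc (lev n v) x.2 = zc (lev n v) x0.2 ∧
        X0 ≤ D n u v (zc (lev n u) x.2) (zc (lev n v) x.2) (b n u (f n u x.1 (zc (lev n u) x.2)))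
          (b n v (f n v x.1 (zc (lev n v) x.2)))).image Prod.fst).card : ℝ) ≤
      Kt * ((((I n).filter fun x => zc (lev n u) x.2 = zc (lev n u) x0.2).image
        Prod.fst).card : ℝ) := by
    intro x0 hx0
    exact cell_two (G := G) (n := n) (In := I n) hij (f := fun t J => f n u t J)
      (g := fun t J => f n v t J) (b := b n u) (b' := b n v) (v1 := vm n u) (v2 := vm n v)
      (W1 := fun k => w k n u) (W2 := fun k => w k n v) (D := D n u v) (a1 := au) (a2 := av)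
      (E := B.d n ^ (-η)) (M := M) (X0 := X0) (K := K) (r := r) Tv Sv hX01 (P _).le hM0
      (mul_pos hau pu).le (mul_pos hav pv) hK0 hr0.le hr1
      (fun J t ht => ⟨(mu J t ht).1, (mu J t ht).2.1, (mu J t ht).2.2.1, (mu J t ht).2.2.2⟩)
      (fun J t ht => ⟨(mv J t ht).1, (mv J t ht).2.1, (mv J t ht).2.2.1, (mv J t ht).2.2.2⟩)
      nu nv (fun J s hs => by
        have := dm J s hs
        rw [hM]
        convert this using 2)
      (fun X hX => ⟨(hTS X hX).1, (hTS X hX).2.1⟩) hprod hgeo hx0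
  have hν1 := P (-(1 - (u : ℝ)) + (Λ 1 - Λ u) + η)
  have hν2 := P (-(1 - (v : ℝ)) + (Λ 1 - Λ v) - η)
  have hsum := sum_bad (I := I n) (obj := Prod.fst) (c := fun x => zc (lev n u) x.2)
    (c' := fun x => zc (lev n v) x.2)
    (bad := fun x => X0 ≤ D n u v (zc (lev n u) x.2) (zc (lev n v) x.2)
      (b n u (f n u x.1 (zc (lev n u) x.2))) (b n v (f n v x.1 (zc (lev n v) x.2))))
    (K := Kt) (N := R) hKt0 (fun x _ y _ hxy => zc_nest hij hxy) hcell hν2.le hν1.le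
    (fun x hx => by
      have := card_cells hij (I n) (zc (lev n u) x.2)
      rw [hRdef]
      exact_mod_cast this)
    (fun x hx => (cv x hx).2) (fun x hx => (cu x hx).1)
  -- exponents
  have hνν : B.d n ^ (-(1 - (v : ℝ)) + (Λ 1 - Λ v) - η) ≤
      B.d n ^ (-(2 * η)) * B.d n ^ (-(1 - (u : ℝ)) + (Λ 1 - Λ u) + η) := by
    rw [← dadd]
    apply danti
    have := (h.lam u v (by exact_mod_cast hu) huvR.le (by exact_mod_cast hv)).2
    linarith
  have hX0γ : X0 ^ (-γ) = B.d n ^ (γ * (C * Δ) + γ * ε) := by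
    rw [hX0, ← Real.rpow_mul (B.pos n).le]
    congr 1
    ring
  have hfin : B.d n ^ (-(2 * η)) * R * Kt ≤ B.d n ^ (γ * ε / 2) := by
    have e1 : Kt ≤ B.d n ^ (-η) * B.d n ^ (-η) * K * B.d n ^ (-η) := by
      rw [hKt, div_eq_mul_one_div]
      refine mul_le_mul_of_nonneg_left k1 ?_
      have := P (-η)
      positivity
    calc B.d n ^ (-(2 * η)) * R * Kt
        ≤ B.d n ^ (-(2 * η)) * B.d n ^ (-Δ - η) *
            (B.d n ^ (-η) * B.d n ^ (-η) * K * B.d n ^ (-η)) := by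
          refine mul_le_mul (mul_le_mul_of_nonneg_left hR2 (P _).le) e1 hKt0 ?_
          have := P (-(2 * η)); have := P (-Δ - η); positivity
      _ = B.d n ^ (-(2 * η) + (-Δ - η) + -η + -η + (-(3 * η) - (C1 + Cc) * Δ) +
            (γ * (C * Δ) + γ * ε) + -η) := by
          rw [hK, hX0γ]
          simp only [dadd]
          ring
      _ ≤ B.d n ^ (γ * ε / 2) := by
          apply danti
          nlinarith [mul_nonneg hΔ0 (sub_nonneg.2 hC)]
  have hI0 : (0 : ℝ) ≤ (I n).card := Nat.cast_nonneg _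
  refine le_of_mul_le_mul_right (hsum.trans ?_) hν1
  calc B.d n ^ (-(1 - (v : ℝ)) + (Λ 1 - Λ v) - η) * R * Kt * ((I n).card : ℝ)
      = B.d n ^ (-(1 - (v : ℝ)) + (Λ 1 - Λ v) - η) * (R * Kt * ((I n).card : ℝ)) := by ring
    _ ≤ (B.d n ^ (-(2 * η)) * B.d n ^ (-(1 - (u : ℝ)) + (Λ 1 - Λ u) + η)) *
          (R * Kt * ((I n).card : ℝ)) := mul_le_mul_of_nonneg_right hνν (by positivity)
    _ = (B.d n ^ (-(2 * η)) * R * Kt) * ((I n).card : ℝ) *
          B.d n ^ (-(1 - (u : ℝ)) + (Λ 1 - Λ u) + η) := by ring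
    _ ≤ B.d n ^ (γ * ε / 2) * ((I n).card : ℝ) *
          B.d n ^ (-(1 - (u : ℝ)) + (Λ 1 - Λ u) + η) :=
        mul_le_mul_of_nonneg_right (mul_le_mul_of_nonneg_right hfin hI0) hν1.le

/-- **(T) in a slot**: `TiltTwoA` of `MkF_627` from the joint form. `hslot` : the flags of the two
classes differ in the slot `j` by at most the discrepancy times the coarser precision. -/
theorem tiltTwoA_of (h : MkA B I G lev A c Λ τ f b vm w) (P : PDist φ ι)
    {e : ℕ → ℚ → ℕ → φ} {pr : ι → ℕ → ℚ → ℝ} {j : ι}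
    {D : ℕ → ℚ → ℚ → ℤ → ℤ → σ → σ → ℝ} {γ C1 Cc C C2 : ℝ} (hγ : 0 < γ) (hC1 : 0 ≤ C1)
    (hCc : 0 ≤ Cc)
    (hc : ∀ u v : ℚ, 0 ≤ u → u ≤ v → v ≤ 1 → c u - c v ≤ Cc * ((v : ℝ) - u))
    (hg : TiltGeo B G lev vm w D γ C1) (hC : C1 + Cc + 1 ≤ C * γ)
    (hpos : ∀ u v : ℚ, 0 ≤ u → u < v → v ≤ 1 → ∀ᶠ n in (U : Filter ℕ),
      0 < max (pr j n u) (pr j n v))
    (hslot : ∀ u v : ℚ, 0 ≤ u → u < v → v ≤ 1 → ∀ ε : ℝ, 0 < ε → ∀ᶠ n in (U : Filter ℕ),
      ∀ x ∈ I n, P.d j n (frA lev f e n u x) (frA lev f e n v x) ≤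
        max (pr j n u) (pr j n v) * B.d n ^ (-(C2 * ((v : ℝ) - u)) - ε) *
          max 1 (D n u v (zc (lev n u) x.2) (zc (lev n v) x.2)
            (b n u (f n u x.1 (zc (lev n u) x.2))) (b n v (f n v x.1 (zc (lev n v) x.2))))) :
    TiltTwoA P B I lev f e pr j (fun u v => (C + C2) * (v - u)) := by
  intro u v hu huv hv ε hε
  obtain ⟨ξ, hξ, hN⟩ := tilt_two h hγ hC1 hCc hc hg hC u v hu huv hv (ε / 2) (by positivity)
  refine ⟨ξ, hξ, ?_⟩
  have hC0 : 0 ≤ C := by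
    by_contra hcon
    push Not at hcon
    nlinarith
  have huvR : (0 : ℝ) ≤ (v : ℝ) - u := by
    have : (u : ℝ) < v := by exact_mod_cast huv
    linarith
  filter_upwards [hN, hslot u v hu huv hv (ε / 4) (by positivity), hpos u v hu huv hv] with
    n h1 h2 h3
  refine le_trans (Nat.cast_le.2 (card_le_card fun x hx => ?_)) h1
  rw [mem_filter] at hx ⊢
  refine ⟨hx.1, ?_⟩
  have h4 := hx.2.trans (h2 x hx.1)
  rw [mul_assoc] at h4
  have h5 := le_of_mul_le_mul_left h4 h3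
  by_contra hcon
  push Not at hcon
  have hP := dpos B n (-(C2 * ((v : ℝ) - u)) - ε / 4)
  have h6 : max 1 (D n u v (zc (lev n u) x.2) (zc (lev n v) x.2)
            (b n u (f n u x.1 (zc (lev n u) x.2))) (b n v (f n v x.1 (zc (lev n v) x.2)))) ≤
      B.d n ^ (-(C * ((v : ℝ) - u)) - ε / 2) := by
    refine max_le ?_ hcon.le
    exact Real.one_le_rpow_of_pos_of_le_one_of_nonpos (B.pos n) (B.lt n).le (by nlinarith)
  have h7 := h5.trans (mul_le_mul_of_nonneg_left h6 hP.le)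
  rw [← dadd] at h7
  have h8 : B.d n ^ (-((C + C2) * ((v : ℝ) - u)) - ε) >
      B.d n ^ (-(C2 * ((v : ℝ) - u)) - ε / 4 + (-(C * ((v : ℝ) - u)) - ε / 2)) :=
    Real.rpow_lt_rpow_of_exponent_gt (B.pos n) (B.lt n) (by linarith)
  linarith

end

end Crest.Agent.R116.Td809
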