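import Crest.Agent.R116.Tc7_334
import Crest.Agent.R116.Bm3_903
import Crest.Agent.R116.KF2_439

/-!
# R116, K side, TILT, part 3 (helper809): discrepancy of two light-ray members, SHARE

`Dd m m'` = discrepancy of the conformal functions of the members `m` (long cell) and `m'` (short
cell), in units of the thickness of `m'`, minimum over the two signs, read on the centre ray of `m'`.
`dd_le` : it dominates `dsc` (helper439) on every ray of `m'`, at every height of its cell.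
`share_mem` : the common rays of `m` and `m'` are few if `X ≤ Dd m m'` (from helper334's `share_ray'`).
-/

set_option autoImplicit false
set_option linter.unusedVariables false

open Finset

namespace Crest.Agent.R116.Td809

open Crest.Agent.R138.Defs (E2)
open Crest.Agent.R116.CDef480 (E3 lat pt normsq2 inner2)
open Crest.Agent.R116.LZg725
open Crest.Agent.R116.Bm903
open Crest.Agent.R116.KI439
open Crest.Agent.R116.KF439

/-! ### change of ray and height of `dsc` -/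

theorem dsc_ray {sg R a : ℝ} (hsg : 0 < sg) (hR : 0 < R) (ha : 0 ≤ a) {p q : Cf E2} {r r' : LRay}
    {z : ℝ} (h1 : ‖r'.1 - r.1‖ ≤ a * sg) (h2 : ‖rx r'.1 r'.2.1 z - rx r.1 r.2.1 z‖ ≤ a * (sg * R)) :
    dsc (sg * R) R p q r' z ≤ (1 + 2 * a) * dsc (sg * R) R p q r z := by
  unfold dsc
  have h3 := norm_grr_frame (dif p q) r r' z
  have h4 := mul_le_mul_of_nonneg_left h1 (abs_nonneg ((dif p q).ny z))
  have h5 := mul_le_mul_of_nonneg_left h2 (by positivity : 0 ≤ 2 * |(dif p q).d|)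
  have hW : 0 < sg * R := by positivity
  have h6 := mul_le_mul_of_nonneg_left (h3.trans (add_le_add (add_le_add le_rfl h4) h5)) hW.le
  have e1 : (sg * R) ^ 2 / R = sg ^ 2 * R := by field_simp
  rw [e1]
  have b1 : 0 ≤ sg * R * ‖grr (dif p q) r‖ := by positivity
  have b2 : 0 ≤ sg ^ 2 * R * |(dif p q).ny z| := by positivity
  have b3 : 0 ≤ (sg * R) ^ 2 * |(dif p q).d| := by positivity
  have c1 := mul_nonneg ha b1
  have c2 := mul_nonneg ha b2
  have c3 := mul_nonneg ha b3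
  have e2 : sg * R * (‖grr (dif p q) r‖ + |(dif p q).ny z| * (a * sg) +
      2 * |(dif p q).d| * (a * (sg * R))) = sg * R * ‖grr (dif p q) r‖ +
      a * (sg ^ 2 * R * |(dif p q).ny z|) + 2 * (a * ((sg * R) ^ 2 * |(dif p q).d|)) := by ring
  rw [e2] at h6
  nlinarith

theorem dsc_height {sg R k : ℝ} (hsg : 0 < sg) (hR : 0 < R) (hk : 0 ≤ k) {p q : Cf E2} {r : LRay}
    {z z' : ℝ} (h : |z' - z| ≤ k * R) :
    dsc (sg * R) R p q r z' ≤ (1 + 2 * k) * dsc (sg * R) R p q r z := by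
  unfold dsc
  have h3 := abs_ny_move (dif p q) z z'
  have h4 := mul_le_mul_of_nonneg_left h (by positivity : 0 ≤ 2 * |(dif p q).d|)
  have e1 : (sg * R) ^ 2 / R = sg ^ 2 * R := by field_simp
  rw [e1]
  have h6 := mul_le_mul_of_nonneg_left (h3.trans (add_le_add le_rfl h4))
    (by positivity : 0 ≤ sg ^ 2 * R)
  have b1 : 0 ≤ sg * R * ‖grr (dif p q) r‖ := by positivity
  have b2 : 0 ≤ sg ^ 2 * R * |(dif p q).ny z| := by positivity
  have b3 : 0 ≤ (sg * R) ^ 2 * |(dif p q).d| := by positivity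
  have c1 := mul_nonneg hk b1
  have c2 := mul_nonneg hk b2
  have c3 := mul_nonneg hk b3
  have e2 : sg ^ 2 * R * (|(dif p q).ny z| + 2 * |(dif p q).d| * (k * R)) =
      sg ^ 2 * R * |(dif p q).ny z| + 2 * (k * ((sg * R) ^ 2 * |(dif p q).d|)) := by ring
  rw [e2] at h6
  nlinarith

/-! ### the centre ray and the discrepancy -/

/-- centre ray of a member. -/
noncomputable def cray (m : Mem) : LRay :=
  (m.c, lat m.X0 + m.s0 • m.c, m.X0 2 - m.s0 * ‖m.c‖ ^ 2 / 2)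

theorem rx_cray (m : Mem) : rx (cray m).1 (cray m).2.1 m.s0 = lat m.X0 := by
  unfold cray rx
  simp only []
  abel

/-- discrepancy with the sign `σ`, in absolute units. -/
noncomputable def dm (m m' : Mem) (σ : ℝ) : ℝ :=
  dsc (m'.sg * m'.R) m'.R m.phi (sm σ m'.phi) (cray m') m'.s0

/-- **discrepancy of two members** in units of the thickness of the second. -/
noncomputable def Dd (m m' : Mem) : ℝ := 9 * min (dm m m' 1) (dm m m' (-1)) / (m'.s1 * m'.R)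

section ray

variable {M : ℝ} {m m' : Mem} {r : LRay} {σ z : ℝ}

/-- `dsc` on a ray of `m'` from the centre ray. -/
theorem dsc_le_dm (h' : m'.Ok M 0) (hr : r ∈ m'.rays 0) (hz : |z - m'.s0| ≤ m'.R) :
    dsc (m'.sg * m'.R) m'.R m.phi (sm σ m'.phi) r z ≤ 9 * dm m m' σ := by
  have hsg := sg_pos h'
  have hR := h'.hR
  have h0 := self_s0 h'
  have h1 := ray_slope hr
  have h2 := ray_lat hr h0
  rw [sub_self, zero_smul, add_zero] at h2
  have a1 := dsc_ray (a := 1) hsg hR zero_le_one (p := m.phi) (q := sm σ m'.phi) (r := cray m')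
    (r' := r) (z := m'.s0) (by rw [one_mul]; exact h1) (by rw [one_mul, rx_cray]; exact h2)
  have a2 := dsc_height (k := 1) hsg hR zero_le_one (p := m.phi) (q := sm σ m'.phi) (r := r)
    (z := m'.s0) (z' := z) (by rw [one_mul]; exact hz)
  unfold dm
  linarith

/-- the centre ray from a ray of `m'`. -/
theorem dm_le_dsc (h' : m'.Ok M 0) (hr : r ∈ m'.rays 0) :
    dm m m' σ ≤ 3 * dsc (m'.sg * m'.R) m'.R m.phi (sm σ m'.phi) r m'.s0 := by
  have hsg := sg_pos h'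
  have hR := h'.hR
  have h0 := self_s0 h'
  have h1 := ray_slope hr
  have h2 := ray_lat hr h0
  rw [sub_self, zero_smul, add_zero] at h2
  have a1 := dsc_ray (a := 1) hsg hR zero_le_one (p := m.phi) (q := sm σ m'.phi) (r := r)
    (r' := cray m') (z := m'.s0) (by rw [one_mul, norm_sub_rev]; exact h1)
    (by rw [one_mul, rx_cray, norm_sub_rev]; exact h2)
  unfold dm
  linarith

/-- **the discrepancy dominates `dsc`** on every ray of `m'`, at every height of its cell. -/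
theorem le_Dd (h' : m'.Ok M 0) (hr : r ∈ m'.rays 0) (hz : |z - m'.s0| ≤ m'.R) {θ : ℝ}
    (h : ∀ σ : ℝ, Sg σ → m'.s1 * m'.R * θ ≤
      dsc (m'.sg * m'.R) m'.R m.phi (sm σ m'.phi) r z) : θ ≤ Dd m m' := by
  have hw : 0 < m'.s1 * m'.R := mul_pos h'.hs1 h'.hR
  unfold Dd
  rw [le_div_iff₀ hw]
  have h1 := (h 1 (Or.inl rfl)).trans (dsc_le_dm h' hr hz)
  have h2 := (h (-1) (Or.inr rfl)).trans (dsc_le_dm h' hr hz)
  rcases min_choice (dm m m' 1) (dm m m' (-1)) with e | e <;> rw [e] <;> linarith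

theorem dm_of_Dd (h' : m'.Ok M 0) {X : ℝ} (hX : X ≤ Dd m m') (hσ : Sg σ) :
    X * (m'.s1 * m'.R) ≤ 9 * dm m m' σ := by
  have hw : 0 < m'.s1 * m'.R := mul_pos h'.hs1 h'.hR
  unfold Dd at hX
  rw [le_div_iff₀ hw] at hX
  refine hX.trans (mul_le_mul_of_nonneg_left ?_ (by norm_num))
  rcases hσ with rfl | rfl
  · exact min_le_left _ _
  · exact min_le_right _ _

theorem dm_of_Dd' (h' : m'.Ok M 0) {X : ℝ} (hX : Dd m m' ≤ X) :
    ∃ σ : ℝ, Sg σ ∧ 9 * dm m m' σ ≤ X * (m'.s1 * m'.R) := by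
  have hw : 0 < m'.s1 * m'.R := mul_pos h'.hs1 h'.hR
  unfold Dd at hX
  rw [div_le_iff₀ hw] at hX
  rcases min_choice (dm m m' 1) (dm m m' (-1)) with e | e
  · exact ⟨1, Or.inl rfl, by rw [← e]; exact hX⟩
  · exact ⟨-1, Or.inr rfl, by rw [← e]; exact hX⟩

end ray

/-! ### the sub-members of smaller aperture -/

/-- the member of aperture `sg 2^-k` around the ray `r`. -/
noncomputable def sub (m : Mem) (k : ℕ) (r : LRay) : Mem where
  c := r.1
  sg := m.sg * (1 / 2 : ℝ) ^ k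
  s1 := m.s1
  R := m.R
  X0 := rpos r m.s0
  s0 := m.s0
  phi := m.phi

theorem sub_adm {ρ : ℝ} {i : ℕ} {J : ℤ} {a : Fin 2 → ℕ} {m : Mem} (h : AdmL ρ i J a m) {k : ℕ}
    {r : LRay} (hr : r ∈ m.rays 0) (hk : 100 * m.s1 ≤ m.sg * (1 / 2 : ℝ) ^ k) :
    AdmL ρ i J ![a 0 + k, a 1] (sub m k r) := by
  have hR := h.ok.hR
  have hsg := sg_pos h.ok
  have hs1 := h.ok.hs1
  have h0 := self_s0 h.ok
  have hp : (0:ℝ) < (1 / 2 : ℝ) ^ k := by positivity
  have hp1 : (1 / 2 : ℝ) ^ k ≤ 1 := pow_le_one₀ (by norm_num) (by norm_num)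
  have hle : m.sg * (1 / 2 : ℝ) ^ k ≤ m.sg := mul_le_of_le_one_right hsg.le hp1
  have hpos : 0 < m.sg * (1 / 2 : ℝ) ^ k := by positivity
  refine ⟨⟨hR, hs1, ?_, ?_⟩, h.hR, h.hs0, hle.trans h.sg1, ?_, ?_, h.res, ?_, ?_⟩
  · show m.s1 ≤ m.sg * (1 / 2 : ℝ) ^ k
    linarith
  · refine ⟨h.ok.adm.disc, ?_, ?_, ?_⟩
    · intro s hs
      show |m.phi.ny s| * (sub m k r).T 0 ≤ kM0 * (m.sg * (1 / 2 : ℝ) ^ k)
      rw [T0]
      show |m.phi.ny s| * (m.sg * (1 / 2 : ℝ) ^ k) ^ 2 ≤ kM0 * (m.sg * (1 / 2 : ℝ) ^ k)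
      have h1 := ny_le h.ok hs
      have h2 := mul_le_mul_of_nonneg_left hle (abs_nonneg (m.phi.ny s))
      have h3 := mul_le_mul_of_nonneg_right (h2.trans h1) hpos.le
      calc |m.phi.ny s| * (m.sg * (1 / 2 : ℝ) ^ k) ^ 2
          = |m.phi.ny s| * (m.sg * (1 / 2 : ℝ) ^ k) * (m.sg * (1 / 2 : ℝ) ^ k) := by ring
        _ ≤ _ := h3
    · show |m.phi.ld r.1 (lat (rpos r m.s0)) ((rpos r m.s0) 2) m.s0| ≤
        kM0 * (m.sg * (1 / 2 : ℝ) ^ k)
      rw [lat_rpos, rpos_two, slr_eq]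
      have := ray_slr hR hr
      unfold kM0
      linarith
    · show |m.phi.ev (lat (rpos r m.s0)) ((rpos r m.s0) 2) m.s0| ≤
        kM0 * (m.sg * (1 / 2 : ℝ) ^ k) * m.R
      rw [lat_rpos, rpos_two]
      have h1 : |evr m.phi r m.s0| ≤ m.s1 * m.R := ray_val hr h0
      refine h1.trans (mul_le_mul_of_nonneg_right ?_ hR.le)
      unfold kM0
      linarith
  · show m.sg * (1 / 2 : ℝ) ^ k * m.R = (1 / 2 : ℝ) ^ (a 0 + k)
    rw [pow_add, ← h.wide]; ring
  · show m.s1 * m.R = (1 / 2 : ℝ) ^ (a 1)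
    exact h.thin
  · show |m.phi.d| * (m.sg * (1 / 2 : ℝ) ^ k * m.R) ≤ kD
    refine le_trans (mul_le_mul_of_nonneg_left ?_ (abs_nonneg _)) h.dd
    exact mul_le_mul_of_nonneg_right hle hR.le
  · show |m.phi.ny m.s0| * (m.sg * (1 / 2 : ℝ) ^ k) ≤ 2 * kD
    exact le_trans (mul_le_mul_of_nonneg_left hle (abs_nonneg _)) h.nn

/-- monotony of `RayIn` in the aperture. -/
theorem rayIn_mono {c : E2} {sg T R w sg' T' w' : ℝ} {x0 : E2} {y0 s0 : ℝ} {p : Cf E2}
    {C a : E2} {k : ℝ} (h : RayIn c sg T R x0 y0 s0 p w C a k) (hR : 0 ≤ R) (h1 : sg ≤ sg')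
    (h2 : T ≤ T') (h3 : w ≤ w') : RayIn c sg' T' R x0 y0 s0 p w' C a k := by
  obtain ⟨a1, a2⟩ := h
  refine ⟨a1.trans h1, fun s hs => ?_⟩
  obtain ⟨⟨b1, b2, b3⟩, b4⟩ := a2 s hs
  exact ⟨⟨b1, b2.trans (mul_le_mul_of_nonneg_right h1 hR),
    b3.trans (mul_le_mul_of_nonneg_right h2 hR)⟩, b4.trans h3⟩

theorem sub_ray {m : Mem} (hR : 0 < m.R) (hsg : 0 < m.sg) {k : ℕ} {r r' : LRay} {σ : ℝ}
    (hσ0 : 0 ≤ σ) (hσ : 2 * σ ≤ (1 / 2 : ℝ) ^ k)
    (h : RayIn r.1 (2 * σ * m.sg) ((2 * σ * m.sg) ^ 2) m.R (rx r.1 r.2.1 m.s0)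
      (ry r.1 r.2.2 m.s0) m.s0 m.phi (m.s1 * m.R) r'.1 r'.2.1 r'.2.2) :
    r' ∈ (sub m k r).rays 0 := by
  rw [Mem.mem_rays]
  show RayIn r.1 (m.sg * (1 / 2 : ℝ) ^ k) ((sub m k r).T 0) m.R (lat (rpos r m.s0))
    ((rpos r m.s0) 2) m.s0 m.phi (m.s1 * m.R) r'.1 r'.2.1 r'.2.2
  rw [T0, lat_rpos, rpos_two]
  show RayIn r.1 (m.sg * (1 / 2 : ℝ) ^ k) ((m.sg * (1 / 2 : ℝ) ^ k) ^ 2) m.R _ _ m.s0 m.phi
    (m.s1 * m.R) r'.1 r'.2.1 r'.2.2
  have h1 : 2 * σ * m.sg ≤ m.sg * (1 / 2 : ℝ) ^ k := by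
    rw [mul_comm m.sg]
    exact mul_le_mul_of_nonneg_right hσ hsg.le
  exact rayIn_mono h hR.le h1 (pow_le_pow_left₀ (by positivity) h1 2) le_rfl

/-! ### SHARE for two members -/

/-- the values of the function of `m'` along a ray of `m'`, over the long cell. -/
theorem ext_val {M : ℝ} {m' : Mem} (h' : m'.Ok M 0) {r : LRay} (hr : r ∈ m'.rays 0) {s0 R s : ℝ}
    (hR : m'.R ≤ R) (h0 : |m'.s0 - s0| ≤ R) (hs : |s - s0| ≤ R) :
    |evr m'.phi r s| ≤ 3 * (m'.s1 * R) := by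
  have h1 := ray_val hr (self_s0 h')
  have h2 := ray_slr h'.hR hr
  rw [evr_move m'.phi r m'.s0 s]
  refine (abs_add_le _ _).trans ?_
  rw [abs_mul]
  have h3 : |s - m'.s0| ≤ 2 * R := by
    have e : s - m'.s0 = (s - s0) - (m'.s0 - s0) := by ring
    rw [e]
    exact (abs_sub _ _).trans (by linarith)
  have h4 := mul_le_mul h3 h2 (abs_nonneg _) ((abs_nonneg _).trans h3)
  have h5 := mul_le_mul_of_nonneg_left hR h'.hs1.le
  nlinarith

/-- ratios of two members. -/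
structure Rat (Λ : ℝ) (m m' : Mem) : Prop where
  one : 1 ≤ Λ
  s0 : |m'.s0 - m.s0| ≤ m.R
  R1 : m'.R ≤ m.R
  R2 : m.R ≤ Λ * m'.R
  g1 : m.sg ≤ Λ * m'.sg
  g2 : m'.sg ≤ Λ * m.sg
  t1 : m.s1 ≤ Λ * m'.s1
  t2 : m'.s1 ≤ Λ * m.s1

/-- lower bound of helper334's `nd` on a common ray. -/
theorem nd_lower {M Λ X : ℝ} {m m' : Mem} (hm : 0 < m.R) (hmg : 0 < m.sg) (h' : m'.Ok M 0)
    (hρ : Rat Λ m m') {r : LRay} (hr : r ∈ m'.rays 0) (hX : X ≤ Dd m m') {e : ℝ} (he : Sg e) :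
    X * m'.s1 / (81 * Λ * m'.sg) ≤ Tc334.nd m.sg m.R m.s0 e m.phi m'.phi r := by
  have hΛ := hρ.one
  have hR' := h'.hR
  have hsg' := sg_pos h'
  have hs1' := h'.hs1
  have h1 := dm_of_Dd h' hX he
  have h2 := dm_le_dsc (m := m) (σ := e) h' hr
  have h3 : X * (m'.s1 * m'.R) ≤ 27 * dsc (m'.sg * m'.R) m'.R m.phi (sm e m'.phi) r m'.s0 := by
    linarith
  set P := dif m.phi (sm e m'.phi) with hP
  -- the quantities
  have hnd : Tc334.nd m.sg m.R m.s0 e m.phi m'.phi r =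
      ‖grr P r‖ + |P.ny m.s0| * m.sg + |P.d| * (m.sg * m.R) := by
    unfold Tc334.nd
    have hes : e * e = 1 := he.sq
    have hea : |e| = 1 := he.abs
    have e1 : m'.phi.gr r.1 (rx r.1 r.2.1 m.s0) m.s0 - e • m.phi.gr r.1 (rx r.1 r.2.1 m.s0) m.s0 =
        (-e) • grr P r := by
      rw [grr_eq, grr_eq, hP, dif_grr, sm_grr, smul_sub, smul_smul, neg_mul, hes]
      module
    have e2 : m'.phi.ny m.s0 - e * m.phi.ny m.s0 = (-e) * P.ny m.s0 := by
      rw [hP, dif_ny, sm_ny]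
      have : -e * (m.phi.ny m.s0 - e * m'.phi.ny m.s0) =
        (e * e) * m'.phi.ny m.s0 - e * m.phi.ny m.s0 := by ring
      rw [this, hes]; ring
    have e3 : m'.phi.d - e * m.phi.d = (-e) * P.d := by
      rw [hP, dif_d, sm_d]
      have : -e * (m.phi.d - e * m'.phi.d) = (e * e) * m'.phi.d - e * m.phi.d := by ring
      rw [this, hes]; ring
    rw [e1, e2, e3, norm_smul, abs_mul, abs_mul, Real.norm_eq_abs, abs_neg, hea]
    ring
  rw [hnd]
  unfold dsc at h3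
  rw [← hP] at h3
  have h4 := abs_ny_move P m.s0 m'.s0
  have h5 : |P.ny m'.s0| ≤ |P.ny m.s0| + 2 * |P.d| * m.R :=
    h4.trans (by
      have := mul_le_mul_of_nonneg_left hρ.s0 (by positivity : 0 ≤ 2 * |P.d|)
      linarith)
  have e1 : (m'.sg * m'.R) ^ 2 / m'.R = m'.sg * (m'.sg * m'.R) := by field_simp
  rw [e1] at h3
  have h6 : X * m'.s1 ≤ 27 * (m'.sg * (‖grr P r‖ + m'.sg * |P.ny m'.s0| +
      m'.sg * m'.R * |P.d|)) := by
    have : X * m'.s1 * m'.R ≤ 27 * (m'.sg * (‖grr P r‖ + m'.sg * |P.ny m'.s0| +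
      m'.sg * m'.R * |P.d|)) * m'.R := by nlinarith
    exact le_of_mul_le_mul_right this hR'
  have hd0 := abs_nonneg P.d
  have hn0 := abs_nonneg (P.ny m.s0)
  have hg0 := norm_nonneg (grr P r)
  have k1 : m'.sg * |P.ny m'.s0| ≤ Λ * (|P.ny m.s0| * m.sg) + 2 * (Λ * (|P.d| * (m.sg * m.R))) := by
    have a1 := mul_le_mul hρ.g2 h5 (abs_nonneg _) (by positivity)
    nlinarith
  have k2 : m'.sg * m'.R * |P.d| ≤ Λ * (|P.d| * (m.sg * m.R)) := by
    have a1 : m'.sg * m'.R ≤ Λ * m.sg * m.R := mul_le_mul hρ.g2 hρ.R1 hR'.le (by positivity)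
    have := mul_le_mul_of_nonneg_right a1 hd0
    linarith
  have k3 : ‖grr P r‖ ≤ Λ * ‖grr P r‖ := le_mul_of_one_le_left hg0 hΛ
  have k4 : ‖grr P r‖ + m'.sg * |P.ny m'.s0| + m'.sg * m'.R * |P.d| ≤
      3 * Λ * (‖grr P r‖ + |P.ny m.s0| * m.sg + |P.d| * (m.sg * m.R)) := by
    have : 0 ≤ Λ * ‖grr P r‖ := by positivity
    have : 0 ≤ Λ * (|P.ny m.s0| * m.sg) := by positivity
    linarith
  rw [div_le_iff₀ (by positivity)]
  have k5 := mul_le_mul_of_nonneg_left k4 hsg'.le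
  linarith

set_option maxRecDepth 8000 in
open Classical in
/-- **SHARE for two members**: common rays of two members of discrepancy at least `X`. -/
theorem share_mem {ρ q Λ X N0 : ℝ} {i i' : ℕ} {J J' : ℤ} {a a' : Fin 2 → ℕ} {m m' : Mem}
    (h : AdmL ρ i J a m) (h' : AdmL ρ i' J' a' m') (hρ : Rat Λ m m') (hq0 : 0 ≤ q) (hq2 : q ≤ 2)
    (hX0 : 0 < X) (hX : X ≤ Dd m m') (hN0 : 0 ≤ N0) (ray : ℕ → LRay) (T : Finset ℕ)
    (hT : ∀ t ∈ T, ray t ∈ m.rays 0 ∧ ray t ∈ m'.rays 0)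
    (hD0 : (T.card : ℝ) ≤ N0)
    (hD : ∀ (k : ℕ) (m1 : Mem), AdmL ρ i J ![a 0 + k, a 1] m1 →
      ((T.filter fun t => ray t ∈ m1.rays 0).card : ℝ) ≤ N0 * (2 : ℝ) ^ (-(3 + q) * k)) :
    (T.card : ℝ) ≤ 10 ^ 200 * Λ ^ 48 * N0 * X ^ (-(1 + q / 2)) := by
  have hR := h.ok.hR
  have hR' := h'.ok.hR
  have hsg := sg_pos h.ok
  have hsg' := sg_pos h'.ok
  have hs1 := h.ok.hs1
  have hs1' := h'.ok.hs1
  have hΛ := hρ.one
  have hΛ0 : 0 < Λ := by linarith
  have h00 := self_s0 h.ok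
  have h00' := self_s0 h'.ok
  have key := Tc334.share_ray' (ray := ray) (T := T) (c := m.c) (x0 := lat m.X0) (y0 := m.X0 2)
    (s0 := m.s0) (sg := m.sg) (s1 := 3 * Λ * m.s1) (R := m.R) (M := 2 * Λ ^ 2)
    (N0 := 4 ^ 5 * N0) (q := q) (α := X * m'.s1 / (81 * Λ * m'.sg)) (p0 := m.phi) (p1 := m'.phi)
    (by nlinarith) hR hsg (by positivity) (by positivity) (by positivity) hq0 hq2
    h.ok.adm.disc h'.ok.adm.disc
    (by
      have := h.nn
      unfold kD at this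
      nlinarith)
    (by
      have := h.dd
      unfold kD at this
      nlinarith)
    (by
      -- ∂_y φ' at the centre of the long cell
      have a1 := abs_ny_move m'.phi m'.s0 m.s0
      have a2 := h'.nn
      have a3 := h'.dd
      unfold kD at a2 a3
      have a4 : |m'.phi.ny m.s0| ≤ |m'.phi.ny m'.s0| + 2 * |m'.phi.d| * (Λ * m'.R) := by
        refine a1.trans (add_le_add le_rfl (mul_le_mul_of_nonneg_left ?_ (by positivity)))
        rw [abs_sub_comm]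
        exact hρ.s0.trans hρ.R2
      have a5 := mul_le_mul_of_nonneg_right a4 hsg.le
      have a6 := mul_le_mul_of_nonneg_left hρ.g1 (abs_nonneg (m'.phi.ny m'.s0))
      have a7 := mul_le_mul_of_nonneg_left hρ.g1
        (by positivity : 0 ≤ 2 * |m'.phi.d| * (Λ * m'.R))
      have a8 : |m'.phi.ny m'.s0| * (Λ * m'.sg) ≤ Λ * (2 * (1 / 400)) := by
        have := mul_le_mul_of_nonneg_left a2 hΛ0.le
        linarith
      have a9 : 2 * |m'.phi.d| * (Λ * m'.R) * (Λ * m'.sg) ≤ Λ ^ 2 * (2 * (1 / 400)) := by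
        have := mul_le_mul_of_nonneg_left a3 (by positivity : 0 ≤ 2 * Λ ^ 2)
        linarith
      nlinarith)
    (by
      have a3 := h'.dd
      unfold kD at a3
      have a4 : m.sg * m.R ≤ (Λ * m'.sg) * (Λ * m'.R) :=
        mul_le_mul hρ.g1 hρ.R2 hR.le (by positivity)
      have a5 := mul_le_mul_of_nonneg_left a4 (abs_nonneg m'.phi.d)
      have a6 := mul_le_mul_of_nonneg_left a3 (by positivity : 0 ≤ Λ ^ 2)
      nlinarith)
    (by
      intro t ht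
      have h1 := Mem.mem_rays.1 (hT t ht).1
      rw [T0] at h1
      refine rayIn_mono h1 hR.le le_rfl le_rfl (mul_le_mul_of_nonneg_right ?_ hR.le)
      nlinarith)
    (by
      intro t ht s hs
      have h1 := ext_val h'.ok (hT t ht).2 (R := m.R) (s0 := m.s0) (s := s) hρ.R1 hρ.s0 hs
      refine h1.trans ?_
      have h2 := mul_le_mul_of_nonneg_right hρ.t2 hR.le
      linarith)
    (by linarith)
    (by
      intro t0 ht0 σ hσ1 hσ2 T' hT' hj
      have hσ0 : 0 < σ := by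
        by_contra hc
        push Not at hc
        have : 0 < 100 * (3 * Λ * m.s1) := by positivity
        nlinarith
      obtain ⟨k, hk1, hk2⟩ := exists_nat_pow_near_of_lt_one (x := 2 * σ) (y := (1 / 2 : ℝ))
        (by linarith) (by linarith) (by norm_num) (by norm_num)
      have hpk : (0:ℝ) < (1 / 2 : ℝ) ^ k := by positivity
      have hks : 100 * m.s1 ≤ m.sg * (1 / 2 : ℝ) ^ k := by
        have a1 := mul_le_mul_of_nonneg_left hk2 hsg.le
        nlinarith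
      have hadm := sub_adm h (r := ray t0) (hT t0 ht0).1 hks
      have h1 := hD k _ hadm
      have h2 : T'.card ≤ (T.filter fun t => ray t ∈ (sub m k (ray t0)).rays 0).card := by
        refine card_le_card fun t ht => ?_
        rw [mem_filter]
        refine ⟨hT' ht, sub_ray hR hsg hσ0.le hk2 ?_⟩
        have b1 := hj t ht
        refine ⟨b1.1, fun s hs => ⟨(b1.2 s hs).1, ?_⟩⟩
        exact ((Mem.mem_rays.1 (hT t (hT' ht)).1).2 s hs).2
      have h3 : (T'.card : ℝ) ≤ N0 * (2 : ℝ) ^ (-(3 + q) * k) :=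
        le_trans (by exact_mod_cast h2) h1
      refine h3.trans ?_
      have e1 : (2 : ℝ) ^ (-(3 + q) * (k : ℝ)) = ((1 / 2 : ℝ) ^ k) ^ (3 + q) := by
        rw [← Real.rpow_natCast, ← Real.rpow_mul (by norm_num), one_div, Real.inv_rpow (by norm_num),
          ← Real.rpow_neg (by norm_num)]
        congr 1
        ring
      rw [e1]
      have e2 : (1 / 2 : ℝ) ^ k ≤ 4 * σ := by
        rw [pow_succ] at hk1
        linarith
      have e3 : ((1 / 2 : ℝ) ^ k) ^ (3 + q) ≤ 4 ^ 5 * σ ^ (3 + q) := by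
        calc ((1 / 2 : ℝ) ^ k) ^ (3 + q) ≤ (4 * σ) ^ (3 + q) :=
              Real.rpow_le_rpow hpk.le e2 (by linarith)
          _ = 4 ^ (3 + q) * σ ^ (3 + q) := Real.mul_rpow (by norm_num) hσ0.le
          _ ≤ 4 ^ (5 : ℝ) * σ ^ (3 + q) := by
              refine mul_le_mul_of_nonneg_right ?_ (by positivity)
              exact Real.rpow_le_rpow_of_exponent_le (by norm_num) (by linarith)
          _ = 4 ^ 5 * σ ^ (3 + q) := by norm_num
      have := mul_le_mul_of_nonneg_left e3 hN0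
      linarith)
    (by
      intro e he t ht
      exact nd_lower hR hsg h'.ok hρ (hT t ht).2 hX he)
  refine key.trans ?_
  -- numbers
  have hx : 3 * Λ * m.s1 / (m.sg * (X * m'.s1 / (81 * Λ * m'.sg))) ≤ 243 * Λ ^ 4 / X := by
    have e1 : 3 * Λ * m.s1 / (m.sg * (X * m'.s1 / (81 * Λ * m'.sg))) =
        243 * Λ ^ 2 * ((m.s1 * m'.sg) / (m.sg * m'.s1)) / X := by
      field_simp
      ring
    rw [e1]
    refine div_le_div_of_nonneg_right ?_ hX0.le
    have h1 : m.s1 * m'.sg / (m.sg * m'.s1) ≤ Λ ^ 2 := by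
      rw [div_le_iff₀ (by positivity)]
      have := mul_le_mul hρ.t1 hρ.g2 hsg'.le (by positivity)
      linarith
    have := mul_le_mul_of_nonneg_left h1 (by positivity : 0 ≤ 243 * Λ ^ 2)
    linarith
  have hx0 : 0 ≤ 3 * Λ * m.s1 / (m.sg * (X * m'.s1 / (81 * Λ * m'.sg))) := by positivity
  have hy : (3 * Λ * m.s1 / (m.sg * (X * m'.s1 / (81 * Λ * m'.sg)))) ^ (1 + q / 2) ≤
      (243 * Λ ^ 4) ^ 2 * X ^ (-(1 + q / 2)) := by
    refine (Real.rpow_le_rpow hx0 hx (by linarith)).trans ?_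
    rw [Real.div_rpow (by positivity) hX0.le, Real.rpow_neg hX0.le, div_eq_mul_inv]
    refine mul_le_mul_of_nonneg_right ?_ (by positivity)
    have h1 : (1:ℝ) ≤ 243 * Λ ^ 4 := by
      have : 1 ≤ Λ ^ 4 := one_le_pow₀ hΛ
      linarith
    calc (243 * Λ ^ 4) ^ (1 + q / 2) ≤ (243 * Λ ^ 4) ^ (2 : ℝ) :=
          Real.rpow_le_rpow_of_exponent_le h1 (by linarith)
      _ = (243 * Λ ^ 4) ^ 2 := by norm_cast
  have hKS : Tc334.KS (18 * (2 * Λ ^ 2)) = 10 ^ 100 * 36 ^ 20 * Λ ^ 40 := by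
    unfold Tc334.KS
    ring
  rw [hKS]
  have hX1 : 0 < X ^ (-(1 + q / 2)) := Real.rpow_pos_of_pos hX0 _
  calc 9 * (10 ^ 100 * 36 ^ 20 * Λ ^ 40) * (4 ^ 5 * N0) *
        (3 * Λ * m.s1 / (m.sg * (X * m'.s1 / (81 * Λ * m'.sg)))) ^ (1 + q / 2)
      ≤ 9 * (10 ^ 100 * 36 ^ 20 * Λ ^ 40) * (4 ^ 5 * N0) *
        ((243 * Λ ^ 4) ^ 2 * X ^ (-(1 + q / 2))) :=
        mul_le_mul_of_nonneg_left hy (by positivity)
    _ = (9 * 10 ^ 100 * 36 ^ 20 * 4 ^ 5 * 243 ^ 2) * (Λ ^ 48 * N0 * X ^ (-(1 + q / 2))) := by ring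
    _ ≤ 10 ^ 200 * (Λ ^ 48 * N0 * X ^ (-(1 + q / 2))) := by
        refine mul_le_mul_of_nonneg_right (by norm_num) (by positivity)
    _ = _ := by ring

end Crest.Agent.R116.Td809
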