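import Crest.Agent.R116.Td1_809
import Crest.Agent.R116.Td3_809
import Crest.Agent.R116.Gd1_222

/-!
# R116, K side, TILT, part 4 (helper809): NUMBER for light-ray members

`dil_of` : the rays of a member `m'` (short cell) which meets `m` (long cell) with discrepancy `≤ 2X`
lie in a dilate of the box of `m` and have values `≤ 678 X Λ³ s1 R` of the function of `m`.
`number_mem` : the number of such rays, from the D-max over the long cell: `≤ C Λ^16 X^(1+q') N0`.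
-/

set_option autoImplicit false
set_option linter.unusedVariables false

open Finset

namespace Crest.Agent.R116.Td809

open Crest.Agent.R138.Defs (E2)
open Crest.Agent.R116.CDef480 (E3 lat pt normsq2 inner2)
open Crest.Agent.R116.LZg725
open Crest.Agent.R116.Bm903
open Crest.Agent.R116.KI439
open Crest.Agent.R116.KF439

/-! ### rays in a dilate of a member -/

/-- the ray `r` lies in the `L`-dilate of the box of `m` and has values `≤ κ s1 R`. -/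
structure Dil (L κ : ℝ) (m : Mem) (r : LRay) : Prop where
  c : ‖r.1 - m.c‖ ≤ L * m.sg
  x : ‖rx r.1 r.2.1 m.s0 - lat m.X0‖ ≤ L * (m.sg * m.R)
  n : |nrm m.c (rx r.1 r.2.1 m.s0) (ry r.1 r.2.2 m.s0) m.s0 - nrm m.c (lat m.X0) (m.X0 2) m.s0| ≤
    L ^ 2 * (m.sg ^ 2 * m.R)
  v : ∀ s, |s - m.s0| ≤ m.R → |evr m.phi r s| ≤ κ * (m.s1 * m.R)

/-- sizes of the difference of the two functions on a common ray. -/
theorem dil_cf {M M' Λ X : ℝ} {m m' : Mem} (h : m.Ok M 0) (h' : m'.Ok M' 0) (hρ : Rat Λ m m')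
    (hX : 1 ≤ X) {σ : ℝ} (hσ : Sg σ) {r0 : LRay} (h0 : r0 ∈ m.rays 0) (h0' : r0 ∈ m'.rays 0)
    (h11 : dsc (m'.sg * m'.R) m'.R m.phi (sm σ m'.phi) r0 m'.s0 ≤ X * (m'.s1 * m'.R)) :
    CfB (2 * Λ ^ 2 * X * m'.s1) m'.sg m'.R (dif m.phi (sm σ m'.phi)) r0 m'.s0 := by
  have hΛ := hρ.one
  have hΛ0 : 0 < Λ := by linarith
  have hR := h.hR
  have hR' := h'.hR
  have hsg' := sg_pos h'
  have hs1 := h.hs1
  have hs1' := h'.hs1
  have c00' := self_s0 h'
  have hX0 : 0 < X := by linarith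
  obtain ⟨s1, s2, s3⟩ := slots_of_dsc (by positivity) hR' h11
  set P := dif m.phi (sm σ m'.phi) with hP
  have hΛ2 : 1 ≤ Λ ^ 2 := one_le_pow₀ hΛ
  have hΛ2X : Λ ^ 2 ≤ Λ ^ 2 * X := le_mul_of_one_le_right (by positivity) hX
  have hΛΛ : Λ ≤ Λ ^ 2 := by rw [pow_two]; exact le_mul_of_one_le_left hΛ0.le hΛ
  set A := 2 * Λ ^ 2 * X * m'.s1 with hA
  have hA0 : 0 < A := by positivity
  have hXA : X * m'.s1 ≤ A := by
    rw [hA]
    have h1 : 1 ≤ 2 * Λ ^ 2 := by linarith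
    have := mul_le_mul_of_nonneg_right h1 (by positivity : 0 ≤ X * m'.s1)
    linarith
  have v1 := ray_val h0 hρ.s0
  have v2 := ray_val h0' c00'
  have v3 := ray_slr hR h0
  have v4 := ray_slr hR' h0'
  have w1 : m.s1 ≤ Λ ^ 2 * X * m'.s1 :=
    hρ.t1.trans (mul_le_mul_of_nonneg_right (hΛΛ.trans hΛ2X) hs1'.le)
  have w2 : m'.s1 ≤ Λ ^ 2 * X * m'.s1 := le_mul_of_one_le_left hs1'.le (hΛ2.trans hΛ2X)
  have w3 : m.s1 * m.R ≤ Λ ^ 2 * X * m'.s1 * m'.R := by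
    have a1 := mul_le_mul hρ.t1 hρ.R2 hR.le (by positivity)
    have a2 : Λ ^ 2 * m'.s1 * m'.R ≤ X * (Λ ^ 2 * m'.s1 * m'.R) :=
      le_mul_of_one_le_left (by positivity) hX
    calc m.s1 * m.R ≤ Λ * m'.s1 * (Λ * m'.R) := a1
      _ = Λ ^ 2 * m'.s1 * m'.R := by ring
      _ ≤ X * (Λ ^ 2 * m'.s1 * m'.R) := a2
      _ = _ := by ring
  have w4 := mul_le_mul_of_nonneg_right w2 hR'.le
  refine ⟨?_, ?_, ?_, ?_, ?_⟩
  · rw [hP, dif_evr, sm_evr]
    refine (abs_sub _ _).trans ?_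
    rw [abs_mul, hσ.abs, one_mul]
    calc |evr m.phi r0 m'.s0| + |evr m'.phi r0 m'.s0| ≤ m.s1 * m.R + m'.s1 * m'.R :=
          add_le_add v1 v2
      _ ≤ Λ ^ 2 * X * m'.s1 * m'.R + Λ ^ 2 * X * m'.s1 * m'.R := add_le_add w3 w4
      _ = A * m'.R := by rw [hA]; ring
  · rw [hP, dif_slr]
    have e : slr (sm σ m'.phi) r0 = σ * slr m'.phi r0 := by
      have e1 := evr_move (sm σ m'.phi) r0 0 1
      have e2 := evr_move m'.phi r0 0 1
      rw [sm_evr, sm_evr, e2] at e1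
      linarith
    rw [e]
    refine (abs_sub _ _).trans ?_
    rw [abs_mul, hσ.abs, one_mul]
    calc |slr m.phi r0| + |slr m'.phi r0| ≤ m.s1 + m'.s1 := add_le_add v3 v4
      _ ≤ Λ ^ 2 * X * m'.s1 + Λ ^ 2 * X * m'.s1 := add_le_add w1 w2
      _ = A := by rw [hA]; ring
  · refine s1.trans ?_
    have e : X * (m'.s1 * m'.R) / (m'.sg * m'.R) = X * m'.s1 / m'.sg := by field_simp
    rw [e]
    exact div_le_div_of_nonneg_right hXA hsg'.le
  · refine s2.trans ?_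
    have e : X * (m'.s1 * m'.R) * m'.R / (m'.sg * m'.R) ^ 2 = X * m'.s1 / m'.sg ^ 2 := by
      field_simp
    rw [e]
    exact div_le_div_of_nonneg_right hXA (by positivity)
  · refine s3.trans ?_
    have e : X * (m'.s1 * m'.R) / (m'.sg * m'.R) ^ 2 = X * m'.s1 / (m'.sg ^ 2 * m'.R) := by
      field_simp
    rw [e]
    exact div_le_div_of_nonneg_right hXA (by positivity)

/-- the values of the function of `m` on the rays of `m'`. -/
theorem dil_val {M M' Λ X : ℝ} {m m' : Mem} (h : m.Ok M 0) (h' : m'.Ok M' 0) (hρ : Rat Λ m m')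
    (hX : 1 ≤ X) (hD : Dd m m' ≤ 2 * X) {r0 r : LRay} (h0 : r0 ∈ m.rays 0) (h0' : r0 ∈ m'.rays 0)
    (hr : r ∈ m'.rays 0) {s : ℝ} (hs : |s - m.s0| ≤ m.R) :
    |evr m.phi r s| ≤ 700 * Λ ^ 3 * X * (m.s1 * m.R) := by
  have hΛ := hρ.one
  have hΛ0 : 0 < Λ := by linarith
  have hR := h.hR
  have hR' := h'.hR
  have hsg' := sg_pos h'
  have hs1 := h.hs1
  have hs1' := h'.hs1
  have c00' := self_s0 h'
  have hX0 : 0 < X := by linarith
  have f1 := two_slope h0' hr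
  have f2 := two_lat h0' hr c00'
  have f3 := two_nur h0' hr c00'
  rw [T0] at f3
  have f3' : |nur r0 r m'.s0| ≤ 4 * (m'.sg ^ 2 * m'.R) := by linarith
  obtain ⟨σ, hσ, h9⟩ := dm_of_Dd' h' hD
  have h10 := dsc_ray (a := 1) hsg' hR' zero_le_one (p := m.phi) (q := sm σ m'.phi)
    (r := cray m') (r' := r0) (z := m'.s0) (by rw [one_mul]; exact ray_slope h0')
    (by
      rw [one_mul, rx_cray]
      have := ray_lat h0' c00'
      rwa [sub_self, zero_smul, add_zero] at this)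
  have h11 : dsc (m'.sg * m'.R) m'.R m.phi (sm σ m'.phi) r0 m'.s0 ≤ X * (m'.s1 * m'.R) := by
    unfold dm at h9
    have : 0 ≤ X * (m'.s1 * m'.R) := by positivity
    linarith
  have hcf := dil_cf h h' hρ hX hσ h0 h0' h11
  have hA0 : 0 < 2 * Λ ^ 2 * X * m'.s1 := by positivity
  have a1 : 2 * Λ ^ 2 * X * m'.s1 ≤ 2 * Λ ^ 3 * X * m.s1 := by
    have := mul_le_mul_of_nonneg_left hρ.t2 (by positivity : 0 ≤ 2 * Λ ^ 2 * X)
    calc 2 * Λ ^ 2 * X * m'.s1 ≤ 2 * Λ ^ 2 * X * (Λ * m.s1) := this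
      _ = _ := by ring
  generalize 2 * Λ ^ 2 * X * m'.s1 = A at hcf hA0 a1
  set P := dif m.phi (sm σ m'.phi) with hP
  have hcf2 := hcf.ray (r' := r) hsg' hR' (k := 4) (by norm_num)
    (f1.trans (by linarith)) (f2.trans (by
      have : 0 < m'.sg * m'.R := by positivity
      linarith)) f3'
  have k1 : |evr P r s| ≤ 336 * A * m.R := by
    rw [evr_move P r m'.s0 s]
    refine (abs_add_le _ _).trans ?_
    rw [abs_mul]
    have a0 : |s - m'.s0| ≤ 2 * m.R := by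
      have e : s - m'.s0 = (s - m.s0) - (m'.s0 - m.s0) := by ring
      rw [e]
      exact (abs_sub _ _).trans (by linarith [hρ.s0])
    have b1 := mul_le_mul a0 hcf2.sl (abs_nonneg _) (by positivity)
    have b2 := hcf2.ev
    have b3 := mul_le_mul_of_nonneg_left hρ.R1 hA0.le
    calc |evr P r m'.s0| + |s - m'.s0| * |slr P r| ≤
          7 * 4 ^ 2 * A * m'.R + 2 * m.R * (7 * 4 ^ 2 * A) := add_le_add b2 b1
      _ = 112 * (A * m'.R) + 224 * A * m.R := by ring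
      _ ≤ 336 * A * m.R := by linarith
  have k2 := ext_val h' hr (R := m.R) (s0 := m.s0) (s := s) hρ.R1 hρ.s0 hs
  have e : evr m.phi r s = evr P r s + σ * evr m'.phi r s := by
    rw [hP, dif_evr, sm_evr]; ring
  rw [e]
  refine (abs_add_le _ _).trans ?_
  rw [abs_mul, hσ.abs, one_mul]
  have a2 : m'.s1 ≤ Λ ^ 3 * X * m.s1 := by
    refine hρ.t2.trans (mul_le_mul_of_nonneg_right ?_ hs1.le)
    have h1 : 1 ≤ Λ ^ 2 := one_le_pow₀ hΛ
    have h2 : Λ ≤ Λ ^ 3 := by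
      calc Λ = Λ * 1 := by ring
        _ ≤ Λ * Λ ^ 2 := mul_le_mul_of_nonneg_left h1 hΛ0.le
        _ = Λ ^ 3 := by ring
    exact h2.trans (le_mul_of_one_le_right (by positivity) hX)
  have a3 := mul_le_mul_of_nonneg_right a1 hR.le
  have a4 := mul_le_mul_of_nonneg_right a2 hR.le
  have a5 : 0 ≤ Λ ^ 3 * X * m.s1 * m.R := by positivity
  calc |evr P r s| + |evr m'.phi r s| ≤ 336 * A * m.R + 3 * (m'.s1 * m.R) := add_le_add k1 k2
    _ ≤ 336 * (2 * Λ ^ 3 * X * m.s1 * m.R) + 3 * (Λ ^ 3 * X * m.s1 * m.R) := by linarith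
    _ ≤ 700 * Λ ^ 3 * X * (m.s1 * m.R) := by linarith

theorem dil_of {M M' Λ X : ℝ} {m m' : Mem} (h : m.Ok M 0) (h' : m'.Ok M' 0) (hρ : Rat Λ m m')
    (hX : 1 ≤ X) (hD : Dd m m' ≤ 2 * X) {r0 r : LRay} (h0 : r0 ∈ m.rays 0) (h0' : r0 ∈ m'.rays 0)
    (hr : r ∈ m'.rays 0) : Dil (5 * Λ) (700 * Λ ^ 3 * X) m r := by
  have hΛ := hρ.one
  have hΛ0 : 0 < Λ := by linarith
  have hR := h.hR
  have hR' := h'.hR
  have hsg := sg_pos h
  have hsg' := sg_pos h'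
  have c00 := self_s0 h
  have c00' := self_s0 h'
  -- frame of `r0`
  have f1 := two_slope h0' hr
  have f2 := two_lat h0' hr c00'
  have f3 := two_nur h0' hr c00'
  rw [T0] at f3
  have f3' : |nur r0 r m'.s0| ≤ 4 * (m'.sg ^ 2 * m'.R) := by linarith
  have hgR : m'.sg * m'.R ≤ Λ * (m.sg * m.R) := by
    have := mul_le_mul hρ.g2 hρ.R1 hR'.le (by positivity)
    linarith
  have hgg : m'.sg ^ 2 ≤ Λ ^ 2 * m.sg ^ 2 := by
    have := pow_le_pow_left₀ hsg'.le hρ.g2 2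
    rwa [mul_pow] at this
  have hg2R : m'.sg ^ 2 * m'.R ≤ Λ ^ 2 * (m.sg ^ 2 * m.R) := by
    have a1 := mul_le_mul hgg hρ.R1 hR'.le (by positivity)
    linarith
  have hs00 : |m.s0 - m'.s0| ≤ m.R := by rw [abs_sub_comm]; exact hρ.s0
  have hRg : m.R * (2 * m'.sg) ≤ 2 * (Λ * (m.sg * m.R)) := by
    have := mul_le_mul_of_nonneg_left hρ.g2 hR.le
    linarith
  have b2 : ‖rx r.1 r.2.1 m.s0 - rx r0.1 r0.2.1 m.s0‖ ≤ 4 * (Λ * (m.sg * m.R)) := by
    rw [rx_move r0 r m'.s0 m.s0]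
    refine (norm_sub_le _ _).trans ?_
    rw [norm_smul, Real.norm_eq_abs]
    have a2 := mul_le_mul hs00 f1 (norm_nonneg _) hR.le
    linarith
  refine ⟨?_, ?_, ?_, fun s hs => dil_val h h' hρ hX hD h0 h0' hr hs⟩
  · have g1 := ray_slope h0
    have e : r.1 - m.c = (r.1 - r0.1) + (r0.1 - m.c) := by abel
    rw [e]
    refine (norm_add_le _ _).trans ?_
    have h1 := hρ.g2
    have h2 : m.sg ≤ Λ * m.sg := le_mul_of_one_le_left hsg.le hΛ
    linarith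
  · have g1 := ray_lat h0 c00
    rw [sub_self, zero_smul, add_zero] at g1
    have e : rx r.1 r.2.1 m.s0 - lat m.X0 = (rx r.1 r.2.1 m.s0 - rx r0.1 r0.2.1 m.s0) +
        (rx r0.1 r0.2.1 m.s0 - lat m.X0) := by abel
    rw [e]
    refine (norm_add_le _ _).trans ?_
    have a4 : m.sg * m.R ≤ Λ * (m.sg * m.R) := le_mul_of_one_le_left (by positivity) hΛ
    linarith
  · have g1 := ray_nrm h0 c00
    rw [T0] at g1
    have g2 := ray_slope h0
    have b1 : |nur r0 r m.s0| ≤ 6 * (Λ ^ 2 * (m.sg ^ 2 * m.R)) := by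
      rw [nur_move r0 r m'.s0 m.s0]
      refine (abs_add_le _ _).trans ?_
      rw [abs_mul, abs_of_nonneg (by positivity : 0 ≤ ‖r.1 - r0.1‖ ^ 2 / 2)]
      have a1 : ‖r.1 - r0.1‖ ^ 2 / 2 ≤ 2 * m'.sg ^ 2 := by
        have := pow_le_pow_left₀ (norm_nonneg _) f1 2
        rw [mul_pow] at this
        linarith
      have a2 := mul_le_mul hs00 a1 (by positivity) hR.le
      have a3 : m.R * (2 * m'.sg ^ 2) ≤ 2 * (Λ ^ 2 * (m.sg ^ 2 * m.R)) := by
        have := mul_le_mul_of_nonneg_left hgg hR.le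
        linarith
      linarith
    have e := nrm_two m.c r0.1 (rx r0.1 r0.2.1 m.s0) (rx r.1 r.2.1 m.s0) (ry r0.1 r0.2.2 m.s0)
      (ry r.1 r.2.2 m.s0) m.s0
    have e1 : nrm m.c (rx r.1 r.2.1 m.s0) (ry r.1 r.2.2 m.s0) m.s0 -
        nrm m.c (lat m.X0) (m.X0 2) m.s0 =
        (nur r0 r m.s0 + inner ℝ (m.c - r0.1) (rx r.1 r.2.1 m.s0 - rx r0.1 r0.2.1 m.s0)) +
        (nrm m.c (rx r0.1 r0.2.1 m.s0) (ry r0.1 r0.2.2 m.s0) m.s0 -
          nrm m.c (lat m.X0) (m.X0 2) m.s0) := by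
      unfold nur
      linarith
    rw [e1]
    refine (abs_add_le _ _).trans ?_
    have b3 := abs_add_le (nur r0 r m.s0)
      (inner ℝ (m.c - r0.1) (rx r.1 r.2.1 m.s0 - rx r0.1 r0.2.1 m.s0))
    have b4 : |inner ℝ (m.c - r0.1) (rx r.1 r.2.1 m.s0 - rx r0.1 r0.2.1 m.s0)| ≤
        m.sg * (4 * (Λ * (m.sg * m.R))) := by
      refine (abs_real_inner_le_norm _ _).trans (mul_le_mul ?_ b2 (norm_nonneg _) hsg.le)
      rw [norm_sub_rev]; exact g2
    have b5 : m.sg * (4 * (Λ * (m.sg * m.R))) ≤ 4 * (Λ ^ 2 * (m.sg ^ 2 * m.R)) := by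
      have h1 : Λ ≤ Λ ^ 2 := by rw [pow_two]; exact le_mul_of_one_le_left hΛ0.le hΛ
      have := mul_le_mul_of_nonneg_right h1 (by positivity : 0 ≤ m.sg ^ 2 * m.R)
      linarith
    have b6 : m.sg ^ 2 * m.R ≤ Λ ^ 2 * (m.sg ^ 2 * m.R) :=
      le_mul_of_one_le_left (by positivity) (one_le_pow₀ hΛ)
    have b7 : 0 ≤ Λ ^ 2 * (m.sg ^ 2 * m.R) := by positivity
    have e5 : (5 * Λ) ^ 2 * (m.sg ^ 2 * m.R) = 25 * (Λ ^ 2 * (m.sg ^ 2 * m.R)) := by ring
    rw [e5]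
    linarith

/-! ### two kinds of test sets -/

/-- the fat member around the ray `r`: the same function, thickness `s1 2^k`. -/
noncomputable def fat (m : Mem) (k : ℕ) (r : LRay) : Mem where
  c := r.1
  sg := m.sg
  s1 := m.s1 * 2 ^ k
  R := m.R
  X0 := rpos r m.s0
  s0 := m.s0
  phi := m.phi

/-- a unit vector -/
noncomputable def uv : E2 := !₂[1, 0]

theorem uv_norm : ‖uv‖ = 1 := by
  have h : ‖uv‖ ^ 2 = 1 := by
    rw [normsq2]
    unfold uv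
    norm_num
  nlinarith [norm_nonneg uv]

/-- the whole box around the ray `r`. -/
noncomputable def bx (m : Mem) (r : LRay) : Mem where
  c := r.1
  sg := m.sg
  s1 := m.sg
  R := m.R
  X0 := rpos r m.s0
  s0 := m.s0
  phi := Gd222.mk0 r.1 (rx r.1 r.2.1 m.s0) (ry r.1 r.2.2 m.s0) m.s0 uv 0 0

section tests

variable {ρ : ℝ} {i : ℕ} {J : ℤ} {a : Fin 2 → ℕ} {m : Mem} {r r' : LRay}

theorem bx_adm (h : AdmL ρ i J a m) (r : LRay) : AdmL ρ i J ![a 0, a 0] (bx m r) := by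
  have hR := h.ok.hR
  have hsg := sg_pos h.ok
  have hny : ∀ s, (bx m r).phi.ny s = 0 := by
    intro s
    show (Gd222.mk0 r.1 (rx r.1 r.2.1 m.s0) (ry r.1 r.2.2 m.s0) m.s0 uv 0 0).ny s = 0
    rw [Gd222.mk0_ny]; ring
  refine ⟨⟨hR, hsg, le_rfl, ?_⟩, h.hR, h.hs0, h.sg1, h.wide, h.wide, ?_, ?_, ?_⟩
  · refine ⟨?_, ?_, ?_, ?_⟩
    · show (Gd222.mk0 r.1 (rx r.1 r.2.1 m.s0) (ry r.1 r.2.2 m.s0) m.s0 uv 0 0).disc = 1
      rw [Gd222.mk0_disc, uv_norm]; norm_num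
    · intro s hs
      rw [hny, abs_zero, zero_mul]
      unfold kM0
      show 0 ≤ 1 / 100 * m.sg
      positivity
    · show |(Gd222.mk0 r.1 (rx r.1 r.2.1 m.s0) (ry r.1 r.2.2 m.s0) m.s0 uv 0 0).ld r.1
        (lat (rpos r m.s0)) ((rpos r m.s0) 2) m.s0| ≤ kM0 * m.sg
      rw [lat_rpos, rpos_two, Gd222.mk0_ld, abs_zero]
      unfold kM0
      positivity
    · show |(Gd222.mk0 r.1 (rx r.1 r.2.1 m.s0) (ry r.1 r.2.2 m.s0) m.s0 uv 0 0).ev
        (lat (rpos r m.s0)) ((rpos r m.s0) 2) m.s0| ≤ kM0 * m.sg * m.R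
      rw [lat_rpos, rpos_two, Gd222.mk0_ev0, abs_zero]
      unfold kM0
      positivity
  · show ρ ≤ m.sg * m.R
    exact h.res.trans (mul_le_mul_of_nonneg_right h.ok.hsg hR.le)
  · show |(0:ℝ)| * (m.sg * m.R) ≤ kD
    unfold kD
    norm_num
  · rw [hny, abs_zero, zero_mul]
    unfold kD
    norm_num

theorem bx_ray (hR : 0 < m.R) (hsg : 0 < m.sg) {p : Cf E2} {w : ℝ}
    (h : RayIn r.1 m.sg (m.sg ^ 2) m.R (rx r.1 r.2.1 m.s0) (ry r.1 r.2.2 m.s0) m.s0 p w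
      r'.1 r'.2.1 r'.2.2) : r' ∈ (bx m r).rays 0 := by
  rw [Mem.mem_rays, T0]
  show RayIn r.1 m.sg (m.sg ^ 2) m.R (lat (rpos r m.s0)) ((rpos r m.s0) 2) m.s0
    (Gd222.mk0 r.1 (rx r.1 r.2.1 m.s0) (ry r.1 r.2.2 m.s0) m.s0 uv 0 0) (m.sg * m.R)
    r'.1 r'.2.1 r'.2.2
  rw [lat_rpos, rpos_two]
  obtain ⟨h1, h2⟩ := h
  refine ⟨h1, fun s hs => ⟨(h2 s hs).1, ?_⟩⟩
  rw [Gd222.mk0_ev, zero_mul, zero_mul, add_zero, add_zero]
  refine (abs_real_inner_le_norm _ _).trans ?_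
  rw [uv_norm, one_mul]
  exact (h2 s hs).1.2.1

theorem fat_adm (h : AdmL ρ i J a m) {k a1 : ℕ} (hk : a1 + k = a 1) {κ : ℝ}
    (h1 : m.s1 * 2 ^ k ≤ m.sg) (hκ : 100 * (κ * m.s1) ≤ m.sg)
    (hv : ∀ s, |s - m.s0| ≤ m.R → |evr m.phi r s| ≤ κ * (m.s1 * m.R)) :
    AdmL ρ i J ![a 0, a1] (fat m k r) := by
  have hR := h.ok.hR
  have hsg := sg_pos h.ok
  have hs1 := h.ok.hs1
  have h00 := self_s0 h.ok
  have hsl : |slr m.phi r| ≤ κ * m.s1 := by
    have b1 := hv (m.s0 + m.R) (by rw [add_sub_cancel_left, abs_of_pos hR])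
    have b2 := hv (m.s0 - m.R) (by rw [sub_sub_cancel_left, abs_neg, abs_of_pos hR])
    have b3 := evr_move m.phi r (m.s0 - m.R) (m.s0 + m.R)
    have e : 2 * m.R * slr m.phi r = evr m.phi r (m.s0 + m.R) - evr m.phi r (m.s0 - m.R) := by
      rw [b3]; ring
    have b4 : |2 * m.R * slr m.phi r| ≤ 2 * m.R * (κ * m.s1) := by
      rw [e]
      refine (abs_sub _ _).trans ?_
      linarith
    rw [abs_mul, abs_of_pos (by positivity)] at b4
    exact le_of_mul_le_mul_left b4 (by positivity)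
  refine ⟨⟨hR, ?_, h1, ?_⟩, h.hR, h.hs0, h.sg1, h.wide, ?_, ?_, h.dd, h.nn⟩
  · show 0 < m.s1 * 2 ^ k
    positivity
  · refine ⟨h.ok.adm.disc, ?_, ?_, ?_⟩
    · intro s hs
      have := h.ok.adm.ny s hs
      rw [T0] at this ⊢
      exact this
    · show |m.phi.ld r.1 (lat (rpos r m.s0)) ((rpos r m.s0) 2) m.s0| ≤ kM0 * m.sg
      rw [lat_rpos, rpos_two, slr_eq]
      unfold kM0
      linarith
    · show |m.phi.ev (lat (rpos r m.s0)) ((rpos r m.s0) 2) m.s0| ≤ kM0 * m.sg * m.R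
      rw [lat_rpos, rpos_two]
      have h1 : |evr m.phi r m.s0| ≤ κ * (m.s1 * m.R) := hv m.s0 h00
      refine h1.trans ?_
      rw [← mul_assoc]
      refine mul_le_mul_of_nonneg_right ?_ hR.le
      unfold kM0
      linarith
  · show m.s1 * 2 ^ k * m.R = (1 / 2 : ℝ) ^ a1
    have e : m.s1 * m.R = (1 / 2 : ℝ) ^ (a1 + k) := by rw [hk]; exact h.thin
    calc m.s1 * 2 ^ k * m.R = (m.s1 * m.R) * 2 ^ k := by ring
      _ = (1 / 2 : ℝ) ^ a1 * ((1 / 2 : ℝ) ^ k * 2 ^ k) := by rw [e, pow_add]; ring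
      _ = (1 / 2 : ℝ) ^ a1 := by rw [← mul_pow]; norm_num
  · show ρ ≤ m.s1 * 2 ^ k * m.R
    refine h.res.trans (mul_le_mul_of_nonneg_right ?_ hR.le)
    exact le_mul_of_one_le_right hs1.le (one_le_pow₀ (by norm_num))

theorem fat_ray {k : ℕ} {κ : ℝ} (hR : 0 < m.R) (hs1 : 0 < m.s1) (hκ : κ ≤ 2 ^ k)
    (h : RayIn r.1 m.sg (m.sg ^ 2) m.R (rx r.1 r.2.1 m.s0) (ry r.1 r.2.2 m.s0) m.s0 m.phi
      (κ * (m.s1 * m.R)) r'.1 r'.2.1 r'.2.2) : r' ∈ (fat m k r).rays 0 := by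
  rw [Mem.mem_rays, T0]
  show RayIn r.1 m.sg (m.sg ^ 2) m.R (lat (rpos r m.s0)) ((rpos r m.s0) 2) m.s0
    m.phi (m.s1 * 2 ^ k * m.R) r'.1 r'.2.1 r'.2.2
  rw [lat_rpos, rpos_two]
  refine rayIn_mono h hR.le le_rfl le_rfl ?_
  have := mul_le_mul_of_nonneg_right hκ (by positivity : 0 ≤ m.s1 * m.R)
  linarith

end tests

/-! ### NUMBER -/

section number

variable {ρ : ℝ} {i : ℕ} {J : ℤ} {a : Fin 2 → ℕ} {m : Mem}

/-- the label of the cover -/
noncomputable def labN (ray : ℕ → LRay) (m : Mem) (L : ℝ) (t0 t : ℕ) :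
    ((ℤ × ℤ) × (ℤ × ℤ)) × ℤ :=
  (Tc334.cell4 (Tc334.csR ray m.sg m.R m.s0) (1 / (32 * L)) t,
    ⌊(Tc334.csR ray m.sg m.R m.s0).N t0 t / (1 / 8)⌋)

/-- two rays in the dilated box, in the units of the box. -/
theorem dil_pair {ray : ℕ → LRay} {L κ : ℝ} (hR : 0 < m.R) (hsg : 0 < m.sg) (hL : 1 ≤ L) {t t' : ℕ}
    (h : Dil L κ m (ray t)) (h' : Dil L κ m (ray t')) :
    ‖(Tc334.csR ray m.sg m.R m.s0).x t' - (Tc334.csR ray m.sg m.R m.s0).x t‖ ≤ 2 * L ∧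
    ‖(Tc334.csR ray m.sg m.R m.s0).v t' - (Tc334.csR ray m.sg m.R m.s0).v t‖ ≤ 2 * L ∧
    |(Tc334.csR ray m.sg m.R m.s0).N t t'| ≤ 4 * L ^ 2 := by
  have hL0 : 0 < L := by linarith
  have h1 : ‖rx (ray t').1 (ray t').2.1 m.s0 - rx (ray t).1 (ray t).2.1 m.s0‖ ≤
      2 * L * (m.sg * m.R) := by
    have e : rx (ray t').1 (ray t').2.1 m.s0 - rx (ray t).1 (ray t).2.1 m.s0 =
        (rx (ray t').1 (ray t').2.1 m.s0 - lat m.X0) -
        (rx (ray t).1 (ray t).2.1 m.s0 - lat m.X0) := by abel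
    rw [e]
    refine (norm_sub_le _ _).trans ?_
    have := h.x
    have := h'.x
    linarith
  refine ⟨?_, ?_, ?_⟩
  · rw [Tc334.csR_dx, norm_smul, Real.norm_of_nonneg (by positivity : 0 ≤ (m.sg * m.R)⁻¹)]
    have := mul_le_mul_of_nonneg_left h1 (by positivity : 0 ≤ (m.sg * m.R)⁻¹)
    refine this.trans (le_of_eq ?_)
    field_simp
  · rw [Tc334.csR_dv, norm_neg, norm_smul, Real.norm_of_nonneg (by positivity : 0 ≤ m.sg⁻¹)]
    have e : (ray t').1 - (ray t).1 = ((ray t').1 - m.c) - ((ray t).1 - m.c) := by abel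
    have h2 : ‖(ray t').1 - (ray t).1‖ ≤ 2 * L * m.sg := by
      rw [e]
      refine (norm_sub_le _ _).trans ?_
      have := h.c
      have := h'.c
      linarith
    have := mul_le_mul_of_nonneg_left h2 (by positivity : 0 ≤ m.sg⁻¹)
    refine this.trans (le_of_eq ?_)
    field_simp
  · rw [Tc334.csR_N ray m.s0 hsg hR, abs_mul, abs_of_pos (by positivity : 0 < (m.sg ^ 2 * m.R)⁻¹)]
    rw [nrm_two (ray t).1 m.c]
    have e : nrm m.c (rx (ray t').1 (ray t').2.1 m.s0) (ry (ray t').1 (ray t').2.2 m.s0) m.s0 -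
        nrm m.c (rx (ray t).1 (ray t).2.1 m.s0) (ry (ray t).1 (ray t).2.2 m.s0) m.s0 =
        (nrm m.c (rx (ray t').1 (ray t').2.1 m.s0) (ry (ray t').1 (ray t').2.2 m.s0) m.s0 -
          nrm m.c (lat m.X0) (m.X0 2) m.s0) -
        (nrm m.c (rx (ray t).1 (ray t).2.1 m.s0) (ry (ray t).1 (ray t).2.2 m.s0) m.s0 -
          nrm m.c (lat m.X0) (m.X0 2) m.s0) := by ring
    rw [e]
    have h3 : |inner ℝ ((ray t).1 - m.c)
        (rx (ray t').1 (ray t').2.1 m.s0 - rx (ray t).1 (ray t).2.1 m.s0)| ≤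
        (L * m.sg) * (2 * L * (m.sg * m.R)) :=
      (abs_real_inner_le_norm _ _).trans (mul_le_mul h.c h1 (norm_nonneg _) (by positivity))
    have h4 := h.n
    have h5 := h'.n
    have h6 := abs_sub (nrm m.c (rx (ray t').1 (ray t').2.1 m.s0) (ry (ray t').1 (ray t').2.2 m.s0)
      m.s0 - nrm m.c (lat m.X0) (m.X0 2) m.s0)
      (nrm m.c (rx (ray t).1 (ray t).2.1 m.s0) (ry (ray t).1 (ray t).2.2 m.s0) m.s0 -
        nrm m.c (lat m.X0) (m.X0 2) m.s0)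
    have h7 := abs_add_le ((nrm m.c (rx (ray t').1 (ray t').2.1 m.s0)
      (ry (ray t').1 (ray t').2.2 m.s0) m.s0 - nrm m.c (lat m.X0) (m.X0 2) m.s0) -
      (nrm m.c (rx (ray t).1 (ray t).2.1 m.s0) (ry (ray t).1 (ray t).2.2 m.s0) m.s0 -
        nrm m.c (lat m.X0) (m.X0 2) m.s0))
      (inner ℝ ((ray t).1 - m.c)
        (rx (ray t').1 (ray t').2.1 m.s0 - rx (ray t).1 (ray t).2.1 m.s0))
    have h8 := h7.trans (show _ ≤ 4 * L ^ 2 * (m.sg ^ 2 * m.R) by nlinarith)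
    have := mul_le_mul_of_nonneg_left h8 (by positivity : 0 ≤ (m.sg ^ 2 * m.R)⁻¹)
    refine this.trans (le_of_eq ?_)
    field_simp

/-- two rays of the same label are close. -/
theorem lab_near {ray : ℕ → LRay} {L κ : ℝ} (hR : 0 < m.R) (hsg : 0 < m.sg) (hL : 1 ≤ L)
    {t0 t t' : ℕ} (h0 : Dil L κ m (ray t0)) (h : Dil L κ m (ray t)) (h' : Dil L κ m (ray t'))
    (hl : labN ray m L t0 t' = labN ray m L t0 t) :
    RayIn (ray t).1 m.sg (m.sg ^ 2) m.R (rx (ray t).1 (ray t).2.1 m.s0)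
      (ry (ray t).1 (ray t).2.2 m.s0) m.s0 m.phi (κ * (m.s1 * m.R))
      (ray t').1 (ray t').2.1 (ray t').2.2 := by
  have hL0 : 0 < L := by linarith
  unfold labN at hl
  rw [Prod.mk.injEq] at hl
  obtain ⟨l1, l2⟩ := hl
  have hs : (0:ℝ) < 1 / (32 * L) := by positivity
  obtain ⟨g1, g2⟩ := Tc334.cell4_eq _ hs l1
  have g3 := Tc334.abs_sub_le_of_floor (by norm_num : (0:ℝ) < 1 / 8) l2
  have hsmall : 2 * (1 / (32 * L)) ≤ 1 / 16 := by
    have : 1 / (32 * L) ≤ 1 / 32 := by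
      apply one_div_le_one_div_of_le (by norm_num)
      linarith
    linarith
  have g4 := (dil_pair hR hsg hL h0 h).2.1
  have g5 : |(Tc334.csR ray m.sg m.R m.s0).N t t'| ≤ 1 / 4 := by
    rw [(Tc334.csR ray m.sg m.R m.s0).N_cocycle t0 t t']
    refine (abs_sub _ _).trans ?_
    have a1 : |inner ℝ ((Tc334.csR ray m.sg m.R m.s0).v t - (Tc334.csR ray m.sg m.R m.s0).v t0)
        ((Tc334.csR ray m.sg m.R m.s0).x t' - (Tc334.csR ray m.sg m.R m.s0).x t)| ≤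
        (2 * L) * (2 * (1 / (32 * L))) :=
      (abs_real_inner_le_norm _ _).trans (mul_le_mul g4 g1 (norm_nonneg _) (by positivity))
    have a2 : (2 * L) * (2 * (1 / (32 * L))) = 1 / 8 := by field_simp; norm_num
    linarith
  have h9 := Tc334.ray_near (ray := ray) (s0 := m.s0) (sg := m.sg) (R := m.R)
    (w := κ * (m.s1 * m.R)) (p := m.phi) hsg hR (i := t) (j := t') (σ := 1 / 2) (by norm_num)
    (g1.trans (by linarith)) (g2.trans (by linarith)) (g5.trans (by norm_num)) h'.v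
  have e : 2 * (1 / 2 : ℝ) * m.sg = m.sg := by ring
  rwa [e] at h9

/-- the number of labels. -/
theorem lab_card {ray : ℕ → LRay} {L κ : ℝ} (hR : 0 < m.R) (hsg : 0 < m.sg) (hL : 1 ≤ L)
    (T : Finset ℕ) (hT : ∀ t ∈ T, Dil L κ m (ray t)) {t0 : ℕ} (h0 : t0 ∈ T) :
    ((T.image (labN ray m L t0)).card : ℝ) ≤ (130 * L ^ 2) ^ 4 * (130 * L ^ 2) := by
  classical
  have hL0 : 0 < L := by linarith
  have hL2 : 1 ≤ L ^ 2 := one_le_pow₀ hL
  have hs : (0:ℝ) < 1 / (32 * L) := by positivity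
  have hsub : T.image (labN ray m L t0) ⊆
      (T.image (Tc334.cell4 (Tc334.csR ray m.sg m.R m.s0) (1 / (32 * L)))) ×ˢ
      (T.image fun t => ⌊(Tc334.csR ray m.sg m.R m.s0).N t0 t / (1 / 8)⌋) := by
    intro z hz
    obtain ⟨t, ht, rfl⟩ := mem_image.1 hz
    rw [mem_product]
    exact ⟨mem_image_of_mem _ ht, mem_image_of_mem (fun t =>
      ⌊(Tc334.csR ray m.sg m.R m.s0).N t0 t / (1 / 8)⌋) ht⟩
  have hc := card_le_card hsub
  rw [card_product] at hc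
  have c1 := Tc334.cell4_card (Tc334.csR ray m.sg m.R m.s0) T (L := 2 * L) hs (by positivity)
    (fun t ht t' ht' => (dil_pair hR hsg hL (hT t ht) (hT t' ht')).1)
    (fun t ht t' ht' => (dil_pair hR hsg hL (hT t ht) (hT t' ht')).2.1)
  have c2 := Tc334.floor_image T (fun t => (Tc334.csR ray m.sg m.R m.s0).N t0 t) (L := 8 * L ^ 2)
    (δ := 1 / 8) (by norm_num) (by positivity) (fun t ht t' ht' => by
      have a1 := (dil_pair hR hsg hL (hT t0 h0) (hT t ht)).2.2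
      have a2 := (dil_pair hR hsg hL (hT t0 h0) (hT t' ht')).2.2
      refine (abs_sub _ _).trans ?_
      linarith)
  have e1 : 2 * (2 * L) / (1 / (32 * L)) + 2 ≤ 130 * L ^ 2 := by
    have : 2 * (2 * L) / (1 / (32 * L)) = 128 * L ^ 2 := by field_simp; norm_num
    rw [this]; linarith
  have e2 : 2 * (8 * L ^ 2) / (1 / 8) + 2 ≤ 130 * L ^ 2 := by
    have : 2 * (8 * L ^ 2) / (1 / 8) = 128 * L ^ 2 := by ring
    rw [this]; linarith
  have e0 : 0 ≤ 2 * (2 * L) / (1 / (32 * L)) + 2 := by positivity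
  calc ((T.image (labN ray m L t0)).card : ℝ)
      ≤ (((T.image (Tc334.cell4 (Tc334.csR ray m.sg m.R m.s0) (1 / (32 * L)))).card *
        (T.image fun t => ⌊(Tc334.csR ray m.sg m.R m.s0).N t0 t / (1 / 8)⌋).card : ℕ) : ℝ) := by
        exact_mod_cast hc
    _ = ((T.image (Tc334.cell4 (Tc334.csR ray m.sg m.R m.s0) (1 / (32 * L)))).card : ℝ) *
        ((T.image fun t => ⌊(Tc334.csR ray m.sg m.R m.s0).N t0 t / (1 / 8)⌋).card : ℝ) := by
        push_cast; ring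
    _ ≤ (130 * L ^ 2) ^ 4 * (130 * L ^ 2) := by
        refine mul_le_mul (c1.trans (pow_le_pow_left₀ e0 e1 4)) (c2.trans e2) (Nat.cast_nonneg _)
          (by positivity)

open Classical in
/-- **NUMBER**: rays in a dilate of the member with values `≤ κ s1 R`. -/
theorem number_dil (h : AdmL ρ i J a m) {L κ q N0 : ℝ} (hL : 1 ≤ L) (hκ : 1 ≤ κ) (hq : 0 ≤ q)
    (hN0 : 0 ≤ N0) (ray : ℕ → LRay) (T : Finset ℕ) (hT : ∀ t ∈ T, Dil L κ m (ray t))
    (hD : ∀ (k a1 : ℕ) (m1 : Mem), a1 + k = a 1 → AdmL ρ i J ![a 0, a1] m1 →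
      ((T.filter fun t => ray t ∈ m1.rays 0).card : ℝ) ≤ N0 * (2 : ℝ) ^ ((1 + q) * k)) :
    (T.card : ℝ) ≤ (130 * L ^ 2) ^ 5 * (N0 * (100 * κ) ^ (1 + q)) := by
  have hR := h.ok.hR
  have hsg := sg_pos h.ok
  have hs1 := h.ok.hs1
  rcases T.eq_empty_or_nonempty with rfl | ⟨t0, ht0⟩
  · rw [card_empty, Nat.cast_zero]
    have : 0 ≤ (100 * κ) ^ (1 + q) := by positivity
    positivity
  have hcl : ∀ t ∈ T, ((T.filter fun t' => labN ray m L t0 t' = labN ray m L t0 t).card : ℝ) ≤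
      N0 * (100 * κ) ^ (1 + q) := by
    intro t ht
    rcases le_or_gt (100 * (κ * m.s1)) m.sg with hc | hc
    · -- fat slab
      obtain ⟨k, hk1, hk2⟩ := exists_dyadic (θ := 1 / 2) (y := κ) (by norm_num) (by linarith)
      have hk3 : κ ≤ 2 ^ k := by
        rw [pow_succ] at hk2; linarith
      have hk4 : (2:ℝ) ^ k ≤ 2 * κ := by linarith
      have hks : m.s1 * 2 ^ k ≤ m.sg := by
        have := mul_le_mul_of_nonneg_left hk4 hs1.le
        have : 0 < κ * m.s1 := by positivity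
        nlinarith
      have hka : k ≤ a 1 := by
        by_contra hcon
        push Not at hcon
        have e1 := h.thin
        have e2 : m.s1 * 2 ^ k * m.R ≤ 1 := by
          have a1 := mul_le_mul_of_nonneg_right (hks.trans h.sg1) hR.le
          have a2 : m.R ≤ 1 := by
            rw [h.hR]; exact pow_le_one₀ (by norm_num) (by norm_num)
          linarith
        have e3 : m.s1 * 2 ^ k * m.R = 2 ^ k * (1 / 2 : ℝ) ^ (a 1) := by rw [← e1]; ring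
        have e4 : (2:ℝ) ^ (a 1) * (1 / 2 : ℝ) ^ (a 1) = 1 := by rw [← mul_pow]; norm_num
        have e5 : (2:ℝ) ^ (a 1) < 2 ^ k := pow_lt_pow_right₀ (by norm_num) hcon
        have e6 : (0:ℝ) < (1 / 2 : ℝ) ^ (a 1) := by positivity
        nlinarith
      have hadm := fat_adm (r := ray t) h (k := k) (a1 := a 1 - k) (by omega) hks hc (hT t ht).v
      have h1 := hD k (a 1 - k) _ (by omega) hadm
      have h2 : (T.filter fun t' => labN ray m L t0 t' = labN ray m L t0 t).card ≤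
          (T.filter fun t' => ray t' ∈ (fat m k (ray t)).rays 0).card := by
        refine card_le_card fun t' ht' => ?_
        rw [mem_filter] at ht' ⊢
        exact ⟨ht'.1, fat_ray hR hs1 hk3
          (lab_near hR hsg hL (hT t0 ht0) (hT t ht) (hT t' ht'.1) ht'.2)⟩
      refine le_trans (by exact_mod_cast h2) (h1.trans (mul_le_mul_of_nonneg_left ?_ hN0))
      have e1 : (2 : ℝ) ^ ((1 + q) * (k : ℝ)) = ((2 : ℝ) ^ k) ^ (1 + q) := by
        rw [← Real.rpow_natCast, ← Real.rpow_mul (by norm_num)]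
        congr 1
        ring
      rw [e1]
      exact Real.rpow_le_rpow (by positivity) (by linarith) (by linarith)
    · -- the whole box
      have hadm := bx_adm h (ray t)
      have hle : a 0 ≤ a 1 := by
        by_contra hcon
        push Not at hcon
        have e1 : m.s1 * m.R ≤ m.sg * m.R := mul_le_mul_of_nonneg_right h.ok.hsg hR.le
        rw [h.thin, h.wide] at e1
        have e2 : (1 / 2 : ℝ) ^ (a 0) < (1 / 2 : ℝ) ^ (a 1) :=
          pow_lt_pow_right_of_lt_one₀ (by norm_num) (by norm_num) hcon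
        linarith
      have h1 := hD (a 1 - a 0) (a 0) _ (by omega) hadm
      have h2 : (T.filter fun t' => labN ray m L t0 t' = labN ray m L t0 t).card ≤
          (T.filter fun t' => ray t' ∈ (bx m (ray t)).rays 0).card := by
        refine card_le_card fun t' ht' => ?_
        rw [mem_filter] at ht' ⊢
        exact ⟨ht'.1, bx_ray hR hsg
          (lab_near hR hsg hL (hT t0 ht0) (hT t ht) (hT t' ht'.1) ht'.2)⟩
      refine le_trans (by exact_mod_cast h2) (h1.trans (mul_le_mul_of_nonneg_left ?_ hN0))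
      have e1 : (2 : ℝ) ^ ((1 + q) * ((a 1 - a 0 : ℕ) : ℝ)) =
          ((2 : ℝ) ^ (a 1 - a 0)) ^ (1 + q) := by
        rw [← Real.rpow_natCast, ← Real.rpow_mul (by norm_num)]
        congr 1
        ring
      rw [e1]
      refine Real.rpow_le_rpow (by positivity) ?_ (by linarith)
      have e2 : (2 : ℝ) ^ (a 1 - a 0) * (m.s1 * m.R) = m.sg * m.R := by
        rw [h.thin, h.wide]
        have e3 : a 1 = (a 1 - a 0) + a 0 := by omega
        conv_lhs => rw [e3, Nat.add_sub_cancel, pow_add, ← mul_assoc, ← mul_pow]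
        norm_num
      have e4 : (2 : ℝ) ^ (a 1 - a 0) * m.s1 = m.sg := by
        have : ((2 : ℝ) ^ (a 1 - a 0) * m.s1) * m.R = m.sg * m.R := by rw [← e2]; ring
        exact mul_right_cancel₀ hR.ne' this
      have : (2 : ℝ) ^ (a 1 - a 0) * m.s1 ≤ 100 * κ * m.s1 := by rw [e4]; linarith
      exact le_of_mul_le_mul_right this hs1
  have h1 := Tc334.card_le_cells T (labN ray m L t0) _ hcl
  have h2 := lab_card hR hsg hL T hT ht0
  have h3 : 0 ≤ N0 * (100 * κ) ^ (1 + q) := by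
    have : 0 ≤ (100 * κ) ^ (1 + q) := by positivity
    positivity
  refine h1.trans ?_
  have h4 := mul_le_mul_of_nonneg_right h2 h3
  refine h4.trans (le_of_eq ?_)
  ring

open Classical in
/-- **NUMBER for two levels**: the rays of the members `m'` which meet `m` with discrepancy at most
`2X`. -/
theorem number_mem (h : AdmL ρ i J a m) {Λ X q N0 : ℝ} (hΛ : 1 ≤ Λ) (hX : 1 ≤ X) (hq : 0 ≤ q)
    (hq1 : q ≤ 1) (hN0 : 0 ≤ N0) (ray : ℕ → LRay) (T : Finset ℕ)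
    (hT : ∀ t ∈ T, ∃ m' : Mem, m'.Ok kM0 0 ∧ Rat Λ m m' ∧ Dd m m' ≤ 2 * X ∧
      (∃ r0, r0 ∈ m.rays 0 ∧ r0 ∈ m'.rays 0) ∧ ray t ∈ m'.rays 0)
    (hD : ∀ (k a1 : ℕ) (m1 : Mem), a1 + k = a 1 → AdmL ρ i J ![a 0, a1] m1 →
      ((T.filter fun t => ray t ∈ m1.rays 0).card : ℝ) ≤ N0 * (2 : ℝ) ^ ((1 + q) * k)) :
    (T.card : ℝ) ≤ 10 ^ 40 * Λ ^ 16 * N0 * X ^ (1 + q) := by
  have hΛ0 : 0 < Λ := by linarith
  have hX0 : 0 < X := by linarith
  have h1 := number_dil h (L := 5 * Λ) (κ := 700 * Λ ^ 3 * X) (by linarith) (by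
      have : 1 ≤ Λ ^ 3 := one_le_pow₀ hΛ
      nlinarith) hq hN0 ray T (fun t ht => by
      obtain ⟨m', h', hρ, hd, ⟨r0, h0, h0'⟩, hr⟩ := hT t ht
      exact dil_of h.ok h' hρ hX hd h0 h0' hr) hD
  refine h1.trans ?_
  have e1 : (100 * (700 * Λ ^ 3 * X)) ^ (1 + q) = (70000 * Λ ^ 3) ^ (1 + q) * X ^ (1 + q) := by
    rw [← Real.mul_rpow (by positivity) hX0.le]
    congr 1
    ring
  have e2 : (70000 * Λ ^ 3) ^ (1 + q) ≤ (70000 * Λ ^ 3) ^ 2 := by
    have hb : 1 ≤ 70000 * Λ ^ 3 := by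
      have : 1 ≤ Λ ^ 3 := one_le_pow₀ hΛ
      linarith
    calc (70000 * Λ ^ 3) ^ (1 + q) ≤ (70000 * Λ ^ 3) ^ (2 : ℝ) :=
          Real.rpow_le_rpow_of_exponent_le hb (by linarith)
      _ = (70000 * Λ ^ 3) ^ 2 := by norm_cast
  have hXq : 0 < X ^ (1 + q) := Real.rpow_pos_of_pos hX0 _
  rw [e1]
  calc (130 * (5 * Λ) ^ 2) ^ 5 * (N0 * ((70000 * Λ ^ 3) ^ (1 + q) * X ^ (1 + q)))
      ≤ (130 * (5 * Λ) ^ 2) ^ 5 * (N0 * ((70000 * Λ ^ 3) ^ 2 * X ^ (1 + q))) := by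
        refine mul_le_mul_of_nonneg_left (mul_le_mul_of_nonneg_left
          (mul_le_mul_of_nonneg_right e2 hXq.le) hN0) (by positivity)
    _ = ((130 * 25) ^ 5 * 70000 ^ 2) * (Λ ^ 16 * N0 * X ^ (1 + q)) := by ring
    _ ≤ 10 ^ 40 * (Λ ^ 16 * N0 * X ^ (1 + q)) :=
        mul_le_mul_of_nonneg_right (by norm_num) (by positivity)
    _ = _ := by ring

end number

end Crest.Agent.R116.Td809
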