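import Crest.Agent.R116.Td2_809
import Crest.Agent.R116.Td4_809

/-!
# R116, K side, TILT, part 5 (helper809): `TiltGeo` and `TiltL` for the light-ray geometry

* `ValD G r q q'` : the members of resolution `r n` whose width exponents are at most the thin exponent
  of an admissible test set over the same cell are admissible (true for all `AdmL` members and for
  helper794's / 635's cut classes); the size function decreases by
  `2^-(3+q)` per dyadic step of the aperture and increases at most by `2^(1+q')` per step of the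
  thickness.
* `ev_rat` : the ratios of apertures, thicknesses and lengths of the marks of two levels.
* `tiltGeo` : `TiltGeo` with the gain `γ = q/2 - q'`.
* **`tiltL`** : helper439's `TiltL`.
-/

set_option autoImplicit false
set_option linter.unusedVariables false

open Finset Filter Topology

namespace Crest.Agent.R116.Td809

open Crest.Agent.R138.Defs (E2)
open Crest.Agent.R138.Ex926 (Base U)
open Crest.Agent.R138.Dp76
open Crest.Agent.R138.Mk163 (zc zl rho alive own Negl)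
open Crest.Agent.R136.MkA627
open Crest.Agent.R116.LZg725
open Crest.Agent.R116.Bm903
open Crest.Agent.R116.KI439
open Crest.Agent.R116.KF439
open Crest.Agent.R138.TiltU51 (ev_const)

/-- sizes of the light-ray geometry. -/
structure ValD (G : Geo SL (Fin 2)) (r : ℕ → ℝ) (q q' : ℝ) : Prop where
  adm : ∀ n i J (s s' : SL), G.adm n i J s → AdmL (r n) i J s'.1 s'.2 →
    (∀ j, s'.1 j ≤ s.1 1) → G.adm n i J s'
  nar : ∀ n i J (s : SL) (k : ℕ) (m1 : Mem), G.val n i J (![s.1 0 + k, s.1 1], m1) ≤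
    (2 : ℝ) ^ (-(3 + q) * (k : ℝ)) * G.val n i J s
  thi : ∀ n i J (s : SL) (k a1 : ℕ) (m1 : Mem), a1 + k = s.1 1 →
    G.val n i J (![s.1 0, a1], m1) ≤ (2 : ℝ) ^ ((1 + q') * (k : ℝ)) * G.val n i J s

/-- the thin exponent dominates the wide one. -/
theorem adm_exp {ρ : ℝ} {i : ℕ} {J : ℤ} {a : Fin 2 → ℕ} {m : Mem} (h : AdmL ρ i J a m) :
    a 0 ≤ a 1 := by
  by_contra hcon
  push Not at hcon
  have e1 : m.s1 * m.R ≤ m.sg * m.R := mul_le_mul_of_nonneg_right h.ok.hsg h.ok.hR.le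
  rw [h.thin, h.wide] at e1
  have e2 : (1 / 2 : ℝ) ^ (a 0) < (1 / 2 : ℝ) ^ (a 1) :=
    pow_lt_pow_right_of_lt_one₀ (by norm_num) (by norm_num) hcon
  linarith

/-- exponent bound from a limit. -/
theorem ev_le_of_lim {B : Base} {X : ℕ → ℝ} {x t : ℝ} (hp : ∀ᶠ n in (U : Filter ℕ), 0 < X n)
    (h : Tendsto (fun n => Real.log (X n) / B.L n) U (𝓝 x)) (hx : x < t) :
    ∀ᶠ n in (U : Filter ℕ), X n ≤ B.d n ^ (-t) := by
  filter_upwards [hp, h.eventually (gt_mem_nhds hx)] with n hn h1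
  have hL := B.L_pos n
  rw [div_lt_iff₀ hL] at h1
  have e : B.d n ^ (-t) = Real.exp (t * B.L n) := by
    rw [Real.rpow_def_of_pos (B.pos n)]
    unfold Base.L
    congr 1
    ring
  rw [e, ← Real.log_le_iff_le_exp hn]
  exact h1.le

section

variable {B : Base} {I : ℕ → Finset (ℕ × ℝ)} {G : Geo SL (Fin 2)} {lev : ℕ → ℚ → ℕ}
    {A : ℕ → ℝ} {c Λ : ℝ → ℝ} {τ : Fin 2 → ℝ → ℝ} {f : ℕ → ℚ → ℕ → ℤ → ℕ} {b : ℕ → ℚ → ℕ → SL}
    {vm : ℕ → ℚ → ℝ} {w : Fin 2 → ℕ → ℚ → ℝ} {L : ℕ → ℕ → LRay} {r : ℕ → ℝ}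

/-- ratio of the relative widths of two levels. -/
theorem ev_ratio (h : MkA B I G lev A c Λ τ f b vm w) (j : Fin 2) {u v : ℚ} (hu : 0 ≤ u)
    (hu1 : u ≤ 1) (hv : 0 ≤ v) (hv1 : v ≤ 1) {t : ℝ} (ht : τ j u - τ j v < t) :
    ∀ᶠ n in (U : Filter ℕ), w j n v / rho (lev n v) ≤ B.d n ^ (-t) * (w j n u / rho (lev n u)) := by
  have hp : ∀ᶠ n in (U : Filter ℕ), 0 < w j n u ∧ 0 < w j n v ∧ 0 < w j n 1 :=
    (h.wpos j u hu hu1).and ((h.wpos j v hv hv1).and (h.wpos j 1 zero_le_one le_rfl))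
  have hlim : Tendsto (fun n => Real.log ((w j n v / rho (lev n v)) / (w j n u / rho (lev n u))) /
      B.L n) U (𝓝 (τ j u - τ j v)) := by
    refine ((h.tau j u hu hu1).sub (h.tau j v hv hv1)).congr' ?_
    filter_upwards [hp] with n hn
    obtain ⟨h1, h2, h3⟩ := hn
    have hu0 := rho_pos' (lev n u)
    have hv0 := rho_pos' (lev n v)
    have h10 := rho_pos' (lev n 1)
    rw [← sub_div, ← Real.log_div (by positivity) (by positivity)]
    congr 2
    field_simp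
  have h1 := ev_le_of_lim (B := B) (hp.mono fun n hn => by
    obtain ⟨h1, h2, h3⟩ := hn
    have hu0 := rho_pos' (lev n u)
    have hv0 := rho_pos' (lev n v)
    exact div_pos (div_pos h2 hv0) (div_pos h1 hu0)) hlim ht
  filter_upwards [h1, hp] with n hn hpn
  have hu0 := rho_pos' (lev n u)
  have : 0 < w j n u / rho (lev n u) := div_pos hpn.1 hu0
  rwa [div_le_iff₀ this] at hn

theorem zc_half (i : ℕ) (z : ℝ) :
    |z - (((zc i z : ℤ) : ℝ) + 1 / 2) * (1 / 2 : ℝ) ^ i| ≤ (1 / 2 : ℝ) ^ i / 2 := by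
  have h1 := Int.floor_le ((2 : ℝ) ^ i * z)
  have h2 := Int.lt_floor_add_one ((2 : ℝ) ^ i * z)
  have hp : (0 : ℝ) < (1 / 2 : ℝ) ^ i := by positivity
  have e : (1 / 2 : ℝ) ^ i * (2 : ℝ) ^ i = 1 := by
    rw [← mul_pow]; norm_num
  have e1 : z - (((zc i z : ℤ) : ℝ) + 1 / 2) * (1 / 2 : ℝ) ^ i =
      (1 / 2 : ℝ) ^ i * ((2 : ℝ) ^ i * z - (((zc i z : ℤ) : ℝ) + 1 / 2)) := by
    rw [mul_sub, ← mul_assoc, e]; ring
  rw [e1, abs_mul, abs_of_pos hp, show (1 / 2 : ℝ) ^ i / 2 = (1 / 2 : ℝ) ^ i * (1 / 2) by ring]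
  refine mul_le_mul_of_nonneg_left ?_ hp.le
  unfold zc
  rw [abs_le]
  constructor <;> linarith

/-- the loss factor. -/
noncomputable def lo (B : Base) (K η : ℝ) (u v : ℚ) (n : ℕ) : ℝ :=
  B.d n ^ (-(K * ((v : ℝ) - u)) - η)

/-- **ratios of two marks.** -/
theorem ev_rat (h : MkA B I G lev A c Λ τ f b vm w) (hG : IsL G L r) {Kt : ℝ} (hK1 : 1 ≤ Kt)
    (ht : ∀ j, ∀ u v : ℚ, 0 ≤ u → u ≤ v → v ≤ 1 → |τ j u - τ j v| ≤ Kt * ((v : ℝ) - u))
    {u v : ℚ} (hu : 0 ≤ u) (huv : u < v) (hv : v ≤ 1) {η : ℝ} (hη : 0 < η) :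
    ∀ᶠ n in (U : Filter ℕ), 1 ≤ lo B Kt η u v n ∧ lev n u ≤ lev n v ∧
      rho (lev n u) ≤ lo B Kt η u v n * rho (lev n v) ∧
      ∀ (V V' : ℝ) (J J' : ℤ), (∃ z : ℝ, zc (lev n u) z = J ∧ zc (lev n v) z = J') →
      ∀ s s' : SL, Cls G n (lev n u) J V (fun k => w k n u) s →
        Cls G n (lev n v) J' V' (fun k => w k n v) s' → Rat (lo B Kt η u v n) s.2 s'.2 := by
  have hu1 : u ≤ 1 := huv.le.trans hv
  have hv0 : 0 ≤ v := hu.trans huv.le
  have huvR : (u : ℝ) < v := by exact_mod_cast huv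
  have hlt : ∀ j, τ j u - τ j v < Kt * ((v : ℝ) - u) + η := fun j => by
    have := (abs_le.1 (ht j u v hu huv.le hv)).2
    linarith
  have hlt' : ∀ j, τ j v - τ j u < Kt * ((v : ℝ) - u) + η := fun j => by
    have := (abs_le.1 (ht j u v hu huv.le hv)).1
    linarith
  have h01 := Filter.eventually_all.2 fun j => ev_ratio h j hu hu1 hv0 hv (hlt j)
  have h02 := Filter.eventually_all.2 fun j => ev_ratio h j hv0 hv hu hu1 (hlt' j)
  have h03 := ev_R h hu huv.le hv hη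
  filter_upwards [h01, h02, h03] with n h1 h2 h3
  have hlo : lo B Kt η u v n = B.d n ^ (-(Kt * ((v : ℝ) - u) + η)) := by
    unfold lo; congr 1; ring
  have hone : 1 ≤ lo B Kt η u v n := by
    rw [hlo]
    refine Real.one_le_rpow_of_pos_of_le_one_of_nonpos (B.pos n) (B.lt n).le ?_
    have : 0 ≤ Kt * ((v : ℝ) - u) := mul_nonneg (by linarith) (by linarith)
    linarith
  have hrr : rho (lev n u) ≤ lo B Kt η u v n * rho (lev n v) := by
    have e1 : rho (lev n u) = 2 ^ (lev n v - lev n u) * rho (lev n v) := by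
      rw [rho_eq, rho_eq]
      have e2 : lev n v = (lev n v - lev n u) + lev n u := by omega
      conv_rhs => rw [e2, Nat.add_sub_cancel, pow_add, ← mul_assoc, ← mul_pow]
      norm_num
    rw [e1]
    refine mul_le_mul_of_nonneg_right (h3.2.trans ?_) (rho_pos' _).le
    rw [hlo]
    apply danti
    have : (1 : ℝ) * ((v : ℝ) - u) ≤ Kt * ((v : ℝ) - u) :=
      mul_le_mul_of_nonneg_right hK1 (by linarith)
    linarith
  refine ⟨hone, h3.1, hrr, fun V V' J J' hz s s' hs hs' => ?_⟩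
  obtain ⟨z, hzJ, hzJ'⟩ := hz
  have a1 := hG.adm _ _ _ _ hs.1
  have a2 := hG.adm _ _ _ _ hs'.1
  have hwu : ∀ j, (1 / 2 : ℝ) ^ (s.1 j) = w j n u := fun j => by
    have := hs.2.2 j
    rwa [hG.wid] at this
  have hwv : ∀ j, (1 / 2 : ℝ) ^ (s'.1 j) = w j n v := fun j => by
    have := hs'.2.2 j
    rwa [hG.wid] at this
  have hR : s.2.R = rho (lev n u) := by rw [rho_eq]; exact a1.hR
  have hR' : s'.2.R = rho (lev n v) := by rw [rho_eq]; exact a2.hR
  have hg : s.2.sg = w 0 n u / rho (lev n u) := by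
    rw [eq_div_iff (rho_pos' _).ne', ← hR, ← hwu 0]; exact a1.wide
  have hg' : s'.2.sg = w 0 n v / rho (lev n v) := by
    rw [eq_div_iff (rho_pos' _).ne', ← hR', ← hwv 0]; exact a2.wide
  have ht : s.2.s1 = w 1 n u / rho (lev n u) := by
    rw [eq_div_iff (rho_pos' _).ne', ← hR, ← hwu 1]; exact a1.thin
  have ht' : s'.2.s1 = w 1 n v / rho (lev n v) := by
    rw [eq_div_iff (rho_pos' _).ne', ← hR', ← hwv 1]; exact a2.thin
  have hRR : rho (lev n v) ≤ rho (lev n u) := by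
    rw [rho_eq, rho_eq]
    exact pow_le_pow_of_le_one (by norm_num) (by norm_num) h3.1
  refine ⟨hone, ?_, ?_, ?_, ?_, ?_, ?_, ?_⟩
  · rw [a1.hs0, a2.hs0, a1.hR, ← hzJ, ← hzJ']
    have b1 := zc_half (lev n u) z
    have b2 := zc_half (lev n v) z
    have b3 : (1 / 2 : ℝ) ^ (lev n v) ≤ (1 / 2 : ℝ) ^ (lev n u) := by
      rw [rho_eq, rho_eq] at hRR; exact hRR
    have e : (((zc (lev n v) z : ℤ) : ℝ) + 1 / 2) * (1 / 2 : ℝ) ^ (lev n v) -
        (((zc (lev n u) z : ℤ) : ℝ) + 1 / 2) * (1 / 2 : ℝ) ^ (lev n u) =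
        (z - (((zc (lev n u) z : ℤ) : ℝ) + 1 / 2) * (1 / 2 : ℝ) ^ (lev n u)) -
        (z - (((zc (lev n v) z : ℤ) : ℝ) + 1 / 2) * (1 / 2 : ℝ) ^ (lev n v)) := by ring
    rw [e]
    refine (abs_sub _ _).trans ?_
    linarith
  · rw [hR, hR']; exact hRR
  · rw [hR, hR']; exact hrr
  · rw [hg, hg', hlo]; exact h2 0
  · rw [hg, hg', hlo]; exact h1 0
  · rw [ht, ht', hlo]; exact h2 1
  · rw [ht, ht', hlo]; exact h1 1

theorem lo_pow (K η : ℝ) (u v : ℚ) (n p : ℕ) :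
    lo B K η u v n ^ p = B.d n ^ (-((p : ℝ) * K * ((v : ℝ) - u)) - p * η) := by
  unfold lo
  rw [← Real.rpow_natCast, ← Real.rpow_mul (B.pos n).le]
  congr 1
  ring

open Classical in
/-- SHARE in counting form. -/
theorem share_cnt (hG : IsL G L r) {q q' X Lo : ℝ} (hV : ValD G r q q') (hq0 : 0 ≤ q) (hq2 : q ≤ 2)
    {n i i' : ℕ} {J J' : ℤ} {s s' : SL} (hs : G.adm n i J s) (hs' : G.adm n i' J' s')
    (hρ : Rat Lo s.2 s'.2) (hX0 : 0 < X) (hX : X ≤ Dd s.2 s'.2) (hV0 : 0 ≤ G.val n i J s)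
    (T : Finset ℕ) (hT : ∀ t ∈ T, G.mem n i J s t ∧ G.mem n i' J' s' t) :
    Cnt G n i J T (10 ^ 200 * Lo ^ 48 * G.val n i J s * X ^ (-(1 + q / 2))) := by
  intro M hM hd
  have as := hG.adm _ _ _ _ hs
  have as' := hG.adm _ _ _ _ hs'
  have hD0 : (T.card : ℝ) ≤ M * G.val n i J s := by
    have h1 := hd s hs
    refine le_trans ?_ h1
    exact Nat.cast_le.2 (card_le_card fun t ht => mem_filter.2 ⟨ht, (hT t ht).1⟩)
  have hD : ∀ (k : ℕ) (m1 : Mem), AdmL (r n) i J ![s.1 0 + k, s.1 1] m1 →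
      ((T.filter fun t => L n t ∈ m1.rays 0).card : ℝ) ≤
        M * G.val n i J s * (2 : ℝ) ^ (-(3 + q) * (k : ℝ)) := by
    intro k m1 hm1
    have h0 : G.adm n i J (![s.1 0 + k, s.1 1], m1) :=
      hV.adm n i J s (![s.1 0 + k, s.1 1], m1) hs hm1 (by
        have h9 := adm_exp hm1
        intro j
        fin_cases j
        · exact h9
        · exact le_rfl)
    have h1 := hd (![s.1 0 + k, s.1 1], m1) h0
    have h2 := hV.nar n i J s k m1
    have h3 : (T.filter fun t => L n t ∈ m1.rays 0).card ≤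
        (T.filter fun t => G.mem n i J (![s.1 0 + k, s.1 1], m1) t).card := by
      refine card_le_card fun t ht => ?_
      rw [mem_filter] at ht ⊢
      exact ⟨ht.1, (hG.mem n i J (![s.1 0 + k, s.1 1], m1) t).2 ht.2⟩
    have h4 := mul_le_mul_of_nonneg_left h2 hM
    have h5 : ((T.filter fun t => L n t ∈ m1.rays 0).card : ℝ) ≤
        ((T.filter fun t => G.mem n i J (![s.1 0 + k, s.1 1], m1) t).card : ℝ) := Nat.cast_le.2 h3
    calc ((T.filter fun t => L n t ∈ m1.rays 0).card : ℝ)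
        ≤ M * ((2 : ℝ) ^ (-(3 + q) * (k : ℝ)) * G.val n i J s) := h5.trans (h1.trans h4)
      _ = _ := by ring
  have key := share_mem as as' hρ hq0 hq2 hX0 hX (N0 := M * G.val n i J s)
    (mul_nonneg hM hV0) (L n) T
    (fun t ht => ⟨(hG.mem _ _ _ _ _).1 (hT t ht).1, (hG.mem _ _ _ _ _).1 (hT t ht).2⟩) hD0 hD
  refine key.trans (le_of_eq ?_)
  generalize (10 : ℝ) ^ 200 = K0
  ring

open Classical in
/-- NUMBER in counting form. -/
theorem number_cnt (hG : IsL G L r) {q q' X Lo : ℝ} (hV : ValD G r q q') (hq0 : 0 ≤ q')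
    (hq1 : q' ≤ 1) {n i : ℕ} {J : ℤ} {s : SL} (hs : G.adm n i J s)
    (hone : 1 ≤ Lo) (hX : 1 ≤ X) (hV0 : 0 ≤ G.val n i J s)
    (T : Finset ℕ) (hT : ∀ t ∈ T, ∃ m' : Mem, m'.Ok kM0 0 ∧ Rat Lo s.2 m' ∧ Dd s.2 m' ≤ 2 * X ∧
      (∃ r0, r0 ∈ s.2.rays 0 ∧ r0 ∈ m'.rays 0) ∧ L n t ∈ m'.rays 0) :
    Cnt G n i J T (10 ^ 40 * Lo ^ 16 * G.val n i J s * X ^ (1 + q')) := by
  intro M hM hd
  have as := hG.adm _ _ _ _ hs
  have hD : ∀ (k a1 : ℕ) (m1 : Mem), a1 + k = s.1 1 → AdmL (r n) i J ![s.1 0, a1] m1 →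
      ((T.filter fun t => L n t ∈ m1.rays 0).card : ℝ) ≤
        M * G.val n i J s * (2 : ℝ) ^ ((1 + q') * (k : ℝ)) := by
    intro k a1 m1 hk hm1
    have h0 : G.adm n i J (![s.1 0, a1], m1) :=
      hV.adm n i J s (![s.1 0, a1], m1) hs hm1 (by
        have h9 : s.1 0 ≤ a1 := adm_exp hm1
        have h8 : a1 ≤ s.1 1 := by omega
        intro j
        fin_cases j
        · exact h9.trans h8
        · exact h8)
    have h1 := hd (![s.1 0, a1], m1) h0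
    have h2 := hV.thi n i J s k a1 m1 hk
    have h3 : (T.filter fun t => L n t ∈ m1.rays 0).card ≤
        (T.filter fun t => G.mem n i J (![s.1 0, a1], m1) t).card := by
      refine card_le_card fun t ht => ?_
      rw [mem_filter] at ht ⊢
      exact ⟨ht.1, (hG.mem n i J (![s.1 0, a1], m1) t).2 ht.2⟩
    have h4 := mul_le_mul_of_nonneg_left h2 hM
    have h5 : ((T.filter fun t => L n t ∈ m1.rays 0).card : ℝ) ≤
        ((T.filter fun t => G.mem n i J (![s.1 0, a1], m1) t).card : ℝ) := Nat.cast_le.2 h3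
    calc ((T.filter fun t => L n t ∈ m1.rays 0).card : ℝ)
        ≤ M * ((2 : ℝ) ^ ((1 + q') * (k : ℝ)) * G.val n i J s) := h5.trans (h1.trans h4)
      _ = _ := by ring
  have key := number_mem (ρ := r n) as hone hX hq0 hq1 (N0 := M * G.val n i J s)
    (mul_nonneg hM hV0) (L n) T hT hD
  refine key.trans (le_of_eq ?_)
  generalize (10 : ℝ) ^ 40 = K0
  ring

/-- **`TiltGeo` for the light-ray geometry.** -/
theorem tiltGeo (h : MkA B I G lev A c Λ τ f b vm w) (hG : IsL G L r) {q q' Kt Kv : ℝ}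
    (hV : ValD G r q q') (hq0 : 0 ≤ q) (hq2 : q ≤ 2) (hq'0 : 0 ≤ q') (hq'1 : q' ≤ 1)
    (hK1 : 1 ≤ Kt)
    (ht : ∀ j, ∀ u v : ℚ, 0 ≤ u → u ≤ v → v ≤ 1 → |τ j u - τ j v| ≤ Kt * ((v : ℝ) - u))
    (hvm : ∀ u v : ℚ, 0 ≤ u → u < v → v ≤ 1 → ∀ η : ℝ, 0 < η → ∀ᶠ n in (U : Filter ℕ),
      vm n u ≤ B.d n ^ (-(Kv * ((v : ℝ) - u)) - η) * vm n v) :
    TiltGeo B G lev vm w (fun _ _ _ _ _ s s' => Dd s.2 s'.2) (q / 2 - q') (64 * Kt + Kv) := by
  intro u v hu huv hv η hη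
  have hu1 : u ≤ 1 := huv.le.trans hv
  have hv0 : 0 ≤ v := hu.trans huv.le
  have huvR : (u : ℝ) < v := by exact_mod_cast huv
  set η1 : ℝ := η / 100 with hη1
  have hη10 : 0 < η1 := by positivity
  filter_upwards [ev_rat h hG hK1 ht hu huv hv hη10, hvm u v hu huv hv η1 hη10,
    h.vpos u hu hu1, h.vpos v hv0 hv, ev_const B (10 ^ 240) hη10] with n hrat hvu pu pv k1
  obtain ⟨hone, hij, hrr, hrat⟩ := hrat
  have e2 : lo B Kt η1 u v n ^ 64 = B.d n ^ (-(64 * Kt * ((v : ℝ) - u)) - 64 * η1) := by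
    rw [lo_pow]
    norm_num
  generalize lo B Kt η1 u v n = Lo at hone hrr hrat e2
  have hLo0 : 0 < Lo := by linarith
  refine ⟨fun X => 10 ^ 40 * Lo ^ 16 * vm n u * X ^ (1 + q'),
    fun X => 10 ^ 200 * Lo ^ 48 * vm n u * X ^ (-(1 + q / 2)), ?_, ?_⟩
  · intro X hX
    have hX0 : 0 < X := by linarith
    have p1 := Real.rpow_pos_of_pos hX0 (1 + q')
    have p2 := Real.rpow_pos_of_pos hX0 (-(1 + q / 2))
    have e1 : X ^ (1 + q') * X ^ (-(1 + q / 2)) = X ^ (-(q / 2 - q')) := by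
      rw [← Real.rpow_add hX0]; congr 1; ring
    have p3 := Real.rpow_pos_of_pos hX0 (-(q / 2 - q'))
    have K240 : (10 : ℝ) ^ 240 = 10 ^ 40 * 10 ^ 200 := by rw [← pow_add]
    have K40 : (0 : ℝ) < 10 ^ 40 := by positivity
    have K200 : (0 : ℝ) < 10 ^ 200 := by positivity
    rw [K240] at k1
    generalize (10 : ℝ) ^ 40 = K1 at k1 K40 ⊢
    generalize (10 : ℝ) ^ 200 = K2 at k1 K200 ⊢
    refine ⟨by positivity, by positivity, ?_⟩
    have e3 : K1 * K2 * Lo ^ 64 * B.d n ^ (-(Kv * ((v : ℝ) - u)) - η1) ≤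
        B.d n ^ (-((64 * Kt + Kv) * ((v : ℝ) - u)) - η) := by
      rw [e2]
      calc K1 * K2 * B.d n ^ (-(64 * Kt * ((v : ℝ) - u)) - 64 * η1) *
            B.d n ^ (-(Kv * ((v : ℝ) - u)) - η1)
          ≤ B.d n ^ (-η1) * B.d n ^ (-(64 * Kt * ((v : ℝ) - u)) - 64 * η1) *
            B.d n ^ (-(Kv * ((v : ℝ) - u)) - η1) := by
            have q1 := dpos B n (-(64 * Kt * ((v : ℝ) - u)) - 64 * η1)
            have q2 := dpos B n (-(Kv * ((v : ℝ) - u)) - η1)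
            exact mul_le_mul_of_nonneg_right (mul_le_mul_of_nonneg_right k1 q1.le) q2.le
        _ = B.d n ^ (-η1 + (-(64 * Kt * ((v : ℝ) - u)) - 64 * η1) +
            (-(Kv * ((v : ℝ) - u)) - η1)) := by rw [dadd, dadd]
        _ ≤ _ := by
            apply danti
            linarith
    calc K1 * Lo ^ 16 * vm n u * X ^ (1 + q') * (K2 * Lo ^ 48 * vm n u * X ^ (-(1 + q / 2)))
        = K1 * K2 * Lo ^ 64 * (X ^ (1 + q') * X ^ (-(1 + q / 2))) * (vm n u * vm n u) := by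
          ring
      _ = K1 * K2 * Lo ^ 64 * X ^ (-(q / 2 - q')) * (vm n u * vm n u) := by rw [e1]
      _ ≤ K1 * K2 * Lo ^ 64 * X ^ (-(q / 2 - q')) *
          (vm n u * (B.d n ^ (-(Kv * ((v : ℝ) - u)) - η1) * vm n v)) := by
          refine mul_le_mul_of_nonneg_left (mul_le_mul_of_nonneg_left hvu pu.le) (by positivity)
      _ = (K1 * K2 * Lo ^ 64 * B.d n ^ (-(Kv * ((v : ℝ) - u)) - η1)) *
          (X ^ (-(q / 2 - q')) * (vm n u * vm n v)) := by ring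
      _ ≤ B.d n ^ (-((64 * Kt + Kv) * ((v : ℝ) - u)) - η) *
          (X ^ (-(q / 2 - q')) * (vm n u * vm n v)) :=
          mul_le_mul_of_nonneg_right e3 (by positivity)
      _ = _ := by ring
  · intro J J' hz s hs X hX
    have hX0 : 0 < X := by linarith
    have hval : 0 ≤ G.val n (lev n u) J s := by rw [hs.2.1]; exact pu.le
    constructor
    · intro s' hm T hT
      have key := share_cnt hG hV hq0 hq2 hs.1 hm.1.1 (hrat _ _ J J' hz s s' hs hm.1) hX0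
        hm.2.2.1 hval T hT
      rw [hs.2.1] at key
      exact key
    · intro T hT
      have key := number_cnt hG hV hq'0 hq'1 hs.1 hone hX hval T (by
        intro t ht
        obtain ⟨s', hm, hmem⟩ := hT t ht
        have hρ := hrat _ _ J J' hz s s' hs hm.1
        have as' := hG.adm _ _ _ _ hm.1.1
        obtain ⟨-, ⟨t0, g1, g2⟩, -, g3⟩ := hm
        exact ⟨s'.2, as'.ok, hρ, g3, ⟨L n t0, (hG.mem _ _ _ _ _).1 g1,
          (hG.mem _ _ _ _ _).1 g2⟩, (hG.mem _ _ _ _ _).1 hmem⟩)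
      rw [hs.2.1] at key
      exact key

open Classical in
/-- **TILT for the light-ray geometry**: helper439's `TiltL`. -/
theorem tiltL (h : MkA B I G lev A c Λ τ f b vm w) (hG : IsL G L r) {q q' Kt Kv Cc : ℝ}
    (hV : ValD G r q q') (hq0 : 0 ≤ q) (hq2 : q ≤ 2) (hq'0 : 0 ≤ q') (hq'1 : q' ≤ 1)
    (hqq : q' < q / 2) (hK1 : 1 ≤ Kt) (hKv : 0 ≤ Kv) (hCc : 0 ≤ Cc)
    (ht : ∀ j, ∀ u v : ℚ, 0 ≤ u → u ≤ v → v ≤ 1 → |τ j u - τ j v| ≤ Kt * ((v : ℝ) - u))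
    (hc : ∀ u v : ℚ, 0 ≤ u → u ≤ v → v ≤ 1 → c u - c v ≤ Cc * ((v : ℝ) - u))
    (hvm : ∀ u v : ℚ, 0 ≤ u → u < v → v ≤ 1 → ∀ η : ℝ, 0 < η → ∀ᶠ n in (U : Filter ℕ),
      vm n u ≤ B.d n ^ (-(Kv * ((v : ℝ) - u)) - η) * vm n v) :
    ∃ C : ℝ, 0 ≤ C ∧ TiltL B I L lev f b w C := by
  have hγ : 0 < q / 2 - q' := by linarith
  have hC1 : 0 ≤ 64 * Kt + Kv := by linarith
  have hgeo := tiltGeo h hG hV hq0 hq2 hq'0 hq'1 hK1 ht hvm
  set C : ℝ := (64 * Kt + Kv + Cc + 1) / (q / 2 - q') with hCdef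
  have hC : 64 * Kt + Kv + Cc + 1 ≤ C * (q / 2 - q') := by
    rw [hCdef, div_mul_cancel₀ _ hγ.ne']
  have hC0 : 0 ≤ C := div_nonneg (by linarith) hγ.le
  have key := tilt_two h hγ hC1 hCc hc hgeo hC
  refine ⟨C, hC0, fun u v hu huv hv ε hε => ?_⟩
  have hu1 : u ≤ 1 := huv.le.trans hv
  have hv0 : 0 ≤ v := hu.trans huv.le
  obtain ⟨ξ, hξ, hN⟩ := key u v hu huv hv ε hε
  refine ⟨ξ, hξ, ?_⟩
  filter_upwards [hN, mark_L h hG hv0 hv] with n h1 h2
  refine le_trans (Nat.cast_le.2 (card_le_card fun x hx => ?_)) h1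
  rw [mem_filter] at hx ⊢
  refine ⟨hx.1, ?_⟩
  have h3 := h2 x hx.1
  refine le_Dd (m := mkL lev f b n u x) (m' := mkL lev f b n v x) h3.ok h3.ray h3.z
    (fun σ hσ => ?_)
  have h4 := hx.2 σ hσ
  rw [h3.wide, h3.thin, h3.R]
  exact h4

end

end Crest.Agent.R116.Td809
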