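import Crest.Agent.R116.Td6_809

/-!
# R116, K side, TILT, part 7 (helper809): the literal of KTopA_387

`tilt_par` : TILT of every window over `geoP (cut K0 (R n) (TSL (r n))) (Psi p w μ q) mt atop L`
under helper635's `Par`, `η < 1/2`, `q ≤ 8`; `TiltP` = helper387's Prop, `tiltP`.
-/

set_option autoImplicit false
set_option linter.unusedVariables false

open Finset Filter Topology

namespace Crest.Agent.R116.Td809

open Crest.Agent.R138.Ex926 (Base U)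
open Crest.Agent.R136.MkA627
open Crest.Agent.R116.LZg725
open Crest.Agent.R116.KI439
open Crest.Agent.R116.KF439
open Crest.Agent.R116.Xc794 (geoP cut)
open Crest.Agent.R116.Psi2635 (Par)

/-- **TILT of the cut windows under the numerical relations `Par`.** -/
theorem tilt_par {η b0 : ℝ} {p wt : Fin 2 → ℝ} {μ q0 g0 κ : ℝ} (hP : Par η b0 p wt μ q0 g0 κ)
    (hη : η < 1 / 2) {q : ℝ} (hq : 0 ≤ q) (hq8 : q ≤ 8) {K0 : ℕ} {B : Base}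
    {I : ℕ → Finset (ℕ × ℝ)} {R : ℕ → ℕ} {r : ℕ → ℝ} {mt : ℕ → ℕ} {atop : ℕ → Fin 2 → ℕ}
    {L : ℕ → ℕ → LRay} {lev : ℕ → ℚ → ℕ} {A : ℕ → ℝ} {g : ℝ} {Λ : ℝ → ℝ} {θ : Fin 2 → ℝ}
    {f : ℕ → ℚ → ℕ → ℤ → ℕ} {b : ℕ → ℚ → ℕ → SL} {vm : ℕ → ℚ → ℝ} {w : Fin 2 → ℕ → ℚ → ℝ}
    (h : MkA B I (geoP (fun n => cut K0 (R n) (TSL (r n))) (Psi635.Psi p wt μ q) mt atop L) lev A
      (fun v => g * v) Λ (fun j v => θ j * (1 - v)) f b vm w) :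
    ∃ C : ℝ, 0 ≤ C ∧ TiltL B I L lev f b w C := by
  have hw : ∀ j, 0 ≤ wt j := by
    intro j
    fin_cases j
    · show 0 ≤ wt 0; rw [hP.cw0]; norm_num
    · exact hP.cw1.le
  have hμ := hP.cm0
  have hμ1 := hP.cm1
  have hw1 := hP.cw1
  have h0 := hP.cp0
  have h1 := hP.cp1
  have a1 : q * μ ≤ 8 * μ := mul_le_mul_of_nonneg_right hq8 hμ.le
  have a2 : q * wt 1 ≤ 8 * wt 1 := mul_le_mul_of_nonneg_right hq8 hw1.le
  refine tiltL_Psi (qn := p 0 / 2) (qt := 2 * p 1) hw hμ.le (by linarith) hq ?_ ?_ (by linarith)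
    ?_ ?_ h (fun n => td_cut K0 (R n) (r n))
  · rw [hP.cw0, mul_one]
    have := hP.cmp
    linarith
  · have := hP.cp0'
    linarith
  · have := hP.cwp
    linarith
  · have := hP.cep
    have h2 : η * (p 0 / 2) < 1 / 2 * (p 0 / 2) := mul_lt_mul_of_pos_right hη (by linarith)
    linarith

/-- helper387's literal (any `Λ` allowed here). -/
def TiltP (K0 : ℕ) (Ψ : ℝ → (Fin 2 → ℝ) → ℝ) (θ : Fin 2 → ℝ) : Prop :=
  ∀ (B : Base) (I : ℕ → Finset (ℕ × ℝ)) (R : ℕ → ℕ) (r : ℕ → ℝ) (mt : ℕ → ℕ)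
    (atop : ℕ → Fin 2 → ℕ) (L : ℕ → ℕ → LRay) (lev : ℕ → ℚ → ℕ) (A : ℕ → ℝ) (g s : ℝ)
    (f : ℕ → ℚ → ℕ → ℤ → ℕ) (b : ℕ → ℚ → ℕ → SL) (vm : ℕ → ℚ → ℝ) (w : Fin 2 → ℕ → ℚ → ℝ),
    (∀ n, r n ≤ (1 / 2 : ℝ) ^ (R n)) →
    MkA B I (geoP (fun n => cut K0 (R n) (TSL (r n))) Ψ mt atop L) lev A (fun v => g * v)
      (fun v => s * v) (fun j v => θ j * (1 - v)) f b vm w →
    ∃ C : ℝ, TiltL B I L lev f b w C

theorem tiltP {η b0 : ℝ} {p wt : Fin 2 → ℝ} {μ q0 g0 κ : ℝ} (hP : Par η b0 p wt μ q0 g0 κ)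
    (hη : η < 1 / 2) {q : ℝ} (hq : 0 ≤ q) (hq8 : q ≤ 8) (K0 : ℕ) (θ : Fin 2 → ℝ) :
    TiltP K0 (Psi635.Psi p wt μ q) θ := by
  intro B I R r mt atop L lev A g s f b vm w hr h
  obtain ⟨C, -, hC⟩ := tilt_par hP hη hq hq8 h
  exact ⟨C, hC⟩

end Crest.Agent.R116.Td809
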